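import Crest.Agent.R096.BelB_205

/-!
Row 96, P5 / C3-BEL: the Neumann series `κ ↦ μ ∂P κ` inside `C_c^∞`, with sup norm control.
-/

open Set Metric MeasureTheory Filter Topology
open scoped ContDiff NNReal Real ComplexConjugate
open Crest.Agent.R096.BelA_205 Crest.Agent.R096.BelB_205

namespace Crest.Agent.R096.BelC_205

noncomputable section

theorem dd_mul {a b : ℂ → ℂ} (ha : Differentiable ℝ a) (hb : Differentiable ℝ b) (v z : ℂ) :
    dd v (fun z => a z * b z) z = dd v a z * b z + a z * dd v b z := by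
  unfold dd
  rw [fderiv_fun_mul (ha z) (hb z)]
  simp only [ContinuousLinearMap.add_apply, ContinuousLinearMap.smul_apply, smul_eq_mul]
  ring

theorem dd_add {a b : ℂ → ℂ} (ha : Differentiable ℝ a) (hb : Differentiable ℝ b) (v z : ℂ) :
    dd v (fun z => a z + b z) z = dd v a z + dd v b z := by
  unfold dd
  rw [fderiv_fun_add (ha z) (hb z)]; simp

theorem dd_dz {u : ℂ → ℂ} (h : ContDiff ℝ ∞ u) (v z : ℂ) : dd v (dz u) z = dz (dd v u) z := by
  have h1 : Differentiable ℝ (dd 1 u) := (contDiff_dd h 1).differentiable (by simp)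
  have h2 : Differentiable ℝ (dd Complex.I u) := (contDiff_dd h _).differentiable (by simp)
  have e : dd v (dz u) z = (dd v (dd 1 u) z - Complex.I * dd v (dd Complex.I u) z) / 2 := by
    have h3 : HasFDerivAt (dz u) ((2:ℂ)⁻¹ • (fderiv ℝ (dd 1 u) z
        - Complex.I • fderiv ℝ (dd Complex.I u) z)) z := by
      have h4 := ((h1 z).hasFDerivAt.sub ((h2 z).hasFDerivAt.const_mul Complex.I)).const_mul (2:ℂ)⁻¹
      refine h4.congr_of_eventuallyEq (Eventually.of_forall fun y => ?_)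
      simp only [dz]
      rw [div_eq_inv_mul]
      rfl
    unfold dd at *
    rw [h3.fderiv]
    simp only [ContinuousLinearMap.smul_apply, ContinuousLinearMap.sub_apply, smul_eq_mul]
    ring
  rw [e, dd_comm h v 1, dd_comm h v Complex.I]
  rfl

theorem dd_S {R : ℝ} {u : ℂ → ℂ} (h : Tst R u) (v : ℂ) : dd v (dz (P u)) = dz (P (dd v u)) := by
  ext z
  rw [dz_P h, dd_P h.dz, dz_P (h.dd v)]
  congr 1
  ext y
  exact dd_dz h.smooth v y

/-- `T κ = μ ∂Pκ` -/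
def T (μ u : ℂ → ℂ) (z : ℂ) : ℂ := μ z * dz (P u) z

theorem smooth_S {R : ℝ} {u : ℂ → ℂ} (h : Tst R u) : ContDiff ℝ ∞ (dz (P u)) := by
  rw [dz_P h]; exact P_smooth h.dz

theorem tst_T {R R' : ℝ} {μ u : ℂ → ℂ} (hμ : Tst R μ) (h : Tst R' u) : Tst R (T μ u) :=
  hμ.mul (smooth_S h)

theorem dd_T {R R' : ℝ} {μ u : ℂ → ℂ} (hμ : Tst R μ) (h : Tst R' u) (v : ℂ) :
    dd v (T μ u) = fun z => dd v μ z * dz (P u) z + μ z * dz (P (dd v u)) z := by
  ext z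
  unfold T
  rw [dd_mul hμ.diff ((smooth_S h).differentiable (by simp)), dd_S h]

theorem dd_dd_T {R R' : ℝ} {μ u : ℂ → ℂ} (hμ : Tst R μ) (h : Tst R' u) (v w z : ℂ) :
    dd w (dd v (T μ u)) z = (dd w (dd v μ) z * dz (P u) z + dd v μ z * dz (P (dd w u)) z)
      + (dd w μ z * dz (P (dd v u)) z + μ z * dz (P (dd w (dd v u))) z) := by
  have hS : Differentiable ℝ (dz (P u)) := (smooth_S h).differentiable (by simp)
  have hSv : Differentiable ℝ (dz (P (dd v u))) := (smooth_S (h.dd v)).differentiable (by simp)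
  have h1 : Differentiable ℝ (fun z => dd v μ z * dz (P u) z) := (hμ.dd v).diff.mul hS
  have h2 : Differentiable ℝ (fun z => μ z * dz (P (dd v u)) z) := hμ.diff.mul hSv
  rw [dd_T hμ h, dd_add h1 h2,
    dd_mul (hμ.dd v).diff hS, dd_mul hμ.diff hSv, dd_S h, dd_S (h.dd v)]

/-- square integral -/
def A (u : ℂ → ℂ) : ℝ := ∫ z, ‖u z‖ ^ 2

theorem A_nonneg (u : ℂ → ℂ) : 0 ≤ A u := integral_nonneg fun _ => by positivity

theorem A_S {R : ℝ} {u : ℂ → ℂ} (h : Tst R u) : A (dz (P u)) = A u := BelB_205.isometry h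

theorem norm_add_sq_le (ε : ℝ) (hε : 0 < ε) (a b : ℂ) :
    ‖a + b‖ ^ 2 ≤ (1 + ε) * ‖b‖ ^ 2 + (1 + ε⁻¹) * ‖a‖ ^ 2 := by
  have h1 : ‖a + b‖ ^ 2 ≤ (‖a‖ + ‖b‖) ^ 2 := by
    gcongr; exact norm_add_le _ _
  have h2 : 2 * ‖a‖ * ‖b‖ ≤ ε * ‖b‖ ^ 2 + ε⁻¹ * ‖a‖ ^ 2 := by
    have h3 : 0 ≤ ε⁻¹ * (‖a‖ - ε * ‖b‖) ^ 2 := by positivity
    have h4 : ε⁻¹ * (‖a‖ - ε * ‖b‖) ^ 2 = ε⁻¹ * ‖a‖ ^ 2 - 2 * ‖a‖ * ‖b‖ + ε * ‖b‖ ^ 2 := by
      field_simp; ring
    linarith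
  nlinarith [h1, h2]

section estimates

variable {R : ℝ} {μ u : ℂ → ℂ} {k M ε : ℝ}

theorem A_T (hμ : Tst R μ) (h : Tst R u) (hk : ∀ z, ‖μ z‖ ≤ k) : A (T μ u) ≤ k ^ 2 * A u := by
  rw [← A_S h]
  unfold A
  rw [← integral_const_mul]
  apply integral_mono (sq_integrable (tst_T hμ h)) ((integrable_sq_P h).const_mul _)
  intro z
  simp only [T, norm_mul, mul_pow]
  gcongr
  exact hk z

theorem A_le_of {v : ℂ → ℂ} (hv : Tst R v) {f : ℂ → ℝ} (hf : Integrable f)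
    (h : ∀ z, ‖v z‖ ^ 2 ≤ f z) : A v ≤ ∫ z, f z :=
  integral_mono (sq_integrable hv) hf h

theorem A_dd_T (hμ : Tst R μ) (h : Tst R u) (hk : ∀ z, ‖μ z‖ ≤ k) (hε : 0 < ε) (v : ℂ)
    (hM : ∀ z, ‖dd v μ z‖ ≤ M) :
    A (dd v (T μ u)) ≤ (1 + ε) * k ^ 2 * A (dd v u) + (1 + ε⁻¹) * M ^ 2 * A u := by
  have i0 := integrable_sq_P h
  have iv := integrable_sq_P (h.dd v)
  have hi : Integrable fun z => (1 + ε) * k ^ 2 * ‖dz (P (dd v u)) z‖ ^ 2
      + (1 + ε⁻¹) * M ^ 2 * ‖dz (P u) z‖ ^ 2 := (iv.const_mul _).add (i0.const_mul _)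
  refine (A_le_of ((tst_T hμ h).dd v) hi ?_).trans (le_of_eq ?_)
  · intro z
    simp only [dd_T hμ h v]
    refine (norm_add_sq_le ε hε _ _).trans ?_
    simp only [norm_mul, mul_pow]
    have h1 : ‖μ z‖ ^ 2 ≤ k ^ 2 := by gcongr; exact hk z
    have h2 : ‖dd v μ z‖ ^ 2 ≤ M ^ 2 := by gcongr; exact hM z
    calc (1 + ε) * (‖μ z‖ ^ 2 * ‖dz (P (dd v u)) z‖ ^ 2)
          + (1 + ε⁻¹) * (‖dd v μ z‖ ^ 2 * ‖dz (P u) z‖ ^ 2)
        ≤ (1 + ε) * (k ^ 2 * ‖dz (P (dd v u)) z‖ ^ 2)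
          + (1 + ε⁻¹) * (M ^ 2 * ‖dz (P u) z‖ ^ 2) := by gcongr
      _ = _ := by ring
  · rw [integral_add (iv.const_mul _) (i0.const_mul _), integral_const_mul, integral_const_mul]
    rw [← A_S h, ← A_S (h.dd v)]
    rfl

theorem A_dd_dd_T (hμ : Tst R μ) (h : Tst R u) (hk : ∀ z, ‖μ z‖ ≤ k) (hε : 0 < ε) (v w : ℂ)
    (hM : ∀ z, ‖dd v μ z‖ ≤ M) (hM' : ∀ z, ‖dd w μ z‖ ≤ M) (hM2 : ∀ z, ‖dd w (dd v μ) z‖ ≤ M) :
    A (dd w (dd v (T μ u))) ≤ (1 + ε) * k ^ 2 * A (dd w (dd v u))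
      + 3 * (1 + ε⁻¹) * M ^ 2 * (A u + A (dd v u) + A (dd w u)) := by
  have i0 := integrable_sq_P h
  have iv := integrable_sq_P (h.dd v)
  have iw := integrable_sq_P (h.dd w)
  have ivw := integrable_sq_P ((h.dd v).dd w)
  have i2 : Integrable fun z => ‖dz (P u) z‖ ^ 2 + ‖dz (P (dd v u)) z‖ ^ 2 := i0.add iv
  have i3 : Integrable fun z => ‖dz (P u) z‖ ^ 2 + ‖dz (P (dd v u)) z‖ ^ 2
      + ‖dz (P (dd w u)) z‖ ^ 2 := i2.add iw
  have hi : Integrable fun z => (1 + ε) * k ^ 2 * ‖dz (P (dd w (dd v u))) z‖ ^ 2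
      + 3 * (1 + ε⁻¹) * M ^ 2 * (‖dz (P u) z‖ ^ 2 + ‖dz (P (dd v u)) z‖ ^ 2
        + ‖dz (P (dd w u)) z‖ ^ 2) := (ivw.const_mul _).add (i3.const_mul _)
  refine (A_le_of (((tst_T hμ h).dd v).dd w) hi ?_).trans (le_of_eq ?_)
  · intro z
    rw [dd_dd_T hμ h v w z]
    generalize dz (P u) z = a0
    generalize dz (P (dd v u)) z = av
    generalize dz (P (dd w u)) z = aw
    generalize dz (P (dd w (dd v u))) z = avw
    have e : (dd w (dd v μ) z * a0 + dd v μ z * aw) + (dd w μ z * av + μ z * avw)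
        = (dd w (dd v μ) z * a0 + dd v μ z * aw + dd w μ z * av) + μ z * avw := by ring
    rw [e]
    refine (norm_add_sq_le ε hε _ _).trans ?_
    have h1 : ‖μ z * avw‖ ^ 2 ≤ k ^ 2 * ‖avw‖ ^ 2 := by
      rw [norm_mul, mul_pow]; gcongr; exact hk z
    have h2 : ‖dd w (dd v μ) z * a0 + dd v μ z * aw + dd w μ z * av‖ ^ 2
        ≤ 3 * M ^ 2 * (‖a0‖ ^ 2 + ‖av‖ ^ 2 + ‖aw‖ ^ 2) := by
      have hM0 : 0 ≤ M := (norm_nonneg _).trans (hM 0)
      have t : ‖dd w (dd v μ) z * a0 + dd v μ z * aw + dd w μ z * av‖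
          ≤ M * (‖a0‖ + ‖aw‖ + ‖av‖) := by
        have t0 := norm_add_le (dd w (dd v μ) z * a0 + dd v μ z * aw) (dd w μ z * av)
        have t00 := norm_add_le (dd w (dd v μ) z * a0) (dd v μ z * aw)
        rw [norm_mul] at t0
        rw [norm_mul, norm_mul] at t00
        have t1 := mul_le_mul_of_nonneg_right (hM2 z) (norm_nonneg a0)
        have t2 := mul_le_mul_of_nonneg_right (hM z) (norm_nonneg aw)
        have t3 := mul_le_mul_of_nonneg_right (hM' z) (norm_nonneg av)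
        linarith
      calc _ ≤ (M * (‖a0‖ + ‖aw‖ + ‖av‖)) ^ 2 := by gcongr
        _ = M ^ 2 * (‖a0‖ + ‖aw‖ + ‖av‖) ^ 2 := by ring
        _ ≤ M ^ 2 * (3 * (‖a0‖ ^ 2 + ‖av‖ ^ 2 + ‖aw‖ ^ 2)) := by
            gcongr
            nlinarith [sq_nonneg (‖a0‖ - ‖aw‖), sq_nonneg (‖a0‖ - ‖av‖), sq_nonneg (‖aw‖ - ‖av‖)]
        _ = _ := by ring
    calc (1 + ε) * ‖μ z * avw‖ ^ 2
          + (1 + ε⁻¹) * ‖dd w (dd v μ) z * a0 + dd v μ z * aw + dd w μ z * av‖ ^ 2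
        ≤ (1 + ε) * (k ^ 2 * ‖avw‖ ^ 2)
          + (1 + ε⁻¹) * (3 * M ^ 2 * (‖a0‖ ^ 2 + ‖av‖ ^ 2 + ‖aw‖ ^ 2)) := by gcongr
      _ = _ := by ring
  · rw [integral_add (ivw.const_mul _) (i3.const_mul _), integral_const_mul, integral_const_mul,
      integral_add i2 iw, integral_add i0 iv]
    rw [← A_S h, ← A_S (h.dd v), ← A_S (h.dd w), ← A_S ((h.dd v).dd w)]
    rfl

end estimates

theorem real_W {a0 a1 a2 a3 b0 b1 b2 b3 L C q0 q : ℝ} (n0 : 0 ≤ a0) (n1 : 0 ≤ a1) (n2 : 0 ≤ a2)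
    (n3 : 0 ≤ a3) (hC0 : 0 ≤ C) (hd : 0 < q - q0) (hL1 : 1 ≤ L) (hL3 : 3 * C ≤ L * (q - q0))
    (h0 : b0 ≤ q0 * a0) (h1 : b1 ≤ q0 * a1 + C * a0) (h2 : b2 ≤ q0 * a2 + C * a0)
    (h3 : b3 ≤ q0 * a3 + C * (a0 + a1 + a2)) :
    b3 + L * (b1 + b2) + L ^ 2 * b0 ≤ q * (a3 + L * (a1 + a2) + L ^ 2 * a0) := by
  have hLpos : 0 < L := by linarith
  have c1 : C ≤ L * (q - q0) := by linarith
  have c2 : C + 2 * L * C ≤ L ^ 2 * (q - q0) := by
    have : L ^ 2 * (q - q0) = L * (L * (q - q0)) := by ring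
    rw [this]
    have h5 : L * (3 * C) ≤ L * (L * (q - q0)) := mul_le_mul_of_nonneg_left hL3 hLpos.le
    have h6 : 1 * C ≤ L * C := mul_le_mul_of_nonneg_right hL1 hC0
    linarith
  have d1 := mul_le_mul_of_nonneg_left (add_le_add h1 h2) hLpos.le
  have d0 := mul_le_mul_of_nonneg_left h0 (sq_nonneg L)
  have f1 := mul_le_mul_of_nonneg_right c1 (add_nonneg n1 n2)
  have f2 := mul_le_mul_of_nonneg_right c2 n0
  have f3 : q0 * a3 ≤ q * a3 := mul_le_mul_of_nonneg_right (by linarith) n3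
  linarith

/-- weighted quantity -/
def W (L : ℝ) (u : ℂ → ℂ) : ℝ :=
  A (dd Complex.I (dd 1 u)) + L * (A (dd 1 u) + A (dd Complex.I u)) + L ^ 2 * A u

theorem exists_W {R : ℝ} {μ : ℂ → ℂ} {k : ℝ} (hμ : Tst R μ) (hk : ∀ z, ‖μ z‖ ≤ k) (hk1 : k < 1) :
    ∃ L q : ℝ, 1 ≤ L ∧ 0 < q ∧ q < 1 ∧ ∀ u, Tst R u → W L (T μ u) ≤ q * W L u := by
  have hk0 : 0 ≤ k := (norm_nonneg _).trans (hk 0)
  -- bounds for derivatives
  have hb : ∀ w : ℂ → ℂ, Tst R w → ∃ M, ∀ z, ‖w z‖ ≤ M := by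
    intro w hw
    obtain ⟨M, hM⟩ := hw.cont.bounded_above_of_compact_support hw.compact
    exact ⟨M, hM⟩
  obtain ⟨M1, hM1⟩ := hb _ (hμ.dd 1)
  obtain ⟨M2, hM2⟩ := hb _ (hμ.dd Complex.I)
  obtain ⟨M3, hM3⟩ := hb _ ((hμ.dd 1).dd Complex.I)
  set M := max M1 (max M2 M3) with hM
  have hM1' : ∀ z, ‖dd 1 μ z‖ ≤ M := fun z => (hM1 z).trans (le_max_left _ _)
  have hM2' : ∀ z, ‖dd Complex.I μ z‖ ≤ M :=
    fun z => (hM2 z).trans ((le_max_left _ _).trans (le_max_right _ _))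
  have hM3' : ∀ z, ‖dd Complex.I (dd 1 μ) z‖ ≤ M :=
    fun z => (hM3 z).trans ((le_max_right _ _).trans (le_max_right _ _))
  -- choose ε
  obtain ⟨ε, hε, hεq⟩ : ∃ ε : ℝ, 0 < ε ∧ (1 + ε) * k ^ 2 < 1 := by
    refine ⟨(1 - k ^ 2) / 2, ?_, ?_⟩
    · nlinarith
    · nlinarith [sq_nonneg (k ^ 2 - 1), sq_nonneg k]
  set q0 := (1 + ε) * k ^ 2 with hq0
  set C := 3 * (1 + ε⁻¹) * M ^ 2 with hC
  have hC0 : 0 ≤ C := by positivity
  set q := (1 + q0) / 2 with hq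
  have hq00 : 0 ≤ q0 := by positivity
  have hd : 0 < q - q0 := by rw [hq]; linarith
  set L := 1 + 3 * C / (q - q0) with hL
  have hL1 : 1 ≤ L := by
    have : 0 ≤ 3 * C / (q - q0) := by positivity
    linarith
  have hL3 : 3 * C ≤ L * (q - q0) := by
    have : L * (q - q0) = (q - q0) + 3 * C := by rw [hL]; field_simp
    linarith
  refine ⟨L, q, hL1, by rw [hq]; linarith, by rw [hq]; linarith, fun u hu => ?_⟩
  have a0 := A_T hμ hu hk
  have a1 := A_dd_T hμ hu hk hε 1 hM1'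
  have a2 := A_dd_T hμ hu hk hε Complex.I hM2'
  have a3 := A_dd_dd_T hμ hu hk hε 1 Complex.I hM1' hM2' hM3'
  have n0 := A_nonneg u
  have n1 := A_nonneg (dd 1 u)
  have n2 := A_nonneg (dd Complex.I u)
  have n3 := A_nonneg (dd Complex.I (dd 1 u))
  have hc1 : (1 + ε⁻¹) * M ^ 2 ≤ C := by
    have : 0 ≤ (1 + ε⁻¹) * M ^ 2 := by positivity
    rw [hC]; linarith
  have b0 : A (T μ u) ≤ q0 * A u := by
    refine a0.trans ?_
    apply mul_le_mul_of_nonneg_right _ n0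
    rw [hq0]; nlinarith [sq_nonneg k]
  have b1 : A (dd 1 (T μ u)) ≤ q0 * A (dd 1 u) + C * A u :=
    a1.trans (by have := mul_le_mul_of_nonneg_right hc1 n0; linarith)
  have b2 : A (dd Complex.I (T μ u)) ≤ q0 * A (dd Complex.I u) + C * A u :=
    a2.trans (by have := mul_le_mul_of_nonneg_right hc1 n0; linarith)
  have b3 : A (dd Complex.I (dd 1 (T μ u))) ≤ q0 * A (dd Complex.I (dd 1 u))
      + C * (A u + A (dd 1 u) + A (dd Complex.I u)) := a3
  exact real_W n0 n1 n2 n3 hC0 hd hL1 hL3 b0 b1 b2 b3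

/-- one dimensional: `|g x| ≤ ∫ |g'|` -/
theorem one_dim {g g' : ℝ → ℂ} (hg : ∀ x, HasDerivAt g (g' x) x) (hc : Continuous g') {R : ℝ}
    (h0 : ∀ x, R < |x| → g x = 0) (h0' : ∀ x, R < |x| → g' x = 0) (x : ℝ) :
    ‖g x‖ ≤ ∫ t, ‖g' t‖ := by
  have hi : Integrable g' := by
    apply hc.integrable_of_hasCompactSupport
    apply HasCompactSupport.intro (isCompact_Icc (a := -R) (b := R))
    intro y hy
    apply h0'
    by_contra h
    push Not at h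
    exact hy (abs_le.1 h)
  have hl : Tendsto g atBot (𝓝 0) := by
    apply tendsto_const_nhds.congr'
    filter_upwards [eventually_lt_atBot (-|R|)] with y hy
    refine (h0 y ?_).symm
    have h1 : |R| < |y| := by
      rw [abs_of_neg (a := y) (by linarith [abs_nonneg R])]
      linarith
    exact lt_of_le_of_lt (le_abs_self R) h1
  have h1 := integral_Iic_of_hasDerivAt_of_tendsto' (a := x) (fun y _ => hg y) hi.integrableOn hl
  rw [sub_zero] at h1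
  rw [← h1]
  refine (norm_integral_le_integral_norm _).trans ?_
  exact setIntegral_le_integral hi.norm (Eventually.of_forall fun _ => norm_nonneg _)

/-- `|u| ≤ ∫ |u_xy|` -/
theorem sup_le {R : ℝ} {u : ℂ → ℂ} (h : Tst R u) (z : ℂ) :
    ‖u z‖ ≤ ∫ ζ, ‖dd Complex.I (dd 1 u) ζ‖ := by
  have hx : ∀ (y x : ℝ), HasDerivAt (fun x : ℝ => u (x + y * Complex.I))
      (dd 1 u (x + y * Complex.I)) x := by
    intro y x
    have h2 : HasDerivAt (fun x : ℝ => (x:ℂ) + y * Complex.I) 1 x := by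
      simpa using (Complex.ofRealCLM.hasDerivAt (x := x)).add_const ((y:ℂ) * Complex.I)
    exact (h.diff _).hasFDerivAt.comp_hasDerivAt x h2
  have hy : ∀ (x y : ℝ), HasDerivAt (fun y : ℝ => dd 1 u (x + y * Complex.I))
      (dd Complex.I (dd 1 u) (x + y * Complex.I)) y := by
    intro x y
    have h2 : HasDerivAt (fun y : ℝ => (x:ℂ) + y * Complex.I) Complex.I y := by
      have h3 := ((Complex.ofRealCLM.hasDerivAt (x := y)).mul_const Complex.I).const_add (x:ℂ)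
      simpa using h3
    exact ((h.dd 1).diff _).hasFDerivAt.comp_hasDerivAt y h2
  have hn1 : ∀ x y : ℝ, |x| ≤ ‖(x:ℂ) + y * Complex.I‖ := by
    intro x y
    simpa using Complex.abs_re_le_norm ((x:ℂ) + y * Complex.I)
  have hn2 : ∀ x y : ℝ, |y| ≤ ‖(x:ℂ) + y * Complex.I‖ := by
    intro x y
    simpa using Complex.abs_im_le_norm ((x:ℂ) + y * Complex.I)
  have hD := (h.dd 1)
  have hDD := (hD.dd Complex.I)
  have s1 : ∀ x y : ℝ, ‖u (x + y * Complex.I)‖ ≤ ∫ t : ℝ, ‖dd 1 u (t + y * Complex.I)‖ := by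
    intro x y
    exact one_dim (hx y) (hD.cont.comp (by fun_prop))
      (fun t ht => h.zero _ (lt_of_lt_of_le ht (hn1 t y)))
      (fun t ht => hD.zero _ (lt_of_lt_of_le ht (hn1 t y))) x
  have s2 : ∀ x y : ℝ, ‖dd 1 u (x + y * Complex.I)‖
      ≤ ∫ s : ℝ, ‖dd Complex.I (dd 1 u) (x + s * Complex.I)‖ := by
    intro x y
    exact one_dim (hy x) (hDD.cont.comp (by fun_prop))
      (fun t ht => hD.zero _ (lt_of_lt_of_le ht (hn2 x t)))
      (fun t ht => hDD.zero _ (lt_of_lt_of_le ht (hn2 x t))) y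
  have hI : Integrable (fun p : ℝ × ℝ => ‖dd Complex.I (dd 1 u) (p.1 + p.2 * Complex.I)‖) := by
    apply Continuous.integrable_of_hasCompactSupport
    · exact (hDD.cont.comp (by fun_prop)).norm
    · apply HasCompactSupport.intro ((isCompact_Icc (a := -R) (b := R)).prod
        (isCompact_Icc (a := -R) (b := R)))
      rintro ⟨x, y⟩ hxy
      rw [norm_eq_zero]
      apply hDD.zero
      by_contra hcon
      push Not at hcon
      apply hxy
      exact ⟨abs_le.1 ((hn1 x y).trans hcon), abs_le.1 ((hn2 x y).trans hcon)⟩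
  have hz : z = (z.re : ℂ) + z.im * Complex.I := (Complex.re_add_im z).symm
  have s3 : ‖u z‖ ≤ ∫ t : ℝ, ‖dd 1 u (t + z.im * Complex.I)‖ := by
    conv_lhs => rw [hz]
    exact s1 _ _
  refine s3.trans ?_
  have s4 : ∫ t : ℝ, ‖dd 1 u (t + z.im * Complex.I)‖
      ≤ ∫ t : ℝ, ∫ s : ℝ, ‖dd Complex.I (dd 1 u) (t + s * Complex.I)‖ := by
    apply integral_mono_of_nonneg (Eventually.of_forall fun _ => norm_nonneg _)
    · rw [Measure.volume_eq_prod] at hI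
      exact hI.integral_prod_left
    · exact Eventually.of_forall fun t => s2 t _
  refine s4.trans (le_of_eq ?_)
  rw [Measure.volume_eq_prod] at hI
  rw [← integral_prod _ hI, ← Measure.volume_eq_prod]
  have := Complex.volume_preserving_equiv_real_prod.symm.integral_comp
    Complex.measurableEquivRealProd.symm.measurableEmbedding
    (fun ζ => ‖dd Complex.I (dd 1 u) ζ‖)
  rw [← this]
  congr 1
  ext p
  congr 2
  apply Complex.ext <;> simp

theorem int_le_sq {R : ℝ} {v : ℂ → ℂ} (h : Tst R v) {t : ℝ} (ht : 0 < t) :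
    ∫ z, ‖v z‖ ≤ (t * volume.real (closedBall (0:ℂ) R) + t⁻¹ * A v) / 2 := by
  have h1 : ∫ ζ, ‖v ζ‖ = ∫ ζ in closedBall (0:ℂ) R, ‖v ζ‖ := by
    rw [setIntegral_eq_integral_of_forall_compl_eq_zero]
    intro ζ hζ
    rw [h.zero ζ (by simpa using hζ)]; simp
  rw [h1]
  have hc : IntegrableOn (fun _ : ℂ => t / 2) (closedBall (0:ℂ) R) :=
    integrableOn_const (measure_closedBall_lt_top.ne) (by simp)
  have h2 : ∫ ζ in closedBall (0:ℂ) R, ‖v ζ‖
      ≤ ∫ ζ in closedBall (0:ℂ) R, (t / 2 + t⁻¹ / 2 * ‖v ζ‖ ^ 2) := by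
    apply setIntegral_mono h.integrable.norm.integrableOn
    · exact hc.add ((sq_integrable h).const_mul _).integrableOn
    · intro z
      have h3 : 0 ≤ t⁻¹ * (‖v z‖ - t) ^ 2 := by positivity
      have h4 : t⁻¹ * (‖v z‖ - t) ^ 2 = t⁻¹ * ‖v z‖ ^ 2 - 2 * ‖v z‖ + t := by
        field_simp; ring
      simp only
      linarith
  refine h2.trans ?_
  rw [integral_add hc ((sq_integrable h).const_mul _).integrableOn, setIntegral_const,
    integral_const_mul]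
  have h5 : ∫ ζ in closedBall (0:ℂ) R, ‖v ζ‖ ^ 2 ≤ A v :=
    setIntegral_le_integral (sq_integrable h) (Eventually.of_forall fun _ => by positivity)
  have h6 : t⁻¹ / 2 * ∫ ζ in closedBall (0:ℂ) R, ‖v ζ‖ ^ 2 ≤ t⁻¹ / 2 * A v :=
    mul_le_mul_of_nonneg_left h5 (by positivity)
  rw [smul_eq_mul]
  linarith

/-- **exponential decay of the Neumann iterates in the sup norm** -/
theorem decay_T {R : ℝ} {μ u₀ : ℂ → ℂ} {k : ℝ} (hμ : Tst R μ) (hk : ∀ z, ‖μ z‖ ≤ k) (hk1 : k < 1)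
    (hu : Tst R u₀) :
    ∃ C ρ : ℝ, 0 ≤ C ∧ 0 < ρ ∧ ρ < 1 ∧ (∀ n, Tst R ((T μ)^[n] u₀)) ∧
      ∀ n z, ‖(T μ)^[n] u₀ z‖ ≤ C * ρ ^ n := by
  obtain ⟨L, q, hL1, hq0, hq1, hW⟩ := exists_W hμ hk hk1
  have hT : ∀ n, Tst R ((T μ)^[n] u₀) := by
    intro n
    induction n with
    | zero => exact hu
    | succ n ih => rw [Function.iterate_succ_apply']; exact tst_T hμ ih
  have hWn : ∀ n, W L ((T μ)^[n] u₀) ≤ q ^ n * W L u₀ := by
    intro n
    induction n with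
    | zero => simp
    | succ n ih =>
      rw [Function.iterate_succ_apply', pow_succ]
      calc W L (T μ ((T μ)^[n] u₀)) ≤ q * W L ((T μ)^[n] u₀) := hW _ (hT n)
        _ ≤ q * (q ^ n * W L u₀) := mul_le_mul_of_nonneg_left ih hq0.le
        _ = q ^ n * q * W L u₀ := by ring
  have hW0 : 0 ≤ W L u₀ := by
    unfold W
    have := A_nonneg u₀
    have := A_nonneg (dd 1 u₀)
    have := A_nonneg (dd Complex.I u₀)
    have := A_nonneg (dd Complex.I (dd 1 u₀))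
    positivity
  set V := volume.real (closedBall (0:ℂ) R) with hV
  have hV0 : 0 ≤ V := by positivity
  refine ⟨(V + W L u₀) / 2, √q, by positivity, Real.sqrt_pos.2 hq0, ?_, hT, fun n z => ?_⟩
  · rw [Real.sqrt_lt' one_pos]; simpa using hq1
  · have h1 := sup_le (hT n) z
    have ht : 0 < √q ^ n := pow_pos (Real.sqrt_pos.2 hq0) n
    have h2 := int_le_sq (((hT n).dd 1).dd Complex.I) ht
    have h3 : A (dd Complex.I (dd 1 ((T μ)^[n] u₀))) ≤ W L ((T μ)^[n] u₀) := by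
      unfold W
      have := A_nonneg ((T μ)^[n] u₀)
      have := A_nonneg (dd 1 ((T μ)^[n] u₀))
      have := A_nonneg (dd Complex.I ((T μ)^[n] u₀))
      have : 0 ≤ L * (A (dd 1 ((T μ)^[n] u₀)) + A (dd Complex.I ((T μ)^[n] u₀)))
        + L ^ 2 * A ((T μ)^[n] u₀) := by positivity
      linarith
    have h4 := h3.trans (hWn n)
    have h5 : (√q ^ n)⁻¹ * A (dd Complex.I (dd 1 ((T μ)^[n] u₀)))
        ≤ √q ^ n * W L u₀ := by
      calc _ ≤ (√q ^ n)⁻¹ * (q ^ n * W L u₀) := mul_le_mul_of_nonneg_left h4 (by positivity)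
        _ = √q ^ n * W L u₀ := by
          have : q ^ n = √q ^ n * √q ^ n := by rw [← mul_pow, Real.mul_self_sqrt hq0.le]
          rw [this]; field_simp
    calc ‖(T μ)^[n] u₀ z‖ ≤ _ := h1
      _ ≤ _ := h2
      _ ≤ (√q ^ n * V + √q ^ n * W L u₀) / 2 := by linarith
      _ = _ := by ring

end

end Crest.Agent.R096.BelC_205
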