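import Mathlib

/-!
Row 96, P5 / C3-BEL: literal statement.  `Diff_c(ℂ)` is path connected, with `C¹`-Lipschitz paths.
-/

open Set
open scoped ContDiff

namespace Crest.Agent.R096.BelDefs_205

/-- orientation preserving local diffeomorphism of `ℂ`, the identity outside a ball -/
structure Adm (R : ℝ) (f : ℂ → ℂ) : Prop where
  smooth : ContDiff ℝ ∞ f
  out : ∀ z, R < ‖z‖ → f z = z
  det : ∀ z, 0 < (fderiv ℝ f z).det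

/-- a `C¹`-Lipschitz path of such maps -/
structure PathC (R M : ℝ) (F : ℝ → ℂ → ℂ) : Prop where
  adm : ∀ t ∈ Icc (0:ℝ) 1, Adm R (F t)
  lip0 : ∀ s ∈ Icc (0:ℝ) 1, ∀ t ∈ Icc (0:ℝ) 1, ∀ z, ‖F s z - F t z‖ ≤ M * |s - t|
  lip1 : ∀ s ∈ Icc (0:ℝ) 1, ∀ t ∈ Icc (0:ℝ) 1, ∀ z,
    ‖fderiv ℝ (F s) z - fderiv ℝ (F t) z‖ ≤ M * |s - t|

/-- C3-BEL -/
def Bel : Prop := ∀ (R : ℝ) (f : ℂ → ℂ), Adm R f →
  ∃ (R' M : ℝ) (F G : ℝ → ℂ → ℂ), PathC R' M F ∧ PathC R' M G ∧ F 0 = id ∧ F 1 = G 0 ∧ G 1 = f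

end Crest.Agent.R096.BelDefs_205
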