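import Crest.Agent.R096.BelC_205
import Crest.Agent.R096.BelDefs_205

/-!
Row 96, P5 / C3-BEL: the approximate solutions `F n s` of the Beltrami equation with coefficient
`s μ`, smooth, polynomial in `s` up to an exponential.
-/

open Set Metric MeasureTheory Filter Topology
open scoped ContDiff NNReal Real ComplexConjugate
open Crest.Agent.R096.BelA_205 Crest.Agent.R096.BelB_205 Crest.Agent.R096.BelC_205
open Crest.Agent.R096.BelDefs_205

namespace Crest.Agent.R096.BelD_205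

noncomputable section

/-! ### Linear algebra -/

theorem det_eq (L : ℂ →L[ℝ] ℂ) :
    L.det = ‖(L 1 - Complex.I * L Complex.I) / 2‖ ^ 2
      - ‖(L 1 + Complex.I * L Complex.I) / 2‖ ^ 2 := by
  have h1 : L.det = (L 1).re * (L Complex.I).im - (L Complex.I).re * (L 1).im := by
    unfold ContinuousLinearMap.det
    rw [← LinearMap.det_toMatrix Complex.basisOneI, Matrix.det_fin_two]
    simp [LinearMap.toMatrix_apply]
  rw [h1]
  simp only [norm_div, div_pow, ← Complex.normSq_eq_norm_sq]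
  simp only [Complex.normSq_apply, Complex.sub_re, Complex.sub_im, Complex.add_re, Complex.add_im,
    Complex.mul_re, Complex.mul_im, Complex.I_re, Complex.I_im]
  norm_num
  ring

theorem det_fderiv (f : ℂ → ℂ) (z : ℂ) :
    (fderiv ℝ f z).det = ‖dz f z‖ ^ 2 - ‖dzb f z‖ ^ 2 := det_eq _

/-- the real linear map `v ↦ a v + b conj v` -/
def LL (a b : ℂ) : ℂ →L[ℝ] ℂ :=
  a • (ContinuousLinearMap.id ℝ ℂ) + b • (Complex.conjCLE : ℂ →L[ℝ] ℂ)

theorem LL_apply (a b v : ℂ) : LL a b v = a * v + b * conj v := rfl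

theorem norm_LL_le (a b : ℂ) : ‖LL a b‖ ≤ ‖a‖ + ‖b‖ := by
  apply ContinuousLinearMap.opNorm_le_bound _ (by positivity)
  intro v
  rw [LL_apply]
  refine (norm_add_le _ _).trans ?_
  rw [norm_mul, norm_mul, Complex.norm_conj]
  linarith [add_mul ‖a‖ ‖b‖ ‖v‖]

theorem LL_sub (a b a' b' : ℂ) : LL a b - LL a' b' = LL (a - a') (b - b') := by
  ext v
  simp only [ContinuousLinearMap.sub_apply, LL_apply]
  ring

theorem eq_LL (L : ℂ →L[ℝ] ℂ) (v : ℂ) :
    L v = (L 1 - Complex.I * L Complex.I) / 2 * v + (L 1 + Complex.I * L Complex.I) / 2 * conj v := by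
  have hv : v = v.re • (1:ℂ) + v.im • Complex.I := by
    simp [Complex.real_smul]
  have h1 : L v = v.re * L 1 + v.im * L Complex.I := by
    conv_lhs => rw [hv, map_add, map_smul, map_smul]
    rw [Complex.real_smul, Complex.real_smul]
  have hc : conj v = v.re - v.im * Complex.I := by
    apply Complex.ext <;> simp
  have hv' : v = v.re + v.im * Complex.I := (Complex.re_add_im v).symm
  rw [h1, hc]
  generalize (v.re : ℂ) = x at *
  generalize (v.im : ℂ) = y at *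
  rw [hv']
  linear_combination (y * L Complex.I) * Complex.I_sq

theorem fderiv_eq_LL (f : ℂ → ℂ) (z : ℂ) : fderiv ℝ f z = LL (dz f z) (dzb f z) := by
  ext v
  rw [LL_apply]
  exact eq_LL _ _

/-! ### Calculus of `dz` -/

theorem contDiff_dz {u : ℂ → ℂ} (h : ContDiff ℝ ∞ u) : ContDiff ℝ ∞ (dz u) := by
  unfold dz
  exact ((contDiff_dd h 1).sub (contDiff_const.mul (contDiff_dd h Complex.I))).div_const _

theorem contDiff_dzb {u : ℂ → ℂ} (h : ContDiff ℝ ∞ u) : ContDiff ℝ ∞ (dzb u) := by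
  unfold dzb
  exact ((contDiff_dd h 1).add (contDiff_const.mul (contDiff_dd h Complex.I))).div_const _

theorem dz_mul {a b : ℂ → ℂ} (ha : Differentiable ℝ a) (hb : Differentiable ℝ b) (z : ℂ) :
    dz (fun z => a z * b z) z = dz a z * b z + a z * dz b z := by
  unfold dz
  rw [dd_mul ha hb, dd_mul ha hb]; ring

theorem dd_exp {a : ℂ → ℂ} (ha : Differentiable ℝ a) (v z : ℂ) :
    dd v (fun z => Complex.exp (a z)) z = Complex.exp (a z) * dd v a z := by
  unfold dd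
  rw [((ha z).hasFDerivAt.cexp).fderiv]
  rfl

theorem dz_exp {a : ℂ → ℂ} (ha : Differentiable ℝ a) (z : ℂ) :
    dz (fun z => Complex.exp (a z)) z = Complex.exp (a z) * dz a z := by
  unfold dz
  rw [dd_exp ha, dd_exp ha]; ring

theorem dzb_exp {a : ℂ → ℂ} (ha : Differentiable ℝ a) (z : ℂ) :
    dzb (fun z => Complex.exp (a z)) z = Complex.exp (a z) * dzb a z := by
  unfold dzb
  rw [dd_exp ha, dd_exp ha]; ring

theorem dd_id_add {a : ℂ → ℂ} (ha : Differentiable ℝ a) (v z : ℂ) :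
    dd v (fun z => z + a z) z = v + dd v a z := by
  unfold dd
  rw [fderiv_fun_add differentiableAt_fun_id (ha z)]
  simp

theorem dz_id_add {a : ℂ → ℂ} (ha : Differentiable ℝ a) (z : ℂ) :
    dz (fun z => z + a z) z = 1 + dz a z := by
  unfold dz
  rw [dd_id_add ha, dd_id_add ha]
  linear_combination (-(1/2:ℂ)) * Complex.I_sq

theorem dzb_id_add {a : ℂ → ℂ} (ha : Differentiable ℝ a) (z : ℂ) :
    dzb (fun z => z + a z) z = dzb a z := by
  unfold dzb
  rw [dd_id_add ha, dd_id_add ha]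
  linear_combination ((1/2:ℂ)) * Complex.I_sq

theorem dd_sub {a b : ℂ → ℂ} (ha : Differentiable ℝ a) (hb : Differentiable ℝ b) (v z : ℂ) :
    dd v (fun z => a z - b z) z = dd v a z - dd v b z := by
  unfold dd
  rw [fderiv_fun_sub (ha z) (hb z)]; simp

theorem dz_sub {a b : ℂ → ℂ} (ha : Differentiable ℝ a) (hb : Differentiable ℝ b) (z : ℂ) :
    dz (fun z => a z - b z) z = dz a z - dz b z := by
  unfold dz
  rw [dd_sub ha hb, dd_sub ha hb]; ring

theorem dzb_sub {a b : ℂ → ℂ} (ha : Differentiable ℝ a) (hb : Differentiable ℝ b) (z : ℂ) :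
    dzb (fun z => a z - b z) z = dzb a z - dzb b z := by
  unfold dzb
  rw [dd_sub ha hb, dd_sub ha hb]; ring

theorem dd_const_mul {a : ℂ → ℂ} (ha : Differentiable ℝ a) (c v z : ℂ) :
    dd v (fun z => c * a z) z = c * dd v a z := by
  unfold dd
  rw [fderiv_const_mul (ha z)]; rfl

theorem dz_const_mul {a : ℂ → ℂ} (ha : Differentiable ℝ a) (c z : ℂ) :
    dz (fun z => c * a z) z = c * dz a z := by
  unfold dz
  rw [dd_const_mul ha, dd_const_mul ha]; ring

theorem dz_add {a b : ℂ → ℂ} (ha : Differentiable ℝ a) (hb : Differentiable ℝ b) (z : ℂ) :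
    dz (fun z => a z + b z) z = dz a z + dz b z := by
  unfold dz
  rw [dd_add ha hb, dd_add ha hb]; ring

theorem dz_zero (z : ℂ) : dz (fun _ => 0) z = 0 := by
  simp [dz, dd]

theorem P_zero (z : ℂ) : P (fun _ => 0) z = 0 := by simp [P]

/-! ### The series -/

section series

variable (μ : ℂ → ℂ)

/-- Neumann iterates -/
def δ (n : ℕ) : ℂ → ℂ := (T μ)^[n] (dz μ)

/-- partial sums -/
def κ (n : ℕ) (s : ℝ) (z : ℂ) : ℂ := ∑ j ∈ Finset.range n, (s:ℂ) ^ (j + 1) * δ μ j z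

/-- `σ = P κ` -/
def σ (n : ℕ) (s : ℝ) : ℂ → ℂ := P (κ μ n s)

/-- `ν = s μ e^σ` -/
def ν (n : ℕ) (s : ℝ) (z : ℂ) : ℂ := s * (μ z * Complex.exp (σ μ n s z))

/-- the map -/
def F (n : ℕ) (s : ℝ) (z : ℂ) : ℂ := z + P (ν μ n s) z

end series

section

variable {μ : ℂ → ℂ} {R : ℝ} (hμ : Tst R μ)

include hμ

theorem tst_δ (n : ℕ) : Tst R (δ μ n) := by
  induction n with
  | zero => exact hμ.dz
  | succ n ih =>
    unfold δ at *
    rw [Function.iterate_succ_apply']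
    exact tst_T hμ ih

omit hμ in
theorem κ_succ (n : ℕ) (s : ℝ) : κ μ (n + 1) s = fun z => κ μ n s z + (s:ℂ) ^ (n + 1) * δ μ n z := by
  ext z
  simp [κ, Finset.sum_range_succ]

theorem tst_κ (n : ℕ) (s : ℝ) : Tst R (κ μ n s) := by
  induction n with
  | zero =>
    have : κ μ 0 s = fun _ => 0 := by ext z; simp [κ]
    rw [this]
    exact ⟨contDiff_const, fun _ _ => rfl⟩
  | succ n ih =>
    rw [κ_succ]
    exact ih.add ((tst_δ hμ n).const_mul _)

theorem σ_eq (n : ℕ) (s : ℝ) (z : ℂ) :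
    σ μ n s z = ∑ j ∈ Finset.range n, (s:ℂ) ^ (j + 1) * P (δ μ j) z := by
  induction n with
  | zero =>
    have : κ μ 0 s = fun _ => 0 := by ext z; simp [κ]
    simp [σ, this, P_zero]
  | succ n ih =>
    unfold σ at *
    rw [κ_succ, P_add (tst_κ hμ n s) ((tst_δ hμ n).const_mul _), ih, P_const_mul,
      Finset.sum_range_succ]

theorem S_κ (n : ℕ) (s : ℝ) (z : ℂ) :
    dz (σ μ n s) z = ∑ j ∈ Finset.range n, (s:ℂ) ^ (j + 1) * dz (P (δ μ j)) z := by
  induction n with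
  | zero =>
    have : σ μ 0 s = fun _ => 0 := by ext z; simp [σ_eq hμ]
    rw [this, dz_zero]; simp
  | succ n ih =>
    have h1 : σ μ (n + 1) s = fun z => σ μ n s z + (s:ℂ) ^ (n + 1) * P (δ μ n) z := by
      ext z
      rw [σ_eq hμ, σ_eq hμ, Finset.sum_range_succ]
    have hd1 : Differentiable ℝ (σ μ n s) := (P_smooth (tst_κ hμ n s)).differentiable (by simp)
    have hd2 : Differentiable ℝ (P (δ μ n)) := (P_smooth (tst_δ hμ n)).differentiable (by simp)
    rw [h1, dz_add hd1 (hd2.const_mul _), dz_const_mul hd2, ih, Finset.sum_range_succ]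

theorem smooth_σ (n : ℕ) (s : ℝ) : ContDiff ℝ ∞ (σ μ n s) := P_smooth (tst_κ hμ n s)

theorem tst_ν (n : ℕ) (s : ℝ) : Tst R (ν μ n s) := by
  unfold ν
  exact (hμ.mul (smooth_σ hμ n s).cexp).const_mul _

theorem smooth_F (n : ℕ) (s : ℝ) : ContDiff ℝ ∞ (F μ n s) :=
  contDiff_id.add (P_smooth (tst_ν hμ n s))

theorem dzb_F (n : ℕ) (s : ℝ) (z : ℂ) : dzb (F μ n s) z = ν μ n s z := by
  have hd : Differentiable ℝ (P (ν μ n s)) := (P_smooth (tst_ν hμ n s)).differentiable (by simp)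
  unfold F
  rw [dzb_id_add hd, dzb_P (tst_ν hμ n s)]

theorem dz_F (n : ℕ) (s : ℝ) (z : ℂ) : dz (F μ n s) z = 1 + P (dz (ν μ n s)) z := by
  have hd : Differentiable ℝ (P (ν μ n s)) := (P_smooth (tst_ν hμ n s)).differentiable (by simp)
  unfold F
  rw [dz_id_add hd, dz_P (tst_ν hμ n s)]

/-- the key identity -/
theorem dz_ν (n : ℕ) (s : ℝ) (z : ℂ) :
    dz (ν μ n s) z = Complex.exp (σ μ n s z) * (κ μ n s z + (s:ℂ) ^ (n + 1) * δ μ n z) := by
  have hσ : Differentiable ℝ (σ μ n s) := (smooth_σ hμ n s).differentiable (by simp)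
  have h1 : dz (ν μ n s) z = s * (dz μ z * Complex.exp (σ μ n s z)
      + μ z * (Complex.exp (σ μ n s z) * dz (σ μ n s) z)) := by
    have hd : Differentiable ℝ (fun z => μ z * Complex.exp (σ μ n s z)) := hμ.diff.mul hσ.cexp
    unfold ν
    rw [dz_const_mul hd, dz_mul hμ.diff hσ.cexp, dz_exp hσ]
  have h2 : (s:ℂ) * (dz μ z + μ z * dz (σ μ n s) z)
      = κ μ n s z + (s:ℂ) ^ (n + 1) * δ μ n z := by
    have h3 : κ μ n s z + (s:ℂ) ^ (n + 1) * δ μ n z = κ μ (n + 1) s z := by rw [κ_succ]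
    rw [h3, S_κ hμ]
    unfold κ
    rw [Finset.sum_range_succ', Finset.mul_sum, mul_add, Finset.mul_sum, add_comm]
    congr 1
    · apply Finset.sum_congr rfl
      intro j _
      have : δ μ (j + 1) z = μ z * dz (P (δ μ j)) z := by
        unfold δ
        rw [Function.iterate_succ_apply']
        rfl
      rw [this]; ring
    · simp [δ]
  rw [h1, ← h2]; ring

/-- `∂F = e^σ + P τ` -/
theorem dz_F_eq (n : ℕ) (s : ℝ) (z : ℂ) :
    dz (F μ n s) z = Complex.exp (σ μ n s z)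
      + P (fun z => (s:ℂ) ^ (n + 1) * δ μ n z * Complex.exp (σ μ n s z)) z := by
  have hσs := smooth_σ hμ n s
  have hσ : Differentiable ℝ (σ μ n s) := hσs.differentiable (by simp)
  have hτ : Tst R (fun z => (s:ℂ) ^ (n + 1) * δ μ n z * Complex.exp (σ μ n s z)) :=
    ((tst_δ hμ n).const_mul _).mul hσs.cexp
  have hν := tst_ν hμ n s
  have hPd : Differentiable ℝ (P (dz (ν μ n s))) := (P_smooth hν.dz).differentiable (by simp)
  have key := eq_P (w := fun z => P (dz (ν μ n s)) z - (Complex.exp (σ μ n s z) - 1))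
    (hPd.sub (hσ.cexp.sub_const 1)) hτ (by
      intro z
      rw [dzb_sub hPd (hσ.cexp.sub_const 1), dzb_P hν.dz]
      have e1 : dzb (fun z => Complex.exp (σ μ n s z) - 1) z
          = dzb (fun z => Complex.exp (σ μ n s z)) z := by
        unfold dzb dd
        rw [fderiv_sub_const]
      rw [e1, dzb_exp hσ, dz_ν hμ]
      have e2 : dzb (σ μ n s) z = κ μ n s z := congrFun (dzb_P (tst_κ hμ n s)) z
      rw [e2]; ring) (by
      have t1 := P_tendsto hν.dz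
      have t2 : Tendsto (fun z => Complex.exp (σ μ n s z)) (cocompact ℂ) (𝓝 1) := by
        have := (Complex.continuous_exp.tendsto 0).comp (P_tendsto (tst_κ hμ n s))
        rw [Complex.exp_zero] at this
        exact this
      have := t1.sub (t2.sub_const 1)
      simpa using this) z
  rw [dz_F hμ, ← key]; ring

end

/-! ### Bounds -/

/-- uniform bounds -/
structure Bd (R : ℝ) (μ : ℂ → ℂ) (k C ρ : ℝ) : Prop where
  tst : Tst R μ
  hk : ∀ z, ‖μ z‖ ≤ k
  hk1 : k < 1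
  hC : 0 ≤ C
  hρ0 : 0 < ρ
  hρ1 : ρ < 1
  hδ : ∀ n z, ‖δ μ n z‖ ≤ C * ρ ^ n

theorem exists_Bd {R : ℝ} {μ : ℂ → ℂ} {k : ℝ} (hμ : Tst R μ) (hk : ∀ z, ‖μ z‖ ≤ k) (hk1 : k < 1) :
    ∃ C ρ, Bd R μ k C ρ := by
  obtain ⟨C, ρ, hC, hρ0, hρ1, -, h⟩ := decay_T hμ hk hk1 hμ.dz
  exact ⟨C, ρ, hμ, hk, hk1, hC, hρ0, hρ1, h⟩

namespace Bd

variable {R : ℝ} {μ : ℂ → ℂ} {k C ρ : ℝ} (h : Bd R μ k C ρ)

/-- bound for `σ` -/
def Sg (R C ρ : ℝ) : ℝ := CP R * (C * (1 - ρ)⁻¹)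

include h

theorem k_nonneg : 0 ≤ k := (norm_nonneg _).trans (h.hk 0)

theorem sum_le (n : ℕ) : ∑ j ∈ Finset.range n, C * ρ ^ j ≤ C * (1 - ρ)⁻¹ := by
  rw [← Finset.mul_sum]
  apply mul_le_mul_of_nonneg_left _ h.hC
  rw [← tsum_geometric_of_lt_one h.hρ0.le h.hρ1]
  exact (summable_geometric_of_lt_one h.hρ0.le h.hρ1).sum_le_tsum _
    (fun i _ => pow_nonneg h.hρ0.le i)

theorem κ_le (n : ℕ) {s : ℝ} (hs : s ∈ Icc (0:ℝ) 1) (z : ℂ) : ‖κ μ n s z‖ ≤ C * (1 - ρ)⁻¹ := by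
  unfold κ
  refine (norm_sum_le _ _).trans (le_trans (Finset.sum_le_sum fun j _ => ?_) (h.sum_le n))
  rw [norm_mul, norm_pow, Complex.norm_real, Real.norm_of_nonneg hs.1]
  have h1 : s ^ (j + 1) ≤ 1 := pow_le_one₀ hs.1 hs.2
  have h2 := h.hδ j z
  calc s ^ (j + 1) * ‖δ μ j z‖ ≤ 1 * ‖δ μ j z‖ :=
        mul_le_mul_of_nonneg_right h1 (norm_nonneg _)
    _ ≤ C * ρ ^ j := by rw [one_mul]; exact h2

theorem σ_le (n : ℕ) {s : ℝ} (hs : s ∈ Icc (0:ℝ) 1) (z : ℂ) : ‖σ μ n s z‖ ≤ Sg R C ρ :=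
  P_sup (tst_κ h.tst n s) (fun z => h.κ_le n hs z) z

theorem exp_le (n : ℕ) {s : ℝ} (hs : s ∈ Icc (0:ℝ) 1) (z : ℂ) :
    ‖Complex.exp (σ μ n s z)‖ ≤ Real.exp (Sg R C ρ) := by
  rw [Complex.norm_exp]
  apply Real.exp_le_exp.2
  exact (Complex.re_le_norm _).trans (h.σ_le n hs z)

theorem le_exp (n : ℕ) {s : ℝ} (hs : s ∈ Icc (0:ℝ) 1) (z : ℂ) :
    Real.exp (-Sg R C ρ) ≤ ‖Complex.exp (σ μ n s z)‖ := by
  rw [Complex.norm_exp]
  apply Real.exp_le_exp.2
  have := (Complex.abs_re_le_norm (σ μ n s z)).trans (h.σ_le n hs z)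
  exact (abs_le.1 this).1

/-- the remainder `g = ∂F - e^σ` -/
theorem g_le (n : ℕ) {s : ℝ} (hs : s ∈ Icc (0:ℝ) 1) (z : ℂ) :
    ‖dz (F μ n s) z - Complex.exp (σ μ n s z)‖
      ≤ CP R * (C * ρ ^ n * Real.exp (Sg R C ρ)) := by
  rw [dz_F_eq h.tst, add_sub_cancel_left]
  apply P_sup (((tst_δ h.tst n).const_mul _).mul (smooth_σ h.tst n s).cexp)
  intro z
  rw [norm_mul, norm_mul, norm_pow, Complex.norm_real, Real.norm_of_nonneg hs.1]
  have h1 : s ^ (n + 1) ≤ 1 := pow_le_one₀ hs.1 hs.2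
  have h2 := h.hδ n z
  have h3 := h.exp_le n hs z
  have h4 : s ^ (n + 1) * ‖δ μ n z‖ ≤ C * ρ ^ n := by
    calc s ^ (n + 1) * ‖δ μ n z‖ ≤ 1 * ‖δ μ n z‖ :=
        mul_le_mul_of_nonneg_right h1 (norm_nonneg _)
      _ ≤ C * ρ ^ n := by rw [one_mul]; exact h2
  exact mul_le_mul h4 h3 (norm_nonneg _) (mul_nonneg h.hC (pow_nonneg h.hρ0.le n))

theorem g_tendsto : Tendsto (fun n : ℕ => CP R * (C * ρ ^ n * Real.exp (Sg R C ρ))) atTop
    (𝓝 0) := by
  have h1 := tendsto_pow_atTop_nhds_zero_of_lt_one h.hρ0.le h.hρ1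
  have h2 := ((h1.const_mul C).mul_const (Real.exp (Sg R C ρ))).const_mul (CP R)
  simpa using h2

theorem det_pos {n : ℕ} (hn : CP R * (C * ρ ^ n * Real.exp (Sg R C ρ))
    < (1 - k) * Real.exp (-Sg R C ρ)) {s : ℝ} (hs : s ∈ Icc (0:ℝ) 1) (z : ℂ) :
    0 < (fderiv ℝ (F μ n s) z).det := by
  rw [det_fderiv, dzb_F h.tst]
  have h1 := h.g_le n hs z
  have h2 := h.le_exp n hs z
  have h3 : ‖ν μ n s z‖ ≤ k * ‖Complex.exp (σ μ n s z)‖ := by
    unfold ν
    rw [norm_mul, norm_mul, Complex.norm_real, Real.norm_of_nonneg hs.1]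
    have := mul_le_mul_of_nonneg_right (h.hk z) (norm_nonneg (Complex.exp (σ μ n s z)))
    calc s * (‖μ z‖ * ‖Complex.exp (σ μ n s z)‖)
        ≤ 1 * (‖μ z‖ * ‖Complex.exp (σ μ n s z)‖) := by
          apply mul_le_mul_of_nonneg_right hs.2 (by positivity)
      _ ≤ _ := by rw [one_mul]; exact this
  have h4 : ‖Complex.exp (σ μ n s z)‖ - ‖dz (F μ n s) z - Complex.exp (σ μ n s z)‖
      ≤ ‖dz (F μ n s) z‖ := by
    have h5 := norm_sub_norm_le (Complex.exp (σ μ n s z)) (dz (F μ n s) z)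
    rw [norm_sub_rev (dz (F μ n s) z)]
    linarith
  have h6 : (1 - k) * Real.exp (-Sg R C ρ) ≤ (1 - k) * ‖Complex.exp (σ μ n s z)‖ :=
    mul_le_mul_of_nonneg_left h2 (by linarith [h.hk1])
  have h7 : ‖ν μ n s z‖ < ‖dz (F μ n s) z‖ := by nlinarith
  have h8 := norm_nonneg (ν μ n s z)
  nlinarith

end Bd

end

end Crest.Agent.R096.BelD_205
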