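import Crest.Agent.R096.BelD_205

/-!
Row 96, P5 / C3-BEL: at `s = 1` the approximate solutions converge to `f` in `C¹`.
-/

open Set Metric MeasureTheory Filter Topology
open scoped ContDiff NNReal Real ComplexConjugate
open Crest.Agent.R096.BelA_205 Crest.Agent.R096.BelB_205 Crest.Agent.R096.BelC_205
open Crest.Agent.R096.BelDefs_205 Crest.Agent.R096.BelD_205

namespace Crest.Agent.R096.BelE_205

noncomputable section

variable {R : ℝ} {f : ℂ → ℂ}

/-- Beltrami coefficient -/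
def mu (f : ℂ → ℂ) (z : ℂ) : ℂ := dzb f z / dz f z

theorem dz_ne (hf : Adm R f) (z : ℂ) : dz f z ≠ 0 := by
  have h := hf.det z
  rw [det_fderiv] at h
  intro h0
  rw [h0] at h
  simp only [norm_zero] at h
  have := sq_nonneg ‖dzb f z‖
  linarith

theorem dzb_zero (hf : Adm R f) {z : ℂ} (hz : R < ‖z‖) : dzb f z = 0 := by
  have h1 : f =ᶠ[𝓝 z] fun z => z := by
    filter_upwards [(isOpen_lt continuous_const continuous_norm).mem_nhds hz] with y hy
    exact hf.out y hy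
  unfold dzb dd
  rw [h1.fderiv_eq, fderiv_fun_id]
  simp

theorem mul_dz (hf : Adm R f) (z : ℂ) : mu f z * dz f z = dzb f z :=
  div_mul_cancel₀ _ (dz_ne hf z)

theorem tst_mu (hf : Adm R f) : Tst R (mu f) := by
  refine ⟨?_, fun z hz => ?_⟩
  · have e : mu f = fun z => dzb f z * (dz f z)⁻¹ := by
      ext z; rw [mu, div_eq_mul_inv]
    rw [e]
    exact (contDiff_dzb hf.smooth).mul ((contDiff_dz hf.smooth).inv (dz_ne hf))
  · unfold mu
    rw [dzb_zero hf hz]; simp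

theorem tst_dzb (hf : Adm R f) : Tst R (dzb f) :=
  ⟨contDiff_dzb hf.smooth, fun _ hz => dzb_zero hf hz⟩

theorem norm_mu_lt (hf : Adm R f) (z : ℂ) : ‖mu f z‖ < 1 := by
  have h := hf.det z
  rw [det_fderiv] at h
  have hpos : 0 < ‖dz f z‖ := norm_pos_iff.2 (dz_ne hf z)
  unfold mu
  rw [norm_div, div_lt_one hpos]
  have := norm_nonneg (dzb f z)
  nlinarith

theorem exists_k (hf : Adm R f) : ∃ k : ℝ, k < 1 ∧ ∀ z, ‖mu f z‖ ≤ k := by
  rcases le_or_gt 0 R with hR | hR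
  · obtain ⟨z0, -, hz0⟩ := (isCompact_closedBall (0:ℂ) R).exists_isMaxOn
      (nonempty_closedBall.2 hR) (tst_mu hf).cont.norm.continuousOn
    refine ⟨‖mu f z0‖, norm_mu_lt hf z0, fun z => ?_⟩
    by_cases hz : R < ‖z‖
    · rw [(tst_mu hf).zero z hz]; simp
    · exact hz0 (by simpa using hz)
  · refine ⟨0, one_pos, fun z => ?_⟩
    rw [(tst_mu hf).zero z (lt_of_lt_of_le hR (norm_nonneg z))]; simp

section

variable {k C ρ : ℝ} (hf : Adm R f) (h : Bd R (mu f) k C ρ)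

include hf h

/-- `ω = ∂̄ (F - f)` -/
theorem tst_ω (n : ℕ) : Tst R (fun z => ν (mu f) n 1 z - dzb f z) :=
  (tst_ν h.tst n 1).sub (tst_dzb hf)

theorem d_eq (n : ℕ) (z : ℂ) : F (mu f) n 1 z - f z = P (fun z => ν (mu f) n 1 z - dzb f z) z := by
  have hF : Differentiable ℝ (F (mu f) n 1) := (smooth_F h.tst n 1).differentiable (by simp)
  have hfd : Differentiable ℝ f := hf.smooth.differentiable (by simp)
  apply eq_P (w := fun z => F (mu f) n 1 z - f z) (hF.sub hfd) (tst_ω hf h n)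
  · intro z
    rw [dzb_sub hF hfd, dzb_F h.tst]
  · have t1 := P_tendsto (tst_ν h.tst n 1)
    have t2 : Tendsto (fun z => z - f z) (cocompact ℂ) (𝓝 0) := by
      apply tendsto_const_nhds.congr'
      filter_upwards [(tendsto_norm_cocompact_atTop (E := ℂ)).eventually (eventually_gt_atTop R)]
        with z hz
      rw [hf.out z hz]; simp
    have t3 := t1.add t2
    rw [add_zero] at t3
    refine t3.congr fun z => ?_
    unfold F; ring

theorem ω_eq (n : ℕ) (z : ℂ) : ν (mu f) n 1 z - dzb f z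
    = -(mu f z * (dz (F (mu f) n 1) z - Complex.exp (σ (mu f) n 1 z)))
      + mu f z * dz (P (fun z => ν (mu f) n 1 z - dzb f z)) z := by
  have hF : Differentiable ℝ (F (mu f) n 1) := (smooth_F h.tst n 1).differentiable (by simp)
  have hfd : Differentiable ℝ f := hf.smooth.differentiable (by simp)
  have e : P (fun z => ν (mu f) n 1 z - dzb f z) = fun z => F (mu f) n 1 z - f z := by
    ext z; rw [d_eq hf h]
  rw [e, dz_sub hF hfd]
  have e2 := mul_dz hf z
  have e3 : ν (mu f) n 1 z = mu f z * Complex.exp (σ (mu f) n 1 z) := by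
    unfold ν; simp
  rw [e3, ← e2]; ring

/-- bound of the remainder -/
def G (R C ρ : ℝ) (n : ℕ) : ℝ := CP R * (C * ρ ^ n * Real.exp (Bd.Sg R C ρ))

theorem exists_A : ∃ B : ℝ, ∀ n, A (fun z => ν (mu f) n 1 z - dzb f z) ≤ B * (G R C ρ n) ^ 2 := by
  have hk0 := h.k_nonneg
  obtain ⟨ε, hε, hεq⟩ : ∃ ε : ℝ, 0 < ε ∧ (1 + ε) * k ^ 2 < 1 := by
    refine ⟨(1 - k ^ 2) / 2, ?_, ?_⟩
    · nlinarith [h.hk1]
    · nlinarith [sq_nonneg (k ^ 2 - 1), sq_nonneg k, h.hk1]
  set q := (1 + ε) * k ^ 2 with hq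
  refine ⟨(1 - q)⁻¹ * ((1 + ε⁻¹) * A (mu f)), fun n => ?_⟩
  have hω := tst_ω hf h n
  have i1 := integrable_sq_P hω
  have i2 := sq_integrable h.tst
  have hG : 0 ≤ G R C ρ n := by
    have := h.g_le n (s := 1) ⟨by norm_num, le_refl _⟩ 0
    exact (norm_nonneg _).trans this
  have key : A (fun z => ν (mu f) n 1 z - dzb f z)
      ≤ q * A (fun z => ν (mu f) n 1 z - dzb f z) + (1 + ε⁻¹) * (G R C ρ n) ^ 2 * A (mu f) := by
    have hi : Integrable fun z => q * ‖dz (P (fun z => ν (mu f) n 1 z - dzb f z)) z‖ ^ 2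
        + (1 + ε⁻¹) * (G R C ρ n) ^ 2 * ‖mu f z‖ ^ 2 := (i1.const_mul _).add (i2.const_mul _)
    refine (A_le_of hω hi ?_).trans (le_of_eq ?_)
    · intro z
      rw [ω_eq hf h n z]
      refine (norm_add_sq_le ε hε _ _).trans ?_
      rw [norm_neg, norm_mul, norm_mul, mul_pow, mul_pow]
      have h1 := h.g_le n (s := 1) ⟨by norm_num, le_refl _⟩ z
      have h2 : ‖mu f z‖ ^ 2 ≤ k ^ 2 := by gcongr; exact h.hk z
      have h3 : ‖dz (F (mu f) n 1) z - Complex.exp (σ (mu f) n 1 z)‖ ^ 2 ≤ (G R C ρ n) ^ 2 := by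
        gcongr; exact h1
      calc (1 + ε) * (‖mu f z‖ ^ 2 * ‖dz (P (fun z => ν (mu f) n 1 z - dzb f z)) z‖ ^ 2)
            + (1 + ε⁻¹) * (‖mu f z‖ ^ 2
              * ‖dz (F (mu f) n 1) z - Complex.exp (σ (mu f) n 1 z)‖ ^ 2)
          ≤ (1 + ε) * (k ^ 2 * ‖dz (P (fun z => ν (mu f) n 1 z - dzb f z)) z‖ ^ 2)
            + (1 + ε⁻¹) * (‖mu f z‖ ^ 2 * (G R C ρ n) ^ 2) := by gcongr
        _ = _ := by rw [hq]; ring
    · rw [integral_add (i1.const_mul _) (i2.const_mul _), integral_const_mul, integral_const_mul]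
      rw [show ∫ z, ‖dz (P (fun z => ν (mu f) n 1 z - dzb f z)) z‖ ^ 2
        = A (fun z => ν (mu f) n 1 z - dzb f z) from BelB_205.isometry hω]
      rfl
  have hq1 : 0 < 1 - q := by linarith
  have : (1 - q) * A (fun z => ν (mu f) n 1 z - dzb f z)
      ≤ (1 + ε⁻¹) * (G R C ρ n) ^ 2 * A (mu f) := by linarith
  rw [mul_comm, ← le_div_iff₀ hq1] at this
  refine this.trans (le_of_eq ?_)
  rw [div_eq_inv_mul]; ring

omit hf in
theorem G_tendsto : Tendsto (G R C ρ) atTop (𝓝 0) := h.g_tendsto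

/-- uniform convergence `F n 1 → f` -/
theorem unif0 {η : ℝ} (hη : 0 < η) : ∃ N : ℕ, ∀ n, N ≤ n → ∀ z, ‖F (mu f) n 1 z - f z‖ ≤ η := by
  obtain ⟨B1, hB1⟩ := (tst_dzb hf).cont.bounded_above_of_compact_support (tst_dzb hf).compact
  obtain ⟨D, hD⟩ := exists_A hf h
  set B := k * Real.exp (Bd.Sg R C ρ) + B1 with hB
  have hωB : ∀ n z, ‖ν (mu f) n 1 z - dzb f z‖ ≤ B := by
    intro n z
    refine (norm_sub_le _ _).trans (add_le_add ?_ (hB1 z))
    have e3 : ν (mu f) n 1 z = mu f z * Complex.exp (σ (mu f) n 1 z) := by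
      unfold ν; simp
    rw [e3, norm_mul]
    exact mul_le_mul (h.hk z) (h.exp_le n ⟨by norm_num, le_refl _⟩ z) (norm_nonneg _) h.k_nonneg
  -- choose r
  have t1 : Tendsto (fun m : ℕ => IK (1 / ((m:ℝ) + 1)) * B) atTop (𝓝 0) := by
    simpa using IK_tendsto.mul_const B
  obtain ⟨m, hm⟩ := (t1.eventually (gt_mem_nhds (show (0:ℝ) < η / 3 by linarith))).exists
  set r : ℝ := 1 / ((m:ℝ) + 1) with hr
  have hrpos : 0 < r := by positivity
  set V := volume.real (closedBall (0:ℂ) R) with hV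
  have hV0 : 0 ≤ V := by positivity
  have hpr : 0 < (π * r)⁻¹ := by positivity
  set t := (η / 3) / ((π * r)⁻¹ * (V + 1)) with ht
  have htpos : 0 < t := by positivity
  have t2 : Tendsto (fun n : ℕ => (π * r)⁻¹ * (t⁻¹ * (D * (G R C ρ n) ^ 2))) atTop (𝓝 0) := by
    have := ((((G_tendsto h).pow 2).const_mul D).const_mul t⁻¹).const_mul (π * r)⁻¹
    simpa using this
  obtain ⟨N, hN⟩ := (t2.eventually (gt_mem_nhds (show (0:ℝ) < η / 3 by linarith))).exists_forall_of_atTop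
  refine ⟨N, fun n hn z => ?_⟩
  rw [d_eq hf h]
  have h1 := P_bound (tst_ω hf h n) (hωB n) hrpos z
  have h2 := int_le_sq (tst_ω hf h n) htpos
  have h3 := hD n
  have h4 := hN n hn
  have h5 : (π * r)⁻¹ * (t * V) ≤ η / 3 := by
    have : (π * r)⁻¹ * (t * V) = (η / 3) * (V / (V + 1)) := by
      rw [ht]; field_simp
    rw [this]
    have : V / (V + 1) ≤ 1 := by rw [div_le_one (by positivity)]; linarith
    calc (η / 3) * (V / (V + 1)) ≤ (η / 3) * 1 := mul_le_mul_of_nonneg_left this (by positivity)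
      _ = η / 3 := mul_one _
  have h6 : t⁻¹ * A (fun z => ν (mu f) n 1 z - dzb f z) ≤ t⁻¹ * (D * (G R C ρ n) ^ 2) :=
    mul_le_mul_of_nonneg_left h3 (by positivity)
  have h7 : (π * r)⁻¹ * ∫ ζ, ‖ν (mu f) n 1 ζ - dzb f ζ‖
      ≤ (π * r)⁻¹ * ((t * V + t⁻¹ * (D * (G R C ρ n) ^ 2)) / 2) :=
    mul_le_mul_of_nonneg_left (by linarith) hpr.le
  have h8 : (π * r)⁻¹ * ((t * V + t⁻¹ * (D * (G R C ρ n) ^ 2)) / 2)
      = ((π * r)⁻¹ * (t * V) + (π * r)⁻¹ * (t⁻¹ * (D * (G R C ρ n) ^ 2))) / 2 := by ring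
  linarith

/-- the limit of `σ` -/
def σL (f : ℂ → ℂ) (z : ℂ) : ℂ := ∑' j, P (δ (mu f) j) z

theorem σ_unif : TendstoUniformly (fun n => σ (mu f) n 1) (σL f) atTop := by
  have hs : Summable fun j : ℕ => CP R * (C * ρ ^ j) :=
    ((summable_geometric_of_lt_one h.hρ0.le h.hρ1).mul_left C).mul_left (CP R)
  have hb : ∀ j z, ‖P (δ (mu f) j) z‖ ≤ CP R * (C * ρ ^ j) := fun j z =>
    P_sup (tst_δ h.tst j) (h.hδ j) z
  have := tendstoUniformly_tsum_nat hs hb
  have e : (fun n => σ (mu f) n 1)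
      = fun N x => ∑ n ∈ Finset.range N, P (δ (mu f) n) x := by
    ext n z
    simp [σ_eq h.tst]
  rw [e]
  exact this

theorem exp_unif : TendstoUniformly (fun n z => Complex.exp (σ (mu f) n 1 z))
    (fun z => Complex.exp (σL f z)) atTop := by
  have hσ := σ_unif hf h
  have hcomp : IsCompact (closedBall (0:ℂ) (Bd.Sg R C ρ)) := isCompact_closedBall _ _
  have huc : UniformContinuousOn Complex.exp (closedBall (0:ℂ) (Bd.Sg R C ρ)) :=
    hcomp.uniformContinuousOn_of_continuous Complex.continuous_exp.continuousOn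
  have hm : ∀ n z, σ (mu f) n 1 z ∈ closedBall (0:ℂ) (Bd.Sg R C ρ) := by
    intro n z
    simpa using h.σ_le n (s := 1) ⟨by norm_num, le_refl _⟩ z
  have hL : ∀ z, σL f z ∈ closedBall (0:ℂ) (Bd.Sg R C ρ) := fun z =>
    isClosed_closedBall.mem_of_tendsto (hσ.tendsto_at z) (Eventually.of_forall fun n => hm n z)
  exact huc.comp_tendstoUniformly hm hL hσ

theorem dz_unif : TendstoUniformly (fun n z => dz (F (mu f) n 1) z)
    (fun z => Complex.exp (σL f z)) atTop := by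
  have h1 := exp_unif hf h
  rw [Metric.tendstoUniformly_iff] at h1 ⊢
  intro ε hε
  have h2 := (G_tendsto h).eventually (gt_mem_nhds (show (0:ℝ) < ε / 2 by linarith))
  filter_upwards [h1 (ε / 2) (by linarith), h2] with n hn1 hn2 z
  have h3 := h.g_le n (s := 1) ⟨by norm_num, le_refl _⟩ z
  have h4 := hn1 z
  rw [dist_eq_norm] at h4 ⊢
  have h5 : Complex.exp (σL f z) - dz (F (mu f) n 1) z
      = (Complex.exp (σL f z) - Complex.exp (σ (mu f) n 1 z))
        - (dz (F (mu f) n 1) z - Complex.exp (σ (mu f) n 1 z)) := by ring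
  rw [h5]
  refine (norm_sub_le _ _).trans_lt ?_
  have h6 : G R C ρ n = CP R * (C * ρ ^ n * Real.exp (Bd.Sg R C ρ)) := rfl
  rw [h6] at hn2
  linarith

theorem fderiv_unif : TendstoUniformly (fun n z => fderiv ℝ (F (mu f) n 1) z)
    (fun z => LL (Complex.exp (σL f z)) (mu f z * Complex.exp (σL f z))) atTop := by
  have h1 := exp_unif hf h
  have h2 := dz_unif hf h
  rw [Metric.tendstoUniformly_iff] at h1 h2 ⊢
  intro ε hε
  filter_upwards [h1 (ε / 2) (by linarith), h2 (ε / 2) (by linarith)] with n hn1 hn2 z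
  rw [dist_eq_norm, fderiv_eq_LL, LL_sub]
  refine (norm_LL_le _ _).trans_lt ?_
  have e3 : ν (mu f) n 1 z = mu f z * Complex.exp (σ (mu f) n 1 z) := by
    unfold ν; simp
  have h3 := hn1 z
  have h4 := hn2 z
  rw [dist_eq_norm] at h3 h4
  rw [dzb_F h.tst, e3, ← mul_sub, norm_mul]
  have h5 : ‖mu f z‖ * ‖Complex.exp (σL f z) - Complex.exp (σ (mu f) n 1 z)‖
      ≤ 1 * ‖Complex.exp (σL f z) - Complex.exp (σ (mu f) n 1 z)‖ :=
    mul_le_mul_of_nonneg_right (norm_mu_lt hf z).le (norm_nonneg _)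
  linarith

theorem hasFDerivAt_f (z : ℂ) :
    HasFDerivAt f (LL (Complex.exp (σL f z)) (mu f z * Complex.exp (σL f z))) z := by
  apply hasFDerivAt_of_tendstoUniformly (fderiv_unif hf h)
    (fun n => fun z => ((smooth_F h.tst n 1).differentiable (by simp) z).hasFDerivAt)
  intro z
  rw [Metric.tendsto_atTop]
  intro ε hε
  obtain ⟨N, hN⟩ := unif0 hf h (show (0:ℝ) < ε / 2 by linarith)
  refine ⟨N, fun n hn => ?_⟩
  rw [dist_eq_norm]
  linarith [hN n hn z]

/-- **`C¹` convergence** -/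
theorem close {η : ℝ} (hη : 0 < η) : ∃ N : ℕ, ∀ n, N ≤ n → ∀ z, ‖F (mu f) n 1 z - f z‖ ≤ η ∧
    ‖fderiv ℝ (F (mu f) n 1) z - fderiv ℝ f z‖ ≤ η := by
  obtain ⟨N, hN⟩ := unif0 hf h hη
  have h1 := fderiv_unif hf h
  rw [Metric.tendstoUniformly_iff] at h1
  obtain ⟨N', hN'⟩ := (h1 η hη).exists_forall_of_atTop
  refine ⟨max N N', fun n hn z => ⟨hN n ((le_max_left _ _).trans hn) z, ?_⟩⟩
  have h2 := hN' n ((le_max_right _ _).trans hn) z
  rw [dist_eq_norm] at h2
  rw [(hasFDerivAt_f hf h z).fderiv, norm_sub_rev]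
  exact h2.le

end

end

end Crest.Agent.R096.BelE_205
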