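import Crest.Agent.R096.Ginv1_543
import Crest.Agent.R096.Agl8_543

/-! # Row 96, DOORS, barriers (helper4), part 1: adding countably many regular levels to a family -/

set_option autoImplicit false
set_option linter.unusedSectionVars false

open Set Filter Topology Metric MeasureTheory

namespace Crest.Agent.R096.Bgf_4

open Crest.Agent.R096.Msh_715 Crest.Agent.R096.Agl4_543 Crest.Agent.R096.Agl5_543
  Crest.Agent.R096.Agl6_543 Crest.Agent.R096.Agl8_543
  Crest.Agent.R096.Pat4_543 Crest.Agent.R096.Pat5_543 Crest.Agent.R096.St_147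
  Crest.Agent.R096.Coh_184 Crest.Agent.R096.Seq_213 Crest.Agent.R096.Ginv_543

/-! ### dependent choice along a countable index set -/

/-- choose values one after the other -/
theorem exists_choice {Mo β : Type} [Countable Mo] [Nonempty β] (good : Mo → Set β)
    (r : Mo → Mo → β → β → Prop)
    (h : ∀ (m : Mo) (s : Set Mo) (v : Mo → β), (∀ m' ∈ s, v m' ∈ good m') →
      ∃ y ∈ good m, ∀ m' ∈ s, r m' m (v m') y) :
    ∃ v : Mo → β, (∀ m, v m ∈ good m) ∧ ∀ m m', m ≠ m' → r m m' (v m) (v m') ∨ r m' m (v m') (v m) := by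
  classical
  obtain ⟨e, he⟩ := exists_injective_nat Mo
  -- recursion on `e m`
  let F : (m : Mo) → ((m' : Mo) → e m' < e m → β) → β := fun m ih =>
    if hex : ∃ y ∈ good m, ∀ m' (hlt : e m' < e m), r m' m (ih m' hlt) y then hex.choose
    else Classical.arbitrary β
  have hwf : WellFounded fun m' m : Mo => e m' < e m := InvImage.wf e Nat.lt_wfRel.wf
  let v : Mo → β := hwf.fix F
  have hv : ∀ m, v m = F m fun m' _ => v m' := fun m => hwf.fix_eq F m
  have key : ∀ m, v m ∈ good m ∧ ∀ m', e m' < e m → r m' m (v m') (v m) := by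
    intro m
    induction m using hwf.induction with
    | _ m ih =>
      have hex : ∃ y ∈ good m, ∀ m' (_ : e m' < e m), r m' m (v m') y :=
        h m {m' | e m' < e m} v fun m' hm' => (ih m' hm').1
      have h1 := hv m
      have h2 : F m (fun m' _ => v m') = hex.choose := dif_pos hex
      rw [h2] at h1
      rw [h1]
      exact hex.choose_spec
  refine ⟨v, fun m => (key m).1, fun m m' hne => ?_⟩
  rcases lt_trichotomy (e m) (e m') with h1 | h1 | h1
  · exact Or.inl ((key m').2 m h1)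
  · exact absurd (he h1) hne
  · exact Or.inr ((key m).2 m' h1)

variable {E : Type} [NormedAddCommGroup E] [NormedSpace ℝ E] [FiniteDimensional ℝ E]
variable {Om : Set E} {ι : Type} {T : Tiling Om ι}
variable {J C : Type} {u : J → E → ℝ} {c : J → ℝ} {S : J → Set E} {fam : J → C}

theorem regLevel_congr {U U' : E → ℝ} {t : ℝ} {S : Set E} (h : RegLevel T U t S)
    (hc : ContinuousOn U' Om) (h1 : ∀ x ∈ Om, (U' x = t ↔ U x = t) ∧ (t < U' x ↔ t < U x) ∧
      (U' x < t ↔ U x < t)) : RegLevel T U' t S where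
  cpt := h.cpt
  sub := h.sub
  vert := h.vert
  cont := fun x hx hd hne => hc.mono (T.cc_sub_Om hx)
  lev := fun x hx hd hne y hy => (h.lev x hx hd hne y hy).trans (h1 y (T.cc_sub_Om hx hy)).1.symm
  reg := fun x hx hd hne => by
    have g := h.reg x hx hd hne
    have hO : T.cc x \ T.oc x ⊆ Om := fun y hy => T.cc_sub_Om hx hy.1
    refine ⟨g.fin.subset fun y hy => ⟨hy.1, (h1 y (hO hy.1)).1.1 hy.2⟩, fun y hy he => ?_,
      fun y hy he => ?_⟩
    · have := g.up y hy ((h1 y (hO hy)).1.1 he)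
      have hm : {z | z ∈ T.cc x \ T.oc x ∧ t < U z} ⊆ {z | z ∈ T.cc x \ T.oc x ∧ t < U' z} :=
        fun z hz => ⟨hz.1, ((h1 z (hO hz.1)).2.1).2 hz.2⟩
      exact closure_mono hm this
    · have := g.down y hy ((h1 y (hO hy)).1.1 he)
      have hm : {z | z ∈ T.cc x \ T.oc x ∧ U z < t} ⊆ {z | z ∈ T.cc x \ T.oc x ∧ U' z < t} :=
        fun z hz => ⟨hz.1, ((h1 z (hO hz.1)).2.2).2 hz.2⟩
      exact closure_mono hm this
  bad := fun x hx hd hne => by
    have g := h.bad x hx hd hne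
    rintro ⟨x₁, a1, x₂, a2, x₃, a3, b1, b2, b3, b4, b5, b6⟩
    have hO : T.cc x \ T.oc x ⊆ Om := fun y hy => T.cc_sub_Om hx hy.1
    have e : {y | y ∈ T.cc x ∧ U' y = t} = {y | y ∈ T.cc x ∧ U y = t} := by
      ext y
      exact ⟨fun hy => ⟨hy.1, (h1 y (T.cc_sub_Om hx hy.1)).1.1 hy.2⟩,
        fun hy => ⟨hy.1, (h1 y (T.cc_sub_Om hx hy.1)).1.2 hy.2⟩⟩
    rw [e] at b5 b6
    exact g ⟨x₁, a1, x₂, a2, x₃, a3, b1, b2, b3, (h1 x₁ (hO a1)).1.1 b4, b5, b6⟩

/-- almost every level in an interval is regular -/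
theorem ae_lev {U : E → ℝ} {lo hi : ℝ} (hU : ContinuousOn U Om)
    (hcpt : ∀ t ∈ Ioo lo hi, IsCompact {x | x ∈ Om ∧ U x = t})
    (hfin : ∀ x ∈ Om, T.dim x = 1 → ∀ᵐ t : ℝ, t ∈ Ioo lo hi → {y | y ∈ T.cc x ∧ U y = t}.Finite) :
    ∀ᵐ t : ℝ, t ∈ Ioo lo hi → RegLevel T U t {x | x ∈ Om ∧ U x = t} := by
  have hU' : ContinuousOn (fun x => max lo (min hi (U x))) Om :=
    continuousOn_const.sup (continuousOn_const.inf hU)
  have hkey : ∀ t ∈ Ioo lo hi, ∀ x, (U x = t ↔ max lo (min hi (U x)) = t) ∧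
      (t < U x ↔ t < max lo (min hi (U x))) ∧ (U x < t ↔ max lo (min hi (U x)) < t) := by
    intro t ht x
    have h1 := ht.1
    have h2 := ht.2
    rcases le_or_gt hi (U x) with h | h
    · rw [min_eq_left h, max_eq_right (by linarith)]
      exact ⟨⟨fun e => by linarith, fun e => by linarith⟩, ⟨fun _ => h2, fun _ => by linarith⟩,
        ⟨fun e => by linarith, fun e => by linarith⟩⟩
    · rw [min_eq_right h.le]
      rcases le_or_gt (U x) lo with h' | h'
      · rw [max_eq_left h']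
        exact ⟨⟨fun e => by linarith, fun e => by linarith⟩, ⟨fun e => by linarith, fun e => by linarith⟩,
          ⟨fun _ => h1, fun _ => by linarith⟩⟩
      · rw [max_eq_right h'.le]
        exact ⟨Iff.rfl, Iff.rfl, Iff.rfl⟩
  have h1 := ae_regLevel (T := T) hU' (fun x hx hd => by
    have hlo : ∀ᵐ t : ℝ, t ≠ lo := compl_mem_ae_iff.2 (measure_singleton lo)
    have hhi : ∀ᵐ t : ℝ, t ≠ hi := compl_mem_ae_iff.2 (measure_singleton hi)
    filter_upwards [hfin x hx hd, hlo, hhi] with t ht h2 h3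
    by_cases h4 : t ∈ Ioo lo hi
    · refine (ht h4).subset fun y hy => ⟨hy.1, ((hkey t h4 y).1).2 hy.2⟩
    · refine Set.Finite.subset finite_empty fun y hy => ?_
      have h5 : max lo (min hi (U y)) = t := hy.2
      rcases not_and_or.1 h4 with h6 | h6
      · have : lo ≤ t := by rw [← h5]; exact le_max_left _ _
        exact (h2 (le_antisymm (not_lt.1 h6) this)).elim
      · rcases le_or_gt hi lo with h7 | h7
        · have h8 : max lo (min hi (U y)) = lo := max_eq_left ((min_le_left _ _).trans h7)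
          exact (h2 (by rw [← h5, h8])).elim
        · have h9 : t ≤ hi := by
            rw [← h5]; exact max_le h7.le (min_le_left _ _)
          exact (h3 (le_antisymm h9 (not_lt.1 h6))).elim)
  filter_upwards [h1] with t ht hI
  have e : {x | x ∈ Om ∧ max lo (min hi (U x)) = t} = {x | x ∈ Om ∧ U x = t} := by
    ext x
    exact ⟨fun hx => ⟨hx.1, ((hkey t hI x).1).2 hx.2⟩, fun hx => ⟨hx.1, ((hkey t hI x).1).1 hx.2⟩⟩
  rw [e] at ht
  exact regLevel_congr (ht (hcpt t hI)) hU fun x _ => hkey t hI x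

theorem countable_pts [Countable J] (h : GFam T u c S fam) (h3 : Module.finrank ℝ E = 3) :
    {w | ∃ i, w ∈ S i ∧ T.dim w ≤ 1}.Countable := by
  have h1 : (⋃ i, {x | x ∈ S i ∧ T.dim x ≤ 1}).Countable :=
    countable_iUnion fun i => ((h.lev i).finite_P h3).countable
  refine h1.mono ?_
  rintro w ⟨i, hi⟩
  exact mem_iUnion.2 ⟨i, hi⟩

/-- **adding countably many single sheets to a family of regular levels** -/
theorem exists_sum (h3 : Module.finrank ℝ E = 3) [Countable J] (h : GFam T u c S fam) {Mo : Type}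
    [Countable Mo] {U : Mo → E → ℝ} {lo hi : Mo → ℝ} (hlh : ∀ m, lo m < hi m)
    (hU : ∀ m, ContinuousOn (U m) Om)
    (hcpt : ∀ m, ∀ t ∈ Ioo (lo m) (hi m), IsCompact {x | x ∈ Om ∧ U m x = t})
    (hfin : ∀ m, ∀ x ∈ Om, T.dim x = 1 → ∀ᵐ t : ℝ, t ∈ Ioo (lo m) (hi m) →
      {y | y ∈ T.cc x ∧ U m y = t}.Finite) (N : Mo → Set ℝ) (hN : ∀ m, volume (N m) = 0) :
    ∃ ε : Mo → ℝ, (∀ m, ε m ∈ Ioo (lo m) (hi m)) ∧ (∀ m, ε m ∉ N m) ∧
      GFam T (Sum.elim u U) (Sum.elim c ε)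
        (Sum.elim S fun m => {x | x ∈ Om ∧ U m x = ε m}) (Sum.map fam id : J ⊕ Mo → C ⊕ Mo) := by
  have hcp := countable_pts h h3
  let good : Mo → Set ℝ := fun m => {t | t ∈ Ioo (lo m) (hi m) ∧ t ∉ N m ∧
    RegLevel T (U m) t {x | x ∈ Om ∧ U m x = t} ∧ ∀ w, (∃ i, w ∈ S i ∧ T.dim w ≤ 1) → U m w ≠ t}
  let r : Mo → Mo → ℝ → ℝ → Prop := fun m m' t t' => ∀ x ∈ Om, T.dim x ≤ 1 → U m x = t → U m' x ≠ t'
  obtain ⟨ε, h1, h2⟩ := exists_choice good r (fun m s v hv => by
    have a1 : ∀ᵐ t : ℝ, t ∈ Ioo (lo m) (hi m) → RegLevel T (U m) t {x | x ∈ Om ∧ U m x = t} :=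
      ae_lev (hU m) (hcpt m) (hfin m)
    have a2 : ∀ᵐ t : ℝ, t ∉ N m := compl_mem_ae_iff.2 (hN m)
    have a3 : ∀ᵐ t : ℝ, t ∉ U m '' {w | ∃ i, w ∈ S i ∧ T.dim w ≤ 1} :=
      compl_mem_ae_iff.2 ((hcp.image _).measure_zero _)
    have a4 : ∀ᵐ t : ℝ, t ∉ U m '' ⋃ m' ∈ s, {x | (x ∈ Om ∧ U m' x = v m') ∧ T.dim x ≤ 1} := by
      refine compl_mem_ae_iff.2 (Countable.measure_zero (Countable.image ?_ _) _)
      refine Countable.biUnion (to_countable s) fun m' hm' => ?_
      exact ((hv m' hm').2.2.1.finite_P h3).countable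
    have hpos : (volume (Ioo (lo m) (hi m))) ≠ 0 := by
      rw [Real.volume_Ioo]
      simpa using hlh m
    have a5 := ((a1.and a2).and (a3.and a4))
    have a6 : ∃ t ∈ Ioo (lo m) (hi m), ((t ∈ Ioo (lo m) (hi m) → RegLevel T (U m) t {x | x ∈ Om ∧ U m x = t}) ∧
        t ∉ N m) ∧ t ∉ U m '' {w | ∃ i, w ∈ S i ∧ T.dim w ≤ 1} ∧
        t ∉ U m '' ⋃ m' ∈ s, {x | (x ∈ Om ∧ U m' x = v m') ∧ T.dim x ≤ 1} := by
      by_contra hcon
      push Not at hcon
      refine hpos (measure_mono_null (fun t ht => ?_) a5)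
      intro hh
      exact hh.2.2 (hcon t ht hh.1 hh.2.1)
    obtain ⟨t, ht, ⟨b1, b2⟩, b3, b4⟩ := a6
    refine ⟨t, ⟨ht, b2, b1 ht, fun w hw he => b3 ⟨w, hw, he⟩⟩, fun m' hm' x hx hd hxm he => ?_⟩
    exact b4 ⟨x, mem_biUnion hm' ⟨⟨hx, hxm⟩, hd⟩, he⟩)
  refine ⟨ε, fun m => (h1 m).1, fun m => (h1 m).2.1, ⟨?_, ?_, ?_, ?_⟩⟩
  · rintro (i | m)
    · exact h.lev i
    · exact (h1 m).2.2.1
  · rintro (i | m) (j | m') x hx hx' hd
    · exact congrArg Sum.inl (h.sep1 i j x hx hx' hd)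
    · exact ((h1 m').2.2.2 x ⟨i, hx, hd⟩ hx'.2).elim
    · exact ((h1 m).2.2.2 x ⟨j, hx', hd⟩ hx.2).elim
    · by_contra hne
      have hne' : m ≠ m' := fun e => hne (congrArg Sum.inr e)
      rcases h2 m m' hne' with h4 | h4
      · exact h4 x hx.1 hd hx.2 hx'.2
      · exact h4 x hx.1 hd hx'.2 hx.2
  · rintro (i | m) (j | m') hf hne
    · exact h.disj i j (Sum.inl_injective hf) fun e => hne (congrArg Sum.inl e)
    · exact (Sum.inl_ne_inr hf).elim
    · exact (Sum.inr_ne_inl hf).elim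
    · exact (hne (congrArg Sum.inr (Sum.inr_injective hf))).elim
  · rintro (a | m)
    · refine ((h.finC a).image Sum.inl).subset ?_
      rintro (j | m') hj
      · exact ⟨j, Sum.inl_injective hj, rfl⟩
      · exact (Sum.inr_ne_inl hj).elim
    · refine (finite_singleton (Sum.inr m : J ⊕ Mo)).subset ?_
      rintro (j | m') hj
      · exact (Sum.inl_ne_inr hj).elim
      · exact congrArg Sum.inr (Sum.inr_injective hj)

end Crest.Agent.R096.Bgf_4
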