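import Crest.Agent.R096.Bgf1_4
import Crest.Agent.R096.Lab6_184
import Crest.Agent.R096.Ginv2_543

/-! # Row 96, DOORS, barriers (helper4), part 2: comparison of a state with the state with barriers -/

set_option autoImplicit false
set_option linter.unusedSectionVars false

open Set Filter Topology Metric MeasureTheory

namespace Crest.Agent.R096.Bgf_4

open Crest.Agent.R096.Msh_715 Crest.Agent.R096.Agl4_543 Crest.Agent.R096.Agl5_543
  Crest.Agent.R096.Agl6_543 Crest.Agent.R096.Agl8_543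
  Crest.Agent.R096.Pat4_543 Crest.Agent.R096.Pat5_543 Crest.Agent.R096.St_147
  Crest.Agent.R096.Coh_184 Crest.Agent.R096.Seq_213 Crest.Agent.R096.Seq_213.GSt
  Crest.Agent.R096.Ginv_543
  Crest.Agent.R096.Lab_184

section ext

variable {ι Φ W J C Mo C' : Type} {M : MeshC ι Φ W} {fam : J → C} {fam' : J ⊕ Mo → C'}

/-- `s'` is `s` with more sheets -/
structure Ext (s : GSt M fam) (s' : GSt M fam') : Prop where
  pts : ∀ w j, (w ∈ s.P ∧ s.lab w = j) ↔ (w ∈ s'.P ∧ s'.lab w = Sum.inl j)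
  mu : ∀ F w, s.At F w → s'.mu F w = s.mu F w

variable {s : GSt M fam} {s' : GSt M fam'}

theorem Ext.mem (h : Ext s s') {w : W} (hw : w ∈ s.P) : w ∈ s'.P ∧ s'.lab w = Sum.inl (s.lab w) :=
  (h.pts w (s.lab w)).1 ⟨hw, rfl⟩

theorem Ext.of_lab (h : Ext s s') {w : W} {j : J} (hw : w ∈ s'.P) (hl : s'.lab w = Sum.inl j) :
    w ∈ s.P ∧ s.lab w = j := (h.pts w j).2 ⟨hw, hl⟩

theorem Ext.at_ (h : Ext s s') {F : Φ} {w : W} (hw : s.At F w) : s'.At F w :=
  ⟨(h.mem hw.1).1, hw.2⟩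

theorem Ext.step (h : Ext s s') {a b : W} (hg : GStep s a b) : GStep s' a b := by
  obtain ⟨F, h1, rfl⟩ := hg
  exact ⟨F, h.at_ h1, (h.mu F a h1).symm⟩

theorem Ext.step' (h : Ext s s') {a b : W} {j : J} (hj : s'.lab a = Sum.inl j)
    (hg : GStep s' a b) : GStep s a b := by
  obtain ⟨F, h1, rfl⟩ := hg
  have h2 := h.of_lab h1.1 hj
  exact ⟨F, ⟨h2.1, h1.2⟩, h.mu F a ⟨h2.1, h1.2⟩⟩

/-- the chord components -/
theorem Ext.gmain (h : Ext s s') {b : J → W} {b' : J ⊕ Mo → W} (hbb : ∀ j, b' (Sum.inl j) = b j)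
    (hb' : ∀ i, b' i ∈ s'.P ∧ s'.lab (b' i) = i) :
    Ext (Ginv_543.gmain s b) (Ginv_543.gmain s' b') where
  pts := by
    intro w j
    constructor
    · rintro ⟨⟨h1, i, hi⟩, h2⟩
      have h3 := h.mem h1
      refine ⟨⟨h3.1, Sum.inl i, ?_⟩, ?_⟩
      · rw [hbb]
        exact Relation.ReflTransGen.mono (fun _ _ => h.step) _ _ hi
      · exact h3.2.trans (congrArg Sum.inl h2)
    · rintro ⟨⟨h1, i', hi'⟩, h2⟩
      have h3 := (gcomp_lab hb' hi').2
      have h4 : i' = Sum.inl j := h3.symm.trans h2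
      subst h4
      have h5 := h.of_lab h1 h2
      refine ⟨⟨h5.1, j, ?_⟩, h5.2⟩
      rw [hbb] at hi'
      clear h1 h2 h3 h5
      induction hi' with
      | refl => exact .refl
      | tail g1 g2 ih =>
        refine ih.tail (h.step' (j := j) ?_ g2)
        rw [← hbb] at g1
        exact (gcomp_lab hb' g1).2
  mu := fun F w hw => h.mu F w ⟨hw.1.1, hw.2⟩

theorem Ext.H1 (h : Ext s s') {j : J} (hj : s.H1 j) : s'.H1 (Sum.inl j) := by
  intro κ hκ
  obtain ⟨Ψ, hΨ⟩ := hj κ (fun q => by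
    obtain ⟨ψ, hψ⟩ := hκ q
    refine ⟨ψ, fun F w hq hw hi => ?_⟩
    have h1 := hψ F w hq (h.at_ hw) ((h.mem hw.1).2.trans (congrArg Sum.inl hi))
    rwa [h.mu F w hw] at h1)
  refine ⟨Ψ, fun F w hw hi => ?_⟩
  have h2 := h.of_lab hw.1 hi
  have h3 : s.At F w := ⟨h2.1, hw.2⟩
  have h1 := hΨ F w h3 h2.2
  rwa [← h.mu F w h3] at h1

theorem Ext.H1' (h : Ext s s') {j : J} (hj : s'.H1 (Sum.inl j)) : s.H1 j := by
  intro κ hκ
  obtain ⟨Ψ, hΨ⟩ := hj κ (fun q => by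
    obtain ⟨ψ, hψ⟩ := hκ q
    refine ⟨ψ, fun F w hq hw hi => ?_⟩
    have h2 := h.of_lab hw.1 hi
    have h3 : s.At F w := ⟨h2.1, hw.2⟩
    have h1 := hψ F w hq h3 h2.2
    rwa [← h.mu F w h3] at h1)
  refine ⟨Ψ, fun F w hw hi => ?_⟩
  have h1 := hΨ F w (h.at_ hw) ((h.mem hw.1).2.trans (congrArg Sum.inl hi))
  rwa [h.mu F w hw] at h1

theorem Ext.conn (h : Ext s s') {j : J} (hj : s.Conn j) : s'.Conn (Sum.inl j) := by
  obtain ⟨⟨w0, h1, h2⟩, h3⟩ := hj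
  refine ⟨⟨w0, (h.mem h1).1, (h.mem h1).2.trans (congrArg Sum.inl h2)⟩, ?_⟩
  intro Y hY w hwY hw hwi w' hw' hwi'
  have g1 := h.of_lab hw hwi
  have g2 := h.of_lab hw' hwi'
  refine h3 Y (fun F v hv hat hi => ?_) w hwY g1.1 g1.2 w' g2.1 g2.2
  have := hY F v hv (h.at_ hat) ((h.mem hat.1).2.trans (congrArg Sum.inl hi))
  rwa [h.mu F v hat] at this

theorem Ext.conn' (h : Ext s s') {j : J} (hj : s'.Conn (Sum.inl j)) : s.Conn j := by
  obtain ⟨⟨w0, h1, h2⟩, h3⟩ := hj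
  have g0 := h.of_lab h1 h2
  refine ⟨⟨w0, g0.1, g0.2⟩, ?_⟩
  intro Y hY w hwY hw hwi w' hw' hwi'
  have e1 : s'.lab w = Sum.inl j := (h.mem hw).2.trans (congrArg Sum.inl hwi)
  have e2 : s'.lab w' = Sum.inl j := (h.mem hw').2.trans (congrArg Sum.inl hwi')
  refine h3 Y (fun F v hv hat hi => ?_) w hwY (h.mem hw).1 e1 w' (h.mem hw').1 e2
  have g1 := h.of_lab hat.1 hi
  have g2 : s.At F v := ⟨g1.1, hat.2⟩
  rw [h.mu F v g2]
  exact hY F v hv g2 g1.2

end ext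

section gfam

variable {E : Type} [NormedAddCommGroup E] [NormedSpace ℝ E] [FiniteDimensional ℝ E]
variable {Om : Set E} {ι : Type} {T : Tiling Om ι}
variable {J C Mo C' : Type} {u : J → E → ℝ} {c : J → ℝ} {S : J → Set E} {fam : J → C}
  {u' : J ⊕ Mo → E → ℝ} {c' : J ⊕ Mo → ℝ} {S' : J ⊕ Mo → Set E} {fam' : J ⊕ Mo → C'}

/-- **the states of regular levels** -/
theorem ext_gst [Nonempty J] (h : GFam T u c S fam) (h' : GFam T u' c' S' fam')
    (hS : ∀ j, S' (Sum.inl j) = S j) (h3 : Module.finrank ℝ E = 3) :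
    Ext (h.gst h3) (h'.gst h3) where
  pts := by
    intro w j
    have h1 := h.mem_pts_iff (w := w) (i := j)
    have h2 := h'.mem_pts_iff (w := w) (i := Sum.inl j)
    rw [hS] at h2
    exact h1.trans h2.symm
  mu := by
    intro F w hw
    have hwp : w ∈ h.pts := hw.1
    have hwF : w ∈ F.On := hw.2
    have h1 := (h.mem_pts_iff (w := w) (i := labf S w)).1 ⟨hwp, rfl⟩
    have h2 : w ∈ h'.pts ∧ labf S' w = Sum.inl (labf S w) :=
      h'.mem_pts_iff.2 (by rw [hS]; exact h1)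
    have hs := (h.mu_spec h3 hwp hwF).1
    have ht := (h'.mu_spec h3 h2.1 hwF).2 (h.mu h3 F w) hs.1
    rw [h2.2, hS] at ht
    exact (ht hs.2.1.1 hs.2.1.2 hs.2.2).symm

theorem gPts_ext {h3 : Module.finrank ℝ E = 3} {s : GSt (meshC T h3) fam} {s' : GSt (meshC T h3) fam'}
    (h : Ext s s') (j : J) : gPts s' (Sum.inl j) = gPts s j := by
  ext w
  rw [mem_gPts, mem_gPts]
  exact (h.pts w j).symm

end gfam

end Crest.Agent.R096.Bgf_4
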