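import Crest.Agent.R096.Ess8_95
import Crest.Agent.R096.Pse2_316
import Crest.Agent.R96.Push5_899

/-! # Row 96, DOORS, barriers (helper4), part 4: the push is Lipschitz off the point hole -/

set_option autoImplicit false
set_option linter.unusedSectionVars false

open Set Filter Topology Metric

namespace Crest.Agent.R096.Bgf_4

open Crest.Agent.R096.Bsp_628 Crest.Agent.R096.Brk1_582 Crest.Agent.R096.Brk2_582
  Crest.Agent.R096.Brk3_582 Crest.Agent.R096.Brk5_582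
  Crest.Agent.R96.Push_899 Crest.Agent.R096.Sphg_316

open Crest.Agent.R096.SkC1_961 (E3 Hom3 IsPush FoamD)
open Crest.Agent.R096.Vb_965 (Push pushD muD Psi_eqD)
open Crest.Agent.R096.Mbf_337 (gau)

section lip

variable {P : Finset (Fin 3)} {c₀ κ ρ : ℝ} {Q C B : Box (Fin 3)}

/-- **the two-stage push is Lipschitz where `m ≤ tt C B`** -/
theorem psi_lip (hQ : Shape P c₀ κ ρ Q C) (hC : Inner C B) {m : ℝ} (hm : 0 < m) (hm1 : m ≤ 1) :
    ∃ K : ℝ, 0 ≤ K ∧ ∀ y y' : E3, m ≤ tt C B y → m ≤ tt C B y' →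
      ‖psi Q C B y' - psi Q C B y‖ ≤ K * ‖y' - y‖ := by
  have hc0 := hQ.c0
  set a : Fin 3 → ℝ := fun j => ∑ i, Q.W i / C.W j with ha
  have hr0 : ∀ i j, 0 ≤ Q.W i / C.W j := fun i j => div_nonneg (hQ.W0 i).le (hQ.CW j).le
  have ha0 : ∀ j, 0 ≤ a j := fun j => Finset.sum_nonneg fun i _ => hr0 i j
  have haW : ∀ i j, Q.W i ≤ a j * C.W j := fun i j => by
    have h1 : Q.W i / C.W j ≤ a j :=
      Finset.single_le_sum (f := fun i => Q.W i / C.W j) (fun i _ => hr0 i j) (Finset.mem_univ i)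
    rwa [div_le_iff₀ (hQ.CW j)] at h1
  set K1 : ℝ := 2 / c₀ ^ 2 * 3 with hK1
  set K2 : ℝ := 9 * (1 / m) * ∑ j, a j with hK2
  have hK1' : 0 ≤ K1 := by positivity
  have hK2' : 0 ≤ K2 := by
    have := Finset.sum_nonneg (s := Finset.univ) fun j _ => ha0 j
    positivity
  set K := max K1 K2 with hK
  have hK0 : 0 ≤ K := le_max_of_le_left hK1'
  have hout : ∀ y y' : E3, y ∉ C.I → y' ∉ C.I →
      ‖psi Q C B y' - psi Q C B y‖ ≤ K * ‖y' - y‖ := by
    intro y y' hy hy'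
    have h0 : 0 ≤ K * ‖y' - y‖ := mul_nonneg hK0 (norm_nonneg _)
    refine (pi_norm_le_iff_of_nonneg h0).2 fun i => ?_
    have h1 := psi_incr_out hQ hC hy hy' i
    have h2 : ∑ j, |y' j - y j| ≤ 3 * ‖y' - y‖ := by
      refine (Finset.sum_le_sum (g := fun _ => ‖y' - y‖) fun j _ => ?_).trans ?_
      · exact norm_le_pi_norm (y' - y) j
      · simp
    rw [Pi.sub_apply, Real.norm_eq_abs]
    refine h1.trans ?_
    calc 2 / c₀ ^ 2 * ∑ j, |y' j - y j| ≤ 2 / c₀ ^ 2 * (3 * ‖y' - y‖) :=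
          mul_le_mul_of_nonneg_left h2 (by positivity)
      _ = K1 * ‖y' - y‖ := by rw [hK1]; ring
      _ ≤ K * ‖y' - y‖ := mul_le_mul_of_nonneg_right (le_max_left _ _) (norm_nonneg _)
  have hin : ∀ y y' : E3, y ∈ C.S → y' ∈ C.S → m ≤ tt C B y → m ≤ tt C B y' →
      ‖psi Q C B y' - psi Q C B y‖ ≤ K * ‖y' - y‖ := by
    intro y y' hy hy' hmy hmy'
    have h0 : 0 ≤ K * ‖y' - y‖ := mul_nonneg hK0 (norm_nonneg _)
    refine (pi_norm_le_iff_of_nonneg h0).2 fun i => ?_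
    have o1 : Off C B y := ⟨hm.le.trans hmy, Or.inl (hm.trans_le hmy)⟩
    have o2 : Off C B y' := ⟨hm.le.trans hmy', Or.inl (hm.trans_le hmy')⟩
    have hM : ∀ i, C.W i ≤ (1 / m) * ww C B i (tt C B y') := by
      intro i
      have h1 := hC.W_le_ww i o2.1 ((tt_le_one_iff hC.nest y').2 hy')
      have h2 := hC.W0 i
      have h3 : m * C.W i ≤ ww C B i (tt C B y') := by nlinarith
      rw [one_div, le_inv_mul_iff₀ hm]
      exact h3
    have h1 := psi_incr_in hQ hC hy hy' o1 o2 hM haW i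
    have h2 : ∑ j, a j * |y' j - y j| ≤ (∑ j, a j) * ‖y' - y‖ := by
      rw [Finset.sum_mul]
      exact Finset.sum_le_sum fun j _ =>
        mul_le_mul_of_nonneg_left (norm_le_pi_norm (y' - y) j) (ha0 j)
    rw [Pi.sub_apply, Real.norm_eq_abs]
    refine h1.trans ?_
    calc 9 * (1 / m) * ∑ j, a j * |y' j - y j| ≤ 9 * (1 / m) * ((∑ j, a j) * ‖y' - y‖) :=
          mul_le_mul_of_nonneg_left h2 (by positivity)
      _ = K2 * ‖y' - y‖ := by rw [hK2]; ring
      _ ≤ K * ‖y' - y‖ := mul_le_mul_of_nonneg_right (le_max_right _ _) (norm_nonneg _)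
  -- mixed pairs
  have hmix : ∀ y y' : E3, y ∈ C.S → y' ∉ C.S → m ≤ tt C B y →
      ‖psi Q C B y' - psi Q C B y‖ ≤ K * ‖y' - y‖ := by
    intro y y' hy hy' hmy
    have e0 : tt C B y ≤ 1 := (tt_le_one_iff hC.nest y).2 hy
    have e1 : 1 ≤ tt C B y' := by
      by_contra h
      exact hy' ((tt_le_one_iff hC.nest y').1 (not_le.1 h).le)
    have hcont : ContinuousOn (fun s : ℝ => tt C B (y + s • (y' - y))) (Icc 0 1) :=
      ((continuous_tt C B).comp (by fun_prop)).continuousOn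
    obtain ⟨s, hs, hst⟩ := intermediate_value_Icc (zero_le_one) hcont (show (1:ℝ) ∈ Icc _ _ from
      ⟨by simpa using e0, by simpa using e1⟩)
    have hst' : tt C B (y + s • (y' - y)) = 1 := hst
    set w := y + s • (y' - y) with hw
    have hwS : w ∈ C.S := (tt_le_one_iff hC.nest w).1 hst'.le
    have hwI : w ∉ C.I := fun h => by
      have := (tt_lt_one_iff hC.nest w).2 h
      linarith
    have hy'I : y' ∉ C.I := fun h => hy' fun i => ⟨(h i).1.le, (h i).2.le⟩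
    have a1 := hin y w hy hwS hmy (by rw [hst']; exact hm1)
    have a2 := hout w y' hwI hy'I
    have n1 : ‖w - y‖ = s * ‖y' - y‖ := by
      rw [hw, add_sub_cancel_left, norm_smul, Real.norm_eq_abs, abs_of_nonneg hs.1]
    have n2 : ‖y' - w‖ = (1 - s) * ‖y' - y‖ := by
      have : y' - w = (1 - s) • (y' - y) := by rw [hw, sub_smul, one_smul]; abel
      rw [this, norm_smul, Real.norm_eq_abs, abs_of_nonneg (by linarith [hs.2])]
    calc ‖psi Q C B y' - psi Q C B y‖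
        = ‖(psi Q C B y' - psi Q C B w) + (psi Q C B w - psi Q C B y)‖ := by congr 1; abel
      _ ≤ ‖psi Q C B y' - psi Q C B w‖ + ‖psi Q C B w - psi Q C B y‖ := norm_add_le _ _
      _ ≤ K * ‖y' - w‖ + K * ‖w - y‖ := add_le_add a2 a1
      _ = K * ‖y' - y‖ := by rw [n1, n2]; ring
  refine ⟨K, hK0, fun y y' hy hy' => ?_⟩
  by_cases h1 : y ∈ C.S
  · by_cases h2 : y' ∈ C.S
    · exact hin y y' h1 h2 hy hy'
    · exact hmix y y' h1 h2 hy
  · by_cases h2 : y' ∈ C.S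
    · have := hmix y' y h2 h1 hy'
      rwa [norm_sub_rev, norm_sub_rev y y'] at this
    · exact hout y y' (fun h => h1 fun i => ⟨(h i).1.le, (h i).2.le⟩)
        (fun h => h2 fun i => ⟨(h i).1.le, (h i).2.le⟩)

end lip

section foam

variable {δ κ0 R c0 : ℝ} {La : Set E3} {Φ : FoamD δ κ0 R c0 La}

/-- **the push of a brick with a point hole is Lipschitz off the hole** -/
theorem Psi_lip (hLa : IsOpen La) {c : Φ.F} (hpt : (Φ.B c).lo = (Φ.B c).hi) {r : ℝ} (hr : 0 < r) :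
    ∃ K : ℝ, 0 ≤ K ∧ ∀ y ∈ c.1.set, ∀ y' ∈ c.1.set, r ≤ gau c.1 (Φ.B c).lo y →
      r ≤ gau c.1 (Φ.B c).lo y' → ‖Φ.Psi y' - Φ.Psi y‖ ≤ K * ‖y' - y‖ := by
  rcases Φ.push c with ⟨P, κ, ρ, hS, he⟩ | ⟨P, κ, ρ, C, hS, hI, he⟩
  · exfalso
    have h1 := hS.CW 0
    unfold Box.W at h1
    rw [← hpt] at h1
    simp at h1
  · have hb := Pse_316.bod_brick Φ c hpt
    have hgf : gau c.1 (Φ.B c).lo = Ng (Φ.B c).lo c.1.set := funext (Pse_316.gau_eq c.1 _)
    set K0 : Set E3 := c.1.set ∩ {y | r ≤ gau c.1 (Φ.B c).lo y} with hK0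
    have hcpt : IsCompact K0 := by
      rw [hK0, hgf]
      exact hb.cpt.inter_right (isClosed_le continuous_const hb.continuous)
    have hpos : ∀ y ∈ K0, 0 < tt C (Φ.B c) y := by
      rintro y ⟨hy, hyr⟩
      have hyr' : r ≤ gau c.1 (Φ.B c).lo y := hyr
      by_contra hcon
      rw [not_lt, tt_le_zero_iff hI.nest] at hcon
      have h1 : y = (Φ.B c).lo := by
        ext k
        exact le_antisymm (((hcon k).2).trans (by rw [hpt])) (hcon k).1
      rw [h1, hgf, Ng_self] at hyr'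
      linarith
    obtain ⟨m, hm, hm1, hmK⟩ : ∃ m : ℝ, 0 < m ∧ m ≤ 1 ∧ ∀ y ∈ K0, m ≤ tt C (Φ.B c) y := by
      rcases K0.eq_empty_or_nonempty with h | h
      · exact ⟨1, one_pos, le_rfl, fun y hy => by rw [h] at hy; exact hy.elim⟩
      · obtain ⟨y0, hy0, hmin⟩ := hcpt.exists_isMinOn h (continuous_tt C (Φ.B c)).continuousOn
        exact ⟨min 1 (tt C (Φ.B c) y0), lt_min one_pos (hpos y0 hy0), min_le_left _ _,
          fun y hy => (min_le_right _ _).trans (hmin hy)⟩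
    obtain ⟨K, hK, hKl⟩ := psi_lip hS hI hm hm1
    refine ⟨K, hK, fun y hy y' hy' h1 h2 => ?_⟩
    rw [Psi_eqD Φ hLa hy, Psi_eqD Φ hLa hy', he]
    exact hKl y y' (hmK y ⟨hy, h1⟩) (hmK y' ⟨hy', h2⟩)

end foam

end Crest.Agent.R096.Bgf_4
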