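import Crest.Agent.R096.Vb3_965
import Crest.Agent.R096.Coh6_184

/-! # Row 96, DOORS, barriers (helper4), part 5: the boundary of a cylinder over a disc has trivial
torsors and is connected -/

set_option autoImplicit false
set_option linter.unusedSectionVars false

open Set Filter Topology Metric

namespace Crest.Agent.R096.Bgf_4

open Crest.Agent.R096.Coh_184 Crest.Agent.R096.Vb_965

section cyl

variable {X : Type*} [MetricSpace X] {A : Type*} [AddCommGroup A]

/-- a half of the boundary of the cylinder: `D × {b} ∪ E × [m, b]`, `m ≤ b` (or `b ≤ m`) -/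
def hcyl (D E : Set X) (m b : ℝ) : Set (ℝ × X) :=
  {p | p.2 ∈ D ∧ p.1 ∈ uIcc m b ∧ (p.1 = b ∨ p.2 ∈ E)}

theorem hcyl_cpt {D E : Set X} (hD : IsCompact D) (hE : IsClosed E) (m b : ℝ) :
    IsCompact (hcyl D E m b) := by
  have h1 : hcyl D E m b = (uIcc m b ×ˢ D) ∩ {p : ℝ × X | p.1 = b ∨ p.2 ∈ E} := by
    ext p
    constructor
    · rintro ⟨h1, h2, h3⟩
      exact ⟨⟨h2, h1⟩, h3⟩
    · rintro ⟨⟨h1, h2⟩, h3⟩
      exact ⟨h2, h1, h3⟩
  rw [h1]
  refine (isCompact_uIcc.prod hD).inter_right ?_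
  exact (isClosed_eq continuous_fst continuous_const).union (hE.preimage continuous_snd)

theorem hcyl_fib {D E : Set X} (m b : ℝ) {q : X} (hq : q ∈ D) :
    (q ∈ E → hcyl D E m b ∩ Prod.snd ⁻¹' {q} = (fun s : ℝ => (s, q)) '' uIcc m b) ∧
      (q ∉ E → hcyl D E m b ∩ Prod.snd ⁻¹' {q} = {(b, q)}) := by
  constructor
  · intro hE
    ext ⟨s, q'⟩
    constructor
    · rintro ⟨⟨h1, h2, h3⟩, h4⟩
      have h5 : q' = q := h4
      exact ⟨s, h2, by rw [h5]⟩
    · rintro ⟨s', hs', he⟩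
      have h5 := Prod.mk.inj he
      obtain ⟨rfl, rfl⟩ := h5
      exact ⟨⟨hq, hs', Or.inr hE⟩, rfl⟩
  · intro hE
    ext ⟨s, q'⟩
    constructor
    · rintro ⟨⟨h1, h2, h3⟩, h4⟩
      have h5 : q' = q := h4
      subst h5
      rcases h3 with h3 | h3
      · have h6 : s = b := h3
        rw [h6]; rfl
      · exact (hE h3).elim
    · intro he
      have h5 := Prod.mk.inj (mem_singleton_iff.1 he)
      obtain ⟨rfl, rfl⟩ := h5
      exact ⟨⟨hq, right_mem_uIcc, Or.inl rfl⟩, rfl⟩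

theorem hcyl_snd {D E : Set X} (m b : ℝ) :
    Prod.snd '' (hcyl D E m b) = D := by
  ext q
  constructor
  · rintro ⟨p, hp, rfl⟩
    exact hp.1
  · intro hq
    exact ⟨(b, q), ⟨hq, right_mem_uIcc, Or.inl rfl⟩, rfl⟩

theorem trivF_seg (a b : ℝ) (q : X) : TrivF A ((fun s : ℝ => (s, q)) '' uIcc a b) := by
  have h1 : TrivF A (uIcc a b : Set ℝ) := trivF_Icc
  exact h1.of_image isCompact_uIcc isCompact_uIcc.isClosed (by fun_prop)
    fun s _ s' _ h => (Prod.mk.inj h).1

theorem hcyl_pre {D E : Set X} (hD : IsCompact D) (hE : IsClosed E) (hDc : IsPreconnected D)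
    (m b : ℝ) : IsPreconnected (hcyl D E m b) := by
  refine preconn_of_fibres (hcyl_cpt hD hE m b) continuous_snd.continuousOn
    (hcyl_snd m b) (fun q hq => ?_) hDc
  by_cases hqE : q ∈ E
  · rw [(hcyl_fib m b hq).1 hqE]
    exact isPreconnected_uIcc.image _ (by fun_prop)
  · rw [(hcyl_fib m b hq).2 hqE]
    exact isPreconnected_singleton

theorem hcyl_triv {D E : Set X} (hD : IsCompact D) (hE : IsClosed E) (hDt : TrivF A D)
    (m b : ℝ) : TrivF A (hcyl D E m b) := by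
  intro n
  have hc := hcyl_cpt hD hE m b
  refine TrivAll.of_fibres hc hc.isClosed continuous_snd.continuousOn (hcyl_snd m b)
    (fun q hq => ?_) (fun q hq => ?_) fun k => hDt k
  · by_cases hqE : q ∈ E
    · rw [(hcyl_fib m b hq).1 hqE]
      exact isPreconnected_uIcc.image _ (by fun_prop)
    · rw [(hcyl_fib m b hq).2 hqE]
      exact isPreconnected_singleton
  · by_cases hqE : q ∈ E
    · rw [(hcyl_fib m b hq).1 hqE]
      exact trivF_seg m b q n
    · rw [(hcyl_fib m b hq).2 hqE]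
      exact trivF_singleton (b, q) n

/-- the boundary of the cylinder over `D` with `E` = boundary of `D` -/
def cyl (D E : Set X) (a b : ℝ) : Set (ℝ × X) :=
  {p | p.2 ∈ D ∧ p.1 ∈ Icc a b ∧ (p.1 = a ∨ p.1 = b ∨ p.2 ∈ E)}

theorem cyl_eq {D E : Set X} {a m b : ℝ} (ham : a < m) (hmb : m < b) :
    cyl D E a b = hcyl D E m a ∪ hcyl D E m b := by
  ext ⟨s, q⟩
  constructor
  · rintro ⟨h1, h2, h3⟩
    have h1' : q ∈ D := h1
    have h2' : s ∈ Icc a b := h2
    rcases le_total s m with h | h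
    · refine Or.inl ⟨h1', ?_, ?_⟩
      · rw [uIcc_of_ge ham.le]; exact ⟨h2'.1, h⟩
      · rcases h3 with h3 | h3 | h3
        · exact Or.inl h3
        · have : s = b := h3
          linarith
        · exact Or.inr h3
    · refine Or.inr ⟨h1', ?_, ?_⟩
      · rw [uIcc_of_le hmb.le]; exact ⟨h, h2'.2⟩
      · rcases h3 with h3 | h3 | h3
        · have : s = a := h3
          linarith
        · exact Or.inl h3
        · exact Or.inr h3
  · rintro (⟨h1, h2, h3⟩ | ⟨h1, h2, h3⟩)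
    · rw [uIcc_of_ge ham.le] at h2
      refine ⟨h1, ⟨h2.1, h2.2.trans hmb.le⟩, ?_⟩
      rcases h3 with h3 | h3
      · exact Or.inl h3
      · exact Or.inr (Or.inr h3)
    · rw [uIcc_of_le hmb.le] at h2
      refine ⟨h1, ⟨ham.le.trans h2.1, h2.2⟩, ?_⟩
      rcases h3 with h3 | h3
      · exact Or.inr (Or.inl h3)
      · exact Or.inr (Or.inr h3)

theorem hcyl_inter {D E : Set X} (hED : E ⊆ D) {a m b : ℝ} (ham : a < m) (hmb : m < b) :
    hcyl D E m a ∩ hcyl D E m b = (fun q => (m, q)) '' E := by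
  ext ⟨s, q⟩
  constructor
  · rintro ⟨⟨h1, h2, h3⟩, ⟨h4, h5, h6⟩⟩
    rw [uIcc_of_ge ham.le] at h2
    rw [uIcc_of_le hmb.le] at h5
    have hs : s = m := le_antisymm h2.2 h5.1
    rcases h3 with h3 | h3
    · have h3' : s = a := h3
      linarith
    · exact ⟨q, h3, by rw [hs]⟩
  · rintro ⟨q', hq', he⟩
    obtain ⟨rfl, rfl⟩ := Prod.mk.inj he
    exact ⟨⟨hED hq', left_mem_uIcc, Or.inr hq'⟩, ⟨hED hq', left_mem_uIcc, Or.inr hq'⟩⟩

theorem cyl_cpt {D E : Set X} (hD : IsCompact D) (hE : IsClosed E) {a b : ℝ} (hab : a < b) :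
    IsCompact (cyl D E a b) := by
  obtain ⟨m, h1, h2⟩ := exists_between hab
  rw [cyl_eq h1 h2]
  exact (hcyl_cpt hD hE m a).union (hcyl_cpt hD hE m b)

/-- **the boundary of a cylinder is connected** -/
theorem cyl_pre {D E : Set X} (hD : IsCompact D) (hE : IsClosed E) (hED : E ⊆ D)
    (hDc : IsPreconnected D) (hEn : E.Nonempty) {a b : ℝ} (hab : a < b) :
    IsPreconnected (cyl D E a b) := by
  obtain ⟨m, h1, h2⟩ := exists_between hab
  rw [cyl_eq h1 h2]
  obtain ⟨q, hq⟩ := hEn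
  have h3 : (m, q) ∈ hcyl D E m a ∩ hcyl D E m b := by
    rw [hcyl_inter hED h1 h2]; exact ⟨q, hq, rfl⟩
  exact IsPreconnected.union (m, q) h3.1 h3.2 (hcyl_pre hD hE hDc m a) (hcyl_pre hD hE hDc m b)

/-- **the boundary of a cylinder over a disc has trivial torsors** -/
theorem cyl_triv {D E : Set X} (hD : IsCompact D) (hE : IsClosed E) (hED : E ⊆ D)
    (hEc : IsPreconnected E) (hDt : TrivF A D) {a b : ℝ} (hab : a < b) :
    TrivF A (cyl D E a b) := by
  obtain ⟨m, h1, h2⟩ := exists_between hab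
  rw [cyl_eq h1 h2]
  intro n
  refine TrivAll.union (hcyl_cpt hD hE m a).isClosed (hcyl_cpt hD hE m b).isClosed ?_
    (hcyl_triv hD hE hDt m a n) (hcyl_triv hD hE hDt m b n)
  rw [hcyl_inter hED h1 h2]
  exact hEc.image _ (by fun_prop)

end cyl

end Crest.Agent.R096.Bgf_4
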