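import Crest.Agent.R096.Bgf3_4
import Crest.Agent.R096.Bgf4_4
import Crest.Agent.R096.Bgf5_4

/-! # Row 96, DOORS, barriers (helper4), part 6: polar coordinates; the barrier function
`min hi (max (|gau - rm| / h) (G ∘ Psi))` -/

set_option autoImplicit false
set_option linter.unusedSectionVars false

open Set Filter Topology Metric

namespace Crest.Agent.R096.Bgf_4

open Crest.Agent.R096.Msh_715 Crest.Agent.R096.Coh_184 Crest.Agent.R096.Bsp_628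
  Crest.Agent.R096.Brk1_582 Crest.Agent.R096.Brk2_582 Crest.Agent.R096.Brk3_582
  Crest.Agent.R096.Brk5_582 Crest.Agent.R096.Init_543 Crest.Agent.R096.Mbf_337
  Crest.Agent.R96.Push_899 Crest.Agent.R096.Ess5_95
  Crest.Agent.R096.Exa_560 Crest.Agent.R096.Sphg_316

open Crest.Agent.R096.SkC1_961 (E3 Hom3 IsPush FoamD)
open Crest.Agent.R096.Vb_965 (Push pushD muD)

/-! ### sub- and superlevels of a function with connected level -/

theorem preconn_le_of_eq {X : Type*} [TopologicalSpace X] {F : Set X} (hF : IsClosed F)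
    (hFc : IsPreconnected F) {G : X → ℝ} (hG : ContinuousOn G F) {t : ℝ}
    (hE : IsPreconnected {x | x ∈ F ∧ G x = t}) : IsPreconnected {x | x ∈ F ∧ G x ≤ t} := by
  have key : ∀ C D : Set X, IsClosed C → IsClosed D → {x | x ∈ F ∧ G x ≤ t} ⊆ C ∪ D →
      ({x | x ∈ F ∧ G x ≤ t} ∩ C).Nonempty → ({x | x ∈ F ∧ G x ≤ t} ∩ D).Nonempty →
      ¬ ({x | x ∈ F ∧ G x = t} ∩ D).Nonempty →
      ({x | x ∈ F ∧ G x ≤ t} ∩ (C ∩ D)).Nonempty := by
    intro C D hC hD hcov hSC hSD hED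
    by_contra hne
    have hS : IsClosed {x | x ∈ F ∧ G x ≤ t} := hG.preimage_isClosed_of_isClosed hF isClosed_Iic
    have hU : IsClosed {x | x ∈ F ∧ t ≤ G x} := hG.preimage_isClosed_of_isClosed hF isClosed_Ici
    have h1 := isPreconnected_closed_iff.1 hFc (({x | x ∈ F ∧ G x ≤ t} ∩ C) ∪ {x | x ∈ F ∧ t ≤ G x})
      ({x | x ∈ F ∧ G x ≤ t} ∩ D) ((hS.inter hC).union hU) (hS.inter hD) (by
        intro x hx
        rcases le_total (G x) t with h | h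
        · rcases hcov ⟨hx, h⟩ with h' | h'
          · exact Or.inl (Or.inl ⟨⟨hx, h⟩, h'⟩)
          · exact Or.inr ⟨⟨hx, h⟩, h'⟩
        · exact Or.inl (Or.inr ⟨hx, h⟩))
      (by obtain ⟨x, hx, hxC⟩ := hSC; exact ⟨x, hx.1, Or.inl ⟨hx, hxC⟩⟩)
      (by obtain ⟨x, hx, hxD⟩ := hSD; exact ⟨x, hx.1, hx, hxD⟩)
    obtain ⟨x, hxF, hx1, hx2⟩ := h1
    rcases hx1 with hx1 | hx1
    · exact hne ⟨x, hx2.1, hx1.2, hx2.2⟩
    · exact hED ⟨x, ⟨hxF, le_antisymm hx2.1.2 hx1.2⟩, hx2.2⟩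
  rw [isPreconnected_closed_iff]
  intro C D hC hD hcov hSC hSD
  by_cases h1 : ({x | x ∈ F ∧ G x = t} ∩ C).Nonempty
  · by_cases h2 : ({x | x ∈ F ∧ G x = t} ∩ D).Nonempty
    · obtain ⟨x, hx, hx'⟩ := isPreconnected_closed_iff.1 hE C D hC hD
        (fun x hx => hcov ⟨hx.1, hx.2.le⟩) h1 h2
      exact ⟨x, ⟨hx.1, hx.2.le⟩, hx'⟩
    · exact key C D hC hD hcov hSC hSD h2
  · have := key D C hD hC (by rwa [union_comm]) hSD hSC h1
    rwa [inter_comm D C] at this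

theorem preconn_ge_of_eq {X : Type*} [TopologicalSpace X] {F : Set X} (hF : IsClosed F)
    (hFc : IsPreconnected F) {G : X → ℝ} (hG : ContinuousOn G F) {t : ℝ}
    (hE : IsPreconnected {x | x ∈ F ∧ G x = t}) : IsPreconnected {x | x ∈ F ∧ t ≤ G x} := by
  have h1 : {x | x ∈ F ∧ t ≤ G x} = {x | x ∈ F ∧ -G x ≤ -t} := by
    ext x; simp
  have h2 : {x | x ∈ F ∧ G x = t} = {x | x ∈ F ∧ -G x = -t} := by
    ext x; simp
  rw [h1]
  rw [h2] at hE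
  exact preconn_le_of_eq hF hFc hG.neg hE

/-! ### polar coordinates -/

section polar

variable {δ κ0 R c0 : ℝ} {La : Set E3} (Φ : FoamD δ κ0 R c0 La)

/-- polar coordinates round the point hole -/
structure Pol (c : Φ.F) (ρ : ℝ) (p : ℝ × E3 → E3) : Prop where
  frc : IsCompact (frontier c.1.set)
  frp : IsPreconnected (frontier c.1.set)
  cont : ContinuousOn p (univ ×ˢ frontier c.1.set)
  gau : ∀ s ∈ Ioc 0 ρ, ∀ q ∈ frontier c.1.set, ga Φ c (p (s, q)) = s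
  psi : ∀ s ∈ Ioc 0 ρ, ∀ q ∈ frontier c.1.set, Φ.Psi (p (s, q)) = q
  inv : ∀ y, 0 < ga Φ c y → ga Φ c y ≤ ρ →
    Φ.Psi y ∈ frontier c.1.set ∧ p (ga Φ c y, Φ.Psi y) = y
  lip : ∃ L : NNReal, LipschitzWith L (ga Φ c)
  cvx : ∀ r, Convex ℝ {y | ga Φ c y ≤ r}

variable {Φ}

theorem exists_pol (hLa : IsOpen La) {c : Φ.F} (hpt : (Φ.B c).lo = (Φ.B c).hi) {ρ : ℝ}
    (hρ0 : 0 < ρ) (hρ1 : ρ < 1) (hray : RayTo Φ c ρ) : ∃ p, Pol Φ c ρ p := by
  have F := foam4 Φ hLa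
  have hp := pushD Φ hLa
  have hb : Bod (Φ.B c).lo (Pc Φ.F c) := Pse_316.bod_brick Φ c hpt
  have hgf : ga Φ c = Ng (Φ.B c).lo (Pc Φ.F c) := funext (Etg_163.gg_eq Φ c)
  have S := Etg_163.str_of Φ hLa hpt hρ0 hρ1 hray
  have hfr : frontier c.1.set = {q | q ∈ Pc Φ.F c ∧ ∃ d, d ≠ c ∧ q ∈ Pc Φ.F d} :=
    frontier_c Φ hLa c
  have h3 : Module.finrank ℝ E3 = 3 := by simp [E3]
  refine ⟨fun x => (Φ.B c).lo + (x.1 / ρ) •
    (Etg_163.rp (Pc Φ.F) Φ.Psi c (Φ.B c).lo ρ x.2 - (Φ.B c).lo), ?_, ?_, ?_, ?_, ?_, ?_, ?_, ?_⟩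
  · exact hb.cpt.of_isClosed_subset isClosed_frontier hb.cpt.isClosed.frontier_subset
  · have hD := Vb_965.isPreconnected_Lset F h3 (Vb_965.cell_nonempty Φ c) le_rfl one_pos
    rw [Lset_zero F] at hD
    rw [hfr]
    exact hD
  · have h5 : ContinuousOn (fun x : ℝ × E3 =>
        Etg_163.rp (Pc Φ.F) Φ.Psi c (Φ.B c).lo ρ x.2) (univ ×ˢ frontier c.1.set) :=
      (Etg_163.continuousOn_rp F hp S).comp continuous_snd.continuousOn fun x hx => by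
        have := hx.2
        rwa [hfr] at this
    exact continuousOn_const.add (((continuous_fst.div_const ρ).continuousOn).smul
      (h5.sub continuousOn_const))
  · intro s hs q hq
    rw [hfr] at hq
    obtain ⟨h5, d, hdc, h6⟩ := hq
    obtain ⟨h7, h8⟩ := Etg_163.rp_spec F hp S hdc h5 h6
    obtain ⟨g1, g2, g3, -⟩ := Etg_163.ray_pt F hp S h7 (div_pos hs.1 hρ0)
      ((div_le_one hρ0).2 hs.2)
    rw [div_mul_cancel₀ _ hρ0.ne'] at g1
    rw [hgf]; exact g1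
  · intro s hs q hq
    rw [hfr] at hq
    obtain ⟨h5, d, hdc, h6⟩ := hq
    obtain ⟨h7, h8⟩ := Etg_163.rp_spec F hp S hdc h5 h6
    obtain ⟨g1, g2, g3, -⟩ := Etg_163.ray_pt F hp S h7 (div_pos hs.1 hρ0)
      ((div_le_one hρ0).2 hs.2)
    show Φ.Psi _ = q
    rw [g2, h8]
  · intro y hy0 hy1
    rw [hgf] at hy0 hy1
    have hyP : y ∈ Pc Φ.F c := Etg_163.mem_of_Ng F hp S hy1
    have hw := Etg_163.wall_of Φ hLa hpt hρ1 hray hy0 hy1 le_rfl (y := y) hyP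
      (by rw [Etg_163.gg_eq])
    obtain ⟨h5, d, hdc, h6⟩ := hw
    have hfq : Φ.Psi y ∈ frontier c.1.set := by rw [hfr]; exact ⟨h5, d, hdc, h6⟩
    obtain ⟨h7, h8⟩ := Etg_163.rp_spec F hp S hdc h5 h6
    have hyz : y ≠ (Φ.B c).lo := hb.pos.1 hy0
    refine ⟨hfq, ?_⟩
    rw [hgf]
    exact (Etg_163.eq_pt F hp S h7 hyz hy1 h8.symm).symm
  · rw [hgf]; exact hb.lipschitz
  · intro r
    rw [hgf]; exact hb.convex_le r

end polar

end Crest.Agent.R096.Bgf_4
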