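import Crest.Agent.R096.Bgf7_4
import Crest.Agent.R096.Init10_543

/-! # Row 96, DOORS, barriers (helper4), part 8: root and label of a barrier -/

set_option autoImplicit false
set_option linter.unusedSectionVars false

open Set Filter Topology Metric

namespace Crest.Agent.R096.Bgf_4

open Crest.Agent.R096.Msh_715 Crest.Agent.R096.Coh_184 Crest.Agent.R096.Bsp_628
  Crest.Agent.R096.Brk1_582 Crest.Agent.R096.Brk2_582 Crest.Agent.R096.Brk3_582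
  Crest.Agent.R096.Brk5_582 Crest.Agent.R096.Init_543 Crest.Agent.R096.Mbf_337
  Crest.Agent.R096.Main_4 Crest.Agent.R096.Lab_184
  Crest.Agent.R096.Agl4_543 Crest.Agent.R096.Agl5_543 Crest.Agent.R096.Agl6_543
  Crest.Agent.R96.Push_899 Crest.Agent.R096.Ess5_95
  Crest.Agent.R096.Exa_560 Crest.Agent.R096.Sphg_316

open Crest.Agent.R096.SkC1_961 (E3 Hom3 IsPush FoamD)

section gen

variable {La Om : Set E3} {ι : Type} {T : Tiling Om ι} {f g : E3 → E3}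

/-- **root and label of a closed surface in a convex body** -/
theorem bar_label (hLa : IsOpen La) (H : Hm f g Om La) {ℓ : E3 → ℝ} (hℓ : Continuous ℓ) {ε : ℝ}
    {D' : Set E3} (hDc : IsCompact D') (hDv : Convex ℝ D') (hDi : (interior D').Nonempty)
    (hDL : D' ⊆ La)
    (h : RegLevel T (fun x => ℓ (f x)) ε {x | x ∈ Om ∧ ℓ (f x) = ε})
    {Pt : Finset E3} (hP : ∀ x, x ∈ Pt ↔ x ∈ {x | x ∈ Om ∧ ℓ (f x) = ε} ∧ T.dim x ≤ 1)
    (hsupp : ∀ w ∈ Om, ℓ (f w) = ε → ∀ q, w ∈ P (T.H q) → ∀ x ∈ P (T.H q), f x ∈ interior D')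
    {Kr : Set E3} (hKr : IsPreconnected Kr) (hKL : Kr ⊆ La) {y₀ y₁ : E3} (hy₀ : y₀ ∈ Kr)
    (hy₁ : y₁ ∈ Kr)
    (h0 : ∀ q, ∀ x ∈ P (T.H q), f x = y₀ → ∀ v ∈ P (T.H q), ℓ (f v) < ε)
    (h1 : ∀ q, ∀ x ∈ P (T.H q), f x = y₁ → ∀ v ∈ P (T.H q), ε ≤ ℓ (f v))
    (h1D : y₁ ∉ interior D') :
    ∃ r ∈ Pt, (∃ i, (∃ x ∈ P (T.H i), f x ∈ Kr) ∧ r ∈ P (T.H i)) ∧
      ∃ lm, FarL T (Om ∩ f ⁻¹' D') (cls T {x | x ∈ Om ∧ ℓ (f x) = ε} Pt r) lm ∧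
        (∀ Kl : Set E3, Kl ⊆ La → IsPreconnected Kl → y₀ ∈ Kl →
          (∀ q, ∀ x ∈ P (T.H q), f x ∈ Kl → ∀ u ∈ P (T.H q), ℓ (f u) ≠ ε) →
          ∀ q, ∀ x ∈ P (T.H q), f x ∈ Kl → ∀ v ∈ P (T.H q), T.dim v = 0 → lm v = 1) ∧
        ∀ Kh : Set E3, Kh ⊆ La → IsPreconnected Kh → y₁ ∈ Kh →
          (∀ q, ∀ x ∈ P (T.H q), f x ∈ Kh → ∀ u ∈ P (T.H q), ℓ (f u) ≠ ε) →
          ∀ q, ∀ x ∈ P (T.H q), f x ∈ Kh → ∀ v ∈ P (T.H q), T.dim v = 0 → lm v = 0 := by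
  have hOm := T.op
  set D : Set E3 := Om ∩ f ⁻¹' D' with hDdef
  have hD : IsCompact D := H.isCompact_pre hDL hDc
  have hint : interior D = Om ∩ f ⁻¹' interior D' := interior_pre hOm H hLa D'
  have hfrD : frontier D = Om ∩ f ⁻¹' frontier D' := frontier_pre hOm H hLa hDc hDL
  have hfr : IsPreconnected (frontier D) := by
    rw [hfrD]
    exact H.preconn_pre (hDc.isClosed.frontier_subset.trans hDL)
      (isPreconnected_frontier fr3 hDc hDv hDi)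
  have htr : TrivF (ZMod 2) D :=
    H.trivF_pre hDL hDc fun n => Vb_965.trivAll_convex' hDc hDv
  have hx₀ := H.gm (hKL hy₀)
  have hx₁ := H.gm (hKL hy₁)
  obtain ⟨q₀, hq₀⟩ := T.cov _ hx₀
  obtain ⟨q₁, hq₁⟩ := T.cov _ hx₁
  obtain ⟨v₀, hv₀, hd₀⟩ := exists_vertex_tile hq₀
  obtain ⟨v₁, hv₁, hd₁⟩ := exists_vertex_tile hq₁
  have hf₀ : f (g y₀) = y₀ := H.fg _ (hKL hy₀)
  have hf₁ : f (g y₁) = y₁ := H.fg _ (hKL hy₁)
  have hK := H.preconn_pre hKL hKr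
  have hVM : ∀ {A : Set E3} {q : ι} {x v : E3}, x ∈ P (T.H q) → f x ∈ A → v ∈ P (T.H q) →
      T.dim v = 0 → v ∈ VM T (Om ∩ f ⁻¹' A) := fun hx hxA hv hd =>
    mem_VM hx ⟨T.sub _ hx, hxA⟩ hv hd
  obtain ⟨r, hr, ⟨i, hi, hri⟩, lm, hlm, e0, e1⟩ := main_class fr3 h
    (hℓ.comp_continuousOn H.fc) (fun x hx he => ⟨hx, he⟩) hP hD inter_subset_left hfr htr
    (fun w hw q hq x hx => by
      rw [hint]; exact ⟨T.sub q hx, hsupp w hw.1 hw.2 q hq x hx⟩)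
    (h0 q₀ _ hq₀ hf₀ v₀ hv₀) (h1 q₁ _ hq₁ hf₁ v₁ hv₁)
    ⟨q₁, hv₁, fun hsub => h1D (by
      have := hsub hq₁
      rw [hint] at this
      rw [← hf₁]; exact this.2)⟩
    hK inter_subset_left (hVM hq₀ (by rw [hf₀]; exact hy₀) hv₀ hd₀)
    (hVM hq₁ (by rw [hf₁]; exact hy₁) hv₁ hd₁)
  have hcls : ∀ u ∈ cls T {x | x ∈ Om ∧ ℓ (f x) = ε} Pt r, ℓ (f u) = ε := fun u hu =>
    (((hP u).1 (cls_sub r hu)).1).2
  refine ⟨r, hr, ⟨i, ?_, hri⟩, lm, hlm, ?_, ?_⟩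
  · obtain ⟨x, hx, hxK⟩ := hi
    exact ⟨x, hx, hxK.2⟩
  · intro Kl hKlL hKlc hy hno q x hx hxK v hv hd
    rw [← e0]
    refine hlm.lab.const_geom (H.preconn_pre hKlL hKlc) inter_subset_left ?_
      (hVM hx hxK hv hd) (hVM hq₀ (by rw [hf₀]; exact hy) hv₀ hd₀)
    rintro j ⟨z, hz, hzK⟩ u hu huj
    exact hno j z hz hzK.2 u huj (hcls u hu)
  · intro Kh hKhL hKhc hy hno q x hx hxK v hv hd
    rw [← e1]
    refine hlm.lab.const_geom (H.preconn_pre hKhL hKhc) inter_subset_left ?_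
      (hVM hx hxK hv hd) (hVM hq₁ (by rw [hf₁]; exact hy) hv₁ hd₁)
    rintro j ⟨z, hz, hzK⟩ u hu huj
    exact hno j z hz hzK.2 u huj (hcls u hu)

end gen

section spec

variable {δ κ0 R c0 : ℝ} {La Om : Set E3} {ι : Type} {Φ : FoamD δ κ0 R c0 La}
  {T : Tiling Om ι} {f g : E3 → E3} {c : Φ.F} {J0 J V : Set ι} {θ : E3 → E3}
  {ρ1 ρ2 ρ3 ρ4 d : ℝ} {G : E3 → ℝ} {lo hi rm h : ℝ} {p : ℝ × E3 → E3}

/-- products of intervals and sets of the frontier -/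
theorem Pol.prod {ρ : ℝ} (hP : Pol Φ c ρ p) {A : Set E3} (hA : A ⊆ frontier c.1.set) {s s' : ℝ}
    (hs : 0 < s) (hs' : s' ≤ ρ) : p '' (Icc s s' ×ˢ A) =
      {y | (s ≤ ga Φ c y ∧ ga Φ c y ≤ s') ∧ Φ.Psi y ∈ A} := by
  rw [hP.image (fun x hx => ⟨⟨hs.trans_le hx.1.1, hx.1.2.trans hs'⟩, hA hx.2⟩)]
  ext y
  constructor
  · rintro ⟨h1, h2, h3⟩
    exact ⟨h2, h3⟩
  · rintro ⟨h2, h3⟩
    exact ⟨⟨hs.trans_le h2.1, h2.2.trans hs'⟩, h2, h3⟩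

theorem Pol.prod_conn {ρ : ℝ} (hP : Pol Φ c ρ p) {A : Set E3} (hA : A ⊆ frontier c.1.set)
    (hAc : IsPreconnected A) {s s' : ℝ} (hs : 0 < s) (hs' : s' ≤ ρ) :
    IsPreconnected {y | (s ≤ ga Φ c y ∧ ga Φ c y ≤ s') ∧ Φ.Psi y ∈ A} := by
  rw [← hP.prod hA hs hs']
  exact (isPreconnected_Icc.prod hAc).image _ (hP.cont.mono fun x hx => ⟨mem_univ _, hA hx.2⟩)

/-- **root and label of a barrier** -/
theorem exists_root_label (hLa : IsOpen La) (H : Hm f g Om La) (hpt : (Φ.B c).lo = (Φ.B c).hi)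
    (hR : Rm Φ T f c J0 J V θ ρ1 ρ2 ρ3 ρ4 d) (hPol : Pol Φ c ρ4 p) (hG : GM Φ c G lo hi)
    (hr : Rad rm h hi ρ4) {ε ω : ℝ} (hε : ε ∈ Ioo lo hi) (ha0 : ρ1 + 2 * d ≤ rm - h * ε)
    (ha0' : rm - h * ε + 2 * d ≤ ρ3 + 7 * d) (ha1 : ρ3 + 9 * d ≤ rm + h * ε)
    (ha1' : rm + h * ε + 2 * d ≤ ρ4)
    (hosc : ∀ q, ∀ x ∈ P (T.H q), ρ1 ≤ ga Φ c (f x) → ga Φ c (f x) ≤ ρ4 → ∀ y ∈ P (T.H q),
      |G (Φ.Psi (f x)) - G (Φ.Psi (f y))| ≤ ω)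
    {q₀ : E3} (hq₀ : q₀ ∈ frontier c.1.set) {g0 : ℝ} (hg0 : G q₀ ≤ g0) (hg0ε : g0 + ω < ε)
    (hreg : RegLevel T (fun x => bl Φ c rm h hi G (f x)) ε
      {x | x ∈ Om ∧ bl Φ c rm h hi G (f x) = ε})
    {Pt : Finset E3} (hP : ∀ x, x ∈ Pt ↔
      x ∈ {x | x ∈ Om ∧ bl Φ c rm h hi G (f x) = ε} ∧ T.dim x ≤ 1) :
    ∃ r ∈ Pt, ρ3 + 6 * d ≤ ga Φ c (f r) ∧ ga Φ c (f r) ≤ ρ4 ∧
      ∃ lm, FarL T (Om ∩ f ⁻¹' {y | ga Φ c y ≤ ρ4})
        (cls T {x | x ∈ Om ∧ bl Φ c rm h hi G (f x) = ε} Pt r) lm ∧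
        (∀ b, b + ω < ε → IsPreconnected {q | q ∈ frontier c.1.set ∧ G q ≤ b} → G q₀ ≤ b →
          ∀ v ∈ Om, T.dim v = 0 → rm - h * ε + 2 * d ≤ ga Φ c (f v) →
            ga Φ c (f v) ≤ rm + h * ε - 2 * d → G (Φ.Psi (f v)) ≤ b → lm v = 1) ∧
        ∀ b, ε + ω < b → IsPreconnected {q | q ∈ frontier c.1.set ∧ b ≤ G q} →
          {q | q ∈ frontier c.1.set ∧ b ≤ G q}.Nonempty → ∀ v ∈ Om, T.dim v = 0 →
            (ga Φ c (f v) ≤ rm - h * ε - 2 * d ∨ rm + h * ε + 2 * d ≤ ga Φ c (f v) ∨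
              b ≤ G (Φ.Psi (f v))) → lm v = 0 := by
  have hh := hr.h0
  have hd := hR.d0
  have hρ1 := hR.r1
  have hρ4 := hR.r4
  have hb : Bod (Φ.B c).lo (Pc Φ.F c) := Pse_316.bod_brick Φ c hpt
  have hgf : ga Φ c = Ng (Φ.B c).lo (Pc Φ.F c) := funext (Etg_163.gg_eq Φ c)
  have hρ40 : 0 < ρ4 := by linarith
  set ℓ := bl Φ c rm h hi G with hℓ
  have hcont : Continuous ℓ := by
    obtain ⟨k, hk⟩ := bl_lip hPol hG hr hLa hpt hρ4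
    exact hk.continuous
  -- the body
  set D' : Set E3 := {y | ga Φ c y ≤ ρ4} with hD'
  have hDc : IsCompact D' := by rw [hD', hgf]; exact hb.isCompact_le ρ4
  have hDv : Convex ℝ D' := hPol.cvx ρ4
  have hgc : Continuous (ga Φ c) := by rw [hgf]; exact hb.continuous
  have hlt : {y | ga Φ c y < ρ4} ⊆ interior D' :=
    interior_maximal (fun y (hy : ga Φ c y < ρ4) => (show ga Φ c y ≤ ρ4 from hy.le))
      (isOpen_lt hgc continuous_const)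
  have hz : ga Φ c (Φ.B c).lo = 0 := by rw [hgf]; exact Ng_self _ _
  have hDi : (interior D').Nonempty := ⟨(Φ.B c).lo, hlt (by show ga Φ c _ < ρ4; rw [hz]; exact hρ40)⟩
  have hDL : D' ⊆ La := by
    rw [hD', hgf]
    exact (hb.le_sub hρ4.le).trans (Φ.bf.sub c.1 c.2)
  have hDi' : ∀ y ∈ interior D', ga Φ c y < ρ4 := by
    intro y hy
    by_contra hcon
    have hle0 : y ∈ D' := interior_subset hy
    have hle : ga Φ c y ≤ ρ4 := hle0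
    have he : ga Φ c y = ρ4 := le_antisymm hle (not_lt.1 hcon)
    -- points further out on the ray
    have ht : Tendsto (fun s : ℝ => (Φ.B c).lo + s • (y - (Φ.B c).lo)) (𝓝[>] 1) (𝓝 y) := by
      have : Tendsto (fun s : ℝ => (Φ.B c).lo + s • (y - (Φ.B c).lo)) (𝓝 1)
          (𝓝 ((Φ.B c).lo + (1:ℝ) • (y - (Φ.B c).lo))) := by
        apply Continuous.tendsto; fun_prop
      rw [one_smul, add_sub_cancel] at this
      exact this.mono_left nhdsWithin_le_nhds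
    have h1 := ht.eventually (isOpen_interior.mem_nhds hy)
    have h2 : ∀ᶠ s : ℝ in 𝓝[>] 1, 1 < s := self_mem_nhdsWithin
    obtain ⟨s, hs1, hs2⟩ := (h1.and h2).exists
    have h3 : ga Φ c ((Φ.B c).lo + s • (y - (Φ.B c).lo)) = s * ρ4 := by
      rw [← he, hgf]; exact Ng_ray _ _ (by linarith) y
    have h4' : (Φ.B c).lo + s • (y - (Φ.B c).lo) ∈ D' := interior_subset hs1
    have h4 : ga Φ c ((Φ.B c).lo + s • (y - (Φ.B c).lo)) ≤ ρ4 := h4'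
    rw [h3] at h4
    nlinarith
  -- points of the barrier
  have hεhi : h * ε < h * hi := mul_lt_mul_of_pos_left hε.2 hh
  have hε0 : 0 ≤ h * ε := mul_nonneg hh.le (hG.lo0.trans hε.1.le)
  have hpts : ∀ y, ℓ y = ε → rm - h * ε ≤ ga Φ c y ∧ ga Φ c y ≤ rm + h * ε ∧
      G (Φ.Psi y) ≤ ε ∧ (ga Φ c y = rm - h * ε ∨ ga Φ c y = rm + h * ε ∨ G (Φ.Psi y) = ε) := by
    intro y hy
    have h1 := (bl_eq_iff hε.2).1 hy
    have h2 : |ga Φ c y - rm| / h ≤ ε := by rw [← h1]; exact le_max_left _ _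
    have h3 : G (Φ.Psi y) ≤ ε := by rw [← h1]; exact le_max_right _ _
    rw [div_le_iff₀ hh, abs_le] at h2
    refine ⟨by linarith [h2.1], by linarith [h2.2], h3, ?_⟩
    rcases max_choice (|ga Φ c y - rm| / h) (G (Φ.Psi y)) with h7 | h7
    · rw [h7, div_eq_iff hh.ne'] at h1
      rcases abs_choice (ga Φ c y - rm) with h8 | h8
      · right; left; rw [h8] at h1; linarith
      · left; rw [h8] at h1; linarith
    · right; right; rw [h7] at h1; exact h1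
  -- oscillation at a tile which meets the barrier
  have htile : ∀ q, ∀ u ∈ P (T.H q), ℓ (f u) = ε → ∀ x ∈ P (T.H q),
      |ga Φ c (f u) - ga Φ c (f x)| ≤ d ∧ |G (Φ.Psi (f u)) - G (Φ.Psi (f x))| ≤ ω := by
    intro q u hu he x hx
    obtain ⟨b1, b2, -, -⟩ := hpts _ he
    have c1 : ρ1 ≤ ga Φ c (f u) := by linarith
    have c2 : ga Φ c (f u) ≤ ρ4 := by linarith
    exact ⟨(hR.tile_osc hu c1 c2 hx).1, hosc q u hu c1 c2 x hx⟩
  -- the rope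
  have hrρ : 0 < ρ3 + 7 * d := by linarith [hR.r12, hR.r23]
  have hrρ4 : ρ3 + 7 * d ≤ ρ4 := by linarith [hR.r34]
  set y₀ : E3 := p (ρ3 + 7 * d, q₀) with hy₀
  set y₁ : E3 := p (ρ4, q₀) with hy₁
  have gy₀ : ga Φ c y₀ = ρ3 + 7 * d := hPol.gau _ ⟨hrρ, hrρ4⟩ q₀ hq₀
  have py₀ : Φ.Psi y₀ = q₀ := hPol.psi _ ⟨hrρ, hrρ4⟩ q₀ hq₀
  have gy₁ : ga Φ c y₁ = ρ4 := hPol.gau _ ⟨hρ40, le_rfl⟩ q₀ hq₀
  have py₁ : Φ.Psi y₁ = q₀ := hPol.psi _ ⟨hρ40, le_rfl⟩ q₀ hq₀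
  have hsq : ({q₀} : Set E3) ⊆ frontier c.1.set := singleton_subset_iff.2 hq₀
  have hKr := hPol.prod_conn hsq isPreconnected_singleton hrρ le_rfl
  have hω : 0 ≤ ω := by
    obtain ⟨x, hx⟩ := T.cov _ (H.gm (hDL (by rw [hD']; show ga Φ c y₁ ≤ ρ4; rw [gy₁])) )
    have := hosc x _ hx (by rw [H.fg _ (hDL (by show ga Φ c y₁ ≤ ρ4; rw [gy₁])), gy₁]; linarith)
      (by rw [H.fg _ (hDL (by show ga Φ c y₁ ≤ ρ4; rw [gy₁])), gy₁]) _ hx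
    exact (abs_nonneg _).trans this
  have hKsub : ∀ {A : Set E3} {s s' : ℝ}, s' ≤ ρ4 →
      {y | (s ≤ ga Φ c y ∧ ga Φ c y ≤ s') ∧ Φ.Psi y ∈ A} ⊆ La := fun hs' y hy =>
    hDL (hy.1.2.trans hs')
  obtain ⟨r, hrP, ⟨i, ⟨x, hx, hxK⟩, hri⟩, lm, hlm, hlow, hhigh⟩ := bar_label hLa H hcont
    hDc hDv hDi hDL hreg hP
    (fun w hw he q hq x hx => hlt (by
      have h1 := (htile q w hq he x hx).1
      obtain ⟨b1, b2, -, -⟩ := hpts _ he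
      rw [abs_le] at h1
      show ga Φ c (f x) < ρ4
      linarith [h1.1]))
    hKr (hKsub le_rfl) (y₀ := y₀) (y₁ := y₁) ⟨⟨gy₀.ge, by rw [gy₀]; exact hrρ4⟩, py₀⟩
    ⟨⟨by rw [gy₁]; exact hrρ4, gy₁.le⟩, py₁⟩
    (fun q x hx he v hv => by
      have c1 : ρ1 ≤ ga Φ c (f x) := by rw [he, gy₀]; linarith [hR.r12, hR.r23]
      have c2 : ga Φ c (f x) ≤ ρ4 := by rw [he, gy₀]; exact hrρ4
      have h1 := (hR.tile_osc hx c1 c2 hv).1
      have h2 := hosc q x hx c1 c2 v hv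
      rw [he, gy₀] at h1
      rw [he, py₀] at h2
      rw [abs_le] at h1 h2
      refine (bl_lt_iff hε.2.le).2 ⟨?_, by linarith [h2.1]⟩
      rw [div_lt_iff₀ hh, abs_lt]
      constructor <;> linarith [h1.1, h1.2])
    (fun q x hx he v hv => by
      have c1 : ρ1 ≤ ga Φ c (f x) := by rw [he, gy₁]; linarith
      have c2 : ga Φ c (f x) ≤ ρ4 := by rw [he, gy₁]
      have h1 := (hR.tile_osc hx c1 c2 hv).1
      rw [he, gy₁, abs_le] at h1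
      refine (le_bl_iff hε.2.le).2 (Or.inl ?_)
      rw [le_div_iff₀ hh]
      refine le_trans ?_ (le_abs_self _)
      linarith [h1.2])
    (fun h1 => by have := hDi' _ h1; rw [gy₁] at this; exact lt_irrefl _ this)
  have hrS := ((hP r).1 hrP).1
  have hrε : ℓ (f r) = ε := hrS.2
  obtain ⟨r1, r2, -, -⟩ := hpts _ hrε
  have hosr := (htile i r hri hrε x hx).1
  rw [abs_le] at hosr
  refine ⟨r, hrP, by linarith [hosr.1, hxK.1.1], by linarith, lm, hlm, ?_, ?_⟩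
  · -- inside
    intro b hb1 hb2 hb3 v hv hvd hv1 hv2 hv3
    have hs0 : 0 < rm - h * ε + 2 * d := by linarith
    obtain ⟨q, hq⟩ := T.cov v hv
    have hv4 := (hPol.inv (f v) (by linarith) (by linarith)).1
    refine hlow {y | (rm - h * ε + 2 * d ≤ ga Φ c y ∧ ga Φ c y ≤ rm + h * ε - 2 * d) ∧
      Φ.Psi y ∈ {q | q ∈ frontier c.1.set ∧ G q ≤ b}} (hKsub (by linarith))
      (hPol.prod_conn (fun q hq => hq.1) hb2 hs0 (by linarith)) ?_ ?_ q v hq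
      ⟨⟨hv1, hv2⟩, hv4, hv3⟩ v hq hvd
    · refine ⟨⟨by rw [gy₀]; exact ha0', by rw [gy₀]; linarith⟩, ?_⟩
      rw [py₀]; exact ⟨hq₀, hb3⟩
    · rintro q' x' hx' ⟨⟨k1, k2⟩, k3, k4⟩ u hu he
      obtain ⟨m1, m2⟩ := htile q' u hu he x' hx'
      obtain ⟨-, -, -, n⟩ := hpts _ he
      rw [abs_le] at m1 m2
      rcases n with n | n | n
      · linarith [m1.1, m1.2]
      · linarith [m1.1, m1.2]
      · linarith [m2.1, m2.2]
  · -- outside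
    intro b hb1 hb2 hb3 v hv hvd hvo
    rcases lt_or_ge ρ4 (ga Φ c (f v)) with hv4 | hv4
    · exact hlm.out v fun hvD => absurd hvD.2 (not_le.2 hv4)
    obtain ⟨q, hq⟩ := T.cov v hv
    set A : Set E3 := {q | q ∈ frontier c.1.set ∧ b ≤ G q} with hA
    set s0 : ℝ := rm - h * ε - 2 * d with hs0
    set s1 : ℝ := rm + h * ε + 2 * d with hs1
    have hs0p : 0 < s0 := by linarith
    set U1 : Set E3 := {y | ga Φ c y ≤ s0} with hU1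
    set U2 : Set E3 := {y | (s0 ≤ ga Φ c y ∧ ga Φ c y ≤ ρ4) ∧ Φ.Psi y ∈ A} with hU2
    set U3 : Set E3 := {y | (s1 ≤ ga Φ c y ∧ ga Φ c y ≤ ρ4) ∧ Φ.Psi y ∈ frontier c.1.set} with hU3
    have hs1p : 0 < s1 := by linarith
    have c1 : IsPreconnected U1 := (hPol.cvx s0).isPreconnected
    have c2 : IsPreconnected U2 := hPol.prod_conn (fun q hq => hq.1) hb2 hs0p le_rfl
    have c3 : IsPreconnected U3 := hPol.prod_conn Subset.rfl hPol.frp hs1p le_rfl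
    obtain ⟨qa, hqa⟩ := hb3
    have hs0ρ : s0 ≤ ρ4 := by linarith
    have k1 : p (s0, qa) ∈ U1 ∩ U2 := by
      have e1 := hPol.gau s0 ⟨hs0p, hs0ρ⟩ qa hqa.1
      have e2 := hPol.psi s0 ⟨hs0p, hs0ρ⟩ qa hqa.1
      refine ⟨e1.le, ⟨e1.ge, by rw [e1]; exact hs0ρ⟩, by rw [e2]; exact hqa⟩
    have k2 : p (s1, qa) ∈ U2 ∩ U3 := by
      have e1 := hPol.gau s1 ⟨hs1p, ha1'⟩ qa hqa.1
      have e2 := hPol.psi s1 ⟨hs1p, ha1'⟩ qa hqa.1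
      refine ⟨⟨⟨by rw [e1]; linarith, by rw [e1]; exact ha1'⟩, by rw [e2]; exact hqa⟩,
        ⟨e1.ge, by rw [e1]; exact ha1'⟩, by rw [e2]; exact hqa.1⟩
    have c12 : IsPreconnected (U1 ∪ U2) := IsPreconnected.union _ k1.1 k1.2 c1 c2
    have c123 : IsPreconnected (U1 ∪ U2 ∪ U3) :=
      IsPreconnected.union _ (Or.inr k2.1) k2.2 c12 c3
    refine hhigh (U1 ∪ U2 ∪ U3) ?_ c123 ?_ ?_ q v hq ?_ v hq hvd
    · rintro y ((hy | hy) | hy)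
      · exact hDL (le_trans hy hs0ρ)
      · exact hDL hy.1.2
      · exact hDL hy.1.2
    · exact Or.inr ⟨⟨by rw [gy₁]; exact ha1', gy₁.le⟩, by rw [py₁]; exact hq₀⟩
    · rintro q' x' hx' hxU u hu he
      obtain ⟨m1, m2⟩ := htile q' u hu he x' hx'
      obtain ⟨n1, n2, n3, -⟩ := hpts _ he
      rw [abs_le] at m1 m2
      rcases hxU with (hy | hy) | hy
      · have hy' : ga Φ c (f x') ≤ s0 := hy
        linarith [m1.1, m1.2]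
      · have hy' : b ≤ G (Φ.Psi (f x')) := hy.2.2
        linarith [m2.1, m2.2]
      · have hy' : s1 ≤ ga Φ c (f x') := hy.1.1
        linarith [m1.1, m1.2]
    · rcases le_or_gt (ga Φ c (f v)) s0 with k | k
      · exact Or.inl (Or.inl k)
      · have hv5 := (hPol.inv (f v) (by linarith) hv4).1
        rcases hvo with k' | k' | k'
        · exact Or.inl (Or.inl k')
        · exact Or.inr ⟨⟨k', hv4⟩, hv5⟩
        · exact Or.inl (Or.inr ⟨⟨k.le, hv4⟩, hv5, k'⟩)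

end spec

end Crest.Agent.R096.Bgf_4
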