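import Crest.Agent.R096.Bgf8_4

/-! # Row 96, DOORS, barriers (helper4), part 9: the barriers of all moats: levels, base points,
labels -/

set_option autoImplicit false
set_option linter.unusedSectionVars false

open Set Filter Topology Metric MeasureTheory

namespace Crest.Agent.R096.Bgf_4

open Crest.Agent.R096.Msh_715 Crest.Agent.R096.Coh_184 Crest.Agent.R096.Bsp_628
  Crest.Agent.R096.Brk1_582 Crest.Agent.R096.Brk2_582 Crest.Agent.R096.Brk3_582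
  Crest.Agent.R096.Brk5_582 Crest.Agent.R096.Init_543 Crest.Agent.R096.Mbf_337
  Crest.Agent.R096.Main_4 Crest.Agent.R096.Lab_184
  Crest.Agent.R096.Agl4_543 Crest.Agent.R096.Agl5_543 Crest.Agent.R096.Agl6_543
  Crest.Agent.R096.Agl8_543 Crest.Agent.R096.Seq_213 Crest.Agent.R096.Seq_213.GSt
  Crest.Agent.R096.Ginv_543
  Crest.Agent.R96.Push_899 Crest.Agent.R096.Ess5_95
  Crest.Agent.R096.Exa_560 Crest.Agent.R096.Sphg_316

open Crest.Agent.R096.SkC1_961 (E3 Hom3 IsPush FoamD)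

variable {δ κ0 R c0 : ℝ} {La Om : Set E3} {ι : Type} {Φ : FoamD δ κ0 R c0 La}
  {T : Tiling Om ι} {f g : E3 → E3}

/-- **the data of all barriers**: `m` is a moat at the core `co m`, `G m` its function on the
frontier of the brick; the barrier is `{max (|ga - rm| / h) (G ∘ Psi) = ε m}`,
`lo m < ε m < hi m` (e.g. `rm ± h = ρ1 + 4 d, ρ3 + 12 d`, `lo = 1`, `hi = 1 + d / h`) -/
structure BarF (Φ : FoamD δ κ0 R c0 La) (T : Tiling Om ι) (f : E3 → E3) (J0 J V : Φ.F → Set ι)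
    (θ : Φ.F → E3 → E3) {Mo : Type} (co : Mo → Φ.F) (ρ1 ρ2 ρ3 ρ4 d : Mo → ℝ) (G : Mo → E3 → ℝ)
    (rm h lo hi ω : Mo → ℝ) (q₀ : Mo → E3) (g0 : Mo → ℝ) : Prop where
  pt : ∀ m, (Φ.B (co m)).lo = (Φ.B (co m)).hi
  room : ∀ m, Rm Φ T f (co m) (J0 (co m)) (J (co m)) (V (co m)) (θ (co m)) (ρ1 m) (ρ2 m) (ρ3 m)
    (ρ4 m) (d m)
  gm : ∀ m, GM Φ (co m) (G m) (lo m) (hi m)
  h0 : ∀ m, 0 < h m
  a0 : ∀ m, ρ1 m + 2 * d m ≤ rm m - h m * hi m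
  a0' : ∀ m, rm m - h m * lo m ≤ ρ3 m + 5 * d m
  a1 : ∀ m, ρ3 m + 9 * d m ≤ rm m + h m * lo m
  a1' : ∀ m, rm m + h m * hi m + 2 * d m ≤ ρ4 m
  osc : ∀ m, ∀ q, ∀ x ∈ P (T.H q), ρ1 m ≤ ga Φ (co m) (f x) → ga Φ (co m) (f x) ≤ ρ4 m →
    ∀ y ∈ P (T.H q), |G m (Φ.Psi (f x)) - G m (Φ.Psi (f y))| ≤ ω m
  q0 : ∀ m, q₀ m ∈ frontier (co m).1.set
  gq : ∀ m, G m (q₀ m) ≤ g0 m
  g0ω : ∀ m, g0 m + ω m ≤ lo m
  reg : ∀ m, ∀ x ∈ KJ T (V (co m)), T.dim x = 1 → ∀ ℓ : E3 → ℝ, (∃ k, LipschitzWith k ℓ) →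
    ∀ᵐ t : ℝ, {y ∈ T.cc x | ℓ (f y) = t}.Finite

variable {J0 J V : Φ.F → Set ι} {θ : Φ.F → E3 → E3} {Mo : Type} {co : Mo → Φ.F}
  {ρ1 ρ2 ρ3 ρ4 d : Mo → ℝ} {G : Mo → E3 → ℝ} {rm h lo hi ω : Mo → ℝ} {q₀ : Mo → E3} {g0 : Mo → ℝ}

/-- the barrier function of the moat `m` -/
noncomputable abbrev lM (Φ : FoamD δ κ0 R c0 La) (co : Mo → Φ.F) (rm h hi : Mo → ℝ)
    (G : Mo → E3 → ℝ) (m : Mo) : E3 → ℝ := bl Φ (co m) (rm m) (h m) (hi m) (G m)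

section bar

variable (hB : BarF Φ T f J0 J V θ co ρ1 ρ2 ρ3 ρ4 d G rm h lo hi ω q₀ g0)
include hB

theorem BarF.rad (m : Mo) : Rad (rm m) (h m) (hi m) (ρ4 m) where
  h0 := hB.h0 m
  lo := by linarith [hB.a0 m, (hB.room m).r1, (hB.room m).d0]
  hi_ := by linarith [hB.a1' m, (hB.room m).d0]

theorem BarF.pol (hLa : IsOpen La) (m : Mo) : ∃ p, Pol Φ (co m) (ρ4 m) p := by
  have hr := hB.room m
  exact exists_pol hLa (hB.pt m) (by linarith [hr.r1, hr.r12, hr.r23, hr.r34, hr.d0]) hr.r4 hr.ray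

/-- the hypotheses of part 3 -/
theorem BarF.bdata (hLa : IsOpen La) :
    BData Φ T f V co ρ4 (lM Φ co rm h hi G) lo hi where
  pt := hB.pt
  ρ1 := fun m => (hB.room m).r4
  bf := fun m => by
    obtain ⟨p, hP⟩ := hB.pol hLa m
    exact bfun_bl hP (hB.gm m) (hB.rad m) hLa (hB.pt m) (hB.room m).r4
  tile := fun m i hx => (hB.room m).v i hx
  reg := hB.reg

/-- positions of the points of a barrier -/
theorem BarF.pos {m : Mo} {ε : ℝ} (hε : ε < hi m) {y : E3}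
    (hy : lM Φ co rm h hi G m y = ε) :
    rm m - h m * ε ≤ ga Φ (co m) y ∧ ga Φ (co m) y ≤ rm m + h m * ε ∧ G m (Φ.Psi y) ≤ ε ∧
      (ga Φ (co m) y = rm m - h m * ε ∨ ga Φ (co m) y = rm m + h m * ε ∨
        G m (Φ.Psi y) = ε) := by
  have hh := hB.h0 m
  have h1 := (bl_eq_iff hε).1 hy
  have h2 : |ga Φ (co m) y - rm m| / h m ≤ ε := by rw [← h1]; exact le_max_left _ _
  have h3 : G m (Φ.Psi y) ≤ ε := by rw [← h1]; exact le_max_right _ _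
  rw [div_le_iff₀ hh, abs_le] at h2
  refine ⟨by linarith [h2.1], by linarith [h2.2], h3, ?_⟩
  rcases max_choice (|ga Φ (co m) y - rm m| / h m) (G m (Φ.Psi y)) with h7 | h7
  · rw [h7, div_eq_iff hh.ne'] at h1
    rcases abs_choice (ga Φ (co m) y - rm m) with h8 | h8
    · right; left; rw [h8] at h1; linarith
    · left; rw [h8] at h1; linarith
  · right; right; rw [h7] at h1; exact h1

/-- **existence of the levels** of all barriers -/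
theorem BarF.exists_gfb [Countable Mo] (hLa : IsOpen La) (H : Hm f g Om La) {r₀ : Φ.F → ℝ}
    {L : Φ.F → Finset ℝ} (hG : GF Φ r₀ T f L) (N : Mo → Set ℝ) (hN : ∀ m, volume (N m) = 0) :
    ∃ ε : Mo → ℝ, (∀ m, ε m ∈ Ioo (lo m) (hi m)) ∧ (∀ m, ε m ∉ N m) ∧
      GFB Φ r₀ T f L (lM Φ co rm h hi G) ε :=
  Bgf_4.exists_gfb H hG (hB.bdata hLa) N hN

variable {r₀ : Φ.F → ℝ} {L : Φ.F → Finset ℝ} {ε : Mo → ℝ}

/-- **ROOTS AND LABELS of all barriers** -/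
theorem BarF.exists_bm (hLa : IsOpen La) (H : Hm f g Om La)
    (hGB : GFB Φ r₀ T f L (lM Φ co rm h hi G) ε) (hε : ∀ m, ε m ∈ Ioo (lo m) (hi m)) :
    ∃ bm : Mo → E3, (∀ m, bm m ∈ Om ∧ T.dim (bm m) = 1 ∧ lM Φ co rm h hi G m (f (bm m)) = ε m) ∧
      (∀ m, ρ3 m + 6 * d m ≤ ga Φ (co m) (f (bm m)) ∧ ga Φ (co m) (f (bm m)) ≤ ρ4 m) ∧
      ∀ m, ∀ Pt : Finset E3, (∀ x, x ∈ Pt ↔ x ∈ SB Om Φ r₀ f L (lM Φ co rm h hi G) ε (Sum.inr m) ∧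
        T.dim x ≤ 1) → ∃ lm,
        FarL T (Om ∩ f ⁻¹' {y | ga Φ (co m) y ≤ ρ4 m})
          (cls T (SB Om Φ r₀ f L (lM Φ co rm h hi G) ε (Sum.inr m)) Pt (bm m)) lm ∧
        (∀ b, b + ω m < ε m → IsPreconnected {q | q ∈ frontier (co m).1.set ∧ G m q ≤ b} →
          G m (q₀ m) ≤ b → ∀ v ∈ Om, T.dim v = 0 → rm m - h m * ε m + 2 * d m ≤ ga Φ (co m) (f v) →
            ga Φ (co m) (f v) ≤ rm m + h m * ε m - 2 * d m → G m (Φ.Psi (f v)) ≤ b → lm v = 1) ∧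
        ∀ b, ε m + ω m < b → IsPreconnected {q | q ∈ frontier (co m).1.set ∧ b ≤ G m q} →
          {q | q ∈ frontier (co m).1.set ∧ b ≤ G m q}.Nonempty → ∀ v ∈ Om, T.dim v = 0 →
            (ga Φ (co m) (f v) ≤ rm m - h m * ε m - 2 * d m ∨
              rm m + h m * ε m + 2 * d m ≤ ga Φ (co m) (f v) ∨ b ≤ G m (Φ.Psi (f v))) →
            lm v = 0 := by
  classical
  have key : ∀ m, ∃ bm : E3, (bm ∈ Om ∧ T.dim bm = 1 ∧ lM Φ co rm h hi G m (f bm) = ε m) ∧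
      (ρ3 m + 6 * d m ≤ ga Φ (co m) (f bm) ∧ ga Φ (co m) (f bm) ≤ ρ4 m) ∧
      ∀ Pt : Finset E3, (∀ x, x ∈ Pt ↔ x ∈ SB Om Φ r₀ f L (lM Φ co rm h hi G) ε (Sum.inr m) ∧
        T.dim x ≤ 1) → ∃ lm,
        FarL T (Om ∩ f ⁻¹' {y | ga Φ (co m) y ≤ ρ4 m})
          (cls T (SB Om Φ r₀ f L (lM Φ co rm h hi G) ε (Sum.inr m)) Pt bm) lm ∧
        (∀ b, b + ω m < ε m → IsPreconnected {q | q ∈ frontier (co m).1.set ∧ G m q ≤ b} →
          G m (q₀ m) ≤ b → ∀ v ∈ Om, T.dim v = 0 → rm m - h m * ε m + 2 * d m ≤ ga Φ (co m) (f v) →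
            ga Φ (co m) (f v) ≤ rm m + h m * ε m - 2 * d m → G m (Φ.Psi (f v)) ≤ b → lm v = 1) ∧
        ∀ b, ε m + ω m < b → IsPreconnected {q | q ∈ frontier (co m).1.set ∧ b ≤ G m q} →
          {q | q ∈ frontier (co m).1.set ∧ b ≤ G m q}.Nonempty → ∀ v ∈ Om, T.dim v = 0 →
            (ga Φ (co m) (f v) ≤ rm m - h m * ε m - 2 * d m ∨
              rm m + h m * ε m + 2 * d m ≤ ga Φ (co m) (f v) ∨ b ≤ G m (Φ.Psi (f v))) →
            lm v = 0 := by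
    intro m
    obtain ⟨p, hP⟩ := hB.pol hLa m
    have hlev := hGB.lev (Sum.inr m)
    have hfin := hlev.finite_P fr3
    have hεm := hε m
    have hh := hB.h0 m
    have m1 : h m * lo m < h m * ε m := mul_lt_mul_of_pos_left hεm.1 hh
    have m2 : h m * ε m < h m * hi m := mul_lt_mul_of_pos_left hεm.2 hh
    obtain ⟨r, hr, hr1, hr2, lm, e1, e2, e3⟩ := exists_root_label hLa H (hB.pt m) (hB.room m) hP
      (hB.gm m) (hB.rad m) (ε := ε m) (ω := ω m) hεm (by linarith [hB.a0 m])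
      (by linarith [hB.a0' m]) (by linarith [hB.a1 m]) (by linarith [hB.a1' m]) (hB.osc m)
      (hB.q0 m) (hB.gq m) (by linarith [hB.g0ω m, hεm.1]) hlev (Pt := hfin.toFinset)
      (fun x => by rw [Set.Finite.mem_toFinset]; rfl)
    have hrS : (r ∈ Om ∧ lM Φ co rm h hi G m (f r) = ε m) ∧ T.dim r ≤ 1 := by
      rw [Set.Finite.mem_toFinset] at hr; exact hr
    have hv : T.dim r ≠ 0 := hlev.vert r hrS.1
    refine ⟨r, ⟨hrS.1.1, by have := hrS.2; omega, hrS.1.2⟩, ⟨hr1, hr2⟩, fun Pt hPt => ?_⟩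
    have hPe : Pt = hfin.toFinset := by
      ext x
      rw [hPt x, Set.Finite.mem_toFinset]; rfl
    subst hPe
    exact ⟨lm, e1, e2, e3⟩
  choose bm h1 h2 h3 using key
  exact ⟨bm, h1, h2, h3⟩

end bar

section st

variable {r₀ : Φ.F → ℝ} {L : Φ.F → Finset ℝ} [Nonempty (JJ Φ L)] {ε : Mo → ℝ}
  {J0' : Φ.F → Set ι} {ct' : Φ.F → ι} {ℓ : Mo → E3 → ℝ}

/-- the points of a barrier of the state are the class of the base point -/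
theorem stB_gPts (hLa : IsOpen La) (hR : InitR Φ T f g J0' ct' r₀) {bp : JJ Φ L → E3}
    {bm : Mo → E3} (hb : BBase T f L ℓ ε bp bm) (hGB : GFB Φ r₀ T f L ℓ ε) (m : Mo)
    {Pt : Finset E3} (hP : ∀ x, x ∈ Pt ↔ x ∈ SB Om Φ r₀ f L ℓ ε (Sum.inr m) ∧ T.dim x ≤ 1) :
    gPts (stB hGB bp bm) (Sum.inr m) = cls T (SB Om Φ r₀ f L ℓ ε (Sum.inr m)) Pt (bm m) :=
  gmain_gPts hGB fr3 (fun j => hb.mem hLa hR j) (Sum.inr m) hP

/-- the root of a barrier is a point of the state -/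
theorem stB_root (hLa : IsOpen La) (hR : InitR Φ T f g J0' ct' r₀) {bp : JJ Φ L → E3}
    {bm : Mo → E3} (hb : BBase T f L ℓ ε bp bm) (hGB : GFB Φ r₀ T f L ℓ ε) (m : Mo) :
    bm m ∈ (stB hGB bp bm).P ∧ (stB hGB bp bm).lab (bm m) = Sum.inr m := by
  have h1 := hb.gst hLa hR hGB (Sum.inr m)
  refine ⟨⟨h1.1, Sum.inr m, ?_⟩, h1.2⟩
  exact .refl

/-- **ROOTS AND LABELS of all barriers in the state `stB`** -/
theorem BarF.exists_stB (hB : BarF Φ T f J0 J V θ co ρ1 ρ2 ρ3 ρ4 d G rm h lo hi ω q₀ g0)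
    (hLa : IsOpen La) (H : Hm f g Om La) (hR : InitR Φ T f g J0' ct' r₀)
    (hGB : GFB Φ r₀ T f L (lM Φ co rm h hi G) ε) (hε : ∀ m, ε m ∈ Ioo (lo m) (hi m))
    {bp : JJ Φ L → E3}
    (hbp : ∀ j : JJ Φ L, bp j ∈ Om ∧ T.dim (bp j) = 1 ∧ Φ.lev j.1 (f (bp j)) = j.2.1) :
    ∃ bm : Mo → E3, BBase T f L (lM Φ co rm h hi G) ε bp bm ∧
      (∀ m, ρ3 m + 6 * d m ≤ ga Φ (co m) (f (bm m)) ∧ ga Φ (co m) (f (bm m)) ≤ ρ4 m) ∧
      ∀ m, ∃ lm,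
        FarL T (Om ∩ f ⁻¹' {y | ga Φ (co m) y ≤ ρ4 m}) (gPts (stB hGB bp bm) (Sum.inr m)) lm ∧
        (∀ b, b + ω m < ε m → IsPreconnected {q | q ∈ frontier (co m).1.set ∧ G m q ≤ b} →
          G m (q₀ m) ≤ b → ∀ v ∈ Om, T.dim v = 0 → rm m - h m * ε m + 2 * d m ≤ ga Φ (co m) (f v) →
            ga Φ (co m) (f v) ≤ rm m + h m * ε m - 2 * d m → G m (Φ.Psi (f v)) ≤ b → lm v = 1) ∧
        ∀ b, ε m + ω m < b → IsPreconnected {q | q ∈ frontier (co m).1.set ∧ b ≤ G m q} →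
          {q | q ∈ frontier (co m).1.set ∧ b ≤ G m q}.Nonempty → ∀ v ∈ Om, T.dim v = 0 →
            (ga Φ (co m) (f v) ≤ rm m - h m * ε m - 2 * d m ∨
              rm m + h m * ε m + 2 * d m ≤ ga Φ (co m) (f v) ∨ b ≤ G m (Φ.Psi (f v))) →
            lm v = 0 := by
  obtain ⟨bm, h1, h2, h3⟩ := hB.exists_bm hLa H hGB hε
  have hb : BBase T f L (lM Φ co rm h hi G) ε bp bm := ⟨hbp, h1⟩
  refine ⟨bm, hb, h2, fun m => ?_⟩
  have hfin := (hGB.lev (Sum.inr m)).finite_P fr3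
  have hPt : ∀ x, x ∈ hfin.toFinset ↔ x ∈ SB Om Φ r₀ f L (lM Φ co rm h hi G) ε (Sum.inr m) ∧
      T.dim x ≤ 1 := fun x => by rw [Set.Finite.mem_toFinset]; rfl
  obtain ⟨lm, e1, e2, e3⟩ := h3 m hfin.toFinset hPt
  refine ⟨lm, ?_, e2, e3⟩
  rw [stB_gPts hLa hR hb hGB m hPt]
  exact e1

end st

end Crest.Agent.R096.Bgf_4
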