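import Crest.Agent.R096.Bd6_416

/-!
# R096 (row 96), BASE-INV, part 1 (helper181): splitting a family-level band structure in sheets,
pull back of a band structure by a PL equivalence
-/

set_option autoImplicit false
set_option linter.unusedSectionVars false

open Set Metric

namespace Crest.Agent.R096.Bin_181

open Crest.Agent.R096.Ce_537 Crest.Agent.R096.Bd_416

variable {E : Type*} [NormedAddCommGroup E] [NormedSpace ℝ E] {κ J : Type*}

/-- split a family-level structure in sheets `j = (fa j, lv j)` -/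
noncomputable def spl (g : Gd E κ) (fa : J → κ) (lv : J → ℤ) : Gd E J where
  G j z := 1/2 + cl (g.G (fa j) z - lv j - 1/2)
  B j := {z | z ∈ g.B (fa j) ∧ g.lev (fa j) z = lv j}
  lev _ _ := 0
  tr j := g.tr (fa j)

section spl

variable {g : Gd E κ} {fa : J → κ} {lv : J → ℤ} {Z : Set E}

lemma spl_G (j : J) (z : E) : (spl g fa lv).G j z = 1/2 + cl (g.G (fa j) z - lv j - 1/2) := rfl
lemma spl_B (j : J) (z : E) : z ∈ (spl g fa lv).B j ↔ z ∈ g.B (fa j) ∧ g.lev (fa j) z = lv j :=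
  Iff.rfl

lemma cl_low' {t : ℝ} {m n : ℤ} (h : t ≤ m + 1) (hmn : m < n) : cl (t - n - 1/2) = -1/2 := by
  have h1 : (m : ℝ) + 1 ≤ n := by exact_mod_cast hmn
  exact cl_of_le (by linarith)

lemma cl_high' {t : ℝ} {m n : ℤ} (h : (m : ℝ) ≤ t) (hmn : n < m) : cl (t - n - 1/2) = 1/2 := by
  have h1 : (n : ℝ) + 1 ≤ m := by exact_mod_cast hmn
  exact cl_of_ge (by linarith)

lemma half_mem_Zs : (1/2 + -1/2 : ℝ) ∈ Zs := ⟨0, by norm_num⟩
lemma half_mem_Zs' : (1/2 + 1/2 : ℝ) ∈ Zs := ⟨1, by norm_num⟩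

/-- the value on the band -/
lemma spl_on (h : g.Is Z) {j : J} {z : E} (hz : z ∈ Z) (hB : z ∈ (spl g fa lv).B j) :
    g.G (fa j) z - lv j - 1/2 ∈ I2 := by
  have := h.ab (fa j) z hz hB.1
  rw [hB.2] at this
  exact this

lemma spl_off (h : g.Is Z) {j : J} {z : E} (hz : z ∈ Z) (hB : z ∉ (spl g fa lv).B j) :
    (spl g fa lv).G j z ∈ Zs := by
  rw [spl_G]
  by_cases hB' : z ∈ g.B (fa j)
  · obtain ⟨n, hn⟩ := mem_Zs.1 (h.li _ z hz hB')
    have hne : n ≠ lv j := fun e => hB ⟨hB', by rw [hn, e]⟩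
    have hab := h.ab _ z hz hB'
    rw [hn] at hab
    have h1 : (-1/2 : ℝ) ≤ g.G (fa j) z - n - 1/2 := hab.1
    have h2 : g.G (fa j) z - n - 1/2 ≤ 1/2 := hab.2
    rcases lt_or_gt_of_ne hne with hlt | hlt
    · rw [cl_low' (m := n) (by linarith) hlt]; exact half_mem_Zs
    · rw [cl_high' (m := n) (by linarith) hlt]; exact half_mem_Zs'
  · have h1 : g.G (fa j) z ∈ Zs := by
      by_contra hc
      exact hB' (h.nB _ z hz hc)
    obtain ⟨n, hn⟩ := mem_Zs.1 h1
    rcases lt_trichotomy n (lv j) with hlt | he | hlt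
    · rw [cl_low' (m := n) (by rw [hn]; linarith) hlt]; exact half_mem_Zs
    · rw [hn, he, cl_of_le (by linarith)]; exact half_mem_Zs
    · rw [cl_high' (m := n) (by rw [hn]) hlt]; exact half_mem_Zs'

/-- **splitting in sheets** -/
theorem is_spl (h : g.Is Z)
    (hinj : ∀ j j', fa j = fa j' → lv j = lv j' → j = j') : (spl g fa lv).Is Z := by
  have same : ∀ {a b : J}, a ≠ b → fa a = fa b → ∀ {z : E}, z ∈ Z → z ∈ (spl g fa lv).B a →
      z ∉ (spl g fa lv).B b := by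
    intro a b hne he z hz ha hb
    apply hne
    refine hinj a b he ?_
    have h1 := ha.2
    have h2 := hb.2
    rw [he] at h1
    exact_mod_cast h1.symm.trans h2
  constructor
  · intro a
    exact (pl_add_const (pl_cl (pl_sub_const (pl_sub_const (h.pG (fa a)) _) _)) (1/2)).congr
      fun z _ => by rw [spl_G]; ring
  · intro a
    have h1 : IsClosed ((Z ∩ g.B (fa a)) ∩ (g.lev (fa a)) ⁻¹' {(lv a : ℝ)}) :=
      (h.plev (fa a)).1.preimage_isClosed_of_isClosed (h.cB (fa a)) isClosed_singleton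
    have h2 : Z ∩ (spl g fa lv).B a = (Z ∩ g.B (fa a)) ∩ (g.lev (fa a)) ⁻¹' {(lv a : ℝ)} := by
      ext z
      simp only [mem_inter_iff, spl_B, mem_preimage, mem_singleton_iff, and_assoc]
    rw [h2]; exact h1
  · intro a z hz hG
    by_contra hB
    exact hG (spl_off h hz hB)
  · intro a z _ _
    exact ⟨0, by simp [spl]⟩
  · intro a z hz hB
    have h1 : (spl g fa lv).G a z - (spl g fa lv).lev a z - 1/2
        = cl (g.G (fa a) z - lv a - 1/2) := by rw [spl_G]; show _ - (0:ℝ) - _ = _; ring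
    rw [h1]
    exact cl_mem _
  · intro a
    refine (h.pt (fa a)).mono ?_
    rintro ⟨z, s⟩ ⟨⟨hz, hB⟩, hs⟩
    exact ⟨⟨hz, hB.1⟩, hs⟩
  · intro a z hz hB s hs
    exact h.tZ _ z hz hB.1 s hs
  · intro a z hz hB s hs
    exact ⟨h.tB _ z hz hB.1 s hs, by
      show g.lev (fa a) (g.tr (fa a) (z, s)) = _
      rw [h.tl _ z hz hB.1 s hs]; exact hB.2⟩
  · intro a z _ _ s _
    rfl
  · intro a z hz hB s hs
    show 1/2 + cl (g.G (fa a) (g.tr (fa a) (z, s)) - lv a - 1/2) = 0 + 1/2 + s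
    rw [h.tG _ z hz hB.1 s hs, hB.2]
    rw [show (lv a : ℝ) + 1/2 + s - lv a - 1/2 = s by ring, cl_of_mem hs]
    ring
  · intro a z hz hB
    have h1 : (spl g fa lv).G a z - (spl g fa lv).lev a z - 1/2 = g.G (fa a) z - g.lev (fa a) z - 1/2 := by
      rw [spl_G, cl_of_mem (spl_on h hz hB), hB.2]
      show 1/2 + _ - (0:ℝ) - _ = _
      ring
    rw [h1]
    exact h.ts _ z hz hB.1
  · intro a z hz hB s hs s' hs'
    exact h.tt _ z hz hB.1 s hs s' hs'
  · intro a b hne z hz hB s hs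
    show 1/2 + cl (g.G (fa b) (g.tr (fa a) (z, s)) - lv b - 1/2) = 1/2 + cl (g.G (fa b) z - lv b - 1/2)
    by_cases he : fa a = fa b
    · have h1 : lv a ≠ lv b := fun e => hne (hinj _ _ he e)
      have h2 := spl_on h hz hB
      have h3 : g.G (fa b) (g.tr (fa a) (z, s)) = lv a + 1/2 + s := by
        rw [← he, h.tG _ z hz hB.1 s hs, hB.2]
      rw [h3]
      rw [he] at h2
      have k1 : (-1/2 : ℝ) ≤ g.G (fa b) z - lv a - 1/2 := h2.1
      have k2 : g.G (fa b) z - lv a - 1/2 ≤ 1/2 := h2.2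
      have k3 : (-1/2 : ℝ) ≤ s := hs.1
      have k4 : s ≤ 1/2 := hs.2
      rcases lt_or_gt_of_ne h1 with hlt | hlt
      · rw [cl_low' (m := lv a) (by linarith) hlt, cl_low' (m := lv a) (by linarith) hlt]
      · rw [cl_high' (m := lv a) (by linarith) hlt, cl_high' (m := lv a) (by linarith) hlt]
    · rw [h.oG _ _ he z hz hB.1 s hs]
  · intro a b hne z hz ha hb s hs
    by_cases he : fa a = fa b
    · exact absurd hb (same hne he hz ha)
    · exact ⟨h.oB _ _ he z hz ha.1 hb.1 s hs, by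
        show g.lev (fa b) (g.tr (fa a) (z, s)) = _
        rw [h.ol _ _ he z hz ha.1 hb.1 s hs]; exact hb.2⟩
  · intro a b _ z _ _ _ s _
    rfl
  · intro a b hne z hz ha hb s hs t ht
    by_cases he : fa a = fa b
    · exact absurd hb (same hne he hz ha)
    · exact h.oc _ _ he z hz ha.1 hb.1 s hs t ht

lemma spl_G01 (j : J) (z : E) : (spl g fa lv).G j z ∈ Icc (0:ℝ) 1 := by
  have := cl_mem (g.G (fa j) z - lv j - 1/2)
  rw [spl_G]
  constructor <;> linarith [this.1, this.2]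

/-- the family of a point of two bands -/
lemma spl_fam (hinj : ∀ j j', fa j = fa j' → lv j = lv j' → j = j') {j j' : J} (hne : j ≠ j')
    (hf : fa j = fa j') {z : E} (hz : z ∈ (spl g fa lv).B j) : z ∉ (spl g fa lv).B j' := by
  intro hb
  apply hne
  refine hinj j j' hf ?_
  have h1 := hz.2
  have h2 := hb.2
  rw [hf] at h1
  exact_mod_cast h1.symm.trans h2

end spl

/-! ### pull back -/

section pull

variable {F : Type*} [NormedAddCommGroup F] [NormedSpace ℝ F]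

/-- pull back of a band structure -/
noncomputable def pulg (g : Gd F κ) (f : E → F) (fi : F → E) : Gd E κ where
  G a z := g.G a (f z)
  B a := f ⁻¹' (g.B a)
  lev a z := g.lev a (f z)
  tr a p := fi (g.tr a (f p.1, p.2))

theorem is_pulg {g : Gd F κ} {Z : Set E} {Z' : Set F} (h : g.Is Z') (hZ : IsClosed Z)
    (e : PLEquiv Z Z') : (pulg g e.f e.g).Is Z := by
  have m1 : ∀ {a : κ} {z : E}, z ∈ (pulg g e.f e.g).B a → e.f z ∈ g.B a := fun h => h
  have ft : ∀ {a : κ} {z : E}, z ∈ Z → e.f z ∈ g.B a → ∀ {s : ℝ}, s ∈ I2 →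
      e.f (e.g (g.tr a (e.f z, s))) = g.tr a (e.f z, s) := fun {a z} hz hB {s} hs =>
    e.ri _ (h.tZ a _ (e.mf hz) hB s hs)
  constructor
  · intro a
    exact (h.pG a).comp e.pf (fun z hz => e.mf hz)
  · intro a
    have h1 : IsClosed (Z ∩ e.f ⁻¹' (Z' ∩ g.B a)) :=
      e.pf.1.preimage_isClosed_of_isClosed hZ (h.cB a)
    have h2 : Z ∩ (pulg g e.f e.g).B a = Z ∩ e.f ⁻¹' (Z' ∩ g.B a) := by
      ext z
      constructor
      · rintro ⟨h1, h2⟩; exact ⟨h1, e.mf h1, h2⟩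
      · rintro ⟨h1, h2⟩; exact ⟨h1, h2.2⟩
    rw [h2]; exact h1
  · intro a z hz hG
    exact h.nB a _ (e.mf hz) hG
  · intro a z hz hB
    exact h.li a _ (e.mf hz) hB
  · intro a z hz hB
    exact h.ab a _ (e.mf hz) hB
  · intro a
    have h1 : PLOn (fun p : E × ℝ => g.tr a (e.f p.1, p.2)) ((Z ∩ (pulg g e.f e.g).B a) ×ˢ I2) := by
      refine (h.pt a).comp (pl_pair ?_ (pl_snd (plOn_id _))) ?_
      · refine (e.pf).comp (pl_fst (plOn_id _)) ?_
        rintro ⟨z, s⟩ ⟨⟨hz, -⟩, -⟩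
        exact hz
      · rintro ⟨z, s⟩ ⟨⟨hz, hB⟩, hs⟩
        exact ⟨⟨e.mf hz, hB⟩, hs⟩
    refine (e.pg).comp h1 ?_
    rintro ⟨z, s⟩ ⟨⟨hz, hB⟩, hs⟩
    exact h.tZ a _ (e.mf hz) hB s hs
  · intro a z hz hB s hs
    exact e.mg (h.tZ a _ (e.mf hz) hB s hs)
  · intro a z hz hB s hs
    show e.f (e.g (g.tr a (e.f z, s))) ∈ g.B a
    rw [ft hz hB hs]
    exact h.tB a _ (e.mf hz) hB s hs
  · intro a z hz hB s hs
    show g.lev a (e.f (e.g (g.tr a (e.f z, s)))) = g.lev a (e.f z)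
    rw [ft hz hB hs]
    exact h.tl a _ (e.mf hz) hB s hs
  · intro a z hz hB s hs
    show g.G a (e.f (e.g (g.tr a (e.f z, s)))) = g.lev a (e.f z) + 1/2 + s
    rw [ft hz hB hs]
    exact h.tG a _ (e.mf hz) hB s hs
  · intro a z hz hB
    show e.g (g.tr a (e.f z, g.G a (e.f z) - g.lev a (e.f z) - 1/2)) = z
    rw [h.ts a _ (e.mf hz) hB, e.li _ hz]
  · intro a z hz hB s hs s' hs'
    show e.g (g.tr a (e.f (e.g (g.tr a (e.f z, s))), s')) = e.g (g.tr a (e.f z, s'))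
    rw [ft hz hB hs, h.tt a _ (e.mf hz) hB s hs s' hs']
  · intro a b hne z hz hB s hs
    show g.G b (e.f (e.g (g.tr a (e.f z, s)))) = g.G b (e.f z)
    rw [ft hz hB hs]
    exact h.oG a b hne _ (e.mf hz) hB s hs
  · intro a b hne z hz ha hb s hs
    show e.f (e.g (g.tr a (e.f z, s))) ∈ g.B b
    rw [ft hz ha hs]
    exact h.oB a b hne _ (e.mf hz) ha hb s hs
  · intro a b hne z hz ha hb s hs
    show g.lev b (e.f (e.g (g.tr a (e.f z, s)))) = g.lev b (e.f z)
    rw [ft hz ha hs]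
    exact h.ol a b hne _ (e.mf hz) ha hb s hs
  · intro a b hne z hz ha hb s hs t ht
    show e.g (g.tr a (e.f (e.g (g.tr b (e.f z, t))), s)) = e.g (g.tr b (e.f (e.g (g.tr a (e.f z, s))), t))
    rw [ft hz hb ht, ft hz ha hs, h.oc a b hne _ (e.mf hz) ha hb s hs t ht]

end pull

end Crest.Agent.R096.Bin_181
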