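import Crest.Agent.R096.Grd6_714
import Crest.Agent.R096.Ce1_537

/-!
# R096 (row 96), GRID, part 7 (helper714): PL calculus of the grid charts

`co P b m : E → I → ℝ` = level coordinates (inverse of `Tq b m`).  `plOn_Tq`, `plOn_co`.
-/

set_option autoImplicit false
set_option linter.unusedSectionVars false

open Set

namespace Crest.Agent.R096.Grd_714

open Crest.Agent.R096.Brk1_582 Crest.Agent.R096.Brk2_582 Crest.Agent.R096.Brk6_582
open Crest.Agent.R096.Ce_537

section pl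

variable {V W W' : Type*} [NormedAddCommGroup V] [NormedSpace ℝ V] [NormedAddCommGroup W]
  [NormedSpace ℝ W] [NormedAddCommGroup W'] [NormedSpace ℝ W']

theorem plOn_pair {f : V → W} {g : V → W'} {K : Set V} (hf : PLOn f K) (hg : PLOn g K) :
    PLOn (fun x => (f x, g x)) K := by
  classical
  obtain ⟨f1, S, f2⟩ := hf
  obtain ⟨g1, T, g2⟩ := hg
  refine ⟨f1.prodMk g1, (S ×ˢ T).image fun p => p.1.prod p.2, fun x hx => ?_⟩
  obtain ⟨a, ha, e⟩ := f2 x hx
  obtain ⟨c, hc, e'⟩ := g2 x hx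
  refine ⟨a.prod c, Finset.mem_image.2 ⟨(a, c), Finset.mem_product.2 ⟨ha, hc⟩, rfl⟩, ?_⟩
  show (f x, g x) = (a x, c x)
  rw [e, e']

/-- affine map from a linear map and a base point -/
def aff (O : W) (L : V →ₗ[ℝ] W) : V →ᵃ[ℝ] W where
  toFun := fun v => O + L v
  linear := L
  map_vadd' := fun p v => by
    simp only [vadd_eq_add, map_add]; abel

theorem aff_apply (O : W) (L : V →ₗ[ℝ] W) (v : V) : aff O L v = O + L v := rfl

/-- an injective affine map has an affine left inverse -/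
theorem exists_aff_inv (O : W) (L : V →ₗ[ℝ] W) (h : Function.Injective L) :
    ∃ B : W →ᵃ[ℝ] V, ∀ v, B (aff O L v) = v := by
  obtain ⟨M, hM⟩ := L.exists_leftInverse_of_injective (LinearMap.ker_eq_bot.2 h)
  refine ⟨aff (-(M O)) M, fun v => ?_⟩
  rw [aff_apply, aff_apply, map_add]
  have : M (L v) = v := by
    have := LinearMap.congr_fun hM v
    simpa using this
  rw [this]; abel

/-- the inverse of an injective map on a compact set, selection of finitely many affine maps with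
affine left inverses, is PL -/
theorem plOn_inv {f : V → W} {g : W → V} {K : Set V} (hK : IsCompact K) (hf : ContinuousOn f K)
    (hg : ∀ x ∈ K, g (f x) = x) (S : Finset (W →ᵃ[ℝ] V)) (hS : ∀ x ∈ K, ∃ B ∈ S, B (f x) = x) :
    PLOn g (f '' K) := by
  refine ⟨?_, S, ?_⟩
  · rw [continuousOn_iff_isClosed]
    intro t ht
    have h1 : IsCompact (K ∩ t) := hK.inter_right ht
    refine ⟨f '' (K ∩ t), (h1.image_of_continuousOn (hf.mono inter_subset_left)).isClosed, ?_⟩
    ext y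
    constructor
    · rintro ⟨hy, x, hx, rfl⟩
      have : g (f x) ∈ t := hy
      rw [hg x hx] at this
      exact ⟨⟨x, ⟨hx, this⟩, rfl⟩, ⟨x, hx, rfl⟩⟩
    · rintro ⟨⟨x, ⟨hx, hxt⟩, rfl⟩, hy⟩
      refine ⟨?_, hy⟩
      show g (f x) ∈ t
      rw [hg x hx]; exact hxt
  · rintro _ ⟨x, hx, rfl⟩
    obtain ⟨B, hB, e⟩ := hS x hx
    exact ⟨B, hB, by rw [hg x hx, e]⟩

end pl

variable {E : Type*} [NormedAddCommGroup E] [NormedSpace ℝ E] {I : Type*}

namespace Fr

variable (X : Fr E)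

/-- the linear part of `pt` -/
noncomputable def lin : ℝ × ℝ →ₗ[ℝ] E :=
  (LinearMap.fst ℝ ℝ ℝ).smulRight X.f1 + (LinearMap.snd ℝ ℝ ℝ).smulRight X.f2

theorem lin_apply (w : ℝ × ℝ) : X.lin w = w.1 • X.f1 + w.2 • X.f2 := by
  simp [lin]

theorem pt_eq (w : ℝ × ℝ) : X.pt w = X.O + X.lin w := by rw [lin_apply]; rfl

theorem lin_inj : Function.Injective X.lin := by
  intro w w' h
  apply X.pt_inj
  rw [pt_eq, pt_eq, h]

end Fr

/-- the two linear pieces of `tw` -/
def twa (α β : ℝ) : ℝ × ℝ →ₗ[ℝ] ℝ × ℝ where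
  toFun := fun w => ((1 + α) * w.2, w.1 + β * w.2)
  map_add' := fun v w => by ext <;> simp <;> ring
  map_smul' := fun c w => by ext <;> simp <;> ring

/-- the two linear pieces of `tw` -/
def twb (α β : ℝ) : ℝ × ℝ →ₗ[ℝ] ℝ × ℝ where
  toFun := fun w => (w.2 + α * w.1, (1 + β) * w.1)
  map_add' := fun v w => by ext <;> simp <;> ring
  map_smul' := fun c w => by ext <;> simp <;> ring

theorem twa_inj {α β : ℝ} (h : Shp α β) : Function.Injective (twa α β) := by
  intro w w' he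
  have h1 : (1 + α) * w.2 = (1 + α) * w'.2 := congrArg Prod.fst he
  have h2 : w.1 + β * w.2 = w'.1 + β * w'.2 := congrArg Prod.snd he
  have h0 : (1 + α) ≠ 0 := by linarith [h.ha]
  have h3 : w.2 = w'.2 := mul_left_cancel₀ h0 h1
  rw [h3] at h2
  exact Prod.ext (by linarith) h3

theorem twb_inj {α β : ℝ} (h : Shp α β) : Function.Injective (twb α β) := by
  intro w w' he
  have h1 : w.2 + α * w.1 = w'.2 + α * w'.1 := congrArg Prod.fst he
  have h2 : (1 + β) * w.1 = (1 + β) * w'.1 := congrArg Prod.snd he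
  have h0 : (1 + β) ≠ 0 := by linarith [h.hb]
  have h3 : w.1 = w'.1 := mul_left_cancel₀ h0 h2
  rw [h3] at h1
  exact Prod.ext h3 (by linarith)

theorem tw_eq_twa {α β : ℝ} {w : ℝ × ℝ} (hw : w.2 ≤ w.1) : tw α β w = twa α β w := tw_of_le hw

theorem tw_eq_twb {α β : ℝ} {w : ℝ × ℝ} (hw : w.1 ≤ w.2) : tw α β w = twb α β w := tw_of_ge hw

namespace Fr

variable (X : Fr E)

theorem tl_cases (w : ℝ × ℝ) :
    X.tl w = aff X.O (X.lin.comp (twa X.α X.β)) w ∨
      X.tl w = aff X.O (X.lin.comp (twb X.α X.β)) w := by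
  rcases le_total w.2 w.1 with h | h
  · left
    rw [aff_apply, LinearMap.comp_apply, ← tw_eq_twa h, ← pt_eq]; rfl
  · right
    rw [aff_apply, LinearMap.comp_apply, ← tw_eq_twb h, ← pt_eq]; rfl

theorem continuous_tl : Continuous X.tl := X.continuous_pt.comp continuous_tw

theorem plOn_tl (K : Set (ℝ × ℝ)) : PLOn X.tl K := by
  classical
  refine ⟨X.continuous_tl.continuousOn, {aff X.O (X.lin.comp (twa X.α X.β)),
    aff X.O (X.lin.comp (twb X.α X.β))}, fun w _ => ?_⟩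
  rcases X.tl_cases w with h | h
  · exact ⟨_, by simp, h⟩
  · exact ⟨_, by simp, h⟩

/-- the inverse of the chart `tl` is PL -/
theorem plOn_tl_inv {K : Set (ℝ × ℝ)} (hK : IsCompact K) {g : E → ℝ × ℝ}
    (hg : ∀ w ∈ K, g (X.tl w) = w) : PLOn g (X.tl '' K) := by
  classical
  obtain ⟨B1, h1⟩ := exists_aff_inv X.O (X.lin.comp (twa X.α X.β))
    (X.lin_inj.comp (twa_inj X.shp))
  obtain ⟨B2, h2⟩ := exists_aff_inv X.O (X.lin.comp (twb X.α X.β))
    (X.lin_inj.comp (twb_inj X.shp))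
  refine plOn_inv hK X.continuous_tl.continuousOn hg {B1, B2} fun w _ => ?_
  rcases X.tl_cases w with h | h
  · exact ⟨B1, by simp, by rw [h, h1]⟩
  · exact ⟨B2, by simp, by rw [h, h2]⟩

end Fr

variable {b : Set I → E} {P : I → Set E} {m : I → ℕ}

open Classical in
/-- the level coordinates -/
noncomputable def co (P : I → Set E) (b : Set I → E) (m : I → ℕ) (y : E) : I → ℝ :=
  if h : ∃ g ∈ G2 P m, Tq b m g = y then h.choose else fun _ => 0

open Classical in
/-- the box point with prescribed coordinates `c1, c2` -/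
noncomputable def ins (q : Gx P m) (c1 c2 : I) (w : ℝ × ℝ) : I → ℝ := fun c =>
  if c = c1 then w.1 else if c = c2 then w.2 else q.hi c

theorem ins_eq (q : Gx P m) (c1 c2 : I) (w : ℝ × ℝ) :
    ins q c1 c2 w = pq q c1 c2 (q.hi c1 - w.1, q.hi c2 - w.2) := by
  classical
  funext c
  simp only [ins, pq]
  by_cases h : c = c1
  · subst h; simp
  · by_cases h' : c = c2
    · subst h'; simp [h]
    · simp [h, h']

section foam

variable {La : Set E} [CompleteSpace E] (F : Foam La P b 4)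
include F

variable (hQ : Quads P b)
include hQ

theorem co_Tq (hm : ∀ c, 0 < m c) {g : I → ℝ} (hg : g ∈ G2 P m) : co P b m (Tq b m g) = g := by
  have h : ∃ g' ∈ G2 P m, Tq b m g' = Tq b m g := ⟨g, hg, rfl⟩
  rw [co, dif_pos h]
  exact Tq_injOn F hQ hm h.choose_spec.1 hg h.choose_spec.2

theorem co_mem (hm : ∀ c, 0 < m c) {q : Gx P m} {y : E} (hy : y ∈ Tq b m '' q.bx) :
    co P b m y ∈ q.bx := by
  obtain ⟨g, hg, rfl⟩ := hy
  rw [co_Tq F hQ hm (q.bx_sub hm hg)]; exact hg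

theorem Tq_co (hm : ∀ c, 0 < m c) {y : E} (hy : y ∈ La) {c c' : I} (hne : c ≠ c')
    (hc : y ∈ P c) (hc' : y ∈ P c') : co P b m y ∈ G2 P m ∧ Tq b m (co P b m y) = y := by
  obtain ⟨g, hg, rfl⟩ := exists_Tq F hQ hm hy hne hc hc'
  rw [co_Tq F hQ hm hg]; exact ⟨hg, rfl⟩

theorem Tq_co_of_mem (hm : ∀ c, 0 < m c) {q : Gx P m} {y : E} (hy : y ∈ Tq b m '' q.bx) :
    Tq b m (co P b m y) = y := by
  obtain ⟨g, hg, rfl⟩ := hy
  rw [co_Tq F hQ hm (q.bx_sub hm hg)]

/-- membership in the grid cells in level coordinates -/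
theorem Tq_mem_cell_iff (hm : ∀ c, 0 < m c) {g : I → ℝ} (hg : g ∈ G2 P m) {q : Gx P m} :
    Tq b m g ∈ Tq b m '' q.bx ↔ g ∈ q.bx :=
  ⟨fun ⟨_, hg', he⟩ => Tq_injOn F hQ hm (q.bx_sub hm hg') hg he ▸ hg', fun h => ⟨g, h, rfl⟩⟩

theorem co_ctr (hm : ∀ c, 0 < m c) (q : Gx P m) : co P b m (Tq b m q.ctr) = q.ctr :=
  co_Tq F hQ hm (q.bx_sub hm q.ctr_mem.1)

/-- **composition with `Tq` is PL** -/
theorem plOn_Tq (hm : ∀ c, 0 < m c) (q : Gx P m) {V : Type*} [NormedAddCommGroup V]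
    [NormedSpace ℝ V] {K : Set V} {g : V → I → ℝ} (hg : ∀ x ∈ K, g x ∈ q.bx)
    (hpl : ∀ c ∈ q.free, PLOn (fun x => g x c) K) : PLOn (fun x => Tq b m (g x)) K := by
  rcases q.free_cases F hm with hf | ⟨c1, hf⟩ | ⟨c1, c2, hne, hf⟩
  · refine (plOn_const (Tq b m fun c => (q.hi c : ℝ)) K).congr fun x hx => ?_
    have : g x = fun c => (q.hi c : ℝ) := funext fun c =>
      Gx.eq_of_mem (by rw [hf]; simp) (hg x hx)
    simp only [this]
  · obtain ⟨p, f, hf0, hpf⟩ := frame1 F hQ hm q hf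
    have h1 := hpl c1 (by rw [hf]; simp)
    have h2 := (plOn_affine (aff (p + (q.hi c1 : ℝ) • f)
      ((LinearMap.id : ℝ →ₗ[ℝ] ℝ).smulRight (-f))) univ).comp h1 (mapsTo_univ _ _)
    refine h2.congr fun x hx => ?_
    show Tq b m (g x) = aff _ _ (g x c1)
    rw [hpf _ (hg x hx), aff_apply]
    simp only [LinearMap.smulRight_apply, LinearMap.id_apply]
    module
  · obtain ⟨X, hX⟩ := frame2 F hQ hm q hne hf
    have h1 := hpl c1 (by rw [hf]; simp)
    have h2 := hpl c2 (by rw [hf]; simp)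
    have neg : ∀ (t : ℝ) {u : V → ℝ}, PLOn u K → PLOn (fun x => t - u x) K := fun t u hu => by
      refine ((plOn_affine (aff t (-(LinearMap.id : ℝ →ₗ[ℝ] ℝ))) univ).comp hu
        (mapsTo_univ _ _)).congr fun x hx => ?_
      show t - u x = aff _ _ (u x)
      rw [aff_apply]; simp [sub_eq_add_neg]
    have h3 := plOn_pair (neg (q.hi c1) h1) (neg (q.hi c2) h2)
    refine ((X.plOn_tl univ).comp h3 (mapsTo_univ _ _)).congr fun x hx => ?_
    exact hX _ (hg x hx)

/-- **the level coordinates are PL on the grid cells** -/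
theorem plOn_co (hm : ∀ c, 0 < m c) (q : Gx P m) (c : I) :
    PLOn (fun y => co P b m y c) (Tq b m '' q.bx) := by
  by_cases hc : c ∈ q.free
  swap
  · refine (plOn_const (q.hi c : ℝ) _).congr fun y hy => ?_
    exact Gx.eq_of_mem hc (co_mem F hQ hm hy)
  rcases q.free_cases F hm with hf | ⟨c1, hf⟩ | ⟨c1, c2, hne, hf⟩
  · rw [hf] at hc; exact absurd hc (by simp)
  · rw [hf] at hc
    obtain rfl : c = c1 := hc
    obtain ⟨p, f, hf0, hpf⟩ := frame1 F hQ hm q hf
    -- the chart in the level coordinate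
    set ψ : ℝ → E := fun s => aff (p + (q.hi c : ℝ) • f)
      ((LinearMap.id : ℝ →ₗ[ℝ] ℝ).smulRight (-f)) s with hψ
    have hinj : Function.Injective ((LinearMap.id : ℝ →ₗ[ℝ] ℝ).smulRight (-f)) := by
      intro s t h
      simp only [LinearMap.smulRight_apply, LinearMap.id_apply] at h
      exact smul_left_injective ℝ (neg_ne_zero.2 hf0) h
    obtain ⟨B, hB⟩ := exists_aff_inv (p + (q.hi c : ℝ) • f) _ hinj
    have key : ∀ g ∈ q.bx, Tq b m g = ψ (g c) := by
      intro g hg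
      rw [hpf _ hg, hψ]
      simp only [aff_apply, LinearMap.smulRight_apply, LinearMap.id_apply]
      module
    have l1 : (q.hi c : ℝ) = q.lo c + 1 := by
      exact_mod_cast Gx.hi_eq (show c ∈ q.free by rw [hf]; rfl)
    have himg : Tq b m '' q.bx = ψ '' Icc (q.lo c : ℝ) (q.hi c) := by
      apply Subset.antisymm
      · rintro _ ⟨g, hg, rfl⟩
        exact ⟨g c, hg c, (key g hg).symm⟩
      · rintro _ ⟨s, hs, rfl⟩
        have h1 : p1 q c (q.hi c - s) ∈ q.bx := mem_p1 hf ⟨by linarith [hs.2], by linarith [hs.1]⟩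
        refine ⟨_, h1, ?_⟩
        rw [key _ h1, p1_1]; congr 1; ring
    have hcont : Continuous ψ := by
      simp only [hψ, aff_apply, LinearMap.smulRight_apply, LinearMap.id_apply]
      fun_prop
    have hgco : ∀ s ∈ Icc (q.lo c : ℝ) (q.hi c), co P b m (ψ s) c = s := by
      intro s hs
      have h1 : p1 q c (q.hi c - s) ∈ q.bx := mem_p1 hf ⟨by linarith [hs.2], by linarith [hs.1]⟩
      have h2 := key _ h1
      rw [p1_1, sub_sub_cancel] at h2
      rw [← h2, co_Tq F hQ hm (q.bx_sub hm h1), p1_1, sub_sub_cancel]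
    rw [himg]
    exact plOn_inv isCompact_Icc hcont.continuousOn hgco {B} fun s _ =>
      ⟨B, Finset.mem_singleton_self _, hB s⟩
  · obtain ⟨X, hX⟩ := frame2 F hQ hm q hne hf
    have hT := hX
    obtain ⟨himg, -⟩ := img2 (φ := Tq b m) (ψ := X.tl) hne hf hT
    have h1 : PLOn (fun y => ((q.hi c1 : ℝ) - co P b m y c1, (q.hi c2 : ℝ) - co P b m y c2))
        (X.tl '' Sc) := by
      refine X.plOn_tl_inv isCompact_Sc fun w hw => ?_
      have h2 := mem_pq hne hf hw
      have h3 := hT _ h2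
      rw [pq_1, pq_2 q hne, sub_sub_cancel, sub_sub_cancel] at h3
      have h4 : X.tl w = Tq b m (pq q c1 c2 w) := h3.symm
      rw [h4, co_Tq F hQ hm (q.bx_sub hm h2), pq_1, pq_2 q hne, sub_sub_cancel, sub_sub_cancel]
    rw [himg]
    rw [hf] at hc
    rcases hc with rfl | rfl
    · refine ((plOn_affine (aff (q.hi c : ℝ) (-(LinearMap.fst ℝ ℝ ℝ))) univ).comp h1
        (mapsTo_univ _ _)).congr fun y _ => ?_
      show co P b m y c = aff _ _ (_, _)
      rw [aff_apply]; simp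
    · refine ((plOn_affine (aff (q.hi c : ℝ) (-(LinearMap.snd ℝ ℝ ℝ))) univ).comp h1
        (mapsTo_univ _ _)).congr fun y _ => ?_
      show co P b m y c = aff _ _ (_, _)
      rw [aff_apply]; simp

/-- the square cells as PL equivalences with rectangles (level units) -/
noncomputable def sqE (hm : ∀ c, 0 < m c) (q : Gx P m) {c1 c2 : I} (hne : c1 ≠ c2)
    (hf : q.free = {c1, c2}) :
    PLEquiv (Icc (q.lo c1 : ℝ) (q.hi c1) ×ˢ Icc (q.lo c2 : ℝ) (q.hi c2)) (Tq b m '' q.bx) where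
  f := fun w => Tq b m (ins q c1 c2 w)
  g := fun y => (co P b m y c1, co P b m y c2)
  pf := by
    refine plOn_Tq F hQ hm q ?_ ?_
    · rintro w ⟨h1, h2⟩
      have l1 : (q.hi c1 : ℝ) = q.lo c1 + 1 := by exact_mod_cast Gx.hi_eq (q := q) (by rw [hf]; simp)
      have l2 : (q.hi c2 : ℝ) = q.lo c2 + 1 := by exact_mod_cast Gx.hi_eq (q := q) (by rw [hf]; simp)
      rw [ins_eq]
      refine mem_pq hne hf ⟨⟨?_, ?_⟩, ⟨?_, ?_⟩⟩ <;> simp only <;>
        linarith [h1.1, h1.2, h2.1, h2.2]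
    · intro c hc
      rw [hf] at hc
      rcases hc with rfl | rfl
      · refine (plOn_affine (aff (0 : ℝ) (LinearMap.fst ℝ ℝ ℝ)) _).congr fun w _ => ?_
        show _ = aff _ _ w
        rw [aff_apply]; simp [ins]
      · refine (plOn_affine (aff (0 : ℝ) (LinearMap.snd ℝ ℝ ℝ)) _).congr fun w _ => ?_
        show _ = aff _ _ w
        rw [aff_apply]; simp [ins, hne.symm]
  pg := plOn_pair (plOn_co F hQ hm q c1) (plOn_co F hQ hm q c2)
  mf := by
    rintro w ⟨h1, h2⟩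
    have l1 : (q.hi c1 : ℝ) = q.lo c1 + 1 := by exact_mod_cast Gx.hi_eq (q := q) (by rw [hf]; simp)
    have l2 : (q.hi c2 : ℝ) = q.lo c2 + 1 := by exact_mod_cast Gx.hi_eq (q := q) (by rw [hf]; simp)
    refine ⟨_, ?_, rfl⟩
    rw [ins_eq]
    refine mem_pq hne hf ⟨⟨?_, ?_⟩, ⟨?_, ?_⟩⟩ <;> simp only <;>
      linarith [h1.1, h1.2, h2.1, h2.2]
  mg := by
    rintro y hy
    have := co_mem F hQ hm hy
    exact ⟨this c1, this c2⟩
  li := by
    rintro w ⟨h1, h2⟩
    have l1 : (q.hi c1 : ℝ) = q.lo c1 + 1 := by exact_mod_cast Gx.hi_eq (q := q) (by rw [hf]; simp)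
    have l2 : (q.hi c2 : ℝ) = q.lo c2 + 1 := by exact_mod_cast Gx.hi_eq (q := q) (by rw [hf]; simp)
    have h : ins q c1 c2 w ∈ q.bx := by
      rw [ins_eq]
      refine mem_pq hne hf ⟨⟨?_, ?_⟩, ⟨?_, ?_⟩⟩ <;> simp only <;>
        linarith [h1.1, h1.2, h2.1, h2.2]
    show (co P b m (Tq b m (ins q c1 c2 w)) c1, co P b m (Tq b m (ins q c1 c2 w)) c2) = w
    rw [co_Tq F hQ hm (q.bx_sub hm h)]
    simp [ins, hne.symm]
  ri := by
    rintro y hy
    have h := co_mem F hQ hm hy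
    have e : ins q c1 c2 (co P b m y c1, co P b m y c2) = co P b m y := by
      rw [ins_eq]; exact (eq_pq hne hf h).symm
    show Tq b m (ins q c1 c2 (co P b m y c1, co P b m y c2)) = y
    rw [e, Tq_co_of_mem F hQ hm hy]

end foam

end Crest.Agent.R096.Grd_714
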