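import Crest.Agent.R096.Xq1_537

/-!
# R096 (row 96), EXPLODE, part q2 (helper537)

`TrnOn K C G top tr` = the local transport axioms on a set `K` (everything in `Trn` except `ball` and
local finiteness).  `Trn.ofPieces` glues them.  `coreF C κ c θ` = the exact core
`{y ∈ P_c | θ ≤ l_c}`; a PL homeomorphism `Th : K ≃ coreF` pulls the exact structure back to `K`
(`core_trnOn`).
-/

set_option autoImplicit false
set_option linter.unusedSectionVars false
set_option linter.unusedVariables false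
set_option linter.deprecated false

open Set
open scoped NNReal

namespace Crest.Agent.R096.Xp_537

open Crest.Agent.R096.Ce_537 (PLOn PLEquiv cube sph IsBall LocPL)
open Crest.Agent.R096.Bd_416

variable {E E' : Type*} [NormedAddCommGroup E] [NormedSpace ℝ E]
  [NormedAddCommGroup E'] [NormedSpace ℝ E']
variable {Q : Type*} [PartialOrder Q] {Λ : Set E}

/-- **local transport structure** -/
structure TrnOn (K : Set E') (C : CC Λ Q) (G : E' → E) (top : E' → Q) (tr : E' → E → E') :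
    Prop where
  G_mem : ∀ x ∈ K, G x ∈ C.cell (top x)
  tr_mem : ∀ x ∈ K, ∀ t ∈ C.cell (top x), tr x t ∈ K
  tr_G : ∀ x ∈ K, ∀ t ∈ C.cell (top x), G (tr x t) = t
  tr_top : ∀ x ∈ K, ∀ t ∈ C.cell (top x), top x ≤ top (tr x t)
  tr_self : ∀ x ∈ K, tr x (G x) = x
  tr_tr : ∀ x ∈ K, ∀ t ∈ C.cell (top x), ∀ s ∈ C.cell (top x), tr (tr x t) s = tr x s
  plG : ∀ q, PLOn G {x | x ∈ K ∧ q ≤ top x ∧ G x ∈ C.cell q}
  plc : ∀ q, PLOn (fun x => tr x (C.b q)) {x | x ∈ K ∧ q ≤ top x ∧ G x ∈ C.cell q}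
  pltr : ∀ q, PLOn (fun p : E' × E => tr p.1 p.2) ({x | x ∈ K ∧ G x = C.b q} ×ˢ C.cell q)

lemma TrnOn.congr {K : Set E'} {C : CC Λ Q} {G G' : E' → E} {top top' : E' → Q}
    {tr tr' : E' → E → E'} (h : TrnOn K C G top tr) (hG : ∀ x ∈ K, G' x = G x)
    (htop : ∀ x ∈ K, top' x = top x) (htr : ∀ x ∈ K, ∀ t ∈ C.cell (top x), tr' x t = tr x t) :
    TrnOn K C G' top' tr' := by
  have hset : ∀ q, {x | x ∈ K ∧ q ≤ top' x ∧ G' x ∈ C.cell q} =
      {x | x ∈ K ∧ q ≤ top x ∧ G x ∈ C.cell q} := fun q => by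
    ext x
    simp only [mem_setOf_eq]
    constructor
    · rintro ⟨h1, h2, h3⟩; exact ⟨h1, by rwa [← htop x h1], by rwa [← hG x h1]⟩
    · rintro ⟨h1, h2, h3⟩; exact ⟨h1, by rwa [htop x h1], by rwa [hG x h1]⟩
  have hset2 : ∀ q, {x | x ∈ K ∧ G' x = C.b q} = {x | x ∈ K ∧ G x = C.b q} := fun q => by
    ext x
    simp only [mem_setOf_eq]
    constructor
    · rintro ⟨h1, h3⟩; exact ⟨h1, by rwa [← hG x h1]⟩
    · rintro ⟨h1, h3⟩; exact ⟨h1, by rwa [hG x h1]⟩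
  refine ⟨fun x hx => ?_, fun x hx t ht => ?_, fun x hx t ht => ?_, fun x hx t ht => ?_,
    fun x hx => ?_, fun x hx t ht s hs => ?_, fun q => ?_, fun q => ?_, fun q => ?_⟩
  · rw [hG x hx, htop x hx]; exact h.G_mem x hx
  · rw [htop x hx] at ht; rw [htr x hx t ht]; exact h.tr_mem x hx t ht
  · rw [htop x hx] at ht
    rw [htr x hx t ht, hG _ (h.tr_mem x hx t ht)]; exact h.tr_G x hx t ht
  · rw [htop x hx] at ht
    rw [htop x hx, htr x hx t ht, htop _ (h.tr_mem x hx t ht)]; exact h.tr_top x hx t ht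
  · rw [hG x hx, htr x hx _ (h.G_mem x hx)]; exact h.tr_self x hx
  · rw [htop x hx] at ht hs
    have h1 := h.tr_mem x hx t ht
    rw [htr x hx t ht, htr x hx s hs,
      htr _ h1 s (C.mono_le (h.tr_top x hx t ht) hs)]
    exact h.tr_tr x hx t ht s hs
  · rw [hset]; exact (h.plG q).congr (fun x hx => hG x hx.1)
  · rw [hset]
    exact (h.plc q).congr (fun x hx => htr x hx.1 _ (C.mono_le hx.2.1 (C.bmem q)))
  · rw [hset2]
    refine (h.pltr q).congr ?_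
    rintro ⟨x, t⟩ ⟨hx, ht⟩
    have hx1 : G x = C.b q := hx.2
    have : q ≤ top x := C.le_of_b (by rw [← hx1]; exact h.G_mem x hx.1)
    exact htr x hx.1 _ (C.mono_le this ht)

/-- `PLOn` from a finite closed cover -/
lemma plOn_cover {V W ι : Type*} [NormedAddCommGroup V] [NormedSpace ℝ V] [NormedAddCommGroup W]
    [NormedSpace ℝ W] {f : V → W} {S : Set V} {Ks : ι → Set V} {I : Set ι} (hI : I.Finite)
    (hcl : ∀ i, IsClosed (Ks i)) (hcov : ∀ x ∈ S, ∃ i ∈ I, x ∈ Ks i)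
    (h : ∀ i, PLOn f (S ∩ Ks i)) : PLOn f S := by
  classical
  choose T hT using fun i => (h i).2
  refine ⟨?_, hI.toFinset.biUnion T, fun x hx => ?_⟩
  · have hS : S = ⋃ i : I, (S ∩ Ks i) := by
      ext x
      simp only [mem_iUnion, mem_inter_iff, exists_and_left, Subtype.exists, exists_prop]
      constructor
      · intro hx
        obtain ⟨i, hi, hxi⟩ := hcov x hx
        exact ⟨hx, i, hi, hxi⟩
      · rintro ⟨hx, -⟩; exact hx
    -- closed cover of the subtype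
    rw [continuousOn_iff_continuous_restrict]
    have hfin : Finite I := hI
    have hlf : LocallyFinite (fun i : I => (Subtype.val ⁻¹' Ks i : Set S)) :=
      locallyFinite_of_finite _
    refine hlf.continuous ?_ (fun i => (hcl i).preimage continuous_subtype_val) (fun i => ?_)
    · ext ⟨x, hx⟩
      simp only [mem_iUnion, mem_preimage, mem_univ, iff_true]
      obtain ⟨i, hi, hxi⟩ := hcov x hx
      exact ⟨⟨i, hi⟩, hxi⟩
    · have h1 := (h i).1
      have h2 : ContinuousOn (f ∘ Subtype.val) (Subtype.val ⁻¹' Ks (i : ι) : Set S) :=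
        h1.comp continuous_subtype_val.continuousOn (fun x hx => ⟨x.2, hx⟩)
      exact h2
  · obtain ⟨i, hi, hxi⟩ := hcov x hx
    obtain ⟨a, ha, e⟩ := hT i x ⟨hx, hxi⟩
    exact ⟨a, Finset.mem_biUnion.2 ⟨i, hI.mem_toFinset.2 hi, ha⟩, e⟩

/-- **gluing of local transport structures** -/
def Trn.ofPieces {Ω : Set E'} {C : CC Λ Q} {G : E' → E} {top : E' → Q} {tr : E' → E → E'}
    {ι : Type*} (Ks : ι → Set E') (hcl : ∀ i, IsClosed (Ks i)) (hsub : ∀ i, Ks i ⊆ Ω)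
    (hcov : ∀ x ∈ Ω, ∃ i, x ∈ Ks i) (hT : ∀ i, TrnOn (Ks i) C G top tr)
    (hfin : ∀ q, {i | (Ks i ∩ {x | G x ∈ C.cell q}).Nonempty}.Finite) (d : Q → ℕ) (n : ℕ)
    (dim_le : ∀ q, C.dim q ≤ n)
    (ball : ∀ q, IsBall (d q) {x | x ∈ Ω ∧ G x = C.b q} {x | x ∈ Ω ∧ G x = C.b q ∧ top x ≠ q})
    (lf : ∀ x ∈ Ω, ∃ r > 0,
      {q | ({x | x ∈ Ω ∧ q ≤ top x ∧ G x ∈ C.cell q} ∩ Metric.ball x r).Nonempty}.Finite) :
    Trn Ω C G where
  top := top
  tr := tr
  d := d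
  n := n
  dim_le := dim_le
  G_mem := fun x hx => by
    obtain ⟨i, hi⟩ := hcov x hx
    exact (hT i).G_mem x hi
  tr_mem := fun x hx t ht => by
    obtain ⟨i, hi⟩ := hcov x hx
    exact hsub i ((hT i).tr_mem x hi t ht)
  tr_G := fun x hx t ht => by
    obtain ⟨i, hi⟩ := hcov x hx
    exact (hT i).tr_G x hi t ht
  tr_top := fun x hx t ht => by
    obtain ⟨i, hi⟩ := hcov x hx
    exact (hT i).tr_top x hi t ht
  tr_self := fun x hx => by
    obtain ⟨i, hi⟩ := hcov x hx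
    exact (hT i).tr_self x hi
  tr_tr := fun x hx t ht s hs => by
    obtain ⟨i, hi⟩ := hcov x hx
    exact (hT i).tr_tr x hi t ht s hs
  plG := fun q => by
    refine plOn_cover (hfin q) hcl (fun x hx => ?_) (fun i => ?_)
    · obtain ⟨i, hi⟩ := hcov x hx.1
      exact ⟨i, ⟨x, hi, hx.2.2⟩, hi⟩
    · exact ((hT i).plG q).mono (fun x hx => ⟨hx.2, hx.1.2⟩)
  plc := fun q => by
    refine plOn_cover (hfin q) hcl (fun x hx => ?_) (fun i => ?_)
    · obtain ⟨i, hi⟩ := hcov x hx.1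
      exact ⟨i, ⟨x, hi, hx.2.2⟩, hi⟩
    · exact ((hT i).plc q).mono (fun x hx => ⟨hx.2, hx.1.2⟩)
  pltr := fun q => by
    refine plOn_cover (Ks := fun i => Ks i ×ˢ (univ : Set E)) (hfin q)
      (fun i => (hcl i).prod isClosed_univ) ?_ (fun i => ?_)
    · rintro ⟨x, t⟩ ⟨hx, ht⟩
      obtain ⟨i, hi⟩ := hcov x hx.1
      refine ⟨i, ⟨x, hi, ?_⟩, hi, mem_univ _⟩
      show G x ∈ C.cell q
      rw [show G x = C.b q from hx.2]
      exact C.bmem q
    · refine ((hT i).pltr q).mono ?_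
      rintro ⟨x, t⟩ ⟨⟨hx, ht⟩, hi, -⟩
      exact ⟨⟨hi, hx.2⟩, ht⟩
  ball := ball
  lf := lf

/-! ### the exact core -/

/-- **the exact core** of the cell `c` -/
def coreF (C : CC Λ Q) (κ : ℝ) (c : Q) (θ : ℝ) : Set E := {y | y ∈ C.cell c ∧ θ ≤ sl C κ y c}

open Classical in
/-- the smallest element of the support -/
noncomputable def mn (c : Q) (l : Q →₀ ℝ) : Q :=
  if h : ∃ p ∈ l.support, ∀ ρ ∈ l.support, p ≤ ρ then h.choose else c

lemma mn_spec (c : Q) {l : Q →₀ ℝ} (h : Wt l) :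
    mn c l ∈ l.support ∧ ∀ ρ ∈ l.support, mn c l ≤ ρ := by
  classical
  have hex : ∃ p ∈ l.support, ∀ ρ ∈ l.support, p ≤ ρ := h.exists_min
  unfold mn
  rw [dif_pos hex]
  exact hex.choose_spec

lemma mn_eq (c : Q) {l : Q →₀ ℝ} (h : Wt l) {p : Q} (hp : p ∈ l.support)
    (hmin : ∀ ρ ∈ l.support, p ≤ ρ) : mn c l = p :=
  le_antisymm ((mn_spec c h).2 p hp) (hmin _ (mn_spec c h).1)

/-- the exact structure: base point -/
noncomputable def cG (C : CC Λ Q) (κ : ℝ) (Th : E' → E) (x : E') : E := st C κ (Th x)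

/-- the exact structure: top cell -/
noncomputable def ctop (C : CC Λ Q) (κ : ℝ) (c : Q) (Th : E' → E) (x : E') : Q :=
  mn c (sl C κ (Th x))

/-- the exact structure: transport -/
noncomputable def ctr (C : CC Λ Q) (κ : ℝ) (Th : E' → E) (Thi : E → E') (x : E') (s : E) : E' :=
  Thi (pk C κ (sl C κ (Th x)) s)

section Core

variable {C : CC Λ Q} {κ θ : ℝ} {c : Q} {K : Set E'}

/-- the state with the base point moved inside the top cell -/
lemma state_move (hκ : 0 < κ ∧ κ < 1) {y : E} (hy : y ∈ C.cell c) {s : E}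
    (hs : s ∈ C.cell (mn c (sl C κ y))) : State C (sl C κ y) s := by
  obtain ⟨h1, h2, h3⟩ := st_spec C hκ hy
  exact ⟨h1.nn, h1.sum, h1.chain, fun ρ hρ => C.mono_le ((mn_spec c h1.wt).2 ρ hρ) hs⟩

lemma sl_move (hκ : 0 < κ ∧ κ < 1) {y : E} (hy : y ∈ C.cell c) {s : E}
    (hs : s ∈ C.cell (mn c (sl C κ y))) : sl C κ (pk C κ (sl C κ y) s) = sl C κ y :=
  sl_pk C hκ (state_move hκ hy hs)

lemma st_move (hκ : 0 < κ ∧ κ < 1) {y : E} (hy : y ∈ C.cell c) {s : E}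
    (hs : s ∈ C.cell (mn c (sl C κ y))) : st C κ (pk C κ (sl C κ y) s) = s :=
  st_pk C hκ (state_move hκ hy hs)

lemma pk_move_mem (hκ : 0 < κ ∧ κ < 1) {y : E} (hy : y ∈ C.cell c) {s : E}
    (hs : s ∈ C.cell (mn c (sl C κ y))) : pk C κ (sl C κ y) s ∈ C.cell c :=
  pk_mem C hκ (state_move hκ hy hs) (st_spec C hκ hy).2.2

lemma coreF_move (hκ : 0 < κ ∧ κ < 1) {y : E} (hy : y ∈ coreF C κ c θ) {s : E}
    (hs : s ∈ C.cell (mn c (sl C κ y))) : pk C κ (sl C κ y) s ∈ coreF C κ c θ :=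
  ⟨pk_move_mem hκ hy.1 hs, by rw [sl_move hκ hy.1 hs]; exact hy.2⟩

/-- **(K2')**: the exact structure on `K ≃ coreF` -/
theorem core_trnOn [FiniteDimensional ℝ E] (hκ : 0 < κ ∧ κ < 1)
    (Th : PLEquiv K (coreF C κ c θ)) :
    TrnOn K C (cG C κ Th.f) (ctop C κ c Th.f) (ctr C κ Th.f Th.g) := by
  have hm : ∀ x ∈ K, Th.f x ∈ C.cell c := fun x hx => (Th.mf hx).1
  have hTtr : ∀ x ∈ K, ∀ t ∈ C.cell (ctop C κ c Th.f x),
      Th.f (ctr C κ Th.f Th.g x t) = pk C κ (sl C κ (Th.f x)) t := fun x hx t ht =>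
    Th.ri _ (coreF_move hκ (Th.mf hx) ht)
  have hsl : ∀ x ∈ K, ∀ t ∈ C.cell (ctop C κ c Th.f x),
      sl C κ (Th.f (ctr C κ Th.f Th.g x t)) = sl C κ (Th.f x) := fun x hx t ht => by
    rw [hTtr x hx t ht, sl_move hκ (hm x hx) ht]
  have plbs : PLOn (fun x => bs C.b (sl C κ (Th.f x))) K := by
    have h1 : PLOn (fun y => ∑ ρ ∈ C.dn c, sl C κ y ρ • C.b ρ) (C.cell c) :=
      pl_sum _ (fun ρ _ => pl_clm (plOn_sl C hκ c ρ)
        ((ContinuousLinearMap.id ℝ ℝ).smulRight (C.b ρ)))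
    have h2 : PLOn (fun y => bs C.b (sl C κ y)) (C.cell c) := by
      refine h1.congr (fun y hy => ?_)
      exact bs_eq_of (fun ρ hρ => C.mem_dn.2 ((st_spec C hκ hy).2.2 ρ hρ))
    exact h2.comp Th.pf hm
  refine ⟨fun x hx => ?_, fun x hx t ht => ?_, fun x hx t ht => ?_, fun x hx t ht => ?_,
    fun x hx => ?_, fun x hx t ht s hs => ?_, fun q => ?_, fun q => ?_, fun q => ?_⟩
  · obtain ⟨h1, h2, h3⟩ := st_spec C hκ (hm x hx)
    exact h1.mem _ (mn_spec c h1.wt).1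
  · exact Th.mg (coreF_move hκ (Th.mf hx) ht)
  · show st C κ (Th.f (ctr C κ Th.f Th.g x t)) = t
    rw [hTtr x hx t ht, st_move hκ (hm x hx) ht]
  · show ctop C κ c Th.f x ≤ mn c (sl C κ (Th.f (ctr C κ Th.f Th.g x t)))
    rw [hsl x hx t ht]
    exact le_rfl
  · show Th.g (pk C κ (sl C κ (Th.f x)) (st C κ (Th.f x))) = x
    rw [(st_spec C hκ (hm x hx)).2.1, Th.li x hx]
  · show Th.g (pk C κ (sl C κ (Th.f (ctr C κ Th.f Th.g x t))) s) =
      Th.g (pk C κ (sl C κ (Th.f x)) s)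
    rw [hsl x hx t ht]
  · exact ((plOn_st C hκ c).comp Th.pf hm).mono (fun x hx => hx.1)
  · refine Th.pg.comp (f := fun x => pk C κ (sl C κ (Th.f x)) (C.b q)) ?_ ?_
    · have h1 := pl_add (Ce_537.plOn_const ((1 - κ) • C.b q) K) (pl_smul κ plbs)
      exact h1.mono (fun x hx => hx.1)
    · intro x hx
      exact coreF_move hκ (Th.mf hx.1) (C.mono_le hx.2.1 (C.bmem q))
  · refine Th.pg.comp (f := fun p : E' × E => pk C κ (sl C κ (Th.f p.1)) p.2) ?_ ?_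
    · have h1 : PLOn (fun p : E' × E => bs C.b (sl C κ (Th.f p.1)))
          ({x | x ∈ K ∧ cG C κ Th.f x = C.b q} ×ˢ C.cell q) :=
        plbs.comp (pl_fst (Ce_537.plOn_id _)) (fun p hp => hp.1.1)
      exact pl_add (pl_smul (1 - κ) (pl_snd (Ce_537.plOn_id _))) (pl_smul κ h1)
    · rintro ⟨x, t⟩ ⟨⟨hx, hG⟩, ht⟩
      have h1 : q ≤ mn c (sl C κ (Th.f x)) := by
        apply C.le_of_b
        rw [← hG]
        obtain ⟨h1, h2, h3⟩ := st_spec C hκ (hm x hx)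
        exact h1.mem _ (mn_spec c h1.wt).1
      exact coreF_move hκ (Th.mf hx) (C.mono_le h1 ht)

end Core

end Crest.Agent.R096.Xp_537
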