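import Crest.Agent.R096.Bin1_181
import Crest.Agent.R096.Xq2_537
import Crest.Agent.R096.Grd7_714

/-!
# R096 (row 96), BASE-INV, part 2 (helper181): the exact structure `E_κ` of 537 on the grid complex of
714 as a band structure (colours = level directions), `Is` on every grid cell
-/

set_option autoImplicit false
set_option linter.unusedSectionVars false

open Set Metric

namespace Crest.Agent.R096.Bin_181

open Crest.Agent.R096.Ce_537 Crest.Agent.R096.Bd_416 Crest.Agent.R096.Xp_537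
open Crest.Agent.R096.Brk1_582 Crest.Agent.R096.Brk2_582 Crest.Agent.R096.Brk6_582
open Crest.Agent.R096.Grd_714

variable {E : Type*} [NormedAddCommGroup E] [NormedSpace ℝ E] {I : Type*}
variable {b : Set I → E} {P : I → Set E} {m : I → ℕ}

/-- the free directions of a cell -/
def fr : Cel P m → Set I
  | .top _ => ∅
  | .gr q => q.free

/-- the lower levels of a cell -/
def lo : Cel P m → I → ℕ
  | .top _ => fun _ => 0
  | .gr q => q.lo

lemma gr_of_le {p : Cel P m} {q : Gx P m} (h : p ≤ .gr q) : ∃ q', p = .gr q' ∧ q' ≤ q := by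
  cases p with
  | top c => exact absurd h Cel.top_le_gr
  | gr q' => exact ⟨q', rfl, Cel.gr_le_gr.1 h⟩

lemma free_mono {q q' : Gx P m} (h : q ≤ q') : q.free ⊆ q'.free := by
  intro a ha
  have h1 := h a
  have h2 : q.lo a < q.hi a := ha
  show q'.lo a < q'.hi a
  omega

lemma lo_eq_of_le {q q' : Gx P m} (h : q ≤ q') {a : I} (ha : a ∈ q.free) : q'.lo a = q.lo a := by
  have h1 := h a
  have h2 : q.lo a < q.hi a := ha
  have h3 := q'.le1 a
  omega

open Classical in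
lemma mem_upd {q : Gx P m} {g : I → ℝ} (hg : g ∈ q.bx) {a : I} (ha : a ∈ q.free) {s : ℝ}
    (hs : s ∈ I2) : Function.update g a (q.lo a + 1/2 + s) ∈ q.bx := by
  intro c
  by_cases h : c = a
  · subst h
    rw [Function.update_self]
    have h1 : (q.hi c : ℝ) = q.lo c + 1 := by exact_mod_cast Gx.hi_eq ha
    have h2 := hs.1
    have h3 := hs.2
    constructor <;> linarith
  · rw [Function.update_of_ne h]; exact hg c

open Classical in
/-- **the family level exact structure** -/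
noncomputable def ek {La : Set E} (C : CC La (Cel P m)) (b : Set I → E) (κ : ℝ) (c : Cel P m) :
    Gd E I where
  G a y := co P b m (st C κ y) a
  B a := {y | a ∈ fr (mn c (sl C κ y))}
  lev a y := lo (mn c (sl C κ y)) a
  tr a p := pk C κ (sl C κ p.1) (Tq b m (Function.update (co P b m (st C κ p.1)) a
    (lo (mn c (sl C κ p.1)) a + 1/2 + p.2)))

section foam

variable {La : Set E} [CompleteSpace E] (F : Foam La P b 4) (hQ : Quads P b)
  (hne : ∀ c, (P c).Nonempty) (hm : ∀ c, 0 < m c)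
include F hQ hm

variable {κ : ℝ} (hκ : 0 < κ ∧ κ < 1) (c : Cel P m)
include hκ

lemma ek_spec {q : Gx P m} {y : E} (hy : y ∈ (grid F hQ hne hm).cell (.gr q)) :
    ∃ q0 : Gx P m, mn c (sl (grid F hQ hne hm) κ y) = .gr q0 ∧ q0 ≤ q ∧
      Cel.gr q0 ∈ (sl (grid F hQ hne hm) κ y).support ∧
      st (grid F hQ hne hm) κ y ∈ Tq b m '' q0.bx ∧
      ∀ p ∈ (sl (grid F hQ hne hm) κ y).support, ∃ q', p = .gr q' ∧ q0 ≤ q' ∧ q' ≤ q := by
  obtain ⟨h1, h2, h3⟩ := st_spec (grid F hQ hne hm) hκ hy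
  obtain ⟨k1, k2⟩ := mn_spec c h1.wt
  obtain ⟨q0, e0, h0⟩ := gr_of_le (h3 _ k1)
  rw [e0] at k1 k2
  refine ⟨q0, e0, h0, k1, h1.mem _ k1, fun p hp => ?_⟩
  obtain ⟨q', rfl, hq'⟩ := gr_of_le (h3 p hp)
  exact ⟨q', rfl, Cel.gr_le_gr.1 (k2 _ hp), hq'⟩

open Classical in
lemma tr_spec {q : Gx P m} {y : E} (hy : y ∈ (grid F hQ hne hm).cell (.gr q)) {a : I}
    (hB : y ∈ (ek (grid F hQ hne hm) b κ c).B a) {s : ℝ} (hs : s ∈ I2) :
    (ek (grid F hQ hne hm) b κ c).tr a (y, s) ∈ (grid F hQ hne hm).cell (.gr q) ∧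
    sl (grid F hQ hne hm) κ ((ek (grid F hQ hne hm) b κ c).tr a (y, s))
      = sl (grid F hQ hne hm) κ y ∧
    co P b m (st (grid F hQ hne hm) κ ((ek (grid F hQ hne hm) b κ c).tr a (y, s)))
      = Function.update (co P b m (st (grid F hQ hne hm) κ y)) a
        (lo (mn c (sl (grid F hQ hne hm) κ y)) a + 1/2 + s) ∧
    st (grid F hQ hne hm) κ ((ek (grid F hQ hne hm) b κ c).tr a (y, s))
      = Tq b m (Function.update (co P b m (st (grid F hQ hne hm) κ y)) a
        (lo (mn c (sl (grid F hQ hne hm) κ y)) a + 1/2 + s)) := by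
  obtain ⟨h1, h2, h3⟩ := st_spec (grid F hQ hne hm) hκ hy
  obtain ⟨q0, e0, h0, hs0, ht, hp⟩ := ek_spec F hQ hne hm hκ c hy
  have hB' : a ∈ fr (mn c (sl (grid F hQ hne hm) κ y)) := hB
  rw [e0] at hB'
  have hB0 : a ∈ q0.free := hB'
  have hu0 := mem_upd (co_mem F hQ hm ht) hB0 hs
  have e1 : (lo (mn c (sl (grid F hQ hne hm) κ y)) a : ℝ) = q0.lo a := by rw [e0]; rfl
  rw [← e1] at hu0
  set u := Function.update (co P b m (st (grid F hQ hne hm) κ y)) a
        (lo (mn c (sl (grid F hQ hne hm) κ y)) a + 1/2 + s) with hu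
  have hst : State (grid F hQ hne hm) (sl (grid F hQ hne hm) κ y) (Tq b m u) := by
    refine ⟨h1.nn, h1.sum, h1.chain, fun p hp' => ?_⟩
    obtain ⟨q', rfl, hq', -⟩ := hp p hp'
    exact ⟨u, bx_mono hq' hu0, rfl⟩
  have etr : (ek (grid F hQ hne hm) b κ c).tr a (y, s)
      = pk (grid F hQ hne hm) κ (sl (grid F hQ hne hm) κ y) (Tq b m u) := rfl
  rw [etr]
  refine ⟨pk_mem _ hκ hst h3, sl_pk _ hκ hst, ?_, st_pk _ hκ hst⟩
  rw [st_pk _ hκ hst, co_Tq F hQ hm (q0.bx_sub hm hu0)]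

lemma ek_B_iff {q : Gx P m} {y : E} (hy : y ∈ (grid F hQ hne hm).cell (.gr q)) {a : I} :
    y ∈ (ek (grid F hQ hne hm) b κ c).B a ↔
      ∀ p ∈ (grid F hQ hne hm).dn (.gr q), a ∉ fr p → sl (grid F hQ hne hm) κ y p = 0 := by
  obtain ⟨q0, e0, h0, hs0, ht, hp⟩ := ek_spec F hQ hne hm hκ c hy
  have e1 : y ∈ (ek (grid F hQ hne hm) b κ c).B a ↔ a ∈ q0.free := by
    show a ∈ fr (mn c (sl (grid F hQ hne hm) κ y)) ↔ _
    rw [e0]; rfl
  rw [e1]
  constructor
  · intro ha p _ hpa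
    by_contra hne'
    obtain ⟨q', rfl, hq', -⟩ := hp p (Finsupp.mem_support_iff.2 hne')
    exact hpa (free_mono hq' ha)
  · intro h
    by_contra ha
    exact Finsupp.mem_support_iff.1 hs0
      (h (.gr q0) ((grid F hQ hne hm).mem_dn.2 (Cel.gr_le_gr.2 h0)) ha)

/-- the band levels are the level of the cell -/
lemma ek_lev {q : Gx P m} {y : E} (hy : y ∈ (grid F hQ hne hm).cell (.gr q)) {a : I}
    (hB : y ∈ (ek (grid F hQ hne hm) b κ c).B a) :
    a ∈ q.free ∧ lo (mn c (sl (grid F hQ hne hm) κ y)) a = q.lo a := by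
  obtain ⟨q0, e0, h0, hs0, ht, hp⟩ := ek_spec F hQ hne hm hκ c hy
  have hB' : a ∈ fr (mn c (sl (grid F hQ hne hm) κ y)) := hB
  rw [e0] at hB' ⊢
  exact ⟨free_mono h0 hB', (lo_eq_of_le h0 hB').symm⟩

open Classical in
/-- **`E_κ` is a band structure on every grid cell** -/
theorem ek_is [FiniteDimensional ℝ E] (q : Gx P m) :
    (ek (grid F hQ hne hm) b κ c).Is ((grid F hQ hne hm).cell (.gr q)) := by
  set C := grid F hQ hne hm with hC
  have hstm : ∀ y ∈ C.cell (.gr q), st C κ y ∈ Tq b m '' q.bx := fun y hy => st_mem C hκ hy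
  have hG : ∀ a, PLOn ((ek C b κ c).G a) (C.cell (.gr q)) := fun a =>
    (plOn_co F hQ hm q a).comp (plOn_st C hκ (.gr q)) hstm
  have hcB : ∀ a, IsClosed (C.cell (.gr q) ∩ (ek C b κ c).B a) := by
    intro a
    have h1 : C.cell (.gr q) ∩ (ek C b κ c).B a = C.cell (.gr q) ∩
        ⋂ p ∈ {p | p ∈ C.dn (.gr q) ∧ a ∉ fr p},
          (C.cell (.gr q) ∩ (fun y => sl C κ y p) ⁻¹' {0}) := by
      ext y
      simp only [mem_inter_iff, mem_iInter, mem_ofPred_eq, mem_preimage, mem_singleton_iff]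
      constructor
      · rintro ⟨hy, hB⟩
        exact ⟨hy, fun p hp => ⟨hy, (ek_B_iff F hQ hne hm hκ c hy).1 hB p hp.1 hp.2⟩⟩
      · rintro ⟨hy, h⟩
        exact ⟨hy, (ek_B_iff F hQ hne hm hκ c hy).2 fun p hp hpa => (h p ⟨hp, hpa⟩).2⟩
    rw [h1]
    refine (C.cpt _).isClosed.inter (isClosed_biInter fun p _ => ?_)
    exact (plOn_sl C hκ (.gr q) p).1.preimage_isClosed_of_isClosed (C.cpt _).isClosed
      isClosed_singleton
  refine ⟨hG, hcB, fun a y hy hn => ?_, fun a y hy hB => ⟨(lo (mn c (sl C κ y)) a : ℤ), by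
    rfl⟩,
    fun a y hy hB => ?_, fun a => ?_, fun a y hy hB s hs => ?_, fun a y hy hB s hs => ?_,
    fun a y hy hB s hs => ?_, fun a y hy hB s hs => ?_, fun a y hy hB => ?_,
    fun a y hy hB s hs s' hs' => ?_, fun a a' hne' y hy hB s hs => ?_,
    fun a a' hne' y hy hB hB' s hs => ?_, fun a a' hne' y hy hB hB' s hs => ?_,
    fun a a' hne' y hy hB hB' s hs t ht => ?_⟩
  · -- nB
    obtain ⟨q0, e0, h0, hs0, ht, hp⟩ := ek_spec F hQ hne hm hκ c hy
    show a ∈ fr (mn c (sl C κ y))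
    rw [e0]
    by_contra ha
    apply hn
    have h1 := Gx.eq_of_mem ha (co_mem F hQ hm ht)
    show co P b m (st C κ y) a ∈ Zs
    rw [h1]
    exact ⟨(q0.hi a : ℤ), by rfl⟩
  · -- ab
    obtain ⟨q0, e0, h0, hs0, ht, hp⟩ := ek_spec F hQ hne hm hκ c hy
    have hB' : a ∈ fr (mn c (sl C κ y)) := hB
    have e1 : ((ek C b κ c).lev a y) = q0.lo a := by
      show ((lo (mn c (sl C κ y)) a : ℕ) : ℝ) = _
      rw [e0]; rfl
    rw [e0] at hB'
    have h1 := co_mem F hQ hm ht a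
    have h2 : (q0.hi a : ℝ) = q0.lo a + 1 := by exact_mod_cast Gx.hi_eq hB'
    rw [e1]
    show co P b m (st C κ y) a - q0.lo a - 1/2 ∈ I2
    constructor <;> linarith [h1.1, h1.2]
  · -- pt
    by_cases ha : a ∈ q.free
    swap
    · have : C.cell (.gr q) ∩ (ek C b κ c).B a = ∅ := by
        rw [Set.eq_empty_iff_forall_notMem]
        rintro y ⟨hy, hB⟩
        exact ha (ek_lev F hQ hne hm hκ c hy hB).1
      rw [this, empty_prod]
      exact plOn_empty _
    have plbs : PLOn (fun y => bs C.b (sl C κ y)) (C.cell (.gr q)) := by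
      have h1 : PLOn (fun y => ∑ ρ ∈ C.dn (.gr q), sl C κ y ρ • C.b ρ) (C.cell (.gr q)) :=
        pl_sum _ (fun ρ _ => pl_clm (plOn_sl C hκ (.gr q) ρ)
          ((ContinuousLinearMap.id ℝ ℝ).smulRight (C.b ρ)))
      refine h1.congr (fun y hy => ?_)
      exact bs_eq_of (fun ρ hρ => C.mem_dn.2 ((st_spec C hκ hy).2.2 ρ hρ))
    have m1 : MapsTo Prod.fst ((C.cell (.gr q) ∩ (ek C b κ c).B a) ×ˢ I2) (C.cell (.gr q)) :=
      fun p hp => hp.1.1
    have plb : PLOn (fun p : E × ℝ => bs C.b (sl C κ p.1))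
        ((C.cell (.gr q) ∩ (ek C b κ c).B a) ×ˢ I2) :=
      plbs.comp (pl_fst (plOn_id _)) m1
    have plT : PLOn (fun p : E × ℝ => Tq b m (Function.update (co P b m (st C κ p.1)) a
        (q.lo a + 1/2 + p.2))) ((C.cell (.gr q) ∩ (ek C b κ c).B a) ×ˢ I2) := by
      refine plOn_Tq F hQ hm q ?_ ?_
      · rintro ⟨y, s⟩ ⟨⟨hy, hB⟩, hs⟩
        exact mem_upd (co_mem F hQ hm (hstm y hy)) ha hs
      · intro d hd
        by_cases hda : d = a
        · subst hda
          refine (pl_add_const (pl_snd (plOn_id _)) ((q.lo d : ℝ) + 1/2)).congr fun p _ => ?_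
          simp only [Function.update_self]
          ring
        · refine ((hG d).comp (pl_fst (plOn_id _)) m1).congr fun p _ => ?_
          simp only [Function.update_of_ne hda]
          rfl
    refine (pl_add (pl_smul (1 - κ) plT) (pl_smul κ plb)).congr ?_
    rintro ⟨y, s⟩ ⟨⟨hy, hB⟩, hs⟩
    show pk C κ (sl C κ y) (Tq b m (Function.update (co P b m (st C κ y)) a
      (lo (mn c (sl C κ y)) a + 1/2 + s))) = _
    rw [(ek_lev F hQ hne hm hκ c hy hB).2]
    rfl
  · exact (tr_spec F hQ hne hm hκ c hy hB hs).1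
  · show a ∈ fr (mn c (sl C κ ((ek C b κ c).tr a (y, s))))
    rw [(tr_spec F hQ hne hm hκ c hy hB hs).2.1]; exact hB
  · show ((lo (mn c (sl C κ ((ek C b κ c).tr a (y, s)))) a : ℕ) : ℝ) = _
    rw [(tr_spec F hQ hne hm hκ c hy hB hs).2.1]; rfl
  · show co P b m (st C κ ((ek C b κ c).tr a (y, s))) a = _
    rw [(tr_spec F hQ hne hm hκ c hy hB hs).2.2.1, Function.update_self]; rfl
  · -- ts
    obtain ⟨h1, h2, h3⟩ := st_spec C hκ hy
    show pk C κ (sl C κ y) (Tq b m (Function.update (co P b m (st C κ y)) a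
      (lo (mn c (sl C κ y)) a + 1/2 + (co P b m (st C κ y) a - lo (mn c (sl C κ y)) a - 1/2)))) = y
    rw [show ((lo (mn c (sl C κ y)) a : ℝ) + 1/2 + (co P b m (st C κ y) a -
      lo (mn c (sl C κ y)) a - 1/2)) = co P b m (st C κ y) a by ring, Function.update_eq_self,
      Tq_co_of_mem F hQ hm (hstm y hy), h2]
  · -- tt
    have h1 := tr_spec F hQ hne hm hκ c hy hB hs
    show pk C κ (sl C κ ((ek C b κ c).tr a (y, s))) (Tq b m (Function.update
      (co P b m (st C κ ((ek C b κ c).tr a (y, s)))) a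
      (lo (mn c (sl C κ ((ek C b κ c).tr a (y, s)))) a + 1/2 + s'))) = _
    rw [h1.2.1, h1.2.2.1, Function.update_idem]
    rfl
  · show co P b m (st C κ ((ek C b κ c).tr a (y, s))) a' = _
    rw [(tr_spec F hQ hne hm hκ c hy hB hs).2.2.1, Function.update_of_ne (Ne.symm hne')]; rfl
  · show a' ∈ fr (mn c (sl C κ ((ek C b κ c).tr a (y, s))))
    rw [(tr_spec F hQ hne hm hκ c hy hB hs).2.1]; exact hB'
  · show ((lo (mn c (sl C κ ((ek C b κ c).tr a (y, s)))) a' : ℕ) : ℝ) = _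
    rw [(tr_spec F hQ hne hm hκ c hy hB hs).2.1]; rfl
  · have h1 := tr_spec F hQ hne hm hκ c hy hB hs
    have h2 := tr_spec F hQ hne hm hκ c hy hB' ht
    show pk C κ (sl C κ ((ek C b κ c).tr a' (y, t))) (Tq b m (Function.update
      (co P b m (st C κ ((ek C b κ c).tr a' (y, t)))) a
      (lo (mn c (sl C κ ((ek C b κ c).tr a' (y, t)))) a + 1/2 + s))) =
      pk C κ (sl C κ ((ek C b κ c).tr a (y, s))) (Tq b m (Function.update
      (co P b m (st C κ ((ek C b κ c).tr a (y, s)))) a'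
      (lo (mn c (sl C κ ((ek C b κ c).tr a (y, s)))) a' + 1/2 + t)))
    rw [h1.2.1, h1.2.2.1, h2.2.1, h2.2.2.1, Function.update_comm hne']

end foam

end Crest.Agent.R096.Bin_181
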