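import Crest.Agent.R096.Bin2_181
import Crest.Agent.R096.Bd19_416

/-!
# R096 (row 96), BASE-INV, part 3 (helper181): `Bd_416.Inv` for the exact structure `E_κ`

`bxS P b m L H` = points of the 2-skeleton with level coordinates in the box `[L, H]` (an M-cell);
`ek_is_bxS`: `E_κ` is a band structure on it.  `ekS` = the sheets `(a,k)` of `E_κ` pulled back by a
PL equivalence.  `inv_base`: `Inv`.
-/

set_option autoImplicit false
set_option linter.unusedSectionVars false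

open Set Metric

namespace Crest.Agent.R096.Bin_181

open Crest.Agent.R096.Ce_537 Crest.Agent.R096.Bd_416 Crest.Agent.R096.Xp_537
open Crest.Agent.R096.Brk1_582 Crest.Agent.R096.Brk2_582 Crest.Agent.R096.Brk6_582
open Crest.Agent.R096.Grd_714

variable {E : Type*} [NormedAddCommGroup E] [NormedSpace ℝ E] {I : Type*}
variable {b : Set I → E} {P : I → Set E} {m : I → ℕ}

/-- the points of the 2-skeleton with level coordinates in the box `[L, H]` -/
def bxS (P : I → Set E) (b : Set I → E) (m : I → ℕ) (L H : I → ℕ) : Set E :=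
  Tq b m '' {g | g ∈ G2 P m ∧ ∀ c, (L c : ℝ) ≤ g c ∧ g c ≤ H c}

/-- the grid cells in the box -/
def cells (P : I → Set E) (m : I → ℕ) (L H : I → ℕ) : Set (Gx P m) :=
  {q | ∀ c, L c ≤ q.lo c ∧ q.hi c ≤ H c}

section foam

variable {La : Set E} [CompleteSpace E] (F : Foam La P b 4) (hQ : Quads P b)
  (hne : ∀ c, (P c).Nonempty) (hm : ∀ c, 0 < m c)

omit [CompleteSpace E] in
include hm in
lemma bxS_eq (L H : I → ℕ) : bxS P b m L H = ⋃ q ∈ cells P m L H, Tq b m '' q.bx := by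
  apply Subset.antisymm
  · rintro _ ⟨g, ⟨hg, hb⟩, rfl⟩
    refine mem_iUnion₂.2 ⟨flb hm g hg, fun c => ⟨?_, ?_⟩, g, mem_flb hm hg, rfl⟩
    · exact Nat.le_floor (hb c).1
    · exact Nat.ceil_le.2 (hb c).2
  · rintro y hy
    obtain ⟨q, hq, g, hg, rfl⟩ := mem_iUnion₂.1 hy
    refine ⟨g, ⟨q.bx_sub hm hg, fun c => ?_⟩, rfl⟩
    exact ⟨le_trans (by exact_mod_cast (hq c).1) (hg c).1,
      le_trans (hg c).2 (by exact_mod_cast (hq c).2)⟩

include F hm in
lemma cells_finite {L H : I → ℕ} {c0 : I} (h0 : H c0 = 0) : (cells P m L H).Finite := by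
  refine (finite_Gx_of_mem F hm (finite_singleton c0)).subset fun q hq => ⟨c0, rfl, ?_⟩
  have := (hq c0).2
  omega

include hQ in
lemma mem_bxS {L H : I → ℕ} {y : E} (hy : y ∈ bxS P b m L H) :
    ∃ q ∈ cells P m L H, y ∈ (grid F hQ hne hm).cell (.gr q) := by
  rw [bxS_eq hm] at hy
  obtain ⟨q, hq, h⟩ := mem_iUnion₂.1 hy
  exact ⟨q, hq, h⟩

variable {κ : ℝ} (hκ : 0 < κ ∧ κ < 1) (c : Cel P m)

include hκ in
/-- **`E_κ` on an M-cell** -/
theorem ek_is_bxS [FiniteDimensional ℝ E] {L H : I → ℕ} {c0 : I} (h0 : H c0 = 0) :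
    (ek (grid F hQ hne hm) b κ c).Is (bxS P b m L H) := by
  rw [bxS_eq hm]
  exact Gd.Is.biUnion (cells_finite F hm h0) (fun q _ => ek_is F hQ hne hm hκ c q)
    (fun q _ => ((grid F hQ hne hm).cpt (.gr q)).isClosed)

include hκ in
lemma ek_G_mem {L H : I → ℕ} {y : E} (hy : y ∈ bxS P b m L H) (a : I) :
    (L a : ℝ) ≤ (ek (grid F hQ hne hm) b κ c).G a y ∧
      (ek (grid F hQ hne hm) b κ c).G a y ≤ H a := by
  obtain ⟨q, hq, hy⟩ := mem_bxS F hQ hne hm hy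
  have h1 : st (grid F hQ hne hm) κ y ∈ Tq b m '' q.bx := st_mem (grid F hQ hne hm) hκ hy
  have h2 := co_mem F hQ hm h1 a
  exact ⟨le_trans (by exact_mod_cast (hq a).1) h2.1, le_trans h2.2 (by exact_mod_cast (hq a).2)⟩

include hκ in
lemma ek_lev_mem {L H : I → ℕ} {y : E} (hy : y ∈ bxS P b m L H) {a : I}
    (hB : y ∈ (ek (grid F hQ hne hm) b κ c).B a) {k : ℕ}
    (hk : (ek (grid F hQ hne hm) b κ c).lev a y = k) : L a ≤ k ∧ k < H a := by
  obtain ⟨q, hq, hy⟩ := mem_bxS F hQ hne hm hy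
  obtain ⟨h1, h2⟩ := ek_lev F hQ hne hm hκ c hy hB
  have h3 : ((lo (mn c (sl (grid F hQ hne hm) κ y)) a : ℕ) : ℝ) = k := hk
  rw [h2] at h3
  have h4 : q.lo a = k := by exact_mod_cast h3
  have h5 := hq a
  have h6 : q.lo a < q.hi a := h1
  omega

end foam

/-! ### sheets -/

section sheets

variable {V : Type*} [NormedAddCommGroup V] [NormedSpace ℝ V] {J : Type*}

/-- the restriction of a PL equivalence -/
def restr {S : Set V} {T : Set E} (e : PLEquiv S T) {A : Set V} {B : Set E} (hA : A ⊆ S)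
    (hB : e.f '' A = B) : PLEquiv A B where
  f := e.f
  g := e.g
  pf := e.pf.mono hA
  pg := e.pg.mono (by
    rintro _ h
    rw [← hB] at h
    obtain ⟨x, hx, rfl⟩ := h
    exact e.mf (hA hx))
  mf := fun x hx => by rw [← hB]; exact ⟨x, hx, rfl⟩
  mg := fun y hy => by
    rw [← hB] at hy
    obtain ⟨x, hx, rfl⟩ := hy
    rw [e.li x (hA hx)]; exact hx
  li := fun x hx => e.li x (hA hx)
  ri := fun y hy => by
    rw [← hB] at hy
    obtain ⟨x, hx, rfl⟩ := hy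
    exact e.ri _ (e.mf (hA hx))

/-- **the sheets `(fa j, lv j)` of `E_κ`, pulled back by `e`** -/
noncomputable def ekS {La : Set E} (C : CC La (Cel P m)) (b : Set I → E) (κ : ℝ) (c : Cel P m)
    (fa : J → I) (lv : J → ℕ) {S : Set V} {T : Set E} (e : PLEquiv S T) : Gd V J :=
  pulg (spl (ek C b κ c) fa fun j => (lv j : ℤ)) e.f e.g

variable {La : Set E} [CompleteSpace E] (F : Foam La P b 4) (hQ : Quads P b)
  (hne : ∀ c, (P c).Nonempty) (hm : ∀ c, 0 < m c)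
variable {κ : ℝ} (hκ : 0 < κ ∧ κ < 1) (c : Cel P m) {fa : J → I} {lv : J → ℕ} {S : Set V}
  {T : Set E} (e : PLEquiv S T)

include hκ in
/-- **`Is` for the sheets on an M-cell** -/
theorem ekS_is [FiniteDimensional ℝ E] (hinj : ∀ j j', fa j = fa j' → lv j = lv j' → j = j')
    {A : Set V} (hA : A ⊆ S) (hAc : IsClosed A) {L H : I → ℕ} (hB : e.f '' A = bxS P b m L H)
    {c0 : I} (h0 : H c0 = 0) : (ekS (grid F hQ hne hm) b κ c fa lv e).Is A := by
  have h1 := is_spl (ek_is_bxS F hQ hne hm hκ c (L := L) h0) (fa := fa)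
    (lv := fun j => (lv j : ℤ)) (fun j j' h h' => hinj j j' h (by exact_mod_cast h'))
  exact is_pulg h1 hAc (restr e hA hB)

lemma ekS_G01 (j : J) (z : V) : (ekS (grid F hQ hne hm) b κ c fa lv e).G j z ∈ Icc (0:ℝ) 1 :=
  spl_G01 (g := ek (grid F hQ hne hm) b κ c) (fa := fa) (lv := fun j => (lv j : ℤ)) j (e.f z)

lemma ekS_G (j : J) (z : V) : (ekS (grid F hQ hne hm) b κ c fa lv e).G j z =
    1/2 + cl ((ek (grid F hQ hne hm) b κ c).G (fa j) (e.f z) - lv j - 1/2) := by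
  show 1/2 + cl (_ - ((lv j : ℤ) : ℝ) - 1/2) = _
  push_cast; rfl

lemma ekS_B (j : J) (z : V) : z ∈ (ekS (grid F hQ hne hm) b κ c fa lv e).B j ↔
    e.f z ∈ (ek (grid F hQ hne hm) b κ c).B (fa j) ∧
      (ek (grid F hQ hne hm) b κ c).lev (fa j) (e.f z) = lv j := by
  show _ ∧ _ = ((lv j : ℤ) : ℝ) ↔ _
  push_cast; rfl

include hκ in
lemma ekS_low {A : Set V} {L H : I → ℕ} (hB : e.f '' A = bxS P b m L H) {j : J}
    (h : lv j < L (fa j)) {z : V} (hz : z ∈ A) :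
    (ekS (grid F hQ hne hm) b κ c fa lv e).G j z = 1 := by
  have h1 : e.f z ∈ bxS P b m L H := by rw [← hB]; exact ⟨z, hz, rfl⟩
  have h2 := (ek_G_mem F hQ hne hm hκ c h1 (fa j)).1
  have h3 : (lv j : ℝ) + 1 ≤ L (fa j) := by exact_mod_cast h
  rw [ekS_G, cl_of_ge (by linarith)]; norm_num

include hκ in
lemma ekS_high {A : Set V} {L H : I → ℕ} (hB : e.f '' A = bxS P b m L H) {j : J}
    (h : H (fa j) ≤ lv j) {z : V} (hz : z ∈ A) :
    (ekS (grid F hQ hne hm) b κ c fa lv e).G j z = 0 := by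
  have h1 : e.f z ∈ bxS P b m L H := by rw [← hB]; exact ⟨z, hz, rfl⟩
  have h2 := (ek_G_mem F hQ hne hm hκ c h1 (fa j)).2
  have h3 : (H (fa j) : ℝ) ≤ lv j := by exact_mod_cast h
  rw [ekS_G, cl_of_le (by linarith)]; norm_num

include hκ in
lemma ekS_mem {A : Set V} {L H : I → ℕ} (hB : e.f '' A = bxS P b m L H) {j : J} {z : V}
    (hz : z ∈ A) (hj : z ∈ (ekS (grid F hQ hne hm) b κ c fa lv e).B j) :
    L (fa j) ≤ lv j ∧ lv j < H (fa j) := by
  have h1 : e.f z ∈ bxS P b m L H := by rw [← hB]; exact ⟨z, hz, rfl⟩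
  rw [ekS_B] at hj
  exact ek_lev_mem F hQ hne hm hκ c h1 hj.1 hj.2

include hκ in
/-- the other sheets of the same direction on a band -/
lemma ekS_other {A : Set V} {L H : I → ℕ} (hB : e.f '' A = bxS P b m L H) {j j' : J}
    (hf : fa j = fa j') (hl : lv j ≠ lv j') {z : V} (hz : z ∈ A)
    (hj : z ∈ (ekS (grid F hQ hne hm) b κ c fa lv e).B j) :
    (ekS (grid F hQ hne hm) b κ c fa lv e).G j' z = if lv j' < lv j then 1 else 0 := by
  have h1 : e.f z ∈ bxS P b m L H := by rw [← hB]; exact ⟨z, hz, rfl⟩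
  rw [ekS_B] at hj
  obtain ⟨q, hq, hy⟩ := mem_bxS F hQ hne hm h1
  obtain ⟨q0, e0, h0, hs0, ht, hp⟩ := ek_spec F hQ hne hm hκ c hy
  have h2 : fa j ∈ q0.free := by
    have : fa j ∈ fr (mn c (sl (grid F hQ hne hm) κ (e.f z))) := hj.1
    rw [e0] at this; exact this
  have h3 : q0.lo (fa j) = lv j := by
    have : ((lo (mn c (sl (grid F hQ hne hm) κ (e.f z))) (fa j) : ℕ) : ℝ) = lv j := hj.2
    rw [e0] at this; exact_mod_cast this
  have h4 := co_mem F hQ hm ht (fa j)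
  have h5 : (q0.hi (fa j) : ℝ) = q0.lo (fa j) + 1 := by exact_mod_cast Gx.hi_eq h2
  rw [h5, h3] at h4
  rw [ekS_G, ← hf]
  show 1/2 + cl (co P b m (st (grid F hQ hne hm) κ (e.f z)) (fa j) - lv j' - 1/2) = _
  rcases lt_or_gt_of_ne hl with h | h
  · have h6 : (lv j : ℝ) + 1 ≤ lv j' := by exact_mod_cast h
    rw [if_neg (by omega), cl_of_le (by linarith [h4.2])]; norm_num
  · have h6 : (lv j' : ℝ) + 1 ≤ lv j := by exact_mod_cast h
    rw [if_pos h, cl_of_ge (by linarith [h4.1])]; norm_num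

end sheets

/-! ### `Inv` -/

section inv

variable {V : Type*} [NormedAddCommGroup V] [NormedSpace ℝ V] {Q : Type} [PartialOrder Q]
  {dim : Q → ℕ} {J Fam : Type} {Cm : Cmb Q dim J Fam} {K : Q → Set V} {D : Set Q}
variable {La : Set E} [CompleteSpace E] [FiniteDimensional ℝ E] (F : Foam La P b 4)
  (hQ : Quads P b) (hne : ∀ c, (P c).Nonempty) (hm : ∀ c, 0 < m c)
variable {κ : ℝ} (hκ : 0 < κ ∧ κ < 1) (c : Cel P m) (fa : J → I) (lv : J → ℕ) {S : Set V}
  {T : Set E} (e : PLEquiv S T)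

include hκ in
/-- **BASE-INV** -/
theorem inv_base (hinj : ∀ j j', fa j = fa j' → lv j = lv j' → j = j')
    (hD : ∀ q ∈ D, ∀ p < q, p ∈ D) (sub : ∀ {p q : Q}, p < q → q ∈ D → K p ⊆ K q)
    (hKc : ∀ q ∈ D, IsClosed (K q)) (hKS : ∀ q ∈ D, K q ⊆ S) (L H : Q → I → ℕ)
    (hKe : ∀ q ∈ D, e.f '' K q = bxS P b m (L q) (H q)) (h0 : ∀ q ∈ D, ∃ c0, H q c0 = 0)
    (one : ∀ q ∈ D, ∀ x x' : Cm.I q, Cm.col q x = Cm.col q x' → x = x')
    (ex : ∀ q ∈ D, ∀ j, L q (fa j) ≤ lv j → lv j < H q (fa j) → ∃ x, Cm.col q x = j)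
    (hfam : ∀ j j', Cm.fam j = Cm.fam j' → fa j = fa j')
    (lab1 : ∀ q ∈ D, ∀ j, (∀ x, Cm.col q x ≠ j) → lv j < L q (fa j) → Cm.Lab j q = 1)
    (lab0' : ∀ q ∈ D, ∀ j, (∀ x, Cm.col q x ≠ j) → H q (fa j) ≤ lv j → Cm.Lab j q = 0)
    (sd : ∀ q ∈ D, ∀ x x', x ≠ x' → Cm.fam (Cm.col q x) = Cm.fam (Cm.col q x') →
      Cm.side q x x' = Cm.Lab (Cm.col q x') q +
        if lv (Cm.col q x') < lv (Cm.col q x) then 1 else 0) :
    Inv Cm K D (ekS (grid F hQ hne hm) b κ c fa lv e)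
      (fun q x => K q ∩ (ekS (grid F hQ hne hm) b κ c fa lv e).B (Cm.col q x))
      (fun q x z => sg (Cm.Lab (Cm.col q x) q) *
        ((ekS (grid F hQ hne hm) b κ c fa lv e).G (Cm.col q x) z - 1/2)) := by
  refine Inv.of_simple hD (fun q hq => ?_) sub (fun q hq j z hz => ekS_G01 F hQ hne hm c e j z)
    one (fun q hq j hj z hz => ⟨?_, fun hB => ?_⟩) (fun q hq j j' hne' hf z hz hB hB' => ?_)
    (fun q hq x x' hne' hf z hz hB => ?_)
  · obtain ⟨c0, h0⟩ := h0 q hq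
    exact ekS_is F hQ hne hm hκ c e hinj (hKS q hq) (hKc q hq) (hKe q hq) h0
  · rcases lt_or_ge (lv j) (L q (fa j)) with h | h
    · rw [ekS_low F hQ hne hm hκ c e (hKe q hq) h hz, lab1 q hq j hj h, lab0_eq]; simp; norm_num
    · rcases lt_or_ge (lv j) (H q (fa j)) with h' | h'
      · obtain ⟨x, hx⟩ := ex q hq j h h'
        exact absurd hx (hj x)
      · rw [ekS_high F hQ hne hm hκ c e (hKe q hq) h' hz, lab0' q hq j hj h', lab0_eq]; simp
  · obtain ⟨h1, h2⟩ := ekS_mem F hQ hne hm hκ c e (hKe q hq) hz hB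
    obtain ⟨x, hx⟩ := ex q hq j h1 h2
    exact hj x hx
  · rw [ekS_B] at hB hB'
    have hfa := hfam j j' hf
    apply hne'
    refine hinj j j' hfa ?_
    have h1 := hB.2
    rw [hfa, hB'.2] at h1
    exact_mod_cast h1.symm
  · have hcol : Cm.col q x ≠ Cm.col q x' := fun h => hne' (one q hq x x' h)
    have hfa := hfam _ _ hf
    rw [ekS_other F hQ hne hm hκ c e (hKe q hq) hfa (fun h => hcol (hinj _ _ hfa h)) hz hB,
      sd q hq x x' hne' hf, sg_add, ← mul_assoc, sg_sq, one_mul]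
    split_ifs <;> (simp; try norm_num)

end inv

end Crest.Agent.R096.Bin_181
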