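import Crest.Agent.R096.Bin3_181

/-!
# R096 (row 96), BASE-INV, part 4 (helper181): the relabelling `R_c = T'' ∘ σ ∘ T⁻¹` of grids

`rc : PLEquiv (bxS P b m' L H) (bxS P b m (N ∘ L) (N ∘ H))` for gridnesses `m'` (the M-mesh) and `m`
(the final grid), `N a : ℕ → ℕ` strictly increasing, `N a 0 = 0`, `N a (m' a) = m a`; the map is
`y ↦ Tq b m (fun a => nu (N a) (m' a) (co P b m' y a))` for all boxes.
-/

set_option autoImplicit false
set_option linter.unusedSectionVars false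

open Set Metric

namespace Crest.Agent.R096.Bin_181

open Crest.Agent.R096.Ce_537 Crest.Agent.R096.Bd_416 Crest.Agent.R096.Xp_537
open Crest.Agent.R096.Brk1_582 Crest.Agent.R096.Brk2_582 Crest.Agent.R096.Brk6_582
open Crest.Agent.R096.Grd_714

/-! ### the piecewise linear functions -/

/-- clamp to `[0,1]` -/
noncomputable def c01 (t : ℝ) : ℝ := 1/2 + cl (t - 1/2)

lemma c01_of_le {t : ℝ} (h : t ≤ 0) : c01 t = 0 := by
  rw [c01, cl_of_le (by linarith)]; norm_num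

lemma c01_of_ge {t : ℝ} (h : 1 ≤ t) : c01 t = 1 := by
  rw [c01, cl_of_ge (by linarith)]; norm_num

lemma c01_of_mem {t : ℝ} (h0 : 0 ≤ t) (h1 : t ≤ 1) : c01 t = t := by
  rw [c01, cl_of_mem ⟨by linarith, by linarith⟩]; ring

lemma c01_mono {s t : ℝ} (h : s ≤ t) : c01 s ≤ c01 t := by
  have := cl_mono (show s - 1/2 ≤ t - 1/2 by linarith)
  unfold c01; linarith

lemma pl_c01 {V : Type*} [NormedAddCommGroup V] [NormedSpace ℝ V] {f : V → ℝ} {K : Set V}
    (h : PLOn f K) : PLOn (fun x => c01 (f x)) K :=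
  (pl_add_const (pl_cl (pl_sub_const h (1/2))) (1/2)).congr fun x _ => by
    simp only [c01]; ring

/-- the increasing PL function with `nu N M i = N i` -/
noncomputable def nu (N : ℕ → ℕ) (M : ℕ) (x : ℝ) : ℝ :=
  ∑ i ∈ Finset.range M, ((N (i+1) : ℝ) - N i) * c01 (x - i)

/-- its inverse -/
noncomputable def ni (N : ℕ → ℕ) (M : ℕ) (y : ℝ) : ℝ :=
  ∑ i ∈ Finset.range M, c01 ((y - N i) / ((N (i+1) : ℝ) - N i))

section nu

variable {N : ℕ → ℕ} (hN : StrictMono N) (h0 : N 0 = 0) {M : ℕ}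
include hN

lemma N_pos (i : ℕ) : (0:ℝ) < (N (i+1) : ℝ) - N i := by
  have : (N i : ℝ) < N (i+1) := by exact_mod_cast hN (Nat.lt_succ_self i)
  linarith

lemma N_le {i j : ℕ} (h : i ≤ j) : (N i : ℝ) ≤ N j := by exact_mod_cast hN.monotone h

lemma nu_mono : Monotone (nu N M) := by
  intro x y h
  refine Finset.sum_le_sum fun i _ => ?_
  exact mul_le_mul_of_nonneg_left (c01_mono (by linarith)) (N_pos hN i).le

lemma ni_mono : Monotone (ni N M) := by
  intro x y h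
  refine Finset.sum_le_sum fun i _ => c01_mono ?_
  exact div_le_div_of_nonneg_right (by linarith) (N_pos hN i).le

include h0 in
lemma nu_ge (k : ℕ) {x : ℝ} (h : (k:ℝ) ≤ x) : nu N k x = N k := by
  induction k with
  | zero => simp [nu, h0]
  | succ k ih =>
    push_cast at h
    have e : nu N (k+1) x = nu N k x + ((N (k+1) : ℝ) - N k) * c01 (x - k) :=
      Finset.sum_range_succ _ _
    rw [e, ih (by linarith), c01_of_ge (by linarith)]; ring

lemma nu_le {k : ℕ} (hk : k ≤ M) {x : ℝ} (h : x ≤ k) : nu N M x = nu N k x := by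
  induction M, hk using Nat.le_induction with
  | base => rfl
  | succ n hn ih =>
    have h1 : (k:ℝ) ≤ n := by exact_mod_cast hn
    have e : nu N (n+1) x = nu N n x + ((N (n+1) : ℝ) - N n) * c01 (x - n) :=
      Finset.sum_range_succ _ _
    rw [e, ih, c01_of_le (by linarith)]; ring

include h0 in
lemma ni_ge (k : ℕ) {y : ℝ} (h : (N k:ℝ) ≤ y) : ni N k y = k := by
  induction k with
  | zero => simp [ni]
  | succ k ih =>
    have h1 := N_le hN (Nat.le_succ k)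
    have h2 := N_pos hN k
    have e : ni N (k+1) y = ni N k y + c01 ((y - N k) / ((N (k+1) : ℝ) - N k)) :=
      Finset.sum_range_succ _ _
    rw [e, ih (h1.trans h), c01_of_ge ((one_le_div h2).2 (by linarith))]; push_cast; ring

lemma ni_le {k : ℕ} (hk : k ≤ M) {y : ℝ} (h : y ≤ N k) : ni N M y = ni N k y := by
  induction M, hk using Nat.le_induction with
  | base => rfl
  | succ n hn ih =>
    have h1 := N_le hN hn
    have h2 := N_pos hN n
    have e : ni N (n+1) y = ni N n y + c01 ((y - N n) / ((N (n+1) : ℝ) - N n)) :=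
      Finset.sum_range_succ _ _
    rw [e, ih, c01_of_le (div_nonpos_of_nonpos_of_nonneg (by linarith) h2.le)]; ring

include h0

lemma nu_eq {i : ℕ} (hi : i < M) {x : ℝ} (h1 : (i:ℝ) ≤ x) (h2 : x ≤ i + 1) :
    nu N M x = N i + ((N (i+1) : ℝ) - N i) * (x - i) := by
  rw [nu_le hN (k := i+1) hi (by push_cast; exact h2)]
  have e : nu N (i+1) x = nu N i x + ((N (i+1) : ℝ) - N i) * c01 (x - i) :=
    Finset.sum_range_succ _ _
  rw [e, nu_ge hN h0 i h1, c01_of_mem (by linarith) (by linarith)]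

lemma ni_eq {i : ℕ} (hi : i < M) {y : ℝ} (h1 : (N i:ℝ) ≤ y) (h2 : y ≤ N (i+1)) :
    ni N M y = i + (y - N i) / ((N (i+1) : ℝ) - N i) := by
  have h3 := N_pos hN i
  rw [ni_le hN (k := i+1) hi h2]
  have e : ni N (i+1) y = ni N i y + c01 ((y - N i) / ((N (i+1) : ℝ) - N i)) :=
    Finset.sum_range_succ _ _
  rw [e, ni_ge hN h0 i h1, c01_of_mem (div_nonneg (by linarith) h3.le)
    ((div_le_one h3).2 (by linarith))]

lemma nu_nat {i : ℕ} (hi : i ≤ M) : nu N M i = N i := by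
  rw [nu_le hN hi le_rfl, nu_ge hN h0 i le_rfl]

lemma ni_nat {i : ℕ} (hi : i ≤ M) : ni N M (N i) = i := by
  rw [ni_le hN hi le_rfl, ni_ge hN h0 i le_rfl]

lemma exists_int {y : ℝ} (hy0 : 0 ≤ y) (hM : 0 < M) (hy : y ≤ N M) :
    ∃ i < M, (N i : ℝ) ≤ y ∧ y ≤ N (i+1) := by
  induction M with
  | zero => exact absurd hM (lt_irrefl _)
  | succ n ih =>
    by_cases h : y ≤ N n
    · rcases Nat.eq_zero_or_pos n with rfl | hn
      · exact ⟨0, hM, by rw [h0]; simpa using hy0, hy⟩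
      · obtain ⟨i, hi, h1⟩ := ih hn h
        exact ⟨i, by omega, h1⟩
    · exact ⟨n, Nat.lt_succ_self n, (not_le.1 h).le, hy⟩

lemma ni_nu (hM : 0 < M) {x : ℝ} (hx : x ∈ Icc (0:ℝ) M) : ni N M (nu N M x) = x := by
  obtain ⟨i, hi, h1, h2⟩ := exists_int (N := id) strictMono_id rfl hx.1 hM hx.2
  simp only [id] at h1 h2
  push_cast at h2
  have h3 := N_pos hN i
  have h4 := nu_eq hN h0 hi h1 h2
  have h5 : 0 ≤ ((N (i+1) : ℝ) - N i) * (x - i) := mul_nonneg h3.le (by linarith)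
  have h6 : ((N (i+1) : ℝ) - N i) * (x - i) ≤ (N (i+1) : ℝ) - N i :=
    mul_le_of_le_one_right h3.le (by linarith)
  rw [ni_eq hN h0 hi (by rw [h4]; linarith) (by rw [h4]; linarith), h4]
  field_simp
  ring

lemma nu_ni (hM : 0 < M) {y : ℝ} (hy : y ∈ Icc (0:ℝ) (N M)) : nu N M (ni N M y) = y := by
  obtain ⟨i, hi, h1, h2⟩ := exists_int hN h0 hy.1 hM hy.2
  have h3 := N_pos hN i
  have h4 := ni_eq hN h0 hi h1 h2
  have h5 : 0 ≤ (y - N i) / ((N (i+1) : ℝ) - N i) := div_nonneg (by linarith) h3.le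
  have h6 : (y - N i) / ((N (i+1) : ℝ) - N i) ≤ 1 := (div_le_one h3).2 (by linarith)
  rw [nu_eq hN h0 hi (by rw [h4]; linarith) (by rw [h4]; linarith), h4]
  field_simp
  ring

end nu

lemma pl_nu (N : ℕ → ℕ) (M : ℕ) (K : Set ℝ) : PLOn (nu N M) K :=
  pl_sum _ fun i _ => pl_mul _ (pl_c01 (pl_sub_const (plOn_id _) (i:ℝ)))

lemma pl_ni (N : ℕ → ℕ) (M : ℕ) (K : Set ℝ) : PLOn (ni N M) K :=
  pl_sum _ fun i _ => pl_c01 (pl_div (pl_sub_const (plOn_id _) (N i:ℝ)) _)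

/-! ### relabelling -/

variable {E : Type*} [NormedAddCommGroup E] [NormedSpace ℝ E] {I : Type*}
variable {b : Set I → E} {P : I → Set E} {m m' : I → ℕ}

/-- relabelling functions -/
structure Nu (ν : I → ℝ → ℝ) (m' m : I → ℕ) : Prop where
  pl : ∀ a, PLOn (ν a) (Icc (0:ℝ) (m' a))
  mem : ∀ a, ∀ x ∈ Icc (0:ℝ) (m' a), ν a x ∈ Icc (0:ℝ) (m a)
  zero : ∀ a, ν a 0 = 0
  lt : ∀ a, ∀ x ∈ Icc (0:ℝ) (m' a), ν a x < m a → x < m' a

lemma G2_mem {g : I → ℝ} (hm : ∀ c, 0 < m c) (hg : g ∈ G2 P m) (a : I) :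
    g a ∈ Icc (0:ℝ) (m a) := ⟨G2_nonneg hm hg a, G2_le hm hg a⟩

lemma G2_nu {ν : I → ℝ → ℝ} (h : Nu ν m' m) (hm' : ∀ c, 0 < m' c) (hm : ∀ c, 0 < m c)
    {g : I → ℝ} (hg : g ∈ G2 P m') : (fun a => ν a (g a)) ∈ G2 P m := by
  have hm1 : ∀ a, ν a (g a) ∈ Icc (0:ℝ) (m a) := fun a => h.mem a _ (G2_mem hm' hg a)
  obtain ⟨⟨h1, h2, y, hy⟩, c, c', hne, hc, hc'⟩ := hg
  have hz : ∀ c, lv m' g c = 0 → lv m (fun a => ν a (g a)) c = 0 := by
    intro c hc
    rw [lv_eq_zero hm'] at hc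
    rw [lv_eq_zero hm]
    show ν c (g c) = 0
    rw [hc, h.zero]
  refine ⟨⟨fun a => ?_, ?_, y, ?_⟩, c, c', hne, hz c hc, hz c' hc'⟩
  · exact ⟨(lv_nonneg hm).2 (hm1 a).1, (lv_le_one hm).2 (hm1 a).2⟩
  · obtain ⟨d, hd⟩ := h2
    exact ⟨d, hz d hd⟩
  · simp only [fc, mem_iInter] at hy ⊢
    intro d hd
    refine hy d ?_
    have hd' : lv m (fun a => ν a (g a)) d < 1 := hd
    rw [lv_lt_one hm] at hd'
    show lv m' g d < 1
    rw [lv_lt_one hm']
    exact h.lt d _ ⟨(lv_nonneg hm').1 (h1 d).1, (lv_le_one hm').1 (h1 d).2⟩ hd'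

section foam

variable {La : Set E} [CompleteSpace E] (F : Foam La P b 4) (hQ : Quads P b)
  (hm' : ∀ c, 0 < m' c) (hm : ∀ c, 0 < m c)
include F hQ hm' hm

/-- **the relabelling is PL on the boxes** -/
theorem plOn_rc {ν : I → ℝ → ℝ} (h : Nu ν m' m) {L H : I → ℕ} {c0 : I} (h0 : H c0 = 0) :
    PLOn (fun y => Tq b m (fun a => ν a (co P b m' y a))) (bxS P b m' L H) := by
  classical
  have hfin' : {q : Gx P m' | ∃ c ∈ ({c0} : Set I), q.hi c = 0}.Finite :=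
    finite_Gx_of_mem F hm' (finite_singleton c0)
  have hfin : {q : Gx P m | ∃ c ∈ ({c0} : Set I), q.hi c = 0}.Finite :=
    finite_Gx_of_mem F hm (finite_singleton c0)
  have hcpt : ∀ q' : Gx P m', IsClosed (Tq b m' '' q'.bx) := fun q' =>
    (cell_spec F hQ hm' q').2.2.1.cpt.isClosed
  have hco : ∀ (q' : Gx P m') (a : I),
      PLOn (fun y => ν a (co P b m' y a)) (Tq b m' '' q'.bx) := fun q' a =>
    (h.pl a).comp (plOn_co F hQ hm' q' a) (fun y hy => by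
      have h1 := co_mem F hQ hm' hy
      exact G2_mem hm' (q'.bx_sub hm' h1) a)
  set Ks : Gx P m' × Gx P m → Set E := fun q => ⋂ a : I,
    (Tq b m' '' q.1.bx) ∩ (fun y => ν a (co P b m' y a)) ⁻¹' (Icc (q.2.lo a : ℝ) (q.2.hi a))
    with hKs
  refine plOn_cover (Ks := Ks) (hfin'.prod hfin) (fun q => ?_) ?_ (fun q => ?_)
  · refine isClosed_iInter fun a => ?_
    exact (hco q.1 a).1.preimage_isClosed_of_isClosed (hcpt q.1) isClosed_Icc
  · rintro _ ⟨g, ⟨hg, hb⟩, rfl⟩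
    have hg' := G2_nu h hm' hm hg
    have hg0 : g c0 = 0 := le_antisymm (by have := (hb c0).2; rw [h0] at this; simpa using this)
      (G2_nonneg hm' hg c0)
    refine ⟨(flb hm' g hg, flb hm _ hg'), ⟨⟨c0, rfl, ?_⟩, ⟨c0, rfl, ?_⟩⟩, ?_⟩
    · show ⌈g c0⌉₊ = 0
      rw [hg0, Nat.ceil_zero]
    · show ⌈ν c0 (g c0)⌉₊ = 0
      rw [hg0, h.zero, Nat.ceil_zero]
    · rw [hKs]
      refine mem_iInter.2 fun a => ⟨⟨g, mem_flb hm' hg, rfl⟩, ?_⟩
      show ν a (co P b m' (Tq b m' g) a) ∈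
        Icc (((flb hm _ hg').lo a : ℕ) : ℝ) ((flb hm _ hg').hi a : ℕ)
      rw [co_Tq F hQ hm' hg]
      exact mem_flb hm hg' a
  · have hne : Nonempty I := ⟨c0⟩
    have hsub : bxS P b m' L H ∩ Ks q ⊆ Tq b m' '' q.1.bx := fun y hy =>
      (mem_iInter.1 hy.2 c0).1
    refine plOn_Tq F hQ hm q.2 (fun y hy a => (mem_iInter.1 hy.2 a).2) fun a _ => ?_
    exact (hco q.1 a).mono hsub

omit hm in
/-- the box in level coordinates -/
lemma co_bxS {L H : I → ℕ} {y : E} (hy : y ∈ bxS P b m' L H) :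
    co P b m' y ∈ G2 P m' ∧ (∀ c, (L c : ℝ) ≤ co P b m' y c ∧ co P b m' y c ≤ H c) ∧
      Tq b m' (co P b m' y) = y := by
  obtain ⟨g, ⟨hg, hb⟩, rfl⟩ := hy
  rw [co_Tq F hQ hm' hg]
  exact ⟨hg, hb, rfl⟩

/-- **relabelling of a box** -/
noncomputable def rcE {ν ν' : I → ℝ → ℝ} (h : Nu ν m' m) (h' : Nu ν' m m')
    (hl : ∀ a, ∀ x ∈ Icc (0:ℝ) (m' a), ν' a (ν a x) = x)
    (hr : ∀ a, ∀ y ∈ Icc (0:ℝ) (m a), ν a (ν' a y) = y) {L H L' H' : I → ℕ} {c0 : I}
    (h0 : H c0 = 0) (h0' : H' c0 = 0)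
    (hb : ∀ a, ∀ x ∈ Icc (0:ℝ) (m' a), (L a : ℝ) ≤ x → x ≤ H a → ν a x ∈ Icc (L' a : ℝ) (H' a))
    (hb' : ∀ a, ∀ y ∈ Icc (0:ℝ) (m a), (L' a : ℝ) ≤ y → y ≤ H' a →
      ν' a y ∈ Icc (L a : ℝ) (H a)) :
    PLEquiv (bxS P b m' L H) (bxS P b m L' H') where
  f := fun y => Tq b m (fun a => ν a (co P b m' y a))
  g := fun y => Tq b m' (fun a => ν' a (co P b m y a))
  pf := plOn_rc F hQ hm' hm h h0
  pg := plOn_rc F hQ hm hm' h' h0'
  mf := by
    intro y hy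
    obtain ⟨h1, h2, h3⟩ := co_bxS F hQ hm' hy
    exact ⟨_, ⟨G2_nu h hm' hm h1, fun a => hb a _ (G2_mem hm' h1 a) (h2 a).1 (h2 a).2⟩, rfl⟩
  mg := by
    intro y hy
    obtain ⟨h1, h2, h3⟩ := co_bxS F hQ hm hy
    exact ⟨_, ⟨G2_nu h' hm hm' h1, fun a => hb' a _ (G2_mem hm h1 a) (h2 a).1 (h2 a).2⟩, rfl⟩
  li := by
    intro y hy
    obtain ⟨h1, h2, h3⟩ := co_bxS F hQ hm' hy
    show Tq b m' (fun a => ν' a (co P b m (Tq b m (fun a => ν a (co P b m' y a))) a)) = y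
    rw [co_Tq F hQ hm (G2_nu h hm' hm h1)]
    conv_rhs => rw [← h3]
    congr 1
    funext a
    exact hl a _ (G2_mem hm' h1 a)
  ri := by
    intro y hy
    obtain ⟨h1, h2, h3⟩ := co_bxS F hQ hm hy
    show Tq b m (fun a => ν a (co P b m' (Tq b m' (fun a => ν' a (co P b m y a))) a)) = y
    rw [co_Tq F hQ hm' (G2_nu h' hm hm' h1)]
    conv_rhs => rw [← h3]
    congr 1
    funext a
    exact hr a _ (G2_mem hm h1 a)

end foam

section N

variable {N : I → ℕ → ℕ} (hN : ∀ a, StrictMono (N a)) (hN0 : ∀ a, N a 0 = 0)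
  (hNm : ∀ a, N a (m' a) = m a) (hm' : ∀ c, 0 < m' c)
include hN hN0 hNm

lemma nu_Nu : Nu (fun a => nu (N a) (m' a)) m' m where
  pl a := pl_nu _ _ _
  mem a x hx := by
    have e0 : nu (N a) (m' a) 0 = 0 := by
      have := nu_nat (hN a) (hN0 a) (Nat.zero_le (m' a))
      rw [hN0] at this; simpa using this
    have e1 : nu (N a) (m' a) (m' a) = m a := by
      rw [nu_nat (hN a) (hN0 a) le_rfl, hNm]
    constructor
    · rw [← e0]; exact nu_mono (hN a) hx.1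
    · rw [← e1]; exact nu_mono (hN a) hx.2
  zero a := by
    have := nu_nat (hN a) (hN0 a) (Nat.zero_le (m' a))
    rw [hN0] at this; simpa using this
  lt a x hx h := by
    rcases hx.2.eq_or_lt with e | e
    · rw [e] at h
      have e1 : nu (N a) (m' a) (m' a) = m a := by
        rw [nu_nat (hN a) (hN0 a) le_rfl, hNm]
      simp only [e1] at h
      exact absurd h (lt_irrefl _)
    · exact e

lemma ni_Nu : Nu (fun a => ni (N a) (m' a)) m m' where
  pl a := pl_ni _ _ _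
  mem a x hx := by
    have e0 : ni (N a) (m' a) 0 = 0 := by
      have := ni_nat (hN a) (hN0 a) (Nat.zero_le (m' a))
      rw [hN0] at this; simpa using this
    have e1 : ni (N a) (m' a) (m a) = m' a := by
      rw [← hNm, ni_nat (hN a) (hN0 a) le_rfl]
    constructor
    · rw [← e0]; exact ni_mono (hN a) hx.1
    · rw [← e1]; exact ni_mono (hN a) hx.2
  zero a := by
    have := ni_nat (hN a) (hN0 a) (Nat.zero_le (m' a))
    rw [hN0] at this; simpa using this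
  lt a x hx h := by
    rcases hx.2.eq_or_lt with e | e
    · rw [e] at h
      have e1 : ni (N a) (m' a) (m a) = m' a := by
        rw [← hNm, ni_nat (hN a) (hN0 a) le_rfl]
      simp only [e1] at h
      exact absurd h (lt_irrefl _)
    · exact e

variable {La : Set E} [CompleteSpace E] (F : Foam La P b 4) (hQ : Quads P b)
  (hm : ∀ c, 0 < m c)

/-- **`R_c`**: the M-mesh cell `[L, H]` goes to the box `[N L, N H]` of the final grid -/
noncomputable def rc {L H : I → ℕ} (hH : ∀ a, H a ≤ m' a) (hL : ∀ a, L a ≤ m' a) {c0 : I}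
    (h0 : H c0 = 0) :
    PLEquiv (bxS P b m' L H) (bxS P b m (fun a => N a (L a)) (fun a => N a (H a))) :=
  rcE F hQ hm' hm (nu_Nu hN hN0 hNm) (ni_Nu hN hN0 hNm)
    (fun a x hx => ni_nu (hN a) (hN0 a) (hm' a) hx)
    (fun a y hy => nu_ni (hN a) (hN0 a) (hm' a) (by rw [hNm]; exact hy)) h0
    (show N c0 (H c0) = 0 by rw [h0, hN0])
    (fun a x hx h1 h2 => by
      constructor
      · rw [← nu_nat (hN a) (hN0 a) (hL a)]; exact nu_mono (hN a) h1
      · rw [← nu_nat (hN a) (hN0 a) (hH a)]; exact nu_mono (hN a) h2)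
    (fun a y hy h1 h2 => by
      constructor
      · rw [← ni_nat (hN a) (hN0 a) (hL a)]; exact ni_mono (hN a) h1
      · rw [← ni_nat (hN a) (hN0 a) (hH a)]; exact ni_mono (hN a) h2)

lemma rc_f {L H : I → ℕ} (hH : ∀ a, H a ≤ m' a) (hL : ∀ a, L a ≤ m' a) {c0 : I}
    (h0 : H c0 = 0) (y : E) : (rc hN hN0 hNm hm' F hQ hm hH hL h0).f y =
      Tq b m (fun a => nu (N a) (m' a) (co P b m' y a)) := rfl

lemma rc_g {L H : I → ℕ} (hH : ∀ a, H a ≤ m' a) (hL : ∀ a, L a ≤ m' a) {c0 : I}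
    (h0 : H c0 = 0) (y : E) : (rc hN hN0 hNm hm' F hQ hm hH hL h0).g y =
      Tq b m' (fun a => ni (N a) (m' a) (co P b m y a)) := rfl

end N

end Crest.Agent.R096.Bin_181
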