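import Crest.Agent.R096.Bin4_181

/-!
# R096 (row 96), BASE-INV, part 5 (helper181): `inv_base` through `R_c ∘ th_c`
-/

set_option autoImplicit false
set_option linter.unusedSectionVars false

open Set Metric

namespace Crest.Agent.R096.Bin_181

open Crest.Agent.R096.Ce_537 Crest.Agent.R096.Bd_416 Crest.Agent.R096.Xp_537
open Crest.Agent.R096.Brk1_582 Crest.Agent.R096.Brk2_582 Crest.Agent.R096.Brk6_582
open Crest.Agent.R096.Grd_714

variable {E : Type*} [NormedAddCommGroup E] [NormedSpace ℝ E] {I : Type*}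
variable {b : Set I → E} {P : I → Set E} {m m' : I → ℕ}

lemma bxS_gx (hm : ∀ c, 0 < m c) (q : Gx P m) :
    bxS P b m q.lo q.hi = Tq b m '' q.bx := by
  apply Subset.antisymm
  · rintro _ ⟨g, ⟨-, hb⟩, rfl⟩; exact ⟨g, hb, rfl⟩
  · rintro _ ⟨g, hg, rfl⟩; exact ⟨g, ⟨q.bx_sub hm hg, hg⟩, rfl⟩

lemma bxS_mono {L H L' H' : I → ℕ} (hL : ∀ c, L' c ≤ L c) (hH : ∀ c, H c ≤ H' c) :
    bxS P b m L H ⊆ bxS P b m L' H' := by
  rintro _ ⟨g, ⟨hg, hb⟩, rfl⟩
  exact ⟨g, ⟨hg, fun c => ⟨le_trans (by exact_mod_cast hL c) (hb c).1,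
    le_trans (hb c).2 (by exact_mod_cast hH c)⟩⟩, rfl⟩

open Classical in
/-- the upper bounds of the levels on the boundary of the cell `c0` -/
noncomputable def Hc (m : I → ℕ) (c0 : I) (a : I) : ℕ := if a = c0 then 0 else m a

lemma Hc_self (m : I → ℕ) (c0 : I) : Hc m c0 c0 = 0 := by simp [Hc]

lemma Hc_ne (m : I → ℕ) {c0 a : I} (h : a ≠ c0) : Hc m c0 a = m a := by simp [Hc, h]

/-- the boundary of the cell `c0` -/
noncomputable def bdP (P : I → Set E) (b : Set I → E) (m : I → ℕ) (c0 : I) : Set E :=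
  bxS P b m (fun _ => 0) (Hc m c0)

lemma bxS_sub_bdP (hm : ∀ c, 0 < m c) {L H : I → ℕ} {c0 : I} (h0 : H c0 = 0) :
    bxS P b m L H ⊆ bdP P b m c0 := by
  classical
  rintro _ ⟨g, ⟨hg, hb⟩, rfl⟩
  refine ⟨g, ⟨hg, fun a => ⟨by simpa using G2_nonneg hm hg a, ?_⟩⟩, rfl⟩
  by_cases h : a = c0
  · subst h
    have := (hb a).2
    rw [h0] at this
    rw [Hc_self]
    simpa using this
  · rw [Hc_ne m h]; exact G2_le hm hg a

variable {La : Set E} [CompleteSpace E] (F : Foam La P b 4) (hQ : Quads P b)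
  (hne : ∀ c, (P c).Nonempty)
  (hm' : ∀ c, 0 < m' c) (hm : ∀ c, 0 < m c)
  {N : I → ℕ → ℕ} (hN : ∀ a, StrictMono (N a)) (hN0 : ∀ a, N a 0 = 0)
  (hNm : ∀ a, N a (m' a) = m a)

include F hQ hm in
lemma bdP_eq {c0 : I} : bdP P b m c0 = {y | y ∈ P c0 ∧ ∃ c1, c1 ≠ c0 ∧ y ∈ P c1} := by
  ext y
  constructor
  · rintro ⟨g, ⟨hg, hb⟩, rfl⟩
    have h0 : g c0 = 0 := by
      have h1 := (hb c0).2
      rw [Hc_self] at h1
      exact le_antisymm (by simpa using h1) (G2_nonneg hm hg c0)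
    refine ⟨(Tq_mem_iff F hQ hm hg).2 h0, ?_⟩
    obtain ⟨_, c, c', hne, hc, hc'⟩ := id hg
    rw [lv_eq_zero hm] at hc hc'
    by_cases h : c = c0
    · exact ⟨c', fun h' => hne (h.trans h'.symm), (Tq_mem_iff F hQ hm hg).2 hc'⟩
    · exact ⟨c, h, (Tq_mem_iff F hQ hm hg).2 hc⟩
  · rintro ⟨h0, c1, hne, h1⟩
    obtain ⟨g, hg, rfl⟩ := exists_Tq F hQ hm (F.sub c0 h0) hne h1 h0
    have h0' := (Tq_mem_iff F hQ hm hg).1 h0
    refine ⟨g, ⟨hg, fun a => ⟨by simpa using G2_nonneg hm hg a, ?_⟩⟩, rfl⟩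
    by_cases h : a = c0
    · subst h; rw [Hc_self, h0']; simp
    · rw [Hc_ne m h]; exact G2_le hm hg a

/-- **`R_c` on the boundary of `P_c`** -/
noncomputable def rcB (c0 : I) : PLEquiv (bdP P b m' c0) (bdP P b m c0) := by
  classical
  refine rcE F hQ hm' hm (nu_Nu hN hN0 hNm) (ni_Nu hN hN0 hNm)
    (fun a x hx => ni_nu (hN a) (hN0 a) (hm' a) hx)
    (fun a y hy => nu_ni (hN a) (hN0 a) (hm' a) (by rw [hNm]; exact hy))
    (c0 := c0) (Hc_self _ _) (Hc_self _ _) ?_ ?_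
  · intro a x hx h1 h2
    have h3 := (nu_Nu hN hN0 hNm).mem a x hx
    refine ⟨by simpa using h3.1, ?_⟩
    by_cases h : a = c0
    · subst h
      rw [Hc_self] at h2 ⊢
      have : x = 0 := le_antisymm (by simpa using h2) hx.1
      rw [this]
      have h4 : nu (N a) (m' a) 0 = 0 := (nu_Nu hN hN0 hNm).zero a
      rw [h4]; simp
    · rw [Hc_ne m h]; exact h3.2
  · intro a x hx h1 h2
    have h3 := (ni_Nu hN hN0 hNm).mem a x hx
    refine ⟨by simpa using h3.1, ?_⟩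
    by_cases h : a = c0
    · subst h
      rw [Hc_self] at h2 ⊢
      have : x = 0 := le_antisymm (by simpa using h2) hx.1
      rw [this]
      have h4 : ni (N a) (m' a) 0 = 0 := (ni_Nu hN hN0 hNm).zero a
      rw [h4]; simp
    · rw [Hc_ne m' h]; exact h3.2

lemma rcB_f (c0 : I) (y : E) : (rcB F hQ hm' hm hN hN0 hNm c0).f y =
    Tq b m (fun a => nu (N a) (m' a) (co P b m' y a)) := rfl

lemma rcB_g (c0 : I) (y : E) : (rcB F hQ hm' hm hN hN0 hNm c0).g y =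
    Tq b m' (fun a => ni (N a) (m' a) (co P b m y a)) := rfl

/-- the M-cells go to boxes -/
lemma rcB_image {c0 : I} {L H : I → ℕ} (hH : ∀ a, H a ≤ m' a) (hL : ∀ a, L a ≤ m' a)
    (h0 : H c0 = 0) : (rcB F hQ hm' hm hN hN0 hNm c0).f '' bxS P b m' L H =
      bxS P b m (fun a => N a (L a)) (fun a => N a (H a)) := by
  have ef : ∀ y, (rc hN hN0 hNm hm' F hQ hm hH hL h0).f y =
    (rcB F hQ hm' hm hN hN0 hNm c0).f y := fun y => rfl
  apply Subset.antisymm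
  · rintro _ ⟨y, hy, rfl⟩
    rw [← ef]; exact (rc hN hN0 hNm hm' F hQ hm hH hL h0).mf hy
  · intro z hz
    refine ⟨_, (rc hN hN0 hNm hm' F hQ hm hH hL h0).mg hz, ?_⟩
    rw [← ef]; exact (rc hN hN0 hNm hm' F hQ hm hH hL h0).ri z hz

section inv

variable {V : Type*} [NormedAddCommGroup V] [NormedSpace ℝ V] {Q : Type} [PartialOrder Q]
  {dim : Q → ℕ} {J Fam : Type} {Cm : Cmb Q dim J Fam} {K : Q → Set V} {D : Set Q}
variable [FiniteDimensional ℝ E]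
variable {κ : ℝ} (hκ : 0 < κ ∧ κ < 1) (c : Cel P m) (fa : J → I) (lv : J → ℕ) {S : Set V} {c0 : I}
  (th : PLEquiv S (bdP P b m' c0))

include hκ in
/-- **BASE-INV for the M-mesh**: `th_c : S → bd P_c`, M-cell `q` = `th_c⁻¹` of the cell `gx q` of the
grid `m'` -/
theorem inv_base_mesh (hinj : ∀ j j', fa j = fa j' → lv j = lv j' → j = j')
    (hD : ∀ q ∈ D, ∀ p < q, p ∈ D) (gx : Q → Gx P m')
    (gx_mono : ∀ {p q : Q}, p < q → q ∈ D → gx p ≤ gx q)
    (hK : ∀ q ∈ D, K q = {z | z ∈ S ∧ th.f z ∈ Tq b m' '' (gx q).bx})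
    (hKc : ∀ q ∈ D, IsClosed (K q)) (h0 : ∀ q ∈ D, (gx q).hi c0 = 0)
    (one : ∀ q ∈ D, ∀ x x' : Cm.I q, Cm.col q x = Cm.col q x' → x = x')
    (ex : ∀ q ∈ D, ∀ j, N (fa j) ((gx q).lo (fa j)) ≤ lv j →
      lv j < N (fa j) ((gx q).hi (fa j)) → ∃ x, Cm.col q x = j)
    (hfam : ∀ j j', Cm.fam j = Cm.fam j' → fa j = fa j')
    (lab1 : ∀ q ∈ D, ∀ j, (∀ x, Cm.col q x ≠ j) → lv j < N (fa j) ((gx q).lo (fa j)) →
      Cm.Lab j q = 1)
    (lab0' : ∀ q ∈ D, ∀ j, (∀ x, Cm.col q x ≠ j) → N (fa j) ((gx q).hi (fa j)) ≤ lv j →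
      Cm.Lab j q = 0)
    (sd : ∀ q ∈ D, ∀ x x', x ≠ x' → Cm.fam (Cm.col q x) = Cm.fam (Cm.col q x') →
      Cm.side q x x' = Cm.Lab (Cm.col q x') q +
        if lv (Cm.col q x') < lv (Cm.col q x) then 1 else 0) :
    Inv Cm K D (ekS (grid F hQ hne hm) b κ c fa lv (th.trans (rcB F hQ hm' hm hN hN0 hNm c0)))
      (fun q x => K q ∩ (ekS (grid F hQ hne hm) b κ c fa lv
        (th.trans (rcB F hQ hm' hm hN hN0 hNm c0))).B (Cm.col q x))
      (fun q x z => sg (Cm.Lab (Cm.col q x) q) *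
        ((ekS (grid F hQ hne hm) b κ c fa lv
          (th.trans (rcB F hQ hm' hm hN hN0 hNm c0))).G (Cm.col q x) z - 1/2)) := by
  refine inv_base F hQ hne hm hκ c fa lv _ hinj hD (fun {p q} h hq => ?_) hKc
    (fun q hq => by rw [hK q hq]; exact fun z hz => hz.1)
    (fun q a => N a ((gx q).lo a)) (fun q a => N a ((gx q).hi a)) (fun q hq => ?_)
    (fun q hq => ⟨c0, by show N c0 ((gx q).hi c0) = 0; rw [h0 q hq, hN0]⟩) one ex hfam lab1 lab0' sd
  · rw [hK q hq, hK p (hD q hq p h)]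
    exact fun z hz => ⟨hz.1, image_mono (bx_mono (gx_mono h hq)) hz.2⟩
  · have h1 : th.f '' K q = Tq b m' '' (gx q).bx := by
      rw [hK q hq]
      apply Subset.antisymm
      · rintro _ ⟨z, hz, rfl⟩; exact hz.2
      · intro y hy
        have hy' : y ∈ bdP P b m' c0 := by
          rw [← bxS_gx hm'] at hy
          exact bxS_sub_bdP hm' (h0 q hq) hy
        refine ⟨th.g y, ⟨th.mg hy', ?_⟩, th.ri y hy'⟩
        rw [th.ri y hy']; exact hy
    have h2 : (th.trans (rcB F hQ hm' hm hN hN0 hNm c0)).f '' K q =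
        (rcB F hQ hm' hm hN hN0 hNm c0).f '' (th.f '' K q) := by
      rw [← image_comp]; rfl
    rw [h2, h1, ← bxS_gx hm']
    exact rcB_image F hQ hm' hm hN hN0 hNm (fun a => (gx q).him a)
      (fun a => ((gx q).le a).trans ((gx q).him a)) (h0 q hq)

end inv

end Crest.Agent.R096.Bin_181
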