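import Crest.Agent.R096.Xq3_537

/-!
# R096 (row 96), EXPLODE, part q6 (helper537)

`gdT` = the band structure (`Gd`, helper416) of a local transport structure over the grid complex
(inverse of `mesh_trnOn`), and the agreement of the transport structures of equal band structures.
-/

set_option autoImplicit false
set_option linter.unusedSectionVars false
set_option linter.unusedVariables false
set_option linter.deprecated false

open Set
open scoped NNReal

namespace Crest.Agent.R096.Xp_537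

open Crest.Agent.R096.Ce_537 (PLOn PLEquiv cube sph IsBall LocPL)
open Crest.Agent.R096.Bd_416
open Crest.Agent.R096.Grd_714

variable {E E' : Type*} [NormedAddCommGroup E] [NormedSpace ℝ E]
  [NormedAddCommGroup E'] [NormedSpace ℝ E']

section Basic

variable {Q : Type*} [PartialOrder Q] {Λ : Set E} {C : CC Λ Q} {K Z : Set E'} {G : E' → E}
  {top : E' → Q} {tr : E' → E → E'}

/-- `PLOn` from a finite closed cover, relative version -/
lemma plOn_cover' {V W ι : Type*} [NormedAddCommGroup V] [NormedSpace ℝ V] [NormedAddCommGroup W]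
    [NormedSpace ℝ W] {f : V → W} {S : Set V} {Ks : ι → Set V} {I : Set ι} (hI : I.Finite)
    (hcl : ∀ i ∈ I, IsClosed (Ks i)) (hcov : ∀ x ∈ S, ∃ i ∈ I, x ∈ Ks i)
    (h : ∀ i ∈ I, PLOn f (S ∩ Ks i)) : PLOn f S := by
  have : Finite I := hI
  refine plOn_cover (ι := I) (Ks := fun i => Ks i) (I := univ) (Set.toFinite _)
    (fun i => hcl i i.2) (fun x hx => ?_) (fun i => h i i.2)
  obtain ⟨i, hi, hxi⟩ := hcov x hx
  exact ⟨⟨i, hi⟩, mem_univ _, hxi⟩

/-- restriction to an invariant set -/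
lemma TrnOn.mono (h : TrnOn K C G top tr) (hZ : Z ⊆ K)
    (hinv : ∀ x ∈ Z, ∀ t ∈ C.cell (top x), tr x t ∈ Z) : TrnOn Z C G top tr where
  G_mem x hx := h.G_mem x (hZ hx)
  tr_mem := hinv
  tr_G x hx := h.tr_G x (hZ hx)
  tr_top x hx := h.tr_top x (hZ hx)
  tr_self x hx := h.tr_self x (hZ hx)
  tr_tr x hx := h.tr_tr x (hZ hx)
  plG q := (h.plG q).mono (fun x hx => ⟨hZ hx.1, hx.2⟩)
  plc q := (h.plc q).mono (fun x hx => ⟨hZ hx.1, hx.2⟩)
  pltr q := (h.pltr q).mono (prod_mono (fun x hx => ⟨hZ hx.1, hx.2⟩) Subset.rfl)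

/-- the top cell is constant along the leaf -/
lemma TrnOn.top_eq (h : TrnOn K C G top tr) {x : E'} (hx : x ∈ K) {t : E}
    (ht : t ∈ C.cell (top x)) : top (tr x t) = top x := by
  refine le_antisymm ?_ (h.tr_top x hx t ht)
  have h1 := h.tr_mem x hx t ht
  have h2 : G x ∈ C.cell (top (tr x t)) := C.mono_le (h.tr_top x hx t ht) (h.G_mem x hx)
  have h3 := h.tr_top _ h1 _ h2
  rwa [h.tr_tr x hx t ht _ (h.G_mem x hx), h.tr_self x hx] at h3

/-- the transport is PL on the pieces -/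
lemma TrnOn.pl_tr (h : TrnOn K C G top tr) (q : Q) {V : Type*} [NormedAddCommGroup V]
    [NormedSpace ℝ V] {L : Set V} {u : V → E'} {t : V → E} (hu : PLOn u L) (ht : PLOn t L)
    (hm : ∀ v ∈ L, u v ∈ K ∧ q ≤ top (u v) ∧ G (u v) ∈ C.cell q ∧ t v ∈ C.cell q) :
    PLOn (fun v => tr (u v) (t v)) L := by
  have h1 : PLOn (fun v => tr (u v) (C.b q)) L :=
    (h.plc q).comp hu (fun v hv => ⟨(hm v hv).1, (hm v hv).2.1, (hm v hv).2.2.1⟩)
  have h2 := (h.pltr q).comp (pl_pair h1 ht) (fun v hv => ⟨?_, (hm v hv).2.2.2⟩)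
  · refine h2.congr (fun v hv => ?_)
    obtain ⟨a1, a2, a3, a4⟩ := hm v hv
    exact (h.tr_tr _ a1 _ (C.mono_le a2 (C.bmem q)) _ (C.mono_le a2 a4)).symm
  · obtain ⟨a1, a2, a3, a4⟩ := hm v hv
    exact ⟨h.tr_mem _ a1 _ (C.mono_le a2 (C.bmem q)), h.tr_G _ a1 _ (C.mono_le a2 (C.bmem q))⟩

end Basic

section Grid

variable {I : Type*} {P : I → Set E} {m : I → ℕ} {Λ : Set E} {C : CC Λ (Cel P m)}
  {T : (I → ℝ) → E} {co : E → I → ℝ}

/-- lower levels of a cell -/
def lof : Cel P m → I → ℝ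
  | .gr q => fun a => q.lo a
  | .top _ => fun _ => 0

/-- free directions of a cell -/
def fre : Cel P m → Set I
  | .gr q => q.free
  | .top _ => ∅

open Classical in
/-- **the band structure of a transport structure** -/
noncomputable def gdT (T : (I → ℝ) → E) (co : E → I → ℝ) (G : E' → E) (top : E' → Cel P m)
    (tr : E' → E → E') : Gd E' I where
  G a x := co (G x) a
  B a := {x | a ∈ fre (top x)}
  lev a x := lof (top x) a
  tr a p := tr p.1 (T (Function.update (co (G p.1)) a (lof (top p.1) a + 1 / 2 + p.2)))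

variable {K Z : Set E'} {G : E' → E} {top : E' → Cel P m} {tr : E' → E → E'}

/-- the closed pieces -/
def Dq (Z : Set E') (C : CC Λ (Cel P m)) (G : E' → E) (top : E' → Cel P m) (q : Gx P m) :
    Set E' := {x | x ∈ Z ∧ (Cel.gr q : Cel P m) ≤ top x ∧ G x ∈ C.cell (.gr q)}

lemma free_mono {q q' : Gx P m} (h : q ≤ q') : q.free ⊆ q'.free := by
  intro a ha
  have h1 := h a
  have h2 : q.lo a < q.hi a := ha
  show q'.lo a < q'.hi a
  omega

lemma lo_eq_of_free {q q' : Gx P m} (h : q ≤ q') {a : I} (ha : a ∈ q.free) :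
    q'.lo a = q.lo a := by
  have h1 := h a
  have h2 : q.lo a < q.hi a := ha
  have h3 := q'.le1 a
  omega

open Classical in
lemma upd_mem {q : Gx P m} {v : I → ℝ} (hv : v ∈ q.bx) {a : I} (ha : a ∈ q.free) {s : ℝ}
    (hs : s ∈ I2) : Function.update v a ((q.lo a : ℝ) + 1 / 2 + s) ∈ q.bx := by
  intro b
  by_cases hb : b = a
  · subst hb
    rw [Function.update_self, Gx.hi_eq ha]
    push_cast
    have h1 := hs.1
    have h2 := hs.2
    constructor <;> linarith
  · rw [Function.update_of_ne hb]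
    exact hv b

lemma gr_iff {x : E'} {q q' : Gx P m} (h : top x = .gr q) :
    (Cel.gr q' : Cel P m) ≤ top x ↔ q' ≤ q := by rw [h]; exact Cel.gr_le_gr

open Classical in
/-- **the band structure of a transport structure is a band structure** -/
theorem gdT_is (X : GridOK C T co) (h : TrnOn Z C G top tr)
    (htop : ∀ x ∈ Z, ∃ q, top x = .gr q) (hfin : {q | (Dq Z C G top q).Nonempty}.Finite)
    (hcl : ∀ q, IsClosed (Dq Z C G top q)) : (gdT T co G top tr).Is Z := by
  set g := gdT T co G top tr with hg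
  have base : ∀ x ∈ Z, ∃ q, top x = .gr q ∧ co (G x) ∈ q.bx ∧ T (co (G x)) = G x := by
    intro x hx
    obtain ⟨q, hq⟩ := htop x hx
    have h1 := h.G_mem x hx
    rw [hq] at h1
    obtain ⟨h2, h3⟩ := X.co_mem q _ h1
    exact ⟨q, hq, h2, h3⟩
  have hB : ∀ x q, top x = .gr q → ∀ a, x ∈ g.B a ↔ a ∈ q.free := by
    intro x q hq a
    show a ∈ fre (top x) ↔ _
    rw [hq]; rfl
  have hlev : ∀ x q, top x = .gr q → ∀ a, g.lev a x = q.lo a := by
    intro x q hq a
    show lof (top x) a = _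
    rw [hq]; rfl
  -- the moved point
  have move : ∀ x ∈ Z, ∀ a, x ∈ g.B a → ∀ s ∈ I2, g.tr a (x, s) ∈ Z ∧
      top (g.tr a (x, s)) = top x ∧
      co (G (g.tr a (x, s))) = Function.update (co (G x)) a (g.lev a x + 1 / 2 + s) ∧
      (∀ t ∈ C.cell (top x), tr (g.tr a (x, s)) t = tr x t) := by
    intro x hx a ha s hs
    obtain ⟨q, hq, h1, h2⟩ := base x hx
    have ha' := (hB x q hq a).1 ha
    have h3 := upd_mem h1 ha' hs
    obtain ⟨h4, h5⟩ := X.T_mem q _ h3
    have e1 : g.tr a (x, s) =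
        tr x (T (Function.update (co (G x)) a ((q.lo a : ℝ) + 1 / 2 + s))) := by
      show tr x (T (Function.update (co (G x)) a (lof (top x) a + 1 / 2 + s))) = _
      rw [hq]; rfl
    have h6 : T (Function.update (co (G x)) a ((q.lo a : ℝ) + 1 / 2 + s)) ∈ C.cell (top x) := by
      rw [hq]; exact h4
    rw [e1, hlev x q hq]
    refine ⟨h.tr_mem x hx _ h6, h.top_eq hx h6, ?_, fun t ht => h.tr_tr x hx _ h6 t ht⟩
    rw [h.tr_G x hx _ h6, h5]
  have hcov : ∀ x ∈ Z, ∀ q, top x = .gr q → x ∈ Dq Z C G top q := fun x hx q hq =>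
    ⟨hx, by rw [hq], by rw [← hq]; exact h.G_mem x hx⟩
  have pG : ∀ a, PLOn (g.G a) Z := by
    intro a
    refine plOn_cover (Ks := fun q => Dq Z C G top q) hfin hcl (fun x hx => ?_) (fun q => ?_)
    · obtain ⟨q, hq⟩ := htop x hx
      exact ⟨q, ⟨x, hcov x hx q hq⟩, hcov x hx q hq⟩
    · exact (X.plco q a).comp ((h.plG (.gr q)).mono (fun x hx => hx.2)) (fun x hx => hx.2.2.2)
  refine ⟨pG, fun a => ?_, fun a x hx hn => ?_, fun a x hx ha => ?_, fun a x hx ha => ?_,
    fun a => ?_, fun a x hx ha s hs => (move x hx a ha s hs).1, fun a x hx ha s hs => ?_,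
    fun a x hx ha s hs => ?_, fun a x hx ha s hs => ?_, fun a x hx ha => ?_,
    fun a x hx ha s hs s' hs' => ?_, fun a b hab x hx ha s hs => ?_,
    fun a b hab x hx ha hb s hs => ?_, fun a b hab x hx ha hb s hs => ?_,
    fun a b hab x hx ha hb s hs t ht => ?_⟩
  · -- closed
    have h1 : Z ∩ g.B a = ⋃ q ∈ {q | (Dq Z C G top q).Nonempty ∧ a ∈ q.free}, Dq Z C G top q := by
      ext x
      simp only [mem_inter_iff, mem_iUnion, exists_prop, mem_setOf_eq]
      constructor
      · rintro ⟨hx, ha⟩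
        obtain ⟨q, hq⟩ := htop x hx
        exact ⟨q, ⟨⟨x, hcov x hx q hq⟩, (hB x q hq a).1 ha⟩, hcov x hx q hq⟩
      · rintro ⟨q', ⟨-, ha⟩, hx⟩
        obtain ⟨q, hq⟩ := htop x hx.1
        refine ⟨hx.1, (hB x q hq a).2 (free_mono ((gr_iff hq).1 hx.2.1) ha)⟩
    rw [h1]
    exact (hfin.subset (fun q hq => hq.1)).isClosed_biUnion (fun q _ => hcl q)
  · -- nB
    obtain ⟨q, hq, h1, h2⟩ := base x hx
    rw [hB x q hq]
    by_contra ha
    apply hn
    have : co (G x) a = (q.hi a : ℝ) := Gx.eq_of_mem ha h1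
    exact ⟨(q.hi a : ℤ), by rw [show g.G a x = co (G x) a from rfl, this]; simp⟩
  · obtain ⟨q, hq, h1, h2⟩ := base x hx
    rw [hlev x q hq]
    exact ⟨(q.lo a : ℤ), by simp⟩
  · obtain ⟨q, hq, h1, h2⟩ := base x hx
    rw [hlev x q hq]
    have h3 := h1 a
    have h4 : q.hi a = q.lo a + 1 := Gx.hi_eq ((hB x q hq a).1 ha)
    rw [h4] at h3
    push_cast at h3
    show co (G x) a - q.lo a - 1 / 2 ∈ I2
    constructor <;> linarith [h3.1, h3.2]
  · -- pt
    refine plOn_cover' (Ks := fun q => Dq Z C G top q ×ˢ (univ : Set ℝ))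
      (I := {q | (Dq Z C G top q).Nonempty ∧ a ∈ q.free}) (hfin.subset (fun q hq => hq.1))
      (fun q _ => (hcl q).prod isClosed_univ) ?_ (fun q' hq' => ?_)
    · rintro ⟨x, s⟩ ⟨⟨hx, ha⟩, hs⟩
      obtain ⟨q, hq⟩ := htop x hx
      exact ⟨q, ⟨⟨x, hcov x hx q hq⟩, (hB x q hq a).1 ha⟩, hcov x hx q hq, mem_univ _⟩
    · have haq : a ∈ q'.free := hq'.2
      set L : Set (E' × ℝ) := ((Z ∩ g.B a) ×ˢ I2) ∩ (Dq Z C G top q' ×ˢ (univ : Set ℝ)) with hL
      have hu : PLOn (fun p : E' × ℝ => p.1) L := pl_fst (Ce_537.plOn_id _)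
      have hpG : PLOn (fun p : E' × ℝ => G p.1) L :=
        (h.plG (.gr q')).comp hu (fun p hp => hp.2.1)
      have hpc : ∀ b, PLOn (fun p : E' × ℝ => co (G p.1) b) L := fun b =>
        (X.plco q' b).comp hpG (fun p hp => hp.2.1.2.2)
      have hb : ∀ b, PLOn (fun p : E' × ℝ =>
          Function.update (co (G p.1)) a ((q'.lo a : ℝ) + 1 / 2 + p.2) b) L := by
        intro b
        by_cases hab : b = a
        · subst hab
          simp only [Function.update_self]
          exact pl_add (Ce_537.plOn_const _ _) (pl_snd (Ce_537.plOn_id _))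
        · simp only [Function.update_of_ne hab]
          exact hpc b
      have hbx : ∀ p ∈ L, Function.update (co (G p.1)) a ((q'.lo a : ℝ) + 1 / 2 + p.2) ∈ q'.bx :=
        fun p hp => upd_mem (X.co_mem q' _ hp.2.1.2.2).1 haq hp.1.2
      have ht := X.comp q' hb hbx
      refine (h.pl_tr (.gr q') hu ht (fun p hp => ⟨hp.2.1.1, hp.2.1.2.1, hp.2.1.2.2,
        (X.T_mem q' _ (hbx p hp)).1⟩)).congr (fun p hp => ?_)
      obtain ⟨q, hq⟩ := htop p.1 hp.2.1.1
      have hle := (gr_iff hq).1 hp.2.1.2.1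
      show tr p.1 (T (Function.update (co (G p.1)) a (lof (top p.1) a + 1 / 2 + p.2))) = _
      rw [hq]
      show tr p.1 (T (Function.update (co (G p.1)) a ((q.lo a : ℝ) + 1 / 2 + p.2))) = _
      rw [lo_eq_of_free hle haq]
  · -- tB
    obtain ⟨-, h1, -, -⟩ := move x hx a ha s hs
    show a ∈ fre (top (g.tr a (x, s)))
    rw [h1]; exact ha
  · obtain ⟨-, h1, -, -⟩ := move x hx a ha s hs
    show lof (top (g.tr a (x, s))) a = lof (top x) a
    rw [h1]
  · obtain ⟨-, -, h1, -⟩ := move x hx a ha s hs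
    show co (G (g.tr a (x, s))) a = _
    rw [h1, Function.update_self]
  · obtain ⟨q, hq, h1, h2⟩ := base x hx
    have e1 : g.tr a (x, g.G a x - g.lev a x - 1 / 2) = tr x (T (Function.update (co (G x)) a
        (lof (top x) a + 1 / 2 + (co (G x) a - lof (top x) a - 1 / 2)))) := rfl
    rw [e1]
    have e2 : lof (top x) a + 1 / 2 + (co (G x) a - lof (top x) a - 1 / 2) = co (G x) a := by ring
    rw [e2, Function.update_eq_self, h2, h.tr_self x hx]
  · obtain ⟨m1, m2, m3, m4⟩ := move x hx a ha s hs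
    obtain ⟨q, hq, h1, h2⟩ := base x hx
    have ha' := (hB x q hq a).1 ha
    have h3 := upd_mem h1 ha' hs'
    have h6 : T (Function.update (co (G x)) a ((q.lo a : ℝ) + 1 / 2 + s')) ∈ C.cell (top x) := by
      rw [hq]; exact (X.T_mem q _ h3).1
    have e1 : g.tr a (g.tr a (x, s), s') = tr (g.tr a (x, s)) (T (Function.update
        (co (G (g.tr a (x, s)))) a (lof (top (g.tr a (x, s))) a + 1 / 2 + s'))) := rfl
    rw [e1, m3, m2, Function.update_idem, hq]
    show tr (g.tr a (x, s)) (T (Function.update (co (G x)) a ((q.lo a : ℝ) + 1 / 2 + s'))) = _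
    rw [m4 _ h6]
    show _ = tr x (T (Function.update (co (G x)) a (lof (top x) a + 1 / 2 + s')))
    rw [hq]; rfl
  · obtain ⟨-, -, h1, -⟩ := move x hx a ha s hs
    show co (G (g.tr a (x, s))) b = co (G x) b
    rw [h1, Function.update_of_ne (Ne.symm hab)]
  · obtain ⟨-, h1, -, -⟩ := move x hx a ha s hs
    show b ∈ fre (top (g.tr a (x, s)))
    rw [h1]; exact hb
  · obtain ⟨-, h1, -, -⟩ := move x hx a ha s hs
    show lof (top (g.tr a (x, s))) b = lof (top x) b
    rw [h1]
  · -- commutation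
    obtain ⟨q, hq, h1, h2⟩ := base x hx
    have key : ∀ a b, a ≠ b → x ∈ g.B a → x ∈ g.B b → ∀ s ∈ I2, ∀ t ∈ I2,
        g.tr a (g.tr b (x, t), s) = tr x (T (Function.update (Function.update (co (G x)) b
          ((q.lo b : ℝ) + 1 / 2 + t)) a ((q.lo a : ℝ) + 1 / 2 + s))) := by
      intro a b hab ha hb s hs t ht
      obtain ⟨m1, m2, m3, m4⟩ := move x hx b hb t ht
      have e1 : g.tr a (g.tr b (x, t), s) = tr (g.tr b (x, t)) (T (Function.update
          (co (G (g.tr b (x, t)))) a (lof (top (g.tr b (x, t))) a + 1 / 2 + s))) := rfl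
      rw [e1, m3, m2, hlev x q hq, hq]
      show tr (g.tr b (x, t)) (T (Function.update (Function.update (co (G x)) b
          ((q.lo b : ℝ) + 1 / 2 + t)) a ((q.lo a : ℝ) + 1 / 2 + s))) = _
      rw [m4]
      rw [hq]
      exact (X.T_mem q _ (upd_mem (upd_mem h1 ((hB x q hq b).1 hb) ht)
        ((hB x q hq a).1 ha) hs)).1
    rw [key a b hab ha hb s hs t ht, key b a (Ne.symm hab) hb ha t ht s hs,
      Function.update_comm hab]

/-- levels of the moved point, for successive transports -/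
lemma gdT_TL (X : GridOK C T co) (h : TrnOn Z C G top tr) {s : I → ℝ} : ∀ {L : List I}
    {x : E'} {q : Gx P m}, x ∈ Z → top x = .gr q → L.Nodup → (∀ a ∈ L, a ∈ q.free ∧ s a ∈ I2) →
    ∃ v ∈ q.bx, (∀ a ∈ L, v a = (q.lo a : ℝ) + 1 / 2 + s a) ∧
      (∀ a, a ∉ L → v a = co (G x) a) ∧ TL (gdT T co G top tr) s L x = tr x (T v) := by
  classical
  intro L
  induction L with
  | nil =>
    intro x q hx hq _ _
    have h1 := h.G_mem x hx
    rw [hq] at h1
    obtain ⟨h2, h3⟩ := X.co_mem q _ h1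
    exact ⟨co (G x), h2, fun a ha => by simp at ha, fun a _ => rfl, by
      rw [h3, h.tr_self x hx]; rfl⟩
  | cons a L ih =>
    intro x q hx hq hnd hL
    obtain ⟨ha, hs⟩ := hL a (by simp)
    have hnd' := List.nodup_cons.1 hnd
    have h1 := h.G_mem x hx
    rw [hq] at h1
    obtain ⟨h2, h3⟩ := X.co_mem q _ h1
    have h4 := upd_mem h2 ha hs
    have h6 : T (Function.update (co (G x)) a ((q.lo a : ℝ) + 1 / 2 + s a)) ∈ C.cell (top x) := by
      rw [hq]; exact (X.T_mem q _ h4).1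
    have e1 : (gdT T co G top tr).tr a (x, s a) =
        tr x (T (Function.update (co (G x)) a ((q.lo a : ℝ) + 1 / 2 + s a))) := by
      show tr x (T (Function.update (co (G x)) a (lof (top x) a + 1 / 2 + s a))) = _
      rw [hq]; rfl
    have hx' := h.tr_mem x hx _ h6
    have hq' : top (tr x (T (Function.update (co (G x)) a ((q.lo a : ℝ) + 1 / 2 + s a)))) =
        .gr q := by rw [h.top_eq hx h6, hq]
    obtain ⟨v, v1, v2, v3, v4⟩ := ih hx' hq' hnd'.2 (fun b hb => hL b (by simp [hb]))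
    rw [h.tr_G x hx _ h6, (X.T_mem q _ h4).2] at v3
    refine ⟨v, v1, fun b hb => ?_, fun b hb => ?_, ?_⟩
    · rcases List.mem_cons.1 hb with rfl | hb
      · rw [v3 b hnd'.1, Function.update_self]
      · exact v2 b hb
    · have hba : b ≠ a := fun e => hb (by simp [e])
      rw [v3 b (fun e => hb (by simp [e])), Function.update_of_ne hba]
    · rw [TL_cons, e1, v4]
      exact h.tr_tr x hx _ h6 _ (by rw [hq]; exact (X.T_mem q _ v1).1)

/-- **round trip** -/
theorem gdT_round (X : GridOK C T co) (hm : ∀ c, 0 < m c) (q0 : Cel P m)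
    (h : TrnOn Z C G top tr) (htop : ∀ x ∈ Z, ∃ q, top x = .gr q)
    (hff : ∀ q : Gx P m, q.free.Finite) {x : E'} (hx : x ∈ Z) :
    gG T (gdT T co G top tr) x = G x ∧ gtop hm q0 (gdT T co G top tr) x = top x ∧
      ∀ t ∈ C.cell (top x), gtr co (gdT T co G top tr) x t = tr x t := by
  classical
  obtain ⟨q, hq⟩ := htop x hx
  have h1 := h.G_mem x hx
  rw [hq] at h1
  obtain ⟨h2, h3⟩ := X.co_mem q _ h1
  have hB : ∀ a, x ∈ (gdT T co G top tr).B a ↔ a ∈ q.free := by
    intro a
    show a ∈ fre (top x) ↔ _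
    rw [hq]; rfl
  have hlev : ∀ a, (gdT T co G top tr).lev a x = q.lo a := by
    intro a
    show lof (top x) a = _
    rw [hq]; rfl
  have hset : {a | x ∈ (gdT T co G top tr).B a} = q.free := by ext a; exact hB a
  refine ⟨h3, ?_, fun t ht => ?_⟩
  · -- top
    have hmid : gmid (gdT T co G top tr) x ∈ q.bx := by
      intro a
      unfold gmid
      by_cases ha : a ∈ q.free
      · rw [if_pos ((hB a).2 ha), hlev, Gx.hi_eq ha]
        push_cast
        constructor <;> linarith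
      · rw [if_neg (fun h' => ha ((hB a).1 h'))]
        exact h2 a
    have hG2 := Gx.bx_sub hm q hmid
    unfold gtop
    rw [dif_pos hG2, hq]
    congr 1
    refine flb_eq hm hG2 hmid (fun a ha => ?_)
    have : gmid (gdT T co G top tr) x a = q.lo a + 1 / 2 := by
      unfold gmid
      rw [if_pos ((hB a).2 ha), hlev]
    rw [this, Gx.hi_eq ha]
    push_cast
    constructor <;> linarith
  · rw [hq] at ht
    obtain ⟨k1, k2⟩ := X.co_mem q t ht
    have hls : ∀ a, a ∈ ls {a | x ∈ (gdT T co G top tr).B a} ↔ a ∈ q.free := fun a => by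
      rw [hset]; exact mem_ls (hff q)
    obtain ⟨v, v1, v2, v3, v4⟩ := gdT_TL X h
      (s := fun a => co t a - (gdT T co G top tr).lev a x - 1 / 2)
      (L := ls {a | x ∈ (gdT T co G top tr).B a}) hx hq (nodup_ls _) (fun a ha => by
        have ha' := (hls a).1 ha
        refine ⟨ha', ?_⟩
        have h5 := k1 a
        rw [Gx.hi_eq ha'] at h5
        push_cast at h5
        simp only [hlev]
        constructor <;> linarith [h5.1, h5.2])
    have hv : v = co t := by
      funext a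
      by_cases ha : a ∈ q.free
      · rw [v2 a ((hls a).2 ha), hlev]; ring
      · rw [v3 a (fun h' => ha ((hls a).1 h'))]
        have h5 : co (G x) a = q.hi a := Gx.eq_of_mem ha h2
        have h6 : co t a = q.hi a := Gx.eq_of_mem ha k1
        rw [h5, h6]
    unfold gtr
    rw [v4, hv, k2]

/-- successive transports of equal band structures -/
lemma TL_eqs {g g' : Gd E' I} (h : g.Is Z) (e : g.Eqs g' Z) {s : I → ℝ} : ∀ {L : List I},
    L.Nodup → ∀ {x : E'}, x ∈ Z → (∀ a ∈ L, x ∈ g.B a ∧ s a ∈ I2) →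
    TL g' s L x = TL g s L x := by
  intro L
  induction L with
  | nil => intro _ x _ _; rfl
  | cons a L ih =>
    intro hnd x hx hL
    obtain ⟨ha, hs⟩ := hL a (by simp)
    rw [TL_cons, TL_cons, e.tr a x hx ha _ hs]
    exact ih (List.nodup_cons.1 hnd).2 (h.tZ a x hx ha _ hs) (fun b hb => by
      obtain ⟨j1, j2⟩ := hL b (by simp [hb])
      exact ⟨(tr_mem_B h hx ha hs).2 j1, j2⟩)

/-- **equal band structures have equal transport structures** -/
theorem agree_eqs (X : GridOK C T co) (hm : ∀ c, 0 < m c) (q0 : Cel P m) {g g' : Gd E' I}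
    (h : g.Is Z) (e : g.Eqs g' Z) (hfin : ∀ x ∈ Z, {a | x ∈ g.B a}.Finite)
    (hK : ∀ x ∈ Z, (fun a => g.G a x) ∈ G2 P m) {x : E'} (hx : x ∈ Z) :
    gG T g' x = gG T g x ∧ gtop hm q0 g' x = gtop hm q0 g x ∧
      ∀ t ∈ C.cell (gtop hm q0 g x), gtr co g' x t = gtr co g x t := by
  have hset : {a | x ∈ g'.B a} = {a | x ∈ g.B a} := by ext a; exact e.B a x hx
  refine ⟨?_, ?_, fun t ht => ?_⟩
  · unfold gG
    congr 1
    funext a
    exact e.G a x hx
  · have hmid : gmid g' x = gmid g x := by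
      funext a
      unfold gmid
      by_cases ha : x ∈ g.B a
      · rw [if_pos ((e.B a x hx).2 ha), if_pos ha, e.lev a x hx ha]
      · rw [if_neg (fun h' => ha ((e.B a x hx).1 h')), if_neg ha, e.G a x hx]
    unfold gtop
    rw [hmid]
  · unfold gtr
    rw [hset]
    obtain ⟨q, h1, h2, h3, h4⟩ := gtop_spec (hm := hm) (q0 := q0) h hfin hK hx
    rw [h1] at ht
    have k1 := (X.co_mem q t ht).1
    have e1 : TL g' (fun a => co t a - g'.lev a x - 1 / 2) (ls {a | x ∈ g.B a}) x =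
        TL g' (fun a => co t a - g.lev a x - 1 / 2) (ls {a | x ∈ g.B a}) x :=
      TL_congr (fun a ha => by
        rw [e.lev a x hx ((mem_ls (hfin x hx)).1 ha)]) x
    rw [e1]
    exact TL_eqs h e (nodup_ls _) hx (fun a ha =>
      ⟨(mem_ls (hfin x hx)).1 ha, par_mem h2 h3 k1 ((mem_ls (hfin x hx)).1 ha)⟩)

/-- **AGREE**: if the band structure `g'` of the mesh equals the band structure of the transport
structure `(G, top, tr)` on `Z`, then the transport structure of `g'` equals `(G, top, tr)`. -/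
theorem agree (X : GridOK C T co) (hm : ∀ c, 0 < m c) (q0 : Cel P m) {g' : Gd E' I}
    (h : TrnOn Z C G top tr) (htop : ∀ x ∈ Z, ∃ q, top x = .gr q)
    (hff : ∀ q : Gx P m, q.free.Finite) (hfin : {q | (Dq Z C G top q).Nonempty}.Finite)
    (hcl : ∀ q, IsClosed (Dq Z C G top q)) (e : (gdT T co G top tr).Eqs g' Z) {x : E'}
    (hx : x ∈ Z) :
    gG T g' x = G x ∧ gtop hm q0 g' x = top x ∧
      ∀ t ∈ C.cell (top x), gtr co g' x t = tr x t := by
  have hIs := gdT_is X h htop hfin hcl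
  have hlv : ∀ x ∈ Z, (fun a => (gdT T co G top tr).G a x) ∈ G2 P m := by
    intro x hx
    obtain ⟨q, hq⟩ := htop x hx
    have h1 := h.G_mem x hx
    rw [hq] at h1
    exact Gx.bx_sub hm q (X.co_mem q _ h1).1
  have hfinB : ∀ x ∈ Z, {a | x ∈ (gdT T co G top tr).B a}.Finite := by
    intro x hx
    obtain ⟨q, hq⟩ := htop x hx
    have : {a | x ∈ (gdT T co G top tr).B a} = q.free := by
      ext a
      show a ∈ fre (top x) ↔ _
      rw [hq]; rfl
    rw [this]; exact hff q
  obtain ⟨a1, a2, a3⟩ := agree_eqs X hm q0 hIs e hfinB hlv hx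
  obtain ⟨b1, b2, b3⟩ := gdT_round X hm q0 h htop hff hx
  refine ⟨a1.trans b1, a2.trans b2, fun t ht => ?_⟩
  rw [a3 t (by rw [b2]; exact ht), b3 t ht]

end Grid

end Crest.Agent.R096.Xp_537
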