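import Crest.Agent.R096.Bin5_181
import Crest.Agent.R096.Xq6_537
import Crest.Agent.R096.Bd16_416

/-!
# R096 (row 96), BASE-INV, part 6 (helper181): merging the sheets of the base gives 537's `gdT` of the
exact core structure
-/

set_option autoImplicit false
set_option linter.unusedSectionVars false

open Set Metric

namespace Crest.Agent.R096.Bin_181

open Crest.Agent.R096.Ce_537 Crest.Agent.R096.Bd_416 Crest.Agent.R096.Xp_537
open Crest.Agent.R096.Brk1_582 Crest.Agent.R096.Brk2_582 Crest.Agent.R096.Brk6_582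
open Crest.Agent.R096.Grd_714

variable {E : Type*} [NormedAddCommGroup E] [NormedSpace ℝ E] {I : Type*}
variable {b : Set I → E} {P : I → Set E} {m : I → ℕ}

/-- sum of the sheets -/
lemma sum_c01 (k : ℕ) {x : ℝ} (h0 : 0 ≤ x) (h1 : x ≤ k) :
    ∑ i ∈ Finset.range k, c01 (x - i) = x := by
  rcases Nat.eq_zero_or_pos k with rfl | hk
  · have : x = 0 := le_antisymm (by simpa using h1) h0
    simp [this]
  · have e1 : ∑ i ∈ Finset.range k, c01 (x - i) = nu id k x := by
      refine Finset.sum_congr rfl fun i _ => ?_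
      simp
    obtain ⟨i, hi, h2, h3⟩ := exists_int (N := id) strictMono_id rfl h0 hk h1
    simp only [id] at h2 h3
    push_cast at h3
    rw [e1, nu_eq strictMono_id rfl hi h2 h3]
    simp

variable {V : Type*} [NormedAddCommGroup V] [NormedSpace ℝ V] {J : Type*}
variable {La : Set E} [CompleteSpace E] (F : Foam La P b 4) (hQ : Quads P b)
  (hne : ∀ c, (P c).Nonempty) (hm : ∀ c, 0 < m c)
variable {κ : ℝ} (hκ : 0 < κ ∧ κ < 1) (c : Cel P m) {fa : J → I} {lv : J → ℕ} {S : Set V}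
  {T : Set E} (e : PLEquiv S T)

include hκ in
lemma ek_is_cell_ab {q : Gx P m} {y : E} (hy : y ∈ (grid F hQ hne hm).cell (.gr q)) {a : I}
    (hB : y ∈ (ek (grid F hQ hne hm) b κ c).B a) :
    (ek (grid F hQ hne hm) b κ c).G a y - (ek (grid F hQ hne hm) b κ c).lev a y - 1/2 ∈ I2 := by
  obtain ⟨q0, e0, h0, hs0, ht, hp⟩ := ek_spec F hQ hne hm hκ c hy
  have hB' : a ∈ fr (mn c (sl (grid F hQ hne hm) κ y)) := hB
  have e1 : ((ek (grid F hQ hne hm) b κ c).lev a y) = q0.lo a := by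
    show ((lo (mn c (sl (grid F hQ hne hm) κ y)) a : ℕ) : ℝ) = _
    rw [e0]; rfl
  rw [e0] at hB'
  have h1 := co_mem F hQ hm ht a
  have h2 : (q0.hi a : ℝ) = q0.lo a + 1 := by exact_mod_cast Gx.hi_eq hB'
  rw [e1]
  show co P b m (st (grid F hQ hne hm) κ y) a - q0.lo a - 1/2 ∈ I2
  constructor <;> linarith [h1.1, h1.2]

include hκ in
/-- **the merged base is the core structure** -/
theorem merge_eqs' (hinj : ∀ j j', fa j = fa j' → lv j = lv j' → j = j')
    (hlt : ∀ j, lv j < m (fa j)) (hsur : ∀ a k, k < m a → ∃ j, fa j = a ∧ lv j = k)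
    (hf : ∀ a, {j | fa j = a}.Finite) {A : Set V}
    (hmem : ∀ z ∈ A, ∃ q : Gx P m, e.f z ∈ (grid F hQ hne hm).cell (.gr q)) :
    (gdT (Tq b m) (co P b m) (cG (grid F hQ hne hm) κ e.f) (ctop (grid F hQ hne hm) κ c e.f)
      (ctr (grid F hQ hne hm) κ e.f e.g)).Eqs
      ((ekS (grid F hQ hne hm) b κ c fa lv e).merge fa hf) A := by
  classical
  set C := grid F hQ hne hm with hC
  set g := ekS C b κ c fa lv e with hg
  have dj : ∀ z, ∀ j j', j ≠ j' → fa j = fa j' → z ∈ g.B j → z ∉ g.B j' := by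
    intro z j j' hne' hf hz hz'
    rw [hg, ekS_B] at hz hz'
    apply hne'
    refine hinj j j' hf ?_
    have h1 := hz.2
    rw [hf, hz'.2] at h1
    exact_mod_cast h1.symm
  -- the sum
  have hG : ∀ a, ∀ z ∈ A, (g.merge fa hf).G a z = co P b m (st C κ (e.f z)) a := by
    intro a z hz
    obtain ⟨q, hy⟩ := hmem z hz
    have h1 := co_mem F hQ hm (st_mem C hκ hy)
    have h2 := G2_mem hm (q.bx_sub hm h1) a
    show ∑ j ∈ (hf a).toFinset, g.G j z = _
    rw [← sum_c01 (m a) h2.1 h2.2]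
    refine Finset.sum_bij (fun j _ => lv j) (fun j hj => ?_) (fun j hj j' hj' h => ?_)
      (fun k hk => ?_) (fun j hj => ?_)
    · rw [Set.Finite.mem_toFinset] at hj
      have hj' : fa j = a := hj
      rw [Finset.mem_range, ← hj']; exact hlt j
    · rw [Set.Finite.mem_toFinset] at hj hj'
      have e1 : fa j = a := hj
      have e2 : fa j' = a := hj'
      exact hinj j j' (e1.trans e2.symm) h
    · rw [Finset.mem_range] at hk
      obtain ⟨j, hj, hjk⟩ := hsur a k hk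
      exact ⟨j, by rw [Set.Finite.mem_toFinset]; exact hj, hjk⟩
    · rw [Set.Finite.mem_toFinset] at hj
      have hj' : fa j = a := hj
      rw [hg, ekS_G, hj']
      show 1/2 + cl (co P b m (st C κ (e.f z)) a - lv j - 1/2) = c01 _
      rfl
  have hlev : ∀ a z, (((lo (mn c (sl C κ (e.f z))) a : ℕ) : ℝ)) = lof (mn c (sl C κ (e.f z))) a := by
    intro a z
    cases (mn c (sl C κ (e.f z))) with
    | top c => simp [lo, lof]
    | gr q => rfl
  have hfr : ∀ z, fr (mn c (sl C κ (e.f z))) = fre (mn c (sl C κ (e.f z))) := by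
    intro z
    cases (mn c (sl C κ (e.f z))) with
    | top c => rfl
    | gr q => rfl
  -- the band
  have hex : ∀ a, ∀ z ∈ A, a ∈ fre (mn c (sl C κ (e.f z))) → ∃ j, fa j = a ∧ z ∈ g.B j := by
    intro a z hz ha
    obtain ⟨q, hy⟩ := hmem z hz
    have hBa : e.f z ∈ (ek C b κ c).B a := by
      show a ∈ fr (mn c (sl C κ (e.f z)))
      rw [hfr]; exact ha
    obtain ⟨h1, h2⟩ := ek_lev F hQ hne hm hκ c hy hBa
    have h3 : q.lo a < m a := lt_of_lt_of_le h1 (q.him a)
    obtain ⟨j, hj, hjk⟩ := hsur a (q.lo a) h3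
    refine ⟨j, hj, ?_⟩
    rw [hg, ekS_B, hj]
    refine ⟨hBa, ?_⟩
    show ((lo (mn c (sl C κ (e.f z))) a : ℕ) : ℝ) = _
    rw [h2, hjk]
  have hBj : ∀ j z, z ∈ g.B j → fa j ∈ fre (mn c (sl C κ (e.f z))) ∧
      (lo (mn c (sl C κ (e.f z))) (fa j) : ℝ) = lv j := by
    intro j z hz
    rw [hg, ekS_B] at hz
    exact ⟨by rw [← hfr]; exact hz.1, hz.2⟩
  refine ⟨fun a z hz => ?_, fun a z hz => ?_, fun a z hz ha => ?_, fun a z hz ha s hs => ?_⟩
  · rw [hG a z hz]; rfl
  · constructor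
    · rintro ⟨j, rfl, hj⟩
      exact (hBj j z hj).1
    · intro ha
      exact hex a z hz ha
  · obtain ⟨j, rfl, hj⟩ := hex a z hz ha
    obtain ⟨h1, h2⟩ := hBj j z hj
    rw [merge_lev (dj z) hj, hG _ z hz]
    show _ = lof (mn c (sl C κ (e.f z))) (fa j)
    rw [← hlev, h2]
    obtain ⟨q, hy⟩ := hmem z hz
    have hj' := hj
    rw [hg, ekS_B] at hj'
    have h3 := (ek_is_cell_ab F hQ hne hm hκ c hy hj'.1)
    rw [hj'.2] at h3
    rw [hg, ekS_G, cl_of_mem h3]
    show co P b m (st C κ (e.f z)) (fa j) - (1/2 + (co P b m (st C κ (e.f z)) (fa j) - lv j - 1/2))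
      + 0 = _
    ring
  · obtain ⟨j, rfl, hj⟩ := hex a z hz ha
    rw [merge_tr (dj z) hj]
    show e.g (pk C κ (sl C κ (e.f z)) (Tq b m (Function.update (co P b m (st C κ (e.f z))) (fa j)
      (lo (mn c (sl C κ (e.f z))) (fa j) + 1/2 + s)))) = e.g (pk C κ (sl C κ (e.f z))
      (Tq b m (Function.update (co P b m (st C κ (e.f z))) (fa j)
      (lof (mn c (sl C κ (e.f z))) (fa j) + 1/2 + s))))
    rw [hlev]

include hκ in
/-- **the merged base is the core structure** (on an M-cell) -/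
theorem merge_eqs (hinj : ∀ j j', fa j = fa j' → lv j = lv j' → j = j')
    (hlt : ∀ j, lv j < m (fa j)) (hsur : ∀ a k, k < m a → ∃ j, fa j = a ∧ lv j = k)
    (hf : ∀ a, {j | fa j = a}.Finite) {A : Set V} {L H : I → ℕ}
    (hB : e.f '' A = bxS P b m L H) :
    (gdT (Tq b m) (co P b m) (cG (grid F hQ hne hm) κ e.f) (ctop (grid F hQ hne hm) κ c e.f)
      (ctr (grid F hQ hne hm) κ e.f e.g)).Eqs
      ((ekS (grid F hQ hne hm) b κ c fa lv e).merge fa hf) A := by
  refine merge_eqs' F hQ hne hm hκ c e hinj hlt hsur hf fun z hz => ?_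
  obtain ⟨q, -, h⟩ := mem_bxS F hQ hne hm (show e.f z ∈ bxS P b m L H by
    rw [← hB]; exact ⟨z, hz, rfl⟩)
  exact ⟨q, h⟩

end Crest.Agent.R096.Bin_181
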