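import Crest.Agent.R096.Bin6_181
import Crest.Agent.R096.Bd18_416

/-!
# R096 (row 96), SQ-EXACT (147 #10127), part 1 (helper181): the level coordinates are affine along
chain states; in level coordinates `E_κ` is a product of one dimensional clamps
-/

set_option autoImplicit false
set_option linter.unusedSectionVars false

open Set Metric

namespace Crest.Agent.R096.Bin_181

open Crest.Agent.R096.Ce_537 Crest.Agent.R096.Bd_416 Crest.Agent.R096.Xp_537
open Crest.Agent.R096.Brk1_582 Crest.Agent.R096.Brk2_582 Crest.Agent.R096.Brk6_582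
open Crest.Agent.R096.Grd_714

variable {E : Type*} [NormedAddCommGroup E] [NormedSpace ℝ E] {I : Type*}
variable {b : Set I → E} {P : I → Set E} {m : I → ℕ}

/-- level coordinates of the centre of a cell -/
noncomputable def cc : Cel P m → I → ℝ
  | .top _ => 0
  | .gr q => q.ctr

lemma convex_bx (q : Gx P m) : Convex ℝ q.bx := by
  intro g hg g' hg' s t hs ht hst a
  have h1 := hg a
  have h2 := hg' a
  have e1 : (q.lo a : ℝ) = s * q.lo a + t * q.lo a := by rw [← add_mul, hst, one_mul]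
  have e2 : (q.hi a : ℝ) = s * q.hi a + t * q.hi a := by rw [← add_mul, hst, one_mul]
  have k1 := mul_le_mul_of_nonneg_left h1.1 hs
  have k2 := mul_le_mul_of_nonneg_left h1.2 hs
  have k3 := mul_le_mul_of_nonneg_left h2.1 ht
  have k4 := mul_le_mul_of_nonneg_left h2.2 ht
  simp only [Pi.add_apply, Pi.smul_apply, smul_eq_mul]
  constructor <;> linarith

lemma ctr_bx (q : Gx P m) : q.ctr ∈ q.bx := q.ctr_mem.1

/-- one coordinate of a face -/
lemma coord {ρ q : Gx P m} (h : ρ ≤ q) {c : I} (hc : c ∈ q.free) {g : I → ℝ} (hg : g ∈ ρ.bx) :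
    (0 ≤ q.hi c - g c ∧ q.hi c - g c ≤ 1 ∧ (q.hi c : ℝ) - ρ.ctr c = 1/2) ∨
      ((q.hi c : ℝ) - g c = q.hi c - ρ.ctr c ∧
        ((q.hi c : ℝ) - ρ.ctr c = 0 ∨ (q.hi c : ℝ) - ρ.ctr c = 1)) := by
  have e1 : (q.hi c : ℝ) = q.lo c + 1 := by exact_mod_cast Gx.hi_eq hc
  have h1 := h c
  have h2 := hg c
  by_cases hr : c ∈ ρ.free
  · left
    have h3 := Gx.hi_eq hr
    have h4 := lo_eq_of_le h hr
    have e2 : (ρ.hi c : ℝ) = ρ.lo c + 1 := by exact_mod_cast h3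
    have e3 : (q.lo c : ℝ) = ρ.lo c := by exact_mod_cast h4
    refine ⟨by linarith [h2.2], by linarith [h2.1], ?_⟩
    show (q.hi c : ℝ) - ((ρ.lo c : ℝ) + ρ.hi c) / 2 = 1/2
    rw [e1, e3, e2]; ring
  · right
    have h3 := Gx.lo_eq hr
    have h4 := Gx.eq_of_mem hr hg
    have e3 : ρ.ctr c = ρ.hi c := Gx.eq_of_mem hr (ctr_bx ρ)
    refine ⟨by rw [h4, e3], ?_⟩
    rw [e3]
    have h5 := Gx.hi_eq hc
    have h6 : ρ.hi c = q.hi c ∨ q.hi c = ρ.hi c + 1 := by omega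
    rcases h6 with h6 | h6
    · left; rw [h6]; ring
    · right; rw [h6]; push_cast; ring

/-- the side of the fold -/
noncomputable def sd (q : Gx P m) (c1 c2 : I) (g : I → ℝ) : ℝ :=
  ((q.hi c1 : ℝ) - g c1) - (q.hi c2 - g c2)

lemma sd_chain {ρ q : Gx P m} (h : ρ ≤ q) {c1 c2 : I} (h1 : c1 ∈ q.free) (h2 : c2 ∈ q.free)
    {g : I → ℝ} (hg : g ∈ ρ.bx) : 0 ≤ sd q c1 c2 g * sd q c1 c2 ρ.ctr := by
  unfold sd
  rcases coord h h1 hg with ⟨a1, a2, a3⟩ | ⟨a1, a2⟩ <;>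
    rcases coord h h2 hg with ⟨b1, b2, b3⟩ | ⟨b1, b2⟩
  · rw [a3, b3]; simp
  · rw [a3, b1]
    rcases b2 with b2 | b2 <;> rw [b2] <;> nlinarith
  · rw [a1, b3]
    rcases a2 with a2 | a2 <;> rw [a2] <;> nlinarith
  · rw [a1, b1]
    exact mul_self_nonneg _

lemma sd_affine (q : Gx P m) (c1 c2 : I) {g g' : I → ℝ} {s t : ℝ} (hst : s + t = 1) :
    sd q c1 c2 (s • g + t • g') = s * sd q c1 c2 g + t * sd q c1 c2 g' := by
  unfold sd
  simp only [Pi.add_apply, Pi.smul_apply, smul_eq_mul]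
  linear_combination (-(q.hi c1 : ℝ) + q.hi c2) * hst

section foam

variable {La : Set E} [CompleteSpace E] (F : Foam La P b 4) (hQ : Quads P b)
  (hne : ∀ c, (P c).Nonempty) (hm : ∀ c, 0 < m c)
include F hQ hm

/-- `Tq` is affine on one side of the fold -/
lemma exists_lin (q : Gx P m) {R : Set (I → ℝ)}
    (hs : ∀ c1 c2, q.free = {c1, c2} → ∀ g ∈ R, ∀ g' ∈ R, 0 ≤ sd q c1 c2 g * sd q c1 c2 g') :
    ∃ (H : Set (I → ℝ)) (B0 : E) (Lin : (I → ℝ) →ₗ[ℝ] E), Convex ℝ H ∧ R ⊆ H ∧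
      ∀ g ∈ q.bx, g ∈ H → Tq b m g = B0 + Lin g := by
  rcases q.free_cases F hm with hf | ⟨c1, hf⟩ | ⟨c1, c2, hne, hf⟩
  · refine ⟨univ, Tq b m fun c => (q.hi c : ℝ), 0, convex_univ, subset_univ _, fun g hg _ => ?_⟩
    have : g = fun c => (q.hi c : ℝ) := funext fun c =>
      Gx.eq_of_mem (by rw [hf]; simp) hg
    rw [this]; simp
  · obtain ⟨p, f, hf0, hpf⟩ := frame1 F hQ hm q hf
    refine ⟨univ, p + (q.hi c1 : ℝ) • f, (LinearMap.proj c1 : (I → ℝ) →ₗ[ℝ] ℝ).smulRight (-f),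
      convex_univ, subset_univ _, fun g hg _ => ?_⟩
    rw [hpf g hg]
    simp only [LinearMap.smulRight_apply, LinearMap.proj_apply]
    module
  · obtain ⟨X, hX⟩ := frame2 F hQ hm q hne hf
    set pr : (I → ℝ) →ₗ[ℝ] ℝ × ℝ := (LinearMap.proj c1).prod (LinearMap.proj c2) with hpr
    have key : ∀ (M : ℝ × ℝ →ₗ[ℝ] ℝ × ℝ) (g : I → ℝ), g ∈ q.bx →
        tw X.α X.β (q.hi c1 - g c1, q.hi c2 - g c2) = M (q.hi c1 - g c1, q.hi c2 - g c2) →
        Tq b m g = (X.O + X.lin (M ((q.hi c1 : ℝ), (q.hi c2 : ℝ)))) +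
          (-(X.lin.comp (M.comp pr))) g := by
      intro M g hg hM
      rw [hX g hg]
      show X.pt (tw X.α X.β _) = _
      rw [hM, Fr.pt_eq]
      have e1 : (((q.hi c1 : ℝ) - g c1, (q.hi c2 : ℝ) - g c2) : ℝ × ℝ) =
        ((q.hi c1 : ℝ), (q.hi c2 : ℝ)) - pr g := by
        rw [hpr]; simp [LinearMap.prod_apply]
      rw [e1, map_sub, map_sub]
      simp only [LinearMap.neg_apply, LinearMap.comp_apply]
      abel
    by_cases hpos : ∃ g ∈ R, 0 < sd q c1 c2 g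
    · obtain ⟨g0, hg0, h0⟩ := hpos
      refine ⟨{g | 0 ≤ sd q c1 c2 g}, _, -(X.lin.comp ((twa X.α X.β).comp pr)), ?_, ?_,
        fun g hg hgH => key (twa X.α X.β) g hg (tw_eq_twa ?_)⟩
      · intro g hg g' hg' s t hs' ht hst
        show 0 ≤ sd q c1 c2 _
        rw [sd_affine q c1 c2 hst]
        exact add_nonneg (mul_nonneg hs' hg) (mul_nonneg ht hg')
      · intro g hg
        have := hs c1 c2 hf g0 hg0 g hg
        exact nonneg_of_mul_nonneg_right this h0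
      · have : 0 ≤ sd q c1 c2 g := hgH
        unfold sd at this
        linarith
    · push Not at hpos
      refine ⟨{g | sd q c1 c2 g ≤ 0}, _, -(X.lin.comp ((twb X.α X.β).comp pr)), ?_, hpos,
        fun g hg hgH => key (twb X.α X.β) g hg (tw_eq_twb ?_)⟩
      · intro g hg g' hg' s t hs' ht hst
        show sd q c1 c2 _ ≤ 0
        rw [sd_affine q c1 c2 hst]
        exact add_nonpos (mul_nonpos_of_nonneg_of_nonpos hs' hg)
          (mul_nonpos_of_nonneg_of_nonpos ht hg')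
      · have : sd q c1 c2 g ≤ 0 := hgH
        unfold sd at this
        linarith

variable {κ : ℝ} (hκ : 0 < κ ∧ κ < 1)
include hκ

/-- **the level coordinates are affine along chain states** -/
theorem co_pk {q : Gx P m} {l : Cel P m →₀ ℝ} {t : E} (h : State (grid F hQ hne hm) l t)
    (hq : ∀ p ∈ l.support, p ≤ .gr q) :
    (1 - κ) • co P b m t + κ • ∑ p ∈ l.support, l p • cc p ∈ q.bx ∧
    Tq b m ((1 - κ) • co P b m t + κ • ∑ p ∈ l.support, l p • cc p) =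
      pk (grid F hQ hne hm) κ l t ∧
    co P b m (pk (grid F hQ hne hm) κ l t) =
      (1 - κ) • co P b m t + κ • ∑ p ∈ l.support, l p • cc p := by
  classical
  have hg : ∀ p ∈ l.support, ∃ ρ : Gx P m, p = .gr ρ ∧ ρ ≤ q ∧ t ∈ Tq b m '' ρ.bx := by
    intro p hp
    obtain ⟨ρ, rfl, hρ⟩ := gr_of_le (hq p hp)
    exact ⟨ρ, rfl, hρ, h.mem _ hp⟩
  obtain ⟨p0, hp0, -⟩ := h.exists_top
  obtain ⟨ρ0, rfl, hρ0, ht0⟩ := hg p0 hp0
  have hco : ∀ p ∈ l.support, ∀ ρ : Gx P m, p = .gr ρ → co P b m t ∈ ρ.bx := by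
    intro p hp ρ e
    subst e
    exact co_mem F hQ hm (h.mem _ hp)
  have hcoq : co P b m t ∈ q.bx := bx_mono hρ0 (hco _ hp0 _ rfl)
  set R : Set (I → ℝ) := insert (co P b m t) {g | ∃ p ∈ l.support, g = cc p} with hR
  have hRq : R ⊆ q.bx := by
    rintro g (rfl | ⟨p, hp, rfl⟩)
    · exact hcoq
    · obtain ⟨ρ, rfl, hρ, -⟩ := hg p hp
      exact bx_mono hρ (ctr_bx ρ)
  obtain ⟨H, B0, Lin, hH, hRH, hT⟩ := exists_lin F hQ hm q (R := R) (by
    intro c1 c2 hf g hg1 g' hg2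
    have m1 : c1 ∈ q.free := by rw [hf]; simp
    have m2 : c2 ∈ q.free := by rw [hf]; simp
    rcases hg1 with rfl | ⟨p, hp, rfl⟩
    · rcases hg2 with rfl | ⟨p', hp', rfl⟩
      · exact mul_self_nonneg _
      · obtain ⟨ρ, rfl, hρ, -⟩ := hg p' hp'
        exact sd_chain hρ m1 m2 (hco _ hp' _ rfl)
    · obtain ⟨ρ, rfl, hρ, -⟩ := hg p hp
      rcases hg2 with rfl | ⟨p', hp', rfl⟩
      · rw [mul_comm]; exact sd_chain hρ m1 m2 (hco _ hp _ rfl)
      · obtain ⟨ρ', rfl, hρ', -⟩ := hg p' hp'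
        rcases h.chain _ hp _ hp' with h1 | h1
        · exact sd_chain hρ' m1 m2 (bx_mono (Cel.gr_le_gr.1 h1) (ctr_bx ρ))
        · rw [mul_comm]
          exact sd_chain hρ m1 m2 (bx_mono (Cel.gr_le_gr.1 h1) (ctr_bx ρ')))
  have hsum : ∀ {W : Set (I → ℝ)}, Convex ℝ W → R ⊆ W →
      (1 - κ) • co P b m t + κ • ∑ p ∈ l.support, l p • cc p ∈ W := by
    intro W hW hRW
    have h1 : ∑ p ∈ l.support, l p • cc p ∈ W :=
      hW.sum_mem (fun p _ => h.nn p) h.sum fun p hp => hRW (Or.inr ⟨p, hp, rfl⟩)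
    exact hW (hRW (Or.inl rfl)) h1 (by linarith [hκ.2]) hκ.1.le (by ring)
  have e1 := hsum (convex_bx q) hRq
  have e2 : Tq b m ((1 - κ) • co P b m t + κ • ∑ p ∈ l.support, l p • cc p) =
      pk (grid F hQ hne hm) κ l t := by
    rw [hT _ e1 (hsum hH hRH)]
    have k1 : t = B0 + Lin (co P b m t) := by
      rw [← hT _ hcoq (hRH (Or.inl rfl)), Tq_co_of_mem F hQ hm (h.mem _ hp0)]
    have k2 : ∀ p ∈ l.support, (grid F hQ hne hm).b p = B0 + Lin (cc p) := by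
      intro p hp
      have h2 := hT _ (hRq (Or.inr ⟨p, hp, rfl⟩)) (hRH (Or.inr ⟨p, hp, rfl⟩))
      rw [← h2]
      obtain ⟨ρ, rfl, hρ, -⟩ := hg p hp
      rfl
    have k3 : bs (grid F hQ hne hm).b l = B0 + Lin (∑ p ∈ l.support, l p • cc p) := by
      unfold bs
      rw [Finset.sum_congr rfl fun p hp => by rw [k2 p hp, smul_add], Finset.sum_add_distrib,
        ← Finset.sum_smul, h.sum, one_smul, map_sum]
      simp only [map_smul]
    unfold pk
    rw [k3]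
    conv_rhs => rw [k1]
    rw [map_add, map_smul, map_smul]
    module
  refine ⟨e1, e2, ?_⟩
  rw [← e2, co_Tq F hQ hm (q.bx_sub hm e1)]

end foam

end Crest.Agent.R096.Bin_181
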