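import Crest.Agent.R096.Bin7_181

/-!
# R096 (row 96), BASE-INV, part 8 (helper181): clamps; real boxes with ends inside the plateaus
(315 #10174)
-/

set_option autoImplicit false
set_option linter.unusedSectionVars false

open Set Metric

namespace Crest.Agent.R096.Bin_181

open Crest.Agent.R096.Ce_537 Crest.Agent.R096.Bd_416 Crest.Agent.R096.Xp_537
open Crest.Agent.R096.Brk1_582 Crest.Agent.R096.Brk2_582 Crest.Agent.R096.Brk6_582
open Crest.Agent.R096.Grd_714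

variable {E : Type*} [NormedAddCommGroup E] [NormedSpace ℝ E] {I : Type*}
variable {b : Set I → E} {P : I → Set E} {m : I → ℕ}

section foam

variable {La : Set E} [CompleteSpace E] (F : Foam La P b 4) (hQ : Quads P b)
  (hne : ∀ c, (P c).Nonempty) (hm : ∀ c, 0 < m c)
variable {κ : ℝ} (hκ : 0 < κ ∧ κ < 1) (c : Cel P m)

include hκ in
lemma co_eq {q : Gx P m} {y : E} (hy : y ∈ (grid F hQ hne hm).cell (.gr q)) :
    co P b m y = (1 - κ) • co P b m (st (grid F hQ hne hm) κ y) +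
      κ • ∑ p ∈ (sl (grid F hQ hne hm) κ y).support, sl (grid F hQ hne hm) κ y p • cc p := by
  obtain ⟨h1, h2, h3⟩ := st_spec (grid F hQ hne hm) hκ hy
  have := (co_pk F hQ hne hm hκ h1 h3).2.2
  rwa [h2] at this

include hκ in
/-- **free directions**: `v = (1-κ) t + κ (lo + 1/2)` -/
lemma clampA {q : Gx P m} {y : E} (hy : y ∈ (grid F hQ hne hm).cell (.gr q)) {a : I}
    (hB : y ∈ (ek (grid F hQ hne hm) b κ c).B a) :
    a ∈ q.free ∧ ((q.lo a : ℝ) ≤ co P b m (st (grid F hQ hne hm) κ y) a ∧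
      co P b m (st (grid F hQ hne hm) κ y) a ≤ q.lo a + 1) ∧
      co P b m y a = (1 - κ) * co P b m (st (grid F hQ hne hm) κ y) a +
        κ * (q.lo a + 1/2) := by
  obtain ⟨q0, e0, h0, hs0, ht, hp⟩ := ek_spec F hQ hne hm hκ c hy
  obtain ⟨h1, h2⟩ := ek_lev F hQ hne hm hκ c hy hB
  have hB0 : a ∈ q0.free := by
    have hB' : a ∈ fr (mn c (sl (grid F hQ hne hm) κ y)) := hB
    rw [e0] at hB'; exact hB'
  have h3 : q.lo a = q0.lo a := lo_eq_of_le h0 hB0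
  have h4 := co_mem F hQ hm ht a
  have h5 : (q0.hi a : ℝ) = q0.lo a + 1 := by exact_mod_cast Gx.hi_eq hB0
  refine ⟨h1, by rw [h3]; constructor <;> linarith [h4.1, h4.2], ?_⟩
  have h6 := (st_spec (grid F hQ hne hm) hκ hy).1
  have e1 := congrFun (co_eq F hQ hne hm hκ hy) a
  simp only [Pi.add_apply, Pi.smul_apply, smul_eq_mul, Finset.sum_apply] at e1
  rw [e1]
  have e2 : ∑ p ∈ (sl (grid F hQ hne hm) κ y).support,
      sl (grid F hQ hne hm) κ y p * cc p a = (q.lo a : ℝ) + 1/2 := by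
    have e3 : ∀ p ∈ (sl (grid F hQ hne hm) κ y).support,
        sl (grid F hQ hne hm) κ y p * cc p a
          = sl (grid F hQ hne hm) κ y p * ((q.lo a : ℝ) + 1/2) := by
      intro p hp'
      obtain ⟨ρ, rfl, k1, k2⟩ := hp p hp'
      congr 1
      have k3 : a ∈ ρ.free := free_mono k1 hB0
      have k4 : (ρ.hi a : ℝ) = ρ.lo a + 1 := by exact_mod_cast Gx.hi_eq k3
      have k5 : q.lo a = ρ.lo a := lo_eq_of_le k2 k3
      show ((ρ.lo a : ℝ) + ρ.hi a) / 2 = _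
      rw [k4, k5]; ring
    rw [Finset.sum_congr rfl e3, ← Finset.sum_mul, h6.sum, one_mul]
  rw [e2]

include hκ in
/-- **plateaus**: `t` is an integer and `|v - t| < κ/2` -/
lemma clampB {q : Gx P m} {y : E} (hy : y ∈ (grid F hQ hne hm).cell (.gr q)) {a : I}
    (hB : y ∉ (ek (grid F hQ hne hm) b κ c).B a) :
    ∃ k : ℕ, q.lo a ≤ k ∧ k ≤ q.hi a ∧ co P b m (st (grid F hQ hne hm) κ y) a = k ∧
      |co P b m y a - k| < κ / 2 := by
  obtain ⟨q0, e0, h0, hs0, ht, hp⟩ := ek_spec F hQ hne hm hκ c hy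
  have hB0 : a ∉ q0.free := by
    intro h
    apply hB
    show a ∈ fr (mn c (sl (grid F hQ hne hm) κ y))
    rw [e0]; exact h
  have h4 := Gx.eq_of_mem hB0 (co_mem F hQ hm ht)
  have h7 := h0 a
  have h8 := q0.le a
  refine ⟨q0.hi a, by omega, h7.2, h4, ?_⟩
  have h6 := (st_spec (grid F hQ hne hm) hκ hy).1
  have e1 := congrFun (co_eq F hQ hne hm hκ hy) a
  simp only [Pi.add_apply, Pi.smul_apply, smul_eq_mul, Finset.sum_apply] at e1
  rw [e1, h4]
  -- the deviations of the centres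
  have e3 : ∀ p ∈ (sl (grid F hQ hne hm) κ y).support, |cc p a - q0.hi a| ≤ 1/2 := by
    intro p hp'
    obtain ⟨ρ, rfl, k1, k2⟩ := hp p hp'
    have k6 : ((q0.hi a : ℕ) : ℝ) ≤ ρ.hi a := by exact_mod_cast (k1 a).2
    have k7 : (ρ.lo a : ℝ) ≤ q0.hi a := by
      have := (k1 a).1
      exact_mod_cast this.trans h8
    have k8 : (ρ.hi a : ℝ) ≤ ρ.lo a + 1 := by exact_mod_cast ρ.le1 a
    show |((ρ.lo a : ℝ) + ρ.hi a) / 2 - q0.hi a| ≤ 1/2
    rw [abs_le]; constructor <;> linarith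
  have e4 : cc (Cel.gr q0) a = q0.hi a := Gx.eq_of_mem hB0 (ctr_bx q0)
  have e5 : (1 - κ) * (q0.hi a : ℝ) + κ * ∑ p ∈ (sl (grid F hQ hne hm) κ y).support,
      sl (grid F hQ hne hm) κ y p * cc p a - q0.hi a
      = κ * ∑ p ∈ (sl (grid F hQ hne hm) κ y).support,
        sl (grid F hQ hne hm) κ y p * (cc p a - q0.hi a) := by
    simp only [mul_sub, Finset.sum_sub_distrib]
    rw [← Finset.sum_mul, h6.sum]; ring
  rw [e5, abs_mul, abs_of_pos hκ.1]
  have e6 : |∑ p ∈ (sl (grid F hQ hne hm) κ y).support,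
        sl (grid F hQ hne hm) κ y p * (cc p a - q0.hi a)| < 1/2 := by
    have hs0' : 0 < sl (grid F hQ hne hm) κ y (.gr q0) :=
      lt_of_le_of_ne (h6.nn _) (Ne.symm (Finsupp.mem_support_iff.1 hs0))
    classical
    rw [← Finset.add_sum_erase _ _ hs0, e4, sub_self, mul_zero, zero_add]
    have e7 : sl (grid F hQ hne hm) κ y (.gr q0) +
        ∑ p ∈ (sl (grid F hQ hne hm) κ y).support.erase (.gr q0),
          sl (grid F hQ hne hm) κ y p = 1 := by
      rw [Finset.add_sum_erase _ _ hs0, h6.sum]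
    have e8 : |∑ p ∈ (sl (grid F hQ hne hm) κ y).support.erase (.gr q0),
        sl (grid F hQ hne hm) κ y p * (cc p a - q0.hi a)| ≤
        ∑ p ∈ (sl (grid F hQ hne hm) κ y).support.erase (.gr q0),
          sl (grid F hQ hne hm) κ y p * (1/2) := by
      refine (Finset.abs_sum_le_sum_abs _ _).trans (Finset.sum_le_sum fun p hp' => ?_)
      rw [abs_mul, abs_of_nonneg (h6.nn p)]
      exact mul_le_mul_of_nonneg_left (e3 p (Finset.mem_of_mem_erase hp')) (h6.nn p)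
    rw [← Finset.sum_mul] at e8
    linarith
  calc κ * _ < κ * (1/2) := mul_lt_mul_of_pos_left e6 hκ.1
    _ = κ / 2 := by ring

open Classical in
include hκ in
/-- **the transports in level coordinates** -/
lemma co_tr {q : Gx P m} {y : E} (hy : y ∈ (grid F hQ hne hm).cell (.gr q)) {a : I}
    (hB : y ∈ (ek (grid F hQ hne hm) b κ c).B a) {s : ℝ} (hs : s ∈ I2) :
    co P b m ((ek (grid F hQ hne hm) b κ c).tr a (y, s)) =
      Function.update (co P b m y) a (q.lo a + 1/2 + (1 - κ) * s) := by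
  obtain ⟨h1, h2, h3, h4⟩ := tr_spec F hQ hne hm hκ c hy hB hs
  obtain ⟨k1, k2, k3⟩ := clampA F hQ hne hm hκ c hy hB
  have k4 := (ek_lev F hQ hne hm hκ c hy hB).2
  rw [co_eq F hQ hne hm hκ h1, h3, h2, k4]
  funext d
  by_cases hd : d = a
  · subst hd
    have e1 := congrFun (co_eq F hQ hne hm hκ hy) d
    simp only [Pi.add_apply, Pi.smul_apply, smul_eq_mul, Function.update_self] at e1 ⊢
    rw [k3] at e1
    linarith
  · have e1 := congrFun (co_eq F hQ hne hm hκ hy) d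
    simp only [Pi.add_apply, Pi.smul_apply, smul_eq_mul, Function.update_of_ne hd] at e1 ⊢
    rw [e1]

/-! ### real boxes -/

/-- real boxes in level coordinates -/
def bxR (P : I → Set E) (b : Set I → E) (m : I → ℕ) (L H : I → ℝ) : Set E :=
  Tq b m '' {g | g ∈ G2 P m ∧ ∀ c, L c ≤ g c ∧ g c ≤ H c}

lemma bxR_cast (L H : I → ℕ) : bxR P b m (fun a => (L a : ℝ)) (fun a => (H a : ℝ)) =
    bxS P b m L H := rfl

/-- the part in a grid cell -/
def bxq (P : I → Set E) (b : Set I → E) (m : I → ℕ) (L H : I → ℝ) (q : Gx P m) : Set E :=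
  {y | y ∈ Tq b m '' q.bx ∧ ∀ c, L c ≤ co P b m y c ∧ co P b m y c ≤ H c}

include F hQ hm in
lemma bxR_eq {L H : I → ℝ} {c0 : I} (h0 : H c0 = 0) :
    bxR P b m L H = ⋃ q ∈ {q : Gx P m | ∃ c ∈ ({c0} : Set I), q.hi c = 0}, bxq P b m L H q := by
  apply Subset.antisymm
  · rintro _ ⟨g, ⟨hg, hb⟩, rfl⟩
    have hg0 : g c0 = 0 := le_antisymm (by rw [← h0]; exact (hb c0).2) (G2_nonneg hm hg c0)
    refine mem_iUnion₂.2 ⟨flb hm g hg, ⟨c0, rfl, ?_⟩, ⟨g, mem_flb hm hg, rfl⟩, ?_⟩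
    · show ⌈g c0⌉₊ = 0
      rw [hg0, Nat.ceil_zero]
    · rw [co_Tq F hQ hm hg]; exact hb
  · intro y hy
    obtain ⟨q, -, ⟨g, hg, rfl⟩, hb⟩ := mem_iUnion₂.1 hy
    rw [co_Tq F hQ hm (q.bx_sub hm hg)] at hb
    exact ⟨g, ⟨q.bx_sub hm hg, hb⟩, rfl⟩

include F hQ hm in
lemma bxq_closed {L H : I → ℝ} (q : Gx P m) : IsClosed (bxq P b m L H q) := by
  have hc : IsClosed (Tq b m '' q.bx) := (cell_spec F hQ hm q).2.2.1.cpt.isClosed
  have h1 : bxq P b m L H q = (Tq b m '' q.bx) ∩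
      ⋂ a : I, (Tq b m '' q.bx) ∩ (fun y => co P b m y a) ⁻¹' (Icc (L a) (H a)) := by
    ext y
    simp only [bxq, mem_inter_iff, mem_iInter]
    constructor
    · rintro ⟨h, h'⟩; exact ⟨h, fun a => ⟨h, h' a⟩⟩
    · rintro ⟨h, h'⟩; exact ⟨h, fun a => (h' a).2⟩
  rw [h1]
  exact hc.inter (isClosed_iInter fun a =>
    (plOn_co F hQ hm q a).1.preimage_isClosed_of_isClosed hc isClosed_Icc)

variable {L H : I → ℝ} {rL rH : I → ℕ}

include hκ in
/-- the levels of a point on a band -/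
lemma band_le {q : Gx P m} {y : E} (hy : y ∈ (grid F hQ hne hm).cell (.gr q)) {a : I}
    (hL : |L a - rL a| < κ / 2) (hH : |H a - rH a| < κ / 2)
    (hb : L a ≤ co P b m y a ∧ co P b m y a ≤ H a)
    (hB : y ∈ (ek (grid F hQ hne hm) b κ c).B a) : rL a ≤ q.lo a ∧ q.lo a + 1 ≤ rH a := by
  obtain ⟨k1, k2, k3⟩ := clampA F hQ hne hm hκ c hy hB
  obtain ⟨l1, l2⟩ := abs_lt.1 hL
  obtain ⟨r1, r2⟩ := abs_lt.1 hH
  have hk : 0 < 1 - κ := by linarith [hκ.2]
  have u1 : (1 - κ) * co P b m (st (grid F hQ hne hm) κ y) a ≤ (1 - κ) * (q.lo a + 1) :=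
    mul_le_mul_of_nonneg_left k2.2 hk.le
  have u2 : (1 - κ) * (q.lo a : ℝ) ≤ (1 - κ) * co P b m (st (grid F hQ hne hm) κ y) a :=
    mul_le_mul_of_nonneg_left k2.1 hk.le
  constructor
  · have : (rL a : ℝ) < q.lo a + 1 := by nlinarith [hb.1]
    have : rL a < q.lo a + 1 := by exact_mod_cast this
    omega
  · have : (q.lo a : ℝ) < rH a := by nlinarith [hb.2]
    have : q.lo a < rH a := by exact_mod_cast this
    omega

include hκ in
/-- **`E_κ` on a real box with ends in the open plateaus** -/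
theorem ek_is_bxR [FiniteDimensional ℝ E] (hL : ∀ a, |L a - rL a| < κ / 2)
    (hH : ∀ a, |H a - rH a| < κ / 2) {c0 : I} (h0 : H c0 = 0) :
    (ek (grid F hQ hne hm) b κ c).Is (bxR P b m L H) := by
  classical
  rw [bxR_eq F hQ hm h0]
  refine Gd.Is.biUnion (finite_Gx_of_mem F hm (finite_singleton c0)) (fun q _ => ?_)
    (fun q _ => bxq_closed F hQ hm q)
  refine (ek_is F hQ hne hm hκ c q).restrict (fun y hy => hy.1) (bxq_closed F hQ hm q)
    fun a y hy hB s hs => ?_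
  have hyq : y ∈ (grid F hQ hne hm).cell (.gr q) := hy.1
  refine ⟨(tr_spec F hQ hne hm hκ c hyq hB hs).1, fun d => ?_⟩
  rw [co_tr F hQ hne hm hκ c hyq hB hs]
  by_cases hd : d = a
  · subst hd
    rw [Function.update_self]
    obtain ⟨b1, b2⟩ := band_le F hQ hne hm hκ c hyq (hL d) (hH d) (hy.2 d) hB
    obtain ⟨l1, l2⟩ := abs_lt.1 (hL d)
    obtain ⟨r1, r2⟩ := abs_lt.1 (hH d)
    have b1' : (rL d : ℝ) ≤ q.lo d := by exact_mod_cast b1
    have b2' : (q.lo d : ℝ) + 1 ≤ rH d := by exact_mod_cast b2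
    have hk : 0 < 1 - κ := by linarith [hκ.2]
    have s1 := mul_le_mul_of_nonneg_left hs.1 hk.le
    have s2 := mul_le_mul_of_nonneg_left hs.2 hk.le
    constructor <;> linarith
  · rw [Function.update_of_ne hd]; exact hy.2 d

include F hQ hm in
lemma mem_bxR {L H : I → ℝ} {y : E} (hy : y ∈ bxR P b m L H) :
    (∃ q : Gx P m, y ∈ (grid F hQ hne hm).cell (.gr q)) ∧
      ∀ c, L c ≤ co P b m y c ∧ co P b m y c ≤ H c := by
  obtain ⟨g, ⟨hg, hb⟩, rfl⟩ := hy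
  refine ⟨⟨flb hm g hg, g, mem_flb hm hg, rfl⟩, ?_⟩
  rw [co_Tq F hQ hm hg]; exact hb

include hκ in
lemma ekR_G (hL : ∀ a, |L a - rL a| < κ / 2) (hH : ∀ a, |H a - rH a| < κ / 2) {y : E}
    (hy : y ∈ bxR P b m L H) (a : I) : (rL a : ℝ) ≤ (ek (grid F hQ hne hm) b κ c).G a y ∧
      (ek (grid F hQ hne hm) b κ c).G a y ≤ rH a := by
  obtain ⟨⟨q, hyq⟩, hb⟩ := mem_bxR F hQ hne hm hy
  show (rL a : ℝ) ≤ co P b m (st (grid F hQ hne hm) κ y) a ∧
    co P b m (st (grid F hQ hne hm) κ y) a ≤ rH a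
  by_cases hB : y ∈ (ek (grid F hQ hne hm) b κ c).B a
  · obtain ⟨b1, b2⟩ := band_le F hQ hne hm hκ c hyq (hL a) (hH a) (hb a) hB
    obtain ⟨k1, k2, k3⟩ := clampA F hQ hne hm hκ c hyq hB
    have b1' : (rL a : ℝ) ≤ q.lo a := by exact_mod_cast b1
    have b2' : (q.lo a : ℝ) + 1 ≤ rH a := by exact_mod_cast b2
    constructor <;> linarith [k2.1, k2.2]
  · obtain ⟨k, k1, k2, k3, k4⟩ := clampB F hQ hne hm hκ c hyq hB
    obtain ⟨l1, l2⟩ := abs_lt.1 (hL a)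
    obtain ⟨r1, r2⟩ := abs_lt.1 (hH a)
    obtain ⟨v1, v2⟩ := abs_lt.1 k4
    have hb1 := (hb a).1
    have hb2 := (hb a).2
    have h1 : (rL a : ℝ) < k + 1 := by linarith [hκ.2]
    have h2 : (k : ℝ) < rH a + 1 := by linarith [hκ.2]
    have h1' : rL a < k + 1 := by exact_mod_cast h1
    have h2' : k < rH a + 1 := by exact_mod_cast h2
    rw [k3]
    exact ⟨by exact_mod_cast Nat.lt_succ_iff.1 h1', by exact_mod_cast Nat.lt_succ_iff.1 h2'⟩

include hκ in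
lemma ekR_lev (hL : ∀ a, |L a - rL a| < κ / 2) (hH : ∀ a, |H a - rH a| < κ / 2) {y : E}
    (hy : y ∈ bxR P b m L H) {a : I} (hB : y ∈ (ek (grid F hQ hne hm) b κ c).B a) {k : ℕ}
    (hk : (ek (grid F hQ hne hm) b κ c).lev a y = k) : rL a ≤ k ∧ k < rH a := by
  obtain ⟨⟨q, hyq⟩, hb⟩ := mem_bxR F hQ hne hm hy
  obtain ⟨b1, b2⟩ := band_le F hQ hne hm hκ c hyq (hL a) (hH a) (hb a) hB
  obtain ⟨h1, h2⟩ := ek_lev F hQ hne hm hκ c hyq hB
  have h3 : ((lo (mn c (sl (grid F hQ hne hm) κ y)) a : ℕ) : ℝ) = k := hk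
  rw [h2] at h3
  have h4 : q.lo a = k := by exact_mod_cast h3
  omega

end foam

/-! ### sheets on real boxes -/

section sheets

variable {V : Type*} [NormedAddCommGroup V] [NormedSpace ℝ V] {J : Type*}
variable {La : Set E} [CompleteSpace E] (F : Foam La P b 4) (hQ : Quads P b)
  (hne : ∀ c, (P c).Nonempty) (hm : ∀ c, 0 < m c)
variable {κ : ℝ} (hκ : 0 < κ ∧ κ < 1) (c : Cel P m) {fa : J → I} {lv : J → ℕ} {S : Set V}
  {T : Set E} (e : PLEquiv S T) {L H : I → ℝ} {rL rH : I → ℕ}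
  (hL : ∀ a, |L a - rL a| < κ / 2) (hH : ∀ a, |H a - rH a| < κ / 2)

include hκ hL hH

theorem ekSR_is [FiniteDimensional ℝ E] (hinj : ∀ j j', fa j = fa j' → lv j = lv j' → j = j')
    {A : Set V} (hA : A ⊆ S) (hAc : IsClosed A) (hB : e.f '' A = bxR P b m L H)
    {c0 : I} (h0 : H c0 = 0) : (ekS (grid F hQ hne hm) b κ c fa lv e).Is A := by
  have h1 := is_spl (ek_is_bxR F hQ hne hm hκ c hL hH h0) (fa := fa)
    (lv := fun j => (lv j : ℤ)) (fun j j' h h' => hinj j j' h (by exact_mod_cast h'))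
  exact is_pulg h1 hAc (restr e hA hB)

lemma ekSR_low {A : Set V} (hB : e.f '' A = bxR P b m L H) {j : J}
    (h : lv j < rL (fa j)) {z : V} (hz : z ∈ A) :
    (ekS (grid F hQ hne hm) b κ c fa lv e).G j z = 1 := by
  have h1 : e.f z ∈ bxR P b m L H := by rw [← hB]; exact ⟨z, hz, rfl⟩
  have h2 := (ekR_G F hQ hne hm hκ c hL hH h1 (fa j)).1
  have h3 : (lv j : ℝ) + 1 ≤ rL (fa j) := by exact_mod_cast h
  rw [ekS_G, cl_of_ge (by linarith)]; norm_num

lemma ekSR_high {A : Set V} (hB : e.f '' A = bxR P b m L H) {j : J}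
    (h : rH (fa j) ≤ lv j) {z : V} (hz : z ∈ A) :
    (ekS (grid F hQ hne hm) b κ c fa lv e).G j z = 0 := by
  have h1 : e.f z ∈ bxR P b m L H := by rw [← hB]; exact ⟨z, hz, rfl⟩
  have h2 := (ekR_G F hQ hne hm hκ c hL hH h1 (fa j)).2
  have h3 : (rH (fa j) : ℝ) ≤ lv j := by exact_mod_cast h
  rw [ekS_G, cl_of_le (by linarith)]; norm_num

lemma ekSR_mem {A : Set V} (hB : e.f '' A = bxR P b m L H) {j : J} {z : V}
    (hz : z ∈ A) (hj : z ∈ (ekS (grid F hQ hne hm) b κ c fa lv e).B j) :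
    rL (fa j) ≤ lv j ∧ lv j < rH (fa j) := by
  have h1 : e.f z ∈ bxR P b m L H := by rw [← hB]; exact ⟨z, hz, rfl⟩
  rw [ekS_B] at hj
  exact ekR_lev F hQ hne hm hκ c hL hH h1 hj.1 hj.2

omit hL hH in
/-- the other sheets of the same direction on a band -/
lemma ekSR_other {z : V} {q : Gx P m} (hy : e.f z ∈ (grid F hQ hne hm).cell (.gr q)) {j j' : J}
    (hf : fa j = fa j') (hl : lv j ≠ lv j')
    (hj : z ∈ (ekS (grid F hQ hne hm) b κ c fa lv e).B j) :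
    (ekS (grid F hQ hne hm) b κ c fa lv e).G j' z = if lv j' < lv j then 1 else 0 := by
  rw [ekS_B] at hj
  obtain ⟨q0, e0, h0, hs0, ht, hp⟩ := ek_spec F hQ hne hm hκ c hy
  have h2 : fa j ∈ q0.free := by
    have : fa j ∈ fr (mn c (sl (grid F hQ hne hm) κ (e.f z))) := hj.1
    rw [e0] at this; exact this
  have h3 : q0.lo (fa j) = lv j := by
    have : ((lo (mn c (sl (grid F hQ hne hm) κ (e.f z))) (fa j) : ℕ) : ℝ) = lv j := hj.2
    rw [e0] at this; exact_mod_cast this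
  have h4 := co_mem F hQ hm ht (fa j)
  have h5 : (q0.hi (fa j) : ℝ) = q0.lo (fa j) + 1 := by exact_mod_cast Gx.hi_eq h2
  rw [h5, h3] at h4
  rw [ekS_G, ← hf]
  show 1/2 + cl (co P b m (st (grid F hQ hne hm) κ (e.f z)) (fa j) - lv j' - 1/2) = _
  rcases lt_or_gt_of_ne hl with h | h
  · have h6 : (lv j : ℝ) + 1 ≤ lv j' := by exact_mod_cast h
    rw [if_neg (by omega), cl_of_le (by linarith [h4.2])]; norm_num
  · have h6 : (lv j' : ℝ) + 1 ≤ lv j := by exact_mod_cast h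
    rw [if_pos h, cl_of_ge (by linarith [h4.1])]; norm_num

end sheets

/-! ### `Inv` -/

section inv

variable {V : Type*} [NormedAddCommGroup V] [NormedSpace ℝ V] {Q : Type} [PartialOrder Q]
  {dim : Q → ℕ} {J Fam : Type} {Cm : Cmb Q dim J Fam} {K : Q → Set V} {D : Set Q}
variable {La : Set E} [CompleteSpace E] [FiniteDimensional ℝ E] (F : Foam La P b 4)
  (hQ : Quads P b) (hne : ∀ c, (P c).Nonempty) (hm : ∀ c, 0 < m c)
variable {κ : ℝ} (hκ : 0 < κ ∧ κ < 1) (c : Cel P m) (fa : J → I) (lv : J → ℕ) {S : Set V}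
  {T : Set E} (e : PLEquiv S T)

include hκ in
/-- **BASE-INV, real boxes** -/
theorem inv_base_R (hinj : ∀ j j', fa j = fa j' → lv j = lv j' → j = j')
    (hD : ∀ q ∈ D, ∀ p < q, p ∈ D) (sub : ∀ {p q : Q}, p < q → q ∈ D → K p ⊆ K q)
    (hKc : ∀ q ∈ D, IsClosed (K q)) (hKS : ∀ q ∈ D, K q ⊆ S) (L H : Q → I → ℝ)
    (rL rH : Q → I → ℕ) (hL : ∀ q ∈ D, ∀ a, |L q a - rL q a| < κ / 2)
    (hH : ∀ q ∈ D, ∀ a, |H q a - rH q a| < κ / 2)
    (hKe : ∀ q ∈ D, e.f '' K q = bxR P b m (L q) (H q)) (h0 : ∀ q ∈ D, ∃ c0, H q c0 = 0)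
    (one : ∀ q ∈ D, ∀ x x' : Cm.I q, Cm.col q x = Cm.col q x' → x = x')
    (ex : ∀ q ∈ D, ∀ j, rL q (fa j) ≤ lv j → lv j < rH q (fa j) → ∃ x, Cm.col q x = j)
    (hfam : ∀ j j', Cm.fam j = Cm.fam j' → fa j = fa j')
    (lab1 : ∀ q ∈ D, ∀ j, (∀ x, Cm.col q x ≠ j) → lv j < rL q (fa j) → Cm.Lab j q = 1)
    (lab0' : ∀ q ∈ D, ∀ j, (∀ x, Cm.col q x ≠ j) → rH q (fa j) ≤ lv j → Cm.Lab j q = 0)
    (sd : ∀ q ∈ D, ∀ x x', x ≠ x' → Cm.fam (Cm.col q x) = Cm.fam (Cm.col q x') →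
      Cm.side q x x' = Cm.Lab (Cm.col q x') q +
        if lv (Cm.col q x') < lv (Cm.col q x) then 1 else 0) :
    Inv Cm K D (ekS (grid F hQ hne hm) b κ c fa lv e)
      (fun q x => K q ∩ (ekS (grid F hQ hne hm) b κ c fa lv e).B (Cm.col q x))
      (fun q x z => sg (Cm.Lab (Cm.col q x) q) *
        ((ekS (grid F hQ hne hm) b κ c fa lv e).G (Cm.col q x) z - 1/2)) := by
  refine Inv.of_simple hD (fun q hq => ?_) sub (fun q hq j z hz => ekS_G01 F hQ hne hm c e j z)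
    one (fun q hq j hj z hz => ⟨?_, fun hB => ?_⟩) (fun q hq j j' hne' hf z hz hB hB' => ?_)
    (fun q hq x x' hne' hf z hz hB => ?_)
  · obtain ⟨c0, h0⟩ := h0 q hq
    exact ekSR_is F hQ hne hm hκ c e (hL q hq) (hH q hq) hinj (hKS q hq) (hKc q hq) (hKe q hq) h0
  · rcases lt_or_ge (lv j) (rL q (fa j)) with h | h
    · rw [ekSR_low F hQ hne hm hκ c e (hL q hq) (hH q hq) (hKe q hq) h hz, lab1 q hq j hj h,
        lab0_eq]; simp; norm_num
    · rcases lt_or_ge (lv j) (rH q (fa j)) with h' | h'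
      · obtain ⟨x, hx⟩ := ex q hq j h h'
        exact absurd hx (hj x)
      · rw [ekSR_high F hQ hne hm hκ c e (hL q hq) (hH q hq) (hKe q hq) h' hz,
          lab0' q hq j hj h', lab0_eq]; simp
  · obtain ⟨h1, h2⟩ := ekSR_mem F hQ hne hm hκ c e (hL q hq) (hH q hq) (hKe q hq) hz hB
    obtain ⟨x, hx⟩ := ex q hq j h1 h2
    exact hj x hx
  · rw [ekS_B] at hB hB'
    have hfa := hfam j j' hf
    apply hne'
    refine hinj j j' hfa ?_
    have h1 := hB.2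
    rw [hfa, hB'.2] at h1
    exact_mod_cast h1.symm
  · have hcol : Cm.col q x ≠ Cm.col q x' := fun h => hne' (one q hq x x' h)
    have hfa := hfam _ _ hf
    have h1 : e.f z ∈ bxR P b m (L q) (H q) := by rw [← hKe q hq]; exact ⟨z, hz, rfl⟩
    obtain ⟨⟨q', hyq⟩, -⟩ := mem_bxR F hQ hne hm h1
    rw [ekSR_other F hQ hne hm hκ c e hyq hfa (fun h => hcol (hinj _ _ hfa h)) hB,
      sd q hq x x' hne' hf, sg_add, ← mul_assoc, sg_sq, one_mul]
    split_ifs <;> (simp; try norm_num)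

end inv

end Crest.Agent.R096.Bin_181
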