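import Crest.Agent.R096.Br3_695

/-!
Row 96 (S0127), helper695.  Foams with constant size on compact sets; `ExIn` for the bricks inside a good
cube.
-/

set_option autoImplicit false
set_option linter.unusedSectionVars false
set_option linter.style.longLine false

open MeasureTheory Set Filter Metric Module
open scoped ENNReal NNReal Topology

namespace Crest.Agent.R096.Br_695

open Crest.AnalysisR.VecCalc3 Crest.AnalysisR.Sobolev
open Crest.Agent.R96.Lu_538 Crest.Agent.R96.Intr_538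
open Crest.Agent.R96.Coarse_538 hiding E3
open Crest.Agent.R096.Sk_962 (SH)
open Crest.Agent.R096.Bsp_628
open Crest.Agent.R096.Bxs_627 hiding E3
open Crest.Agent.R96.En10_199
open Crest.Agent.R096.SkC1_961 (E3 Hom3)
open Crest.Agent.R096.Er_594 (e3 D3)
open Crest.Agent.R096.EaX_766 (cbx lin RatA ExIn Kor)
open Crest.Agent.R096.Fil_313 (aff3 affR)
open Crest.Agent.R096.ThC6_766 (Scale)
open Crest.Agent.R096.Brk5_582 (Cmp)

noncomputable section

/-- the structural constant of the foam -/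
def δf : ℝ := min (dl (Fin 3) 3 / 2) (1 / 3)

theorem δf_pos : 0 < δf := lt_min (by have := dl_pos (κ := Fin 3) 3; positivity) (by norm_num)

/-- **foam with constant size where `w` is large.** -/
theorem exists_foam_t {La : Set E3} (hb : Bornology.IsBounded La) {w : E3 → ℝ} (hw : Scale La w)
    {t : ℝ} (ht : 0 < t) (ht1 : t ≤ 1) {M : ℝ} (hM : 4 / dl (Fin 3) 3 ≤ M) (hM2 : 2 ≤ M) :
    ∃ F : Set (Bx (Fin 3)), BoxFoam La F δf 3 ∧ Cmp F 6 ∧ (∀ C ∈ F, Dy 0 1 M C) ∧
      (∀ C ∈ F, ∀ x ∈ C.set, C.sz ≤ min t (w x)) ∧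
      ∀ C ∈ F, ∀ x ∈ C.set, min t (w x) ≤ 6 * C.sz := by
  have hL : LipschitzWith 1 fun x => min t (w x) := by
    refine LipschitzWith.of_le_add fun x y => ?_
    have h1 := hw.lip x y
    rw [dist_eq_norm]
    have h2 := norm_nonneg (x - y)
    rcases le_total t (w y) with h | h
    · rw [min_eq_left h]
      exact (min_le_left _ _).trans (by linarith)
    · rw [min_eq_right h]
      exact (min_le_right _ _).trans (by linarith)
  obtain ⟨F, h1, h2, h3, h4⟩ := exists_foam_bounded_dy (κ := Fin 3) 0 (u := 1) one_pos hM hM2 hL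
    (La := La) (fun x => by
      constructor
      · intro h
        by_contra hx
        rw [hw.off x hx] at h
        exact absurd h (not_lt.2 (min_le_right _ _))
      · intro hx
        exact lt_min ht (hw.pos x hx)) hb
  have h3' : ∀ C ∈ F, ∀ x ∈ C.set, min t (w x) ≤ 6 * C.sz := by
    intro C hC x hx
    have h5 := h3 C hC x hx
    rw [min_eq_left ((min_le_left _ _).trans ht1)] at h5
    push_cast at h5
    linarith
  refine ⟨F, h1, ?_, h4, h2, h3'⟩
  rintro c c' ⟨x, hx, hx'⟩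
  exact (h2 _ c.2 x hx).trans (h3' _ c'.2 x hx')

theorem cbx_two_sub {c : Bx (Fin 3)} (hc : c.Pos) {A : E3 ≃ᵃ[ℝ] E3} {z : E3} {r r' N t : ℝ}
    (hsub : c.set ⊆ A '' closedBall z r) (hsz : c.sz ≤ t) (hN : 0 ≤ N)
    (hA : ∀ y y', ‖A.symm y - A.symm y'‖ ≤ N * ‖y - y'‖) (hr : r + N * t ≤ r') :
    cbx c 2 ⊆ A '' closedBall z r' := by
  intro y hy
  refine ⟨A.symm y, ?_, A.apply_symm_apply y⟩
  obtain ⟨u, hu, hu'⟩ := hsub (ctr_mem hc)
  have h1 : ‖y - ctr c‖ ≤ t := by
    have hs := Bx.sz_pos hc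
    refine le_trans ?_ hsz
    rw [pi_norm_le_iff_of_nonneg hs.le]
    intro k
    rw [Pi.sub_apply, Real.norm_eq_abs]
    refine (hy k).trans ?_
    have := c.side_le_sz k
    linarith
  have h2 := hA y (ctr c)
  rw [← hu', A.symm_apply_apply, hu'] at h2
  rw [mem_closedBall, dist_eq_norm] at hu ⊢
  calc ‖A.symm y - z‖ ≤ ‖A.symm y - u‖ + ‖u - z‖ := norm_sub_le_norm_sub_add_norm_sub _ _ _
    _ ≤ N * t + r := add_le_add (h2.trans (mul_le_mul_of_nonneg_left h1 hN)) hu
    _ ≤ r' := by linarith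

theorem det_le {L : E3 →L[ℝ] E3} {N : ℝ} (hN : 0 ≤ N) (h : ‖L‖ ≤ N) : |L.det| ≤ N ^ 3 := by
  have h1 := Measure.addHaar_image_continuousLinearMap (volume : Measure E3) L (closedBall 0 1)
  have h2 : L '' closedBall 0 1 ⊆ closedBall 0 N := by
    rintro _ ⟨x, hx, rfl⟩
    rw [mem_closedBall, dist_zero_right] at hx ⊢
    calc ‖L x‖ ≤ ‖L‖ * ‖x‖ := L.le_opNorm x
      _ ≤ N * 1 := by gcongr
      _ = N := mul_one N
  have h3 := measure_mono (μ := (volume : Measure E3)) h2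
  rw [h1, Real.volume_pi_closedBall _ zero_le_one, Real.volume_pi_closedBall _ hN,
    ← ENNReal.ofReal_mul (abs_nonneg _), ENNReal.ofReal_le_ofReal_iff (by positivity)] at h3
  simp only [Fintype.card_fin] at h3
  nlinarith

/-- **the exact core of a brick inside a good cube** -/
theorem exIn_of {p : ℝ} (hp : 1 ≤ p) {Om La : Set E3} (hL : IsOpen La) {f : E3 → E3}
    {D : E3 → E3 →L[ℝ] E3} (hf : Hom3 f Om La) {z : E3} {s σ η N r : ℝ} (hs : 0 < s) (hσ : 0 < σ)
    (hσ1 : 3 * σ ≤ 1) {A : E3 ≃ᵃ[ℝ] E3} (hN : 0 < N) (hsub : closedBall z s ⊆ Om) (hη0 : 0 < η)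
    (hη : N * η < σ) {K' : Set E3} (hA : GR p f D N η σ s r z K' A) {c : Bx (Fin 3)} (hc : c.Pos)
    {lam κ1 κ2 : ℝ} (hl : 0 < lam) (hl1 : (1 + 2 * κ2) * lam ≤ 2) (hκ2 : 0 ≤ κ2)
    (hin : cbx c 2 ⊆ A '' closedBall z ((1 - 2 * σ) * s)) (h1 : η * s ≤ κ1 * (lam * c.sz))
    (h2 : N ^ 3 * (N ^ p * (η * s ^ 3)) ≤ κ1 * (lam * c.sz) ^ 3) :
    ExIn p Om f D 0 1 κ1 κ2 c A lam := by
  have hp0 : 0 ≤ p := by linarith
  have hin1 : cbx c ((1 + 2 * κ2) * lam) ⊆ A '' closedBall z ((1 - 2 * σ) * s) :=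
    (cbx_mono hc hl1).trans hin
  have hin2 : cbx c lam ⊆ A '' closedBall z ((1 - 2 * σ) * s) :=
    (cbx_mono hc (by nlinarith)).trans hin1
  have hpre : A ⁻¹' cbx c ((1 + 2 * κ2) * lam) ⊆ closedBall z ((1 - 2 * σ) * s) := by
    intro x hx
    obtain ⟨u, hu, hux⟩ := hin1 hx
    rwa [A.injective hux] at hu
  refine ⟨hA.rat, ?_, ?_⟩
  · intro x hx
    have hx2 : x ∈ closedBall z ((1 - σ) * s) := by
      rcases hx with ⟨hxO, hx⟩ | hx
      · exact noint3 hL hf hs hσ hσ1 hN hA.inv hsub hη hA.c0 x hxO (hin2 hx)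
      · exact closedBall_subset_closedBall (by nlinarith) (hpre hx)
    exact ⟨hsub (closedBall_subset_closedBall (by nlinarith) hx2), (hA.c0 x hx2).trans h1⟩
  · have hinv : ‖lin A.symm‖ ≤ N := by
      refine ContinuousLinearMap.opNorm_le_bound _ hN.le fun v => ?_
      have h3 := hA.inv v 0
      rwa [← lin_apply, sub_zero] at h3
    have hpt : ∀ x, ‖(D x).comp (lin A.symm) - ContinuousLinearMap.id ℝ E3‖ₑ ^ p ≤
        ENNReal.ofReal (N ^ p) * ‖D x - lin A‖ₑ ^ p := by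
      intro x
      have h3 : (D x).comp (lin A.symm) - ContinuousLinearMap.id ℝ E3 =
          (D x - lin A).comp (lin A.symm) := by
        rw [ContinuousLinearMap.sub_comp]
        congr 1
        ext1 v
        have h4 := lin_apply A.symm v 0
        rw [sub_zero] at h4
        rw [ContinuousLinearMap.comp_apply, h4, lin_apply, A.apply_symm_apply, A.apply_symm_apply,
          sub_zero]
        rfl
      rw [h3]
      calc ‖(D x - lin A).comp (lin A.symm)‖ₑ ^ p ≤ (ENNReal.ofReal N * ‖D x - lin A‖ₑ) ^ p := by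
            apply ENNReal.rpow_le_rpow _ hp0
            rw [← ofReal_norm, ← ofReal_norm, ← ENNReal.ofReal_mul hN.le]
            apply ENNReal.ofReal_le_ofReal
            calc _ ≤ ‖D x - lin A‖ * ‖lin A.symm‖ := ContinuousLinearMap.opNorm_comp_le _ _
              _ ≤ ‖D x - lin A‖ * N := by gcongr
              _ = N * ‖D x - lin A‖ := mul_comm _ _
        _ = _ := by
            rw [ENNReal.mul_rpow_of_nonneg _ _ hp0, ENNReal.ofReal_rpow_of_nonneg hN.le hp0]
    calc ENNReal.ofReal |(lin A).det| * ∫⁻ x in A ⁻¹' cbx c ((1 + 2 * κ2) * lam),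
          ‖(D x).comp (lin A.symm) - ContinuousLinearMap.id ℝ E3‖ₑ ^ p
        ≤ ENNReal.ofReal (N ^ 3) * ∫⁻ x in closedBall z s,
            ENNReal.ofReal (N ^ p) * ‖D x - lin A‖ₑ ^ p := by
          refine mul_le_mul' (ENNReal.ofReal_le_ofReal (det_le hN.le hA.nrm)) ?_
          exact (lintegral_mono_set (hpre.trans (closedBall_subset_closedBall (by nlinarith)))).trans
            (lintegral_mono hpt)
      _ ≤ ENNReal.ofReal (N ^ 3) * (ENNReal.ofReal (N ^ p) * ENNReal.ofReal (η * s ^ 3)) := by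
          rw [lintegral_const_mul' _ _ ENNReal.ofReal_ne_top]
          gcongr
          exact hA.lp
      _ = ENNReal.ofReal (N ^ 3 * (N ^ p * (η * s ^ 3))) := by
          rw [← ENNReal.ofReal_mul (by positivity), ← ENNReal.ofReal_mul (by positivity)]
      _ ≤ ENNReal.ofReal (κ1 * (lam * c.sz) ^ 3) := ENNReal.ofReal_le_ofReal h2

theorem Kor_sub {F : Set (Bx (Fin 3))} {A : F → E3 ≃ᵃ[ℝ] E3} {lam : F → ℝ} {c : F} (hc : c.1.Pos)
    (hl : lam c ≤ 2) {z : E3} {r : ℝ} (hin : cbx c.1 2 ⊆ A c '' closedBall z r) :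
    Kor F A lam c ⊆ closedBall z r := by
  intro x hx
  obtain ⟨u, hu, hux⟩ := hin (cbx_mono hc hl hx)
  rwa [(A c).injective hux] at hu

theorem isClosed_cbx (Q : Bx (Fin 3)) (lam : ℝ) : IsClosed (cbx Q lam) := by
  rw [cbx_eq_bxc]; exact Crest.Agent.R096.Fil_313.isClosed_bxc _ _ _

theorem isClosed_Kor {F : Set (Bx (Fin 3))} {A : F → E3 ≃ᵃ[ℝ] E3} {lam : F → ℝ} (c : F) :
    IsClosed (Kor F A lam c) :=
  (isClosed_cbx _ _).preimage (A c).continuous_of_finiteDimensional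

/-- cores in different bricks are disjoint (same affine map, ratio `< 1`) -/
theorem cbx_disj {C C' : Bx (Fin 3)} (hC : C.Pos) (hC' : C'.Pos) {l : ℝ} (hl1 : l < 1)
    (h : ∃ k, C.hi k ≤ C'.lo k ∨ C'.hi k ≤ C.lo k) : Disjoint (cbx C l) (cbx C' l) := by
  rw [Set.disjoint_left]
  intro y hy hy'
  obtain ⟨k, hk⟩ := h
  have h1 := abs_le.1 (hy k)
  have h2 := abs_le.1 (hy' k)
  have h3 := ctr_lo C k
  have h4 := ctr_hi C k
  have h5 := ctr_lo C' k
  have h6 := ctr_hi C' k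
  have h7 := Bx.side_pos hC k
  have h8 := Bx.side_pos hC' k
  have h9 : l * C.side k < 1 * C.side k := mul_lt_mul_of_pos_right hl1 h7
  have h10 : l * C'.side k < 1 * C'.side k := mul_lt_mul_of_pos_right hl1 h8
  rcases hk with hk | hk <;> linarith [h1.1, h1.2, h2.1, h2.2]

end

end Crest.Agent.R096.Br_695
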