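import Crest.Agent.R096.Bk1_802
import Crest.Agent.R096.Wd17_120
import Crest.Agent.R096.Ea0_961
import Crest.Agent.R096.Br4_695

/-!
Row 96 (S0127), helper802.  [BLK] part 2: the block of a brick in a frame with a COMMON unit `u`.
`blkU` : 628's prism shell in 874's block, scale `kc`, frame `ψ = u⁻¹ A.linear`, `u = lam 2^kc w / m`;
**`blk_blkU`** : `Ea0_961.Blk`.
-/

set_option autoImplicit false
set_option linter.unusedSectionVars false
set_option linter.style.longLine false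

open Set

namespace Crest.Agent.R096.Bk_802

open Crest.Agent.R096.Bsp_628 Crest.Agent.R096.Brk5_582 Crest.Agent.R096.Brk1_582
open Crest.Agent.R096.Brk2_582 Crest.Agent.R096.Brk3_582 Crest.Agent.R096.Grd_714
open Crest.Agent.R096.Msh_715
open Crest.Agent.R096.SkC1_961 (E3 th)
open Crest.Agent.R096.EaX_766 (cbx lin)
open Crest.Agent.R096.Bxs_627 (ctr zz)
open Crest.Agent.R096.Mal_874 Crest.Agent.R096.Msh_810
open Crest.Agent.R096.Mdd_360 (mkCB mkCB_Kc mkCB_N mkCB_ps psA psA_apply two_w_le)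
open Crest.Agent.R096.Wd_120 (GridS gridS_shell coreAt_T uc)
open Crest.Agent.R096.Ea0_961 (Blk sbF)

noncomputable section

section shell

variable {La : Set E3} {F : Set (Bx (Fin 3))} {δ κ0 : ℝ} {N : ℕ} {FF : Foam La (Pc F) (bc (F := F)) N}
  {h3 : Module.finrank ℝ (Fin 3 → ℝ) = 3} {c : F} {o : E3} {B : ℝ} (D : Fbr_628.BD FF h3 c o B)
  (hN : N ≤ 4) (BF : BoxFoam La F δ κ0) (hLa : IsOpen La) (hQ : Quads (Pc F) (bc (F := F)))
  {m : ℕ} (hm : 0 < m) (A : E3 ≃ᵃ[ℝ] E3) {lam : ℝ} (hl : 0 < lam) (kc : ℕ) (hkc : 3 ≤ kc)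

/-- the unit of the block -/
def uM (m kc : ℕ) : ℝ := 2 ^ kc * (D.w / m)

include hm in
theorem uM_pos : 0 < uM D m kc := by
  have h1 : (0 : ℝ) < m := by exact_mod_cast hm
  have h2 := D.w0
  unfold uM
  positivity

/-- **the block of a brick with 628's prism shell, scale `kc`** -/
def blkU : CB E3 3 :=
  mkCB c.1 A hl (uM_pos D hm kc) kc hkc (D.shell hN BF hLa hQ hm 1 one_pos) 11 (by
    change (1 : ℤ) + 10 ≤ 11; norm_num)

theorem blkU_kc : (blkU D hN BF hLa hQ hm A hl kc hkc).kc = kc := rfl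

theorem blkU_S : (blkU D hN BF hLa hQ hm A hl kc hkc).S = D.shell hN BF hLa hQ hm 1 one_pos := rfl

theorem blkU_hS (l : Fin 3) : uM D m kc * (((D.shell hN BF hLa hQ hm 1 one_pos).hi l : ℝ) -
    (D.shell hN BF hLa hQ hm 1 one_pos).lo l) = 2 ^ kc * c.1.side l := by
  have h1 := D.lo_eq hm l
  have h2 := D.hi_eq hm l
  have e : c.1.side l = D.w / m * ((D.hi m l : ℝ) - D.lo m l) := by
    change c.1.hi l - c.1.lo l = _
    rw [h1, h2]
    ring
  change uM D m kc * ((D.hi m l : ℝ) - D.lo m l) = _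
  unfold uM
  rw [e]
  ring

/-- the core of the block -/
theorem blkU_Kc : (blkU D hN BF hLa hQ hm A hl kc hkc).Kc = A ⁻¹' cbx c.1 lam :=
  mkCB_Kc _ _ _ _ _ _ _ _ _ (blkU_hS D hN BF hLa hQ hm kc)

/-- the coordinates of the block are 628's lattice coordinates -/
theorem blkU_ps (y : E3) (l : Fin 3) :
    D.w / m * ps (blkU D hN BF hLa hQ hm A hl kc hkc).a' (blkU D hN BF hLa hQ hm A hl kc hkc).kc
      ((blkU D hN BF hLa hQ hm A hl kc hkc).ψ y) l + o l =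
    (A y l - (1 - lam) * ctr c.1 l) / lam := by
  have hm' : (0 : ℝ) < m := by exact_mod_cast hm
  have hw := D.w0
  unfold blkU
  rw [mkCB_ps]
  have h1 := D.lo_eq hm l
  have e0 : ((D.shell hN BF hLa hQ hm 1 one_pos).lo l : ℝ) = D.lo m l := rfl
  rw [e0]
  have e1 : D.w / m * (D.lo m l : ℝ) = c.1.lo l - o l := by linarith
  have e2 : ctr c.1 l - lam * c.1.side l / 2 = (1 - lam) * ctr c.1 l + lam * c.1.lo l := by
    change (c.1.lo l + c.1.hi l) / 2 - lam * (c.1.hi l - c.1.lo l) / 2 =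
      (1 - lam) * ((c.1.lo l + c.1.hi l) / 2) + lam * c.1.lo l
    ring
  rw [mul_add, e1, e2]
  unfold uM
  have hp : (2:ℝ) ^ kc ≠ 0 := by positivity
  field_simp
  ring

theorem blkU_th (y : Fin 3 → ℝ) : th A lam (zz c.1 lam) y =
    D.pt m (uc (blkU D hN BF hLa hQ hm A hl kc hkc) y) := by
  funext l
  have h1 := blkU_ps D hN BF hLa hQ hm A hl kc hkc y l
  show (A y l - zz c.1 lam l) / lam = o l + D.w / m * _
  rw [add_comm (o l)]
  rw [show D.w / m * uc (blkU D hN BF hLa hQ hm A hl kc hkc) y l + o l =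
    (A y l - (1 - lam) * ctr c.1 l) / lam from h1]
  rfl

/-- the block in the target coordinates -/
theorem blkU_N {κ : ℝ} (hκ : (11 : ℝ) ≤ 2 * κ * m) :
    (blkU D hN BF hLa hQ hm A hl kc hkc).N ⊆ A ⁻¹' cbx c.1 ((1 + 2 * κ) * lam) := by
  refine mkCB_N _ _ _ _ _ _ _ _ _ (blkU_hS D hN BF hLa hQ hm kc) fun l => ?_
  have hm' : (0 : ℝ) < m := by exact_mod_cast hm
  have hw := D.w0
  have h1 := two_w_le D l
  have hκ0 : 0 < κ := by
    by_contra hcon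
    push Not at hcon
    have : 2 * κ * m ≤ 0 := by nlinarith
    linarith
  unfold uM
  push_cast
  have h2 : (11 : ℝ) * (D.w / m) ≤ κ * c.1.side l := by
    rw [mul_div_assoc', div_le_iff₀ hm']
    calc (11 : ℝ) * D.w ≤ 2 * κ * m * D.w := mul_le_mul_of_nonneg_right hκ hw.le
      _ = κ * m * (2 * D.w) := by ring
      _ ≤ κ * m * c.1.side l := by gcongr
      _ = κ * c.1.side l * m := by ring
  have hp : (0:ℝ) < 2 ^ kc := by positivity
  calc (11:ℝ) * (2 ^ kc * (D.w / m)) = 2 ^ kc * (11 * (D.w / m)) := by ring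
    _ ≤ 2 ^ kc * (κ * c.1.side l) := by gcongr
    _ = κ * (2 ^ kc * c.1.side l) := by ring

theorem blkU_bnd {Bn : ℕ} (h1 : 1 ≤ Bn) (hB : 4 * B ^ 2 ≤ Bn) :
    ∀ i, ∀ p ∈ (blkU D hN BF hLa hQ hm A hl kc hkc).S.GG i, ∀ l, |p.1 l| ≤ (Bn : ℤ) :=
  Fbr_628.BD.shell_bnd D hN BF hLa hQ h1 hB

theorem blkU_size {R0 : ℝ} (hR : 8 * B ≤ R0) (htR : (1 : ℝ) ≤ R0) :
    ∀ i, i ≠ (blkU D hN BF hLa hQ hm A hl kc hkc).S.core →
      ∀ u ∈ ZP ((blkU D hN BF hLa hQ hm A hl kc hkc).S.GG i),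
      ∀ v ∈ ZP ((blkU D hN BF hLa hQ hm A hl kc hkc).S.GG i), ∀ l, |v l - u l| ≤ R0 :=
  Fbr_628.BD.shell_size D hN BF hLa hQ hR (by push_cast; exact htR)

/-- the lower corner of the block -/
theorem blkU_a (l : Fin 3) : (blkU D hN BF hLa hQ hm A hl kc hkc).a' l =
    (ctr c.1 l - lam * c.1.side l / 2 - A 0 l) / (lam * uM D m kc) - D.lo m l / 2 ^ kc := rfl

theorem blkU_lin (x : E3) : A.linear x = (lam * uM D m kc) •
    (blkU D hN BF hLa hQ hm A hl kc hkc).ψ x := by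
  have h1 := (mul_pos hl (uM_pos D hm kc)).ne'
  funext l
  rw [Pi.smul_apply, smul_eq_mul]
  show A.linear x l = (lam * uM D m kc) * ((lam * uM D m kc)⁻¹ * A.linear x l)
  rw [mul_inv_cancel_left₀ h1]

theorem blkU_grid (k : ℕ) (hk : (blkU D hN BF hLa hQ hm A hl kc hkc).kc ≤ k) :
    ∀ x ∈ (blkU D hN BF hLa hQ hm A hl kc hkc).Kc,
      x ∉ I (((blkU D hN BF hLa hQ hm A hl kc hkc).T k hk).H
        ((blkU D hN BF hLa hQ hm A hl kc hkc).cix k hk)) →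
      ((blkU D hN BF hLa hQ hm A hl kc hkc).T k hk).cc x =
        {y | y ∈ (blkU D hN BF hLa hQ hm A hl kc hkc).Kc ∧ ∀ a : F,
          (⌊m * sc (Pc F) (bc (F := F)) (th A lam (zz c.1 lam) x) a⌋₊ : ℝ) ≤
            m * sc (Pc F) (bc (F := F)) (th A lam (zz c.1 lam) y) a ∧
          m * sc (Pc F) (bc (F := F)) (th A lam (zz c.1 lam) y) a ≤
            ⌈m * sc (Pc F) (bc (F := F)) (th A lam (zz c.1 lam) x) a⌉₊} ∧
      ((blkU D hN BF hLa hQ hm A hl kc hkc).T k hk).dim x =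
        {a : F | ⌊m * sc (Pc F) (bc (F := F)) (th A lam (zz c.1 lam) x) a⌋₊ <
          ⌈m * sc (Pc F) (bc (F := F)) (th A lam (zz c.1 lam) x) a⌉₊}.ncard := by
  intro x hx hn
  have hc := coreAt_T (blkU D hN BF hLa hQ hm A hl kc hkc) k hk
  have h := hc.grid (gridS_shell D hN BF hLa hQ hm one_pos)
    (blkU_th D hN BF hLa hQ hm A hl kc hkc) x (by rw [hc.tile]; exact hx) hn
  rw [hc.tile] at h
  exact h

/-- **`Ea0_961.Blk` for the block `blkU`.** -/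
theorem blk_blkU {u Cc κ2 κt : ℝ} {Bs Nn k0 : ℕ} (hu : lam * uM D m kc = u) (hl1 : lam < 1)
    (hsz : c.1.sz ≤ B * D.w) (hC1 : 1 ≤ Cc) (hCB : B ≤ Cc) (hm2 : (11 : ℝ) ≤ κ2 * m)
    (hm3 : (22 : ℝ) ≤ (1 - lam) * m) (hBs1 : 1 ≤ Bs) (hBs : 4 * B ^ 2 ≤ Bs) (hBs2 : 8 * B ≤ Bs)
    (hk : (blkU D hN BF hLa hQ hm A hl kc hkc).kc ≤ k0)
    (hthin : u / 2 ^ k0 ≤ κt * (lam * c.1.sz) / m)
    (hnet : ∃ (d : ℕ) (Bm : Fin 3 → Fin 3 → ℤ), 0 < d ∧ d ≤ Nn ∧ (∀ i j, |Bm i j| ≤ Nn) ∧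
      Rt (ContinuousLinearEquiv.refl ℝ E3) (blkU D hN BF hLa hQ hm A hl kc hkc).ψ Bm d ∧
      ∃ κ : ℕ, ∀ l, ∃ z : ℤ, 2 ^ κ * (d : ℝ) * (blkU D hN BF hLa hQ hm A hl kc hkc).a' l = z) :
    Blk F u Cc κ2 κt Bs m Nn c A lam (blkU D hN BF hLa hQ hm A hl kc hkc) k0 hk := by
  have hm' : (0 : ℝ) < m := by exact_mod_cast hm
  have hw := D.w0
  have hp : (0:ℝ) < 2 ^ kc := by positivity
  have hcell : u / 2 ^ kc = lam * D.w / m := by
    rw [← hu]
    unfold uM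
    field_simp
  have hws : D.w ≤ c.1.sz := by
    have h1 := two_w_le D 0
    have h2 := Bx.side_le_sz c.1 0
    linarith
  have hBF := BF.pos _ c.2
  have hszp := Bx.sz_pos hBF
  refine ⟨?_, hnet, blkU_Kc D hN BF hLa hQ hm A hl kc hkc, blkU_bnd D hN BF hLa hQ hm A hl kc hkc hBs1 hBs,
    ?_, ?_, ?_, ?_, hthin, ?_⟩
  · intro x
    rw [← hu]
    exact blkU_lin D hN BF hLa hQ hm A hl kc hkc x
  · exact blkU_size D hN BF hLa hQ hm A hl kc hkc hBs2 (by exact_mod_cast hBs1)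
  · intro x hx
    constructor
    · have h1 := blkU_N D hN BF hLa hQ hm A hl kc hkc (κ := κ2 / 2) (by linarith) hx
      have e : (1 + 2 * (κ2 / 2)) * lam = (1 + κ2) * lam := by ring
      rw [e] at h1
      exact h1
    · have h1 := blkU_N D hN BF hLa hQ hm A hl kc hkc (κ := (1 - lam) / 4) (by linarith) hx
      refine Br_695.cbx_mono hBF ?_ h1
      nlinarith [sq_nonneg (1 - lam)]
  · rw [blkU_kc, hcell]
    calc lam * D.w / m ≤ 1 * (lam * c.1.sz) / m := by rw [one_mul]; gcongr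
      _ ≤ Cc * (lam * c.1.sz) / m := by gcongr
  · rw [blkU_kc, hcell]
    calc lam * c.1.sz / m ≤ lam * (B * D.w) / m := by gcongr
      _ ≤ lam * (Cc * D.w) / m := by gcongr
      _ = Cc * (lam * D.w / m) := by ring
  · exact blkU_grid D hN BF hLa hQ hm A hl kc hkc k0 hk

end shell

end

end Crest.Agent.R096.Bk_802
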