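import Crest.Agent.R096.Bk2_802

/-!
Row 96 (S0127), helper802.  [BLK] part 3: rounding of the affine map of a cube to the finite net, with the
corner of the block in the lattice `2^(-k0)`; translation of the block.
-/

set_option autoImplicit false
set_option linter.unusedSectionVars false
set_option linter.style.longLine false

open Set Metric

namespace Crest.Agent.R096.Bk_802

open Crest.Agent.R096.Bsp_628 Crest.Agent.R096.Brk5_582 Crest.Agent.R096.Brk1_582
open Crest.Agent.R096.Brk2_582 Crest.Agent.R096.Brk3_582 Crest.Agent.R096.Grd_714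
open Crest.Agent.R096.Msh_715
open Crest.Agent.R096.SkC1_961 (E3 th)
open Crest.Agent.R096.EaX_766 (cbx lin)
open Crest.Agent.R096.Bxs_627 (ctr zz)
open Crest.Agent.R096.Mal_874 Crest.Agent.R096.Msh_810
open Crest.Agent.R096.Mdd_360 (mkCB psA)
open Crest.Agent.R096.Fns_360 (trA trA_apply)

noncomputable section

theorem lin_sum (A : E3 ≃ᵃ[ℝ] E3) (x : E3) (l : Fin 3) :
    lin A x l = ∑ i, lin A (Pi.single i 1) l * x i := by
  have h1 : x = ∑ i, x i • (Pi.single i (1:ℝ) : E3) := by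
    funext j
    rw [Finset.sum_apply]
    simp [Pi.single_apply]
  conv_lhs => rw [h1]
  rw [map_sum, Finset.sum_apply]
  refine Finset.sum_congr rfl fun i _ => ?_
  rw [map_smul, Pi.smul_apply, smul_eq_mul, mul_comm]

/-- **rounding of an affine map**: frame `u⁻¹ A.linear = B / d`, corner `cor` at a point of `2^(-k0) ℤ³`. -/
theorem exists_round {A0 : E3 ≃ᵃ[ℝ] E3} {κ' K u : ℝ} (hκ : 0 < κ')
    (hlow : ∀ v, κ' * ‖v‖ ≤ ‖lin A0 v‖) (hup : ‖lin A0‖ ≤ K) (hu : 0 < u) {d : ℕ} (hd : 0 < d)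
    (hd2 : 3 * u ≤ κ' * d) (z3 cor e : E3) (k0 : ℕ) :
    ∃ (A : E3 ≃ᵃ[ℝ] E3) (Bm : Fin 3 → Fin 3 → ℤ),
      (∀ x l, (d:ℝ) * (u⁻¹ * A.linear x l) = ∑ i, (Bm l i : ℝ) * x i) ∧
      (∀ i j, |(Bm i j : ℝ)| ≤ d * K / u + 1) ∧
      ‖lin A - lin A0‖ ≤ 3 * u / (2 * d) ∧
      (∀ x, ‖A x - A0 x‖ ≤ 3 * u / (2 * d) * ‖x - z3‖ + u / (2 * 2 ^ k0)) ∧
      (∀ v, κ' / 2 * ‖v‖ ≤ ‖lin A v‖) ∧
      ∀ l, ∃ n : ℤ, 2 ^ k0 * ((cor l - A 0 l) / u - e l) = n := by
  have hd' : (0:ℝ) < d := by exact_mod_cast hd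
  have hK : 0 ≤ K := (norm_nonneg _).trans hup
  set M : Fin 3 → Fin 3 → ℝ := fun l i => lin A0 (Pi.single i 1) l with hM
  have hMK : ∀ l i, |M l i| ≤ K := by
    intro l i
    have h1 : ‖lin A0 (Pi.single i 1)‖ ≤ K * ‖(Pi.single i 1 : E3)‖ :=
      ((lin A0).le_opNorm _).trans (by gcongr)
    have h2 : ‖(Pi.single i 1 : E3)‖ = 1 := by
      rw [Pi.norm_single]; simp
    rw [h2, mul_one] at h1
    exact (norm_le_pi_norm (lin A0 (Pi.single i 1)) l).trans h1
  set Bm : Fin 3 → Fin 3 → ℤ := fun l i => round (d * M l i / u) with hBm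
  have hB1 : ∀ l i, |d * M l i / u - Bm l i| ≤ 1 / 2 := fun l i => abs_sub_round _
  have hB2 : ∀ l i, |u / d * Bm l i - M l i| ≤ u / (2 * d) := by
    intro l i
    have e1 : u / d * Bm l i - M l i = -(u / d * (d * M l i / u - Bm l i)) := by
      field_simp
      ring
    rw [e1, abs_neg, abs_mul, abs_of_pos (div_pos hu hd')]
    calc u / d * |d * M l i / u - Bm l i| ≤ u / d * (1 / 2) := by
          gcongr
          exact hB1 l i
      _ = u / (2 * d) := by field_simp
  set Tm : Matrix (Fin 3) (Fin 3) ℝ := Matrix.of fun l i => u / d * Bm l i with hTm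
  set T : E3 →ₗ[ℝ] E3 := Matrix.mulVecLin Tm with hT
  have hTx : ∀ x l, T x l = ∑ i, u / d * Bm l i * x i := by
    intro x l
    rw [hT, Matrix.mulVecLin_apply]
    rfl
  have hdiff : ∀ x, ‖T x - lin A0 x‖ ≤ 3 * u / (2 * d) * ‖x‖ := by
    intro x
    rw [pi_norm_le_iff_of_nonneg (by positivity)]
    intro l
    rw [Pi.sub_apply, hTx, lin_sum, ← Finset.sum_sub_distrib, Real.norm_eq_abs]
    calc |∑ i, (u / d * Bm l i * x i - lin A0 (Pi.single i 1) l * x i)|
        ≤ ∑ i, |u / d * Bm l i * x i - lin A0 (Pi.single i 1) l * x i| :=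
          Finset.abs_sum_le_sum_abs _ _
      _ ≤ ∑ _i : Fin 3, u / (2 * d) * ‖x‖ := by
          refine Finset.sum_le_sum fun i _ => ?_
          rw [← sub_mul, abs_mul]
          exact mul_le_mul (hB2 l i) (norm_le_pi_norm x i) (abs_nonneg _) (by positivity)
      _ = 3 * u / (2 * d) * ‖x‖ := by
          rw [Finset.sum_const, Finset.card_univ, Fintype.card_fin, nsmul_eq_mul]
          push_cast
          ring
  have hsm : 3 * u / (2 * d) ≤ κ' / 2 := by
    rw [div_le_iff₀ (by positivity)]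
    linarith
  have hlowT : ∀ v, κ' / 2 * ‖v‖ ≤ ‖T v‖ := by
    intro v
    have h1 := hlow v
    have h2 := hdiff v
    have h3 : ‖lin A0 v‖ ≤ ‖T v‖ + ‖T v - lin A0 v‖ := by
      have e1 : lin A0 v = T v - (T v - lin A0 v) := by abel
      calc ‖lin A0 v‖ = ‖T v - (T v - lin A0 v)‖ := by rw [← e1]
        _ ≤ _ := norm_sub_le _ _
    have h4 : 3 * u / (2 * d) * ‖v‖ ≤ κ' / 2 * ‖v‖ := by gcongr
    linarith
  have hinj : Function.Injective T := by
    rw [injective_iff_map_eq_zero]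
    intro v hv
    have h1 := hlowT v
    rw [hv, norm_zero] at h1
    have h2 : ‖v‖ ≤ 0 := by
      by_contra hc
      push Not at hc
      have : 0 < κ' / 2 * ‖v‖ := by positivity
      linarith
    exact norm_le_zero_iff.1 h2
  set TE : E3 ≃ₗ[ℝ] E3 := LinearEquiv.ofInjectiveEndo T hinj with hTE
  have hTEa : ∀ x, TE x = T x := fun x => rfl
  have h2k : (0:ℝ) < 2 ^ k0 := by positivity
  set q : E3 := fun l => (cor l - (A0 z3 l - T z3 l)) / u - e l with hq
  set t : E3 := fun l => cor l - u * ((round (2 ^ k0 * q l) : ℝ) / 2 ^ k0 + e l) with ht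
  have htl : ∀ l, |t l - (A0 z3 l - T z3 l)| ≤ u / (2 * 2 ^ k0) := by
    intro l
    have e1 : t l - (A0 z3 l - T z3 l) = u / 2 ^ k0 * (2 ^ k0 * q l - round (2 ^ k0 * q l)) := by
      rw [ht]
      simp only
      have e2 : A0 z3 l - T z3 l = cor l - u * (q l + e l) := by
        rw [hq]
        field_simp
        ring
      rw [e2]
      field_simp
      ring
    rw [e1, abs_mul, abs_of_pos (div_pos hu h2k)]
    calc u / 2 ^ k0 * |2 ^ k0 * q l - round (2 ^ k0 * q l)| ≤ u / 2 ^ k0 * (1 / 2) := by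
          gcongr
          exact abs_sub_round _
      _ = u / (2 * 2 ^ k0) := by field_simp
  set A : E3 ≃ᵃ[ℝ] E3 := AffineEquiv.mk' (fun x => t + T x) TE 0 (by
    intro x
    simp only [vsub_eq_sub, vadd_eq_add, sub_zero, map_zero, add_zero]
    rw [hTEa, add_comm]) with hA
  have hAx : ∀ x, A x = t + T x := fun x => rfl
  have hAl : ∀ x, A.linear x = T x := fun x => rfl
  have hAlin : ∀ x, lin A x = T x := fun x => rfl
  refine ⟨A, Bm, ?_, ?_, ?_, ?_, ?_, ?_⟩
  · intro x l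
    rw [hAl, hTx, Finset.mul_sum, Finset.mul_sum]
    refine Finset.sum_congr rfl fun i _ => ?_
    field_simp
  · intro i j
    have h1 := hB1 i j
    have h2 : |d * M i j / u| ≤ d * K / u := by
      rw [abs_div, abs_mul, abs_of_pos hd', abs_of_pos hu]
      gcongr
      exact hMK i j
    have h3 : |(Bm i j : ℝ)| ≤ |d * M i j / u| + |d * M i j / u - Bm i j| := by
      have e1 : (Bm i j : ℝ) = d * M i j / u - (d * M i j / u - Bm i j) := by ring
      calc |(Bm i j : ℝ)| = |d * M i j / u - (d * M i j / u - Bm i j)| := by rw [← e1]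
        _ ≤ _ := abs_sub _ _
    linarith
  · refine ContinuousLinearMap.opNorm_le_bound _ (by positivity) fun x => ?_
    exact hdiff x
  · intro x
    have e1 : A x - A0 x = (T (x - z3) - lin A0 (x - z3)) + (t - (A0 z3 - T z3)) := by
      rw [hAx, Br_695.lin_apply, map_sub]
      abel
    rw [e1]
    refine (norm_add_le _ _).trans (add_le_add (hdiff _) ?_)
    rw [pi_norm_le_iff_of_nonneg (by positivity)]
    intro l
    exact htl l
  · intro v
    rw [hAlin]
    exact hlowT v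
  · intro l
    refine ⟨round (2 ^ k0 * q l), ?_⟩
    rw [hAx, map_zero, add_zero, ht]
    simp only
    field_simp
    ring

/-! ### translated blocks -/

theorem trA_lin (A : E3 ≃ᵃ[ℝ] E3) (v x : E3) : (trA A v).linear x = A.linear x := rfl

theorem trA_linear (A : E3 ≃ᵃ[ℝ] E3) (v : E3) : (trA A v).linear = A.linear := by
  ext x
  rfl

theorem lin_trA (A : E3 ≃ᵃ[ℝ] E3) (v : E3) : lin (trA A v) = lin A := by
  ext x
  rfl

section shell

variable {La : Set E3} {F : Set (Bx (Fin 3))} {δ κ0 : ℝ} {N : ℕ} {FF : Foam La (Pc F) (bc (F := F)) N}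
  {h3 : Module.finrank ℝ (Fin 3 → ℝ) = 3} {c : F} {o : E3} {B : ℝ} (D : Fbr_628.BD FF h3 c o B)
  (hN : N ≤ 4) (BF : BoxFoam La F δ κ0) (hLa : IsOpen La) (hQ : Quads (Pc F) (bc (F := F)))
  {m : ℕ} (hm : 0 < m) (A : E3 ≃ᵃ[ℝ] E3) {lam : ℝ} (hl : 0 < lam) (kc : ℕ) (hkc : 3 ≤ kc)

/-- **the block of the translated map is the translated block** -/
theorem blkU_tr (v : E3) : blkU D hN BF hLa hQ hm (trA A v) hl kc hkc =
    (blkU D hN BF hLa hQ hm A hl kc hkc).tr v := by
  have h1 := (mul_pos hl (uM_pos D hm kc)).ne'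
  have hψ : psA (trA A v) (lam * uM D m kc) h1 = psA A (lam * uM D m kc) h1 := by
    unfold psA
    rw [trA_linear]
  have ha : (fun l => (ctr c.1 l - lam * c.1.side l / 2 - trA A v 0 l) / (lam * uM D m kc) -
      (D.shell hN BF hLa hQ hm 1 one_pos).lo l / 2 ^ kc) =
      (fun l => (ctr c.1 l - lam * c.1.side l / 2 - A 0 l) / (lam * uM D m kc) -
        (D.shell hN BF hLa hQ hm 1 one_pos).lo l / 2 ^ kc) + psA A (lam * uM D m kc) h1 v := by
    funext l
    rw [Pi.add_apply, Mdd_360.psA_apply]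
    have e1 : A 0 l - trA A v 0 l = A.linear v l := by
      have := congrFun (Fns_360.trA_sub A v 0) l
      rwa [Pi.sub_apply] at this
    have e2 : trA A v 0 l = A 0 l - A.linear v l := by linarith
    rw [e2]
    field_simp
    ring
  unfold blkU mkCB CB.tr
  simp only
  congr 1

end shell

end

end Crest.Agent.R096.Bk_802
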