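import Crest.Agent.R096.Bk3_802
import Crest.Agent.R096.Tmap2_212
import Crest.Agent.R096.Acc1_365

/-!
Row 96 (S0127), helper802.  [BLK] part 4: **`exists_blk`** : the block of a brick inside a good cube, with
`Ea0_961.Blk` (for all rational translates) and `Pin_753.BlkP` (for the same block seen in `R3`).
-/

set_option autoImplicit false
set_option linter.unusedSectionVars false
set_option linter.style.longLine false

open Set Metric MeasureTheory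
open scoped ENNReal NNReal

namespace Crest.Agent.R096.Bk_802

open Crest.AnalysisR.VecCalc3
open Crest.Agent.R096.Bsp_628 Crest.Agent.R096.Brk5_582 Crest.Agent.R096.Brk1_582
open Crest.Agent.R096.Brk2_582 Crest.Agent.R096.Brk3_582 Crest.Agent.R096.Grd_714
open Crest.Agent.R096.Msh_715
open Crest.Agent.R096.SkC1_961 (E3 th)
open Crest.Agent.R096.EaX_766 (cbx lin)
open Crest.Agent.R096.Bxs_627 (ctr zz)
open Crest.Agent.R096.Mal_874 Crest.Agent.R096.Msh_810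
open Crest.Agent.R096.Mdd_360 (mkCB psA two_w_le)
open Crest.Agent.R096.Fns_360 (trA trA_apply)
open Crest.Agent.R096.Fil_313 (aff3)
open Crest.Agent.R096.Acc_365 (K1 volume_K1 volume_K1_ne_top measurableSet_K1)
open Crest.Agent.R096.Tmap_212 (mp rt_P3 mem_N_mp')
open Crest.Agent.R096.Ea0_961 (Blk)
open Crest.Agent.R096.Pin_753 (BlkP)
open Crest.Agent.R96.En10_199 (P3)
open Crest.Agent.R96.Intr_538 (cel par)
open Crest.Agent.R96.Coarse_538 (vt Cb)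

noncomputable section

section aff

variable {L : R3 →L[ℝ] R3} {κ : ℝ} (hκ : 0 < κ) (low : ∀ v, κ * ‖v‖ ≤ ‖L v‖) (z b : R3)

theorem lin_aff3 (w : E3) : lin (aff3 L hκ low z b) w = P3.symm (L (P3 w)) := by
  have h1 := Br_695.lin_apply (aff3 L hκ low z b) w 0
  rw [sub_zero] at h1
  rw [h1, Fil_313.aff3_apply, Fil_313.aff3_apply, ← map_sub]
  congr 1
  simp only [map_zero, zero_sub, map_sub, map_neg]
  abel

theorem low_aff3 (w : E3) : κ / 2 * ‖w‖ ≤ ‖lin (aff3 L hκ low z b) w‖ := by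
  have h1 := Fil_313.aff3_symm_lip L hκ low z b (aff3 L hκ low z b w) (aff3 L hκ low z b 0)
  rw [AffineEquiv.symm_apply_apply, AffineEquiv.symm_apply_apply, ← Br_695.lin_apply, sub_zero] at h1
  have h2 : κ / 2 * ‖w‖ ≤ κ / 2 * (2 * κ⁻¹ * ‖lin (aff3 L hκ low z b) w‖) :=
    mul_le_mul_of_nonneg_left h1 (by positivity)
  have h3 : κ / 2 * (2 * κ⁻¹ * ‖lin (aff3 L hκ low z b) w‖) = ‖lin (aff3 L hκ low z b) w‖ := by
    field_simp
  linarith

theorem nrm_aff3 {K : ℝ} (hK : 0 ≤ K) (up : ‖L‖ ≤ K) : ‖lin (aff3 L hκ low z b)‖ ≤ 2 * K := by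
  refine ContinuousLinearMap.opNorm_le_bound _ (by positivity) fun w => ?_
  rw [lin_aff3]
  calc ‖P3.symm (L (P3 w))‖ ≤ ‖L (P3 w)‖ := Er_594.norm_P3_symm_le _
    _ ≤ ‖L‖ * ‖P3 w‖ := L.le_opNorm _
    _ ≤ K * (2 * ‖w‖) := by
        gcongr
        exact Er_594.norm_P3_le w
    _ = 2 * K * ‖w‖ := by ring

end aff

/-- **the shell of a core has small volume** -/
theorem vol_shell (A : E3 ≃ᵃ[ℝ] E3) {Q : Bx (Fin 3)} (hQ : Q.Pos) {lam η : ℝ} (hl : 0 ≤ lam)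
    (hη : 0 ≤ η) (hη1 : η ≤ 1) {N : Set E3} (hN : N ⊆ A ⁻¹' cbx Q ((1 + η) * lam)) :
    volume (N \ A ⁻¹' cbx Q lam) ≤ ENNReal.ofReal (7 * η) * volume (A ⁻¹' cbx Q lam) := by
  have hl' : 0 ≤ (1 + η) * lam := by positivity
  have h1 : volume (A ⁻¹' cbx Q ((1 + η) * lam) \ A ⁻¹' cbx Q lam) =
      volume (K1 A Q ((1 + η) * lam)) - volume (K1 A Q lam) := by
    refine measure_sdiff ?_ (measurableSet_K1 A Q lam).nullMeasurableSet (volume_K1_ne_top hQ hl)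
    exact preimage_mono (Br_695.cbx_mono hQ (by nlinarith))
  have hd : 0 ≤ |(lin A).det|⁻¹ := by positivity
  set P : ℝ := |(lin A).det|⁻¹ * ∏ k, (lam * Q.side k) with hP
  have hP0 : 0 ≤ P := mul_nonneg hd (Finset.prod_nonneg fun k _ =>
    mul_nonneg hl (Bx.side_pos hQ k).le)
  have e1 : |(lin A).det|⁻¹ * ∏ k, ((1 + η) * lam * Q.side k) = (1 + η) ^ 3 * P := by
    rw [hP, Fin.prod_univ_three, Fin.prod_univ_three]
    ring
  calc volume (N \ A ⁻¹' cbx Q lam) ≤ volume (A ⁻¹' cbx Q ((1 + η) * lam) \ A ⁻¹' cbx Q lam) :=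
        measure_mono (sdiff_subset_sdiff_left hN)
    _ = ENNReal.ofReal ((1 + η) ^ 3 * P) - ENNReal.ofReal P := by
        rw [h1, volume_K1 hQ hl', volume_K1 hQ hl, e1]
    _ = ENNReal.ofReal ((1 + η) ^ 3 * P - P) := by rw [ENNReal.ofReal_sub _ hP0]
    _ ≤ ENNReal.ofReal (7 * η * P) := by
        apply ENNReal.ofReal_le_ofReal
        have h3 : (1 + η) ^ 3 - 1 ≤ 7 * η := by nlinarith [mul_nonneg hη hη, mul_nonneg (mul_nonneg hη hη) hη]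
        nlinarith
    _ = ENNReal.ofReal (7 * η) * volume (A ⁻¹' cbx Q lam) := by
        rw [ENNReal.ofReal_mul (by positivity)]
        congr 1
        exact (volume_K1 hQ hl).symm

/-- the scale of a dyadic unit -/
theorem exists_kc {w : ℝ} {k : ℤ} (hw : w = 2 ^ (-k)) (hw8 : w ≤ 1 / 8) (j : ℕ) :
    ∃ kc : ℕ, 3 ≤ kc ∧ 2 ^ kc * w = 2 ^ j := by
  have hk : 3 ≤ k := by
    by_contra hc
    push Not at hc
    have h1 : (2:ℝ) ^ (-(2:ℤ)) ≤ 2 ^ (-k) := zpow_le_zpow_right₀ (by norm_num) (by omega)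
    rw [← hw] at h1
    norm_num at h1
    linarith
  refine ⟨k.toNat + j, by omega, ?_⟩
  have hk' : ((k.toNat : ℕ) : ℤ) = k := Int.toNat_of_nonneg (by omega)
  have e1 : (2:ℝ) ^ (k.toNat) = 2 ^ k := by rw [← zpow_natCast, hk']
  rw [hw, pow_add, e1, zpow_neg]
  have : (2:ℝ) ^ k ≠ 0 := by positivity
  field_simp

/-- a natural number `k0` with `2^(-k0)` between `t / 2` and `t` -/
theorem exists_k0 {t : ℝ} (ht : 0 < t) (ht1 : t ≤ 1) : ∃ k0 : ℕ, t / 2 ≤ 1 / 2 ^ k0 ∧ 1 / 2 ^ k0 ≤ t := by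
  classical
  have hex : ∃ n : ℕ, (1:ℝ) / 2 ^ n ≤ t := by
    obtain ⟨n, hn⟩ := exists_pow_lt_of_lt_one ht (by norm_num : (1/2:ℝ) < 1)
    refine ⟨n, ?_⟩
    rw [one_div, ← inv_pow, ← one_div]
    exact hn.le
  refine ⟨Nat.find hex, ?_, Nat.find_spec hex⟩
  rcases Nat.eq_zero_or_pos (Nat.find hex) with h | h
  · rw [h]; norm_num; linarith
  · have h1 := Nat.find_min hex (m := Nat.find hex - 1) (by omega)
    push Not at h1
    obtain ⟨n, hn⟩ : ∃ n, Nat.find hex = n + 1 := ⟨Nat.find hex - 1, by omega⟩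
    rw [hn] at h1 ⊢
    rw [Nat.add_sub_cancel] at h1
    have h2 : (0:ℝ) < 2 ^ n := by positivity
    have e2 : (1:ℝ) / 2 ^ (n + 1) = 1 / 2 ^ n / 2 := by
      rw [pow_succ]
      field_simp
    rw [e2]
    linarith

/-- the cells of the block (numbers) -/
theorem num_cells {lam u w B c1 s hh sz : ℝ} {m j kc : ℕ} (hm' : (0:ℝ) < m) (hl : 0 < lam)
    (hl1 : lam < 1) (hu : u = lam * 2 ^ j / m) (hu1 : u ≤ 1) (hu2 : 1 / 2 ≤ u)
    (hkcj : 2 ^ kc * w = 2 ^ j) (hwp : 0 < w) (hB0 : 0 < B) (hszD : sz ≤ B * w) (hws : 2 * w ≤ sz)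
    (hcl : c1 * s * B * m ≤ lam * sz) (hcu : sz ≤ m * (hh * s)) :
    c1 * s ≤ 1 / 2 ^ kc ∧ 1 / 2 ^ kc ≤ hh * s := by
  have hp : (0:ℝ) < 2 ^ kc := by positivity
  have hpj : (0:ℝ) < 2 ^ j := by positivity
  have hcell : (1:ℝ) / 2 ^ kc = w / 2 ^ j := by
    rw [← hkcj]; field_simp
  have hj1 : u * m = lam * 2 ^ j := by
    rw [hu]; field_simp
  have hjU : lam * 2 ^ j ≤ m := by
    rw [← hj1]
    exact mul_le_of_le_one_left hm'.le hu1
  have hjL : (m:ℝ) ≤ 2 * 2 ^ j := by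
    have h1 : 1 / 2 * (m:ℝ) ≤ u * m := mul_le_mul_of_nonneg_right hu2 hm'.le
    have h2 : lam * 2 ^ j ≤ 1 * 2 ^ j := mul_le_mul_of_nonneg_right hl1.le hpj.le
    linarith
  constructor
  · rw [hcell, le_div_iff₀ hpj]
    have h1 : c1 * s * B * m ≤ lam * (B * w) := hcl.trans (mul_le_mul_of_nonneg_left hszD hl.le)
    have h2 : c1 * s * m ≤ lam * w := by
      have h4 : B * (c1 * s * m) ≤ B * (lam * w) := by linarith
      exact le_of_mul_le_mul_left h4 hB0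
    have h5 : lam * (c1 * s * 2 ^ j) ≤ lam * w := by
      by_cases h0 : 0 ≤ c1 * s
      · have := mul_le_mul_of_nonneg_left hjU h0
        linarith
      · push Not at h0
        have h6 : c1 * s * 2 ^ j < 0 := mul_neg_of_neg_of_pos h0 hpj
        have h7 : lam * (c1 * s * 2 ^ j) < 0 := mul_neg_of_pos_of_neg hl h6
        have h8 : 0 < lam * w := mul_pos hl hwp
        linarith
    exact le_of_mul_le_mul_left h5 hl
  · rw [hcell, div_le_iff₀ hpj]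
    have h1 : 0 ≤ hh * s := by
      by_contra h0
      push Not at h0
      have : m * (hh * s) < 0 := mul_neg_of_pos_of_neg hm' h0
      linarith
    have h2 : m * (hh * s) ≤ 2 * 2 ^ j * (hh * s) := mul_le_mul_of_nonneg_right hjL h1
    linarith

theorem num_two {m lam κ2 : ℝ} (hm : 0 < m) (hl : 0 ≤ lam) (hl1 : lam ≤ 1) (h : 11 ≤ κ2 * m)
    (h2 : κ2 ≤ 1) : (1 + 11 / m) * lam ≤ 2 := by
  have h11 : 11 / m ≤ 1 := by
    rw [div_le_one hm]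
    have := mul_le_mul_of_nonneg_right h2 hm.le
    linarith
  have h0 : 0 ≤ 11 / m := by positivity
  calc (1 + 11 / m) * lam ≤ (1 + 1) * 1 := by gcongr
    _ = 2 := by norm_num

theorem num_sub {κ d s τ θ0 : ℝ} (hκ : 0 < κ) (hd : 0 < d) (hs : 0 ≤ s)
    (h : 6 / (κ * d) + 2 * θ0 / κ ≤ τ) : 3 / (2 * d) * s + θ0 * s / 2 ≤ κ / 4 * (τ * s) := by
  calc 3 / (2 * d) * s + θ0 * s / 2 = κ / 4 * ((6 / (κ * d) + 2 * θ0 / κ) * s) := by field_simp; ring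
    _ ≤ κ / 4 * (τ * s) := by gcongr

/-- **[BLK]: the block of a brick in a good cube.** -/
theorem exists_blk {La : Set E3} {F : Set (Bx (Fin 3))} {δ κ0 : ℝ} (BF : BoxFoam La F δ κ0)
    (hLa : IsOpen La) {R Md : ℝ} (hR : 1 ≤ R) (hcmp : Cmp F R) (hMd : 0 < Md)
    (hdy : ∀ C ∈ F, Dy 0 1 Md C)
    {m j : ℕ} (hm : 0 < m) {lam u : ℝ} (hl : 0 < lam) (hl1 : lam < 1) (hu : u = lam * 2 ^ j / m)
    (hu1 : u ≤ 1) (hu2 : 1 / 2 ≤ u) {κ : ℝ} (hκ : 0 < κ) (hκ1 : κ ≤ 1) {d : ℕ} (hd0 : 0 < d)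
    (hd : 6 ≤ κ * d) {Cc κ2 κt : ℝ} {Bs Nn : ℕ} (hC1 : 1 ≤ Cc) (hCB : 2 * R * Md ≤ Cc)
    (hm2 : (11 : ℝ) ≤ κ2 * m) (hm3 : (22 : ℝ) ≤ (1 - lam) * m) (hκ2 : κ2 ≤ 1)
    (hBs1 : 1 ≤ Bs) (hBs : 4 * (2 * R * Md) ^ 2 ≤ Bs) (hBs2 : 8 * (2 * R * Md) ≤ Bs)
    (hdN : d ≤ Nn) (hNn : 4 * d * κ⁻¹ + 1 ≤ (Nn : ℝ))
    {s τ hh c1 θ0 θ1 : ℝ} (hs : 0 < s) (hτ : 0 < τ) (hτ1 : τ ≤ 1 / 4)
    {L : R3 →L[ℝ] R3} (low : ∀ v, κ * ‖v‖ ≤ ‖L v‖) (up : ‖L‖ ≤ κ⁻¹) (z b : R3)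
    (hτd : 6 / (κ * d) + 2 * θ0 / κ ≤ τ)
    (c : F) (hc14 : c.1.sz ≤ 1 / 4)
    (hin : cbx c.1 2 ⊆ aff3 L hκ low z b '' closedBall (P3.symm z) ((1 - 2 * τ) * s))
    (hcl : c1 * s * (2 * R * Md) * m ≤ lam * c.1.sz) (hcu : c.1.sz ≤ m * (hh * s))
    {k0 : ℕ} (hkl : θ1 * s ≤ 1 / 2 ^ k0) (hku : 1 / 2 ^ k0 ≤ θ0 * s) (hθ0 : θ0 ≤ c1)
    (hthin : 1 / 2 ^ k0 ≤ κt * (lam * c.1.sz) / m) :
    ∃ (A : E3 ≃ᵃ[ℝ] E3) (Q : CB E3 3) (hk : Q.kc ≤ k0),
      (∀ v : E3, (∃ κv : ℕ, ∀ l, ∃ n : ℤ, 2 ^ κv * (d : ℝ) * Q.ψ v l = n) →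
        Blk F u Cc κ2 κt Bs m Nn c (trA A v) lam (Q.tr v) k0 hk) ∧
      BlkP κ s τ hh c1 θ0 θ1 Bs Nn z (mp P3 Q) k0 ∧
      (∀ x, A.linear x = u • Q.ψ x) ∧
      (∀ x, ‖A x - aff3 L hκ low z b x‖ ≤ 3 / (2 * d) * ‖x - P3.symm z‖ + 1 / (2 * 2 ^ k0)) ∧
      ‖lin A - lin (aff3 L hκ low z b)‖ ≤ 3 / (2 * d) ∧
      (∀ v, κ / 4 * ‖v‖ ≤ ‖lin A v‖) ∧
      Q.Kc = A ⁻¹' cbx c.1 lam ∧ Q.N ⊆ A ⁻¹' cbx c.1 ((1 + 11 / m) * lam) := by
  classical
  have hm' : (0:ℝ) < m := by exact_mod_cast hm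
  have hd' : (0:ℝ) < d := by exact_mod_cast hd0
  have hu0 : 0 < u := by linarith
  have h3 : Module.finrank ℝ (Fin 3 → ℝ) = 3 := by simp
  have FF := foam BF hLa
  have hQd := quads_box BF (by simp : Fintype.card (Fin 3) = 3)
  have hN4 : Fintype.card (Fin 3) + 1 ≤ 4 := by simp
  have hBD := exists_BD2 BF hLa hR hcmp (o := 0) one_pos hMd hdy FF hN4 h3 c
  obtain ⟨B, hB⟩ : ∃ B : ℝ, B = 2 * R * Md := ⟨_, rfl⟩
  have hB0 : 0 < B := by rw [hB]; positivity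
  rw [← hB] at hBD hCB hBs hBs2 hcl
  obtain ⟨D, ⟨k, hk⟩, hszD⟩ := hBD
  rw [one_mul] at hk
  have hcp := BF.pos _ c.2
  have hszp := Bx.sz_pos hcp
  have hws : 2 * D.w ≤ c.1.sz := (two_w_le D 0).trans (Bx.side_le_sz c.1 0)
  have hwp := D.w0
  obtain ⟨kc, hkc3, hkcj⟩ := exists_kc hk (by linarith) j
  have hp : (0:ℝ) < 2 ^ kc := by positivity
  have hpj : (0:ℝ) < 2 ^ j := by positivity
  have huM : lam * uM D m kc = u := by
    unfold uM
    rw [hu, ← mul_div_assoc, hkcj, mul_div_assoc]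
  set A0 := aff3 L hκ low z b with hA0
  have hκi : 1 ≤ κ⁻¹ := (one_le_inv₀ hκ).2 hκ1
  -- the cells
  obtain ⟨hcL, hcU⟩ := num_cells (s := s) (hh := hh) (c1 := c1) hm' hl hl1 hu hu1 hu2 hkcj hwp hB0
    hszD hws hcl hcu
  have hkk : kc ≤ k0 := by
    have h1 : (1:ℝ) / 2 ^ k0 ≤ 1 / 2 ^ kc := by
      refine hku.trans (le_trans ?_ hcL)
      gcongr
    have h2 : (2:ℝ) ^ kc ≤ 2 ^ k0 := by
      rwa [one_div_le_one_div (by positivity) (by positivity)] at h1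
    exact (pow_le_pow_iff_right₀ (by norm_num : (1:ℝ) < 2)).1 h2
  -- the rounding
  have hlow0 : ∀ v, κ / 2 * ‖v‖ ≤ ‖lin A0 v‖ := low_aff3 hκ low z b
  have hup0 : ‖lin A0‖ ≤ 2 * κ⁻¹ := nrm_aff3 hκ low z b (by positivity) up
  have h3d : 3 * u / (2 * d) ≤ 3 / (2 * d) := by
    rw [div_le_div_iff_of_pos_right (by positivity)]
    linarith
  have hd4 : 3 / (2 * (d:ℝ)) ≤ κ / 4 := by
    rw [div_le_iff₀ (by positivity)]
    linarith
  obtain ⟨A, Bm, hA1, hA2, hA3, hA4, hA5, hA6⟩ := exists_round (A0 := A0) (κ' := κ / 2)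
    (K := 2 * κ⁻¹) (by positivity) hlow0 hup0 hu0 hd0 (by nlinarith) (P3.symm z)
    (fun l => ctr c.1 l - lam * c.1.side l / 2) (fun l => D.lo m l / 2 ^ kc) k0
  set Q := blkU D hN4 BF hLa hQd hm A hl kc hkc3 with hQ
  have hlinQ : ∀ x, A.linear x = u • Q.ψ x := by
    intro x
    rw [← huM]
    exact blkU_lin D hN4 BF hLa hQd hm A hl kc hkc3 x
  have hψ : ∀ x l, Q.ψ x l = u⁻¹ * A.linear x l := by
    intro x l
    rw [hlinQ, Pi.smul_apply, smul_eq_mul, inv_mul_cancel_left₀ hu0.ne']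
  have hψn : ∀ x, ‖Q.ψ x‖ = u⁻¹ * ‖lin A x‖ := by
    intro x
    have : lin A x = u • Q.ψ x := hlinQ x
    rw [this, norm_smul, Real.norm_eq_abs, abs_of_pos hu0, inv_mul_cancel_left₀ hu0.ne']
  have hrt : Rt (ContinuousLinearEquiv.refl ℝ E3) Q.ψ Bm d := by
    intro y l
    rw [hψ, hA1]
    rfl
  have ha' : ∀ l, ∃ n : ℤ, 2 ^ k0 * Q.a' l = n := by
    intro l
    obtain ⟨n, hn⟩ := hA6 l
    refine ⟨n, ?_⟩
    rw [← hn, hQ, blkU_a, huM]
  have hBmN : ∀ i j, |Bm i j| ≤ (Nn : ℤ) := by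
    intro i l
    have h1 := hA2 i l
    have h2 : d * (2 * κ⁻¹) / u ≤ 4 * d * κ⁻¹ := by
      rw [div_le_iff₀ hu0]
      have : 0 ≤ d * κ⁻¹ := by positivity
      nlinarith
    have h4 : |(Bm i l : ℝ)| ≤ Nn := by linarith
    exact_mod_cast h4
  have hNA : Q.N ⊆ A ⁻¹' cbx c.1 ((1 + 11 / m) * lam) := by
    have h1 := blkU_N D hN4 BF hLa hQd hm A hl kc hkc3 (κ := 11 / (2 * m)) (by
      field_simp
      norm_num)
    have e : 1 + 2 * (11 / (2 * (m:ℝ))) = 1 + 11 / m := by field_simp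
    rw [e] at h1
    exact h1
  have hclose : ∀ x, ‖A x - A0 x‖ ≤ 3 / (2 * d) * ‖x - P3.symm z‖ + 1 / (2 * 2 ^ k0) := by
    intro x
    refine (hA4 x).trans (add_le_add (by gcongr) ?_)
    rw [div_le_div_iff_of_pos_right (by positivity)]
    exact hu1
  have hlow1 : ∀ v, κ / 4 * ‖v‖ ≤ ‖lin A v‖ := by
    intro v
    have h1 := hA5 v
    have e : κ / 2 / 2 = κ / 4 := by ring
    rwa [e] at h1
  refine ⟨A, Q, hkk, ?_, ?_, hlinQ, hclose, hA3.trans h3d, hlow1,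
    blkU_Kc D hN4 BF hLa hQd hm A hl kc hkc3, hNA⟩
  · rintro v ⟨κv, hv⟩
    have e1 := blkU_tr D hN4 BF hLa hQd hm A hl kc hkc3 v
    have key := blk_blkU D hN4 BF hLa hQd hm (trA A v) hl kc hkc3 (u := u) (Cc := Cc) (κ2 := κ2)
      (κt := κt) (Bs := Bs) (Nn := Nn) (k0 := k0) huM hl1 hszD hC1 hCB hm2 hm3 hBs1 hBs hBs2 hkk
      (by
        refine le_trans ?_ hthin
        rw [div_le_div_iff_of_pos_right (by positivity)]
        exact hu1)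
      (by
        refine ⟨d, Bm, hd0, hdN, hBmN, ?_, k0 + κv, fun l => ?_⟩
        · rw [e1]
          exact hrt
        · rw [e1]
          obtain ⟨n1, h1⟩ := ha' l
          obtain ⟨n2, h2⟩ := hv l
          refine ⟨2 ^ κv * d * n1 + 2 ^ k0 * n2, ?_⟩
          show 2 ^ (k0 + κv) * (d:ℝ) * (Q.a' l + Q.ψ v l) = _
          push_cast
          rw [← h1, ← h2, pow_add]
          ring)
    rw! [e1] at key
    exact key
  · refine ⟨?_, ?_, blkU_bnd D hN4 BF hLa hQd hm A hl kc hkc3 hBs1 hBs,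
      blkU_size D hN4 BF hLa hQd hm A hl kc hkc3 hBs2 (by exact_mod_cast hBs1), hcL, hcU, hkl, hku, ?_⟩
    · intro v
      have e0 : (mp P3 Q).ψ v = Q.ψ (P3.symm v) := rfl
      rw [e0, hψn]
      set y := P3.symm v with hy
      have hyv : P3 y = v := P3.apply_symm_apply v
      have hyn : ‖y‖ ≤ ‖v‖ := Er_594.norm_P3_symm_le v
      have h1 : ‖lin A0 y‖ = ‖P3.symm (L v)‖ := by rw [hA0, lin_aff3, hyv]
      have h2 : ‖lin A y - lin A0 y‖ ≤ κ / 4 * ‖v‖ := by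
        have h4 : ‖(lin A - lin A0) y‖ ≤ 3 / (2 * d) * ‖y‖ :=
          ((lin A - lin A0).le_opNorm y).trans (by gcongr; exact hA3.trans h3d)
        calc _ = ‖(lin A - lin A0) y‖ := rfl
          _ ≤ 3 / (2 * d) * ‖y‖ := h4
          _ ≤ κ / 4 * ‖v‖ := by gcongr
      have h5 : ‖L v‖ ≤ 2 * ‖P3.symm (L v)‖ := by
        have := Er_594.norm_P3_le (P3.symm (L v))
        rwa [P3.apply_symm_apply] at this
      have h6 : ‖P3.symm (L v)‖ ≤ ‖L v‖ := Er_594.norm_P3_symm_le _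
      have h7 := low v
      have h8 : ‖L v‖ ≤ κ⁻¹ * ‖v‖ := (L.le_opNorm v).trans (by gcongr)
      have h9 : ‖lin A0 y‖ ≤ ‖lin A y‖ + ‖lin A y - lin A0 y‖ := by
        have e1 : lin A0 y = lin A y - (lin A y - lin A0 y) := by abel
        calc ‖lin A0 y‖ = ‖lin A y - (lin A y - lin A0 y)‖ := by rw [← e1]
          _ ≤ _ := norm_sub_le _ _
      have h10 : ‖lin A y‖ ≤ ‖lin A0 y‖ + ‖lin A y - lin A0 y‖ := by
        have e1 : lin A y = lin A0 y + (lin A y - lin A0 y) := by abel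
        calc ‖lin A y‖ = ‖lin A0 y + (lin A y - lin A0 y)‖ := by rw [← e1]
          _ ≤ _ := norm_add_le _ _
      have hui1 : 1 ≤ u⁻¹ := (one_le_inv₀ hu0).2 hu1
      have hui2 : u⁻¹ ≤ 2 := by
        rw [inv_le_comm₀ hu0 (by norm_num)]
        linarith
      have hA0' : κ / 4 * ‖v‖ ≤ ‖lin A y‖ := by
        rw [h1] at h9
        clear hcl hcu hthin hkl hku hτd hBs hBs2 hNn
        linarith
      have hA1' : ‖lin A y‖ ≤ 2 * κ⁻¹ * ‖v‖ := by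
        rw [h1] at h10
        have : κ / 4 * ‖v‖ ≤ κ⁻¹ * ‖v‖ := by
          gcongr
          linarith
        linarith
      constructor
      · calc κ / 4 * ‖v‖ ≤ 1 * ‖lin A y‖ := by rw [one_mul]; exact hA0'
          _ ≤ u⁻¹ * ‖lin A y‖ := by gcongr
      · calc u⁻¹ * ‖lin A y‖ ≤ 2 * (2 * κ⁻¹ * ‖v‖) := by gcongr
          _ = 4 * κ⁻¹ * ‖v‖ := by ring
    · refine ⟨d, Bm, hd0, hdN, hBmN, (rt_P3 Q).2 hrt, fun l => ?_⟩
      obtain ⟨n1, h1⟩ := ha' l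
      refine ⟨d * n1, ?_⟩
      show 2 ^ k0 * (d:ℝ) * Q.a' l = _
      push_cast
      rw [← h1]
      ring
    · intro y hy
      have hy' : P3.symm y ∈ Q.N := by
        have h1 := mem_N_mp' P3 Q (x := P3.symm y)
        rw [P3.apply_symm_apply] at h1
        exact h1.1 hy
      set x := P3.symm y with hx
      have h1 : A x ∈ cbx c.1 2 := by
        exact Br_695.cbx_mono hcp (num_two hm' hl.le hl1.le hm2 hκ2) (hNA hy')
      obtain ⟨x', hx', hxx⟩ := hin h1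
      have h2 : ‖x - x'‖ ≤ τ * s := by
        have h4 : κ / 4 * ‖x - x'‖ ≤ ‖A x' - A0 x'‖ := by
          have h4' := hlow1 (x - x')
          rw [Br_695.lin_apply, ← hxx] at h4'
          rw [norm_sub_rev (A x') (A0 x')]
          exact h4'
        have h5 := hclose x'
        rw [mem_closedBall, dist_eq_norm] at hx'
        have h6 : ‖x' - P3.symm z‖ ≤ s := hx'.trans (mul_le_of_le_one_left hs.le (by linarith only [hτ]))
        have h7 : 3 / (2 * (d:ℝ)) * ‖x' - P3.symm z‖ ≤ 3 / (2 * d) * s := by gcongr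
        have h8 : (1:ℝ) / (2 * 2 ^ k0) ≤ θ0 * s / 2 := by
          have : (1:ℝ) / (2 * 2 ^ k0) = 1 / 2 ^ k0 / 2 := by field_simp
          rw [this]
          linarith
        have h10 : κ / 4 * ‖x - x'‖ ≤ 3 / (2 * d) * s + θ0 * s / 2 :=
          h4.trans (h5.trans (add_le_add h7 h8))
        have h9 : κ / 4 * ‖x - x'‖ ≤ κ / 4 * (τ * s) := h10.trans (num_sub hκ hd' hs.le hτd)
        exact le_of_mul_le_mul_left h9 (by positivity)
      have h4 : x ∈ closedBall (P3.symm z) ((1 - τ) * s) := by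
        rw [mem_closedBall, dist_eq_norm] at hx' ⊢
        calc ‖x - P3.symm z‖ ≤ ‖x - x'‖ + ‖x' - P3.symm z‖ := norm_sub_le_norm_sub_add_norm_sub _ _ _
          _ ≤ τ * s + (1 - 2 * τ) * s := add_le_add h2 hx'
          _ = (1 - τ) * s := by ring
      rw [← Fil_313.cel_preimage z (mul_pos (by linarith only [hτ1]) hs : 0 < (1 - τ) * s)] at h4
      rw [mem_preimage, hx, P3.apply_symm_apply] at h4
      exact h4

end

end Crest.Agent.R096.Bk_802
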