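import Mathlib

/-!
Row 96 (S0127), helper896.  **BLOCKS-SMALL** (leaf [B] of 962 #10270), abstract part: pure measure theory.
Countably many a.e. disjoint blocks `N i ⊆ Om` of finite measure, `D` close to a constant `A i` on `N i`
in the mean (`∫_(N i) Σ‖D l - A i l‖^p ≤ (m i / 2) μ (N i)`), every tuple at distance `< m i` of `A i`
is good (`S`), `m i ≤ Σ ‖A i l‖^p`.  Then `μ (⋃ N i) ≤ 2 μ (Om ∩ S)` and
`Σ' (Σ ‖A i l‖^p) μ (N i) ≤ C_p (∫_Om Σ ‖D l - v l‖^p + (Σ ‖v l‖^p) μ (Om ∩ S))`.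
-/

set_option autoImplicit false
set_option linter.unusedSectionVars false
set_option linter.style.longLine false
set_option linter.unusedVariables false

namespace Crest.Agent.R096.Bks_896

open MeasureTheory Set
open scoped ENNReal NNReal

variable {X : Type*} [MeasurableSpace X] {μ : Measure X}

/-- **Chebyshev**: half of the block is in `S`. -/
theorem half_of_cheb {N S : Set X} (hN : NullMeasurableSet N μ) (hNt : μ N ≠ ∞) {φ : X → ℝ≥0∞}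
    (hφ : AEMeasurable φ (μ.restrict N)) {m : ℝ≥0∞} (hm : m ≠ 0) (hmt : m ≠ ∞)
    (hint : ∫⁻ x in N, φ x ∂μ ≤ m / 2 * μ N) (hS : ∀ x ∈ N, φ x < m → x ∈ S) :
    μ N ≤ 2 * μ (N ∩ S) := by
  have h1 : N ⊆ (N ∩ S) ∪ ({x | m ≤ φ x} ∩ N) := by
    intro x hx
    by_cases h : φ x < m
    · exact Or.inl ⟨hx, hS x hx h⟩
    · exact Or.inr ⟨not_lt.1 h, hx⟩
  have h2 : μ ({x | m ≤ φ x} ∩ N) ≤ μ N / 2 := by
    rw [← Measure.restrict_apply₀' hN]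
    refine (meas_ge_le_lintegral_div hφ hm hmt).trans ?_
    refine (ENNReal.div_le_div_right hint m).trans (le_of_eq ?_)
    rw [div_eq_mul_inv, div_eq_mul_inv, div_eq_mul_inv]
    calc m * 2⁻¹ * μ N * m⁻¹ = (m * m⁻¹) * (μ N * 2⁻¹) := by ring
      _ = μ N * 2⁻¹ := by rw [ENNReal.mul_inv_cancel hm hmt, one_mul]
  have h3 : μ N ≤ μ (N ∩ S) + μ N / 2 :=
    (measure_mono h1).trans ((measure_union_le _ _).trans (by gcongr))
  have h4 : μ N / 2 ≤ μ (N ∩ S) := by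
    have h5 : μ N / 2 + μ N / 2 ≤ μ (N ∩ S) + μ N / 2 := by rwa [ENNReal.add_halves]
    have h6 : μ N / 2 ≠ ∞ := ENNReal.div_ne_top hNt (by norm_num)
    exact (ENNReal.add_le_add_iff_right h6).1 h5
  calc μ N = μ N / 2 + μ N / 2 := (ENNReal.add_halves _).symm
    _ ≤ μ (N ∩ S) + μ (N ∩ S) := add_le_add h4 h4
    _ = 2 * μ (N ∩ S) := (two_mul _).symm

section family

variable {ι : Type*} [Countable ι] {N : ι → Set X} {Om S : Set X}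

theorem tsum_inter_le (hN : ∀ i, NullMeasurableSet (N i) μ)
    (hd : Pairwise (Function.onFun (AEDisjoint μ) N)) (hsub : ∀ i, N i ⊆ Om) :
    ∑' i, μ (N i ∩ S) ≤ μ (Om ∩ S) := by
  have hac : μ.restrict S ≤ μ := Measure.restrict_le_self
  have h1 : ∀ i, NullMeasurableSet (N i) (μ.restrict S) := fun i =>
    (hN i).mono_ac (Measure.absolutelyContinuous_of_le hac)
  have h2 : ∀ i, μ.restrict S (N i) = μ (N i ∩ S) := fun i => Measure.restrict_apply₀ (h1 i)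
  have h3 : Pairwise (Function.onFun (AEDisjoint (μ.restrict S)) N) := by
    intro i j hij
    exact le_antisymm ((hac _).trans (hd hij).le) zero_le
  calc ∑' i, μ (N i ∩ S) = ∑' i, μ.restrict S (N i) := by simp only [h2]
    _ = μ.restrict S (⋃ i, N i) := (measure_iUnion₀ h3 h1).symm
    _ = μ ((⋃ i, N i) ∩ S) := Measure.restrict_apply₀ (NullMeasurableSet.iUnion h1)
    _ ≤ μ (Om ∩ S) := measure_mono (inter_subset_inter_left _ (iUnion_subset hsub))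

/-- **the blocks are small** -/
theorem vol_blocks (hN : ∀ i, NullMeasurableSet (N i) μ)
    (hd : Pairwise (Function.onFun (AEDisjoint μ) N)) (hsub : ∀ i, N i ⊆ Om)
    (h : ∀ i, μ (N i) ≤ 2 * μ (N i ∩ S)) : μ (⋃ i, N i) ≤ 2 * μ (Om ∩ S) := by
  refine (measure_iUnion_le _).trans ((ENNReal.tsum_le_tsum h).trans ?_)
  rw [ENNReal.tsum_mul_left]
  gcongr
  exact tsum_inter_le hN hd hsub

end family

section energy

variable {V : Type*} [NormedAddCommGroup V] {κ : Type*} [Fintype κ]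

/-- the constant of one block -/
noncomputable def Kb (p : ℝ) : ℝ≥0∞ := ((1 - (1 / 2 : ℝ≥0∞) ^ (1 / p))⁻¹) ^ p

theorem Kb_ne_top {p : ℝ} (hp : 0 < p) : Kb p ≠ ∞ := by
  refine ENNReal.rpow_ne_top_of_nonneg hp.le ?_
  rw [ENNReal.inv_ne_top]
  have h1 : (1 / 2 : ℝ≥0∞) ^ (1 / p) < 1 :=
    ENNReal.rpow_lt_one (by rw [one_div]; exact ENNReal.inv_lt_one.2 (by norm_num)) (by positivity)
  exact (tsub_pos_of_lt h1).ne'

/-- **energy of the constant `A` on one block** (Minkowski). -/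
theorem block_energy {p : ℝ} (hp : 1 ≤ p) {N : Set X} (hNt : μ N ≠ ∞) {D : κ → X → V}
    (hD : ∀ l, AEStronglyMeasurable (D l) (μ.restrict N)) (A : κ → V) {m : ℝ≥0∞}
    (hmA : m ≤ ∑ l, ‖A l‖ₑ ^ p)
    (hint : ∫⁻ x in N, ∑ l, ‖D l x - A l‖ₑ ^ p ∂μ ≤ m / 2 * μ N) :
    (∑ l, ‖A l‖ₑ ^ p) * μ N ≤ Kb p * ∫⁻ x in N, ∑ l, ‖D l x‖ₑ ^ p ∂μ := by
  have hp0 : 0 < p := by linarith
  have hpp : 1 / p * p = 1 := by field_simp
  set s : ℝ≥0∞ := ∑ l, ‖A l‖ₑ ^ p with hs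
  have hst : s ≠ ∞ := by
    rw [hs, ENNReal.sum_ne_top]
    intro l _
    exact ENNReal.rpow_ne_top_of_nonneg hp0.le enorm_ne_top
  have hm1 : AEMeasurable (fun x => (∑ l, ‖D l x - A l‖ₑ ^ p) ^ (1 / p)) (μ.restrict N) := by
    refine AEMeasurable.pow_const (Finset.aemeasurable_fun_sum _ fun l _ => ?_) _
    exact ((hD l).sub aestronglyMeasurable_const).enorm.pow_const _
  have hm2 : AEMeasurable (fun x => (∑ l, ‖D l x‖ₑ ^ p) ^ (1 / p)) (μ.restrict N) := by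
    refine AEMeasurable.pow_const (Finset.aemeasurable_fun_sum _ fun l _ => ?_) _
    exact (hD l).enorm.pow_const _
  have hpw : ∀ x, s ^ (1 / p) ≤ ((fun x => (∑ l, ‖D l x - A l‖ₑ ^ p) ^ (1 / p)) +
      (fun x => (∑ l, ‖D l x‖ₑ ^ p) ^ (1 / p))) x := by
    intro x
    have h1 : ∀ l, ‖A l‖ₑ ≤ ‖D l x - A l‖ₑ + ‖D l x‖ₑ := by
      intro l
      have h2 : A l = D l x - (D l x - A l) := by abel
      calc ‖A l‖ₑ = ‖D l x - (D l x - A l)‖ₑ := by rw [← h2]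
        _ ≤ ‖D l x‖ₑ + ‖D l x - A l‖ₑ := enorm_sub_le
        _ = _ := add_comm _ _
    refine le_trans ?_ (ENNReal.Lp_add_le Finset.univ (fun l => ‖D l x - A l‖ₑ)
      (fun l => ‖D l x‖ₑ) hp)
    refine ENNReal.rpow_le_rpow (Finset.sum_le_sum fun l _ => ?_) (by positivity)
    exact ENNReal.rpow_le_rpow (h1 l) hp0.le
  set I := ∫⁻ x in N, ∑ l, ‖D l x‖ₑ ^ p ∂μ with hI
  set t : ℝ≥0∞ := (s * μ N) ^ (1 / p) with ht
  have htt : t ≠ ∞ := ENNReal.rpow_ne_top_of_nonneg (by positivity) (ENNReal.mul_ne_top hst hNt)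
  set c : ℝ≥0∞ := (1 / 2 : ℝ≥0∞) ^ (1 / p) with hc
  have hc1 : c < 1 :=
    ENNReal.rpow_lt_one (by rw [one_div]; exact ENNReal.inv_lt_one.2 (by norm_num)) (by positivity)
  have key : t ≤ c * t + I ^ (1 / p) := by
    have e0 : (∫⁻ x in N, (s ^ (1 / p)) ^ p ∂μ) = s * μ N := by
      rw [← ENNReal.rpow_mul, hpp, ENNReal.rpow_one, lintegral_const, Measure.restrict_apply_univ]
    have e1 : t ≤ (∫⁻ x in N, (((fun x => (∑ l, ‖D l x - A l‖ₑ ^ p) ^ (1 / p)) +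
      (fun x => (∑ l, ‖D l x‖ₑ ^ p) ^ (1 / p))) x) ^ p ∂μ) ^ (1 / p) := by
      rw [ht, ← e0]
      refine ENNReal.rpow_le_rpow (lintegral_mono fun x => ?_) (by positivity)
      exact ENNReal.rpow_le_rpow (hpw x) hp0.le
    refine e1.trans ((ENNReal.lintegral_Lp_add_le hm1 hm2 hp).trans ?_)
    have e2 : ∀ g : X → ℝ≥0∞, (∫⁻ x in N, (g x ^ (1 / p)) ^ p ∂μ) = ∫⁻ x in N, g x ∂μ := by
      intro g
      refine lintegral_congr fun x => ?_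
      rw [← ENNReal.rpow_mul, hpp, ENNReal.rpow_one]
    rw [e2 (fun x => ∑ l, ‖D l x - A l‖ₑ ^ p), e2 (fun x => ∑ l, ‖D l x‖ₑ ^ p)]
    refine add_le_add ?_ le_rfl
    rw [hc, ht, ← ENNReal.mul_rpow_of_nonneg _ _ (by positivity : (0:ℝ) ≤ 1 / p)]
    refine ENNReal.rpow_le_rpow (hint.trans ?_) (by positivity)
    calc m / 2 * μ N ≤ s / 2 * μ N := by gcongr
      _ = 1 / 2 * (s * μ N) := by rw [div_eq_mul_inv, div_eq_mul_inv, one_mul]; ring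
  have k2 : (1 - c) * t ≤ I ^ (1 / p) := by
    rw [ENNReal.sub_mul (fun _ _ => htt), one_mul, tsub_le_iff_left]
    exact key
  have hc0 : 1 - c ≠ 0 := (tsub_pos_of_lt hc1).ne'
  have hct : 1 - c ≠ ∞ := (lt_of_le_of_lt tsub_le_self ENNReal.one_lt_top).ne
  have k3 : t ≤ (1 - c)⁻¹ * I ^ (1 / p) := by
    calc t = (1 - c)⁻¹ * ((1 - c) * t) := by
          rw [← mul_assoc, ENNReal.inv_mul_cancel hc0 hct, one_mul]
      _ ≤ _ := by gcongr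
  calc s * μ N = t ^ p := by rw [ht, ← ENNReal.rpow_mul, hpp, ENNReal.rpow_one]
    _ ≤ ((1 - c)⁻¹ * I ^ (1 / p)) ^ p := ENNReal.rpow_le_rpow k3 hp0.le
    _ = Kb p * I := by
        rw [ENNReal.mul_rpow_of_nonneg _ _ hp0.le, ← ENNReal.rpow_mul, hpp, ENNReal.rpow_one, Kb, hc]

/-- the constant of `blocks_energy` -/
noncomputable def Cb (p : ℝ) : ℝ≥0∞ := Kb p * 2 ^ (p - 1) * 2

theorem Cb_ne_top {p : ℝ} (hp : 1 ≤ p) : Cb p ≠ ∞ := by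
  refine ENNReal.mul_ne_top (ENNReal.mul_ne_top (Kb_ne_top (by linarith)) ?_) (by norm_num)
  exact ENNReal.rpow_ne_top_of_nonneg (by linarith) (by norm_num)

theorem pow_split {p : ℝ} (hp : 1 ≤ p) (B v : κ → V) :
    ∑ l, ‖B l‖ₑ ^ p ≤ 2 ^ (p - 1) * (∑ l, ‖B l - v l‖ₑ ^ p + ∑ l, ‖v l‖ₑ ^ p) := by
  rw [← Finset.sum_add_distrib, Finset.mul_sum]
  refine Finset.sum_le_sum fun l _ => ?_
  have h1 : ‖B l‖ₑ ≤ ‖B l - v l‖ₑ + ‖v l‖ₑ := by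
    calc ‖B l‖ₑ = ‖(B l - v l) + v l‖ₑ := by rw [sub_add_cancel]
      _ ≤ _ := enorm_add_le _ _
  exact (ENNReal.rpow_le_rpow h1 (by linarith)).trans (ENNReal.rpow_add_le_mul_rpow_add_rpow _ _ hp)

variable {ι : Type*} [Countable ι] {N : ι → Set X} {Om S : Set X}

/-- **the energy of the blocks is small** -/
theorem blocks_energy {p : ℝ} (hp : 1 ≤ p) (hN : ∀ i, NullMeasurableSet (N i) μ)
    (hNt : ∀ i, μ (N i) ≠ ∞) (hd : Pairwise (Function.onFun (AEDisjoint μ) N))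
    (hsub : ∀ i, N i ⊆ Om) {D : κ → X → V}
    (hD : ∀ l, AEStronglyMeasurable (D l) (μ.restrict Om)) (A : ι → κ → V) {m : ι → ℝ≥0∞}
    (hmA : ∀ i, m i ≤ ∑ l, ‖A i l‖ₑ ^ p)
    (hint : ∀ i, ∫⁻ x in N i, ∑ l, ‖D l x - A i l‖ₑ ^ p ∂μ ≤ m i / 2 * μ (N i))
    (hvol : μ (⋃ i, N i) ≤ 2 * μ (Om ∩ S)) (v : κ → V) :
    ∑' i, (∑ l, ‖A i l‖ₑ ^ p) * μ (N i) ≤
      Cb p * (∫⁻ x in Om, ∑ l, ‖D l x - v l‖ₑ ^ p ∂μ + (∑ l, ‖v l‖ₑ ^ p) * μ (Om ∩ S)) := by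
  have h1 : ∀ i, (∑ l, ‖A i l‖ₑ ^ p) * μ (N i) ≤ Kb p * ∫⁻ x in N i, ∑ l, ‖D l x‖ₑ ^ p ∂μ :=
    fun i => block_energy hp (hNt i)
      (fun l => (hD l).mono_measure (Measure.restrict_mono (hsub i) le_rfl)) (A i) (hmA i) (hint i)
  refine (ENNReal.tsum_le_tsum h1).trans ?_
  rw [ENNReal.tsum_mul_left, ← lintegral_iUnion₀ hN hd, Cb, mul_assoc, mul_assoc]
  gcongr
  have h2 : (∫⁻ x in ⋃ i, N i, ∑ l, ‖D l x‖ₑ ^ p ∂μ) ≤
      2 ^ (p - 1) * (∫⁻ x in Om, ∑ l, ‖D l x - v l‖ₑ ^ p ∂μ +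
        (∑ l, ‖v l‖ₑ ^ p) * μ (⋃ i, N i)) := by
    have hpt : (2 : ℝ≥0∞) ^ (p - 1) ≠ ∞ :=
      ENNReal.rpow_ne_top_of_nonneg (by linarith) (by norm_num)
    calc (∫⁻ x in ⋃ i, N i, ∑ l, ‖D l x‖ₑ ^ p ∂μ)
        ≤ ∫⁻ x in ⋃ i, N i, 2 ^ (p - 1) * (∑ l, ‖D l x - v l‖ₑ ^ p + ∑ l, ‖v l‖ₑ ^ p) ∂μ :=
          lintegral_mono fun x => pow_split hp (fun l => D l x) v
      _ = 2 ^ (p - 1) * (∫⁻ x in ⋃ i, N i, ∑ l, ‖D l x - v l‖ₑ ^ p ∂μ +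
            (∑ l, ‖v l‖ₑ ^ p) * μ (⋃ i, N i)) := by
          rw [lintegral_const_mul' _ _ hpt, lintegral_add_right _ measurable_const,
            lintegral_const, Measure.restrict_apply_univ]
      _ ≤ _ := by
          gcongr
          exact iUnion_subset hsub
  refine h2.trans ?_
  gcongr
  rw [mul_add]
  refine add_le_add ?_ ?_
  · calc (∫⁻ x in Om, ∑ l, ‖D l x - v l‖ₑ ^ p ∂μ) = 1 * ∫⁻ x in Om, ∑ l, ‖D l x - v l‖ₑ ^ p ∂μ :=
        (one_mul _).symm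
      _ ≤ _ := by gcongr; norm_num
  · calc (∑ l, ‖v l‖ₑ ^ p) * μ (⋃ i, N i) ≤ (∑ l, ‖v l‖ₑ ^ p) * (2 * μ (Om ∩ S)) := by gcongr
      _ = _ := by ring

end energy

end Crest.Agent.R096.Bks_896
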