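import Crest.Agent.R096.Sel1_766

/-!
Row 96 (S0127), helper766.  **SEL**: the set `EE` of the points with controlled singular values which
are good at all scales `< δ`; its image has density close to `1` in all balls of a given scale.
-/

set_option autoImplicit false
set_option linter.unusedSectionVars false
set_option linter.style.longLine false
set_option linter.style.haveILetI false
set_option linter.unusedVariables false

namespace Crest.Agent.R096.Sel_766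

open MeasureTheory Set Filter Topology Metric
open scoped ENNReal NNReal RealInnerProductSpace
open Crest.AnalysisR.VecCalc3 Crest.AnalysisR.Sobolev
open Crest.Agent.R096.Osc_802 Crest.Agent.R096.LusN_766 Crest.Agent.R096.VolC_766
open Crest.Agent.R096.VolC2_766 Crest.Agent.R096.VolC3_766 Crest.Agent.R96.Lu_538
open Crest.Agent.R096.ThC6_766

/-- linear maps with singular values in `[m, 1/m]`. -/
def LM (m : ℝ) : Set (R3 →L[ℝ] R3) := {A | ∀ v, m * ‖v‖ ≤ ‖A v‖ ∧ m * ‖A v‖ ≤ ‖v‖}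

lemma isClosed_LM (m : ℝ) : IsClosed (LM m) := by
  have h1 : LM m = ⋂ v : R3, ({A : R3 →L[ℝ] R3 | m * ‖v‖ ≤ ‖A v‖} ∩ {A | m * ‖A v‖ ≤ ‖v‖}) := by
    ext A
    simp only [LM, mem_ofPred_eq, mem_iInter, mem_inter_iff]
  rw [h1]
  refine isClosed_iInter fun v => IsClosed.inter ?_ ?_
  · exact isClosed_le continuous_const (by fun_prop)
  · exact isClosed_le (by fun_prop) continuous_const

lemma LM_mono {m m' : ℝ} (h : m ≤ m') : LM m' ⊆ LM m := by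
  intro A hA v
  have h1 := hA v
  have h2 := norm_nonneg v
  have h3 := norm_nonneg (A v)
  constructor <;> nlinarith

lemma exists_LM {A : R3 →L[ℝ] R3} (hA : A.det ≠ 0) : ∃ n : ℕ, A ∈ LM (1 / ((n : ℝ) + 1)) := by
  set B := A.toContinuousLinearEquivOfDetNeZero hA with hB
  obtain ⟨n, hn⟩ := exists_nat_ge (max ‖A‖ ‖(B.symm : R3 →L[ℝ] R3)‖)
  refine ⟨n, fun v => ?_⟩
  have h1 := A.le_opNorm v
  have h2 := (B.symm : R3 →L[ℝ] R3).le_opNorm (A v)
  have h3 : (B.symm : R3 →L[ℝ] R3) (A v) = v := by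
    have : A v = B v := by rw [hB, ContinuousLinearMap.toContinuousLinearEquivOfDetNeZero_apply]
    rw [this]
    exact B.symm_apply_apply v
  rw [h3] at h2
  have h4 : ‖A‖ ≤ n := (le_max_left _ _).trans hn
  have h5 : ‖(B.symm : R3 →L[ℝ] R3)‖ ≤ n := (le_max_right _ _).trans hn
  have h6 := norm_nonneg v
  have h7 := norm_nonneg (A v)
  constructor
  · rw [one_div, inv_mul_le_iff₀ (by positivity)]
    nlinarith
  · rw [one_div, inv_mul_le_iff₀ (by positivity)]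
    nlinarith

/-- regular points with singular values outside `[m, 1/m]`. -/
def BS (Ω : Set R3) (G : Fin 3 → R3 → R3) (m : ℝ) : Set R3 :=
  {x | x ∈ Ω ∧ (Gmat G x).det ≠ 0 ∧ Gmat G x ∉ LM m}

lemma measurable_BS {Ω : Set R3} (hΩ : IsOpen Ω) {G : Fin 3 → R3 → R3} (hG : ∀ j, Measurable (G j))
    (m : ℝ) : MeasurableSet (BS Ω G m) := by
  have h1 : BS Ω G m = Ω ∩ ({x | (Gmat G x).det = 0}ᶜ ∩ (Gmat G ⁻¹' LM m)ᶜ) := rfl
  rw [h1]
  refine hΩ.measurableSet.inter (MeasurableSet.inter ?_ ?_)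
  · apply MeasurableSet.compl
    have h2 : Measurable fun x => (Gmat G x).det :=
      (ContinuousLinearMap.continuous_det).measurable.comp (measurable_Gmat hG)
    exact h2 (measurableSet_singleton 0)
  · exact ((measurable_Gmat hG) (isClosed_LM m).measurableSet).compl

lemma nullMeasurable_BS {Ω : Set R3} (hΩ : IsOpen Ω) {G : Fin 3 → R3 → R3}
    (hG : ∀ j, AEStronglyMeasurable (G j) (volume.restrict Ω)) (m : ℝ) :
    NullMeasurableSet (BS Ω G m) volume := by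
  set G' : Fin 3 → R3 → R3 := fun j => (hG j).mk (G j) with hG'
  have hG'm : ∀ j, Measurable (G' j) := fun j => (hG j).stronglyMeasurable_mk.measurable
  have hae : ∀ᵐ x, x ∈ Ω → ∀ j, G j x = G' j x := by
    have h1 : ∀ j, ∀ᵐ x, x ∈ Ω → G j x = G' j x := fun j =>
      (ae_restrict_iff' hΩ.measurableSet).1 (hG j).ae_eq_mk
    filter_upwards [ae_all_iff.2 h1] with x hx hxΩ j
    exact hx j hxΩ
  refine (measurable_BS hΩ hG'm m).nullMeasurableSet.congr ?_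
  filter_upwards [hae] with x hx
  apply propext
  by_cases hxΩ : x ∈ Ω
  swap
  · constructor
    · exact fun h => absurd h.1 hxΩ
    · exact fun h => absurd h.1 hxΩ
  have hGx := hx hxΩ
  have e1 : Gmat G' x = Gmat G x := by
    simp only [Gmat]
    congr 1
    funext j
    exact (hGx j).symm
  constructor
  · rintro ⟨h1, h2, h3⟩
    rw [e1] at h2 h3
    exact ⟨h1, h2, h3⟩
  · rintro ⟨h1, h2, h3⟩
    refine ⟨h1, ?_, ?_⟩
    · rw [e1]; exact h2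
    · rw [e1]; exact h3

/-- the good points. -/
def EE (Ω : Set R3) (f : R3 → R3) (G : Fin 3 → R3 → R3) (p : ℝ) (μ κ δ : R3 → ℝ) : Set R3 :=
  {x | x ∈ Ω ∧ Gmat G x ∈ LM (μ x) ∧ ∀ s : ℝ, 0 < s → s < δ x → GoodAt Ω f G p κ x s}

/-- **SEL.** -/
theorem sel {Ω Λ : Set R3} (hΩ : IsOpen Ω) (hΛ : IsOpen Λ)
    {f : R3 → R3} (hf : IsHomeomorphOn f Ω Λ) {G : Fin 3 → R3 → R3}
    (hG : ∀ j, HasWeakGradOn Ω (fun x => f x j) (G j)) {p : ℝ} (hp : 3 ≤ p)
    (hGp : ∀ j, MemLp (G j) (ENNReal.ofReal p) (volume.restrict Ω))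
    {ρ : Measure R3} [IsFiniteMeasure ρ] (hρ : ρ ≪ volume) {ε : ℝ≥0∞} (hε : 0 < ε)
    {w : R3 → ℝ} (hw : Scale Λ w) {η : ℝ} (hη : 0 < η)
    {h₁ : R3 → ℝ} (hh₁ : ∀ x ∈ Ω, ∃ r : ℝ, 0 < r ∧ ∃ m : ℝ, 0 < m ∧ ∀ y ∈ ball x r, m ≤ h₁ y) :
    ∃ μ : R3 → ℝ, Scale Ω μ ∧ (∀ x ∈ Ω, μ x ≤ h₁ x) ∧
      ρ {x | x ∈ Ω ∧ (Gmat G x).det ≠ 0 ∧ Gmat G x ∉ LM (μ x)} < ε / 2 ∧
      ∀ κ : R3 → ℝ, Measurable κ → (∀ x ∈ Ω, 0 < κ x) →
      ∀ h₀ : R3 → ℝ, (∀ x ∈ Ω, ∃ r : ℝ, 0 < r ∧ ∃ m : ℝ, 0 < m ∧ ∀ y ∈ ball x r, m ≤ h₀ y) →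
      ∃ δ : R3 → ℝ, Scale Ω δ ∧ (∀ x ∈ Ω, δ x ≤ h₀ x) ∧
        ρ {x | x ∈ Ω ∧ (Gmat G x).det ≠ 0 ∧ x ∉ EE Ω f G p μ κ δ} < ε ∧
        ∀ y ∈ Λ, (volume : Measure R3).real ((Λ \ f '' EE Ω f G p μ κ δ) ∩ ball y (w y)) ≤
          η * (volume : Measure R3).real (ball y (w y)) := by
  have hf' := hf
  obtain ⟨g, hfm, hgm, hgf, hfg, hfc, hgc⟩ := hf'
  obtain ⟨S, hSL, hSc, hSnet, hSball, hSlf⟩ := exists_balls hw
  set Q : S → Set R3 := fun k => closedBall (k : R3) (3 * w k) with hQ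
  set η₁ : S → ℝ≥0∞ := fun k =>
    ENNReal.ofReal (η * (volume : Measure R3).real (ball (k : R3) (w k / 2))) / 2 with hη₁
  have hlf : ∀ K : Set R3, IsCompact K → K ⊆ Λ → {i | (Q i ∩ K).Nonempty}.Finite := by
    intro K hK hKΛ
    refine Set.Finite.of_finite_image (f := fun k : S => (k : R3)) ((hSlf K hK hKΛ).subset ?_)
      Subtype.val_injective.injOn
    rintro _ ⟨k, hk, rfl⟩
    exact ⟨k.2, hk⟩
  have hη₁0 : ∀ k, 0 < η₁ k := by
    intro k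
    apply ENNReal.div_pos _ (by norm_num)
    rw [ENNReal.ofReal_ne_zero_iff]
    apply mul_pos hη
    rw [Measure.real, ENNReal.toReal_pos_iff]
    exact ⟨measure_ball_pos _ _ (by have := hw.pos k (hSL k.2); positivity), measure_ball_lt_top⟩
  have hLN : ∀ N : Set R3, volume N = 0 → (volume : Measure R3) (f '' (N ∩ Ω)) = 0 :=
    fun N hN => lusinN hΩ hΛ hf hG hp hGp hN
  have hmono : ∀ m m' : ℕ, m ≤ m' → (1 : ℝ) / ((m' : ℝ) + 1) ≤ 1 / ((m : ℝ) + 1) := by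
    intro m m' h
    apply one_div_le_one_div_of_le (by positivity)
    have : (m : ℝ) ≤ m' := by exact_mod_cast h
    linarith
  -- first choice
  set B₁ : ℕ → Set R3 := fun m => BS Ω G (1 / ((m : ℝ) + 1)) with hB₁
  have hB₁a : Antitone B₁ := fun m m' h x hx =>
    ⟨hx.1, hx.2.1, fun h1 => hx.2.2 (LM_mono (hmono m m' h) h1)⟩
  have hB₁0 : volume (⋂ m, B₁ m) = 0 := by
    have : (⋂ m, B₁ m) = ∅ := by
      rw [eq_empty_iff_forall_notMem]
      intro x hx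
      rw [mem_iInter] at hx
      obtain ⟨n, hn⟩ := exists_LM (hx 0).2.1
      exact (hx n).2.2 hn
    rw [this, measure_empty]
  have hε2 : 0 < ε / 2 := ENNReal.half_pos hε.ne'
  obtain ⟨μ, hμ, hμh, hμρ, hμQ⟩ := exists_volsel hΩ hΛ hfm hgm hgf hfg hfc hgc (μ := volume) hLN
    (fun m => nullMeasurable_BS hΩ (fun j => (hGp j).1) _) hB₁a hB₁0 hρ hε2
    hh₁ Q (fun k => isCompact_closedBall _ _) (fun k => hSball k k.2) hlf hη₁0
  have hbad₁ : {x | x ∈ Ω ∧ (Gmat G x).det ≠ 0 ∧ Gmat G x ∉ LM (μ x)} ⊆ Bad Ω B₁ μ := by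
    rintro x ⟨hx, hx0, hx1⟩
    exact ⟨hx, fun m hm => ⟨hx, hx0, fun h => hx1 (LM_mono hm h)⟩⟩
  refine ⟨μ, hμ, hμh, (measure_mono hbad₁).trans_lt hμρ, ?_⟩
  intro κ hκm hκ h₀ hh₀
  -- second choice
  set B : ℕ → Set R3 := fun m => BB Ω f G p κ (1 / ((m : ℝ) + 1)) with hB
  have hBn : ∀ m, NullMeasurableSet (B m) volume := fun m =>
    nullMeasurable_BB hΩ hfc (fun j => (hGp j).1) hκm (by positivity)
  have hBa : Antitone B := by
    intro m m' hmm x hx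
    exact ⟨hx.1, hx.2.1, fun h => hx.2.2 fun s hs hsR => h s hs (hsR.trans_le (hmono m m' hmm))⟩
  have hB0 : volume (⋂ m, B m) = 0 := by
    have h1 := ae_good hΩ hΛ hf hG (p := p) (by linarith) hGp hκ
    refine measure_mono_null (fun x hx => ?_) h1
    rw [mem_iInter] at hx
    intro hcon
    obtain ⟨r₀, hr₀, h2⟩ := hcon (hx 0).1
    obtain ⟨m, hm⟩ := exists_nat_one_div_lt hr₀
    exact (hx m).2.2 fun s hs hsR => h2 s hs (hsR.trans hm)
  obtain ⟨δ, hδ, hδh, hδρ, hδQ⟩ := exists_volsel hΩ hΛ hfm hgm hgf hfg hfc hgc (μ := volume) hLN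
    hBn hBa hB0 hρ hε2 hh₀ Q (fun k => isCompact_closedBall _ _) (fun k => hSball k k.2) hlf hη₁0
  have hbad₂ : BadG Ω f G p κ δ ⊆ Bad Ω B δ := by
    rintro x ⟨hx, hx0, hxb⟩
    exact ⟨hx, fun m hm => ⟨hx, hx0, fun h => hxb fun s hs hsδ => h s hs (hsδ.trans_le hm)⟩⟩
  have hsplit : ∀ x, x ∈ Ω → (Gmat G x).det ≠ 0 → x ∉ EE Ω f G p μ κ δ →
      x ∈ Bad Ω B₁ μ ∪ Bad Ω B δ := by
    intro x hx hx0 hxE
    by_cases h1 : Gmat G x ∈ LM (μ x)
    · right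
      exact hbad₂ ⟨hx, hx0, fun h => hxE ⟨hx, h1, h⟩⟩
    · left
      exact hbad₁ ⟨hx, hx0, h1⟩
  refine ⟨δ, hδ, hδh, ?_, ?_⟩
  · calc ρ {x | x ∈ Ω ∧ (Gmat G x).det ≠ 0 ∧ x ∉ EE Ω f G p μ κ δ}
        ≤ ρ (Bad Ω B₁ μ ∪ Bad Ω B δ) := measure_mono fun x hx => hsplit x hx.1 hx.2.1 hx.2.2
      _ ≤ ρ (Bad Ω B₁ μ) + ρ (Bad Ω B δ) := measure_union_le _ _
      _ < ε / 2 + ε / 2 := ENNReal.add_lt_add hμρ hδρ
      _ = ε := ENNReal.add_halves ε
  · refine density_of_balls hw hSL hSnet hη fun k hk => ?_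
    have hcrit := crit_image_null hΩ hΛ hf hG hp hGp
    have hsub : (Λ \ f '' EE Ω f G p μ κ δ) ∩ closedBall k (3 * w k) ⊆
        f '' ({x | (Gmat G x).det = 0} ∩ Ω) ∪ ((f '' Bad Ω B₁ μ ∩ closedBall k (3 * w k)) ∪
          (f '' Bad Ω B δ ∩ closedBall k (3 * w k))) := by
      rintro y ⟨⟨hyΛ, hyE⟩, hyk⟩
      have hgy := hgm hyΛ
      have hfy := hfg y hyΛ
      by_cases h0 : (Gmat G (g y)).det = 0
      · exact Or.inl ⟨g y, ⟨h0, hgy⟩, hfy⟩
      · have h1 : g y ∉ EE Ω f G p μ κ δ := fun h => hyE ⟨g y, h, hfy⟩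
        rcases hsplit (g y) hgy h0 h1 with h2 | h2
        · exact Or.inr (Or.inl ⟨⟨g y, h2, hfy⟩, hyk⟩)
        · exact Or.inr (Or.inr ⟨⟨g y, h2, hfy⟩, hyk⟩)
    calc volume ((Λ \ f '' EE Ω f G p μ κ δ) ∩ closedBall k (3 * w k))
        ≤ volume (f '' ({x | (Gmat G x).det = 0} ∩ Ω)) +
            (volume (f '' Bad Ω B₁ μ ∩ closedBall k (3 * w k)) +
              volume (f '' Bad Ω B δ ∩ closedBall k (3 * w k))) :=
          (measure_mono hsub).trans ((measure_union_le _ _).trans (by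
            gcongr; exact measure_union_le _ _))
      _ ≤ 0 + (η₁ ⟨k, hk⟩ + η₁ ⟨k, hk⟩) := by
          gcongr
          · exact hcrit.le
          · exact (hμQ ⟨k, hk⟩).le
          · exact (hδQ ⟨k, hk⟩).le
      _ = ENNReal.ofReal (η * (volume : Measure R3).real (ball k (w k / 2))) := by
          rw [zero_add]
          exact ENNReal.add_halves _

end Crest.Agent.R096.Sel_766
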