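import Crest.Agent.R096.Bks1_896
import Crest.Agent.R096.Sel2_766
import Crest.Agent.R096.Sk0_962

/-!
Row 96 (S0127), helper896.  **BLOCKS-SMALL** (leaf [B] of 962 #10270), the form in `R3`, with 538's
`Gmat` and 766's `LM`, `GoodAt`, `EE`.
-/

set_option autoImplicit false
set_option linter.unusedSectionVars false
set_option linter.style.longLine false
set_option linter.unusedVariables false

namespace Crest.Agent.R096.Bks_896

open MeasureTheory Set Metric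
open scoped ENNReal NNReal
open Crest.AnalysisR.VecCalc3 Crest.AnalysisR.Sobolev
open Crest.Agent.R96.Lu_538 Crest.Agent.R096.Sel_766 Crest.Agent.R096.Osc_802
open Crest.Agent.R096.VolC2_766
open Crest.Agent.R096.Sk_962 (SH)

/-- the threshold of a matrix with smallest singular value `≥ μ` -/
noncomputable def mth (p μ : ℝ) : ℝ := (μ / 3) ^ p

theorem mth_pos {p μ : ℝ} (hμ : 0 < μ) : 0 < mth p μ := Real.rpow_pos_of_pos (by positivity) _

theorem norm_gmatL_le_sum (g : Fin 3 → R3) : ‖gmatL g‖ ≤ ∑ j, ‖g j‖ := by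
  refine (norm_gmatL_le g).trans (Real.sqrt_le_iff.2 ⟨Finset.sum_nonneg fun _ _ => norm_nonneg _, ?_⟩)
  exact Finset.sum_sq_le_sq_sum_of_nonneg (s := Finset.univ) fun j _ => norm_nonneg (g j)

/-- tuples near `A` are invertible -/
theorem det_ne_of_near {p μ : ℝ} (hp : 0 < p) (hμ : 0 < μ) {A B : Fin 3 → R3}
    (hA : ∀ v, μ * ‖v‖ ≤ ‖gmatL A v‖) (hB : ∑ j, ‖B j - A j‖ ^ p < mth p μ) :
    (gmatL B).det ≠ 0 := by
  have h1 : ∀ j, ‖B j - A j‖ < μ / 3 := by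
    intro j
    have h2 : ‖B j - A j‖ ^ p ≤ ∑ j, ‖B j - A j‖ ^ p :=
      Finset.single_le_sum (f := fun j => ‖B j - A j‖ ^ p)
        (fun i _ => Real.rpow_nonneg (norm_nonneg _) _) (Finset.mem_univ j)
    exact (Real.rpow_lt_rpow_iff (norm_nonneg _) (by positivity) hp).1 (h2.trans_lt hB)
  have h3 : ‖gmatL B - gmatL A‖ < μ := by
    have h4 : gmatL B - gmatL A = gmatL (fun j => B j - A j) := by
      rw [← map_sub]; rfl
    rw [h4]
    refine (norm_gmatL_le_sum _).trans_lt ?_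
    rw [Fin.sum_univ_three]
    have a0 := h1 0
    have a1 := h1 1
    have a2 := h1 2
    linarith
  intro hdet
  have h5 : ¬ Function.Injective (gmatL B) := by
    intro hinj
    apply (LinearMap.isUnit_iff_ker_eq_bot (gmatL B : R3 →ₗ[ℝ] R3)).not.1 ?_
      (LinearMap.ker_eq_bot.2 hinj)
    intro hu
    have h6 := (LinearMap.isUnit_det _ hu)
    rw [show LinearMap.det (gmatL B : R3 →ₗ[ℝ] R3) = (gmatL B).det from rfl, hdet] at h6
    exact not_isUnit_zero h6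
  apply h5
  have h7 : ∀ v, gmatL B v = 0 → v = 0 := by
    intro v hv
    by_contra hne
    have hv0 : 0 < ‖v‖ := norm_pos_iff.2 hne
    have h8 := hA v
    have h9 : gmatL A v = -((gmatL B - gmatL A) v) := by
      rw [sub_apply, hv]; abel
    rw [h9, norm_neg] at h8
    have h10 := (gmatL B - gmatL A).le_opNorm v
    have : ‖gmatL B - gmatL A‖ * ‖v‖ < μ * ‖v‖ := mul_lt_mul_of_pos_right h3 hv0
    linarith
  intro v w hvw
  have := h7 (v - w) (by rw [map_sub, hvw, sub_self])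
  exact sub_eq_zero.1 this

theorem mth_le {p μ : ℝ} (hp : 0 < p) (hμ : 0 < μ) {A : Fin 3 → R3}
    (hA : ∀ v, μ * ‖v‖ ≤ ‖gmatL A v‖) : mth p μ ≤ ∑ j, ‖A j‖ ^ p := by
  have h1 : ∃ j, μ / 3 ≤ ‖A j‖ := by
    by_contra hcon
    push Not at hcon
    have h2 : ‖gmatL A‖ < μ := by
      refine (norm_gmatL_le_sum _).trans_lt ?_
      rw [Fin.sum_univ_three]
      have a0 := hcon 0
      have a1 := hcon 1
      have a2 := hcon 2
      linarith
    obtain ⟨v, hv⟩ := exists_ne (0 : R3)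
    have hv0 : 0 < ‖v‖ := norm_pos_iff.2 hv
    have h3 := (gmatL A).le_opNorm v
    have h4 : ‖gmatL A‖ * ‖v‖ < μ * ‖v‖ := mul_lt_mul_of_pos_right h2 hv0
    linarith [hA v]
  obtain ⟨j, hj⟩ := h1
  calc mth p μ ≤ ‖A j‖ ^ p := Real.rpow_le_rpow (by positivity) hj hp.le
    _ ≤ _ := Finset.single_le_sum (f := fun j => ‖A j‖ ^ p)
        (fun i _ => Real.rpow_nonneg (norm_nonneg _) _) (Finset.mem_univ j)

theorem sum_enorm_lt {p m : ℝ} (hp : 0 < p) {B : Fin 3 → R3}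
    (h : ∑ j, ‖B j‖ₑ ^ p < ENNReal.ofReal m) : ∑ j, ‖B j‖ ^ p < m := by
  have h1 : ∑ j, ‖B j‖ₑ ^ p = ENNReal.ofReal (∑ j, ‖B j‖ ^ p) := by
    rw [ENNReal.ofReal_sum_of_nonneg fun i _ => Real.rpow_nonneg (norm_nonneg _) _]
    refine Finset.sum_congr rfl fun j _ => ?_
    rw [← ofReal_norm, ENNReal.ofReal_rpow_of_nonneg (norm_nonneg _) hp.le]
  rw [h1] at h
  exact (ENNReal.ofReal_lt_ofReal_iff_of_nonneg
    (Finset.sum_nonneg fun i _ => Real.rpow_nonneg (norm_nonneg _) _)).1 h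

theorem sum_enorm_eq {p : ℝ} (hp : 0 < p) (B : Fin 3 → R3) :
    ∑ j, ‖B j‖ₑ ^ p = ENNReal.ofReal (∑ j, ‖B j‖ ^ p) := by
  rw [ENNReal.ofReal_sum_of_nonneg fun i _ => Real.rpow_nonneg (norm_nonneg _) _]
  refine Finset.sum_congr rfl fun j _ => ?_
  rw [← ofReal_norm, ENNReal.ofReal_rpow_of_nonneg (norm_nonneg _) hp.le]

variable {ι : Type*} [Countable ι] {N : ι → Set R3} {Om : Set R3}

/-- **BLOCKS-SMALL** with real thresholds `m i`. -/
theorem blocks_small {p : ℝ} (hp : 1 ≤ p) (hN : ∀ i, NullMeasurableSet (N i))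
    (hNt : ∀ i, volume (N i) ≠ ∞) (hd : Pairwise (Function.onFun (AEDisjoint volume) N))
    (hsub : ∀ i, N i ⊆ Om) {G : Fin 3 → R3 → R3}
    (hG : ∀ j, AEStronglyMeasurable (G j) (volume.restrict Om)) {A : ι → Fin 3 → R3} {m : ι → ℝ}
    (hm : ∀ i, 0 < m i) (hdet : ∀ i, ∀ B : Fin 3 → R3, ∑ j, ‖B j - A i j‖ ^ p < m i → (gmatL B).det ≠ 0)
    (hmA : ∀ i, m i ≤ ∑ j, ‖A i j‖ ^ p)
    (hint : ∀ i, ∫⁻ x in N i, ∑ j, ‖G j x - A i j‖ₑ ^ p ≤ ENNReal.ofReal (m i / 2) * volume (N i)) :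
    volume (⋃ i, N i) ≤ 2 * volume (Om ∩ {x | (Gmat G x).det ≠ 0}) ∧
    ∀ v : Fin 3 → R3, ∑' i, ENNReal.ofReal (∑ j, ‖A i j‖ ^ p) * volume (N i) ≤
      Cb p * ((∫⁻ x in Om, ∑ j, ‖G j x - v j‖ₑ ^ p) +
        ENNReal.ofReal (∑ j, ‖v j‖ ^ p) * volume (Om ∩ {x | (Gmat G x).det ≠ 0})) := by
  have hp0 : 0 < p := by linarith
  have hint' : ∀ i, ∫⁻ x in N i, ∑ j, ‖G j x - A i j‖ₑ ^ p ≤ ENNReal.ofReal (m i) / 2 * volume (N i) := by
    intro i
    refine (hint i).trans (le_of_eq ?_)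
    rw [ENNReal.ofReal_div_of_pos (by norm_num), ENNReal.ofReal_ofNat]
  have hvol : volume (⋃ i, N i) ≤ 2 * volume (Om ∩ {x | (Gmat G x).det ≠ 0}) := by
    refine vol_blocks hN hd hsub fun i => ?_
    refine half_of_cheb (hN i) (hNt i) (m := ENNReal.ofReal (m i)) ?_ ?_ ENNReal.ofReal_ne_top
      (hint' i) ?_
    · refine Finset.aemeasurable_fun_sum _ fun l _ => ?_
      exact (((hG l).mono_measure (Measure.restrict_mono (hsub i) le_rfl)).sub
        aestronglyMeasurable_const).enorm.pow_const _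
    · exact (ENNReal.ofReal_pos.2 (hm i)).ne'
    · intro x _ hx
      exact hdet i (fun j => G j x) (sum_enorm_lt hp0 (B := fun j => G j x - A i j) hx)
  refine ⟨hvol, fun v => ?_⟩
  have h1 := blocks_energy (μ := volume) hp hN hNt hd hsub hG A (m := fun i => ENNReal.ofReal (m i))
    (fun i => by
      rw [sum_enorm_eq hp0]
      exact ENNReal.ofReal_le_ofReal (hmA i)) hint' hvol v
  simp only [sum_enorm_eq hp0 v, sum_enorm_eq hp0 (A _)] at h1
  exact h1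

/-- **BLOCKS-SMALL at good points** (`A i = G (ξ i)`, `Gmat G (ξ i)` with singular values
`≥ μ i`): the averaged distance has to be `≤ (μ i / 3)^p / 2`. -/
theorem blocks_small_at {p : ℝ} (hp : 1 ≤ p) (hN : ∀ i, NullMeasurableSet (N i))
    (hNt : ∀ i, volume (N i) ≠ ∞) (hd : Pairwise (Function.onFun (AEDisjoint volume) N))
    (hsub : ∀ i, N i ⊆ Om) {G : Fin 3 → R3 → R3}
    (hG : ∀ j, AEStronglyMeasurable (G j) (volume.restrict Om)) {ξ : ι → R3} {μ : ι → ℝ}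
    (hμ : ∀ i, 0 < μ i) (hLM : ∀ i, Gmat G (ξ i) ∈ LM (μ i))
    (hint : ∀ i, ∫⁻ x in N i, ∑ j, ‖G j x - G j (ξ i)‖ₑ ^ p ≤
      ENNReal.ofReal (mth p (μ i) / 2) * volume (N i)) :
    volume (⋃ i, N i) ≤ 2 * volume (Om ∩ {x | (Gmat G x).det ≠ 0}) ∧
    ∀ v : Fin 3 → R3, ∑' i, ENNReal.ofReal (∑ j, ‖G j (ξ i)‖ ^ p) * volume (N i) ≤
      Cb p * ((∫⁻ x in Om, ∑ j, ‖G j x - v j‖ₑ ^ p) +
        ENNReal.ofReal (∑ j, ‖v j‖ ^ p) * volume (Om ∩ {x | (Gmat G x).det ≠ 0})) :=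
  blocks_small hp hN hNt hd hsub hG (A := fun i j => G j (ξ i)) (m := fun i => mth p (μ i))
    (fun i => mth_pos (hμ i))
    (fun i B hB => det_ne_of_near (by linarith) (hμ i) (A := fun j => G j (ξ i))
      (fun v => (hLM i v).1) hB)
    (fun i => mth_le (by linarith) (hμ i) (A := fun j => G j (ξ i)) (fun v => (hLM i v).1)) hint

/-- **BLOCKS-SMALL from 766's `GoodAt`**: `N i` in the cube `(ξ i, s i)`, and `N i` not small. -/
theorem blocks_small_good {p : ℝ} (hp : 1 ≤ p) (hN : ∀ i, NullMeasurableSet (N i))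
    (hd : Pairwise (Function.onFun (AEDisjoint volume) N)) {f : R3 → R3} {G : Fin 3 → R3 → R3}
    (hG : ∀ j, AEStronglyMeasurable (G j) (volume.restrict Om)) {ξ : ι → R3} {μ κ : R3 → ℝ}
    {s : ι → ℝ} (hs : ∀ i, 0 < s i) (hμ : ∀ i, 0 < μ (ξ i)) (hLM : ∀ i, Gmat G (ξ i) ∈ LM (μ (ξ i)))
    (hgood : ∀ i, GoodAt Om f G p κ (ξ i) (s i)) (hcube : ∀ i, N i ⊆ cube (ξ i) (s i))
    (hvol : ∀ i, ENNReal.ofReal (κ (ξ i) * s i ^ 3) ≤
      ENNReal.ofReal (mth p (μ (ξ i)) / 2) * volume (N i)) :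
    volume (⋃ i, N i) ≤ 2 * volume (Om ∩ {x | (Gmat G x).det ≠ 0}) ∧
    ∀ v : Fin 3 → R3, ∑' i, ENNReal.ofReal (∑ j, ‖G j (ξ i)‖ ^ p) * volume (N i) ≤
      Cb p * ((∫⁻ x in Om, ∑ j, ‖G j x - v j‖ₑ ^ p) +
        ENNReal.ofReal (∑ j, ‖v j‖ ^ p) * volume (Om ∩ {x | (Gmat G x).det ≠ 0})) := by
  have hcb : ∀ i, cube (ξ i) (s i) ⊆ Om := by
    intro i y hy
    apply (hgood i).sub
    intro k
    exact (hy k).trans (by linarith [hs i])
  have hbd : ∀ i, Bornology.IsBounded (cube (ξ i) (s i)) := by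
    intro i
    rw [isBounded_iff_forall_norm_le]
    refine ⟨‖ξ i‖ + Real.sqrt (∑ _k : Fin 3, s i ^ 2), fun y hy => ?_⟩
    have h1 : y = ξ i + (y - ξ i) := by abel
    rw [h1]
    refine (norm_add_le _ _).trans ?_
    gcongr
    rw [EuclideanSpace.norm_eq]
    apply Real.sqrt_le_sqrt
    refine Finset.sum_le_sum fun k _ => ?_
    have h2 : ‖(y - ξ i) k‖ ≤ s i := by
      have := hy k
      simpa [Real.norm_eq_abs] using this
    have h3 := norm_nonneg ((y - ξ i) k)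
    nlinarith
  refine blocks_small_at hp hN (fun i => ?_) hd (fun i => (hcube i).trans (hcb i)) hG hμ hLM
    fun i => ?_
  · exact ((measure_mono (hcube i)).trans_lt (hbd i).measure_lt_top).ne
  · refine (lintegral_mono_set (hcube i)).trans ?_
    exact (hgood i).int.trans (hvol i)

end Crest.Agent.R096.Bks_896
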