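import Crest.Agent.R096.Bks2_896

/-!
Row 96 (S0127), helper896.  **BLOCKS-SMALL**, part 3: the hypothesis `hvol` of `blocks_small_good` for
blocks which contain `g⁻¹ (ball)`, `g` affine with linear part in `LM μ`, and `κ ≤ kf p θ σ μ`.
-/

set_option autoImplicit false
set_option linter.unusedSectionVars false
set_option linter.style.longLine false
set_option linter.unusedVariables false

namespace Crest.Agent.R096.Bks_896

open MeasureTheory Set Metric
open scoped ENNReal NNReal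
open Crest.AnalysisR.VecCalc3 Crest.AnalysisR.Sobolev
open Crest.Agent.R96.Lu_538 Crest.Agent.R096.Sel_766 Crest.Agent.R096.Osc_802
open Crest.Agent.R096.VolC2_766

theorem vol_ball {x : R3} {r : ℝ} (hr : 0 ≤ r) {N : Set R3} (h : closedBall x r ⊆ N) :
    ENNReal.ofReal (r ^ 3) ≤ volume N := by
  refine le_trans ?_ (measure_mono h)
  rw [EuclideanSpace.volume_closedBall_fin_three, ← ENNReal.ofReal_pow hr]
  have h1 : (1 : ℝ≥0∞) ≤ ENNReal.ofReal (Real.pi * 4 / 3) := by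
    rw [← ENNReal.ofReal_one]
    apply ENNReal.ofReal_le_ofReal
    have := Real.pi_gt_three
    linarith
  calc ENNReal.ofReal (r ^ 3) = ENNReal.ofReal (r ^ 3) * 1 := (mul_one _).symm
    _ ≤ _ := by gcongr

/-- the function `κf` of the blocks -/
noncomputable def kf (p θ σ μ : ℝ) : ℝ := mth p μ / 2 * (μ ^ 2 * θ / σ) ^ 3

theorem kf_pos {p θ σ μ : ℝ} (hθ : 0 < θ) (hσ : 0 < σ) (hμ : 0 < μ) : 0 < kf p θ σ μ := by
  have := mth_pos (p := p) hμ
  unfold kf
  positivity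

theorem measurable_kf (p θ σ : ℝ) : Measurable (kf p θ σ) := by
  unfold kf mth
  fun_prop

/-- **`hvol`** -/
theorem hvol_of {p θ σ μ sz κ s : ℝ} (hμ : 0 < μ) (hθ : 0 < θ) (hσ : 0 < σ) (hsz : 0 < sz)
    {A : R3 →L[ℝ] R3} (hA : A ∈ LM μ) {g : R3 → R3} (hg : ∀ x x', g x - g x' = A (x - x')) {x0 : R3}
    {N : Set R3} (hN : ∀ x, ‖g x - g x0‖ ≤ θ * sz → x ∈ N) (hκ : κ ≤ kf p θ σ μ)
    (hs0 : 0 ≤ s) (hs : s ≤ σ * sz / μ) :
    ENNReal.ofReal (κ * s ^ 3) ≤ ENNReal.ofReal (mth p μ / 2) * volume N := by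
  have hm := mth_pos (p := p) hμ
  have h1 : closedBall x0 (μ * (θ * sz)) ⊆ N := by
    intro x hx
    apply hN
    rw [mem_closedBall, dist_eq_norm] at hx
    rw [hg]
    have h2 := (hA (x - x0)).2
    have h3 : μ * ‖A (x - x0)‖ ≤ μ * (θ * sz) := h2.trans hx
    exact le_of_mul_le_mul_left h3 hμ
  have h4 := vol_ball (by positivity) h1
  refine le_trans ?_ (mul_le_mul_right h4 _)
  rw [← ENNReal.ofReal_mul (by positivity)]
  apply ENNReal.ofReal_le_ofReal
  have h5 : κ * s ^ 3 ≤ kf p θ σ μ * (σ * sz / μ) ^ 3 := by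
    rcases le_or_gt 0 κ with h | h
    · have h7 := (kf_pos (p := p) hθ hσ hμ).le
      gcongr
    · have h6 : κ * s ^ 3 ≤ 0 := mul_nonpos_of_nonpos_of_nonneg h.le (by positivity)
      exact h6.trans (by have := kf_pos (p := p) hθ hσ hμ; positivity)
  refine h5.trans (le_of_eq ?_)
  unfold kf
  field_simp

/-- the same with the centre of the ball given as a value of `g` -/
theorem hvol_of' {p θ σ μ sz κ s : ℝ} (hμ : 0 < μ) (hθ : 0 < θ) (hσ : 0 < σ) (hsz : 0 < sz)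
    {g : R3 ≃ᵃ[ℝ] R3} {A : R3 →L[ℝ] R3} (hA : A ∈ LM μ) (hgA : ∀ v, g.linear v = A v) {y : R3}
    {N : Set R3} (hN : ∀ x, ‖g x - y‖ ≤ θ * sz → x ∈ N) (hκ : κ ≤ kf p θ σ μ)
    (hs0 : 0 ≤ s) (hs : s ≤ σ * sz / μ) :
    ENNReal.ofReal (κ * s ^ 3) ≤ ENNReal.ofReal (mth p μ / 2) * volume N := by
  have hg : ∀ x x', g x - g x' = A (x - x') := by
    intro x x'
    rw [← hgA]
    have := g.toAffineMap.linearMap_vsub x x'
    simpa using this.symm
  refine hvol_of hμ hθ hσ hsz hA (g := g) hg (x0 := g.symm y) (fun x hx => hN x ?_) hκ hs0 hs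
  rwa [AffineEquiv.apply_symm_apply] at hx

end Crest.Agent.R096.Bks_896
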