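import Crest.Agent.R096.Wd15_120
import Crest.Agent.R096.Wd17_120
import Crest.Agent.R096.Pin1_753
import Crest.Agent.R096.Tmap2_212

/-!
Row 96 (S0127), helper212.  **BLK-INST**: the core blocks of `Ea0_961.Blk` and `Pin_753.BlkP` from a
dyadic box foam.

* `exists_BDw` : 628's integer data of a brick with its unit `w = u0 * 2 ^ (-k)` (dyadic) and
  `sz ≤ B * w`;
* `structure ShD` : the shell `S` and the scale `kc` of a brick, one unit `u0` for all bricks: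
  `u0 / 2 ^ kc = w / M`; `exists_shD`;
* `mkQ`, `ShD.blk : Blk ..` for every frame `ψ`, position `a'`, and the affine map which they determine;
* `blk_tr` : `Blk` for the translated block and map.
-/

set_option autoImplicit false
set_option linter.unusedSectionVars false
set_option linter.style.longLine false

open Set Filter Metric Topology MeasureTheory

namespace Crest.Agent.R096.Blk_212

open Crest.Agent.R096.Bsp_628 Crest.Agent.R096.Brk1_582 Crest.Agent.R096.Brk2_582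
open Crest.Agent.R096.Brk3_582 Crest.Agent.R096.Brk5_582 Crest.Agent.R096.Grd_714
open Crest.Agent.R096.Fni_447 Crest.Agent.R096.Fbr_628

section unit

variable {La : Set (Fin 3 → ℝ)} {F : Set (Bx (Fin 3))} {δ κ0 : ℝ}

/-- the directions of the flags of a brick, with the dyadic unit (447's `dir_int`) -/
theorem dir_int_dy (BF : BoxFoam La F δ κ0) (hLa : IsOpen La) {R : ℝ} (hR : 1 ≤ R)
    (hcmp : Cmp F R) {o : Fin 3 → ℝ} {u M : ℝ} (hu : 0 < u) (hM : 0 < M)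
    (hdy : ∀ C ∈ F, Dy o u M C) (c : F) :
    ∃ w > 0, (∃ k : ℤ, w = u * (2 : ℝ) ^ (-k)) ∧ (∃ z : Fin 3 → ℤ, ∀ i, bc (F := F) {c} i = o i + z i * w) ∧
      c.1.sz ≤ 2 * R * M * w ∧
      ∀ f : Flg (Pc F) c, ∃ D : Matrix (Fin 3) (Fin 3) ℤ, D.det ≠ 0 ∧
        (∀ i j, |(D i j : ℝ)| ≤ 2 * R * M) ∧ ∀ i j, dir (bc (F := F)) f j i = w * D i j := by
  classical
  obtain ⟨k, z, hs, hz, hst⟩ := Dy.star BF hR hcmp hu hM hdy c
  set W : ℝ := u * (2 : ℝ) ^ (-k) with hW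
  have hW0 : 0 < W := by positivity
  have hg : ∀ c' : F, (Pc F c ∩ Pc F c').Nonempty → ∀ i, ∃ m n : ℤ,
      c'.1.lo i = o i + ((z i : ℝ) + m) * W ∧ c'.1.hi i = o i + ((z i : ℝ) + n) * W := by
    intro c' hc' i
    obtain ⟨m, n, _, _, h1, h2⟩ := hst c' hc' i
    exact ⟨m, n, h1, h2⟩
  have hcc : (fc (Pc F) ({c} : Set F)).Nonempty :=
    ⟨c.1.lo, by
      rw [mem_fc]
      rintro x rfl
      exact Bx.mem_set.2 fun i => ⟨le_rfl, (BF.pos _ x.2 i).le⟩⟩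
  refine ⟨W / 2, by positivity, ⟨k + 1, ?_⟩, ?_, ?_, ?_⟩
  · rw [hW, neg_add, zpow_add₀ (by norm_num : (2 : ℝ) ≠ 0)]
    norm_num
    ring
  · choose n hn using fun i => (bc_int BF hg (mem_singleton c) hcc i).1
    refine ⟨fun i => 2 * z i + n i, fun i => ?_⟩
    rw [hn i]
    push_cast
    ring
  · have : 2 * R * M * (W / 2) = R * M * W := by ring
    rw [this]
    exact hs
  · intro f
    have hd : ∀ j i, ∃ d : ℤ, dir (bc (F := F)) f j i = (W / 2) * d ∧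
        |dir (bc (F := F)) f j i| ≤ c.1.sz / 2 := by
      intro j i
      obtain ⟨⟨n0, hn0⟩, -⟩ := bc_int BF hg (mem_singleton c) hcc i
      have key : ∀ A : Set F, c ∈ A → (fc (Pc F) A).Nonempty →
          ∃ d : ℤ, bc A i - bc {c} i = (W / 2) * d ∧ |bc A i - bc {c} i| ≤ c.1.sz / 2 := by
        intro A hcA hA
        obtain ⟨⟨n, hn⟩, h2⟩ := bc_int BF hg hcA hA i
        refine ⟨n - n0, ?_, h2⟩
        rw [hn, hn0]
        push_cast
        ring
      fin_cases j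
      · exact key {c, f.a1} (by simp) f.ne1
      · exact key {c, f.a1, f.a2} (by simp) f.ne2
      · exact key {c, f.a1, f.a2, f.a3} (by simp) f.ne
    choose d hd1 hd2 using hd
    refine ⟨Matrix.of fun i j => d j i, ?_, ?_, ?_⟩
    · intro hdet
      have hFo := foam BF hLa
      have hli := li hFo f
      have h1 : LinearIndependent ℝ (fun j => (W / 2) • fun i => (d j i : ℝ)) := by
        have : (fun j => (W / 2) • fun i => (d j i : ℝ)) = dir (bc (F := F)) f := by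
          funext j i
          simp only [Pi.smul_apply, smul_eq_mul]
          exact (hd1 j i).symm
        rw [this]
        exact hli
      have h2 : LinearIndependent ℝ (fun j => fun i => (d j i : ℝ)) := by
        have h3 := h1.units_smul (fun _ => (Units.mk0 (W / 2) (by positivity))⁻¹)
        convert h3 using 1
        funext j i
        simp only [Pi.smul_apply', Pi.smul_apply, Units.smul_def, Units.val_inv_eq_inv_val,
          Units.val_mk0, smul_eq_mul]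
        field_simp
      have h3 : IsUnit (Matrix.of fun j i => (d j i : ℝ)) :=
        Matrix.linearIndependent_rows_iff_isUnit.1 h2
      have h4 : (Matrix.of fun j i => (d j i : ℝ)).det ≠ 0 := by
        have := (Matrix.isUnit_iff_isUnit_det _).1 h3
        exact this.ne_zero
      apply h4
      have h5 : (Matrix.of fun j i => (d j i : ℝ)) =
          ((Matrix.of fun i j => d j i).map (Int.castRingHom ℝ)).transpose := by
        ext j i
        simp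
      rw [h5, Matrix.det_transpose]
      have h6 := (Int.castRingHom ℝ).map_det (Matrix.of fun i j => d j i)
      rw [hdet] at h6
      simpa using h6.symm
    · intro i j
      have h1 := hd2 j i
      rw [hd1 j i, abs_mul, abs_of_pos (by positivity : 0 < W / 2)] at h1
      have h2 : W / 2 * |((d j i : ℤ) : ℝ)| ≤ W / 2 * (2 * R * M) := by
        refine h1.trans ?_
        have h3 : 0 ≤ R * M * W := by positivity
        nlinarith
      exact le_of_mul_le_mul_left h2 (by positivity)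
    · intro i j
      exact hd1 j i


/-- **628's integer data with a dyadic unit** -/
theorem exists_BDw (BF : BoxFoam La F δ κ0) (hLa : IsOpen La) {R : ℝ} (hR : 1 ≤ R)
    (hcmp : Cmp F R) {o : Fin 3 → ℝ} {u Md : ℝ} (hu : 0 < u) (hMd : 0 < Md)
    (hdy : ∀ C ∈ F, Dy o u Md C) {N : ℕ} (FF : Foam La (Pc F) (bc (F := F)) N) (hN : N ≤ 4)
    (h3 : Module.finrank ℝ (Fin 3 → ℝ) = 3) (c : F) :
    ∃ D : BD FF h3 c o (2 * R * Md), (∃ k : ℤ, D.w = u * (2 : ℝ) ^ (-k)) ∧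
      c.1.sz ≤ 2 * R * Md * D.w := by
  obtain ⟨w, hw, hk, ⟨z, hz⟩, hsz, hf0⟩ := dir_int_dy BF hLa hR hcmp hu hMd hdy c
  have hf : ∀ f : Flg (Pc F) c, ∃ D : Matrix (Fin 3) (Fin 3) ℤ, D.det ≠ 0 ∧
        (∀ i j, |(D i j : ℝ)| ≤ 2 * R * Md) ∧ (∀ i j, dir (bc (F := F)) f j i = w * D i j) ∧
        ∃ s > 0, ∃ ν : Fin 3 → Fin 3 → ℤ,
          (∀ k i, |(ν k i : ℝ)| ≤ 2 * (2 * R * Md) ^ 2) ∧
          (∀ k x, s * cf FF h3 f k x = ∑ i, (ν k i : ℝ) * x i) := by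
    intro f
    obtain ⟨D, h0, hB, hD⟩ := hf0 f
    obtain ⟨hpos, ν, hν, hcf⟩ := cf_int_of FF h3 f hw h0 hB hD
    exact ⟨D, h0, hB, hD, _, hpos, ν, hν, hcf⟩
  choose D hD0 hDB hD s hs0 ν hν hrep using hf
  have hh : ∀ l, ∃ h : ℤ, hs c l = h * w := by
    intro l
    obtain ⟨f, -, hfl⟩ := exists_fct_flag FF h3 hN BF hLa (c := c) (l := l)
      (u := hs c l • (Pi.single l 1 : Fin 3 → ℝ)) (ε := 1) (by
        intro j
        rw [Pi.smul_apply, smul_eq_mul]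
        by_cases hj : j = l
        · subst hj
          rw [Pi.single_eq_same, mul_one, abs_of_pos (hs_pos BF c j)]
        · rw [Pi.single_eq_of_ne hj, mul_zero, abs_zero]
          exact (hs_pos BF c j).le) (Or.inl rfl) (by simp)
    refine ⟨D f l 0, ?_⟩
    have h1 := dir_coord FF hfl 0
    rw [hD, one_mul] at h1
    rw [← h1]; ring
  choose h hh using hh
  refine ⟨⟨w, hw, z, hz, h, fun l => ?_, hh, fun f j l => ?_, s, hs0, ν, hrep, hν⟩, hk, hsz⟩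
  · have h1 := hs_pos BF c l
    rw [hh l] at h1
    have : (0 : ℝ) < h l := pos_of_mul_pos_left h1 hw.le
    exact_mod_cast this
  · rw [hD, abs_mul, abs_of_pos hw, mul_comm]
    exact mul_le_mul_of_nonneg_right (hDB f l j) hw.le

end unit

section shell

open Crest.Agent.R096.Mal_874 Crest.Agent.R096.Msh_810 Crest.Agent.R096.Msh_715
open Crest.Agent.R096.Mcc_715
open Crest.Agent.R096.SkC1_961 (E3 th)
open Crest.Agent.R096.EaX_766 (cbx)
open Crest.Agent.R096.Bxs_627 (ctr zz)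
open Crest.Agent.R096.Mdd_360
open Crest.Agent.R096.Wd_120 (GridS CoreAt coreAt_T gridS_shell uc)
open Crest.Agent.R096.Ea0_961 (Blk)

/-- **shell `S` and scale `kc` of the core block of the brick `c`**, unit `u0` of the foam:
one lattice unit of the shell is `u0 / 2 ^ kc` in the target. -/
structure ShD (F : Set (Bx (Fin 3))) (o : E3) (u0 B : ℝ) (Bs M : ℕ) (c : F) (S : PS 3) (kc : ℕ) :
    Prop where
  kc3 : 3 ≤ kc
  t : S.t = 1
  szB : c.1.sz ≤ B * (M * (u0 / 2 ^ kc))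
  wid : ∀ l, 2 * (M : ℤ) ≤ S.hi l - S.lo l
  hB : ∀ i, ∀ p ∈ S.GG i, ∀ l, |p.1 l| ≤ (Bs : ℤ)
  hR : ∀ i, i ≠ S.core → ∀ v ∈ ZP (S.GG i), ∀ w ∈ ZP (S.GG i), ∀ l, |w l - v l| ≤ (Bs : ℝ)
  lo : ∀ l, c.1.lo l = o l + u0 / 2 ^ kc * S.lo l
  hi : ∀ l, c.1.hi l = o l + u0 / 2 ^ kc * S.hi l
  grid : GridS F S (fun X l => o l + u0 / 2 ^ kc * X l) M

/-- **the shells of a dyadic box foam**, `M = 2 ^ μ`, one unit for all bricks -/
theorem exists_shD {La : Set (Fin 3 → ℝ)} {F : Set (Bx (Fin 3))} {δ κ0 : ℝ}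
    (BF : BoxFoam La F δ κ0) (hLa : IsOpen La) {R : ℝ} (hR : 1 ≤ R)
    (hcmp : Cmp F R) {o : Fin 3 → ℝ} {u Md : ℝ} (hu : 0 < u) (hMd : 0 < Md)
    (hdy : ∀ C ∈ F, Dy o u Md C) {Bs : ℕ} (hB1 : 1 ≤ Bs) (hB2 : 4 * (2 * R * Md) ^ 2 ≤ Bs)
    (hB3 : 8 * (2 * R * Md) ≤ Bs) (μ : ℕ) (c : F) (hsz : c.1.sz ≤ u / 4) :
    ∃ (S : PS 3) (kc : ℕ), ShD F o u (2 * R * Md) Bs (2 ^ μ) c S kc := by
  have h3 : Module.finrank ℝ (Fin 3 → ℝ) = 3 := by simp
  have hN : Fintype.card (Fin 3) + 1 ≤ 4 := by simp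
  have hQ : Quads (Pc F) (bc (F := F)) := quads_box BF (by simp)
  obtain ⟨D, ⟨k, hk⟩, hsB⟩ := exists_BDw BF hLa hR hcmp hu hMd hdy (foam BF hLa) hN h3 c
  have hM : 0 < 2 ^ μ := by positivity
  have hw := D.w0
  have hside : ∀ l, 2 * D.w ≤ c.1.side l := two_w_le D
  have h2w : 2 * D.w ≤ c.1.sz := (hside 0).trans (Bx.side_le_sz c.1 0)
  have hk3 : 3 ≤ k := by
    by_contra hcon
    push Not at hcon
    have h1 : (2 : ℝ) ^ (-(2 : ℤ)) ≤ (2 : ℝ) ^ (-k) := zpow_le_zpow_right₀ (by norm_num) (by omega)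
    have h2 : u * (2 : ℝ) ^ (-(2 : ℤ)) ≤ D.w := by
      rw [hk]
      exact mul_le_mul_of_nonneg_left h1 hu.le
    have h4 : (2 : ℝ) ^ (-(2 : ℤ)) = 1 / 4 := by norm_num
    rw [h4] at h2
    linarith
  obtain ⟨j, rfl⟩ := Int.eq_ofNat_of_zero_le (by omega : 0 ≤ k)
  have hj3 : 3 ≤ j := by exact_mod_cast hk3
  have hwM : D.w / ((2 ^ μ : ℕ) : ℝ) = u / 2 ^ (j + μ) := by
    rw [hk, zpow_neg, zpow_natCast, pow_add]
    push_cast
    field_simp
  refine ⟨D.shell hN BF hLa hQ hM 1 one_pos, j + μ, ⟨by omega, rfl, ?_, ?_, ?_, ?_, ?_, ?_, ?_⟩⟩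
  · rw [← hwM, mul_div_cancel₀ _ (by positivity)]
    exact hsB
  · intro l
    have h1 := D.h0 l
    have h2 : (0 : ℤ) < ((2 ^ μ : ℕ) : ℤ) := by exact_mod_cast hM
    change 2 * ((2 ^ μ : ℕ) : ℤ) ≤ D.hi (2 ^ μ) l - D.lo (2 ^ μ) l
    unfold BD.hi BD.lo
    nlinarith
  · exact BD.shell_bnd D hN BF hLa hQ hB1 hB2
  · exact BD.shell_size D hN BF hLa hQ hB3 (by
      have h5 : (1 : ℝ) ≤ Bs := by exact_mod_cast hB1
      simpa using h5)
  · intro l
    rw [← hwM]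
    exact D.lo_eq hM l
  · intro l
    rw [← hwM]
    exact D.hi_eq hM l
  · rw [← hwM]
    exact gridS_shell D hN BF hLa hQ hM one_pos

/-- the block of the shell `S` at scale `kc` with frame `ψ` and position `a'` -/
def mkQ (S : PS 3) (kc : ℕ) (hkc : 3 ≤ kc) (ht : S.t = 1) (ψ : E3 ≃L[ℝ] (Fin 3 → ℝ))
    (a' : Fin 3 → ℝ) : CB E3 3 where
  ψ := ψ
  a' := a'
  kc := kc
  S := S
  w := 11
  hkc := hkc
  hw := by rw [ht]; norm_num

/-- the affine map which belongs to a frame and a position -/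
noncomputable def affQ (c : Bx (Fin 3)) (lam u0 : ℝ) (hlu : lam * u0 ≠ 0) (S : PS 3) (kc : ℕ)
    (ψ : E3 ≃L[ℝ] (Fin 3 → ℝ)) (a' : Fin 3 → ℝ) : E3 ≃ᵃ[ℝ] E3 :=
  (ψ.toLinearEquiv.trans (LinearEquiv.smulOfNeZero ℝ E3 (lam * u0) hlu)).toAffineEquiv.trans
    (AffineEquiv.constVAdd ℝ E3 fun l =>
      ctr c l - lam * c.side l / 2 - lam * u0 * (a' l + S.lo l / 2 ^ kc))

theorem affQ_apply (c : Bx (Fin 3)) (lam u0 : ℝ) (hlu : lam * u0 ≠ 0) (S : PS 3) (kc : ℕ)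
    (ψ : E3 ≃L[ℝ] (Fin 3 → ℝ)) (a' : Fin 3 → ℝ) (y : E3) (l : Fin 3) :
    affQ c lam u0 hlu S kc ψ a' y l =
      ctr c l - lam * c.side l / 2 + lam * u0 * (ψ y l - a' l - S.lo l / 2 ^ kc) := by
  have h : affQ c lam u0 hlu S kc ψ a' y l =
      (ctr c l - lam * c.side l / 2 - lam * u0 * (a' l + S.lo l / 2 ^ kc)) + lam * u0 * ψ y l := rfl
  rw [h]
  ring

variable {F : Set (Bx (Fin 3))} {o : E3} {u0 B : ℝ} {Bs M : ℕ} {c : F} {S : PS 3} {kc : ℕ}
  (h : ShD F o u0 B Bs M c S kc)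

include h

theorem ShD.side (hu : 0 < u0) (l : Fin 3) :
    u0 * ((S.hi l : ℝ) - S.lo l) = 2 ^ kc * c.1.side l := by
  have hp : (2 : ℝ) ^ kc ≠ 0 := by positivity
  have e : c.1.side l = u0 / 2 ^ kc * ((S.hi l : ℝ) - S.lo l) := by
    change c.1.hi l - c.1.lo l = _
    rw [h.lo l, h.hi l]
    ring
  rw [e]
  field_simp

theorem ShD.side_ge (hu : 0 < u0) (l : Fin 3) : 2 * (M * (u0 / 2 ^ kc)) ≤ c.1.side l := by
  have h1 : (2 * (M : ℝ)) ≤ (S.hi l : ℝ) - S.lo l := by exact_mod_cast h.wid l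
  have hp : (0 : ℝ) < 2 ^ kc := by positivity
  have e : c.1.side l = u0 / 2 ^ kc * ((S.hi l : ℝ) - S.lo l) := by
    change c.1.hi l - c.1.lo l = _
    rw [h.lo l, h.hi l]
    ring
  rw [e]
  have h2 : 0 ≤ u0 / 2 ^ kc := by positivity
  nlinarith

theorem ShD.sz2 (hu : 0 < u0) : 2 * (M * (u0 / 2 ^ kc)) ≤ c.1.sz :=
  (h.side_ge hu 0).trans (Bx.side_le_sz c.1 0)

theorem ShD.Q_eq {lam : ℝ} (hl : 0 < lam) (hu : 0 < u0) (ψ : E3 ≃L[ℝ] (Fin 3 → ℝ))
    (a' : Fin 3 → ℝ) (A : E3 ≃ᵃ[ℝ] E3)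
    (hA : ∀ y l, A y l = ctr c.1 l - lam * c.1.side l / 2 +
      lam * u0 * (ψ y l - a' l - S.lo l / 2 ^ kc)) :
    mkQ S kc h.kc3 h.t ψ a' = mkCB c.1 A hl hu kc h.kc3 S 11 (by rw [h.t]; norm_num) := by
  have hlu : lam * u0 ≠ 0 := (mul_pos hl hu).ne'
  have e1 : ψ = psA A (lam * u0) hlu := by
    ext y l
    rw [psA_apply, lin_val, hA, hA, map_zero]
    simp only [Pi.zero_apply]
    field_simp
    ring
  have e2 : a' = fun l => (ctr c.1 l - lam * c.1.side l / 2 - A 0 l) / (lam * u0) -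
      S.lo l / 2 ^ kc := by
    funext l
    rw [hA, map_zero]
    simp only [Pi.zero_apply]
    field_simp
    ring
  unfold mkQ mkCB
  congr 1

/-- **`Ea0_961.Blk` for every frame and position** -/
theorem ShD.blk {lam κ κ2 κt Cc : ℝ} {Nn : ℕ} (hl : 0 < lam) (hu : 0 < u0) (hM : 0 < M)
    (hκ : 11 ≤ 2 * κ * M) (hκ2 : 2 * κ ≤ κ2) (hκl : (1 + 2 * κ) * lam ≤ (1 + lam) / 2)
    (hC1 : 1 ≤ Cc) (hCB : B ≤ Cc) (hpos : ∀ l, 0 ≤ c.1.side l)
    (ψ : E3 ≃L[ℝ] (Fin 3 → ℝ)) (a' : Fin 3 → ℝ)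
    (hnet : ∃ (d : ℕ) (Bm : Fin 3 → Fin 3 → ℤ), 0 < d ∧ d ≤ Nn ∧ (∀ i j, |Bm i j| ≤ Nn) ∧
      Rt (ContinuousLinearEquiv.refl ℝ E3) ψ Bm d ∧ ∃ κ : ℕ, ∀ m, ∃ z : ℤ, 2 ^ κ * (d : ℝ) * a' m = z)
    {A : E3 ≃ᵃ[ℝ] E3} (hA : ∀ y l, A y l = ctr c.1 l - lam * c.1.side l / 2 +
      lam * u0 * (ψ y l - a' l - S.lo l / 2 ^ kc)) {k0 : ℕ} (hk : kc ≤ k0)
    (thin : lam * u0 / 2 ^ k0 ≤ κt * (lam * c.1.sz) / M) :
    Blk F (lam * u0) Cc κ2 κt Bs M Nn c A lam (mkQ S kc h.kc3 h.t ψ a') k0 hk := by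
  have hp : (0 : ℝ) < 2 ^ kc := by positivity
  have hM' : (0 : ℝ) < M := by exact_mod_cast hM
  have hS := h.side hu
  have hs2 := h.sz2 hu
  have hlin : ∀ x : E3, A.linear x = (lam * u0) • ψ x := by
    intro x
    funext l
    rw [lin_val, hA, hA, map_zero]
    simp only [Pi.zero_apply, Pi.smul_apply, smul_eq_mul]
    ring
  have hκ0 : 0 < κ := by
    by_contra hcon
    push Not at hcon
    have : 2 * κ * M ≤ 0 := by nlinarith
    linarith
  have hmono : ∀ {r s : ℝ}, r ≤ s → cbx c.1 r ⊆ cbx c.1 s := fun {r s} hrs y hy l => by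
    have h1 := hy l
    have h2 := mul_le_mul_of_nonneg_right hrs (hpos l)
    exact h1.trans (by linarith)
  have hN : (mkQ S kc h.kc3 h.t ψ a').N ⊆ A ⁻¹' cbx c.1 ((1 + 2 * κ) * lam) := by
    rw [h.Q_eq hl hu ψ a' A hA]
    refine mkCB_N _ _ _ _ _ _ _ _ _ hS fun l => ?_
    have h1 := h.side_ge hu l
    have h2 : 2 * (M : ℝ) * u0 ≤ 2 ^ kc * c.1.side l := by
      have h3 := mul_le_mul_of_nonneg_left h1 hp.le
      have e : 2 ^ kc * (2 * (M * (u0 / 2 ^ kc))) = 2 * (M : ℝ) * u0 := by field_simp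
      rw [e] at h3
      exact h3
    push_cast
    have h4 := mul_le_mul_of_nonneg_left h2 hκ0.le
    have h5 := mul_le_mul_of_nonneg_right hκ hu.le
    linarith
  have hcell : lam * u0 / 2 ^ kc = lam * (u0 / 2 ^ kc) := by ring
  refine
    { lin_eq := hlin
      net := hnet
      core := by
        rw [h.Q_eq hl hu ψ a' A hA]
        exact mkCB_Kc _ _ _ _ _ _ _ _ _ hS
      hB := h.hB
      hR := h.hR
      sub := fun x hx => ⟨hmono (by nlinarith) (hN hx), hmono hκl (hN hx)⟩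
      cell := ?_
      cell' := ?_
      thin := thin
      grid := ?_ }
  · change lam * u0 / 2 ^ kc ≤ Cc * (lam * c.1.sz) / M
    rw [hcell, le_div_iff₀ hM']
    have h0 : 0 ≤ u0 / 2 ^ kc := by positivity
    have h1 : M * (u0 / 2 ^ kc) ≤ c.1.sz := by nlinarith
    have h2 : 0 ≤ c.1.sz := by nlinarith
    have h3 := mul_le_mul_of_nonneg_left h1 hl.le
    have h4 : lam * c.1.sz ≤ Cc * (lam * c.1.sz) := by nlinarith [mul_nonneg hl.le h2]
    linarith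
  · change lam * c.1.sz / M ≤ Cc * (lam * u0 / 2 ^ kc)
    rw [hcell, div_le_iff₀ hM']
    have h0 : 0 ≤ M * (u0 / 2 ^ kc) := by positivity
    have h1 := h.szB
    have h2 : B * (M * (u0 / 2 ^ kc)) ≤ Cc * (M * (u0 / 2 ^ kc)) := mul_le_mul_of_nonneg_right hCB h0
    have h3 := mul_le_mul_of_nonneg_left (h1.trans h2) hl.le
    linarith
  · intro x hx hn
    have hc := coreAt_T (mkQ S kc h.kc3 h.t ψ a') k0 hk
    have hth : ∀ y, th A lam (zz c.1 lam) y =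
        (fun (X : Fin 3 → ℝ) l => o l + u0 / 2 ^ kc * X l) (uc (mkQ S kc h.kc3 h.t ψ a') y) := by
      intro y
      funext l
      have e1 : uc (mkQ S kc h.kc3 h.t ψ a') y l = 2 ^ kc * (ψ y l - a' l) := rfl
      have e2 : zz c.1 lam l = (1 - lam) * ctr c.1 l := rfl
      change (A y l - zz c.1 lam l) / lam = o l + u0 / 2 ^ kc * uc (mkQ S kc h.kc3 h.t ψ a') y l
      rw [e1, e2, hA]
      have e3 : o l = c.1.lo l - u0 / 2 ^ kc * S.lo l := by rw [h.lo l]; ring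
      have e4 : c.1.lo l = ctr c.1 l - c.1.side l / 2 := by
        change c.1.lo l = (c.1.lo l + c.1.hi l) / 2 - (c.1.hi l - c.1.lo l) / 2
        ring
      rw [e3, e4]
      field_simp
      ring
    have h1 := hc.grid h.grid hth x (by rw [hc.tile]; exact hx) hn
    rw [hc.tile] at h1
    exact h1

end shell

end Crest.Agent.R096.Blk_212
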