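import Crest.Agent.R096.Blu1_812
import Crest.Agent.R096.Tmap2_212

/-!
# Row 96 (helper812), p ≤ 2, R3, leaf [BLK], part 2: rational frames and rounded affine maps

* `exists_frame` : near `u⁻¹ • L` there is a frame with rational matrix, denominators and entries bounded by
  a number which depends only on `κ` and the precision;
* `exists_aff` : an affine map with given linear part `u • ψ`, near a given one, with the block position in
  the lattice `2 ^ -k0`;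
* `cnd_of` : the bounds of the frame by `κ`.
-/

set_option autoImplicit false
set_option linter.unusedSectionVars false
set_option linter.style.longLine false

open Set Filter Topology Metric MeasureTheory
open scoped ENNReal

namespace Crest.Agent.R096.Blu_812

open Crest.AnalysisR.VecCalc3
open Crest.Agent.R96.En10_199
open Crest.Agent.R096.SkC1_961 (E3 th)
open Crest.Agent.R096.Mal_874
open Crest.Agent.R096.Er_594 (norm_P3_symm_le norm_P3_le norm_le_P3 norm_le_P3_symm)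

/-- coordinates of a linear map of `E3` -/
theorem lin_sum (L : E3 →L[ℝ] E3) (v : E3) (i : Fin 3) :
    L v i = ∑ j, L (Pi.single j 1) i * v j := by
  have e : v = ∑ j, v j • (Pi.single j (1:ℝ) : E3) := by
    funext k
    simp [Finset.sum_apply, Pi.single_apply]
  conv_lhs => rw [e]
  rw [map_sum, Finset.sum_apply]
  refine Finset.sum_congr rfl fun j _ => ?_
  rw [map_smul, Pi.smul_apply, smul_eq_mul, mul_comm]

/-- **rational frames**: for every `κ`, precision `kl` there is a bound `Nn` such that every linear map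
`L` of `E3` with `κ ‖v‖ ≤ ‖L v‖ ≤ κ⁻¹ ‖v‖` and every unit `u ∈ [1/2, 1]` have a rational frame `ψ` with
`u • ψ` near `L` -/
theorem exists_frame {κ kl : ℝ} (hκ : 0 < κ) (hkl : 0 < kl) (hk : kl < κ) :
    ∃ Nn : ℕ, ∀ L : E3 →L[ℝ] E3, (∀ v, κ * ‖v‖ ≤ ‖L v‖) → (∀ v, ‖L v‖ ≤ κ⁻¹ * ‖v‖) →
      ∀ u : ℝ, 1 / 2 ≤ u → u ≤ 1 →
      ∃ (ψ : E3 ≃L[ℝ] (Fin 3 → ℝ)) (d : ℕ) (B : Fin 3 → Fin 3 → ℤ), 0 < d ∧ d ≤ Nn ∧
        (∀ i j, |B i j| ≤ Nn) ∧ Rt (ContinuousLinearEquiv.refl ℝ E3) ψ B d ∧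
        ∀ v, ‖u • ψ v - L v‖ ≤ kl * ‖v‖ := by
  obtain ⟨d, hd⟩ := exists_nat_gt (3 / kl)
  have hd0 : (0:ℝ) < d := (by positivity : (0:ℝ) < 3 / kl).trans hd
  obtain ⟨Nn, hNn⟩ := exists_nat_gt (2 * d * κ⁻¹ + 1 + d)
  refine ⟨Nn, fun L hL hL' u hu hu1 => ?_⟩
  have hu0 : 0 < u := by linarith
  have hκi : 0 < κ⁻¹ := inv_pos.2 hκ
  set B : Fin 3 → Fin 3 → ℤ := fun i j => round (d * (u⁻¹ * L (Pi.single j 1) i)) with hB
  have hent : ∀ i j, |L (Pi.single j 1) i| ≤ κ⁻¹ := fun i j => by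
    have h1 := hL' (Pi.single j 1)
    have h2 : ‖(Pi.single j 1 : E3)‖ = 1 := by
      rw [Pi.norm_single]; simp
    rw [h2, mul_one] at h1
    have h3 := norm_le_pi_norm (L (Pi.single j 1)) i
    rw [Real.norm_eq_abs] at h3
    exact h3.trans h1
  have hround : ∀ i j, |(B i j : ℝ) - d * (u⁻¹ * L (Pi.single j 1) i)| ≤ 1 / 2 := fun i j => by
    rw [abs_sub_comm]
    exact abs_sub_round _
  -- the linear map
  let f : E3 →ₗ[ℝ] (Fin 3 → ℝ) :=
    { toFun := fun v m => ∑ l, ((B m l : ℝ) / d) * v l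
      map_add' := fun x y => by
        funext m
        simp only [Pi.add_apply, mul_add, Finset.sum_add_distrib]
      map_smul' := fun r x => by
        funext m
        simp only [Pi.smul_apply, smul_eq_mul, RingHom.id_apply, Finset.mul_sum]
        refine Finset.sum_congr rfl fun l _ => by ring }
  have hf : ∀ v m, f v m = ∑ l, ((B m l : ℝ) / d) * v l := fun v m => rfl
  have hclose : ∀ v, ‖u • f v - L v‖ ≤ kl * ‖v‖ := by
    intro v
    rw [pi_norm_le_iff_of_nonneg (by positivity)]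
    intro i
    rw [Real.norm_eq_abs, Pi.sub_apply, Pi.smul_apply, smul_eq_mul, hf, lin_sum,
      Finset.mul_sum, ← Finset.sum_sub_distrib]
    refine (Finset.abs_sum_le_sum_abs _ _).trans ?_
    have h1 : ∀ l, |u * ((B i l : ℝ) / d * v l) - L (Pi.single l 1) i * v l| ≤
        1 / (2 * d) * ‖v‖ := by
      intro l
      have e : u * ((B i l : ℝ) / d * v l) - L (Pi.single l 1) i * v l =
          u / d * (((B i l : ℝ) - d * (u⁻¹ * L (Pi.single l 1) i)) * v l) := by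
        field_simp
      rw [e, abs_mul, abs_mul, abs_of_pos (by positivity : 0 < u / d)]
      have h2 := hround i l
      have h3 := norm_le_pi_norm v l
      rw [Real.norm_eq_abs] at h3
      have h4 : |(B i l : ℝ) - d * (u⁻¹ * L (Pi.single l 1) i)| * |v l| ≤ 1 / 2 * ‖v‖ :=
        mul_le_mul h2 h3 (abs_nonneg _) (by norm_num)
      have h5 : u / d ≤ 1 / d := div_le_div_of_nonneg_right hu1 hd0.le
      calc u / d * (|(B i l : ℝ) - d * (u⁻¹ * L (Pi.single l 1) i)| * |v l|)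
          ≤ 1 / d * (1 / 2 * ‖v‖) := mul_le_mul h5 h4 (by positivity) (by positivity)
        _ = 1 / (2 * d) * ‖v‖ := by field_simp
    calc ∑ l, |u * ((B i l : ℝ) / d * v l) - L (Pi.single l 1) i * v l|
        ≤ ∑ _l : Fin 3, 1 / (2 * d) * ‖v‖ := Finset.sum_le_sum fun l _ => h1 l
      _ = 3 / (2 * d) * ‖v‖ := by
          rw [Finset.sum_const, Finset.card_univ, Fintype.card_fin, nsmul_eq_mul]
          push_cast
          ring
      _ ≤ kl * ‖v‖ := by
          refine mul_le_mul_of_nonneg_right ?_ (norm_nonneg _)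
          rw [div_le_iff₀ (by positivity)]
          rw [div_lt_iff₀ hkl] at hd
          nlinarith
  -- injective
  have hinj : Function.Injective f := by
    rw [← LinearMap.ker_eq_bot, LinearMap.ker_eq_bot']
    intro v hv
    have h1 := hclose v
    rw [hv, smul_zero, zero_sub, norm_neg] at h1
    have h2 := hL v
    by_contra hne
    have h3 : 0 < ‖v‖ := norm_pos_iff.2 hne
    nlinarith
  let e : E3 ≃ₗ[ℝ] (Fin 3 → ℝ) := LinearEquiv.ofInjectiveEndo (f : E3 →ₗ[ℝ] E3) hinj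
  have he : ∀ v, e v = f v := fun v => rfl
  refine ⟨e.toContinuousLinearEquiv, d, B, by exact_mod_cast hd0, ?_, fun i j => ?_, ?_, ?_⟩
  · have h1 : (d : ℝ) ≤ Nn := by
      have : 0 ≤ 2 * d * κ⁻¹ := by positivity
      linarith
    exact_mod_cast h1
  · have h1 := hround i j
    have h2 := hent i j
    have h3 : |(d:ℝ) * (u⁻¹ * L (Pi.single j 1) i)| ≤ 2 * d * κ⁻¹ := by
      rw [abs_mul, abs_mul, abs_of_pos hd0, abs_of_pos (inv_pos.2 hu0)]
      have h4 : u⁻¹ ≤ 2 := by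
        rw [inv_le_comm₀ hu0 (by norm_num)]
        linarith
      calc (d:ℝ) * (u⁻¹ * |L (Pi.single j 1) i|) ≤ d * (2 * κ⁻¹) := by gcongr
        _ = 2 * d * κ⁻¹ := by ring
    have h5 : |(B i j : ℝ)| ≤ Nn := by
      have h6 := abs_sub_abs_le_abs_sub (B i j : ℝ) (d * (u⁻¹ * L (Pi.single j 1) i))
      linarith
    exact_mod_cast h5
  · intro y m
    change (d:ℝ) * f y m = _
    rw [hf, Finset.mul_sum]
    refine Finset.sum_congr rfl fun l _ => ?_
    change (d:ℝ) * ((B m l : ℝ) / d * y l) = B m l * y l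
    field_simp
  · intro v
    change ‖u • f v - L v‖ ≤ _
    exact hclose v

/-- the affine map with linear part `u • ψ` and value `p` at `0` -/
noncomputable def affU (ψ : E3 ≃L[ℝ] (Fin 3 → ℝ)) (u : ℝ) (hu : u ≠ 0) (p : E3) : E3 ≃ᵃ[ℝ] E3 :=
  (ψ.toLinearEquiv.trans (LinearEquiv.smulOfNeZero ℝ E3 u hu)).toAffineEquiv.trans
    (AffineEquiv.constVAdd ℝ E3 p)

theorem affU_apply (ψ : E3 ≃L[ℝ] (Fin 3 → ℝ)) (u : ℝ) (hu : u ≠ 0) (p x : E3) :
    affU ψ u hu p x = p + u • ψ x := rfl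

theorem affU_lin (ψ : E3 ≃L[ℝ] (Fin 3 → ℝ)) (u : ℝ) (hu : u ≠ 0) (p x : E3) :
    (affU ψ u hu p).linear x = u • ψ x := by
  have h := (affU ψ u hu p).toAffineMap.linearMap_vsub x 0
  rw [vsub_eq_sub, vsub_eq_sub, sub_zero] at h
  have h2 : (affU ψ u hu p).linear x = affU ψ u hu p x - affU ψ u hu p 0 := h
  rw [h2, affU_apply, affU_apply, map_zero, smul_zero]
  abel

/-- **rounded affine maps**: linear part `u • ψ`, value at `z` near `b`, position of the block in the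
lattice `2 ^ -k0` -/
theorem exists_aff (ψ : E3 ≃L[ℝ] (Fin 3 → ℝ)) {u : ℝ} (hu : 0 < u) (z b : E3) (k0 : ℕ)
    (g e : Fin 3 → ℝ) :
    ∃ A : E3 ≃ᵃ[ℝ] E3, (∀ x, A.linear x = u • ψ x) ∧ ‖A z - b‖ ≤ u / 2 ^ k0 ∧
      ∀ l, ∃ n : ℤ, 2 ^ k0 * ((g l - A 0 l) / u - e l) = n := by
  have hp : (0:ℝ) < 2 ^ k0 := by positivity
  set p0 : E3 := b - u • ψ z with hp0
  set q : Fin 3 → ℤ := fun l => round (2 ^ k0 * ((g l - p0 l) / u - e l)) with hq
  set p : E3 := fun l => g l - u * (q l / 2 ^ k0 + e l) with hpdef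
  have hA0 : ∀ l, affU ψ u hu.ne' p 0 l = p l := fun l => by
    rw [affU_apply, map_zero, smul_zero, add_zero]
  refine ⟨affU ψ u hu.ne' p, affU_lin ψ u hu.ne' p, ?_, fun l => ⟨q l, ?_⟩⟩
  · rw [pi_norm_le_iff_of_nonneg (by positivity)]
    intro l
    have e1 : (affU ψ u hu.ne' p z - b) l = p l - p0 l := by
      rw [Pi.sub_apply, affU_apply, Pi.add_apply, hp0, Pi.sub_apply]
      ring
    rw [Real.norm_eq_abs, e1]
    have h1 : |2 ^ k0 * ((g l - p0 l) / u - e l) - q l| ≤ 1 / 2 := abs_sub_round _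
    have e2 : p l - p0 l = u / 2 ^ k0 * (2 ^ k0 * ((g l - p0 l) / u - e l) - q l) := by
      rw [hpdef]
      field_simp
      ring
    rw [e2, abs_mul, abs_of_pos (by positivity : 0 < u / 2 ^ k0)]
    have h2 : 0 < u / 2 ^ k0 := by positivity
    nlinarith
  · rw [hA0, hpdef]
    field_simp
    ring

/-- distance of the rounded map to a given affine map -/
theorem aff_near {A : E3 ≃ᵃ[ℝ] E3} {ψ : E3 ≃L[ℝ] (Fin 3 → ℝ)} {u kl r : ℝ} {z b : E3}
    {L : E3 →L[ℝ] E3} (hA : ∀ x, A.linear x = u • ψ x) (hL : ∀ v, ‖u • ψ v - L v‖ ≤ kl * ‖v‖)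
    (hz : ‖A z - b‖ ≤ r) (x : E3) : ‖A x - (b + L (x - z))‖ ≤ kl * ‖x - z‖ + r := by
  have h1 : A.linear (x - z) = A x - A z := by
    have h := A.toAffineMap.linearMap_vsub x z
    rw [vsub_eq_sub, vsub_eq_sub] at h
    exact h
  have e1 : A x - (b + L (x - z)) = (u • ψ (x - z) - L (x - z)) + (A z - b) := by
    rw [← hA, h1]; abel
  rw [e1]
  exact (norm_add_le _ _).trans (add_le_add (hL _) hz)

/-- bounds of the frame on `R3` (the clause `cnd` of `Pin_753.BlkP`) -/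
theorem cnd_of {κ kl u : ℝ} (hκ : 0 < κ) (hκ1 : κ ≤ 1) (hkl : kl ≤ κ / 4) (hu : 1 / 2 ≤ u)
    (hu1 : u ≤ 1) {L : R3 →L[ℝ] R3} (hL : ∀ v, κ * ‖v‖ ≤ ‖L v‖) (hL' : ‖L‖ ≤ κ⁻¹)
    {ψ : E3 ≃L[ℝ] (Fin 3 → ℝ)}
    (hψ : ∀ v : R3, ‖u • ψ (P3.symm v) - P3.symm (L v)‖ ≤ kl * ‖v‖) (v : R3) :
    κ / 4 * ‖v‖ ≤ ‖ψ (P3.symm v)‖ ∧ ‖ψ (P3.symm v)‖ ≤ 4 * κ⁻¹ * ‖v‖ := by
  have hu0 : 0 < u := by linarith
  have hκi : 1 ≤ κ⁻¹ := (one_le_inv₀ hκ).2 hκ1
  have h1 := hψ v
  have hv := norm_nonneg v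
  have h2 : ‖u • ψ (P3.symm v)‖ = u * ‖ψ (P3.symm v)‖ := by
    rw [norm_smul, Real.norm_eq_abs, abs_of_pos hu0]
  have h3 := norm_sub_norm_le (u • ψ (P3.symm v)) (P3.symm (L v))
  have h4 := norm_sub_norm_le (P3.symm (L v)) (u • ψ (P3.symm v))
  rw [norm_sub_rev] at h4
  have h5 := norm_le_P3_symm (L v)
  have h6 := norm_P3_symm_le (L v)
  have h7 := hL v
  have h8 := (L.le_opNorm v).trans (mul_le_mul_of_nonneg_right hL' hv)
  have h9 : kl * ‖v‖ ≤ κ / 4 * ‖v‖ := mul_le_mul_of_nonneg_right hkl hv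
  have h10 := norm_nonneg (ψ (P3.symm v))
  rw [h2] at h3 h4
  constructor
  · nlinarith
  · have h11 : κ / 4 * ‖v‖ ≤ κ⁻¹ * ‖v‖ := mul_le_mul_of_nonneg_right (by linarith) hv
    nlinarith

end Crest.Agent.R096.Blu_812
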