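import Crest.Agent.R096.Ins2_685
import Crest.Agent.R096.Fns4_360
import Crest.Agent.R096.Msb2_432

/-!
Row 96 (S0127), p ≤ 2, helper685.  **[INS]**, part 3: `InP` of the block `mp P3 Q` of `PreIN p` at the position
`a` gives `InS` of `EA0 p` for the block at the (rational) position `P3.symm a + v`.
-/

set_option autoImplicit false
set_option linter.style.longLine false
set_option linter.unusedSectionVars false
set_option linter.unusedVariables false

open MeasureTheory Set Filter Topology Metric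
open scoped ENNReal NNReal

namespace Crest.Agent.R096.Ins_685

open Crest.AnalysisR.VecCalc3 Crest.AnalysisR.Sobolev
open Crest.Agent.R096.Bsp_628 Crest.Agent.R096.Brk1_582 Crest.Agent.R096.Brk3_582
open Crest.Agent.R096.Msh_715 Crest.Agent.R096.Mal_874
open Crest.Agent.R096.Sk_962 (SH)
open Crest.Agent.R096.SkC1_961 (E3 Hom3)
open Crest.Agent.R096.Er_594 (e3 D3 norm_P3_symm_le norm_P3_le norm_le_P3 norm_le_P3_symm vol_P3)
open Crest.Agent.R096.EaX_766 (cbx lin)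
open Crest.Agent.R096.Br_695 (lin_apply det_le cbx_mono)
open Crest.Agent.R96.Lu_538 (Gmat)
open Crest.Agent.R96.Intr_538 (cel par)
open Crest.Agent.R96.Coarse_538 (vt Cb)
open Crest.Agent.R96.En10_199 (P3)
open Crest.Agent.R096.Tmap_212 (mp)
open Crest.Agent.R096.Ttr_565 (InP4 T4)
open Crest.Agent.R096.Pin_753 (Bk InP BlkP)
open Crest.Agent.R096.Ea0_961 (InS)
open Crest.Agent.R096.Fil_313 (aff3 aff3_apply aff3_image cel_preimage)
open Crest.Agent.R096.Fns_360 (trA trA_apply trA_linear trA_sub)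

noncomputable section

variable {p : ℝ} {f : R3 → R3} {G : Fin 3 → R3 → R3} {C1 κw s κ ka kl κw' : ℝ} {b z : R3}
  {L : R3 →L[ℝ] R3} {er : ℝ≥0∞} {A : E3 ≃ᵃ[ℝ] E3}

theorem lin_trA (A : E3 ≃ᵃ[ℝ] E3) (v : E3) : lin (trA A v) = lin A := by
  unfold lin
  rw [trA_linear]

theorem lin_eq_linear (A : E3 ≃ᵃ[ℝ] E3) (v : E3) : lin A v = A.linear v := rfl

/-- `Bk` in `E3` -/
theorem Bk3 (hκ : 0 < κ) (low : ∀ v, κ * ‖v‖ ≤ ‖L v‖) (x : E3) :
    P3.symm (Bk b L z (P3 x)) = aff3 L hκ low z b x := rfl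

/-- the linear part of a map which is close to `Bk` on the cube -/
theorem lin_close (hs : 0 < s) (hκ : 0 < κ) (low : ∀ v, κ * ‖v‖ ≤ ‖L v‖)
    (hA : ∀ x ∈ closedBall (P3.symm z) s, ‖A x - P3.symm (Bk b L z (P3 x))‖ ≤ ka * s) (v : E3) :
    ‖lin A v - L3 L v‖ ≤ 2 * ka * ‖v‖ := by
  rcases eq_or_ne v 0 with rfl | hv
  · simp
  have hv0 : 0 < ‖v‖ := norm_pos_iff.2 hv
  set t : ℝ := s / ‖v‖ with ht
  have ht0 : 0 < t := div_pos hs hv0
  set z3 : E3 := P3.symm z with hz3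
  have h1 : z3 + t • v ∈ closedBall z3 s := by
    rw [mem_closedBall, dist_eq_norm, add_sub_cancel_left, norm_smul, Real.norm_eq_abs,
      abs_of_pos ht0, ht, div_mul_cancel₀ _ hv0.ne']
  have h2 := hA _ h1
  have h3 := hA z3 (mem_closedBall_self hs.le)
  have e1 : lin A (t • v) = A (z3 + t • v) - A z3 := by
    rw [← lin_apply, add_sub_cancel_left]
  have e2 : L3 L (t • v) = P3.symm (Bk b L z (P3 (z3 + t • v))) - P3.symm (Bk b L z (P3 z3)) := by
    rw [L3_apply, ← map_sub P3.symm]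
    congr 1
    unfold Bk
    rw [add_sub_add_left_eq_sub, ← map_sub L]
    congr 1
    rw [map_add]
    abel
  have h4 : ‖t • (lin A v - L3 L v)‖ ≤ 2 * ka * s := by
    rw [smul_sub, ← map_smul (lin A), ← map_smul (L3 L), e1, e2]
    have e3 : A (z3 + t • v) - A z3 -
        (P3.symm (Bk b L z (P3 (z3 + t • v))) - P3.symm (Bk b L z (P3 z3))) =
        (A (z3 + t • v) - P3.symm (Bk b L z (P3 (z3 + t • v)))) -
        (A z3 - P3.symm (Bk b L z (P3 z3))) := by abel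
    rw [e3]
    refine (norm_sub_le _ _).trans ?_
    linarith
  rw [norm_smul, Real.norm_eq_abs, abs_of_pos ht0, ht, div_mul_eq_mul_div, div_le_iff₀ hv0] at h4
  have h5 : s * ‖lin A v - L3 L v‖ ≤ s * (2 * ka * ‖v‖) := by linarith
  exact le_of_mul_le_mul_left h5 hs

/-- the translated affine map -/
theorem trA_close (hκ : 0 < κ) (low : ∀ v, κ * ‖v‖ ≤ ‖L v‖) (up : ‖L‖ ≤ κ⁻¹)
    (hs : 0 < s)
    (hA : ∀ x ∈ closedBall (P3.symm z) s, ‖A x - P3.symm (Bk b L z (P3 x))‖ ≤ ka * s)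
    (hka : ka ≤ κ / 16) {v : E3} {ρ : ℝ} (hv : ‖v‖ ≤ ρ * s) :
    ∀ x ∈ closedBall (P3.symm z) s,
      ‖trA A v x - P3.symm (Bk b L z (P3 x))‖ ≤ (ka + 3 * κ⁻¹ * ρ) * s := by
  intro x hx
  have h1 := hA x hx
  have h2 := norm_lin_le hκ low (by linarith) (lin_close hs hκ low hA)
  have h3 : ‖lin A v‖ ≤ 3 * κ⁻¹ * (ρ * s) := by
    calc ‖lin A v‖ ≤ ‖lin A‖ * ‖v‖ := (lin A).le_opNorm v
      _ ≤ (3 * κ⁻¹) * (ρ * s) := by
          gcongr
          exact h2.trans (mul_le_mul_of_nonneg_left up (by norm_num))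
  have e1 : trA A v x - P3.symm (Bk b L z (P3 x)) = (A x - P3.symm (Bk b L z (P3 x))) - lin A v := by
    rw [lin_eq_linear, ← trA_sub A v x]; abel
  rw [e1]
  refine (norm_sub_le _ _).trans ?_
  linarith

theorem inP4_of_eq {D : R3 → R3 →L[ℝ] R3} {Q Q' : CB R3 3} (h : Q = Q') {k0 : ℕ} {hk : Q.kc ≤ k0}
    {hk' : Q'.kc ≤ k0} (H : InP4 p f D C1 κw s b L z er Q k0 hk) :
    InP4 p f D C1 κw s b L z er Q' k0 hk' := by
  subst h
  exact H

/-- **[INS]**: the data `InP` of the block `mp P3 Q` of `PreIN p` at the position `a` give the data `InS` of `EA0 p`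
for the block `Q` at the position `P3.symm a + v`, `v` small against `2 ^ -k0` -/
theorem ins (hp : 0 ≤ p) (hp3 : p ≤ 3) {Om La : Set R3} (hf : IsHomeomorphOn f Om La)
    (hLa : IsOpen La) (hκ : 0 < κ) (hκ1 : κ ≤ 1) (low : ∀ v, κ * ‖v‖ ≤ ‖L v‖) (up : ‖L‖ ≤ κ⁻¹)
    {τ hh c1 θ0 θ1 : ℝ} {Bs Nn : ℕ} (hs : 0 < s) (hτ : 0 < τ) (hτ4 : τ ≤ 1 / 4)
    (hsub : cel Cb z ((1 - τ) * s) ⊆ Om)
    (hcl : ∀ x ∈ cel Cb z ((1 - τ) * s), ‖f x - Bk b L z x‖ ≤ C1 * hh * s)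
    (hhh : C1 * hh ≤ κ * τ) (Q : CB E3 3) {k0 : ℕ} (hk : Q.kc ≤ k0)
    (HB : BlkP κ s τ hh c1 θ0 θ1 Bs Nn z (mp P3 Q) k0) {a : R3} (ha : ‖a‖ ≤ κw * s) {v : E3}
    (hv : ‖Q.ψ v‖ ≤ 1 / (20 * 2 ^ k0))
    (H : InP p f (Gmat G) C1 κw s b L z er ((mp P3 Q).tr a) k0 hk)
    (hkw : 0 ≤ κw) (hroom : κw + θ0 / κ ≤ τ)
    (hA : ∀ x ∈ closedBall (P3.symm z) s, ‖A x - P3.symm (Bk b L z (P3 x))‖ ≤ ka * s)
    (hka0 : 0 ≤ ka) {kb : ℝ} (hkb : ka + 3 * κ⁻¹ * (κw + θ0 / (5 * κ)) ≤ kb)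
    (hkb1 : kb ≤ κ * τ / 16)
    {Cc κ1 κ2 lam : ℝ} {M : ℕ} {c : Bx (Fin 3)} (hc : c.Pos) (hlam : 0 ≤ lam) (hκ2 : 0 ≤ κ2)
    (hCc : 0 ≤ Cc)
    (hin : cbx c ((1 + 2 * κ2) * lam) ⊆ P3 ⁻¹' par Cb L b ((1 - 3 * τ) * s))
    (n1 : (κw + kb) * s ≤ κw' * (lam * c.sz) / M) (n2 : 2 * κw + 2 * kb ≤ κ / 4 * κw')
    (n3 : (C1 * hh + kb) * s ≤ κ1 * (lam * c.sz)) :
    InS p (P3 ⁻¹' Om) (e3 f) (D3 G) Cc κ1 κ2 κw' M c (trA A (P3.symm a + v)) lam
      (1000 * (ENNReal.ofReal (C1 * ‖L‖ ^ p) * volume (Q.N \ Q.Kc) + er))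
      (Q.tr (P3.symm a + v)) k0 hk := by
  set a' : E3 := P3.symm a + v with ha'
  -- numbers
  have hpos : (0 : ℝ) < 2 ^ k0 := by positivity
  have hhi := HB.hi
  have hki : (0 : ℝ) < 1 / 2 ^ k0 := by positivity
  have hθ0 : 0 < θ0 := by
    by_contra hc
    have : θ0 * s ≤ 0 := mul_nonpos_of_nonpos_of_nonneg (not_lt.1 hc) hs.le
    linarith
  have hnrm : ∀ {w : E3} {q : ℝ}, 0 < q → ‖Q.ψ w‖ ≤ 1 / (q * 2 ^ k0) → ‖w‖ ≤ 4 * θ0 / (q * κ) * s := by
    intro w q hq hw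
    have h1 := (HB.cnd (P3 w)).1
    rw [Tmap_212.mp_ψ, P3.symm_apply_apply] at h1
    have h2 := norm_le_P3 w
    have h3 : (1 : ℝ) / (q * 2 ^ k0) = 1 / q * (1 / 2 ^ k0) := by field_simp
    rw [h3] at hw
    have h4 : 1 / q * (1 / 2 ^ k0) ≤ 1 / q * (θ0 * s) :=
      mul_le_mul_of_nonneg_left hhi (by positivity)
    have h5 : κ / 4 * ‖w‖ ≤ κ / 4 * ‖P3 w‖ := mul_le_mul_of_nonneg_left h2 (by positivity)
    have h6 : κ / 4 * ‖w‖ ≤ κ / 4 * (4 * θ0 / (q * κ) * s) := by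
      have : κ / 4 * (4 * θ0 / (q * κ) * s) = 1 / q * (θ0 * s) := by field_simp
      linarith
    exact le_of_mul_le_mul_left h6 (by positivity)
  have hvn : ‖v‖ ≤ θ0 / (5 * κ) * s := by
    have := hnrm (by norm_num : (0 : ℝ) < 20) hv
    have e : 4 * θ0 / (20 * κ) = θ0 / (5 * κ) := by field_simp; norm_num
    rwa [e] at this
  have ha'n : ‖a'‖ ≤ (κw + θ0 / (5 * κ)) * s := by
    calc ‖a'‖ ≤ ‖P3.symm a‖ + ‖v‖ := norm_add_le _ _
      _ ≤ κw * s + θ0 / (5 * κ) * s := add_le_add ((norm_P3_symm_le a).trans ha) hvn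
      _ = _ := by ring
  have hkaκ : ka ≤ κ / 16 := by
    have h1 : 0 ≤ 3 * κ⁻¹ * (κw + θ0 / (5 * κ)) := by positivity
    have h2 : κ * τ ≤ κ * 1 := mul_le_mul_of_nonneg_left (by linarith) hκ.le
    linarith
  have hkbκ : kb ≤ κ / 16 := by
    have h2 : κ * τ ≤ κ * 1 := mul_le_mul_of_nonneg_left (by linarith) hκ.le
    linarith
  have hkb0 : 0 ≤ kb := by
    have h1 : 0 ≤ 3 * κ⁻¹ * (κw + θ0 / (5 * κ)) := by positivity
    linarith
  have hA' : ∀ x ∈ closedBall (P3.symm z) s,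
      ‖trA A a' x - P3.symm (Bk b L z (P3 x))‖ ≤ kb * s := by
    intro x hx
    refine (trA_close hκ low up hs hA hkaκ ha'n x hx).trans ?_
    exact mul_le_mul_of_nonneg_right hkb hs.le
  have hl : ∀ w, ‖lin (trA A a') w - L3 L w‖ ≤ 2 * kb * ‖w‖ := lin_close hs hκ low hA'
  -- the block
  have hblk : mp P3 (Q.tr a') = ((mp P3 Q).tr a).tr (P3 v) := by
    rw [Tmap_212.mp_tr, ha', map_add, P3.apply_symm_apply, CB.tr_add]
  have H4 : InP4 p f (Gmat G) C1 κw s b L z er (mp P3 (Q.tr a')) k0 hk := by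
    have h1 := Ttr_565.InP.shift H (d := P3 v) (by
      show ‖Q.ψ (P3.symm (P3 v))‖ ≤ _
      rw [P3.symm_apply_apply]; exact hv)
    exact inP4_of_eq hblk.symm h1
  have hNs : ∀ y ∈ Q.N, y ∈ closedBall (P3.symm z) ((1 - τ) * s) := by
    intro y hy
    rw [← cel_preimage z (mul_pos (by linarith) hs)]
    exact HB.sub ((Tmap_212.mem_N_mp' P3 Q).2 hy)
  have hvol : volume ((Q.tr a').N \ (Q.tr a').Kc) = volume (Q.N \ Q.Kc) := by
    have e : (Q.tr a').N \ (Q.tr a').Kc = (fun y => y + (-a')) ⁻¹' (Q.N \ Q.Kc) := by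
      ext y
      rw [Set.mem_sdiff, Q.mem_N_tr a', Q.mem_Kc_tr a', mem_preimage, Set.mem_sdiff, sub_eq_add_neg]
    rw [e, measure_preimage_add_right]
  rw [← hvol]
  refine ins_core (t := (1 - τ) * s) (r := C1 * hh * s) (ka := kb) (kl := 2 * kb) hp hp3 (Q.tr a') hk H4 hκ low
    (by linarith) (by linarith) hl hkw hA' ?_ hCc n1 n2 ?_ ?_ ?_ ?_ ?_
  · intro y hy w hw
    have h1 : y - a' ∈ Q.Kc := (Q.mem_Kc_tr a' y).1 hy
    have h2 := hNs _ (Msb_432.Kc_sub_N Q h1)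
    have h3 := hnrm (by norm_num : (0 : ℝ) < 10) (w := w) hw
    rw [mem_closedBall, dist_eq_norm] at h2 ⊢
    have e1 : y + w - P3.symm z = (y - a' - P3.symm z) + (a' + w) := by abel
    have h5 : (κw + θ0 / (5 * κ)) * s + 4 * θ0 / (10 * κ) * s ≤ τ * s := by
      rw [← add_mul]
      refine mul_le_mul_of_nonneg_right ?_ hs.le
      have e3 : κw + θ0 / (5 * κ) + 4 * θ0 / (10 * κ) = κw + 3 / 5 * (θ0 / κ) := by
        field_simp; ring
      have : 0 < θ0 / κ := by positivity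
      linarith
    calc ‖y + w - P3.symm z‖ ≤ ‖y - a' - P3.symm z‖ + ‖a' + w‖ := by rw [e1]; exact norm_add_le _ _
      _ ≤ (1 - τ) * s + ((κw + θ0 / (5 * κ)) * s + 4 * θ0 / (10 * κ) * s) :=
          add_le_add h2 ((norm_add_le _ _).trans (add_le_add ha'n h3))
      _ ≤ s := by linarith
  · have : τ * s ≤ s := by nlinarith
    nlinarith
  · rw [← cel_preimage z (mul_pos (by linarith) hs)]
    exact preimage_mono hsub
  · intro x hx
    rw [← cel_preimage z (mul_pos (by linarith) hs)] at hx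
    have h1 := hcl _ hx
    have e1 : e3 f x - P3.symm (Bk b L z (P3 x)) = P3.symm (f (P3 x) - Bk b L z (P3 x)) := by
      rw [map_sub]; rfl
    rw [e1]
    exact (norm_P3_symm_le _).trans h1
  · have hcov := (Cov_58.cover hf hLa hκ low hs hτ (by linarith) hsub hcl (by
        have := mul_le_mul_of_nonneg_right hhh hs.le
        linarith)).2
    have himg : ∀ {r : ℝ}, 0 < r →
        aff3 L hκ low z b '' closedBall (P3.symm z) r = P3 ⁻¹' par Cb L b r :=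
      fun {r} hr => aff3_image L hκ low z b hr
    have r3 : 0 < (1 - 3 * τ) * s := mul_pos (by linarith) hs
    have r2 : 0 < (1 - 2 * τ) * s := mul_pos (by linarith) hs
    intro x hx
    rcases hx with ⟨hxO, hx⟩ | hx
    · have h1 : e3 f x ∈ P3 ⁻¹' par Cb L b ((1 - 3 * τ) * s) :=
        hin (cbx_mono hc (by nlinarith) hx)
      have h2 : e3 f x ∈ P3 ⁻¹' par Cb L b ((1 - 2 * τ) * s) := by
        rw [← himg r3] at h1
        rw [← himg r2]
        exact image_mono (closedBall_subset_closedBall (by nlinarith)) h1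
      have h3 : f (P3 x) ∈ par Cb L b ((1 - 2 * τ) * s) := by
        have : P3 (e3 f x) ∈ par Cb L b ((1 - 2 * τ) * s) := h2
        rwa [Er_594.P3_e3] at this
      have h4 := hcov (P3 x) hxO h3
      rw [← cel_preimage z (mul_pos (by linarith) hs)]
      exact h4
    · have h1 := hin hx
      rw [← himg r3] at h1
      obtain ⟨u, hu, hux⟩ := h1
      have hus : u ∈ closedBall (P3.symm z) s :=
        closedBall_subset_closedBall (by nlinarith) hu
      have h2 := hA' u hus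
      rw [Bk3 hκ low, hux, ← lin_apply] at h2
      have h3 := low_lin hκ low (by linarith : 2 * kb ≤ κ / 8) hl (u - x)
      have h4 : ‖u - x‖ ≤ τ / 4 * s := by
        have h5 : κ / 4 * ‖u - x‖ ≤ κ / 4 * (τ / 4 * s) := by
          have h6 : kb * s ≤ κ * τ / 16 * s := mul_le_mul_of_nonneg_right hkb1 hs.le
          have e : κ / 4 * (τ / 4 * s) = κ * τ / 16 * s := by ring
          linarith
        exact le_of_mul_le_mul_left h5 (by positivity)
      rw [mem_closedBall, dist_eq_norm] at hu ⊢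
      have e1 : x - P3.symm z = (u - P3.symm z) - (u - x) := by abel
      rw [e1]
      refine (norm_sub_le _ _).trans ?_
      have : 0 < τ * s := mul_pos hτ hs
      linarith
  · linarith

end

end Crest.Agent.R096.Ins_685
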