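import Crest.Agent.R096.Blk1_212
import Crest.Agent.R096.Blu2_812
import Crest.Agent.R096.Ins3_685

/-!
Row 96 (S0127), helper212.  **BLK-INST, part 2**: the blocks of R3 (`EA0 p` + `PreIN p` ⟹ `BFk p`).

* `ShD.blkP` : `Pin_753.BlkP` for the block of a brick in a good cube;
* `exists_net` : frames from a finite net near `u⁻¹ L` (812's `exists_frame` in `R3`);
* `ShD.exists_pos` : the position in the lattice `2 ^ -k0` and the affine map;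
* `ShD.exists_tr` : the rational position after `PreIN`;
* `ShD.block` : all together, one brick.
-/

set_option autoImplicit false
set_option linter.unusedSectionVars false
set_option linter.style.longLine false

open Set Filter Metric Topology MeasureTheory
open scoped ENNReal NNReal

namespace Crest.Agent.R096.Blk_212

open Crest.AnalysisR.VecCalc3
open Crest.Agent.R096.Bsp_628 Crest.Agent.R096.Brk1_582 Crest.Agent.R096.Brk2_582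
open Crest.Agent.R096.Brk3_582 Crest.Agent.R096.Brk5_582 Crest.Agent.R096.Grd_714
open Crest.Agent.R096.Fni_447 Crest.Agent.R096.Fbr_628
open Crest.Agent.R096.Mal_874 Crest.Agent.R096.Msh_810 Crest.Agent.R096.Msh_715
open Crest.Agent.R096.Mcc_715
open Crest.Agent.R096.SkC1_961 (E3 th)
open Crest.Agent.R096.EaX_766 (cbx lin)
open Crest.Agent.R096.Bxs_627 (ctr zz)
open Crest.Agent.R096.Mdd_360
open Crest.Agent.R096.Ea0_961 (Blk)
open Crest.Agent.R096.Er_594 (norm_P3_symm_le norm_P3_le norm_le_P3 norm_le_P3_symm)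
open Crest.Agent.R096.Br_695 (lin_apply cbx_mono)
open Crest.Agent.R96.Intr_538 (cel par)
open Crest.Agent.R96.Coarse_538 (vt Cb)
open Crest.Agent.R96.En10_199 (P3)
open Crest.Agent.R096.Tmap_212 (mp mp_ψ rt_P3 mem_N_mp)
open Crest.Agent.R096.Pin_753 (Bk BlkP)
open Crest.Agent.R096.Ins_685 (L3 L3_apply low_L3 norm_L3 low_lin lin_close Bk3 lin_eq_linear)
open Crest.Agent.R096.Fil_313 (aff3 aff3_apply aff3_image cel_preimage)
open Crest.Agent.R096.Fns_360 (trA trA_apply trA_linear trA_sub)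

noncomputable section

/-- `BlkP` is monotone in the upper bound of the wall scale -/
theorem BlkP.mono_θ {κ s τ hh c1 θ0 θ0' θ1 : ℝ} {Bs Nn : ℕ} {z : R3} {Q : CB R3 3} {k0 : ℕ}
    (hs : 0 < s) (h : BlkP κ s τ hh c1 θ0 θ1 Bs Nn z Q k0) (hθ : θ0 ≤ θ0') :
    BlkP κ s τ hh c1 θ0' θ1 Bs Nn z Q k0 :=
  { h with hi := h.hi.trans (mul_le_mul_of_nonneg_right hθ hs.le) }

/-- **finite net of frames**: for every `u ∈ [1/2, 1]` and every `L` of condition `κ⁻¹` there is a frame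
`ψ` of the net with `u • ψ` near `L` -/
theorem exists_net {κ kl : ℝ} (hκ : 0 < κ) (hkl : 0 < kl) (hk : kl < κ / 2) :
    ∃ Nn : ℕ, ∀ L : R3 →L[ℝ] R3, (∀ v, κ * ‖v‖ ≤ ‖L v‖) → ‖L‖ ≤ κ⁻¹ →
      ∀ u : ℝ, 1 / 2 ≤ u → u ≤ 1 →
      ∃ (ψ : E3 ≃L[ℝ] (Fin 3 → ℝ)), (∃ (d : ℕ) (Bm : Fin 3 → Fin 3 → ℤ), 0 < d ∧ d ≤ Nn ∧
        (∀ i j, |Bm i j| ≤ Nn) ∧ Rt (ContinuousLinearEquiv.refl ℝ E3) ψ Bm d) ∧
        ∀ v, ‖u • ψ v - L3 L v‖ ≤ kl * ‖v‖ := by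
  obtain ⟨Nn, hN⟩ := Blu_812.exists_frame (κ := κ / 2) (kl := kl) (by linarith) hkl hk
  refine ⟨Nn, fun L low up u hu hu1 => ?_⟩
  obtain ⟨ψ, d, Bm, h1, h2, h3, h4, h5⟩ := hN (L3 L) (fun v => low_L3 low hκ v) (fun v => by
    refine ((L3 L).le_opNorm v).trans (mul_le_mul_of_nonneg_right ?_ (norm_nonneg _))
    refine (norm_L3 L).trans ?_
    have e : (κ / 2)⁻¹ = 2 * κ⁻¹ := by field_simp
    rw [e]
    linarith) u hu hu1
  exact ⟨ψ, ⟨d, Bm, h1, h2, h3, h4⟩, h5⟩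

section shell

variable {F : Set (Bx (Fin 3))} {o : E3} {u0 B : ℝ} {Bs M : ℕ} {c : F} {S : PS 3} {kc : ℕ}
  (h : ShD F o u0 B Bs M c S kc)

include h

/-- the neighbourhood of the block in the target -/
theorem ShD.N_sub {lam κ' : ℝ} (hl : 0 < lam) (hu : 0 < u0) (hκ : 11 ≤ 2 * κ' * M)
    (hκ0 : 0 ≤ κ') (ψ : E3 ≃L[ℝ] (Fin 3 → ℝ)) (a' : Fin 3 → ℝ)
    {A : E3 ≃ᵃ[ℝ] E3} (hA : ∀ y l, A y l = ctr c.1 l - lam * c.1.side l / 2 +
      lam * u0 * (ψ y l - a' l - S.lo l / 2 ^ kc)) :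
    (mkQ S kc h.kc3 h.t ψ a').N ⊆ A ⁻¹' cbx c.1 ((1 + 2 * κ') * lam) := by
  have hp : (0 : ℝ) < 2 ^ kc := by positivity
  rw [h.Q_eq hl hu ψ a' A hA]
  refine mkCB_N _ _ _ _ _ _ _ _ _ (h.side hu) fun l => ?_
  have h1 := h.side_ge hu l
  have h2 : 2 * (M : ℝ) * u0 ≤ 2 ^ kc * c.1.side l := by
    have h3 := mul_le_mul_of_nonneg_left h1 hp.le
    have e : 2 ^ kc * (2 * (M * (u0 / 2 ^ kc))) = 2 * (M : ℝ) * u0 := by field_simp
    rw [e] at h3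
    exact h3
  push_cast
  have h4 := mul_le_mul_of_nonneg_left h2 hκ0
  have h5 := mul_le_mul_of_nonneg_right hκ hu.le
  linarith

/-- the linear part -/
theorem ShD.lin_val' {lam : ℝ} (ψ : E3 ≃L[ℝ] (Fin 3 → ℝ)) (a' : Fin 3 → ℝ)
    {A : E3 ≃ᵃ[ℝ] E3} (hA : ∀ y l, A y l = ctr c.1 l - lam * c.1.side l / 2 +
      lam * u0 * (ψ y l - a' l - S.lo l / 2 ^ kc)) (x : E3) : lin A x = (lam * u0) • ψ x := by
  have h1 := lin_apply A x 0
  rw [sub_zero] at h1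
  rw [h1]
  funext l
  rw [Pi.sub_apply, hA, hA, map_zero]
  simp only [Pi.zero_apply, Pi.smul_apply, smul_eq_mul]
  ring

/-- **`Pin_753.BlkP` for the block of a brick in the good cube `(z, s)`** -/
theorem ShD.blkP {κ s τ hh c1 θ0 θ1 ka lam κ' : ℝ} {Nn : ℕ} {z b : R3} {L : R3 →L[ℝ] R3}
    (hκ : 0 < κ) (hκ1 : κ ≤ 1) (low : ∀ v, κ * ‖v‖ ≤ ‖L v‖) (up : ‖L‖ ≤ κ⁻¹)
    (hs : 0 < s) (hτ : 0 < τ) (hτ4 : τ ≤ 1 / 4)
    (hl : 0 < lam) (hu : 0 < u0) (hu1 : 1 / 2 ≤ lam * u0) (hu2 : lam * u0 ≤ 1)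
    (hM : 0 < M) (hκM : 11 ≤ 2 * κ' * M) (hκ' : 0 ≤ κ') (hB0 : 0 < B)
    (ψ : E3 ≃L[ℝ] (Fin 3 → ℝ)) (a' : Fin 3 → ℝ)
    (hnet : ∃ (d : ℕ) (Bm : Fin 3 → Fin 3 → ℤ), 0 < d ∧ d ≤ Nn ∧ (∀ i j, |Bm i j| ≤ Nn) ∧
      Rt (ContinuousLinearEquiv.refl ℝ E3) ψ Bm d)
    {k0 : ℕ} (hpos : ∀ m, ∃ n : ℤ, 2 ^ k0 * a' m = n)
    {A : E3 ≃ᵃ[ℝ] E3} (hA : ∀ y l, A y l = ctr c.1 l - lam * c.1.side l / 2 +
      lam * u0 * (ψ y l - a' l - S.lo l / 2 ^ kc))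
    (hcl : ∀ x ∈ closedBall (P3.symm z) s, ‖A x - P3.symm (Bk b L z (P3 x))‖ ≤ ka * s)
    (hka : ka ≤ κ * τ / 16)
    (hin : cbx c.1 ((1 + 2 * κ') * lam) ⊆ P3 ⁻¹' par Cb L b ((1 - 3 * τ) * s))
    (cL : c1 * s * (B * M * u0) ≤ c.1.sz) (cU : c.1.sz ≤ hh * s * (2 * M * u0))
    (lo : θ1 * s ≤ 1 / 2 ^ k0) (hi : 1 / 2 ^ k0 ≤ θ0 * s) :
    BlkP κ s τ hh c1 θ0 θ1 Bs Nn z (mp P3 (mkQ S kc h.kc3 h.t ψ a')) k0 := by
  have hp : (0 : ℝ) < 2 ^ kc := by positivity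
  have hM' : (0 : ℝ) < M := by exact_mod_cast hM
  have hkaκ : 2 * ka ≤ κ / 8 := by
    have : κ * τ ≤ κ * 1 := mul_le_mul_of_nonneg_left (by linarith) hκ.le
    linarith
  have hlin := h.lin_val' ψ a' hA
  have hl3 : ∀ v, ‖lin A v - L3 L v‖ ≤ 2 * ka * ‖v‖ := lin_close hs hκ low hcl
  obtain ⟨d, Bm, hd, hd', hBm, hR⟩ := hnet
  refine
    { cnd := ?_
      net := ⟨d, Bm, hd, hd', hBm, ?_, ?_⟩
      hB := h.hB
      hR := h.hR
      cellL := ?_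
      cellU := ?_
      lo := lo
      hi := hi
      sub := ?_ }
  · have h2ka : 0 ≤ 2 * ka := by
      by_contra hcon
      push Not at hcon
      have h1 := hl3 (P3.symm (EuclideanSpace.single 0 1))
      have h2 : 0 < ‖P3.symm (EuclideanSpace.single (0 : Fin 3) (1:ℝ))‖ := by
        rw [norm_pos_iff]
        intro h0
        have := P3.symm.injective (h0.trans (map_zero P3.symm).symm)
        have h3 : ‖(EuclideanSpace.single (0 : Fin 3) (1 : ℝ) : R3)‖ = 1 := by simp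
        rw [this, norm_zero] at h3
        exact zero_ne_one h3
      have h4 := norm_nonneg (lin A (P3.symm (EuclideanSpace.single 0 1)) -
        L3 L (P3.symm (EuclideanSpace.single 0 1)))
      nlinarith
    refine Blu_812.cnd_of (kl := 2 * ka) hκ hκ1 (by linarith) hu1 hu2 low up fun v => ?_
    have h1 := hl3 (P3.symm v)
    rw [hlin, L3_apply, P3.apply_symm_apply] at h1
    exact h1.trans (mul_le_mul_of_nonneg_left (norm_P3_symm_le v) h2ka)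
  · exact (rt_P3 (mkQ S kc h.kc3 h.t ψ a')).2 hR
  · intro m
    obtain ⟨n, hn⟩ := hpos m
    refine ⟨d * n, ?_⟩
    change 2 ^ k0 * (d : ℝ) * a' m = _
    push_cast
    rw [← hn]
    ring
  · change c1 * s ≤ 1 / 2 ^ kc
    have h1 := cL.trans h.szB
    have e : B * (M * (u0 / 2 ^ kc)) = 1 / 2 ^ kc * (B * M * u0) := by ring
    rw [e] at h1
    exact le_of_mul_le_mul_right h1 (by positivity)
  · change 1 / 2 ^ kc ≤ hh * s
    have h1 := (h.sz2 hu).trans cU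
    have e : 2 * (M * (u0 / 2 ^ kc)) = 1 / 2 ^ kc * (2 * M * u0) := by ring
    rw [e] at h1
    exact le_of_mul_le_mul_right h1 (by positivity)
  · intro y hy
    have r3 : 0 < (1 - 3 * τ) * s := mul_pos (by linarith) hs
    have hx0 := (mem_N_mp P3 (mkQ S kc h.kc3 h.t ψ a')).1 hy
    set x : E3 := P3.symm y with hx
    have hxy : P3 x = y := P3.apply_symm_apply y
    have h1 := hin (h.N_sub hl hu hκM hκ' ψ a' hA hx0)
    rw [← aff3_image L hκ low z b r3] at h1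
    obtain ⟨w, hw, hwx⟩ := h1
    have hws : w ∈ closedBall (P3.symm z) s :=
      closedBall_subset_closedBall (by nlinarith) hw
    have h2 := hcl w hws
    rw [Bk3 hκ low, hwx, ← lin_apply] at h2
    have h3 := low_lin hκ low hkaκ hl3 (w - x)
    have h4 : ‖w - x‖ ≤ τ / 4 * s := by
      have h5 : κ / 4 * ‖w - x‖ ≤ κ / 4 * (τ / 4 * s) := by
        have h6 : ka * s ≤ κ * τ / 16 * s := mul_le_mul_of_nonneg_right hka hs.le
        have e : κ / 4 * (τ / 4 * s) = κ * τ / 16 * s := by ring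
        linarith
      exact le_of_mul_le_mul_left h5 (by positivity)
    have h5 : x ∈ closedBall (P3.symm z) ((1 - τ) * s) := by
      rw [mem_closedBall, dist_eq_norm] at hw ⊢
      have e1 : x - P3.symm z = (w - P3.symm z) - (w - x) := by abel
      rw [e1]
      refine (norm_sub_le _ _).trans ?_
      have : 0 < τ * s := mul_pos hτ hs
      linarith
    rw [← cel_preimage z (mul_pos (by linarith) hs)] at h5
    have h6 : P3 x ∈ cel Cb z ((1 - τ) * s) := h5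
    rwa [hxy] at h6

/-- **position in the lattice and affine map** of the block of a brick in the good cube `(z, s)` -/
theorem ShD.exists_pos {s θ kl lam : ℝ} {z b : R3} {L : R3 →L[ℝ] R3}
    (hl : 0 < lam) (hu : 0 < u0) (hu2 : lam * u0 ≤ 1)
    (ψ : E3 ≃L[ℝ] (Fin 3 → ℝ)) (hkl : 0 ≤ kl) (hψ : ∀ v, ‖(lam * u0) • ψ v - L3 L v‖ ≤ kl * ‖v‖)
    {k0 : ℕ} (hi : 1 / 2 ^ k0 ≤ θ * s) :
    ∃ (a' : Fin 3 → ℝ) (A : E3 ≃ᵃ[ℝ] E3), (∀ m, ∃ n : ℤ, 2 ^ k0 * a' m = n) ∧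
      (∀ y l, A y l = ctr c.1 l - lam * c.1.side l / 2 +
        lam * u0 * (ψ y l - a' l - S.lo l / 2 ^ kc)) ∧
      ∀ x ∈ closedBall (P3.symm z) s, ‖A x - P3.symm (Bk b L z (P3 x))‖ ≤ (kl + θ) * s := by
  have hlu : 0 < lam * u0 := mul_pos hl hu
  obtain ⟨A, hA1, hA2, hA3⟩ := Blu_812.exists_aff ψ hlu (P3.symm z) (P3.symm b) k0
    (fun l => ctr c.1 l - lam * c.1.side l / 2) (fun l => S.lo l / 2 ^ kc)
  refine ⟨fun l => (ctr c.1 l - lam * c.1.side l / 2 - A 0 l) / (lam * u0) - S.lo l / 2 ^ kc,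
    A, hA3, fun y l => ?_, fun x hx => ?_⟩
  · have h1 : A.linear y = A y - A 0 := by
      have h := A.toAffineMap.linearMap_vsub y 0
      rw [vsub_eq_sub, vsub_eq_sub, sub_zero] at h
      exact h
    have h2 := congrFun (h1.symm.trans (hA1 y)) l
    rw [Pi.sub_apply, Pi.smul_apply, smul_eq_mul] at h2
    have h3 : A y l = A 0 l + lam * u0 * ψ y l := by linarith
    rw [h3]
    field_simp
    ring
  · have h1 := Blu_812.aff_near (L := L3 L) hA1 hψ hA2 x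
    have e1 : P3.symm (Bk b L z (P3 x)) = P3.symm b + L3 L (x - P3.symm z) := by
      unfold Bk
      rw [map_add, L3_apply, map_sub P3, P3.apply_symm_apply]
    rw [e1]
    refine h1.trans ?_
    rw [mem_closedBall, dist_eq_norm] at hx
    have h2 : kl * ‖x - P3.symm z‖ ≤ kl * s := mul_le_mul_of_nonneg_left hx hkl
    have h3 : lam * u0 / 2 ^ k0 ≤ θ * s := by
      refine le_trans ?_ hi
      exact div_le_div_of_nonneg_right hu2 (by positivity)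
    linarith

/-- **rational position after `PreIN`**: every translation `sh` of the block can be corrected by `v`,
`‖ψ v‖ ≤ 1 / (20 * 2 ^ k0)`, so that the block at `sh + v` is a block of `EA0` -/
theorem ShD.exists_tr {lam κ' κ2 κt Cc : ℝ} {Nn : ℕ} (hl : 0 < lam) (hu : 0 < u0) (hM : 0 < M)
    (hκ : 11 ≤ 2 * κ' * M) (hκ2 : 2 * κ' ≤ κ2) (hκl : (1 + 2 * κ') * lam ≤ (1 + lam) / 2)
    (hC1 : 1 ≤ Cc) (hCB : B ≤ Cc) (hcp : ∀ l, 0 ≤ c.1.side l)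
    (ψ : E3 ≃L[ℝ] (Fin 3 → ℝ)) (a' : Fin 3 → ℝ)
    (hnet : ∃ (d : ℕ) (Bm : Fin 3 → Fin 3 → ℤ), 0 < d ∧ d ≤ Nn ∧ (∀ i j, |Bm i j| ≤ Nn) ∧
      Rt (ContinuousLinearEquiv.refl ℝ E3) ψ Bm d)
    {A : E3 ≃ᵃ[ℝ] E3} (hA : ∀ y l, A y l = ctr c.1 l - lam * c.1.side l / 2 +
      lam * u0 * (ψ y l - a' l - S.lo l / 2 ^ kc)) {k0 : ℕ} (hk : kc ≤ k0)
    (thin : lam * u0 / 2 ^ k0 ≤ κt * (lam * c.1.sz) / M) (sh : E3) :
    ∃ v : E3, ‖(mkQ S kc h.kc3 h.t ψ a').ψ v‖ ≤ 1 / (20 * 2 ^ k0) ∧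
      Blk F (lam * u0) Cc κ2 κt Bs M Nn c (trA A (sh + v)) lam
        ((mkQ S kc h.kc3 h.t ψ a').tr (sh + v)) k0 hk := by
  obtain ⟨d, Bm, hd, hd', hBm, hR⟩ := hnet
  have hp : (0 : ℝ) < 2 ^ (k0 + 5) := by positivity
  set w : Fin 3 → ℝ := fun l => round (2 ^ (k0 + 5) * (a' l + ψ sh l)) / 2 ^ (k0 + 5) with hw
  set v : E3 := ψ.symm (w - a' - ψ sh) with hv
  have hψv : ψ v = w - a' - ψ sh := ψ.apply_symm_apply _
  have hpos : a' + ψ (sh + v) = w := by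
    rw [map_add, hψv]; abel
  refine ⟨v, ?_, ?_⟩
  · change ‖ψ v‖ ≤ _
    rw [hψv, pi_norm_le_iff_of_nonneg (by positivity)]
    intro l
    have h1 := abs_sub_round (2 ^ (k0 + 5) * (a' l + ψ sh l))
    have e1 : (w - a' - ψ sh) l = -((2 ^ (k0 + 5) * (a' l + ψ sh l) -
        round (2 ^ (k0 + 5) * (a' l + ψ sh l))) / 2 ^ (k0 + 5)) := by
      rw [Pi.sub_apply, Pi.sub_apply, hw]
      field_simp
      ring
    rw [e1, norm_neg, Real.norm_eq_abs, abs_div, abs_of_pos hp, div_le_div_iff₀ hp (by positivity)]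
    have e2 : (2 : ℝ) ^ (k0 + 5) = 32 * 2 ^ k0 := by rw [pow_add]; norm_num; ring
    have h2 : (0 : ℝ) < 2 ^ k0 := by positivity
    calc |2 ^ (k0 + 5) * (a' l + ψ sh l) - round (2 ^ (k0 + 5) * (a' l + ψ sh l))| * (20 * 2 ^ k0)
        ≤ 1 / 2 * (20 * 2 ^ k0) := mul_le_mul_of_nonneg_right h1 (by positivity)
      _ ≤ 1 * 2 ^ (k0 + 5) := by rw [e2]; linarith
  · have hQ : (mkQ S kc h.kc3 h.t ψ a').tr (sh + v) = mkQ S kc h.kc3 h.t ψ w := by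
      unfold CB.tr mkQ
      congr 1
    have h1 := h.blk (κ2 := κ2) (κt := κt) (Cc := Cc) (Nn := Nn) hl hu hM hκ hκ2 hκl hC1 hCB hcp ψ w
      ⟨d, Bm, hd, hd', hBm, hR, k0 + 5, fun m => ⟨d * round (2 ^ (k0 + 5) * (a' m + ψ sh m)), by
        rw [hw]
        push_cast
        field_simp⟩⟩
      (A := trA A (sh + v)) (fun y l => by
        rw [trA_apply, hA, ← hpos, map_sub, Pi.sub_apply, Pi.add_apply]
        ring) hk thin
    have key : ∀ (Q' : CB E3 3) (hq : mkQ S kc h.kc3 h.t ψ w = Q') (hk' : Q'.kc ≤ k0),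
        Blk F (lam * u0) Cc κ2 κt Bs M Nn c (trA A (sh + v)) lam Q' k0 hk' := by
      rintro Q' rfl hk'
      exact h1
    exact key _ hQ.symm hk

/-- **one brick of R3**: block, affine map, `BlkP` for `PreIN`, `Blk` for `EA0` at a rational position -/
theorem ShD.block {κ s τ hh c1 θ θ1 kl lam κ' κ2 κt Cc : ℝ} {Nn : ℕ} {z b : R3} {L : R3 →L[ℝ] R3}
    (hκ : 0 < κ) (hκ1 : κ ≤ 1) (low : ∀ v, κ * ‖v‖ ≤ ‖L v‖) (up : ‖L‖ ≤ κ⁻¹)
    (hs : 0 < s) (hτ : 0 < τ) (hτ4 : τ ≤ 1 / 4)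
    (hl : 0 < lam) (hu : 0 < u0) (hu1 : 1 / 2 ≤ lam * u0) (hu2 : lam * u0 ≤ 1)
    (hM : 0 < M) (hκM : 11 ≤ 2 * κ' * M) (hκ' : 0 ≤ κ') (hκ2 : 2 * κ' ≤ κ2)
    (hκl : (1 + 2 * κ') * lam ≤ (1 + lam) / 2) (hB0 : 0 < B) (hC1 : 1 ≤ Cc) (hCB : B ≤ Cc)
    (hcp : ∀ l, 0 ≤ c.1.side l) (hkl0 : 0 ≤ kl) (hkl : kl + θ ≤ κ * τ / 16)
    (hnet : ∃ ψ : E3 ≃L[ℝ] (Fin 3 → ℝ), (∃ (d : ℕ) (Bm : Fin 3 → Fin 3 → ℤ), 0 < d ∧ d ≤ Nn ∧
        (∀ i j, |Bm i j| ≤ Nn) ∧ Rt (ContinuousLinearEquiv.refl ℝ E3) ψ Bm d) ∧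
        ∀ v, ‖(lam * u0) • ψ v - L3 L v‖ ≤ kl * ‖v‖)
    (hin : cbx c.1 ((1 + 2 * κ') * lam) ⊆ P3 ⁻¹' par Cb L b ((1 - 3 * τ) * s))
    (cL : c1 * s * (B * M * u0) ≤ c.1.sz) (cU : c.1.sz ≤ hh * s * (2 * M * u0))
    {k0 : ℕ} (lo : θ1 * s ≤ 1 / 2 ^ k0) (hi : 1 / 2 ^ k0 ≤ θ * s) (hθc : θ ≤ c1)
    (hθt : θ ≤ κt * c1 * B) :
    ∃ (Q : CB E3 3) (A : E3 ≃ᵃ[ℝ] E3) (hk : Q.kc ≤ k0),
      Q.N ⊆ A ⁻¹' cbx c.1 ((1 + 2 * κ') * lam) ∧ Q.Kc = A ⁻¹' cbx c.1 lam ∧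
      (∀ x, A.linear x = (lam * u0) • Q.ψ x) ∧
      (∀ x ∈ closedBall (P3.symm z) s, ‖A x - P3.symm (Bk b L z (P3 x))‖ ≤ (kl + θ) * s) ∧
      BlkP κ s τ hh c1 θ θ1 Bs Nn z (mp P3 Q) k0 ∧
      ∀ sh : E3, ∃ v : E3, ‖Q.ψ v‖ ≤ 1 / (20 * 2 ^ k0) ∧
        Blk F (lam * u0) Cc κ2 κt Bs M Nn c (trA A (sh + v)) lam (Q.tr (sh + v)) k0 hk := by
  obtain ⟨ψ, hn, hψ⟩ := hnet
  obtain ⟨a', A, hpos, hA, hcl⟩ := h.exists_pos (b := b) (z := z) hl hu hu2 ψ hkl0 hψ hi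
  have hM' : (0 : ℝ) < M := by exact_mod_cast hM
  have hP := h.blkP hκ hκ1 low up hs hτ hτ4 hl hu hu1 hu2 hM hκM hκ' hB0 ψ a' hn hpos hA hcl hkl
    hin cL cU lo hi
  have hk : kc ≤ k0 := by
    have h1 : (1 : ℝ) / 2 ^ k0 ≤ 1 / 2 ^ kc :=
      (hi.trans (mul_le_mul_of_nonneg_right hθc hs.le)).trans hP.cellL
    rw [div_le_div_iff₀ (by positivity) (by positivity), one_mul, one_mul] at h1
    exact (pow_le_pow_iff_right₀ (by norm_num : (1 : ℝ) < 2)).1 h1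
  have thin : lam * u0 / 2 ^ k0 ≤ κt * (lam * c.1.sz) / M := by
    rw [le_div_iff₀ hM']
    have h1 : lam * u0 / 2 ^ k0 * M = lam * (u0 * M * (1 / 2 ^ k0)) := by ring
    have h2 : κt * (lam * c.1.sz) = lam * (κt * c.1.sz) := by ring
    rw [h1, h2]
    refine mul_le_mul_of_nonneg_left ?_ hl.le
    have hθ0 : 0 < θ := by
      by_contra hcon
      push Not at hcon
      have h3 : θ * s ≤ 0 := mul_nonpos_of_nonpos_of_nonneg hcon hs.le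
      have h4 : (0 : ℝ) < 1 / 2 ^ k0 := by positivity
      linarith
    have hc1 : 0 < c1 := hθ0.trans_le hθc
    have hκt : 0 < κt := by
      by_contra hcon
      push Not at hcon
      have h3 : κt * (c1 * B) ≤ 0 := mul_nonpos_of_nonpos_of_nonneg hcon (by positivity)
      linarith
    calc u0 * M * (1 / 2 ^ k0) ≤ u0 * M * (κt * c1 * B * s) := by
          refine mul_le_mul_of_nonneg_left ?_ (by positivity)
          exact hi.trans (mul_le_mul_of_nonneg_right hθt hs.le)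
      _ = κt * (c1 * s * (B * M * u0)) := by ring
      _ ≤ κt * c.1.sz := mul_le_mul_of_nonneg_left cL hκt.le
  refine ⟨mkQ S kc h.kc3 h.t ψ a', A, hk, h.N_sub hl hu hκM hκ' ψ a' hA, ?_, ?_, hcl, hP,
    fun sh => ?_⟩
  · rw [h.Q_eq hl hu ψ a' A hA]
    exact mkCB_Kc _ _ _ _ _ _ _ _ _ (h.side hu)
  · intro x
    rw [← lin_eq_linear]
    exact h.lin_val' ψ a' hA x
  · exact h.exists_tr hl hu hM hκM hκ2 hκl hC1 hCB hcp ψ a' hn hA hk thin sh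

end shell

end

end Crest.Agent.R096.Blk_212
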