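import Crest.Agent.R096.Blk1_212
import Crest.Agent.R096.Br4_695

/-!
# Row 96 (helper812), p ≤ 2, R3: **[DIST]** (695 #11580 (2)): the distance of two core blocks

* `dist_same` : two bricks of the foam, two affine maps which are `ρ`-close;
* `dist_cubes` : different cubes of the lattice;
* `dist_all` : the hypothesis `∀ i j, i ≠ j → .. c2 * s ≤ dist x y` of `Pin_753.PreIN`.
-/

set_option autoImplicit false
set_option linter.unusedSectionVars false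
set_option linter.style.longLine false

open Set Filter Topology Metric

namespace Crest.Agent.R096.Dst_812

open Crest.AnalysisR.VecCalc3 Crest.AnalysisR.Sobolev
open Crest.Agent.R096.Bsp_628 Crest.Agent.R096.Brk1_582
open Crest.Agent.R096.Mal_874
open Crest.Agent.R096.SkC1_961 (E3)
open Crest.Agent.R096.EaX_766 (cbx)
open Crest.Agent.R096.Bxs_627 (ctr)
open Crest.Agent.R096.Tmap_212 (mp)
open Crest.Agent.R96.Intr_538 (cel)
open Crest.Agent.R96.Coarse_538 (vt Cb mem_cel vt_apply)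
open Crest.Agent.R96.En10_199 (P3)

/-- the walls of two shrunk boxes in the target -/
theorem dist_cbx {C C' : Bx (Fin 3)} {l w : ℝ}
    (h : ∃ k, C.hi k ≤ C'.lo k ∨ C'.hi k ≤ C.lo k) {y y' : E3}
    (hy : y ∈ cbx C ((1 + l) / 2)) (hy' : y' ∈ cbx C' ((1 + l) / 2))
    (hw : ∀ k, w ≤ (1 - l) * C.side k) (hw' : ∀ k, w ≤ (1 - l) * C'.side k) :
    w / 2 ≤ ‖y - y'‖ := by
  obtain ⟨k, hk⟩ := h
  have h1 := abs_le.1 (hy k)
  have h2 := abs_le.1 (hy' k)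
  have e1 : ctr C k = (C.lo k + C.hi k) / 2 := rfl
  have e2 : ctr C' k = (C'.lo k + C'.hi k) / 2 := rfl
  have e3 : C.side k = C.hi k - C.lo k := rfl
  have e4 : C'.side k = C'.hi k - C'.lo k := rfl
  have h3 := hw k
  have h4 := hw' k
  have h5 := norm_le_pi_norm (y - y') k
  rw [Pi.sub_apply, Real.norm_eq_abs] at h5
  rw [e1, e3] at h1
  rw [e2, e4] at h2
  rw [e3] at h3
  rw [e4] at h4
  have h6 := le_abs_self (y k - y' k)
  have h7 := neg_abs_le (y k - y' k)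
  rcases hk with hk | hk
  · linarith [h1.2, h2.1]
  · linarith [h1.1, h2.2]

/-- **same cube** (or any two maps which are `ρ`-close at the point `y`) -/
theorem dist_same {La : Set E3} {F : Set (Bx (Fin 3))} {δ κ0 : ℝ} (BF : BoxFoam La F δ κ0)
    {c c' : Bx (Fin 3)} (hc : c ∈ F) (hc' : c' ∈ F) (hne : c ≠ c') {lam t B N ρ : ℝ}
    (hl1 : lam ≤ 1) (hB : 0 < B) (hN : 0 < N) (ht : ∀ k, t ≤ B * c.side k)
    (ht' : ∀ k, t ≤ B * c'.side k) (hρ : 2 * ρ ≤ (1 - lam) / 2 * (t / B)) {A A' : E3 ≃ᵃ[ℝ] E3}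
    {x y : E3} (hA : ‖A x - A y‖ ≤ N * ‖x - y‖) (hAA : ‖A y - A' y‖ ≤ ρ)
    (hx : A x ∈ cbx c ((1 + lam) / 2)) (hy : A' y ∈ cbx c' ((1 + lam) / 2)) :
    (1 - lam) * t / (4 * B * N) ≤ ‖x - y‖ := by
  have hsep := BF.inv.disj hc hc' (BF.pos _ hc) (BF.pos _ hc') hne
  have hlt : 0 ≤ 1 - lam := by linarith
  have h1 : ∀ k, (1 - lam) * (t / B) ≤ (1 - lam) * c.side k := fun k =>
    mul_le_mul_of_nonneg_left ((div_le_iff₀ hB).2 (by rw [mul_comm]; exact ht k)) hlt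
  have h2 : ∀ k, (1 - lam) * (t / B) ≤ (1 - lam) * c'.side k := fun k =>
    mul_le_mul_of_nonneg_left ((div_le_iff₀ hB).2 (by rw [mul_comm]; exact ht' k)) hlt
  have h3 := dist_cbx hsep hx hy h1 h2
  have h4 : ‖A x - A' y‖ ≤ ‖A x - A y‖ + ‖A y - A' y‖ := norm_sub_le_norm_sub_add_norm_sub _ _ _
  have h5 : (1 - lam) * (t / B) / 4 ≤ N * ‖x - y‖ := by linarith
  rw [div_le_iff₀ (by positivity)]
  have e1 : (1 - lam) * (t / B) / 4 = (1 - lam) * t / (4 * B) := by field_simp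
  rw [e1, div_le_iff₀ (by positivity)] at h5
  linarith

/-- **different cubes** -/
theorem dist_cubes {s σ : ℝ} (hs : 0 < s) (hσ : 0 < σ) {a₀ : R3} {k l : Fin 3 → ℤ} (hne : k ≠ l)
    {x y : R3} (hx : x ∈ cel Cb (vt (2 * s) a₀ k) σ) (hy : y ∈ cel Cb (vt (2 * s) a₀ l) σ) :
    2 * (s - σ) ≤ dist x y := by
  obtain ⟨i, hi⟩ := Function.ne_iff.1 hne
  have h1 := (mem_cel hσ).1 hx i
  have h2 := (mem_cel hσ).1 hy i
  have e1 : vt (2 * s) a₀ k i = a₀ i + 2 * s * k i := by simp [vt, Crest.Agent.R96.Coarse_538.ihom_apply]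
  have e2 : vt (2 * s) a₀ l i = a₀ i + 2 * s * l i := by simp [vt, Crest.Agent.R96.Coarse_538.ihom_apply]
  rw [e1] at h1
  rw [e2] at h2
  have h3 : (1 : ℝ) ≤ |(k i : ℝ) - l i| := by
    have : (1 : ℤ) ≤ |k i - l i| := Int.one_le_abs (sub_ne_zero.2 hi)
    exact_mod_cast this
  have h4 : 2 * s ≤ |2 * s * (k i : ℝ) - 2 * s * l i| := by
    rw [← mul_sub, abs_mul, abs_of_pos (by positivity : 0 < 2 * s)]
    nlinarith
  have h5 : |x i - y i| ≤ dist x y := by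
    rw [dist_eq_norm]
    have := EuclideanSpace.norm_eq (x - y)
    have h := PiLp.norm_apply_le (x - y) i
    rwa [PiLp.sub_apply, Real.norm_eq_abs] at h
  have h6 := abs_le.1 h1
  have h7 := abs_le.1 h2
  have h8 := abs_le.1 (le_refl |x i - y i|)
  rcases le_total 0 (2 * s * (k i : ℝ) - 2 * s * l i) with h | h
  · rw [abs_of_nonneg h] at h4
    linarith [h6.1, h6.2, h7.1, h7.2, h8.2]
  · rw [abs_of_nonpos h] at h4
    linarith [h6.1, h6.2, h7.1, h7.2, h8.1]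

/-- **the distance clause of `Pin_753.PreIN`** -/
theorem dist_all {La : Set E3} {F : Set (Bx (Fin 3))} {δ κ0 : ℝ} (BF : BoxFoam La F δ κ0)
    {J : Type*} {kk : J → Fin 3 → ℤ} {cc : J → F} (hinj : Function.Injective cc)
    {Q : J → CB E3 3} {A : J → E3 ≃ᵃ[ℝ] E3} {lam t B N ρ s τ c2 : ℝ} {a₀ : R3} (hl1 : lam ≤ 1)
    (hB : 0 < B) (hN : 0 < N) (hs : 0 < s) (hτ : τ < 1) (ht : ∀ j k, t ≤ B * (cc j).1.side k)
    (hρ : 2 * ρ ≤ (1 - lam) / 2 * (t / B)) (hA : ∀ j x y, ‖A j x - A j y‖ ≤ N * ‖x - y‖)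
    (hAA : ∀ i j, kk i = kk j → ∀ y ∈ (Q j).N, ‖A i y - A j y‖ ≤ ρ)
    (hsub : ∀ j, ∀ x ∈ (Q j).N, A j x ∈ cbx (cc j).1 ((1 + lam) / 2))
    (hcel : ∀ j, (mp P3 (Q j)).N ⊆ cel Cb (vt (2 * s) a₀ (kk j)) ((1 - τ) * s))
    (hc2 : c2 * s ≤ 2 * (τ * s)) (hc2' : c2 * s ≤ (1 - lam) * t / (4 * B * N)) :
    ∀ i j, i ≠ j → ∀ x ∈ (mp P3 (Q i)).N, ∀ y ∈ (mp P3 (Q j)).N, c2 * s ≤ dist x y := by
  intro i j hij x hx y hy
  by_cases hk : kk i = kk j
  · have hne : (cc i).1 ≠ (cc j).1 := fun h => hij (hinj (Subtype.ext h))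
    have hx' : P3.symm x ∈ (Q i).N := Tmap_212.mem_N_mp P3 (Q i) |>.1 hx
    have hy' : P3.symm y ∈ (Q j).N := Tmap_212.mem_N_mp P3 (Q j) |>.1 hy
    have h1 := dist_same BF (cc i).2 (cc j).2 hne hl1 hB hN (ht i) (ht j) hρ
      (hA i (P3.symm x) (P3.symm y)) (hAA i j hk _ hy') (hsub i _ hx') (hsub j _ hy')
    refine hc2'.trans (h1.trans ?_)
    rw [dist_eq_norm, pi_norm_le_iff_of_nonneg (norm_nonneg _)]
    intro m
    have h := PiLp.norm_apply_le (x - y) m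
    rwa [PiLp.sub_apply] at h
  · have h1 := dist_cubes hs (mul_pos (sub_pos.2 hτ) hs) hk (hcel i hx) (hcel j hy)
    refine hc2.trans (le_trans (le_of_eq ?_) h1)
    ring

end Crest.Agent.R096.Dst_812
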