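import Crest.Agent.R096.Bxs3_627

/-!
Row 96 (S0127), helper627.  BOXES, part 5: the core statement of a brick from the abstract estimates in
the form of PREP3 (766): small cores with an arbitrary ratio, full size cores.
-/

set_option autoImplicit false
set_option linter.unusedSectionVars false
set_option linter.style.longLine false
set_option linter.unusedVariables false

open MeasureTheory Set Filter Topology Metric

namespace Crest.Agent.R096.Bxs_627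

open Crest.AnalysisR.VecCalc3 Crest.AnalysisR.Sobolev
open Crest.Agent.R096.Bsp_628 Crest.Agent.R96.Push_899 Crest.Agent.R96.En10_199

noncomputable section

/-- `Cori`: the core statement of the brick `c` (input of `cl_nbd_miss`). -/
def Cori (Om : Set R3) (f : R3 → R3) (A : R3 → R3) (Q : Bx (Fin 3)) (lam κ1 κ2 : ℝ) : Prop :=
  ∀ x : E3, (x ∈ P3 ⁻¹' Om ∧ ∀ k, |m3 f x k - ctr Q k| ≤ lam * Q.side k / 2) ∨
      (∀ k, |m3 A x k - ctr Q k| ≤ (1 / 2 + κ2) * (lam * Q.side k)) →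
      x ∈ P3 ⁻¹' Om ∧ ‖m3 f x - m3 A x‖ ≤ κ1 * (lam * Q.sz)

lemma near_of_coord {Q : Bx (Fin 3)} (hQ : Q.Pos) {u : R3} {b : ℝ} (hb : 0 ≤ b)
    (hu : ∀ k, |P3.symm u k - ctr Q k| ≤ b * Q.side k) : ‖u - P3 (ctr Q)‖ ≤ 2 * (b * Q.sz) := by
  have hs := Bx.sz_pos hQ
  have e1 : ‖P3.symm u - ctr Q‖ ≤ b * Q.sz := by
    rw [pi_norm_le_iff_of_nonneg (by positivity)]
    intro k
    rw [Pi.sub_apply, Real.norm_eq_abs]
    exact (hu k).trans (mul_le_mul_of_nonneg_left (Q.side_le_sz k) hb)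
  have e2 := norm_P3_le (P3.symm u - ctr Q)
  rw [map_sub, ContinuousLinearEquiv.apply_symm_apply] at e2
  linarith

/-- **small core**, ratio `lam`; the estimates are known over Euclidean balls of radius
`2 * lam * sz` round the centre. -/
theorem small_core' {Om : Set R3} {f A : R3 → R3} {Q : Bx (Fin 3)} (hQ : Q.Pos)
    {lam κ₁ κ1 κ2 : ℝ} (hl : 0 < lam) (h0 : 0 ≤ κ2) (h2 : κ2 ≤ 1 / 4)
    (hm : ∀ x ∈ Om, ‖f x - P3 (ctr Q)‖ ≤ 2 * (lam * Q.sz) → ‖f x - A x‖ ≤ κ₁ * Q.sz)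
    (hn : ∀ x, ‖A x - P3 (ctr Q)‖ ≤ 2 * (lam * Q.sz) → x ∈ Om ∧ ‖f x - A x‖ ≤ κ₁ * Q.sz)
    (hκ : κ₁ ≤ κ1 * lam) : Cori Om f A Q lam κ1 κ2 := by
  have hs := Bx.sz_pos hQ
  have fin : ∀ x : R3, x ∈ Om ∧ ‖f x - A x‖ ≤ κ₁ * Q.sz →
      x ∈ Om ∧ ‖P3.symm (f x) - P3.symm (A x)‖ ≤ κ1 * (lam * Q.sz) := by
    rintro x ⟨hx, h3⟩
    refine ⟨hx, ?_⟩
    have h4 := norm_P3_symm_le (f x - A x)
    rw [map_sub] at h4
    refine h4.trans (h3.trans ?_)
    calc κ₁ * Q.sz ≤ κ1 * lam * Q.sz := mul_le_mul_of_nonneg_right hκ hs.le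
      _ = κ1 * (lam * Q.sz) := by ring
  rintro x (⟨hx, h3⟩ | h3)
  · have h4 := near_of_coord hQ (u := f (P3 x)) (b := lam / 2) (by positivity) (fun k => by
      have := h3 k
      have e : m3 f x k = P3.symm (f (P3 x)) k := rfl
      rw [e] at this
      linarith)
    exact fin _ ⟨hx, hm _ hx (h4.trans (by nlinarith))⟩
  · have h4 := near_of_coord hQ (u := A (P3 x)) (b := (1 / 2 + κ2) * lam) (by positivity) (fun k => by
      have := h3 k
      have e : m3 A x k = P3.symm (A (P3 x)) k := rfl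
      rw [e] at this
      linarith)
    refine fin _ (hn _ (h4.trans ?_))
    have h5 : (1 / 2 + κ2) * lam ≤ 1 * lam := mul_le_mul_of_nonneg_right (by linarith) hl.le
    nlinarith

/-- **full size core**: the estimates are known over Euclidean balls of radius `2 * sz`, `Th = id` on
the brick. -/
theorem full_core' {Om : Set R3} {f A : R3 → R3} {Q : Bx (Fin 3)} (hQ : Q.Pos)
    {lam κ₁ κ0 κ1 κ2 : ℝ} (hκ0 : 1 ≤ κ0) (asp : ∀ i, Q.sz ≤ κ0 * Q.side i) (hκ₁0 : 0 ≤ κ₁)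
    (hl : 0 < lam) (hl1 : lam ≤ 1) (h0 : 0 ≤ κ2) (h2 : κ2 ≤ 1 / 4)
    (hm : ∀ x ∈ Om, ‖f x - P3 (ctr Q)‖ ≤ 2 * Q.sz → ‖f x - A x‖ ≤ κ₁ * Q.sz)
    (hn : ∀ x, ‖A x - P3 (ctr Q)‖ ≤ 2 * Q.sz → x ∈ Om ∧ ‖f x - A x‖ ≤ κ₁ * Q.sz)
    (h3 : (1 / 2 + κ2) * lam + κ₁ * κ0 ≤ 1 / 2) (hκ : κ₁ ≤ κ1 * lam)
    {Th : R3 ≃ₜ R3} (hTh : ∀ y : R3, P3.symm y ∈ Q.set → Th y = y) :
    Cori Om (Th ∘ f) A Q lam κ1 κ2 := by
  have hs := Bx.sz_pos hQ
  have fin : ∀ x : R3, x ∈ Om ∧ ‖f x - A x‖ ≤ κ₁ * Q.sz → Th (f x) = f x →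
      x ∈ Om ∧ ‖P3.symm (Th (f x)) - P3.symm (A x)‖ ≤ κ1 * (lam * Q.sz) := by
    rintro x ⟨hx, h4⟩ hT
    refine ⟨hx, ?_⟩
    rw [hT]
    have h5 := norm_P3_symm_le (f x - A x)
    rw [map_sub] at h5
    refine h5.trans (h4.trans ?_)
    calc κ₁ * Q.sz ≤ κ1 * lam * Q.sz := mul_le_mul_of_nonneg_right hκ hs.le
      _ = κ1 * (lam * Q.sz) := by ring
  rintro x (⟨hx, h5⟩ | h5)
  · have hT : Th (f (P3 x)) = f (P3 x) := by
      have h6 : P3.symm (Th (f (P3 x))) ∈ Q.set := by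
        rw [Bx.mem_set]
        intro k
        have h7 := abs_le.1 (h5 k)
        have h8 := ctr_lo Q k
        have h9 := ctr_hi Q k
        have h10 := Bx.side_pos hQ k
        have h11 : m3 (Th ∘ f) x k = P3.symm (Th (f (P3 x))) k := rfl
        rw [h11] at h7
        have h12 : lam * Q.side k ≤ 1 * Q.side k := mul_le_mul_of_nonneg_right hl1 h10.le
        constructor <;> linarith [h7.1, h7.2]
      exact Th.injective (hTh _ h6)
    have h4 := near_of_coord hQ (u := f (P3 x)) (b := lam / 2) (by positivity) (fun k => by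
      have h7 := h5 k
      have h8 : m3 (Th ∘ f) x k = P3.symm (Th (f (P3 x))) k := rfl
      rw [h8, hT] at h7
      linarith)
    refine fin _ ⟨hx, hm _ hx (h4.trans ?_)⟩ hT
    nlinarith
  · have h4 := near_of_coord hQ (u := A (P3 x)) (b := (1 / 2 + κ2) * lam) (by positivity) (fun k => by
      have := h5 k
      have e : m3 A x k = P3.symm (A (P3 x)) k := rfl
      rw [e] at this
      linarith)
    have h6 := hn _ (h4.trans (by
      have h7 : (1 / 2 + κ2) * lam ≤ 1 := by nlinarith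
      nlinarith))
    have hT : Th (f (P3 x)) = f (P3 x) := by
      apply hTh
      have h7 := norm_P3_symm_le (f (P3 x) - A (P3 x))
      rw [map_sub] at h7
      rw [Bx.mem_set]
      intro k
      have h9 := norm_le_pi_norm (P3.symm (f (P3 x)) - P3.symm (A (P3 x))) k
      rw [Pi.sub_apply, Real.norm_eq_abs] at h9
      have h10 := abs_le.1 (h9.trans (h7.trans h6.2))
      have h11 := h5 k
      have e : m3 A x k = P3.symm (A (P3 x)) k := rfl
      rw [e] at h11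
      have h12 := abs_le.1 h11
      have h13 := ctr_lo Q k
      have h14 := ctr_hi Q k
      have h15 := Bx.side_pos hQ k
      have h16 := asp k
      have h17 : κ₁ * Q.sz ≤ κ₁ * κ0 * Q.side k := by nlinarith
      have h18 : ((1 / 2 + κ2) * lam + κ₁ * κ0) * Q.side k ≤ 1 / 2 * Q.side k :=
        mul_le_mul_of_nonneg_right h3 h15.le
      constructor <;> nlinarith [h10.1, h10.2, h12.1, h12.2]
    exact fin _ h6 hT

/-- clauses `nbd` and `miss` from `Cori`. -/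
theorem Cori.clauses {Om : Set R3} {f A : R3 → R3} {Q : Bx (Fin 3)} (hQ : Q.Pos)
    {lam κ1 κ2 : ℝ} (hl : 0 < lam) (h2 : κ2 ≤ 1 / 4)
    (hκ : ∀ k, κ1 * (lam * Q.sz) ≤ κ2 * (lam * Q.side k)) (h : Cori Om f A Q lam κ1 κ2) :
    (∀ x : E3, (∀ k, zz Q lam k + lam * Q.lo k - κ2 * (lam * Q.side k) ≤ m3 A x k ∧
      m3 A x k ≤ zz Q lam k + lam * Q.hi k + κ2 * (lam * Q.side k)) →
      x ∈ P3 ⁻¹' Om ∧ ‖m3 f x - m3 A x‖ ≤ κ1 * (lam * Q.sz)) ∧
    (∀ x ∈ P3 ⁻¹' Om, (¬ ∀ k, zz Q lam k + lam * Q.lo k ≤ m3 A x k ∧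
      m3 A x k ≤ zz Q lam k + lam * Q.hi k) →
      m3 f x ∉ (cb Q hQ (lam / 2) (half_pos hl).le).S) :=
  cl_nbd_miss hQ hl h2 hκ h

end

end Crest.Agent.R096.Bxs_627
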