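import Crest.Agent.R096.Bsp3_628

/-!
# Row 96, U1 / FOAM-EX (helper628), part 4: the graded simple box foam

**Theorem `exists_foam`**: from every finite start family of boxes with `INV` (one big cube, or the
crossing logs) which covers the open set `La = {0 < rho}` (`rho` Lipschitz for the sup norm), there is a
locally finite family `F` of boxes covering exactly `La`, graded by `rho`, with the quantitative
simplicity `INV`; start boxes which are already small enough are kept.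
-/

set_option autoImplicit false
set_option linter.unusedSectionVars false

open Set

namespace Crest.Agent.R096.Bsp_628

variable {κ : Type*} [Fintype κ] [Nonempty κ] [DecidableEq κ]

/-- one step or nothing -/
def Nxt (rho : (κ → ℝ) → ℝ) (P P' : Finset (Bx κ)) : Prop :=
  ((∀ U ∈ P, Done rho U) ∧ P' = P) ∨ Stp rho P P'

/-- the infinite greedy process -/
theorem exists_seq {κ0 δ : ℝ} {rho : (κ → ℝ) → ℝ} (h3 : 3 ≤ κ0) (hδ : 0 < δ)
    (hδ' : δ ≤ dl κ κ0) {P0 : Finset (Bx κ)} (h0 : St κ0 δ rho P0) :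
    ∃ s : ℕ → Finset (Bx κ), s 0 = P0 ∧ (∀ n, St κ0 δ rho (s n)) ∧
      ∀ n, Nxt rho (s n) (s (n + 1)) := by
  classical
  have h1 : ∀ P : {P : Finset (Bx κ) // St κ0 δ rho P},
      ∃ P' : {P : Finset (Bx κ) // St κ0 δ rho P}, Nxt rho P.1 P'.1 := by
    rintro ⟨P, hP⟩
    by_cases hall : ∀ U ∈ P, Done rho U
    · exact ⟨⟨P, hP⟩, Or.inl ⟨hall, rfl⟩⟩
    · push Not at hall
      obtain ⟨P', hs, hst⟩ := exists_step h3 hδ hδ' hP hall
      exact ⟨⟨P', hst⟩, Or.inr hs⟩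
  choose f hf using h1
  let s : ℕ → {P : Finset (Bx κ) // St κ0 δ rho P} := fun n => f^[n] ⟨P0, h0⟩
  refine ⟨fun n => (s n).1, rfl, fun n => (s n).2, fun n => ?_⟩
  have h2 : s (n + 1) = f (s n) := by
    simp only [s, Function.iterate_succ_apply']
  show Nxt rho (s n).1 (s (n + 1)).1
  rw [h2]
  exact hf (s n)

section Seq

variable {κ0 δ : ℝ} {rho : (κ → ℝ) → ℝ} {s : ℕ → Finset (Bx κ)}

/-- facts about one step, in usable form -/
theorem Stp.born {P P' : Finset (Bx κ)} (h : Stp rho P P') (hst : St κ0 δ rho P)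
    (hκ : 3 ≤ κ0) {C : Bx κ} (hC : C ∈ P') (hn : C ∉ P) :
    ∃ B ∈ P, ¬ Done rho B ∧ C.Le B ∧ B.sz ≤ 3 * C.sz ∧ ∀ i, B.sz ≤ κ0 * C.side i := by
  obtain ⟨B, hB, hBD, hmax, c, hc1, hc2, hmem⟩ := h
  have hBp := hst.pos B hB
  have hs : 0 < B.sz := Bx.sz_pos hBp
  have hs' : B.sz = B.hi (ax B) - B.lo (ax B) := rfl
  have hlt1 : B.lo (ax B) < c := by linarith
  have hlt2 : c < B.hi (ax B) := by linarith
  refine ⟨B, hB, hBD, ?_⟩
  have key : ∀ b, C = child B (ax B) c b → C.Le B ∧ B.sz ≤ 3 * C.sz ∧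
      ∀ i, B.sz ≤ κ0 * C.side i := by
    rintro b rfl
    exact ⟨child_le hlt1.le hlt2.le b, sz_child_ge hc1 hc2 b,
      fun i => side_child_of hκ (hst.cmp B hB hBD B hB) hBp hc1 hc2 b i⟩
  rcases (hmem C).1 hC with h1 | h1 | h1
  · exact absurd h1.1 hn
  · exact key false h1
  · exact key true h1

theorem Nxt.done {P P' : Finset (Bx κ)} (h : Nxt rho P P') {C : Bx κ} (hC : C ∈ P)
    (hD : Done rho C) : C ∈ P' := by
  rcases h with ⟨-, rfl⟩ | ⟨B, hB, hBD, hmax, c, hc1, hc2, hmem⟩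
  · exact hC
  · rw [hmem]
    left
    refine ⟨hC, ?_⟩
    rintro rfl
    exact hBD hD

theorem Nxt.cover {P P' : Finset (Bx κ)} (h : Nxt rho P P') {x : κ → ℝ}
    (hx : ∃ B ∈ P, x ∈ B.set) : ∃ B ∈ P', x ∈ B.set := by
  rcases h with ⟨-, rfl⟩ | ⟨B, hB, hBD, hmax, c, hc1, hc2, hmem⟩
  · exact hx
  · obtain ⟨C, hC, hxC⟩ := hx
    by_cases hCB : C = B
    · subst hCB
      obtain ⟨b, hb⟩ := mem_child (i := ax C) (t := c) hxC
      cases b
      · exact ⟨_, (hmem _).2 (Or.inr (Or.inl rfl)), hb⟩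
      · exact ⟨_, (hmem _).2 (Or.inr (Or.inr rfl)), hb⟩
    · exact ⟨C, (hmem C).2 (Or.inl ⟨hC, hCB⟩), hxC⟩

variable (hst : ∀ n, St κ0 δ rho (s n)) (hnx : ∀ n, Nxt rho (s n) (s (n + 1)))

include hst hnx

theorem seq_done {n m : ℕ} (hnm : n ≤ m) {C : Bx κ} (hC : C ∈ s n) (hD : Done rho C) :
    C ∈ s m := by
  induction m, hnm using Nat.le_induction with
  | base => exact hC
  | succ m _ ih => exact (hnx m).done ih hD

theorem seq_cover {x : κ → ℝ} (hx : ∃ B ∈ s 0, x ∈ B.set) (n : ℕ) : ∃ B ∈ s n, x ∈ B.set := by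
  induction n with
  | zero => exact hx
  | succ n ih => exact (hnx n).cover ih

theorem seq_refine (hκ : 3 ≤ κ0) {n m : ℕ} (hnm : n ≤ m) {C : Bx κ} (hC : C ∈ s m) :
    C ∈ s n ∨ ∃ U ∈ s n, ¬ Done rho U ∧ C.Le U := by
  induction m, hnm using Nat.le_induction generalizing C with
  | base => exact Or.inl hC
  | succ m _ ih =>
    by_cases hCm : C ∈ s m
    · exact ih hCm
    · rcases hnx m with ⟨-, h1⟩ | h1
      · rw [h1] at hC
        exact absurd hC hCm
      · obtain ⟨B, hB, hBD, hCB, -, -⟩ := h1.born (hst m) hκ hC hCm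
        rcases ih hB with h2 | ⟨U, hU, hUD, hBU⟩
        · exact Or.inr ⟨B, h2, hBD, hCB⟩
        · exact Or.inr ⟨U, hU, hUD, hCB.trans hBU⟩

theorem seq_birth (hκ : 3 ≤ κ0) {n : ℕ} {C : Bx κ} (hC : C ∈ s n) :
    C ∈ s 0 ∨ ∃ B, B.Pos ∧ ¬ Done rho B ∧ C.Le B ∧ B.sz ≤ 3 * C.sz ∧
      ∀ i, B.sz ≤ κ0 * C.side i := by
  induction n with
  | zero => exact Or.inl hC
  | succ n ih =>
    by_cases hCm : C ∈ s n
    · exact ih hCm
    · rcases hnx n with ⟨-, h1⟩ | h1
      · rw [h1] at hC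
        exact absurd hC hCm
      · obtain ⟨B, hB, h2⟩ := h1.born (hst n) hκ hC hCm
        exact Or.inr ⟨B, (hst n).pos B hB, h2⟩

theorem seq_root (hκ : 3 ≤ κ0) {n : ℕ} {C : Bx κ} (hC : C ∈ s n) : ∃ B ∈ s 0, C.Le B := by
  rcases seq_refine hst hnx hκ (Nat.zero_le n) hC with h | ⟨U, hU, -, h⟩
  · exact ⟨C, h, Bx.Le.refl _⟩
  · exact ⟨U, hU, h⟩

/-- the unfinished boxes become small -/
theorem seq_small (hκ : 3 ≤ κ0) {ε : ℝ} (hε : 0 < ε) :
    ∃ n, ∀ U ∈ s n, ¬ Done rho U → U.sz < ε := by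
  by_contra hcon
  push Not at hcon
  have hκ0 : 0 < κ0 := by linarith
  set η : ℝ := 1 / 3 * ((ε / κ0) ^ Fintype.card κ) ^ 2 with hη
  have hη0 : 0 < η := by positivity
  have h1 : ∀ n, pot (s n) ≤ pot (s 0) - n * η := by
    intro n
    induction n with
    | zero => simp
    | succ n ih =>
      obtain ⟨U, hU, hUD, hUε⟩ := hcon n
      rcases hnx n with ⟨h2, -⟩ | h2
      · exact absurd (h2 U hU) hUD
      · have h3 := pot_step hκ0 (hst n) h2 hε.le ⟨U, hU, hUD, hUε⟩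
        push_cast
        linarith
  obtain ⟨n, hn⟩ := exists_nat_gt (pot (s 0) / η)
  rw [div_lt_iff₀ hη0] at hn
  have h2 := h1 n
  have h3 : 0 ≤ pot (s n) := Finset.sum_nonneg fun X _ => by positivity
  linarith

end Seq

/-- distance of two points of a box in the sup norm -/
theorem dist_le_sz {B : Bx κ} {x y : κ → ℝ} (hx : x ∈ B.set) (hy : y ∈ B.set) (hB : B.Pos) :
    dist x y ≤ B.sz := by
  rw [dist_pi_le_iff (Bx.sz_pos hB).le]
  intro i
  have h1 := Bx.mem_set.1 hx i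
  have h2 := Bx.mem_set.1 hy i
  have h3 := B.side_le_sz i
  have h4 : B.side i = B.hi i - B.lo i := rfl
  rw [Real.dist_eq, abs_le]
  constructor <;> linarith [h1.1, h1.2, h2.1, h2.2]

/-- the output: a graded family of boxes with the quantitative simplicity -/
structure BoxFoam (La : Set (κ → ℝ)) (F : Set (Bx κ)) (δ κ0 : ℝ) : Prop where
  countable : F.Countable
  pos : ∀ C ∈ F, C.Pos
  sub : ∀ C ∈ F, C.set ⊆ La
  cov : ∀ x ∈ La, ∃ C ∈ F, x ∈ C.set
  lf : ∀ x ∈ La, ∃ r > 0, {C | C ∈ F ∧ (C.set ∩ Metric.ball x r).Nonempty}.Finite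
  inv : INV δ F
  asp : ∀ C ∈ F, ∀ i, C.sz ≤ κ0 * C.side i

/-- **FOAM-EX.** -/
theorem exists_foam {κ0 : ℝ} (h3 : 3 ≤ κ0) {P0 : Finset (Bx κ)} {δ0 : ℝ} (hδ0 : 0 < δ0)
    (hpos : ∀ B ∈ P0, B.Pos) (hside : ∀ B ∈ P0, ∀ C ∈ P0, ∀ i, B.sz ≤ κ0 * C.side i)
    (hinv : INV δ0 (↑P0 : Set (Bx κ))) {La : Set (κ → ℝ)} {rho : (κ → ℝ) → ℝ} {L : NNReal}
    (hL : LipschitzWith L rho) (hLa : ∀ x, 0 < rho x ↔ x ∈ La)
    (hcov : ∀ x ∈ La, ∃ B ∈ P0, x ∈ B.set) :
    ∃ F : Set (Bx κ), BoxFoam La F (min (dl κ κ0) δ0) κ0 ∧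
      (∀ C ∈ F, ∀ x ∈ C.set, C.sz ≤ rho x) ∧
      (∀ C ∈ F, C ∈ P0 ∨ ∀ x ∈ C.set, rho x ≤ 3 * (1 + L) * C.sz) ∧
      (∀ C ∈ P0, (∀ x ∈ C.set, C.sz ≤ rho x) → C ∈ F) ∧
      (∀ C ∈ F, ∃ B ∈ P0, C.Le B) := by
  classical
  set δ : ℝ := min (dl κ κ0) δ0 with hδdef
  have hδ : 0 < δ := lt_min (dl_pos κ0) hδ0
  have h0 : St κ0 δ rho P0 :=
    { pos := hpos
      inv := hinv.mono subset_rfl (min_le_right _ _) (fun B hB => hpos B (by exact_mod_cast hB))
      cmp := fun U hU _ B hB i => hside U hU B hB i }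
  obtain ⟨s, hs0, hst, hnx⟩ := exists_seq h3 hδ (min_le_left _ _) h0
  have hlip : ∀ x y, rho x ≤ rho y + L * dist x y := by
    intro x y
    have h1 := hL.dist_le_mul x y
    rw [Real.dist_eq] at h1
    have := (abs_le.1 h1).2
    linarith
  have hL0 : (0 : ℝ) ≤ L := L.2
  set F : Set (Bx κ) := {C | (∃ n, C ∈ s n) ∧ Done rho C} with hF
  -- births
  have hbig : ∀ C ∈ F, C ∈ P0 ∨ ∀ x ∈ C.set, rho x ≤ 3 * (1 + L) * C.sz := by
    rintro C ⟨⟨n, hn⟩, hD⟩
    rcases seq_birth hst hnx h3 hn with h1 | ⟨B, hBp, hBD, hCB, h4, h5⟩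
    · left; rw [← hs0]; exact h1
    · right
      intro x hx
      unfold Done at hBD
      push Not at hBD
      obtain ⟨y, hy, hy'⟩ := hBD
      have h6 := hlip x y
      have h7 := dist_le_sz (hCB.subset hx) hy hBp
      have h8 : (L : ℝ) * dist x y ≤ L * B.sz := mul_le_mul_of_nonneg_left h7 hL0
      have h9 : (L : ℝ) * B.sz ≤ L * (3 * C.sz) := mul_le_mul_of_nonneg_left h4 hL0
      linarith
  have hasp : ∀ C ∈ F, ∀ i, C.sz ≤ κ0 * C.side i := by
    rintro C ⟨⟨n, hn⟩, hD⟩ i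
    rcases seq_birth hst hnx h3 hn with h1 | ⟨B, hBp, hBD, hCB, h4, h5⟩
    · rw [hs0] at h1
      exact hside C h1 C h1 i
    · exact hCB.sz_le.trans (h5 i)
  have hposF : ∀ C ∈ F, C.Pos := by
    rintro C ⟨⟨n, hn⟩, hD⟩
    exact (hst n).pos C hn
  have hsubF : ∀ C ∈ F, C.set ⊆ La := by
    intro C hC x hx
    rw [← hLa]
    exact (Bx.sz_pos (hposF C hC)).trans_le (hC.2 x hx)
  refine ⟨F, ⟨?_, hposF, hsubF, ?_, ?_, ?_, hasp⟩, fun C hC => hC.2, hbig, ?_, ?_⟩
  · -- countable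
    have h1 : F ⊆ ⋃ n, (↑(s n) : Set (Bx κ)) := by
      rintro C ⟨⟨n, hn⟩, -⟩
      exact Set.mem_iUnion.2 ⟨n, by exact_mod_cast hn⟩
    exact (Set.countable_iUnion fun n => (s n).countable_toSet).mono h1
  · -- cover
    intro x hx
    have hrx : 0 < rho x := (hLa x).2 hx
    obtain ⟨n, hn⟩ := seq_small hst hnx h3 (ε := rho x / (1 + L)) (by positivity)
    obtain ⟨B, hB, hxB⟩ := seq_cover hst hnx (x := x) (by rw [hs0]; exact hcov x hx) n
    refine ⟨B, ⟨⟨n, hB⟩, ?_⟩, hxB⟩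
    by_contra hBD
    have h1 := hn B hB hBD
    rw [lt_div_iff₀ (by positivity)] at h1
    unfold Done at hBD
    push Not at hBD
    obtain ⟨y, hy, hy'⟩ := hBD
    have h6 := hlip x y
    have h7 := dist_le_sz hxB hy ((hst n).pos B hB)
    have h8 : (L : ℝ) * dist x y ≤ L * B.sz := mul_le_mul_of_nonneg_left h7 hL0
    linarith
  · -- locally finite
    intro x hx
    have hrx : 0 < rho x := (hLa x).2 hx
    set r : ℝ := rho x / (2 * (1 + L)) with hr
    have hr0 : 0 < r := by positivity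
    set r1 : ℝ := rho x / (6 * (1 + L)) with hr1
    have hr10 : 0 < r1 := by positivity
    obtain ⟨n, hn⟩ := seq_small hst hnx h3 hr10
    refine ⟨r, hr0, ?_⟩
    refine ((P0.finite_toSet).union ((s n).finite_toSet)).subset ?_
    rintro C ⟨hC, y, hyC, hyB⟩
    rcases hbig C hC with h1 | h1
    · left; exact_mod_cast h1
    · right
      rw [Metric.mem_ball] at hyB
      have h2 := hlip x y
      rw [dist_comm] at hyB
      have h3' : (L : ℝ) * dist x y ≤ L * r := mul_le_mul_of_nonneg_left hyB.le hL0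
      have h4 : (L : ℝ) * r ≤ rho x / 2 := by
        have h5 : (2 * (1 + L)) * r = rho x := by rw [hr]; field_simp
        nlinarith
      have h5 := h1 y hyC
      have h6 : rho x / 2 ≤ 3 * (1 + L) * C.sz := by linarith
      have h7 : r1 ≤ C.sz := by
        rw [hr1, div_le_iff₀ (by positivity)]
        nlinarith
      obtain ⟨⟨m, hm⟩, hD⟩ := hC
      rcases le_total n m with hnm | hmn
      · rcases seq_refine hst hnx h3 hnm hm with h8 | ⟨U, hU, hUD, hCU⟩
        · exact_mod_cast h8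
        · exfalso
          have h9 := hn U hU hUD
          have h10 := hCU.sz_le
          linarith
      · have h8 := seq_done hst hnx hmn hm hD
        exact_mod_cast h8
  · -- the invariant
    intro A hA hne hm
    have h1 : ∃ n, ∀ C ∈ A, C ∈ s n := by
      have h2 : ∀ A' : Finset (Bx κ), (∀ C ∈ A', C ∈ F) → ∃ n, ∀ C ∈ A', C ∈ s n := by
        intro A'
        induction A' using Finset.induction_on with
        | empty => exact fun _ => ⟨0, by simp⟩
        | insert C A' _ ih =>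
          intro hA'
          obtain ⟨n, hn⟩ := ih fun C' hC' => hA' C' (Finset.mem_insert_of_mem hC')
          obtain ⟨⟨m, hm'⟩, hD⟩ := hA' C (Finset.mem_insert_self _ _)
          refine ⟨max n m, fun C' hC' => ?_⟩
          rw [Finset.mem_insert] at hC'
          rcases hC' with rfl | hC'
          · exact seq_done hst hnx (le_max_right _ _) hm' hD
          · exact seq_done hst hnx (le_max_left _ _) (hn C' hC')
              (hA' C' (Finset.mem_insert_of_mem hC')).2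
      exact h2 A fun C hC => hA (by exact_mod_cast hC)
    obtain ⟨n, hn⟩ := h1
    exact (hst n).inv A (fun C hC => by exact_mod_cast hn C (by exact_mod_cast hC)) hne hm
  · -- start boxes which are small enough
    intro C hC hD
    exact ⟨⟨0, by rw [hs0]; exact hC⟩, hD⟩
  · rintro C ⟨⟨n, hn⟩, -⟩
    have := seq_root hst hnx h3 hn
    rwa [hs0] at this

/-- one box is an admissible start -/
theorem inv_single {Q : Bx κ} (hQ : Q.Pos) {κ0 : ℝ} (hκ : 0 < κ0)
    (hs : ∀ i, Q.sz ≤ κ0 * Q.side i) : INV (1 / κ0) (↑({Q} : Finset (Bx κ)) : Set (Bx κ)) := by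
  classical
  intro A hA hne hm
  have hA' : A = {Q} := by
    refine Finset.eq_singleton_iff_nonempty_unique_mem.2 ⟨hne, fun X hX => ?_⟩
    have := hA (by exact_mod_cast hX : X ∈ (↑A : Set (Bx κ)))
    simpa using this
  subst hA'
  have hd : ∀ k, ¬ Deg ({Q} : Finset (Bx κ)) k := by
    rintro k ⟨X, hX, Y, hY, hXY⟩
    rw [Finset.mem_singleton] at hX hY
    subst hX
    subst hY
    exact absurd hXY (hQ k).ne
  refine ⟨?_, fun k _ => ⟨Q, Finset.mem_singleton_self _, fun X hX Y hY => ?_⟩⟩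
  · have : {k | Deg ({Q} : Finset (Bx κ)) k} = ∅ := by
      ext k
      simp [hd k]
    rw [this, Set.ncard_empty, Finset.card_singleton]
  · rw [Finset.mem_singleton] at hX hY
    rw [hX, hY]
    have h1 : Q.side k = Q.hi k - Q.lo k := rfl
    have h2 := hs k
    have h3 : 1 / κ0 * Q.sz ≤ Q.side k := by
      rw [one_div, inv_mul_le_iff₀ hκ]
      exact h2
    linarith

/-- **FOAM-EX for a bounded open set** (no start pattern): constants depend only on the dimension. -/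
theorem exists_foam_bounded {La : Set (κ → ℝ)} {rho : (κ → ℝ) → ℝ} {L : NNReal}
    (hL : LipschitzWith L rho) (hLa : ∀ x, 0 < rho x ↔ x ∈ La) (hb : Bornology.IsBounded La) :
    ∃ F : Set (Bx κ), BoxFoam La F (min (dl κ 3) (1 / 3)) 3 ∧
      (∀ C ∈ F, ∀ x ∈ C.set, C.sz ≤ rho x) ∧
      (∀ C ∈ F, ∀ x ∈ C.set, min (rho x) 1 ≤ 3 * (1 + L) * C.sz) := by
  classical
  obtain ⟨R, hR⟩ := hb.subset_closedBall (0 : κ → ℝ)
  set S : ℝ := max R 1 with hS
  have hS1 : 1 ≤ S := le_max_right _ _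
  let Q : Bx κ := ⟨fun _ => -S, fun _ => S⟩
  have hQ : Q.Pos := fun i => by simp only [Q]; linarith
  have hside : ∀ i, Q.side i = 2 * S := fun i => by simp only [Q, Bx.side]; ring
  have hsz : Q.sz = 2 * S := hside _
  have hsq : ∀ i, Q.sz ≤ 3 * Q.side i := by
    intro i; rw [hsz, hside]; linarith
  obtain ⟨F, h1, h2, h3, h4, h5⟩ := exists_foam (κ0 := 3) le_rfl (P0 := {Q}) (δ0 := 1 / 3)
    (by norm_num) (by simpa using hQ) (by
      intro B hB C hC i
      rw [Finset.mem_singleton] at hB hC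
      subst hB; subst hC
      exact hsq i) (inv_single hQ (by norm_num) hsq) hL hLa (by
      intro x hx
      refine ⟨Q, Finset.mem_singleton_self _, Bx.mem_set.2 fun i => ?_⟩
      have h6 := hR hx
      rw [Metric.mem_closedBall, dist_zero_right] at h6
      have h7 := norm_le_pi_norm x i
      rw [Real.norm_eq_abs] at h7
      have h8 : |x i| ≤ S := h7.trans (h6.trans (le_max_left _ _))
      exact abs_le.1 h8)
  refine ⟨F, h1, h2, fun C hC x hx => ?_⟩
  rcases h3 C hC with h6 | h6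
  · rw [Finset.mem_singleton] at h6
    subst h6
    rw [hsz]
    have h7 : (0 : ℝ) ≤ L := L.2
    refine (min_le_right _ _).trans ?_
    nlinarith
  · exact (min_le_left _ _).trans (h6 x hx)

end Crest.Agent.R096.Bsp_628
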