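/-
helper313, row 96, (R3b) of 695 #10261: volume of the cores, part 1 (in `Fin 3 → ℝ`).
-/
import Crest.Agent.R096.Bsp4_628

set_option autoImplicit false
set_option linter.unusedSectionVars false
set_option linter.style.longLine false
set_option maxSynthPendingDepth 3

open MeasureTheory Set Filter Metric
open scoped ENNReal NNReal Topology

namespace Crest.Agent.R096.Fil_313

open Crest.Agent.R096.Bsp_628

noncomputable section

abbrev E3 : Type := Fin 3 → ℝ

/-- the box homothetic to the brick `C`: ratio `lam`, translation vector `w` -/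
def bxc (C : Bx (Fin 3)) (lam : ℝ) (w : E3) : Set E3 :=
  {y | ∀ k, w k + lam * C.lo k ≤ y k ∧ y k ≤ w k + lam * C.hi k}

theorem bxc_eq (C : Bx (Fin 3)) (lam : ℝ) (w : E3) :
    bxc C lam w = Icc (fun k => w k + lam * C.lo k) (fun k => w k + lam * C.hi k) := by
  ext y
  simp only [bxc, mem_ofPred_eq, mem_Icc, Pi.le_def]
  constructor
  · intro h; exact ⟨fun k => (h k).1, fun k => (h k).2⟩
  · intro h k; exact ⟨h.1 k, h.2 k⟩

theorem volume_set {C : Bx (Fin 3)} (hC : C.Pos) :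
    volume C.set = ENNReal.ofReal (∏ k, C.side k) := by
  rw [Bx.set, Real.volume_Icc_pi, ENNReal.ofReal_prod_of_nonneg]
  · rfl
  · intro k _
    exact (Bx.side_pos hC k).le

theorem volume_bxc {C : Bx (Fin 3)} (hC : C.Pos) {lam : ℝ} (hl : 0 ≤ lam) (w : E3) :
    volume (bxc C lam w) = ENNReal.ofReal (lam ^ 3 * ∏ k, C.side k) := by
  rw [bxc_eq, Real.volume_Icc_pi]
  have h1 : ∀ k, (w k + lam * C.hi k) - (w k + lam * C.lo k) = lam * C.side k := by
    intro k; unfold Bx.side; ring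
  simp only [h1]
  rw [← ENNReal.ofReal_prod_of_nonneg]
  · rw [Finset.prod_mul_distrib]
    simp
  · intro k _
    exact mul_nonneg hl (Bx.side_pos hC k).le

theorem isClosed_bxc (C : Bx (Fin 3)) (lam : ℝ) (w : E3) : IsClosed (bxc C lam w) := by
  rw [bxc_eq]; exact isClosed_Icc

theorem volume_diff_le {C : Bx (Fin 3)} (hC : C.Pos) {lam : ℝ} (hl : 0 ≤ lam) (hl1 : lam ≤ 1)
    {w : E3} (hw : bxc C lam w ⊆ C.set) :
    volume (C.set \ bxc C lam w) ≤ ENNReal.ofReal (3 * (1 - lam)) * volume C.set := by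
  have hP : 0 ≤ ∏ k, C.side k := Finset.prod_nonneg fun k _ => (Bx.side_pos hC k).le
  rw [measure_diff hw (isClosed_bxc C lam w).measurableSet.nullMeasurableSet
    (by rw [volume_bxc hC hl]; exact ENNReal.ofReal_ne_top), volume_bxc hC hl, volume_set hC,
    ← ENNReal.ofReal_sub _ (by positivity), ← ENNReal.ofReal_mul (by linarith)]
  apply ENNReal.ofReal_le_ofReal
  have h1 : 1 - lam ^ 3 ≤ 3 * (1 - lam) := by nlinarith [sq_nonneg lam, sq_nonneg (1 - lam)]
  nlinarith

/-- volume of preimages under an affine equivalence -/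
theorem exists_scale (A : E3 ≃ᵃ[ℝ] E3) :
    ∃ D : ℝ≥0∞, D ≠ ∞ ∧ D ≠ 0 ∧ ∀ Y : Set E3, volume (A ⁻¹' Y) = D * volume Y := by
  have hdet : LinearMap.det (A.linear : E3 →ₗ[ℝ] E3) ≠ 0 := by
    have := A.linear.isUnit_det'
    exact this.ne_zero
  refine ⟨ENNReal.ofReal |(LinearMap.det (A.linear : E3 →ₗ[ℝ] E3))⁻¹|, ENNReal.ofReal_ne_top, ?_, ?_⟩
  · rw [ne_eq, ENNReal.ofReal_eq_zero, not_le]
    exact abs_pos.2 (inv_ne_zero hdet)
  · intro Y
    have h1 : A ⁻¹' Y = (A.linear : E3 →ₗ[ℝ] E3) ⁻¹' ((fun y => y + A 0) ⁻¹' Y) := by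
      ext x
      simp only [mem_preimage]
      have h2 : A x = A.linear x + A 0 := by
        have := A.map_vadd 0 x
        simpa using this
      rw [h2]
      rfl
    rw [h1, Measure.addHaar_preimage_linearMap _ hdet, measure_preimage_add_right]

theorem aedisjoint_set {C C' : Bx (Fin 3)} (h : ∃ k, C.hi k ≤ C'.lo k ∨ C'.hi k ≤ C.lo k) :
    volume (C.set ∩ C'.set) = 0 := by
  obtain ⟨k, hk⟩ := h
  have h1 : ∃ a : ℝ, C.set ∩ C'.set ⊆ {x : E3 | x k = a} := by
    rcases hk with hk | hk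
    · refine ⟨C.hi k, ?_⟩
      rintro x ⟨hx, hx'⟩
      have := (Bx.mem_set.1 hx k).2
      have := (Bx.mem_set.1 hx' k).1
      show x k = C.hi k
      linarith
    · refine ⟨C.lo k, ?_⟩
      rintro x ⟨hx, hx'⟩
      have := (Bx.mem_set.1 hx k).1
      have := (Bx.mem_set.1 hx' k).2
      show x k = C.lo k
      linarith
  obtain ⟨a, ha⟩ := h1
  refine measure_mono_null ha ?_
  have h2 : {x : E3 | x k = a} = Set.pi univ (fun j => if j = k then {a} else univ) := by
    ext x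
    simp only [mem_ofPred_eq, mem_univ_pi]
    constructor
    · intro h j
      by_cases hj : j = k
      · subst hj; simp [h]
      · simp [hj]
    · intro h
      have := h k
      simpa using this
  rw [h2, volume_pi_pi]
  apply Finset.prod_eq_zero (Finset.mem_univ k)
  simp

/-- distance of two points of a brick in the sup norm -/
theorem norm_sub_le_sz {B : Bx (Fin 3)} {x y : E3} (hx : x ∈ B.set) (hy : y ∈ B.set) (hB : B.Pos) :
    ‖x - y‖ ≤ B.sz := by
  rw [← dist_eq_norm]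
  exact dist_le_sz hx hy hB

/-- **FILL, in `Fin 3 → ℝ`.** -/
theorem fill {A : E3 ≃ᵃ[ℝ] E3} {K : ℝ} (hK : 0 ≤ K)
    (hA : ∀ y y', ‖A.symm y - A.symm y'‖ ≤ K * ‖y - y'‖) {z : E3} {s σ t lam : ℝ} (hs : 0 < s)
    (hσ : 0 ≤ σ) (ht : 0 ≤ t) (hl : 0 ≤ lam) (hl1 : lam ≤ 1) {F : Set (Bx (Fin 3))}
    (hF : F.Countable) (hpos : ∀ C ∈ F, C.Pos)
    (hdis : ∀ C ∈ F, ∀ C' ∈ F, C ≠ C' → ∃ k, C.hi k ≤ C'.lo k ∨ C'.hi k ≤ C.lo k)
    (hcov : ∀ x ∈ closedBall z s, ∃ C ∈ F, A x ∈ C.set)
    (hsz : ∀ C ∈ F, ∀ x ∈ closedBall z s, A x ∈ C.set → C.sz ≤ t) {w : Bx (Fin 3) → E3}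
    (hw : ∀ C ∈ F, bxc C lam (w C) ⊆ C.set) {T : Bx (Fin 3) → Set E3}
    (hT : ∀ C ∈ F, C.set ⊆ A '' closedBall z ((1 - 2 * σ) * s) → A ⁻¹' bxc C lam (w C) ⊆ T C) :
    volume (closedBall z s \ ⋃ C ∈ {C ∈ F | C.set ⊆ A '' closedBall z ((1 - 2 * σ) * s)}, T C) ≤
      ENNReal.ofReal ((6 * σ + 3 * K * t / s + 3 * (1 - lam)) * (2 * s) ^ 3) := by
  set r : ℝ := (1 - 2 * σ) * s - K * t with hr
  set X : Set (Bx (Fin 3)) := {C ∈ F | C.set ⊆ A '' closedBall z ((1 - 2 * σ) * s)} with hX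
  have hXF : X ⊆ F := fun C hC => hC.1
  have hXc : X.Countable := hF.mono hXF
  -- covering
  have hsub : closedBall z s \ ⋃ C ∈ X, T C ⊆
      (closedBall z s \ closedBall z r) ∪ ⋃ C ∈ X, A ⁻¹' (C.set \ bxc C lam (w C)) := by
    rintro x ⟨hx, hxT⟩
    obtain ⟨C, hC, hxC⟩ := hcov x hx
    by_cases hCX : C.set ⊆ A '' closedBall z ((1 - 2 * σ) * s)
    · right
      refine mem_biUnion (show C ∈ X from ⟨hC, hCX⟩) ?_
      refine ⟨hxC, fun hxb => hxT ?_⟩
      exact mem_biUnion (show C ∈ X from ⟨hC, hCX⟩) (hT C hC hCX hxb)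
    · left
      refine ⟨hx, fun hxr => hCX ?_⟩
      intro y hy
      refine ⟨A.symm y, ?_, A.apply_symm_apply y⟩
      have h1 : ‖y - A x‖ ≤ t := (norm_sub_le_sz hy hxC (hpos C hC)).trans (hsz C hC x hx hxC)
      have h2 := hA y (A x)
      rw [A.symm_apply_apply] at h2
      have h3 : ‖x - z‖ ≤ r := by simpa [dist_eq_norm] using hxr
      rw [mem_closedBall, dist_eq_norm]
      calc ‖A.symm y - z‖ = ‖(A.symm y - x) + (x - z)‖ := by congr 1; abel
        _ ≤ ‖A.symm y - x‖ + ‖x - z‖ := norm_add_le _ _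
        _ ≤ K * t + r := add_le_add (h2.trans (by gcongr)) h3
        _ = (1 - 2 * σ) * s := by rw [hr]; ring
  -- volumes of cubes
  have hvol : ∀ ρ : ℝ, 0 ≤ ρ → volume (closedBall z ρ) = ENNReal.ofReal ((2 * ρ) ^ 3) := by
    intro ρ hρ
    rw [Real.volume_pi_closedBall z hρ]
    simp
  have hv1 : volume (closedBall z s \ closedBall z r) ≤
      ENNReal.ofReal ((6 * σ + 3 * K * t / s) * (2 * s) ^ 3) := by
    by_cases hr0 : 0 ≤ r
    · have hrs : r ≤ s := by
        have : 0 ≤ K * t := mul_nonneg hK ht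
        nlinarith
      rw [measure_diff (closedBall_subset_closedBall hrs)
        measurableSet_closedBall.nullMeasurableSet (by rw [hvol r hr0]; exact ENNReal.ofReal_ne_top),
        hvol s hs.le, hvol r hr0, ← ENNReal.ofReal_sub _ (by positivity)]
      apply ENNReal.ofReal_le_ofReal
      have h1 : (2 * s) ^ 3 - (2 * r) ^ 3 ≤ 3 * (2 * s) ^ 2 * (2 * s - 2 * r) := by
        have h2 : (2 * s) ^ 3 - (2 * r) ^ 3 = (2 * s - 2 * r) * ((2 * s) ^ 2 + 2 * s * (2 * r) + (2 * r) ^ 2) := by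
          ring
        rw [h2]
        have h3 : (2 * s) ^ 2 + 2 * s * (2 * r) + (2 * r) ^ 2 ≤ 3 * (2 * s) ^ 2 := by nlinarith
        nlinarith
      refine h1.trans (le_of_eq ?_)
      rw [hr]
      field_simp
      ring
    · push Not at hr0
      refine (measure_mono diff_subset).trans ?_
      rw [hvol s hs.le]
      apply ENNReal.ofReal_le_ofReal
      have h1 : 1 ≤ 6 * σ + 3 * K * t / s := by
        have h2 : s < 2 * σ * s + K * t := by rw [hr] at hr0; nlinarith
        have h3 : 6 * σ + 3 * K * t / s = 3 * (2 * σ * s + K * t) / s := by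
          field_simp
          ring
        rw [h3, le_div_iff₀ hs]
        nlinarith
      nlinarith [show (0:ℝ) ≤ (2 * s) ^ 3 by positivity]
  -- volume of the layers
  obtain ⟨D, hD, hD0, hDv⟩ := exists_scale A
  have hv2 : volume (⋃ C ∈ X, A ⁻¹' (C.set \ bxc C lam (w C))) ≤
      ENNReal.ofReal (3 * (1 - lam) * (2 * s) ^ 3) := by
    calc volume (⋃ C ∈ X, A ⁻¹' (C.set \ bxc C lam (w C)))
        ≤ ∑' C : X, volume (A ⁻¹' (C.1.set \ bxc C.1 lam (w C.1))) := measure_biUnion_le _ hXc _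
      _ ≤ ∑' C : X, ENNReal.ofReal (3 * (1 - lam)) * volume (A ⁻¹' C.1.set) := by
          apply ENNReal.tsum_le_tsum
          intro C
          rw [hDv, hDv, mul_left_comm]
          gcongr
          exact volume_diff_le (hpos _ C.2.1) hl hl1 (hw _ C.2.1)
      _ = ENNReal.ofReal (3 * (1 - lam)) * ∑' C : X, volume (A ⁻¹' C.1.set) := ENNReal.tsum_mul_left
      _ = ENNReal.ofReal (3 * (1 - lam)) * volume (⋃ C ∈ X, A ⁻¹' C.set) := by
          congr 1
          rw [measure_biUnion₀ hXc]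
          · intro C hC C' hC' hne
            show volume (A ⁻¹' C.set ∩ A ⁻¹' C'.set) = 0
            rw [← preimage_inter, hDv, aedisjoint_set (hdis C hC.1 C' hC'.1 hne), mul_zero]
          · intro C hC
            have hcont : Continuous A := A.continuous_of_finiteDimensional
            exact ((isClosed_Icc (a := C.lo) (b := C.hi)).preimage hcont).measurableSet.nullMeasurableSet
      _ ≤ ENNReal.ofReal (3 * (1 - lam)) * volume (closedBall z s) := by
          gcongr
          refine iUnion₂_subset fun C hC => ?_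
          intro x hx
          obtain ⟨x', hx', he⟩ := hC.2 hx
          have : x' = x := A.injective he
          subst this
          refine closedBall_subset_closedBall ?_ hx'
          nlinarith
      _ = ENNReal.ofReal (3 * (1 - lam) * (2 * s) ^ 3) := by
          rw [hvol s hs.le, ← ENNReal.ofReal_mul (by linarith)]
  calc volume (closedBall z s \ ⋃ C ∈ X, T C)
      ≤ volume (closedBall z s \ closedBall z r) +
        volume (⋃ C ∈ X, A ⁻¹' (C.set \ bxc C lam (w C))) :=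
        (measure_mono hsub).trans (measure_union_le _ _)
    _ ≤ ENNReal.ofReal ((6 * σ + 3 * K * t / s) * (2 * s) ^ 3) +
        ENNReal.ofReal (3 * (1 - lam) * (2 * s) ^ 3) := add_le_add hv1 hv2
    _ = ENNReal.ofReal ((6 * σ + 3 * K * t / s + 3 * (1 - lam)) * (2 * s) ^ 3) := by
        rw [← ENNReal.ofReal_add (by positivity) (by
          have : 0 ≤ 1 - lam := by linarith
          positivity)]
        congr 1
        ring

/-- a perturbed affine map still has the bigger core -/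
theorem bxc_near {C : Bx (Fin 3)} {lam lam' : ℝ} {w w' : E3} {A A' : E3 → E3}
    (hlo : ∀ x, A x ∈ bxc C lam w → ∀ k, w' k + lam' * C.lo k + |A' x k - A x k| ≤ w k + lam * C.lo k)
    (hhi : ∀ x, A x ∈ bxc C lam w → ∀ k, w k + lam * C.hi k + |A' x k - A x k| ≤ w' k + lam' * C.hi k) :
    A ⁻¹' bxc C lam w ⊆ A' ⁻¹' bxc C lam' w' := by
  intro x hx k
  have h1 := hx k
  have h2 := hlo x hx k
  have h3 := hhi x hx k
  have h4 := le_abs_self (A' x k - A x k)
  have h5 := neg_abs_le (A' x k - A x k)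
  constructor <;> linarith

end

end Crest.Agent.R096.Fil_313
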