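/-
helper313, row 96, (R3b) of 695 #10261: volume of the cores, part 2 (in `R3`) and the sum over the
cells of a grid.
-/
import Crest.Agent.R096.Fil1_313
import Crest.Agent.R096.Bxs1_627
import Crest.Agent.R96.Intr12_538
import Crest.Agent.R96.Intr11_538

set_option autoImplicit false
set_option linter.unusedSectionVars false
set_option linter.style.longLine false
set_option maxSynthPendingDepth 3

open MeasureTheory Set Filter Metric
open scoped ENNReal NNReal Topology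

namespace Crest.Agent.R096.Fil_313

open Crest.AnalysisR.VecCalc3
open Crest.Agent.R096.Bsp_628 Crest.Agent.R96.En10_199
open Crest.Agent.R96.Intr_538 Crest.Agent.R96.Coarse_538

noncomputable section

theorem cel_preimage (z : R3) {s : ℝ} (hs : 0 < s) :
    P3 ⁻¹' cel Cb z s = closedBall (P3.symm z) s := by
  ext x
  rw [mem_preimage, mem_cel hs, mem_closedBall, dist_pi_le_iff hs.le]
  rfl

theorem inj_of_low {L : R3 →L[ℝ] R3} {κ : ℝ} (hκ : 0 < κ) (hL : ∀ v, κ * ‖v‖ ≤ ‖L v‖) :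
    Function.Injective L.toLinearMap := by
  rw [← LinearMap.ker_eq_bot, LinearMap.ker_eq_bot']
  intro v hv
  have h1 := hL v
  have h2 : L v = 0 := hv
  rw [h2, norm_zero] at h1
  have h3 : ‖v‖ ≤ 0 := by
    by_contra h
    push Not at h
    nlinarith
  exact norm_le_zero_iff.1 h3

/-- the linear equivalence of `L` -/
def linE (L : R3 →L[ℝ] R3) {κ : ℝ} (hκ : 0 < κ) (hL : ∀ v, κ * ‖v‖ ≤ ‖L v‖) : R3 ≃ₗ[ℝ] R3 :=
  LinearEquiv.ofInjectiveEndo L.toLinearMap (inj_of_low hκ hL)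

@[simp] theorem linE_apply (L : R3 →L[ℝ] R3) {κ : ℝ} (hκ : 0 < κ) (hL : ∀ v, κ * ‖v‖ ≤ ‖L v‖)
    (v : R3) : linE L hκ hL v = L v := rfl

/-- `x ↦ b + L (x - z)` as an affine equivalence of `R3` -/
def affR (L : R3 →L[ℝ] R3) {κ : ℝ} (hκ : 0 < κ) (hL : ∀ v, κ * ‖v‖ ≤ ‖L v‖) (z b : R3) :
    R3 ≃ᵃ[ℝ] R3 :=
  AffineEquiv.mk' (fun x => b + L (x - z)) (linE L hκ hL) z (by
    intro x
    simp only [linE_apply, vsub_eq_sub, vadd_eq_add, sub_self, map_zero, add_zero]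
    rw [add_comm])

@[simp] theorem affR_apply (L : R3 →L[ℝ] R3) {κ : ℝ} (hκ : 0 < κ) (hL : ∀ v, κ * ‖v‖ ≤ ‖L v‖)
    (z b x : R3) : affR L hκ hL z b x = b + L (x - z) := rfl

theorem affR_symm_lip (L : R3 →L[ℝ] R3) {κ : ℝ} (hκ : 0 < κ) (hL : ∀ v, κ * ‖v‖ ≤ ‖L v‖)
    (z b y y' : R3) :
    ‖(affR L hκ hL z b).symm y - (affR L hκ hL z b).symm y'‖ ≤ κ⁻¹ * ‖y - y'‖ := by
  set x := (affR L hκ hL z b).symm y with hx
  set x' := (affR L hκ hL z b).symm y' with hx'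
  have h1 : y = b + L (x - z) := by
    rw [← affR_apply L hκ hL z b x, hx, AffineEquiv.apply_symm_apply]
  have h2 : y' = b + L (x' - z) := by
    rw [← affR_apply L hκ hL z b x', hx', AffineEquiv.apply_symm_apply]
  have h3 : y - y' = L (x - x') := by
    rw [h1, h2, map_sub, map_sub, map_sub]
    abel
  rw [h3, le_inv_mul_iff₀ hκ]
  exact hL _

/-- the affine equivalence of `E3` -/
def aff3 (L : R3 →L[ℝ] R3) {κ : ℝ} (hκ : 0 < κ) (hL : ∀ v, κ * ‖v‖ ≤ ‖L v‖) (z b : R3) :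
    E3 ≃ᵃ[ℝ] E3 := Bxs_627.a3 (affR L hκ hL z b)

theorem aff3_apply (L : R3 →L[ℝ] R3) {κ : ℝ} (hκ : 0 < κ) (hL : ∀ v, κ * ‖v‖ ≤ ‖L v‖)
    (z b : R3) (x : E3) : aff3 L hκ hL z b x = P3.symm (b + L (P3 x - z)) := rfl

theorem aff3_symm_apply (L : R3 →L[ℝ] R3) {κ : ℝ} (hκ : 0 < κ) (hL : ∀ v, κ * ‖v‖ ≤ ‖L v‖)
    (z b : R3) (y : E3) :
    (aff3 L hκ hL z b).symm y = P3.symm ((affR L hκ hL z b).symm (P3 y)) := rfl

theorem aff3_symm_lip (L : R3 →L[ℝ] R3) {κ : ℝ} (hκ : 0 < κ) (hL : ∀ v, κ * ‖v‖ ≤ ‖L v‖)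
    (z b : R3) (y y' : E3) :
    ‖(aff3 L hκ hL z b).symm y - (aff3 L hκ hL z b).symm y'‖ ≤ 2 * κ⁻¹ * ‖y - y'‖ := by
  rw [aff3_symm_apply, aff3_symm_apply, ← map_sub]
  refine (Bxs_627.norm_P3_symm_le _).trans ?_
  refine (affR_symm_lip L hκ hL z b _ _).trans ?_
  rw [← map_sub]
  have h1 := Bxs_627.norm_P3_le (y - y')
  have h2 : 0 < κ⁻¹ := inv_pos.2 hκ
  nlinarith

/-- `A '' (cube)` is the parallelepiped -/
theorem aff3_image (L : R3 →L[ℝ] R3) {κ : ℝ} (hκ : 0 < κ) (hL : ∀ v, κ * ‖v‖ ≤ ‖L v‖)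
    (z b : R3) {r : ℝ} (hr : 0 < r) :
    aff3 L hκ hL z b '' closedBall (P3.symm z) r = P3 ⁻¹' par Cb L b r := by
  ext y
  rw [← cel_preimage z hr]
  constructor
  · rintro ⟨x, ⟨u, hu, hx⟩, rfl⟩
    refine ⟨u, hu, ?_⟩
    rw [aff3_apply, ContinuousLinearEquiv.apply_symm_apply]
    have h2 : P3 x = z + r • u := hx.symm
    show b + r • L u = b + L (P3 x - z)
    rw [h2, add_sub_cancel_left, map_smul]
  · rintro ⟨u, hu, hy⟩
    refine ⟨P3.symm (z + r • u), ?_, ?_⟩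
    · show P3 (P3.symm (z + r • u)) ∈ cel Cb z r
      rw [ContinuousLinearEquiv.apply_symm_apply]
      exact ⟨u, hu, rfl⟩
    · rw [aff3_apply, ContinuousLinearEquiv.apply_symm_apply, add_sub_cancel_left, map_smul]
      have h2 : b + r • L u = P3 y := hy
      rw [h2, ContinuousLinearEquiv.symm_apply_apply]

/-- **FILL, in `R3`.** -/
theorem fill3 {L : R3 →L[ℝ] R3} {κ : ℝ} (hκ : 0 < κ) (hL : ∀ v, κ * ‖v‖ ≤ ‖L v‖) {z b : R3}
    {s σ t lam : ℝ} (hs : 0 < s) (hσ : 0 ≤ σ) (hσ1 : 2 * σ < 1) (ht : 0 ≤ t) (hl : 0 ≤ lam)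
    (hl1 : lam ≤ 1) {F : Set (Bx (Fin 3))} (hF : F.Countable) (hpos : ∀ C ∈ F, C.Pos)
    (hdis : ∀ C ∈ F, ∀ C' ∈ F, C ≠ C' → ∃ k, C.hi k ≤ C'.lo k ∨ C'.hi k ≤ C.lo k)
    (hcov : ∀ y ∈ par Cb L b s, ∃ C ∈ F, P3.symm y ∈ C.set)
    (hsz : ∀ C ∈ F, ∀ y ∈ par Cb L b s, P3.symm y ∈ C.set → C.sz ≤ t) {w : Bx (Fin 3) → E3}
    (hw : ∀ C ∈ F, bxc C lam (w C) ⊆ C.set) {T : Bx (Fin 3) → Set R3}
    (hT : ∀ C ∈ F, C.set ⊆ P3 ⁻¹' par Cb L b ((1 - 2 * σ) * s) →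
      {x : R3 | P3.symm (b + L (x - z)) ∈ bxc C lam (w C)} ⊆ T C) :
    volume (cel Cb z s \ ⋃ C ∈ {C ∈ F | C.set ⊆ P3 ⁻¹' par Cb L b ((1 - 2 * σ) * s)}, T C) ≤
      ENNReal.ofReal ((6 * σ + 6 * κ⁻¹ * t / s + 3 * (1 - lam)) * (2 * s) ^ 3) := by
  have hr : 0 < (1 - 2 * σ) * s := mul_pos (by linarith) hs
  have hi := aff3_image L hκ hL z b hr
  have hκ' : 0 < κ⁻¹ := inv_pos.2 hκ
  have hmem : ∀ x ∈ closedBall (P3.symm z) s, P3 (aff3 L hκ hL z b x) ∈ par Cb L b s := by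
    intro x hx
    have : aff3 L hκ hL z b x ∈ P3 ⁻¹' par Cb L b s := by
      rw [← aff3_image L hκ hL z b hs]
      exact ⟨x, hx, rfl⟩
    exact this
  have h := fill (A := aff3 L hκ hL z b) (K := 2 * κ⁻¹) (by positivity)
    (aff3_symm_lip L hκ hL z b) (z := P3.symm z) (s := s) (σ := σ) (t := t) (lam := lam) hs hσ ht
    hl hl1 hF hpos hdis
    (by
      intro x hx
      obtain ⟨C, hC, h1⟩ := hcov _ (hmem x hx)
      rw [ContinuousLinearEquiv.symm_apply_apply] at h1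
      exact ⟨C, hC, h1⟩)
    (by
      intro C hC x hx hxC
      refine hsz C hC _ (hmem x hx) ?_
      rwa [ContinuousLinearEquiv.symm_apply_apply])
    hw (T := fun C => P3 ⁻¹' T C)
    (by
      intro C hC hsub
      rw [hi] at hsub
      intro x hx
      exact hT C hC hsub hx)
  rw [hi] at h
  have h2 : volume (cel Cb z s \ ⋃ C ∈ {C ∈ F | C.set ⊆ P3 ⁻¹' par Cb L b ((1 - 2 * σ) * s)}, T C) =
      volume (closedBall (P3.symm z) s \
        ⋃ C ∈ {C ∈ F | C.set ⊆ P3 ⁻¹' par Cb L b ((1 - 2 * σ) * s)}, P3 ⁻¹' T C) := by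
    rw [← P3_mp.measure_preimage_equiv (f := P3.toHomeomorph.toMeasurableEquiv)]
    congr 1
    rw [← cel_preimage z hs]
    ext x
    simp only [mem_preimage, mem_diff, mem_iUnion]
    rfl
  rw [h2]
  refine h.trans (le_of_eq ?_)
  congr 2
  ring

/-! ### the sum over the cells of a grid -/

theorem aedisjoint_cel {s : ℝ} (hs : 0 < s) (a : R3) {k l : Fin 3 → ℤ} (hkl : k ≠ l) :
    volume (cel Cb (vt (2 * s) a k) s ∩ cel Cb (vt (2 * s) a l) s) = 0 := by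
  obtain ⟨i, hi⟩ := Function.ne_iff.1 hkl
  have h1 : ∃ c : ℝ, cel Cb (vt (2 * s) a k) s ∩ cel Cb (vt (2 * s) a l) s ⊆ {x : R3 | x i = c} := by
    rcases lt_or_gt_of_ne hi with h | h
    · refine ⟨a i + 2 * s * k i + s, ?_⟩
      rintro x ⟨hx, hx'⟩
      have h2 := (mem_cel hs).1 hx i
      have h3 := (mem_cel hs).1 hx' i
      rw [vt_apply, abs_le] at h2 h3
      have h4 : (k i : ℝ) + 1 ≤ l i := by exact_mod_cast h
      show x i = _
      nlinarith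
    · refine ⟨a i + 2 * s * l i + s, ?_⟩
      rintro x ⟨hx, hx'⟩
      have h2 := (mem_cel hs).1 hx i
      have h3 := (mem_cel hs).1 hx' i
      rw [vt_apply, abs_le] at h2 h3
      have h4 : (l i : ℝ) + 1 ≤ k i := by exact_mod_cast h
      show x i = _
      nlinarith
  obtain ⟨c, hc⟩ := h1
  refine measure_mono_null hc ?_
  have h5 : volume (P3.toHomeomorph.toMeasurableEquiv ⁻¹' {x : R3 | x i = c}) = 0 := by
    have h6 : P3.toHomeomorph.toMeasurableEquiv ⁻¹' {x : R3 | x i = c} =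
        Set.pi univ (fun j => if j = i then {c} else univ) := by
      ext x
      simp only [mem_univ_pi]
      constructor
      · intro h j
        by_cases hj : j = i
        · subst hj
          have h7 : x j = c := h
          simp [h7]
        · simp [hj]
      · intro h
        have h7 := h i
        simp only [if_true, mem_singleton_iff] at h7
        exact h7
    rw [h6, volume_pi_pi]
    apply Finset.prod_eq_zero (Finset.mem_univ i)
    simp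
  rwa [P3_mp.measure_preimage_equiv (f := P3.toHomeomorph.toMeasurableEquiv)] at h5

theorem volume_cel (z : R3) {s : ℝ} (hs : 0 < s) :
    volume (cel Cb z s) = ENNReal.ofReal ((2 * s) ^ 3) := by
  rw [← P3_mp.measure_preimage_equiv (f := P3.toHomeomorph.toMeasurableEquiv)]
  have h1 : P3.toHomeomorph.toMeasurableEquiv ⁻¹' cel Cb z s = closedBall (P3.symm z) s :=
    cel_preimage z hs
  rw [h1, Real.volume_pi_closedBall _ hs.le]
  simp

theorem isClosed_cel (z : R3) (s : ℝ) : IsClosed (cel Cb z s) :=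
  (isCompact_cel ref_Cb.cpt z s).isClosed

/-- **SUM over the cells.** -/
theorem fill_sum {Om : Set R3} {s : ℝ} (hs : 0 < s) (a : R3) (Q : Finset (Fin 3 → ℤ))
    (hQ : ∀ k ∈ Q, cel Cb (vt (2 * s) a k) s ⊆ Om) (K : (Fin 3 → ℤ) → Set R3) {c : ℝ} (hc : 0 ≤ c)
    (h : ∀ k ∈ Q, volume (cel Cb (vt (2 * s) a k) s \ K k) ≤ ENNReal.ofReal (c * (2 * s) ^ 3)) :
    volume ((⋃ k ∈ Q, cel Cb (vt (2 * s) a k) s) \ ⋃ k ∈ Q, K k) ≤
      ENNReal.ofReal c * volume Om := by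
  have h1 : (⋃ k ∈ Q, cel Cb (vt (2 * s) a k) s) \ ⋃ k ∈ Q, K k ⊆
      ⋃ k ∈ Q, (cel Cb (vt (2 * s) a k) s \ K k) := by
    rintro x ⟨hx, hx'⟩
    simp only [mem_iUnion] at hx hx' ⊢
    obtain ⟨k, hk, hxk⟩ := hx
    exact ⟨k, hk, hxk, fun hK => hx' ⟨k, hk, hK⟩⟩
  calc volume ((⋃ k ∈ Q, cel Cb (vt (2 * s) a k) s) \ ⋃ k ∈ Q, K k)
      ≤ volume (⋃ k ∈ Q, (cel Cb (vt (2 * s) a k) s \ K k)) := measure_mono h1
    _ ≤ ∑ k ∈ Q, volume (cel Cb (vt (2 * s) a k) s \ K k) := measure_biUnion_finset_le _ _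
    _ ≤ ∑ k ∈ Q, ENNReal.ofReal c * volume (cel Cb (vt (2 * s) a k) s) := by
        apply Finset.sum_le_sum
        intro k hk
        rw [volume_cel _ hs, ← ENNReal.ofReal_mul hc]
        exact h k hk
    _ = ENNReal.ofReal c * volume (⋃ k ∈ Q, cel Cb (vt (2 * s) a k) s) := by
        rw [← Finset.mul_sum, measure_biUnion_finset₀]
        · intro k _ l _ hkl
          exact aedisjoint_cel hs a hkl
        · intro k _
          exact (isClosed_cel _ _).measurableSet.nullMeasurableSet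
    _ ≤ ENNReal.ofReal c * volume Om := by
        gcongr
        exact iUnion₂_subset hQ

end

end Crest.Agent.R096.Fil_313
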