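import Mathlib
import Crest.Prelude.Def_SobolevMap

/-!
P6-OSC part 2 (helper802): mollification of a continuous function with weak gradient,
with the L^p bound of the gradient minus a constant vector on a compact set.
-/

set_option autoImplicit false
open MeasureTheory Set Metric
open scoped ENNReal NNReal ContDiff Convolution
open Crest.AnalysisR.VecCalc3 Crest.AnalysisR.Sobolev

namespace Crest.Agent.R096.Osc_802

/-- Jensen for a weight of total mass 1, p > 1. -/
lemma lintegral_rpow_le {α : Type*} [MeasurableSpace α] (μ : Measure α) {k h : α → ℝ≥0∞}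
    (hk : Measurable k) (hh : AEMeasurable h μ) (hk1 : ∫⁻ y, k y ∂μ = 1) {p : ℝ} (hp : 1 < p) :
    (∫⁻ y, k y * h y ∂μ) ^ p ≤ ∫⁻ y, k y * h y ^ p ∂μ := by
  have hp0 : 0 < p := by linarith
  have hh' : AEMeasurable h (μ.withDensity k) := hh.mono_ac (withDensity_absolutelyContinuous μ k)
  have e1 : ∫⁻ y, k y * h y ∂μ = ∫⁻ y, h y ∂(μ.withDensity k) := by
    rw [lintegral_withDensity_eq_lintegral_mul₀ hk.aemeasurable hh]; rfl
  have e2 : ∫⁻ y, k y * h y ^ p ∂μ = ∫⁻ y, h y ^ p ∂(μ.withDensity k) := by
    rw [lintegral_withDensity_eq_lintegral_mul₀ hk.aemeasurable (hh.pow_const p)]; rfl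
  have hq : p.HolderConjugate (p / (p - 1)) := Real.HolderConjugate.conjExponent hp
  have h1 := ENNReal.lintegral_mul_le_Lp_mul_Lq (μ.withDensity k) hq
    (f := h) (g := fun _ => 1) hh' aemeasurable_const
  have hu : (μ.withDensity k) univ = 1 := by
    rw [withDensity_apply _ MeasurableSet.univ, Measure.restrict_univ, hk1]
  simp only [Pi.mul_apply, mul_one, ENNReal.one_rpow, lintegral_const, hu] at h1
  rw [e1, e2]
  calc (∫⁻ y, h y ∂(μ.withDensity k)) ^ p
      ≤ ((∫⁻ y, h y ^ p ∂(μ.withDensity k)) ^ (1 / p)) ^ p := by gcongr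
    _ = _ := by rw [← ENNReal.rpow_mul, one_div_mul_cancel hp0.ne', ENNReal.rpow_one]

lemma innerSL_ext {T : R3 →L[ℝ] ℝ} {b : R3} (h : ∀ i, T (EuclideanSpace.single i 1) = b i) :
    T = innerSL ℝ b := by
  apply ContinuousLinearMap.coe_injective
  apply (EuclideanSpace.basisFun (Fin 3) ℝ).toBasis.ext
  intro i
  have := h i
  simp [this, EuclideanSpace.inner_single_right]

theorem exists_mollify {Ω : Set R3} {v : R3 → ℝ} {G : R3 → R3}
    (hv : ContinuousOn v Ω) (hG : HasWeakGradOn Ω v G) {K L : Set R3}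
    (hKm : MeasurableSet K) (hL : IsCompact L) (hLΩ : L ⊆ Ω) (hΩ : IsOpen Ω) {δ : ℝ} (hδ : 0 < δ)
    (hKL : cthickening δ K ⊆ L) {η : ℝ} (hη : 0 < η) (a : R3) {p : ℝ} (hp : 1 < p) :
    ∃ w : R3 → ℝ, ContDiff ℝ ∞ w ∧ (∀ x ∈ K, |w x - v x| ≤ η) ∧
      ∫⁻ x in K, ‖fderiv ℝ w x - innerSL ℝ a‖ₑ ^ p ≤ ∫⁻ x in L, ‖G x - a‖ₑ ^ p := by
  classical
  obtain ⟨hvi, hGi, hweak⟩ := hG
  have hKL' : K ⊆ L := (self_subset_cthickening K).trans hKL
  -- radius
  obtain ⟨ε, hε, hεδ, hεv⟩ : ∃ ε > 0, ε ≤ δ ∧ ∀ x ∈ K, ∀ y ∈ ball x ε, |v y - v x| ≤ η := by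
    have huc := hL.uniformContinuousOn_of_continuous (hv.mono hLΩ)
    rw [Metric.uniformContinuousOn_iff] at huc
    obtain ⟨ε, hε, h⟩ := huc η hη
    refine ⟨min ε δ, lt_min hε hδ, min_le_right _ _, fun x hx y hy => ?_⟩
    have hyL : y ∈ L := hKL (mem_cthickening_of_dist_le y x δ K hx
      ((mem_ball.1 hy).le.trans (min_le_right _ _)))
    have := h y hyL x (hKL' hx) (lt_of_lt_of_le (mem_ball.1 hy) (min_le_left _ _))
    rw [Real.dist_eq] at this
    exact this.le
  let φ : ContDiffBump (0 : R3) := ⟨ε / 2, ε, by positivity, by linarith⟩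
  let ρ : R3 → ℝ := φ.normed volume
  have hρc : ContDiff ℝ ∞ ρ := φ.contDiff_normed
  have hρs : HasCompactSupport ρ := φ.hasCompactSupport_normed
  have hρ0 : ∀ x, 0 ≤ ρ x := φ.nonneg_normed
  have hρ1 : ∫ x, ρ x = 1 := φ.integral_normed
  have hρint : Integrable ρ := φ.integrable_normed
  have hρsupp : ∀ z, ε ≤ ‖z‖ → ρ z = 0 := by
    intro z hz
    have : z ∉ Function.support (φ.normed (volume : Measure R3)) := by
      rw [φ.support_normed_eq]; simpa using hz
    simpa using this
  have hρts : tsupport ρ ⊆ closedBall 0 ε := (φ.tsupport_normed_eq).subset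
  have hdρsupp : ∀ z, ε < ‖z‖ → fderiv ℝ ρ z = 0 := by
    intro z hz
    have : z ∉ tsupport ρ := fun h => by
      have := hρts h; simp at this; linarith
    exact image_eq_zero_of_notMem_tsupport (fun h => this (tsupport_fderiv_subset ℝ h))
  have hfar : ∀ x ∈ K, ∀ t, t ∉ L → ε < ‖x - t‖ := by
    intro x hx t ht
    by_contra hcon
    push Not at hcon
    exact ht (hKL (mem_cthickening_of_dist_le t x δ K hx (by
      rw [dist_comm, dist_eq_norm]; exact hcon.trans hεδ)))
  have hnear : ∀ x ∈ K, ∀ y ∈ closedBall x ε, y ∈ L := by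
    intro x hx y hy
    by_contra hcon
    have := hfar x hx y hcon
    rw [mem_closedBall, dist_comm, dist_eq_norm] at hy
    linarith
  -- truncated functions
  let v0 : R3 → ℝ := L.indicator v
  let G0 : R3 → R3 := L.indicator G
  have hLm : MeasurableSet L := hL.measurableSet
  have hv0 : Integrable v0 := by
    rw [integrable_indicator_iff hLm]
    exact (hv.mono hLΩ).integrableOn_compact hL
  have hG0 : Integrable G0 := by
    rw [integrable_indicator_iff hLm]
    exact hGi.integrableOn_compact_subset hLΩ hL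
  let w : R3 → ℝ := v0 ⋆[ContinuousLinearMap.lsmul ℝ ℝ, volume] ρ
  have hw : ContDiff ℝ ∞ w := hρs.contDiff_convolution_right _ hv0.locallyIntegrable hρc
  have hwval : ∀ x, w x = (ρ ⋆[ContinuousLinearMap.lsmul ℝ ℝ, volume] v0) x := by
    intro x
    simp only [w]
    rw [convolution_eq_swap, convolution_def]
    refine integral_congr_ae (ae_of_all _ fun t => ?_)
    simp [mul_comm]
  -- gradient of w
  have hgrad : ∀ x ∈ K, fderiv ℝ w x = innerSL ℝ (∫ y, ρ (x - y) • G0 y) := by
    intro x hx
    have h1 := hρs.hasFDerivAt_convolution_right (ContinuousLinearMap.lsmul ℝ ℝ)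
      (μ := (volume : Measure R3)) hv0.locallyIntegrable (hρc.of_le (by norm_cast)) x
    rw [h1.fderiv]
    apply innerSL_ext
    intro i
    rw [convolution_precompR_apply _ hv0.locallyIntegrable (hρs.fderiv ℝ)
      (hρc.continuous_fderiv (by simp)), convolution_def]
    have hint : Integrable fun y => ρ (x - y) • G0 y := by
      obtain ⟨C, hC⟩ := hρs.exists_bound_of_continuous hρc.continuous
      exact hG0.bdd_smul C (hρc.continuous.comp (by fun_prop :
        Continuous fun y : R3 => x - y)).aestronglyMeasurable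
        (ae_of_all _ fun y => hC (x - y))
    have e0 : (∫ y, ρ (x - y) • G0 y) i = ∫ y, ρ (x - y) * G0 y i := by
      have := (EuclideanSpace.proj (𝕜 := ℝ) i : R3 →L[ℝ] ℝ).integral_comp_comm hint
      simpa using this.symm
    rw [e0]
    -- test function
    let ψ : R3 → ℝ := fun y => ρ (x - y)
    have hψc : ContDiff ℝ ∞ ψ := hρc.comp (by fun_prop)
    have hψs : HasCompactSupport ψ := by
      have : ψ = ρ ∘ (Homeomorph.subLeft x) := rfl
      rw [this]; exact hρs.comp_homeomorph _
    have hψt : tsupport ψ ⊆ closedBall x ε := by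
      refine closure_minimal ?_ isClosed_closedBall
      intro y hy
      by_contra hcon
      rw [mem_closedBall, dist_comm, dist_eq_norm, not_le] at hcon
      exact hy (hρsupp _ hcon.le)
    have hψΩ : tsupport ψ ⊆ Ω := hψt.trans (fun y hy => hLΩ (hnear x hx y hy))
    have hkey := hweak ψ hψc hψs hψΩ i
    have hpd : ∀ y, pderiv ψ i y = - fderiv ℝ ρ (x - y) (EuclideanSpace.single i 1) := by
      intro y
      have h2 : HasFDerivAt ψ ((fderiv ℝ ρ (x - y)).comp (-ContinuousLinearMap.id ℝ R3)) y := by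
        have h3 : HasFDerivAt (fun y : R3 => x - y) (-ContinuousLinearMap.id ℝ R3) y :=
          (hasFDerivAt_id y).const_sub x
        exact ((hρc.differentiable (by simp)).differentiableAt.hasFDerivAt).comp y h3
      unfold pderiv
      rw [h2.fderiv]; simp
    have hL1 : ∫ y, v0 y * fderiv ℝ ρ (x - y) (EuclideanSpace.single i 1)
        = ∫ y in Ω, v y * fderiv ℝ ρ (x - y) (EuclideanSpace.single i 1) := by
      rw [← integral_indicator hΩ.measurableSet]
      congr 1; ext y
      by_cases hy : y ∈ L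
      · simp [v0, indicator_of_mem hy, indicator_of_mem (hLΩ hy)]
      · have := hdρsupp _ (hfar x hx y hy)
        by_cases hyΩ : y ∈ Ω
        · simp [v0, indicator_of_notMem hy, indicator_of_mem hyΩ, this]
        · simp [v0, indicator_of_notMem hy, indicator_of_notMem hyΩ]
    have hL2 : ∫ y, ρ (x - y) * G0 y i = ∫ y in Ω, G y i * ψ y := by
      rw [← integral_indicator hΩ.measurableSet]
      congr 1; ext y
      by_cases hy : y ∈ L
      · simp [G0, ψ, indicator_of_mem hy, indicator_of_mem (hLΩ hy), mul_comm]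
      · have := hρsupp _ (hfar x hx y hy).le
        by_cases hyΩ : y ∈ Ω
        · simp [G0, ψ, indicator_of_notMem hy, indicator_of_mem hyΩ, this]
        · simp [G0, ψ, indicator_of_notMem hy, indicator_of_notMem hyΩ]
    simp only [ContinuousLinearMap.lsmul_apply, smul_eq_mul]
    rw [hL1, hL2]
    have h4 : ∫ y in Ω, v y * pderiv ψ i y
        = - ∫ y in Ω, v y * fderiv ℝ ρ (x - y) (EuclideanSpace.single i 1) := by
      rw [← integral_neg]
      congr 1; ext y; rw [hpd]; ring
    rw [h4] at hkey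
    linarith
  have hρx1 : ∀ x, ∫ y, ρ (x - y) = 1 := by
    intro x; rw [integral_sub_left_eq_self (fun y => ρ y) volume x]; exact hρ1
  have hρxint : ∀ x : R3, Integrable fun y => ρ (x - y) := fun x => hρint.comp_sub_left x
  refine ⟨w, hw, ?_, ?_⟩
  · intro x hx
    rw [hwval x]
    have hx0 : v0 x = v x := indicator_of_mem (hKL' hx) _
    have := φ.dist_normed_convolution_le (μ := (volume : Measure R3)) (g := v0) (x₀ := x) (ε := η)
      hv0.aestronglyMeasurable (by
        intro y hy
        have hyL : y ∈ L := hnear x hx y (ball_subset_closedBall hy)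
        simp only [v0, indicator_of_mem hyL, indicator_of_mem (hKL' hx)]
        rw [Real.dist_eq]
        exact hεv x hx y hy)
    rw [Real.dist_eq, hx0] at this
    exact this
  · -- L^p bound
    let H : R3 → ℝ≥0∞ := L.indicator fun y => ‖G y - a‖ₑ
    have hHm : AEMeasurable H := by
      have : AEStronglyMeasurable G (volume.restrict L) :=
        (hGi.integrableOn_compact_subset hLΩ hL).aestronglyMeasurable
      exact (aemeasurable_indicator_iff hLm).2 (this.sub aestronglyMeasurable_const).enorm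
    have hkm : ∀ x : R3, Measurable fun y => ENNReal.ofReal (ρ (x - y)) := fun x =>
      (hρc.continuous.measurable.comp (measurable_const_sub x)).ennreal_ofReal
    have hk1 : ∀ x : R3, ∫⁻ y, ENNReal.ofReal (ρ (x - y)) = 1 := by
      intro x
      rw [← ofReal_integral_eq_lintegral_ofReal (hρxint x) (ae_of_all _ fun y => hρ0 _), hρx1,
        ENNReal.ofReal_one]
    have hpt : ∀ x ∈ K, ‖fderiv ℝ w x - innerSL ℝ a‖ₑ ≤
        ∫⁻ y, ENNReal.ofReal (ρ (x - y)) * H y := by
      intro x hx
      have hint : Integrable fun y => ρ (x - y) • G0 y := by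
        obtain ⟨C, hC⟩ := hρs.exists_bound_of_continuous hρc.continuous
        exact hG0.bdd_smul C (hρc.continuous.comp (by fun_prop :
          Continuous fun y : R3 => x - y)).aestronglyMeasurable
          (ae_of_all _ fun y => hC (x - y))
      have e1 : (∫ y, ρ (x - y) • G0 y) - a = ∫ y, ρ (x - y) • (G0 y - a) := by
        simp_rw [smul_sub]
        rw [integral_sub hint ((hρxint x).smul_const a), integral_smul_const, hρx1, one_smul]
      rw [hgrad x hx, ← map_sub, e1]
      have e2 : ‖innerSL ℝ (∫ y, ρ (x - y) • (G0 y - a))‖ₑ = ‖∫ y, ρ (x - y) • (G0 y - a)‖ₑ := by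
        rw [← ofReal_norm, ← ofReal_norm, innerSL_apply_norm]
      rw [e2]
      refine (enorm_integral_le_lintegral_enorm _).trans (le_of_eq ?_)
      refine lintegral_congr fun y => ?_
      rw [enorm_smul, Real.enorm_of_nonneg (hρ0 _)]
      by_cases hy : y ∈ L
      · simp [G0, H, indicator_of_mem hy]
      · simp [H, indicator_of_notMem hy, hρsupp _ (hfar x hx y hy).le]
    have hρx2 : ∀ y : R3, ∫⁻ x, ENNReal.ofReal (ρ (x - y)) = 1 := by
      intro y
      rw [lintegral_sub_right_eq_self (fun x => ENNReal.ofReal (ρ x)) y,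
        ← ofReal_integral_eq_lintegral_ofReal hρint (ae_of_all _ fun y => hρ0 _), hρ1,
        ENNReal.ofReal_one]
    calc ∫⁻ x in K, ‖fderiv ℝ w x - innerSL ℝ a‖ₑ ^ p
        ≤ ∫⁻ x in K, (∫⁻ y, ENNReal.ofReal (ρ (x - y)) * H y ^ p) := by
          refine setLIntegral_mono' hKm fun x hx => ?_
          exact (ENNReal.rpow_le_rpow (hpt x hx) (by linarith)).trans
            (lintegral_rpow_le volume (hkm x) hHm (hk1 x) hp)
      _ ≤ ∫⁻ x, ∫⁻ y, ENNReal.ofReal (ρ (x - y)) * H y ^ p := setLIntegral_le_lintegral _ _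
      _ = ∫⁻ y, ∫⁻ x, ENNReal.ofReal (ρ (x - y)) * H y ^ p := by
          rw [lintegral_lintegral_swap]
          refine AEMeasurable.mul ?_ ?_
          · exact ((hρc.continuous.comp (by fun_prop :
              Continuous fun q : R3 × R3 => q.1 - q.2)).measurable.ennreal_ofReal).aemeasurable
          · exact (hHm.pow_const p).comp_snd
      _ = ∫⁻ y, H y ^ p := by
          refine lintegral_congr fun y => ?_
          have hm : Measurable fun x => ENNReal.ofReal (ρ (x - y)) :=
            (hρc.continuous.measurable.comp (measurable_sub_const y)).ennreal_ofReal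
          rw [lintegral_mul_const _ hm, hρx2, one_mul]
      _ = ∫⁻ x in L, ‖G x - a‖ₑ ^ p := by
          rw [← lintegral_indicator hLm]
          refine lintegral_congr fun y => ?_
          by_cases hy : y ∈ L
          · simp [H, indicator_of_mem hy]
          · simp [H, indicator_of_notMem hy, ENNReal.zero_rpow_of_pos (by linarith : 0 < p)]

end Crest.Agent.R096.Osc_802
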