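import Mathlib

/-!
P6-OSC part 1 (helper802): Morrey's inequality on balls of a finite dimensional normed space
(for C^1 functions, exponent p > dim), and its two-dimensional sup-norm version (squares).
-/

set_option autoImplicit false
open MeasureTheory Set Metric
open scoped ENNReal NNReal

namespace Crest.Agent.R096.Osc_802

section Morrey
variable {E : Type*} [NormedAddCommGroup E] [NormedSpace ℝ E] [FiniteDimensional ℝ E]
  [MeasurableSpace E] [BorelSpace E] (μ : Measure E) [μ.IsAddHaarMeasure]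

lemma lintegral_contract {h : E → ℝ≥0∞} (hh : Measurable h) {c x : E} {R t : ℝ}
    (ht0 : 0 < t) (ht1 : t ≤ 1) (hx : x ∈ closedBall c R) :
    ∫⁻ y in closedBall c R, h (x + t • (y - x)) ∂μ ≤
      ENNReal.ofReal (t ^ Module.finrank ℝ E)⁻¹ * ∫⁻ z in closedBall c R, h z ∂μ := by
  have e1 : ∀ y, x + t • (y - x) = (x - t • x) + t • y := by
    intro y; rw [smul_sub]; abel
  have hm : Measurable ((closedBall c R).indicator h) := hh.indicator measurableSet_closedBall
  calc ∫⁻ y in closedBall c R, h (x + t • (y - x)) ∂μ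
      ≤ ∫⁻ y, (closedBall c R).indicator h ((x - t • x) + t • y) ∂μ := by
        rw [← lintegral_indicator measurableSet_closedBall]
        apply lintegral_mono; intro y
        by_cases hy : y ∈ closedBall c R
        · have : x + t • (y - x) ∈ closedBall c R :=
            (convex_closedBall c R).add_smul_sub_mem hx hy ⟨ht0.le, ht1⟩
          simp only [indicator_of_mem hy]
          rw [← e1, indicator_of_mem this]
        · simp [indicator_of_notMem hy]
    _ = ∫⁻ z, (closedBall c R).indicator h ((x - t • x) + z) ∂(Measure.map (t • ·) μ) := by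
        have hm2 : Measurable fun z => (closedBall c R).indicator h ((x - t • x) + z) :=
          hm.comp (measurable_const_add _)
        exact (lintegral_map hm2 (measurable_const_smul t)).symm
    _ = ENNReal.ofReal (t ^ Module.finrank ℝ E)⁻¹ *
          ∫⁻ z, (closedBall c R).indicator h ((x - t • x) + z) ∂μ := by
        rw [Measure.map_addHaar_smul μ ht0.ne', lintegral_smul_measure,
          abs_of_pos (by positivity), smul_eq_mul]
    _ = _ := by
        rw [lintegral_add_left_eq_self (μ := μ) ((closedBall c R).indicator h),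
          lintegral_indicator measurableSet_closedBall]

omit [FiniteDimensional ℝ E] [MeasurableSpace E] [BorelSpace E] in
lemma enorm_sub_le_lintegral {g : E → ℝ} (hg : ContDiff ℝ 1 g) (x y : E) :
    ‖g y - g x‖ₑ ≤ ‖y - x‖ₑ * ∫⁻ t in Ioc (0 : ℝ) 1, ‖fderiv ℝ g (x + t • (y - x))‖ₑ := by
  have hd : ∀ t : ℝ, HasDerivAt (fun t : ℝ => g (x + t • (y - x)))
      (fderiv ℝ g (x + t • (y - x)) (y - x)) t := by
    intro t
    have h1 : HasDerivAt (fun t : ℝ => x + t • (y - x)) (y - x) t := by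
      simpa using ((hasDerivAt_id t).smul_const (y - x)).const_add x
    exact ((hg.differentiable one_ne_zero).differentiableAt.hasFDerivAt).comp_hasDerivAt t h1
  have hc : Continuous fun t : ℝ => fderiv ℝ g (x + t • (y - x)) (y - x) :=
    ((hg.continuous_fderiv one_ne_zero).comp (by fun_prop)).clm_apply continuous_const
  have h2 : ∫ t in (0 : ℝ)..1, fderiv ℝ g (x + t • (y - x)) (y - x) = g y - g x := by
    rw [intervalIntegral.integral_eq_sub_of_hasDerivAt (fun t _ => hd t)
      (hc.intervalIntegrable _ _)]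
    simp
  rw [← h2, intervalIntegral.integral_of_le zero_le_one]
  refine (enorm_integral_le_lintegral_enorm _).trans ?_
  rw [← lintegral_const_mul' _ _ enorm_ne_top]
  refine lintegral_mono fun t => ?_
  rw [mul_comm]
  exact ContinuousLinearMap.le_opENorm _ _

lemma lintegral_rpow_Ioc {a : ℝ} (ha1 : a < 1) :
    ∫⁻ t in Ioc (0 : ℝ) 1, ENNReal.ofReal (t ^ (-a)) = ENNReal.ofReal (1 - a)⁻¹ := by
  rw [← ofReal_integral_eq_lintegral_ofReal]
  · rw [← intervalIntegral.integral_of_le zero_le_one, integral_rpow (Or.inl (by linarith))]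
    congr 1
    rw [Real.one_rpow, Real.zero_rpow (by linarith), sub_zero, neg_add_eq_sub, one_div]
  · have := (intervalIntegral.intervalIntegrable_rpow' (a := 0) (b := 1) (r := -a) (by linarith))
    rwa [intervalIntegrable_iff_integrableOn_Ioc_of_le zero_le_one] at this
  · filter_upwards [ae_restrict_mem measurableSet_Ioc] with t ht
    exact Real.rpow_nonneg ht.1.le _

/-- mean form of Morrey's inequality. -/
theorem morrey_mean {g : E → ℝ} (hg : ContDiff ℝ 1 g) {p : ℝ}
    (hp : (Module.finrank ℝ E : ℝ) < p) (hp1 : 1 < p) {c x : E} {R : ℝ}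
    (hx : x ∈ closedBall c R) :
    ∫⁻ y in closedBall c R, ‖g y - g x‖ₑ ∂μ ≤
      ENNReal.ofReal (2 * R * (1 - Module.finrank ℝ E / p)⁻¹) *
        (μ (closedBall c R) ^ (1 - 1 / p) *
          (∫⁻ z in closedBall c R, ‖fderiv ℝ g z‖ₑ ^ p ∂μ) ^ (1 / p)) := by
  have hp0 : 0 < p := by linarith
  set n := Module.finrank ℝ E with hn
  set B := closedBall c R with hB
  have hR : 0 ≤ R := (dist_nonneg).trans (mem_closedBall.1 hx)
  set h : E → ℝ≥0∞ := fun z => ‖fderiv ℝ g z‖ₑ with hh
  have hhc : Continuous h := (hg.continuous_fderiv one_ne_zero).enorm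
  set I := ∫⁻ z in B, h z ^ p ∂μ with hI
  have step1 : ∀ y ∈ B, ‖g y - g x‖ₑ ≤ ENNReal.ofReal (2 * R) *
      ∫⁻ t in Ioc (0 : ℝ) 1, h (x + t • (y - x)) := by
    intro y hy
    refine (enorm_sub_le_lintegral hg x y).trans ?_
    gcongr
    rw [← ofReal_norm]
    apply ENNReal.ofReal_le_ofReal
    rw [← dist_eq_norm]
    calc dist y x ≤ dist y c + dist c x := dist_triangle _ _ _
      _ ≤ R + R := add_le_add (mem_closedBall.1 hy) (by rw [dist_comm]; exact mem_closedBall.1 hx)
      _ = 2 * R := by ring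
  calc ∫⁻ y in B, ‖g y - g x‖ₑ ∂μ
      ≤ ∫⁻ y in B, (ENNReal.ofReal (2 * R) *
          (∫⁻ t in Ioc (0 : ℝ) 1, h (x + t • (y - x)))) ∂μ :=
        setLIntegral_mono' measurableSet_closedBall step1
    _ = ENNReal.ofReal (2 * R) * ∫⁻ y in B, (∫⁻ t in Ioc (0 : ℝ) 1, h (x + t • (y - x))) ∂μ :=
        lintegral_const_mul' _ _ ENNReal.ofReal_ne_top
    _ = ENNReal.ofReal (2 * R) * ∫⁻ t in Ioc (0 : ℝ) 1, (∫⁻ y in B, h (x + t • (y - x)) ∂μ) := by
        rw [lintegral_lintegral_swap]
        exact (hhc.comp (by fun_prop :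
          Continuous fun q : E × ℝ => x + q.2 • (q.1 - x))).measurable.aemeasurable
    _ ≤ ENNReal.ofReal (2 * R) * ∫⁻ t in Ioc (0 : ℝ) 1,
          ENNReal.ofReal (t ^ (-(n / p : ℝ))) * (μ B ^ (1 - 1 / p) * I ^ (1 / p)) := by
        gcongr ENNReal.ofReal (2 * R) * ?_
        refine setLIntegral_mono' measurableSet_Ioc fun t ht => ?_
        have hq : p.HolderConjugate (p / (p - 1)) :=
          Real.HolderConjugate.conjExponent hp1
        have h1 := ENNReal.lintegral_mul_le_Lp_mul_Lq (μ.restrict B) hq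
          (f := fun y => h (x + t • (y - x))) (g := fun _ => 1)
          (hhc.comp (by fun_prop)).measurable.aemeasurable aemeasurable_const
        simp only [Pi.mul_apply, mul_one, ENNReal.one_rpow, lintegral_const,
          Measure.restrict_apply MeasurableSet.univ, univ_inter, one_mul] at h1
        refine h1.trans ?_
        have h2 : ∫⁻ y in B, h (x + t • (y - x)) ^ p ∂μ ≤
            ENNReal.ofReal (t ^ n)⁻¹ * I := by
          have := lintegral_contract μ (h := fun z => h z ^ p)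
            (hhc.measurable.pow_const p) ht.1 ht.2 hx
          exact this
        have h3 : (1 / (p / (p - 1)) : ℝ) = 1 - 1 / p := by
          have : p - 1 ≠ 0 := by linarith
          field_simp
        rw [h3]
        calc (∫⁻ y in B, h (x + t • (y - x)) ^ p ∂μ) ^ (1 / p) * μ B ^ (1 - 1 / p)
            ≤ (ENNReal.ofReal (t ^ n)⁻¹ * I) ^ (1 / p) * μ B ^ (1 - 1 / p) := by
              gcongr
          _ = ENNReal.ofReal (t ^ (-(n / p : ℝ))) * (μ B ^ (1 - 1 / p) * I ^ (1 / p)) := by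
              rw [ENNReal.mul_rpow_of_nonneg _ _ (by positivity),
                ENNReal.ofReal_rpow_of_nonneg (by have := ht.1; positivity) (by positivity)]
              have : ((t ^ n)⁻¹ : ℝ) ^ (1 / p) = t ^ (-(n / p : ℝ)) := by
                rw [← Real.rpow_natCast, ← Real.rpow_neg ht.1.le, ← Real.rpow_mul ht.1.le]
                congr 1; ring
              rw [this]; ring
    _ = _ := by
        rw [lintegral_mul_const _ (by fun_prop), lintegral_rpow_Ioc (by
          rw [div_lt_one hp0]; exact hp), ← mul_assoc, ← ENNReal.ofReal_mul (by positivity)]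

/-- two point form. -/
theorem morrey_two {g : E → ℝ} (hg : ContDiff ℝ 1 g) {p : ℝ}
    (hp : (Module.finrank ℝ E : ℝ) < p) (hp1 : 1 < p) {c x y : E} {R : ℝ}
    (hx : x ∈ closedBall c R) (hy : y ∈ closedBall c R) :
    ‖g x - g y‖ₑ * μ (closedBall c R) ≤
      ENNReal.ofReal (4 * R * (1 - Module.finrank ℝ E / p)⁻¹) *
        (μ (closedBall c R) ^ (1 - 1 / p) *
          (∫⁻ z in closedBall c R, ‖fderiv ℝ g z‖ₑ ^ p ∂μ) ^ (1 / p)) := by
  have h1 := morrey_mean μ hg hp hp1 hx
  have h2 := morrey_mean μ hg hp hp1 hy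
  calc ‖g x - g y‖ₑ * μ (closedBall c R)
      = ∫⁻ z in closedBall c R, ‖g x - g y‖ₑ ∂μ := by
        rw [lintegral_const, Measure.restrict_apply MeasurableSet.univ, univ_inter]
    _ ≤ ∫⁻ z in closedBall c R, (‖g z - g x‖ₑ + ‖g z - g y‖ₑ) ∂μ := by
        refine lintegral_mono fun z => ?_
        calc ‖g x - g y‖ₑ = ‖(g z - g y) - (g z - g x)‖ₑ := by congr 1; ring
          _ ≤ ‖g z - g y‖ₑ + ‖g z - g x‖ₑ := enorm_sub_le
          _ = _ := add_comm _ _
    _ = (∫⁻ z in closedBall c R, ‖g z - g x‖ₑ ∂μ) + ∫⁻ z in closedBall c R, ‖g z - g y‖ₑ ∂μ :=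
        lintegral_add_left (by
          have := hg.continuous
          fun_prop) _
    _ ≤ _ := add_le_add h1 h2
    _ = _ := by
        rw [← two_mul, ← mul_assoc]
        congr 1
        rw [show (2 : ℝ≥0∞) = ENNReal.ofReal 2 by simp, ← ENNReal.ofReal_mul (by norm_num)]
        congr 1; ring

end Morrey

/-- the constant of Morrey's inequality on squares. -/
noncomputable def Cp (p : ℝ) : ℝ := 4 * (1 - 2 / p)⁻¹

lemma Cp_pos {p : ℝ} (hp : 2 < p) : 0 < Cp p := by
  have : 2 / p < 1 := by rw [div_lt_one (by linarith)]; exact hp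
  unfold Cp
  have : 0 < 1 - 2 / p := by linarith
  positivity

/-- **Morrey on squares**: `closedBall` of `Fin 2 → ℝ` (sup norm). -/
theorem morrey_square {g : (Fin 2 → ℝ) → ℝ} (hg : ContDiff ℝ 1 g) {p : ℝ} (hp : 2 < p)
    {c x y : Fin 2 → ℝ} {R I : ℝ} (hR : 0 < R) (hI : 0 ≤ I)
    (hx : x ∈ closedBall c R) (hy : y ∈ closedBall c R)
    (hgI : ∫⁻ z in closedBall c R, ‖fderiv ℝ g z‖ₑ ^ p ≤ ENNReal.ofReal I) :
    |g x - g y| ≤ Cp p * R ^ (1 - 2 / p) * I ^ (1 / p) := by
  have hp0 : 0 < p := by linarith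
  have hfr : Module.finrank ℝ (Fin 2 → ℝ) = 2 := by simp
  have h := morrey_two volume hg (p := p) (by rw [hfr]; exact_mod_cast hp) (by linarith) hx hy
  rw [hfr] at h
  have hvol : (volume : Measure (Fin 2 → ℝ)) (closedBall c R) = ENNReal.ofReal ((2 * R) ^ 2) := by
    rw [Real.volume_pi_closedBall _ hR.le]; simp
  rw [hvol] at h
  have h2p : 0 < 1 - 2 / p := by
    have : 2 / p < 1 := by rw [div_lt_one (by linarith)]; exact hp
    linarith
  have h3 : ‖g x - g y‖ₑ * ENNReal.ofReal ((2 * R) ^ 2) ≤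
      ENNReal.ofReal (4 * R * (1 - 2 / p)⁻¹ * (((2 * R) ^ 2) ^ (1 - 1 / p) * I ^ (1 / p))) := by
    refine h.trans ?_
    have e1 : ENNReal.ofReal (4 * R * (1 - 2 / p)⁻¹ * (((2 * R) ^ 2) ^ (1 - 1 / p) * I ^ (1 / p)))
        = ENNReal.ofReal (4 * R * (1 - 2 / p)⁻¹) *
          (ENNReal.ofReal ((2 * R) ^ 2) ^ (1 - 1 / p) * ENNReal.ofReal I ^ (1 / p)) := by
      rw [ENNReal.ofReal_mul (by positivity) (q := _ * _),
        ENNReal.ofReal_mul (by positivity) (q := I ^ (1 / p)),
        ENNReal.ofReal_rpow_of_pos (by positivity),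
        ENNReal.ofReal_rpow_of_nonneg hI (by positivity)]
    rw [e1]
    push_cast
    gcongr
  rw [← ofReal_norm, ← ENNReal.ofReal_mul (norm_nonneg _),
    ENNReal.ofReal_le_ofReal_iff (by positivity), Real.norm_eq_abs] at h3
  have h4 : ((2 * R) ^ 2 : ℝ) ^ (1 - 1 / p) = (2 * R) ^ 2 * (2 * R) ^ (-(2 / p)) := by
    rw [← Real.rpow_natCast, ← Real.rpow_mul (by positivity), ← Real.rpow_add (by positivity)]
    congr 1; push_cast; ring
  rw [h4] at h3
  have h5 : |g x - g y| ≤ 4 * R * (1 - 2 / p)⁻¹ * ((2 * R) ^ (-(2 / p)) * I ^ (1 / p)) := by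
    have hpos : 0 < (2 * R) ^ 2 := by positivity
    have : |g x - g y| * (2 * R) ^ 2 ≤
        (4 * R * (1 - 2 / p)⁻¹ * ((2 * R) ^ (-(2 / p)) * I ^ (1 / p))) * (2 * R) ^ 2 := by
      refine h3.trans (le_of_eq ?_); ring
    exact le_of_mul_le_mul_right this hpos
  refine h5.trans ?_
  have h6 : (2 * R) ^ (-(2 / p)) ≤ R ^ (-(2 / p)) :=
    Real.rpow_le_rpow_of_nonpos hR (by linarith) (by
      have : 0 < 2 / p := by positivity
      linarith)
  have h7 : R * R ^ (-(2 / p)) = R ^ (1 - 2 / p) := by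
    rw [sub_eq_add_neg, Real.rpow_add hR, Real.rpow_one]
  calc 4 * R * (1 - 2 / p)⁻¹ * ((2 * R) ^ (-(2 / p)) * I ^ (1 / p))
      ≤ 4 * R * (1 - 2 / p)⁻¹ * (R ^ (-(2 / p)) * I ^ (1 / p)) := by gcongr
    _ = Cp p * (R * R ^ (-(2 / p))) * I ^ (1 / p) := by unfold Cp; ring
    _ = _ := by rw [h7]

end Crest.Agent.R096.Osc_802
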