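import Mathlib
import Crest.Prelude.Def_SobolevMap
import Crest.Agent.R096.Osc1_802

/-!
P6-OSC part 3 (helper802): slices by coordinate planes, good planes.
-/

set_option autoImplicit false
open MeasureTheory Set Metric
open scoped ENNReal NNReal ContDiff
open Crest.AnalysisR.VecCalc3 Crest.AnalysisR.Sobolev

namespace Crest.Agent.R096.Osc_802

/-- closed cube of half side `R`. -/
def cube (c : R3) (R : ℝ) : Set R3 := {y | ∀ i, |y i - c i| ≤ R}

/-- closed box. -/
def box (a b : R3) : Set R3 := {y | ∀ i, a i ≤ y i ∧ y i ≤ b i}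

/-- the point of ℝ³ with i-th coordinate `t` and the other coordinates `w`. -/
noncomputable def ins (i : Fin 3) (t : ℝ) (w : Fin 2 → ℝ) : R3 := WithLp.toLp 2 (i.insertNth t w)

/-- the other coordinates. -/
def sl (c : R3) (i : Fin 3) : Fin 2 → ℝ := fun k => c (i.succAbove k)

lemma ins_apply_same (i : Fin 3) (t : ℝ) (w : Fin 2 → ℝ) : ins i t w i = t := by
  simp [ins]

lemma ins_apply_succAbove (i : Fin 3) (t : ℝ) (w : Fin 2 → ℝ) (k : Fin 2) :
    ins i t w (i.succAbove k) = w k := by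
  simp [ins]

lemma ins_sl (z : R3) (i : Fin 3) : ins i (z i) (sl z i) = z := by
  ext j
  refine Fin.succAboveCases i ?_ ?_ j
  · rw [ins_apply_same]
  · intro k; rw [ins_apply_succAbove]; rfl

lemma measurable_cube (c : R3) (R : ℝ) : MeasurableSet (cube c R) := by
  have : cube c R = ⋂ i, {y : R3 | |y i - c i| ≤ R} := by ext; simp [cube]
  rw [this]
  exact MeasurableSet.iInter fun i => (isClosed_le (by fun_prop) continuous_const).measurableSet

lemma isClosed_cube (c : R3) (R : ℝ) : IsClosed (cube c R) := by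
  have : cube c R = ⋂ i, {y : R3 | |y i - c i| ≤ R} := by ext; simp [cube]
  rw [this]
  exact isClosed_iInter fun i => (isClosed_le (by fun_prop) continuous_const)

lemma cube_subset_closedBall {c : R3} {R : ℝ} (hR : 0 ≤ R) : cube c R ⊆ closedBall c (2 * R) := by
  intro y hy
  rw [mem_closedBall, EuclideanSpace.dist_eq]
  refine Real.sqrt_le_iff.2 ⟨by positivity, ?_⟩
  have : ∀ i, dist (y i) (c i) ^ 2 ≤ R ^ 2 := fun i => by
    rw [Real.dist_eq]; exact pow_le_pow_left₀ (abs_nonneg _) (hy i) 2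
  calc ∑ i, dist (y i) (c i) ^ 2 ≤ ∑ i : Fin 3, R ^ 2 := Finset.sum_le_sum fun i _ => this i
    _ ≤ (2 * R) ^ 2 := by simp; nlinarith [sq_nonneg R]

lemma isCompact_cube (c : R3) {R : ℝ} (hR : 0 ≤ R) : IsCompact (cube c R) :=
  (isCompact_closedBall c (2 * R)).of_isClosed_subset (isClosed_cube c R)
    (cube_subset_closedBall hR)

lemma abs_coord_le (z : R3) (i : Fin 3) : |z i| ≤ ‖z‖ := by
  rw [← Real.norm_eq_abs]; exact PiLp.norm_apply_le z i

lemma closedBall_subset_cube (c : R3) (R : ℝ) : closedBall c R ⊆ cube c R := by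
  intro y hy i
  have := abs_coord_le (y - c) i
  rw [mem_closedBall, dist_eq_norm] at hy
  simpa using this.trans hy

lemma cthickening_cube {c : R3} {R δ : ℝ} (hR : 0 ≤ R) (hδ : 0 ≤ δ) :
    cthickening δ (cube c R) ⊆ cube c (R + δ) := by
  rw [(isCompact_cube c hR).cthickening_eq_biUnion_closedBall hδ]
  intro y hy
  simp only [mem_iUnion] at hy
  obtain ⟨x, hx, hy⟩ := hy
  intro i
  have h1 := closedBall_subset_cube x δ hy i
  have h2 := hx i
  calc |y i - c i| = |(x i - c i) + (y i - x i)| := by congr 1; ring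
    _ ≤ |x i - c i| + |y i - x i| := abs_add_le _ _
    _ ≤ R + δ := add_le_add h2 h1

lemma ins_mem_cube {c : R3} {R : ℝ} {i : Fin 3} {t : ℝ} {w : Fin 2 → ℝ} (hR : 0 ≤ R)
    (ht : |t - c i| ≤ R) (hw : w ∈ closedBall (sl c i) R) : ins i t w ∈ cube c R := by
  intro j
  refine Fin.succAboveCases i ?_ ?_ j
  · rw [ins_apply_same]; exact ht
  · intro k
    rw [ins_apply_succAbove]
    have := (dist_pi_le_iff hR).1 (mem_closedBall.1 hw) k
    rwa [Real.dist_eq] at this

lemma sl_mem {c : R3} {R : ℝ} (hR : 0 ≤ R) {z : R3} (hz : z ∈ cube c R) (i : Fin 3) :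
    sl z i ∈ closedBall (sl c i) R := by
  rw [mem_closedBall, dist_pi_le_iff hR]
  intro k
  rw [Real.dist_eq]
  exact hz _

lemma continuous_ins (i : Fin 3) : Continuous fun q : ℝ × (Fin 2 → ℝ) => ins i q.1 q.2 := by
  unfold ins
  refine (PiLp.continuous_toLp 2 _).comp ?_
  refine continuous_pi fun j => ?_
  refine Fin.succAboveCases i ?_ ?_ j
  · simpa using! continuous_fst
  · intro k; simpa using! (continuous_apply k).comp continuous_snd

/-- Fubini along the i-th coordinate. -/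
lemma lintegral_ins (i : Fin 3) {F : R3 → ℝ≥0∞} (hF : Measurable F) :
    ∫⁻ x, F x = ∫⁻ t : ℝ, ∫⁻ w : Fin 2 → ℝ, F (ins i t w) := by
  have h1 := (EuclideanSpace.volume_preserving_symm_measurableEquiv_toLp (Fin 3)).symm
  have h2 := (volume_preserving_piFinSuccAbove (fun _ : Fin 3 => ℝ) i).symm
  have e1 : ∫⁻ x : R3, F x = ∫⁻ y : Fin 3 → ℝ, F (WithLp.toLp 2 y) :=
    (h1.lintegral_comp hF).symm
  have hF' : Measurable fun y : Fin 3 → ℝ => F (WithLp.toLp 2 y) :=
    hF.comp (MeasurableEquiv.toLp 2 (Fin 3 → ℝ)).measurable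
  have e2 : ∫⁻ y : Fin 3 → ℝ, F (WithLp.toLp 2 y)
      = ∫⁻ q : ℝ × (Fin 2 → ℝ), F (ins i q.1 q.2) := by
    rw [← h2.lintegral_comp hF']
    rfl
  rw [e1, e2]
  have hm : Measurable fun q : ℝ × (Fin 2 → ℝ) => F (ins i q.1 q.2) :=
    hF.comp (continuous_ins i).measurable
  rw [Measure.volume_eq_prod, lintegral_prod _ hm.aemeasurable]

/-- good planes exist in every interval. -/
lemma exists_good_plane (i : Fin 3) {F : R3 → ℝ≥0∞} (hF : Measurable F) {c : R3} {R s t : ℝ}
    (hR : 0 ≤ R) (hst : s < t) (hs : c i - R ≤ s) (ht : t ≤ c i + R) :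
    ∃ τ ∈ Ioo s t, ∫⁻ w in closedBall (sl c i) R, F (ins i τ w) ≤
      ENNReal.ofReal (t - s)⁻¹ * ∫⁻ x in cube c R, F x := by
  have hvol : (volume : Measure ℝ) (Ioo s t) = ENNReal.ofReal (t - s) := Real.volume_Ioo
  have hpos : 0 < t - s := by linarith
  have hm2 : Measurable fun q : ℝ × (Fin 2 → ℝ) => F (ins i q.1 q.2) :=
    hF.comp (continuous_ins i).measurable
  have hm : Measurable fun τ : ℝ => ∫⁻ w in closedBall (sl c i) R, F (ins i τ w) :=
    hm2.lintegral_prod_right'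
  obtain ⟨τ, hτ, h⟩ := exists_le_setLAverage (μ := (volume : Measure ℝ)) (s := Ioo s t)
    (f := fun τ => ∫⁻ w in closedBall (sl c i) R, F (ins i τ w))
    (by rw [hvol]; simpa using hpos) (by rw [hvol]; exact ENNReal.ofReal_ne_top)
    hm.aemeasurable
  refine ⟨τ, hτ, h.trans ?_⟩
  rw [setLAverage_eq, hvol, ENNReal.div_eq_inv_mul, ← ENNReal.ofReal_inv_of_pos hpos]
  gcongr
  have hFm : Measurable ((cube c R).indicator F) := hF.indicator (measurable_cube c R)
  rw [← lintegral_indicator (measurable_cube c R), lintegral_ins i hFm,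
    ← lintegral_indicator measurableSet_Ioo]
  refine lintegral_mono fun r => ?_
  by_cases hr : r ∈ Ioo s t
  · rw [indicator_of_mem hr, ← lintegral_indicator measurableSet_closedBall]
    refine lintegral_mono fun w => ?_
    by_cases hw : w ∈ closedBall (sl c i) R
    · have : ins i r w ∈ cube c R := ins_mem_cube hR (by
        rw [abs_le]; constructor <;> linarith [hr.1, hr.2]) hw
      simp only [indicator_of_mem hw, indicator_of_mem this]; exact le_rfl
    · simp [indicator_of_notMem hw]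
  · simp [indicator_of_notMem hr]

/-- linear part of `ins`. -/
noncomputable def insL (i : Fin 3) : (Fin 2 → ℝ) →L[ℝ] R3 :=
  LinearMap.toContinuousLinearMap
    { toFun := fun w => ins i 0 w
      map_add' := by
        intro w w'; ext j
        refine Fin.succAboveCases i ?_ ?_ j
        · simp [ins_apply_same]
        · intro k; simp [ins_apply_succAbove]
      map_smul' := by
        intro r w; ext j
        refine Fin.succAboveCases i ?_ ?_ j
        · simp [ins_apply_same]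
        · intro k; simp [ins_apply_succAbove] }

lemma insL_apply (i : Fin 3) (w : Fin 2 → ℝ) : insL i w = ins i 0 w := rfl

lemma norm_insL_le (i : Fin 3) : ‖insL i‖ ≤ 2 := by
  refine ContinuousLinearMap.opNorm_le_bound _ (by norm_num) fun w => ?_
  rw [insL_apply, EuclideanSpace.norm_eq]
  refine Real.sqrt_le_iff.2 ⟨by positivity, ?_⟩
  rw [Fin.sum_univ_succAbove _ i]
  simp only [ins_apply_same, ins_apply_succAbove, norm_zero]
  have : ∀ k : Fin 2, ‖w k‖ ^ 2 ≤ ‖w‖ ^ 2 := fun k =>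
    pow_le_pow_left₀ (norm_nonneg _) (norm_le_pi_norm w k) 2
  calc (0 : ℝ) ^ 2 + ∑ k : Fin 2, ‖w k‖ ^ 2 ≤ 0 ^ 2 + ∑ k : Fin 2, ‖w‖ ^ 2 := by
        gcongr with k; exact norm_le_pi_norm w k
    _ ≤ (2 * ‖w‖) ^ 2 := by simp; nlinarith [sq_nonneg ‖w‖]

lemma ins_eq (i : Fin 3) (t : ℝ) (w : Fin 2 → ℝ) :
    ins i t w = ins i t 0 + insL i w := by
  rw [insL_apply]
  ext j
  refine Fin.succAboveCases i ?_ ?_ j
  · simp [ins_apply_same]
  · intro k; simp [ins_apply_succAbove]

/-- **good planes**: oscillation of a C^1 function on coordinate planes. -/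
theorem exists_plane {u : R3 → ℝ} (hu : ContDiff ℝ 1 u) {p : ℝ} (hp : 2 < p) {c : R3} {R I : ℝ}
    (hR : 0 < R) (hI : 0 ≤ I) (huI : ∫⁻ x in cube c R, ‖fderiv ℝ u x‖ₑ ^ p ≤ ENNReal.ofReal I)
    (i : Fin 3) {s t : ℝ} (hst : s < t) (hs : c i - R ≤ s) (ht : t ≤ c i + R) :
    ∃ τ ∈ Ioo s t, ∀ z ∈ cube c R, ∀ z' ∈ cube c R, z i = τ → z' i = τ →
      |u z - u z'| ≤ 2 * Cp p * R ^ (1 - 2 / p) * (I / (t - s)) ^ (1 / p) := by
  have hp0 : 0 < p := by linarith
  have hpos : 0 < t - s := by linarith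
  have hF : Measurable fun x => ‖fderiv ℝ u x‖ₑ ^ p :=
    ((hu.continuous_fderiv one_ne_zero).enorm.measurable).pow_const p
  obtain ⟨τ, hτ, h⟩ := exists_good_plane i hF hR.le hst hs ht
  refine ⟨τ, hτ, fun z hz z' hz' hzi hzi' => ?_⟩
  let g : (Fin 2 → ℝ) → ℝ := fun w => u (ins i τ w)
  have hins : (fun w => ins i τ w) = fun w => ins i τ 0 + insL i w := by
    ext1 w; exact ins_eq i τ w
  have hinsD : ∀ w, HasFDerivAt (fun w => ins i τ w) (insL i) w := by
    intro w; rw [hins]; exact (insL i).hasFDerivAt.const_add _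
  have hg : ContDiff ℝ 1 g := by
    have h1 : ContDiff ℝ 1 (fun w => ins i τ w) := by
      rw [hins]; exact contDiff_const.add (insL i).contDiff
    exact hu.comp h1
  have hgd : ∀ w, fderiv ℝ g w = (fderiv ℝ u (ins i τ w)).comp (insL i) := fun w =>
    (((hu.differentiable one_ne_zero).differentiableAt.hasFDerivAt).comp w (hinsD w)).fderiv
  have hgn : ∀ w, ‖fderiv ℝ g w‖ₑ ≤ 2 * ‖fderiv ℝ u (ins i τ w)‖ₑ := by
    intro w
    have h2 : ‖fderiv ℝ g w‖ ≤ 2 * ‖fderiv ℝ u (ins i τ w)‖ := by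
      rw [hgd]
      calc _ ≤ ‖fderiv ℝ u (ins i τ w)‖ * ‖insL i‖ := ContinuousLinearMap.opNorm_comp_le _ _
        _ ≤ ‖fderiv ℝ u (ins i τ w)‖ * 2 := by gcongr; exact norm_insL_le i
        _ = _ := mul_comm _ _
    calc ‖fderiv ℝ g w‖ₑ = ENNReal.ofReal ‖fderiv ℝ g w‖ := (ofReal_norm _).symm
      _ ≤ ENNReal.ofReal (2 * ‖fderiv ℝ u (ins i τ w)‖) := ENNReal.ofReal_le_ofReal h2
      _ = _ := by rw [ENNReal.ofReal_mul (by norm_num), ofReal_norm]; simp
  have hgI : ∫⁻ w in closedBall (sl c i) R, ‖fderiv ℝ g w‖ₑ ^ p ≤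
      ENNReal.ofReal (2 ^ p * (I / (t - s))) := by
    calc ∫⁻ w in closedBall (sl c i) R, ‖fderiv ℝ g w‖ₑ ^ p
        ≤ ∫⁻ w in closedBall (sl c i) R, (2 : ℝ≥0∞) ^ p * ‖fderiv ℝ u (ins i τ w)‖ₑ ^ p := by
          refine lintegral_mono fun w => ?_
          rw [← ENNReal.mul_rpow_of_nonneg _ _ hp0.le]
          exact ENNReal.rpow_le_rpow (hgn w) hp0.le
      _ = (2 : ℝ≥0∞) ^ p * ∫⁻ w in closedBall (sl c i) R, ‖fderiv ℝ u (ins i τ w)‖ₑ ^ p := by
          rw [lintegral_const_mul' _ _ (ENNReal.rpow_ne_top_of_nonneg hp0.le (by simp))]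
      _ ≤ (2 : ℝ≥0∞) ^ p * (ENNReal.ofReal (t - s)⁻¹ * ENNReal.ofReal I) := by
          gcongr; exact h.trans (by gcongr)
      _ = _ := by
          rw [show (2 : ℝ≥0∞) = ENNReal.ofReal 2 by simp, ENNReal.ofReal_rpow_of_pos (by norm_num),
            ← ENNReal.ofReal_mul (by positivity), ← ENNReal.ofReal_mul (by positivity)]
          congr 1; rw [div_eq_inv_mul]
  have hfin := morrey_square hg hp hR (by positivity) (sl_mem hR.le hz i) (sl_mem hR.le hz' i) hgI
  have e1 : g (sl z i) = u z := by simp only [g]; rw [← hzi, ins_sl]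
  have e2 : g (sl z' i) = u z' := by simp only [g]; rw [← hzi', ins_sl]
  rw [e1, e2] at hfin
  refine hfin.trans (le_of_eq ?_)
  have hq : 0 ≤ I / (t - s) := by positivity
  rw [Real.mul_rpow (by positivity) hq, ← Real.rpow_mul (by norm_num), mul_one_div_cancel hp0.ne',
    Real.rpow_one]
  ring

end Crest.Agent.R096.Osc_802
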