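import Mathlib
import Crest.Prelude.Def_SobolevMap
import Crest.Agent.R096.Osc2_802
import Crest.Agent.R096.Osc3_802

/-!
P6-OSC part 4 (helper802): box-monotone functions (coordinates of homeomorphisms), the
oscillation estimate relative to an affine function, for p > 2.
-/

set_option autoImplicit false
open MeasureTheory Set Metric
open scoped ENNReal NNReal ContDiff RealInnerProductSpace
open Crest.AnalysisR.VecCalc3 Crest.AnalysisR.Sobolev

namespace Crest.Agent.R096.Osc_802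

/-- `v` is monotone in the sense of Lebesgue on boxes inside `Ω`: on every closed box, every value
is between two values on the boundary. -/
def BoxMono (v : R3 → ℝ) (Ω : Set R3) : Prop :=
  ∀ a b : R3, box a b ⊆ Ω → ∀ y ∈ box a b,
    (∃ z ∈ box a b, (∃ i, z i = a i ∨ z i = b i) ∧ v y ≤ v z) ∧
    (∃ z ∈ box a b, (∃ i, z i = a i ∨ z i = b i) ∧ v z ≤ v y)

lemma isCompact_box (a b : R3) : IsCompact (box a b) := by
  have hc : IsClosed (box a b) := by
    have : box a b = ⋂ i, {y : R3 | a i ≤ y i ∧ y i ≤ b i} := by ext; simp [box]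
    rw [this]
    refine isClosed_iInter fun i => ?_
    have : {y : R3 | a i ≤ y i ∧ y i ≤ b i} = {y : R3 | a i ≤ y i} ∩ {y : R3 | y i ≤ b i} := rfl
    rw [this]
    exact (isClosed_le continuous_const (by fun_prop)).inter
      (isClosed_le (by fun_prop) continuous_const)
  refine (isCompact_cube a (R := ∑ i, |b i - a i|) (by positivity)).of_isClosed_subset hc ?_
  intro y hy i
  have h1 : |y i - a i| ≤ |b i - a i| := by
    rw [abs_of_nonneg (by linarith [(hy i).1]), abs_of_nonneg (by linarith [(hy i).1, (hy i).2])]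
    linarith [(hy i).2]
  exact h1.trans (Finset.single_le_sum (f := fun i => |b i - a i|) (fun j _ => abs_nonneg _)
    (Finset.mem_univ i))

lemma isOpen_openBox (a b : R3) : IsOpen {y : R3 | ∀ i, a i < y i ∧ y i < b i} := by
  have : {y : R3 | ∀ i, a i < y i ∧ y i < b i} = ⋂ i, {y : R3 | a i < y i ∧ y i < b i} := by
    ext; simp
  rw [this]
  refine isOpen_iInter_of_finite fun i => ?_
  have : {y : R3 | a i < y i ∧ y i < b i} = {y : R3 | a i < y i} ∩ {y : R3 | y i < b i} := rfl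
  rw [this]
  exact (isOpen_lt continuous_const (by fun_prop)).inter
    (isOpen_lt (by fun_prop) continuous_const)

/-- image of an open subset under a homeomorphism between open sets is open. -/
lemma isOpen_image {f : R3 → R3} {Ω Λ : Set R3} (hf : IsHomeomorphOn f Ω Λ) (hΛ : IsOpen Λ)
    {U : Set R3} (hU : IsOpen U) (hUΩ : U ⊆ Ω) : IsOpen (f '' U) := by
  obtain ⟨g, hfm, hgm, hgf, hfg, hfc, hgc⟩ := hf
  have : f '' U = Λ ∩ g ⁻¹' U := by
    ext y; constructor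
    · rintro ⟨x, hx, rfl⟩
      exact ⟨hfm (hUΩ hx), by rw [mem_preimage, hgf x (hUΩ hx)]; exact hx⟩
    · rintro ⟨hy, hyU⟩
      exact ⟨g y, hyU, hfg y hy⟩
  rw [this]
  exact hgc.isOpen_inter_preimage hΛ hU

/-- linear functionals of homeomorphisms are box-monotone. -/
theorem boxMono_of_homeo {f : R3 → R3} {Ω Λ : Set R3} (hf : IsHomeomorphOn f Ω Λ)
    (hΛ : IsOpen Λ) {ℓ : R3 →L[ℝ] ℝ} (hℓ : ℓ ≠ 0) : BoxMono (fun x => ℓ (f x)) Ω := by
  have hfc : ContinuousOn f Ω := by obtain ⟨g, _, _, _, _, h, _⟩ := hf; exact h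
  have hopen : IsOpenMap ℓ := ℓ.isOpenMap_of_ne_zero hℓ
  intro a b hab y hy
  have hcomp := isCompact_box a b
  have hcont : ContinuousOn (fun x => ℓ (f x)) (box a b) :=
    ℓ.continuous.comp_continuousOn (hfc.mono hab)
  -- an extremum in the open box contradicts openness
  have key : ∀ z ∈ box a b, ¬ (∃ i, z i = a i ∨ z i = b i) →
      ∃ ε > 0, Ioo (ℓ (f z) - ε) (ℓ (f z) + ε) ⊆ (fun x => ℓ (f x)) '' box a b := by
    intro z hz hzb
    push Not at hzb
    have hzo : z ∈ {y : R3 | ∀ i, a i < y i ∧ y i < b i} := fun i =>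
      ⟨lt_of_le_of_ne (hz i).1 (fun h => (hzb i).1 h.symm),
        lt_of_le_of_ne (hz i).2 (fun h => (hzb i).2 h)⟩
    have hsub : {y : R3 | ∀ i, a i < y i ∧ y i < b i} ⊆ box a b := fun x hx i =>
      ⟨(hx i).1.le, (hx i).2.le⟩
    have ho := hopen _ (isOpen_image hf hΛ (isOpen_openBox a b) (hsub.trans hab))
    rw [Metric.isOpen_iff] at ho
    obtain ⟨ε, hε, h⟩ := ho (ℓ (f z)) ⟨f z, ⟨z, hzo, rfl⟩, rfl⟩
    refine ⟨ε, hε, ?_⟩
    rw [← Real.ball_eq_Ioo]
    refine h.trans ?_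
    rintro _ ⟨_, ⟨x, hx, rfl⟩, rfl⟩
    exact ⟨x, hsub hx, rfl⟩
  constructor
  · obtain ⟨z, hz, hmax⟩ := hcomp.exists_isMaxOn ⟨y, hy⟩ hcont
    refine ⟨z, hz, ?_, hmax hy⟩
    by_contra hcon
    obtain ⟨ε, hε, h⟩ := key z hz hcon
    obtain ⟨x, hx, hxe⟩ := h (⟨by linarith, by linarith⟩ :
      ℓ (f z) + ε / 2 ∈ Ioo (ℓ (f z) - ε) (ℓ (f z) + ε))
    have : ℓ (f x) ≤ ℓ (f z) := hmax hx
    simp only at hxe
    linarith
  · obtain ⟨z, hz, hmin⟩ := hcomp.exists_isMinOn ⟨y, hy⟩ hcont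
    refine ⟨z, hz, ?_, hmin hy⟩
    by_contra hcon
    obtain ⟨ε, hε, h⟩ := key z hz hcon
    obtain ⟨x, hx, hxe⟩ := h (⟨by linarith, by linarith⟩ :
      ℓ (f z) - ε / 2 ∈ Ioo (ℓ (f z) - ε) (ℓ (f z) + ε))
    have : ℓ (f z) ≤ ℓ (f x) := hmin hx
    simp only at hxe
    linarith

lemma boxMono_coord {f : R3 → R3} {Ω Λ : Set R3} (hf : IsHomeomorphOn f Ω Λ)
    (hΛ : IsOpen Λ) (j : Fin 3) : BoxMono (fun x => f x j) Ω := by
  have : (EuclideanSpace.proj j : R3 →L[ℝ] ℝ) ≠ 0 := by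
    intro h
    have := congrArg (fun T : R3 →L[ℝ] ℝ => T (EuclideanSpace.single j 1)) h
    simp at this
  exact boxMono_of_homeo hf hΛ this

/-- core estimate on good planes (one mollified function). -/
lemma osc_core {v u : R3 → ℝ} {Ω : Set R3} (hm : BoxMono v Ω) {c : R3} {R θ D η : ℝ}
    (hR : 0 < R) (hθ : 0 < θ) (hθ1 : θ ≤ 1) (hKΩ : cube c (3 / 2 * R) ⊆ Ω) (a : R3)
    (hη : ∀ x ∈ cube c (3 / 2 * R), |v x - ⟪a, x⟫ - u x| ≤ η)
    (hD : ∀ i : Fin 3, ∀ s t : ℝ, t = s + θ * R / 2 → c i - 3 / 2 * R ≤ s → t ≤ c i + 3 / 2 * R →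
      ∃ τ ∈ Ioo s t, ∀ z ∈ cube c (3 / 2 * R), ∀ z' ∈ cube c (3 / 2 * R), z i = τ → z' i = τ →
        |u z - u z'| ≤ D) :
    ∀ y ∈ cube c R, ∀ y' ∈ cube c R,
      |(v y - ⟪a, y⟫) - (v y' - ⟪a, y'⟫)| ≤ 6 * D + 2 * (θ * R * ‖a‖) + 2 * η := by
  have hθR : 0 < θ * R := by positivity
  have hθR2 : θ * R ≤ R := by nlinarith
  -- reference planes
  obtain ⟨t0, ht0, h0⟩ := hD 0 (c 0) (c 0 + θ * R / 2) rfl (by linarith) (by linarith)
  obtain ⟨t1, ht1, h1⟩ := hD 1 (c 1) (c 1 + θ * R / 2) rfl (by linarith) (by linarith)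
  -- points
  let P : ℝ → ℝ → ℝ → R3 := fun x y z => WithLp.toLp 2 ![x, y, z]
  have hP0 : ∀ x y z, P x y z 0 = x := fun _ _ _ => rfl
  have hP1 : ∀ x y z, P x y z 1 = y := fun _ _ _ => rfl
  have hP2 : ∀ x y z, P x y z 2 = z := fun _ _ _ => rfl
  have hPm : ∀ x y z, |x - c 0| ≤ 3 / 2 * R → |y - c 1| ≤ 3 / 2 * R → |z - c 2| ≤ 3 / 2 * R →
      P x y z ∈ cube c (3 / 2 * R) := by
    intro x y z hx hy hz i
    fin_cases i
    · exact hx
    · exact hy
    · exact hz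
  have ha0 : |t0 - c 0| ≤ 3 / 2 * R := by rw [abs_le]; constructor <;> linarith [ht0.1, ht0.2]
  have ha1 : |t1 - c 1| ≤ 3 / 2 * R := by rw [abs_le]; constructor <;> linarith [ht1.1, ht1.2]
  have hcc : ∀ i, |c i - c i| ≤ 3 / 2 * R := fun i => by simp; positivity
  set z0 := P t0 (c 1) (c 2) with hz0
  have hz0m : z0 ∈ cube c (3 / 2 * R) := hPm _ _ _ ha0 (hcc 1) (hcc 2)
  have hD0 : 0 ≤ D := (abs_nonneg _).trans (h0 z0 hz0m z0 hz0m rfl rfl)
  -- comparison of a good plane with the reference point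
  have hcomp : ∀ i : Fin 3, ∀ τ : ℝ, (∀ z ∈ cube c (3 / 2 * R), ∀ z' ∈ cube c (3 / 2 * R),
      z i = τ → z' i = τ → |u z - u z'| ≤ D) → ∀ z ∈ cube c (3 / 2 * R), z i = τ →
      |u z - u z0| ≤ 3 * D := by
    intro i τ hτ z hz hzi
    have hzb : ∀ j, |z j - c j| ≤ 3 / 2 * R := hz
    fin_cases i
    · -- direction 0 : z → (τ, t1, c2) → (t0, t1, c2) → z0
      simp only [Fin.zero_eta] at hτ hzi
      have hq : P τ t1 (c 2) ∈ cube c (3 / 2 * R) := hPm _ _ _ (by rw [← hzi]; exact hzb 0) ha1 (hcc 2)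
      have hq' : P t0 t1 (c 2) ∈ cube c (3 / 2 * R) := hPm _ _ _ ha0 ha1 (hcc 2)
      have e1 := hτ z hz _ hq hzi (hP0 _ _ _)
      have e2 := h1 _ hq _ hq' (hP1 _ _ _) (hP1 _ _ _)
      have e3 := h0 _ hq' _ hz0m (hP0 _ _ _) (hP0 _ _ _)
      rw [abs_le] at *
      constructor <;> linarith [e1.1, e1.2, e2.1, e2.2, e3.1, e3.2]
    · simp only [Fin.mk_one] at hτ hzi
      have hq : P t0 τ (c 2) ∈ cube c (3 / 2 * R) := hPm _ _ _ ha0 (by rw [← hzi]; exact hzb 1) (hcc 2)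
      have e1 := hτ z hz _ hq hzi (hP1 _ _ _)
      have e3 := h0 _ hq _ hz0m (hP0 _ _ _) (hP0 _ _ _)
      rw [abs_le] at *
      constructor <;> linarith [e1.1, e1.2, e3.1, e3.2]
    · have hzi' : z 2 = τ := hzi
      have hτ' : ∀ z ∈ cube c (3 / 2 * R), ∀ z' ∈ cube c (3 / 2 * R),
        z 2 = τ → z' 2 = τ → |u z - u z'| ≤ D := hτ
      have hq : P t0 (c 1) τ ∈ cube c (3 / 2 * R) :=
        hPm _ _ _ ha0 (hcc 1) (by rw [← hzi']; exact hzb 2)
      have e1 := hτ' z hz _ hq hzi' (hP2 _ _ _)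
      have e3 := h0 _ hq _ hz0m (hP0 _ _ _) (hP0 _ _ _)
      rw [abs_le] at *
      constructor <;> linarith [e1.1, e1.2, e3.1, e3.2]
  -- one point
  have hpt : ∀ y ∈ cube c R, |(v y - ⟪a, y⟫) - u z0| ≤ 3 * D + θ * R * ‖a‖ + η := by
    intro y hy
    have hy' : ∀ i, c i - R ≤ y i ∧ y i ≤ c i + R := fun i => by
      have := abs_le.1 (hy i); constructor <;> linarith [this.1, this.2]
    have hlo : ∀ i : Fin 3, ∃ τ ∈ Ioo (y i - θ * R / 2) (y i),
        ∀ z ∈ cube c (3 / 2 * R), ∀ z' ∈ cube c (3 / 2 * R), z i = τ → z' i = τ →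
        |u z - u z'| ≤ D := fun i => hD i _ _ (by ring) (by linarith [(hy' i).1]) (by
          linarith [(hy' i).2])
    have hhi : ∀ i : Fin 3, ∃ τ ∈ Ioo (y i) (y i + θ * R / 2),
        ∀ z ∈ cube c (3 / 2 * R), ∀ z' ∈ cube c (3 / 2 * R), z i = τ → z' i = τ →
        |u z - u z'| ≤ D := fun i => hD i _ _ rfl (by linarith [(hy' i).1]) (by
          linarith [(hy' i).2])
    choose lo hlo1 hlo2 using hlo
    choose hi hhi1 hhi2 using hhi
    have hboxK : box (WithLp.toLp 2 lo) (WithLp.toLp 2 hi) ⊆ cube c (3 / 2 * R) := by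
      intro z hz i
      have := hz i
      simp only at this
      rw [abs_le]
      constructor <;> linarith [(hlo1 i).1, (hhi1 i).2, (hy' i).1, (hy' i).2, this.1, this.2]
    have hyb : y ∈ box (WithLp.toLp 2 lo) (WithLp.toLp 2 hi) := fun i =>
      ⟨(hlo1 i).2.le, (hhi1 i).1.le⟩
    -- every boundary point of the box
    have hbd : ∀ z ∈ box (WithLp.toLp 2 lo) (WithLp.toLp 2 hi),
        (∃ i, z i = (WithLp.toLp 2 lo : R3) i ∨ z i = (WithLp.toLp 2 hi : R3) i) →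
        |(v z - ⟪a, y⟫) - u z0| ≤ 3 * D + θ * R * ‖a‖ + η := by
      intro z hz hzb
      have hzK := hboxK hz
      have h3 : |u z - u z0| ≤ 3 * D := by
        obtain ⟨i, hi' | hi'⟩ := hzb
        · exact hcomp i (lo i) (hlo2 i) z hzK hi'
        · exact hcomp i (hi i) (hhi2 i) z hzK hi'
      have h4 := hη z hzK
      have h5 : |⟪a, z⟫ - ⟪a, y⟫| ≤ θ * R * ‖a‖ := by
        rw [← inner_sub_right]
        refine (abs_real_inner_le_norm _ _).trans ?_
        rw [mul_comm]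
        gcongr
        rw [EuclideanSpace.norm_eq]
        refine Real.sqrt_le_iff.2 ⟨hθR.le, ?_⟩
        have : ∀ i, ‖(z - y) i‖ ^ 2 ≤ (θ * R / 2) ^ 2 := by
          intro i
          refine pow_le_pow_left₀ (norm_nonneg _) ?_ 2
          have h6 := hz i
          simp only at h6
          rw [Real.norm_eq_abs, PiLp.sub_apply, abs_le]
          constructor <;> linarith [(hlo1 i).1, (hhi1 i).2, h6.1, h6.2]
        calc ∑ i, ‖(z - y) i‖ ^ 2 ≤ ∑ i : Fin 3, (θ * R / 2) ^ 2 :=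
              Finset.sum_le_sum fun i _ => this i
          _ ≤ (θ * R) ^ 2 := by simp; nlinarith [sq_nonneg (θ * R)]
      rw [abs_le] at *
      constructor <;> linarith [h3.1, h3.2, h4.1, h4.2, h5.1, h5.2]
    obtain ⟨⟨z, hz, hzb, hvz⟩, ⟨z', hz', hzb', hvz'⟩⟩ := hm _ _ (hboxK.trans hKΩ) y hyb
    have e1 := hbd z hz hzb
    have e2 := hbd z' hz' hzb'
    rw [abs_le] at *
    constructor <;> linarith [e1.1, e1.2, e2.1, e2.2]
  intro y hy y' hy'
  have e1 := hpt y hy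
  have e2 := hpt y' hy'
  rw [abs_le] at *
  constructor <;> linarith [e1.1, e1.2, e2.1, e2.2]

end Crest.Agent.R096.Osc_802
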