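/-
helper313, row 96, (R3c): exact bricks over good cubes: no intruders, uniqueness of the cube,
finiteness, `Cori` (627) for the bricks in the image of a good cube.
-/
import Crest.Agent.R096.Fil2_313
import Crest.Agent.R096.Bxs5_627
import Crest.Agent.R096.Core2_124
import Crest.Agent.R096.Osc4_802

set_option autoImplicit false
set_option linter.unusedSectionVars false
set_option linter.style.longLine false
set_option maxSynthPendingDepth 3

open MeasureTheory Set Filter Metric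
open scoped ENNReal NNReal Topology

namespace Crest.Agent.R096.Fil_313

open Crest.AnalysisR.VecCalc3 Crest.AnalysisR.Sobolev
open Crest.Agent.R096.Bsp_628 Crest.Agent.R96.En10_199
open Crest.Agent.R96.Intr_538 Crest.Agent.R96.Coarse_538
open Crest.Agent.R096.Bxs_627 (Cori m3 ctr)

noncomputable section

/-- a brick lies in finitely many .. : local finiteness over compact sets -/
theorem foam_fin {La : Set E3} {F : Set (Bx (Fin 3))} {δ κ0 : ℝ} (BF : BoxFoam La F δ κ0)
    {K : Set E3} (hK : IsCompact K) (hKL : K ⊆ La) :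
    {C | C ∈ F ∧ (C.set ∩ K).Nonempty}.Finite := by
  choose! r hr hfin using BF.lf
  obtain ⟨t, htK, hcov⟩ := hK.elim_nhds_subcover (fun x => ball x (r x))
    (fun x hx => ball_mem_nhds x (hr x (hKL hx)))
  refine (t.finite_toSet.biUnion fun x hx => hfin x (hKL (htK x hx))).subset ?_
  rintro C ⟨hC, y, hyC, hyK⟩
  obtain ⟨x, hx, hy⟩ := mem_iUnion₂.1 (hcov hyK)
  exact mem_biUnion (show x ∈ (t : Set E3) from hx) ⟨hC, y, hyC, hy⟩

/-- `f` is `η s`-close to `A x = b + L (x - z)` on the cube with half side `(1 - σ) s`, `A` expands by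
`κ` at least, `η < κ σ`. -/
structure Nr (Om : Set R3) (f : R3 → R3) (κ η σ s : ℝ) (z b : R3) (L : R3 →L[ℝ] R3) : Prop where
  κ0 : 0 < κ
  s0 : 0 < s
  σ0 : 0 < σ
  σ1 : 4 * σ ≤ 1
  ησ : η < κ * σ
  low : ∀ v, κ * ‖v‖ ≤ ‖L v‖
  sub : cel Cb z ((1 - σ) * s) ⊆ Om
  c0 : ∀ x ∈ cel Cb z ((1 - σ) * s), ‖f x - (b + L (x - z))‖ ≤ η * s

theorem mem_par_of_near {L : R3 →L[ℝ] R3} {κ : ℝ} (hκ : 0 < κ) (hL : ∀ v, κ * ‖v‖ ≤ ‖L v‖)
    {b y : R3} {r : ℝ} (hr : 0 < r) (hy : ‖y - b‖ ≤ κ * r) : y ∈ par Cb L b r := by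
  obtain ⟨v, hv⟩ := (linE L hκ hL).surjective (y - b)
  rw [linE_apply] at hv
  have h1 : ‖v‖ ≤ r := by
    have := hL v
    rw [hv] at this
    nlinarith
  refine ⟨r⁻¹ • v, ?_, ?_⟩
  · intro i
    have h2 : (r⁻¹ • v) i = r⁻¹ * v i := by simp
    rw [h2, abs_mul, abs_of_pos (inv_pos.2 hr), inv_mul_le_iff₀ hr, mul_one]
    exact (norm_coord_le v i).trans h1
  · show b + r • L (r⁻¹ • v) = y
    rw [map_smul, smul_smul, mul_inv_cancel₀ hr.ne', one_smul, hv]
    abel

/-- points of the cube near its boundary are far from the image of a smaller cube -/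
theorem far_of_bd {L : R3 →L[ℝ] R3} {κ : ℝ} (hκ : 0 < κ) (hL : ∀ v, κ * ‖v‖ ≤ ‖L v‖)
    {z b x y : R3} {r r' : ℝ} (hr : 0 < r) {i : Fin 3} (hi : r' ≤ |x i - z i|)
    (hy : y ∈ par Cb L b r) : κ * (r' - r) ≤ ‖b + L (x - z) - y‖ := by
  obtain ⟨u, hu, rfl⟩ := hy
  have h1 : b + L (x - z) - (b + r • L u) = L (x - z - r • u) := by
    rw [map_sub L (x - z) (r • u), map_smul]; abel
  show κ * (r' - r) ≤ ‖b + L (x - z) - (b + r • L u)‖
  rw [h1]
  refine le_trans ?_ (hL _)
  have h2 : r' - r ≤ |(x - z - r • u) i| := by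
    have h3 : (x - z - r • u) i = (x i - z i) - r * u i := by simp
    rw [h3]
    have h4 : |r * u i| ≤ r := by
      rw [abs_mul, abs_of_pos hr]
      have := hu i
      nlinarith
    have h5 := abs_sub_abs_le_abs_sub (x i - z i) (r * u i)
    linarith
  exact mul_le_mul_of_nonneg_left (h2.trans (norm_coord_le _ i)) hκ.le

theorem not_mem_interior_cel {z x : R3} {r : ℝ} (hr : 0 < r) (hx : x ∉ interior (cel Cb z r)) :
    ∃ i, r ≤ |x i - z i| := by
  by_contra hcon
  push Not at hcon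
  apply hx
  have hopen : IsOpen {y : R3 | ∀ i, |y i - z i| < r} := by
    have : {y : R3 | ∀ i, |y i - z i| < r} = ⋂ i : Fin 3, {y : R3 | |y i - z i| < r} := by
      ext y; simp
    rw [this]
    refine isOpen_iInter_of_finite fun i => isOpen_lt ?_ continuous_const
    fun_prop
  refine interior_maximal ?_ hopen hcon
  intro y hy
  exact (mem_cel hr).2 fun i => (hy i).le

theorem convex_par (L : R3 →L[ℝ] R3) (b : R3) (r : ℝ) : Convex ℝ (par Cb L b r) := by
  have h1 : par Cb L b r = (fun x => b + x) '' ((r • (L : R3 →ₗ[ℝ] R3)) '' Cb) := by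
    rw [par, image_image]
    rfl
  rw [h1]
  exact (ref_Cb.conv.linear_image _).translate b

section

variable {Om La : Set R3} {f : R3 → R3} {κ η σ s : ℝ} {z b : R3} {L : R3 →L[ℝ] R3}

theorem Nr.r1 (h : Nr Om f κ η σ s z b L) : 0 < (1 - σ) * s :=
  mul_pos (by have := h.σ0; have := h.σ1; linarith) h.s0

theorem Nr.r2 (h : Nr Om f κ η σ s z b L) : 0 < (1 - 2 * σ) * s :=
  mul_pos (by have := h.σ0; have := h.σ1; linarith) h.s0

/-- **no intruders**: only the points of the cube go to the parallelepiped, and it is covered -/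
theorem Nr.covers (h : Nr Om f κ η σ s z b L) (hf : IsHomeomorphOn f Om La) (hLa : IsOpen La) :
    par Cb L b ((1 - 2 * σ) * s) ⊆ f '' interior (cel Cb z ((1 - σ) * s)) ∧
    ∀ x ∈ Om, f x ∈ par Cb L b ((1 - 2 * σ) * s) → x ∈ interior (cel Cb z ((1 - σ) * s)) := by
  have hcont : ContinuousOn f Om := by
    obtain ⟨g, _, _, _, _, hc, _⟩ := hf
    exact hc
  have hinj : InjOn f Om := by
    obtain ⟨g, _, _, hgf, _, _, _⟩ := hf
    intro x hx y hy hxy
    rw [← hgf x hx, ← hgf y hy, hxy]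
  have hK : IsCompact (cel Cb z ((1 - σ) * s)) := isCompact_cel ref_Cb.cpt _ _
  have hopen : IsOpen (f '' interior (cel Cb z ((1 - σ) * s))) :=
    Osc_802.isOpen_image hf hLa isOpen_interior (interior_subset.trans h.sub)
  have hP : IsPreconnected (par Cb L b ((1 - 2 * σ) * s)) := (convex_par L b _).isPreconnected
  have hs := h.s0
  have hdis : ∀ x ∈ cel Cb z ((1 - σ) * s), x ∉ interior (cel Cb z ((1 - σ) * s)) →
      f x ∉ par Cb L b ((1 - 2 * σ) * s) := by
    intro x hx hxi hfx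
    obtain ⟨i, hi⟩ := not_mem_interior_cel h.r1 hxi
    have h1 := far_of_bd h.κ0 h.low h.r2 hi hfx
    have h2 := h.c0 x hx
    rw [norm_sub_rev] at h2
    have h3 : κ * ((1 - σ) * s - (1 - 2 * σ) * s) = κ * σ * s := by ring
    rw [h3] at h1
    have h4 := h.ησ
    nlinarith
  have hz : z ∈ interior (cel Cb z ((1 - σ) * s)) := by
    by_contra hcon
    obtain ⟨i, hi⟩ := not_mem_interior_cel h.r1 hcon
    rw [sub_self, abs_zero] at hi
    exact absurd hi (not_le.2 h.r1)
  have hfz : f z ∈ par Cb L b ((1 - 2 * σ) * s) := by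
    refine mem_par_of_near h.κ0 h.low h.r2 ?_
    have h1 := h.c0 z (interior_subset hz)
    rw [sub_self, map_zero, add_zero] at h1
    refine h1.trans ?_
    have h2 := h.ησ
    have h3 := h.σ1
    have h4 := h.σ0
    have h5 := h.κ0
    have h6 : κ * σ ≤ κ * (1 - 2 * σ) := by
      apply mul_le_mul_of_nonneg_left _ h5.le
      linarith
    nlinarith
  refine ⟨Core_124.covers hK (hcont.mono h.sub) hopen hP hdis ⟨f z, hfz, z, hz, rfl⟩,
    Core_124.no_intruders hinj h.sub hK (hcont.mono h.sub) hopen hP hdis ⟨f z, hfz, z, hz, rfl⟩⟩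

/-- the parallelepipeds of two good cubes with disjoint interiors are disjoint -/
theorem Nr.disj (h : Nr Om f κ η σ s z b L) (hf : IsHomeomorphOn f Om La) (hLa : IsOpen La)
    {κ' η' σ' s' : ℝ} {z' b' : R3} {L' : R3 →L[ℝ] R3} (h' : Nr Om f κ' η' σ' s' z' b' L')
    {i : Fin 3} (hi : s + s' ≤ |z i - z' i|) :
    Disjoint (par Cb L b ((1 - 2 * σ) * s)) (par Cb L' b' ((1 - 2 * σ') * s')) := by
  rw [Set.disjoint_left]
  intro y hy hy'
  obtain ⟨x, hx, rfl⟩ := (h.covers hf hLa).1 hy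
  have hxO : x ∈ Om := h.sub (interior_subset hx)
  have hx' := (h'.covers hf hLa).2 x hxO hy'
  have h1 := (mem_cel h.r1).1 (interior_subset hx) i
  have h2 := (mem_cel h'.r1).1 (interior_subset hx') i
  have h3 : |z i - z' i| ≤ |x i - z i| + |x i - z' i| := by
    have : z i - z' i = -(x i - z i) + (x i - z' i) := by ring
    rw [this]
    refine (abs_add_le _ _).trans ?_
    rw [abs_neg]
  have h4 := mul_pos h.σ0 h.s0
  have h5 := mul_pos h'.σ0 h'.s0
  nlinarith

/-- a second affine map `A' x = b' + L' (x - z)`, close to the first one on the cube -/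
structure Nr2 (κ σ s ρ : ℝ) (z b : R3) (L : R3 →L[ℝ] R3) (b' : R3) (L' : R3 →L[ℝ] R3) (κ' : ℝ) :
    Prop where
  κ0 : 0 < κ'
  low : ∀ v, κ' * ‖v‖ ≤ ‖L' v‖
  near : ∀ x ∈ cel Cb z ((1 - σ) * s), ‖(b' + L' (x - z)) - (b + L (x - z))‖ ≤ ρ * s
  ρσ : ρ ≤ κ' * σ

/-- points which go to the parallelepiped under `A'` are in the cube -/
theorem Nr2.mem (h : Nr Om f κ η σ s z b L) {ρ κ' : ℝ} {b' : R3} {L' : R3 →L[ℝ] R3}
    (h2 : Nr2 κ σ s ρ z b L b' L' κ') {x : R3}
    (hx : b' + L' (x - z) ∈ par Cb L b ((1 - 2 * σ) * s)) : x ∈ cel Cb z ((1 - σ) * s) := by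
  obtain ⟨u, hu, he⟩ := hx
  have he' : b + ((1 - 2 * σ) * s) • L u = b' + L' (x - z) := he
  set x₀ : R3 := z + ((1 - 2 * σ) * s) • u with hx₀
  have hx₀m : x₀ ∈ cel Cb z ((1 - 2 * σ) * s) := ⟨u, hu, rfl⟩
  have hs := h.s0
  have hσ := h.σ0
  have hx₀m' : x₀ ∈ cel Cb z ((1 - σ) * s) := by
    rw [mem_cel h.r1]
    intro i
    refine ((mem_cel h.r2).1 hx₀m i).trans ?_
    nlinarith
  have h3 := h2.near x₀ hx₀m'
  have h4 : b + L (x₀ - z) = b' + L' (x - z) := by
    rw [← he', hx₀, add_sub_cancel_left, map_smul]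
  rw [h4] at h3
  have h5 : b' + L' (x₀ - z) - (b' + L' (x - z)) = L' (x₀ - x) := by
    rw [map_sub, map_sub, map_sub]; abel
  rw [h5] at h3
  have h6 : ‖x₀ - x‖ ≤ σ * s := by
    have h7 := (h2.low (x₀ - x)).trans h3
    have h8 := h2.ρσ
    have h9 := h2.κ0
    have h10 : κ' * ‖x₀ - x‖ ≤ κ' * (σ * s) := by nlinarith
    exact le_of_mul_le_mul_left h10 h9
  rw [mem_cel h.r1]
  intro i
  have h7 := (mem_cel h.r2).1 hx₀m i
  have h8 : |x₀ i - x i| ≤ σ * s := by
    have := norm_coord_le (x₀ - x) i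
    simpa using this.trans h6
  have h9 : |x i - z i| ≤ |x₀ i - x i| + |x₀ i - z i| := by
    have : x i - z i = -(x₀ i - x i) + (x₀ i - z i) := by ring
    rw [this]
    refine (abs_add_le _ _).trans ?_
    rw [abs_neg]
  nlinarith

/-- **`Cori` for the bricks in the image of a good cube.** -/
theorem cori_of_nr (h : Nr Om f κ η σ s z b L) (hf : IsHomeomorphOn f Om La) (hLa : IsOpen La)
    {ρ κ' : ℝ} {b' : R3} {L' : R3 →L[ℝ] R3} (h2 : Nr2 κ σ s ρ z b L b' L' κ')
    {Q : Bx (Fin 3)} (hQ : Q.Pos) (hQs : Q.set ⊆ P3 ⁻¹' par Cb L b ((1 - 2 * σ) * s))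
    {lam κ1 κ2 : ℝ} (hl1 : lam ≤ 1) (hk2 : (1 / 2 + κ2) * lam ≤ 1 / 2)
    (hκ1 : (η + ρ) * s ≤ κ1 * (lam * Q.sz)) :
    Cori Om f (fun x => b' + L' (x - z)) Q lam κ1 κ2 := by
  intro x hx
  have key : P3 x ∈ cel Cb z ((1 - σ) * s) := by
    rcases hx with ⟨hxO, hx⟩ | hx
    · have h3 : m3 f x ∈ Q.set := by
        rw [Bx.mem_set]
        intro k
        have h4 := abs_le.1 (hx k)
        have h5 := Bxs_627.ctr_lo Q k
        have h6 := Bxs_627.ctr_hi Q k
        have h7 := Bx.side_pos hQ k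
        constructor <;> nlinarith
      have h4 := hQs h3
      have h5 : f (P3 x) ∈ par Cb L b ((1 - 2 * σ) * s) := by
        have h6 : P3 (m3 f x) = f (P3 x) := by
          show P3 (P3.symm (f (P3 x))) = _
          rw [ContinuousLinearEquiv.apply_symm_apply]
        rw [← h6]; exact h4
      exact interior_subset ((h.covers hf hLa).2 _ hxO h5)
    · have h3 : m3 (fun x => b' + L' (x - z)) x ∈ Q.set := by
        rw [Bx.mem_set]
        intro k
        have h4 := abs_le.1 (hx k)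
        have h5 := Bxs_627.ctr_lo Q k
        have h6 := Bxs_627.ctr_hi Q k
        have h7 := Bx.side_pos hQ k
        have h8 : (1 / 2 + κ2) * (lam * Q.side k) ≤ Q.side k / 2 := by nlinarith
        constructor <;> linarith
      have h4 := hQs h3
      have h5 : b' + L' (P3 x - z) ∈ par Cb L b ((1 - 2 * σ) * s) := by
        have h6 : P3 (m3 (fun x => b' + L' (x - z)) x) = b' + L' (P3 x - z) := by
          show P3 (P3.symm (b' + L' (P3 x - z))) = _
          rw [ContinuousLinearEquiv.apply_symm_apply]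
        rw [← h6]; exact h4
      exact Nr2.mem h h2 h5
  refine ⟨h.sub key, ?_⟩
  have h3 := h.c0 _ key
  have h4 := h2.near _ key
  have h5 : ‖m3 f x - m3 (fun x => b' + L' (x - z)) x‖ ≤ ‖f (P3 x) - (b' + L' (P3 x - z))‖ := by
    show ‖P3.symm (f (P3 x)) - P3.symm (b' + L' (P3 x - z))‖ ≤ _
    rw [← map_sub]
    exact Bxs_627.norm_P3_symm_le _
  refine h5.trans (le_trans ?_ hκ1)
  have h6 : f (P3 x) - (b' + L' (P3 x - z)) =
      (f (P3 x) - (b + L (P3 x - z))) - ((b' + L' (P3 x - z)) - (b + L (P3 x - z))) := by abel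
  rw [h6]
  refine (norm_sub_le _ _).trans ?_
  rw [add_mul]
  exact add_le_add h3 h4

end

end

end Crest.Agent.R096.Fil_313
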