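/-
helper313, row 96, (R3c): exact bricks over finitely many good cubes: the set `XX` of the exact
bricks, the index `kk` of the cube, the cores `KK`, disjointness, `Cori`, volume.
-/
import Crest.Agent.R096.Fil3_313

set_option autoImplicit false
set_option linter.unusedSectionVars false
set_option linter.style.longLine false
set_option maxSynthPendingDepth 3

open MeasureTheory Set Filter Metric
open scoped ENNReal NNReal Topology

namespace Crest.Agent.R096.Fil_313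

open Crest.AnalysisR.VecCalc3 Crest.AnalysisR.Sobolev
open Crest.Agent.R096.Bsp_628 Crest.Agent.R96.En10_199
open Crest.Agent.R96.Intr_538 Crest.Agent.R96.Coarse_538
open Crest.Agent.R096.Bxs_627 (Cori m3 ctr zz)

noncomputable section

/-- finitely many good cubes (centres `vt (2 s) a k`), real affine maps `b k + L k (x - z)`, near maps
`b' k + L' k (x - z)` -/
structure GD (Om : Set R3) (f : R3 → R3) (κ η σ s ρ κ' : ℝ) (a : R3) (Q : Finset (Fin 3 → ℤ))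
    (b : (Fin 3 → ℤ) → R3) (L : (Fin 3 → ℤ) → R3 →L[ℝ] R3) (b' : (Fin 3 → ℤ) → R3)
    (L' : (Fin 3 → ℤ) → R3 →L[ℝ] R3) : Prop where
  nr : ∀ k ∈ Q, Nr Om f κ η σ s (vt (2 * s) a k) (b k) (L k)
  nr2 : ∀ k ∈ Q, Nr2 κ σ s ρ (vt (2 * s) a k) (b k) (L k) (b' k) (L' k) κ'
  full : ∀ k ∈ Q, cel Cb (vt (2 * s) a k) s ⊆ Om

/-- the parallelepiped of the cube `k`, in `E3` -/
def PP (σ s : ℝ) (b : (Fin 3 → ℤ) → R3) (L : (Fin 3 → ℤ) → R3 →L[ℝ] R3) (k : Fin 3 → ℤ) : Set E3 :=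
  P3 ⁻¹' par Cb (L k) (b k) ((1 - 2 * σ) * s)

/-- the exact bricks -/
def XX (F : Set (Bx (Fin 3))) (σ s : ℝ) (Q : Finset (Fin 3 → ℤ)) (b : (Fin 3 → ℤ) → R3)
    (L : (Fin 3 → ℤ) → R3 →L[ℝ] R3) : Set (Bx (Fin 3)) :=
  {C | C ∈ F ∧ ∃ k ∈ Q, C.set ⊆ PP σ s b L k}

open Classical in
/-- the index of the cube of an exact brick -/
def kk (σ s : ℝ) (Q : Finset (Fin 3 → ℤ)) (b : (Fin 3 → ℤ) → R3)
    (L : (Fin 3 → ℤ) → R3 →L[ℝ] R3) (C : Bx (Fin 3)) : Fin 3 → ℤ :=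
  if h : ∃ k ∈ Q, C.set ⊆ PP σ s b L k then h.choose else 0

/-- the exact core of the brick `C` -/
def KK (σ s : ℝ) (a : R3) (Q : Finset (Fin 3 → ℤ)) (b : (Fin 3 → ℤ) → R3)
    (L : (Fin 3 → ℤ) → R3 →L[ℝ] R3) (b' : (Fin 3 → ℤ) → R3) (L' : (Fin 3 → ℤ) → R3 →L[ℝ] R3)
    (lam : ℝ) (C : Bx (Fin 3)) : Set R3 :=
  {x : R3 | P3.symm (b' (kk σ s Q b L C) + L' (kk σ s Q b L C) (x - vt (2 * s) a (kk σ s Q b L C))) ∈
    bxc C lam (zz C lam)}

theorem mem_bxc_zz {C : Bx (Fin 3)} {lam : ℝ} {y : E3} :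
    y ∈ bxc C lam (zz C lam) ↔ ∀ k, |y k - ctr C k| ≤ lam * C.side k / 2 := by
  unfold bxc
  simp only [mem_ofPred_eq, Bxs_627.zz_lo, Bxs_627.zz_hi]
  constructor
  · intro h k
    rw [abs_le]
    have := h k
    constructor <;> linarith [this.1, this.2]
  · intro h k
    have := abs_le.1 (h k)
    constructor <;> linarith [this.1, this.2]

theorem bxc_sub {C : Bx (Fin 3)} (hC : C.Pos) {lam : ℝ} (hl1 : lam ≤ 1) :
    bxc C lam (zz C lam) ⊆ C.set := by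
  intro y hy
  rw [mem_bxc_zz] at hy
  rw [Bx.mem_set]
  intro k
  have h4 := abs_le.1 (hy k)
  have h5 := Bxs_627.ctr_lo C k
  have h6 := Bxs_627.ctr_hi C k
  have h7 := Bx.side_pos hC k
  constructor <;> nlinarith

theorem lo_mem {C : Bx (Fin 3)} (hC : C.Pos) : C.lo ∈ C.set :=
  Bx.mem_set.2 fun i => ⟨le_rfl, (hC i).le⟩

section

variable {Om La : Set R3} {f : R3 → R3} {κ η σ s ρ κ' : ℝ} {a : R3} {Q : Finset (Fin 3 → ℤ)}
  {b : (Fin 3 → ℤ) → R3} {L : (Fin 3 → ℤ) → R3 →L[ℝ] R3} {b' : (Fin 3 → ℤ) → R3}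
  {L' : (Fin 3 → ℤ) → R3 →L[ℝ] R3} {F : Set (Bx (Fin 3))}

theorem exists_sep (hs : 0 < s) (a : R3) {k l : Fin 3 → ℤ} (h : k ≠ l) :
    ∃ i, s + s ≤ |vt (2 * s) a k i - vt (2 * s) a l i| := by
  obtain ⟨i, hi⟩ := Function.ne_iff.1 h
  refine ⟨i, ?_⟩
  rw [vt_apply, vt_apply]
  have h1 : a i + 2 * s * (k i : ℝ) - (a i + 2 * s * (l i : ℝ)) = 2 * s * ((k i - l i : ℤ) : ℝ) := by
    push_cast; ring
  rw [h1, abs_mul, abs_of_pos (by linarith)]
  have h2 : (1 : ℝ) ≤ |((k i - l i : ℤ) : ℝ)| := by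
    rw [← Int.cast_abs]
    have : (1 : ℤ) ≤ |k i - l i| := Int.one_le_abs (sub_ne_zero.2 hi)
    exact_mod_cast this
  nlinarith

theorem kk_spec {C : Bx (Fin 3)} (hC : C ∈ XX F σ s Q b L) :
    kk σ s Q b L C ∈ Q ∧ C.set ⊆ PP σ s b L (kk σ s Q b L C) := by
  have h := hC.2
  unfold kk
  rw [dif_pos h]
  exact h.choose_spec

/-- a brick lies in at most one parallelepiped -/
theorem kk_uniq (hG : GD Om f κ η σ s ρ κ' a Q b L b' L') (hf : IsHomeomorphOn f Om La)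
    (hLa : IsOpen La) {C : Bx (Fin 3)} (hC : C ∈ XX F σ s Q b L) (hpos : C.Pos) {k : Fin 3 → ℤ}
    (hk : k ∈ Q) (hCk : C.set ⊆ PP σ s b L k) : kk σ s Q b L C = k := by
  by_contra hne
  obtain ⟨h1, h2⟩ := kk_spec hC
  obtain ⟨i, hi⟩ := exists_sep (hG.nr k hk).s0 a hne
  have h3 := (hG.nr _ h1).disj hf hLa (hG.nr k hk) hi
  exact Set.disjoint_left.1 h3 (h2 (lo_mem hpos)) (hCk (lo_mem hpos))

/-- the core lies in its cube -/
theorem KK_sub_cel (hG : GD Om f κ η σ s ρ κ' a Q b L b' L') {C : Bx (Fin 3)}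
    (hC : C ∈ XX F σ s Q b L) (hpos : C.Pos) {lam : ℝ} (hl1 : lam ≤ 1) :
    KK σ s a Q b L b' L' lam C ⊆ cel Cb (vt (2 * s) a (kk σ s Q b L C)) ((1 - σ) * s) := by
  intro x hx
  obtain ⟨h1, h2⟩ := kk_spec hC
  have h3 := h2 (bxc_sub hpos hl1 hx)
  have h4 : b' (kk σ s Q b L C) + L' (kk σ s Q b L C) (x - vt (2 * s) a (kk σ s Q b L C)) ∈
      par Cb (L (kk σ s Q b L C)) (b (kk σ s Q b L C)) ((1 - 2 * σ) * s) := by
    have h5 : P3 (P3.symm (b' (kk σ s Q b L C) +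
        L' (kk σ s Q b L C) (x - vt (2 * s) a (kk σ s Q b L C)))) = _ :=
      ContinuousLinearEquiv.apply_symm_apply _ _
    rw [← h5]; exact h3
  exact Nr2.mem (hG.nr _ h1) (hG.nr2 _ h1) h4

theorem isClosed_KK (lam : ℝ) (C : Bx (Fin 3)) : IsClosed (KK σ s a Q b L b' L' lam C) := by
  unfold KK
  refine (isClosed_bxc C lam (zz C lam)).preimage ?_
  fun_prop

theorem isCompact_KK (hG : GD Om f κ η σ s ρ κ' a Q b L b' L') {C : Bx (Fin 3)}
    (hC : C ∈ XX F σ s Q b L) (hpos : C.Pos) {lam : ℝ} (hl1 : lam ≤ 1) :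
    IsCompact (KK σ s a Q b L b' L' lam C) :=
  (isCompact_cel ref_Cb.cpt _ _).of_isClosed_subset (isClosed_KK lam C) (KK_sub_cel hG hC hpos hl1)

theorem KK_sub (hG : GD Om f κ η σ s ρ κ' a Q b L b' L') {C : Bx (Fin 3)}
    (hC : C ∈ XX F σ s Q b L) (hpos : C.Pos) {lam : ℝ} (hl1 : lam ≤ 1) :
    KK σ s a Q b L b' L' lam C ⊆ Om :=
  (KK_sub_cel hG hC hpos hl1).trans (hG.nr _ (kk_spec hC).1).sub

/-- the cores are pairwise disjoint -/
theorem KK_disj (hG : GD Om f κ η σ s ρ κ' a Q b L b' L') {C C' : Bx (Fin 3)}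
    (hC : C ∈ XX F σ s Q b L) (hpos : C.Pos) (hC' : C' ∈ XX F σ s Q b L) (hpos' : C'.Pos)
    (hsep : ∃ k, C.hi k ≤ C'.lo k ∨ C'.hi k ≤ C.lo k) {lam : ℝ} (hl1 : lam < 1) :
    Disjoint (KK σ s a Q b L b' L' lam C) (KK σ s a Q b L b' L' lam C') := by
  rw [Set.disjoint_left]
  intro x hx hx'
  by_cases hkk : kk σ s Q b L C = kk σ s Q b L C'
  · obtain ⟨j, hj⟩ := hsep
    have h1 := mem_bxc_zz.1 hx j
    have h2 := mem_bxc_zz.1 hx' j
    rw [← hkk] at h2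
    set y := P3.symm (b' (kk σ s Q b L C) +
      L' (kk σ s Q b L C) (x - vt (2 * s) a (kk σ s Q b L C))) with hy
    have h3 := abs_le.1 h1
    have h4 := abs_le.1 h2
    have h5 := Bxs_627.ctr_lo C j
    have h6 := Bxs_627.ctr_hi C j
    have h5' := Bxs_627.ctr_lo C' j
    have h6' := Bxs_627.ctr_hi C' j
    have h7 := Bx.side_pos hpos j
    have h7' := Bx.side_pos hpos' j
    rcases hj with hj | hj <;> nlinarith
  · obtain ⟨h1, _⟩ := kk_spec hC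
    obtain ⟨h1', _⟩ := kk_spec hC'
    obtain ⟨i, hi⟩ := exists_sep (hG.nr _ h1).s0 a hkk
    have h2 := (mem_cel (hG.nr _ h1).r1).1 (KK_sub_cel hG hC hpos hl1.le hx) i
    have h3 := (mem_cel (hG.nr _ h1').r1).1 (KK_sub_cel hG hC' hpos' hl1.le hx') i
    have h4 := mul_pos (hG.nr _ h1).σ0 (hG.nr _ h1).s0
    have h5 : |vt (2 * s) a (kk σ s Q b L C) i - vt (2 * s) a (kk σ s Q b L C') i| ≤
        |x i - vt (2 * s) a (kk σ s Q b L C) i| + |x i - vt (2 * s) a (kk σ s Q b L C') i| := by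
      have : vt (2 * s) a (kk σ s Q b L C) i - vt (2 * s) a (kk σ s Q b L C') i =
          -(x i - vt (2 * s) a (kk σ s Q b L C) i) + (x i - vt (2 * s) a (kk σ s Q b L C') i) := by ring
      rw [this]
      refine (abs_add_le _ _).trans ?_
      rw [abs_neg]
    linarith

/-- finitely many exact bricks -/
theorem XX_fin {δ κ0 : ℝ} (BF : BoxFoam (P3 ⁻¹' La) F δ κ0)
    (hpar : ∀ k ∈ Q, par Cb (L k) (b k) ((1 - 2 * σ) * s) ⊆ La) : (XX F σ s Q b L).Finite := by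
  have hK : IsCompact (⋃ k ∈ Q, PP σ s b L k) := by
    refine Q.isCompact_biUnion fun k _ => ?_
    have h1 : PP σ s b L k = P3.symm '' par Cb (L k) (b k) ((1 - 2 * σ) * s) := by
      rw [PP, ← ContinuousLinearEquiv.image_symm_eq_preimage]
    rw [h1]
    exact (isCompact_par ref_Cb.cpt _ _ _).image P3.symm.continuous
  refine (foam_fin BF hK (iUnion₂_subset fun k hk => preimage_mono (hpar k hk))).subset ?_
  rintro C ⟨hC, k, hk, hCk⟩
  exact ⟨hC, C.lo, lo_mem (BF.pos C hC), mem_biUnion hk (hCk (lo_mem (BF.pos C hC)))⟩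

/-- **`Cori` for every exact brick** -/
theorem cori_XX (hG : GD Om f κ η σ s ρ κ' a Q b L b' L') (hf : IsHomeomorphOn f Om La)
    (hLa : IsOpen La) {C : Bx (Fin 3)} (hC : C ∈ XX F σ s Q b L) (hpos : C.Pos) {lam κ1 κ2 : ℝ}
    (hl1 : lam ≤ 1) (hk2 : (1 / 2 + κ2) * lam ≤ 1 / 2) (hκ1 : (η + ρ) * s ≤ κ1 * (lam * C.sz)) :
    Cori Om f (fun x => b' (kk σ s Q b L C) +
      L' (kk σ s Q b L C) (x - vt (2 * s) a (kk σ s Q b L C))) C lam κ1 κ2 := by
  obtain ⟨h1, h2⟩ := kk_spec hC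
  exact cori_of_nr (hG.nr _ h1) hf hLa (hG.nr2 _ h1) hpos h2 hl1 hk2 hκ1

/-- `f` is close to the near map on the core -/
theorem KK_near (hG : GD Om f κ η σ s ρ κ' a Q b L b' L') {C : Bx (Fin 3)}
    (hC : C ∈ XX F σ s Q b L) (hpos : C.Pos) {lam : ℝ} (hl1 : lam ≤ 1) {x : R3}
    (hx : x ∈ KK σ s a Q b L b' L' lam C) :
    ‖f x - (b' (kk σ s Q b L C) +
      L' (kk σ s Q b L C) (x - vt (2 * s) a (kk σ s Q b L C)))‖ ≤ (η + ρ) * s := by
  obtain ⟨h1, _⟩ := kk_spec hC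
  have hm := KK_sub_cel hG hC hpos hl1 hx
  have h3 := (hG.nr _ h1).c0 x hm
  have h4 := (hG.nr2 _ h1).near x hm
  have h6 : f x - (b' (kk σ s Q b L C) +
      L' (kk σ s Q b L C) (x - vt (2 * s) a (kk σ s Q b L C))) =
      (f x - (b (kk σ s Q b L C) + L (kk σ s Q b L C) (x - vt (2 * s) a (kk σ s Q b L C)))) -
      ((b' (kk σ s Q b L C) + L' (kk σ s Q b L C) (x - vt (2 * s) a (kk σ s Q b L C))) -
        (b (kk σ s Q b L C) + L (kk σ s Q b L C) (x - vt (2 * s) a (kk σ s Q b L C)))) := by abel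
  rw [h6]
  refine (norm_sub_le _ _).trans ?_
  rw [add_mul]
  exact add_le_add h3 h4

/-- **`sub`** (18 #10071 (D1)): `f` maps the core into the open brick -/
theorem KK_sub_brick (hG : GD Om f κ η σ s ρ κ' a Q b L b' L') {C : Bx (Fin 3)}
    (hC : C ∈ XX F σ s Q b L) (hpos : C.Pos) {lam : ℝ} (hl1 : lam ≤ 1)
    (hmar : ∀ j, 2 * ((η + ρ) * s) < (1 - lam) * C.side j) {x : R3}
    (hx : x ∈ KK σ s a Q b L b' L' lam C) (j : Fin 3) :
    C.lo j < P3.symm (f x) j ∧ P3.symm (f x) j < C.hi j := by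
  have h1 := KK_near hG hC hpos hl1 hx
  have h2 := mem_bxc_zz.1 hx j
  have h3 : |P3.symm (f x) j - P3.symm (b' (kk σ s Q b L C) +
      L' (kk σ s Q b L C) (x - vt (2 * s) a (kk σ s Q b L C))) j| ≤ (η + ρ) * s := by
    have h4 := (norm_coord_le (f x - (b' (kk σ s Q b L C) +
      L' (kk σ s Q b L C) (x - vt (2 * s) a (kk σ s Q b L C)))) j).trans h1
    exact h4
  have h4 := abs_le.1 h2
  have h5 := abs_le.1 h3
  have h6 := Bxs_627.ctr_lo C j
  have h7 := Bxs_627.ctr_hi C j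
  have h8 := hmar j
  constructor <;> nlinarith

/-- **volume of the complement of the cores** -/
theorem cores_fill (hG : GD Om f κ η σ s ρ κ' a Q b L b' L') (hf : IsHomeomorphOn f Om La)
    (hLa : IsOpen La) {δ κ0 : ℝ} (BF : BoxFoam (P3 ⁻¹' La) F δ κ0)
    (hdis : ∀ C ∈ F, ∀ C' ∈ F, C ≠ C' → ∃ k, C.hi k ≤ C'.lo k ∨ C'.hi k ≤ C.lo k)
    (hκ : 0 < κ) (hs : 0 < s) (hσ : 0 < σ) (hσ1 : 4 * σ ≤ 1)
    (hpar : ∀ k ∈ Q, par Cb (L k) (b k) s ⊆ La) {t : ℝ} (ht : 0 ≤ t)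
    (hsz : ∀ k ∈ Q, ∀ C ∈ F, ∀ y ∈ par Cb (L k) (b k) s, P3.symm y ∈ C.set → C.sz ≤ t)
    {lam0 lam : ℝ} (hl0 : 0 ≤ lam0) (hll : lam0 ≤ lam) (hl1 : lam ≤ 1)
    (hside : ∀ C ∈ XX F σ s Q b L, ∀ j, 2 * (ρ * s) ≤ (lam - lam0) * C.side j) :
    volume ((⋃ k ∈ Q, cel Cb (vt (2 * s) a k) s) \
      ⋃ C ∈ XX F σ s Q b L, KK σ s a Q b L b' L' lam C) ≤
      ENNReal.ofReal (6 * σ + 6 * κ⁻¹ * t / s + 3 * (1 - lam0)) * volume Om := by
  have hκ' : 0 < κ⁻¹ := inv_pos.2 hκ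
  rcases Q.eq_empty_or_nonempty with hQe | ⟨k0, hk0⟩
  · subst hQe
    simp
  have hcomb : (⋃ k ∈ Q, cel Cb (vt (2 * s) a k) s) \
      ⋃ C ∈ XX F σ s Q b L, KK σ s a Q b L b' L' lam C =
      (⋃ k ∈ Q, cel Cb (vt (2 * s) a k) s) \
        ⋃ k ∈ Q, ⋃ C ∈ XX F σ s Q b L, KK σ s a Q b L b' L' lam C := by
    congr 1
    ext x
    simp only [mem_iUnion]
    constructor
    · rintro h
      exact ⟨k0, hk0, h⟩
    · rintro ⟨_, _, h⟩
      exact h
  rw [hcomb]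
  refine fill_sum hs a Q hG.full _ (by
    have : 0 ≤ 1 - lam0 := by linarith
    positivity) ?_
  intro k hk
  have hnr := hG.nr k hk
  have h1 := fill3 hκ hnr.low (z := vt (2 * s) a k) (b := b k) hs hσ.le (by linarith) ht hl0
    (hll.trans hl1) BF.countable BF.pos hdis
    (fun y hy => BF.cov _ (by
      show P3 (P3.symm y) ∈ La
      rw [ContinuousLinearEquiv.apply_symm_apply]
      exact hpar k hk hy))
    (hsz k hk) (w := fun C => zz C lam0)
    (fun C hC => bxc_sub (BF.pos C hC) (hll.trans hl1))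
    (T := fun C => KK σ s a Q b L b' L' lam C) (by
      intro C hC hsub x hx
      have hCX : C ∈ XX F σ s Q b L := ⟨hC, k, hk, hsub⟩
      have hkk := kk_uniq hG hf hLa hCX (BF.pos C hC) hk hsub
      have h2 : b k + L k (x - vt (2 * s) a k) ∈ par Cb (L k) (b k) ((1 - 2 * σ) * s) := by
        have h3 := hsub (bxc_sub (BF.pos C hC) (hll.trans hl1) hx)
        have h5 : P3 (P3.symm (b k + L k (x - vt (2 * s) a k))) = _ :=
          ContinuousLinearEquiv.apply_symm_apply _ _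
        rw [← h5]; exact h3
      have hxc : x ∈ cel Cb (vt (2 * s) a k) ((1 - σ) * s) := by
        obtain ⟨u, hu, he⟩ := h2
        have he' : b k + ((1 - 2 * σ) * s) • L k u = b k + L k (x - vt (2 * s) a k) := he
        have h3 : L k (((1 - 2 * σ) * s) • u) = L k (x - vt (2 * s) a k) := by
          rw [map_smul]
          exact add_left_cancel he'
        have h4 : ((1 - 2 * σ) * s) • u = x - vt (2 * s) a k :=
          inj_of_low hκ hnr.low h3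
        rw [mem_cel hnr.r1]
        intro i
        have h5 : x i - vt (2 * s) a k i = ((1 - 2 * σ) * s) * u i := by
          have := congrArg (fun v : R3 => v i) h4
          simpa using this.symm
        rw [h5, abs_mul, abs_of_pos hnr.r2]
        have h6 := hu i
        have h7 := hnr.r2
        nlinarith
      have h3 := (hG.nr2 k hk).near x hxc
      show P3.symm (b' (kk σ s Q b L C) +
        L' (kk σ s Q b L C) (x - vt (2 * s) a (kk σ s Q b L C))) ∈ bxc C lam (zz C lam)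
      rw [hkk, mem_bxc_zz]
      intro j
      have h4 : |P3.symm (b' k + L' k (x - vt (2 * s) a k)) j -
          P3.symm (b k + L k (x - vt (2 * s) a k)) j| ≤ ρ * s := by
        have h5 := (norm_coord_le (b' k + L' k (x - vt (2 * s) a k) -
          (b k + L k (x - vt (2 * s) a k))) j).trans h3
        exact h5
      have h5 := mem_bxc_zz.1 hx j
      have h6 := hside C hCX j
      have h7 := abs_le.1 h4
      have h8 := abs_le.1 h5
      rw [abs_le]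
      constructor <;> linarith)
  refine le_trans (measure_mono ?_) h1
  intro x hx
  refine ⟨hx.1, fun hx' => hx.2 ?_⟩
  simp only [mem_iUnion] at hx' ⊢
  obtain ⟨C, ⟨hC, hCk⟩, hxC⟩ := hx'
  exact ⟨C, ⟨hC, k, hk, hCk⟩, hxC⟩

end

end

end Crest.Agent.R096.Fil_313
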