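import Crest.Agent.R096.Blk2_212
import Crest.Agent.R096.Dst1_812
import Crest.Agent.R096.Fil4_313

/-!
Row 96 (S0127), helper212.  **[FAM]**: the blocks of R3 for all bricks of a dyadic foam which lie in the good
parallelepipeds (695 #11696).
-/

set_option autoImplicit false
set_option linter.unusedSectionVars false
set_option linter.style.longLine false

open Set Filter Metric Topology MeasureTheory
open scoped ENNReal NNReal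

namespace Crest.Agent.R096.Blk_212

open Crest.AnalysisR.VecCalc3
open Crest.Agent.R096.Bsp_628 Crest.Agent.R096.Brk1_582 Crest.Agent.R096.Brk2_582
open Crest.Agent.R096.Brk3_582 Crest.Agent.R096.Brk5_582 Crest.Agent.R096.Grd_714
open Crest.Agent.R096.Fni_447 Crest.Agent.R096.Fbr_628
open Crest.Agent.R096.Mal_874 Crest.Agent.R096.Msh_810 Crest.Agent.R096.Msh_715
open Crest.Agent.R096.Mcc_715
open Crest.Agent.R096.SkC1_961 (E3 th)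
open Crest.Agent.R096.EaX_766 (cbx lin)
open Crest.Agent.R096.Bxs_627 (ctr zz)
open Crest.Agent.R096.Ea0_961 (Blk cb0)
open Crest.Agent.R096.Br_695 (lin_apply cbx_mono cbx_two_sub)
open Crest.Agent.R96.Intr_538 (cel par isCompact_par)
open Crest.Agent.R96.Coarse_538 (vt Cb)
open Crest.Agent.R96.En10_199 (P3)
open Crest.Agent.R096.Tmap_212 (mp mp_ψ rt_P3 mem_N_mp mem_N_mp')
open Crest.Agent.R096.Pin_753 (Bk BlkP)
open Crest.Agent.R096.Ins_685 (L3 L3_apply low_L3 norm_L3 low_lin lin_close Bk3 lin_eq_linear norm_lin_le)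
open Crest.Agent.R096.Fil_313 (aff3 aff3_apply aff3_image cel_preimage foam_fin aff3_symm_lip)
open Crest.Agent.R096.Fns_360 (trA trA_apply trA_linear trA_sub)

noncomputable section

theorem par_mono {κ : ℝ} {L : R3 →L[ℝ] R3} (hκ : 0 < κ) (low : ∀ v, κ * ‖v‖ ≤ ‖L v‖) (b : R3)
    {r r' : ℝ} (hr : 0 < r) (h : r ≤ r') : P3 ⁻¹' par Cb L b r ⊆ P3 ⁻¹' par Cb L b r' := by
  rw [← aff3_image L hκ low 0 b hr, ← aff3_image L hκ low 0 b (hr.trans_le h)]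
  exact image_mono (closedBall_subset_closedBall h)

/-- a block of a brick in the good cube `(z, s)`: the conclusion of `ShD.block` -/
structure BlkC (F : Set (Bx (Fin 3))) (κ s τ hh c1 θ θ1 kl lam κ' κ2 κt Cc : ℝ) (Bs M Nn : ℕ) (z b : R3)
    (L : R3 →L[ℝ] R3) (c : F) (Q : CB E3 3) (A : E3 ≃ᵃ[ℝ] E3) (k0 : ℕ) (hk : Q.kc ≤ k0) : Prop where
  sub : Q.N ⊆ A ⁻¹' cbx c.1 ((1 + 2 * κ') * lam)
  core : Q.Kc = A ⁻¹' cbx c.1 lam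
  lin_eq : ∀ x, A.linear x = lam • Q.ψ x
  near : ∀ x ∈ closedBall (P3.symm z) s, ‖A x - P3.symm (Bk b L z (P3 x))‖ ≤ (kl + θ) * s
  blkP : BlkP κ s τ hh c1 θ θ1 Bs Nn z (mp P3 Q) k0
  tr : ∀ sh : E3, ∃ v : E3, ‖Q.ψ v‖ ≤ 1 / (20 * 2 ^ k0) ∧
    Blk F lam Cc κ2 κt Bs M Nn c (trA A (sh + v)) lam (Q.tr (sh + v)) k0 hk

/-- **[FAM]** -/
theorem exists_fam {La : Set R3} {F : Set (Bx (Fin 3))} {δ Md : ℝ}
    (BF : BoxFoam (P3 ⁻¹' La) F δ 3) (hLa : IsOpen La) (hcmp : Cmp F 6) (hMd : 0 < Md)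
    (hdy : ∀ C ∈ F, Dy 0 1 Md C) {Bs : ℕ} (hB1 : 1 ≤ Bs) (hB2 : 4 * (12 * Md) ^ 2 ≤ Bs)
    (hB3 : 8 * (12 * Md) ≤ Bs) (μ : ℕ)
    {κ s τ t hh c1 c2 θ θ1 kl lam κ' κ2 κt Cc : ℝ} {Nn : ℕ} {a₀ : R3}
    {Q₀ : Finset (Fin 3 → ℤ)} {b : (Fin 3 → ℤ) → R3} {L : (Fin 3 → ℤ) → R3 →L[ℝ] R3}
    (hκ : 0 < κ) (hκ1 : κ ≤ 1) (hL : ∀ k ∈ Q₀, (∀ v, κ * ‖v‖ ≤ ‖L k v‖) ∧ ‖L k‖ ≤ κ⁻¹)
    (hLa' : ∀ k ∈ Q₀, par Cb (L k) (b k) s ⊆ La)
    (hpar : ∀ k ∈ Q₀, ∀ l ∈ Q₀, k ≠ l →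
      Disjoint (par Cb (L k) (b k) ((1 - τ) * s)) (par Cb (L l) (b l) s))
    (hs : 0 < s) (hτ : 0 < τ) (hτ8 : τ ≤ 1 / 8)
    (hsz : ∀ C ∈ F, C.sz ≤ t)
    (hsz' : ∀ k ∈ Q₀, ∀ C ∈ F, ∀ x ∈ C.set, x ∈ P3 ⁻¹' par Cb (L k) (b k) s → t ≤ 6 * C.sz)
    (ht4 : t ≤ 1 / 4) (htτ : 2 * κ⁻¹ * t ≤ τ * s)
    (hlam : 1 / 2 ≤ lam) (hlam1 : lam < 1) (hκM : 11 ≤ 2 * κ' * 2 ^ μ) (hκ' : 0 ≤ κ')
    (hκ2 : 2 * κ' ≤ κ2) (hκl : (1 + 2 * κ') * lam ≤ (1 + lam) / 2) (hC1 : 1 ≤ Cc)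
    (hCB : 12 * Md ≤ Cc) (hkl0 : 0 ≤ kl) (hkl : kl + θ ≤ κ * τ / 16)
    (hnet : ∀ L : R3 →L[ℝ] R3, (∀ v, κ * ‖v‖ ≤ ‖L v‖) → ‖L‖ ≤ κ⁻¹ →
      ∀ u : ℝ, 1 / 2 ≤ u → u ≤ 1 →
      ∃ (ψ : E3 ≃L[ℝ] (Fin 3 → ℝ)), (∃ (d : ℕ) (Bm : Fin 3 → Fin 3 → ℤ), 0 < d ∧ d ≤ Nn ∧
        (∀ i j, |Bm i j| ≤ Nn) ∧ Rt (ContinuousLinearEquiv.refl ℝ E3) ψ Bm d) ∧
        ∀ v, ‖u • ψ v - L3 L v‖ ≤ kl * ‖v‖)
    (cL : c1 * s * (12 * Md * 2 ^ μ) ≤ t / 6) (cU : t ≤ hh * s * (2 * 2 ^ μ))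
    {k0 : ℕ} (h3k : 3 ≤ k0) (lo : θ1 * s ≤ 1 / 2 ^ k0) (hi : 1 / 2 ^ k0 ≤ θ * s) (hθc : θ ≤ c1)
    (hθt : θ ≤ κt * c1 * (12 * Md)) (hρ : (kl + θ) * s ≤ (1 - lam) * t / 144)
    (hc2 : c2 ≤ 2 * τ) (hc2' : c2 * s ≤ (1 - lam) * κ * t / 216) :
    ∃ (X₀ : Set F) (kk : F → Fin 3 → ℤ) (Q : F → CB E3 3) (A : F → E3 ≃ᵃ[ℝ] E3)
      (hk : ∀ c, (Q c).kc ≤ k0), X₀.Finite ∧
      (∀ c ∈ X₀, kk c ∈ Q₀ ∧
        c.1.set ⊆ P3 ⁻¹' par Cb (L (kk c)) (b (kk c)) ((1 - 4 * τ) * s) ∧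
        cbx c.1 2 ⊆ P3 ⁻¹' par Cb (L (kk c)) (b (kk c)) ((1 - 3 * τ) * s)) ∧
      (∀ k ∈ Q₀, ∀ c : F, c.1.set ⊆ P3 ⁻¹' par Cb (L k) (b k) ((1 - 4 * τ) * s) →
        c ∈ X₀ ∧ kk c = k) ∧
      (∀ c ∈ X₀, t ≤ 6 * c.1.sz ∧ c.1.sz ≤ t) ∧
      (∀ c ∈ X₀, BlkC F κ s τ hh c1 θ θ1 kl lam κ' κ2 κt Cc Bs (2 ^ μ) Nn (vt (2 * s) a₀ (kk c))
        (b (kk c)) (L (kk c)) c (Q c) (A c) k0 (hk c)) ∧
      ∀ c ∈ X₀, ∀ c' ∈ X₀, c ≠ c' → ∀ x ∈ (mp P3 (Q c)).N, ∀ y ∈ (mp P3 (Q c')).N,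
        c2 * s ≤ dist x y := by
  classical
  have r4 : 0 < (1 - 4 * τ) * s := mul_pos (by linarith) hs
  have r1 : 0 < (1 - τ) * s := mul_pos (by linarith) hs
  set X₀ : Set F := {c | ∃ k ∈ Q₀, c.1.set ⊆ P3 ⁻¹' par Cb (L k) (b k) ((1 - 4 * τ) * s)} with hX
  set kk : F → Fin 3 → ℤ := fun c =>
    if h : ∃ k ∈ Q₀, c.1.set ⊆ P3 ⁻¹' par Cb (L k) (b k) ((1 - 4 * τ) * s) then h.choose else 0
    with hkk
  have hkks : ∀ c ∈ X₀, kk c ∈ Q₀ ∧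
      c.1.set ⊆ P3 ⁻¹' par Cb (L (kk c)) (b (kk c)) ((1 - 4 * τ) * s) := by
    intro c hc
    have e : kk c = (show ∃ k ∈ Q₀, c.1.set ⊆ P3 ⁻¹' par Cb (L k) (b k) ((1 - 4 * τ) * s) from
      hc).choose := dif_pos hc
    rw [e]
    exact (show ∃ k ∈ Q₀, c.1.set ⊆ P3 ⁻¹' par Cb (L k) (b k) ((1 - 4 * τ) * s) from hc).choose_spec
  have hpos : ∀ c : F, c.1.Pos := fun c => BF.pos _ c.2
  have hlo : ∀ c : F, c.1.lo ∈ c.1.set := fun c => Bx.mem_set.2 fun i => ⟨le_rfl, (hpos c i).le⟩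
  have hkku : ∀ k ∈ Q₀, ∀ c : F, c.1.set ⊆ P3 ⁻¹' par Cb (L k) (b k) ((1 - 4 * τ) * s) →
      c ∈ X₀ ∧ kk c = k := by
    intro k hk c hc
    have hcX : c ∈ X₀ := ⟨k, hk, hc⟩
    refine ⟨hcX, ?_⟩
    by_contra hne
    obtain ⟨h1, h2⟩ := hkks c hcX
    have h3 := par_mono hκ (hL _ h1).1 (b (kk c)) r4 (by nlinarith : (1 - 4 * τ) * s ≤ (1 - τ) * s)
      (h2 (hlo c))
    have h4 := par_mono hκ (hL _ hk).1 (b k) r4 (by nlinarith : (1 - 4 * τ) * s ≤ s)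
      (hc (hlo c))
    exact Set.disjoint_left.1 (hpar _ h1 _ hk hne) h3 h4
  have hfin : X₀.Finite := by
    have hK : IsCompact (⋃ k ∈ Q₀, P3 ⁻¹' par Cb (L k) (b k) s) := by
      refine Q₀.isCompact_biUnion fun k _ => ?_
      rw [← ContinuousLinearEquiv.image_symm_eq_preimage]
      exact (isCompact_par Crest.Agent.R96.Coarse_538.ref_Cb.cpt _ _ _).image P3.symm.continuous
    have h1 := foam_fin BF hK (iUnion₂_subset fun k hk => preimage_mono (hLa' k hk))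
    refine Set.Finite.of_finite_image (f := Subtype.val) (h1.subset ?_) Subtype.val_injective.injOn
    rintro _ ⟨c, ⟨k, hk, hc⟩, rfl⟩
    exact ⟨c.2, c.1.lo, hlo c, mem_biUnion hk (par_mono hκ (hL _ hk).1 (b k) r4
      (by nlinarith : (1 - 4 * τ) * s ≤ s) (hc (hlo c)))⟩
  have hsize : ∀ c ∈ X₀, t ≤ 6 * c.1.sz ∧ c.1.sz ≤ t := by
    intro c hc
    obtain ⟨h1, h2⟩ := hkks c hc
    exact ⟨hsz' _ h1 _ c.2 _ (hlo c) (par_mono hκ (hL _ h1).1 _ r4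
      (by nlinarith : (1 - 4 * τ) * s ≤ s) (h2 (hlo c))), hsz _ c.2⟩
  have hbox : ∀ c ∈ X₀, cbx c.1 2 ⊆ P3 ⁻¹' par Cb (L (kk c)) (b (kk c)) ((1 - 3 * τ) * s) := by
    intro c hc
    obtain ⟨h1, h2⟩ := hkks c hc
    have low := (hL _ h1).1
    have r3 : 0 < (1 - 3 * τ) * s := mul_pos (by linarith) hs
    rw [← aff3_image _ hκ low (vt (2 * s) a₀ (kk c)) _ r3]
    rw [← aff3_image _ hκ low (vt (2 * s) a₀ (kk c)) _ r4] at h2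
    exact cbx_two_sub (hpos c) h2 (hsz _ c.2) (by positivity)
      (aff3_symm_lip _ hκ low _ _) (by linarith)
  -- the blocks
  have hblk : ∀ c : F, ∃ (Q : CB E3 3) (A : E3 ≃ᵃ[ℝ] E3) (hk : Q.kc ≤ k0), c ∈ X₀ →
      BlkC F κ s τ hh c1 θ θ1 kl lam κ' κ2 κt Cc Bs (2 ^ μ) Nn (vt (2 * s) a₀ (kk c))
        (b (kk c)) (L (kk c)) c Q A k0 hk := by
    intro c
    by_cases hc : c ∈ X₀
    · obtain ⟨h1, h2⟩ := hkks c hc
      obtain ⟨ht6, htc⟩ := hsize c hc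
      have e12 : (2 : ℝ) * 6 * Md = 12 * Md := by ring
      obtain ⟨S, kc, hS⟩ := exists_shD BF (P3.continuous.isOpen_preimage _ hLa)
        (by norm_num : (1:ℝ) ≤ 6) hcmp one_pos hMd hdy hB1
        (by rw [e12]; exact hB2) (by rw [e12]; exact hB3) μ c (htc.trans ht4)
      rw [e12] at hS
      have hM0 : 0 < 2 ^ μ := by positivity
      obtain ⟨Q, A, hk, g1, g2, g3, g4, g5, g6⟩ := hS.block (z := vt (2 * s) a₀ (kk c))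
        (b := b (kk c)) (κ' := κ') (κ2 := κ2) (Cc := Cc) (θ1 := θ1) (κt := κt) (Nn := Nn) (c1 := c1)
        (hh := hh) (kl := kl)
        hκ hκ1 (hL _ h1).1 (hL _ h1).2 hs hτ (by linarith) (by linarith : 0 < lam)
        one_pos (by linarith) (by linarith) hM0 (by exact_mod_cast hκM) hκ' hκ2 hκl (by positivity)
        hC1 hCB (fun l => (Bx.side_pos (hpos c) l).le) hkl0 hkl
        (hnet _ (hL _ h1).1 (hL _ h1).2 _ (by linarith) (by linarith))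
        ((cbx_mono (hpos c) (by linarith : (1 + 2 * κ') * lam ≤ 2)).trans (hbox c hc))
        (by
          push_cast
          have : c1 * s * (12 * Md * 2 ^ μ * 1) = c1 * s * (12 * Md * 2 ^ μ) := by ring
          linarith)
        (by
          push_cast
          have : hh * s * (2 * 2 ^ μ * 1) = hh * s * (2 * 2 ^ μ) := by ring
          linarith)
        lo hi hθc hθt
      simp only [mul_one] at g3 g6
      exact ⟨Q, A, hk, fun _ => ⟨g1, g2, g3, g4, g5, g6⟩⟩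
    · exact ⟨cb0, AffineEquiv.refl ℝ E3, h3k, fun h => absurd h hc⟩
  choose Q A hk hB using hblk
  refine ⟨X₀, kk, Q, A, hk, hfin, fun c hc => ⟨(hkks c hc).1, (hkks c hc).2, hbox c hc⟩, hkku,
    hsize, hB, ?_⟩
  have hN1 : ∀ c ∈ X₀, ∀ x ∈ (Q c).N, x ∈ closedBall (P3.symm (vt (2 * s) a₀ (kk c))) s := by
    intro c hc x hx
    have h1 := (hB c hc).blkP.sub ((mem_N_mp' P3 (Q c)).2 hx)
    have h2 : x ∈ P3 ⁻¹' cel Cb (vt (2 * s) a₀ (kk c)) ((1 - τ) * s) := h1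
    rw [cel_preimage _ r1] at h2
    exact closedBall_subset_closedBall (by nlinarith) h2
  intro c hc c' hc' hne
  have key := Dst_812.dist_all (BF := BF) (J := X₀) (kk := fun j => kk j.1) (cc := fun j => j.1)
    Subtype.val_injective (Q := fun j => Q j.1) (A := fun j => A j.1) (lam := lam) (t := t) (B := 18)
    (N := 3 * κ⁻¹) (ρ := 2 * ((kl + θ) * s)) (s := s) (τ := τ) (c2 := c2) (a₀ := a₀) hlam1.le
    (by norm_num) (by positivity) hs (by linarith) ?_ ?_ ?_ ?_ ?_ ?_ ?_ ?_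
  · exact key ⟨c, hc⟩ ⟨c', hc'⟩ fun h => hne (congrArg Subtype.val h)
  · intro j k
    have h1 := (hsize j.1 j.2).1
    have h2 := BF.asp _ j.1.2 k
    linarith
  · linarith
  · intro j x y
    obtain ⟨h1, -⟩ := hkks j.1 j.2
    have h2 := lin_close hs hκ (hL _ h1).1 (hB _ j.2).near
    have h3 : ‖lin (A j.1)‖ ≤ 3 * ‖L (kk j.1)‖ := norm_lin_le hκ (hL _ h1).1 (by
      have : κ * τ ≤ κ * 1 := mul_le_mul_of_nonneg_left (by linarith) hκ.le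
      linarith) h2
    rw [← lin_apply]
    refine ((lin (A j.1)).le_opNorm _).trans (mul_le_mul_of_nonneg_right ?_ (norm_nonneg _))
    exact h3.trans (mul_le_mul_of_nonneg_left (hL _ h1).2 (by norm_num))
  · intro i j hij y hy
    have hy' := hN1 j.1 j.2 y hy
    have h1 := (hB _ j.2).near y hy'
    have h2 := (hB _ i.2).near y (by
      have : kk i.1 = kk j.1 := hij
      rw [this]; exact hy')
    have e : kk i.1 = kk j.1 := hij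
    rw [e] at h2
    have e1 : A i.1 y - A j.1 y =
        (A i.1 y - P3.symm (Bk (b (kk j.1)) (L (kk j.1)) (vt (2 * s) a₀ (kk j.1)) (P3 y))) -
        (A j.1 y - P3.symm (Bk (b (kk j.1)) (L (kk j.1)) (vt (2 * s) a₀ (kk j.1)) (P3 y))) := by abel
    rw [e1]
    refine (norm_sub_le _ _).trans ?_
    linarith
  · intro j x hx
    exact cbx_mono (hpos j.1) hκl ((hB _ j.2).sub hx)
  · intro j
    exact (hB _ j.2).blkP.sub
  · have := mul_le_mul_of_nonneg_right hc2 hs.le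
    linarith
  · refine hc2'.trans (le_of_eq ?_)
    field_simp
    ring

end

end Crest.Agent.R096.Blk_212
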