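import Crest.Agent.R096.ThC6_766

/-!
Row 96 (S0127), helper766.  PL version of Theorem C of #4068: a locally finite generic Laguerre
system in the open set `L` and the collapse `th` with fibres
`th⁻¹(p) = p/C + conv {a k : k active at p}`, all core points `p/C + a k` outside the bad set `D`.
-/

set_option autoImplicit false
set_option linter.unusedSectionVars false
set_option linter.style.longLine false
set_option linter.style.haveILetI false
set_option linter.unusedVariables false

namespace Crest.Agent.R096.ThC7_766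

open MeasureTheory Set Filter Topology Metric
open Crest.Agent.R094.Env
open Crest.Agent.R096.ThC3_766
open Crest.Agent.R096.ThC4_766
open Crest.Agent.R096.ThC5_766
open Crest.Agent.R096.ThC6_766

variable {V : Type*} [NormedAddCommGroup V] [InnerProductSpace ℝ V]

/-- the set of active indices at `p`. -/
def act {ι : Type*} (a : ι → V) (c : ι → ℝ) (p : V) : Set ι :=
  {k | ∀ j, inner ℝ (a j) p - c j ≤ inner ℝ (a k) p - c k}

/-- A locally finite generic Laguerre system in `L` together with its collapse. -/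
structure Lag (L : Set V) (C : ℝ) (e : V → ℝ) (D : Set V) (S : Set V) (a : S → V) (c : S → ℝ)
    (Phi : V → ℝ) (th : V → V) : Prop where
  sub : S ⊆ L
  countable : S.Countable
  compact_fin : ∀ K : Set V, IsCompact K → K ⊆ L → (S ∩ K).Finite
  fin : ∀ p ∈ L, (act a c p).Finite
  ne : ∀ p ∈ L, (act a c p).Nonempty
  locfin : ∀ p ∈ L, {k | ∃ p' ∈ closedBall p (e p), k ∈ act a c p'}.Finite
  near_ctr : ∀ p ∈ L, ∀ k ∈ act a c p, ‖p - k‖ ≤ e p / 4
  indep : ∀ (I : Finset S) (p : V) (m : ℝ), (∀ i ∈ I, inner ℝ (a i) p - c i = m) → AI a I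
  ct : CT C Phi th
  near : ∀ y, ‖th y - y‖ ≤ e y / 2
  mem : ∀ y ∈ L, th y ∈ L
  fib : ∀ y ∈ L, ∃ z ∈ convexHull ℝ (a '' act a c (th y)), y = (1 / C) • th y + z
  fib' : ∀ p ∈ L, ∀ z ∈ convexHull ℝ (a '' act a c p), (1 / C) • p + z ∈ L ∧ th ((1 / C) • p + z) = p
  avoid : ∀ p ∈ L, ∀ k ∈ act a c p, (1 / C) • p + a k ∉ D
  core_near : ∀ p ∈ L, ∀ k ∈ act a c p, ‖p - ((1 / C) • p + a k)‖ ≤ e p / 8

/-- at most `n+1` active indices, affinely independent. -/
lemma Lag.affineIndependent {L : Set V} {C : ℝ} {e : V → ℝ} {D S : Set V} {a : S → V} {c : S → ℝ}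
    {Phi : V → ℝ} {th : V → V} (h : Lag L C e D S a c Phi th) (p : V) :
    AffineIndependent ℝ (fun k : act a c p => a k) := by
  apply affineIndependent_of_AI
  intro I hI
  rcases I.eq_empty_or_nonempty with rfl | ⟨i0, hi0⟩
  · intro w _ _ i hi; simp at hi
  refine h.indep I p (inner ℝ (a i0) p - c i0) fun i hi => le_antisymm (hI hi0 i) (hI hi i0)

lemma slope_sq {g : V → ℝ} {β : ℝ} (hβ : 0 < β) (h0 : ∀ y, 0 ≤ g y) {x p : V}
    (hp : ∀ y, g y ≤ g x + inner ℝ p (y - x) + β / 2 * ‖y - x‖ ^ 2) : ‖p‖ ^ 2 ≤ 2 * β * g x := by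
  have h1 := hp (x - (1 / β) • p)
  have h2 := h0 (x - (1 / β) • p)
  rw [sub_sub_cancel_left, inner_neg_right, real_inner_smul_right, real_inner_self_eq_norm_sq,
    norm_neg, norm_smul, Real.norm_eq_abs, abs_of_pos (by positivity)] at h1
  have h3 : β / 2 * (1 / β * ‖p‖) ^ 2 = 1 / β * ‖p‖ ^ 2 / 2 := by field_simp
  rw [h3] at h1
  have h4 : 1 / β * ‖p‖ ^ 2 / 2 ≤ g x := by linarith
  rw [div_le_iff₀ (by norm_num), one_div, inv_mul_le_iff₀ hβ] at h4
  linarith

lemma compact_fin_of_local {L S : Set V} {w : V → ℝ} (hw : Scale L w)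
    (hf : ∀ z ∈ L, (S ∩ closedBall z (w z)).Finite) {K : Set V} (hK : IsCompact K) (hKL : K ⊆ L) :
    (S ∩ K).Finite := by
  obtain ⟨t, htK, ht⟩ := hK.elim_nhds_subcover (fun z => closedBall z (w z))
    (fun z hz => closedBall_mem_nhds z (hw.pos z (hKL hz)))
  have : S ∩ K ⊆ ⋃ z ∈ t, (S ∩ closedBall z (w z)) := by
    intro x hx
    obtain ⟨z, hz⟩ := mem_iUnion.1 (ht hx.2)
    obtain ⟨hzt, hxz⟩ := mem_iUnion.1 hz
    exact mem_iUnion.2 ⟨z, mem_iUnion.2 ⟨hzt, hx.1, hxz⟩⟩
  exact (t.finite_toSet.biUnion fun z hz => hf z (hKL (htK z hz))).subset this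

/-- completing the square. -/
lemma legendre (C : ℝ) (hC : 0 < C) (a p y : V) (c : ℝ) :
    inner ℝ p y - (C / 2 * ‖y - a‖ ^ 2 + c) =
      ‖p‖ ^ 2 / (2 * C) + (inner ℝ a p - c) - C / 2 * ‖y - ((1 / C) • p + a)‖ ^ 2 := by
  have h1 : y - ((1 / C) • p + a) = (y - a) - (1 / C) • p := by abel
  rw [h1, norm_sub_sq_real (y - a), norm_smul, Real.norm_eq_abs, abs_of_pos (by positivity),
    real_inner_smul_right, inner_sub_left, real_inner_comm p y, real_inner_comm p a]
  field_simp
  ring

variable [FiniteDimensional ℝ V]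

set_option maxHeartbeats 4000000 in
/-- **PL version of Theorem C from a semiconcave function without contact points in `D`.** -/
theorem exists_lag_of {L : Set V} (hL : IsOpen L) {e : V → ℝ} (he : Scale L e) {β : ℝ} (hβ : 0 < β)
    (hβ1 : β ≤ 1 / 2) {g : V → ℝ} (hg : Continuous g) (hgSC : SC β g) (hg0 : ∀ x, 0 ≤ g x)
    (hge : ∀ x, g x ≤ β / 128 * e x ^ 2) {D : Set V} (hD : IsClosed D)
    (hcon : ∀ x ∈ D ∩ L, ∀ p, ¬ Contact g x p) :
    ∃ (S : Set V) (a : S → V) (c : S → ℝ) (Phi : V → ℝ) (th : V → V),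
      Lag L (1 + 2 * β) e D S a c Phi th := by
  classical
  have : ProperSpace V := FiniteDimensional.proper_real V
  have he0 := he.nonneg
  have hesq : ∀ x, e x ^ 2 ≤ 1 := fun x => by
    have := he0 x; have := he.le_one x; nlinarith
  have hgsub : SubQ g := subQ_of_bounded (M := 1) fun x => by
    rw [abs_of_nonneg (hg0 x)]
    have h1 := hge x
    have h2 := hesq x
    nlinarith
  -- the first envelope, only used for the gap
  obtain ⟨Ph, t0, hCT0, hle0, hmax0, -⟩ := envelope hg hgsub hgSC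
  set gap : V → ℝ := fun x => g x + ‖x‖ ^ 2 / 2 - Ph x with hgap
  have hgapc : Continuous gap := by
    have := hCT0.continuous
    fun_prop
  have hgap0 : ∀ x, 0 ≤ gap x := fun x => by have := hle0 x; simp only [hgap]; linarith
  have hgapD : ∀ x ∈ D ∩ L, 0 < gap x := by
    intro x hx
    refine lt_of_le_of_ne (hgap0 x) fun heq => hcon x hx (t0 x) fun y => ?_
    have h1 := hCT0.lower x y
    have h2 := hle0 y
    simp only [hgap] at heq
    linarith
  -- the function h
  set h : V → ℝ := fun z => ⨅ y : V, (if y ∈ D ∩ closedBall z (4 * e z) then gap y else 1) with hh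
  have hbdd : ∀ z, BddBelow (range fun y : V => (if y ∈ D ∩ closedBall z (4 * e z) then gap y else 1)) := by
    intro z
    refine ⟨0, ?_⟩
    rintro _ ⟨y, rfl⟩
    simp only
    split_ifs
    · exact hgap0 y
    · exact zero_le_one
  have hhle : ∀ z y, y ∈ D → ‖y - z‖ ≤ 4 * e z → h z ≤ gap y := by
    intro z y hy hyz
    have h1 := ciInf_le (hbdd z) y
    rwa [if_pos ⟨hy, by rw [mem_closedBall, dist_eq_norm]; exact hyz⟩] at h1
  have hhloc : ∀ x ∈ L, ∃ r : ℝ, 0 < r ∧ ∃ m : ℝ, 0 < m ∧ ∀ y ∈ ball x r,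
      m ≤ min (β / 1024 * e y ^ 2) (h y / 32) := by
    intro x hx
    have hex := he.pos x hx
    have hcomp : IsCompact (D ∩ closedBall x (6 * e x)) := (isCompact_closedBall _ _).inter_left hD
    have hsubL : closedBall x (6 * e x) ⊆ L := fun y hy => he.mem hx (by
      rw [mem_closedBall, dist_eq_norm] at hy
      linarith)
    obtain ⟨m, hm, hmle⟩ : ∃ m : ℝ, 0 < m ∧ ∀ y ∈ D ∩ closedBall x (6 * e x), m ≤ gap y := by
      rcases (D ∩ closedBall x (6 * e x)).eq_empty_or_nonempty with hem | hne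
      · exact ⟨1, one_pos, fun y hy => by rw [hem] at hy; exact absurd hy (notMem_empty y)⟩
      · obtain ⟨y, hy, hmin⟩ := hcomp.exists_isMinOn hne hgapc.continuousOn
        exact ⟨gap y, hgapD y ⟨hy.1, hsubL hy.2⟩, fun z hz => hmin hz⟩
    refine ⟨e x, hex, min (β / 1024 * (7 / 8 * e x) ^ 2) (min m 1 / 32), by positivity, fun y hy => ?_⟩
    rw [mem_ball, dist_eq_norm] at hy
    have h1 := he.lip x y
    rw [norm_sub_rev] at h1
    have h2 := he.lip y x
    refine min_le_min ?_ ?_
    · have : 7 / 8 * e x ≤ e y := by linarith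
      gcongr
    · have : min m 1 ≤ h y := by
        refine le_ciInf fun z => ?_
        split_ifs with hz
        · refine (min_le_left _ _).trans (hmle z ⟨hz.1, ?_⟩)
          have h3 := hz.2
          rw [mem_closedBall, dist_eq_norm] at h3 ⊢
          have h4 := norm_add_le (z - y) (y - x)
          rw [sub_add_sub_cancel] at h4
          linarith
        · exact min_le_right _ _
      linarith
  obtain ⟨w, hw, hwle⟩ := exists_scale hL hhloc
  have hwe : ∀ x, w x ≤ β / 1024 * e x ^ 2 := by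
    intro x
    by_cases hx : x ∈ L
    · exact (hwle x hx).trans (min_le_left _ _)
    · rw [hw.off x hx]; positivity
  have hwh : ∀ x ∈ L, w x ≤ h x / 32 := fun x hx => (hwle x hx).trans (min_le_right _ _)
  have hw1 := hw.le_one
  have hw0 := hw.nonneg
  have hwe' : ∀ x, w x ≤ e x / 8 := fun x => by
    have h1 := hwe x
    have h2 := he0 x
    have h3 := he.le_one x
    nlinarith
  obtain ⟨S, hSL, hScount, hSnet, hSfin⟩ := exists_net' hw
  have hcompfin : ∀ K : Set V, IsCompact K → K ⊆ L → (S ∩ K).Finite := fun K hK hKL =>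
    compact_fin_of_local hw hSfin hK hKL
  have hSballfin : ∀ p ∈ L, ∀ t : ℝ, t < 8 * e p → {k : S | ‖p - k‖ ≤ t}.Finite := by
    intro p hp t ht
    have h1 : (S ∩ closedBall p t).Finite := hcompfin _ (isCompact_closedBall _ _) fun y hy =>
      he.mem hp (by rw [mem_closedBall, dist_eq_norm] at hy; linarith)
    refine Set.Finite.of_finite_image (f := fun k : S => (k : V)) (h1.subset ?_)
      Subtype.val_injective.injOn
    rintro _ ⟨k, hk, rfl⟩
    refine ⟨k.2, ?_⟩
    rw [mem_closedBall, dist_comm, dist_eq_norm]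
    exact hk
  -- slopes at the net points
  choose s hs using hgSC
  have hs2 : ∀ x, ‖s x‖ ^ 2 ≤ 2 * β * g x := fun x => slope_sq hβ hg0 (hs x)
  have hs1 : ∀ x, ‖s x‖ ≤ 1 := fun x => by
    have h1 := hs2 x
    have h2 := hge x
    have h3 := hesq x
    have h4 : g x ≤ 1 := by nlinarith
    have h5 : ‖s x‖ ^ 2 ≤ 1 := by nlinarith [hg0 x]
    exact abs_le_of_sq_le_sq' (by simpa using h5) zero_le_one |>.2
  set C : ℝ := 1 + 2 * β with hC
  have hC0 : 0 < C := by positivity
  have hC1 : 1 ≤ C := by linarith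
  set a : S → V := fun k => (k : V) - (1 / C) • ((k : V) + s k) with ha
  set lo : S → ℝ := fun k => ‖(k : V)‖ ^ 2 / 2 + g k - ‖(k : V) + s k‖ ^ 2 / (2 * C) with hlo
  have : Countable S := hScount.to_subtype
  obtain ⟨c, hc, hgen⟩ := generic a lo (fun k => w k) (fun k => hw.pos k (hSL k.2))
  -- the paraboloids
  set q : S → V → ℝ := fun k y => C / 2 * ‖y - a k‖ ^ 2 + c k with hq
  set r : S → V → ℝ := fun k y => g k + (c k - lo k) + inner ℝ (s k) (y - k) + β * ‖y - k‖ ^ 2 with hr
  have hqr : ∀ k y, q k y = ‖y‖ ^ 2 / 2 + r k y := by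
    intro k y
    have h1 : y - a k = (y - k) + (1 / C) • ((k : V) + s k) := by simp only [ha]; abel
    have h2 : ‖y‖ ^ 2 = ‖(k : V)‖ ^ 2 + 2 * inner ℝ (k : V) (y - k) + ‖y - k‖ ^ 2 := by
      have := norm_add_sq_real (k : V) (y - k)
      rwa [add_sub_cancel] at this
    simp only [hq, hr, hlo]
    rw [h1, norm_add_sq_real, norm_smul, Real.norm_eq_abs, abs_of_pos (by positivity),
      real_inner_smul_right, inner_add_right, h2, real_inner_comm (k : V), real_inner_comm (s k)]
    have hCne : C ≠ 0 := hC0.ne'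
    have hβC : β = (C - 1) / 2 := by rw [hC]; ring
    rw [hβC]
    field_simp
    ring
  have hε0 : ∀ k, 0 ≤ c k - lo k := fun k => by have := (hc k).1; linarith
  have hε1 : ∀ k, c k - lo k ≤ w k := fun k => by have := (hc k).2; linarith
  -- (F1)
  have hF1 : ∀ (k : S) (y : V), g y + β / 2 * ‖y - k‖ ^ 2 ≤ r k y := by
    intro k y
    have h1 := hs k y
    have h2 := hε0 k
    simp only [hr]
    linarith
  have hr0 : ∀ k y, 0 ≤ r k y := fun k y => by
    have h1 := hF1 k y
    have h2 := hg0 y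
    have h3 : 0 ≤ β / 2 * ‖y - k‖ ^ 2 := by positivity
    linarith
  -- (F2)
  have hF2 : ∀ z ∈ L, ∃ k : S, ‖z - k‖ ≤ w z ∧ r k z ≤ g z + 8 * w z := by
    intro z hz
    obtain ⟨x, hxS, hxz⟩ := hSnet z hz
    refine ⟨⟨x, hxS⟩, hxz, ?_⟩
    simp only [hr]
    have h1 := hs z x
    have h2 := hε1 ⟨x, hxS⟩
    simp only at h2
    have h3 := hw.lip x z
    rw [norm_sub_rev] at h3
    have h4 := hw0 z
    have h5 := hw1 z
    have h6 : inner ℝ (s z) (x - z) ≤ w z := by
      calc inner ℝ (s z) (x - z) ≤ ‖s z‖ * ‖x - z‖ := real_inner_le_norm _ _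
        _ ≤ 1 * w z := by
          have := hs1 z
          rw [norm_sub_rev]; gcongr
        _ = w z := one_mul _
    have h7 : inner ℝ (s x) (z - x) ≤ w z := by
      calc inner ℝ (s x) (z - x) ≤ ‖s x‖ * ‖z - x‖ := real_inner_le_norm _ _
        _ ≤ 1 * w z := by
          have := hs1 x
          gcongr
        _ = w z := one_mul _
    have h8 : ‖z - x‖ ^ 2 ≤ w z := by nlinarith [norm_nonneg (z - x)]
    have h9 : ‖x - z‖ ^ 2 ≤ w z := by rw [norm_sub_rev]; exact h8
    have h10 : β / 2 * ‖x - z‖ ^ 2 ≤ w z := by nlinarith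
    have h11 : β * ‖z - x‖ ^ 2 ≤ w z := by nlinarith
    linarith
  -- (F3) the minimum is attained
  have hF3 : ∀ z ∈ L, ∃ k : S, (∀ j, r k z ≤ r j z) ∧ r k z ≤ g z + 8 * w z := by
    intro z hz
    obtain ⟨k0, hk0, hk0r⟩ := hF2 z hz
    have hez := he.pos z hz
    have hfin : {k : S | ‖z - k‖ ≤ e z}.Finite := hSballfin z hz (e z) (by linarith)
    obtain ⟨k, hk, hkmin⟩ := hfin.toFinset.exists_min_image (fun k => r k z)
      ⟨k0, by
        simp only [Set.Finite.mem_toFinset, mem_ofPred_eq]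
        have := hwe' z
        linarith⟩
    refine ⟨k, fun j => ?_, ?_⟩
    · by_cases hj : ‖z - j‖ ≤ e z
      · exact hkmin j (by simpa using hj)
      · push Not at hj
        have h1 := hkmin k0 (by
          simp only [Set.Finite.mem_toFinset, mem_ofPred_eq]
          have := hwe' z
          linarith)
        have h2 := hF1 j z
        have h3 := hwe z
        have h4 : e z ^ 2 ≤ ‖z - j‖ ^ 2 := by gcongr
        have h5 : β / 2 * e z ^ 2 ≤ β / 2 * ‖z - j‖ ^ 2 := by gcongr
        have h6 : 0 ≤ β * e z ^ 2 := by positivity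
        linarith
    · exact (hkmin k0 (by
          simp only [Set.Finite.mem_toFinset, mem_ofPred_eq]
          have := hwe' z
          linarith)).trans hk0r
  -- the new function
  set G : V → ℝ := fun z => if z ∈ L then ⨅ k, r k z else 0 with hG
  have hbddr : ∀ z, BddBelow (range fun k => r k z) := fun z => ⟨0, by rintro _ ⟨k, rfl⟩; exact hr0 k z⟩
  have hGmin : ∀ z ∈ L, ∃ k : S, G z = r k z ∧ (∀ j, r k z ≤ r j z) := by
    intro z hz
    obtain ⟨k, hk, -⟩ := hF3 z hz
    have : Nonempty S := ⟨k⟩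
    refine ⟨k, ?_, hk⟩
    simp only [hG, hz, if_true]
    exact le_antisymm (ciInf_le (hbddr z) k) (le_ciInf hk)
  have hGle : ∀ k z, G z ≤ r k z := by
    intro k z
    by_cases hz : z ∈ L
    · simp only [hG, hz, if_true]
      exact ciInf_le (hbddr z) k
    · simp only [hG, hz, if_false]; exact hr0 k z
  have hG0 : ∀ z, 0 ≤ G z := by
    intro z
    by_cases hz : z ∈ L
    · obtain ⟨k, hk, -⟩ := hGmin z hz
      rw [hk]; exact hr0 k z
    · simp [hG, hz]
  have hGoff : ∀ z ∉ L, G z = 0 := fun z hz => by simp [hG, hz]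
  have hGg : ∀ z ∈ L, g z ≤ G z := by
    intro z hz
    obtain ⟨k, hk, -⟩ := hGmin z hz
    rw [hk]
    have h1 := hF1 k z
    have h3 : 0 ≤ β / 2 * ‖z - k‖ ^ 2 := by positivity
    linarith
  have hGg8 : ∀ z ∈ L, G z ≤ g z + 8 * w z := by
    intro z hz
    obtain ⟨k, -, hk⟩ := hF3 z hz
    exact (hGle k z).trans hk
  have hGe : ∀ z, G z ≤ β / 64 * e z ^ 2 := by
    intro z
    by_cases hz : z ∈ L
    · have h1 := hGg8 z hz
      have h2 := hge z
      have h3 := hwe z
      have h4 : 0 ≤ β * e z ^ 2 := by positivity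
      linarith
    · rw [hGoff z hz]; positivity
  have hGSC : SC (2 * β) G := by
    intro z
    by_cases hz : z ∈ L
    · obtain ⟨k, hk, -⟩ := hGmin z hz
      refine ⟨s k + (2 * β) • (z - k), fun y => (hGle k y).trans ?_⟩
      rw [hk]
      simp only [hr]
      have h1 : ‖y - k‖ ^ 2 = ‖z - k‖ ^ 2 + 2 * inner ℝ (z - k) (y - z) + ‖y - z‖ ^ 2 := by
        have h2 : y - (k : V) = (z - k) + (y - z) := by abel
        rw [h2]; exact norm_add_sq_real _ _
      have h3 : inner ℝ (s k) (y - k) = inner ℝ (s k) (z - k) + inner ℝ (s k) (y - z) := by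
        rw [← inner_add_right]; congr 1; abel
      rw [h1, h3, inner_add_left, real_inner_smul_left]
      apply le_of_eq
      ring
    · refine ⟨0, fun y => ?_⟩
      rw [hGoff z hz, inner_zero_left]
      have h1 := hGe y
      have h2 := he.lip y z
      rw [he.off z hz] at h2
      have h3 : e y ^ 2 ≤ (‖y - z‖ / 8) ^ 2 := by
        have := he0 y
        gcongr
        linarith
      have h4 : 0 ≤ β * ‖y - z‖ ^ 2 := by positivity
      have h5 : β / 64 * e y ^ 2 ≤ β / 64 * (‖y - z‖ / 8) ^ 2 := by gcongr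
      nlinarith
  have hGc : Continuous G := SC_continuous hGSC
  have hGs : SubQ G := subQ_of_bounded (M := 1) fun x => by
    rw [abs_of_nonneg (hG0 x)]
    have h1 := hGe x
    have h2 := hesq x
    nlinarith
  obtain ⟨Phi, th, hCT, hle, hmax, hrepr⟩ := envelope hGc hGs hGSC
  have hgeq : ∀ x, ‖x‖ ^ 2 / 2 ≤ Phi x := by
    intro x
    have h1 := hmax x (-(‖x‖ ^ 2 / 2)) (fun y => by
      have h2 : 0 ≤ ‖y - x‖ ^ 2 := by positivity
      rw [norm_sub_sq_real, real_inner_comm] at h2
      have := hG0 y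
      linarith) x
    rw [real_inner_self_eq_norm_sq] at h1
    linarith
  have hnear : ∀ y, ‖th y - y‖ ≤ e y / 2 := by
    intro y
    have h1 := near_id_loc hCT (e := fun x => e x / 4) (fun x => by have := he0 x; positivity)
      (fun x y => by
        have := he.lip x y
        have := norm_nonneg (x - y)
        linarith) hgeq (fun x => by
        have h2 := hle x
        have h3 := hGe x
        have h4 : 0 ≤ e x ^ 2 := by positivity
        have h5 : β / 64 * e x ^ 2 ≤ (e x / 4) ^ 2 / 2 := by nlinarith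
        linarith) y
    linarith
  have hmem : ∀ y ∈ L, th y ∈ L := fun y hy => he.mem hy (by
    have := hnear y
    have := he.pos y hy
    linarith)
  -- Legendre duality
  have hleg : ∀ k p y, inner ℝ p y - q k y =
      ‖p‖ ^ 2 / (2 * C) + (inner ℝ (a k) p - c k) - C / 2 * ‖y - ((1 / C) • p + a k)‖ ^ 2 :=
    fun k p y => legendre C hC0 (a k) p y (c k)
  have hleg0 : ∀ k p, inner ℝ p ((1 / C) • p + a k) - q k ((1 / C) • p + a k) =
      ‖p‖ ^ 2 / (2 * C) + (inner ℝ (a k) p - c k) := fun k p => by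
    rw [hleg k p]; simp
  have hlegle : ∀ k p y, inner ℝ p y - q k y ≤ ‖p‖ ^ 2 / (2 * C) + (inner ℝ (a k) p - c k) :=
    fun k p y => by
      rw [hleg k p y]
      have : 0 ≤ C / 2 * ‖y - ((1 / C) • p + a k)‖ ^ 2 := by positivity
      linarith
  -- (F8)
  have hF8low : ∀ p ∈ L, ∃ k : S, ‖p - k‖ ≤ w p ∧
      ‖p‖ ^ 2 / 2 - β / 64 * e p ^ 2 ≤ ‖p‖ ^ 2 / (2 * C) + (inner ℝ (a k) p - c k) := by
    intro p hp
    obtain ⟨k, hk, hkr⟩ := hF2 p hp
    refine ⟨k, hk, ?_⟩
    have h1 := hlegle k p p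
    rw [hqr, real_inner_self_eq_norm_sq] at h1
    have h2 := hge p
    have h3 := hwe p
    have h4 : 0 ≤ β * e p ^ 2 := by positivity
    linarith
  have hF8up : ∀ (j : S) (p : V), ‖p‖ ^ 2 / (2 * C) + (inner ℝ (a j) p - c j) ≤
      ‖p‖ ^ 2 / 2 - ‖p - ((1 / C) • p + a j)‖ ^ 2 / 2 - β / 2 * ‖((1 / C) • p + a j) - j‖ ^ 2 := by
    intro j p
    rw [← hleg0 j p, hqr]
    set b := (1 / C) • p + a j with hb
    have h1 := hF1 j b
    have h2 := hg0 b
    have h3 : ‖p - b‖ ^ 2 = ‖p‖ ^ 2 - 2 * inner ℝ p b + ‖b‖ ^ 2 := norm_sub_sq_real _ _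
    linarith
  have hpar : ∀ (j : S) (p b : V), ‖p - j‖ ^ 2 ≤ 2 * ‖p - b‖ ^ 2 + 2 * ‖b - j‖ ^ 2 := by
    intro j p b
    have h1 := norm_add_le (p - b) (b - j)
    rw [sub_add_sub_cancel] at h1
    nlinarith [norm_nonneg (p - j), norm_nonneg (p - b), norm_nonneg (b - (j : V)),
      sq_nonneg (‖p - b‖ - ‖b - (j : V)‖)]
  have hclose : ∀ p ∈ L, ∀ j : S, (‖p‖ ^ 2 / 2 - β / 64 * e p ^ 2 ≤
      ‖p‖ ^ 2 / (2 * C) + (inner ℝ (a j) p - c j)) →
      ‖p - j‖ ≤ e p / 4 ∧ ‖p - ((1 / C) • p + a j)‖ ≤ e p / 8 := by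
    intro p hp j hj
    have h1 := hF8up j p
    have hep := he0 p
    have h2 : ‖p - ((1 / C) • p + a j)‖ ^ 2 / 2 + β / 2 * ‖((1 / C) • p + a j) - j‖ ^ 2 ≤
      β / 64 * e p ^ 2 := by linarith
    have h3 := hpar j p ((1 / C) • p + a j)
    have h4 : 0 ≤ ‖p - ((1 / C) • p + a j)‖ ^ 2 := by positivity
    have h5 : 0 ≤ β / 2 * ‖((1 / C) • p + a j) - (j : V)‖ ^ 2 := by positivity
    constructor
    · have h6 : β * ‖p - j‖ ^ 2 ≤ β * (e p / 4) ^ 2 := by nlinarith
      have h7 : ‖p - j‖ ^ 2 ≤ (e p / 4) ^ 2 := le_of_mul_le_mul_left h6 hβ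
      exact abs_le_of_sq_le_sq' h7 (by positivity) |>.2
    · have h6 : ‖p - ((1 / C) • p + a j)‖ ^ 2 ≤ (e p / 8) ^ 2 := by nlinarith [sq_nonneg (e p)]
      exact abs_le_of_sq_le_sq' h6 (by positivity) |>.2
  have hactlow : ∀ p ∈ L, ∀ k ∈ act a c p, ‖p‖ ^ 2 / 2 - β / 64 * e p ^ 2 ≤
      ‖p‖ ^ 2 / (2 * C) + (inner ℝ (a k) p - c k) := by
    intro p hp k hk
    obtain ⟨k0, -, hk0⟩ := hF8low p hp
    have := hk k0
    linarith
  have hactnear : ∀ p ∈ L, ∀ k ∈ act a c p, ‖p - k‖ ≤ e p / 4 ∧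
      ‖p - ((1 / C) • p + a k)‖ ≤ e p / 8 := fun p hp k hk =>
    hclose p hp k (hactlow p hp k hk)
  have hactfin : ∀ p ∈ L, (act a c p).Finite := fun p hp =>
    (hSballfin p hp (e p / 4) (by have := he.pos p hp; linarith)).subset
      fun k hk => (hactnear p hp k hk).1
  have hactne : ∀ p ∈ L, (act a c p).Nonempty := by
    intro p hp
    obtain ⟨k0, hk0, hk0l⟩ := hF8low p hp
    have hfin := hSballfin p hp (e p / 4) (by have := he.pos p hp; linarith)
    have hk0m : k0 ∈ hfin.toFinset := by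
      simp only [Set.Finite.mem_toFinset, mem_ofPred_eq]
      exact (hclose p hp k0 hk0l).1
    obtain ⟨k, hk, hkmax⟩ := hfin.toFinset.exists_max_image (fun k => inner ℝ (a k) p - c k)
      ⟨k0, hk0m⟩
    refine ⟨k, fun j => ?_⟩
    by_cases hj : ‖p - j‖ ≤ e p / 4
    · exact hkmax j (by simpa using hj)
    · by_contra hcon'
      push Not at hcon'
      have h1 := hkmax k0 hk0m
      exact hj (hclose p hp j (by linarith)).1
  -- (F10)
  have hF10 : ∀ p ∈ L, ∀ k ∈ act a c p, ∀ z, inner ℝ p z - (‖p‖ ^ 2 / (2 * C) +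
      (inner ℝ (a k) p - c k)) ≤ G z + ‖z‖ ^ 2 / 2 := by
    intro p hp k hk z
    by_cases hz : z ∈ L
    · obtain ⟨j, hj, -⟩ := hGmin z hz
      have h1 := hlegle j p z
      rw [hqr, ← hj] at h1
      have h2 := hk j
      linarith
    · rw [hGoff z hz]
      have h1 := hactlow p hp k hk
      have h2 : ‖z - p‖ ^ 2 = ‖z‖ ^ 2 - 2 * inner ℝ p z + ‖p‖ ^ 2 := by
        rw [norm_sub_sq_real, real_inner_comm]
      have h3 : 8 * e p ≤ ‖z - p‖ := by
        by_contra hcon'
        push Not at hcon'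
        exact hz (he.mem hp hcon')
      have h4 : (8 * e p) ^ 2 ≤ ‖z - p‖ ^ 2 := by
        have := he0 p
        gcongr
      have h5 : 0 ≤ e p ^ 2 := by positivity
      nlinarith
  have hbL : ∀ p ∈ L, ∀ k ∈ act a c p, (1 / C) • p + a k ∈ L := fun p hp k hk => he.mem hp (by
    have h1 := (hactnear p hp k hk).2
    rw [norm_sub_rev] at h1
    have := he.pos p hp
    linarith)
  have hfib' : ∀ p ∈ L, ∀ z ∈ convexHull ℝ (a '' act a c p),
      (1 / C) • p + z ∈ L ∧ th ((1 / C) • p + z) = p := by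
    intro p hp z hz
    obtain ⟨k0, hk0⟩ := hactne p hp
    set M : ℝ := ‖p‖ ^ 2 / (2 * C) + (inner ℝ (a k0) p - c k0) with hM
    have hMk : ∀ k ∈ act a c p, ‖p‖ ^ 2 / (2 * C) + (inner ℝ (a k) p - c k) = M := fun k hk => by
      have h1 := hk k0
      have h2 := hk0 k
      rw [hM]; linarith
    have hAle : ∀ y, inner ℝ p y + (-M) ≤ Phi y := by
      refine hmax p (-M) fun y => ?_
      have := hF10 p hp k0 hk0 y
      rw [← hM] at this
      linarith
    have hset : z ∈ {z | Phi ((1 / C) • p + z) ≤ inner ℝ p ((1 / C) • p + z) - M ∧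
        (1 / C) • p + z ∈ closedBall p (e p / 8)} := by
      refine convexHull_min ?_ ?_ hz
      · rintro _ ⟨k, hk, rfl⟩
        refine ⟨?_, by
          rw [mem_closedBall, dist_comm, dist_eq_norm]; exact (hactnear p hp k hk).2⟩
        have h1 := hle ((1 / C) • p + a k)
        have h2 := hGle k ((1 / C) • p + a k)
        have h3 := hleg0 k p
        rw [hqr, hMk k hk] at h3
        linarith
      · have hc1 : Convex ℝ {z | Phi ((1 / C) • p + z) ≤ inner ℝ p ((1 / C) • p + z) - M} := by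
          intro u hu v hv t t' ht ht' htt
          simp only [mem_ofPred_eq] at hu hv ⊢
          have h1 := hCT.convexOn.2 (mem_univ ((1 / C) • p + u)) (mem_univ ((1 / C) • p + v)) ht ht' htt
          have h2 : t • ((1 / C) • p + u) + t' • ((1 / C) • p + v) = (1 / C) • p + (t • u + t' • v) := by
            have : t' = 1 - t := by linarith
            subst this
            module
          rw [h2] at h1
          simp only [smul_eq_mul] at h1
          have h3 : inner ℝ p ((1 / C) • p + (t • u + t' • v)) =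
              t * inner ℝ p ((1 / C) • p + u) + t' * inner ℝ p ((1 / C) • p + v) := by
            rw [← h2, inner_add_right, real_inner_smul_right, real_inner_smul_right]
          rw [h3]
          have h4 := mul_le_mul_of_nonneg_left hu ht
          have h5 := mul_le_mul_of_nonneg_left hv ht'
          have h6 : t * M + t' * M = M := by rw [← add_mul, htt, one_mul]
          linarith
        have hc2 : Convex ℝ {z | (1 / C) • p + z ∈ closedBall p (e p / 8)} :=
          (convex_closedBall p (e p / 8)).translate_preimage_right ((1 / C) • p)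
        exact hc1.inter hc2
    obtain ⟨h1, h2⟩ := hset
    have hmemL : (1 / C) • p + z ∈ L := he.mem hp (by
      rw [mem_closedBall, dist_eq_norm] at h2
      have := he.pos p hp
      linarith)
    refine ⟨hmemL, ?_⟩
    symm
    apply hCT.slope_unique
    intro y
    have h3 := hAle y
    rw [inner_sub_right]
    linarith
  have hfib : ∀ y ∈ L, ∃ z ∈ convexHull ℝ (a '' act a c (th y)), y = (1 / C) • th y + z := by
    intro y hy
    set p := th y with hp
    have hpL : p ∈ L := hmem y hy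
    obtain ⟨ι, hι, wt, b, hwt, hwt1, hwtb, hb⟩ := hrepr y
    have hbk : ∀ i, ∃ k ∈ act a c p, b i = (1 / C) • p + a k := by
      intro i
      obtain ⟨hcont, -, -⟩ := hb i
      rw [← hp] at hcont
      have hbiL : b i ∈ L := by
        by_contra hnot
        have h1 : ∀ u : V, inner ℝ (-(p - b i)) u ≤ β * ‖u‖ ^ 2 := by
          intro u
          have h2 := contact_upper hGSC hcont u
          rw [hGoff _ hnot] at h2
          have h3 := hG0 (b i + u)
          rw [inner_neg_left]
          linarith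
        have h2 := eq_zero_of_quad h1
        rw [neg_eq_zero, sub_eq_zero] at h2
        exact hnot (h2 ▸ hpL)
      obtain ⟨k, hk, hkmin⟩ := hGmin (b i) hbiL
      have hineq : ∀ j z, q k (b i) + inner ℝ p (z - b i) ≤ q j z := by
        intro j z
        have h1 := hcont z
        have h2 := hGle j z
        rw [hqr, hqr, ← hk]
        linarith
      have hval : ∀ j, ‖p‖ ^ 2 / (2 * C) + (inner ℝ (a j) p - c j) ≤
          ‖p‖ ^ 2 / (2 * C) + (inner ℝ (a k) p - c k) - C / 2 * ‖b i - ((1 / C) • p + a k)‖ ^ 2 := by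
        intro j
        have h1 := hineq j ((1 / C) • p + a j)
        have h2 := hleg0 j p
        have h3 := hleg k p (b i)
        rw [inner_sub_right] at h1
        linarith
      refine ⟨k, fun j => ?_, ?_⟩
      · have h1 := hval j
        have h2 : 0 ≤ C / 2 * ‖b i - ((1 / C) • p + a k)‖ ^ 2 := by positivity
        linarith
      · have h1 := hval k
        have h2 : ‖b i - ((1 / C) • p + a k)‖ ^ 2 ≤ 0 := by
          by_contra hcon'
          push Not at hcon'
          have : 0 < C / 2 * ‖b i - ((1 / C) • p + a k)‖ ^ 2 := by positivity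
          linarith
        have h3 : ‖b i - ((1 / C) • p + a k)‖ = 0 := by
          have := norm_nonneg (b i - ((1 / C) • p + a k))
          nlinarith
        exact sub_eq_zero.1 (norm_eq_zero.1 h3)
    refine ⟨y - (1 / C) • p, ?_, by abel⟩
    choose kk hkk hbkk using hbk
    refine mem_convexHull_iff_exists_fintype.2
      ⟨ι, hι, wt, fun i => a (kk i), fun i => (hwt i).le, hwt1, fun i => ⟨kk i, hkk i, rfl⟩, ?_⟩
    have h1 : ∀ i, wt i • a (kk i) = wt i • b i - wt i • ((1 / C) • p) := by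
      intro i
      rw [hbkk i, ← smul_sub]
      congr 1
      abel
    simp only [h1, Finset.sum_sub_distrib, ← Finset.sum_smul, hwt1, one_smul, hwtb]
  refine ⟨S, a, c, Phi, th, ⟨hSL, hScount, hcompfin, hactfin, hactne, ?_, fun p hp k hk =>
    (hactnear p hp k hk).1, hgen, hCT, hnear, hmem, hfib, hfib', ?_, fun p hp k hk =>
    (hactnear p hp k hk).2⟩⟩
  · intro p hp
    have hep := he.pos p hp
    refine (hSballfin p hp (2 * e p) (by linarith)).subset ?_
    rintro k ⟨p', hp', hk⟩
    rw [mem_closedBall, dist_eq_norm] at hp'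
    have hp'L : p' ∈ L := he.mem hp (by linarith)
    have h1 := (hactnear p' hp'L k hk).1
    have h2 := he.lip p' p
    have h3 := norm_add_le (p - p') (p' - k)
    rw [sub_add_sub_cancel, norm_sub_rev p p'] at h3
    show ‖p - k‖ ≤ 2 * e p
    linarith
  · -- avoiding D
    intro p hp k hk hbD
    set b := (1 / C) • p + a k with hb
    have hbL' : b ∈ L := hbL p hp k hk
    have hgb := hgapD b ⟨hbD, hbL'⟩
    have hpb := (hactnear p hp k hk).2
    rw [← hb] at hpb
    have hep := he.pos p hp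
    set M : ℝ := ‖p‖ ^ 2 / (2 * C) + (inner ℝ (a k) p - c k) with hM
    have hAf : ∀ z, inner ℝ p z + (-M - gap b / 2) ≤ g z + ‖z‖ ^ 2 / 2 := by
      intro z
      by_cases hzp : ‖z - p‖ ≤ e p
      · have hzL : z ∈ L := he.mem hp (by linarith)
        have h1 := hF10 p hp k hk z
        rw [← hM] at h1
        have h2 := hGg8 z hzL
        have h3 := hwh z hzL
        have h4 := he.lip p z
        rw [norm_sub_rev] at h4
        have h5 : ‖b - z‖ ≤ 4 * e z := by
          have h6 := norm_add_le (b - p) (p - z)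
          rw [sub_add_sub_cancel, norm_sub_rev b p, norm_sub_rev p z] at h6
          linarith
        have h7 := hhle z b hbD h5
        linarith
      · push Not at hzp
        have h1 := hactlow p hp k hk
        rw [← hM] at h1
        have h2 : ‖z - p‖ ^ 2 = ‖z‖ ^ 2 - 2 * inner ℝ p z + ‖p‖ ^ 2 := by
          rw [norm_sub_sq_real, real_inner_comm]
        have h4 : (e p) ^ 2 ≤ ‖z - p‖ ^ 2 := by gcongr
        have h5 : 0 ≤ e p ^ 2 := by positivity
        have h6 := hg0 z
        nlinarith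
    have h1 := hmax0 p (-M - gap b / 2) hAf b
    have h2 := hleg0 k p
    rw [← hb, hqr, ← hM] at h2
    have h3 := hGg b hbL'
    have h4 := hGle k b
    have h5 : gap b = g b + ‖b‖ ^ 2 / 2 - Ph b := rfl
    linarith

end Crest.Agent.R096.ThC7_766
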