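import Crest.Agent.R096.Ho4_627
import Crest.Agent.R096.ThC7_766

/-!
Row 96 (S0127), helper627.  Hole-opening lemma for the collapse maps `Lag` of 766, for a family of
holes given by their IMAGES: points `p i ∈ L` and radii `R i`.
-/

set_option autoImplicit false
set_option linter.unusedSectionVars false
set_option linter.style.longLine false

namespace Crest.Agent.R096.Ho_627

open Set Metric Filter Topology
open Crest.Agent.R096.ThC3_766
open Crest.Agent.R096.ThC6_766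
open Crest.Agent.R096.ThC7_766

variable {V : Type*} [NormedAddCommGroup V] [InnerProductSpace ℝ V]
variable {L : Set V} {C : ℝ} {e : V → ℝ} {D S : Set V} {a : S → V} {c : S → ℝ}
    {Phi : V → ℝ} {th : V → V}

/-- every point of `L` is the image of a point off `D`. -/
lemma lag_center (h : Lag L C e D S a c Phi th) {p : V} (hp : p ∈ L) :
    ∃ y ∈ L, th y = p ∧ y ∉ D ∧ ‖p - y‖ ≤ e p / 8 := by
  obtain ⟨k, hk⟩ := h.ne p hp
  have h1 := h.fib' p hp (a k) (subset_convexHull ℝ _ ⟨k, hk, rfl⟩)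
  exact ⟨_, h1.1, h1.2, h.avoid p hp k hk, h.core_near p hp k hk⟩

/-- the hole-opening lemma for holes given by their images. `tag` is what we know of the centres. -/
theorem hole_opening_image [FiniteDimensional ℝ V] {ι : Type*} (hL : IsOpen L) (he : Scale L e)
    (hC2 : C ≤ 2) (mono : ∀ y y', 0 ≤ inner ℝ (th y - th y') (y - y'))
    (lip : ∀ y y', ‖th y - th y'‖ ≤ C * ‖y - y'‖) (near : ∀ y, ‖th y - y‖ ≤ e y)
    {Q : V → Prop} (p : ι → V) (R : ι → ℝ) (hex : ∀ i, ∃ y, th y = p i ∧ Q y)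
    (pos : ∀ i, 0 < R i) (small : ∀ i, R i ≤ e (p i) / 8)
    (disj : ∀ i j, i ≠ j → 2 * R i + 2 * R j < ‖p i - p j‖)
    (fin : ∀ q ∈ L, ∃ r : ℝ, 0 < r ∧ {i | (closedBall (p i) (2 * R i) ∩ ball q r).Nonempty}.Finite) :
    ∃ (yc : ι → V) (Th : V ≃ₜ V), (∀ i, th (yc i) = p i ∧ Q (yc i)) ∧
      (∀ y, y ∉ L → Th y = y) ∧ (∀ y, Th y ∈ L ↔ y ∈ L) ∧
      (∀ y, ‖Th y - y‖ ≤ 5 / 4 * e y) ∧
      (∀ y y', ‖Th y - Th y'‖ ≤ 25 / 2 * ‖y - y'‖) ∧
      (∀ i y, ‖y - yc i‖ ≤ R i / 16 → Th y = p i + (y - yc i)) ∧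
      (∀ i y, ‖Th y - p i‖ ≤ R i / 16 → y = yc i + (Th y - p i)) ∧
      (∀ y, th y = y → (∀ i, R i / 4 ≤ ‖y - yc i‖) → (∀ i, 2 * R i ≤ ‖y - p i‖) → Th y = y) := by
  choose yc hyc using hex
  have hp : ∀ i, th (yc i) = p i := fun i => (hyc i).1
  have H : Holes L C e th yc R :=
    { op := hL, sc := he, C2 := hC2, mono := mono, lip := lip, near := near, pos := pos
      small := fun i => by rw [hp]; exact small i
      disj := fun i j hij => by rw [hp, hp]; exact disj i j hij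
      fin := fun q hq => by
        obtain ⟨r, hr, hf⟩ := fin q hq
        refine ⟨r, hr, ?_⟩
        simp only [hp]
        exact hf }
  obtain ⟨Th, h1, h2, h3, h4, h5, h6, h7⟩ := hole_opening H
  simp only [hp] at h5 h6 h7
  exact ⟨yc, Th, hyc, h1, h2, h3, h4, h5, h6, h7⟩

/-- the hole-opening lemma for `Lag`: the centres are off `D`. -/
theorem hole_opening_lag [FiniteDimensional ℝ V] {ι : Type*} (hL : IsOpen L) (he : Scale L e)
    (hC : 0 < C) (hC2 : C ≤ 2) (h : Lag L C e D S a c Phi th)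
    (p : ι → V) (R : ι → ℝ) (hpL : ∀ i, p i ∈ L)
    (pos : ∀ i, 0 < R i) (small : ∀ i, R i ≤ e (p i) / 8)
    (disj : ∀ i j, i ≠ j → 2 * R i + 2 * R j < ‖p i - p j‖)
    (fin : ∀ q ∈ L, ∃ r : ℝ, 0 < r ∧ {i | (closedBall (p i) (2 * R i) ∩ ball q r).Nonempty}.Finite) :
    ∃ (yc : ι → V) (Th : V ≃ₜ V), (∀ i, th (yc i) = p i ∧ yc i ∈ L ∧ yc i ∉ D) ∧
      (∀ y, y ∉ L → Th y = y) ∧ (∀ y, Th y ∈ L ↔ y ∈ L) ∧
      (∀ y, ‖Th y - y‖ ≤ 5 / 4 * e y) ∧
      (∀ y y', ‖Th y - Th y'‖ ≤ 25 / 2 * ‖y - y'‖) ∧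
      (∀ i y, ‖y - yc i‖ ≤ R i / 16 → Th y = p i + (y - yc i)) ∧
      (∀ i y, ‖Th y - p i‖ ≤ R i / 16 → y = yc i + (Th y - p i)) ∧
      (∀ y, th y = y → (∀ i, R i / 4 ≤ ‖y - yc i‖) → (∀ i, 2 * R i ≤ ‖y - p i‖) → Th y = y) := by
  refine hole_opening_image (Q := fun y => y ∈ L ∧ y ∉ D) hL he hC2 (fun y y' => h.ct.mono y y') (fun y y' => ?_) (fun y => ?_)
    p R (fun i => ?_) pos small disj fin
  · have := (h.ct.lipschitz hC).dist_le_mul y y'
    rwa [dist_eq_norm, dist_eq_norm, Real.coe_toNNReal _ hC.le] at this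
  · have h1 := h.near y
    have h2 := he.nonneg y
    linarith
  · obtain ⟨y, hy, h1, h2, -⟩ := lag_center h (hpL i)
    exact ⟨y, h1, hy, h2⟩

end Crest.Agent.R096.Ho_627
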