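import Crest.Agent.R096.Lag1_766

/-!
Row 96 (S0127), helper766.  Fibres of the collapse maps.
-/

set_option autoImplicit false
set_option linter.unusedSectionVars false
set_option linter.style.longLine false

namespace Crest.Agent.R096.Lag2_766

open Set Filter Topology Metric
open Crest.Agent.R096.ThC3_766
open Crest.Agent.R096.ThC6_766
open Crest.Agent.R096.ThC7_766
open Crest.Agent.R096.ThC8_766
open Crest.Agent.R096.Lag1_766

variable {V : Type*} [NormedAddCommGroup V] [InnerProductSpace ℝ V]
variable {L : Set V} {C : ℝ} {e : V → ℝ} {D S : Set V} {a : S → V} {c : S → ℝ}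
    {Phi : V → ℝ} {th : V → V}

/-- the fibres of the gradient of a convex `C^{1,1}` function are convex. -/
theorem fiber_convex (h : CT C Phi th) (p : V) : Convex ℝ (th ⁻¹' {p}) := by
  intro x hx y hy s t hs ht hst
  rw [mem_preimage, mem_singleton_iff] at *
  have hxy : Phi y = Phi x + inner ℝ (th x) (y - x) := by
    apply le_antisymm
    · have := h.lower y x
      rw [hy, ← hx] at this
      have h2 : inner ℝ (th x) (x - y) = - inner ℝ (th x) (y - x) := by
        rw [← inner_neg_right, neg_sub]
      linarith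
    · exact h.lower x y
  have hmem : s • x + t • y ∈ convexHull ℝ ({x, y} : Set V) :=
    (convex_convexHull ℝ _) (subset_convexHull ℝ _ (by simp)) (subset_convexHull ℝ _ (by simp)) hs ht hst
  have h1 := h.const_on_hull (x := x) (s := {x, y}) (by
    intro z hz
    rcases hz with rfl | hz
    · simp
    · rw [mem_singleton_iff] at hz
      rw [hz]; exact hxy.le) hmem
  rw [h1.1, hx]

theorem fiber_closed (h : CT C Phi th) (hC : 0 < C) (p : V) : IsClosed (th ⁻¹' {p}) :=
  isClosed_singleton.preimage (h.lipschitz hC).continuous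

/-- the collapse maps `L` into `L` and the complement identically. -/
theorem th_off (he : Scale L e) (h : Lag L C e D S a c Phi th) {x : V} (hx : x ∉ L) : th x = x := by
  have h1 := h.near x
  rw [he.off x hx] at h1
  have h2 : ‖th x - x‖ = 0 := le_antisymm (by linarith) (norm_nonneg _)
  exact sub_eq_zero.1 (norm_eq_zero.1 h2)

theorem th_mem_iff (he : Scale L e) (h : Lag L C e D S a c Phi th) (x : V) : th x ∈ L ↔ x ∈ L := by
  constructor
  · intro hx
    by_contra hcon
    rw [th_off he h hcon] at hx
    exact hcon hx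
  · exact h.mem x

/-- the fibre over a point of `L`. -/
theorem fiber_eq (he : Scale L e) (h : Lag L C e D S a c Phi th) {p : V} (hp : p ∈ L) :
    th ⁻¹' {p} = (fun z => (1 / C) • p + z) '' convexHull ℝ (a '' act a c p) := by
  ext y
  rw [mem_preimage, mem_singleton_iff, mem_image]
  constructor
  · intro hy
    have hyL : y ∈ L := (th_mem_iff he h y).1 (hy ▸ hp)
    obtain ⟨z, hz, hyz⟩ := h.fib y hyL
    rw [hy] at hz hyz
    exact ⟨z, hz, hyz.symm⟩
  · rintro ⟨z, hz, rfl⟩
    exact (h.fib' p hp z hz).2

theorem fiber_subset (he : Scale L e) (h : Lag L C e D S a c Phi th) {p : V} (hp : p ∈ L) :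
    th ⁻¹' {p} ⊆ L := fun y hy => (th_mem_iff he h y).1 (by
  rw [mem_preimage, mem_singleton_iff] at hy
  rw [hy]; exact hp)

theorem fiber_compact (he : Scale L e) (h : Lag L C e D S a c Phi th) {p : V} (hp : p ∈ L) :
    IsCompact (th ⁻¹' {p}) := by
  rw [fiber_eq he h hp]
  refine IsCompact.image ?_ (by fun_prop)
  exact ((h.fin p hp).image a).isCompact_convexHull ℝ

theorem th_surj (he : Scale L e) (h : Lag L C e D S a c Phi th) : Function.Surjective th := by
  intro p
  by_cases hp : p ∈ L
  · obtain ⟨k, hk⟩ := h.ne p hp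
    exact ⟨_, (h.fib' p hp (a k) (subset_convexHull ℝ _ ⟨k, hk, rfl⟩)).2⟩
  · exact ⟨p, th_off he h hp⟩

end Crest.Agent.R096.Lag2_766
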