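import Crest.Agent.R096.ThCi2_766
import Crest.Agent.R096.Lag2_766

/-!
Row 96 (S0127), helper766.  **Scale invariant localised Theorem C**: the collapse is the identity off
the set `OO` of the points where `W` has density `> η` at some scale `< w`; `η` depends on `V`, `β`
only.
-/

set_option autoImplicit false
set_option linter.unusedSectionVars false
set_option linter.style.longLine false
set_option linter.style.haveILetI false
set_option linter.unusedVariables false

namespace Crest.Agent.R096.ThCi3_766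

open MeasureTheory Set Filter Topology Metric
open scoped ENNReal
open Crest.Agent.R094.Env
open Crest.Agent.R096.ThC2_766 Crest.Agent.R096.ThC3_766 Crest.Agent.R096.ThC4_766
open Crest.Agent.R096.ThC5_766 Crest.Agent.R096.ThC6_766 Crest.Agent.R096.ThC7_766
open Crest.Agent.R096.ThC8_766 Crest.Agent.R096.ThCi1_766 Crest.Agent.R096.ThCi2_766

variable {V : Type*} [NormedAddCommGroup V] [InnerProductSpace ℝ V]
variable [FiniteDimensional ℝ V] [MeasurableSpace V] [BorelSpace V]

set_option maxHeartbeats 1000000 in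
/-- the semiconcave function without contact points. -/
theorem exists_gi [Nontrivial V] {β : ℝ} (hβ : 0 < β) (hβ1 : β ≤ 1 / 2) :
    ∃ η : ℝ, 0 < η ∧ η < 1 ∧ ∀ {L : Set V}, IsOpen L → (Lᶜ).Nonempty → ∀ {w : V → ℝ}, Scale L w →
      ∀ {W : Set V}, IsOpen W → W ⊆ L →
      (∀ y ∈ L, (volume : Measure V).real (W ∩ ball y (w y)) ≤
        η * (volume : Measure V).real (ball y (w y))) →
      ∀ {D : Set V}, IsClosed D → D ∩ L ⊆ W →
      ∃ g : V → ℝ, Continuous g ∧ SC β g ∧ (∀ x, 0 ≤ g x) ∧
        (∀ x, g x ≤ β / 128 * (min (infDist x (OO η w W)ᶜ / 8) (w x / 16)) ^ 2) ∧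
        ∀ x ∈ D ∩ OO η w W, ∀ p, ¬ Contact g x p := by
  classical
  have : ProperSpace V := FiniteDimensional.proper_real V
  obtain ⟨N0, hN0⟩ := packing (V := V) (66 / 5)
  set N : ℕ := N0 + 1 with hN
  have hNpos : (0 : ℝ) < N := by rw [hN]; positivity
  set b : ℝ := β / (2 * N) with hb
  have hb0 : 0 < b := by positivity
  have hNb : 2 * N * b = β := by rw [hb]; field_simp
  have hb1 : b ≤ 1 := by
    have h1 : (1 : ℝ) ≤ N := by rw [hN]; push_cast; linarith [(Nat.cast_nonneg N0 : (0 : ℝ) ≤ N0)]
    rw [hb, div_le_iff₀ (by positivity)]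
    linarith
  set n := Module.finrank ℝ V with hn
  set η : ℝ := (b / 24576) ^ n / 2 with hη
  have hη0 : 0 < η := by positivity
  have hη1 : η < 1 := by
    have : (b / 24576) ^ n ≤ 1 := pow_le_one₀ (by positivity) (by linarith)
    rw [hη]; linarith
  refine ⟨η, hη0, hη1, ?_⟩
  intro L hL hLc w hw W hW hWL hden D hD hDW
  set O : Set V := OO η w W with hOdef
  have hO : IsOpen O := isOpen_OO hw η W
  have hOL : O ⊆ L := OO_subset hw η W
  have hne : (Oᶜ).Nonempty := hLc.mono (compl_subset_compl.2 hOL)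
  set e : V → ℝ := fun x => min (infDist x Oᶜ / 8) (w x / 16) with he
  have heS : Scale O e := scale_min hw hO hOL hne
  set u : V → ℝ := fun x => e x / 8 with hu
  have huS : Scale O u := by
    refine ⟨fun x => by have := heS.nonneg x; simp only [hu]; positivity, fun x y => ?_,
      fun x hx => by have := heS.pos x hx; simp only [hu]; positivity, fun x hx => by
        simp only [hu]; rw [heS.off x hx, zero_div], fun x => ?_⟩
    · have h1 := heS.lip x y
      have h2 := norm_nonneg (x - y)
      simp only [hu]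
      linarith
    · have := heS.le_one x
      simp only [hu]
      linarith
  obtain ⟨S, hSO, hSnet, hSsep⟩ := exists_net_sep huS
  have hupos : ∀ k ∈ S, 0 < u k := fun k hk => huS.pos k (hSO hk)
  -- comparison
  have hcmp : ∀ k ∈ S, ∀ y : V, ‖y - k‖ < 3 * u k → y ∈ O ∧ u k ≤ 8 / 5 * u y ∧ u y ≤ 11 / 8 * u k := by
    intro k hk y hy
    have h0 := hupos k hk
    refine ⟨huS.mem (hSO hk) (by linarith), ?_, ?_⟩
    · have h1 := huS.lip k y
      rw [norm_sub_rev] at h1
      linarith
    · have h1 := huS.lip y k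
      linarith
  -- overlap
  set T : V → Set V := fun y => {x | x ∈ S ∧ ‖y - x‖ < 3 * u x} with hT
  have hTN : ∀ y, (T y).Finite ∧ (T y).ncard ≤ N := by
    intro y
    rcases (T y).eq_empty_or_nonempty with h | ⟨x0, hx0⟩
    · rw [h]; simp
    · have hyO := (hcmp x0 hx0.1 y hx0.2).1
      have huy := huS.pos y hyO
      have h1 := hN0 y (4 / 11 * u y) (by positivity) (T y) (by
        intro a ha c hc hac
        have h2 := hSsep a ha.1 c hc.1 hac
        have h3 := (hcmp a ha.1 y ha.2).2.2
        linarith) (by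
        intro a ha
        have h3 := (hcmp a ha.1 y ha.2).2.1
        have h4 := ha.2
        rw [norm_sub_rev] at h4
        linarith)
      exact ⟨h1.1, h1.2.trans (by omega)⟩
  -- the bumps
  have hbump : ∀ k : S, ∃ g : V → ℝ, Continuous g ∧ SC b g ∧ (∀ x, 0 ≤ g x) ∧
        (∀ x, g x ≤ b * (3 / 2 * u k) ^ 2 / 8) ∧
        (∀ x : V, 2 * (3 / 2 * u k) ≤ ‖x - (k : V)‖ → g x = 0) ∧
        ∀ x ∈ D ∩ closedBall (k : V) (3 / 2 * u k), ∃ s : ℝ, 0 < s ∧ ∀ p : V,
          ¬ ∀ y ∈ closedBall x (2 * s), g x + inner ℝ p (y - x) - 2 / 2 * ‖y - x‖ ^ 2 ≤ g y := by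
    intro k
    have hk0 := hupos k k.2
    refine one_bump' (r := 3 / 2 * u k) (by positivity) hb0 hW ?_ hD ?_
    · have h1 := density hw hLc hη0 hden (hSO k.2) (t := 3 / 2 * (3 / 2 * u k)) (by
        change 3 / 2 * (3 / 2 * u k) ≤ e k
        have : e k = 8 * u k := by simp only [hu]; ring
        rw [this]; linarith) (by positivity)
      have h1' : (volume : Measure V).real (W ∩ ball (k : V) (3 / 2 * (3 / 2 * u k))) ≤
        η * ((128 * u k) ^ n * (volume : Measure V).real (ball (0 : V) 1)) := by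
        refine h1.trans (le_of_eq ?_)
        have e2 : 16 * min (infDist (k : V) (OO η w W)ᶜ / 8) (w k / 16) = 128 * u k := by
          change 16 * e k = 128 * u k
          simp only [hu]; ring
        rw [e2]
      have h2 : (volume : Measure V).real (closedBall (0 : V) (b * (3 / 2 * u k) / 48)) =
          (b * u k / 32) ^ n * (volume : Measure V).real (ball (0 : V) 1) := by
        rw [Measure.addHaar_real_closedBall volume (0 : V) (by positivity)]
        congr 2
        ring
      rw [h2]
      have hv := v1_pos (V := V)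
      have h3 : (3 * 2 : ℝ) ^ n * (η * ((128 * u k) ^ n * (volume : Measure V).real (ball (0 : V) 1)))
          = (b * u k / 32) ^ n * (volume : Measure V).real (ball (0 : V) 1) / 2 := by
        have e3 : (b * u k / 32) ^ n = (3 * 2 : ℝ) ^ n * (b / 24576) ^ n * (128 * u k) ^ n := by
          rw [← mul_pow, ← mul_pow]
          congr 1
          ring
        rw [e3, hη]
        ring
      calc (3 * 2 : ℝ) ^ n * (volume : Measure V).real (W ∩ ball (k : V) (3 / 2 * (3 / 2 * u k)))
          ≤ (3 * 2 : ℝ) ^ n * (η * ((128 * u k) ^ n * (volume : Measure V).real (ball (0 : V) 1))) := by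
            gcongr
        _ = (b * u k / 32) ^ n * (volume : Measure V).real (ball (0 : V) 1) / 2 := h3
        _ < (b * u k / 32) ^ n * (volume : Measure V).real (ball (0 : V) 1) := by
            have : 0 < (b * u k / 32) ^ n * (volume : Measure V).real (ball (0 : V) 1) := by positivity
            linarith
    · rintro x ⟨hxD, hx⟩
      apply hDW ⟨hxD, hOL _⟩
      rw [mem_closedBall, dist_eq_norm] at hx
      exact (hcmp k k.2 x (by linarith)).1
  choose g hgc hgSC hg0 hgm hgz hgn using hbump
  have hsup : ∀ y, ∀ k : S, g k y ≠ 0 → (k : V) ∈ T y := by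
    intro y k hk
    refine ⟨k.2, ?_⟩
    by_contra hcon
    push Not at hcon
    exact hk (hgz k y (by linarith))
  have hfin : ∀ y, (Function.support fun k => g k y).Finite := fun y =>
    Set.Finite.of_finite_image (f := fun k : S => (k : V))
      ((hTN y).1.subset (by rintro _ ⟨k, hk, rfl⟩; exact hsup y k hk)) Subtype.val_injective.injOn
  have hcard : ∀ y, (Function.support fun k => g k y).ncard ≤ N := fun y =>
    (Set.ncard_le_ncard_of_injOn (fun k : S => (k : V)) (fun k hk => hsup y k hk)
      Subtype.val_injective.injOn (hTN y).1).trans (hTN y).2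
  have hSC : SC β (fun x => ∑ᶠ k, g k x) := by
    rw [← hNb]
    exact SC_finsum hb0 hgSC hg0 hfin hcard
  refine ⟨fun x => ∑ᶠ k, g k x, SC_continuous hSC, hSC, fun x => finsum_nonneg fun k => hg0 k x, ?_, ?_⟩
  · -- the height
    intro x
    have h1 : ∑ᶠ k, g k x = ∑ k ∈ (hfin x).toFinset, g k x := by
      apply finsum_eq_sum_of_support_subset
      intro k hk
      exact (Set.Finite.mem_toFinset _).2 hk
    simp only
    rw [h1]
    have h2 : ∀ k ∈ (hfin x).toFinset, g k x ≤ β / (128 * N) * e x ^ 2 := by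
      intro k hk
      have hk' : g k x ≠ 0 := (hfin x).mem_toFinset.1 hk
      have h3 := hsup x k hk'
      have h4 := (hcmp k h3.1 x h3.2).2.1
      have h5 := hupos k h3.1
      have h6 : u k ≤ e x / 5 := by
        have : u x = e x / 8 := rfl
        linarith
      calc g k x ≤ b * (3 / 2 * u k) ^ 2 / 8 := hgm k x
        _ ≤ b * (3 / 2 * (e x / 5)) ^ 2 / 8 := by gcongr
        _ ≤ β / (128 * N) * e x ^ 2 := by
          rw [hb]
          have h7 : 0 ≤ β / N * e x ^ 2 := by positivity
          have e1 : β / (2 * N) * (3 / 2 * (e x / 5)) ^ 2 / 8 = 9 / 1600 * (β / N * e x ^ 2) := by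
            field_simp; ring
          have e2 : β / (128 * N) * e x ^ 2 = 1 / 128 * (β / N * e x ^ 2) := by field_simp
          rw [e1, e2]
          linarith
    have h3 : ((hfin x).toFinset.card : ℝ) ≤ N := by
      have := hcard x
      rw [Set.ncard_eq_toFinset_card _ (hfin x)] at this
      exact_mod_cast this
    calc ∑ k ∈ (hfin x).toFinset, g k x ≤ ∑ k ∈ (hfin x).toFinset, β / (128 * N) * e x ^ 2 :=
          Finset.sum_le_sum h2
      _ = (hfin x).toFinset.card * (β / (128 * N) * e x ^ 2) := by rw [Finset.sum_const, nsmul_eq_mul]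
      _ ≤ N * (β / (128 * N) * e x ^ 2) := by gcongr
      _ = β / 128 * e x ^ 2 := by field_simp
  · -- no contact
    rintro x ⟨hxD, hxO⟩ p hp
    obtain ⟨k0, hk0S, hk0⟩ := hSnet x hxO
    set k : S := ⟨k0, hk0S⟩ with hk
    have hxk : x ∈ closedBall (k : V) (3 / 2 * u k) := by
      rw [mem_closedBall, dist_eq_norm]
      have h1 := huS.lip x k0
      have h2 := hupos k0 hk0S
      change ‖x - k0‖ ≤ 3 / 2 * u k0
      linarith
    obtain ⟨s, hs, hns⟩ := hgn k x ⟨hxD, hxk⟩
    set g' : S → V → ℝ := fun j x => if j = k then 0 else g j x with hg'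
    have hsub : ∀ y, (Function.support fun j => g' j y) ⊆ Function.support fun j => g j y := by
      intro y j hj
      simp only [hg', Function.mem_support] at hj ⊢
      by_cases hjk : j = k
      · rw [if_pos hjk] at hj; exact absurd rfl hj
      · rwa [if_neg hjk] at hj
    have hSC' : SC β (fun x => ∑ᶠ j, g' j x) := by
      rw [← hNb]
      refine SC_finsum hb0 ?_ ?_ (fun y => (hfin y).subset (hsub y))
        (fun y => (Set.ncard_le_ncard (hsub y) (hfin y)).trans (hcard y))
      · intro j
        by_cases hj : j = k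
        · simp only [hg', hj, if_true]; exact SC_zero hb0.le
        · simp only [hg', hj, if_false]; exact hgSC j
      · intro j y
        by_cases hj : j = k
        · simp [hg', hj]
        · simp only [hg', hj, if_false]; exact hg0 j y
    have hdec : ∀ y, ∑ᶠ j, g j y = g k y + ∑ᶠ j, g' j y := by
      intro y
      have e1 : (fun j => g j y) = fun j => (if j = k then g k y else 0) + g' j y := by
        funext j
        by_cases hj : j = k
        · simp [hg', hj]
        · simp [hg', hj]
      rw [e1, finsum_add_distrib]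
      · congr 1
        rw [finsum_eq_single _ k]
        · simp
        · intro j hj; simp [hj]
      · refine (Set.finite_singleton k).subset fun j hj => ?_
        by_contra hjk
        rw [Function.mem_support] at hj
        apply hj
        rw [if_neg]
        exact fun h => hjk h
      · exact (hfin y).subset (hsub y)
    obtain ⟨q, hq⟩ := hSC' x
    refine hns (p - x - q) fun y hy => ?_
    have h1 := hp y
    simp only at h1 hq
    rw [hdec x, hdec y] at h1
    have h2 := hq y
    have h5 : ‖y‖ ^ 2 = ‖x‖ ^ 2 + 2 * inner ℝ x (y - x) + ‖y - x‖ ^ 2 := by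
      have := norm_add_sq_real x (y - x)
      rwa [add_sub_cancel] at this
    rw [inner_sub_left, inner_sub_left]
    have h6 : β / 2 * ‖y - x‖ ^ 2 ≤ 1 / 2 * ‖y - x‖ ^ 2 := by gcongr; linarith
    linarith

/-- **Scale invariant localised Laguerre system.** -/
theorem exists_lagi [Nontrivial V] {β : ℝ} (hβ : 0 < β) (hβ1 : β ≤ 1 / 2) :
    ∃ η : ℝ, 0 < η ∧ η < 1 ∧ ∀ {L : Set V}, IsOpen L → (Lᶜ).Nonempty → ∀ {w : V → ℝ}, Scale L w →
      ∀ {W : Set V}, IsOpen W → W ⊆ L →
      (∀ y ∈ L, (volume : Measure V).real (W ∩ ball y (w y)) ≤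
        η * (volume : Measure V).real (ball y (w y))) →
      ∀ {D : Set V}, IsClosed D → D ∩ L ⊆ W →
      ∃ (S : Set V) (a : S → V) (c : S → ℝ) (Phi : V → ℝ) (th : V → V),
        Lag (OO η w W) (1 + 2 * β) (fun x => min (infDist x (OO η w W)ᶜ / 8) (w x / 16))
          D S a c Phi th := by
  obtain ⟨η, hη, hη1, h⟩ := exists_gi (V := V) hβ hβ1
  refine ⟨η, hη, hη1, ?_⟩
  intro L hL hLc w hw W hW hWL hden D hD hDW
  obtain ⟨g, hg, hgSC, hg0, hge, hcon⟩ := h hL hLc hw hW hWL hden hD hDW
  have hO : IsOpen (OO η w W) := isOpen_OO hw η W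
  exact exists_lag_of hO (scale_min hw hO (OO_subset hw η W)
    (hLc.mono (compl_subset_compl.2 (OO_subset hw η W)))) hβ hβ1 hg hgSC hg0 hge hD hcon

/-- **The collapse used for the cores**: every point `p` of `L` is the image of a point which is not
in `D`. -/
theorem exists_thi [Nontrivial V] {β : ℝ} (hβ : 0 < β) (hβ1 : β ≤ 1 / 2) :
    ∃ η : ℝ, 0 < η ∧ η < 1 ∧ ∀ {L : Set V}, IsOpen L → (Lᶜ).Nonempty → ∀ {w : V → ℝ}, Scale L w →
      ∀ {W : Set V}, IsOpen W → W ⊆ L →
      (∀ y ∈ L, (volume : Measure V).real (W ∩ ball y (w y)) ≤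
        η * (volume : Measure V).real (ball y (w y))) →
      ∀ {D : Set V}, IsClosed D → D ∩ L ⊆ W →
      ∃ (Phi : V → ℝ) (th : V → V), CT (1 + 2 * β) Phi th ∧ (∀ y ∉ OO η w W, th y = y) ∧
        (∀ y, ‖th y - y‖ ≤ w y / 16) ∧ (∀ y, th y ∈ L ↔ y ∈ L) ∧ (∀ y, th y ∈ OO η w W ↔ y ∈ OO η w W) ∧
        ∀ p ∈ L, ∃ y ∈ L, th y = p ∧ ‖p - y‖ ≤ w p / 16 ∧ y ∉ D := by
  obtain ⟨η, hη, hη1, h⟩ := exists_lagi (V := V) hβ hβ1
  refine ⟨η, hη, hη1, ?_⟩
  intro L hL hLc w hw W hW hWL hden D hD hDW
  obtain ⟨S, a, c, Phi, th, hlag⟩ := h hL hLc hw hW hWL hden hD hDW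
  have hO : IsOpen (OO η w W) := isOpen_OO hw η W
  have hOL := OO_subset hw η W
  have heS : Scale (OO η w W) (fun x => min (infDist x (OO η w W)ᶜ / 8) (w x / 16)) :=
    scale_min hw hO hOL (hLc.mono (compl_subset_compl.2 hOL))
  have hoff : ∀ y ∉ OO η w W, th y = y := fun y hy => Lag2_766.th_off heS hlag hy
  have hmemO : ∀ y, th y ∈ OO η w W ↔ y ∈ OO η w W := fun y => Lag2_766.th_mem_iff heS hlag y
  have hew : ∀ x, min (infDist x (OO η w W)ᶜ / 8) (w x / 16) ≤ w x / 16 := fun x => min_le_right _ _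
  refine ⟨Phi, th, hlag.ct, hoff, fun y => ?_, fun y => ?_, hmemO, fun p hp => ?_⟩
  · have h1 := hlag.near y
    have h2 := hew y
    have h3 := heS.nonneg y
    linarith
  · by_cases hy : y ∈ OO η w W
    · exact ⟨fun _ => hOL hy, fun _ => hOL ((hmemO y).2 hy)⟩
    · rw [hoff y hy]
  · by_cases hpO : p ∈ OO η w W
    · obtain ⟨k, hk⟩ := hlag.ne p hpO
      have hz : a k ∈ convexHull ℝ (a '' act a c p) := subset_convexHull _ _ (mem_image_of_mem a hk)
      obtain ⟨h1, h2⟩ := hlag.fib' p hpO (a k) hz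
      refine ⟨_, hOL h1, h2, ?_, hlag.avoid p hpO k hk⟩
      have h3 := hlag.core_near p hpO k hk
      have h4 := hew p
      have h5 := heS.nonneg p
      linarith
    · refine ⟨p, hp, hoff p hpO, ?_, fun hD' => hpO ?_⟩
      · rw [sub_self, norm_zero]
        have := hw.nonneg p
        positivity
      · exact subset_OO hw hη1 hW hWL (hDW ⟨hD', hp⟩)

end Crest.Agent.R096.ThCi3_766
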