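import Crest.Agent.R096.Bks3_896
import Crest.Agent.R096.EaX1_766
import Crest.Agent.R096.Toph1_766

/-!
Row 96 (S0127), helper764, NO0 `p ≥ 3`, leaf (Q4) `blocks3` of 899 #11058: the neighbourhoods `N c` of
the exact cores have small total volume and small energy, on the `E3` side, from 896's
`blocks_small_good` (BLOCKS-SMALL).
-/

set_option autoImplicit false
set_option linter.unusedSectionVars false
set_option linter.unusedVariables false
set_option linter.style.longLine false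

open MeasureTheory Set Filter Topology Metric
open scoped ENNReal NNReal

namespace Crest.Agent.R096.Blk_764

open Crest.AnalysisR.VecCalc3 Crest.AnalysisR.Sobolev
open Crest.Agent.R96.Lu_538 Crest.Agent.R096.Sel_766 Crest.Agent.R096.Osc_802
open Crest.Agent.R096.VolC2_766 Crest.Agent.R096.Toph_766
open Crest.Agent.R096.Bks_896
open Crest.Agent.R96.En10_199 (P3 P3_mp P3_apply)
open Crest.Agent.R096.Er_594
open Crest.Agent.R096.SkC1_961 (E3)
open Crest.Agent.R096.EaX_766 (cbx lin)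

noncomputable section

theorem P3_emb : MeasurableEmbedding (P3 : (Fin 3 → ℝ) → R3) :=
  P3.toHomeomorph.measurableEmbedding

theorem vol_P3 (S : Set R3) : volume (P3 ⁻¹' S) = volume S := P3_mp.measure_preimage_emb P3_emb S

theorem vol_P3_symm (S : Set E3) : volume (P3.symm ⁻¹' S) = volume S := by
  have h := vol_P3 (P3.symm ⁻¹' S)
  have e : P3 ⁻¹' (P3.symm ⁻¹' S) = S := by ext x; simp
  rw [e] at h
  exact h.symm

/-- linear maps bounded below are onto -/
theorem surj_of_LM {m : ℝ} (hm : 0 < m) {A : R3 →L[ℝ] R3} (hA : A ∈ LM m) :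
    Function.Surjective A := by
  have hinj : Function.Injective (A : R3 →ₗ[ℝ] R3) := by
    intro v w hvw
    have h1 := (hA (v - w)).1
    have h2 : A (v - w) = 0 := by rw [map_sub]; exact sub_eq_zero.2 hvw
    rw [h2, norm_zero] at h1
    have h3 : ‖v - w‖ = 0 := by
      have := norm_nonneg (v - w)
      nlinarith
    exact sub_eq_zero.1 (norm_eq_zero.1 h3)
  exact (LinearMap.injective_iff_surjective (f := (A : R3 →ₗ[ℝ] R3))).1 hinj

/-- the scaling factors of the rows -/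
def cg (Gc : ℝ) (j : Fin 3) : ℝ := if j = 2 then Gc else 1

theorem det_zero_gm {L : E3 →L[ℝ] E3} {a : Fin 3 → R3} {Gc : ℝ}
    (ha : ∀ j, a j = cg Gc j • row L j) (hL : L.det = 0) : (gmatL a).det = 0 := by
  have h1 : LinearMap.det (L : E3 →ₗ[ℝ] E3) = 0 := hL
  have h2 := LinearMap.bot_lt_ker_of_det_eq_zero h1
  obtain ⟨v, hv, hv0⟩ := Submodule.exists_mem_ne_zero_of_ne_bot h2.ne'
  have h3 : L v = 0 := by simpa using hv
  have h4 : gmatL a (P3 v) = 0 := by
    ext j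
    rw [gmatL_apply, ha, real_inner_smul_left, inner_row, h3]
    simp
  by_contra hne
  have h5 : IsUnit (LinearMap.det (gmatL a : R3 →ₗ[ℝ] R3)) := isUnit_iff_ne_zero.2 hne
  have h6 : (LinearMap.equivOfIsUnitDet h5) (P3 v) = 0 := by
    rw [LinearMap.equivOfIsUnitDet_apply]
    simpa using h4
  have h7 : P3 v = 0 := (LinearEquiv.map_eq_zero_iff _).1 h6
  exact hv0 (by simpa using h7)

/-- rows against columns -/
theorem rows_le_cols {p : ℝ} (hp : 1 ≤ p) (L : E3 →L[ℝ] E3) (s : Fin 3 → ℝ) :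
    ∑ j, ‖row L j - EuclideanSpace.single j (s j)‖ₑ ^ p ≤
      3 ^ p * ∑ l, ‖P3 (L (Pi.single l 1)) - EuclideanSpace.single l (s l)‖ₑ ^ p := by
  set b : Fin 3 → ℝ≥0∞ := fun l => ‖P3 (L (Pi.single l 1)) - EuclideanSpace.single l (s l)‖ₑ with hb
  have h1 : ∀ j, ‖row L j - EuclideanSpace.single j (s j)‖ₑ ≤ ∑ l, b l := by
    intro j
    have h2 : row L j - EuclideanSpace.single j (s j) = ∑ i, EuclideanSpace.single i
        ((row L j - EuclideanSpace.single j (s j)) i) := by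
      ext k
      simp [Finset.sum_apply]
    rw [h2]
    refine (enorm_sum_le _ _).trans (Finset.sum_le_sum fun i _ => ?_)
    show _ ≤ ‖P3 (L (Pi.single i 1)) - EuclideanSpace.single i (s i)‖ₑ
    rw [← ofReal_norm, ← ofReal_norm]
    apply ENNReal.ofReal_le_ofReal
    rw [PiLp.norm_single]
    have h3 : (row L j - EuclideanSpace.single j (s j)) i =
        (P3 (L (Pi.single i 1)) - EuclideanSpace.single i (s i)) j := by
      rw [PiLp.sub_apply, PiLp.sub_apply, row_apply, P3_apply]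
      by_cases hij : i = j
      · subst hij; rfl
      · simp [hij, Ne.symm hij]
    rw [h3]
    exact PiLp.norm_apply_le _ j
  calc ∑ j, ‖row L j - EuclideanSpace.single j (s j)‖ₑ ^ p
      ≤ ∑ _j : Fin 3, (∑ l, b l) ^ p := Finset.sum_le_sum fun j _ =>
        ENNReal.rpow_le_rpow (h1 j) (by linarith)
    _ = 3 * (∑ l, b l) ^ p := by
        rw [Finset.sum_const, Finset.card_univ, Fintype.card_fin, nsmul_eq_mul]; norm_num
    _ ≤ 3 * (3 ^ (p - 1) * ∑ l, b l ^ p) := by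
        gcongr
        have := ENNReal.rpow_sum_le_const_mul_sum_rpow (Finset.univ : Finset (Fin 3)) b hp
        simpa using this
    _ = 3 ^ p * ∑ l, b l ^ p := by
        rw [← mul_assoc]
        congr 1
        have e : (3:ℝ≥0∞) ^ p = 3 ^ (1 : ℝ) * 3 ^ (p - 1) := by
          rw [← ENNReal.rpow_add _ _ (by norm_num) (by norm_num)]
          congr 1; ring
        rw [e, ENNReal.rpow_one]

/-- the constant of `blocks3` -/
def C3 (p Gc C0 lam0 : ℝ) : ℝ≥0∞ :=
  ENNReal.ofReal ((3 * C0 / lam0) ^ p) * (Cb p * (ENNReal.ofReal (Gc ^ p) * 3 ^ p))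

theorem C3_ne_top {p Gc C0 lam0 : ℝ} (hp : 1 ≤ p) : C3 p Gc C0 lam0 ≠ ∞ := by
  unfold C3
  refine ENNReal.mul_ne_top ENNReal.ofReal_ne_top (ENNReal.mul_ne_top (Cb_ne_top hp)
    (ENNReal.mul_ne_top ENNReal.ofReal_ne_top ?_))
  exact ENNReal.rpow_ne_top_of_nonneg (by linarith) (by norm_num)

/-- **(Q4) BLOCKS ON THE `E3` SIDE.** `G₁` = rows of `D`, the last one multiplied by `Gc` (the map
`Γ ∘ f`); `N c` = enlarged preimage of the core box, `K c ⊆ N c` the preimage of the core box. -/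
theorem blocks3 {p : ℝ} (hp : 1 ≤ p) {Gc C0 lam0 θ σ : ℝ} (hGc : 1 ≤ Gc) (hC0 : 0 ≤ C0)
    (hlam0 : 0 < lam0) (hθ : 0 < θ) (hσ : 0 < σ) {Om : Set E3} (hOm : IsOpen Om)
    {D : E3 → E3 →L[ℝ] E3}
    {Ω : Set R3} (hΩ : Ω = P3.symm ⁻¹' Om)
    {f₁ : R3 → R3} {G₁ : Fin 3 → R3 → R3}
    (hGm : ∀ j, AEStronglyMeasurable (G₁ j) (volume.restrict Ω))
    (hGD : ∀ᵐ x : E3, x ∈ Om → ∀ j, G₁ j (P3 x) = cg Gc j • row (D x) j)
    {μ κ δ : R3 → ℝ} (hμ : ∀ x ∈ Ω, 0 < μ x) (hκ : ∀ x ∈ Ω, κ x ≤ kf p θ σ (μ x))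
    {I : Type*} [Countable I] {ξ t P : I → R3} {R sz lam : I → ℝ} {A : I → E3 ≃ᵃ[ℝ] E3}
    {N K : I → Set E3} (hξ : ∀ c, ξ c ∈ EE Ω f₁ G₁ p μ κ δ)
    (hgood : ∀ c, GoodAt Ω f₁ G₁ p κ (ξ c) (4 * R c / μ (ξ c)))
    (hR : ∀ c, 0 < R c) (hRs : ∀ c, 4 * R c ≤ σ * sz c)
    (hN : ∀ c, MeasurableSet (N c)) (hNd : Pairwise (Function.onFun Disjoint N))
    (hNc : ∀ c, N c ⊆ P3 ⁻¹' cube (ξ c) (4 * R c / μ (ξ c)))
    (hNA : ∀ c x, ‖Aff f₁ G₁ (ξ c) (t c) (P3 x) - P c‖ ≤ θ * sz c → x ∈ N c)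
    (hKN : ∀ c, K c ⊆ N c) (hl : ∀ c, lam0 ≤ lam c)
    (hlin : ∀ c, ‖lin (A c)‖ ≤ C0 * ‖Gmat G₁ (ξ c)‖) :
    volume (⋃ c, N c) ≤ 2 * volume (Om \ {x | (D x).det = 0}) ∧
    ∀ s : Fin 3 → ℝ, s 2 = 0 →
      ∑' c, ENNReal.ofReal ((1 / lam c * ‖lin (A c)‖) ^ p) * volume (K c) ≤
        C3 p Gc C0 lam0 * ((∫⁻ x in Om, ∑ l, ‖P3 (D x (Pi.single l 1)) -
          EuclideanSpace.single l (s l)‖ₑ ^ p) +
          ENNReal.ofReal (∑ l, |s l| ^ p) * volume (Om \ {x | (D x).det = 0})) := by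
  have hp0 : 0 < p := by linarith
  have hξΩ : ∀ c, ξ c ∈ Ω := fun c => (hξ c).1
  have hLM : ∀ c, Gmat G₁ (ξ c) ∈ LM (μ (ξ c)) := fun c => (hξ c).2.1
  have hsz : ∀ c, 0 < sz c := by
    intro c
    have h1 := hR c
    have h2 := hRs c
    by_contra hcon
    push Not at hcon
    nlinarith [mul_nonneg hσ.le (neg_nonneg.2 hcon)]
  -- the sets on `R3`
  set N' : I → Set R3 := fun c => P3.symm ⁻¹' N c with hN'
  have hN'm : ∀ c, NullMeasurableSet (N' c) := fun c =>
    ((hN c).preimage P3.symm.continuous.measurable).nullMeasurableSet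
  have hN'd : Pairwise (Function.onFun (AEDisjoint volume) N') := by
    intro c c' hcc
    exact ((hNd hcc).preimage _).aedisjoint
  have hN'c : ∀ c, N' c ⊆ cube (ξ c) (4 * R c / μ (ξ c)) := by
    intro c y hy
    have h1 := hNc c hy
    simpa using h1
  have hvol : ∀ c, ENNReal.ofReal (κ (ξ c) * (4 * R c / μ (ξ c)) ^ 3) ≤
      ENNReal.ofReal (mth p (μ (ξ c)) / 2) * volume (N' c) := by
    intro c
    have hm := hμ _ (hξΩ c)
    obtain ⟨v0, hv0⟩ := surj_of_LM hm (hLM c) (P c - f₁ (ξ c) - t c)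
    refine hvol_of hm hθ hσ (hsz c) (hLM c) (g := Aff f₁ G₁ (ξ c) (t c)) (fun x x' => ?_)
      (x0 := v0 + ξ c) (fun x hx => ?_) (hκ _ (hξΩ c)) (by have := hR c; positivity) ?_
    · unfold Aff
      have : Gmat G₁ (ξ c) (x - x') = Gmat G₁ (ξ c) (x - ξ c) - Gmat G₁ (ξ c) (x' - ξ c) := by
        rw [← map_sub]; congr 1; abel
      rw [this]; abel
    · have h1 : Aff f₁ G₁ (ξ c) (t c) (v0 + ξ c) = P c := by
        unfold Aff
        rw [add_sub_cancel_right, hv0]; abel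
      rw [h1] at hx
      show P3.symm x ∈ N c
      apply hNA c
      rw [P3.apply_symm_apply]
      exact hx
    · exact div_le_div_of_nonneg_right (hRs c) hm.le
  obtain ⟨hv, he⟩ := blocks_small_good hp hN'm hN'd hGm (μ := μ) (κ := κ)
    (s := fun c => 4 * R c / μ (ξ c))
    (fun c => by
      have h1 := hR c
      have h2 := hμ _ (hξΩ c)
      positivity) (fun c => hμ _ (hξΩ c)) hLM hgood hN'c hvol
  -- the singular set
  have hdet : volume (Ω ∩ {x | (Gmat G₁ x).det ≠ 0}) ≤ volume (Om \ {x | (D x).det = 0}) := by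
    rw [← vol_P3]
    refine measure_mono_ae ?_
    filter_upwards [hGD] with x hx
    intro hx1
    have hxOm : x ∈ Om := by
      have h1 : P3 x ∈ Ω := hx1.1
      rw [hΩ] at h1
      simpa using h1
    refine ⟨hxOm, fun h0 => hx1.2 ?_⟩
    exact det_zero_gm (Gc := Gc) (fun j => hx hxOm j) h0
  have hvolN : ∀ c, volume (N' c) = volume (N c) := fun c => vol_P3_symm (N c)
  constructor
  · have h1 : volume (⋃ c, N c) = volume (⋃ c, N' c) := by
      rw [← vol_P3_symm (⋃ c, N c), preimage_iUnion]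
    rw [h1]
    exact hv.trans (by gcongr)
  · intro s hs
    have h1 := he fun j => EuclideanSpace.single j (s j)
    -- left-hand side
    have h2 : ∀ c, ENNReal.ofReal ((1 / lam c * ‖lin (A c)‖) ^ p) * volume (K c) ≤
        ENNReal.ofReal ((3 * C0 / lam0) ^ p) *
          (ENNReal.ofReal (∑ j, ‖G₁ j (ξ c)‖ ^ p) * volume (N' c)) := by
      intro c
      rw [← mul_assoc, ← ENNReal.ofReal_mul (by positivity), hvolN]
      refine mul_le_mul' (ENNReal.ofReal_le_ofReal ?_) (measure_mono (hKN c))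
      have hlc : 0 < lam c := lt_of_lt_of_le hlam0 (hl c)
      have h3 : 1 / lam c * ‖lin (A c)‖ ≤ C0 / lam0 * ∑ j, ‖G₁ j (ξ c)‖ := by
        have h4 := norm_gmatL_le_sum fun j => G₁ j (ξ c)
        have h5 : ‖lin (A c)‖ ≤ C0 * ∑ j, ‖G₁ j (ξ c)‖ :=
          (hlin c).trans (mul_le_mul_of_nonneg_left h4 hC0)
        have h6 : 1 / lam c ≤ 1 / lam0 := one_div_le_one_div_of_le hlam0 (hl c)
        calc 1 / lam c * ‖lin (A c)‖ ≤ 1 / lam0 * (C0 * ∑ j, ‖G₁ j (ξ c)‖) :=
              mul_le_mul h6 h5 (norm_nonneg _) (by positivity)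
          _ = C0 / lam0 * ∑ j, ‖G₁ j (ξ c)‖ := by ring
      have h7 : (∑ j, ‖G₁ j (ξ c)‖) ^ p ≤ 3 ^ (p - 1) * ∑ j, ‖G₁ j (ξ c)‖ ^ p := by
        have := Real.rpow_sum_le_const_mul_sum_rpow_of_nonneg (Finset.univ : Finset (Fin 3))
          (f := fun j => ‖G₁ j (ξ c)‖) hp (fun j _ => norm_nonneg _)
        simpa using this
      have h8 : (3:ℝ) ^ (p - 1) ≤ 3 ^ p := Real.rpow_le_rpow_of_exponent_le (by norm_num) (by linarith)
      have h9 : 0 ≤ ∑ j, ‖G₁ j (ξ c)‖ ^ p :=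
        Finset.sum_nonneg fun j _ => Real.rpow_nonneg (norm_nonneg _) _
      calc (1 / lam c * ‖lin (A c)‖) ^ p ≤ (C0 / lam0 * ∑ j, ‖G₁ j (ξ c)‖) ^ p :=
            Real.rpow_le_rpow (by positivity) h3 hp0.le
        _ = (C0 / lam0) ^ p * (∑ j, ‖G₁ j (ξ c)‖) ^ p :=
            Real.mul_rpow (by positivity) (Finset.sum_nonneg fun _ _ => norm_nonneg _)
        _ ≤ (C0 / lam0) ^ p * (3 ^ p * ∑ j, ‖G₁ j (ξ c)‖ ^ p) := by
            refine mul_le_mul_of_nonneg_left (h7.trans ?_) (by positivity)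
            exact mul_le_mul_of_nonneg_right h8 h9
        _ = (3 * C0 / lam0) ^ p * ∑ j, ‖G₁ j (ξ c)‖ ^ p := by
            rw [show 3 * C0 / lam0 = 3 * (C0 / lam0) by ring,
              Real.mul_rpow (by norm_num) (by positivity)]
            ring
    refine (ENNReal.tsum_le_tsum h2).trans ?_
    rw [ENNReal.tsum_mul_left]
    unfold C3
    rw [mul_assoc]
    refine mul_le_mul' le_rfl (h1.trans ?_)
    rw [mul_assoc]
    refine mul_le_mul' le_rfl ?_
    rw [mul_add]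
    have hG3 : (1:ℝ≥0∞) ≤ ENNReal.ofReal (Gc ^ p) * 3 ^ p := by
      have a1 : (1:ℝ≥0∞) ≤ ENNReal.ofReal (Gc ^ p) := by
        rw [← ENNReal.ofReal_one]
        exact ENNReal.ofReal_le_ofReal (Real.one_le_rpow hGc hp0.le)
      have a2 : (1:ℝ≥0∞) ≤ 3 ^ p := ENNReal.one_le_rpow (by norm_num) hp0
      calc (1:ℝ≥0∞) = 1 * 1 := (one_mul 1).symm
        _ ≤ _ := mul_le_mul' a1 a2
    refine add_le_add ?_ ?_
    · -- the integrals
      have h3 : (∫⁻ x in Ω, ∑ j, ‖G₁ j x - EuclideanSpace.single j (s j)‖ₑ ^ p) =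
          ∫⁻ x in Om, ∑ j, ‖G₁ j (P3 x) - EuclideanSpace.single j (s j)‖ₑ ^ p := by
        rw [← P3_mp.setLIntegral_comp_preimage_emb P3_emb
          (fun x => ∑ j, ‖G₁ j x - EuclideanSpace.single j (s j)‖ₑ ^ p) Ω]
        have e : (P3 : (Fin 3 → ℝ) → R3) ⁻¹' Ω = Om := by rw [hΩ]; ext x; simp
        rw [e]
      rw [h3, ← lintegral_const_mul' _ _ (ENNReal.mul_ne_top ENNReal.ofReal_ne_top
        (ENNReal.rpow_ne_top_of_nonneg hp0.le (by norm_num)))]
      have hae : ∀ᵐ x ∂(volume.restrict Om), ∀ j, G₁ j (P3 x) = cg Gc j • row (D x) j :=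
        (ae_restrict_iff' hOm.measurableSet).2 hGD
      refine lintegral_mono_ae ?_
      filter_upwards [hae] with x hx
      have h4 : ∀ j, ‖G₁ j (P3 x) - EuclideanSpace.single j (s j)‖ₑ ≤
          ENNReal.ofReal Gc * ‖row (D x) j - EuclideanSpace.single j (s j)‖ₑ := by
        intro j
        rw [hx j, ← ofReal_norm, ← ofReal_norm, ← ENNReal.ofReal_mul (by linarith)]
        apply ENNReal.ofReal_le_ofReal
        by_cases hj : j = 2
        · subst hj
          unfold cg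
          rw [if_pos rfl, hs]
          have e : EuclideanSpace.single (2 : Fin 3) (0:ℝ) = 0 := by simp
          rw [e, sub_zero, sub_zero, norm_smul, Real.norm_eq_abs, abs_of_nonneg (by linarith)]
        · unfold cg
          rw [if_neg hj, one_smul]
          have := norm_nonneg (row (D x) j - EuclideanSpace.single j (s j))
          nlinarith
      calc ∑ j, ‖G₁ j (P3 x) - EuclideanSpace.single j (s j)‖ₑ ^ p
          ≤ ∑ j, (ENNReal.ofReal Gc * ‖row (D x) j - EuclideanSpace.single j (s j)‖ₑ) ^ p :=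
            Finset.sum_le_sum fun j _ => ENNReal.rpow_le_rpow (h4 j) hp0.le
        _ = ENNReal.ofReal (Gc ^ p) * ∑ j, ‖row (D x) j - EuclideanSpace.single j (s j)‖ₑ ^ p := by
            rw [Finset.mul_sum]
            refine Finset.sum_congr rfl fun j _ => ?_
            rw [ENNReal.mul_rpow_of_nonneg _ _ hp0.le, ENNReal.ofReal_rpow_of_nonneg (by linarith) hp0.le]
        _ ≤ ENNReal.ofReal (Gc ^ p) * (3 ^ p * ∑ l, ‖P3 (D x (Pi.single l 1)) -
              EuclideanSpace.single l (s l)‖ₑ ^ p) := by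
            gcongr
            exact rows_le_cols hp (D x) s
        _ = _ := by rw [mul_assoc]
    · have h5 : (∑ j, ‖EuclideanSpace.single j (s j)‖ ^ p : ℝ) = ∑ l, |s l| ^ p := by
        refine Finset.sum_congr rfl fun j _ => ?_
        rw [PiLp.norm_single, Real.norm_eq_abs]
      rw [h5]
      calc ENNReal.ofReal (∑ l, |s l| ^ p) * volume (Ω ∩ {x | (Gmat G₁ x).det ≠ 0})
          ≤ 1 * (ENNReal.ofReal (∑ l, |s l| ^ p) * volume (Om \ {x | (D x).det = 0})) := by
            rw [one_mul]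
            gcongr
        _ ≤ _ := mul_le_mul' hG3 le_rfl

/-- the hypothesis `hGD` for 899's `G₁` (rows of `D`, the last one multiplied). -/
theorem hGD_of {D : E3 → E3 →L[ℝ] E3} (Gc : ℝ) (x : E3) (j : Fin 3) :
    (fun j => if j = 2 then Gc • (fun j y => row (D (P3.symm y)) j) 2 else
      (fun j y => row (D (P3.symm y)) j) j : Fin 3 → R3 → R3) j (P3 x) = cg Gc j • row (D x) j := by
  unfold cg
  by_cases hj : j = 2
  · subst hj
    simp only [if_true, Pi.smul_apply, P3.symm_apply_apply]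
  · simp only [if_neg hj, P3.symm_apply_apply, one_smul]

end

end Crest.Agent.R096.Blk_764
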