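import Crest.Agent.R096.Blk3_764

/-!
Row 96 (S0127), helper764, NO0 `p ≥ 3`: the geometric hypotheses of `blocks3` (Blk3_764) for
`N c = A c ⁻¹' cbx c ((1 + 2 κ2) lam c)`: closed, in `Om`, mapped into the open brick, pairwise disjoint.
-/

set_option autoImplicit false
set_option linter.unusedSectionVars false
set_option linter.unusedVariables false
set_option linter.style.longLine false

open MeasureTheory Set Filter Topology Metric
open scoped ENNReal NNReal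

namespace Crest.Agent.R096.Blk_764

open Crest.Agent.R096.Bsp_628
open Crest.Agent.R096.Bxs_627 (ctr ctr_lo ctr_hi)
open Crest.Agent.R096.SkC1_961 (E3)
open Crest.Agent.R096.EaX_766 (cbx lin ExIn)

theorem isClosed_cbx (Q : Bx (Fin 3)) (r : ℝ) : IsClosed (cbx Q r) := by
  unfold cbx
  simp only [Set.ofPred_forall]
  refine isClosed_iInter fun k => isClosed_le ?_ continuous_const
  fun_prop

theorem isClosed_pre_cbx (A : E3 ≃ᵃ[ℝ] E3) (Q : Bx (Fin 3)) (r : ℝ) : IsClosed (A ⁻¹' cbx Q r) :=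
  (isClosed_cbx Q r).preimage A.toAffineMap.continuous_of_finiteDimensional

/-- the enlarged core box is mapped into the open brick -/
theorem f_mem_of_exIn {p : ℝ} {Om : Set E3} {f : E3 → E3} {D : E3 → E3 →L[ℝ] E3} {o : E3}
    {u κ0 κ1 κ2 lam : ℝ} {Q : Bx (Fin 3)} (hQ : Q.Pos) (hasp : ∀ i, Q.sz ≤ κ0 * Q.side i)
    {A : E3 ≃ᵃ[ℝ] E3} (hl0 : 0 < lam) (hl : lam ≤ 1 / 4) (h2 : κ2 ≤ 1 / 8) (h10 : 0 ≤ κ1)
    (h1 : κ1 * κ0 ≤ 1 / 2) (hex : ExIn p Om f D o u κ1 κ2 Q A lam) {x : E3}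
    (hx : A x ∈ cbx Q ((1 + 2 * κ2) * lam)) : x ∈ Om ∧ ∀ k, Q.lo k < f x k ∧ f x k < Q.hi k := by
  obtain ⟨hxO, h3⟩ := hex.cor x (Or.inr hx)
  refine ⟨hxO, fun k => ?_⟩
  have h4 := hx k
  have h5 : |f x k - A x k| ≤ κ1 * (lam * Q.sz) := by
    have := norm_le_pi_norm (f x - A x) k
    rw [Pi.sub_apply, Real.norm_eq_abs] at this
    exact this.trans h3
  have hs := Bx.side_pos hQ k
  have h6 : κ1 * (lam * Q.sz) ≤ Q.side k / 8 := by
    have h7 := hasp k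
    calc κ1 * (lam * Q.sz) ≤ κ1 * (1 / 4 * (κ0 * Q.side k)) := by
          refine mul_le_mul_of_nonneg_left ?_ h10
          have h8 : 0 < Q.sz := Bx.sz_pos hQ
          exact mul_le_mul hl h7 h8.le (by norm_num)
      _ = κ1 * κ0 * Q.side k / 4 := by ring
      _ ≤ _ := by nlinarith
  have h7 : (1 + 2 * κ2) * lam * Q.side k / 2 ≤ Q.side k * (5 / 32) := by
    have h8 : (1 + 2 * κ2) * lam ≤ 5 / 4 * (1 / 4) := by nlinarith
    nlinarith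
  have h8 := abs_le.1 (h4.trans h7)
  have h9 := abs_le.1 (h5.trans h6)
  have e1 := ctr_lo Q k
  have e2 := ctr_hi Q k
  constructor <;> linarith [h8.1, h8.2, h9.1, h9.2]

/-- **the enlarged cores are pairwise disjoint** -/
theorem N_disj {La : Set E3} {F : Set (Bx (Fin 3))} {δ κ0 : ℝ} (BF : BoxFoam La F δ κ0)
    {p : ℝ} {Om : Set E3} {f : E3 → E3} {D : E3 → E3 →L[ℝ] E3} {o : E3} {u κ1 κ2 : ℝ}
    {A : F → E3 ≃ᵃ[ℝ] E3} {lam : F → ℝ} (hl0 : ∀ c, 0 < lam c) (hl : ∀ c, lam c ≤ 1 / 4)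
    (h2 : κ2 ≤ 1 / 8) (h10 : 0 ≤ κ1) (h1 : κ1 * κ0 ≤ 1 / 2)
    (hex : ∀ c : F, ExIn p Om f D o u κ1 κ2 c.1 (A c) (lam c)) :
    Pairwise (Function.onFun Disjoint fun c : F => A c ⁻¹' cbx c.1 ((1 + 2 * κ2) * lam c)) := by
  intro c c' hne
  rw [Function.onFun, Set.disjoint_left]
  intro x hx hx'
  have a1 := (f_mem_of_exIn (BF.pos _ c.2) (BF.asp _ c.2) (hl0 c) (hl c) h2 h10 h1 (hex c) hx).2
  have a2 := (f_mem_of_exIn (BF.pos _ c'.2) (BF.asp _ c'.2) (hl0 c') (hl c') h2 h10 h1 (hex c')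
    hx').2
  obtain ⟨k, hk⟩ := BF.inv.disj c.2 c'.2 (BF.pos _ c.2) (BF.pos _ c'.2)
    (fun h => hne (Subtype.ext h))
  have b1 := a1 k
  have b2 := a2 k
  rcases hk with hk | hk <;> linarith [b1.1, b1.2, b2.1, b2.2]

/-- `cbx` is monotone in the ratio -/
theorem cbx_mono {Q : Bx (Fin 3)} (hQ : Q.Pos) {r r' : ℝ} (h : r ≤ r') : cbx Q r ⊆ cbx Q r' := by
  intro y hy k
  refine (hy k).trans ?_
  have := Bx.side_pos hQ k
  nlinarith

theorem K_sub_N {Q : Bx (Fin 3)} (hQ : Q.Pos) {lam κ2 : ℝ} (hl0 : 0 ≤ lam) (h2 : 0 ≤ κ2)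
    (A : E3 ≃ᵃ[ℝ] E3) : A ⁻¹' cbx Q lam ⊆ A ⁻¹' cbx Q ((1 + 2 * κ2) * lam) :=
  preimage_mono (cbx_mono hQ (by nlinarith))

end Crest.Agent.R096.Blk_764
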