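import Crest.Agent.R096.Gno3_324
import Crest.Agent.R096.Gno2_324

/-!
Row 96 (S0127), helper479.  NO0-PRE3, leaf [B2] of 962 #11186: **number of the designated squares
which meet a convex set containing a ball of radius `c r`**.
-/

set_option autoImplicit false
set_option linter.unusedSectionVars false

open MeasureTheory Set Filter Topology Metric
open scoped ENNReal Pointwise

namespace Crest.Agent.R096.Cnp_479

open Crest.Agent.R096.Msh_715 Crest.Agent.R096.SkC1_961 Crest.Agent.R096.No0_477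
open Crest.Agent.R096.SkN1_477 Crest.Agent.R096.Gno_324

noncomputable section

/-- the constant -/
def Kcn (c : ℝ) : ℝ := (1 + 1 / c) ^ 3

theorem Kcn_pos {c : ℝ} (hc : 0 < c) : 0 < Kcn c := by unfold Kcn; positivity

/-- the cube over a square which meets the convex set `P` lies in a dilate of `P` -/
theorem cub_sub_dil {P : Set E3} (hP : Convex ℝ P) {x : E3} {c r : ℝ} (hc : 0 < c) (hr0 : 0 < r)
    (hr : r ≠ 0) (hB : closedBall x (c * r) ⊆ P) {w : E3} (hw : (P ∩ usq (fr w r hr)).Nonempty) :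
    cub w r ⊆ (fun z : E3 => (1 + 1 / c) • z + (-((1 / c) • x))) '' P := by
  obtain ⟨p, hp, hq⟩ := hw
  rw [mem_usq_fr hr0 hr] at hq
  obtain ⟨h0, h0', h1, h1', h2⟩ := hq
  intro y hy
  have hyp : ‖y - p‖ ≤ r := by
    rw [pi_norm_le_iff_of_nonneg hr0.le]
    intro i
    rw [Real.norm_eq_abs, Pi.sub_apply, abs_le]
    have h := hy i
    fin_cases i
    · simp only [Fin.zero_eta, Fin.isValue] at h ⊢
      constructor <;> linarith [h.1, h.2]
    · simp only [Fin.mk_one, Fin.isValue] at h ⊢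
      constructor <;> linarith [h.1, h.2]
    · simp only [Fin.reduceFinMk, Fin.isValue] at h ⊢
      constructor <;> linarith [h.1, h.2]
  have hqP : x + c • (y - p) ∈ P := by
    apply hB
    rw [mem_closedBall, dist_eq_norm, add_sub_cancel_left, norm_smul, Real.norm_eq_abs,
      abs_of_pos hc]
    exact mul_le_mul_of_nonneg_left hyp hc.le
  have h1c : 0 < 1 + c := by positivity
  refine ⟨(c / (1 + c)) • p + (1 / (1 + c)) • (x + c • (y - p)), ?_, ?_⟩
  · exact hP hp hqP (by positivity) (by positivity) (by field_simp; ring)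
  · ext i
    simp only [Pi.add_apply, Pi.smul_apply, Pi.sub_apply, Pi.neg_apply, smul_eq_mul]
    field_simp
    ring

theorem vol_dil (P : Set E3) {s : ℝ} (hs : 0 ≤ s) (v : E3) :
    volume ((fun z : E3 => s • z + v) '' P) = ENNReal.ofReal (s ^ 3) * volume P := by
  have h1 : (fun z : E3 => s • z + v) '' P = (fun z : E3 => z + v) '' (s • P) := by
    rw [← Set.image_smul, Set.image_image]
  rw [h1, Set.image_add_right, measure_preimage_add_right, Measure.addHaar_smul]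
  have h2 : Module.finrank ℝ E3 = 3 := by simp
  rw [h2, abs_of_nonneg (by positivity)]

/-- **[B2] COUNT** (962 #11186), extended real form -/
theorem cnt_le' {P : Set E3} (hP : Convex ℝ P) {x : E3} {c r : ℝ} (hc : 0 < c) (hr0 : 0 < r)
    (hr : r ≠ 0) (hB : closedBall x (c * r) ⊆ P) (a : E3) (o : Fin 2 → ℤ)
    (S : Set (ℤ × (Fin 2 → ℕ))) (hSf : S.Finite)
    (hS : ∀ k ∈ S, (P ∩ usq (fr (vx a r o k.1 k.2) r hr)).Nonempty) :
    ENNReal.ofReal ((S.ncard : ℝ) * r ^ 3) ≤ ENNReal.ofReal (Kcn c) * volume P := by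
  have h1 : (hSf.toFinset.card : ℝ≥0∞) * ENNReal.ofReal (r ^ 3) ≤
      volume ((fun z : E3 => (1 + 1 / c) • z + (-((1 / c) • x))) '' P) := by
    apply count_cub a hr0 o hSf.toFinset
    intro k hk
    exact cub_sub_dil hP hc hr0 hr hB (hS k (by simpa using hk))
  rw [vol_dil P (by positivity)] at h1
  rw [ENNReal.ofReal_mul (Nat.cast_nonneg _), ENNReal.ofReal_natCast,
    Set.ncard_eq_toFinset_card S hSf]
  exact h1

/-- **[B2] COUNT** (962 #11186): `K = Kcn c = (1 + 1 / c) ^ 3` -/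
theorem cnt_le {P : Set E3} (hP : Convex ℝ P) (hv : volume P ≠ ∞) {x : E3} {c r : ℝ} (hc : 0 < c)
    (hr0 : 0 < r) (hr : r ≠ 0) (hB : closedBall x (c * r) ⊆ P) (a : E3) (o : Fin 2 → ℤ)
    (S : Set (ℤ × (Fin 2 → ℕ))) (hSf : S.Finite)
    (hS : ∀ k ∈ S, (P ∩ usq (fr (vx a r o k.1 k.2) r hr)).Nonempty) :
    (S.ncard : ℝ) * r ^ 3 ≤ Kcn c * (volume P).toReal := by
  have h := cnt_le' hP hc hr0 hr hB a o S hSf hS
  have h2 : ENNReal.ofReal (Kcn c) * volume P = ENNReal.ofReal (Kcn c * (volume P).toReal) := by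
    rw [ENNReal.ofReal_mul (Kcn_pos hc).le, ENNReal.ofReal_toReal hv]
  rw [h2] at h
  exact (ENNReal.ofReal_le_ofReal_iff
    (mul_nonneg (Kcn_pos hc).le ENNReal.toReal_nonneg)).1 h

variable {Om : Set E3} {ι : Type}

/-- the form of the clause `cn` of `PreG`: junk squares which meet a tile -/
theorem cnt_tile (T : Tiling Om ι) (i : ι) {x : E3} {c r : ℝ} (hc : 0 < c) (hr0 : 0 < r)
    (hr : r ≠ 0) (hB : closedBall x (c * r) ⊆ P (T.H i)) (a : E3) (o : Fin 2 → ℤ) (M : ℕ)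
    (Zs : Finset ℤ) (U : ℤ → (Fin 2 → ℕ) → Prop) :
    (({k : ℤ × (Fin 2 → ℕ) | k ∈ Fc M Zs ∧ ¬ U k.1 k.2 ∧
      (P (T.H i) ∩ usq (fr (vx a r o k.1 k.2) r hr)).Nonempty}).ncard : ℝ) * r ^ 3 ≤
      Kcn c * (volume (P (T.H i))).toReal := by
  refine cnt_le (convex_P _) (T.cpt i).measure_lt_top.ne hc hr0 hr hB a o _ ?_ fun k hk => hk.2.2
  exact (Fc M Zs).finite_toSet.subset fun k hk => hk.1

/-- all designated squares which meet a tile -/
theorem cnt_tile_all (T : Tiling Om ι) (i : ι) {x : E3} {c r : ℝ} (hc : 0 < c) (hr0 : 0 < r)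
    (hr : r ≠ 0) (hB : closedBall x (c * r) ⊆ P (T.H i)) (a : E3) (o : Fin 2 → ℤ) (M : ℕ)
    (Zs : Finset ℤ) :
    (({k : ℤ × (Fin 2 → ℕ) | k ∈ Fc M Zs ∧
      (P (T.H i) ∩ usq (fr (vx a r o k.1 k.2) r hr)).Nonempty}).ncard : ℝ) * r ^ 3 ≤
      Kcn c * (volume (P (T.H i))).toReal := by
  refine cnt_le (convex_P _) (T.cpt i).measure_lt_top.ne hc hr0 hr hB a o _ ?_ fun k hk => hk.2
  exact (Fc M Zs).finite_toSet.subset fun k hk => hk.1

end

end Crest.Agent.R096.Cnp_479
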