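import Crest.Agent.R096.Gsm6_432
import Crest.Agent.R096.Mal19_874
import Crest.Agent.R096.Bmd2_798
import Crest.Agent.R096.Cnp1_479
import Crest.Agent.R096.Np4_962

/-!
# Row 96 (S0127), helper168: leaf [X8] of 962 #11402 (NO0, `p ≥ 3`): balls in the tiles of `MD.mesh`,
number of the designated squares which meet a tile

* `cwR` : the exact ratio (count `* r ^ 3`) / volume of a tile; `cnt_eq`, `cwR_le`, `cwR_zero`;
* `exists_cu` : universal radius for the outer tiles of `Qr`, the inner tiles off the wall, the cores;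
* `exists_cj` : radius for the tiles at the wall `j`.
-/

set_option autoImplicit false
set_option linter.unusedSectionVars false
set_option linter.style.longLine false

open Set Metric Topology Filter MeasureTheory
open scoped ENNReal

namespace Crest.Agent.R096.Bls_168

open Crest.Agent.R096.Msh_715 Crest.Agent.R096.Mal_874 Crest.Agent.R096.Cut_874
open Crest.Agent.R096.Msh_810
open Crest.Agent.R096.SkC1_961 (E3)
open Crest.Agent.R096.Bmd_798
open Crest.Agent.R096.No0_477 (cub fr Fc vx)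
open Crest.Agent.R096.SkN1_477 (usq)
open Crest.Agent.R096.Np_962 (cntA)
open Crest.Agent.R096.Cnp_479 (Kcn Kcn_pos cnt_tile_all cnt_le')

noncomputable section

/-! ### the ratio -/

section ratio

variable {Om : Set E3} {ι : Type} (T : Tiling Om ι)

theorem vol_ne_top (i : ι) : volume (Msh_715.P (T.H i)) ≠ ∞ := (T.cpt i).measure_lt_top.ne

theorem vol_ne_zero (i : ι) : volume (Msh_715.P (T.H i)) ≠ 0 := by
  have h1 : IsOpen (Msh_715.I (T.H i)) := isOpen_I _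
  have h2 := h1.measure_pos volume (T.ne i)
  exact (h2.trans_le (measure_mono (I_sub_P _))).ne'

/-- **exact ratio** (number of the squares of the block which meet the tile) `* r ^ 3 / vol` -/
def cwR (r : ℝ) (hr : r ≠ 0) (a : E3) (o : Fin 2 → ℤ) (M : ℕ) (Zs : Finset ℤ) (i : ι) : ℝ≥0∞ :=
  ENNReal.ofReal (cntA T r hr a o M Zs i) / volume (Msh_715.P (T.H i))

variable {r : ℝ} (hr : r ≠ 0) (a : E3) (o : Fin 2 → ℤ) (M : ℕ) (Zs : Finset ℤ)

/-- the field `cnt` of `MeshN` (an equality) -/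
theorem cnt_eq (i : ι) : ENNReal.ofReal (cntA T r hr a o M Zs i) =
    cwR T r hr a o M Zs i * volume (Msh_715.P (T.H i)) :=
  (ENNReal.div_mul_cancel (vol_ne_zero T i) (vol_ne_top T i)).symm

theorem cwR_ne_top (i : ι) : cwR T r hr a o M Zs i ≠ ∞ :=
  ENNReal.div_ne_top ENNReal.ofReal_ne_top (vol_ne_zero T i)

/-- **a tile which contains a ball of radius `c r`** -/
theorem cwR_le {i : ι} {x : E3} {c : ℝ} (hc : 0 < c) (hr0 : 0 < r)
    (hB : closedBall x (c * r) ⊆ Msh_715.P (T.H i)) :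
    cwR T r hr a o M Zs i ≤ ENNReal.ofReal (Kcn c) := by
  rw [cwR, ENNReal.div_le_iff (vol_ne_zero T i) (vol_ne_top T i)]
  refine cnt_le' (convex_P _) hc hr0 hr hB a o _ ?_ fun k hk => hk.2
  exact (Fc M Zs).finite_toSet.subset fun k hk => hk.1

/-- **a tile which meets no square** -/
theorem cwR_zero {i : ι} (h : ∀ k ∈ Fc M Zs,
    ¬ (Msh_715.P (T.H i) ∩ usq (fr (vx a r o k.1 k.2) r hr)).Nonempty) :
    cwR T r hr a o M Zs i = 0 := by
  have e : {k : ℤ × (Fin 2 → ℕ) | k ∈ Fc M Zs ∧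
      (Msh_715.P (T.H i) ∩ usq (fr (vx a r o k.1 k.2) r hr)).Nonempty} = ∅ := by
    ext k
    simp only [mem_ofPred_eq, mem_empty_iff_false, iff_false]
    rintro ⟨h1, h2⟩
    exact h k h1 h2
  rw [cwR, cntA, e]
  simp

end ratio

/-! ### balls -/

section balls

variable {E : Type*} [NormedAddCommGroup E] [NormedSpace ℝ E] {n : ℕ}

/-- a ball in the coordinates `chi` gives a ball in the space -/
theorem ball_chi {ψ : E ≃L[ℝ] (Fin n → ℝ)} (hψ : ∀ x, ‖ψ x‖ ≤ ‖x‖) {a' : Fin n → ℝ} {κ : ℕ} {c : E}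
    {ρ : ℝ} {S : Set E} (h : closedBall (chi ψ a' κ c) ρ ⊆ chi ψ a' κ '' S) :
    closedBall c (ρ / 2 ^ κ) ⊆ S := by
  have hp : (0 : ℝ) < 2 ^ κ := by positivity
  intro y hy
  rw [mem_closedBall, dist_eq_norm, le_div_iff₀' hp] at hy
  have h1 : chi ψ a' κ y ∈ closedBall (chi ψ a' κ c) ρ := by
    rw [mem_closedBall, dist_eq_norm]
    have e : chi ψ a' κ y - chi ψ a' κ c = (2:ℝ) ^ κ • ψ (y - c) := by
      funext m
      rw [Pi.sub_apply, chi_eq_ps, chi_eq_ps, Pi.smul_apply, map_sub, Pi.sub_apply, smul_eq_mul]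
      unfold ps
      ring
    rw [e, norm_smul, Real.norm_of_nonneg hp.le]
    exact (mul_le_mul_of_nonneg_left (hψ _) hp.le).trans hy
  obtain ⟨z, hz, e⟩ := h h1
  rwa [← (chi ψ a' κ).injective e]

end balls

/-- **the tile `i` contains a closed ball of radius `ρ`** -/
def HasB {E : Type*} [NormedAddCommGroup E] [NormedSpace ℝ E] {Om : Set E} {ι : Type*}
    (T : Tiling Om ι) (i : ι) (ρ : ℝ) : Prop :=
  ∃ x, closedBall x ρ ⊆ Msh_715.P (T.H i)

theorem HasB.mono {E : Type*} [NormedAddCommGroup E] [NormedSpace ℝ E] {Om : Set E} {ι : Type*}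
    {T : Tiling Om ι} {i : ι} {ρ ρ' : ℝ} (h : HasB T i ρ) (hρ : ρ' ≤ ρ) : HasB T i ρ' := by
  obtain ⟨x, hx⟩ := h
  exact ⟨x, (closedBall_subset_closedBall hρ).trans hx⟩

/-- good tiles contain balls, uniform radius for a finite list of lists -/
theorem ball_goods (E : Type) [NormedAddCommGroup E] [NormedSpace ℝ E] [FiniteDimensional ℝ E]
    {n : ℕ} {Ls : Set (Finset (Fin n → ℝ) × ℕ)} (hLs : Ls.Finite) (hpos : ∀ p ∈ Ls, 0 < p.2)
    (hrat : ∀ p ∈ Ls, ∀ ν ∈ p.1, ∀ m, ∃ c : ℤ, ν m = c / p.2) (R : ℝ) :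
    ∃ ρ > 0, ∀ {Om : Set E} {ι : Type} (T : Tiling Om ι) (t : ι) (ψ : E ≃L[ℝ] (Fin n → ℝ))
      (_ : ∀ x, ‖ψ x‖ ≤ ‖x‖) (a' : Fin n → ℝ) (k : ℕ), ∀ p ∈ Ls,
      Good T t (chi ψ a' k) k p.1 p.2 R → HasB T t (ρ / 2 ^ k) := by
  obtain ⟨β, -, ρ, hρ, D, nc, h⟩ := Gsm_432.gap_goods.{0, 0} E hLs hpos hrat R
  refine ⟨ρ, hρ, fun T t ψ hψ a' k p hp hg => ?_⟩
  obtain ⟨c, hc⟩ := h T t _ k p hp hg
  exact ⟨c, ball_chi hψ hc.ball⟩

section mesh

variable {n : ℕ} [NeZero n]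

/-- **universal radius**: outer tiles of `Qr`, inner tiles off the wall, cores -/
theorem exists_cu (E : Type) [NormedAddCommGroup E] [NormedSpace ℝ E] [FiniteDimensional ℝ E]
    (B0 : ℕ) (R0 : ℝ) :
    ∃ cu : ℝ, 0 < cu ∧ cu ≤ 1 ∧ ∀ {J : Type} (M : MD E n J), (∀ x, ‖M.φ x‖ ≤ ‖x‖) →
      (∀ j x, ‖(M.Q j).ψ x‖ ≤ ‖x‖) → ∀ {k : J → ℕ} (hk : M.Sc k) (a : Fin n → ℝ) {v : J → E}
      (hv : M.Adm v) (X : RD M), RP X a v k → (∀ j, X.B j ≤ B0) → (∀ j, X.R j ≤ R0) →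
      (∀ p : M.OIx hk a hv, QrP M hk a hv p →
        HasB (M.mesh hk a hv) (Sum.inl p) (cu / 2 ^ p.1.par.1.1.k)) ∧
      (∀ j (i : M.IIx hk a hv j), i ≠ M.core hk a hv j →
        Disjoint (Msh_715.P ((M.mesh hk a hv).H (Sum.inr ⟨j, i⟩))) (frontier (M.Bk v j).N) →
        HasB (M.mesh hk a hv) (Sum.inr ⟨j, i⟩) (cu / 2 ^ k j)) ∧
      ∀ j, HasB (M.mesh hk a hv) (Sum.inr ⟨j, M.core hk a hv j⟩) (cu / 2 ^ k j) := by
  classical
  set Ls : Set (Finset (Fin n → ℝ) × ℕ) := {(N0 n, 1)} ∪ {(NB n B0, 1)} with hLs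
  have hfin : Ls.Finite := (finite_singleton _).union (finite_singleton _)
  have hpos : ∀ p ∈ Ls, 0 < p.2 := by
    rintro p (rfl | rfl)
    · exact one_pos
    · exact one_pos
  have hrat : ∀ p ∈ Ls, ∀ ν ∈ p.1, ∀ m, ∃ c : ℤ, ν m = c / p.2 := by
    rintro p (rfl | rfl)
    · exact N0_rat one_pos
    · exact NB_rat B0 one_pos
  obtain ⟨ρ, hρ, h⟩ := ball_goods E hfin hpos hrat (max 2 R0)
  have m0 : (N0 n, 1) ∈ Ls := Or.inl rfl
  have mB : (NB n B0, 1) ∈ Ls := Or.inr rfl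
  set cu : ℝ := min (1 / 2) (ρ / 2) with hcu
  have hcu0 : 0 < cu := lt_min (by norm_num) (by linarith)
  have hcu1 : cu ≤ 1 / 2 := min_le_left _ _
  have hcu2 : cu ≤ ρ / 2 := min_le_right _ _
  have key1 : ∀ κ κ' : ℕ, κ ≤ κ' → cu / 2 ^ κ' ≤ ρ / 2 ^ (κ + 1) := by
    intro κ κ' hκ
    calc cu / 2 ^ κ' ≤ cu / 2 ^ κ :=
          div_le_div_of_nonneg_left hcu0.le (by positivity) (pow_le_pow_right₀ (by norm_num) hκ)
      _ ≤ (ρ / 2) / 2 ^ κ := by gcongr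
      _ = ρ / 2 ^ (κ + 1) := by rw [pow_succ]; field_simp
  refine ⟨cu, hcu0, hcu1.trans (by norm_num), fun {J} M hφ hψ {k} hk a {v} hv X RPx hB hR =>
    ⟨fun p hp => ?_, fun j i hi hd => ?_, fun j => ?_⟩⟩
  · obtain ⟨-, -, hg⟩ := good_of_Qr hp
    exact (h _ _ M.φ hφ a _ _ m0 (Gsm_432.good_mono hg subset_rfl (le_max_left _ _))).mono
      (key1 _ _ le_rfl)
  · rcases M.inner_good hk a hv X RPx i hi with ⟨τ, hτ, -, -, hg⟩ | ⟨hn, hg⟩ | ⟨hτ, hw, hg⟩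
    · refine (h _ _ (M.Q j).ψ (hψ j) (M.Bk v j).a' _ _ m0
        (Gsm_432.good_mono hg subset_rfl (le_max_left _ _))).mono (key1 _ _ ?_)
      exact (M.Bk v j).le_k (k j) (hk.kc j)
    · refine (h _ _ (M.Q j).ψ (hψ j) (M.Bk v j).a' _ _ mB
        (Gsm_432.good_mono hg (Gsm_432.NB_mono (hB j)) ((hR j).trans (le_max_right _ _)))).mono ?_
      have h1 := key1 (M.Q j).kc (k j) (hk.kc j)
      refine h1.trans ?_
      rw [pow_succ]
      gcongr
      have : (0:ℝ) < 2 ^ (M.Q j).kc := by positivity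
      linarith
    · exact absurd hd (Set.not_disjoint_iff_nonempty_inter.2 hw)
  · -- the core
    have hP := M.P_core hk a hv j
    set Q := M.Bk v j with hQ
    have hp : (0 : ℝ) < 2 ^ Q.kc := by positivity
    set u : Fin n → ℝ := fun m => (Q.S.lo m : ℝ) + 1 / 2 with hu
    obtain ⟨c, hc⟩ := (chi Q.ψ Q.a' Q.kc).surjective u
    have hb : closedBall (chi Q.ψ Q.a' Q.kc c) (1 / 2) ⊆
        chi Q.ψ Q.a' Q.kc '' Msh_715.P ((M.mesh hk a hv).H (Sum.inr ⟨j, M.core hk a hv j⟩)) := by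
      rw [hc, hP]
      intro w hw
      obtain ⟨y, rfl⟩ := (chi Q.ψ Q.a' Q.kc).surjective w
      refine mem_image_of_mem _ ?_
      rw [mem_closedBall, dist_eq_norm, pi_norm_le_iff_of_nonneg (by norm_num)] at hw
      intro m
      have h1 := hw m
      rw [Pi.sub_apply, Real.norm_eq_abs, abs_le, chi_eq_ps] at h1
      have h2 : (Q.S.lo m : ℝ) + 1 ≤ Q.S.hi m := by exact_mod_cast Q.S.lt m
      simp only [hu] at h1
      constructor <;> linarith [h1.1, h1.2]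
    have hB' : HasB (M.mesh hk a hv) (Sum.inr ⟨j, M.core hk a hv j⟩) (1 / 2 / 2 ^ Q.kc) :=
      ⟨c, ball_chi (hψ j) hb⟩
    refine hB'.mono ?_
    calc cu / 2 ^ k j ≤ cu / 2 ^ Q.kc :=
          div_le_div_of_nonneg_left hcu0.le hp (pow_le_pow_right₀ (by norm_num) (hk.kc j))
      _ ≤ (1 / 2) / 2 ^ Q.kc := by gcongr

/-- **radius at the wall `j`** -/
theorem exists_cj {E : Type} [NormedAddCommGroup E] [NormedSpace ℝ E] [FiniteDimensional ℝ E]
    {J : Type} (M : MD E n J) (hφ : ∀ x, ‖M.φ x‖ ≤ ‖x‖) (X : RD M) :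
    ∃ cj : J → ℝ, (∀ j, 0 < cj j ∧ cj j ≤ 1) ∧ ∀ {k : J → ℕ} (hk : M.Sc k) (a : Fin n → ℝ)
      {v : J → E} (hv : M.Adm v) (i : TI M hk a hv) (j : J),
      Good (M.mesh hk a hv) i (chi M.φ a (k j)) (k j) (NR (X.A j) (X.d j)) (X.d j) (X.c j) →
      HasB (M.mesh hk a hv) i (cj j / 2 ^ k j) := by
  have key : ∀ j, ∃ c : ℝ, (0 < c ∧ c ≤ 1) ∧ ∀ {k : J → ℕ} (hk : M.Sc k) (a : Fin n → ℝ)
      {v : J → E} (hv : M.Adm v) (i : TI M hk a hv),
      Good (M.mesh hk a hv) i (chi M.φ a (k j)) (k j) (NR (X.A j) (X.d j)) (X.d j) (X.c j) →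
      HasB (M.mesh hk a hv) i (c / 2 ^ k j) := by
    intro j
    obtain ⟨ρ, hρ, h⟩ := ball_goods E (Ls := {(NR (X.A j) (X.d j), X.d j)}) (finite_singleton _)
      (by rintro p rfl; exact X.dpos j) (by rintro p rfl; exact NR_rat (X.A j) (X.dpos j)) (X.c j)
    refine ⟨min ρ 1, ⟨lt_min hρ one_pos, min_le_right _ _⟩, fun {k} hk a {v} hv i hg => ?_⟩
    refine (h _ _ M.φ hφ a _ _ rfl hg).mono ?_
    gcongr
    exact min_le_left _ _
  choose cj h1 h2 using key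
  exact ⟨cj, h1, fun {k} hk a {v} hv i j hg => h2 j hk a hv i hg⟩

end mesh

end

end Crest.Agent.R096.Bls_168
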