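import Crest.Agent.R096.Bls1_168
import Crest.Agent.R096.Nl2_234

/-!
# Row 96 (S0127), helper168: leaf [X8] of 962 #11402, part 2: the ratios `cwR` of the tiles of
`reOm (M.mesh ..)` by the nature of the tile
-/

set_option autoImplicit false
set_option linter.unusedSectionVars false
set_option linter.style.longLine false

open Set Metric Topology Filter MeasureTheory
open scoped ENNReal

namespace Crest.Agent.R096.Bls_168

open Crest.Agent.R096.Msh_715 Crest.Agent.R096.Mal_874 Crest.Agent.R096.Cut_874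
open Crest.Agent.R096.Msh_810
open Crest.Agent.R096.SkC1_961 (E3)
open Crest.Agent.R096.Bmd_798
open Crest.Agent.R096.No0_477 (cub fr Fc vx)
open Crest.Agent.R096.SkN1_477 (usq)
open Crest.Agent.R096.Np_962 (cntA)
open Crest.Agent.R096.Cnp_479 (Kcn Kcn_pos)

noncomputable section

/-- **the squares of the block lie in `B`, where the outer scale is `K0`; the blocks which meet `B`
have scale `K0` at the wall** -/
structure Bulk {J : Type} (M : MD E3 3 J) (k : J → ℕ) (a : E3) (v : J → E3) (K0 : ℕ) (r : ℝ)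
    (o : Fin 2 → ℤ) (Mm : ℕ) (Zs : Finset ℤ) (B : Set E3) : Prop where
  r_eq : r = ((2 : ℝ) ^ K0)⁻¹
  sub : ∀ m ∈ Zs, ∀ w : Fin 2 → ℕ, (∀ j, w j < Mm) → cub (vx a r o m w) r ⊆ B
  hK : ∀ x ∈ B, ∀ᶠ y in 𝓝 x, K (outD M.D0 k M.W a) y = K0
  hj : ∀ j, ((M.Bk v j).N ∩ B).Nonempty → k j = K0

section

variable {J : Type} {M : MD E3 3 J} {k : J → ℕ} {hk : M.Sc k} {a : E3} {v : J → E3}
  {hv : M.Adm v} {K0 : ℕ} {r : ℝ} {o : Fin 2 → ℤ} {Mm : ℕ} {Zs : Finset ℤ} {B : Set E3}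

theorem Bulk.r0 (h : Bulk M k a v K0 r o Mm Zs B) : 0 < r := by
  rw [h.r_eq]; positivity

theorem Bulk.usq_sub (h : Bulk M k a v K0 r o Mm Zs B) (hr : r ≠ 0) {q : ℤ × (Fin 2 → ℕ)}
    (hq : q ∈ Fc Mm Zs) : usq (fr (vx a r o q.1 q.2) r hr) ⊆ B := by
  rw [Fc, Finset.mem_product, Fintype.mem_piFinset] at hq
  exact (Crest.Agent.R096.Nl_234.usq_sub_cub _ hr h.r0).trans
    (h.sub q.1 hq.1 q.2 fun j => Finset.mem_range.1 (hq.2 j))

theorem cwR_reOm {Om : Set E3} (hO : M.φ ⁻¹' M.D0.Om = Om) (hr : r ≠ 0) (i : TI M hk a hv) :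
    cwR (reOm (M.mesh hk a hv) hO) r hr a o Mm Zs i = cwR (M.mesh hk a hv) r hr a o Mm Zs i := rfl

/-- ratio of a tile with a ball of radius `c / 2 ^ K0` if it meets a square -/
theorem cwR_le_of (hr : r ≠ 0) (h : Bulk M k a v K0 r o Mm Zs B) {i : TI M hk a hv} {c : ℝ}
    (hc : 0 < c) (hB : (Msh_715.P ((M.mesh hk a hv).H i) ∩ B).Nonempty →
      HasB (M.mesh hk a hv) i (c / 2 ^ K0)) :
    cwR (M.mesh hk a hv) r hr a o Mm Zs i ≤ ENNReal.ofReal (Kcn c) := by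
  by_cases hm : ∀ q ∈ Fc Mm Zs,
      ¬ (Msh_715.P ((M.mesh hk a hv).H i) ∩ usq (fr (vx a r o q.1 q.2) r hr)).Nonempty
  · rw [cwR_zero (M.mesh hk a hv) hr a o Mm Zs hm]
    exact zero_le
  · push Not at hm
    obtain ⟨q, hq, y, hy1, hy2⟩ := hm
    obtain ⟨x, hx⟩ := hB ⟨y, hy1, h.usq_sub hr hq hy2⟩
    refine cwR_le (M.mesh hk a hv) hr a o Mm Zs (x := x) hc h.r0 ?_
    rw [h.r_eq, ← div_eq_mul_inv]
    exact hx

/-- **RATIOS, universal constant** -/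
theorem cw_univ (B0 : ℕ) (R0 : ℝ) :
    ∃ Ku : ℝ≥0∞, Ku ≠ ∞ ∧ ∀ {J : Type} (M : MD E3 3 J), (∀ x, M.φ x = x) →
      (∀ j x, ‖(M.Q j).ψ x‖ ≤ ‖x‖) → ∀ {k : J → ℕ} (hk : M.Sc k) (a : E3) {v : J → E3}
      (hv : M.Adm v) (X : RD M), RP X a v k → (∀ j, X.B j ≤ B0) → (∀ j, X.R j ≤ R0) →
      ∀ {K0 : ℕ} {r : ℝ} (hr : r ≠ 0) {o : Fin 2 → ℤ} {Mm : ℕ} {Zs : Finset ℤ} {B : Set E3},
      Bulk M k a v K0 r o Mm Zs B →
      (∀ i ∈ Qr M hk a hv, cwR (M.mesh hk a hv) r hr a o Mm Zs i ≤ Ku) ∧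
      (∀ j (i : M.IIx hk a hv j),
        Disjoint (Msh_715.P ((M.mesh hk a hv).H (Sum.inr ⟨j, i⟩))) (frontier (M.Bk v j).N) →
        cwR (M.mesh hk a hv) r hr a o Mm Zs (Sum.inr ⟨j, i⟩) ≤ Ku) ∧
      ∀ j, cwR (M.mesh hk a hv) r hr a o Mm Zs (Sum.inr ⟨j, M.core hk a hv j⟩) ≤ Ku := by
  obtain ⟨cu, hc0, -, h⟩ := exists_cu (n := 3) E3 B0 R0
  refine ⟨ENNReal.ofReal (Kcn cu), ENNReal.ofReal_ne_top,
    fun {J} M hφ hψ {k} hk a {v} hv X RPx hB hR {K0 r} hr {o Mm Zs B} hb => ?_⟩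
  obtain ⟨h1, h2, h3⟩ := h M (fun x => by rw [hφ]) hψ hk a hv X RPx hB hR
  have hcore : ∀ j, cwR (M.mesh hk a hv) r hr a o Mm Zs (Sum.inr ⟨j, M.core hk a hv j⟩) ≤
      ENNReal.ofReal (Kcn cu) := by
    intro j
    refine cwR_le_of hr hb hc0 ?_
    rintro ⟨y, hy1, hy2⟩
    have := h3 j
    rwa [hb.hj j ⟨y, (M.core hk a hv j).2 hy1, hy2⟩] at this
  refine ⟨?_, ?_, hcore⟩
  · rintro _ ⟨p, rfl, hp⟩
    refine cwR_le_of hr hb hc0 ?_
    rintro ⟨y, hy1, hy2⟩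
    have := h1 p hp
    rwa [par_k hφ (hb.hK y hy2) hy1] at this
  · intro j i hd
    by_cases hi : i = M.core hk a hv j
    · rw [hi]; exact hcore j
    · refine cwR_le_of hr hb hc0 ?_
      rintro ⟨y, hy1, hy2⟩
      have := h2 j i hi hd
      rwa [hb.hj j ⟨y, i.2 hy1, hy2⟩] at this

/-- **RATIOS, constants of the walls** -/
theorem cw_wall {J : Type} (M : MD E3 3 J) (hφ : ∀ x, M.φ x = x) (X : RD M) :
    ∃ Kw : J → ℝ≥0∞, (∀ j, Kw j ≠ ∞) ∧ ∀ {k : J → ℕ} (hk : M.Sc k) (a : E3) {v : J → E3}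
      (hv : M.Adm v) {K0 : ℕ} {r : ℝ} (hr : r ≠ 0) {o : Fin 2 → ℤ} {Mm : ℕ} {Zs : Finset ℤ}
      {B : Set E3}, Bulk M k a v K0 r o Mm Zs B →
      (∀ (p : M.OIx hk a hv) j, p.1.par.1.1.k = k j →
        Good (M.mesh hk a hv) (Sum.inl p) (chi M.φ a (k j)) (k j) (NR (X.A j) (X.d j)) (X.d j)
          (X.c j) →
        cwR (M.mesh hk a hv) r hr a o Mm Zs (Sum.inl p) ≤ Kw j) ∧
      (∀ j (i : M.IIx hk a hv j),
        Good (M.mesh hk a hv) (Sum.inr ⟨j, i⟩) (chi M.φ a (k j)) (k j) (NR (X.A j) (X.d j))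
          (X.d j) (X.c j) →
        cwR (M.mesh hk a hv) r hr a o Mm Zs (Sum.inr ⟨j, i⟩) ≤ Kw j) ∧
      (RP X a v k → ∀ (p : M.OIx hk a hv), ¬ QrP M hk a hv p →
        ∃ j, p.1.par.1.1.k = k j ∧ cwR (M.mesh hk a hv) r hr a o Mm Zs (Sum.inl p) ≤ Kw j) ∧
      (RP X a v k → ∀ j (i : M.IIx hk a hv j), i ≠ M.core hk a hv j →
        (Msh_715.P ((M.mesh hk a hv).H (Sum.inr ⟨j, i⟩)) ∩ frontier (M.Bk v j).N).Nonempty →
        cwR (M.mesh hk a hv) r hr a o Mm Zs (Sum.inr ⟨j, i⟩) ≤ Kw j) := by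
  obtain ⟨cj, hc, h⟩ := exists_cj M (fun x => by rw [hφ]) X
  refine ⟨fun j => ENNReal.ofReal (Kcn (cj j)), fun j => ENNReal.ofReal_ne_top,
    fun {k} hk a {v} hv {K0 r} hr {o Mm Zs B} hb => ?_⟩
  have h1 : ∀ (p : M.OIx hk a hv) j, p.1.par.1.1.k = k j →
      Good (M.mesh hk a hv) (Sum.inl p) (chi M.φ a (k j)) (k j) (NR (X.A j) (X.d j)) (X.d j)
        (X.c j) →
      cwR (M.mesh hk a hv) r hr a o Mm Zs (Sum.inl p) ≤ ENNReal.ofReal (Kcn (cj j)) := by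
    intro p j hj hg
    refine cwR_le_of hr hb (hc j).1 ?_
    rintro ⟨y, hy1, hy2⟩
    have := h hk a hv _ j hg
    rwa [← hj, par_k hφ (hb.hK y hy2) hy1] at this
  have h2 : ∀ j (i : M.IIx hk a hv j),
      Good (M.mesh hk a hv) (Sum.inr ⟨j, i⟩) (chi M.φ a (k j)) (k j) (NR (X.A j) (X.d j))
        (X.d j) (X.c j) →
      cwR (M.mesh hk a hv) r hr a o Mm Zs (Sum.inr ⟨j, i⟩) ≤ ENNReal.ofReal (Kcn (cj j)) := by
    intro j i hg
    refine cwR_le_of hr hb (hc j).1 ?_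
    rintro ⟨y, hy1, hy2⟩
    have := h hk a hv _ j hg
    rwa [hb.hj j ⟨y, i.2 hy1, hy2⟩] at this
  refine ⟨h1, h2, fun RPx p hp => ?_, fun RPx j i hi hw => ?_⟩
  · obtain ⟨j, hj, -, hg⟩ := good_of_not_Qr X RPx hp
    exact ⟨j, hj, h1 p j hj hg⟩
  · rcases M.inner_good hk a hv X RPx i hi with ⟨τ, hτ, hd, -, hg⟩ | ⟨hn, hg⟩ | ⟨hτ, -, hg⟩
    · exact absurd hd (Set.not_disjoint_iff_nonempty_inter.2 hw)
    · exfalso
      obtain ⟨y, hy1, hy2⟩ := hw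
      have h3 : (M.Bk v j).near 2 y := by
        intro l
        have h4 := hn y hy1 l
        constructor <;> linarith [h4.1, h4.2]
      have h5 := (M.Bk v j).near_infDist h3
      rw [CB.frontier_N] at hy2
      have h6 : infDist ((M.Bk v j).ψ y) (M.Bk v j).W = 0 := infDist_zero_of_mem hy2
      rw [h6] at h5
      have h7 : (0 : ℝ) < (6 + 1) / 2 ^ (M.Bk v j).kc := by positivity
      linarith
    · exact h2 j i hg

end

end

end Crest.Agent.R096.Bls_168
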