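import Crest.Agent.R096.Wd17_120
import Crest.Agent.R096.Ea0_961

/-!
# Row 96 (helper812), p ≤ 2, R3, leaf [BLK], part 1: the block of a brick with a free scale `kc`

`blkK` = 360's `blkD` (628's prism shell in 874's block) with any scale `kc ≥ 3` of the cells at the core,
unit `uK D m kc = 2 ^ kc * (D.w / m)`, so that `A.linear = (lam * uK) • ψ` with a common unit for all
bricks of a dyadic foam; `blk_of` : the clauses of `Ea0_961.Blk`.
-/

set_option autoImplicit false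
set_option linter.unusedSectionVars false
set_option linter.style.longLine false

open Set Filter Topology Metric MeasureTheory
open scoped ENNReal

namespace Crest.Agent.R096.Blu_812

open Crest.Agent.R096.Bsp_628 Crest.Agent.R096.Brk1_582 Crest.Agent.R096.Brk2_582
open Crest.Agent.R096.Brk3_582 Crest.Agent.R096.Brk5_582 Crest.Agent.R096.Grd_714
open Crest.Agent.R096.Msh_715 Crest.Agent.R096.Ls_222 Crest.Agent.R96.Sg1_199
open Crest.Agent.R096.SkC1_961 (E3 th)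
open Crest.Agent.R096.EaX_766 (cbx)
open Crest.Agent.R096.Msh_810 (ps)
open Crest.Agent.R096.Bxs_627 (zz ctr)
open Crest.Agent.R096.Mal_874 Crest.Agent.R096.Mcc_715
open Crest.Agent.R096.Mdd_360 (mkCB mkCB_Kc mkCB_N mkCB_ps mkCB_uA side_eq two_w_le)
open Crest.Agent.R096.Wd_120 (GridS CoreAt coreAt_T uc gridS_shell)
open Crest.Agent.R096.Ea0_961 (Blk sbF)

noncomputable section

section shell

variable {La : Set E3} {F : Set (Bx (Fin 3))} {δ κ0 : ℝ} {N : ℕ} {FF : Foam La (Pc F) (bc (F := F)) N}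
  {h3 : Module.finrank ℝ (Fin 3 → ℝ) = 3} {c : F} {o : E3} {B : ℝ} (D : Fbr_628.BD FF h3 c o B)
  (hN : N ≤ 4) (BF : BoxFoam La F δ κ0) (hLa : IsOpen La) (hQ : Quads (Pc F) (bc (F := F)))
  {m : ℕ} (hm : 0 < m) {t : ℤ} (ht : 0 < t) (A : E3 ≃ᵃ[ℝ] E3) {lam : ℝ} (hl : 0 < lam)
  (kc : ℕ) (hkc : 3 ≤ kc)

/-- the unit of the block -/
def uK (m kc : ℕ) : ℝ := 2 ^ kc * (D.w / m)

theorem uK_pos (hm : 0 < m) : 0 < uK D m kc := by
  have h1 : (0 : ℝ) < m := by exact_mod_cast hm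
  have h2 := D.w0
  unfold uK
  positivity

/-- **the block of a brick with 628's prism shell, scale `kc` at the core** -/
def blkK : CB E3 3 :=
  mkCB c.1 A hl (uK_pos D kc hm) kc hkc (D.shell hN BF hLa hQ hm t ht) (t + 10) (le_refl (t + 10))

theorem blkK_kc : (blkK D hN BF hLa hQ hm ht A hl kc hkc).kc = kc := rfl

theorem blkK_S : (blkK D hN BF hLa hQ hm ht A hl kc hkc).S = D.shell hN BF hLa hQ hm t ht := rfl

theorem blkK_a' (l : Fin 3) : (blkK D hN BF hLa hQ hm ht A hl kc hkc).a' l =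
    (ctr c.1 l - lam * c.1.side l / 2 - A 0 l) / (lam * uK D m kc) -
      (D.shell hN BF hLa hQ hm t ht).lo l / 2 ^ kc := rfl

theorem blkK_lin (x : E3) : A.linear x =
    (lam * uK D m kc) • (blkK D hN BF hLa hQ hm ht A hl kc hkc).ψ x := by
  have h0 : lam * uK D m kc ≠ 0 := (mul_pos hl (uK_pos D kc hm)).ne'
  funext l
  rw [Pi.smul_apply, smul_eq_mul]
  change _ = lam * uK D m kc * ((lam * uK D m kc)⁻¹ * A.linear x l)
  rw [← mul_assoc, mul_inv_cancel₀ h0, one_mul]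

theorem blkK_hS (l : Fin 3) : uK D m kc * (((D.shell hN BF hLa hQ hm t ht).hi l : ℝ) -
    (D.shell hN BF hLa hQ hm t ht).lo l) = 2 ^ kc * c.1.side l := by
  have h1 := D.lo_eq hm l
  have h2 := D.hi_eq hm l
  have e : c.1.side l = D.w / m * ((D.hi m l : ℝ) - D.lo m l) := by
    change c.1.hi l - c.1.lo l = _
    rw [h1, h2]
    ring
  change uK D m kc * ((D.hi m l : ℝ) - D.lo m l) = _
  unfold uK
  rw [e]
  ring

/-- the core of the block -/
theorem blkK_Kc : (blkK D hN BF hLa hQ hm ht A hl kc hkc).Kc = A ⁻¹' cbx c.1 lam :=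
  mkCB_Kc _ _ _ _ _ _ _ _ _ (blkK_hS D hN BF hLa hQ hm ht kc)

/-- the coordinates of the block are 628's lattice coordinates -/
theorem blkK_ps (y : E3) (l : Fin 3) :
    D.w / m * ps (blkK D hN BF hLa hQ hm ht A hl kc hkc).a' (blkK D hN BF hLa hQ hm ht A hl kc hkc).kc
      ((blkK D hN BF hLa hQ hm ht A hl kc hkc).ψ y) l + o l =
    (A y l - (1 - lam) * ctr c.1 l) / lam := by
  have hm' : (0 : ℝ) < m := by exact_mod_cast hm
  have hw := D.w0
  have h0 : ps (blkK D hN BF hLa hQ hm ht A hl kc hkc).a'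
      (blkK D hN BF hLa hQ hm ht A hl kc hkc).kc
      ((blkK D hN BF hLa hQ hm ht A hl kc hkc).ψ y) l =
      (D.shell hN BF hLa hQ hm t ht).lo l +
        2 ^ kc * (A y l - (ctr c.1 l - lam * c.1.side l / 2)) / (lam * uK D m kc) :=
    mkCB_ps _ _ _ _ _ _ _ _ _ y l
  rw [h0]
  have h1 := D.lo_eq hm l
  have e0 : ((D.shell hN BF hLa hQ hm t ht).lo l : ℝ) = D.lo m l := rfl
  rw [e0]
  have e1 : D.w / m * (D.lo m l : ℝ) = c.1.lo l - o l := by linarith
  have e2 : ctr c.1 l - lam * c.1.side l / 2 = (1 - lam) * ctr c.1 l + lam * c.1.lo l := by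
    change (c.1.lo l + c.1.hi l) / 2 - lam * (c.1.hi l - c.1.lo l) / 2 =
      (1 - lam) * ((c.1.lo l + c.1.hi l) / 2) + lam * c.1.lo l
    ring
  rw [mul_add, e1, e2]
  unfold uK
  field_simp
  ring

/-- the block in the target coordinates -/
theorem blkK_N {κ : ℝ} (hκ : (t : ℝ) + 10 ≤ 2 * κ * m) :
    (blkK D hN BF hLa hQ hm ht A hl kc hkc).N ⊆ A ⁻¹' cbx c.1 ((1 + 2 * κ) * lam) := by
  refine mkCB_N _ _ _ _ _ _ _ _ _ (blkK_hS D hN BF hLa hQ hm ht kc) fun l => ?_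
  have hm' : (0 : ℝ) < m := by exact_mod_cast hm
  have hw := D.w0
  have h1 := two_w_le D l
  have ht' : (0 : ℝ) < t := by exact_mod_cast ht
  have hκ0 : 0 < κ := by
    by_contra hcon
    push Not at hcon
    have : 2 * κ * m ≤ 0 := by nlinarith
    linarith
  unfold uK
  push_cast
  have h2 : ((t : ℝ) + 10) * (D.w / m) ≤ κ * c.1.side l := by
    rw [mul_div_assoc', div_le_iff₀ hm']
    calc ((t : ℝ) + 10) * D.w ≤ 2 * κ * m * D.w := mul_le_mul_of_nonneg_right hκ hw.le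
      _ = κ * m * (2 * D.w) := by ring
      _ ≤ κ * m * c.1.side l := by gcongr
      _ = κ * c.1.side l * m := by ring
  have hp : (0 : ℝ) < 2 ^ kc := by positivity
  nlinarith

theorem blkK_uA (x y : E3) : ‖A y - A x‖ = lam * uK D m kc *
    dist ((blkK D hN BF hLa hQ hm ht A hl kc hkc).ψ x)
      ((blkK D hN BF hLa hQ hm ht A hl kc hkc).ψ y) :=
  mkCB_uA _ _ _ _ _ _ _ _ _ x y

theorem blkK_bnd {Bn : ℕ} (h1 : 1 ≤ Bn) (hB : 4 * B ^ 2 ≤ Bn) :
    ∀ i, ∀ p ∈ (blkK D hN BF hLa hQ hm ht A hl kc hkc).S.GG i, ∀ l, |p.1 l| ≤ (Bn : ℤ) :=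
  Fbr_628.BD.shell_bnd D hN BF hLa hQ h1 hB

theorem blkK_size {R0 : ℝ} (hR : 8 * B ≤ R0) (htR : (t : ℝ) ≤ R0) :
    ∀ i, i ≠ (blkK D hN BF hLa hQ hm ht A hl kc hkc).S.core →
      ∀ u ∈ ZP ((blkK D hN BF hLa hQ hm ht A hl kc hkc).S.GG i),
      ∀ v ∈ ZP ((blkK D hN BF hLa hQ hm ht A hl kc hkc).S.GG i), ∀ l, |v l - u l| ≤ R0 :=
  Fbr_628.BD.shell_size D hN BF hLa hQ hR htR

/-- the exact map in the coordinates of the block -/
theorem th_blkK (y : E3) : th A lam (zz c.1 lam) y =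
    D.pt m (uc (blkK D hN BF hLa hQ hm ht A hl kc hkc) y) := by
  funext l
  have h1 := blkK_ps D hN BF hLa hQ hm ht A hl kc hkc y l
  show (A y l - zz c.1 lam l) / lam = o l + D.w / m * _
  rw [add_comm (o l), h1]
  rfl

/-- the clause `grid` -/
theorem grid_blkK (k : ℕ) (hk : (blkK D hN BF hLa hQ hm ht A hl kc hkc).kc ≤ k) :
    ∀ x ∈ (blkK D hN BF hLa hQ hm ht A hl kc hkc).Kc,
      x ∉ I (((blkK D hN BF hLa hQ hm ht A hl kc hkc).T k hk).H
        ((blkK D hN BF hLa hQ hm ht A hl kc hkc).cix k hk)) →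
      ((blkK D hN BF hLa hQ hm ht A hl kc hkc).T k hk).cc x =
        {y | y ∈ (blkK D hN BF hLa hQ hm ht A hl kc hkc).Kc ∧ ∀ a : F,
          (⌊m * sbF F (th A lam (zz c.1 lam) x) a⌋₊ : ℝ) ≤
            m * sbF F (th A lam (zz c.1 lam) y) a ∧
          m * sbF F (th A lam (zz c.1 lam) y) a ≤
            ⌈m * sbF F (th A lam (zz c.1 lam) x) a⌉₊} ∧
      ((blkK D hN BF hLa hQ hm ht A hl kc hkc).T k hk).dim x =
        {a : F | ⌊m * sbF F (th A lam (zz c.1 lam) x) a⌋₊ <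
          ⌈m * sbF F (th A lam (zz c.1 lam) x) a⌉₊}.ncard := by
  intro x hx hn
  have hc := coreAt_T (blkK D hN BF hLa hQ hm ht A hl kc hkc) k hk
  have h := hc.grid (gridS_shell D hN BF hLa hQ hm ht)
    (th_blkK D hN BF hLa hQ hm ht A hl kc hkc) x (by rw [hc.tile]; exact hx) hn
  rw [hc.tile] at h
  exact h

/-- **all clauses of `Ea0_961.Blk` for the block `blkK`**, unit `u = lam * 2 ^ kc * (D.w / m)`; the
hypothesis `hnet` is the rationality of the frame and of the position -/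
theorem blk_blkK {u Cc κ2 κt : ℝ} {Bs Nn : ℕ} (hu : lam * uK D m kc = u) (hCc : 1 ≤ Cc)
    (hw : c.1.sz ≤ Cc * D.w) (hBs1 : 1 ≤ Bs) (hBs : 4 * B ^ 2 ≤ Bs) (hBs8 : 8 * B ≤ Bs)
    (htB : (t : ℝ) ≤ Bs) {κ3 : ℝ} (hκ3 : (t : ℝ) + 10 ≤ 2 * κ3 * m) (h32 : 2 * κ3 ≤ κ2)
    (h33 : 2 * κ3 * lam ≤ (1 - lam) / 2) {k0 : ℕ} (hk : kc ≤ k0)
    (hthin : u / 2 ^ k0 ≤ κt * (lam * c.1.sz) / m)
    (hnet : ∃ (d : ℕ) (B : Fin 3 → Fin 3 → ℤ), 0 < d ∧ d ≤ Nn ∧ (∀ i j, |B i j| ≤ Nn) ∧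
      Rt (ContinuousLinearEquiv.refl ℝ E3) (blkK D hN BF hLa hQ hm ht A hl kc hkc).ψ B d ∧
      ∃ κ : ℕ, ∀ l, ∃ z : ℤ,
        2 ^ κ * (d : ℝ) * (blkK D hN BF hLa hQ hm ht A hl kc hkc).a' l = z) :
    Blk F u Cc κ2 κt Bs m Nn c A lam (blkK D hN BF hLa hQ hm ht A hl kc hkc) k0 hk := by
  have hm' : (0 : ℝ) < m := by exact_mod_cast hm
  have hp : (0 : ℝ) < 2 ^ kc := by positivity
  have e1 : u / 2 ^ kc = lam * D.w / m := by
    rw [← hu]
    unfold uK
    field_simp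
  have hpos : ∀ l, 0 < c.1.side l := fun l => by
    have := two_w_le D l
    have := D.w0
    linarith
  refine ⟨fun x => ?_, hnet, blkK_Kc .., blkK_bnd D hN BF hLa hQ hm ht A hl kc hkc hBs1 hBs,
    ?_, fun x hx => ?_, ?_, ?_, hthin, grid_blkK D hN BF hLa hQ hm ht A hl kc hkc k0 hk⟩
  · rw [← hu]
    exact blkK_lin D hN BF hLa hQ hm ht A hl kc hkc x
  · intro i hi v hv w hw' l
    exact blkK_size D hN BF hLa hQ hm ht A hl kc hkc (R0 := Bs) hBs8 htB i hi v hv w hw' l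
  · have h1 := blkK_N D hN BF hLa hQ hm ht A hl kc hkc hκ3 hx
    constructor
    · intro l
      refine (h1 l).trans ?_
      have h2 := hpos l
      have h3 : (1 + 2 * κ3) * lam ≤ (1 + κ2) * lam :=
        mul_le_mul_of_nonneg_right (by linarith) hl.le
      have h4 := mul_le_mul_of_nonneg_right h3 h2.le
      linarith
    · intro l
      refine (h1 l).trans ?_
      have h2 := hpos l
      have h3 : (1 + 2 * κ3) * lam ≤ (1 + lam) / 2 := by linarith
      have h4 := mul_le_mul_of_nonneg_right h3 h2.le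
      linarith
  · change u / 2 ^ kc ≤ _
    rw [e1]
    have h1 := two_w_le D 0
    have h2 := Bx.side_le_sz c.1 0
    have h3 := D.w0
    have h4 : D.w ≤ c.1.sz := by linarith
    have h5 : lam * D.w ≤ Cc * (lam * c.1.sz) := by
      have h6 : lam * D.w ≤ lam * c.1.sz := mul_le_mul_of_nonneg_left h4 hl.le
      have h7 : 0 ≤ lam * c.1.sz := mul_nonneg hl.le (h3.le.trans h4)
      nlinarith
    exact div_le_div_of_nonneg_right h5 hm'.le
  · change lam * c.1.sz / m ≤ Cc * (u / 2 ^ kc)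
    rw [e1, mul_div_assoc']
    refine div_le_div_of_nonneg_right ?_ hm'.le
    have h6 := mul_le_mul_of_nonneg_left hw hl.le
    linarith

end shell

end

end Crest.Agent.R096.Blu_812
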