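import Crest.Agent.R096.Ez5_748
import Crest.Agent.R096.Mfi6_290
import Crest.Agent.R096.Ea1_713

/-!
# Row 96, EaX, (BM-2) of 365 #11372 / 290 #11456: mean over the LARGE box `Wt A ρ` of the energy of ALL
inner potential tiles of one block (cubes of every scale `≥ kc`, shell), before the mesh data.

`block_mean`: any injective family `nmm : τ → Pt Q` of used names.
-/

set_option autoImplicit false
set_option linter.unusedSectionVars false
set_option linter.unusedVariables false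
set_option linter.style.longLine false

open MeasureTheory Set Filter Metric
open scoped Topology ENNReal NNReal

namespace Crest.Agent.R096.Bm_748

open Crest.Agent.R096.Msh_715 Crest.Agent.R096.Msh_810 Crest.Agent.R096.Mal_874
open Crest.Agent.R096.SkC1_961 (E3)
open Crest.Agent.R96.Sg8_199 (Mu EnA measurable_EnA)
open Crest.Agent.R96.Sg1_199 (sgm li)
open Crest.Agent.R96.Wm_72 (Tw)
open Crest.Agent.R96.Wm3_748 Crest.Agent.R96.Wm4_748
open Crest.Agent.R096.Mfi_290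
open Crest.Agent.R096.Ez4_748 (tsum_supp EnA_inter Mu_cubes_use nw_of_isM)
open Crest.Agent.R096.EaX_766 (lin)
open Crest.Agent.R096.Exa_365 (Wt)

noncomputable section

/-! ### the shell -/

theorem pol_eq (Q : CB E3 3) (s : Q.S.Ix) :
    pol Q s = P ((Q.T Q.kc le_rfl).H (Sum.inr s)) := by
  ext y
  rw [CB.T_inr, mem_P_iH]
  rfl

theorem isClosed_pol (Q : CB E3 3) (s : Q.S.Ix) : IsClosed (pol Q s) := by
  rw [pol_eq]
  exact isClosed_P _

theorem shell_aedisj (Q : CB E3 3) {s s' : Q.S.Ix} (h : s ≠ s') :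
    AEDisjoint volume (pol Q s) (pol Q s') := by
  rw [pol_eq, pol_eq]
  exact Crest.Agent.R096.Ea_713.aedisj volume (Q.T Q.kc le_rfl) (fun h' => h (Sum.inr.inj h'))

/-- size of the tiles of the shell in the frame -/
theorem pol_dist' (Q : CB E3 3) {R : ℝ} (hR0 : 0 ≤ R) {s : Q.S.Ix}
    (hR : ∀ u ∈ ZP (Q.S.GG s), ∀ v ∈ ZP (Q.S.GG s), ∀ l, |v l - u l| ≤ R) {x y : E3}
    (hx : x ∈ pol Q s) (hy : y ∈ pol Q s) : dist (Q.ψ x) (Q.ψ y) ≤ R / 2 ^ Q.kc := by
  have hp : (0 : ℝ) < 2 ^ Q.kc := by positivity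
  rw [dist_pi_le_iff (by positivity)]
  intro l
  have h1 := hR _ hy _ hx l
  have e : ps Q.a' Q.kc (Q.ψ x) l - ps Q.a' Q.kc (Q.ψ y) l = 2 ^ Q.kc * (Q.ψ x l - Q.ψ y l) := by
    unfold ps
    ring
  rw [e, abs_mul, abs_of_pos hp] at h1
  rw [Real.dist_eq, le_div_iff₀' hp]
  exact h1

theorem kc_le_use {Q : CB E3 3} {p : ℕ × (Fin 3 → ℤ)} (h : Use Q p) : Q.kc ≤ p.1 := by
  obtain ⟨⟨k, hk, hM⟩, -⟩ := h
  exact Q.kc_le k hk (τ := ⟨⟨⟨p.1, p.2, Finset.univ⟩, hM⟩, rfl⟩)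

/-! ### multiplicity -/

theorem Mu_split {τ : Type*} {Til Ac : τ → Set E3} (P : τ → Prop) (z : E3) :
    Mu volume Til Ac z = Mu volume (fun t : {t // P t} => Til t) (fun t => Ac t) z +
      Mu volume (fun t : {t // ¬ P t} => Til t) (fun t => Ac t) z := by
  classical
  unfold Mu
  set f : τ → ℝ≥0∞ := fun i => {z : E3 | ∃ y ∈ Til i, z - y ∈ Ac i}.indicator
    (fun _ => volume (Til i)) z with hf
  have h1 : ∑' i, f i = ∑' i, (if P i then f i else 0) + ∑' i, (if P i then 0 else f i) := by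
    rw [← ENNReal.tsum_add]
    refine tsum_congr fun i => ?_
    by_cases h : P i
    · rw [if_pos h, if_pos h, add_zero]
    · rw [if_neg h, if_neg h, zero_add]
  rw [h1, tsum_supp (fun i => if P i then f i else 0) P (fun i h => if_neg h),
    tsum_supp (fun i => if P i then 0 else f i) (fun i => ¬ P i) (fun i h => if_pos (not_not.1 h))]
  congr 1
  · exact tsum_congr fun i => if_pos i.2
  · exact tsum_congr fun i => if_neg i.2

section

variable {Q : CB E3 3} {τ : Type*} [Countable τ] (nmm : τ → Pt Q)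

/-- **multiplicity of all inner potential tiles**, shifts of size `≤ r` in the frame -/
theorem Mu_inner (hinj : Function.Injective nmm) (huse : ∀ t p, nmm t = Sum.inl p → Use Q p)
    (hsh : ∀ t s, nmm t = Sum.inr s → s ≠ Q.S.core) {R : ℝ} (hR1 : 1 ≤ R)
    (hR : ∀ s, s ≠ Q.S.core → ∀ u ∈ ZP (Q.S.GG s), ∀ v ∈ ZP (Q.S.GG s), ∀ l, |v l - u l| ≤ R)
    {Ac : τ → Set E3} {r : ℝ} (hr : 0 ≤ r) (hA : ∀ t, ∀ b ∈ Ac t, ‖Q.ψ b‖ ≤ r) (z : E3) :
    Mu volume (fun t => til Q (nmm t)) Ac z ≤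
      182 * volume (Q.ψ ⁻¹' closedBall 0 (r + R / 2 ^ Q.kc)) := by
  have hp : (0 : ℝ) < 2 ^ Q.kc := by positivity
  rw [Mu_split (fun t => ∃ p, nmm t = Sum.inl p)]
  have h1 : Mu volume (fun t : {t // ∃ p, nmm t = Sum.inl p} => til Q (nmm t)) (fun t => Ac t) z ≤
      181 * volume (Q.ψ ⁻¹' closedBall 0 (r + R / 2 ^ Q.kc)) := by
    have h2 := Mu_cubes_use (μ := (volume : Measure E3)) Q
      (τ := {t // ∃ p, nmm t = Sum.inl p}) (Til := fun t => til Q (nmm t)) (Ac := fun t => Ac t)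
      (fun t => t.2.choose.1) (fun t => t.2.choose.2) (fun t t' e1 e2 => by
        apply Subtype.ext
        apply hinj
        rw [t.2.choose_spec, t'.2.choose_spec]
        exact congrArg Sum.inl (Prod.ext e1 e2)) (fun t =>
        (congrArg (til Q) t.2.choose_spec : til Q (nmm t) = til Q (Sum.inl t.2.choose)))
      (k0 := Q.kc) (ρ := r) hr (fun t b hb => by
        have hu := huse t _ t.2.choose_spec
        refine ⟨hA _ b hb, kc_le_use hu, fun hlt => ?_⟩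
        obtain ⟨⟨k, hk, hM⟩, -⟩ := hu
        exact nw_of_isM Q hk hM hlt) z
    refine h2.trans ?_
    have e : ENNReal.ofReal (60 * (3 : ℕ) + 1) = 181 := by norm_num
    rw [e]
    refine mul_le_mul' le_rfl (measure_mono (preimage_mono (closedBall_subset_closedBall ?_)))
    have : 1 / 2 ^ Q.kc ≤ R / 2 ^ Q.kc := div_le_div_of_nonneg_right hR1 hp.le
    linarith
  have h3 : Mu volume (fun t : {t // ¬ ∃ p, nmm t = Sum.inl p} => til Q (nmm t)) (fun t => Ac t) z ≤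
      volume (Q.ψ ⁻¹' closedBall 0 (r + R / 2 ^ Q.kc)) := by
    have key : ∀ t : {t // ¬ ∃ p, nmm t = Sum.inl p}, ∃ s, nmm t = Sum.inr s := by
      rintro ⟨t, ht⟩
      rcases h : nmm t with p | s
      · exact absurd ⟨p, h⟩ ht
      · exact ⟨s, rfl⟩
    have e : ∀ t : {t // ¬ ∃ p, nmm t = Sum.inl p}, til Q (nmm t) = pol Q (key t).choose :=
      fun t => congrArg (til Q) (key t).choose_spec
    refine Mu_frame (μ := (volume : Measure E3)) Q.ψ
      (Til := fun t : {t // ¬ ∃ p, nmm t = Sum.inl p} => til Q (nmm t)) ?_ ?_ ?_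
      (fun t b hb => hA _ b hb) z
    · intro t
      change MeasurableSet (til Q (nmm t))
      rw [e]
      exact (isClosed_pol Q _).measurableSet
    · intro t t' htt
      change AEDisjoint volume (til Q (nmm t)) (til Q (nmm t'))
      rw [e, e]
      refine shell_aedisj Q fun h => htt (Subtype.ext (hinj ?_))
      rw [(key t).choose_spec, (key t').choose_spec, h]
    · intro t y hy y' hy'
      change y ∈ til Q (nmm t) at hy
      change y' ∈ til Q (nmm t) at hy'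
      rw [e] at hy hy'
      exact pol_dist' Q (by linarith) (hR _ (hsh t _ (key t).choose_spec)) hy' hy
  calc _ ≤ 181 * volume (Q.ψ ⁻¹' closedBall 0 (r + R / 2 ^ Q.kc)) +
        volume (Q.ψ ⁻¹' closedBall 0 (r + R / 2 ^ Q.kc)) := add_le_add h1 h3
    _ = _ := by
        have : (182 : ℝ≥0∞) = 181 + 1 := by norm_num
        rw [this, add_mul, one_mul]

/-- scale of a name -/
def scn (Q : CB E3 3) : Pt Q → ℕ
  | Sum.inl p => p.1
  | Sum.inr _ => Q.kc

/-- size of a used tile in the frame -/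
theorem til_size (Q : CB E3 3) {R : ℝ} (hR1 : 1 ≤ R)
    (hR : ∀ s, s ≠ Q.S.core → ∀ u ∈ ZP (Q.S.GG s), ∀ v ∈ ZP (Q.S.GG s), ∀ l, |v l - u l| ≤ R)
    {t : Pt Q} (hsh : ∀ s, t = Sum.inr s → s ≠ Q.S.core) {y y' : E3} (hy : y ∈ til Q t)
    (hy' : y' ∈ til Q t) : dist (Q.ψ y') (Q.ψ y) ≤ R / 2 ^ scn Q t := by
  rcases t with p | s
  · refine (cube_dist (Q := Q) hy' hy).trans ?_
    exact div_le_div_of_nonneg_right hR1 (by positivity)
  · exact pol_dist' Q (by linarith) (hR s (hsh s rfl)) hy' hy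

/-- **(BM-2) MEAN OVER THE LARGE BOX of the energies of all inner potential tiles of a block**
(`t = 1` in 365's use: `s * (R / 2 ^ kc) ≤ ρ`) -/
theorem block_mean (hinj : Function.Injective nmm) (huse : ∀ t p, nmm t = Sum.inl p → Use Q p)
    (hsh : ∀ t s, nmm t = Sum.inr s → s ≠ Q.S.core) {R : ℝ} (hR1 : 1 ≤ R)
    (hR : ∀ s, s ≠ Q.S.core → ∀ u ∈ ZP (Q.S.GG s), ∀ v ∈ ZP (Q.S.GG s), ∀ l, |v l - u l| ≤ R)
    {A : E3 ≃ᵃ[ℝ] E3} {s : ℝ} (hs : 0 < s) (hψ : ∀ y, Q.ψ y = s⁻¹ • lin A y)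
    {η : Type*} (Ed : τ → Finset η) {m : ℕ} (hn : ∀ t, (Ed t).card ≤ m) (x v : η → E3)
    (hsub : ∀ t, ∀ j ∈ Ed t, sgm (x j) (v j) ⊆ til Q (nmm t)) {β : τ → ℝ≥0∞}
    (hβ : ∀ t, β t ≤ ENNReal.ofReal (2 * 2 ^ scn Q (nmm t)) *
      ‖(Q.ψ : E3 →L[ℝ] (Fin 3 → ℝ))‖ₑ)
    {D' : E3 → E3 →L[ℝ] E3} (hD : ∀ w, Measurable fun z => D' z w)
    {ρ t : ℝ} (hρ : 0 ≤ ρ) (ht : 0 ≤ t) (hl : s * (R / 2 ^ Q.kc) ≤ t * ρ)
    {S : Set E3} (hS : MeasurableSet S)
    (hSA : ∀ t, ∀ y ∈ til Q (nmm t), ∀ a ∈ Wt A ρ, y + a ∈ S) {p : ℝ} (hp : 1 ≤ p) :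
    ∫⁻ a in Wt A ρ, EnA volume (fun t => til Q (nmm t)) (fun _ => univ) Ed β
        (fun j z => ‖D' z (v j)‖ₑ) x v p a ≤
      (K3 p m 2 R t 182 * ‖lin A‖ₑ ^ p * ∫⁻ z in S, ‖(D' z).comp (lin A.symm)‖ₑ ^ p) *
        volume (Wt A ρ) := by
  have hWm : MeasurableSet (Wt A ρ) := by
    rw [Wt_eq hs hψ ρ]
    exact Q.ψ.continuous.measurable measurableSet_Icc
  rw [setLIntegral_congr_fun (g := fun a => EnA volume (fun t => til Q (nmm t))
    (fun t => (univ : Set E3) ∩ Wt A ρ) Ed β (fun j z => ‖D' z (v j)‖ₑ) x v p a) hWm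
    (fun a ha => EnA_inter ha)]
  refine mean_A (ψ := Q.ψ) hs hψ (fun t => MeasurableSet.univ.inter hWm) Ed hn x v hsub
    (fun t => scn Q (nmm t)) zero_le_two (by linarith) hβ
    (fun i y hy y' hy' => til_size Q hR1 hR (fun s' h => hsh i s' h) hy hy') hD hS
    (fun i y hy a ha => hSA i y hy a ha.2) (by simp) hρ ht hl (fun z _ => ?_) hp
  exact Mu_inner nmm hinj huse hsh hR1 hR (by positivity)
    (fun i b hb => norm_of_Wt hs hψ hρ hb.2) z

end

end

end Crest.Agent.R096.Bm_748
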