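import Crest.Agent.R096.Bm1_748

/-!
# Row 96, EaX, (BM-2): position of the translated inner tiles (hypothesis `hSA` of `block_mean`)

`til_off_core`: a used potential tile which is not the core does not meet the open core.
`til_add_mem`: `y + v ∈ A⁻¹ cbx c μ' \ A⁻¹ cbx c lam` for `y` in such a tile and `v ∈ Wt A ρ`.
-/

set_option autoImplicit false
set_option linter.unusedSectionVars false
set_option linter.unusedVariables false
set_option linter.style.longLine false

open MeasureTheory Set Filter Metric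
open scoped Topology ENNReal NNReal

namespace Crest.Agent.R096.Bm_748

open Crest.Agent.R096.Msh_715 Crest.Agent.R096.Msh_810 Crest.Agent.R096.Mal_874
open Crest.Agent.R096.SkC1_961 (E3)
open Crest.Agent.R096.Bsp_628 Crest.Agent.R096.Brk1_582 Crest.Agent.R096.Brk3_582
open Crest.Agent.R096.Brk5_582
open Crest.Agent.R096.Bxs_627 (ctr)
open Crest.Agent.R096.Mfi_290
open Crest.Agent.R096.EaX_766 (lin cbx)
open Crest.Agent.R096.Exa_365 (Wt)

noncomputable section

/-- the interior of a polyhedron with an interior point (as in 642's `interior_P`) -/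
theorem int_P {E : Type*} [NormedAddCommGroup E] [NormedSpace ℝ E]
    {H : Finset ((E →L[ℝ] ℝ) × ℝ)} (hne : (I H).Nonempty) : interior (P H) ⊆ I H := by
  intro x hx h hh
  obtain ⟨z, hz⟩ := hne
  have hxP : x ∈ P H := interior_subset hx
  by_contra hcon
  have e : h.1 x = h.2 := le_antisymm (hxP h hh) (not_lt.1 hcon)
  have hc : ContinuousAt (fun s : ℝ => x + s • (x - z)) 0 := by fun_prop
  have hev : ∀ᶠ s in 𝓝 (0 : ℝ), x + s • (x - z) ∈ interior (P H) := by
    refine hc.eventually_mem (isOpen_interior.mem_nhds ?_)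
    simpa using hx
  obtain ⟨r, hr, hr'⟩ := Metric.eventually_nhds_iff.1 hev
  have h1 : x + (r / 2) • (x - z) ∈ P H := interior_subset (hr' (by
    rw [Real.dist_eq, sub_zero, abs_of_pos (by positivity)]; linarith))
  have h2 := h1 h hh
  rw [map_add, map_smul, map_sub, e, smul_eq_mul] at h2
  have h3 := hz h hh
  have h4 : 0 < r / 2 * (h.2 - h.1 z) := by
    apply mul_pos (by positivity); linarith
  linarith

/-- used names of a block -/
def Used (Q : CB E3 3) : Pt Q → Prop
  | Sum.inl p => Use Q p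
  | Sum.inr s => s ≠ Q.S.core

/-- a used potential tile is a tile of some mesh of the block, different from the core -/
theorem exists_ix {Q : CB E3 3} {t : Pt Q} (ht : Used Q t) : ∃ (k : ℕ) (hk : Q.kc ≤ k),
    ∃ i, P ((Q.T k hk).H i) = til Q t ∧ i ≠ Q.cix k hk := by
  rcases t with p | s
  · obtain ⟨⟨k, hk, hM⟩, h2, h3⟩ := ht
    set τ : Top (Q.D k hk) := ⟨⟨⟨p.1, p.2, Finset.univ⟩, hM⟩, rfl⟩ with hτ
    have e : P ((Q.T0 k hk).H τ) = cube Q p.1 p.2 := by
      ext y
      exact Q.tile_T0 k hk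
    have hb : ¬ P ((Q.T0 k hk).H τ) ⊆ Q.S.bp Q.ψ Q.a' Q.kc := by
      rw [e]
      exact h3
    exact ⟨k, hk, Sum.inl ⟨τ, hb⟩, e, fun h => by cases h⟩
  · refine ⟨Q.kc, le_rfl, Sum.inr s, (pol_eq Q s).symm, fun h => ?_⟩
    exact ht (Sum.inr.inj h)

/-- **a used potential tile does not meet the open core** -/
theorem til_off_core {Q : CB E3 3} {t : Pt Q} (ht : Used Q t) {y : E3} (hy : y ∈ til Q t) :
    y ∉ interior Q.Kc := by
  intro h
  obtain ⟨k, hk, i, h1, h2⟩ := exists_ix ht
  rw [← Q.P_core k hk] at h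
  have h3 : y ∈ I ((Q.T k hk).H (Q.cix k hk)) := int_P ((Q.T k hk).ne _) h
  have h4 : i ∈ (Q.T k hk).at_ y := by
    change y ∈ P ((Q.T k hk).H i)
    rw [h1]
    exact hy
  rw [(Q.T k hk).at_eq_singleton h3, mem_singleton_iff] at h4
  exact h2 h4

/-- a used potential tile lies in the block -/
theorem used_sub_N {Q : CB E3 3} {t : Pt Q} (ht : Used Q t) : til Q t ⊆ Q.N := by
  rcases t with p | s
  · exact ht.2.1
  · intro y hy
    have h2 : y ∈ P ((Q.T Q.kc le_rfl).H (Sum.inr s)) := by
      rw [← pol_eq]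
      exact hy
    exact Q.bp_sub_N (Q.P_inr_sub _ le_rfl s h2)

theorem A_add (A : E3 ≃ᵃ[ℝ] E3) (y v : E3) : A (y + v) = A y + lin A v := by
  have h : A (v +ᵥ y) = A.linear v +ᵥ A y := A.map_vadd y v
  rw [vadd_eq_add, vadd_eq_add] at h
  rw [add_comm y v, h, add_comm]
  rfl

/-- **the translated tiles lie in the layer `S_c` of 365** -/
theorem til_add_mem {Q : CB E3 3} {A : E3 ≃ᵃ[ℝ] E3} {c : Bx (Fin 3)} {lam lam' μ μ' ρ : ℝ}
    (hρ : 0 ≤ ρ) (hK : Q.Kc = A ⁻¹' cbx c lam') (hN : Q.N ⊆ A ⁻¹' cbx c μ)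
    (h1 : ∀ k, ρ < (lam' - lam) * c.side k / 2) (h2 : ∀ k, ρ ≤ (μ' - μ) * c.side k / 2)
    {t : Pt Q} (ht : Used Q t) {y v : E3} (hy : y ∈ til Q t) (hv : v ∈ Wt A ρ) :
    y + v ∈ A ⁻¹' cbx c μ' \ A ⁻¹' cbx c lam := by
  have hv' : ∀ k, |lin A v k| ≤ ρ := by
    intro k
    have h3 := hv.1 k
    have h4 := hv.2 k
    simp only [Pi.zero_apply] at h3
    rw [abs_le]
    exact ⟨by linarith, h4⟩
  have e : ∀ k, A (y + v) k = A y k + lin A v k := by
    intro k
    rw [A_add]
    rfl
  constructor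
  · intro k
    have h3 : |A y k - ctr c k| ≤ μ * c.side k / 2 := hN (used_sub_N ht hy) k
    have h4 := abs_le.1 h3
    have h5 := abs_le.1 (hv' k)
    have h6 := h2 k
    have e1 : (μ' - μ) * c.side k / 2 = μ' * c.side k / 2 - μ * c.side k / 2 := by ring
    rw [e k, abs_le]
    constructor <;> linarith [h4.1, h4.2, h5.1, h5.2]
  · intro h
    apply til_off_core ht hy
    have hopen : IsOpen {x : E3 | ∀ k, |A x k - ctr c k| < lam' * c.side k / 2} := by
      have : {x : E3 | ∀ k, |A x k - ctr c k| < lam' * c.side k / 2} =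
          ⋂ k, {x : E3 | |A x k - ctr c k| < lam' * c.side k / 2} := by
        ext x
        simp
      rw [this]
      refine isOpen_iInter_of_finite fun k => ?_
      refine isOpen_lt ?_ continuous_const
      have hA : Continuous (A : E3 → E3) := A.toAffineMap.continuous_of_finiteDimensional
      exact (((continuous_apply k).comp hA).sub continuous_const).abs
    refine mem_interior.2 ⟨_, ?_, hopen, ?_⟩
    · intro x hx
      rw [hK]
      exact fun k => (hx k).le
    · intro k
      have h3 : |A (y + v) k - ctr c k| ≤ lam * c.side k / 2 := h k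
      rw [e k] at h3
      have h4 := abs_le.1 h3
      have h5 := abs_le.1 (hv' k)
      have h6 := h1 k
      have e1 : (lam' - lam) * c.side k / 2 = lam' * c.side k / 2 - lam * c.side k / 2 := by ring
      rw [abs_lt]
      constructor <;> linarith [h4.1, h4.2, h5.1, h5.2]

end

end Crest.Agent.R096.Bm_748
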