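import Crest.Agent.R096.Bm2_748

/-!
# Row 96, EaX, (BM-2), FINE PART (365 #11531 (a)): mean over `Wt A ρ` of the energy of the used cubes of
scale `≥ k0` of one block (any `k0 ≥ kc`), before the mesh data.
-/

set_option autoImplicit false
set_option linter.unusedSectionVars false
set_option linter.unusedVariables false
set_option linter.style.longLine false

open MeasureTheory Set Filter Metric
open scoped Topology ENNReal NNReal

namespace Crest.Agent.R096.Bm_748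

open Crest.Agent.R096.Msh_715 Crest.Agent.R096.Msh_810 Crest.Agent.R096.Mal_874
open Crest.Agent.R096.SkC1_961 (E3)
open Crest.Agent.R96.Sg8_199 (Mu EnA measurable_EnA)
open Crest.Agent.R96.Sg1_199 (sgm li)
open Crest.Agent.R96.Wm_72 (Tw)
open Crest.Agent.R96.Wm3_748 Crest.Agent.R96.Wm4_748
open Crest.Agent.R096.Mfi_290
open Crest.Agent.R096.Ez4_748 (tsum_supp EnA_inter Mu_cubes_use nw_of_isM)
open Crest.Agent.R096.EaX_766 (lin)
open Crest.Agent.R096.Exa_365 (Wt)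

noncomputable section

variable {Q : CB E3 3} {τ : Type*} [Countable τ] (nmm : τ → Pt Q)

/-- **multiplicity of the used cubes of scale `≥ k0`** -/
theorem Mu_fine {k0 : ℕ} (hk0 : Q.kc ≤ k0) (hinj : Function.Injective nmm)
    (hfine : ∀ t, ∃ p, nmm t = Sum.inl p ∧ Use Q p ∧ k0 ≤ p.1)
    {Ac : τ → Set E3} {r : ℝ} (hr : 0 ≤ r) (hA : ∀ t, ∀ b ∈ Ac t, ‖Q.ψ b‖ ≤ r) (z : E3) :
    Mu volume (fun t => til Q (nmm t)) Ac z ≤
      181 * volume (Q.ψ ⁻¹' closedBall 0 (r + 1 / 2 ^ k0)) := by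
  have h2 := Mu_cubes_use (μ := (volume : Measure E3)) Q (Til := fun t => til Q (nmm t)) (Ac := Ac)
    (fun t => (hfine t).choose.1) (fun t => (hfine t).choose.2) (fun t t' e1 e2 => by
      apply hinj
      rw [(hfine t).choose_spec.1, (hfine t').choose_spec.1]
      exact congrArg Sum.inl (Prod.ext e1 e2)) (fun t =>
      (congrArg (til Q) (hfine t).choose_spec.1 :
        til Q (nmm t) = til Q (Sum.inl (hfine t).choose)))
    (k0 := k0) (ρ := r) hr (fun t b hb => by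
      obtain ⟨-, hu, hk⟩ := (hfine t).choose_spec
      refine ⟨hA _ b hb, hk, fun hlt => ?_⟩
      obtain ⟨⟨k, hk', hM⟩, -⟩ := hu
      exact nw_of_isM Q hk' hM (by omega)) z
  refine h2.trans (le_of_eq ?_)
  have e : ENNReal.ofReal (60 * (3 : ℕ) + 1) = 181 := by norm_num
  rw [e]

/-- **(BM-2), FINE PART: mean over the box `Wt A ρ` of the energies of the used cubes of scale `≥ k0`** -/
theorem block_mean_fine {k0 : ℕ} (hk0 : Q.kc ≤ k0) (hinj : Function.Injective nmm)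
    (hfine : ∀ t, ∃ p, nmm t = Sum.inl p ∧ Use Q p ∧ k0 ≤ p.1)
    {A : E3 ≃ᵃ[ℝ] E3} {s : ℝ} (hs : 0 < s) (hψ : ∀ y, Q.ψ y = s⁻¹ • lin A y)
    {η : Type*} (Ed : τ → Finset η) {m : ℕ} (hn : ∀ t, (Ed t).card ≤ m) (x v : η → E3)
    (hsub : ∀ t, ∀ j ∈ Ed t, sgm (x j) (v j) ⊆ til Q (nmm t)) {β : τ → ℝ≥0∞}
    (hβ : ∀ t, β t ≤ ENNReal.ofReal (2 * 2 ^ scn Q (nmm t)) *
      ‖(Q.ψ : E3 →L[ℝ] (Fin 3 → ℝ))‖ₑ)
    {D' : E3 → E3 →L[ℝ] E3} (hD : ∀ w, Measurable fun z => D' z w)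
    {ρ t : ℝ} (hρ : 0 ≤ ρ) (ht : 0 ≤ t) (hl : s * (1 / 2 ^ k0) ≤ t * ρ)
    {S : Set E3} (hS : MeasurableSet S)
    (hSA : ∀ t, ∀ y ∈ til Q (nmm t), ∀ a ∈ Wt A ρ, y + a ∈ S) {p : ℝ} (hp : 1 ≤ p) :
    ∫⁻ a in Wt A ρ, EnA volume (fun t => til Q (nmm t)) (fun _ => univ) Ed β
        (fun j z => ‖D' z (v j)‖ₑ) x v p a ≤
      (K3 p m 2 1 t 181 * ‖lin A‖ₑ ^ p * ∫⁻ z in S, ‖(D' z).comp (lin A.symm)‖ₑ ^ p) *
        volume (Wt A ρ) := by
  have hWm : MeasurableSet (Wt A ρ) := by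
    rw [Wt_eq hs hψ ρ]
    exact Q.ψ.continuous.measurable measurableSet_Icc
  rw [setLIntegral_congr_fun (g := fun a => EnA volume (fun t => til Q (nmm t))
    (fun t => (univ : Set E3) ∩ Wt A ρ) Ed β (fun j z => ‖D' z (v j)‖ₑ) x v p a) hWm
    (fun a ha => EnA_inter ha)]
  refine mean_A (ψ := Q.ψ) hs hψ (fun t => MeasurableSet.univ.inter hWm) Ed hn x v hsub
    (fun t => scn Q (nmm t)) zero_le_two zero_le_one hβ ?_ hD hS
    (fun i y hy a ha => hSA i y hy a ha.2) (by simp) hρ ht hl (fun z _ => ?_) hp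
  · intro i y hy y' hy'
    obtain ⟨p, e, -, -⟩ := hfine i
    rw [e] at hy hy' ⊢
    exact cube_dist (Q := Q) hy' hy
  · exact Mu_fine nmm hk0 hinj hfine (by positivity)
      (fun i b hb => norm_of_Wt hs hψ hρ hb.2) z

/-- translated fine cubes are near the wall -/
theorem fine_add_Lyr {k0 : ℕ} (hk0 : Q.kc < k0) {p : ℕ × (Fin 3 → ℤ)} (hu : Use Q p)
    (hp : k0 ≤ p.1) {y v : E3} (hy : y ∈ cube Q p.1 p.2) {r : ℝ} (hv : ‖Q.ψ v‖ ≤ r) :
    y + v ∈ Lyr Q (15 / 2 ^ k0 + r) := by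
  obtain ⟨⟨k, hk, hM⟩, -⟩ := hu
  exact add_mem_Lyr Q hp (nw_of_isM Q hk hM (by omega)) hy hv

/-- the layer at the wall of thickness `< 7 / 2 ^ kc` (+ shift) misses the core -/
theorem Lyr_off_core {s : ℝ} (hs : s < 7 / 2 ^ Q.kc) {y : E3} (hy : y ∈ Lyr Q s) : y ∉ Q.Kc := by
  intro h
  have h1 : infDist (Q.ψ y) Q.W ≤ s := hy
  have h2 : Q.near 2 y := by
    intro l
    have h3 : (Q.S.lo l : ℝ) ≤ ps Q.a' Q.kc (Q.ψ y) l ∧ ps Q.a' Q.kc (Q.ψ y) l ≤ Q.S.hi l := h l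
    have h4 := Q.S.t_pos
    constructor <;> linarith [h3.1, h3.2]
  have h3 := Q.near_infDist h2
  have e : ((6 : ℝ) + 1) / 2 ^ Q.kc = 7 / 2 ^ Q.kc := by norm_num
  rw [e] at h3
  linarith

end

end Crest.Agent.R096.Bm_748
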