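import Crest.Agent.R096.Mfb1_290

/-!
# Row 96, EaX: block mean before the data ([BM] of 365 #11372), part 2: translations, domination
-/

set_option autoImplicit false
set_option linter.unusedSectionVars false

open MeasureTheory Set Filter Metric
open scoped Topology ENNReal

namespace Crest.Agent.R096.Mfb_290

open Msh_715 Cut_874 Msh_810 Mal_874 Mfi_290
open Crest.Agent.R096.SkC1_961 (E3 Cfg)
open Crest.Agent.R96.Sg1_199 (li sgm)
open Crest.Agent.R96.Sg8_199 (EnA)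
open Crest.Agent.R96.Pm_199 (sh li_par)

noncomputable section

/-! ### translations of the block -/

variable (Q : CB E3 3) (w0 : E3)

theorem use_tr (p : ℕ × (Fin 3 → ℤ)) : Use (Q.tr w0) p ↔ Use Q p := by
  unfold Use
  have h1 : (∃ (k : ℕ) (hk : (Q.tr w0).kc ≤ k), IsM ((Q.tr w0).D k hk) ⟨p.1, p.2, Finset.univ⟩) ↔
      ∃ (k : ℕ) (hk : Q.kc ≤ k), IsM (Q.D k hk) ⟨p.1, p.2, Finset.univ⟩ := by
    constructor
    · rintro ⟨k, hk, h⟩
      exact ⟨k, hk, (isM_tr Q w0 k hk).1 h⟩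
    · rintro ⟨k, hk, h⟩
      exact ⟨k, hk, (isM_tr Q w0 k hk).2 h⟩
  have h2 : cube (Q.tr w0) p.1 p.2 ⊆ (Q.tr w0).N ↔ cube Q p.1 p.2 ⊆ Q.N := by
    rw [cube_tr]
    exact sub_tr (Q.mem_N_tr w0)
  have h3 : cube (Q.tr w0) p.1 p.2 ⊆ (Q.tr w0).S.bp (Q.tr w0).ψ (Q.tr w0).a' (Q.tr w0).kc ↔
      cube Q p.1 p.2 ⊆ Q.S.bp Q.ψ Q.a' Q.kc := by
    rw [cube_tr]
    exact sub_tr (mem_bp_tr Q w0)
  rw [h1, h2, h3]

theorem used_tr (t : Pt Q) : used (Q.tr w0) t ↔ used Q t := by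
  rcases t with p | s
  · exact use_tr Q w0 p
  · exact Iff.rfl

theorem sc_tr (t : Pt Q) : sc (Q.tr w0) t = sc Q t := by
  rcases t with p | s <;> rfl

theorem fk_tr (t : Pt Q) : fk (Q.tr w0) t = fk Q t := by
  classical
  rcases t with p | s
  · have h : (cube (Q.tr w0) p.1 p.2 ∩
        (Q.tr w0).S.bp (Q.tr w0).ψ (Q.tr w0).a' (Q.tr w0).kc).Nonempty ↔
        (cube Q p.1 p.2 ∩ Q.S.bp Q.ψ Q.a' Q.kc).Nonempty := by
      rw [cube_tr]
      exact inter_tr (mem_bp_tr Q w0)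
    by_cases hb : (cube Q p.1 p.2 ∩ Q.S.bp Q.ψ Q.a' Q.kc).Nonempty
    · have e1 : fk Q (Sum.inl p) = Q.kc := if_pos hb
      have e2 : fk (Q.tr w0) (Sum.inl p) = (Q.tr w0).kc := if_pos (h.2 hb)
      exact e2.trans e1.symm
    · have e1 : fk Q (Sum.inl p) = p.1 + 1 := if_neg hb
      have e2 : fk (Q.tr w0) (Sum.inl p) = p.1 + 1 := if_neg fun h' => hb (h.1 h')
      exact e2.trans e1.symm
  · rfl

theorem fχ_tr (t : Pt Q) (y : E3) : fχ (Q.tr w0) t y = fχ Q t (y - w0) := by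
  have h := chi_tr Q.ψ Q.a' w0 (fk (Q.tr w0) t) y
  rw [fk_tr] at h
  unfold fχ
  rw [fk_tr]
  exact h

theorem fβ_tr (t : Pt Q) : fβ (Q.tr w0) t = fβ Q t := by
  unfold fβ
  rw [sc_tr]
  rfl

theorem EdA_tr (B : ℕ) (R : ℝ) (t : Pt Q) :
    EdA (Q.tr w0) B R t = (EdA Q B R t).map ⟨Seg.tr w0, Seg.tr_inj w0⟩ := by
  classical
  have himg : ∀ K : Seg, fχ (Q.tr w0) t '' (K.tr w0).1 = fχ Q t '' K.1 := by
    intro K
    rw [Seg.tr_val]
    unfold Mfe_161.shf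
    rw [image_image]
    refine image_congr fun y _ => ?_
    rw [fχ_tr, add_sub_cancel_right]
  have hsub : ∀ K : Seg, (K.tr w0).1 ⊆ til (Q.tr w0) t ↔ K.1 ⊆ til Q t := by
    intro K
    rw [til_tr, Seg.tr_val]
    unfold Mfe_161.shf
    exact image_subset_image_iff (add_left_injective w0)
  ext K
  rw [Finset.mem_map]
  refine (mem_EdA (Q := Q.tr w0) (t := t)).trans ?_
  constructor
  · rintro ⟨h1, S, hS, z, h2⟩
    have e : (K.tr (-w0)).tr w0 = K := by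
      rw [Seg.tr_tr, add_neg_cancel, Seg.tr_zero]
    refine ⟨K.tr (-w0), ?_, e⟩
    rw [mem_EdA]
    refine ⟨?_, S, hS, z, ?_⟩
    · rw [← hsub, e]
      exact h1
    · rw [← himg, e]
      exact h2
  · rintro ⟨K', hK', rfl⟩
    rw [mem_EdA] at hK'
    obtain ⟨h1, S, hS, z, h2⟩ := hK'
    refine ⟨(hsub K').2 h1, S, hS, z, ?_⟩
    show fχ (Q.tr w0) t '' (K'.tr w0).1 = _
    rw [himg]
    exact h2

theorem vol_tr (t : Pt Q) : volume (til (Q.tr w0) t) = volume (til Q t) := by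
  refine (congrArg volume (til_tr Q w0 t)).trans ?_
  have h : (fun y : E3 => y + w0) '' til Q t = (fun y : E3 => y + -w0) ⁻¹' til Q t :=
    image_add_right
  rw [h, measure_preimage_add_right]

theorem sum_tr (B : ℕ) (R : ℝ) {G : E3 → E3 → ℝ≥0∞} (hG : ∀ v y, G (-v) y = G v y)
    (s : E3) (t : Pt Q) : ∑ K ∈ EdA (Q.tr w0) B R t, liS G s K =
      ∑ K ∈ EdA Q B R t, liS G (w0 + s) K := by
  refine (congrArg (fun F : Finset Seg => ∑ K ∈ F, liS G s K) (EdA_tr Q w0 B R t)).trans ?_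
  show ∑ K ∈ (EdA Q B R t).map ⟨Seg.tr w0, Seg.tr_inj w0⟩, liS G s K = _
  rw [Finset.sum_map]
  refine Finset.sum_congr rfl fun K _ => ?_
  show liS G s (K.tr w0) = _
  rw [liS_tr hG, add_comm]

/-- energy of one tile -/
def term (B : ℕ) (R : ℝ) (G : E3 → E3 → ℝ≥0∞) (p : ℝ) (s : E3) (t : Pt Q) : ℝ≥0∞ :=
  volume (til Q t) * (ENNReal.ofReal (fβ Q t) * ∑ K ∈ EdA Q B R t, liS G s K) ^ p

theorem FB_eq' (B : ℕ) (R : ℝ) (G : E3 → E3 → ℝ≥0∞) (p : ℝ) (s : E3) :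
    FB Q B R G p s = ∑' t : Us Q, term Q B R G p s t.1 := FB_eq Q B R G p s

theorem term_tr (B : ℕ) (R : ℝ) {G : E3 → E3 → ℝ≥0∞} (hG : ∀ v y, G (-v) y = G v y) (p : ℝ)
    (s : E3) (t : Pt Q) : term (Q.tr w0) B R G p s t = term Q B R G p (w0 + s) t := by
  have h1 := vol_tr Q w0 t
  have h2 := fβ_tr Q w0 t
  have h3 := sum_tr Q w0 B R hG s t
  show volume (til (Q.tr w0) t) *
    (ENNReal.ofReal (fβ (Q.tr w0) t) * ∑ K ∈ EdA (Q.tr w0) B R t, liS G s K) ^ p = _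
  refine (congrArg₂ (· * ·) h1 (congrArg (· ^ p) (congrArg₂ (· * ·)
    (congrArg ENNReal.ofReal h2) h3))).trans ?_
  rfl

/-- energy of one tile, 0 if it is not used -/
def termI (B : ℕ) (R : ℝ) (G : E3 → E3 → ℝ≥0∞) (p : ℝ) (s : E3) (t : Pt Q) : ℝ≥0∞ :=
  {t | used Q t}.indicator (term Q B R G p s) t

theorem FB_ind (B : ℕ) (R : ℝ) (G : E3 → E3 → ℝ≥0∞) (p : ℝ) (s : E3) :
    FB Q B R G p s = ∑' t : Pt Q, termI Q B R G p s t := by
  rw [FB_eq']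
  exact tsum_subtype {t | used Q t} (term Q B R G p s)

theorem termI_tr (B : ℕ) (R : ℝ) {G : E3 → E3 → ℝ≥0∞} (hG : ∀ v y, G (-v) y = G v y) (p : ℝ)
    (s : E3) (t : Pt Q) : termI (Q.tr w0) B R G p s t = termI Q B R G p (w0 + s) t := by
  by_cases h : used Q t
  · have h' : used (Q.tr w0) t := (used_tr Q w0 t).2 h
    have e1 : termI (Q.tr w0) B R G p s t = term (Q.tr w0) B R G p s t :=
      indicator_of_mem (s := {t | used (Q.tr w0) t}) h' _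
    have e2 : termI Q B R G p (w0 + s) t = term Q B R G p (w0 + s) t :=
      indicator_of_mem (s := {t | used Q t}) h _
    exact e1.trans ((term_tr Q w0 B R hG p s t).trans e2.symm)
  · have h' : ¬ used (Q.tr w0) t := fun h'' => h ((used_tr Q w0 t).1 h'')
    have e1 : termI (Q.tr w0) B R G p s t = 0 :=
      indicator_of_notMem (s := {t | used (Q.tr w0) t}) h' _
    have e2 : termI Q B R G p (w0 + s) t = 0 :=
      indicator_of_notMem (s := {t | used Q t}) h _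
    exact e1.trans e2.symm

/-- **the energy of the translated block** -/
theorem FB_tr (B : ℕ) (R : ℝ) {G : E3 → E3 → ℝ≥0∞} (hG : ∀ v y, G (-v) y = G v y) (p : ℝ)
    (s : E3) : FB (Q.tr w0) B R G p s = FB Q B R G p (w0 + s) := by
  have h2 := FB_ind (Q.tr w0) B R G p s
  have h3 := FB_ind Q B R G p (w0 + s)
  have h4 : ∑' t : Pt Q, termI (Q.tr w0) B R G p s t = ∑' t : Pt Q, termI Q B R G p (w0 + s) t :=
    tsum_congr fun t => termI_tr Q w0 B R hG p s t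
  exact h2.trans (h4.trans h3.symm)

/-! ### domination -/

section dom

variable {J : Type} (M : MD E3 3 J) (X : RD M) (j : J) (k0 : ℕ) (hk0 : (M.Q j).kc ≤ k0)

theorem used_of {t : Pt (M.Q j)} (h : (qAc M j t).Nonempty) : used (M.Q j) t := by
  rcases t with p | s
  · obtain ⟨b, -, hU, -⟩ := h
    exact hU
  · obtain ⟨b, hb⟩ := h
    exact hb.2

theorem qχ_eq (t : Pt (M.Q j)) : qχ M j t = fχ (M.Q j) t := by
  classical
  rcases t with p | s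
  · by_cases hb : (cube (M.Q j) p.1 p.2 ∩
        (M.Q j).S.bp (M.Q j).ψ (M.Q j).a' (M.Q j).kc).Nonempty
    · have h1 : kd M j (Sum.inl p) = Kd.near := if_pos hb
      have h2 : kd M j (Sum.inl p) ≠ Kd.far := by rw [h1]; exact fun h => Kd.noConfusion h
      have h3 : qχ M j (Sum.inl p) = chi (M.Q j).ψ (M.Q j).a' (M.Q j).kc := if_neg h2
      have h4 : fk (M.Q j) (Sum.inl p) = (M.Q j).kc := if_pos hb
      rw [h3]
      unfold fχ
      rw [h4]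
    · have h1 : kd M j (Sum.inl p) = Kd.far := if_neg hb
      have h3 : qχ M j (Sum.inl p) = chi (M.Q j).ψ (M.Q j).a' (p.1 + 1) := if_pos h1
      have h4 : fk (M.Q j) (Sum.inl p) = p.1 + 1 := if_neg hb
      rw [h3]
      unfold fχ
      rw [h4]
  · rfl

/-- a potential segment as a segment -/
def toSeg {𝒦 : Set (Set E3)} {U : Set E3} (K : Sgt 𝒦 U) : Seg := ⟨K.1, K.2.2⟩

theorem toSeg_val {𝒦 : Set (Set E3)} {U : Set E3} (K : Sgt 𝒦 U) : (toSeg K).1 = K.1 := rfl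

theorem toSeg_inj {𝒦 : Set (Set E3)} {U : Set E3} :
    Function.Injective (toSeg : Sgt 𝒦 U → Seg) := by
  intro K K' h
  have h1 : (toSeg K).1 = (toSeg K').1 := congrArg Subtype.val h
  exact Subtype.ext h1

/-- **the potential edges of `QI` are potential edges of the block** -/
theorem mem_of_Ed {B : ℕ} {R : ℝ} (hB : X.B j ≤ B) (hR : X.R j ≤ R) {𝒦 : Set (Set E3)}
    {U : Set E3} (h𝒦 : 𝒦.Countable) (hU : U.Countable) {t : Pt (M.Q j)} {K : Sgt 𝒦 U}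
    (hK : K ∈ ((QI M X j k0 hk0).toPT 𝒦 U h𝒦 hU).Ed t) :
    toSeg K ∈ EdA (M.Q j) B R t := by
  obtain ⟨-, h2, h3⟩ := RT.mem_Ed (QI M X j k0 hk0) 𝒦 U h𝒦 hU hK
  rw [← K.p_eq] at h2 h3
  rw [mem_EdA]
  refine ⟨h2, ?_⟩
  obtain ⟨c, ⟨hc1, -⟩, hc2⟩ := h3
  have hc3 : c ∈ Cm_222.LL B R := Cm_222.qSh_LL X j hB hR k0 hk0 _ hc1
  have hc4 : (qfr M j t '' K.1 : Set E3) ∈ Lsh B R := by
    rcases hc3 with h | h
    · exact Or.inl (h hc2)
    · exact Or.inr (h hc2)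
  refine ⟨_, hc4, flo (qχ M j t (til_ne (M.Q j) t).some), ?_⟩
  rw [← qχ_eq]
  have hfr : ∀ y, qfr M j t y =
      fun m => qχ M j t y m - (flo (qχ M j t (til_ne (M.Q j) t).some) m : ℝ) := by
    intro y
    unfold qfr nrm
    rw [AffineEquiv.trans_apply, trz_apply]
  unfold itr
  ext u
  constructor
  · rintro ⟨y, hy, rfl⟩
    exact ⟨y, hy, hfr y⟩
  · rintro ⟨y, hy, e⟩
    refine ⟨y, hy, ?_⟩
    rw [hfr] at e
    funext m
    have h5 : qχ M j t y m - (flo (qχ M j t (til_ne (M.Q j) t).some) m : ℝ) =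
        u m - (flo (qχ M j t (til_ne (M.Q j) t).some) m : ℝ) := congrFun e m
    linarith

theorem sum_toSeg {𝒦 : Set (Set E3)} {U : Set E3} {F : Finset (Sgt 𝒦 U)} {E : Finset Seg}
    (h : ∀ K ∈ F, toSeg K ∈ E) {G : E3 → E3 → ℝ≥0∞} (hG : ∀ v y, G (-v) y = G v y) (s : E3) :
    ∑ K ∈ F, li (G K.p.2) (K.p.1 + s) K.p.2 ≤ ∑ K ∈ E, liS G s K := by
  classical
  have h1 : ∀ K ∈ F, li (G K.p.2) (K.p.1 + s) K.p.2 = liS G s (toSeg K) := by
    intro K _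
    refine (liS_eq hG ?_).symm
    rw [toSeg_val, K.p_eq, shf_sgm']
  have h2 : ∑ K ∈ F, li (G K.p.2) (K.p.1 + s) K.p.2 =
      ∑ K' ∈ F.map ⟨toSeg, toSeg_inj⟩, liS G s K' := by
    rw [Finset.sum_map]
    exact Finset.sum_congr rfl h1
  rw [h2]
  refine Finset.sum_le_sum_of_subset ?_
  intro K' hK'
  obtain ⟨K, hK, rfl⟩ := Finset.mem_map.1 hK'
  exact h K hK

/-- the potential edges of `QI` -/
def edQ {𝒦 : Set (Set E3)} {U : Set E3} (h𝒦 : 𝒦.Countable) (hU : U.Countable) (t : Pt (M.Q j)) :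
    Finset (Sgt 𝒦 U) := ((QI M X j k0 hk0).toPT 𝒦 U h𝒦 hU).Ed t

/-- the energy of one potential tile of `QI` -/
def tq {𝒦 : Set (Set E3)} {U : Set E3} (h𝒦 : 𝒦.Countable) (hU : U.Countable)
    (G : E3 → E3 → ℝ≥0∞) (p : ℝ) (s : E3) (t : Pt (M.Q j)) : ℝ≥0∞ :=
  (qAc M j t).indicator (fun a => volume (til (M.Q j) t) *
      (ENNReal.ofReal (qβ M j t) * ∑ K ∈ edQ M X j k0 hk0 h𝒦 hU t,
        li (G K.p.2) (K.p.1 + a) K.p.2) ^ p) s

theorem tile_le {B : ℕ} {R : ℝ} (hB : X.B j ≤ B) (hR : X.R j ≤ R) {𝒦 : Set (Set E3)}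
    {U : Set E3} (h𝒦 : 𝒦.Countable) (hU : U.Countable) {G : E3 → E3 → ℝ≥0∞}
    (hG : ∀ v y, G (-v) y = G v y) {p : ℝ} (hp : 0 ≤ p) (s : E3) (t : Pt (M.Q j)) :
    tq M X j k0 hk0 h𝒦 hU G p s t ≤ termI (M.Q j) B R G p s t := by
  classical
  unfold tq
  by_cases hs : s ∈ qAc M j t
  · rw [indicator_of_mem hs]
    have hu : used (M.Q j) t := used_of M j ⟨s, hs⟩
    have e1 : termI (M.Q j) B R G p s t = term (M.Q j) B R G p s t :=
      indicator_of_mem (s := {t | used (M.Q j) t}) hu _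
    rw [e1]
    unfold term
    refine mul_le_mul' le_rfl (ENNReal.rpow_le_rpow (mul_le_mul' ?_ ?_) hp)
    · refine ENNReal.ofReal_le_ofReal ((qβ_le M j ⟨s, hs⟩).trans (le_of_eq ?_))
      rcases t with q | q <;> rfl
    · exact sum_toSeg (fun K hK => mem_of_Ed M X j k0 hk0 hB hR h𝒦 hU hK) hG s
  · rw [indicator_of_notMem hs]
    exact bot_le

/-- **[BM], domination**: the energy of all the classes of `QI` -/
theorem dom {B : ℕ} {R : ℝ} (hB : X.B j ≤ B) (hR : X.R j ≤ R) {𝒦 : Set (Set E3)}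
    {U : Set E3} (h𝒦 : 𝒦.Countable) (hU : U.Countable) {G : E3 → E3 → ℝ≥0∞}
    (hG : ∀ v y, G (-v) y = G v y) {p : ℝ} (hp : 0 ≤ p) (s : E3) :
    ∑' c, ((QI M X j k0 hk0).toPT 𝒦 U h𝒦 hU).EnC G p c s ≤ FB (M.Q j) B R G p s := by
  classical
  rw [FB_ind]
  have h1 : ∑' t, tq M X j k0 hk0 h𝒦 hU G p s t =
      ∑' c, ∑' t : {t // qcl M k0 j t = c}, tq M X j k0 hk0 h𝒦 hU G p s t.1 := by
    rw [← (Equiv.sigmaFiberEquiv (qcl M k0 j)).tsum_eq (tq M X j k0 hk0 h𝒦 hU G p s),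
      ENNReal.tsum_sigma']
    rfl
  have h2 : ∑' c, ((QI M X j k0 hk0).toPT 𝒦 U h𝒦 hU).EnC G p c s =
      ∑' t, tq M X j k0 hk0 h𝒦 hU G p s t := by
    rw [h1]
    rfl
  rw [h2]
  exact ENNReal.tsum_le_tsum fun t => tile_le M X j k0 hk0 hB hR h𝒦 hU hG hp s t

/-- **[BM], domination, at the original place of the block** -/
theorem dom_tr {Q : CB E3 3} {w0 : E3} (hQ : M.Q j = Q.tr w0) {B : ℕ} {R : ℝ} (hB : X.B j ≤ B)
    (hR : X.R j ≤ R) {𝒦 : Set (Set E3)} {U : Set E3} (h𝒦 : 𝒦.Countable) (hU : U.Countable)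
    {G : E3 → E3 → ℝ≥0∞} (hG : ∀ v y, G (-v) y = G v y) {p : ℝ} (hp : 0 ≤ p) (s : E3) :
    ∑' c, ((QI M X j k0 hk0).toPT 𝒦 U h𝒦 hU).EnC G p c s ≤ FB Q B R G p (w0 + s) := by
  have h1 := dom M X j k0 hk0 hB hR h𝒦 hU hG hp s
  have h2 : FB (M.Q j) B R G p s = FB (Q.tr w0) B R G p s := by rw [hQ]
  rw [h2, FB_tr Q w0 B R hG p s] at h1
  exact h1

end dom

end

end Crest.Agent.R096.Mfb_290
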