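import Crest.Agent.R096.Bm3_748
import Crest.Agent.R096.Mfb2_290

/-!
# Row 96, EaX, [BM] of 365 #11372 / #11531 (a): the function `F` (fine part) of one block, BEFORE `w0`, the
mesh data, the lists, and its mean over the large box `Wt A ρ`.

`FF Q k0 B R G p s` : energy of the used cubes of scale `≥ k0`; `measurable_FF`; `FF_mean`; `dom_fine`;
**`exists_F`** = all three.  `FB_mean`: the same for all inner potential tiles (290's `FB`).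
-/

set_option autoImplicit false
set_option linter.unusedSectionVars false
set_option linter.unusedVariables false
set_option linter.style.longLine false

open MeasureTheory Set Filter Metric
open scoped Topology ENNReal NNReal

namespace Crest.Agent.R096.Bm_748

open Crest.Agent.R096.Msh_715 Crest.Agent.R096.Msh_810 Crest.Agent.R096.Mal_874
open Crest.Agent.R096.SkC1_961 (E3)
open Crest.Agent.R96.Sg8_199 (Mu EnA measurable_EnA)
open Crest.Agent.R96.Sg1_199 (sgm li)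
open Crest.Agent.R96.Wm3_748 Crest.Agent.R96.Wm4_748
open Crest.Agent.R096.Mfi_290
open Crest.Agent.R096.Mfb_290 (Seg EdA sub_EdA fβ term termI liS term_tr use_tr tq tile_le card_EdA
  used used_of FB Us sc)
open Crest.Agent.R096.Ez4_748 (of_qcl_inr)
open Crest.Agent.R096.EaX_766 (lin)
open Crest.Agent.R096.Exa_365 (Wt)
open Crest.Agent.R096.Pmc_112 (Gd')

noncomputable section

theorem Gd'_neg (D' : E3 → E3 →L[ℝ] E3) (v y : E3) : Gd' D' (-v) y = Gd' D' v y := by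
  unfold Gd'
  rw [map_neg, enorm_neg]

section

variable (Q : CB E3 3) (k0 : ℕ)

/-- fine names: used cubes of scale `≥ k0` -/
def fine (t : Pt Q) : Prop := ∃ p : ℕ × (Fin 3 → ℤ), t = Sum.inl p ∧ Use Q p ∧ k0 ≤ p.1

/-- fine tiles -/
abbrev Uf : Type := {t : Pt Q // fine Q k0 t}

/-- **energy of the fine tiles of the block at the shift `s`** -/
def FF (B : ℕ) (R : ℝ) (G : E3 → E3 → ℝ≥0∞) (p : ℝ) (s : E3) : ℝ≥0∞ :=
  EnA volume (fun t : Uf Q k0 => til Q t.1) (fun _ => univ) (fun t => EdA Q B R t.1)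
    (fun t => ENNReal.ofReal (fβ Q t.1)) (fun K : Seg => G K.p.2) (fun K => K.p.1)
    (fun K => K.p.2) p s

theorem FF_eq (B : ℕ) (R : ℝ) (G : E3 → E3 → ℝ≥0∞) (p : ℝ) (s : E3) :
    FF Q k0 B R G p s = ∑' t : Uf Q k0, term Q B R G p s t.1 := by
  unfold FF EnA
  refine tsum_congr fun t => ?_
  rw [indicator_of_mem (mem_univ _)]
  rfl

theorem measurable_FF (B : ℕ) (R : ℝ) {G : E3 → E3 → ℝ≥0∞} (hG : ∀ v, Measurable (G v)) (p : ℝ) :
    Measurable (FF Q k0 B R G p) :=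
  measurable_EnA (μ := (volume : Measure E3)) (fun t : Uf Q k0 => til Q t.1)
    (fun _ => MeasurableSet.univ) (fun t => EdA Q B R t.1) (fun t => ENNReal.ofReal (fβ Q t.1))
    (fun K : Seg => K.p.1) (fun K => K.p.2) (fun K => hG K.p.2) p

/-- energy of one tile, 0 if it is not fine -/
def termF (B : ℕ) (R : ℝ) (G : E3 → E3 → ℝ≥0∞) (p : ℝ) (s : E3) (t : Pt Q) : ℝ≥0∞ :=
  {t | fine Q k0 t}.indicator (term Q B R G p s) t

theorem FF_ind (B : ℕ) (R : ℝ) (G : E3 → E3 → ℝ≥0∞) (p : ℝ) (s : E3) :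
    FF Q k0 B R G p s = ∑' t : Pt Q, termF Q k0 B R G p s t := by
  rw [FF_eq]
  exact tsum_subtype {t | fine Q k0 t} (term Q B R G p s)

theorem fine_tr (w0 : E3) (t : Pt Q) : fine (Q.tr w0) k0 t ↔ fine Q k0 t := by
  constructor
  · rintro ⟨p, h1, h2, h3⟩
    exact ⟨p, h1, (use_tr Q w0 p).1 h2, h3⟩
  · rintro ⟨p, h1, h2, h3⟩
    exact ⟨p, h1, (use_tr Q w0 p).2 h2, h3⟩

theorem termF_tr (w0 : E3) (B : ℕ) (R : ℝ) {G : E3 → E3 → ℝ≥0∞} (hG : ∀ v y, G (-v) y = G v y)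
    (p : ℝ) (s : E3) (t : Pt Q) :
    termF (Q.tr w0) k0 B R G p s t = termF Q k0 B R G p (w0 + s) t := by
  by_cases h : fine Q k0 t
  · have h' : fine (Q.tr w0) k0 t := (fine_tr Q k0 w0 t).2 h
    have e1 : termF (Q.tr w0) k0 B R G p s t = term (Q.tr w0) B R G p s t :=
      indicator_of_mem (s := {t | fine (Q.tr w0) k0 t}) h' _
    have e2 : termF Q k0 B R G p (w0 + s) t = term Q B R G p (w0 + s) t :=
      indicator_of_mem (s := {t | fine Q k0 t}) h _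
    exact e1.trans ((term_tr Q w0 B R hG p s t).trans e2.symm)
  · have h' : ¬ fine (Q.tr w0) k0 t := fun h'' => h ((fine_tr Q k0 w0 t).1 h'')
    have e1 : termF (Q.tr w0) k0 B R G p s t = 0 :=
      indicator_of_notMem (s := {t | fine (Q.tr w0) k0 t}) h' _
    have e2 : termF Q k0 B R G p (w0 + s) t = 0 :=
      indicator_of_notMem (s := {t | fine Q k0 t}) h _
    exact e1.trans e2.symm

theorem FF_tr (w0 : E3) (B : ℕ) (R : ℝ) {G : E3 → E3 → ℝ≥0∞} (hG : ∀ v y, G (-v) y = G v y)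
    (p : ℝ) (s : E3) : FF (Q.tr w0) k0 B R G p s = FF Q k0 B R G p (w0 + s) := by
  have h2 := FF_ind (Q.tr w0) k0 B R G p s
  have h3 := FF_ind Q k0 B R G p (w0 + s)
  have h4 : ∑' t : Pt Q, termF (Q.tr w0) k0 B R G p s t = ∑' t : Pt Q, termF Q k0 B R G p (w0 + s) t :=
    tsum_congr fun t => termF_tr Q k0 w0 B R hG p s t
  exact h2.trans (h4.trans h3.symm)

theorem ofReal_fβ (t : Pt Q) : ENNReal.ofReal (fβ Q t) ≤ ENNReal.ofReal (2 * 2 ^ scn Q t) *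
    ‖(Q.ψ : E3 →L[ℝ] (Fin 3 → ℝ))‖ₑ := by
  rw [← ofReal_norm, ← ENNReal.ofReal_mul (by positivity)]
  refine ENNReal.ofReal_le_ofReal (le_of_eq ?_)
  rcases t with p | s <;> rfl

/-- **mean of the fine energy over the large box** -/
theorem FF_mean (hk0 : Q.kc ≤ k0) {R : ℝ} (hR1 : 1 ≤ R)
    (hR : ∀ s, s ≠ Q.S.core → ∀ u ∈ ZP (Q.S.GG s), ∀ v ∈ ZP (Q.S.GG s), ∀ l, |v l - u l| ≤ R)
    (B : ℕ) {A : E3 ≃ᵃ[ℝ] E3} {s : ℝ} (hs : 0 < s) (hψ : ∀ y, Q.ψ y = s⁻¹ • lin A y)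
    {D' : E3 → E3 →L[ℝ] E3} (hD : ∀ w, Measurable fun z => D' z w)
    {ρ t : ℝ} (hρ : 0 ≤ ρ) (ht : 0 ≤ t) (hl : s * (1 / 2 ^ k0) ≤ t * ρ)
    {S : Set E3} (hS : MeasurableSet S)
    (hSA : ∀ q, fine Q k0 q → ∀ y ∈ til Q q, ∀ a ∈ Wt A ρ, y + a ∈ S) {p : ℝ} (hp : 1 ≤ p) :
    ∫⁻ a in Wt A ρ, FF Q k0 B R (Gd' D') p a ≤
      (K3 p (Mfb_290.nE B R) 2 1 t 181 * ‖lin A‖ₑ ^ p *
        ∫⁻ z in S, ‖(D' z).comp (lin A.symm)‖ₑ ^ p) * volume (Wt A ρ) := by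
  refine block_mean_fine (Q := Q) (fun t : Uf Q k0 => t.1) hk0 Subtype.val_injective
    (fun t => t.2) hs hψ (fun t => EdA Q B R t.1) (m := Mfb_290.nE B R) ?_ (fun K : Seg => K.p.1)
    (fun K => K.p.2) (fun t K hK => sub_EdA Q hK) (fun t => ofReal_fβ Q t.1) hD hρ ht hl hS
    (fun t y hy a ha => hSA t.1 t.2 y hy a ha) hp
  intro t
  refine card_EdA Q hR1 hR ?_
  obtain ⟨p, h1, h2, -⟩ := t.2
  rw [h1]
  exact h2

/-- **mean of 290's `FB` over the large box** (all inner potential tiles) -/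
theorem FB_mean {R : ℝ} (hR1 : 1 ≤ R)
    (hR : ∀ s, s ≠ Q.S.core → ∀ u ∈ ZP (Q.S.GG s), ∀ v ∈ ZP (Q.S.GG s), ∀ l, |v l - u l| ≤ R)
    (B : ℕ) {A : E3 ≃ᵃ[ℝ] E3} {s : ℝ} (hs : 0 < s) (hψ : ∀ y, Q.ψ y = s⁻¹ • lin A y)
    {D' : E3 → E3 →L[ℝ] E3} (hD : ∀ w, Measurable fun z => D' z w)
    {ρ t : ℝ} (hρ : 0 ≤ ρ) (ht : 0 ≤ t) (hl : s * (R / 2 ^ Q.kc) ≤ t * ρ)
    {S : Set E3} (hS : MeasurableSet S)
    (hSA : ∀ q, used Q q → ∀ y ∈ til Q q, ∀ a ∈ Wt A ρ, y + a ∈ S) {p : ℝ} (hp : 1 ≤ p) :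
    ∫⁻ a in Wt A ρ, FB Q B R (Gd' D') p a ≤
      (K3 p (Mfb_290.nE B R) 2 R t 182 * ‖lin A‖ₑ ^ p *
        ∫⁻ z in S, ‖(D' z).comp (lin A.symm)‖ₑ ^ p) * volume (Wt A ρ) :=
  block_mean (Q := Q) (fun t : Us Q => t.1) Subtype.val_injective
    (fun t p h => by
      have := t.2
      rw [h] at this
      exact this)
    (fun t s h => by
      have := t.2
      rw [h] at this
      exact this) hR1 hR hs hψ (fun t => EdA Q B R t.1) (m := Mfb_290.nE B R)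
    (fun t => card_EdA Q hR1 hR t.2) (fun K : Seg => K.p.1)
    (fun K => K.p.2) (fun t K hK => sub_EdA Q hK) (fun t => ofReal_fβ Q t.1) hD hρ ht hl hS
    (fun t y hy a ha => hSA t.1 t.2 y hy a ha) hp

end

/-! ### domination -/

section dom

variable {J : Type} (M : MD E3 3 J) (X : RD M) (j : J) (k0 : ℕ) (hk0 : (M.Q j).kc ≤ k0)

theorem dom_fine_self {B : ℕ} {R : ℝ} (hB : X.B j ≤ B) (hR : X.R j ≤ R) {𝒦 : Set (Set E3)}
    {U : Set E3} (h𝒦 : 𝒦.Countable) (hU : U.Countable) {G : E3 → E3 → ℝ≥0∞}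
    (hG : ∀ v y, G (-v) y = G v y) {p : ℝ} (hp : 0 ≤ p) (s : E3) :
    ∑' m : ℕ, ((QI M X j k0 hk0).toPT 𝒦 U h𝒦 hU).EnC G p (Sum.inr m) s ≤
      FF (M.Q j) k0 B R G p s := by
  classical
  rw [FF_ind]
  have h2 : ∑' m : ℕ, ((QI M X j k0 hk0).toPT 𝒦 U h𝒦 hU).EnC G p (Sum.inr m) s =
      ∑' q : (Σ m : ℕ, {t // qcl M k0 j t = Sum.inr m}),
        tq M X j k0 hk0 h𝒦 hU G p s q.2.1 := by
    rw [ENNReal.tsum_sigma']
    rfl
  rw [h2]
  have hinj : Function.Injective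
      (fun q : (Σ m : ℕ, {t // qcl M k0 j t = Sum.inr m}) => (q.2.1 : Pt (M.Q j))) := by
    rintro ⟨m, t, ht⟩ ⟨m', t', ht'⟩ h
    change t = t' at h
    subst h
    have e : (Sum.inr m : Pt (M.Q j) ⊕ ℕ) = Sum.inr m' := ht.symm.trans ht'
    have e' := Sum.inr.inj e
    subst e'
    rfl
  refine le_trans (ENNReal.tsum_le_tsum fun q => ?_)
    (ENNReal.tsum_comp_le_tsum_of_injective hinj (termF (M.Q j) k0 B R G p s))
  by_cases hs : s ∈ qAc M j q.2.1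
  · refine (tile_le M X j k0 hk0 hB hR h𝒦 hU hG hp s q.2.1).trans (le_of_eq ?_)
    have hu : used (M.Q j) q.2.1 := used_of M j ⟨s, hs⟩
    obtain ⟨p', h3, h4, h5⟩ := of_qcl_inr M j k0 q.2.2
    have hf : fine (M.Q j) k0 q.2.1 := ⟨p', h3, by rw [h3] at hu; exact hu, by omega⟩
    have e1 : termI (M.Q j) B R G p s q.2.1 = term (M.Q j) B R G p s q.2.1 :=
      indicator_of_mem (s := {t | used (M.Q j) t}) hu _
    have e2 : termF (M.Q j) k0 B R G p s q.2.1 = term (M.Q j) B R G p s q.2.1 :=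
      indicator_of_mem (s := {t | fine (M.Q j) k0 t}) hf _
    rw [e1, e2]
  · have e : tq M X j k0 hk0 h𝒦 hU G p s q.2.1 = 0 := by
      unfold tq
      exact indicator_of_notMem hs _
    rw [e]
    exact bot_le

/-- **domination of the fine classes at the original place of the block** -/
theorem dom_fine {Q : CB E3 3} {w0 : E3} (hQ : M.Q j = Q.tr w0) {B : ℕ} {R : ℝ} (hB : X.B j ≤ B)
    (hR : X.R j ≤ R) {𝒦 : Set (Set E3)} {U : Set E3} (h𝒦 : 𝒦.Countable) (hU : U.Countable)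
    {G : E3 → E3 → ℝ≥0∞} (hG : ∀ v y, G (-v) y = G v y) {p : ℝ} (hp : 0 ≤ p) (s : E3) :
    ∑' m : ℕ, ((QI M X j k0 hk0).toPT 𝒦 U h𝒦 hU).EnC G p (Sum.inr m) s ≤
      FF Q k0 B R G p (w0 + s) := by
  have h1 := dom_fine_self M X j k0 hk0 hB hR h𝒦 hU hG hp s
  have h2 : FF (M.Q j) k0 B R G p s = FF (Q.tr w0) k0 B R G p s := by rw [hQ]
  rw [h2, FF_tr Q k0 w0 B R hG p s] at h1
  exact h1

/-- the energy of all classes = coarse + fine -/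
theorem sum_classes {𝒦 : Set (Set E3)} {U : Set E3} (h𝒦 : 𝒦.Countable) (hU : U.Countable)
    (G : E3 → E3 → ℝ≥0∞) (p : ℝ) (s : E3) :
    ∑' c, ((QI M X j k0 hk0).toPT 𝒦 U h𝒦 hU).EnC G p c s =
      ∑' t : Pt (M.Q j), ((QI M X j k0 hk0).toPT 𝒦 U h𝒦 hU).EnC G p (Sum.inl t) s +
      ∑' m : ℕ, ((QI M X j k0 hk0).toPT 𝒦 U h𝒦 hU).EnC G p (Sum.inr m) s := by
  set f : Pt (M.Q j) ⊕ ℕ → ℝ≥0∞ := fun c => ((QI M X j k0 hk0).toPT 𝒦 U h𝒦 hU).EnC G p c s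
  exact (ENNReal.summable.tsum_sum (f := f) ENNReal.summable)

end dom

/-- **[BM], FINE FORM, LITERALLY**: `F` before `w0`, the mesh data, the lists -/
theorem exists_F {Q : CB E3 3} {k0 : ℕ} (hk0 : Q.kc ≤ k0) {R : ℝ} (hR1 : 1 ≤ R)
    (hR : ∀ s, s ≠ Q.S.core → ∀ u ∈ ZP (Q.S.GG s), ∀ v ∈ ZP (Q.S.GG s), ∀ l, |v l - u l| ≤ R)
    (B : ℕ) {A : E3 ≃ᵃ[ℝ] E3} {s : ℝ} (hs : 0 < s) (hψ : ∀ y, Q.ψ y = s⁻¹ • lin A y)
    {D' : E3 → E3 →L[ℝ] E3} (hD : ∀ w, Measurable fun z => D' z w)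
    {ρ t : ℝ} (hρ : 0 ≤ ρ) (ht : 0 ≤ t) (hl : s * (1 / 2 ^ k0) ≤ t * ρ)
    {S : Set E3} (hS : MeasurableSet S)
    (hSA : ∀ q, used Q q → ∀ y ∈ til Q q, ∀ a ∈ Wt A ρ, y + a ∈ S) {p : ℝ} (hp : 1 ≤ p) :
    ∃ F : E3 → ℝ≥0∞, Measurable F ∧
      ∫⁻ a in Wt A ρ, F a ≤
        (K3 p (Mfb_290.nE B R) 2 1 t 181 *
          (‖lin A‖ₑ ^ p * ∫⁻ z in S, ‖(D' z).comp (lin A.symm)‖ₑ ^ p)) * volume (Wt A ρ) ∧
      ∀ {J : Type} (M : MD E3 3 J) (X : RD M) (j : J) (w0 : E3), M.Q j = Q.tr w0 →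
        X.B j ≤ B → X.R j ≤ R → ∀ (hk : (M.Q j).kc ≤ k0) (𝒦 : Set (Set E3)) (U : Set E3)
        (h𝒦 : 𝒦.Countable) (hU : U.Countable) (s : E3),
        ∑' m : ℕ, ((QI M X j k0 hk).toPT 𝒦 U h𝒦 hU).EnC (Gd' D') p (Sum.inr m) s ≤
          F (w0 + s) := by
  refine ⟨FF Q k0 B R (Gd' D') p, measurable_FF Q k0 B R (fun v => (hD v).enorm) p, ?_, ?_⟩
  · refine (FF_mean Q k0 hk0 hR1 hR B hs hψ hD hρ ht hl hS (fun q hq y hy a ha => ?_) hp).trans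
      (le_of_eq (by ring))
    obtain ⟨p', h1, h2, -⟩ := hq
    exact hSA q (by rw [h1]; exact h2) y hy a ha
  · intro J M X j w0 hQ hB hR' hk 𝒦 U h𝒦 hU s
    exact dom_fine M X j k0 hk hQ hB hR' h𝒦 hU (Gd'_neg D') (by linarith) s

/-- the bound for `X.B, X.R` and any of the weights -/
theorem used_iff (Q : CB E3 3) (q : Pt Q) : used Q q ↔ Used Q q := by
  rcases q with p | s <;> exact Iff.rfl

end

end Crest.Agent.R096.Bm_748
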