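import Crest.Agent.R096.Mou2_324
import Crest.Agent.R096.Ps4_273

/-!
Row 96 (S0127), helper798.  NO0-PRE3, [B1] of 962 #11186, part 1: the ordinary outer tiles of 874's `MD.mesh`.

* `Qr` : the outer tiles all of whose neighbours in the cube mesh miss the walls, `tau` : the parent cube
* `H_of_Qr`, `H_nb_of_Qr` : the tiles of `Qr` and all their neighbours are whole cubes of the outer mesh
* **`baseOn`** : 273's `BaseOn`
* `Qr_inner` : a tile of `Qr` is disjoint from all inner tiles (and from the blocks)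
* `good_of_Qr`, `good_of_not_Qr` : first / second alternative of 874's `outer_good`
-/

set_option autoImplicit false
set_option linter.style.longLine false
set_option linter.unusedSectionVars false

open Set Filter Topology Metric

namespace Crest.Agent.R096.Bmd_798

open Crest.Agent.R096.Msh_715 Crest.Agent.R096.Cut_874 Crest.Agent.R096.Msh_810
  Crest.Agent.R096.Mal_874

section gen

variable {n : ℕ} {E : Type*} [NormedAddCommGroup E] [NormedSpace ℝ E] {J : Type*} (M : MD E n J)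
  [NeZero n] {k : J → ℕ} (hk : M.Sc k) (a : Fin n → ℝ) {v : J → E} (hv : M.Adm v)

/-- the indices of the tiles of `M.mesh` -/
abbrev TI : Type _ := M.OIx hk a hv ⊕ Σ j, M.IIx hk a hv j

/-- no cube of the outer mesh which touches the parent touches a wall -/
def QrP (p : M.OIx hk a hv) : Prop :=
  ∀ τ : Top (M.ad hk a hv).D,
    (P ((M.ad hk a hv).T0.H τ) ∩ P ((M.ad hk a hv).T0.H p.1.par)).Nonempty →
      ∀ j, Disjoint (P ((M.ad hk a hv).T0.H τ)) (frontier (M.Bk v j).N)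

/-- **the ordinary outer tiles** -/
def Qr : Set (TI M hk a hv) := {i | ∃ p, i = Sum.inl p ∧ QrP M hk a hv p}

theorem inl_mem_Qr {p : M.OIx hk a hv} : Sum.inl p ∈ Qr M hk a hv ↔ QrP M hk a hv p := by
  constructor
  · rintro ⟨q, hq, h⟩
    rw [Sum.inl.injEq] at hq
    rw [hq]; exact h
  · intro h
    exact ⟨p, rfl, h⟩

theorem inr_notMem_Qr {q : Σ j, M.IIx hk a hv j} : Sum.inr q ∉ Qr M hk a hv := by
  rintro ⟨p, hp, -⟩
  exact absurd hp (by simp)

include hk hv in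
/-- the outer mesh has cubes as soon as there is a block -/
theorem top_ne (j : J) : Nonempty (Top (outD M.D0 k M.W a)) := by
  obtain ⟨x, hx⟩ := M.W_ne j
  have h1 : M.φ.symm x ∈ M.φ ⁻¹' (M.ad hk a hv).D.Om := by
    rw [mem_preimage, ContinuousLinearEquiv.apply_symm_apply]
    show x ∈ (outD M.D0 k M.W a).Om
    rw [M.outD_Om_eq a]
    exact M.Vsub j (M.W_sub_V j hx)
  obtain ⟨i, -⟩ := (M.ad hk a hv).T0.cov (M.φ.symm x) h1
  exact ⟨i⟩

/-- the parent cube (for outer tiles) -/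
noncomputable def tau : TI M hk a hv → Top (outD M.D0 k M.W a)
  | Sum.inl p => p.1.par
  | Sum.inr q => (top_ne M hk a hv q.1).some

theorem tau_inl (p : M.OIx hk a hv) : tau M hk a hv (Sum.inl p) = p.1.par := rfl

theorem cutH_empty (H σ : Finset ((E →L[ℝ] ℝ) × ℝ)) {A : Finset ((E →L[ℝ] ℝ) × ℝ)} (hA : A = ∅)
    (hσ : σ ⊆ A) : cutH H A σ = H := by
  subst hA
  obtain rfl := Finset.subset_empty.1 hσ
  ext h
  rw [mem_cutH]
  simp

variable {M hk a hv}

/-- an outer piece whose parent misses all walls is the whole parent cube -/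
theorem H_of_dis {p : M.OIx hk a hv}
    (h : ∀ j, Disjoint (P ((M.ad hk a hv).T0.H p.1.par)) (frontier (M.Bk v j).N)) :
    (M.mesh hk a hv).H (Sum.inl p) = (tiling M.φ (outD M.D0 k M.W a)).H p.1.par := by
  have hA : AF (M.ad hk a hv).T0 (M.ad hk a hv).ψ (M.ad hk a hv).a' (M.ad hk a hv).κ
      (M.ad hk a hv).Z p.1.par = ∅ := AF_empty h
  exact cutH_empty _ _ hA p.1.2.1

theorem self_ne (p : M.OIx hk a hv) :
    (P ((M.ad hk a hv).T0.H p.1.par) ∩ P ((M.ad hk a hv).T0.H p.1.par)).Nonempty := by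
  obtain ⟨x, hx⟩ := (M.ad hk a hv).T0.ne p.1.par
  exact ⟨x, I_sub_P _ hx, I_sub_P _ hx⟩

theorem sub_par (p : M.OIx hk a hv) :
    P ((M.mesh hk a hv).H (Sum.inl p)) ⊆ P ((M.ad hk a hv).T0.H p.1.par) :=
  cut_tile_sub (hA := AF_ne) p.1

/-- **a tile of `Qr` is a whole cube** -/
theorem H_of_Qr {p : M.OIx hk a hv} (h : QrP M hk a hv p) :
    (M.mesh hk a hv).H (Sum.inl p) = (tiling M.φ (outD M.D0 k M.W a)).H p.1.par :=
  H_of_dis (h p.1.par (self_ne p))

/-- a tile of `Qr` is disjoint from the blocks -/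
theorem dis_of_Qr {p : M.OIx hk a hv} (h : QrP M hk a hv p) (j : J) :
    Disjoint (P ((M.mesh hk a hv).H (Sum.inl p))) (M.Bk v j).N := by
  rw [Set.disjoint_left]
  intro x hx hxN
  exact Set.disjoint_left.1 (h p.1.par (self_ne p) j) (sub_par p hx)
    (M.outer_touch hk a hv p hx hxN)

/-- **(c)** a tile of `Qr` is disjoint from the inner tiles -/
theorem Qr_inner {i : TI M hk a hv} (hi : i ∈ Qr M hk a hv) (q : Σ j, M.IIx hk a hv j) :
    Disjoint (P ((M.mesh hk a hv).H i)) (P ((M.mesh hk a hv).H (Sum.inr q))) := by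
  obtain ⟨p, rfl, h⟩ := hi
  obtain ⟨j, i⟩ := q
  exact (dis_of_Qr h j).mono_right i.2

/-- a tile of `Qr` is disjoint from the blocks -/
theorem Qr_dis {i : TI M hk a hv} (hi : i ∈ Qr M hk a hv) (j : J) :
    Disjoint (P ((M.mesh hk a hv).H i)) (M.Bk v j).N := by
  obtain ⟨p, rfl, h⟩ := hi
  exact dis_of_Qr h j

/-- **the neighbours of a tile of `Qr` are whole cubes** -/
theorem H_nb_of_Qr {p : M.OIx hk a hv} (h : QrP M hk a hv p) {l : TI M hk a hv}
    (hl : (P ((M.mesh hk a hv).H (Sum.inl p)) ∩ P ((M.mesh hk a hv).H l)).Nonempty) :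
    ∃ q, l = Sum.inl q ∧
      (M.mesh hk a hv).H (Sum.inl q) = (tiling M.φ (outD M.D0 k M.W a)).H q.1.par := by
  obtain ⟨x, hx1, hx2⟩ := hl
  rcases l with q | ⟨j, i⟩
  · exact ⟨q, rfl, H_of_dis (h q.1.par ⟨x, sub_par q hx2, sub_par p hx1⟩)⟩
  · exact absurd (i.2 hx2) (Set.disjoint_left.1 (dis_of_Qr h j) hx1)

/-- **first alternative of `outer_good`**, for the tiles of `Qr` -/
theorem good_of_Qr {p : M.OIx hk a hv} (h : QrP M hk a hv p) :
    P ((M.mesh hk a hv).H (Sum.inl p)) = P ((M.ad hk a hv).T0.H p.1.par) ∧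
      (∀ j, Disjoint (P ((M.mesh hk a hv).H (Sum.inl p))) (M.Bk v j).N) ∧
      Good (M.mesh hk a hv) (Sum.inl p) (chi M.φ a (p.1.par.1.1.k + 1)) (p.1.par.1.1.k + 1)
        (N0 n) 1 2 := by
  refine ⟨congrArg P (H_of_Qr h), dis_of_Qr h, ⟨?_, ?_⟩⟩
  · intro l hl
    obtain ⟨x, hx1, hx2⟩ := hl
    obtain ⟨q, rfl, hq⟩ := H_nb_of_Qr h (l := l) ⟨x, hx2, hx1⟩
    intro h' hh'
    have hkq : q.1.par.1.1.k ≤ p.1.par.1.1.k + 1 := by
      have h1 : q.1.par ∈ (tiling M.φ (outD M.D0 k M.W a)).at_ x := sub_par q hx1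
      have h2 : p.1.par ∈ (tiling M.φ (outD M.D0 k M.W a)).at_ x := sub_par p hx2
      exact (tile_k_le h1).trans (K_le_succ (mem_at.1 h2))
    rw [hq] at hh'
    exact gf_cube one_pos (fr_self M.φ a _ subset_rfl 1) hkq _ _ hh'
  · intro x hx y hy m
    have hx' := (AD.tile_T0 (M := M.ad hk a hv) _).1 (sub_par p hx)
    have hy' := (AD.tile_T0 (M := M.ad hk a hv) _).1 (sub_par p hy)
    refine (size_tile (k := p.1.par.1.1.k + 1) hx' hy' m).trans ?_
    rw [pow_succ, mul_comm, mul_div_assoc, div_self (by positivity), mul_one]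

/-- an outer tile which is not in `Qr`: scale `k j`, near the wall `j` -/
theorem near_of_not_Qr {p : M.OIx hk a hv} (h : ¬ QrP M hk a hv p) :
    ∃ j, p.1.par.1.1.k = k j ∧
      (∀ z ∈ P ((M.ad hk a hv).T0.H p.1.par), infDist (M.φ z) (M.W j) ≤ 2 / 2 ^ k j) ∧
      ∃ y ∈ frontier (M.Bk v j).N, ∀ x ∈ P ((M.ad hk a hv).T0.H p.1.par),
        dist (M.φ x) (M.φ y) ≤ 2 / 2 ^ k j := by
  unfold QrP at h
  push Not at h
  obtain ⟨τ, ⟨x, hx1, hx2⟩, j, hj⟩ := h
  obtain ⟨y, hy1, hy2⟩ := Set.not_disjoint_iff.1 hj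
  have hp : (0 : ℝ) < 1 / 2 ^ k j := by positivity
  have hp' : (0 : ℝ) < 2 ^ k j := by positivity
  have e2 : (2 : ℝ) / 2 ^ k j = 2 * (1 / 2 ^ k j) := by ring
  have e5 : (5 : ℝ) / 2 ^ k j = 5 * (1 / 2 ^ k j) := by ring
  have hy0 : infDist (M.φ y) (M.W j) = 0 := infDist_zero_of_mem (MD.wall_mem hv j hy2)
  have hkτ : τ.1.1.k = k j :=
    AD.zone_k (M := M.ad hk a hv) (j := j) (by
      show infDist (M.φ y) (M.W j) < 5 / 2 ^ k j
      rw [hy0, e5]; linarith) hy1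
  have h3 := AD.zone_dist (M := M.ad hk a hv) (j := j) hkτ hy1 hx1
  change infDist (M.φ x) (M.W j) ≤ infDist (M.φ y) (M.W j) + 1 / 2 ^ k j at h3
  have hkp : p.1.par.1.1.k = k j := AD.zone_k (M := M.ad hk a hv) (j := j) (x := x) (by
    show infDist (M.φ x) (M.W j) < 5 / 2 ^ k j
    rw [hy0] at h3; rw [e5]; linarith) hx2
  refine ⟨j, hkp, fun z hz => ?_, y, hy2, fun z hz => ?_⟩
  · have h4 := AD.zone_dist (M := M.ad hk a hv) (j := j) hkp hx2 hz
    change infDist (M.φ z) (M.W j) ≤ infDist (M.φ x) (M.W j) + 1 / 2 ^ k j at h4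
    rw [hy0] at h3
    rw [e2]
    linarith
  · have h5 := dist_le_of_mem_Cu ((AD.tile_T0 τ).1 hx1) ((AD.tile_T0 τ).1 hy1)
    have h6 := dist_le_of_mem_Cu ((AD.tile_T0 _).1 hz) ((AD.tile_T0 _).1 hx2)
    rw [hkτ] at h5
    rw [hkp] at h6
    change 2 ^ k j * dist (M.φ x) (M.φ y) ≤ 1 at h5
    change 2 ^ k j * dist (M.φ z) (M.φ x) ≤ 1 at h6
    have h7 : dist (M.φ x) (M.φ y) ≤ 1 / 2 ^ k j := by
      rw [le_div_iff₀' hp']; exact h5
    have h8 : dist (M.φ z) (M.φ x) ≤ 1 / 2 ^ k j := by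
      rw [le_div_iff₀' hp']; exact h6
    rw [e2]
    exact (dist_triangle _ _ _).trans (by linarith)

/-- **second alternative of `outer_good`**, for the outer tiles which are not in `Qr` -/
theorem good_of_not_Qr (X : RD M) (RPx : RP X a v k) {p : M.OIx hk a hv} (h : ¬ QrP M hk a hv p) :
    ∃ j, p.1.par.1.1.k = k j ∧
      (∃ y ∈ frontier (M.Bk v j).N, ∀ x ∈ P ((M.mesh hk a hv).H (Sum.inl p)),
        dist (M.φ x) (M.φ y) ≤ 2 / 2 ^ k j) ∧
      Good (M.mesh hk a hv) (Sum.inl p) (chi M.φ a (k j)) (k j) (NR (X.A j) (X.d j)) (X.d j)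
        (X.c j) := by
  obtain ⟨j, hkp, hW, y, hy2, hd⟩ := near_of_not_Qr h
  have hp : (0 : ℝ) < 1 / 2 ^ k j := by positivity
  have e2 : (2 : ℝ) / 2 ^ k j = 2 * (1 / 2 ^ k j) := by ring
  have e3 : (3 : ℝ) / 2 ^ k j = 3 * (1 / 2 ^ k j) := by ring
  have e5 : (5 : ℝ) / 2 ^ k j = 5 * (1 / 2 ^ k j) := by ring
  refine ⟨j, hkp, ⟨y, hy2, fun z hz => hd z (sub_par p hz)⟩, ?_⟩
  have hF : Fr (chi M.φ a (k j)) (k j) (NR (X.A j) (X.d j)) (X.d j) (M.Q j).ψ (M.Bk v j).a' :=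
    fr_rat (X.dpos j) (X.rat j) (RPx.hκ j) (RPx.h0 j) (RPx.hv j)
  refine ⟨?_, ?_⟩
  · rintro (q | ⟨l, i⟩) ⟨z, hz1, hz2⟩
    · have hz1' : z ∈ P ((M.ad hk a hv).T0.H q.1.par) := sub_par q hz1
      have h4 := hW z (sub_par p hz2)
      have hkq : q.1.par.1.1.k = k j :=
        AD.zone_k (M := M.ad hk a hv) (j := j) (by
          show infDist (M.φ z) (M.W j) < 5 / 2 ^ k j
          rw [e2] at h4; rw [e5]; linarith) hz1'
      refine gf_outer (φ := M.φ) (D := (M.ad hk a hv).D) (X.dpos j)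
        (fr_self M.φ a (k j) (N0_sub_NR _ _) _) (p := q.1) ?_ hkq.le
      intro l hl
      have hlj : l = j := AD.zone_wall (M := M.ad hk a hv) hz1' (by
        show infDist (M.φ z) (M.W j) ≤ 3 / 2 ^ k j
        rw [e2] at h4; rw [e3]; linarith) hl
      subst hlj
      exact ⟨hF, hk.kc l⟩
    · have hzN : z ∈ (M.Bk v l).N := i.2 hz1
      have hzf := M.outer_touch hk a hv p hz2 hzN
      have h4 := hW z (sub_par p hz2)
      have hlj : l = j := AD.zone_wall (M := M.ad hk a hv) (sub_par p hz2) (by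
        show infDist (M.φ z) (M.W j) ≤ 3 / 2 ^ k j
        rw [e2] at h4; rw [e3]; linarith) ⟨z, sub_par p hz2, hzf⟩
      subst hlj
      have hi : (P ((M.S hk (v := v) l).H i.1) ∩ frontier (M.Bk v l).N).Nonempty :=
        ⟨z, hz1, hzf⟩
      obtain ⟨σ, hσ1, hσ⟩ := (M.Bk v l).wall_tile (k l) (hk.kc l) hi
        ⟨hi.some, hi.some_mem.1, hi.some_mem.1⟩
      rw [MD.mesh_inr, hσ1]
      exact gf_cube (X.dpos l) hF hσ.le _
  · intro z hz w hw m
    have hz' := (AD.tile_T0 (M := M.ad hk a hv) _).1 (sub_par p hz)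
    have hw' := (AD.tile_T0 (M := M.ad hk a hv) _).1 (sub_par p hw)
    rw [hkp] at hz' hw'
    refine (chi_dist (c := 1) ?_ m).trans (X.c1 j)
    exact dist_cube hw' hz'

open Crest.Agent.R096.Mou_324
open Crest.Agent.R96.Wm_72 (Tw Aw Tw_tr mem_Aw)

/-- **potential form of a tile of `Qr`** -/
theorem pot_of_Qr {p : M.OIx hk a hv} (h : QrP M hk a hv p) :
    P ((M.mesh hk a hv).H (Sum.inl p)) =
        (fun y => y + M.φ.symm a) '' Tw M.φ 0 p.1.par.1.1.k p.1.par.1.1.z ∧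
      IsM (outD M.D0 k M.W a) ⟨p.1.par.1.1.k, p.1.par.1.1.z, Finset.univ⟩ ∧
      (∀ j, Disjoint (P ((M.mesh hk a hv).H (Sum.inl p))) (M.Bk v j).N) ∧
      (fun K => (frT M.φ a (p.1.par.1.1.k + 1) (fun m => 2 * p.1.par.1.1.z m)) '' K) ''
        cfg (M.mesh hk a hv) (Sum.inl p) ∈ simL (N0 n) 1 2 := by
  obtain ⟨h1, h2, h3⟩ := good_of_Qr h
  obtain ⟨s, z, rfl, rfl, h4, h5, h6⟩ := plain_pot M hk a hv p h1 h3
  exact ⟨h4, h5, h2, h6⟩

/-- **potential form of the outer tiles which are not in `Qr`**: all are in the wall classes -/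
theorem pot_of_not_Qr (X : RD M) (RPx : RP X a v k) {w : J → E}
    (hvw : ∀ j, v j = M.φ.symm a + w j) {p : M.OIx hk a hv} (h : ¬ QrP M hk a hv p) :
    ∃ (j : J) (z : Fin n → ℤ) (S : Set (Fin n → ℝ)), p.1.par.1.1.k = k j ∧ S ∈ ShW X j ∧
      BS (X.c j) S ∧
      P ((M.mesh hk a hv).H (Sum.inl p)) = (fun y => y + M.φ.symm a) '' Tq M.φ 0 (k j) z S ∧
      NearW M j (w j) (2 + X.c j) (k j) (Tq M.φ 0 (k j) z S) ∧
      (fun K => (frT M.φ a (k j) z) '' K) '' cfg (M.mesh hk a hv) (Sum.inl p) ∈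
        simL (NR (X.A j) (X.d j)) (X.d j) (X.c j) := by
  obtain ⟨j, h1, ⟨y, hy, hyd⟩, h3⟩ := good_of_not_Qr X RPx h
  obtain ⟨z, S, h4, h5, h6, h7, h8⟩ := wall_pot M hk a hv X (hvw j) h3
    ⟨y, hy, fun x hx => (hyd x hx).trans (by
      have := X.c1 j
      exact div_le_div_of_nonneg_right (by linarith) (by positivity))⟩
  exact ⟨j, z, S, h1, h4, h5, h6, h7, h8⟩

end gen

/-! ### the base mesh -/

section base

open Crest.Agent.R096.Ps_273 (BaseOn idn idn_apply)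

variable {n : ℕ} [NeZero n] {J : Type*} {M : MD (Fin n → ℝ) n J} {k : J → ℕ} {hk : M.Sc k}
  {a : Fin n → ℝ} {v : J → Fin n → ℝ} {hv : M.Adm v}

omit [NeZero n] in
theorem phi_idn (hφ : ∀ x, M.φ x = x) : M.φ = idn := by
  refine ContinuousLinearEquiv.ext (funext fun x => ?_)
  rw [hφ, idn_apply]

/-- **(a) near the tiles of `Qr` the mesh is the base mesh** -/
theorem baseOn (hφ : ∀ x, M.φ x = x) {Om : Set (Fin n → ℝ)} (h : M.φ ⁻¹' M.D0.Om = Om) :
    BaseOn (reOm (M.mesh hk a hv) h) (outD M.D0 k M.W a) (Qr M hk a hv) (tau M hk a hv) where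
  Om_eq := by
    rw [M.outD_Om_eq a, ← h]
    ext x
    rw [mem_preimage, hφ]
  tile i hi := by
    obtain ⟨p, rfl, h1⟩ := hi
    show (M.mesh hk a hv).H (Sum.inl p) = _
    rw [H_of_Qr h1, tau_inl, phi_idn hφ]
  nb i hi l hl := by
    obtain ⟨p, rfl, h1⟩ := hi
    obtain ⟨q, rfl, hq⟩ := H_nb_of_Qr h1 hl
    refine ⟨q.1.par, ?_⟩
    show (M.mesh hk a hv).H (Sum.inl q) = _
    rw [hq, phi_idn hφ]

/-- `outD` does not see the shift (definitional) -/
theorem outD_sh (D0 : Dat n) (k : J → ℕ) (W : J → Set (Fin n → ℝ)) (a : Fin n → ℝ) :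
    outD D0 k W a = (outD D0 k W 0).sh a := rfl

/-- **(a)** with 273's `D.sh a` -/
theorem baseOn_sh (hφ : ∀ x, M.φ x = x) {Om : Set (Fin n → ℝ)} (h : M.φ ⁻¹' M.D0.Om = Om) :
    BaseOn (reOm (M.mesh hk a hv) h) ((outD M.D0 k M.W 0).sh a) (Qr M hk a hv) (tau M hk a hv) :=
  baseOn hφ h

end base

end Crest.Agent.R096.Bmd_798
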