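import Crest.Agent.R096.Bmd2_798
import Crest.Agent.R096.No1_276

/-!
Row 96 (S0127), helper798.  NO0-PRE3, [GEO-N]: the block of squares and the geometric fields of 962's
`MeshN` for the capped mesh of core blocks on `QL L`.

* `scQ_cap` : all outer tiles of the capped mesh have scale `≥ K0`
* `BB` : the bulk box, `geo_at` : block of squares at one shift
* **`exists_geoN`** : scales `k0`, `K1`, finite set `S` of bulk blocks; all geometric fields of `MeshN`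
-/

set_option autoImplicit false
set_option linter.style.longLine false
set_option linter.unusedSectionVars false

open MeasureTheory Set Filter Topology Metric
open scoped ENNReal

namespace Crest.Agent.R096.Bmd_798

open Crest.Agent.R096.Msh_715 Crest.Agent.R096.Cut_874 Crest.Agent.R096.Msh_810
  Crest.Agent.R096.Mal_874
open Crest.Agent.R096.Gno_324 (cap capD capD_Om capD_ρ capD_C)

section cap

variable {n : ℕ} {E : Type*} [NormedAddCommGroup E] [NormedSpace ℝ E] [NeZero n] {J : Type*}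
  {M : MD E n J} {K0 : ℕ} {hc : 0 < M.D0.C / 2 ^ K0}
  {k : J → ℕ} {hk : (cap M (M.D0.C / 2 ^ K0) hc).Sc k} {a : Fin n → ℝ} {v : J → E}
  {hv : (cap M (M.D0.C / 2 ^ K0) hc).Adm v}

/-- the outer tiles of the capped mesh have scale at least `K0` -/
theorem scQ_cap (p : (cap M (M.D0.C / 2 ^ K0) hc).OIx hk a hv) : K0 ≤ p.1.par.1.1.k := by
  obtain ⟨x, hx⟩ := ((cap M (M.D0.C / 2 ^ K0) hc).ad hk a hv).T0.ne p.1.par
  have h1 : p.1.par ∈ (tiling (cap M (M.D0.C / 2 ^ K0) hc).φ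
      (outD (cap M (M.D0.C / 2 ^ K0) hc).D0 k (cap M (M.D0.C / 2 ^ K0) hc).W a)).at_ x :=
    I_sub_P _ hx
  have h2 := p.1.par.1.2.lower (mem_at.1 h1)
  have h3 := outD_le_ρ0 (D0 := (cap M (M.D0.C / 2 ^ K0) hc).D0) (k := k)
    (W := (cap M (M.D0.C / 2 ^ K0) hc).W) (a := a) ((cap M (M.D0.C / 2 ^ K0) hc).φ x)
  have h4 : (outD (cap M (M.D0.C / 2 ^ K0) hc).D0 k (cap M (M.D0.C / 2 ^ K0) hc).W a).ρ
      ((cap M (M.D0.C / 2 ^ K0) hc).φ x) ≤ M.D0.C / 2 ^ K0 := h3.trans (min_le_right _ _)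
  have hC := M.D0.C_pos
  have h5 : M.D0.C ≤ 2 ^ p.1.par.1.1.k * (M.D0.C / 2 ^ K0) :=
    h2.trans (mul_le_mul_of_nonneg_left h4 (by positivity))
  by_contra hcon
  push Not at hcon
  have h6 : (2 : ℝ) ^ (p.1.par.1.1.k + 1) ≤ 2 ^ K0 := pow_le_pow_right₀ (by norm_num) hcon
  have h7 : (0 : ℝ) < 2 ^ K0 := by positivity
  rw [← mul_div_assoc, le_div_iff₀ h7] at h5
  rw [pow_succ] at h6
  have h8 : (0 : ℝ) < 2 ^ p.1.par.1.1.k := by positivity
  nlinarith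

end cap

noncomputable section

open Crest.Agent.R096.SkC1_961 (E3)
open Crest.Agent.R096.No0_477 Crest.Agent.R096.Gno_324
open Crest.Agent.R096.No_276 (QL)

/-! ### the bulk box -/

/-- the bulk box -/
def BB (L : ℕ) (η : ℝ) : Set E3 :=
  {x | (∀ j : Fin 2, |x j.castSucc| ≤ 1 - η / 2) ∧ |(L : ℝ) * x 2| ≤ 3 / 4}

theorem isCompact_BB {L : ℕ} (hL : 1 ≤ L) (η : ℝ) : IsCompact (BB L η) := by
  have hL0 : (1 : ℝ) ≤ L := by exact_mod_cast hL
  refine Metric.isCompact_of_isClosed_isBounded ?_ ?_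
  · have h1 : BB L η = (⋂ j : Fin 2, {x : E3 | |x j.castSucc| ≤ 1 - η / 2}) ∩
        {x : E3 | |(L : ℝ) * x 2| ≤ 3 / 4} := by
      ext x; simp [BB]
    rw [h1]
    refine IsClosed.inter (isClosed_iInter fun j => ?_) ?_
    · exact isClosed_le (by fun_prop) (by fun_prop)
    · exact isClosed_le (by fun_prop) (by fun_prop)
  · refine Metric.isBounded_closedBall (x := (0 : E3)) (r := 1 + |η|) |>.subset fun x hx => ?_
    rw [mem_closedBall_zero_iff, pi_norm_le_iff_of_nonneg (by positivity)]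
    have hη := abs_nonneg η
    have hη2 := neg_abs_le η
    intro i
    rw [Real.norm_eq_abs]
    have h0 := hx.1 0
    have h1 := hx.1 1
    have h2 := hx.2
    fin_cases i
    · show |x 0| ≤ _
      change |x 0| ≤ _ at h0
      linarith
    · show |x 1| ≤ _
      change |x 1| ≤ _ at h1
      linarith
    · show |x 2| ≤ _
      rw [abs_mul, abs_of_pos (by linarith : (0 : ℝ) < L)] at h2
      have := abs_nonneg (x 2)
      nlinarith

theorem BB_sub {L : ℕ} {η : ℝ} (hη : 0 < η) : BB L η ⊆ QL L := by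
  rintro x ⟨h1, h2⟩
  have h3 := h1 0
  have h4 := h1 1
  change |x 0| ≤ _ at h3
  change |x 1| ≤ _ at h4
  exact ⟨by linarith, by linarith, by linarith⟩

open Crest.Agent.R096.Ps_273 (BaseOn Blk)

/-- **[GEO-N]: the geometric fields of `MeshN`** for the capped mesh of core blocks -/
theorem exists_geoN {J : Type} (M : MD E3 3 J) (hφ : ∀ x, M.φ x = x) {L : ℕ} (hL : 1 ≤ L)
    (hOm : M.D0.Om = QL L) {η : ℝ} (hη0 : 0 < η) (hη : η ≤ 1 / 8) {e5 : ℝ} (he5 : 0 < e5)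
    (hvol : ∀ S : Finset J, ∑ j ∈ S, volume (M.Q j).N ≤ ENNReal.ofReal (e5 / L)) :
    ∃ (β : ℝ) (_ : 0 < β), cthickening β (BB L η) ⊆ M.D0.Om ∧
      {j | (M.V j ∩ cthickening β (BB L η)).Nonempty}.Finite ∧
    ∃ k0 : J → ℕ, (∀ k : J → ℕ, (∀ j, k0 j ≤ k j) → M.Sc k) ∧
    ∃ K1 : ℕ, ∀ K0, K1 ≤ K0 → ∀ hc : 0 < M.D0.C / 2 ^ K0, ∀ k : J → ℕ,
      (∀ j, k0 j ≤ k j ∨ (M.V j ∩ cthickening β (BB L η)).Nonempty) → (∀ j, K0 ≤ k j) →
      (∀ j, (M.V j ∩ cthickening β (BB L η)).Nonempty → k j = K0) →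
      ∃ hk : (cap M (M.D0.C / 2 ^ K0) hc).Sc k,
      (∀ (a : Fin 3 → ℝ), ∀ x ∈ cthickening (β / 2) (BB L η),
        K (outD (cap M (M.D0.C / 2 ^ K0) hc).D0 k (cap M (M.D0.C / 2 ^ K0) hc).W a) x = K0) ∧
      ∀ (r : ℝ) (_ : r ≠ 0) (_ : r = ((2 : ℝ) ^ K0)⁻¹),
      4 * r ≤ η ∧ 4 * L * r ≤ 1 ∧ 4 * r ≤ β ∧
      ∀ (a : Fin 3 → ℝ), ∃ (o : Fin 2 → ℤ) (Mm : ℕ) (Zs : Finset ℤ),
        (∀ j : Fin 2, a j.castSucc + r * o j ≤ -(1 - η) ∧ -1 < a j.castSucc + r * o j) ∧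
        (∀ j : Fin 2, 1 - η ≤ a j.castSucc + r * (o j + Mm) ∧ a j.castSucc + r * (o j + Mm) < 1) ∧
        0 < Mm ∧ Zs.Nonempty ∧ (∀ m, m ∈ Zs ↔ |(L : ℝ) * (a 2 + r * m)| ≤ 1 / 2) ∧
        2 / L ≤ ((Zs.card : ℝ) * Mm ^ 2) * r ^ 3 ∧ ((Zs.card : ℝ) * Mm ^ 2) * r ^ 3 ≤ 5 / L ∧
        (∀ m ∈ Zs, ∀ w : Fin 2 → ℕ, (∀ j, w j < Mm) → cub (vx a r o m w) r ⊆ BB L η) ∧
        Blk (outD (cap M (M.D0.C / 2 ^ K0) hc).D0 k (cap M (M.D0.C / 2 ^ K0) hc).W a) K0 o Mm Zs ∧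
        ∀ (v : J → E3) (hv : (cap M (M.D0.C / 2 ^ K0) hc).Adm v)
          (h : (cap M (M.D0.C / 2 ^ K0) hc).φ ⁻¹' (cap M (M.D0.C / 2 ^ K0) hc).D0.Om = QL L),
          ((({q : ℤ × (Fin 2 → ℕ) | q ∈ Fc Mm Zs ∧
            ¬ Ug (reOm ((cap M (M.D0.C / 2 ^ K0) hc).mesh hk a hv) h)
              (Qr (cap M (M.D0.C / 2 ^ K0) hc) hk a hv)ᶜ a r o q.1 q.2}).ncard : ℕ) : ℝ) ≤
            e5 * ((Zs.card : ℝ) * Mm ^ 2) ∧
          (∀ i ∈ Qr (cap M (M.D0.C / 2 ^ K0) hc) hk a hv, (∃ q ∈ Fc Mm Zs,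
            (P ((reOm ((cap M (M.D0.C / 2 ^ K0) hc).mesh hk a hv) h).H i) ∩
              cub (vx a r o q.1 q.2) r).Nonempty) →
            (tau (cap M (M.D0.C / 2 ^ K0) hc) hk a hv i).1.1.k = K0) := by
  classical
  have hL0 : (0 : ℝ) < L := by exact_mod_cast hL
  obtain ⟨β, hβ, hβO, hfin, k0, hk0, K1, hK1⟩ := exists_bulk M (isCompact_BB hL η)
    (by rw [hOm]; exact BB_sub hη0)
  set S : Finset J := hfin.toFinset with hS
  obtain ⟨ρ, hρ, hth⟩ := thick_sum S (fun j => (M.Q j).N) (fun j _ => (M.Q j).isCompact_N)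
    (ε := e5 / L) (by positivity)
  obtain ⟨K2, hK2⟩ : ∃ K2 : ℕ, (1 : ℝ) / 2 ^ K2 ≤ min (min (η / 4) (1 / (4 * L))) (min (β / 4) (ρ / 5)) := by
    have h4 : 0 < min (min (η / 4) (1 / (4 * (L : ℝ)))) (min (β / 4) (ρ / 5)) :=
      lt_min (lt_min (by linarith) (by positivity)) (lt_min (by linarith) (by linarith))
    obtain ⟨m, hm⟩ := exists_nat_gt (1 / min (min (η / 4) (1 / (4 * (L : ℝ)))) (min (β / 4) (ρ / 5)))
    refine ⟨m, ?_⟩
    rw [div_le_iff₀ (by positivity)]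
    rw [div_lt_iff₀ h4] at hm
    have h5 : (m : ℝ) ≤ 2 ^ m := by exact_mod_cast Nat.lt_two_pow_self.le
    nlinarith
  refine ⟨β, hβ, hβO, hfin, k0, hk0, max K1 K2, fun K0 hK0 hc k hk1 hk2 hk3 => ?_⟩
  obtain ⟨hk, hK⟩ := hK1 K0 ((le_max_left _ _).trans hK0) hc k hk1 hk2 hk3
  refine ⟨hk, hK, fun r hr hrK => ?_⟩
  have hr1 : r = 1 / 2 ^ K0 := by rw [hrK, one_div]
  have hr0 : 0 < r := by rw [hr1]; positivity
  have hsm : r ≤ min (min (η / 4) (1 / (4 * L))) (min (β / 4) (ρ / 5)) := by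
    rw [hr1]
    refine le_trans ?_ hK2
    exact one_div_le_one_div_of_le (by positivity)
      (pow_le_pow_right₀ (by norm_num) ((le_max_right _ _).trans hK0))
  have hrη : r ≤ η / 4 := hsm.trans ((min_le_left _ _).trans (min_le_left _ _))
  have hrL' : r ≤ 1 / (4 * L) := hsm.trans ((min_le_left _ _).trans (min_le_right _ _))
  have hrβ : r ≤ β / 4 := hsm.trans ((min_le_right _ _).trans (min_le_left _ _))
  have hrρ : r ≤ ρ / 5 := hsm.trans ((min_le_right _ _).trans (min_le_right _ _))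
  have hrL : 4 * L * r ≤ 1 := by
    rw [le_div_iff₀ (by positivity)] at hrL'
    linarith
  refine ⟨by linarith, hrL, by linarith, fun a => ?_⟩
  obtain ⟨o, Mm, Zs, hM, lo, hi, zne, zs, hcub, N1, N2⟩ :=
    exists_block hL hη hr0 (by linarith) hrL a
  have hcB : ∀ m ∈ Zs, ∀ w : Fin 2 → ℕ, (∀ j, w j < Mm) → cub (vx a r o m w) r ⊆ BB L η := by
    intro m hm w hw x hx
    obtain ⟨h1, h2⟩ := hcub m hm w hw x hx
    refine ⟨fun j => (h1 j).trans (by linarith), h2.trans ?_⟩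
    have : (L : ℝ) * r ≤ 1 / 4 := by linarith
    linarith
  have hBO : BB L η ⊆ (cap M (M.D0.C / 2 ^ K0) hc).D0.Om := by
    show BB L η ⊆ (capD M.D0 _ hc).Om
    rw [capD_Om, hOm]
    exact BB_sub hη0
  have hKB : ∀ x ∈ BB L η, K (outD (cap M (M.D0.C / 2 ^ K0) hc).D0 k
      (cap M (M.D0.C / 2 ^ K0) hc).W a) x = K0 := fun x hx =>
    hK a x (self_subset_cthickening _ hx)
  have hKev : ∀ x ∈ BB L η, ∀ᶠ y in 𝓝 x, K (outD (cap M (M.D0.C / 2 ^ K0) hc).D0 k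
      (cap M (M.D0.C / 2 ^ K0) hc).W a) y = K0 := by
    intro x hx
    filter_upwards [ball_mem_nhds x (show (0 : ℝ) < β / 2 by linarith)] with y hy
    exact hK a y (mem_cthickening_of_dist_le y x _ _ hx (mem_ball.1 hy).le)
  refine ⟨o, Mm, Zs, fun j => ⟨(lo j).1, (lo j).2.2⟩, fun j => ⟨(hi j).1, (hi j).2.2⟩, hM, zne, zs,
    N1, N2, hcB, blk_of hrK hcB hBO hKB, fun v hv h => ⟨?_, ?_⟩⟩
  · have h1 := bad_Qr_reOm (M := cap M (M.D0.C / 2 ^ K0) hc) (hk := hk) (a := a) (hv := hv) hφ h hr1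
      hcB hBO hKev S (fun j hj y hy x hx => ?_) hL (N0 := (Zs.card : ℝ) * Mm ^ 2) (ε := e5) N1
      he5.le ?_
    · rw [← Set.ncard_coe_finset] at h1
      simpa only [Finset.coe_filter] using h1
    · have hj' : ¬ (M.V j ∩ cthickening β (BB L η)).Nonempty := fun h' =>
        hj (hfin.mem_toFinset.2 h')
      by_contra hcon
      push Not at hcon
      refine hj' ⟨y, ?_, ?_⟩
      · have h2 := MD.N_mem hv j hy
        have h3 : (cap M (M.D0.C / 2 ^ K0) hc).φ y = y := hφ y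
        rw [h3] at h2
        exact h2
      · refine mem_cthickening_of_dist_le y x _ _ hx ?_
        rw [dist_comm]; linarith
    · refine (hth (5 * r) (by linarith)).trans ?_
      calc _ ≤ ENNReal.ofReal (e5 / L) + ENNReal.ofReal (e5 / L) := by
            gcongr; exact hvol S
        _ = ENNReal.ofReal (2 * e5 / L) := by
            rw [← ENNReal.ofReal_add (by positivity) (by positivity)]
            congr 1; ring
  · rintro i ⟨p, rfl, hp⟩ ⟨q, hq, x, hx1, hx2⟩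
    have hq3 : q.1 ∈ Zs ∧ ∀ j, q.2 j < Mm := by
      unfold Fc at hq
      rw [Finset.mem_product, Fintype.mem_piFinset] at hq
      exact ⟨hq.1, fun j => Finset.mem_range.1 (hq.2 j)⟩
    exact par_k (M := cap M (M.D0.C / 2 ^ K0) hc) hφ (hKev x (hcB q.1 hq3.1 q.2 hq3.2 hx2)) hx1

end

end Crest.Agent.R096.Bmd_798
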