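/-
helper922, row 96, NO0-PRE3, [B1] (d) of 962 #11186: frames and the finite universal list of
configurations of the ordinary outer tiles (798's `Qr`).
-/
import Mathlib
import Crest.Agent.R096.Bmd1_798
import Crest.Agent.R096.SkC1_961

set_option autoImplicit false
set_option linter.unusedSectionVars false

open Set Metric Filter Topology

namespace Crest.Agent.R096.Bme_922

open Crest.Agent.R096.Msh_715 Crest.Agent.R096.Cut_874 Crest.Agent.R096.Msh_810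
  Crest.Agent.R096.Mal_874 Crest.Agent.R096.Bmd_798
open Crest.Agent.R096.SkC1_961 (E3 Cfg)

noncomputable section

variable {J : Type} (M : MD E3 3 J) {k : J → ℕ} (hk : M.Sc k) (a : Fin 3 → ℝ) {v : J → E3}
  (hv : M.Adm v)

/-- linear part of a frame -/
theorem lin_chi (φ : E3 ≃L[ℝ] (Fin 3 → ℝ)) (k : ℕ) (z : Fin 3 → ℤ) (y : E3) :
    ((chi φ a k).trans (trz z)).linear y = (2 : ℝ) ^ k • φ y := by
  have h := ((chi φ a k).trans (trz z)).toAffineMap.linearMap_vsub y 0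
  have h1 : ((chi φ a k).trans (trz z)).linear (y -ᵥ 0) =
    ((chi φ a k).trans (trz z)) y -ᵥ ((chi φ a k).trans (trz z)) 0 := h
  rw [vsub_eq_sub, sub_zero, vsub_eq_sub] at h1
  rw [h1]
  funext m
  rw [Pi.sub_apply, AffineEquiv.trans_apply, AffineEquiv.trans_apply, trz_apply, trz_apply]
  simp only [chi_apply, map_zero, Pi.zero_apply, Pi.smul_apply, smul_eq_mul]
  ring

/-- the universal list of configurations of the ordinary outer tiles -/
def S0 : Set (Set (Set E3)) := simL (N0 3) 1 2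

theorem S0_finite : S0.Finite := simL_finite _ _ _

/-- **(d)**, good tiles -/
theorem frame_of_good {Om : Set E3} {ι : Type} {T : Tiling Om ι} {i : ι}
    {φ : E3 ≃L[ℝ] (Fin 3 → ℝ)} (hφ : ∀ x, ‖φ x‖ ≤ ‖x‖) {s : ℕ}
    (hG : Good T i (chi φ a (s + 1)) (s + 1) (N0 3) 1 2) :
    ∃ B : E3 ≃ᵃ[ℝ] E3, (∀ y, ‖B.linear y‖ ≤ 2 * 2 ^ s * ‖y‖) ∧
      (fun K => B '' K) '' Cfg T i ∈ S0 := by
  obtain ⟨z, hz⟩ := hG.sim one_pos (N0_rat one_pos)
  refine ⟨(chi φ a (s + 1)).trans (trz z), fun y => ?_, hz⟩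
  rw [lin_chi, norm_smul, Real.norm_eq_abs, abs_of_pos (by positivity), pow_succ]
  have h1 := hφ y
  have h2 : (0 : ℝ) < 2 ^ s := by positivity
  nlinarith

/-- **(d) of [B1]**: frame of scale `2 * 2 ^ k` (`k` = scale of the parent cube), configuration in
the finite universal list `S0` -/
theorem frame_of_Qr (hφ : ∀ x, ‖M.φ x‖ ≤ ‖x‖) {i : TI M hk a hv} (hi : i ∈ Qr M hk a hv) :
    ∃ B : E3 ≃ᵃ[ℝ] E3, (∀ y, ‖B.linear y‖ ≤ 2 * 2 ^ (tau M hk a hv i).1.1.k * ‖y‖) ∧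
      (fun K => B '' K) '' Cfg (M.mesh hk a hv) i ∈ S0 := by
  obtain ⟨p, rfl, h⟩ := hi
  exact frame_of_good a hφ (good_of_Qr h).2.2

/-- the same for the mesh on another description of the domain -/
theorem frame_of_Qr_re {Om' : Set E3} (hO : M.φ ⁻¹' M.D0.Om = Om') (hφ : ∀ x, ‖M.φ x‖ ≤ ‖x‖)
    {i : TI M hk a hv} (hi : i ∈ Qr M hk a hv) :
    ∃ B : E3 ≃ᵃ[ℝ] E3, (∀ y, ‖B.linear y‖ ≤ 2 * 2 ^ (tau M hk a hv i).1.1.k * ‖y‖) ∧
      (fun K => B '' K) '' Cfg (reOm (M.mesh hk a hv) hO) i ∈ S0 :=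
  frame_of_Qr M hk a hv hφ hi

end

end Crest.Agent.R096.Bme_922
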