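import Crest.Agent.R096.Bmd3_798
import Crest.Agent.R096.Bme1_922
import Crest.Agent.R096.Np5_962

/-!
Row 96 (S0127), helper798.  NO0-PRE3, (M1) of 962 #11558: **assembly of `MeshN`** for 874's mesh of core
blocks (`T := reOm M.mesh`, `Q := Qr`, `τ := tau`).
-/

set_option autoImplicit false
set_option linter.style.longLine false
set_option linter.unusedSectionVars false
set_option linter.unusedVariables false

open MeasureTheory Set Filter Topology Metric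
open scoped ENNReal

noncomputable section

namespace Crest.Agent.R096.Bmd_798

open Crest.Agent.R096.Msh_715 hiding P I
open Crest.Agent.R096.SkC1_961 (E3 Cfg FoamD Hom3 NN)
open Crest.Agent.R096.Ls_222
open Crest.Agent.R096.Mbf_337
open Crest.Agent.R96.Pm_199 (le Dec)
open Crest.Agent.R096.Msh_810 Crest.Agent.R96.En2_199 Crest.Agent.R96.En4_199
  Crest.Agent.R96.En9_199 Crest.Agent.R96.En11_199
open Crest.Agent.R096.Ps_273
open Crest.Agent.R096.No0_477 (cub fr Fc vx)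
open Crest.Agent.R096.SkN1_477 (usq)
open Crest.Agent.R096.No_276 (QL)
open Crest.Agent.R096.Gno_324 (Ug)
open Crest.Agent.R096.Ea_713 (lin)
open Crest.Agent.R096.Log2_582 (IsLog)
open Crest.Agent.R096.Mal_874 (MD reOm outD)
open Crest.Agent.R096.Np_962
open Crest.Agent.R096.Pmc_112 (Gd')

variable {δ κ0 R c0 : ℝ} {La : Set E3}

theorem norm_lin_le {B : E3 ≃ᵃ[ℝ] E3} {C : ℝ} (hC : 0 ≤ C) (h : ∀ y, ‖B.linear y‖ ≤ C * ‖y‖) :
    ‖lin B‖ ≤ C :=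
  ContinuousLinearMap.opNorm_le_bound _ hC h

/-- the frames of `MeshN`: universal frames on `Qr`, the given ones off `Qr` -/
theorem exists_frN {J : Type} (M : MD E3 3 J) {k : J → ℕ} (hk : M.Sc k) (a : Fin 3 → ℝ) {v : J → E3}
    (hv : M.Adm v) (hφ : ∀ x, M.φ x = x) (fr : TI M hk a hv → E3 ≃ᵃ[ℝ] E3) :
    ∃ B : TI M hk a hv → E3 ≃ᵃ[ℝ] E3,
      (∀ i ∈ Qr M hk a hv, ‖lin (B i)‖ ≤ 2 * 2 ^ (tau M hk a hv i).1.1.k ∧
        (fun K => B i '' K) '' Cfg (M.mesh hk a hv) i ∈ Bme_922.S0) ∧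
      ∀ i, i ∉ Qr M hk a hv → B i = fr i := by
  classical
  have h1 : ∀ i, ∃ B : E3 ≃ᵃ[ℝ] E3, (i ∈ Qr M hk a hv → ‖lin B‖ ≤ 2 * 2 ^ (tau M hk a hv i).1.1.k ∧
      (fun K => B '' K) '' Cfg (M.mesh hk a hv) i ∈ Bme_922.S0) ∧ (i ∉ Qr M hk a hv → B = fr i) := by
    intro i
    by_cases hi : i ∈ Qr M hk a hv
    · obtain ⟨B, hB1, hB2⟩ := Bme_922.frame_of_Qr M hk a hv (fun x => by rw [hφ]) hi
      exact ⟨B, fun _ => ⟨norm_lin_le (by positivity) hB1, hB2⟩, fun h => absurd hi h⟩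
    · exact ⟨fr i, fun h => absurd h hi, fun _ => rfl⟩
  choose B hB1 hB2 using h1
  exact ⟨B, fun i hi => hB1 i hi, fun i hi => hB2 i hi⟩

/-- **ASSEMBLY OF `MeshN`** -/
theorem meshN_of {Φ : FoamD δ κ0 R c0 La} {J : Type} {M : MD E3 3 J} {k : J → ℕ} {hk : M.Sc k}
    {a : Fin 3 → ℝ} {v : J → E3} {hv : M.Adm v} (hφ : ∀ x, M.φ x = x) {L : ℕ}
    (hO : M.φ ⁻¹' M.D0.Om = QL L)
    {p : ℝ} {q : ℕ} {al : Fin 3 → ℝ} {h : ℝ} {s : Fin 3 → ℝ} {η : ℝ} {f1 : E3 → E3}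
    {g : Φ.F → Fin 3 → E3 → ℝ} {W : Φ.F → ℝ} {κ' μ κ1 κ2 κ3 : ℝ} {Cs : Set (Set E3) → ℝ}
    {HH R' : Set E3} {e1 e2 e3 e4 : ℝ≥0∞} {e5 : ℝ} {Ku : ℝ≥0∞} {K0 : ℕ} {r : ℝ} {hr : r ≠ 0}
    {o : Fin 2 → ℤ} {Mm : ℕ} {Zs : Finset ℤ}
    {J0 Jt V : Φ.F → Set (TI M hk a hv)} {ct : Φ.F → TI M hk a hv} {A : Φ.F → E3 ≃ᵃ[ℝ] E3}
    {lam : Φ.F → ℝ} {z : Φ.F → E3} {θ : Φ.F → E3 → E3} {φ : Φ.F → E3 → ℝ} {Mg : Φ.F → ℕ}
    {D' : E3 → E3 →L[ℝ] E3} {cw : TI M hk a hv → ℝ≥0∞} (fr : TI M hk a hv → E3 ≃ᵃ[ℝ] E3)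
    (b : Φ.F → J) (hb : Function.Injective b)
    (hct : ∀ c, ct c = Sum.inr ⟨b c, M.core hk a hv (b c)⟩)
    -- the block of squares (`exists_geoN`)
    (rK : r = ((2:ℝ) ^ K0)⁻¹)
    (lo : ∀ j : Fin 2, a j.castSucc + r * o j ≤ -(1 - η) ∧ -1 < a j.castSucc + r * o j)
    (hi : ∀ j : Fin 2, 1 - η ≤ a j.castSucc + r * (o j + Mm) ∧ a j.castSucc + r * (o j + Mm) < 1)
    (hM0 : 0 < Mm) (zne : Zs.Nonempty) (zs : ∀ m ∈ Zs, |(L : ℝ) * (a 2 + r * m)| ≤ 1 / 2)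
    (N1 : 2 / L ≤ ((Zs.card : ℝ) * Mm ^ 2) * r ^ 3) (N2 : ((Zs.card : ℝ) * Mm ^ 2) * r ^ 3 ≤ 5 / L)
    (blk : Blk (outD M.D0 k M.W a) K0 o Mm Zs)
    (junk : ((({q : ℤ × (Fin 2 → ℕ) | q ∈ Fc Mm Zs ∧
      ¬ Ug (reOm (M.mesh hk a hv) hO) (Qr M hk a hv)ᶜ a r o q.1 q.2}).ncard : ℕ) : ℝ) ≤
      e5 * ((Zs.card : ℝ) * Mm ^ 2))
    (scl : ∀ i ∈ Qr M hk a hv, (∃ q ∈ Fc Mm Zs,
      (Msh_715.P ((reOm (M.mesh hk a hv) hO).H i) ∩ cub (vx a r o q.1 q.2) r).Nonempty) →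
      (tau M hk a hv i).1.1.k = K0)
    (scQ : ∀ p : M.OIx hk a hv, K0 ≤ p.1.par.1.1.k)
    -- ends (458)
    (ends : ∀ j : Fin 2, ∑ m ∈ Zs, ∑ t ∈ Finset.range (Mm + 1),
      |(f1 (vx a r o m (fun i => if i = j then Mm else t)) -
        f1 (vx a r o m (fun i => if i = j then 0 else t))) j.castSucc - s j.castSucc * (Mm * r)| ≤
        e5 * ((Zs.card : ℝ) * Mm))
    -- PREMACH-N (120, 112)
    (cores : Cores Φ (M.mesh hk a hv) f1 κ1 κ2 univ J0 Jt V ct A lam z θ φ)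
    (fine : Fine Φ (M.mesh hk a hv) f1 κ1 J0)
    (fin : ∀ e : Edg (M.mesh hk a hv), le (Gd' D') e ≠ ⊤)
    (cmp : ∀ e : Edg (M.mesh hk a hv), le (GV (fun c => ENNReal.ofReal (W c)) g) e ≤
      ENNReal.ofReal (8 * Cl δ R) * le (Gd' D') e)
    (choice : ChoiceN Φ (M.mesh hk a hv) f1 κ' μ κ3 W univ ct A lam z Mg
      (fun e => ENNReal.ofReal (1 + κ') * le (GV (fun c => ENNReal.ofReal (W c)) g) e))
    -- the outer tiles (849)
    (cov : QL L ⊆ HH ∪ R')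
    (HR : ∀ p : M.OIx hk a hv, Msh_715.P ((M.mesh hk a hv).H (Sum.inl p)) ⊆ HH ∨
      Msh_715.P ((M.mesh hk a hv).H (Sum.inl p)) ⊆ R')
    -- counting (168)
    (cnt : ∀ i, ENNReal.ofReal (cntA (reOm (M.mesh hk a hv) hO) r hr a o Mm Zs i) ≤
      cw i * volume (Msh_715.P ((M.mesh hk a hv).H i)))
    (cwQ : ∀ i ∈ Qr M hk a hv, cw i ≤ Ku) (cwc : ∀ c, cw (ct c) ≤ Ku)
    (wfin : ∀ i, i ∉ Qr M hk a hv → (∀ c, i ≠ ct c) → cw i ≠ ⊤)
    -- levels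
    (W0 : ∀ c : Φ.F, IsLog q al h c.1 → W c = h / 2) (gm : ∀ c l, Measurable (g c l))
    -- numbers
    (ed : ∀ l, Ed (outD M.D0 k M.W a) l p
      (Xs (fun c => ENNReal.ofReal (W c)) g (fun l => ENNReal.ofReal (s l)) l) ≤ e1)
    (ed1 : ∀ l, Ed (outD M.D0 k M.W a) l 1
      (Xs (fun c => ENNReal.ofReal (W c)) g (fun l => ENNReal.ofReal (s l)) l) ≤ e1)
    (sR : S (outD M.D0 k M.W a) p (R'.indicator (GGw (fun c => ENNReal.ofReal (W c)) g)) ≤ e2)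
    (vR : volume R' ≤ e2)
    (nonQ : ∑' i : {i // i ∉ Qr M hk a hv ∧ ∀ c, i ≠ ct c},
      (ENNReal.ofReal (Cs ((fun K => fr i.1 '' K) '' Cfg (M.mesh hk a hv) i.1) * ‖lin (fr i.1)‖) *
        ∑ e ∈ eIn (M.mesh hk a hv) i.1, le (GV (fun c => ENNReal.ofReal (W c)) g) e) ^ p *
        ((1 + cw i.1) * volume (Msh_715.P ((M.mesh hk a hv).H i.1))) ≤ e3)
    (cs : ∑' c : Φ.F, ENNReal.ofReal ((1 / lam c * ‖lin (A c)‖) ^ p) *
      volume (Msh_715.P ((M.mesh hk a hv).H (ct c))) ≤ e4) :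
    ∃ B : TI M hk a hv → E3 ≃ᵃ[ℝ] E3,
      MeshN p q al h s L η Φ f1 g W κ' μ κ1 κ2 κ3 Cs Bme_922.S0 HH R' e1 e2 e3 e4 e5 Ku
        (outD M.D0 k M.W a) K0 r hr o Mm Zs (reOm (M.mesh hk a hv) hO) (Qr M hk a hv)
        (tau M hk a hv) J0 Jt V ct A lam z θ φ Mg B cw := by
  obtain ⟨B, hB1, hB2⟩ := exists_frN M hk a hv hφ fr
  refine ⟨B, ?_⟩
  have hbase := baseOn (hk := hk) (a := a) (hv := hv) hφ hO
  have hcores : Cores Φ (reOm (M.mesh hk a hv) hO) f1 κ1 κ2 univ J0 Jt V ct A lam z θ φ := by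
    revert cores
    generalize QL L = Om' at hO ⊢
    subst hO
    exact fun h => h
  have hfine : Fine Φ (reOm (M.mesh hk a hv) hO) f1 κ1 J0 := by
    generalize QL L = Om' at hO ⊢
    subst hO
    exact fine
  have hfin : ∀ e : Edg (reOm (M.mesh hk a hv) hO),
      le (GV (fun c => ENNReal.ofReal (W c)) g) e ≠ ⊤ := by
    generalize QL L = Om' at hO ⊢
    subst hO
    intro e
    exact ((cmp e).trans_lt (ENNReal.mul_lt_top ENNReal.ofReal_lt_top (fin e).lt_top)).ne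
  have hchoice : ChoiceN Φ (reOm (M.mesh hk a hv) hO) f1 κ' μ κ3 W univ ct A lam z Mg
      (fun e => ENNReal.ofReal (1 + κ') * le (GV (fun c => ENNReal.ofReal (W c)) g) e) := by
    generalize QL L = Om' at hO ⊢
    subst hO
    exact choice
  have hshQ : ∀ i ∈ Qr M hk a hv,
      (fun K => B i '' K) '' Cfg (reOm (M.mesh hk a hv) hO) i ∈ Bme_922.S0 := by
    generalize QL L = Om' at hO ⊢
    subst hO
    exact fun i hi => (hB1 i hi).2
  have hnonQ : ∑' i : {i // i ∉ Qr M hk a hv ∧ ∀ c, i ≠ ct c},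
      (ENNReal.ofReal (Cs ((fun K => B i.1 '' K) '' Cfg (reOm (M.mesh hk a hv) hO) i.1) *
        ‖lin (B i.1)‖) *
        ∑ e ∈ eIn (reOm (M.mesh hk a hv) hO) i.1, le (GV (fun c => ENNReal.ofReal (W c)) g) e) ^ p *
        ((1 + cw i.1) * volume (Msh_715.P ((M.mesh hk a hv).H i.1))) ≤ e3 := by
    generalize QL L = Om' at hO ⊢
    subst hO
    refine le_trans (le_of_eq (tsum_congr fun i => ?_)) nonQ
    rw [hB2 i.1 i.2.1]
    rfl
  exact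
    { rK := rK
      lo := lo
      hi := hi
      M0 := hM0
      zne := zne
      zs := zs
      N1 := N1
      N2 := N2
      blk := blk
      junk := junk
      ends := ends
      base := hbase
      scl := scl
      scQ := by
        rintro i ⟨p, rfl, -⟩
        exact scQ p
      Vct := fun c => (cores.one c (mem_univ c)).2.2
      inj := by
        intro c c' hcc
        rw [hct, hct] at hcc
        exact hb (Sigma.mk.inj_iff.1 (Sum.inr_injective hcc)).1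
      dis := by
        intro i hi c
        rw [hct]
        exact Qr_inner hi ⟨b c, M.core hk a hv (b c)⟩
      cores := hcores
      fine := hfine
      cov := cov
      HR := by
        rintro i ⟨p, rfl, -⟩
        exact HR p
      frQ := fun i hi => (hB1 i hi).1
      shQ := hshQ
      cnt := cnt
      cwQ := cwQ
      cwc := cwc
      W0 := W0
      fin := hfin
      gm := gm
      choice := hchoice
      ed := ed
      ed1 := ed1
      sR := sR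
      vR := vR
      nonQ := hnonQ
      wfin := wfin
      cs := cs }

end Crest.Agent.R096.Bmd_798
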