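import Crest.Agent.R096.Ebr1_95

/-!
# Row 96, DOORS, barriers (helper95), part 2: **`exists_EG_bar`**

`EG` (Ess4_95) for a barrier sheet at its tiny core, for ANY state `s` on the tiling whose points of
the name `j` lie on the sheet.
-/

set_option autoImplicit false
set_option linter.unusedSectionVars false

open Set Topology Filter Metric Module
open scoped Classical

namespace Crest.Agent.R096.Ebr2_95

open Crest.Agent.R096.Msh_715 Crest.Agent.R096.Coh_184 Crest.Agent.R096.Bsp_628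
  Crest.Agent.R096.Brk1_582 Crest.Agent.R096.Brk2_582 Crest.Agent.R096.Brk3_582
  Crest.Agent.R096.Brk5_582 Crest.Agent.R096.Init_543 Crest.Agent.R096.Mbf_337
  Crest.Agent.R96.Push_899 Crest.Agent.R096.Ess1_95 Crest.Agent.R096.Ess4_95
  Crest.Agent.R096.Ess5_95 Crest.Agent.R096.Ess6_95 Crest.Agent.R096.Ess7_95
  Crest.Agent.R096.Ess8_95 Crest.Agent.R096.Lab_184 Crest.Agent.R096.Seq_213
  Crest.Agent.R096.Main_4 Crest.Agent.R096.Exa_560 Crest.Agent.R096.Agl5_543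
  Crest.Agent.R096.Agl6_543 Crest.Agent.R096.Ebr1_95

open Crest.Agent.R096.SkC1_961 (E3 Hom3 IsPush FoamD)
open Crest.Agent.R096.Ce_537 (PLEquiv IsBall)

variable {δ κ0 R c0 : ℝ} {La Om : Set E3} {ι : Type} {Φ : FoamD δ κ0 R c0 La}
  {T : Tiling Om ι} {f g : E3 → E3} {κ1 κ2 : ℝ} {X : Set Φ.F} {J0 J V : Φ.F → Set ι}
  {ct : Φ.F → ι} {A : Φ.F → E3 ≃ᵃ[ℝ] E3} {lam : Φ.F → ℝ} {z : Φ.F → E3}
  {θ : Φ.F → E3 → E3} {φ : Φ.F → E3 → ℝ}

theorem exists_EG_bar (hLa : IsOpen La) (H : Hm f g Om La)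
    (hC : Cores Φ T f κ1 κ2 X J0 J V ct A lam z θ φ) (c : {c : Φ.F // c ∉ X})
    {ρ1 ρ2 ρ3 ρ4 d : ℝ}
    (hr1 : Rm Φ T f c.1 (J0 c) (J c) (V c) (θ c) ρ1 ρ2 ρ3 ρ4 d) (hG1 : GA Φ c.1 ρ4)
    {J' C' : Type} {fam : J' → C'} {s : GSt (meshC T fr3) fam} {j : J'} {Sf : Set E3}
    {G : E3 → ℝ} {a0 a1 g0 z0 τ z1 g1 ω : ℝ} (hT : GT Φ c.1 G g0 z0 τ z1 g1)
    (ha0 : ρ1 + 2 * d ≤ a0) (ha0' : a0 ≤ ρ1 + 5 * d) (ha1 : ρ3 + 10 * d ≤ a1)
    (ha1' : a1 ≤ ρ3 + 15 * d)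
    (hn1 : g0 + 2 * ω ≤ z0) (hn2 : z0 + 2 * ω < τ) (hn3 : τ + 2 * ω < z1)
    (hn4 : z1 + 2 * ω ≤ g1)
    (hS : ∀ x, x ∈ Sf ↔ x ∈ Om ∧ f x ∈ SB1 Φ c.1 G a0 a1 τ)
    (hp : ∀ u ∈ s.P, s.lab u = j → u ∈ Sf)
    (hoscG : ∀ q, ∀ x ∈ P (T.H q), ρ1 ≤ ga Φ c.1 (f x) → ga Φ c.1 (f x) ≤ ρ4 →
      ∀ y ∈ P (T.H q), |G (Φ.Psi (f x)) - G (Φ.Psi (f y))| ≤ ω)
    (hnear : ∀ x ∈ frontier (KJ T (J c)), |G (θ c x) - G (Φ.Psi (f x))| ≤ ω)
    {v0 v1 : VxK T (KT T J X) c} (hv0 : G (θ c v0.1) ≤ z0) (hv1 : z1 ≤ G (θ c v1.1))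
    {r : E3} (hr : r ∈ Sf) (hrg : ρ3 + 6 * d ≤ ga Φ c.1 (f r))
    {lm : E3 → ZMod 2} (hlam : IsLab T (gPts s j) lm)
    (hlab : ∀ q, ∀ v ∈ P (T.H q), T.dim v = 0 → |ga Φ c.1 (f v) - (a0 + a1) / 2| ≤ d →
      (G (Φ.Psi (f v)) ≤ g0 + ω → lm v = 1) ∧ (g1 - ω ≤ G (Φ.Psi (f v)) → lm v = 0)) :
    Nonempty (EG s j Sf (KT T J X) c v0 v1 r) := by
  have hsub : ∀ c : Φ.F, c.1.set ⊆ La := fun c => (foam4 Φ hLa).sub c
  have hTc := hC.tiny c.1 c.2
  have hpt := hTc.pt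
  have hd := hr1.d0
  have h12 := hr1.r12
  have h23 := hr1.r23
  have h34 := hr1.r34
  have h4 := hr1.r4
  have h01 := hr1.r1
  have hcore : CoreH T (KJ T (J c.1)) := coreH_tiny hTc
  have hcl := hcore.cpt.isClosed
  have hKloc : ∀ x ∈ KJ T (J c.1), ga Φ c.1 (f x) ≤ ρ3 := fun x hx =>
    K_loc H (hsub c.1) hG1 hr1 hTc.sub hcl hTc.inside hx
  have hKint : ∀ x ∈ Om, ga Φ c.1 (f x) < ρ2 → x ∈ interior (KJ T (J c.1)) := fun x hx h =>
    K_int H (hsub c.1) hG1 hr1 hTc.sub0 hcl hTc.mem hx h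
  have hmemc : ∀ y, ga Φ c.1 y ≤ 1 → y ∈ c.1.1.set := fun y hy => (hG1.one y).1 hy
  have hopen : ∀ y, ga Φ c.1 y < 1 → ∀ k, c.1.1.lo k < y k ∧ y k < c.1.1.hi k := hG1.lt_one
  set rD : ℝ := ρ1 + 8 * d with hrD
  set rF : ℝ := ρ3 + 8 * d with hrF
  -- the oscillation on a tile
  have hosc : ∀ q, ∀ x ∈ P (T.H q), ρ1 ≤ ga Φ c.1 (f x) → ga Φ c.1 (f x) ≤ ρ4 →
      ∀ y ∈ P (T.H q), (ga Φ c.1 (f x) - d ≤ ga Φ c.1 (f y) ∧
        ga Φ c.1 (f y) ≤ ga Φ c.1 (f x) + d) ∧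
        G (Φ.Psi (f x)) - ω ≤ G (Φ.Psi (f y)) ∧ G (Φ.Psi (f y)) ≤ G (Φ.Psi (f x)) + ω := by
    intro q x hx h1 h5 y hy
    have g4 := abs_le.1 (hr1.tile_osc hx h1 h5 hy).1
    have g5 := abs_le.1 (hoscG q x hx h1 h5 y hy)
    exact ⟨⟨by linarith [g4.2], by linarith [g4.1]⟩, by linarith [g5.2], by linarith [g5.1]⟩
  -- points of the sheet between the two radii are on the wall
  have hwall : ∀ u ∈ s.P, s.lab u = j → a0 < ga Φ c.1 (f u) → ga Φ c.1 (f u) < a1 →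
      G (Φ.Psi (f u)) = τ := by
    intro u hu hl h1 h2
    obtain ⟨-, -, -, -, -, h3⟩ := (hS u).1 (hp u hu hl)
    rcases h3 with h3 | h3 | h3
    · exact absurd h3 h1.ne'
    · exact absurd h3 h2.ne
    · exact h3
  have hSO : ∀ x ∈ Sf, x ∈ Om := fun x hx => ((hS x).1 hx).1
  -- sets on the frontier of the brick
  let AA : Bool → Set E3 := fun i => if i then {q | q ∈ frontier c.1.1.set ∧ g1 ≤ G q} else
    {q | q ∈ frontier c.1.1.set ∧ G q ≤ g0}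
  have hAAf : ∀ i, AA i ⊆ frontier c.1.1.set := by
    intro i q hq
    cases i
    · exact hq.1
    · exact hq.1
  have hAAc : ∀ i, IsPreconnected (AA i) := by
    intro i
    cases i
    · exact hT.lo
    · exact hT.hi
  have hAAn : ∀ i, (AA i).Nonempty := by
    intro i
    cases i
    · exact hT.lon
    · exact hT.hin
  -- L
  let Lh : Bool → Set E3 := fun i => {y | y ∈ c.1.1.set ∧ rD ≤ ga Φ c.1 y ∧ ga Φ c.1 y ≤ rF ∧
    Φ.Psi y ∈ AA i}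
  have hLhL : ∀ i, Lh i ⊆ La := fun i y hy => hsub c.1 hy.1
  have hLhc : ∀ i, IsPreconnected (Lh i) := fun i => hG1.shell (AA i) (hAAf i) (hAAc i) rD rF
    (by rw [hrD]; linarith) (by rw [hrD, hrF]; linarith) (by rw [hrF]; linarith)
  have hLlev : ∀ x, x ∈ Lh false → G (Φ.Psi x) ≤ g0 := fun x hx => hx.2.2.2.2
  have hHlev : ∀ x, x ∈ Lh true → g1 ≤ G (Φ.Psi x) := fun x hx => hx.2.2.2.2
  have hLex : ∀ i, ∀ ρ, rD ≤ ρ → ρ ≤ rF → ∃ x ∈ Om, f x ∈ Lh i ∧ ga Φ c.1 (f x) = ρ := by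
    intro i ρ h1 h2
    obtain ⟨q, hq⟩ := hAAn i
    obtain ⟨y, hy, hy1, hy2⟩ := hG1.ex q (hAAf i hq) ρ (by rw [hrD] at h1; linarith)
      (by rw [hrF] at h2; linarith)
    refine ⟨g y, H.gm (hsub c.1 hy), ?_, ?_⟩
    · rw [H.fg y (hsub c.1 hy)]
      exact ⟨hy, by rw [hy1]; exact h1, by rw [hy1]; exact h2, by rw [hy2]; exact hq⟩
    · rw [H.fg y (hsub c.1 hy), hy1]
  -- Z
  obtain ⟨e, he⟩ := hTc.bij
  let ZB : Bool → Set E3 := fun i => if i then {q | q ∈ frontier c.1.1.set ∧ z1 ≤ G q} else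
    {q | q ∈ frontier c.1.1.set ∧ G q ≤ z0}
  have hZBf : ∀ i, ZB i ⊆ frontier c.1.1.set := by
    intro i q hq
    cases i
    · exact hq.1
    · exact hq.1
  have hZBc : ∀ i, IsPreconnected (ZB i) := by
    intro i
    cases i
    · exact hT.zlo
    · exact hT.zhi
  have hZmem : ∀ i, ∀ x ∈ frontier (KJ T (J c.1)), θ c.1 x ∈ ZB i → x ∈ e.g '' ZB i := by
    intro i x hx hxZ
    refine ⟨θ c.1 x, hxZ, ?_⟩
    rw [← he x hx]
    exact e.li x hx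
  have hZinv : ∀ i, ∀ x ∈ e.g '' ZB i, x ∈ frontier (KJ T (J c.1)) ∧ θ c.1 x ∈ ZB i := by
    rintro i _ ⟨q, hq, rfl⟩
    have h1 := e.mg (hZBf i hq)
    refine ⟨h1, ?_⟩
    rw [← he _ h1, e.ri q (hZBf i hq)]
    exact hq
  have hnear' : ∀ x ∈ frontier (KJ T (J c.1)), G (Φ.Psi (f x)) - ω ≤ G (θ c.1 x) ∧
      G (θ c.1 x) ≤ G (Φ.Psi (f x)) + ω := by
    intro x hx
    have h1 := abs_le.1 (hnear x hx)
    exact ⟨by linarith [h1.1], by linarith [h1.2]⟩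
  have hfrO : ∀ x ∈ frontier (KJ T (J c.1)), x ∈ Om := fun x hx =>
    hcore.sub (hcl.frontier_subset hx)
  -- the parts of the sheet
  have hGdc : IsPreconnected (Gdn Φ c.1 G a0 (rD + d) τ) :=
    preconn_Gdn hLa hG1 hpt hT (by linarith) (by rw [hrD]; linarith) (by rw [hrD]; linarith)
  have hGoc : IsPreconnected (Gup Φ c.1 G (rF - 2 * d) a1 τ) :=
    preconn_Gup hLa hG1 hpt hT (by rw [hrF]; linarith) (by rw [hrF]; linarith) (by linarith)
  have hSc : IsPreconnected (Om ∩ f ⁻¹' SB1 Φ c.1 G a0 a1 τ) :=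
    H.preconn_pre (fun y hy => hsub c.1 hy.1)
      (preconn_SB1 hLa hG1 hpt hT (by linarith) (by linarith) (by linarith))
  have hSe : Om ∩ f ⁻¹' SB1 Φ c.1 G a0 a1 τ = Sf := by
    ext x
    exact (hS x).symm
  rw [hSe] at hSc
  have hGdS : Om ∩ f ⁻¹' Gdn Φ c.1 G a0 (rD + d) τ ⊆ Sf := by
    rintro x ⟨hxO, h1, h2, h3, h5, h6⟩
    exact (hS x).2 ⟨hxO, h1, h2, by rw [hrD] at h3; linarith, h5, h6.elim Or.inl fun h =>
      Or.inr (Or.inr h)⟩
  have hGoS : Om ∩ f ⁻¹' Gup Φ c.1 G (rF - 2 * d) a1 τ ⊆ Sf := by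
    rintro x ⟨hxO, h1, h2, h3, h5, h6⟩
    exact (hS x).2 ⟨hxO, h1, by rw [hrF] at h2; linarith, h3, h5, Or.inr h6⟩
  have hgaS : ∀ ρ, 0 < ρ → ρ ≤ 1 → {y | ga Φ c.1 y = ρ} ⊆ La := fun ρ _ h1 y hy =>
    hsub c.1 (hmemc y (by
      have : ga Φ c.1 y = ρ := hy
      linarith))
  have hS0L : {y | ga Φ c.1 y ≤ ρ4} ⊆ La := fun y hy => hsub c.1 (hmemc y (by
    have : ga Φ c.1 y ≤ ρ4 := hy
    linarith))
  -- the sheet misses the other cores
  have hSx : ∀ c' : {c : Φ.F // c ∉ X}, c' ≠ c → ∀ x ∈ Sf, x ∉ KJ T (J c') := by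
    intro c' hc' x hx hxK
    obtain ⟨-, -, -, h2, -⟩ := (hS x).1 hx
    have hT' := hC.tiny c'.1 c'.2
    have h5 := hT'.inside x (KJ_mono hT'.sub hxK)
    have h6 := hopen (f x) (by linarith)
    exact hc' (Subtype.ext (only_brick hLa h5 (d := c.1)
      ⟨fun k => (h6 k).1.le, fun k => (h6 k).2.le⟩).symm)
  exact ⟨{
    lam := lm
    hlam := hlam
    S0 := Om ∩ f ⁻¹' {y | ga Φ c.1 y ≤ ρ4}
    S0c := H.isCompact_pre hS0L (hG1.cpt _ (by linarith) (by linarith))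
    S0O := inter_subset_left
    S0t := by
      rw [H.pre_eq hS0L]
      exact trivF_convex (hG1.cpt _ (by linarith) (by linarith))
        (hG1.cvx _ (by linarith) (by linarith)) (H.gc.mono hS0L) (H.injOn.mono hS0L)
    L := fun i => Om ∩ f ⁻¹' Lh i
    Lc := fun i => H.preconn_pre (hLhL i) (hLhc i)
    LO := fun i => inter_subset_left
    LS := by
      rintro i q ⟨x, hxq, hxO, hxL⟩ y hy
      have h5 := hxL.2.1
      have h6 := hxL.2.2.1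
      rw [hrD] at h5
      rw [hrF] at h6
      obtain ⟨⟨g1, g2⟩, -⟩ := hosc q x hxq (by linarith) (by linarith) y hy
      refine ⟨T.sub q hy, ?_⟩
      show ga Φ c.1 (f y) ≤ ρ4
      linarith
    Ln := by
      rintro i q ⟨x, hxq, hxO, hxL⟩ u hu hul huq
      have h5 := hxL.2.1
      have h6 := hxL.2.2.1
      rw [hrD] at h5
      rw [hrF] at h6
      obtain ⟨⟨k1, k2⟩, g1, g2⟩ := hosc q x hxq (by linarith) (by linarith) u huq
      have h7 := hwall u hu hul (by linarith) (by linarith)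
      cases i
      · have h8 := hLlev _ hxL
        linarith
      · have h8 := hHlev _ hxL
        linarith
    Ll := by
      have hv : ∀ i, ∃ v ∈ VM T (Om ∩ f ⁻¹' Lh i), ∃ q, v ∈ P (T.H q) ∧ T.dim v = 0 ∧
          |ga Φ c.1 (f v) - (a0 + a1) / 2| ≤ d ∧ ∃ x, f x ∈ Lh i ∧
          G (Φ.Psi (f x)) - ω ≤ G (Φ.Psi (f v)) ∧ G (Φ.Psi (f v)) ≤ G (Φ.Psi (f x)) + ω := by
        intro i
        obtain ⟨x, hxO, hxL, hx1⟩ := hLex i ((a0 + a1) / 2) (by rw [hrD]; linarith)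
          (by rw [hrF]; linarith)
        obtain ⟨q, hq⟩ := T.cov x hxO
        obtain ⟨v, hv, hv0'⟩ := exists_vertex_tile hq
        obtain ⟨⟨k1, k2⟩, g1, g2⟩ := hosc q x hq (by linarith) (by linarith) v hv
        refine ⟨v, mem_VM hq ⟨hxO, hxL⟩ hv hv0', q, hv, hv0', ?_, x, hxL, g1, g2⟩
        rw [abs_le]
        constructor <;> linarith
      obtain ⟨v, hvM, q, hvq, hvd, hva, x, hxL, g1, g2⟩ := hv true
      obtain ⟨v', hvM', q', hvq', hvd', hva', x', hxL', g1', g2'⟩ := hv false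
      refine ⟨v, hvM, v', hvM', ?_⟩
      rw [(hlab q v hvq hvd hva).2 (by linarith [hHlev _ hxL]),
        (hlab q' v' hvq' hvd' hva').1 (by linarith [hLlev _ hxL'])]
      exact zero_add 1
    Z := fun i => e.g '' ZB i
    Zc := fun i => (hZBc i).image _ (e.pg.1.mono (hZBf i))
    Zf := fun i x hx => (hZinv i x hx).1
    Zn := by
      rintro i q ⟨x, hxq, hxZ⟩ u hu hul huq
      obtain ⟨hxf, hxZ'⟩ := hZinv i x hxZ
      obtain ⟨k1, k2⟩ := hr1.fr x hxf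
      obtain ⟨⟨m1, m2⟩, g1, g2⟩ := hosc q x hxq (by linarith) (by linarith) u huq
      have h7 := hwall u hu hul (by linarith) (by linarith)
      obtain ⟨n1, n2⟩ := hnear' x hxf
      cases i
      · have h8 : G (θ c.1 x) ≤ z0 := hxZ'.2
        linarith
      · have h8 : z1 ≤ G (θ c.1 x) := hxZ'.2
        linarith
    LZ := by
      rintro i v ⟨hv0', q, ⟨x, hxq, hxO, hxL⟩, hvq⟩ hvf
      have h5 := hxL.2.1
      have h6 := hxL.2.2.1
      rw [hrD] at h5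
      rw [hrF] at h6
      obtain ⟨-, g1, g2⟩ := hosc q x hxq (by linarith) (by linarith) v hvq
      obtain ⟨n1, n2⟩ := hnear' v hvf
      refine hZmem i v hvf ?_
      have hth : θ c.1 v ∈ frontier c.1.1.set := th_mem hTc hvf
      cases i
      · have h8 := hLlev _ hxL
        have h9 : G (θ c.1 v) ≤ z0 := by linarith
        exact ⟨hth, h9⟩
      · have h8 := hHlev _ hxL
        have h9 : z1 ≤ G (θ c.1 v) := by linarith
        exact ⟨hth, h9⟩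
    Z0 := hZmem false _ v0.2.2 ⟨th_mem hTc v0.2.2, hv0⟩
    Z1 := hZmem true _ v1.2.2 ⟨th_mem hTc v1.2.2, hv1⟩
    D := Om ∩ f ⁻¹' {y | ga Φ c.1 y = rD}
    Dc := H.preconn_pre (hgaS rD (by rw [hrD]; linarith) (by rw [hrD]; linarith))
      (hG1.eq rD (by rw [hrD]; linarith) (by rw [hrD]; linarith))
    DO := inter_subset_left
    DS := by
      rintro q ⟨x, hxq, hxO, hxD⟩ y hy
      have h5 : ga Φ c.1 (f x) = rD := hxD
      rw [hrD] at h5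
      obtain ⟨⟨g1, g2⟩, -⟩ := hosc q x hxq (by linarith) (by linarith) y hy
      refine ⟨T.sub q hy, ?_⟩
      show ga Φ c.1 (f y) ≤ ρ4
      linarith
    DK := by
      rintro q ⟨x, hxq, hxO, hxD⟩ y hy
      have h5 : ga Φ c.1 (f x) = rD := hxD
      rw [hrD] at h5
      obtain ⟨⟨g1, g2⟩, -⟩ := hosc q x hxq (by linarith) (by linarith) y hy
      exact hKint y (T.sub q hy) (by linarith)
    LD := by
      intro i
      obtain ⟨x, hxO, hxL, hx1⟩ := hLex i rD le_rfl (by rw [hrD, hrF]; linarith)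
      exact ⟨x, ⟨hxO, hxL⟩, hxO, hx1⟩
    F := Om ∩ f ⁻¹' {y | ga Φ c.1 y = rF}
    Fc := H.preconn_pre (hgaS rF (by rw [hrF]; linarith) (by rw [hrF]; linarith))
      (hG1.eq rF (by rw [hrF]; linarith) (by rw [hrF]; linarith))
    FO := inter_subset_left
    FS := by
      rintro q ⟨x, hxq, hxO, hxD⟩ y hy
      have h5 : ga Φ c.1 (f x) = rF := hxD
      rw [hrF] at h5
      obtain ⟨⟨g1, g2⟩, -⟩ := hosc q x hxq (by linarith) (by linarith) y hy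
      refine ⟨T.sub q hy, ?_⟩
      show ga Φ c.1 (f y) ≤ ρ4
      linarith
    FK := by
      rintro q ⟨x, hxq, hxO, hxD⟩
      have h5 : ga Φ c.1 (f x) = rF := hxD
      rw [hrF] at h5
      rw [Set.eq_empty_iff_forall_notMem]
      rintro y ⟨hy, hyK⟩
      obtain ⟨⟨g1, g2⟩, -⟩ := hosc q x hxq (by linarith) (by linarith) y hy
      have := hKloc y hyK
      linarith
    LF := by
      intro i
      obtain ⟨x, hxO, hxL, hx1⟩ := hLex i rF (by rw [hrD, hrF]; linarith) le_rfl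
      exact ⟨x, ⟨hxO, hxL⟩, hxO, hx1⟩
    Gd := Om ∩ f ⁻¹' Gdn Φ c.1 G a0 (rD + d) τ
    Gdc := H.preconn_pre (fun y hy => hsub c.1 hy.1) hGdc
    GdS := hGdS
    GdK := by
      rintro q ⟨x, hxq, hxO, hx1, hx2, hx3, hx4⟩ y hy
      rw [hrD] at hx3
      obtain ⟨⟨g1, g2⟩, -⟩ := hosc q x hxq (by linarith) (by linarith) y hy
      exact hKint y (T.sub q hy) (by linarith)
    GdD := by
      rintro q ⟨x, hxq, hxO, hxD⟩ u hu hul huq
      have h5 : ga Φ c.1 (f x) = rD := hxD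
      rw [hrD] at h5
      obtain ⟨⟨g1, g2⟩, -⟩ := hosc q x hxq (by linarith) (by linarith) u huq
      have h7 := hwall u hu hul (by linarith) (by linarith)
      exact ⟨T.sub q huq, hmemc _ (by linarith), by linarith, by rw [hrD]; linarith, h7.le,
        Or.inr h7⟩
    Go := Om ∩ f ⁻¹' Gup Φ c.1 G (rF - 2 * d) a1 τ
    Goc := H.preconn_pre (fun y hy => hsub c.1 hy.1) hGoc
    GoS := hGoS
    GoK := by
      rintro q ⟨x, hxq, hxO, hx1, hx2, hx3, hx4⟩ hq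
      have h5 := hKloc x (hq hxq)
      rw [hrF] at hx2
      linarith
    GoF := by
      rintro q ⟨x, hxq, hxO, hxD⟩ u hu hul huq
      have h5 : ga Φ c.1 (f x) = rF := hxD
      rw [hrF] at h5
      obtain ⟨⟨g1, g2⟩, -⟩ := hosc q x hxq (by linarith) (by linarith) u huq
      have h7 := hwall u hu hul (by linarith) (by linarith)
      exact ⟨T.sub q huq, hmemc _ (by linarith), by rw [hrF]; linarith, by linarith, h7.le,
        Or.inr h7⟩
    Gor := by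
      obtain ⟨hO, h1, h2, h3, h5, h6⟩ := (hS r).1 hr
      refine ⟨hO, h1, by rw [hrF]; linarith, h3, h5, ?_⟩
      rcases h6 with h6 | h6
      · rw [h6] at hrg
        linarith
      · exact h6
    Gx := fun _ => Sf
    Gxc := fun _ _ => hSc
    GxS := fun _ _ => Subset.rfl
    Gxr := fun _ _ => hr
    Gxd := fun _ _ => hGdS
    GxK := by
      rintro c' hc' q ⟨x, hxq, hx⟩ hq
      exact hSx c' hc' x hx (hq hxq) }⟩

end Crest.Agent.R096.Ebr2_95
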