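import Crest.Agent.R096.Gtm1_63
import Crest.Agent.R096.Ebr2_95

/-!
# Row 96, DOORS, barriers (helper63), part 2: oscillations

At a tiny core, with the radii `Rm` of 95:

* `ne_hole`, `psi_mem` : tiles off `J0` do not touch the hole, `Psi` maps them to the frontier;
* `om` : the oscillation constant; **`osc_Gc`** (hypothesis `hoscG` of `Ebr2_95.exists_EG_bar`),
  **`near_Gc`** (hypothesis `hnear`);
* **`osc_bl`** : the oscillation of the barrier function `bl` of 4 on ANY tile;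
* `bl_tile` : the tiles which meet `{bl < hi}` are in `V`, not in `J0`.
-/

set_option autoImplicit false
set_option linter.unusedSectionVars false

open Set Topology Filter Metric Module

namespace Crest.Agent.R096.Bos_63

open Crest.Agent.R096.Msh_715 Crest.Agent.R096.Bsp_628 Crest.Agent.R096.Brk1_582
  Crest.Agent.R096.Brk2_582 Crest.Agent.R096.Brk3_582 Crest.Agent.R096.Brk5_582
  Crest.Agent.R096.Init_543 Crest.Agent.R096.Mbf_337 Crest.Agent.R096.Exa_560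
  Crest.Agent.R096.Ess5_95 Crest.Agent.R096.Ess6_95 Crest.Agent.R096.Bar_106
  Crest.Agent.R096.Bgf_4 Crest.Agent.R096.Gtm_63
open Crest.Agent.R096.SkC1_961 (E3 Hom3 IsPush FoamD)

variable {δ κ0 R c0 : ℝ} {La Om : Set E3} {ι : Type} {Φ : FoamD δ κ0 R c0 La}
  {T : Tiling Om ι} {f g : E3 → E3} {κ1 : ℝ} {c : Φ.F} {J0 J V : Set ι} {θ : E3 → E3}
  {φ : E3 → ℝ} {ρ1 ρ2 ρ3 ρ4 d : ℝ}

/-- a tile off `J0` does not contain the preimage of the hole -/
theorem ne_hole (H : Hm f g Om La) (hT : Tiny Φ T f κ1 c J0 J V θ φ) {q : ι} (hq : q ∉ J0)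
    {y : E3} (hy : y ∈ P (T.H q)) : f y ≠ (Φ.B c).lo := by
  obtain ⟨i, hi, x, hx, hfx⟩ := hT.mem
  intro h
  have h1 : x ∈ Om := T.sub i (I_sub_P _ hx)
  have h2 : y = x := by
    rw [← H.gf y (T.sub q hy), h, ← hfx, H.gf x h1]
  rw [h2] at hy
  have hne : q ≠ i := fun h => hq (h ▸ hi)
  exact Set.disjoint_left.1 (disjoint_P_I (T.ne q) (T.dis q i hne)) hy hx

/-- `Psi` maps the brick off the point hole to the frontier -/
theorem psi_mem (hLa : IsOpen La) (hpt : (Φ.B c).lo = (Φ.B c).hi) {y : E3} (hy : y ∈ c.1.set)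
    (hne : y ≠ (Φ.B c).lo) : Φ.Psi y ∈ frontier c.1.set := by
  have hH : y ∉ (Φ.B c).S := by
    intro hS
    apply hne
    funext k
    have h2 := hS k
    exact le_antisymm (by rw [hpt]; exact h2.2) h2.1
  have h2 := (raysF Φ hLa).pu_mem c y ⟨hy, hH⟩
  rw [Psi_eq Φ hLa hy, frontier_c Φ hLa c]
  exact h2

/-- a point of a tile of `V \ J0` -/
theorem psi_tile (hLa : IsOpen La) (H : Hm f g Om La) (hT : Tiny Φ T f κ1 c J0 J V θ φ) {q : ι}
    (hqV : q ∈ V) (hq : q ∉ J0) {y : E3} (hy : y ∈ P (T.H q)) :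
    f y ∈ c.1.set ∧ Φ.Psi (f y) ∈ frontier c.1.set := by
  have h1 := hT.inside y (mem_biUnion (x := q) hqV hy)
  have h2 : f y ∈ c.1.set := Bx.mem_set.2 fun k => ⟨(h1 k).1.le, (h1 k).2.le⟩
  exact ⟨h2, psi_mem hLa hT.pt h2 (ne_hole H hT hq hy)⟩

/-- the oscillation constant of the patch function -/
noncomputable def om (δ R l0 ra d : ℝ) : ℝ := max (1 / l0) (1 / ra) * ((Cs 3 δ R + 1) * d)

theorem om_nonneg {l0 ra d : ℝ} (hδ : 0 < δ) (hR : 0 < R) (hl : 0 < l0) (hd : 0 ≤ d) :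
    0 ≤ om δ R l0 ra d := by
  have := Cs_nonneg (n := 3) hδ hR
  exact mul_nonneg (le_max_of_le_left (by positivity)) (by positivity)

theorem om_mono {l0 ra d d' : ℝ} (hδ : 0 < δ) (hR : 0 < R) (hl : 0 < l0) (hd : d ≤ d') :
    om δ R l0 ra d ≤ om δ R l0 ra d' := by
  have := Cs_nonneg (n := 3) hδ hR
  exact mul_le_mul_of_nonneg_left (mul_le_mul_of_nonneg_left hd (by positivity))
    (le_max_of_le_left (by positivity))

section Gc

variable {a : Φ.F} {Z : Set Φ.F} {l0 mm ra : ℝ} (hLa : IsOpen La) (hδ : 0 < δ) (hR : 0 < R)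
  (hl : 0 < l0) (hra : 0 < ra)
include hLa hδ hR hl hra

/-- close levels -/
theorem Gc_lev {c1 c2 : Φ.F} {q q' : E3} (hq : q ∈ c1.1.set) (hq' : q' ∈ c2.1.set) {d : ℝ}
    (hd : 0 ≤ d) (h : ∀ e, |sb Φ q e - sb Φ q' e| ≤ d) :
    |Gc Φ l0 mm ra a Z q - Gc Φ l0 mm ra a Z q'| ≤ om δ R l0 ra d := by
  refine (abs_Gc_sub_le hLa hl hra hq hq' h).trans ?_
  have hC := Cs_nonneg (n := 3) hδ hR
  have h1 : d ≤ (Cs 3 δ R + 1) * d := by nlinarith
  unfold om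
  refine max_le ?_ ?_
  · rw [div_eq_mul_one_div, mul_comm]
    exact mul_le_mul (le_max_left _ _) h1 hd (le_max_of_le_left (by positivity))
  · rw [div_eq_mul_one_div, mul_comm]
    exact mul_le_mul (le_max_right _ _) h1 hd (le_max_of_le_left (by positivity))

/-- close points of the brick -/
theorem Gc_norm {q q' : E3} (hq : q ∈ c.1.set) (hq' : q' ∈ c.1.set)
    (h : ‖q - q'‖ ≤ d * c.1.sz) :
    |Gc Φ l0 mm ra a Z q - Gc Φ l0 mm ra a Z q'| ≤ om δ R l0 ra d := by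
  have hs : 0 < c.1.sz := Bx.sz_pos (Φ.bf.pos _ c.2)
  have hC := Cs_nonneg (n := 3) hδ hR
  have hd : 0 ≤ d := by
    by_contra hcon
    have := (norm_nonneg _).trans h
    nlinarith
  refine (abs_Gc_sub_le_norm hLa hδ hR hl hra hq hq').trans ?_
  refine (mul_le_mul_of_nonneg_left h (Lg_nonneg hδ hR hl)).trans ?_
  unfold Lg om
  have e : max (1 / l0) (1 / ra) * (Cs 3 δ R / c.1.sz) * (d * c.1.sz) =
      max (1 / l0) (1 / ra) * (Cs 3 δ R * d) := by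
    field_simp
  rw [e]
  refine mul_le_mul_of_nonneg_left ?_ (le_max_of_le_left (by positivity))
  nlinarith

/-- **oscillation of `Gc ∘ Psi ∘ f` on a tile** (`hoscG` of 95) -/
theorem osc_Gc (H : Hm f g Om La) (hT : Tiny Φ T f κ1 c J0 J V θ φ)
    (hr : Rm Φ T f c J0 J V θ ρ1 ρ2 ρ3 ρ4 d) (q : ι) {x : E3} (hx : x ∈ P (T.H q))
    (h1 : ρ1 ≤ ga Φ c (f x)) (h4 : ga Φ c (f x) ≤ ρ4) {y : E3} (hy : y ∈ P (T.H q)) :
    |Gc Φ l0 mm ra a Z (Φ.Psi (f x)) - Gc Φ l0 mm ra a Z (Φ.Psi (f y))| ≤ om δ R l0 ra d := by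
  obtain ⟨h5, h6⟩ := hr.tile hx h1 h4
  have h7 := psi_tile hLa H hT h5 h6 hx
  have h8 := psi_tile hLa H hT h5 h6 hy
  exact Gc_lev hLa hδ hR hl hra (frontier_sub hLa c h7.2) (frontier_sub hLa c h8.2) hr.d0.le
    fun e => (hr.osc q h5 h6 x hx y hy).2.2 e

/-- **the map `θ` is near `Psi ∘ f`** (`hnear` of 95) -/
theorem near_Gc (H : Hm f g Om La) (hT : Tiny Φ T f κ1 c J0 J V θ φ)
    (hr : Rm Φ T f c J0 J V θ ρ1 ρ2 ρ3 ρ4 d) {x : E3} (hx : x ∈ frontier (KJ T J)) :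
    |Gc Φ l0 mm ra a Z (θ x) - Gc Φ l0 mm ra a Z (Φ.Psi (f x))| ≤ om δ R l0 ra d := by
  have hd := hr.d0
  have h12 := hr.r12
  have h34 := hr.r34
  have h0 := hr.r1
  have hfr := hr.fr x hx
  obtain ⟨q, hq⟩ := T.cov x (KJ_sub (fr_sub hT hx))
  obtain ⟨h5, h6⟩ := hr.tile hq (by linarith) (by linarith)
  have h7 := psi_tile hLa H hT h5 h6 hq
  exact Gc_norm hLa hδ hR hl hra (th_mem' hT hx) (frontier_sub hLa c h7.2) (hr.near x hx)

/-- the value at `θ x` against the value at a point of a tile through `x` -/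
theorem near_tile (H : Hm f g Om La) (hT : Tiny Φ T f κ1 c J0 J V θ φ)
    (hr : Rm Φ T f c J0 J V θ ρ1 ρ2 ρ3 ρ4 d) {x : E3} (hx : x ∈ frontier (KJ T J)) {q : ι}
    (hxq : x ∈ P (T.H q)) {y : E3} (hy : y ∈ P (T.H q)) :
    |Gc Φ l0 mm ra a Z (θ x) - Gc Φ l0 mm ra a Z (Φ.Psi (f y))| ≤ 2 * om δ R l0 ra d := by
  have hd := hr.d0
  have h12 := hr.r12
  have h34 := hr.r34
  have hfr := hr.fr x hx
  have h1 := near_Gc (a := a) (Z := Z) (mm := mm) hLa hδ hR hl hra H hT hr hx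
  have h2 := osc_Gc (a := a) (Z := Z) (mm := mm) hLa hδ hR hl hra H hT hr q hxq (by linarith)
    (by linarith) hy
  rw [abs_le] at h1 h2 ⊢
  constructor <;> linarith [h1.1, h1.2, h2.1, h2.2]

end Gc

/-! ### the barrier function -/

theorem abs_min_max_sub_le {hi u v u' v' A B : ℝ} (h1 : |u - u'| ≤ A) (h2 : |v - v'| ≤ B) :
    |min hi (max u v) - min hi (max u' v')| ≤ max A B := by
  have h3 : |min hi (max u v) - min hi (max u' v')| ≤ |max u v - max u' v'| := by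
    have := abs_min_sub_min_le_max hi (max u v) hi (max u' v')
    rw [sub_self, abs_zero] at this
    exact this.trans (max_le (abs_nonneg _) le_rfl)
  exact h3.trans ((abs_max_sub_max_le_max _ _ _ _).trans (max_le_max h1 h2))

variable {G : E3 → ℝ} {rm h hi ω : ℝ}

/-- the tiles which meet `{bl < hi}` -/
theorem bl_tile (hr : Rm Φ T f c J0 J V θ ρ1 ρ2 ρ3 ρ4 d) (hh : 0 < h) (hlo : ρ1 ≤ rm - h * hi)
    (hhi : rm + h * hi ≤ ρ4) {q : ι} {x : E3} (hx : x ∈ P (T.H q))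
    (hb : bl Φ c rm h hi G (f x) < hi) :
    (ρ1 ≤ ga Φ c (f x) ∧ ga Φ c (f x) ≤ ρ4) ∧ q ∈ V ∧ q ∉ J0 := by
  have h1 := abs_lt.1 (bl_gau hh le_rfl hb)
  have h2 : ρ1 ≤ ga Φ c (f x) := by linarith [h1.1]
  have h3 : ga Φ c (f x) ≤ ρ4 := by linarith [h1.2]
  exact ⟨⟨h2, h3⟩, hr.tile hx h2 h3⟩

/-- **oscillation of the barrier function on any tile**, any `G` with `hoscG` -/
theorem osc_bl' (hr : Rm Φ T f c J0 J V θ ρ1 ρ2 ρ3 ρ4 d) (hh : 0 < h) (hlo : ρ1 ≤ rm - h * hi)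
    (hhi : rm + h * hi ≤ ρ4) (hω : 0 ≤ ω)
    (hoscG : ∀ q, ∀ x ∈ P (T.H q), ρ1 ≤ ga Φ c (f x) → ga Φ c (f x) ≤ ρ4 →
      ∀ y ∈ P (T.H q), |G (Φ.Psi (f x)) - G (Φ.Psi (f y))| ≤ ω)
    {q : ι} {x y : E3} (hx : x ∈ P (T.H q)) (hy : y ∈ P (T.H q)) :
    |bl Φ c rm h hi G (f x) - bl Φ c rm h hi G (f y)| ≤ max (d / h) ω := by
  have key : ∀ x ∈ P (T.H q), ∀ y ∈ P (T.H q), bl Φ c rm h hi G (f x) < hi →
      |bl Φ c rm h hi G (f x) - bl Φ c rm h hi G (f y)| ≤ max (d / h) ω := by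
    intro x hx y hy hb
    obtain ⟨⟨h2, h3⟩, h4, h5⟩ := bl_tile hr hh hlo hhi hx hb
    have h6 := (hr.osc q h4 h5 x hx y hy).1
    refine abs_min_max_sub_le ?_ (hoscG q x hx h2 h3 y hy)
    rw [← sub_div, abs_div, abs_of_pos hh]
    refine div_le_div_of_nonneg_right ((abs_abs_sub_abs_le _ _).trans ?_) hh.le
    rw [show ga Φ c (f x) - rm - (ga Φ c (f y) - rm) = ga Φ c (f x) - ga Φ c (f y) by ring]
    exact h6
  rcases lt_or_eq_of_le (bl_le_hi (Φ := Φ) (c := c) (G := G) (rm := rm) (h := h) (hi := hi)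
    (f x)) with h1 | h1
  · exact key x hx y hy h1
  · rcases lt_or_eq_of_le (bl_le_hi (Φ := Φ) (c := c) (G := G) (rm := rm) (h := h) (hi := hi)
      (f y)) with h2 | h2
    · rw [abs_sub_comm]; exact key y hy x hx h2
    · rw [h1, h2, sub_self, abs_zero]
      exact le_max_of_le_right hω

/-- **oscillation of the barrier function on any tile** -/
theorem osc_bl (hLa : IsOpen La) (hδ : 0 < δ) (hR : 0 < R) {a : Φ.F} {Z : Set Φ.F}
    {l0 mm ra : ℝ} (hl : 0 < l0) (hra : 0 < ra) (H : Hm f g Om La)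
    (hT : Tiny Φ T f κ1 c J0 J V θ φ) (hr : Rm Φ T f c J0 J V θ ρ1 ρ2 ρ3 ρ4 d) (hh : 0 < h)
    (hlo : ρ1 ≤ rm - h * hi) (hhi : rm + h * hi ≤ ρ4) {q : ι} {x y : E3} (hx : x ∈ P (T.H q))
    (hy : y ∈ P (T.H q)) :
    |bl Φ c rm h hi (Gc Φ l0 mm ra a Z) (f x) - bl Φ c rm h hi (Gc Φ l0 mm ra a Z) (f y)| ≤
      max (d / h) (om δ R l0 ra d) :=
  osc_bl' hr hh hlo hhi (om_nonneg hδ hR hl hr.d0.le)
    (fun q _ hx h1 h4 _ hy => osc_Gc hLa hδ hR hl hra H hT hr q hx h1 h4 hy) hx hy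

end Crest.Agent.R096.Bos_63
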