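import Crest.Agent.R096.Mdd6_360
import Crest.Agent.R096.Mdd4_360
import Crest.Agent.R96.Eam4_466

/-!
Row 96 (S0127), helper360.  MD-DATA, part 8: **(B1) of 112 #11318** for the mesh data of `EaX` (`md_gen`)
and of `EA0` (`md_blk`), general `X`: `Exact` and `FineX` over 899's `fX` on every admissible mesh.

* `Img` : the thickened blocks are mapped into the bricks, close to the affine maps;
* **`b1_gen`** : (B1);  `img_gen` (from `md_gen`), `img_blk` (from `md_blk`), `sm_blk`;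
* **`exists_DatX`** : the outer size function over `fX` (general `X`, zones).
-/

set_option autoImplicit false
set_option linter.style.longLine false
set_option linter.unusedSectionVars false

open MeasureTheory Set Filter Topology Metric

namespace Crest.Agent.R096.Mdd_360

open Crest.Agent.R096.Bsp_628 Crest.Agent.R096.Brk5_582 Crest.Agent.R096.Brk1_582
open Crest.Agent.R096.Brk2_582 Crest.Agent.R096.Brk3_582
open Crest.Agent.R096.SkC1_961 (E3 FoamD Hom3)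
open Crest.Agent.R096.EaX_766 (cbx RatA)
open Crest.Agent.R096.Bxs_627 (ctr CoriE fD zz)
open Crest.Agent.R096.Mal_874 Crest.Agent.R096.Msh_810 Crest.Agent.R096.Msh_715
open Crest.Agent.R096.Fns_360
open Crest.Agent.R96.EaP_899 (fX XD cm)
open Crest.Agent.R96.Eam_466 (OX OX_mem isOpen_OX hole_OX fineX_MD exactX_MD FineX)

noncomputable section

variable {La Om : Set E3} {f : E3 → E3} {F : Set (Bx (Fin 3))} {δ κ0 R c0 : ℝ} {X : Set F}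

/-- the thickened blocks are mapped into the bricks, `κ`-close to the affine maps -/
def Img (M : MD E3 3 X) (Om : Set E3) (f : E3 → E3) (A : F → E3 ≃ᵃ[ℝ] E3) (lam : F → ℝ) (κ : ℝ) :
    Prop :=
  ∀ (c : X), ∀ x ∈ cthickening (M.r c) (M.Q c).N, x ∈ Om ∧ f x ∈ c.1.1.set ∧
    ‖f x - A c x‖ ≤ κ * (lam c * c.1.1.sz)

/-- admissible vectors are `τ`-small in the coordinates of the target -/
def Sm (M : MD E3 3 X) (A : F → E3 ≃ᵃ[ℝ] E3) (lam : F → ℝ) (τ : ℝ) : Prop :=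
  ∀ (c : X) (v : E3), ‖v‖ ≤ M.r c → ‖(A c).linear v‖ ≤ τ * (lam c * c.1.1.sz) ∧
    ∀ k, |(A c).linear v k| ≤ τ * (lam c * c.1.1.side k)

/-- **(B1)**: `Exact` and `FineX` over `fX` for every admissible mesh. -/
theorem b1_gen (hLa : IsOpen La) (hδ : 0 < δ) (hR : 0 < R) (bf : BoxFoam La F δ κ0)
    (cmp : Cmp F R) {lam : F → ℝ} {zc : F → E3} (H : XD bf c0 X lam zc) {fi : E3 → E3}
    (hfi : ∀ y ∈ Om, fi (f y) = y)
    {κ1 κ2 τ η ε : ℝ} (hκ1 : 0 ≤ κ1) (hτ : 0 ≤ τ) (hτ2 : τ ≤ κ2)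
    (h2 : κ2 ≤ 1 / 4) (hκ8 : (κ1 + τ) * κ0 ≤ 1 / 8)
    (hlτ : ∀ c ∈ X, (1 + 2 * ((κ1 + τ) * κ0)) * lam c < 1)
    {A : F → E3 ≃ᵃ[ℝ] E3} (hcor : ∀ c ∈ X, CoriE Om f (A c) c.1 (lam c) κ1 κ2)
    (M : MD E3 3 X) (hφ : M.φ = ContinuousLinearEquiv.refl ℝ E3) (hOmM : M.φ ⁻¹' M.D0.Om = Om)
    (hK : ∀ c : X, (M.Q c).Kc = A c ⁻¹' cbx c.1.1 (lam c))
    (himg : Img M Om f A lam κ1) (hsm : Sm M A lam τ) (Y : RD M)
    {uA : X → ℝ} (huA0 : ∀ c, 0 ≤ uA c)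
    (huA : ∀ (c : X), ∀ x y, ‖A c y - A c x‖ ≤ uA c * dist ((M.Q c).ψ x) ((M.Q c).ψ y))
    (hη : ∀ c : X, uA c * (Y.R c / 2 ^ (M.Q c).kc) ≤ η * c.1.1.sz)
    (hε : KI δ κ0 R (cm κ0 c0) * (η + 2 * (κ1 + τ)) ≤ ε)
    {x : {c // c ∉ X} → E3} {Rz : {c // c ∉ X} → ℝ}
    (hF : ∀ y ∈ Om, FineS (fX bf cmp H) f ε
      (closedBall y (M.D0.ρ y) ∩ (Om ∩ offO f (OX X lam La fi x fun c => Rz c / 2))))
    {k : X → ℕ} (hk : M.Sc k) (a : Fin 3 → ℝ) {v : X → E3} (hv : M.Adm v)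
    {ct0 : F → M.OIx hk a hv ⊕ Σ j, M.IIx hk a hv j}
    (hct0 : ∀ c : X, ct0 c.1 = Sum.inr ⟨c, M.core hk a hv c⟩) :
    (∀ c : X, Mbf_337.Exact (fX bf cmp H) (M.mesh hk a hv) f (κ1 + τ) (κ2 - τ) c.1
      (Sum.inr ⟨c, M.core hk a hv c⟩) (trA (A c) (v c)) (lam c) (zz c.1.1 (lam c))) ∧
    FineX (fX bf cmp H) (M.mesh hk a hv) f ε X ct0 x Rz := by
  have hlc : ∀ c : X, 0 < lam c := fun c => H.pos c.2
  have hv' : ∀ c : X, ‖v c‖ ≤ M.r c := by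
    intro c
    have h1 := hv c
    rw [hφ] at h1
    exact h1
  have hcor' : ∀ c : X, CoriE (M.φ ⁻¹' M.D0.Om) f (trA (A c) (v c)) c.1.1 (lam c) (κ1 + τ)
      (κ2 - τ) := by
    intro c
    rw [hOmM]
    exact cor_tr (hcor c c.2) (hsm c _ (hv' c))
  classical
  constructor
  · intro c
    have h := exactX_MD M hk a hv bf cmp H (f := f) (κ1 := κ1 + τ) (κ2 := κ2 - τ) (by linarith)
      (by linarith) (by linarith) (by linarith) hlτ (A := fun c : X => A c) hK hcor' hct0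
      (A' := fun c => if h : c ∈ X then trA (A c) (v ⟨c, h⟩) else A c)
      (fun c => dif_pos c.2) c.1 c.2
    rw [hct0 c, dif_pos c.2] at h
    exact h
  · refine fineX_MD M hk a hv hLa hδ hR bf cmp H (f := f) (fi := fi)
      (fun y hy => hfi y (by rw [← hOmM]; exact hy)) (κ1 := κ1 + τ) (κ2 := κ2 - τ) (by linarith) hκ8
      (A := fun c : X => A c) hK hcor' Y (ρ := M.D0.ρ) (fun _ => le_rfl) ?_
      (κw := fun _ => κ1 + τ) (η := fun _ => η) (uA := uA) ?_ huA0 huA hη (fun _ => hε) hct0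
    · intro y hy
      have hyO : y ∈ Om := by
        rw [← hOmM]
        exact hy
      have h1 := hF y hyO
      rw [hOmM, hφ]
      exact h1
    · intro c y hy
      have hyN : y - v c ∈ (M.Q c).N := ((M.Q c).mem_N_tr (v c) y).1 hy
      have hyt : y ∈ cthickening (M.r c) (M.Q c).N := by
        refine mem_cthickening_of_dist_le y (y - v c) _ _ hyN ?_
        rw [dist_eq_norm, sub_sub_cancel]
        exact hv' c
      obtain ⟨-, h5, h6⟩ := himg c y hyt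
      refine ⟨h5, ?_⟩
      have hl1 : lam c < 1 := H.hl1 c.1 c.2
      have h7 := (hsm c (v c) (hv' c)).1
      have e : f y - trA (A c) (v c) y = (f y - A c y) + (A c).linear (v c) := by
        rw [← trA_sub (A c) (v c) y]; abel
      rw [e]
      refine (norm_add_le _ _).trans ?_
      have hs := Bx.sz_pos (bf.pos _ c.1.2)
      have hlc' := hlc c
      have h8 : lam c * c.1.1.sz ≤ c.1.1.sz := by nlinarith
      have h9 : (κ1 + τ) * (lam c * c.1.1.sz) ≤ (κ1 + τ) * c.1.1.sz :=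
        mul_le_mul_of_nonneg_left h8 (by linarith)
      linarith

/-- `Img` from the conclusion of `md_gen` -/
theorem img_gen (bf : BoxFoam La F δ κ0) {lam : F → ℝ} (hl : ∀ c ∈ X, 0 < lam c) {κ1 κ2 : ℝ}
    (hκ1 : 0 ≤ κ1) (hlκ : ∀ c ∈ X, (1 / 2 + κ2) * lam c + κ1 * κ0 * lam c < 1 / 2)
    {A : F → E3 ≃ᵃ[ℝ] E3} (hcor : ∀ c ∈ X, CoriE Om f (A c) c.1 (lam c) κ1 κ2) {M : MD E3 3 X}
    (hroom : ∀ c : X, cthickening (M.r c) (M.Q c).N ⊆ A c ⁻¹' cbx c.1.1 ((1 + 2 * κ2) * lam c)) :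
    Img M Om f A lam κ1 := by
  intro c x hx
  have hxA := hroom c hx
  obtain ⟨hxO, h5⟩ := img_open (bf.pos _ c.1.2) (bf.asp _ c.1.2) (hl c c.2) hκ1 (hlκ c c.2)
    (hcor c c.2) hxA
  exact ⟨hxO, Bx.mem_set.2 fun i => ⟨(h5 i).1.le, (h5 i).2.le⟩,
    (hcor c c.2 x (Or.inr fun i => (hxA i).trans (le_of_eq (by ring)))).2⟩

/-- `Img` from the conclusion of `md_blk` -/
theorem img_blk {A : F → E3 ≃ᵃ[ℝ] E3} {lam : F → ℝ} {κ1 κ2 : ℝ} {Q : F → CB E3 3} {M : MD E3 3 X}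
    (hQ : M.Q = fun c => Q c.1)
    (h : ∀ (c : X), ∀ x ∈ cthickening (M.r c) (Q c.1).N, A c x ∈ cbx c.1.1 ((1 + 2 * κ2) * lam c) ∧
        x ∈ Om ∧ (∀ k, c.1.1.lo k < f x k ∧ f x k < c.1.1.hi k) ∧
        ‖f x - A c x‖ ≤ κ1 * (lam c * c.1.1.sz)) : Img M Om f A lam κ1 := by
  intro c x hx
  rw [hQ] at hx
  obtain ⟨-, h1, h2, h3⟩ := h c x hx
  exact ⟨h1, Bx.mem_set.2 fun i => ⟨(h2 i).1.le, (h2 i).2.le⟩, h3⟩

/-- `Sm` from the conclusion of `md_blk` -/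
theorem sm_blk (bf : BoxFoam La F δ κ0) (hκ0 : 1 ≤ κ0) {A : F → E3 ≃ᵃ[ℝ] E3} {lam : F → ℝ}
    (hl : ∀ c ∈ X, 0 < lam c) {τ : ℝ} (hτ : 0 ≤ τ) {N : ℕ} (hN : 0 < N) {M : MD E3 3 X}
    (h : ∀ (c : X) (v : E3), ‖v‖ ≤ M.r c → ‖(A c).linear v‖ ≤ τ * (lam c * c.1.1.sz) / N) :
    Sm M A lam (τ * κ0) := by
  intro c v hv
  have hN' : (1 : ℝ) ≤ N := by exact_mod_cast hN
  have hsz := Bx.sz_pos (bf.pos _ c.1.2)
  have hlc := hl c c.2
  have h1 : ‖(A c).linear v‖ ≤ τ * (lam c * c.1.1.sz) :=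
    (h c v hv).trans (div_le_self (by positivity) hN')
  refine ⟨h1.trans ?_, fun k => ?_⟩
  · have : τ ≤ τ * κ0 := le_mul_of_one_le_right hτ hκ0
    gcongr
  · have h0 : |(A c).linear v k| ≤ ‖(A c).linear v‖ := by
      have := norm_le_pi_norm ((A c).linear v) k
      rwa [Real.norm_eq_abs] at this
    refine h0.trans (h1.trans ?_)
    have h7 := bf.asp _ c.1.2 k
    have h8 : τ * (lam c * c.1.1.sz) ≤ τ * (lam c * (κ0 * c.1.1.side k)) := by gcongr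
    linarith

/-- **the outer Whitney data over `fX`**: general `X`, zones `x, Rz` -/
theorem exists_DatX (hOm : IsOpen Om) (hLa : IsOpen La) (hδ : 0 < δ) (hR : 0 < R)
    (bf : BoxFoam La F δ κ0) (cmp : Cmp F R) {lam : F → ℝ} {zc : F → E3} (H : XD bf c0 X lam zc)
    (hfm : MapsTo f Om La) (hfc : ContinuousOn f Om) {fi : E3 → E3} (hfi : ∀ y ∈ Om, fi (f y) = y)
    (hfic : ContinuousOn fi La) {x : {c // c ∉ X} → E3} {Rz : {c // c ∉ X} → ℝ}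
    (hx : ∀ c, x c ∈ Om ∧ f (x c) = zc c.1 ∧ 0 < Rz c) {ε : ℝ} (hε : 0 < ε) {σ : E3 → ℝ}
    (hσ : ∀ y y', σ y ≤ σ y' + dist y y') (hσ0 : ∀ y, 0 ≤ σ y) (hσ1 : ∀ y ∈ Om, 0 < σ y)
    {C : ℝ} (hC : 1 < C) (a : Fin 3 → ℝ) :
    ∃ D : Dat 3, D.C = C ∧ D.a = a ∧ D.Om = Om ∧ (∀ y, D.ρ y ≤ σ y) ∧
      ∀ y ∈ Om, closedBall y (D.ρ y) ⊆ Om ∧ FineS (fX bf cmp H) f ε
        (closedBall y (D.ρ y) ∩ (Om ∩ offO f (OX X lam La fi x fun c => Rz c / 2))) :=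
  exists_Dat (fX bf cmp H) hOm hLa hδ hR hfm hfc
    (O := OX X lam La fi x fun c => Rz c / 2)
    (fun c => isOpen_OX lam hLa hfic x _ c)
    (fun c => hole_OX bf cmp H hfm hfi (fun c => ⟨(hx c).1, (hx c).2.1, half_pos (hx c).2.2⟩) c)
    hε hσ hσ0 hσ1 hC a

end

end Crest.Agent.R096.Mdd_360
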