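import Crest.Agent.R096.Wd16_120

/-!
Row 96, exact cores (helper120), part 18: pre-translated blocks (365 #11372): `tr_tr`, and the core tile of
the aligned mesh when the base block is itself a translate.
-/

set_option autoImplicit false
set_option linter.unusedSectionVars false

open Set Filter Topology Metric MeasureTheory
open scoped ENNReal

namespace Crest.Agent.R096.Wd_120

open Crest.Agent.R096.Msh_715
open Crest.Agent.R096.Mal_874 (CB MD)

variable {E : Type*} [NormedAddCommGroup E] [NormedSpace ℝ E] {n : ℕ}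

theorem tr_tr (Q : CB E n) (v w : E) : (Q.tr v).tr w = Q.tr (v + w) := by
  unfold CB.tr
  simp only [map_add, add_assoc]

theorem tr_zero (Q : CB E n) : Q.tr 0 = Q := by
  unfold CB.tr
  simp only [map_zero, add_zero]

theorem tr_comm (Q : CB E n) (v w : E) : (Q.tr v).tr w = (Q.tr w).tr v := by
  rw [tr_tr, tr_tr, add_comm]

/-- the core tile of the aligned mesh, base block `M.Q j = Q0.tr w0` -/
theorem coreAt_mesh_tr {J : Type*} (M : MD E n J) [NeZero n] {k : J → ℕ} (hk : M.Sc k)
    (a : Fin n → ℝ) {v : J → E} (hv : M.Adm v) (j : J) {Q0 : CB E n} {w0 : E}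
    (hQ : M.Q j = Q0.tr w0) :
    CoreAt (M.mesh hk a hv) (Sum.inr ⟨j, M.core hk a hv j⟩) (Q0.tr (w0 + v j)) := by
  have h := coreAt_mesh M hk a hv j
  have e : M.Bk v j = Q0.tr (w0 + v j) := by
    show (M.Q j).tr (v j) = _
    rw [hQ, tr_tr]
  rw [e] at h
  exact h

end Crest.Agent.R096.Wd_120
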