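import Crest.Agent.R096.Wd12_120
import Crest.Agent.R096.Wd18_120
import Crest.Agent.R096.Fns4_360
import Crest.Agent.R096.Pmc4_112

/-!
Row 96, exact cores (helper120), part 19: **(B2) of 112 #11318**: the clause `words` of `Pmc_112.Mok` for
every decorated mesh whose core tiles are the cores of the translated blocks; families indexed by `X`.
`b2_good` = `GoodW` form (EaX, `p > 2`); `b2_in` = EA0 form (`Blk`, `InS` of 961, `p ≤ 2`).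
-/

set_option autoImplicit false
set_option linter.unusedSectionVars false
set_option linter.style.longLine false

open Set Filter Topology Metric MeasureTheory
open scoped ENNReal

namespace Crest.Agent.R096.Wd_120

open Crest.Agent.R096.Bsp_628 Crest.Agent.R096.Brk1_582
open Crest.Agent.R096.Bxs_627 (zz)
open Crest.Agent.R096.Brk3_582 Crest.Agent.R096.Brk5_582 Crest.Agent.R096.Core_124
open Crest.Agent.R096.Msh_715 Crest.Agent.R096.Ls_222 Crest.Agent.R96.Sg1_199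
open Crest.Agent.R096.SkC1_961 (E3 FoamD th)
open Crest.Agent.R096.Mbf_337 (sb Cores Exact Words)
open Crest.Agent.R096.EaX_766 (lin)
open Crest.Agent.R096.Exa_365 (GoodW)
open Crest.Agent.R096.Mal_874 (CB)
open Crest.Agent.R96.Acl_392 (ACLat)
open Crest.Agent.R96.Pm_199 (Dec)
open Crest.Agent.R96.EaP_899 (XD fX)
open Crest.Agent.R096.Fns_360 (trA trA_apply)
open Crest.Agent.R096.Ea0_961 (Blk Tw Ed cb0 sbF)

/-- **(B2), `GoodW` form** (EaX, `p > 2`; `Q` = the ORIGINAL blocks, `w` = the total translation) -/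
theorem b2_good {δ κ0 R : ℝ} (hδ : 0 < δ) (hκ : 1 ≤ κ0) (hR : 1 ≤ R) {κp lam0 lam1 : ℝ}
    (hκp : 0 < κp) (hl0 : 0 < lam0) (hl1 : lam1 < 1) (Mx : ℕ) :
    ∃ κw : ℝ, 0 < κw ∧ ∀ (La Om : Set E3), IsOpen La → ∀ (F : Set (Bx (Fin 3)))
      (bf : BoxFoam La F δ κ0) (cmp : Cmp F R) (c0 : ℝ) (X : Set F) (lam : F → ℝ) (zc : F → E3)
      (H : XD bf c0 X lam zc) (f : E3 → E3) (p : ℝ), 1 ≤ p → ContinuousOn f Om →
      ∀ (D : E3 → E3 →L[ℝ] E3) (κ1 κ2 μ : ℝ), κ1 ≤ κw → 0 ≤ κ2 → 0 < μ →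
      ∀ (Q : X → CB E3 3) (k0 : X → ℕ) (hk : ∀ c, (Q c).kc ≤ k0 c) (A0 : X → E3 ≃ᵃ[ℝ] E3)
      (w : X → E3) (Mc : X → ℕ) (η : ℝ≥0∞),
      (∀ c ∈ X, lam0 ≤ lam c ∧ lam c ≤ lam1) → (∀ c, Mc c ≤ Mx) →
      (∀ c : X, 0 < Mc c ∧ ∀ x ∈ (Q c).Kc,
        x ∉ I (((Q c).T (k0 c) (hk c)).H ((Q c).cix (k0 c) (hk c))) →
        ((Q c).T (k0 c) (hk c)).cc x = {y | y ∈ (Q c).Kc ∧ ∀ a : F,
          (⌊Mc c * sc (Pc F) (bc (F := F)) (th (A0 c) (lam c) (zz c.1.1 (lam c)) x) a⌋₊ : ℝ) ≤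
            Mc c * sc (Pc F) (bc (F := F)) (th (A0 c) (lam c) (zz c.1.1 (lam c)) y) a ∧
          Mc c * sc (Pc F) (bc (F := F)) (th (A0 c) (lam c) (zz c.1.1 (lam c)) y) a ≤
            ⌈Mc c * sc (Pc F) (bc (F := F)) (th (A0 c) (lam c) (zz c.1.1 (lam c)) x) a⌉₊} ∧
        ((Q c).T (k0 c) (hk c)).dim x = {a : F |
          ⌊Mc c * sc (Pc F) (bc (F := F)) (th (A0 c) (lam c) (zz c.1.1 (lam c)) x) a⌋₊ <
          ⌈Mc c * sc (Pc F) (bc (F := F)) (th (A0 c) (lam c) (zz c.1.1 (lam c)) x) a⌉₊}.ncard) →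
      η ≠ ∞ → (η ^ (1 / p)).toReal ≤ κw →
      (∀ c : X, GoodW p Om f D (A0 c)
        (fun e : {e // e ∈ eIn ((Q c).T (k0 c) (hk c)) ((Q c).cix (k0 c) (hk c))} => ea e.1)
        (fun e => ev e.1) η (w c)) →
      ∀ D0 : Dec Om F, Cores (fX bf cmp H) D0.T f κ1 κ2 X D0.J0 D0.J D0.V D0.ct D0.A D0.lam D0.z
        D0.θ D0.φ →
      (∀ c : X, D0.lam c = lam c ∧ D0.z c = zz c.1.1 (lam c) ∧ D0.A c = trA (A0 c) (w c) ∧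
        D0.M c = Mc c ∧ CoreAt D0.T (D0.ct c) ((Q c).tr (w c))) →
      ∃ Bad : F → Set ℝ, (∀ c, MeasurableSet (Bad c)) ∧
        (∀ c, volume (Bad c ∩ Icc 0 1) ≤ ENNReal.ofReal (κp / 32)) ∧
        ∀ L : F → Finset ℝ, (∀ c, ∀ t ∈ L c, μ ≤ t ∧ t ≤ 1 - μ) →
          (∀ c, ∀ t ∈ L c, t ∉ Bad c) →
            Words (fX bf cmp H) D0.T f X D0.ct D0.A D0.lam D0.z D0.M L := by
  classical
  obtain ⟨κw, hκw, HH⟩ := words_blk_good hδ hκ hR (κb := κp / 32) (by positivity) hl0 hl1 Mx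
  refine ⟨κw, hκw, ?_⟩
  intro La Om hLa F bf cmp c0 X lam zc H f p hp hf D κ1 κ2 μ hκ1 hκ2 hμ Q k0 hk A0 w Mc η hlam hM
    hgrid hη hηw hgood D0 hC hD
  let Q' : F → CB E3 3 := fun c => if h : c ∈ X then Q ⟨c, h⟩ else cb0
  let k0' : F → ℕ := fun c => if h : c ∈ X then k0 ⟨c, h⟩ else cb0.kc
  let A' : F → E3 ≃ᵃ[ℝ] E3 := fun c => if h : c ∈ X then A0 ⟨c, h⟩ else AffineEquiv.refl ℝ E3
  let w' : F → E3 := fun c => if h : c ∈ X then w ⟨c, h⟩ else 0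
  have eQ : ∀ c (h : c ∈ X), Q' c = Q ⟨c, h⟩ := fun c h => dif_pos h
  have ek : ∀ c (h : c ∈ X), k0' c = k0 ⟨c, h⟩ := fun c h => dif_pos h
  have eA : ∀ c (h : c ∈ X), A' c = A0 ⟨c, h⟩ := fun c h => dif_pos h
  have ew : ∀ c (h : c ∈ X), w' c = w ⟨c, h⟩ := fun c h => dif_pos h
  have hk' : ∀ c, (Q' c).kc ≤ k0' c := by
    intro c
    by_cases h : c ∈ X
    · rw [eQ c h, ek c h]; exact hk _
    · show (if h : c ∈ X then Q ⟨c, h⟩ else cb0).kc ≤ (if h : c ∈ X then k0 ⟨c, h⟩ else cb0.kc)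
      rw [dif_neg h, dif_neg h]
  refine words_mok (Φ := fX bf cmp H) hμ ?_
  refine HH La Om hLa _ (fX bf cmp H) D0.ι D0.T f p hp hf D κ1 κ2 hκ1 hκ2 X D0.J0 D0.J D0.V D0.ct
    D0.A D0.lam D0.z D0.θ D0.φ D0.M Q' k0' hk' A' w' η hC ?_ ?_ ?_ ?_ ?_ ?_ ?_ hη hηw ?_
  · intro c hc
    have h1 := hD ⟨c, hc⟩
    rw [h1.2.1, h1.1]
  · intro c hc
    rw [eQ c hc, ew c hc]
    exact (hD ⟨c, hc⟩).2.2.2.2
  · intro c hc y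
    rw [eA c hc, ew c hc, (hD ⟨c, hc⟩).2.2.1, trA_apply]
  · intro c hc
    obtain ⟨h1, h2, h3, h4, h5⟩ := hD ⟨c, hc⟩
    have h6 := hgrid ⟨c, hc⟩
    have e1 : D0.M c = Mc ⟨c, hc⟩ := h4
    have e2 : D0.z c = zz c.1 (lam c) := h2
    have e3 : D0.lam c = lam c := h1
    have key : ∀ (Qa : CB E3 3) (ka : ℕ) (ha : Qa.kc ≤ ka) (Aa : E3 ≃ᵃ[ℝ] E3), Qa = Q ⟨c, hc⟩ →
        ka = k0 ⟨c, hc⟩ → Aa = A0 ⟨c, hc⟩ →
        0 < Mc ⟨c, hc⟩ ∧ ∀ x ∈ Qa.Kc, x ∉ I ((Qa.T ka ha).H (Qa.cix ka ha)) →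
        (Qa.T ka ha).cc x = {y | y ∈ Qa.Kc ∧ ∀ a : F,
          (⌊Mc ⟨c, hc⟩ * sc (Pc F) (bc (F := F)) (th Aa (lam c) (zz c.1 (lam c)) x) a⌋₊ : ℝ) ≤
            Mc ⟨c, hc⟩ * sc (Pc F) (bc (F := F)) (th Aa (lam c) (zz c.1 (lam c)) y) a ∧
          Mc ⟨c, hc⟩ * sc (Pc F) (bc (F := F)) (th Aa (lam c) (zz c.1 (lam c)) y) a ≤
            ⌈Mc ⟨c, hc⟩ * sc (Pc F) (bc (F := F)) (th Aa (lam c) (zz c.1 (lam c)) x) a⌉₊} ∧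
        (Qa.T ka ha).dim x = {a : F |
          ⌊Mc ⟨c, hc⟩ * sc (Pc F) (bc (F := F)) (th Aa (lam c) (zz c.1 (lam c)) x) a⌋₊ <
          ⌈Mc ⟨c, hc⟩ * sc (Pc F) (bc (F := F)) (th Aa (lam c) (zz c.1 (lam c)) x) a⌉₊}.ncard := by
      rintro Qa ka ha Aa rfl rfl rfl
      exact h6
    rw [e1, e2, e3]
    exact key (Q' c) (k0' c) (hk' c) (A' c) (eQ c hc) (ek c hc) (eA c hc)
  · intro c hc
    rw [(hD ⟨c, hc⟩).2.2.2.1]; exact hM _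
  · intro c hc
    rw [(hD ⟨c, hc⟩).1]; exact hlam c hc
  · intro c hc
    have e3 : D0.lam c = lam c := (hD ⟨c, hc⟩).1
    rw [e3]
    exact push_fX bf cmp H hc
  · intro c hc
    have key : ∀ (Qa : CB E3 3) (ka : ℕ) (ha : Qa.kc ≤ ka) (Aa : E3 ≃ᵃ[ℝ] E3) (wa : E3),
        Qa = Q ⟨c, hc⟩ → ka = k0 ⟨c, hc⟩ → Aa = A0 ⟨c, hc⟩ → wa = w ⟨c, hc⟩ →
        GoodW p Om f D Aa (fun e : {e // e ∈ eIn (Qa.T ka ha) (Qa.cix ka ha)} => ea e.1)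
          (fun e => ev e.1) η wa := by
      rintro Qa ka ha Aa wa rfl rfl rfl rfl
      exact hgood ⟨c, hc⟩
    exact key (Q' c) (k0' c) (hk' c) (A' c) (w' c) (eQ c hc) (ek c hc) (eA c hc) (ew c hc)

/-- **(B2), EA0 form** (`p ≤ 2`; [E5] of 348 #11167) -/
theorem b2_in {δ κ0 R : ℝ} (hδ : 0 < δ) (hκ : 1 ≤ κ0) (hR : 1 ≤ R) {κp lam0 lam1 : ℝ}
    (hκp : 0 < κp) (hl0 : 0 < lam0) (hl1 : lam1 < 1) {M : ℕ} (hM0 : 0 < M) :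
    ∃ κw : ℝ, 0 < κw ∧ ∀ (La Om : Set E3), IsOpen La → ∀ (F : Set (Bx (Fin 3)))
      (bf : BoxFoam La F δ κ0) (cmp : Cmp F R) (c0 : ℝ) (X : Set F) (lam : F → ℝ) (zc : F → E3)
      (H : XD bf c0 X lam zc) (f : E3 → E3), ContinuousOn f Om →
      ∀ (D : E3 → E3 →L[ℝ] E3) (u κ1 κ2 κ2' κv κt μ Cc : ℝ) (Bs Nn : ℕ), 0 ≤ u → 0 ≤ κv → κv ≤ κw →
      κt ≤ κw → 0 < μ →
      ∀ (A : F → E3 ≃ᵃ[ℝ] E3) (Q : F → CB E3 3) (k0 : F → ℕ) (hk : ∀ c, (Q c).kc ≤ k0 c),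
      (∀ c ∈ X, lam0 ≤ lam c ∧ lam c ≤ lam1) →
      (∀ c ∈ X, Blk F u Cc κ2' κt Bs M Nn c (A c) (lam c) (Q c) (k0 c) (hk c)) →
      (∀ c ∈ X, ∀ x ∈ (Q c).Kc, ((Q c).T (k0 c) (hk c)).dim x = 1 →
        ∀ y ∈ ((Q c).T (k0 c) (hk c)).cc x, ∀ w : E3, ‖(Q c).ψ w‖ ≤ 1 / (10 * 2 ^ k0 c) →
        ‖f (y + w) - A c (y + w)‖ ≤ κv * (lam c * c.1.sz) / M) →
      ∀ v : X → E3, (∀ c : X, v c ∈ Tw (Q c) (k0 c)) →
      (∀ c : X, ∀ e ∈ Ed (Q c) (k0 c) (hk c), segment ℝ e.1 e.2 ⊆ (Q c).Kc →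
        ∫⁻ τ in Icc (0:ℝ) 1, ‖D (e.1 + v c + τ • (e.2 - e.1)) (e.2 - e.1) -
          lin (A c) (e.2 - e.1)‖ₑ ≤ ENNReal.ofReal (κv * ‖lin (A c) (e.2 - e.1)‖)) →
      (∀ c : X, ∀ e ∈ eIn ((Q c).T (k0 c) (hk c)) ((Q c).cix (k0 c) (hk c)), ∀ k,
        ACLat Om (fun y => f y k) (fun y => D y (ev e) k) (ev e) (ea e + v c)) →
      ∀ D0 : Dec Om F, Cores (fX bf cmp H) D0.T f κ1 κ2 X D0.J0 D0.J D0.V D0.ct D0.A D0.lam D0.z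
        D0.θ D0.φ →
      (∀ c : X, D0.lam c = lam c ∧ D0.z c = zz c.1.1 (lam c) ∧ D0.A c = trA (A c) (v c) ∧
        D0.M c = M ∧ CoreAt D0.T (D0.ct c) ((Q c).tr (v c))) →
      ∃ Bad : F → Set ℝ, (∀ c, MeasurableSet (Bad c)) ∧
        (∀ c, volume (Bad c ∩ Icc 0 1) ≤ ENNReal.ofReal (κp / 32)) ∧
        ∀ L : F → Finset ℝ, (∀ c, ∀ t ∈ L c, μ ≤ t ∧ t ≤ 1 - μ) →
          (∀ c, ∀ t ∈ L c, t ∉ Bad c) →
            Words (fX bf cmp H) D0.T f X D0.ct D0.A D0.lam D0.z D0.M L := by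
  classical
  obtain ⟨κw, hκw, HH⟩ := words_blk_in hδ hκ hR (κb := κp / 32) (by positivity) hl0 hl1 M
  refine ⟨κw, hκw, ?_⟩
  intro La Om hLa F bf cmp c0 X lam zc H f hf D u κ1 κ2 κ2' κv κt μ Cc Bs Nn hu hκv0 hκv hκt hμ
    A Q k0 hk hlam hB hgam v hv htra hacl D0 hC hD
  let w' : F → E3 := fun c => if h : c ∈ X then v ⟨c, h⟩ else 0
  have ew : ∀ c (h : c ∈ X), w' c = v ⟨c, h⟩ := fun c h => dif_pos h
  have hψ : ∀ c (h : c ∈ X), ‖(Q c).ψ (w' c)‖ ≤ 1 / (10 * 2 ^ k0 c) := by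
    intro c hc
    rw [ew c hc, pi_norm_le_iff_of_nonneg (by positivity)]
    intro l
    have h1 := hv ⟨c, hc⟩ l
    rw [Real.norm_eq_abs, abs_of_nonneg h1.1]
    exact h1.2
  refine words_mok (Φ := fX bf cmp H) hμ ?_
  refine HH La Om hLa _ (fX bf cmp H) D0.ι D0.T f hf D u κ1 κ2 κv κt hu hκv0 hκv hκt X D0.J0 D0.J
    D0.V D0.ct D0.A D0.lam D0.z D0.θ D0.φ D0.M Q k0 hk A w' hC ?_ ?_ ?_ ?_ ?_ ?_ ?_
    (fun c hc => (hB c hc).lin_eq) hψ ?_ ?_ ?_ ?_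
  · intro c hc
    have h1 := hD ⟨c, hc⟩
    rw [h1.2.1, h1.1]
  · intro c hc
    rw [ew c hc]
    exact (hD ⟨c, hc⟩).2.2.2.2
  · intro c hc y
    rw [ew c hc, (hD ⟨c, hc⟩).2.2.1, trA_apply]
  · intro c hc
    obtain ⟨h1, h2, h3, h4, h5⟩ := hD ⟨c, hc⟩
    have e1 : D0.M c = M := h4
    have e2 : D0.z c = zz c.1 (lam c) := h2
    have e3 : D0.lam c = lam c := h1
    rw [e1, e2, e3]
    exact ⟨hM0, (hB c hc).grid⟩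
  · intro c hc
    exact ((hD ⟨c, hc⟩).2.2.2.1).le
  · intro c hc
    rw [(hD ⟨c, hc⟩).1]; exact hlam c hc
  · intro c hc
    have e3 : D0.lam c = lam c := (hD ⟨c, hc⟩).1
    rw [e3]
    exact push_fX bf cmp H hc
  · intro c hc
    have e1 : D0.M c = M := (hD ⟨c, hc⟩).2.2.2.1
    have e3 : D0.lam c = lam c := (hD ⟨c, hc⟩).1
    rw [e1, e3]
    exact (hB c hc).thin
  · intro c hc x hx hd y hy
    have e1 : D0.M c = M := (hD ⟨c, hc⟩).2.2.2.1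
    have e3 : D0.lam c = lam c := (hD ⟨c, hc⟩).1
    rw [e1, e3]
    exact hgam c hc x hx hd y hy (w' c) (hψ c hc)
  · intro c hc e he hs
    rw [ew c hc]
    exact htra ⟨c, hc⟩ e he hs
  · intro c hc e he k
    rw [ew c hc]
    exact hacl ⟨c, hc⟩ e he k

/-- the last hypothesis of `b2_in` holds for almost every translation -/
theorem ae_acl_core {p : ℝ} {Om La : Set E3} {f : E3 → E3} {D : E3 → E3 →L[ℝ] E3}
    (hOm : IsOpen Om) (h : Crest.Agent.R096.Er_594.SH3 p Om La f D) (Q : CB E3 3) (k0 : ℕ)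
    (hk : Q.kc ≤ k0) : ∀ᵐ w : E3, ∀ e ∈ eIn (Q.T k0 hk) (Q.cix k0 hk), ∀ k,
      ACLat Om (fun y => f y k) (fun y => D y (ev e) k) (ev e) (ea e + w) := by
  have h1 := Crest.Agent.R096.Exa_365.ae_ac hOm h
    (fun e : {e // e ∈ eIn (Q.T k0 hk) (Q.cix k0 hk)} => ea e.1) (fun e => ev e.1)
  filter_upwards [h1] with w hw e he k
  exact hw k ⟨e, he⟩

end Crest.Agent.R096.Wd_120
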