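import Crest.Agent.R096.Fnn2_635
import Crest.Agent.R096.Mdd8_360
import Crest.Agent.R096.Wd19_120

/-!
Row 96 (S0127), NO0 for `p ≥ 3` (helper635), (M5) of 962's #11558: **(B1) and (B2) of 112's #11318 for the
foam `fN`** (= `Np_962.ΦN`, all bricks exact).

* **`b2_any`** : 120's `b2_good` for ANY foam whose push is radial off the `3/4` cores; **`b2_N`** : `fN`;
* **`b1_N`** : 360's `b1_gen` for `fN`; `exists_DatN` : the outer Whitney data.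
-/

set_option autoImplicit false
set_option linter.unusedSectionVars false
set_option linter.style.longLine false
set_option linter.unusedVariables false

open Set Filter Topology Metric MeasureTheory
open scoped ENNReal

namespace Crest.Agent.R096.Bpn_635

open Crest.Agent.R096.Bsp_628 Crest.Agent.R096.Brk1_582
open Crest.Agent.R096.Bxs_627 (zz ctr cb CoriE)
open Crest.Agent.R096.Brk3_582 Crest.Agent.R096.Brk5_582 Crest.Agent.R096.Core_124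
open Crest.Agent.R096.Msh_715 Crest.Agent.R096.Ls_222 Crest.Agent.R96.Sg1_199
open Crest.Agent.R096.SkC1_961 (E3 FoamD Hom3 th)
open Crest.Agent.R096.Mbf_337 (sb Cores Exact Words)
open Crest.Agent.R096.EaX_766 (lin cbx)
open Crest.Agent.R096.Exa_365 (GoodW)
open Crest.Agent.R096.Mal_874 Crest.Agent.R096.Msh_810
open Crest.Agent.R96.Acl_392 (ACLat)
open Crest.Agent.R96.Pm_199 (Dec)
open Crest.Agent.R096.Fns_360 Crest.Agent.R096.Mdd_360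
open Crest.Agent.R096.Ea0_961 (cb0)
open Crest.Agent.R096.Wd_120 (mu rp CoreAt words_blk_good words_mok)
open Crest.Agent.R096.Bxc1_635 Crest.Agent.R096.Fnn_635
open Crest.Agent.R96.Eam_466 (FineX FineT)

noncomputable section

/-- **(B2), `GoodW` form, ANY FOAM** whose push is radial off the `3/4` cores (120's `b2_good`;
`Q` = the ORIGINAL blocks, `w` = the total translation) -/
theorem b2_any {δ κ0 R : ℝ} (hδ : 0 < δ) (hκ : 1 ≤ κ0) (hR : 1 ≤ R) {κp lam0 lam1 : ℝ}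
    (hκp : 0 < κp) (hl0 : 0 < lam0) (hl1 : lam1 < 1) (Mx : ℕ) :
    ∃ κw : ℝ, 0 < κw ∧ ∀ (La Om : Set E3), IsOpen La → ∀ (c0 : ℝ) (Φ : FoamD δ κ0 R c0 La)
      (X : Set Φ.F) (lam : Φ.F → ℝ),
      (∀ c ∈ X, ∀ y ∈ Pc Φ.F c, 3 / 4 * lam c ≤ mu c.1 y → Φ.pu c y = rp c.1 y) →
      ∀ (f : E3 → E3) (p : ℝ), 1 ≤ p → ContinuousOn f Om →
      ∀ (D : E3 → E3 →L[ℝ] E3) (κ1 κ2 μ : ℝ), κ1 ≤ κw → 0 ≤ κ2 → 0 < μ →
      ∀ (Q : X → CB E3 3) (k0 : X → ℕ) (hk : ∀ c, (Q c).kc ≤ k0 c) (A0 : X → E3 ≃ᵃ[ℝ] E3)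
      (w : X → E3) (Mc : X → ℕ) (η : ℝ≥0∞),
      (∀ c ∈ X, lam0 ≤ lam c ∧ lam c ≤ lam1) → (∀ c, Mc c ≤ Mx) →
      (∀ c : X, 0 < Mc c ∧ ∀ x ∈ (Q c).Kc,
        x ∉ I (((Q c).T (k0 c) (hk c)).H ((Q c).cix (k0 c) (hk c))) →
        ((Q c).T (k0 c) (hk c)).cc x = {y | y ∈ (Q c).Kc ∧ ∀ a : Φ.F,
          (⌊Mc c * sc (Pc Φ.F) (bc (F := Φ.F)) (th (A0 c) (lam c) (zz c.1.1 (lam c)) x) a⌋₊ : ℝ) ≤
            Mc c * sc (Pc Φ.F) (bc (F := Φ.F)) (th (A0 c) (lam c) (zz c.1.1 (lam c)) y) a ∧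
          Mc c * sc (Pc Φ.F) (bc (F := Φ.F)) (th (A0 c) (lam c) (zz c.1.1 (lam c)) y) a ≤
            ⌈Mc c * sc (Pc Φ.F) (bc (F := Φ.F)) (th (A0 c) (lam c) (zz c.1.1 (lam c)) x) a⌉₊} ∧
        ((Q c).T (k0 c) (hk c)).dim x = {a : Φ.F |
          ⌊Mc c * sc (Pc Φ.F) (bc (F := Φ.F)) (th (A0 c) (lam c) (zz c.1.1 (lam c)) x) a⌋₊ <
          ⌈Mc c * sc (Pc Φ.F) (bc (F := Φ.F)) (th (A0 c) (lam c) (zz c.1.1 (lam c)) x) a⌉₊}.ncard) →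
      η ≠ ∞ → (η ^ (1 / p)).toReal ≤ κw →
      (∀ c : X, GoodW p Om f D (A0 c)
        (fun e : {e // e ∈ eIn ((Q c).T (k0 c) (hk c)) ((Q c).cix (k0 c) (hk c))} => ea e.1)
        (fun e => ev e.1) η (w c)) →
      ∀ D0 : Dec Om Φ.F, Cores Φ D0.T f κ1 κ2 X D0.J0 D0.J D0.V D0.ct D0.A D0.lam D0.z
        D0.θ D0.φ →
      (∀ c : X, D0.lam c = lam c ∧ D0.z c = zz c.1.1 (lam c) ∧ D0.A c = trA (A0 c) (w c) ∧
        D0.M c = Mc c ∧ CoreAt D0.T (D0.ct c) ((Q c).tr (w c))) →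
      ∃ Bad : Φ.F → Set ℝ, (∀ c, MeasurableSet (Bad c)) ∧
        (∀ c, volume (Bad c ∩ Icc 0 1) ≤ ENNReal.ofReal (κp / 32)) ∧
        ∀ L : Φ.F → Finset ℝ, (∀ c, ∀ t ∈ L c, μ ≤ t ∧ t ≤ 1 - μ) →
          (∀ c, ∀ t ∈ L c, t ∉ Bad c) →
            Words Φ D0.T f X D0.ct D0.A D0.lam D0.z D0.M L := by
  classical
  obtain ⟨κw, hκw, HH⟩ := words_blk_good hδ hκ hR (κb := κp / 32) (by positivity) hl0 hl1 Mx
  refine ⟨κw, hκw, ?_⟩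
  intro La Om hLa c0 Φ X lam hpush f p hp hf D κ1 κ2 μ hκ1 hκ2 hμ Q k0 hk A0 w Mc η hlam hM
    hgrid hη hηw hgood D0 hC hD
  let Q' : Φ.F → CB E3 3 := fun c => if h : c ∈ X then Q ⟨c, h⟩ else cb0
  let k0' : Φ.F → ℕ := fun c => if h : c ∈ X then k0 ⟨c, h⟩ else cb0.kc
  let A' : Φ.F → E3 ≃ᵃ[ℝ] E3 := fun c => if h : c ∈ X then A0 ⟨c, h⟩ else AffineEquiv.refl ℝ E3
  let w' : Φ.F → E3 := fun c => if h : c ∈ X then w ⟨c, h⟩ else 0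
  have eQ : ∀ c (h : c ∈ X), Q' c = Q ⟨c, h⟩ := fun c h => dif_pos h
  have ek : ∀ c (h : c ∈ X), k0' c = k0 ⟨c, h⟩ := fun c h => dif_pos h
  have eA : ∀ c (h : c ∈ X), A' c = A0 ⟨c, h⟩ := fun c h => dif_pos h
  have ew : ∀ c (h : c ∈ X), w' c = w ⟨c, h⟩ := fun c h => dif_pos h
  have hk' : ∀ c, (Q' c).kc ≤ k0' c := by
    intro c
    by_cases h : c ∈ X
    · rw [eQ c h, ek c h]; exact hk _
    · show (if h : c ∈ X then Q ⟨c, h⟩ else cb0).kc ≤ (if h : c ∈ X then k0 ⟨c, h⟩ else cb0.kc)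
      rw [dif_neg h, dif_neg h]
  refine words_mok (Φ := Φ) hμ ?_
  refine HH La Om hLa _ Φ D0.ι D0.T f p hp hf D κ1 κ2 hκ1 hκ2 X D0.J0 D0.J D0.V D0.ct
    D0.A D0.lam D0.z D0.θ D0.φ D0.M Q' k0' hk' A' w' η hC ?_ ?_ ?_ ?_ ?_ ?_ ?_ hη hηw ?_
  · intro c hc
    have h1 := hD ⟨c, hc⟩
    rw [h1.2.1, h1.1]
  · intro c hc
    rw [eQ c hc, ew c hc]
    exact (hD ⟨c, hc⟩).2.2.2.2
  · intro c hc y
    rw [eA c hc, ew c hc, (hD ⟨c, hc⟩).2.2.1, trA_apply]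
  · intro c hc
    obtain ⟨h1, h2, h3, h4, h5⟩ := hD ⟨c, hc⟩
    have h6 := hgrid ⟨c, hc⟩
    have e1 : D0.M c = Mc ⟨c, hc⟩ := h4
    have e2 : D0.z c = zz c.1 (lam c) := h2
    have e3 : D0.lam c = lam c := h1
    have key : ∀ (Qa : CB E3 3) (ka : ℕ) (ha : Qa.kc ≤ ka) (Aa : E3 ≃ᵃ[ℝ] E3), Qa = Q ⟨c, hc⟩ →
        ka = k0 ⟨c, hc⟩ → Aa = A0 ⟨c, hc⟩ →
        0 < Mc ⟨c, hc⟩ ∧ ∀ x ∈ Qa.Kc, x ∉ I ((Qa.T ka ha).H (Qa.cix ka ha)) →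
        (Qa.T ka ha).cc x = {y | y ∈ Qa.Kc ∧ ∀ a : Φ.F,
          (⌊Mc ⟨c, hc⟩ * sc (Pc Φ.F) (bc (F := Φ.F)) (th Aa (lam c) (zz c.1 (lam c)) x) a⌋₊ : ℝ) ≤
            Mc ⟨c, hc⟩ * sc (Pc Φ.F) (bc (F := Φ.F)) (th Aa (lam c) (zz c.1 (lam c)) y) a ∧
          Mc ⟨c, hc⟩ * sc (Pc Φ.F) (bc (F := Φ.F)) (th Aa (lam c) (zz c.1 (lam c)) y) a ≤
            ⌈Mc ⟨c, hc⟩ * sc (Pc Φ.F) (bc (F := Φ.F)) (th Aa (lam c) (zz c.1 (lam c)) x) a⌉₊} ∧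
        (Qa.T ka ha).dim x = {a : Φ.F |
          ⌊Mc ⟨c, hc⟩ * sc (Pc Φ.F) (bc (F := Φ.F)) (th Aa (lam c) (zz c.1 (lam c)) x) a⌋₊ <
          ⌈Mc ⟨c, hc⟩ * sc (Pc Φ.F) (bc (F := Φ.F)) (th Aa (lam c) (zz c.1 (lam c)) x) a⌉₊}.ncard := by
      rintro Qa ka ha Aa rfl rfl rfl
      exact h6
    rw [e1, e2, e3]
    exact key (Q' c) (k0' c) (hk' c) (A' c) (eQ c hc) (ek c hc) (eA c hc)
  · intro c hc
    rw [(hD ⟨c, hc⟩).2.2.2.1]; exact hM _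
  · intro c hc
    rw [(hD ⟨c, hc⟩).1]; exact hlam c hc
  · intro c hc
    have e3 : D0.lam c = lam c := (hD ⟨c, hc⟩).1
    rw [e3]
    exact hpush c hc
  · intro c hc
    have key : ∀ (Qa : CB E3 3) (ka : ℕ) (ha : Qa.kc ≤ ka) (Aa : E3 ≃ᵃ[ℝ] E3) (wa : E3),
        Qa = Q ⟨c, hc⟩ → ka = k0 ⟨c, hc⟩ → Aa = A0 ⟨c, hc⟩ → wa = w ⟨c, hc⟩ →
        GoodW p Om f D Aa (fun e : {e // e ∈ eIn (Qa.T ka ha) (Qa.cix ka ha)} => ea e.1)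
          (fun e => ev e.1) η wa := by
      rintro Qa ka ha Aa wa rfl rfl rfl rfl
      exact hgood ⟨c, hc⟩
    exact key (Q' c) (k0' c) (hk' c) (A' c) (w' c) (eQ c hc) (ek c hc) (eA c hc) (ew c hc)

/-- **(B2) for `fN`** (all bricks exact or any `X`), `lam1 = 1 / 4` -/
theorem b2_N {δ κ0 R : ℝ} (hδ : 0 < δ) (hκ : 1 ≤ κ0) (hR : 1 ≤ R) {κp lam0 : ℝ}
    (hκp : 0 < κp) (hl0 : 0 < lam0) (Mx : ℕ) :
    ∃ κw : ℝ, 0 < κw ∧ ∀ (La Om : Set E3), IsOpen La → ∀ (F : Set (Bx (Fin 3)))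
      (bf : BoxFoam La F δ κ0) (cmp : Cmp F R) (c0 : ℝ) (hc : 0 < c0) (hc2 : c0 * (8 * κ0) ≤ 1)
      (lam : F → ℝ) (hl : ∀ c, 0 < lam c) (hl4 : ∀ c, lam c ≤ 1 / 4), (∀ c, lam0 ≤ lam c) →
      ∀ (X : Set F) (f : E3 → E3) (p : ℝ), 1 ≤ p → ContinuousOn f Om →
      ∀ (D : E3 → E3 →L[ℝ] E3) (κ1 κ2 μ : ℝ), κ1 ≤ κw → 0 ≤ κ2 → 0 < μ →
      ∀ (Q : X → CB E3 3) (k0 : X → ℕ) (hk : ∀ c, (Q c).kc ≤ k0 c) (A0 : X → E3 ≃ᵃ[ℝ] E3)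
      (w : X → E3) (Mc : X → ℕ) (η : ℝ≥0∞), (∀ c, Mc c ≤ Mx) →
      (∀ c : X, 0 < Mc c ∧ ∀ x ∈ (Q c).Kc,
        x ∉ I (((Q c).T (k0 c) (hk c)).H ((Q c).cix (k0 c) (hk c))) →
        ((Q c).T (k0 c) (hk c)).cc x = {y | y ∈ (Q c).Kc ∧ ∀ a : F,
          (⌊Mc c * sc (Pc F) (bc (F := F)) (th (A0 c) (lam c) (zz c.1.1 (lam c)) x) a⌋₊ : ℝ) ≤
            Mc c * sc (Pc F) (bc (F := F)) (th (A0 c) (lam c) (zz c.1.1 (lam c)) y) a ∧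
          Mc c * sc (Pc F) (bc (F := F)) (th (A0 c) (lam c) (zz c.1.1 (lam c)) y) a ≤
            ⌈Mc c * sc (Pc F) (bc (F := F)) (th (A0 c) (lam c) (zz c.1.1 (lam c)) x) a⌉₊} ∧
        ((Q c).T (k0 c) (hk c)).dim x = {a : F |
          ⌊Mc c * sc (Pc F) (bc (F := F)) (th (A0 c) (lam c) (zz c.1.1 (lam c)) x) a⌋₊ <
          ⌈Mc c * sc (Pc F) (bc (F := F)) (th (A0 c) (lam c) (zz c.1.1 (lam c)) x) a⌉₊}.ncard) →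
      η ≠ ∞ → (η ^ (1 / p)).toReal ≤ κw →
      (∀ c : X, GoodW p Om f D (A0 c)
        (fun e : {e // e ∈ eIn ((Q c).T (k0 c) (hk c)) ((Q c).cix (k0 c) (hk c))} => ea e.1)
        (fun e => ev e.1) η (w c)) →
      ∀ D0 : Dec Om F, Cores (fN bf cmp hκ hc hc2 lam hl hl4) D0.T f κ1 κ2 X D0.J0 D0.J D0.V D0.ct
        D0.A D0.lam D0.z D0.θ D0.φ →
      (∀ c : X, D0.lam c = lam c ∧ D0.z c = zz c.1.1 (lam c) ∧ D0.A c = trA (A0 c) (w c) ∧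
        D0.M c = Mc c ∧ CoreAt D0.T (D0.ct c) ((Q c).tr (w c))) →
      ∃ Bad : F → Set ℝ, (∀ c, MeasurableSet (Bad c)) ∧
        (∀ c, volume (Bad c ∩ Icc 0 1) ≤ ENNReal.ofReal (κp / 32)) ∧
        ∀ L : F → Finset ℝ, (∀ c, ∀ t ∈ L c, μ ≤ t ∧ t ≤ 1 - μ) →
          (∀ c, ∀ t ∈ L c, t ∉ Bad c) →
            Words (fN bf cmp hκ hc hc2 lam hl hl4) D0.T f X D0.ct D0.A D0.lam D0.z D0.M L := by
  obtain ⟨κw, hκw, H⟩ := b2_any hδ hκ hR hκp hl0 (by norm_num : (1 / 4 : ℝ) < 1) Mx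
  refine ⟨κw, hκw, ?_⟩
  intro La Om hLa F bf cmp c0 hc hc2 lam hl hl4 hl0' X f p hp hf D κ1 κ2 μ hκ1 hκ2 hμ Q k0 hk A0 w Mc
    η hM hgrid hη hηw hgood D0 hC hD
  exact H La Om hLa c0 (fN bf cmp hκ hc hc2 lam hl hl4) X lam
    (fun c _ => push_fN bf cmp hκ hc hc2 lam hl hl4 c) f p hp hf D κ1 κ2 μ hκ1 hκ2 hμ Q k0 hk A0 w Mc
    η (fun c _ => ⟨hl0' c, hl4 c⟩) hM hgrid hη hηw hgood D0 hC hD

variable {La Om : Set E3} {f : E3 → E3} {F : Set (Bx (Fin 3))} {δ κ0 R c0 : ℝ} {X : Set F}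

/-- **(B1) for `fN`**: `Exact` and `FineX` for every admissible mesh (360's `b1_gen`). -/
theorem b1_N (hX : ∀ c, c ∈ X) (hLa : IsOpen La) (hδ : 0 < δ) (hR : 0 < R) (bf : BoxFoam La F δ κ0)
    (cmp : Cmp F R) (hκ0 : 1 ≤ κ0) (hc : 0 < c0) (hc2 : c0 * (8 * κ0) ≤ 1) (lam : F → ℝ)
    (hl : ∀ c, 0 < lam c) (hl4 : ∀ c, lam c ≤ 1 / 4) {lam0 : ℝ} (h00 : 0 < lam0)
    (hl0 : ∀ c, lam0 ≤ lam c)
    {κ1 κ2 τ η ε : ℝ} (hκ1 : 0 ≤ κ1) (hτ : 0 ≤ τ) (hτ2 : τ ≤ κ2)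
    (h2 : κ2 ≤ 1 / 4) (hκ8 : (κ1 + τ) * κ0 ≤ 1 / 8) (hκ12 : (κ1 + τ) * κ0 ≤ κ2 - τ)
    {A : F → E3 ≃ᵃ[ℝ] E3} (hcor : ∀ c, CoriE Om f (A c) c.1 (lam c) κ1 κ2)
    (M : MD E3 3 X) (hφ : M.φ = ContinuousLinearEquiv.refl ℝ E3) (hOmM : M.φ ⁻¹' M.D0.Om = Om)
    (hK : ∀ c : X, (M.Q c).Kc = A c ⁻¹' cbx c.1.1 (lam c))
    (himg : Img M Om f A lam κ1) (hsm : Sm M A lam τ) (Y : RD M)
    {uA : X → ℝ} (huA0 : ∀ c, 0 ≤ uA c)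
    (huA : ∀ (c : X), ∀ x y, ‖A c y - A c x‖ ≤ uA c * dist ((M.Q c).ψ x) ((M.Q c).ψ y))
    (hη : ∀ c : X, uA c * (Y.R c / 2 ^ (M.Q c).kc) ≤ η * c.1.1.sz)
    (hε : KIT δ κ0 R c0 lam0 * (η + 2 * (κ1 + τ)) ≤ ε)
    {x : {c // c ∉ X} → E3} {Rz : {c // c ∉ X} → ℝ}
    (hF : ∀ y ∈ Om, FineS (fN bf cmp hκ0 hc hc2 lam hl hl4) f ε
      (closedBall y (M.D0.ρ y) ∩ (Om ∩ offO f (O34 lam))))
    {k : X → ℕ} (hk : M.Sc k) (a : Fin 3 → ℝ) {v : X → E3} (hv : M.Adm v)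
    {ct0 : F → M.OIx hk a hv ⊕ Σ j, M.IIx hk a hv j}
    (hct0 : ∀ c : X, ct0 c.1 = Sum.inr ⟨c, M.core hk a hv c⟩) :
    (∀ c : X, Mbf_337.Exact (fN bf cmp hκ0 hc hc2 lam hl hl4) (M.mesh hk a hv) f (κ1 + τ) (κ2 - τ) c.1
      (Sum.inr ⟨c, M.core hk a hv c⟩) (trA (A c) (v c)) (lam c) (zz c.1.1 (lam c))) ∧
    FineX (fN bf cmp hκ0 hc hc2 lam hl hl4) (M.mesh hk a hv) f ε X ct0 x Rz := by
  have hv' : ∀ c : X, ‖v c‖ ≤ M.r c := by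
    intro c
    have h1 := hv c
    rw [hφ] at h1
    exact h1
  have hcor' : ∀ c : F, CoriE (M.φ ⁻¹' M.D0.Om) f (trA (A c) (v ((eqX hX).symm c))) c.1 (lam c)
      (κ1 + τ) (κ2 - τ) := by
    intro c
    rw [hOmM]
    exact cor_tr (hcor c) (hsm ⟨c, hX c⟩ _ (hv' ⟨c, hX c⟩))
  constructor
  · intro c
    have h := (coresN bf cmp hκ0 hc hc2 lam hl hl4 (f := f) (κ1 := κ1 + τ) (κ2 := κ2 - τ)
      (by linarith) (by linarith) (by linarith) hκ12 (ctB_inj (eqX hX) M hk a hv) hcor'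
      fun c => P_ctB (eqX hX) M hk a hv hK c).exact_ c.1 (mem_univ _)
    exact h
  · have hFi := fine_B (eqX hX) M hk a hv hLa hδ hR bf cmp hκ0 hc hc2 lam hl hl4 h00 hl0 (f := f)
      (κ1 := κ1 + τ) (κ2 := κ2 - τ) (by linarith) hκ8 (A := A) hK hcor' Y (ρ := M.D0.ρ) (ε := ε)
      (fun _ => le_rfl) (by
        intro y hy
        have hyO : y ∈ Om := by
          rw [← hOmM]
          exact hy
        have h1 := hF y hyO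
        rw [hOmM, hφ]
        exact h1) (κw := fun _ => κ1 + τ) (η := fun _ => η) (uA := uA) (by
        intro c y hy
        have hyN : y - v c ∈ (M.Q c).N := ((M.Q c).mem_N_tr (v c) y).1 hy
        have hyt : y ∈ cthickening (M.r c) (M.Q c).N := by
          refine mem_cthickening_of_dist_le y (y - v c) _ _ hyN ?_
          rw [dist_eq_norm, sub_sub_cancel]
          exact hv' c
        obtain ⟨-, h5, h6⟩ := himg c y hyt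
        refine ⟨h5, ?_⟩
        have hl1 : lam c < 1 := (hl4 c).trans_lt (by norm_num)
        have h7 := (hsm c (v c) (hv' c)).1
        have e : f y - trA (A c) (v c) y = (f y - A c y) + (A c).linear (v c) := by
          rw [← trA_sub (A c) (v c) y]; abel
        change ‖f y - trA (A c) (v c) y‖ ≤ (κ1 + τ) * c.1.1.sz
        rw [e]
        refine (norm_add_le _ _).trans ?_
        have hs := Bx.sz_pos (bf.pos _ c.1.2)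
        have hlc' := hl c
        have h8 : lam c * c.1.1.sz ≤ c.1.1.sz := by nlinarith
        have h9 : (κ1 + τ) * (lam c * c.1.1.sz) ≤ (κ1 + τ) * c.1.1.sz :=
          mul_le_mul_of_nonneg_left h8 (by linarith)
        linarith) huA0 huA hη (fun _ => hε)
    intro i hi _
    have hi' : ∀ c : F, i ∉ ({ctB (eqX hX) M hk a hv c} : Set _) := by
      intro c hic
      apply hi c (hX c)
      rw [mem_singleton_iff] at hic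
      rw [hic, hct0 ⟨c, hX c⟩]
      rfl
    exact fun y hy y' hy' c' => ⟨hFi.psi i hi' y hy y' hy' c', hFi.lev i hi' y hy y' hy' c'⟩

/-- **the outer Whitney data over `fN`** -/
theorem exists_DatN (hOm : IsOpen Om) (hLa : IsOpen La) (hδ : 0 < δ) (hR : 0 < R)
    (bf : BoxFoam La F δ κ0) (cmp : Cmp F R) (hκ0 : 1 ≤ κ0) (hc : 0 < c0) (hc2 : c0 * (8 * κ0) ≤ 1)
    (lam : F → ℝ) (hl : ∀ c, 0 < lam c) (hl4 : ∀ c, lam c ≤ 1 / 4)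
    (hfm : MapsTo f Om La) (hfc : ContinuousOn f Om) {ε : ℝ} (hε : 0 < ε) {σ : E3 → ℝ}
    (hσ : ∀ y y', σ y ≤ σ y' + dist y y') (hσ0 : ∀ y, 0 ≤ σ y) (hσ1 : ∀ y ∈ Om, 0 < σ y)
    {C : ℝ} (hC : 1 < C) (a : Fin 3 → ℝ) :
    ∃ D : Dat 3, D.C = C ∧ D.a = a ∧ D.Om = Om ∧ (∀ y, D.ρ y ≤ σ y) ∧
      ∀ y ∈ Om, closedBall y (D.ρ y) ⊆ Om ∧ FineS (fN bf cmp hκ0 hc hc2 lam hl hl4) f ε
        (closedBall y (D.ρ y) ∩ (Om ∩ offO f (O34 lam))) :=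
  exists_Dat (fN bf cmp hκ0 hc hc2 lam hl hl4) hOm hLa hδ hR hfm hfc
    (O := O34 lam) (fun c => isOpen_interior) (hole_subN bf cmp hκ0 hc hc2 lam hl hl4)
    hε hσ hσ0 hσ1 hC a

end

end Crest.Agent.R096.Bpn_635
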