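import Crest.Agent.R096.Wd19_120

/-!
Row 96, exact cores (helper120), part 20: **`b2_goodC`** (365): as `b2_good`, but `Cores` with ANY `κ1`;
only the closeness of `f` to the affine map on the boundary of the core tile has to be `κw`.
-/

set_option autoImplicit false
set_option linter.unusedSectionVars false
set_option linter.style.longLine false

open Set Filter Topology Metric MeasureTheory
open scoped ENNReal

namespace Crest.Agent.R096.Wd_120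

open Crest.Agent.R096.Bsp_628 Crest.Agent.R096.Brk1_582
open Crest.Agent.R096.Bxs_627 (zz)
open Crest.Agent.R096.Brk3_582 Crest.Agent.R096.Brk5_582 Crest.Agent.R096.Core_124
open Crest.Agent.R096.Msh_715 Crest.Agent.R096.Ls_222 Crest.Agent.R96.Sg1_199
open Crest.Agent.R096.SkC1_961 (FoamD th E3)
open Crest.Agent.R096.Mbf_337 (sb Cores Exact Words)
open Crest.Agent.R096.EaX_766 (lin)
open Crest.Agent.R096.Exa_365 (GoodW)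
open Crest.Agent.R096.Mal_874 (CB)
open Crest.Agent.R96.Acl_392 (ACLat)
open Crest.Agent.R96.Pm_199 (Dec)
open Crest.Agent.R96.EaP_899 (XD fX)
open Crest.Agent.R096.Fns_360 (trA trA_apply)
open Crest.Agent.R096.Ea0_961 (Blk Tw cb0)

/-- as `words_cores`, closeness to the affine map separate from `Exact` -/
theorem words_coresC {δ κ0 R : ℝ} (hδ : 0 < δ) (hκ : 1 ≤ κ0) (hR : 1 ≤ R) {κb lam0 lam1 : ℝ}
    (hκb : 0 < κb) (hl0 : 0 < lam0) (hl1 : lam1 < 1) (Mx : ℕ) :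
    ∃ κw : ℝ, 0 < κw ∧ ∀ (La Om : Set (Fin 3 → ℝ)), IsOpen La → ∀ (c0 : ℝ)
      (Φ : FoamD δ κ0 R c0 La) (ι : Type) (T : Tiling Om ι) (f : (Fin 3 → ℝ) → Fin 3 → ℝ)
      (κ1 κ2 : ℝ), 0 ≤ κ2 → ∀ (X : Set Φ.F) (ct : Φ.F → ι)
      (A : Φ.F → (Fin 3 → ℝ) ≃ᵃ[ℝ] (Fin 3 → ℝ)) (lam : Φ.F → ℝ) (z : Φ.F → Fin 3 → ℝ)
      (M : Φ.F → ℕ),
      (∀ c ∈ X, Exact Φ T f κ1 κ2 c (ct c) (A c) (lam c) (z c)) →
      (∀ c ∈ X, ∀ x ∈ P (T.H (ct c)), x ∉ interior (P (T.H (ct c))) →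
        ‖f x - A c x‖ ≤ κw * (lam c * c.1.sz)) →
      (∀ c ∈ X, z c = zz c.1 (lam c)) →
      (∀ c ∈ X, 0 < M c ∧ ∀ x ∈ P (T.H (ct c)), x ∉ I (T.H (ct c)) →
        T.cc x = {y | y ∈ P (T.H (ct c)) ∧ ∀ a : Φ.F,
          (⌊M c * sb Φ (th (A c) (lam c) (z c) x) a⌋₊ : ℝ) ≤ M c * sb Φ (th (A c) (lam c) (z c) y) a ∧
          M c * sb Φ (th (A c) (lam c) (z c) y) a ≤ ⌈M c * sb Φ (th (A c) (lam c) (z c) x) a⌉₊} ∧
        T.dim x = {a : Φ.F | ⌊M c * sb Φ (th (A c) (lam c) (z c) x) a⌋₊ <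
          ⌈M c * sb Φ (th (A c) (lam c) (z c) x) a⌉₊}.ncard) →
      (∀ c ∈ X, M c ≤ Mx) → (∀ c ∈ X, lam0 ≤ lam c ∧ lam c ≤ lam1) →
      (∀ c ∈ X, ∀ y ∈ Pc Φ.F c, 3 / 4 * lam c ≤ mu c.1 y → Φ.pu c y = rp c.1 y) →
      (∀ c ∈ X, ∀ e ∈ eIn T (ct c), ∃ (a v : Fin 3 → ℝ) (g : ℝ → ℝ) (y0 : Fin 3 → ℝ) (ε : ℝ),
        e.1 = sgm a v ∧ NearSeg (fun τ => f (a + τ • v)) g y0 ((A c).linear v) ε ∧
        ∫ τ in (0:ℝ)..1, g τ ≤ κw * c.1.sz) →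
      ∃ Bad : Φ.F → Set ℝ, (∀ c', MeasurableSet (Bad c')) ∧
        (∀ c', volume (Bad c') ≤ ENNReal.ofReal κb) ∧
        ∀ L : Φ.F → Finset ℝ, (∀ c', ∀ t ∈ L c', t ∈ Ioo (0 : ℝ) 1 ∧ t ∉ Bad c') →
          Words Φ T f X ct A lam z M L := by
  obtain ⟨κw, hκw, H⟩ := words_all hδ hκ hR hκb hl0 hl1 Mx
  refine ⟨κw, hκw, ?_⟩
  intro La Om hLa c0 Φ ι T f κ1 κ2 hκ2 X ct A lam z M hEx hcl0 hz hgrid hM hlam hpush hed
  have hsz : ∀ c : Φ.F, 0 < c.1.sz := fun c => Bx.sz_pos (Φ.bf.pos _ c.2)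
  -- closeness on the 1-skeleton of the core tiles
  have hcl : ∀ c ∈ X, ∀ x ∈ P (T.H (ct c)), T.dim x ≤ 2 → ‖f x - A c x‖ ≤ κw * c.1.sz := by
    intro c hc x hx hd
    have hE := hEx c hc
    have hl := hE.lam0
    have hl' := hE.lam1
    refine (hcl0 c hc x hx fun hi => not_mem_I_of_dim (T.sub _ hx) hd
        (mem_I_of_interior (T.ne _) hi)).trans (mul_le_mul_of_nonneg_left ?_ hκw.le)
    have := hsz c
    nlinarith
  have hzX : ∀ c ∈ X, ∀ y : Fin 3 → ℝ, th (A c) (lam c) (zz c.1 (lam c)) y =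
      th (A c) (lam c) (z c) y := fun c hc y => by rw [hz c hc]
  have hed' : ∀ c ∈ X, ∀ e ∈ eIn T (ct c), ∃ g : ℝ → ℝ,
      NearSeg (fun τ => f (ea e + τ • ev e)) g (A c (ea e)) (A c (ea e + ev e) - A c (ea e))
        (κw * c.1.sz) ∧ ∫ τ in (0:ℝ)..1, g τ ≤ κw * c.1.sz := by
    intro c hc e he
    obtain ⟨a, v, g, y0, ε, hav, hseg, hg⟩ := hed c hc e he
    have heP : e.1 ⊆ P (T.H (ct c)) := mem_eIn.1 he
    obtain ⟨x, hxO, hd, hex⟩ := e.2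
    -- closeness along the edge
    have hce : ∀ t ∈ Icc (0:ℝ) 1, ‖f (a + t • v) - A c (a + t • v)‖ ≤ κw * c.1.sz := by
      intro t ht
      have hm : a + t • v ∈ e.1 := by rw [hav]; exact ⟨t, ht, rfl⟩
      refine hcl c hc _ (heP hm) ?_
      have : a + t • v ∈ T.cc x := by rw [← hex]; exact hm
      have h1 := T.dim_le this
      omega
    have hA : ∀ t : ℝ, A c (a + t • v) = A c a + t • (A c).linear v := by
      intro t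
      have h1 := (A c).map_vadd a (t • v)
      rw [vadd_eq_add, vadd_eq_add, map_smul] at h1
      rw [add_comm a, h1]
      abel
    have hN : NearSeg (fun τ => f (a + τ • v)) g (A c a) ((A c).linear v) (κw * c.1.sz) :=
      nearSeg_close hseg fun t ht => by
        have := hce t ht
        rw [hA t] at this
        exact this
    rcases edg_sgm hav with ⟨h1, h2⟩ | ⟨h1, h2⟩
    · refine ⟨g, ?_, hg⟩
      have e1 : A c (ea e + ev e) - A c (ea e) = (A c).linear v := by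
        rw [h1, h2]
        have := hA 1
        rw [one_smul, one_smul] at this
        rw [this]; abel
      rw [e1, h1, h2]
      exact hN
    · refine ⟨fun t => g (1 - t), ?_, ?_⟩
      · have hR := nearSeg_rev hN
        have e0 : ea e = a + v := h1
        have e1 : A c (ea e + ev e) - A c (ea e) = -(A c).linear v := by
          rw [h1, h2]
          have := hA 1
          rw [one_smul, one_smul] at this
          rw [this, show a + v + -v = a by abel]; abel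
        have e2 : A c (ea e) = A c a + (A c).linear v := by
          rw [h1]
          have := hA 1
          rw [one_smul, one_smul] at this
          exact this
        have e3 : (fun τ : ℝ => f (ea e + τ • ev e)) = fun t => f (a + (1 - t) • v) := by
          funext t
          congr 1
          rw [h1, h2, sub_smul, one_smul, smul_neg]
          abel
        rw [e1, e2, e3]
        exact hR
      · rw [integral_rev]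
        exact hg
  obtain ⟨Bad, hB1, hB2, hB3⟩ := H La Om hLa c0 Φ ι T f X ct A lam M
    (fun c hc => by simp only [← hz c hc]; exact hgrid c hc) hM hlam hpush
    (fun c hc => by rw [← hz c hc]; exact (hEx c hc).tile)
    (fun c hc x hx hd => hcl c hc x hx (by omega)) hed'
  refine ⟨Bad, hB1, hB2, fun L hL => ?_⟩
  have hW := hB3 L hL
  refine ⟨fun c hc => hgrid c hc, ?_, ?_⟩
  · intro c hc
    have := hW.word c hc
    simp only [← hz c hc] at this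
    exact this
  · intro c hc
    have := hW.sign c hc
    simp only [← hz c hc] at this
    exact this

/-- as `words_good`, closeness separate -/
theorem words_goodC {δ κ0 R : ℝ} (hδ : 0 < δ) (hκ : 1 ≤ κ0) (hR : 1 ≤ R) {κb lam0 lam1 : ℝ}
    (hκb : 0 < κb) (hl0 : 0 < lam0) (hl1 : lam1 < 1) (Mx : ℕ) :
    ∃ κw : ℝ, 0 < κw ∧ ∀ (La Om : Set (Fin 3 → ℝ)), IsOpen La → ∀ (c0 : ℝ)
      (Φ : FoamD δ κ0 R c0 La) (ι : Type) (T : Tiling Om ι) (f : (Fin 3 → ℝ) → Fin 3 → ℝ)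
      (p : ℝ), 1 ≤ p → ContinuousOn f Om → ∀ (D : (Fin 3 → ℝ) → (Fin 3 → ℝ) →L[ℝ] (Fin 3 → ℝ))
      (κ1 κ2 : ℝ), 0 ≤ κ2 → ∀ (X : Set Φ.F) (ct : Φ.F → ι)
      (A : Φ.F → (Fin 3 → ℝ) ≃ᵃ[ℝ] (Fin 3 → ℝ)) (lam : Φ.F → ℝ) (z : Φ.F → Fin 3 → ℝ)
      (M : Φ.F → ℕ),
      (∀ c ∈ X, Exact Φ T f κ1 κ2 c (ct c) (A c) (lam c) (z c)) →
      (∀ c ∈ X, ∀ x ∈ P (T.H (ct c)), x ∉ interior (P (T.H (ct c))) →
        ‖f x - A c x‖ ≤ κw * (lam c * c.1.sz)) →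
      (∀ c ∈ X, z c = zz c.1 (lam c)) →
      (∀ c ∈ X, 0 < M c ∧ ∀ x ∈ P (T.H (ct c)), x ∉ I (T.H (ct c)) →
        T.cc x = {y | y ∈ P (T.H (ct c)) ∧ ∀ a : Φ.F,
          (⌊M c * sb Φ (th (A c) (lam c) (z c) x) a⌋₊ : ℝ) ≤ M c * sb Φ (th (A c) (lam c) (z c) y) a ∧
          M c * sb Φ (th (A c) (lam c) (z c) y) a ≤ ⌈M c * sb Φ (th (A c) (lam c) (z c) x) a⌉₊} ∧
        T.dim x = {a : Φ.F | ⌊M c * sb Φ (th (A c) (lam c) (z c) x) a⌋₊ <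
          ⌈M c * sb Φ (th (A c) (lam c) (z c) x) a⌉₊}.ncard) →
      (∀ c ∈ X, M c ≤ Mx) → (∀ c ∈ X, lam0 ≤ lam c ∧ lam c ≤ lam1) →
      (∀ c ∈ X, ∀ y ∈ Pc Φ.F c, 3 / 4 * lam c ≤ mu c.1 y → Φ.pu c y = rp c.1 y) →
      (∀ c ∈ X, ∃ (K : Type) (A' : (Fin 3 → ℝ) ≃ᵃ[ℝ] (Fin 3 → ℝ)) (x v : K → Fin 3 → ℝ)
        (η : ℝ≥0∞) (w : Fin 3 → ℝ), GoodW p Om f D A' x v η w ∧ η ≠ ∞ ∧
        (η ^ (1 / p)).toReal ≤ κw ∧ (∀ y, (A c).linear y = A'.linear y) ∧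
        ∀ e ∈ eIn T (ct c), ∃ j, e.1 = sgm (x j + w) (v j)) →
      ∃ Bad : Φ.F → Set ℝ, (∀ c', MeasurableSet (Bad c')) ∧
        (∀ c', volume (Bad c') ≤ ENNReal.ofReal κb) ∧
        ∀ L : Φ.F → Finset ℝ, (∀ c', ∀ t ∈ L c', t ∈ Ioo (0 : ℝ) 1 ∧ t ∉ Bad c') →
          Words Φ T f X ct A lam z M L := by
  obtain ⟨κw, hκw, H⟩ := words_coresC hδ hκ hR hκb hl0 hl1 Mx
  refine ⟨κw, hκw, ?_⟩
  intro La Om hLa c0 Φ ι T f p hp hf D κ1 κ2 hκ2 X ct A lam z M hEx hcl hz hgrid hM hlam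
    hpush hgood
  refine H La Om hLa c0 Φ ι T f κ1 κ2 hκ2 X ct A lam z M hEx hcl hz hgrid hM hlam hpush ?_
  intro c hc e he
  obtain ⟨K, A', x, v, η, w, hG, hη, hηw, hlin, hed⟩ := hgood c hc
  obtain ⟨j, hj⟩ := hed e he
  have hE := hEx c hc
  have hsz : 0 < c.1.sz := Bx.sz_pos (Φ.bf.pos _ c.2)
  have heP : e.1 ⊆ P (T.H (ct c)) := mem_eIn.1 he
  have hsub : sgm (x j + w) (v j) ⊆ Om := by
    rw [← hj]; exact heP.trans (T.sub _)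
  -- some bound for the closeness
  have hcpt : IsCompact (sgm (x j + w) (v j)) := by
    rw [sgm_eq_segment, segment_eq_image_lineMap]
    exact isCompact_Icc.image (by fun_prop)
  have hcont : ContinuousOn (fun y => f y - A' y) (sgm (x j + w) (v j)) :=
    (hf.mono hsub).sub (A'.toAffineMap.continuous_of_finiteDimensional.continuousOn)
  obtain ⟨ε, hε⟩ := hcpt.exists_bound_of_continuousOn hcont
  obtain ⟨h1, h2⟩ := hG.nearSeg hp hη hf j hsub hε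
  have hl : lin A' (v j) = (A c).linear (v j) := by
    rw [hlin]; rfl
  refine ⟨x j + w, v j, fun τ => ‖D (x j + w + τ • v j) (v j) - lin A' (v j)‖, A' (x j + w), ε, hj,
    ?_, ?_⟩
  · rw [← hl]; exact h1
  · refine h2.trans ?_
    -- the image of the edge lies in the box
    have hm0 : x j + w ∈ e.1 := by rw [hj]; exact ⟨0, by simp, by simp⟩
    have hm1 : x j + w + v j ∈ e.1 := by rw [hj]; exact ⟨1, by simp, by simp⟩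
    have p0 := heP hm0
    have p1 := heP hm1
    rw [hE.tile] at p0 p1
    have hd : lin A' (v j) = A c (x j + w + v j) - A c (x j + w) := by
      rw [hl]
      have h3 := (A c).map_vadd (x j + w) (v j)
      rw [vadd_eq_add, vadd_eq_add, add_comm (v j)] at h3
      rw [h3]; abel
    have hb : ‖lin A' (v j)‖ ≤ lam c * c.1.sz := by
      rw [hd, pi_norm_le_iff_of_nonneg (mul_pos hE.lam0 hsz).le]
      intro k
      have q0 := p0 k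
      have q1 := p1 k
      have hs : lam c * c.1.side k ≤ lam c * c.1.sz :=
        mul_le_mul_of_nonneg_left (Bx.side_le_sz _ k) hE.lam0.le
      have hs' : lam c * c.1.side k = lam c * c.1.hi k - lam c * c.1.lo k := by
        unfold Bx.side; ring
      rw [Pi.sub_apply, Real.norm_eq_abs, abs_le]
      constructor <;> linarith [q0.1, q0.2, q1.1, q1.2]
    calc (η ^ (1 / p)).toReal * ‖lin A' (v j)‖ ≤ κw * (lam c * c.1.sz) :=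
          mul_le_mul hηw hb (norm_nonneg _) hκw.le
      _ ≤ κw * c.1.sz := by
          refine mul_le_mul_of_nonneg_left ?_ hκw.le
          have := hE.lam1
          nlinarith

/-- as `words_blk_good`, closeness separate -/
theorem words_blk_goodC {δ κ0 R : ℝ} (hδ : 0 < δ) (hκ : 1 ≤ κ0) (hR : 1 ≤ R) {κb lam0 lam1 : ℝ}
    (hκb : 0 < κb) (hl0 : 0 < lam0) (hl1 : lam1 < 1) (Mx : ℕ) :
    ∃ κw : ℝ, 0 < κw ∧ ∀ (La Om : Set (Fin 3 → ℝ)), IsOpen La → ∀ (c0 : ℝ)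
      (Φ : FoamD δ κ0 R c0 La) (ι : Type) (T : Tiling Om ι) (f : (Fin 3 → ℝ) → Fin 3 → ℝ)
      (p : ℝ), 1 ≤ p → ContinuousOn f Om → ∀ (D : (Fin 3 → ℝ) → (Fin 3 → ℝ) →L[ℝ] (Fin 3 → ℝ))
      (κ1 κ2 : ℝ), 0 ≤ κ2 → ∀ (X : Set Φ.F) (ct : Φ.F → ι)
      (A : Φ.F → (Fin 3 → ℝ) ≃ᵃ[ℝ] (Fin 3 → ℝ)) (lam : Φ.F → ℝ) (z : Φ.F → Fin 3 → ℝ)
      (M : Φ.F → ℕ)
      (Q : Φ.F → CB (Fin 3 → ℝ) 3) (k0 : Φ.F → ℕ) (hk : ∀ c, (Q c).kc ≤ k0 c)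
      (A0 : Φ.F → (Fin 3 → ℝ) ≃ᵃ[ℝ] (Fin 3 → ℝ)) (w : Φ.F → Fin 3 → ℝ) (η : ℝ≥0∞),
      (∀ c ∈ X, Exact Φ T f κ1 κ2 c (ct c) (A c) (lam c) (z c)) →
      (∀ c ∈ X, ∀ x ∈ P (T.H (ct c)), x ∉ interior (P (T.H (ct c))) →
        ‖f x - A c x‖ ≤ κw * (lam c * c.1.sz)) →
      (∀ c ∈ X, z c = zz c.1 (lam c)) →
      (∀ c ∈ X, CoreAt T (ct c) ((Q c).tr (w c))) →
      (∀ c ∈ X, ∀ y, A c y = A0 c (y - w c)) →
      (∀ c ∈ X, 0 < M c ∧ ∀ x ∈ (Q c).Kc, x ∉ I (((Q c).T (k0 c) (hk c)).H ((Q c).cix (k0 c) (hk c))) →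
        ((Q c).T (k0 c) (hk c)).cc x = {y | y ∈ (Q c).Kc ∧ ∀ a : Φ.F,
          (⌊M c * sb Φ (th (A0 c) (lam c) (z c) x) a⌋₊ : ℝ) ≤ M c * sb Φ (th (A0 c) (lam c) (z c) y) a ∧
          M c * sb Φ (th (A0 c) (lam c) (z c) y) a ≤ ⌈M c * sb Φ (th (A0 c) (lam c) (z c) x) a⌉₊} ∧
        ((Q c).T (k0 c) (hk c)).dim x = {a : Φ.F | ⌊M c * sb Φ (th (A0 c) (lam c) (z c) x) a⌋₊ <
          ⌈M c * sb Φ (th (A0 c) (lam c) (z c) x) a⌉₊}.ncard) →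
      (∀ c ∈ X, M c ≤ Mx) → (∀ c ∈ X, lam0 ≤ lam c ∧ lam c ≤ lam1) →
      (∀ c ∈ X, ∀ y ∈ Pc Φ.F c, 3 / 4 * lam c ≤ mu c.1 y → Φ.pu c y = rp c.1 y) →
      η ≠ ∞ → (η ^ (1 / p)).toReal ≤ κw →
      (∀ c ∈ X, GoodW p Om f D (A0 c)
        (fun e : {e // e ∈ eIn ((Q c).T (k0 c) (hk c)) ((Q c).cix (k0 c) (hk c))} => ea e.1)
        (fun e => ev e.1) η (w c)) →
      ∃ Bad : Φ.F → Set ℝ, (∀ c', MeasurableSet (Bad c')) ∧
        (∀ c', volume (Bad c') ≤ ENNReal.ofReal κb) ∧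
        ∀ L : Φ.F → Finset ℝ, (∀ c', ∀ t ∈ L c', t ∈ Ioo (0 : ℝ) 1 ∧ t ∉ Bad c') →
          Words Φ T f X ct A lam z M L := by
  obtain ⟨κw, hκw, H⟩ := words_goodC hδ hκ hR hκb hl0 hl1 Mx
  refine ⟨κw, hκw, ?_⟩
  intro La Om hLa c0 Φ ι T f p hp hf D κ1 κ2 hκ2 X ct A lam z M Q k0 hk A0 w η hEx hcl hz
    hcore hA hgrid hM hlam hpush hη hηw hgood
  have hlinA : ∀ c ∈ X, ∀ y, (A c).linear y = (A0 c).linear y := by
    intro c hc y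
    have h1 := (A c).map_vadd 0 y
    have h2 := (A0 c).map_vadd (0 - w c) y
    rw [vadd_eq_add, vadd_eq_add] at h1 h2
    rw [hA c hc, hA c hc, show y + 0 - w c = y + (0 - w c) by abel, h2] at h1
    exact (add_right_cancel h1).symm
  refine H La Om hLa c0 Φ ι T f p hp hf D κ1 κ2 hκ2 X ct A lam z M hEx hcl hz ?_ hM hlam
    hpush ?_
  · intro c hc
    exact ⟨(hgrid c hc).1, (hcore c hc).grid_tr (coreAt_T (Q c) (k0 c) (hk c)) (hA c hc)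
      (hgrid c hc).2⟩
  · intro c hc
    refine ⟨{e // e ∈ eIn ((Q c).T (k0 c) (hk c)) ((Q c).cix (k0 c) (hk c))}, A0 c, _, _, η, w c,
      hgood c hc, hη, hηw, hlinA c hc, fun e he => ?_⟩
    obtain ⟨e', he', h1⟩ := (hcore c hc).edge (coreAt_T (Q c) (k0 c) (hk c)) he
    exact ⟨⟨e', he'⟩, h1⟩

/-- **(B2), `GoodW` form, `Cores` with any `κ1`** -/
theorem b2_goodC {δ κ0 R : ℝ} (hδ : 0 < δ) (hκ : 1 ≤ κ0) (hR : 1 ≤ R) {κp lam0 lam1 : ℝ}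
    (hκp : 0 < κp) (hl0 : 0 < lam0) (hl1 : lam1 < 1) (Mx : ℕ) :
    ∃ κw : ℝ, 0 < κw ∧ ∀ (La Om : Set E3), IsOpen La → ∀ (F : Set (Bx (Fin 3)))
      (bf : BoxFoam La F δ κ0) (cmp : Cmp F R) (c0 : ℝ) (X : Set F) (lam : F → ℝ) (zc : F → E3)
      (H : XD bf c0 X lam zc) (f : E3 → E3) (p : ℝ), 1 ≤ p → ContinuousOn f Om →
      ∀ (D : E3 → E3 →L[ℝ] E3) (κ1 κ2 μ : ℝ), 0 ≤ κ2 → 0 < μ →
      ∀ (Q : X → CB E3 3) (k0 : X → ℕ) (hk : ∀ c, (Q c).kc ≤ k0 c) (A0 : X → E3 ≃ᵃ[ℝ] E3)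
      (w : X → E3) (Mc : X → ℕ) (η : ℝ≥0∞),
      (∀ c ∈ X, lam0 ≤ lam c ∧ lam c ≤ lam1) → (∀ c, Mc c ≤ Mx) →
      (∀ c : X, 0 < Mc c ∧ ∀ x ∈ (Q c).Kc,
        x ∉ I (((Q c).T (k0 c) (hk c)).H ((Q c).cix (k0 c) (hk c))) →
        ((Q c).T (k0 c) (hk c)).cc x = {y | y ∈ (Q c).Kc ∧ ∀ a : F,
          (⌊Mc c * sc (Pc F) (bc (F := F)) (th (A0 c) (lam c) (zz c.1.1 (lam c)) x) a⌋₊ : ℝ) ≤
            Mc c * sc (Pc F) (bc (F := F)) (th (A0 c) (lam c) (zz c.1.1 (lam c)) y) a ∧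
          Mc c * sc (Pc F) (bc (F := F)) (th (A0 c) (lam c) (zz c.1.1 (lam c)) y) a ≤
            ⌈Mc c * sc (Pc F) (bc (F := F)) (th (A0 c) (lam c) (zz c.1.1 (lam c)) x) a⌉₊} ∧
        ((Q c).T (k0 c) (hk c)).dim x = {a : F |
          ⌊Mc c * sc (Pc F) (bc (F := F)) (th (A0 c) (lam c) (zz c.1.1 (lam c)) x) a⌋₊ <
          ⌈Mc c * sc (Pc F) (bc (F := F)) (th (A0 c) (lam c) (zz c.1.1 (lam c)) x) a⌉₊}.ncard) →
      η ≠ ∞ → (η ^ (1 / p)).toReal ≤ κw →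
      (∀ c : X, GoodW p Om f D (A0 c)
        (fun e : {e // e ∈ eIn ((Q c).T (k0 c) (hk c)) ((Q c).cix (k0 c) (hk c))} => ea e.1)
        (fun e => ev e.1) η (w c)) →
      ∀ D0 : Dec Om F, Cores (fX bf cmp H) D0.T f κ1 κ2 X D0.J0 D0.J D0.V D0.ct D0.A D0.lam D0.z
        D0.θ D0.φ →
      (∀ c : X, D0.lam c = lam c ∧ D0.z c = zz c.1.1 (lam c) ∧ D0.A c = trA (A0 c) (w c) ∧
        D0.M c = Mc c ∧ CoreAt D0.T (D0.ct c) ((Q c).tr (w c))) →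
      (∀ c : X, ∀ x ∈ P (D0.T.H (D0.ct c)), x ∉ interior (P (D0.T.H (D0.ct c))) →
        ‖f x - D0.A c x‖ ≤ κw * (lam c * c.1.1.sz)) →
      ∃ Bad : F → Set ℝ, (∀ c, MeasurableSet (Bad c)) ∧
        (∀ c, volume (Bad c ∩ Icc 0 1) ≤ ENNReal.ofReal (κp / 32)) ∧
        ∀ L : F → Finset ℝ, (∀ c, ∀ t ∈ L c, μ ≤ t ∧ t ≤ 1 - μ) →
          (∀ c, ∀ t ∈ L c, t ∉ Bad c) →
            Words (fX bf cmp H) D0.T f X D0.ct D0.A D0.lam D0.z D0.M L := by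
  classical
  obtain ⟨κw, hκw, HH⟩ := words_blk_goodC hδ hκ hR (κb := κp / 32) (by positivity) hl0 hl1 Mx
  refine ⟨κw, hκw, ?_⟩
  intro La Om hLa F bf cmp c0 X lam zc H f p hp hf D κ1 κ2 μ hκ2 hμ Q k0 hk A0 w Mc η hlam hM
    hgrid hη hηw hgood D0 hC hD hclo
  let Q' : F → CB E3 3 := fun c => if h : c ∈ X then Q ⟨c, h⟩ else cb0
  let k0' : F → ℕ := fun c => if h : c ∈ X then k0 ⟨c, h⟩ else cb0.kc
  let A' : F → E3 ≃ᵃ[ℝ] E3 := fun c => if h : c ∈ X then A0 ⟨c, h⟩ else AffineEquiv.refl ℝ E3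
  let w' : F → E3 := fun c => if h : c ∈ X then w ⟨c, h⟩ else 0
  have eQ : ∀ c (h : c ∈ X), Q' c = Q ⟨c, h⟩ := fun c h => dif_pos h
  have ek : ∀ c (h : c ∈ X), k0' c = k0 ⟨c, h⟩ := fun c h => dif_pos h
  have eA : ∀ c (h : c ∈ X), A' c = A0 ⟨c, h⟩ := fun c h => dif_pos h
  have ew : ∀ c (h : c ∈ X), w' c = w ⟨c, h⟩ := fun c h => dif_pos h
  have hk' : ∀ c, (Q' c).kc ≤ k0' c := by
    intro c
    by_cases h : c ∈ X
    · rw [eQ c h, ek c h]; exact hk _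
    · show (if h : c ∈ X then Q ⟨c, h⟩ else cb0).kc ≤ (if h : c ∈ X then k0 ⟨c, h⟩ else cb0.kc)
      rw [dif_neg h, dif_neg h]
  refine words_mok (Φ := fX bf cmp H) hμ ?_
  refine HH La Om hLa _ (fX bf cmp H) D0.ι D0.T f p hp hf D κ1 κ2 hκ2 X D0.ct
    D0.A D0.lam D0.z D0.M Q' k0' hk' A' w' η hC.exact_ ?_ ?_ ?_ ?_ ?_ ?_ ?_ ?_ hη hηw ?_
  · intro c hc x hx hx'
    have h1 := hclo ⟨c, hc⟩ x hx hx'
    rw [(hD ⟨c, hc⟩).1]
    exact h1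
  · intro c hc
    have h1 := hD ⟨c, hc⟩
    rw [h1.2.1, h1.1]
  · intro c hc
    rw [eQ c hc, ew c hc]
    exact (hD ⟨c, hc⟩).2.2.2.2
  · intro c hc y
    rw [eA c hc, ew c hc, (hD ⟨c, hc⟩).2.2.1, trA_apply]
  · intro c hc
    obtain ⟨h1, h2, h3, h4, h5⟩ := hD ⟨c, hc⟩
    have h6 := hgrid ⟨c, hc⟩
    have e1 : D0.M c = Mc ⟨c, hc⟩ := h4
    have e2 : D0.z c = zz c.1 (lam c) := h2
    have e3 : D0.lam c = lam c := h1
    have key : ∀ (Qa : CB E3 3) (ka : ℕ) (ha : Qa.kc ≤ ka) (Aa : E3 ≃ᵃ[ℝ] E3), Qa = Q ⟨c, hc⟩ →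
        ka = k0 ⟨c, hc⟩ → Aa = A0 ⟨c, hc⟩ →
        0 < Mc ⟨c, hc⟩ ∧ ∀ x ∈ Qa.Kc, x ∉ I ((Qa.T ka ha).H (Qa.cix ka ha)) →
        (Qa.T ka ha).cc x = {y | y ∈ Qa.Kc ∧ ∀ a : F,
          (⌊Mc ⟨c, hc⟩ * sc (Pc F) (bc (F := F)) (th Aa (lam c) (zz c.1 (lam c)) x) a⌋₊ : ℝ) ≤
            Mc ⟨c, hc⟩ * sc (Pc F) (bc (F := F)) (th Aa (lam c) (zz c.1 (lam c)) y) a ∧
          Mc ⟨c, hc⟩ * sc (Pc F) (bc (F := F)) (th Aa (lam c) (zz c.1 (lam c)) y) a ≤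
            ⌈Mc ⟨c, hc⟩ * sc (Pc F) (bc (F := F)) (th Aa (lam c) (zz c.1 (lam c)) x) a⌉₊} ∧
        (Qa.T ka ha).dim x = {a : F |
          ⌊Mc ⟨c, hc⟩ * sc (Pc F) (bc (F := F)) (th Aa (lam c) (zz c.1 (lam c)) x) a⌋₊ <
          ⌈Mc ⟨c, hc⟩ * sc (Pc F) (bc (F := F)) (th Aa (lam c) (zz c.1 (lam c)) x) a⌉₊}.ncard := by
      rintro Qa ka ha Aa rfl rfl rfl
      exact h6
    rw [e1, e2, e3]
    exact key (Q' c) (k0' c) (hk' c) (A' c) (eQ c hc) (ek c hc) (eA c hc)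
  · intro c hc
    rw [(hD ⟨c, hc⟩).2.2.2.1]; exact hM _
  · intro c hc
    rw [(hD ⟨c, hc⟩).1]; exact hlam c hc
  · intro c hc
    have e3 : D0.lam c = lam c := (hD ⟨c, hc⟩).1
    rw [e3]
    exact push_fX bf cmp H hc
  · intro c hc
    have key : ∀ (Qa : CB E3 3) (ka : ℕ) (ha : Qa.kc ≤ ka) (Aa : E3 ≃ᵃ[ℝ] E3) (wa : E3),
        Qa = Q ⟨c, hc⟩ → ka = k0 ⟨c, hc⟩ → Aa = A0 ⟨c, hc⟩ → wa = w ⟨c, hc⟩ →
        GoodW p Om f D Aa (fun e : {e // e ∈ eIn (Qa.T ka ha) (Qa.cix ka ha)} => ea e.1)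
          (fun e => ev e.1) η wa := by
      rintro Qa ka ha Aa wa rfl rfl rfl rfl
      exact hgood ⟨c, hc⟩
    exact key (Q' c) (k0' c) (hk' c) (A' c) (w' c) (eQ c hc) (ek c hc) (eA c hc) (ew c hc)

end Crest.Agent.R096.Wd_120
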