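import Crest.Agent.R096.Bpn1_635
import Crest.Agent.R096.Wd20_120

/-!
Row 96 (S0127), NO0 for `p ≥ 3` (helper635): **(B2) of the foam `fN`, C-form** (120's `b2_goodC`: `Cores` at any
`κ1`, closeness `κw` on the boundary of the core tiles only): `b2_anyC` for ANY foam whose push is radial off
the `3/4` cores, `b2_NC` for `fN`.
-/

set_option autoImplicit false
set_option linter.unusedSectionVars false
set_option linter.style.longLine false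
set_option linter.unusedVariables false

open Set Filter Topology Metric MeasureTheory
open scoped ENNReal

namespace Crest.Agent.R096.Bpn_635

open Crest.Agent.R096.Bsp_628 Crest.Agent.R096.Brk1_582
open Crest.Agent.R096.Bxs_627 (zz ctr cb CoriE)
open Crest.Agent.R096.Brk3_582 Crest.Agent.R096.Brk5_582 Crest.Agent.R096.Core_124
open Crest.Agent.R096.Msh_715 Crest.Agent.R096.Ls_222 Crest.Agent.R96.Sg1_199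
open Crest.Agent.R096.SkC1_961 (E3 FoamD Hom3 th)
open Crest.Agent.R096.Mbf_337 (sb Cores Exact Words)
open Crest.Agent.R096.EaX_766 (lin cbx)
open Crest.Agent.R096.Exa_365 (GoodW)
open Crest.Agent.R096.Mal_874 Crest.Agent.R096.Msh_810
open Crest.Agent.R96.Acl_392 (ACLat)
open Crest.Agent.R96.Pm_199 (Dec)
open Crest.Agent.R096.Fns_360 Crest.Agent.R096.Mdd_360
open Crest.Agent.R096.Ea0_961 (cb0)
open Crest.Agent.R096.Wd_120 (mu rp CoreAt words_blk_goodC words_mok)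
open Crest.Agent.R096.Bxc1_635 Crest.Agent.R096.Fnn_635
open Crest.Agent.R96.Eam_466 (FineX FineT)

noncomputable section

/-- **(B2), `GoodW` form, ANY FOAM** whose push is radial off the `3/4` cores (120's `b2_good`;
`Q` = the ORIGINAL blocks, `w` = the total translation) -/
theorem b2_anyC {δ κ0 R : ℝ} (hδ : 0 < δ) (hκ : 1 ≤ κ0) (hR : 1 ≤ R) {κp lam0 lam1 : ℝ}
    (hκp : 0 < κp) (hl0 : 0 < lam0) (hl1 : lam1 < 1) (Mx : ℕ) :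
    ∃ κw : ℝ, 0 < κw ∧ ∀ (La Om : Set E3), IsOpen La → ∀ (c0 : ℝ) (Φ : FoamD δ κ0 R c0 La)
      (X : Set Φ.F) (lam : Φ.F → ℝ),
      (∀ c ∈ X, ∀ y ∈ Pc Φ.F c, 3 / 4 * lam c ≤ mu c.1 y → Φ.pu c y = rp c.1 y) →
      ∀ (f : E3 → E3) (p : ℝ), 1 ≤ p → ContinuousOn f Om →
      ∀ (D : E3 → E3 →L[ℝ] E3) (κ1 κ2 μ : ℝ), 0 ≤ κ2 → 0 < μ →
      ∀ (Q : X → CB E3 3) (k0 : X → ℕ) (hk : ∀ c, (Q c).kc ≤ k0 c) (A0 : X → E3 ≃ᵃ[ℝ] E3)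
      (w : X → E3) (Mc : X → ℕ) (η : ℝ≥0∞),
      (∀ c ∈ X, lam0 ≤ lam c ∧ lam c ≤ lam1) → (∀ c, Mc c ≤ Mx) →
      (∀ c : X, 0 < Mc c ∧ ∀ x ∈ (Q c).Kc,
        x ∉ I (((Q c).T (k0 c) (hk c)).H ((Q c).cix (k0 c) (hk c))) →
        ((Q c).T (k0 c) (hk c)).cc x = {y | y ∈ (Q c).Kc ∧ ∀ a : Φ.F,
          (⌊Mc c * sc (Pc Φ.F) (bc (F := Φ.F)) (th (A0 c) (lam c) (zz c.1.1 (lam c)) x) a⌋₊ : ℝ) ≤
            Mc c * sc (Pc Φ.F) (bc (F := Φ.F)) (th (A0 c) (lam c) (zz c.1.1 (lam c)) y) a ∧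
          Mc c * sc (Pc Φ.F) (bc (F := Φ.F)) (th (A0 c) (lam c) (zz c.1.1 (lam c)) y) a ≤
            ⌈Mc c * sc (Pc Φ.F) (bc (F := Φ.F)) (th (A0 c) (lam c) (zz c.1.1 (lam c)) x) a⌉₊} ∧
        ((Q c).T (k0 c) (hk c)).dim x = {a : Φ.F |
          ⌊Mc c * sc (Pc Φ.F) (bc (F := Φ.F)) (th (A0 c) (lam c) (zz c.1.1 (lam c)) x) a⌋₊ <
          ⌈Mc c * sc (Pc Φ.F) (bc (F := Φ.F)) (th (A0 c) (lam c) (zz c.1.1 (lam c)) x) a⌉₊}.ncard) →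
      η ≠ ∞ → (η ^ (1 / p)).toReal ≤ κw →
      (∀ c : X, GoodW p Om f D (A0 c)
        (fun e : {e // e ∈ eIn ((Q c).T (k0 c) (hk c)) ((Q c).cix (k0 c) (hk c))} => ea e.1)
        (fun e => ev e.1) η (w c)) →
      ∀ D0 : Dec Om Φ.F, Cores Φ D0.T f κ1 κ2 X D0.J0 D0.J D0.V D0.ct D0.A D0.lam D0.z
        D0.θ D0.φ →
      (∀ c : X, D0.lam c = lam c ∧ D0.z c = zz c.1.1 (lam c) ∧ D0.A c = trA (A0 c) (w c) ∧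
        D0.M c = Mc c ∧ CoreAt D0.T (D0.ct c) ((Q c).tr (w c))) →
      (∀ c : X, ∀ x ∈ P (D0.T.H (D0.ct c)), x ∉ interior (P (D0.T.H (D0.ct c))) →
        ‖f x - D0.A c x‖ ≤ κw * (lam c * c.1.1.sz)) →
      ∃ Bad : Φ.F → Set ℝ, (∀ c, MeasurableSet (Bad c)) ∧
        (∀ c, volume (Bad c ∩ Icc 0 1) ≤ ENNReal.ofReal (κp / 32)) ∧
        ∀ L : Φ.F → Finset ℝ, (∀ c, ∀ t ∈ L c, μ ≤ t ∧ t ≤ 1 - μ) →
          (∀ c, ∀ t ∈ L c, t ∉ Bad c) →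
            Words Φ D0.T f X D0.ct D0.A D0.lam D0.z D0.M L := by
  classical
  obtain ⟨κw, hκw, HH⟩ := words_blk_goodC hδ hκ hR (κb := κp / 32) (by positivity) hl0 hl1 Mx
  refine ⟨κw, hκw, ?_⟩
  intro La Om hLa c0 Φ X lam hpush f p hp hf D κ1 κ2 μ hκ2 hμ Q k0 hk A0 w Mc η hlam hM
    hgrid hη hηw hgood D0 hC hD hclo
  let Q' : Φ.F → CB E3 3 := fun c => if h : c ∈ X then Q ⟨c, h⟩ else cb0
  let k0' : Φ.F → ℕ := fun c => if h : c ∈ X then k0 ⟨c, h⟩ else cb0.kc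
  let A' : Φ.F → E3 ≃ᵃ[ℝ] E3 := fun c => if h : c ∈ X then A0 ⟨c, h⟩ else AffineEquiv.refl ℝ E3
  let w' : Φ.F → E3 := fun c => if h : c ∈ X then w ⟨c, h⟩ else 0
  have eQ : ∀ c (h : c ∈ X), Q' c = Q ⟨c, h⟩ := fun c h => dif_pos h
  have ek : ∀ c (h : c ∈ X), k0' c = k0 ⟨c, h⟩ := fun c h => dif_pos h
  have eA : ∀ c (h : c ∈ X), A' c = A0 ⟨c, h⟩ := fun c h => dif_pos h
  have ew : ∀ c (h : c ∈ X), w' c = w ⟨c, h⟩ := fun c h => dif_pos h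
  have hk' : ∀ c, (Q' c).kc ≤ k0' c := by
    intro c
    by_cases h : c ∈ X
    · rw [eQ c h, ek c h]; exact hk _
    · show (if h : c ∈ X then Q ⟨c, h⟩ else cb0).kc ≤ (if h : c ∈ X then k0 ⟨c, h⟩ else cb0.kc)
      rw [dif_neg h, dif_neg h]
  refine words_mok (Φ := Φ) hμ ?_
  refine HH La Om hLa _ Φ D0.ι D0.T f p hp hf D κ1 κ2 hκ2 X D0.ct
    D0.A D0.lam D0.z D0.M Q' k0' hk' A' w' η hC.exact_ ?_ ?_ ?_ ?_ ?_ ?_ ?_ ?_ hη hηw ?_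
  · intro c hc x hx hx'
    have h1 := hclo ⟨c, hc⟩ x hx hx'
    rw [(hD ⟨c, hc⟩).1]
    exact h1
  · intro c hc
    have h1 := hD ⟨c, hc⟩
    rw [h1.2.1, h1.1]
  · intro c hc
    rw [eQ c hc, ew c hc]
    exact (hD ⟨c, hc⟩).2.2.2.2
  · intro c hc y
    rw [eA c hc, ew c hc, (hD ⟨c, hc⟩).2.2.1, trA_apply]
  · intro c hc
    obtain ⟨h1, h2, h3, h4, h5⟩ := hD ⟨c, hc⟩
    have h6 := hgrid ⟨c, hc⟩
    have e1 : D0.M c = Mc ⟨c, hc⟩ := h4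
    have e2 : D0.z c = zz c.1 (lam c) := h2
    have e3 : D0.lam c = lam c := h1
    have key : ∀ (Qa : CB E3 3) (ka : ℕ) (ha : Qa.kc ≤ ka) (Aa : E3 ≃ᵃ[ℝ] E3), Qa = Q ⟨c, hc⟩ →
        ka = k0 ⟨c, hc⟩ → Aa = A0 ⟨c, hc⟩ →
        0 < Mc ⟨c, hc⟩ ∧ ∀ x ∈ Qa.Kc, x ∉ I ((Qa.T ka ha).H (Qa.cix ka ha)) →
        (Qa.T ka ha).cc x = {y | y ∈ Qa.Kc ∧ ∀ a : Φ.F,
          (⌊Mc ⟨c, hc⟩ * sc (Pc Φ.F) (bc (F := Φ.F)) (th Aa (lam c) (zz c.1 (lam c)) x) a⌋₊ : ℝ) ≤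
            Mc ⟨c, hc⟩ * sc (Pc Φ.F) (bc (F := Φ.F)) (th Aa (lam c) (zz c.1 (lam c)) y) a ∧
          Mc ⟨c, hc⟩ * sc (Pc Φ.F) (bc (F := Φ.F)) (th Aa (lam c) (zz c.1 (lam c)) y) a ≤
            ⌈Mc ⟨c, hc⟩ * sc (Pc Φ.F) (bc (F := Φ.F)) (th Aa (lam c) (zz c.1 (lam c)) x) a⌉₊} ∧
        (Qa.T ka ha).dim x = {a : Φ.F |
          ⌊Mc ⟨c, hc⟩ * sc (Pc Φ.F) (bc (F := Φ.F)) (th Aa (lam c) (zz c.1 (lam c)) x) a⌋₊ <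
          ⌈Mc ⟨c, hc⟩ * sc (Pc Φ.F) (bc (F := Φ.F)) (th Aa (lam c) (zz c.1 (lam c)) x) a⌉₊}.ncard := by
      rintro Qa ka ha Aa rfl rfl rfl
      exact h6
    rw [e1, e2, e3]
    exact key (Q' c) (k0' c) (hk' c) (A' c) (eQ c hc) (ek c hc) (eA c hc)
  · intro c hc
    rw [(hD ⟨c, hc⟩).2.2.2.1]; exact hM _
  · intro c hc
    rw [(hD ⟨c, hc⟩).1]; exact hlam c hc
  · intro c hc
    have e3 : D0.lam c = lam c := (hD ⟨c, hc⟩).1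
    rw [e3]
    exact hpush c hc
  · intro c hc
    have key : ∀ (Qa : CB E3 3) (ka : ℕ) (ha : Qa.kc ≤ ka) (Aa : E3 ≃ᵃ[ℝ] E3) (wa : E3),
        Qa = Q ⟨c, hc⟩ → ka = k0 ⟨c, hc⟩ → Aa = A0 ⟨c, hc⟩ → wa = w ⟨c, hc⟩ →
        GoodW p Om f D Aa (fun e : {e // e ∈ eIn (Qa.T ka ha) (Qa.cix ka ha)} => ea e.1)
          (fun e => ev e.1) η wa := by
      rintro Qa ka ha Aa wa rfl rfl rfl rfl
      exact hgood ⟨c, hc⟩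
    exact key (Q' c) (k0' c) (hk' c) (A' c) (w' c) (eQ c hc) (ek c hc) (eA c hc) (ew c hc)

/-- **(B2) for `fN`** (all bricks exact or any `X`), `lam1 = 1 / 4` -/
theorem b2_NC {δ κ0 R : ℝ} (hδ : 0 < δ) (hκ : 1 ≤ κ0) (hR : 1 ≤ R) {κp lam0 : ℝ}
    (hκp : 0 < κp) (hl0 : 0 < lam0) (Mx : ℕ) :
    ∃ κw : ℝ, 0 < κw ∧ ∀ (La Om : Set E3), IsOpen La → ∀ (F : Set (Bx (Fin 3)))
      (bf : BoxFoam La F δ κ0) (cmp : Cmp F R) (c0 : ℝ) (hc : 0 < c0) (hc2 : c0 * (8 * κ0) ≤ 1)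
      (lam : F → ℝ) (hl : ∀ c, 0 < lam c) (hl4 : ∀ c, lam c ≤ 1 / 4), (∀ c, lam0 ≤ lam c) →
      ∀ (X : Set F) (f : E3 → E3) (p : ℝ), 1 ≤ p → ContinuousOn f Om →
      ∀ (D : E3 → E3 →L[ℝ] E3) (κ1 κ2 μ : ℝ), 0 ≤ κ2 → 0 < μ →
      ∀ (Q : X → CB E3 3) (k0 : X → ℕ) (hk : ∀ c, (Q c).kc ≤ k0 c) (A0 : X → E3 ≃ᵃ[ℝ] E3)
      (w : X → E3) (Mc : X → ℕ) (η : ℝ≥0∞), (∀ c, Mc c ≤ Mx) →
      (∀ c : X, 0 < Mc c ∧ ∀ x ∈ (Q c).Kc,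
        x ∉ I (((Q c).T (k0 c) (hk c)).H ((Q c).cix (k0 c) (hk c))) →
        ((Q c).T (k0 c) (hk c)).cc x = {y | y ∈ (Q c).Kc ∧ ∀ a : F,
          (⌊Mc c * sc (Pc F) (bc (F := F)) (th (A0 c) (lam c) (zz c.1.1 (lam c)) x) a⌋₊ : ℝ) ≤
            Mc c * sc (Pc F) (bc (F := F)) (th (A0 c) (lam c) (zz c.1.1 (lam c)) y) a ∧
          Mc c * sc (Pc F) (bc (F := F)) (th (A0 c) (lam c) (zz c.1.1 (lam c)) y) a ≤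
            ⌈Mc c * sc (Pc F) (bc (F := F)) (th (A0 c) (lam c) (zz c.1.1 (lam c)) x) a⌉₊} ∧
        ((Q c).T (k0 c) (hk c)).dim x = {a : F |
          ⌊Mc c * sc (Pc F) (bc (F := F)) (th (A0 c) (lam c) (zz c.1.1 (lam c)) x) a⌋₊ <
          ⌈Mc c * sc (Pc F) (bc (F := F)) (th (A0 c) (lam c) (zz c.1.1 (lam c)) x) a⌉₊}.ncard) →
      η ≠ ∞ → (η ^ (1 / p)).toReal ≤ κw →
      (∀ c : X, GoodW p Om f D (A0 c)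
        (fun e : {e // e ∈ eIn ((Q c).T (k0 c) (hk c)) ((Q c).cix (k0 c) (hk c))} => ea e.1)
        (fun e => ev e.1) η (w c)) →
      ∀ D0 : Dec Om F, Cores (fN bf cmp hκ hc hc2 lam hl hl4) D0.T f κ1 κ2 X D0.J0 D0.J D0.V D0.ct
        D0.A D0.lam D0.z D0.θ D0.φ →
      (∀ c : X, D0.lam c = lam c ∧ D0.z c = zz c.1.1 (lam c) ∧ D0.A c = trA (A0 c) (w c) ∧
        D0.M c = Mc c ∧ CoreAt D0.T (D0.ct c) ((Q c).tr (w c))) →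
      (∀ c : X, ∀ x ∈ P (D0.T.H (D0.ct c)), x ∉ interior (P (D0.T.H (D0.ct c))) →
        ‖f x - D0.A c x‖ ≤ κw * (lam c * c.1.1.sz)) →
      ∃ Bad : F → Set ℝ, (∀ c, MeasurableSet (Bad c)) ∧
        (∀ c, volume (Bad c ∩ Icc 0 1) ≤ ENNReal.ofReal (κp / 32)) ∧
        ∀ L : F → Finset ℝ, (∀ c, ∀ t ∈ L c, μ ≤ t ∧ t ≤ 1 - μ) →
          (∀ c, ∀ t ∈ L c, t ∉ Bad c) →
            Words (fN bf cmp hκ hc hc2 lam hl hl4) D0.T f X D0.ct D0.A D0.lam D0.z D0.M L := by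
  obtain ⟨κw, hκw, H⟩ := b2_anyC hδ hκ hR hκp hl0 (by norm_num : (1 / 4 : ℝ) < 1) Mx
  refine ⟨κw, hκw, ?_⟩
  intro La Om hLa F bf cmp c0 hc hc2 lam hl hl4 hl0' X f p hp hf D κ1 κ2 μ hκ2 hμ Q k0 hk A0 w Mc
    η hM hgrid hη hηw hgood D0 hC hD hclo
  exact H La Om hLa c0 (fN bf cmp hκ hc hc2 lam hl hl4) X lam
    (fun c _ => push_fN bf cmp hκ hc hc2 lam hl hl4 c) f p hp hf D κ1 κ2 μ hκ2 hμ Q k0 hk A0 w Mc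
    η (fun c _ => ⟨hl0' c, hl4 c⟩) hM hgrid hη hηw hgood D0 hC hD hclo

end

end Crest.Agent.R096.Bpn_635
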