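import Crest.Agent.R096.Rg3f_766

/-!
Row 96 (S0127), helper766.  Range `p ≥ 3`, part g: the foam of PREP3 and the cores.
-/

set_option autoImplicit false
set_option linter.unusedSectionVars false
set_option linter.style.longLine false
set_option linter.style.haveILetI false
set_option linter.unusedVariables false

namespace Crest.Agent.R096.Rg3_766

open MeasureTheory Set Filter Topology Metric
open scoped ENNReal NNReal
open Crest.AnalysisR.VecCalc3 Crest.AnalysisR.Sobolev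
open Crest.Agent.R096.SkC1_961 (E3 Hom3)
open Crest.Agent.R096.EaX_766 Crest.Agent.R096.Bsp_628 Crest.Agent.R096.Prep_766
open Crest.Agent.R096.Bxs_627 hiding E3
open Crest.Agent.R096.Er_594
open Crest.Agent.R096.Osc_802 Crest.Agent.R096.VolC2_766 Crest.Agent.R96.Lu_538
open Crest.Agent.R096.ThC6_766 Crest.Agent.R096.Sel_766 Crest.Agent.R096.Toph_766
open Crest.Agent.R96.En10_199
open Crest.Agent.R096.Sk_962 (SH)

noncomputable section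

/-! ### one core -/

lemma core_in {p : ℝ} {Om : Set E3} {f : E3 → E3} {D : E3 → E3 →L[ℝ] E3} {o : E3} {u κ1 κ2 : ℝ}
    {Q : Bx (Fin 3)} {A : E3 ≃ᵃ[ℝ] E3} {lam : ℝ} (h : ExIn p Om f D o u κ1 κ2 Q A lam) (hQ : Q.Pos)
    (asp : ∀ i, Q.sz ≤ 3 * Q.side i) (hl : 0 < lam) (hκ1 : 0 ≤ κ1) (hκ2 : 0 ≤ κ2)
    (hlk : lam * (1 + 6 * κ1) < 1) {x : E3} (hx : x ∈ A ⁻¹' cbx Q lam) :
    x ∈ Om ∧ ∀ k, |f x k - ctr Q k| < Q.side k / 2 := by
  have h1 : A x ∈ cbx Q ((1 + 2 * κ2) * lam) := by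
    apply cbx_mono hQ _ hx
    nlinarith
  obtain ⟨h2, h3⟩ := h.cor x (Or.inr h1)
  refine ⟨h2, fun k => ?_⟩
  have h4 := norm_le_pi_norm (f x - A x) k
  rw [Pi.sub_apply, Real.norm_eq_abs] at h4
  have h5 : |A x k - ctr Q k| ≤ lam * Q.side k / 2 := hx k
  have h6 := abs_sub_le (f x k) (A x k) (ctr Q k)
  have h7 := asp k
  have h8 := Bx.side_pos hQ k
  have h9 : κ1 * (lam * Q.sz) ≤ κ1 * (lam * (3 * Q.side k)) := by gcongr
  have h10 : lam * (1 + 6 * κ1) * Q.side k < 1 * Q.side k := by gcongr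
  linarith

lemma cores_disj {La : Set E3} {F : Set (Bx (Fin 3))} {δ κ0 : ℝ} (BF : BoxFoam La F δ κ0)
    {f : E3 → E3} {c c' : F} (hne : c ≠ c') {x : E3}
    (h1 : ∀ k, |f x k - ctr c.1 k| < c.1.side k / 2)
    (h2 : ∀ k, |f x k - ctr c'.1 k| < c'.1.side k / 2) : False := by
  obtain ⟨k, hk⟩ := BF.inv.disj c.2 c'.2 (BF.pos _ c.2) (BF.pos _ c'.2) (fun h => hne (Subtype.ext h))
  have h3 := abs_lt.1 (h1 k)
  have h4 := abs_lt.1 (h2 k)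
  have h5 := ctr_lo c.1 k
  have h6 := ctr_hi c.1 k
  have h7 := ctr_lo c'.1 k
  have h8 := ctr_hi c'.1 k
  rcases hk with hk | hk <;> linarith [h3.1, h3.2, h4.1, h4.2]

lemma cbx_one {Q : Bx (Fin 3)} {y : E3} (hy : y ∈ Q.set) : y ∈ cbx Q 1 := by
  intro k
  have h1 := Bx.mem_set.1 hy k
  have h2 := ctr_lo Q k
  have h3 := ctr_hi Q k
  rw [abs_le]
  constructor <;> linarith [h1.1, h1.2]

/-! ### volume of a shell -/

lemma shell_vol {Q : Bx (Fin 3)} (hQ : Q.Pos) (A : E3 ≃ᵃ[ℝ] E3) {a b ρ : ℝ} (ha : 0 ≤ a)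
    (hab : a ≤ b) (hρ : 0 ≤ ρ) (h : b ^ 3 ≤ (1 + ρ) * a ^ 3) :
    volume (A ⁻¹' cbx Q b \ A ⁻¹' cbx Q a) ≤ ENNReal.ofReal ρ * volume (A ⁻¹' cbx Q a) := by
  have hw := wA_pos hQ A
  have hb : 0 ≤ b := ha.trans hab
  rw [measure_sdiff (preimage_mono (cbx_mono hQ hab)) (measurable_pre A Q a).nullMeasurableSet
    (by rw [vol_pre hQ A ha]; exact ENNReal.ofReal_ne_top), vol_pre hQ A ha, vol_pre hQ A hb,
    ← ENNReal.ofReal_sub _ (by positivity), ← ENNReal.ofReal_mul hρ]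
  apply ENNReal.ofReal_le_ofReal
  have h1 : b ^ 3 * wA Q A ≤ (1 + ρ) * a ^ 3 * wA Q A := by gcongr
  linarith

lemma numbers {ρ : ℝ} (hρ : 0 < ρ) (hρ1 : ρ ≤ 1) :
    ∃ q : ℚ, (0 : ℝ) < q ∧ (q : ℝ) ≤ 1 / 1001 ∧ ((1 : ℝ) - q)⁻¹ - 1 ≤ ρ ∧
      ∀ k : ℝ, 0 ≤ k → k ≤ 1 / 20000 → k ≤ ρ / 1000 →
        (1 + 24 * k) ^ 3 ≤ (1 + ρ) * (1 - (q : ℝ)) ^ 3 ∧
        1 + 24 * k ≤ (1 + 2 * (1 / 720)) * (1 - (q : ℝ)) := by
  obtain ⟨q, hq0, hq1⟩ := exists_rat_btwn (show (0 : ℝ) < min (ρ / 8) (1 / 1001) from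
    lt_min (by positivity) (by norm_num))
  have hq2 : (q : ℝ) ≤ ρ / 8 := hq1.le.trans (min_le_left _ _)
  have hq3 : (q : ℝ) ≤ 1 / 1001 := hq1.le.trans (min_le_right _ _)
  refine ⟨q, hq0, hq3, ?_, ?_⟩
  · have h1 : (0 : ℝ) < 1 - q := by linarith
    rw [sub_le_iff_le_add, inv_le_comm₀ h1 (by linarith), inv_le_iff_one_le_mul₀ (by linarith)]
    nlinarith
  · intro k hk0 hk1 hk2
    constructor
    · have h1 : (1 + 24 * k) ^ 3 ≤ (1 + ρ / 40) ^ 3 := by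
        gcongr
        linarith
      have h2 : (1 + ρ / 40) ^ 3 ≤ 1 + ρ / 4 := by nlinarith [sq_nonneg ρ]
      have h3 : (1 - ρ / 8) ^ 3 ≤ (1 - (q : ℝ)) ^ 3 := by
        apply pow_le_pow_left₀ (by linarith)
        linarith
      have h4 : 1 - 3 * ρ / 8 ≤ (1 - ρ / 8) ^ 3 := by nlinarith [sq_nonneg ρ]
      have h5 : 1 + ρ / 4 ≤ (1 + ρ) * (1 - 3 * ρ / 8) := by nlinarith
      calc (1 + 24 * k) ^ 3 ≤ (1 + ρ) * (1 - 3 * ρ / 8) := by linarith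
        _ ≤ (1 + ρ) * (1 - (q : ℝ)) ^ 3 := by gcongr; linarith
    · nlinarith

/-! ### the derivative of `Th ∘ f` -/

lemma D3_le {G G' : Fin 3 → R3 → R3} {K : ℝ≥0} {x : E3}
    (h : ∀ v, ‖Gmat G' (P3 x) v‖ ≤ K * ‖Gmat G (P3 x) v‖) : ‖D3 G' x‖ ≤ 2 * K * ‖D3 G x‖ := by
  refine ContinuousLinearMap.opNorm_le_bound _ (by positivity) fun v => ?_
  have h1 : D3 G' x v = P3.symm (Gmat G' (P3 x) (P3 v)) := rfl
  have h2 : D3 G x v = P3.symm (Gmat G (P3 x) (P3 v)) := rfl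
  calc ‖D3 G' x v‖ = ‖P3.symm (Gmat G' (P3 x) (P3 v))‖ := by rw [h1]
    _ ≤ ‖Gmat G' (P3 x) (P3 v)‖ := Er_594.norm_P3_symm_le _
    _ ≤ K * ‖Gmat G (P3 x) (P3 v)‖ := h _
    _ ≤ K * (2 * ‖P3.symm (Gmat G (P3 x) (P3 v))‖) := by
        gcongr
        exact Er_594.norm_le_P3_symm _
    _ = 2 * K * ‖D3 G x v‖ := by rw [h2]; ring
    _ ≤ 2 * K * (‖D3 G x‖ * ‖v‖) := by
        gcongr
        exact (D3 G x).le_opNorm v
    _ = 2 * K * ‖D3 G x‖ * ‖v‖ := by ring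

lemma ae_P3' {q : R3 → Prop} (h : ∀ᵐ y, q y) : ∀ᵐ x : E3, q (P3 x) := by
  have h1 : ∀ᵐ y ∂((volume : Measure R3).restrict univ), q y := by rwa [Measure.restrict_univ]
  have h2 := ae_P3.1 h1
  rwa [preimage_univ, Measure.restrict_univ] at h2

lemma D_le {p : ℝ} (hp : 3 ≤ p) {Ω Λ : Set R3} (hΩ : IsOpen Ω) (hΛ : IsOpen Λ) {f : R3 → R3}
    {G G' : Fin 3 → R3 → R3} (h : SH p Ω Λ f G) {Th : R3 → R3}
    (hTh : ∀ y y', ‖Th y - Th y'‖ ≤ 25 / 2 * ‖y - y'‖) (h' : SH p Ω Λ (fun x => Th (f x)) G') :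
    ∀ᵐ x : E3, x ∈ P3 ⁻¹' Ω → ‖D3 G' x‖ₑ ^ p ≤ 25 ^ p * ‖D3 G x‖ₑ ^ p := by
  have hL : LipschitzOnWith (25 / 2 : ℝ≥0) Th Λ := by
    apply LipschitzOnWith.of_dist_le_mul
    intro y _ y' _
    rw [dist_eq_norm, dist_eq_norm]
    refine (hTh y y').trans (le_of_eq ?_)
    push_cast
    rfl
  have h1 := Dz_466.gmat_comp_le (by linarith) hΩ hΛ hΛ h hL h'
  filter_upwards [ae_P3' h1] with x hx hxΩ
  have h2 := D3_le (hx hxΩ)
  rw [← ENNReal.mul_rpow_of_nonneg _ _ (by linarith : (0 : ℝ) ≤ p)]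
  apply ENNReal.rpow_le_rpow _ (by linarith)
  rw [← ofReal_norm, ← ofReal_norm]
  refine (ENNReal.ofReal_le_ofReal h2).trans (le_of_eq ?_)
  rw [ENNReal.ofReal_mul (by positivity)]
  congr 1
  push_cast
  norm_num

/-! ### PREP3 -/

variable {Ω Λ : Set R3} {f : R3 → R3} {G G' : Fin 3 → R3 → R3} {p κ1' : ℝ}
  {F : Set (Bx (Fin 3))} {Th : R3 ≃ₜ R3} {μ κ δ : R3 → ℝ} {O : Set R3} {ξ yc : F → R3}
  {hξ : ∀ c, ξ c ∈ EE Ω f G p μ κ δ} {hm : ∀ c, 0 < μ (ξ c)}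

/-- `D = D0` over good bricks -/
lemma eq_on_good (hΩ : IsOpen Ω)
    (P : Pre3 p Ω Λ f G (1 / 2) κ1' 0 F Th G' μ κ δ O ξ yc hξ hm) (hf : ContinuousOn f Ω)
    {c : F} (hTh : ∀ y : R3, P3.symm y ∈ nb c.1 (1 / 180 * c.1.sz) → Th y = y) :
    ∀ᵐ x : E3, x ∈ P3 ⁻¹' Ω → e3 (fun x => Th (f x)) x ∈ cbx c.1 1 → D3 G' x = D3 G x := by
  have hpos := P.foam.pos _ c.2
  have hs := Bx.sz_pos hpos
  set V : Set R3 := {y : R3 | ∀ k, |P3.symm y k - ctr c.1 k| < c.1.side k / 2 + 1 / 180 * c.1.sz} with hV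
  set U : Set R3 := Ω ∩ f ⁻¹' V with hU
  have hUo : IsOpen U := hf.isOpen_inter_preimage hΩ (isOpen_box _ _)
  have hVn : ∀ y ∈ V, Th y = y := fun y hy => hTh y fun k => (hy k).le
  have h1 := P.trans U 0 hUo inter_subset_left (fun x hx => by rw [hVn _ hx.2, add_zero])
  filter_upwards [ae_P3' h1] with x hx hxΩ hxc
  have h2 : Th (f (P3 x)) ∈ V := by
    intro k
    have h3 : |P3.symm (Th (f (P3 x))) k - ctr c.1 k| ≤ 1 * c.1.side k / 2 := hxc k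
    have h4 : 0 < 1 / 180 * c.1.sz := by positivity
    linarith
  have h3 : f (P3 x) = Th (f (P3 x)) := (Th.injective (hVn _ h2)).symm
  have h4 : P3 x ∈ U := ⟨hxΩ, by rw [mem_preimage, h3]; exact h2⟩
  rw [D3_eq, D3_eq]
  congr 1
  funext j
  exact hx h4 j

/-- **cover**: off the bad region, `Th = id` and the brick is good -/
lemma cover (P : Pre3 p Ω Λ f G (1 / 2) κ1' 0 F Th G' μ κ δ O ξ yc hξ hm) {y : R3} (hy : y ∈ Λ)
    (hyB : y ∉ BadR F O) : Th y = y ∧ ∃ c : F, c ∉ BadE F O ∧ P3.symm y ∈ c.1.set := by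
  have hyP : P3.symm y ∈ P3 ⁻¹' Λ := by
    rw [mem_preimage, P3.apply_symm_apply]; exact hy
  obtain ⟨C, hC, hyC⟩ := P.foam.cov _ hyP
  have hbad : ∀ c ∈ BadE F O, 4 * c.1.sz < ‖y - P3 (ctr c.1)‖ := by
    intro c hc
    by_contra hcon
    push Not at hcon
    exact hyB (mem_iUnion₂.2 ⟨c, hc, by rw [mem_closedBall, dist_eq_norm]; exact hcon⟩)
  have hCB : (⟨C, hC⟩ : F) ∉ BadE F O := by
    intro h
    have h1 := hbad _ h
    have h2 := norm_sub_ctr (P.foam.pos _ hC) hyC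
    have h3 := Bx.sz_pos (P.foam.pos _ hC)
    have h4 : 4 * C.sz < ‖y - P3 (ctr C)‖ := h1
    linarith
  refine ⟨P.id_good y ?_ ?_, ⟨C, hC⟩, hCB, hyC⟩
  · intro hyO
    exact hCB (bdB_subset_badE P.foam O ⟨y, hyO, hyC⟩)
  · intro c hc
    have h1 := hbad c (bdB_subset_badE P.foam O hc)
    have h3 := Bx.sz_pos (P.foam.pos _ c.2)
    have h4 : rad 3 c.1 = c.1.sz / 24 := by unfold rad; norm_num
    rw [h4]
    linarith

end

end Crest.Agent.R096.Rg3_766
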