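import Crest.Agent.R096.Ins3_685
import Crest.Agent.R096.Acc2_365
import Crest.Agent.R096.Rg3g_766

/-!
Row 96 (S0127), p ≤ 2, helper685.  **[ERS]**: the sums of the accounting of (R3).

* `lint_D3_le` : `1 + ‖D3 G‖^p` against `1 + En p G`;
* `cross` : a segment from inside to outside meets the frontier;
* `N_diff`, `outside_le`, `layers_le` : block and layer at the rational position against the position `a`;
* `shell_le`, `shell_sum`, `er_sum` : volumes of the shells;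
* `core_energy'` : energy on the cores with extra terms.
-/

set_option autoImplicit false
set_option linter.style.longLine false
set_option linter.unusedSectionVars false
set_option linter.unusedVariables false

open MeasureTheory Set Filter Topology Metric
open scoped ENNReal NNReal

namespace Crest.Agent.R096.Ers_685

open Crest.AnalysisR.VecCalc3 Crest.AnalysisR.Sobolev
open Crest.Agent.R096.Bsp_628 Crest.Agent.R096.Brk1_582 Crest.Agent.R096.Brk3_582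
open Crest.Agent.R096.Msh_715 Crest.Agent.R096.Mal_874
open Crest.Agent.R096.SkC1_961 (E3 Hom3)
open Crest.Agent.R096.Er_594 (e3 D3 norm_P3_symm_le norm_P3_le norm_le_P3 norm_le_P3_symm vol_P3
  lint_P3 le_sum_row row_D3)
open Crest.Agent.R096.EaX_766 (cbx lin)
open Crest.Agent.R096.Br_695 (lin_apply det_le cbx_mono En)
open Crest.Agent.R96.Lu_538 (Gmat)
open Crest.Agent.R96.En10_199 (P3)
open Crest.Agent.R096.Tmap_212 (mp)

noncomputable section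

/-! ### `E3` against `R3` -/

theorem lint_D3_le {p : ℝ} (hp : 0 < p) (G : Fin 3 → R3 → R3) (S : Set R3) :
    ∫⁻ x in P3 ⁻¹' S, (1 + ‖D3 G x‖ₑ ^ p) ≤ 2 ^ p * ∫⁻ y in S, (1 + En p G y) := by
  have h2p : (2:ℝ≥0∞) ^ p ≠ ∞ := ENNReal.rpow_ne_top_of_nonneg hp.le (by norm_num)
  rw [lint_P3, ← lintegral_const_mul' _ _ h2p]
  apply lintegral_mono
  intro x
  change 1 + ‖D3 G x‖ₑ ^ p ≤ 2 ^ p * (1 + ∑ j, ‖G j (P3 x)‖ₑ ^ p)
  rw [mul_add]
  have h4 := le_sum_row (D3 G x) hp.le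
  simp only [row_D3] at h4
  gcongr
  rw [mul_one]
  exact ENNReal.one_le_rpow (by norm_num) hp

/-- a segment from inside to outside meets the frontier -/
theorem cross {E : Type*} [NormedAddCommGroup E] [NormedSpace ℝ E] {S : Set E} {x v : E}
    (hx : x ∈ S) (hy : x - v ∉ S) : ∃ t ∈ Icc (0:ℝ) 1, x - t • v ∈ frontier S := by
  by_contra hcon
  push Not at hcon
  have hseg : segment ℝ x (x - v) ⊆ interior S ∪ (closure S)ᶜ := by
    intro z hz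
    rw [segment_eq_image'] at hz
    obtain ⟨t, ht, rfl⟩ := hz
    have h1 := hcon t ht
    have e : x + t • (x - v - x) = x - t • v := by
      rw [sub_sub_cancel_left, smul_neg, ← sub_eq_add_neg]
    simp only [e]
    by_cases h2 : x - t • v ∈ closure S
    · left
      by_contra h3
      exact h1 ⟨h2, h3⟩
    · exact Or.inr h2
  have hx1 : x ∈ segment ℝ x (x - v) := left_mem_segment ℝ _ _
  have hy1 : x - v ∈ segment ℝ x (x - v) := right_mem_segment ℝ _ _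
  have hxi : x ∈ interior S := by
    rcases hseg hx1 with h | h
    · exact h
    · exact absurd (subset_closure hx) h
  have hyi : x - v ∈ (closure S)ᶜ := by
    rcases hseg hy1 with h | h
    · exact absurd (interior_subset h) hy
    · exact h
  obtain ⟨z, -, h1, h2⟩ := (convex_segment x (x - v)).isPreconnected _ _ isOpen_interior
    isClosed_closure.isOpen_compl hseg ⟨x, hx1, hxi⟩ ⟨x - v, hy1, hyi⟩
  exact h2 (interior_subset_closure h1)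

/-- the block at two positions: in `R3` -/
theorem N_diff (Q : CB E3 3) (k0 : ℕ) (a : R3) (v : E3) (hv : ‖Q.ψ v‖ ≤ 40 / 2 ^ k0) {x : E3}
    (hx : P3 x ∈ ((mp P3 Q).tr a).N) (hx' : x ∉ (Q.tr (P3.symm a + v)).N) :
    P3 x ∈ Pin_753.Ly ((mp P3 Q).tr a) k0 := by
  have h1 : P3 x - P3 v ∉ ((mp P3 Q).tr a).N := by
    intro h
    apply hx'
    rw [(mp P3 Q).mem_N_tr a, Tmap_212.mem_N_mp] at h
    rw [Q.mem_N_tr]
    have e : P3.symm (P3 x - P3 v - a) = x - (P3.symm a + v) := by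
      rw [map_sub, map_sub, P3.symm_apply_apply, P3.symm_apply_apply]
      abel
    rwa [e] at h
  obtain ⟨t, ht, h2⟩ := cross hx h1
  refine ⟨_, h2, ?_⟩
  have e : ((mp P3 Q).tr a).ψ (P3 x) - ((mp P3 Q).tr a).ψ (P3 x - t • P3 v) = t • Q.ψ v := by
    show Q.ψ (P3.symm (P3 x)) - Q.ψ (P3.symm (P3 x - t • P3 v)) = _
    rw [map_sub P3.symm, map_smul P3.symm, P3.symm_apply_apply, P3.symm_apply_apply, map_sub,
      map_smul]
    abel
  rw [e, norm_smul, Real.norm_eq_abs, abs_of_nonneg ht.1]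
  calc t * ‖Q.ψ v‖ ≤ 1 * ‖Q.ψ v‖ := mul_le_mul_of_nonneg_right ht.2 (norm_nonneg _)
    _ = ‖Q.ψ v‖ := one_mul _
    _ ≤ _ := hv

/-- **outside**: the blocks at the rational positions `P3.symm a + v i` against the blocks at `a` -/
theorem outside_le {p : ℝ} (hp : 0 < p) {Om : Set R3} {G : Fin 3 → R3 → R3} {ι : Type*}
    [Countable ι] (Q : ι → CB E3 3) (k0 : ι → ℕ) (a : R3) (v : ι → E3)
    (hv : ∀ i, ‖(Q i).ψ (v i)‖ ≤ 40 / 2 ^ k0 i) :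
    ∫⁻ x in P3 ⁻¹' Om \ ⋃ i, ((Q i).tr (P3.symm a + v i)).N, (1 + ‖D3 G x‖ₑ ^ p) ≤
      2 ^ p * (∫⁻ x in Om \ ⋃ i, ((mp P3 (Q i)).tr a).N, (1 + En p G x)) +
      2 ^ p * ∑' i, ∫⁻ x in Pin_753.Ly ((mp P3 (Q i)).tr a) (k0 i), (1 + En p G x) := by
  have hsub : P3 ⁻¹' Om \ ⋃ i, ((Q i).tr (P3.symm a + v i)).N ⊆
      P3 ⁻¹' ((Om \ ⋃ i, ((mp P3 (Q i)).tr a).N) ∪
        ⋃ i, Pin_753.Ly ((mp P3 (Q i)).tr a) (k0 i)) := by
    rintro x ⟨hx, hxn⟩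
    by_cases h : P3 x ∈ ⋃ i, ((mp P3 (Q i)).tr a).N
    · obtain ⟨i, hi⟩ := mem_iUnion.1 h
      refine Or.inr (mem_iUnion.2 ⟨i, N_diff (Q i) (k0 i) a (v i) (hv i) hi fun h' => ?_⟩)
      exact hxn (mem_iUnion.2 ⟨i, h'⟩)
    · exact Or.inl ⟨hx, h⟩
  calc ∫⁻ x in P3 ⁻¹' Om \ ⋃ i, ((Q i).tr (P3.symm a + v i)).N, (1 + ‖D3 G x‖ₑ ^ p)
      ≤ ∫⁻ x in P3 ⁻¹' ((Om \ ⋃ i, ((mp P3 (Q i)).tr a).N) ∪
        ⋃ i, Pin_753.Ly ((mp P3 (Q i)).tr a) (k0 i)), (1 + ‖D3 G x‖ₑ ^ p) := lintegral_mono_set hsub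
    _ ≤ 2 ^ p * ∫⁻ x in (Om \ ⋃ i, ((mp P3 (Q i)).tr a).N) ∪
        ⋃ i, Pin_753.Ly ((mp P3 (Q i)).tr a) (k0 i), (1 + En p G x) := lint_D3_le hp G _
    _ ≤ 2 ^ p * ((∫⁻ x in Om \ ⋃ i, ((mp P3 (Q i)).tr a).N, (1 + En p G x)) +
        ∑' i, ∫⁻ x in Pin_753.Ly ((mp P3 (Q i)).tr a) (k0 i), (1 + En p G x)) := by
        gcongr
        exact (lintegral_union_le _ _ _).trans (add_le_add le_rfl (lintegral_iUnion_le _ _))
    _ = _ := mul_add _ _ _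

/-- **the layers**: `Ea0_961.Ly` at the rational positions against `Pin_753.Ly` at `a` -/
theorem layers_le {p : ℝ} (hp : 0 < p) {G : Fin 3 → R3 → R3} {ι : Type*} (Q : ι → CB E3 3)
    (k0 : ι → ℕ) (a : R3) (v : ι → E3) (hv : ∀ i, ‖(Q i).ψ (v i)‖ ≤ 20 / 2 ^ k0 i) :
    ∑' i, ∫⁻ x in Ea0_961.Ly ((Q i).tr (P3.symm a + v i)) (k0 i), (1 + ‖D3 G x‖ₑ ^ p) ≤
      2 ^ p * ∑' i, ∫⁻ x in Pin_753.Ly ((mp P3 (Q i)).tr a) (k0 i), (1 + En p G x) := by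
  rw [← ENNReal.tsum_mul_left]
  refine ENNReal.tsum_le_tsum fun i => ?_
  refine le_trans (lintegral_mono_set ?_) (lint_D3_le hp G _)
  intro y hy
  have := Tmap_212.ly_sub (Q i) (k0 i) (v := P3.symm a) hy (by
    rw [add_sub_cancel_left]; exact hv i)
  rwa [P3.apply_symm_apply] at this

/-! ### shells -/

/-- the shell of a block is thin -/
theorem shell_le {c : Bx (Fin 3)} (hc : c.Pos) {A : E3 ≃ᵃ[ℝ] E3} {lam : ℝ} (h0 : 1 / 4 ≤ lam)
    (h1 : lam ≤ 1) {Q : CB E3 3} (core : Q.Kc = A ⁻¹' cbx c lam)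
    (sub : ∀ x ∈ Q.N, A x ∈ cbx c ((1 + lam) / 2)) :
    volume (Q.N \ Q.Kc) ≤ ENNReal.ofReal (100 * (1 - lam)) * volume Q.Kc := by
  have h2 : Q.N \ Q.Kc ⊆ A ⁻¹' cbx c ((1 + lam) / 2) \ A ⁻¹' cbx c lam := by
    rw [core]
    exact sdiff_subset_sdiff_left fun x hx => sub x hx
  refine (measure_mono h2).trans ?_
  rw [core]
  refine Rg3_766.shell_vol hc A (by linarith) (by linarith) (by linarith) ?_
  have hx : 0 ≤ 1 - lam := by linarith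
  set e := 1 - lam with he
  have hl : lam = 1 - e := by rw [he]; ring
  have he1 : e ≤ 3 / 4 := by linarith
  rw [hl]
  have h3 : ((1 + (1 - e)) / 2) ^ 3 = (1 - e) ^ 3 + e / 2 * (((1 + (1 - e)) / 2) ^ 2 +
      (1 + (1 - e)) / 2 * (1 - e) + (1 - e) ^ 2) := by ring
  rw [h3]
  have h4 : ((1 + (1 - e)) / 2) ^ 2 + (1 + (1 - e)) / 2 * (1 - e) + (1 - e) ^ 2 ≤ 3 := by
    nlinarith
  have h5 : (1 / 64 : ℝ) ≤ (1 - e) ^ 3 := by
    have : (1 / 4 : ℝ) ^ 3 ≤ (1 - e) ^ 3 := pow_le_pow_left₀ (by norm_num) (by linarith) 3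
    linarith
  have h6 : e / 2 * (((1 + (1 - e)) / 2) ^ 2 + (1 + (1 - e)) / 2 * (1 - e) + (1 - e) ^ 2) ≤
      e / 2 * 3 := mul_le_mul_of_nonneg_left h4 (by linarith)
  have h7 : 100 * e * (1 / 64) ≤ 100 * e * (1 - e) ^ 3 :=
    mul_le_mul_of_nonneg_left h5 (by linarith)
  nlinarith

/-- sum of the terms of the shells -/
theorem shell_sum {p : ℝ} (hp : 0 ≤ p) {ι : Type*} {l : ι → E3 →L[ℝ] E3} {N : ℝ}
    (hN : ∀ i, ‖l i‖ ≤ N) {S K : ι → Set E3} {q V : ℝ} (hq : 0 ≤ q) (hV0 : 0 ≤ V)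
    (hN0 : 0 ≤ N)
    (hS : ∀ i, volume (S i) ≤ ENNReal.ofReal q * volume (K i))
    (hV : ∑' i, volume (K i) ≤ ENNReal.ofReal V) :
    ∑' i, (1 + ‖l i‖ₑ ^ p) * volume (S i) ≤ ENNReal.ofReal ((1 + N ^ p) * q * V) := by
  calc ∑' i, (1 + ‖l i‖ₑ ^ p) * volume (S i)
      ≤ ∑' i, ENNReal.ofReal ((1 + N ^ p) * q) * volume (K i) := by
        refine ENNReal.tsum_le_tsum fun i => ?_
        rw [ENNReal.ofReal_mul (by positivity), mul_assoc]
        gcongr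
        · rw [ENNReal.ofReal_add (by norm_num) (by positivity), ENNReal.ofReal_one]
          gcongr
          rw [← ofReal_norm, ENNReal.ofReal_rpow_of_nonneg (norm_nonneg _) hp]
          exact ENNReal.ofReal_le_ofReal (Real.rpow_le_rpow (norm_nonneg _) (hN i) hp)
        · exact hS i
    _ = ENNReal.ofReal ((1 + N ^ p) * q) * ∑' i, volume (K i) := ENNReal.tsum_mul_left
    _ ≤ ENNReal.ofReal ((1 + N ^ p) * q) * ENNReal.ofReal V := by gcongr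
    _ = _ := (ENNReal.ofReal_mul (by positivity)).symm

/-- sum of the errors `er''` of `ins` -/
theorem er_sum {p : ℝ} (hp : 0 ≤ p) {ι : Type*} {nL : ι → ℝ} {C1 κ : ℝ} (hκ : 0 < κ)
    (hC1 : 0 ≤ C1) (hn0 : ∀ i, 0 ≤ nL i) (hn : ∀ i, nL i ≤ κ⁻¹) {S K : ι → Set E3} {q V e : ℝ}
    (hq : 0 ≤ q) (hV0 : 0 ≤ V) (he : 0 ≤ e) {er : ι → ℝ≥0∞}
    (hS : ∀ i, volume (S i) ≤ ENNReal.ofReal q * volume (K i))
    (hV : ∑' i, volume (K i) ≤ ENNReal.ofReal V) (her : ∑' i, er i ≤ ENNReal.ofReal e) :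
    ∑' i, 1000 * (ENNReal.ofReal (C1 * nL i ^ p) * volume (S i) + er i) ≤
      ENNReal.ofReal (1000 * (C1 * κ⁻¹ ^ p * q * V + e)) := by
  rw [ENNReal.tsum_mul_left, ENNReal.tsum_add]
  have h1 : ∑' i, ENNReal.ofReal (C1 * nL i ^ p) * volume (S i) ≤
      ENNReal.ofReal (C1 * κ⁻¹ ^ p * q * V) := by
    calc ∑' i, ENNReal.ofReal (C1 * nL i ^ p) * volume (S i)
        ≤ ∑' i, ENNReal.ofReal (C1 * κ⁻¹ ^ p * q) * volume (K i) := by
          refine ENNReal.tsum_le_tsum fun i => ?_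
          rw [ENNReal.ofReal_mul (by positivity : 0 ≤ C1 * κ⁻¹ ^ p), mul_assoc]
          refine mul_le_mul' (ENNReal.ofReal_le_ofReal ?_) (hS i)
          exact mul_le_mul_of_nonneg_left (Real.rpow_le_rpow (hn0 i) (hn i) hp) hC1
      _ = ENNReal.ofReal (C1 * κ⁻¹ ^ p * q) * ∑' i, volume (K i) := ENNReal.tsum_mul_left
      _ ≤ ENNReal.ofReal (C1 * κ⁻¹ ^ p * q) * ENNReal.ofReal V := by gcongr
      _ = _ := (ENNReal.ofReal_mul (by positivity)).symm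
  have h3 : (1000 : ℝ≥0∞) = ENNReal.ofReal 1000 := by simp
  rw [h3, ENNReal.ofReal_mul (by norm_num), ENNReal.ofReal_add (by positivity) he]
  gcongr

/-! ### the cores -/

/-- outside the cores `Ka` against outside the cores `Kb` -/
theorem core_swap {E ι : Type*} [MeasurableSpace E] [Countable ι] {μ : Measure E} {Om : Set E}
    {Ka Kb : ι → Set E} (F : E → ℝ≥0∞) :
    ∫⁻ x in Om \ ⋃ i, Ka i, F x ∂μ ≤ (∫⁻ x in Om \ ⋃ i, Kb i, F x ∂μ) +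
      ∫⁻ x in ⋃ i, (Kb i \ Ka i) ∩ Om, F x ∂μ := by
  refine le_trans (lintegral_mono_set ?_) (lintegral_union_le _ _ _)
  rintro x ⟨hx, hn⟩
  by_cases h : x ∈ ⋃ i, Kb i
  · obtain ⟨i, hi⟩ := mem_iUnion.1 h
    exact Or.inr (mem_iUnion.2 ⟨i, ⟨hi, fun h' => hn (mem_iUnion.2 ⟨i, h'⟩)⟩, hx⟩)
  · exact Or.inl ⟨hx, h⟩

/-- energy on the cores, with extra terms -/
theorem core_energy' {p : ℝ} (hp : 1 ≤ p) {ι : Type*} [Countable ι] {Om : Set E3}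
    {D : E3 → E3 →L[ℝ] E3} (hD : AEStronglyMeasurable D (volume.restrict Om)) {g : E3 → E3}
    {K : ι → Set E3} (hKO : ∀ i, K i ⊆ Om) {l : ι → E3 →L[ℝ] E3} {N : ℝ} (hN0 : 0 ≤ N)
    (hN : ∀ i, ‖l i‖ ≤ N) {lam : ℝ} (hl0 : 0 < lam) (hl1 : lam ≤ 1) {e1 h V T : ℝ} (he1 : 0 ≤ e1)
    (hh : 0 ≤ h) (hV0 : 0 ≤ V) (hT0 : 0 ≤ T) {t : ι → ℝ≥0∞}
    (h1 : ∀ i, ∫⁻ x in K i, ‖fderiv ℝ g x - lam⁻¹ • l i‖ₑ ^ p ≤
      ENNReal.ofReal e1 * (‖l i‖ₑ ^ p * volume (K i)) + t i)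
    (ht : ∑' i, t i ≤ ENNReal.ofReal T)
    (h2 : ∑' i, ∫⁻ x in K i, ‖D x - l i‖ₑ ^ p ≤ ENNReal.ofReal h)
    (hV : ∑' i, volume (K i) ≤ ENNReal.ofReal V) :
    ∫⁻ x in ⋃ i, K i, ‖fderiv ℝ g x - D x‖ₑ ^ p ≤
      ENNReal.ofReal (2 ^ (p - 1) * (2 ^ (p - 1) * ((e1 + (lam⁻¹ - 1) ^ p) * N ^ p * V + T) + h)) := by
  have hp0 : 0 ≤ p := by linarith
  set a : ℝ≥0∞ := ENNReal.ofReal (2 ^ (p - 1)) with ha
  have ha' : (2:ℝ≥0∞) ^ (p - 1) = a := by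
    rw [ha, ← ENNReal.ofReal_rpow_of_pos (by norm_num)]; norm_num
  have hta : a ≠ ∞ := ENNReal.ofReal_ne_top
  have hl2 : 0 ≤ lam⁻¹ - 1 := by
    have := (one_le_inv₀ hl0).2 hl1
    linarith
  set b : ι → ℝ≥0∞ := fun i => ENNReal.ofReal ((lam⁻¹ - 1) ^ p) * ‖l i‖ₑ ^ p with hb
  have hpt : ∀ i x, ‖fderiv ℝ g x - D x‖ₑ ^ p ≤
      a * (a * (‖fderiv ℝ g x - lam⁻¹ • l i‖ₑ ^ p + b i) + ‖D x - l i‖ₑ ^ p) := by
    intro i x
    have e1 : fderiv ℝ g x - D x = ((fderiv ℝ g x - lam⁻¹ • l i) + (lam⁻¹ - 1) • l i) +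
        (-(D x - l i)) := by
      module
    have e2 : ‖(lam⁻¹ - 1) • l i‖ₑ ^ p = b i := by
      rw [enorm_smul, ENNReal.mul_rpow_of_nonneg _ _ hp0, hb]
      congr 1
      rw [Real.enorm_eq_ofReal hl2, ENNReal.ofReal_rpow_of_nonneg hl2 hp0]
    have e3 : ‖((fderiv ℝ g x - lam⁻¹ • l i) + (lam⁻¹ - 1) • l i) + (-(D x - l i))‖ₑ ≤
        ‖(fderiv ℝ g x - lam⁻¹ • l i) + (lam⁻¹ - 1) • l i‖ₑ + ‖-(D x - l i)‖ₑ :=
      Br_695.enorm_add_le' _ _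
    have e4 : ‖(fderiv ℝ g x - lam⁻¹ • l i) + (lam⁻¹ - 1) • l i‖ₑ ≤
        ‖fderiv ℝ g x - lam⁻¹ • l i‖ₑ + ‖(lam⁻¹ - 1) • l i‖ₑ := Br_695.enorm_add_le' _ _
    rw [e1]
    calc _ ≤ (‖(fderiv ℝ g x - lam⁻¹ • l i) + (lam⁻¹ - 1) • l i‖ₑ + ‖-(D x - l i)‖ₑ) ^ p :=
          ENNReal.rpow_le_rpow e3 hp0
      _ ≤ a * (‖(fderiv ℝ g x - lam⁻¹ • l i) + (lam⁻¹ - 1) • l i‖ₑ ^ p +
            ‖-(D x - l i)‖ₑ ^ p) := by
          rw [← ha']; exact ENNReal.rpow_add_le_mul_rpow_add_rpow _ _ hp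
      _ ≤ a * (a * (‖fderiv ℝ g x - lam⁻¹ • l i‖ₑ ^ p + b i) + ‖D x - l i‖ₑ ^ p) := by
          rw [enorm_neg]
          gcongr
          calc _ ≤ (‖fderiv ℝ g x - lam⁻¹ • l i‖ₑ + ‖(lam⁻¹ - 1) • l i‖ₑ) ^ p :=
                ENNReal.rpow_le_rpow e4 hp0
            _ ≤ a * (‖fderiv ℝ g x - lam⁻¹ • l i‖ₑ ^ p + ‖(lam⁻¹ - 1) • l i‖ₑ ^ p) := by
                rw [← ha']; exact ENNReal.rpow_add_le_mul_rpow_add_rpow _ _ hp
            _ = _ := by rw [e2]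
  have hNp : ∀ i, ‖l i‖ₑ ^ p ≤ ENNReal.ofReal (N ^ p) := by
    intro i
    rw [← ofReal_norm, ENNReal.ofReal_rpow_of_nonneg (norm_nonneg _) hp0]
    exact ENNReal.ofReal_le_ofReal (Real.rpow_le_rpow (norm_nonneg _) (hN i) hp0)
  have hi : ∀ i, ∫⁻ x in K i, ‖fderiv ℝ g x - D x‖ₑ ^ p ≤
      a * (a * (ENNReal.ofReal ((e1 + (lam⁻¹ - 1) ^ p) * N ^ p) * volume (K i) + t i) +
        ∫⁻ x in K i, ‖D x - l i‖ₑ ^ p) := by
    intro i
    have hm : AEMeasurable (fun x => ‖D x - l i‖ₑ ^ p) (volume.restrict (K i)) := by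
      have h3 : AEStronglyMeasurable D (volume.restrict (K i)) :=
        hD.mono_measure (Measure.restrict_mono (hKO i) le_rfl)
      exact ((h3.sub aestronglyMeasurable_const).enorm).pow_const p
    calc ∫⁻ x in K i, ‖fderiv ℝ g x - D x‖ₑ ^ p
        ≤ ∫⁻ x in K i, a * (a * (‖fderiv ℝ g x - lam⁻¹ • l i‖ₑ ^ p + b i) +
            ‖D x - l i‖ₑ ^ p) := lintegral_mono (hpt i)
      _ = a * (a * ((∫⁻ x in K i, ‖fderiv ℝ g x - lam⁻¹ • l i‖ₑ ^ p) + b i * volume (K i)) +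
            ∫⁻ x in K i, ‖D x - l i‖ₑ ^ p) := by
          rw [lintegral_const_mul' _ _ hta, lintegral_add_right' _ hm,
            lintegral_const_mul' _ _ hta, lintegral_add_right _ measurable_const,
            setLIntegral_const]
      _ ≤ _ := by
          refine mul_le_mul' le_rfl (add_le_add (mul_le_mul' le_rfl ?_) le_rfl)
          calc (∫⁻ x in K i, ‖fderiv ℝ g x - lam⁻¹ • l i‖ₑ ^ p) + b i * volume (K i)
              ≤ (ENNReal.ofReal e1 * (ENNReal.ofReal (N ^ p) * volume (K i)) + t i) +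
                ENNReal.ofReal ((lam⁻¹ - 1) ^ p) * ENNReal.ofReal (N ^ p) * volume (K i) := by
                refine add_le_add ((h1 i).trans ?_) ?_
                · gcongr; exact hNp i
                · simp only [hb]
                  gcongr
                  exact hNp i
            _ = _ := by
                rw [ENNReal.ofReal_mul (by positivity), ENNReal.ofReal_add he1 (by positivity)]
                ring
  calc ∫⁻ x in ⋃ i, K i, ‖fderiv ℝ g x - D x‖ₑ ^ p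
      ≤ ∑' i, ∫⁻ x in K i, ‖fderiv ℝ g x - D x‖ₑ ^ p := lintegral_iUnion_le _ _
    _ ≤ ∑' i, a * (a * (ENNReal.ofReal ((e1 + (lam⁻¹ - 1) ^ p) * N ^ p) * volume (K i) + t i) +
        ∫⁻ x in K i, ‖D x - l i‖ₑ ^ p) := ENNReal.tsum_le_tsum hi
    _ = a * (a * (ENNReal.ofReal ((e1 + (lam⁻¹ - 1) ^ p) * N ^ p) * (∑' i, volume (K i)) +
        ∑' i, t i) + ∑' i, ∫⁻ x in K i, ‖D x - l i‖ₑ ^ p) := by
        rw [ENNReal.tsum_mul_left, ENNReal.tsum_add, ENNReal.tsum_mul_left, ENNReal.tsum_add,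
          ENNReal.tsum_mul_left]
    _ ≤ a * (a * (ENNReal.ofReal ((e1 + (lam⁻¹ - 1) ^ p) * N ^ p) * ENNReal.ofReal V +
        ENNReal.ofReal T) + ENNReal.ofReal h) := by gcongr
    _ = _ := by
        have h3 : 0 ≤ (e1 + (lam⁻¹ - 1) ^ p) * N ^ p := by positivity
        rw [ha, ← ENNReal.ofReal_mul h3, ← ENNReal.ofReal_add (by positivity) hT0,
          ← ENNReal.ofReal_mul (by positivity),
          ← ENNReal.ofReal_add (by positivity) hh, ← ENNReal.ofReal_mul (by positivity)]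

/-- **`D` near the affine maps, over the cores**: from the good cubes -/
theorem near_sum {p : ℝ} (hp : 1 ≤ p) {ι κ : Type*} [Countable ι] {G : Fin 3 → R3 → R3}
    {K : ι → Set E3} {B : κ → Set R3} (hK : ∀ i, MeasurableSet (K i))
    (hd : Pairwise (Function.onFun Disjoint K)) (hB : ∀ k, MeasurableSet (B k)) (kk : ι → κ)
    (Q : Finset κ) (hkQ : ∀ i, kk i ∈ Q) (hsub : ∀ i, K i ⊆ P3 ⁻¹' B (kk i))
    {L : κ → R3 →L[ℝ] R3} {l : ι → E3 →L[ℝ] E3} {kl e1 V : ℝ} (hkl : 0 ≤ kl) (hV0 : 0 ≤ V)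
    (he1 : 0 ≤ e1)
    (hl : ∀ i v, ‖l i v - Ins_685.L3 (L (kk i)) v‖ ≤ kl * ‖v‖)
    (hen : ∑ k ∈ Q, ∫⁻ x in B k, ‖Gmat G x - L k‖ₑ ^ p ≤ ENNReal.ofReal e1)
    (hV : ∑' i, volume (K i) ≤ ENNReal.ofReal V) :
    ∑' i, ∫⁻ x in K i, ‖D3 G x - l i‖ₑ ^ p ≤
      ENNReal.ofReal (2 ^ (p - 1) * (2 ^ p * e1 + kl ^ p * V)) := by
  have hp0 : 0 ≤ p := by linarith
  have h2p : (2:ℝ≥0∞) ^ p = ENNReal.ofReal (2 ^ p) := by
    rw [← ENNReal.ofReal_rpow_of_pos (by norm_num)]; norm_num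
  have h2p1 : (2:ℝ≥0∞) ^ (p - 1) = ENNReal.ofReal (2 ^ (p - 1)) := by
    rw [← ENNReal.ofReal_rpow_of_pos (by norm_num)]; norm_num
  have hpt : ∀ i x, ‖D3 G x - l i‖ₑ ^ p ≤
      2 ^ (p - 1) * (2 ^ p * ‖Gmat G (P3 x) - L (kk i)‖ₑ ^ p + ENNReal.ofReal (kl ^ p)) := by
    intro i x
    have e1 : D3 G x - l i = Ins_685.L3 (Gmat G (P3 x) - L (kk i)) +
        (-(l i - Ins_685.L3 (L (kk i)))) := by
      rw [Ins_685.D3_eq_L3]
      ext1 v
      simp only [sub_apply, add_apply, neg_apply, Ins_685.L3_apply, map_sub]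
      abel
    have h1 : ‖Ins_685.L3 (Gmat G (P3 x) - L (kk i))‖ₑ ≤ 2 * ‖Gmat G (P3 x) - L (kk i)‖ₑ := by
      rw [← ofReal_norm, ← ofReal_norm]
      refine (ENNReal.ofReal_le_ofReal (Ins_685.norm_L3 _)).trans (le_of_eq ?_)
      rw [ENNReal.ofReal_mul (by norm_num), ENNReal.ofReal_ofNat]
    have h2 : ‖-(l i - Ins_685.L3 (L (kk i)))‖ₑ ≤ ENNReal.ofReal kl := by
      rw [enorm_neg, ← ofReal_norm]
      apply ENNReal.ofReal_le_ofReal
      refine ContinuousLinearMap.opNorm_le_bound _ hkl fun v => ?_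
      exact hl i v
    calc ‖D3 G x - l i‖ₑ ^ p ≤ (‖Ins_685.L3 (Gmat G (P3 x) - L (kk i))‖ₑ +
          ‖-(l i - Ins_685.L3 (L (kk i)))‖ₑ) ^ p := by
          rw [e1]; exact ENNReal.rpow_le_rpow (Br_695.enorm_add_le' _ _) hp0
      _ ≤ 2 ^ (p - 1) * (‖Ins_685.L3 (Gmat G (P3 x) - L (kk i))‖ₑ ^ p +
          ‖-(l i - Ins_685.L3 (L (kk i)))‖ₑ ^ p) := ENNReal.rpow_add_le_mul_rpow_add_rpow _ _ hp
      _ ≤ 2 ^ (p - 1) * ((2 * ‖Gmat G (P3 x) - L (kk i)‖ₑ) ^ p + (ENNReal.ofReal kl) ^ p) := by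
          gcongr
      _ = _ := by
          rw [ENNReal.mul_rpow_of_nonneg _ _ hp0, ENNReal.ofReal_rpow_of_nonneg hkl hp0]
  have hcell : ∑' i, ∫⁻ x in K i, ‖Gmat G (P3 x) - L (kk i)‖ₑ ^ p ≤ ENNReal.ofReal e1 := by
    refine (Br_695.tsum_cells hK hd (fun k => P3.continuous.measurable (hB k)) kk Q hkQ hsub
      (fun k x => ‖Gmat G (P3 x) - L k‖ₑ ^ p)).trans ?_
    refine le_trans (le_of_eq ?_) hen
    refine Finset.sum_congr rfl fun k _ => ?_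
    rw [lint_P3]
  calc ∑' i, ∫⁻ x in K i, ‖D3 G x - l i‖ₑ ^ p
      ≤ ∑' i, 2 ^ (p - 1) * (2 ^ p * (∫⁻ x in K i, ‖Gmat G (P3 x) - L (kk i)‖ₑ ^ p) +
          ENNReal.ofReal (kl ^ p) * volume (K i)) := by
        refine ENNReal.tsum_le_tsum fun i => ?_
        refine (lintegral_mono (hpt i)).trans (le_of_eq ?_)
        rw [lintegral_const_mul' _ _ (by rw [h2p1]; exact ENNReal.ofReal_ne_top),
          lintegral_add_right _ measurable_const,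
          lintegral_const_mul' _ _ (by rw [h2p]; exact ENNReal.ofReal_ne_top), setLIntegral_const]
    _ = 2 ^ (p - 1) * (2 ^ p * (∑' i, ∫⁻ x in K i, ‖Gmat G (P3 x) - L (kk i)‖ₑ ^ p) +
          ENNReal.ofReal (kl ^ p) * ∑' i, volume (K i)) := by
        rw [ENNReal.tsum_mul_left, ENNReal.tsum_add, ENNReal.tsum_mul_left, ENNReal.tsum_mul_left]
    _ ≤ 2 ^ (p - 1) * (2 ^ p * ENNReal.ofReal e1 + ENNReal.ofReal (kl ^ p) * ENNReal.ofReal V) := by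
        gcongr
    _ = _ := by
        rw [h2p, h2p1, ← ENNReal.ofReal_mul (by positivity), ← ENNReal.ofReal_mul (by positivity),
          ← ENNReal.ofReal_add (by positivity) (by positivity), ← ENNReal.ofReal_mul (by positivity)]

end

end Crest.Agent.R096.Ers_685
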