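import Crest.Agent.R096.Mal13_874

/-!
Row 96 (S0127), helper29.  (5) of 695 #11580: two nearby positions of a core block: `Kc_diff`, `N_diff`,
and the rational position `exists_rat`.
-/

set_option autoImplicit false
set_option linter.style.longLine false
set_option linter.unusedSectionVars false

open MeasureTheory Set Filter Topology Metric
open scoped ENNReal NNReal

noncomputable section

namespace Crest.Agent.R096.Ksh_29

open Crest.Agent.R096.Mal_874 Crest.Agent.R096.Msh_715 Crest.Agent.R096.Cut_874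
  Crest.Agent.R096.Msh_810

/-! ### boxes of `Fin n → ℝ` -/

section Box

variable {n : ℕ}

/-- the part of a box which leaves a translated box has small volume -/
theorem box_diff {α β δ : Fin n → ℝ} {ρ w : ℝ} (hw : 0 < w) (hρ : 0 ≤ ρ)
    (hwl : ∀ l, w ≤ β l - α l) (hδ : ∀ l, |δ l| ≤ ρ) :
    volume (Icc α β \ {u | u - δ ∈ Icc α β}) ≤ ENNReal.ofReal (n * ρ / w) * volume (Icc α β) := by
  classical
  -- the slabs
  set lo : Fin n → Fin n → ℝ := fun m => Function.update α m (if 0 ≤ δ m then α m else β m + δ m)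
    with hlo
  set hi : Fin n → Fin n → ℝ := fun m => Function.update β m (if 0 ≤ δ m then α m + δ m else β m)
    with hhi
  have h1 : Icc α β \ {u | u - δ ∈ Icc α β} ⊆ ⋃ m, Icc (lo m) (hi m) := by
    rintro u ⟨hu, hu'⟩
    have h2 : ∃ m, u m - δ m < α m ∨ β m < u m - δ m := by
      by_contra hcon
      push Not at hcon
      exact hu' ⟨fun m => (hcon m).1, fun m => (hcon m).2⟩
    obtain ⟨m, hm⟩ := h2
    refine mem_iUnion.2 ⟨m, ⟨fun l => ?_, fun l => ?_⟩⟩
    · by_cases hl : l = m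
      · subst hl
        rw [hlo]; simp only [Function.update_self]
        split_ifs with h0
        · exact hu.1 l
        · have := hu.1 l
          rcases hm with hm | hm
          · linarith
          · linarith
      · rw [hlo]; simp only [Function.update_of_ne hl]; exact hu.1 l
    · by_cases hl : l = m
      · subst hl
        rw [hhi]; simp only [Function.update_self]
        split_ifs with h0
        · have := hu.2 l
          rcases hm with hm | hm
          · linarith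
          · linarith
        · exact hu.2 l
      · rw [hhi]; simp only [Function.update_of_ne hl]; exact hu.2 l
  have h3 : ∀ m, volume (Icc (lo m) (hi m)) ≤ ENNReal.ofReal (ρ / w) * volume (Icc α β) := by
    intro m
    rw [Real.volume_Icc_pi, Real.volume_Icc_pi, ← Finset.mul_prod_erase _ _ (Finset.mem_univ m),
      ← Finset.mul_prod_erase Finset.univ (fun i => ENNReal.ofReal (β i - α i)) (Finset.mem_univ m),
      ← mul_assoc]
    have e1 : ∀ i ∈ Finset.univ.erase m, ENNReal.ofReal (hi m i - lo m i) =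
        ENNReal.ofReal (β i - α i) := by
      intro i hi'
      have hne := Finset.ne_of_mem_erase hi'
      rw [hlo, hhi]; simp only [Function.update_of_ne hne]
    rw [Finset.prod_congr rfl e1]
    gcongr
    rw [← ENNReal.ofReal_mul (by positivity)]
    apply ENNReal.ofReal_le_ofReal
    have h4 : hi m m - lo m m ≤ ρ := by
      rw [hlo, hhi]; simp only [Function.update_self]
      have := hδ m
      split_ifs with h0
      · have := le_abs_self (δ m); linarith
      · have := neg_abs_le (δ m); linarith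
    have h5 : ρ / w * w ≤ ρ / w * (β m - α m) := mul_le_mul_of_nonneg_left (hwl m) (by positivity)
    rw [div_mul_cancel₀ _ hw.ne'] at h5
    linarith
  calc volume (Icc α β \ {u | u - δ ∈ Icc α β}) ≤ volume (⋃ m, Icc (lo m) (hi m)) := measure_mono h1
    _ ≤ ∑ m : Fin n, volume (Icc (lo m) (hi m)) := measure_iUnion_fintype_le _ _
    _ ≤ ∑ _m : Fin n, ENNReal.ofReal (ρ / w) * volume (Icc α β) := Finset.sum_le_sum fun m _ => h3 m
    _ = ENNReal.ofReal (n * ρ / w) * volume (Icc α β) := by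
        rw [Finset.sum_const, Finset.card_univ, Fintype.card_fin, nsmul_eq_mul, ← mul_assoc]
        congr 1
        rw [mul_div_assoc, ENNReal.ofReal_mul (by positivity), ENNReal.ofReal_natCast]

end Box

/-! ### pull back to `E` -/

section Pull

variable {n : ℕ} {E : Type*} [NormedAddCommGroup E] [NormedSpace ℝ E] [FiniteDimensional ℝ E]
  [MeasurableSpace E] [BorelSpace E]

/-- the measure of a preimage under a linear equivalence -/
theorem exists_haar (μ : Measure E) [μ.IsAddHaarMeasure] (ψ : E ≃L[ℝ] (Fin n → ℝ)) :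
    ∃ c : ℝ≥0∞, ∀ A : Set (Fin n → ℝ), MeasurableSet A → μ (ψ ⁻¹' A) = c * volume A := by
  have : (μ.map ψ).IsAddHaarMeasure := ψ.isAddHaarMeasure_map μ
  refine ⟨Measure.addHaarScalarFactor (μ.map ψ) volume, fun A hA => ?_⟩
  have h := Measure.isAddLeftInvariant_eq_smul (μ.map ψ) volume
  have h2 := congrArg (fun ν : Measure (Fin n → ℝ) => ν A) h
  rw [← Measure.map_apply ψ.continuous.measurable hA]
  exact h2

end Pull

/-- a preconnected set which meets `A` and its complement meets the frontier of `A` -/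
theorem exists_frontier {X : Type*} [TopologicalSpace X] {S A : Set X} (hS : IsPreconnected S)
    {x y : X} (hx : x ∈ S) (hxA : x ∈ A) (hy : y ∈ S) (hyA : y ∉ A) :
    ∃ z ∈ S, z ∈ frontier A := by
  by_contra hcon
  push Not at hcon
  have h1 : S ⊆ interior A ∪ (closure A)ᶜ := by
    intro z hz
    by_cases h : z ∈ closure A
    · exact Or.inl (by
        by_contra h2
        exact hcon z hz ⟨h, h2⟩)
    · exact Or.inr h
  obtain ⟨z, hz, h2, h3⟩ := hS _ _ isOpen_interior isClosed_closure.isOpen_compl h1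
    ⟨x, hx, (h1 hx).resolve_right fun h => h (subset_closure hxA)⟩
    ⟨y, hy, (h1 hy).resolve_left fun h => hyA (interior_subset h)⟩
  exact h3 (subset_closure (interior_subset h2))

section CB

variable {n : ℕ} {E : Type*} [NormedAddCommGroup E] [NormedSpace ℝ E]

/-- corners of the core -/
def cl (Q : CB E n) : Fin n → ℝ := fun l => Q.a' l + Q.S.lo l / 2 ^ Q.kc
def cu (Q : CB E n) : Fin n → ℝ := fun l => Q.a' l + Q.S.hi l / 2 ^ Q.kc

theorem Kc_eq (Q : CB E n) : Q.Kc = Q.ψ ⁻¹' Icc (cl Q) (cu Q) := by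
  have hp : (0 : ℝ) < 2 ^ Q.kc := by positivity
  ext y
  rw [mem_preimage, mem_Icc, Pi.le_def, Pi.le_def, ← forall_and]
  refine forall_congr' fun l => ?_
  show ((Q.S.lo l : ℝ) ≤ ps Q.a' Q.kc (Q.ψ y) l ∧ ps Q.a' Q.kc (Q.ψ y) l ≤ Q.S.hi l) ↔ _
  unfold ps cl cu
  rw [← le_sub_iff_add_le', ← sub_le_iff_le_add', div_le_iff₀ hp, le_div_iff₀ hp]
  constructor <;> rintro ⟨h1, h2⟩ <;> constructor <;> linarith

/-- **`N_diff`**, any radius -/
theorem N_diff_r (Q : CB E n) {v v' : E} {r : ℝ} (h : ‖Q.ψ (v - v')‖ ≤ r) :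
    (Q.tr v).N \ (Q.tr v').N ⊆ {y | ∃ z ∈ frontier (Q.tr v).N, ‖Q.ψ y - Q.ψ z‖ ≤ r} := by
  rintro y ⟨hy, hy'⟩
  have h1 : y + (v - v') ∉ (Q.tr v).N := by
    rw [CB.mem_N_tr] at hy' ⊢
    rwa [show y + (v - v') - v = y - v' by abel]
  have hs : IsPreconnected (segment ℝ y (y + (v - v'))) := (convex_segment _ _).isPreconnected
  obtain ⟨z, hz, hzf⟩ := exists_frontier hs (left_mem_segment ℝ _ _) hy
    (right_mem_segment ℝ _ _) h1
  refine ⟨z, hzf, ?_⟩
  rw [segment_eq_image_lineMap] at hz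
  obtain ⟨t, ht, rfl⟩ := hz
  have e : y - (AffineMap.lineMap y (y + (v - v')) t : E) = -(t • (v - v')) := by
    rw [AffineMap.lineMap_apply_module']; simp
  rw [← map_sub, e, map_neg, norm_neg, map_smul, norm_smul, Real.norm_eq_abs, abs_of_nonneg ht.1]
  calc t * ‖Q.ψ (v - v')‖ ≤ 1 * ‖Q.ψ (v - v')‖ := by
        apply mul_le_mul_of_nonneg_right ht.2 (norm_nonneg _)
    _ ≤ r := by rw [one_mul]; exact h

/-- **`N_diff`** -/
theorem N_diff (Q : CB E n) (k0 : ℕ) {v v' : E} (h : ‖Q.ψ (v - v')‖ ≤ 40 / 2 ^ k0) :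
    (Q.tr v).N \ (Q.tr v').N ⊆ {y | ∃ z ∈ frontier (Q.tr v).N, ‖Q.ψ y - Q.ψ z‖ ≤ 40 / 2 ^ k0} :=
  N_diff_r Q h

/-- **rational position near a given one** -/
theorem exists_rat (Q : CB E n) (k0 : ℕ) (a : E) {d : ℕ} (hd : 0 < d) :
    ∃ a'' : E, ‖Q.ψ (a'' - a)‖ ≤ 1 / (20 * 2 ^ k0) ∧
      ∃ κ : ℕ, ∀ m, ∃ z : ℤ, 2 ^ κ * (d : ℝ) * (Q.tr a'').a' m = z := by
  have hd1 : (1 : ℝ) ≤ d := by exact_mod_cast hd
  set N : ℝ := 2 ^ (k0 + 5) * d with hN
  have hN0 : 0 < N := by positivity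
  set z : Fin n → ℤ := fun m => round (N * (Q.a' m + Q.ψ a m)) with hz
  set b : Fin n → ℝ := fun m => z m / N - Q.a' m with hb
  refine ⟨Q.ψ.symm b, ?_, k0 + 5, fun m => ⟨z m, ?_⟩⟩
  · rw [map_sub, ContinuousLinearEquiv.apply_symm_apply, pi_norm_le_iff_of_nonneg (by positivity)]
    intro m
    rw [Pi.sub_apply, Real.norm_eq_abs]
    have h1 := abs_sub_round (N * (Q.a' m + Q.ψ a m))
    have h2 : b m - Q.ψ a m = -(N * (Q.a' m + Q.ψ a m) - z m) / N := by
      rw [hb]; field_simp; ring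
    rw [h2, abs_div, abs_neg, abs_of_pos hN0, div_le_div_iff₀ hN0 (by positivity)]
    have h3 : (2 : ℝ) ^ (k0 + 5) = 2 ^ k0 * 32 := by rw [pow_add]; norm_num
    have h4 : (0 : ℝ) < 2 ^ k0 := by positivity
    calc |N * (Q.a' m + Q.ψ a m) - z m| * (20 * 2 ^ k0) ≤ 1 / 2 * (20 * 2 ^ k0) := by
          apply mul_le_mul_of_nonneg_right h1 (by positivity)
      _ ≤ 1 * N := by
          rw [hN, h3]; nlinarith
  · show 2 ^ (k0 + 5) * (d : ℝ) * (Q.a' + Q.ψ (Q.ψ.symm b)) m = z m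
    rw [ContinuousLinearEquiv.apply_symm_apply, Pi.add_apply, hb]
    simp only
    rw [← hN]
    field_simp
    ring

variable [FiniteDimensional ℝ E] [MeasurableSpace E] [BorelSpace E]

/-- **`Kc_diff`**, any dimension, any Haar measure -/
theorem Kc_diff_mu (μ : Measure E) [μ.IsAddHaarMeasure] (Q : CB E n) {v v' : E} {ρ w : ℝ}
    (hρ : ‖Q.ψ (v - v')‖ ≤ ρ) (hw : ∀ l, w ≤ (Q.S.hi l - Q.S.lo l) / 2 ^ Q.kc) (hw0 : 0 < w) :
    μ ((Q.tr v).Kc \ (Q.tr v').Kc) ≤ ENNReal.ofReal (n * ρ / w) * μ ((Q.tr v).Kc) := by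
  obtain ⟨c, hc⟩ := exists_haar μ Q.ψ
  set δ : Fin n → ℝ := Q.ψ (v' - v) with hδ
  have hρ0 : 0 ≤ ρ := (norm_nonneg _).trans hρ
  have hδl : ∀ l, |δ l| ≤ ρ := by
    intro l
    have h1 := norm_le_pi_norm δ l
    rw [Real.norm_eq_abs] at h1
    have h2 : ‖δ‖ = ‖Q.ψ (v - v')‖ := by rw [hδ, ← neg_sub v v', map_neg, norm_neg]
    linarith
  have hwl : ∀ l, w ≤ cu (Q.tr v) l - cl (Q.tr v) l := by
    intro l
    have h1 := hw l
    have h2 : cu (Q.tr v) l - cl (Q.tr v) l = (Q.S.hi l - Q.S.lo l) / 2 ^ Q.kc := by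
      show ((Q.tr v).a' l + Q.S.hi l / 2 ^ Q.kc) - ((Q.tr v).a' l + Q.S.lo l / 2 ^ Q.kc) = _
      ring
    rw [h2]; exact h1
  have e1 : (Q.tr v).Kc = Q.ψ ⁻¹' Icc (cl (Q.tr v)) (cu (Q.tr v)) := Kc_eq (Q.tr v)
  have e2 : (Q.tr v).Kc \ (Q.tr v').Kc = Q.ψ ⁻¹' (Icc (cl (Q.tr v)) (cu (Q.tr v)) \
      {u | u - δ ∈ Icc (cl (Q.tr v)) (cu (Q.tr v))}) := by
    ext y
    rw [Set.mem_sdiff, mem_preimage, Set.mem_sdiff, mem_ofPred_eq, e1, mem_preimage]
    refine and_congr_right fun _ => not_congr ?_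
    have e3 : Q.ψ y - δ = Q.ψ (y - (v' - v)) := by rw [map_sub]
    rw [e3]
    have e4 : y - (v' - v) ∈ Q.ψ ⁻¹' Icc (cl (Q.tr v)) (cu (Q.tr v)) ↔ y - (v' - v) ∈ (Q.tr v).Kc := by
      rw [e1]
    rw [mem_preimage] at e4
    rw [e4, CB.mem_Kc_tr, CB.mem_Kc_tr, show y - (v' - v) - v = y - v' by abel]
  have hm : MeasurableSet {u : Fin n → ℝ | u - δ ∈ Icc (cl (Q.tr v)) (cu (Q.tr v))} :=
    (measurable_id.sub_const δ) measurableSet_Icc
  rw [e2, e1, hc _ (measurableSet_Icc.diff hm), hc _ measurableSet_Icc]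
  calc c * volume (Icc (cl (Q.tr v)) (cu (Q.tr v)) \ {u | u - δ ∈ Icc (cl (Q.tr v)) (cu (Q.tr v))})
      ≤ c * (ENNReal.ofReal (n * ρ / w) * volume (Icc (cl (Q.tr v)) (cu (Q.tr v)))) := by
        gcongr; exact box_diff hw0 hρ0 hwl hδl
    _ = _ := by ring

end CB

/-- **`Kc_diff`** for `CB E3 3` and `CB R3 3` -/
theorem Kc_diff {E : Type*} [NormedAddCommGroup E] [NormedSpace ℝ E] [FiniteDimensional ℝ E]
    [MeasureSpace E] [BorelSpace E] [(volume : Measure E).IsAddHaarMeasure] (Q : CB E 3) {v v' : E}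
    {ρ w : ℝ} (hρ : ‖Q.ψ (v - v')‖ ≤ ρ) (hw : ∀ l, w ≤ (Q.S.hi l - Q.S.lo l) / 2 ^ Q.kc)
    (hw0 : 0 < w) :
    volume ((Q.tr v).Kc \ (Q.tr v').Kc) ≤ ENNReal.ofReal (3 * ρ / w) * volume ((Q.tr v).Kc) := by
  have := Kc_diff_mu (volume : Measure E) Q hρ hw hw0
  exact_mod_cast this

end Crest.Agent.R096.Ksh_29
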