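import Crest.Agent.R096.Br9_695
import Crest.Agent.R096.Ers1_685
import Crest.Agent.R096.Dst1_812
import Crest.Agent.R096.Blk2_212
import Crest.Agent.R096.Ksh1_29

/-!
Row 96 (S0127), helper695.  **`BFk p` for `p ≤ 2`**: from the output of `PreIN p` to the input of `EA0 p`.
-/

set_option autoImplicit false
set_option linter.unusedSectionVars false
set_option linter.unusedVariables false
set_option linter.style.longLine false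

open MeasureTheory Set Filter Metric Module
open scoped ENNReal NNReal Topology

namespace Crest.Agent.R096.Br_695

open Crest.AnalysisR.VecCalc3 Crest.AnalysisR.Sobolev
open Crest.Agent.R96.Lu_538 Crest.Agent.R96.Intr_538
open Crest.Agent.R96.Coarse_538 hiding E3
open Crest.Agent.R096.Sk_962 (SH Gr)
open Crest.Agent.R096.Sk4_663 (Zd BFs lintegral_of_memLp)
open Crest.Agent.R096.Bsp_628
open Crest.Agent.R096.Bxs_627 hiding E3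
open Crest.Agent.R96.En10_199
open Crest.Agent.R096.SkC1_961 (E3 Hom3)
open Crest.Agent.R096.Er_594
open Crest.Agent.R096.EaX_766 (cbx lin Kor)
open Crest.Agent.R096.Brk5_582 (Cmp)
open Crest.Agent.R096.Msh_715 Crest.Agent.R096.Mal_874
open Crest.Agent.R096.Pin_753 (Bk InP BlkP)
open Crest.Agent.R096.Ea0_961 (InS Blk)
open Crest.Agent.R096.Tmap_212 (mp)
open Crest.Agent.R096.Fns_360 (trA trA_apply trA_linear trA_sub)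
open Crest.Agent.R096.Ins_685 (L3 L3_apply lin_close lin_trA norm_lin_le low_lin)
open Crest.Agent.R096.Fil_313 (cel_preimage aff3 aff3_image)

noncomputable section

/-- **the nominal blocks** (output of `Blk3_212`) -/
structure Fam (La : Set R3) (F : Set (Bx (Fin 3))) (κ κ' κt s t τ hh c1 θ θ1 ka lam B : ℝ)
    (Bs M Nn k0 : ℕ) (a₀ : R3) (Q₀ : Finset (Fin 3 → ℤ)) (b : (Fin 3 → ℤ) → R3)
    (L : (Fin 3 → ℤ) → R3 →L[ℝ] R3) (X₀ : Set F) (kk : F → Fin 3 → ℤ) (Q : F → CB E3 3)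
    (A : F → E3 ≃ᵃ[ℝ] E3) (hk : ∀ c, (Q c).kc ≤ k0) : Prop where
  fin : X₀.Finite
  kkQ : ∀ c ∈ X₀, kk c ∈ Q₀
  ins : ∀ c ∈ X₀, c.1.set ⊆ P3 ⁻¹' par Cb (L (kk c)) (b (kk c)) ((1 - 4 * τ) * s)
  two : ∀ c ∈ X₀, cbx c.1 2 ⊆ P3 ⁻¹' par Cb (L (kk c)) (b (kk c)) ((1 - 3 * τ) * s)
  all : ∀ k ∈ Q₀, ∀ c : F, c.1.set ⊆ P3 ⁻¹' par Cb (L k) (b k) ((1 - 4 * τ) * s) →
    c ∈ X₀ ∧ kk c = k
  szl : ∀ c ∈ X₀, t ≤ 6 * c.1.sz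
  szu : ∀ c ∈ X₀, c.1.sz ≤ t
  N_sub : ∀ c ∈ X₀, (Q c).N ⊆ A c ⁻¹' cbx c.1 ((1 + 2 * κ') * lam)
  core : ∀ c ∈ X₀, (Q c).Kc = A c ⁻¹' cbx c.1 lam
  lin_eq : ∀ c ∈ X₀, ∀ x, (A c).linear x = lam • (Q c).ψ x
  close : ∀ c ∈ X₀, ∀ x ∈ closedBall (P3.symm (vt (2 * s) a₀ (kk c))) s,
    ‖A c x - P3.symm (Bk (b (kk c)) (L (kk c)) (vt (2 * s) a₀ (kk c)) (P3 x))‖ ≤ ka * s
  blkP : ∀ c ∈ X₀, BlkP κ s τ hh c1 θ θ1 Bs Nn (vt (2 * s) a₀ (kk c)) (mp P3 (Q c)) k0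
  blk : ∀ c ∈ X₀, ∀ sh : E3, ∃ v : E3, ‖(Q c).ψ v‖ ≤ 1 / (20 * 2 ^ k0) ∧
    Blk F lam B (1 / 4) κt Bs M Nn c (trA (A c) (sh + v)) lam ((Q c).tr (sh + v)) k0 (hk c)

section

variable {La : Set R3} {F : Set (Bx (Fin 3))} {κ κ' κt s t τ hh c1 θ θ1 ka lam B : ℝ}
    {Bs M Nn k0 : ℕ} {a₀ : R3} {Q₀ : Finset (Fin 3 → ℤ)} {b : (Fin 3 → ℤ) → R3}
    {L : (Fin 3 → ℤ) → R3 →L[ℝ] R3} {X₀ : Set F} {kk : F → Fin 3 → ℤ} {Q : F → CB E3 3}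
    {A : F → E3 ≃ᵃ[ℝ] E3} {hk : ∀ c, (Q c).kc ≤ k0}
    (H : Fam La F κ κ' κt s t τ hh c1 θ θ1 ka lam B Bs M Nn k0 a₀ Q₀ b L X₀ kk Q A hk)

include H

/-- norms in the frame of a block -/
theorem Fam.norm_le (hκ : 0 < κ) {c : F} (hc : c ∈ X₀) {w : E3} {q : ℝ} (hq : 0 < q)
    (hw : ‖(Q c).ψ w‖ ≤ 1 / (q * 2 ^ k0)) : ‖w‖ ≤ 4 * θ / (q * κ) * s := by
  have HB := H.blkP c hc
  have h1 := (HB.cnd (P3 w)).1
  rw [Tmap_212.mp_ψ, P3.symm_apply_apply] at h1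
  have h2 := norm_le_P3 w
  have h3 : (1 : ℝ) / (q * 2 ^ k0) = 1 / q * (1 / 2 ^ k0) := by field_simp
  rw [h3] at hw
  have h4 : 1 / q * (1 / 2 ^ k0) ≤ 1 / q * (θ * s) :=
    mul_le_mul_of_nonneg_left HB.hi (by positivity)
  have h5 : κ / 4 * ‖w‖ ≤ κ / 4 * ‖P3 w‖ := mul_le_mul_of_nonneg_left h2 (by positivity)
  have h6 : κ / 4 * ‖w‖ ≤ κ / 4 * (4 * θ / (q * κ) * s) := by
    have : κ / 4 * (4 * θ / (q * κ) * s) = 1 / q * (θ * s) := by field_simp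
    linarith
  exact le_of_mul_le_mul_left h6 (by positivity)

/-- the cores at a position are in the cubes -/
theorem Fam.K_sub (hκ : 0 < κ) (hs : 0 < s) (hτ : 0 < τ) (hτ4 : τ ≤ 1 / 4) {c : F} (hc : c ∈ X₀)
    {v : E3} (hv : ‖v‖ ≤ τ / 2 * s) :
    ((Q c).tr v).N ⊆ closedBall (P3.symm (vt (2 * s) a₀ (kk c))) ((1 - τ / 2) * s) := by
  intro y hy
  have h1 : y - v ∈ (Q c).N := ((Q c).mem_N_tr v y).1 hy
  have h2 : y - v ∈ closedBall (P3.symm (vt (2 * s) a₀ (kk c))) ((1 - τ) * s) := by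
    rw [← cel_preimage _ (mul_pos (by linarith) hs)]
    exact (H.blkP c hc).sub ((Tmap_212.mem_N_mp' P3 (Q c)).2 h1)
  rw [mem_closedBall, dist_eq_norm] at h2 ⊢
  have e1 : y - P3.symm (vt (2 * s) a₀ (kk c)) = (y - v - P3.symm (vt (2 * s) a₀ (kk c))) + v := by
    abel
  rw [e1]
  refine (norm_add_le _ _).trans ?_
  linarith

/-- the linear parts -/
theorem Fam.lin_near (hκ : 0 < κ) (hs : 0 < s)
    (hLb : ∀ k ∈ Q₀, (∀ v, κ * ‖v‖ ≤ ‖L k v‖) ∧ ‖L k‖ ≤ κ⁻¹) {c : F} (hc : c ∈ X₀) (v : E3) :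
    ‖lin (A c) v - L3 (L (kk c)) v‖ ≤ 2 * ka * ‖v‖ :=
  lin_close hs hκ (hLb _ (H.kkQ c hc)).1 (H.close c hc) v

theorem Fam.nrm (hκ : 0 < κ) (hs : 0 < s) (hka : 2 * ka ≤ κ / 8)
    (hLb : ∀ k ∈ Q₀, (∀ v, κ * ‖v‖ ≤ ‖L k v‖) ∧ ‖L k‖ ≤ κ⁻¹) {c : F} (hc : c ∈ X₀) :
    ‖lin (A c)‖ ≤ 3 * κ⁻¹ :=
  (norm_lin_le hκ (hLb _ (H.kkQ c hc)).1 hka (H.lin_near hκ hs hLb hc)).trans
    (mul_le_mul_of_nonneg_left (hLb _ (H.kkQ c hc)).2 (by norm_num))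

/-- **`InS` for a brick in a surviving cube** -/
theorem Fam.insS {p : ℝ} (hp0 : 0 ≤ p) (hp3 : p ≤ 3) {Om : Set R3} (hL : IsOpen La)
    {f₂ : R3 → R3} {G₂ : Fin 3 → R3 → R3} (hf₂ : IsHomeomorphOn f₂ Om La)
    (hpos : ∀ c ∈ F, c.Pos) (hκ : 0 < κ) (hκ1 : κ ≤ 1) (hs : 0 < s) (hτ : 0 < τ) (hτ4 : τ ≤ 1 / 4)
    (hLb : ∀ k ∈ Q₀, (∀ v, κ * ‖v‖ ≤ ‖L k v‖) ∧ ‖L k‖ ≤ κ⁻¹)
    (hcel : ∀ k ∈ Q₀, cel Cb (vt (2 * s) a₀ k) s ⊆ Om) {C1 κw kb κwE κ1 : ℝ} {a : R3}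
    (ha : ‖a‖ ≤ κw * s) {c : F} (hc : c ∈ X₀)
    (hcl : ∀ x ∈ cel Cb (vt (2 * s) a₀ (kk c)) ((1 - τ) * s),
      ‖f₂ x - Bk (b (kk c)) (L (kk c)) (vt (2 * s) a₀ (kk c)) x‖ ≤ C1 * hh * s)
    {er : ℝ≥0∞} (hIn : InP p f₂ (Gmat G₂) C1 κw s (b (kk c)) (L (kk c))
      (vt (2 * s) a₀ (kk c)) er ((mp P3 (Q c)).tr a) k0 (hk c))
    (hlam : 0 ≤ lam) (hlam1 : lam ≤ 1) (hM : 0 < M) (hB : 0 ≤ B) (hκw : 0 ≤ κw)
    (hhh : C1 * hh ≤ κ * τ) (hroom : κw + θ / κ ≤ τ) (hka0 : 0 ≤ ka)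
    (hkb : ka + 3 * κ⁻¹ * (κw + θ / (5 * κ)) ≤ kb) (hkb1 : kb ≤ κ * τ / 16)
    (hκwE : 0 ≤ κwE) (hκ10 : 0 ≤ κ1) {tb : ℝ} (ht : t = tb * s) (hlam2 : 1 / 2 ≤ lam)
    (m1 : (κw + kb) * M ≤ κwE * (tb / 12)) (m2 : 2 * κw + 2 * kb ≤ κ / 4 * κwE)
    (m3 : C1 * hh + kb ≤ κ1 * (tb / 12)) {v : E3} (hv : ‖(Q c).ψ v‖ ≤ 1 / (20 * 2 ^ k0)) :
    InS p (P3 ⁻¹' Om) (e3 f₂) (D3 G₂) B κ1 (1 / 4) κwE M c.1 (trA (A c) (P3.symm a + v)) lam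
      (1000 * (ENNReal.ofReal (C1 * ‖L (kk c)‖ ^ p) * volume ((Q c).N \ (Q c).Kc) + er))
      ((Q c).tr (P3.symm a + v)) k0 (hk c) := by
  have hk0 := H.kkQ c hc
  have hM' : (0:ℝ) < M := by exact_mod_cast hM
  have hsz : tb * s / 12 ≤ lam * c.1.sz := by
    have h1 : tb * s ≤ 6 * c.1.sz := by rw [← ht]; exact H.szl c hc
    have h2 : 0 ≤ c.1.sz := (Bx.sz_pos (hpos _ c.2)).le
    nlinarith
  refine Ins_685.ins hp0 hp3 hf₂ hL hκ hκ1 (hLb _ hk0).1 (hLb _ hk0).2 hs hτ hτ4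
    ?_ hcl hhh (Q c) (hk c) (H.blkP c hc) ha hv hIn hκw hroom (H.close c hc) hka0 hkb hkb1
    (hpos _ c.2) hlam (by norm_num) hB ?_ ?_ m2 ?_
  · refine Subset.trans ?_ (hcel _ hk0)
    intro x hx
    have e1 : 0 < (1 - τ) * s := mul_pos (by linarith) hs
    have hx' : P3.symm x ∈ closedBall (P3.symm (vt (2 * s) a₀ (kk c))) ((1 - τ) * s) := by
      rw [← cel_preimage _ e1]
      change P3 (P3.symm x) ∈ cel Cb (vt (2 * s) a₀ (kk c)) ((1 - τ) * s)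
      rwa [P3.apply_symm_apply]
    have hx2 : P3.symm x ∈ closedBall (P3.symm (vt (2 * s) a₀ (kk c))) s :=
      closedBall_subset_closedBall (by nlinarith) hx'
    rw [← cel_preimage _ hs] at hx2
    have : P3 (P3.symm x) ∈ cel Cb (vt (2 * s) a₀ (kk c)) s := hx2
    rwa [P3.apply_symm_apply] at this
  · refine (cbx_mono (hpos _ c.2) ?_).trans (H.two c hc)
    linarith
  · rw [le_div_iff₀ hM']
    calc (κw + kb) * s * M = (κw + kb) * M * s := by ring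
      _ ≤ κwE * (tb / 12) * s := mul_le_mul_of_nonneg_right m1 hs.le
      _ = κwE * (tb * s / 12) := by ring
      _ ≤ κwE * (lam * c.1.sz) := mul_le_mul_of_nonneg_left hsz hκwE
  · calc (C1 * hh + kb) * s ≤ κ1 * (tb / 12) * s := mul_le_mul_of_nonneg_right m3 hs.le
      _ = κ1 * (tb * s / 12) := by ring
      _ ≤ κ1 * (lam * c.1.sz) := mul_le_mul_of_nonneg_left hsz hκ10

/-- positions: the blocks stay disjoint -/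
theorem Fam.disjN (hκ : 0 < κ) {c2 : ℝ}
    (hdist : ∀ c ∈ X₀, ∀ c' ∈ X₀, c ≠ c' → ∀ x ∈ (mp P3 (Q c)).N, ∀ y ∈ (mp P3 (Q c')).N,
      c2 * s ≤ dist x y) (hs : 0 < s) (hθ : 4 * θ / (5 * κ) < c2) {v : F → E3} {a3 : E3}
    (hv : ∀ c ∈ X₀, ‖(Q c).ψ (v c)‖ ≤ 1 / (20 * 2 ^ k0)) {c c' : F} (hc : c ∈ X₀) (hc' : c' ∈ X₀)
    (hne : c ≠ c') : Disjoint ((Q c).tr (a3 + v c)).N ((Q c').tr (a3 + v c')).N := by
  rw [Set.disjoint_left]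
  intro x hx hx'
  have h1 := ((Q c).mem_N_tr _ x).1 hx
  have h2 := ((Q c').mem_N_tr _ x).1 hx'
  have h3 := hdist c hc c' hc' hne _ ((Tmap_212.mem_N_mp' P3 (Q c)).2 h1) _
    ((Tmap_212.mem_N_mp' P3 (Q c')).2 h2)
  rw [dist_eq_norm, ← map_sub] at h3
  have e1 : x - (a3 + v c) - (x - (a3 + v c')) = v c' - v c := by abel
  rw [e1] at h3
  have h4 := H.norm_le hκ hc (by norm_num : (0:ℝ) < 20) (hv c hc)
  have h5 := H.norm_le hκ hc' (by norm_num : (0:ℝ) < 20) (hv c' hc')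
  have h6 := Crest.Agent.R096.Er_594.norm_P3_le (v c' - v c)
  have h7 := norm_sub_le (v c') (v c)
  have e2 : 4 * θ / (20 * κ) * s + 4 * θ / (20 * κ) * s = 2 * θ / (5 * κ) * s := by
    field_simp; ring
  have e3 : 2 * (2 * θ / (5 * κ) * s) = 4 * θ / (5 * κ) * s := by field_simp; ring
  have h8 : 4 * θ / (5 * κ) * s < c2 * s := mul_lt_mul_of_pos_right hθ hs
  linarith

end

end

end Crest.Agent.R096.Br_695
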