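import Crest.Agent.R096.Br10_695

/-!
Row 96 (S0127), helper695.  **`BFk p` for `p ≤ 2`**: sums after `PreIN p`.
-/

set_option autoImplicit false
set_option linter.unusedSectionVars false
set_option linter.unusedVariables false
set_option linter.style.longLine false

open MeasureTheory Set Filter Metric Module
open scoped ENNReal NNReal Topology

namespace Crest.Agent.R096.Br_695

open Crest.AnalysisR.VecCalc3 Crest.AnalysisR.Sobolev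
open Crest.Agent.R96.Lu_538 Crest.Agent.R96.Intr_538
open Crest.Agent.R96.Coarse_538 hiding E3
open Crest.Agent.R096.Sk_962 (SH Gr)
open Crest.Agent.R096.Sk4_663 (Zd BFs lintegral_of_memLp)
open Crest.Agent.R096.Bsp_628
open Crest.Agent.R096.Bxs_627 hiding E3
open Crest.Agent.R96.En10_199
open Crest.Agent.R096.SkC1_961 (E3 Hom3)
open Crest.Agent.R096.Er_594
open Crest.Agent.R096.EaX_766 (cbx lin Kor)
open Crest.Agent.R096.Brk5_582 (Cmp)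
open Crest.Agent.R096.Msh_715 Crest.Agent.R096.Mal_874
open Crest.Agent.R096.Pin_753 (Bk InP BlkP)
open Crest.Agent.R096.Ea0_961 (InS Blk)
open Crest.Agent.R096.Tmap_212 (mp)
open Crest.Agent.R096.Fns_360 (trA trA_apply trA_linear trA_sub)
open Crest.Agent.R096.Ins_685 (L3 L3_apply lin_close lin_trA norm_lin_le low_lin)
open Crest.Agent.R096.Fil_313 (cel_preimage aff3 aff3_image)

noncomputable section

section

variable {La : Set R3} {F : Set (Bx (Fin 3))} {κ κ' κt s t τ hh c1 θ θ1 ka lam B : ℝ}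
    {Bs M Nn k0 : ℕ} {a₀ : R3} {Q₀ : Finset (Fin 3 → ℤ)} {b : (Fin 3 → ℤ) → R3}
    {L : (Fin 3 → ℤ) → R3 →L[ℝ] R3} {X₀ : Set F} {kk : F → Fin 3 → ℤ} {Q : F → CB E3 3}
    {A : F → E3 ≃ᵃ[ℝ] E3} {hk : ∀ c, (Q c).kc ≤ k0}
    (H : Fam La F κ κ' κt s t τ hh c1 θ θ1 ka lam B Bs M Nn k0 a₀ Q₀ b L X₀ kk Q A hk)

theorem measurable_Kc (Q : CB E3 3) : MeasurableSet Q.Kc := by
  rw [Crest.Agent.R096.Ksh_29.Kc_eq]
  exact Q.ψ.continuous.measurable measurableSet_Icc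

include H

/-- the blocks at the positions are in `Om` -/
theorem Fam.N_Om {Om : Set R3} (hκ : 0 < κ) (hs : 0 < s) (hτ : 0 < τ) (hτ4 : τ ≤ 1 / 4)
    (hcel : ∀ k ∈ Q₀, cel Cb (vt (2 * s) a₀ k) s ⊆ Om) {c : F} (hc : c ∈ X₀) {v : E3}
    (hv : ‖v‖ ≤ τ / 2 * s) : ((Q c).tr v).N ⊆ P3 ⁻¹' cel Cb (vt (2 * s) a₀ (kk c)) s := by
  refine (H.K_sub hκ hs hτ hτ4 hc hv).trans ?_
  rw [cel_preimage _ hs]
  exact closedBall_subset_closedBall (by nlinarith)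

/-- norm of a position -/
theorem Fam.pos_le (hκ : 0 < κ) {κw : ℝ} {a : R3} (ha : ‖a‖ ≤ κw * s) (hs : 0 < s)
    (hn : κw + θ / (5 * κ) ≤ τ / 2) {c : F} (hc : c ∈ X₀) {v : E3}
    (hv : ‖(Q c).ψ v‖ ≤ 1 / (20 * 2 ^ k0)) : ‖P3.symm a + v‖ ≤ τ / 2 * s := by
  have h1 := H.norm_le hκ hc (by norm_num : (0:ℝ) < 20) hv
  have h2 := Crest.Agent.R096.Er_594.norm_P3_symm_le a
  have e : 4 * θ / (20 * κ) * s = θ / (5 * κ) * s := by field_simp; ring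
  calc ‖P3.symm a + v‖ ≤ ‖P3.symm a‖ + ‖v‖ := norm_add_le _ _
    _ ≤ κw * s + θ / (5 * κ) * s := add_le_add (h2.trans ha) (by rw [← e]; exact h1)
    _ = (κw + θ / (5 * κ)) * s := by ring
    _ ≤ τ / 2 * s := mul_le_mul_of_nonneg_right hn hs.le

/-- volumes of the cores at the positions -/
theorem Fam.sum_vol {Om : Set R3} (hFc : Countable F) (hκ : 0 < κ) (hs : 0 < s) (hτ : 0 < τ)
    (hτ4 : τ ≤ 1 / 4) (hcel : ∀ k ∈ Q₀, cel Cb (vt (2 * s) a₀ k) s ⊆ Om) {c2 : ℝ}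
    (hdist : ∀ c ∈ X₀, ∀ c' ∈ X₀, c ≠ c' → ∀ x ∈ (mp P3 (Q c)).N, ∀ y ∈ (mp P3 (Q c')).N,
      c2 * s ≤ dist x y) (hθ : 4 * θ / (5 * κ) < c2) {v : F → E3} {κw : ℝ} {a : R3}
    (ha : ‖a‖ ≤ κw * s) (hn : κw + θ / (5 * κ) ≤ τ / 2)
    (hv : ∀ c ∈ X₀, ‖(Q c).ψ (v c)‖ ≤ 1 / (20 * 2 ^ k0)) {X : Set F} (hX : X ⊆ X₀) :
    ∑' c : X, volume ((Q c).tr (P3.symm a + v c)).Kc ≤ volume Om := by
  rw [← vol_P3, ← measure_iUnion]
  · refine measure_mono (iUnion_subset fun c => ?_)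
    refine (Msb_432.Kc_sub_N _).trans ((H.N_Om hκ hs hτ hτ4 hcel (hX c.2)
      (H.pos_le hκ ha hs hn (hX c.2) (hv _ (hX c.2)))).trans ?_)
    exact preimage_mono (hcel _ (H.kkQ _ (hX c.2)))
  · intro c c' hne
    have h1 := H.disjN hκ hdist hs hθ (a3 := P3.symm a) hv (hX c.2) (hX c'.2)
      (fun h => hne (Subtype.ext h))
    exact h1.mono (Msb_432.Kc_sub_N _) (Msb_432.Kc_sub_N _)
  · exact fun c => measurable_Kc _

/-- **energy near the affine maps** -/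
theorem Fam.near {p : ℝ} (hp : 1 ≤ p) {G : Fin 3 → R3 → R3} {Om : Set R3} (hFc : Countable F)
    (hκ : 0 < κ) (hs : 0 < s) (hτ : 0 < τ)
    (hτ4 : τ ≤ 1 / 4) (hLb : ∀ k ∈ Q₀, (∀ v, κ * ‖v‖ ≤ ‖L k v‖) ∧ ‖L k‖ ≤ κ⁻¹)
    (hcel : ∀ k ∈ Q₀, cel Cb (vt (2 * s) a₀ k) s ⊆ Om) {c2 : ℝ}
    (hdist : ∀ c ∈ X₀, ∀ c' ∈ X₀, c ≠ c' → ∀ x ∈ (mp P3 (Q c)).N, ∀ y ∈ (mp P3 (Q c')).N,
      c2 * s ≤ dist x y) (hθ : 4 * θ / (5 * κ) < c2) {v : F → E3} {κw : ℝ} {a : R3}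
    (ha : ‖a‖ ≤ κw * s) (hn : κw + θ / (5 * κ) ≤ τ / 2)
    (hv : ∀ c ∈ X₀, ‖(Q c).ψ (v c)‖ ≤ 1 / (20 * 2 ^ k0)) {X : Set F} (hX : X ⊆ X₀)
    {e1 V : ℝ} (he1 : 0 ≤ e1) (hV0 : 0 ≤ V) (hV : volume Om ≤ ENNReal.ofReal V) (hka0 : 0 ≤ ka)
    (hen : (∑ k ∈ Q₀, ∫⁻ x in cel Cb (vt (2 * s) a₀ k) s, ‖Gmat G x - L k‖ₑ ^ p) ≤
      ENNReal.ofReal e1) :
    ∑' c : X, ∫⁻ x in ((Q c).tr (P3.symm a + v c)).Kc,
      ‖D3 G x - lin (trA (A c) (P3.symm a + v c))‖ₑ ^ p ≤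
      ENNReal.ofReal (2 ^ (p - 1) * (2 ^ p * e1 + (2 * ka) ^ p * V)) := by
  refine Ers_685.near_sum (ι := X) (κ := Fin 3 → ℤ) hp
    (K := fun c => ((Q c).tr (P3.symm a + v c)).Kc) (B := fun k => cel Cb (vt (2 * s) a₀ k) s)
    (fun c => measurable_Kc _) ?_
    (fun k => (Crest.Agent.R096.Fil_313.isClosed_cel _ _).measurableSet)
    (fun c => kk c) Q₀ (fun c => H.kkQ _ (hX c.2)) ?_ (L := L)
    (l := fun c => lin (trA (A c) (P3.symm a + v c))) (by positivity) hV0 he1 ?_ hen ?_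
  · intro c c' hne
    have h1 := H.disjN hκ hdist hs hθ (a3 := P3.symm a) hv (hX c.2) (hX c'.2)
      (fun h => hne (Subtype.ext h))
    exact h1.mono (Msb_432.Kc_sub_N _) (Msb_432.Kc_sub_N _)
  · intro c
    exact (Msb_432.Kc_sub_N _).trans (H.N_Om hκ hs hτ hτ4 hcel (hX c.2)
      (H.pos_le hκ ha hs hn (hX c.2) (hv _ (hX c.2))))
  · intro c w
    rw [lin_trA]
    exact H.lin_near hκ hs hLb (hX c.2) w
  · exact (H.sum_vol hFc hκ hs hτ hτ4 hcel hdist hθ ha hn hv hX).trans hV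

/-- **the cores at `a` and at the positions**: energy of the difference -/
theorem Fam.swap {p : ℝ} {G : Fin 3 → R3 → R3} {Om : Set R3} (hFc : Countable F)
    (hκ : 0 < κ) (hs : 0 < s) (hτ : 0 < τ) (hc1 : 0 < c1)
    (hτ4 : τ ≤ 1 / 4) (hcel : ∀ k ∈ Q₀, cel Cb (vt (2 * s) a₀ k) s ⊆ Om) {c2 : ℝ}
    (hdist : ∀ c ∈ X₀, ∀ c' ∈ X₀, c ≠ c' → ∀ x ∈ (mp P3 (Q c)).N, ∀ y ∈ (mp P3 (Q c')).N,
      c2 * s ≤ dist x y) (hθ : 4 * θ / (5 * κ) < c2) {v : F → E3} {κw : ℝ} {a : R3}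
    (ha : ‖a‖ ≤ κw * s) (hn : κw + θ / (5 * κ) ≤ τ / 2)
    (hv : ∀ c ∈ X₀, ‖(Q c).ψ (v c)‖ ≤ 1 / (20 * 2 ^ k0)) {X : Set F} (hX : X ⊆ X₀)
    {r V eac : ℝ} (hV0 : 0 ≤ V) (hV : volume Om ≤ ENNReal.ofReal V) (hr : θ * V ≤ c1 * r)
    (hac : ∀ T ⊆ Om, volume T ≤ ENNReal.ofReal r →
      ∫⁻ x in T, (1 + En p G x) ≤ ENNReal.ofReal eac) :
    ∫⁻ x in Om \ ⋃ c : X, ((mp P3 (Q c)).tr a).Kc, (1 + En p G x) ≤
      (∫⁻ x in Om \ ⋃ c : X, P3.symm ⁻¹' ((Q c).tr (P3.symm a + v c)).Kc, (1 + En p G x)) +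
        ENNReal.ofReal eac := by
  refine (Ers_685.core_swap (Kb := fun c : X => P3.symm ⁻¹' ((Q c).tr (P3.symm a + v c)).Kc)
    (fun x => 1 + En p G x)).trans (add_le_add le_rfl ?_)
  refine hac _ (iUnion_subset fun c => inter_subset_right) ?_
  have hb : ∀ c : X, P3.symm ⁻¹' ((Q c).tr (P3.symm a + v c)).Kc =
      ((mp P3 (Q c)).tr (a + P3 (v c))).Kc := by
    intro c
    ext y
    rw [mem_preimage, CB.mem_Kc_tr, CB.mem_Kc_tr, Tmap_212.mem_Kc_mp]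
    have : P3.symm y - (P3.symm a + v c) = P3.symm (y - (a + P3 (v c))) := by
      rw [map_sub P3.symm, map_add P3.symm, P3.symm_apply_apply]
    rw [this]
  have h1 : ∀ c : X, volume ((P3.symm ⁻¹' ((Q c).tr (P3.symm a + v c)).Kc \
      ((mp P3 (Q c)).tr a).Kc) ∩ Om) ≤
      ENNReal.ofReal (θ / c1) * volume ((Q c).tr (P3.symm a + v c)).Kc := by
    intro c
    have HB := H.blkP c (hX c.2)
    have hp0 : (0:ℝ) < 2 ^ k0 := by positivity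
    have hθ0 : 0 < θ := by
      by_contra hcon
      have h3 : θ * s ≤ 0 := mul_nonpos_of_nonpos_of_nonneg (not_lt.1 hcon) hs.le
      have h4 : (0 : ℝ) < 1 / 2 ^ k0 := by positivity
      linarith [HB.hi]
    have e1 : (mp P3 (Q c)).ψ (a + P3 (v c) - a) = (Q c).ψ (v c) := by
      rw [Tmap_212.mp_ψ, add_sub_cancel_left, P3.symm_apply_apply]
    have h2 := Crest.Agent.R096.Ksh_29.Kc_diff (mp P3 (Q c)) (v := a + P3 (v c)) (v' := a)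
      (ρ := 1 / (20 * 2 ^ k0)) (w := c1 * s) (by rw [e1]; exact hv _ (hX c.2)) (by
        intro l
        have h3 := (mp P3 (Q c)).S.lt l
        have h4 : (1:ℝ) ≤ ((mp P3 (Q c)).S.hi l : ℝ) - (mp P3 (Q c)).S.lo l := by
          have : (mp P3 (Q c)).S.lo l + 1 ≤ (mp P3 (Q c)).S.hi l := h3
          have h5 : ((mp P3 (Q c)).S.lo l : ℝ) + 1 ≤ (mp P3 (Q c)).S.hi l := by exact_mod_cast this
          linarith
        refine HB.cellL.trans ?_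
        exact div_le_div_of_nonneg_right h4 (by positivity)) (by positivity)
    have h6 : 3 * (1 / (20 * 2 ^ k0)) / (c1 * s) ≤ θ / c1 := by
      rw [div_le_div_iff₀ (by positivity) hc1]
      have h7 : 3 * (1 / (20 * (2:ℝ) ^ k0)) = 3 / 20 * (1 / 2 ^ k0) := by field_simp
      rw [h7]
      have h8 := HB.hi
      have h9 : (0:ℝ) < 1 / 2 ^ k0 := by positivity
      have h10 : 3 / 20 * (1 / 2 ^ k0) * c1 ≤ 1 * (θ * s) * c1 := by
        refine mul_le_mul_of_nonneg_right ?_ hc1.le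
        linarith
      linarith
    have h11 : volume ((mp P3 (Q c)).tr (a + P3 (v c))).Kc =
        volume ((Q c).tr (P3.symm a + v c)).Kc := by
      rw [← hb, ← vol_P3]
      congr 1
    calc _ ≤ volume (P3.symm ⁻¹' ((Q c).tr (P3.symm a + v c)).Kc \ ((mp P3 (Q c)).tr a).Kc) :=
          measure_mono inter_subset_left
      _ ≤ _ := by
          rw [hb c]
          refine h2.trans ?_
          rw [h11]
          exact mul_le_mul' (ENNReal.ofReal_le_ofReal h6) le_rfl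
  calc volume (⋃ c : X, (P3.symm ⁻¹' ((Q c).tr (P3.symm a + v c)).Kc \
      ((mp P3 (Q c)).tr a).Kc) ∩ Om)
      ≤ ∑' c : X, volume ((P3.symm ⁻¹' ((Q c).tr (P3.symm a + v c)).Kc \
      ((mp P3 (Q c)).tr a).Kc) ∩ Om) := measure_iUnion_le _
    _ ≤ ∑' c : X, ENNReal.ofReal (θ / c1) * volume ((Q c).tr (P3.symm a + v c)).Kc :=
        ENNReal.tsum_le_tsum h1
    _ = ENNReal.ofReal (θ / c1) * ∑' c : X, volume ((Q c).tr (P3.symm a + v c)).Kc :=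
        ENNReal.tsum_mul_left
    _ ≤ ENNReal.ofReal (θ / c1) * ENNReal.ofReal V := by
        gcongr
        exact (H.sum_vol hFc hκ hs hτ hτ4 hcel hdist hθ ha hn hv hX).trans hV
    _ = ENNReal.ofReal (θ / c1 * V) := by
        rw [← ENNReal.ofReal_mul' hV0]
    _ ≤ ENNReal.ofReal r := by
        apply ENNReal.ofReal_le_ofReal
        rw [div_mul_eq_mul_div, div_le_iff₀ hc1]
        linarith

end

end

end Crest.Agent.R096.Br_695
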