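import Crest.Agent.R096.Br6_695

/-!
Row 96 (S0127), p ≤ 2, helper685.  **[DISP]** of (R3) (695 #11757): the displacement.
-/

set_option autoImplicit false
set_option linter.style.longLine false
set_option linter.unusedSectionVars false
set_option linter.unusedVariables false

open MeasureTheory Set Filter Topology Metric
open scoped ENNReal NNReal

namespace Crest.Agent.R096.Dsp_685

open Crest.AnalysisR.VecCalc3 Crest.AnalysisR.Sobolev
open Crest.Agent.R096.Bsp_628 Crest.Agent.R096.Brk1_582 Crest.Agent.R096.Brk3_582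
open Crest.Agent.R096.SkC1_961 (E3 Hom3)
open Crest.Agent.R096.Er_594
open Crest.Agent.R096.ThC6_766 (Scale)
open Crest.Agent.R096.Br_695 (scale_cont)
open Crest.Agent.R96.En10_199 (P3)

noncomputable section

/-- (a) the admissible distance of `f₂` from `f` -/
theorem exists_eta2 {Om La : Set R3} (hL : IsOpen La) {f : R3 → R3} (hf : IsHomeomorphOn f Om La)
    {w : E3 → ℝ} (hw : Scale (P3 ⁻¹' La) w) {η : R3 → ℝ} (hη : ContinuousOn η Om)
    (hη0 : ∀ x ∈ Om, 0 < η x) :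
    ContinuousOn (fun x => min (η x / 4) (w (P3.symm (f x)))) Om ∧
      ∀ x ∈ Om, 0 < min (η x / 4) (w (P3.symm (f x))) := by
  obtain ⟨fi, h1, h2, h3, h4, h5, h6⟩ := hf
  refine ⟨?_, fun x hx => lt_min (by have := hη0 x hx; positivity) (hw.pos _ ?_)⟩
  · refine ContinuousOn.inf (hη.div_const 4) ?_
    exact (scale_cont hw).comp_continuousOn (P3.symm.continuous.comp_continuousOn h5)
  · show P3 (P3.symm (f x)) ∈ La
    rw [P3.apply_symm_apply]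
    exact h1 hx

/-- (b) **the displacement of `g`** -/
theorem disp {Om La : Set R3} {f f₂ : R3 → R3} {g : E3 → E3} {δ κ0 : ℝ} {F : Set (Bx (Fin 3))}
    {w : E3 → ℝ} {η : R3 → ℝ} {C : ℝ≥0} (hw : Scale (P3 ⁻¹' La) w)
    (BF : BoxFoam (P3 ⁻¹' La) F δ κ0) (hsz : ∀ c ∈ F, ∀ x ∈ c.set, c.sz ≤ w x)
    (hwη : ∀ x ∈ Om, 4 * (C * w (P3.symm (f x))) ≤ η x / 2) (hf2 : IsHomeomorphOn f₂ Om La)
    (hd : ∀ x ∈ Om, ‖f₂ x - f x‖ ≤ min (η x / 4) (w (P3.symm (f x))))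
    (g3 : ∀ x ∈ P3 ⁻¹' Om, ∀ c : F, e3 f₂ x ∈ c.1.set → ‖g x - e3 f₂ x‖ ≤ C * c.1.sz) :
    ∀ x ∈ Om, ‖r3 g x - f x‖ ≤ η x := by
  obtain ⟨fi, h1, -, -, -, -, -⟩ := hf2
  intro x hx
  have hxp : P3.symm x ∈ P3 ⁻¹' Om := by
    change P3 (P3.symm x) ∈ Om
    rwa [P3.apply_symm_apply]
  have hfx : e3 f₂ (P3.symm x) = P3.symm (f₂ x) := by
    simp only [e3, P3.apply_symm_apply]
  have hxL : e3 f₂ (P3.symm x) ∈ P3 ⁻¹' La := by
    rw [hfx]
    change P3 (P3.symm (f₂ x)) ∈ La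
    rw [P3.apply_symm_apply]
    exact h1 hx
  obtain ⟨c, hc, hxc⟩ := BF.cov _ hxL
  have e1 := g3 _ hxp ⟨c, hc⟩ hxc
  have e2 := hsz c hc _ hxc
  have e3' := norm_r3_sub_le g f₂ x
  rw [hfx] at e1 e2
  have e4 := hd x hx
  have e5 : ‖f₂ x - f x‖ ≤ η x / 4 := e4.trans (min_le_left _ _)
  have e6 : ‖f₂ x - f x‖ ≤ w (P3.symm (f x)) := e4.trans (min_le_right _ _)
  have e7 := hw.lip (P3.symm (f₂ x)) (P3.symm (f x))
  have e8 : ‖P3.symm (f₂ x) - P3.symm (f x)‖ ≤ ‖f₂ x - f x‖ := by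
    rw [← map_sub]
    exact norm_P3_symm_le _
  have e9 : w (P3.symm (f₂ x)) ≤ 9 / 8 * w (P3.symm (f x)) := by linarith
  have e10 : (C : ℝ) * c.sz ≤ C * (9 / 8 * w (P3.symm (f x))) :=
    mul_le_mul_of_nonneg_left (e2.trans e9) C.2
  have e11 := hwη x hx
  have e12 : 0 ≤ (C : ℝ) * w (P3.symm (f x)) := mul_nonneg C.2 (hw.nonneg _)
  have e13 : ‖g (P3.symm x) - e3 f₂ (P3.symm x)‖ ≤ C * (9 / 8 * w (P3.symm (f x))) := by
    rw [hfx]
    exact e1.trans e10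
  have e14 : ‖r3 g x - f₂ x‖ ≤ 2 * ‖g (P3.symm x) - e3 f₂ (P3.symm x)‖ := e3'
  have e15 : r3 g x - f x = (r3 g x - f₂ x) + (f₂ x - f x) := by abel
  rw [e15]
  refine (norm_add_le _ _).trans ?_
  have hη : 0 ≤ η x / 2 := by linarith
  linarith

end

end Crest.Agent.R096.Dsp_685
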