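import Crest.Agent.R096.Bxs7_627

/-!
Row 96 (S0127), helper627.  BOXES, part 8: the core statement in `E3`, stability under perturbation of the
affine map, rational affine maps, `Exact` for a perturbed (rational) map.
-/

set_option autoImplicit false
set_option linter.unusedSectionVars false
set_option linter.style.longLine false
set_option linter.unusedVariables false

open MeasureTheory Set Filter Topology Metric

namespace Crest.Agent.R096.Bxs_627

open Crest.AnalysisR.VecCalc3 Crest.AnalysisR.Sobolev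
open Crest.Agent.R096.Bsp_628 Crest.Agent.R96.Push_899 Crest.Agent.R96.En10_199
open Crest.Agent.R096.Brk5_582 Crest.Agent.R096.Msh_715

noncomputable section

/-- `CoriE`: the core statement in `E3`. -/
def CoriE (Om : Set E3) (f A : E3 → E3) (Q : Bx (Fin 3)) (lam κ1 κ2 : ℝ) : Prop :=
  ∀ x : E3, (x ∈ Om ∧ ∀ k, |f x k - ctr Q k| ≤ lam * Q.side k / 2) ∨
      (∀ k, |A x k - ctr Q k| ≤ (1 / 2 + κ2) * (lam * Q.side k)) →
      x ∈ Om ∧ ‖f x - A x‖ ≤ κ1 * (lam * Q.sz)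

theorem Cori.toE {Om : Set R3} {f A : R3 → R3} {Q : Bx (Fin 3)} {lam κ1 κ2 : ℝ}
    (h : Cori Om f A Q lam κ1 κ2) : CoriE (P3 ⁻¹' Om) (m3 f) (m3 A) Q lam κ1 κ2 := h

/-- stability of the core statement under perturbation of the affine map -/
theorem CoriE.pert {Om : Set E3} {f : E3 → E3} {A : E3 ≃ᵃ[ℝ] E3} {Q : Bx (Fin 3)} (hQ : Q.Pos)
    {lam κ1 κ2 κ1' κ2' : ℝ} (hl : 0 < lam) (hl1 : lam ≤ 1) (h1 : κ1 < κ1') (h10 : 0 ≤ κ1)
    (h2 : κ2' < κ2) (h : CoriE Om f A Q lam κ1 κ2) :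
    ∃ ε : ℝ, 0 < ε ∧ ∀ A' : E3 → E3, (∀ x, ‖A' x - A x‖ ≤ ε * (1 + ‖x‖)) →
      CoriE Om f A' Q lam κ1' κ2' := by
  have hs := Bx.sz_pos hQ
  -- a bound for the inverse
  obtain ⟨K, hK, hA⟩ : ∃ K : ℝ, 0 < K ∧ ∀ x : E3, ‖x‖ ≤ K * (1 + ‖A x - ctr Q‖) := by
    set B := A.symm.linear.toContinuousLinearMap with hB
    refine ⟨‖B‖ + ‖A.symm (ctr Q)‖ + 1, by positivity, fun x => ?_⟩
    have e : x = B (A x - ctr Q) + A.symm (ctr Q) := by
      have h3 : A.symm (A x) - A.symm (ctr Q) = A.symm.linear (A x - ctr Q) := by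
        have := A.symm.toAffineMap.linearMap_vsub (A x) (ctr Q)
        rw [vsub_eq_sub, vsub_eq_sub] at this
        exact this.symm
      rw [A.symm_apply_apply] at h3
      have h4 : B (A x - ctr Q) = A.symm.linear (A x - ctr Q) := rfl
      rw [h4, ← h3]
      abel
    have h5 : ‖x‖ ≤ ‖B‖ * ‖A x - ctr Q‖ + ‖A.symm (ctr Q)‖ := by
      calc ‖x‖ = ‖B (A x - ctr Q) + A.symm (ctr Q)‖ := by rw [← e]
        _ ≤ ‖B (A x - ctr Q)‖ + ‖A.symm (ctr Q)‖ := norm_add_le _ _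
        _ ≤ _ := by gcongr; exact B.le_opNorm _
    have h6 := norm_nonneg (A x - ctr Q)
    have h7 := norm_nonneg B
    have h8 := norm_nonneg (A.symm (ctr Q))
    nlinarith
  -- the smallest side
  obtain ⟨s0, hs0, hs0'⟩ : ∃ s0 : ℝ, 0 < s0 ∧ ∀ k, s0 ≤ Q.side k := by
    refine ⟨min (Q.side 0) (min (Q.side 1) (Q.side 2)), ?_, fun k => ?_⟩
    · exact lt_min (Bx.side_pos hQ 0) (lt_min (Bx.side_pos hQ 1) (Bx.side_pos hQ 2))
    · fin_cases k
      · exact min_le_left _ _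
      · exact (min_le_right _ _).trans (min_le_left _ _)
      · exact (min_le_right _ _).trans (min_le_right _ _)
  -- size of the relevant region
  set D : ℝ := (2 + |κ2| + κ1 + |κ2'|) * Q.sz with hD
  have hD0 : 0 < D := by positivity
  set M : ℝ := 1 + 2 * K * (1 + D) with hM
  have hM0 : 0 < M := by positivity
  set m : ℝ := min ((κ1' - κ1) * (lam * Q.sz)) ((κ2 - κ2') * (lam * s0)) with hm
  have hm0 : 0 < m := lt_min (by have := sub_pos.2 h1; positivity)
    (by have := sub_pos.2 h2; positivity)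
  set ε : ℝ := min (m / (2 * M)) (min (1 / (2 * K)) (1 / 2)) with hε
  have hε0 : 0 < ε := lt_min (by positivity) (lt_min (by positivity) (by norm_num))
  have e1 : ε * (2 * M) ≤ m := by
    have : ε ≤ m / (2 * M) := min_le_left _ _
    rwa [le_div_iff₀ (by positivity)] at this
  have e2 : ε * K ≤ 1 / 2 := by
    have : ε ≤ 1 / (2 * K) := (min_le_right _ _).trans (min_le_left _ _)
    rw [le_div_iff₀ (by positivity)] at this
    linarith
  refine ⟨ε, hε0, fun A' hA' x hx => ?_⟩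
  -- norms of coordinates
  have key : ∀ (u : E3) (b : ℝ), 0 ≤ b → (∀ k, |u k - ctr Q k| ≤ b * (lam * Q.side k)) →
      ‖u - ctr Q‖ ≤ b * Q.sz := by
    intro u b hb hu
    rw [pi_norm_le_iff_of_nonneg (by positivity)]
    intro k
    rw [Pi.sub_apply, Real.norm_eq_abs]
    refine (hu k).trans (mul_le_mul_of_nonneg_left ?_ hb)
    have h3 := Q.side_le_sz k
    have h4 := (Bx.side_pos hQ k).le
    calc lam * Q.side k ≤ 1 * Q.side k := mul_le_mul_of_nonneg_right hl1 h4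
      _ ≤ Q.sz := by linarith
  -- closeness at points with `A x` near the centre
  have near : ∀ x : E3, ‖A x - ctr Q‖ ≤ 1 + 2 * D → ‖x‖ ≤ 2 * K * (1 + D) →
      ‖A' x - A x‖ ≤ m := by
    intro x _ h4
    refine (hA' x).trans (le_trans ?_ e1)
    refine mul_le_mul_of_nonneg_left ?_ hε0.le
    rw [hM]
    have : 0 ≤ 2 * K * (1 + D) := by positivity
    linarith
  rcases hx with ⟨hxo, hx⟩ | hx
  · obtain ⟨_, h4⟩ := h x (Or.inl ⟨hxo, hx⟩)
    refine ⟨hxo, ?_⟩
    have h5 := key (f x) (1 / 2) (by norm_num) (fun k => by have := hx k; linarith)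
    have h6 : ‖A x - ctr Q‖ ≤ D := by
      have e : A x - ctr Q = (f x - ctr Q) - (f x - A x) := by abel
      rw [e]
      refine (norm_sub_le _ _).trans ?_
      have h7 : κ1 * (lam * Q.sz) ≤ κ1 * Q.sz := by
        refine mul_le_mul_of_nonneg_left ?_ h10
        calc lam * Q.sz ≤ 1 * Q.sz := mul_le_mul_of_nonneg_right hl1 hs.le
          _ = Q.sz := one_mul _
      rw [hD]
      have := abs_nonneg κ2
      have := abs_nonneg κ2'
      nlinarith
    have h7 : ‖x‖ ≤ 2 * K * (1 + D) := by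
      refine (hA x).trans ?_
      nlinarith
    have h8 := near x (by linarith) h7
    calc ‖f x - A' x‖ = ‖(f x - A x) - (A' x - A x)‖ := by congr 1; abel
      _ ≤ ‖f x - A x‖ + ‖A' x - A x‖ := norm_sub_le _ _
      _ ≤ κ1 * (lam * Q.sz) + (κ1' - κ1) * (lam * Q.sz) :=
        add_le_add h4 (h8.trans (min_le_left _ _))
      _ = κ1' * (lam * Q.sz) := by ring
  · -- `A' x` near the centre
    have h5 : ‖A' x - ctr Q‖ ≤ (1 / 2 + |κ2'|) * Q.sz := by
      refine key (A' x) (1 / 2 + |κ2'|) (by positivity) (fun k => (hx k).trans ?_)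
      have h4 := (Bx.side_pos hQ k).le
      exact mul_le_mul_of_nonneg_right (by linarith [le_abs_self κ2']) (by positivity)
    have h6 : ‖A x - ctr Q‖ ≤ D + ε * (1 + ‖x‖) := by
      have e : A x - ctr Q = (A' x - ctr Q) - (A' x - A x) := by abel
      rw [e]
      refine (norm_sub_le _ _).trans (add_le_add (h5.trans ?_) (hA' x))
      rw [hD]
      have := abs_nonneg κ2
      nlinarith
    have h7 : ‖x‖ ≤ 2 * K * (1 + D) + 1 := by
      have h8 := hA x
      have h9 : K * (ε * (1 + ‖x‖)) ≤ 1 / 2 * (1 + ‖x‖) := by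
        have := norm_nonneg x
        calc K * (ε * (1 + ‖x‖)) = ε * K * (1 + ‖x‖) := by ring
          _ ≤ _ := mul_le_mul_of_nonneg_right e2 (by positivity)
      have h10 : K * (1 + ‖A x - ctr Q‖) ≤ K * (1 + (D + ε * (1 + ‖x‖))) := by gcongr
      nlinarith
    have h8 : ‖A' x - A x‖ ≤ m := by
      refine (hA' x).trans (le_trans ?_ e1)
      rw [hM]
      have h9 : 1 + ‖x‖ ≤ 2 * (1 + 2 * K * (1 + D)) := by
        have : 0 ≤ 2 * K * (1 + D) := by positivity
        linarith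
      exact mul_le_mul_of_nonneg_left h9 hε0.le
    obtain ⟨h9, h10⟩ := h x (Or.inr fun k => by
      have h11 : |A x k - A' x k| ≤ (κ2 - κ2') * (lam * s0) := by
        have h12 : |(A' x - A x) k| ≤ m := by
          rw [← Real.norm_eq_abs]
          exact (norm_le_pi_norm _ k).trans h8
        rw [Pi.sub_apply, abs_sub_comm] at h12
        exact h12.trans (min_le_right _ _)
      have h13 : A x k - ctr Q k = (A x k - A' x k) + (A' x k - ctr Q k) := by ring
      rw [h13]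
      refine (abs_add_le _ _).trans ((add_le_add h11 (hx k)).trans ?_)
      have h14 : lam * s0 ≤ lam * Q.side k := mul_le_mul_of_nonneg_left (hs0' k) hl.le
      have h15 : 0 ≤ κ2 - κ2' := by linarith
      nlinarith [mul_le_mul_of_nonneg_left h14 h15])
    refine ⟨h9, ?_⟩
    calc ‖f x - A' x‖ = ‖(f x - A x) - (A' x - A x)‖ := by congr 1; abel
      _ ≤ ‖f x - A x‖ + ‖A' x - A x‖ := norm_sub_le _ _
      _ ≤ κ1 * (lam * Q.sz) + (κ1' - κ1) * (lam * Q.sz) :=
        add_le_add h10 (h8.trans (min_le_left _ _))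
      _ = κ1' * (lam * Q.sz) := by ring

/-- rational affine maps are dense -/
theorem exists_rat_aff (A : E3 ≃ᵃ[ℝ] E3) {ε : ℝ} (hε : 0 < ε) :
    ∃ (q : Fin 3 → Fin 3 → ℚ) (b : Fin 3 → ℚ) (A' : E3 ≃ᵃ[ℝ] E3),
      (∀ x k, A' x k = ∑ l, (q k l : ℝ) * x l + b k) ∧ ∀ x, ‖A' x - A x‖ ≤ ε * (1 + ‖x‖) := by
  classical
  -- the matrix of the linear part
  set M : Matrix (Fin 3) (Fin 3) ℝ := LinearMap.toMatrix' (A.linear : E3 →ₗ[ℝ] E3) with hM
  have hdet : M.det ≠ 0 := by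
    have h1 : IsUnit (LinearMap.det (A.linear : E3 →ₗ[ℝ] E3)) := A.linear.isUnit_det'
    rw [hM, LinearMap.det_toMatrix']
    exact h1.ne_zero
  have hMx : ∀ x k, A.linear x k = ∑ l, M k l * x l := by
    intro x k
    have h1 := LinearMap.toMatrix'_mulVec (A.linear : E3 →ₗ[ℝ] E3) x
    have h2 := congrFun h1 k
    rw [Matrix.mulVec] at h2
    exact h2.symm
  -- rational matrices near `M`
  have hd1 : DenseRange (fun q : ℚ => (q : ℝ)) := Rat.denseRange_cast
  have hd : ∀ k l, ∃ q : ℚ, |(q : ℝ) - M k l| < 1 := fun k l => by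
    obtain ⟨q, hq⟩ := hd1.exists_dist_lt (M k l) one_pos
    exact ⟨q, by rw [dist_comm, Real.dist_eq] at hq; exact hq⟩
  obtain ⟨r, hr, hrM⟩ : ∃ r > 0, ∀ N : Fin 3 → Fin 3 → ℝ, (∀ k l, |N k l - M k l| < r) →
      (Matrix.of N).det ≠ 0 := by
    have hc : Continuous fun N : Fin 3 → Fin 3 → ℝ => (Matrix.of N).det := by
      simp only [Matrix.det_fin_three, Matrix.of_apply]
      fun_prop
    have hU1 : IsOpen {N : Fin 3 → Fin 3 → ℝ | (Matrix.of N).det ≠ 0} := isOpen_ne.preimage hc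
    set M' : Fin 3 → Fin 3 → ℝ := fun k l => M k l with hM'
    have hM1 : Matrix.of M' = M := rfl
    obtain ⟨r, hr, hb⟩ := Metric.isOpen_iff.1 hU1 M' (by
      show (Matrix.of M').det ≠ 0
      rw [hM1]; exact hdet)
    refine ⟨r, hr, fun N hN => hb ?_⟩
    refine (mem_ball (x := M') (y := N)).2 ((dist_pi_lt_iff hr).2 fun k => (dist_pi_lt_iff hr).2 fun l => ?_)
    rw [Real.dist_eq]
    exact hN k l
  have hm : 0 < min r (ε / 3) := lt_min hr (by positivity)
  choose q hq using fun k l => hd1.exists_dist_lt (M k l) hm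
  choose b hb using fun k => hd1.exists_dist_lt (A 0 k) hε
  set N : Matrix (Fin 3) (Fin 3) ℝ := Matrix.of fun k l => (q k l : ℝ) with hN
  have hNd : N.det ≠ 0 := hrM N fun k l => by
    have := hq k l
    rw [dist_comm, Real.dist_eq] at this
    exact this.trans_le (min_le_left _ _)
  have hinv : Invertible N := Matrix.invertibleOfIsUnitDet N (isUnit_iff_ne_zero.2 hNd)
  set L : E3 ≃ₗ[ℝ] E3 := Matrix.toLinearEquiv' N hinv
  have hL : ∀ x k, L x k = ∑ l, (q k l : ℝ) * x l := fun x k => rfl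
  have hA' : ∀ x k, (L.toAffineEquiv.trans (AffineEquiv.constVAdd ℝ E3 (fun k => (b k : ℝ)))) x k
      = ∑ l, (q k l : ℝ) * x l + b k := by
    intro x k
    show (b k : ℝ) + L x k = _
    rw [hL, add_comm]
  refine ⟨q, b, L.toAffineEquiv.trans (AffineEquiv.constVAdd ℝ E3 (fun k => (b k : ℝ))), hA', ?_⟩
  intro x
  rw [pi_norm_le_iff_of_nonneg (by positivity)]
  intro k
  have e1 : A x k = ∑ l, M k l * x l + A 0 k := by
    have h3 : A x - A 0 = A.linear (x - 0) := by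
      have := A.toAffineMap.linearMap_vsub x 0
      rw [vsub_eq_sub, vsub_eq_sub] at this
      exact this.symm
    have h4 := congrFun h3 k
    rw [Pi.sub_apply, sub_zero, hMx] at h4
    linarith
  rw [Pi.sub_apply, Real.norm_eq_abs, hA', e1]
  have e2 : ∑ l, (q k l : ℝ) * x l + b k - (∑ l, M k l * x l + A 0 k)
      = ∑ l, ((q k l : ℝ) - M k l) * x l + (b k - A 0 k) := by
    simp only [Fin.sum_univ_three]
    ring
  rw [e2]
  have e3 : |∑ l, ((q k l : ℝ) - M k l) * x l| ≤ ∑ l : Fin 3, ε / 3 * ‖x‖ := by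
    refine (Finset.abs_sum_le_sum_abs _ _).trans (Finset.sum_le_sum fun l _ => ?_)
    rw [abs_mul]
    refine mul_le_mul ?_ ?_ (abs_nonneg _) (by positivity)
    · have := hq k l
      rw [dist_comm, Real.dist_eq] at this
      exact (this.le.trans (min_le_right _ _))
    · rw [← Real.norm_eq_abs]
      exact norm_le_pi_norm x l
  have e4 : |(b k : ℝ) - A 0 k| ≤ ε := by
    have := hb k
    rw [dist_comm, Real.dist_eq] at this
    exact this.le
  rw [Finset.sum_const, Finset.card_univ, Fintype.card_fin, nsmul_eq_mul] at e3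
  refine (abs_add_le _ _).trans ((add_le_add e3 e4).trans ?_)
  push_cast
  linarith

/-- a rational core near a given one -/
theorem CoriE.rat {Om : Set E3} {f : E3 → E3} {A : E3 ≃ᵃ[ℝ] E3} {Q : Bx (Fin 3)} (hQ : Q.Pos)
    {lam κ1 κ2 κ1' κ2' : ℝ} (hl : 0 < lam) (hl1 : lam ≤ 1) (h1 : κ1 < κ1') (h10 : 0 ≤ κ1)
    (h2 : κ2' < κ2) (h : CoriE Om f A Q lam κ1 κ2) {ε : ℝ} (hε : 0 < ε) :
    ∃ (q : Fin 3 → Fin 3 → ℚ) (b : Fin 3 → ℚ) (A' : E3 ≃ᵃ[ℝ] E3),
      (∀ x k, A' x k = ∑ l, (q k l : ℝ) * x l + b k) ∧ (∀ x, ‖A' x - A x‖ ≤ ε * (1 + ‖x‖)) ∧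
      CoriE Om f A' Q lam κ1' κ2' := by
  obtain ⟨ε', hε', h'⟩ := h.pert hQ hl hl1 h1 h10 h2
  obtain ⟨q, b, A', hA, hA'⟩ := exists_rat_aff A (lt_min hε hε')
  refine ⟨q, b, A', hA, fun x => (hA' x).trans ?_, h' _ fun x => (hA' x).trans ?_⟩
  · have := norm_nonneg x
    exact mul_le_mul_of_nonneg_right (min_le_left _ _) (by positivity)
  · have := norm_nonneg x
    exact mul_le_mul_of_nonneg_right (min_le_right _ _) (by positivity)

/-- `f` maps the closed core into the open brick -/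
theorem CoriE.sub {Om : Set E3} {f A : E3 → E3} {Q : Bx (Fin 3)} (hQ : Q.Pos) {lam κ1 κ2 : ℝ}
    (hl : 0 < lam) (h0 : 0 ≤ κ2) (hκ : ∀ k, κ1 * (lam * Q.sz) ≤ κ2 * (lam * Q.side k))
    (hlκ : (1 / 2 + κ2) * lam < 1 / 2) (h : CoriE Om f A Q lam κ1 κ2) (x : E3)
    (hx : ∀ k, zz Q lam k + lam * Q.lo k ≤ A x k ∧ A x k ≤ zz Q lam k + lam * Q.hi k) (k : Fin 3) :
    Q.lo k < f x k ∧ f x k < Q.hi k := by
  have h1 : ∀ k, |A x k - ctr Q k| ≤ lam * Q.side k / 2 := by
    intro k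
    have h3 := hx k
    rw [zz_lo, zz_hi] at h3
    rw [abs_le]
    constructor <;> linarith [h3.1, h3.2]
  have h2 := (h x (Or.inr fun k => (h1 k).trans (by
    have h3 : 0 ≤ κ2 * (lam * Q.side k) := mul_nonneg h0 (mul_pos hl (Bx.side_pos hQ k)).le
    linarith))).2
  have h3 := norm_le_pi_norm (f x - A x) k
  rw [Pi.sub_apply, Real.norm_eq_abs] at h3
  have h4 := abs_le.1 (h3.trans (h2.trans (hκ k)))
  have h5 := abs_le.1 (h1 k)
  have h6 := Bx.side_pos hQ k
  have h7 : (1 / 2 + κ2) * lam * Q.side k < 1 / 2 * Q.side k := mul_lt_mul_of_pos_right hlκ h6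
  have h8 := ctr_lo Q k
  have h9 := ctr_hi Q k
  constructor <;> nlinarith [h4.1, h4.2, h5.1, h5.2]

variable {La : Set E3} {F : Set (Bx (Fin 3))} {δ κ0 R c0 : ℝ}

/-- **`Exact`** for a brick of `fD`, from `CoriE`. -/
theorem CoriE.exact (bf : BoxFoam La F δ κ0) (cmp : Cmp F R) (hκ : 1 ≤ κ0) (hc : 0 < c0)
    (hc2 : c0 * κ0 ≤ 1) (lam : F → ℝ) (hl : ∀ c, c0 ≤ lam c) (hl1 : ∀ c, lam c < 1)
    {Om : Set E3} {f : E3 → E3} {κ1 κ2 : ℝ} (h2 : κ2 ≤ 1 / 4) (hκ1 : 0 ≤ κ1) (hκ12 : κ1 * κ0 ≤ κ2)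
    {ι : Type} {T : Tiling Om ι} {c : F} {i : ι} {A : E3 ≃ᵃ[ℝ] E3}
    (hcor : CoriE Om f A c.1 (lam c) κ1 κ2)
    (htile : P (T.H i) = A ⁻¹' {y | ∀ k, zz c.1 (lam c) k + lam c * c.1.lo k ≤ y k ∧
      y k ≤ zz c.1 (lam c) k + lam c * c.1.hi k}) :
    SkC1_961.Exact (fD bf cmp hκ hc hc2 lam hl hl1) T f κ1 κ2 c i A (lam c) (zz c.1 (lam c)) := by
  have hpos := bf.pos _ c.2
  have hlc : 0 < lam c := hc.trans_le (hl c)
  have hcl := cl_nbd_miss hpos hlc h2 (fun k => by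
    have h3 := bf.asp _ c.2 k
    have h4 : 0 ≤ lam c * c.1.side k := (mul_pos hlc (Bx.side_pos hpos k)).le
    calc κ1 * (lam c * c.1.sz) ≤ κ1 * (lam c * (κ0 * c.1.side k)) := by gcongr
      _ = κ1 * κ0 * (lam c * c.1.side k) := by ring
      _ ≤ κ2 * (lam c * c.1.side k) := mul_le_mul_of_nonneg_right hκ12 h4) hcor
  exact
    { lam0 := hlc
      lam1 := hl1 c
      box_in := cl_box_in hpos (hl1 c)
      hole := cl_hole hpos hlc h2
      ray := fun y hy hy' => pus_ray hpos hlc (hl1 c) y hy hy'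
      tile := htile
      nbd := hcl.1
      miss := fun x hx hxt => hcl.2 x hx (fun h => hxt (by
        rw [htile]
        exact h)) }

end

end Crest.Agent.R096.Bxs_627
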