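import Crest.Agent.R096.Br1_695
import Crest.Agent.R096.Core2_124
import Crest.Agent.R096.EaX1_766
import Crest.Agent.R096.Bxs8_627
import Crest.Agent.R096.Fil2_313

/-!
Row 96 (S0127), helper695.  **Good cubes in `E3`**: rational affine maps, no intruders.
-/

set_option autoImplicit false
set_option linter.unusedSectionVars false
set_option linter.style.longLine false

open MeasureTheory Set Filter Metric Module
open scoped ENNReal NNReal Topology

namespace Crest.Agent.R096.Br_695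

open Crest.AnalysisR.VecCalc3 Crest.AnalysisR.Sobolev
open Crest.Agent.R96.Lu_538 Crest.Agent.R96.Intr_538
open Crest.Agent.R96.Coarse_538 hiding E3
open Crest.Agent.R096.Sk_962 (SH)
open Crest.Agent.R096.Bsp_628
open Crest.Agent.R096.Bxs_627 hiding E3
open Crest.Agent.R96.En10_199
open Crest.Agent.R096.SkC1_961 (E3 Hom3)
open Crest.Agent.R096.Er_594 (e3 D3)
open Crest.Agent.R096.EaX_766 (cbx lin RatA)
open Crest.Agent.R096.Fil_313 (aff3 affR)

noncomputable section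

/-- **NO INTRUDERS** for a `C⁰`-good cube. -/
theorem noint3 {Om La : Set E3} (hL : IsOpen La) {f : E3 → E3} (hf : Hom3 f Om La) {z : E3}
    {s σ η K : ℝ} (hs : 0 < s) (hσ : 0 < σ) (hσ1 : 3 * σ ≤ 1) {A : E3 ≃ᵃ[ℝ] E3} (hK : 0 < K)
    (hA : ∀ y y', ‖A.symm y - A.symm y'‖ ≤ K * ‖y - y'‖) (hsub : closedBall z s ⊆ Om)
    (hη : K * η < σ) (hc : ∀ x ∈ closedBall z ((1 - σ) * s), ‖f x - A x‖ ≤ η * s) :
    ∀ x ∈ Om, f x ∈ A '' closedBall z ((1 - 2 * σ) * s) → x ∈ closedBall z ((1 - σ) * s) := by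
  have hs1 : 0 < (1 - σ) * s := mul_pos (by linarith) hs
  have hs2 : 0 < (1 - 2 * σ) * s := mul_pos (by linarith) hs
  obtain ⟨g, h1, h2, h3, h4, h5, h6⟩ := hf
  have hinj : InjOn f Om := by
    intro x hx y hy hxy
    rw [← h3 x hx, ← h3 y hy, hxy]
  set K0 := closedBall z ((1 - σ) * s) with hK0
  have hKO : K0 ⊆ Om := (closedBall_subset_closedBall (by nlinarith)).trans hsub
  have hKc : IsCompact K0 := isCompact_closedBall _ _
  have hUi : ball z ((1 - σ) * s) ⊆ interior K0 := interior_maximal ball_subset_closedBall isOpen_ball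
  have hopen : IsOpen (f '' interior K0) := by
    have h7 : f '' interior K0 = La ∩ g ⁻¹' interior K0 := by
      ext y
      constructor
      · rintro ⟨x, hx, rfl⟩
        have hxO := hKO (interior_subset hx)
        exact ⟨h1 hxO, by rw [mem_preimage, h3 x hxO]; exact hx⟩
      · rintro ⟨hy, hy2⟩
        exact ⟨g y, hy2, h4 y hy⟩
    rw [h7]
    exact h6.isOpen_inter_preimage hL isOpen_interior
  have hconv : IsPreconnected (A '' closedBall z ((1 - 2 * σ) * s)) :=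
    (convex_closedBall z _).isPreconnected.image _
      (A.continuous_of_finiteDimensional).continuousOn
  have key : ∀ x u : E3, x ∈ K0 → f x = A u → ‖x - u‖ < σ * s := by
    intro x u hx hu
    have e1 := hA (A x) (A u)
    rw [A.symm_apply_apply, A.symm_apply_apply] at e1
    have e2 := hc x hx
    have e3 : ‖A x - A u‖ ≤ η * s := by
      rw [← hu, norm_sub_rev]; exact e2
    calc ‖x - u‖ ≤ K * (η * s) := e1.trans (mul_le_mul_of_nonneg_left e3 hK.le)
      _ = K * η * s := by ring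
      _ < σ * s := mul_lt_mul_of_pos_right hη hs
  have hdis : ∀ x ∈ K0, x ∉ interior K0 → f x ∉ A '' closedBall z ((1 - 2 * σ) * s) := by
    rintro x hx hxi ⟨u, hu, hux⟩
    have e1 : (1 - σ) * s ≤ ‖x - z‖ := by
      by_contra hno
      push Not at hno
      exact hxi (hUi (by rw [mem_ball, dist_eq_norm]; exact hno))
    have e2 := key x u hx hux.symm
    rw [mem_closedBall, dist_eq_norm] at hu
    have e3 : ‖x - z‖ ≤ ‖x - u‖ + ‖u - z‖ := norm_sub_le_norm_sub_add_norm_sub x u z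
    nlinarith
  have hne : (A '' closedBall z ((1 - 2 * σ) * s) ∩ f '' interior K0).Nonempty := by
    have hz : z ∈ interior K0 := hUi (mem_ball_self hs1)
    refine ⟨f z, ⟨A.symm (f z), ?_, A.apply_symm_apply _⟩, mem_image_of_mem f hz⟩
    have e2 := key z (A.symm (f z)) (interior_subset hz) (A.apply_symm_apply _).symm
    rw [mem_closedBall, dist_eq_norm, norm_sub_rev]
    nlinarith
  intro x hx hxP
  exact interior_subset
    (Crest.Agent.R096.Core_124.no_intruders hinj hKO hKc (h5.mono hKO) hopen hconv hdis hne x hx hxP)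

theorem cbx_eq_bxc (Q : Bx (Fin 3)) (lam : ℝ) :
    cbx Q lam = Crest.Agent.R096.Fil_313.bxc Q lam (zz Q lam) := by
  ext y
  simp only [cbx, Crest.Agent.R096.Fil_313.bxc, mem_ofPred_eq]
  refine forall_congr' fun k => ?_
  rw [zz_lo, zz_hi, abs_le]
  constructor
  · rintro ⟨h1, h2⟩; constructor <;> linarith
  · rintro ⟨h1, h2⟩; constructor <;> linarith

theorem cbx_mono {Q : Bx (Fin 3)} (hQ : Q.Pos) {l l' : ℝ} (h : l ≤ l') : cbx Q l ⊆ cbx Q l' := by
  intro y hy k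
  refine (hy k).trans ?_
  have := (Bx.side_pos hQ k).le
  have := mul_le_mul_of_nonneg_right h this
  linarith

theorem cbx_one_sub {Q : Bx (Fin 3)} {l : ℝ} (hQ : Q.Pos) (h : l ≤ 1) : cbx Q l ⊆ Q.set := by
  intro y hy
  rw [Bx.mem_set]
  intro k
  have h1 := abs_le.1 (cbx_mono hQ h hy k)
  have h2 := ctr_lo Q k
  have h3 := ctr_hi Q k
  constructor <;> linarith [h1.1, h1.2]

theorem ctr_mem_cbx {Q : Bx (Fin 3)} (hQ : Q.Pos) {l : ℝ} (hl : 0 ≤ l) : ctr Q ∈ cbx Q l := by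
  intro k
  rw [sub_self, abs_zero]
  have := (Bx.side_pos hQ k).le
  positivity

/-- the difference of two affine maps which are close on a bounded set -/
theorem lin_sub_le {A B : E3 ≃ᵃ[ℝ] E3} {ε : ℝ} (hε : 0 ≤ ε)
    (h : ∀ x, ‖A x - B x‖ ≤ ε * (1 + ‖x‖)) : ‖lin A - lin B‖ ≤ 3 * ε := by
  refine ContinuousLinearMap.opNorm_le_of_unit_norm (by positivity) ?_
  intro v hv
  have e1 : ∀ (C : E3 ≃ᵃ[ℝ] E3), lin C v = C v - C 0 := by
    intro C
    have := C.toAffineMap.linearMap_vsub v 0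
    rw [vsub_eq_sub, vsub_eq_sub, sub_zero] at this
    exact this
  have e2 : (lin A - lin B) v = (A v - B v) - (A 0 - B 0) := by
    rw [sub_apply, e1, e1]; abel
  rw [e2]
  have h1 := h v
  have h2 := h 0
  rw [hv] at h1
  rw [norm_zero] at h2
  refine (norm_sub_le _ _).trans ?_
  linarith

theorem lin_apply (A : E3 ≃ᵃ[ℝ] E3) (x y : E3) : lin A (x - y) = A x - A y := by
  have := A.toAffineMap.linearMap_vsub x y
  rw [vsub_eq_sub, vsub_eq_sub] at this
  exact this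

/-- **good cube in `E3`, rational affine map** -/
structure GR (p : ℝ) (f : E3 → E3) (D : E3 → E3 →L[ℝ] E3) (N η σ s r : ℝ) (z : E3) (K' : Set E3)
    (A : E3 ≃ᵃ[ℝ] E3) : Prop where
  rat : RatA 0 1 A
  inv : ∀ y y', ‖A.symm y - A.symm y'‖ ≤ N * ‖y - y'‖
  nrm : ‖lin A‖ ≤ N
  c0 : ∀ x ∈ closedBall z ((1 - σ) * s), ‖f x - A x‖ ≤ η * s
  img : ∀ x ∈ closedBall z s, ∃ y ∈ K', ‖A x - y‖ ≤ r
  lp : ∫⁻ x in closedBall z s, ‖D x - lin A‖ₑ ^ p ≤ ENNReal.ofReal (η * s ^ 3)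

theorem gr_of_gb {p : ℝ} (hp : 1 ≤ p) {f : R3 → R3} {G : Fin 3 → R3 → R3} {κ η σ s : ℝ} {z b : R3}
    {L : R3 →L[ℝ] R3} (hκ : 0 < κ) (hκ1 : κ ≤ 1) (hη : 0 < η) (hs : 0 < s) (hσ : 0 < σ)
    (hσ1 : σ < 1) (h : GB p f G κ η σ s z b L) {K' : Set R3} (hK' : par Cb L b s ⊆ K') {r : ℝ}
    (hr : 0 < r) :
    ∃ A, GR p (e3 f) (D3 G) (4 / κ) (4 ^ p * η) σ s r (P3.symm z) (P3 ⁻¹' K') A := by
  have hp0 : 0 ≤ p := by linarith
  have hs1 : 0 < (1 - σ) * s := mul_pos (by linarith) hs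
  set z3 : E3 := P3.symm z with hz3
  set A0 : E3 ≃ᵃ[ℝ] E3 := aff3 L hκ h.low z b with hA0
  set Y : ℝ := 1 + ‖z3‖ + s with hY
  have hY0 : 0 < Y := by positivity
  set ε : ℝ := min (κ / 12) (min (η * s / Y) (min (r / Y) (η / 24))) with hε
  have hε0 : 0 < ε := by positivity
  have e1 : 3 * ε ≤ κ / 4 := by
    have : ε ≤ κ / 12 := min_le_left _ _
    linarith
  have e2 : ε * Y ≤ η * s := by
    have : ε ≤ η * s / Y := (min_le_right _ _).trans (min_le_left _ _)
    rwa [le_div_iff₀ hY0] at this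
  have e3' : ε * Y ≤ r := by
    have : ε ≤ r / Y := (min_le_right _ _).trans ((min_le_right _ _).trans (min_le_left _ _))
    rwa [le_div_iff₀ hY0] at this
  have e4 : 24 * ε ≤ η := by
    have : ε ≤ η / 24 := (min_le_right _ _).trans ((min_le_right _ _).trans (min_le_right _ _))
    linarith
  obtain ⟨q, v, A, hAq, hAc⟩ := exists_rat_aff A0 hε0
  have hlin : ‖lin A - lin A0‖ ≤ 3 * ε := lin_sub_le hε0.le hAc
  have hnear : ∀ x ∈ closedBall z3 s, ‖A x - A0 x‖ ≤ ε * Y := by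
    intro x hx
    refine (hAc x).trans (mul_le_mul_of_nonneg_left ?_ hε0.le)
    rw [mem_closedBall, dist_eq_norm] at hx
    have : ‖x‖ ≤ ‖x - z3‖ + ‖z3‖ := norm_le_norm_sub_add x z3
    rw [hY]; linarith
  have hlin0 : ∀ w : E3, lin A0 w = P3.symm (L (P3 w)) := by
    intro w
    have h1 := lin_apply A0 w 0
    rw [sub_zero] at h1
    rw [h1, hA0, Crest.Agent.R096.Fil_313.aff3_apply, Crest.Agent.R096.Fil_313.aff3_apply, ← map_sub]
    congr 1
    simp only [map_zero, zero_sub, map_sub, map_neg]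
    abel
  have hlow0 : ∀ w : E3, κ / 2 * ‖w‖ ≤ ‖lin A0 w‖ := by
    intro w
    have h1 := Crest.Agent.R096.Fil_313.aff3_symm_lip L hκ h.low z b (A0 w) (A0 0)
    rw [← hA0, A0.symm_apply_apply, A0.symm_apply_apply, ← lin_apply, sub_zero] at h1
    have h2 : κ / 2 * ‖w‖ ≤ κ / 2 * (2 * κ⁻¹ * ‖lin A0 w‖) :=
      mul_le_mul_of_nonneg_left h1 (by positivity)
    have h3 : κ / 2 * (2 * κ⁻¹ * ‖lin A0 w‖) = ‖lin A0 w‖ := by field_simp
    linarith
  have hlow : ∀ w : E3, κ / 4 * ‖w‖ ≤ ‖lin A w‖ := by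
    intro w
    have h1 := hlow0 w
    have h2 : ‖(lin A - lin A0) w‖ ≤ 3 * ε * ‖w‖ :=
      ((lin A - lin A0).le_opNorm w).trans (mul_le_mul_of_nonneg_right hlin (norm_nonneg _))
    have h3 : lin A0 w = lin A w - (lin A - lin A0) w := by rw [sub_apply]; abel
    have h4 : ‖lin A0 w‖ ≤ ‖lin A w‖ + ‖(lin A - lin A0) w‖ := by rw [h3]; exact norm_sub_le _ _
    have h5 : 3 * ε * ‖w‖ ≤ κ / 4 * ‖w‖ := mul_le_mul_of_nonneg_right e1 (norm_nonneg _)
    linarith
  have hnrm0 : ‖lin A0‖ ≤ 2 * κ⁻¹ := by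
    refine ContinuousLinearMap.opNorm_le_bound _ (by positivity) fun w => ?_
    rw [hlin0]
    calc ‖P3.symm (L (P3 w))‖ ≤ ‖L (P3 w)‖ := Crest.Agent.R096.Er_594.norm_P3_symm_le _
      _ ≤ ‖L‖ * ‖P3 w‖ := L.le_opNorm _
      _ ≤ κ⁻¹ * (2 * ‖w‖) := by
          gcongr
          · exact h.up
          · exact Crest.Agent.R096.Er_594.norm_P3_le w
      _ = 2 * κ⁻¹ * ‖w‖ := by ring
  have hκi : 1 ≤ κ⁻¹ := (one_le_inv₀ hκ).2 hκ1
  refine ⟨A, ?_, ?_, ?_, ?_, ?_, ?_⟩
  · refine ⟨q, v, fun x k => ?_⟩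
    rw [hAq]; simp
  · intro y y'
    have h1 := hlow (A.symm y - A.symm y')
    rw [lin_apply, A.apply_symm_apply, A.apply_symm_apply] at h1
    rw [div_mul_eq_mul_div, le_div_iff₀ hκ]
    linarith
  · calc ‖lin A‖ = ‖(lin A - lin A0) + lin A0‖ := by rw [sub_add_cancel]
      _ ≤ ‖lin A - lin A0‖ + ‖lin A0‖ := norm_add_le _ _
      _ ≤ κ / 4 + 2 * κ⁻¹ := add_le_add (hlin.trans e1) hnrm0
      _ ≤ 4 / κ := by
          have : 4 / κ = 4 * κ⁻¹ := div_eq_mul_inv _ _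
          rw [this]; linarith
  · intro x hx
    have hx' : x ∈ closedBall z3 s := closedBall_subset_closedBall (by nlinarith) hx
    have h1 : P3 x ∈ cel Cb z ((1 - σ) * s) := by
      have : x ∈ P3 ⁻¹' cel Cb z ((1 - σ) * s) := by
        rw [Crest.Agent.R096.Fil_313.cel_preimage z hs1]; exact hx
      exact this
    have h2 := h.c0 _ h1
    have h3 : e3 f x - A x = P3.symm (f (P3 x) - (b + L (P3 x - z))) - (A x - A0 x) := by
      rw [hA0, Crest.Agent.R096.Fil_313.aff3_apply, map_sub]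
      simp only [e3]
      abel
    rw [h3]
    have h4 : (1:ℝ) ≤ 4 ^ p / 2 := by
      have : (4:ℝ) ^ (1:ℝ) ≤ 4 ^ p := Real.rpow_le_rpow_of_exponent_le (by norm_num) hp
      rw [Real.rpow_one] at this
      linarith
    calc _ ≤ ‖P3.symm (f (P3 x) - (b + L (P3 x - z)))‖ + ‖A x - A0 x‖ := norm_sub_le _ _
      _ ≤ η * s + η * s := add_le_add ((Crest.Agent.R096.Er_594.norm_P3_symm_le _).trans h2)
          ((hnear x hx').trans e2)
      _ = 2 * (η * s) * 1 := by ring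
      _ ≤ 2 * (η * s) * (4 ^ p / 2) := mul_le_mul_of_nonneg_left h4 (by positivity)
      _ = 4 ^ p * η * s := by ring
  · intro x hx
    refine ⟨A0 x, ?_, (hnear x hx).trans e3'⟩
    have h1 : A0 x ∈ P3 ⁻¹' par Cb L b s := by
      rw [← Crest.Agent.R096.Fil_313.aff3_image L hκ h.low z b hs]
      exact ⟨x, hx, rfl⟩
    exact hK' h1
  · have h2p : (2:ℝ≥0∞) ^ p ≠ ∞ := ENNReal.rpow_ne_top_of_nonneg hp0 (by norm_num)
    have h2p1 : (2:ℝ≥0∞) ^ (p - 1) ≠ ∞ :=
      ENNReal.rpow_ne_top_of_nonneg (by linarith) (by norm_num)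
    have hI : ∫⁻ x in closedBall z3 s, ‖Gmat G (P3 x) - L‖ₑ ^ p ≤ ENNReal.ofReal (η * s ^ 3) := by
      have h1 := h.lp
      rw [Crest.Agent.R096.Er_594.lint_P3, Crest.Agent.R096.Fil_313.cel_preimage z hs] at h1
      exact h1
    have hpt : ∀ x : E3, ‖D3 G x - lin A‖ₑ ^ p ≤
        2 ^ (p - 1) * (2 ^ p * ‖Gmat G (P3 x) - L‖ₑ ^ p + ENNReal.ofReal (η / 8)) := by
      intro x
      have h1 : ‖D3 G x - lin A0‖ ≤ 2 * ‖Gmat G (P3 x) - L‖ := by
        refine ContinuousLinearMap.opNorm_le_bound _ (by positivity) fun w => ?_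
        have h2 : (D3 G x - lin A0) w = P3.symm ((Gmat G (P3 x) - L) (P3 w)) := by
          rw [sub_apply, hlin0, sub_apply, map_sub]
          rfl
        rw [h2]
        calc _ ≤ ‖(Gmat G (P3 x) - L) (P3 w)‖ := Crest.Agent.R096.Er_594.norm_P3_symm_le _
          _ ≤ ‖Gmat G (P3 x) - L‖ * ‖P3 w‖ := ContinuousLinearMap.le_opNorm _ _
          _ ≤ ‖Gmat G (P3 x) - L‖ * (2 * ‖w‖) := by
              gcongr; exact Crest.Agent.R096.Er_594.norm_P3_le w
          _ = 2 * ‖Gmat G (P3 x) - L‖ * ‖w‖ := by ring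
      have h3 : ‖D3 G x - lin A‖ₑ ≤ ‖D3 G x - lin A0‖ₑ + ‖lin A - lin A0‖ₑ := by
        have : D3 G x - lin A = (D3 G x - lin A0) - (lin A - lin A0) := by abel
        rw [this]
        exact enorm_sub_le
      have h4 : ‖D3 G x - lin A0‖ₑ ≤ 2 * ‖Gmat G (P3 x) - L‖ₑ := by
        rw [← ofReal_norm, ← ofReal_norm]
        refine (ENNReal.ofReal_le_ofReal h1).trans (le_of_eq ?_)
        rw [ENNReal.ofReal_mul (by norm_num)]
        norm_num
      have h5 : ‖lin A - lin A0‖ₑ ^ p ≤ ENNReal.ofReal (η / 8) := by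
        rw [← ofReal_norm, ENNReal.ofReal_rpow_of_nonneg (norm_nonneg _) hp0]
        apply ENNReal.ofReal_le_ofReal
        have h6 : 3 * ε ≤ 1 := by linarith
        calc ‖lin A - lin A0‖ ^ p ≤ (3 * ε) ^ p := Real.rpow_le_rpow (norm_nonneg _) hlin hp0
          _ ≤ (3 * ε) ^ (1:ℝ) := Real.rpow_le_rpow_of_exponent_ge (by positivity) h6 hp
          _ = 3 * ε := Real.rpow_one _
          _ ≤ η / 8 := by linarith
      calc ‖D3 G x - lin A‖ₑ ^ p ≤ (‖D3 G x - lin A0‖ₑ + ‖lin A - lin A0‖ₑ) ^ p :=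
            ENNReal.rpow_le_rpow h3 hp0
        _ ≤ 2 ^ (p - 1) * (‖D3 G x - lin A0‖ₑ ^ p + ‖lin A - lin A0‖ₑ ^ p) :=
            ENNReal.rpow_add_le_mul_rpow_add_rpow _ _ hp
        _ ≤ 2 ^ (p - 1) * ((2 * ‖Gmat G (P3 x) - L‖ₑ) ^ p + ENNReal.ofReal (η / 8)) := by
            gcongr
        _ = _ := by rw [ENNReal.mul_rpow_of_nonneg _ _ hp0]
    have hvol : volume (closedBall z3 s) = ENNReal.ofReal (8 * s ^ 3) := by
      rw [Real.volume_pi_closedBall z3 hs.le]
      congr 1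
      simp
      ring
    calc ∫⁻ x in closedBall z3 s, ‖D3 G x - lin A‖ₑ ^ p
        ≤ ∫⁻ x in closedBall z3 s,
            2 ^ (p - 1) * (2 ^ p * ‖Gmat G (P3 x) - L‖ₑ ^ p + ENNReal.ofReal (η / 8)) :=
          lintegral_mono hpt
      _ = 2 ^ (p - 1) * (2 ^ p * (∫⁻ x in closedBall z3 s, ‖Gmat G (P3 x) - L‖ₑ ^ p) +
            ENNReal.ofReal (η / 8) * volume (closedBall z3 s)) := by
          rw [lintegral_const_mul' _ _ h2p1, lintegral_add_right _ measurable_const,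
            lintegral_const_mul' _ _ h2p, setLIntegral_const]
      _ ≤ 2 ^ (p - 1) * (2 ^ p * ENNReal.ofReal (η * s ^ 3) +
            ENNReal.ofReal (η / 8) * ENNReal.ofReal (8 * s ^ 3)) := by
          rw [hvol]; gcongr
      _ = ENNReal.ofReal (2 ^ (p - 1) * (2 ^ p * (η * s ^ 3) + η * s ^ 3)) := by
          have hA : (2:ℝ≥0∞) ^ (p - 1) = ENNReal.ofReal (2 ^ (p - 1)) := by
            rw [← ENNReal.ofReal_rpow_of_pos (by norm_num)]; norm_num
          have hB : (2:ℝ≥0∞) ^ p = ENNReal.ofReal (2 ^ p) := by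
            rw [← ENNReal.ofReal_rpow_of_pos (by norm_num)]; norm_num
          rw [hA, hB, ← ENNReal.ofReal_mul (by positivity), ← ENNReal.ofReal_mul (by positivity),
            ← ENNReal.ofReal_add (by positivity) (by positivity),
            ← ENNReal.ofReal_mul (by positivity)]
          congr 1
          ring
      _ ≤ ENNReal.ofReal (4 ^ p * η * s ^ 3) := by
          apply ENNReal.ofReal_le_ofReal
          have h1 : (1:ℝ) ≤ 2 ^ p := Real.one_le_rpow (by norm_num) hp0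
          have h2 : (2:ℝ) ^ (p - 1) * 2 = 2 ^ p := by
            rw [Real.rpow_sub_one (by norm_num)]; ring
          have h3 : (4:ℝ) ^ p = 2 ^ p * 2 ^ p := by
            rw [← Real.mul_rpow (by norm_num) (by norm_num)]; norm_num
          have h4 : 0 < (2:ℝ) ^ (p - 1) := by positivity
          calc (2:ℝ) ^ (p - 1) * (2 ^ p * (η * s ^ 3) + η * s ^ 3)
              ≤ 2 ^ (p - 1) * (2 ^ p * (η * s ^ 3) + 2 ^ p * (η * s ^ 3)) := by
                have : η * s ^ 3 ≤ 2 ^ p * (η * s ^ 3) := by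
                  have : 0 < η * s ^ 3 := by positivity
                  nlinarith
                gcongr
            _ = (2 ^ (p - 1) * 2) * 2 ^ p * (η * s ^ 3) := by ring
            _ = 4 ^ p * η * s ^ 3 := by rw [h2, h3]; ring

end

end Crest.Agent.R096.Br_695
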