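import Crest.Agent.R096.Fil4_313
import Crest.Agent.R096.Br3_695

/-!
Row 96 (S0127), helper313 (for R3, `p ≤ 2`).  **[VOL]: volume of the complement of the exact cores, one
affine map per brick** (`Kor` of EA0), in the good cubes of `PreIN`.
-/

set_option autoImplicit false
set_option linter.style.longLine false
set_option linter.unusedSectionVars false

open MeasureTheory Set Filter Metric
open scoped ENNReal NNReal Topology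

namespace Crest.Agent.R096.Fil_313

open Crest.AnalysisR.VecCalc3 Crest.AnalysisR.Sobolev
open Crest.Agent.R096.Bsp_628 Crest.Agent.R96.En10_199
open Crest.Agent.R96.Intr_538 Crest.Agent.R96.Coarse_538
open Crest.Agent.R096.Bxs_627 (ctr zz)
open Crest.Agent.R096.EaX_766 (cbx Kor)
open Crest.Agent.R096.Br_695 (cbx_eq_bxc cbx_mono)

noncomputable section

variable {Om La : Set R3} {κ σ s : ℝ} {a : R3} {Q : Finset (Fin 3 → ℤ)}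
  {b : (Fin 3 → ℤ) → R3} {L : (Fin 3 → ℤ) → R3 →L[ℝ] R3} {F : Set (Bx (Fin 3))}

/-- the bricks of the good cubes -/
def XF (F : Set (Bx (Fin 3))) (σ s : ℝ) (Q : Finset (Fin 3 → ℤ)) (b : (Fin 3 → ℤ) → R3)
    (L : (Fin 3 → ℤ) → R3 →L[ℝ] R3) : Set F :=
  {c | ∃ k ∈ Q, c.1.set ⊆ PP σ s b L k}

/-- **[VOL]**, any sets `K c` which contain the smaller boxes of the real affine maps. -/
theorem cores_vol (hs : 0 < s) (hκ : 0 < κ) (hL : ∀ k ∈ Q, ∀ v, κ * ‖v‖ ≤ ‖L k v‖)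
    (hQ : ∀ k ∈ Q, cel Cb (vt (2 * s) a k) s ⊆ Om) (hpar : ∀ k ∈ Q, par Cb (L k) (b k) s ⊆ La)
    {δ κ0 : ℝ} (BF : BoxFoam (P3 ⁻¹' La) F δ κ0) (hσ : 0 ≤ σ) (hσ1 : 2 * σ < 1) {t : ℝ}
    (ht : 0 ≤ t)
    (hsz : ∀ k ∈ Q, ∀ C ∈ F, ∀ y ∈ par Cb (L k) (b k) s, P3.symm y ∈ C.set → C.sz ≤ t)
    {K : F → Set E3} {lam0 : ℝ} (hl0 : 0 ≤ lam0) (hl1 : lam0 ≤ 1)
    (hK : ∀ k ∈ Q, ∀ c : F, c.1.set ⊆ PP σ s b L k → ∀ x : E3,
      P3.symm (b k + L k (P3 x - vt (2 * s) a k)) ∈ cbx c.1 lam0 → x ∈ K c) :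
    volume ((⋃ k ∈ Q, cel Cb (vt (2 * s) a k) s) \ P3.symm ⁻¹' ⋃ c ∈ XF F σ s Q b L, K c) ≤
      ENNReal.ofReal (6 * σ + 6 * κ⁻¹ * t / s + 3 * (1 - lam0)) * volume Om := by
  classical
  have hκ' : 0 < κ⁻¹ := inv_pos.2 hκ
  set T : Bx (Fin 3) → Set R3 := fun C => {x | ∃ h : C ∈ F, P3.symm x ∈ K ⟨C, h⟩} with hT
  set W : Set R3 := P3.symm ⁻¹' ⋃ c ∈ XF F σ s Q b L, K c with hW
  rcases Q.eq_empty_or_nonempty with hQe | ⟨k0, hk0⟩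
  · subst hQe
    simp
  have hcomb : (⋃ k ∈ Q, cel Cb (vt (2 * s) a k) s) \ W =
      (⋃ k ∈ Q, cel Cb (vt (2 * s) a k) s) \ ⋃ k ∈ Q, W := by
    congr 1
    ext x
    simp only [mem_iUnion]
    exact ⟨fun h => ⟨k0, hk0, h⟩, fun ⟨_, _, h⟩ => h⟩
  rw [hcomb]
  refine fill_sum hs a Q hQ (fun _ => W) (by
    have : 0 ≤ 1 - lam0 := by linarith
    positivity) ?_
  intro k hk
  have h1 := fill3 hκ (hL k hk) (z := vt (2 * s) a k) (b := b k) hs hσ hσ1 ht hl0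
    hl1 BF.countable BF.pos (fun C hC C' hC' hne => BF.inv.disj hC hC' (BF.pos _ hC) (BF.pos _ hC') hne)
    (fun y hy => BF.cov _ (by
      show P3 (P3.symm y) ∈ La
      rw [ContinuousLinearEquiv.apply_symm_apply]
      exact hpar k hk hy))
    (hsz k hk) (w := fun C => zz C lam0)
    (fun C hC => bxc_sub (BF.pos C hC) hl1)
    (T := T) (by
      intro C hC hsub x hx
      refine ⟨hC, hK k hk ⟨C, hC⟩ hsub _ ?_⟩
      rw [ContinuousLinearEquiv.apply_symm_apply, cbx_eq_bxc]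
      exact hx)
  refine le_trans (measure_mono ?_) h1
  intro x hx
  refine ⟨hx.1, fun hx' => hx.2 ?_⟩
  simp only [mem_iUnion] at hx'
  obtain ⟨C, ⟨hC, hCk⟩, hxC⟩ := hx'
  obtain ⟨_, hxC⟩ := hxC
  rw [hW, mem_preimage, mem_iUnion₂]
  exact ⟨⟨C, hC⟩, ⟨k, hk, hCk⟩, hxC⟩

/-- points whose real affine image is in the parallelepiped -/
theorem mem_cel_of_par (hκ : 0 < κ) {L : R3 →L[ℝ] R3} (hL : ∀ v, κ * ‖v‖ ≤ ‖L v‖)
    {z b x : R3} {r : ℝ} (hr : 0 < r) (h : b + L (x - z) ∈ par Cb L b r) : x ∈ cel Cb z r := by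
  obtain ⟨u, hu, he⟩ := h
  have he' : b + r • L u = b + L (x - z) := he
  have h3 : L (r • u) = L (x - z) := by
    rw [map_smul]
    exact add_left_cancel he'
  have h4 : r • u = x - z := inj_of_low hκ hL h3
  rw [mem_cel hr]
  intro i
  have h5 : x i - z i = r * u i := by
    have := congrArg (fun v : R3 => v i) h4
    simpa using this.symm
  rw [h5, abs_mul, abs_of_pos hr]
  have h6 := hu i
  nlinarith

/-- the core of the near map contains the smaller box of the real map -/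
theorem kor_of_near (hs : 0 < s) (hκ : 0 < κ) (hL : ∀ k ∈ Q, ∀ v, κ * ‖v‖ ≤ ‖L k v‖)
    (hσ1 : 2 * σ < 1) {A : F → E3 ≃ᵃ[ℝ] E3} {lam : F → ℝ} {lam0 ρ : ℝ} (hl1 : lam0 ≤ 1)
    (hpos : ∀ C ∈ F, C.Pos)
    (near : ∀ k ∈ Q, ∀ c : F, c.1.set ⊆ PP σ s b L k → ∀ x : E3,
      P3 x ∈ cel Cb (vt (2 * s) a k) ((1 - 2 * σ) * s) →
      ‖A c x - P3.symm (b k + L k (P3 x - vt (2 * s) a k))‖ ≤ ρ * s)
    (hside : ∀ c ∈ XF F σ s Q b L, ∀ j, 2 * (ρ * s) ≤ (lam c - lam0) * c.1.side j) :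
    ∀ k ∈ Q, ∀ c : F, c.1.set ⊆ PP σ s b L k → ∀ x : E3,
      P3.symm (b k + L k (P3 x - vt (2 * s) a k)) ∈ cbx c.1 lam0 → x ∈ Kor F A lam c := by
  intro k hk c hc x hx
  have hr : 0 < (1 - 2 * σ) * s := mul_pos (by linarith) hs
  have h1 : P3.symm (b k + L k (P3 x - vt (2 * s) a k)) ∈ c.1.set := by
    rw [cbx_eq_bxc] at hx
    exact bxc_sub (hpos _ c.2) hl1 hx
  have h2 : b k + L k (P3 x - vt (2 * s) a k) ∈ par Cb (L k) (b k) ((1 - 2 * σ) * s) := by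
    have h3 := hc h1
    have h5 : P3 (P3.symm (b k + L k (P3 x - vt (2 * s) a k))) = _ :=
      ContinuousLinearEquiv.apply_symm_apply _ _
    rw [← h5]; exact h3
  have hxc := mem_cel_of_par hκ (hL k hk) hr h2
  have h3 := near k hk c hc x hxc
  show A c x ∈ cbx c.1 (lam c)
  intro j
  have h4 : |A c x j - P3.symm (b k + L k (P3 x - vt (2 * s) a k)) j| ≤ ρ * s :=
    (norm_le_pi_norm (A c x - P3.symm (b k + L k (P3 x - vt (2 * s) a k))) j).trans h3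
  have h5 := hx j
  have h6 := hside c ⟨k, hk, hc⟩ j
  have h7 := abs_le.1 h4
  have h8 := abs_le.1 h5
  rw [abs_le]
  constructor <;> linarith

/-- **[VOL]** for `Kor`, one affine map per brick. -/
theorem kor_vol (hs : 0 < s) (hκ : 0 < κ) (hL : ∀ k ∈ Q, ∀ v, κ * ‖v‖ ≤ ‖L k v‖)
    (hQ : ∀ k ∈ Q, cel Cb (vt (2 * s) a k) s ⊆ Om) (hpar : ∀ k ∈ Q, par Cb (L k) (b k) s ⊆ La)
    {δ κ0 : ℝ} (BF : BoxFoam (P3 ⁻¹' La) F δ κ0) (hσ : 0 ≤ σ) (hσ1 : 2 * σ < 1) {t : ℝ}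
    (ht : 0 ≤ t)
    (hsz : ∀ k ∈ Q, ∀ C ∈ F, ∀ y ∈ par Cb (L k) (b k) s, P3.symm y ∈ C.set → C.sz ≤ t)
    {A : F → E3 ≃ᵃ[ℝ] E3} {lam : F → ℝ} {lam0 ρ : ℝ} (hl0 : 0 ≤ lam0) (hl1 : lam0 ≤ 1)
    (near : ∀ k ∈ Q, ∀ c : F, c.1.set ⊆ PP σ s b L k → ∀ x : E3,
      P3 x ∈ cel Cb (vt (2 * s) a k) ((1 - 2 * σ) * s) →
      ‖A c x - P3.symm (b k + L k (P3 x - vt (2 * s) a k))‖ ≤ ρ * s)
    (hside : ∀ c ∈ XF F σ s Q b L, ∀ j, 2 * (ρ * s) ≤ (lam c - lam0) * c.1.side j) :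
    volume ((⋃ k ∈ Q, cel Cb (vt (2 * s) a k) s) \
        P3.symm ⁻¹' ⋃ c ∈ XF F σ s Q b L, Kor F A lam c) ≤
      ENNReal.ofReal (6 * σ + 6 * κ⁻¹ * t / s + 3 * (1 - lam0)) * volume Om :=
  cores_vol hs hκ hL hQ hpar BF hσ hσ1 ht hsz hl0 hl1
    (kor_of_near hs hκ hL hσ1 hl1 BF.pos near hside)

/-- the whole of `{det ≠ 0}`: good cubes `Q₀`, surviving cubes `Q` -/
theorem kor_vol_all (hs : 0 < s) (hκ : 0 < κ) (hL : ∀ k ∈ Q, ∀ v, κ * ‖v‖ ≤ ‖L k v‖)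
    (hQ : ∀ k ∈ Q, cel Cb (vt (2 * s) a k) s ⊆ Om) (hpar : ∀ k ∈ Q, par Cb (L k) (b k) s ⊆ La)
    {δ κ0 : ℝ} (BF : BoxFoam (P3 ⁻¹' La) F δ κ0) (hσ : 0 ≤ σ) (hσ1 : 2 * σ < 1) {t : ℝ}
    (ht : 0 ≤ t)
    (hsz : ∀ k ∈ Q, ∀ C ∈ F, ∀ y ∈ par Cb (L k) (b k) s, P3.symm y ∈ C.set → C.sz ≤ t)
    {A : F → E3 ≃ᵃ[ℝ] E3} {lam : F → ℝ} {lam0 ρ : ℝ} (hl0 : 0 ≤ lam0) (hl1 : lam0 ≤ 1)
    (near : ∀ k ∈ Q, ∀ c : F, c.1.set ⊆ PP σ s b L k → ∀ x : E3,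
      P3 x ∈ cel Cb (vt (2 * s) a k) ((1 - 2 * σ) * s) →
      ‖A c x - P3.symm (b k + L k (P3 x - vt (2 * s) a k))‖ ≤ ρ * s)
    (hside : ∀ c ∈ XF F σ s Q b L, ∀ j, 2 * (ρ * s) ≤ (lam c - lam0) * c.1.side j)
    {Q₀ : Finset (Fin 3 → ℤ)} {d : ℝ} (hd : ((Q₀ \ Q).card : ℝ) * (2 * s) ^ 3 ≤ d) {Z : Set R3}
    {ε : ℝ} (hε : 0 ≤ ε)
    (hZ : volume (Z \ ⋃ k ∈ Q₀, cel Cb (vt (2 * s) a k) s) ≤ ENNReal.ofReal ε) {V : ℝ}
    (hV0 : 0 ≤ V) (hV : volume Om ≤ ENNReal.ofReal V) :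
    volume (Z \ P3.symm ⁻¹' ⋃ c ∈ XF F σ s Q b L, Kor F A lam c) ≤
      ENNReal.ofReal (ε + d + (6 * σ + 6 * κ⁻¹ * t / s + 3 * (1 - lam0)) * V) := by
  classical
  have hκ' : 0 < κ⁻¹ := inv_pos.2 hκ
  have hd0 : 0 ≤ d := le_trans (by positivity) hd
  have hc0 : 0 ≤ 6 * σ + 6 * κ⁻¹ * t / s + 3 * (1 - lam0) := by
    have : 0 ≤ 1 - lam0 := by linarith
    positivity
  set W : Set R3 := P3.symm ⁻¹' ⋃ c ∈ XF F σ s Q b L, Kor F A lam c with hW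
  set cl : (Fin 3 → ℤ) → Set R3 := fun k => cel Cb (vt (2 * s) a k) s with hcl
  have h1 := kor_vol hs hκ hL hQ hpar BF hσ hσ1 ht hsz hl0 hl1 near hside
  have h2 : volume (⋃ k ∈ Q₀ \ Q, cl k) ≤ ENNReal.ofReal d := by
    calc volume (⋃ k ∈ Q₀ \ Q, cl k) ≤ ∑ k ∈ Q₀ \ Q, volume (cl k) :=
          measure_biUnion_finset_le _ _
      _ = ∑ k ∈ Q₀ \ Q, ENNReal.ofReal ((2 * s) ^ 3) :=
          Finset.sum_congr rfl fun k _ => volume_cel _ hs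
      _ = ENNReal.ofReal (((Q₀ \ Q).card : ℝ) * (2 * s) ^ 3) := by
          rw [Finset.sum_const, nsmul_eq_mul, ENNReal.ofReal_mul (by positivity),
            ENNReal.ofReal_natCast]
      _ ≤ ENNReal.ofReal d := ENNReal.ofReal_le_ofReal hd
  have hsub : Z \ W ⊆ (Z \ ⋃ k ∈ Q₀, cl k) ∪ ((⋃ k ∈ Q₀ \ Q, cl k) ∪ ((⋃ k ∈ Q, cl k) \ W)) := by
    rintro x ⟨hx, hxW⟩
    by_cases h : x ∈ ⋃ k ∈ Q₀, cl k
    · right
      obtain ⟨k, hk, hxk⟩ := mem_iUnion₂.1 h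
      by_cases hkQ : k ∈ Q
      · exact Or.inr ⟨mem_iUnion₂.2 ⟨k, hkQ, hxk⟩, hxW⟩
      · exact Or.inl (mem_iUnion₂.2 ⟨k, Finset.mem_sdiff.2 ⟨hk, hkQ⟩, hxk⟩)
    · exact Or.inl ⟨hx, h⟩
  calc volume (Z \ W) ≤ volume (Z \ ⋃ k ∈ Q₀, cl k) +
        (volume (⋃ k ∈ Q₀ \ Q, cl k) + volume ((⋃ k ∈ Q, cl k) \ W)) :=
        (measure_mono hsub).trans ((measure_union_le _ _).trans (by
          gcongr; exact measure_union_le _ _))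
    _ ≤ ENNReal.ofReal ε + (ENNReal.ofReal d +
        ENNReal.ofReal (6 * σ + 6 * κ⁻¹ * t / s + 3 * (1 - lam0)) * ENNReal.ofReal V) := by
        gcongr
        exact h1.trans (by gcongr)
    _ ≤ _ := by
        rw [← ENNReal.ofReal_mul hc0, ← ENNReal.ofReal_add hd0 (by positivity),
          ← ENNReal.ofReal_add hε (by positivity)]
        exact ENNReal.ofReal_le_ofReal (le_of_eq (by ring))

end

end Crest.Agent.R096.Fil_313
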