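import Crest.Agent.R096.Br11_695
import Crest.Agent.R096.Blk3_212
import Crest.Agent.R096.Fil5_313
import Crest.Agent.R096.Dsp1_685

/-!
Row 96 (S0127), helper695.  **`BFk p` for `p ≤ 2`**: after `PreIN p`, the end.
-/

set_option autoImplicit false
set_option linter.unusedSectionVars false
set_option linter.unusedVariables false
set_option linter.style.longLine false

open MeasureTheory Set Filter Metric Module
open scoped ENNReal NNReal Topology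

namespace Crest.Agent.R096.Br_695

open Crest.AnalysisR.VecCalc3 Crest.AnalysisR.Sobolev
open Crest.Agent.R96.Lu_538 Crest.Agent.R96.Intr_538
open Crest.Agent.R96.Coarse_538 hiding E3
open Crest.Agent.R096.Sk_962 (SH Gr)
open Crest.Agent.R096.Sk4_663 (Zd BFs lintegral_of_memLp)
open Crest.Agent.R096.Bsp_628
open Crest.Agent.R096.Bxs_627 hiding E3
open Crest.Agent.R96.En10_199
open Crest.Agent.R096.SkC1_961 (E3 Hom3)
open Crest.Agent.R096.Er_594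
open Crest.Agent.R096.EaX_766 (cbx lin Kor)
open Crest.Agent.R096.Brk5_582 (Cmp)
open Crest.Agent.R096.Msh_715 Crest.Agent.R096.Mal_874
open Crest.Agent.R096.Pin_753 (Bk InP BlkP PreIN)
open Crest.Agent.R096.Ea0_961 (InS Blk EA0)
open Crest.Agent.R096.Tmap_212 (mp)
open Crest.Agent.R096.Fns_360 (trA trA_apply trA_linear trA_sub)
open Crest.Agent.R096.Ins_685 (L3 L3_apply lin_close lin_trA norm_lin_le low_lin)
open Crest.Agent.R096.Fil_313 (cel_preimage aff3 aff3_image)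
open Crest.Agent.R096.ThC6_766 (Scale)
open Crest.Agent.R096.Str_696 (LocPL)

noncomputable section

/-- the tail of `EA0 p` -/
def EA0t (p δ κ0 R c0 κ2 Cc : ℝ) (Bs : ℕ) (C : ℝ≥0) (e lam1 κ1 : ℝ) (M : ℕ) (κw : ℝ) (Nn : ℕ)
    (CA : ℝ≥0) (κt : ℝ) : Prop :=
  ∀ (Om La : Set E3) (f : E3 → E3) (D : E3 → E3 →L[ℝ] E3), IsOpen Om → Bornology.IsBounded Om →
    IsConnected Om → IsOpen La → Bornology.IsBounded La → IsConnected La → SH3 p Om La f D →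
  ∀ (u : ℝ), 0 < u →
  ∀ (F : Set (Bx (Fin 3))), BoxFoam La F δ κ0 → Cmp F R →
    (∀ c ∈ F, ∃ S : Set E3, IsCompact S ∧ Convex ℝ S ∧ S ⊆ La ∧
      ∀ c' ∈ F, (c'.set ∩ c.set).Nonempty → c'.set ⊆ interior S) →
  ∀ (X : Set F) (A : F → E3 ≃ᵃ[ℝ] E3) (lam : F → ℝ) (Q : F → CB E3 3) (k0 : F → ℕ)
    (hk : ∀ c, (Q c).kc ≤ k0 c) (er : F → ℝ≥0∞),
    (∀ c ∈ X, c0 ≤ lam c ∧ lam c ≤ lam1) →
    (∀ c ∈ X, Blk F u Cc κ2 κt Bs M Nn c (A c) (lam c) (Q c) (k0 c) (hk c)) →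
    (∀ c ∈ X, InS p Om f D Cc κ1 κ2 κw M c.1 (A c) (lam c) (er c) (Q c) (k0 c) (hk c)) →
  ∀ e' : ℝ≥0∞, 0 < e' →
  ∃ g : E3 → E3, Hom3 g Om La ∧ LocPL g Om ∧
    (∀ x ∈ Om, ∀ c : F, f x ∈ c.1.set → ‖g x - f x‖ ≤ C * c.1.sz) ∧
    (∫⁻ x in Om \ ⋃ c ∈ X, Kor F A lam c, ‖fderiv ℝ g x‖ₑ ^ p) ≤
      C * (∫⁻ x in Om \ ⋃ c ∈ X, (Q c).N, (1 + ‖D x‖ₑ ^ p)) +
      C * (∑' c : X, (1 + ‖lin (A c)‖ₑ ^ p) * volume ((Q c).N \ Kor F A lam c)) +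
      CA * (∑' c : X, ∫⁻ x in Ea0_961.Ly (Q c) (k0 c), (1 + ‖D x‖ₑ ^ p)) +
      C * (∑' c : X, er c) +
      ENNReal.ofReal e * (∑' c : X, (1 + ‖lin (A c)‖ₑ ^ p) * volume (Kor F A lam c)) + e' ∧
    ∀ c ∈ X, (∫⁻ x in Kor F A lam c, ‖fderiv ℝ g x - (lam c)⁻¹ • lin (A c)‖ₑ ^ p) ≤
      ENNReal.ofReal e * (‖lin (A c)‖ₑ ^ p * volume (Kor F A lam c)) +
      C * ((1 + ‖lin (A c)‖ₑ ^ p) * volume ((Q c).N \ Kor F A lam c)) + C * er c +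
      CA * (∫⁻ x in Ea0_961.Ly (Q c) (k0 c), (1 + ‖D x‖ₑ ^ p))

section

variable {La : Set R3} {F : Set (Bx (Fin 3))} {κ κ' κt s t τ hh c1 θ θ1 ka lam B : ℝ}
    {Bs M Nn k0 : ℕ} {a₀ : R3} {Q₀ : Finset (Fin 3 → ℤ)} {b : (Fin 3 → ℤ) → R3}
    {L : (Fin 3 → ℤ) → R3 →L[ℝ] R3} {X₀ : Set F} {kk : F → Fin 3 → ℤ} {Q : F → CB E3 3}
    {A : F → E3 ≃ᵃ[ℝ] E3} {hk : ∀ c, (Q c).kc ≤ k0}
    (H : Fam La F κ κ' κt s t τ hh c1 θ θ1 ka lam B Bs M Nn k0 a₀ Q₀ b L X₀ kk Q A hk)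

/-- the bricks of the surviving cubes -/
def Xs (X₀ : Set F) (kk : F → Fin 3 → ℤ) (Qs : Finset (Fin 3 → ℤ)) : Set F :=
  {c | c ∈ X₀ ∧ kk c ∈ Qs}

/-- index sets -/
def exs (X₀ : Set F) (kk : F → Fin 3 → ℤ) (Qs : Finset (Fin 3 → ℤ)) :
    Xs X₀ kk Qs ≃ {j : X₀ // kk j.1 ∈ Qs} where
  toFun c := ⟨⟨c.1, c.2.1⟩, c.2.2⟩
  invFun j := ⟨j.1.1, j.1.2, j.2⟩
  left_inv _ := rfl
  right_inv _ := rfl

theorem iUnion_xs (X₀ : Set F) (kk : F → Fin 3 → ℤ) (Qs : Finset (Fin 3 → ℤ)) {E : Type*}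
    (S : F → Set E) : ⋃ j ∈ {j : X₀ | kk j.1 ∈ Qs}, S j.1 = ⋃ c : Xs X₀ kk Qs, S c := by
  ext x
  simp only [mem_iUnion]
  constructor
  · rintro ⟨j, hj, hx⟩
    exact ⟨⟨j.1, j.2, hj⟩, hx⟩
  · rintro ⟨c, hx⟩
    exact ⟨⟨c.1, c.2.1⟩, c.2.2, hx⟩

include H

/-- volumes -/
theorem Fam.vol {Om : Set R3} (hO : IsOpen Om) (BF : BoxFoam (P3 ⁻¹' La) F δf 3) (hκ : 0 < κ)
    (hκ1 : κ ≤ 1)
    (hs : 0 < s) (hτ : 0 < τ) (hτ8 : τ ≤ 1 / 8) (ht0 : 0 < t)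
    (hLb : ∀ k ∈ Q₀, (∀ v, κ * ‖v‖ ≤ ‖L k v‖) ∧ ‖L k‖ ≤ κ⁻¹)
    (hcel : ∀ k ∈ Q₀, cel Cb (vt (2 * s) a₀ k) s ⊆ Om) (hpar : ∀ k ∈ Q₀, par Cb (L k) (b k) s ⊆ La)
    (hszt : ∀ C ∈ F, C.sz ≤ t) {Qs : Finset (Fin 3 → ℤ)} (hQs : Qs ⊆ Q₀) {v : F → E3} {κw : ℝ}
    {a : R3} (ha : ‖a‖ ≤ κw * s) (hv : ∀ c ∈ X₀, ‖(Q c).ψ (v c)‖ ≤ 1 / (20 * 2 ^ k0)) {kb : ℝ}
    (hka : ka ≤ κ / 16) (hkb : ka + 3 * κ⁻¹ * (κw + θ / (5 * κ)) ≤ kb)
    (hlam : 0 < lam) (hlam1 : lam < 1) (hkb2 : 2 * (kb * s) ≤ (1 - lam) * (t / 18))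
    (hl2 : 1 / 2 ≤ lam)
    {d ε V : ℝ} (hd : ((Q₀ \ Qs).card : ℝ) * (2 * s) ^ 3 ≤ d) {Z : Set R3} (hε : 0 ≤ ε)
    (hZ : volume (Z \ ⋃ k ∈ Q₀, cel Cb (vt (2 * s) a₀ k) s) ≤ ENNReal.ofReal ε)
    (hV0 : 0 ≤ V) (hV : volume Om ≤ ENNReal.ofReal V) :
    volume (Z \ P3.symm ⁻¹' ⋃ c ∈ Xs X₀ kk Qs,
      Kor F (fun c => trA (A c) (P3.symm a + v c)) (fun _ => lam) c) ≤
      ENNReal.ofReal (ε + d + (12 * τ + 6 * κ⁻¹ * t / s + 6 * (1 - lam)) * V) := by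
  have hXF : Fil_313.XF F (2 * τ) s Qs b L = Xs X₀ kk Qs := by
    ext c
    have e1 : (1 - 2 * (2 * τ)) * s = (1 - 4 * τ) * s := by ring
    constructor
    · rintro ⟨k, hk', hc⟩
      unfold Fil_313.PP at hc
      rw [e1] at hc
      obtain ⟨h1, h2⟩ := H.all k (hQs hk') c hc
      exact ⟨h1, by rw [h2]; exact hk'⟩
    · rintro ⟨h1, h2⟩
      refine ⟨kk c, h2, ?_⟩
      unfold Fil_313.PP
      rw [e1]
      exact H.ins c h1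
  have hcard := Fil_313.kor_vol_all (Om := Om) (La := La) (κ := κ) (σ := 2 * τ) (s := s) (a := a₀)
    (Q := Qs) (b := b) (L := L) (F := F) hs hκ (fun k hk' => (hLb k (hQs hk')).1)
    (fun k hk' => hcel k (hQs hk')) (fun k hk' => hpar k (hQs hk')) BF (by positivity) (by linarith)
    ht0.le (fun k _ C hC _ _ _ => hszt C hC)
    (A := fun c => trA (A c) (P3.symm a + v c)) (lam := fun _ => lam) (lam0 := 2 * lam - 1)
    (ρ := kb) (by linarith) (by linarith) ?_ ?_ hd hε hZ hV0 hV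
  · rw [hXF] at hcard
    refine hcard.trans (ENNReal.ofReal_le_ofReal (le_of_eq ?_))
    ring
  · intro k hk' c hc x hx
    have hcX : c ∈ Fil_313.XF F (2 * τ) s Qs b L := ⟨k, hk', hc⟩
    rw [hXF] at hcX
    have e1 : (1 - 2 * (2 * τ)) * s = (1 - 4 * τ) * s := by ring
    unfold Fil_313.PP at hc
    rw [e1] at hc
    have hkc : kk c = k := (H.all k (hQs hk') c hc).2
    have h1 := H.norm_le hκ hcX.1 (by norm_num : (0:ℝ) < 20) (hv c hcX.1)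
    have h2 := Crest.Agent.R096.Er_594.norm_P3_symm_le a
    have e : 4 * θ / (20 * κ) * s = θ / (5 * κ) * s := by field_simp; ring
    have h3 : ‖P3.symm a + v c‖ ≤ (κw + θ / (5 * κ)) * s := by
      calc ‖P3.symm a + v c‖ ≤ ‖P3.symm a‖ + ‖v c‖ := norm_add_le _ _
        _ ≤ κw * s + θ / (5 * κ) * s := add_le_add (h2.trans ha) (by rw [← e]; exact h1)
        _ = (κw + θ / (5 * κ)) * s := by ring
    have h4 := Ins_685.trA_close hκ (hLb _ (H.kkQ c hcX.1)).1 (hLb _ (H.kkQ c hcX.1)).2 hs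
      (H.close c hcX.1) hka h3 x (by
        rw [hkc, ← cel_preimage _ hs]
        change P3 x ∈ cel Cb (vt (2 * s) a₀ k) s
        have h5 : P3.symm (P3 x) ∈ closedBall (P3.symm (vt (2 * s) a₀ k)) ((1 - 2 * (2 * τ)) * s) := by
          rw [← cel_preimage _ (by rw [e1]; exact mul_pos (by linarith) hs)]
          change P3 (P3.symm (P3 x)) ∈ cel Cb (vt (2 * s) a₀ k) ((1 - 2 * (2 * τ)) * s)
          rwa [P3.apply_symm_apply]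
        have h6 : P3.symm (P3 x) ∈ closedBall (P3.symm (vt (2 * s) a₀ k)) s :=
          closedBall_subset_closedBall (by nlinarith) h5
        rw [← cel_preimage _ hs] at h6
        have h7 : P3 (P3.symm (P3 x)) ∈ cel Cb (vt (2 * s) a₀ k) s := h6
        rwa [P3.apply_symm_apply] at h7)
    rw [hkc] at h4
    exact h4.trans (mul_le_mul_of_nonneg_right hkb hs.le)
  · intro c hc j
    rw [hXF] at hc
    have h1 := H.szl c hc.1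
    have h2 := BF.asp _ c.2 j
    have h3 : t / 18 ≤ c.1.side j := by linarith
    have e1 : lam - (2 * lam - 1) = 1 - lam := by ring
    rw [e1]
    exact hkb2.trans (mul_le_mul_of_nonneg_left h3 (by linarith))

end

end

end Crest.Agent.R096.Br_695
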