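import Crest.Agent.R096.Br12_695

/-!
Row 96 (S0127), helper695.  **`BFk p` for `p ≤ 2`**: `PreIN` + `EA0` at fixed constants.
-/

set_option autoImplicit false
set_option linter.unusedSectionVars false
set_option linter.unusedVariables false
set_option linter.style.longLine false

open MeasureTheory Set Filter Metric Module
open scoped ENNReal NNReal Topology

namespace Crest.Agent.R096.Br_695

open Crest.AnalysisR.VecCalc3 Crest.AnalysisR.Sobolev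
open Crest.Agent.R96.Lu_538 Crest.Agent.R96.Intr_538
open Crest.Agent.R96.Coarse_538 hiding E3
open Crest.Agent.R096.Sk_962 (SH Gr)
open Crest.Agent.R096.Sk4_663 (Zd BFs lintegral_of_memLp)
open Crest.Agent.R096.Bsp_628
open Crest.Agent.R096.Bxs_627 hiding E3
open Crest.Agent.R96.En10_199
open Crest.Agent.R096.SkC1_961 (E3 Hom3)
open Crest.Agent.R096.Er_594
open Crest.Agent.R096.EaX_766 (cbx lin Kor)
open Crest.Agent.R096.Brk5_582 (Cmp)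
open Crest.Agent.R096.Msh_715 Crest.Agent.R096.Mal_874
open Crest.Agent.R096.Pin_753 (Bk InP BlkP PreIN)
open Crest.Agent.R096.Ea0_961 (InS Blk EA0)
open Crest.Agent.R096.Tmap_212 (mp)
open Crest.Agent.R096.Fns_360 (trA trA_apply trA_linear trA_sub)
open Crest.Agent.R096.Ins_685 (L3 L3_apply lin_close lin_trA norm_lin_le low_lin)
open Crest.Agent.R096.Fil_313 (cel_preimage aff3 aff3_image)
open Crest.Agent.R096.ThC6_766 (Scale)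
open Crest.Agent.R096.Str_696 (LocPL)

noncomputable section

section

variable {La : Set R3} {F : Set (Bx (Fin 3))} {κ κ' κt s t τ hh c1 θ θ1 ka lam B : ℝ}
    {Bs M Nn k0 : ℕ} {a₀ : R3} {Q₀ : Finset (Fin 3 → ℤ)} {b : (Fin 3 → ℤ) → R3}
    {L : (Fin 3 → ℤ) → R3 →L[ℝ] R3} {X₀ : Set F} {kk : F → Fin 3 → ℤ} {Q : F → CB E3 3}
    {A : F → E3 ≃ᵃ[ℝ] E3} {hk : ∀ c, (Q c).kc ≤ k0}
    (H : Fam La F κ κ' κt s t τ hh c1 θ θ1 ka lam B Bs M Nn k0 a₀ Q₀ b L X₀ kk Q A hk)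

include H

/-- the positions after `PreIN` -/
theorem Fam.exists_v (a3 : E3) :
    ∃ v : F → E3, ∀ c ∈ X₀, ‖(Q c).ψ (v c)‖ ≤ 1 / (20 * 2 ^ k0) ∧
      Blk F lam B (1 / 4) κt Bs M Nn c (trA (A c) (a3 + v c)) lam ((Q c).tr (a3 + v c)) k0
        (hk c) := by
  classical
  have h : ∀ c : F, ∃ v : E3, c ∈ X₀ → ‖(Q c).ψ v‖ ≤ 1 / (20 * 2 ^ k0) ∧
      Blk F lam B (1 / 4) κt Bs M Nn c (trA (A c) (a3 + v)) lam ((Q c).tr (a3 + v)) k0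
        (hk c) := by
    intro c
    by_cases hc : c ∈ X₀
    · obtain ⟨v, hv⟩ := H.blk c hc a3
      exact ⟨v, fun _ => hv⟩
    · exact ⟨0, fun h => absurd h hc⟩
  choose v hv using h
  exact ⟨v, hv⟩

set_option maxHeartbeats 1000000 in
/-- **the end**: `EA0` for the output of `PreIN` -/
theorem Fam.finish {p : ℝ} (hp1 : 1 ≤ p) (hp2 : p ≤ 3) {Om : Set R3} {f f₂ : R3 → R3}
    {G G₂ : Fin 3 → R3 → R3} (hO : IsOpen Om) (hOb : Bornology.IsBounded Om)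
    (hOc : IsConnected Om) (hL : IsOpen La) (hLbd : Bornology.IsBounded La) (hLc : IsConnected La)
    (hS : SH p Om La f G) (hS₂ : SH p Om La f₂ G₂) (BF : BoxFoam (P3 ⁻¹' La) F δf 3)
    (hcmp : Cmp F 6) {w : E3 → ℝ} (hw : Scale (P3 ⁻¹' La) w)
    (hsz : ∀ C ∈ F, ∀ x ∈ C.set, C.sz ≤ w x) (hszt : ∀ C ∈ F, C.sz ≤ t) {η : R3 → ℝ} {C Cp CA : ℝ≥0}
    (hwη : ∀ x ∈ Om, 4 * (C * w (P3.symm (f x))) ≤ η x / 2)
    (hd : ∀ x ∈ Om, ‖f₂ x - f x‖ ≤ min (η x / 4) (w (P3.symm (f x))))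
    {q κ1 κwE : ℝ} (hq0 : 0 < q)
    (HE : EA0t p δf 3 6 (1 / 4) (1 / 4) B Bs C q lam κ1 M κwE Nn CA κt)
    -- PreIN
    {Qs : Finset (Fin 3 → ℤ)} (hQs : Qs ⊆ Q₀) {δP : ℝ}
    (hcard : ((Q₀ \ Qs).card : ℝ) * (2 * s) ^ 3 ≤ δP) {C1 κw : ℝ} {a : R3} (ha : ‖a‖ ≤ κw * s)
    (hcl : ∀ k ∈ Qs, ∀ x ∈ cel Cb (vt (2 * s) a₀ k) ((1 - τ) * s),
      ‖f₂ x - Bk (b k) (L k) (vt (2 * s) a₀ k) x‖ ≤ C1 * hh * s)
    {er : X₀ → ℝ≥0∞} (hIn : ∀ j : X₀, kk j.1 ∈ Qs → InP p f₂ (Gmat G₂) C1 κw s (b (kk j.1))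
      (L (kk j.1)) (vt (2 * s) a₀ (kk j.1)) (er j) ((mp P3 (Q j.1)).tr a) k0 (hk j.1)) {eP : ℝ}
    (her : (∑' j : {j : X₀ // kk j.1 ∈ Qs}, er j) ≤ ENNReal.ofReal eP)
    (hLy : (∑' j : {j : X₀ // kk j.1 ∈ Qs}, ∫⁻ x in Pin_753.Ly ((mp P3 (Q j.1.1)).tr a) k0,
      (1 + En p G₂ x)) ≤ ENNReal.ofReal eP)
    (hout : (∫⁻ x in Om \ ⋃ j ∈ {j : X₀ | kk j.1 ∈ Qs}, ((mp P3 (Q j.1)).tr a).N,
        (1 + En p G₂ x)) ≤
      Cp * (∫⁻ x in Om \ ⋃ j ∈ {j : X₀ | kk j.1 ∈ Qs}, ((mp P3 (Q j.1)).tr a).Kc,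
        (1 + En p G x)) + ENNReal.ofReal eP)
    -- the good cubes
    (hLb : ∀ k ∈ Q₀, (∀ v, κ * ‖v‖ ≤ ‖L k v‖) ∧ ‖L k‖ ≤ κ⁻¹)
    (hcel : ∀ k ∈ Q₀, cel Cb (vt (2 * s) a₀ k) s ⊆ Om) (hpar : ∀ k ∈ Q₀, par Cb (L k) (b k) s ⊆ La)
    {ε1 e1P : ℝ} (hε1 : 0 ≤ ε1) (he1P : 0 ≤ e1P)
    (hen : (∑ k ∈ Q₀, ∫⁻ x in cel Cb (vt (2 * s) a₀ k) s, ‖Gmat G x - L k‖ₑ ^ p) ≤
      ENNReal.ofReal e1P)
    (hvol : volume ((Om ∩ {x | (Gmat G x).det ≠ 0}) \ ⋃ k ∈ Q₀, cel Cb (vt (2 * s) a₀ k) s) ≤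
      ENNReal.ofReal ε1)
    -- blocks
    {c2 : ℝ} (hdist : ∀ c ∈ X₀, ∀ c' ∈ X₀, c ≠ c' → ∀ x ∈ (mp P3 (Q c)).N,
      ∀ y ∈ (mp P3 (Q c')).N, c2 * s ≤ dist x y)
    -- numbers
    (hκ : 0 < κ) (hκ1 : κ ≤ 1) (hs : 0 < s) (hτ : 0 < τ) (hτ8 : τ ≤ 1 / 8) (ht0 : 0 < t)
    (hlam : 1 / 2 ≤ lam) (hlam1 : lam < 1) (hM : 0 < M) (hB : 0 ≤ B) (hκw : 0 ≤ κw)
    (hC1 : 0 ≤ C1) (hc1 : 0 < c1) (hθ0 : 0 ≤ θ)
    (hhh : C1 * hh ≤ κ * τ) (hroom : κw + θ / κ ≤ τ / 2) (hka0 : 0 ≤ ka)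
    {kb : ℝ} (hkb : ka + 3 * κ⁻¹ * (κw + θ / (5 * κ)) ≤ kb) (hkb1 : kb ≤ κ * τ / 16)
    (hκwE : 0 ≤ κwE) (hκ10 : 0 ≤ κ1) {tb : ℝ} (ht : t = tb * s)
    (m1 : (κw + kb) * M ≤ κwE * (tb / 12)) (m2 : 2 * κw + 2 * kb ≤ κ / 4 * κwE)
    (m3 : C1 * hh + kb ≤ κ1 * (tb / 12)) (hθ : 4 * θ / (5 * κ) < c2)
    (hkb2 : 2 * (kb * s) ≤ (1 - lam) * (t / 18))
    {V r eac e : ℝ} (hV0 : 0 ≤ V) (hV : volume Om ≤ ENNReal.ofReal V) (hr : θ * V ≤ c1 * r)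
    (hac : ∀ T ⊆ Om, volume T ≤ ENNReal.ofReal r →
      ∫⁻ x in T, (1 + En p G x) ≤ ENNReal.ofReal eac)
    (hac0 : 0 ≤ eac) (hace : eac ≤ e) (heP : 0 ≤ eP)
    (n1 : 100 * (1 - lam) ≤ q) (n2 : (lam⁻¹ - 1) ^ p ≤ q)
    (n3 : 1000 * (C1 * κ⁻¹ ^ p * (100 * (1 - lam)) * V + eP) ≤ q)
    (n4 : CA * (2 ^ p * eP) ≤ q) (n5 : 2 ^ (p - 1) * (2 ^ p * e1P + (2 * ka) ^ p * V) ≤ q)
    (n6 : ε1 + δP + (12 * τ + 6 * κ⁻¹ * t / s + 6 * (1 - lam)) * V ≤ r)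
    (n7 : 3 * (2 ^ (p - 1) * (2 ^ (p - 1) * ((q * ((3 * κ⁻¹) ^ p * V) +
      C * ((1 + (3 * κ⁻¹) ^ p) * (q * V)) + C * q + q) + q * (3 * κ⁻¹) ^ p * V) + q)) ≤ e)
    (n8 : 3 * (C * (2 ^ p * (Cp * eac + 2 * eP)) + C * ((1 + (3 * κ⁻¹) ^ p) * (q * V)) + q +
      C * q + q * ((1 + (3 * κ⁻¹) ^ p) * V) + q) ≤ e) :
    ∃ (K : Set R3) (g : R3 → R3), IsHomeomorphOn g Om La ∧ LocPL g Om ∧
      (∀ x ∈ Om, ‖g x - f x‖ ≤ η x) ∧
      (∫⁻ x in K, ∑ j : Fin 3, ‖Gr g j x - G j x‖ₑ ^ p) ≤ ENNReal.ofReal e ∧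
      (∫⁻ x in Om \ K, En p (Gr g) x) ≤
        ((3 * C * 2 ^ p * Cp : ℝ≥0) : ℝ≥0∞) * (∫⁻ x in Om \ K, (1 + En p G x)) +
          ENNReal.ofReal e ∧
      (∫⁻ x in (Om \ Zd G) \ K, (1 + En p G x)) ≤ ENNReal.ofReal e := by
  classical
  have hp0 : 0 ≤ p := by linarith
  have hp0' : 0 < p := by linarith
  have hτ4 : τ ≤ 1 / 4 := by linarith
  have hlam0 : 0 < lam := by linarith
  have hFc : Countable F := BF.countable.to_subtype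
  set a3 : E3 := P3.symm a with ha3
  obtain ⟨v, hvB⟩ := H.exists_v a3
  have hv : ∀ c ∈ X₀, ‖(Q c).ψ (v c)‖ ≤ 1 / (20 * 2 ^ k0) := fun c hc => (hvB c hc).1
  have hpk : (0:ℝ) < 2 ^ k0 := by positivity
  have hroom' : κw + θ / (5 * κ) ≤ τ / 2 := by
    have h1 : θ / (5 * κ) ≤ θ / κ := by
      rw [div_le_div_iff₀ (by positivity) hκ]
      nlinarith [mul_nonneg hθ0 hκ.le]
    linarith
  have hκi : 0 < κ⁻¹ := inv_pos.2 hκ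
  have hkaκ : ka ≤ κ / 16 := by
    have h1 : 0 ≤ 3 * κ⁻¹ * (κw + θ / (5 * κ)) := by positivity
    have h2 : κ * τ ≤ κ * 1 := mul_le_mul_of_nonneg_left (by linarith) hκ.le
    linarith
  set X : Set F := Xs X₀ kk Qs with hX
  have hXs : X ⊆ X₀ := fun c hc => hc.1
  set A' : F → E3 ≃ᵃ[ℝ] E3 := fun c => trA (A c) (a3 + v c) with hA'
  set Q' : F → CB E3 3 := fun c => (Q c).tr (a3 + v c) with hQ'
  set er' : F → ℝ≥0∞ := fun c => if h : c ∈ X₀ then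
    1000 * (ENNReal.ofReal (C1 * ‖L (kk c)‖ ^ p) * volume ((Q c).N \ (Q c).Kc) + er ⟨c, h⟩)
    else 0 with her'
  set lamf : F → ℝ := fun _ => lam with hlamf
  have hKor : ∀ c ∈ X₀, Kor F A' lamf c = (Q' c).Kc := fun c hc => ((hvB c hc).2.core).symm
  have hS3 := sh3_of hp1 hO hS₂
  obtain ⟨g, g1, g2, g3, g4, g5⟩ := HE (P3 ⁻¹' Om) (P3 ⁻¹' La) (e3 f₂) (D3 G₂) (isOpen_pre hO)
    (isBounded_pre hOb) (isConnected_pre hOc) (isOpen_pre hL) (isBounded_pre hLbd)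
    (isConnected_pre hLc) hS3 lam hlam0 F BF hcmp
    (fun c hc => by
      obtain ⟨S, h1, h2, h3, h4⟩ := star_of_scale hw BF hcmp hsz ⟨c, hc⟩
      exact ⟨S, h1, h2, h3, fun c' hc' h => h4 ⟨c', hc'⟩ h⟩)
    X A' lamf Q' (fun _ => k0) hk er' (fun c _ => ⟨by simp only [hlamf]; linarith, le_rfl⟩)
    (fun c hc => (hvB c hc.1).2)
    (fun c hc => by
      have h1 := H.insS hp0 hp2 hL (G₂ := G₂) hS₂.homeo BF.pos hκ hκ1 hs hτ hτ4 hLb hcel ha hc.1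
        (hcl _ hc.2) (hIn ⟨c, hc.1⟩ hc.2) hlam0.le hlam1.le hM hB hκw hhh
        (by linarith) hka0 hkb hkb1 hκwE hκ10 ht hlam m1 m2 m3 (hv c hc.1)
      have h2 : er' c = 1000 * (ENNReal.ofReal (C1 * ‖L (kk c)‖ ^ p) *
          volume ((Q c).N \ (Q c).Kc) + er ⟨c, hc.1⟩) := by
        simp only [her']
        rw [dif_pos hc.1]
      rw [h2]
      exact h1)
    (ENNReal.ofReal q) (ENNReal.ofReal_pos.2 hq0)
  -- the cores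
  have hposv : ∀ c ∈ X₀, ‖a3 + v c‖ ≤ τ / 2 * s := fun c hc =>
    H.pos_le hκ ha hs hroom' hc (hv c hc)
  have hNsub : ∀ c ∈ X₀, (Q' c).N ⊆ P3 ⁻¹' Om := fun c hc =>
    (H.N_Om hκ hs hτ hτ4 hcel hc (hposv c hc)).trans (preimage_mono (hcel _ (H.kkQ c hc)))
  have hKN : ∀ c, (Q' c).Kc ⊆ (Q' c).N := fun c => Msb_432.Kc_sub_N _
  have hKO : ∀ c ∈ X, Kor F A' lamf c ⊆ P3 ⁻¹' Om := fun c hc => by
    rw [hKor c hc.1]; exact (hKN c).trans (hNsub c hc.1)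
  have hdisj : ∀ c ∈ X, ∀ c' ∈ X, c ≠ c' → Disjoint (Kor F A' lamf c) (Kor F A' lamf c') := by
    intro c hc c' hc' hne
    rw [hKor c hc.1, hKor c' hc'.1]
    exact (H.disjN hκ hdist hs hθ (a3 := a3) hv hc.1 hc'.1 hne).mono (hKN c) (hKN c')
  have hsumK : ∑' c : X, volume (Q' c).Kc ≤ ENNReal.ofReal V :=
    (H.sum_vol hFc hκ hs hτ hτ4 hcel hdist hθ ha hroom' hv hXs).trans hV
  have hlin : ∀ c, lin (A' c) = lin (A c) := fun c => lin_trA _ _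
  have hnrm : ∀ c ∈ X, ‖lin (A' c)‖ ≤ 3 * κ⁻¹ := fun c hc => by
    rw [hlin]; exact H.nrm hκ hs (by linarith) hLb hc.1
  have hshell : ∀ c ∈ X₀, volume ((Q' c).N \ (Q' c).Kc) ≤
      ENNReal.ofReal (100 * (1 - lam)) * volume (Q' c).Kc := fun c hc =>
    Ers_685.shell_le (BF.pos _ c.2) (by linarith) hlam1.le (hvB c hc).2.core
      (fun x hx => ((hvB c hc).2.sub x hx).2)
  have hvolN : ∀ c ∈ X, volume ((Q' c).N \ Kor F A' lamf c) ≤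
      ENNReal.ofReal q * volume (Kor F A' lamf c) := by
    intro c hc
    rw [hKor c hc.1]
    exact (hshell c hc.1).trans (mul_le_mul' (ENNReal.ofReal_le_ofReal n1) le_rfl)
  -- layers
  have hLy' : (∑' c : X, ∫⁻ x in Pin_753.Ly ((mp P3 (Q c)).tr a) k0, (1 + En p G₂ x)) ≤
      ENNReal.ofReal eP := by
    rw [← (exs X₀ kk Qs).tsum_eq] at hLy
    exact hLy
  have her2 : (∑' c : X, er ⟨c.1, c.2.1⟩) ≤ ENNReal.ofReal eP := by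
    rw [← (exs X₀ kk Qs).tsum_eq] at her
    exact her
  have hlay := Ers_685.layers_le hp0' (G := G₂) (fun c : X => Q c) (fun _ => k0) a
    (fun c : X => v c) (fun c => by
      refine (hv _ c.2.1).trans ?_
      rw [div_le_div_iff₀ (by positivity) hpk]
      nlinarith)
  have h2pr : (2:ℝ≥0∞) ^ p = ENNReal.ofReal (2 ^ p) := by
    rw [← ENNReal.ofReal_rpow_of_pos (by norm_num)]; norm_num
  have hs2 : CA * (∑' c : X, ∫⁻ x in Ea0_961.Ly (Q' c) k0, (1 + ‖D3 G₂ x‖ₑ ^ p)) ≤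
      ENNReal.ofReal q := by
    calc _ ≤ CA * (2 ^ p * ENNReal.ofReal eP) := by
          gcongr
          exact hlay.trans (mul_le_mul' le_rfl hLy')
      _ = ENNReal.ofReal (CA * (2 ^ p * eP)) := by
          rw [h2pr, ← ENNReal.ofReal_mul (by positivity), ENNReal.ofReal_mul (NNReal.coe_nonneg CA),
            ENNReal.ofReal_coe_nnreal]
      _ ≤ _ := ENNReal.ofReal_le_ofReal n4
  -- errors
  have hs3 : ∑' c : X, er' c ≤ ENNReal.ofReal q := by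
    have h1 : ∀ c : X, er' c = 1000 * (ENNReal.ofReal (C1 * ‖L (kk c)‖ ^ p) *
        volume ((Q c).N \ (Q c).Kc) + er ⟨c.1, c.2.1⟩) := by
      intro c
      simp only [her']
      rw [dif_pos c.2.1]
    have hvtr : ∀ c, volume ((Q' c).N \ (Q' c).Kc) = volume ((Q c).N \ (Q c).Kc) := by
      intro c
      have e : (Q' c).N \ (Q' c).Kc = (fun y => y + (-(a3 + v c))) ⁻¹' ((Q c).N \ (Q c).Kc) := by
        ext y
        rw [Set.mem_sdiff, mem_preimage, Set.mem_sdiff, hQ', CB.mem_N_tr, CB.mem_Kc_tr,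
          sub_eq_add_neg]
      rw [e, measure_preimage_add_right]
    calc ∑' c : X, er' c = ∑' c : X, 1000 * (ENNReal.ofReal (C1 * ‖L (kk c)‖ ^ p) *
          volume ((Q c).N \ (Q c).Kc) + er ⟨c.1, c.2.1⟩) := tsum_congr h1
      _ ≤ ENNReal.ofReal (1000 * (C1 * κ⁻¹ ^ p * (100 * (1 - lam)) * V + eP)) :=
          Ers_685.er_sum hp0 (nL := fun c : X => ‖L (kk c)‖) hκ hC1 (fun _ => norm_nonneg _)
            (fun c => (hLb _ (H.kkQ _ c.2.1)).2) (S := fun c : X => (Q c).N \ (Q c).Kc)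
            (K := fun c : X => (Q' c).Kc) (by linarith) hV0 heP
            (fun c => by rw [← hvtr]; exact hshell _ c.2.1) hsumK her2
      _ ≤ _ := ENNReal.ofReal_le_ofReal n3
  -- outside
  have hUN : ⋃ c ∈ X, (Q' c).N = ⋃ c : X, (Q' c).N := biUnion_eq_iUnion _ _
  have hUK : ⋃ c ∈ X, Kor F A' lamf c = ⋃ c : X, (Q' c).Kc := by
    rw [biUnion_eq_iUnion]
    exact iUnion_congr fun c => hKor _ c.2.1
  have hout2 := Ers_685.outside_le hp0' (Om := Om) (G := G₂) (fun c : X => Q c) (fun _ => k0) a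
    (fun c : X => v c) (fun c => by
      refine (hv _ c.2.1).trans ?_
      rw [div_le_div_iff₀ (by positivity) hpk]
      nlinarith)
  have hswap := H.swap (G := G) hFc hκ hs hτ hc1 hτ4 hcel hdist hθ ha hroom' hv hXs hV0 hV hr hac
  rw [iUnion_xs X₀ kk Qs (fun c => ((mp P3 (Q c)).tr a).N),
    iUnion_xs X₀ kk Qs (fun c => ((mp P3 (Q c)).tr a).Kc)] at hout
  have hKR : ⋃ c : X, P3.symm ⁻¹' (Q' c).Kc = P3.symm ⁻¹' ⋃ c ∈ X, Kor F A' lamf c := by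
    rw [hUK, preimage_iUnion]
  have houtF : (∫⁻ x in P3 ⁻¹' Om \ ⋃ c ∈ X, (Q' c).N, (1 + ‖D3 G₂ x‖ₑ ^ p)) ≤
      2 ^ p * (Cp * ∫⁻ x in Om \ P3.symm ⁻¹' ⋃ c ∈ X, Kor F A' lamf c, (1 + En p G x)) +
        ENNReal.ofReal (2 ^ p * (Cp * eac + 2 * eP)) := by
    rw [hUN, ← hKR]
    have hCpr : (Cp : ℝ≥0∞) = ENNReal.ofReal (Cp : ℝ) := by rw [ENNReal.ofReal_coe_nnreal]
    calc _ ≤ 2 ^ p * (∫⁻ x in Om \ ⋃ c : X, ((mp P3 (Q c)).tr a).N, (1 + En p G₂ x)) +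
          2 ^ p * ∑' c : X, ∫⁻ x in Pin_753.Ly ((mp P3 (Q c)).tr a) k0, (1 + En p G₂ x) := hout2
      _ ≤ 2 ^ p * (Cp * ((∫⁻ x in Om \ ⋃ c : X, P3.symm ⁻¹' (Q' c).Kc, (1 + En p G x)) +
            ENNReal.ofReal eac) + ENNReal.ofReal eP) + 2 ^ p * ENNReal.ofReal eP := by
          gcongr
          exact hout.trans (add_le_add (mul_le_mul' le_rfl hswap) le_rfl)
      _ = 2 ^ p * (Cp * ∫⁻ x in Om \ ⋃ c : X, P3.symm ⁻¹' (Q' c).Kc, (1 + En p G x)) +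
            2 ^ p * (Cp * ENNReal.ofReal eac + 2 * ENNReal.ofReal eP) := by ring
      _ = _ := by
          congr 1
          rw [h2pr, hCpr, ← ENNReal.ofReal_mul (by positivity),
            show (2:ℝ≥0∞) = ENNReal.ofReal 2 by norm_num, ← ENNReal.ofReal_mul (by norm_num),
            ← ENNReal.ofReal_add (by positivity) (by positivity),
            ← ENNReal.ofReal_mul (by positivity)]
  -- near
  have hnear : ∑' c : X, ∫⁻ x in Kor F A' lamf c, ‖D3 G x - lin (A' c)‖ₑ ^ p ≤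
      ENNReal.ofReal q := by
    have h1 := H.near (G := G) hp1 hFc hκ hs hτ hτ4 hLb hcel hdist hθ ha hroom' hv hXs he1P hV0 hV
      hka0 hen
    refine le_trans (le_of_eq (tsum_congr fun c => ?_)) (h1.trans (ENNReal.ofReal_le_ofReal n5))
    rw [hKor _ c.2.1]
  have hN0 : 0 ≤ 3 * κ⁻¹ := by positivity
  have hln : 0 ≤ (lam⁻¹ - 1) := by
    have := (one_le_inv₀ hlam0).2 hlam1.le
    linarith
  have hfin := fin_bfk hp1 hO hS hFc (A := A') hlam0 hlam1.le hN0 hnrm hKO hdisj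
    (NQ := fun c => (Q' c).N) (Ly := fun c => Ea0_961.Ly (Q' c) k0) (er := er') (C := C) (Cp := Cp)
    (CA := CA) (e1 := q) (e := e) (m := q) (V := V) (s2 := q) (s3 := q) (h := q)
    (e2 := 2 ^ p * (Cp * eac + 2 * eP)) (e3 := q) (G₂ := G₂) hV0 hV hq0.le hq0.le hq0.le hq0.le
    hq0.le (by positivity) hq0.le g2 g4 g5 hvolN hs2 hs3 houtF hnear (by
      refine le_trans ?_ n7
      gcongr) n8
  refine ⟨P3.symm ⁻¹' ⋃ c ∈ X, Kor F A' lamf c, r3 g, homeo_of g1, locPL_r3 g2,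
    Dsp_685.disp hw BF hsz hwη hS₂.homeo hd g3, hfin.1, hfin.2, ?_⟩
  have hsub : (Om \ Zd G) \ P3.symm ⁻¹' (⋃ c ∈ X, Kor F A' lamf c) ⊆
      (Om ∩ {x | (Gmat G x).det ≠ 0}) \ P3.symm ⁻¹' (⋃ c ∈ X, Kor F A' lamf c) := by
    rintro x ⟨⟨h1, h2⟩, h3⟩
    exact ⟨⟨h1, h2⟩, h3⟩
  have hvv := H.vol hO BF hκ hκ1 hs hτ hτ8 ht0 hLb hcel hpar hszt hQs ha hv hkaκ hkb hlam0 hlam1
    hkb2 hlam hcard hε1 hvol hV0 hV
  refine (hac _ (fun x hx => hx.1.1) ((measure_mono hsub).trans (hvv.trans ?_))).trans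
    (ENNReal.ofReal_le_ofReal hace)
  exact ENNReal.ofReal_le_ofReal n6

end

end

end Crest.Agent.R096.Br_695
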