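import Crest.Agent.R096.Br13_695

/-!
Row 96 (S0127), helper695.  **`r12`**: `EA0 p → PreIN p → BFk p`, `1 ≤ p < 3`.
-/

set_option autoImplicit false
set_option linter.unusedSectionVars false
set_option linter.unusedVariables false
set_option linter.style.longLine false

open MeasureTheory Set Filter Metric Module
open scoped ENNReal NNReal Topology

namespace Crest.Agent.R096.Br_695

open Crest.AnalysisR.VecCalc3 Crest.AnalysisR.Sobolev
open Crest.Agent.R96.Lu_538 Crest.Agent.R96.Intr_538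
open Crest.Agent.R96.Coarse_538 hiding E3
open Crest.Agent.R096.Sk_962 (SH Gr)
open Crest.Agent.R096.Sk4_663 (Zd BFs lintegral_of_memLp)
open Crest.Agent.R096.Bsp_628
open Crest.Agent.R096.Bxs_627 hiding E3
open Crest.Agent.R96.En10_199
open Crest.Agent.R096.SkC1_961 (E3 Hom3)
open Crest.Agent.R096.Er_594
open Crest.Agent.R096.EaX_766 (cbx lin Kor)
open Crest.Agent.R096.Brk5_582 (Cmp)
open Crest.Agent.R096.Msh_715 Crest.Agent.R096.Mal_874
open Crest.Agent.R096.Pin_753 (Bk InP BlkP PreIN)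
open Crest.Agent.R096.Ea0_961 (InS Blk EA0)
open Crest.Agent.R096.Tmap_212 (mp)
open Crest.Agent.R096.Fns_360 (trA trA_apply trA_linear trA_sub)
open Crest.Agent.R096.ThC6_766 (Scale)
open Crest.Agent.R096.Str_696 (LocPL)

noncomputable section

/-- numbers after `M` (`tb = κ τ / 2`) -/
theorem numW {p κ κ1 κwE τ q V M lam : ℝ} (hp : 1 ≤ p) (hκ : 0 < κ) (hκ1 : κ ≤ 1) (hκ10 : 0 < κ1)
    (hκw : 0 < κwE) (hτ : 0 < τ) (hτ8 : τ ≤ 1 / 8) (hq : 0 < q) (hV : 0 ≤ V) (hM : 1 ≤ M)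
    (hlam : 1 / 2 ≤ lam) (hlam1 : lam < 1) :
    ∃ kb κw kl e1P : ℝ, 0 < kb ∧ 0 < κw ∧ 0 < kl ∧ 0 < e1P ∧ kl < κ / 2 ∧
      kb ≤ κ * τ / 16 ∧ κw ≤ κ * kb / 12 ∧ kl ≤ kb / 4 ∧
      (κw + kb) * M ≤ κwE * (κ * τ / 2 / 12) ∧ 2 * κw + 2 * kb ≤ κ / 4 * κwE ∧
      kb ≤ κ1 * (κ * τ / 2 / 12) / 2 ∧ kb ≤ (1 - lam) * (κ * τ / 2) / 144 ∧
      2 * kb ≤ (1 - lam) * (κ * τ / 2 / 18) ∧
      2 ^ (p - 1) * (2 ^ p * e1P + kb ^ p * V) ≤ q := by
  have hl : 0 < 1 - lam := by linarith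
  set tb : ℝ := κ * τ / 2 with htb
  have htb0 : 0 < tb := by positivity
  set x1 : ℝ := κ * τ / 16 with hx1
  set x2 : ℝ := κwE * (tb / 24) / M with hx2
  set x3 : ℝ := κ * κwE / 16 with hx3
  set x4 : ℝ := κ1 * (tb / 12) / 2 with hx4
  set x5 : ℝ := (1 - lam) * tb / 144 with hx5
  set x6 : ℝ := q / (2 ^ p * (V + 1)) with hx6
  have h2p : 0 < (2:ℝ) ^ p := by positivity
  set kb : ℝ := min x1 (min x2 (min x3 (min x4 (min x5 x6)))) with hkb
  have hkb0 : 0 < kb := by positivity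
  have k1 : kb ≤ x1 := min_le_left _ _
  have k2 : kb ≤ x2 := (min_le_right _ _).trans (min_le_left _ _)
  have k3 : kb ≤ x3 := (min_le_right _ _).trans ((min_le_right _ _).trans (min_le_left _ _))
  have k4 : kb ≤ x4 := (min_le_right _ _).trans ((min_le_right _ _).trans
    ((min_le_right _ _).trans (min_le_left _ _)))
  have k5 : kb ≤ x5 := (min_le_right _ _).trans ((min_le_right _ _).trans
    ((min_le_right _ _).trans ((min_le_right _ _).trans (min_le_left _ _))))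
  have k6 : kb ≤ x6 := (min_le_right _ _).trans ((min_le_right _ _).trans
    ((min_le_right _ _).trans ((min_le_right _ _).trans (min_le_right _ _))))
  have hκτ : κ * τ ≤ κ * (1 / 8) := mul_le_mul_of_nonneg_left hτ8 hκ.le
  have hkb1 : kb ≤ 1 / 128 := by
    have : κ * (1 / 8) ≤ 1 / 8 := by linarith
    linarith
  have hkw : κ * kb / 12 ≤ kb := by nlinarith
  have hkbκ : kb ≤ κ / 128 := by linarith
  refine ⟨kb, κ * kb / 12, kb / 4, q / (4 ^ p), hkb0, by positivity, by positivity, by positivity,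
    by linarith, k1, le_rfl, le_rfl, ?_, ?_, ?_, k5, ?_, ?_⟩
  · rw [hx2, le_div_iff₀ (by linarith)] at k2
    have : κ * kb / 12 + kb ≤ 2 * kb := by linarith
    calc (κ * kb / 12 + kb) * M ≤ 2 * kb * M := mul_le_mul_of_nonneg_right this (by linarith)
      _ = 2 * (kb * M) := by ring
      _ ≤ 2 * (κwE * (tb / 24)) := by linarith
      _ = κwE * (tb / 12) := by ring
  · have : κ / 4 * κwE = 4 * x3 := by rw [hx3]; ring
    rw [this]; linarith
  · exact k4
  · have e1 : (1 - lam) * (tb / 18) = 8 * x5 := by rw [hx5]; ring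
    rw [e1]; linarith
  · have h4p : (4:ℝ) ^ p = 2 ^ p * 2 ^ p := by
      rw [← Real.mul_rpow (by norm_num) (by norm_num)]; norm_num
    have h2p1 : (2:ℝ) ^ (p - 1) * 2 = 2 ^ p := by
      rw [Real.rpow_sub_one (by norm_num)]; ring
    have h1 : kb ^ p ≤ kb := by
      calc kb ^ p ≤ kb ^ (1:ℝ) :=
            Real.rpow_le_rpow_of_exponent_ge hkb0 (by linarith) hp
        _ = kb := Real.rpow_one _
    rw [hx6, le_div_iff₀ (by positivity)] at k6
    have h3 : kb ^ p * V ≤ kb * (V + 1) := by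
      have := mul_le_mul_of_nonneg_right h1 hV
      nlinarith
    have h5 : 2 ^ p * (q / 4 ^ p) = q / 2 ^ p := by rw [h4p]; field_simp
    have h6 : 2 ^ p * (kb * (V + 1)) ≤ q := by linarith
    have h7 : (2:ℝ) ^ (p - 1) = 2 ^ p / 2 := by linarith
    rw [h5, h7]
    have h8 : 2 ^ p / 2 * (q / 2 ^ p + kb ^ p * V) ≤ 2 ^ p / 2 * (q / 2 ^ p + kb * (V + 1)) := by
      gcongr
    have h9 : 2 ^ p / 2 * (q / 2 ^ p + kb * (V + 1)) = q / 2 + 2 ^ p * (kb * (V + 1)) / 2 := by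
      field_simp
    linarith

/-- numbers after `CA`, `κt`, `θ0`: the wall scale -/
theorem numT {κ c1 c2 κt B kb τ θ0 r V : ℝ} (hκ : 0 < κ) (hc1 : 0 < c1) (hc2 : 0 < c2)
    (hκt : 0 < κt) (hB : 0 < B) (hkb : 0 < kb) (hτ : 0 < τ) (hθ0 : 0 < θ0) (hr : 0 < r)
    (hV : 0 ≤ V) :
    ∃ θ : ℝ, 0 < θ ∧ θ ≤ θ0 ∧ θ ≤ c1 ∧ θ ≤ κt * c1 * B ∧ θ ≤ kb / 4 ∧
      3 * κ⁻¹ * (θ / (5 * κ)) ≤ kb / 4 ∧ θ / κ ≤ τ / 4 ∧ 4 * θ / (5 * κ) < c2 ∧ θ * V ≤ c1 * r := by
  set x : ℝ := min θ0 (min c1 (min (κt * c1 * B) (min (kb / 4) (min (5 * κ ^ 2 * kb / 12)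
    (min (κ * τ / 4) (min (κ * c2) (c1 * r / (V + 1)))))))) with hx
  have hx0 : 0 < x := by positivity
  have k1 : x ≤ θ0 := min_le_left _ _
  have k2 : x ≤ c1 := (min_le_right _ _).trans (min_le_left _ _)
  have k3 : x ≤ κt * c1 * B := (min_le_right _ _).trans ((min_le_right _ _).trans (min_le_left _ _))
  have k4 : x ≤ kb / 4 := (min_le_right _ _).trans ((min_le_right _ _).trans
    ((min_le_right _ _).trans (min_le_left _ _)))
  have k5 : x ≤ 5 * κ ^ 2 * kb / 12 := (min_le_right _ _).trans ((min_le_right _ _).trans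
    ((min_le_right _ _).trans ((min_le_right _ _).trans (min_le_left _ _))))
  have k6 : x ≤ κ * τ / 4 := (min_le_right _ _).trans ((min_le_right _ _).trans
    ((min_le_right _ _).trans ((min_le_right _ _).trans ((min_le_right _ _).trans
      (min_le_left _ _)))))
  have k7 : x ≤ κ * c2 := (min_le_right _ _).trans ((min_le_right _ _).trans
    ((min_le_right _ _).trans ((min_le_right _ _).trans ((min_le_right _ _).trans
      ((min_le_right _ _).trans (min_le_left _ _))))))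
  have k8 : x ≤ c1 * r / (V + 1) := (min_le_right _ _).trans ((min_le_right _ _).trans
    ((min_le_right _ _).trans ((min_le_right _ _).trans ((min_le_right _ _).trans
      ((min_le_right _ _).trans (min_le_right _ _))))))
  refine ⟨x, hx0, k1, k2, k3, k4, ?_, ?_, ?_, ?_⟩
  · have e1 : 3 * κ⁻¹ * (x / (5 * κ)) = 3 * x / (5 * κ ^ 2) := by field_simp
    rw [e1, div_le_iff₀ (by positivity)]
    nlinarith
  · rw [div_le_iff₀ hκ]
    linarith
  · rw [div_lt_iff₀ (by positivity)]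
    nlinarith [mul_pos hκ hc2]
  · rw [le_div_iff₀ (by positivity)] at k8
    nlinarith

end

end Crest.Agent.R096.Br_695
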