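import Crest.Agent.R096.Br14_695

/-!
Row 96 (S0127), helper695.  **`r12`**, step at fixed constants and fixed scale `s`.
-/

set_option autoImplicit false
set_option linter.unusedSectionVars false
set_option linter.unusedVariables false
set_option linter.style.longLine false

open MeasureTheory Set Filter Metric Module
open scoped ENNReal NNReal Topology

namespace Crest.Agent.R096.Br_695

open Crest.AnalysisR.VecCalc3 Crest.AnalysisR.Sobolev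
open Crest.Agent.R96.Lu_538 Crest.Agent.R96.Intr_538
open Crest.Agent.R96.Coarse_538 hiding E3
open Crest.Agent.R096.Sk_962 (SH Gr)
open Crest.Agent.R096.Sk4_663 (Zd BFs lintegral_of_memLp)
open Crest.Agent.R096.Bsp_628
open Crest.Agent.R096.Bxs_627 hiding E3
open Crest.Agent.R96.En10_199
open Crest.Agent.R096.SkC1_961 (E3 Hom3)
open Crest.Agent.R096.Er_594
open Crest.Agent.R096.EaX_766 (cbx lin Kor)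
open Crest.Agent.R096.Brk5_582 (Cmp)
open Crest.Agent.R096.Msh_715 Crest.Agent.R096.Mal_874
open Crest.Agent.R096.Pin_753 (Bk InP BlkP PreIN)
open Crest.Agent.R096.Ea0_961 (InS Blk EA0)
open Crest.Agent.R096.Tmap_212 (mp)
open Crest.Agent.R096.Fns_360 (trA trA_apply trA_linear trA_sub)
open Crest.Agent.R096.ThC6_766 (Scale)
open Crest.Agent.R096.Str_696 (LocPL)

noncomputable section

/-- the tail of `PreIN p`, at the scale `s` -/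
def PIt (p : ℝ) (Bs : ℕ) (C : ℝ≥0) (Om La : Set R3) (f : R3 → R3) (G : Fin 3 → R3 → R3)
    (ε κ : ℝ) (K K' : Set R3) (C1 τ hh c1 c2 κw e : ℝ) (Nn : ℕ) (θ0 θ1 : ℝ) (η : R3 → ℝ)
    (e1 δ s : ℝ) (a₀ : R3) : Prop :=
  ∃ (Q₀ : Finset (Fin 3 → ℤ)) (b : (Fin 3 → ℤ) → R3) (L : (Fin 3 → ℤ) → R3 →L[ℝ] R3),
    (∀ k ∈ Q₀, (∀ v, κ * ‖v‖ ≤ ‖L k v‖) ∧ ‖L k‖ ≤ κ⁻¹) ∧
    (∀ k ∈ Q₀, cel Cb (vt (2 * s) a₀ k) s ⊆ K) ∧ (∀ k ∈ Q₀, par Cb (L k) (b k) s ⊆ K') ∧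
    (∀ k ∈ Q₀, ∀ l ∈ Q₀, k ≠ l →
      Disjoint (par Cb (L k) (b k) ((1 - τ) * s)) (par Cb (L l) (b l) s)) ∧
    (∑ k ∈ Q₀, ∫⁻ x in cel Cb (vt (2 * s) a₀ k) s, ‖Gmat G x - L k‖ₑ ^ p) ≤ ENNReal.ofReal e1 ∧
    volume ((Om ∩ {x | (Gmat G x).det ≠ 0}) \ ⋃ k ∈ Q₀, cel Cb (vt (2 * s) a₀ k) s) ≤
      ENNReal.ofReal ε ∧
  ∀ (J : Type) [Finite J] (kk : J → Fin 3 → ℤ) (Qb : J → CB R3 3) (k0 : ℕ)
    (hk : ∀ j, (Qb j).kc ≤ k0), (∀ j, kk j ∈ Q₀) →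
    (∀ j, BlkP κ s τ hh c1 θ0 θ1 Bs Nn (vt (2 * s) a₀ (kk j)) (Qb j) k0) →
    (∀ i j, i ≠ j → ∀ x ∈ (Qb i).N, ∀ y ∈ (Qb j).N, c2 * s ≤ dist x y) →
  ∃ a : R3, ‖a‖ ≤ κw * s ∧ ∃ Q ⊆ Q₀, ((Q₀ \ Q).card : ℝ) * (2 * s) ^ 3 ≤ δ ∧
  ∃ (f₂ : R3 → R3) (G₂ : Fin 3 → R3 → R3) (er : J → ℝ≥0∞), SH p Om La f₂ G₂ ∧
    (∀ x ∈ Om, ‖f₂ x - f x‖ ≤ η x) ∧
    (∀ k ∈ Q, ∀ x ∈ cel Cb (vt (2 * s) a₀ k) ((1 - τ) * s),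
      ‖f₂ x - Bk (b k) (L k) (vt (2 * s) a₀ k) x‖ ≤ C1 * hh * s) ∧
    (∀ j, kk j ∈ Q → InP p f₂ (Gmat G₂) C1 κw s (b (kk j)) (L (kk j))
      (vt (2 * s) a₀ (kk j)) (er j) ((Qb j).tr a) k0 (hk j)) ∧
    (∑' j : {j // kk j ∈ Q}, er j) ≤ ENNReal.ofReal e ∧
    (∑' j : {j // kk j ∈ Q}, ∫⁻ x in Pin_753.Ly ((Qb j).tr a) k0, (1 + En p G₂ x)) ≤
      ENNReal.ofReal e ∧
    (∫⁻ x in Om \ ⋃ j ∈ {j | kk j ∈ Q}, ((Qb j).tr a).N, (1 + En p G₂ x)) ≤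
      C * (∫⁻ x in Om \ ⋃ j ∈ {j | kk j ∈ Q}, ((Qb j).tr a).Kc, (1 + En p G x)) + ENNReal.ofReal e

set_option maxHeartbeats 1000000 in
/-- **one scale** -/
theorem r3_step {p : ℝ} (hp1 : 1 ≤ p) (hp3 : p ≤ 3) {Om La : Set R3} {f : R3 → R3}
    {G : Fin 3 → R3 → R3} (hO : IsOpen Om) (hOb : Bornology.IsBounded Om) (hOc : IsConnected Om)
    (hL : IsOpen La) (hLbd : Bornology.IsBounded La) (hLc : IsConnected La)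
    (hS : SH p Om La f G) {w : E3 → ℝ} (hw : Scale (P3 ⁻¹' La) w) {η : R3 → ℝ} {C Cp CA : ℝ≥0}
    (hwη : ∀ x ∈ Om, 4 * (C * w (P3.symm (f x))) ≤ η x / 2)
    {Bs μ Nn : ℕ} (hBs1 : 1 ≤ Bs) (hBs2 : 4 * (12 * Mf) ^ 2 ≤ Bs) (hBs3 : 8 * (12 * Mf) ≤ Bs)
    {B q lam κ1 κwE κt : ℝ} (hq0 : 0 < q) (hB : B = 12 * Mf)
    (HE : EA0t p δf 3 6 (1 / 4) (1 / 4) B Bs C q lam κ1 (2 ^ μ) κwE Nn CA κt)
    {ε1 κ : ℝ} {K K' : Set R3} (hK : K ⊆ Om) (hK' : K' ⊆ La) {C1 τ hh c1 c2 κw eP θ0 θ θ1 e1P δP s : ℝ}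
    (HP : PIt p Bs Cp Om La f G ε1 κ K K' C1 τ hh c1 c2 κw eP Nn θ0 θ1
      (fun x => min (η x / 4) (w (P3.symm (f x)))) e1P δP s 0)
    {ρ0 : ℝ} (hρ : ∀ y ∈ P3 ⁻¹' K', ρ0 ≤ w y) {kl : ℝ}
    (hnet : ∀ L : R3 →L[ℝ] R3, (∀ v, κ * ‖v‖ ≤ ‖L v‖) → ‖L‖ ≤ κ⁻¹ →
      ∀ u : ℝ, 1 / 2 ≤ u → u ≤ 1 →
      ∃ (ψ : E3 ≃L[ℝ] (Fin 3 → ℝ)), (∃ (d : ℕ) (Bm : Fin 3 → Fin 3 → ℤ), 0 < d ∧ d ≤ Nn ∧
        (∀ i j, |Bm i j| ≤ Nn) ∧ Rt (ContinuousLinearEquiv.refl ℝ E3) ψ Bm d) ∧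
        ∀ v, ‖u • ψ v - Ins_685.L3 L v‖ ≤ kl * ‖v‖)
    {tb t κ' kb V r eac e : ℝ} (ht : t = tb * s) (htb0 : 0 < tb) (hst1 : t ≤ 1 / 4)
    (hst2 : t ≤ ρ0)
    {k0 : ℕ} (hk3 : 3 ≤ k0) (hk1 : θ1 * s ≤ 1 / 2 ^ k0) (hk2 : 1 / 2 ^ k0 ≤ θ * s)
    (hκ : 0 < κ) (hκ1 : κ ≤ 1) (hs : 0 < s) (hτ : 0 < τ) (hτ8 : τ ≤ 1 / 8)
    (hlam : 1 / 2 ≤ lam) (hlam1 : lam < 1)
    (b1 : 2 * κ⁻¹ * t ≤ τ * s) (b2 : 11 ≤ 2 * κ' * 2 ^ μ) (b3 : 0 ≤ κ') (b4 : 2 * κ' ≤ 1 / 4)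
    (b5 : (1 + 2 * κ') * lam ≤ (1 + lam) / 2) (b6 : 0 < kl)
    (b7 : kl + θ ≤ κ * τ / 16) (b8 : c1 * s * (12 * Mf * 2 ^ μ) ≤ t / 6)
    (b9 : t ≤ hh * s * (2 * 2 ^ μ)) (b10 : θ ≤ c1) (b11 : θ ≤ κt * c1 * (12 * Mf))
    (b12 : (kl + θ) * s ≤ (1 - lam) * t / 144) (b13 : c2 ≤ 2 * τ)
    (b14 : c2 * s ≤ (1 - lam) * κ * t / 216) (b15 : θ ≤ θ0)
    (hκw : 0 ≤ κw) (hC1 : 0 ≤ C1) (hc1 : 0 < c1) (hθ0 : 0 < θ)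
    (hhh : C1 * hh ≤ κ * τ) (hroom : κw + θ / κ ≤ τ / 2)
    (hkb : kl + θ + 3 * κ⁻¹ * (κw + θ / (5 * κ)) ≤ kb) (hkb1 : kb ≤ κ * τ / 16)
    (hκwE : 0 ≤ κwE) (hκ10 : 0 ≤ κ1)
    (m1 : (κw + kb) * ((2 ^ μ : ℕ) : ℝ) ≤ κwE * (tb / 12)) (m2 : 2 * κw + 2 * kb ≤ κ / 4 * κwE)
    (m3 : C1 * hh + kb ≤ κ1 * (tb / 12)) (hθ : 4 * θ / (5 * κ) < c2)
    (hkb2 : 2 * (kb * s) ≤ (1 - lam) * (t / 18))
    (hV0 : 0 ≤ V) (hV : volume Om ≤ ENNReal.ofReal V) (hr : θ * V ≤ c1 * r)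
    (hac : ∀ T ⊆ Om, volume T ≤ ENNReal.ofReal r →
      ∫⁻ x in T, (1 + En p G x) ≤ ENNReal.ofReal eac)
    (hac0 : 0 ≤ eac) (hace : eac ≤ e) (heP : 0 ≤ eP) (hε1 : 0 ≤ ε1) (he1P : 0 ≤ e1P)
    (n1 : 100 * (1 - lam) ≤ q) (n2 : (lam⁻¹ - 1) ^ p ≤ q)
    (n3 : 1000 * (C1 * κ⁻¹ ^ p * (100 * (1 - lam)) * V + eP) ≤ q)
    (n4 : CA * (2 ^ p * eP) ≤ q) (n5 : 2 ^ (p - 1) * (2 ^ p * e1P + (2 * (kl + θ)) ^ p * V) ≤ q)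
    (n6 : ε1 + δP + (12 * τ + 6 * κ⁻¹ * t / s + 6 * (1 - lam)) * V ≤ r)
    (n7 : 3 * (2 ^ (p - 1) * (2 ^ (p - 1) * ((q * ((3 * κ⁻¹) ^ p * V) +
      C * ((1 + (3 * κ⁻¹) ^ p) * (q * V)) + C * q + q) + q * (3 * κ⁻¹) ^ p * V) + q)) ≤ e)
    (n8 : 3 * (C * (2 ^ p * (Cp * eac + 2 * eP)) + C * ((1 + (3 * κ⁻¹) ^ p) * (q * V)) + q +
      C * q + q * ((1 + (3 * κ⁻¹) ^ p) * V) + q) ≤ e) :
    ∃ (K : Set R3) (g : R3 → R3), IsHomeomorphOn g Om La ∧ LocPL g Om ∧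
      (∀ x ∈ Om, ‖g x - f x‖ ≤ η x) ∧
      (∫⁻ x in K, ∑ j : Fin 3, ‖Gr g j x - G j x‖ₑ ^ p) ≤ ENNReal.ofReal e ∧
      (∫⁻ x in Om \ K, En p (Gr g) x) ≤
        ((3 * C * 2 ^ p * Cp : ℝ≥0) : ℝ≥0∞) * (∫⁻ x in Om \ K, (1 + En p G x)) +
          ENNReal.ofReal e ∧
      (∫⁻ x in (Om \ Zd G) \ K, (1 + En p G x)) ≤ ENNReal.ofReal e := by
  have hMf : 4 / dl (Fin 3) 3 ≤ Mf := le_max_left _ _
  have hM2 : 2 ≤ Mf := le_max_right _ _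
  have hMf0 : 0 < Mf := by linarith
  have ht0 : 0 < t := by rw [ht]; positivity
  have hB0 : 0 < B := by rw [hB]; positivity
  obtain ⟨F, BF, hcmp, hdy, hszF, hszF'⟩ := exists_foam_t
    (Crest.Agent.R096.Er_594.isBounded_pre hLbd) hw ht0 (by linarith) hMf hM2
  obtain ⟨Q₀, b, L, hLk, hQK, hQK', hpar, hen, hvol, HP4⟩ := HP
  have hsz : ∀ C ∈ F, ∀ x ∈ C.set, C.sz ≤ w x := fun C hC x hx =>
    (hszF C hC x hx).trans (min_le_right _ _)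
  have hszt : ∀ C ∈ F, C.sz ≤ t := fun C hC =>
    (hszF C hC _ (ctr_mem (BF.pos _ hC))).trans (min_le_left _ _)
  have hszb : ∀ k ∈ Q₀, ∀ C ∈ F, ∀ x ∈ C.set, x ∈ P3 ⁻¹' par Cb (L k) (b k) s →
      t ≤ 6 * C.sz := by
    intro k hk C hC x hx hxp
    have h1 := hszF' C hC x hx
    have h2 : x ∈ P3 ⁻¹' K' := hQK' k hk hxp
    have h3 := hρ x h2
    rwa [min_eq_left (hst2.trans h3)] at h1
  obtain ⟨X₀, kk, Q, A, hk, hfin, hX1, hX2, hX3, hX4, hX5⟩ :=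
    Blk_212.exists_fam (Md := Mf) (t := t) (hh := hh) (c1 := c1) (c2 := c2)
    (θ := θ) (θ1 := θ1) (kl := kl) (lam := lam) (κ' := κ') (κ2 := 1 / 4) (κt := κt) (Cc := B)
    (a₀ := (0:R3)) BF hL hcmp hMf0 hdy hBs1 hBs2 hBs3 μ hκ hκ1 hLk
    (fun k hk => (hQK' k hk).trans hK') hpar hs hτ hτ8 hszt hszb hst1 b1 hlam hlam1 b2 b3 b4 b5
    (by rw [hB]; linarith) hB.ge b6.le b7 hnet b8 b9 hk3 hk1 hk2 b10 b11 b12 b13 b14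
  have H : Fam La F κ κ' κt s t τ hh c1 θ θ1 (kl + θ) lam B Bs (2 ^ μ) Nn k0 0 Q₀ b L
      X₀ kk Q A hk :=
    { fin := hfin
      kkQ := fun c hc => (hX1 c hc).1
      ins := fun c hc => (hX1 c hc).2.1
      two := fun c hc => (hX1 c hc).2.2
      all := hX2
      szl := fun c hc => (hX3 c hc).1
      szu := fun c hc => (hX3 c hc).2
      N_sub := fun c hc => (hX4 c hc).sub
      core := fun c hc => (hX4 c hc).core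
      lin_eq := fun c hc => (hX4 c hc).lin_eq
      close := fun c hc => (hX4 c hc).near
      blkP := fun c hc => (hX4 c hc).blkP
      blk := fun c hc => (hX4 c hc).tr }
  have hfin' : Finite X₀ := hfin.to_subtype
  obtain ⟨a, ha, Qs, hQs, hcard, f₂, G₂, er, hS₂, hη₂, hcl, hIn, her, hLy, hout⟩ :=
    HP4 X₀ (fun j => kk j.1) (fun j => mp P3 (Q j.1)) k0 (fun j => hk j.1)
      (fun j => H.kkQ _ j.2) (fun j => Blk_212.BlkP.mono_θ hs (H.blkP _ j.2) b15)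
      (fun i j hij => hX5 _ i.2 _ j.2 (fun h => hij (Subtype.ext h)))
  exact H.finish hp1 hp3 hO hOb hOc hL hLbd hLc hS hS₂ BF hcmp hw hsz hszt hwη hη₂ hq0 HE hQs
    hcard ha hcl hIn her hLy hout hLk (fun k hk => (hQK k hk).trans hK)
    (fun k hk => (hQK' k hk).trans hK') hε1 he1P hen hvol hX5 hκ hκ1
    hs hτ hτ8 ht0 hlam hlam1 (by positivity) hB0.le hκw hC1 hc1 hθ0.le hhh hroom (by linarith) hkb hkb1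
    hκwE hκ10 ht m1 m2 m3 hθ hkb2 hV0 hV hr hac hac0 hace heP n1 n2 n3 n4 n5 n6 n7 n8

end

end Crest.Agent.R096.Br_695
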