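import Crest.Agent.R096.Osc6_802
import Crest.Agent.R096.Sk0_962
import Crest.Agent.R96.Intr20_538

/-!
Row 96 (S0127), helper695.  **Selection of good cubes, `p > 2`**: 538's `good_cubes` + 802's
`homeo_osc_affine`: on most cubes `f` is `C⁰`-close (and its weak gradient `L^p`-close) to an affine
isomorphism with a bound on the condition number fixed in advance.
-/

set_option autoImplicit false
set_option linter.unusedSectionVars false
set_option linter.style.longLine false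

open MeasureTheory Set Filter Metric Module
open scoped ENNReal NNReal Topology

namespace Crest.Agent.R096.Br_695

open Crest.AnalysisR.VecCalc3 Crest.AnalysisR.Sobolev
open Crest.Agent.R96.Lu_538 Crest.Agent.R96.Intr_538 Crest.Agent.R96.Coarse_538
open Crest.Agent.R096.Osc_802 (cube Cp rowMap homeo_osc_affine)
open Crest.Agent.R096.Sk_962 (SH)

noncomputable section

theorem cube_eq_cel {z : R3} {s : ℝ} (hs : 0 < s) : cube z s = cel Cb z s := by
  ext x
  rw [mem_cel hs]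
  rfl

/-- closeness to an affine map on a big cube from closeness on small cubes -/
theorem chain {f : R3 → R3} {A : R3 →L[ℝ] R3} {z : R3} {s R err : ℝ} (hR : 0 < R) (n : ℕ)
    (hn : 0 < n) (hnR : 2 * s ≤ n * R)
    (h : ∀ c, cube c (2 * R) ⊆ cube z s → ∀ y ∈ cube c R, ∀ y' ∈ cube c R,
      ‖f y - f y' - A (y - y')‖ ≤ err) :
    ∀ x ∈ cube z (s - 2 * R), ∀ y ∈ cube z (s - 2 * R), ‖f x - f y - A (x - y)‖ ≤ n * err := by
  intro x hx y hy
  have hn0 : (0:ℝ) < n := by exact_mod_cast hn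
  set u : ℕ → R3 := fun i => x + ((i:ℝ) / n) • (y - x) with hu
  have hmem : ∀ i ≤ n, u i ∈ cube z (s - 2 * R) := by
    intro i hi k
    have h1 : (0:ℝ) ≤ (i:ℝ) / n := by positivity
    have h2 : (i:ℝ) / n ≤ 1 := by
      rw [div_le_one hn0]; exact_mod_cast hi
    have h3 : (u i) k - z k = (1 - (i:ℝ) / n) * (x k - z k) + ((i:ℝ) / n) * (y k - z k) := by
      simp only [hu, PiLp.add_apply, PiLp.smul_apply, PiLp.sub_apply, smul_eq_mul]
      ring
    rw [h3]
    have hx' := hx k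
    have hy' := hy k
    calc |(1 - (i:ℝ) / n) * (x k - z k) + ((i:ℝ) / n) * (y k - z k)|
        ≤ |(1 - (i:ℝ) / n) * (x k - z k)| + |((i:ℝ) / n) * (y k - z k)| := abs_add_le _ _
      _ = (1 - (i:ℝ) / n) * |x k - z k| + ((i:ℝ) / n) * |y k - z k| := by
          rw [abs_mul, abs_mul, abs_of_nonneg h1, abs_of_nonneg (by linarith : 0 ≤ 1 - (i:ℝ) / n)]
      _ ≤ (1 - (i:ℝ) / n) * (s - 2 * R) + ((i:ℝ) / n) * (s - 2 * R) := by
          gcongr
      _ = s - 2 * R := by ring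
  have hstep : ∀ i < n, ‖f (u i) - f (u (i + 1)) - A (u i - u (i + 1))‖ ≤ err := by
    intro i hi
    refine h (u i) ?_ (u i) ?_ (u (i + 1)) ?_
    · intro w hw k
      have h1 := hmem i hi.le k
      have h2 := hw k
      calc |w k - z k| = |(w k - u i k) + (u i k - z k)| := by ring_nf
        _ ≤ |w k - u i k| + |u i k - z k| := abs_add_le _ _
        _ ≤ s := by linarith
    · intro k
      simp [hR.le]
    · intro k
      have h1 : (u (i + 1)) k - (u i) k = (y k - x k) / n := by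
        simp only [hu, PiLp.add_apply, PiLp.smul_apply, PiLp.sub_apply, smul_eq_mul]
        push_cast
        field_simp
        ring
      rw [h1, abs_div, abs_of_pos hn0, div_le_iff₀ hn0]
      have hx' := hx k
      have hy' := hy k
      have : |y k - x k| ≤ |y k - z k| + |x k - z k| := by
        have := abs_sub_le (y k) (z k) (x k)
        rwa [abs_sub_comm (z k) (x k)] at this
      nlinarith
  have key : ∀ i ≤ n, ‖f x - f (u i) - A (x - u i)‖ ≤ i * err := by
    intro i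
    induction i with
    | zero =>
      intro _
      have : u 0 = x := by simp [hu]
      rw [this]
      simp
    | succ i ih =>
      intro hi
      have h1 := ih (by omega)
      have h2 := hstep i (by omega)
      have h3 : f x - f (u (i + 1)) - A (x - u (i + 1)) =
          (f x - f (u i) - A (x - u i)) + (f (u i) - f (u (i + 1)) - A (u i - u (i + 1))) := by
        simp only [map_sub]
        abel
      rw [h3]
      calc _ ≤ ‖f x - f (u i) - A (x - u i)‖ + ‖f (u i) - f (u (i + 1)) - A (u i - u (i + 1))‖ :=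
            norm_add_le _ _
        _ ≤ i * err + err := add_le_add h1 h2
        _ = ((i + 1 : ℕ) : ℝ) * err := by push_cast; ring
  have h1 := key n le_rfl
  have : u n = y := by simp [hu, hn0.ne']
  rwa [this] at h1

/-- the rows of a linear map -/
def rws (L : R3 →L[ℝ] R3) (j : Fin 3) : R3 :=
  ContinuousLinearMap.adjoint L (EuclideanSpace.single j 1)

theorem inner_rws (L : R3 →L[ℝ] R3) (j : Fin 3) (w : R3) : inner ℝ (rws L j) w = L w j := by
  rw [rws, ContinuousLinearMap.adjoint_inner_left, EuclideanSpace.inner_single_left]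
  simp

theorem gmatL_rws (L : R3 →L[ℝ] R3) : gmatL (rws L) = L := by
  ext w j
  rw [gmatL_apply, inner_rws]

theorem rowMap_rws (L : R3 →L[ℝ] R3) : rowMap (rws L) = L := by
  ext w j
  rw [Crest.Agent.R096.Osc_802.rowMap_apply, inner_rws]

theorem norm_rws_le (L : R3 →L[ℝ] R3) (j : Fin 3) : ‖rws L j‖ ≤ ‖L‖ := by
  have := norm_row_le (rws L) j
  rwa [gmatL_rws] at this

theorem norm_sub_rws_le (G : Fin 3 → R3 → R3) (L : R3 →L[ℝ] R3) (x : R3) (j : Fin 3) :
    ‖G j x - rws L j‖ ≤ ‖Gmat G x - L‖ := by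
  have h := norm_row_le (fun j => G j x - rws L j) j
  have h2 : gmatL (fun j => G j x - rws L j) = Gmat G x - L := by
    ext w i
    simp only [gmatL_apply, sub_apply, PiLp.sub_apply, Gmat_apply,
      inner_sub_left, inner_rws]
  rwa [h2] at h

theorem sum_rows_le {p : ℝ} (hp : 0 ≤ p) (G : Fin 3 → R3 → R3) (L : R3 →L[ℝ] R3) (x : R3) :
    ∑ j, ‖G j x - rws L j‖ₑ ^ p ≤ 3 * ‖Gmat G x - L‖ₑ ^ p := by
  calc ∑ j, ‖G j x - rws L j‖ₑ ^ p ≤ ∑ _j : Fin 3, ‖Gmat G x - L‖ₑ ^ p := by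
        refine Finset.sum_le_sum fun j _ => ?_
        refine ENNReal.rpow_le_rpow ?_ hp
        exact enorm_le_iff_norm_le.2 (norm_sub_rws_le G L x j)
    _ = 3 * ‖Gmat G x - L‖ₑ ^ p := by
        rw [Finset.sum_const, Finset.card_univ, Fintype.card_fin, nsmul_eq_mul]
        norm_num

/-- **good cube** (centre `z`, half side `s`), affine map `x ↦ b + L (x - z)`. -/
structure GB (p : ℝ) (f : R3 → R3) (G : Fin 3 → R3 → R3) (κ η σ s : ℝ) (z b : R3)
    (L : R3 →L[ℝ] R3) : Prop where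
  low : ∀ v, κ * ‖v‖ ≤ ‖L v‖
  up : ‖L‖ ≤ κ⁻¹
  c0 : ∀ x ∈ cel Cb z ((1 - σ) * s), ‖f x - (b + L (x - z))‖ ≤ η * s
  lp : ∫⁻ x in cel Cb z s, ‖Gmat G x - L‖ₑ ^ p ≤ ENNReal.ofReal (η * s ^ 3)

/-- **SELECTION, `p > 2`.** -/
theorem sel {p : ℝ} (hp : 2 < p) {Om La : Set R3} (hΩ : IsOpen Om) (hΩb : Bornology.IsBounded Om)
    (hΛ : IsOpen La) {f : R3 → R3} {G : Fin 3 → R3 → R3} (hS : SH p Om La f G) {ε : ℝ}
    (hε : 0 < ε) :
    ∃ κ : ℝ, 0 < κ ∧ κ ≤ 1 ∧ ∃ K ⊆ Om, IsCompact K ∧ ∃ K' ⊆ La, IsCompact K' ∧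
      ∀ η σ : ℝ, 0 < η → 0 < σ → 2 * σ ≤ 1 → ∃ s₀ : ℝ, 0 < s₀ ∧ ∀ s : ℝ, 0 < s → s < s₀ →
        ∀ a : R3, ∃ (Q : Finset (Fin 3 → ℤ)) (b : (Fin 3 → ℤ) → R3)
          (L : (Fin 3 → ℤ) → R3 →L[ℝ] R3),
          (∀ k ∈ Q, cel Cb (vt (2 * s) a k) s ⊆ K) ∧ (∀ k ∈ Q, par Cb (L k) (b k) s ⊆ K') ∧
          (∀ k ∈ Q, GB p f G κ η σ s (vt (2 * s) a k) (b k) (L k)) ∧
          volume ((Om ∩ {x | (Gmat G x).det ≠ 0}) \ ⋃ k ∈ Q, cel Cb (vt (2 * s) a k) s) ≤
            ENNReal.ofReal ε := by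
  classical
  have hp0 : 0 < p := by linarith
  have hp1 : 1 ≤ p := by linarith
  have hfc : ContinuousOn f Om := by obtain ⟨g, _, _, _, _, h, _⟩ := hS.homeo; exact h
  have hfm : MapsTo f Om La := by obtain ⟨g, h, _⟩ := hS.homeo; exact h
  obtain ⟨κ, hκ, hκ1, K, hK, hKc, K', hK', hK'c, H⟩ :=
    good_cubes hp1 hΩ hΩb hΛ hfc hfm hS.wg hS.memG (half_pos hε)
  refine ⟨κ, hκ, hκ1, K, hK, hKc, K', hK', hK'c, fun η σ hη hσ hσ1 => ?_⟩
  -- constants
  set n : ℕ := ⌈4 / σ⌉₊ + 1 with hn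
  have hn0 : (0:ℝ) < n := by rw [hn]; positivity
  have hnσ : 4 ≤ n * σ := by
    have h1 : 4 / σ ≤ n := by
      rw [hn]
      push_cast
      have := Nat.le_ceil (4 / σ)
      linarith
    rwa [div_le_iff₀ hσ] at h1
  have hCp : 0 < Cp p := by
    have h2 : 0 < 1 - 2 / p := by
      have : 2 / p < 1 := by rw [div_lt_one hp0]; exact hp
      linarith
    rw [Cp]
    positivity
  obtain ⟨θ, hθ, hθ1, hθ2⟩ : ∃ θ : ℝ, 0 < θ ∧ θ ≤ 1 ∧ n * (2 * (θ * (σ / 2) * (3 * κ⁻¹))) ≤ η / 4 := by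
    refine ⟨min 1 (η * κ / (12 * (n * σ))), by positivity, min_le_left _ _, ?_⟩
    have h1 := min_le_right 1 (η * κ / (12 * (n * σ)))
    set θ := min 1 (η * κ / (12 * (n * σ)))
    calc n * (2 * (θ * (σ / 2) * (3 * κ⁻¹))) = 3 * (n * σ) * κ⁻¹ * θ := by ring
      _ ≤ 3 * (n * σ) * κ⁻¹ * (η * κ / (12 * (n * σ))) := by gcongr
      _ = η / 4 := by field_simp; norm_num
  set c1 : ℝ := n * (108 * Cp p * θ ^ (-(1 / p)) * (σ / 2) ^ (1 - 3 / p)) with hc1
  have hc1p : 0 < c1 := by positivity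
  obtain ⟨η', hη', hη'η, hη'2⟩ : ∃ η' : ℝ, 0 < η' ∧ η' ≤ η ∧ c1 * (3 * η') ^ (1 / p) ≤ η / 4 := by
    refine ⟨min η ((η / 4 / c1) ^ p / 3), by positivity, min_le_left _ _, ?_⟩
    have h1 := min_le_right η ((η / 4 / c1) ^ p / 3)
    set η' := min η ((η / 4 / c1) ^ p / 3) with hη'
    have h0 : 0 < η' := by positivity
    have h2 : 3 * η' ≤ (η / 4 / c1) ^ p := by linarith
    calc c1 * (3 * η') ^ (1 / p) ≤ c1 * ((η / 4 / c1) ^ p) ^ (1 / p) := by gcongr
      _ = c1 * (η / 4 / c1) := by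
          rw [← Real.rpow_mul (by positivity), mul_one_div_cancel hp0.ne', Real.rpow_one]
      _ = η / 4 := by field_simp
  obtain ⟨s₀, hs₀, H'⟩ := H (min (η / 4) (1 / 2)) (by positivity) (η' * ε / 16) (by positivity)
  refine ⟨s₀, hs₀, fun s hs hss a => ?_⟩
  obtain ⟨Q, b, L, S, hGC, hQK, hQK', hQD, -, hQl⟩ := H' s hs hss a
  set Q' := Q.filter fun k =>
    ∫⁻ x in cel Cb (vt (2 * s) a k) s, ‖Gmat G x - L k‖ₑ ^ p ≤ ENNReal.ofReal (η' * s ^ 3) with hQ'
  have hQ'Q : ∀ k ∈ Q', k ∈ Q := fun k hk => (Finset.mem_filter.1 hk).1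
  refine ⟨Q', b, L, fun k hk => hQK k (hQ'Q k hk), fun k hk => hQK' k (hQ'Q k hk), ?_, ?_⟩
  · intro k hk
    have hg := hGC k (hQ'Q k hk)
    have hI := (Finset.mem_filter.1 hk).2
    set z := vt (2 * s) a k with hz
    refine ⟨hg.low, hg.up, ?_, hI.trans (ENNReal.ofReal_le_ofReal (by gcongr))⟩
    have hsub : cube z s ⊆ Om := by rw [cube_eq_cel hs]; exact hg.sub
    -- closeness between two points
    have hR : 0 < σ * s / 2 := by positivity
    set err : ℝ := 108 * Cp p * θ ^ (-(1 / p)) * (σ * s / 2) ^ (1 - 3 / p) *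
      (3 * η' * s ^ 3) ^ (1 / p) + 2 * (θ * (σ * s / 2) * ∑ j, ‖rws (L k) j‖) with herr
    have hch := chain (f := f) (A := L k) (z := z) (s := s) (err := err) hR n (by omega)
      (by nlinarith) (by
        intro c hc y hy y' hy'
        have h1 := homeo_osc_affine hΩ hΛ hS.homeo hS.wg hp hR (hc.trans hsub) (rws (L k)) hθ hθ1
          (I := 3 * η' * s ^ 3) (by positivity) (by
            calc ∫⁻ x in cube c (2 * (σ * s / 2)), ∑ j, ‖G j x - rws (L k) j‖ₑ ^ p
                ≤ ∫⁻ x in cel Cb z s, ∑ j, ‖G j x - rws (L k) j‖ₑ ^ p :=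
                  lintegral_mono_set (hc.trans (cube_eq_cel hs).subset)
              _ ≤ ∫⁻ x in cel Cb z s, 3 * ‖Gmat G x - L k‖ₑ ^ p :=
                  lintegral_mono fun x => sum_rows_le hp0.le G (L k) x
              _ = 3 * ∫⁻ x in cel Cb z s, ‖Gmat G x - L k‖ₑ ^ p :=
                  lintegral_const_mul' _ _ (by norm_num)
              _ ≤ 3 * ENNReal.ofReal (η' * s ^ 3) := by gcongr
              _ = ENNReal.ofReal (3 * η' * s ^ 3) := by
                  rw [show (3:ℝ≥0∞) = ENNReal.ofReal 3 by norm_num,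
                    ← ENNReal.ofReal_mul (by norm_num)]
                  congr 1; ring) y hy y' hy'
        rw [rowMap_rws] at h1
        exact h1)
    have hse : s - 2 * (σ * s / 2) = (1 - σ) * s := by ring
    rw [hse] at hch
    have herr2 : n * err ≤ η / 2 * s := by
      have e1 : (3 * η' * s ^ 3) ^ (1 / p) = (3 * η') ^ (1 / p) * s ^ (3 / p) := by
        rw [Real.mul_rpow (by positivity) (by positivity)]
        congr 1
        rw [← Real.rpow_natCast, ← Real.rpow_mul hs.le]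
        congr 1; push_cast; ring
      have e2 : (σ * s / 2) ^ (1 - 3 / p) = (σ / 2) ^ (1 - 3 / p) * s ^ (1 - 3 / p) := by
        rw [← Real.mul_rpow (by positivity) hs.le]
        congr 1; ring
      have e3 : s ^ (1 - 3 / p) * s ^ (3 / p) = s := by
        rw [← Real.rpow_add hs]; simp
      have e4 : ∑ j, ‖rws (L k) j‖ ≤ 3 * κ⁻¹ := by
        calc ∑ j, ‖rws (L k) j‖ ≤ ∑ _j : Fin 3, κ⁻¹ :=
              Finset.sum_le_sum fun j _ => (norm_rws_le _ _).trans hg.up
          _ = 3 * κ⁻¹ := by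
              rw [Finset.sum_const, Finset.card_univ, Fintype.card_fin, nsmul_eq_mul]; norm_num
      calc n * err = c1 * (3 * η') ^ (1 / p) * (s ^ (1 - 3 / p) * s ^ (3 / p)) +
            n * (2 * (θ * (σ * s / 2) * ∑ j, ‖rws (L k) j‖)) := by
            rw [herr, e1, e2, hc1]; ring
        _ ≤ η / 4 * s + n * (2 * (θ * (σ * s / 2) * (3 * κ⁻¹))) := by
            rw [e3]; gcongr
        _ = η / 4 * s + n * (2 * (θ * (σ / 2) * (3 * κ⁻¹))) * s := by ring
        _ ≤ η / 4 * s + η / 4 * s := by gcongr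
        _ = η / 2 * s := by ring
    -- a point of `S` in the smaller cube
    have h1σ : 0 < (1 - σ) * s := mul_pos (by linarith) hs
    obtain ⟨x0, hx0S, hx0⟩ : ∃ x0, x0 ∈ S k ∧ x0 ∈ cel Cb z ((1 - σ) * s) := by
      by_contra hno
      push Not at hno
      have h2 : cel Cb z ((1 - σ) * s) ⊆ cel Cb z s \ S k := by
        intro x hx
        refine ⟨?_, fun hxS => hno x hxS hx⟩
        rw [mem_cel hs]
        rw [mem_cel h1σ] at hx
        intro i
        have := hx i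
        nlinarith
      have h3 := (measure_mono h2).trans hg.big
      rw [vol_cel h1σ, finrank_euclideanSpace, Fintype.card_fin] at h3
      have h4 := (ENNReal.ofReal_le_ofReal_iff (by positivity)).1 h3
      have h5 : min (η / 4) (1 / 2) ≤ 1 / 2 := min_le_right _ _
      have h6 : s ≤ 2 * ((1 - σ) * s) := by nlinarith
      have h7 : s ^ 3 ≤ (2 * ((1 - σ) * s)) ^ 3 := by gcongr
      have h8 : 0 < s ^ 3 := by positivity
      nlinarith
    intro x hx
    have hx' : x ∈ cube z ((1 - σ) * s) := by rw [cube_eq_cel h1σ]; exact hx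
    have hx0' : x0 ∈ cube z ((1 - σ) * s) := by rw [cube_eq_cel h1σ]; exact hx0
    have h1 := hch x hx' x0 hx0'
    have h2 := hg.cf x0 hx0S
    have h3 : f x - (b k + L k (x - z)) =
        (f x - f x0 - L k (x - x0)) + (f x0 - (b k + L k (x0 - z))) := by
      simp only [map_sub]
      abel
    rw [h3]
    calc _ ≤ ‖f x - f x0 - L k (x - x0)‖ + ‖f x0 - (b k + L k (x0 - z))‖ := norm_add_le _ _
      _ ≤ η / 2 * s + min (η / 4) (1 / 2) * s := add_le_add (h1.trans herr2) h2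
      _ ≤ η / 2 * s + η / 4 * s := by gcongr; exact min_le_left _ _
      _ ≤ η * s := by nlinarith
  · have h1 : (Om ∩ {x | (Gmat G x).det ≠ 0}) \ ⋃ k ∈ Q', cel Cb (vt (2 * s) a k) s ⊆
        ((Om ∩ {x | (Gmat G x).det ≠ 0}) \ ⋃ k ∈ Q, cel Cb (vt (2 * s) a k) s) ∪
          ⋃ k ∈ Q \ Q', cel Cb (vt (2 * s) a k) s := by
      rintro x ⟨hx1, hx2⟩
      by_cases hxQ : x ∈ ⋃ k ∈ Q, cel Cb (vt (2 * s) a k) s
      · right
        obtain ⟨k, hk, hxk⟩ := mem_iUnion₂.1 hxQ
        refine mem_iUnion₂.2 ⟨k, Finset.mem_sdiff.2 ⟨hk, fun hk0 => ?_⟩, hxk⟩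
        exact hx2 (mem_iUnion₂.2 ⟨k, hk0, hxk⟩)
      · left; exact ⟨hx1, hxQ⟩
    have h3 : volume (⋃ k ∈ Q \ Q', cel Cb (vt (2 * s) a k) s) ≤ ENNReal.ofReal (ε / 2) := by
      refine vol_bad_le hs hη' (ε₁ := η' * ε / 16) ?_ (Q \ Q')
        (I := fun k => ∫⁻ x in cel Cb (vt (2 * s) a k) s, ‖Gmat G x - L k‖ₑ ^ p) (by positivity)
        ?_ ?_
      · apply le_of_eq
        field_simp
        norm_num
      · intro k hk
        rw [Finset.mem_sdiff, hQ', Finset.mem_filter, not_and, not_le] at hk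
        exact (hk.2 hk.1).le
      · exact (Finset.sum_le_sum_of_subset Finset.sdiff_subset).trans hQD
    calc _ ≤ volume ((Om ∩ {x | (Gmat G x).det ≠ 0}) \ ⋃ k ∈ Q, cel Cb (vt (2 * s) a k) s) +
          volume (⋃ k ∈ Q \ Q', cel Cb (vt (2 * s) a k) s) :=
          (measure_mono h1).trans (measure_union_le _ _)
      _ ≤ ENNReal.ofReal (ε / 2) + ENNReal.ofReal (ε / 2) := add_le_add hQl h3
      _ = ENNReal.ofReal ε := by
          rw [← ENNReal.ofReal_add (by positivity) (by positivity)]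
          congr 1; ring

end

end Crest.Agent.R096.Br_695
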