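import Crest.Agent.R096.Br4_695

/-!
Row 96 (S0127), helper695.  **PREP for `2 < p`**: foam, exact cores with rational affine maps in the
bricks inside the images of the good cubes, energies, volumes.
-/

set_option autoImplicit false
set_option linter.unusedSectionVars false
set_option linter.style.longLine false

open MeasureTheory Set Filter Metric Module
open scoped ENNReal NNReal Topology

namespace Crest.Agent.R096.Br_695

open Crest.AnalysisR.VecCalc3 Crest.AnalysisR.Sobolev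
open Crest.Agent.R96.Lu_538 Crest.Agent.R96.Intr_538
open Crest.Agent.R96.Coarse_538 hiding E3
open Crest.Agent.R096.Sk_962 (SH)
open Crest.Agent.R096.Bsp_628
open Crest.Agent.R096.Bxs_627 hiding E3
open Crest.Agent.R96.En10_199
open Crest.Agent.R096.SkC1_961 (E3 Hom3)
open Crest.Agent.R096.Er_594 (e3 D3 isCompact_pre hom3_of isOpen_pre lint_P3 vol_P3)
open Crest.Agent.R096.EaX_766 (cbx lin RatA ExIn Kor)
open Crest.Agent.R096.Fil_313 (cel_preimage volume_cel aedisjoint_cel fill)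
open Crest.Agent.R096.ThC6_766 (Scale)
open Crest.Agent.R096.Brk5_582 (Cmp)

noncomputable section

/-- the sum of the volumes of the cells -/
theorem sum_cel_le {Om : Set R3} {s : ℝ} (hs : 0 < s) (a : R3) (Q : Finset (Fin 3 → ℤ))
    (hQ : ∀ k ∈ Q, cel Cb (vt (2 * s) a k) s ⊆ Om) :
    ∑ k ∈ Q, volume (cel Cb (vt (2 * s) a k) s) ≤ volume Om := by
  rw [← measure_biUnion_finset₀]
  · exact measure_mono (iUnion₂_subset hQ)
  · intro k _ l _ hkl
    exact aedisjoint_cel hs a hkl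
  · intro k _
    exact (Crest.Agent.R096.Fil_313.isClosed_cel _ _).measurableSet.nullMeasurableSet

/-- sum of equal quantities over the cells -/
theorem sum_const_le {Om : Set R3} (hOt : volume Om ≠ ∞) {s : ℝ} (hs : 0 < s) (a : R3)
    (Q : Finset (Fin 3 → ℤ)) (hQ : ∀ k ∈ Q, cel Cb (vt (2 * s) a k) s ⊆ Om) {c : ℝ} (hc : 0 ≤ c) :
    ∑ _k ∈ Q, ENNReal.ofReal (c * (2 * s) ^ 3) ≤ ENNReal.ofReal (c * (volume Om).toReal) := by
  calc ∑ _k ∈ Q, ENNReal.ofReal (c * (2 * s) ^ 3)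
      = ENNReal.ofReal c * ∑ k ∈ Q, volume (cel Cb (vt (2 * s) a k) s) := by
        rw [Finset.mul_sum]
        refine Finset.sum_congr rfl fun k _ => ?_
        rw [volume_cel _ hs, ENNReal.ofReal_mul hc]
    _ ≤ ENNReal.ofReal c * volume Om := by gcongr; exact sum_cel_le hs a Q hQ
    _ = ENNReal.ofReal (c * (volume Om).toReal) := by
        rw [ENNReal.ofReal_mul hc, ENNReal.ofReal_toReal hOt]

/-- cells of a grid: a point well inside two cells -/
theorem cell_unique {s σ : ℝ} (hs : 0 < s) (hσ : 0 < σ) (a : R3) {k l : Fin 3 → ℤ} {x : E3}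
    (hk : x ∈ closedBall (P3.symm (vt (2 * s) a k)) ((1 - σ) * s))
    (hl : x ∈ closedBall (P3.symm (vt (2 * s) a l)) ((1 - σ) * s)) : k = l := by
  by_contra hne
  obtain ⟨i, hi⟩ := Function.ne_iff.1 hne
  have e1 : |x i - (vt (2 * s) a k) i| ≤ (1 - σ) * s := by
    have h1 := norm_le_pi_norm (x - P3.symm (vt (2 * s) a k)) i
    rw [Pi.sub_apply, Real.norm_eq_abs] at h1
    rw [mem_closedBall, dist_eq_norm] at hk
    exact h1.trans hk
  have e2 : |x i - (vt (2 * s) a l) i| ≤ (1 - σ) * s := by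
    have h1 := norm_le_pi_norm (x - P3.symm (vt (2 * s) a l)) i
    rw [Pi.sub_apply, Real.norm_eq_abs] at h1
    rw [mem_closedBall, dist_eq_norm] at hl
    exact h1.trans hl
  rw [vt_apply, abs_le] at e1 e2
  rcases lt_or_gt_of_ne hi with h | h
  · have h4 : (k i : ℝ) + 1 ≤ l i := by exact_mod_cast h
    nlinarith [e1.1, e1.2, e2.1, e2.2, mul_pos hσ hs]
  · have h4 : (l i : ℝ) + 1 ≤ k i := by exact_mod_cast h
    nlinarith [e1.1, e1.2, e2.1, e2.2, mul_pos hσ hs]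

/-- sum over disjoint sets, each inside one of finitely many sets -/
theorem tsum_cells {ι κ : Type*} [Countable ι] {μ : Measure E3} {K : ι → Set E3} {B : κ → Set E3}
    (hK : ∀ i, MeasurableSet (K i)) (hd : Pairwise (Function.onFun Disjoint K))
    (hB : ∀ k, MeasurableSet (B k))
    (kk : ι → κ) (Q : Finset κ) (hkQ : ∀ i, kk i ∈ Q) (hsub : ∀ i, K i ⊆ B (kk i))
    (g : κ → E3 → ℝ≥0∞) :
    ∑' i, ∫⁻ x in K i, g (kk i) x ∂μ ≤ ∑ k ∈ Q, ∫⁻ x in B k, g k x ∂μ := by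
  calc ∑' i, ∫⁻ x in K i, g (kk i) x ∂μ ≤ ∑' i, ∑ k ∈ Q, ∫⁻ x in K i ∩ B k, g k x ∂μ := by
        refine ENNReal.tsum_le_tsum fun i => ?_
        have h1 : K i ∩ B (kk i) = K i := inter_eq_left.2 (hsub i)
        calc ∫⁻ x in K i, g (kk i) x ∂μ = ∫⁻ x in K i ∩ B (kk i), g (kk i) x ∂μ := by rw [h1]
          _ ≤ _ := Finset.single_le_sum (f := fun k => ∫⁻ x in K i ∩ B k, g k x ∂μ)
              (fun _ _ => zero_le) (hkQ i)
    _ = ∑ k ∈ Q, ∑' i, ∫⁻ x in K i ∩ B k, g k x ∂μ := by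
        rw [Summable.tsum_finsetSum fun _ _ => ENNReal.summable]
    _ = ∑ k ∈ Q, ∫⁻ x in ⋃ i, K i ∩ B k, g k x ∂μ := by
        refine Finset.sum_congr rfl fun k _ => ?_
        rw [lintegral_iUnion (fun i => (hK i).inter (hB k))]
        intro i j hij
        exact (hd hij).mono inter_subset_left inter_subset_left
    _ ≤ ∑ k ∈ Q, ∫⁻ x in B k, g k x ∂μ := by
        refine Finset.sum_le_sum fun k _ => lintegral_mono_set ?_
        exact iUnion_subset fun i => inter_subset_right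

theorem scale_cont {L : Set E3} {w : E3 → ℝ} (h : Scale L w) : Continuous w := by
  have : LipschitzWith (1 / 8 : ℝ).toNNReal w := by
    apply LipschitzWith.of_le_add_mul
    intro x y
    rw [Real.coe_toNNReal _ (by norm_num), dist_eq_norm]
    have := h.lip x y
    linarith
  exact this.continuous

set_option maxHeartbeats 2000000 in
/-- **PREP, `p > 2`** -/
theorem prep2 {p : ℝ} (hp : 2 < p) {Om La : Set R3} (hO : IsOpen Om)
    (hOb : Bornology.IsBounded Om) (hL : IsOpen La) (hLb : Bornology.IsBounded La) {f : R3 → R3}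
    {G : Fin 3 → R3 → R3} (hS : SH p Om La f G) {ε : ℝ} (hε : 0 < ε) {w : E3 → ℝ}
    (hw : Scale (P3 ⁻¹' La) w) {M : ℝ} (hM : 4 / dl (Fin 3) 3 ≤ M) (hM2 : 2 ≤ M) :
    ∃ N : ℝ, 1 ≤ N ∧ ∀ h : ℝ, 0 < h → ∀ lam : ℚ, 1 / 4 ≤ (lam : ℝ) → (lam : ℝ) < 1 →
      ∀ κ1 : ℝ, 0 < κ1 →
      ∃ (F : Set (Bx (Fin 3))) (X : Set F) (A : F → E3 ≃ᵃ[ℝ] E3),
        BoxFoam (P3 ⁻¹' La) F δf 3 ∧ Cmp F 6 ∧ (∀ C ∈ F, Dy 0 1 M C) ∧
        (∀ C ∈ F, ∀ x ∈ C.set, C.sz ≤ w x) ∧
        (∀ c ∈ X, ExIn p (P3 ⁻¹' Om) (e3 f) (D3 G) 0 1 κ1 (1 / 4) c.1 (A c) lam) ∧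
        (∀ c ∈ X, ‖lin (A c)‖ ≤ N) ∧
        (∀ c ∈ X, Kor F A (fun _ => (lam : ℝ)) c ⊆ P3 ⁻¹' Om) ∧
        (∀ c ∈ X, ∀ c' ∈ X, c ≠ c' →
          Disjoint (Kor F A (fun _ => (lam : ℝ)) c) (Kor F A (fun _ => (lam : ℝ)) c')) ∧
        (∑' c : X, ∫⁻ x in Kor F A (fun _ => (lam : ℝ)) c, ‖D3 G x - lin (A c)‖ₑ ^ p) ≤
          ENNReal.ofReal h ∧
        volume ((Om ∩ {x | (Gmat G x).det ≠ 0}) \
            P3.symm ⁻¹' (⋃ c ∈ X, Kor F A (fun _ => (lam : ℝ)) c)) ≤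
          ENNReal.ofReal (ε + 3 * (1 - lam) * (volume Om).toReal) := by
  classical
  have hp0 : 0 < p := by linarith
  have hp1 : 1 ≤ p := by linarith
  obtain ⟨κ, hκ, hκ1, K, hK, hKc, K', hK', hK'c, H⟩ := sel hp hO hOb hL hS (half_pos hε)
  set N : ℝ := 4 / κ with hN
  have hN1 : 1 ≤ N := by rw [hN, le_div_iff₀ hκ]; linarith
  refine ⟨N, hN1, fun h hh lam hl hl1 κ1 hκ1' => ?_⟩
  have hN0 : 0 < N := by linarith
  set V : ℝ := (volume Om).toReal with hV
  have hV0 : 0 ≤ V := ENNReal.toReal_nonneg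
  have hVt : volume Om ≠ ∞ := hOb.measure_lt_top.ne
  obtain ⟨σ, hσ, hσ1, hσ2⟩ : ∃ σ : ℝ, 0 < σ ∧ 3 * σ ≤ 1 ∧ 12 * σ * V ≤ ε / 2 := by
    refine ⟨min (1 / 3) (ε / (24 * (V + 1))), by positivity, ?_, ?_⟩
    · have := min_le_left (1 / 3 : ℝ) (ε / (24 * (V + 1))); linarith
    · have h1 := min_le_right (1 / 3 : ℝ) (ε / (24 * (V + 1)))
      have h2 : 0 < min (1 / 3 : ℝ) (ε / (24 * (V + 1))) := by positivity
      rw [le_div_iff₀ (by positivity)] at h1
      nlinarith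
  set τ : ℝ := σ / N with hτ
  have hτ0 : 0 < τ := by positivity
  have hNτ : N * τ = σ := by rw [hτ]; field_simp
  obtain ⟨η', hη', hc1, hc2, hc3, hc4⟩ : ∃ η' : ℝ, 0 < η' ∧ N * η' < σ ∧ η' ≤ κ1 * (τ / 24) ∧
      N ^ 3 * (N ^ p * η') ≤ κ1 * (τ / 24) ^ 3 ∧ η' * V ≤ h := by
    set q1 : ℝ := κ1 * (τ / 24) ^ 3 / (N ^ 3 * N ^ p) with hq1
    refine ⟨min (σ / (2 * N)) (min (κ1 * (τ / 24)) (min q1 (h / (V + 1)))), by positivity,
      ?_, ?_, ?_, ?_⟩
    · have h1 := min_le_left (σ / (2 * N)) (min (κ1 * (τ / 24)) (min q1 (h / (V + 1))))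
      rw [le_div_iff₀ (by positivity)] at h1
      nlinarith
    · exact (min_le_right _ _).trans (min_le_left _ _)
    · have h1 : min (σ / (2 * N)) (min (κ1 * (τ / 24)) (min q1 (h / (V + 1)))) ≤ q1 :=
        (min_le_right _ _).trans ((min_le_right _ _).trans (min_le_left _ _))
      calc _ ≤ N ^ 3 * (N ^ p * q1) := by gcongr
        _ = κ1 * (τ / 24) ^ 3 := by rw [hq1]; field_simp
    · have h1 : min (σ / (2 * N)) (min (κ1 * (τ / 24)) (min q1 (h / (V + 1)))) ≤ h / (V + 1) :=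
        (min_le_right _ _).trans ((min_le_right _ _).trans (min_le_right _ _))
      have h2 : 0 < min (σ / (2 * N)) (min (κ1 * (τ / 24)) (min q1 (h / (V + 1)))) := by
        positivity
      rw [le_div_iff₀ (by positivity)] at h1
      nlinarith
  set η : ℝ := η' / 4 ^ p with hη
  have hη0 : 0 < η := by positivity
  have hηη : 4 ^ p * η = η' := by rw [hη]; field_simp
  obtain ⟨s₀, hs₀, H'⟩ := H η σ hη0 hσ (by linarith)
  have hK'3 : IsCompact (P3 ⁻¹' K') := isCompact_pre hK'c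
  obtain ⟨ρ0, hρ0, hρ⟩ : ∃ ρ0 : ℝ, 0 < ρ0 ∧ ∀ y ∈ P3 ⁻¹' K', ρ0 ≤ w y := by
    rcases (P3 ⁻¹' K').eq_empty_or_nonempty with h0 | h0
    · exact ⟨1, one_pos, fun x hx => absurd hx (by rw [h0]; exact notMem_empty x)⟩
    · obtain ⟨x0, hx0, hmin⟩ := hK'3.exists_isMinOn h0 (scale_cont hw).continuousOn
      exact ⟨w x0, hw.pos x0 (hK' hx0), fun x hx => hmin hx⟩
  obtain ⟨s, hs, hss, hst1, hst2⟩ : ∃ s : ℝ, 0 < s ∧ s < s₀ ∧ τ * s ≤ 1 ∧ τ * s ≤ ρ0 / 2 := by
    refine ⟨min (s₀ / 2) (min (1 / τ) (ρ0 / 2 / τ)), by positivity, ?_, ?_, ?_⟩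
    · exact (min_le_left _ _).trans_lt (by linarith)
    · have h1 : min (s₀ / 2) (min (1 / τ) (ρ0 / 2 / τ)) ≤ 1 / τ :=
        (min_le_right _ _).trans (min_le_left _ _)
      rw [le_div_iff₀ hτ0] at h1
      linarith
    · have h1 : min (s₀ / 2) (min (1 / τ) (ρ0 / 2 / τ)) ≤ ρ0 / 2 / τ :=
        (min_le_right _ _).trans (min_le_right _ _)
      rw [le_div_iff₀ hτ0] at h1
      linarith
  have hσs : 0 < σ * s := mul_pos hσ hs
  have hrad1 : (1 - 2 * σ) * s ≤ (1 - σ) * s := by linarith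
  have hrad2 : (1 - 3 * σ) * s ≤ (1 - 2 * σ) * s := by linarith
  have hrad3 : (1 - σ) * s ≤ s := by linarith
  set t : ℝ := τ * s with ht
  have ht0 : 0 < t := by positivity
  obtain ⟨F, BF, hcmp, hdy, hsz, hsz'⟩ := exists_foam_t
    (Crest.Agent.R096.Er_594.isBounded_pre hLb) hw ht0 hst1 hM hM2
  obtain ⟨Q, b, L, hQK, hQK', hGB, hvol⟩ := H' s hs hss 0
  set zc : (Fin 3 → ℤ) → R3 := fun k => vt (2 * s) 0 k with hzc
  set z : (Fin 3 → ℤ) → E3 := fun k => P3.symm (zc k) with hz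
  have hex : ∀ k, ∃ A : E3 ≃ᵃ[ℝ] E3, k ∈ Q →
      GR p (e3 f) (D3 G) N η' σ s ρ0 (z k) (P3 ⁻¹' K') A := by
    intro k
    by_cases hk : k ∈ Q
    · obtain ⟨A, hA⟩ := gr_of_gb hp1 hκ hκ1 hη0 hs hσ (by linarith) (hGB k hk) (hQK' k hk) hρ0
      rw [hηη] at hA
      exact ⟨A, fun _ => hA⟩
    · exact ⟨AffineEquiv.refl ℝ E3, fun h => absurd h hk⟩
  choose A hA using hex
  set B : (Fin 3 → ℤ) → Set E3 := fun k => closedBall (z k) s with hB
  have hBO : ∀ k ∈ Q, B k ⊆ P3 ⁻¹' Om := by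
    intro k hk
    rw [hB]
    change closedBall (P3.symm (zc k)) s ⊆ P3 ⁻¹' Om
    rw [← cel_preimage _ hs]
    exact preimage_mono ((hQK k hk).trans hK)
  have hOm3 : IsOpen (P3 ⁻¹' Om) := isOpen_pre hO
  have hLa3 : IsOpen (P3 ⁻¹' La) := isOpen_pre hL
  have hom : Hom3 (e3 f) (P3 ⁻¹' Om) (P3 ⁻¹' La) := hom3_of hS.homeo
  -- the target near the cells
  have hwA : ∀ k ∈ Q, ∀ x ∈ B k, ρ0 / 2 ≤ w (A k x) := by
    intro k hk x hx
    obtain ⟨y, hy, hxy⟩ := (hA k hk).img x hx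
    have h1 := hw.lip y (A k x)
    have h2 := hρ y hy
    rw [norm_sub_rev] at h1
    linarith
  have hwt : ∀ k ∈ Q, ∀ x ∈ B k, min t (w (A k x)) = t := fun k hk x hx =>
    min_eq_left (hst2.trans (hwA k hk x hx))
  have hAL : ∀ k ∈ Q, ∀ x ∈ B k, A k x ∈ P3 ⁻¹' La := by
    intro k hk x hx
    by_contra hno
    have h1 := hw.off _ hno
    have h2 := hwA k hk x hx
    linarith
  -- the bricks
  set r : ℝ := (1 - 3 * σ) * s with hr
  set X : Set F := {c | ∃ k ∈ Q, c.1.set ⊆ A k '' closedBall (z k) r} with hX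
  have hkk : ∀ c : F, ∃ k, c ∈ X → k ∈ Q ∧ c.1.set ⊆ A k '' closedBall (z k) r := by
    intro c
    by_cases hc : c ∈ X
    · obtain ⟨k, hk, hk'⟩ := hc
      exact ⟨k, fun _ => ⟨hk, hk'⟩⟩
    · exact ⟨0, fun h => absurd h hc⟩
  choose kk hkk using hkk
  have hrs : r ≤ s := hrad2.trans (hrad1.trans hrad3)
  have hbig : ∀ k ∈ Q, ∀ c : F, c.1.set ⊆ A k '' closedBall (z k) r →
      c.1.sz ≤ t ∧ t ≤ 6 * c.1.sz := by
    intro k hk c hc
    obtain ⟨u, hu, hu'⟩ := hc (ctr_mem (BF.pos _ c.2))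
    have hu2 : u ∈ B k := closedBall_subset_closedBall hrs hu
    have h1 := hsz _ c.2 _ (ctr_mem (BF.pos _ c.2))
    have h2 := hsz' _ c.2 _ (ctr_mem (BF.pos _ c.2))
    rw [← hu', hwt k hk u hu2] at h1 h2
    exact ⟨h1, h2⟩
  have hin : ∀ k ∈ Q, ∀ c : F, c.1.set ⊆ A k '' closedBall (z k) r →
      cbx c.1 2 ⊆ A k '' closedBall (z k) ((1 - 2 * σ) * s) := by
    intro k hk c hc
    refine cbx_two_sub (BF.pos _ c.2) hc (hbig k hk c hc).1 hN0.le (hA k hk).inv ?_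
    rw [hr, ht, ← mul_assoc, hNτ]
    linarith
  have hni : ∀ k ∈ Q, ∀ x ∈ P3 ⁻¹' Om, e3 f x ∈ A k '' closedBall (z k) ((1 - 2 * σ) * s) →
      x ∈ closedBall (z k) ((1 - σ) * s) := fun k hk =>
    noint3 hLa3 hom hs hσ hσ1 hN0 (hA k hk).inv (hBO k hk) hc1 (hA k hk).c0
  -- uniqueness of the cube of a brick
  have huniq : ∀ k ∈ Q, ∀ k' ∈ Q, ∀ c : F, c.1.set ⊆ A k '' closedBall (z k) r →
      c.1.set ⊆ A k' '' closedBall (z k') r → k = k' := by
    intro k hk k' hk' c hc hc'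
    obtain ⟨fi, h1, h2, h3, h4, h5, h6⟩ := hom
    have hctr := ctr_mem (BF.pos _ c.2)
    have hcL : ctr c.1 ∈ P3 ⁻¹' La := BF.sub _ c.2 hctr
    have e1 : closedBall (z k) r ⊆ closedBall (z k) ((1 - 2 * σ) * s) :=
      closedBall_subset_closedBall hrad2
    have e2 : closedBall (z k') r ⊆ closedBall (z k') ((1 - 2 * σ) * s) :=
      closedBall_subset_closedBall hrad2
    have hx := h2 hcL
    have hy : e3 f (fi (ctr c.1)) = ctr c.1 := h4 _ hcL
    refine cell_unique hs hσ 0 (x := fi (ctr c.1)) ?_ ?_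
    · refine hni k hk _ hx ?_
      rw [hy]
      exact image_mono e1 (hc hctr)
    · refine hni k' hk' _ hx ?_
      rw [hy]
      exact image_mono e2 (hc' hctr)
  have hpos := BF.pos
  set A' : F → E3 ≃ᵃ[ℝ] E3 := fun c => A (kk c) with hA'
  set lamf : F → ℝ := fun _ => (lam : ℝ) with hlamf
  have hKs : ∀ c ∈ X, Kor F A' lamf c ⊆ closedBall (z (kk c)) ((1 - 2 * σ) * s) := by
    intro c hc
    obtain ⟨hk, hk'⟩ := hkk c hc
    exact Kor_sub (hpos _ c.2) (by simp only [hlamf]; linarith) (hin _ hk c hk')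
  have hKB : ∀ c ∈ X, Kor F A' lamf c ⊆ B (kk c) := fun c hc =>
    (hKs c hc).trans (closedBall_subset_closedBall (hrad1.trans hrad3))
  have hsep : ∀ C ∈ F, ∀ C' ∈ F, C ≠ C' → ∃ k, C.hi k ≤ C'.lo k ∨ C'.hi k ≤ C.lo k :=
    fun C hC C' hC' hne => BF.inv.disj hC hC' (hpos _ hC) (hpos _ hC') hne
  have hdisj : ∀ c ∈ X, ∀ c' ∈ X, c ≠ c' → Disjoint (Kor F A' lamf c) (Kor F A' lamf c') := by
    intro c hc c' hc' hne
    rw [Set.disjoint_left]
    intro x hx hx'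
    have e1 : closedBall (z (kk c)) ((1 - 2 * σ) * s) ⊆ closedBall (z (kk c)) ((1 - σ) * s) :=
      closedBall_subset_closedBall hrad1
    have e2 : closedBall (z (kk c')) ((1 - 2 * σ) * s) ⊆ closedBall (z (kk c')) ((1 - σ) * s) :=
      closedBall_subset_closedBall hrad1
    have hkeq : kk c = kk c' :=
      cell_unique hs hσ 0 (e1 (hKs c hc hx)) (e2 (hKs c' hc' hx'))
    have h1 : A' c x ∈ cbx c.1 lam := hx
    have h2 : A' c' x ∈ cbx c'.1 lam := hx'
    have h3 : A' c' = A' c := by simp only [hA', hkeq]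
    rw [h3] at h2
    exact Set.disjoint_left.1 (cbx_disj (hpos _ c.2) (hpos _ c'.2) hl1
      (hsep _ c.2 _ c'.2 (fun h => hne (Subtype.ext h)))) h1 h2
  refine ⟨F, X, A', BF, hcmp, hdy, ?_, ?_, ?_, ?_, hdisj, ?_, ?_⟩
  · intro C hC x hx
    exact (hsz C hC x hx).trans (min_le_right _ _)
  · intro c hc
    obtain ⟨hk, hk'⟩ := hkk c hc
    obtain ⟨hb1, hb2⟩ := hbig _ hk c hk'
    have hl0 : 0 < (lam : ℝ) := by linarith
    have h1 : τ / 24 * s ≤ lam * c.1.sz := by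
      have : τ / 24 * s = 1 / 4 * (t / 6) := by rw [ht]; ring
      rw [this]
      have h2 : t / 6 ≤ c.1.sz := by linarith
      exact mul_le_mul hl h2 (by positivity) hl0.le
    refine exIn_of hp1 hLa3 hom hs hσ hσ1 hN0 (hBO _ hk) hη' hc1 (hA _ hk) (hpos _ c.2) hl0
      (by linarith) (by norm_num) (hin _ hk c hk') ?_ ?_
    · calc η' * s ≤ κ1 * (τ / 24) * s := by gcongr
        _ = κ1 * (τ / 24 * s) := by ring
        _ ≤ κ1 * (lam * c.1.sz) := by gcongr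
    · calc N ^ 3 * (N ^ p * (η' * s ^ 3)) = N ^ 3 * (N ^ p * η') * s ^ 3 := by ring
        _ ≤ κ1 * (τ / 24) ^ 3 * s ^ 3 := by gcongr
        _ = κ1 * (τ / 24 * s) ^ 3 := by ring
        _ ≤ κ1 * (lam * c.1.sz) ^ 3 := by gcongr
  · intro c hc
    exact (hA _ (hkk c hc).1).nrm
  · intro c hc
    exact (hKB c hc).trans (hBO _ (hkk c hc).1)
  · -- energies
    have hFc : Countable F := BF.countable.to_subtype
    have h1 := tsum_cells (μ := (volume : Measure E3)) (ι := X) (κ := Fin 3 → ℤ)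
      (K := fun c : X => Kor F A' lamf c) (B := B) (fun c => (isClosed_Kor _).measurableSet)
      (fun c c' hne => hdisj _ c.2 _ c'.2 (fun h => hne (Subtype.ext h)))
      (fun k => measurableSet_closedBall) (fun c => kk c) Q (fun c => (hkk _ c.2).1)
      (fun c => hKB _ c.2) (fun k x => ‖D3 G x - lin (A k)‖ₑ ^ p)
    refine h1.trans ?_
    calc ∑ k ∈ Q, ∫⁻ x in B k, ‖D3 G x - lin (A k)‖ₑ ^ p
        ≤ ∑ _k ∈ Q, ENNReal.ofReal (η' / 8 * (2 * s) ^ 3) := by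
          refine Finset.sum_le_sum fun k hk => (hA k hk).lp.trans ?_
          apply ENNReal.ofReal_le_ofReal
          apply le_of_eq
          ring
      _ ≤ ENNReal.ofReal (η' / 8 * V) :=
          sum_const_le hVt hs 0 Q (fun k hk => (hQK k hk).trans hK) (by positivity)
      _ ≤ ENNReal.ofReal h := by
          apply ENNReal.ofReal_le_ofReal
          have : 0 ≤ η' * V := by positivity
          linarith
  · -- volumes
    set U : Set E3 := ⋃ c ∈ X, Kor F A' lamf c with hU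
    set cst : ℝ := 6 * (3 / 2 * σ) + 3 * N * t / s + 3 * (1 - lam) with hcst
    have hcst' : cst = 12 * σ + 3 * (1 - lam) := by
      have : 3 * N * t / s = 3 * (N * τ) := by rw [ht]; field_simp
      rw [hcst, this, hNτ]; ring
    have hcst0 : 0 ≤ cst := by rw [hcst']; linarith
    have hfill : ∀ k ∈ Q, volume (cel Cb (zc k) s \ P3.symm ⁻¹' U) ≤
        ENNReal.ofReal (cst * (2 * s) ^ 3) := by
      intro k hk
      have h1 := fill (A := A k) (K := N) hN0.le (hA k hk).inv (z := z k) (s := s)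
        (σ := 3 / 2 * σ) (t := t) (lam := lam) hs (by positivity) ht0.le (by linarith) hl1.le
        BF.countable hpos hsep (fun x hx => BF.cov _ (hAL k hk x hx))
        (fun C hC x hx hxC => by
          have h2 := hsz C hC _ hxC
          exact h2.trans (min_le_left _ _))
        (w := fun C => zz C lam) (fun C hC => by
          rw [← cbx_eq_bxc]; exact cbx_one_sub (hpos _ hC) hl1.le)
        (T := fun C => A k ⁻¹' cbx C lam) (fun C hC _ => by rw [cbx_eq_bxc])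
      have h2 : P3 ⁻¹' (cel Cb (zc k) s \ P3.symm ⁻¹' U) ⊆ closedBall (z k) s \
          ⋃ C ∈ {C ∈ F | C.set ⊆ A k '' closedBall (z k) ((1 - 2 * (3 / 2 * σ)) * s)},
            A k ⁻¹' cbx C lam := by
        rintro x ⟨hx1, hx2⟩
        have hx3 : x ∈ closedBall (z k) s := by
          have : x ∈ P3 ⁻¹' cel Cb (zc k) s := hx1
          rwa [cel_preimage _ hs] at this
        refine ⟨hx3, fun hx4 => hx2 ?_⟩
        obtain ⟨C, ⟨hC, hCs⟩, hxC⟩ := mem_iUnion₂.1 hx4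
        have hr' : (1 - 2 * (3 / 2 * σ)) * s = r := by rw [hr]; ring
        rw [hr'] at hCs
        have hcX : (⟨C, hC⟩ : F) ∈ X := ⟨k, hk, hCs⟩
        have hke : kk ⟨C, hC⟩ = k :=
          huniq _ (hkk _ hcX).1 _ hk ⟨C, hC⟩ (hkk _ hcX).2 hCs
        change P3.symm (P3 x) ∈ U
        rw [P3.symm_apply_apply]
        refine mem_iUnion₂.2 ⟨⟨C, hC⟩, hcX, ?_⟩
        change A (kk ⟨C, hC⟩) x ∈ cbx C lam
        rw [hke]
        exact hxC
      calc volume (cel Cb (zc k) s \ P3.symm ⁻¹' U)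
          = volume (P3 ⁻¹' (cel Cb (zc k) s \ P3.symm ⁻¹' U)) := (vol_P3 _).symm
        _ ≤ _ := (measure_mono h2).trans h1
    have hsub : (Om ∩ {x | (Gmat G x).det ≠ 0}) \ P3.symm ⁻¹' U ⊆
        ((Om ∩ {x | (Gmat G x).det ≠ 0}) \ ⋃ k ∈ Q, cel Cb (zc k) s) ∪
          ⋃ k ∈ Q, (cel Cb (zc k) s \ P3.symm ⁻¹' U) := by
      rintro x ⟨hx1, hx2⟩
      by_cases hxQ : x ∈ ⋃ k ∈ Q, cel Cb (zc k) s
      · right
        obtain ⟨k, hk, hxk⟩ := mem_iUnion₂.1 hxQ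
        exact mem_iUnion₂.2 ⟨k, hk, hxk, hx2⟩
      · left; exact ⟨hx1, hxQ⟩
    calc _ ≤ volume ((Om ∩ {x | (Gmat G x).det ≠ 0}) \ ⋃ k ∈ Q, cel Cb (zc k) s) +
          volume (⋃ k ∈ Q, (cel Cb (zc k) s \ P3.symm ⁻¹' U)) :=
          (measure_mono hsub).trans (measure_union_le _ _)
      _ ≤ ENNReal.ofReal (ε / 2) + ∑ _k ∈ Q, ENNReal.ofReal (cst * (2 * s) ^ 3) := by
          refine add_le_add hvol ?_
          exact (measure_biUnion_finset_le _ _).trans (Finset.sum_le_sum hfill)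
      _ ≤ ENNReal.ofReal (ε / 2) + ENNReal.ofReal (cst * V) := by
          gcongr
          exact sum_const_le hVt hs 0 Q (fun k hk => (hQK k hk).trans hK) hcst0
      _ = ENNReal.ofReal (ε / 2 + cst * V) := by
          rw [ENNReal.ofReal_add (by positivity) (by positivity)]
      _ ≤ ENNReal.ofReal (ε + 3 * (1 - lam) * V) := by
          apply ENNReal.ofReal_le_ofReal
          have e5 : cst * V = 12 * σ * V + 3 * (1 - lam) * V := by rw [hcst']; ring
          rw [e5]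
          linarith

end

end Crest.Agent.R096.Br_695
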