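import Crest.Agent.R096.Br5_695
import Crest.Agent.R096.Br2_695

/-!
Row 96 (S0127), helper695.  **`BFk p` for `2 < p < 3` from `EA p`.**
-/

set_option autoImplicit false
set_option linter.unusedSectionVars false
set_option linter.style.longLine false

open MeasureTheory Set Filter Metric Module
open scoped ENNReal NNReal Topology

namespace Crest.Agent.R096.Br_695

open Crest.AnalysisR.VecCalc3 Crest.AnalysisR.Sobolev
open Crest.Agent.R96.Lu_538 Crest.Agent.R96.Intr_538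
open Crest.Agent.R096.Sk_962 (SH Gr)
open Crest.Agent.R096.Sk4_663 (Zd BFs lintegral_of_memLp)
open Crest.Agent.R096.Bsp_628
open Crest.Agent.R096.Bxs_627 hiding E3
open Crest.Agent.R96.En10_199
open Crest.Agent.R096.SkC1_961 (E3 Hom3)
open Crest.Agent.R096.Er_594
open Crest.Agent.R096.EaX_766 (cbx lin RatA ExIn Kor EA)
open Crest.Agent.R096.ThC6_766 (Scale exists_scale)
open Crest.Agent.R096.Brk5_582 (Cmp)

noncomputable section

/-- a scale function of the target, below the displacement -/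
theorem exists_w {Om La : Set R3} (hL : IsOpen La) {f : R3 → R3} (hf : IsHomeomorphOn f Om La)
    {η : R3 → ℝ} (hη : ContinuousOn η Om) (hη0 : ∀ x ∈ Om, 0 < η x) {C : ℝ} (hC : 0 ≤ C) :
    ∃ w : E3 → ℝ, Scale (P3 ⁻¹' La) w ∧ ∀ x ∈ Om, 4 * (C * w (P3.symm (f x))) ≤ η x := by
  obtain ⟨fi, h1, h2, h3, h4, h5, h6⟩ := hf
  have hc : ContinuousOn (fun y => η (fi y) / (2 * (C + 1))) La := by
    have : ContinuousOn (fun y => η (fi y)) La := hη.comp h6 (fun y hy => h2 hy)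
    exact this.div_const _
  have hp : ∀ y ∈ La, 0 < η (fi y) / (2 * (C + 1)) := fun y hy => by
    have := hη0 _ (h2 hy)
    positivity
  obtain ⟨w, hw, hwh⟩ := exists_scale hL (h := fun y => η (fi y) / (2 * (C + 1))) (by
    intro x hx
    have e1 : ContinuousAt (fun y => η (fi y) / (2 * (C + 1))) x :=
      hc.continuousAt (hL.mem_nhds hx)
    have e2 : ∀ᶠ y in 𝓝 x, (η (fi x) / (2 * (C + 1))) / 2 < η (fi y) / (2 * (C + 1)) :=
      e1.eventually (lt_mem_nhds (by have := hp x hx; linarith))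
    obtain ⟨r, hr, hb⟩ := Metric.eventually_nhds_iff_ball.1 e2
    exact ⟨r, hr, _, by have := hp x hx; positivity, fun y hy => (hb y hy).le⟩)
  refine ⟨fun y => w (P3 y) / 2, ⟨?_, ?_, ?_, ?_, ?_⟩, ?_⟩
  · intro x
    have := hw.nonneg (P3 x)
    positivity
  · intro x y
    have e1 := hw.lip (P3 x) (P3 y)
    have e2 := Crest.Agent.R096.Er_594.norm_P3_le (x - y)
    rw [map_sub] at e2
    change w (P3 x) / 2 ≤ w (P3 y) / 2 + ‖x - y‖ / 8
    linarith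
  · intro x hx
    have := hw.pos (P3 x) hx
    positivity
  · intro x hx
    rw [hw.off (P3 x) hx]; simp
  · intro x
    have := hw.le_one (P3 x)
    change w (P3 x) / 2 ≤ 1
    linarith
  · intro x hx
    have e1 := hwh (f x) (h1 hx)
    rw [h3 x hx, le_div_iff₀ (by positivity)] at e1
    change 4 * (C * (w (P3 (P3.symm (f x))) / 2)) ≤ η x
    rw [P3.apply_symm_apply]
    have e2 := hw.nonneg (f x)
    nlinarith

/-- absolute continuity of the energy -/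
theorem exists_ac {p : ℝ} (hp : 1 ≤ p) {Om La : Set R3} (hOb : Bornology.IsBounded Om) {f : R3 → R3} {G : Fin 3 → R3 → R3} (hS : SH p Om La f G) {e : ℝ}
    (he : 0 < e) :
    ∃ r : ℝ, 0 < r ∧ ∀ T ⊆ Om, volume T ≤ ENNReal.ofReal r →
      ∫⁻ x in T, (1 + En p G x) ≤ ENNReal.ofReal e := by
  have hfin : ∫⁻ x in Om, (1 + En p G x) ≠ ∞ := by
    rw [lintegral_add_left measurable_const]
    refine ENNReal.add_ne_top.2 ⟨?_, ?_⟩
    · rw [setLIntegral_const, one_mul]; exact hOb.measure_lt_top.ne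
    · unfold En
      rw [lintegral_finsetSum' _ fun j _ => ((hS.memG j).1.aemeasurable.enorm).pow_const _]
      exact ENNReal.sum_ne_top.2 fun k _ => lintegral_of_memLp hp (hS.memG k)
  obtain ⟨δ, hδ, hδ'⟩ := exists_pos_setLIntegral_lt_of_measure_lt hfin
    (ε := ENNReal.ofReal e) (by rw [ENNReal.ofReal_ne_zero_iff]; exact he)
  obtain ⟨r, hr0, hr⟩ := ENNReal.lt_iff_exists_nnreal_btwn.1 hδ
  refine ⟨r, by exact_mod_cast hr0, fun T hT hTv => ?_⟩
  have h1 : (volume.restrict Om) T < δ := by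
    refine lt_of_le_of_lt (Measure.restrict_apply_le _ _) (lt_of_le_of_lt hTv ?_)
    rwa [ENNReal.ofReal_coe_nnreal]
  have h2 := hδ' T h1
  rw [Measure.restrict_restrict_of_subset hT] at h2
  exact h2.le

/-- numbers -/
theorem exists_numbers {p e V N r : ℝ} (hp : 1 ≤ p) (he : 0 < e) (hV : 0 ≤ V) (hN : 1 ≤ N)
    (hr : 0 < r) :
    ∃ (e1 h : ℝ) (lam : ℚ), 0 < e1 ∧ 0 < h ∧ 1 / 4 ≤ (lam : ℝ) ∧ (lam : ℝ) < 1 ∧
      3 * (1 - lam) * V ≤ r / 2 ∧
      3 * (2 ^ (p - 1) * (2 ^ (p - 1) * ((e1 + ((lam : ℝ)⁻¹ - 1) ^ p) * N ^ p * V) + h)) ≤ e ∧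
      3 * (e1 * ((1 + N ^ p) * V) + e / 6) ≤ e := by
  set a : ℝ := 2 ^ (p - 1) with ha
  have ha0 : 0 < a := by positivity
  have hNp : 0 < N ^ p := by positivity
  set q : ℝ := e / (6 * a ^ 2 * N ^ p * (V + 1)) with hq
  have hq0 : 0 < q := by positivity
  set m : ℝ := min 1 (q / 2) with hm
  have hm0 : 0 < m := by positivity
  set e1 : ℝ := min (q / 2) (e / (6 * (1 + N ^ p) * (V + 1))) with he1
  have he10 : 0 < e1 := by positivity
  have hl0 : max (1 / 4) (max (1 - r / (6 * (V + 1))) (1 / (1 + m))) < 1 := by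
    refine max_lt (by norm_num) (max_lt ?_ ?_)
    · have : 0 < r / (6 * (V + 1)) := by positivity
      linarith
    · rw [div_lt_one (by positivity)]; linarith
  obtain ⟨lam, hlam1, hlam2⟩ := exists_rat_btwn hl0
  have h1 : 1 / 4 ≤ (lam : ℝ) := (le_max_left _ _).trans hlam1.le
  have h2 : 1 - r / (6 * (V + 1)) ≤ (lam : ℝ) :=
    (le_max_left _ _).trans ((le_max_right _ _).trans hlam1.le)
  have h3 : 1 / (1 + m) ≤ (lam : ℝ) :=
    (le_max_right _ _).trans ((le_max_right _ _).trans hlam1.le)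
  have hlam0 : 0 < (lam : ℝ) := by linarith
  refine ⟨e1, e / (6 * a), lam, he10, by positivity, h1, hlam2, ?_, ?_, ?_⟩
  · have h4 : 1 - (lam : ℝ) ≤ r / (6 * (V + 1)) := by linarith
    rw [le_div_iff₀ (by positivity)] at h4
    have h5 : 0 ≤ 1 - (lam : ℝ) := by linarith
    nlinarith
  · have h4 : (lam : ℝ)⁻¹ - 1 ≤ m := by
      have h5 : (lam : ℝ)⁻¹ ≤ 1 + m := by
        rw [inv_le_comm₀ hlam0 (by positivity), ← one_div]; exact h3
      linarith
    have h5 : 0 ≤ (lam : ℝ)⁻¹ - 1 := by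
      have := (one_le_inv₀ hlam0).2 hlam2.le
      linarith
    have h6 : ((lam : ℝ)⁻¹ - 1) ^ p ≤ q / 2 := by
      calc ((lam : ℝ)⁻¹ - 1) ^ p ≤ m ^ p := Real.rpow_le_rpow h5 h4 (by linarith)
        _ ≤ m ^ (1 : ℝ) := Real.rpow_le_rpow_of_exponent_ge hm0 (min_le_left _ _) hp
        _ = m := Real.rpow_one m
        _ ≤ q / 2 := min_le_right _ _
    have h7 : e1 + ((lam : ℝ)⁻¹ - 1) ^ p ≤ q := by
      have : e1 ≤ q / 2 := min_le_left _ _
      linarith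
    have h8 : (e1 + ((lam : ℝ)⁻¹ - 1) ^ p) * N ^ p * V ≤ q * N ^ p * (V + 1) := by
      have h9 : 0 ≤ e1 + ((lam : ℝ)⁻¹ - 1) ^ p := by positivity
      gcongr
      linarith
    have h9 : a * (q * N ^ p * (V + 1)) = e / (6 * a) := by
      rw [hq]; field_simp
    calc 3 * (a * (a * ((e1 + ((lam : ℝ)⁻¹ - 1) ^ p) * N ^ p * V) + e / (6 * a)))
        ≤ 3 * (a * (a * (q * N ^ p * (V + 1)) + e / (6 * a))) := by gcongr
      _ = e := by rw [h9]; field_simp; ring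
  · have h4 : e1 ≤ e / (6 * (1 + N ^ p) * (V + 1)) := min_le_right _ _
    have h5 : e1 * ((1 + N ^ p) * V) ≤ e / 6 := by
      calc e1 * ((1 + N ^ p) * V) ≤ e / (6 * (1 + N ^ p) * (V + 1)) * ((1 + N ^ p) * (V + 1)) := by
            gcongr
            linarith
        _ = e / 6 := by field_simp
    linarith

theorem enorm_add_le' {E : Type*} [SeminormedAddCommGroup E] (a b : E) :
    ‖a + b‖ₑ ≤ ‖a‖ₑ + ‖b‖ₑ := by
  rw [← ofReal_norm, ← ofReal_norm, ← ofReal_norm,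
    ← ENNReal.ofReal_add (norm_nonneg _) (norm_nonneg _)]
  exact ENNReal.ofReal_le_ofReal (norm_add_le _ _)

/-- the closed stars of the bricks are in convex compact parts of the target -/
theorem star_of_scale {La : Set E3} {w : E3 → ℝ} (hw : Scale La w) {F : Set (Bx (Fin 3))} {δ κ0 : ℝ} (BF : BoxFoam La F δ κ0) (hcmp : Cmp F 6)
    (hsz : ∀ C ∈ F, ∀ x ∈ C.set, C.sz ≤ w x) :
    ∀ c : F, ∃ S : Set E3, IsCompact S ∧ Convex ℝ S ∧ S ⊆ La ∧
      ∀ c' : F, (c'.1.set ∩ c.1.set).Nonempty → c'.1.set ⊆ interior S := by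
  intro c
  have hx : ctr c.1 ∈ c.1.set := ctr_mem (BF.pos _ c.2)
  have hxL := BF.sub _ c.2 hx
  have hw0 := hw.pos _ hxL
  refine ⟨closedBall (ctr c.1) (15 / 2 * w (ctr c.1)), isCompact_closedBall _ _,
    convex_closedBall _ _, ?_, ?_⟩
  · intro y hy
    by_contra hno
    have h1 := hw.lip (ctr c.1) y
    rw [hw.off y hno] at h1
    rw [mem_closedBall, dist_comm, dist_eq_norm] at hy
    linarith
  · rintro c' ⟨z, hz', hz⟩ y hy
    have h1 : dist y z ≤ c'.1.sz := dist_le_sz hy hz' (BF.pos _ c'.2)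
    have h2 : dist z (ctr c.1) ≤ c.1.sz := dist_le_sz hz hx (BF.pos _ c.2)
    have h3 : c'.1.sz ≤ 6 * c.1.sz := hcmp c' c ⟨z, hz', hz⟩
    have h4 := hsz _ c.2 _ hx
    have h5 : y ∈ ball (ctr c.1) (15 / 2 * w (ctr c.1)) := by
      rw [mem_ball]
      have := dist_triangle y z (ctr c.1)
      linarith
    exact (interior_maximal ball_subset_closedBall isOpen_ball) h5

/-- energy on the cores -/
theorem core_energy {p : ℝ} (hp : 1 ≤ p) {ι : Type*} [Countable ι] {Om : Set E3}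
    {D : E3 → E3 →L[ℝ] E3} (hD : AEStronglyMeasurable D (volume.restrict Om)) {g : E3 → E3}
    {K : ι → Set E3} (hKO : ∀ i, K i ⊆ Om) (hKm : ∀ i, MeasurableSet (K i))
    (hd : Pairwise (Function.onFun Disjoint K)) {l : ι → E3 →L[ℝ] E3} {N : ℝ} (hN0 : 0 ≤ N)
    (hN : ∀ i, ‖l i‖ ≤ N) {lam : ℝ} (hl0 : 0 < lam) (hl1 : lam ≤ 1) {e1 h V : ℝ} (he1 : 0 ≤ e1)
    (hh : 0 ≤ h) (hV0 : 0 ≤ V)
    (h1 : ∀ i, ∫⁻ x in K i, ‖fderiv ℝ g x - lam⁻¹ • l i‖ₑ ^ p ≤
      ENNReal.ofReal e1 * (‖l i‖ₑ ^ p * volume (K i)))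
    (h2 : ∑' i, ∫⁻ x in K i, ‖D x - l i‖ₑ ^ p ≤ ENNReal.ofReal h)
    (hV : volume Om ≤ ENNReal.ofReal V) :
    ∫⁻ x in ⋃ i, K i, ‖fderiv ℝ g x - D x‖ₑ ^ p ≤
      ENNReal.ofReal (2 ^ (p - 1) * (2 ^ (p - 1) * ((e1 + (lam⁻¹ - 1) ^ p) * N ^ p * V) + h)) := by
  have hp0 : 0 ≤ p := by linarith
  set a : ℝ≥0∞ := ENNReal.ofReal (2 ^ (p - 1)) with ha
  have ha' : (2:ℝ≥0∞) ^ (p - 1) = a := by
    rw [ha, ← ENNReal.ofReal_rpow_of_pos (by norm_num)]; norm_num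
  have ht : a ≠ ∞ := ENNReal.ofReal_ne_top
  have hl2 : 0 ≤ lam⁻¹ - 1 := by
    have := (one_le_inv₀ hl0).2 hl1
    linarith
  set b : ι → ℝ≥0∞ := fun i => ENNReal.ofReal ((lam⁻¹ - 1) ^ p) * ‖l i‖ₑ ^ p with hb
  have hpt : ∀ i x, ‖fderiv ℝ g x - D x‖ₑ ^ p ≤
      a * (a * (‖fderiv ℝ g x - lam⁻¹ • l i‖ₑ ^ p + b i) + ‖D x - l i‖ₑ ^ p) := by
    intro i x
    have e1 : fderiv ℝ g x - D x = ((fderiv ℝ g x - lam⁻¹ • l i) + (lam⁻¹ - 1) • l i) +
        (-(D x - l i)) := by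
      module
    have e2 : ‖(lam⁻¹ - 1) • l i‖ₑ ^ p = b i := by
      rw [enorm_smul, ENNReal.mul_rpow_of_nonneg _ _ hp0, hb]
      congr 1
      rw [Real.enorm_eq_ofReal hl2, ENNReal.ofReal_rpow_of_nonneg hl2 hp0]
    have e3 : ‖((fderiv ℝ g x - lam⁻¹ • l i) + (lam⁻¹ - 1) • l i) + (-(D x - l i))‖ₑ ≤
        ‖(fderiv ℝ g x - lam⁻¹ • l i) + (lam⁻¹ - 1) • l i‖ₑ + ‖-(D x - l i)‖ₑ := by
      exact enorm_add_le' _ _
    have e4 : ‖(fderiv ℝ g x - lam⁻¹ • l i) + (lam⁻¹ - 1) • l i‖ₑ ≤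
        ‖fderiv ℝ g x - lam⁻¹ • l i‖ₑ + ‖(lam⁻¹ - 1) • l i‖ₑ := by
      exact enorm_add_le' _ _
    rw [e1]
    calc _ ≤ (‖(fderiv ℝ g x - lam⁻¹ • l i) + (lam⁻¹ - 1) • l i‖ₑ + ‖-(D x - l i)‖ₑ) ^ p :=
          ENNReal.rpow_le_rpow e3 hp0
      _ ≤ a * (‖(fderiv ℝ g x - lam⁻¹ • l i) + (lam⁻¹ - 1) • l i‖ₑ ^ p +
            ‖-(D x - l i)‖ₑ ^ p) := by
          rw [← ha']; exact ENNReal.rpow_add_le_mul_rpow_add_rpow _ _ hp
      _ ≤ a * (a * (‖fderiv ℝ g x - lam⁻¹ • l i‖ₑ ^ p + b i) + ‖D x - l i‖ₑ ^ p) := by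
          rw [enorm_neg]
          gcongr
          calc _ ≤ (‖fderiv ℝ g x - lam⁻¹ • l i‖ₑ + ‖(lam⁻¹ - 1) • l i‖ₑ) ^ p :=
                ENNReal.rpow_le_rpow e4 hp0
            _ ≤ a * (‖fderiv ℝ g x - lam⁻¹ • l i‖ₑ ^ p + ‖(lam⁻¹ - 1) • l i‖ₑ ^ p) := by
                rw [← ha']; exact ENNReal.rpow_add_le_mul_rpow_add_rpow _ _ hp
            _ = _ := by rw [e2]
  have hNp : ∀ i, ‖l i‖ₑ ^ p ≤ ENNReal.ofReal (N ^ p) := by
    intro i
    rw [← ofReal_norm, ENNReal.ofReal_rpow_of_nonneg (norm_nonneg _) hp0]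
    exact ENNReal.ofReal_le_ofReal (Real.rpow_le_rpow (norm_nonneg _) (hN i) hp0)
  have hi : ∀ i, ∫⁻ x in K i, ‖fderiv ℝ g x - D x‖ₑ ^ p ≤
      a * (a * (ENNReal.ofReal ((e1 + (lam⁻¹ - 1) ^ p) * N ^ p) * volume (K i)) +
        ∫⁻ x in K i, ‖D x - l i‖ₑ ^ p) := by
    intro i
    have hm : AEMeasurable (fun x => ‖D x - l i‖ₑ ^ p) (volume.restrict (K i)) := by
      have h3 : AEStronglyMeasurable D (volume.restrict (K i)) :=
        hD.mono_measure (Measure.restrict_mono (hKO i) le_rfl)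
      exact ((h3.sub aestronglyMeasurable_const).enorm).pow_const p
    calc ∫⁻ x in K i, ‖fderiv ℝ g x - D x‖ₑ ^ p
        ≤ ∫⁻ x in K i, a * (a * (‖fderiv ℝ g x - lam⁻¹ • l i‖ₑ ^ p + b i) +
            ‖D x - l i‖ₑ ^ p) := lintegral_mono (hpt i)
      _ = a * (a * ((∫⁻ x in K i, ‖fderiv ℝ g x - lam⁻¹ • l i‖ₑ ^ p) + b i * volume (K i)) +
            ∫⁻ x in K i, ‖D x - l i‖ₑ ^ p) := by
          rw [lintegral_const_mul' _ _ ht, lintegral_add_right' _ hm,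
            lintegral_const_mul' _ _ ht, lintegral_add_right _ measurable_const,
            setLIntegral_const]
      _ ≤ _ := by
          gcongr
          calc (∫⁻ x in K i, ‖fderiv ℝ g x - lam⁻¹ • l i‖ₑ ^ p) + b i * volume (K i)
              ≤ ENNReal.ofReal e1 * (ENNReal.ofReal (N ^ p) * volume (K i)) +
                ENNReal.ofReal ((lam⁻¹ - 1) ^ p) * ENNReal.ofReal (N ^ p) * volume (K i) := by
                refine add_le_add ((h1 i).trans ?_) ?_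
                · gcongr; exact hNp i
                · simp only [hb]
                  gcongr
                  exact hNp i
            _ = _ := by
                rw [ENNReal.ofReal_mul (by positivity), ENNReal.ofReal_add he1 (by positivity)]
                ring
  have hvol : ∑' i, volume (K i) ≤ ENNReal.ofReal V := by
    rw [← measure_iUnion hd hKm]
    exact (measure_mono (iUnion_subset hKO)).trans hV
  calc ∫⁻ x in ⋃ i, K i, ‖fderiv ℝ g x - D x‖ₑ ^ p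
      ≤ ∑' i, ∫⁻ x in K i, ‖fderiv ℝ g x - D x‖ₑ ^ p := lintegral_iUnion_le _ _
    _ ≤ ∑' i, a * (a * (ENNReal.ofReal ((e1 + (lam⁻¹ - 1) ^ p) * N ^ p) * volume (K i)) +
        ∫⁻ x in K i, ‖D x - l i‖ₑ ^ p) := ENNReal.tsum_le_tsum hi
    _ = a * (a * (ENNReal.ofReal ((e1 + (lam⁻¹ - 1) ^ p) * N ^ p) * ∑' i, volume (K i)) +
        ∑' i, ∫⁻ x in K i, ‖D x - l i‖ₑ ^ p) := by
        rw [ENNReal.tsum_mul_left, ENNReal.tsum_add, ENNReal.tsum_mul_left, ENNReal.tsum_mul_left]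
    _ ≤ a * (a * (ENNReal.ofReal ((e1 + (lam⁻¹ - 1) ^ p) * N ^ p) * ENNReal.ofReal V) +
        ENNReal.ofReal h) := by gcongr
    _ = _ := by
        have h3 : 0 ≤ (e1 + (lam⁻¹ - 1) ^ p) * N ^ p := by positivity
        rw [ha, ← ENNReal.ofReal_mul h3, ← ENNReal.ofReal_mul (by positivity),
          ← ENNReal.ofReal_add (by positivity) hh, ← ENNReal.ofReal_mul (by positivity)]

/-- the structural constant of the dyadic foam -/
def Mf : ℝ := max (4 / dl (Fin 3) 3) 2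

set_option maxHeartbeats 1000000 in
/-- **RANGE `2 < p < 3`.** -/
theorem bfk_of_ea {p : ℝ} (hp : 2 < p) (hp3 : p < 3) (hEA : EA p) : BFk p := by
  classical
  have hp1 : 1 ≤ p := by linarith
  have hp0 : 0 ≤ p := by linarith
  have hM : 4 / dl (Fin 3) 3 ≤ Mf := le_max_left _ _
  have hM2 : 2 ≤ Mf := le_max_right _ _
  obtain ⟨C, hC0, hC⟩ := hEA δf 3 6 (1 / 4) (1 / 4) Mf δf_pos (by norm_num) (by norm_num)
    (by norm_num) (by norm_num) (by norm_num) le_rfl (by linarith)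
  refine ⟨3 * C * 2 ^ p, ?_⟩
  intro Om La f G hO hOb hOc hL hLb hLc hS η hη hη0 e he
  set V : ℝ := (volume Om).toReal with hV
  have hV0 : 0 ≤ V := ENNReal.toReal_nonneg
  have hVt : volume Om ≠ ∞ := hOb.measure_lt_top.ne
  have hVe : ENNReal.ofReal V = volume Om := ENNReal.ofReal_toReal hVt
  have hV3 : volume (P3 ⁻¹' Om) = ENNReal.ofReal V := by rw [vol_P3, hVe]
  obtain ⟨w, hw, hwη⟩ := exists_w hL hS.homeo hη hη0 (C := C) C.2
  obtain ⟨r, hr, hac⟩ := exists_ac hp1 hOb hS he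
  obtain ⟨N, hN1, HP⟩ := prep2 hp hO hOb hL hLb hS (half_pos hr) hw hM hM2
  obtain ⟨e1, h, lam, he1, hh, hl1, hl2, hn1, hn2, hn3⟩ := exists_numbers hp1 he hV0 hN1 hr
  have hl0 : 0 < (lam : ℝ) := by linarith
  have hN0 : 0 ≤ N := by linarith
  obtain ⟨κ1, hκ1, hC1⟩ := hC e1 he1 lam hl2
  obtain ⟨F, X, A, BF, hcmp, hdy, hsz, hEx, hnrm, hKO, hdisj, hen, hvol⟩ := HP h hh lam hl1 hl2 κ1 hκ1
  have hS3 := sh3_of hp1 hO hS
  obtain ⟨g, g1, g2, g3, g4, g5⟩ := hC1 (P3 ⁻¹' Om) (P3 ⁻¹' La) (e3 f) (D3 G) (isOpen_pre hO)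
    (isBounded_pre hOb) (isConnected_pre hOc) (isOpen_pre hL) (isBounded_pre hLb)
    (isConnected_pre hLc) hS3 0 1 one_pos F BF hcmp hdy
    (star_of_scale hw BF hcmp hsz) X (Or.inl hp3) A (fun _ => (lam : ℝ))
    (fun c _ => ⟨hl1, le_rfl, lam, rfl⟩) hEx (ENNReal.ofReal (e / 6))
    (ENNReal.ofReal_pos.2 (by positivity))
  set K3 : F → Set E3 := Kor F A (fun _ => (lam : ℝ)) with hK3
  set U : Set E3 := ⋃ c ∈ X, K3 c with hU
  have hUi : U = ⋃ c : X, K3 c := by rw [hU, biUnion_eq_iUnion]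
  have hFc : Countable F := BF.countable.to_subtype
  set K : Set R3 := P3.symm ⁻¹' U with hK
  have hKp : P3 ⁻¹' K = U := symm_pre U
  have hKOm : K ⊆ Om := by
    intro y hy
    have h1 : P3.symm y ∈ P3 ⁻¹' Om := by
      obtain ⟨c, hc, hyc⟩ := mem_iUnion₂.1 hy
      exact hKO c hc hyc
    have h2 : P3 (P3.symm y) ∈ Om := h1
    rwa [P3.apply_symm_apply] at h2
  have hd' : Pairwise (Function.onFun Disjoint fun c : X => K3 c) := fun c c' hne =>
    hdisj _ c.2 _ c'.2 (fun h => hne (Subtype.ext h))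
  have hKm : ∀ c : X, MeasurableSet (K3 c) := fun c => (isClosed_Kor _).measurableSet
  have hvolK : ∑' c : X, volume (K3 c) ≤ ENNReal.ofReal V := by
    rw [← measure_iUnion hd' hKm, ← hV3]
    exact measure_mono (iUnion_subset fun c => hKO _ c.2)
  refine ⟨K, r3 g, homeo_of g1, locPL_r3 g2, ?_, ?_, ?_, ?_⟩
  · -- displacement
    intro y hy
    have hx : P3.symm y ∈ P3 ⁻¹' Om := by
      change P3 (P3.symm y) ∈ Om
      rwa [P3.apply_symm_apply]
    have hfx : e3 f (P3.symm y) = P3.symm (f y) := by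
      simp only [e3, P3.apply_symm_apply]
    have hxL : e3 f (P3.symm y) ∈ P3 ⁻¹' La := by
      obtain ⟨_, hm, _⟩ := hom3_of hS.homeo
      exact hm hx
    obtain ⟨c, hc, hxc⟩ := BF.cov _ hxL
    have h1 := g3 _ hx ⟨c, hc⟩ hxc
    have h2 := hsz c hc _ hxc
    have h3 := hwη y hy
    rw [← hfx] at h3
    have h4 := norm_r3_sub_le g f y
    have h5 : (C : ℝ) * c.sz ≤ C * w (e3 f (P3.symm y)) := mul_le_mul_of_nonneg_left h2 C.2
    have h6 : 0 ≤ (C : ℝ) * w (e3 f (P3.symm y)) := mul_nonneg C.2 (hw.nonneg _)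
    linarith
  · -- the cores
    refine (energy_sub_le hO g2 hKOm hp0 G).trans ?_
    rw [hKp, hUi]
    have h1 := core_energy hp1 hS3.aesm (K := fun c : X => K3 c) (fun c => hKO _ c.2) hKm hd'
      (l := fun c : X => lin (A c)) hN0 (fun c => hnrm _ c.2) hl0 hl2.le (g := g) he1.le hh.le hV0
      (fun c => g5 _ c.2) hen hV3.le
    have h3 : (3:ℝ≥0∞) = ENNReal.ofReal 3 := by norm_num
    refine (mul_le_mul' le_rfl h1).trans ?_
    rw [h3, ← ENNReal.ofReal_mul (by norm_num)]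
    exact ENNReal.ofReal_le_ofReal hn2
  · -- off the cores
    have hpre : P3 ⁻¹' (Om \ K) = P3 ⁻¹' Om \ U := by
      rw [preimage_sdiff, hKp]
    have h0 := energy_g_le hO g2 (R := Om \ K) sdiff_subset hp0
    rw [hpre] at h0
    have h2p : (2:ℝ≥0∞) ^ p ≠ ∞ := ENNReal.rpow_ne_top_of_nonneg hp0 (by norm_num)
    have h1 : ∫⁻ x in P3 ⁻¹' Om \ U, (1 + ‖D3 G x‖ₑ ^ p) ≤
        2 ^ p * ∫⁻ y in Om \ K, (1 + En p G y) := by
      rw [lint_P3, ← lintegral_const_mul' _ _ h2p, hpre]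
      apply lintegral_mono
      intro x
      change 1 + ‖D3 G x‖ₑ ^ p ≤ 2 ^ p * (1 + ∑ j, ‖G j (P3 x)‖ₑ ^ p)
      rw [mul_add]
      have h4 := le_sum_row (D3 G x) hp0
      simp only [row_D3] at h4
      gcongr
      rw [mul_one]
      exact ENNReal.one_le_rpow (by norm_num) (by linarith)
    have h2 : ∑' c : X, (1 + ‖lin (A c)‖ₑ ^ p) * volume (K3 c) ≤
        ENNReal.ofReal ((1 + N ^ p) * V) := by
      calc ∑' c : X, (1 + ‖lin (A c)‖ₑ ^ p) * volume (K3 c)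
          ≤ ∑' c : X, ENNReal.ofReal (1 + N ^ p) * volume (K3 c) := by
            refine ENNReal.tsum_le_tsum fun c => ?_
            gcongr
            rw [ENNReal.ofReal_add (by norm_num) (by positivity), ENNReal.ofReal_one]
            gcongr
            rw [← ofReal_norm, ENNReal.ofReal_rpow_of_nonneg (norm_nonneg _) hp0]
            exact ENNReal.ofReal_le_ofReal (Real.rpow_le_rpow (norm_nonneg _) (hnrm _ c.2) hp0)
        _ = ENNReal.ofReal (1 + N ^ p) * ∑' c : X, volume (K3 c) := ENNReal.tsum_mul_left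
        _ ≤ ENNReal.ofReal (1 + N ^ p) * ENNReal.ofReal V := by gcongr
        _ = _ := (ENNReal.ofReal_mul (by positivity)).symm
    have h3 : 3 * (ENNReal.ofReal e1 * ENNReal.ofReal ((1 + N ^ p) * V) + ENNReal.ofReal (e / 6)) ≤
        ENNReal.ofReal e := by
      rw [← ENNReal.ofReal_mul he1.le, ← ENNReal.ofReal_add (by positivity) (by positivity),
        show (3:ℝ≥0∞) = ENNReal.ofReal 3 by norm_num, ← ENNReal.ofReal_mul (by norm_num)]
      exact ENNReal.ofReal_le_ofReal hn3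
    calc ∫⁻ x in Om \ K, En p (Gr (r3 g)) x ≤ 3 * ∫⁻ x in P3 ⁻¹' Om \ U, ‖fderiv ℝ g x‖ₑ ^ p := h0
      _ ≤ 3 * (C * (∫⁻ x in P3 ⁻¹' Om \ U, (1 + ‖D3 G x‖ₑ ^ p)) +
            ENNReal.ofReal e1 * (∑' c : X, (1 + ‖lin (A c)‖ₑ ^ p) * volume (K3 c)) +
            ENNReal.ofReal (e / 6)) := by gcongr
      _ ≤ 3 * (C * (2 ^ p * ∫⁻ y in Om \ K, (1 + En p G y)) +
            ENNReal.ofReal e1 * ENNReal.ofReal ((1 + N ^ p) * V) + ENNReal.ofReal (e / 6)) := by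
          gcongr
      _ = ((3 * C * 2 ^ p : ℝ≥0) : ℝ≥0∞) * (∫⁻ y in Om \ K, (1 + En p G y)) +
            3 * (ENNReal.ofReal e1 * ENNReal.ofReal ((1 + N ^ p) * V) + ENNReal.ofReal (e / 6)) := by
          push_cast
          rw [ENNReal.coe_rpow_of_nonneg _ hp0]
          push_cast
          ring
      _ ≤ _ := by gcongr
  · -- the rest of `{det ≠ 0}`
    have hsub : (Om \ Zd G) \ K ⊆ (Om ∩ {x | (Gmat G x).det ≠ 0}) \ K := by
      rintro x ⟨⟨h1, h2⟩, h3⟩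
      exact ⟨⟨h1, h2⟩, h3⟩
    refine hac _ (fun x hx => hx.1.1) ((measure_mono hsub).trans (hvol.trans ?_))
    apply ENNReal.ofReal_le_ofReal
    linarith

/-- **RANGE `2 < p < 3`**, `BFs` -/
theorem bfs_of_ea {p : ℝ} (hp : 2 < p) (hp3 : p < 3) (hEA : EA p) : BFs p :=
  bfs_of_bfk (by linarith) (bfk_of_ea hp hp3 hEA)

end

end Crest.Agent.R096.Br_695
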