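import Crest.Agent.R096.Br6_695

/-!
Row 96 (S0127), helper695.  **`BFk p` for `p ≤ 2`**: energies of the composition `EA0 p → PreIN p → BFk p`.
-/

set_option autoImplicit false
set_option linter.unusedSectionVars false
set_option linter.style.longLine false

open MeasureTheory Set Filter Metric Module
open scoped ENNReal NNReal Topology

namespace Crest.Agent.R096.Br_695

open Crest.AnalysisR.VecCalc3 Crest.AnalysisR.Sobolev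
open Crest.Agent.R96.Lu_538 Crest.Agent.R96.Intr_538
open Crest.Agent.R096.Sk_962 (SH Gr)
open Crest.Agent.R096.Sk4_663 (Zd BFs lintegral_of_memLp)
open Crest.Agent.R096.Bsp_628
open Crest.Agent.R096.Bxs_627 hiding E3
open Crest.Agent.R96.En10_199
open Crest.Agent.R096.SkC1_961 (E3 Hom3)
open Crest.Agent.R096.Er_594
open Crest.Agent.R096.EaX_766 (cbx lin Kor)
open Crest.Agent.R096.ThC6_766 (Scale exists_scale)
open Crest.Agent.R096.Brk5_582 (Cmp)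

noncomputable section

/-- energy on the cores, sum form -/
theorem core_energy2 {p : ℝ} (hp : 1 ≤ p) {ι : Type*} [Countable ι] {Om : Set E3}
    {D : E3 → E3 →L[ℝ] E3} (hD : AEStronglyMeasurable D (volume.restrict Om)) {g : E3 → E3}
    {K : ι → Set E3} (hKO : ∀ i, K i ⊆ Om) (hKm : ∀ i, MeasurableSet (K i))
    (hd : Pairwise (Function.onFun Disjoint K)) {l : ι → E3 →L[ℝ] E3} {N : ℝ} (hN0 : 0 ≤ N)
    (hN : ∀ i, ‖l i‖ ≤ N) {lam : ℝ} (hl0 : 0 < lam) (hl1 : lam ≤ 1) {q h V : ℝ} (hq : 0 ≤ q)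
    (hh : 0 ≤ h) (hV0 : 0 ≤ V)
    (h1 : ∑' i, ∫⁻ x in K i, ‖fderiv ℝ g x - lam⁻¹ • l i‖ₑ ^ p ≤ ENNReal.ofReal q)
    (h2 : ∑' i, ∫⁻ x in K i, ‖D x - l i‖ₑ ^ p ≤ ENNReal.ofReal h)
    (hV : volume Om ≤ ENNReal.ofReal V) :
    ∫⁻ x in ⋃ i, K i, ‖fderiv ℝ g x - D x‖ₑ ^ p ≤
      ENNReal.ofReal (2 ^ (p - 1) * (2 ^ (p - 1) * (q + (lam⁻¹ - 1) ^ p * N ^ p * V) + h)) := by
  have hp0 : 0 ≤ p := by linarith
  set a : ℝ≥0∞ := ENNReal.ofReal (2 ^ (p - 1)) with ha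
  have ha' : (2:ℝ≥0∞) ^ (p - 1) = a := by
    rw [ha, ← ENNReal.ofReal_rpow_of_pos (by norm_num)]; norm_num
  have ht : a ≠ ∞ := ENNReal.ofReal_ne_top
  have hl2 : 0 ≤ lam⁻¹ - 1 := by
    have := (one_le_inv₀ hl0).2 hl1
    linarith
  set b : ι → ℝ≥0∞ := fun i => ENNReal.ofReal ((lam⁻¹ - 1) ^ p) * ‖l i‖ₑ ^ p with hb
  have hpt : ∀ i x, ‖fderiv ℝ g x - D x‖ₑ ^ p ≤
      a * (a * (‖fderiv ℝ g x - lam⁻¹ • l i‖ₑ ^ p + b i) + ‖D x - l i‖ₑ ^ p) := by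
    intro i x
    have e1 : fderiv ℝ g x - D x = ((fderiv ℝ g x - lam⁻¹ • l i) + (lam⁻¹ - 1) • l i) +
        (-(D x - l i)) := by
      module
    have e2 : ‖(lam⁻¹ - 1) • l i‖ₑ ^ p = b i := by
      rw [enorm_smul, ENNReal.mul_rpow_of_nonneg _ _ hp0, hb]
      congr 1
      rw [Real.enorm_eq_ofReal hl2, ENNReal.ofReal_rpow_of_nonneg hl2 hp0]
    have e3 : ‖((fderiv ℝ g x - lam⁻¹ • l i) + (lam⁻¹ - 1) • l i) + (-(D x - l i))‖ₑ ≤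
        ‖(fderiv ℝ g x - lam⁻¹ • l i) + (lam⁻¹ - 1) • l i‖ₑ + ‖-(D x - l i)‖ₑ := by
      exact enorm_add_le' _ _
    have e4 : ‖(fderiv ℝ g x - lam⁻¹ • l i) + (lam⁻¹ - 1) • l i‖ₑ ≤
        ‖fderiv ℝ g x - lam⁻¹ • l i‖ₑ + ‖(lam⁻¹ - 1) • l i‖ₑ := by
      exact enorm_add_le' _ _
    rw [e1]
    calc _ ≤ (‖(fderiv ℝ g x - lam⁻¹ • l i) + (lam⁻¹ - 1) • l i‖ₑ + ‖-(D x - l i)‖ₑ) ^ p :=
          ENNReal.rpow_le_rpow e3 hp0
      _ ≤ a * (‖(fderiv ℝ g x - lam⁻¹ • l i) + (lam⁻¹ - 1) • l i‖ₑ ^ p +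
            ‖-(D x - l i)‖ₑ ^ p) := by
          rw [← ha']; exact ENNReal.rpow_add_le_mul_rpow_add_rpow _ _ hp
      _ ≤ a * (a * (‖fderiv ℝ g x - lam⁻¹ • l i‖ₑ ^ p + b i) + ‖D x - l i‖ₑ ^ p) := by
          rw [enorm_neg]
          gcongr
          calc _ ≤ (‖fderiv ℝ g x - lam⁻¹ • l i‖ₑ + ‖(lam⁻¹ - 1) • l i‖ₑ) ^ p :=
                ENNReal.rpow_le_rpow e4 hp0
            _ ≤ a * (‖fderiv ℝ g x - lam⁻¹ • l i‖ₑ ^ p + ‖(lam⁻¹ - 1) • l i‖ₑ ^ p) := by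
                rw [← ha']; exact ENNReal.rpow_add_le_mul_rpow_add_rpow _ _ hp
            _ = _ := by rw [e2]
  have hNp : ∀ i, ‖l i‖ₑ ^ p ≤ ENNReal.ofReal (N ^ p) := by
    intro i
    rw [← ofReal_norm, ENNReal.ofReal_rpow_of_nonneg (norm_nonneg _) hp0]
    exact ENNReal.ofReal_le_ofReal (Real.rpow_le_rpow (norm_nonneg _) (hN i) hp0)
  have hi : ∀ i, ∫⁻ x in K i, ‖fderiv ℝ g x - D x‖ₑ ^ p ≤
      a * (a * ((∫⁻ x in K i, ‖fderiv ℝ g x - lam⁻¹ • l i‖ₑ ^ p) +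
        ENNReal.ofReal ((lam⁻¹ - 1) ^ p * N ^ p) * volume (K i)) +
        ∫⁻ x in K i, ‖D x - l i‖ₑ ^ p) := by
    intro i
    have hm : AEMeasurable (fun x => ‖D x - l i‖ₑ ^ p) (volume.restrict (K i)) := by
      have h3 : AEStronglyMeasurable D (volume.restrict (K i)) :=
        hD.mono_measure (Measure.restrict_mono (hKO i) le_rfl)
      exact ((h3.sub aestronglyMeasurable_const).enorm).pow_const p
    calc ∫⁻ x in K i, ‖fderiv ℝ g x - D x‖ₑ ^ p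
        ≤ ∫⁻ x in K i, a * (a * (‖fderiv ℝ g x - lam⁻¹ • l i‖ₑ ^ p + b i) +
            ‖D x - l i‖ₑ ^ p) := lintegral_mono (hpt i)
      _ = a * (a * ((∫⁻ x in K i, ‖fderiv ℝ g x - lam⁻¹ • l i‖ₑ ^ p) + b i * volume (K i)) +
            ∫⁻ x in K i, ‖D x - l i‖ₑ ^ p) := by
          rw [lintegral_const_mul' _ _ ht, lintegral_add_right' _ hm,
            lintegral_const_mul' _ _ ht, lintegral_add_right _ measurable_const,
            setLIntegral_const]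
      _ ≤ _ := by
          gcongr
          simp only [hb]
          rw [ENNReal.ofReal_mul (by positivity)]
          gcongr
          exact hNp i
  have hvol : ∑' i, volume (K i) ≤ ENNReal.ofReal V := by
    rw [← measure_iUnion hd hKm]
    exact (measure_mono (iUnion_subset hKO)).trans hV
  calc ∫⁻ x in ⋃ i, K i, ‖fderiv ℝ g x - D x‖ₑ ^ p
      ≤ ∑' i, ∫⁻ x in K i, ‖fderiv ℝ g x - D x‖ₑ ^ p := lintegral_iUnion_le _ _
    _ ≤ ∑' i, a * (a * ((∫⁻ x in K i, ‖fderiv ℝ g x - lam⁻¹ • l i‖ₑ ^ p) +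
        ENNReal.ofReal ((lam⁻¹ - 1) ^ p * N ^ p) * volume (K i)) +
        ∫⁻ x in K i, ‖D x - l i‖ₑ ^ p) := ENNReal.tsum_le_tsum hi
    _ = a * (a * ((∑' i, ∫⁻ x in K i, ‖fderiv ℝ g x - lam⁻¹ • l i‖ₑ ^ p) +
        ENNReal.ofReal ((lam⁻¹ - 1) ^ p * N ^ p) * ∑' i, volume (K i)) +
        ∑' i, ∫⁻ x in K i, ‖D x - l i‖ₑ ^ p) := by
        rw [ENNReal.tsum_mul_left, ENNReal.tsum_add, ENNReal.tsum_mul_left, ENNReal.tsum_add,
          ENNReal.tsum_mul_left]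
    _ ≤ a * (a * (ENNReal.ofReal q +
        ENNReal.ofReal ((lam⁻¹ - 1) ^ p * N ^ p) * ENNReal.ofReal V) +
        ENNReal.ofReal h) := by gcongr
    _ = _ := by
        have h3 : 0 ≤ (lam⁻¹ - 1) ^ p * N ^ p := by positivity
        rw [ha, ← ENNReal.ofReal_mul h3, ← ENNReal.ofReal_add hq (by positivity),
          ← ENNReal.ofReal_mul (by positivity),
          ← ENNReal.ofReal_add (by positivity) hh, ← ENNReal.ofReal_mul (by positivity)]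

/-- energies of the matrices, `E3` and `R3` -/
theorem lint_D3_le {p : ℝ} (hp : 1 ≤ p) (G : Fin 3 → R3 → R3) (T : Set R3) :
    ∫⁻ x in P3 ⁻¹' T, (1 + ‖D3 G x‖ₑ ^ p) ≤ 2 ^ p * ∫⁻ y in T, (1 + En p G y) := by
  have hp0 : 0 ≤ p := by linarith
  have h2p : (2:ℝ≥0∞) ^ p ≠ ∞ := ENNReal.rpow_ne_top_of_nonneg hp0 (by norm_num)
  rw [lint_P3, ← lintegral_const_mul' _ _ h2p]
  apply lintegral_mono
  intro x
  change 1 + ‖D3 G x‖ₑ ^ p ≤ 2 ^ p * (1 + ∑ j, ‖G j (P3 x)‖ₑ ^ p)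
  rw [mul_add]
  have h4 := le_sum_row (D3 G x) hp0
  simp only [row_D3] at h4
  gcongr
  rw [mul_one]
  exact ENNReal.one_le_rpow (by norm_num) (by linarith)

/-- **energy outside the blocks**: from the blocks at the position `a` (`Na`, `Ka`) to the blocks at the
rational position (`N`, `K`). -/
theorem out_le {p : ℝ} {Om : Set R3} {G G₂ : Fin 3 → R3 → R3} {J : Type*} [Countable J]
    {Na Ka N K Ly : J → Set R3} {Cp : ℝ≥0} {eP eac : ℝ}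
    (h1 : ∫⁻ x in Om \ ⋃ j, Na j, (1 + En p G₂ x) ≤
      Cp * (∫⁻ x in Om \ ⋃ j, Ka j, (1 + En p G x)) + ENNReal.ofReal eP)
    (h2 : ∑' j, ∫⁻ x in Ly j, (1 + En p G₂ x) ≤ ENNReal.ofReal eP)
    (hLy : ∀ j, Na j \ N j ⊆ Ly j)
    (h3 : ∫⁻ x in ⋃ j, Om ∩ (K j \ Ka j), (1 + En p G x) ≤ ENNReal.ofReal eac) :
    ∫⁻ x in Om \ ⋃ j, N j, (1 + En p G₂ x) ≤
      Cp * ((∫⁻ x in Om \ ⋃ j, K j, (1 + En p G x)) + ENNReal.ofReal eac) + ENNReal.ofReal eP +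
        ENNReal.ofReal eP := by
  have e1 : Om \ ⋃ j, N j ⊆ (Om \ ⋃ j, Na j) ∪ ⋃ j, Ly j := by
    rintro x ⟨hx, hxN⟩
    by_cases h : x ∈ ⋃ j, Na j
    · right
      obtain ⟨j, hj⟩ := mem_iUnion.1 h
      exact mem_iUnion.2 ⟨j, hLy j ⟨hj, fun h' => hxN (mem_iUnion.2 ⟨j, h'⟩)⟩⟩
    · exact Or.inl ⟨hx, h⟩
  have e2 : Om \ ⋃ j, Ka j ⊆ (Om \ ⋃ j, K j) ∪ ⋃ j, Om ∩ (K j \ Ka j) := by
    rintro x ⟨hx, hxN⟩
    by_cases h : x ∈ ⋃ j, K j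
    · right
      obtain ⟨j, hj⟩ := mem_iUnion.1 h
      exact mem_iUnion.2 ⟨j, hx, hj, fun h' => hxN (mem_iUnion.2 ⟨j, h'⟩)⟩
    · exact Or.inl ⟨hx, h⟩
  calc ∫⁻ x in Om \ ⋃ j, N j, (1 + En p G₂ x)
      ≤ ∫⁻ x in (Om \ ⋃ j, Na j) ∪ ⋃ j, Ly j, (1 + En p G₂ x) := lintegral_mono_set e1
    _ ≤ (∫⁻ x in Om \ ⋃ j, Na j, (1 + En p G₂ x)) + ∫⁻ x in ⋃ j, Ly j, (1 + En p G₂ x) :=
        lintegral_union_le _ _ _
    _ ≤ (Cp * (∫⁻ x in Om \ ⋃ j, Ka j, (1 + En p G x)) + ENNReal.ofReal eP) +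
          ENNReal.ofReal eP := by
        gcongr
        exact (lintegral_iUnion_le _ _).trans h2
    _ ≤ (Cp * ((∫⁻ x in Om \ ⋃ j, K j, (1 + En p G x)) + ENNReal.ofReal eac) +
          ENNReal.ofReal eP) + ENNReal.ofReal eP := by
        gcongr
        refine (lintegral_mono_set e2).trans ((lintegral_union_le _ _ _).trans ?_)
        gcongr

end

end Crest.Agent.R096.Br_695
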