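import Crest.Agent.R096.Br7_695

/-!
Row 96 (S0127), helper695.  **`BFk p` for `p ≤ 2`**: the final energies.
-/

set_option autoImplicit false
set_option linter.unusedSectionVars false
set_option linter.style.longLine false

open MeasureTheory Set Filter Metric Module
open scoped ENNReal NNReal Topology

namespace Crest.Agent.R096.Br_695

open Crest.AnalysisR.VecCalc3 Crest.AnalysisR.Sobolev
open Crest.Agent.R96.Lu_538 Crest.Agent.R96.Intr_538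
open Crest.Agent.R096.Sk_962 (SH Gr)
open Crest.Agent.R096.Sk4_663 (Zd BFs lintegral_of_memLp)
open Crest.Agent.R096.Bsp_628
open Crest.Agent.R096.Bxs_627 hiding E3
open Crest.Agent.R96.En10_199
open Crest.Agent.R096.SkC1_961 (E3 Hom3)
open Crest.Agent.R096.Er_594
open Crest.Agent.R096.EaX_766 (cbx lin Kor)
open Crest.Agent.R096.ThC6_766 (Scale exists_scale)
open Crest.Agent.R096.Brk5_582 (Cmp)
open Crest.Agent.R096.Str_696 (LocPL)

noncomputable section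

/-- **the final energies** of the range `p ≤ 2` -/
theorem fin_bfk {p : ℝ} (hp : 1 ≤ p) {Om La : Set R3} (hO : IsOpen Om)
    {f : R3 → R3} {G G₂ : Fin 3 → R3 → R3} (hS : SH p Om La f G)
    {F : Set (Bx (Fin 3))} (hFc : Countable F) {X : Set F} {A : F → E3 ≃ᵃ[ℝ] E3} {lam : ℝ}
    (hl0 : 0 < lam) (hl1 : lam ≤ 1) {N : ℝ} (hN0 : 0 ≤ N) (hN : ∀ c ∈ X, ‖lin (A c)‖ ≤ N)
    (hKO : ∀ c ∈ X, Kor F A (fun _ => lam) c ⊆ P3 ⁻¹' Om)
    (hdisj : ∀ c ∈ X, ∀ c' ∈ X, c ≠ c' →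
      Disjoint (Kor F A (fun _ => lam) c) (Kor F A (fun _ => lam) c'))
    {NQ Ly : F → Set E3} {er : F → ℝ≥0∞} {C Cp CA : ℝ≥0} {e1 e m V s2 s3 h e2 e3 : ℝ}
    {g : E3 → E3} (hV0 : 0 ≤ V) (hV : volume Om ≤ ENNReal.ofReal V) (he1 : 0 ≤ e1) (hm : 0 ≤ m)
    (hh : 0 ≤ h) (hs2 : 0 ≤ s2) (hs3 : 0 ≤ s3) (he2 : 0 ≤ e2) (he3 : 0 ≤ e3)
    (g2 : LocPL g (P3 ⁻¹' Om))
    (g4 : (∫⁻ x in P3 ⁻¹' Om \ ⋃ c ∈ X, Kor F A (fun _ => lam) c, ‖fderiv ℝ g x‖ₑ ^ p) ≤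
      C * (∫⁻ x in P3 ⁻¹' Om \ ⋃ c ∈ X, NQ c, (1 + ‖D3 G₂ x‖ₑ ^ p)) +
      C * (∑' c : X, (1 + ‖lin (A c)‖ₑ ^ p) * volume (NQ c \ Kor F A (fun _ => lam) c)) +
      CA * (∑' c : X, ∫⁻ x in Ly c, (1 + ‖D3 G₂ x‖ₑ ^ p)) +
      C * (∑' c : X, er c) +
      ENNReal.ofReal e1 *
        (∑' c : X, (1 + ‖lin (A c)‖ₑ ^ p) * volume (Kor F A (fun _ => lam) c)) +
      ENNReal.ofReal e3)
    (g5 : ∀ c ∈ X, (∫⁻ x in Kor F A (fun _ => lam) c, ‖fderiv ℝ g x - lam⁻¹ • lin (A c)‖ₑ ^ p) ≤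
      ENNReal.ofReal e1 * (‖lin (A c)‖ₑ ^ p * volume (Kor F A (fun _ => lam) c)) +
      C * ((1 + ‖lin (A c)‖ₑ ^ p) * volume (NQ c \ Kor F A (fun _ => lam) c)) + C * er c +
      CA * (∫⁻ x in Ly c, (1 + ‖D3 G₂ x‖ₑ ^ p)))
    (hvolN : ∀ c ∈ X, volume (NQ c \ Kor F A (fun _ => lam) c) ≤
      ENNReal.ofReal m * volume (Kor F A (fun _ => lam) c))
    (hLy : CA * (∑' c : X, ∫⁻ x in Ly c, (1 + ‖D3 G₂ x‖ₑ ^ p)) ≤ ENNReal.ofReal s2)
    (her : ∑' c : X, er c ≤ ENNReal.ofReal s3)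
    (hout : (∫⁻ x in P3 ⁻¹' Om \ ⋃ c ∈ X, NQ c, (1 + ‖D3 G₂ x‖ₑ ^ p)) ≤
      2 ^ p * (Cp * ∫⁻ x in Om \ P3.symm ⁻¹' ⋃ c ∈ X, Kor F A (fun _ => lam) c,
        (1 + En p G x)) + ENNReal.ofReal e2)
    (hen : ∑' c : X, ∫⁻ x in Kor F A (fun _ => lam) c, ‖D3 G x - lin (A c)‖ₑ ^ p ≤
      ENNReal.ofReal h)
    (hn1 : 3 * (2 ^ (p - 1) * (2 ^ (p - 1) * ((e1 * (N ^ p * V) + C * ((1 + N ^ p) * (m * V)) +
      C * s3 + s2) + (lam⁻¹ - 1) ^ p * N ^ p * V) + h)) ≤ e)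
    (hn2 : 3 * (C * e2 + C * ((1 + N ^ p) * (m * V)) + s2 + C * s3 + e1 * ((1 + N ^ p) * V) +
      e3) ≤ e) :
    (∫⁻ x in P3.symm ⁻¹' ⋃ c ∈ X, Kor F A (fun _ => lam) c,
      ∑ j : Fin 3, ‖Gr (r3 g) j x - G j x‖ₑ ^ p) ≤ ENNReal.ofReal e ∧
    (∫⁻ x in Om \ P3.symm ⁻¹' ⋃ c ∈ X, Kor F A (fun _ => lam) c, En p (Gr (r3 g)) x) ≤
      ((3 * C * 2 ^ p * Cp : ℝ≥0) : ℝ≥0∞) *
        (∫⁻ x in Om \ P3.symm ⁻¹' ⋃ c ∈ X, Kor F A (fun _ => lam) c, (1 + En p G x)) +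
      ENNReal.ofReal e := by
  classical
  have hp0 : 0 ≤ p := by linarith
  have hNp : 0 ≤ N ^ p := by positivity
  have hC0 : 0 ≤ (C : ℝ) := C.2
  set K3 : F → Set E3 := Kor F A (fun _ => lam) with hK3
  set U : Set E3 := ⋃ c ∈ X, K3 c with hU
  have hUi : U = ⋃ c : X, K3 c := by rw [hU, biUnion_eq_iUnion]
  set K : Set R3 := P3.symm ⁻¹' U with hK
  have hKp : P3 ⁻¹' K = U := symm_pre U
  have hKOm : K ⊆ Om := by
    intro y hy
    have h1 : P3.symm y ∈ P3 ⁻¹' Om := by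
      obtain ⟨c, hc, hyc⟩ := mem_iUnion₂.1 hy
      exact hKO c hc hyc
    have h2 : P3 (P3.symm y) ∈ Om := h1
    rwa [P3.apply_symm_apply] at h2
  have hd' : Pairwise (Function.onFun Disjoint fun c : X => K3 c) := fun c c' hne =>
    hdisj _ c.2 _ c'.2 (fun h => hne (Subtype.ext h))
  have hKm : ∀ c : X, MeasurableSet (K3 c) := fun c => (isClosed_Kor _).measurableSet
  have hV3 : volume (P3 ⁻¹' Om) ≤ ENNReal.ofReal V := by rw [vol_P3]; exact hV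
  have hvolK : ∑' c : X, volume (K3 c) ≤ ENNReal.ofReal V := by
    rw [← measure_iUnion hd' hKm]
    exact (measure_mono (iUnion_subset fun c => hKO _ c.2)).trans hV3
  have hS3 := sh3_of hp hO hS
  have hlp : ∀ c : X, ‖lin (A c)‖ₑ ^ p ≤ ENNReal.ofReal (N ^ p) := by
    intro c
    rw [← ofReal_norm, ENNReal.ofReal_rpow_of_nonneg (norm_nonneg _) hp0]
    exact ENNReal.ofReal_le_ofReal (Real.rpow_le_rpow (norm_nonneg _) (hN _ c.2) hp0)
  have hlp1 : ∀ c : X, 1 + ‖lin (A c)‖ₑ ^ p ≤ ENNReal.ofReal (1 + N ^ p) := by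
    intro c
    rw [ENNReal.ofReal_add (by norm_num) hNp, ENNReal.ofReal_one]
    gcongr
    exact hlp c
  have hS1 : ∑' c : X, (1 + ‖lin (A c)‖ₑ ^ p) * volume (NQ c \ K3 c) ≤
      ENNReal.ofReal ((1 + N ^ p) * (m * V)) := by
    calc ∑' c : X, (1 + ‖lin (A c)‖ₑ ^ p) * volume (NQ c \ K3 c)
        ≤ ∑' c : X, ENNReal.ofReal (1 + N ^ p) * (ENNReal.ofReal m * volume (K3 c)) :=
          ENNReal.tsum_le_tsum fun c => mul_le_mul' (hlp1 c) (hvolN _ c.2)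
      _ = ENNReal.ofReal (1 + N ^ p) * (ENNReal.ofReal m * ∑' c : X, volume (K3 c)) := by
          rw [ENNReal.tsum_mul_left, ENNReal.tsum_mul_left]
      _ ≤ ENNReal.ofReal (1 + N ^ p) * (ENNReal.ofReal m * ENNReal.ofReal V) := by gcongr
      _ = _ := by rw [← ENNReal.ofReal_mul hm, ← ENNReal.ofReal_mul (by positivity)]
  have hS3' : ∑' c : X, (1 + ‖lin (A c)‖ₑ ^ p) * volume (K3 c) ≤
      ENNReal.ofReal ((1 + N ^ p) * V) := by
    calc ∑' c : X, (1 + ‖lin (A c)‖ₑ ^ p) * volume (K3 c)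
        ≤ ∑' c : X, ENNReal.ofReal (1 + N ^ p) * volume (K3 c) :=
          ENNReal.tsum_le_tsum fun c => mul_le_mul' (hlp1 c) le_rfl
      _ = ENNReal.ofReal (1 + N ^ p) * ∑' c : X, volume (K3 c) := ENNReal.tsum_mul_left
      _ ≤ ENNReal.ofReal (1 + N ^ p) * ENNReal.ofReal V := by gcongr
      _ = _ := (ENNReal.ofReal_mul (by positivity)).symm
  have hS4 : ∑' c : X, ‖lin (A c)‖ₑ ^ p * volume (K3 c) ≤ ENNReal.ofReal (N ^ p * V) := by
    calc ∑' c : X, ‖lin (A c)‖ₑ ^ p * volume (K3 c)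
        ≤ ∑' c : X, ENNReal.ofReal (N ^ p) * volume (K3 c) :=
          ENNReal.tsum_le_tsum fun c => mul_le_mul' (hlp c) le_rfl
      _ = ENNReal.ofReal (N ^ p) * ∑' c : X, volume (K3 c) := ENNReal.tsum_mul_left
      _ ≤ ENNReal.ofReal (N ^ p) * ENNReal.ofReal V := by gcongr
      _ = _ := (ENNReal.ofReal_mul (by positivity)).symm
  have hCr : (C : ℝ≥0∞) = ENNReal.ofReal (C : ℝ) := by rw [ENNReal.ofReal_coe_nnreal]
  constructor
  · refine (energy_sub_le hO g2 hKOm hp0 G).trans ?_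
    rw [hKp, hUi]
    have hq : ∑' c : X, ∫⁻ x in K3 c, ‖fderiv ℝ g x - lam⁻¹ • lin (A c)‖ₑ ^ p ≤
        ENNReal.ofReal (e1 * (N ^ p * V) + C * ((1 + N ^ p) * (m * V)) + C * s3 + s2) := by
      calc ∑' c : X, ∫⁻ x in K3 c, ‖fderiv ℝ g x - lam⁻¹ • lin (A c)‖ₑ ^ p
          ≤ ∑' c : X, (ENNReal.ofReal e1 * (‖lin (A c)‖ₑ ^ p * volume (K3 c)) +
              C * ((1 + ‖lin (A c)‖ₑ ^ p) * volume (NQ c \ K3 c)) + C * er c +
              CA * (∫⁻ x in Ly c, (1 + ‖D3 G₂ x‖ₑ ^ p))) :=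
            ENNReal.tsum_le_tsum fun c => g5 _ c.2
        _ = ENNReal.ofReal e1 * (∑' c : X, ‖lin (A c)‖ₑ ^ p * volume (K3 c)) +
              C * (∑' c : X, (1 + ‖lin (A c)‖ₑ ^ p) * volume (NQ c \ K3 c)) +
              C * (∑' c : X, er c) +
              CA * (∑' c : X, ∫⁻ x in Ly c, (1 + ‖D3 G₂ x‖ₑ ^ p)) := by
            rw [ENNReal.tsum_add, ENNReal.tsum_add, ENNReal.tsum_add, ENNReal.tsum_mul_left,
              ENNReal.tsum_mul_left, ENNReal.tsum_mul_left, ENNReal.tsum_mul_left]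
        _ ≤ ENNReal.ofReal e1 * ENNReal.ofReal (N ^ p * V) +
              C * ENNReal.ofReal ((1 + N ^ p) * (m * V)) +
              C * ENNReal.ofReal s3 + ENNReal.ofReal s2 := by gcongr
        _ = _ := by
            rw [hCr, ← ENNReal.ofReal_mul he1, ← ENNReal.ofReal_mul hC0,
              ← ENNReal.ofReal_mul hC0, ← ENNReal.ofReal_add (by positivity) (by positivity),
              ← ENNReal.ofReal_add (by positivity) (by positivity),
              ← ENNReal.ofReal_add (by positivity) hs2]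
    have h1 := core_energy2 hp hS3.aesm (K := fun c : X => K3 c) (fun c => hKO _ c.2) hKm hd'
      (l := fun c : X => lin (A c)) hN0 (fun c => hN _ c.2) hl0 hl1 (g := g) (by positivity) hh hV0
      hq hen hV3
    have h3 : (3:ℝ≥0∞) = ENNReal.ofReal 3 := by norm_num
    refine (mul_le_mul' le_rfl h1).trans ?_
    rw [h3, ← ENNReal.ofReal_mul (by norm_num)]
    exact ENNReal.ofReal_le_ofReal hn1
  · have hpre : P3 ⁻¹' (Om \ K) = P3 ⁻¹' Om \ U := by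
      rw [preimage_sdiff, hKp]
    have h0 := energy_g_le hO g2 (R := Om \ K) sdiff_subset hp0
    rw [hpre] at h0
    calc ∫⁻ x in Om \ K, En p (Gr (r3 g)) x ≤ 3 * ∫⁻ x in P3 ⁻¹' Om \ U, ‖fderiv ℝ g x‖ₑ ^ p := h0
      _ ≤ 3 * (C * (2 ^ p * (Cp * ∫⁻ x in Om \ K, (1 + En p G x)) + ENNReal.ofReal e2) +
            C * ENNReal.ofReal ((1 + N ^ p) * (m * V)) + ENNReal.ofReal s2 +
            C * ENNReal.ofReal s3 + ENNReal.ofReal e1 * ENNReal.ofReal ((1 + N ^ p) * V) +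
            ENNReal.ofReal e3) := by
          refine mul_le_mul' le_rfl (g4.trans ?_)
          gcongr
      _ = ((3 * C * 2 ^ p * Cp : ℝ≥0) : ℝ≥0∞) * (∫⁻ x in Om \ K, (1 + En p G x)) +
            3 * (C * ENNReal.ofReal e2 + C * ENNReal.ofReal ((1 + N ^ p) * (m * V)) +
              ENNReal.ofReal s2 + C * ENNReal.ofReal s3 +
              ENNReal.ofReal e1 * ENNReal.ofReal ((1 + N ^ p) * V) + ENNReal.ofReal e3) := by
          push_cast
          rw [ENNReal.coe_rpow_of_nonneg _ hp0]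
          push_cast
          ring
      _ ≤ _ := by
          gcongr
          rw [hCr, ← ENNReal.ofReal_mul he1, ← ENNReal.ofReal_mul hC0, ← ENNReal.ofReal_mul hC0,
            ← ENNReal.ofReal_mul hC0, ← ENNReal.ofReal_add (by positivity) (by positivity),
            ← ENNReal.ofReal_add (by positivity) (by positivity),
            ← ENNReal.ofReal_add (by positivity) (by positivity),
            ← ENNReal.ofReal_add (by positivity) (by positivity),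
            ← ENNReal.ofReal_add (by positivity) he3,
            show (3:ℝ≥0∞) = ENNReal.ofReal 3 by norm_num, ← ENNReal.ofReal_mul (by norm_num)]
          exact ENNReal.ofReal_le_ofReal hn2

end

end Crest.Agent.R096.Br_695
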