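import Crest.Agent.R096.Br8_695

/-!
Row 96 (S0127), helper695.  **`BFk p` for `p ≤ 2`**: numbers.
-/

set_option autoImplicit false
set_option linter.unusedSectionVars false
set_option linter.style.longLine false

open MeasureTheory Set Filter Metric Module
open scoped ENNReal NNReal Topology

namespace Crest.Agent.R096.Br_695

noncomputable section

/-- the small number `q` of the energies -/
theorem numA {p e V N C C2 : ℝ} (he : 0 < e) (hV : 0 ≤ V) (hN : 0 ≤ N) (hC : 0 ≤ C)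
    (hC2 : 0 ≤ C2) :
    ∃ q : ℝ, 0 < q ∧ q ≤ 1 ∧
      3 * (2 ^ (p - 1) * (2 ^ (p - 1) * ((q * (N ^ p * V) + C * ((1 + N ^ p) * (q * V)) +
        C * q + q) + q * N ^ p * V) + q)) ≤ e ∧
      3 * (C * (C2 * q) + C * ((1 + N ^ p) * (q * V)) + q + C * q + q * ((1 + N ^ p) * V) + q) ≤
        e / 2 := by
  have hNp : 0 ≤ N ^ p := by positivity
  set a : ℝ := 2 ^ (p - 1) with ha
  have ha0 : 0 < a := by positivity
  set B1 : ℝ := 3 * (a * (a * ((N ^ p * V + C * ((1 + N ^ p) * V) + C + 1) + N ^ p * V) + 1))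
    with hB1
  set B2 : ℝ := 3 * (C * C2 + C * ((1 + N ^ p) * V) + 1 + C + (1 + N ^ p) * V + 1) with hB2
  have h1 : 0 ≤ B1 := by positivity
  have h2 : 0 ≤ B2 := by positivity
  set q : ℝ := min 1 (e / (2 * (B1 + B2 + 1))) with hq
  have hq0 : 0 < q := by positivity
  have hq1 : q ≤ e / (2 * (B1 + B2 + 1)) := min_le_right _ _
  rw [le_div_iff₀ (by positivity)] at hq1
  refine ⟨q, hq0, min_le_left _ _, ?_, ?_⟩
  · have e1 : 3 * (a * (a * ((q * (N ^ p * V) + C * ((1 + N ^ p) * (q * V)) +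
        C * q + q) + q * N ^ p * V) + q)) = B1 * q := by rw [hB1]; ring
    rw [e1]
    nlinarith [mul_nonneg hq0.le h1, mul_nonneg hq0.le h2]
  · have e1 : 3 * (C * (C2 * q) + C * ((1 + N ^ p) * (q * V)) + q + C * q +
        q * ((1 + N ^ p) * V) + q) = B2 * q := by rw [hB2]; ring
    rw [e1]
    nlinarith [mul_nonneg hq0.le h1, mul_nonneg hq0.le h2]

/-- the ratio `lam` -/
theorem numB {p q r T R : ℝ} (hp : 1 ≤ p) (hq : 0 < q) (hr : 0 < r) (hT : 0 ≤ T) (hR : 0 ≤ R) :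
    ∃ lam : ℝ, 1 / 2 ≤ lam ∧ lam < 1 ∧ 100 * (1 - lam) ≤ q ∧ T * (1 - lam) ≤ q / 2 ∧
      R * (1 - lam) ≤ r ∧ (lam⁻¹ - 1) ^ p ≤ q := by
  set x : ℝ := min (1 / 2) (min (q / 100) (min (q / (2 * (T + 1))) (r / (R + 1)))) with hx
  have hx0 : 0 < x := by positivity
  have x1 : x ≤ 1 / 2 := min_le_left _ _
  have x2 : x ≤ q / 100 := (min_le_right _ _).trans (min_le_left _ _)
  have x3 : x ≤ q / (2 * (T + 1)) :=
    (min_le_right _ _).trans ((min_le_right _ _).trans (min_le_left _ _))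
  have x4 : x ≤ r / (R + 1) :=
    (min_le_right _ _).trans ((min_le_right _ _).trans (min_le_right _ _))
  refine ⟨1 - x, by linarith, by linarith, ?_, ?_, ?_, ?_⟩
  · linarith
  · rw [le_div_iff₀ (by positivity)] at x3
    nlinarith
  · rw [le_div_iff₀ (by positivity)] at x4
    nlinarith
  · have h1 : (1 - x)⁻¹ ≤ 1 + 2 * x := by
      rw [inv_le_comm₀ (by linarith) (by positivity), inv_le_iff_one_le_mul₀ (by positivity)]
      nlinarith
    have h0 : 0 ≤ (1 - x)⁻¹ - 1 := by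
      have := (one_le_inv₀ (by linarith : 0 < 1 - x)).2 (by linarith)
      linarith
    have h2 : (1 - x)⁻¹ - 1 ≤ 2 * x := by linarith
    calc ((1 - x)⁻¹ - 1) ^ p ≤ (2 * x) ^ p := Real.rpow_le_rpow h0 h2 (by linarith)
      _ ≤ (2 * x) ^ (1 : ℝ) :=
          Real.rpow_le_rpow_of_exponent_ge (by positivity) (by linarith) hp
      _ = 2 * x := Real.rpow_one _
      _ ≤ q := by linarith

/-- a large power of `2` -/
theorem numM (M0 : ℕ) (T : ℝ) : ∃ μ : ℕ, M0 ≤ 2 ^ μ ∧ T ≤ (2 ^ μ : ℕ) := by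
  obtain ⟨n, hn⟩ := exists_nat_ge T
  refine ⟨M0 + n, ?_, ?_⟩
  · exact (Nat.le_add_right _ _).trans (Nat.lt_two_pow_self).le
  · refine hn.trans ?_
    exact_mod_cast (Nat.le_add_left _ _).trans (Nat.lt_two_pow_self (n := M0 + n)).le

/-- the wall scale -/
theorem numk {x : ℝ} (hx : 0 < x) (hx1 : x ≤ 1 / 8) :
    ∃ k : ℕ, 3 ≤ k ∧ x / 2 ≤ 1 / 2 ^ k ∧ 1 / 2 ^ k ≤ x := by
  have h1 : 1 ≤ x⁻¹ := (one_le_inv₀ hx).2 (by linarith)
  obtain ⟨n, hn1, hn2⟩ := exists_nat_pow_near h1 (by norm_num : (1:ℝ) < 2)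
  have hp : (0:ℝ) < 2 ^ (n + 1) := by positivity
  have h2 : 1 / 2 ^ (n + 1) ≤ x := by
    rw [div_le_iff₀ hp]
    have := mul_lt_mul_of_pos_left hn2 hx
    rw [mul_inv_cancel₀ hx.ne'] at this
    exact this.le
  refine ⟨n + 1, ?_, ?_, h2⟩
  · by_contra hc
    have h3 : (2:ℝ) ^ (n + 1) ≤ 2 ^ 2 := pow_le_pow_right₀ (by norm_num) (by omega)
    rw [div_le_iff₀ hp] at h2
    nlinarith
  · rw [le_div_iff₀ hp]
    have h3 : x * 2 ^ n ≤ 1 := by
      have := mul_le_mul_of_nonneg_left hn1 hx.le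
      rwa [mul_inv_cancel₀ hx.ne'] at this
    rw [pow_succ]
    linarith

end

end Crest.Agent.R096.Br_695
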