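import Mathlib

/-!
# Abstract simple foams: the cubical coordinates `s_c` (row 96, U1 of #7597)

`Foam La P b N` : a locally finite cover of the open set `La` by compact convex cells `P c`, with a
"barycentre" `b A` of every closed face `fc P A = ⋂ c ∈ A, P c`, such that the faces are conical with
respect to their barycentres (`rel`, `exit`).
`T b u = ∫ τ in 0..1, b {c | u c ≤ τ}` is a bijection of the cube complex
`K P = {u : I → ℝ | 0 ≤ u ≤ 1, {u = 0} ≠ ∅, the face of {u < 1} is nonempty}` onto `La`; its inverse is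
`y ↦ (s_c y)_c`.
-/

set_option autoImplicit false
set_option linter.unusedSectionVars false
set_option linter.style.haveILetI false
open Set Filter Topology MeasureTheory

namespace Crest.Agent.R096.Brk1_582

variable {E : Type*} [NormedAddCommGroup E] [NormedSpace ℝ E] {I : Type*}

/-- the cells through `y` -/
def act (P : I → Set E) (y : E) : Set I := {c | y ∈ P c}

/-- the closed face of a set of cells -/
def fc (P : I → Set E) (A : Set I) : Set E := ⋂ c ∈ A, P c

/-- a locally finite conical complex of compact convex cells -/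
structure Foam (La : Set E) (P : I → Set E) (b : Set I → E) (N : ℕ) : Prop where
  op : IsOpen La
  cpt : ∀ c, IsCompact (P c)
  cvx : ∀ c, Convex ℝ (P c)
  sub : ∀ c, P c ⊆ La
  cov : ∀ y ∈ La, ∃ c, y ∈ P c
  lf : ∀ y ∈ La, ∃ r > 0, {c | (P c ∩ Metric.ball y r).Nonempty}.Finite
  card : ∀ y ∈ La, (act P y).ncard ≤ N
  mem : ∀ A : Set I, A.Nonempty → (fc P A).Nonempty → b A ∈ fc P A
  rel : ∀ A : Set I, A.Nonempty → ∀ y ∈ fc P A, ∀ t ∈ Ico (0 : ℝ) 1,
    act P (b A + t • (y - b A)) = A
  exit : ∀ y ∈ La, y ≠ b (act P y) →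
    ∃ t > (1 : ℝ), b (act P y) + t • (y - b (act P y)) ∈ fc P (act P y)

section basics

variable {P : I → Set E} {A A' : Set I} {y : E} {c : I}

theorem mem_act : c ∈ act P y ↔ y ∈ P c := Iff.rfl

theorem mem_fc : y ∈ fc P A ↔ ∀ c ∈ A, y ∈ P c := by simp [fc]

theorem mem_fc' : y ∈ fc P A ↔ A ⊆ act P y := by
  rw [mem_fc]; rfl

theorem fc_anti (h : A ⊆ A') : fc P A' ⊆ fc P A := fun y hy => by
  rw [mem_fc] at hy ⊢
  exact fun c hc => hy c (h hc)

theorem self_mem_fc_act : y ∈ fc P (act P y) := by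
  rw [mem_fc']

end basics

/-- the cube complex -/
def K (P : I → Set E) : Set (I → ℝ) :=
  {u | (∀ c, 0 ≤ u c ∧ u c ≤ 1) ∧ (∃ c, u c = 0) ∧ (fc P {c | u c < 1}).Nonempty}

/-- the map of the cube complex to the foam -/
noncomputable def T (b : Set I → E) (u : I → ℝ) : E := ∫ τ in (0 : ℝ)..1, b {c | u c ≤ τ}

/-- the active coordinates -/
def av (u : I → ℝ) : Set I := {c | 0 < u c ∧ u c < 1}

/-- rescaling above the level `m` -/
noncomputable def up (m : ℝ) (u : I → ℝ) : I → ℝ := fun c => max 0 ((u c - m) / (1 - m))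

open Classical in
/-- the cone over `u` with tip the barycentre of `A` -/
noncomputable def cone (A : Set I) (μ : ℝ) (u : I → ℝ) : I → ℝ :=
  fun c => if c ∈ A then 0 else (1 - μ) + μ * u c

open Classical in
/-- **the coordinates of the foam** `sc P b y c = s_c y` -/
noncomputable def sc (P : I → Set E) (b : Set I → E) (y : E) : I → ℝ :=
  if h : ∃ u ∈ K P, T b u = y then h.choose else fun _ => 1

section integr

theorem stepfun_sm {b : Set I → E} {u : I → ℝ} {S : Set I} (hS : S.Finite) :
    StronglyMeasurable (fun τ : ℝ => b {c | c ∈ S ∧ u c ≤ τ}) := by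
  classical
  have : Finite S := hS
  let g : ℝ → (S → Bool) := fun τ c => decide (u c ≤ τ)
  have hg : Measurable g := by
    refine measurable_pi_lambda _ fun c => measurable_to_bool ?_
    have : (fun τ : ℝ => g τ c) ⁻¹' {true} = Ici (u c) := by
      ext τ; simp [g]
    rw [this]
    exact measurableSet_Ici
  let φ : (S → Bool) → E := fun w => b {c | ∃ h : c ∈ S, w ⟨c, h⟩ = true}
  have : (fun τ : ℝ => b {c | c ∈ S ∧ u c ≤ τ}) = φ ∘ g := by
    funext τ
    simp only [φ, g, Function.comp]
    congr 1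
    ext c
    simp
  rw [this]
  exact (StronglyMeasurable.of_discrete (f := φ)).comp_measurable hg

theorem stepfun_bdd {b : Set I → E} {u : I → ℝ} {S : Set I} (hS : S.Finite) :
    ∃ C, ∀ τ : ℝ, ‖b {c | c ∈ S ∧ u c ≤ τ}‖ ≤ C := by
  have : {A : Set I | A ⊆ S}.Finite := hS.finite_subsets
  obtain ⟨C, hC⟩ := (this.image fun A => ‖b A‖).bddAbove
  exact ⟨C, fun τ => hC ⟨_, fun c hc => hc.1, rfl⟩⟩

theorem integr {b : Set I → E} {u : I → ℝ} (hS : {c | u c < 1}.Finite) {p q : ℝ}
    (hpq : p ≤ q) (hq : q ≤ 1) :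
    IntervalIntegrable (fun τ : ℝ => b {c | u c ≤ τ}) volume p q := by
  obtain ⟨C, hC⟩ := stepfun_bdd (b := b) (u := u) hS
  have h1 : IntervalIntegrable (fun τ : ℝ => b {c | c ∈ {c | u c < 1} ∧ u c ≤ τ}) volume p q := by
    rw [intervalIntegrable_iff]
    exact IntegrableOn.of_bound (by simp [uIoc]) (stepfun_sm hS).aestronglyMeasurable C
      (Eventually.of_forall fun τ => hC τ)
  refine h1.congr_uIoo fun τ hτ => ?_
  rw [uIoo_of_le hpq] at hτ
  have : {c | c ∈ {c | u c < 1} ∧ u c ≤ τ} = {c | u c ≤ τ} := by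
    ext c
    simp only [mem_ofPred_eq]
    exact ⟨fun h => h.2, fun h => ⟨lt_of_le_of_lt h (hτ.2.trans_le hq), h⟩⟩
  simp only [this]

variable [CompleteSpace E]

/-- the one step formula -/
theorem T_step {b : Set I → E} {u : I → ℝ} (hS : {c | u c < 1}.Finite)
    {m : ℝ} (hm0 : 0 ≤ m) (hm1 : m < 1) (hm : ∀ c, u c = 0 ∨ m ≤ u c) :
    T b u = m • b {c | u c = 0} + (1 - m) • T b (up m u) := by
  have h1m : 0 < 1 - m := by linarith
  have e1 : T b u = (∫ τ in (0 : ℝ)..m, b {c | u c ≤ τ}) + ∫ τ in m..1, b {c | u c ≤ τ} := by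
    rw [T, intervalIntegral.integral_add_adjacent_intervals (integr hS hm0 hm1.le)
      (integr hS hm1.le le_rfl)]
  have e2 : (∫ τ in (0 : ℝ)..m, b {c | u c ≤ τ}) = m • b {c | u c = 0} := by
    rw [intervalIntegral.integral_congr_Ioo_of_le (g := fun _ => b {c | u c = 0}) hm0 ?_]
    · simp
    · intro τ hτ
      have : {c | u c ≤ τ} = {c | u c = 0} := by
        ext c
        simp only [mem_ofPred_eq]
        refine ⟨fun h => ?_, fun h => by rw [h]; exact hτ.1.le⟩
        rcases hm c with h' | h'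
        · exact h'
        · exact absurd (h'.trans h) (not_le.2 hτ.2)
      simp only [this]
  have e3 : (∫ τ in m..1, b {c | u c ≤ τ}) = (1 - m) • T b (up m u) := by
    have := intervalIntegral.smul_integral_comp_add_mul (a := 0) (b := 1)
      (fun τ => b {c | u c ≤ τ}) (1 - m) m
    simp only [mul_zero, add_zero, mul_one, add_sub_cancel] at this
    rw [← this, T]
    congr 1
    refine intervalIntegral.integral_congr_Ioo_of_le zero_le_one fun τ hτ => ?_
    have : {c | u c ≤ m + (1 - m) * τ} = {c | up m u c ≤ τ} := by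
      ext c
      simp only [mem_ofPred_eq, up, max_le_iff, div_le_iff₀ h1m]
      constructor
      · intro h; exact ⟨hτ.1.le, by linarith⟩
      · rintro ⟨-, h⟩; linarith
    simp only [this]
  rw [e1, e2, e3]

/-- no active coordinate -/
theorem T_const {b : Set I → E} {u : I → ℝ} (hu : ∀ c, u c = 0 ∨ 1 ≤ u c) :
    T b u = b {c | u c = 0} := by
  rw [T, intervalIntegral.integral_congr_Ioo_of_le (g := fun _ => b {c | u c = 0}) zero_le_one ?_]
  · simp
  · intro τ hτ
    have : {c | u c ≤ τ} = {c | u c = 0} := by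
      ext c
      simp only [mem_ofPred_eq]
      refine ⟨fun h => ?_, fun h => by rw [h]; exact hτ.1.le⟩
      rcases hu c with h' | h'
      · exact h'
      · exact absurd (h'.trans h) (not_le.2 hτ.2)
    simp only [this]

end integr

namespace Foam

variable {La : Set E} {P : I → Set E} {b : Set I → E} {N : ℕ} (F : Foam La P b N)

include F

theorem fc_sub_La {A : Set I} (hA : A.Nonempty) : fc P A ⊆ La := by
  obtain ⟨c, hc⟩ := hA
  exact fun y hy => F.sub c (mem_fc.1 hy c hc)

theorem isCompact_fc {A : Set I} (hA : A.Nonempty) : IsCompact (fc P A) := by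
  obtain ⟨c, hc⟩ := hA
  refine (F.cpt c).of_isClosed_subset ?_ fun y hy => mem_fc.1 hy c hc
  exact isClosed_biInter fun c _ => (F.cpt c).isClosed

theorem convex_fc {A : Set I} : Convex ℝ (fc P A) := convex_iInter₂ fun c _ => F.cvx c

theorem finite_act {y : E} (hy : y ∈ La) : (act P y).Finite := by
  obtain ⟨r, hr, hf⟩ := F.lf y hy
  exact hf.subset fun c hc => ⟨y, hc, Metric.mem_ball_self hr⟩

theorem act_nonempty {y : E} (hy : y ∈ La) : (act P y).Nonempty := F.cov y hy

theorem finite_of_fc {A : Set I} (hA : A.Nonempty) (h : (fc P A).Nonempty) : A.Finite := by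
  obtain ⟨y, hy⟩ := h
  exact (F.finite_act (F.fc_sub_La hA hy)).subset (mem_fc'.1 hy)

theorem act_b {A : Set I} (hA : A.Nonempty) (h : (fc P A).Nonempty) : act P (b A) = A := by
  have := F.rel A hA (b A) (F.mem A hA h) 0 ⟨le_rfl, one_pos⟩
  simpa using this

theorem K_zero_nonempty {u : I → ℝ} (hu : u ∈ K P) : {c | u c = 0}.Nonempty := hu.2.1

theorem K_lt_nonempty {u : I → ℝ} (hu : u ∈ K P) : {c | u c < 1}.Nonempty := by
  obtain ⟨c, hc⟩ := hu.2.1
  exact ⟨c, by simp [hc]⟩

theorem K_finite {u : I → ℝ} (hu : u ∈ K P) : {c | u c < 1}.Finite :=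
  F.finite_of_fc (F.K_lt_nonempty hu) hu.2.2

theorem K_fc_zero {u : I → ℝ} (hu : u ∈ K P) : (fc P {c | u c = 0}).Nonempty :=
  hu.2.2.mono (fc_anti fun c (hc : u c = 0) => by simp [hc])

theorem av_finite {u : I → ℝ} (hu : u ∈ K P) : (av u).Finite :=
  (F.K_finite hu).subset fun _ hc => hc.2

omit F in
theorem up_eq_zero {u : I → ℝ} {m : ℝ} (hm1 : m < 1) (c : I) : up m u c = 0 ↔ u c ≤ m := by
  have h1m : 0 < 1 - m := by linarith
  simp only [up, max_eq_left_iff, div_nonpos_iff]
  constructor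
  · rintro (⟨-, h⟩ | ⟨h, -⟩)
    · linarith
    · linarith
  · intro h; right; exact ⟨by linarith, h1m.le⟩

omit F in
theorem up_lt_one {u : I → ℝ} {m : ℝ} (hm1 : m < 1) (c : I) : up m u c < 1 ↔ u c < 1 := by
  have h1m : 0 < 1 - m := by linarith
  simp only [up, max_lt_iff, zero_lt_one, true_and, div_lt_one h1m]
  constructor <;> intro h <;> linarith

omit F in
theorem up_mem_K {u : I → ℝ} (hu : u ∈ K P) {m : ℝ} (hm0 : 0 ≤ m) (hm1 : m < 1) :
    up m u ∈ K P := by
  have h1m : 0 < 1 - m := by linarith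
  refine ⟨fun c => ⟨le_max_left _ _, ?_⟩, ?_, ?_⟩
  · have := (hu.1 c).2
    simp only [up, max_le_iff, zero_le_one, true_and, div_le_one h1m]
    linarith
  · obtain ⟨c, hc⟩ := hu.2.1
    exact ⟨c, (up_eq_zero hm1 c).2 (by rw [hc]; exact hm0)⟩
  · have : {c | up m u c < 1} = {c | u c < 1} := by
      ext c; exact up_lt_one hm1 c
    rw [this]; exact hu.2.2

/-- the least active level -/
theorem exists_level {u : I → ℝ} (hu : u ∈ K P) (hne : (av u).Nonempty) :
    ∃ m : ℝ, 0 < m ∧ m < 1 ∧ (∀ c, u c = 0 ∨ m ≤ u c) ∧ {c | u c = 0} ≠ {c | up m u c = 0} ∧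
      (av (up m u)).ncard < (av u).ncard := by
  obtain ⟨c0, hc0, hmin⟩ := (F.av_finite hu).exists_minimalFor u _ hne
  refine ⟨u c0, hc0.1, hc0.2, fun c => ?_, ?_, ?_⟩
  · by_cases h : u c = 0
    · exact Or.inl h
    right
    by_cases h1 : u c < 1
    · have hc : c ∈ av u := ⟨lt_of_le_of_ne (hu.1 c).1 (Ne.symm h), h1⟩
      by_contra h2
      exact h2 (hmin hc (not_le.1 h2).le)
    · linarith [hc0.2]
  · intro h
    have : c0 ∈ {c | up (u c0) u c = 0} := (up_eq_zero hc0.2 c0).2 le_rfl
    rw [← h] at this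
    exact absurd this hc0.1.ne'
  · refine ncard_lt_ncard ?_ (F.av_finite hu)
    refine ⟨fun c hc => ?_, fun hsub => ?_⟩
    · have h1 : u c < 1 := (up_lt_one hc0.2 c).1 hc.2
      have h2 : ¬ u c ≤ u c0 := fun h => absurd ((up_eq_zero hc0.2 c).2 h) hc.1.ne'
      exact ⟨hc0.1.trans (not_le.1 h2), h1⟩
    · exact absurd ((up_eq_zero hc0.2 c0).2 le_rfl) (hsub hc0).1.ne'

omit F in
theorem no_active {u : I → ℝ} (hu : u ∈ K P) (h : ¬ (av u).Nonempty) (c : I) :
    u c = 0 ∨ 1 ≤ u c := by
  by_contra h'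
  push Not at h'
  exact h ⟨c, lt_of_le_of_ne (hu.1 c).1 (Ne.symm h'.1), h'.2⟩

variable [CompleteSpace E]

/-- **the cells through `T u` are exactly the zeros of `u`** -/
theorem act_T {u : I → ℝ} (hu : u ∈ K P) : act P (T b u) = {c | u c = 0} := by
  induction' hn : (av u).ncard using Nat.strong_induction_on with n ih generalizing u
  by_cases hne : (av u).Nonempty
  · obtain ⟨m, hm0, hm1, hm, -, hlt⟩ := F.exists_level hu hne
    have hup := up_mem_K hu hm0.le hm1
    have h1 := ih _ (hn ▸ hlt) hup rfl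
    rw [T_step (F.K_finite hu) hm0.le hm1 hm]
    have hz : T b (up m u) ∈ fc P {c | u c = 0} := by
      rw [mem_fc', h1]
      intro c (hc : u c = 0)
      exact (up_eq_zero hm1 c).2 (by rw [hc]; exact hm0.le)
    have := F.rel _ (F.K_zero_nonempty hu) _ hz (1 - m) ⟨by linarith, by linarith⟩
    have e : m • b {c | u c = 0} + (1 - m) • T b (up m u) =
        b {c | u c = 0} + (1 - m) • (T b (up m u) - b {c | u c = 0}) := by module
    rw [e]
    exact this
  · rw [T_const (no_active hu hne)]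
    exact F.act_b (F.K_zero_nonempty hu) (F.K_fc_zero hu)

theorem T_mem_La {u : I → ℝ} (hu : u ∈ K P) : T b u ∈ La := by
  have h := F.act_T hu
  obtain ⟨c, hc⟩ := hu.2.1
  exact F.sub c (show c ∈ act P (T b u) by rw [h]; exact hc)

theorem T_mem_fc {u : I → ℝ} (hu : u ∈ K P) : T b u ∈ fc P {c | u c = 0} := by
  rw [mem_fc', F.act_T hu]

omit F [CompleteSpace E] in
theorem smul_unique {A : Set I} {z w : E} {s r : ℝ}
    (hrel : ∀ y ∈ fc P A, ∀ t ∈ Ico (0 : ℝ) 1, act P (b A + t • (y - b A)) = A)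
    (hz : z ∈ fc P A) (hw' : act P w ≠ A) (hs : 0 ≤ s) (hr : 0 < r)
    (h : b A + s • (z - b A) = b A + r • (w - b A)) : r ≤ s := by
  by_contra hsr
  push Not at hsr
  apply hw'
  have h2 : s • (z - b A) = r • (w - b A) := add_left_cancel h
  have hw : w = b A + (s / r) • (z - b A) := by
    rw [div_eq_inv_mul, mul_smul, h2, smul_smul, inv_mul_cancel₀ hr.ne', one_smul]
    abel
  rw [hw]
  exact hrel z hz _ ⟨by positivity, by rw [div_lt_one hr]; exact hsr⟩

theorem T_injOn : InjOn (T b) (K P) := by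
  intro u hu v hv huv
  induction' hn : (av u).ncard using Nat.strong_induction_on with n ih generalizing u v
  have hAA : {c | u c = 0} = {c | v c = 0} := by rw [← F.act_T hu, ← F.act_T hv, huv]
  have key : ∀ {u : I → ℝ}, u ∈ K P → (av u).Nonempty → T b u ≠ b {c | u c = 0} := by
    intro u hu hne h
    obtain ⟨m, hm0, hm1, hm, hne', -⟩ := F.exists_level hu hne
    have hup := up_mem_K hu hm0.le hm1
    rw [T_step (F.K_finite hu) hm0.le hm1 hm] at h
    have h3 : (1 - m) • (T b (up m u) - b {c | u c = 0}) = 0 := by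
      have e : (1 - m) • (T b (up m u) - b {c | u c = 0}) =
        (m • b {c | u c = 0} + (1 - m) • T b (up m u)) - b {c | u c = 0} := by module
      rw [e, h, sub_self]
    rcases smul_eq_zero.1 h3 with h4 | h4
    · linarith
    · have h5 := F.act_T hup
      rw [sub_eq_zero.1 h4, F.act_b (F.K_zero_nonempty hu) (F.K_fc_zero hu)] at h5
      exact hne' h5
  by_cases hne : (av u).Nonempty
  · by_cases hne' : (av v).Nonempty
    · obtain ⟨m, hm0, hm1, hm, hmne, hlt⟩ := F.exists_level hu hne
      obtain ⟨m', hm0', hm1', hm', hmne', -⟩ := F.exists_level hv hne'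
      have hup := up_mem_K hu hm0.le hm1
      have hup' := up_mem_K hv hm0'.le hm1'
      have e1 := T_step (b := b) (F.K_finite hu) hm0.le hm1 hm
      have e2 := T_step (b := b) (F.K_finite hv) hm0'.le hm1' hm'
      have hz : T b (up m u) ∈ fc P {c | u c = 0} := by
        rw [mem_fc', F.act_T hup]
        intro c (hc : u c = 0)
        exact (up_eq_zero hm1 c).2 (by rw [hc]; exact hm0.le)
      have hz' : T b (up m' v) ∈ fc P {c | u c = 0} := by
        rw [hAA, mem_fc', F.act_T hup']
        intro c (hc : v c = 0)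
        exact (up_eq_zero hm1' c).2 (by rw [hc]; exact hm0'.le)
      have hEq : b {c | u c = 0} + (1 - m) • (T b (up m u) - b {c | u c = 0}) =
          b {c | u c = 0} + (1 - m') • (T b (up m' v) - b {c | u c = 0}) := by
        have h1 : T b u = b {c | u c = 0} + (1 - m) • (T b (up m u) - b {c | u c = 0}) := by
          rw [e1]; module
        have h2 : T b v = b {c | u c = 0} + (1 - m') • (T b (up m' v) - b {c | u c = 0}) := by
          rw [e2, ← hAA]; module
        rw [← h1, ← h2, huv]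
      have a1 : act P (T b (up m u)) ≠ {c | u c = 0} := by
        rw [F.act_T hup]; exact fun h => hmne h.symm
      have a2 : act P (T b (up m' v)) ≠ {c | u c = 0} := by
        rw [F.act_T hup', hAA]; exact fun h => hmne' h.symm
      have hrel := F.rel _ (F.K_zero_nonempty hu)
      have i1 := smul_unique hrel hz a2 (by linarith) (by linarith) hEq
      have i2 := smul_unique hrel hz' a1 (by linarith) (by linarith) hEq.symm
      have hmm : m = m' := by linarith
      subst hmm
      have hTT : T b (up m u) = T b (up m v) := by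
        have := add_left_cancel hEq
        have := smul_right_injective E (show (1 - m) ≠ 0 by linarith) this
        exact sub_left_inj.1 this
      have := ih _ (hn ▸ hlt) hup hup' hTT rfl
      funext c
      have h1m : 0 < 1 - m := by linarith
      by_cases hc : u c = 0
      · have : c ∈ {c | v c = 0} := by rw [← hAA]; exact hc
        rw [hc]; exact this.symm
      · have hc' : ¬ v c = 0 := fun h => hc (by
          have : c ∈ {c | u c = 0} := by rw [hAA]; exact h
          exact this)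
        have g1 := (hm c).resolve_left hc
        have g2 := (hm' c).resolve_left hc'
        have g3 := congrFun this c
        simp only [up] at g3
        rw [max_eq_right (div_nonneg (by linarith) h1m.le),
          max_eq_right (div_nonneg (by linarith) h1m.le)] at g3
        have := (div_left_inj' h1m.ne').1 g3
        linarith
    · exfalso
      apply key hu hne
      rw [huv, T_const (no_active hv hne'), hAA]
  · by_cases hne' : (av v).Nonempty
    · exfalso
      apply key hv hne'
      rw [← huv, T_const (no_active hu hne), hAA]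
    · funext c
      rcases no_active hu hne c with h | h
      · have : c ∈ {c | v c = 0} := by rw [← hAA]; exact h
        rw [h]; exact this.symm
      · rcases no_active hv hne' c with h' | h'
        · have : c ∈ {c | u c = 0} := by rw [hAA]; exact h'
          rw [h']; exact this
        · linarith [(hu.1 c).2, (hv.1 c).2]

/-- the exit point of a ray -/
theorem exists_exit {y : E} (hy : y ∈ La) (hb : y ≠ b (act P y)) :
    ∃ z ∈ fc P (act P y), ∃ μ ∈ Ioo (0 : ℝ) 1, act P z ≠ act P y ∧
      y = b (act P y) + μ • (z - b (act P y)) := by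
  set A := act P y with hA
  have hne : A.Nonempty := F.act_nonempty hy
  let S : Set ℝ := {t | 1 ≤ t ∧ b A + t • (y - b A) ∈ fc P A}
  have hyb : y - b A ≠ 0 := sub_ne_zero.2 hb
  have hcl : IsClosed S := by
    refine isClosed_Ici.inter ?_
    exact (F.isCompact_fc hne).isClosed.preimage (by fun_prop)
  have hbd : Bornology.IsBounded S := by
    obtain ⟨R, hR⟩ := (F.isCompact_fc hne).isBounded.exists_norm_le
    refine (Metric.isBounded_Icc (1 : ℝ) ((R + ‖b A‖) / ‖y - b A‖)).subset fun t ht => ⟨ht.1, ?_⟩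
    rw [le_div_iff₀ (norm_pos_iff.2 hyb)]
    have h1 := hR _ ht.2
    have h2 : ‖t • (y - b A)‖ = t * ‖y - b A‖ := by
      rw [norm_smul, Real.norm_of_nonneg (by linarith [ht.1])]
    rw [← h2]
    calc ‖t • (y - b A)‖ = ‖(b A + t • (y - b A)) - b A‖ := by congr 1; abel
      _ ≤ _ := (norm_sub_le _ _).trans (by linarith)
  obtain ⟨t1, ht1, hex⟩ := F.exit y hy hb
  have hSne : S.Nonempty := ⟨t1, ht1.le, hex⟩
  obtain ⟨t, htS, htmax⟩ := (Metric.isCompact_of_isClosed_isBounded hcl hbd).exists_isGreatest hSne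
  have ht : 1 < t := lt_of_lt_of_le ht1 (htmax ⟨ht1.le, hex⟩)
  have ht0 : 0 < t := by linarith
  refine ⟨b A + t • (y - b A), htS.2, t⁻¹, ⟨by positivity, inv_lt_one_of_one_lt₀ ht⟩, ?_, ?_⟩
  · intro hact
    have hzLa := F.fc_sub_La hne htS.2
    have hzb : b A + t • (y - b A) ≠ b (act P (b A + t • (y - b A))) := by
      rw [hact]
      intro h
      have : t • (y - b A) = 0 := by simpa using h
      rcases smul_eq_zero.1 this with h | h
      · exact ht0.ne' h
      · exact hyb h
    obtain ⟨t2, ht2, hex2⟩ := F.exit _ hzLa hzb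
    rw [hact] at hex2
    have h3 : t2 * t ∈ S := by
      refine ⟨by nlinarith, ?_⟩
      convert hex2 using 1
      rw [add_sub_cancel_left, smul_smul]
    have := htmax h3
    nlinarith
  · rw [add_sub_cancel_left, smul_smul, inv_mul_cancel₀ ht0.ne', one_smul]
    abel

omit F [CompleteSpace E] in
theorem cone_zero {A : Set I} {μ : ℝ} {u : I → ℝ} (hu : ∀ c, 0 ≤ u c) (hμ0 : 0 ≤ μ) (hμ1 : μ < 1) :
    {c | cone A μ u c = 0} = A := by
  classical
  ext c
  by_cases h : c ∈ A
  · simp [cone, h]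
  · simp only [cone, h, if_false, mem_ofPred_eq, iff_false]
    nlinarith [hu c]

omit F [CompleteSpace E] in
theorem cone_mem_K {A : Set I} (hA : A.Nonempty) {μ : ℝ} {u : I → ℝ} (hu : u ∈ K P)
    (hAu : A ⊆ {c | u c = 0}) (hμ0 : 0 ≤ μ) (hμ1 : μ < 1) : cone A μ u ∈ K P := by
  classical
  refine ⟨fun c => ?_, ?_, ?_⟩
  · by_cases h : c ∈ A
    · simp [cone, h]
    · simp only [cone, h, if_false]
      constructor <;> nlinarith [(hu.1 c).1, (hu.1 c).2]
  · obtain ⟨c, hc⟩ := hA
    exact ⟨c, by simp [cone, hc]⟩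
  · refine hu.2.2.mono (fc_anti fun c hc => ?_)
    by_cases h : c ∈ A
    · have : u c = 0 := hAu h
      simp [this]
    · simp only [cone, h, if_false, mem_ofPred_eq] at hc ⊢
      by_contra h2
      push Not at h2
      nlinarith

theorem T_cone {A : Set I} (hA : A.Nonempty) {μ : ℝ} {u : I → ℝ} (hu : u ∈ K P)
    (hAu : A ⊆ {c | u c = 0}) (hμ0 : 0 ≤ μ) (hμ1 : μ < 1) :
    T b (cone A μ u) = b A + μ • (T b u - b A) := by
  classical
  rcases hμ0.eq_or_lt with rfl | hμ
  · rw [T_const, cone_zero (fun c => (hu.1 c).1) le_rfl hμ1, zero_smul, add_zero]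
    intro c
    by_cases h : c ∈ A <;> simp [cone, h]
  have hK := cone_mem_K hA hu hAu hμ0 hμ1
  rw [T_step (m := 1 - μ) (F.K_finite hK) (by linarith) (by linarith),
    cone_zero (fun c => (hu.1 c).1) hμ0 hμ1]
  · have hup : up (1 - μ) (cone A μ u) = u := by
      funext c
      have h1 : 1 - (1 - μ) = μ := by ring
      simp only [up, h1]
      by_cases h : c ∈ A
      · have h2 : u c = 0 := hAu h
        rw [h2]
        simp only [cone, h, if_true]
        rw [max_eq_left]
        exact div_nonpos_of_nonpos_of_nonneg (by linarith) hμ.le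
      · simp only [cone, h, if_false]
        rw [add_sub_cancel_left, mul_div_cancel_left₀ _ hμ.ne']
        exact max_eq_right (hu.1 c).1
    rw [hup]
    module
  · intro c
    by_cases h : c ∈ A
    · left; simp [cone, h]
    · right
      simp only [cone, h, if_false]
      nlinarith [(hu.1 c).1]

theorem T_surj : ∀ y ∈ La, ∃ u ∈ K P, T b u = y := by
  classical
  intro y hy
  induction' hn : N - (act P y).ncard using Nat.strong_induction_on with n ih generalizing y
  have hne : (act P y).Nonempty := F.act_nonempty hy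
  have hfne : (fc P (act P y)).Nonempty := ⟨y, self_mem_fc_act⟩
  by_cases hb : y = b (act P y)
  · refine ⟨fun c => if c ∈ act P y then 0 else 1, ⟨fun c => ?_, ?_, ?_⟩, ?_⟩
    · dsimp only
      split_ifs <;> simp
    · obtain ⟨c, hc⟩ := hne
      exact ⟨c, by simp [hc]⟩
    · have : {c | (if c ∈ act P y then (0 : ℝ) else 1) < 1} = act P y := by
        ext c
        by_cases h : c ∈ act P y <;> simp [h]
      rw [this]; exact hfne
    · rw [T_const]
      · have : {c | (if c ∈ act P y then (0 : ℝ) else 1) = 0} = act P y := by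
          ext c
          by_cases h : c ∈ act P y <;> simp [h]
        rw [this]; exact hb.symm
      · intro c
        by_cases h : c ∈ act P y <;> simp [h]
  · obtain ⟨z, hz, μ, ⟨hμ0, hμ1⟩, hne', heq⟩ := F.exists_exit hy hb
    have hzLa : z ∈ La := F.fc_sub_La hne hz
    have hsub : act P y ⊆ act P z := mem_fc'.1 hz
    have hlt : (act P y).ncard < (act P z).ncard :=
      ncard_lt_ncard (hsub.ssubset_of_ne hne'.symm) (F.finite_act hzLa)
    have hle := F.card z hzLa
    obtain ⟨u1, hu1, hTu1⟩ := ih (N - (act P z).ncard) (by omega) z hzLa rfl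
    have hz0 : act P z = {c | u1 c = 0} := by rw [← hTu1]; exact F.act_T hu1
    refine ⟨cone (act P y) μ u1, cone_mem_K hne hu1 (hz0 ▸ hsub) hμ0.le hμ1, ?_⟩
    rw [F.T_cone hne hu1 (hz0 ▸ hsub) hμ0.le hμ1, hTu1]
    exact heq.symm

theorem T_bijOn : BijOn (T b) (K P) La :=
  ⟨fun _ hu => F.T_mem_La hu, F.T_injOn, fun y hy => by
    obtain ⟨u, hu, h⟩ := F.T_surj y hy
    exact ⟨u, hu, h⟩⟩

/-! ### the coordinates -/

theorem sc_spec {y : E} (hy : y ∈ La) : sc P b y ∈ K P ∧ T b (sc P b y) = y := by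
  have h := F.T_surj y hy
  rw [sc, dif_pos h]
  exact h.choose_spec

theorem sc_mem_K {y : E} (hy : y ∈ La) : sc P b y ∈ K P := (F.sc_spec hy).1

theorem T_sc {y : E} (hy : y ∈ La) : T b (sc P b y) = y := (F.sc_spec hy).2

theorem sc_T {u : I → ℝ} (hu : u ∈ K P) : sc P b (T b u) = u :=
  F.T_injOn (F.sc_mem_K (F.T_mem_La hu)) hu (F.T_sc (F.T_mem_La hu))

theorem sc_eq_of_T {u : I → ℝ} (hu : u ∈ K P) {y : E} (h : T b u = y) : sc P b y = u := by
  rw [← h, F.sc_T hu]

theorem sc_nonneg {y : E} (hy : y ∈ La) (c : I) : 0 ≤ sc P b y c := ((F.sc_mem_K hy).1 c).1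

theorem sc_le_one {y : E} (hy : y ∈ La) (c : I) : sc P b y c ≤ 1 := ((F.sc_mem_K hy).1 c).2

/-- `s_c` vanishes exactly on the cell `c` -/
theorem sc_eq_zero {y : E} (hy : y ∈ La) {c : I} : sc P b y c = 0 ↔ y ∈ P c := by
  have h := F.act_T (F.sc_mem_K hy)
  rw [F.T_sc hy] at h
  exact (Set.ext_iff.1 h c).symm

theorem act_eq {y : E} (hy : y ∈ La) : act P y = {c | sc P b y c = 0} := by
  ext c; exact (F.sc_eq_zero hy).symm

/-- the cells whose coordinate is `< 1` have a common point -/
theorem sc_lt_one_fc {y : E} (hy : y ∈ La) : (fc P {c | sc P b y c < 1}).Nonempty :=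
  (F.sc_mem_K hy).2.2

theorem sc_lt_one_finite {y : E} (hy : y ∈ La) : {c | sc P b y c < 1}.Finite :=
  F.K_finite (F.sc_mem_K hy)

theorem ncard_le_of_fc {A : Set I} (hA : A.Nonempty) (h : (fc P A).Nonempty) : A.ncard ≤ N := by
  obtain ⟨y, hy⟩ := h
  have hyL := F.fc_sub_La hA hy
  exact (ncard_le_ncard (mem_fc'.1 hy) (F.finite_act hyL)).trans (F.card y hyL)

theorem sc_lt_one_ncard {y : E} (hy : y ∈ La) : {c | sc P b y c < 1}.ncard ≤ N :=
  F.ncard_le_of_fc (F.K_lt_nonempty (F.sc_mem_K hy)) (F.sc_lt_one_fc hy)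

/-- the number of active coordinates at `y` is at most `N - card (act y)` -/
theorem active_ncard {y : E} (hy : y ∈ La) :
    (av (sc P b y)).ncard + (act P y).ncard ≤ N := by
  have h1 : av (sc P b y) ∪ act P y = {c | sc P b y c < 1} := by
    rw [F.act_eq hy]
    ext c
    simp only [av, mem_union, mem_ofPred_eq]
    constructor
    · rintro (h | h)
      · exact h.2
      · rw [h]; exact one_pos
    · intro h
      rcases (F.sc_nonneg hy c).eq_or_lt with h' | h'
      · exact Or.inr h'.symm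
      · exact Or.inl ⟨h', h⟩
  have h2 : Disjoint (av (sc P b y)) (act P y) := by
    rw [F.act_eq hy, Set.disjoint_left]
    intro c hc hc'
    exact hc.1.ne' hc'
  rw [← ncard_union_eq h2 (F.av_finite (F.sc_mem_K hy)) (F.finite_act hy), h1]
  exact F.sc_lt_one_ncard hy

theorem sc_inj {y z : E} (hy : y ∈ La) (hz : z ∈ La) (h : sc P b y = sc P b z) : y = z := by
  rw [← F.T_sc hy, ← F.T_sc hz, h]

/-- values at the barycentres -/
theorem sc_b {A : Set I} (hA : A.Nonempty) (h : (fc P A).Nonempty) (c : I) [Decidable (c ∈ A)] :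
    sc P b (b A) c = if c ∈ A then 0 else 1 := by
  classical
  have hfin := F.finite_of_fc hA h
  let u : I → ℝ := fun c => if c ∈ A then 0 else 1
  have hlt : {c | u c < 1} = A := by
    ext c; by_cases h : c ∈ A <;> simp [u, h]
  have hz : {c | u c = 0} = A := by
    ext c; by_cases h : c ∈ A <;> simp [u, h]
  have huK : u ∈ K P := by
    refine ⟨fun c => ?_, ?_, ?_⟩
    · by_cases h : c ∈ A <;> simp [u, h]
    · obtain ⟨c, hc⟩ := hA
      exact ⟨c, by simp [u, hc]⟩
    · rw [hlt]; exact h
  have hT : T b u = b A := by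
    rw [T_const, hz]
    intro c; by_cases h : c ∈ A <;> simp [u, h]
  rw [F.sc_eq_of_T huK hT]
  simp only [u]
  congr

/-- **cone formula**: along the rays from the barycentre of a face -/
theorem sc_ray {A : Set I} (hA : A.Nonempty) {z : E} (hz : z ∈ fc P A) {μ : ℝ} (hμ0 : 0 ≤ μ)
    (hμ1 : μ < 1) : sc P b (b A + μ • (z - b A)) = cone A μ (sc P b z) := by
  have hzL := F.fc_sub_La hA hz
  have hsub : A ⊆ {c | sc P b z c = 0} := by
    rw [← F.act_eq hzL]; exact mem_fc'.1 hz
  refine F.sc_eq_of_T (cone_mem_K hA (F.sc_mem_K hzL) hsub hμ0 hμ1) ?_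
  rw [F.T_cone hA (F.sc_mem_K hzL) hsub hμ0 hμ1, F.T_sc hzL]

theorem sc_ray' {A : Set I} (hA : A.Nonempty) {z : E} (hz : z ∈ fc P A) {μ : ℝ} (hμ0 : 0 ≤ μ)
    (hμ1 : μ ≤ 1) {c : I} (hc : c ∉ A) :
    sc P b (b A + μ • (z - b A)) c = (1 - μ) + μ * sc P b z c := by
  rcases hμ1.eq_or_lt with rfl | h
  · simp
  · rw [F.sc_ray hA hz hμ0 h]
    simp [cone, hc]

/-- cells meeting a compact subset of `La` -/
theorem finite_meet {C : Set E} (hC : IsCompact C) (hCL : C ⊆ La) :
    {c | (P c ∩ C).Nonempty}.Finite := by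
  choose! r hr hf using F.lf
  obtain ⟨t, ht, hcov⟩ := hC.elim_nhds_subcover (fun y => Metric.ball y (r y))
    (fun y hy => Metric.ball_mem_nhds y (hr y (hCL hy)))
  have : (⋃ y ∈ t, {c | (P c ∩ Metric.ball y (r y)).Nonempty}).Finite :=
    t.finite_toSet.biUnion fun y hy => hf y (hCL (ht y hy))
  refine this.subset fun c hc => ?_
  obtain ⟨x, hx, hxC⟩ := hc
  obtain ⟨y, hy, hxy⟩ := mem_iUnion₂.1 (hcov hxC)
  exact mem_biUnion hy ⟨x, hx, hxy⟩

end Foam

end Crest.Agent.R096.Brk1_582
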