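import Crest.Agent.R096.Brk3_582

/-!
# Row 96, U1: Lipschitz constants of the coordinates of a box foam
-/

set_option autoImplicit false
set_option linter.unusedSectionVars false
set_option linter.style.haveILetI false
open Set Filter Topology

namespace Crest.Agent.R096.Brk4_582

open Crest.Agent.R096.Brk1_582 Crest.Agent.R096.Brk2_582 Crest.Agent.R096.Brk3_582
open Crest.Agent.R096.Bsp_628

/-! ### Lipschitz on a convex set covered by finitely many closed sets -/

theorem lip_real {ι : Type*} {g : ℝ → ℝ} {K : ℝ} (s : Finset ι) (D : ι → Set ℝ)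
    (hD : ∀ i ∈ s, IsClosed (D i)) (hlip : ∀ i ∈ s, ∀ x ∈ D i, ∀ y ∈ D i, |g x - g y| ≤ K * |x - y|) :
    ∀ a b : ℝ, a ≤ b → Icc a b ⊆ ⋃ i ∈ s, D i → |g a - g b| ≤ K * (b - a) := by
  classical
  induction' hn : s.card using Nat.strong_induction_on with n ih generalizing s
  intro a b hab hcov
  obtain ⟨i0, hi0, ha⟩ := mem_iUnion₂.1 (hcov (left_mem_Icc.2 hab))
  have hcomp : IsCompact (D i0 ∩ Icc a b) := isCompact_Icc.inter_left (hD i0 hi0)
  obtain ⟨a', ⟨ha'D, ha'I⟩, hmax⟩ := hcomp.exists_isGreatest ⟨a, ha, left_mem_Icc.2 hab⟩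
  have h1 : |g a - g a'| ≤ K * (a' - a) := by
    have := hlip i0 hi0 a ha a' ha'D
    rwa [abs_sub_comm a a', abs_of_nonneg (sub_nonneg.2 ha'I.1)] at this
  rcases ha'I.2.eq_or_lt with h | h
  · rw [← h]; exact h1
  have hclU : IsClosed (⋃ i ∈ s.erase i0, D i) :=
    (s.erase i0).finite_toSet.isClosed_biUnion fun i hi => hD i (Finset.mem_of_mem_erase hi)
  have hIoc : Ioc a' b ⊆ ⋃ i ∈ s.erase i0, D i := by
    intro x hx
    obtain ⟨i, hi, hxi⟩ := mem_iUnion₂.1 (hcov ⟨ha'I.1.trans hx.1.le, hx.2⟩)
    refine mem_iUnion₂.2 ⟨i, Finset.mem_erase.2 ⟨?_, hi⟩, hxi⟩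
    rintro rfl
    have := hmax ⟨hxi, ha'I.1.trans hx.1.le, hx.2⟩
    exact absurd hx.1 (not_lt.2 this)
  have hIcc : Icc a' b ⊆ ⋃ i ∈ s.erase i0, D i := by
    have h2 : closure (Ioc a' b) ⊆ ⋃ i ∈ s.erase i0, D i := hclU.closure_subset_iff.2 hIoc
    rwa [closure_Ioc h.ne] at h2
  have h3 := ih (s.erase i0).card (by rw [← hn]; exact Finset.card_erase_lt_of_mem hi0)
    (s.erase i0) (fun i hi => hD i (Finset.mem_of_mem_erase hi))
    (fun i hi => hlip i (Finset.mem_of_mem_erase hi)) rfl a' b h.le hIcc
  calc |g a - g b| ≤ |g a - g a'| + |g a' - g b| := abs_sub_le _ _ _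
    _ ≤ K * (b - a) := by linarith

theorem lip_of_cover {E ι : Type*} [NormedAddCommGroup E] [NormedSpace ℝ E] {f : E → ℝ}
    {G : Set E} (hG : Convex ℝ G) {s : Set ι} (hs : s.Finite) {C : ι → Set E}
    (hC : ∀ i ∈ s, IsClosed (C i)) (hcov : G ⊆ ⋃ i ∈ s, C i) {K : ℝ}
    (hlip : ∀ i ∈ s, ∀ x ∈ C i, ∀ y ∈ C i, |f x - f y| ≤ K * ‖x - y‖) :
    ∀ x ∈ G, ∀ y ∈ G, |f x - f y| ≤ K * ‖x - y‖ := by
  intro x hx y hy
  have hc : Continuous (fun t : ℝ => x + t • (y - x)) := by fun_prop
  have := lip_real (g := fun t : ℝ => f (x + t • (y - x))) (K := K * ‖x - y‖) hs.toFinset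
    (fun i => (fun t : ℝ => x + t • (y - x)) ⁻¹' C i)
    (fun i hi => (hC i (hs.mem_toFinset.1 hi)).preimage hc) ?_ 0 1 zero_le_one ?_
  · simpa using this
  · intro i hi t ht t' ht'
    refine (hlip i (hs.mem_toFinset.1 hi) _ ht _ ht').trans (le_of_eq ?_)
    have : x + t • (y - x) - (x + t' • (y - x)) = (t' - t) • (x - y) := by module
    rw [this, norm_smul, Real.norm_eq_abs, abs_sub_comm t' t]
    ring
  · intro t ht
    have : x + t • (y - x) ∈ G := by
      have := hG hx hy (sub_nonneg.2 ht.2) ht.1 (by ring)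
      convert this using 1
      module
    obtain ⟨i, hi, hxi⟩ := mem_iUnion₂.1 (hcov this)
    exact mem_iUnion₂.2 ⟨i, hs.mem_toFinset.2 hi, hxi⟩

/-- the recursive constants -/
noncomputable def Lc (w S : ℝ) : ℕ → ℝ
  | 0 => 0
  | m + 1 => 2 / w + max (2 * Lc w S m) (1 / w) * (1 + S / w)

theorem Lc_nonneg {w S : ℝ} (hw : 0 < w) (hS : 0 ≤ S) (m : ℕ) : 0 ≤ Lc w S m := by
  cases m with
  | zero => exact le_rfl
  | succ m =>
    unfold Lc
    have : 0 ≤ max (2 * Lc w S m) (1 / w) := le_max_of_le_right (by positivity)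
    positivity

section main

variable {κ : Type*} [Fintype κ] [Nonempty κ] {La : Set (κ → ℝ)} {F : Set (Bx κ)} {δ κ0 : ℝ}

/-- **Lipschitz constants of the coordinates on the faces of a cell** -/
theorem lip_main (BF : BoxFoam La F δ κ0) (hLa : IsOpen La) (c0 : F) {w S : ℝ} (hw : 0 < w)
    (hS : ∀ k, c0.1.side k ≤ S)
    (hwid : ∀ A : Set F, A.Finite → c0 ∈ A → (fc (Pc F) A).Nonempty →
      ∀ k, loA A k ≠ hiA A k → w ≤ hiA A k - loA A k) :
    ∀ (m : ℕ) (A : Set F), A.Finite → c0 ∈ A → (fc (Pc F) A).Nonempty →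
      Fintype.card κ + 1 - A.ncard = m → ∀ y ∈ fc (Pc F) A, ∀ y' ∈ fc (Pc F) A, ∀ c : F,
        |sc (Pc F) (bc (F := F)) y c - sc (Pc F) (bc (F := F)) y' c| ≤ Lc w S m * ‖y - y'‖ := by
  have FF := foam BF hLa
  have hS0 : 0 ≤ S := by
    obtain ⟨k⟩ := ‹Nonempty κ›
    exact (Bx.side_pos (BF.pos _ c0.2) k).le.trans (hS k)
  intro m
  induction m with
  | zero =>
    intro A hA hc0 hne hm y hy y' hy' c
    have hAne : A.Nonempty := ⟨c0, hc0⟩
    have h1 := deg_count BF hA hAne hne
    have h2 : {k | loA A k = hiA A k} = univ := by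
      refine Set.eq_of_subset_of_ncard_le (subset_univ _) ?_
      rw [ncard_univ, Nat.card_eq_fintype_card]
      omega
    have h3 : y = y' := by
      funext k
      have hk : loA A k = hiA A k := by
        have : k ∈ {k | loA A k = hiA A k} := by rw [h2]; trivial
        exact this
      have a1 := (mem_fc_iff hA hAne).1 hy k
      have a2 := (mem_fc_iff hA hAne).1 hy' k
      linarith
    subst h3
    simp [Lc]
  | succ m ih =>
    intro A hA hc0 hne hm y hy y' hy' c
    classical
    have hAne : A.Nonempty := ⟨c0, hc0⟩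
    have hM0 : 0 ≤ max (2 * Lc w S m) (1 / w) := le_max_of_le_right (by positivity)
    have hAL : fc (Pc F) A ⊆ La := FF.fc_sub_La hAne
    by_cases hcA : c ∈ A
    · rw [(FF.sc_eq_zero (hAL hy)).2 (mem_fc.1 hy c hcA),
        (FF.sc_eq_zero (hAL hy')).2 (mem_fc.1 hy' c hcA), sub_self, abs_zero]
      exact mul_nonneg (Lc_nonneg hw hS0 _) (norm_nonneg _)
    -- facets
    have facet : ∀ k, loA A k ≠ hiA A k → ∀ v, (v = loA A k ∨ v = hiA A k) →
        ∀ x ∈ fc (Pc F) A, x k = v → ∀ x' ∈ fc (Pc F) A, x' k = v →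
        |sc (Pc F) (bc (F := F)) x c - sc (Pc F) (bc (F := F)) x' c| ≤ Lc w S m * ‖x - x'‖ := by
      intro k hk v hv x hx hxk x' hx' hxk'
      have hG : Convex ℝ (fc (Pc F) A ∩ {x | x k = v}) := by
        refine FF.convex_fc.inter ?_
        intro p hp q hq a b ha hb hab
        have hp' : p k = v := hp
        have hq' : q k = v := hq
        change (a • p + b • q) k = v
        simp only [Pi.add_apply, Pi.smul_apply, smul_eq_mul, hp', hq']
        rw [← add_mul, hab, one_mul]
      set s : Set F := {c'' | c'' ∉ A ∧ (fc (Pc F) (insert c'' A)).Nonempty} with hs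
      have hsfin : s.Finite := by
        refine (finite_touch FF c0).subset fun c'' hc'' => ?_
        obtain ⟨p, hp⟩ := hc''.2
        exact ⟨p, mem_fc.1 hp c'' (mem_insert _ _), mem_fc.1 hp c0 (mem_insert_of_mem _ hc0)⟩
      refine lip_of_cover hG hsfin (C := fun c'' => fc (Pc F) (insert c'' A)) ?_ ?_ ?_ x ⟨hx, hxk⟩
        x' ⟨hx', hxk'⟩ (f := fun x => sc (Pc F) (bc (F := F)) x c)
      · intro c'' _
        exact (FF.isCompact_fc ⟨c'', mem_insert _ _⟩).isClosed
      · rintro p ⟨hp, hpk⟩
        have hpL := hAL hp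
        have hpk' : p k = v := hpk
        have hex : ∃ c'' ∈ act (Pc F) p, c'' ∉ A := by
          by_contra hcon
          push Not at hcon
          have hact : act (Pc F) p = A := Subset.antisymm hcon (mem_fc'.1 hp)
          have g1 := lt_hiA BF hLa hpL (k := k) (by rw [hact]; exact hk) (by rw [hact]; exact hA)
            (by rw [hact]; exact hAne)
          have g2 := loA_lt BF hLa hpL (k := k) (by rw [hact]; exact hk) (by rw [hact]; exact hA)
            (by rw [hact]; exact hAne)
          rw [hact, hpk'] at g1 g2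
          rcases hv with h | h
          · exact absurd g2 (by rw [h]; exact lt_irrefl _)
          · exact absurd g1 (by rw [h]; exact lt_irrefl _)
        obtain ⟨c'', hc1, hc2⟩ := hex
        have hpi : p ∈ fc (Pc F) (insert c'' A) := by
          rw [mem_fc]
          rintro a (rfl | ha)
          · exact hc1
          · exact mem_fc.1 hp a ha
        exact mem_iUnion₂.2 ⟨c'', ⟨hc2, p, hpi⟩, hpi⟩
      · intro c'' hc'' p hp q hq
        exact ih (insert c'' A) (hA.insert _) (mem_insert_of_mem _ hc0) hc''.2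
          (by rw [ncard_insert_of_notMem hc''.1 hA]; omega) p hp q hq c
    -- the relative boundary
    have bd : ∀ z ∈ fc (Pc F) A, ∀ z' ∈ fc (Pc F) A, ∀ k, loA A k ≠ hiA A k →
        (z k = loA A k ∨ z k = hiA A k) → ∀ j, loA A j ≠ hiA A j →
        (z' j = loA A j ∨ z' j = hiA A j) →
        |sc (Pc F) (bc (F := F)) z c - sc (Pc F) (bc (F := F)) z' c| ≤
          max (2 * Lc w S m) (1 / w) * ‖z - z'‖ := by
      intro z hz z' hz' k hk hzk j hj hzj
      have hzz := mem_fc_iff hA hAne |>.1 hz
      have hzz' := mem_fc_iff hA hAne |>.1 hz'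
      have hL0 := Lc_nonneg hw hS0 m
      by_cases hkj : k = j
      · subst hkj
        by_cases hzz2 : z k = z' k
        · refine (facet k hk (z k) hzk z hz rfl z' hz' hzz2.symm).trans ?_
          refine mul_le_mul_of_nonneg_right ?_ (norm_nonneg _)
          exact le_max_of_le_left (by linarith)
        · have h1 : w ≤ ‖z - z'‖ := by
            have h2 := hwid A hA hc0 hne k hk
            have h3 := norm_le_pi_norm (z - z') k
            rw [Pi.sub_apply, Real.norm_eq_abs] at h3
            refine le_trans ?_ h3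
            rcases hzk with h | h <;> rcases hzj with h' | h'
            · exact absurd (h.trans h'.symm) hzz2
            · rw [h, h', abs_sub_comm, abs_of_nonneg (by linarith)]; exact h2
            · rw [h, h', abs_of_nonneg (by linarith)]; exact h2
            · exact absurd (h.trans h'.symm) hzz2
          have h2 : |sc (Pc F) (bc (F := F)) z c - sc (Pc F) (bc (F := F)) z' c| ≤ 1 := by
            rw [abs_le]
            constructor <;> linarith [FF.sc_nonneg (hAL hz) c, FF.sc_le_one (hAL hz) c,
              FF.sc_nonneg (hAL hz') c, FF.sc_le_one (hAL hz') c]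
          refine h2.trans ?_
          calc (1 : ℝ) = 1 / w * w := by field_simp
            _ ≤ max (2 * Lc w S m) (1 / w) * ‖z - z'‖ :=
              mul_le_mul (le_max_right _ _) h1 hw.le hM0
      · set z2 : κ → ℝ := Function.update z j (z' j) with hz2
        have hz2A : z2 ∈ fc (Pc F) A := by
          rw [mem_fc_iff hA hAne]
          intro i
          by_cases hi : i = j
          · subst hi; simp only [hz2, Function.update_self]; exact hzz' i
          · simp only [hz2, Function.update_of_ne hi]; exact hzz i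
        have e1 := facet k hk (z k) hzk z hz rfl z2 hz2A
          (by simp only [hz2, Function.update_of_ne hkj])
        have e2 := facet j hj (z' j) hzj z2 hz2A (by simp [hz2]) z' hz' rfl
        have n1 : ‖z - z2‖ ≤ ‖z - z'‖ := by
          refine (pi_norm_le_iff_of_nonneg (norm_nonneg _)).2 fun i => ?_
          by_cases hi : i = j
          · subst hi
            simp only [Pi.sub_apply, hz2, Function.update_self]
            exact norm_le_pi_norm (z - z') i
          · simp only [Pi.sub_apply, hz2, Function.update_of_ne hi, sub_self, norm_zero]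
            exact norm_nonneg _
        have n2 : ‖z2 - z'‖ ≤ ‖z - z'‖ := by
          refine (pi_norm_le_iff_of_nonneg (norm_nonneg _)).2 fun i => ?_
          by_cases hi : i = j
          · subst hi
            simp only [Pi.sub_apply, hz2, Function.update_self, sub_self, norm_zero]
            exact norm_nonneg _
          · simp only [Pi.sub_apply, hz2, Function.update_of_ne hi]
            exact norm_le_pi_norm (z - z') i
        calc |sc (Pc F) (bc (F := F)) z c - sc (Pc F) (bc (F := F)) z' c|
            ≤ _ := abs_sub_le _ (sc (Pc F) (bc (F := F)) z2 c) _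
          _ ≤ Lc w S m * ‖z - z'‖ + Lc w S m * ‖z - z'‖ := by
            refine add_le_add (e1.trans ?_) (e2.trans ?_)
            · exact mul_le_mul_of_nonneg_left n1 hL0
            · exact mul_le_mul_of_nonneg_left n2 hL0
          _ = (2 * Lc w S m) * ‖z - z'‖ := by ring
          _ ≤ _ := mul_le_mul_of_nonneg_right (le_max_left _ _) (norm_nonneg _)
    -- the gauge
    set bA : κ → ℝ := bc A with hbA
    have hlohi : ∀ k, loA A k ≤ hiA A k := fun k =>
      ((mem_fc_iff hA hAne).1 hy k).1.trans ((mem_fc_iff hA hAne).1 hy k).2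
    let h : κ → ℝ := fun k => (hiA A k - loA A k) / 2
    have hh0 : ∀ k, 0 ≤ h k := fun k => by
      have := hlohi k
      simp only [h]; linarith
    have hhw : ∀ k, loA A k ≠ hiA A k → w / 2 ≤ h k := fun k hk => by
      have := hwid A hA hc0 hne k hk
      simp only [h]; linarith
    have hhS : ∀ k, h k ≤ S / 2 := fun k => by
      have h1 := (exists_loA hA hAne k).2 c0 hc0
      have h2 := (exists_hiA hA hAne k).2 c0 hc0
      have h3 := hS k
      unfold Bx.side at h3
      simp only [h]; linarith
    let D : (κ → ℝ) → κ → ℝ := fun v k => v k / h k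
    have hD : ∀ v, ‖D v‖ ≤ 2 / w * ‖v‖ := by
      intro v
      refine (pi_norm_le_iff_of_nonneg (by positivity)).2 fun k => ?_
      by_cases hk : loA A k = hiA A k
      · have : h k = 0 := by simp only [h, hk]; ring
        simp only [D, this, div_zero, norm_zero]
        positivity
      · have h1 := hhw k hk
        have h2 : 0 < h k := by linarith
        simp only [D, norm_div, Real.norm_of_nonneg h2.le]
        rw [div_le_iff₀ h2]
        calc ‖v k‖ ≤ ‖v‖ := norm_le_pi_norm v k
          _ = 2 / w * ‖v‖ * (w / 2) := by field_simp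
          _ ≤ 2 / w * ‖v‖ * h k := mul_le_mul_of_nonneg_left h1 (by positivity)
    have hcoord : ∀ p ∈ fc (Pc F) A, ∀ k, |p k - bA k| ≤ h k := by
      intro p hp k
      have h1 := (mem_fc_iff hA hAne).1 hp k
      simp only [hbA, bc, h, abs_le]
      constructor <;> linarith
    have hμ1 : ∀ p ∈ fc (Pc F) A, ‖D (p - bA)‖ ≤ 1 := by
      intro p hp
      refine (pi_norm_le_iff_of_nonneg zero_le_one).2 fun k => ?_
      simp only [D, norm_div, Real.norm_of_nonneg (hh0 k), Pi.sub_apply, Real.norm_eq_abs]
      exact div_le_one_of_le₀ (hcoord p hp k) (hh0 k)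
    have hback : ∀ p ∈ fc (Pc F) A, ∀ k, |p k - bA k| ≤ ‖D (p - bA)‖ * h k := by
      intro p hp k
      rcases (hh0 k).eq_or_lt with h1 | h1
      · have := hcoord p hp k
        rw [← h1] at this ⊢
        simpa using this
      · have := norm_le_pi_norm (D (p - bA)) k
        simp only [D, norm_div, Real.norm_of_nonneg (hh0 k), Pi.sub_apply, Real.norm_eq_abs] at this
        rwa [div_le_iff₀ h1] at this
    have hdist : ∀ p ∈ fc (Pc F) A, ‖p - bA‖ ≤ ‖D (p - bA)‖ * (S / 2) := by
      intro p hp
      refine (pi_norm_le_iff_of_nonneg (by positivity)).2 fun k => ?_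
      rw [Pi.sub_apply, Real.norm_eq_abs]
      exact (hback p hp k).trans (mul_le_mul_of_nonneg_left (hhS k) (norm_nonneg _))
    -- exit points
    have hz : ∀ p ∈ fc (Pc F) A, ∃ z ∈ fc (Pc F) A, p = bA + ‖D (p - bA)‖ • (z - bA) ∧
        (0 < ‖D (p - bA)‖ → ∃ k, loA A k ≠ hiA A k ∧ (z k = loA A k ∨ z k = hiA A k)) := by
      intro p hp
      rcases (norm_nonneg (D (p - bA))).eq_or_lt with h0 | h0
      · refine ⟨bA, FF.mem A hAne hne, ?_, fun h1 => absurd h1 (by rw [← h0]; exact lt_irrefl _)⟩
        have h1 := hdist p hp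
        rw [← h0, zero_mul] at h1
        have h2 := norm_le_zero_iff.1 h1
        rw [← h0, zero_smul, add_zero]
        exact sub_eq_zero.1 h2
      · set μ := ‖D (p - bA)‖ with hμ
        refine ⟨bA + μ⁻¹ • (p - bA), ?_, ?_, fun _ => ?_⟩
        · rw [mem_fc_iff hA hAne]
          intro k
          have h1 : |μ⁻¹ * (p k - bA k)| ≤ h k := by
            rw [abs_mul, abs_of_pos (inv_pos.2 h0), inv_mul_le_iff₀ h0]
            exact hback p hp k
          rw [abs_le] at h1
          simp only [Pi.add_apply, Pi.smul_apply, Pi.sub_apply, smul_eq_mul]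
          simp only [h, hbA, bc] at h1 ⊢
          constructor <;> linarith [h1.1, h1.2]
        · rw [add_sub_cancel_left, smul_smul, mul_inv_cancel₀ h0.ne', one_smul]
          abel
        · obtain ⟨k, hk⟩ := Finite.exists_max (fun k => ‖D (p - bA) k‖)
          have h1 : ‖D (p - bA) k‖ = μ := by
            refine le_antisymm (norm_le_pi_norm _ k) ?_
            exact (pi_norm_le_iff_of_nonneg (norm_nonneg _)).2 hk
          have h2 : h k ≠ 0 := by
            intro h3
            simp only [D, h3, div_zero, norm_zero] at h1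
            exact h0.ne h1
          have h3 : loA A k ≠ hiA A k := fun h4 => h2 (by simp only [h, h4]; ring)
          refine ⟨k, h3, ?_⟩
          have h4 : 0 < h k := lt_of_le_of_ne (hh0 k) (Ne.symm h2)
          simp only [D, norm_div, Real.norm_of_nonneg (hh0 k), Pi.sub_apply, Real.norm_eq_abs] at h1
          rw [div_eq_iff h2] at h1
          have h5 : |μ⁻¹ * (p k - bA k)| = h k := by
            rw [abs_mul, abs_of_pos (inv_pos.2 h0), h1, ← mul_assoc, inv_mul_cancel₀ h0.ne', one_mul]
          simp only [Pi.add_apply, Pi.smul_apply, Pi.sub_apply, smul_eq_mul]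
          rcases (abs_eq h4.le).1 h5 with h6 | h6
          · right
            rw [h6]; simp only [h, hbA, bc]; ring
          · left
            rw [h6]; simp only [h, hbA, bc]; ring
    have key : ∀ p ∈ fc (Pc F) A, ∀ q ∈ fc (Pc F) A, ‖D (p - bA)‖ ≤ ‖D (q - bA)‖ →
        |sc (Pc F) (bc (F := F)) p c - sc (Pc F) (bc (F := F)) q c| ≤ Lc w S (m + 1) * ‖p - q‖ := by
      intro p hp q hq hpq
      obtain ⟨zp, hzp, hp1, hp2⟩ := hz p hp
      obtain ⟨zq, hzq, hq1, hq2⟩ := hz q hq
      have sp : sc (Pc F) (bc (F := F)) p c = (1 - ‖D (p - bA)‖) +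
          ‖D (p - bA)‖ * sc (Pc F) (bc (F := F)) zp c := by
        conv_lhs => rw [hp1]
        exact FF.sc_ray' hAne hzp (norm_nonneg _) (hμ1 p hp) hcA
      have sq : sc (Pc F) (bc (F := F)) q c = (1 - ‖D (q - bA)‖) +
          ‖D (q - bA)‖ * sc (Pc F) (bc (F := F)) zq c := by
        conv_lhs => rw [hq1]
        exact FF.sc_ray' hAne hzq (norm_nonneg _) (hμ1 q hq) hcA
      set μp := ‖D (p - bA)‖ with hμp
      set μq := ‖D (q - bA)‖ with hμq
      set a := sc (Pc F) (bc (F := F)) zp c with ha
      set a' := sc (Pc F) (bc (F := F)) zq c with ha'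
      have ha'0 : 0 ≤ a' := FF.sc_nonneg (hAL hzq) c
      have ha'1 : a' ≤ 1 := FF.sc_le_one (hAL hzq) c
      have hdμ : μq - μp ≤ 2 / w * ‖p - q‖ := by
        have e : D (q - bA) - D (p - bA) = D (q - p) := by
          funext k
          simp only [D, Pi.sub_apply]
          ring
        calc μq - μp ≤ ‖D (q - bA) - D (p - bA)‖ := by
              exact norm_sub_norm_le _ _
          _ = ‖D (q - p)‖ := by rw [e]
          _ ≤ 2 / w * ‖q - p‖ := hD _
          _ = _ := by rw [norm_sub_rev]
      have hμp0 : 0 ≤ μp := norm_nonneg _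
      have e1 : |((1 - μp) + μp * a) - ((1 - μq) + μq * a')| ≤ (μq - μp) + μp * |a - a'| := by
        have e2 : ((1 - μp) + μp * a) - ((1 - μq) + μq * a') =
            (μq - μp) * (1 - a') + μp * (a - a') := by ring
        rw [e2]
        refine (abs_add_le _ _).trans ?_
        rw [abs_mul, abs_mul, abs_of_nonneg (sub_nonneg.2 hpq), abs_of_nonneg hμp0,
          abs_of_nonneg (sub_nonneg.2 ha'1)]
        have : (μq - μp) * (1 - a') ≤ (μq - μp) * 1 :=
          mul_le_mul_of_nonneg_left (by linarith) (sub_nonneg.2 hpq)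
        linarith
      rw [sp, sq]
      refine e1.trans ?_
      have e3 : μp * |a - a'| ≤ max (2 * Lc w S m) (1 / w) * (1 + S / w) * ‖p - q‖ := by
        rcases hμp0.eq_or_lt with h0 | h0
        · rw [← h0, zero_mul]; positivity
        · have h0q : 0 < μq := h0.trans_le hpq
          obtain ⟨k, hk, hzk⟩ := hp2 h0
          obtain ⟨j, hj, hzj⟩ := hq2 h0q
          have e4 := bd zp hzp zq hzq k hk hzk j hj hzj
          have e5 : μp * ‖zp - zq‖ ≤ (1 + S / w) * ‖p - q‖ := by
            have e6 : μp • (zp - zq) = (p - q) + (1 - μp / μq) • (q - bA) := by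
              have f1 : μp • (zp - bA) = p - bA := by
                conv_rhs => rw [hp1]
                abel
              have f2 : μq • (zq - bA) = q - bA := by
                conv_rhs => rw [hq1]
                abel
              have f3 : μp • (zq - bA) = (μp / μq) • (q - bA) := by
                rw [← f2, smul_smul, div_mul_cancel₀ _ h0q.ne']
              calc μp • (zp - zq) = μp • (zp - bA) - μp • (zq - bA) := by module
                _ = _ := by rw [f1, f3]; module
            have e7 : 0 ≤ 1 - μp / μq := by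
              rw [sub_nonneg, div_le_one h0q]; exact hpq
            calc μp * ‖zp - zq‖ = ‖μp • (zp - zq)‖ := by
                  rw [norm_smul, Real.norm_of_nonneg hμp0]
              _ ≤ ‖p - q‖ + (1 - μp / μq) * ‖q - bA‖ := by
                  rw [e6]
                  refine (norm_add_le _ _).trans ?_
                  rw [norm_smul, Real.norm_of_nonneg e7]
              _ ≤ ‖p - q‖ + (1 - μp / μq) * (μq * (S / 2)) := by
                  have := mul_le_mul_of_nonneg_left (hdist q hq) e7
                  linarith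
              _ = ‖p - q‖ + (μq - μp) * (S / 2) := by
                  field_simp
              _ ≤ ‖p - q‖ + (2 / w * ‖p - q‖) * (S / 2) := by
                  have := mul_le_mul_of_nonneg_right hdμ (show 0 ≤ S / 2 by positivity)
                  linarith
              _ = (1 + S / w) * ‖p - q‖ := by
                  field_simp
          calc μp * |a - a'| ≤ μp * (max (2 * Lc w S m) (1 / w) * ‖zp - zq‖) :=
                mul_le_mul_of_nonneg_left e4 hμp0
            _ = max (2 * Lc w S m) (1 / w) * (μp * ‖zp - zq‖) := by ring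
            _ ≤ max (2 * Lc w S m) (1 / w) * ((1 + S / w) * ‖p - q‖) :=
                mul_le_mul_of_nonneg_left e5 hM0
            _ = _ := by ring
      calc (μq - μp) + μp * |a - a'|
          ≤ 2 / w * ‖p - q‖ + max (2 * Lc w S m) (1 / w) * (1 + S / w) * ‖p - q‖ := add_le_add hdμ e3
        _ = Lc w S (m + 1) * ‖p - q‖ := by simp only [Lc]; ring
    rcases le_total ‖D (y - bA)‖ ‖D (y' - bA)‖ with h1 | h1
    · exact key y hy y' hy' h1
    · rw [abs_sub_comm, norm_sub_rev]
      exact key y' hy' y hy h1

end main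

end Crest.Agent.R096.Brk4_582
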