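import Crest.Agent.R096.Brk5_582

/-!
# Row 96, U1: formulas for `T`, transport along linear equivalences
-/

set_option autoImplicit false
set_option linter.unusedSectionVars false
set_option linter.style.haveILetI false
open Set Filter Topology

namespace Crest.Agent.R096.Brk6_582

open Crest.Agent.R096.Brk1_582 Crest.Agent.R096.Brk2_582

variable {E : Type*} [NormedAddCommGroup E] [NormedSpace ℝ E] [CompleteSpace E] {I : Type*}
variable {La : Set E} {P : I → Set E} {b : Set I → E} {N : ℕ}

section formulas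

variable (F : Foam La P b N)

include F

theorem chain_mem {k : ℕ} (A : Fin (k + 1) → Set I) (hA : Monotone A) (h0 : (A 0).Nonempty)
    (hlast : (fc P (A (Fin.last k))).Nonempty) (w : Fin (k + 1) → ℝ) (hw : ∀ i, 0 ≤ w i)
    (hsum : ∑ i, w i = 1) : ∑ i, w i • b (A i) ∈ fc P (A 0) := by
  have hne : ∀ i, (A i).Nonempty := fun i => h0.mono (hA (Fin.zero_le i))
  have hfc : ∀ i, (fc P (A i)).Nonempty := fun i => hlast.mono (fc_anti (hA (Fin.le_last i)))
  exact F.convex_fc.sum_mem (fun i _ => hw i) hsum fun i _ =>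
    fc_anti (hA (Fin.zero_le i)) (F.mem _ (hne i) (hfc i))

/-- **`T` on the order simplices** -/
theorem T_chain {k : ℕ} (A : Fin (k + 1) → Set I) (hA : Monotone A) (h0 : (A 0).Nonempty)
    (hlast : (fc P (A (Fin.last k))).Nonempty) (w : Fin (k + 1) → ℝ) (hw : ∀ i, 0 ≤ w i)
    (hsum : ∑ i, w i = 1) [∀ c i, Decidable (c ∈ A i)] (u : I → ℝ)
    (hu : ∀ c, u c = ∑ i, if c ∈ A i then 0 else w i) :
    T b u = ∑ i, w i • b (A i) := by
  have hy := F.fc_sub_La h0 (chain_mem F A hA h0 hlast w hw hsum)
  have h1 : sc P b (∑ i, w i • b (A i)) = u := by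
    funext c
    rw [hu c]
    exact sc_chain F A hA h0 hlast w hw hsum c
  rw [← h1]
  exact F.T_sc hy

/-- `T` with no active coordinate -/
theorem T_zero' {A : Set I} {u : I → ℝ} (h0 : ∀ c ∈ A, u c = 0) (h1 : ∀ c, c ∉ A → u c = 1) :
    T b u = b A := by
  rw [T_const]
  · congr 1
    ext c
    by_cases h : c ∈ A
    · simp [h, h0 c h]
    · simp [h, h1 c h]
  · intro c
    by_cases h : c ∈ A
    · exact Or.inl (h0 c h)
    · exact Or.inr (h1 c h).ge

/-- `T` on an edge: one active coordinate -/
theorem T_one {A : Set I} (hA : A.Nonempty) {c1 : I}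
    (hfc : (fc P (insert c1 A)).Nonempty) {u : I → ℝ} (h0 : ∀ c ∈ A, u c = 0)
    (h1 : u c1 ∈ Icc (0 : ℝ) 1) (hother : ∀ c, c ∉ A → c ≠ c1 → u c = 1) :
    T b u = u c1 • b A + (1 - u c1) • b (insert c1 A) := by
  classical
  by_cases hc1 : c1 ∈ A
  · have e : insert c1 A = A := insert_eq_of_mem hc1
    rw [e, T_zero' F h0 (fun c hc => hother c hc fun h => hc (h ▸ hc1)), ← add_smul]
    simp
  have := T_chain F (k := 1) ![A, insert c1 A] ?_ (by simpa using hA) (by simpa using hfc)
    ![u c1, 1 - u c1] ?_ (by simp) u ?_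
  · rw [this]
    simp
  · intro i j hij
    fin_cases i <;> fin_cases j
    · exact le_rfl
    · exact subset_insert _ _
    · exact absurd hij (by decide)
    · exact le_rfl
  · intro i
    fin_cases i
    · exact h1.1
    · exact sub_nonneg.2 h1.2
  · intro c
    rw [Fin.sum_univ_two]
    simp only [Matrix.cons_val_zero, Matrix.cons_val_one, mem_insert_iff]
    by_cases hc : c ∈ A
    · simp [hc, h0 c hc]
    · by_cases hcc : c = c1
      · subst hcc; simp [hc]
      · simp [hc, hcc, hother c hc hcc]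

/-- **`T` on a quad**: two active coordinates `u c1 ≤ u c2` -/
theorem T_two {A : Set I} (hA : A.Nonempty) {c1 c2 : I} (hc1 : c1 ∉ A) (hc2 : c2 ∉ A)
    (hne : c1 ≠ c2) (hfc : (fc P (insert c2 (insert c1 A))).Nonempty) {u : I → ℝ}
    (h0 : ∀ c ∈ A, u c = 0) (h1 : 0 ≤ u c1) (h12 : u c1 ≤ u c2) (h2 : u c2 ≤ 1)
    (hother : ∀ c, c ∉ A → c ≠ c1 → c ≠ c2 → u c = 1) :
    T b u = u c1 • b A + (u c2 - u c1) • b (insert c1 A) +
      (1 - u c2) • b (insert c2 (insert c1 A)) := by
  classical
  have := T_chain F (k := 2) ![A, insert c1 A, insert c2 (insert c1 A)] ?_ (by simpa using hA)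
    (by simpa using hfc) ![u c1, u c2 - u c1, 1 - u c2] ?_
    (by simp [Fin.sum_univ_succ]) u ?_
  · rw [this]
    simp [Fin.sum_univ_succ, add_assoc]
  · have m1 : A ⊆ insert c1 A := subset_insert _ _
    have m2 : insert c1 A ⊆ insert c2 (insert c1 A) := subset_insert _ _
    intro i j hij
    fin_cases i <;> fin_cases j
    · exact le_rfl
    · exact m1
    · exact m1.trans m2
    · exact absurd hij (by decide)
    · exact le_rfl
    · exact m2
    · exact absurd hij (by decide)
    · exact absurd hij (by decide)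
    · exact le_rfl
  · intro i
    fin_cases i
    · exact h1
    · exact sub_nonneg.2 h12
    · exact sub_nonneg.2 h2
  · intro c
    rw [Fin.sum_univ_three]
    simp only [Matrix.cons_val_zero, Matrix.cons_val_one, Matrix.cons_val, mem_insert_iff]
    by_cases hc : c ∈ A
    · simp [hc, h0 c hc]
    · by_cases hcc : c = c1
      · subst hcc; simp [hc]
      · by_cases hcc2 : c = c2
        · subst hcc2; simp [hc, hcc]
        · simp [hc, hcc, hcc2, hother c hc hcc hcc2]

end formulas

/-! ### transport along a continuous linear equivalence -/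

section transport

variable {E' : Type*} [NormedAddCommGroup E'] [NormedSpace ℝ E'] [CompleteSpace E']
variable (e : E ≃L[ℝ] E')

theorem act_image (y : E) : act (fun c => e '' P c) (e y) = act P y := by
  ext c
  simp only [mem_act]
  exact e.injective.mem_set_image

theorem mem_fc_image {A : Set I} {y : E} :
    e y ∈ fc (fun c => e '' P c) A ↔ y ∈ fc P A := by
  simp only [mem_fc]
  exact forall₂_congr fun c _ => e.injective.mem_set_image

theorem fc_image_nonempty {A : Set I} :
    (fc (fun c => e '' P c) A).Nonempty ↔ (fc P A).Nonempty := by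
  constructor
  · rintro ⟨y, hy⟩
    refine ⟨e.symm y, (mem_fc_image e).1 ?_⟩
    rwa [e.apply_symm_apply]
  · rintro ⟨y, hy⟩
    exact ⟨e y, (mem_fc_image e).2 hy⟩

theorem Foam_map (F : Foam La P b N) :
    Foam (e '' La) (fun c => e '' P c) (fun A => e (b A)) N where
  op := e.toHomeomorph.isOpenMap _ F.op
  cpt c := (F.cpt c).image e.continuous
  cvx c := (F.cvx c).linear_image e.toLinearEquiv.toLinearMap
  sub c := image_mono (F.sub c)
  cov := by
    rintro _ ⟨y, hy, rfl⟩
    obtain ⟨c, hc⟩ := F.cov y hy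
    exact ⟨c, mem_image_of_mem _ hc⟩
  lf := by
    rintro _ ⟨y, hy, rfl⟩
    obtain ⟨r, hr, hf⟩ := F.lf y hy
    have h1 : e.symm ⁻¹' Metric.ball y r ∈ 𝓝 (e y) := by
      refine e.symm.continuous.continuousAt.preimage_mem_nhds ?_
      rw [e.symm_apply_apply]
      exact Metric.ball_mem_nhds y hr
    obtain ⟨r', hr', hb⟩ := Metric.mem_nhds_iff.1 h1
    refine ⟨r', hr', hf.subset ?_⟩
    rintro c ⟨_, ⟨x, hx, rfl⟩, hx'⟩
    have := hb hx'
    rw [mem_preimage, e.symm_apply_apply] at this
    exact ⟨x, hx, this⟩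
  card := by
    rintro _ ⟨y, hy, rfl⟩
    rw [act_image]
    exact F.card y hy
  mem A hA h := (mem_fc_image e).2 (F.mem A hA ((fc_image_nonempty e).1 h))
  rel := by
    intro A hA y hy t ht
    have hy' : e.symm y ∈ fc P A := by
      refine (mem_fc_image e).1 ?_
      rwa [e.apply_symm_apply]
    have h := F.rel A hA _ hy' t ht
    have : e (b A) + t • (y - e (b A)) = e (b A + t • (e.symm y - b A)) := by
      simp
    rw [this, act_image]
    exact h
  exit := by
    rintro _ ⟨y, hy, rfl⟩ hne
    rw [act_image] at hne ⊢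
    obtain ⟨t, ht, h⟩ := F.exit y hy (fun h => hne (by rw [← h]))
    refine ⟨t, ht, ?_⟩
    have : e (b (act P y)) + t • (e y - e (b (act P y))) =
        e (b (act P y) + t • (y - b (act P y))) := by simp
    rw [this]
    exact (mem_fc_image e).2 h

theorem K_map : K (fun c => e '' P c) = K P := by
  ext u
  simp only [K, mem_ofPred_eq, fc_image_nonempty]

theorem T_map (u : I → ℝ) : T (fun A => e (b A)) u = e (T b u) := by
  unfold T
  simp only [intervalIntegral]
  rw [e.integral_comp_comm, e.integral_comp_comm, map_sub]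

theorem sc_map (F : Foam La P b N) {y : E} (hy : y ∈ La) :
    sc (fun c => e '' P c) (fun A => e (b A)) (e y) = sc P b y := by
  refine (Foam_map e F).sc_eq_of_T ?_ ?_
  · rw [K_map]; exact F.sc_mem_K hy
  · rw [T_map, F.T_sc hy]

end transport

end Crest.Agent.R096.Brk6_582
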