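import Crest.Agent.R096.Dis1_184

/-! Row 96 (helper438), DOORS, `DIn` for the barrier families, part 3: the second half of `DIn`
given directly over the sum state

* `structure DInR` : the clauses of `DIn` for the names `Sum.inr j` of a state over
  `Sum.map fam1 fam2` (the second index type may be empty);
* **`din_sumR`** : `DIn` of the first part + `DInR` ⟹ `DIn`. -/

set_option autoImplicit false
set_option linter.unusedSectionVars false
set_option linter.style.longLine false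

open Set Topology Filter Metric Module
open scoped Classical

namespace Crest.Agent.R096.Dib_438

open Crest.Agent.R096.Msh_715 Crest.Agent.R096.Coh_184 Crest.Agent.R096.Lab_184
  Crest.Agent.R096.Main_4 Crest.Agent.R096.Agl5_543
  Crest.Agent.R096.Seq_213 Crest.Agent.R096.St_147 Crest.Agent.R096.Door_501
  Crest.Agent.R096.Twr_438 Crest.Agent.R096.Exa_560
  Crest.Agent.R096.Ess3_95 Crest.Agent.R096.Ess4_95 Crest.Agent.R096.Dfi_539
  Crest.Agent.R096.Dis_184

variable {E : Type} [NormedAddCommGroup E] [NormedSpace ℝ E] [FiniteDimensional ℝ E]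
variable {Om : Set E} {ι : Type} {T : Tiling Om ι}
variable {J1 C1 J2 C2 : Type} {fam1 : J1 → C1} {fam2 : J2 → C2}
variable {κ : Type} {Kc : κ → Set E} {h3 : finrank ℝ E = 3}

/-- **the second half of `DIn`**, over the sum state -/
structure DInR (hH : ∀ c, CoreH T (Kc c)) (s : GSt (meshC T h3) (Sum.map fam1 fam2)) (r : J2 → E)
    (Sf : J2 → Set E) (nb : κ → C2 → Prop) (v0 v1 : ∀ c, C2 → VxK T Kc c) (u : κ → C2 → E → ℝ)
    (A B : κ → C2 → ℝ) : Prop where
  h1 : ∀ j, s.H1 (Sum.inr j)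
  conn : ∀ j, s.Conn (Sum.inr j)
  root : ∀ j, r j ∈ s.P ∧ s.lab (r j) = Sum.inr j
  out : ∀ j c, r j ∉ interior (Kc c)
  dim1 : ∀ w ∈ s.P, ∀ j, s.lab w = Sum.inr j → w ∈ Om ∧ T.dim w = 1
  car : ∀ j, Car s (Sum.inr j) (Sf j)
  sub : ∀ j, Sf j ⊆ Om
  finJ : ∀ a, {j | fam2 j = a}.Finite
  nb_c : ∀ c, {a | nb c a}.Finite
  nb_a : ∀ a, {c | nb c a}.Finite
  far : ∀ c w j, w ∈ s.P → s.lab w = Sum.inr j → w ∈ frontier (Kc c) → nb c (fam2 j)
  eg : ∀ c j, nb c (fam2 j) →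
    Nonempty (EG s (Sum.inr j) (Sf j) Kc c (v0 c (fam2 j)) (v1 c (fam2 j)) (r j))
  low : ∀ c w j, w ∈ s.P → s.lab w = Sum.inr j → w ∈ frontier (Kc c) →
    u c (fam2 j) w ≤ A c (fam2 j)
  v0_lt : ∀ c a, nb c a → u c a (v0 c a).1 ≤ A c a
  v1_gt : ∀ c a, nb c a → B c a ≤ u c a (v1 c a).1
  lev : ∀ c, ∀ lvl : J2 → ℝ, (∀ i j, fam2 i = fam2 j → lvl i = lvl j → i = j) →
    ∀ Q : Set E, Q.Finite → ∃ L : C2 → Lev T (frontier (Kc c)) J2,
      (∀ a, (L a).u = u c a) ∧ (∀ a j, j ∈ (L a).J0 ↔ fam2 j = a ∧ nb c a) ∧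
      (∀ a, ∀ j ∈ (L a).J0, A c a < (L a).lv j ∧ (L a).lv j < B c a) ∧
      (∀ a, ∀ j ∈ (L a).J0, ∀ w ∈ Q, (L a).u w ≠ (L a).lv j) ∧
      (∀ a, ∀ i ∈ (L a).J0, ∀ j ∈ (L a).J0, (L a).lv i < (L a).lv j ↔ lvl i < lvl j) ∧
      (∀ a b, a ≠ b → ∀ i ∈ (L a).J0, ∀ j ∈ (L b).J0, ∀ y ∈ frontier (Kc c), T.dim y = 1 →
        (L a).u y = (L a).lv i → (L b).u y ≠ (L b).lv j) ∧
      ∀ a, ∀ j ∈ (L a).J0,
        IsPreconnected {x | x ∈ frontier (Kc c) ∧ (L a).u x = (L a).lv j} ∧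
        {x | x ∈ frontier (Kc c) ∧ (L a).u x = (L a).lv j}.Nonempty

/-- **the input of the towers for a state with two parts**: the first part through `Part`, the
second directly -/
theorem din_sumR {hH : ∀ c, CoreH T (Kc c)} {s1 : GSt (meshC T h3) fam1}
    {s : GSt (meshC T h3) (Sum.map fam1 fam2)}
    {r1 : J1 → E} {Sf1 : J1 → Set E} {nb1 : κ → C1 → Prop} {v01 v11 : ∀ c, C1 → VxK T Kc c}
    {u1 : κ → C1 → E → ℝ} {A1 B1 : κ → C1 → ℝ}
    {r2 : J2 → E} {Sf2 : J2 → Set E} {nb2 : κ → C2 → Prop} {v02 v12 : ∀ c, C2 → VxK T Kc c}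
    {u2 : κ → C2 → E → ℝ} {A2 B2 : κ → C2 → ℝ}
    (p1 : Part s1 s Sum.inl)
    (D1 : DIn hH s1 r1 Sf1 nb1 v01 v11 u1 A1 B1) (D2 : DInR hH s r2 Sf2 nb2 v02 v12 u2 A2 B2) :
    DIn hH s (Sum.elim r1 r2) (Sum.elim Sf1 Sf2) (fun c => Sum.elim (nb1 c) (nb2 c))
      (fun c => Sum.elim (v01 c) (v02 c)) (fun c => Sum.elim (v11 c) (v12 c))
      (fun c => Sum.elim (u1 c) (u2 c)) (fun c => Sum.elim (A1 c) (A2 c))
      (fun c => Sum.elim (B1 c) (B2 c)) where
  h1 := by
    rintro (j | j)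
    · exact p1.h1 (D1.h1 j)
    · exact D2.h1 j
  conn := by
    rintro (j | j)
    · exact p1.conn (D1.conn j)
    · exact D2.conn j
  root := by
    rintro (j | j)
    · exact (p1.pts _ _).2 (D1.root j)
    · exact D2.root j
  out := by
    rintro (j | j)
    · exact D1.out j
    · exact D2.out j
  dim1 := by
    intro w hw
    rcases hl : s.lab w with j | j
    · exact D1.dim1 w (p1.mem' hw hl).1
    · exact D2.dim1 w hw j hl
  car := by
    rintro (j | j)
    · exact p1.car (D1.car j)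
    · exact D2.car j
  sub := by
    rintro (j | j)
    · exact D1.sub j
    · exact D2.sub j
  finJ := by
    rintro (a | a)
    · refine ((D1.finJ a).image Sum.inl).subset ?_
      rintro (j | j) hj
      · exact ⟨j, Sum.inl_injective hj, rfl⟩
      · cases hj
    · refine ((D2.finJ a).image Sum.inr).subset ?_
      rintro (j | j) hj
      · cases hj
      · exact ⟨j, Sum.inr_injective hj, rfl⟩
  nb_c := by
    intro c
    refine (((D1.nb_c c).image Sum.inl).union ((D2.nb_c c).image Sum.inr)).subset ?_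
    rintro (a | a) ha
    · exact Or.inl ⟨a, ha, rfl⟩
    · exact Or.inr ⟨a, ha, rfl⟩
  nb_a := by
    rintro (a | a)
    · exact D1.nb_a a
    · exact D2.nb_a a
  far := by
    intro c w hw hf
    rcases hl : s.lab w with j | j
    · obtain ⟨h1, h2⟩ := p1.mem' hw hl
      have := D1.far c w h1 hf
      rw [h2] at this
      exact this
    · exact D2.far c w j hw hl hf
  eg := by
    rintro c (j | j) hn
    · exact (D1.eg c j hn).map p1.eg
    · exact D2.eg c j hn
  low := by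
    intro c w hw hf
    rcases hl : s.lab w with j | j
    · obtain ⟨h1, h2⟩ := p1.mem' hw hl
      have := D1.low c w h1 hf
      rw [h2] at this
      exact this
    · exact D2.low c w j hw hl hf
  v0_lt := by
    rintro c (a | a) hn
    · exact D1.v0_lt c a hn
    · exact D2.v0_lt c a hn
  v1_gt := by
    rintro c (a | a) hn
    · exact D1.v1_gt c a hn
    · exact D2.v1_gt c a hn
  lev := by
    intro c lvl hinj Q hQ
    obtain ⟨L1, a1, a2, a3, a4, a5, a6, a7⟩ := D1.lev c (fun j => lvl (Sum.inl j))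
      (fun i j h e => Sum.inl_injective (hinj _ _ (congrArg Sum.inl h) e)) Q hQ
    -- the points of the first levels
    have hS := sgd h3 hH c
    have hQ2 : (Q ∪ ⋃ a ∈ {a | nb1 c a}, (L1 a).PS).Finite :=
      hQ.union ((D1.nb_c c).biUnion fun a _ => (L1 a).finite_PS hS)
    obtain ⟨L2, b1, b2, b3, b4, b5, b6, b7⟩ := D2.lev c (fun j => lvl (Sum.inr j))
      (fun i j h e => Sum.inr_injective (hinj _ _ (congrArg Sum.inr h) e)) _ hQ2
    let L : C1 ⊕ C2 → Lev T (frontier (Kc c)) (J1 ⊕ J2) := fun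
      | Sum.inl a => levMap (L1 a) ⟨Sum.inl, Sum.inl_injective⟩
          (Sum.elim (L1 a).lv fun _ => 0) fun _ => rfl
      | Sum.inr a => levMap (L2 a) ⟨Sum.inr, Sum.inr_injective⟩
          (Sum.elim (fun _ => 0) (L2 a).lv) fun _ => rfl
    have hL1 : ∀ a j, j ∈ (L (Sum.inl a)).J0 ↔ ∃ j', j' ∈ (L1 a).J0 ∧ Sum.inl j' = j := fun a j =>
      Finset.mem_map
    have hL2 : ∀ a j, j ∈ (L (Sum.inr a)).J0 ↔ ∃ j', j' ∈ (L2 a).J0 ∧ Sum.inr j' = j := fun a j =>
      Finset.mem_map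
    have hmix : ∀ a b, ∀ i ∈ (L1 a).J0, ∀ j ∈ (L2 b).J0, ∀ y ∈ frontier (Kc c), T.dim y = 1 →
        (L1 a).u y = (L1 a).lv i → (L2 b).u y ≠ (L2 b).lv j := by
      intro a b i hi j hj y hy hd e
      refine b4 b j hj y (Or.inr ?_)
      exact mem_biUnion (x := a) ((a2 a i).1 hi).2 ⟨hy, hd, i, hi, e⟩
    refine ⟨L, ?_, ?_, ?_, ?_, ?_, ?_, ?_⟩
    · rintro (a | a)
      · exact a1 a
      · exact b1 a
    · rintro (a | a) j
      · rw [hL1]
        constructor
        · rintro ⟨j', hj', rfl⟩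
          obtain ⟨h1, h2⟩ := (a2 a j').1 hj'
          exact ⟨congrArg Sum.inl h1, h2⟩
        · rintro ⟨h1, h2⟩
          rcases j with j | j
          · exact ⟨j, (a2 a j).2 ⟨Sum.inl_injective h1, h2⟩, rfl⟩
          · cases h1
      · rw [hL2]
        constructor
        · rintro ⟨j', hj', rfl⟩
          obtain ⟨h1, h2⟩ := (b2 a j').1 hj'
          exact ⟨congrArg Sum.inr h1, h2⟩
        · rintro ⟨h1, h2⟩
          rcases j with j | j
          · cases h1
          · exact ⟨j, (b2 a j).2 ⟨Sum.inr_injective h1, h2⟩, rfl⟩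
    · rintro (a | a) j hj
      · obtain ⟨j', hj', rfl⟩ := (hL1 a j).1 hj
        exact a3 a j' hj'
      · obtain ⟨j', hj', rfl⟩ := (hL2 a j).1 hj
        exact b3 a j' hj'
    · rintro (a | a) j hj w hw
      · obtain ⟨j', hj', rfl⟩ := (hL1 a j).1 hj
        exact a4 a j' hj' w hw
      · obtain ⟨j', hj', rfl⟩ := (hL2 a j).1 hj
        exact b4 a j' hj' w (Or.inl hw)
    · rintro (a | a) i hi j hj
      · obtain ⟨i', hi', rfl⟩ := (hL1 a i).1 hi
        obtain ⟨j', hj', rfl⟩ := (hL1 a j).1 hj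
        exact a5 a i' hi' j' hj'
      · obtain ⟨i', hi', rfl⟩ := (hL2 a i).1 hi
        obtain ⟨j', hj', rfl⟩ := (hL2 a j).1 hj
        exact b5 a i' hi' j' hj'
    · rintro (a | a) (b | b) hab i hi j hj y hy hd e
      · obtain ⟨i', hi', rfl⟩ := (hL1 a i).1 hi
        obtain ⟨j', hj', rfl⟩ := (hL1 b j).1 hj
        exact a6 a b (fun h => hab (congrArg Sum.inl h)) i' hi' j' hj' y hy hd e
      · obtain ⟨i', hi', rfl⟩ := (hL1 a i).1 hi
        obtain ⟨j', hj', rfl⟩ := (hL2 b j).1 hj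
        exact hmix a b i' hi' j' hj' y hy hd e
      · obtain ⟨i', hi', rfl⟩ := (hL2 a i).1 hi
        obtain ⟨j', hj', rfl⟩ := (hL1 b j).1 hj
        exact fun e' => hmix b a j' hj' i' hi' y hy hd e' e
      · obtain ⟨i', hi', rfl⟩ := (hL2 a i).1 hi
        obtain ⟨j', hj', rfl⟩ := (hL2 b j).1 hj
        exact b6 a b (fun h => hab (congrArg Sum.inr h)) i' hi' j' hj' y hy hd e
    · rintro (a | a) j hj
      · obtain ⟨j', hj', rfl⟩ := (hL1 a j).1 hj
        exact a7 a j' hj'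
      · obtain ⟨j', hj', rfl⟩ := (hL2 a j).1 hj
        exact b7 a j' hj'

end Crest.Agent.R096.Dib_438
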