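import Crest.Agent.R096.Dfg1_539
import Crest.Agent.R096.Dfn5_416
import Crest.Agent.R096.Bgf11_4
import Crest.Agent.R096.Dib3_438

/-!
# R096 (row 96), DOORS_final (helper416): 539's position record `BRec` for 4's state `stB`

`bRec_stB` : `BRec` for the combined state with all barriers, from the clauses of `exists_bars`.
-/

set_option autoImplicit false
set_option linter.unusedSectionVars false
set_option linter.unusedVariables false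
set_option linter.style.longLine false

open Set Topology Filter Metric Module Relation
open scoped Classical

namespace Crest.Agent.R096.Brs_416

open Crest.Agent.R096.Msh_715 Crest.Agent.R096.Coh_184 Crest.Agent.R096.Lab_184
  Crest.Agent.R096.Main_4 Crest.Agent.R096.Agl5_543
  Crest.Agent.R096.Seq_213 Crest.Agent.R096.St_147 Crest.Agent.R096.Door_501
  Crest.Agent.R096.Exa_560 Crest.Agent.R096.Ess3_95 Crest.Agent.R096.Ess4_95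
  Crest.Agent.R096.Ess5_95
  Crest.Agent.R096.Brk1_582 Crest.Agent.R096.Brk2_582 Crest.Agent.R096.Brk3_582
  Crest.Agent.R096.Brk5_582 Crest.Agent.R096.Bsp_628 Crest.Agent.R096.Init_543
  Crest.Agent.R096.Bgf_4 Crest.Agent.R096.Bar_106 Crest.Agent.R096.Bmf_416
  Crest.Agent.R096.Dfg_539 Crest.Agent.R096.Dib_438 Crest.Agent.R096.Ebr4_95
  Crest.Agent.R096.Dfn_416
open Crest.Agent.R096.Mbf_337 (KJ Tiny Cores sb)
open Crest.Agent.R096.SkC1_961 (E3 FoamD Hom3)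
open Crest.Agent.R096.Frn_337 (Ti)
open Crest.Agent.R096.Ess7_95 (KT)
open Crest.Agent.R096.Dia_316 (nbT)

variable {δ κ0 R c0 : ℝ} {La Om : Set E3} {ι : Type} {Φ : FoamD δ κ0 R c0 La} {T : Tiling Om ι}
  {f g : E3 → E3} {κ1 κ2 μ : ℝ} {X : Set Φ.F} {J0 J V : Φ.F → Set ι}
  {ct ct' : Φ.F → ι} {A : Φ.F → E3 ≃ᵃ[ℝ] E3} {lam : Φ.F → ℝ} {z : Φ.F → E3}
  {θ : Φ.F → E3 → E3} {φ : Φ.F → E3 → ℝ} {r₀ : Φ.F → ℝ}
  {L : Φ.F → Finset ℝ} [Nonempty (JJ Φ L)] {hG : GF Φ r₀ T f L} {bp : JJ Φ L → E3}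
  {ρ1 ρ2 ρ3 ρ4 d : Φ.F → ℝ} {l0 mm ra sg : ℝ}

/-- the coordinates of a point near a tiny core -/
theorem lev01_of (hLa : IsOpen La) (H : Hm f g Om La) {c : Φ.F} {J0 J V : Set ι} {θ : E3 → E3}
    {φ : E3 → ℝ} {ρ1 ρ2 ρ3 ρ4 d : ℝ} (hT : Tiny Φ T f κ1 c J0 J V θ φ)
    (hr : Rm Φ T f c J0 J V θ ρ1 ρ2 ρ3 ρ4 d) {w : E3} (hw : w ∈ Om) (h1 : ρ1 ≤ ga Φ c (f w))
    (h4 : ga Φ c (f w) ≤ ρ4) (e : Φ.F) : 0 ≤ Φ.lev e (f w) ∧ Φ.lev e (f w) ≤ 1 := by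
  obtain ⟨i, hi⟩ := T.cov w hw
  obtain ⟨g3, g4⟩ := hr.tile hi h1 h4
  exact Dib_438.sb_mem hLa (Bgf_4.psi_tile hLa H hT hr g3 g4 hi).2 e

/-- **539's `BRec` FOR 4's STATE** -/
theorem bRec_stB (hLa : IsOpen La) (hδ : 0 < δ) (hR0 : 0 < R) (hκ1 : 0 ≤ κ1)
    (hκμ : (2 * Cn δ R + 1) * κ1 ≤ μ / 2)
    (hR : InitR Φ T f g J0 ct' r₀) (hC : Cores Φ T f κ1 κ2 X J0 J V ct A lam z θ φ)
    (hm : ∀ c, ∀ t ∈ L c, μ ≤ t ∧ t ≤ 1 - μ)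
    (hRm : ∀ c ∉ X, Rm Φ T f c (J0 c) (J c) (V c) (θ c) (ρ1 c) (ρ2 c) (ρ3 c) (ρ4 c) (d c))
    {ε : BM Φ X → ℝ} {bm : BM Φ X → E3}
    {hGB : GFB Φ r₀ T f L (lBM Φ X ρ1 ρ3 d sg l0 mm ra) ε}
    (hε : ∀ m, ε m ∈ Ioo 1 (hiB ρ1 ρ3 d sg m.co))
    (hext : Ext (st0 hG bp) (stB hGB bp bm))
    (hpos : ∀ m, ∀ w ∈ (stB hGB bp bm).P, (stB hGB bp bm).lab w = Sum.inr m →
        w ∈ Om ∧ T.dim w = 1 ∧ lBM Φ X ρ1 ρ3 d sg l0 mm ra m (f w) = ε m ∧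
        (∀ i, w ∈ P (T.H i) → i ∈ V m.co) ∧
        (rB ρ1 ρ3 d m.co - hB ρ1 ρ3 d m.co * ε m ≤ ga Φ m.co (f w) ∧
          ga Φ m.co (f w) ≤ rB ρ1 ρ3 d m.co + hB ρ1 ρ3 d m.co * ε m ∧
          gmf Φ l0 mm ra m.am m.Zm (Φ.Psi (f w)) ≤ ε m ∧
          (ga Φ m.co (f w) = rB ρ1 ρ3 d m.co - hB ρ1 ρ3 d m.co * ε m ∨
            ga Φ m.co (f w) = rB ρ1 ρ3 d m.co + hB ρ1 ρ3 d m.co * ε m ∨
            gmf Φ l0 mm ra m.am m.Zm (Φ.Psi (f w)) = ε m)))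
    {v0 v1 : ∀ c, Φ.F → VxK T (KT T J X) c}
    (h0 : ∀ (c : {c : Φ.F // c ∉ X}) a, nbT Φ X c a →
        sb Φ (θ c.1 (v0 c a).1) a ≤ (2 * Cn δ R + 1) * κ1)
    (h1 : ∀ (c : {c : Φ.F // c ∉ X}) a, nbT Φ X c a →
        1 - (2 * Cn δ R + 1) * κ1 ≤ sb Φ (θ c.1 (v1 c a).1) a)
    {nb2 : Ti X → BM Φ X → Prop} {v02 v12 : ∀ c, BM Φ X → VxK T (KT T J X) c}
    {u2 : Ti X → BM Φ X → E3 → ℝ} {A2 B2 : Ti X → BM Φ X → ℝ} {W0 W1 : ℝ}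
    (hnb2 : ∀ c m, nb2 c m ↔ coT m = c)
    (hu2 : ∀ c m x, u2 c m x = Fs (Nb Φ hLa c.1) m.am m.Zm (sb Φ (θ c.1 x)))
    (hA2 : ∀ c m, A2 c m = W0) (hB2 : ∀ c m, B2 c m = W1) :
    BRec hLa (stB hGB bp bm) f X J θ coT BM.am BM.Zm
      (fun c => Sum.elim (nbT Φ X c) (nb2 c))
      (fun c => Sum.elim (v0 c) (v02 c)) (fun c => Sum.elim (v1 c) (v12 c))
      (fun c => Sum.elim (fun a x => sb Φ (θ c.1 x) a) (u2 c))
      (fun c => Sum.elim (fun _ => 1 - μ + Cn δ R * κ1) (A2 c))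
      (fun c => Sum.elim (fun _ => 1 - μ / 2) (B2 c))
      μ (Cn δ R * κ1) l0 mm ra (1 + sg) W0 W1 where
  nbl := fun c a => Iff.rfl
  ul := fun c a x => rfl
  Al := fun c a => rfl
  Bl := fun c a => rfl
  v0l := fun c a hn => (h0 c a hn).trans hκμ
  v1l := fun c a hn => by
    have := h1 c a hn
    show 1 - μ / 2 ≤ sb Φ (θ c.1 (v1 c a).1) a
    linarith
  trl := fun w hw j hl => by
    obtain ⟨g1, g2⟩ := hext.of_lab hw hl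
    have g3 := (st0_mem hLa hR g1).2.2
    rw [g2] at g3
    rw [g3]
    exact hm j.1 j.2.1 j.2.2
  mo := fun m => m.mo
  nbm := fun c m => hnb2 c m
  um := fun c m x => hu2 c m x
  Am := fun c m => hA2 c m
  Bm := fun c m => hB2 c m
  trm := fun w hw m hl => by
    obtain ⟨g1, g2, g3, g4, g5, g6, g7, -⟩ := hpos m w hw hl
    have hr := hRm m.co m.co_notMem
    have hh : 0 < hB ρ1 ρ3 d m.co := by
      unfold hB
      linarith [hr.r12, hr.r23, hr.d0]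
    have e1 := hB_mul_hiB (ρ1 := ρ1) (ρ3 := ρ3) (d := d) (sg := sg) hh
    have e2 : hB ρ1 ρ3 d m.co * ε m ≤ hB ρ1 ρ3 d m.co * hiB ρ1 ρ3 d sg m.co :=
      mul_le_mul_of_nonneg_left (hε m).2.le hh.le
    have e3 := rB_sub (ρ1 := ρ1) (ρ3 := ρ3) (d := d) m.co
    have e4 := rB_add (ρ1 := ρ1) (ρ3 := ρ3) (d := d) m.co
    refine ⟨fun e => lev01_of hLa hR.hm (hC.tiny m.co m.co_notMem) hr g1
      (by linarith [hr.d0]) (by linarith [hr.d0, hr.r34]) e, ?_⟩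
    have e5 : gmf Φ l0 mm ra m.am m.Zm (Φ.Psi (f w)) ≤ 1 + sg :=
      g7.trans ((hε m).2.le.trans (hiB_le sg m.co))
    exact e5

end Crest.Agent.R096.Brs_416
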