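import Crest.Agent.R096.Dfi5_471
import Crest.Agent.R096.Cg1_501
import Crest.Agent.R096.Sgd2_298
import Crest.Agent.R096.Bar1_106

/-!
# Row 96, DOORS (helper344): where the points of a barrier are in the state with layers `s2`

* `loc2`      : a property of the points of one name on the outer state, on the exact curves and at
  the vertices with `Rgn` holds, for every point of the name in `s2` on a cell `p`, at a point of the
  `T`-tile of `p`;
* `exists_inl`: every face of the inner mesh has a side which is a cell outside the cores;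
* `bsep2`     : `BSep` for `s2` from the separation of the boxes;
* `nb2_cell`  : no barrier points of the family `a` on the faces of a cell.
-/

set_option autoImplicit false
set_option linter.unusedSectionVars false
set_option linter.style.longLine false

open Set Module
open scoped Classical

namespace Crest.Agent.R096.Bse_344

open Crest.Agent.R096.Msh_715 Crest.Agent.R096.Agl5_543 Crest.Agent.R096.St_147
  Crest.Agent.R096.Seq_213 Crest.Agent.R096.Door_501 Crest.Agent.R096.Sla_184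
  Crest.Agent.R096.Twr_438 Crest.Agent.R096.Exa_560 Crest.Agent.R096.Ess3_95
  Crest.Agent.R096.Ess4_95 Crest.Agent.R096.Dfi_539 Crest.Agent.R096.Dfi_471
  Crest.Agent.R096.Cg_501 Crest.Agent.R096.Sgd_298

variable {E : Type} [NormedAddCommGroup E] [NormedSpace ℝ E] [FiniteDimensional ℝ E]
variable {Om : Set E} {ι : Type} {T : Tiling Om ι} {κ : Type} {S : Sla T κ}
  {h3 : finrank ℝ E = 3}

section loc

variable {J C : Type} {fam : J → C} [Nonempty J]
  {s : GSt (meshC T h3) fam} {r : J → E} {Sf : J → Set E} {nb : κ → C → Prop}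
  {v0 v1 : ∀ c, C → VxK T S.K c} {u : κ → C → E → ℝ} {A B : κ → C → ℝ}
  {L : ∀ c, C → Lev T (frontier (S.K c)) J}
  {Tw : Twrs (S.sh h3) S.n (outK S.hH S.dis s r)} {l0 : E → J} {w : E}

/-- **location of the points of the name `n` of `s2`** -/
theorem loc2 (D : DIn S.hH s r Sf nb v0 v1 u A B) (lo : LevOut s nb u A B L)
    (tt : TwOut S h3 s r v0 v1 L Tw) {n : J} (Bx : E → Prop)
    (htr : ∀ w ∈ s.P, s.lab w = n → Bx w)
    (hex : ∀ c, nb c (fam n) → ∀ x ∈ frontier (S.K c), A c (fam n) < u c (fam n) x →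
      u c (fam n) x < B c (fam n) → Bx x)
    (hR : ∀ c, nb c (fam n) → ∀ v : S.Vx c,
      Rgn (S.sh h3 c) (v0 c (fam n)) (v1 c (fam n)) (trc S.hH S.dis s r c (fam n))
        (exa h3 S.hH S.dis (L c (fam n))) n v → Bx v.1)
    (hw : w ∈ (s2 S h3 Tw l0).P) (hl : (s2 S h3 Tw l0).lab w = n)
    {p : T.RIdx S.HH} (hp : w ∈ P (S.T3.H p)) : ∃ x ∈ P (T.H p.tile), Bx x := by
  have hpw : w ∈ P (T.H p.tile) := Sla.P3_sub p hp
  have hO : w ∈ Om := (s2_dim hw).1
  rcases Sla.out_or (S := S) hO with ho | ⟨c, hc⟩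
  · obtain ⟨h1, h2, -⟩ := out2 hw ho
    exact ⟨w, hpw, htr w h1 (h2.symm.trans hl)⟩
  · have hn := (in2 D lo tt hw hc).1
    obtain ⟨q, h1, -, h2, h4⟩ := base2 D lo tt hw hc
    have hq : q ∈ P (T.H p.tile) := by
      have h5 : p.tile ∈ T.at_ w := hpw
      rw [h2] at h5
      exact h5.1
    refine ⟨q, hq, ?_⟩
    rw [hl] at hn
    rcases h4 with ⟨h5, h6⟩ | ⟨i, h5, -, h7⟩ | ⟨v, h5, h6⟩
    · exact htr q h5 (h6.trans hl)
    · have h8 := lo.win c _ i h5
      rw [hl] at h7 h8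
      exact hex c hn q h1 (by rw [h7]; exact h8.1) (by rw [h7]; exact h8.2)
    · rw [hl] at h6
      rw [← h5]
      exact hR c hn v h6

/-- in a core only the names with `nb` -/
theorem core2 (D : DIn S.hH s r Sf nb v0 v1 u A B) (lo : LevOut s nb u A B L)
    (tt : TwOut S h3 s r v0 v1 L Tw) {n : J} (hw : w ∈ (s2 S h3 Tw l0).P)
    (hl : (s2 S h3 Tw l0).lab w = n) {c : κ} (hc : w ∈ S.K c) : nb c (fam n) := by
  have := nb2 D lo tt hw hc
  rwa [hl] at this

end loc

section mesh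

/-- a cell outside the remaining cores at a face: the points of the face are in the cell -/
theorem side_inl {F : S.Fn h3} {w : E} (hw : w ∈ (S.mn h3).On F) {p : T.RIdx S.HH}
    (hp : Sum.inl p ∈ (S.mn h3).side F) :
    w ∈ P (S.T3.H p) ∧ ∀ k, ¬ P (S.T3.H p) ⊆ S.KK k := by
  have h1 : Sum.inl p ∈ ((meshC S.T3 h3).side F.1).map (piK S.T3 S.KK) := hp
  rw [mem_map_iff] at h1
  obtain ⟨q', h2, h4⟩ := h1
  obtain ⟨rfl, h5⟩ := piK_inl.1 h4
  exact ⟨C2.sub_tile (h3 := h3) h2 hw.1, h5⟩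

/-- a remaining core at a face: the points of the face are in the core -/
theorem side_inr {F : S.Fn h3} {w : E} (hw : w ∈ (S.mn h3).On F) {c : κ}
    (hc : Sum.inr c ∈ (S.mn h3).side F) : w ∈ S.KK c := by
  have h1 : Sum.inr c ∈ ((meshC S.T3 h3).side F.1).map (piK S.T3 S.KK) := hc
  rw [mem_map_iff] at h1
  obtain ⟨q', h2, h4⟩ := h1
  exact (piK_inr Sla.dis_KK).1 h4 (C2.sub_tile (h3 := h3) h2 hw.1)

/-- **every face with a point has a side which is a cell outside the remaining cores** -/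
theorem exists_inl {F : S.Fn h3} {w : E} (hw : w ∈ (S.mn h3).On F) :
    ∃ p, Sum.inl p ∈ (S.mn h3).side F := by
  have hd := F.2
  have hs : (S.mn h3).side F = ((meshC S.T3 h3).side F.1).map (piK S.T3 S.KK) := rfl
  rw [← hs] at hd
  have key : ∀ z, z = (S.mn h3).side F → ∃ p, Sum.inl p ∈ z := by
    intro z
    induction z using Sym2.ind with
    | _ x y =>
      intro hz
      have hx : x ∈ (S.mn h3).side F := by rw [← hz]; exact Sym2.mem_mk_left _ _
      have hy : y ∈ (S.mn h3).side F := by rw [← hz]; exact Sym2.mem_mk_right _ _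
      rcases x with p | c
      · exact ⟨p, Sym2.mem_mk_left _ _⟩
      rcases y with p | c'
      · exact ⟨p, Sym2.mem_mk_right _ _⟩
      exfalso
      by_cases hcc : c = c'
      · apply hd
        rw [← hz, hcc]
        exact rfl
      · exact Set.disjoint_left.1 (Sla.dis_KK c c' hcc) (side_inr hw hx) (side_inr hw hy)
  exact key _ rfl

end mesh

section bar

variable {J C Mo : Type} {fam : J → C} [Nonempty (J ⊕ Mo)]
  {s₂ : GSt (S.mn h3) (Sum.map fam (id : Mo → Mo))} {am : Mo → C}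

/-- **`BSep`** : no face carries points of two barriers of the same family -/
theorem bsep2 {Bx : Mo → E → Prop}
    (hloc : ∀ w ∈ s₂.P, ∀ m, s₂.lab w = Sum.inr m → ∀ p : T.RIdx S.HH,
      (∀ k, ¬ P (S.T3.H p) ⊆ S.KK k) → w ∈ P (S.T3.H p) → ∃ x ∈ P (T.H p.tile), Bx m x)
    (hsep : ∀ p : T.RIdx S.HH, (∀ k, ¬ P (S.T3.H p) ⊆ S.KK k) → ∀ x ∈ P (T.H p.tile),
      ∀ x' ∈ P (T.H p.tile), ∀ m m', Bx m x → Bx m' x' → am m = am m' → m = m') :
    BSep s₂ am := by
  intro F w x m m' hw hx hlw hlx ham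
  obtain ⟨p, hp⟩ := exists_inl hw.2
  obtain ⟨h1, h2⟩ := side_inl hw.2 hp
  obtain ⟨h4, -⟩ := side_inl hx.2 hp
  obtain ⟨y, hy, hyB⟩ := hloc w hw.1 m hlw p h2 h1
  obtain ⟨y', hy', hyB'⟩ := hloc x hx.1 m' hlx p h2 h4
  exact hsep p h2 y hy y' hy' m m' hyB hyB' ham

/-- **no barrier points of `a` on the faces of a cell** whose tile has a point with `Nx` -/
theorem nb2_cell {Bx : Mo → E → Prop}
    (hloc : ∀ w ∈ s₂.P, ∀ m, s₂.lab w = Sum.inr m → ∀ p : T.RIdx S.HH,
      (∀ k, ¬ P (S.T3.H p) ⊆ S.KK k) → w ∈ P (S.T3.H p) → ∃ x ∈ P (T.H p.tile), Bx m x)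
    {a : C} {p : T.RIdx S.HH} (hp : ∀ k, ¬ P (S.T3.H p) ⊆ S.KK k)
    (hno : ∀ m, am m = a → ∀ x ∈ P (T.H p.tile), ¬ Bx m x) {F : S.Fn h3}
    (hF : Sum.inl p ∈ (S.mn h3).side F) : NB s₂ am a F := by
  intro x m hx hl ham
  obtain ⟨h1, -⟩ := side_inl hx.2 hF
  obtain ⟨y, hy, hyB⟩ := hloc x hx.1 m hl p hp h1
  exact hno m ham y hy hyB

end bar

end Crest.Agent.R096.Bse_344
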