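import Mathlib

/-!
# Row 96, U1 / FOAM-EX (helper628), part 1: boxes, binary cuts with pairwise different positions

`Bx κ` = axis-parallel box in `κ → ℝ` (`κ` a finite type), `child P i t b` = the two halves of a cut,
`node D Q p` = the box of the node `p : List Bool` of the tree of binary cuts (the head of the list is
the LAST cut; the cut at `q` is perpendicular to the longest side, at a position in `D q`, in the middle
third). If the sets `D q` are pairwise disjoint, two nodes which are not nested are opposite in exactly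
one coordinate at every common point.
-/

set_option autoImplicit false
set_option linter.unusedSectionVars false

open Set

namespace Crest.Agent.R096.Bsp_628

variable {κ : Type*}

/-- an axis-parallel box (data) -/
structure Bx (κ : Type*) where
  lo : κ → ℝ
  hi : κ → ℝ

namespace Bx

/-- all sides have positive length -/
def Pos (Q : Bx κ) : Prop := ∀ i, Q.lo i < Q.hi i

/-- length of the side `i` -/
def side (Q : Bx κ) (i : κ) : ℝ := Q.hi i - Q.lo i

/-- the closed box as a set -/
def set (Q : Bx κ) : Set (κ → ℝ) := Icc Q.lo Q.hi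

/-- aspect at most `3` -/
def Asp (Q : Bx κ) : Prop := ∀ i j, Q.side j ≤ 3 * Q.side i

theorem mem_set {Q : Bx κ} {x : κ → ℝ} : x ∈ Q.set ↔ ∀ i, Q.lo i ≤ x i ∧ x i ≤ Q.hi i := by
  constructor
  · intro h i
    exact ⟨h.1 i, h.2 i⟩
  · intro h
    exact ⟨fun i => (h i).1, fun i => (h i).2⟩

theorem side_pos {Q : Bx κ} (h : Q.Pos) (i : κ) : 0 < Q.side i := sub_pos.2 (h i)

/-- `Q` inside `P`, coordinatewise -/
def Le (Q P : Bx κ) : Prop := ∀ i, P.lo i ≤ Q.lo i ∧ Q.hi i ≤ P.hi i

theorem Le.refl (Q : Bx κ) : Q.Le Q := fun _ => ⟨le_rfl, le_rfl⟩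

theorem Le.trans {Q P R : Bx κ} (h : Q.Le P) (h' : P.Le R) : Q.Le R :=
  fun i => ⟨(h' i).1.trans (h i).1, (h i).2.trans (h' i).2⟩

theorem Le.subset {Q P : Bx κ} (h : Q.Le P) : Q.set ⊆ P.set := by
  intro x hx
  rw [mem_set] at hx ⊢
  exact fun i => ⟨(h i).1.trans (hx i).1, (hx i).2.trans (h i).2⟩

theorem Le.side_le {Q P : Bx κ} (h : Q.Le P) (i : κ) : Q.side i ≤ P.side i := by
  have := h i
  unfold side
  linarith

end Bx

/-- the boxes are on opposite sides of `x` in direction `i` -/
def Opp (Q Q' : Bx κ) (x : κ → ℝ) (i : κ) : Prop :=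
  (x i = Q.hi i ∧ x i = Q'.lo i) ∨ (x i = Q.lo i ∧ x i = Q'.hi i)

theorem Opp.symm {Q Q' : Bx κ} {x : κ → ℝ} {i : κ} (h : Opp Q Q' x i) : Opp Q' Q x i := by
  rcases h with h | h
  · exact Or.inr ⟨h.2, h.1⟩
  · exact Or.inl ⟨h.2, h.1⟩

theorem opp_comm {Q Q' : Bx κ} {x : κ → ℝ} {i : κ} : Opp Q Q' x i ↔ Opp Q' Q x i :=
  ⟨Opp.symm, Opp.symm⟩

section Cut

variable [DecidableEq κ]

/-- the two halves of a box cut at `x i = t`: `false` = lower half, `true` = upper half -/
def child (P : Bx κ) (i : κ) (t : ℝ) (b : Bool) : Bx κ :=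
  if b then ⟨Function.update P.lo i t, P.hi⟩ else ⟨P.lo, Function.update P.hi i t⟩

theorem child_true_lo (P : Bx κ) (i : κ) (t : ℝ) :
    (child P i t true).lo = Function.update P.lo i t := rfl

theorem child_true_hi (P : Bx κ) (i : κ) (t : ℝ) : (child P i t true).hi = P.hi := rfl

theorem child_false_lo (P : Bx κ) (i : κ) (t : ℝ) : (child P i t false).lo = P.lo := rfl

theorem child_false_hi (P : Bx κ) (i : κ) (t : ℝ) :
    (child P i t false).hi = Function.update P.hi i t := rfl

theorem child_pos {P : Bx κ} (h : P.Pos) {i : κ} {t : ℝ} (h1 : P.lo i < t) (h2 : t < P.hi i)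
    (b : Bool) : (child P i t b).Pos := by
  intro j
  by_cases hj : j = i
  · subst hj
    cases b
    · simpa [child_false_lo, child_false_hi] using h1
    · simpa [child_true_lo, child_true_hi] using h2
  · cases b
    · simpa [child_false_lo, child_false_hi, Function.update_of_ne hj] using h j
    · simpa [child_true_lo, child_true_hi, Function.update_of_ne hj] using h j

theorem child_le {P : Bx κ} {i : κ} {t : ℝ} (h1 : P.lo i ≤ t) (h2 : t ≤ P.hi i)
    (b : Bool) : (child P i t b).Le P := by
  intro j
  by_cases hj : j = i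
  · subst hj
    cases b
    · simpa [child_false_lo, child_false_hi] using h2
    · simpa [child_true_lo, child_true_hi] using h1
  · cases b
    · simp [child_false_lo, child_false_hi, Function.update_of_ne hj]
    · simp [child_true_lo, child_true_hi, Function.update_of_ne hj]

/-- every point of the box is in one of the halves -/
theorem mem_child {P : Bx κ} {i : κ} {t : ℝ} {x : κ → ℝ} (hx : x ∈ P.set) :
    ∃ b, x ∈ (child P i t b).set := by
  rw [Bx.mem_set] at hx
  rcases le_total (x i) t with h | h
  · refine ⟨false, Bx.mem_set.2 fun j => ?_⟩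
    by_cases hj : j = i
    · subst hj
      simpa [child_false_lo, child_false_hi] using ⟨(hx j).1, h⟩
    · simpa [child_false_lo, child_false_hi, Function.update_of_ne hj] using hx j
  · refine ⟨true, Bx.mem_set.2 fun j => ?_⟩
    by_cases hj : j = i
    · subst hj
      simpa [child_true_lo, child_true_hi] using ⟨h, (hx j).2⟩
    · simpa [child_true_lo, child_true_hi, Function.update_of_ne hj] using hx j

end Cut

/-! ### lists of Booleans -/

theorem suffix_step {p p' : List Bool} (h : p <:+ p') : p = p' ∨ ∃ c, (c :: p) <:+ p' := by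
  obtain ⟨t, rfl⟩ := h
  rcases List.eq_nil_or_concat t with rfl | ⟨t', c, rfl⟩
  · left; simp
  · right
    exact ⟨c, t', by simp⟩

/-- two nodes are nested or they separate at a last common ancestor -/
theorem lca (p p' : List Bool) :
    p <:+ p' ∨ p' <:+ p ∨ ∃ q b, (b :: q) <:+ p ∧ ((!b) :: q) <:+ p' := by
  induction p with
  | nil => exact Or.inl (List.nil_suffix)
  | cons a p ih =>
    rcases ih with h | h | ⟨q, b, h1, h2⟩
    · rcases suffix_step h with h | ⟨c, h⟩
      · subst h
        exact Or.inr (Or.inl (List.suffix_cons _ _))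
      · by_cases hc : c = a
        · subst hc
          exact Or.inl h
        · refine Or.inr (Or.inr ⟨p, a, List.suffix_refl _, ?_⟩)
          have : (!a) = c := by
            cases a <;> cases c <;> simp_all
          rw [this]
          exact h
    · exact Or.inr (Or.inl (h.trans (List.suffix_cons _ _)))
    · exact Or.inr (Or.inr ⟨q, b, h1.trans (List.suffix_cons _ _), h2⟩)

theorem branch_unique {p q : List Bool} {b c : Bool} (h1 : (b :: q) <:+ p) (h2 : (c :: q) <:+ p) :
    b = c := by
  have h3 := List.suffix_of_suffix_length_le h1 h2 (by simp)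
  have h4 := h3.eq_of_length (by simp)
  simpa using h4

/-- the node at which two paths separate is unique -/
theorem lca_unique {p p' q q' : List Bool} {b c : Bool}
    (h1 : (b :: q) <:+ p) (h2 : ((!b) :: q) <:+ p')
    (h3 : (c :: q') <:+ p) (h4 : ((!c) :: q') <:+ p') : q = q' ∧ b = c := by
  rcases le_total (b :: q).length (c :: q').length with hl | hl
  · have h5 := List.suffix_of_suffix_length_le h1 h3 hl
    rw [List.suffix_cons_iff] at h5
    rcases h5 with h5 | h5
    · simp only [List.cons.injEq] at h5
      exact ⟨h5.2, h5.1⟩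
    · exfalso
      have h6 : (b :: q) <:+ p' := (h5.trans (List.suffix_cons _ _)).trans h4
      have := branch_unique h6 h2
      cases b <;> simp at this
  · have h5 := List.suffix_of_suffix_length_le h3 h1 hl
    rw [List.suffix_cons_iff] at h5
    rcases h5 with h5 | h5
    · simp only [List.cons.injEq] at h5
      exact ⟨h5.2.symm, h5.1.symm⟩
    · exfalso
      have h6 : (c :: q') <:+ p' := (h5.trans (List.suffix_cons _ _)).trans h2
      have := branch_unique h6 h4
      cases c <;> simp at this

/-! ### the tree of cuts -/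

section Tree

variable [Fintype κ] [Nonempty κ]

/-- the longest side -/
noncomputable def ax (P : Bx κ) : κ := (Finite.exists_max P.side).choose

theorem side_le_ax (P : Bx κ) (j : κ) : P.side j ≤ P.side (ax P) :=
  (Finite.exists_max P.side).choose_spec j

/-- a position in `D`, in the middle third of the longest side -/
noncomputable def cutpos (D : Set ℝ) (P : Bx κ) : ℝ := by
  classical
  exact if h : ∃ t ∈ D, P.lo (ax P) + P.side (ax P) / 3 < t ∧
    t < P.lo (ax P) + 2 * (P.side (ax P) / 3) then h.choose else 0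

theorem cutpos_spec {D : Set ℝ} (hD : Dense D) {P : Bx κ} (hP : P.Pos) :
    cutpos D P ∈ D ∧ P.lo (ax P) + P.side (ax P) / 3 < cutpos D P ∧
      cutpos D P < P.lo (ax P) + 2 * (P.side (ax P) / 3) := by
  have hs := Bx.side_pos hP (ax P)
  have h : ∃ t ∈ D, P.lo (ax P) + P.side (ax P) / 3 < t ∧
      t < P.lo (ax P) + 2 * (P.side (ax P) / 3) := by
    obtain ⟨t, h1, h2⟩ := hD.exists_between
      (show P.lo (ax P) + P.side (ax P) / 3 < P.lo (ax P) + 2 * (P.side (ax P) / 3) by linarith)
    exact ⟨t, h1, h2⟩
  unfold cutpos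
  rw [dif_pos h]
  exact ⟨h.choose_spec.1, h.choose_spec.2.1, h.choose_spec.2.2⟩

variable [DecidableEq κ]

/-- the box of a node -/
noncomputable def node (D : List Bool → Set ℝ) (Q : Bx κ) : List Bool → Bx κ
  | [] => Q
  | b :: p => child (node D Q p) (ax (node D Q p)) (cutpos (D p) (node D Q p)) b

theorem node_nil (D : List Bool → Set ℝ) (Q : Bx κ) : node D Q [] = Q := rfl

theorem node_cons (D : List Bool → Set ℝ) (Q : Bx κ) (b : Bool) (p : List Bool) :
    node D Q (b :: p) = child (node D Q p) (ax (node D Q p)) (cutpos (D p) (node D Q p)) b := rfl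

variable {D : List Bool → Set ℝ} {Q : Bx κ}

theorem cutpos_mid (hD : ∀ p, Dense (D p)) {P : Bx κ} (hP : P.Pos) (p : List Bool) :
    P.lo (ax P) < cutpos (D p) P ∧ cutpos (D p) P < P.hi (ax P) := by
  have h := cutpos_spec (hD p) hP
  have hs := Bx.side_pos hP (ax P)
  have hs' : P.side (ax P) = P.hi (ax P) - P.lo (ax P) := rfl
  constructor <;> linarith [h.2.1, h.2.2]

theorem node_pos (hD : ∀ p, Dense (D p)) (hQ : Q.Pos) (p : List Bool) : (node D Q p).Pos := by
  induction p with
  | nil => exact hQ
  | cons b p ih =>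
    rw [node_cons]
    have h := cutpos_mid hD ih p
    exact child_pos ih h.1 h.2 b

theorem node_le_cons (hD : ∀ p, Dense (D p)) (hQ : Q.Pos) (b : Bool) (p : List Bool) :
    (node D Q (b :: p)).Le (node D Q p) := by
  rw [node_cons]
  have h := cutpos_mid hD (node_pos hD hQ p) p
  exact child_le h.1.le h.2.le b

theorem node_le (hD : ∀ p, Dense (D p)) (hQ : Q.Pos) {p q : List Bool} (h : q <:+ p) :
    (node D Q p).Le (node D Q q) := by
  induction p with
  | nil =>
    rw [List.suffix_nil] at h
    subst h
    exact Bx.Le.refl _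
  | cons b p ih =>
    rw [List.suffix_cons_iff] at h
    rcases h with rfl | h
    · exact Bx.Le.refl _
    · exact (node_le_cons hD hQ b p).trans (ih h)

/-- where the upper walls of a node come from -/
theorem hi_cases (p : List Bool) (i : κ) :
    (node D Q p).hi i = Q.hi i ∨ ∃ q, (false :: q) <:+ p ∧ ax (node D Q q) = i ∧
      (node D Q p).hi i = cutpos (D q) (node D Q q) := by
  induction p with
  | nil => exact Or.inl rfl
  | cons b p ih =>
    rw [node_cons]
    cases b with
    | true =>
      rw [child_true_hi]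
      rcases ih with ih | ⟨q, h1, h2, h3⟩
      · exact Or.inl ih
      · exact Or.inr ⟨q, h1.trans (List.suffix_cons _ _), h2, h3⟩
    | false =>
      rw [child_false_hi]
      by_cases hi : i = ax (node D Q p)
      · right
        refine ⟨p, List.suffix_refl _, hi.symm, ?_⟩
        rw [hi, Function.update_self]
      · rw [Function.update_of_ne hi]
        rcases ih with ih | ⟨q, h1, h2, h3⟩
        · exact Or.inl ih
        · exact Or.inr ⟨q, h1.trans (List.suffix_cons _ _), h2, h3⟩

/-- where the lower walls of a node come from -/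
theorem lo_cases (p : List Bool) (i : κ) :
    (node D Q p).lo i = Q.lo i ∨ ∃ q, (true :: q) <:+ p ∧ ax (node D Q q) = i ∧
      (node D Q p).lo i = cutpos (D q) (node D Q q) := by
  induction p with
  | nil => exact Or.inl rfl
  | cons b p ih =>
    rw [node_cons]
    cases b with
    | false =>
      rw [child_false_lo]
      rcases ih with ih | ⟨q, h1, h2, h3⟩
      · exact Or.inl ih
      · exact Or.inr ⟨q, h1.trans (List.suffix_cons _ _), h2, h3⟩
    | true =>
      rw [child_true_lo]
      by_cases hi : i = ax (node D Q p)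
      · right
        refine ⟨p, List.suffix_refl _, hi.symm, ?_⟩
        rw [hi, Function.update_self]
      · rw [Function.update_of_ne hi]
        rcases ih with ih | ⟨q, h1, h2, h3⟩
        · exact Or.inl ih
        · exact Or.inr ⟨q, h1.trans (List.suffix_cons _ _), h2, h3⟩

/-- separated nodes: the wall of the last common ancestor is between them -/
theorem sep_wall (hD : ∀ p, Dense (D p)) (hQ : Q.Pos) {p p' q : List Bool}
    (h1 : (false :: q) <:+ p) (h2 : (true :: q) <:+ p') :
    (node D Q p).hi (ax (node D Q q)) ≤ cutpos (D q) (node D Q q) ∧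
      cutpos (D q) (node D Q q) ≤ (node D Q p').lo (ax (node D Q q)) := by
  constructor
  · have h3 := (node_le hD hQ h1 (ax (node D Q q))).2
    rw [node_cons, child_false_hi, Function.update_self] at h3
    exact h3
  · have h3 := (node_le hD hQ h2 (ax (node D Q q))).1
    rw [node_cons, child_true_lo, Function.update_self] at h3
    exact h3

/-- the case in which `p` is on the lower side -/
theorem simple_aux (hD : ∀ p, Dense (D p)) (hdis : ∀ p q t, t ∈ D p → t ∈ D q → p = q)
    (hQ : Q.Pos) {p p' q : List Bool} (h1 : (false :: q) <:+ p) (h2 : (true :: q) <:+ p')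
    {x : κ → ℝ} (hx : x ∈ (node D Q p).set) (hx' : x ∈ (node D Q p').set) :
    ∃! i, Opp (node D Q p) (node D Q p') x i := by
  have hw := sep_wall hD hQ h1 h2
  have hx1 := Bx.mem_set.1 hx
  have hx2 := Bx.mem_set.1 hx'
  have hpos := fun r => node_pos (D := D) hD hQ r
  have hcut := fun r => (cutpos_spec (hD r) (hpos r)).1
  have hle := fun r => node_le (D := D) hD hQ (List.nil_suffix (l := r))
  refine ⟨ax (node D Q q), Or.inl ⟨?_, ?_⟩, ?_⟩
  · exact le_antisymm (hx1 _).2 (by linarith [hw.1, hw.2, (hx2 (ax (node D Q q))).1])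
  · exact le_antisymm (by linarith [hw.1, hw.2, (hx1 (ax (node D Q q))).2]) (hx2 _).1
  · intro j hj
    rcases hj with ⟨ha, hb⟩ | ⟨ha, hb⟩
    · rcases hi_cases (D := D) (Q := Q) p j with h3 | ⟨q1, h3, h4, h5⟩
      · exfalso
        have h6 := (hle p' j).2
        have h7 := hpos p' j
        rw [node_nil] at h6
        rw [← hb, ha, h3] at h7
        linarith
      · rcases lo_cases (D := D) (Q := Q) p' j with h6 | ⟨q2, h6, h7, h8⟩
        · exfalso
          have h9 := (hle p j).1
          have h10 := hpos p j
          rw [node_nil] at h9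
          rw [← ha, hb, h6] at h10
          linarith
        · have h9 : q1 = q2 := by
            refine hdis q1 q2 (x j) ?_ ?_
            · rw [ha, h5]; exact hcut q1
            · rw [hb, h8]; exact hcut q2
          subst h9
          have h10 := lca_unique (b := false) (c := false) h1 h2 h3 h6
          rw [h10.1, h4]
    · exfalso
      rcases lo_cases (D := D) (Q := Q) p j with h3 | ⟨q1, h3, h4, h5⟩
      · have h6 := (hle p' j).1
        have h7 := hpos p' j
        rw [node_nil] at h6
        rw [← hb, ha, h3] at h7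
        linarith
      · rcases hi_cases (D := D) (Q := Q) p' j with h6 | ⟨q2, h6, h7, h8⟩
        · have h9 := (hle p j).2
          have h10 := hpos p j
          rw [node_nil] at h9
          rw [← ha, hb, h6] at h10
          linarith
        · have h9 : q1 = q2 := by
            refine hdis q1 q2 (x j) ?_ ?_
            · rw [ha, h5]; exact hcut q1
            · rw [hb, h8]; exact hcut q2
          subst h9
          have h10 := lca_unique (b := false) (c := true) h1 h2 h3 h6
          simp at h10

/-- **two nodes which are not nested are opposite in exactly one coordinate at every common point** -/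
theorem simple_tree (hD : ∀ p, Dense (D p)) (hdis : ∀ p q t, t ∈ D p → t ∈ D q → p = q)
    (hQ : Q.Pos) {p p' : List Bool} (hp : ¬ p <:+ p') (hp' : ¬ p' <:+ p)
    {x : κ → ℝ} (hx : x ∈ (node D Q p).set) (hx' : x ∈ (node D Q p').set) :
    ∃! i, Opp (node D Q p) (node D Q p') x i := by
  rcases lca p p' with h | h | ⟨q, b, h1, h2⟩
  · exact absurd h hp
  · exact absurd h hp'
  · cases b with
    | false => exact simple_aux hD hdis hQ h1 h2 hx hx'
    | true =>
      have h3 := simple_aux hD hdis hQ h2 h1 hx' hx
      obtain ⟨i, h4, h5⟩ := h3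
      exact ⟨i, h4.symm, fun j hj => h5 j hj.symm⟩

/-- not nested nodes are separated by a wall -/
theorem disj_tree (hD : ∀ p, Dense (D p)) (hQ : Q.Pos) {p p' : List Bool}
    (hp : ¬ p <:+ p') (hp' : ¬ p' <:+ p) :
    ∃ i, (node D Q p).hi i ≤ (node D Q p').lo i ∨ (node D Q p').hi i ≤ (node D Q p).lo i := by
  rcases lca p p' with h | h | ⟨q, b, h1, h2⟩
  · exact absurd h hp
  · exact absurd h hp'
  · cases b with
    | false =>
      have h3 := sep_wall hD hQ h1 h2
      exact ⟨_, Or.inl (h3.1.trans h3.2)⟩
    | true =>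
      have h3 := sep_wall hD hQ h2 h1
      exact ⟨_, Or.inr (h3.1.trans h3.2)⟩

/-! ### aspect and volume -/

theorem side_child_ge {P : Bx κ} (hA : P.Asp) {t : ℝ} (h1 : P.lo (ax P) + P.side (ax P) / 3 < t)
    (h2 : t < P.lo (ax P) + 2 * (P.side (ax P) / 3)) (b : Bool) (i : κ) :
    P.side (ax P) / 3 ≤ (child P (ax P) t b).side i := by
  have hs : P.side (ax P) = P.hi (ax P) - P.lo (ax P) := rfl
  by_cases hi : i = ax P
  · subst hi
    cases b
    · simp only [Bx.side, child_false_lo, child_false_hi, Function.update_self]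
      simp only [Bx.side] at h1
      linarith
    · simp only [Bx.side, child_true_lo, child_true_hi, Function.update_self]
      simp only [Bx.side] at h2
      linarith
  · have h3 := hA i (ax P)
    have h4 : (child P (ax P) t b).side i = P.side i := by
      cases b
      · simp [Bx.side, child_false_lo, child_false_hi, Function.update_of_ne hi]
      · simp [Bx.side, child_true_lo, child_true_hi, Function.update_of_ne hi]
    rw [h4]
    linarith

theorem side_child_le {P : Bx κ} {t : ℝ} (h1 : P.lo (ax P) + P.side (ax P) / 3 < t)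
    (h2 : t < P.lo (ax P) + 2 * (P.side (ax P) / 3)) (b : Bool) :
    (child P (ax P) t b).side (ax P) ≤ 2 / 3 * P.side (ax P) := by
  have hs : P.side (ax P) = P.hi (ax P) - P.lo (ax P) := rfl
  cases b
  · simp only [Bx.side, child_false_lo, child_false_hi, Function.update_self]
    simp only [Bx.side] at h2
    linarith
  · simp only [Bx.side, child_true_lo, child_true_hi, Function.update_self]
    simp only [Bx.side] at h1
    linarith

theorem node_asp (hD : ∀ p, Dense (D p)) (hQ : Q.Pos) (hA : Q.Asp) (p : List Bool) :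
    (node D Q p).Asp := by
  induction p with
  | nil => exact hA
  | cons b p ih =>
    intro i j
    have hc := cutpos_spec (hD p) (node_pos hD hQ p)
    have h1 := side_child_ge ih hc.2.1 hc.2.2 b i
    have h2 := (node_le_cons hD hQ b p).side_le j
    have h3 := side_le_ax (node D Q p) j
    rw [← node_cons] at h1
    linarith

/-- volume of a box -/
def Bx.vol (Q : Bx κ) : ℝ := ∏ i, Q.side i

theorem vol_child {P : Bx κ} (hP : P.Pos) {t : ℝ}
    (h1 : P.lo (ax P) + P.side (ax P) / 3 < t)
    (h2 : t < P.lo (ax P) + 2 * (P.side (ax P) / 3)) (b : Bool) :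
    (child P (ax P) t b).vol ≤ 2 / 3 * P.vol := by
  unfold Bx.vol
  rw [← Finset.mul_prod_erase Finset.univ _ (Finset.mem_univ (ax P)),
    ← Finset.mul_prod_erase Finset.univ (fun i => P.side i) (Finset.mem_univ (ax P))]
  have h3 : ∏ i ∈ Finset.univ.erase (ax P), (child P (ax P) t b).side i =
      ∏ i ∈ Finset.univ.erase (ax P), P.side i := by
    refine Finset.prod_congr rfl fun i hi => ?_
    have hi' : i ≠ ax P := (Finset.mem_erase.1 hi).1
    cases b
    · simp [Bx.side, child_false_lo, child_false_hi, Function.update_of_ne hi']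
    · simp [Bx.side, child_true_lo, child_true_hi, Function.update_of_ne hi']
  rw [h3]
  have h4 := side_child_le h1 h2 b
  have h5 : 0 ≤ ∏ i ∈ Finset.univ.erase (ax P), P.side i :=
    Finset.prod_nonneg fun i _ => (Bx.side_pos hP i).le
  calc (child P (ax P) t b).side (ax P) * ∏ i ∈ Finset.univ.erase (ax P), P.side i
      ≤ (2 / 3 * P.side (ax P)) * ∏ i ∈ Finset.univ.erase (ax P), P.side i :=
        mul_le_mul_of_nonneg_right h4 h5
    _ = 2 / 3 * (P.side (ax P) * ∏ i ∈ Finset.univ.erase (ax P), P.side i) := by ring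

theorem vol_node (hD : ∀ p, Dense (D p)) (hQ : Q.Pos) (p : List Bool) :
    (node D Q p).vol ≤ (2 / 3) ^ p.length * Q.vol := by
  induction p with
  | nil => simp [node_nil]
  | cons b p ih =>
    have hP := node_pos (D := D) hD hQ p
    have hc := cutpos_spec (hD p) hP
    have h1 := vol_child hP hc.2.1 hc.2.2 b
    rw [← node_cons] at h1
    refine h1.trans ?_
    rw [List.length_cons, pow_succ]
    calc 2 / 3 * (node D Q p).vol ≤ 2 / 3 * ((2 / 3) ^ p.length * Q.vol) :=
          mul_le_mul_of_nonneg_left ih (by norm_num)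
      _ = (2 / 3) ^ p.length * (2 / 3) * Q.vol := by ring

theorem side_pow_le {P : Bx κ} (hP : P.Pos) (hA : P.Asp) (j : κ) :
    (P.side j / 3) ^ Fintype.card κ ≤ P.vol := by
  unfold Bx.vol
  rw [← Finset.card_univ, ← Finset.prod_const]
  refine Finset.prod_le_prod (fun i _ => ?_) fun i _ => ?_
  · have := Bx.side_pos hP j
    positivity
  · have := hA i j
    linarith

/-- deep nodes are small -/
theorem exists_depth (hD : ∀ p, Dense (D p)) (hQ : Q.Pos) (hA : Q.Asp) {ε : ℝ} (hε : 0 < ε) :
    ∃ N : ℕ, ∀ p : List Bool, N ≤ p.length → ∀ j, (node D Q p).side j < ε := by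
  have h1 : Filter.Tendsto (fun N : ℕ => (2 / 3 : ℝ) ^ N * Q.vol) Filter.atTop
      (nhds (0 * Q.vol)) :=
    (tendsto_pow_atTop_nhds_zero_of_lt_one (by norm_num) (by norm_num)).mul_const _
  rw [zero_mul] at h1
  have h2 : (0 : ℝ) < (ε / 3) ^ Fintype.card κ := by positivity
  obtain ⟨N, hN⟩ := ((tendsto_order.1 h1).2 _ h2).exists_forall_of_atTop
  refine ⟨N, fun p hp j => ?_⟩
  by_contra hcon
  push Not at hcon
  have h3 := side_pow_le (node_pos (D := D) hD hQ p) (node_asp hD hQ hA p) j
  have h4 := vol_node (D := D) hD hQ p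
  have h5 := hN p.length hp
  have h6 : (ε / 3) ^ Fintype.card κ ≤ ((node D Q p).side j / 3) ^ Fintype.card κ := by
    refine pow_le_pow_left₀ (by positivity) ?_ _
    linarith
  linarith

end Tree

/-! ### dense disjoint sets of positions -/

/-- countably many pairwise disjoint dense sets which avoid a given countable set -/
theorem exists_dense_family (S : Set ℝ) (hS : S.Countable) {ν : Type*} [Countable ν] :
    ∃ D : ν → Set ℝ, (∀ a, Dense (D a)) ∧ (∀ a b t, t ∈ D a → t ∈ D b → a = b) ∧
      ∀ a t, t ∈ D a → t ∉ S := by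
  classical
  let H : AddSubgroup ℝ := (Rat.castHom ℝ).toAddMonoidHom.range
  let q : ℝ → ℝ ⧸ H := fun x => (x : ℝ ⧸ H)
  have hunc : Uncountable (ℝ ⧸ H) := by
    by_contra hcon
    rw [not_uncountable_iff] at hcon
    have h1 : (Set.univ : Set ℝ).Countable := by
      have h2 : (Set.univ : Set ℝ) = ⋃ y : ℝ ⧸ H, q ⁻¹' {y} := by
        ext x; simp
      rw [h2]
      refine Set.countable_iUnion fun y => ?_
      obtain ⟨a, rfl⟩ := QuotientAddGroup.mk_surjective y
      have h3 : q ⁻¹' {(a : ℝ ⧸ H)} ⊆ Set.range (fun r : ℚ => a + (r : ℝ)) := by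
        intro x hx
        simp only [Set.mem_preimage, Set.mem_singleton_iff, q] at hx
        rw [eq_comm, QuotientAddGroup.eq] at hx
        obtain ⟨r, hr⟩ := hx
        refine ⟨r, ?_⟩
        have hr' : (r : ℝ) = -a + x := hr
        simp only
        rw [hr']; ring
      exact (Set.countable_range _).mono h3
    exact Cardinal.not_countable_real h1
  have hinf : Infinite ((q '' S)ᶜ : Set (ℝ ⧸ H)) := by
    have h1 : ¬ ((q '' S)ᶜ : Set (ℝ ⧸ H)).Countable := by
      intro h
      have h2 : (Set.univ : Set (ℝ ⧸ H)).Countable := by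
        rw [← Set.union_compl_self (q '' S)]
        exact (hS.image q).union h
      exact Set.not_countable_univ h2
    exact Set.infinite_coe_iff.2 fun hf => h1 hf.countable
  obtain ⟨e⟩ : Nonempty (ν ↪ ℕ) := by
    obtain ⟨f, hf⟩ := Countable.exists_injective_nat ν
    exact ⟨⟨f, hf⟩⟩
  let y : ℕ ↪ ((q '' S)ᶜ : Set (ℝ ⧸ H)) := Infinite.natEmbedding _
  refine ⟨fun a => q ⁻¹' {(y (e a) : ℝ ⧸ H)}, ?_, ?_, ?_⟩
  · intro a
    obtain ⟨u, hu⟩ := QuotientAddGroup.mk_surjective (y (e a) : ℝ ⧸ H)
    rw [dense_iff_exists_between]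
    intro s t hst
    obtain ⟨r, hr1, hr2⟩ := exists_rat_btwn (show s - u < t - u by linarith)
    refine ⟨u + r, ?_, by linarith, by linarith⟩
    simp only [Set.mem_preimage, Set.mem_singleton_iff, q]
    rw [← hu, eq_comm, QuotientAddGroup.eq]
    exact ⟨r, by simp⟩
  · intro a b t ha hb
    simp only [Set.mem_preimage, Set.mem_singleton_iff] at ha hb
    have h1 : y (e a) = y (e b) := Subtype.ext (ha.symm.trans hb)
    exact e.injective (y.injective h1)
  · intro a t ha hS'
    simp only [Set.mem_preimage, Set.mem_singleton_iff] at ha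
    exact (y (e a)).2 ⟨t, hS', ha⟩

end Crest.Agent.R096.Bsp_628
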