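import Crest.Agent.R096.Bsp1_628

/-!
# Row 96, U1 / FOAM-EX (helper628), part 2: the quantitative invariant and one greedy step

`INV δ P` (582's invariant): finitely many boxes of `P` with a common point have exactly `card - 1`
degenerate coordinates, and in the other coordinates the common part has length at least
`δ * (longest side of one of the boxes)`. One cut at a position which is `δ t` away from all walls of
the boxes touching the box preserves `INV`; such a position exists by pigeonhole.
-/

set_option autoImplicit false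
set_option linter.unusedSectionVars false

open Set

namespace Crest.Agent.R096.Bsp_628

variable {κ : Type*}

/-- the boxes of `A` have a common point (coordinatewise form) -/
def Meet (A : Finset (Bx κ)) : Prop := ∀ B ∈ A, ∀ C ∈ A, ∀ k, B.lo k ≤ C.hi k

/-- the coordinate `k` is degenerate in the intersection of the boxes of `A` -/
def Deg (A : Finset (Bx κ)) (k : κ) : Prop := ∃ B ∈ A, ∃ C ∈ A, B.lo k = C.hi k

section

variable [Fintype κ] [Nonempty κ]

/-- the size of a box: its longest side -/
noncomputable def Bx.sz (Q : Bx κ) : ℝ := Q.side (ax Q)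

theorem Bx.side_le_sz (Q : Bx κ) (i : κ) : Q.side i ≤ Q.sz := side_le_ax Q i

theorem Bx.Le.sz_le {Q P : Bx κ} (h : Q.Le P) : Q.sz ≤ P.sz :=
  (h.side_le _).trans (P.side_le_sz _)

theorem Bx.sz_pos {Q : Bx κ} (h : Q.Pos) : 0 < Q.sz := Bx.side_pos h _

/-- **the invariant** -/
def INV (δ : ℝ) (P : Set (Bx κ)) : Prop :=
  ∀ A : Finset (Bx κ), (↑A : Set (Bx κ)) ⊆ P → A.Nonempty → Meet A →
    {k | Deg A k}.ncard + 1 = A.card ∧
    ∀ k, ¬ Deg A k → ∃ D ∈ A, ∀ B ∈ A, ∀ C ∈ A, B.lo k + δ * D.sz ≤ C.hi k

theorem INV.mono {δ δ' : ℝ} {P P' : Set (Bx κ)} (h : INV δ P) (hP : P' ⊆ P) (hδ : δ' ≤ δ)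
    (hpos : ∀ B ∈ P', B.Pos) : INV δ' P' := by
  intro A hA hne hm
  obtain ⟨h1, h2⟩ := h A (hA.trans hP) hne hm
  refine ⟨h1, fun k hk => ?_⟩
  obtain ⟨D, hD, h3⟩ := h2 k hk
  refine ⟨D, hD, fun B hB C hC => ?_⟩
  have h4 := h3 B hB C hC
  have h5 := Bx.sz_pos (hpos D (hA hD))
  have h6 : δ' * D.sz ≤ δ * D.sz := mul_le_mul_of_nonneg_right hδ h5.le
  linarith

/-- two boxes touch -/
def Touch (B C : Bx κ) : Prop := ∀ k, B.lo k ≤ C.hi k ∧ C.lo k ≤ B.hi k

theorem Touch.symm {B C : Bx κ} (h : Touch B C) : Touch C B := fun k => ⟨(h k).2, (h k).1⟩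

theorem Touch.refl {B : Bx κ} (h : B.Pos) : Touch B B := fun k => ⟨(h k).le, (h k).le⟩

/-- different boxes are separated by a wall -/
theorem INV.disj {δ : ℝ} {P : Set (Bx κ)} (h : INV δ P) {B C : Bx κ} (hB : B ∈ P) (hC : C ∈ P)
    (hBp : B.Pos) (hCp : C.Pos) (hne : B ≠ C) : ∃ k, B.hi k ≤ C.lo k ∨ C.hi k ≤ B.lo k := by
  classical
  by_contra hcon
  push Not at hcon
  have hm : Meet ({B, C} : Finset (Bx κ)) := by
    intro X hX Y hY k
    simp only [Finset.mem_insert, Finset.mem_singleton] at hX hY
    rcases hX with rfl | rfl <;> rcases hY with rfl | rfl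
    · exact (hBp k).le
    · exact (hcon k).2.le
    · exact (hcon k).1.le
    · exact (hCp k).le
  have h1 := (h {B, C} (by
    intro X hX
    simp only [Finset.coe_insert, Finset.coe_singleton, Set.mem_insert_iff,
      Set.mem_singleton_iff] at hX
    rcases hX with rfl | rfl
    · exact hB
    · exact hC) ⟨B, by simp⟩ hm).1
  rw [Finset.card_pair hne] at h1
  have h2 : {k | Deg ({B, C} : Finset (Bx κ)) k} = ∅ := by
    ext k
    simp only [Set.mem_ofPred_eq, Set.mem_empty_iff_false, iff_false]
    rintro ⟨X, hX, Y, hY, hXY⟩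
    simp only [Finset.mem_insert, Finset.mem_singleton] at hX hY
    rcases hX with rfl | rfl <;> rcases hY with rfl | rfl
    · exact absurd hXY (hBp k).ne
    · exact absurd hXY (hcon k).2.ne
    · exact absurd hXY (hcon k).1.ne
    · exact absurd hXY (hCp k).ne
  rw [h2, Set.ncard_empty] at h1
  omega

end

section Step

variable [Fintype κ] [Nonempty κ] [DecidableEq κ]

theorem child_lo_of_ne {P : Bx κ} {k : κ} {t : ℝ} (b : Bool) {j : κ} (hj : j ≠ k) :
    (child P k t b).lo j = P.lo j := by
  cases b
  · rfl
  · rw [child_true_lo, Function.update_of_ne hj]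

theorem child_hi_of_ne {P : Bx κ} {k : κ} {t : ℝ} (b : Bool) {j : κ} (hj : j ≠ k) :
    (child P k t b).hi j = P.hi j := by
  cases b
  · rw [child_false_hi, Function.update_of_ne hj]
  · rfl

/-- **the cut preserves the invariant** -/
theorem INV.cut {δ : ℝ} (hδ : 0 < δ) {P : Set (Bx κ)} (h : INV δ P) (hpos : ∀ X ∈ P, X.Pos)
    {B : Bx κ} (hB : B ∈ P) (k : κ) {c : ℝ}
    (hc : ∀ C ∈ P, Touch B C → δ * B.sz ≤ |c - C.lo k| ∧ δ * B.sz ≤ |c - C.hi k|)
    (hc1 : B.lo k < c) (hc2 : c < B.hi k) :
    INV δ ({X | X ∈ P ∧ X ≠ B} ∪ {child B k c false, child B k c true}) := by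
  classical
  have hBp := hpos B hB
  have hsz : 0 < δ * B.sz := mul_pos hδ (Bx.sz_pos hBp)
  set H : Bool → Bx κ := fun b => child B k c b with hH
  have hHle : ∀ b, (H b).Le B := fun b => child_le hc1.le hc2.le b
  have hHpos : ∀ b, (H b).Pos := fun b => child_pos hBp hc1 hc2 b
  have hHsz : ∀ b, (H b).sz ≤ B.sz := fun b => (hHle b).sz_le
  have hHlo : ∀ b j, j ≠ k → (H b).lo j = B.lo j := fun b j hj => child_lo_of_ne b hj
  have hHhi : ∀ b j, j ≠ k → (H b).hi j = B.hi j := fun b j hj => child_hi_of_ne b hj
  have h0lo : (H false).lo k = B.lo k := rfl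
  have h0hi : (H false).hi k = c := by
    simp only [hH, child_false_hi, Function.update_self]
  have h1lo : (H true).lo k = c := by
    simp only [hH, child_true_lo, Function.update_self]
  have h1hi : (H true).hi k = B.hi k := rfl
  intro A' hA' hne hm
  -- elements of `A'` other than the halves are in `P`, different from `B`
  have hel : ∀ X ∈ A', (X ∈ P ∧ X ≠ B) ∨ ∃ b, X = H b := by
    intro X hX
    rcases hA' hX with h1 | h1
    · exact Or.inl h1
    · right
      simp only [Set.mem_insert_iff, Set.mem_singleton_iff] at h1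
      rcases h1 with h1 | h1
      · exact ⟨false, h1⟩
      · exact ⟨true, h1⟩
  by_cases hnone : ∀ b, H b ∉ A'
  · -- no half at all
    refine h A' ?_ hne hm
    intro X hX
    rcases hel X hX with h1 | ⟨b, rfl⟩
    · exact h1.1
    · exact absurd hX (hnone b)
  push Not at hnone
  obtain ⟨b0, hb0⟩ := hnone
  -- the old family
  set R : Finset (Bx κ) := A'.filter (fun X => ∀ b, X ≠ H b) with hR
  set A : Finset (Bx κ) := insert B R with hA
  have hRP : ∀ X ∈ R, X ∈ P ∧ X ≠ B ∧ X ∈ A' := by
    intro X hX
    rw [hR, Finset.mem_filter] at hX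
    rcases hel X hX.1 with h1 | ⟨b, h1⟩
    · exact ⟨h1.1, h1.2, hX.1⟩
    · exact absurd h1 (hX.2 b)
  have hBR : B ∉ R := fun hcon => (hRP B hcon).2.1 rfl
  have hAP : (↑A : Set (Bx κ)) ⊆ P := by
    intro X hX
    rw [hA, Finset.coe_insert] at hX
    rcases hX with rfl | hX
    · exact hB
    · exact (hRP X hX).1
  -- boxes of `A'` touch `B`
  have htouch : ∀ X ∈ A', Touch B X := by
    intro X hX j
    have h1 := hm _ hb0 X hX j
    have h2 := hm X hX _ hb0 j
    have h3 := hHle b0 j
    exact ⟨h3.1.trans h1, h2.trans h3.2⟩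
  have hmA : Meet A := by
    intro X hX Y hY j
    rw [hA, Finset.mem_insert] at hX hY
    rcases hX with rfl | hX <;> rcases hY with rfl | hY
    · exact (hBp j).le
    · exact (htouch Y (hRP Y hY).2.2 j).1
    · exact (htouch X (hRP X hX).2.2 j).2
    · exact hm X (hRP X hX).2.2 Y (hRP Y hY).2.2 j
  obtain ⟨hcard, hext⟩ := h A hAP ⟨B, by rw [hA]; exact Finset.mem_insert_self _ _⟩ hmA
  -- distances of `c` from the walls
  have hcl : ∀ X ∈ A, δ * B.sz ≤ |c - X.lo k| ∧ δ * B.sz ≤ |c - X.hi k| := by
    intro X hX
    refine hc X (hAP hX) ?_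
    rw [hA, Finset.mem_insert] at hX
    rcases hX with rfl | hX
    · exact Touch.refl hBp
    · exact htouch X (hRP X hX).2.2
  -- degenerate coordinates different from `k`
  have hdegj : ∀ j, j ≠ k → (Deg A' j ↔ Deg A j) := by
    intro j hj
    constructor
    · rintro ⟨X, hX, Y, hY, hXY⟩
      -- replace halves by B
      have key : ∀ Z ∈ A', ∃ Z' ∈ A, Z'.lo j = Z.lo j ∧ Z'.hi j = Z.hi j := by
        intro Z hZ
        by_cases hZh : ∀ b, Z ≠ H b
        · exact ⟨Z, by rw [hA, Finset.mem_insert, hR, Finset.mem_filter]; exact Or.inr ⟨hZ, hZh⟩,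
            rfl, rfl⟩
        · push Not at hZh
          obtain ⟨b, rfl⟩ := hZh
          exact ⟨B, by rw [hA]; exact Finset.mem_insert_self _ _, (hHlo b j hj).symm,
            (hHhi b j hj).symm⟩
      obtain ⟨X', hX', h1, -⟩ := key X hX
      obtain ⟨Y', hY', -, h2⟩ := key Y hY
      exact ⟨X', hX', Y', hY', by rw [h1, h2, hXY]⟩
    · rintro ⟨X, hX, Y, hY, hXY⟩
      have key : ∀ Z ∈ A, ∃ Z' ∈ A', Z'.lo j = Z.lo j ∧ Z'.hi j = Z.hi j := by
        intro Z hZ
        rw [hA, Finset.mem_insert] at hZ
        rcases hZ with rfl | hZ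
        · exact ⟨H b0, hb0, hHlo b0 j hj, hHhi b0 j hj⟩
        · exact ⟨Z, (hRP Z hZ).2.2, rfl, rfl⟩
      obtain ⟨X', hX', h1, -⟩ := key X hX
      obtain ⟨Y', hY', -, h2⟩ := key Y hY
      exact ⟨X', hX', Y', hY', by rw [h1, h2, hXY]⟩
  -- extents in the coordinates different from `k`
  have hextj : ∀ j, j ≠ k → ¬ Deg A' j → ∃ D ∈ A', ∀ X ∈ A', ∀ Y ∈ A',
      X.lo j + δ * D.sz ≤ Y.hi j := by
    intro j hj hnd
    obtain ⟨D, hD, hDX⟩ := hext j (fun hcon => hnd ((hdegj j hj).2 hcon))
    have key : ∀ Z ∈ A', ∃ Z' ∈ A, Z'.lo j = Z.lo j ∧ Z'.hi j = Z.hi j := by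
      intro Z hZ
      by_cases hZh : ∀ b, Z ≠ H b
      · exact ⟨Z, by rw [hA, Finset.mem_insert, hR, Finset.mem_filter]; exact Or.inr ⟨hZ, hZh⟩,
          rfl, rfl⟩
      · push Not at hZh
        obtain ⟨b, rfl⟩ := hZh
        exact ⟨B, by rw [hA]; exact Finset.mem_insert_self _ _, (hHlo b j hj).symm,
          (hHhi b j hj).symm⟩
    obtain ⟨D', hD', hsD⟩ : ∃ D' ∈ A', D'.sz ≤ D.sz := by
      rw [hA, Finset.mem_insert] at hD
      rcases hD with rfl | hD
      · exact ⟨H b0, hb0, hHsz b0⟩
      · exact ⟨D, (hRP D hD).2.2, le_rfl⟩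
    refine ⟨D', hD', fun X hX Y hY => ?_⟩
    obtain ⟨X', hX', h1, -⟩ := key X hX
    obtain ⟨Y', hY', -, h2⟩ := key Y hY
    have h3 := hDX X' hX' Y' hY'
    have h4 : δ * D'.sz ≤ δ * D.sz := mul_le_mul_of_nonneg_left hsD hδ.le
    rw [h1, h2] at h3
    linarith
  by_cases hboth : ∀ b, H b ∈ A'
  · -- both halves: `k` becomes degenerate
    have hlok : ∀ X ∈ A, X.lo k < c := by
      intro X hX
      have h1 := (hcl X hX).1
      rw [hA, Finset.mem_insert] at hX
      rcases hX with rfl | hX
      · exact hc1
      · have h2 := hm X (hRP X hX).2.2 _ (hboth false) k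
        rw [h0hi] at h2
        rcases h2.lt_or_eq with h3 | h3
        · exact h3
        · exfalso
          rw [h3, sub_self, abs_zero] at h1
          linarith
    have hhik : ∀ X ∈ A, c < X.hi k := by
      intro X hX
      have h1 := (hcl X hX).2
      rw [hA, Finset.mem_insert] at hX
      rcases hX with rfl | hX
      · exact hc2
      · have h2 := hm _ (hboth true) X (hRP X hX).2.2 k
        rw [h1lo] at h2
        rcases h2.lt_or_eq with h3 | h3
        · exact h3
        · exfalso
          rw [h3, sub_self, abs_zero] at h1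
          linarith
    have hkA : ¬ Deg A k := by
      rintro ⟨X, hX, Y, hY, hXY⟩
      have := (hlok X hX).trans (hhik Y hY)
      exact absurd hXY this.ne
    have hkA' : Deg A' k := ⟨H true, hboth true, H false, hboth false, by rw [h1lo, h0hi]⟩
    have hset : {j | Deg A' j} = insert k {j | Deg A j} := by
      ext j
      simp only [Set.mem_ofPred_eq, Set.mem_insert_iff]
      by_cases hj : j = k
      · subst hj
        simp [hkA']
      · rw [hdegj j hj]
        simp [hj]
    have hne01 : H false ≠ H true := by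
      intro hcon
      have h3 := congrArg (fun Q : Bx κ => Q.lo k) hcon
      simp only [h0lo, h1lo] at h3
      linarith
    have hcA' : A'.card = A.card + 1 := by
      have h1 : A' = insert (H false) (insert (H true) R) := by
        ext X
        rw [Finset.mem_insert, Finset.mem_insert, hR, Finset.mem_filter]
        constructor
        · intro hX
          by_cases hXh : ∀ b, X ≠ H b
          · exact Or.inr (Or.inr ⟨hX, hXh⟩)
          · push Not at hXh
            obtain ⟨b, rfl⟩ := hXh
            cases b
            · exact Or.inl rfl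
            · exact Or.inr (Or.inl rfl)
        · rintro (rfl | rfl | hX)
          · exact hboth false
          · exact hboth true
          · exact hX.1
      have h2 : H true ∉ R := by
        intro hcon
        rw [hR, Finset.mem_filter] at hcon
        exact hcon.2 true rfl
      have h3 : H false ∉ insert (H true) R := by
        intro hcon
        rw [Finset.mem_insert] at hcon
        rcases hcon with hcon | hcon
        · exact hne01 hcon
        · rw [hR, Finset.mem_filter] at hcon
          exact hcon.2 false rfl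
      rw [h1, Finset.card_insert_of_notMem h3, Finset.card_insert_of_notMem h2, hA,
        Finset.card_insert_of_notMem hBR]
    refine ⟨?_, ?_⟩
    · rw [hset, Set.ncard_insert_of_notMem (by simpa using hkA) (Set.toFinite _), hcA', ← hcard]
    · intro j hnd
      have hj : j ≠ k := by
        rintro rfl
        exact hnd hkA'
      exact hextj j hj hnd
  · -- exactly one half
    have honly : ∀ b, H b ∈ A' → b = b0 := by
      intro b hb
      by_contra hbne
      apply hboth
      intro b'
      rcases Bool.eq_or_eq_not b' b0 with h1 | h1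
      · rw [h1]; exact hb0
      · have h2 : b' = b := by
          have h3 : ∀ x y z : Bool, x ≠ z → y = !z → y = x := by decide
          exact h3 b b' b0 hbne h1
        rw [h2]; exact hb
    have hcA' : A'.card = A.card := by
      have h1 : A' = insert (H b0) R := by
        ext X
        rw [Finset.mem_insert, hR, Finset.mem_filter]
        constructor
        · intro hX
          by_cases hXh : ∀ b, X ≠ H b
          · exact Or.inr ⟨hX, hXh⟩
          · push Not at hXh
            obtain ⟨b, rfl⟩ := hXh
            rw [honly b hX]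
            exact Or.inl rfl
        · rintro (rfl | hX)
          · exact hb0
          · exact hX.1
      have h2 : H b0 ∉ R := by
        intro hcon
        rw [hR, Finset.mem_filter] at hcon
        exact hcon.2 b0 rfl
      rw [h1, Finset.card_insert_of_notMem h2, hA, Finset.card_insert_of_notMem hBR]
    -- walls in direction `k`: strict inequalities against `c`
    have hRk : ∀ X ∈ R, (b0 = false → X.lo k + δ * B.sz ≤ c) ∧
        (b0 = true → c + δ * B.sz ≤ X.hi k) := by
      intro X hX
      have hXA : X ∈ A := by rw [hA]; exact Finset.mem_insert_of_mem hX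
      have h1 := hcl X hXA
      constructor
      · intro hb
        have h2 := hm X (hRP X hX).2.2 _ hb0 k
        rw [hb, h0hi] at h2
        rw [abs_of_nonneg (by linarith)] at h1
        linarith [h1.1]
      · intro hb
        have h2 := hm _ hb0 X (hRP X hX).2.2 k
        rw [hb, h1lo] at h2
        have h3 := h1.2
        rw [abs_of_nonpos (by linarith)] at h3
        linarith
    have hBk : δ * B.sz ≤ c - B.lo k ∧ δ * B.sz ≤ B.hi k - c := by
      have h1 := hcl B (by rw [hA]; exact Finset.mem_insert_self _ _)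
      rw [abs_of_nonneg (by linarith), abs_of_nonpos (by linarith)] at h1
      constructor <;> linarith [h1.1, h1.2]
    -- every element of `A'` comes from an element of `A`
    have hpar : ∀ Z ∈ A', (Z ∈ R) ∨ Z = H b0 := by
      intro Z hZ
      by_cases hZh : ∀ b, Z ≠ H b
      · left; rw [hR, Finset.mem_filter]; exact ⟨hZ, hZh⟩
      · push Not at hZh
        obtain ⟨b, rfl⟩ := hZh
        right; rw [honly b hZ]
    have hdegk : Deg A' k ↔ Deg A k := by
      constructor
      · rintro ⟨X, hX, Y, hY, hXY⟩
        rcases hpar X hX with hX1 | rfl <;> rcases hpar Y hY with hY1 | rfl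
        · exact ⟨X, by rw [hA]; exact Finset.mem_insert_of_mem hX1, Y,
            by rw [hA]; exact Finset.mem_insert_of_mem hY1, hXY⟩
        · -- Y = H b0
          cases hb : b0 with
          | false =>
            exfalso
            rw [hb, h0hi] at hXY
            have := (hRk X hX1).1 hb
            linarith
          | true =>
            rw [hb, h1hi] at hXY
            exact ⟨X, by rw [hA]; exact Finset.mem_insert_of_mem hX1, B,
              by rw [hA]; exact Finset.mem_insert_self _ _, hXY⟩
        · cases hb : b0 with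
          | false =>
            rw [hb, h0lo] at hXY
            exact ⟨B, by rw [hA]; exact Finset.mem_insert_self _ _, Y,
              by rw [hA]; exact Finset.mem_insert_of_mem hY1, hXY⟩
          | true =>
            exfalso
            rw [hb, h1lo] at hXY
            have := (hRk Y hY1).2 hb
            linarith
        · exact absurd hXY (hHpos b0 k).ne
      · rintro ⟨X, hX, Y, hY, hXY⟩
        have keylo : ∀ Z ∈ A, ∃ Z' ∈ A', Z.lo k ≤ Z'.lo k ∧ Z'.hi k ≤ Z.hi k := by
          intro Z hZ
          rw [hA, Finset.mem_insert] at hZ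
          rcases hZ with rfl | hZ
          · exact ⟨H b0, hb0, (hHle b0 k).1, (hHle b0 k).2⟩
          · exact ⟨Z, (hRP Z hZ).2.2, le_rfl, le_rfl⟩
        obtain ⟨X', hX', h1, -⟩ := keylo X hX
        obtain ⟨Y', hY', -, h2⟩ := keylo Y hY
        have h3 := hm X' hX' Y' hY' k
        exact ⟨X', hX', Y', hY', le_antisymm h3 (by linarith)⟩
    have hset : {j | Deg A' j} = {j | Deg A j} := by
      ext j
      simp only [Set.mem_ofPred_eq]
      by_cases hj : j = k
      · subst hj; exact hdegk
      · exact hdegj j hj
    refine ⟨by rw [hset, hcA', hcard], ?_⟩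
    intro j hnd
    by_cases hj : j = k
    · subst hj
      obtain ⟨D, hD, hDX⟩ := hext j (fun hcon => hnd (hdegk.2 hcon))
      -- an element of `A'` smaller than both
      obtain ⟨D', hD', hs1, hs2⟩ : ∃ D' ∈ A', D'.sz ≤ D.sz ∧ D'.sz ≤ B.sz := by
        by_cases hDB : D.sz ≤ B.sz
        · rw [hA, Finset.mem_insert] at hD
          rcases hD with rfl | hD
          · exact ⟨H b0, hb0, hHsz b0, hHsz b0⟩
          · exact ⟨D, (hRP D hD).2.2, le_rfl, hDB⟩
        · push Not at hDB
          exact ⟨H b0, hb0, (hHsz b0).trans hDB.le, hHsz b0⟩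
      have hs1' : δ * D'.sz ≤ δ * D.sz := mul_le_mul_of_nonneg_left hs1 hδ.le
      have hs2' : δ * D'.sz ≤ δ * B.sz := mul_le_mul_of_nonneg_left hs2 hδ.le
      refine ⟨D', hD', fun X hX Y hY => ?_⟩
      have hBA : B ∈ A := by rw [hA]; exact Finset.mem_insert_self _ _
      rcases hpar X hX with hX1 | rfl <;> rcases hpar Y hY with hY1 | rfl
      · have := hDX X (by rw [hA]; exact Finset.mem_insert_of_mem hX1) Y
          (by rw [hA]; exact Finset.mem_insert_of_mem hY1)
        linarith
      · cases hb : b0 with
        | false =>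
          rw [h0hi]
          have := (hRk X hX1).1 hb
          linarith
        | true =>
          rw [h1hi]
          have := hDX X (by rw [hA]; exact Finset.mem_insert_of_mem hX1) B hBA
          linarith
      · cases hb : b0 with
        | false =>
          rw [h0lo]
          have := hDX B hBA Y (by rw [hA]; exact Finset.mem_insert_of_mem hY1)
          linarith
        | true =>
          rw [h1lo]
          have := (hRk Y hY1).2 hb
          linarith
      · cases hb : b0 with
        | false =>
          rw [h0lo, h0hi]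
          linarith [hBk.1]
        | true =>
          rw [h1lo, h1hi]
          linarith [hBk.2]
    · exact hextj j hj hnd

end Step

end Crest.Agent.R096.Bsp_628
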