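import Crest.Agent.R096.Bsp2_628

/-!
# Row 96, U1 / FOAM-EX (helper628), part 3: counting, choice of the position, the greedy process
-/

set_option autoImplicit false
set_option linter.unusedSectionVars false

open Set

namespace Crest.Agent.R096.Bsp_628

variable {κ : Type*} [Fintype κ] [Nonempty κ]

/-! ### the number of boxes which touch a box -/

/-- one coordinate: a grid point strictly inside the wall interval of a touching box -/
theorem exists_grid {a b lo hi s t κ0 : ℝ} (hs : 0 < s) (hab : b - a ≤ t) (hts : t = 2 * κ0 * s)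
    (h1 : lo ≤ b) (h2 : a ≤ hi) (h3 : 2 * s ≤ hi - lo) (hκ : 0 ≤ κ0) :
    ∃ m : Fin (⌊2 * κ0⌋₊ + 3), lo < a + s * ((m : ℝ) - 1) ∧ a + s * ((m : ℝ) - 1) < hi := by
  set u : ℝ := max lo (a - 2 * s) with hu
  have hu1 : lo ≤ u := le_max_left _ _
  have hu2 : a - 2 * s ≤ u := le_max_right _ _
  have hu3 : u + 2 * s ≤ hi := by
    rcases max_choice lo (a - 2 * s) with h | h
    · rw [hu, h]; linarith
    · rw [hu, h]; linarith
  have hu4 : u ≤ b ∨ u = a - 2 * s := by
    rcases max_choice lo (a - 2 * s) with h | h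
    · left; rw [hu, h]; exact h1
    · right; rw [hu, h]
  -- the integer
  set z : ℤ := ⌊(u - a) / s⌋ + 2 with hz
  have hz1 : (u - a) / s < (z : ℝ) - 1 := by
    have := Int.lt_floor_add_one ((u - a) / s)
    rw [hz]; push_cast; linarith
  have hz2 : (z : ℝ) - 1 ≤ (u - a) / s + 1 := by
    have := Int.floor_le ((u - a) / s)
    rw [hz]; push_cast; linarith
  have hq1 : -2 ≤ (u - a) / s := by
    rw [le_div_iff₀ hs]; linarith
  have hq2 : (u - a) / s ≤ 2 * κ0 := by
    rw [div_le_iff₀ hs]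
    rcases hu4 with h | h
    · linarith
    · rw [h]
      have : 0 ≤ 2 * κ0 * s := by positivity
      linarith
  have hz3 : 0 ≤ z := by
    have h4 : (-1 : ℝ) < (z : ℝ) := by linarith
    have h5 : (-1 : ℤ) < z := by exact_mod_cast h4
    omega
  have hz4 : z ≤ (⌊2 * κ0⌋₊ : ℤ) + 2 := by
    have h4 : (z : ℝ) - 2 ≤ 2 * κ0 := by linarith
    have h5 : z - 2 ≤ ⌊2 * κ0⌋ := by
      rw [Int.le_floor]
      push_cast
      exact h4
    have h6 : (⌊2 * κ0⌋₊ : ℤ) = ⌊2 * κ0⌋ := by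
      rw [← Int.floor_toNat, Int.toNat_of_nonneg (Int.floor_nonneg.2 (by linarith))]
    omega
  obtain ⟨m, hm⟩ := Int.eq_ofNat_of_zero_le hz3
  have hm' : m < ⌊2 * κ0⌋₊ + 3 := by omega
  refine ⟨⟨m, hm'⟩, ?_, ?_⟩
  · simp only
    have h7 : (z : ℝ) = (m : ℝ) := by rw [hm]; simp
    rw [h7] at hz1
    rw [div_lt_iff₀ hs] at hz1
    linarith [mul_comm s ((m : ℝ) - 1)]
  · simp only
    have h7 : (z : ℝ) = (m : ℝ) := by rw [hm]; simp
    rw [h7] at hz2
    have h8 : (m : ℝ) - 1 - 1 ≤ (u - a) / s := by linarith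
    rw [le_div_iff₀ hs] at h8
    have h9 : s * ((m : ℝ) - 1) ≤ u - a + s := by linarith [mul_comm s ((m : ℝ) - 1)]
    linarith

/-- the bound for the number of touching boxes -/
noncomputable def Nb (κ : Type*) [Fintype κ] (κ0 : ℝ) : ℕ := (⌊2 * κ0⌋₊ + 3) ^ Fintype.card κ

theorem touch_card {κ0 : ℝ} (hκ : 0 < κ0) {T : Finset (Bx κ)} {B : Bx κ} (hB : 0 < B.sz)
    (hT : ∀ C ∈ T, Touch B C) (hside : ∀ C ∈ T, ∀ i, B.sz ≤ κ0 * C.side i)
    (hdisj : ∀ C ∈ T, ∀ C' ∈ T, C ≠ C' → ∃ k, C.hi k ≤ C'.lo k ∨ C'.hi k ≤ C.lo k) :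
    T.card ≤ Nb κ κ0 := by
  classical
  set s : ℝ := B.sz / (2 * κ0) with hs
  have hs0 : 0 < s := by positivity
  have hts : B.sz = 2 * κ0 * s := by rw [hs]; field_simp
  have h1 : ∀ C ∈ T, ∃ m : κ → Fin (⌊2 * κ0⌋₊ + 3), ∀ k,
      C.lo k < B.lo k + s * ((m k : ℝ) - 1) ∧ B.lo k + s * ((m k : ℝ) - 1) < C.hi k := by
    intro C hC
    have h2 : ∀ k, ∃ m : Fin (⌊2 * κ0⌋₊ + 3),
        C.lo k < B.lo k + s * ((m : ℝ) - 1) ∧ B.lo k + s * ((m : ℝ) - 1) < C.hi k := by
      intro k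
      have h3 := hT C hC k
      have h4 := hside C hC k
      have h5 : 2 * s ≤ C.hi k - C.lo k := by
        have h6 : C.side k = C.hi k - C.lo k := rfl
        rw [← h6]
        rw [hts] at h4
        have h7 : 2 * κ0 * s = κ0 * (2 * s) := by ring
        rw [h7] at h4
        exact le_of_mul_le_mul_left h4 hκ
      exact exists_grid hs0 (B.side_le_sz k) hts h3.2 h3.1 h5 hκ.le
    choose m hm using h2
    exact ⟨m, hm⟩
  choose! m hm using h1
  have h2 : T.card ≤ (Finset.univ : Finset (κ → Fin (⌊2 * κ0⌋₊ + 3))).card := by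
    refine Finset.card_le_card_of_injOn m (fun C _ => Finset.mem_univ _) ?_
    intro C hC C' hC' hmm
    by_contra hne
    obtain ⟨k, hk⟩ := hdisj C hC C' hC' hne
    have h3 := hm C hC k
    have h4 := hm C' hC' k
    rw [← hmm] at h4
    rcases hk with hk | hk
    · linarith [h3.2, h4.1]
    · linarith [h3.1, h4.2]
  refine h2.trans ?_
  rw [Finset.card_univ, Fintype.card_fun, Fintype.card_fin]
  exact le_rfl

/-! ### the position of the cut -/

/-- pigeonhole: a position in the middle third, away from finitely many walls -/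
theorem exists_position (N : ℕ) {W : Finset ℝ} (hW : W.card ≤ 2 * N) {a t : ℝ} (ht : 0 < t) :
    ∃ c, a + t / 3 < c ∧ c < a + 2 * (t / 3) ∧ ∀ w ∈ W, 1 / (12 * ((N : ℝ) + 1)) * t ≤ |c - w| := by
  classical
  set d : ℝ := t / (6 * ((N : ℝ) + 1)) with hd
  have hN : (0 : ℝ) < (N : ℝ) + 1 := by positivity
  have hd0 : 0 < d := by positivity
  have hd6 : d * (6 * ((N : ℝ) + 1)) = t := by rw [hd]; field_simp
  have hδ : 1 / (12 * ((N : ℝ) + 1)) * t = d / 2 := by rw [hd]; field_simp; ring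
  let c : Fin (2 * N + 1) → ℝ := fun j => a + t / 3 + ((j : ℝ) + 1) * d
  by_contra hcon
  push Not at hcon
  have h1 : ∀ j : Fin (2 * N + 1), ∃ w : W, |c j - w| < d / 2 := by
    intro j
    have hj : ((j : ℕ) : ℝ) ≤ 2 * N := by
      have := j.2
      have h2 : (j : ℕ) ≤ 2 * N := by omega
      exact_mod_cast h2
    obtain ⟨w, hw, hw'⟩ := hcon (c j) (by
      have : 0 < (((j : ℕ) : ℝ) + 1) * d := by positivity
      simp only [c]; linarith) (by
      have h2 : (((j : ℕ) : ℝ) + 1) * d ≤ (2 * (N : ℝ) + 1) * d :=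
        mul_le_mul_of_nonneg_right (by linarith) hd0.le
      have h3 : (2 * (N : ℝ) + 1) * d < t / 3 := by
        have h4 : (2 * (N : ℝ) + 2) * d = t / 3 := by linarith
        nlinarith
      simp only [c]; linarith)
    rw [hδ] at hw'
    exact ⟨⟨w, hw⟩, hw'⟩
  choose f hf using h1
  obtain ⟨j, j', hne, hjj⟩ := Fintype.exists_ne_map_eq_of_card_lt f (by
    rw [Fintype.card_fin, Fintype.card_coe]; omega)
  have h2 := hf j
  have h3 := hf j'
  rw [hjj] at h2
  have h4 : |c j - c j'| < d := by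
    have h5 : c j - c j' = (c j - f j') - (c j' - f j') := by ring
    rw [h5]
    calc |(c j - f j') - (c j' - f j')| ≤ |c j - f j'| + |c j' - f j'| := abs_sub _ _
      _ < d / 2 + d / 2 := by linarith
      _ = d := by ring
  have h6 : c j - c j' = (((j : ℕ) : ℝ) - ((j' : ℕ) : ℝ)) * d := by simp only [c]; ring
  rw [h6, abs_mul, abs_of_pos hd0] at h4
  have h7 : |((j : ℕ) : ℝ) - ((j' : ℕ) : ℝ)| < 1 := by
    by_contra h8
    push Not at h8
    nlinarith
  have h8 : |((j : ℕ) : ℤ) - ((j' : ℕ) : ℤ)| < 1 := by exact_mod_cast h7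
  rw [Int.abs_lt_one_iff] at h8
  apply hne
  ext
  omega

/-- the separation constant -/
noncomputable def dl (κ : Type*) [Fintype κ] (κ0 : ℝ) : ℝ := 1 / (12 * ((Nb κ κ0 : ℝ) + 1))

theorem dl_pos (κ0 : ℝ) : 0 < dl κ κ0 := by unfold dl; positivity

/-! ### volumes of the halves -/

section

variable [DecidableEq κ]

theorem vol_add (B : Bx κ) (k : κ) (c : ℝ) :
    (child B k c false).vol + (child B k c true).vol = B.vol := by
  unfold Bx.vol
  rw [← Finset.mul_prod_erase Finset.univ _ (Finset.mem_univ k),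
    ← Finset.mul_prod_erase Finset.univ (fun i => (child B k c true).side i) (Finset.mem_univ k),
    ← Finset.mul_prod_erase Finset.univ (fun i => B.side i) (Finset.mem_univ k)]
  have h3 : ∀ b, ∏ i ∈ Finset.univ.erase k, (child B k c b).side i =
      ∏ i ∈ Finset.univ.erase k, B.side i := by
    intro b
    refine Finset.prod_congr rfl fun i hi => ?_
    have hi' : i ≠ k := (Finset.mem_erase.1 hi).1
    simp only [Bx.side, child_lo_of_ne b hi', child_hi_of_ne b hi']
  rw [h3, h3, ← add_mul]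
  congr 1
  simp only [Bx.side, child_false_lo, child_false_hi, child_true_lo, child_true_hi,
    Function.update_self]
  ring

theorem vol_nonneg {B : Bx κ} (h : B.Pos) : 0 ≤ B.vol :=
  Finset.prod_nonneg fun i _ => (Bx.side_pos h i).le

theorem vol_ge {B : Bx κ} {κ0 ε : ℝ} (hκ : 0 < κ0) (hε : 0 ≤ ε)
    (h : ∀ i, ε ≤ κ0 * B.side i) : (ε / κ0) ^ Fintype.card κ ≤ B.vol := by
  unfold Bx.vol
  rw [← Finset.card_univ, ← Finset.prod_const]
  refine Finset.prod_le_prod (fun i _ => by positivity) fun i _ => ?_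
  rw [div_le_iff₀ hκ, mul_comm]
  exact h i

theorem vol_sq {B : Bx κ} (hB : B.Pos) {c : ℝ} (h1 : B.lo (ax B) + B.sz / 3 < c)
    (h2 : c < B.lo (ax B) + 2 * (B.sz / 3)) :
    (child B (ax B) c false).vol ^ 2 + (child B (ax B) c true).vol ^ 2 ≤
      B.vol ^ 2 - 1 / 3 * B.vol ^ 2 := by
  have hs : 0 < B.sz := Bx.sz_pos hB
  have hs' : B.sz = B.hi (ax B) - B.lo (ax B) := rfl
  have h3 := vol_child hB h1 h2 false
  have h4 := vol_child hB h1 h2 true
  have h5 := vol_add B (ax B) c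
  have hp := fun b => vol_nonneg (child_pos hB (i := ax B) (t := c) (by linarith) (by linarith) b)
  have h6 := hp false
  have h7 := hp true
  nlinarith [mul_nonneg h6 (sub_nonneg.2 h3), mul_nonneg h7 (sub_nonneg.2 h4)]

/-! ### the greedy process -/

/-- the box need not be cut any more -/
def Done (rho : (κ → ℝ) → ℝ) (B : Bx κ) : Prop := ∀ x ∈ B.set, B.sz ≤ rho x

/-- the state of the process -/
structure St (κ0 δ : ℝ) (rho : (κ → ℝ) → ℝ) (P : Finset (Bx κ)) : Prop where
  pos : ∀ X ∈ P, X.Pos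
  inv : INV δ (↑P : Set (Bx κ))
  cmp : ∀ U ∈ P, ¬ Done rho U → ∀ B ∈ P, ∀ i, U.sz ≤ κ0 * B.side i

/-- one step of the process -/
def Stp (rho : (κ → ℝ) → ℝ) (P P' : Finset (Bx κ)) : Prop :=
  ∃ B ∈ P, ¬ Done rho B ∧ (∀ U ∈ P, ¬ Done rho U → U.sz ≤ B.sz) ∧
    ∃ c, B.lo (ax B) + B.sz / 3 < c ∧ c < B.lo (ax B) + 2 * (B.sz / 3) ∧
      ∀ X, X ∈ P' ↔ (X ∈ P ∧ X ≠ B) ∨ X = child B (ax B) c false ∨ X = child B (ax B) c true

theorem side_child_of {B : Bx κ} {κ0 c : ℝ} (h3 : 3 ≤ κ0)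
    (hside : ∀ i, B.sz ≤ κ0 * B.side i) (hB : B.Pos)
    (h1 : B.lo (ax B) + B.sz / 3 < c) (h2 : c < B.lo (ax B) + 2 * (B.sz / 3)) (b : Bool) (i : κ) :
    B.sz ≤ κ0 * (child B (ax B) c b).side i := by
  have hs : 0 < B.sz := Bx.sz_pos hB
  have hs' : B.sz = B.hi (ax B) - B.lo (ax B) := rfl
  by_cases hi : i = ax B
  · subst hi
    have h4 : B.sz / 3 ≤ (child B (ax B) c b).side (ax B) := by
      cases b
      · simp only [Bx.side, child_false_lo, child_false_hi, Function.update_self]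
        linarith
      · simp only [Bx.side, child_true_lo, child_true_hi, Function.update_self]
        linarith
    nlinarith
  · have h4 : (child B (ax B) c b).side i = B.side i := by
      simp only [Bx.side, child_lo_of_ne b hi, child_hi_of_ne b hi]
    rw [h4]
    exact hside i

theorem sz_child_ge {B : Bx κ} {c : ℝ}
    (h1 : B.lo (ax B) + B.sz / 3 < c) (h2 : c < B.lo (ax B) + 2 * (B.sz / 3)) (b : Bool) :
    B.sz ≤ 3 * (child B (ax B) c b).sz := by
  have hs' : B.sz = B.hi (ax B) - B.lo (ax B) := rfl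
  have h4 : B.sz / 3 ≤ (child B (ax B) c b).side (ax B) := by
    cases b
    · simp only [Bx.side, child_false_lo, child_false_hi, Function.update_self]
      linarith
    · simp only [Bx.side, child_true_lo, child_true_hi, Function.update_self]
      linarith
  have h5 := (child B (ax B) c b).side_le_sz (ax B)
  linarith

/-- **one greedy step exists** -/
theorem exists_step {κ0 δ : ℝ} {rho : (κ → ℝ) → ℝ} (h3 : 3 ≤ κ0) (hδ : 0 < δ)
    (hδ' : δ ≤ dl κ κ0) {P : Finset (Bx κ)} (h : St κ0 δ rho P)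
    (hex : ∃ U ∈ P, ¬ Done rho U) : ∃ P' : Finset (Bx κ), Stp rho P P' ∧ St κ0 δ rho P' := by
  classical
  have hκ : 0 < κ0 := by linarith
  obtain ⟨B, hB, hBmax⟩ : ∃ B ∈ P.filter (fun U => ¬ Done rho U),
      ∀ U ∈ P.filter (fun U => ¬ Done rho U), U.sz ≤ B.sz := by
    obtain ⟨U, hU, hU'⟩ := hex
    exact Finset.exists_max_image _ _ ⟨U, Finset.mem_filter.2 ⟨hU, hU'⟩⟩
  rw [Finset.mem_filter] at hB
  obtain ⟨hBP, hBD⟩ := hB
  have hmax : ∀ U ∈ P, ¬ Done rho U → U.sz ≤ B.sz :=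
    fun U hU hU' => hBmax U (Finset.mem_filter.2 ⟨hU, hU'⟩)
  have hBp := h.pos B hBP
  have hs : 0 < B.sz := Bx.sz_pos hBp
  have hs' : B.sz = B.hi (ax B) - B.lo (ax B) := rfl
  -- touching boxes
  set T : Finset (Bx κ) := P.filter (fun C => Touch B C) with hT
  have hTc : T.card ≤ Nb κ κ0 := by
    refine touch_card hκ hs (B := B) ?_ ?_ ?_
    · intro C hC
      exact (Finset.mem_filter.1 hC).2
    · intro C hC i
      exact h.cmp B hBP hBD C (Finset.mem_filter.1 hC).1 i
    · intro C hC C' hC' hne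
      have h1 := (Finset.mem_filter.1 hC).1
      have h2 := (Finset.mem_filter.1 hC').1
      exact h.inv.disj (by exact_mod_cast h1) (by exact_mod_cast h2) (h.pos C h1) (h.pos C' h2) hne
  set W : Finset ℝ := T.image (fun C => C.lo (ax B)) ∪ T.image (fun C => C.hi (ax B)) with hW
  have hWc : W.card ≤ 2 * Nb κ κ0 := by
    refine (Finset.card_union_le _ _).trans ?_
    have h1 := Finset.card_image_le (s := T) (f := fun C : Bx κ => C.lo (ax B))
    have h2 := Finset.card_image_le (s := T) (f := fun C : Bx κ => C.hi (ax B))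
    omega
  obtain ⟨c, hc1, hc2, hc3⟩ := exists_position (Nb κ κ0) hWc (a := B.lo (ax B)) hs
  have hlt1 : B.lo (ax B) < c := by linarith
  have hlt2 : c < B.hi (ax B) := by linarith
  have hcw : ∀ C ∈ (↑P : Set (Bx κ)), Touch B C →
      δ * B.sz ≤ |c - C.lo (ax B)| ∧ δ * B.sz ≤ |c - C.hi (ax B)| := by
    intro C hC hBC
    have hCT : C ∈ T := Finset.mem_filter.2 ⟨by exact_mod_cast hC, hBC⟩
    have h4 : δ * B.sz ≤ dl κ κ0 * B.sz := mul_le_mul_of_nonneg_right hδ' hs.le
    constructor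
    · exact h4.trans (hc3 _ (Finset.mem_union_left _ (Finset.mem_image_of_mem _ hCT)))
    · exact h4.trans (hc3 _ (Finset.mem_union_right _ (Finset.mem_image_of_mem _ hCT)))
  have hcut := h.inv.cut hδ (fun X hX => h.pos X (by exact_mod_cast hX)) (by exact_mod_cast hBP)
    (ax B) hcw hlt1 hlt2
  set P' : Finset (Bx κ) := insert (child B (ax B) c false)
    (insert (child B (ax B) c true) (P.erase B)) with hP'
  have hmem : ∀ X, X ∈ P' ↔ (X ∈ P ∧ X ≠ B) ∨ X = child B (ax B) c false ∨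
      X = child B (ax B) c true := by
    intro X
    rw [hP', Finset.mem_insert, Finset.mem_insert, Finset.mem_erase]
    tauto
  refine ⟨P', ⟨B, hBP, hBD, hmax, c, hc1, hc2, hmem⟩, ?_, ?_, ?_⟩
  · intro X hX
    rcases (hmem X).1 hX with hX | hX | hX
    · exact h.pos X hX.1
    · rw [hX]; exact child_pos hBp hlt1 hlt2 false
    · rw [hX]; exact child_pos hBp hlt1 hlt2 true
  · have hset : (↑P' : Set (Bx κ)) = {X | X ∈ (↑P : Set (Bx κ)) ∧ X ≠ B} ∪
        {child B (ax B) c false, child B (ax B) c true} := by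
      ext X
      rw [Finset.mem_coe, hmem]
      simp
      tauto
    rw [hset]
    exact hcut
  · intro U hU hUD X hX i
    -- size of U at most size of B
    have hUB : U.sz ≤ B.sz := by
      rcases (hmem U).1 hU with hU1 | hU1 | hU1
      · exact hmax U hU1.1 hUD
      · rw [hU1]; exact (child_le hlt1.le hlt2.le false).sz_le
      · rw [hU1]; exact (child_le hlt1.le hlt2.le true).sz_le
    refine hUB.trans ?_
    have hBB := h.cmp B hBP hBD B hBP
    rcases (hmem X).1 hX with hX1 | hX1 | hX1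
    · exact h.cmp B hBP hBD X hX1.1 i
    · rw [hX1]; exact side_child_of h3 hBB hBp hc1 hc2 false i
    · rw [hX1]; exact side_child_of h3 hBB hBp hc1 hc2 true i

/-- the potential of a state -/
noncomputable def pot (P : Finset (Bx κ)) : ℝ := ∑ X ∈ P, X.vol ^ 2

theorem pot_step {κ0 δ : ℝ} {rho : (κ → ℝ) → ℝ} (hκ : 0 < κ0) {P P' : Finset (Bx κ)}
    (h : St κ0 δ rho P) (hs : Stp rho P P') {ε : ℝ} (hε : 0 ≤ ε)
    (hex : ∃ U ∈ P, ¬ Done rho U ∧ ε ≤ U.sz) :
    pot P' ≤ pot P - 1 / 3 * ((ε / κ0) ^ Fintype.card κ) ^ 2 := by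
  classical
  obtain ⟨B, hB, hBD, hmax, c, hc1, hc2, hmem⟩ := hs
  obtain ⟨U, hU, hUD, hεU⟩ := hex
  have hBp := h.pos B hB
  have hεB : ε ≤ B.sz := hεU.trans (hmax U hU hUD)
  have hP' : P' = insert (child B (ax B) c false) (insert (child B (ax B) c true) (P.erase B)) := by
    ext X
    rw [hmem, Finset.mem_insert, Finset.mem_insert, Finset.mem_erase]
    tauto
  have hins : ∀ (X : Bx κ) (S : Finset (Bx κ)), pot (insert X S) ≤ X.vol ^ 2 + pot S := by
    intro X S
    unfold pot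
    by_cases hX : X ∈ S
    · rw [Finset.insert_eq_of_mem hX]
      have : 0 ≤ X.vol ^ 2 := by positivity
      linarith
    · rw [Finset.sum_insert hX]
  have h1 : pot P = B.vol ^ 2 + pot (P.erase B) := by
    unfold pot
    rw [Finset.add_sum_erase P (fun X : Bx κ => X.vol ^ 2) hB]
  have h2 := hins (child B (ax B) c false) (insert (child B (ax B) c true) (P.erase B))
  have h3 := hins (child B (ax B) c true) (P.erase B)
  have h4 := vol_sq hBp hc1 hc2
  have h5 : (ε / κ0) ^ Fintype.card κ ≤ B.vol :=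
    vol_ge hκ hε fun i => hεB.trans (h.cmp B hB hBD B hB i)
  have h6 : 0 ≤ (ε / κ0) ^ Fintype.card κ := by positivity
  have h7 : ((ε / κ0) ^ Fintype.card κ) ^ 2 ≤ B.vol ^ 2 := pow_le_pow_left₀ h6 h5 2
  rw [hP']
  linarith

end

end Crest.Agent.R096.Bsp_628
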