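import Crest.Agent.R096.Bsp4_628

/-!
# Row 96, U1 / FOAM-EX (helper628), part 5: stacking lemma and the crossing logs

`INVa η P` = the invariant with an absolute lower bound `η` for the nondegenerate extents.
`INVa.stack`: families in consecutive slabs satisfy `INVa` together as soon as each slab does and the
walls of neighbouring slabs keep the distance `η`. With it: rows of logs, slabs of rows, crossing logs.
-/

set_option autoImplicit false
set_option linter.unusedSectionVars false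

open Set

namespace Crest.Agent.R096.Bsp_628

section Stack

variable {κ : Type*} [Fintype κ]

/-- the invariant with an absolute margin -/
def INVa (η : ℝ) (P : Set (Bx κ)) : Prop :=
  ∀ A : Finset (Bx κ), (↑A : Set (Bx κ)) ⊆ P → A.Nonempty → Meet A →
    {k | Deg A k}.ncard + 1 = A.card ∧
    ∀ k, ¬ Deg A k → ∀ B ∈ A, ∀ C ∈ A, B.lo k + η ≤ C.hi k

theorem INVa.mono {η : ℝ} {P P' : Set (Bx κ)} (h : INVa η P) (hP : P' ⊆ P) : INVa η P' :=
  fun A hA hne hm => h A (hA.trans hP) hne hm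

theorem INVa.toINV [Nonempty κ] {η S : ℝ} {P : Set (Bx κ)} (h : INVa η P) (hη : 0 < η) (hS : 0 < S)
    (hs : ∀ B ∈ P, B.sz ≤ S) : INV (η / S) P := by
  intro A hA hne hm
  obtain ⟨h1, h2⟩ := h A hA hne hm
  refine ⟨h1, fun k hk => ?_⟩
  obtain ⟨D, hD⟩ := hne
  refine ⟨D, hD, fun B hB C hC => ?_⟩
  have h3 := h2 k hk B hB C hC
  have h4 := hs D (hA (by exact_mod_cast hD))
  have h5 : η / S * D.sz ≤ η := by
    rw [div_mul_eq_mul_div, div_le_iff₀ hS]
    exact mul_le_mul_of_nonneg_left h4 hη.le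
  linarith

theorem invA_single {Q : Bx κ} {η : ℝ} (hη : 0 < η) (hQ : ∀ k, Q.lo k + η ≤ Q.hi k) :
    INVa η {Q} := by
  classical
  intro A hA hne hm
  have hA' : A = {Q} := by
    refine Finset.eq_singleton_iff_nonempty_unique_mem.2 ⟨hne, fun X hX => ?_⟩
    have := hA (by exact_mod_cast hX : X ∈ (↑A : Set (Bx κ)))
    simpa using this
  subst hA'
  refine ⟨?_, fun k _ X hX Y hY => ?_⟩
  · have : {k | Deg ({Q} : Finset (Bx κ)) k} = ∅ := by
      ext k
      simp only [Set.mem_ofPred_eq, Set.mem_empty_iff_false, iff_false]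
      rintro ⟨X, hX, Y, hY, hXY⟩
      rw [Finset.mem_singleton] at hX hY
      rw [hX, hY] at hXY
      linarith [hQ k]
    rw [this, Set.ncard_empty, Finset.card_singleton]
  · rw [Finset.mem_singleton] at hX hY
    rw [hX, hY]
    exact hQ k

/-- two families on the two sides of a plane -/
theorem join2 {η : ℝ} (hη : 0 < η) {S1 S2 : Set (Bx κ)} (h1 : INVa η S1) (h2 : INVa η S2)
    (hp1 : ∀ X ∈ S1, X.Pos) (hp2 : ∀ X ∈ S2, X.Pos) {k0 : κ} {v : ℝ}
    (hv1 : ∀ X ∈ S1, X.hi k0 = v) (hv2 : ∀ X ∈ S2, X.lo k0 = v)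
    (hcr : ∀ X ∈ S1, ∀ Y ∈ S2, ∀ j, j ≠ k0 → η ≤ |X.lo j - Y.hi j| ∧ η ≤ |X.hi j - Y.lo j|) :
    INVa η (S1 ∪ S2) := by
  classical
  intro A hA hne hm
  set A1 : Finset (Bx κ) := A.filter (fun X => X ∈ S1) with hA1
  set A2 : Finset (Bx κ) := A.filter (fun X => ¬ X ∈ S1) with hA2
  have hm1 : ∀ X ∈ A1, X ∈ S1 ∧ X ∈ A := fun X hX =>
    ⟨(Finset.mem_filter.1 hX).2, (Finset.mem_filter.1 hX).1⟩
  have hm2 : ∀ X ∈ A2, X ∈ S2 ∧ X ∈ A := by
    intro X hX
    rw [hA2, Finset.mem_filter] at hX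
    rcases hA (by exact_mod_cast hX.1 : X ∈ (↑A : Set (Bx κ))) with h | h
    · exact absurd h hX.2
    · exact ⟨h, hX.1⟩
  have hcard : A.card = A1.card + A2.card := by
    rw [hA1, hA2]
    exact (Finset.card_filter_add_card_filter_not (s := A) (fun X => X ∈ S1)).symm
  have hsplit : ∀ X ∈ A, X ∈ A1 ∨ X ∈ A2 := by
    intro X hX
    by_cases h : X ∈ S1
    · exact Or.inl (Finset.mem_filter.2 ⟨hX, h⟩)
    · exact Or.inr (Finset.mem_filter.2 ⟨hX, h⟩)
  rcases A1.eq_empty_or_nonempty with he1 | hne1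
  · refine h2 A (fun X hX => ?_) hne hm
    rcases hsplit X (by exact_mod_cast hX) with h | h
    · rw [he1] at h; simp at h
    · exact (hm2 X h).1
  rcases A2.eq_empty_or_nonempty with he2 | hne2
  · refine h1 A (fun X hX => ?_) hne hm
    rcases hsplit X (by exact_mod_cast hX) with h | h
    · exact (hm1 X h).1
    · rw [he2] at h; simp at h
  obtain ⟨c1, d1⟩ := h1 A1 (fun X hX => (hm1 X (by exact_mod_cast hX)).1) hne1
    (fun B hB C hC k => hm B (hm1 B hB).2 C (hm1 C hC).2 k)
  obtain ⟨c2, d2⟩ := h2 A2 (fun X hX => (hm2 X (by exact_mod_cast hX)).1) hne2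
    (fun B hB C hC k => hm B (hm2 B hB).2 C (hm2 C hC).2 k)
  have hk1 : ¬ Deg A1 k0 := by
    rintro ⟨X, hX, Y, hY, hXY⟩
    have h3 := hp1 X (hm1 X hX).1 k0
    rw [hv1 X (hm1 X hX).1] at h3
    rw [hv1 Y (hm1 Y hY).1] at hXY
    linarith
  have hk2 : ¬ Deg A2 k0 := by
    rintro ⟨X, hX, Y, hY, hXY⟩
    have h3 := hp2 Y (hm2 Y hY).1 k0
    rw [hv2 Y (hm2 Y hY).1] at h3
    rw [hv2 X (hm2 X hX).1] at hXY
    linarith
  have hk : Deg A k0 := by
    obtain ⟨X, hX⟩ := hne1
    obtain ⟨Y, hY⟩ := hne2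
    exact ⟨Y, (hm2 Y hY).2, X, (hm1 X hX).2, by rw [hv1 X (hm1 X hX).1, hv2 Y (hm2 Y hY).1]⟩
  have hdj : ∀ j, j ≠ k0 → (Deg A j ↔ Deg A1 j ∨ Deg A2 j) := by
    intro j hj
    constructor
    · rintro ⟨X, hX, Y, hY, hXY⟩
      rcases hsplit X hX with hX1 | hX1 <;> rcases hsplit Y hY with hY1 | hY1
      · exact Or.inl ⟨X, hX1, Y, hY1, hXY⟩
      · exfalso
        have h3 := (hcr X (hm1 X hX1).1 Y (hm2 Y hY1).1 j hj).1
        rw [hXY, sub_self, abs_zero] at h3
        linarith
      · exfalso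
        have h3 := (hcr Y (hm1 Y hY1).1 X (hm2 X hX1).1 j hj).2
        rw [← hXY, sub_self, abs_zero] at h3
        linarith
      · exact Or.inr ⟨X, hX1, Y, hY1, hXY⟩
    · rintro (⟨X, hX, Y, hY, hXY⟩ | ⟨X, hX, Y, hY, hXY⟩)
      · exact ⟨X, (hm1 X hX).2, Y, (hm1 Y hY).2, hXY⟩
      · exact ⟨X, (hm2 X hX).2, Y, (hm2 Y hY).2, hXY⟩
  have hdisj : Disjoint {k | Deg A1 k} {k | Deg A2 k} := by
    rw [Set.disjoint_left]
    rintro j ⟨X, hX, Y, hY, hXY⟩ ⟨X', hX', Y', hY', hXY'⟩
    have hj : j ≠ k0 := by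
      rintro rfl
      exact hk1 ⟨X, hX, Y, hY, hXY⟩
    have h3 := hm X (hm1 X hX).2 Y' (hm2 Y' hY').2 j
    have h4 := hm X' (hm2 X' hX').2 Y (hm1 Y hY).2 j
    have h5 := (hcr X (hm1 X hX).1 Y' (hm2 Y' hY').1 j hj).1
    have h6 : X.lo j - Y'.hi j = 0 := by linarith
    rw [h6, abs_zero] at h5
    linarith
  have hset : {k | Deg A k} = insert k0 ({k | Deg A1 k} ∪ {k | Deg A2 k}) := by
    ext j
    simp only [Set.mem_ofPred_eq, Set.mem_insert_iff, Set.mem_union]
    by_cases hj : j = k0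
    · subst hj; simp [hk]
    · rw [hdj j hj]; simp [hj]
  refine ⟨?_, ?_⟩
  · rw [hset, Set.ncard_insert_of_notMem (by
      simp only [Set.mem_union, Set.mem_ofPred_eq, not_or]
      exact ⟨hk1, hk2⟩) (Set.toFinite _), Set.ncard_union_eq hdisj (Set.toFinite _) (Set.toFinite _)]
    omega
  · intro j hj
    have hjk : j ≠ k0 := by
      rintro rfl
      exact hj hk
    rw [hdj j hjk, not_or] at hj
    intro X hX Y hY
    rcases hsplit X hX with hX1 | hX1 <;> rcases hsplit Y hY with hY1 | hY1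
    · exact d1 j hj.1 X hX1 Y hY1
    · have h3 := (hcr X (hm1 X hX1).1 Y (hm2 Y hY1).1 j hjk).1
      have h4 := hm X hX Y hY j
      rw [abs_of_nonpos (by linarith)] at h3
      linarith
    · have h3 := (hcr Y (hm1 Y hY1).1 X (hm2 X hX1).1 j hjk).2
      have h4 := hm X hX Y hY j
      rw [abs_of_nonneg (by linarith)] at h3
      linarith
    · exact d2 j hj.2 X hX1 Y hY1

/-- **stacking**: families in consecutive slabs -/
theorem INVa.stack {η : ℝ} (hη : 0 < η) (S : ℤ → Set (Bx κ)) (k0 : κ) (a : ℤ → ℝ)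
    (ha : StrictMono a) (hlo : ∀ k, ∀ X ∈ S k, X.lo k0 = a k) (hhi : ∀ k, ∀ X ∈ S k, X.hi k0 = a (k + 1))
    (hp : ∀ k, ∀ X ∈ S k, X.Pos) (h : ∀ k, INVa η (S k))
    (hcr : ∀ k, ∀ X ∈ S k, ∀ Y ∈ S (k + 1), ∀ j, j ≠ k0 →
      η ≤ |X.lo j - Y.hi j| ∧ η ≤ |X.hi j - Y.lo j|) : INVa η (⋃ k, S k) := by
  classical
  intro A hA hne hm
  obtain ⟨X0, hX0, hmin⟩ := Finset.exists_min_image A (fun X => X.lo k0) hne
  obtain ⟨k, hk⟩ := Set.mem_iUnion.1 (hA (by exact_mod_cast hX0 : X0 ∈ (↑A : Set (Bx κ))))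
  have hj := join2 hη (h k) (h (k + 1)) (hp k) (hp (k + 1)) (hhi k) (hlo (k + 1)) (hcr k)
  refine hj A (fun X hX => ?_) hne hm
  obtain ⟨k', hk'⟩ := Set.mem_iUnion.1 (hA hX)
  have h1 := hmin X (by exact_mod_cast hX)
  rw [hlo k X0 hk, hlo k' X hk'] at h1
  have h2 := hm X (by exact_mod_cast hX) X0 hX0 k0
  rw [hlo k' X hk', hhi k X0 hk] at h2
  have h3 : k ≤ k' := ha.le_iff_le.1 h1
  have h4 : k' ≤ k + 1 := ha.le_iff_le.1 h2
  rcases h3.eq_or_lt with h5 | h5
  · left; rw [h5]; exact hk'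
  · right
    have h6 : k' = k + 1 := by omega
    rw [← h6]; exact hk'

end Stack

/-! ### the crossing logs -/

/-- the log number `m` of the row `j` of the slab `k`; length `2q` -/
noncomputable def logB (q : ℕ) (k j m : ℤ) : Bx (Fin 3) :=
  if Even k then
    ⟨![1 / 2 + q * (j + 2 * m), j, k], ![1 / 2 + q * (j + 2 * m + 2), j + 1, k + 1]⟩
  else
    ⟨![j, 1 / 2 + q * (j + 2 * m), k], ![j + 1, 1 / 2 + q * (j + 2 * m + 2), k + 1]⟩

/-- all the logs -/
def Logs (q : ℕ) : Set (Bx (Fin 3)) := {B | ∃ k j m, B = logB q k j m}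

theorem logB_even {q : ℕ} {k : ℤ} (hk : Even k) (j m : ℤ) : logB q k j m =
    ⟨![1 / 2 + q * (j + 2 * m), j, k], ![1 / 2 + q * (j + 2 * m + 2), j + 1, k + 1]⟩ := by
  rw [logB, if_pos hk]

theorem logB_odd {q : ℕ} {k : ℤ} (hk : ¬ Even k) (j m : ℤ) : logB q k j m =
    ⟨![j, 1 / 2 + q * (j + 2 * m), k], ![j + 1, 1 / 2 + q * (j + 2 * m + 2), k + 1]⟩ := by
  rw [logB, if_neg hk]

theorem logB_lo2 (q : ℕ) (k j m : ℤ) : (logB q k j m).lo 2 = k := by
  unfold logB; split_ifs <;> simp

theorem logB_hi2 (q : ℕ) (k j m : ℤ) : (logB q k j m).hi 2 = k + 1 := by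
  unfold logB; split_ifs <;> simp

/-- sides of a log -/
theorem logB_side (q : ℕ) (hq : 1 ≤ q) (k j m : ℤ) (i : Fin 3) :
    1 ≤ (logB q k j m).side i ∧ (logB q k j m).side i ≤ 2 * q := by
  have hq' : (1 : ℝ) ≤ q := by exact_mod_cast hq
  unfold Bx.side logB
  split_ifs <;> fin_cases i <;> refine ⟨?_, ?_⟩ <;> simp <;> linarith

theorem logB_pos (q : ℕ) (hq : 1 ≤ q) (k j m : ℤ) : (logB q k j m).Pos := by
  intro i
  have := (logB_side q hq k j m i).1
  unfold Bx.side at this
  linarith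

/-- odd multiples of `q ≥ 1` are at distance at least `1` from `0` -/
theorem odd_mul_abs {q : ℕ} (hq : 1 ≤ q) {z : ℤ} (hz : ¬ Even z) : (1 : ℝ) ≤ |(q : ℝ) * z| := by
  have hz0 : z ≠ 0 := by
    rintro rfl
    exact hz ⟨0, rfl⟩
  have h1 : (1 : ℤ) ≤ |z| := Int.one_le_abs hz0
  have h2 : (1 : ℝ) ≤ |(z : ℝ)| := by exact_mod_cast h1
  rw [abs_mul]
  have h3 : (1 : ℝ) ≤ |(q : ℝ)| := by
    rw [abs_of_nonneg (by positivity)]
    exact_mod_cast hq
  nlinarith [abs_nonneg (z : ℝ)]

/-- half integers are at distance at least `1/2` from the integers -/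
theorem half_abs (z : ℤ) : (1 / 2 : ℝ) ≤ |1 / 2 + (z : ℝ)| := by
  rcases lt_or_ge z 0 with h | h
  · have h1 : z ≤ -1 := by omega
    have h2 : (z : ℝ) ≤ -1 := by exact_mod_cast h1
    rw [abs_of_nonpos (by linarith)]
    linarith
  · have h2 : (0 : ℝ) ≤ z := by exact_mod_cast h
    rw [abs_of_nonneg (by linarith)]
    linarith

/-- one row -/
theorem row_inv (q : ℕ) (hq : 1 ≤ q) (k j : ℤ) :
    INVa (1 / 2) (⋃ m : ℤ, ({logB q k j m} : Set (Bx (Fin 3)))) := by
  have hq' : (1 : ℝ) ≤ q := by exact_mod_cast hq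
  have hside : ∀ m i, (logB q k j m).lo i + 1 ≤ (logB q k j m).hi i := by
    intro m i
    have := (logB_side q hq k j m i).1
    unfold Bx.side at this
    linarith
  by_cases hk : Even k
  · refine INVa.stack (by norm_num) _ (0 : Fin 3) (fun m => 1 / 2 + q * ((j : ℝ) + 2 * m)) ?_ ?_ ?_
      ?_ ?_ ?_
    · intro m m' h
      have : (m : ℝ) < m' := by exact_mod_cast h
      simp only
      nlinarith
    · intro m X hX
      rw [Set.mem_singleton_iff] at hX
      rw [hX, logB_even hk]; simp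
    · intro m X hX
      rw [Set.mem_singleton_iff] at hX
      rw [hX, logB_even hk]
      simp only [Matrix.cons_val_zero]
      push_cast
      ring
    · intro m X hX
      rw [Set.mem_singleton_iff] at hX
      rw [hX]; exact logB_pos q hq k j m
    · intro m
      exact invA_single (by norm_num) fun i => by linarith [hside m i]
    · intro m X hX Y hY i hi
      rw [Set.mem_singleton_iff] at hX hY
      rw [hX, hY, logB_even hk, logB_even hk]
      fin_cases i
      · exact absurd rfl hi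
      · simp only [Fin.mk_one, Matrix.cons_val_one, Matrix.cons_val_zero]
        constructor
        · rw [abs_of_nonpos (by linarith)]; linarith
        · rw [abs_of_nonneg (by linarith)]; linarith
      · simp only [Fin.reduceFinMk, Matrix.cons_val]
        constructor
        · rw [abs_of_nonpos (by linarith)]; linarith
        · rw [abs_of_nonneg (by linarith)]; linarith
  · refine INVa.stack (by norm_num) _ (1 : Fin 3) (fun m => 1 / 2 + q * ((j : ℝ) + 2 * m)) ?_ ?_ ?_
      ?_ ?_ ?_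
    · intro m m' h
      have : (m : ℝ) < m' := by exact_mod_cast h
      simp only
      nlinarith
    · intro m X hX
      rw [Set.mem_singleton_iff] at hX
      rw [hX, logB_odd hk]; simp
    · intro m X hX
      rw [Set.mem_singleton_iff] at hX
      rw [hX, logB_odd hk]
      simp only [Matrix.cons_val_one, Matrix.cons_val_zero]
      push_cast
      ring
    · intro m X hX
      rw [Set.mem_singleton_iff] at hX
      rw [hX]; exact logB_pos q hq k j m
    · intro m
      exact invA_single (by norm_num) fun i => by linarith [hside m i]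
    · intro m X hX Y hY i hi
      rw [Set.mem_singleton_iff] at hX hY
      rw [hX, hY, logB_odd hk, logB_odd hk]
      fin_cases i
      · simp only [Fin.zero_eta, Matrix.cons_val_zero]
        constructor
        · rw [abs_of_nonpos (by linarith)]; linarith
        · rw [abs_of_nonneg (by linarith)]; linarith
      · exact absurd rfl hi
      · simp only [Fin.reduceFinMk, Matrix.cons_val]
        constructor
        · rw [abs_of_nonpos (by linarith)]; linarith
        · rw [abs_of_nonneg (by linarith)]; linarith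

/-- one slab -/
theorem slab_inv (q : ℕ) (hq : 1 ≤ q) (k : ℤ) :
    INVa (1 / 2) (⋃ j : ℤ, ⋃ m : ℤ, ({logB q k j m} : Set (Bx (Fin 3)))) := by
  have hmem : ∀ j X, X ∈ (⋃ m : ℤ, ({logB q k j m} : Set (Bx (Fin 3)))) → ∃ m, X = logB q k j m := by
    intro j X hX
    obtain ⟨m, hm⟩ := Set.mem_iUnion.1 hX
    exact ⟨m, hm⟩
  -- the difference of walls of neighbouring rows
  have hodd : ∀ (j m m' : ℤ), (1 / 2 : ℝ) ≤ |(1 / 2 + q * ((j : ℝ) + 2 * m)) -
      (1 / 2 + q * (((j + 1 : ℤ) : ℝ) + 2 * m' + 2))| ∧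
      (1 / 2 : ℝ) ≤ |(1 / 2 + q * ((j : ℝ) + 2 * m + 2)) -
      (1 / 2 + q * (((j + 1 : ℤ) : ℝ) + 2 * m'))| := by
    intro j m m'
    constructor
    · have h1 := odd_mul_abs hq (z := 2 * (m - m') - 3) (by
        intro ⟨r, hr⟩; omega)
      have h2 : (1 / 2 + (q : ℝ) * ((j : ℝ) + 2 * m)) -
          (1 / 2 + q * (((j + 1 : ℤ) : ℝ) + 2 * m' + 2)) = (q : ℝ) * ((2 * (m - m') - 3 : ℤ) : ℝ) := by
        push_cast; ring
      rw [h2]
      linarith
    · have h1 := odd_mul_abs hq (z := 2 * (m - m') + 1) (by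
        intro ⟨r, hr⟩; omega)
      have h2 : (1 / 2 + (q : ℝ) * ((j : ℝ) + 2 * m + 2)) -
          (1 / 2 + q * (((j + 1 : ℤ) : ℝ) + 2 * m')) = (q : ℝ) * ((2 * (m - m') + 1 : ℤ) : ℝ) := by
        push_cast; ring
      rw [h2]
      linarith
  by_cases hk : Even k
  · refine INVa.stack (by norm_num) _ (1 : Fin 3) (fun j => (j : ℝ)) ?_ ?_ ?_ ?_ ?_ ?_
    · exact fun j j' h => Int.cast_lt.2 h
    · intro j X hX
      obtain ⟨m, rfl⟩ := hmem j X hX
      rw [logB_even hk]; simp
    · intro j X hX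
      obtain ⟨m, rfl⟩ := hmem j X hX
      rw [logB_even hk]; simp
    · intro j X hX
      obtain ⟨m, rfl⟩ := hmem j X hX
      exact logB_pos q hq k j m
    · intro j
      exact row_inv q hq k j
    · intro j X hX Y hY i hi
      obtain ⟨m, rfl⟩ := hmem j X hX
      obtain ⟨m', rfl⟩ := hmem (j + 1) Y hY
      rw [logB_even hk, logB_even hk]
      fin_cases i
      · simp only [Fin.zero_eta, Matrix.cons_val_zero]
        exact hodd j m m'
      · exact absurd rfl hi
      · simp only [Fin.reduceFinMk, Matrix.cons_val]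
        constructor
        · rw [abs_of_nonpos (by linarith)]; linarith
        · rw [abs_of_nonneg (by linarith)]; linarith
  · refine INVa.stack (by norm_num) _ (0 : Fin 3) (fun j => (j : ℝ)) ?_ ?_ ?_ ?_ ?_ ?_
    · exact fun j j' h => Int.cast_lt.2 h
    · intro j X hX
      obtain ⟨m, rfl⟩ := hmem j X hX
      rw [logB_odd hk]; simp
    · intro j X hX
      obtain ⟨m, rfl⟩ := hmem j X hX
      rw [logB_odd hk]; simp
    · intro j X hX
      obtain ⟨m, rfl⟩ := hmem j X hX
      exact logB_pos q hq k j m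
    · intro j
      exact row_inv q hq k j
    · intro j X hX Y hY i hi
      obtain ⟨m, rfl⟩ := hmem j X hX
      obtain ⟨m', rfl⟩ := hmem (j + 1) Y hY
      rw [logB_odd hk, logB_odd hk]
      fin_cases i
      · exact absurd rfl hi
      · simp only [Fin.mk_one, Matrix.cons_val_one, Matrix.cons_val_zero]
        exact hodd j m m'
      · simp only [Fin.reduceFinMk, Matrix.cons_val]
        constructor
        · rw [abs_of_nonpos (by linarith)]; linarith
        · rw [abs_of_nonneg (by linarith)]; linarith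

/-- **the crossing logs satisfy the invariant** -/
theorem logs_inv (q : ℕ) (hq : 1 ≤ q) : INVa (1 / 2) (Logs q) := by
  have hmem : ∀ k X, X ∈ (⋃ j : ℤ, ⋃ m : ℤ, ({logB q k j m} : Set (Bx (Fin 3)))) →
      ∃ j m, X = logB q k j m := by
    intro k X hX
    obtain ⟨j, hj⟩ := Set.mem_iUnion.1 hX
    obtain ⟨m, hm⟩ := Set.mem_iUnion.1 hj
    exact ⟨j, m, hm⟩
  have hst : INVa (1 / 2) (⋃ k : ℤ, ⋃ j : ℤ, ⋃ m : ℤ, ({logB q k j m} : Set (Bx (Fin 3)))) := by
    refine INVa.stack (by norm_num) _ (2 : Fin 3) (fun k => (k : ℝ)) ?_ ?_ ?_ ?_ ?_ ?_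
    · exact fun j j' h => Int.cast_lt.2 h
    · intro k X hX
      obtain ⟨j, m, rfl⟩ := hmem k X hX
      exact logB_lo2 q k j m
    · intro k X hX
      obtain ⟨j, m, rfl⟩ := hmem k X hX
      rw [logB_hi2]; push_cast; rfl
    · intro k X hX
      obtain ⟨j, m, rfl⟩ := hmem k X hX
      exact logB_pos q hq k j m
    · intro k
      exact slab_inv q hq k
    · intro k X hX Y hY i hi
      obtain ⟨j, m, rfl⟩ := hmem k X hX
      obtain ⟨j', m', rfl⟩ := hmem (k + 1) Y hY
      -- half integer minus integer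
      have hz : ∀ (u v : ℤ), (1 / 2 : ℝ) ≤ |(1 / 2 + (q : ℝ) * (u : ℝ)) - (v : ℝ)| := by
        intro u v
        have h1 := half_abs ((q : ℤ) * u - v)
        have h2 : (1 / 2 + (q : ℝ) * (u : ℝ)) - (v : ℝ) = 1 / 2 + (((q : ℤ) * u - v : ℤ) : ℝ) := by
          push_cast; ring
        rw [h2]; exact h1
      have hz' : ∀ (u v : ℤ), (1 / 2 : ℝ) ≤ |(v : ℝ) - (1 / 2 + (q : ℝ) * (u : ℝ))| := by
        intro u v
        rw [abs_sub_comm]
        exact hz u v
      by_cases hk : Even k
      · have hk' : ¬ Even (k + 1) := by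
          rw [Int.even_add_one]; simpa using hk
        rw [logB_even hk, logB_odd hk']
        fin_cases i
        · simp only [Fin.zero_eta, Matrix.cons_val_zero]
          constructor
          · have := hz (j + 2 * m) (j' + 1)
            push_cast at this
            exact this
          · have := hz (j + 2 * m + 2) j'
            push_cast at this
            exact this
        · simp only [Fin.mk_one, Matrix.cons_val_one, Matrix.cons_val_zero]
          constructor
          · have := hz' (j' + 2 * m' + 2) j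
            push_cast at this
            exact this
          · have := hz' (j' + 2 * m') (j + 1)
            push_cast at this
            exact this
        · exact absurd rfl hi
      · have hk' : Even (k + 1) := by
          rw [Int.even_add_one]; exact hk
        rw [logB_odd hk, logB_even hk']
        fin_cases i
        · simp only [Fin.zero_eta, Matrix.cons_val_zero]
          constructor
          · have := hz' (j' + 2 * m' + 2) j
            push_cast at this
            exact this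
          · have := hz' (j' + 2 * m') (j + 1)
            push_cast at this
            exact this
        · simp only [Fin.mk_one, Matrix.cons_val_one, Matrix.cons_val_zero]
          constructor
          · have := hz (j + 2 * m) (j' + 1)
            push_cast at this
            exact this
          · have := hz (j + 2 * m + 2) j'
            push_cast at this
            exact this
        · exact absurd rfl hi
  refine hst.mono ?_
  rintro B ⟨k, j, m, rfl⟩
  exact Set.mem_iUnion.2 ⟨k, Set.mem_iUnion.2 ⟨j, Set.mem_iUnion.2 ⟨m, rfl⟩⟩⟩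

/-- the logs cover the space, with control of the indices -/
theorem logs_cover (q : ℕ) (hq : 1 ≤ q) (x : Fin 3 → ℝ) :
    ∃ k j m : ℤ, x ∈ (logB q k j m).set := by
  have hq' : (0 : ℝ) < q := by exact_mod_cast (by omega : 0 < q)
  have key : ∀ u v : ℝ, ∃ j m : ℤ, (j : ℝ) ≤ v ∧ v ≤ j + 1 ∧
      1 / 2 + q * ((j : ℝ) + 2 * m) ≤ u ∧ u ≤ 1 / 2 + q * ((j : ℝ) + 2 * m + 2) := by
    intro u v
    set j : ℤ := ⌊v⌋ with hj
    set m : ℤ := ⌊(u - 1 / 2 - q * j) / (2 * q)⌋ with hm
    refine ⟨j, m, Int.floor_le v, (Int.lt_floor_add_one v).le, ?_, ?_⟩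
    · have := Int.floor_le ((u - 1 / 2 - q * j) / (2 * q))
      rw [le_div_iff₀ (by positivity)] at this
      rw [← hm] at this
      nlinarith
    · have := (Int.lt_floor_add_one ((u - 1 / 2 - q * j) / (2 * q))).le
      rw [div_le_iff₀ (by positivity)] at this
      rw [← hm] at this
      nlinarith
  by_cases hk : Even ⌊x 2⌋
  · obtain ⟨j, m, h1, h2, h3, h4⟩ := key (x 0) (x 1)
    refine ⟨⌊x 2⌋, j, m, ?_⟩
    rw [logB_even hk, Bx.mem_set]
    intro i
    fin_cases i
    · exact ⟨by simpa using h3, by simpa using h4⟩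
    · exact ⟨by simpa using h1, by simpa using h2⟩
    · exact ⟨by simpa using Int.floor_le (x 2), by simpa using (Int.lt_floor_add_one (x 2)).le⟩
  · obtain ⟨j, m, h1, h2, h3, h4⟩ := key (x 1) (x 0)
    refine ⟨⌊x 2⌋, j, m, ?_⟩
    rw [logB_odd hk, Bx.mem_set]
    intro i
    fin_cases i
    · exact ⟨by simpa using h1, by simpa using h2⟩
    · exact ⟨by simpa using h3, by simpa using h4⟩
    · exact ⟨by simpa using Int.floor_le (x 2), by simpa using (Int.lt_floor_add_one (x 2)).le⟩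

end Crest.Agent.R096.Bsp_628
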