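import Crest.Agent.R096.Brk5_582

/-!
# Row 96, U1: iterated stars of the cells of a graded foam lie in small closed balls of `La`,
these balls are locally finite in `La`
-/

set_option autoImplicit false
set_option linter.unusedSectionVars false
open Set Filter Topology Metric

namespace Crest.Agent.R096.Bsp_628

/-! ## metric part -/

section metric

variable {E : Type*} [PseudoMetricSpace E] {I : Type*}

/-- the `n`-th star of the cell `c`: the union of the cells reached by `n` steps -/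
def star (P : I → Set E) : ℕ → I → Set E
  | 0, c => P c
  | n + 1, c => ⋃ c' ∈ {c' | (P c' ∩ star P n c).Nonempty}, P c'

theorem star_zero (P : I → Set E) (c : I) : star P 0 c = P c := rfl

theorem mem_star_succ {P : I → Set E} {n : ℕ} {c : I} {x : E} :
    x ∈ star P (n + 1) c ↔ ∃ c', (P c' ∩ star P n c).Nonempty ∧ x ∈ P c' := by
  simp [star]

/-- **the `n`-th star lies in a ball of radius `((1+θ)^(n+1) - 1) rho x`** -/
theorem star_sub {P : I → Set E} {rho : E → ℝ} {θ : ℝ} (hθ : 0 ≤ θ)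
    (hrho : ∀ x y, rho x ≤ rho y + dist x y)
    (hsz : ∀ c, ∀ x ∈ P c, ∀ y ∈ P c, dist x y ≤ θ * rho x) (c : I) {x : E} (hx : x ∈ P c) :
    ∀ n, ∀ y ∈ star P n c, dist y x ≤ ((1 + θ) ^ (n + 1) - 1) * rho x ∧
      rho y ≤ (1 + θ) ^ (n + 1) * rho x := by
  have key : ∀ n, ∀ y : E, dist y x ≤ ((1 + θ) ^ (n + 1) - 1) * rho x →
      rho y ≤ (1 + θ) ^ (n + 1) * rho x := fun n y hy => by
    have := hrho y x
    linarith
  intro n
  induction n with
  | zero =>
    intro y hy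
    have h1 : dist y x ≤ ((1 + θ) ^ (0 + 1) - 1) * rho x := by
      have := hsz c x hx y hy
      rw [dist_comm] at this
      simpa using this
    exact ⟨h1, key 0 y h1⟩
  | succ n ih =>
    intro y hy
    obtain ⟨c', ⟨z, hz', hz⟩, hy'⟩ := mem_star_succ.1 hy
    obtain ⟨h1, h2⟩ := ih z hz
    have h3 := hsz c' z hz' y hy'
    have h4 : dist y x ≤ ((1 + θ) ^ (n + 1 + 1) - 1) * rho x := by
      calc dist y x ≤ dist y z + dist z x := dist_triangle _ _ _
        _ ≤ θ * rho z + ((1 + θ) ^ (n + 1) - 1) * rho x := by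
            rw [dist_comm y z]; exact add_le_add h3 h1
        _ ≤ θ * ((1 + θ) ^ (n + 1) * rho x) + ((1 + θ) ^ (n + 1) - 1) * rho x := by
            gcongr
        _ = ((1 + θ) ^ (n + 1 + 1) - 1) * rho x := by ring
    exact ⟨h4, key _ y h4⟩

theorem star_sub_closedBall {P : I → Set E} {rho : E → ℝ} {θ : ℝ} (hθ : 0 ≤ θ)
    (hrho : ∀ x y, rho x ≤ rho y + dist x y)
    (hsz : ∀ c, ∀ x ∈ P c, ∀ y ∈ P c, dist x y ≤ θ * rho x) (n : ℕ) (c : I) {x : E}
    (hx : x ∈ P c) : star P n c ⊆ closedBall x (((1 + θ) ^ (n + 1) - 1) * rho x) :=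
  fun y hy => (star_sub hθ hrho hsz c hx n y hy).1

/-- the balls are in `La` -/
theorem closedBall_sub_La {La : Set E} {rho : E → ℝ} (hrho : ∀ x y, rho x ≤ rho y + dist x y)
    (hLa : ∀ x, 0 < rho x ↔ x ∈ La) {x : E} (hx : x ∈ La) {η : ℝ} (hη : η < 1) :
    closedBall x (η * rho x) ⊆ La := by
  intro y hy
  rw [← hLa]
  have h1 := (hLa x).2 hx
  have h2 := hrho x y
  rw [mem_closedBall, dist_comm] at hy
  nlinarith

/-- **the balls are locally finite in `La`** -/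
theorem locfin_balls [ProperSpace E] {La : Set E} {rho : E → ℝ} {P : I → Set E}
    (hrho : ∀ x y, rho x ≤ rho y + dist x y) (hLa : ∀ x, 0 < rho x ↔ x ∈ La)
    (hlf : ∀ x ∈ La, ∃ r > 0, {c | (P c ∩ ball x r).Nonempty}.Finite)
    {z : I → E} (hz : ∀ c, z c ∈ P c) {η : ℝ} (hη : η ≤ 1 / 4) {x : E} (hx : x ∈ La) :
    ∃ r > 0, {c | z c ∈ La ∧ (closedBall (z c) (η * rho (z c)) ∩ ball x r).Nonempty}.Finite := by
  have hx0 := (hLa x).2 hx
  refine ⟨rho x / 4, by positivity, ?_⟩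
  have hK : IsCompact (closedBall x (2 / 3 * rho x)) := isCompact_closedBall _ _
  have hKLa : closedBall x (2 / 3 * rho x) ⊆ La :=
    closedBall_sub_La hrho hLa hx (by norm_num)
  -- finitely many cells meet `K`
  have hfin : {c | (P c ∩ closedBall x (2 / 3 * rho x)).Nonempty}.Finite := by
    choose! r hr hfr using hlf
    obtain ⟨t, ht, htK⟩ := hK.elim_nhds_subcover (fun y => ball y (r y))
      (fun y hy => ball_mem_nhds y (hr y (hKLa hy)))
    refine (t.finite_toSet.biUnion fun y hy => hfr y (hKLa (ht y hy))).subset ?_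
    rintro c ⟨y, hy, hyK⟩
    obtain ⟨w, hw, hyw⟩ := mem_iUnion₂.1 (htK hyK)
    exact mem_iUnion₂.2 ⟨w, hw, ⟨y, hy, hyw⟩⟩
  refine hfin.subset ?_
  rintro c ⟨hzLa, y, hyz, hyx⟩
  refine ⟨z c, hz c, ?_⟩
  rw [mem_closedBall] at hyz ⊢
  rw [mem_ball] at hyx
  have hz0 := (hLa _).2 hzLa
  have h1 : dist (z c) x ≤ η * rho (z c) + rho x / 4 := by
    have := dist_triangle (z c) y x
    rw [dist_comm (z c) y] at this
    linarith
  have h2 := hrho (z c) x
  have h3 : η * rho (z c) ≤ 1 / 4 * rho (z c) := by gcongr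
  linarith

end metric

/-! ## box foams -/

section box

open Crest.Agent.R096.Brk1_582 Crest.Agent.R096.Brk3_582 Crest.Agent.R096.Brk5_582

variable {κ : Type*} [Fintype κ] [Nonempty κ] {La : Set (κ → ℝ)} {F : Set (Bx κ)} {δ κ0 : ℝ}

/-- **iterated stars of a box foam** with `sz ≤ θ rho`: closed balls round any point of the cell -/
theorem BoxFoam.star_sub (hpos : ∀ C ∈ F, C.Pos) {rho : (κ → ℝ) → ℝ} {θ : ℝ} (hθ : 0 ≤ θ)
    (hrho : ∀ x y, rho x ≤ rho y + dist x y)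
    (hs : ∀ C ∈ F, ∀ x ∈ C.set, C.sz ≤ θ * rho x) (n : ℕ) (c : F) {x : κ → ℝ}
    (hx : x ∈ Pc F c) : star (Pc F) n c ⊆ closedBall x (((1 + θ) ^ (n + 1) - 1) * rho x) :=
  star_sub_closedBall hθ hrho (fun c x hx y hy => by
    rw [dist_eq_norm]
    exact (norm_sub_le_sz (hpos _ c.2) hx hy).trans (hs _ c.2 x hx)) n c hx

theorem BoxFoam.locfin_balls (BF : BoxFoam La F δ κ0) {rho : (κ → ℝ) → ℝ}
    (hrho : ∀ x y, rho x ≤ rho y + dist x y) (hLa : ∀ x, 0 < rho x ↔ x ∈ La) {z : F → κ → ℝ}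
    (hz : ∀ c, z c ∈ Pc F c) {η : ℝ} (hη : η ≤ 1 / 4) {x : κ → ℝ} (hx : x ∈ La) :
    ∃ r > 0, {c | (closedBall (z c) (η * rho (z c)) ∩ ball x r).Nonempty}.Finite := by
  obtain ⟨r, hr, h⟩ := Bsp_628.locfin_balls (P := Pc F) hrho hLa (fun x hx => by
    obtain ⟨r, hr, h⟩ := BF.lf x hx
    refine ⟨r, hr, ?_⟩
    refine Set.Finite.of_finite_image (f := Subtype.val) (h.subset ?_) Subtype.val_injective.injOn
    rintro _ ⟨c, hc, rfl⟩
    exact ⟨c.2, hc⟩) hz hη hx
  refine ⟨r, hr, h.subset fun c hc => ⟨BF.sub _ c.2 (hz c), hc⟩⟩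

end box

end Crest.Agent.R096.Bsp_628
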