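import Crest.Agent.R096.Bsp7_628

/-!
# Row 96, FOAM-EX (helper628), part 8: box foams with dyadic corners

`Dy o u M C`: for some `k` the corners of `C` lie in `o + u 2^(-k) ℤ^n` and `C.sz ≤ M u 2^(-k)`, so all
sides are integers between `1` and `M` in the unit `u 2^(-k)`.  The greedy cuts can be rounded to this
grid (`M ≥ 4 / dl`).
-/

set_option autoImplicit false
set_option linter.unusedSectionVars false

open Set

namespace Crest.Agent.R096.Bsp_628

variable {κ : Type*} [Fintype κ] [Nonempty κ] [DecidableEq κ]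

/-- corners on a dyadic grid comparable with the size -/
def Dy (o : κ → ℝ) (u M : ℝ) (C : Bx κ) : Prop :=
  ∃ k : ℤ, C.sz ≤ M * (u * (2 : ℝ) ^ (-k)) ∧
    ∀ i, ∃ m n : ℤ, C.lo i = o i + m * (u * (2 : ℝ) ^ (-k)) ∧
      C.hi i = o i + n * (u * (2 : ℝ) ^ (-k))

theorem grid_mono {u : ℝ} {k k' : ℤ} (hk : k ≤ k') (m : ℤ) :
    ∃ m' : ℤ, (m : ℝ) * (u * (2 : ℝ) ^ (-k)) = m' * (u * (2 : ℝ) ^ (-k')) := by
  obtain ⟨j, rfl⟩ := Int.le.dest hk
  refine ⟨m * 2 ^ j, ?_⟩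
  have h1 : (2 : ℝ) ^ (-k) = 2 ^ j * (2 : ℝ) ^ (-(k + j)) := by
    rw [← zpow_natCast, ← zpow_add₀ (by norm_num : (2 : ℝ) ≠ 0)]
    congr 1
    ring
  rw [h1]
  push_cast
  ring

/-- the finest admissible level -/
theorem exists_level {o : κ → ℝ} {u M : ℝ} (hu : 0 < u) (hM : 0 < M) {B : Bx κ} (hs : 0 < B.sz)
    (h : Dy o u M B) : ∃ k : ℤ, B.sz ≤ M * (u * (2 : ℝ) ^ (-k)) ∧
      M * (u * (2 : ℝ) ^ (-k)) ≤ 2 * B.sz ∧
      ∀ i, ∃ m n : ℤ, B.lo i = o i + m * (u * (2 : ℝ) ^ (-k)) ∧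
        B.hi i = o i + n * (u * (2 : ℝ) ^ (-k)) := by
  classical
  obtain ⟨k0, h0, h1⟩ := h
  have hex : ∃ n : ℕ, M * (u * (2 : ℝ) ^ (-(k0 + n))) < B.sz := by
    obtain ⟨n, hn⟩ := exists_pow_lt_of_lt_one (show 0 < B.sz / (M * (u * (2 : ℝ) ^ (-k0))) by
      positivity) (show (1 / 2 : ℝ) < 1 by norm_num)
    refine ⟨n, ?_⟩
    rw [lt_div_iff₀ (by positivity)] at hn
    have h2 : (2 : ℝ) ^ (-(k0 + n)) = (1 / 2) ^ n * (2 : ℝ) ^ (-k0) := by
      rw [neg_add, zpow_add₀ (by norm_num), mul_comm, zpow_neg _ (n : ℤ), zpow_natCast, one_div,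
        inv_pow]
    rw [h2]
    calc M * (u * ((1 / 2) ^ n * (2 : ℝ) ^ (-k0))) = (1 / 2) ^ n * (M * (u * (2 : ℝ) ^ (-k0))) := by
          ring
      _ < B.sz := hn
  have hn0 : Nat.find hex ≠ 0 := by
    intro h2
    have h3 := Nat.find_spec hex
    rw [h2] at h3
    simp only [Nat.cast_zero, add_zero] at h3
    linarith
  obtain ⟨n, hn⟩ := Nat.exists_eq_succ_of_ne_zero hn0
  have h2 := Nat.find_spec hex
  rw [hn] at h2
  have h3 := Nat.find_min hex (m := n) (by omega)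
  push Not at h3
  refine ⟨k0 + n, h3, ?_, fun i => ?_⟩
  · have h4 : (2 : ℝ) ^ (-(k0 + (n : ℤ))) = 2 * (2 : ℝ) ^ (-(k0 + ((n.succ : ℕ) : ℤ))) := by
      have h5 : -(k0 + (n : ℤ)) = 1 + -(k0 + ((n.succ : ℕ) : ℤ)) := by push_cast; ring
      rw [h5, zpow_add₀ (by norm_num), zpow_one]
    rw [h4]
    calc M * (u * (2 * (2 : ℝ) ^ (-(k0 + ((n.succ : ℕ) : ℤ)))))
        = 2 * (M * (u * (2 : ℝ) ^ (-(k0 + ((n.succ : ℕ) : ℤ))))) := by ring
      _ ≤ 2 * B.sz := by linarith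
  · obtain ⟨m, m', e1, e2⟩ := h1 i
    obtain ⟨a, ha⟩ := grid_mono (u := u) (show k0 ≤ k0 + n by omega) m
    obtain ⟨b, hb⟩ := grid_mono (u := u) (show k0 ≤ k0 + n by omega) m'
    exact ⟨a, b, by rw [e1, ha], by rw [e2, hb]⟩

/-- pigeonhole on a grid: a grid position in the middle third, away from finitely many walls -/
theorem exists_position_grid (N : ℕ) {W : Finset ℝ} (hW : W.card ≤ 2 * N) {a t : ℝ} (ht : 0 < t)
    (o : ℝ) {w0 : ℝ} (hw0 : 0 < w0) (hw1 : w0 ≤ 1 / (12 * ((N : ℝ) + 1)) * t / 2) :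
    ∃ c, (∃ m : ℤ, c = o + m * w0) ∧ a + t / 3 < c ∧ c < a + 2 * (t / 3) ∧
      ∀ w ∈ W, 1 / (12 * ((N : ℝ) + 1)) / 2 * t ≤ |c - w| := by
  classical
  set d : ℝ := t / (6 * ((N : ℝ) + 1)) with hd
  have hN : (0 : ℝ) < (N : ℝ) + 1 := by positivity
  have hd0 : 0 < d := by positivity
  have hd6 : d * (6 * ((N : ℝ) + 1)) = t := by rw [hd]; field_simp
  have hδ : 1 / (12 * ((N : ℝ) + 1)) * t = d / 2 := by rw [hd]; field_simp; ring
  let c : Fin (2 * N + 1) → ℝ := fun j => a + t / 3 + ((j : ℝ) + 1) * d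
  have key : ∃ j, ∀ w ∈ W, d / 2 ≤ |c j - w| := by
    by_contra hcon
    push Not at hcon
    have h1 : ∀ j : Fin (2 * N + 1), ∃ w : W, |c j - w| < d / 2 := by
      intro j
      obtain ⟨w, hw, hw'⟩ := hcon j
      exact ⟨⟨w, hw⟩, hw'⟩
    choose f hf using h1
    obtain ⟨j, j', hne, hjj⟩ := Fintype.exists_ne_map_eq_of_card_lt f (by
      rw [Fintype.card_fin, Fintype.card_coe]; omega)
    have h2 := hf j
    have h3 := hf j'
    rw [hjj] at h2
    have h4 : |c j - c j'| < d := by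
      have h5 : c j - c j' = (c j - f j') - (c j' - f j') := by ring
      rw [h5]
      calc |(c j - f j') - (c j' - f j')| ≤ |c j - f j'| + |c j' - f j'| := abs_sub _ _
        _ < d / 2 + d / 2 := by linarith
        _ = d := by ring
    have h6 : c j - c j' = (((j : ℕ) : ℝ) - ((j' : ℕ) : ℝ)) * d := by simp only [c]; ring
    rw [h6, abs_mul, abs_of_pos hd0] at h4
    have h7 : |((j : ℕ) : ℝ) - ((j' : ℕ) : ℝ)| < 1 := by
      by_contra h8
      push Not at h8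
      nlinarith
    have h8 : |((j : ℕ) : ℤ) - ((j' : ℕ) : ℤ)| < 1 := by exact_mod_cast h7
    rw [Int.abs_lt_one_iff] at h8
    apply hne
    ext
    omega
  obtain ⟨j, hj⟩ := key
  have hj2 : ((j : ℕ) : ℝ) ≤ 2 * N := by
    have := j.2
    have h2 : (j : ℕ) ≤ 2 * N := by omega
    exact_mod_cast h2
  have hj0 : (0 : ℝ) ≤ ((j : ℕ) : ℝ) := Nat.cast_nonneg _
  have hw2 : w0 ≤ d / 4 := by rw [hδ] at hw1; linarith
  have h9 := abs_sub_round ((c j - o) / w0)
  have h10 : |c j - (o + round ((c j - o) / w0) * w0)| ≤ w0 / 2 := by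
    have h11 : c j - (o + round ((c j - o) / w0) * w0) =
        ((c j - o) / w0 - round ((c j - o) / w0)) * w0 := by
      field_simp
      ring
    rw [h11, abs_mul, abs_of_pos hw0]
    nlinarith
  refine ⟨o + round ((c j - o) / w0) * w0, ⟨_, rfl⟩, ?_, ?_, fun w hw => ?_⟩
  · have h12 := (abs_le.1 h10).2
    have h13 : 1 * d ≤ (((j : ℕ) : ℝ) + 1) * d := mul_le_mul_of_nonneg_right (by linarith) hd0.le
    simp only [c] at h12 ⊢
    linarith
  · have h12 := (abs_le.1 h10).1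
    have h13 : (((j : ℕ) : ℝ) + 1) * d ≤ (2 * (N : ℝ) + 1) * d :=
      mul_le_mul_of_nonneg_right (by linarith) hd0.le
    have h14 : (2 * (N : ℝ) + 2) * d = t / 3 := by linarith
    simp only [c] at h12 ⊢
    nlinarith
  · have h12 := hj w hw
    have h13 : |c j - w| ≤ |c j - (o + round ((c j - o) / w0) * w0)| +
        |o + round ((c j - o) / w0) * w0 - w| := abs_sub_le _ _ _
    have h14 : 1 / (12 * ((N : ℝ) + 1)) / 2 * t = d / 4 := by
      have : 1 / (12 * ((N : ℝ) + 1)) / 2 * t = (1 / (12 * ((N : ℝ) + 1)) * t) / 2 := by ring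
      rw [this, hδ]; ring
    rw [h14]
    linarith

theorem child_dy {o : κ → ℝ} {u M : ℝ} {B : Bx κ} {k : ℤ} (hkM : B.sz ≤ M * (u * (2 : ℝ) ^ (-k)))
    (hk : ∀ i, ∃ m n : ℤ, B.lo i = o i + m * (u * (2 : ℝ) ^ (-k)) ∧
        B.hi i = o i + n * (u * (2 : ℝ) ^ (-k))) {c : ℝ} {m : ℤ}
    (hc : c = o (ax B) + m * (u * (2 : ℝ) ^ (-k))) (h1 : B.lo (ax B) < c) (h2 : c < B.hi (ax B))
    (b : Bool) : Dy o u M (child B (ax B) c b) := by
  refine ⟨k, (child_le h1.le h2.le b).sz_le.trans hkM, fun i => ?_⟩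
  obtain ⟨m1, m2, e1, e2⟩ := hk i
  by_cases hi : i = ax B
  · subst hi
    cases b
    · exact ⟨m1, m, by rw [child_false_lo, e1], by rw [child_false_hi, Function.update_self, hc]⟩
    · exact ⟨m, m2, by rw [child_true_lo, Function.update_self, hc], by rw [child_true_hi, e2]⟩
  · exact ⟨m1, m2, by rw [child_lo_of_ne b hi, e1], by rw [child_hi_of_ne b hi, e2]⟩

/-- **one greedy step with a cut on the dyadic grid** -/
theorem exists_step_dy {κ0 δ : ℝ} {rho : (κ → ℝ) → ℝ} (h3 : 3 ≤ κ0) (hδ : 0 < δ)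
    (hδ' : δ ≤ dl κ κ0 / 2) {o : κ → ℝ} {u M : ℝ} (hu : 0 < u) (hM : 4 / dl κ κ0 ≤ M)
    {P : Finset (Bx κ)} (h : St κ0 δ rho P) (hdy : ∀ B ∈ P, Dy o u M B)
    (hex : ∃ U ∈ P, ¬ Done rho U) :
    ∃ P' : Finset (Bx κ), Stp rho P P' ∧ St κ0 δ rho P' ∧ ∀ B ∈ P', Dy o u M B := by
  classical
  have hκ : 0 < κ0 := by linarith
  obtain ⟨B, hB, hBmax⟩ : ∃ B ∈ P.filter (fun U => ¬ Done rho U),
      ∀ U ∈ P.filter (fun U => ¬ Done rho U), U.sz ≤ B.sz := by
    obtain ⟨U, hU, hU'⟩ := hex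
    exact Finset.exists_max_image _ _ ⟨U, Finset.mem_filter.2 ⟨hU, hU'⟩⟩
  rw [Finset.mem_filter] at hB
  obtain ⟨hBP, hBD⟩ := hB
  have hmax : ∀ U ∈ P, ¬ Done rho U → U.sz ≤ B.sz :=
    fun U hU hU' => hBmax U (Finset.mem_filter.2 ⟨hU, hU'⟩)
  have hBp := h.pos B hBP
  have hs : 0 < B.sz := Bx.sz_pos hBp
  have hs' : B.sz = B.hi (ax B) - B.lo (ax B) := rfl
  -- touching boxes
  set T : Finset (Bx κ) := P.filter (fun C => Touch B C) with hT
  have hTc : T.card ≤ Nb κ κ0 := by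
    refine touch_card hκ hs (B := B) ?_ ?_ ?_
    · intro C hC
      exact (Finset.mem_filter.1 hC).2
    · intro C hC i
      exact h.cmp B hBP hBD C (Finset.mem_filter.1 hC).1 i
    · intro C hC C' hC' hne
      have h1 := (Finset.mem_filter.1 hC).1
      have h2 := (Finset.mem_filter.1 hC').1
      exact h.inv.disj (by exact_mod_cast h1) (by exact_mod_cast h2) (h.pos C h1) (h.pos C' h2) hne
  set W : Finset ℝ := T.image (fun C => C.lo (ax B)) ∪ T.image (fun C => C.hi (ax B)) with hW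
  have hWc : W.card ≤ 2 * Nb κ κ0 := by
    refine (Finset.card_union_le _ _).trans ?_
    have h1 := Finset.card_image_le (s := T) (f := fun C : Bx κ => C.lo (ax B))
    have h2 := Finset.card_image_le (s := T) (f := fun C : Bx κ => C.hi (ax B))
    omega
  have hdl := dl_pos (κ := κ) κ0
  have hM0 : 0 < M := (div_pos (by norm_num) hdl).trans_le hM
  obtain ⟨k, hkM, hk1, hk2⟩ := exists_level hu hM0 hs (hdy B hBP)
  have hw0 : 0 < u * (2 : ℝ) ^ (-k) := by positivity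
  have hw1 : u * (2 : ℝ) ^ (-k) ≤ dl κ κ0 * B.sz / 2 := by
    have h4 : 4 ≤ M * dl κ κ0 := by
      rwa [div_le_iff₀ hdl] at hM
    nlinarith
  obtain ⟨c, ⟨m, hcm⟩, hc1, hc2, hc3⟩ := exists_position_grid (Nb κ κ0) hWc (a := B.lo (ax B)) hs
    (o (ax B)) hw0 hw1
  have hlt1 : B.lo (ax B) < c := by linarith
  have hlt2 : c < B.hi (ax B) := by linarith
  have hcw : ∀ C ∈ (↑P : Set (Bx κ)), Touch B C →
      δ * B.sz ≤ |c - C.lo (ax B)| ∧ δ * B.sz ≤ |c - C.hi (ax B)| := by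
    intro C hC hBC
    have hCT : C ∈ T := Finset.mem_filter.2 ⟨by exact_mod_cast hC, hBC⟩
    have h4 : δ * B.sz ≤ dl κ κ0 / 2 * B.sz := mul_le_mul_of_nonneg_right hδ' hs.le
    constructor
    · exact h4.trans (hc3 _ (Finset.mem_union_left _ (Finset.mem_image_of_mem _ hCT)))
    · exact h4.trans (hc3 _ (Finset.mem_union_right _ (Finset.mem_image_of_mem _ hCT)))
  have hcut := h.inv.cut hδ (fun X hX => h.pos X (by exact_mod_cast hX)) (by exact_mod_cast hBP)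
    (ax B) hcw hlt1 hlt2
  set P' : Finset (Bx κ) := insert (child B (ax B) c false)
    (insert (child B (ax B) c true) (P.erase B)) with hP'
  have hmem : ∀ X, X ∈ P' ↔ (X ∈ P ∧ X ≠ B) ∨ X = child B (ax B) c false ∨
      X = child B (ax B) c true := by
    intro X
    rw [hP', Finset.mem_insert, Finset.mem_insert, Finset.mem_erase]
    tauto
  refine ⟨P', ⟨B, hBP, hBD, hmax, c, hc1, hc2, hmem⟩, ⟨?_, ?_, ?_⟩, ?_⟩
  · intro X hX
    rcases (hmem X).1 hX with hX | hX | hX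
    · exact h.pos X hX.1
    · rw [hX]; exact child_pos hBp hlt1 hlt2 false
    · rw [hX]; exact child_pos hBp hlt1 hlt2 true
  · have hset : (↑P' : Set (Bx κ)) = {X | X ∈ (↑P : Set (Bx κ)) ∧ X ≠ B} ∪
        {child B (ax B) c false, child B (ax B) c true} := by
      ext X
      rw [Finset.mem_coe, hmem]
      simp
      tauto
    rw [hset]
    exact hcut
  · intro U hU hUD X hX i
    -- size of U at most size of B
    have hUB : U.sz ≤ B.sz := by
      rcases (hmem U).1 hU with hU1 | hU1 | hU1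
      · exact hmax U hU1.1 hUD
      · rw [hU1]; exact (child_le hlt1.le hlt2.le false).sz_le
      · rw [hU1]; exact (child_le hlt1.le hlt2.le true).sz_le
    refine hUB.trans ?_
    have hBB := h.cmp B hBP hBD B hBP
    rcases (hmem X).1 hX with hX1 | hX1 | hX1
    · exact h.cmp B hBP hBD X hX1.1 i
    · rw [hX1]; exact side_child_of h3 hBB hBp hc1 hc2 false i
    · rw [hX1]; exact side_child_of h3 hBB hBp hc1 hc2 true i
  · intro X hX
    rcases (hmem X).1 hX with hX1 | hX1 | hX1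
    · exact hdy X hX1.1
    · rw [hX1]; exact child_dy hkM hk2 hcm hlt1 hlt2 false
    · rw [hX1]; exact child_dy hkM hk2 hcm hlt1 hlt2 true

/-- the infinite greedy process -/
theorem exists_seq_dy {κ0 δ : ℝ} {rho : (κ → ℝ) → ℝ} (h3 : 3 ≤ κ0) (hδ : 0 < δ)
    (hδ' : δ ≤ dl κ κ0 / 2) {o : κ → ℝ} {u M : ℝ} (hu : 0 < u) (hM : 4 / dl κ κ0 ≤ M)
    {P0 : Finset (Bx κ)} (h0 : St κ0 δ rho P0) (hdy : ∀ B ∈ P0, Dy o u M B) :
    ∃ s : ℕ → Finset (Bx κ), s 0 = P0 ∧ (∀ n, St κ0 δ rho (s n)) ∧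
      (∀ n, Nxt rho (s n) (s (n + 1))) ∧ ∀ n, ∀ B ∈ s n, Dy o u M B := by
  classical
  have h1 : ∀ P : {P : Finset (Bx κ) // St κ0 δ rho P ∧ ∀ B ∈ P, Dy o u M B},
      ∃ P' : {P : Finset (Bx κ) // St κ0 δ rho P ∧ ∀ B ∈ P, Dy o u M B}, Nxt rho P.1 P'.1 := by
    rintro ⟨P, hP, hPd⟩
    by_cases hall : ∀ U ∈ P, Done rho U
    · exact ⟨⟨P, hP, hPd⟩, Or.inl ⟨hall, rfl⟩⟩
    · push Not at hall
      obtain ⟨P', hs, hst, hsd⟩ := exists_step_dy h3 hδ hδ' hu hM hP hPd hall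
      exact ⟨⟨P', hst, hsd⟩, Or.inr hs⟩
  choose f hf using h1
  let s : ℕ → {P : Finset (Bx κ) // St κ0 δ rho P ∧ ∀ B ∈ P, Dy o u M B} :=
    fun n => f^[n] ⟨P0, h0, hdy⟩
  refine ⟨fun n => (s n).1, rfl, fun n => (s n).2.1, fun n => ?_, fun n => (s n).2.2⟩
  have h2 : s (n + 1) = f (s n) := by
    simp only [s, Function.iterate_succ_apply']
  show Nxt rho (s n).1 (s (n + 1)).1
  rw [h2]
  exact hf (s n)

/-- **FOAM-EX with dyadic corners.** -/
theorem exists_foam_dy {κ0 : ℝ} (h3 : 3 ≤ κ0) {o : κ → ℝ} {u M : ℝ} (hu : 0 < u)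
    (hM : 4 / dl κ κ0 ≤ M) {P0 : Finset (Bx κ)} {δ0 : ℝ} (hδ0 : 0 < δ0)
    (hpos : ∀ B ∈ P0, B.Pos) (hside : ∀ B ∈ P0, ∀ C ∈ P0, ∀ i, B.sz ≤ κ0 * C.side i)
    (hinv : INV δ0 (↑P0 : Set (Bx κ))) {La : Set (κ → ℝ)} {rho : (κ → ℝ) → ℝ} {L : NNReal}
    (hL : LipschitzWith L rho) (hLa : ∀ x, 0 < rho x ↔ x ∈ La)
    (hcov : ∀ x ∈ La, ∃ B ∈ P0, x ∈ B.set) (hdy0 : ∀ B ∈ P0, Dy o u M B) :
    ∃ F : Set (Bx κ), BoxFoam La F (min (dl κ κ0 / 2) δ0) κ0 ∧
      (∀ C ∈ F, ∀ x ∈ C.set, C.sz ≤ rho x) ∧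
      (∀ C ∈ F, C ∈ P0 ∨ ∀ x ∈ C.set, rho x ≤ 3 * (1 + L) * C.sz) ∧
      (∀ C ∈ P0, (∀ x ∈ C.set, C.sz ≤ rho x) → C ∈ F) ∧
      (∀ C ∈ F, ∃ B ∈ P0, C.Le B) ∧ ∀ C ∈ F, Dy o u M C := by
  classical
  set δ : ℝ := min (dl κ κ0 / 2) δ0 with hδdef
  have hδ : 0 < δ := lt_min (half_pos (dl_pos κ0)) hδ0
  have h0 : St κ0 δ rho P0 :=
    { pos := hpos
      inv := hinv.mono subset_rfl (min_le_right _ _) (fun B hB => hpos B (by exact_mod_cast hB))
      cmp := fun U hU _ B hB i => hside U hU B hB i }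
  obtain ⟨s, hs0, hst, hnx, hdy⟩ := exists_seq_dy h3 hδ (min_le_left _ _) hu hM h0 hdy0
  have hlip : ∀ x y, rho x ≤ rho y + L * dist x y := by
    intro x y
    have h1 := hL.dist_le_mul x y
    rw [Real.dist_eq] at h1
    have := (abs_le.1 h1).2
    linarith
  have hL0 : (0 : ℝ) ≤ L := L.2
  set F : Set (Bx κ) := {C | (∃ n, C ∈ s n) ∧ Done rho C} with hF
  -- births
  have hbig : ∀ C ∈ F, C ∈ P0 ∨ ∀ x ∈ C.set, rho x ≤ 3 * (1 + L) * C.sz := by
    rintro C ⟨⟨n, hn⟩, hD⟩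
    rcases seq_birth hst hnx h3 hn with h1 | ⟨B, hBp, hBD, hCB, h4, h5⟩
    · left; rw [← hs0]; exact h1
    · right
      intro x hx
      unfold Done at hBD
      push Not at hBD
      obtain ⟨y, hy, hy'⟩ := hBD
      have h6 := hlip x y
      have h7 := dist_le_sz (hCB.subset hx) hy hBp
      have h8 : (L : ℝ) * dist x y ≤ L * B.sz := mul_le_mul_of_nonneg_left h7 hL0
      have h9 : (L : ℝ) * B.sz ≤ L * (3 * C.sz) := mul_le_mul_of_nonneg_left h4 hL0
      linarith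
  have hasp : ∀ C ∈ F, ∀ i, C.sz ≤ κ0 * C.side i := by
    rintro C ⟨⟨n, hn⟩, hD⟩ i
    rcases seq_birth hst hnx h3 hn with h1 | ⟨B, hBp, hBD, hCB, h4, h5⟩
    · rw [hs0] at h1
      exact hside C h1 C h1 i
    · exact hCB.sz_le.trans (h5 i)
  have hposF : ∀ C ∈ F, C.Pos := by
    rintro C ⟨⟨n, hn⟩, hD⟩
    exact (hst n).pos C hn
  have hsubF : ∀ C ∈ F, C.set ⊆ La := by
    intro C hC x hx
    rw [← hLa]
    exact (Bx.sz_pos (hposF C hC)).trans_le (hC.2 x hx)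
  refine ⟨F, ⟨?_, hposF, hsubF, ?_, ?_, ?_, hasp⟩, fun C hC => hC.2, hbig, ?_, ?_, ?_⟩
  · -- countable
    have h1 : F ⊆ ⋃ n, (↑(s n) : Set (Bx κ)) := by
      rintro C ⟨⟨n, hn⟩, -⟩
      exact Set.mem_iUnion.2 ⟨n, by exact_mod_cast hn⟩
    exact (Set.countable_iUnion fun n => (s n).countable_toSet).mono h1
  · -- cover
    intro x hx
    have hrx : 0 < rho x := (hLa x).2 hx
    obtain ⟨n, hn⟩ := seq_small hst hnx h3 (ε := rho x / (1 + L)) (by positivity)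
    obtain ⟨B, hB, hxB⟩ := seq_cover hst hnx (x := x) (by rw [hs0]; exact hcov x hx) n
    refine ⟨B, ⟨⟨n, hB⟩, ?_⟩, hxB⟩
    by_contra hBD
    have h1 := hn B hB hBD
    rw [lt_div_iff₀ (by positivity)] at h1
    unfold Done at hBD
    push Not at hBD
    obtain ⟨y, hy, hy'⟩ := hBD
    have h6 := hlip x y
    have h7 := dist_le_sz hxB hy ((hst n).pos B hB)
    have h8 : (L : ℝ) * dist x y ≤ L * B.sz := mul_le_mul_of_nonneg_left h7 hL0
    linarith
  · -- locally finite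
    intro x hx
    have hrx : 0 < rho x := (hLa x).2 hx
    set r : ℝ := rho x / (2 * (1 + L)) with hr
    have hr0 : 0 < r := by positivity
    set r1 : ℝ := rho x / (6 * (1 + L)) with hr1
    have hr10 : 0 < r1 := by positivity
    obtain ⟨n, hn⟩ := seq_small hst hnx h3 hr10
    refine ⟨r, hr0, ?_⟩
    refine ((P0.finite_toSet).union ((s n).finite_toSet)).subset ?_
    rintro C ⟨hC, y, hyC, hyB⟩
    rcases hbig C hC with h1 | h1
    · left; exact_mod_cast h1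
    · right
      rw [Metric.mem_ball] at hyB
      have h2 := hlip x y
      rw [dist_comm] at hyB
      have h3' : (L : ℝ) * dist x y ≤ L * r := mul_le_mul_of_nonneg_left hyB.le hL0
      have h4 : (L : ℝ) * r ≤ rho x / 2 := by
        have h5 : (2 * (1 + L)) * r = rho x := by rw [hr]; field_simp
        nlinarith
      have h5 := h1 y hyC
      have h6 : rho x / 2 ≤ 3 * (1 + L) * C.sz := by linarith
      have h7 : r1 ≤ C.sz := by
        rw [hr1, div_le_iff₀ (by positivity)]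
        nlinarith
      obtain ⟨⟨m, hm⟩, hD⟩ := hC
      rcases le_total n m with hnm | hmn
      · rcases seq_refine hst hnx h3 hnm hm with h8 | ⟨U, hU, hUD, hCU⟩
        · exact_mod_cast h8
        · exfalso
          have h9 := hn U hU hUD
          have h10 := hCU.sz_le
          linarith
      · have h8 := seq_done hst hnx hmn hm hD
        exact_mod_cast h8
  · -- the invariant
    intro A hA hne hm
    have h1 : ∃ n, ∀ C ∈ A, C ∈ s n := by
      have h2 : ∀ A' : Finset (Bx κ), (∀ C ∈ A', C ∈ F) → ∃ n, ∀ C ∈ A', C ∈ s n := by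
        intro A'
        induction A' using Finset.induction_on with
        | empty => exact fun _ => ⟨0, by simp⟩
        | insert C A' _ ih =>
          intro hA'
          obtain ⟨n, hn⟩ := ih fun C' hC' => hA' C' (Finset.mem_insert_of_mem hC')
          obtain ⟨⟨m, hm'⟩, hD⟩ := hA' C (Finset.mem_insert_self _ _)
          refine ⟨max n m, fun C' hC' => ?_⟩
          rw [Finset.mem_insert] at hC'
          rcases hC' with rfl | hC'
          · exact seq_done hst hnx (le_max_right _ _) hm' hD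
          · exact seq_done hst hnx (le_max_left _ _) (hn C' hC')
              (hA' C' (Finset.mem_insert_of_mem hC')).2
      exact h2 A fun C hC => hA (by exact_mod_cast hC)
    obtain ⟨n, hn⟩ := h1
    exact (hst n).inv A (fun C hC => by exact_mod_cast hn C (by exact_mod_cast hC)) hne hm
  · -- start boxes which are small enough
    intro C hC hD
    exact ⟨⟨0, by rw [hs0]; exact hC⟩, hD⟩
  · rintro C ⟨⟨n, hn⟩, -⟩
    have := seq_root hst hnx h3 hn
    rwa [hs0] at this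
  · rintro C ⟨⟨n, hn⟩, -⟩
    exact hdy n C hn

end Crest.Agent.R096.Bsp_628
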