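import Crest.Agent.R096.Bxc1_635
import Crest.Agent.R96.Push20_899
import Crest.Agent.R096.Der1_764

/-!
Row 96 (S0127), NO0 for `p ≥ 3` (helper635): the dictionary between `fN` (Bxc1_635) and 899's glued push
(`Psi (brk' bf) coreBF hole` on `EE`), the domain off the holes, 899's `Hole`.
-/

set_option autoImplicit false
set_option linter.unusedSectionVars false
set_option linter.style.longLine false
set_option linter.unusedVariables false

open MeasureTheory Set Filter Topology Metric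
open scoped ENNReal NNReal

namespace Crest.Agent.R096.Bxc1_635

open Crest.Agent.R096.Bsp_628 Crest.Agent.R96.Push_899
open Crest.Agent.R096.Brk5_582 Crest.Agent.R096.Msh_715 Crest.Agent.R096.EaX_766
open Crest.Agent.R096.Bxs_627
open Crest.Agent.R096.Der_764 (OmH)
open Crest.AnalysisR.VecCalc3 (R3)
open Crest.Agent.R96.En10_199 (P3)

noncomputable section

variable {La : Set E3} {F : Set (Bx (Fin 3))} {δ κ0 R c0 : ℝ}

/-- the outer core (ratio `1/4`) of the bricks -/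
def coreN (bf : BoxFoam La F δ κ0) (c : F) : Box (Fin 3) := coreBF (brk' bf c) (ctr c.1)

/-- the concentric hole of ratio `lam c / 2` -/
def holeN (bf : BoxFoam La F δ κ0) (lam : F → ℝ) (hl : ∀ c, 0 < lam c) (c : F) : Box (Fin 3) :=
  cb c.1 (bf.pos _ c.2) (lam c / 2) (half_pos (hl c)).le

variable (bf : BoxFoam La F δ κ0) (cmp : Cmp F R) (hκ : 1 ≤ κ0) (hc : 0 < c0)
  (hc2 : c0 * (8 * κ0) ≤ 1) (lam : F → ℝ) (hl : ∀ c, 0 < lam c) (hl4 : ∀ c, lam c ≤ 1 / 4)

theorem brk_pos (c : F) (i : Fin 3) : 0 < (brk' bf c).W i := Bx.side_pos (bf.pos _ c.2) i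

theorem ctr_mid' (c : F) : ctr c.1 ∈ Mid (brk' bf c) := ctr_mid (bf.pos _ c.2)

/-- the hole in the sense of 899, ratio `lam c / 2` -/
theorem holeN_hole (hl4 : ∀ c, lam c ≤ 1 / 4) (c : F) :
    Hole (lam c / 2) (brk' bf c) (ctr c.1) (holeN bf lam hl c) :=
  hole_cb (bf.pos _ c.2) (hl c) ((hl4 c).trans (by norm_num))

theorem hole_mono {ι : Type*} {c₁ c₂ : ℝ} {Q B : Box ι} {z : ι → ℝ} (h : Hole c₁ Q z B)
    (hQ : ∀ i, 0 ≤ Q.W i) (h0 : 0 < c₂) (h2 : c₂ ≤ c₁) : Hole c₂ Q z B :=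
  ⟨h0, fun i => (mul_le_mul_of_nonneg_right h2 (hQ i)).trans (h.W i), h.lo, h.hi⟩

/-- the hole in the sense of 899, any ratio `c₂ ≤ lam c / 2` -/
theorem holeN_hole' (hl4 : ∀ c, lam c ≤ 1 / 4) {c₂ : ℝ} (h0 : 0 < c₂) (c : F)
    (h2 : c₂ ≤ lam c / 2) : Hole c₂ (brk' bf c) (ctr c.1) (holeN bf lam hl c) :=
  hole_mono (holeN_hole bf lam hl hl4 c) (fun i => (brk_pos bf c i).le) h0 h2

include hκ hc hc2 hl4 in
/-- the foam of 899 -/
theorem foamN : FoamC (LaE La) (brk' bf) (coreN bf) (holeN bf lam hl) ∅ c0 (fun _ => 0)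
    (fun c => side (brk' bf c)) := by
  have h0 := foam0' bf
  refine ⟨h0.cells, h0.disj, fun c => ?_, fun c => ?_⟩
  · have hs := shapeBF hκ (brk_pos bf c) (fun i j => asp' bf c i j) (ctr_mid' bf c)
    have hc8 : c0 ≤ 1 / (8 * κ0) := by rw [le_div_iff₀ (by linarith)]; exact hc2
    have hsd := side_pos (brk_pos bf c)
    exact ⟨hc, hc8.trans (by rw [div_le_one (by linarith)]; linarith), hsd, le_rfl, brk_pos bf c,
      fun i => (mul_le_mul_of_nonneg_right hc8 hsd.le).trans (hs.lo1 i), hs.lo2,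
      fun i => (mul_le_mul_of_nonneg_right hc8 hsd.le).trans (hs.hi1 i), hs.hi2,
      fun i => (mul_le_mul_of_nonneg_right hc8 (brk_pos bf c i).le).trans (hs.wd i),
      fun i hi => absurd hi (Finset.notMem_empty i)⟩
  · exact (holeN_hole bf lam hl hl4 c).inner (brk_pos bf c)

/-- `fN` is 899's `mkFoamD` -/
theorem fN_eq : fN bf cmp hκ hc hc2 lam hl hl4 = mkFoamD bf cmp (foamN bf hκ hc hc2 lam hl hl4) :=
  rfl

/-- **the two pushes agree** -/
theorem fN_Psi {y : EE (Fin 3)} (hy : y ∈ LaE La) :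
    (fN bf cmp hκ hc hc2 lam hl hl4).Psi (co y) =
      co (Psi (brk' bf) (coreN bf) (holeN bf lam hl) y) :=
  mkFoamD_Psi bf cmp (foamN bf hκ hc hc2 lam hl hl4) hy

/-- the same for a map -/
theorem fN_Psi' {Om : Set E3} {f : E3 → E3} (hf : MapsTo f Om La) {x : E3} (hx : x ∈ Om) :
    P3 ((fN bf cmp hκ hc hc2 lam hl hl4).Psi (f x)) =
      Psi (brk' bf) (coreN bf) (holeN bf lam hl) (P3 (f x)) := by
  have h1 : P3 (f x) ∈ LaE La := hf hx
  have h2 := fN_Psi bf cmp hκ hc hc2 lam hl hl4 h1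
  have h3 : co (P3 (f x)) = f x := rfl
  rw [h3] at h2
  rw [h2]
  rfl

/-- the domain off the preimages of the holes -/
theorem fN_OmH {Om : Set E3} {f : E3 → E3} (hf : MapsTo f Om La) :
    OmH (fN bf cmp hκ hc hc2 lam hl hl4) f Om =
      Om ∩ (fun x => P3 (f x)) ⁻¹' (Pun (LaE La) (holeN bf lam hl)) := by
  ext x
  constructor
  · rintro ⟨h1, h2⟩
    refine ⟨h1, hf h1, fun h => ?_⟩
    obtain ⟨c, hc⟩ := mem_iUnion.1 h
    exact h2 c hc
  · rintro ⟨h1, h2, h3⟩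
    exact ⟨h1, fun c hc => h3 (mem_iUnion.2 ⟨c, hc⟩)⟩

end

end Crest.Agent.R096.Bxc1_635
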