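import Crest.Agent.R096.Be2_416
import Crest.Agent.R096.Bin9_181

/-!
# R096 (row 96), BASE-DISC-1 (helper58, task 2559 of helper446): 416's `BoxG` from the hypotheses of
181's `inv_base_mesh_R`
-/

set_option autoImplicit false
set_option linter.unusedSectionVars false

open Set Metric

namespace Crest.Agent.R096.Bxg_58

open Crest.Agent.R096.Ce_537 Crest.Agent.R096.Bd_416 Crest.Agent.R096.Xp_537
open Crest.Agent.R096.Brk1_582 Crest.Agent.R096.Brk2_582 Crest.Agent.R096.Brk6_582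
open Crest.Agent.R096.Grd_714 Crest.Agent.R096.Bin_181 Crest.Agent.R096.Be_416

variable {E : Type*} [NormedAddCommGroup E] [NormedSpace ℝ E] {I : Type*}
variable {b : Set I → E} {P : I → Set E} {m m' : I → ℕ}
variable {V : Type*} [NormedAddCommGroup V] [NormedSpace ℝ V] [FiniteDimensional ℝ V] {Q : Type} [PartialOrder Q]
  {dim : Q → ℕ} {J Fam : Type} {Cm : Cmb Q dim J Fam} {K : Q → Set V} {D : Set Q}
variable {n : I → ℕ → ℝ} (hN : ∀ a, StrictMono (n a)) (hN0 : ∀ a, n a 0 = 0)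
  (hNm : ∀ a, n a (m' a) = m a)
variable {La : Set E} [CompleteSpace E] [FiniteDimensional ℝ E] (F : Foam La P b 4)
  (hQ : Quads P b) (hm' : ∀ c, 0 < m' c) (hm : ∀ c, 0 < m c)
variable {κ : ℝ} (fa : J → I) (lv : J → ℕ) {S : Set V} {c0 : I}
  (th : PLEquiv S (bdP P b m' c0)) (N : I → ℕ → ℕ) (hnN : ∀ a i, i ≤ m' a → |n a i - N a i| < κ / 2)

include hN hN0 in
/-- `nuR` is injective at the nodes -/
lemma nuR_eq_node {a : I} (h0 : 0 < m' a) {x : ℝ} (hx : x ∈ Icc (0:ℝ) (m' a)) {i : ℕ} (hi : i ≤ m' a) :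
    nuR (n a) (m' a) x = n a i ↔ x = i := by
  have hi' : (i : ℝ) ∈ Icc (0:ℝ) (m' a) := ⟨Nat.cast_nonneg _, by exact_mod_cast hi⟩
  constructor
  · intro h
    rw [← nuR_nat (hN a) (hN0 a) hi] at h
    rw [← niR_nuR (hN a) (hN0 a) h0 hx, h, niR_nuR (hN a) (hN0 a) h0 hi']
  · rintro rfl
    exact nuR_nat (hN a) (hN0 a) hi

include hnN in
theorem boxG_mesh_R (hinj : ∀ j j', fa j = fa j' → lv j = lv j' → j = j')
    (hD : ∀ q ∈ D, ∀ p < q, p ∈ D) (gx : Q → Gx P m')
    (gx_mono : ∀ {p q : Q}, p < q → q ∈ D → gx p ≤ gx q)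
    (hK : ∀ q ∈ D, K q = {z | z ∈ S ∧ th.f z ∈ Tq b m' '' (gx q).bx})
    (h0 : ∀ q ∈ D, (gx q).hi c0 = 0)
    (dim2 : ∀ q ∈ D, dim q ≤ 2) (dfree : ∀ q ∈ D, dim q = (gx q).free.ncard)
    (hbd : ∀ q ∈ D, dim q = 2 → ∀ z ∈ K q, (z ∈ bdS K q ↔ ∃ a ∈ (gx q).free,
      co P b m' (th.f z) a = (gx q).lo a ∨ co P b m' (th.f z) a = (gx q).hi a))
    (rng : ∀ q ∈ D, ∀ x : Cm.I q, N (fa (Cm.col q x)) ((gx q).lo (fa (Cm.col q x))) ≤ lv (Cm.col q x) ∧
      lv (Cm.col q x) < N (fa (Cm.col q x)) ((gx q).hi (fa (Cm.col q x))))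
    (one : ∀ q ∈ D, ∀ x x' : Cm.I q, Cm.col q x = Cm.col q x' → x = x') :
    BoxG Cm K D P b m κ fa lv (th.trans (rcR hN hN0 hNm F hQ hm' hm c0))
      (fun q a => n a ((gx q).lo a)) (fun q a => n a ((gx q).hi a))
      (fun q a => N a ((gx q).lo a)) (fun q a => N a ((gx q).hi a)) where
  KS := fun q hq => by rw [hK q hq]; exact fun z hz => hz.1
  sub := fun {p q} h hq => by
    rw [hK q hq, hK p (hD q hq p h)]
    exact fun z hz => ⟨hz.1, image_mono (bx_mono (gx_mono h hq)) hz.2⟩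
  Ke := fun q hq => by
    have h1 : th.f '' K q = Tq b m' '' (gx q).bx := by
      rw [hK q hq]
      apply Subset.antisymm
      · rintro _ ⟨z, hz, rfl⟩; exact hz.2
      · intro y hy
        have hy' : y ∈ bdP P b m' c0 := by
          rw [← bxS_gx hm'] at hy
          exact bxS_sub_bdP hm' (h0 q hq) hy
        refine ⟨th.g y, ⟨th.mg hy', ?_⟩, th.ri y hy'⟩
        rw [th.ri y hy']; exact hy
    have h2 : (th.trans (rcR hN hN0 hNm F hQ hm' hm c0)).f '' K q =
        (rcR hN hN0 hNm F hQ hm' hm c0).f '' (th.f '' K q) := by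
      rw [← image_comp]; rfl
    rw [h2, h1, ← bxS_gx hm']
    exact rcR_image hN hN0 hNm F hQ hm' hm (fun a => (gx q).him a)
      (fun a => ((gx q).le a).trans ((gx q).him a))
  full := fun q hq g hg => by
    have hlo : ∀ a, (gx q).lo a ≤ m' a := fun a => ((gx q).le a).trans ((gx q).him a)
    have h1 : (fun a => niR (n a) (m' a) (g a)) ∈ (gx q).bx := by
      intro a
      constructor
      · rw [← niR_nat (hN a) (hN0 a) (hlo a)]; exact niR_mono (hN a) (hg a).1
      · rw [← niR_nat (hN a) (hN0 a) ((gx q).him a)]; exact niR_mono (hN a) (hg a).2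
    have h2 := G2_nu (nuR_Nu hN hN0 hNm) hm' hm ((gx q).bx_sub hm' h1)
    have h3 : (fun a => nuR (n a) (m' a) (niR (n a) (m' a) (g a))) = g := by
      funext a
      refine nuR_niR (hN a) (hN0 a) (hm' a) ⟨?_, ?_⟩
      · rw [← hN0 a]
        exact ((hN a).monotone (Nat.zero_le _)).trans (hg a).1
      · exact (hg a).2.trans ((hN a).monotone ((gx q).him a))
    rw [h3] at h2
    exact h2
  le := fun q hq c => (hN c).monotone ((gx q).le c)
  zero := fun q hq => ⟨c0, by show n c0 ((gx q).hi c0) = 0; rw [h0 q hq, hN0]⟩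
  aL := fun q hq a => hnN a _ (((gx q).le a).trans ((gx q).him a))
  aH := fun q hq a => hnN a _ ((gx q).him a)
  dim2 := dim2
  fr1 := fun q hq h => by
    rw [dfree q hq, Set.ncard_eq_one] at h
    obtain ⟨a, ha⟩ := h
    refine ⟨a, fun c hc => ?_⟩
    have hf : c ∉ (gx q).free := by rw [ha]; exact hc
    show n c ((gx q).lo c) = n c ((gx q).hi c)
    rw [Gx.lo_eq hf]
  fr2 := fun q hq h => by
    rw [dfree q hq, Set.ncard_eq_two] at h
    obtain ⟨a, a', hne, ha⟩ := h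
    have ha1 : a ∈ (gx q).free := by rw [ha]; exact Or.inl rfl
    have ha2 : a' ∈ (gx q).free := by rw [ha]; exact Or.inr rfl
    refine ⟨a, a', hne, hN a ha1, hN a' ha2, fun c hc hc' => ?_⟩
    have hf : c ∉ (gx q).free := by
      rw [ha]
      rintro (h | h)
      · exact hc h
      · exact hc' h
    show n c ((gx q).lo c) = n c ((gx q).hi c)
    rw [Gx.lo_eq hf]
  bd := fun q hq h z hz => by
    rw [hbd q hq h z hz]
    have hlo : ∀ a, (gx q).lo a ≤ m' a := fun a => ((gx q).le a).trans ((gx q).him a)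
    have hz' := hz
    rw [hK q hq] at hz'
    obtain ⟨-, g, hg, hgz⟩ := hz'
    have hgG : g ∈ G2 P m' := (gx q).bx_sub hm' hg
    have e1 : co P b m' (th.f z) = g := by rw [← hgz, co_Tq F hQ hm' hgG]
    have e2 : co P b m ((th.trans (rcR hN hN0 hNm F hQ hm' hm c0)).f z) =
        fun a => nuR (n a) (m' a) (g a) := by
      have : (th.trans (rcR hN hN0 hNm F hQ hm' hm c0)).f z =
          Tq b m (fun a => nuR (n a) (m' a) (co P b m' (th.f z) a)) := rfl
      rw [this, e1, co_Tq F hQ hm (G2_nu (nuR_Nu hN hN0 hNm) hm' hm hgG)]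
    rw [e1, e2]
    have hmem : ∀ a, g a ∈ Icc (0:ℝ) (m' a) := fun a => G2_mem hm' hgG a
    constructor
    · rintro ⟨a, ha, h1⟩
      refine ⟨a, hN a ha, ?_⟩
      rcases h1 with h1 | h1
      · left
        exact (nuR_eq_node hN hN0 (hm' a) (hmem a) (hlo a)).2 h1
      · right
        exact (nuR_eq_node hN hN0 (hm' a) (hmem a) ((gx q).him a)).2 h1
    · rintro ⟨a, ha, h1⟩
      refine ⟨a, (hN a).lt_iff_lt.1 ha, ?_⟩
      rcases h1 with h1 | h1
      · left
        exact (nuR_eq_node hN hN0 (hm' a) (hmem a) (hlo a)).1 h1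
      · right
        exact (nuR_eq_node hN hN0 (hm' a) (hmem a) ((gx q).him a)).1 h1
  rng := rng
  one := one
  inj := hinj

end Crest.Agent.R096.Bxg_58
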