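import Crest.Agent.R096.Dfg1_539
import Crest.Agent.R096.Bse2_344
import Crest.Agent.R096.Bmf1_416

/-!
# R096 (row 96), DOORS_final (helper560): the boxes of the barriers for the machine

344's `box_s2`, `bsep_s2`, `posM_s2` over `slC` from 539's position record `BRec`, the radii of the
tiny cores (95's `Rm`) and the gauge bound of the truthful barrier points.
-/

set_option autoImplicit false
set_option linter.unusedSectionVars false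
set_option linter.unusedVariables false
set_option linter.style.longLine false

open Set Topology Filter Metric Module Relation
open scoped Classical

namespace Crest.Agent.R096.Bxm_560

open Crest.Agent.R096.Msh_715 Crest.Agent.R096.Coh_184 Crest.Agent.R096.Lab_184
  Crest.Agent.R096.Main_4 Crest.Agent.R096.Agl5_543
  Crest.Agent.R096.Seq_213 Crest.Agent.R096.St_147 Crest.Agent.R096.Door_501
  Crest.Agent.R096.Twr_438 Crest.Agent.R096.Exa_560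
  Crest.Agent.R096.Ess3_95 Crest.Agent.R096.Ess4_95 Crest.Agent.R096.Ac_117 Crest.Agent.R096.Lm_117
  Crest.Agent.R096.Dfi_539 Crest.Agent.R096.Dfi_471 Crest.Agent.R096.Dfo_539
  Crest.Agent.R096.Sla_184 Crest.Agent.R096.Gm_298
  Crest.Agent.R096.Brk1_582 Crest.Agent.R096.Brk2_582 Crest.Agent.R096.Brk3_582
  Crest.Agent.R096.Brk5_582 Crest.Agent.R096.Bsp_628 Crest.Agent.R096.Init_543
  Crest.Agent.R096.Lv3_471 Crest.Agent.R096.Lv4_471 Crest.Agent.R096.Slt_471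
  Crest.Agent.R096.Dib_438 Crest.Agent.R096.Rop_441 Crest.Agent.R096.Frk_441
  Crest.Agent.R096.Dff_539 Crest.Agent.R096.Frs_662 Crest.Agent.R096.Dfg_539
  Crest.Agent.R096.Bse_344 Crest.Agent.R096.Cg_501
open Crest.Agent.R096.Mbf_337 (KJ Tiny Cores Fine sb gau)
open Crest.Agent.R096.SkC1_961 (E3 FoamD Hom3)
open Crest.Agent.R096.Frn_337 (Ti)
open Crest.Agent.R096.Ess7_95 (KT)
open Crest.Agent.R096.Ess5_95 (Rm)
open Crest.Agent.R096.Dia_316 (nbT)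
open Crest.Agent.R096.Bar_106 (Fs Fm Gm)

variable {δ κ0 R c0 : ℝ} {La Om : Set E3} {ι : Type} {Φ : FoamD δ κ0 R c0 La} {T : Tiling Om ι}
  {f g : E3 → E3} {κ1 κ2 μ : ℝ} {X : Set Φ.F} {J0 J V : Φ.F → Set ι}
  {ct ct' : Φ.F → ι} {Aj : Φ.F → E3 ≃ᵃ[ℝ] E3} {lam : Φ.F → ℝ} {z : Φ.F → E3}
  {θ : Φ.F → E3 → E3} {φ : Φ.F → E3 → ℝ} {r₀ : Φ.F → ℝ}
  {L : Φ.F → Finset ℝ} [Nonempty (JJ Φ L)]
  {Mo : Type} {ρ1 ρ2 ρ3 ρ4 d : Φ.F → ℝ}

/-- **`RadV` from the rooms of the tiny cores** -/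
theorem radV_of (hRm : ∀ c ∉ X, Rm Φ T f c (J0 c) (J c) (V c) (θ c) (ρ1 c) (ρ2 c) (ρ3 c) (ρ4 c)
    (d c)) : RadV Φ T f X V ρ4 :=
  ⟨fun c hc i hi => (hRm c hc).v i hi⟩

theorem fr_le (hRm : ∀ c ∉ X, Rm Φ T f c (J0 c) (J c) (V c) (θ c) (ρ1 c) (ρ2 c) (ρ3 c) (ρ4 c)
    (d c)) (c : Ti X) {x : E3} (hx : x ∈ frontier (KJ T (J c.1))) :
    gau c.1.1 (Φ.B c.1).lo (f x) ≤ ρ4 c.1 := by
  have h := hRm c.1 c.2
  have h1 : gau c.1.1 (Φ.B c.1).lo (f x) ≤ ρ3 c.1 := (h.fr x hx).2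
  linarith [h.r34, h.d0]

section box

variable {co : Mo → Ti X} {am : Mo → Φ.F} {Zm : Mo → Set Φ.F} [Nonempty (JJ Φ L ⊕ Mo)]
  {sB : GSt (meshC T fr3) (Sum.map (fun j : JJ Φ L => j.1) (id : Mo → Mo))}
  {r : JJ Φ L ⊕ Mo → E3} {Sf : JJ Φ L ⊕ Mo → Set E3} {nb : Ti X → Φ.F ⊕ Mo → Prop}
  {hLa : IsOpen La} {hC : Cores Φ T f κ1 κ2 X J0 J V ct Aj lam z θ φ}
  {n : Ti X → ℕ} {hn : ∀ c, 0 < n c}
  {v0 v1 : ∀ c, Φ.F ⊕ Mo → VxK T (slC hLa hC n hn).K c} {u : Ti X → Φ.F ⊕ Mo → E3 → ℝ}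
  {A B : Ti X → Φ.F ⊕ Mo → ℝ}
  {Lx : ∀ c, Φ.F ⊕ Mo → Lev T (frontier ((slC hLa hC n hn).K c)) (JJ Φ L ⊕ Mo)}
  {Tw : Twrs ((slC hLa hC n hn).sh fr3) (slC hLa hC n hn).n
    (outK (slC hLa hC n hn).hH (slC hLa hC n hn).dis sB r)} {l0' : E3 → JJ Φ L ⊕ Mo}
  {κ l0 mm ra h W0 W1 l : ℝ} {ρ : Φ.F → ℝ}

/-- **the barrier points of `s2` are in their boxes** (machine instance of 344's `box_s2`) -/
theorem box_m (hδ : 0 < δ) (hR0 : 0 < R) (hκ1 : 0 < κ1)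
    (D : DIn (slC hLa hC n hn).hH sB r Sf nb v0 v1 u A B)
    (lo : LevOut (Kc := (slC hLa hC n hn).K) sB nb u A B Lx)
    (tt : TwOut (slC hLa hC n hn) fr3 sB r v0 v1 Lx Tw)
    (rec : BRec hLa sB f X J θ co am Zm nb v0 v1 u A B μ κ l0 mm ra h W0 W1)
    (hρ : ∀ c : Ti X, ∀ x ∈ frontier (KJ T (J c.1)), gau c.1.1 (Φ.B c.1).lo (f x) ≤ ρ c.1)
    (hga : ∀ w ∈ sB.P, ∀ m, sB.lab w = Sum.inr m →
      gau (co m).1.1 (Φ.B (co m).1).lo (f w) ≤ ρ (co m).1)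
    (hl0 : 0 < l0) (hra : 0 < ra) (hh : 0 ≤ h) (hW : l0 * h + (3 * Cn δ R + 1) * κ1 < W1)
    (hW1 : W1 < 1) (h2 : 0 < mm - ra * h - (3 * Cn δ R + 1) * κ1)
    (h4 : mm + ra * h + (3 * Cn δ R + 1) * κ1 < 1) (hl : W1 + Cn δ R * κ1 ≤ l) (m : Mo)
    {w : E3} (hw : w ∈ (s2 (slC hLa hC n hn) fr3 Tw l0').P)
    (hwl : (s2 (slC hLa hC n hn) fr3 Tw l0').lab w = Sum.inr m)
    {p : T.RIdx (slC hLa hC n hn).HH} (hp : w ∈ P ((slC hLa hC n hn).T3.H p)) :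
    ∃ x ∈ P (T.H p.tile), BoxP Φ f (co m).1 (am m) (Zm m) (ρ (co m).1) l x := by
  have hCn := Cn_nonneg hδ hR0
  have hCκ : 0 ≤ Cn δ R * κ1 := mul_nonneg hCn hκ1.le
  have hlh : 0 ≤ l0 * h := mul_nonneg hl0.le hh
  have h3C : Cn δ R * κ1 ≤ (3 * Cn δ R + 1) * κ1 := by nlinarith
  have hW0 : 0 < W1 := by linarith
  have hκ : Cn δ R * κ1 < 1 := by linarith
  have hN : ∀ e, (Pc Φ.F (co m).1 ∩ Pc Φ.F e).Nonempty → e ∈ Nb Φ hLa (co m).1 := fun e he =>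
    mem_Nb.2 he
  refine box_s2 (co := fun m => (co m).1) (am := am) (Zm := Zm) (ρ := ρ) (B := W1) hδ hR0 hκ D lo tt
    m (rec.mo m) (fun c hc => by rw [(rec.nbm c m).1 hc]) (fun c _ x hx => hρ c x hx) ?_ hN ?_
    (fun c _ => (rec.Bm c m).le) ?_ hl hw hwl hp
  · intro w hw hl'
    obtain ⟨g1, g2⟩ := rec.trm w hw m hl'
    exact boxP_of_gm hl0 (hga w hw m hl') g1 g2 (by linarith)
  · intro c hc
    obtain rfl := (rec.nbm c m).1 hc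
    funext x
    exact rec.um (co m) m x
  · intro c hc v hv
    obtain rfl := (rec.nbm c m).1 hc
    by_contra hcon
    rw [not_le] at hcon
    obtain ⟨p', q', hM⟩ := rec.mo m
    refine not_rgn_bar (κ := Ti X) (cf := Subtype.val) (J := fun c => J c.1)
      (J0 := fun c => J0 c.1) (V := fun c => V c.1) (θ := fun c => θ c.1)
      (φ := fun c => φ c.1) (N := Nb Φ hLa (co m).1) (a := am m) (Z := Zm m) (p := p') (m := q')
      hLa hδ hR0 hκ1 hκ (fun c => hC.tiny c.1 c.2) lo (k := co m) (b' := Sum.inr m)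
      (rec.um (co m) m) hM (mem_N_p hM hN) (mem_N_m hM hN) ?_ (D.v0_lt (co m) (Sum.inr m) hc)
      (D.v1_gt (co m) (Sum.inr m) hc) hl0 hra (l0 := l0) (mm := mm) (ra := ra) (hi := h)
      (by rw [rec.Bm]; exact hW) (by rw [rec.Bm]; exact hW1.le) h2 h4 ?_ hcon.le (Sum.inr m) hv
    · rw [rec.Bm]
      exact (Bar_543.fs_ge_c hLa hM hN (t := W1) hW0 hW1).1
    · intro w hw hl' _
      rcases hlw : sB.lab w with j | m'
      · rw [hlw] at hl'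
        cases hl'
      · rw [hlw] at hl'
        obtain rfl : m' = m := Sum.inr_injective hl'
        exact rec.trm w hw m' hlw

/-- **`BSep` for `s2`**, machine instance -/
theorem bsep_m (hδ : 0 < δ) (hR0 : 0 < R) (hκ1 : 0 < κ1)
    (D : DIn (slC hLa hC n hn).hH sB r Sf nb v0 v1 u A B)
    (lo : LevOut (Kc := (slC hLa hC n hn).K) sB nb u A B Lx)
    (tt : TwOut (slC hLa hC n hn) fr3 sB r v0 v1 Lx Tw)
    (rec : BRec hLa sB f X J θ co am Zm nb v0 v1 u A B μ κ l0 mm ra h W0 W1)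
    (hF : Fine Φ T f κ1 J0) (hV : RadV Φ T f X V ρ)
    (hρ : ∀ c : Ti X, ∀ x ∈ frontier (KJ T (J c.1)), gau c.1.1 (Φ.B c.1).lo (f x) ≤ ρ c.1)
    (hga : ∀ w ∈ sB.P, ∀ m, sB.lab w = Sum.inr m →
      gau (co m).1.1 (Φ.B (co m).1).lo (f w) ≤ ρ (co m).1)
    (hl0 : 0 < l0) (hra : 0 < ra) (hh : 0 ≤ h) (hW : l0 * h + (3 * Cn δ R + 1) * κ1 < W1)
    (hW1 : W1 < 1) (h2 : 0 < mm - ra * h - (3 * Cn δ R + 1) * κ1)
    (h4 : mm + ra * h + (3 * Cn δ R + 1) * κ1 < 1) (hl : W1 + Cn δ R * κ1 ≤ l)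
    (hl2 : 2 * (l + κ1) < 1)
    (hinj : ∀ m m', co m = co m' → am m = am m' → Zm m = Zm m' → m = m') :
    BSep (s2 (slC hLa hC n hn) fr3 Tw l0') am := by
  refine bsep_s2 (fa := am) (co := fun m => (co m).1) (am := am) (Zm := Zm) (fun m m' h => h) hF hV
    hl2 (fun m => (co m).2) (fun m => ?_) (fun m m' h => hinj m m' (Subtype.ext h)) ?_
  · obtain ⟨p', q', hM⟩ := rec.mo m
    exact hM.aZ
  · intro w hw m hwl p _ hp
    exact box_m hδ hR0 hκ1 D lo tt rec hρ hga hl0 hra hh hW hW1 h2 h4 hl m hw hwl hp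

/-- **334's `PosM` for the barriers of `s2`**, machine instance -/
theorem posM_m (hδ : 0 < δ) (hR0 : 0 < R) (hκ1 : 0 < κ1)
    (D : DIn (slC hLa hC n hn).hH sB r Sf nb v0 v1 u A B)
    (lo : LevOut (Kc := (slC hLa hC n hn).K) sB nb u A B Lx)
    (tt : TwOut (slC hLa hC n hn) fr3 sB r v0 v1 Lx Tw)
    (rec : BRec hLa sB f X J θ co am Zm nb v0 v1 u A B μ κ l0 mm ra h W0 W1)
    (hρ : ∀ c : Ti X, ∀ x ∈ frontier (KJ T (J c.1)), gau c.1.1 (Φ.B c.1).lo (f x) ≤ ρ c.1)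
    (hga : ∀ w ∈ sB.P, ∀ m, sB.lab w = Sum.inr m →
      gau (co m).1.1 (Φ.B (co m).1).lo (f w) ≤ ρ (co m).1)
    (hl0 : 0 < l0) (hra : 0 < ra) (hh : 0 ≤ h) (hW : l0 * h + (3 * Cn δ R + 1) * κ1 < W1)
    (hW1 : W1 < 1) (h2 : 0 < mm - ra * h - (3 * Cn δ R + 1) * κ1)
    (h4 : mm + ra * h + (3 * Cn δ R + 1) * κ1 < 1) (hl : W1 + Cn δ R * κ1 ≤ l) (m : Mo) :
    Hdr_334.PosM (hH := (Lay_316.lay_sla hLa hC n hn).core)
      (hdis := (Lay_316.lay_sla hLa hC n hn).disj) T f J0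
      (fun p : T.RIdx (slC hLa hC n hn).HH => p.tile) (s2 (slC hLa hC n hn) fr3 Tw l0')
      (Sum.inr m) (am m) l :=
  posM_s2 (co := fun m => (co m).1) (am := am) (Zm := Zm) (ρ := ρ) (m := m)
    (fun w hw hwl p _ hp =>
      box_m hδ hR0 hκ1 D lo tt rec hρ hga hl0 hra hh hW hW1 h2 h4 hl m hw hwl hp)

end box

end Crest.Agent.R096.Bxm_560
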