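import Crest.Agent.R096.Bxm1_560
import Crest.Agent.R096.Bgf11_4

/-!
# R096 (row 96), DOORS_final (helper560): the boxes over 4's `exists_bars` and 106's `BM`

* `ga_le`   : gauge of the truthful barrier points `≤ ρ3 + 13 d ≤ ρ4`.
* `box_BM`, `bsep_BM`, `posM_BM` : the boxes, `BSep` and `PosM` for `stB`.
-/

set_option autoImplicit false
set_option linter.unusedSectionVars false
set_option linter.unusedVariables false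
set_option linter.style.longLine false

open Set Topology Filter Metric Module Relation
open scoped Classical

namespace Crest.Agent.R096.Bxm_560

open Crest.Agent.R096.Msh_715 Crest.Agent.R096.Coh_184 Crest.Agent.R096.Lab_184
  Crest.Agent.R096.Main_4 Crest.Agent.R096.Agl5_543
  Crest.Agent.R096.Seq_213 Crest.Agent.R096.St_147 Crest.Agent.R096.Door_501
  Crest.Agent.R096.Twr_438 Crest.Agent.R096.Exa_560
  Crest.Agent.R096.Dfi_539 Crest.Agent.R096.Dfi_471 Crest.Agent.R096.Sla_184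
  Crest.Agent.R096.Brk1_582 Crest.Agent.R096.Brk2_582 Crest.Agent.R096.Brk3_582
  Crest.Agent.R096.Brk5_582 Crest.Agent.R096.Bsp_628 Crest.Agent.R096.Init_543
  Crest.Agent.R096.Frs_662 Crest.Agent.R096.Dfg_539
  Crest.Agent.R096.Bse_344 Crest.Agent.R096.Cg_501 Crest.Agent.R096.Bar_106
  Crest.Agent.R096.Bmf_416 Crest.Agent.R096.Bgf_4 Crest.Agent.R096.Ess3_95 Crest.Agent.R096.Ess4_95
  Crest.Agent.R096.Ac_117 Crest.Agent.R096.Lm_117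
open Crest.Agent.R096.Mbf_337 (KJ Tiny Cores Fine sb gau)
open Crest.Agent.R096.SkC1_961 (E3 FoamD Hom3)
open Crest.Agent.R096.Frn_337 (Ti)
open Crest.Agent.R096.Ess5_95 (Rm ga)

variable {δ κ0 R c0 : ℝ} {La Om : Set E3} {ι : Type} {Φ : FoamD δ κ0 R c0 La} {T : Tiling Om ι}
  {f g : E3 → E3} {κ1 κ2 μ : ℝ} {X : Set Φ.F} {J0 J V : Φ.F → Set ι}
  {ct ct' : Φ.F → ι} {Aj : Φ.F → E3 ≃ᵃ[ℝ] E3} {lam : Φ.F → ℝ} {z : Φ.F → E3}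
  {θ : Φ.F → E3 → E3} {φ : Φ.F → E3 → ℝ} {r₀ : Φ.F → ℝ}
  {L : Φ.F → Finset ℝ} [Nonempty (JJ Φ L)] {ρ1 ρ2 ρ3 ρ4 d : Φ.F → ℝ}

/-- **gauge of the truthful barrier points** -/
theorem ga_le (hRm : ∀ c ∉ X, Rm Φ T f c (J0 c) (J c) (V c) (θ c) (ρ1 c) (ρ2 c) (ρ3 c) (ρ4 c)
    (d c)) {sg e : ℝ} {c : Φ.F} (hc : c ∉ X) (he : e ≤ hiB ρ1 ρ3 d sg c) {y : E3}
    (h : ga Φ c y ≤ rB ρ1 ρ3 d c + hB ρ1 ρ3 d c * e) :
    ga Φ c y ≤ ρ3 c + 13 * d c ∧ gau c.1 (Φ.B c).lo y ≤ ρ4 c := by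
  have hr := hRm c hc
  have hh : 0 < hB ρ1 ρ3 d c := by
    unfold hB
    linarith [hr.r12, hr.r23, hr.d0]
  have h1 := hB_mul_hiB (sg := sg) hh
  have h2 : hB ρ1 ρ3 d c * e ≤ hB ρ1 ρ3 d c * hiB ρ1 ρ3 d sg c :=
    mul_le_mul_of_nonneg_left he hh.le
  have h3 := rB_add (ρ1 := ρ1) (ρ3 := ρ3) (d := d) c
  have h4 : ga Φ c y ≤ ρ3 c + 13 * d c := by linarith
  refine ⟨h4, ?_⟩
  have h5 : gau c.1 (Φ.B c).lo y ≤ ρ3 c + 13 * d c := h4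
  linarith [hr.r34, hr.d0]

section bm

variable [Nonempty (JJ Φ L ⊕ BM Φ X)]
  {sB : GSt (meshC T fr3) (Sum.map (fun j : JJ Φ L => j.1) (id : BM Φ X → BM Φ X))}
  {r : JJ Φ L ⊕ BM Φ X → E3} {Sf : JJ Φ L ⊕ BM Φ X → Set E3}
  {nb : Ti X → Φ.F ⊕ BM Φ X → Prop}
  {hLa : IsOpen La} {hC : Cores Φ T f κ1 κ2 X J0 J V ct Aj lam z θ φ}
  {n : Ti X → ℕ} {hn : ∀ c, 0 < n c}
  {v0 v1 : ∀ c, Φ.F ⊕ BM Φ X → VxK T (slC hLa hC n hn).K c}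
  {u : Ti X → Φ.F ⊕ BM Φ X → E3 → ℝ} {A B : Ti X → Φ.F ⊕ BM Φ X → ℝ}
  {Lx : ∀ c, Φ.F ⊕ BM Φ X → Lev T (frontier ((slC hLa hC n hn).K c)) (JJ Φ L ⊕ BM Φ X)}
  {Tw : Twrs ((slC hLa hC n hn).sh fr3) (slC hLa hC n hn).n
    (outK (slC hLa hC n hn).hH (slC hLa hC n hn).dis sB r)} {l0' : E3 → JJ Φ L ⊕ BM Φ X}
  {κ l0 mm ra h W0 W1 l : ℝ}

/-- names of the moats are determined by core, family and side -/
theorem bm_inj (m m' : BM Φ X) (h1 : coT m = coT m') (h2 : m.am = m'.am) (h3 : m.Zm = m'.Zm) :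
    m = m' := BM.ext (congrArg Subtype.val h1) h2 h3

/-- the barrier points of `s2` are in their boxes -/
theorem box_BM (hδ : 0 < δ) (hR0 : 0 < R) (hκ1 : 0 < κ1)
    (D : DIn (slC hLa hC n hn).hH sB r Sf nb v0 v1 u A B)
    (lo : LevOut (Kc := (slC hLa hC n hn).K) sB nb u A B Lx)
    (tt : TwOut (slC hLa hC n hn) fr3 sB r v0 v1 Lx Tw)
    (rec : BRec hLa sB f X J θ coT (fun m => m.am) (fun m => m.Zm) nb v0 v1 u A B μ κ l0 mm ra h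
      W0 W1)
    (hRm : ∀ c ∉ X, Rm Φ T f c (J0 c) (J c) (V c) (θ c) (ρ1 c) (ρ2 c) (ρ3 c) (ρ4 c) (d c))
    (hga : ∀ w ∈ sB.P, ∀ m, sB.lab w = Sum.inr m → gau m.co.1 (Φ.B m.co).lo (f w) ≤ ρ4 m.co)
    (hl0 : 0 < l0) (hra : 0 < ra) (hh : 0 ≤ h) (hW : l0 * h + (3 * Cn δ R + 1) * κ1 < W1)
    (hW1 : W1 < 1) (h2 : 0 < mm - ra * h - (3 * Cn δ R + 1) * κ1)
    (h4 : mm + ra * h + (3 * Cn δ R + 1) * κ1 < 1) (hl : W1 + Cn δ R * κ1 ≤ l) (m : BM Φ X)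
    {w : E3} (hw : w ∈ (s2 (slC hLa hC n hn) fr3 Tw l0').P)
    (hwl : (s2 (slC hLa hC n hn) fr3 Tw l0').lab w = Sum.inr m)
    {p : T.RIdx (slC hLa hC n hn).HH} (hp : w ∈ P ((slC hLa hC n hn).T3.H p)) :
    ∃ x ∈ P (T.H p.tile), BoxP Φ f m.co m.am m.Zm (ρ4 m.co) l x :=
  box_m (ρ := ρ4) hδ hR0 hκ1 D lo tt rec (fun c x hx => fr_le hRm c hx) hga hl0 hra hh hW hW1 h2 h4
    hl m hw hwl hp

/-- **`BSep` for `s2` over `BM`** -/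
theorem bsep_BM (hδ : 0 < δ) (hR0 : 0 < R) (hκ1 : 0 < κ1)
    (D : DIn (slC hLa hC n hn).hH sB r Sf nb v0 v1 u A B)
    (lo : LevOut (Kc := (slC hLa hC n hn).K) sB nb u A B Lx)
    (tt : TwOut (slC hLa hC n hn) fr3 sB r v0 v1 Lx Tw)
    (rec : BRec hLa sB f X J θ coT (fun m => m.am) (fun m => m.Zm) nb v0 v1 u A B μ κ l0 mm ra h
      W0 W1) (hF : Fine Φ T f κ1 J0)
    (hRm : ∀ c ∉ X, Rm Φ T f c (J0 c) (J c) (V c) (θ c) (ρ1 c) (ρ2 c) (ρ3 c) (ρ4 c) (d c))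
    (hga : ∀ w ∈ sB.P, ∀ m, sB.lab w = Sum.inr m → gau m.co.1 (Φ.B m.co).lo (f w) ≤ ρ4 m.co)
    (hl0 : 0 < l0) (hra : 0 < ra) (hh : 0 ≤ h) (hW : l0 * h + (3 * Cn δ R + 1) * κ1 < W1)
    (hW1 : W1 < 1) (h2 : 0 < mm - ra * h - (3 * Cn δ R + 1) * κ1)
    (h4 : mm + ra * h + (3 * Cn δ R + 1) * κ1 < 1) (hl : W1 + Cn δ R * κ1 ≤ l)
    (hl2 : 2 * (l + κ1) < 1) :
    BSep (s2 (slC hLa hC n hn) fr3 Tw l0') (fun m : BM Φ X => m.am) :=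
  bsep_m (ρ := ρ4) hδ hR0 hκ1 D lo tt rec hF (radV_of hRm) (fun c x hx => fr_le hRm c hx) hga hl0
    hra hh hW hW1 h2 h4 hl hl2 bm_inj

/-- **`PosM` over `BM`** -/
theorem posM_BM (hδ : 0 < δ) (hR0 : 0 < R) (hκ1 : 0 < κ1)
    (D : DIn (slC hLa hC n hn).hH sB r Sf nb v0 v1 u A B)
    (lo : LevOut (Kc := (slC hLa hC n hn).K) sB nb u A B Lx)
    (tt : TwOut (slC hLa hC n hn) fr3 sB r v0 v1 Lx Tw)
    (rec : BRec hLa sB f X J θ coT (fun m => m.am) (fun m => m.Zm) nb v0 v1 u A B μ κ l0 mm ra h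
      W0 W1)
    (hRm : ∀ c ∉ X, Rm Φ T f c (J0 c) (J c) (V c) (θ c) (ρ1 c) (ρ2 c) (ρ3 c) (ρ4 c) (d c))
    (hga : ∀ w ∈ sB.P, ∀ m, sB.lab w = Sum.inr m → gau m.co.1 (Φ.B m.co).lo (f w) ≤ ρ4 m.co)
    (hl0 : 0 < l0) (hra : 0 < ra) (hh : 0 ≤ h) (hW : l0 * h + (3 * Cn δ R + 1) * κ1 < W1)
    (hW1 : W1 < 1) (h2 : 0 < mm - ra * h - (3 * Cn δ R + 1) * κ1)
    (h4 : mm + ra * h + (3 * Cn δ R + 1) * κ1 < 1) (hl : W1 + Cn δ R * κ1 ≤ l) (m : BM Φ X) :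
    Hdr_334.PosM (hH := (Lay_316.lay_sla hLa hC n hn).core)
      (hdis := (Lay_316.lay_sla hLa hC n hn).disj) T f J0
      (fun p : T.RIdx (slC hLa hC n hn).HH => p.tile) (s2 (slC hLa hC n hn) fr3 Tw l0')
      (Sum.inr m) m.am l :=
  posM_m (ρ := ρ4) hδ hR0 hκ1 D lo tt rec (fun c x hx => fr_le hRm c hx) hga hl0 hra hh hW hW1 h2 h4
    hl m

end bm

end Crest.Agent.R096.Bxm_560
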