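import Crest.Agent.R096.Bxs8_627
import Crest.Agent.R096.EaX1_766

/-!
Row 96 (S0127), helper627.  BOXES, part 9: `ExIn` (766's literal input of `EA p`) with a rational affine
map from the core statement and the `L^p` closeness of a real affine map.
-/

set_option autoImplicit false
set_option linter.unusedSectionVars false
set_option linter.style.longLine false
set_option linter.unusedVariables false

open MeasureTheory Set Filter Topology Metric
open scoped ENNReal NNReal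

namespace Crest.Agent.R096.Bxs_627

open Crest.AnalysisR.VecCalc3 Crest.AnalysisR.Sobolev
open Crest.Agent.R096.Bsp_628 Crest.Agent.R96.Push_899 Crest.Agent.R96.En10_199
open Crest.Agent.R096.Brk5_582 Crest.Agent.R096.Msh_715 Crest.Agent.R096.EaX_766

noncomputable section

/-- the affine frame `x ↦ o + u x` -/
def frm (o : E3) (u : ℝ) (hu : u ≠ 0) : E3 ≃ᵃ[ℝ] E3 :=
  (LinearEquiv.smulOfNeZero ℝ E3 u hu).toAffineEquiv.trans (AffineEquiv.constVAdd ℝ E3 o)

lemma frm_apply (o : E3) (u : ℝ) (hu : u ≠ 0) (x : E3) : frm o u hu x = o + u • x := rfl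

/-- rational affine maps in a frame are dense -/
theorem exists_ratA (o : E3) {u : ℝ} (hu : 0 < u) (A : E3 ≃ᵃ[ℝ] E3) {ε : ℝ} (hε : 0 < ε) :
    ∃ A' : E3 ≃ᵃ[ℝ] E3, RatA o u A' ∧ ∀ x, ‖A' x - A x‖ ≤ ε * (1 + ‖x‖) := by
  obtain ⟨q, b, B, hB, hB'⟩ := exists_rat_aff (A.trans (frm o u hu.ne').symm) (div_pos hε hu)
  refine ⟨B.trans (frm o u hu.ne'), ⟨q, b, fun x k => ?_⟩, fun x => ?_⟩
  · show frm o u hu.ne' (B x) k = _
    rw [frm_apply, Pi.add_apply, Pi.smul_apply, smul_eq_mul, hB]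
  · have e : A x = frm o u hu.ne' ((A.trans (frm o u hu.ne').symm) x) := by
      show A x = frm o u hu.ne' ((frm o u hu.ne').symm (A x))
      rw [AffineEquiv.apply_symm_apply]
    have e2 : (B.trans (frm o u hu.ne')) x - A x = u • (B x - (A.trans (frm o u hu.ne').symm) x) := by
      rw [e]
      show frm o u hu.ne' (B x) - frm o u hu.ne' ((A.trans (frm o u hu.ne').symm) x) = _
      rw [frm_apply, frm_apply, smul_sub]
      abel
    rw [e2, norm_smul, Real.norm_eq_abs, abs_of_pos hu]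
    calc u * ‖B x - (A.trans (frm o u hu.ne').symm) x‖ ≤ u * (ε / u * (1 + ‖x‖)) :=
          mul_le_mul_of_nonneg_left (hB' x) hu.le
      _ = ε * (1 + ‖x‖) := by field_simp

/-- preimages of boxes under nearby affine maps -/
theorem pre_sub {A : E3 ≃ᵃ[ℝ] E3} {Q : Bx (Fin 3)} (hQ : Q.Pos) {lam κ2 κ2' : ℝ} (hl : 0 < lam)
    (hl1 : lam ≤ 1) (h2 : κ2' < κ2) :
    ∃ ε : ℝ, 0 < ε ∧ ∀ A' : E3 → E3, (∀ x, ‖A' x - A x‖ ≤ ε * (1 + ‖x‖)) →
      A' ⁻¹' cbx Q ((1 + 2 * κ2') * lam) ⊆ A ⁻¹' cbx Q ((1 + 2 * κ2) * lam) := by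
  have hs := Bx.sz_pos hQ
  have h : CoriE (A ⁻¹' cbx Q ((1 + 2 * κ2) * lam)) A A Q lam 0 κ2 := by
    rintro x (⟨hx, -⟩ | hx)
    · exact ⟨hx, by simp⟩
    · refine ⟨fun k => (hx k).trans (le_of_eq (by ring)), by simp⟩
  obtain ⟨ε, hε, h'⟩ := h.pert hQ hl hl1 (one_pos : (0 : ℝ) < 1) le_rfl h2
  refine ⟨ε, hε, fun A' hA' x hx => (h' A' hA' x (Or.inr fun k => ?_)).1⟩
  exact (hx k).trans (le_of_eq (by ring))

lemma lin_apply (A : E3 ≃ᵃ[ℝ] E3) (v : E3) : lin A v = A.linear v := rfl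

lemma lin_comp_symm (A : E3 ≃ᵃ[ℝ] E3) :
    (lin A).comp (lin A.symm) = ContinuousLinearMap.id ℝ E3 := by
  ext v
  show A.linear (A.symm.linear v) _ = _
  have : A.linear (A.linear.symm v) = v := A.linear.apply_symm_apply v
  rw [show A.symm.linear v = A.linear.symm v from rfl, this]
  rfl

lemma lin_sub_apply (A : E3 ≃ᵃ[ℝ] E3) (x : E3) : lin A x = A x - A 0 := by
  have := A.toAffineMap.linearMap_vsub x 0
  rw [vsub_eq_sub, vsub_eq_sub, sub_zero] at this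
  exact this

/-- linear parts of nearby affine maps -/
lemma lin_near {A A' : E3 ≃ᵃ[ℝ] E3} {ε : ℝ} (h0 : 0 ≤ ε) (h : ∀ x, ‖A' x - A x‖ ≤ ε * (1 + ‖x‖)) :
    ‖lin A' - lin A‖ ≤ 3 * ε := by
  refine ContinuousLinearMap.opNorm_le_of_unit_norm (by positivity) fun x hx => ?_
  rw [show (lin A' - lin A) x = lin A' x - lin A x from rfl, lin_sub_apply, lin_sub_apply]
  have h1 := h x
  have h2 := h 0
  rw [hx] at h1
  rw [norm_zero] at h2
  have e : A' x - A' 0 - (A x - A 0) = (A' x - A x) - (A' 0 - A 0) := by abel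
  rw [e]
  refine (norm_sub_le _ _).trans ?_
  linarith

lemma symm_near {A A' : E3 ≃ᵃ[ℝ] E3} {η : ℝ} (h : ‖lin A' - lin A‖ ≤ η)
    (hη : η * ‖lin A.symm‖ ≤ 1 / 2) : ‖lin A'.symm‖ ≤ 2 * ‖lin A.symm‖ := by
  refine ContinuousLinearMap.opNorm_le_bound _ (by positivity) fun v => ?_
  set w := lin A'.symm v with hw
  have e1 : lin A' w = v := by
    have := congrArg (fun L : E3 →L[ℝ] E3 => L v) (lin_comp_symm A')
    exact this
  have e2 : lin A.symm (lin A w) = w := A.linear.symm_apply_apply w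
  have h1 : ‖w‖ ≤ ‖lin A.symm‖ * ‖lin A w‖ := by
    calc ‖w‖ = ‖lin A.symm (lin A w)‖ := by rw [e2]
      _ ≤ _ := (lin A.symm).le_opNorm _
  have h2 : ‖lin A w‖ ≤ ‖v‖ + η * ‖w‖ := by
    have e3 : lin A w = lin A' w - (lin A' - lin A) w := by
      rw [show (lin A' - lin A) w = lin A' w - lin A w from rfl]; abel
    rw [e3, e1]
    refine (norm_sub_le _ _).trans ?_
    have := (lin A' - lin A).le_opNorm w
    have h4 := mul_le_mul_of_nonneg_right h (norm_nonneg w)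
    linarith
  have h3 : ‖lin A.symm‖ * ‖lin A w‖ ≤ ‖lin A.symm‖ * (‖v‖ + η * ‖w‖) := by gcongr
  have h4 : ‖lin A.symm‖ * (η * ‖w‖) ≤ 1 / 2 * ‖w‖ := by
    calc ‖lin A.symm‖ * (η * ‖w‖) = η * ‖lin A.symm‖ * ‖w‖ := by ring
      _ ≤ _ := mul_le_mul_of_nonneg_right hη (norm_nonneg w)
  nlinarith

lemma isCompact_cbx (Q : Bx (Fin 3)) (lam : ℝ) : IsCompact (cbx Q lam) := by
  have e : cbx Q lam = Set.univ.pi fun k => Icc (ctr Q k - lam * Q.side k / 2) (ctr Q k + lam * Q.side k / 2) := by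
    ext y
    simp only [cbx, mem_ofPred_eq, mem_univ_pi, mem_Icc, abs_le]
    refine forall_congr' fun k => ?_
    constructor <;> rintro ⟨h1, h2⟩ <;> constructor <;> linarith
  rw [e]
  exact isCompact_univ_pi fun k => isCompact_Icc

lemma isCompact_pre (A : E3 ≃ᵃ[ℝ] E3) (Q : Bx (Fin 3)) (lam : ℝ) : IsCompact (A ⁻¹' cbx Q lam) := by
  have e : A ⁻¹' cbx Q lam = A.symm '' cbx Q lam := by
    ext x
    constructor
    · intro hx
      exact ⟨A x, hx, A.symm_apply_apply x⟩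
    · rintro ⟨y, hy, rfl⟩
      show A (A.symm y) ∈ cbx Q lam
      rw [A.apply_symm_apply]
      exact hy
  rw [e]
  exact (isCompact_cbx Q lam).image (AffineMap.continuous_of_finiteDimensional A.symm.toAffineMap)

lemma rpow_add_le {a b : ℝ≥0∞} {p : ℝ} (hp : 0 ≤ p) :
    (a + b) ^ p ≤ 2 ^ p * (a ^ p + b ^ p) := by
  rcases le_total a b with h | h
  · calc (a + b) ^ p ≤ (2 * b) ^ p := by
          apply ENNReal.rpow_le_rpow _ hp
          rw [two_mul]; gcongr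
      _ = 2 ^ p * b ^ p := ENNReal.mul_rpow_of_nonneg _ _ hp
      _ ≤ _ := by gcongr; exact le_add_self
  · calc (a + b) ^ p ≤ (2 * a) ^ p := by
          apply ENNReal.rpow_le_rpow _ hp
          rw [two_mul]; gcongr
      _ = 2 ^ p * a ^ p := ENNReal.mul_rpow_of_nonneg _ _ hp
      _ ≤ _ := by gcongr; exact le_self_add

/-- stability of the `L^p` clause of `ExIn` -/
theorem lp_near {p : ℝ} (hp : 0 < p) {D : E3 → E3 →L[ℝ] E3} {A : E3 ≃ᵃ[ℝ] E3} {Q : Bx (Fin 3)}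
    (hQ : Q.Pos) {lam κ2 κ2' κ : ℝ} (hl : 0 < lam) (hl1 : lam ≤ 1) (h2 : κ2' < κ2) (hκ : 0 < κ)
    (h : ENNReal.ofReal |(lin A).det| * ‖lin A.symm‖ₑ ^ p *
      ∫⁻ x in A ⁻¹' cbx Q ((1 + 2 * κ2) * lam), ‖D x - lin A‖ₑ ^ p ≤
        ENNReal.ofReal (κ / 2 ^ (2 * p + 2))) :
    ∃ ε : ℝ, 0 < ε ∧ ∀ A' : E3 ≃ᵃ[ℝ] E3, (∀ x, ‖A' x - A x‖ ≤ ε * (1 + ‖x‖)) →
      ENNReal.ofReal |(lin A').det| * ∫⁻ x in A' ⁻¹' cbx Q ((1 + 2 * κ2') * lam),
        ‖(D x).comp (lin A'.symm) - ContinuousLinearMap.id ℝ E3‖ₑ ^ p ≤ ENNReal.ofReal κ := by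
  set S := A ⁻¹' cbx Q ((1 + 2 * κ2) * lam) with hS
  obtain ⟨ε₁, hε₁, hsub⟩ := pre_sub (A := A) hQ hl hl1 h2
  have hV : volume S ≠ ∞ := (isCompact_pre A Q _).measure_lt_top.ne
  have hSm : MeasurableSet S := (isCompact_pre A Q _).isClosed.measurableSet
  set c0 : ℝ := |(lin A).det| with hc0
  have hc0' : 0 < c0 := by
    rw [hc0, abs_pos]
    have h1 : IsUnit (LinearMap.det (A.linear : E3 →ₗ[ℝ] E3)) := A.linear.isUnit_det'
    exact h1.ne_zero
  set b0 : ℝ := ‖lin A.symm‖ with hb0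
  have hb0' : 0 < b0 := by
    rw [hb0, norm_pos_iff]
    intro h0
    have h1 := lin_comp_symm A
    rw [h0, ContinuousLinearMap.comp_zero] at h1
    have h2 := congrArg (fun L : E3 →L[ℝ] E3 => L 1 0) h1
    simp at h2
  set V : ℝ := (volume S).toReal with hVd
  set K : ℝ := c0 * b0 ^ p * V with hK
  have hK0 : 0 ≤ K := by positivity
  set m : ℝ := κ / 2 ^ (2 * p + 2) with hm
  have hm0 : 0 < m := by positivity
  -- determinant
  obtain ⟨η₁, hη₁, hdet⟩ : ∃ η₁ > 0, ∀ L : E3 →L[ℝ] E3, ‖L - lin A‖ < η₁ → |L.det| ≤ 2 * c0 := by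
    have h1 : Continuous fun L : E3 →L[ℝ] E3 => |L.det| := ContinuousLinearMap.continuous_det.abs
    obtain ⟨η, hη, h2⟩ := Metric.eventually_nhds_iff.1
      (h1.continuousAt.eventually (gt_mem_nhds (show |(lin A).det| < 2 * c0 by linarith)))
    exact ⟨η, hη, fun L hL => (h2 (by rwa [dist_eq_norm])).le⟩
  set η : ℝ := min (η₁ / 2) (min (1 / (2 * b0)) ((m / (K + 1)) ^ (1 / p))) with hη
  have hη0 : 0 < η := lt_min (by positivity) (lt_min (by positivity) (by positivity))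
  have hη2 : η * b0 ≤ 1 / 2 := by
    have : η ≤ 1 / (2 * b0) := (min_le_right _ _).trans (min_le_left _ _)
    rw [le_div_iff₀ (by positivity)] at this
    linarith
  have hη3 : K * η ^ p ≤ m := by
    have h1 : η ≤ (m / (K + 1)) ^ (1 / p) := (min_le_right _ _).trans (min_le_right _ _)
    have h3 : η ^ p ≤ m / (K + 1) := by
      calc η ^ p ≤ ((m / (K + 1)) ^ (1 / p)) ^ p := Real.rpow_le_rpow hη0.le h1 hp.le
        _ = m / (K + 1) := by
          rw [← Real.rpow_mul (by positivity), one_div_mul_cancel hp.ne', Real.rpow_one]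
    have h4 : 0 ≤ η ^ p := by positivity
    rw [le_div_iff₀ (by positivity)] at h3
    nlinarith
  refine ⟨min ε₁ (η / 3), lt_min hε₁ (by positivity), fun A' hA' => ?_⟩
  have hn : ‖lin A' - lin A‖ ≤ η := by
    have := lin_near (le_min hε₁.le (by positivity : (0 : ℝ) ≤ η / 3)) hA'
    have h1 : min ε₁ (η / 3) ≤ η / 3 := min_le_right _ _
    linarith
  have hb := symm_near hn hη2
  have hd : |(lin A').det| ≤ 2 * c0 := hdet _ (lt_of_le_of_lt hn (by
    have : η ≤ η₁ / 2 := min_le_left _ _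
    linarith))
  have hsub' := hsub A' fun x => (hA' x).trans (mul_le_mul_of_nonneg_right (min_le_left _ _)
    (by positivity))
  have hpt : ∀ x, ‖(D x).comp (lin A'.symm) - ContinuousLinearMap.id ℝ E3‖ₑ ^ p ≤
      ENNReal.ofReal ((2 * b0) ^ p) * (2 ^ p * (‖D x - lin A‖ₑ ^ p + ENNReal.ofReal (η ^ p))) := by
    intro x
    have e1 : (D x).comp (lin A'.symm) - ContinuousLinearMap.id ℝ E3 =
        (D x - lin A').comp (lin A'.symm) := by
      rw [ContinuousLinearMap.sub_comp, lin_comp_symm]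
    have e2 : ‖(D x - lin A').comp (lin A'.symm)‖ₑ ≤ ENNReal.ofReal (2 * b0) * ‖D x - lin A'‖ₑ := by
      rw [← ofReal_norm, ← ofReal_norm, ← ENNReal.ofReal_mul (by positivity)]
      apply ENNReal.ofReal_le_ofReal
      refine (ContinuousLinearMap.opNorm_comp_le _ _).trans ?_
      rw [mul_comm]
      exact mul_le_mul_of_nonneg_right hb (norm_nonneg _)
    have e3 : ‖D x - lin A'‖ₑ ≤ ‖D x - lin A‖ₑ + ENNReal.ofReal η := by
      have e4 : D x - lin A' = (D x - lin A) - (lin A' - lin A) := by abel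
      rw [e4]
      refine (enorm_sub_le).trans ?_
      gcongr
      rw [← ofReal_norm]
      exact ENNReal.ofReal_le_ofReal hn
    rw [e1]
    calc ‖(D x - lin A').comp (lin A'.symm)‖ₑ ^ p
        ≤ (ENNReal.ofReal (2 * b0) * (‖D x - lin A‖ₑ + ENNReal.ofReal η)) ^ p :=
          ENNReal.rpow_le_rpow (e2.trans (by gcongr)) hp.le
      _ = ENNReal.ofReal (2 * b0) ^ p * (‖D x - lin A‖ₑ + ENNReal.ofReal η) ^ p :=
          ENNReal.mul_rpow_of_nonneg _ _ hp.le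
      _ ≤ ENNReal.ofReal (2 * b0) ^ p * (2 ^ p * (‖D x - lin A‖ₑ ^ p + ENNReal.ofReal η ^ p)) := by
          gcongr
          exact rpow_add_le hp.le
      _ = _ := by
          rw [ENNReal.ofReal_rpow_of_nonneg (by positivity) hp.le,
            ENNReal.ofReal_rpow_of_nonneg hη0.le hp.le]
  have h2p : (2 : ℝ≥0∞) ^ p = ENNReal.ofReal (2 ^ p) := by
    rw [← ENNReal.ofReal_rpow_of_nonneg (by norm_num) hp.le]
    norm_num
  calc ENNReal.ofReal |(lin A').det| * ∫⁻ x in A' ⁻¹' cbx Q ((1 + 2 * κ2') * lam),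
        ‖(D x).comp (lin A'.symm) - ContinuousLinearMap.id ℝ E3‖ₑ ^ p
      ≤ ENNReal.ofReal (2 * c0) * ∫⁻ x in S,
          ENNReal.ofReal ((2 * b0) ^ p) * (2 ^ p * (‖D x - lin A‖ₑ ^ p + ENNReal.ofReal (η ^ p))) := by
        refine mul_le_mul' (ENNReal.ofReal_le_ofReal hd) ?_
        exact (lintegral_mono_set hsub').trans (lintegral_mono hpt)
    _ = ENNReal.ofReal (2 * c0) * (ENNReal.ofReal ((2 * b0) ^ p) * (2 ^ p *
          ((∫⁻ x in S, ‖D x - lin A‖ₑ ^ p) + ENNReal.ofReal (η ^ p) * volume S))) := by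
        rw [lintegral_const_mul' _ _ ENNReal.ofReal_ne_top,
          lintegral_const_mul' _ _ (by rw [h2p]; exact ENNReal.ofReal_ne_top),
          lintegral_add_right _ measurable_const, setLIntegral_const]
    _ = ENNReal.ofReal (2 ^ (2 * p + 1)) * (ENNReal.ofReal c0 * ‖lin A.symm‖ₑ ^ p *
          (∫⁻ x in S, ‖D x - lin A‖ₑ ^ p)) + ENNReal.ofReal (2 ^ (2 * p + 1) * (K * η ^ p)) := by
        have e1 : volume S = ENNReal.ofReal V := (ENNReal.ofReal_toReal hV).symm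
        have e2 : ‖lin A.symm‖ₑ ^ p = ENNReal.ofReal (b0 ^ p) := by
          rw [← ofReal_norm, ENNReal.ofReal_rpow_of_nonneg (norm_nonneg _) hp.le]
        have e3 : ENNReal.ofReal (2 * c0) * (ENNReal.ofReal ((2 * b0) ^ p) * ENNReal.ofReal (2 ^ p)) =
            ENNReal.ofReal (2 ^ (2 * p + 1)) * (ENNReal.ofReal c0 * ENNReal.ofReal (b0 ^ p)) := by
          rw [← ENNReal.ofReal_mul (by positivity), ← ENNReal.ofReal_mul (by positivity),
            ← ENNReal.ofReal_mul (by positivity), ← ENNReal.ofReal_mul (by positivity)]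
          congr 1
          rw [Real.mul_rpow (by norm_num) hb0'.le, show 2 * p + 1 = p + p + 1 by ring,
            Real.rpow_add_one (by norm_num), Real.rpow_add (by norm_num)]
          ring
        have e4 : ENNReal.ofReal (2 ^ (2 * p + 1) * (K * η ^ p)) = ENNReal.ofReal (2 ^ (2 * p + 1)) *
            (ENNReal.ofReal c0 * ENNReal.ofReal (b0 ^ p)) *
            (ENNReal.ofReal (η ^ p) * ENNReal.ofReal V) := by
          rw [← ENNReal.ofReal_mul (by positivity), ← ENNReal.ofReal_mul (by positivity),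
            ← ENNReal.ofReal_mul (by positivity), ← ENNReal.ofReal_mul (by positivity)]
          congr 1
          rw [hK]
          ring
        rw [e1, e2, e4, h2p]
        rw [show ENNReal.ofReal (2 * c0) * (ENNReal.ofReal ((2 * b0) ^ p) * (ENNReal.ofReal (2 ^ p) *
          ((∫⁻ x in S, ‖D x - lin A‖ₑ ^ p) + ENNReal.ofReal (η ^ p) * ENNReal.ofReal V))) =
          (ENNReal.ofReal (2 * c0) * (ENNReal.ofReal ((2 * b0) ^ p) * ENNReal.ofReal (2 ^ p))) *
          ((∫⁻ x in S, ‖D x - lin A‖ₑ ^ p) + ENNReal.ofReal (η ^ p) * ENNReal.ofReal V) by ring, e3]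
        ring
    _ ≤ ENNReal.ofReal (2 ^ (2 * p + 1)) * ENNReal.ofReal m + ENNReal.ofReal (2 ^ (2 * p + 1) * m) := by
        gcongr
    _ = ENNReal.ofReal κ := by
        rw [← ENNReal.ofReal_mul (by positivity), ← ENNReal.ofReal_add (by positivity) (by positivity)]
        congr 1
        have e : (2 : ℝ) ^ (2 * p + 2) = 2 ^ (2 * p + 1) * 2 := by
          rw [show 2 * p + 2 = 2 * p + 1 + 1 by ring, Real.rpow_add_one (by norm_num)]
        rw [hm, e]
        field_simp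
        ring

/-- **`ExIn` with a rational affine map** from the core statement and the `L^p`-closeness of a real
affine map. -/
theorem exists_exIn {p : ℝ} (hp : 0 < p) {Om : Set E3} {f : E3 → E3} {D : E3 → E3 →L[ℝ] E3} (o : E3)
    {u : ℝ} (hu : 0 < u) {A : E3 ≃ᵃ[ℝ] E3} {Q : Bx (Fin 3)} (hQ : Q.Pos)
    {lam κ1 κ1' κ2 κ2' : ℝ} (hl : 0 < lam) (hl1 : lam ≤ 1) (h0 : 0 ≤ κ1) (h1 : κ1 < κ1')
    (h2 : κ2' < κ2) (hc : CoriE Om f A Q lam κ1 κ2)
    (h : ENNReal.ofReal |(lin A).det| * ‖lin A.symm‖ₑ ^ p *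
      ∫⁻ x in A ⁻¹' cbx Q ((1 + 2 * κ2) * lam), ‖D x - lin A‖ₑ ^ p ≤
        ENNReal.ofReal (κ1' * (lam * Q.sz) ^ 3 / 2 ^ (2 * p + 2))) {ε : ℝ} (hε : 0 < ε) :
    ∃ A' : E3 ≃ᵃ[ℝ] E3, (∀ x, ‖A' x - A x‖ ≤ ε * (1 + ‖x‖)) ∧
      ExIn p Om f D o u κ1' κ2' Q A' lam := by
  have hs := Bx.sz_pos hQ
  obtain ⟨ε₁, hε₁, h1'⟩ := hc.pert hQ hl hl1 h1 h0 h2
  obtain ⟨ε₂, hε₂, h2'⟩ := lp_near (κ := κ1' * (lam * Q.sz) ^ 3) hp hQ hl hl1 h2
    (by have := h0.trans_lt h1; positivity) h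
  obtain ⟨A', hr, hA'⟩ := exists_ratA o hu A (lt_min hε (lt_min hε₁ hε₂))
  have hm : ∀ t : ℝ, min ε (min ε₁ ε₂) ≤ t → ∀ x, ‖A' x - A x‖ ≤ t * (1 + ‖x‖) := fun t ht x =>
    (hA' x).trans (mul_le_mul_of_nonneg_right ht (by positivity))
  refine ⟨A', hm _ (min_le_left _ _), hr, ?_, ?_⟩
  · rintro x (⟨hx, hx'⟩ | hx)
    · exact h1' A' (hm _ ((min_le_right _ _).trans (min_le_left _ _))) x (Or.inl ⟨hx, hx'⟩)
    · exact h1' A' (hm _ ((min_le_right _ _).trans (min_le_left _ _))) x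
        (Or.inr fun k => (hx k).trans (le_of_eq (by ring)))
  · exact h2' A' (hm _ ((min_le_right _ _).trans (min_le_right _ _)))

end

end Crest.Agent.R096.Bxs_627
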