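import Crest.Agent.R096.Toph2_766
import Crest.Agent.R96.Str6_520
import Crest.Agent.R096.Sk0_962

/-!
Row 96 (S0127), helper766.  TOPH, part 3: `SEL` with small total volume of the complement of the good
image; the composition of a Sobolev homeomorphism with a Lipschitz homeomorphism of the target.
-/

set_option autoImplicit false
set_option linter.unusedSectionVars false
set_option linter.style.longLine false
set_option linter.style.haveILetI false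
set_option linter.unusedVariables false

namespace Crest.Agent.R096.Toph_766

open MeasureTheory Set Filter Topology Metric
open scoped ENNReal NNReal RealInnerProductSpace Gradient
open Crest.AnalysisR.VecCalc3 Crest.AnalysisR.Sobolev
open Crest.Agent.R096.Osc_802 Crest.Agent.R096.LusN_766 Crest.Agent.R096.VolC_766
open Crest.Agent.R096.VolC2_766 Crest.Agent.R096.VolC3_766 Crest.Agent.R96.Lu_538
open Crest.Agent.R096.ThC6_766 Crest.Agent.R096.ThCi2_766 Crest.Agent.R096.ThCi3_766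
open Crest.Agent.R096.Sel_766
open Crest.Agent.R096.Sk_962 (SH)
open Crest.Agent.R96.Acl_392 Crest.Agent.R96.Sob2_199 Crest.Agent.R96.Sob4_199
  Crest.Agent.R96.Sob5_199 Crest.Agent.R96.Sob7_199 Crest.Agent.R96.Str_520

/-- **SEL with total volume.** -/
theorem sel_vol {Ω Λ : Set R3} (hΩ : IsOpen Ω) (hΛ : IsOpen Λ) (hΛv : volume Λ ≠ ∞)
    {f : R3 → R3} (hf : IsHomeomorphOn f Ω Λ) {G : Fin 3 → R3 → R3}
    (hG : ∀ j, HasWeakGradOn Ω (fun x => f x j) (G j)) {p : ℝ} (hp : 3 ≤ p)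
    (hGp : ∀ j, MemLp (G j) (ENNReal.ofReal p) (volume.restrict Ω))
    {ρ : Measure R3} [IsFiniteMeasure ρ] (hρ : ρ ≪ volume) {ε : ℝ≥0∞} (hε : 0 < ε)
    {w : R3 → ℝ} (hw : Scale Λ w) {η : ℝ} (hη : 0 < η)
    {h₁ : R3 → ℝ} (hh₁ : ∀ x ∈ Ω, ∃ r : ℝ, 0 < r ∧ ∃ m : ℝ, 0 < m ∧ ∀ y ∈ ball x r, m ≤ h₁ y) :
    ∃ μ : R3 → ℝ, Scale Ω μ ∧ (∀ x ∈ Ω, μ x ≤ h₁ x) ∧
      ρ {x | x ∈ Ω ∧ (Gmat G x).det ≠ 0 ∧ Gmat G x ∉ LM (μ x)} < ε / 2 ∧
      ∀ κ : R3 → ℝ, Measurable κ → (∀ x ∈ Ω, 0 < κ x) →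
      ∀ h₀ : R3 → ℝ, (∀ x ∈ Ω, ∃ r : ℝ, 0 < r ∧ ∃ m : ℝ, 0 < m ∧ ∀ y ∈ ball x r, m ≤ h₀ y) →
      ∃ δ : R3 → ℝ, Scale Ω δ ∧ (∀ x ∈ Ω, δ x ≤ h₀ x) ∧
        ρ {x | x ∈ Ω ∧ (Gmat G x).det ≠ 0 ∧ x ∉ EE Ω f G p μ κ δ} < ε ∧
        volume (Λ \ f '' EE Ω f G p μ κ δ) < ε ∧
        ∀ y ∈ Λ, (volume : Measure R3).real ((Λ \ f '' EE Ω f G p μ κ δ) ∩ ball y (w y)) ≤
          η * (volume : Measure R3).real (ball y (w y)) := by
  have hf' := hf
  obtain ⟨g, hfm, hgm, hgf, hfg, hfc, hgc⟩ := hf'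
  have hga : AEMeasurable g ((volume : Measure R3).restrict Λ) := hgc.aemeasurable hΛ.measurableSet
  set ν : Measure R3 := ((volume : Measure R3).restrict Λ).map g with hν
  have hpre : ∀ A : Set R3, g ⁻¹' A ∩ Λ = f '' (A ∩ Ω) := by
    intro A
    ext y
    constructor
    · rintro ⟨hy, hyΛ⟩
      exact ⟨g y, ⟨hy, hgm hyΛ⟩, hfg y hyΛ⟩
    · rintro ⟨x, ⟨hx, hxΩ⟩, rfl⟩
      exact ⟨by rw [mem_preimage, hgf x hxΩ]; exact hx, hfm hxΩ⟩
  have hνA : ∀ A : Set R3, MeasurableSet A → ν A = volume (f '' (A ∩ Ω)) := by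
    intro A hA
    rw [hν, Measure.map_apply_of_aemeasurable hga hA, Measure.restrict_apply' hΛ.measurableSet, hpre]
  haveI : IsFiniteMeasure ν := by
    constructor
    rw [hνA _ MeasurableSet.univ]
    refine lt_of_le_of_lt (measure_mono ?_) (lt_top_iff_ne_top.2 hΛv)
    rintro _ ⟨x, hx, rfl⟩
    exact hfm hx.2
  have hνv : ν ≪ volume := Measure.AbsolutelyContinuous.mk fun A hA h0 => by
    rw [hνA A hA]; exact lusinN hΩ hΛ hf hG hp hGp h0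
  have hνle : ∀ A : Set R3, volume (f '' (A ∩ Ω)) ≤ ν A := by
    intro A
    calc volume (f '' (A ∩ Ω)) ≤ volume (f '' (toMeasurable ν A ∩ Ω)) :=
          measure_mono (image_mono (inter_subset_inter_left _ (subset_toMeasurable _ _)))
      _ = ν (toMeasurable ν A) := (hνA _ (measurableSet_toMeasurable _ _)).symm
      _ = ν A := measure_toMeasurable _
  have hρν : ρ + ν ≪ volume := hρ.add_left hνv
  obtain ⟨μ, hμ, hμh, hμρ, hmain⟩ := sel hΩ hΛ hf hG hp hGp hρν hε hw hη hh₁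
  have hle : ∀ A : Set R3, ρ A ≤ (ρ + ν) A := fun A => by
    rw [Measure.add_apply]; exact le_self_add
  have hle' : ∀ A : Set R3, ν A ≤ (ρ + ν) A := fun A => by
    rw [Measure.add_apply]; exact le_add_self
  refine ⟨μ, hμ, hμh, (hle _).trans_lt hμρ, fun κ hκm hκ h₀ hh₀ => ?_⟩
  obtain ⟨δ, hδ, hδh, hδρ, hδd⟩ := hmain κ hκm hκ h₀ hh₀
  refine ⟨δ, hδ, hδh, (hle _).trans_lt hδρ, ?_, hδd⟩
  have hcrit := crit_image_null hΩ hΛ hf hG hp hGp
  have hsub : Λ \ f '' EE Ω f G p μ κ δ ⊆ f '' ({x | (Gmat G x).det = 0} ∩ Ω) ∪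
      f '' ({x | x ∈ Ω ∧ (Gmat G x).det ≠ 0 ∧ x ∉ EE Ω f G p μ κ δ} ∩ Ω) := by
    rintro y ⟨hyΛ, hyE⟩
    have hgy := hgm hyΛ
    have hfy := hfg y hyΛ
    by_cases h0 : (Gmat G (g y)).det = 0
    · exact Or.inl ⟨g y, ⟨h0, hgy⟩, hfy⟩
    · exact Or.inr ⟨g y, ⟨⟨hgy, h0, fun h => hyE ⟨g y, h, hfy⟩⟩, hgy⟩, hfy⟩
  calc volume (Λ \ f '' EE Ω f G p μ κ δ)
      ≤ volume (f '' ({x | (Gmat G x).det = 0} ∩ Ω)) +
        volume (f '' ({x | x ∈ Ω ∧ (Gmat G x).det ≠ 0 ∧ x ∉ EE Ω f G p μ κ δ} ∩ Ω)) :=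
        (measure_mono hsub).trans (measure_union_le _ _)
    _ ≤ 0 + ν {x | x ∈ Ω ∧ (Gmat G x).det ≠ 0 ∧ x ∉ EE Ω f G p μ κ δ} :=
        add_le_add hcrit.le (hνle _)
    _ = ν {x | x ∈ Ω ∧ (Gmat G x).det ≠ 0 ∧ x ∉ EE Ω f G p μ κ δ} := zero_add _
    _ ≤ (ρ + ν) {x | x ∈ Ω ∧ (Gmat G x).det ≠ 0 ∧ x ∉ EE Ω f G p μ κ δ} := hle' _
    _ < ε := hδρ

/-- **Composition with a Lipschitz homeomorphism of the target.** -/
theorem sh_comp {p : ℝ} {Ω Λ : Set R3} (hΩ : IsOpen Ω) (hΩv : volume Ω ≠ ∞)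
    {f : R3 → R3} {G : Fin 3 → R3 → R3} (h : SH p Ω Λ f G) {Th : R3 ≃ₜ R3}
    (hTΛ : ∀ y, Th y ∈ Λ ↔ y ∈ Λ) {K : ℝ≥0} (hlip : LipschitzWith K Th) :
    ∃ G' : Fin 3 → R3 → R3, SH p Ω Λ (fun x => Th (f x)) G' ∧
      (∀ᵐ x, x ∈ Ω → ∀ i, ‖col G' i x‖ ≤ K * ‖col G i x‖) ∧
      ∀ (U : Set R3) (t : R3), IsOpen U → U ⊆ Ω → (∀ x ∈ U, Th (f x) = f x + t) →
        ∀ᵐ x, x ∈ U → ∀ j, G' j x = G j x := by
  have hf' := h.homeo
  obtain ⟨g, hfm, hgm, hgf, hfg, hfc, hgc⟩ := hf'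
  have h1 : ∀ i, ∃ D', VWD Ω volume (fun x => Th (f x)) D' (EuclideanSpace.single i (1:ℝ)) ∧
      ∀ᵐ x, x ∈ Ω → ‖D' x‖ ≤ K * ‖col G i x‖ :=
    fun i => comp_lip hΩ (vwd_col hΩ h.wg i) hfc (mapsTo_univ f Ω) (hlip.lipschitzOnWith (s := univ))
  choose D' hD' hDb using h1
  have hw : ∀ j, HasWeakGradOn Ω (fun x => Th (f x) j) (rowOf D' j) := fun j => grad_of_vwd hD' j
  have hb : ∀ᵐ x, x ∈ Ω → ∀ i, ‖col (rowOf D') i x‖ ≤ K * ‖col G i x‖ := by
    filter_upwards [ae_all_iff.2 hDb] with x hx hxΩ i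
    rw [col_rowOf]
    exact hx i hxΩ
  haveI : IsFiniteMeasure (volume.restrict Ω) := ⟨by
    rw [Measure.restrict_apply_univ]; exact lt_top_iff_ne_top.2 hΩv⟩
  refine ⟨rowOf D', ⟨?_, ?_, hw, memLp_of_bound hΩ h.memG hw hb⟩, hb, ?_⟩
  · refine ⟨fun y => g (Th.symm y), ?_, ?_, ?_, ?_, ?_, ?_⟩
    · intro x hx
      exact (hTΛ _).2 (hfm hx)
    · intro y hy
      apply hgm
      rw [← hTΛ, Th.apply_symm_apply]
      exact hy
    · intro x hx
      simp only [Th.symm_apply_apply]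
      exact hgf x hx
    · intro y hy
      have h2 : Th.symm y ∈ Λ := by rw [← hTΛ, Th.apply_symm_apply]; exact hy
      simp only
      rw [hfg _ h2, Th.apply_symm_apply]
    · exact Th.continuous.comp_continuousOn hfc
    · refine hgc.comp Th.symm.continuous.continuousOn fun y hy => ?_
      rw [← hTΛ, Th.apply_symm_apply]
      exact hy
  · have h2 : LipschitzWith K (fun y : R3 => Th y - Th 0) := by
      apply LipschitzWith.of_dist_le_mul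
      intro y y'
      have := hlip.dist_le_mul y y'
      rwa [dist_sub_right]
    have h3 := h2.comp_memLp (by simp) h.mem
    have h4 : (fun x => Th (f x)) = (fun x => ((fun y : R3 => Th y - Th 0) ∘ f) x + Th 0) := by
      funext x; simp
    rw [h4]
    exact h3.add (memLp_const (Th 0))
  · intro U t hU hUΩ hUt
    have h2 : ∀ j, ∀ᵐ x, x ∈ U → rowOf D' j x = G j x := by
      intro j
      have e1 : HasWeakGradOn U (fun x => Th (f x) j) (rowOf D' j) := grad_mono hΩ (hw j) hUΩ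
      have e2 : HasWeakGradOn U (fun x => f x j) (G j) := grad_mono hΩ (h.wg j) hUΩ
      have e3 : HasWeakGradOn U (fun x : R3 => t j) (fun x => ∇ (fun _ : R3 => t j) x) :=
        grad_of_loclip hU ((LipschitzWith.const' (K := 0) (t j)).locallyLipschitz.locallyLipschitzOn)
      have e4 := grad_add hU e2 e3
      have e5 : HasWeakGradOn U (fun x => Th (f x) j) (G j) := by
        refine grad_congr hU e4 (Eventually.of_forall fun x hx => ?_)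
          (Eventually.of_forall fun x hx => ?_)
        · rw [hUt x hx]; rfl
        · simp [gradient]
      exact grad_unique hU e1 e5
    filter_upwards [ae_all_iff.2 h2] with x hx hxU j
    exact hx j hxU

end Crest.Agent.R096.Toph_766
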