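import Crest.Agent.R96.HoL3_899
import Crest.Agent.R096.Toph3_766
import Crest.Agent.R096.Bxs9_627

/-!
Row 96 (S0127), helper627.  NO0, `p ≥ 3`, leaf [U3] of 962 #10559, part 1: selection before the size
`s`, the collapse `th` for a lower bound `σ` of the radii, the hole opening for any family of holes.
-/

set_option autoImplicit false
set_option linter.unusedSectionVars false
set_option linter.style.longLine false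
set_option linter.unusedVariables false

namespace Crest.Agent.R096.Bxs_627

open MeasureTheory Set Filter Topology Metric
open scoped ENNReal NNReal
open Crest.AnalysisR.VecCalc3 Crest.AnalysisR.Sobolev
open Crest.Agent.R096.Bsp_628 Crest.Agent.R096.Brk5_582 Crest.Agent.R096.Brk3_582
open Crest.Agent.R096.Osc_802 Crest.Agent.R096.LusN_766 Crest.Agent.R096.VolC_766
open Crest.Agent.R096.VolC2_766 Crest.Agent.R096.VolC3_766 Crest.Agent.R96.Lu_538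
open Crest.Agent.R096.ThC6_766 Crest.Agent.R096.ThCi2_766 Crest.Agent.R096.ThCi3_766
open Crest.Agent.R096.Sel_766 Crest.Agent.R096.Toph_766
open Crest.Agent.R096.Sk_962 (SH)
open Crest.Agent.R96.En10_199 Crest.Agent.R96.HoL_899

/-- **Output of the hole opening** (all clauses of `toph_β` and the Sobolev clauses), for a family of
holes: centres `P i`, radii `R i`. -/
structure HolN (p : ℝ) (Ω Λ : Set R3) (f : R3 → R3) (G : Fin 3 → R3 → R3) (β κ₁ : ℝ)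
    (w μ κ δ : R3 → ℝ) (th : R3 → R3) {ι : Type} (P : ι → R3) (R : ι → ℝ) (yc ξ : ι → R3)
    (Th : R3 ≃ₜ R3) (G' : Fin 3 → R3 → R3) : Prop where
  ee : ∀ i, ξ i ∈ EE Ω f G p μ κ δ
  ycΛ : ∀ i, yc i ∈ Λ
  near_good : ∀ i, ‖yc i - f (ξ i)‖ ≤ R i
  near_P : ∀ i, ‖P i - yc i‖ ≤ w (P i) / 16
  th_yc : ∀ i, th (yc i) = P i
  id_off : ∀ y, y ∉ Λ → Th y = y
  mem : ∀ y, Th y ∈ Λ ↔ y ∈ Λ
  disp : ∀ y, ‖Th y - y‖ ≤ 5 / 4 * w y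
  lip : ∀ y y', ‖Th y - Th y'‖ ≤ 25 / 2 * ‖y - y'‖
  trans : ∀ i y, ‖y - yc i‖ ≤ R i / 16 → Th y = P i + (y - yc i)
  trans' : ∀ i y, ‖Th y - P i‖ ≤ R i / 16 → y = yc i + (Th y - P i)
  loc : ∀ y ∈ Λ, (∀ i, 2 * R i + 2 * w y + w (P i) < ‖y - P i‖) → w y ≤ β →
    ∀ᶠ y' in 𝓝 y, ‖Th y' - Th y‖ ≤ (1 + 4 * β) * ‖y' - y‖
  good : ∀ i, GoodAt Ω f G p κ (ξ i) (4 * R i / μ (ξ i))
  on_cube : ∀ i, ∀ x ∈ cube (ξ i) (4 * R i / μ (ξ i)),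
    x ∈ Ω ∧ ‖f x - (f (ξ i) + Gmat G (ξ i) (x - ξ i))‖ ≤ κ₁ * R i
  miss : ∀ i x, x ∈ Ω → ‖Th (f x) - P i‖ ≤ R i / 16 → x ∈ cube (ξ i) (4 * R i / μ (ξ i)) ∧
    ‖Th (f x) - Aff f G (ξ i) (P i - yc i) x‖ ≤ κ₁ * R i
  nbd : ∀ i x, ‖Aff f G (ξ i) (P i - yc i) x - P i‖ ≤ R i / 32 →
    x ∈ Ω ∧ x ∈ cube (ξ i) (4 * R i / μ (ξ i)) ∧
    ‖Th (f x) - Aff f G (ξ i) (P i - yc i) x‖ ≤ κ₁ * R i
  sh : SH p Ω Λ (fun x => Th (f x)) G'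
  col : ∀ᵐ x, x ∈ Ω → ∀ i, ‖Crest.Agent.R96.Str_520.col G' i x‖ ≤
    25 / 2 * ‖Crest.Agent.R96.Str_520.col G i x‖
  tr : ∀ (U : Set R3) (t : R3), IsOpen U → U ⊆ Ω → (∀ x ∈ U, Th (f x) = f x + t) →
    ∀ᵐ x, x ∈ U → ∀ j, G' j x = G j x

/-- **Selection and hole opening for NO0, `p ≥ 3`**: `w` first, then `μ κ δ`, then the lower bound `σ` of
the radii, then `th`, then the holes. -/
theorem prepN {β : ℝ} (hβ : 0 < β) (hβ1 : β ≤ 1 / 2) {p : ℝ} (hp : 3 ≤ p) {Ω Λ : Set R3}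
    (hΩ : IsOpen Ω) (hΩb : Bornology.IsBounded Ω) (hΛ : IsOpen Λ) (hΛb : Bornology.IsBounded Λ)
    {f : R3 → R3} {G : Fin 3 → R3 → R3} (h : SH p Ω Λ f G) {w : R3 → ℝ} (hw : Scale Λ w)
    {κ₁ : ℝ} (hκ₁ : 0 < κ₁) (hκ₁' : κ₁ ≤ 1 / 32) {κf : ℝ → ℝ} (hκm : Measurable κf)
    (hκp : ∀ m, 0 < m → 0 < κf m) {ε : ℝ≥0∞} (hε : 0 < ε) :
    ∃ μ κ δ : R3 → ℝ, Scale Ω μ ∧ Scale Ω δ ∧ (∀ x ∈ Ω, κ x ≤ κf (μ x)) ∧
      (∀ x ∈ Ω, κ x * 4 ≤ κ₁ * μ x) ∧ volume (Λ \ f '' EE Ω f G p μ κ δ) < ε ∧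
      ∀ {σ : R3 → ℝ}, Scale Λ σ →
      ∃ (Phi : R3 → ℝ) (th : R3 → R3), ThC3_766.CT (1 + 2 * β) Phi th ∧
        (∀ y, ‖th y - y‖ ≤ w y / 16) ∧ (∀ y, th y ∈ Λ ↔ y ∈ Λ) ∧
        ∀ {ι : Type} (P : ι → R3) (R : ι → ℝ), (∀ i, P i ∈ Λ) → (∀ i, 0 < R i) →
          (∀ i, R i ≤ w (P i) / 8) → (∀ i j, i ≠ j → 2 * R i + 2 * R j < ‖P i - P j‖) →
          (∀ q ∈ Λ, ∃ r : ℝ, 0 < r ∧ {i | (closedBall (P i) (2 * R i) ∩ ball q r).Nonempty}.Finite) →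
          (∀ i y, ‖P i - y‖ ≤ w (P i) / 16 → σ y ≤ R i) →
          (∀ i, ∀ x ∈ Ω, ‖f x - P i‖ ≤ w (P i) / 4 → 4 * R i < μ x * δ x) →
          ∃ (yc ξ : ι → R3) (Th : R3 ≃ₜ R3) (G' : Fin 3 → R3 → R3),
            HolN p Ω Λ f G β κ₁ w μ κ δ th P R yc ξ Th G' := by
  have hΛc : (Λᶜ).Nonempty := by
    by_contra hcon
    rw [not_nonempty_iff_eq_empty, compl_empty_iff] at hcon
    rw [hcon] at hΛb
    exact NormedSpace.unbounded_univ ℝ R3 hΛb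
  obtain ⟨η, hη, hη1, hbox⟩ := toph_β hβ hβ1 hΩ hΛ hΛc h.homeo (G := G) (p := p) hw
  obtain ⟨μ, hμ, -, -, hmain⟩ := sel_vol hΩ hΛ hΛb.measure_lt_top.ne h.homeo h.wg hp h.memG
    (ρ := 0) (Measure.AbsolutelyContinuous.zero volume) hε hw hη (h₁ := fun _ => 1)
    (fun x _ => ⟨1, one_pos, 1, one_pos, fun _ _ => le_rfl⟩)
  set κ : R3 → ℝ := fun x => min (κf (μ x)) (κ₁ * μ x / 4) with hκdef
  have hμc := hμ.cont
  obtain ⟨δ, hδ, -, -, hvol, hden⟩ := hmain κ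
    ((hκm.comp hμc.measurable).min (by fun_prop))
    (fun x hx => by
      have := hμ.pos x hx
      exact lt_min (hκp _ this) (by positivity))
    (fun _ => 1) (fun x _ => ⟨1, one_pos, 1, one_pos, fun _ _ => le_rfl⟩)
  have hκ4 : ∀ x ∈ Ω, κ x * 4 ≤ κ₁ * μ x := by
    intro x hx
    have : κ x ≤ κ₁ * μ x / 4 := min_le_right _ _
    linarith
  refine ⟨μ, κ, δ, hμ, hδ, fun x _ => min_le_left _ _, hκ4, hvol, ?_⟩
  intro σ hσ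
  obtain ⟨Phi, th, hCT, -, hth, hmem, -, -, hP⟩ := hbox (μ := μ) (κ := κ) (δ := δ)
    (fun x hx => hμ.pos x hx) hκ₁' hκ4 hden hσ rfl rfl
  refine ⟨Phi, th, hCT, hth, hmem, ?_⟩
  intro ι P R h1 h2 h3 h4 h5 h6 h7
  obtain ⟨yc, ξ, Th, a1, a2, a3, a4, a5, a6, a7, a8, a9, a10, a11, -, a13, a14, a15, a16, a17⟩ :=
    hP P R h1 h2 h3 h4 h5 h6 h7
  have hlipT : LipschitzWith (25 / 2) Th := by
    apply LipschitzWith.of_dist_le_mul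
    intro y y'
    rw [dist_eq_norm, dist_eq_norm]
    have := a9 y y'
    push_cast
    exact this
  obtain ⟨G', hSH, hcol, htr⟩ := sh_comp hΩ hΩb.measure_lt_top.ne h a7 hlipT
  refine ⟨yc, ξ, Th, G', a1, a2, a3, a4, a5, a6, a7, a8, a9, a10, a11, a13, a14, a15, a16, a17, hSH,
    ?_, htr⟩
  filter_upwards [hcol] with x hx hxΩ i
  have := hx hxΩ i
  push_cast at this
  exact this

end Crest.Agent.R096.Bxs_627
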