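import Crest.Agent.R096.Bxs5_627
import Crest.Agent.R96.Push13_899

/-!
Row 96 (S0127), helper627.  NO0, `p ≥ 3`, leaf [U3] of 962 #10559, part 2: cores after a map `H` close to
an affine map; the map `H = S ∘ Γ⁻¹` (899's stretch in the stretched coordinates) near the centres.
-/

set_option autoImplicit false
set_option linter.unusedSectionVars false
set_option linter.style.longLine false
set_option linter.unusedVariables false

open MeasureTheory Set Filter Topology Metric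

namespace Crest.Agent.R096.Bxs_627

open Crest.AnalysisR.VecCalc3 Crest.AnalysisR.Sobolev
open Crest.Agent.R096.Bsp_628 Crest.Agent.R96.Push_899 Crest.Agent.R96.En10_199

noncomputable section

/-- **core after a map close to an affine map.**  `g = Th ∘ f₁` is close to `A` over the ball `B(P, r)`,
`H` is close to `B` there. -/
theorem core_comp {Om : Set R3} {g A H B : R3 → R3} {Q : Bx (Fin 3)} (hQ : Q.Pos) {P : R3}
    {r κ' ε t lam κ1 κ2 : ℝ} (hκ' : κ' ≤ r / 2)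
    (hm : ∀ x ∈ Om, ‖g x - P‖ ≤ r → ‖g x - A x‖ ≤ κ')
    (hn : ∀ x, ‖A x - P‖ ≤ r / 2 → x ∈ Om ∧ ‖g x - A x‖ ≤ κ')
    (hHB : ∀ y, ‖y - P‖ ≤ r → ‖H y - B y‖ ≤ ε)
    (hB : ∀ y y', ‖B y - B y'‖ ≤ ‖y - y'‖)
    (hBi : ∀ y, ‖B y - P3 (ctr Q)‖ ≤ t → ‖y - P‖ ≤ r / 2)
    (hHi : ∀ x ∈ Om, ‖H (g x) - P3 (ctr Q)‖ ≤ t → ‖g x - P‖ ≤ r)
    (hl : 0 < lam) (h0 : 0 ≤ κ2) (h2 : κ2 ≤ 1 / 4) (ht : 2 * (lam * Q.sz) ≤ t)
    (hκ : ε + κ' ≤ κ1 * (lam * Q.sz)) : Cori Om (H ∘ g) (B ∘ A) Q lam κ1 κ2 := by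
  have hs := Bx.sz_pos hQ
  have key : ∀ x ∈ Om, ‖g x - P‖ ≤ r → ‖g x - A x‖ ≤ κ' →
      ‖H (g x) - B (A x)‖ ≤ (ε + κ') / Q.sz * Q.sz := by
    intro x hx h1 h3
    rw [div_mul_cancel₀ _ hs.ne']
    have e : H (g x) - B (A x) = (H (g x) - B (g x)) + (B (g x) - B (A x)) := by abel
    rw [e]
    exact (norm_add_le _ _).trans (add_le_add (hHB _ h1) ((hB _ _).trans h3))
  refine small_core' (κ₁ := (ε + κ') / Q.sz) hQ hl h0 h2 ?_ ?_ ?_
  · intro x hx h3
    have h4 := hHi x hx (h3.trans ht)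
    exact key x hx h4 (hm x hx h4)
  · intro x h3
    have h4 := hBi (A x) (h3.trans ht)
    obtain ⟨h5, h6⟩ := hn x h4
    refine ⟨h5, key x h5 ?_ h6⟩
    have e : g x - P = (g x - A x) + (A x - P) := by abel
    rw [e]
    refine (norm_add_le _ _).trans ?_
    linarith
  · rw [div_le_iff₀ hs]
    calc ε + κ' ≤ κ1 * (lam * Q.sz) := hκ
      _ = κ1 * lam * Q.sz := by ring

/-! ### the stretch on the sheets -/

/-- slope of the stretch function on the sheets -/
def msl (w ε : ℝ) : ℝ := ε + (1 - ε) / (2 * w)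

/-- the stretch function on a sheet -/
theorem sg_on {a s w ε : ℝ} (hs : 0 < s) (hw : 0 < w) (hw1 : w < 1 / 2) {N : ℤ} {t : ℝ}
    (ht : |t - (a + s / 2 + N * s)| ≤ w * s) :
    sg a s w ε t = (a + s / 2 + N * s) + msl w ε * (t - (a + s / 2 + N * s)) := by
  set x := (t - a) / s with hx
  have hxt : t = a + s * x := by rw [hx]; field_simp; ring
  have h1 : |x - (N + 1 / 2)| ≤ w := by
    have e : t - (a + s / 2 + N * s) = s * (x - (N + 1 / 2)) := by rw [hxt]; ring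
    rw [e, abs_mul, abs_of_pos hs, mul_comm] at ht
    exact le_of_mul_le_mul_right ht hs
  have h2 := abs_le.1 h1
  have hfl : ⌊x⌋ = N := by
    rw [Int.floor_eq_iff]; constructor <;> linarith
  have hfr : Int.fract x = x - N := by
    have : Int.fract x = x - ⌊x⌋ := rfl
    rw [this, hfl]
  have hcc : cc w (Int.fract x) = (x - N - 1 / 2) / (2 * w) + 1 / 2 := by
    rw [hfr]
    unfold cc
    have e1 : (x - N - 1 / 2) / (2 * w) ≤ 1 / 2 := by
      rw [div_le_iff₀ (by positivity)]; linarith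
    have e2 : -(1 / 2) ≤ (x - N - 1 / 2) / (2 * w) := by
      rw [le_div_iff₀ (by positivity)]; linarith
    rw [min_eq_right (by linarith), max_eq_right (by linarith)]
  unfold sg GG
  rw [← hx, hfl, hcc, hxt]
  unfold msl
  field_simp
  ring

end

end Crest.Agent.R096.Bxs_627
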