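import Crest.Agent.R096.Toph2_766

/-!
Row 96 (S0127), helper733.  Leaf of helper627 (#10669): the scale `σ` below a given locally bounded
function `r`, uniformly over the `w z / 16`-balls.
-/

set_option autoImplicit false
set_option linter.unusedSectionVars false
set_option linter.style.longLine false

namespace Crest.Agent.R096.Sgl_733

open Set Filter Topology Metric
open Crest.Agent.R096.ThC6_766 Crest.Agent.R096.Toph_766

variable {V : Type*} [NormedAddCommGroup V] [InnerProductSpace ℝ V]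

/-- a locally bounded below function is bounded below on compact sets -/
lemma low_compact {L : Set V} {r : V → ℝ}
    (hr : ∀ q ∈ L, ∃ ε : ℝ, 0 < ε ∧ ∃ m : ℝ, 0 < m ∧ ∀ z ∈ ball q ε, m ≤ r z)
    {K : Set V} (hK : IsCompact K) (hKL : K ⊆ L) : ∃ m : ℝ, 0 < m ∧ ∀ z ∈ K, m ≤ r z := by
  classical
  choose! ε hε m hm hmr using hr
  obtain ⟨t, htK, ht⟩ := hK.elim_nhds_subcover (fun q => ball q (ε q)) fun q hq =>
    ball_mem_nhds q (hε q (hKL hq))
  rcases t.eq_empty_or_nonempty with h0 | hne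
  · refine ⟨1, one_pos, fun z hz => ?_⟩
    have := ht hz
    simp [h0] at this
  · obtain ⟨q0, hq0, hmin⟩ := t.exists_min_image m hne
    refine ⟨m q0, hm q0 (hKL (htK q0 hq0)), fun z hz => ?_⟩
    obtain ⟨q, hq⟩ := mem_iUnion.1 (ht hz)
    obtain ⟨hqt, hqz⟩ := mem_iUnion.1 hq
    exact (hmin q hqt).trans (hmr q (hKL (htK q hqt)) z hqz)

/-- **the scale below `r`** (any inner product space with compact balls), with the lower bound. -/
theorem exists_sigma_low' [FiniteDimensional ℝ V] {L : Set V} (hL : IsOpen L) {w : V → ℝ}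
    (hw : Scale L w) {r : V → ℝ}
    (hr : ∀ q ∈ L, ∃ ε : ℝ, 0 < ε ∧ ∃ m : ℝ, 0 < m ∧ ∀ z ∈ ball q ε, m ≤ r z) :
    ∃ σ : V → ℝ, Scale L σ ∧ (∀ z ∈ L, ∀ y, ‖z - y‖ ≤ w z / 16 → σ y ≤ r z) ∧
      ∀ (y : V) (m : ℝ), 0 ≤ m → m ≤ 1 → ball y (8 * m) ⊆ L →
        (∀ z ∈ L, ‖z - y‖ ≤ w z / 16 + 8 * m → m ≤ r z) → m ≤ σ y := by
  classical
  have : ProperSpace V := FiniteDimensional.proper_real V
  have hpos : ∀ z ∈ L, 0 < r z := by
    intro z hz
    obtain ⟨ε, hε, m, hm, h⟩ := hr z hz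
    exact hm.trans_le (h z (mem_ball_self hε))
  set h : V → ℝ := fun y => ⨅ k : Option V, (match k with
    | none => 1
    | some z => if z ∈ L ∧ ‖z - y‖ ≤ w z / 16 then r z else 1) with hh
  have hbdd : ∀ y, BddBelow (range fun k : Option V => (match k with
    | none => 1
    | some z => if z ∈ L ∧ ‖z - y‖ ≤ w z / 16 then r z else 1 : ℝ)) := by
    intro y
    refine ⟨0, ?_⟩
    rintro _ ⟨k, rfl⟩
    rcases k with _ | z
    · simp
    · simp only
      split_ifs with hz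
      · exact (hpos z hz.1).le
      · exact zero_le_one
  have hlow : ∀ y m, m ≤ 1 → (∀ z ∈ L, ‖z - y‖ ≤ w z / 16 → m ≤ r z) → m ≤ h y := by
    intro y m hm1 hm
    refine le_ciInf fun k => ?_
    rcases k with _ | z
    · exact hm1
    · simp only
      split_ifs with hz
      · exact hm z hz.1 hz.2
      · exact hm1
  obtain ⟨σ, hσ, hσh, hσl⟩ := exists_scale' hL (h := h) (by
    intro x hx
    have hwx := hw.pos x hx
    have hKL : closedBall x (2 * w x) ⊆ L := fun z hz => hw.mem hx (by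
      rw [mem_closedBall, dist_eq_norm] at hz; linarith)
    obtain ⟨m, hm, hmR⟩ := low_compact hr (isCompact_closedBall x (2 * w x)) hKL
    refine ⟨w x, hwx, min 1 m, lt_min one_pos hm, fun y hy => ?_⟩
    rw [mem_ball, dist_eq_norm] at hy
    refine hlow y _ (min_le_left _ _) fun z _ hz => (min_le_right _ _).trans (hmR z ?_)
    rw [mem_closedBall, dist_eq_norm]
    have h1 : ‖z - x‖ ≤ ‖z - y‖ + ‖y - x‖ := by
      have := norm_add_le (z - y) (y - x)
      rwa [sub_add_sub_cancel] at this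
    have h2 := hw.lip z x
    linarith)
  refine ⟨σ, hσ, fun z hzL y hy => ?_, fun y m hm hm1 hb hmR => ?_⟩
  · by_cases hyL : y ∈ L
    · refine (hσh y hyL).trans ((ciInf_le (hbdd y) (some z)).trans ?_)
      simp only
      rw [if_pos ⟨hzL, hy⟩]
    · rw [hσ.off y hyL]; exact (hpos z hzL).le
  · refine hσl y m hm hm1 hb fun z hz => hlow z m hm1 fun u hu hi => hmR u hu ?_
    rw [mem_ball, dist_eq_norm] at hz
    have h1 : ‖u - y‖ ≤ ‖u - z‖ + ‖z - y‖ := by
      have := norm_add_le (u - z) (z - y)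
      rwa [sub_add_sub_cancel] at this
    linarith

/-- **the leaf of helper627** -/
theorem exists_sigma_low [FiniteDimensional ℝ V] {Λ : Set V} (hΛ : IsOpen Λ) {w : V → ℝ}
    (hw : Scale Λ w) {r : V → ℝ}
    (hr : ∀ q ∈ Λ, ∃ ε : ℝ, 0 < ε ∧ ∃ m : ℝ, 0 < m ∧ ∀ z ∈ ball q ε, m ≤ r z) :
    ∃ σ : V → ℝ, Scale Λ σ ∧ ∀ z ∈ Λ, ∀ y, ‖z - y‖ ≤ w z / 16 → σ y ≤ r z := by
  obtain ⟨σ, h1, h2, -⟩ := exists_sigma_low' hΛ hw hr
  exact ⟨σ, h1, h2⟩

end Crest.Agent.R096.Sgl_733
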