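import Crest.Agent.R096.Bxn1_627
import Crest.Agent.R096.Tau2_764
import Crest.Agent.R096.Sgl1_733

/-!
Row 96 (S0127), helper627.  NO0, `p ≥ 3`, leaf [U3] of 962 #10559, part 1': `prepN` with the `τ` clause
(764's `toph_τ`), with the upper size `s₁` and any lower size `r`.
-/

set_option autoImplicit false
set_option linter.unusedSectionVars false
set_option linter.style.longLine false
set_option linter.unusedVariables false

namespace Crest.Agent.R096.Bxs_627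

open MeasureTheory Set Filter Topology Metric
open scoped ENNReal NNReal
open Crest.AnalysisR.VecCalc3 Crest.AnalysisR.Sobolev
open Crest.Agent.R096.Bsp_628 Crest.Agent.R096.Brk5_582 Crest.Agent.R096.Brk3_582
open Crest.Agent.R096.Osc_802 Crest.Agent.R096.LusN_766 Crest.Agent.R096.VolC_766
open Crest.Agent.R096.VolC2_766 Crest.Agent.R096.VolC3_766 Crest.Agent.R96.Lu_538
open Crest.Agent.R096.ThC6_766 Crest.Agent.R096.ThCi2_766 Crest.Agent.R096.ThCi3_766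
open Crest.Agent.R096.Sel_766 Crest.Agent.R096.Toph_766
open Crest.Agent.R096.Sk_962 (SH)
open Crest.Agent.R96.En10_199 Crest.Agent.R96.HoL_899
open Crest.Agent.R096.Tau_764 (toph_τ)
open Crest.Agent.R096.Sgl_733 (exists_sigma_low)

/-- `HolN` with the `τ` clauses of 764. -/
structure HolT (p : ℝ) (Ω Λ : Set R3) (f : R3 → R3) (G : Fin 3 → R3 → R3) (β κ₁ : ℝ)
    (w μ κ δ : R3 → ℝ) (th : R3 → R3) {ι : Type} (P : ι → R3) (R : ι → ℝ) (yc ξ : ι → R3)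
    (Th : R3 ≃ₜ R3) (G' : Fin 3 → R3 → R3) (τ : ℝ) : Prop
    extends HolN p Ω Λ f G β κ₁ w μ κ δ th P R yc ξ Th G' where
  /-- off the holes `Th` is close to the collapse `th` -/
  tau : ∀ y, (∀ i, 4 * R i ≤ ‖th y - P i‖) → ‖Th y - th y‖ ≤ τ * w y ∧ ∀ i, 2 * R i < ‖Th y - P i‖
  tloc : ∀ y ∈ Λ, (∀ i, 4 * R i < ‖th y - P i‖) →
    ∀ᶠ y' in 𝓝 y, ‖Th y' - Th y‖ ≤ (1 + 4 * β) * ‖y' - y‖

/-- **Selection and hole opening for NO0, `p ≥ 3`**: `w`; then `μ κ δ` and the upper size `s₁`; then any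
lower size `r`; then the collapse `th`; then the holes. -/
theorem prepT {β : ℝ} (hβ : 0 < β) (hβ1 : β ≤ 1 / 2) {p : ℝ} (hp : 3 ≤ p) {Ω Λ : Set R3}
    (hΩ : IsOpen Ω) (hΩb : Bornology.IsBounded Ω) (hΛ : IsOpen Λ) (hΛb : Bornology.IsBounded Λ)
    {f : R3 → R3} {G : Fin 3 → R3 → R3} (h : SH p Ω Λ f G) {w : R3 → ℝ} (hw : Scale Λ w)
    {κ₁ : ℝ} (hκ₁ : 0 < κ₁) (hκ₁' : κ₁ ≤ 1 / 32) {κf : ℝ → ℝ} (hκm : Measurable κf)
    (hκp : ∀ m, 0 < m → 0 < κf m) {hf : ℝ → ℝ} (hfc : ContinuousOn hf (Ioi 0))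
    (hfp : ∀ m, 0 < m → 0 < hf m) :
    ∃ μ κ δ s₁ : R3 → ℝ, Scale Ω μ ∧ Scale Ω δ ∧ (∀ x ∈ Ω, κ x ≤ κf (μ x)) ∧ Scale Λ s₁ ∧
      (∀ q ∈ Λ, s₁ q ≤ w q / 8) ∧ (∀ q ∈ Λ, ∀ x ∈ Ω, ‖f x - q‖ ≤ w q → s₁ q ≤ hf (μ x)) ∧
      ∀ {r : R3 → ℝ}, (∀ q ∈ Λ, ∃ ε : ℝ, 0 < ε ∧ ∃ m : ℝ, 0 < m ∧ ∀ z ∈ ball q ε, m ≤ r z) →
      ∃ (Phi : R3 → ℝ) (th : R3 → R3), ThC3_766.CT (1 + 2 * β) Phi th ∧
        (∀ y, ‖th y - y‖ ≤ w y / 16) ∧ (∀ y, th y ∈ Λ ↔ y ∈ Λ) ∧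
        ∀ {ι : Type} (P : ι → R3) (R : ι → ℝ), (∀ i, P i ∈ Λ) → (∀ i, r (P i) ≤ R i) →
          (∀ i, R i ≤ s₁ (P i)) → (∀ i j, i ≠ j → 2 * R i + 2 * R j < ‖P i - P j‖) →
          (∀ q ∈ Λ, ∃ r : ℝ, 0 < r ∧ {i | (closedBall (P i) (2 * R i) ∩ ball q r).Nonempty}.Finite) →
          ∀ {τ : ℝ}, 0 < τ →
          ∃ (yc ξ : ι → R3) (Th : R3 ≃ₜ R3) (G' : Fin 3 → R3 → R3),
            HolT p Ω Λ f G β κ₁ w μ κ δ th P R yc ξ Th G' τ := by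
  have hΛc : (Λᶜ).Nonempty := by
    by_contra hcon
    rw [not_nonempty_iff_eq_empty, compl_empty_iff] at hcon
    rw [hcon] at hΛb
    exact NormedSpace.unbounded_univ ℝ R3 hΛb
  obtain ⟨η, hη, hη1, hbox⟩ := toph_τ hβ hβ1 hΩ hΛ hΛc hΛb h.homeo (G := G) (p := p) hw
  obtain ⟨μ, hμ, -, -, hmain⟩ := sel_vol hΩ hΛ hΛb.measure_lt_top.ne h.homeo h.wg hp h.memG
    (ρ := 0) (Measure.AbsolutelyContinuous.zero volume) (ε := 1) one_pos hw hη (h₁ := fun _ => 1)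
    (fun x _ => ⟨1, one_pos, 1, one_pos, fun _ _ => le_rfl⟩)
  set κ : R3 → ℝ := fun x => min (κf (μ x)) (κ₁ * μ x / 4) with hκdef
  have hμc := hμ.cont
  obtain ⟨δ, hδ, -, -, hvol, hden⟩ := hmain κ
    ((hκm.comp hμc.measurable).min (by fun_prop))
    (fun x hx => by
      have := hμ.pos x hx
      exact lt_min (hκp _ this) (by positivity))
    (fun _ => 1) (fun x _ => ⟨1, one_pos, 1, one_pos, fun _ _ => le_rfl⟩)
  have hκ4 : ∀ x ∈ Ω, κ x * 4 ≤ κ₁ * μ x := by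
    intro x hx
    have : κ x ≤ κ₁ * μ x / 4 := min_le_right _ _
    linarith
  have hδc := hδ.cont
  obtain ⟨s₁, hs₁, hs₁'⟩ := exists_s1 hΩ hΛ h.homeo hw
    (h := fun x => min (μ x * δ x / 8) (hf (μ x)))
    (ContinuousOn.inf (by fun_prop) (hfc.comp hμc.continuousOn fun x hx => hμ.pos x hx))
    (fun x hx => by
      have h1 := hμ.pos x hx
      have h2 := hδ.pos x hx
      exact lt_min (by positivity) (hfp _ h1))
  refine ⟨μ, κ, δ, s₁, hμ, hδ, fun x _ => min_le_left _ _, hs₁, fun q hq => (hs₁' q hq).1,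
    fun q hq x hx hxq => ((hs₁' q hq).2 x hx hxq).trans (min_le_right _ _), ?_⟩
  intro r hr
  have hrpos : ∀ q ∈ Λ, 0 < r q := by
    intro q hq
    obtain ⟨ε, hε, m, hm, h1⟩ := hr q hq
    exact hm.trans_le (h1 q (mem_ball_self hε))
  obtain ⟨σ, hσ, hσr⟩ := exists_sigma_low hΛ hw hr
  obtain ⟨Phi, th, hCT, -, hth, hmem, -, -, hP⟩ := hbox (μ := μ) (κ := κ) (δ := δ)
    (fun x hx => hμ.pos x hx) hκ₁' hκ4 hden hσ rfl rfl
  refine ⟨Phi, th, hCT, hth, hmem, ?_⟩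
  intro ι P R h1 h2 h3 h4 h5 τ hτ
  have hRpos : ∀ i, 0 < R i := fun i => (hrpos _ (h1 i)).trans_le (h2 i)
  obtain ⟨yc, ξ, Th, a1, a2, a3, a4, a5, a6, a7, a8, a9, a10, a11, -, a13, t1, t2, a14, a15, a16,
      a17⟩ :=
    hP P R h1 hRpos (fun i => (h3 i).trans (hs₁' _ (h1 i)).1) h4 h5
      (fun i y hy => (hσr _ (h1 i) y hy).trans (h2 i))
      (fun i x hx hxf => by
        have h6 := ((hs₁' _ (h1 i)).2 x hx (hxf.trans (by
          have := hw.nonneg (P i)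
          linarith))).trans (min_le_left _ _)
        have h7 := h3 i
        have h8 : 0 < μ x * δ x := mul_pos (hμ.pos x hx) (hδ.pos x hx)
        linarith) hτ
  have hlipT : LipschitzWith (25 / 2) Th := by
    apply LipschitzWith.of_dist_le_mul
    intro y y'
    rw [dist_eq_norm, dist_eq_norm]
    have := a9 y y'
    push_cast
    exact this
  obtain ⟨G', hSH, hcol, htr⟩ := sh_comp hΩ hΩb.measure_lt_top.ne h a7 hlipT
  refine ⟨yc, ξ, Th, G', ⟨a1, a2, a3, a4, a5, a6, a7, a8, a9, a10, a11, a13, a14, a15, a16, a17,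
    hSH, ?_, htr⟩, t1, t2⟩
  filter_upwards [hcol] with x hx hxΩ i
  have := hx hxΩ i
  push_cast at this
  exact this

end Crest.Agent.R096.Bxs_627
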