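import Crest.Agent.R096.Bxn2_627

/-!
Row 96 (S0127), helper627.  NO0, `p ≥ 3`, leaf [U3], part 3: the map `H = S ∘ Γ⁻¹` near the centre of a
brick (`Γ` = diag(1, 1, G) in the direction `k`, `S` = stretch with cut-off `χ`): close to an affine
contraction, in the sup norm and for the derivatives; localisation.
-/

set_option autoImplicit false
set_option linter.unusedSectionVars false
set_option linter.style.longLine false
set_option linter.unusedVariables false

open MeasureTheory Set Filter Topology Metric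
open scoped NNReal

namespace Crest.Agent.R096.Bxs_627

open Crest.AnalysisR.VecCalc3 Crest.AnalysisR.Sobolev
open Crest.Agent.R096.Bsp_628 Crest.Agent.R96.Push_899 Crest.Agent.R96.En10_199

noncomputable section

/-! ### norms by coordinates -/

theorem norm_le_of_co {u v : R3} {c : ℝ} (hc : 0 ≤ c) (h : ∀ i, |v i| ≤ c * |u i|) :
    ‖v‖ ≤ c * ‖u‖ := by
  have h1 : ‖v‖ ^ 2 ≤ (c * ‖u‖) ^ 2 := by
    rw [EuclideanSpace.norm_sq_eq, mul_pow, EuclideanSpace.norm_sq_eq, Finset.mul_sum]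
    refine Finset.sum_le_sum fun i _ => ?_
    rw [Real.norm_eq_abs, Real.norm_eq_abs, ← mul_pow]
    exact pow_le_pow_left₀ (abs_nonneg _) (h i) 2
  exact le_of_sq_le_sq' h1 (by positivity)
where
  le_of_sq_le_sq' {a b : ℝ} (h : a ^ 2 ≤ b ^ 2) (hb : 0 ≤ b) : a ≤ b :=
    le_of_not_gt fun hab => by nlinarith

theorem norm_le_of_co1 {u v : R3} (h : ∀ i, |v i| ≤ |u i|) : ‖v‖ ≤ ‖u‖ := by
  have := norm_le_of_co (u := u) (v := v) zero_le_one (fun i => by rw [one_mul]; exact h i)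
  rwa [one_mul] at this

theorem abs_co_le (v : R3) (i : Fin 3) : |v i| ≤ ‖v‖ := by
  have := PiLp.norm_apply_le v i
  rwa [Real.norm_eq_abs] at this

/-! ### the diagonal map -/

/-- `diag (1, 1, g)` in the direction `k` -/
def dgf (k : Fin 3) (g : ℝ) (y : R3) : R3 := WithLp.toLp 2 (fun i => if i = k then g * y i else y i)

theorem dgf_k (k : Fin 3) (g : ℝ) (y : R3) : dgf k g y k = g * y k := by
  change (if k = k then g * y k else y k) = _
  rw [if_pos rfl]

theorem dgf_ne {k : Fin 3} (g : ℝ) (y : R3) {i : Fin 3} (hi : i ≠ k) : dgf k g y i = y i := by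
  change (if i = k then g * y i else y i) = _
  rw [if_neg hi]

/-- the linear equivalence `diag (1, 1, g)` -/
def dgL (k : Fin 3) (g : ℝ) (hg : g ≠ 0) : R3 ≃ₗ[ℝ] R3 where
  toFun := dgf k g
  map_add' x y := by
    ext i
    by_cases hi : i = k
    · subst hi
      rw [dgf_k, PiLp.add_apply, PiLp.add_apply, dgf_k, dgf_k]; ring
    · rw [dgf_ne g _ hi, PiLp.add_apply, PiLp.add_apply, dgf_ne g _ hi, dgf_ne g _ hi]
  map_smul' c y := by
    ext i
    by_cases hi : i = k
    · subst hi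
      rw [dgf_k, PiLp.smul_apply, RingHom.id_apply, PiLp.smul_apply, dgf_k, smul_eq_mul, smul_eq_mul]
      ring
    · rw [dgf_ne g _ hi, PiLp.smul_apply, RingHom.id_apply, PiLp.smul_apply, dgf_ne g _ hi]
  invFun := dgf k g⁻¹
  left_inv y := by
    ext i
    by_cases hi : i = k
    · subst hi
      rw [dgf_k, dgf_k, ← mul_assoc, inv_mul_cancel₀ hg, one_mul]
    · rw [dgf_ne _ _ hi, dgf_ne _ _ hi]
  right_inv y := by
    ext i
    by_cases hi : i = k
    · subst hi
      rw [dgf_k, dgf_k, ← mul_assoc, mul_inv_cancel₀ hg, one_mul]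
    · rw [dgf_ne _ _ hi, dgf_ne _ _ hi]

theorem dgL_apply (k : Fin 3) (g : ℝ) (hg : g ≠ 0) (y : R3) : dgL k g hg y = dgf k g y := rfl

theorem dgL_symm_apply (k : Fin 3) (g : ℝ) (hg : g ≠ 0) (y : R3) :
    (dgL k g hg).symm y = dgf k g⁻¹ y := rfl

/-- `y ↦ q + diag (1, 1, g) (y - P)`, affine -/
def dgA (k : Fin 3) (g : ℝ) (hg : g ≠ 0) (P q : R3) : R3 ≃ᵃ[ℝ] R3 :=
  ((AffineEquiv.vaddConst ℝ P).symm.trans (dgL k g hg).toAffineEquiv).trans
    (AffineEquiv.vaddConst ℝ q)

theorem dgA_apply (k : Fin 3) (g : ℝ) (hg : g ≠ 0) (P q y : R3) :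
    dgA k g hg P q y = dgf k g (y - P) + q := rfl

theorem dgA_sub (k : Fin 3) (g : ℝ) (hg : g ≠ 0) (P q y y' : R3) :
    dgA k g hg P q y - dgA k g hg P q y' = dgf k g (y - y') := by
  rw [dgA_apply, dgA_apply, add_sub_add_right_eq_sub, ← dgL_apply k g hg, ← dgL_apply k g hg,
    ← map_sub, sub_sub_sub_cancel_right]
  rfl

theorem dgf_contr {k : Fin 3} {g : ℝ} (h0 : 0 ≤ g) (h1 : g ≤ 1) (v : R3) : ‖dgf k g v‖ ≤ ‖v‖ := by
  refine norm_le_of_co1 fun i => ?_
  by_cases hi : i = k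
  · subst hi
    rw [dgf_k, abs_mul, abs_of_nonneg h0]
    exact mul_le_of_le_one_left (abs_nonneg _) h1
  · rw [dgf_ne _ _ hi]

theorem dgf_low {k : Fin 3} {g : ℝ} (h0 : 0 < g) (h1 : g ≤ 1) (v : R3) :
    g * ‖v‖ ≤ ‖dgf k g v‖ := by
  have h2 : ‖v‖ ≤ g⁻¹ * ‖dgf k g v‖ := by
    refine norm_le_of_co (by positivity) fun i => ?_
    by_cases hi : i = k
    · subst hi
      rw [dgf_k, abs_mul, abs_of_pos h0, ← mul_assoc, inv_mul_cancel₀ h0.ne', one_mul]
    · rw [dgf_ne _ _ hi]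
      exact le_mul_of_one_le_left (abs_nonneg _) ((one_le_inv₀ h0).2 h1)
  rw [inv_mul_eq_div, le_div_iff₀ h0] at h2
  linarith

/-! ### the stretch near a centre -/

/-- **`S` is a stretch in the direction `k` near `q`** (cut-off `χ`, slope `G` where `χ = 1`). -/
structure NearS (k : Fin 3) (S : R3 → R3) (χ : R3 → ℝ) (G : ℝ) (q : R3) (r ρ : ℝ) : Prop where
  ne : ∀ y i, i ≠ k → S y i = y i
  mono : ∀ y y', (∀ i, i ≠ k → y i = y' i) → y k ≤ y' k → S y k ≤ S y' k
  eq : ∀ y, (∀ i, i ≠ k → |y i - q i| ≤ r) → |y k - q k| ≤ ρ →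
    S y k = y k + χ y * ((G - 1) * (y k - q k))

/-- replace the coordinate `k` -/
def rpl (k : Fin 3) (y : R3) (t : ℝ) : R3 := WithLp.toLp 2 (fun i => if i = k then t else y i)

theorem rpl_k (k : Fin 3) (y : R3) (t : ℝ) : rpl k y t k = t := by
  change (if k = k then t else y k) = _
  rw [if_pos rfl]

theorem rpl_ne {k : Fin 3} (y : R3) (t : ℝ) {i : Fin 3} (hi : i ≠ k) : rpl k y t i = y i := by
  change (if i = k then t else y i) = _
  rw [if_neg hi]

section near

variable {k : Fin 3} {S : R3 → R3} {χ : R3 → ℝ} {G L : ℝ} {q : R3} {r ρ : ℝ}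

/-- localisation in the direction `k` -/
theorem NearS.loc (h : NearS k S χ G q r ρ) {y : R3} {t : ℝ} (hρ : 0 < ρ) (htr : t ≤ r)
    (ht : ∀ y' : R3, (∀ i, i ≠ k → |y' i - q i| ≤ t) → |y' k - q k| = ρ →
      t < ρ * (1 + χ y' * (G - 1)))
    (hne : ∀ i, i ≠ k → |y i - q i| ≤ t) (hk : |S y k - q k| ≤ t) : |y k - q k| ≤ ρ := by
  have hk' := abs_le.1 hk
  rw [abs_le]
  constructor
  · by_contra hcon
    push Not at hcon
    set y' := rpl k y (q k - ρ) with hy'
    have h0 : ∀ i, i ≠ k → |y' i - q i| ≤ t := fun i hi => by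
      rw [hy', rpl_ne y _ hi]; exact hne i hi
    have h3 : y' k = q k - ρ := rpl_k _ _ _
    have h3' : |y' k - q k| = ρ := by rw [h3, sub_sub_cancel_left, abs_neg, abs_of_pos hρ]
    have h1 : S y k ≤ S y' k := h.mono y y' (fun i hi => (rpl_ne y _ hi).symm) (by
      rw [h3]; linarith)
    have h2 : S y' k = y' k + χ y' * ((G - 1) * (y' k - q k)) := h.eq y'
      (fun i hi => (h0 i hi).trans htr) h3'.le
    have h4 := ht y' h0 h3'
    rw [h3] at h2
    nlinarith
  · by_contra hcon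
    push Not at hcon
    set y' := rpl k y (q k + ρ) with hy'
    have h0 : ∀ i, i ≠ k → |y' i - q i| ≤ t := fun i hi => by
      rw [hy', rpl_ne y _ hi]; exact hne i hi
    have h3 : y' k = q k + ρ := rpl_k _ _ _
    have h3' : |y' k - q k| = ρ := by rw [h3, add_sub_cancel_left, abs_of_pos hρ]
    have h1 : S y' k ≤ S y k := h.mono y' y (fun i hi => (rpl_ne y _ hi)) (by
      rw [h3]; linarith)
    have h2 : S y' k = y' k + χ y' * ((G - 1) * (y' k - q k)) := h.eq y'
      (fun i hi => (h0 i hi).trans htr) h3'.le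
    have h4 := ht y' h0 h3'
    rw [h3] at h2
    nlinarith

/-- the difference of `S ∘ Γ⁻¹` and of the affine map, on the ball: coordinate `k` -/
theorem NearS.diff (h : NearS k S χ G q r ρ) (hG : 1 ≤ G) (hrρ : r ≤ G * ρ) (hg : (1 + χ q * (G - 1)) / G ≠ 0)
    {y : R3} (hy : ‖dgf k G y - dgf k G q‖ ≤ r) :
    (∀ i, i ≠ k → (S y - dgA k ((1 + χ q * (G - 1)) / G) hg (dgf k G q) q (dgf k G y)) i = 0) ∧
    (S y - dgA k ((1 + χ q * (G - 1)) / G) hg (dgf k G q) q (dgf k G y)) k =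
      (χ y - χ q) * ((G - 1) * (y k - q k)) ∧ G * |y k - q k| ≤ ‖dgf k G y - dgf k G q‖ := by
  have hG0 : 0 < G := by linarith
  have h0 : ∀ i, |(dgf k G y - dgf k G q) i| ≤ ‖dgf k G y - dgf k G q‖ := abs_co_le _
  have h1 : ∀ i, i ≠ k → |y i - q i| ≤ r := by
    intro i hi
    have := (h0 i).trans hy
    rwa [PiLp.sub_apply, dgf_ne _ _ hi, dgf_ne _ _ hi] at this
  have h2 : G * |y k - q k| ≤ ‖dgf k G y - dgf k G q‖ := by
    have := h0 k
    rwa [PiLp.sub_apply, dgf_k, dgf_k, ← mul_sub, abs_mul, abs_of_pos hG0] at this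
  have h3 : |y k - q k| ≤ ρ := by
    have := (h2.trans hy).trans hrρ
    exact le_of_mul_le_mul_left this hG0
  refine ⟨fun i hi => ?_, ?_, h2⟩
  · rw [dgA_apply, PiLp.sub_apply, PiLp.add_apply, dgf_ne _ _ hi, PiLp.sub_apply, dgf_ne _ _ hi,
      dgf_ne _ _ hi, h.ne y i hi]
    ring
  · rw [dgA_apply, PiLp.sub_apply, PiLp.add_apply, dgf_k, PiLp.sub_apply, dgf_k, dgf_k,
      h.eq y h1 h3]
    field_simp
    ring

/-- **`S ∘ Γ⁻¹` near the image of the centre `q`.** -/
theorem NearS.core (h : NearS k S χ G q r ρ) (hG : 1 ≤ G) (χ0 : ∀ y, 0 ≤ χ y) (χ1 : ∀ y, χ y ≤ 1)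
    (hL : ∀ y y', |χ y' - χ y| ≤ L * ‖y' - y‖) (hL0 : 0 ≤ L) (hr : 0 < r) (hrρ : r < G * ρ) {t : ℝ}
    (ht0 : 0 ≤ t) (h2 : 2 * G * t ≤ (1 + χ q * (G - 1)) * r) (hGL : G * L * (ρ + 2 * t) ≤ 1 / 2)
    (hg : (1 + χ q * (G - 1)) / G ≠ 0) :
    (∀ y, ‖y - dgf k G q‖ ≤ r →
      ‖S (dgf k G⁻¹ y) - dgA k ((1 + χ q * (G - 1)) / G) hg (dgf k G q) q y‖ ≤ L * r * r) ∧
    (∀ y y', ‖y - dgf k G q‖ ≤ r → ‖y' - dgf k G q‖ ≤ r →
      ‖(S (dgf k G⁻¹ y) - dgA k ((1 + χ q * (G - 1)) / G) hg (dgf k G q) q y) -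
        (S (dgf k G⁻¹ y') - dgA k ((1 + χ q * (G - 1)) / G) hg (dgf k G q) q y')‖ ≤
        2 * L * r * ‖y - y'‖) ∧
    (∀ y, ‖dgA k ((1 + χ q * (G - 1)) / G) hg (dgf k G q) q y - q‖ ≤ t → ‖y - dgf k G q‖ ≤ r / 2) ∧
    (∀ y, ‖S (dgf k G⁻¹ y) - q‖ ≤ t → ‖y - dgf k G q‖ ≤ r) := by
  have hG0 : 0 < G := by linarith
  set σ : ℝ := 1 + χ q * (G - 1) with hσ
  have hσ1 : 1 ≤ σ := by
    have := mul_nonneg (χ0 q) (sub_nonneg.2 hG)
    linarith
  have hσG : σ ≤ G := by
    have := mul_le_mul_of_nonneg_right (χ1 q) (sub_nonneg.2 hG)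
    linarith
  have hρ : 0 < ρ := by
    by_contra hcon
    push Not at hcon
    have : G * ρ ≤ 0 := mul_nonpos_of_nonneg_of_nonpos hG0.le hcon
    linarith
  have hgg : ∀ y, dgf k G (dgf k G⁻¹ y) = y := fun y => by
    have := (dgL k G hG0.ne').apply_symm_apply y
    rwa [dgL_apply, dgL_symm_apply] at this
  have hexp : ∀ y y', ‖y - y'‖ ≤ ‖dgf k G y - dgf k G y'‖ := by
    intro y y'
    refine norm_le_of_co1 fun i => ?_
    by_cases hi : i = k
    · subst hi
      rw [PiLp.sub_apply, PiLp.sub_apply, dgf_k, dgf_k, ← mul_sub, abs_mul, abs_of_pos hG0]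
      exact le_mul_of_one_le_left (abs_nonneg _) hG
    · rw [PiLp.sub_apply, PiLp.sub_apply, dgf_ne _ _ hi, dgf_ne _ _ hi]
  have hsingle : ∀ v : R3, (∀ i, i ≠ k → v i = 0) → ‖v‖ ≤ |v k| := by
    intro v hv
    have h1 : ‖v‖ ≤ ‖(EuclideanSpace.single k (v k) : R3)‖ := norm_le_of_co1 fun i => by
      by_cases hi : i = k
      · subst hi; simp
      · rw [hv i hi]; simp
    refine h1.trans (le_of_eq ?_)
    simp
  have hr' : r ≤ G * ρ := hrρ.le
  have htr : t ≤ r / 2 := by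
    have : 2 * G * t ≤ G * r := h2.trans (mul_le_mul_of_nonneg_right hσG hr.le)
    have h3 : G * (2 * t) ≤ G * r := by linarith
    have := le_of_mul_le_mul_left h3 hG0
    linarith
  refine ⟨?_, ?_, ?_, ?_⟩
  · intro y hy
    obtain ⟨z, rfl⟩ : ∃ z, y = dgf k G z := ⟨_, (hgg y).symm⟩
    have e : dgf k G⁻¹ (dgf k G z) = z := by
      have := (dgL k G hG0.ne').symm_apply_apply z
      rwa [dgL_apply, dgL_symm_apply] at this
    rw [e]
    obtain ⟨h3, h4, h5⟩ := h.diff hG hr' hg hy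
    refine (hsingle _ h3).trans ?_
    rw [h4, abs_mul, abs_mul, abs_of_nonneg (sub_nonneg.2 hG)]
    have h6 : |χ z - χ q| ≤ L * r := (hL q z).trans (mul_le_mul_of_nonneg_left
      ((hexp z q).trans hy) hL0)
    have h7 : (G - 1) * |z k - q k| ≤ r := by
      have := abs_nonneg (z k - q k)
      nlinarith [h5.trans hy]
    exact mul_le_mul h6 h7 (mul_nonneg (sub_nonneg.2 hG) (abs_nonneg _)) (by positivity)
  · intro y y' hy hy'
    obtain ⟨z, rfl⟩ : ∃ z, y = dgf k G z := ⟨_, (hgg y).symm⟩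
    obtain ⟨z', rfl⟩ : ∃ z, y' = dgf k G z := ⟨_, (hgg y').symm⟩
    have e : ∀ z, dgf k G⁻¹ (dgf k G z) = z := fun z => by
      have := (dgL k G hG0.ne').symm_apply_apply z
      rwa [dgL_apply, dgL_symm_apply] at this
    rw [e, e]
    obtain ⟨h3, h4, h5⟩ := h.diff hG hr' hg hy
    obtain ⟨h3', h4', h5'⟩ := h.diff hG hr' hg hy'
    refine (hsingle _ (fun i hi => by rw [PiLp.sub_apply, h3 i hi, h3' i hi, sub_zero])).trans ?_
    rw [PiLp.sub_apply, h4, h4']
    have e2 : (χ z - χ q) * ((G - 1) * (z k - q k)) - (χ z' - χ q) * ((G - 1) * (z' k - q k)) =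
        (χ z - χ z') * ((G - 1) * (z k - q k)) + (χ z' - χ q) * ((G - 1) * (z k - z' k)) := by ring
    rw [e2]
    have h6 : |χ z - χ z'| ≤ L * ‖dgf k G z - dgf k G z'‖ := (hL z' z).trans
      (mul_le_mul_of_nonneg_left (hexp z z') hL0)
    have h7 : |(G - 1) * (z k - q k)| ≤ r := by
      rw [abs_mul, abs_of_nonneg (sub_nonneg.2 hG)]
      have := abs_nonneg (z k - q k)
      nlinarith [h5.trans hy]
    have h8 : |χ z' - χ q| ≤ L * r := (hL q z').trans (mul_le_mul_of_nonneg_left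
      ((hexp z' q).trans hy') hL0)
    have h9 : |(G - 1) * (z k - z' k)| ≤ ‖dgf k G z - dgf k G z'‖ := by
      rw [abs_mul, abs_of_nonneg (sub_nonneg.2 hG)]
      have h10 := abs_co_le (dgf k G z - dgf k G z') k
      rw [PiLp.sub_apply, dgf_k, dgf_k, ← mul_sub, abs_mul, abs_of_pos hG0] at h10
      have := abs_nonneg (z k - z' k)
      nlinarith
    refine (abs_add_le _ _).trans ?_
    have h11 := mul_le_mul h6 h7 (abs_nonneg _) (by positivity)
    have h12 := mul_le_mul h8 h9 (abs_nonneg _) (by positivity)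
    rw [← abs_mul] at h11 h12
    linarith
  · intro y hy
    have e : dgA k (σ / G) hg (dgf k G q) q y - q = dgf k (σ / G) (y - dgf k G q) := by
      rw [dgA_apply, add_sub_cancel_right]
    rw [e] at hy
    have h3 := (dgf_low (k := k) (g := σ / G) (by positivity) ((div_le_one hG0).2 hσG)
      (y - dgf k G q)).trans hy
    rw [div_mul_eq_mul_div, div_le_iff₀ hG0] at h3
    have h4 : σ * (2 * ‖y - dgf k G q‖) ≤ σ * r := by linarith
    have := le_of_mul_le_mul_left h4 (by linarith)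
    linarith
  · intro y hy
    obtain ⟨z, rfl⟩ : ∃ z, y = dgf k G z := ⟨_, (hgg y).symm⟩
    have e : ∀ z, dgf k G⁻¹ (dgf k G z) = z := fun z => by
      have := (dgL k G hG0.ne').symm_apply_apply z
      rwa [dgL_apply, dgL_symm_apply] at this
    rw [e] at hy
    have h0 : ∀ i, |S z i - q i| ≤ t := fun i => by
      have := (abs_co_le (S z - q) i).trans hy
      rwa [PiLp.sub_apply] at this
    have hne : ∀ i, i ≠ k → |z i - q i| ≤ t := fun i hi => by
      have := h0 i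
      rwa [h.ne z i hi] at this
    have hlow : ∀ y' : R3, ‖y' - q‖ ≤ ρ + 2 * t → σ / 2 ≤ 1 + χ y' * (G - 1) := by
      intro y' hy'
      have h3 := (abs_le.1 (hL q y')).1
      have h4 : L * ‖y' - q‖ ≤ L * (ρ + 2 * t) := mul_le_mul_of_nonneg_left hy' hL0
      have h5 : χ q - L * (ρ + 2 * t) ≤ χ y' := by linarith
      have h6 : (χ q - L * (ρ + 2 * t)) * (G - 1) ≤ χ y' * (G - 1) :=
        mul_le_mul_of_nonneg_right h5 (sub_nonneg.2 hG)
      have h7 : L * (ρ + 2 * t) * (G - 1) ≤ 1 / 2 := by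
        have : 0 ≤ L * (ρ + 2 * t) := by positivity
        nlinarith
      linarith
    have hk : |z k - q k| ≤ ρ := by
      refine h.loc hρ (by linarith) (fun y' h3 h4 => ?_) hne (h0 k)
      have h5 : ‖y' - q‖ ≤ ρ + 2 * t := by
        have h6 : ‖y' - q‖ ≤ ∑ i, |(y' - q) i| := by
          have h7 : ‖y' - q‖ ^ 2 ≤ (∑ i, |(y' - q) i|) ^ 2 := by
            rw [EuclideanSpace.norm_sq_eq, Fin.sum_univ_three, Fin.sum_univ_three]
            simp only [Real.norm_eq_abs]
            nlinarith [abs_nonneg ((y' - q) 0), abs_nonneg ((y' - q) 1), abs_nonneg ((y' - q) 2),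
              mul_nonneg (abs_nonneg ((y' - q) 0)) (abs_nonneg ((y' - q) 1)),
              mul_nonneg (abs_nonneg ((y' - q) 0)) (abs_nonneg ((y' - q) 2)),
              mul_nonneg (abs_nonneg ((y' - q) 1)) (abs_nonneg ((y' - q) 2))]
          have h8 : 0 ≤ ∑ i, |(y' - q) i| := Finset.sum_nonneg fun _ _ => abs_nonneg _
          exact le_of_not_gt fun hcon => by nlinarith
        refine h6.trans ?_
        rw [← Finset.add_sum_erase _ _ (Finset.mem_univ k)]
        have h9 : ∑ i ∈ Finset.univ.erase k, |(y' - q) i| ≤ ∑ i ∈ Finset.univ.erase k, t :=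
          Finset.sum_le_sum fun i hi => by
            rw [PiLp.sub_apply]; exact h3 i (Finset.ne_of_mem_erase hi)
        have h10 : ∑ i ∈ Finset.univ.erase k, t = 2 * t := by
          rw [Finset.sum_const, Finset.card_erase_of_mem (Finset.mem_univ k)]
          simp
        have h11 : |(y' - q) k| = ρ := by rw [PiLp.sub_apply]; exact h4
        linarith
      have h6 := hlow y' h5
      have h7 : 2 * G * t < σ * (G * ρ) := lt_of_le_of_lt h2 (mul_lt_mul_of_pos_left hrρ (by linarith))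
      have h8 : G * (2 * t) < G * (σ * ρ) := by linarith
      have h9 := lt_of_mul_lt_mul_left h8 hG0.le
      have h10 : ρ * (σ / 2) ≤ ρ * (1 + χ y' * (G - 1)) := mul_le_mul_of_nonneg_left h6 hρ.le
      linarith
    have heq := h.eq z (fun i hi => (hne i hi).trans (by linarith)) hk
    have hzq : ‖z - q‖ ≤ t := by
      refine (norm_le_of_co1 fun i => ?_).trans hy
      rw [PiLp.sub_apply, PiLp.sub_apply]
      by_cases hi : i = k
      · subst hi
        have e3 : S z i - q i = (1 + χ z * (G - 1)) * (z i - q i) := by rw [heq]; ring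
        rw [e3, abs_mul]
        have h4 : 0 ≤ χ z * (G - 1) := mul_nonneg (χ0 z) (sub_nonneg.2 hG)
        rw [abs_of_nonneg (by linarith : (0 : ℝ) ≤ 1 + χ z * (G - 1))]
        exact le_mul_of_one_le_left (abs_nonneg _) (by linarith)
      · rw [h.ne z i hi]
    have h6 := hlow z (hzq.trans (by linarith))
    have hfin : ‖dgf k G z - dgf k G q‖ ≤ (2 * G / σ) * ‖S z - q‖ := by
      refine norm_le_of_co (by positivity) fun i => ?_
      rw [PiLp.sub_apply, PiLp.sub_apply]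
      by_cases hi : i = k
      · subst hi
        have e3 : S z i - q i = (1 + χ z * (G - 1)) * (z i - q i) := by rw [heq]; ring
        rw [e3, dgf_k, dgf_k, ← mul_sub, abs_mul, abs_of_pos hG0, abs_mul,
          abs_of_nonneg (by linarith : (0 : ℝ) ≤ 1 + χ z * (G - 1)), div_mul_eq_mul_div,
          le_div_iff₀ (by linarith)]
        have h8 := mul_le_mul_of_nonneg_left h6 (mul_nonneg hG0.le (abs_nonneg (z i - q i)))
        nlinarith
      · rw [dgf_ne _ _ hi, dgf_ne _ _ hi, h.ne z i hi]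
        refine le_mul_of_one_le_left (abs_nonneg _) ?_
        rw [le_div_iff₀ (by linarith)]
        linarith
    refine hfin.trans ?_
    rw [div_mul_eq_mul_div, div_le_iff₀ (by linarith)]
    have h9 : 2 * G * ‖S z - q‖ ≤ 2 * G * t := mul_le_mul_of_nonneg_left hy (by positivity)
    linarith

end near

end

end Crest.Agent.R096.Bxs_627
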