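import Crest.Agent.R096.Rg3c_766

/-!
Row 96 (S0127), helper766.  Range `p ≥ 3`, part d: `ExIn` for ALL bricks of PREP3.
-/

set_option autoImplicit false
set_option linter.unusedSectionVars false
set_option linter.style.longLine false
set_option linter.style.haveILetI false
set_option linter.unusedVariables false

namespace Crest.Agent.R096.Rg3_766

open MeasureTheory Set Filter Topology Metric
open scoped ENNReal NNReal
open Crest.AnalysisR.VecCalc3 Crest.AnalysisR.Sobolev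
open Crest.Agent.R096.SkC1_961 (E3 Hom3)
open Crest.Agent.R096.EaX_766 Crest.Agent.R096.Bsp_628 Crest.Agent.R096.Prep_766
open Crest.Agent.R096.Bxs_627 hiding E3
open Crest.Agent.R096.Er_594
open Crest.Agent.R096.Osc_802 Crest.Agent.R096.VolC2_766 Crest.Agent.R96.Lu_538
open Crest.Agent.R096.ThC6_766 Crest.Agent.R096.Sel_766 Crest.Agent.R096.Toph_766
open Crest.Agent.R96.En10_199

noncomputable section

theorem exIn_core {p : ℝ} (hp : 1 ≤ p) {Ω : Set R3} {f : R3 → R3} {G G' : Fin 3 → R3 → R3}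
    {f2 : E3 → E3} {κ : R3 → ℝ} (o : E3) {u : ℝ} (hu : 0 < u) {Q : Bx (Fin 3)} (hQ : Q.Pos)
    (asp : ∀ i, Q.sz ≤ 3 * Q.side i) {ξ t : R3} {m κ1 κc : ℝ} (hm : 0 < m) (hm1 : m ≤ 1)
    (hA : Gmat G ξ ∈ LM m) (hk : κ ξ ≤ kf p κ1 κc m) (hy0 : ‖P3.symm (f ξ + t) - ctr Q‖ ≤ Q.sz / 24)
    {r a κ₁ lam κ2 : ℝ} (hr0 : 0 < r) (hr : r ≤ 8 * Q.sz / m)
    (hr' : 2 * (a * Q.sz / 2 + Q.sz / 24) / m ≤ r) (hg : GoodAt Ω f G p κ ξ r)
    (hκ₁ : 0 < κ₁) (hκ₁' : κ₁ ≤ 1 / 8) (ha0 : 0 ≤ a) (ha2 : a ≤ 2) (hlam : 1 / 3072 ≤ lam)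
    (hκ2 : 0 ≤ κ2) (hgap : (1 + 2 * κ2) * lam + 6 * κ₁ ≤ a) (hκ1 : 2 * κ₁ ≤ κ1 * lam)
    (H : ∀ x, (x ∈ P3 ⁻¹' Ω ∧ f2 x ∈ cbx Q a) ∨ (AR f G ξ t x ∈ cbx Q a) →
      x ∈ P3 ⁻¹' Ω ∧ ‖f2 x - AR f G ξ t x‖ ≤ κ₁ * Q.sz)
    {U : Set R3} (hU : IsOpen U) (hSU : {x | AR f G ξ t x ∈ cbx Q a} ⊆ P3 ⁻¹' U)
    (hGG : ∀ᵐ x, x ∈ U → ∀ j, G' j x = G j x) {ε0 : ℝ} (hε0 : 0 < ε0) :
    ∃ A : E3 ≃ᵃ[ℝ] E3, ExIn p (P3 ⁻¹' Ω) f2 (D3 G') o u κ1 κ2 Q A lam ∧ ‖lin A - BB G ξ‖ ≤ ε0 ∧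
      (∀ b, b ≤ a → ∀ x ∈ P3 ⁻¹' Ω, f2 x ∈ cbx Q b → A x ∈ cbx Q (b + 12 * κ₁)) := by
  have hs := Bx.sz_pos hQ
  have hlam0 : 0 < lam := by linarith
  have hκ1p : 0 < κ1 := by
    by_contra hcon
    push Not at hcon
    nlinarith
  have hκξ : 0 ≤ κ ξ := by
    have h1 := hg.aff ξ (mem_cube_self ξ hr0.le) ξ (mem_cube_self ξ hr0.le)
    have h2 : 0 ≤ κ ξ * r := (norm_nonneg _).trans h1
    by_contra hcon
    push Not at hcon
    nlinarith
  set θ : ℝ := 2 ^ p * (κ ξ * (8 * Q.sz / m) ^ 3) with hθ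
  have h2p : (0 : ℝ) < 2 ^ p := Real.rpow_pos_of_pos (by norm_num) p
  obtain ⟨A, h1, h2, -, h4⟩ := exIn_of (f := f2) (D := D3 G') hp o hu hQ asp (B := BB G ξ)
    (m := m / 2) (by positivity) (by linarith) (BB_low hm.le hA) (BB_norm hm hA)
    (x0 := P3.symm ξ) (y0 := P3.symm (f ξ + t)) (by linarith) hκ₁ hκ₁' ha0 ha2 hlam0 hκ2 hgap hκ1 H
    (θ := θ) (by positivity) (theta_ok (by linarith) hκ1p hm hκξ hk hs.le hlam)
    (by
      refine lp_of_good hp hg (fun x hx => ?_) hU hSU hGG ?_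
      · have h3 := mem_cube_of_AR (f := f) (t := t) hm hA (x := x) (c := ctr Q)
          (norm_sub_of_cbx hQ ha0 hx) hy0
        intro i
        exact (h3 i).trans hr'
      · rw [hθ]
        gcongr) hε0
  exact ⟨A, h1, h2, h4⟩

variable {p : ℝ} {Ω Λ : Set R3} {f : R3 → R3} {G : Fin 3 → R3 → R3} {κ1' : ℝ}
  {F : Set (Bx (Fin 3))} {Th : R3 ≃ₜ R3} {G' : Fin 3 → R3 → R3} {μ κ δ : R3 → ℝ} {O : Set R3}
  {ξ yc : F → R3} {hξ : ∀ c, ξ c ∈ EE Ω f G p μ κ δ} {hm : ∀ c, 0 < μ (ξ c)}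

lemma ctr_norm (y : R3) (Q : Bx (Fin 3)) : ‖P3.symm y - ctr Q‖ ≤ ‖y - P3 (ctr Q)‖ := by
  have := Er_594.norm_P3_symm_le (y - P3 (ctr Q))
  rwa [map_sub, P3.symm_apply_apply] at this

lemma ctr_norm' (y : R3) (Q : Bx (Fin 3)) : ‖y - P3 (ctr Q)‖ ≤ 2 * ‖P3.symm y - ctr Q‖ := by
  have := Er_594.norm_le_P3_symm (y - P3 (ctr Q))
  rwa [map_sub, P3.symm_apply_apply] at this

lemma cor_to_H {A : R3 ≃ᵃ[ℝ] R3} {f2 : R3 → R3} {Q : Bx (Fin 3)} {ξ t : R3} {lam κ : ℝ}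
    (hAA : ∀ x, A x = Aff f G ξ t x) (h : Cor Ω f2 A Q lam κ 0) :
    ∀ x, (x ∈ P3 ⁻¹' Ω ∧ e3 f2 x ∈ cbx Q lam) ∨ (AR f G ξ t x ∈ cbx Q lam) →
      x ∈ P3 ⁻¹' Ω ∧ ‖e3 f2 x - AR f G ξ t x‖ ≤ κ * lam * Q.sz := by
  intro x hx
  have e1 : a3 A x = AR f G ξ t x := by rw [a3_apply, hAA, AR_eq]
  have h1 := h x (hx.imp (fun h2 => ⟨h2.1, h2.2⟩) (fun h2 k => by
    rw [e1]
    refine (h2 k).trans (le_of_eq ?_)
    ring))
  rw [e1] at h1
  refine ⟨h1.1, h1.2.trans (le_of_eq ?_)⟩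
  ring

/-- bricks with a hole -/
theorem exIn_bad (hp : 1 ≤ p) (hΩ : IsOpen Ω)
    (P : Pre3 p Ω Λ f G (1 / 2) κ1' 0 F Th G' μ κ δ O ξ yc hξ hm) (hf : ContinuousOn f Ω)
    {κ1 κc : ℝ} (hκ0 : 0 < κ1') (hκ4 : κ1' ≤ κ1 / 4) (hκ24 : κ1' ≤ 1 / 24)
    (hk : ∀ x ∈ Ω, κ x ≤ kf p κ1 κc (μ x)) (o : E3) {u : ℝ} (hu : 0 < u) {c : F}
    (hc : c ∈ BdB F O) {ε0 : ℝ} (hε0 : 0 < ε0) :
    ∃ A : E3 ≃ᵃ[ℝ] E3, ExIn p (P3 ⁻¹' Ω) (e3 fun x => Th (f x)) (D3 G') o u κ1 (1 / 720) c.1 A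
      (1 / 3072) ∧ ‖lin A - BB G (ξ c)‖ ≤ ε0 := by
  obtain ⟨b1, b2, b3, b4, b5⟩ := P.bad c hc
  have hpos := P.foam.pos _ c.2
  have hs := Bx.sz_pos hpos
  have hrad : rad 3 c.1 = c.1.sz / 24 := by unfold rad; norm_num
  have hls : ls 3 = 1 / 1536 := by unfold ls; norm_num
  set t : R3 := P3 (ctr c.1) - yc c with ht
  have H := cor_to_H (f := f) (G := G) (ξ := ξ c) (t := t) (fun x => affE_apply _ _ _ _ _ _ _) b5
  rw [hls] at H
  have hμc := P.scμ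
  set U : Set R3 := Ω ∩ f ⁻¹' ball (yc c) (rad 3 c.1 / 16) with hU
  have hUo : IsOpen U := hf.isOpen_inter_preimage hΩ isOpen_ball
  obtain ⟨A, h1, h2, -⟩ := exIn_core (f2 := e3 fun x => Th (f x)) (G' := G') hp o hu hpos
    (P.foam.asp _ c.2) (ξ := ξ c) (t := t) (hm c) (hμc.le_one _) (hξ c).2.1 (hk _ (hξ c).1) (by
      have h3 := Er_594.norm_P3_symm_le (f (ξ c) - yc c)
      have h4 : P3.symm (f (ξ c) + t) - ctr c.1 = P3.symm (f (ξ c) - yc c) := by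
        rw [ht, map_add, map_sub, map_sub, P3.symm_apply_apply]; abel
      rw [h4]
      rw [norm_sub_rev] at h3
      linarith)
    (r := 4 * rad 3 c.1 / μ (ξ c)) (a := 1 / 1536) (κ₁ := κ1' * (1 / 1536)) (lam := 1 / 3072)
    (κ2 := 1 / 720) (by have := hm c; rw [hrad]; positivity)
    (by
      have := hm c
      rw [hrad]
      apply div_le_div_of_nonneg_right _ this.le
      linarith)
    (by
      have := hm c
      rw [hrad]
      apply div_le_div_of_nonneg_right _ this.le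
      linarith) b4 (by positivity) (by linarith) (by norm_num) (by norm_num) le_rfl (by norm_num)
    (by linarith) (by linarith) H hUo (by
      intro x hx
      obtain ⟨h3, h4⟩ := H x (Or.inr hx)
      refine ⟨h3, ?_⟩
      rw [mem_preimage, mem_ball, dist_eq_norm]
      have h5 := norm_sub_of_cbx hpos (by norm_num) hx
      have h6 : ‖P3.symm (Th (f (P3 x))) - ctr c.1‖ ≤ κ1' * (1 / 1536) * c.1.sz +
          1 / 1536 * c.1.sz / 2 := by
        have h7 : P3.symm (Th (f (P3 x))) - ctr c.1 =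
          (e3 (fun x => Th (f x)) x - AR f G (ξ c) t x) + (AR f G (ξ c) t x - ctr c.1) := by
          rw [sub_add_sub_cancel]; rfl
        rw [h7]
        exact (norm_add_le _ _).trans (add_le_add h4 h5)
      have h8 := ctr_norm' (Th (f (P3 x))) c.1
      have h9 : κ1' * (1 / 1536) * c.1.sz ≤ 1 / 24 * (1 / 1536) * c.1.sz := by gcongr
      have h10 : ‖Th (f (P3 x)) - P3 (ctr c.1)‖ < rad 3 c.1 / 16 := by
        rw [hrad]; linarith
      have h11 := b3 (f (P3 x)) h10.le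
      have h12 : f (P3 x) - yc c = Th (f (P3 x)) - P3 (ctr c.1) := by
        conv_lhs => rw [h11]
        abel
      rw [h12]
      exact h10)
    (P.trans U t hUo inter_subset_left (fun x hx => by
      have h3 : ‖f x - yc c‖ ≤ rad 3 c.1 / 16 := by
        have := hx.2
        rw [mem_preimage, mem_ball, dist_eq_norm] at this
        exact this.le
      rw [b2 _ h3, ht]
      abel)) hε0
  exact ⟨A, h1, h2⟩

/-- the open brick, in `R3` -/
lemma isOpen_box (Q : Bx (Fin 3)) (t : ℝ) :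
    IsOpen {y : R3 | ∀ k, |P3.symm y k - ctr Q k| < Q.side k / 2 + t} := by
  have : {y : R3 | ∀ k, |P3.symm y k - ctr Q k| < Q.side k / 2 + t} =
      ⋂ k : Fin 3, {y : R3 | |P3.symm y k - ctr Q k| < Q.side k / 2 + t} := by
    ext y; simp
  rw [this]
  refine isOpen_iInter_of_finite fun k => isOpen_lt ?_ continuous_const
  have h1 : Continuous fun y : R3 => P3.symm y k := (continuous_apply k).comp P3.symm.continuous
  exact (h1.sub continuous_const).abs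

/-- bricks without a hole, near `O` -/
theorem exIn_mid (hp : 1 ≤ p) (hΩ : IsOpen Ω)
    (P : Pre3 p Ω Λ f G (1 / 2) κ1' 0 F Th G' μ κ δ O ξ yc hξ hm) (hf : ContinuousOn f Ω)
    {κ1 κc : ℝ} (hκ0 : 0 < κ1') (hκ4 : κ1' ≤ κ1 / 4) (hκ24 : κ1' ≤ 1 / 24)
    (hk : ∀ x ∈ Ω, κ x ≤ kf p κ1 κc (μ x)) (o : E3) {u : ℝ} (hu : 0 < u) {c : F}
    (hc : c ∉ BdB F O) {ε0 : ℝ} (hε0 : 0 < ε0) :
    ∃ A : E3 ≃ᵃ[ℝ] E3, ExIn p (P3 ⁻¹' Ω) (e3 fun x => Th (f x)) (D3 G') o u κ1 (1 / 720) c.1 A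
      (1 / 4) ∧ ‖lin A - BB G (ξ c)‖ ≤ ε0 := by
  obtain ⟨g1, g2, g3, g4, -, g5⟩ := P.good c hc
  have hpos := P.foam.pos _ c.2
  have hs := Bx.sz_pos hpos
  have hrad : rad 3 c.1 = c.1.sz / 24 := by unfold rad; norm_num
  set t : R3 := P3 (ctr c.1) - yc c with ht
  have ht0 : t = 0 := by rw [ht, g1, sub_self]
  have H := cor_to_H (f := f) (G := G) (ξ := ξ c) (t := t) (fun x => affE_apply _ _ _ _ _ _ _) g5
  have hμc := P.scμ
  set V : Set R3 := {y : R3 | ∀ k, |P3.symm y k - ctr c.1 k| < c.1.side k / 2 + 0} with hV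
  set U : Set R3 := Ω ∩ f ⁻¹' V with hU
  have hUo : IsOpen U := hf.isOpen_inter_preimage hΩ (isOpen_box _ _)
  have hVQ : ∀ y ∈ V, P3.symm y ∈ c.1.set := by
    intro y hy
    rw [Bx.mem_set]
    intro k
    have h1 := abs_lt.1 (hy k)
    have h2 := ctr_lo c.1 k
    have h3 := ctr_hi c.1 k
    constructor <;> linarith [h1.1, h1.2]
  obtain ⟨A, h1, h2, -⟩ := exIn_core (f2 := e3 fun x => Th (f x)) (G' := G') hp o hu hpos
    (P.foam.asp _ c.2) (ξ := ξ c) (t := t) (hm c) (hμc.le_one _) (hξ c).2.1 (hk _ (hξ c).1) (by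
      have h4 : P3.symm (f (ξ c) + t) - ctr c.1 = P3.symm (f (ξ c) - P3 (ctr c.1)) := by
        rw [ht0, add_zero, map_sub, P3.symm_apply_apply]
      have h3 := Er_594.norm_P3_symm_le (f (ξ c) - P3 (ctr c.1))
      rw [h4]
      rw [norm_sub_rev (f (ξ c))] at h3
      linarith)
    (r := 8 * c.1.sz / μ (ξ c)) (a := 1 / 2) (κ₁ := κ1' * (1 / 2)) (lam := 1 / 4)
    (κ2 := 1 / 720) (by have := hm c; positivity) le_rfl
    (by
      have := hm c
      apply div_le_div_of_nonneg_right _ this.le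
      linarith) g4 (by positivity) (by linarith) (by norm_num) (by norm_num) (by norm_num)
    (by norm_num) (by linarith) (by linarith) H hUo (by
      intro x hx
      obtain ⟨h3, h4⟩ := H x (Or.inr hx)
      have h4' : ‖P3.symm (Th (f (P3 x))) - AR f G (ξ c) t x‖ ≤ κ1' * (1 / 2) * c.1.sz := h4
      have h7 : ∀ k, |P3.symm (Th (f (P3 x))) k - ctr c.1 k| < c.1.side k / 2 + 0 := by
        intro k
        have h8 := norm_le_pi_norm (P3.symm (Th (f (P3 x))) - AR f G (ξ c) t x) k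
        rw [Pi.sub_apply, Real.norm_eq_abs] at h8
        have h9 := hx k
        have h10 := P.foam.asp _ c.2 k
        have h11 := abs_sub_le (P3.symm (Th (f (P3 x))) k) (AR f G (ξ c) t x k) (ctr c.1 k)
        have h12 : κ1' * (1 / 2) * c.1.sz ≤ 1 / 24 * (1 / 2) * (3 * c.1.side k) := by gcongr
        have h13 := Bx.side_pos hpos k
        linarith
      have h8 : Th (f (P3 x)) ∈ V := h7
      have h9 : f (P3 x) = Th (f (P3 x)) := by
        have := g2 _ (hVQ _ h8)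
        exact (Th.injective this).symm
      refine ⟨h3, ?_⟩
      rw [mem_preimage, h9]
      exact h8)
    (P.trans U t hUo inter_subset_left (fun x hx => by
      rw [g2 _ (hVQ _ hx.2), ht0, add_zero])) hε0
  exact ⟨A, h1, h2⟩

/-- good bricks -/
theorem exIn_good (hp : 1 ≤ p) (hΩ : IsOpen Ω) (hΛ : IsOpen Λ)
    (P : Pre3 p Ω Λ f G (1 / 2) κ1' 0 F Th G' μ κ δ O ξ yc hξ hm) (hf : IsHomeomorphOn f Ω Λ)
    {κ1 κc lamb : ℝ} (hκ1 : 0 < κ1) (hκc0 : 0 < κc) (hκc : κc ≤ 1 / 4320) (hκc' : κc ≤ κ1 / 8)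
    (hl : 1 / 2 ≤ lamb) (hl1 : lamb ≤ 1)
    (hk : ∀ x ∈ Ω, κ x ≤ kf p κ1 κc (μ x)) (o : E3) {u : ℝ} (hu : 0 < u) {c : F}
    (hc : c ∉ BadE F O) {ε0 : ℝ} (hε0 : 0 < ε0) :
    ∃ A : E3 ≃ᵃ[ℝ] E3, ExIn p (P3 ⁻¹' Ω) (e3 fun x => Th (f x)) (D3 G') o u κ1 (1 / 720) c.1 A
      lamb ∧ ‖lin A - BB G (ξ c)‖ ≤ ε0 ∧
      (∀ x ∈ P3 ⁻¹' Ω, e3 (fun x => Th (f x)) x ∈ cbx c.1 1 → A x ∈ cbx c.1 (1 + 24 * κc)) ∧
      (∀ y : R3, P3.symm y ∈ nb c.1 (1 / 180 * c.1.sz) → Th y = y) := by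
  have hcB : c ∉ BdB F O := fun h => hc (bdB_subset_badE P.foam O h)
  obtain ⟨g1, g2, g3, g4, g6, g5⟩ := P.good c hcB
  have hpos := P.foam.pos _ c.2
  have hs := Bx.sz_pos hpos
  have hrad : rad 3 c.1 = c.1.sz / 24 := by unfold rad; norm_num
  set t : R3 := P3 (ctr c.1) - yc c with ht
  have ht0 : t = 0 := by rw [ht, g1, sub_self]
  have hμc := P.scμ
  have hfc : ContinuousOn f Ω := by
    obtain ⟨g, -, -, -, -, h5, -⟩ := hf
    exact h5
  -- `Th = id` on the neighbourhood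
  have hTh : ∀ y : R3, P3.symm y ∈ nb c.1 (1 / 180 * c.1.sz) → Th y = y := by
    refine th_id_nbhd P.foam (by norm_num) (R' := 15 / 2) (by norm_num) (by norm_num) (by norm_num)
      P.gr (O := O) (Bd := BdB F O) hcB ?_ P.id_good
    intro y hy hyO
    apply hc
    refine ⟨y, hyO, ?_⟩
    have h1 : ‖P3.symm y - ctr c.1‖ ≤ c.1.sz := by
      rw [pi_norm_le_iff_of_nonneg hs.le]
      intro k
      rw [Pi.sub_apply, Real.norm_eq_abs]
      have h2 := hy k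
      have h3 := c.1.side_le_sz k
      linarith
    have h2 := ctr_norm' y c.1
    linarith
  have hκμ : ∀ x ∈ Ω, κ x * 4 ≤ κc * μ x := by
    intro x hx
    have h1 : kf p κ1 κc (μ x) ≤ κc * μ x / 4 := min_le_right _ _
    have h2 := hk x hx
    linarith
  obtain ⟨-, c1, c2, c3⟩ := core_at hΩ hΛ hf (y := P3 (ctr c.1)) (R := 2 * c.1.sz) (by positivity)
    (hξ c) (hm c) (κ₁ := κc) (by linarith) (hκμ _ (hξ c).1) (by linarith) (by linarith)
  have hAff : ∀ x : E3, AR f G (ξ c) t x =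
      P3.symm (f (ξ c) + Gmat G (ξ c) (P3 x - ξ c)) := by
    intro x; rw [AR_eq, Aff, ht0, add_zero]
  have hclose : ∀ x : E3, P3 x ∈ cube (ξ c) (4 * (2 * c.1.sz) / μ (ξ c)) →
      P3 x ∈ Ω ∧ ‖P3.symm (f (P3 x)) - AR f G (ξ c) t x‖ ≤ 2 * κc * c.1.sz := by
    intro x hx
    obtain ⟨h1, h2⟩ := c3 _ hx
    refine ⟨h1, ?_⟩
    rw [hAff, ← map_sub]
    refine (Er_594.norm_P3_symm_le _).trans (h2.trans (le_of_eq ?_))
    ring
  set a : ℝ := 1 + 1 / 180 with ha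
  have H : ∀ x, (x ∈ P3 ⁻¹' Ω ∧ e3 (fun x => Th (f x)) x ∈ cbx c.1 a) ∨ (AR f G (ξ c) t x ∈ cbx c.1 a) →
      (x ∈ P3 ⁻¹' Ω ∧ ‖e3 (fun x => Th (f x)) x - AR f G (ξ c) t x‖ ≤ 2 * κc * c.1.sz) ∧
        Th (f (P3 x)) = f (P3 x) ∧ ∀ k, |P3.symm (f (P3 x)) k - ctr c.1 k| <
          c.1.side k / 2 + 1 / 180 * c.1.sz := by
    intro x hx
    have hnb : ∀ z : E3, z ∈ cbx c.1 a → ∀ k, |z k - ctr c.1 k| + 2 * κc * c.1.sz <
        c.1.side k / 2 + 1 / 180 * c.1.sz := by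
      intro z hz k
      have h1 := hz k
      have h2 := c.1.side_le_sz k
      have h3 : 2 * κc * c.1.sz ≤ 2 * (1 / 4320) * c.1.sz := by gcongr
      rw [ha] at h1
      linarith
    rcases hx with ⟨hxΩ, hx⟩ | hx
    · have h1 : Th (Th (f (P3 x))) = Th (f (P3 x)) := by
        apply hTh
        intro k
        have h2 := hnb _ hx k
        have h3 : 0 ≤ 2 * κc * c.1.sz := by positivity
        have h4 : e3 (fun x => Th (f x)) x k = P3.symm (Th (f (P3 x))) k := rfl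
        rw [h4] at h2
        linarith
      have h2 : Th (f (P3 x)) = f (P3 x) := Th.injective h1
      have h3 : P3.symm (f (P3 x)) ∈ cbx c.1 a := by
        have h4 : e3 (fun x => Th (f x)) x = P3.symm (Th (f (P3 x))) := rfl
        rw [h4, h2] at hx
        exact hx
      have h4 := norm_sub_of_cbx hpos (by norm_num) h3
      have h5 := ctr_norm' (f (P3 x)) c.1
      have h6 := c1 (P3 x) hxΩ (by rw [ha] at h4; linarith)
      have h7 := hclose x h6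
      refine ⟨⟨h7.1, ?_⟩, h2, fun k => ?_⟩
      · have h8 : e3 (fun x => Th (f x)) x = P3.symm (Th (f (P3 x))) := rfl
        rw [h8, h2]
        exact h7.2
      · have h8 := hnb _ h3 k
        have h9 : 0 ≤ 2 * κc * c.1.sz := by positivity
        linarith
    · have h4 := norm_sub_of_cbx hpos (by norm_num) hx
      have h5 := ctr_norm' (f (ξ c) + Gmat G (ξ c) (P3 x - ξ c)) c.1
      rw [← hAff] at h5
      have h6 := c2 (P3 x) (by rw [ha] at h4; linarith)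
      have h7 := hclose x h6
      have h8 : ∀ k, |P3.symm (f (P3 x)) k - ctr c.1 k| < c.1.side k / 2 + 1 / 180 * c.1.sz := by
        intro k
        have h9 := norm_le_pi_norm (P3.symm (f (P3 x)) - AR f G (ξ c) t x) k
        rw [Pi.sub_apply, Real.norm_eq_abs] at h9
        have h10 := hnb _ hx k
        have h11 := abs_sub_le (P3.symm (f (P3 x)) k) (AR f G (ξ c) t x k) (ctr c.1 k)
        have h12 := h7.2
        linarith
      have h2 : Th (f (P3 x)) = f (P3 x) := hTh _ fun k => (h8 k).le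
      refine ⟨⟨h7.1, ?_⟩, h2, h8⟩
      have h9 : e3 (fun x => Th (f x)) x = P3.symm (Th (f (P3 x))) := rfl
      rw [h9, h2]
      exact h7.2
  set V : Set R3 := {y : R3 | ∀ k, |P3.symm y k - ctr c.1 k| < c.1.side k / 2 + 1 / 180 * c.1.sz} with hV
  set U : Set R3 := Ω ∩ f ⁻¹' V with hU
  have hUo : IsOpen U := hfc.isOpen_inter_preimage hΩ (isOpen_box _ _)
  obtain ⟨A, h1, h2, h3⟩ := exIn_core (f2 := e3 fun x => Th (f x)) (G' := G') hp o hu hpos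
    (P.foam.asp _ c.2) (ξ := ξ c) (t := t) (hm c) (hμc.le_one _) (hξ c).2.1 (hk _ (hξ c).1) (by
      have h4 : P3.symm (f (ξ c) + t) - ctr c.1 = P3.symm (f (ξ c) - P3 (ctr c.1)) := by
        rw [ht0, add_zero, map_sub, P3.symm_apply_apply]
      have h3 := Er_594.norm_P3_symm_le (f (ξ c) - P3 (ctr c.1))
      rw [h4]
      rw [norm_sub_rev (f (ξ c))] at h3
      linarith)
    (r := 8 * c.1.sz / μ (ξ c)) (a := a) (κ₁ := 2 * κc) (lam := lamb)
    (κ2 := 1 / 720) (by have := hm c; positivity) le_rfl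
    (by
      have := hm c
      rw [ha]
      apply div_le_div_of_nonneg_right _ this.le
      linarith) g4 (by positivity) (by linarith) (by norm_num) (by norm_num) (by linarith)
    (by norm_num) (by rw [ha]; linarith) (by nlinarith) (fun x hx => (H x hx).1) hUo
    (fun x hx => ⟨(H x (Or.inr hx)).1.1, (H x (Or.inr hx)).2.2⟩)
    (P.trans U t hUo inter_subset_left (fun x hx => by
      rw [hTh _ fun k => (hx.2 k).le, ht0, add_zero])) hε0
  refine ⟨A, h1, h2, fun x hx hxc => ?_, hTh⟩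
  have h4 := h3 1 (by norm_num [ha]) x hx hxc
  refine cbx_mono hpos (le_of_eq ?_) h4
  ring

end

end Crest.Agent.R096.Rg3_766
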