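import Crest.Agent.R096.Toph3_766

/-!
Row 96 (S0127), helper816.  Leaf [U3c] of 627 #10703: composition of a Sobolev homeomorphism
`Ω → Λ` with a Lipschitz homeomorphism `Λ → Λ'`, with the closeness of the derivative to a linear
map where the homeomorphism of the target is close to this linear map.
-/

set_option autoImplicit false
set_option linter.unusedSectionVars false
set_option linter.style.longLine false
set_option linter.style.haveILetI false

namespace Crest.Agent.R096.Shc_816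

open MeasureTheory Set Filter Topology Metric
open scoped ENNReal NNReal RealInnerProductSpace Gradient
open Crest.AnalysisR.VecCalc3 Crest.AnalysisR.Sobolev
open Crest.Agent.R096.Sk_962 (SH)
open Crest.Agent.R96.Acl_392 Crest.Agent.R96.Sob2_199 Crest.Agent.R96.Sob4_199
  Crest.Agent.R96.Sob5_199 Crest.Agent.R96.Sob7_199 Crest.Agent.R96.Str_520

/-- the weak derivative of `B ∘ f` for a linear map `B` -/
theorem vwd_linear {Ω : Set R3} (hΩ : IsOpen Ω) {f D : R3 → R3} {e : R3}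
    (h : VWD Ω volume f D e) (hf : ContinuousOn f Ω) (B : R3 →L[ℝ] R3) :
    ∃ D', VWD Ω volume (fun x => B (f x)) D' e ∧ ∀ᵐ x, x ∈ Ω → D' x = B (D x) := by
  have hB : LipschitzOnWith ‖B‖₊ (fun y : R3 => B y) univ := B.lipschitz.lipschitzOnWith
  obtain ⟨D', hD', -⟩ := comp_lip hΩ h hf (mapsTo_univ f Ω) hB
  refine ⟨D', hD', ?_⟩
  have hc := comp_chain hΩ h hf (mapsTo_univ f Ω) (θ := fun y : R3 => B y)
    B.continuous.continuousOn hD'
  filter_upwards [hc] with x hx hxΩ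
  have h1 := hx hxΩ B.differentiableAt
  rw [h1, B.fderiv]

theorem vwd_mono {Ω U : Set R3} {f D : R3 → R3} {e : R3} (h : VWD Ω volume f D e)
    (hU : U ⊆ Ω) : VWD U volume f D e := fun i => wd_mono (h i) hU

theorem vwd_sub {Ω : Set R3} {f D f' D' : R3 → R3} {e : R3} (h : VWD Ω volume f D e)
    (h' : VWD Ω volume f' D' e) :
    VWD Ω volume (fun x => f x - f' x) (fun x => D x - D' x) e := fun i => by
  have := wd_sub (h i) (h' i)
  exact this

/-- **closeness of the derivative of a composition to a linear image of the derivative** -/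
theorem vwd_close {Ω : Set R3} (hΩ : IsOpen Ω) {f D D' : R3 → R3} {e : R3}
    (h : VWD Ω volume f D e) (hf : ContinuousOn f Ω) {H : R3 → R3}
    (h' : VWD Ω volume (fun x => H (f x)) D' e) {U V : Set R3} {B : R3 →L[ℝ] R3} {ε : ℝ≥0}
    (hU : IsOpen U) (hUΩ : U ⊆ Ω) (hm : ∀ x ∈ U, f x ∈ V)
    (hl : LipschitzOnWith ε (fun y => H y - B y) V) :
    ∀ᵐ x, x ∈ U → ‖D' x - B (D x)‖ ≤ ε * ‖D x‖ := by
  obtain ⟨D2, hD2, hD2e⟩ := vwd_linear hΩ h hf B
  have h3 : VWD U volume (fun x => H (f x) - B (f x)) (fun x => D' x - D2 x) e :=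
    vwd_mono (vwd_sub h' hD2) hUΩ
  have h4 := comp_bound hU (vwd_mono h hUΩ) (hf.mono hUΩ) (S := V) hm
    (θ := fun y => H y - B y) hl.continuousOn h3 (L := fun _ => (ε : ℝ)) aemeasurable_const (by
      intro x hx δ hδ
      filter_upwards [self_mem_nhdsWithin] with y hy
      have h1 := hl.dist_le_mul y hy (f x) (hm x hx)
      rw [dist_eq_norm, dist_eq_norm] at h1
      refine h1.trans ?_
      gcongr
      linarith)
  filter_upwards [h4, hD2e] with x hx hx2 hxU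
  rw [← hx2 (hUΩ hxU)]
  exact hx hxU

/-- **[U3c] composition of SH with a Lipschitz homeomorphism `Λ → Λ'`.** -/
theorem sh_comp2 {p : ℝ} {Ω Λ Λ' : Set R3} (hΩ : IsOpen Ω) (hΩv : volume Ω ≠ ∞)
    {f : R3 → R3} {G : Fin 3 → R3 → R3} (h : SH p Ω Λ f G) {H : R3 ≃ₜ R3}
    (hH : ∀ y, H y ∈ Λ' ↔ y ∈ Λ) {K : ℝ≥0} (hlip : LipschitzWith K H) :
    ∃ G' : Fin 3 → R3 → R3, SH p Ω Λ' (fun x => H (f x)) G' ∧
      (∀ᵐ x, x ∈ Ω → ∀ i, ‖col G' i x‖ ≤ K * ‖col G i x‖) ∧
      ∀ (U V : Set R3) (B : R3 →L[ℝ] R3) (ε : ℝ≥0), IsOpen U → U ⊆ Ω → IsOpen V →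
        (∀ x ∈ U, f x ∈ V) → LipschitzOnWith ε (fun y => H y - B y) V →
        ∀ᵐ x, x ∈ U → ∀ i, ‖col G' i x - B (col G i x)‖ ≤ ε * ‖col G i x‖ := by
  have hf' := h.homeo
  obtain ⟨g, hfm, hgm, hgf, hfg, hfc, hgc⟩ := hf'
  have h1 : ∀ i, ∃ D', VWD Ω volume (fun x => H (f x)) D' (EuclideanSpace.single i (1:ℝ)) ∧
      ∀ᵐ x, x ∈ Ω → ‖D' x‖ ≤ K * ‖col G i x‖ :=
    fun i => comp_lip hΩ (vwd_col hΩ h.wg i) hfc (mapsTo_univ f Ω) (hlip.lipschitzOnWith (s := univ))
  choose D' hD' hDb using h1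
  have hw : ∀ j, HasWeakGradOn Ω (fun x => H (f x) j) (rowOf D' j) := fun j => grad_of_vwd hD' j
  have hb : ∀ᵐ x, x ∈ Ω → ∀ i, ‖col (rowOf D') i x‖ ≤ K * ‖col G i x‖ := by
    filter_upwards [ae_all_iff.2 hDb] with x hx hxΩ i
    rw [col_rowOf]
    exact hx i hxΩ
  haveI : IsFiniteMeasure (volume.restrict Ω) := ⟨by
    rw [Measure.restrict_apply_univ]; exact lt_top_iff_ne_top.2 hΩv⟩
  have hsymm : ∀ y ∈ Λ', H.symm y ∈ Λ := fun y hy => by
    rw [← hH, H.apply_symm_apply]; exact hy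
  refine ⟨rowOf D', ⟨?_, ?_, hw, memLp_of_bound hΩ h.memG hw hb⟩, hb, ?_⟩
  · refine ⟨fun y => g (H.symm y), ?_, ?_, ?_, ?_, ?_, ?_⟩
    · intro x hx
      exact (hH _).2 (hfm hx)
    · intro y hy
      exact hgm (hsymm y hy)
    · intro x hx
      simp only [H.symm_apply_apply]
      exact hgf x hx
    · intro y hy
      simp only
      rw [hfg _ (hsymm y hy), H.apply_symm_apply]
    · exact H.continuous.comp_continuousOn hfc
    · exact hgc.comp H.symm.continuous.continuousOn fun y hy => hsymm y hy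
  · have h2 : LipschitzWith K (fun y : R3 => H y - H 0) := by
      apply LipschitzWith.of_dist_le_mul
      intro y y'
      have := hlip.dist_le_mul y y'
      rwa [dist_sub_right]
    have h3 := h2.comp_memLp (by simp) h.mem
    have h4 : (fun x => H (f x)) = (fun x => ((fun y : R3 => H y - H 0) ∘ f) x + H 0) := by
      funext x; simp
    rw [h4]
    exact h3.add (memLp_const (H 0))
  · intro U V B ε hU hUΩ _ hm hl
    have h5 : ∀ i, ∀ᵐ x, x ∈ U → ‖D' i x - B (col G i x)‖ ≤ ε * ‖col G i x‖ := fun i =>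
      vwd_close hΩ (vwd_col hΩ h.wg i) hfc (hD' i) hU hUΩ hm hl
    filter_upwards [ae_all_iff.2 h5] with x hx hxU i
    rw [col_rowOf]
    exact hx i hxU

end Crest.Agent.R096.Shc_816
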