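import Crest.Agent.R096.Bxn4_627
import Crest.Agent.R096.Rg3d_766
import Crest.Agent.R096.Shc1_816
import Crest.Agent.R096.Bxs9_627

/-!
Row 96 (S0127), helper627.  NO0, `p ≥ 3`, leaf [U3], part 4: the stretch of 899 is a `NearS`; the
`L^p` closeness of the derivatives after `S ∘ Γ⁻¹`.
-/

set_option autoImplicit false
set_option linter.unusedSectionVars false
set_option linter.style.longLine false
set_option linter.unusedVariables false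

open MeasureTheory Set Filter Topology Metric
open scoped NNReal ENNReal

namespace Crest.Agent.R096.Bxs_627

open Crest.AnalysisR.VecCalc3 Crest.AnalysisR.Sobolev
open Crest.Agent.R096.Bsp_628 Crest.Agent.R96.Push_899 Crest.Agent.R96.En10_199
open Crest.Agent.R096.Osc_802 Crest.Agent.R096.VolC2_766 Crest.Agent.R96.Lu_538
open Crest.Agent.R096.Sel_766
open Crest.Agent.R096.EaX_766 (cbx)
open Crest.Agent.R096.Er_594 (D3)
open Crest.Agent.R96.Str_520 (col)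

noncomputable section

/-! ### the stretch is a `NearS` -/

theorem norm_le_single {k : Fin 3} {v : R3} (hv : ∀ i, i ≠ k → v i = 0) : ‖v‖ ≤ |v k| := by
  have h1 : ‖v‖ ≤ ‖(EuclideanSpace.single k (v k) : R3)‖ := norm_le_of_co1 fun i => by
    by_cases hi : i = k
    · subst hi; simp
    · rw [hv i hi]; simp
  refine h1.trans (le_of_eq ?_)
  simp

theorem norm_le_sum_co (v : R3) : ‖v‖ ≤ ∑ i, |v i| := by
  have h7 : ‖v‖ ^ 2 ≤ (∑ i, |v i|) ^ 2 := by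
    rw [EuclideanSpace.norm_sq_eq, Fin.sum_univ_three, Fin.sum_univ_three]
    simp only [Real.norm_eq_abs]
    nlinarith [abs_nonneg (v 0), abs_nonneg (v 1), abs_nonneg (v 2),
      mul_nonneg (abs_nonneg (v 0)) (abs_nonneg (v 1)),
      mul_nonneg (abs_nonneg (v 0)) (abs_nonneg (v 2)),
      mul_nonneg (abs_nonneg (v 1)) (abs_nonneg (v 2))]
  have h8 : 0 ≤ ∑ i, |v i| := Finset.sum_nonneg fun _ _ => abs_nonneg _
  exact le_of_not_gt fun hcon => by nlinarith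

theorem St_mono {k : Fin 3} {χ : R3 → ℝ} {a s w ε L : ℝ} (hP : StP χ s w ε L) {y y' : R3}
    (hne : ∀ i, i ≠ k → y i = y' i) (hk : y k ≤ y' k) :
    St k χ a s w ε y k ≤ St k χ a s w ε y' k := by
  rw [St_k, St_k]
  have h1 := (sg_sub (a := a) hP.hs hP.hw hP.hw1 hP.hε.le hP.hε1.le hk).1
  have h2 := abs_sg_sub_le (a := a) hP.hs hP.hw hP.hw1 hP.hε.le hP.hε1.le (y k)
  have h3 : ‖y' - y‖ ≤ y' k - y k := by
    have h4 : ‖y' - y‖ ≤ |(y' - y) k| := norm_le_single fun i hi => by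
      rw [PiLp.sub_apply, hne i hi, sub_self]
    rwa [PiLp.sub_apply, abs_of_nonneg (sub_nonneg.2 hk)] at h4
  have h5 : |χ y' - χ y| ≤ L * (y' k - y k) := (hP.hL y y').trans
    (mul_le_mul_of_nonneg_left h3 hP.hL0)
  have h6 : |(χ y' - χ y) * (sg a s w ε (y k) - y k)| ≤ L * (y' k - y k) * s := by
    rw [abs_mul]
    exact mul_le_mul h5 h2 (abs_nonneg _) (mul_nonneg hP.hL0 (sub_nonneg.2 hk))
  have h7 := (abs_le.1 h6).1
  have h8 : L * (y' k - y k) * s ≤ ε / 2 * (y' k - y k) := by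
    have := mul_le_mul_of_nonneg_right hP.hLs (sub_nonneg.2 hk)
    linarith
  have h9 := mul_le_mul_of_nonneg_left h1 (hP.χ0 y')
  have h10 : 0 ≤ (1 - χ y') * ((1 - ε) * (y' k - y k)) :=
    mul_nonneg (sub_nonneg.2 (hP.χ1 y')) (mul_nonneg (sub_nonneg.2 hP.hε1.le) (sub_nonneg.2 hk))
  have h11 : 0 ≤ ε / 2 * (y' k - y k) := mul_nonneg (by linarith [hP.hε]) (sub_nonneg.2 hk)
  have e1 : y' k + χ y' * (sg a s w ε (y' k) - y' k) - (y k + χ y * (sg a s w ε (y k) - y k)) =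
      (1 - χ y') * (y' k - y k) + χ y' * (sg a s w ε (y' k) - sg a s w ε (y k)) +
      (χ y' - χ y) * (sg a s w ε (y k) - y k) := by ring
  nlinarith

/-- **a uniform brick** -/
theorem nearS_uni {k : Fin 3} {χ : R3 → ℝ} {a s w ε L : ℝ} (hP : StP χ s w ε L) (hw : w < 1 / 2)
    {q : R3} {N : ℤ} (hq : q k = a + s / 2 + N * s) (r : ℝ) :
    NearS k (St k χ a s w ε) χ (msl w ε) q r (w * s) := by
  refine ⟨fun y i hi => St_ne y hi, fun y y' h1 h2 => St_mono hP h1 h2, fun y _ hy => ?_⟩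
  rw [St_k, sg_on hP.hs hP.hw hw (N := N) (by rw [← hq]; exact hy), ← hq]
  ring

/-- **a brick off the support of the cut-off** -/
theorem nearS_off {k : Fin 3} {χ : R3 → ℝ} {a s w ε L : ℝ} (hP : StP χ s w ε L) {q : R3} {r ρ : ℝ}
    (G : ℝ) (h0 : ∀ y : R3, (∀ i, i ≠ k → |y i - q i| ≤ r) → |y k - q k| ≤ ρ → χ y = 0) :
    NearS k (St k χ a s w ε) χ G q r ρ := by
  refine ⟨fun y i hi => St_ne y hi, fun y y' h1 h2 => St_mono hP h1 h2, fun y h1 h2 => ?_⟩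
  rw [St_k, h0 y h1 h2]
  ring

theorem msl_ge {w ε : ℝ} (hw : 0 < w) (hw1 : w ≤ 1 / 2) (hε1 : ε ≤ 1) : 1 ≤ msl w ε := by
  unfold msl
  have h1 : 1 ≤ 1 / (2 * w) := by rw [le_div_iff₀ (by positivity)]; linarith
  have h2 : (1 - ε) / (2 * w) = (1 - ε) * (1 / (2 * w)) := by ring
  rw [h2]
  nlinarith

theorem msl_le {w ε : ℝ} (hw : 0 < w) (hw1 : w ≤ 1 / 2) (hε : 0 ≤ ε) : msl w ε ≤ 1 / (2 * w) := by
  unfold msl
  have h1 : 1 ≤ 1 / (2 * w) := by rw [le_div_iff₀ (by positivity)]; linarith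
  have h2 : (1 - ε) / (2 * w) = (1 - ε) * (1 / (2 * w)) := by ring
  rw [h2]
  nlinarith

theorem msl_mul {w ε : ℝ} (hw : 0 < w) (hε : 0 ≤ ε) : (1 - ε) / 2 ≤ msl w ε * w := by
  unfold msl
  have h2 : (1 - ε) / (2 * w) * w = (1 - ε) / 2 := by field_simp
  nlinarith

/-! ### derivatives -/

/-- a linear map of `R3`, on `E3` -/
def BE (B : R3 →L[ℝ] R3) : E3 →L[ℝ] E3 :=
  (P3.symm : R3 →L[ℝ] E3).comp (B.comp (P3 : E3 →L[ℝ] R3))

theorem BE_apply (B : R3 →L[ℝ] R3) (v : E3) : BE B v = P3.symm (B (P3 v)) := rfl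

theorem opnorm_le_cols (L : E3 →L[ℝ] E3) : ‖L‖ ≤ ∑ i, ‖L (Pi.single i 1)‖ := by
  refine L.opNorm_le_bound (Finset.sum_nonneg fun _ _ => norm_nonneg _) fun v => ?_
  have h1 : v = ∑ i, v i • (Pi.single i (1:ℝ) : E3) := by
    funext k
    simp [Finset.sum_apply, Pi.single_apply]
  conv_lhs => rw [h1]
  rw [map_sum, Finset.sum_mul]
  refine (norm_sum_le _ _).trans (Finset.sum_le_sum fun i _ => ?_)
  rw [map_smul, norm_smul, mul_comm]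
  exact mul_le_mul_of_nonneg_left (norm_le_pi_norm v i) (norm_nonneg _)

theorem col_eq (G : Fin 3 → R3 → R3) (i : Fin 3) (x : R3) :
    col G i x = Gmat G x (EuclideanSpace.single i 1) := by
  ext j
  rw [Gmat_apply, Crest.Agent.R96.Str_520.col_apply, EuclideanSpace.inner_single_right]
  simp

theorem D3_single (G : Fin 3 → R3 → R3) (x : E3) (i : Fin 3) :
    D3 G x (Pi.single i 1) = P3.symm (col G i (P3 x)) := by
  rw [col_eq]
  have h1 : P3 (Pi.single i 1) = EuclideanSpace.single i (1 : ℝ) := by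
    rw [← P3_symm_single, P3.apply_symm_apply]
  rw [← h1]
  rfl

theorem BB_single (G : Fin 3 → R3 → R3) (ξ : R3) (i : Fin 3) :
    Crest.Agent.R096.Rg3_766.BB G ξ (Pi.single i 1) = P3.symm (col G i ξ) := by
  rw [col_eq, Crest.Agent.R096.Rg3_766.BB_apply]
  have h1 : P3 (Pi.single i 1) = EuclideanSpace.single i (1 : ℝ) := by
    rw [← P3_symm_single, P3.apply_symm_apply]
  rw [h1]

theorem sum3_rpow (a : Fin 3 → ℝ≥0∞) {p : ℝ} (hp : 0 ≤ p) :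
    (∑ j, a j) ^ p ≤ 3 ^ p * ∑ j, a j ^ p := by
  obtain ⟨j, -, hj⟩ := Finset.exists_max_image Finset.univ a ⟨0, Finset.mem_univ _⟩
  have h1 : ∑ i, a i ≤ 3 * a j := by
    calc ∑ i, a i ≤ ∑ _i : Fin 3, a j := Finset.sum_le_sum fun i _ => hj i (Finset.mem_univ _)
      _ = 3 * a j := by
        rw [Finset.sum_const, Finset.card_univ, Fintype.card_fin, nsmul_eq_mul]; norm_num
  calc (∑ j, a j) ^ p ≤ (3 * a j) ^ p := ENNReal.rpow_le_rpow h1 hp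
    _ = 3 ^ p * a j ^ p := ENNReal.mul_rpow_of_nonneg _ _ hp
    _ ≤ 3 ^ p * ∑ j, a j ^ p := by
        gcongr
        exact Finset.single_le_sum (f := fun j => a j ^ p) (fun _ _ => zero_le) (Finset.mem_univ j)

/-- pointwise estimate -/
theorem D3_pt {G₁ G2 : Fin 3 → R3 → R3} {ξ : R3} {μ ε : ℝ} (hμ : 0 < μ)
    (hA : Gmat G₁ ξ ∈ LM μ) {B : R3 →L[ℝ] R3} (hB : ∀ v, ‖B v‖ ≤ ‖v‖) (hε0 : 0 ≤ ε) (hε1 : ε ≤ 1)
    {x : E3} (h : ∀ i, ‖col G2 i (P3 x) - B (col G₁ i (P3 x))‖ ≤ ε * ‖col G₁ i (P3 x)‖) :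
    ‖D3 G2 x - (BE B).comp (Crest.Agent.R096.Rg3_766.BB G₁ ξ)‖ ≤
      3 * ε / μ + 6 * ∑ j, ‖G₁ j (P3 x) - G₁ j ξ‖ := by
  set Δ := ∑ j, ‖G₁ j (P3 x) - G₁ j ξ‖ with hΔ
  have hΔ0 : 0 ≤ Δ := Finset.sum_nonneg fun _ _ => norm_nonneg _
  have hc : ∀ i, ‖col G₁ i (P3 x) - col G₁ i ξ‖ ≤ Δ := by
    intro i
    refine (norm_le_sum_co _).trans (Finset.sum_le_sum fun j _ => ?_)
    rw [PiLp.sub_apply, Crest.Agent.R96.Str_520.col_apply, Crest.Agent.R96.Str_520.col_apply]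
    have := abs_co_le (G₁ j (P3 x) - G₁ j ξ) i
    rwa [PiLp.sub_apply] at this
  have hξ : ∀ i, ‖col G₁ i ξ‖ ≤ 1 / μ := by
    intro i
    have h1 := (hA (EuclideanSpace.single i 1)).2
    rw [← col_eq] at h1
    rw [le_div_iff₀ hμ, mul_comm]
    refine h1.trans (le_of_eq ?_)
    simp
  have hi : ∀ i, ‖(D3 G2 x - (BE B).comp (Crest.Agent.R096.Rg3_766.BB G₁ ξ)) (Pi.single i 1)‖ ≤
      ε / μ + 2 * Δ := by
    intro i
    have e1 : (D3 G2 x - (BE B).comp (Crest.Agent.R096.Rg3_766.BB G₁ ξ)) (Pi.single i 1) =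
        P3.symm (col G2 i (P3 x) - B (col G₁ i ξ)) := by
      rw [ContinuousLinearMap.sub_apply, ContinuousLinearMap.comp_apply, D3_single, BB_single,
        BE_apply, P3.apply_symm_apply, map_sub]
    rw [e1]
    refine (Crest.Agent.R096.Er_594.norm_P3_symm_le _).trans ?_
    have e2 : col G2 i (P3 x) - B (col G₁ i ξ) =
        (col G2 i (P3 x) - B (col G₁ i (P3 x))) + B (col G₁ i (P3 x) - col G₁ i ξ) := by
      rw [map_sub]; abel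
    rw [e2]
    refine (norm_add_le _ _).trans ?_
    have h1 := h i
    have h2 := (hB (col G₁ i (P3 x) - col G₁ i ξ)).trans (hc i)
    have h3 : ‖col G₁ i (P3 x)‖ ≤ 1 / μ + Δ := by
      have e3 : col G₁ i (P3 x) = col G₁ i ξ + (col G₁ i (P3 x) - col G₁ i ξ) := by abel
      rw [e3]
      exact (norm_add_le _ _).trans (add_le_add (hξ i) (hc i))
    have h4 : ε * ‖col G₁ i (P3 x)‖ ≤ ε * (1 / μ + Δ) := mul_le_mul_of_nonneg_left h3 hε0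
    have h5 : ε * Δ ≤ 1 * Δ := mul_le_mul_of_nonneg_right hε1 hΔ0
    have h6 : ε * (1 / μ + Δ) = ε / μ + ε * Δ := by ring
    linarith
  refine (opnorm_le_cols _).trans ?_
  rw [Fin.sum_univ_three]
  have h7 : 3 * ε / μ = 3 * (ε / μ) := by ring
  rw [h7]
  linarith [hi 0, hi 1, hi 2]

/-- **`L^p` closeness after `S ∘ Γ⁻¹`** -/
theorem lp_S {Ω : Set R3} {f : R3 → R3} {G₁ G' G2 : Fin 3 → R3 → R3} {p : ℝ} (hp : 1 ≤ p)
    {κ : R3 → ℝ} {ξ : R3} {r μ ε θ : ℝ} (hμ : 0 < μ) (hA : Gmat G₁ ξ ∈ LM μ)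
    (hg : GoodAt Ω f G₁ p κ ξ r) (hr : 0 < r) {S : Set E3} (hS : S ⊆ P3 ⁻¹' cube ξ r) {U : Set R3}
    (hU : IsOpen U) (hSU : S ⊆ P3 ⁻¹' U) {B : R3 →L[ℝ] R3} (hB : ∀ v, ‖B v‖ ≤ ‖v‖) (hε0 : 0 ≤ ε)
    (hε1 : ε ≤ 1) (hGG : ∀ᵐ x, x ∈ U → ∀ j, G' j x = G₁ j x)
    (hcl : ∀ᵐ x, x ∈ U → ∀ i, ‖col G2 i x - B (col G' i x)‖ ≤ ε * ‖col G' i x‖)
    (hθ : 2 ^ p * ((3 * ε / μ) ^ p * (8 * r ^ 3) + 18 ^ p * (κ ξ * r ^ 3)) ≤ θ) :
    ∫⁻ x in S, ‖D3 G2 x - (BE B).comp (Crest.Agent.R096.Rg3_766.BB G₁ ξ)‖ₑ ^ p ≤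
      ENNReal.ofReal θ := by
  have hp0 : 0 ≤ p := by linarith
  have hκ0 : 0 ≤ κ ξ := by
    have h1 := hg.aff ξ (mem_cube_self ξ hr.le) ξ (mem_cube_self ξ hr.le)
    have h2 : 0 ≤ κ ξ * r := (norm_nonneg _).trans h1
    by_contra hcon
    push Not at hcon
    nlinarith
  have hae : ∀ᵐ x ∂((volume : Measure E3).restrict (P3 ⁻¹' U)), ∀ i,
      ‖col G2 i (P3 x) - B (col G₁ i (P3 x))‖ ≤ ε * ‖col G₁ i (P3 x)‖ := by
    have h1 : ∀ᵐ y ∂((volume : Measure R3).restrict U), ∀ i,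
        ‖col G2 i y - B (col G₁ i y)‖ ≤ ε * ‖col G₁ i y‖ := by
      rw [ae_restrict_iff' hU.measurableSet]
      filter_upwards [hGG, hcl] with y h2 h3 hy i
      have e : col G₁ i y = col G' i y := by
        ext j
        rw [Crest.Agent.R96.Str_520.col_apply, Crest.Agent.R96.Str_520.col_apply, h2 hy j]
      rw [e]
      exact h3 hy i
    exact Crest.Agent.R096.Er_594.ae_P3.1 h1
  have hae' : ∀ᵐ x ∂((volume : Measure E3).restrict S), ∀ i,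
      ‖col G2 i (P3 x) - B (col G₁ i (P3 x))‖ ≤ ε * ‖col G₁ i (P3 x)‖ :=
    ae_restrict_of_ae_restrict_of_subset hSU hae
  have h2p : (2 : ℝ≥0∞) ^ p = ENNReal.ofReal (2 ^ p) := by
    rw [← ENNReal.ofReal_rpow_of_nonneg (by norm_num) hp0]; norm_num
  have h18p : (18 : ℝ≥0∞) ^ p = ENNReal.ofReal (18 ^ p) := by
    rw [← ENNReal.ofReal_rpow_of_nonneg (by norm_num) hp0]; norm_num
  have h2t : (2 : ℝ≥0∞) ^ p ≠ ∞ := by rw [h2p]; exact ENNReal.ofReal_ne_top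
  have h18t : (18 : ℝ≥0∞) ^ p ≠ ∞ := by rw [h18p]; exact ENNReal.ofReal_ne_top
  have hvol : volume S ≤ ENNReal.ofReal (8 * r ^ 3) := by
    have h1 : S ⊆ closedBall (P3.symm ξ) r := by
      intro x hx
      rw [mem_closedBall, dist_eq_norm, pi_norm_le_iff_of_nonneg hr.le]
      intro i
      exact hS hx i
    refine (measure_mono h1).trans (le_of_eq ?_)
    rw [Real.volume_pi_closedBall _ hr.le, Fintype.card_fin]
    congr 1
    ring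
  have hpt : ∀ x : E3, (∀ i, ‖col G2 i (P3 x) - B (col G₁ i (P3 x))‖ ≤ ε * ‖col G₁ i (P3 x)‖) →
      ‖D3 G2 x - (BE B).comp (Crest.Agent.R096.Rg3_766.BB G₁ ξ)‖ₑ ^ p ≤
        2 ^ p * (ENNReal.ofReal ((3 * ε / μ) ^ p) +
          18 ^ p * ∑ j, ‖G₁ j (P3 x) - G₁ j ξ‖ₑ ^ p) := by
    intro x hx
    have h1 := D3_pt hμ hA hB hε0 hε1 hx
    have h2 : ‖D3 G2 x - (BE B).comp (Crest.Agent.R096.Rg3_766.BB G₁ ξ)‖ₑ ≤
        ENNReal.ofReal (3 * ε / μ) + 6 * ∑ j, ‖G₁ j (P3 x) - G₁ j ξ‖ₑ := by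
      rw [← ofReal_norm]
      refine (ENNReal.ofReal_le_ofReal h1).trans ?_
      rw [ENNReal.ofReal_add (by positivity) (by positivity), ENNReal.ofReal_mul (by norm_num),
        ENNReal.ofReal_sum_of_nonneg (fun _ _ => norm_nonneg _)]
      simp only [ofReal_norm]
      norm_num
    calc _ ≤ (ENNReal.ofReal (3 * ε / μ) + 6 * ∑ j, ‖G₁ j (P3 x) - G₁ j ξ‖ₑ) ^ p :=
          ENNReal.rpow_le_rpow h2 hp0
      _ ≤ 2 ^ p * (ENNReal.ofReal (3 * ε / μ) ^ p + (6 * ∑ j, ‖G₁ j (P3 x) - G₁ j ξ‖ₑ) ^ p) :=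
          rpow_add_le hp0
      _ ≤ 2 ^ p * (ENNReal.ofReal ((3 * ε / μ) ^ p) +
          18 ^ p * ∑ j, ‖G₁ j (P3 x) - G₁ j ξ‖ₑ ^ p) := by
          rw [ENNReal.ofReal_rpow_of_nonneg (by positivity) hp0, ENNReal.mul_rpow_of_nonneg _ _ hp0]
          have h3 := sum3_rpow (fun j => ‖G₁ j (P3 x) - G₁ j ξ‖ₑ) hp0
          have h4 : 6 ^ p * (∑ j, ‖G₁ j (P3 x) - G₁ j ξ‖ₑ) ^ p ≤
              18 ^ p * ∑ j, ‖G₁ j (P3 x) - G₁ j ξ‖ₑ ^ p := by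
            calc 6 ^ p * (∑ j, ‖G₁ j (P3 x) - G₁ j ξ‖ₑ) ^ p
                ≤ 6 ^ p * (3 ^ p * ∑ j, ‖G₁ j (P3 x) - G₁ j ξ‖ₑ ^ p) := by gcongr
              _ = 18 ^ p * ∑ j, ‖G₁ j (P3 x) - G₁ j ξ‖ₑ ^ p := by
                rw [← mul_assoc, ← ENNReal.mul_rpow_of_nonneg _ _ hp0]
                norm_num
          exact mul_le_mul' le_rfl (add_le_add le_rfl h4)
  calc ∫⁻ x in S, ‖D3 G2 x - (BE B).comp (Crest.Agent.R096.Rg3_766.BB G₁ ξ)‖ₑ ^ p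
      ≤ ∫⁻ x in S, 2 ^ p * (ENNReal.ofReal ((3 * ε / μ) ^ p) +
          18 ^ p * ∑ j, ‖G₁ j (P3 x) - G₁ j ξ‖ₑ ^ p) := by
        apply lintegral_mono_ae
        filter_upwards [hae'] with x hx
        exact hpt x hx
    _ = 2 ^ p * (ENNReal.ofReal ((3 * ε / μ) ^ p) * volume S +
          18 ^ p * ∫⁻ x in S, ∑ j, ‖G₁ j (P3 x) - G₁ j ξ‖ₑ ^ p) := by
        rw [lintegral_const_mul' _ _ h2t, lintegral_add_left measurable_const, setLIntegral_const,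
          lintegral_const_mul' _ _ h18t]
    _ ≤ 2 ^ p * (ENNReal.ofReal ((3 * ε / μ) ^ p) * ENNReal.ofReal (8 * r ^ 3) +
          18 ^ p * ENNReal.ofReal (κ ξ * r ^ 3)) := by
        gcongr
        calc ∫⁻ x in S, ∑ j, ‖G₁ j (P3 x) - G₁ j ξ‖ₑ ^ p
            ≤ ∫⁻ x in P3 ⁻¹' cube ξ r, ∑ j, ‖G₁ j (P3 x) - G₁ j ξ‖ₑ ^ p := lintegral_mono_set hS
          _ = ∫⁻ y in cube ξ r, ∑ j, ‖G₁ j y - G₁ j ξ‖ₑ ^ p := by
              rw [Crest.Agent.R096.Er_594.lint_P3 (cube ξ r)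
                (fun y => ∑ j, ‖G₁ j y - G₁ j ξ‖ₑ ^ p)]
          _ ≤ _ := hg.int
    _ = ENNReal.ofReal (2 ^ p * ((3 * ε / μ) ^ p * (8 * r ^ 3) + 18 ^ p * (κ ξ * r ^ 3))) := by
        rw [h2p, h18p, ← ENNReal.ofReal_mul (by positivity), ← ENNReal.ofReal_mul (by positivity),
          ← ENNReal.ofReal_add (by positivity) (by positivity), ← ENNReal.ofReal_mul (by positivity)]
    _ ≤ ENNReal.ofReal θ := ENNReal.ofReal_le_ofReal hθ

/-- **the numbers** -/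
theorem theta_ex (p : ℝ) (hp : 3 ≤ p) {κ1 γ0 : ℝ} (hκ1 : 0 < κ1) (hγ : 0 < γ0) :
    ∃ ca cb : ℝ, 0 < ca ∧ 0 < cb ∧ cb ≤ 1 ∧ ∀ (μ κ ε s lam : ℝ), 0 < μ → μ ≤ 1 → 0 ≤ κ →
      κ ≤ ca * μ ^ (p + 6) → 0 ≤ ε → ε ≤ cb * μ ^ (4 : ℝ) → 0 ≤ s → γ0 / 3072 ≤ lam →
      2 * ((4 / (γ0 * μ / 2)) ^ p * (8 / (γ0 * μ / 2) ^ 3 *
        (2 ^ p * ((3 * ε / μ) ^ p * (8 * (s / (6 * μ)) ^ 3) + 18 ^ p * (κ * (s / (6 * μ)) ^ 3))))) ≤
        κ1 * (lam * s) ^ 3 := by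
  set C2 : ℝ := κ1 * (γ0 / 3072) ^ 3 with hC2
  have hC2' : 0 < C2 := by positivity
  set C1 : ℝ := 2 * ((8 / γ0) ^ p * (64 / γ0 ^ 3 * 2 ^ p)) / 216 with hC1
  have hC1' : 0 < C1 := by positivity
  refine ⟨C2 / (2 * C1 * 18 ^ p), min 1 (C2 / (2 * C1 * (8 * 3 ^ p))), by positivity,
    lt_min one_pos (by positivity), min_le_left _ _, ?_⟩
  intro μ κ ε s lam hμ hμ1 hκ0 hκ hε0 hε hs hlam
  have e1 : (4 / (γ0 * μ / 2)) ^ p = (8 / γ0) ^ p / μ ^ p := by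
    rw [← Real.div_rpow (by positivity) hμ.le]
    congr 1
    field_simp
    norm_num
  have e2 : (3 * ε / μ) ^ p = 3 ^ p * ε ^ p / μ ^ p := by
    rw [Real.div_rpow (by positivity) hμ.le, Real.mul_rpow (by norm_num) hε0]
  have hmp0 : 0 < μ ^ p := Real.rpow_pos_of_pos hμ p
  have hmp : μ ^ (p + 6) = μ ^ p * μ ^ 6 := by
    rw [Real.rpow_add hμ]
    congr 1
    exact_mod_cast Real.rpow_natCast μ 6
  have key : 2 * ((4 / (γ0 * μ / 2)) ^ p * (8 / (γ0 * μ / 2) ^ 3 *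
        (2 ^ p * ((3 * ε / μ) ^ p * (8 * (s / (6 * μ)) ^ 3) + 18 ^ p * (κ * (s / (6 * μ)) ^ 3))))) =
      (C1 * (8 * 3 ^ p) * (ε ^ p / (μ ^ p * μ ^ (p + 6))) + C1 * 18 ^ p * (κ / μ ^ (p + 6))) *
        s ^ 3 := by
    rw [e1, e2, hmp, hC1]
    field_simp
    ring
  rw [key]
  have h1 : C1 * 18 ^ p * (κ / μ ^ (p + 6)) ≤ C2 / 2 := by
    have h2 : κ / μ ^ (p + 6) ≤ C2 / (2 * C1 * 18 ^ p) := by
      rw [div_le_iff₀ (Real.rpow_pos_of_pos hμ _)]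
      exact hκ
    calc C1 * 18 ^ p * (κ / μ ^ (p + 6)) ≤ C1 * 18 ^ p * (C2 / (2 * C1 * 18 ^ p)) := by gcongr
      _ = C2 / 2 := by
        have : (0 : ℝ) < 18 ^ p := by positivity
        field_simp
  have h3 : C1 * (8 * 3 ^ p) * (ε ^ p / (μ ^ p * μ ^ (p + 6))) ≤ C2 / 2 := by
    set cb := min 1 (C2 / (2 * C1 * (8 * 3 ^ p))) with hcb
    have hcb0 : 0 < cb := lt_min one_pos (by positivity)
    have hcb1 : cb ≤ 1 := min_le_left _ _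
    have h4 : ε ^ p ≤ cb * (μ ^ p * μ ^ (p + 6)) := by
      calc ε ^ p ≤ (cb * μ ^ (4 : ℝ)) ^ p := Real.rpow_le_rpow hε0 hε (by linarith)
        _ = cb ^ p * (μ ^ (4 : ℝ)) ^ p := Real.mul_rpow hcb0.le (by positivity)
        _ ≤ cb * (μ ^ p * μ ^ (p + 6)) := by
          refine mul_le_mul ?_ ?_ (by positivity) hcb0.le
          · calc cb ^ p ≤ cb ^ (1 : ℝ) :=
                  Real.rpow_le_rpow_of_exponent_ge hcb0 hcb1 (by linarith)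
              _ = cb := Real.rpow_one _
          · rw [← Real.rpow_mul hμ.le, ← Real.rpow_add hμ]
            exact Real.rpow_le_rpow_of_exponent_ge hμ hμ1 (by linarith)
    have h5 : ε ^ p / (μ ^ p * μ ^ (p + 6)) ≤ cb := by
      rw [div_le_iff₀ (by positivity)]
      exact h4
    calc C1 * (8 * 3 ^ p) * (ε ^ p / (μ ^ p * μ ^ (p + 6)))
        ≤ C1 * (8 * 3 ^ p) * (C2 / (2 * C1 * (8 * 3 ^ p))) := by
          exact mul_le_mul_of_nonneg_left (h5.trans (min_le_right _ _)) (by positivity)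
      _ = C2 / 2 := by
        have : (0 : ℝ) < 3 ^ p := by positivity
        field_simp
  calc _ ≤ (C2 / 2 + C2 / 2) * s ^ 3 := by gcongr
    _ = κ1 * (γ0 / 3072 * s) ^ 3 := by rw [hC2]; ring
    _ ≤ κ1 * (lam * s) ^ 3 := by gcongr

end

end Crest.Agent.R096.Bxs_627
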