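import Crest.Agent.R096.Bxn5_627
import Crest.Agent.R096.Bxn3_627

/-!
Row 96 (S0127), helper627.  NO0, `p ≥ 3`, leaf [U3], part 5: **`exIn_hol`**, the exact core of one brick
for `f2 = S ∘ Γ⁻¹ ∘ Th ∘ f₁` (899 #11058 (Q3)).
-/

set_option autoImplicit false
set_option linter.unusedSectionVars false
set_option linter.style.longLine false
set_option linter.unusedVariables false

open MeasureTheory Set Filter Topology Metric
open scoped NNReal ENNReal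

namespace Crest.Agent.R096.Bxs_627

open Crest.AnalysisR.VecCalc3 Crest.AnalysisR.Sobolev
open Crest.Agent.R096.Bsp_628 Crest.Agent.R96.Push_899 Crest.Agent.R96.En10_199
open Crest.Agent.R096.Osc_802 Crest.Agent.R096.VolC2_766 Crest.Agent.R96.Lu_538
open Crest.Agent.R096.Sel_766 Crest.Agent.R096.ThC6_766 Crest.Agent.R096.Toph_766
open Crest.Agent.R096.EaX_766 (cbx lin ExIn RatA)
open Crest.Agent.R096.Er_594 (D3 e3)
open Crest.Agent.R96.Str_520 (col)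
open Crest.Agent.R096.Rg3_766 (BB BB_low BB_norm BB_apply abs_det_le)

noncomputable section

/-- **the numbers**, any aspect ratio -/
theorem theta_ex2 (p : ℝ) (hp : 3 ≤ p) {κ1 γ0 l0 : ℝ} (hκ1 : 0 < κ1) (hγ : 0 < γ0) (hl0 : 0 < l0) :
    ∃ ca cb : ℝ, 0 < ca ∧ 0 < cb ∧ cb ≤ 1 ∧ ∀ (μ κ ε s lam : ℝ), 0 < μ → μ ≤ 1 → 0 ≤ κ →
      κ ≤ ca * μ ^ (p + 6) → 0 ≤ ε → ε ≤ cb * μ ^ (4 : ℝ) → 0 ≤ s → l0 ≤ lam →
      (2 / μ) ^ 3 * ((2 / (γ0 * μ)) ^ p *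
        (2 ^ p * ((3 * ε / μ) ^ p * (8 * (s / (2 * μ)) ^ 3) + 18 ^ p * (κ * (s / (2 * μ)) ^ 3)))) ≤
        κ1 * (lam * s) ^ 3 / 2 ^ (2 * p + 2) := by
  set C2 : ℝ := κ1 * l0 ^ 3 / 2 ^ (2 * p + 2) with hC2
  have hC2' : 0 < C2 := by positivity
  set C1 : ℝ := (2 / γ0) ^ p * 2 ^ p with hC1
  have hC1' : 0 < C1 := by positivity
  refine ⟨C2 / (2 * C1 * 18 ^ p), min 1 (C2 / (2 * C1 * (8 * 3 ^ p))), by positivity,
    lt_min one_pos (by positivity), min_le_left _ _, ?_⟩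
  intro μ κ ε s lam hμ hμ1 hκ0 hκ hε0 hε hs hlam
  have e1 : (2 / (γ0 * μ)) ^ p = (2 / γ0) ^ p / μ ^ p := by
    rw [← Real.div_rpow (by positivity) hμ.le, div_div]
  have e2 : (3 * ε / μ) ^ p = 3 ^ p * ε ^ p / μ ^ p := by
    rw [Real.div_rpow (by positivity) hμ.le, Real.mul_rpow (by norm_num) hε0]
  have hmp0 : 0 < μ ^ p := Real.rpow_pos_of_pos hμ p
  have hmp : μ ^ (p + 6) = μ ^ p * μ ^ 6 := by
    rw [Real.rpow_add hμ]
    congr 1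
    exact_mod_cast Real.rpow_natCast μ 6
  have key : (2 / μ) ^ 3 * ((2 / (γ0 * μ)) ^ p *
        (2 ^ p * ((3 * ε / μ) ^ p * (8 * (s / (2 * μ)) ^ 3) + 18 ^ p * (κ * (s / (2 * μ)) ^ 3)))) =
      (C1 * (8 * 3 ^ p) * (ε ^ p / (μ ^ p * μ ^ (p + 6))) + C1 * 18 ^ p * (κ / μ ^ (p + 6))) *
        s ^ 3 := by
    rw [e1, e2, hmp, hC1]
    field_simp
  rw [key]
  have h1 : C1 * 18 ^ p * (κ / μ ^ (p + 6)) ≤ C2 / 2 := by
    have h2 : κ / μ ^ (p + 6) ≤ C2 / (2 * C1 * 18 ^ p) := by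
      rw [div_le_iff₀ (Real.rpow_pos_of_pos hμ _)]
      exact hκ
    calc C1 * 18 ^ p * (κ / μ ^ (p + 6)) ≤ C1 * 18 ^ p * (C2 / (2 * C1 * 18 ^ p)) := by gcongr
      _ = C2 / 2 := by
        have : (0 : ℝ) < 18 ^ p := by positivity
        field_simp
  have h3 : C1 * (8 * 3 ^ p) * (ε ^ p / (μ ^ p * μ ^ (p + 6))) ≤ C2 / 2 := by
    set cb := min 1 (C2 / (2 * C1 * (8 * 3 ^ p))) with hcb
    have hcb0 : 0 < cb := lt_min one_pos (by positivity)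
    have hcb1 : cb ≤ 1 := min_le_left _ _
    have h4 : ε ^ p ≤ cb * (μ ^ p * μ ^ (p + 6)) := by
      calc ε ^ p ≤ (cb * μ ^ (4 : ℝ)) ^ p := Real.rpow_le_rpow hε0 hε (by linarith)
        _ = cb ^ p * (μ ^ (4 : ℝ)) ^ p := Real.mul_rpow hcb0.le (by positivity)
        _ ≤ cb * (μ ^ p * μ ^ (p + 6)) := by
          refine mul_le_mul ?_ ?_ (by positivity) hcb0.le
          · calc cb ^ p ≤ cb ^ (1 : ℝ) :=
                  Real.rpow_le_rpow_of_exponent_ge hcb0 hcb1 (by linarith)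
              _ = cb := Real.rpow_one _
          · rw [← Real.rpow_mul hμ.le, ← Real.rpow_add hμ]
            exact Real.rpow_le_rpow_of_exponent_ge hμ hμ1 (by linarith)
    have h5 : ε ^ p / (μ ^ p * μ ^ (p + 6)) ≤ cb := by
      rw [div_le_iff₀ (by positivity)]
      exact h4
    calc C1 * (8 * 3 ^ p) * (ε ^ p / (μ ^ p * μ ^ (p + 6)))
        ≤ C1 * (8 * 3 ^ p) * (C2 / (2 * C1 * (8 * 3 ^ p))) :=
          mul_le_mul_of_nonneg_left (h5.trans (min_le_right _ _)) (by positivity)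
      _ = C2 / 2 := by
        have : (0 : ℝ) < 3 ^ p := by positivity
        field_simp
  calc _ ≤ (C2 / 2 + C2 / 2) * s ^ 3 := by gcongr
    _ = κ1 * (l0 * s) ^ 3 / 2 ^ (2 * p + 2) := by rw [hC2]; ring
    _ ≤ κ1 * (lam * s) ^ 3 / 2 ^ (2 * p + 2) := by gcongr

/-- the diagonal map as a continuous linear map -/
def dgC (k : Fin 3) (g : ℝ) : R3 →L[ℝ] R3 :=
  LinearMap.toContinuousLinearMap
    { toFun := dgf k g
      map_add' := fun x y => by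
        ext i
        by_cases hi : i = k
        · subst hi
          rw [dgf_k, PiLp.add_apply, PiLp.add_apply, dgf_k, dgf_k]; ring
        · rw [dgf_ne g _ hi, PiLp.add_apply, PiLp.add_apply, dgf_ne g _ hi, dgf_ne g _ hi]
      map_smul' := fun c y => by
        ext i
        by_cases hi : i = k
        · subst hi
          rw [dgf_k, PiLp.smul_apply, RingHom.id_apply, PiLp.smul_apply, dgf_k, smul_eq_mul,
            smul_eq_mul]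
          ring
        · rw [dgf_ne g _ hi, PiLp.smul_apply, RingHom.id_apply, PiLp.smul_apply, dgf_ne g _ hi] }

theorem dgC_apply (k : Fin 3) (g : ℝ) (v : R3) : dgC k g v = dgf k g v := rfl

theorem BE_dg_low {k : Fin 3} {g : ℝ} (h0 : 0 < g) (h1 : g ≤ 1) (v : E3) :
    g * ‖v‖ ≤ ‖BE (dgC k g) v‖ := by
  have h2 : ‖v‖ ≤ g⁻¹ * ‖BE (dgC k g) v‖ := by
    rw [pi_norm_le_iff_of_nonneg (by positivity)]
    intro i
    have h3 := norm_le_pi_norm (BE (dgC k g) v) i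
    have h4 : ‖v i‖ ≤ g⁻¹ * ‖BE (dgC k g) v i‖ := by
      have e : BE (dgC k g) v i = dgf k g (P3 v) i := rfl
      rw [e]
      by_cases hi : i = k
      · subst hi
        rw [dgf_k, norm_mul, Real.norm_of_nonneg h0.le, ← mul_assoc, inv_mul_cancel₀ h0.ne', one_mul]
        exact le_of_eq rfl
      · rw [dgf_ne _ _ hi]
        exact le_mul_of_one_le_left (norm_nonneg _) ((one_le_inv₀ h0).2 h1)
    exact h4.trans (mul_le_mul_of_nonneg_left h3 (by positivity))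
  rw [inv_mul_eq_div, le_div_iff₀ h0] at h2
  linarith

theorem BE_dg_le {k : Fin 3} {g : ℝ} (h0 : 0 ≤ g) (h1 : g ≤ 1) (v : E3) :
    ‖BE (dgC k g) v‖ ≤ ‖v‖ := by
  rw [pi_norm_le_iff_of_nonneg (norm_nonneg _)]
  intro i
  have e : BE (dgC k g) v i = dgf k g (P3 v) i := rfl
  rw [e]
  by_cases hi : i = k
  · subst hi
    rw [dgf_k, norm_mul, Real.norm_of_nonneg h0]
    exact (mul_le_of_le_one_left (norm_nonneg _) h1).trans (norm_le_pi_norm v i)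
  · rw [dgf_ne _ _ hi]
    exact norm_le_pi_norm v i

/-- **`exIn_hol`: the exact core of one brick** for `f2 = S ∘ Γ⁻¹ ∘ Th ∘ f₁`, with the closeness to the
real affine map. -/
theorem exIn_hol' {p : ℝ} (hp : 3 ≤ p) {κ0 γ0 κ1 κ2 : ℝ} (hκ0 : 1 ≤ κ0) (hγ0 : 0 < γ0)
    (hκ1 : 0 < κ1) (hκ1' : κ1 ≤ 1 / 4) (hκ2' : κ2 < 1 / 4) :
    ∃ κ₁ ca cb : ℝ, 0 < κ₁ ∧ κ₁ ≤ 1 / 64 ∧ 0 < ca ∧ 0 < cb ∧
    ∀ {Ω Λ₁ : Set R3} {f₁ : R3 → R3} {G₁ : Fin 3 → R3 → R3} {β κ₁' : ℝ} {w μ κ δ : R3 → ℝ}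
      {th : R3 → R3} {ι : Type} {P : ι → R3} {R : ι → ℝ} {yc ξ : ι → R3} {Th : R3 ≃ₜ R3}
      {G' : Fin 3 → R3 → R3}, κ₁' ≤ κ₁ → IsOpen Ω → ContinuousOn f₁ Ω → Scale Ω μ →
      (∀ x ∈ Ω, κ x ≤ ca * μ x ^ (p + 6)) →
      HolN p Ω Λ₁ f₁ G₁ β κ₁' w μ κ δ th P R yc ξ Th G' →
    ∀ {k : Fin 3} {G L : ℝ} {S : R3 → R3} {χ : R3 → ℝ}, 1 ≤ G → (∀ y, 0 ≤ χ y) → (∀ y, χ y ≤ 1) →
      0 ≤ L → (∀ y y', |χ y' - χ y| ≤ L * ‖y' - y‖) →
    ∀ {G2 : Fin 3 → R3 → R3},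
      (∀ (U V : Set R3) (B : R3 →L[ℝ] R3) (ε : ℝ≥0), IsOpen U → U ⊆ Ω → IsOpen V →
        (∀ x ∈ U, Th (f₁ x) ∈ V) → LipschitzOnWith ε (fun y => S (dgf k G⁻¹ y) - B y) V →
        ∀ᵐ x, x ∈ U → ∀ i, ‖col G2 i x - B (col G' i x)‖ ≤ ε * ‖col G' i x‖) →
    ∀ (i : ι) {Q : Bx (Fin 3)} (hQ : Q.Pos) {γ ρ : ℝ}, 0 < R i → R i = Q.sz / (8 * κ0) →
      P i = dgf k G (P3 (ctr Q)) → γ0 ≤ γ → γ * G ≤ 1 + χ (P3 (ctr Q)) * (G - 1) →
      NearS k S χ G (P3 (ctr Q)) (R i / 16) ρ → R i / 16 < G * ρ →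
      G * L * (ρ + R i / 16) ≤ 1 / 2 → L * R i ≤ cb * μ (ξ i) ^ (4 : ℝ) →
    ∀ (o : E3) {u : ℝ}, 0 < u → ∀ {ε0 : ℝ}, 0 < ε0 →
    ∃ A : E3 ≃ᵃ[ℝ] E3,
      ExIn p (P3 ⁻¹' Ω) (e3 fun x => S (dgf k G⁻¹ (Th (f₁ x)))) (D3 G2) o u κ1 κ2 Q A
        (γ / (512 * κ0)) ∧
      ‖lin A - (BE (dgC k ((1 + χ (P3 (ctr Q)) * (G - 1)) / G))).comp (BB G₁ (ξ i))‖ ≤ ε0 ∧
      (∀ x, A x ∈ cbx Q ((1 + 2 * κ2) * (γ / (512 * κ0))) →
        P3 x ∈ Ω ∧ P3 x ∈ cube (ξ i) (4 * R i / μ (ξ i))) ∧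
      ∀ x, ‖A x - P3.symm (dgf k ((1 + χ (P3 (ctr Q)) * (G - 1)) / G)
        (Aff f₁ G₁ (ξ i) (P i - yc i) (P3 x) - P i) + P3 (ctr Q))‖ ≤ ε0 * (1 + ‖x‖) := by
  obtain ⟨ca, cb, hca, hcb, hcb1, hnum⟩ := theta_ex2 p hp (κ1 := κ1) (γ0 := γ0)
    (l0 := γ0 / (512 * κ0)) hκ1 hγ0 (by positivity)
  refine ⟨min (1 / 64) (κ1 * γ0 / 256), ca, min cb (κ1 * γ0), lt_min (by norm_num) (by positivity),
    min_le_left _ _, hca, lt_min hcb (by positivity), ?_⟩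
  intro Ω Λ₁ f₁ G₁ β κ₁' w μ κ δ th ι P R yc ξ Th G' hκ₁ hΩ hfc hμ hκ H k G L S χ hG χ0 χ1 hL0 hL
    G2 h816 i Q hQ γ ρ hRpos hR hP hγ hγG hS hrρ hGL hLR o u hu ε0 hε0
  have hp0 : 0 ≤ p := by linarith
  have hG0 : 0 < G := by linarith
  have hs := Bx.sz_pos hQ
  have hκ0' : 0 < κ0 := by linarith
  have hγp : 0 < γ := hγ0.trans_le hγ
  set q : R3 := P3 (ctr Q) with hq
  set σ : ℝ := 1 + χ q * (G - 1) with hσ
  have hσ1 : 1 ≤ σ := by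
    have := mul_nonneg (χ0 q) (sub_nonneg.2 hG)
    linarith
  have hσG : σ ≤ G := by
    have := mul_le_mul_of_nonneg_right (χ1 q) (sub_nonneg.2 hG)
    linarith
  set g : ℝ := σ / G with hgdef
  have hg0 : 0 < g := by positivity
  have hg1 : g ≤ 1 := (div_le_one hG0).2 hσG
  have hgγ : γ ≤ g := by rw [hgdef, le_div_iff₀ hG0]; exact hγG
  have hγ1 : γ ≤ 1 := hgγ.trans hg1
  have hg : g ≠ 0 := hg0.ne'
  set lam : ℝ := γ / (512 * κ0) with hlamdef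
  have hlam : 0 < lam := by positivity
  have hlam1 : lam ≤ 1 := by
    rw [hlamdef, div_le_one (by positivity)]; linarith
  have hszR : Q.sz = 8 * κ0 * R i := by
    rw [hR]; field_simp
  have hlR : lam * Q.sz = γ * R i / 64 := by
    rw [hszR, hlamdef]; field_simp; ring
  set t : ℝ := 2 * (lam * Q.sz) with ht
  have ht' : t = γ * R i / 32 := by rw [ht, hlR]; ring
  have ht0 : 0 ≤ t := by rw [ht']; positivity
  have htr : 2 * t ≤ R i / 16 := by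
    rw [ht']
    have : γ * R i ≤ 1 * R i := mul_le_mul_of_nonneg_right hγ1 hRpos.le
    linarith
  have h2 : 2 * G * t ≤ σ * (R i / 16) := by
    rw [ht']
    have := mul_le_mul_of_nonneg_right hγG hRpos.le
    calc 2 * G * (γ * R i / 32) = γ * G * R i / 16 := by ring
      _ ≤ σ * R i / 16 := by linarith
      _ = σ * (R i / 16) := by ring
  obtain ⟨c1, c2, c3, c4⟩ := hS.core hG χ0 χ1 hL hL0 (by positivity) hrρ ht0 h2
    ((mul_le_mul_of_nonneg_left (by linarith) (by positivity)).trans hGL) hg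
  rw [← hP] at c1 c2 c3 c4
  have hμi : 0 < μ (ξ i) := hμ.pos _ (H.ee i).1
  have hμ1 : μ (ξ i) ≤ 1 := hμ.le_one _
  have hAi : Gmat G₁ (ξ i) ∈ LM (μ (ξ i)) := (H.ee i).2.1
  have hμ4 : μ (ξ i) ^ (4 : ℝ) ≤ 1 := Real.rpow_le_one hμi.le hμ1 (by norm_num)
  have hμ4' : 0 ≤ μ (ξ i) ^ (4 : ℝ) := by positivity
  have hκ₁64 : κ₁' ≤ 1 / 64 := hκ₁.trans (min_le_left _ _)
  have hκ₁γ : κ₁' ≤ κ1 * γ0 / 256 := hκ₁.trans (min_le_right _ _)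
  have hLR1 : L * R i ≤ κ1 * γ0 := hLR.trans (by
    calc min cb (κ1 * γ0) * μ (ξ i) ^ (4 : ℝ) ≤ (κ1 * γ0) * 1 :=
          mul_le_mul (min_le_right _ _) hμ4 hμ4' (by positivity)
      _ = _ := mul_one _)
  have hLR2 : L * R i ≤ cb * μ (ξ i) ^ (4 : ℝ) := hLR.trans
    (mul_le_mul_of_nonneg_right (min_le_left _ _) hμ4')
  have hclose : L * (R i / 16) * (R i / 16) + κ₁' * R i ≤ κ1 / 2 * (lam * Q.sz) := by
    rw [hlR]
    have h3 : L * (R i / 16) * (R i / 16) ≤ κ1 * γ0 * R i / 256 := by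
      calc L * (R i / 16) * (R i / 16) = L * R i * R i / 256 := by ring
        _ ≤ κ1 * γ0 * R i / 256 := by gcongr
    have h4 : κ₁' * R i ≤ κ1 * γ0 / 256 * R i := mul_le_mul_of_nonneg_right hκ₁γ hRpos.le
    have h5 : κ1 * γ0 * R i ≤ κ1 * γ * R i := by gcongr
    linarith
  -- the real affine map
  set A₀ : R3 ≃ᵃ[ℝ] R3 := (affE f₁ G₁ (ξ i) (P i - yc i) hμi hAi).trans (dgA k g hg (P i) q)
    with hA₀
  have hC : Cori Ω (fun x => S (dgf k G⁻¹ (Th (f₁ x)))) A₀ Q lam (κ1 / 2) (1 / 4) := by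
    have h3 := core_comp (Om := Ω) (g := fun x => Th (f₁ x))
      (A := fun x => Aff f₁ G₁ (ξ i) (P i - yc i) x) (H := fun y => S (dgf k G⁻¹ y))
      (B := fun y => dgA k g hg (P i) q y) hQ (P := P i) (r := R i / 16) (κ' := κ₁' * R i)
      (ε := L * (R i / 16) * (R i / 16)) (t := t) (lam := lam) (κ1 := κ1 / 2) (κ2 := 1 / 4)
      (by
        have := mul_le_mul_of_nonneg_right hκ₁64 hRpos.le
        linarith)
      (fun x hx h3 => (H.miss i x hx h3).2)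
      (fun x h3 => by
        obtain ⟨h4, -, h5⟩ := H.nbd i x (h3.trans (by linarith))
        exact ⟨h4, h5⟩)
      (fun y hy => c1 y hy)
      (fun y y' => by rw [dgA_sub]; exact dgf_contr hg0.le hg1 _)
      (fun y hy => c3 y hy) (fun x _ hx => c4 _ hx) hlam (by norm_num) le_rfl (le_of_eq ht.symm)
      hclose
    exact h3
  have hCE : CoriE (P3 ⁻¹' Ω) (e3 fun x => S (dgf k G⁻¹ (Th (f₁ x)))) (a3 A₀) Q lam (κ1 / 2)
    (1 / 4) := hC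
  -- its linear part
  have hlin : lin (a3 A₀) = (BE (dgC k g)).comp (BB G₁ (ξ i)) := by
    ext1 v
    rw [lin_sub_apply, ContinuousLinearMap.comp_apply, BE_apply, BB_apply, P3.apply_symm_apply,
      a3_apply, a3_apply, ← map_sub, dgC_apply]
    have e1 : A₀ (P3 v) - A₀ (P3 0) = dgf k g (Aff f₁ G₁ (ξ i) (P i - yc i) (P3 v) -
        Aff f₁ G₁ (ξ i) (P i - yc i) (P3 0)) := dgA_sub k g hg (P i) q _ _
    rw [e1]
    congr 2
    rw [Aff, Aff, add_sub_add_right_eq_sub, add_sub_add_left_eq_sub, ← map_sub, map_zero,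
      sub_sub_sub_cancel_right, sub_zero]
  have hlow : ∀ v, γ0 * μ (ξ i) / 2 * ‖v‖ ≤ ‖lin (a3 A₀) v‖ := by
    intro v
    rw [hlin, ContinuousLinearMap.comp_apply]
    have h3 := BE_dg_low (k := k) hg0 hg1 (BB G₁ (ξ i) v)
    have h4 := BB_low hμi.le hAi v
    have h5 : γ0 ≤ g := hγ.trans hgγ
    calc γ0 * μ (ξ i) / 2 * ‖v‖ = γ0 * (μ (ξ i) / 2 * ‖v‖) := by ring
      _ ≤ g * ‖BB G₁ (ξ i) v‖ := mul_le_mul h5 h4 (by positivity) hg0.le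
      _ ≤ _ := h3
  have hup : ‖lin (a3 A₀)‖ ≤ 2 / μ (ξ i) := by
    rw [hlin]
    have h3 : ‖BE (dgC k g)‖ ≤ 1 := ContinuousLinearMap.opNorm_le_bound _ zero_le_one fun v => by
      rw [one_mul]; exact BE_dg_le hg0.le hg1 v
    have h4 := BB_norm hμi hAi
    refine (ContinuousLinearMap.opNorm_comp_le _ _).trans ?_
    calc ‖BE (dgC k g)‖ * ‖BB G₁ (ξ i)‖ ≤ 1 * (1 / (μ (ξ i) / 2)) :=
          mul_le_mul h3 h4 (norm_nonneg _) zero_le_one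
      _ = 2 / μ (ξ i) := by rw [one_mul, one_div_div]
  have hsymm : ‖lin (a3 A₀).symm‖ ≤ 2 / (γ0 * μ (ξ i)) := by
    refine ContinuousLinearMap.opNorm_le_bound _ (by positivity) fun v => ?_
    have h3 := hlow (lin (a3 A₀).symm v)
    have h4 : lin (a3 A₀) (lin (a3 A₀).symm v) = v := by
      have := congrArg (fun M : E3 →L[ℝ] E3 => M v) (lin_comp_symm (a3 A₀))
      simpa using this
    rw [h4] at h3
    rw [div_mul_eq_mul_div, le_div_iff₀ (by positivity)]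
    linarith
  -- localisation of the region
  have hsub : ∀ x : E3, x ∈ a3 A₀ ⁻¹' cbx Q ((1 + 2 * (1 / 4)) * lam) →
      P3 x ∈ Ω ∧ P3 x ∈ cube (ξ i) (4 * R i / μ (ξ i)) ∧ ‖Th (f₁ (P3 x)) - P i‖ < R i / 16 := by
    intro x hx
    have h3 : ‖a3 A₀ x - ctr Q‖ ≤ lam * Q.sz := by
      rw [pi_norm_le_iff_of_nonneg (by positivity)]
      intro j
      rw [Pi.sub_apply, Real.norm_eq_abs]
      have h4 : |a3 A₀ x j - ctr Q j| ≤ (1 + 2 * (1 / 4)) * lam * Q.side j / 2 := hx j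
      have h5 := Q.side_le_sz j
      have h6 := Bx.side_pos hQ j
      have h7 : lam * Q.side j ≤ lam * Q.sz := mul_le_mul_of_nonneg_left h5 hlam.le
      have h8 : 0 < lam * Q.side j := by positivity
      linarith
    have h9 : ‖A₀ (P3 x) - q‖ ≤ t := by
      have h3' : ‖P3.symm (A₀ (P3 x)) - ctr Q‖ ≤ lam * Q.sz := h3
      have h10 := norm_P3_le (P3.symm (A₀ (P3 x)) - ctr Q)
      rw [map_sub, P3.apply_symm_apply] at h10
      linarith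
    have h11 := c3 _ h9
    have h12 : ‖Aff f₁ G₁ (ξ i) (P i - yc i) (P3 x) - P i‖ ≤ R i / 32 :=
      le_trans h11 (by linarith)
    obtain ⟨h13, h14, h15⟩ := H.nbd i (P3 x) h12
    refine ⟨h13, h14, ?_⟩
    have e : Th (f₁ (P3 x)) - P i = (Th (f₁ (P3 x)) - Aff f₁ G₁ (ξ i) (P i - yc i) (P3 x)) +
      (Aff f₁ G₁ (ξ i) (P i - yc i) (P3 x) - P i) := by abel
    rw [e]
    refine (norm_add_le _ _).trans_lt ?_
    have := mul_le_mul_of_nonneg_right hκ₁64 hRpos.le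
    linarith
  -- the `L^p` clause
  set U : Set R3 := Ω ∩ f₁ ⁻¹' ball (yc i) (R i / 16) with hU
  have hUo : IsOpen U := hfc.isOpen_inter_preimage hΩ isOpen_ball
  set ε : ℝ≥0 := ⟨2 * L * (R i / 16), by positivity⟩ with hε
  have hεr : (ε : ℝ) = L * R i / 8 := by rw [hε]; change 2 * L * (R i / 16) = _; ring
  have hε0' : (0 : ℝ) ≤ ε := ε.2
  have hεcb : (ε : ℝ) ≤ cb * μ (ξ i) ^ (4 : ℝ) := by
    rw [hεr]
    have : 0 ≤ L * R i := by positivity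
    linarith
  have hε1 : (ε : ℝ) ≤ 1 := hεcb.trans (by
    calc cb * μ (ξ i) ^ (4 : ℝ) ≤ 1 * 1 := mul_le_mul hcb1 hμ4 hμ4' zero_le_one
      _ = 1 := mul_one 1)
  have hUT : ∀ x ∈ U, Th (f₁ x) = f₁ x + (P i - yc i) := by
    intro x hx
    have h3 : ‖f₁ x - yc i‖ ≤ R i / 16 := by
      have := hx.2
      rw [mem_preimage, mem_ball, dist_eq_norm] at this
      exact this.le
    rw [H.trans i _ h3]
    abel
  have hcl := h816 U (ball (P i) (R i / 16)) (dgC k g) ε hUo inter_subset_left isOpen_ball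
    (fun x hx => by
      have h3 := hx.2
      rw [mem_preimage, mem_ball, dist_eq_norm] at h3
      rw [mem_ball, dist_eq_norm, hUT x hx]
      have e : f₁ x + (P i - yc i) - P i = f₁ x - yc i := by abel
      rw [e]
      exact h3)
    (by
      apply LipschitzOnWith.of_dist_le_mul
      intro y hy y' hy'
      rw [dist_eq_norm, dist_eq_norm]
      rw [mem_ball, dist_eq_norm] at hy hy'
      have h3 := c2 y y' hy.le hy'.le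
      have e : S (dgf k G⁻¹ y) - dgC k g y - (S (dgf k G⁻¹ y') - dgC k g y') =
          (S (dgf k G⁻¹ y) - dgA k g hg (P i) q y) - (S (dgf k G⁻¹ y') - dgA k g hg (P i) q y') := by
        have h4 : ∀ z, dgA k g hg (P i) q z = dgC k g z - dgC k g (P i) + q := by
          intro z
          rw [← map_sub]
          rfl
        rw [h4, h4]
        abel
      rw [e]
      exact h3)
  set r : ℝ := 4 * R i / μ (ξ i) with hr
  have hr0 : 0 < r := by positivity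
  have hκξ : 0 ≤ κ (ξ i) := by
    have h1 := (H.good i).aff (ξ i) (mem_cube_self _ hr0.le) (ξ i) (mem_cube_self _ hr0.le)
    have h2 : 0 ≤ κ (ξ i) * r := (norm_nonneg _).trans h1
    by_contra hcon
    push Not at hcon
    nlinarith
  have hLP := lp_S (G2 := G2) (by linarith : (1 : ℝ) ≤ p) hμi hAi (H.good i) hr0
    (S := a3 A₀ ⁻¹' cbx Q ((1 + 2 * (1 / 4)) * lam)) (fun x hx => (hsub x hx).2.1) hUo
    (fun x hx => by
      obtain ⟨h3, -, h5⟩ := hsub x hx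
      refine ⟨h3, ?_⟩
      rw [mem_preimage, mem_ball, dist_eq_norm]
      have h6 := H.trans' i _ h5.le
      have h7 : f₁ (P3 x) - yc i = Th (f₁ (P3 x)) - P i := by
        conv_lhs => rw [h6]
        abel
      rw [h7]
      exact h5)
    (B := dgC k g) (fun v => dgf_contr hg0.le hg1 v) hε0' hε1
    (H.tr U (P i - yc i) hUo inter_subset_left hUT) hcl le_rfl
  rw [← hlin] at hLP
  have hrs : r ≤ Q.sz / (2 * μ (ξ i)) := by
    rw [hr, hR]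
    rw [div_le_div_iff₀ hμi (by positivity)]
    have h3 : 4 * (Q.sz / (8 * κ0)) * (2 * μ (ξ i)) = Q.sz * μ (ξ i) / κ0 := by
      field_simp; ring
    rw [h3, div_le_iff₀ hκ0']
    have : 0 < Q.sz * μ (ξ i) := by positivity
    nlinarith
  have hnumi := hnum (μ (ξ i)) (κ (ξ i)) ε Q.sz lam hμi hμ1 hκξ (hκ _ (H.ee i).1) hε0' hεcb hs.le
    (by rw [hlamdef]; gcongr)
  have hfin : ENNReal.ofReal |(lin (a3 A₀)).det| * ‖lin (a3 A₀).symm‖ₑ ^ p *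
      ∫⁻ x in a3 A₀ ⁻¹' cbx Q ((1 + 2 * (1 / 4)) * lam), ‖D3 G2 x - lin (a3 A₀)‖ₑ ^ p ≤
        ENNReal.ofReal (κ1 * (lam * Q.sz) ^ 3 / 2 ^ (2 * p + 2)) := by
    have h3 : |(lin (a3 A₀)).det| ≤ (2 / μ (ξ i)) ^ 3 := (abs_det_le _).trans (by gcongr)
    have h4 : ‖lin (a3 A₀).symm‖ₑ ^ p ≤ ENNReal.ofReal ((2 / (γ0 * μ (ξ i))) ^ p) := by
      rw [← ENNReal.ofReal_rpow_of_nonneg (by positivity) hp0]
      apply ENNReal.rpow_le_rpow _ hp0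
      rw [← ofReal_norm]
      exact ENNReal.ofReal_le_ofReal hsymm
    calc _ ≤ ENNReal.ofReal ((2 / μ (ξ i)) ^ 3) * ENNReal.ofReal ((2 / (γ0 * μ (ξ i))) ^ p) *
          ENNReal.ofReal (2 ^ p * ((3 * (ε : ℝ) / μ (ξ i)) ^ p * (8 * r ^ 3) +
            18 ^ p * (κ (ξ i) * r ^ 3))) :=
          mul_le_mul' (mul_le_mul' (ENNReal.ofReal_le_ofReal h3) h4) hLP
      _ = ENNReal.ofReal ((2 / μ (ξ i)) ^ 3 * ((2 / (γ0 * μ (ξ i))) ^ p *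
            (2 ^ p * ((3 * (ε : ℝ) / μ (ξ i)) ^ p * (8 * r ^ 3) + 18 ^ p * (κ (ξ i) * r ^ 3))))) := by
          rw [← ENNReal.ofReal_mul (by positivity), ← ENNReal.ofReal_mul (by positivity), mul_assoc]
      _ ≤ _ := by
          apply ENNReal.ofReal_le_ofReal
          refine le_trans ?_ hnumi
          gcongr
  -- rational map
  obtain ⟨A, hA1, hA2⟩ := exists_exIn (by linarith) o hu hQ hlam hlam1 (by positivity)
    (by linarith : κ1 / 2 < κ1) hκ2' hCE hfin (ε := ε0 / 3) (by positivity)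
  refine ⟨A, hA2, ?_, ?_, fun x => (hA1 x).trans (mul_le_mul_of_nonneg_right (by linarith)
    (by positivity))⟩
  · rw [← hlin]
    have := lin_near (by positivity : (0 : ℝ) ≤ ε0 / 3) hA1
    linarith
  · intro x hx
    obtain ⟨h3, h4⟩ := hA2.cor x (Or.inr hx)
    refine ⟨h3, ?_⟩
    have h5 : ‖P3.symm (S (dgf k G⁻¹ (Th (f₁ (P3 x))))) - ctr Q‖ ≤ lam * Q.sz := by
      rw [pi_norm_le_iff_of_nonneg (by positivity)]
      intro j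
      rw [Pi.sub_apply, Real.norm_eq_abs]
      have h6 : |A x j - ctr Q j| ≤ (1 + 2 * κ2) * lam * Q.side j / 2 := hx j
      have h7 : |P3.symm (S (dgf k G⁻¹ (Th (f₁ (P3 x))))) j - A x j| ≤ κ1 * (lam * Q.sz) := by
        have h8 := (norm_le_pi_norm (e3 (fun x => S (dgf k G⁻¹ (Th (f₁ x)))) x - A x) j).trans h4
        rwa [Pi.sub_apply, Real.norm_eq_abs] at h8
      have h9 := abs_sub_le (P3.symm (S (dgf k G⁻¹ (Th (f₁ (P3 x))))) j) (A x j) (ctr Q j)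
      have h10 := Q.side_le_sz j
      have h11 := Bx.side_pos hQ j
      have h12 : lam * Q.side j ≤ lam * Q.sz := mul_le_mul_of_nonneg_left h10 hlam.le
      have h13 : 0 < lam * Q.side j := by positivity
      have h14 : κ1 * (lam * Q.sz) ≤ 1 / 4 * (lam * Q.sz) := by gcongr
      have h15 : (1 + 2 * κ2) * (lam * Q.side j) ≤ (3 / 2) * (lam * Q.side j) := by
        apply mul_le_mul_of_nonneg_right _ h13.le
        linarith
      linarith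
    have h16 : ‖S (dgf k G⁻¹ (Th (f₁ (P3 x)))) - q‖ ≤ t := by
      have h17 := norm_P3_le (P3.symm (S (dgf k G⁻¹ (Th (f₁ (P3 x))))) - ctr Q)
      rw [map_sub, P3.apply_symm_apply] at h17
      linarith
    exact (H.miss i (P3 x) h3 (c4 _ h16)).1

/-- **`exIn_hol`: the exact core of one brick** for `f2 = S ∘ Γ⁻¹ ∘ Th ∘ f₁`. -/
theorem exIn_hol {p : ℝ} (hp : 3 ≤ p) {κ0 γ0 κ1 κ2 : ℝ} (hκ0 : 1 ≤ κ0) (hγ0 : 0 < γ0)
    (hκ1 : 0 < κ1) (hκ1' : κ1 ≤ 1 / 4) (hκ2' : κ2 < 1 / 4) :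
    ∃ κ₁ ca cb : ℝ, 0 < κ₁ ∧ κ₁ ≤ 1 / 64 ∧ 0 < ca ∧ 0 < cb ∧
    ∀ {Ω Λ₁ : Set R3} {f₁ : R3 → R3} {G₁ : Fin 3 → R3 → R3} {β κ₁' : ℝ} {w μ κ δ : R3 → ℝ}
      {th : R3 → R3} {ι : Type} {P : ι → R3} {R : ι → ℝ} {yc ξ : ι → R3} {Th : R3 ≃ₜ R3}
      {G' : Fin 3 → R3 → R3}, κ₁' ≤ κ₁ → IsOpen Ω → ContinuousOn f₁ Ω → Scale Ω μ →
      (∀ x ∈ Ω, κ x ≤ ca * μ x ^ (p + 6)) →
      HolN p Ω Λ₁ f₁ G₁ β κ₁' w μ κ δ th P R yc ξ Th G' →
    ∀ {k : Fin 3} {G L : ℝ} {S : R3 → R3} {χ : R3 → ℝ}, 1 ≤ G → (∀ y, 0 ≤ χ y) → (∀ y, χ y ≤ 1) →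
      0 ≤ L → (∀ y y', |χ y' - χ y| ≤ L * ‖y' - y‖) →
    ∀ {G2 : Fin 3 → R3 → R3},
      (∀ (U V : Set R3) (B : R3 →L[ℝ] R3) (ε : ℝ≥0), IsOpen U → U ⊆ Ω → IsOpen V →
        (∀ x ∈ U, Th (f₁ x) ∈ V) → LipschitzOnWith ε (fun y => S (dgf k G⁻¹ y) - B y) V →
        ∀ᵐ x, x ∈ U → ∀ i, ‖col G2 i x - B (col G' i x)‖ ≤ ε * ‖col G' i x‖) →
    ∀ (i : ι) {Q : Bx (Fin 3)} (hQ : Q.Pos) {γ ρ : ℝ}, 0 < R i → R i = Q.sz / (8 * κ0) →
      P i = dgf k G (P3 (ctr Q)) → γ0 ≤ γ → γ * G ≤ 1 + χ (P3 (ctr Q)) * (G - 1) →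
      NearS k S χ G (P3 (ctr Q)) (R i / 16) ρ → R i / 16 < G * ρ →
      G * L * (ρ + R i / 16) ≤ 1 / 2 → L * R i ≤ cb * μ (ξ i) ^ (4 : ℝ) →
    ∀ (o : E3) {u : ℝ}, 0 < u → ∀ {ε0 : ℝ}, 0 < ε0 →
    ∃ A : E3 ≃ᵃ[ℝ] E3,
      ExIn p (P3 ⁻¹' Ω) (e3 fun x => S (dgf k G⁻¹ (Th (f₁ x)))) (D3 G2) o u κ1 κ2 Q A
        (γ / (512 * κ0)) ∧
      ‖lin A - (BE (dgC k ((1 + χ (P3 (ctr Q)) * (G - 1)) / G))).comp (BB G₁ (ξ i))‖ ≤ ε0 ∧
      ∀ x, A x ∈ cbx Q ((1 + 2 * κ2) * (γ / (512 * κ0))) →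
        P3 x ∈ Ω ∧ P3 x ∈ cube (ξ i) (4 * R i / μ (ξ i)) := by
  obtain ⟨κ₁, ca, cb, h1, h2, h3, h4, h5⟩ := exIn_hol' hp hκ0 hγ0 hκ1 hκ1' hκ2'
  refine ⟨κ₁, ca, cb, h1, h2, h3, h4, ?_⟩
  intro Ω Λ₁ f₁ G₁ β κ₁' w μ κ δ th ι P R yc ξ Th G' a1 a2 a3 a4 a5 a6 k G L S χ a7 a8 a9 a10 a11
    G2 a12 i Q hQ γ ρ b1 b2 b3 b4 b5 b6 b7 b8 b9 o u hu ε0 hε0
  obtain ⟨A, c1, c2, c3, -⟩ := h5 a1 a2 a3 a4 a5 a6 a7 a8 a9 a10 a11 a12 i hQ b1 b2 b3 b4 b5 b6 b7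
    b8 b9 o hu hε0
  exact ⟨A, c1, c2, c3⟩

/-- **`exIn_hol3`: the exact core of one brick** with the clauses of 764's `blocks3`. -/
theorem exIn_hol3 {p : ℝ} (hp : 3 ≤ p) {κ0 γ0 κ1 κ2 : ℝ} (hκ0 : 1 ≤ κ0) (hγ0 : 0 < γ0)
    (hκ1 : 0 < κ1) (hκ1' : κ1 ≤ 1 / 4) (hκ2 : 0 ≤ κ2) (hκ2' : κ2 < 1 / 4) :
    ∃ κ₁ ca cb : ℝ, 0 < κ₁ ∧ κ₁ ≤ 1 / 64 ∧ 0 < ca ∧ 0 < cb ∧
    ∀ {Ω Λ₁ : Set R3} {f₁ : R3 → R3} {G₁ : Fin 3 → R3 → R3} {β κ₁' : ℝ} {w μ κ δ : R3 → ℝ}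
      {th : R3 → R3} {ι : Type} {P : ι → R3} {R : ι → ℝ} {yc ξ : ι → R3} {Th : R3 ≃ₜ R3}
      {G' : Fin 3 → R3 → R3}, κ₁' ≤ κ₁ → IsOpen Ω → ContinuousOn f₁ Ω → Scale Ω μ →
      (∀ x ∈ Ω, κ x ≤ ca * μ x ^ (p + 6)) →
      HolN p Ω Λ₁ f₁ G₁ β κ₁' w μ κ δ th P R yc ξ Th G' →
    ∀ {k : Fin 3} {G L : ℝ} {S : R3 → R3} {χ : R3 → ℝ}, 1 ≤ G → (∀ y, 0 ≤ χ y) → (∀ y, χ y ≤ 1) →
      0 ≤ L → (∀ y y', |χ y' - χ y| ≤ L * ‖y' - y‖) →
    ∀ {G2 : Fin 3 → R3 → R3},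
      (∀ (U V : Set R3) (B : R3 →L[ℝ] R3) (ε : ℝ≥0), IsOpen U → U ⊆ Ω → IsOpen V →
        (∀ x ∈ U, Th (f₁ x) ∈ V) → LipschitzOnWith ε (fun y => S (dgf k G⁻¹ y) - B y) V →
        ∀ᵐ x, x ∈ U → ∀ i, ‖col G2 i x - B (col G' i x)‖ ≤ ε * ‖col G' i x‖) →
    ∀ (i : ι) {Q : Bx (Fin 3)} (hQ : Q.Pos), (∀ j, Q.sz ≤ κ0 * Q.side j) →
    ∀ {γ ρ : ℝ}, 0 < R i → R i = Q.sz / (8 * κ0) →
      P i = dgf k G (P3 (ctr Q)) → γ0 ≤ γ → γ * G ≤ 1 + χ (P3 (ctr Q)) * (G - 1) →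
      NearS k S χ G (P3 (ctr Q)) (R i / 16) ρ → R i / 16 < G * ρ →
      G * L * (ρ + R i / 16) ≤ 1 / 2 → L * R i ≤ cb * μ (ξ i) ^ (4 : ℝ) →
    ∀ (o : E3) {u : ℝ}, 0 < u →
    ∃ A : E3 ≃ᵃ[ℝ] E3,
      ExIn p (P3 ⁻¹' Ω) (e3 fun x => S (dgf k G⁻¹ (Th (f₁ x)))) (D3 G2) o u κ1 κ2 Q A
        (γ / (512 * κ0)) ∧
      (∀ x, A x ∈ cbx Q ((1 + 2 * κ2) * (γ / (512 * κ0))) →
        P3 x ∈ Ω ∧ P3 x ∈ cube (ξ i) (4 * R i / μ (ξ i))) ∧
      (∀ x : E3, ‖Aff f₁ G₁ (ξ i) (P i - yc i) (P3 x) - P i‖ ≤ γ0 / (2048 * κ0 ^ 2) * Q.sz →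
        A x ∈ cbx Q ((1 + 2 * κ2) * (γ / (512 * κ0)))) ∧
      ‖lin A‖ ≤ 3 * ‖Gmat G₁ (ξ i)‖ := by
  obtain ⟨κ₁, ca, cb, h1, h2, h3, h4, h5⟩ := exIn_hol' hp hκ0 hγ0 hκ1 hκ1' hκ2'
  refine ⟨κ₁, ca, cb, h1, h2, h3, h4, ?_⟩
  intro Ω Λ₁ f₁ G₁ β κ₁' w μ κ δ th ι P R yc ξ Th G' a1 a2 a3 a4 a5 a6 k G L S χ a7 a8 a9 a10 a11
    G2 a12 i Q hQ asp γ ρ b1 b2 b3 b4 b5 b6 b7 b8 b9 o u hu
  have hμi : 0 < μ (ξ i) := a4.pos _ (a6.ee i).1
  have hAi : Gmat G₁ (ξ i) ∈ LM (μ (ξ i)) := (a6.ee i).2.1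
  have hκ0' : 0 < κ0 := by linarith
  have hs := Bx.sz_pos hQ
  have hG0 : 0 < G := by linarith
  set q : R3 := P3 (ctr Q) with hq
  set g : ℝ := (1 + χ q * (G - 1)) / G with hgdef
  have hg0 : 0 ≤ g := by
    have := mul_nonneg (a8 q) (sub_nonneg.2 a7)
    rw [hgdef]; positivity
  have hg1 : g ≤ 1 := by
    rw [hgdef, div_le_one hG0]
    have := mul_le_mul_of_nonneg_right (a9 q) (sub_nonneg.2 a7)
    linarith
  -- the region is bounded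
  set c : R3 := Aff f₁ G₁ (ξ i) (P i - yc i) (ξ i) with hc
  set M : ℝ := ‖ξ i‖ + (Q.sz + ‖P i - c‖) / μ (ξ i) with hM
  have hM0 : 0 ≤ M := by positivity
  have hbd : ∀ x : E3, ‖Aff f₁ G₁ (ξ i) (P i - yc i) (P3 x) - P i‖ ≤ Q.sz → ‖x‖ ≤ M := by
    intro x hx
    have e1 : Gmat G₁ (ξ i) (P3 x - ξ i) =
        (Aff f₁ G₁ (ξ i) (P i - yc i) (P3 x) - P i) + (P i - c) := by
      rw [hc, Aff, Aff, sub_self, map_zero]; abel
    have e2 := (hAi (P3 x - ξ i)).1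
    rw [e1] at e2
    have e3 := e2.trans ((norm_add_le _ _).trans (add_le_add hx le_rfl))
    have e4 : ‖P3 x - ξ i‖ ≤ (Q.sz + ‖P i - c‖) / μ (ξ i) := by
      rw [le_div_iff₀ hμi]; linarith
    have e5 : ‖P3 x‖ ≤ M := by
      have e6 : P3 x = ξ i + (P3 x - ξ i) := by abel
      rw [e6]
      exact (norm_add_le _ _).trans (add_le_add le_rfl e4)
    have e7 := norm_P3_symm_le (P3 x)
    rw [P3.symm_apply_apply] at e7
    exact e7.trans e5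
  set θ : ℝ := γ0 / (2048 * κ0 ^ 2) with hθ
  have hθ0 : 0 < θ := by positivity
  set ε0 : ℝ := min (θ * Q.sz / (1 + M)) (μ (ξ i)) with hε0
  have hε0' : 0 < ε0 := lt_min (by positivity) hμi
  obtain ⟨A, c1, c2, c3, c4⟩ := h5 a1 a2 a3 a4 a5 a6 a7 a8 a9 a10 a11 a12 i hQ b1 b2 b3 b4 b5 b6 b7
    b8 b9 o hu hε0'
  have hγg : γ ≤ g := by rw [hgdef, le_div_iff₀ hG0]; exact b5
  have hγ1 : γ ≤ 1 := hγg.trans hg1
  refine ⟨A, c1, c3, ?_, ?_⟩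
  · intro x hx
    have hθ1 : θ ≤ 1 := by
      rw [hθ, div_le_one (by positivity)]
      have : 1 ≤ κ0 ^ 2 := one_le_pow₀ hκ0
      linarith
    have h6 := hbd x (hx.trans (by
      calc θ * Q.sz ≤ 1 * Q.sz := mul_le_mul_of_nonneg_right hθ1 hs.le
        _ = Q.sz := one_mul _))
    have h7 : ‖A x - P3.symm (dgf k g (Aff f₁ G₁ (ξ i) (P i - yc i) (P3 x) - P i) + q)‖ ≤
        θ * Q.sz := by
      refine (c4 x).trans ?_
      calc ε0 * (1 + ‖x‖) ≤ θ * Q.sz / (1 + M) * (1 + M) :=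
            mul_le_mul (min_le_left _ _) (by linarith) (by positivity) (by positivity)
        _ = θ * Q.sz := div_mul_cancel₀ _ (by positivity)
    have h8 : ‖P3.symm (dgf k g (Aff f₁ G₁ (ξ i) (P i - yc i) (P3 x) - P i) + q) - ctr Q‖ ≤
        θ * Q.sz := by
      have e : P3.symm (dgf k g (Aff f₁ G₁ (ξ i) (P i - yc i) (P3 x) - P i) + q) - ctr Q =
          P3.symm (dgf k g (Aff f₁ G₁ (ξ i) (P i - yc i) (P3 x) - P i)) := by
        rw [map_add, hq, P3.symm_apply_apply, add_sub_cancel_right]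
      rw [e]
      exact (norm_P3_symm_le _).trans ((dgf_contr hg0 hg1 _).trans hx)
    have h9 : ‖A x - ctr Q‖ ≤ 2 * (θ * Q.sz) := by
      rw [← sub_add_sub_cancel (A x)
        (P3.symm (dgf k g (Aff f₁ G₁ (ξ i) (P i - yc i) (P3 x) - P i) + q)) (ctr Q)]
      refine (norm_add_le _ _).trans ?_
      linarith
    intro j
    have h10 := (norm_le_pi_norm (A x - ctr Q) j).trans h9
    rw [Pi.sub_apply, Real.norm_eq_abs] at h10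
    refine h10.trans ?_
    have h11 := asp j
    have h12 := Bx.side_pos hQ j
    have h13 : 2 * (θ * Q.sz) ≤ 2 * (θ * (κ0 * Q.side j)) := by gcongr
    have h14 : 2 * (θ * (κ0 * Q.side j)) = γ0 / (512 * κ0) * Q.side j / 2 := by
      rw [hθ]; field_simp; ring
    have h15 : γ0 / (512 * κ0) * Q.side j / 2 ≤ (1 + 2 * κ2) * (γ / (512 * κ0)) * Q.side j / 2 := by
      have h16 : γ0 / (512 * κ0) ≤ γ / (512 * κ0) := by gcongr
      have h17 : 0 ≤ γ / (512 * κ0) := by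
        have := hγ0.trans_le b4
        positivity
      have h18 : γ / (512 * κ0) ≤ (1 + 2 * κ2) * (γ / (512 * κ0)) := by nlinarith
      have h19 := mul_le_mul_of_nonneg_right (h16.trans h18) h12.le
      linarith
    linarith
  · have h6 : μ (ξ i) ≤ ‖Gmat G₁ (ξ i)‖ := by
      have e1 := (hAi (EuclideanSpace.single k (1 : ℝ))).1
      have e2 := (Gmat G₁ (ξ i)).le_opNorm (EuclideanSpace.single k (1 : ℝ))
      have e3 : ‖(EuclideanSpace.single k (1 : ℝ) : R3)‖ = 1 := by simp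
      rw [e3, mul_one] at e1 e2
      exact e1.trans e2
    have h7 : ‖(BE (dgC k g)).comp (BB G₁ (ξ i))‖ ≤ 2 * ‖Gmat G₁ (ξ i)‖ := by
      refine ContinuousLinearMap.opNorm_le_bound _ (by positivity) fun v => ?_
      rw [ContinuousLinearMap.comp_apply]
      refine (BE_dg_le hg0 hg1 _).trans ?_
      rw [BB_apply]
      refine (norm_P3_symm_le _).trans ?_
      refine ((Gmat G₁ (ξ i)).le_opNorm _).trans ?_
      have := norm_P3_le v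
      calc ‖Gmat G₁ (ξ i)‖ * ‖P3 v‖ ≤ ‖Gmat G₁ (ξ i)‖ * (2 * ‖v‖) := by gcongr
        _ = 2 * ‖Gmat G₁ (ξ i)‖ * ‖v‖ := by ring
    have h8 : ‖lin A‖ ≤ ‖lin A - (BE (dgC k g)).comp (BB G₁ (ξ i))‖ +
        ‖(BE (dgC k g)).comp (BB G₁ (ξ i))‖ := by
      have := norm_add_le (lin A - (BE (dgC k g)).comp (BB G₁ (ξ i)))
        ((BE (dgC k g)).comp (BB G₁ (ξ i)))
      rwa [sub_add_cancel] at this
    have h9 : ε0 ≤ μ (ξ i) := min_le_right _ _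
    linarith

end

end Crest.Agent.R096.Bxs_627
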