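import Crest.Agent.R096.Bxs9_627
import Crest.Agent.R096.Mbf_337

/-!
Row 96 (S0127), helper627.  BOXES, part 10: `Exact` and `Cores` (all bricks exact) of the black box
`Mbf_337` from the core statement `CoriE`.
-/

set_option autoImplicit false
set_option linter.unusedSectionVars false
set_option linter.style.longLine false
set_option linter.unusedVariables false

open MeasureTheory Set Filter Topology Metric
open scoped ENNReal NNReal

namespace Crest.Agent.R096.Bxs_627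

open Crest.AnalysisR.VecCalc3 Crest.AnalysisR.Sobolev
open Crest.Agent.R096.Bsp_628 Crest.Agent.R96.Push_899 Crest.Agent.R96.En10_199
open Crest.Agent.R096.Brk5_582 Crest.Agent.R096.Msh_715 Crest.Agent.R096.EaX_766

noncomputable section

variable {La : Set E3} {F : Set (Bx (Fin 3))} {δ κ0 R c0 : ℝ}

lemma mem_cbx_iff {Q : Bx (Fin 3)} {lam : ℝ} {y : E3} :
    y ∈ cbx Q lam ↔ ∀ k, zz Q lam k + lam * Q.lo k ≤ y k ∧ y k ≤ zz Q lam k + lam * Q.hi k := by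
  refine forall_congr' fun k => ?_
  rw [zz_lo, zz_hi, abs_le]
  constructor <;> rintro ⟨h1, h2⟩ <;> constructor <;> linarith

/-- **`Mbf_337.Exact`** for a brick of `fD`, from `CoriE`. -/
theorem CoriE.exactM (bf : BoxFoam La F δ κ0) (cmp : Cmp F R) (hκ : 1 ≤ κ0) (hc : 0 < c0)
    (hc2 : c0 * κ0 ≤ 1) (lam : F → ℝ) (hl : ∀ c, c0 ≤ lam c) (hl1 : ∀ c, lam c < 1)
    {Om : Set E3} {f : E3 → E3} {κ1 κ2 κ2' : ℝ} (h0 : 0 ≤ κ2) (h2 : κ2 ≤ 1 / 4) (hκ1 : 0 ≤ κ1)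
    (hκ2' : 0 ≤ κ2') (hκ12 : κ1 * κ0 ≤ κ2) (hκ12' : κ1 * κ0 ≤ κ2')
    {ι : Type} {T : Tiling Om ι} {c : F} {i : ι} {A : E3 ≃ᵃ[ℝ] E3}
    (hlκ : (1 / 2 + κ2') * lam c < 1 / 2)
    (hcor : CoriE Om f A c.1 (lam c) κ1 κ2)
    (htile : P (T.H i) = A ⁻¹' cbx c.1 (lam c)) :
    Mbf_337.Exact (fD bf cmp hκ hc hc2 lam hl hl1) T f κ1 κ2 c i A (lam c) (zz c.1 (lam c)) := by
  have hpos := bf.pos _ c.2
  have hlc : 0 < lam c := hc.trans_le (hl c)
  have hk : ∀ t : ℝ, κ1 * κ0 ≤ t → ∀ k, κ1 * (lam c * c.1.sz) ≤ t * (lam c * c.1.side k) := by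
    intro t ht k
    have h3 := bf.asp _ c.2 k
    have h4 : 0 ≤ lam c * c.1.side k := (mul_pos hlc (Bx.side_pos hpos k)).le
    calc κ1 * (lam c * c.1.sz) ≤ κ1 * (lam c * (κ0 * c.1.side k)) := by gcongr
      _ = κ1 * κ0 * (lam c * c.1.side k) := by ring
      _ ≤ t * (lam c * c.1.side k) := mul_le_mul_of_nonneg_right ht h4
  have hcl := cl_nbd_miss hpos hlc h2 (hk _ hκ12) hcor
  have htile' : ∀ x, x ∈ P (T.H i) ↔ ∀ k, zz c.1 (lam c) k + lam c * c.1.lo k ≤ A x k ∧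
      A x k ≤ zz c.1 (lam c) k + lam c * c.1.hi k := fun x => by
    rw [htile, mem_preimage, mem_cbx_iff]
  have hcor0 : CoriE Om f A c.1 (lam c) κ1 (min κ2 κ2') := by
    rintro x (h | h)
    · exact hcor x (Or.inl h)
    · refine hcor x (Or.inr fun k => (h k).trans ?_)
      have h4 : 0 ≤ lam c * c.1.side k := (mul_pos hlc (Bx.side_pos hpos k)).le
      exact mul_le_mul_of_nonneg_right (by have := min_le_left κ2 κ2'; linarith) h4
  exact
    { lam0 := hlc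
      lam1 := hl1 c
      box_in := cl_box_in hpos (hl1 c)
      hole := cl_hole hpos hlc h2
      ray := fun y hy hy' => pus_ray hpos hlc (hl1 c) y hy hy'
      tile := by rw [htile]; ext x; rw [mem_preimage, mem_cbx_iff]; rfl
      nbd := fun x hx => ⟨(hcl.1 x hx).1, fun _ => (hcl.1 x hx).2⟩
      inside := fun x hx k => hcor0.sub hpos hlc (le_min h0 hκ2')
        (fun k => by
          refine (hk (min κ2 κ2') (le_min hκ12 hκ12') k))
        (lt_of_le_of_lt (mul_le_mul_of_nonneg_right (by have := min_le_right κ2 κ2'; linarith)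
          hlc.le) hlκ) x ((htile' x).1 hx) k
      miss := fun x hx hxt => hcl.2 x hx (fun h => hxt ((htile' x).2 h)) }

/-- **`Mbf_337.Cores`, all bricks exact.** -/
theorem coresM (bf : BoxFoam La F δ κ0) (cmp : Cmp F R) (hκ : 1 ≤ κ0) (hc : 0 < c0)
    (hc2 : c0 * κ0 ≤ 1) (lam : F → ℝ) (hl : ∀ c, c0 ≤ lam c) (hl1 : ∀ c, lam c < 1)
    {Om : Set E3} {f : E3 → E3} {κ1 κ2 κ2' : ℝ} (h0 : 0 ≤ κ2) (h2 : κ2 ≤ 1 / 4) (hκ1 : 0 ≤ κ1)
    (hκ2' : 0 ≤ κ2') (hκ12 : κ1 * κ0 ≤ κ2) (hκ12' : κ1 * κ0 ≤ κ2')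
    {ι : Type} {T : Tiling Om ι} {ct : F → ι} (hct : Function.Injective ct) {A : F → E3 ≃ᵃ[ℝ] E3}
    (hlκ : ∀ c, (1 / 2 + κ2') * lam c < 1 / 2)
    (hcor : ∀ c, CoriE Om f (A c) c.1 (lam c) κ1 κ2)
    (htile : ∀ c, P (T.H (ct c)) = A c ⁻¹' cbx c.1 (lam c)) :
    Mbf_337.Cores (fD bf cmp hκ hc hc2 lam hl hl1) T f κ1 κ2 univ (fun c => {ct c})
      (fun c => {ct c}) (fun c => {ct c}) ct A lam (fun c => zz c.1 (lam c)) (fun _ x => x)
      (fun _ _ => 0) where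
  disj c c' h := by
    rw [disjoint_singleton]
    exact fun e => h (hct e)
  one _ _ := ⟨rfl, rfl, rfl⟩
  exact_ c _ := (hcor c).exactM bf cmp hκ hc hc2 lam hl hl1 h0 h2 hκ1 hκ2' hκ12 hκ12' (hlκ c)
    (htile c)
  tiny c h := absurd (mem_univ c) h

end

end Crest.Agent.R096.Bxs_627
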