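import Crest.Agent.R096.Bxs1_627

/-!
Row 96 (S0127), helper627.  BOXES, part 2: the clauses of `Exact` (SkC1_961) for one brick.
-/

set_option autoImplicit false
set_option linter.unusedSectionVars false
set_option linter.style.longLine false

open Set Filter Topology Metric

namespace Crest.Agent.R096.Bxs_627

open Crest.Agent.R096.Bsp_628 Crest.Agent.R96.Push_899

noncomputable section

abbrev E3 : Type := Fin 3 → ℝ

/-- a brick as a box of 899 -/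
def qb (Q : Bx (Fin 3)) (hQ : Q.Pos) : Box (Fin 3) := ⟨Q.lo, Q.hi, fun i => (hQ i).le⟩

lemma qb_W (Q : Bx (Fin 3)) (hQ : Q.Pos) (k : Fin 3) : (qb Q hQ).W k = Q.side k := rfl

/-- the translation vector of the homothetic box with the same centre -/
def zz (Q : Bx (Fin 3)) (lam : ℝ) : E3 := fun k => (1 - lam) * ctr Q k

/-- the homothetic box with the same centre -/
def cb (Q : Bx (Fin 3)) (hQ : Q.Pos) (lam : ℝ) (hl : 0 ≤ lam) : Box (Fin 3) :=
  hb (qb Q hQ) lam hl (zz Q lam)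

lemma zz_lo (Q : Bx (Fin 3)) (lam : ℝ) (k : Fin 3) :
    zz Q lam k + lam * Q.lo k = ctr Q k - lam * Q.side k / 2 := by
  simp only [zz, ctr, Bx.side]; ring

lemma zz_hi (Q : Bx (Fin 3)) (lam : ℝ) (k : Fin 3) :
    zz Q lam k + lam * Q.hi k = ctr Q k + lam * Q.side k / 2 := by
  simp only [zz, ctr, Bx.side]; ring

lemma cb_lo (Q : Bx (Fin 3)) (hQ : Q.Pos) {lam : ℝ} (hl : 0 ≤ lam) (k : Fin 3) :
    (cb Q hQ lam hl).lo k = ctr Q k - lam * Q.side k / 2 := zz_lo Q lam k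

lemma cb_hi (Q : Bx (Fin 3)) (hQ : Q.Pos) {lam : ℝ} (hl : 0 ≤ lam) (k : Fin 3) :
    (cb Q hQ lam hl).hi k = ctr Q k + lam * Q.side k / 2 := zz_hi Q lam k

lemma mem_cb {Q : Bx (Fin 3)} {hQ : Q.Pos} {lam : ℝ} {hl : 0 ≤ lam} {y : E3} :
    y ∈ (cb Q hQ lam hl).S ↔ ∀ k, |y k - ctr Q k| ≤ lam * Q.side k / 2 := by
  have h1 : y ∈ (cb Q hQ lam hl).S ↔
      ∀ k, (cb Q hQ lam hl).lo k ≤ y k ∧ y k ≤ (cb Q hQ lam hl).hi k := Iff.rfl
  rw [h1]
  refine forall_congr' fun k => ?_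
  rw [cb_lo, cb_hi, abs_le]
  constructor <;> rintro ⟨h2, h3⟩ <;> constructor <;> linarith

/-- the core box is a core in the sense of `Shape` -/
theorem shape_cb {Q : Bx (Fin 3)} (hQ : Q.Pos) {κ0 lam c0 : ℝ}
    (asp : ∀ i, Q.sz ≤ κ0 * Q.side i) (hl : 0 < lam) (hl1 : lam < 1) (hc : 0 < c0) (hcl : c0 ≤ lam)
    (hc2 : c0 * (2 * κ0) ≤ 1 - lam) :
    Shape (∅ : Finset (Fin 3)) c0 0 Q.sz (qb Q hQ) (cb Q hQ lam hl.le) := by
  have hs := Bx.sz_pos hQ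
  have key : ∀ k, c0 * Q.sz ≤ (1 - lam) * Q.side k / 2 := by
    intro k
    have h1 := asp k
    have h2 := Bx.side_pos hQ k
    have h3 : c0 * Q.sz ≤ c0 * (κ0 * Q.side k) := mul_le_mul_of_nonneg_left h1 hc.le
    have h4 : c0 * (2 * κ0) * Q.side k ≤ (1 - lam) * Q.side k := mul_le_mul_of_nonneg_right hc2 h2.le
    linarith
  have key2 : ∀ k, (1 - lam) * Q.side k / 2 ≤ Q.sz := by
    intro k
    have h1 := Q.side_le_sz k
    have h2 := Bx.side_pos hQ k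
    nlinarith
  have e1 : ∀ k, (cb Q hQ lam hl.le).lo k - (qb Q hQ).lo k = (1 - lam) * Q.side k / 2 := by
    intro k
    rw [cb_lo]
    have : (qb Q hQ).lo k = Q.lo k := rfl
    rw [this, ← ctr_lo Q k]; ring
  have e2 : ∀ k, (qb Q hQ).hi k - (cb Q hQ lam hl.le).hi k = (1 - lam) * Q.side k / 2 := by
    intro k
    rw [cb_hi]
    have : (qb Q hQ).hi k = Q.hi k := rfl
    rw [this, ← ctr_hi Q k]; ring
  refine ⟨hc, by linarith, hs, le_rfl, fun k => Bx.side_pos hQ k, fun k => ?_, fun k => ?_, fun k => ?_,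
    fun k => ?_, fun k => ?_, fun k hk => absurd hk (Finset.notMem_empty _)⟩
  · rw [e1]; exact key k
  · rw [e1]; exact key2 k
  · rw [e2]; exact key k
  · rw [e2]; exact key2 k
  · rw [cb, hb_W]
    exact mul_le_mul_of_nonneg_right hcl (Bx.side_pos hQ k).le

/-- the hole has the margins of `Inner` -/
theorem inner_cb {Q : Bx (Fin 3)} (hQ : Q.Pos) {lam : ℝ} (hl : 0 < lam) :
    Inner (cb Q hQ lam hl.le) (cb Q hQ (lam / 2) (half_pos hl).le) := by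
  refine ⟨fun i => ?_, fun i => ?_, fun i => ?_⟩
  · rw [cb, hb_W, qb_W]
    exact mul_pos hl (Bx.side_pos hQ i)
  · rw [cb_lo, cb_lo, cb, hb_W, qb_W]
    have := mul_pos hl (Bx.side_pos hQ i)
    linarith
  · rw [cb_hi, cb_hi, cb, hb_W, qb_W]
    have := mul_pos hl (Bx.side_pos hQ i)
    linarith

/-- the two-stage push of a brick with the homothetic core of ratio `lam` -/
def pus (Q : Bx (Fin 3)) (hQ : Q.Pos) (lam : ℝ) (hl : 0 < lam) : E3 → E3 :=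
  psi (qb Q hQ) (cb Q hQ lam hl.le) (cb Q hQ (lam / 2) (half_pos hl).le)

theorem nest_cb {Q : Bx (Fin 3)} (hQ : Q.Pos) {lam : ℝ} (hl : 0 < lam) (hl1 : lam < 1) :
    Nest (cb Q hQ lam hl.le) (qb Q hQ) := by
  refine ⟨fun i => ?_, fun i => ?_⟩
  · rw [cb_lo]
    have : (qb Q hQ).lo i = Q.lo i := rfl
    rw [this, ← ctr_lo Q i]
    have := Bx.side_pos hQ i
    nlinarith
  · rw [cb_hi]
    have : (qb Q hQ).hi i = Q.hi i := rfl
    rw [this, ← ctr_hi Q i]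
    have := Bx.side_pos hQ i
    nlinarith

/-- clause `ray` -/
theorem pus_ray {Q : Bx (Fin 3)} (hQ : Q.Pos) {lam : ℝ} (hl : 0 < lam) (hl1 : lam < 1) (y : E3)
    (hy : ∀ k, zz Q lam k + lam * Q.lo k ≤ y k ∧ y k ≤ zz Q lam k + lam * Q.hi k)
    (hy' : ∃ k, y k = zz Q lam k + lam * Q.lo k ∨ y k = zz Q lam k + lam * Q.hi k) :
    pus Q hQ lam hl y = fun k => (y k - zz Q lam k) / lam :=
  psi_ray hl (nest_cb hQ hl hl1) (inner_cb hQ hl) hy hy'

/-- clause `box_in` -/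
theorem cl_box_in {Q : Bx (Fin 3)} (hQ : Q.Pos) {lam : ℝ} (hl1 : lam < 1) (k : Fin 3) :
    Q.lo k < zz Q lam k + lam * Q.lo k ∧ zz Q lam k + lam * Q.hi k < Q.hi k := by
  rw [zz_lo, zz_hi, ← ctr_lo Q k, ← ctr_hi Q k]
  have := Bx.side_pos hQ k
  rw [ctr_lo, ctr_hi]
  have h1 := ctr_lo Q k
  have h2 := ctr_hi Q k
  constructor <;> nlinarith

/-- clause `hole` -/
theorem cl_hole {Q : Bx (Fin 3)} (hQ : Q.Pos) {lam κ2 : ℝ} (hl : 0 < lam) (h2 : κ2 ≤ 1 / 4)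
    (k : Fin 3) :
    zz Q lam k + lam * Q.lo k + κ2 * (lam * Q.side k) ≤ (cb Q hQ (lam / 2) (half_pos hl).le).lo k ∧
    (cb Q hQ (lam / 2) (half_pos hl).le).hi k ≤ zz Q lam k + lam * Q.hi k - κ2 * (lam * Q.side k) := by
  rw [zz_lo, zz_hi, cb_lo, cb_hi]
  have h3 := mul_pos hl (Bx.side_pos hQ k)
  have h4 : κ2 * (lam * Q.side k) ≤ 1 / 4 * (lam * Q.side k) := mul_le_mul_of_nonneg_right h2 h3.le
  constructor <;> linarith

/-- clauses `nbd` and `miss`, from the closeness of `f` to `A` over a cube. -/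
theorem cl_nbd_miss {Om : Set E3} {f : E3 → E3} {A : E3 → E3} {Q : Bx (Fin 3)} (hQ : Q.Pos)
    {lam κ1 κ2 : ℝ} (hl : 0 < lam) (h2 : κ2 ≤ 1 / 4)
    (hκ : ∀ k, κ1 * (lam * Q.sz) ≤ κ2 * (lam * Q.side k))
    (core : ∀ x, (x ∈ Om ∧ ∀ k, |f x k - ctr Q k| ≤ lam * Q.side k / 2) ∨
      (∀ k, |A x k - ctr Q k| ≤ (1 / 2 + κ2) * (lam * Q.side k)) →
      x ∈ Om ∧ ‖f x - A x‖ ≤ κ1 * (lam * Q.sz)) :
    (∀ x : E3, (∀ k, zz Q lam k + lam * Q.lo k - κ2 * (lam * Q.side k) ≤ A x k ∧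
      A x k ≤ zz Q lam k + lam * Q.hi k + κ2 * (lam * Q.side k)) →
      x ∈ Om ∧ ‖f x - A x‖ ≤ κ1 * (lam * Q.sz)) ∧
    (∀ x ∈ Om, (¬ ∀ k, zz Q lam k + lam * Q.lo k ≤ A x k ∧ A x k ≤ zz Q lam k + lam * Q.hi k) →
      f x ∉ (cb Q hQ (lam / 2) (half_pos hl).le).S) := by
  constructor
  · intro x hx
    refine core x (Or.inr fun k => ?_)
    have h3 := hx k
    rw [zz_lo, zz_hi] at h3
    rw [abs_le]
    constructor <;> linarith [h3.1, h3.2]
  · intro x hx hn hf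
    apply hn
    rw [mem_cb] at hf
    have h3 := core x (Or.inl ⟨hx, fun k => (hf k).trans (by
      have := mul_pos hl (Bx.side_pos hQ k)
      linarith)⟩)
    intro k
    rw [zz_lo, zz_hi]
    have h4 := norm_le_pi_norm (f x - A x) k
    rw [Pi.sub_apply, Real.norm_eq_abs] at h4
    have h5 := hκ k
    have h6 : κ2 * (lam * Q.side k) ≤ 1 / 4 * (lam * Q.side k) :=
      mul_le_mul_of_nonneg_right h2 (mul_pos hl (Bx.side_pos hQ k)).le
    have h7 := abs_le.1 (h4.trans (h3.2.trans (h5.trans h6)))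
    have h8 := abs_le.1 (hf k)
    constructor <;> linarith [h7.1, h7.2, h8.1, h8.2]

end

end Crest.Agent.R096.Bxs_627
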