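import Crest.Agent.R096.Bxs2_627
import Crest.Agent.R096.Toph1_766

/-!
Row 96 (S0127), helper627.  BOXES, part 3: the cores of the bricks for `p ≥ 3`: small cores (from
TOPH) and full size cores (from `core_at`), in the coordinates of `Fin 3 → ℝ`.
-/

set_option autoImplicit false
set_option linter.unusedSectionVars false
set_option linter.style.longLine false

open MeasureTheory Set Filter Topology Metric

namespace Crest.Agent.R096.Bxs_627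

open Crest.AnalysisR.VecCalc3 Crest.AnalysisR.Sobolev
open Crest.Agent.R096.Bsp_628 Crest.Agent.R96.Push_899 Crest.Agent.R96.En10_199
open Crest.Agent.R096.Osc_802 Crest.Agent.R096.Sel_766 Crest.Agent.R096.Toph_766
open Crest.Agent.R96.Lu_538

noncomputable section

/-! ### the affine map of a good point as an equivalence -/

theorem inj_of_LM {A : R3 →L[ℝ] R3} {m : ℝ} (hm : 0 < m) (hA : A ∈ LM m) :
    Function.Injective A.toLinearMap := by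
  rw [injective_iff_map_eq_zero]
  intro v hv
  have h1 := (hA v).1
  have h2 : A v = 0 := hv
  rw [h2, norm_zero] at h1
  have h3 : ‖v‖ ≤ 0 := by
    by_contra hcon
    have := mul_pos hm (not_le.1 hcon)
    linarith
  exact norm_le_zero_iff.1 h3

/-- the linear equivalence -/
def linE (A : R3 →L[ℝ] R3) {m : ℝ} (hm : 0 < m) (hA : A ∈ LM m) : R3 ≃ₗ[ℝ] R3 :=
  LinearEquiv.ofInjectiveEndo A.toLinearMap (inj_of_LM hm hA)

@[simp] lemma linE_apply (A : R3 →L[ℝ] R3) {m : ℝ} (hm : 0 < m) (hA : A ∈ LM m) (v : R3) :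
    linE A hm hA v = A v := rfl

/-- `Aff` as an affine equivalence -/
def affE (f : R3 → R3) (G : Fin 3 → R3 → R3) (ξ t : R3) {m : ℝ} (hm : 0 < m)
    (hA : Gmat G ξ ∈ LM m) : R3 ≃ᵃ[ℝ] R3 :=
  AffineEquiv.mk' (Aff f G ξ t) (linE (Gmat G ξ) hm hA) ξ (by
    intro x
    rw [linE_apply, vsub_eq_sub, vadd_eq_add, Aff, Aff, sub_self, map_zero, add_zero]
    abel)

@[simp] lemma affE_apply (f : R3 → R3) (G : Fin 3 → R3 → R3) (ξ t : R3) {m : ℝ} (hm : 0 < m)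
    (hA : Gmat G ξ ∈ LM m) (x : R3) : affE f G ξ t hm hA x = Aff f G ξ t x := rfl

/-! ### small cores -/

/-- the ratio of the small cores -/
def ls (κ0 : ℝ) : ℝ := 1 / (512 * κ0)

lemma ls_pos {κ0 : ℝ} (h : 1 ≤ κ0) : 0 < ls κ0 := by unfold ls; positivity

lemma ls_le {κ0 : ℝ} (h : 1 ≤ κ0) : ls κ0 ≤ 1 / 512 := by
  unfold ls
  apply one_div_le_one_div_of_le (by norm_num)
  linarith

theorem small_core {Om : Set R3} {f : R3 → R3} {A : R3 ≃ᵃ[ℝ] R3} {Q : Bx (Fin 3)} (hQ : Q.Pos)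
    {κ0 κ₁ κ1 κ2 : ℝ} (hκ0 : 1 ≤ κ0) (h2 : κ2 ≤ 1 / 4)
    (hm : ∀ x ∈ Om, ‖f x - P3 (ctr Q)‖ ≤ rad κ0 Q / 16 → ‖f x - A x‖ ≤ κ₁ * rad κ0 Q)
    (hn : ∀ x, ‖A x - P3 (ctr Q)‖ ≤ rad κ0 Q / 32 → x ∈ Om ∧ ‖f x - A x‖ ≤ κ₁ * rad κ0 Q)
    (hκ : 64 * κ₁ ≤ κ1) :
    ∀ x : E3, (x ∈ P3 ⁻¹' Om ∧ ∀ k, |m3 f x k - ctr Q k| ≤ ls κ0 * Q.side k / 2) ∨
      (∀ k, |a3 A x k - ctr Q k| ≤ (1 / 2 + κ2) * (ls κ0 * Q.side k)) →
      x ∈ P3 ⁻¹' Om ∧ ‖m3 f x - a3 A x‖ ≤ κ1 * (ls κ0 * Q.sz) := by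
  have hs := Bx.sz_pos hQ
  have hl := ls_pos hκ0
  have hR : rad κ0 Q = 64 * (ls κ0 * Q.sz) := by
    unfold rad ls; field_simp; norm_num
  have key := core_transport (Om := Om) (f := f) (A := A) (p := ctr Q) (r := rad κ0 Q / 32)
    (κ := κ₁ * rad κ0 Q) (by
    rintro x (⟨hx, h3⟩ | h3)
    · exact ⟨hx, hm x hx (h3.trans (by
        have : 0 ≤ rad κ0 Q := by rw [hR]; positivity
        linarith))⟩
    · exact hn x h3)
  have e1 : rad κ0 Q / 32 / 2 = ls κ0 * Q.sz := by rw [hR]; ring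
  have e2 : κ₁ * rad κ0 Q ≤ κ1 * (ls κ0 * Q.sz) := by
    rw [hR]
    have : 0 ≤ ls κ0 * Q.sz := by positivity
    calc κ₁ * (64 * (ls κ0 * Q.sz)) = (64 * κ₁) * (ls κ0 * Q.sz) := by ring
      _ ≤ κ1 * (ls κ0 * Q.sz) := mul_le_mul_of_nonneg_right hκ this
  rw [e1] at key
  have nrm : ∀ u : E3, (∀ k, |u k - ctr Q k| ≤ ls κ0 * Q.side k) → ‖u - ctr Q‖ ≤ ls κ0 * Q.sz := by
    intro u hu
    rw [pi_norm_le_iff_of_nonneg (by positivity)]
    intro k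
    rw [Pi.sub_apply, Real.norm_eq_abs]
    exact (hu k).trans (mul_le_mul_of_nonneg_left (Q.side_le_sz k) hl.le)
  intro x hx
  have h5 := key x (hx.imp (fun h3 => ⟨h3.1, nrm _ fun k => (h3.2 k).trans (by
    have := mul_pos hl (Bx.side_pos hQ k)
    linarith)⟩) (fun h3 => nrm _ fun k => (h3 k).trans (by
    have h6 := mul_pos hl (Bx.side_pos hQ k)
    calc (1 / 2 + κ2) * (ls κ0 * Q.side k) ≤ 1 * (ls κ0 * Q.side k) :=
          mul_le_mul_of_nonneg_right (by linarith) h6.le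
      _ = ls κ0 * Q.side k := one_mul _)))
  exact ⟨h5.1, h5.2.trans e2⟩

/-! ### full size cores -/

theorem full_core {Ω Λ : Set R3} (hΩ : IsOpen Ω) (hΛ : IsOpen Λ) {f : R3 → R3}
    (hf : IsHomeomorphOn f Ω Λ) {G : Fin 3 → R3 → R3} {p : ℝ} {μ κ δ : R3 → ℝ} {ξ : R3} {κ₁ : ℝ}
    {Q : Bx (Fin 3)} (hQ : Q.Pos) {κ0 κ1 κ2 lam : ℝ} (hκ0 : 1 ≤ κ0) (asp : ∀ i, Q.sz ≤ κ0 * Q.side i)
    (hξ : ξ ∈ EE Ω f G p μ κ δ) (hμ : 0 < μ ξ) (hκ₁0 : 0 ≤ κ₁) (hκ₁ : κ₁ ≤ 1 / 32)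
    (hκ : κ ξ * 4 ≤ κ₁ * μ ξ) (hy : ‖P3 (ctr Q) - f ξ‖ ≤ 2 * Q.sz)
    (hδ : 4 * (2 * Q.sz) < μ ξ * δ ξ) (hl : 1 / 2 ≤ lam) (hl1 : lam ≤ 1)
    (h2 : κ2 ≤ 1 / 4) (h3 : (1 / 2 + κ2) * lam + 2 * κ₁ * κ0 ≤ 1 / 2) (h4 : 4 * κ₁ ≤ κ1)
    {Th : R3 ≃ₜ R3} (hTh : ∀ y : R3, P3.symm y ∈ Q.set → Th y = y) (h20 : 0 ≤ κ2) :
    ∀ x : E3, (x ∈ P3 ⁻¹' Ω ∧ ∀ k, |m3 (Th ∘ f) x k - ctr Q k| ≤ lam * Q.side k / 2) ∨
      (∀ k, |a3 (affE f G ξ 0 hμ hξ.2.1) x k - ctr Q k| ≤ (1 / 2 + κ2) * (lam * Q.side k)) →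
      x ∈ P3 ⁻¹' Ω ∧ ‖m3 (Th ∘ f) x - a3 (affE f G ξ 0 hμ hξ.2.1) x‖ ≤ κ1 * (lam * Q.sz) := by
  have hs := Bx.sz_pos hQ
  have hlam : 0 < lam := by linarith
  obtain ⟨-, c1, c2, c3⟩ := core_at hΩ hΛ hf (y := P3 (ctr Q)) (R := 2 * Q.sz) (by positivity) hξ hμ
    hκ₁ hκ hy hδ
  have nrm : ∀ (u : R3) (b : ℝ), b ≤ 1 → (∀ k, |P3.symm u k - ctr Q k| ≤ b * Q.side k) →
      ‖u - P3 (ctr Q)‖ ≤ 2 * Q.sz := by
    intro u b hb hu
    have e1 : ‖P3.symm u - ctr Q‖ ≤ Q.sz := by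
      rw [pi_norm_le_iff_of_nonneg hs.le]
      intro k
      rw [Pi.sub_apply, Real.norm_eq_abs]
      have h5 := Q.side_le_sz k
      have h6 := Bx.side_pos hQ k
      exact (hu k).trans (by nlinarith)
    have e2 := norm_P3_le (P3.symm u - ctr Q)
    rw [map_sub, ContinuousLinearEquiv.apply_symm_apply] at e2
    linarith
  have hfin : κ₁ * (2 * Q.sz) ≤ κ1 * (lam * Q.sz) := by
    have h5 : 4 * κ₁ * (lam * Q.sz) ≤ κ1 * (lam * Q.sz) :=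
      mul_le_mul_of_nonneg_right h4 (by positivity)
    have h6 : 0 ≤ κ₁ * Q.sz := by positivity
    nlinarith
  have est : ∀ x : R3, x ∈ cube ξ (4 * (2 * Q.sz) / μ ξ) → Th (f x) = f x →
      x ∈ Ω ∧ ‖P3.symm (Th (f x)) - P3.symm (Aff f G ξ 0 x)‖ ≤ κ1 * (lam * Q.sz) := by
    intro x hx hT
    obtain ⟨h5, h6⟩ := c3 x hx
    refine ⟨h5, ?_⟩
    rw [hT]
    have h7 := norm_P3_symm_le (f x - Aff f G ξ 0 x)
    rw [map_sub] at h7
    have h8 : f x - Aff f G ξ 0 x = f x - (f ξ + Gmat G ξ (x - ξ)) := by rw [Aff, add_zero]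
    rw [h8] at h7
    exact h7.trans (h6.trans hfin)
  rintro x (⟨hx, h5⟩ | h5)
  · have hT : Th (f (P3 x)) = f (P3 x) := by
      have h6 : P3.symm (Th (f (P3 x))) ∈ Q.set := by
        rw [Bx.mem_set]
        intro k
        have h7 := abs_le.1 (h5 k)
        have h8 := ctr_lo Q k
        have h9 := ctr_hi Q k
        have h10 := Bx.side_pos hQ k
        have h11 : m3 (Th ∘ f) x k = P3.symm (Th (f (P3 x))) k := rfl
        rw [h11] at h7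
        have h12 : lam * Q.side k ≤ 1 * Q.side k := mul_le_mul_of_nonneg_right hl1 h10.le
        constructor <;> linarith [h7.1, h7.2]
      exact Th.injective (hTh _ h6)
    have h6 := c1 (P3 x) hx (nrm _ (lam / 2) (by linarith) (fun k => by
      have h7 := h5 k
      have h8 : m3 (Th ∘ f) x k = P3.symm (Th (f (P3 x))) k := rfl
      rw [h8, hT] at h7
      linarith))
    exact est (P3 x) h6 hT
  · have h6 := c2 (P3 x) (by
      have h7 := nrm (Aff f G ξ 0 (P3 x)) ((1 / 2 + κ2) * lam) (by nlinarith) (fun k => by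
        have h8 := h5 k
        rw [a3_apply, affE_apply] at h8
        linarith)
      rw [Aff, add_zero] at h7
      linarith)
    have hT : Th (f (P3 x)) = f (P3 x) := by
      apply hTh
      obtain ⟨-, h8⟩ := c3 _ h6
      have h7 := norm_P3_symm_le (f (P3 x) - (f ξ + Gmat G ξ (P3 x - ξ)))
      rw [map_sub] at h7
      rw [Bx.mem_set]
      intro k
      have h9 := norm_le_pi_norm (P3.symm (f (P3 x)) - P3.symm (f ξ + Gmat G ξ (P3 x - ξ))) k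
      rw [Pi.sub_apply, Real.norm_eq_abs] at h9
      have h10 := abs_le.1 (h9.trans (h7.trans h8))
      have h11 := h5 k
      rw [a3_apply, affE_apply, Aff, add_zero] at h11
      have h12 := abs_le.1 h11
      have h13 := ctr_lo Q k
      have h14 := ctr_hi Q k
      have h15 := Bx.side_pos hQ k
      have h16 := asp k
      have h17 : κ₁ * (2 * Q.sz) ≤ 2 * κ₁ * κ0 * Q.side k := by nlinarith
      have h18 : ((1 / 2 + κ2) * lam + 2 * κ₁ * κ0) * Q.side k ≤ 1 / 2 * Q.side k :=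
        mul_le_mul_of_nonneg_right h3 h15.le
      constructor <;> nlinarith [h10.1, h10.2, h12.1, h12.2]
    exact est (P3 x) h6 hT

end

end Crest.Agent.R096.Bxs_627
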