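import Crest.Agent.R096.Bxs3_627

/-!
Row 96 (S0127), helper627.  BOXES, part 4: **the cores of all bricks of a foam**, `p ≥ 3`.
-/

set_option autoImplicit false
set_option linter.unusedSectionVars false
set_option linter.style.longLine false
set_option linter.unusedVariables false

open MeasureTheory Set Filter Topology Metric

namespace Crest.Agent.R096.Bxs_627

open Crest.AnalysisR.VecCalc3 Crest.AnalysisR.Sobolev
open Crest.Agent.R096.Bsp_628 Crest.Agent.R96.Push_899 Crest.Agent.R96.En10_199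
open Crest.Agent.R096.Osc_802 Crest.Agent.R096.Sel_766 Crest.Agent.R096.Toph_766
open Crest.Agent.R96.Lu_538 Crest.Agent.R096.ThC6_766 Crest.Agent.R096.ThCi2_766
open Crest.Agent.R096.VolC2_766

noncomputable section

/-- the bricks which meet `O` -/
def BdB (F : Set (Bx (Fin 3))) (O : Set R3) : Set F := {c | ∃ y ∈ O, P3.symm y ∈ c.1.set}

/-- `Cor`: the core statement of the brick `c` (input of `cl_nbd_miss`). -/
def Cor (Om : Set R3) (f : R3 → R3) (A : R3 ≃ᵃ[ℝ] R3) (Q : Bx (Fin 3)) (lam κ1 κ2 : ℝ) : Prop :=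
  ∀ x : E3, (x ∈ P3 ⁻¹' Om ∧ ∀ k, |m3 f x k - ctr Q k| ≤ lam * Q.side k / 2) ∨
      (∀ k, |a3 A x k - ctr Q k| ≤ (1 / 2 + κ2) * (lam * Q.side k)) →
      x ∈ P3 ⁻¹' Om ∧ ‖m3 f x - a3 A x‖ ≤ κ1 * (lam * Q.sz)

/-- **BOXES.** -/
theorem boxes {Ω Λ : Set R3} (hΩ : IsOpen Ω) (hΛ : IsOpen Λ) (hΛc : (Λᶜ).Nonempty) {f : R3 → R3}
    (hf : IsHomeomorphOn f Ω Λ) {G : Fin 3 → R3 → R3} {p : ℝ} {w : R3 → ℝ} (hw : Scale Λ w) :
    ∃ η : ℝ, 0 < η ∧ η < 1 ∧ ∀ {μ κ δ : R3 → ℝ}, (∀ x ∈ Ω, 0 < μ x) → ∀ {κ₁ : ℝ}, 0 ≤ κ₁ →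
      κ₁ ≤ 1 / 32 → (∀ x ∈ Ω, κ x * 4 ≤ κ₁ * μ x) →
      (∀ y ∈ Λ, (volume : Measure R3).real ((Λ \ f '' EE Ω f G p μ κ δ) ∩ ball y (w y)) ≤
          η * (volume : Measure R3).real (ball y (w y))) →
      ∀ {σ : R3 → ℝ}, Scale Λ σ →
      ∀ {W : Set R3}, W = {y | y ∈ Λ ∧ σ y / 2 < infDist y (f '' EE Ω f G p μ κ δ)} →
      ∀ {F : Set (Bx (Fin 3))} {δf κ0 : ℝ}, BoxFoam (P3 ⁻¹' Λ) F δf κ0 → 1 ≤ κ0 →
      ∀ {lamb κ1 κ2 : ℝ}, 1 / 2 ≤ lamb → lamb < 1 → 0 ≤ κ2 → κ2 ≤ 1 / 4 →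
        (1 / 2 + κ2) * lamb + 2 * κ₁ * κ0 ≤ 1 / 2 → 64 * κ₁ ≤ κ1 →
        (∀ c ∈ F, rad κ0 c ≤ w (P3 (ctr c)) / 8) →
        (∀ c ∈ F, ∀ y, ‖P3 (ctr c) - y‖ ≤ w (P3 (ctr c)) / 16 → σ y ≤ rad κ0 c) →
        (∀ c ∈ F, ∀ x ∈ Ω, ‖f x - P3 (ctr c)‖ ≤ w (P3 (ctr c)) / 4 → 8 * c.sz < μ x * δ x) →
        ∃ (Th : R3 ≃ₜ R3) (ξ yc : F → R3) (hξ : ∀ c, ξ c ∈ EE Ω f G p μ κ δ) (hm : ∀ c, 0 < μ (ξ c)),
          (∀ y, y ∉ Λ → Th y = y) ∧ (∀ y, Th y ∈ Λ ↔ y ∈ Λ) ∧ (∀ y, ‖Th y - y‖ ≤ 5 / 4 * w y) ∧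
          (∀ y y', ‖Th y - Th y'‖ ≤ 25 / 2 * ‖y - y'‖) ∧
          (∀ y, y ∉ OO η w W → (∀ c ∈ BdB F (OO η w W), 2 * rad κ0 c.1 ≤ ‖y - P3 (ctr c.1)‖) →
            Th y = y) ∧
          -- bad bricks
          (∀ c ∈ BdB F (OO η w W), ‖yc c - f (ξ c)‖ ≤ rad κ0 c.1 ∧
            (∀ y, ‖y - yc c‖ ≤ rad κ0 c.1 / 16 → Th y = P3 (ctr c.1) + (y - yc c)) ∧
            (∀ y, ‖Th y - P3 (ctr c.1)‖ ≤ rad κ0 c.1 / 16 → y = yc c + (Th y - P3 (ctr c.1))) ∧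
            GoodAt Ω f G p κ (ξ c) (4 * rad κ0 c.1 / μ (ξ c)) ∧
            Cor Ω (Th ∘ f) (affE f G (ξ c) (P3 (ctr c.1) - yc c) (hm c) (hξ c).2.1) c.1
              (ls κ0) κ1 κ2) ∧
          -- good bricks
          (∀ c ∉ BdB F (OO η w W), yc c = P3 (ctr c.1) ∧ (∀ y, P3.symm y ∈ c.1.set → Th y = y) ∧
            ‖P3 (ctr c.1) - f (ξ c)‖ < σ (P3 (ctr c.1)) ∧
            GoodAt Ω f G p κ (ξ c) (8 * c.1.sz / μ (ξ c)) ∧
            Cor Ω (Th ∘ f) (affE f G (ξ c) (P3 (ctr c.1) - yc c) (hm c) (hξ c).2.1) c.1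
              lamb κ1 κ2) := by
  obtain ⟨η, hη, hη1, hmain⟩ := toph hΩ hΛ hΛc hf (G := G) (p := p) hw
  refine ⟨η, hη, hη1, ?_⟩
  intro μ κ δ hμ κ₁ hκ₁0 hκ₁ hκ hden σ hσ W hW F δf κ0 BF hκ0 lamb κ1 κ2 hl hl1 hk0 hk1 h3 h64 hS1 hS2 hS3
  obtain ⟨Phi, th, -, -, -, -, -, hexO, hP⟩ := hmain hμ hκ₁ hκ hden hσ hW rfl
  set O := OO η w W with hO
  have hpos : ∀ c : F, c.1.Pos := fun c => BF.pos _ c.2
  have hsz : ∀ c : F, 0 < c.1.sz := fun c => Bx.sz_pos (hpos c)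
  have hctrΛ : ∀ c : F, P3 (ctr c.1) ∈ Λ := fun c => BF.sub _ c.2 (ctr_mem (hpos c))
  have hrad : ∀ c : F, 0 < rad κ0 c.1 := fun c => by
    have := hsz c
    unfold rad; positivity
  have hrad2 : ∀ c : F, rad κ0 c.1 ≤ c.1.sz / 8 := fun c => by
    unfold rad
    apply div_le_div_of_nonneg_left (hsz c).le (by norm_num)
    linarith
  set ι := {c : F // c ∈ BdB F O} with hι
  obtain ⟨yc, ξ, Th, hξE, -, hycn, -, -, hT1, hT2, hT3, hT4, hT5, hT6, hT7, hgood, -, hmiss, hnbd⟩ :=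
    hP (ι := ι) (fun i => P3 (ctr i.1.1)) (fun i => rad κ0 i.1.1) (fun i => hctrΛ i.1)
      (fun i => hrad i.1) (fun i => hS1 _ i.1.2)
      (fun i j hij => holes_disj BF (by linarith) i.1 j.1 (fun h => hij (Subtype.ext h)))
      (fun q hq => by
        obtain ⟨r, hr, hf⟩ := holes_fin BF hκ0 (q := q) (by
          rw [mem_preimage, mem_preimage, ContinuousLinearEquiv.apply_symm_apply]; exact hq)
        refine ⟨r, hr, ?_⟩
        exact Set.Finite.of_finite_image (f := Subtype.val) (hf.subset (by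
          rintro _ ⟨c, hc, rfl⟩
          exact hc)) Subtype.val_injective.injOn)
      (fun i => hS2 _ i.1.2)
      (fun i x hx hxf => by
        have h4 := hS3 _ i.1.2 x hx hxf
        have h5 := hrad2 i.1
        have h6 := hsz i.1
        linarith)
  -- `Th = id` on the good bricks
  have hgoodB : ∀ c : F, c ∉ BdB F O → ∀ y, P3.symm y ∈ c.1.set → Th y = y := by
    intro c hc y hy
    refine hT7 y (fun hyO => hc ⟨y, hyO, hy⟩) fun i => ?_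
    by_contra hcon
    push Not at hcon
    -- `y` would be in the interior of the brick `i`
    have hne : i.1.1 ≠ c.1 := fun h => hc (by
      have : i.1 = c := Subtype.ext h
      rw [← this]; exact i.2)
    obtain ⟨k, hk⟩ := BF.inv.disj i.1.2 c.2 (hpos i.1) (hpos c) hne
    have h4 := norm_P3_symm_le (y - P3 (ctr i.1.1))
    rw [map_sub, ContinuousLinearEquiv.symm_apply_apply] at h4
    have h5 := norm_le_pi_norm (P3.symm y - ctr i.1.1) k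
    rw [Pi.sub_apply, Real.norm_eq_abs] at h5
    have h6 : 2 * rad κ0 i.1.1 ≤ i.1.1.side k / 4 := by
      have h7 := BF.asp _ i.1.2 k
      unfold rad
      rw [show 2 * (i.1.1.sz / (8 * κ0)) = i.1.1.sz / (4 * κ0) by field_simp; ring,
        div_le_div_iff₀ (by positivity) (by norm_num)]
      nlinarith [hsz i.1]
    have h8 := abs_le.1 (h5.trans (h4.trans (hcon.le.trans h6)))
    have h9 := ctr_lo i.1.1 k
    have h10 := ctr_hi i.1.1 k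
    have h11 := Bx.side_pos (hpos i.1) k
    have h12 := Bx.mem_set.1 hy k
    rcases hk with hk | hk
    · linarith [h8.1, h8.2, h12.1, h12.2]
    · linarith [h8.1, h8.2, h12.1, h12.2]
  -- good bricks
  have hgex : ∀ c : F, c ∉ BdB F O → ∃ ζ ∈ EE Ω f G p μ κ δ, ‖P3 (ctr c.1) - f ζ‖ < σ (P3 (ctr c.1)) := by
    intro c hc
    refine hexO _ (hctrΛ c) fun h => hc ⟨_, h, ?_⟩
    rw [ContinuousLinearEquiv.symm_apply_apply]
    exact ctr_mem (hpos c)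
  choose! ζ hζE hζn using hgex
  classical
  set ξ' : F → R3 := fun c => if h : c ∈ BdB F O then ξ ⟨c, h⟩ else ζ c with hξ'
  set yc' : F → R3 := fun c => if h : c ∈ BdB F O then yc ⟨c, h⟩ else P3 (ctr c.1) with hyc'
  have hξ'1 : ∀ c (h : c ∈ BdB F O), ξ' c = ξ ⟨c, h⟩ := fun c h => by simp only [hξ', dif_pos h]
  have hξ'2 : ∀ c, c ∉ BdB F O → ξ' c = ζ c := fun c h => by simp only [hξ', dif_neg h]
  have hyc'1 : ∀ c (h : c ∈ BdB F O), yc' c = yc ⟨c, h⟩ := fun c h => by simp only [hyc', dif_pos h]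
  have hyc'2 : ∀ c, c ∉ BdB F O → yc' c = P3 (ctr c.1) := fun c h => by simp only [hyc', dif_neg h]
  have hE : ∀ c, ξ' c ∈ EE Ω f G p μ κ δ := by
    intro c
    by_cases h : c ∈ BdB F O
    · rw [hξ'1 c h]; exact hξE _
    · rw [hξ'2 c h]; exact hζE c h
  have hM : ∀ c, 0 < μ (ξ' c) := fun c => hμ _ (hE c).1
  refine ⟨Th, ξ', yc', hE, hM, hT1, hT2, hT3, hT4, ?_, ?_, ?_⟩
  · intro y hy hyc
    exact hT7 y hy fun i => hyc i.1 i.2
  · intro c hc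
    have e1 := hξ'1 c hc
    have e2 := hyc'1 c hc
    refine ⟨by rw [e1, e2]; exact hycn ⟨c, hc⟩, by rw [e2]; exact hT5 ⟨c, hc⟩,
      by rw [e2]; exact hT6 ⟨c, hc⟩, by rw [e1]; exact hgood ⟨c, hc⟩, ?_⟩
    refine small_core (hpos c) hκ0 hk1 ?_ ?_ h64
    · intro x hx hxT
      have h4 := (hmiss ⟨c, hc⟩ x hx hxT).2
      rw [affE_apply, e1, e2]
      exact h4
    · intro x hxA
      rw [affE_apply, e1, e2] at hxA
      obtain ⟨h4, -, h5⟩ := hnbd ⟨c, hc⟩ x hxA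
      refine ⟨h4, ?_⟩
      rw [affE_apply, e1, e2]
      exact h5
  · intro c hc
    have e2 := hyc'2 c hc
    have e1 := hξ'2 c hc
    have hσc : σ (P3 (ctr c.1)) ≤ rad κ0 c.1 := hS2 _ c.2 _ (by
      rw [sub_self, norm_zero]
      have := hw.nonneg (P3 (ctr c.1))
      positivity)
    have hn : ‖P3 (ctr c.1) - f (ξ' c)‖ < σ (P3 (ctr c.1)) := by rw [e1]; exact hζn c hc
    have hr := hrad2 c
    have hs := hsz c
    have hnear : ‖P3 (ctr c.1) - f (ξ' c)‖ ≤ 2 * c.1.sz := by linarith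
    have hδc : 4 * (2 * c.1.sz) < μ (ξ' c) * δ (ξ' c) := by
      have h5 := hS3 _ c.2 (ξ' c) (hE c).1 (by
        rw [norm_sub_rev]
        have h6 := hS1 _ c.2
        have h7 := hw.nonneg (P3 (ctr c.1))
        linarith)
      linarith
    have h4κ : 4 * κ₁ ≤ κ1 := by linarith
    have hcore := core_at hΩ hΛ hf (y := P3 (ctr c.1)) (R := 2 * c.1.sz) (by positivity) (hE c) (hM c)
      hκ₁ (hκ _ (hE c).1) hnear hδc
    refine ⟨e2, hgoodB c hc, hn, ?_, ?_⟩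
    · have h5 := hcore.1
      rwa [show 4 * (2 * c.1.sz) = 8 * c.1.sz by ring] at h5
    · have h5 := full_core hΩ hΛ hf (hpos c) hκ0 (BF.asp _ c.2) (hE c) (hM c) hκ₁0 hκ₁
        (hκ _ (hE c).1) hnear hδc hl hl1.le hk1 h3 h4κ (hgoodB c hc) hk0
      have e3 : P3 (ctr c.1) - yc' c = 0 := by rw [e2, sub_self]
      rw [e3]
      exact h5

end

end Crest.Agent.R096.Bxs_627
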