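import Crest.Agent.R096.Bxs5_627

/-!
Row 96 (S0127), helper627.  BOXES, part 6: full size cores with universal constants (`κ2`, `c0` do not
depend on the ratio `lam → 1`): `Th = id` on a neighbourhood of the good bricks.
-/

set_option autoImplicit false
set_option linter.unusedSectionVars false
set_option linter.style.longLine false
set_option linter.unusedVariables false

open MeasureTheory Set Filter Topology Metric

namespace Crest.Agent.R096.Bxs_627

open Crest.AnalysisR.VecCalc3 Crest.AnalysisR.Sobolev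
open Crest.Agent.R096.Bsp_628 Crest.Agent.R96.Push_899 Crest.Agent.R96.En10_199

noncomputable section

/-- **the core box is a core in the sense of `Shape`, with a constant independent of `lam → 1`.** -/
theorem shape_cb' {Q : Bx (Fin 3)} (hQ : Q.Pos) {κ0 lam c0 : ℝ} (hκ : 1 ≤ κ0)
    (asp : ∀ i, Q.sz ≤ κ0 * Q.side i) (hl : 0 < lam) (hl1 : lam < 1) (hc : 0 < c0) (hcl : c0 ≤ lam)
    (hc2 : c0 * κ0 ≤ 1) :
    Shape (∅ : Finset (Fin 3)) c0 0 ((1 - lam) * Q.sz / 2) (qb Q hQ) (cb Q hQ lam hl.le) := by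
  have hs := Bx.sz_pos hQ
  have h1l : 0 < 1 - lam := by linarith
  have key : ∀ k, c0 * ((1 - lam) * Q.sz / 2) ≤ (1 - lam) * Q.side k / 2 := by
    intro k
    have h1 := asp k
    have h2 := Bx.side_pos hQ k
    have h3 : c0 * Q.sz ≤ Q.side k := by
      calc c0 * Q.sz ≤ c0 * (κ0 * Q.side k) := mul_le_mul_of_nonneg_left h1 hc.le
        _ = c0 * κ0 * Q.side k := by ring
        _ ≤ 1 * Q.side k := mul_le_mul_of_nonneg_right hc2 h2.le
        _ = Q.side k := one_mul _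
    calc c0 * ((1 - lam) * Q.sz / 2) = (1 - lam) / 2 * (c0 * Q.sz) := by ring
      _ ≤ (1 - lam) / 2 * Q.side k := mul_le_mul_of_nonneg_left h3 (by positivity)
      _ = (1 - lam) * Q.side k / 2 := by ring
  have key2 : ∀ k, (1 - lam) * Q.side k / 2 ≤ (1 - lam) * Q.sz / 2 := by
    intro k
    have h1 := Q.side_le_sz k
    have := mul_le_mul_of_nonneg_left h1 h1l.le
    linarith
  have e1 : ∀ k, (cb Q hQ lam hl.le).lo k - (qb Q hQ).lo k = (1 - lam) * Q.side k / 2 := by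
    intro k
    rw [cb_lo]
    have : (qb Q hQ).lo k = Q.lo k := rfl
    rw [this, ← ctr_lo Q k]; ring
  have e2 : ∀ k, (qb Q hQ).hi k - (cb Q hQ lam hl.le).hi k = (1 - lam) * Q.side k / 2 := by
    intro k
    rw [cb_hi]
    have : (qb Q hQ).hi k = Q.hi k := rfl
    rw [this, ← ctr_hi Q k]; ring
  refine ⟨hc, by linarith, by positivity, le_rfl, fun k => Bx.side_pos hQ k, fun k => ?_, fun k => ?_,
    fun k => ?_, fun k => ?_, fun k => ?_, fun k hk => absurd hk (Finset.notMem_empty _)⟩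
  · rw [e1]; exact key k
  · rw [e1]; exact key2 k
  · rw [e2]; exact key k
  · rw [e2]; exact key2 k
  · rw [cb, hb_W]
    exact mul_le_mul_of_nonneg_right hcl (Bx.side_pos hQ k).le

/-- the `t`-neighbourhood of a brick, in the sup norm -/
def nb (Q : Bx (Fin 3)) (t : ℝ) : Set E3 := {y | ∀ k, |y k - ctr Q k| ≤ Q.side k / 2 + t}

/-- **full size core, universal constants**: `Th = id` on the `τ * sz`-neighbourhood of the brick. -/
theorem full_core2 {Om : Set R3} {f A : R3 → R3} {Q : Bx (Fin 3)} (hQ : Q.Pos)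
    {lam κ₁ κ1 κ2 τ : ℝ} (hκ₁0 : 0 ≤ κ₁)
    (hl : 0 < lam) (hl1 : lam ≤ 1) (h0 : 0 ≤ κ2) (h2 : κ2 ≤ 1 / 4) (hτ : κ2 + κ₁ ≤ τ)
    (hm : ∀ x ∈ Om, ‖f x - P3 (ctr Q)‖ ≤ 2 * Q.sz → ‖f x - A x‖ ≤ κ₁ * Q.sz)
    (hn : ∀ x, ‖A x - P3 (ctr Q)‖ ≤ 2 * Q.sz → x ∈ Om ∧ ‖f x - A x‖ ≤ κ₁ * Q.sz)
    (hκ : κ₁ ≤ κ1 * lam)
    {Th : R3 ≃ₜ R3} (hTh : ∀ y : R3, P3.symm y ∈ nb Q (τ * Q.sz) → Th y = y) :
    Cori Om (Th ∘ f) A Q lam κ1 κ2 := by
  have hs := Bx.sz_pos hQ
  have hτ0 : 0 ≤ τ := by linarith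
  have fin : ∀ x : R3, x ∈ Om ∧ ‖f x - A x‖ ≤ κ₁ * Q.sz → Th (f x) = f x →
      x ∈ Om ∧ ‖P3.symm (Th (f x)) - P3.symm (A x)‖ ≤ κ1 * (lam * Q.sz) := by
    rintro x ⟨hx, h4⟩ hT
    refine ⟨hx, ?_⟩
    rw [hT]
    have h5 := norm_P3_symm_le (f x - A x)
    rw [map_sub] at h5
    refine h5.trans (h4.trans ?_)
    calc κ₁ * Q.sz ≤ κ1 * lam * Q.sz := mul_le_mul_of_nonneg_right hκ hs.le
      _ = κ1 * (lam * Q.sz) := by ring
  rintro x (⟨hx, h5⟩ | h5)
  · have hT : Th (f (P3 x)) = f (P3 x) := by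
      have h6 : P3.symm (Th (f (P3 x))) ∈ nb Q (τ * Q.sz) := by
        intro k
        have h7 := h5 k
        have h10 := Bx.side_pos hQ k
        have h11 : m3 (Th ∘ f) x k = P3.symm (Th (f (P3 x))) k := rfl
        rw [h11] at h7
        have h12 : lam * Q.side k ≤ 1 * Q.side k := mul_le_mul_of_nonneg_right hl1 h10.le
        have h13 : 0 ≤ τ * Q.sz := by positivity
        linarith
      exact Th.injective (hTh _ h6)
    have h4 := near_of_coord hQ (u := f (P3 x)) (b := lam / 2) (by positivity) (fun k => by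
      have h7 := h5 k
      have h8 : m3 (Th ∘ f) x k = P3.symm (Th (f (P3 x))) k := rfl
      rw [h8, hT] at h7
      linarith)
    refine fin _ ⟨hx, hm _ hx (h4.trans ?_)⟩ hT
    nlinarith
  · have h4 := near_of_coord hQ (u := A (P3 x)) (b := (1 / 2 + κ2) * lam) (by positivity) (fun k => by
      have := h5 k
      have e : m3 A x k = P3.symm (A (P3 x)) k := rfl
      rw [e] at this
      linarith)
    have h7 : (1 / 2 + κ2) * lam ≤ 1 := by nlinarith
    have h6 := hn _ (h4.trans (by nlinarith))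
    have hT : Th (f (P3 x)) = f (P3 x) := by
      apply hTh
      have h8 := norm_P3_symm_le (f (P3 x) - A (P3 x))
      rw [map_sub] at h8
      intro k
      have h9 := norm_le_pi_norm (P3.symm (f (P3 x)) - P3.symm (A (P3 x))) k
      rw [Pi.sub_apply, Real.norm_eq_abs] at h9
      have h10 := h9.trans (h8.trans h6.2)
      have h11 := h5 k
      have e : m3 A x k = P3.symm (A (P3 x)) k := rfl
      rw [e] at h11
      have h15 := Bx.side_pos hQ k
      have h16 := Q.side_le_sz k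
      have h17 : |P3.symm (f (P3 x)) k - ctr Q k| ≤
          |P3.symm (f (P3 x)) k - P3.symm (A (P3 x)) k| + |P3.symm (A (P3 x)) k - ctr Q k| :=
        abs_sub_le _ _ _
      have h18 : (1 / 2 + κ2) * (lam * Q.side k) ≤ Q.side k / 2 + κ2 * Q.sz := by
        have h19 : lam * Q.side k ≤ 1 * Q.side k := mul_le_mul_of_nonneg_right hl1 h15.le
        have h20 : κ2 * (lam * Q.side k) ≤ κ2 * Q.sz := mul_le_mul_of_nonneg_left (by linarith) h0
        linarith
      have h21 : (κ2 + κ₁) * Q.sz ≤ τ * Q.sz := mul_le_mul_of_nonneg_right hτ hs.le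
      linarith
    exact fin _ h6 hT

/-- comparability of bricks at small distance -/
def Gr (F : Set (Bx (Fin 3))) (τ R' : ℝ) : Prop :=
  ∀ c ∈ F, ∀ c' ∈ F, ∀ y ∈ c'.set, y ∈ nb c (τ * c.sz) → c.sz ≤ R' * c'.sz

/-- the point of the brick closest to a point of the neighbourhood -/
lemma exists_proj {Q : Bx (Fin 3)} (hQ : Q.Pos) {t : ℝ} (ht : 0 ≤ t) {y : E3} (hy : y ∈ nb Q t) :
    ∃ x ∈ Q.set, ‖y - x‖ ≤ t := by
  refine ⟨fun k => max (Q.lo k) (min (y k) (Q.hi k)), ?_, ?_⟩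
  · rw [Bx.mem_set]
    intro k
    exact ⟨le_max_left _ _, max_le (hQ k).le (min_le_right _ _)⟩
  · rw [pi_norm_le_iff_of_nonneg ht]
    intro k
    rw [Pi.sub_apply, Real.norm_eq_abs]
    have h1 := abs_le.1 (hy k)
    have h2 := ctr_lo Q k
    have h3 := ctr_hi Q k
    rw [abs_le]
    have h4 : Q.lo k - t ≤ y k := by linarith [h1.1]
    have h5 : y k ≤ Q.hi k + t := by linarith [h1.2]
    have h6 := hQ k
    constructor
    · have : max (Q.lo k) (min (y k) (Q.hi k)) ≤ y k + t :=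
        max_le (by linarith) ((min_le_left _ _).trans (by linarith))
      linarith
    · have : y k - t ≤ max (Q.lo k) (min (y k) (Q.hi k)) :=
        le_max_of_le_right (le_min (by linarith) (by linarith))
      linarith

/-- `Gr` from the gradation of the foam. -/
theorem Gr.of_rho {F : Set (Bx (Fin 3))} (hpos : ∀ C ∈ F, C.Pos) {rho : E3 → ℝ} {L K τ : ℝ}
    (hL : ∀ x y, rho x ≤ rho y + L * ‖x - y‖) (hL0 : 0 ≤ L)
    (h1 : ∀ C ∈ F, ∀ x ∈ C.set, C.sz ≤ rho x) (h2 : ∀ C ∈ F, ∀ x ∈ C.set, rho x ≤ K * C.sz)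
    (hτ : 0 ≤ τ) (hLτ : L * τ ≤ 1 / 2) : Gr F τ (2 * K) := by
  intro c hc c' hc' y hy hyn
  have hs := Bx.sz_pos (hpos c hc)
  obtain ⟨x, hx, hxy⟩ := exists_proj (hpos c hc) (t := τ * c.sz) (by positivity) hyn
  have e1 := h1 c hc x hx
  have e2 := h2 c' hc' y hy
  have e3 := hL x y
  rw [norm_sub_rev] at e3
  have e4 : L * ‖y - x‖ ≤ 1 / 2 * c.sz := by
    calc L * ‖y - x‖ ≤ L * (τ * c.sz) := mul_le_mul_of_nonneg_left hxy hL0
      _ = L * τ * c.sz := by ring
      _ ≤ 1 / 2 * c.sz := mul_le_mul_of_nonneg_right hLτ hs.le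
  linarith

/-- **`Th = id` on the neighbourhood of a brick which is far from `O`**: the holes of the other bricks
are too deep in their bricks. -/
theorem th_id_nbhd {La : Set E3} {F : Set (Bx (Fin 3))} {δ κ0 τ R' : ℝ} (BF : BoxFoam La F δ κ0)
    (hκ : 1 ≤ κ0) (hR' : 0 < R') (hτ0 : 0 ≤ τ) (hτ : τ * (8 * κ0 * R') ≤ 1) (hGr : Gr F τ R')
    {O : Set R3} {Bd : Set F} {Th : R3 → R3} {c : F} (hc : c ∉ Bd)
    (hOc : ∀ y : R3, P3.symm y ∈ nb c.1 (τ * c.1.sz) → y ∉ O)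
    (hTh : ∀ y, y ∉ O → (∀ i ∈ Bd, 2 * rad κ0 i.1 ≤ ‖y - P3 (ctr i.1)‖) → Th y = y)
    (y : R3) (hy : P3.symm y ∈ nb c.1 (τ * c.1.sz)) : Th y = y := by
  refine hTh y (hOc y hy) fun i hi => ?_
  by_contra hcon
  push Not at hcon
  have hpi := BF.pos _ i.2
  have hpc := BF.pos _ c.2
  have hsi := Bx.sz_pos hpi
  have hsc := Bx.sz_pos hpc
  have hne : i.1 ≠ c.1 := fun h => hc (by
    have : i = c := Subtype.ext h
    rw [← this]; exact hi)
  have h4 := norm_P3_symm_le (y - P3 (ctr i.1))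
  rw [map_sub, ContinuousLinearEquiv.symm_apply_apply] at h4
  have h5 : ∀ k, |P3.symm y k - ctr i.1 k| ≤ i.1.side k / 4 := by
    intro k
    have h5 := norm_le_pi_norm (P3.symm y - ctr i.1) k
    rw [Pi.sub_apply, Real.norm_eq_abs] at h5
    refine h5.trans (h4.trans (hcon.le.trans ?_))
    have h7 := BF.asp _ i.2 k
    unfold rad
    rw [show 2 * (i.1.sz / (8 * κ0)) = i.1.sz / (4 * κ0) by field_simp; ring,
      div_le_div_iff₀ (by positivity) (by norm_num)]
    nlinarith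
  have hyi : P3.symm y ∈ i.1.set := by
    rw [Bx.mem_set]
    intro k
    have h6 := abs_le.1 (h5 k)
    have h7 := ctr_lo i.1 k
    have h8 := ctr_hi i.1 k
    have h9 := Bx.side_pos hpi k
    constructor <;> linarith [h6.1, h6.2]
  have hcmp := hGr _ c.2 _ i.2 _ hyi hy
  obtain ⟨x, hx, hxy⟩ := exists_proj hpc (t := τ * c.1.sz) (by positivity) hy
  obtain ⟨k, hk⟩ := BF.inv.disj i.2 c.2 hpi hpc hne
  have h10 := norm_le_pi_norm (P3.symm y - x) k
  rw [Pi.sub_apply, Real.norm_eq_abs] at h10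
  have h11 : τ * c.1.sz ≤ i.1.side k / 8 := by
    have h12 := BF.asp _ i.2 k
    have h13 : τ * c.1.sz ≤ τ * (R' * (κ0 * i.1.side k)) := by
      apply mul_le_mul_of_nonneg_left _ hτ0
      exact hcmp.trans (mul_le_mul_of_nonneg_left h12 hR'.le)
    have h14 := mul_le_mul_of_nonneg_right hτ (Bx.side_pos hpi k).le
    nlinarith
  have h15 := abs_le.1 (h10.trans (hxy.trans h11))
  have h16 := abs_le.1 (h5 k)
  have h17 := Bx.mem_set.1 hx k
  have h18 := ctr_lo i.1 k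
  have h19 := ctr_hi i.1 k
  have h20 := Bx.side_pos hpi k
  rcases hk with hk | hk
  · linarith [h15.1, h15.2, h16.1, h16.2, h17.1, h17.2]
  · linarith [h15.1, h15.2, h16.1, h16.2, h17.1, h17.2]

end

end Crest.Agent.R096.Bxs_627
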