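import Crest.Agent.R096.Ca8_855
import Crest.Agent.R096.Sk0_962
import Crest.Agent.R96.Crs1_538

/-!
# Row 96 (S0127), p ≤ 2: composite A (helper855), part 10: the composite

`CompA`: the output for one mesh `T` and the perfect cubes `Q`.  `comp_A`: coarse selection with
energies (538's `coarse_E`) + mesh family + good tiles + 2SK.
-/

set_option autoImplicit false
set_option linter.unusedSectionVars false

open Set Metric MeasureTheory Filter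
open scoped ENNReal Topology

namespace Crest.Agent.R096.Ca_855

open Crest.AnalysisR.VecCalc3 Crest.AnalysisR.Sobolev
open Crest.Agent.R096.Msh_715 (Tiling P I)
open Crest.Agent.R096.Sk2_855 (sk1 HP Mv)
open Crest.Agent.R096.Sk3_812 (GoodT HF ug)
open Crest.Agent.R096.Sk_962 (SH)
open Crest.Agent.R96.Intr_538 (cel par cel_mono GC)
open Crest.Agent.R96.Lu_538 (Gmat)
open Crest.Agent.R96.Coarse_538
open Crest.Agent.R96.Gdt_538 (MeshG)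

theorem hf_of_homeo {Om La : Set R3} {f : R3 → R3} (h : IsHomeomorphOn f Om La) :
    MapsTo f Om La ∧ InjOn f Om ∧ ∃ fi, HF Om La f fi := by
  obtain ⟨fi, h1, h2, h3, h4, h5, h6⟩ := h
  refine ⟨h1, fun x hx y hy e => ?_, fi, h5, h6, h2, h3⟩
  rw [← h3 x hx, ← h3 y hy, e]

/-- the good regions of a family of perfect cubes -/
abbrev RegsQ {Om : Set R3} {ι : Type} (T : Tiling Om ι) (La : Set R3) (f : R3 → R3)
    {Q : Finset (Fin 3 → ℤ)} (zc bb : (Fin 3 → ℤ) → R3) (LL : (Fin 3 → ℤ) → R3 →L[ℝ] R3)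
    (hinj : ∀ k ∈ Q, Function.Injective (LL k)) (c : ι → R3) (τ s β : ℝ) (nc : ℕ) (t κ : ℝ) :
    Prop :=
  Regs T La f (Aq zc bb LL hinj) (fun k => cel Cb (zc k) ((1 - 5 * τ) * s))
    (fun k => cel Cb (zc k) ((1 - 4 * τ) * s))
    (fun k i => ug (T.H i) (Gsm_432.H_ne T i) (c i) (Aq zc bb LL hinj k))
    (fun k i => Aq zc bb LL hinj k (c i)) (1 + β) (1 + 3 * β) nc t κ⁻¹

/-- **regions and `Ψ` from perfect cubes and a mesh family**, one position -/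
theorem psi_of_mesh {p : ℝ} (hp : 1 ≤ p) {Om La : Set R3} (hLa : IsOpen La) {f fi : R3 → R3}
    (F : HF Om La f fi)
    (happ : ∀ η > 0, ∃ h hi, HP Om La h hi ∧ ∀ x ∈ Om, ‖h x - f x‖ ≤ η)
    {ι : Type} {T : Tiling Om ι} {κi : Type*} {x v : κi → R3} {κ τ σ₀ η t s β r : ℝ} {a : R3}
    {D : R3 → R3 →L[ℝ] R3} {W K K' : Set R3} {Q : Finset (Fin 3 → ℤ)}
    {zc bb : (Fin 3 → ℤ) → R3} {LL : (Fin 3 → ℤ) → R3 →L[ℝ] R3} {nc : ℕ}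
    (hκ : 0 < κ) (hη : 0 < η) (ht : 0 < t) (hs : 0 < s) (hσ₀ : 0 < σ₀) (hσ₀τ : σ₀ < τ)
    (hτ6 : 6 * τ < 1) (htτ : 2 * t ≤ τ * s)
    (hP : ∀ k ∈ Q, PerfG x v p Om f D κ τ σ₀ η t s a (zc k) (bb k) (LL k))
    (hA : ∀ e, ACV Om f D (v e) (a + x e)) (hv : ∀ e, ‖v e‖ ≤ t) (hM : MeshG T x v a W)
    (hKW : K ⊆ W) (hKW' : ∀ y ∈ Om, f y ∈ K' → y ∈ W) (hK' : K' ⊆ La)
    (hcel : ∀ k ∈ Q, cel Cb (zc k) s ⊆ K) (hpar : ∀ k ∈ Q, par Cb (LL k) (bb k) s ⊆ K')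
    (hdis : ∀ k ∈ Q, ∀ l ∈ Q, k ≠ l →
      Disjoint (par Cb (LL k) (bb k) ((1 - τ) * s)) (par Cb (LL l) (bb l) s))
    (hητ : η * t ≤ κ * (τ * s)) (c : ι → R3) (hβ : 0 < β) (hr : 0 < r)
    (hG : ∀ i, (P (T.H i) ∩ W).Nonempty →
      TileG T i (Gsm_432.H_ne T i) (c i) β (r * t) t nc)
    (hη1 : 4 * η * (nc + 1) ≤ β * (κ * r)) :
    ∃ hinj : ∀ k ∈ Q, Function.Injective (LL k),
      RegsQ T La f zc bb LL hinj c τ s β nc t κ ∧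
      ∀ e : ℝ, 0 < e → ∃ Ψ : R3 ≃ₜ R3, Mv T Ψ ∧
        (∀ k ∈ Q, ∀ y ∈ cel Cb (zc k) ((1 - 6 * τ) * s),
          ‖f (Ψ y) - (bb k + LL k (y - zc k))‖ ≤ 3 * (nc * (nc * nc) + 2) * (κ⁻¹ * t) + e) ∧
        (∀ i, ∀ y ∈ P (T.H i), ∀ r', (∀ y' ∈ P (T.H i), ‖f y' - f y‖ ≤ r') →
          ‖f (Ψ y) - f y‖ ≤ r' + 3 * (nc * (nc * nc) + 1) * (κ⁻¹ * t) + e) := by
  have hinj : ∀ k ∈ Q, Function.Injective (LL k) := fun k hk => inj_of_low hκ (hP k hk).low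
  have hτ : 0 < τ := hσ₀.trans hσ₀τ
  have hpm : ∀ k ∈ Q, par Cb (LL k) (bb k) ((1 - τ) * s) ⊆ par Cb (LL k) (bb k) s :=
    fun k hk => par_mono (hinj k hk) (mul_nonneg (by linarith) hs.le) (by nlinarith)
  have R := regs_of_mesh (T := T) (La := La) hp F hκ hη ht hs hσ₀ hσ₀τ hτ6 htτ hP hA hv hM
    (fun k hk y hy hfy => hKW' y hy (hpar k hk (hpm k hk hfy)))
    (fun k hk => ((cel_mono ref_Cb _ (mul_nonneg (by linarith) hs.le) (by nlinarith)).trans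
      (hcel k hk)).trans hKW)
    (fun k hk => ((hpm k hk).trans (hpar k hk)).trans hK') hdis hητ hinj
    (Gsm_432.H_ne T) c hβ hr
    (fun k hk i ⟨y, hy, hy'⟩ => hG i ⟨y, hy, hKW (hcel k hk (cel_mono ref_Cb _
      (mul_nonneg (by linarith) hs.le) (by nlinarith) hy'))⟩) hη1
  refine ⟨hinj, R, fun e he => ?_⟩
  exact psi_of_regs hτ6 hs ht.le htτ hLa F (fun k hk => (hP k hk).sub) R happ he

/-- **COMPOSITE A** -/
theorem comp_A {p : ℝ} (hp : 1 ≤ p) {Om La : Set R3} (hOm : IsOpen Om)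
    (hOmb : Bornology.IsBounded Om) (hLa : IsOpen La) (hLaf : volume La ≠ ∞) {f : R3 → R3}
    {G : Fin 3 → R3 → R3} (H : SH p Om La f G)
    (happ : ∀ η > 0, ∃ h hi, HP Om La h hi ∧ ∀ x ∈ Om, ‖h x - f x‖ ≤ η) {ε : ℝ} (hε : 0 < ε) :
    ∃ κ : ℝ, 0 < κ ∧ κ ≤ 1 ∧ ∃ K ⊆ Om, IsCompact K ∧ ∃ K' ⊆ La, IsCompact K' ∧
      ∀ (nc : ℕ) (N n τ σ₀ η θ δ e₁ β r : ℝ), 0 < N → 0 < n → 0 < σ₀ → σ₀ < τ → 6 * τ < 1 →
        1 ≤ σ₀ * N → 2 ≤ τ * N → 0 < η → 0 < θ → 0 < δ → 0 < e₁ → 0 < β → 0 < r →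
        ∀ (m : ℕ) (g : Fin m → R3 → ℝ≥0∞), (∀ l, AEMeasurable (g l) volume) →
        (∀ l, ∫⁻ y, g l y ≠ ∞) → ∀ (nE ncE : Fin m → ℝ) (εE : ℝ), (∀ l, 0 < nE l) →
        (∀ l, 0 < ncE l) → 0 < εE →
        ∃ s₀ : ℝ, 0 < s₀ ∧ ∀ s : ℝ, 0 < s → s < s₀ → ∀ a₀ : R3,
        ∃ (Q₀ : Finset (Fin 3 → ℤ)) (b : (Fin 3 → ℤ) → R3) (L : (Fin 3 → ℤ) → R3 →L[ℝ] R3)
          (S : (Fin 3 → ℤ) → Set R3),
          (∀ k ∈ Q₀, GC Om volume f (Gmat G) Cb κ e₁ s (vt (2 * s) a₀ k) (b k) (L k) (S k)) ∧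
          (∀ k ∈ Q₀, cel Cb (vt (2 * s) a₀ k) s ⊆ K) ∧ (∀ k ∈ Q₀, par Cb (L k) (b k) s ⊆ K') ∧
          (∀ k ∈ Q₀, ∀ l ∈ Q₀, k ≠ l →
            Disjoint (par Cb (L k) (b k) ((1 - τ) * s)) (par Cb (L l) (b l) s)) ∧
          ∑ k ∈ Q₀, ∫⁻ x in cel Cb (vt (2 * s) a₀ k) s, ‖Gmat G x - L k‖ₑ ^ p ≤
            ENNReal.ofReal e₁ ∧
          volume ((Om ∩ {x | (Gmat G x).det ≠ 0}) \ ⋃ k ∈ Q₀, cel Cb (vt (2 * s) a₀ k) s) ≤
            ENNReal.ofReal ε ∧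
          ∀ (W : Set R3), K ⊆ W → (∀ y ∈ Om, f y ∈ K' → y ∈ W) →
            ∀ (M : MFam Om W (s / N) n β r nc)
            (μ : Fin m → R3 → Measure R3), (∀ l, RM M.Tr (ENNReal.ofReal (nE l)) (μ l)) →
            (∀ l, ∀ a ∈ M.Tr, ∀ k : Fin 3 → ℤ, μ l a (cel Cb (vt (2 * s) a₀ k) s) ≤
              ENNReal.ofReal (ncE l * (2 * s) ^ 3)) →
            ∀ (E : Fin m → Set R3), (∀ l, MeasurableSet (E l)) →
            ∀ (J : Type) [Countable J] (F : J → R3 → ℝ≥0∞), (∀ j, AEMeasurable (F j) volume) →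
            (∀ j, ∫⁻ y, F j y ≠ ∞) →
            ∃ B : Set R3, volume B ≤ ENNReal.ofReal θ * volume M.Tr ∧
              ∀ a ∈ M.Tr, a ∉ B → (∀ e, ACV Om f (Gmat G) (M.v e) (a + M.x e)) ∧
                (∀ e j, ∀ ε' : ℝ≥0∞, 0 < ε' → ∀ᶠ r in 𝓝[>] (0:ℝ),
                  ∫⁻ y in thickening r (seg M.x M.v a e), F j y ≤
                    ENNReal.ofReal (64 * ‖M.v e‖ * r ^ 2) *
                      ((∫⁻ σ in Ioc (0:ℝ) 1, F j (a + M.x e + σ • M.v e)) + ε')) ∧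
                ∃ Q ⊆ Q₀, ((Q₀ \ Q).card : ℝ) * (2 * s) ^ 3 ≤ δ ∧
                (∀ k ∈ Q, PerfG M.x M.v p Om f (Gmat G) κ τ σ₀ η (s / N) s a
                  (vt (2 * s) a₀ k) (b k) (L k)) ∧
                (∀ l, ∫⁻ y in E l ∪ ⋃ k ∈ Q₀ \ Q, cel Cb (vt (2 * s) a₀ k) s, g l y ∂μ l a ≤
                  ENNReal.ofReal (nE l / (θ / (4 * (m + 1)))) * (∫⁻ y in E l, g l y) +
                    ENNReal.ofReal εE) ∧
                ∃ hinj : ∀ k ∈ Q, Function.Injective (L k),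
                  RegsQ (M.T a) La f (vt (2 * s) a₀) b L hinj (M.c a) τ s β nc (s / N) κ ∧
                  ∀ e : ℝ, 0 < e → ∃ Ψ : R3 ≃ₜ R3, Mv (M.T a) Ψ ∧
                    (∀ k ∈ Q, ∀ y ∈ cel Cb (vt (2 * s) a₀ k) ((1 - 6 * τ) * s),
                      ‖f (Ψ y) - (b k + L k (y - vt (2 * s) a₀ k))‖ ≤
                        3 * (nc * (nc * nc) + 2) * (κ⁻¹ * (s / N)) + e) ∧
                    (∀ i, ∀ y ∈ P ((M.T a).H i), ∀ r',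
                      (∀ y' ∈ P ((M.T a).H i), ‖f y' - f y‖ ≤ r') →
                      ‖f (Ψ y) - f y‖ ≤ r' + 3 * (nc * (nc * nc) + 1) * (κ⁻¹ * (s / N)) + e) := by
  obtain ⟨hmt, hinjf, fi, F⟩ := hf_of_homeo H.homeo
  obtain ⟨κ, hκ, hκ1, K, hK, hKc, K', hK', hK'c, H0⟩ :=
    coarse_E hp hOm hOmb hLa hLaf hinjf F.cont hmt H.wg H.memG hε
  refine ⟨κ, hκ, hκ1, K, hK, hKc, K', hK', hK'c, ?_⟩
  intro nc N n τ σ₀ η θ δ e₁ β r hN hn hσ₀ hσ₀τ hτ6 hσN hτN hη hθ hδ he₁ hβ hr m g hg hgi nE ncE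
    εE hnE hncE hεE
  have hτ : 0 < τ := hσ₀.trans hσ₀τ
  have hnc : (0:ℝ) < 4 * (nc + 1) := by positivity
  -- the internal tolerance
  set η' := min η (min (β * (κ * r) / (4 * (nc + 1))) (κ * τ * N)) with hη'
  have hη'0 : 0 < η' := lt_min hη (lt_min (by positivity) (by positivity))
  have h1 : η' ≤ η := min_le_left _ _
  have h2 : 4 * η' * (nc + 1) ≤ β * (κ * r) := by
    have h3 : η' ≤ β * (κ * r) / (4 * (nc + 1)) := (min_le_right _ _).trans (min_le_left _ _)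
    rw [le_div_iff₀ hnc] at h3
    linarith
  have h3 : η' ≤ κ * τ * N := (min_le_right _ _).trans (min_le_right _ _)
  obtain ⟨s₀, hs₀, Hs⟩ := H0 N n τ σ₀ η' θ δ e₁ hN hn hσ₀ hσ₀τ (by linarith) hσN hη'0 hθ hδ he₁
    m g hg hgi nE ncE εE hnE hncE hεE
  refine ⟨s₀, hs₀, fun s hs hss a₀ => ?_⟩
  obtain ⟨Q₀, b, L, S, q1, q2, q3, q4, q5, q6, q7⟩ := Hs s hs hss a₀
  refine ⟨Q₀, b, L, S, q1, q2, q3, q4, q5, q6, ?_⟩
  intro W hKW hKW' M μ hμ hcount E hE J _ Fj hF hFi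
  have := M.cnt
  obtain ⟨B, hB, HB⟩ := q7 M.κi M.x M.v M.Tr M.meas M.vol M.fin M.vle M.vne M.dens μ hμ hcount E hE
    J Fj hF hFi
  refine ⟨B, hB, fun a ha haB => ?_⟩
  obtain ⟨a1, a2, Q, hQ, a3, a4, a5⟩ := HB a ha haB
  have ht : 0 < s / N := div_pos hs hN
  refine ⟨a1, a2, Q, hQ, a3, fun k hk => (a4 k hk).mono (by linarith) ht.le hη'0.le h1, a5, ?_⟩
  have htτ : 2 * (s / N) ≤ τ * s := by
    have e1 : 2 * (s / N) = 2 / N * s := by ring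
    rw [e1]
    refine mul_le_mul_of_nonneg_right ?_ hs.le
    rw [div_le_iff₀ hN]
    exact hτN
  have hητ : η' * (s / N) ≤ κ * (τ * s) := by
    calc η' * (s / N) ≤ (κ * τ * N) * (s / N) := mul_le_mul_of_nonneg_right h3 ht.le
      _ = κ * (τ * s) := by field_simp
  exact psi_of_mesh hp hLa F happ hκ hη'0 ht hs hσ₀ hσ₀τ hτ6 htτ a4 a1 M.vle (M.mesh a ha) hKW
    hKW' hK' (fun k hk => q2 k (hQ hk)) (fun k hk => q3 k (hQ hk))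
    (fun k hk l hl hkl => q4 k (hQ hk) l (hQ hl) hkl) hητ (M.c a) hβ hr (M.tile a ha) h2

end Crest.Agent.R096.Ca_855
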