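import Crest.Agent.R096.Ca10_855
import Crest.Agent.R096.Gz1_812

/-!
# Row 96 (S0127), p ≤ 2: composite A (helper855), part 12: the clause near `bd Om`

`comp_A_fine` = `comp_A` (Ca10) with 812's `HFine` in the place of `happ` and the third clause of
`psi_of_regs_fine` (Gz1_812).
-/

set_option autoImplicit false
set_option linter.unusedSectionVars false

open Set Metric MeasureTheory Filter
open scoped ENNReal Topology

namespace Crest.Agent.R096.Ca_855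

open Crest.AnalysisR.VecCalc3 Crest.AnalysisR.Sobolev
open Crest.Agent.R096.Msh_715 (Tiling P I)
open Crest.Agent.R096.Sk2_855 (sk1 HP Mv)
open Crest.Agent.R096.Sk3_812 (GoodT HF ug)
open Crest.Agent.R096.Sk_962 (SH)
open Crest.Agent.R96.Intr_538 (cel par cel_mono GC)
open Crest.Agent.R96.Lu_538 (Gmat)
open Crest.Agent.R96.Coarse_538
open Crest.Agent.R96.Gdt_538 (MeshG)
open Crest.Agent.R096.Gz_812 (HFine psi_of_regs_fine)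

/-- **COMPOSITE A** with the clause near `bd Om` (fine `happ`) -/
theorem comp_A_fine {p : ℝ} (hp : 1 ≤ p) {Om La : Set R3} (hOm : IsOpen Om)
    (hOmb : Bornology.IsBounded Om) (hLa : IsOpen La) (hLaf : volume La ≠ ∞) {f : R3 → R3}
    {G : Fin 3 → R3 → R3} (H : SH p Om La f G)
    (happ : HFine Om La f) {ε : ℝ} (hε : 0 < ε) :
    ∃ κ : ℝ, 0 < κ ∧ κ ≤ 1 ∧ ∃ K ⊆ Om, IsCompact K ∧ ∃ K' ⊆ La, IsCompact K' ∧
      ∀ (nc : ℕ) (N n τ σ₀ η θ δ e₁ β r : ℝ), 0 < N → 0 < n → 0 < σ₀ → σ₀ < τ → 6 * τ < 1 →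
        1 ≤ σ₀ * N → 2 ≤ τ * N → 0 < η → 0 < θ → 0 < δ → 0 < e₁ → 0 < β → 0 < r →
        ∀ (m : ℕ) (g : Fin m → R3 → ℝ≥0∞), (∀ l, AEMeasurable (g l) volume) →
        (∀ l, ∫⁻ y, g l y ≠ ∞) → ∀ (nE ncE : Fin m → ℝ) (εE : ℝ), (∀ l, 0 < nE l) →
        (∀ l, 0 < ncE l) → 0 < εE →
        ∃ s₀ : ℝ, 0 < s₀ ∧ ∀ s : ℝ, 0 < s → s < s₀ → ∀ a₀ : R3,
        ∃ (Q₀ : Finset (Fin 3 → ℤ)) (b : (Fin 3 → ℤ) → R3) (L : (Fin 3 → ℤ) → R3 →L[ℝ] R3)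
          (S : (Fin 3 → ℤ) → Set R3),
          (∀ k ∈ Q₀, GC Om volume f (Gmat G) Cb κ e₁ s (vt (2 * s) a₀ k) (b k) (L k) (S k)) ∧
          (∀ k ∈ Q₀, cel Cb (vt (2 * s) a₀ k) s ⊆ K) ∧ (∀ k ∈ Q₀, par Cb (L k) (b k) s ⊆ K') ∧
          (∀ k ∈ Q₀, ∀ l ∈ Q₀, k ≠ l →
            Disjoint (par Cb (L k) (b k) ((1 - τ) * s)) (par Cb (L l) (b l) s)) ∧
          ∑ k ∈ Q₀, ∫⁻ x in cel Cb (vt (2 * s) a₀ k) s, ‖Gmat G x - L k‖ₑ ^ p ≤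
            ENNReal.ofReal e₁ ∧
          volume ((Om ∩ {x | (Gmat G x).det ≠ 0}) \ ⋃ k ∈ Q₀, cel Cb (vt (2 * s) a₀ k) s) ≤
            ENNReal.ofReal ε ∧
          ∀ (W : Set R3), K ⊆ W → (∀ y ∈ Om, f y ∈ K' → y ∈ W) →
            ∀ (M : MFam Om W (s / N) n β r nc)
            (μ : Fin m → R3 → Measure R3), (∀ l, RM M.Tr (ENNReal.ofReal (nE l)) (μ l)) →
            (∀ l, ∀ a ∈ M.Tr, ∀ k : Fin 3 → ℤ, μ l a (cel Cb (vt (2 * s) a₀ k) s) ≤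
              ENNReal.ofReal (ncE l * (2 * s) ^ 3)) →
            ∀ (E : Fin m → Set R3), (∀ l, MeasurableSet (E l)) →
            ∀ (J : Type) [Countable J] (F : J → R3 → ℝ≥0∞), (∀ j, AEMeasurable (F j) volume) →
            (∀ j, ∫⁻ y, F j y ≠ ∞) →
            ∃ B : Set R3, volume B ≤ ENNReal.ofReal θ * volume M.Tr ∧
              ∀ a ∈ M.Tr, a ∉ B → (∀ e, ACV Om f (Gmat G) (M.v e) (a + M.x e)) ∧
                (∀ e j, ∀ ε' : ℝ≥0∞, 0 < ε' → ∀ᶠ r in 𝓝[>] (0:ℝ),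
                  ∫⁻ y in thickening r (seg M.x M.v a e), F j y ≤
                    ENNReal.ofReal (64 * ‖M.v e‖ * r ^ 2) *
                      ((∫⁻ σ in Ioc (0:ℝ) 1, F j (a + M.x e + σ • M.v e)) + ε')) ∧
                ∃ Q ⊆ Q₀, ((Q₀ \ Q).card : ℝ) * (2 * s) ^ 3 ≤ δ ∧
                (∀ k ∈ Q, PerfG M.x M.v p Om f (Gmat G) κ τ σ₀ η (s / N) s a
                  (vt (2 * s) a₀ k) (b k) (L k)) ∧
                (∀ l, ∫⁻ y in E l ∪ ⋃ k ∈ Q₀ \ Q, cel Cb (vt (2 * s) a₀ k) s, g l y ∂μ l a ≤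
                  ENNReal.ofReal (nE l / (θ / (4 * (m + 1)))) * (∫⁻ y in E l, g l y) +
                    ENNReal.ofReal εE) ∧
                ∃ hinj : ∀ k ∈ Q, Function.Injective (L k),
                  RegsQ (M.T a) La f (vt (2 * s) a₀) b L hinj (M.c a) τ s β nc (s / N) κ ∧
                  ∀ e : ℝ, 0 < e → ∀ ζ : R3 → ℝ, (∀ y ∈ La, 0 < ζ y) →
                    (∀ y y', |ζ y - ζ y'| ≤ ‖y - y'‖ / 2) → ∃ Ψ : R3 ≃ₜ R3, Mv (M.T a) Ψ ∧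
                    (∀ k ∈ Q, ∀ y ∈ cel Cb (vt (2 * s) a₀ k) ((1 - 6 * τ) * s),
                      ‖f (Ψ y) - (b k + L k (y - vt (2 * s) a₀ k))‖ ≤
                        3 * (nc * (nc * nc) + 2) * (κ⁻¹ * (s / N)) + e) ∧
                    (∀ i, ∀ y ∈ P ((M.T a).H i), ∀ r',
                      (∀ y' ∈ P ((M.T a).H i), ‖f y' - f y‖ ≤ r') →
                      ‖f (Ψ y) - f y‖ ≤ r' + 3 * (nc * (nc * nc) + 1) * (κ⁻¹ * (s / N)) + e) ∧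
                    (∀ i, ∀ y ∈ P ((M.T a).H i), ∀ r',
                      (∀ y' ∈ P ((M.T a).H i), ‖f y' - f y‖ ≤ r') →
                      (∀ k ∈ Q, Disjoint (closedBall (f y) (2 * r' + ζ (f y)))
                        (par Cb (L k) (b k) ((1 - 4 * τ) * s))) →
                      ‖f (Ψ y) - f y‖ ≤ 4 * r' + 4 * ζ (f y)) := by
  obtain ⟨hmt, -, fi, F⟩ := hf_of_homeo H.homeo
  obtain ⟨κ, hκ, hκ1, K, hK, hKc, K', hK', hK'c, H0⟩ :=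
    comp_A hp hOm hOmb hLa hLaf H happ.unif hε
  refine ⟨κ, hκ, hκ1, K, hK, hKc, K', hK', hK'c, ?_⟩
  intro nc N n τ σ₀ η θ δ e₁ β r hN hn hσ₀ hσ₀τ hτ6 hσN hτN hη hθ hδ he₁ hβ hr m g hg hgi nE ncE
    εE hnE hncE hεE
  obtain ⟨s₀, hs₀, Hs⟩ := H0 nc N n τ σ₀ η θ δ e₁ β r hN hn hσ₀ hσ₀τ hτ6 hσN hτN hη hθ hδ he₁ hβ
    hr m g hg hgi nE ncE εE hnE hncE hεE
  refine ⟨s₀, hs₀, fun s hs hss a₀ => ?_⟩
  obtain ⟨Q₀, b, L, S, q1, q2, q3, q4, q5, q6, q7⟩ := Hs s hs hss a₀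
  refine ⟨Q₀, b, L, S, q1, q2, q3, q4, q5, q6, ?_⟩
  intro W hKW hKW' M μ hμ hcount E hE J _ Fj hF hFi
  obtain ⟨B, hB, HB⟩ := q7 W hKW hKW' M μ hμ hcount E hE J Fj hF hFi
  refine ⟨B, hB, fun a ha haB => ?_⟩
  obtain ⟨a1, a2, Q, hQ, a3, a4, a5, hinj, R, -⟩ := HB a ha haB
  refine ⟨a1, a2, Q, hQ, a3, a4, a5, hinj, R, fun e he ζ hζ0 hζ => ?_⟩
  have ht : 0 < s / N := div_pos hs hN
  have htτ : 2 * (s / N) ≤ τ * s := by
    have e1 : 2 * (s / N) = 2 / N * s := by ring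
    rw [e1]
    refine mul_le_mul_of_nonneg_right ?_ hs.le
    rw [div_le_iff₀ hN]
    exact hτN
  exact psi_of_regs_fine hτ6 hs ht.le htτ hLa F hmt (fun k hk => (a4 k hk).sub) R happ he hζ0 hζ

end Crest.Agent.R096.Ca_855
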