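import Crest.Agent.R096.Msb2_432
import Crest.Agent.R096.Mal19_874

/-!
# Row 96: the aligned mesh with subdivided cores, part 5: rigidity, the block tiling with
subdivided core
-/

set_option autoImplicit false
set_option linter.unusedSectionVars false

open Set Filter Topology Metric

namespace Crest.Agent.R096.Msb_432

open Msh_715 Cut_874 Msh_810 Mal_874

variable {n : ℕ} {E : Type*} [NormedAddCommGroup E] [NormedSpace ℝ E]

/-! ### the block tiling with subdivided core -/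

section block

variable (Q : CB E n) (k : ℕ) (hk : Q.kc ≤ k)

theorem cu_repl : Repl (Q.T k hk) {Q.cix k hk}
    (fun z : {z : Fin n → ℤ // z ∈ bx Q.S.lo Q.S.hi} => cuH Q z.1) where
  cpt z := (isCompact_Kc Q).of_isClosed_subset (isClosed_P _) (cuH_sub Q z.2)
  ne z := cuH_ne Q z.1
  dis z z' h := cuH_dis Q fun e => h (Subtype.ext e)
  lf x _ := by
    have : Finite {z : Fin n → ℤ // z ∈ bx Q.S.lo Q.S.hi} := (bx_finite _ _).to_subtype
    exact ⟨1, one_pos, Set.toFinite _⟩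
  eq := by
    ext x
    simp only [mem_iUnion, mem_singleton_iff, iUnion_iUnion_eq_left]
    rw [Q.P_core k hk]
    constructor
    · rintro ⟨z, hz⟩
      exact cuH_sub Q z.2 hz
    · intro hx
      obtain ⟨z, hz, hxz⟩ := exists_cuH Q hx
      exact ⟨⟨z, hz⟩, hxz⟩

/-- **the tiling of the block with subdivided core** -/
noncomputable def TsB : Tiling (Q.ψ ⁻¹' (Q.D k hk).Om)
    ({i // i ∉ ({Q.cix k hk} : Set _)} ⊕ {z : Fin n → ℤ // z ∈ bx Q.S.lo Q.S.hi}) :=
  patch (Q.T k hk) {Q.cix k hk} (fun z => cuH Q z.1) (cu_repl Q k hk)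

theorem TsB_subD : SubD (Q.T k hk) {Q.cix k hk}
    (fun z : {z : Fin n → ℤ // z ∈ bx Q.S.lo Q.S.hi} => cuH Q z.1) := by
  rintro _ rfl x hx
  rw [Q.P_core k hk] at hx
  obtain ⟨z, hz, hxz⟩ := exists_cuH Q hx
  refine ⟨⟨z, hz⟩, hxz, ?_⟩
  rw [Q.P_core k hk]
  exact cuH_sub Q hz

theorem mem_TsB_Om (x : E) : x ∈ Q.ψ ⁻¹' (Q.D k hk).Om := by
  rw [mem_preimage, Q.D_Om k hk]
  exact mem_univ _

theorem TsB_cc_sub (x : E) : (TsB Q k hk).cc x ⊆ (Q.T k hk).cc x :=
  patch_cc_sub (TsB_subD Q k hk) x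

theorem TsB_dim_le [FiniteDimensional ℝ E] (x : E) :
    (TsB Q k hk).dim x ≤ (Q.T k hk).dim x :=
  patch_dim_le (TsB_subD Q k hk) (mem_TsB_Om Q k hk x)

/-- the block tilings with subdivided cores of the scales `k0 ≤ k` agree away from the wall -/
theorem sameS {k0 : ℕ} (hk0 : Q.kc ≤ k0) (hkk : k0 ≤ k) {p : E}
    (hp : 7 / 2 ^ k0 < infDist (Q.ψ p) Q.W) :
    Rg (TsB Q k0 hk0) (TsB Q k (hk0.trans hkk)) 0 p := by
  refine Rg.patch (Q.same_T hk0 hkk hp) ?_ ?_ ?_
  · intro i _ i' e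
    rw [trS_zero] at e
    rw [mem_singleton_iff, mem_singleton_iff]
    constructor
    · rintro rfl
      refine P_inj (T := Q.T k0 hk0) ?_
      rw [← e, Q.P_core, Q.P_core]
    · rintro rfl
      refine P_inj (T := Q.T k (hk0.trans hkk)) ?_
      rw [e, Q.P_core, Q.P_core]
  · intro z _
    exact ⟨z, (trS_zero _).symm⟩
  · intro z _
    exact ⟨z, (trS_zero _).symm⟩

theorem cuH_tr (b : E) (z : Fin n → ℤ) : cuH (Q.tr b) z = trS b (cuH Q z) :=
  Hc_tr Q.ψ Q.a' b Q.kc z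

theorem mem_Kc_tr' (b y : E) : y + b ∈ (Q.tr b).Kc ↔ y ∈ Q.Kc := by
  rw [CB.mem_Kc_tr, add_sub_cancel_right]

/-- the block tiling with subdivided core moves rigidly with the block -/
theorem rgS_tr (b p : E) : Rg (TsB Q k hk) (TsB (Q.tr b) k hk) b p := by
  refine Rg.patch (Q.rg_tr b k hk p) ?_ ?_ ?_
  · intro i _ i' e
    rw [mem_singleton_iff, mem_singleton_iff]
    have h1 : P (((Q.tr b).T k hk).H i') = (Q.tr b).Kc ↔ P ((Q.T k hk).H i) = Q.Kc := by
      rw [e]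
      constructor
      · intro h
        ext y
        rw [← mem_P_trS (b := b), h, mem_Kc_tr']
      · intro h
        ext y
        have e2 : y = (y - b) + b := by abel
        rw [e2, mem_P_trS, mem_Kc_tr', h]
    constructor
    · rintro rfl
      refine P_inj (T := Q.T k hk) ?_
      rw [Q.P_core]
      exact h1.1 ((Q.tr b).P_core k hk)
    · rintro rfl
      refine P_inj (T := (Q.tr b).T k hk) ?_
      rw [(Q.tr b).P_core k hk]
      exact h1.2 (Q.P_core k hk)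
  · intro z _
    exact ⟨z, cuH_tr Q b z.1⟩
  · intro z _
    exact ⟨z, cuH_tr Q b z.1⟩

end block

/-! ### rigidity of the mesh with subdivided cores -/

section rigid

variable [NeZero n] {J : Type*} (M : MD E n J) {k k' : J → ℕ} (hk : M.Sc k) (hk' : M.Sc k')
  (a a2 : Fin n → ℝ) {v v' : J → E} (hv : M.Adm v) (hv' : M.Adm v') {b p : E}

theorem mem_Kc_add {j : J} (hj : v' j = v j + b) (y : E) :
    y + b ∈ (M.Bk v' j).Kc ↔ y ∈ (M.Bk v j).Kc := by
  show y + b ∈ ((M.Q j).tr (v' j)).Kc ↔ y ∈ ((M.Q j).tr (v j)).Kc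
  rw [CB.mem_Kc_tr, CB.mem_Kc_tr, hj]
  have : y + b - (v j + b) = y - v j := by abel
  rw [this]

theorem cubH_tr {j : J} (hj : v' j = v j + b)
    (z : {z : Fin n → ℤ // z ∈ bx (M.Q j).S.lo (M.Q j).S.hi}) :
    cubH M v' ⟨j, z⟩ = trS b (cubH M v ⟨j, z⟩) := by
  show Hc (M.Q j).ψ ((M.Q j).a' + (M.Q j).ψ (v' j)) (M.Q j).kc z.1 =
    trS b (Hc (M.Q j).ψ ((M.Q j).a' + (M.Q j).ψ (v j)) (M.Q j).kc z.1)
  rw [← Hc_tr, hj, map_add, add_assoc]

theorem core_tr {j : J} (hj : v' j = v j + b) {t : M.OIx hk a hv ⊕ Σ j, M.IIx hk a hv j}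
    {t' : M.OIx hk' a2 hv' ⊕ Σ j, M.IIx hk' a2 hv' j}
    (e : (M.mesh hk' a2 hv').H t' = trS b ((M.mesh hk a hv).H t)) :
    t' = Sum.inr ⟨j, M.core hk' a2 hv' j⟩ ↔ t = Sum.inr ⟨j, M.core hk a hv j⟩ := by
  have h1 : P ((M.mesh hk' a2 hv').H t') = (M.Bk v' j).Kc ↔
      P ((M.mesh hk a hv).H t) = (M.Bk v j).Kc := by
    rw [e]
    constructor
    · intro h
      ext y
      rw [← mem_P_trS (b := b), h, mem_Kc_add M hj]
    · intro h
      ext y
      have e2 : y = (y - b) + b := by abel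
      rw [e2, mem_P_trS, mem_Kc_add M hj, h]
  constructor
  · rintro rfl
    refine P_inj (T := M.mesh hk a hv) ?_
    rw [M.P_core hk a hv j]
    exact h1.1 (M.P_core hk' a2 hv' j)
  · rintro rfl
    refine P_inj (T := M.mesh hk' a2 hv') ?_
    rw [M.P_core hk' a2 hv' j]
    exact h1.2 (M.P_core hk a hv j)

/-- **rigidity of `meshS` from rigidity of the mesh** (any scales, outer grids): only the blocks
whose core is met have to move by `b` -/
theorem rigidS (hloc : ∀ j, p ∈ (M.Bk v j).Kc ∨ p + b ∈ (M.Bk v' j).Kc → v' j = v j + b)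
    (h : Rg (M.mesh hk a hv) (M.mesh hk' a2 hv') b p) :
    Rg (meshS M hk a hv) (meshS M hk' a2 hv') b p := by
  refine Rg.patch h ?_ ?_ ?_
  · intro t ht t' e
    constructor
    · rintro ⟨j, rfl⟩
      have h1 : p + b ∈ P ((M.mesh hk' a2 hv').H (Sum.inr ⟨j, M.core hk' a2 hv' j⟩)) := by
        rw [e]
        exact mem_P_trS.2 ht
      rw [M.P_core hk' a2 hv' j] at h1
      exact ⟨j, (core_tr M hk hk' a a2 hv hv' (hloc j (Or.inr h1)) e).1 rfl⟩
    · rintro ⟨j, rfl⟩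
      have h1 : p ∈ P ((M.mesh hk a hv).H (Sum.inr ⟨j, M.core hk a hv j⟩)) := ht
      rw [M.P_core hk a hv j] at h1
      exact ⟨j, (core_tr M hk hk' a a2 hv hv' (hloc j (Or.inl h1)) e).2 rfl⟩
  · rintro ⟨j, z⟩ hz
    exact ⟨⟨j, z⟩, cubH_tr M (hloc j (Or.inl (cubH_sub (M := M) (v := v) ⟨j, z⟩ hz))) z⟩
  · rintro ⟨j, z⟩ hz
    exact ⟨⟨j, z⟩, cubH_tr M (hloc j (Or.inr (cubH_sub (M := M) (v := v') ⟨j, z⟩ hz))) z⟩

/-- **rigidity of `meshS` where the outer scale is constant** -/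
theorem rigidS_const (hvv : ∀ j, v' j = v j + b) {κ : ℕ} (hp : M.φ p ∈ M.D0.Om)
    (hp' : M.φ (p + b) ∈ M.D0.Om) (h : ∀ᶠ y in 𝓝 (M.φ p), K (outD M.D0 k M.W a) y = κ)
    (h' : ∀ᶠ y in 𝓝 (M.φ (p + b)), K (outD M.D0 k M.W (a + M.φ b)) y = κ) :
    Rg (meshS M hk a hv) (meshS M hk (a + M.φ b) hv') b p :=
  rigidS M hk hk a (a + M.φ b) hv hv' (fun j _ => hvv j)
    (M.rigid_const hk a hv hv' hvv hp hp' h h')

/-- rigidity of `meshS` from rigidity of the outer Whitney cubes -/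
theorem rigidS_of (hvv : ∀ j, v' j = v j + b)
    (h0 : Rg (M.ad hk a hv).T0 (M.ad hk (a + M.φ b) hv').T0 b p) :
    Rg (meshS M hk a hv) (meshS M hk (a + M.φ b) hv') b p :=
  rigidS M hk hk a (a + M.φ b) hv hv' (fun j _ => hvv j) (M.rigid hk a hv hv' hvv h0)

/-- **rigidity of `meshS` inside a block** -/
theorem rigidS_in {j : J} (hj : v' j = v j + b) (hp : p ∈ interior (M.Bk v j).N) :
    Rg (meshS M hk a hv) (meshS M hk a2 hv') b p := by
  refine rigidS M hk hk a a2 hv hv' ?_ (M.rigid_in hk a a2 hv hv' hj hp)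
  have hpN := interior_subset hp
  have hpN' : p + b ∈ (M.Bk v' j).N := by
    show p + b ∈ ((M.Q j).tr (v' j)).N
    rw [CB.mem_N_tr, hj]
    have : p + b - (v j + b) = p - v j := by abel
    rw [this, ← CB.mem_N_tr]
    exact hpN
  rintro l (hl | hl)
  · obtain rfl : j = l := by
      by_contra hne
      exact Set.disjoint_left.1 (N_disj hk a hv hne) hpN (Kc_sub_N _ hl)
    exact hj
  · obtain rfl : j = l := by
      by_contra hne
      exact Set.disjoint_left.1 (N_disj hk a2 hv' hne) hpN' (Kc_sub_N _ hl)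
    exact hj

/-- **inside a block `meshS` is the block tiling with subdivided core** -/
theorem rgS_block {j : J} (hp : p ∈ interior (M.Bk v j).N) :
    Rg (TsB (M.Bk v j) (k j) (hk.kc j)) (meshS M hk a hv) 0 p := by
  have h := M.rg_block hk a hv hp
  refine Rg.patch h ?_ ?_ ?_
  · intro i hi t e
    rw [trS_zero] at e
    constructor
    · rintro ⟨l, rfl⟩
      have h1 : p ∈ P ((M.mesh hk a hv).H (Sum.inr ⟨l, M.core hk a hv l⟩)) := by
        rw [e]; exact hi
      rw [M.P_core hk a hv l] at h1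
      obtain rfl : j = l := by
        by_contra hne
        exact Set.disjoint_left.1 (N_disj hk a hv hne) (interior_subset hp) (Kc_sub_N _ h1)
      rw [mem_singleton_iff]
      refine P_inj (T := (M.Bk v j).T (k j) (hk.kc j)) ?_
      rw [← e, M.P_core hk a hv j]
      exact ((M.Bk v j).P_core (k j) (hk.kc j)).symm
    · intro hi2
      rw [mem_singleton_iff] at hi2
      subst hi2
      refine ⟨j, P_inj (T := M.mesh hk a hv) ?_⟩
      rw [e, M.P_core hk a hv j]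
      exact (M.Bk v j).P_core (k j) (hk.kc j)
  · intro z _
    exact ⟨⟨j, z⟩, (trS_zero _).symm⟩
  · rintro ⟨l, z⟩ hz
    have h1 : p + 0 ∈ (M.Bk v l).Kc := cubH_sub (M := M) (v := v) ⟨l, z⟩ hz
    rw [add_zero] at h1
    obtain rfl : j = l := by
      by_contra hne
      exact Set.disjoint_left.1 (N_disj hk a hv hne) (interior_subset hp) (Kc_sub_N _ h1)
    exact ⟨z, (trS_zero _).symm⟩

/-- **inside a block, at distance more than `7 / 2 ^ k0` from the wall, `meshS` is the translated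
block tiling with subdivided core of scale `k0`** -/
theorem rgS_k0 {j : J} {k0 : ℕ} (hk0 : (M.Q j).kc ≤ k0) (hkk : k0 ≤ k j)
    (hp : p + v j ∈ interior (M.Bk v j).N) (hp2 : 7 / 2 ^ k0 < infDist ((M.Q j).ψ p) (M.Q j).W) :
    Rg (TsB (M.Q j) k0 hk0) (meshS M hk a hv) (v j) p := by
  have h1 : Rg (TsB (M.Q j) k0 hk0) (TsB (M.Q j) (k j) (hk0.trans hkk)) 0 p :=
    sameS (M.Q j) (k j) hk0 hkk hp2
  have h2 : Rg (TsB (M.Q j) (k j) (hk0.trans hkk)) (TsB (M.Bk v j) (k j) (hk.kc j)) (v j)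
    (p + 0) := rgS_tr (M.Q j) (k j) _ (v j) _
  have h3 : Rg (TsB (M.Q j) k0 hk0) (TsB (M.Bk v j) (k j) (hk.kc j)) (0 + v j) p := h1.trans h2
  rw [zero_add] at h3
  have h4 := h3.trans (rgS_block M hk a hv hp)
  rwa [add_zero] at h4

/-- `rgS_k0` with `k0 = k j`: everywhere inside the block -/
theorem rgS_in {j : J} (hp : p + v j ∈ interior (M.Bk v j).N) :
    Rg (TsB (M.Q j) (k j) (hk.kc j)) (meshS M hk a hv) (v j) p := by
  have h3 : Rg (TsB (M.Q j) (k j) (hk.kc j)) (TsB (M.Bk v j) (k j) (hk.kc j)) (v j) p :=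
    rgS_tr (M.Q j) (k j) _ (v j) _
  have h4 := h3.trans (rgS_block M hk a hv hp)
  rwa [add_zero] at h4

end rigid

end Crest.Agent.R096.Msb_432
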