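import Crest.Agent.R096.Nbr3_896

/-!
# Row 96, p ≤ 2 (helper896), leaf NBR, part 4: `nc` and the diameters BEFORE the net

`Fb K M`: all frames and their inverses have norm `≤ K`.

* `nbr_meshS` (a): a bound of the number of tiles which touch a tile of `meshS`, and of the crossing
  edges, which depends only on `K`, `B0`, `R0` (no net, no denominators, no scales).
* `diam_block` (b): diameters of the tiles which meet a block.
* `tileG_struct`: helper432's `tileG_meshS` with `D`, `nc` BEFORE the net.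
-/

set_option autoImplicit false
set_option linter.unusedSectionVars false

open Set Metric Topology Filter

namespace Crest.Agent.R096.Nbr_896

open Crest.Agent.R096.Msh_715 Crest.Agent.R096.Msh_715.Tiling Crest.Agent.R096.Mal_874
open Crest.Agent.R096.Msh_810 Crest.Agent.R096.Cut_874 Crest.Agent.R096.Msb_432
open Crest.Agent.R096.Gsm_432 (star TG gap_goods good_mono NB_mono)

universe w

variable {n : ℕ}

/-- all frames and their inverses have norm at most `K` -/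
structure Fb {E : Type*} [NormedAddCommGroup E] [NormedSpace ℝ E] {J : Type*} (K : ℝ)
    (M : MD E n J) : Prop where
  φ1 : ∀ v, ‖M.φ v‖ ≤ K * ‖v‖
  φ2 : ∀ v, ‖v‖ ≤ K * ‖M.φ v‖
  ψ1 : ∀ j v, ‖(M.Q j).ψ v‖ ≤ K * ‖v‖
  ψ2 : ∀ j v, ‖v‖ ≤ K * ‖(M.Q j).ψ v‖

section

variable {E : Type*} [NormedAddCommGroup E] [NormedSpace ℝ E] {J : Type*} {M : MD E n J} {K : ℝ}

theorem Fb.mono (h : Fb K M) {K' : ℝ} (hK : K ≤ K') : Fb K' M where
  φ1 v := (h.φ1 v).trans (mul_le_mul_of_nonneg_right hK (norm_nonneg _))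
  φ2 v := (h.φ2 v).trans (mul_le_mul_of_nonneg_right hK (norm_nonneg _))
  ψ1 j v := (h.ψ1 j v).trans (mul_le_mul_of_nonneg_right hK (norm_nonneg _))
  ψ2 j v := (h.ψ2 j v).trans (mul_le_mul_of_nonneg_right hK (norm_nonneg _))

theorem cn_of {φ ψ : E ≃L[ℝ] (Fin n → ℝ)} (hK : 0 ≤ K) (h1 : ∀ v, ‖φ v‖ ≤ K * ‖v‖)
    (h2 : ∀ v, ‖v‖ ≤ K * ‖ψ v‖) : Cn φ ψ ⌈K * K⌉₊ := by
  intro x y
  rw [dist_eq_norm, dist_eq_norm, ← map_sub, ← map_sub]
  calc ‖φ (x - y)‖ ≤ K * ‖x - y‖ := h1 _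
    _ ≤ K * (K * ‖ψ (x - y)‖) := mul_le_mul_of_nonneg_left (h2 _) hK
    _ = (K * K) * ‖ψ (x - y)‖ := by ring
    _ ≤ ⌈K * K⌉₊ * ‖ψ (x - y)‖ := mul_le_mul_of_nonneg_right (Nat.le_ceil _) (norm_nonneg _)

theorem Fb.cn0 (h : Fb K M) (hK : 0 ≤ K) (j : J) : Cn M.φ (M.Q j).ψ ⌈K * K⌉₊ :=
  cn_of hK h.φ1 (h.ψ2 j)

theorem Fb.cn1 (h : Fb K M) (hK : 0 ≤ K) (j : J) : Cn (M.Q j).ψ M.φ ⌈K * K⌉₊ :=
  cn_of hK (h.ψ1 j) h.φ2

end

/-! ### (a) -/

/-- **NBR (a)** -/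
theorem nbr_meshS (E : Type) [NormedAddCommGroup E] [NormedSpace ℝ E] [FiniteDimensional ℝ E]
    [NeZero n] (K R0 : ℝ) (B0 : ℕ) :
    ∃ nc : ℕ, ∀ {J : Type w} (M : MD E n J) {k : J → ℕ} (hk : M.Sc k)
      (a : Fin n → ℝ) {v : J → E} (hv : M.Adm v) (X : RD M), RP X a v k → Fb K M →
      (∀ j, X.B j ≤ B0) → (∀ j, X.R j ≤ R0) → ∀ t,
      (star (meshS M hk a hv) t).ncard ≤ nc ∧ Nat.card (Tgr_335.KT (meshS M hk a hv) t) ≤ nc ∧
        Nat.card (Sk3_812.KT (meshS M hk a hv) t) ≤ nc := by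
  classical
  set Ls : Set (Finset (Fin n → ℝ) × ℕ) := {(N0 n, 1)} ∪ {(NB n B0, 1)} with hLs
  have hfin : Ls.Finite := (finite_singleton _).union (finite_singleton _)
  have hpos : ∀ p ∈ Ls, 0 < p.2 := by
    rintro p (rfl | rfl)
    · exact one_pos
    · exact one_pos
  have hrat : ∀ p ∈ Ls, ∀ ν ∈ p.1, ∀ m, ∃ c : ℤ, ν m = c / p.2 := by
    rintro p (rfl | rfl)
    · exact N0_rat one_pos
    · exact NB_rat B0 one_pos
  obtain ⟨β, -, ρ, -, D, n1, h⟩ := gap_goods.{0, w} E hfin hpos hrat (max 2 R0)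
  set c : ℕ := ⌈|K| * |K|⌉₊ with hc
  set N : ℕ := n1 + (nO n c 1 + nI n c) + (nO n c c + nI n 1) with hN
  refine ⟨2 ^ N, fun {J} M {k} hk a {v} hv X RPx hF hB hR => ?_⟩
  have m0 : (N0 n, 1) ∈ Ls := Or.inl rfl
  have mB : (NB n B0, 1) ∈ Ls := Or.inr rfl
  have hF' : Fb |K| M := hF.mono (le_abs_self K)
  have hc0 : ∀ j, Cn M.φ (M.Q j).ψ c := hF'.cn0 (abs_nonneg K)
  have hc1 : ∀ j, Cn (M.Q j).ψ M.φ c := hF'.cn1 (abs_nonneg K)
  have r1 : (1 : ℝ) ≤ max 2 R0 := le_trans (by norm_num) (le_max_left _ _)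
  have r3 : ∀ j, X.R j ≤ max 2 R0 := fun j => (hR j).trans (le_max_right _ _)
  have key : ∀ t, (star (meshS M hk a hv) t).ncard ≤ N := by
    rintro (⟨p | ⟨j, i⟩, ht⟩ | z)
    · exact (star_outer M hk a hv hc1 p ht).trans (by omega)
    · have hi : i ≠ M.core hk a hv j := by
        rintro rfl
        exact ht ⟨j, rfl⟩
      rcases inner_goodW M hk a hv X RPx i hi with ⟨τ, hτ, hg⟩ | hg | ⟨-, hw, -⟩
      · obtain ⟨c', hc'⟩ := h _ _ _ _ _ m0 (good_mono hg subset_rfl (le_max_left _ _))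
        exact hc'.nbr.trans (by omega)
      · obtain ⟨c', hc'⟩ := h _ _ _ _ _ mB (good_mono hg (NB_mono (hB j)) (r3 j))
        exact hc'.nbr.trans (by omega)
      · exact (star_wall M hk a hv hc0 hc1 i ht hw).trans (by omega)
    · obtain ⟨c', hc'⟩ := h _ _ _ _ _ mB
        (good_mono (cube_goodS M hk a hv X z) (NB_mono (hB _)) r1)
      exact hc'.nbr.trans (by omega)
  intro t
  have h1 := key t
  have h2 : N ≤ 2 ^ N := Nat.lt_two_pow_self.le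
  refine ⟨h1.trans h2, ?_, ?_⟩
  · exact (card_KT _ t).trans (Nat.pow_le_pow_right (by norm_num) h1)
  · exact (card_KT' _ t).trans (Nat.pow_le_pow_right (by norm_num) h1)

/-! ### (b) -/

section diam

variable {E : Type*} [NormedAddCommGroup E] [NormedSpace ℝ E]

theorem diam_of_ps {φ : E ≃L[ℝ] (Fin n → ℝ)} {a : Fin n → ℝ} {κ : ℕ} {K R : ℝ} (hK : 0 ≤ K)
    (h2 : ∀ v, ‖v‖ ≤ K * ‖φ v‖) (hR : 0 ≤ R) {x y : E}
    (h : ∀ m, |ps a κ (φ x) m - ps a κ (φ y) m| ≤ R) : ‖x - y‖ ≤ K * R / 2 ^ κ := by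
  have hp : (0 : ℝ) < 2 ^ κ := by positivity
  have h3 : ‖φ (x - y)‖ ≤ R / 2 ^ κ := by
    rw [pi_norm_le_iff_of_nonneg (by positivity)]
    intro m
    rw [le_div_iff₀' hp, map_sub, Pi.sub_apply, Real.norm_eq_abs]
    have h4 := h m
    unfold ps at h4
    have e : 2 ^ κ * (φ x m - a m) - 2 ^ κ * (φ y m - a m) = 2 ^ κ * (φ x m - φ y m) := by ring
    rwa [e, abs_mul, abs_of_pos hp] at h4
  calc ‖x - y‖ ≤ K * ‖φ (x - y)‖ := h2 _
    _ ≤ K * (R / 2 ^ κ) := mul_le_mul_of_nonneg_left h3 hK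
    _ = K * R / 2 ^ κ := by ring

theorem diam_of_dist {φ : E ≃L[ℝ] (Fin n → ℝ)} {K r : ℝ} (hK : 0 ≤ K)
    (h2 : ∀ v, ‖v‖ ≤ K * ‖φ v‖) {x y : E} (h : dist (φ x) (φ y) ≤ r) : ‖x - y‖ ≤ K * r := by
  rw [dist_eq_norm, ← map_sub] at h
  exact (h2 _).trans (mul_le_mul_of_nonneg_left h hK)

theorem good_diam {Om : Set E} {ι : Type*} {T : Tiling Om ι} {t : ι} {φ : E ≃L[ℝ] (Fin n → ℝ)}
    {a : Fin n → ℝ} {κ κ' : ℕ} {𝒩 : Finset (Fin n → ℝ)} {d : ℕ} {K R : ℝ} (hK : 0 ≤ K)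
    (h2 : ∀ v, ‖v‖ ≤ K * ‖φ v‖) (hR : 0 ≤ R) (h : Good T t (chi φ a κ) κ' 𝒩 d R) :
    ∀ x ∈ P (T.H t), ∀ y ∈ P (T.H t), ‖x - y‖ ≤ K * R / 2 ^ κ := by
  intro x hx y hy
  refine diam_of_ps (a := a) hK h2 hR fun m => ?_
  have h3 := h.sz y hy x hx m
  rwa [chi_eq_ps, chi_eq_ps] at h3

variable [NeZero n] {J : Type*} (M : MD E n J) {k : J → ℕ} (hk : M.Sc k) (a : Fin n → ℝ)
  {v : J → E} (hv : M.Adm v)

/-- **NBR (b)**: the tiles of `meshS` which meet the block `j` have diameter `≤ K max 1 R / 2^kc` -/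
theorem diam_block (X : RD M) {K R0 : ℝ} (hK : 0 ≤ K) (hF : Fb K M) (hR : ∀ j, X.R j ≤ R0) {j : J}
    (t : {t // t ∉ cores M hk a hv} ⊕ CIx M)
    (ht : (P ((meshS M hk a hv).H t) ∩ (M.Bk v j).N).Nonempty) :
    ∀ x ∈ P ((meshS M hk a hv).H t), ∀ y ∈ P ((meshS M hk a hv).H t),
      ‖x - y‖ ≤ K * max 1 R0 / 2 ^ (M.Q j).kc := by
  intro x hx y hy
  have hp : (0 : ℝ) < 2 ^ (M.Q j).kc := by positivity
  have hm : (1 : ℝ) ≤ max 1 R0 := le_max_left _ _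
  -- from a distance in a frame
  have key : ∀ φ : E ≃L[ℝ] (Fin n → ℝ), (∀ v, ‖v‖ ≤ K * ‖φ v‖) →
      dist (φ x) (φ y) ≤ 1 / 2 ^ (M.Q j).kc → ‖x - y‖ ≤ K * max 1 R0 / 2 ^ (M.Q j).kc := by
    intro φ h2 hd
    refine (diam_of_dist hK h2 hd).trans ?_
    rw [mul_one_div]
    exact div_le_div_of_nonneg_right (by nlinarith) hp.le
  rcases t with ⟨p | ⟨l, i⟩, hc⟩ | ⟨l, z⟩
  · obtain ⟨y0, hy0, hy0N⟩ := ht
    have hsub : P ((M.mesh hk a hv).H (Sum.inl p)) ⊆ P ((M.ad hk a hv).T0.H p.1.par) :=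
      cut_tile_sub (hA := AF_ne) p.1
    have hf : y0 ∈ frontier (M.Bk v j).N := M.outer_touch hk a hv p hy0 hy0N
    have hkp : p.1.par.1.1.k = k j := zone_par M hk a hv hf (hsub hy0)
    refine key M.φ hF.φ2 ?_
    have h1 := dist_cube ((AD.tile_T0 (M := M.ad hk a hv) _).1 (hsub hx))
      ((AD.tile_T0 (M := M.ad hk a hv) _).1 (hsub hy))
    rw [hkp] at h1
    exact h1.trans (one_div_le_one_div_of_le (by positivity)
      (pow_le_pow_right₀ (by norm_num) (hk.kc j)))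
  · obtain ⟨y0, hy0, hy0N⟩ := ht
    have hlj : l = j := by
      by_contra hne
      exact Set.disjoint_left.1 ((M.ad hk a hv).dis l j hne) (i.2 hy0) hy0N
    subst hlj
    rcases hi1 : i.1 with τ | s
    · exact key (M.Q l).ψ (hF.ψ2 l) (M.inner_size hk a hv hi1 hx hy)
    · have hx' : x ∈ P (((M.Bk v l).T (k l) (hk.kc l)).H i.1) := hx
      have hy' : y ∈ P (((M.Bk v l).T (k l) (hk.kc l)).H i.1) := hy
      rw [hi1] at hx' hy'
      have hx2 := mem_P_iH.1 (show x ∈ P (iH (M.Bk v l).ψ (M.Bk v l).a' (M.Bk v l).kc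
        ((M.Bk v l).S.GG s)) from hx')
      have hy2 := mem_P_iH.1 (show y ∈ P (iH (M.Bk v l).ψ (M.Bk v l).a' (M.Bk v l).kc
        ((M.Bk v l).S.GG s)) from hy')
      have hs : s ≠ (M.Q l).S.core := by
        rintro rfl
        exact hc ⟨l, congrArg (fun q : M.IIx hk a hv l => (Sum.inr ⟨l, q⟩ :
          M.OIx hk a hv ⊕ Σ j, M.IIx hk a hv j)) (Subtype.ext hi1)⟩
      refine diam_of_ps (a := (M.Bk v l).a') hK (hF.ψ2 l) (zero_le_one.trans hm) fun m => ?_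
      exact (X.hR l s hs _ hy2 _ hx2 m).trans ((hR l).trans (le_max_right _ _))
  · obtain ⟨y0, hy0, hy0N⟩ := ht
    have hlj : l = j := by
      by_contra hne
      exact Set.disjoint_left.1 ((M.ad hk a hv).dis l j hne) (Kc_sub_N _ (cubH_sub _ hy0)) hy0N
    subst hlj
    refine diam_of_ps (a := (M.Bk v l).a') hK (hF.ψ2 l) (zero_le_one.trans hm) fun m => ?_
    have hx' := (mem_cuH (M.Bk v l)).1 hx m
    have hy' := (mem_cuH (M.Bk v l)).1 hy m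
    refine le_trans ?_ hm
    rw [abs_le]
    constructor
    · have h1 := hx'.1
      have h2 := hy'.2
      show (-1 : ℝ) ≤ ps (M.Bk v l).a' (M.Bk v l).kc ((M.Bk v l).ψ x) m -
        ps (M.Bk v l).a' (M.Bk v l).kc ((M.Bk v l).ψ y) m
      linarith
    · have h1 := hx'.2
      have h2 := hy'.1
      show ps (M.Bk v l).a' (M.Bk v l).kc ((M.Bk v l).ψ x) m -
        ps (M.Bk v l).a' (M.Bk v l).kc ((M.Bk v l).ψ y) m ≤ (1 : ℝ)
      linarith

end diam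

/-! ### `TileG` with structural `D`, `nc` -/

/-- better constants -/
theorem TG.better {E : Type} [NormedAddCommGroup E] [NormedSpace ℝ E] [FiniteDimensional ℝ E]
    {Om : Set E} {ι : Type*} {T : Tiling Om ι} {t : ι} {β ρ D D' : ℝ} {nc nc' κ : ℕ}
    (h : TG T t β ρ D' nc' κ) (hd : ∀ y ∈ P (T.H t), ∀ y' ∈ P (T.H t), ‖y - y'‖ ≤ D / 2 ^ κ)
    (h1 : (star T t).ncard ≤ nc) (h2 : Nat.card (Sk3_812.KT T t) ≤ nc) :
    TG T t β ρ D nc κ := by
  obtain ⟨-, c, hc⟩ := h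
  refine ⟨hd, c, fun hne K t' hK ht' => ?_⟩
  have h3 := hc hne K (max t' (D' / 2 ^ κ)) hK (le_max_right _ _)
  exact
    { cI := h3.cI
      ball := h3.ball
      gap := h3.gap
      star := h3.star
      cardK := h2
      cardN := h1
      diam := fun y hy y' hy' => (hd y hy y' hy').trans ht' }

/-- **432's `tileG_meshS` with `D` and `nc` before the net** -/
theorem tileG_struct (E : Type) [NormedAddCommGroup E] [NormedSpace ℝ E] [FiniteDimensional ℝ E]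
    [NeZero n] (K R0 : ℝ) (B0 : ℕ) :
    ∃ D : ℝ, 0 < D ∧ ∃ nc : ℕ,
      (∀ {J : Type w} (M : MD E n J) {k : J → ℕ} (hk : M.Sc k)
        (a : Fin n → ℝ) {v : J → E} (hv : M.Adm v) (X : RD M), RP X a v k → Fb K M →
        (∀ j, X.B j ≤ B0) → (∀ j, X.R j ≤ R0) →
        (∀ t, (star (meshS M hk a hv) t).ncard ≤ nc ∧
          Nat.card (Tgr_335.KT (meshS M hk a hv) t) ≤ nc ∧
          Nat.card (Sk3_812.KT (meshS M hk a hv) t) ≤ nc) ∧
        ∀ j t, (P ((meshS M hk a hv).H t) ∩ (M.Bk v j).N).Nonempty →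
          ∀ x ∈ P ((meshS M hk a hv).H t), ∀ y ∈ P ((meshS M hk a hv).H t),
            ‖x - y‖ ≤ D / 2 ^ (M.Q j).kc) ∧
      ∀ {Ps : Set ((Fin n → Fin n → ℤ) × ℕ)}, Ps.Finite → ∀ c0 : ℝ, ∃ β > 0, ∃ ρ > 0,
      ∀ {J : Type w} (M : MD E n J) {k : J → ℕ} (hk : M.Sc k)
        (a : Fin n → ℝ) {v : J → E} (hv : M.Adm v) (X : RD M), RP X a v k → Fb K M →
        (∀ j, (X.A j, X.d j) ∈ Ps) → (∀ j, X.c j ≤ c0) → (∀ j, X.B j ≤ B0) → (∀ j, X.R j ≤ R0) →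
        ∀ t, ∃ κ, Scl M hk a hv t κ ∧ TG (meshS M hk a hv) t β ρ D nc κ := by
  classical
  obtain ⟨nc, hnc⟩ := nbr_meshS.{w} (n := n) E K R0 B0
  set L : ℝ := |K| + 1 with hL
  have hL0 : 0 < L := by positivity
  have hKL : K ≤ L := (le_abs_self K).trans (by rw [hL]; linarith)
  set D : ℝ := L * max 2 R0 with hD
  have hm2 : (2 : ℝ) ≤ max 2 R0 := le_max_left _ _
  have hD0 : 0 < D := by
    rw [hD]
    have : (0 : ℝ) < max 2 R0 := by linarith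
    positivity
  refine ⟨D, hD0, nc, ?_, ?_⟩
  · intro J M k hk a v hv X RPx hF hB hR
    refine ⟨hnc M hk a hv X RPx hF hB hR, fun j t ht x hx y hy => ?_⟩
    refine (diam_block M hk a hv X hL0.le (hF.mono hKL) hR t ht x hx y hy).trans ?_
    refine div_le_div_of_nonneg_right ?_ (by positivity)
    rw [hD]
    exact mul_le_mul_of_nonneg_left (max_le_max (by norm_num) le_rfl) hL0.le
  intro Ps hPs c0
  set Ls : Set (Finset (Fin n → ℝ) × ℕ) := {(N0 n, 1)} ∪ {(NB n B0, 1)} ∪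
    (fun p : (Fin n → Fin n → ℤ) × ℕ => (NR p.1 p.2, p.2)) '' {p ∈ Ps | 0 < p.2} with hLs
  have hfin : Ls.Finite := ((finite_singleton _).union (finite_singleton _)).union
    ((hPs.subset (sep_subset _ _)).image _)
  have hpos : ∀ p ∈ Ls, 0 < p.2 := by
    rintro p ((rfl | rfl) | ⟨q, hq, rfl⟩)
    · exact one_pos
    · exact one_pos
    · exact hq.2
  have hrat : ∀ p ∈ Ls, ∀ ν ∈ p.1, ∀ m, ∃ c : ℤ, ν m = c / p.2 := by
    rintro p ((rfl | rfl) | ⟨q, hq, rfl⟩)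
    · exact N0_rat one_pos
    · exact NB_rat B0 one_pos
    · exact NR_rat q.1 hq.2
  obtain ⟨β, hβ, ρ, hρ, D', nc', h⟩ := tg_goods E hfin hpos hrat (max 2 (max R0 c0)) hL0 hL0.le
  refine ⟨β, hβ, ρ, hρ, fun {J} M {k} hk a {v} hv X RPx hF0 hA hc hB hR => ?_⟩
  have hn := hnc M hk a hv X RPx hF0 hB hR
  have hF : Fb L M := hF0.mono hKL
  have m0 : (N0 n, 1) ∈ Ls := Or.inl (Or.inl rfl)
  have mB : (NB n B0, 1) ∈ Ls := Or.inl (Or.inr rfl)
  have mR : ∀ j, (NR (X.A j) (X.d j), X.d j) ∈ Ls := fun j =>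
    Or.inr ⟨_, ⟨hA j, X.dpos j⟩, rfl⟩
  have r1 : (1 : ℝ) ≤ max 2 (max R0 c0) := le_trans (by norm_num) (le_max_left _ _)
  have r2 : ∀ j, X.c j ≤ max 2 (max R0 c0) := fun j =>
    (hc j).trans ((le_max_right _ _).trans (le_max_right _ _))
  have r3 : ∀ j, X.R j ≤ max 2 (max R0 c0) := fun j =>
    (hR j).trans ((le_max_left _ _).trans (le_max_right _ _))
  -- diameters
  have dd : ∀ {R : ℝ} {κ : ℕ}, 0 ≤ R → R ≤ max 2 R0 → L * R / 2 ^ κ ≤ D / 2 ^ κ := by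
    intro R κ _ h1
    refine div_le_div_of_nonneg_right ?_ (by positivity)
    rw [hD]
    exact mul_le_mul_of_nonneg_left h1 hL0.le
  rintro (⟨t, ht⟩ | c)
  · rcases t with p | ⟨j, i⟩
    · have hsub : P ((M.mesh hk a hv).H (Sum.inl p)) ⊆ P ((M.ad hk a hv).T0.H p.1.par) :=
        cut_tile_sub (hA := AF_ne) p.1
      have hdist : ∀ x ∈ P ((M.mesh hk a hv).H (Sum.inl p)),
          ∀ y ∈ P ((M.mesh hk a hv).H (Sum.inl p)), ‖x - y‖ ≤ L * 1 / 2 ^ p.1.par.1.1.k := by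
        intro x hx y hy
        have h1 := diam_of_dist hL0.le hF.φ2 (dist_cube
          ((AD.tile_T0 (M := M.ad hk a hv) _).1 (hsub hx))
          ((AD.tile_T0 (M := M.ad hk a hv) _).1 (hsub hy)))
        rwa [mul_one_div, ← mul_one L] at h1
      rcases outer_goodS M hk a hv X RPx p with hg | ⟨j, hj, hg⟩
      · have hTG := h _ _ _ _ _ _ m0 (good_mono hg subset_rfl (le_max_left _ _)) hF.φ1 hF.φ2
        exact ⟨_, Or.inl rfl, TG.better hTG (fun y hy y' hy' =>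
          (good_diam hL0.le hF.φ2 (by norm_num) hg y hy y' hy').trans (dd (by norm_num) hm2))
          (hn _).1 (hn _).2.2⟩
      · have hTG := h _ _ _ _ _ _ (mR j) (good_mono hg subset_rfl (r2 j)) hF.φ1 hF.φ2
        refine ⟨_, Or.inr ⟨j, rfl, hj⟩, TG.better hTG (fun y hy y' hy' => ?_) (hn _).1 (hn _).2.2⟩
        have h1 := hdist y hy y' hy'
        rw [hj] at h1
        exact h1.trans (dd (by norm_num) (by linarith))
    · have hi : i ≠ M.core hk a hv j := by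
        rintro rfl
        exact ht ⟨j, rfl⟩
      rcases inner_goodW M hk a hv X RPx i hi with ⟨τ, hτ, hg⟩ | hg | ⟨⟨τ, hτ, hτk⟩, -, hg⟩
      · have hTG := h _ _ _ _ _ _ m0 (good_mono hg subset_rfl (le_max_left _ _))
          (hF.ψ1 j) (hF.ψ2 j)
        refine ⟨_, ⟨?_, ?_⟩, TG.better hTG (fun y hy y' hy' =>
          (good_diam hL0.le (hF.ψ2 j) (by norm_num) hg y hy y' hy').trans
            (dd (by norm_num) hm2)) (hn _).1 (hn _).2.2⟩
        · have := (M.Bk v j).kc_le (k j) (hk.kc j) (τ := τ.1)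
          exact this.trans (Nat.le_succ _)
        · exact Nat.succ_le_succ ((M.Bk v j).le_k (k j) (hk.kc j) (τ := τ.1))
      · have hR0 : 0 ≤ X.R j := zero_le_one.trans (X.R1 j)
        exact ⟨_, ⟨le_rfl, (hk.kc j).trans (Nat.le_succ _)⟩, TG.better
          (h _ _ _ _ _ _ mB (good_mono hg (NB_mono (hB j)) (r3 j)) (hF.ψ1 j) (hF.ψ2 j))
          (fun y hy y' hy' => (good_diam hL0.le (hF.ψ2 j) hR0 hg y hy y' hy').trans
            (dd hR0 ((hR j).trans (le_max_right _ _)))) (hn _).1 (hn _).2.2⟩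
      · refine ⟨_, ⟨hk.kc j, Nat.le_succ _⟩, TG.better
          (h _ _ _ _ _ _ (mR j) (good_mono hg subset_rfl (r2 j)) hF.φ1 hF.φ2)
          (fun y hy y' hy' => ?_) (hn _).1 (hn _).2.2⟩
        have hy1 : y ∈ P (((M.Bk v j).T (k j) (hk.kc j)).H i.1) := hy
        have hy2 : y' ∈ P (((M.Bk v j).T (k j) (hk.kc j)).H i.1) := hy'
        rw [hτ] at hy1 hy2
        have h1 := dist_cube (((M.Bk v j).tile_T0 (k j) (hk.kc j)).1 hy1)
          (((M.Bk v j).tile_T0 (k j) (hk.kc j)).1 hy2)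
        rw [hτk] at h1
        have h2 := diam_of_dist hL0.le (hF.ψ2 j) h1
        rw [mul_one_div, ← mul_one L] at h2
        exact h2.trans (dd (by norm_num) (by linarith))
  · exact ⟨_, rfl, TG.better
      (h _ _ _ _ _ _ mB (good_mono (cube_goodS M hk a hv X c) (NB_mono (hB _)) r1)
        (hF.ψ1 _) (hF.ψ2 _))
      (fun y hy y' hy' => (good_diam hL0.le (hF.ψ2 _) (by norm_num)
        (cube_goodS M hk a hv X c) y hy y' hy').trans (dd (by norm_num) (by linarith)))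
      (hn _).1 (hn _).2.2⟩

end Crest.Agent.R096.Nbr_896
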