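import Crest.Agent.R096.Msh2_810
import Crest.Agent.R96.En10_199

/-!
Row 96 (S0127), helper400.  **[OSC]: the base size function of the mesh** (753 #11185 (4)).

`exists_rad`: a symmetric local relation has a 1-Lipschitz radius of validity.
`exists_osc`: `ρ₀` 1-Lipschitz, `0 < ρ₀ x ↔ x ∈ Om`, `ρ₀ ≤ 1`, on closed balls of radius `ρ₀ x` the map `f` moves
at most `η x` and `η` varies at most by the factor `2`; bounded below on compact sets.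
`datP`: the corresponding data `Dat 3` (810) through `P3`.
-/

set_option autoImplicit false
set_option linter.style.longLine false

open Set Filter Topology Metric

namespace Crest.Agent.R096.Osc_400

noncomputable section

section General

variable {X : Type} [PseudoMetricSpace X]

/-- good radii at `x`. -/
def GR (U : Set X) (P : X → X → Prop) (x : X) : Set ℝ :=
  {r | 0 ≤ r ∧ r ≤ 1 ∧ ∀ y ∈ ball x r, y ∈ U ∧ ∀ z ∈ ball x r, P y z}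

/-- radius of validity. -/
def rad (U : Set X) (P : X → X → Prop) (x : X) : ℝ := sSup (GR U P x)

variable {U : Set X} {P : X → X → Prop}

theorem zero_mem_GR (x : X) : (0:ℝ) ∈ GR U P x :=
  ⟨le_rfl, zero_le_one, fun y hy => by simp at hy⟩

theorem bdd_GR (x : X) : BddAbove (GR U P x) := ⟨1, fun _ h => h.2.1⟩

theorem rad_nonneg (x : X) : 0 ≤ rad U P x := le_csSup (bdd_GR x) (zero_mem_GR x)

theorem rad_le_one (x : X) : rad U P x ≤ 1 := csSup_le ⟨0, zero_mem_GR x⟩ fun _ h => h.2.1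

theorem rad_lip (x y : X) : rad U P x ≤ rad U P y + dist x y := by
  refine csSup_le ⟨0, zero_mem_GR x⟩ fun r hr => ?_
  rcases le_or_gt (r - dist x y) 0 with h | h
  · have := rad_nonneg (U := U) (P := P) y
    linarith
  · have hsub : ball y (r - dist x y) ⊆ ball x r := by
      intro z hz
      rw [mem_ball] at hz ⊢
      have := dist_triangle z y x
      rw [dist_comm y x] at this
      linarith
    have hm : r - dist x y ∈ GR U P y := by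
      refine ⟨h.le, ?_, fun w hw => ⟨(hr.2.2 w (hsub hw)).1, fun z hz =>
        (hr.2.2 w (hsub hw)).2 z (hsub hz)⟩⟩
      have := hr.2.1
      have := dist_nonneg (x := x) (y := y)
      linarith
    have := le_csSup (bdd_GR y) hm
    unfold rad
    linarith

theorem of_lt_rad {x : X} {s : ℝ} (h : s < rad U P x) {y : X} (hy : dist y x ≤ s) :
    y ∈ U ∧ ∀ z, dist z x ≤ s → P y z := by
  obtain ⟨r, hr, hsr⟩ := exists_lt_of_lt_csSup ⟨0, zero_mem_GR x⟩ h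
  have hb : ∀ w, dist w x ≤ s → w ∈ ball x r := fun w hw => mem_ball.2 (lt_of_le_of_lt hw hsr)
  exact ⟨(hr.2.2 y (hb y hy)).1, fun z hz => (hr.2.2 y (hb y hy)).2 z (hb z hz)⟩

theorem rad_pos {x : X} {r : ℝ} (h0 : 0 < r)
    (h : ∀ y ∈ ball x r, y ∈ U ∧ ∀ z ∈ ball x r, P y z) : 0 < rad U P x := by
  have hm : min r 1 ∈ GR U P x := by
    have hsub : ball x (min r 1) ⊆ ball x r := ball_subset_ball (min_le_left _ _)
    exact ⟨(lt_min h0 one_pos).le, min_le_right _ _, fun y hy => ⟨(h y (hsub hy)).1, fun z hz =>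
      (h y (hsub hy)).2 z (hsub hz)⟩⟩
  exact lt_of_lt_of_le (lt_min h0 one_pos) (le_csSup (bdd_GR x) hm)

/-- **a local relation has a 1-Lipschitz radius of validity** -/
theorem exists_rad (hloc : ∀ x ∈ U, ∃ r > 0, ∀ y ∈ ball x r, y ∈ U ∧ ∀ z ∈ ball x r, P y z) :
    ∃ ρ : X → ℝ, (∀ x, 0 ≤ ρ x) ∧ (∀ x, ρ x ≤ 1 / 2) ∧ (∀ x y, ρ x ≤ ρ y + dist x y / 2) ∧
      (∀ x, 0 < ρ x ↔ x ∈ U) ∧
      ∀ x ∈ U, ∀ y, dist y x ≤ ρ x → y ∈ U ∧ ∀ z, dist z x ≤ ρ x → P y z := by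
  have hpos : ∀ x ∈ U, 0 < rad U P x := fun x hx => by
    obtain ⟨r, hr, h⟩ := hloc x hx
    exact rad_pos hr h
  refine ⟨fun x => rad U P x / 2, fun x => ?_, fun x => ?_, fun x y => ?_, fun x => ⟨fun h => ?_, fun h => ?_⟩,
    fun x hx y hy => ?_⟩
  · have := rad_nonneg (U := U) (P := P) x
    positivity
  · have := rad_le_one (U := U) (P := P) x
    linarith
  · have := rad_lip (U := U) (P := P) x y
    linarith
  · have h0 : (0:ℝ) < rad U P x := by linarith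
    exact (of_lt_rad h0 (by simp : dist x x ≤ 0)).1
  · have := hpos x h
    linarith
  · have h0 := hpos x hx
    have h1 : rad U P x / 2 < rad U P x := by linarith
    exact of_lt_rad h1 hy

end General

section Osc

variable {E F : Type} [NormedAddCommGroup E] [NormedAddCommGroup F]

/-- **[OSC]** -/
theorem exists_osc {Om : Set E} (hOm : IsOpen Om) {f : E → F} (hf : ContinuousOn f Om)
    {η : E → ℝ} (hη : ContinuousOn η Om) (hη0 : ∀ x ∈ Om, 0 < η x) {W1 : Set E} (hW : IsCompact W1)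
    (hW1 : W1 ⊆ Om) :
    ∃ ρ₀ : E → ℝ, (∀ x y, ρ₀ x ≤ ρ₀ y + ‖x - y‖) ∧ (∀ x, 0 ≤ ρ₀ x) ∧ (∀ x, ρ₀ x ≤ 1) ∧
      (∀ x, 0 < ρ₀ x ↔ x ∈ Om) ∧ (∀ x, ball x (ρ₀ x) ⊆ Om) ∧
      (∀ x ∈ Om, closedBall x (ρ₀ x) ⊆ Om) ∧
      (∀ x ∈ Om, ∀ y, ‖y - x‖ ≤ ρ₀ x → ‖f y - f x‖ ≤ η x ∧ (1 / 2) * η x ≤ η y ∧ η y ≤ 2 * η x) ∧
      (∀ x ∈ Om, ∀ y, ‖y - x‖ ≤ ρ₀ x → ∀ z, ‖z - x‖ ≤ ρ₀ x →
        ‖f z - f y‖ ≤ η y ∧ (1 / 2) * η y ≤ η z ∧ η z ≤ 2 * η y) ∧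
      ∃ ρmin > 0, ∀ x ∈ W1, ρmin ≤ ρ₀ x := by
  have hloc : ∀ x ∈ Om, ∃ r > 0, ∀ y ∈ ball x r, y ∈ Om ∧ ∀ z ∈ ball x r,
      (‖f z - f y‖ ≤ η y ∧ (1 / 2) * η y ≤ η z ∧ η z ≤ 2 * η y) := by
    intro x hx
    have hn : Om ∈ 𝓝 x := hOm.mem_nhds hx
    have h0 := hη0 x hx
    have h1 : ∀ᶠ y in 𝓝 x, ‖f y - f x‖ < η x * (2 / 5) := by
      have := (hf.continuousAt hn)
      rw [Metric.continuousAt_iff'] at this
      simpa [dist_eq_norm] using this (η x * (2 / 5)) (by positivity)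
    have h2 : ∀ᶠ y in 𝓝 x, |η y - η x| < η x / 5 := by
      have := (hη.continuousAt hn)
      rw [Metric.continuousAt_iff'] at this
      simpa [Real.dist_eq] using this (η x / 5) (by positivity)
    obtain ⟨r, hr, h⟩ := Metric.eventually_nhds_iff_ball.1 ((h1.and h2).and (hOm.eventually_mem hx))
    refine ⟨r, hr, fun y hy => ⟨(h y hy).2, fun z hz => ?_⟩⟩
    obtain ⟨⟨a1, a2⟩, -⟩ := h y hy
    obtain ⟨⟨b1, b2⟩, -⟩ := h z hz
    rw [abs_lt] at a2 b2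
    have hyz : ‖f z - f y‖ ≤ ‖f z - f x‖ + ‖f y - f x‖ := by
      have : f z - f y = (f z - f x) - (f y - f x) := by abel
      rw [this]
      exact norm_sub_le _ _
    refine ⟨?_, ?_, ?_⟩
    · linarith [a2.1]
    · linarith [a2.2, b2.1]
    · linarith [a2.1, b2.2]
  obtain ⟨ρ, r0, r1, r2, r3, r4⟩ := exists_rad (X := E) (U := Om) hloc
  have hlip : ∀ x y, ρ x ≤ ρ y + ‖x - y‖ := fun x y => by
    have := r2 x y
    rw [dist_eq_norm] at this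
    have := norm_nonneg (x - y)
    linarith
  have hcb : ∀ x ∈ Om, closedBall x (ρ x) ⊆ Om := fun x hx y hy => (r4 x hx y (mem_closedBall.1 hy)).1
  refine ⟨ρ, hlip, r0, fun x => (r1 x).trans (by norm_num), r3, fun x => ?_, hcb, fun x hx y hy => ?_,
    fun x hx y hy z hz => ?_, ?_⟩
  · rcases (r0 x).lt_or_eq with h | h
    · exact ball_subset_closedBall.trans (hcb x ((r3 x).1 h))
    · rw [← h, ball_zero]
      exact empty_subset _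
  · have hx' : dist x x ≤ ρ x := by rw [dist_self]; exact r0 x
    exact (r4 x hx x hx').2 y (by rw [dist_eq_norm]; exact hy)
  · exact (r4 x hx y (by rw [dist_eq_norm]; exact hy)).2 z (by rw [dist_eq_norm]; exact hz)
  · rcases W1.eq_empty_or_nonempty with h | h
    · exact ⟨1, one_pos, fun x hx => by rw [h] at hx; exact absurd hx (notMem_empty x)⟩
    · have hc : Continuous ρ := by
        have : LipschitzWith 1 ρ := LipschitzWith.of_le_add fun x y => by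
          rw [dist_eq_norm]; exact hlip x y
        exact this.continuous
      obtain ⟨x0, hx0, hmin⟩ := hW.exists_isMinOn h hc.continuousOn
      exact ⟨ρ x0, (r3 x0).2 (hW1 hx0), fun x hx => hmin hx⟩

end Osc

section D3

open Crest.Agent.R096.Msh_810 Crest.AnalysisR.VecCalc3
open Crest.Agent.R96.En10_199 (P3)

theorem norm_P3_le (x : Fin 3 → ℝ) : ‖P3 x‖ ≤ 2 * ‖x‖ := by
  have h : ‖P3 x‖ ^ 2 ≤ (2 * ‖x‖) ^ 2 := by
    rw [EuclideanSpace.norm_sq_eq]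
    have h1 : ∀ i : Fin 3, ‖(P3 x) i‖ ^ 2 ≤ ‖x‖ ^ 2 := fun i => by
      have : ‖(P3 x) i‖ ≤ ‖x‖ := norm_le_pi_norm x i
      gcongr
    calc ∑ i : Fin 3, ‖(P3 x) i‖ ^ 2 ≤ ∑ _i : Fin 3, ‖x‖ ^ 2 := Finset.sum_le_sum fun i _ => h1 i
      _ = 3 * ‖x‖ ^ 2 := by simp
      _ ≤ (2 * ‖x‖) ^ 2 := by nlinarith [sq_nonneg ‖x‖]
  exact (pow_le_pow_iff_left₀ (norm_nonneg _) (by positivity) two_ne_zero).1 h

/-- the mesh data of 810 for a size function on `R3`. -/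
def datP (ρ₀ : R3 → ℝ) (hl : ∀ x y, ρ₀ x ≤ ρ₀ y + ‖x - y‖) (h0 : ∀ x, 0 ≤ ρ₀ x) (h1 : ∀ x, ρ₀ x ≤ 1)
    (c : ℝ) (hc : 0 ≤ c) (hc' : c ≤ 1 / 2) (C : ℝ) (hC : 1 < C) (a : Fin 3 → ℝ) : Dat 3 where
  ρ := fun y => ρ₀ (P3 y) * c
  C := C
  a := a
  lip := fun x y => by
    have e1 := hl (P3 x) (P3 y)
    rw [← map_sub] at e1
    have e2 := norm_P3_le (x - y)
    have e3 : ρ₀ (P3 x) * c ≤ (ρ₀ (P3 y) + 2 * ‖x - y‖) * c :=
      mul_le_mul_of_nonneg_right (e1.trans (by linarith)) hc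
    rw [dist_eq_norm]
    have e4 : 2 * ‖x - y‖ * c ≤ ‖x - y‖ := by nlinarith [norm_nonneg (x - y)]
    linarith [add_mul (ρ₀ (P3 y)) (2 * ‖x - y‖) c]
  nonneg := fun x => mul_nonneg (h0 _) hc
  le_one := fun x => by
    have := h0 (P3 x)
    have := h1 (P3 x)
    nlinarith
  hC := hC

theorem datP_Om {ρ₀ : R3 → ℝ} {hl : ∀ x y, ρ₀ x ≤ ρ₀ y + ‖x - y‖} {h0 : ∀ x, 0 ≤ ρ₀ x}
    {h1 : ∀ x, ρ₀ x ≤ 1} {c : ℝ} {hc' : c ≤ 1 / 2} {C : ℝ} {hC : 1 < C} {a : Fin 3 → ℝ} (hc : 0 < c)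
    {Om : Set R3} (hO : ∀ x, 0 < ρ₀ x ↔ x ∈ Om) :
    (datP ρ₀ hl h0 h1 c hc.le hc' C hC a).Om = P3 ⁻¹' Om := by
  ext x
  change 0 < ρ₀ (P3 x) * c ↔ P3 x ∈ Om
  rw [← hO, mul_pos_iff_of_pos_right hc]

theorem Dc_sub_Cu (a : Fin 3 → ℝ) (σ : Idx 3) : Dc a σ ⊆ Cu a σ.k σ.z := by
  intro x hx
  rw [mem_Cu]
  intro i
  by_cases h : i ∈ σ.J
  · exact (hx i).1 h
  · have := (hx i).2 h
    rw [this]
    constructor <;> linarith

/-- **size of the mesh cells in `R3`**, for every size function below `ρ₀ ∘ P3 * c` (cap, outD). -/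
theorem cell_diam {ρ₀ : R3 → ℝ} {c : ℝ} {D : Dat 3} (hD : ∀ y, D.ρ y ≤ ρ₀ (P3 y) * c)
    {σ : Idx 3} (h : IsM D σ) {y y' : Fin 3 → ℝ} (hy : y ∈ Dc D.a σ) (hy' : y' ∈ Dc D.a σ) :
    ‖P3 y' - P3 y‖ ≤ ρ₀ (P3 y) * (2 * c / D.C) := by
  have h1 := h.lower hy
  have h2 := dist_le_of_mem_Cu (Dc_sub_Cu _ _ hy') (Dc_sub_Cu _ _ hy)
  have h3 := norm_P3_le (y' - y)
  rw [map_sub, ← dist_eq_norm y' y] at h3
  have hC := D.C_pos
  have hp : (0:ℝ) < 2 ^ σ.k := by positivity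
  have h4 : D.C * dist y' y ≤ ρ₀ (P3 y) * c := by
    have h5 : D.C * dist y' y ≤ (2 ^ σ.k * (ρ₀ (P3 y) * c)) * dist y' y :=
      mul_le_mul_of_nonneg_right (h1.trans (mul_le_mul_of_nonneg_left (hD y) hp.le)) dist_nonneg
    have h6 : 0 ≤ ρ₀ (P3 y) * c := (D.nonneg y).trans (hD y)
    calc D.C * dist y' y ≤ (2 ^ σ.k * (ρ₀ (P3 y) * c)) * dist y' y := h5
      _ = (ρ₀ (P3 y) * c) * (2 ^ σ.k * dist y' y) := by ring
      _ ≤ (ρ₀ (P3 y) * c) * 1 := mul_le_mul_of_nonneg_left h2 h6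
      _ = _ := mul_one _
  refine h3.trans ?_
  rw [← mul_div_assoc, le_div_iff₀ hC]
  linarith

/-- **[OSC] with the mesh data**: `ρ₀` as in `exists_osc` and, for every shift, the data `Dat 3` with
size function `ρ₀ ∘ P3 * c` and constant `C`. -/
theorem exists_dat {Om : Set R3} (hOm : IsOpen Om) {f : R3 → R3} (hf : ContinuousOn f Om)
    {η : R3 → ℝ} (hη : ContinuousOn η Om) (hη0 : ∀ x ∈ Om, 0 < η x) {W1 : Set R3} (hW : IsCompact W1)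
    (hW1 : W1 ⊆ Om) {c : ℝ} (hc : 0 < c) (hc' : c ≤ 1 / 2) {C : ℝ} (hC : 1 < C) :
    ∃ ρ₀ : R3 → ℝ, (∀ x y, ρ₀ x ≤ ρ₀ y + ‖x - y‖) ∧ (∀ x, 0 ≤ ρ₀ x) ∧ (∀ x, ρ₀ x ≤ 1) ∧
      (∀ x, 0 < ρ₀ x ↔ x ∈ Om) ∧ (∀ x, ball x (ρ₀ x) ⊆ Om) ∧
      (∀ x ∈ Om, closedBall x (ρ₀ x) ⊆ Om) ∧
      (∀ x ∈ Om, ∀ y, ‖y - x‖ ≤ ρ₀ x → ‖f y - f x‖ ≤ η x ∧ (1 / 2) * η x ≤ η y ∧ η y ≤ 2 * η x) ∧
      (∀ x ∈ Om, ∀ y, ‖y - x‖ ≤ ρ₀ x → ∀ z, ‖z - x‖ ≤ ρ₀ x →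
        ‖f z - f y‖ ≤ η y ∧ (1 / 2) * η y ≤ η z ∧ η z ≤ 2 * η y) ∧
      (∃ ρmin > 0, ∀ x ∈ W1, ρmin ≤ ρ₀ x) ∧
      ∀ a : Fin 3 → ℝ, ∃ D : Dat 3, D.C = C ∧ D.a = a ∧ (∀ y, D.ρ y = ρ₀ (P3 y) * c) ∧
        D.Om = P3 ⁻¹' Om := by
  obtain ⟨ρ, r1, r2, r3, r4, r5, r6, r7, r8, r9⟩ := exists_osc hOm hf hη hη0 hW hW1
  exact ⟨ρ, r1, r2, r3, r4, r5, r6, r7, r8, r9, fun a =>
    ⟨datP ρ r1 r2 r3 c hc.le hc' C hC a, rfl, rfl, fun _ => rfl, datP_Om hc r4⟩⟩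

end D3

end

end Crest.Agent.R096.Osc_400
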