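import Crest.Agent.R096.Pin1_753
import Crest.Agent.R096.Osc1_400
import Crest.Agent.R096.Gno5_324
import Crest.Agent.R096.Nbr4_896
import Crest.Agent.R096.Msb5_432

/-!
# Row 96 (S0127), p ≤ 2: composite A (helper855), part 13: the mesh data of the blocks of `PreIN`

`MIn` : what is known about size function, blocks, scale; `MIn.M : MD R3 3 J`; all scales are `k0`;
`MIn.sc`; positions `cl a`; `MIn.T a : Tiling Om _` (432's `meshS`); the outer scale is `k0` near `W`;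
rigidity; the rational data.
-/

set_option autoImplicit false
set_option linter.unusedSectionVars false

open Set Metric MeasureTheory Filter
open scoped ENNReal Topology

namespace Crest.Agent.R096.Ca_855

open Crest.AnalysisR.VecCalc3 Crest.AnalysisR.Sobolev
open Crest.Agent.R096.Msh_715
open Crest.Agent.R096.Mal_874 (MD CB RD RP reOm Rt Cn outD Rg)
open Crest.Agent.R096.Msh_810 (Dat K)
open Crest.Agent.R096.Gno_324 (capD K_cap)
open Crest.Agent.R096.Msb_432 (meshS rigidS_const Scl)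
open Crest.Agent.R96.En10_199 (P3)
open Crest.Agent.R096.Osc_400 (datP datP_Om norm_P3_le)

/-- the inputs of the mesh: size function, blocks, scale `k0`, separation `σ` -/
structure MIn (Om W : Set R3) (ρ₀ : R3 → ℝ) {J : Type} (Qb : J → CB R3 3) (k0 : ℕ) (σ : ℝ) :
    Prop where
  lip : ∀ x y, ρ₀ x ≤ ρ₀ y + ‖x - y‖
  nn : ∀ x, 0 ≤ ρ₀ x
  le1 : ∀ x, ρ₀ x ≤ 1
  pos : ∀ x, 0 < ρ₀ x ↔ x ∈ Om
  hW : ∀ x ∈ W, σ ≤ ρ₀ x
  hN : ∀ j, (Qb j).N ⊆ W
  h48 : 48 / 2 ^ k0 < σ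
  hk : ∀ j, (Qb j).kc ≤ k0
  sep : ∀ i j, i ≠ j → ∀ x ∈ (Qb i).N, ∀ y ∈ (Qb j).N, σ ≤ dist x y

theorem norm_P3_symm_le (v : R3) : ‖P3.symm v‖ ≤ ‖v‖ := by
  rw [pi_norm_le_iff_of_nonneg (norm_nonneg _)]
  intro i
  exact PiLp.norm_apply_le v i

theorem dist_P3_le (x y : Fin 3 → ℝ) : dist (P3 x) (P3 y) ≤ 2 * dist x y := by
  rw [dist_eq_norm, dist_eq_norm, ← map_sub]
  exact norm_P3_le _

theorem dist_P3s_le (x y : R3) : dist (P3.symm x) (P3.symm y) ≤ dist x y := by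
  rw [dist_eq_norm, dist_eq_norm, ← map_sub]
  exact norm_P3_symm_le _

theorem dist_le_P3s (x y : R3) : dist x y ≤ 2 * dist (P3.symm x) (P3.symm y) := by
  have := dist_P3_le (P3.symm x) (P3.symm y)
  rwa [P3.apply_symm_apply, P3.apply_symm_apply] at this

namespace MIn

variable {Om W : Set R3} {ρ₀ : R3 → ℝ} {J : Type} {Qb : J → CB R3 3} {k0 : ℕ} {σ : ℝ}

theorem h2 : (0:ℝ) < 1 / 2 ^ k0 := by positivity

theorem h48' (h : MIn Om W ρ₀ Qb k0 σ) : 48 * (1 / 2 ^ k0) < σ := by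
  have := h.h48
  rwa [show (48:ℝ) / 2 ^ k0 = 48 * (1 / 2 ^ k0) by ring] at this

theorem σ0 (h : MIn Om W ρ₀ Qb k0 σ) : 0 < σ := by
  have h1 := h.h48'
  have h2 : (0:ℝ) < 1 / 2 ^ k0 := by positivity
  linarith

theorem near (h : MIn Om W ρ₀ Qb k0 σ) {x : R3} (hx : x ∈ W) {y : Fin 3 → ℝ} {d : ℝ}
    (hd : dist (P3.symm x) y ≤ d) : σ - 2 * d ≤ ρ₀ (P3 y) := by
  have h1 := h.lip x (P3 y)
  have h2 := dist_P3_le (P3.symm x) y
  rw [P3.apply_symm_apply, dist_eq_norm] at h2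
  have h3 := h.hW x hx
  linarith

/-- the base size function -/
noncomputable def D1 (h : MIn Om W ρ₀ Qb k0 σ) : Dat 3 :=
  datP ρ₀ h.lip h.nn h.le1 (1 / 2) (by norm_num) le_rfl 6 (by norm_num) 0

theorem hc (h : MIn Om W ρ₀ Qb k0 σ) : 0 < h.D1.C / 2 ^ k0 := by
  have : 0 < h.D1.C := h.D1.C_pos
  positivity

theorem D1_C (h : MIn Om W ρ₀ Qb k0 σ) : h.D1.C = 6 := rfl

/-- the size function of the outer mesh -/
noncomputable def D0 (h : MIn Om W ρ₀ Qb k0 σ) : Dat 3 := capD h.D1 (h.D1.C / 2 ^ k0) h.hc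

theorem D0_ρ (h : MIn Om W ρ₀ Qb k0 σ) (y : Fin 3 → ℝ) :
    h.D0.ρ y = min (ρ₀ (P3 y) * (1 / 2)) (6 / 2 ^ k0) := rfl

theorem D0_Om (h : MIn Om W ρ₀ Qb k0 σ) : h.D0.Om = P3 ⁻¹' Om := by
  have h1 : h.D0.Om = h.D1.Om := Crest.Agent.R096.Gno_324.capD_Om _ _ _
  rw [h1]
  exact datP_Om (by norm_num) h.pos

/-- a point of the thickened block in outer coordinates is near a point of the block -/
theorem th_near {N : Set R3} (hN : IsCompact N) {r : ℝ} {y : Fin 3 → ℝ}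
    (hy : y ∈ cthickening r (P3.symm '' N)) (hr : 0 ≤ r) (_hne : N.Nonempty) :
    ∃ x ∈ N, dist (P3.symm x) y ≤ r := by
  rw [(hN.image P3.symm.continuous).cthickening_eq_biUnion_closedBall hr] at hy
  simp only [mem_iUnion, exists_prop] at hy
  obtain ⟨z, ⟨x, hx, rfl⟩, hz⟩ := hy
  exact ⟨x, hx, by rw [dist_comm]; exact hz⟩

variable [Finite J]

/-- **the mesh data** -/
noncomputable def M (h : MIn Om W ρ₀ Qb k0 σ) : MD R3 3 J where
  φ := P3.symm
  D0 := h.D0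
  hC := le_refl (6:ℝ)
  Q := Qb
  r _ := σ / 8
  r_pos _ := by have := h.σ0; positivity
  Vdis j l hjl := by
    have h0 := h.σ0
    rw [Set.disjoint_left]
    intro y hy hy'
    rw [(((Qb j).isCompact_N).image P3.symm.continuous).cthickening_eq_biUnion_closedBall
      (by positivity)] at hy
    rw [(((Qb l).isCompact_N).image P3.symm.continuous).cthickening_eq_biUnion_closedBall
      (by positivity)] at hy'
    simp only [mem_iUnion, exists_prop] at hy hy'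
    obtain ⟨_, ⟨x, hx, rfl⟩, hz⟩ := hy
    obtain ⟨_, ⟨x', hx', rfl⟩, hz'⟩ := hy'
    rw [mem_closedBall] at hz hz'
    have h1 := h.sep j l hjl x hx x' hx'
    have h2 := dist_le_P3s x x'
    have h3 := dist_triangle (P3.symm x) y (P3.symm x')
    rw [dist_comm (P3.symm x) y] at h3
    linarith
  Vsub j := by
    have h0 := h.σ0
    intro y hy
    rw [(((Qb j).isCompact_N).image P3.symm.continuous).cthickening_eq_biUnion_closedBall
      (by positivity)] at hy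
    simp only [mem_iUnion, exists_prop] at hy
    obtain ⟨_, ⟨x, hx, rfl⟩, hz⟩ := hy
    rw [mem_closedBall, dist_comm] at hz
    have h1 := h.near (h.hN j hx) hz
    rw [h.D0_Om, mem_preimage, ← h.pos]
    linarith
  Vlf x _ := ⟨1, one_pos, Set.toFinite _⟩

@[simp] theorem M_φ (h : MIn Om W ρ₀ Qb k0 σ) : h.M.φ = P3.symm := rfl

@[simp] theorem M_Q (h : MIn Om W ρ₀ Qb k0 σ) : h.M.Q = Qb := rfl

@[simp] theorem M_r (h : MIn Om W ρ₀ Qb k0 σ) (j : J) : h.M.r j = σ / 8 := rfl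

@[simp] theorem M_D0 (h : MIn Om W ρ₀ Qb k0 σ) : h.M.D0 = h.D0 := rfl

theorem W_near (h : MIn Om W ρ₀ Qb k0 σ) {j : J} {y : Fin 3 → ℝ} (hy : y ∈ h.M.W j) :
    ∃ x ∈ (Qb j).N, dist (P3.symm x) y ≤ σ / 8 := by
  have h0 := h.σ0
  have h1 := h.M.W_sub_V j hy
  have h2 : y ∈ cthickening (σ / 8) (P3.symm '' (Qb j).N) := h1
  rw [(((Qb j).isCompact_N).image P3.symm.continuous).cthickening_eq_biUnion_closedBall
      (by positivity)] at h2
  simp only [mem_iUnion, exists_prop] at h2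
  obtain ⟨_, ⟨x, hx, rfl⟩, hz⟩ := h2
  exact ⟨x, hx, by rw [dist_comm]; exact hz⟩

theorem Wi_near (h : MIn Om W ρ₀ Qb k0 σ) {j : J} {y : Fin 3 → ℝ} {d : ℝ}
    (hy : infDist y (h.M.W j) ≤ d) : ∃ x ∈ (Qb j).N, dist (P3.symm x) y ≤ σ / 8 + d := by
  obtain ⟨z, hz, e⟩ := (h.M.isCompact_W j).exists_infDist_eq_dist (h.M.W_ne j) y
  obtain ⟨x, hx, h1⟩ := h.W_near hz
  refine ⟨x, hx, ?_⟩
  have h2 := dist_triangle (P3.symm x) z y
  rw [e, dist_comm] at hy
  linarith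

/-- all scales are `k0` -/
theorem sc (h : MIn Om W ρ₀ Qb k0 σ) : h.M.Sc (fun _ => k0) where
  kc := h.hk
  rho j y hy := by
    obtain ⟨x, hx, h1⟩ := h.Wi_near hy
    have h2 := h.near (h.hN j hx) h1
    have h3 := h.h48'
    show 6 / 2 ^ k0 ≤ h.D0.ρ y
    rw [h.D0_ρ]
    refine le_min ?_ le_rfl
    have e6 : (6:ℝ) / 2 ^ k0 = 6 * (1 / 2 ^ k0) := by ring
    rw [e6] at h2 ⊢
    have h4 : (0:ℝ) < 1 / 2 ^ k0 := by positivity
    nlinarith
  sep j l hjl y hy := by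
    obtain ⟨x, hx, h1⟩ := h.Wi_near hy
    have h3 := h.h48'
    have e6 : (6:ℝ) / 2 ^ k0 = 6 * (1 / 2 ^ k0) := by ring
    have e5 : (5:ℝ) / 2 ^ k0 = 5 * (1 / 2 ^ k0) := by ring
    have h4 : (0:ℝ) < 1 / 2 ^ k0 := by positivity
    have h5 : 6 / 2 ^ k0 ≤ infDist y (h.M.W l) := by
      rw [le_infDist (h.M.W_ne l)]
      intro w hw
      by_contra hcon
      push Not at hcon
      obtain ⟨x', hx', h6⟩ := h.W_near hw
      have h7 := h.sep j l hjl x hx x' hx'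
      have h8 := dist_le_P3s x x'
      have h9 := dist_triangle (P3.symm x) y (P3.symm x')
      have h10 := dist_triangle y w (P3.symm x')
      rw [dist_comm w] at h10
      rw [e6] at h1 hcon
      linarith
    refine ⟨h5, le_trans ?_ h5⟩
    rw [e5, e6]
    linarith

/-- the position, cut off outside the ball of radius `σ / 8` -/
noncomputable def cl (_ : MIn Om W ρ₀ Qb k0 σ) (a : R3) : R3 := by
  classical exact if ‖a‖ ≤ σ / 8 then a else 0

theorem cl_eq (h : MIn Om W ρ₀ Qb k0 σ) {a : R3} (ha : ‖a‖ ≤ σ / 8) : h.cl a = a := by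
  classical
  unfold cl
  rw [if_pos ha]

theorem norm_cl (h : MIn Om W ρ₀ Qb k0 σ) (a : R3) : ‖h.cl a‖ ≤ σ / 8 := by
  classical
  have := h.σ0
  unfold cl
  split_ifs with h1
  · exact h1
  · rw [norm_zero]; positivity

theorem adm (h : MIn Om W ρ₀ Qb k0 σ) (a : R3) : h.M.Adm fun _ => h.cl a := fun _ =>
  (norm_P3_symm_le _).trans (h.norm_cl a)

theorem adm0 (h : MIn Om W ρ₀ Qb k0 σ) : h.M.Adm fun _ => (0 : R3) := fun j => by
  have := h.σ0
  show ‖h.M.φ 0‖ ≤ σ / 8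
  rw [map_zero, norm_zero]
  positivity

theorem dom (h : MIn Om W ρ₀ Qb k0 σ) : h.M.φ ⁻¹' h.M.D0.Om = Om := by
  show P3.symm ⁻¹' h.D0.Om = Om
  rw [h.D0_Om]
  ext x
  simp

/-- the mesh data of 432's mesh at the position `a` -/
noncomputable def Ts (h : MIn Om W ρ₀ Qb k0 σ) (a : R3) :=
  meshS h.M h.sc (0 + h.M.φ (h.cl a)) (h.adm a)

/-- the index type of the tiles -/
def ιT (h : MIn Om W ρ₀ Qb k0 σ) (a : R3) : Type := by
  have T := h.Ts a
  exact ({t // t ∉ Crest.Agent.R096.Msb_432.cores h.M h.sc (0 + h.M.φ (h.cl a)) (h.adm a)} ⊕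
    Crest.Agent.R096.Msb_432.CIx h.M)

/-- **the mesh at the position `a`** -/
noncomputable def T (h : MIn Om W ρ₀ Qb k0 σ) (a : R3) : Tiling Om (h.ιT a) :=
  reOm (h.Ts a) h.dom

/-- the model -/
noncomputable def T0 (h : MIn Om W ρ₀ Qb k0 σ) :=
  meshS h.M h.sc 0 h.adm0

end MIn

end Crest.Agent.R096.Ca_855
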