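import Crest.Agent.R096.Ca16_855

/-!
# Row 96 (S0127), p ≤ 2: composite A (helper855), part 17: `MIn` from the blocks of `PreIN`

`exists_min` : the scale `k0` (if there are no blocks: some scale between `θ0 s / 2` and `θ0 s`).
-/

set_option autoImplicit false
set_option linter.unusedSectionVars false

open Set Metric MeasureTheory Filter
open scoped ENNReal Topology

namespace Crest.Agent.R096.Ca_855

open Crest.AnalysisR.VecCalc3 Crest.AnalysisR.Sobolev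
open Crest.Agent.R096.Msh_715
open Crest.Agent.R096.Mal_874 (CB)
open Crest.Agent.R096.Pin_753 (BlkP Ed)

/-- a scale below `x` -/
theorem exists_scale {x : ℝ} (hx : 0 < x) (hx1 : x ≤ 1) :
    ∃ k : ℕ, x / 2 ≤ 1 / 2 ^ k ∧ 1 / 2 ^ k ≤ x := by
  obtain ⟨k, hk1, hk2⟩ := exists_nat_pow_near_of_lt_one hx hx1 (by norm_num : (0:ℝ) < 1 / 2)
    (by norm_num)
  refine ⟨k + 1, ?_, ?_⟩
  · rw [one_div_pow] at hk2
    have h1 : (1:ℝ) / 2 ^ (k + 1) = 1 / 2 ^ k / 2 := by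
      rw [pow_succ]; field_simp
    rw [h1]
    linarith
  · rw [one_div_pow] at hk1
    exact hk1.le

/-- **the inputs of the mesh from the blocks of `PreIN`** -/
theorem exists_min {Om W : Set R3} {ρ₀ : R3 → ℝ} {J : Type} {κ s τ hh c1 c2 θ0 θ1 : ℝ}
    {Bs Nn : ℕ} {zz : J → R3} {Qb : J → CB R3 3} {k0 : ℕ}
    (lip : ∀ x y, ρ₀ x ≤ ρ₀ y + ‖x - y‖) (nn : ∀ x, 0 ≤ ρ₀ x) (le1 : ∀ x, ρ₀ x ≤ 1)
    (pos : ∀ x, 0 < ρ₀ x ↔ x ∈ Om) (hW : ∀ x ∈ W, c2 * s ≤ ρ₀ x) (hN : ∀ j, (Qb j).N ⊆ W)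
    (hk : ∀ j, (Qb j).kc ≤ k0)
    (hb : ∀ j, BlkP κ s τ hh c1 θ0 θ1 Bs Nn (zz j) (Qb j) k0)
    (hsep : ∀ i j, i ≠ j → ∀ x ∈ (Qb i).N, ∀ y ∈ (Qb j).N, c2 * s ≤ dist x y)
    (hs : 0 < s) (hθ0 : 0 < θ0) (h48 : 48 * θ0 < c2) (hs1 : θ0 * s ≤ 1) :
    ∃ k0' : ℕ, (J → k0' = k0) ∧ MIn Om W ρ₀ Qb k0' (c2 * s) ∧
      min θ1 (θ0 / 2) * s ≤ 1 / 2 ^ k0' ∧ 1 / 2 ^ k0' ≤ θ0 * s := by
  have key : ∀ k : ℕ, (∀ j, (Qb j).kc ≤ k) → 1 / 2 ^ k ≤ θ0 * s →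
      MIn Om W ρ₀ Qb k (c2 * s) := by
    intro k h1 h2
    refine ⟨lip, nn, le1, pos, hW, hN, ?_, h1, hsep⟩
    rw [show (48:ℝ) / 2 ^ k = 48 * (1 / 2 ^ k) by ring]
    nlinarith
  rcases isEmpty_or_nonempty J with hJ | ⟨⟨j⟩⟩
  · obtain ⟨k, h1, h2⟩ := exists_scale (x := θ0 * s) (by positivity) hs1
    refine ⟨k, fun j => hJ.elim j, key k (fun j => hJ.elim j) h2, ?_, h2⟩
    refine le_trans ?_ h1
    have : min θ1 (θ0 / 2) ≤ θ0 / 2 := min_le_right _ _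
    nlinarith
  · refine ⟨k0, fun _ => rfl, key k0 hk (hb j).hi, ?_, (hb j).hi⟩
    refine le_trans ?_ (hb j).lo
    exact mul_le_mul_of_nonneg_right (min_le_left _ _) hs.le

end Crest.Agent.R096.Ca_855
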