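import Crest.Agent.R96.Intr27_538

/-!
# Row 96 (helper812), p ≤ 2: [EN-D0] of 753: the energy half of `coarse_E` alone

`energies`: finitely many weighted energies, one bad set of translates of relative size `θ` in any set
`D` of translates; constants `nE l * ((m + 1) / θ)`.
-/

set_option autoImplicit false
set_option linter.unusedSectionVars false

open MeasureTheory Set Filter Metric Module
open scoped ENNReal NNReal Topology

namespace Crest.Agent.R096.End_812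

open Crest.AnalysisR.VecCalc3 Crest.AnalysisR.Sobolev
open Crest.Agent.R96.Acl_392 Crest.Agent.R96.Lu_538 Crest.Agent.R96.Intr_538
open Crest.Agent.R96.Poi_392 Crest.Agent.R96.Coarse_538

/-- **finitely many weighted energies**, bad set of relative size `θ` -/
theorem energies {m : ℕ} {g : Fin m → R3 → ℝ≥0∞} (hg : ∀ l, AEMeasurable (g l) volume)
    (hgi : ∀ l, ∫⁻ y, g l y ≠ ∞) {nE ncE : Fin m → ℝ} {εE θ : ℝ} (hnE : ∀ l, 0 < nE l)
    (hncE : ∀ l, 0 < ncE l) (hθ : 0 < θ) (hεE : 0 < εE) :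
    ∃ δE : ℝ, 0 < δE ∧ ∀ s : ℝ, 0 < s → ∀ a₀ : R3, ∀ (μ : Fin m → R3 → Measure R3) (D : Set R3),
      MeasurableSet D → volume D ≠ 0 → volume D ≠ ∞ →
      (∀ l, RM D (ENNReal.ofReal (nE l)) (μ l)) →
      (∀ l, ∀ a ∈ D, ∀ k : Fin 3 → ℤ, μ l a (cel Cb (vt (2 * s) a₀ k) s) ≤
        ENNReal.ofReal (ncE l * (2 * s) ^ 3)) →
      ∀ E : Fin m → Set R3, (∀ l, MeasurableSet (E l)) →
      ∃ B : Set R3, volume B ≤ ENNReal.ofReal θ * volume D ∧ ∀ a ∈ D, a ∉ B → ∀ l,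
        ∀ Z : Finset (Fin 3 → ℤ), (Z.card : ℝ) * (2 * s) ^ 3 ≤ δE →
          ∫⁻ y in E l ∪ ⋃ k ∈ Z, cel Cb (vt (2 * s) a₀ k) s, g l y ∂μ l a ≤
            ENNReal.ofReal (nE l * ((m + 1) / θ)) * (∫⁻ y in E l, g l y) +
              ENNReal.ofReal εE := by
  classical
  have hm : (0:ℝ) < (m:ℝ) + 1 := by positivity
  have hθ' : 0 < θ / ((m:ℝ) + 1) := by positivity
  have hen := fun l => energy_M (hg l) (hgi l) (hnE l) (hncE l) hθ' hεE
  choose δE hδE HE using hen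
  obtain ⟨δ', hδ', hδ'E⟩ : ∃ δ' : ℝ, 0 < δ' ∧ ∀ l, δ' ≤ δE l := by
    rcases isEmpty_or_nonempty (Fin m) with h0 | h0
    · exact ⟨1, one_pos, fun l => (h0.false l).elim⟩
    · refine ⟨Finset.univ.inf' Finset.univ_nonempty δE, ?_,
        fun l => Finset.inf'_le _ (Finset.mem_univ l)⟩
      rw [Finset.lt_inf'_iff]
      exact fun l _ => hδE l
  refine ⟨δ', hδ', fun s hs a₀ μ D hD hV0 hVDt hμ hcount E hE => ?_⟩
  have hEl := fun l => HE l s hs a₀ (μ l) D hD hV0 hVDt (hμ l) (hcount l) (E l) (hE l)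
  choose B₂ hB₂ HB₂ using hEl
  refine ⟨⋃ l, B₂ l, ?_, fun a ha haB l Z hZ => ?_⟩
  · refine (measure_iUnion_fintype_le _ _).trans ?_
    refine (Finset.sum_le_sum fun l _ => hB₂ l).trans ?_
    rw [Finset.sum_const, Finset.card_univ, Fintype.card_fin, nsmul_eq_mul, ← mul_assoc,
      ← ENNReal.ofReal_natCast, ← ENNReal.ofReal_mul (Nat.cast_nonneg _)]
    gcongr
    rw [mul_div_assoc', div_le_iff₀ hm]
    nlinarith
  · have h1 := HB₂ l a ha (fun h => haB (mem_iUnion.2 ⟨l, h⟩)) Z (hZ.trans (hδ'E l))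
    rw [div_div_eq_mul_div, mul_div_assoc] at h1
    exact h1

/-- **[EN-D0]**: the bad set has at most half of the volume, constants `2 (m + 1) nE l` -/
theorem energies_half {m : ℕ} {g : Fin m → R3 → ℝ≥0∞} (hg : ∀ l, AEMeasurable (g l) volume)
    (hgi : ∀ l, ∫⁻ y, g l y ≠ ∞) {nE ncE : Fin m → ℝ} {εE : ℝ} (hnE : ∀ l, 0 < nE l)
    (hncE : ∀ l, 0 < ncE l) (hεE : 0 < εE) :
    ∃ δE : ℝ, 0 < δE ∧ ∀ s : ℝ, 0 < s → ∀ a₀ : R3, ∀ (μ : Fin m → R3 → Measure R3) (D : Set R3),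
      MeasurableSet D → volume D ≠ 0 → volume D ≠ ∞ →
      (∀ l, RM D (ENNReal.ofReal (nE l)) (μ l)) →
      (∀ l, ∀ a ∈ D, ∀ k : Fin 3 → ℤ, μ l a (cel Cb (vt (2 * s) a₀ k) s) ≤
        ENNReal.ofReal (ncE l * (2 * s) ^ 3)) →
      ∀ E : Fin m → Set R3, (∀ l, MeasurableSet (E l)) →
      ∃ B : Set R3, volume B ≤ ENNReal.ofReal (1 / 2) * volume D ∧ ∀ a ∈ D, a ∉ B → ∀ l,
        ∀ Z : Finset (Fin 3 → ℤ), (Z.card : ℝ) * (2 * s) ^ 3 ≤ δE →
          ∫⁻ y in E l ∪ ⋃ k ∈ Z, cel Cb (vt (2 * s) a₀ k) s, g l y ∂μ l a ≤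
            ENNReal.ofReal (2 * (m + 1) * nE l) * (∫⁻ y in E l, g l y) +
              ENNReal.ofReal εE := by
  obtain ⟨δE, hδE, H⟩ := energies hg hgi hnE hncE (θ := 1 / 2) (by norm_num) hεE
  refine ⟨δE, hδE, fun s hs a₀ μ D hD hV0 hVDt hμ hcount E hE => ?_⟩
  obtain ⟨B, hB, HB⟩ := H s hs a₀ μ D hD hV0 hVDt hμ hcount E hE
  refine ⟨B, hB, fun a ha haB l Z hZ => ?_⟩
  have h1 := HB a ha haB l Z hZ
  rwa [show nE l * (((m:ℝ) + 1) / (1 / 2)) = 2 * (m + 1) * nE l by ring] at h1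

/-- a good position in the small set, off a finite family of bad sets -/
theorem exists_good {D0 B₁ B₂ : Set R3} (h0 : volume D0 ≠ 0) (ht : volume D0 ≠ ∞) {t₁ t₂ : ℝ}
    (ht₁ : 0 ≤ t₁) (ht₂ : 0 ≤ t₂) (h12 : t₁ + t₂ < 1)
    (h1 : volume B₁ ≤ ENNReal.ofReal t₁ * volume D0)
    (h2 : volume B₂ ≤ ENNReal.ofReal t₂ * volume D0) : ∃ a ∈ D0, a ∉ B₁ ∧ a ∉ B₂ := by
  by_contra hcon
  push Not at hcon
  have hsub : D0 ⊆ B₁ ∪ B₂ := by
    intro a ha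
    by_cases h : a ∈ B₁
    · exact Or.inl h
    · exact Or.inr (hcon a ha h)
  have h3 : volume D0 ≤ ENNReal.ofReal (t₁ + t₂) * volume D0 := by
    rw [ENNReal.ofReal_add ht₁ ht₂, add_mul]
    exact (measure_mono hsub).trans ((measure_union_le _ _).trans (add_le_add h1 h2))
  have h4 : ENNReal.ofReal (t₁ + t₂) * volume D0 < 1 * volume D0 := by
    rw [ENNReal.mul_lt_mul_iff_left h0 ht]
    rw [← ENNReal.ofReal_one]
    exact (ENNReal.ofReal_lt_ofReal_iff one_pos).2 h12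
  rw [one_mul] at h4
  exact absurd h3 (not_le.2 h4)

end Crest.Agent.R096.End_812
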