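import Crest.Agent.R096.Pas2_753
import Crest.Agent.R096.End1_812
import Crest.Agent.R096.Cnt5_580

/-!
# Row 96 (S0127), p ≤ 2: assembly of `PreIN p` (helper855): the selection of the position

`sel_U` : 753's `comp_U` + the position in the small cube `Dt (2 ^ -k0)` + energies on the small cube.
-/

set_option autoImplicit false
set_option linter.style.longLine false
set_option linter.unusedSectionVars false

open MeasureTheory Set Filter Topology Metric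
open scoped ENNReal NNReal

namespace Crest.Agent.R096.Ca_855

open Crest.AnalysisR.VecCalc3 Crest.AnalysisR.Sobolev
open Crest.Agent.R096.Msh_715 (Tiling P I)
open Crest.Agent.R096.Mal_874 (CB)
open Crest.Agent.R096.Sk_962 (SH)
open Crest.Agent.R096.Br_695 (En)
open Crest.Agent.R096.Sk2_855 (Mv sk1)
open Crest.Agent.R096.Cp_465
open Crest.Agent.R096.Fsl_793
open Crest.Agent.R096.Gz_812 (HFine)
open Crest.Agent.R096.Pin_753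
open Crest.Agent.R096.Pas_753
open Crest.Agent.R96.Lu_538
open Crest.Agent.R96.Intr_538
open Crest.Agent.R96.Coarse_538
open Crest.Agent.R96.Acl_392
open Crest.Agent.R096.End_812 (energies_half)
open Crest.Agent.R096.Cnt5_580 (pick_Dt theta_ok)

/-- **selection of the position**: `comp_U` with the position in the small cube `Dt (2 ^ -k0)`, off a
null set, with the weighted energies of a list of random measures on the small cube -/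
theorem sel_U {p : ℝ} (hp : 1 ≤ p) (hp2 : p ≤ 2) {Om La : Set R3} (hOm : IsOpen Om)
    (hOmb : Bornology.IsBounded Om) (hLa : IsOpen La) (hLaf : volume La ≠ ∞) {f : R3 → R3}
    {G : Fin 3 → R3 → R3} (H : SH p Om La f G) (happ : HFine Om La f) {ε : ℝ} (hε : 0 < ε) :
    ∃ κ : ℝ, 0 < κ ∧ κ ≤ 1 ∧ ∃ K ⊆ Om, IsCompact K ∧ ∃ K' ⊆ La, IsCompact K' ∧
      ∀ (nc mf : ℕ) (N n τ σ₀ β r σ' η₁ q δ e₁ : ℝ), 0 < N → 0 < n → 0 < σ₀ → σ₀ < τ → 6 * τ < 1 →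
        1 ≤ σ₀ * N → 2 ≤ τ * N → 0 < β → 0 < r → 0 < σ' → 24 * σ' ≤ κ * τ * N → 0 < η₁ →
        0 < q → 0 < δ → 0 < e₁ →
        ∀ (m : ℕ) (g : Fin m → R3 → ℝ≥0∞), (∀ l, AEMeasurable (g l) volume) →
        (∀ l, ∫⁻ y, g l y ≠ ∞) → ∀ (nE ncE : Fin m → ℝ) (εE : ℝ), (∀ l, 0 < nE l) →
        (∀ l, 0 < ncE l) → 0 < εE →
        ∃ s₀ : ℝ, 0 < s₀ ∧ ∀ s : ℝ, 0 < s → s < s₀ → ∀ a₀ : R3,
        ∃ (Q₀ : Finset (Fin 3 → ℤ)) (b : (Fin 3 → ℤ) → R3) (L : (Fin 3 → ℤ) → R3 →L[ℝ] R3)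
          (S : (Fin 3 → ℤ) → Set R3),
          (∀ k ∈ Q₀, GC Om volume f (Gmat G) Cb κ e₁ s (vt (2 * s) a₀ k) (b k) (L k) (S k)) ∧
          (∀ k ∈ Q₀, cel Cb (vt (2 * s) a₀ k) s ⊆ K) ∧ (∀ k ∈ Q₀, par Cb (L k) (b k) s ⊆ K') ∧
          (∀ k ∈ Q₀, ∀ l ∈ Q₀, k ≠ l →
            Disjoint (par Cb (L k) (b k) ((1 - τ) * s)) (par Cb (L l) (b l) s)) ∧
          ∑ k ∈ Q₀, ∫⁻ x in cel Cb (vt (2 * s) a₀ k) s, ‖Gmat G x - L k‖ₑ ^ p ≤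
            ENNReal.ofReal e₁ ∧
          volume ((Om ∩ {x | (Gmat G x).det ≠ 0}) \ ⋃ k ∈ Q₀, cel Cb (vt (2 * s) a₀ k) s) ≤
            ENNReal.ofReal ε ∧
          ∀ (W : Set R3), K ⊆ W → (∀ y ∈ Om, f y ∈ K' → y ∈ W) →
            ∀ (M : MFam2 Om W (s / N) n β r nc mf) (ν : R3 → Measure R3),
            RM M.Tr (ENNReal.ofReal n) ν →
            ∀ (J : Type) [Countable J] (F : J → R3 → ℝ≥0∞), (∀ j, AEMeasurable (F j) volume) →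
            (∀ j, ∫⁻ y, F j y ≠ ∞) →
            ∀ k0 : ℕ, q * s ≤ 1 / 2 ^ k0 → Dt (1 / 2 ^ k0) ⊆ M.Tr →
            volume M.Tr ≤ ENNReal.ofReal ((2 * (s / N)) ^ 3) →
            ∀ (μ : Fin m → R3 → Measure R3),
            (∀ l, RM (Dt (1 / 2 ^ k0)) (ENNReal.ofReal (nE l)) (μ l)) →
            (∀ l, ∀ a ∈ Dt (1 / 2 ^ k0), ∀ k : Fin 3 → ℤ, μ l a (cel Cb (vt (2 * s) a₀ k) s) ≤
              ENNReal.ofReal (ncE l * (2 * s) ^ 3)) →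
            ∀ (E : Fin m → Set R3), (∀ l, MeasurableSet (E l)) → ∀ Z : Set R3, volume Z = 0 →
              ∃ a ∈ Dt (1 / 2 ^ k0), a ∉ Z ∧ ‖a‖ ≤ 2 / 2 ^ k0 ∧
                (∀ e, ACV Om f (Gmat G) (M.v e) (a + M.x e)) ∧
                (∀ e j, ∀ ε' : ℝ≥0∞, 0 < ε' → ∀ᶠ r in 𝓝[>] (0:ℝ),
                  ∫⁻ y in thickening r (seg M.x M.v a e), F j y ≤
                    ENNReal.ofReal (64 * ‖M.v e‖ * r ^ 2) *
                      ((∫⁻ σ in Ioc (0:ℝ) 1, F j (a + M.x e + σ • M.v e)) + ε')) ∧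
                ∃ Q ⊆ Q₀, ((Q₀ \ Q).card : ℝ) * (2 * s) ^ 3 ≤ δ ∧
                (∀ k ∈ Q, PerfG M.x M.v p Om f (Gmat G) κ τ σ₀ η₁ (s / N) s a
                  (vt (2 * s) a₀ k) (b k) (L k)) ∧
                (p = 2 → ∀ k ∈ Q, ∫⁻ y in cel Cb (vt (2 * s) a₀ k) s,
                  ‖Gmat G y - L k‖ₑ ^ (2:ℝ) ∂ν a ≤ ENNReal.ofReal (η₁ * s ^ 3)) ∧
                (∀ l, ∫⁻ y in E l ∪ ⋃ k ∈ Q₀ \ Q, cel Cb (vt (2 * s) a₀ k) s, g l y ∂μ l a ≤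
                  ENNReal.ofReal (2 * (m + 1) * nE l) * (∫⁻ y in E l, g l y) +
                    ENNReal.ofReal εE) ∧
                ResU (p = 2) Om La (M.T a) f Q (vt (2 * s) a₀) b L κ τ s
                  (3 * (nc * (nc * nc) + 2) * (κ⁻¹ * (s / N))) (σ' * (s / N)) := by
  obtain ⟨κ, hκ, hκ1, K, hK, hKc, K', hK', hK'c, H0⟩ := comp_U hp hp2 hOm hOmb hLa hLaf H happ hε
  refine ⟨κ, hκ, hκ1, K, hK, hKc, K', hK', hK'c, ?_⟩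
  intro nc mf N n τ σ₀ β r σ' η₁ q δ e₁ hN hn hσ₀ hσ₀τ hτ6 hσN hτN hβ hr hσ' hσ'r hη₁ hq hδ he₁
    m g hg hgi nE ncE εE hnE hncE hεE
  obtain ⟨δE, hδE, HE⟩ := energies_half hg hgi hnE hncE hεE
  obtain ⟨s₀, hs₀, Hs⟩ := H0 nc mf N n τ σ₀ β r σ' η₁ ((q * N / 2) ^ 3 / 8) (min δ δE) e₁ hN hn hσ₀
    hσ₀τ hτ6 hσN hτN hβ hr hσ' hσ'r hη₁ (by positivity) (lt_min hδ hδE) he₁
  refine ⟨s₀, hs₀, fun s hs hss a₀ => ?_⟩
  obtain ⟨Q₀, b, L, S, q1, q2, q3, q4, q5, q6, q7⟩ := Hs s hs hss a₀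
  refine ⟨Q₀, b, L, S, q1, q2, q3, q4, q5, q6, ?_⟩
  intro W hKW hKW' M ν hν J _ F hF hFi k0 hk0 hD hT μ hμ hcount E hE Z hZ
  obtain ⟨B, hB, HB⟩ := q7 W hKW hKW' M ν hν J F hF hFi
  have ht2 : (0:ℝ) < 1 / 2 ^ k0 := by positivity
  have hv := Crest.Agent.R96.Coarse_538.vol_Dt ht2
  obtain ⟨B2, hB2, HB2⟩ := HE s hs a₀ μ (Dt (1 / 2 ^ k0)) (meas_Dt _)
    (by rw [hv]; exact (ENNReal.ofReal_pos.2 (by positivity)).ne')
    (by rw [hv]; exact ENNReal.ofReal_ne_top) hμ hcount E hE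
  have hBZ : volume (B ∪ Z) ≤ ENNReal.ofReal ((q * N / 2) ^ 3 / 8) * volume M.Tr :=
    (measure_union_le _ _).trans (by rw [hZ, add_zero]; exact hB)
  obtain ⟨a, ha, ha1, ha2, ha3⟩ := pick_Dt hBZ
    (theta_ok (C := 2) two_pos hq hN hs rfl hT hk0).2 hB2
  have haB : a ∉ B := fun h => ha1 (Or.inl h)
  have haZ : a ∉ Z := fun h => ha1 (Or.inr h)
  obtain ⟨a1, a2, Q, hQ, a3, a4, a5, a6⟩ := HB a (hD ha) haB
  refine ⟨a, ha, haZ, ha3, a1, a2, Q, hQ, a3.trans (min_le_left _ _), a4, a5, fun l => ?_, a6⟩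
  exact HB2 a ha ha2 l (Q₀ \ Q) (a3.trans (min_le_right _ _))

end Crest.Agent.R096.Ca_855
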