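import Crest.Agent.R096.Lm3_812
import Crest.Agent.R096.Srg4_465

/-!
# The disc move in every 3-dimensional space (helper812, row 96, 2SK)
-/

set_option autoImplicit false

namespace Crest.Agent.R096.Lm_812

open Set Metric Crest.Agent.R096.Pl Crest.Agent.R096.Ce_537 Crest.Agent.R096.Msh_715

variable {E : Type*} [NormedAddCommGroup E] [NormedSpace ℝ E] [FiniteDimensional ℝ E]

/-- **`DMove E` from the PL Schoenflies theorem for two discs** -/
theorem dMove (h3 : Module.finrank ℝ E = 3)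
    (hP2 : ∀ A B Γ : Set ((ℝ × ℝ) × ℝ), IsBall 2 A Γ → IsBall 2 B Γ → A ∩ B = Γ → StdS A B) :
    Srg_465.DMove E := by
  intro P Q Γ Fc D U g1 g2 g3 g4 g5 g6 g7 g8 g9 g10 g11 g12
  exact disc_move_E h3 hP2 g1 g2 g3 g4 g5 g6 g7 g8 g9 g10 g11 g12

/-- **`DMove E` from the two statements of P2-GEN** -/
theorem dMove_gen (h3 : Module.finrank ℝ E = 3) (hE : Gp_702.ExistStmt) (hN : Gp_702.NormStmt) :
    Srg_465.DMove E := dMove h3 (Pb_812.stdS_of_discs hE hN)

/-- **the mesh of a tiling, from P2-GEN** -/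
theorem mesh_gen {Om : Set E} {ι : Type*} (T : Tiling Om ι) (h3 : Module.finrank ℝ E = 3)
    (hE : Gp_702.ExistStmt) (hN : Gp_702.NormStmt) :
    Srg_465.Mesh Om (Sk2_855.sk1 T) (fun k : Srg_465.Face T => k.set) :=
  Srg_465.mesh h3 (dMove_gen h3 hE hN)

end Crest.Agent.R096.Lm_812
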