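import Crest.Agent.R096.Sk2i_855
import Crest.Agent.R096.Ub4_113
import Crest.Agent.R096.Lm5_812
import Crest.Agent.R096.GpZ_702

/-!
# Row 96 (S0127), p < 2 (helper855): the surgery theorems without hypotheses
-/

set_option autoImplicit false
set_option linter.unusedSectionVars false

open Set Metric

namespace Crest.Agent.R096.Sk2_855

open Crest.Agent.R096.Msh_715 (Tiling P)
open Crest.Agent.R096.Ub_113 (USurg)

variable {E : Type} [NormedAddCommGroup E] [NormedSpace ℝ E] [FiniteDimensional ℝ E]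

/-- **the disc move** -/
theorem dMoveZ (h3 : Module.finrank ℝ E = 3) : Srg_465.DMove E :=
  Lm_812.dMove_gen h3 Gp_702.existStmt Gp_702.normStmt

/-- **SURG** -/
theorem surgZ (h3 : Module.finrank ℝ E = 3) {Om La : Set E} {ι : Type} (T : Tiling Om ι) :
    Surg T La := Srg_465.surg_final h3 (dMoveZ h3) T

/-- **USURG** -/
theorem usurgZ (h3 : Module.finrank ℝ E = 3) {Om La : Set E} {ι : Type} (T : Tiling Om ι) :
    USurg T La := Ub3_113.usurg_final h3 (dMoveZ h3) T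

/-- **2SK, cube version**, unconditional -/
theorem two_skZ (h3 : Module.finrank ℝ E = 3) {Om La : Set E} {ι : Type} {T : Tiling Om ι}
    {f : E → E} (hLa : IsOpen La) {κ : Type*} [Finite κ] (F : Fam T La f κ) {fi : E → E}
    (hf : ContinuousOn f Om) (hfi : ContinuousOn fi La) (mti : MapsTo fi La Om)
    (li : ∀ x ∈ Om, fi (f x) = x)
    (happ : ∀ η > 0, ∃ h hi, HP Om La h hi ∧ ∀ x ∈ Om, ‖h x - f x‖ ≤ η)
    {r : ℝ} (hr : 0 < r) (hT : ∀ i, ∀ x ∈ P (T.H i), ∀ y ∈ P (T.H i), ‖f x - f y‖ ≤ r)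
    (hl : ∀ q y y', ‖F.lam q y - F.lam q y'‖ ≤ 12 → ‖y - y'‖ ≤ r) :
    ∃ Ψ : E ≃ₜ E, Mv T Ψ ∧
      (∀ q x, (∀ i, (F.m q : ℝ) + 20744 ≤ F.δ q x i ∧ F.δ q x i ≤ F.N q - F.m q - 20744) →
        ‖F.lam q (f (Ψ x)) - F.δ q x‖ ≤ 20744) ∧
      ∀ x ∈ Om, ‖f (Ψ x) - f x‖ ≤ 1736 * r :=
  two_sk h3 hLa (surgZ h3 T) F hf hfi mti li happ hr hT hl

end Crest.Agent.R096.Sk2_855
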