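import Crest.Agent.R096.Gau2_812
import Crest.Agent.R096.Sk3b_270
import Crest.Agent.R096.Sk2z_855

/-!
# Row 96 (S0127), p < 2: composite A (helper855), part 1: from good tiles to the homeomorphism `Ψ`
-/

set_option autoImplicit false
set_option linter.unusedSectionVars false

open Set Metric

namespace Crest.Agent.R096.Ca_855

open Crest.Agent.R096.Msh_715 (Tiling P I)
open Crest.Agent.R096.Sk2_855 (sk1 HP Mv usurgZ)
open Crest.Agent.R096.Sk3_812 (GoodT HF)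
open Crest.Agent.R096.Sk3_270 (two_sk_near exists_col)

variable {E : Type} [NormedAddCommGroup E] [NormedSpace ℝ E] [FiniteDimensional ℝ E]
  {Om La : Set E} {ι : Type} {T : Tiling Om ι}

/-- the tiles which touch the tile `i` -/
def nbs (T : Tiling Om ι) (i : ι) : Set ι := {j | (P (T.H j) ∩ P (T.H i)).Nonempty}

theorem nbs_finite (T : Tiling Om ι) (i : ι) : (nbs T i).Finite :=
  T.finite_tiles (T.cpt i) (T.sub i)

theorem aff_sub (A : E ≃ᵃ[ℝ] E) (x y : E) : A x - A y = A.linear (x - y) := by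
  have := A.toAffineMap.linearMap_vsub x y
  rw [vsub_eq_sub, vsub_eq_sub] at this
  exact this.symm

/-- data of the good regions: affine maps `A k`, deep regions `U k`, their surroundings `V k`,
gauges `u k i` with centres `C k i` -/
structure Regs (T : Tiling Om ι) (La : Set E) (f : E → E) {K : Type*} (A : K → E ≃ᵃ[ℝ] E)
    (U V : K → Set E) (u : K → ι → E → ℝ) (C : K → ι → E) (a b : ℝ) (nc : ℕ) (t Λ : ℝ) :
    Prop where
  cpt : ∀ k, IsCompact (U k)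
  sub : ∀ k, U k ⊆ Om
  UV : ∀ k, U k ⊆ V k
  good : ∀ k i, P (T.H i) ⊆ U k → GoodT T La f i (u k i) (C k i) a b
  star : ∀ k i, P (T.H i) ⊆ U k → ∀ x, u k i (A k x) ≤ b →
    x ∈ V k ∧ ∃ m ∈ nbs T i, x ∈ P (T.H m)
  disj : ∀ k l, k ≠ l → Disjoint (A k '' V k) (A l '' V l)
  nb : ∀ k i, (P (T.H i) ∩ V k).Nonempty → (nbs T i).ncard ≤ nc
  Λ0 : 0 ≤ Λ
  t0 : 0 ≤ t
  lin : ∀ k v, ‖(A k).linear v‖ ≤ Λ * ‖v‖
  diam : ∀ k i, (P (T.H i) ∩ V k).Nonempty → ∀ x ∈ P (T.H i), ∀ y ∈ P (T.H i), ‖x - y‖ ≤ t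

namespace Regs

variable {f fi : E → E} {K : Type*} {A : K → E ≃ᵃ[ℝ] E}
    {U V : K → Set E} {u : K → ι → E → ℝ} {C : K → ι → E} {a b : ℝ} {nc : ℕ} {t Λ : ℝ}

theorem P_ne (T : Tiling Om ι) (i : ι) : (P (T.H i)).Nonempty := by
  obtain ⟨x, hx⟩ := T.ne i
  exact ⟨x, Msh_715.I_sub_P _ hx⟩

/-- the index set of the bodies -/
def J (T : Tiling Om ι) (U : K → Set E) : Type _ := {p : K × ι // P (T.H p.2) ⊆ U p.1}

theorem finite_J [Finite K] (R : Regs T La f A U V u C a b nc t Λ) : Finite (J T U) := by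
  have h1 : ∀ k, {i | (P (T.H i) ∩ U k).Nonempty}.Finite := fun k =>
    T.finite_tiles (R.cpt k) (R.sub k)
  have h2 : {p : K × ι | P (T.H p.2) ⊆ U p.1}.Finite := by
    have h3 : (⋃ k : K, (fun i => (k, i)) '' {i | (P (T.H i) ∩ U k).Nonempty}).Finite :=
      Set.finite_iUnion fun k => (h1 k).image _
    refine h3.subset ?_
    rintro ⟨k, i⟩ hp
    refine mem_iUnion.2 ⟨k, i, ?_, rfl⟩
    obtain ⟨x, hx⟩ := P_ne T i
    exact ⟨x, hx, hp hx⟩
  exact h2.to_subtype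

/-- the body of a tile -/
def Y (u : K → ι → E → ℝ) (b : ℝ) (j : J T U) : Set E := {y | u j.1.1 j.1.2 y ≤ b}

theorem dist_star (R : Regs T La f A U V u C a b nc t Λ) {k : K} {i : ι} (hi : P (T.H i) ⊆ U k)
    {x : E} (hx : u k i (A k x) ≤ b) {z : E} (hz : z ∈ P (T.H i)) : ‖x - z‖ ≤ 2 * t := by
  obtain ⟨hxV, m, ⟨p, hp, hp'⟩, hxm⟩ := R.star k i hi x hx
  have h1 := R.diam k m ⟨x, hxm, hxV⟩ x hxm p hp
  have h2 := R.diam k i ⟨z, hz, R.UV k (hi hz)⟩ p hp' z hz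
  have e : x - z = (x - p) + (p - z) := by abel
  rw [e]
  refine (norm_add_le _ _).trans ?_
  linarith

theorem dist_star' (R : Regs T La f A U V u C a b nc t Λ) {k : K} {i : ι} (hi : P (T.H i) ⊆ U k)
    {x : E} (hx : u k i (A k x) ≤ b) {x' : E} (hx' : u k i (A k x') ≤ b) : ‖x - x'‖ ≤ 3 * t := by
  obtain ⟨hxV, m, ⟨p, hp, hp'⟩, hxm⟩ := R.star k i hi x hx
  have h1 := R.diam k m ⟨x, hxm, hxV⟩ x hxm p hp
  have h2 := R.dist_star hi hx' hp'
  have e : x - x' = (x - p) - (x' - p) := by abel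
  rw [e]
  refine (norm_sub_le _ _).trans ?_
  linarith

/-- the bodies have diameter at most `3 Λ t` -/
theorem diam_Y (R : Regs T La f A U V u C a b nc t Λ) (j : J T U) {y y' : E}
    (hy : y ∈ Y u b j) (hy' : y' ∈ Y u b j) : ‖y - y'‖ ≤ Λ * (3 * t) := by
  have h1 : u j.1.1 j.1.2 (A j.1.1 ((A j.1.1).symm y)) ≤ b := by
    rw [AffineEquiv.apply_symm_apply]; exact hy
  have h2 : u j.1.1 j.1.2 (A j.1.1 ((A j.1.1).symm y')) ≤ b := by
    rw [AffineEquiv.apply_symm_apply]; exact hy'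
  have h3 := R.dist_star' j.2 h1 h2
  have h4 := aff_sub (A j.1.1) ((A j.1.1).symm y) ((A j.1.1).symm y')
  rw [AffineEquiv.apply_symm_apply, AffineEquiv.apply_symm_apply] at h4
  rw [h4]
  exact (R.lin _ _).trans (mul_le_mul_of_nonneg_left h3 R.Λ0)

theorem Y_sub (R : Regs T La f A U V u C a b nc t Λ) (j : J T U) {y : E} (hy : y ∈ Y u b j) :
    ∃ x ∈ V j.1.1, A j.1.1 x = y ∧ ∃ m ∈ nbs T j.1.2, x ∈ P (T.H m) := by
  have h1 : u j.1.1 j.1.2 (A j.1.1 ((A j.1.1).symm y)) ≤ b := by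
    rw [AffineEquiv.apply_symm_apply]; exact hy
  obtain ⟨h2, h3⟩ := R.star _ _ j.2 _ h1
  exact ⟨_, h2, AffineEquiv.apply_symm_apply _ _, h3⟩

/-- the tiles three steps away -/
def N3 (T : Tiling Om ι) (V : Set E) (i : ι) : Set ι :=
  ⋃ m ∈ {m | m ∈ nbs T i ∧ (P (T.H m) ∩ V).Nonempty},
    ⋃ m' ∈ {m' | m' ∈ nbs T m ∧ (P (T.H m') ∩ V).Nonempty}, nbs T m'

theorem ncard_biUnion_le {α β : Type*} {s : Set α} (hs : s.Finite) {g : α → Set β} {n : ℕ}
    (hg : ∀ i ∈ s, (g i).ncard ≤ n) : (⋃ i ∈ s, g i).ncard ≤ s.ncard * n := by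
  classical
  induction s, hs using Set.Finite.induction_on with
  | empty => simp
  | @insert a s ha hs ih =>
    rw [Set.biUnion_insert, Set.ncard_insert_of_notMem ha hs]
    refine (Set.ncard_union_le _ _).trans ?_
    have h1 := ih fun i hi => hg i (Set.mem_insert_of_mem _ hi)
    have h2 := hg a (Set.mem_insert _ _)
    calc (g a).ncard + (⋃ i ∈ s, g i).ncard ≤ n + s.ncard * n := add_le_add h2 h1
      _ = (s.ncard + 1) * n := by ring

theorem N3_finite (T : Tiling Om ι) (V : Set E) (i : ι) : (N3 T V i).Finite :=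
  ((nbs_finite T i).subset fun _ h => h.1).biUnion fun m _ =>
    ((nbs_finite T m).subset fun _ h => h.1).biUnion fun m' _ => nbs_finite T m'

theorem N3_card (R : Regs T La f A U V u C a b nc t Λ) {k : K} {i : ι}
    (hi : (P (T.H i) ∩ V k).Nonempty) : (N3 T (V k) i).ncard ≤ nc * (nc * nc) := by
  have hn : ∀ m, (P (T.H m) ∩ V k).Nonempty →
      {m' | m' ∈ nbs T m ∧ (P (T.H m') ∩ V k).Nonempty}.ncard ≤ nc := fun m hm =>
    (Set.ncard_le_ncard (fun _ h => h.1) (nbs_finite T m)).trans (R.nb k m hm)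
  refine (ncard_biUnion_le ((nbs_finite T i).subset fun _ h => h.1) (n := nc * nc)
    fun m hm => ?_).trans (Nat.mul_le_mul_right _ (hn i hi))
  refine (ncard_biUnion_le ((nbs_finite T m).subset fun _ h => h.1) (n := nc)
    fun m' hm' => ?_).trans (Nat.mul_le_mul_right _ (hn m hm.2))
  exact R.nb k m' hm'.2

/-- the bodies which meet one body -/
theorem meet_card (R : Regs T La f A U V u C a b nc t Λ) (j : J T U) :
    {j' : J T U | j' ≠ j ∧ (Y u b j ∩ Y u b j').Nonempty}.ncard ≤ nc * (nc * nc) := by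
  obtain ⟨z, hz⟩ := P_ne T j.1.2
  have hV : (P (T.H j.1.2) ∩ V j.1.1).Nonempty := ⟨z, hz, R.UV _ (j.2 hz)⟩
  refine le_trans ?_ (R.N3_card hV)
  refine Set.ncard_le_ncard_of_injOn (fun j' : J T U => j'.1.2) ?_ ?_ (N3_finite _ _ _)
  · rintro j' ⟨-, y, hy, hy'⟩
    obtain ⟨x, hxV, hxy, m, hm, hxm⟩ := R.Y_sub j hy
    obtain ⟨x', hxV', hxy', m', ⟨p, hp1, hp2⟩, hxm'⟩ := R.Y_sub j' hy'
    have hk : j'.1.1 = j.1.1 := by
      by_contra hne
      exact (disjoint_left.1 (R.disj _ _ hne)) ⟨x', hxV', hxy'⟩ ⟨x, hxV, hxy⟩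
    rw [hk] at hxy' hxV'
    have hxx : x' = x := (A j.1.1).injective (hxy'.trans hxy.symm)
    subst hxx
    refine mem_iUnion₂.2 ⟨m, ⟨hm, x', hxm, hxV⟩, mem_iUnion₂.2 ⟨m', ⟨⟨x', hxm', hxm⟩, x', hxm',
      hxV⟩, p, hp2, hp1⟩⟩
  · rintro j1 ⟨-, y1, hy1, hy1'⟩ j2 ⟨-, y2, hy2, hy2'⟩ e
    have key : ∀ j' : J T U, (Y u b j ∩ Y u b j').Nonempty → j'.1.1 = j.1.1 := by
      rintro j' ⟨y, hy, hy'⟩
      obtain ⟨x, hxV, hxy, -⟩ := R.Y_sub j hy
      obtain ⟨x', hxV', hxy', -⟩ := R.Y_sub j' hy'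
      by_contra hne
      exact (disjoint_left.1 (R.disj _ _ hne)) ⟨x', hxV', hxy'⟩ ⟨x, hxV, hxy⟩
    have e1 := key j1 ⟨y1, hy1, hy1'⟩
    have e2 := key j2 ⟨y2, hy2, hy2'⟩
    exact Subtype.ext (Prod.ext (e1.trans e2.symm) e)

/-- **from the good regions to the homeomorphism** -/
theorem exists_psi [Finite K] (R : Regs T La f A U V u C a b nc t Λ)
    (h3 : Module.finrank ℝ E = 3) (hLa : IsOpen La) (F : HF Om La f fi)
    (happ : ∀ η > 0, ∃ h hi, HP Om La h hi ∧ ∀ x ∈ Om, ‖h x - f x‖ ≤ η) {e : ℝ} (he : 0 < e) :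
    ∃ Ψ : E ≃ₜ E, Mv T Ψ ∧
      (∀ k i, P (T.H i) ⊆ U k → ∀ x ∈ P (T.H i),
        ‖f (Ψ x) - A k x‖ ≤ 3 * (nc * (nc * nc) + 2) * (Λ * t) + e) ∧
      (∀ i, ∀ x ∈ P (T.H i), ∀ r, (∀ x' ∈ P (T.H i), ‖f x' - f x‖ ≤ r) →
        ‖f (Ψ x) - f x‖ ≤ r + 3 * (nc * (nc * nc) + 1) * (Λ * t) + e) := by
  have hfin := R.finite_J
  obtain ⟨col, hcol⟩ := exists_col (J := J T U)
    (fun j j' => (Y u b j ∩ Y u b j').Nonempty)
    (fun j j' h => by rwa [inter_comm]) (n := nc * (nc * nc) + 1)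
    (fun j => Nat.lt_succ_of_le (R.meet_card j))
  obtain ⟨Ψ, hΨ, g1, g2⟩ := two_sk_near h3 hLa (usurgZ (La := La) h3 T) (J := J T U)
    (fun j => j.1.2) (Y := fun j => Y u b j)
    (fun j => (R.good j.1.1 j.1.2 j.2).one h3 F) col
    (fun j j' hne hc => by
      rw [Set.disjoint_iff_inter_eq_empty]
      by_contra hn
      exact hcol j j' hne hc (nonempty_iff_ne_empty.2 hn)) happ he
  have hΛt : 0 ≤ Λ * t := mul_nonneg R.Λ0 R.t0
  have hD : 0 ≤ Λ * (3 * t) := mul_nonneg R.Λ0 (by linarith [R.t0])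
  refine ⟨Ψ, hΨ, fun k i hi x hx => ?_, fun i x hx r hr => ?_⟩
  · have h1 := g1 ⟨(k, i), hi⟩ (A k x) (Λ * (2 * t)) (Λ * (3 * t)) hD
      (by
        intro y hy
        rw [mem_closedBall, dist_eq_norm]
        have h2 : u k i (A k ((A k).symm y)) ≤ b := by
          rw [AffineEquiv.apply_symm_apply]; exact hy
        have h4 := aff_sub (A k) ((A k).symm y) x
        rw [AffineEquiv.apply_symm_apply] at h4
        rw [h4]
        exact (R.lin _ _).trans (mul_le_mul_of_nonneg_left (R.dist_star hi h2 hx) R.Λ0))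
      (fun j' _ y hy y' hy' => R.diam_Y j' hy hy') x hx
    refine h1.trans ?_
    push_cast
    nlinarith
  · have h1 := g2 i (f x) r (Λ * (3 * t)) hD
      (fun x' hx' _ => by rw [mem_closedBall, dist_eq_norm]; exact hr x' hx')
      (fun j' _ y hy y' hy' => R.diam_Y j' hy hy') x hx
    refine h1.trans ?_
    push_cast
    nlinarith

end Regs

end Crest.Agent.R096.Ca_855
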