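import Crest.Agent.R096.She2_227
import Crest.Agent.R096.Hb3_82
import Crest.Agent.R096.Gsc3_476
import Crest.Agent.R096.Rmt4_816

/-!
Row 96 (S0127), helper227, COMPOSITE B, (C) of 961: **the SHORT edges of a block of 855's mesh `h.T a`**:
the geometric inputs and the energies in the form of 82's `h2b_T`, from the outputs (cells), (E2) of 622's
`cob_T`.
-/

set_option autoImplicit false
set_option linter.style.longLine false
set_option linter.unusedSectionVars false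

open MeasureTheory Set Filter Topology Metric
open scoped ENNReal NNReal

namespace Crest.Agent.R096.She_227

open Crest.AnalysisR.VecCalc3
open Crest.Agent.R096.Msh_715 (P I Tiling)
open Crest.Agent.R096.Mal_874 (CB)
open Crest.Agent.R096.Sq_55 (E3 Sys Face Cell FaceOf w2 IsDp GG lint_w2)
open Crest.Agent.R096.Sqt_143 (sg)
open Crest.Agent.R096.Cob_622
open Crest.Agent.R096.Efi_296
open Crest.Agent.R096.Cbs_296
open Crest.Agent.R096.Br_695 (En)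
open Crest.Agent.R096.Pin_753 (Ed)
open Crest.Agent.R096.Sht_726 (NW geo_short K_ge_near)
open Crest.Agent.R096.Ca_855
open Crest.Agent.R096.Ca_855.MIn (BQ)
open Crest.Agent.R096.Gsc_476
open Crest.Agent.R96.En10_199 (P3)

noncomputable section

/-- the zone of radius `r` at the wall of the block `Q` (unit `1 / 2 ^ k0`, frame of the block) -/
def Zw (Q : CB R3 3) (k0 : ℕ) (r : ℝ) (S : Set R3) : Prop :=
  ∃ y ∈ S, ∃ z ∈ frontier Q.N, ‖Q.ψ y - Q.ψ z‖ ≤ r / 2 ^ k0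

theorem exists_wall (Q : CB R3 3) (x : R3) :
    ∃ z ∈ frontier Q.N, infDist (Q.ψ x) Q.W = ‖Q.ψ x - Q.ψ z‖ := by
  have hWc : IsCompact Q.W := by
    have h2 : IsCompact (frontier Q.N) :=
      Q.isCompact_N.of_isClosed_subset isClosed_frontier Q.frontier_sub
    have h3 : Q.W = Q.ψ '' frontier Q.N := by
      rw [Q.frontier_N, image_preimage_eq _ Q.ψ.surjective]
    rw [h3]
    exact h2.image Q.ψ.continuous
  obtain ⟨w, hw, e⟩ := hWc.exists_infDist_eq_dist Q.W_ne (Q.ψ x)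
  refine ⟨Q.ψ.symm w, ?_, ?_⟩
  · rw [Q.frontier_N, mem_preimage, ContinuousLinearEquiv.apply_symm_apply]
    exact hw
  · rw [ContinuousLinearEquiv.apply_symm_apply, e, dist_eq_norm]

theorem infDist_le_wall (Q : CB R3 3) (x : R3) {z : R3} (hz : z ∈ frontier Q.N) :
    infDist (Q.ψ x) Q.W ≤ ‖Q.ψ x - Q.ψ z‖ := by
  rw [← dist_eq_norm]
  refine infDist_le_dist_of_mem ?_
  rw [Q.frontier_N] at hz
  exact hz

theorem Zw_iff {Q : CB R3 3} {k0 : ℕ} {r : ℝ} {S : Set R3} :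
    Zw Q k0 r S ↔ ∃ y ∈ S, infDist (Q.ψ y) Q.W ≤ r / 2 ^ k0 := by
  constructor
  · rintro ⟨y, hy, z, hz, h⟩
    exact ⟨y, hy, (infDist_le_wall Q y hz).trans h⟩
  · rintro ⟨y, hy, h⟩
    obtain ⟨z, hz, e⟩ := exists_wall Q y
    exact ⟨y, hy, z, hz, e ▸ h⟩

/-- the points of the tube of an edge are near every point of the edge -/
theorem tube_near {e : R3 × R3} {u : ℝ} (hu : 0 ≤ u) {y z : R3} (hy : y ∈ segment ℝ e.1 e.2)
    (hz : z ∈ w2 '' cthickening u (sE e)) : ‖z - y‖ ≤ 2 * u + ‖e.2 - e.1‖ := by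
  obtain ⟨y', hy', h1⟩ := Hb_82.exists_near_seg hu hz
  have h2 : ‖y' - y‖ ≤ ‖e.2 - e.1‖ := by
    rw [segment_eq_image'] at hy hy'
    obtain ⟨t, ht, rfl⟩ := hy
    obtain ⟨t', ht', rfl⟩ := hy'
    simp only
    rw [add_sub_add_left_eq_sub, ← sub_smul, norm_smul]
    have h3 : ‖t' - t‖ ≤ 1 := by
      rw [Real.norm_eq_abs, abs_le]
      constructor <;> linarith [ht.1, ht.2, ht'.1, ht'.2]
    exact mul_le_of_le_one_left (norm_nonneg _) h3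
  have e1 : z - y = (y' - y) - (y' - z) := by abel
  rw [e1]
  refine (norm_sub_le _ _).trans ?_
  linarith

/-- the tube of an edge which has a point `y` -/
theorem tube_zone {Q : CB R3 3} {κ : ℝ} (hκ : 0 < κ)
    (cnd : ∀ v, κ / 4 * ‖v‖ ≤ ‖Q.ψ v‖ ∧ ‖Q.ψ v‖ ≤ 4 * κ⁻¹ * ‖v‖) {e : R3 × R3} {u : ℝ} (hu : 0 ≤ u)
    {y z : R3} (hy : y ∈ segment ℝ e.1 e.2) (hz : z ∈ w2 '' cthickening u (sE e)) :
    infDist (Q.ψ z) Q.W ≤ infDist (Q.ψ y) Q.W + 4 * κ⁻¹ * (2 * u + ‖e.2 - e.1‖) := by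
  have h1 : infDist (Q.ψ z) Q.W ≤ infDist (Q.ψ y) Q.W + dist (Q.ψ z) (Q.ψ y) :=
    infDist_le_infDist_add_dist
  have h2 : dist (Q.ψ z) (Q.ψ y) ≤ 4 * κ⁻¹ * (2 * u + ‖e.2 - e.1‖) := by
    rw [dist_eq_norm, ← map_sub]
    refine (cnd _).2.trans (mul_le_mul_of_nonneg_left (tube_near hu hy hz) ?_)
    have := inv_pos.2 hκ
    positivity
  linarith

/-- **SHORT energies, general form**: for every tile at the tube either (cells) can be used, or (E2) and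
`N` closed 1-cells which cover `S` -/
theorem short_T' {Om : Set R3} {ι : Type*} {T : Tiling Om ι}
    {s : Finset ι} {pr : (Te T).Cell → Prop} {R : ι → ℝ≥0} {m : ι → ℝ≥0}
    {J : s → ℝ≥0∞} {u p : ℝ} {K : ℝ≥0} {ε : ℝ≥0∞} {g : R3 → ℝ≥0∞}
    (hcell : ∀ k : s, (p < 2 ∨ ∀ y ∈ reps (Te T) s pr, (k : ι) ∉ (Te T).at_ y) →
        ∫⁻ x in P (T.H k), g x ≤ ENNReal.ofReal (CB p K (m k)) * J k + ε)
    (hE : ∀ (c : EgS (Te T) s) (k : s), SmallR R m u k →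
        ∫⁻ x in P ((Te T).H k) ∩ cthickening u c.1.set, g (w2 x) ≤
        ENNReal.ofReal (CE p K (m k)) * J k + ε)
    {S : Set E3} (hO : w2 '' cthickening u S ⊆ Om)
    (hs : ∀ t, (P (T.H t) ∩ w2 '' cthickening u S).Nonempty → t ∈ s)
    {N : ℕ} (hN : ∀ k : s, (P (T.H k) ∩ w2 '' cthickening u S).Nonempty →
      (p < 2 ∨ ∀ y ∈ reps (Te T) s pr, (k : ι) ∉ (Te T).at_ y) ∨
        (SmallR R m u k ∧ ∃ c : Fin N → EgS (Te T) s, S ⊆ ⋃ i, (c i).1.set))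
    {C : ℝ≥0∞} (hC : ∀ k : s, (P (T.H k) ∩ w2 '' cthickening u S).Nonempty →
      ENNReal.ofReal (CB p K (m k)) + N * ENNReal.ofReal (CE p K (m k)) ≤ C) :
    ∫⁻ y in w2 '' cthickening u S, g y ≤
      ∑ k ∈ Zc T s (w2 '' cthickening u S), (C * J k + (N + 1) * ε) := by
  refine int_Zc hO hs g _ fun k hk => ?_
  have hk' := mem_Zc.1 hk
  rcases hN k hk' with hA | ⟨hR, c, hc⟩
  · refine (lintegral_mono_set inter_subset_left).trans ((hcell k hA).trans ?_)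
    refine add_le_add (mul_le_mul' (le_self_add.trans (hC k hk')) le_rfl) ?_
    calc ε = 1 * ε := (one_mul _).symm
      _ ≤ (N + 1) * ε := mul_le_mul' le_add_self le_rfl
  · have h1 : P (T.H k) ∩ w2 '' cthickening u S ⊆
        ⋃ i, w2 '' (P ((Te T).H k) ∩ cthickening u (c i).1.set) := by
      rintro _ ⟨hy, x, hx, rfl⟩
      have h2 : x ∈ ⋃ i, cthickening u (c i).1.set := by
        rw [← cthickening_iUnion_fin]
        exact cthickening_subset_of_subset u hc hx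
      obtain ⟨i, hi⟩ := mem_iUnion.1 h2
      refine mem_iUnion.2 ⟨i, mem_image_of_mem _ ⟨?_, hi⟩⟩
      rw [Te_P]
      exact hy
    calc ∫⁻ y in P (T.H k) ∩ w2 '' cthickening u S, g y
        ≤ ∫⁻ y in ⋃ i, w2 '' (P ((Te T).H k) ∩ cthickening u (c i).1.set), g y :=
          lintegral_mono_set h1
      _ ≤ ∑' i, ∫⁻ y in w2 '' (P ((Te T).H k) ∩ cthickening u (c i).1.set), g y :=
          lintegral_iUnion_le _ _
      _ = ∑ i, ∫⁻ y in w2 '' (P ((Te T).H k) ∩ cthickening u (c i).1.set), g y := tsum_fintype _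
      _ ≤ ∑ _i : Fin N, (ENNReal.ofReal (CE p K (m k)) * J k + ε) := by
          refine Finset.sum_le_sum fun i _ => ?_
          rw [← int_w2]
          exact hE (c i) k hR
      _ = N * ENNReal.ofReal (CE p K (m k)) * J k + N * ε := by
          rw [Finset.sum_const, Finset.card_univ, Fintype.card_fin, nsmul_eq_mul, mul_add,
            mul_assoc]
      _ ≤ C * J k + (N + 1) * ε := by
          refine add_le_add (mul_le_mul' (le_add_self.trans (hC k hk')) le_rfl) ?_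
          exact mul_le_mul' le_self_add le_rfl

/-! ### the blocks of 855's mesh -/

/-- the SHORT edges: the edges with a point in the zone of width `N` -/
def ShE (Q : CB R3 3) (k0 N : ℕ) : Set (R3 × R3) :=
  {e | ∃ y ∈ segment ℝ e.1 e.2, NW Q k0 N y}

variable {Om W : Set R3} {ρ₀ : R3 → ℝ} {J : Type} [Finite J] {Qb : J → CB R3 3} {k0 : ℕ} {σ : ℝ}

open Classical in
/-- the tiles of `s` in the zone of radius `r` at the wall of the block number `j` -/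
def Kz (h : MIn Om W ρ₀ Qb k0 σ) (a : R3) (j : J) (r : ℝ) (s : Finset (h.ιT a)) : Finset s :=
  Finset.univ.filter fun k => Zw ((Qb j).tr a) k0 r (P ((h.T a).H k))

theorem mem_Kz {h : MIn Om W ρ₀ Qb k0 σ} {a : R3} {j : J} {r : ℝ} {s : Finset (h.ιT a)} {k : s} :
    k ∈ Kz h a j r s ↔ Zw ((Qb j).tr a) k0 r (P ((h.T a).H k)) := by
  classical
  unfold Kz
  rw [Finset.mem_filter]
  exact ⟨fun h => h.2, fun h => ⟨Finset.mem_univ _, h⟩⟩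

/-- size of the tiles in the zone (816's `diam2`) -/
theorem diam_zone (h : MIn Om W ρ₀ Qb k0 σ) {κ : ℝ} (hκ : 0 < κ) (hκ1 : κ ≤ 1) {Bs Nn : ℕ}
    (hb : ∀ j, BQ κ Bs Nn (Qb j) k0) {r : ℝ} (hr : 7 ≤ r)
    (hsm : 4 * κ⁻¹ * (r / 2 ^ k0) < σ / 8) {a : R3} (ha : ‖a‖ ≤ σ / 8) {j : J} {i : h.ιT a}
    (hi : Zw ((Qb j).tr a) k0 r (P ((h.T a).H i))) :
    ∀ y ∈ P ((h.T a).H i), ∀ y' ∈ P ((h.T a).H i),
      ‖y - y'‖ ≤ 4 * κ⁻¹ * max 1 (Bs:ℝ) * r / 2 ^ k0 := by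
  obtain ⟨y, hy, hy'⟩ := Zw_iff.1 hi
  have h1 : Rmt_816.Cl2 h r a i := by
    refine ⟨j, y, hy, ?_⟩
    show infDist ((Qb j).ψ y) (h.M.Bk (fun _ => h.cl a) j).W ≤ r / 2 ^ k0
    rw [Bk_eq h ha j]
    exact hy'
  have h2 := Rmt_816.diam2 h hκ hκ1 hb hr hsm h1
  intro z hz z' hz'
  have h3 := h2 z hz z' hz'
  rwa [← mul_div_assoc] at h3

/-- a tile of the block with a point in the zone of width `N` has scale at least `k0 - N - 1` -/
theorem scl_zone (h : MIn Om W ρ₀ Qb k0 σ) {a : R3} (ha : ‖a‖ ≤ σ / 8) {j : J} {t : h.ιT a}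
    (hN : P ((h.T a).H t) ⊆ ((Qb j).tr a).N) {N : ℕ} {z : R3} (hz : z ∈ P ((h.T a).H t))
    (hw : NW ((Qb j).tr a) k0 N z) : k0 ≤ sclT h a t + 1 + N := by
  have h1 := K_ge_near ((Qb j).tr a) (h.hk j) hw
  have h2 := (scl_K h.M h.sc (0 + h.M.φ (h.cl a)) (h.adm a) (j := j) (t := t)
    (by rw [Bk_eq h ha j]; exact hN) hz).2
  have h3 : ∀ (Q' : CB R3 3) (hk' : Q'.kc ≤ k0), h.M.Bk (fun _ => h.cl a) j = Q' →
      Msh_810.K ((h.M.Bk (fun _ => h.cl a) j).D k0 (h.sc.kc j)) ((Qb j).ψ z) =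
        Msh_810.K (Q'.D k0 hk') ((Qb j).ψ z) := by
    rintro _ _ rfl
    rfl
  have h4 := h3 ((Qb j).tr a) (h.hk j) (Bk_eq h ha j)
  have h5 : Msh_810.K ((h.M.Bk (fun _ => h.cl a) j).D k0 (h.sc.kc j)) ((Qb j).ψ z) ≤
      sclT h a t + 1 := h2
  have h6 : k0 ≤ Msh_810.K (((Qb j).tr a).D k0 (h.hk j)) ((Qb j).ψ z) + N := h1
  omega

/-- the segment of an element of `Ed` lies in the block -/
theorem seg_sub_N {Q : CB R3 3} {k : ℕ} {hk : Q.kc ≤ k} {e : R3 × R3} (he : e ∈ Ed Q k hk) :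
    segment ℝ e.1 e.2 ⊆ Q.N := by
  obtain ⟨x, h1, h2, h3⟩ := he
  exact h3

/-- **the SHORT edges of a block of `h.T a`**: `N' = N'(Bs)` pieces, `K₁ = K₁(κ, Bs)` (depth), `r = r(κ, Bs, N)`
(zone).  (1) the tubes lie in `Om`; (2) the tiles at the tube of a SHORT edge lie in the zone; (3) size of the
tiles in the zone; (4) **energies**, from (cells) and (E2) of `cob_T`. -/
theorem exists_short (Bs : ℕ) : ∃ N' : ℕ, ∀ {κ : ℝ}, 0 < κ → κ ≤ 1 → ∃ K₁ : ℕ, ∀ N : ℕ,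
    ∃ r : ℝ, 7 ≤ r ∧ ∀ {Om W : Set R3} {ρ₀ : R3 → ℝ} {J : Type} [Finite J] {Qb : J → CB R3 3}
      {k0 Nn : ℕ} {σ : ℝ} (h : MIn Om W ρ₀ Qb k0 σ), (∀ j, BQ κ Bs Nn (Qb j) k0) →
      4 * κ⁻¹ * (r / 2 ^ k0) < σ / 8 → ∀ {a : R3}, ‖a‖ ≤ σ / 8 → ∀ (j : J) {u : ℝ},
      u = 4 * κ⁻¹ / (5 * 2 ^ k0) →
      (∀ e ∈ Ed ((Qb j).tr a) k0 (h.hk j), w2 '' cthickening u (sE e) ⊆ Om) ∧
      (∀ e ∈ Ed ((Qb j).tr a) k0 (h.hk j), e ∈ ShE ((Qb j).tr a) k0 N →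
        ∀ t, (P ((h.T a).H t) ∩ w2 '' cthickening u (sE e)).Nonempty →
          Zw ((Qb j).tr a) k0 r (P ((h.T a).H t))) ∧
      (∀ t, Zw ((Qb j).tr a) k0 r (P ((h.T a).H t)) →
        ∀ y ∈ P ((h.T a).H t), ∀ y' ∈ P ((h.T a).H t),
          ‖y - y'‖ ≤ 4 * κ⁻¹ * max 1 (Bs:ℝ) * r / 2 ^ k0) ∧
      ∀ {s : Finset (h.ιT a)} {pr : (Te (h.T a)).Cell → Prop} {R m : h.ιT a → ℝ≥0}
        {D : s → ℝ≥0∞} {p : ℝ} {K : ℝ≥0} {ε : ℝ≥0∞} {g : R3 → ℝ≥0∞},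
        (∀ k : s, (p < 2 ∨ ∀ y ∈ reps (Te (h.T a)) s pr, (k : h.ιT a) ∉ (Te (h.T a)).at_ y) →
          ∫⁻ x in P ((h.T a).H k), g x ≤ ENNReal.ofReal (CB p K (m k)) * D k + ε) →
        (∀ (c : EgS (Te (h.T a)) s) (k : s), SmallR R m u k →
          ∫⁻ x in P ((Te (h.T a)).H k) ∩ cthickening u c.1.set, g (w2 x) ≤
          ENNReal.ofReal (CE p K (m k)) * D k + ε) →
        (∀ t, (∃ y ∈ P ((h.T a).H t), ∃ z ∈ ((Qb j).tr a).N, ‖y - z‖ ≤ 2 * u) → t ∈ s) →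
        (∀ k : s, (∃ y ∈ reps (Te (h.T a)) s pr, (k : h.ιT a) ∈ (Te (h.T a)).at_ y) → p < 2 ∨
          (SmallR R m u k ∧ (∃ l, P ((h.T a).H k) ⊆ ((Qb l).tr a).N) ∧
            sclT h a k + K₁ ≤ k0)) →
        ∀ {C : ℝ≥0∞}, (∀ k ∈ Kz h a j r s,
          ENNReal.ofReal (CB p K (m k)) + N' * ENNReal.ofReal (CE p K (m k)) ≤ C) →
        ∀ e ∈ Ed ((Qb j).tr a) k0 (h.hk j), e ∈ ShE ((Qb j).tr a) k0 N →
          ∫⁻ x in cthickening u (sE e), g (w2 x) ≤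
            ∑ k ∈ Zc (h.T a) s (w2 '' cthickening u (sE e)), (C * D k + (N' + 1) * ε) := by
  obtain ⟨lam, hlam, hlam1, Hc⟩ := Shp_432.exists_chain_T Bs
  refine ⟨⌊1 / lam⌋₊, ?_⟩
  intro κ hκ hκ1
  have hki : 0 < κ⁻¹ := inv_pos.2 hκ
  have hki1 : 1 ≤ κ⁻¹ := (one_le_inv₀ hκ).2 hκ1
  obtain ⟨Λ0, m0, hΛ0, g0⟩ := geo_short Bs hκ 0 (ρ := 0) le_rfl
  set r0 : ℝ := 4 * κ⁻¹ * (2 * (4 * κ⁻¹ / 5) + Λ0) with hr0
  obtain ⟨N1, hN1⟩ := pow_unbounded_of_one_lt r0 (by norm_num : (1:ℝ) < 2)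
  refine ⟨N1 + 2, ?_⟩
  intro N
  obtain ⟨Λ, m1, hΛ, g1⟩ := geo_short Bs hκ N (ρ := 0) le_rfl
  set r : ℝ := max 7 (6 * 2 ^ N + 4 * κ⁻¹ * (2 * (4 * κ⁻¹ / 5) + Λ)) with hr
  have hr7 : 7 ≤ r := le_max_left _ _
  refine ⟨r, hr7, ?_⟩
  intro Om W ρ₀ J _ Qb k0 Nn σ h hb hsm a ha j u hu
  have hp : (0:ℝ) < 2 ^ k0 := by positivity
  have hu0 : 0 ≤ u := by rw [hu]; positivity
  have hu2 : 2 * u = 2 * (4 * κ⁻¹ / 5) / 2 ^ k0 := by rw [hu]; field_simp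
  have hσ := h.σ0
  have hu8 : 2 * u < σ / 8 := by
    refine lt_of_le_of_lt ?_ hsm
    have e1 : 4 * κ⁻¹ * (r / 2 ^ k0) = (4 * κ⁻¹ * r) / 2 ^ k0 := by ring
    rw [hu2, e1]
    refine div_le_div_of_nonneg_right ?_ hp.le
    nlinarith
  have cnd : ∀ v, κ / 4 * ‖v‖ ≤ ‖((Qb j).tr a).ψ v‖ ∧ ‖((Qb j).tr a).ψ v‖ ≤ 4 * κ⁻¹ * ‖v‖ :=
    (hb j).cnd
  have hNW : ∀ y ∈ ((Qb j).tr a).N, y - a ∈ W := fun y hy =>
    h.hN j ((CB.mem_N_tr (Qb j) a y).1 hy)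
  -- length
  have hlen : ∀ {Λ' : ℝ} {N₀ : ℕ}, (∀ e ∈ Ed ((Qb j).tr a) k0 (h.hk j), ∀ y ∈ segment ℝ e.1 e.2,
      NW ((Qb j).tr a) k0 N₀ y → 2 ^ k0 * ‖e.2 - e.1‖ ≤ Λ') → ∀ e ∈ Ed ((Qb j).tr a) k0 (h.hk j),
      ∀ y ∈ segment ℝ e.1 e.2, NW ((Qb j).tr a) k0 N₀ y → ∀ z ∈ w2 '' cthickening u (sE e),
      infDist (((Qb j).tr a).ψ z) ((Qb j).tr a).W ≤ infDist (((Qb j).tr a).ψ y) ((Qb j).tr a).W +
        4 * κ⁻¹ * (2 * (4 * κ⁻¹ / 5) + Λ') / 2 ^ k0 := by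
    intro Λ' N₀ hg e he y hy hw z hz
    have h1 := tube_zone hκ cnd hu0 hy hz
    have h2 := hg e he y hy hw
    have h3 : ‖e.2 - e.1‖ ≤ Λ' / 2 ^ k0 := by
      rw [le_div_iff₀ hp]; linarith
    have h4 : 4 * κ⁻¹ * (2 * u + ‖e.2 - e.1‖) ≤ 4 * κ⁻¹ * (2 * (4 * κ⁻¹ / 5) + Λ') / 2 ^ k0 := by
      rw [mul_div_assoc, add_div, ← hu2]
      exact mul_le_mul_of_nonneg_left (by linarith) (by positivity)
    linarith
  have G1 := (g1 ((Qb j).tr a) k0 (h.hk j) cnd (hb j).hB (hb j).hR).1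
  have G0 := (g0 ((Qb j).tr a) k0 (h.hk j) cnd (hb j).hB (hb j).hR).1
  -- (2)
  have hzone : ∀ e ∈ Ed ((Qb j).tr a) k0 (h.hk j), e ∈ ShE ((Qb j).tr a) k0 N →
      ∀ t, (P ((h.T a).H t) ∩ w2 '' cthickening u (sE e)).Nonempty →
        Zw ((Qb j).tr a) k0 r (P ((h.T a).H t)) := by
    rintro e he ⟨y, hy, hw⟩ t ⟨z, hz, hz'⟩
    refine Zw_iff.2 ⟨z, hz, ?_⟩
    have h1 := hlen G1 e he y hy hw z hz'
    have h2 : infDist (((Qb j).tr a).ψ y) ((Qb j).tr a).W ≤ 6 * 2 ^ N / 2 ^ k0 := hw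
    have h3 : 6 * 2 ^ N / 2 ^ k0 + 4 * κ⁻¹ * (2 * (4 * κ⁻¹ / 5) + Λ) / 2 ^ k0 ≤ r / 2 ^ k0 := by
      rw [← add_div]
      exact div_le_div_of_nonneg_right (le_max_right _ _) hp.le
    linarith
  refine ⟨?_, hzone, fun t ht => diam_zone h hκ hκ1 hb hr7 hsm ha ht, ?_⟩
  · -- (1)
    intro e he z hz
    obtain ⟨y, hy, hyz⟩ := Hb_82.exists_near_seg hu0 hz
    refine h.mem_Om_of (hNW y (seg_sub_N he hy)) ?_
    have h1 : dist (y - a) z ≤ dist (y - a) y + dist y z := dist_triangle _ _ _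
    have h2 : dist (y - a) y = ‖a‖ := by rw [dist_comm, dist_eq_norm, sub_sub_cancel]
    have h3 : dist y z = ‖y - z‖ := dist_eq_norm _ _
    linarith
  -- (4)
  intro s pr R m D p K ε g hcell hE hs hd C hC e he heS
  have hO : w2 '' cthickening u (sE e) ⊆ Om := by
    intro z hz
    obtain ⟨y, hy, hyz⟩ := Hb_82.exists_near_seg hu0 hz
    refine h.mem_Om_of (hNW y (seg_sub_N he hy)) ?_
    have h1 : dist (y - a) z ≤ dist (y - a) y + dist y z := dist_triangle _ _ _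
    have h2 : dist (y - a) y = ‖a‖ := by rw [dist_comm, dist_eq_norm, sub_sub_cancel]
    have h3 : dist y z = ‖y - z‖ := dist_eq_norm _ _
    linarith
  rw [int_w2]
  refine short_T' (T := h.T a) hcell hE hO ?_ ?_ ?_
  · rintro t ⟨z, hz, hz'⟩
    obtain ⟨y, hy, hyz⟩ := Hb_82.exists_near_seg hu0 hz'
    exact hs t ⟨z, hz, y, seg_sub_N he hy, by rwa [norm_sub_rev]⟩
  · intro k hk
    by_cases hA : p < 2 ∨ ∀ y ∈ reps (Te (h.T a)) s pr, (k : h.ιT a) ∉ (Te (h.T a)).at_ y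
    · exact Or.inl hA
    right
    push Not at hA
    obtain ⟨hp2, y1, hy1, hky1⟩ := hA
    rcases hd k ⟨y1, hy1, hky1⟩ with hbad | ⟨hR, ⟨l, hl⟩, hdeep⟩
    · exact absurd hbad (not_lt.2 hp2)
    refine ⟨hR, ?_⟩
    obtain ⟨z, hz, hz'⟩ := hk
    obtain ⟨y, hy, hyz⟩ := Hb_82.exists_near_seg hu0 hz'
    obtain rfl : l = j := by
      by_contra hne
      have h1 := h.sep l j hne (z - a) ((CB.mem_N_tr (Qb l) a z).1 (hl hz)) (y - a)
        ((CB.mem_N_tr (Qb j) a y).1 (seg_sub_N he hy))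
      rw [dist_sub_right, dist_comm, dist_eq_norm] at h1
      linarith
    have hdis : Disjoint (segment ℝ e.1 e.2) (frontier ((Qb l).tr a).N) := by
      rw [Set.disjoint_left]
      intro y0 hy0 hf
      have h0 : infDist (((Qb l).tr a).ψ y0) ((Qb l).tr a).W = 0 := by
        refine le_antisymm ?_ infDist_nonneg
        refine (infDist_le_wall ((Qb l).tr a) y0 hf).trans (le_of_eq ?_)
        rw [sub_self, norm_zero]
      have hw0 : NW ((Qb l).tr a) k0 0 y0 := by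
        show infDist (((Qb l).tr a).ψ y0) ((Qb l).tr a).W ≤ 6 * 2 ^ 0 / 2 ^ k0
        rw [h0]; positivity
      have h1 := hlen G0 e he y0 hy0 hw0 z hz'
      have hw1 : NW ((Qb l).tr a) k0 N1 z := by
        show infDist (((Qb l).tr a).ψ z) ((Qb l).tr a).W ≤ 6 * 2 ^ N1 / 2 ^ k0
        rw [h0, zero_add] at h1
        refine h1.trans (div_le_div_of_nonneg_right ?_ hp.le)
        have : (0:ℝ) < 2 ^ N1 := by positivity
        linarith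
      have h2 := scl_zone h ha hl hz hw1
      omega
    obtain ⟨n, t, c1, c2, c3, c4, c5, c6, c7, c8⟩ := Hc hκ hκ1 h hb ha l he hdis
    refine cover_chain c1 c3 c4 c7 ?_ (fun i hi => ⟨(c6 i hi).1, (c6 i hi).2.1⟩) ?_
    · rintro k' ⟨x, hx, hx'⟩
      refine hs k' ⟨x, hx, x, seg_sub_N he hx', ?_⟩
      rw [sub_self, norm_zero]
      positivity
    · refine Nat.le_floor ?_
      rw [le_div_iff₀ hlam]
      exact c2
  · intro k hk
    exact hC k (mem_Kz.2 (hzone e he heS k hk))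

end

end Crest.Agent.R096.She_227
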