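import Crest.Agent.R096.Ca22_855
import Crest.Agent.R096.She3_227
import Crest.Agent.R096.Cob11_622

/-!
# Row 96 (S0127), helper855: for `one_fix` of 622: the last three clauses of `OutB` (errors `er`, layers,
outside) from `SetD`, `AdE`, `Els` and the outputs of `cob_O1`.
-/

set_option autoImplicit false
set_option linter.unusedSectionVars false
set_option linter.style.longLine false

open Set Metric Topology Filter MeasureTheory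
open scoped ENNReal NNReal

namespace Crest.Agent.R096.Ca_855

open Crest.AnalysisR.VecCalc3
open Crest.Agent.R096.Msh_715 (Tiling P I I_sub_P)
open Crest.Agent.R096.Mal_874 (CB)
open Crest.Agent.R096.Br_695 (En)
open Crest.Agent.R096.Sq_55 (E3 Sys Face FaceOf w2 GG Shp Shp2)
open Crest.Agent.R096.Cob_622 (EF)
open Crest.Agent.R096.Efi_296 (Te reps mem_reps EgS FcS GoodA)
open Crest.Agent.R096.Cbs_296 (SysOf efS ρS mS)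
open Crest.Agent.R96.En10_199 (P3)
open Crest.Agent.R96.Coarse_538 (seg vt Cb)
open Crest.Agent.R96.Intr_538 (cel)
open Crest.Agent.R096.Fce_793 (pt cc)
open Crest.Agent.R96.Eld_538 (Cl1 AdE Els)
open Crest.Agent.R096.Pas_753 (AllC)
open Crest.Agent.R096.Pin_753 (Ly BlkP)
open Crest.Agent.R096.Onp_622 (SetD)
open Crest.Agent.R096.Ou_372 (Cout)
open Crest.Agent.R096.She_227 (Zw Kz mem_Kz)

noncomputable section

variable {Om W : Set R3} {ρ₀ : R3 → ℝ} {J : Type} [Finite J] {Qb : J → CB R3 3} {k0 : ℕ} {σ : ℝ}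

section out

variable {p : ℝ} {h : MIn Om W ρ₀ Qb k0 σ} {a : R3} {kk : J → Fin 3 → ℤ}
    {Q : Finset (Fin 3 → ℤ)} {K1 K3 : ℕ} {vU vI vN : ℝ≥0} {f : R3 → R3} {Φ : R3 ≃ₜ R3}
    {U K₀ : Set R3} {s : Finset (h.ιT a)} {pr : (Te (h.T a)).Cell → Prop} {c : h.ιT a → E3}
    {κt : h.ιT a → ℕ} {R u : h.ιT a → ℝ≥0} {X : Sys s (reps (Te (h.T a)) s pr)}
    {G G₂ : Fin 3 → R3 → R3}
    {D : EF X Om (En p G) (EgS (Te (h.T a)) s) (FcS (Te (h.T a)) s pr)}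
    {mU mN Cu K : ℝ≥0} {Rl e₀ : ℝ} {ε : ℝ≥0∞}

/-- **the last clause of `OutB`** -/
theorem ou_set (H : SetD p h a kk Q K1 K3 vU vI vN f Φ U K₀ s pr c κt R u X)
    (hA : AdE p h G mU mN a s pr c R (ρS (Te (h.T a)) R) (mS (Te (h.T a)) s pr u) X D)
    (hE : Els p Om W ρ₀ J Qb k0 σ h G {j | kk j ∈ Q} mU Cu mN Rl e₀ a) (hK : K ≤ 2)
    (hOm : MeasurableSet Om)
    (out : ∀ S : Set R3, MeasurableSet S → S ⊆ Om → (∀ x ∈ S, x ∉ w2 '' (⋃ k, (X.C k).P)) →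
      ∫⁻ x in S, En p G₂ x ≤
        ENNReal.ofReal ((6:ℝ)^p * (3 * (9 * K)^p)) * (∫⁻ x in S, En p G x) + ε)
    (cells : ∀ k, (p < 2 ∨ ∀ j, ¬ ((X.F j).V ∩ (X.C k).P).Nonempty) →
      ∫⁻ x in (X.C k).P, En p G₂ (w2 x) ≤ ENNReal.ofReal (Cob_622.CB p K (X.m k)) * D.J k + ε)
    {e : ℝ} (he : 0 ≤ e) (he₀ : e₀ ≤ e / 2)
    (hε : ((s.card : ℝ≥0∞) + 1) * ε ≤ ENNReal.ofReal (e / 2)) :
    (∫⁻ x in Om \ ⋃ j ∈ {j | kk j ∈ Q}, ((Qb j).tr a).N, (1 + En p G₂ x)) ≤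
      (Cout p K Cu : ℝ≥0∞) * (∫⁻ x in Om \ ⋃ j ∈ {j | kk j ∈ Q}, ((Qb j).tr a).Kc, (1 + En p G x)) +
        ENNReal.ofReal e := by
  refine Ou_372.ou_clause H.sys D hOm out cells (s1T h a kk Q s) (hs1T h)
    (hsq1T h H.sys H.pr_d) he ?_ hε
  refine ((hE s pr c R _ _ X D hA K hK).1 (s1T h a kk Q s)
    (fun k hk j hj hsub => (mem_s1T h).1 hk ⟨j, hj, hsub⟩)).trans ?_
  exact add_le_add le_rfl (ENNReal.ofReal_le_ofReal he₀)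

/-- **the `Ly` clause of `OutB`** -/
theorem ly_set (H : SetD p h a kk Q K1 K3 vU vI vN f Φ U K₀ s pr c κt R u X)
    (hA : AdE p h G mU mN a s pr c R (ρS (Te (h.T a)) R) (mS (Te (h.T a)) s pr u) X D)
    (hE : Els p Om W ρ₀ J Qb k0 σ h G {j | kk j ∈ Q} mU Cu mN Rl e₀ a) (hK : K ≤ 2)
    (hRl : 40 ≤ Rl) (hK1 : 4 ≤ K1) (haσ : ‖a‖ ≤ σ / 8) (ha : ‖a‖ ≤ 2 / 2 ^ k0)
    (cells : ∀ k, (p < 2 ∨ ∀ j, ¬ ((X.F j).V ∩ (X.C k).P).Nonempty) →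
      ∫⁻ x in (X.C k).P, En p G₂ (w2 x) ≤ ENNReal.ofReal (Cob_622.CB p K (X.m k)) * D.J k + ε)
    {κ s' τ hh c1 c2 θ0 θ1 : ℝ} {Bs Nn : ℕ} {a₀ : R3} {Q₀ : Finset (Fin 3 → ℤ)}
    (hs : 0 < s') (hκ : 0 < κ) (hc1 : 0 < c1) (hc2 : 0 < c2)
    (hB : ∀ j, BlkP κ s' τ hh c1 θ0 θ1 Bs Nn (vt (2 * s') a₀ (kk j)) (Qb j) k0)
    (hkk : ∀ j, kk j ∈ Q₀) (hcel : ∀ k ∈ Q₀, cel Cb (vt (2 * s') a₀ k) s' ⊆ W) (hWO : W ⊆ Om)
    (hWK : W ⊆ K₀)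
    (sep : ∀ i j, i ≠ j → ∀ x ∈ (Qb i).N, ∀ y ∈ (Qb j).N, c2 * s' ≤ dist x y)
    (hτ : 0 < τ) (hτ1 : τ < 1)
    (hθ : 320 * θ0 < κ * c2) (hθ' : 40 * θ0 ≤ c1) (hθτ : 2 * θ0 + 160 * κ⁻¹ * θ0 ≤ τ)
    {e : ℝ} (he : 0 ≤ e) (he₀ : e₀ ≤ e / 3)
    (hε : ((s.card : ℝ≥0∞) + 1) * ε ≤ ENNReal.ofReal (e / 3))
    (hvol : ENNReal.ofReal (7680 * θ0 / c1) * volume Om ≤ ENNReal.ofReal (e / 3)) :
    (∑' j : {j // kk j ∈ Q}, ∫⁻ x in Ly ((Qb j).tr a) k0, (1 + En p G₂ x)) ≤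
      ENNReal.ofReal e := by
  rcases isEmpty_or_nonempty J with hJ | ⟨⟨j0⟩⟩
  · haveI : IsEmpty {j // kk j ∈ Q} := ⟨fun j => hJ.elim j.1⟩
    rw [tsum_empty]
    exact zero_le
  have h2 : 1 / 2 ^ k0 ≤ θ0 * s' := (hB j0).hi
  have hsub : ∀ j, (Qb j).N ⊆ Om := by
    intro j y hy
    have h3 := (hB j).sub hy
    refine hWO (hcel _ (hkk j) ?_)
    rw [Crest.Agent.R96.Coarse_538.mem_cel (mul_pos (by linarith) hs)] at h3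
    rw [Crest.Agent.R96.Coarse_538.mem_cel hs]
    intro i
    refine (h3 i).trans ?_
    nlinarith
  have hLy : ∀ j, Ly ((Qb j).tr a) k0 ⊆ W := by
    intro j
    refine (Ou_372.ly_sub_cel (ra := 2 * θ0) hs hκ hτ1 (fun v => ((hB j).cnd v).1) h2 ?_ hθτ
      (hB j).sub).trans (hcel _ (hkk j))
    calc ‖a‖ ≤ 2 / 2 ^ k0 := ha
      _ = 2 * (1 / 2 ^ k0) := by ring
      _ ≤ 2 * (θ0 * s') := by linarith
      _ = 2 * θ0 * s' := by ring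
  refine Ou_372.ly_clause H.sys D cells hs hκ hc1 hc2 hθ hθ' h2
    (fun j v => ((hB j).cnd v).1) (fun j => (hB j).cellL) sep hsub
    (fun j _ => (hLy j).trans hWO) (s2T h a kk Q s)
    (hs2T h H.mem_s (fun j _ => (hLy j).trans hWK))
    (hsq2T h haσ H.sys hK1 hs hκ hθ h2 (fun j v => ((hB j).cnd v).1) sep H.pr_d) he ?_ hε hvol
  refine ((hE s pr c R _ _ X D hA K hK).2 (s2T h a kk Q s) ?_).trans
    (ENNReal.ofReal_le_ofReal he₀)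
  intro k hk
  obtain ⟨j, hj, x, hx, z, hz, hxz⟩ := (mem_s2T h).1 hk
  refine ⟨j, hj, x, hx, z, hz, hxz.trans ?_⟩
  exact div_le_div_of_nonneg_right hRl (by positivity)

/-! ### the errors `er` -/

/-- the wall zones of different blocks have no common tile -/
theorem kz_disj (haσ : ‖a‖ ≤ σ / 8) {κ : ℝ} {Bs Nn : ℕ} (hκ : 0 < κ) (hκ1 : κ ≤ 1)
    (hb : ∀ j, MIn.BQ κ Bs Nn (Qb j) k0) {r : ℝ} (hr : 7 ≤ r)
    (hsm : 8 * κ⁻¹ * (2 + max 1 (Bs:ℝ)) * (r / 2 ^ k0) < σ / 8) {i j : J} (hij : i ≠ j) :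
    Disjoint (Kz h a i r s) (Kz h a j r s) := by
  rw [Finset.disjoint_left]
  intro k hk1 hk2
  rw [mem_Kz] at hk1 hk2
  have hκ' : 0 < κ⁻¹ := inv_pos.2 hκ
  have hp : (0:ℝ) < 2 ^ k0 := by positivity
  have hr0 : 0 ≤ r / 2 ^ k0 := by positivity
  have hm1 : (1:ℝ) ≤ max 1 (Bs:ℝ) := le_max_left _ _
  have hsm1 : 4 * κ⁻¹ * (r / 2 ^ k0) < σ / 8 := by
    refine lt_of_le_of_lt ?_ hsm
    refine mul_le_mul_of_nonneg_right ?_ hr0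
    nlinarith
  have hσ := h.σ0
  obtain ⟨y1, hy1, z1, hz1, h1⟩ := hk1
  obtain ⟨y2, hy2, z2, hz2, h2⟩ := hk2
  have hd := She_227.diam_zone h hκ hκ1 hb hr hsm1 haσ (j := i) (i := k)
    ⟨y1, hy1, z1, hz1, h1⟩ y1 hy1 y2 hy2
  have n1 : z1 - a ∈ (Qb i).N := ((Qb i).mem_N_tr a z1).1 (((Qb i).tr a).frontier_sub hz1)
  have n2 : z2 - a ∈ (Qb j).N := ((Qb j).mem_N_tr a z2).1 (((Qb j).tr a).frontier_sub hz2)
  have h5 := h.sep i j hij _ n1 _ n2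
  rw [dist_sub_right, dist_eq_norm] at h5
  have g1 := (hb i).ψ2 hκ (y1 - z1)
  have g2 := (hb j).ψ2 hκ (y2 - z2)
  rw [map_sub] at g1 g2
  have h1' : ‖(Qb i).ψ y1 - (Qb i).ψ z1‖ ≤ r / 2 ^ k0 := h1
  have h2' : ‖(Qb j).ψ y2 - (Qb j).ψ z2‖ ≤ r / 2 ^ k0 := h2
  have g1' : ‖y1 - z1‖ ≤ 4 * κ⁻¹ * (r / 2 ^ k0) :=
    g1.trans (mul_le_mul_of_nonneg_left h1' (by positivity))
  have g2' : ‖y2 - z2‖ ≤ 4 * κ⁻¹ * (r / 2 ^ k0) :=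
    g2.trans (mul_le_mul_of_nonneg_left h2' (by positivity))
  have htri : ‖z1 - z2‖ ≤ ‖y1 - z1‖ + ‖y1 - y2‖ + ‖y2 - z2‖ := by
    have e : z1 - z2 = -(y1 - z1) + (y1 - y2) + (y2 - z2) := by abel
    rw [e]
    refine (norm_add_le _ _).trans (add_le_add (norm_add_le _ _) le_rfl) |>.trans ?_
    rw [norm_neg]
  have e1 : 4 * κ⁻¹ * max 1 (Bs:ℝ) * r / 2 ^ k0 = 4 * κ⁻¹ * max 1 (Bs:ℝ) * (r / 2 ^ k0) := by ring
  rw [e1] at hd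
  have e2 : 8 * κ⁻¹ * (2 + max 1 (Bs:ℝ)) * (r / 2 ^ k0) =
      2 * (4 * κ⁻¹ * (r / 2 ^ k0) + 4 * κ⁻¹ * max 1 (Bs:ℝ) * (r / 2 ^ k0) +
        4 * κ⁻¹ * (r / 2 ^ k0)) := by ring
  have h0 : 0 ≤ 4 * κ⁻¹ * (r / 2 ^ k0) + 4 * κ⁻¹ * max 1 (Bs:ℝ) * (r / 2 ^ k0) +
        4 * κ⁻¹ * (r / 2 ^ k0) := by positivity
  rw [e2] at hsm
  linarith

/-- **the sum of the errors `er`**: `er j ≤ Cer * Σ_(k ∈ zone j) (C * D.J k + C' ε)` -/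
theorem er_set (hp : 1 ≤ p) (hp2 : p ≤ 2)
    (H : SetD p h a kk Q K1 K3 vU vI vN f Φ U K₀ s pr c κt R u X)
    (hA : AdE p h G mU mN a s pr c R (ρS (Te (h.T a)) R) (mS (Te (h.T a)) s pr u) X D)
    (hE : Els p Om W ρ₀ J Qb k0 σ h G {j | kk j ∈ Q} mU Cu mN Rl e₀ a) (hK : K ≤ 2) (hK' : 1 ≤ K)
    (haσ : ‖a‖ ≤ σ / 8) {κ : ℝ} {Bs Nn : ℕ} (hκ : 0 < κ) (hκ1 : κ ≤ 1)
    (hb : ∀ j, MIn.BQ κ Bs Nn (Qb j) k0) {r : ℝ} (hr : 7 ≤ r) (hRl : r ≤ Rl)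
    (hsm : 8 * κ⁻¹ * (2 + max 1 (Bs:ℝ)) * (r / 2 ^ k0) < σ / 8)
    {er : J → ℝ≥0∞} {C C' : ℝ≥0∞}
    (her : ∀ j, kk j ∈ Q → er j ≤ ∑ k ∈ Kz h a j r s, (C * D.J k + C' * ε)) :
    (∑' j : {j // kk j ∈ Q}, er j) ≤ C * ENNReal.ofReal e₀ + C' * ((s.card : ℝ≥0∞) * ε) := by
  classical
  have : Fintype J := Fintype.ofFinite J
  have : Fintype {j // kk j ∈ Q} := Fintype.ofFinite _
  rw [tsum_fintype]
  have h1 : ∑ j : {j // kk j ∈ Q}, er j ≤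
      ∑ j : {j // kk j ∈ Q}, ∑ k ∈ Kz h a (j : J) r s, (C * D.J k + C' * ε) :=
    Finset.sum_le_sum fun j _ => her j j.2
  refine h1.trans ?_
  have h2 : ∑ j : {j // kk j ∈ Q}, ∑ k ∈ Kz h a (j : J) r s, (C * D.J k + C' * ε) =
      ∑ k ∈ (Finset.univ : Finset {j // kk j ∈ Q}).biUnion fun j => Kz h a (j : J) r s,
        (C * D.J k + C' * ε) := by
    rw [Finset.sum_biUnion]
    intro i _ j _ hij
    exact kz_disj haσ hκ hκ1 hb hr hsm fun e => hij (Subtype.ext e)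
  rw [h2]
  set S := (Finset.univ : Finset {j // kk j ∈ Q}).biUnion fun j => Kz h a (j : J) r s with hS
  have h3 := (hE s pr c R _ _ X D hA K hK).2 S ?_
  · rw [Finset.sum_add_distrib, ← Finset.mul_sum, Finset.sum_const, nsmul_eq_mul]
    refine add_le_add (mul_le_mul' le_rfl ?_) ?_
    · refine le_trans (Finset.sum_le_sum fun k _ => ?_) h3
      have hm : 1 ≤ X.m k := by
        rw [H.sys.em]
        exact Cbs_296.one_le_mS _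
      have h4 := Cob_622.one_le_CB hp (by linarith : p < 3) hK' hm
      calc D.J k = 1 * D.J k := (one_mul _).symm
        _ ≤ _ := mul_le_mul' (by rw [← ENNReal.ofReal_one]; exact ENNReal.ofReal_le_ofReal h4) le_rfl
    · have h5 : (S.card : ℝ≥0∞) ≤ s.card := by
        have h3 : S.card ≤ (Finset.univ : Finset s).card := Finset.card_le_univ S
        rw [Finset.card_univ, Fintype.card_coe] at h3
        exact_mod_cast h3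
      calc (S.card : ℝ≥0∞) * (C' * ε) = C' * ((S.card : ℝ≥0∞) * ε) := by ring
        _ ≤ _ := mul_le_mul' le_rfl (mul_le_mul' h5 le_rfl)
  · intro k hk
    rw [hS, Finset.mem_biUnion] at hk
    obtain ⟨j, -, hj⟩ := hk
    obtain ⟨y, hy, z, hz, h4⟩ := mem_Kz.1 hj
    refine ⟨j, j.2, y, hy, z, hz, h4.trans ?_⟩
    exact div_le_div_of_nonneg_right hRl (by positivity)

end out

end

end Crest.Agent.R096.Ca_855
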