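import Crest.Agent.R096.Ca22_855
import Crest.Agent.R096.Cbs5_296
import Crest.Agent.R096.Sts2_55

/-!
# Row 96 (S0127), helper855: `SetD` (622) from 55's `exists_shp_T` and 296's `exists_set`.
-/

set_option autoImplicit false
set_option linter.unusedSectionVars false
set_option linter.style.longLine false

open Set Metric Topology Filter MeasureTheory
open scoped ENNReal NNReal

namespace Crest.Agent.R096.Ca_855

open Crest.AnalysisR.VecCalc3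
open Crest.Agent.R096.Msh_715 (Tiling P I I_sub_P)
open Crest.Agent.R096.Mal_874 (CB)
open Crest.Agent.R096.Sq_55 (E3 Sys Face FaceOf w2 GG Shp Shp2)
open Crest.Agent.R096.Efi_296 (Te reps mem_reps EgS FcS GoodA)
open Crest.Agent.R096.Cbs_296 (SysOf efS ρS mS prS)
open Crest.Agent.R096.Gsc_476 (sclT)
open Crest.Agent.R096.Dps_476 (deepJ)
open Crest.Agent.R96.Eld_538 (Cl1 AdE)
open Crest.Agent.R096.Onp_622 (SetD)
open Crest.Agent.R096.Sk2_855 (Mv sk1)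

noncomputable section

variable {Om W : Set R3} {ρ₀ : R3 → ℝ} {J : Type} [Finite J] {Qb : J → CB R3 3} {k0 : ℕ} {σ : ℝ}

/-- **`SetD`**, `pr := prS (h.T a) s (p < 2) (deepT h a kk Q K1)` -/
theorem exists_setD {p : ℝ} (hp2 : p ≤ 2) (h : MIn Om W ρ₀ Qb k0 σ) {a : R3} (kk : J → Fin 3 → ℤ)
    (Q : Finset (Fin 3 → ℤ)) (K1 : ℕ) {K3 : ℕ} {vU vI vN : ℝ≥0}
    {B : h.ιT a → E3 ≃ᵃ[ℝ] E3} {κt : h.ιT a → ℕ} {R u : h.ιT a → ℝ≥0}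
    (hS : ∀ t, Shp2 (Te (h.T a)) t (B t) (R t) (u t))
    (hκ1 : ∀ t, sclT h a t ≤ κt t) (hκ2 : ∀ t, κt t ≤ sclT h a t + 1)
    (hR : ∀ t, R t = ((2:ℝ≥0) ^ κt t)⁻¹)
    (hR2 : ∀ k l, (P ((h.T a).H k) ∩ P ((h.T a).H l)).Nonempty → R k ≤ u k * R l ∧ R l ≤ u k * R k)
    (hu1 : ∀ t, 1 ≤ u t) (huU : ∀ t, Cl1 h 3 a t → u t ≤ vU)
    (huI : ∀ j, ∀ t ∈ deepJ h a j K3, u t ≤ vI) (huN : ∀ t, u t ≤ vN)
    {f : R3 → R3} {Φ : R3 ≃ₜ R3} {U K₀ : Set R3} (hMv : Mv (h.T a) Φ) (hK : IsCompact K₀)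
    (hKO : K₀ ⊆ Om)
    (hface : p = 2 → ∀ x ∈ Om, (h.T a).dim x = 2 → ∀ z ∈ (h.T a).cc x,
      (∀ᶠ w in 𝓝 z, Φ w = w) ∨ f (Φ z) ∈ U) :
    ∃ (s : Finset (h.ιT a)) (pr : (Te (h.T a)).Cell → Prop) (c : h.ιT a → E3)
      (X : Sys s (reps (Te (h.T a)) s pr)),
      SetD p h a kk Q K1 K3 vU vI vN f Φ U K₀ s pr c κt R u X := by
  obtain ⟨s, h1, h2, -, c, X, h3, h4, h5⟩ := Cbs_296.exists_set hMv hK hKO (p < 2)
    (deepT h a kk Q K1) (f := f) (U := U)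
    (fun hq => hface (le_antisymm hp2 (not_lt.1 hq))) B R u hS hR2
  exact ⟨s, prS (h.T a) s (p < 2) (deepT h a kk Q K1), c, X,
    { sys := h3
      edge := h4
      κ1 := hκ1
      κ2 := hκ2
      R_eq := hR
      R2 := hR2
      u1 := hu1
      uU := huU
      uI := huI
      uN := huN
      supp := h2
      mem_s := h1
      pr_s := fun _ hc => hc.1
      pr_d := fun _ hc => hc.2
      pr_of := fun _ _ hc hd => ⟨hc, hd⟩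
      good := h5 }⟩

/-- **all in one**: the constants of 55's `exists_shp_T`, and at every position `a` and for every `Φ`
the data `SetD` together with the shapes -/
theorem exists_setD_T : ∃ vU : ℝ≥0, ∀ (κ : ℝ) (Bs : ℕ), 0 < κ → κ ≤ 1 → ∃ (vI : ℝ≥0) (K3 : ℕ),
    ∀ Nn : ℕ, ∃ vN : ℝ≥0, ∀ {Om W : Set R3} {ρ₀ : R3 → ℝ} {J : Type} [Finite J]
      {Qb : J → CB R3 3} {k0 : ℕ} {σ : ℝ} (h : MIn Om W ρ₀ Qb k0 σ),
      (∀ j, MIn.BQ κ Bs Nn (Qb j) k0) → ∀ a : R3, ‖a‖ ≤ σ / 8 →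
      ∃ (B : h.ιT a → E3 ≃ᵃ[ℝ] E3) (κt : h.ιT a → ℕ) (R u : h.ιT a → ℝ≥0),
        (∀ t, Shp2 (Te (h.T a)) t (B t) (R t) (u t)) ∧
        ∀ {p : ℝ}, p ≤ 2 → ∀ (kk : J → Fin 3 → ℤ) (Q : Finset (Fin 3 → ℤ)) (K1 : ℕ)
          {f : R3 → R3} {Φ : R3 ≃ₜ R3} {U K₀ : Set R3}, Mv (h.T a) Φ → IsCompact K₀ → K₀ ⊆ Om →
          (p = 2 → ∀ x ∈ Om, (h.T a).dim x = 2 → ∀ z ∈ (h.T a).cc x,
            (∀ᶠ w in 𝓝 z, Φ w = w) ∨ f (Φ z) ∈ U) →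
          ∃ (s : Finset (h.ιT a)) (pr : (Te (h.T a)).Cell → Prop) (c : h.ιT a → E3)
            (X : Sys s (reps (Te (h.T a)) s pr)),
            SetD p h a kk Q K1 K3 vU vI vN f Φ U K₀ s pr c κt R u X := by
  obtain ⟨vU, H⟩ := Sts_55.exists_shp_T
  refine ⟨vU, fun κ Bs hκ hκ1 => ?_⟩
  obtain ⟨vI, K3, H⟩ := H κ Bs hκ hκ1
  refine ⟨vI, K3, fun Nn => ?_⟩
  obtain ⟨vN, H⟩ := H Nn
  refine ⟨vN, ?_⟩
  intro Om W ρ₀ J _ Qb k0 σ h hb a ha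
  obtain ⟨B, κt, R, u, g1, g2, g3, g4, g5, g6, g7, g8, g9⟩ := H h hb a ha
  exact ⟨B, κt, R, u, g1, fun hp2 kk Q K1 _ _ _ _ hMv hK hKO hface =>
    exists_setD hp2 h kk Q K1 g1 g2 g3 g4 g5 g6 g7 g8 g9 hMv hK hKO hface⟩

end

end Crest.Agent.R096.Ca_855
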