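import Crest.Agent.R096.Onp4_622
import Crest.Agent.R096.Sts2_55
import Crest.Agent.R096.Lnk2_726

/-!
# Row 96 (S0127), helper855: `OneP` from `one_fix` (622), `exists_shp_T` (55), `lnk3` (726) and the
block estimates `O1H` (= 961's (O1) with all its constants).
-/

set_option autoImplicit false
set_option linter.unusedSectionVars false
set_option linter.style.longLine false
set_option maxHeartbeats 1000000

open Set Metric Topology Filter MeasureTheory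
open scoped ENNReal NNReal

namespace Crest.Agent.R096.Ca_855

open Crest.AnalysisR.VecCalc3
open Crest.Agent.R096.Msh_715 (Tiling P I I_sub_P)
open Crest.Agent.R096.Mal_874 (CB)
open Crest.Agent.R096.Sk_962 (SH)
open Crest.Agent.R096.Br_695 (En)
open Crest.Agent.R096.Sq_55 (E3 Sys Face FaceOf w2 GG Shp Shp2)
open Crest.Agent.R096.Cob_622 (EF)
open Crest.Agent.R096.Efi_296 (Te reps mem_reps EgS FcS GoodA)
open Crest.Agent.R096.Cbs_296 (SysOf efS ρS mS)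
open Crest.Agent.R96.En10_199 (P3)
open Crest.Agent.R96.Coarse_538 (seg vt Cb Dt)
open Crest.Agent.R96.Intr_538 (cel par)
open Crest.Agent.R96.Lu_538 (Gmat)
open Crest.Agent.R096.Fce_793 (pt cc)
open Crest.Agent.R96.Eld_538 (Cl1 AdE Els)
open Crest.Agent.R096.Pas_753
open Crest.Agent.R096.Pin_753
open Crest.Agent.R096.Onp_622
open Crest.Agent.R096.Ou_372 (Cout)
open Crest.Agent.R096.Cl_692 (C1c)
open Crest.Agent.R096.Dps_476 (deepJ)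

noncomputable section

/-- **(O1) with its constants**: `C1₀, K1` see `κ D nc Bs vI K3`; `Rl, Cer` see also `τ hh c1 c2 κw Nn vN`;
thresholds for `θ0`, then for `σ', η₁` -/
def O1H (p : ℝ) : Prop :=
  ∀ (Bs : ℕ) (κ D : ℝ) (nc : ℕ) (vI : ℝ≥0) (K3 : ℕ), 0 < κ → κ ≤ 1 → 1 ≤ D → TileC κ Bs D nc →
    1 ≤ vI → 1 ≤ K3 →
  ∃ (C1₀ : ℝ) (K1 : ℕ), 4 ≤ K1 ∧
  ∀ (τ hh c1 c2 κw : ℝ) (Nn : ℕ) (vN : ℝ≥0), 0 < τ → τ ≤ 1 / 4 → 0 < hh → 0 < c1 → 0 < c2 →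
    0 < κw → C1₀ * hh ≤ min τ c2 → 24 * D * hh ≤ min τ c2 →
  ∃ (Rl Cer θ0₀ : ℝ), 40 ≤ Rl ∧ 0 ≤ Cer ∧ 0 < θ0₀ ∧
  ∀ (θ0 θ1 : ℝ), 0 < θ0 → θ0 ≤ θ0₀ → 0 < θ1 →
  ∃ σ'₀ η₁₀ : ℝ, 0 < σ'₀ ∧ 0 < η₁₀ ∧ ∀ σ' η₁ : ℝ, 0 < σ' → σ' ≤ σ'₀ → 0 < η₁ → η₁ ≤ η₁₀ →
  ∀ {Om La W : Set R3} {ρ₀ : R3 → ℝ} {f : R3 → R3} {G : Fin 3 → R3 → R3}, IsOpen Om →
    Bornology.IsBounded Om → SH p Om La f G → W ⊆ Om → IsCompact W →
  ∀ {s : ℝ}, 0 < s →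
  ∀ {a₀ : R3} {Q₀ Q : Finset (Fin 3 → ℤ)} {b : (Fin 3 → ℤ) → R3} {L : (Fin 3 → ℤ) → R3 →L[ℝ] R3},
    (∀ k ∈ Q₀, (∀ v, κ * ‖v‖ ≤ ‖L k v‖) ∧ ‖L k‖ ≤ κ⁻¹) →
    (∀ k ∈ Q₀, cel Cb (vt (2 * s) a₀ k) s ⊆ W) →
    (∀ k ∈ Q₀, ∀ l ∈ Q₀, k ≠ l →
      Disjoint (par Cb (L k) (b k) ((1 - τ) * s)) (par Cb (L l) (b l) s)) → Q ⊆ Q₀ →
  ∀ {J : Type} [Finite J] {kk : J → Fin 3 → ℤ} {Qb : J → CB R3 3} {k0 : ℕ}
    (hk : ∀ j, (Qb j).kc ≤ k0), (∀ j, kk j ∈ Q₀) →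
    (∀ j, BlkP κ s τ hh c1 θ0 θ1 Bs Nn (vt (2 * s) a₀ (kk j)) (Qb j) k0) →
    (∀ i j, i ≠ j → ∀ x ∈ (Qb i).N, ∀ y ∈ (Qb j).N, c2 * s ≤ dist x y) →
    θ1 * s ≤ 1 / 2 ^ k0 → 1 / 2 ^ k0 ≤ θ0 * s →
  ∀ (h : MIn Om W ρ₀ Qb k0 (c2 * s)) {κi : Type} {x v : κi → R3}
    {κf : Type} {xf : κf → R3} {ef : κf → Fin 2 → R3} {Pf : κf → Set (ℝ × ℝ)}
    {κe' κf' : Type} {x' v' : κe' → R3} {e' : κf' → Fin 2 → R3} {xx' : κf' → R3}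
    {Qf' : κf' → Set (ℝ × ℝ)} (hA : AllC h x' v' e' xx' Qf') {a : R3}, a ∈ Dt (1 / 2 ^ k0) →
    ‖a‖ ≤ 2 / 2 ^ k0 →
  ∀ (hG : ∀ i, GoodA Om (gF p G L i) x' v' e' xx' a),
    Pos p Om La W f G (h.T a) x v xf ef Pf κ (τ / 12) (τ / 24) η₁ (D * hh * s) s
      (3 * (nc * (nc * nc) + 2) * (κ⁻¹ * (D * hh * s))) (σ' * (D * hh * s)) (vt (2 * s) a₀) b L Q a →
  ∀ (vU : ℝ≥0) (C1 : ℝ), C1₀ ≤ C1 →
    O1A p La f G κ (τ / 12) s (σ' * (D * hh * s))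
      (3 * (nc * (nc * nc) + 2) * (κ⁻¹ * (D * hh * s)) + hh * s) C1 κw Rl Cer (vt (2 * s) a₀) b L kk
      Q hk h a K1 K3 vU vI vN hA.cpt hG

/-- the shape data in the format `ShD`, with `1 ≤ vI`, `1 ≤ K3` -/
theorem exists_shD : ∃ vU : ℝ≥0, ∀ (κ : ℝ) (Bs : ℕ), 0 < κ → κ ≤ 1 → ∃ (vI : ℝ≥0) (K3 : ℕ),
    1 ≤ vI ∧ 1 ≤ K3 ∧ ∀ Nn : ℕ, ∃ vN : ℝ≥0, ∀ {Om W : Set R3} {ρ₀ : R3 → ℝ} {J : Type} [Finite J]
      {Qb : J → CB R3 3} {k0 : ℕ} {σ : ℝ} (h : MIn Om W ρ₀ Qb k0 σ),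
      (∀ j, MIn.BQ κ Bs Nn (Qb j) k0) → ∀ a : R3, ‖a‖ ≤ σ / 8 →
      ∃ (B : h.ιT a → E3 ≃ᵃ[ℝ] E3) (κt : h.ιT a → ℕ) (R u : h.ιT a → ℝ≥0),
        ShD h a K3 vU vI vN B κt R u := by
  obtain ⟨vU, H⟩ := Sts_55.exists_shp_T
  refine ⟨vU, fun κ Bs hκ hκ1 => ?_⟩
  obtain ⟨vI, K3, H⟩ := H κ Bs hκ hκ1
  refine ⟨max 1 vI, max 1 K3, le_max_left _ _, le_max_left _ _, fun Nn => ?_⟩
  obtain ⟨vN, H⟩ := H Nn
  refine ⟨vN, ?_⟩
  intro Om W ρ₀ J _ Qb k0 σ h hb a ha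
  obtain ⟨B, κt, R, u, g1, g2, g3, g4, g5, g6, g7, g8, g9⟩ := H h hb a ha
  refine ⟨B, κt, R, u, ⟨g1, g2, g3, g4, g5, g6, g7, fun j t ht => ?_, g9⟩⟩
  refine (g8 j t ⟨ht.1, ?_⟩).trans (le_max_right _ _)
  have h1 := ht.2
  have h2 : K3 ≤ max 1 K3 := le_max_right _ _
  omega

/-- `‖a‖ ≤ c2 s / 8` -/
theorem norm_a_le {c2 s θ0 : ℝ} {k0 : ℕ} {a : R3} (hs : 0 < s) (h16 : 16 * θ0 ≤ c2)
    (hθ0 : 1 / 2 ^ k0 ≤ θ0 * s) (ha : ‖a‖ ≤ 2 / 2 ^ k0) : ‖a‖ ≤ c2 * s / 8 := by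
  have e1 : (2:ℝ) / 2 ^ k0 = 2 * (1 / 2 ^ k0) := by ring
  rw [e1] at ha
  have h5 : 16 * θ0 * s ≤ c2 * s := mul_le_mul_of_nonneg_right h16 hs.le
  linarith

/-- **`OneP` from (O1)** -/
theorem oneP_of {p : ℝ} (hp : 1 ≤ p) (hp2 : p ≤ 2) (hO : O1H p) : OneP p Els := by
  obtain ⟨vU, HS⟩ := exists_shD
  refine ⟨GG vU, fun Cu Bs => ⟨Cout p (3 / 2) Cu, ?_⟩⟩
  intro Om La f G hOm hOmb _ hLa hLab _ hf κ D nc hκ hκ1 hD hTC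
  obtain ⟨vI, K3, hvI, hK3, HS⟩ := HS κ Bs hκ hκ1
  obtain ⟨C1₀, K1, hK1, hO⟩ := hO Bs κ D nc vI K3 hκ hκ1 hD hTC hvI hK3
  have hD0 : 0 ≤ D := by linarith
  have hκi : 0 < κ⁻¹ := inv_pos.2 hκ
  have hCc := Cl_692.C1c_one hκ hD0 nc
  refine ⟨max (24 * D) (max C1₀ (C1c κ D nc)), ?_, le_max_left _ _, ?_⟩
  · exact hCc.trans ((le_max_right _ _).trans (le_max_right _ _))
  set C1 : ℝ := max (24 * D) (max C1₀ (C1c κ D nc)) with hC1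
  intro τ hh c1 c2 κw e Nn hτ hτ4 hhh hc1 hc2 hκw he hnum
  obtain ⟨vN, HS⟩ := HS Nn
  have hn1 : C1₀ * hh ≤ min τ c2 :=
    (mul_le_mul_of_nonneg_right ((le_max_left _ _).trans (le_max_right _ _)) hhh.le).trans hnum
  have hn2 : 24 * D * hh ≤ min τ c2 :=
    (mul_le_mul_of_nonneg_right (le_max_left _ _) hhh.le).trans hnum
  obtain ⟨Rl, Cer, θ0₀, hRl, hCer, hθ0₀, hO⟩ := hO τ hh c1 c2 κw Nn vN hτ hτ4 hhh hc1 hc2 hκw hn1 hn2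
  obtain ⟨Nz, dm, hdm, hz⟩ := Lnk_726.lnk3 hκ Bs Rl
  have hCer1 : 0 < Cer + 1 := by linarith
  refine ⟨Rl, min (e / 3) (e / (2 * (Cer + 1))), GG vN, by linarith, lt_min (by positivity)
    (by positivity), ?_⟩
  set V : ℝ := (volume Om).toReal with hV
  have hvol : volume Om ≠ ∞ := (hOmb.measure_lt_top).ne
  have hV0 : 0 ≤ V := ENNReal.toReal_nonneg
  have hRl0 : 0 ≤ Rl := by linarith
  have hd0 : 0 ≤ dm + 8 * κ⁻¹ * Rl := by positivity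
  -- the number `θ0`
  obtain ⟨θ0, hθ0, t0, t1, t2, t3, t4, t5⟩ : ∃ θ0 : ℝ, 0 < θ0 ∧ θ0 ≤ θ0₀ ∧ 320 * θ0 < κ * c2 ∧
      40 * θ0 ≤ c1 ∧ 162 * θ0 ≤ κ * τ ∧ 7680 * θ0 / c1 * V ≤ e / 3 ∧
      (dm + 8 * κ⁻¹ * Rl) * θ0 < c2 := by
    have hKc : 0 < κ * c2 := mul_pos hκ hc2
    have hKt : 0 < κ * τ := mul_pos hκ hτ
    refine ⟨min θ0₀ (min (κ * c2 / 640) (min (c1 / 40) (min (κ * τ / 162)
      (min (e * c1 / (23040 * (V + 1))) (c2 / (2 * (dm + 8 * κ⁻¹ * Rl + 1))))))), ?_, ?_, ?_, ?_, ?_,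
      ?_, ?_⟩
    · refine lt_min hθ0₀ (lt_min (by positivity) (lt_min (by positivity) (lt_min (by positivity)
        (lt_min (by positivity) (by positivity)))))
    · exact min_le_left _ _
    · have h1 : min θ0₀ (min (κ * c2 / 640) (min (c1 / 40) (min (κ * τ / 162)
          (min (e * c1 / (23040 * (V + 1))) (c2 / (2 * (dm + 8 * κ⁻¹ * Rl + 1))))))) ≤ κ * c2 / 640 :=
        (min_le_right _ _).trans (min_le_left _ _)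
      linarith
    · have h1 : min θ0₀ (min (κ * c2 / 640) (min (c1 / 40) (min (κ * τ / 162)
          (min (e * c1 / (23040 * (V + 1))) (c2 / (2 * (dm + 8 * κ⁻¹ * Rl + 1))))))) ≤ c1 / 40 :=
        (min_le_right _ _).trans ((min_le_right _ _).trans (min_le_left _ _))
      linarith
    · have h1 : min θ0₀ (min (κ * c2 / 640) (min (c1 / 40) (min (κ * τ / 162)
          (min (e * c1 / (23040 * (V + 1))) (c2 / (2 * (dm + 8 * κ⁻¹ * Rl + 1))))))) ≤ κ * τ / 162 :=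
        (min_le_right _ _).trans ((min_le_right _ _).trans ((min_le_right _ _).trans
          (min_le_left _ _)))
      linarith
    · have h1 : min θ0₀ (min (κ * c2 / 640) (min (c1 / 40) (min (κ * τ / 162)
          (min (e * c1 / (23040 * (V + 1))) (c2 / (2 * (dm + 8 * κ⁻¹ * Rl + 1))))))) ≤
            e * c1 / (23040 * (V + 1)) :=
        (min_le_right _ _).trans ((min_le_right _ _).trans ((min_le_right _ _).trans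
          ((min_le_right _ _).trans (min_le_left _ _))))
      set θ := min θ0₀ (min (κ * c2 / 640) (min (c1 / 40) (min (κ * τ / 162)
          (min (e * c1 / (23040 * (V + 1))) (c2 / (2 * (dm + 8 * κ⁻¹ * Rl + 1))))))) with hθ
      have hV1 : 0 < 23040 * (V + 1) := by positivity
      rw [le_div_iff₀ hV1] at h1
      have hθ0' : 0 ≤ θ := by
        refine le_min hθ0₀.le (le_min (by positivity) (le_min (by positivity)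
          (le_min (by positivity) (le_min (by positivity) (by positivity)))))
      have e1 : 7680 * θ / c1 * V = (7680 * θ * V) / c1 := by ring
      rw [e1, div_le_iff₀ hc1]
      nlinarith
    · have h1 : min θ0₀ (min (κ * c2 / 640) (min (c1 / 40) (min (κ * τ / 162)
          (min (e * c1 / (23040 * (V + 1))) (c2 / (2 * (dm + 8 * κ⁻¹ * Rl + 1))))))) ≤
            c2 / (2 * (dm + 8 * κ⁻¹ * Rl + 1)) :=
        (min_le_right _ _).trans ((min_le_right _ _).trans ((min_le_right _ _).trans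
          ((min_le_right _ _).trans (min_le_right _ _))))
      refine lt_of_le_of_lt (mul_le_mul_of_nonneg_left h1 hd0) ?_
      have hpos : 0 < 2 * (dm + 8 * κ⁻¹ * Rl + 1) := by positivity
      rw [← mul_div_assoc, div_lt_iff₀ hpos]
      nlinarith
  refine ⟨θ0, hθ0, fun θ1 hθ1 => ?_⟩
  obtain ⟨σ'₀, η₁₀, hσ'₀, hη₁₀, hO⟩ := hO θ0 θ1 hθ0 t0 hθ1
  have hDh : 0 < D * hh := by positivity
  -- the number `σ'`
  obtain ⟨σ', hσ', s1, s2, s3⟩ : ∃ σ' : ℝ, 0 < σ' ∧ σ' ≤ σ'₀ ∧ σ' ≤ 1 ∧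
      288 * σ' * D * hh ≤ κ * τ := by
    refine ⟨min σ'₀ (min 1 (κ * τ / (288 * (D * hh)))), lt_min hσ'₀ (lt_min one_pos (by positivity)),
      min_le_left _ _, (min_le_right _ _).trans (min_le_left _ _), ?_⟩
    have h1 : min σ'₀ (min 1 (κ * τ / (288 * (D * hh)))) ≤ κ * τ / (288 * (D * hh)) :=
      (min_le_right _ _).trans (min_le_right _ _)
    rw [le_div_iff₀ (by positivity)] at h1
    linarith
  refine ⟨σ', η₁₀, hσ', hη₁₀, s3, ?_⟩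
  intro W K' hWO hWc hK'c hK'La _ η w ρ₀ d0 _ _ hd0p hw hw' hEta _ _ _ _ _ hosc
  have hC0 : 0 < C1c κ D nc * hh := by positivity
  refine ⟨1, 1, d0 / (C1c κ D nc * hh), one_pos, one_pos, by positivity, ?_⟩
  intro s hs hs0 a₀ Q₀ b L hL hcW hcK hdis _ J _ kk Qb k0 hk hkk hb sep hθ1s hθ0s h κi _ x v κf _
    xf ef Pf κe' κf' x' v' e' xx' Qf' hA a haD ha hG Q hQ _ hP hE
  have hbq : ∀ j, MIn.BQ κ Bs Nn (Qb j) k0 := fun j => MIn.bq_of_blkP (hb j)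
  have h16 : 16 * θ0 ≤ c2 := by
    have : κ * c2 ≤ c2 := by nlinarith
    nlinarith
  have ha8 := norm_a_le hs h16 hθ0s ha
  obtain ⟨B, κt, R, u, hS⟩ := HS h hbq a ha8
  have hmin1 : min (e / 3) (e / (2 * (Cer + 1))) ≤ e / 3 := min_le_left _ _
  have hmin2 : min (e / 3) (e / (2 * (Cer + 1))) ≤ e / (2 * (Cer + 1)) := min_le_right _ _
  refine one_fix hp hp2 hOm hOmb hf hWO hWc hκ hκ1 hD hτ hτ4 hhh hc1 hc2 he hσ' hs hCer hdm s2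
    ((le_max_right _ _).trans (le_max_right _ _)) (hn2.trans (min_le_left _ _))
    (hn2.trans (min_le_right _ _)) ?_ le_rfl le_rfl hK1 hRl t1 t2 t3 ?_ hmin1 ?_ t5 hw hw' hEta
    hosc hL hcW hcK hQ hk hkk hb sep hθ0s h hTC hA ha hG hP hE hS ?_ ?_
  · rw [lt_div_iff₀ hC0] at hs0
    linarith
  · rw [← ENNReal.ofReal_toReal hvol, ← ENNReal.ofReal_mul (by positivity)]
    exact ENNReal.ofReal_le_ofReal t4
  · refine (mul_le_mul_of_nonneg_left hmin2 hCer).trans ?_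
    rw [← mul_div_assoc, div_le_div_iff₀ (by positivity) (by norm_num)]
    nlinarith
  · intro j t ht
    refine (hz h ha8 j (hbq j) ?_ t ht).2
    have h1 : 8 * κ⁻¹ * Rl * θ0 < c2 := by nlinarith [mul_nonneg hdm hθ0.le]
    have h0 : 0 ≤ 4 * κ⁻¹ * Rl := by positivity
    have e1 : 4 * κ⁻¹ * Rl / 2 ^ k0 = 4 * κ⁻¹ * Rl * (1 / 2 ^ k0) := by ring
    rw [e1]
    calc 4 * κ⁻¹ * Rl * (1 / 2 ^ k0) ≤ 4 * κ⁻¹ * Rl * (θ0 * s) :=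
          mul_le_mul_of_nonneg_left hθ0s h0
      _ = (4 * κ⁻¹ * Rl * θ0) * s := by ring
      _ < c2 * s := by
        refine mul_lt_mul_of_pos_right ?_ hs
        have : 0 ≤ 4 * κ⁻¹ * Rl * θ0 := by positivity
        linarith
  · exact hO σ' η₁₀ hσ' s1 hη₁₀ le_rfl hOm hOmb hf hWO hWc hs hL hcW hdis hQ hk hkk hb sep hθ1s hθ0s
      h hA haD ha hG hP vU C1 ((le_max_left _ _).trans (le_max_right _ _))

end

end Crest.Agent.R096.Ca_855
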