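/-
helper855, row 96, p <= 2, (O1): **`o1N_of` : the literal of 961's `o1_of` (`O1Of p`) gives 622's
`O1N p`** (order of constants: `K1`, `r`, `C1a`, `Cer`, then `θa`, `σa`, `ηa`).
-/
import Crest.Agent.R096.Onp5_622

set_option autoImplicit false
set_option linter.unusedSectionVars false
set_option linter.style.longLine false
set_option maxHeartbeats 1000000

open Set Metric Filter Topology MeasureTheory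
open scoped ENNReal NNReal

namespace Crest.Agent.R096.Ca_855

open Crest.AnalysisR.VecCalc3 Crest.AnalysisR.Sobolev Crest.Agent.R096.Sk_962
open Crest.Agent.R096.Msh_715 (P I Tiling)
open Crest.Agent.R096.Mal_874 (CB)
open Crest.Agent.R096.Efi_296
open Crest.Agent.R096.Cbs_296
open Crest.Agent.R96.Intr_538 (cel par)
open Crest.Agent.R96.Coarse_538 (vt Cb seg Dt)
open Crest.Agent.R096.Pas_753
open Crest.Agent.R096.Pin_753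
open Crest.Agent.R096.Onp_622

noncomputable section

/-- the literal of 961's `o1_of` -/
def O1Of (p : ℝ) : Prop :=
  ∀ (Bs : ℕ) {κ : ℝ} (_ : 0 < κ) (_ : κ ≤ 1) {vI : ℝ≥0} (_ : 1 ≤ vI) {K3 : ℕ} (_ : 1 ≤ K3)
    (nb : ℕ),
    ∃ K₀ : ℕ, K3 + 1 ≤ K₀ ∧ 4 ≤ K₀ ∧ ∀ K1, K₀ ≤ K1 → ∃ r C₁ : ℝ, 7 ≤ r ∧
    ∀ vN : ℝ≥0, ∃ Cer₀ : ℝ, 0 ≤ Cer₀ ∧
    ∀ {D τ hh c1 c2 κw : ℝ}, 0 < D → 0 < τ → τ ≤ 1 / 4 → 0 < hh → 0 < c1 → 0 < c2 → 0 < κw →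
      24 * D * hh ≤ τ →
    ∃ θ₀ σ₀ η₀ : ℝ, 0 < θ₀ ∧ 0 < σ₀ ∧ 0 < η₀ ∧
    ∀ {θ0 θ1 σ' η₁ s C1 Rl Cer dd : ℝ} {Nn : ℕ}, 0 < θ0 → θ0 ≤ θ₀ → 0 < σ' → σ' ≤ σ₀ → 0 < η₁ →
      η₁ ≤ η₀ → 0 < s → C₁ ≤ C1 → r ≤ Rl → Cer₀ ≤ Cer → dd < κ * (τ / 12 * s) / 4 →
    ∀ {Om La W : Set R3} {f : R3 → R3} {G : Fin 3 → R3 → R3}, IsOpen Om → SH p Om La f G → W ⊆ Om →
    ∀ {ρ₀ : R3 → ℝ} {J : Type} [Finite J] {kk : J → Fin 3 → ℤ} {Qb : J → CB R3 3} {k0 : ℕ}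
      (hk : ∀ j, (Qb j).kc ≤ k0)
      {a₀ : R3} {Q : Finset (Fin 3 → ℤ)} {b : (Fin 3 → ℤ) → R3} {L : (Fin 3 → ℤ) → R3 →L[ℝ] R3},
      (∀ j, BlkP κ s τ hh c1 θ0 θ1 Bs Nn (vt (2 * s) a₀ (kk j)) (Qb j) k0) →
      1 / 2 ^ k0 ≤ θ0 * s →
      (∀ k ∈ Q, (∀ v, κ * ‖v‖ ≤ ‖L k v‖) ∧ ‖L k‖ ≤ κ⁻¹) →
      (∀ k ∈ Q, cel Cb (vt (2 * s) a₀ k) s ⊆ W) →
    ∀ (h : MIn Om W ρ₀ Qb k0 (c2 * s)) {a : R3}, ‖a‖ ≤ 2 / 2 ^ k0 →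
      (∀ t, {l | (P ((h.T a).H l) ∩ P ((h.T a).H t)).Nonempty}.ncard ≤ nb) →
    ∀ {κi : Type} {x v : κi → R3} {κf : Type} {xf : κf → R3} {ef : κf → Fin 2 → R3}
      {Pf : κf → Set (ℝ × ℝ)} {d σr : ℝ},
      Pos p Om La W f G (h.T a) x v xf ef Pf κ (τ / 12) (τ / 24) η₁ (D * hh * s) s d σr
        (vt (2 * s) a₀) b L Q a →
    ∀ {κe' κf' : Type} {x' v' : κe' → R3} {e' : κf' → Fin 2 → R3} {xx' : κf' → R3}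
      {Qf' : κf' → Set (ℝ × ℝ)} (hQf : ∀ φ, IsCompact (Qf' φ))
      (hG : ∀ i, GoodA Om (gF p G L i) x' v' e' xx' a) (vU : ℝ≥0),
      O1A p La f G κ (τ / 12) s (σ' * (D * hh * s)) dd C1 κw Rl Cer (vt (2 * s) a₀) b L kk Q hk h a
        K1 K3 vU vI vN hQf hG

theorem o1N_of {p : ℝ} (H : O1Of p) : O1N p := by
  intro κ D nc Bs vI K3 hκ hκ1 hD hvI hK3 hTC
  obtain ⟨K₀, -, hK4, H⟩ := H Bs hκ hκ1 hvI hK3 nc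
  obtain ⟨r, C₁, -, H⟩ := H K₀ le_rfl
  have hκi : 0 < κ⁻¹ := inv_pos.2 hκ
  have hD0 : 0 < D := by linarith
  set X : ℝ := 3 * (nc * (nc * nc) + 2) * (κ⁻¹ * D) + 1 with hX
  have hX0 : 0 < X := by positivity
  refine ⟨max C₁ (max (24 * D) (49 * κ⁻¹ * X)), ?_⟩
  intro C1 τ hh c1 c2 κw Nn vU vN hC1 hτ hτ4 hhh hc1 hc2 hκw hCh
  have hC1a : C₁ ≤ C1 := (le_max_left _ _).trans hC1
  have hC1b : 24 * D ≤ C1 := (le_max_left _ _).trans ((le_max_right _ _).trans hC1)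
  have hC1c : 49 * κ⁻¹ * X ≤ C1 := (le_max_right _ _).trans ((le_max_right _ _).trans hC1)
  have hCτ : C1 * hh ≤ τ := hCh.trans (min_le_left _ _)
  have hDτ : 24 * D * hh ≤ τ := (mul_le_mul_of_nonneg_right hC1b hhh.le).trans hCτ
  have hXτ : 49 * κ⁻¹ * X * hh ≤ τ := (mul_le_mul_of_nonneg_right hC1c hhh.le).trans hCτ
  have hXκ : 49 * (X * hh) ≤ κ * τ := by
    have h1 := mul_le_mul_of_nonneg_left hXτ hκ.le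
    have h2 : κ * (49 * κ⁻¹ * X * hh) = 49 * (X * hh) := by
      field_simp
    rwa [h2] at h1
  obtain ⟨Cer₀, hCer, H⟩ := H vN
  obtain ⟨θ₀, σ₀, η₀, hθ₀, hσ₀, hη₀, H⟩ := H hD0 hτ hτ4 hhh hc1 hc2 hκw hDτ
  refine ⟨K₀, r, Cer₀, hK4, hCer, fun Rl hRl => ⟨θ₀, hθ₀, fun θ0 θ1 hθ0 hθ0' hθ1 =>
    ⟨σ₀, η₀, hσ₀, hη₀, ?_⟩⟩⟩
  intro σ' η₁ hσ' hσ'' hη₁ hη₁' Om La W f G hOm hLa hf hWO hWc ρ₀ s a₀ Q₀ b L hs hL hcW J _ kk Qb k0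
    hk hkk hb sep hθ1s hθ0s h κi _ x v κf _ xf ef Pf κe' κf' x' v' e' xx' Qf' hA a haD ha hG Q hQ hP
  have hXs : 0 < X * hh * s := by positivity
  have hdd : 3 * (nc * (nc * nc) + 2) * (κ⁻¹ * (D * hh * s)) + hh * s < κ * (τ / 12 * s) / 4 := by
    have h1 : 3 * (nc * (nc * nc) + 2) * (κ⁻¹ * (D * hh * s)) + hh * s = X * hh * s := by
      rw [hX]; ring
    have h2 := mul_le_mul_of_nonneg_right hXκ hs.le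
    rw [h1]
    nlinarith
  exact H (θ1 := θ1) hθ0 hθ0' hσ' hσ'' hη₁ hη₁' hs hC1a hRl le_rfl hdd hOm hf hWO hk hb hθ0s
    (fun k hk' => hL k (hQ hk')) (fun k hk' => hcW k (hQ hk')) h ha
    (fun t => ((hTC h (fun j => MIn.bq_of_blkP (hb j)) a).1 t).1) hP hA.cpt hG vU

end

end Crest.Agent.R096.Ca_855
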