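/-
helper855, row 96, p <= 2: **`o1N : O1N p`** and **`oneP : OneP p Els`** (961's `o1_of`, 622's `oneP_of`).
-/
import Crest.Agent.R096.Ca26_855
import Crest.Agent.R096.Oi4_961

set_option autoImplicit false

namespace Crest.Agent.R096.Ca_855

/-- (O1) with the order of its constants -/
theorem o1N {p : ℝ} (hp : 1 ≤ p) (hp2 : p ≤ 2) : Onp_622.O1N p :=
  o1N_of (fun Bs _ hκ hκ1 _ hvI _ hK3 nb => Oi_961.o1_of Bs hκ hκ1 hvI hK3 nb hp hp2)

/-- **one position** -/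
theorem oneP {p : ℝ} (hp : 1 ≤ p) (hp2 : p ≤ 2) : Pas_753.OneP p Crest.Agent.R96.Eld_538.Els :=
  Onp_622.oneP_of hp hp2 (o1N hp hp2)

end Crest.Agent.R096.Ca_855
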