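import Crest.Agent.R096.Ca1_855
import Crest.Agent.R96.Intr24_538

/-!
# Row 96 (S0127), p < 2: composite A (helper855), part 2: perfect cubes and one mesh
-/

set_option autoImplicit false
set_option linter.unusedSectionVars false

open Set Metric MeasureTheory
open scoped ENNReal

namespace Crest.Agent.R096.Ca_855

open Crest.AnalysisR.VecCalc3
open Crest.Agent.R096.Msh_715 (Tiling P I)
open Crest.Agent.R096.Sk2_855 (sk1 HP Mv usurgZ)
open Crest.Agent.R096.Sk3_812 (GoodT HF ug ug_comp)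
open Crest.Agent.R96.Intr_538 (cel par cel_mono isCompact_cel)
open Crest.Agent.R96.Coarse_538

/-- the affine equivalence `x ↦ b + L (x - z)` -/
noncomputable def aff (b z : R3) (L : R3 →L[ℝ] R3) (hL : Function.Injective L) : R3 ≃ᵃ[ℝ] R3 :=
  ((AffineEquiv.constVAdd ℝ R3 (-z)).trans
    (LinearEquiv.ofInjectiveEndo L.toLinearMap hL).toAffineEquiv).trans
      (AffineEquiv.constVAdd ℝ R3 b)

variable {b z : R3} {L : R3 →L[ℝ] R3} {hL : Function.Injective L}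

theorem aff_apply (x : R3) : aff b z L hL x = b + L (x - z) := by
  show b + L (-z + x) = b + L (x - z)
  congr 2
  abel

theorem aff_linear (v : R3) : (aff b z L hL).linear v = L v := by
  have h := aff_sub (aff b z L hL) v 0
  rw [aff_apply, aff_apply, sub_zero] at h
  rw [← h, map_sub, map_sub, map_zero]
  abel

theorem aff_image (r : ℝ) : aff b z L hL '' cel Cb z r = par Cb L b r := by
  unfold cel par
  rw [image_image]
  refine image_congr fun u _ => ?_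
  rw [aff_apply, add_sub_cancel_left, map_smul]

theorem inj_of_low {κ : ℝ} (hκ : 0 < κ) (h : ∀ v, κ * ‖v‖ ≤ ‖L v‖) : Function.Injective L := by
  rw [← ContinuousLinearMap.coe_coe, ← LinearMap.ker_eq_bot, LinearMap.ker_eq_bot']
  intro v hv
  have h1 := h v
  have hv' : L v = 0 := hv
  rw [hv', norm_zero] at h1
  have h2 : ‖v‖ ≤ 0 := by
    by_contra hn
    push Not at hn
    have := mul_pos hκ hn
    linarith
  exact norm_le_zero_iff.1 h2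

theorem par_mono (hL : Function.Injective L) {r r' : ℝ} (hr : 0 ≤ r) (h : r ≤ r') :
    par Cb L b r ⊆ par Cb L b r' := by
  rw [← aff_image (z := 0) (hL := hL), ← aff_image (z := 0) (hL := hL)]
  exact image_mono (cel_mono ref_Cb 0 hr h)

section one

variable {Om La : Set R3} {ι : Type} {T : Tiling Om ι} {f fi : R3 → R3} {κi : Type*}
  {x v : κi → R3} {p κ τ σ₀ η t s β : ℝ} {a : R3} {D : R3 → R3 →L[ℝ] R3}
  {Q : Finset (Fin 3 → ℤ)} {zc bb : (Fin 3 → ℤ) → R3} {LL : (Fin 3 → ℤ) → R3 →L[ℝ] R3} {nc : ℕ}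

/-- the affine maps of the cubes -/
noncomputable def Aq (zc bb : (Fin 3 → ℤ) → R3) (LL : (Fin 3 → ℤ) → R3 →L[ℝ] R3)
    {Q : Finset (Fin 3 → ℤ)} (hinj : ∀ k ∈ Q, Function.Injective (LL k)) (k : {k // k ∈ Q}) :
    R3 ≃ᵃ[ℝ] R3 := aff (bb k) (zc k) (LL k) (hinj k k.2)

theorem cel_near {z y y' : R3} {r r' t : ℝ} (ht0 : 0 ≤ t) (hr : 0 < r) (hrr : r + t ≤ r')
    (hy : y ∈ cel Cb z r) (hyy : ‖y' - y‖ ≤ t) : y' ∈ cel Cb z r' := by
  rw [mem_cel (by linarith)]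
  intro i
  have h1 := (mem_cel hr).1 hy i
  have h2 := (norm_coord_le (y' - y) i).trans hyy
  have h3 : (y' - y) i = y' i - y i := rfl
  rw [h3] at h2
  have e1 : y' i - z i = (y' i - y i) + (y i - z i) := by ring
  rw [e1]
  exact (abs_add_le _ _).trans (by linarith)

/-- **the good regions of one mesh with perfect cubes** (common part of `p < 2` and `p = 2`) -/
theorem regs_of_perf (hκ : 0 < κ) (hτ : 0 < τ) (hτ6 : 6 * τ < 1) (hs : 0 < s) (ht0 : 0 ≤ t)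
    (ht : 2 * t ≤ τ * s)
    (hP : ∀ k ∈ Q, PerfG x v p Om f D κ τ σ₀ η t s a (zc k) (bb k) (LL k))
    (hdis : ∀ k ∈ Q, ∀ l ∈ Q, k ≠ l →
      Disjoint (par Cb (LL k) (bb k) ((1 - τ) * s)) (par Cb (LL l) (bb l) s))
    (hinj : ∀ k ∈ Q, Function.Injective (LL k))
    (hne : ∀ i, (T.H i).Nonempty) (c : ι → R3) (hβ : 0 ≤ β)
    (hgood : ∀ k : {k // k ∈ Q}, ∀ i, P (T.H i) ⊆ cel Cb (zc k) ((1 - 5 * τ) * s) →
      GoodT T La f i (ug (T.H i) (hne i) (c i) (Aq zc bb LL hinj k)) (Aq zc bb LL hinj k (c i))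
        (1 + β) (1 + 3 * β))
    (hstar : ∀ k ∈ Q, ∀ i, (P (T.H i) ∩ cel Cb (zc k) ((1 - 4 * τ) * s)).Nonempty → ∀ y,
      ug (T.H i) (hne i) (c i) (AffineEquiv.refl ℝ R3) y ≤ 1 + 4 * β →
      ∃ m ∈ nbs T i, y ∈ P (T.H m))
    (hnb : ∀ k ∈ Q, ∀ i, (P (T.H i) ∩ cel Cb (zc k) ((1 - 4 * τ) * s)).Nonempty →
      (nbs T i).ncard ≤ nc)
    (hdiam : ∀ k ∈ Q, ∀ i, (P (T.H i) ∩ cel Cb (zc k) ((1 - 4 * τ) * s)).Nonempty →
      ∀ y ∈ P (T.H i), ∀ y' ∈ P (T.H i), ‖y - y'‖ ≤ t) :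
    Regs T La f (Aq zc bb LL hinj) (fun k => cel Cb (zc k) ((1 - 5 * τ) * s))
      (fun k => cel Cb (zc k) ((1 - 4 * τ) * s))
      (fun k i => ug (T.H i) (hne i) (c i) (Aq zc bb LL hinj k))
      (fun k i => Aq zc bb LL hinj k (c i)) (1 + β) (1 + 3 * β) nc t κ⁻¹ := by
  have hτs : 0 < τ * s := mul_pos hτ hs
  have hr5 : 0 < (1 - 5 * τ) * s := mul_pos (by linarith) hs
  have hr4 : 0 < (1 - 4 * τ) * s := mul_pos (by linarith) hs
  have h54 : (1 - 5 * τ) * s ≤ (1 - 4 * τ) * s := by nlinarith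
  have h41 : (1 - 4 * τ) * s ≤ (1 - τ) * s := by nlinarith
  have h4s : (1 - 4 * τ) * s ≤ s := by nlinarith
  refine ⟨fun k => isCompact_cel ref_Cb.cpt _ _, fun k => ?_, fun k => ?_, fun k i hi => ?_,
    fun k i hi y hy => ?_, fun k l hkl => ?_, fun k i hi => hnb k k.2 i hi,
    (inv_pos.2 hκ).le, ht0, fun k w => ?_, fun k i hi => hdiam k k.2 i hi⟩
  · exact (cel_mono ref_Cb _ hr5.le (h54.trans h4s)).trans (hP k k.2).sub
  · exact cel_mono ref_Cb _ hr5.le h54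
  · exact hgood k i hi
  · obtain ⟨q, hq⟩ := Regs.P_ne T i
    have hqV : q ∈ cel Cb (zc k) ((1 - 4 * τ) * s) := cel_mono ref_Cb _ hr5.le h54 (hi hq)
    have hy' : ug (T.H i) (hne i) (c i) (AffineEquiv.refl ℝ R3) y ≤ 1 + 4 * β := by
      have h1 := ug_comp (hne i) (c := c i) (Aq zc bb LL hinj k) y
      rw [← h1]
      exact hy.trans (by linarith)
    obtain ⟨m, ⟨w, hw, hw'⟩, hym⟩ := hstar k k.2 i ⟨q, hq, hqV⟩ y hy'
    refine ⟨?_, m, ⟨w, hw, hw'⟩, hym⟩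
    have h1 := hdiam k k.2 m ⟨w, hw, cel_mono ref_Cb _ hr5.le h54 (hi hw')⟩ y hym w hw
    exact cel_near ht0 hr5 (by nlinarith) (hi hw') h1
  · have hkl' : (k : Fin 3 → ℤ) ≠ l := fun h => hkl (Subtype.ext h)
    have h1 := hdis k k.2 l l.2 hkl'
    rw [show (Aq zc bb LL hinj k) '' cel Cb (zc k) ((1 - 4 * τ) * s) =
      par Cb (LL k) (bb k) ((1 - 4 * τ) * s)
      from aff_image _, show (Aq zc bb LL hinj l) '' cel Cb (zc l) ((1 - 4 * τ) * s) =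
      par Cb (LL l) (bb l) ((1 - 4 * τ) * s) from aff_image _]
    exact h1.mono (par_mono (hinj k k.2) hr4.le h41) (par_mono (hinj l l.2) hr4.le h4s)
  · have h1 : (Aq zc bb LL hinj k).linear w = LL k w := aff_linear w
    rw [h1]
    exact ((LL k).le_opNorm w).trans (mul_le_mul_of_nonneg_right (hP k k.2).up (norm_nonneg _))

/-- **`Ψ` for one mesh and perfect cubes** (`p < 2`) -/
theorem psi_of_regs (hτ6 : 6 * τ < 1) (hs : 0 < s) (ht0 : 0 ≤ t)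
    (ht : 2 * t ≤ τ * s) (hLa : IsOpen La) (F : HF Om La f fi)
    {hinj : ∀ k ∈ Q, Function.Injective (LL k)}
    {u : {k // k ∈ Q} → ι → R3 → ℝ} {C : {k // k ∈ Q} → ι → R3} {α α' Λ : ℝ}
    (hsub : ∀ k ∈ Q, cel Cb (zc k) s ⊆ Om)
    (R : Regs T La f (Aq zc bb LL hinj) (fun k => cel Cb (zc k) ((1 - 5 * τ) * s))
      (fun k => cel Cb (zc k) ((1 - 4 * τ) * s)) u C α α' nc t Λ)
    (happ : ∀ η > 0, ∃ h hi, HP Om La h hi ∧ ∀ x ∈ Om, ‖h x - f x‖ ≤ η) {e : ℝ} (he : 0 < e) :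
    ∃ Ψ : R3 ≃ₜ R3, Mv T Ψ ∧
      (∀ k ∈ Q, ∀ y ∈ cel Cb (zc k) ((1 - 6 * τ) * s),
        ‖f (Ψ y) - (bb k + LL k (y - zc k))‖ ≤ 3 * (nc * (nc * nc) + 2) * (Λ * t) + e) ∧
      (∀ i, ∀ y ∈ P (T.H i), ∀ r, (∀ y' ∈ P (T.H i), ‖f y' - f y‖ ≤ r) →
        ‖f (Ψ y) - f y‖ ≤ r + 3 * (nc * (nc * nc) + 1) * (Λ * t) + e) := by
  obtain ⟨Ψ, hΨ, g1, g2⟩ := R.exists_psi (finrank_euclideanSpace_fin) hLa F happ he
  refine ⟨Ψ, hΨ, fun k hk y hy => ?_, g2⟩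
  have h6 : 0 < (1 - 6 * τ) * s := mul_pos (by linarith) hs
  have hyO : y ∈ Om := hsub k hk (cel_mono ref_Cb _ h6.le (by nlinarith) hy)
  obtain ⟨i, hi⟩ := T.at_nonempty hyO
  have hi' : P (T.H i) ⊆ cel Cb (zc k) ((1 - 5 * τ) * s) := by
    intro w hw
    have h1 := R.diam ⟨k, hk⟩ i ⟨y, hi, cel_mono ref_Cb _ h6.le (by nlinarith) hy⟩ w hw y hi
    exact cel_near ht0 h6 (by nlinarith) hy h1
  have h2 := g1 ⟨k, hk⟩ i hi' y hi
  rw [show Aq zc bb LL hinj ⟨k, hk⟩ y = bb k + LL k (y - zc k) from aff_apply y] at h2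
  exact h2

end one

end Crest.Agent.R096.Ca_855
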