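import Crest.Agent.R096.Ca3_855
import Crest.Agent.R096.Gau3_812
import Crest.Agent.R96.Gdt4_538

/-!
# Row 96 (S0127), p ≤ 2: composite A (helper855), part 5: from perfect cubes and a mesh to `Regs`
-/

set_option autoImplicit false
set_option linter.unusedSectionVars false

open Set Metric MeasureTheory Filter
open scoped ENNReal Topology

namespace Crest.Agent.R096.Ca_855

open Crest.AnalysisR.VecCalc3 Crest.AnalysisR.Sobolev
open Crest.Agent.R096.Msh_715 (Tiling P I)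
open Crest.Agent.R096.Sk2_855 (sk1 HP Mv)
open Crest.Agent.R096.Sk3_812 (GoodT HF ug KT Crs Tg)
open Crest.Agent.R96.Intr_538 (cel par cel_mono isCompact_cel GC)
open Crest.Agent.R96.Lu_538 (Gmat)
open Crest.Agent.R96.Coarse_538
open Crest.Agent.R96.Gdt_538 (MeshG affE goodT_perf)

theorem aff_eq {b z : R3} {L : R3 →L[ℝ] R3} (hL : Function.Injective L) :
    affE L hL b z = aff b z L hL := by
  ext y : 1
  rw [aff_apply]
  rfl

section mesh

variable {Om La : Set R3} {ι : Type} {T : Tiling Om ι} {f fi : R3 → R3} {κi : Type*}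
  {x v : κi → R3} {p κ τ σ₀ η t s β r : ℝ} {a : R3} {D : R3 → R3 →L[ℝ] R3} {W : Set R3}
  {Q : Finset (Fin 3 → ℤ)} {zc bb : (Fin 3 → ℤ) → R3} {LL : (Fin 3 → ℤ) → R3 →L[ℝ] R3} {nc : ℕ}

theorem convex_cel (z : R3) (r : ℝ) : Convex ℝ (cel Cb z r) := by
  have h1 : cel Cb z r =
      (fun y : R3 => z + y) '' ((fun u : R3 => r • u) '' Cb) := by
    rw [image_image]; rfl
  rw [h1]
  exact (ref_Cb.conv.smul _).translate _

theorem cel_sub_interior {z : R3} {r r' : ℝ} (hr : 0 < r) (hrr : r < r') :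
    cel Cb z r ⊆ interior (cel Cb z r') := by
  intro y hy
  rw [mem_interior_iff_mem_nhds, Metric.mem_nhds_iff]
  refine ⟨r' - r, by linarith, fun y' hy' => ?_⟩
  rw [mem_ball, dist_eq_norm] at hy'
  exact cel_near (t := r' - r) (by linarith) hr (by linarith) hy hy'.le

/-- **the good regions of a mesh near perfect cubes** (common part of `p < 2` and `p = 2`) -/
theorem regs_of_mesh (hp : 1 ≤ p) (F : HF Om La f fi) (hκ : 0 < κ) (hη : 0 < η) (ht : 0 < t)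
    (hs : 0 < s) (hσ₀ : 0 < σ₀) (hσ₀τ : σ₀ < τ) (hτ6 : 6 * τ < 1) (htτ : 2 * t ≤ τ * s)
    (hP : ∀ k ∈ Q, PerfG x v p Om f D κ τ σ₀ η t s a (zc k) (bb k) (LL k))
    (hA : ∀ e, ACV Om f D (v e) (a + x e)) (hv : ∀ e, ‖v e‖ ≤ t) (hM : MeshG T x v a W)
    (hW : ∀ k ∈ Q, ∀ y ∈ Om, f y ∈ par Cb (LL k) (bb k) ((1 - τ) * s) → y ∈ W)
    (hWc : ∀ k ∈ Q, cel Cb (zc k) ((1 - σ₀) * s) ⊆ W)
    (hpar : ∀ k ∈ Q, par Cb (LL k) (bb k) ((1 - τ) * s) ⊆ La)
    (hdis : ∀ k ∈ Q, ∀ l ∈ Q, k ≠ l →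
      Disjoint (par Cb (LL k) (bb k) ((1 - τ) * s)) (par Cb (LL l) (bb l) s))
    (hητ : η * t ≤ κ * (τ * s)) (hinj : ∀ k ∈ Q, Function.Injective (LL k))
    (hne : ∀ i, (T.H i).Nonempty) (c : ι → R3) (hβ : 0 < β) (hr : 0 < r)
    (hG : ∀ k ∈ Q, ∀ i, (P (T.H i) ∩ cel Cb (zc k) ((1 - 4 * τ) * s)).Nonempty →
      TileG T i (hne i) (c i) β (r * t) t nc)
    (hη1 : 4 * η * (nc + 1) ≤ β * (κ * r)) :
    Regs T La f (Aq zc bb LL hinj) (fun k => cel Cb (zc k) ((1 - 5 * τ) * s))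
      (fun k => cel Cb (zc k) ((1 - 4 * τ) * s))
      (fun k i => ug (T.H i) (hne i) (c i) (Aq zc bb LL hinj k))
      (fun k i => Aq zc bb LL hinj k (c i)) (1 + β) (1 + 3 * β) nc t κ⁻¹ := by
  have hτ : 0 < τ := hσ₀.trans hσ₀τ
  have hτs : 0 < τ * s := mul_pos hτ hs
  have hr5 : 0 < (1 - 5 * τ) * s := mul_pos (by linarith) hs
  have hr4 : 0 < (1 - 4 * τ) * s := mul_pos (by linarith) hs
  have h54 : (1 - 5 * τ) * s ≤ (1 - 4 * τ) * s := by nlinarith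
  have hκr : 0 < κ * r := mul_pos hκ hr
  refine regs_of_perf hκ hτ hτ6 hs ht.le htτ hP hdis hinj hne c hβ.le (fun k i hi => ?_)
    (fun k hk i hi y hy => (hG k hk i hi).star y hy) (fun k hk i hi => (hG k hk i hi).cardN)
    (fun k hk i hi => (hG k hk i hi).diam)
  obtain ⟨q, hq⟩ := Regs.P_ne T i
  have hi4 : ∀ m, (P (T.H m) ∩ P (T.H i)).Nonempty →
      (P (T.H m) ∩ cel Cb (zc k) ((1 - 4 * τ) * s)).Nonempty := by
    rintro m ⟨w, hw, hw'⟩
    exact ⟨w, hw, cel_mono ref_Cb _ hr5.le h54 (hi hw')⟩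
  have hTi := hG k k.2 i (hi4 i ⟨q, hq, hq⟩)
  -- points of neighbouring tiles
  have hnear : ∀ m, (P (T.H m) ∩ P (T.H i)).Nonempty → ∀ y ∈ P (T.H m), ∀ R' : ℝ,
      (1 - 5 * τ) * s + t ≤ R' → y ∈ cel Cb (zc k) R' := by
    rintro m ⟨w, hw, hw'⟩ y hy R' hR'
    have h1 := (hG k k.2 m (hi4 m ⟨w, hw, hw'⟩)).diam y hy w hw
    exact cel_near ht.le hr5 hR' (hi hw') h1
  have hσs : (1 - 5 * τ) * s + t ≤ (1 - σ₀) * s := by nlinarith
  have h2s : (1 - 5 * τ) * s + t ≤ (1 - 2 * τ) * s := by nlinarith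
  have key := goodT_perf (La := La) (Ω := Om) (fi := fi) hp F hκ hη ht hs hσ₀ hσ₀τ (by linarith)
    (hP k k.2) hA hv hM (hW k k.2) (hWc k k.2) (hpar k k.2) hητ (hne i) hTi.cI hβ
    (mul_pos hr ht) hTi.ball ?_ ?_ (fun y hy _ hyP hyC => hTi.gap y hy hyP hyC) ?_ ?_ ?_
  · rw [aff_eq] at key
    exact key
  · intro y hy
    have h1 : ug (T.H i) (hne i) (c i) (AffineEquiv.refl ℝ R3)
        (c i + (1 + 3 * β) • (y - c i)) ≤ 1 + 3 * β := by
      have h2 : (c i + (1 + 3 * β) • (y - c i)) ∈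
          {y | ug (T.H i) (hne i) (c i) (AffineEquiv.refl ℝ R3) y ≤ 1 + 3 * β} := by
        rw [Sk3_812.ug_level (hne i) hTi.cI (AffineEquiv.refl ℝ R3) (by linarith)]
        exact ⟨y, hy, rfl⟩
      exact h2
    obtain ⟨m, hm, hym⟩ := hTi.star _ (h1.trans (by linarith))
    exact hnear m hm _ hym _ h2s
  · rintro y ⟨hyO, hy1, hyP, w, hw, hwP⟩
    obtain ⟨m, hm⟩ := T.at_nonempty hyO
    intro w' hw'
    have h1 : T.cc y ⊆ P (T.H m) := T.cc_sub_tile (i := m) hm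
    exact hnear m ⟨w, h1 hw, hwP⟩ w' (h1 hw') _ hσs
  · refine Sk3_812.tg (finrank_euclideanSpace_fin) (D := cel Cb (zc k) s)
      (isCompact_cel ref_Cb.cpt _ _) (convex_cel _ _) (hP k k.2).sub fun m hm => ?_
    intro y hy
    refine cel_sub_interior (r := (1 - 4 * τ) * s) hr4 (by nlinarith) ?_
    exact hnear m hm y hy _ (by nlinarith)
  · have e1 : 4 * ((κ * (r * t))⁻¹ * (η * t)) = 4 * η / (κ * r) := by
      field_simp
    rw [e1, div_le_iff₀ hκr]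
    refine le_trans ?_ hη1
    have h1 : (0:ℝ) ≤ nc := Nat.cast_nonneg _
    nlinarith
  · have e1 : (Nat.card (KT T i) : ℝ) * (2 * ((κ * (r * t))⁻¹ * (2 * η * t))) =
        (Nat.card (KT T i) : ℝ) * (4 * η) / (κ * r) := by
      field_simp
      ring
    rw [e1, div_lt_iff₀ hκr]
    have h1 : (Nat.card (KT T i) : ℝ) ≤ nc := Nat.cast_le.2 hTi.cardK
    have h2 : (Nat.card (KT T i) : ℝ) * (4 * η) ≤ nc * (4 * η) :=
      mul_le_mul_of_nonneg_right h1 (by linarith)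
    nlinarith

end mesh

end Crest.Agent.R096.Ca_855
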