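import Crest.Agent.R096.Sk3b_270
import Crest.Agent.R096.Sk2z_855

/-!
# Row 96 (S0127), p ≤ 2: composite A (helper855), part 9: the growth of a family, colour by colour

`col_chain`: the list step.  `ucolC`, `familyC`, `two_sk_col`: 270's `ucol`, `family`, `two_sk_near`
with the growth clause `(col j : ℕ) = m → (Z m ∩ Y j).Nonempty → Y j ⊆ Z (m + 1)`.
-/

set_option autoImplicit false
set_option linter.unusedSectionVars false

open Set Metric

namespace Crest.Agent.R096.Ca_855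

open Crest.Agent.R096.Msh_715 (Tiling P I)
open Crest.Agent.R096.Sk2_855 (sk1 HP Mv grow reach grow_mono sub_grow reach_mono sub_reach
  reach_append)
open Crest.Agent.R096.Ub_113 (UBox USurg)
open Crest.Agent.R096.Sk3_270 (One exists_boxes capture_tile)

section chain

variable {E : Type*} [NormedAddCommGroup E] [NormedSpace ℝ E] {J : Type*} {n : ℕ}

/-- **growth along a list sorted by colours** -/
theorem col_chain (col : J → Fin n) (D : J → Set E) (Z : ℕ → Set E) (hZ : ∀ m, Z m ⊆ Z (m + 1))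
    (hZD : ∀ m < n, ∀ j, (col j : ℕ) = m → (Z m ∩ D j).Nonempty → D j ⊆ Z (m + 1)) :
    ∀ (L : List J), L.Pairwise (fun j j' => col j ≤ col j' ∧ (col j = col j' →
      Disjoint (D j) (D j'))) → ∀ c ≤ n, ∀ W S : Set E, S ⊆ Z c ∪ W →
      (∀ y ∈ W, c < n ∧ y ∈ Z (c + 1)) → (∀ j ∈ L, c ≤ col j) →
      (∀ j ∈ L, (col j : ℕ) = c → Disjoint W (D j)) → reach S (L.map D) ⊆ Z n := by
  have hmono : Monotone Z := monotone_nat_of_le_succ hZ
  intro L
  induction L with
  | nil =>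
    intro _ c hc W S hS hW _ _ y hy
    have hy' : y ∈ S := hy
    rcases hS hy' with h | h
    · exact hmono hc h
    · obtain ⟨h1, h2⟩ := hW y h
      exact hmono h1 h2
  | cons j L ih =>
    -- the step for a list whose head has colour `c`
    have step : ∀ (_ : (j :: L).Pairwise (fun j j' => col j ≤ col j' ∧ (col j = col j' →
        Disjoint (D j) (D j')))) (W S : Set E), S ⊆ Z (col j) ∪ W →
        (∀ y ∈ W, (col j : ℕ) < n ∧ y ∈ Z (col j + 1)) →
        (∀ j' ∈ j :: L, (col j' : ℕ) = col j → Disjoint W (D j')) →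
        reach S ((j :: L).map D) ⊆ Z n := by
      intro hp W S hS hW hd
      obtain ⟨hp1, hp2⟩ := List.pairwise_cons.1 hp
      rw [List.map_cons]
      show reach (grow S (D j)) (L.map D) ⊆ Z n
      by_cases hm : (S ∩ D j).Nonempty
      · have hin : D j ⊆ Z (col j + 1) := by
          refine hZD _ (col j).2 j rfl ?_
          obtain ⟨z, hz, hzD⟩ := hm
          rcases hS hz with h | h
          · exact ⟨z, h, hzD⟩
          · exact absurd hzD (disjoint_left.1 (hd j List.mem_cons_self rfl) h)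
        refine ih hp2 (col j) (col j).2.le (W ∪ D j) (grow S (D j)) ?_ ?_ ?_ ?_
        · rintro y (hy | ⟨hy, -⟩)
          · rcases hS hy with h | h
            · exact Or.inl h
            · exact Or.inr (Or.inl h)
          · exact Or.inr (Or.inr hy)
        · rintro y (hy | hy)
          · exact hW y hy
          · exact ⟨(col j).2, hin hy⟩
        · exact fun j' hj' => (hp1 j' hj').1
        · intro j' hj' e
          refine Disjoint.union_left (hd j' (List.mem_cons_of_mem _ hj') e) ?_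
          exact (hp1 j' hj').2 (Fin.ext e.symm)
      · have e : grow S (D j) = S := by
          refine Subset.antisymm ?_ (sub_grow _ _)
          rintro y (hy | ⟨-, h⟩)
          · exact hy
          · exact absurd h hm
        rw [e]
        exact ih hp2 (col j) (col j).2.le W S hS hW (fun j' hj' => (hp1 j' hj').1)
          fun j' hj' e' => hd j' (List.mem_cons_of_mem _ hj') e'
    intro hp c hc W S hS hW hL hd
    rcases Nat.lt_or_ge c (col j) with hlt | hge
    · -- restart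
      refine step hp ∅ S ?_ (by simp) (by simp)
      rw [union_empty]
      intro y hy
      rcases hS hy with h | h
      · exact hmono hlt.le h
      · exact hmono hlt (hW y h).2
    · have e : c = col j := le_antisymm (hL j List.mem_cons_self) hge
      subst e
      exact step hp W S hS hW hd

end chain

section fam

variable {E : Type*} [NormedAddCommGroup E] [NormedSpace ℝ E] [FiniteDimensional ℝ E]
  {Om La : Set E} {ι : Type*}

/-- **many boxes, with colours**: the colour-specific growth clause -/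
theorem ucolC {T : Tiling Om ι} (hS : USurg T La) {J : Type*} [Finite J]
    (B : J → UBox T La) {n : ℕ} (col : J → Fin n)
    (hcol : ∀ j j', j ≠ j' → col j = col j' → Disjoint (B j).Y (B j').Y)
    (hM : ∀ j j', j ≠ j' → ∀ k, Disjoint (B j).shell ((B j').M k))
    {h hi : E → E} (H : HP Om La h hi) (hOk : ∀ j, (B j).Ok h) :
    ∃ Ψ : E ≃ₜ E, Mv T Ψ ∧ ∀ Z : ℕ → Set E, (∀ m, Z m ⊆ Z (m + 1)) →
      (∀ m < n, ∀ j, (col j : ℕ) = m → (Z m ∩ (B j).Y).Nonempty → (B j).Y ⊆ Z (m + 1)) →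
      (∀ x ∈ Om, T.dim x = 2 → h '' T.cc x ⊆ Z 0 → h '' (Ψ '' T.cc x) ⊆ Z n) ∧
      (∀ j, (B j).Y ⊆ Z 0 → ∀ x ∈ Om, T.dim x = 2 → (B j).NC x →
        (∀ z ∈ T.cc x, z ∈ sk1 T → (B j).u (h z) < (B j).a) →
        h '' (Ψ '' T.cc x) ⊆ Z n) := by
  classical
  cases nonempty_fintype J
  let r : J → J → Prop := fun j j' => col j ≤ col j'
  have : DecidableRel r := fun _ _ => Classical.dec _
  have : Std.Total r := ⟨fun a b => le_total _ _⟩
  have : IsTrans J r := ⟨fun a b c h1 h2 => le_trans h1 h2⟩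
  set L : List J := (Finset.univ : Finset J).toList.insertionSort r with hL
  have hmem : ∀ j, j ∈ L := fun j => by rw [hL, List.mem_insertionSort]; simp
  have hnd : L.Pairwise (fun j j' => j ≠ j') :=
    ((List.perm_insertionSort r _).nodup_iff.2 (Finset.nodup_toList _))
  have hsort : L.Pairwise r := List.pairwise_insertionSort r _
  have hpair : L.Pairwise (fun j j' => col j ≤ col j' ∧ (col j = col j' →
      Disjoint (B j).Y (B j').Y)) :=
    (hsort.and hnd).imp fun {j j'} h => ⟨h.1, fun e => hcol j j' h.2 e⟩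
  obtain ⟨Ψ, hΨ, g1, g2⟩ := Crest.Agent.R096.Ub_113.iterate hS (L.map B)
    (by
      rw [List.pairwise_map]
      exact hnd.imp fun hne k => hM _ _ hne k)
    h hi H (by
      intro b hb
      obtain ⟨j, -, rfl⟩ := List.mem_map.1 hb
      exact hOk j)
  refine ⟨Ψ, hΨ, fun Z hZ hZY => ⟨fun x hx hd h0 => ?_, fun j hj x hx hd hn hb => ?_⟩⟩
  · refine (g1 x hx hd).trans ?_
    rw [List.map_map]
    exact col_chain col (fun j => (B j).Y) Z hZ hZY L hpair 0 (Nat.zero_le _) ∅ _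
      (by rw [union_empty]; exact h0) (by simp) (fun _ _ => Nat.zero_le _) (by simp)
  · obtain ⟨m1, m2, e⟩ := List.append_of_mem (hmem j)
    have h2 := g2 (m1.map B) (B j) (m2.map B) (by rw [e]; simp) x hx hd hn hb
    refine h2.trans ?_
    rw [List.map_map]
    have hp : (j :: m2).Pairwise (fun j j' => col j ≤ col j' ∧ (col j = col j' →
        Disjoint (B j).Y (B j').Y)) := by
      have h3 := hpair
      rw [e] at h3
      exact (List.pairwise_append.1 h3).2.1
    obtain ⟨hp1, hp2⟩ := List.pairwise_cons.1 hp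
    exact col_chain col (fun j => (B j).Y) Z hZ hZY m2 hp2 (col j) (col j).2.le ∅ _
      (by
        rw [union_empty]
        exact hj.trans (monotone_nat_of_le_succ hZ (Nat.zero_le _)))
      (by simp) (fun j' hj' => (hp1 j' hj').1) (by simp)

/-- **a finite family of tiles with colours**, colour-specific growth -/
theorem familyC {T : Tiling Om ι} (hS : USurg T La) {f : E → E} {J : Type*} [Finite J]
    {F Y : J → Set E} (O : ∀ j, One T La f (F j) (Y j)) {n : ℕ} (col : J → Fin n)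
    (hcol : ∀ j j', j ≠ j' → col j = col j' → Disjoint (Y j) (Y j')) :
    ∃ η > 0, ∀ h hi : E → E, HP Om La h hi → (∀ x ∈ Om, ‖h x - f x‖ ≤ η) →
      ∃ Ψ : E ≃ₜ E, Mv T Ψ ∧ ∀ Z : ℕ → Set E, (∀ m, Z m ⊆ Z (m + 1)) →
        (∀ m < n, ∀ j, (col j : ℕ) = m → (Z m ∩ Y j).Nonempty → Y j ⊆ Z (m + 1)) →
        (∀ x ∈ Om, T.dim x = 2 → h '' T.cc x ⊆ Z 0 → h '' (Ψ '' T.cc x) ⊆ Z n) ∧
        (∀ j, Y j ⊆ Z 0 → ∀ x ∈ Om, T.dim x = 2 → T.cc x ⊆ F j →
          h '' (Ψ '' T.cc x) ⊆ Z n) := by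
  obtain ⟨B, η, hη, hY, -, hM, hOk⟩ := exists_boxes O
  refine ⟨η, hη, fun h hi H hh => ?_⟩
  obtain ⟨Ψ, hΨ, g⟩ := ucolC hS B col
    (fun j j' hne e => (hcol j j' hne e).mono (hY j) (hY j')) hM H fun j => (hOk h hh j).1
  refine ⟨Ψ, hΨ, fun Z hZ hZY => ?_⟩
  obtain ⟨g1, g2⟩ := g Z hZ fun m hm j hj hne =>
    (hY j).trans (hZY m hm j hj (hne.mono (inter_subset_inter_right _ (hY j))))
  refine ⟨g1, fun j hj x hx hd hF => ?_⟩
  obtain ⟨h4, h5⟩ := (hOk h hh j).2 x hx hd hF
  exact g2 j ((hY j).trans hj) x hx hd h4 h5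

/-- the metric form of a colour-specific growth clause: `Φ` is the composition with a map which is
`e / 2`-close to `f` -/
theorem near_of_col {T : Tiling Om ι} {f h : E → E} {J : Type*} {Y : J → Set E} {n : ℕ}
    (col : J → Fin n) {Ψ : E ≃ₜ E} (hΨ : Mv T Ψ) {e : ℝ} (he : 0 ≤ e)
    (hh1 : ∀ x ∈ Om, ‖h x - f x‖ ≤ e / 2) {Q : Set E → Prop} {X : Set E} (hX : X ⊆ Om)
    (g : ∀ Z : ℕ → Set E, (∀ m, Z m ⊆ Z (m + 1)) →
      (∀ m < n, ∀ j, (col j : ℕ) = m → (Z m ∩ Y j).Nonempty → Y j ⊆ Z (m + 1)) →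
      Convex ℝ (Z n) → IsClosed (Z n) → Q (Z 0) → ∀ x ∈ X, h (Ψ x) ∈ Z n)
    {y0 : E} {R R' : ℝ} (hRR : R' ≤ R + e / 2) {D : ℕ → ℝ} (hD : ∀ m, 0 ≤ D m)
    (hq : Q (closedBall y0 R'))
    (hdiam : ∀ j', (Y j' ∩ closedBall y0 (R + ∑ m ∈ Finset.range n, D m + e)).Nonempty →
      ∀ y ∈ Y j', ∀ y' ∈ Y j', ‖y - y'‖ ≤ D (col j')) :
    ∀ x ∈ X, ‖f (Ψ x) - y0‖ ≤ R + ∑ m ∈ Finset.range n, D m + e := by
  intro x hx
  have h1 := g (fun m => closedBall y0 (R' + ∑ l ∈ Finset.range m, D l))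
    (by
      intro m
      refine closedBall_subset_closedBall ?_
      rw [Finset.sum_range_succ]
      linarith [hD m])
    (by
      rintro m hm j' hj' ⟨y', hy'', hy'⟩ y hy
      have hmn : ∑ l ∈ Finset.range m, D l ≤ ∑ l ∈ Finset.range n, D l :=
        Finset.sum_le_sum_of_subset_of_nonneg (Finset.range_subset_range.2 hm.le)
          fun l _ _ => hD l
      have h1 := hdiam j' ⟨y', hy', closedBall_subset_closedBall (by linarith) hy''⟩ y hy y' hy'
      have h2 : ‖y' - y0‖ ≤ R' + ∑ l ∈ Finset.range m, D l := by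
        rw [← dist_eq_norm]; exact hy''
      show y ∈ closedBall y0 (R' + ∑ l ∈ Finset.range (m + 1), D l)
      rw [mem_closedBall, dist_eq_norm, Finset.sum_range_succ]
      have e1 : y - y0 = (y - y') + (y' - y0) := by abel
      rw [e1]
      refine (norm_add_le _ _).trans ?_
      rw [hj'] at h1
      linarith)
    (convex_closedBall _ _) isClosed_closedBall
    (by simpa using hq) x hx
  rw [mem_closedBall, dist_eq_norm] at h1
  have h2 := hh1 (Ψ x) (hΨ.mapsTo (hX hx))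
  have e1 : f (Ψ x) - y0 = (h (Ψ x) - y0) - (h (Ψ x) - f (Ψ x)) := by abel
  rw [e1]
  exact (norm_sub_le _ _).trans (by linarith)

/-- **2SK for a finite family of tiles, metric form, with one diameter for every colour** -/
theorem two_sk_col {Om La : Set E} {ι : Type*} {T : Tiling Om ι}
    (h3 : Module.finrank ℝ E = 3) (hLa : IsOpen La) (hS : USurg T La) {f : E → E}
    {J : Type*} [Finite J] (i : J → ι) {Y : J → Set E}
    (O : ∀ j, One T La f (P (T.H (i j))) (Y j)) {n : ℕ} (col : J → Fin n)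
    (hcol : ∀ j j', j ≠ j' → col j = col j' → Disjoint (Y j) (Y j'))
    (happ : ∀ η > 0, ∃ h hi, HP Om La h hi ∧ ∀ x ∈ Om, ‖h x - f x‖ ≤ η) {e : ℝ} (he : 0 < e) :
    ∃ Ψ : E ≃ₜ E, Mv T Ψ ∧
      (∀ j (y0 : E) (R : ℝ) (D : ℕ → ℝ), (∀ m, 0 ≤ D m) → Y j ⊆ closedBall y0 R →
        (∀ j', (Y j' ∩ closedBall y0 (R + ∑ m ∈ Finset.range n, D m + e)).Nonempty →
          ∀ y ∈ Y j', ∀ y' ∈ Y j', ‖y - y'‖ ≤ D (col j')) →
        ∀ x ∈ P (T.H (i j)), ‖f (Ψ x) - y0‖ ≤ R + ∑ m ∈ Finset.range n, D m + e) ∧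
      (∀ k (y0 : E) (R : ℝ) (D : ℕ → ℝ), (∀ m, 0 ≤ D m) →
        (∀ x ∈ P (T.H k), T.dim x ≤ 2 → f x ∈ closedBall y0 R) →
        (∀ j', (Y j' ∩ closedBall y0 (R + ∑ m ∈ Finset.range n, D m + e)).Nonempty →
          ∀ y ∈ Y j', ∀ y' ∈ Y j', ‖y - y'‖ ≤ D (col j')) →
        ∀ x ∈ P (T.H k), ‖f (Ψ x) - y0‖ ≤ R + ∑ m ∈ Finset.range n, D m + e) := by
  obtain ⟨η, hη, g⟩ := familyC hS O col hcol
  obtain ⟨h, hi, H, hh⟩ := happ (min η (e / 2)) (lt_min hη (by positivity))
  have hh1 : ∀ x ∈ Om, ‖h x - f x‖ ≤ e / 2 := fun x hx => (hh x hx).trans (min_le_right _ _)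
  obtain ⟨Ψ, hΨ, g'⟩ := g h hi H fun x hx => (hh x hx).trans (min_le_left _ _)
  refine ⟨Ψ, hΨ, fun j y0 R D hD hj hdiam => ?_, fun k y0 R D hD hk hdiam => ?_⟩
  · refine near_of_col col hΨ he.le hh1 (Q := fun B => Y j ⊆ B) (T.sub _)
      (fun Z hZ hZY hC hCc h0 => ?_) (R' := R)
      (by linarith) hD hj hdiam
    obtain ⟨g1, g2⟩ := g' Z hZ hZY
    exact capture_tile h3 H hLa hΨ (i j) hC hCc fun y hy hyd hyi => g2 j h0 y hy hyd hyi
  · refine near_of_col col hΨ he.le hh1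
      (Q := fun B => ∀ x ∈ P (T.H k), T.dim x ≤ 2 → h x ∈ B) (T.sub _)
      (fun Z hZ hZY hC hCc h0 => ?_)
      (R' := R + e / 2) le_rfl hD ?_ hdiam
    · obtain ⟨g1, g2⟩ := g' Z hZ hZY
      refine capture_tile h3 H hLa hΨ k hC hCc fun y hy hyd hyi => ?_
      refine g1 y hy hyd ?_
      rintro _ ⟨x, hx, rfl⟩
      refine h0 x (hyi hx) ?_
      have h1 : T.dim x ≤ T.dim y := T.dim_le hx
      omega
    · intro z hz hzd
      have h4 := hk z hz hzd
      have h5 := hh1 z (T.sub _ hz)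
      rw [mem_closedBall, dist_eq_norm] at h4 ⊢
      have e1 : h z - y0 = (h z - f z) + (f z - y0) := by abel
      rw [e1]
      exact (norm_add_le _ _).trans (by linarith)

end fam

end Crest.Agent.R096.Ca_855
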