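import Crest.Agent.R096.Ca10_855
import Crest.Agent.R96.Crs2_476

/-!
# Row 96 (S0127), p ≤ 2: composite A with a SMALL set of positions (helper476)

`comp_A_small` : 855's `comp_A` with a set `D ⊆ M.Tr` of positions, `ofReal σ * volume M.Tr ≤ volume D`
(`σ` fixed before `s₀`): the weighted energies are averaged over `D` only and the bad set is small
relative to `D` (so `a` may be taken as small as one wants, `‖a‖ ≤ κw s`).  Proof = 855's.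
-/

set_option autoImplicit false
set_option linter.unusedSectionVars false

open Set Metric MeasureTheory Filter
open scoped ENNReal Topology

namespace Crest.Agent.R096.Cas_476

open Crest.AnalysisR.VecCalc3 Crest.AnalysisR.Sobolev
open Crest.Agent.R096.Msh_715 (Tiling P I)
open Crest.Agent.R096.Sk2_855 (sk1 HP Mv)
open Crest.Agent.R096.Sk3_812 (GoodT HF ug)
open Crest.Agent.R096.Sk_962 (SH)
open Crest.Agent.R96.Intr_538 (cel par cel_mono GC)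
open Crest.Agent.R96.Lu_538 (Gmat)
open Crest.Agent.R96.Coarse_538 Crest.Agent.R96.Crs_476
open Crest.Agent.R96.Gdt_538 (MeshG)
open Crest.Agent.R096.Ca_855

/-- **COMPOSITE A with a small set of positions** -/
theorem comp_A_small {p : ℝ} (hp : 1 ≤ p) {Om La : Set R3} (hOm : IsOpen Om)
    (hOmb : Bornology.IsBounded Om) (hLa : IsOpen La) (hLaf : volume La ≠ ∞) {f : R3 → R3}
    {G : Fin 3 → R3 → R3} (H : SH p Om La f G)
    (happ : ∀ η > 0, ∃ h hi, HP Om La h hi ∧ ∀ x ∈ Om, ‖h x - f x‖ ≤ η) {ε : ℝ} (hε : 0 < ε) :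
    ∃ κ : ℝ, 0 < κ ∧ κ ≤ 1 ∧ ∃ K ⊆ Om, IsCompact K ∧ ∃ K' ⊆ La, IsCompact K' ∧
      ∀ (nc : ℕ) (N n τ σ₀ η θ δ e₁ β r σ : ℝ), 0 < N → 0 < n → 0 < σ₀ → σ₀ < τ → 6 * τ < 1 →
        1 ≤ σ₀ * N → 2 ≤ τ * N → 0 < η → 0 < θ → 0 < δ → 0 < e₁ → 0 < β → 0 < r → 0 < σ →
        ∀ (m : ℕ) (g : Fin m → R3 → ℝ≥0∞), (∀ l, AEMeasurable (g l) volume) →
        (∀ l, ∫⁻ y, g l y ≠ ∞) → ∀ (nE ncE : Fin m → ℝ) (εE : ℝ), (∀ l, 0 < nE l) →
        (∀ l, 0 < ncE l) → 0 < εE →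
        ∃ s₀ : ℝ, 0 < s₀ ∧ ∀ s : ℝ, 0 < s → s < s₀ → ∀ a₀ : R3,
        ∃ (Q₀ : Finset (Fin 3 → ℤ)) (b : (Fin 3 → ℤ) → R3) (L : (Fin 3 → ℤ) → R3 →L[ℝ] R3)
          (S : (Fin 3 → ℤ) → Set R3),
          (∀ k ∈ Q₀, GC Om volume f (Gmat G) Cb κ e₁ s (vt (2 * s) a₀ k) (b k) (L k) (S k)) ∧
          (∀ k ∈ Q₀, cel Cb (vt (2 * s) a₀ k) s ⊆ K) ∧ (∀ k ∈ Q₀, par Cb (L k) (b k) s ⊆ K') ∧
          (∀ k ∈ Q₀, ∀ l ∈ Q₀, k ≠ l →
            Disjoint (par Cb (L k) (b k) ((1 - τ) * s)) (par Cb (L l) (b l) s)) ∧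
          ∑ k ∈ Q₀, ∫⁻ x in cel Cb (vt (2 * s) a₀ k) s, ‖Gmat G x - L k‖ₑ ^ p ≤
            ENNReal.ofReal e₁ ∧
          volume ((Om ∩ {x | (Gmat G x).det ≠ 0}) \ ⋃ k ∈ Q₀, cel Cb (vt (2 * s) a₀ k) s) ≤
            ENNReal.ofReal ε ∧
          ∀ (W : Set R3), K ⊆ W → (∀ y ∈ Om, f y ∈ K' → y ∈ W) →
            ∀ (M : MFam Om W (s / N) n β r nc) (D : Set R3), MeasurableSet D → D ⊆ M.Tr →
            ENNReal.ofReal σ * volume M.Tr ≤ volume D →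
            ∀ (μ : Fin m → R3 → Measure R3), (∀ l, RM D (ENNReal.ofReal (nE l)) (μ l)) →
            (∀ l, ∀ a ∈ D, ∀ k : Fin 3 → ℤ, μ l a (cel Cb (vt (2 * s) a₀ k) s) ≤
              ENNReal.ofReal (ncE l * (2 * s) ^ 3)) →
            ∀ (E : Fin m → Set R3), (∀ l, MeasurableSet (E l)) →
            ∀ (J : Type) [Countable J] (F : J → R3 → ℝ≥0∞), (∀ j, AEMeasurable (F j) volume) →
            (∀ j, ∫⁻ y, F j y ≠ ∞) →
            ∃ B : Set R3, volume B ≤ ENNReal.ofReal θ * volume D ∧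
              ∀ a ∈ D, a ∉ B → (∀ e, ACV Om f (Gmat G) (M.v e) (a + M.x e)) ∧
                (∀ e j, ∀ ε' : ℝ≥0∞, 0 < ε' → ∀ᶠ r in 𝓝[>] (0:ℝ),
                  ∫⁻ y in thickening r (seg M.x M.v a e), F j y ≤
                    ENNReal.ofReal (64 * ‖M.v e‖ * r ^ 2) *
                      ((∫⁻ σ in Ioc (0:ℝ) 1, F j (a + M.x e + σ • M.v e)) + ε')) ∧
                ∃ Q ⊆ Q₀, ((Q₀ \ Q).card : ℝ) * (2 * s) ^ 3 ≤ δ ∧
                (∀ k ∈ Q, PerfG M.x M.v p Om f (Gmat G) κ τ σ₀ η (s / N) s a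
                  (vt (2 * s) a₀ k) (b k) (L k)) ∧
                (∀ l, ∫⁻ y in E l ∪ ⋃ k ∈ Q₀ \ Q, cel Cb (vt (2 * s) a₀ k) s, g l y ∂μ l a ≤
                  ENNReal.ofReal (nE l / (θ / (4 * (m + 1)))) * (∫⁻ y in E l, g l y) +
                    ENNReal.ofReal εE) ∧
                ∃ hinj : ∀ k ∈ Q, Function.Injective (L k),
                  RegsQ (M.T a) La f (vt (2 * s) a₀) b L hinj (M.c a) τ s β nc (s / N) κ ∧
                  ∀ e : ℝ, 0 < e → ∃ Ψ : R3 ≃ₜ R3, Mv (M.T a) Ψ ∧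
                    (∀ k ∈ Q, ∀ y ∈ cel Cb (vt (2 * s) a₀ k) ((1 - 6 * τ) * s),
                      ‖f (Ψ y) - (b k + L k (y - vt (2 * s) a₀ k))‖ ≤
                        3 * (nc * (nc * nc) + 2) * (κ⁻¹ * (s / N)) + e) ∧
                    (∀ i, ∀ y ∈ P ((M.T a).H i), ∀ r',
                      (∀ y' ∈ P ((M.T a).H i), ‖f y' - f y‖ ≤ r') →
                      ‖f (Ψ y) - f y‖ ≤ r' + 3 * (nc * (nc * nc) + 1) * (κ⁻¹ * (s / N)) + e) := by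
  obtain ⟨hmt, hinjf, fi, F⟩ := hf_of_homeo H.homeo
  obtain ⟨κ, hκ, hκ1, K, hK, hKc, K', hK', hK'c, H0⟩ :=
    coarse_E2 hp hOm hOmb hLa hLaf hinjf F.cont hmt H.wg H.memG hε
  refine ⟨κ, hκ, hκ1, K, hK, hKc, K', hK', hK'c, ?_⟩
  intro nc N n τ σ₀ η θ δ e₁ β r σ hN hn hσ₀ hσ₀τ hτ6 hσN hτN hη hθ hδ he₁ hβ hr hσ m g hg hgi nE
    ncE εE hnE hncE hεE
  have hτ : 0 < τ := hσ₀.trans hσ₀τ
  have hnc : (0:ℝ) < 4 * (nc + 1) := by positivity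
  -- the internal tolerance
  set η' := min η (min (β * (κ * r) / (4 * (nc + 1))) (κ * τ * N)) with hη'
  have hη'0 : 0 < η' := lt_min hη (lt_min (by positivity) (by positivity))
  have h1 : η' ≤ η := min_le_left _ _
  have h2 : 4 * η' * (nc + 1) ≤ β * (κ * r) := by
    have h3 : η' ≤ β * (κ * r) / (4 * (nc + 1)) := (min_le_right _ _).trans (min_le_left _ _)
    rw [le_div_iff₀ hnc] at h3
    linarith
  have h3 : η' ≤ κ * τ * N := (min_le_right _ _).trans (min_le_right _ _)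
  obtain ⟨s₀, hs₀, Hs⟩ := H0 N n τ σ₀ η' θ δ e₁ σ hN hn hσ₀ hσ₀τ (by linarith) hσN hη'0 hθ hδ
    he₁ hσ m g hg hgi nE ncE εE hnE hncE hεE
  refine ⟨s₀, hs₀, fun s hs hss a₀ => ?_⟩
  obtain ⟨Q₀, b, L, S, q1, q2, q3, q4, q5, q6, q7⟩ := Hs s hs hss a₀
  refine ⟨Q₀, b, L, S, q1, q2, q3, q4, q5, q6, ?_⟩
  intro W hKW hKW' M D hD hDT hσD μ hμ hcount E hE J _ Fj hF hFi
  have := M.cnt
  obtain ⟨B, hB, HB⟩ := q7 M.κi M.x M.v M.Tr M.meas M.vol M.fin M.vle M.vne M.dens D hD hDT hσD μ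
    hμ hcount E hE J Fj hF hFi
  refine ⟨B, hB, fun a ha haB => ?_⟩
  obtain ⟨a1, a2, Q, hQ, a3, a4, a5⟩ := HB a ha haB
  have ht : 0 < s / N := div_pos hs hN
  refine ⟨a1, a2, Q, hQ, a3, fun k hk => (a4 k hk).mono (by linarith) ht.le hη'0.le h1, a5, ?_⟩
  have htτ : 2 * (s / N) ≤ τ * s := by
    have e1 : 2 * (s / N) = 2 / N * s := by ring
    rw [e1]
    refine mul_le_mul_of_nonneg_right ?_ hs.le
    rw [div_le_iff₀ hN]
    exact hτN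
  have hητ : η' * (s / N) ≤ κ * (τ * s) := by
    calc η' * (s / N) ≤ (κ * τ * N) * (s / N) := mul_le_mul_of_nonneg_right h3 ht.le
      _ = κ * (τ * s) := by field_simp
  exact psi_of_mesh hp hLa F happ hκ hη'0 ht hs hσ₀ hσ₀τ hτ6 htτ a4 a1 M.vle (M.mesh a (hDT ha)) hKW
    hKW' hK' (fun k hk => q2 k (hQ hk)) (fun k hk => q3 k (hQ hk))
    (fun k hk l hl hkl => q4 k (hQ hk) l (hQ hl) hkl) hητ (M.c a) hβ hr (M.tile a (hDT ha)) h2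

end Crest.Agent.R096.Cas_476
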