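import Crest.Agent.R096.PlCell_296

/-!
# Domination lemma and PL inverses (helper296, row 96, P2-Y)
-/

namespace Crest.Agent.R096.Pl

open Set

variable {V W : Type*} [NormedAddCommGroup V] [NormedSpace ℝ V]
  [NormedAddCommGroup W] [NormedSpace ℝ W]

theorem VP.nonneg_of_vertices {s : Set V} {a : V →ᵃ[ℝ] ℝ} (h : ∀ p ∈ s, 0 ≤ a p) :
    ∀ x ∈ convexHull ℝ s, 0 ≤ a x := by
  have hc : Convex ℝ {x | 0 ≤ a x} := by
    intro x hx y hy s t hs ht hst
    simp only [mem_ofPred_eq] at *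
    rw [affine_comb a hst]; positivity
  have : convexHull ℝ s ⊆ {x | 0 ≤ a x} := convexHull_min (fun p hp => h p hp) hc
  exact fun x hx => this hx

/-- domination on one cell, affine functions -/
theorem domination_cell {s : Set V} (hs : s.Finite) {w d : V →ᵃ[ℝ] ℝ}
    (hw : ∀ x ∈ convexHull ℝ s, 0 ≤ w x)
    (h : ∀ x ∈ convexHull ℝ s, 0 < w x → 0 < d x) :
    ∃ K : ℝ, 0 ≤ K ∧ ∀ x ∈ convexHull ℝ s, 0 < w x → w x ≤ K * d x := by
  by_cases hq : ∃ q ∈ s, 0 < w q
  · obtain ⟨q, hq, hwq⟩ := hq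
    have hqs := subset_convexHull ℝ s hq
    have hd0 : ∀ p ∈ s, 0 ≤ d p := by
      intro p hp
      by_contra hneg
      push Not at hneg
      have hdq := h q hqs hwq
      -- point on the segment where `d < 0` and `w > 0`
      have hps := subset_convexHull ℝ s hp
      let t : ℝ := (-d p) / (2 * (d q - d p))
      have hden : 0 < d q - d p := by linarith
      have ht0 : 0 < t := by
        apply div_pos <;> linarith
      have ht1 : t < 1 := by
        rw [div_lt_one (by linarith)]; linarith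
      have hmem : (1 - t) • p + t • q ∈ convexHull ℝ s :=
        (convex_convexHull ℝ s) hps hqs (by linarith) ht0.le (by ring)
      have h1 : 0 < w ((1 - t) • p + t • q) := by
        rw [affine_comb w (by ring)]
        have := hw p hps
        have := mul_pos ht0 hwq
        have := mul_nonneg (by linarith : (0:ℝ) ≤ 1 - t) (hw p hps)
        linarith
      have h2 := h _ hmem h1
      rw [affine_comb d (by ring)] at h2
      have h3 : t * (d q - d p) = -d p / 2 := by
        simp only [t]; field_simp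
      have : (1 - t) * d p + t * d q = d p + t * (d q - d p) := by ring
      rw [this, h3] at h2
      linarith
    obtain ⟨K, hK⟩ := (hs.image fun p => w p / d p).bddAbove
    refine ⟨max K 0, le_max_right _ _, fun x hx _ => ?_⟩
    have key : ∀ p ∈ s, 0 ≤ (max K 0 • d - w) p := by
      intro p hp
      have hps := subset_convexHull ℝ s hp
      simp only [AffineMap.coe_sub, AffineMap.coe_smul, Pi.sub_apply, Pi.smul_apply, smul_eq_mul,
        sub_nonneg]
      rcases (hw p hps).eq_or_lt with h0 | h0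
      · rw [← h0]; exact mul_nonneg (le_max_right _ _) (hd0 p hp)
      · have hdp := h p hps h0
        have := hK (mem_image_of_mem _ hp)
        rw [div_le_iff₀ hdp] at this
        exact this.trans (mul_le_mul_of_nonneg_right (le_max_left _ _) hdp.le)
    have := VP.nonneg_of_vertices key x hx
    simpa using this
  · push Not at hq
    refine ⟨0, le_rfl, fun x hx hpos => ?_⟩
    have := VP.nonneg_of_vertices (a := -w) (fun p hp => by simpa using hq p hp) x hx
    simp at this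
    linarith

/-- **domination lemma**: two PL functions `w, d` on a V-polytope with `d > 0` wherever `w > 0`
satisfy `w ≤ K d` wherever `w > 0`. -/
theorem domination {Q : Set V} (hQ : VP Q) {w d : V → ℝ} (hw : PLMap w) (hd : PLMap d)
    (h : ∀ x ∈ Q, 0 < w x → 0 < d x) :
    ∃ K : ℝ, 0 < K ∧ ∀ x ∈ Q, 0 < w x → w x ≤ K * d x := by
  obtain ⟨𝒞, h1, h2, h3, h4, -⟩ := (hw.prodMk hd).cells hQ (A := ∅) finite_empty
  have key : ∀ C ∈ 𝒞, ∃ K : ℝ, 0 ≤ K ∧ ∀ x ∈ C, 0 < w x → w x ≤ K * d x := by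
    intro C hC
    obtain ⟨g, hg⟩ := h4 C hC
    let w' : V →ᵃ[ℝ] ℝ := AffineMap.fst.comp g
    let d' : V →ᵃ[ℝ] ℝ := AffineMap.snd.comp g
    have hw' : ∀ x ∈ C, w x = w' x := fun x hx => by
      exact congrArg Prod.fst (hg x hx)
    have hd' : ∀ x ∈ C, d x = d' x := fun x hx => by
      exact congrArg Prod.snd (hg x hx)
    obtain ⟨s, hs, hCs⟩ := (h2 C hC).inter_nonneg w'
    have hsub : convexHull ℝ s ⊆ C := by rw [← hCs]; exact inter_subset_left
    have hCQ : C ⊆ Q := by rw [← h3]; exact subset_sUnion_of_mem hC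
    obtain ⟨K, hK0, hK⟩ := domination_cell hs (w := w') (d := d')
      (fun x hx => by rw [← hCs] at hx; exact hx.2)
      (fun x hx hpos => by
        rw [← hd' x (hsub hx)]
        rw [← hw' x (hsub hx)] at hpos
        exact h x (hCQ (hsub hx)) hpos)
    refine ⟨K, hK0, fun x hx hpos => ?_⟩
    rw [hw' x hx] at hpos
    rw [hw' x hx, hd' x hx]
    refine hK x ?_ hpos
    rw [← hCs]
    exact ⟨hx, hpos.le⟩
  choose! K hK0 hK using key
  obtain ⟨M, hM⟩ := (h1.image K).bddAbove
  refine ⟨max M 1, by positivity, fun x hx hpos => ?_⟩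
  rw [← h3] at hx
  obtain ⟨C, hC, hxC⟩ := hx
  have h5 : x ∈ Q := by rw [← h3]; exact ⟨C, hC, hxC⟩
  refine (hK C hC x hxC hpos).trans ?_
  refine mul_le_mul_of_nonneg_right ?_ (h x h5 hpos).le
  exact (hM (mem_image_of_mem _ hC)).trans (le_max_left _ _)

/-! ### inverses -/

/-- the span of the differences of a convex set -/
def diffSpan {C : Set V} (hC : Convex ℝ C) (x₀ : V) (hx₀ : x₀ ∈ C) : Submodule ℝ V where
  carrier := {u | ∃ t : ℝ, 0 ≤ t ∧ ∃ x ∈ C, ∃ y ∈ C, u = t • (x - y)}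
  zero_mem' := ⟨0, le_rfl, x₀, hx₀, x₀, hx₀, by simp⟩
  add_mem' := by
    rintro u v ⟨t, ht, x, hx, y, hy, rfl⟩ ⟨t', ht', x', hx', y', hy', rfl⟩
    rcases (add_nonneg ht ht').eq_or_lt with h | h
    · have h1 : t = 0 := by linarith
      have h2 : t' = 0 := by linarith
      exact ⟨0, le_rfl, x₀, hx₀, x₀, hx₀, by simp [h1, h2]⟩
    · refine ⟨t + t', h.le, (t / (t + t')) • x + (t' / (t + t')) • x',
        hC hx hx' (by positivity) (by positivity) (by field_simp),
        (t / (t + t')) • y + (t' / (t + t')) • y',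
        hC hy hy' (by positivity) (by positivity) (by field_simp), ?_⟩
      match_scalars <;> field_simp
  smul_mem' := by
    rintro c u ⟨t, ht, x, hx, y, hy, rfl⟩
    rcases le_total 0 c with h | h
    · exact ⟨c * t, mul_nonneg h ht, x, hx, y, hy, by rw [mul_smul]⟩
    · exact ⟨(-c) * t, mul_nonneg (by linarith) ht, y, hy, x, hx, by module⟩

/-- an affine map injective on a convex set has an affine left inverse there -/
theorem exists_affine_leftInv {C : Set V} (hC : Convex ℝ C) (g : V →ᵃ[ℝ] W) (hg : InjOn g C) :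
    ∃ g' : W →ᵃ[ℝ] V, ∀ x ∈ C, g' (g x) = x := by
  rcases C.eq_empty_or_nonempty with rfl | ⟨x₀, hx₀⟩
  · exact ⟨AffineMap.const ℝ W 0, by simp⟩
  set M := diffSpan hC x₀ hx₀ with hM
  have hinj : LinearMap.ker (g.linear.comp M.subtype) = ⊥ := by
    rw [LinearMap.ker_eq_bot']
    rintro ⟨u, t, ht, x, hx, y, hy, rfl⟩ hu
    simp only [LinearMap.comp_apply, Submodule.subtype_apply, map_smul] at hu
    have e : g.linear (x - y) = g x - g y := by
      rw [← vsub_eq_sub, AffineMap.linearMap_vsub, vsub_eq_sub]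
    rw [e] at hu
    rcases smul_eq_zero.1 hu with h | h
    · subst h; ext; simp
    · have := hg hx hy (sub_eq_zero.1 h)
      subst this; ext; simp
  obtain ⟨ψ, hψ⟩ := LinearMap.exists_leftInverse_of_injective _ hinj
  let φ : W →ₗ[ℝ] V := M.subtype.comp ψ
  refine ⟨φ.toAffineMap.comp (AffineMap.id ℝ W - AffineMap.const ℝ W (g x₀)) +
    AffineMap.const ℝ W x₀, fun x hx => ?_⟩
  have hmem : x - x₀ ∈ M := ⟨1, zero_le_one, x, hx, x₀, hx₀, by simp⟩
  have h1 := LinearMap.congr_fun hψ ⟨x - x₀, hmem⟩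
  simp only [LinearMap.comp_apply, Submodule.subtype_apply, LinearMap.id_apply] at h1
  have e : g.linear (x - x₀) = g x - g x₀ := by
    rw [← vsub_eq_sub, AffineMap.linearMap_vsub, vsub_eq_sub]
  rw [e] at h1
  simp only [AffineMap.coe_add, Pi.add_apply, AffineMap.comp_apply, AffineMap.coe_sub,
    Pi.sub_apply, AffineMap.id_apply, AffineMap.const_apply, LinearMap.coe_toAffineMap, φ,
    LinearMap.comp_apply, Submodule.subtype_apply, h1]
  abel

/-- finite affine selections on a set -/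
def SelOn (f : V → W) (S : Set V) : Prop :=
  ∃ G : Set (V →ᵃ[ℝ] W), G.Finite ∧ ∀ x ∈ S, ∃ g ∈ G, f x = g x

theorem PLMap.selOn {f : V → W} (hf : PLMap f) (S : Set V) : SelOn f S := by
  obtain ⟨-, G, hG, h⟩ := hf
  exact ⟨G, hG, fun x _ => h x⟩

theorem SelOn.mono {f : V → W} {S T : Set V} (h : SelOn f S) (hT : T ⊆ S) : SelOn f T := by
  obtain ⟨G, hG, h⟩ := h
  exact ⟨G, hG, fun x hx => h x (hT hx)⟩

theorem SelOn.union {f : V → W} {S T : Set V} (h : SelOn f S) (h' : SelOn f T) :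
    SelOn f (S ∪ T) := by
  obtain ⟨G, hG, h⟩ := h
  obtain ⟨G', hG', h'⟩ := h'
  refine ⟨G ∪ G', hG.union hG', fun x hx => ?_⟩
  rcases hx with hx | hx
  · obtain ⟨g, hg, e⟩ := h x hx
    exact ⟨g, Or.inl hg, e⟩
  · obtain ⟨g, hg, e⟩ := h' x hx
    exact ⟨g, Or.inr hg, e⟩

/-- **PL inverses**: a PL map injective on a V-polytope has finitely many affine left inverses -/
theorem PLMap.exists_inverse [FiniteDimensional ℝ W] {f : V → W} (hf : PLMap f) {Q : Set V}
    (hQ : VP Q) (hinj : InjOn f Q) :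
    ∃ G : Set (W →ᵃ[ℝ] V), G.Finite ∧ ∀ x ∈ Q, ∃ g ∈ G, g (f x) = x := by
  obtain ⟨𝒞, h1, h2, h3, h4, -⟩ := hf.cells hQ (A := ∅) finite_empty
  have key : ∀ C ∈ 𝒞, ∃ g' : W →ᵃ[ℝ] V, ∀ x ∈ C, g' (f x) = x := by
    intro C hC
    obtain ⟨g, hg⟩ := h4 C hC
    have hCQ : C ⊆ Q := by rw [← h3]; exact subset_sUnion_of_mem hC
    obtain ⟨g', hg'⟩ := exists_affine_leftInv (h2 C hC).convex g (by
      intro x hx y hy hxy
      exact hinj (hCQ hx) (hCQ hy) (by rw [hg x hx, hg y hy, hxy]))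
    exact ⟨g', fun x hx => by rw [hg x hx, hg' x hx]⟩
  choose! g' hg' using key
  refine ⟨g' '' 𝒞, h1.image _, fun x hx => ?_⟩
  rw [← h3] at hx
  obtain ⟨C, hC, hxC⟩ := hx
  exact ⟨g' C, mem_image_of_mem _ hC, hg' C hC x hxC⟩

/-- the inverse of a PL map injective on a V-polytope has finite affine selections -/
theorem PLMap.selOn_inverse [FiniteDimensional ℝ W] {f : V → W} (hf : PLMap f) {Q : Set V}
    (hQ : VP Q) (hinj : InjOn f Q) {f' : W → V} (hf' : ∀ x ∈ Q, f' (f x) = x) :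
    SelOn f' (f '' Q) := by
  obtain ⟨G, hG, h⟩ := hf.exists_inverse hQ hinj
  refine ⟨G, hG, ?_⟩
  rintro _ ⟨x, hx, rfl⟩
  obtain ⟨g, hg, e⟩ := h x hx
  exact ⟨g, hg, by rw [hf' x hx, e]⟩

end Crest.Agent.R096.Pl
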