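import Crest.Agent.R096.PlCone_296
import Crest.Agent.R096.PlInv_296

/-!
# The cut lemma for PL spheres (helper296, row 96, P2-Y)

Model: `V = F × ℝ`, `F` a finite dimensional space with a polyhedral norm;
`Kp`, `Km` the upper / lower boundary disc of the double cone `{‖x‖ + |z| ≤ 1}`, `Eq` the equator.
`StdS E₁ E₂`: there is a PL homeomorphism of `F × ℝ` which maps `Kp` onto `E₁`, `Km` onto `E₂`.

`cut_lemma`: if `(E₁, D)` and `(E₂, D)` are standard with the same boundary `Γ` and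
`E₁ ∩ E₂ = Γ`, then `(E₁, E₂)` is standard.
-/

namespace Crest.Agent.R096.Pl

open Set Metric

set_option linter.unusedSectionVars false

theorem trans_image {X Y Z : Type*} [TopologicalSpace X] [TopologicalSpace Y] [TopologicalSpace Z]
    (h : X ≃ₜ Y) (k : Y ≃ₜ Z) (s : Set X) : (h.trans k) '' s = k '' (h '' s) :=
  image_comp k h s

theorem symm_image_image' {X Y : Type*} [TopologicalSpace X] [TopologicalSpace Y]
    (h : X ≃ₜ Y) (s : Set X) : h.symm '' (h '' s) = s := by
  rw [← image_comp]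
  convert image_id _ using 2
  ext q; simp

theorem image_symm_image' {X Y : Type*} [TopologicalSpace X] [TopologicalSpace Y]
    (h : X ≃ₜ Y) (s : Set Y) : h '' (h.symm '' s) = s := by
  rw [← image_comp]
  convert image_id _ using 2
  ext q; simp

variable {F : Type*} [NormedAddCommGroup F] [NormedSpace ℝ F]

/-- the norm of `F` is polyhedral -/
structure PolyNorm (F : Type*) [NormedAddCommGroup F] [NormedSpace ℝ F] : Prop where
  pl : PLMap (fun x : F => ‖x‖)
  vp : VP (closedBall (0 : F) 1)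

/-- the double cone gauge -/
def N1 (p : F × ℝ) : ℝ := ‖p.1‖ + |p.2|

variable (F) in
/-- upper disc of the double cone -/
def Kp : Set (F × ℝ) := {p | 0 ≤ p.2 ∧ N1 p = 1}

variable (F) in
/-- lower disc of the double cone -/
def Km : Set (F × ℝ) := {p | p.2 ≤ 0 ∧ N1 p = 1}

variable (F) in
/-- the equator -/
def Eqt : Set (F × ℝ) := {p | p.2 = 0 ∧ ‖p.1‖ = 1}

variable (F) in
/-- the double cone sphere -/
def S1 : Set (F × ℝ) := {p | N1 p = 1}

variable (F) in
def U1 : Set (F × ℝ) := {p | N1 p < 1}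

variable (F) in
def X1 : Set (F × ℝ) := {p | 1 < N1 p}

theorem N1_continuous : Continuous (N1 : F × ℝ → ℝ) := by unfold N1; fun_prop

theorem N1_smul (c : ℝ) (p : F × ℝ) : N1 (c • p) = |c| * N1 p := by
  simp only [N1, Prod.smul_fst, Prod.smul_snd, norm_smul, smul_eq_mul, abs_mul, Real.norm_eq_abs]
  ring

theorem N1_nonneg (p : F × ℝ) : 0 ≤ N1 p := by unfold N1; positivity

theorem N1_zero : N1 (0 : F × ℝ) = 0 := by simp [N1]

theorem N1_eq_zero {p : F × ℝ} : N1 p = 0 ↔ p = 0 := by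
  constructor
  · intro h
    unfold N1 at h
    have h1 : ‖p.1‖ = 0 := by have := norm_nonneg p.1; have := abs_nonneg p.2; linarith
    have h2 : |p.2| = 0 := by have := norm_nonneg p.1; have := abs_nonneg p.2; linarith
    ext
    · simpa using h1
    · simpa using h2
  · rintro rfl; exact N1_zero

theorem norm_le_N1 (p : F × ℝ) : ‖p‖ ≤ N1 p := by
  rw [Prod.norm_def, Real.norm_eq_abs]
  unfold N1
  exact max_le (by have := abs_nonneg p.2; linarith) (by have := norm_nonneg p.1; linarith)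

theorem N1_pl (hF : PolyNorm F) : PLMap (N1 : F × ℝ → ℝ) :=
  (hF.pl.comp PLMap.id.fst).add PLMap.id.snd.abs

theorem isOpen_U1 : IsOpen (U1 F) := isOpen_lt N1_continuous continuous_const

theorem isOpen_X1 : IsOpen (X1 F) := isOpen_lt continuous_const N1_continuous

theorem Kp_union_Km : Kp F ∪ Km F = S1 F := by
  ext p
  simp only [Kp, Km, S1, mem_union, mem_ofPred_eq]
  constructor
  · rintro (h | h)
    · exact h.2
    · exact h.2
  · intro h
    rcases le_total 0 p.2 with h' | h'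
    · exact Or.inl ⟨h', h⟩
    · exact Or.inr ⟨h', h⟩

theorem Kp_inter_Km : Kp F ∩ Km F = Eqt F := by
  ext p
  simp only [Kp, Km, Eqt, mem_inter_iff, mem_ofPred_eq, N1]
  constructor
  · rintro ⟨⟨h1, h2⟩, h3, -⟩
    have h0 : p.2 = 0 := le_antisymm h3 h1
    rw [h0] at h2
    exact ⟨h0, by simpa using h2⟩
  · rintro ⟨h1, h2⟩
    rw [h1]; simp [h2]

theorem Eqt_subset_Kp : Eqt F ⊆ Kp F := by rw [← Kp_inter_Km]; exact inter_subset_left

theorem Eqt_subset_Km : Eqt F ⊆ Km F := by rw [← Kp_inter_Km]; exact inter_subset_right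

/-- graph parametrisation of the upper disc -/
def ep (x : F) : F × ℝ := (x, 1 - ‖x‖)

/-- graph parametrisation of the lower disc -/
def em (x : F) : F × ℝ := (x, -(1 - ‖x‖))

theorem ep_pl (hF : PolyNorm F) : PLMap (ep : F → F × ℝ) :=
  PLMap.id.prodMk ((PLMap.const 1).sub hF.pl)

theorem em_pl (hF : PolyNorm F) : PLMap (em : F → F × ℝ) :=
  PLMap.id.prodMk ((PLMap.const 1).sub hF.pl).neg

theorem ep_image : ep '' closedBall (0 : F) 1 = Kp F := by
  ext p
  simp only [mem_image, mem_closedBall, dist_zero_right, Kp, mem_ofPred_eq, N1, ep]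
  constructor
  · rintro ⟨x, hx, rfl⟩
    refine ⟨by simpa using hx, ?_⟩
    simp only
    rw [abs_of_nonneg (by linarith)]; ring
  · rintro ⟨h1, h2⟩
    rw [abs_of_nonneg h1] at h2
    refine ⟨p.1, by linarith, ?_⟩
    ext
    · rfl
    · simp only; linarith

theorem em_image : em '' closedBall (0 : F) 1 = Km F := by
  ext p
  simp only [mem_image, mem_closedBall, dist_zero_right, Km, mem_ofPred_eq, N1, em]
  constructor
  · rintro ⟨x, hx, rfl⟩
    refine ⟨by simpa using hx, ?_⟩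
    simp only
    rw [abs_neg, abs_of_nonneg (by linarith)]; ring
  · rintro ⟨h1, h2⟩
    rw [abs_of_nonpos h1] at h2
    refine ⟨p.1, by linarith, ?_⟩
    ext
    · rfl
    · simp only; linarith

theorem ep_image_ball : ep '' ball (0 : F) 1 = Kp F \ Eqt F := by
  ext p
  simp only [mem_image, mem_ball, dist_zero_right, Kp, Eqt, mem_sdiff, mem_ofPred_eq, N1, ep]
  constructor
  · rintro ⟨x, hx, rfl⟩
    refine ⟨⟨by simp only; linarith, ?_⟩, ?_⟩
    · simp only
      rw [abs_of_nonneg (by linarith)]; ring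
    · rintro ⟨h1, -⟩; simp only at h1; linarith
  · rintro ⟨⟨h1, h2⟩, h3⟩
    rw [abs_of_nonneg h1] at h2
    refine ⟨p.1, ?_, ?_⟩
    · have h4 : ‖p.1‖ ≤ 1 := by linarith
      rcases h4.lt_or_eq with h | h
      · exact h
      · exact absurd ⟨by linarith, h⟩ h3
    · ext
      · rfl
      · simp only; linarith

theorem isPreconnected_Kp_diff : IsPreconnected (Kp F \ Eqt F) := by
  rw [← ep_image_ball]
  refine (convex_ball (0 : F) 1).isPreconnected.image _ ?_
  unfold ep; fun_prop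

theorem Kp_diff_nonempty : (Kp F \ Eqt F).Nonempty := by
  refine ⟨(0, 1), ⟨by simp [Kp, N1], ?_⟩⟩
  simp [Eqt]

/-! ### the reflection -/

variable (F) in
/-- the reflection `(x, z) ↦ (x, -z)` -/
def refl : (F × ℝ) ≃ₜ (F × ℝ) := (Homeomorph.refl F).prodCongr (Homeomorph.neg ℝ)

theorem refl_apply (p : F × ℝ) : refl F p = (p.1, -p.2) := rfl

theorem refl_refl (p : F × ℝ) : refl F (refl F p) = p := by simp [refl_apply]

theorem refl_symm : (refl F).symm = refl F := by
  ext p <;> rfl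

theorem PLH_refl : PLH (refl F) := by
  have h : PLMap (refl F) := PLMap.id.fst.prodMk PLMap.id.snd.neg
  exact ⟨h, by rw [refl_symm]; exact h⟩

theorem refl_image_Kp : refl F '' Kp F = Km F := by
  ext p
  constructor
  · rintro ⟨q, ⟨h1, h2⟩, rfl⟩
    exact ⟨by simpa [refl_apply] using h1, by simpa [refl_apply, N1] using h2⟩
  · rintro ⟨h1, h2⟩
    exact ⟨refl F p, ⟨by simpa [refl_apply] using h1, by simpa [refl_apply, N1] using h2⟩,
      refl_refl p⟩

theorem refl_image_Km : refl F '' Km F = Kp F := by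
  rw [← refl_image_Kp]
  nth_rewrite 1 [← refl_symm]
  exact symm_image_image' _ _

theorem refl_image_Eqt : refl F '' Eqt F = Eqt F := by
  rw [← Kp_inter_Km, image_inter (refl F).injective, refl_image_Kp, refl_image_Km, inter_comm]

/-! ### standard pairs -/

/-- `(E₁, E₂)` is the image of the pair (upper disc, lower disc) -/
def StdS (E₁ E₂ : Set (F × ℝ)) : Prop :=
  ∃ H : (F × ℝ) ≃ₜ (F × ℝ), PLH H ∧ H '' Kp F = E₁ ∧ H '' Km F = E₂

theorem StdS.symm {E₁ E₂ : Set (F × ℝ)} (h : StdS E₁ E₂) : StdS E₂ E₁ := by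
  obtain ⟨H, hH, h1, h2⟩ := h
  refine ⟨(refl F).trans H, PLH_refl.trans hH, ?_, ?_⟩
  · rw [trans_image, refl_image_Kp, h2]
  · rw [trans_image, refl_image_Km, h1]

theorem StdS.map {E₁ E₂ : Set (F × ℝ)} (h : StdS E₁ E₂) {G : (F × ℝ) ≃ₜ (F × ℝ)} (hG : PLH G) :
    StdS (G '' E₁) (G '' E₂) := by
  obtain ⟨H, hH, h1, h2⟩ := h
  exact ⟨H.trans G, hH.trans hG, by rw [trans_image, h1],
    by rw [trans_image, h2]⟩

/-! ### the push step -/

theorem cut_push (hF : PolyNorm F) [FiniteDimensional ℝ F] {E₁ E₂ D Γ : Set (F × ℝ)}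
    {HA HB : (F × ℝ) ≃ₜ (F × ℝ)} (hA : PLH HA) (hB : PLH HB)
    (hA1 : HA '' Kp F = E₁) (hA2 : HA '' Km F = D) (hAΓ : HA '' Eqt F = Γ)
    (hB1 : HB '' Kp F = E₂) (hB2 : HB '' Km F = D) (hBΓ : HB '' Eqt F = Γ)
    (hE : E₁ ∩ E₂ = Γ) (hdis : Disjoint (E₂ \ Γ) (HA '' U1 F)) :
    StdS E₂ E₁ := by
  -- the pulled back disc
  let e : F → F × ℝ := fun x => HA.symm (HB (ep x))
  have he : PLMap e := hA.2.comp (hB.1.comp (ep_pl hF))
  have heHA : ∀ x, HA (e x) = HB (ep x) := fun x => HA.apply_symm_apply _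
  have hmem : ∀ x ∈ closedBall (0 : F) 1, HA (e x) ∈ E₂ := by
    intro x hx
    rw [heHA, ← hB1]
    exact mem_image_of_mem _ (by rw [← ep_image]; exact mem_image_of_mem _ hx)
  have hED : E₂ ∩ D = Γ := by
    rw [← hB1, ← hB2, ← image_inter HB.injective, Kp_inter_Km, hBΓ]
  -- outside the closed double cone, off the rim
  have hout : ∀ x ∈ closedBall (0 : F) 1, 0 < 1 - ‖(e x).1‖ → 1 < N1 (e x) := by
    intro x hx hW
    have hnot : e x ∉ Eqt F := fun h => by
      have := h.2; rw [this] at hW; simp at hW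
    have hnot' : HA (e x) ∉ Γ := by
      rw [← hAΓ]; rintro ⟨q, hq, hq'⟩
      rw [HA.injective hq'] at hq; exact hnot hq
    rcases lt_trichotomy (N1 (e x)) 1 with h | h | h
    · exact absurd (mem_image_of_mem HA (show e x ∈ U1 F from h))
        (disjoint_left.1 hdis ⟨hmem x hx, hnot'⟩)
    · exfalso
      have : e x ∈ Kp F ∪ Km F := by rw [Kp_union_Km]; exact h
      rcases this with h' | h'
      · exact hnot' (hE ▸ ⟨hA1 ▸ mem_image_of_mem HA h', hmem x hx⟩)
      · exact hnot' (hED ▸ ⟨hmem x hx, hA2 ▸ mem_image_of_mem HA h'⟩)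
    · exact h
  let w : F → ℝ := fun x => 1 - ‖(e x).1‖
  let d : F → ℝ := fun x => |(e x).2| - w x
  have hw : PLMap w := (PLMap.const 1).sub (hF.pl.comp he.fst)
  have hd : PLMap d := he.snd.abs.sub hw
  obtain ⟨K, hK0, hK⟩ := domination hF.vp hw hd (by
    intro x hx hpos
    have := hout x hx hpos
    simp only [N1] at this
    simp only [d, w]; linarith)
  obtain ⟨P, hP, hP1, hP2⟩ := exists_push hF.pl (ε := 1 / K) (by positivity)
  have hfix : ∀ x ∈ closedBall (0 : F) 1, P (e x) = e x := by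
    intro x hx
    refine hP2 _ ?_
    have h1K : 0 < 1 + 1 / K := by positivity
    rcases le_or_gt (w x) 0 with h | h
    · have h1 : 1 ≤ ‖(e x).1‖ := by simp only [w] at h; linarith
      have h2 : 0 ≤ |(e x).2| / (1 + 1 / K) := by positivity
      linarith
    · have h2 := hK x hx h
      have h3 : w x * (1 + 1 / K) ≤ |(e x).2| := by
        have h4 : w x / K ≤ d x := by rw [div_le_iff₀ hK0]; linarith
        have h5 : w x * (1 + 1 / K) = w x + w x / K := by ring
        rw [h5]; simp only [d] at h4; linarith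
      have h4 : w x ≤ |(e x).2| / (1 + 1 / K) := by rwa [le_div_iff₀ h1K]
      simp only [w] at h4; linarith
  have hPK : P '' Kp F = Km F := by
    rw [← ep_image, ← em_image, ← image_comp]
    refine image_congr fun x hx => ?_
    exact hP1 x (by simpa using hx)
  have hPK' : P.symm '' Km F = Kp F := by
    rw [← hPK, symm_image_image']
  have hAD : HA.symm '' D = Km F := by
    rw [← hA2, symm_image_image']
  refine ⟨HB.trans (HA.symm.trans (P.symm.trans HA)),
    hB.trans (hA.symm.trans (hP.symm.trans hA)), ?_, ?_⟩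
  · rw [← hB1, ← ep_image, ← image_comp, ← image_comp]
    refine image_congr fun x hx => ?_
    simp only [Function.comp_apply, Homeomorph.trans_apply]
    have : P.symm (e x) = e x := by
      rw [Homeomorph.symm_apply_eq]; exact (hfix x hx).symm
    change HA (P.symm (e x)) = _
    rw [this]; exact heHA x
  · rw [trans_image, hB2, trans_image, hAD,
      trans_image, hPK', hA1]

/-! ### topology of the complement -/

theorem univ_diff_S1 : (S1 F)ᶜ = U1 F ∪ X1 F := by
  ext p
  simp only [S1, U1, X1, mem_compl_iff, mem_union, mem_ofPred_eq]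
  exact ne_iff_lt_or_gt

theorem U1_subset_le : U1 F ⊆ {p : F × ℝ | N1 p ≤ 1} := fun p hp =>
  show N1 p ≤ 1 from le_of_lt (show N1 p < 1 from hp)

theorem S1_subset_le : S1 F ⊆ {p : F × ℝ | N1 p ≤ 1} := fun p hp =>
  show N1 p ≤ 1 from le_of_eq (show N1 p = 1 from hp)

theorem interior_le : interior {p : F × ℝ | N1 p ≤ 1} = U1 F := by
  apply Subset.antisymm
  · intro p hp
    by_contra hnot
    have h1 : 1 ≤ N1 p := not_lt.1 hnot
    have hcont : Continuous fun t : ℝ => (1 + t) • p := by fun_prop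
    have hmem : (1 + (0:ℝ)) • p ∈ interior {p : F × ℝ | N1 p ≤ 1} := by simpa using hp
    have := (hcont.tendsto 0).eventually (isOpen_interior.mem_nhds hmem)
    obtain ⟨δ, hδ, h⟩ := Metric.eventually_nhds_iff.1 this
    have h2 := interior_subset (h (y := δ / 2) (by simp [abs_of_pos hδ]; linarith))
    simp only [mem_ofPred_eq, N1_smul] at h2
    rw [abs_of_pos (by linarith)] at h2
    nlinarith
  · exact interior_maximal U1_subset_le isOpen_U1

theorem isCompact_le [FiniteDimensional ℝ F] : IsCompact {p : F × ℝ | N1 p ≤ 1} := by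
  have hp : ProperSpace (F × ℝ) := FiniteDimensional.proper ℝ _
  refine (isCompact_closedBall (0 : F × ℝ) 1).of_isClosed_subset
    (isClosed_le N1_continuous continuous_const) ?_
  intro p hp
  rw [mem_closedBall, dist_zero_right]
  exact (norm_le_N1 p).trans hp

theorem isConnected_X1 [FiniteDimensional ℝ F] [Nontrivial F] : IsConnected (X1 F) := by
  have hrank : 1 < Module.rank ℝ (F × ℝ) := by
    rw [← Module.finrank_eq_rank, Module.finrank_prod, Module.finrank_self]
    have : 0 < Module.finrank ℝ F := Module.finrank_pos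
    exact_mod_cast Nat.lt_add_of_pos_left this
  have hc : IsConnected ({(0 : F × ℝ)}ᶜ : Set (F × ℝ)) :=
    isConnected_compl_singleton_of_one_lt_rank hrank 0
  have hprod : IsConnected ((Ioi (1:ℝ)) ×ˢ ({(0 : F × ℝ)}ᶜ : Set (F × ℝ))) :=
    (isConnected_Ioi (a := (1:ℝ))).prod hc
  have : X1 F = (fun q : ℝ × (F × ℝ) => (q.1 / N1 q.2) • q.2) '' ((Ioi (1:ℝ)) ×ˢ {(0 : F × ℝ)}ᶜ) := by
    ext p
    constructor
    · intro hp
      have hp' : 1 < N1 p := hp
      refine ⟨(N1 p, p), ⟨hp', ?_⟩, ?_⟩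
      · simp only [mem_compl_iff, mem_singleton_iff]
        intro h0; rw [h0, N1_zero] at hp'; linarith
      · simp only
        rw [div_self (by linarith), one_smul]
    · rintro ⟨⟨r, q⟩, ⟨hr, hq⟩, rfl⟩
      have hq' : q ≠ 0 := hq
      have hN : 0 < N1 q := lt_of_le_of_ne (N1_nonneg q) (fun h => hq' (N1_eq_zero.1 h.symm))
      show 1 < N1 _
      simp only [N1_smul]
      have hr' : (1:ℝ) < r := hr
      rw [abs_of_pos (by positivity), div_mul_cancel₀ _ hN.ne']
      exact hr'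
  rw [this]
  refine hprod.image _ ?_
  have hcd : ContinuousOn (fun q : ℝ × (F × ℝ) => q.1 / N1 q.2)
      ((Ioi (1:ℝ)) ×ˢ {(0 : F × ℝ)}ᶜ) := by
    refine continuous_fst.continuousOn.div (N1_continuous.comp continuous_snd).continuousOn ?_
    rintro ⟨r, q⟩ ⟨_, hq⟩ h
    exact hq (N1_eq_zero.1 h)
  exact hcd.smul continuous_snd.continuousOn

theorem X1_unbounded : ¬ ∃ K : Set (F × ℝ), IsCompact K ∧ X1 F ⊆ K := by
  rintro ⟨K, hK, hX⟩
  obtain ⟨R, hR⟩ := hK.isBounded.subset_closedBall 0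
  have hmem : ((0 : F), |R| + 2) ∈ X1 F := by
    show 1 < N1 _
    simp only [N1, norm_zero, zero_add]
    rw [abs_of_pos (by positivity)]
    have := abs_nonneg R; linarith
  have h1 := hR (hX hmem)
  rw [mem_closedBall, dist_zero_right, Prod.norm_def] at h1
  simp only [norm_zero, Real.norm_eq_abs] at h1
  rw [abs_of_pos (show (0:ℝ) < |R| + 2 by positivity), max_eq_right (by positivity)] at h1
  have := le_abs_self R; linarith

/-- if a standard sphere `A = HA '' S1` lies in the closure of the inside of `B = HB '' S1`, then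
the inside of `A` lies in the inside of `B` -/
theorem inside_subset [FiniteDimensional ℝ F] [Nontrivial F] {HA HB : (F × ℝ) ≃ₜ (F × ℝ)}
    (h : HA '' S1 F ⊆ HB '' {p | N1 p ≤ 1}) : HA '' U1 F ⊆ HB '' U1 F := by
  have hcompl : ∀ H : (F × ℝ) ≃ₜ (F × ℝ), (H '' S1 F)ᶜ = H '' U1 F ∪ H '' X1 F := by
    intro H
    rw [← image_union, ← univ_diff_S1, H.image_compl]
  have hXB : IsPreconnected (HB '' X1 F) :=
    (isConnected_X1.isPreconnected).image _ HB.continuous.continuousOn
  have hdisj : ∀ H : (F × ℝ) ≃ₜ (F × ℝ), Disjoint (H '' X1 F) (H '' {p | N1 p ≤ 1}) := by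
    intro H
    rw [disjoint_image_iff H.injective, disjoint_left]
    intro p hp hp'
    exact absurd (show N1 p ≤ 1 from hp') (not_le.2 hp)
  have hsub : HB '' X1 F ⊆ HA '' U1 F ∪ HA '' X1 F := by
    rw [← hcompl]
    intro p hp hp'
    exact disjoint_left.1 (hdisj HB) hp (h hp')
  have hopU : IsOpen (HA '' U1 F) := HA.isOpenMap _ isOpen_U1
  have hopX : IsOpen (HA '' X1 F) := HA.isOpenMap _ isOpen_X1
  have hdA : Disjoint (HA '' U1 F) (HA '' X1 F) := by
    rw [disjoint_image_iff HA.injective, disjoint_left]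
    intro p hp hp'
    exact absurd (show N1 p < 1 from hp) (not_lt.2 (le_of_lt hp'))
  have hXX : HB '' X1 F ⊆ HA '' X1 F := by
    rcases hXB.subset_or_subset hopU hopX hdA hsub with h' | h'
    · exfalso
      refine X1_unbounded (F := F) ⟨HB.symm '' (HA '' {p | N1 p ≤ 1}),
        (isCompact_le.image HA.continuous).image HB.symm.continuous, ?_⟩
      intro p hp
      have h1 := h' (mem_image_of_mem HB hp)
      obtain ⟨q, hq, hq'⟩ := h1
      exact ⟨HB p, ⟨q, U1_subset_le hq, hq'⟩, HB.symm_apply_apply p⟩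
    · exact h'
  have hle : HA '' U1 F ⊆ HB '' {p | N1 p ≤ 1} := by
    intro p hp
    by_contra hnot
    have h1 : p ∈ HB '' X1 F := by
      refine ⟨HB.symm p, ?_, HB.apply_symm_apply p⟩
      show 1 < N1 _
      by_contra hle
      exact hnot ⟨HB.symm p, not_lt.1 hle, HB.apply_symm_apply p⟩
    exact disjoint_left.1 hdA hp (hXX h1)
  have := interior_maximal hle hopU
  rwa [← HB.image_interior, interior_le] at this

/-- a connected set disjoint from `H '' S1` and meeting the inside lies inside -/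
theorem subset_inside {H : (F × ℝ) ≃ₜ (F × ℝ)} {C : Set (F × ℝ)} (hC : IsPreconnected C)
    (hdis : Disjoint C (H '' S1 F)) (hne : (C ∩ H '' U1 F).Nonempty) : C ⊆ H '' U1 F := by
  have hcompl : (H '' S1 F)ᶜ = H '' U1 F ∪ H '' X1 F := by
    rw [← image_union, ← univ_diff_S1, H.image_compl]
  have hopU : IsOpen (H '' U1 F) := H.isOpenMap _ isOpen_U1
  have hopX : IsOpen (H '' X1 F) := H.isOpenMap _ isOpen_X1
  have hdA : Disjoint (H '' U1 F) (H '' X1 F) := by
    rw [disjoint_image_iff H.injective, disjoint_left]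
    intro p hp hp'
    exact absurd (show N1 p < 1 from hp) (not_lt.2 (le_of_lt hp'))
  exact hC.subset_left_of_subset_union hopU hopX hdA
    (by rw [← hcompl]; exact fun p hp hp' => disjoint_left.1 hdis hp hp') hne

/-- **CUT LEMMA (X)**: if `(E₁, D)` and `(E₂, D)` are standard pairs with common boundary `Γ`
and `E₁ ∩ E₂ = Γ`, then `(E₁, E₂)` is a standard pair. -/
theorem cut_lemma (hF : PolyNorm F) [FiniteDimensional ℝ F] [Nontrivial F]
    {E₁ E₂ D Γ : Set (F × ℝ)} {HA HB : (F × ℝ) ≃ₜ (F × ℝ)} (hA : PLH HA) (hB : PLH HB)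
    (hA1 : HA '' Kp F = E₁) (hA2 : HA '' Km F = D) (hAΓ : HA '' Eqt F = Γ)
    (hB1 : HB '' Kp F = E₂) (hB2 : HB '' Km F = D) (hBΓ : HB '' Eqt F = Γ)
    (hE : E₁ ∩ E₂ = Γ) : StdS E₁ E₂ := by
  by_cases h1 : Disjoint (E₂ \ Γ) (HA '' U1 F)
  · exact (cut_push hF hA hB hA1 hA2 hAΓ hB1 hB2 hBΓ hE h1).symm
  by_cases h2 : Disjoint (E₁ \ Γ) (HB '' U1 F)
  · exact cut_push hF hB hA hB1 hB2 hBΓ hA1 hA2 hAΓ (by rw [inter_comm]; exact hE) h2
  exfalso
  have hE1D : E₁ ∩ D = Γ := by
    rw [← hA1, ← hA2, ← image_inter HA.injective, Kp_inter_Km, hAΓ]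
  have hE2D : E₂ ∩ D = Γ := by
    rw [← hB1, ← hB2, ← image_inter HB.injective, Kp_inter_Km, hBΓ]
  have hAS : HA '' S1 F = E₁ ∪ D := by rw [← Kp_union_Km, image_union, hA1, hA2]
  have hBS : HB '' S1 F = E₂ ∪ D := by rw [← Kp_union_Km, image_union, hB1, hB2]
  have hc2 : IsPreconnected (E₂ \ Γ) := by
    rw [← hB1, ← hBΓ, ← image_sdiff HB.injective]
    exact isPreconnected_Kp_diff.image _ HB.continuous.continuousOn
  have hc1 : IsPreconnected (E₁ \ Γ) := by
    rw [← hA1, ← hAΓ, ← image_sdiff HA.injective]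
    exact isPreconnected_Kp_diff.image _ HA.continuous.continuousOn
  have hd2 : Disjoint (E₂ \ Γ) (HA '' S1 F) := by
    rw [hAS, disjoint_left]
    rintro p ⟨hp, hpΓ⟩ (h | h)
    · exact hpΓ (hE ▸ ⟨h, hp⟩)
    · exact hpΓ (hE2D ▸ ⟨hp, h⟩)
  have hd1 : Disjoint (E₁ \ Γ) (HB '' S1 F) := by
    rw [hBS, disjoint_left]
    rintro p ⟨hp, hpΓ⟩ (h | h)
    · exact hpΓ (hE ▸ ⟨hp, h⟩)
    · exact hpΓ (hE1D ▸ ⟨hp, h⟩)
  have hs2 : E₂ \ Γ ⊆ HA '' U1 F := subset_inside hc2 hd2 (not_disjoint_iff_nonempty_inter.1 h1)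
  have hs1 : E₁ \ Γ ⊆ HB '' U1 F := subset_inside hc1 hd1 (not_disjoint_iff_nonempty_inter.1 h2)
  have hUsub : ∀ H : (F × ℝ) ≃ₜ (F × ℝ), H '' U1 F ⊆ H '' {p | N1 p ≤ 1} := fun H =>
    image_mono U1_subset_le
  have hSsub : ∀ H : (F × ℝ) ≃ₜ (F × ℝ), H '' S1 F ⊆ H '' {p | N1 p ≤ 1} := fun H =>
    image_mono S1_subset_le
  have hAB : HA '' U1 F ⊆ HB '' U1 F := by
    refine inside_subset ?_
    rw [hAS]
    rintro p (hp | hp)
    · by_cases hpΓ : p ∈ Γ
      · exact hSsub HB (by rw [hBS]; exact Or.inr ((hE1D ▸ hpΓ : p ∈ E₁ ∩ D).2))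
      · exact hUsub HB (hs1 ⟨hp, hpΓ⟩)
    · exact hSsub HB (by rw [hBS]; exact Or.inr hp)
  -- a point of `E₂ \ Γ` is in the inside of `A`, hence of `B`: contradiction
  obtain ⟨q, hq⟩ := (Kp_diff_nonempty (F := F))
  have hq2 : HB q ∈ E₂ \ Γ := by
    rw [← hB1, ← hBΓ, ← image_sdiff HB.injective]
    exact mem_image_of_mem _ hq
  obtain ⟨r, hr, hr'⟩ := hAB (hs2 hq2)
  have : r = q := HB.injective hr'
  rw [this] at hr
  have h3 : N1 q < 1 := hr
  have h4 : N1 q = 1 := hq.1.2
  linarith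

end Crest.Agent.R096.Pl
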