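import Crest.Agent.R096.Ce2_537
import Crest.Agent.R096.Cx3_609
import Crest.Agent.R096.Msh3_715
import Crest.Agent.R096.PlCut_296

/-!
# R096 (row 96), CE3 ball calculus, part 1: gluing of PL equivalences, models, gluing of balls
(helper609)

* `glue`: gluing of two PL equivalences of closed sets.
* `isBall_upper`, `isBall_double`: the pyramid and the double pyramid are balls, with explicit
  boundaries (296's model `F × ℝ`, `F = Fin k → ℝ`).
* `IsBall.glue`: two `(k+1)`-balls meeting in a common `k`-ball of their boundaries.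
-/

set_option autoImplicit false

open Set Metric

namespace Crest.Agent.R096.Cb_609

open Ce_537

section Glue

variable {E F G : Type*} [NormedAddCommGroup E] [NormedSpace ℝ E]
  [NormedAddCommGroup F] [NormedSpace ℝ F] [NormedAddCommGroup G] [NormedSpace ℝ G]

open Classical in
/-- **gluing of two PL equivalences** of closed sets -/
noncomputable def glue {A₁ A₂ : Set E} {B₁ B₂ : Set F} (e₁ : PLEquiv A₁ B₁) (e₂ : PLEquiv A₂ B₂)
    (hA₁ : IsClosed A₁) (hA₂ : IsClosed A₂) (hB₁ : IsClosed B₁) (hB₂ : IsClosed B₂)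
    (hf : EqOn e₁.f e₂.f (A₁ ∩ A₂)) (hg : EqOn e₁.g e₂.g (B₁ ∩ B₂)) :
    PLEquiv (A₁ ∪ A₂) (B₁ ∪ B₂) where
  f := fun x => if x ∈ A₁ then e₁.f x else e₂.f x
  g := fun y => if y ∈ B₁ then e₁.g y else e₂.g y
  pf := by
    refine PLOn.union (e₁.pf.congr fun x hx => by simp [hx]) (e₂.pf.congr fun x hx => ?_) hA₁ hA₂
    by_cases h : x ∈ A₁
    · simp only [h, if_true]; exact hf ⟨h, hx⟩
    · simp [h]
  pg := by
    refine PLOn.union (e₁.pg.congr fun x hx => by simp [hx]) (e₂.pg.congr fun x hx => ?_) hB₁ hB₂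
    by_cases h : x ∈ B₁
    · simp only [h, if_true]; exact hg ⟨h, hx⟩
    · simp [h]
  mf := by
    intro x hx
    by_cases h : x ∈ A₁
    · simp only [h, if_true]; exact Or.inl (e₁.mf h)
    · simp only [h, if_false]; exact Or.inr (e₂.mf (hx.resolve_left h))
  mg := by
    intro x hx
    by_cases h : x ∈ B₁
    · simp only [h, if_true]; exact Or.inl (e₁.mg h)
    · simp only [h, if_false]; exact Or.inr (e₂.mg (hx.resolve_left h))
  li := by
    intro x hx
    by_cases h : x ∈ A₁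
    · simp only [h, if_true, e₁.mf h]; exact e₁.li x h
    · have h2 := hx.resolve_left h
      simp only [h, if_false]
      by_cases h3 : e₂.f x ∈ B₁
      · simp only [h3, if_true]
        rw [hg ⟨h3, e₂.mf h2⟩]; exact e₂.li x h2
      · simp only [h3, if_false]; exact e₂.li x h2
  ri := by
    intro x hx
    by_cases h : x ∈ B₁
    · simp only [h, if_true, e₁.mg h]; exact e₁.ri x h
    · have h2 := hx.resolve_left h
      simp only [h, if_false]
      by_cases h3 : e₂.g x ∈ A₁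
      · simp only [h3, if_true]
        rw [hf ⟨h3, e₂.mg h2⟩]; exact e₂.ri x h2
      · simp only [h3, if_false]; exact e₂.ri x h2

section
variable {A₁ A₂ : Set E} {B₁ B₂ : Set F} (e₁ : PLEquiv A₁ B₁) (e₂ : PLEquiv A₂ B₂)
    (hA₁ : IsClosed A₁) (hA₂ : IsClosed A₂) (hB₁ : IsClosed B₁) (hB₂ : IsClosed B₂)
    (hf : EqOn e₁.f e₂.f (A₁ ∩ A₂)) (hg : EqOn e₁.g e₂.g (B₁ ∩ B₂))

theorem glue_f₁ : EqOn (glue e₁ e₂ hA₁ hA₂ hB₁ hB₂ hf hg).f e₁.f A₁ := by
  intro x hx
  simp only [glue, hx, if_true]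

theorem glue_f₂ : EqOn (glue e₁ e₂ hA₁ hA₂ hB₁ hB₂ hf hg).f e₂.f A₂ := by
  intro x hx
  by_cases h : x ∈ A₁
  · simp only [glue, h, if_true]; exact hf ⟨h, hx⟩
  · simp only [glue, h, if_false]

theorem glue_g₁ : EqOn (glue e₁ e₂ hA₁ hA₂ hB₁ hB₂ hf hg).g e₁.g B₁ := by
  intro x hx
  simp only [glue, hx, if_true]

theorem glue_g₂ : EqOn (glue e₁ e₂ hA₁ hA₂ hB₁ hB₂ hf hg).g e₂.g B₂ := by
  intro x hx
  by_cases h : x ∈ B₁
  · simp only [glue, h, if_true]; exact hg ⟨h, hx⟩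
  · simp only [glue, h, if_false]

end

/-- the inverses agree if the maps do and the intersections correspond -/
theorem eqOn_g_of_f {A₁ A₂ : Set E} {B₁ B₂ : Set F} (e₁ : PLEquiv A₁ B₁) (e₂ : PLEquiv A₂ B₂)
    (hf : EqOn e₁.f e₂.f (A₁ ∩ A₂)) (hi : MapsTo e₁.g (B₁ ∩ B₂) A₂) :
    EqOn e₁.g e₂.g (B₁ ∩ B₂) := by
  intro y hy
  have h1 : e₁.g y ∈ A₁ ∩ A₂ := ⟨e₁.mg hy.1, hi hy⟩
  have h2 : e₂.f (e₁.g y) = y := by rw [← hf h1, e₁.ri y hy.1]
  have h3 := e₂.li _ h1.2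
  rw [h2] at h3
  exact h3.symm

end Glue

/-! ### the model: the double pyramid over the cube -/

section Model

open Pl Msh_715

variable {k : ℕ}

theorem key_le (y : Fin k → ℝ) (t r : ℝ) :
    (t ≤ r ∧ ∀ (i : Fin k) (b : Bool), t + (if b then (1:ℝ) else -1) * y i ≤ r) ↔
      t + ‖y‖ ≤ r := by
  constructor
  · rintro ⟨h0, h⟩
    have h1 : ‖y‖ ≤ r - t := by
      rw [pi_norm_le_iff_of_nonneg (by linarith)]
      intro i
      rw [Real.norm_eq_abs, abs_le]
      have ha := h i true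
      have hb := h i false
      simp only [if_true, Bool.false_eq_true, if_false] at ha hb
      constructor <;> linarith
    linarith
  · intro h
    have h1 := norm_nonneg y
    refine ⟨by linarith, fun i b => ?_⟩
    have h2 := norm_le_pi_norm y i
    rw [Real.norm_eq_abs, abs_le] at h2
    cases b
    · simp only [Bool.false_eq_true, if_false]; linarith [h2.1]
    · simp only [if_true]; linarith [h2.2]

theorem key_lt (y : Fin k → ℝ) (t r : ℝ) :
    (t < r ∧ ∀ (i : Fin k) (b : Bool), t + (if b then (1:ℝ) else -1) * y i < r) ↔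
      t + ‖y‖ < r := by
  constructor
  · rintro ⟨h0, h⟩
    have h1 : ‖y‖ < r - t := by
      rw [pi_norm_lt_iff (by linarith)]
      intro i
      rw [Real.norm_eq_abs, abs_lt]
      have ha := h i true
      have hb := h i false
      simp only [if_true, Bool.false_eq_true, if_false] at ha hb
      constructor <;> linarith
    linarith
  · intro h
    have h1 := norm_nonneg y
    refine ⟨by linarith, fun i b => ?_⟩
    have h2 := norm_le_pi_norm y i
    rw [Real.norm_eq_abs, abs_le] at h2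
    cases b
    · simp only [Bool.false_eq_true, if_false]; linarith [h2.1]
    · simp only [if_true]; linarith [h2.2]

/-- the form `c t + b y_i` -/
noncomputable def fm (c : ℝ) (i : Fin k) (b : Bool) : ((Fin k → ℝ) × ℝ) →L[ℝ] ℝ :=
  c • ContinuousLinearMap.snd ℝ (Fin k → ℝ) ℝ +
    (if b then (1:ℝ) else -1) • (ContinuousLinearMap.proj (R := ℝ) (φ := fun _ : Fin k => ℝ) i).comp
      (ContinuousLinearMap.fst ℝ (Fin k → ℝ) ℝ)

theorem fm_apply (c : ℝ) (i : Fin k) (b : Bool) (p : (Fin k → ℝ) × ℝ) :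
    fm c i b p = c * p.2 + (if b then (1:ℝ) else -1) * p.1 i := by
  cases b <;> simp [fm]

open Classical in
/-- inequalities `c t ≤ 1`, `c t + ‖y‖ ≤ 1` -/
noncomputable def Hc (k : ℕ) (c : ℝ) : Finset ((((Fin k → ℝ) × ℝ) →L[ℝ] ℝ) × ℝ) :=
  insert (c • ContinuousLinearMap.snd ℝ (Fin k → ℝ) ℝ, 1)
    ((Finset.univ : Finset (Fin k × Bool)).image fun q => (fm c q.1 q.2, 1))

theorem forall_Hc (c : ℝ) (Q : (((Fin k → ℝ) × ℝ) →L[ℝ] ℝ) × ℝ → Prop) :
    (∀ h ∈ Hc k c, Q h) ↔ Q (c • ContinuousLinearMap.snd ℝ (Fin k → ℝ) ℝ, 1) ∧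
      ∀ (i : Fin k) (b : Bool), Q (fm c i b, 1) := by
  classical
  constructor
  · intro h
    refine ⟨h _ (Finset.mem_insert_self _ _), fun i b => h _ (Finset.mem_insert_of_mem ?_)⟩
    exact Finset.mem_image.2 ⟨(i, b), Finset.mem_univ _, rfl⟩
  · rintro ⟨h1, h2⟩ h hh
    rcases Finset.mem_insert.1 hh with rfl | hh
    · exact h1
    · obtain ⟨q, -, rfl⟩ := Finset.mem_image.1 hh
      exact h2 _ _

theorem Hc_le (c : ℝ) (p : (Fin k → ℝ) × ℝ) :
    (∀ h ∈ Hc k c, h.1 p ≤ h.2) ↔ c * p.2 + ‖p.1‖ ≤ 1 := by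
  rw [← key_le, forall_Hc]
  simp only [fm_apply]
  rfl

theorem Hc_lt (c : ℝ) (p : (Fin k → ℝ) × ℝ) :
    (∀ h ∈ Hc k c, h.1 p < h.2) ↔ c * p.2 + ‖p.1‖ < 1 := by
  rw [← key_lt, forall_Hc]
  simp only [fm_apply]
  rfl

/-- the upper pyramid -/
def Up (k : ℕ) : Set ((Fin k → ℝ) × ℝ) := {p | 0 ≤ p.2 ∧ p.2 + ‖p.1‖ ≤ 1}

/-- the lower pyramid -/
def Dn (k : ℕ) : Set ((Fin k → ℝ) × ℝ) := {p | p.2 ≤ 0 ∧ -p.2 + ‖p.1‖ ≤ 1}

/-- the middle cube -/
def Mid (k : ℕ) : Set ((Fin k → ℝ) × ℝ) := {p | p.2 = 0 ∧ ‖p.1‖ ≤ 1}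

/-- the double pyramid -/
def Dbl (k : ℕ) : Set ((Fin k → ℝ) × ℝ) := {p | N1 p ≤ 1}

theorem compact_of_subset_ball {s : Set ((Fin k → ℝ) × ℝ)} (hc : IsClosed s)
    (hs : s ⊆ {p | N1 p ≤ 1}) : IsCompact s :=
  (isCompact_le (F := Fin k → ℝ)).of_isClosed_subset hc hs

theorem finrank_model : Module.finrank ℝ ((Fin k → ℝ) × ℝ) = k + 1 := by
  simp

theorem isBall_dbl (k : ℕ) : IsBall (k + 1) {p : (Fin k → ℝ) × ℝ | N1 p ≤ 1} (S1 (Fin k → ℝ)) := by
  classical
  have hP : P (Hc k 1 ∪ Hc k (-1)) = {p : (Fin k → ℝ) × ℝ | N1 p ≤ 1} := by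
    ext p
    have : p ∈ P (Hc k 1 ∪ Hc k (-1)) ↔ (∀ h ∈ Hc k 1, h.1 p ≤ h.2) ∧ (∀ h ∈ Hc k (-1), h.1 p ≤ h.2) := by
      simp only [P, mem_ofPred_eq, Finset.mem_union, or_imp, forall_and]
    rw [this, Hc_le, Hc_le]
    simp only [mem_ofPred_eq, N1]
    constructor
    · rintro ⟨h1, h2⟩
      have : |p.2| ≤ 1 - ‖p.1‖ := abs_le.2 ⟨by linarith, by linarith⟩
      linarith
    · intro h
      have h1 := le_abs_self p.2
      have h2 := neg_abs_le p.2
      constructor <;> linarith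
  have hI : I (Hc k 1 ∪ Hc k (-1)) = {p : (Fin k → ℝ) × ℝ | N1 p < 1} := by
    ext p
    have : p ∈ I (Hc k 1 ∪ Hc k (-1)) ↔ (∀ h ∈ Hc k 1, h.1 p < h.2) ∧ (∀ h ∈ Hc k (-1), h.1 p < h.2) := by
      simp only [I, mem_ofPred_eq, Finset.mem_union, or_imp, forall_and]
    rw [this, Hc_lt, Hc_lt]
    simp only [mem_ofPred_eq, N1]
    constructor
    · rintro ⟨h1, h2⟩
      have : |p.2| < 1 - ‖p.1‖ := abs_lt.2 ⟨by linarith, by linarith⟩
      linarith
    · intro h
      have h1 := le_abs_self p.2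
      have h2 := neg_abs_le p.2
      constructor <;> linarith
  have h := isBall_P_top (Hc k 1 ∪ Hc k (-1)) (by rw [hP]; exact isCompact_le)
    (by rw [hI]; exact ⟨0, by simp [N1]⟩)
  rw [finrank_model, hP, hI] at h
  convert h using 1
  ext p
  simp only [S1, mem_ofPred_eq, mem_sdiff, not_lt]
  constructor
  · intro h; exact ⟨h.le, h.ge⟩
  · rintro ⟨h1, h2⟩; exact le_antisymm h1 h2

theorem isBall_up (k : ℕ) : IsBall (k + 1) (Up k) (Mid k ∪ Kp (Fin k → ℝ)) := by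
  classical
  set H := insert ((-1 : ℝ) • ContinuousLinearMap.snd ℝ (Fin k → ℝ) ℝ, (0:ℝ)) (Hc k 1) with hH
  have hsub : Up k ⊆ {p | N1 p ≤ 1} := by
    rintro p ⟨h1, h2⟩
    simp only [mem_ofPred_eq, N1, abs_of_nonneg h1]
    linarith
  have hcl : IsClosed (Up k) :=
    (isClosed_le continuous_const continuous_snd).inter
      (isClosed_le (continuous_snd.add continuous_fst.norm) continuous_const)
  have hP : P H = Up k := by
    ext p
    have : p ∈ P H ↔ -1 * p.2 ≤ 0 ∧ (∀ h ∈ Hc k 1, h.1 p ≤ h.2) := by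
      simp only [P, hH, mem_ofPred_eq, Finset.forall_mem_insert]
      rfl
    rw [this, Hc_le]
    simp only [Up, mem_ofPred_eq, one_mul]
    constructor
    · rintro ⟨h1, h2⟩; exact ⟨by linarith, h2⟩
    · rintro ⟨h1, h2⟩; exact ⟨by linarith, h2⟩
  have hI : I H = {p | 0 < p.2 ∧ p.2 + ‖p.1‖ < 1} := by
    ext p
    have : p ∈ I H ↔ -1 * p.2 < 0 ∧ (∀ h ∈ Hc k 1, h.1 p < h.2) := by
      simp only [I, hH, mem_ofPred_eq, Finset.forall_mem_insert]
      rfl
    rw [this, Hc_lt]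
    simp only [mem_ofPred_eq, one_mul]
    constructor
    · rintro ⟨h1, h2⟩; exact ⟨by linarith, h2⟩
    · rintro ⟨h1, h2⟩; exact ⟨by linarith, h2⟩
  have h := isBall_P_top H (by rw [hP]; exact compact_of_subset_ball hcl hsub)
    (by rw [hI]; exact ⟨(0, 1/2), by norm_num⟩)
  rw [finrank_model, hP, hI] at h
  convert h using 1
  ext p
  simp only [Up, Mid, Kp, N1, mem_union, mem_ofPred_eq, mem_sdiff, not_and, not_lt]
  constructor
  · rintro (⟨h1, h2⟩ | ⟨h1, h2⟩)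
    · exact ⟨⟨h1.ge, by linarith⟩, fun h3 => absurd h3 (by linarith)⟩
    · rw [abs_of_nonneg h1] at h2
      exact ⟨⟨h1, by linarith⟩, fun _ => by linarith⟩
  · rintro ⟨⟨h1, h2⟩, h3⟩
    rcases h1.lt_or_eq with h4 | h4
    · right
      exact ⟨h1, by rw [abs_of_nonneg h1]; linarith [h3 h4]⟩
    · left
      exact ⟨h4.symm, by linarith⟩

/-! ### PL maps of 296 as PL maps of 537 -/

theorem _root_.Crest.Agent.R096.Pl.PLMap.plOn {V W : Type*} [NormedAddCommGroup V]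
    [NormedSpace ℝ V] [NormedAddCommGroup W] [NormedSpace ℝ W] {f : V → W} (h : PLMap f)
    (K : Set V) : PLOn f K := by
  obtain ⟨h1, G, hG, h2⟩ := h
  exact ⟨h1.continuousOn, hG.toFinset, fun x _ => by
    obtain ⟨g, hg, e⟩ := h2 x
    exact ⟨g, hG.mem_toFinset.2 hg, e⟩⟩

/-- the restriction of a PL homeomorphism to a set and its image -/
noncomputable def ofPLH {V W : Type*} [NormedAddCommGroup V] [NormedSpace ℝ V]
    [NormedAddCommGroup W] [NormedSpace ℝ W] {H : V ≃ₜ W} (hH : PLH H) (A : Set V) :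
    PLEquiv A (H '' A) where
  f := H
  g := H.symm
  pf := hH.1.plOn A
  pg := hH.2.plOn _
  mf := fun x hx => ⟨x, hx, rfl⟩
  mg := by rintro _ ⟨x, hx, rfl⟩; simpa using hx
  li := fun x _ => by simp
  ri := fun y _ => by simp

theorem _root_.Crest.Agent.R096.Ce_537.IsBall.plh {V W : Type*} [NormedAddCommGroup V] [NormedSpace ℝ V]
    [NormedAddCommGroup W] [NormedSpace ℝ W] {H : V ≃ₜ W} (hH : PLH H) {n : ℕ} {K dK : Set V}
    (h : IsBall n K dK) : IsBall n (H '' K) (H '' dK) :=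
  h.map (ofPLH hH K)

theorem plMap_norm (k : ℕ) : PLMap (fun x : Fin k → ℝ => ‖x‖) := by
  refine PLMap.of_finite continuous_norm
    (F := insert (fun _ => 0) (range fun i : Fin k => fun x : Fin k → ℝ => |x i|))
    ((finite_range _).insert _) ?_ ?_
  · rintro g (rfl | ⟨i, rfl⟩)
    · exact PLMap.const 0
    · exact (PLMap.of_affine (LinearMap.proj i : (Fin k → ℝ) →ₗ[ℝ] ℝ).toAffineMap).abs
  · intro x
    by_cases hx : x = 0
    · exact ⟨_, mem_insert _ _, by simp [hx]⟩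
    · obtain ⟨i, hi⟩ := exists_coord hx
      exact ⟨_, mem_insert_of_mem _ ⟨i, rfl⟩, hi⟩

theorem vp_cube (k : ℕ) : VP (closedBall (0 : Fin k → ℝ) 1) := by
  refine ⟨univ.pi fun _ : Fin k => {-1, 1}, Set.Finite.pi fun _ => toFinite _, ?_⟩
  · rw [convexHull_pi]
    ext x
    rw [mem_closedBall, dist_zero_right, pi_norm_le_iff_of_nonneg zero_le_one]
    simp only [mem_univ_pi, convexHull_pair, Real.norm_eq_abs, abs_le]
    refine forall_congr' fun i => ?_
    rw [segment_eq_Icc (by norm_num)]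
    rfl

theorem polyNorm (k : ℕ) : PolyNorm (Fin k → ℝ) := ⟨plMap_norm k, vp_cube k⟩

theorem isBall_Kp (k : ℕ) : IsBall k (Kp (Fin k → ℝ)) (Eqt (Fin k → ℝ)) := by
  have h := Cx_609.isBall_of_injOn (k := k) (φ := (ep : (Fin k → ℝ) → _))
    ((ep_pl (polyNorm k)).plOn _) (fun x _ y _ e => congrArg Prod.fst e)
  have h1 : (ep : (Fin k → ℝ) → _) '' cube k = Kp (Fin k → ℝ) := ep_image
  have h2 : (ep : (Fin k → ℝ) → _) '' sph k = Eqt (Fin k → ℝ) := by
    ext p
    constructor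
    · rintro ⟨x, hx, rfl⟩
      rw [mem_sphere, dist_zero_right] at hx
      exact ⟨by simp [ep, hx], by simp [ep, hx]⟩
    · rintro ⟨h1, h2⟩
      exact ⟨p.1, by simpa using h2, by ext <;> simp [ep, h1, h2]⟩
  rw [h1, h2] at h
  exact h

theorem isBall_Km (k : ℕ) : IsBall k (Km (Fin k → ℝ)) (Eqt (Fin k → ℝ)) := by
  have h := (isBall_Kp k).plh (H := Pl.refl (Fin k → ℝ)) PLH_refl
  rwa [refl_image_Kp, refl_image_Eqt] at h

theorem isBall_Mid (k : ℕ) : IsBall k (Mid k) (Eqt (Fin k → ℝ)) := by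
  have h := Cx_609.isBall_of_injOn (k := k) (φ := fun x : Fin k → ℝ => (x, (0:ℝ)))
    ((PLMap.id.prodMk (PLMap.const 0)).plOn _) (fun x _ y _ e => congrArg Prod.fst e)
  have h1 : (fun x : Fin k → ℝ => (x, (0:ℝ))) '' cube k = Mid k := by
    ext p
    constructor
    · rintro ⟨x, hx, rfl⟩
      rw [mem_closedBall, dist_zero_right] at hx
      exact ⟨rfl, hx⟩
    · rintro ⟨h1, h2⟩
      exact ⟨p.1, by simpa using h2, by ext <;> simp [h1]⟩
  have h2 : (fun x : Fin k → ℝ => (x, (0:ℝ))) '' sph k = Eqt (Fin k → ℝ) := by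
    ext p
    constructor
    · rintro ⟨x, hx, rfl⟩
      rw [mem_sphere, dist_zero_right] at hx
      exact ⟨rfl, hx⟩
    · rintro ⟨h1, h2⟩
      exact ⟨p.1, by simpa using h2, by ext <;> simp [h1]⟩
  rw [h1, h2] at h
  exact h

theorem Mid_inter_Kp (k : ℕ) : Mid k ∩ Kp (Fin k → ℝ) = Eqt (Fin k → ℝ) := by
  ext p
  simp only [Mid, Kp, Eqt, N1, mem_inter_iff, mem_ofPred_eq]
  constructor
  · rintro ⟨⟨h1, h2⟩, h3, h4⟩
    rw [h1, abs_zero, add_zero] at h4
    exact ⟨h1, h4⟩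
  · rintro ⟨h1, h2⟩
    exact ⟨⟨h1, h2.le⟩, h1.ge, by rw [h1, h2]; simp⟩

theorem refl_image_Mid (k : ℕ) : Pl.refl (Fin k → ℝ) '' Mid k = Mid k := by
  ext p
  constructor
  · rintro ⟨q, ⟨h1, h2⟩, rfl⟩
    exact ⟨by simp [refl_apply, h1], h2⟩
  · rintro ⟨h1, h2⟩
    exact ⟨p, ⟨h1, h2⟩, by ext <;> simp [refl_apply, h1]⟩

theorem refl_image_Up (k : ℕ) : Pl.refl (Fin k → ℝ) '' Up k = Dn k := by
  ext p
  constructor
  · rintro ⟨q, ⟨h1, h2⟩, rfl⟩
    exact ⟨by simpa [refl_apply] using h1, by simpa [refl_apply] using h2⟩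
  · rintro ⟨h1, h2⟩
    exact ⟨Pl.refl _ p, ⟨by simpa [refl_apply] using h1, by simpa [refl_apply] using h2⟩,
      refl_refl p⟩

end Model

/-! ### ball pairs -/

section Pair

open Pl

variable {E F : Type*} [NormedAddCommGroup E] [NormedSpace ℝ E]
  [NormedAddCommGroup F] [NormedSpace ℝ F] {k : ℕ}

/-- any two balls of the same dimension are PL equivalent, with their boundaries -/
theorem _root_.Crest.Agent.R096.Ce_537.IsBall.exists_equiv {K dK : Set E} {L dL : Set F} (h : IsBall k K dK)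
    (h' : IsBall k L dL) : ∃ e : PLEquiv K L, e.f '' dK = dL ∧ e.g '' dL = dK := by
  obtain ⟨a, rfl⟩ := h
  obtain ⟨b, rfl⟩ := h'
  have key : ∀ (c : PLEquiv (cube k) K) (d : PLEquiv (cube k) L),
      (c.symm.trans d).f '' (c.f '' sph k) = d.f '' sph k := by
    intro c d
    rw [image_image]
    refine image_congr fun x hx => ?_
    show d.f (c.g (c.f x)) = d.f x
    rw [c.li x (sph_subset_cube hx)]
  have key' : ∀ (c : PLEquiv (cube k) L) (d : PLEquiv (cube k) K),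
      (c.symm.trans d).f '' (c.f '' sph k) = d.f '' sph k := by
    intro c d
    rw [image_image]
    refine image_congr fun x hx => ?_
    show d.f (c.g (c.f x)) = d.f x
    rw [c.li x (sph_subset_cube hx)]
  exact ⟨a.symm.trans b, key a b, key' b a⟩

/-- a `(k+1)`-ball `X` whose boundary is split into the two `k`-balls `M`, `T` with the common
boundary `Q` -/
structure BallPair (k : ℕ) (X M T Q : Set E) : Prop where
  ball : IsBall (k + 1) X (M ∪ T)
  ball₁ : IsBall k M Q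
  ball₂ : IsBall k T Q
  inter : M ∩ T = Q

theorem BallPair.symm {X M T Q : Set E} (h : BallPair k X M T Q) : BallPair k X T M Q :=
  ⟨by rw [union_comm]; exact h.ball, h.ball₂, h.ball₁, by rw [inter_comm]; exact h.inter⟩

theorem BallPair.subset₁ {X M T Q : Set E} (h : BallPair k X M T Q) : M ⊆ X :=
  subset_union_left.trans h.ball.subset

theorem BallPair.subset₂ {X M T Q : Set E} (h : BallPair k X M T Q) : T ⊆ X :=
  subset_union_right.trans h.ball.subset

theorem image_g {A : Set E} {B : Set F} (e : PLEquiv A B) {A' : Set E} {B' : Set F} (hA : A' ⊆ A)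
    (h : e.f '' A' = B') : e.g '' B' = A' := by
  rw [← h, image_image]
  refine (image_congr fun x hx => e.li x (hA hx)).trans (image_id' _)

theorem BallPair.map {X M T Q : Set E} {L : Set F} (h : BallPair k X M T Q) (e : PLEquiv X L) :
    BallPair k L (e.f '' M) (e.f '' T) (e.f '' Q) where
  ball := by rw [← image_union]; exact h.ball.map e
  ball₁ := h.ball₁.map (e.restrImage h.subset₁)
  ball₂ := h.ball₂.map (e.restrImage h.subset₂)
  inter := by
    rw [← h.inter]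
    exact (e.injOn.image_inter h.subset₁ h.subset₂).symm

/-- **relative extension**: a PL equivalence of the first halves of the boundaries extends -/
theorem BallPair.extend {X M T Q : Set E} {X' M' T' Q' : Set F} (h : BallPair k X M T Q)
    (h' : BallPair k X' M' T' Q') (e : PLEquiv M M') (he : e.f '' Q = Q') :
    ∃ e' : PLEquiv X X', EqOn e'.f e.f M ∧ EqOn e'.g e.g M' ∧ e'.f '' T = T' := by
  have hQM : Q ⊆ M := h.ball₁.subset
  have hQT : Q ⊆ T := h.ball₂.subset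
  have hQM' : Q' ⊆ M' := h'.ball₁.subset
  have heg : e.g '' Q' = Q := image_g e hQM he
  -- restrict to the common boundary and extend over `T`
  let r : PLEquiv Q Q' := e.restr hQM hQM' (fun x hx => by rw [← he]; exact ⟨x, hx, rfl⟩)
    (fun x hx => by rw [← heg]; exact ⟨x, hx, rfl⟩)
  obtain ⟨t, ht1, ht2⟩ := h.ball₂.extend h'.ball₂ r
  have c1 := h.ball₁.isClosed
  have c2 := h.ball₂.isClosed
  have c1' := h'.ball₁.isClosed
  have c2' := h'.ball₂.isClosed
  have hf : EqOn e.f t.f (M ∩ T) := by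
    intro x hx
    rw [h.inter] at hx
    exact (ht1 hx).symm
  have hg : EqOn e.g t.g (M' ∩ T') := by
    intro x hx
    rw [h'.inter] at hx
    exact (ht2 hx).symm
  let u : PLEquiv (M ∪ T) (M' ∪ T') := glue e t c1 c2 c1' c2' hf hg
  obtain ⟨e', h1, h2⟩ := h.ball.extend h'.ball u
  refine ⟨e', ?_, ?_, ?_⟩
  · intro x hx
    rw [h1 (Or.inl hx)]
    exact glue_f₁ e t c1 c2 c1' c2' hf hg hx
  · intro x hx
    rw [h2 (Or.inl hx)]
    exact glue_g₁ e t c1 c2 c1' c2' hf hg hx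
  · have : e'.f '' T = t.f '' T := by
      refine image_congr fun x hx => ?_
      rw [h1 (Or.inr hx)]
      exact glue_f₂ e t c1 c2 c1' c2' hf hg hx
    rw [this, t.image_eq]

theorem ballPair_up (k : ℕ) : BallPair k (Up k) (Mid k) (Kp (Fin k → ℝ)) (Eqt (Fin k → ℝ)) :=
  ⟨isBall_up k, isBall_Mid k, isBall_Kp k, Mid_inter_Kp k⟩

theorem ballPair_dn (k : ℕ) : BallPair k (Dn k) (Mid k) (Km (Fin k → ℝ)) (Eqt (Fin k → ℝ)) := by
  have h := (ballPair_up k).map (ofPLH (H := Pl.refl (Fin k → ℝ)) PLH_refl (Up k))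
  have e : (ofPLH (H := Pl.refl (Fin k → ℝ)) PLH_refl (Up k)).f = Pl.refl (Fin k → ℝ) := rfl
  rw [e, refl_image_Mid, refl_image_Kp, refl_image_Eqt, refl_image_Up] at h
  exact h

theorem ballPair_dbl (k : ℕ) : BallPair k {p : (Fin k → ℝ) × ℝ | N1 p ≤ 1} (Kp (Fin k → ℝ))
    (Km (Fin k → ℝ)) (Eqt (Fin k → ℝ)) :=
  ⟨by rw [Kp_union_Km]; exact isBall_dbl k, isBall_Kp k, isBall_Km k, Kp_inter_Km⟩

theorem Up_union_Dn (k : ℕ) : Up k ∪ Dn k = {p : (Fin k → ℝ) × ℝ | N1 p ≤ 1} := by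
  ext p
  simp only [Up, Dn, N1, mem_union, mem_ofPred_eq]
  constructor
  · rintro (⟨h1, h2⟩ | ⟨h1, h2⟩)
    · rw [abs_of_nonneg h1]; linarith
    · rw [abs_of_nonpos h1]; linarith
  · intro h
    rcases le_total 0 p.2 with h1 | h1
    · left; rw [abs_of_nonneg h1] at h; exact ⟨h1, by linarith⟩
    · right; rw [abs_of_nonpos h1] at h; exact ⟨h1, by linarith⟩

theorem Up_inter_Dn (k : ℕ) : Up k ∩ Dn k = Mid k := by
  ext p
  simp only [Up, Dn, Mid, mem_inter_iff, mem_ofPred_eq]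
  constructor
  · rintro ⟨⟨h1, h2⟩, h3, h4⟩
    have h0 : p.2 = 0 := le_antisymm h3 h1
    rw [h0, zero_add] at h2
    exact ⟨h0, h2⟩
  · rintro ⟨h1, h2⟩
    simp [h1, h2]

/-- **gluing of balls**: two `(k+1)`-balls `K₁`, `K₂` meeting exactly in a `k`-ball `D` of both
boundaries, the complementary parts of the boundaries being balls -/
theorem BallPair.glue {K₁ K₂ D D₁ D₂ Q : Set E} (h₁ : BallPair k K₁ D D₁ Q)
    (h₂ : BallPair k K₂ D D₂ Q) (hK : K₁ ∩ K₂ = D) : BallPair k (K₁ ∪ K₂) D₁ D₂ Q := by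
  obtain ⟨e0, he0, -⟩ := (isBall_Mid k).exists_equiv h₁.ball₁
  obtain ⟨e1, h11, h12, h13⟩ := (ballPair_up k).extend h₁ e0 he0
  obtain ⟨e2, h21, h22, h23⟩ := (ballPair_dn k).extend h₂ e0 he0
  have c1 := (isBall_up k).isClosed
  have c2 := (ballPair_dn k).ball.isClosed
  have c1' := h₁.ball.isClosed
  have c2' := h₂.ball.isClosed
  have hf : EqOn e1.f e2.f (Up k ∩ Dn k) := by
    rw [Up_inter_Dn]
    intro x hx
    rw [h11 hx, h21 hx]
  have hg : EqOn e1.g e2.g (K₁ ∩ K₂) := by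
    rw [hK]
    intro x hx
    rw [h12 hx, h22 hx]
  let u : PLEquiv (Up k ∪ Dn k) (K₁ ∪ K₂) := Cb_609.glue e1 e2 c1 c2 c1' c2' hf hg
  have hP := ballPair_dbl k
  rw [← Up_union_Dn] at hP
  have h := hP.map u
  have a1 : u.f '' Kp (Fin k → ℝ) = D₁ := by
    rw [← h13]
    exact image_congr fun x hx =>
      glue_f₁ e1 e2 c1 c2 c1' c2' hf hg ((ballPair_up k).subset₂ hx)
  have a2 : u.f '' Km (Fin k → ℝ) = D₂ := by
    rw [← h23]
    exact image_congr fun x hx =>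
      glue_f₂ e1 e2 c1 c2 c1' c2' hf hg ((ballPair_dn k).subset₂ hx)
  have a3 : u.f '' Eqt (Fin k → ℝ) = Q := by
    rw [← he0]
    refine image_congr fun x hx => ?_
    have hxm : x ∈ Mid k := (isBall_Mid k).subset hx
    rw [← h11 hxm]
    exact glue_f₁ e1 e2 c1 c2 c1' c2' hf hg ((ballPair_up k).subset₁ hxm)
  rw [a1, a2, a3] at h
  exact h

/-- gluing of balls, unbundled -/
theorem _root_.Crest.Agent.R096.Ce_537.IsBall.glue {K₁ K₂ D D₁ D₂ Q : Set E} (h₁ : IsBall (k + 1) K₁ (D ∪ D₁))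
    (h₂ : IsBall (k + 1) K₂ (D ∪ D₂)) (hD : IsBall k D Q) (hD₁ : IsBall k D₁ Q)
    (hD₂ : IsBall k D₂ Q) (i₁ : D ∩ D₁ = Q) (i₂ : D ∩ D₂ = Q) (hK : K₁ ∩ K₂ = D) :
    IsBall (k + 1) (K₁ ∪ K₂) (D₁ ∪ D₂) :=
  (BallPair.glue ⟨h₁, hD, hD₁, i₁⟩ ⟨h₂, hD, hD₂, i₂⟩ hK).ball

end Pair

end Crest.Agent.R096.Cb_609
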