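import Crest.Agent.R096.Cb1_609

/-!
# R096 (row 96), CE3 ball calculus, part 2: compact cell by cell extension, products, cones
(helper609)

* `cellExt_finite`: two finite complexes of balls (no openness) with the same poset are PL
  equivalent, relative to a closed subcomplex.
* `IsBall.prod`: products of balls.
* `isBall_point`, `isBall_segment`.
* `IsBall.coneFrom`: the embedded cone over a ball is a ball.
-/

set_option autoImplicit false

open Set Metric

namespace Crest.Agent.R096.Cb_609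

open Ce_537

section Finite

variable {E F : Type*} [NormedAddCommGroup E] [NormedSpace ℝ E]
  [NormedAddCommGroup F] [NormedSpace ℝ F]
variable {Ω : Set E} {Λ : Set F} {I : Type*} [PartialOrder I] {dim : I → ℕ}
  {K : I → Set E} {K' : I → Set F}

theorem Cplx_eq_iUnion (C : Cplx Ω I dim K) : Ω = ⋃ i ∈ (univ : Set I), K i := by
  ext x
  constructor
  · intro hx
    obtain ⟨i, hi⟩ := C.cover x hx
    exact mem_biUnion (mem_univ i) hi
  · intro hx
    obtain ⟨i, -, hi⟩ := mem_iUnion₂.1 hx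
    exact C.sub i hi

/-- **cell by cell extension, finite complexes, relative form** -/
theorem cellExt_finite_rel [Finite I] (C : Cplx Ω I dim K) (C' : Cplx Λ I dim K')
    (J : Set I) (hJ : ∀ i ∈ J, ∀ j < i, j ∈ J) (h0 : E → F) (g0 : F → E)
    (pf : ∀ i ∈ J, PLOn h0 (K i)) (pg : ∀ i ∈ J, PLOn g0 (K' i))
    (mf : ∀ i ∈ J, MapsTo h0 (K i) (K' i)) (mg : ∀ i ∈ J, MapsTo g0 (K' i) (K i))
    (li : ∀ i ∈ J, ∀ x ∈ K i, g0 (h0 x) = x) (ri : ∀ i ∈ J, ∀ y ∈ K' i, h0 (g0 y) = y) :
    ∃ e : PLEquiv Ω Λ, (∀ i, e.f '' K i = K' i) ∧ (∀ i, e.g '' K' i = K i) ∧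
      (∀ i ∈ J, EqOn e.f h0 (K i)) ∧ (∀ i ∈ J, EqOn e.g g0 (K' i)) := by
  classical
  have hb1 := C.isBall
  have hb2 := C'.isBall
  choose a ha using hb1
  choose b hb using hb2
  set H := Hf dim K K' a b J h0 with hH
  set H' := Hf dim K' K b a J g0 with hH'
  have hG : ∀ i, Good K K' H H' i :=
    good_all C C' a b ha hb J hJ h0 g0 pf pg mf mg li ri
  set h := glob K H with hh
  set g := glob K' H' with hg
  have eh : ∀ i, ∀ x ∈ K i, h x = H i x := fun i x hx =>
    glob_eq C H hx (fun j hj hxj => (hG i).cf j hj x hxj)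
  have eg : ∀ i, ∀ y ∈ K' i, g y = H' i y := fun i y hy =>
    glob_eq C' H' hy (fun j hj hyj => (hG i).cg j hj y hyj)
  have mh : ∀ i, MapsTo h (K i) (K' i) := fun i x hx => by
    rw [eh i x hx]; exact (hG i).mf hx
  have mg' : ∀ i, MapsTo g (K' i) (K i) := fun i y hy => by
    rw [eg i y hy]; exact (hG i).mg hy
  have lh : ∀ i, ∀ x ∈ K i, g (h x) = x := fun i x hx => by
    rw [eg i _ (mh i hx), eh i x hx]; exact (hG i).li x hx
  have rh : ∀ i, ∀ y ∈ K' i, h (g y) = y := fun i y hy => by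
    rw [eh i _ (mg' i hy), eg i y hy]; exact (hG i).ri y hy
  have ph : ∀ i, PLOn h (K i) := fun i => (hG i).pf.congr (eh i)
  have pg2 : ∀ i, PLOn g (K' i) := fun i => (hG i).pg.congr (eg i)
  refine ⟨⟨h, g, ?_, ?_, ?_, ?_, ?_, ?_⟩, fun i => ?_, fun i => ?_, ?_, ?_⟩
  · rw [Cplx_eq_iUnion C]
    exact plOn_biUnion _ finite_univ (fun i _ => ph i) (fun i _ => C.isClosed i)
  · rw [Cplx_eq_iUnion C']
    exact plOn_biUnion _ finite_univ (fun i _ => pg2 i) (fun i _ => C'.isClosed i)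
  · intro x hx
    obtain ⟨i, hi⟩ := C.cover x hx
    exact C'.sub i (mh i hi)
  · intro x hx
    obtain ⟨i, hi⟩ := C'.cover x hx
    exact C.sub i (mg' i hi)
  · intro x hx
    obtain ⟨i, hi⟩ := C.cover x hx
    exact lh i x hi
  · intro x hx
    obtain ⟨i, hi⟩ := C'.cover x hx
    exact rh i x hi
  · ext y
    constructor
    · rintro ⟨x, hx, rfl⟩; exact mh i hx
    · intro hy; exact ⟨g y, mg' i hy, rh i y hy⟩
  · ext y
    constructor
    · rintro ⟨x, hx, rfl⟩; exact mg' i hx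
    · intro hy; exact ⟨h y, mh i hy, lh i y hy⟩
  · intro i hi x hx
    show h x = h0 x
    rw [eh i x hx, hH, Hf_eq, if_pos hi]
  · intro i hi y hy
    show g y = g0 y
    rw [eg i y hy, hH', Hf_eq, if_pos hi]

/-- **cell by cell extension, finite complexes** -/
theorem cellExt_finite [Finite I] (C : Cplx Ω I dim K) (C' : Cplx Λ I dim K') :
    ∃ e : PLEquiv Ω Λ, (∀ i, e.f '' K i = K' i) ∧ (∀ i, e.g '' K' i = K i) := by
  obtain ⟨e, h1, h2, -⟩ := cellExt_finite_rel C C' ∅ (by simp) 0 0 (by simp) (by simp) (by simp)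
    (by simp) (by simp) (by simp)
  exact ⟨e, h1, h2⟩

end Finite

/-! ### products -/

section Prod

variable {E F E' F' : Type*} [NormedAddCommGroup E] [NormedSpace ℝ E]
  [NormedAddCommGroup F] [NormedSpace ℝ F] [NormedAddCommGroup E'] [NormedSpace ℝ E']
  [NormedAddCommGroup F'] [NormedSpace ℝ F']

theorem PLOn_prodMap {f : E → F} {f' : E' → F'} {A : Set E} {A' : Set E'} (h : PLOn f A)
    (h' : PLOn f' A') : PLOn (fun p : E × E' => (f p.1, f' p.2)) (A ×ˢ A') := by
  classical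
  obtain ⟨c, S, hS⟩ := h
  obtain ⟨c', S', hS'⟩ := h'
  refine ⟨?_, (S ×ˢ S').image (fun p => (p.1.comp AffineMap.fst).prod (p.2.comp AffineMap.snd)), ?_⟩
  · exact (c.comp continuousOn_fst (fun p hp => hp.1)).prodMk
      (c'.comp continuousOn_snd (fun p hp => hp.2))
  · rintro ⟨x, y⟩ ⟨hx, hy⟩
    obtain ⟨a, ha, e1⟩ := hS x hx
    obtain ⟨b, hb, e2⟩ := hS' y hy
    refine ⟨_, Finset.mem_image.2 ⟨(a, b), Finset.mem_product.2 ⟨ha, hb⟩, rfl⟩, ?_⟩
    show (f x, f' y) = (a x, b y)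
    rw [e1, e2]

/-- product of PL equivalences -/
def prodEquiv {A : Set E} {B : Set F} {A' : Set E'} {B' : Set F'} (e : PLEquiv A B)
    (e' : PLEquiv A' B') : PLEquiv (A ×ˢ A') (B ×ˢ B') where
  f := fun p => (e.f p.1, e'.f p.2)
  g := fun p => (e.g p.1, e'.g p.2)
  pf := PLOn_prodMap e.pf e'.pf
  pg := PLOn_prodMap e.pg e'.pg
  mf := fun _ hp => ⟨e.mf hp.1, e'.mf hp.2⟩
  mg := fun _ hp => ⟨e.mg hp.1, e'.mg hp.2⟩
  li := fun p hp => by rw [e.li _ hp.1, e'.li _ hp.2]
  ri := fun p hp => by rw [e.ri _ hp.1, e'.ri _ hp.2]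

/-- the linear identification of `ℝ^(j+k)` and `ℝ^j × ℝ^k` -/
noncomputable def app (j k : ℕ) : ((Fin j → ℝ) × (Fin k → ℝ)) ≃ₗ[ℝ] (Fin (j + k) → ℝ) :=
  (LinearEquiv.sumArrowLequivProdArrow (Fin j) (Fin k) ℝ ℝ).symm ≪≫ₗ
    LinearEquiv.funCongrLeft ℝ ℝ finSumFinEquiv.symm

theorem norm_app (j k : ℕ) (p : (Fin j → ℝ) × (Fin k → ℝ)) : ‖app j k p‖ = ‖p‖ := by
  have h : ∀ s : Fin j ⊕ Fin k, app j k p (finSumFinEquiv s) = Sum.elim p.1 p.2 s := by
    intro s
    simp only [app, LinearEquiv.trans_apply, LinearEquiv.funCongrLeft_apply,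
      LinearMap.funLeft_apply, Equiv.symm_apply_apply]
    cases s <;> rfl
  apply le_antisymm
  · rw [pi_norm_le_iff_of_nonneg (norm_nonneg p)]
    intro i
    obtain ⟨s, rfl⟩ := finSumFinEquiv.surjective i
    rw [h]
    cases s with
    | inl a => exact (norm_le_pi_norm p.1 a).trans (norm_fst_le p)
    | inr a => exact (norm_le_pi_norm p.2 a).trans (norm_snd_le p)
  · rw [Prod.norm_def]
    refine max_le ?_ ?_
    · rw [pi_norm_le_iff_of_nonneg (norm_nonneg _)]
      intro a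
      have := norm_le_pi_norm (app j k p) (finSumFinEquiv (Sum.inl a))
      rwa [h] at this
    · rw [pi_norm_le_iff_of_nonneg (norm_nonneg _)]
      intro a
      have := norm_le_pi_norm (app j k p) (finSumFinEquiv (Sum.inr a))
      rwa [h] at this

/-- linear equivalences as PL equivalences onto the image -/
noncomputable def ofLin [FiniteDimensional ℝ E] [FiniteDimensional ℝ F] (L : E ≃ₗ[ℝ] F)
    {A : Set E} {B : Set F} (h : ∀ x, L x ∈ B ↔ x ∈ A) : PLEquiv A B where
  f := L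
  g := L.symm
  pf := plOn_affine (L : E →ₗ[ℝ] F).toAffineMap A
  pg := plOn_affine (L.symm : F →ₗ[ℝ] E).toAffineMap B
  mf := fun x hx => (h x).2 hx
  mg := fun y hy => by rw [← h, L.apply_symm_apply]; exact hy
  li := fun x _ => L.symm_apply_apply x
  ri := fun y _ => L.apply_symm_apply y

theorem isBall_cube_prod (j k : ℕ) :
    IsBall (j + k) (cube j ×ˢ cube k) (sph j ×ˢ cube k ∪ cube j ×ˢ sph k) := by
  let e : PLEquiv (cube (j + k)) (cube j ×ˢ cube k) := ofLin (app j k).symm (fun x => by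
    have h := norm_app j k ((app j k).symm x)
    rw [LinearEquiv.apply_symm_apply] at h
    simp only [cube, mem_prod, mem_closedBall, dist_zero_right]
    rw [h, Prod.norm_def, max_le_iff])
  refine ⟨e, ?_⟩
  ext p
  constructor
  · rintro ⟨x, hx, rfl⟩
    have h := norm_app j k ((app j k).symm x)
    rw [LinearEquiv.apply_symm_apply] at h
    rw [mem_sphere, dist_zero_right, h, Prod.norm_def] at hx
    show (app j k).symm x ∈ _
    simp only [sph, cube, mem_union, mem_prod, mem_closedBall, mem_sphere, dist_zero_right]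
    rcases max_choice ‖((app j k).symm x).1‖ ‖((app j k).symm x).2‖ with h1 | h1
    · left
      rw [h1] at hx
      exact ⟨hx, by rw [← hx]; rw [← h1]; exact le_max_right _ _⟩
    · right
      rw [h1] at hx
      exact ⟨by rw [← hx]; rw [← h1]; exact le_max_left _ _, hx⟩
  · intro hp
    refine ⟨app j k p, ?_, (app j k).symm_apply_apply p⟩
    rw [mem_sphere, dist_zero_right, norm_app, Prod.norm_def]
    simp only [sph, cube, mem_union, mem_prod, mem_closedBall, mem_sphere, dist_zero_right] at hp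
    rcases hp with ⟨h1, h2⟩ | ⟨h1, h2⟩
    · rw [h1]; exact max_eq_left h2
    · rw [h2]; exact max_eq_right h1

/-- **products of balls** -/
theorem _root_.Crest.Agent.R096.Ce_537.IsBall.prod {j k : ℕ} {K dK : Set E} {L dL : Set F}
    (h : IsBall j K dK) (h' : IsBall k L dL) :
    IsBall (j + k) (K ×ˢ L) (dK ×ˢ L ∪ K ×ˢ dL) := by
  obtain ⟨a, rfl⟩ := h
  obtain ⟨b, rfl⟩ := h'
  have h := (isBall_cube_prod j k).map (prodEquiv a b)
  convert h using 1
  rw [image_union]
  have e : ∀ (A : Set (Fin j → ℝ)) (B : Set (Fin k → ℝ)),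
      (prodEquiv a b).f '' (A ×ˢ B) = (a.f '' A) ×ˢ (b.f '' B) := fun A B =>
    (prodMap_image_prod a.f b.f A B)
  rw [e, e, a.image_eq, b.image_eq]

end Prod

/-! ### points and segments -/

section Seg

variable {E : Type*} [NormedAddCommGroup E] [NormedSpace ℝ E]

theorem isBall_point (a : E) : IsBall 0 ({a} : Set E) ∅ := by
  refine ⟨⟨fun _ => a, fun _ => 0, plOn_const _ _, plOn_const _ _, fun _ _ => rfl,
    fun _ _ => by simp [cube], fun x _ => Subsingleton.elim _ _, fun y hy => hy.symm⟩, ?_⟩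
  rw [image_eq_empty]
  ext x
  constructor
  · intro hx
    rw [mem_sphere, dist_zero_right, Subsingleton.elim x 0, norm_zero] at hx
    norm_num at hx
  · simp

theorem isBall_segment [FiniteDimensional ℝ E] {a b : E} (h : a ≠ b) :
    IsBall 1 (segment ℝ a b) {a, b} := by
  -- the affine map of the cube onto the segment
  let φ : (Fin 1 → ℝ) →ᵃ[ℝ] E :=
    (AffineMap.lineMap a b : ℝ →ᵃ[ℝ] E).comp
      ((1/2 : ℝ) • ((LinearMap.proj 0 : (Fin 1 → ℝ) →ₗ[ℝ] ℝ).toAffineMap) +
        AffineMap.const ℝ (Fin 1 → ℝ) (1/2 : ℝ))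
  have hφ : ∀ x, φ x = AffineMap.lineMap a b (1/2 * x 0 + 1/2 : ℝ) := fun x => rfl
  have hinj : InjOn φ (cube 1) := by
    intro x _ y _ e
    rw [hφ, hφ] at e
    have := AffineMap.lineMap_injective ℝ h e
    ext i
    rw [Subsingleton.elim i 0]
    linarith
  have h1 := Cx_609.isBall_of_injOn (k := 1) (φ := φ) (plOn_affine φ _) hinj
  have hn : ∀ x : Fin 1 → ℝ, ‖x‖ = |x 0| := by
    intro x
    rw [← Real.norm_eq_abs]
    apply le_antisymm
    · rw [pi_norm_le_iff_of_nonneg (norm_nonneg _)]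
      intro i; rw [Subsingleton.elim i 0]
    · exact norm_le_pi_norm x 0
  have e1 : φ '' cube 1 = segment ℝ a b := by
    rw [segment_eq_image_lineMap]
    ext y
    constructor
    · rintro ⟨x, hx, rfl⟩
      rw [mem_closedBall, dist_zero_right, hn, abs_le] at hx
      exact ⟨_, ⟨by linarith [hx.1], by linarith [hx.2]⟩, (hφ x).symm⟩
    · rintro ⟨t, ht, rfl⟩
      refine ⟨fun _ => 2 * t - 1, ?_, ?_⟩
      · rw [mem_closedBall, dist_zero_right, hn, abs_le]
        constructor <;> linarith [ht.1, ht.2]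
      · rw [hφ]; congr 1; ring
  have e2 : φ '' sph 1 = {a, b} := by
    ext y
    constructor
    · rintro ⟨x, hx, rfl⟩
      rw [mem_sphere, dist_zero_right, hn] at hx
      rw [hφ]
      rcases (abs_eq zero_le_one).1 hx with h2 | h2
      · right; rw [h2]; norm_num
      · left; rw [h2]; norm_num
    · rintro (rfl | rfl)
      · refine ⟨fun _ => -1, ?_, ?_⟩
        · rw [mem_sphere, dist_zero_right, hn]; norm_num
        · rw [hφ]; norm_num
      · refine ⟨fun _ => 1, ?_, ?_⟩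
        · rw [mem_sphere, dist_zero_right, hn]; norm_num
        · rw [hφ]; norm_num
  rw [e1, e2] at h1
  exact h1

end Seg

/-! ### cones -/

section Cone

open Pl

variable {E : Type*} [NormedAddCommGroup E] [NormedSpace ℝ E] {k : ℕ}

/-- the cone over `K` with apex `v` -/
def coneSet (v : E) (K : Set E) : Set E := {y | ∃ x ∈ K, ∃ t ∈ Icc (0:ℝ) 1, y = (1 - t) • x + t • v}

/-- the conical extension of a map of the cube to the pyramid -/
noncomputable def cmap (φ : (Fin k → ℝ) → E) (v : E) (p : (Fin k → ℝ) × ℝ) : E :=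
  (1 - p.2) • φ ((1 - p.2)⁻¹ • p.1) + p.2 • v

/-- the conical extension of an affine map -/
noncomputable def caff (a : (Fin k → ℝ) →ᵃ[ℝ] E) (v : E) : ((Fin k → ℝ) × ℝ) →ᵃ[ℝ] E :=
  ((a.linear.comp (LinearMap.fst ℝ (Fin k → ℝ) ℝ)) +
    (LinearMap.snd ℝ (Fin k → ℝ) ℝ).smulRight (v - a 0)).toAffineMap + AffineMap.const ℝ _ (a 0)

theorem caff_apply (a : (Fin k → ℝ) →ᵃ[ℝ] E) (v : E) (p : (Fin k → ℝ) × ℝ) :
    caff a v p = a.linear p.1 + (1 - p.2) • a 0 + p.2 • v := by
  show a.linear p.1 + p.2 • (v - a 0) + a 0 = _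
  module

theorem mem_cube_of_up {p : (Fin k → ℝ) × ℝ} (hp : p ∈ Up k) (h1 : p.2 < 1) :
    (1 - p.2)⁻¹ • p.1 ∈ cube k := by
  have h2 : 0 < 1 - p.2 := by linarith
  rw [mem_closedBall, dist_zero_right, norm_smul, Real.norm_eq_abs, abs_inv, abs_of_pos h2,
    inv_mul_le_iff₀ h2, mul_one]
  linarith [hp.2]

theorem up_eq_of_one {p : (Fin k → ℝ) × ℝ} (hp : p ∈ Up k) (h1 : p.2 = 1) : p.1 = 0 := by
  have := hp.2
  rw [h1] at this
  have h2 := norm_nonneg p.1
  exact norm_eq_zero.1 (le_antisymm (by linarith) h2)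

theorem up_le_one {p : (Fin k → ℝ) × ℝ} (hp : p ∈ Up k) : p.2 ≤ 1 := by
  have := hp.2
  have h2 := norm_nonneg p.1
  linarith

theorem cmap_sel {φ : (Fin k → ℝ) → E} {S : Finset ((Fin k → ℝ) →ᵃ[ℝ] E)}
    (hS : ∀ x ∈ cube k, ∃ g ∈ S, φ x = g x) (v : E) {p : (Fin k → ℝ) × ℝ} (hp : p ∈ Up k) :
    ∃ g ∈ S, cmap φ v p = caff g v p := by
  rcases (up_le_one hp).lt_or_eq with h1 | h1
  · obtain ⟨g, hg, e⟩ := hS _ (mem_cube_of_up hp h1)
    refine ⟨g, hg, ?_⟩
    have h2 : 1 - p.2 ≠ 0 := by linarith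
    have h3 : g ((1 - p.2)⁻¹ • p.1) = (1 - p.2)⁻¹ • g.linear p.1 + g 0 := by
      have := g.map_vadd 0 ((1 - p.2)⁻¹ • p.1)
      simpa using this
    rw [cmap, e, caff_apply, h3, smul_add, smul_smul, mul_inv_cancel₀ h2, one_smul]
  · obtain ⟨g, hg, -⟩ := hS 0 (by simp [cube])
    refine ⟨g, hg, ?_⟩
    rw [cmap, caff_apply, h1, up_eq_of_one hp h1]
    simp

theorem cmap_plOn {φ : (Fin k → ℝ) → E} (hφ : PLOn φ (cube k)) (v : E) :
    PLOn (cmap φ v) (Up k) := by
  classical
  obtain ⟨hc, S, hS⟩ := hφ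
  refine ⟨?_, S.image (fun a => caff a v), fun p hp => ?_⟩
  swap
  · obtain ⟨g, hg, e⟩ := cmap_sel hS v hp
    exact ⟨_, Finset.mem_image_of_mem _ hg, e⟩
  intro p hp
  rcases (up_le_one hp).lt_or_eq with h1 | h1
  · have ho : {q : (Fin k → ℝ) × ℝ | q.2 < 1} ∈ nhds p :=
      (isOpen_lt continuous_snd continuous_const).mem_nhds h1
    have h2 : ContinuousWithinAt (cmap φ v) (Up k ∩ {q | q.2 < 1}) p := by
      have h3 : ContinuousOn (cmap φ v) (Up k ∩ {q | q.2 < 1}) := by
        have h4 : ContinuousOn (fun q : (Fin k → ℝ) × ℝ => (1 - q.2)⁻¹ • q.1)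
            (Up k ∩ {q | q.2 < 1}) := by
          have h8 : ContinuousOn (fun q : (Fin k → ℝ) × ℝ => 1 - q.2) (Up k ∩ {q | q.2 < 1}) := by
            fun_prop
          have h9 : ContinuousOn (fun q : (Fin k → ℝ) × ℝ => q.1) (Up k ∩ {q | q.2 < 1}) := by
            fun_prop
          refine (h8.inv₀ ?_).smul h9
          intro q hq
          have : q.2 < 1 := hq.2
          linarith
        have h5 := hc.comp h4 (fun q hq => mem_cube_of_up hq.1 hq.2)
        have h6 : ContinuousOn (fun q : (Fin k → ℝ) × ℝ => 1 - q.2) (Up k ∩ {q | q.2 < 1}) := by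
          fun_prop
        have h7 : ContinuousOn (fun q : (Fin k → ℝ) × ℝ => q.2 • v) (Up k ∩ {q | q.2 < 1}) := by
          fun_prop
        exact (h6.smul h5).add h7
      exact h3 p ⟨hp, h1⟩
    exact (continuousWithinAt_inter ho).1 h2
  · have e0 : cmap φ v p = v := by rw [cmap, h1]; simp
    have key : ∀ q ∈ Up k, dist (cmap φ v q) (cmap φ v p) ≤ ∑ a ∈ S, ‖caff a v q - v‖ := by
      intro q hq
      obtain ⟨g, hg, e⟩ := cmap_sel hS v hq
      rw [e0, e, dist_eq_norm]
      exact Finset.single_le_sum (f := fun a => ‖caff a v q - v‖) (fun a _ => norm_nonneg _) hg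
    have hlim : Filter.Tendsto (fun q : (Fin k → ℝ) × ℝ => ∑ a ∈ S, ‖caff a v q - v‖)
        (nhdsWithin p (Up k)) (nhds 0) := by
      have hcont : Continuous (fun q : (Fin k → ℝ) × ℝ => ∑ a ∈ S, ‖caff a v q - v‖) := by
        refine continuous_finsetSum _ fun a _ => ?_
        exact ((AffineMap.continuous_of_finiteDimensional (caff a v)).sub continuous_const).norm
      have h0 : ∑ a ∈ S, ‖caff a v p - v‖ = 0 := by
        refine Finset.sum_eq_zero fun a _ => ?_
        rw [caff_apply, h1, up_eq_of_one hp h1]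
        simp
      have := (hcont.tendsto p).mono_left (nhdsWithin_le_nhds (s := Up k))
      rwa [h0] at this
    rw [ContinuousWithinAt, tendsto_iff_dist_tendsto_zero]
    refine squeeze_zero' (Filter.Eventually.of_forall fun _ => dist_nonneg) ?_ hlim
    filter_upwards [self_mem_nhdsWithin] with q hq using key q hq

/-- `K` is in general position with respect to the apex `v`: the cone is embedded -/
def Joinable (v : E) (K : Set E) : Prop :=
  ∀ x ∈ K, ∀ x' ∈ K, ∀ t ∈ Ico (0:ℝ) 1, ∀ t' ∈ Icc (0:ℝ) 1,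
    (1 - t) • x + t • v = (1 - t') • x' + t' • v → x = x' ∧ t = t'

theorem BallPair.image_injOn {E F : Type*} [NormedAddCommGroup E] [NormedSpace ℝ E]
    [NormedAddCommGroup F] [NormedSpace ℝ F] [FiniteDimensional ℝ E] [FiniteDimensional ℝ F]
    {X M T Q : Set E} (h : BallPair k X M T Q) {f : E → F} (hf : PLOn f X) (hi : InjOn f X) :
    BallPair k (f '' X) (f '' M) (f '' T) (f '' Q) :=
  h.map (Cx_609.equivOfInjOn (Cx_609.isBall_iff.1 h.ball).finConv h.ball.isClosed hf hi)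

/-- **the cone over a ball is a ball** (pair form) -/
theorem BallPair.coneFrom [FiniteDimensional ℝ E] {K dK : Set E} {v : E} (h : IsBall k K dK)
    (hv : Joinable v K) : BallPair k (coneSet v K) K (insert v (coneSet v dK)) dK := by
  classical
  obtain ⟨a, rfl⟩ := h
  have hpl := cmap_plOn a.pf v
  have hmem : ∀ p ∈ Up k, p.2 < 1 → a.f ((1 - p.2)⁻¹ • p.1) ∈ K := fun p hp h1 =>
    a.mf (mem_cube_of_up hp h1)
  have hv1 : ∀ p ∈ Up k, p.2 = 1 → cmap a.f v p = v := by
    intro p hp h1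
    rw [cmap, h1]; simp
  have hinj : InjOn (cmap a.f v) (Up k) := by
    -- first: equality with the first point not the apex
    have key : ∀ p ∈ Up k, ∀ q ∈ Up k, p.2 < 1 → cmap a.f v p = cmap a.f v q → p = q := by
      intro p hp q hq h1 e
      rcases (up_le_one hq).lt_or_eq with h2 | h2
      · obtain ⟨e1, e2⟩ := hv _ (hmem p hp h1) _ (hmem q hq h2) p.2 ⟨hp.1, h1⟩ q.2 ⟨hq.1, h2.le⟩ e
        have e3 := a.injOn (mem_cube_of_up hp h1) (mem_cube_of_up hq h2) e1
        rw [← e2] at e3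
        have h3 : (1 - p.2)⁻¹ ≠ 0 := inv_ne_zero (by linarith)
        exact Prod.ext (smul_right_injective _ h3 e3) e2
      · rw [hv1 q hq h2] at e
        have hx := hmem p hp h1
        obtain ⟨-, e2⟩ := hv _ hx _ hx p.2 ⟨hp.1, h1⟩ 1 ⟨zero_le_one, le_rfl⟩ (by
          rw [show (1 - p.2) • a.f ((1 - p.2)⁻¹ • p.1) + p.2 • v = v from e]; simp)
        linarith
    intro p hp q hq e
    rcases (up_le_one hp).lt_or_eq with h1 | h1
    · exact key p hp q hq h1 e
    · rcases (up_le_one hq).lt_or_eq with h2 | h2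
      · exact (key q hq p hp h2 e.symm).symm
      · exact Prod.ext ((up_eq_of_one hp h1).trans (up_eq_of_one hq h2).symm) (h1.trans h2.symm)
  have h := (ballPair_up k).image_injOn hpl hinj
  have hc : ∀ z : Fin k → ℝ, ∀ t : ℝ, t < 1 →
      cmap a.f v ((1 - t) • z, t) = (1 - t) • a.f z + t • v := by
    intro z t ht
    have h3 : 1 - t ≠ 0 := by linarith
    simp only [cmap, smul_smul, inv_mul_cancel₀ h3, one_smul]
  have e1 : cmap a.f v '' Up k = coneSet v K := by
    ext y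
    constructor
    · rintro ⟨p, hp, rfl⟩
      rcases (up_le_one hp).lt_or_eq with h1 | h1
      · exact ⟨_, hmem p hp h1, p.2, ⟨hp.1, h1.le⟩, rfl⟩
      · exact ⟨a.f 0, a.mf (by simp [cube]), 1, ⟨zero_le_one, le_rfl⟩, by rw [hv1 p hp h1]; simp⟩
    · rintro ⟨x, hx, t, ht, rfl⟩
      rcases ht.2.lt_or_eq with h1 | h1
      · refine ⟨((1 - t) • a.g x, t), ⟨ht.1, ?_⟩, ?_⟩
        · have h2 := a.mg hx
          rw [mem_closedBall, dist_zero_right] at h2
          have h3 : 0 < 1 - t := by linarith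
          show t + ‖(1 - t) • a.g x‖ ≤ 1
          rw [norm_smul, Real.norm_eq_abs, abs_of_pos h3]
          nlinarith
        · rw [hc _ _ h1, a.ri x hx]
      · refine ⟨(0, 1), ⟨zero_le_one, by simp⟩, ?_⟩
        rw [h1]; simp [cmap]
  have e2 : cmap a.f v '' Mid k = K := by
    ext y
    constructor
    · rintro ⟨p, ⟨hp1, hp2⟩, rfl⟩
      have : cmap a.f v p = a.f p.1 := by simp [cmap, hp1]
      rw [this]
      exact a.mf (by simpa using hp2)
    · intro hy
      refine ⟨(a.g y, 0), ⟨rfl, by simpa using a.mg hy⟩, ?_⟩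
      simp [cmap, a.ri y hy]
  have e3 : cmap a.f v '' Kp (Fin k → ℝ) = insert v (coneSet v (a.f '' sph k)) := by
    ext y
    constructor
    · rintro ⟨p, ⟨hp1, hp2⟩, rfl⟩
      have hpu : p ∈ Up k := (ballPair_up k).subset₂ ⟨hp1, hp2⟩
      rcases (up_le_one hpu).lt_or_eq with h1 | h1
      · right
        refine ⟨_, ⟨(1 - p.2)⁻¹ • p.1, ?_, rfl⟩, p.2, ⟨hp1, h1.le⟩, rfl⟩
        have h3 : 0 < 1 - p.2 := by linarith
        rw [N1, abs_of_nonneg hp1] at hp2
        rw [mem_sphere, dist_zero_right, norm_smul, Real.norm_eq_abs, abs_inv, abs_of_pos h3,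
          inv_mul_eq_iff_eq_mul₀ h3.ne', mul_one]
        linarith
      · left
        exact hv1 p hpu h1
    · have hap : v ∈ cmap a.f v '' Kp (Fin k → ℝ) :=
        ⟨(0, 1), ⟨zero_le_one, by simp [N1]⟩, by simp [cmap]⟩
      rintro (rfl | ⟨_, ⟨z, hz, rfl⟩, t, ht, rfl⟩)
      · exact hap
      · rcases ht.2.lt_or_eq with h1 | h1
        · refine ⟨((1 - t) • z, t), ⟨ht.1, ?_⟩, hc _ _ h1⟩
          rw [mem_sphere, dist_zero_right] at hz
          have h3 : 0 < 1 - t := by linarith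
          rw [N1, norm_smul, Real.norm_eq_abs, abs_of_pos h3, hz, abs_of_nonneg ht.1]
          ring
        · rw [h1]; simpa using hap
  have e4 : cmap a.f v '' Eqt (Fin k → ℝ) = a.f '' sph k := by
    ext y
    constructor
    · rintro ⟨p, ⟨hp1, hp2⟩, rfl⟩
      have : cmap a.f v p = a.f p.1 := by simp [cmap, hp1]
      rw [this]
      exact ⟨_, by simpa using hp2, rfl⟩
    · rintro ⟨z, hz, rfl⟩
      exact ⟨(z, 0), ⟨rfl, by simpa using hz⟩, by simp [cmap]⟩
  rw [e1, e2, e3, e4] at h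
  exact h

/-- **the cone over a ball is a ball** -/
theorem _root_.Crest.Agent.R096.Ce_537.IsBall.coneFrom [FiniteDimensional ℝ E] {K dK : Set E}
    {v : E} (h : IsBall k K dK) (hv : Joinable v K) :
    IsBall (k + 1) (coneSet v K) (K ∪ insert v (coneSet v dK)) :=
  (BallPair.coneFrom h hv).ball

end Cone

end Crest.Agent.R096.Cb_609
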