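import Crest.Agent.R096.PlSch_296
import Crest.Agent.R096.PlSet_296

/-!
# Injective PL closed curves are simple polygons; parametrised plane Schoenflies theorem
(helper296, row 96, P2-Y)
-/

namespace Crest.Agent.R096.Pl

open Set Metric Topology

set_option linter.unusedSectionVars false

theorem exists_partition (T : Set ℝ) (hT : T.Finite) {L : ℝ} (hL : 0 < L) :
    ∃ n : ℕ, 3 ≤ n ∧ ∃ τ : ℕ → ℝ, τ 0 = 0 ∧ τ n = L ∧ (∀ i < n, τ i < τ (i + 1)) ∧
      ∀ i < n, ∀ t ∈ T, ¬ (τ i < t ∧ t < τ (i + 1)) := by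
  classical
  let S : Finset ℝ := (hT.toFinset.filter fun t => 0 < t ∧ t < L) ∪ {0, L / 3, 2 * L / 3, L}
  have h0 : (0:ℝ) ∈ S := by simp [S]
  have hLm : L ∈ S := by simp [S]
  have h4 : ({0, L / 3, 2 * L / 3, L} : Finset ℝ).card = 4 := by
    rw [Finset.card_insert_of_notMem, Finset.card_insert_of_notMem, Finset.card_insert_of_notMem,
      Finset.card_singleton]
    · simp only [Finset.mem_singleton]; intro h; linarith
    · simp only [Finset.mem_insert, Finset.mem_singleton]; rintro (h | h) <;> linarith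
    · simp only [Finset.mem_insert, Finset.mem_singleton]; rintro (h | h | h) <;> linarith
  have hcard : 4 ≤ S.card := by
    rw [← h4]; exact Finset.card_le_card Finset.subset_union_right
  obtain ⟨n, hn⟩ : ∃ n, S.card = n + 1 := ⟨S.card - 1, by omega⟩
  let e := S.orderEmbOfFin hn
  have hmem : ∀ s ∈ S, 0 ≤ s ∧ s ≤ L := by
    intro s hs
    simp only [S, Finset.mem_union, Finset.mem_filter, Finset.mem_insert,
      Finset.mem_singleton] at hs
    rcases hs with ⟨_, h1, h2⟩ | rfl | rfl | rfl | rfl
    · exact ⟨h1.le, h2.le⟩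
    · exact ⟨le_rfl, hL.le⟩
    · constructor <;> linarith
    · constructor <;> linarith
    · exact ⟨hL.le, le_rfl⟩
  have hrange : ∀ s ∈ S, ∃ j, e j = s := by
    intro s hs
    have : s ∈ Set.range e := by rw [Finset.range_orderEmbOfFin]; exact hs
    exact this
  refine ⟨n, by omega, fun i => if h : i < n + 1 then e ⟨i, h⟩ else L, ?_, ?_, ?_, ?_⟩
  · simp only [Nat.zero_lt_succ, dif_pos]
    obtain ⟨j, hj⟩ := hrange 0 h0
    apply le_antisymm
    · rw [← hj]; exact e.monotone (Fin.zero_le j)
    · exact (hmem _ (Finset.orderEmbOfFin_mem S hn _)).1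
  · simp only [Nat.lt_succ_self, dif_pos]
    obtain ⟨j, hj⟩ := hrange L hLm
    apply le_antisymm
    · exact (hmem _ (Finset.orderEmbOfFin_mem S hn _)).2
    · nth_rewrite 1 [← hj]; exact e.monotone (Fin.le_last j)
  · intro i hi
    simp only [show i < n + 1 by omega, show i + 1 < n + 1 by omega, dif_pos]
    exact e.strictMono (by rw [Fin.lt_def]; simp)
  · intro i hi t ht
    simp only [show i < n + 1 by omega, show i + 1 < n + 1 by omega, dif_pos]
    rintro ⟨h1, h2⟩
    have ht0 : 0 < t := lt_of_le_of_lt (hmem _ (Finset.orderEmbOfFin_mem S hn _)).1 h1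
    have htL : t < L := lt_of_lt_of_le h2 (hmem _ (Finset.orderEmbOfFin_mem S hn _)).2
    have htS : t ∈ S := by
      simp only [S, Finset.mem_union, Finset.mem_filter, hT.mem_toFinset]
      exact Or.inl ⟨ht, ht0, htL⟩
    obtain ⟨j, rfl⟩ := hrange t htS
    have h3 := e.lt_iff_lt.1 h1
    have h4 := e.lt_iff_lt.1 h2
    rw [Fin.lt_def] at h3 h4
    simp only at h3 h4
    omega

section

variable {V : Type*} [NormedAddCommGroup V] [NormedSpace ℝ V] [FiniteDimensional ℝ V]

/-- a PL path is affine between the points of a finite set -/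
theorem PLMap.exists_breaks {c : ℝ → V} (hc : PLMap c) (L : ℝ) (hL : 0 < L) :
    ∃ T : Set ℝ, T.Finite ∧ ∀ a b : ℝ, 0 ≤ a → a < b → b ≤ L →
      (∀ t ∈ T, ¬ (a < t ∧ t < b)) → c '' Icc a b = segment ℝ (c a) (c b) := by
  have hQ : VP (Icc (0:ℝ) L) :=
    ⟨{0, L}, by simp, by rw [convexHull_pair, segment_eq_Icc hL.le]⟩
  obtain ⟨𝒞, h1, h2, h3, h4, -⟩ := hc.cells hQ (A := ∅) finite_empty
  choose! s hs using h2
  refine ⟨⋃ C ∈ 𝒞, s C, h1.biUnion fun C hC => (hs C hC).1, ?_⟩
  intro a b ha hab hb hT
  -- the cell containing the midpoint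
  have hm : (a + b) / 2 ∈ Icc (0:ℝ) L := ⟨by linarith, by linarith⟩
  rw [← h3] at hm
  obtain ⟨C, hC, hmC⟩ := hm
  obtain ⟨g, hg⟩ := h4 C hC
  have hCs := (hs C hC).2
  have hsub : Icc a b ⊆ C := by
    -- a generator `≤ a` and a generator `≥ b`
    have hmC' := hmC
    rw [hCs] at hmC'
    have h5 : ∃ p ∈ s C, p ≤ a := by
      by_contra hcon
      push Not at hcon
      have : ∀ p ∈ s C, b ≤ p := by
        intro p hp
        by_contra hpb
        exact hT p (mem_biUnion hC hp) ⟨hcon p hp, not_le.1 hpb⟩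
      have h6 : convexHull ℝ (s C) ⊆ Ici b := convexHull_min (fun p hp => this p hp) (convex_Ici b)
      have := h6 hmC'
      have h7 : b ≤ (a + b) / 2 := this
      linarith
    have h6 : ∃ p ∈ s C, b ≤ p := by
      by_contra hcon
      push Not at hcon
      have : ∀ p ∈ s C, p ≤ a := by
        intro p hp
        by_contra hpb
        exact hT p (mem_biUnion hC hp) ⟨not_le.1 hpb, hcon p hp⟩
      have h6 : convexHull ℝ (s C) ⊆ Iic a := convexHull_min (fun p hp => this p hp) (convex_Iic a)
      have := h6 hmC'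
      have h7 : (a + b) / 2 ≤ a := this
      linarith
    obtain ⟨p, hp, hpa⟩ := h5
    obtain ⟨q, hq, hqb⟩ := h6
    rw [hCs]
    have h8 : segment ℝ p q ⊆ convexHull ℝ (s C) :=
      (convex_convexHull ℝ _).segment_subset (subset_convexHull ℝ _ hp) (subset_convexHull ℝ _ hq)
    rw [segment_eq_Icc (by linarith)] at h8
    exact (Icc_subset_Icc hpa hqb).trans h8
  have e1 : c '' Icc a b = g '' Icc a b := image_congr fun x hx => hg x (hsub hx)
  rw [e1, ← segment_eq_Icc hab.le, image_segment ℝ g, hg a (hsub ⟨le_rfl, hab.le⟩),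
    hg b (hsub ⟨hab.le, le_rfl⟩)]

/-- a closed PL path injective on `[0,L)` runs through a closed simple polygon -/
theorem exists_poly_of_path {c : ℝ → V} (hc : PLMap c) {L : ℝ} (hL : 0 < L)
    (hinj : InjOn c (Ico 0 L)) (hend : c L = c 0) :
    ∃ (n : ℕ) (v : ℤ → V), Poly n v ∧ polySet v = c '' Icc 0 L := by
  obtain ⟨T, hT, hbr⟩ := hc.exists_breaks L hL
  obtain ⟨n, hn, τ, h0, hnL, hmono, havoid⟩ := exists_partition T hT hL
  have hnpos : (0:ℤ) < n := by omega
  -- monotonicity of `τ` on `[0,n]`
  have hle : ∀ i j : ℕ, i ≤ j → j ≤ n → τ i ≤ τ j := by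
    intro i j hij hj
    induction j, hij using Nat.le_induction with
    | base => exact le_rfl
    | succ k hk ih => exact (ih (by omega)).trans (hmono k (by omega)).le
  have hlt : ∀ i j : ℕ, i < j → j ≤ n → τ i < τ j := by
    intro i j hij hj
    exact lt_of_lt_of_le (hmono i (by omega)) (hle (i + 1) j hij hj)
  have hτ0 : ∀ i ≤ n, 0 ≤ τ i := fun i hi => by rw [← h0]; exact hle 0 i (Nat.zero_le _) hi
  have hτL : ∀ i ≤ n, τ i ≤ L := fun i hi => by rw [← hnL]; exact hle i n hi le_rfl
  have hτL' : ∀ i < n, τ i < L := fun i hi => by rw [← hnL]; exact hlt i n hi le_rfl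
  let r : ℤ → ℕ := fun i => (i % n).toNat
  have hr : ∀ i, (r i : ℤ) = i % n := fun i => Int.toNat_of_nonneg (Int.emod_nonneg _ hnpos.ne')
  have hrlt : ∀ i, r i < n := fun i => by
    have := Int.emod_lt_of_pos i hnpos
    rw [← hr] at this; exact_mod_cast this
  have hrs : ∀ i, r i + 1 < n → r (i + 1) = r i + 1 := by
    intro i hi
    have h1 := hr i
    have h2 := hr (i + 1)
    have : (i + 1) % n = i % n + 1 := by
      rw [Int.add_emod, Int.emod_eq_of_lt (a := (1 : ℤ)) (by omega) (by omega),
        Int.emod_eq_of_lt (by omega) (by omega)]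
    omega
  have hrl : ∀ i, r i + 1 = n → r (i + 1) = 0 := by
    intro i hi
    have h1 := hr i
    have h2 := hr (i + 1)
    have : (i + 1) % n = 0 := by
      rw [Int.add_emod, Int.emod_eq_of_lt (a := (1 : ℤ)) (by omega) (by omega),
        show i % (n:ℤ) + 1 = n by omega]
      exact Int.emod_self
    omega
  let v : ℤ → V := fun i => c (τ (r i))
  have hvs : ∀ i, v (i + 1) = c (τ (r i + 1)) := by
    intro i
    show c (τ (r (i + 1))) = c (τ (r i + 1))
    rcases lt_or_eq_of_le (Nat.succ_le_of_lt (hrlt i)) with h | h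
    · rw [hrs i h]
    · rw [hrl i h, h0, show r i + 1 = n from h, hnL, hend]
  have hedge : ∀ i, edge v i = c '' Icc (τ (r i)) (τ (r i + 1)) := by
    intro i
    have hri := hrlt i
    rw [hbr _ _ (hτ0 _ hri.le) (hmono _ hri) (hτL _ (by omega)) (havoid _ hri)]
    show segment ℝ (v i) (v (i + 1)) = _
    rw [hvs]
  have hmod : ∀ i j : ℤ, r i = r j → (n : ℤ) ∣ i - j := by
    intro i j hij
    have : i % n = j % n := by rw [← hr, ← hr, hij]
    exact Int.ModEq.dvd (show j ≡ i [ZMOD n] from this.symm)
  refine ⟨n, v, ⟨hn, ?_, ?_, ?_⟩, ?_⟩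
  · intro i
    show c (τ (r (i + n))) = c (τ (r i))
    have : r (i + n) = r i := by
      have h1 := hr i
      have h2 := hr (i + n)
      rw [Int.add_emod_right] at h2
      omega
    rw [this]
  · intro i j hij
    have h1 : τ (r i) = τ (r j) := hinj ⟨hτ0 _ (hrlt i).le, hτL' _ (hrlt i)⟩
      ⟨hτ0 _ (hrlt j).le, hτL' _ (hrlt j)⟩ hij
    apply hmod
    rcases lt_trichotomy (r i) (r j) with h | h | h
    · have := hlt _ _ h (hrlt j).le; linarith
    · exact h
    · have := hlt _ _ h (hrlt i).le; linarith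
  · -- simplicity
    have main : ∀ i j : ℤ, r i < r j → ∀ x ∈ edge v i, x ∈ edge v j →
        (x = v i ∨ x = v (i + 1)) ∧ (x = v j ∨ x = v (j + 1)) := by
      intro i j hij x hxi hxj
      rw [hedge] at hxi hxj
      obtain ⟨s, hs, rfl⟩ := hxi
      obtain ⟨s', hs', hss⟩ := hxj
      have hri := hrlt i
      have hrj := hrlt j
      have h1 : τ (r i + 1) ≤ τ (r j) := hle _ _ hij hrj.le
      have h2 : s ≤ s' := hs.2.trans (h1.trans hs'.1)
      rcases h2.eq_or_lt with h3 | h3
      · have h4 : s = τ (r i + 1) := le_antisymm hs.2 (h1.trans (h3 ▸ hs'.1))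
        have h5 : s = τ (r j) := le_antisymm (hs.2.trans h1) (h3 ▸ hs'.1)
        refine ⟨Or.inr ?_, Or.inl ?_⟩
        · rw [hvs, ← h4]
        · show c s = c (τ (r j)); rw [← h5]
      · -- `s < s'`, same value: `s' = L`, `s = 0`
        have hs0 : 0 ≤ s := (hτ0 _ hri.le).trans hs.1
        have hsL : s' ≤ L := hs'.2.trans (hτL _ (by omega))
        have hs'L : s' = L := by
          by_contra hne
          have : s' < L := lt_of_le_of_ne hsL hne
          have := hinj ⟨hs0, lt_trans h3 this⟩ ⟨hs0.trans h3.le, this⟩ hss.symm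
          linarith
        have hs00 : s = 0 := by
          refine hinj ⟨hs0, lt_of_lt_of_le h3 hsL⟩ ⟨le_rfl, hL⟩ ?_
          rw [← hss, hs'L, hend]
        have hri0 : r i = 0 := by
          by_contra hne
          have := hlt 0 (r i) (Nat.pos_of_ne_zero hne) hri.le
          rw [h0] at this
          have := hs.1
          linarith
        have hrjn : r j + 1 = n := by
          by_contra hne
          have h6 : r j + 1 < n := by omega
          have := hτL' _ h6
          have := hs'.2
          linarith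
        refine ⟨Or.inl ?_, Or.inr ?_⟩
        · show c s = c (τ (r i)); rw [hri0, h0, hs00]
        · rw [hvs, hrjn, hnL, hs00, hend]
    intro i j hnd x hxi hxj
    rcases lt_trichotomy (r i) (r j) with h | h | h
    · exact main i j h x hxi hxj
    · exact absurd (hmod i j h) hnd
    · exact (main j i h x hxj hxi).symm
  · ext x
    rw [mem_polySet]
    constructor
    · rintro ⟨i, hi⟩
      rw [hedge] at hi
      obtain ⟨s, hs, rfl⟩ := hi
      exact ⟨s, ⟨(hτ0 _ (hrlt i).le).trans hs.1, hs.2.trans (hτL _ (hrlt i))⟩, rfl⟩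
    · rintro ⟨s, hs, rfl⟩
      -- find the interval
      have : ∃ i < n, s ∈ Icc (τ i) (τ (i + 1)) := by
        have key : ∀ m ≤ n, s ≤ τ m → 0 < m → ∃ i < m, s ∈ Icc (τ i) (τ (i + 1)) := by
          intro m
          induction m with
          | zero => intro _ _ h; exact absurd h (lt_irrefl 0)
          | succ m ih =>
            intro hm hsm _
            rcases le_total s (τ m) with h | h
            · rcases Nat.eq_zero_or_pos m with h' | h'
              · subst h'
                exact ⟨0, by omega, by rw [h0]; exact hs.1, hsm⟩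
              · obtain ⟨i, hi, hi'⟩ := ih (by omega) h h'
                exact ⟨i, by omega, hi'⟩
            · exact ⟨m, by omega, h, hsm⟩
        exact key n le_rfl (by rw [hnL]; exact hs.2) (by omega)
      obtain ⟨i, hi, hsi⟩ := this
      refine ⟨i, ?_⟩
      rw [hedge]
      have : r i = i := by
        have h1 := hr i
        rw [Int.emod_eq_of_lt (by omega) (by omega)] at h1
        exact_mod_cast h1
      rw [this]
      exact mem_image_of_mem c hsi

end

/-! ### the standard parametrisation of `S1 ℝ` -/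

/-- `[0,4] → S1 ℝ` -/
noncomputable def th (t : ℝ) : ℝ × ℝ := (|t - 2| - 1, t - 2 * max 0 (t - 1) + 2 * max 0 (t - 3))

theorem th_pl : PLMap th :=
  ((PLMap.id.sub_const 2).abs.sub_const 1).prodMk
    ((PLMap.id.sub (((PLMap.const 0).max (PLMap.id.sub_const 1)).const_mul 2)).add
      (((PLMap.const 0).max (PLMap.id.sub_const 3)).const_mul 2))

theorem th_one {t : ℝ} (h1 : t ≤ 1) : th t = (1 - t, t) := by
  unfold th
  rw [abs_of_nonpos (by linarith), max_eq_left (by linarith), max_eq_left (by linarith)]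
  ext <;> simp; ring

theorem th_two {t : ℝ} (h0 : 1 ≤ t) (h1 : t ≤ 2) : th t = (1 - t, 2 - t) := by
  unfold th
  rw [abs_of_nonpos (by linarith), max_eq_right (by linarith), max_eq_left (by linarith)]
  ext <;> simp <;> ring

theorem th_three {t : ℝ} (h0 : 2 ≤ t) (h1 : t ≤ 3) : th t = (t - 3, 2 - t) := by
  unfold th
  rw [abs_of_nonneg (by linarith), max_eq_right (by linarith), max_eq_left (by linarith)]
  ext <;> simp <;> ring

theorem th_four {t : ℝ} (h0 : 3 ≤ t) : th t = (t - 3, t - 4) := by
  unfold th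
  rw [abs_of_nonneg (by linarith), max_eq_right (by linarith), max_eq_right (by linarith)]
  ext <;> simp <;> ring

theorem th_image : th '' Icc 0 4 = S1 ℝ := by
  ext p
  rw [mem_S1_real]
  constructor
  · rintro ⟨t, ht, rfl⟩
    rcases le_total t 1 with h | h
    · rw [th_one h]; simp only
      rw [abs_of_nonneg (by linarith), abs_of_nonneg ht.1]; ring
    rcases le_total t 2 with h' | h'
    · rw [th_two h h']; simp only
      rw [abs_of_nonpos (by linarith), abs_of_nonneg (by linarith)]; ring
    rcases le_total t 3 with h'' | h''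
    · rw [th_three h' h'']; simp only
      rw [abs_of_nonpos (by linarith), abs_of_nonpos (by linarith)]; ring
    · rw [th_four h'']; simp only
      rw [abs_of_nonneg (by linarith), abs_of_nonpos (by linarith [ht.2])]; ring
  · intro hp
    rcases le_total 0 p.2 with h | h <;> rcases le_total 0 p.1 with h' | h'
    · rw [abs_of_nonneg h, abs_of_nonneg h'] at hp
      refine ⟨1 - p.1, ⟨by linarith, by linarith⟩, ?_⟩
      rw [th_one (by linarith)]; ext <;> simp only <;> linarith
    · rw [abs_of_nonneg h, abs_of_nonpos h'] at hp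
      refine ⟨1 - p.1, ⟨by linarith, by linarith⟩, ?_⟩
      rw [th_two (by linarith) (by linarith)]; ext <;> simp only <;> linarith
    · rw [abs_of_nonpos h, abs_of_nonneg h'] at hp
      refine ⟨3 + p.1, ⟨by linarith, by linarith⟩, ?_⟩
      rw [th_four (by linarith)]; ext <;> simp only <;> linarith
    · rw [abs_of_nonpos h, abs_of_nonpos h'] at hp
      refine ⟨3 + p.1, ⟨by linarith, by linarith⟩, ?_⟩
      rw [th_three (by linarith) (by linarith)]; ext <;> simp only <;> linarith

theorem th_end : th 4 = th 0 := by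
  rw [th_four (by norm_num), th_one (by norm_num)]; norm_num

theorem th_inj : InjOn th (Ico 0 4) := by
  have key : ∀ s t : ℝ, 0 ≤ s → s < t → t < 4 → th s ≠ th t := by
    intro s t hs hst ht heq
    have e1 : (th s).1 = (th t).1 := by rw [heq]
    have e2 : (th s).2 = (th t).2 := by rw [heq]
    rcases le_total s 1 with a | a <;> rcases le_total s 2 with b | b <;>
      rcases le_total s 3 with c | c <;> rcases le_total t 1 with a' | a' <;>
      rcases le_total t 2 with b' | b' <;> rcases le_total t 3 with c' | c' <;>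
      first
      | (exfalso; linarith)
      | (simp only [th_one, th_two, th_three, th_four, a, b, c, a', b', c'] at e1 e2; linarith)
  intro s hs t ht heq
  rcases lt_trichotomy s t with h | h | h
  · exact absurd heq (key s t hs.1 h ht.2)
  · exact h
  · exact absurd heq.symm (key t s ht.1 h hs.2)

/-- an injective PL image of `S1 ℝ` is a closed simple polygon (any dimension) -/
theorem exists_poly_of_injOn {V : Type*} [NormedAddCommGroup V] [NormedSpace ℝ V]
    [FiniteDimensional ℝ V] {φ : ℝ × ℝ → V} (hφ : PLMap φ) (hinj : InjOn φ (S1 ℝ)) :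
    ∃ (n : ℕ) (v : ℤ → V), Poly n v ∧ polySet v = φ '' S1 ℝ := by
  obtain ⟨n, v, hv, hset⟩ := exists_poly_of_path (c := fun t => φ (th t)) (hφ.comp th_pl)
    (L := 4) (by norm_num) (by
      intro s hs t ht heq
      refine th_inj hs ht (hinj ?_ ?_ heq)
      · rw [← th_image]; exact mem_image_of_mem _ ⟨hs.1, hs.2.le⟩
      · rw [← th_image]; exact mem_image_of_mem _ ⟨ht.1, ht.2.le⟩)
    (by show φ (th 4) = φ (th 0); rw [th_end])
  refine ⟨n, v, hv, ?_⟩
  rw [hset, ← th_image, ← image_comp]; rfl

/-- **plane Schoenflies, parametrised curve.** -/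
theorem stdC_of_injOn {φ : ℝ × ℝ → ℝ × ℝ} (hφ : PLMap φ) (hinj : InjOn φ (S1 ℝ)) :
    StdC (φ '' S1 ℝ) := by
  obtain ⟨n, v, hv, hset⟩ := exists_poly_of_injOn hφ hinj
  rw [← hset]; exact hv.stdC

end Crest.Agent.R096.Pl
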