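import Crest.Agent.R096.Cb4_609
import Crest.Agent.R096.PlCurve_296
import Crest.Agent.R096.PlSet_296

/-!
# R096 (row 96), CE3 ball calculus, part 5: theta spheres; cutting a 2-ball by an arc
(helper609)

* `theta_split`: three spheres `E₁ ∪ E₂`, `E₁ ∪ D`, `E₂ ∪ D` (standard), `D` inside `E₁ ∪ E₂`:
  the inside of `E₁ ∪ E₂` is the union of the insides of the other two, which meet in `D`.
* `exists_equiv_union`: the union of two balls with the same boundary is a sphere.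
* `stdC_of_plOn`: a PL circle in the plane is standard.
* `cut_disc`: an arc with end points on the boundary cuts a 2-ball (in any space) into two 2-balls.
-/

set_option autoImplicit false
set_option linter.unusedSectionVars false

open Set Metric

namespace Crest.Agent.R096.Cb_609

open Ce_537 Pl

section Theta

variable {F : Type*} [NormedAddCommGroup F] [NormedSpace ℝ F] [FiniteDimensional ℝ F] {n : ℕ}

theorem image_le_eq (H : (F × ℝ) ≃ₜ (F × ℝ)) :
    H '' {p : F × ℝ | N1 p ≤ 1} = H '' U1 F ∪ H '' S1 F := by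
  rw [← image_union]
  congr 1
  ext p
  simp only [U1, S1, mem_union, mem_ofPred_eq]
  exact le_iff_lt_or_eq

theorem disjoint_U1_S1 (H : (F × ℝ) ≃ₜ (F × ℝ)) : Disjoint (H '' U1 F) (H '' S1 F) := by
  rw [disjoint_image_iff H.injective, disjoint_left]
  intro p hp hp'
  have h1 : N1 p < 1 := hp
  have h2 : N1 p = 1 := hp'
  linarith

theorem isPreconnected_U1 : IsPreconnected (U1 F) := by
  refine Convex.isPreconnected ?_
  intro p hp q hq s t hs ht hst
  show N1 (s • p + t • q) < 1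
  have hp' : N1 p < 1 := hp
  have hq' : N1 q < 1 := hq
  have h1 : N1 (s • p + t • q) ≤ s * N1 p + t * N1 q := by
    simp only [N1, Prod.fst_add, Prod.snd_add, Prod.smul_fst, Prod.smul_snd, smul_eq_mul]
    have h2 := norm_add_le (s • p.1) (t • q.1)
    rw [norm_smul, norm_smul, Real.norm_eq_abs, Real.norm_eq_abs, abs_of_nonneg hs,
      abs_of_nonneg ht] at h2
    have h3 := abs_add_le (s * p.2) (t * q.2)
    rw [abs_mul, abs_mul, abs_of_nonneg hs, abs_of_nonneg ht] at h3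
    linarith
  rcases hs.lt_or_eq with h | h
  · nlinarith
  · have : t = 1 := by linarith
    rw [this, ← h] at h1 ⊢
    linarith

/-- **theta spheres** -/
theorem theta_split [Nontrivial F] (hB : IsBall n (closedBall (0:F) 1) (sphere (0:F) 1))
    {H H₁ H₂ : (F × ℝ) ≃ₜ (F × ℝ)} (hH : PLH H) (hH₁ : PLH H₁) (hH₂ : PLH H₂)
    {E₁ E₂ D Γ : Set (F × ℝ)} (e : H '' S1 F = E₁ ∪ E₂)
    (e1 : H₁ '' Kp F = E₁) (e2 : H₁ '' Km F = D) (e3 : H₂ '' Kp F = E₂) (e4 : H₂ '' Km F = D)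
    (hE : E₁ ∩ E₂ = Γ) (hE1 : E₁ ∩ D = Γ) (hE2 : E₂ ∩ D = Γ) (hD : D ⊆ H '' {p | N1 p ≤ 1}) :
    H₁ '' {p | N1 p ≤ 1} ∪ H₂ '' {p | N1 p ≤ 1} = H '' {p | N1 p ≤ 1} ∧
      H₁ '' {p | N1 p ≤ 1} ∩ H₂ '' {p | N1 p ≤ 1} = D := by
  have hS1 : H₁ '' S1 F = E₁ ∪ D := by rw [← Kp_union_Km, image_union, e1, e2]
  have hS2 : H₂ '' S1 F = E₂ ∪ D := by rw [← Kp_union_Km, image_union, e3, e4]
  have hK := image_le_eq H
  have hK1 := image_le_eq H₁
  have hK2 := image_le_eq H₂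
  have hE1K : E₁ ⊆ H '' {p | N1 p ≤ 1} := by
    rw [hK, e]; exact subset_union_left.trans subset_union_right
  have hE2K : E₂ ⊆ H '' {p | N1 p ≤ 1} := by
    rw [hK, e]; exact subset_union_right.trans subset_union_right
  have hU1 : H₁ '' U1 F ⊆ H '' U1 F := inside_subset (by rw [hS1]; exact union_subset hE1K hD)
  have hU2 : H₂ '' U1 F ⊆ H '' U1 F := inside_subset (by rw [hS2]; exact union_subset hE2K hD)
  have d0 := disjoint_U1_S1 H
  rw [e] at d0
  have d1 := disjoint_U1_S1 H₁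
  rw [hS1] at d1
  have d2 := disjoint_U1_S1 H₂
  rw [hS2] at d2
  -- the ball pairs
  have P1 := (ballPair_model hB).plh hH₁
  rw [e1, e2, StdS.inter e1 e2, hE1] at P1
  have P2 := (ballPair_model hB).plh hH₂
  rw [e3, e4, StdS.inter e3 e4, hE2] at P2
  have hΓD : Γ ⊆ D := P1.ball₂.subset
  have hU12 : Disjoint (H₁ '' U1 F) (H₂ '' S1 F) := by
    rw [hS2, disjoint_left]
    rintro x hx (h | h)
    · exact disjoint_left.1 d0 (hU1 hx) (Or.inr h)
    · exact disjoint_left.1 d1 hx (Or.inr h)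
  have hU21 : Disjoint (H₂ '' U1 F) (H₁ '' S1 F) := by
    rw [hS1, disjoint_left]
    rintro x hx (h | h)
    · exact disjoint_left.1 d0 (hU2 hx) (Or.inl h)
    · exact disjoint_left.1 d2 hx (Or.inr h)
  have hc : ∀ G : (F × ℝ) ≃ₜ (F × ℝ), IsPreconnected (G '' U1 F) := fun G =>
    isPreconnected_U1.image _ G.continuous.continuousOn
  have hdis : Disjoint (H₁ '' U1 F) (H₂ '' U1 F) := by
    by_contra hcon
    have hne := not_disjoint_iff_nonempty_inter.1 hcon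
    have s1 : H₁ '' U1 F ⊆ H₂ '' U1 F := subset_inside (hc H₁) hU12 hne
    have hcl : H₁ '' {p | N1 p ≤ 1} ⊆ H₂ '' {p | N1 p ≤ 1} := by
      have h1 : closure (H₁ '' U1 F) = H₁ '' {p | N1 p ≤ 1} := by
        have h2 := P1.ball.closure_diff
        have h3 : H₁ '' {p | N1 p ≤ 1} \ (E₁ ∪ D) = H₁ '' U1 F := by
          rw [hK1, hS1, union_sdiff_right, d1.sdiff_eq_left]
        rwa [h3] at h2
      rw [← h1]
      refine closure_minimal ?_ P2.ball.isClosed
      exact s1.trans (by rw [hK2]; exact subset_union_left)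
    obtain ⟨x, hx, hxΓ⟩ := P1.ball₁.nonempty_diff
    have hx2 : x ∈ H₂ '' {p | N1 p ≤ 1} := hcl (by rw [hK1, hS1]; exact Or.inr (Or.inl hx))
    rw [hK2, hS2] at hx2
    rcases hx2 with h | h | h
    · exact disjoint_left.1 d0 (hU2 h) (Or.inl hx)
    · exact hxΓ (hE ▸ ⟨hx, h⟩)
    · exact hxΓ (hE1 ▸ ⟨hx, h⟩)
  have hinter : H₁ '' {p | N1 p ≤ 1} ∩ H₂ '' {p | N1 p ≤ 1} = D := by
    apply Subset.antisymm
    · rw [hK1, hK2, hS1, hS2]
      rintro x ⟨h1 | h1, h2 | h2⟩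
      · exact absurd h2 (disjoint_left.1 hdis h1)
      · rw [hS2] at hU12
        exact absurd h2 (disjoint_left.1 hU12 h1)
      · rw [hS1] at hU21
        exact absurd h1 (disjoint_left.1 hU21 h2)
      · rcases h1 with h1 | h1
        · rcases h2 with h2 | h2
          · exact hΓD (hE ▸ ⟨h1, h2⟩)
          · exact h2
        · exact h1
    · intro x hx
      rw [hK1, hK2, hS1, hS2]
      exact ⟨Or.inr (Or.inr hx), Or.inr (Or.inr hx)⟩
  refine ⟨?_, hinter⟩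
  have P := P1.symm.glue P2.symm hinter
  have Q := isBall_of_stdC hB hH e
  refine ball_eq_of_subset P.ball Q ?_
  rw [hK, hK1, hK2]
  refine union_subset (union_subset (hU1.trans subset_union_left) ?_)
    (union_subset (hU2.trans subset_union_left) ?_)
  · rw [hS1, ← hK]; exact union_subset hE1K hD
  · rw [hS2, ← hK]; exact union_subset hE2K hD

end Theta

/-! ### spheres as unions of two balls -/

section Double

variable {E E' : Type*} [NormedAddCommGroup E] [NormedSpace ℝ E]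
  [NormedAddCommGroup E'] [NormedSpace ℝ E'] {k : ℕ}

/-- the union of two balls with a common boundary is a sphere: it is PL equivalent to the boundary
of any ball pair -/
theorem exists_equiv_union {X M T Q : Set E} {A A' Q' : Set E'} (h : BallPair k X M T Q)
    (hA : IsBall k A Q') (hA' : IsBall k A' Q') (hi : A ∩ A' = Q') :
    ∃ e : PLEquiv (M ∪ T) (A ∪ A'), e.f '' M = A ∧ e.f '' T = A' ∧ e.f '' Q = Q' := by
  obtain ⟨a, ha1, ha2⟩ := h.ball₁.exists_equiv hA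
  let r : PLEquiv Q Q' := a.restr h.ball₁.subset hA.subset
    (fun x hx => by rw [← ha1]; exact ⟨x, hx, rfl⟩) (fun x hx => by rw [← ha2]; exact ⟨x, hx, rfl⟩)
  obtain ⟨b, hb1, hb2⟩ := h.ball₂.extend hA' r
  have c1 := h.ball₁.isClosed
  have c2 := h.ball₂.isClosed
  have c1' := hA.isClosed
  have c2' := hA'.isClosed
  have hf : EqOn a.f b.f (M ∩ T) := by
    intro x hx; rw [h.inter] at hx; exact (hb1 hx).symm
  have hg : EqOn a.g b.g (A ∩ A') := by
    intro x hx; rw [hi] at hx; exact (hb2 hx).symm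
  refine ⟨glue a b c1 c2 c1' c2' hf hg, ?_, ?_, ?_⟩
  · rw [image_congr (glue_f₁ a b c1 c2 c1' c2' hf hg), a.image_eq]
  · rw [image_congr (glue_f₂ a b c1 c2 c1' c2' hf hg), b.image_eq]
  · rw [← ha1]
    exact image_congr fun x hx => glue_f₁ a b c1 c2 c1' c2' hf hg (h.ball₁.subset hx)

end Double

/-! ### PL circles in the plane -/

section Plane

theorem stdC_of_plOn {φ : ℝ × ℝ → ℝ × ℝ} (hφ : PLOn φ (S1 ℝ)) (hinj : InjOn φ (S1 ℝ)) :
    StdC (φ '' S1 ℝ) := by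
  obtain ⟨hc, S, hS⟩ := hφ
  have h1 : PLMap (coneExt φ) := PLMap_coneExt polyNorm_real hc
    ⟨(S : Set _), S.finite_toSet, fun x hx => hS x hx⟩
  have h2 : coneExt φ '' S1 ℝ = φ '' S1 ℝ := image_congr fun x hx => coneExt_of_mem hx
  rw [← h2]
  refine stdC_of_injOn h1 ?_
  intro x hx y hy e
  rw [coneExt_of_mem hx, coneExt_of_mem hy] at e
  exact hinj hx hy e

/-- two arcs of the plane with the same end points and otherwise disjoint form a standard pair -/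
theorem stdS_of_arcs {A A' : Set (ℝ × ℝ)} {p q : ℝ × ℝ} (hA : IsBall 1 A {p, q})
    (hA' : IsBall 1 A' {p, q}) (hi : A ∩ A' = {p, q}) : StdS A A' := by
  obtain ⟨e, e1, e2, e3⟩ := exists_equiv_union ballPair_real hA hA' hi
  have h1 : e.f '' S1 ℝ = A ∪ A' := by
    rw [← Kp_union_Km]; exact e.image_eq
  have h2 : StdC (A ∪ A') := by
    rw [← h1]
    have hsub : S1 ℝ ⊆ Kp ℝ ∪ Km ℝ := by rw [Kp_union_Km]
    exact stdC_of_plOn (e.pf.mono hsub) (e.injOn.mono hsub)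
  exact h2.pair_real' (arc_ne hA) rfl hi hA.isClosed hA'.isClosed hA.nonempty_diff
    hA'.nonempty_diff

theorem isBall_plane : IsBall 2 {p : ℝ × ℝ | N1 p ≤ 1} (S1 ℝ) := by
  have := ballPair_real.ball
  rwa [Kp_union_Km] at this

/-- cutting the model disc by an arc -/
theorem cut_plane {A : Set (ℝ × ℝ)} {p q : ℝ × ℝ} (hA : IsBall 1 A {p, q})
    (hAB : A ⊆ {p : ℝ × ℝ | N1 p ≤ 1}) (hAS : A ∩ S1 ℝ = {p, q}) :
    ∃ K₁ K₂ S₁ S₂, BallPair 1 {p : ℝ × ℝ | N1 p ≤ 1} S₁ S₂ {p, q} ∧ S₁ ∪ S₂ = S1 ℝ ∧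
      BallPair 1 K₁ A S₁ {p, q} ∧ BallPair 1 K₂ A S₂ {p, q} ∧
      K₁ ∪ K₂ = {p : ℝ × ℝ | N1 p ≤ 1} ∧ K₁ ∩ K₂ = A := by
  have hp : p ∈ A ∩ S1 ℝ := by rw [hAS]; simp
  have hq : q ∈ A ∩ S1 ℝ := by rw [hAS]; simp
  obtain ⟨S₁, S₂, h1, h2⟩ := two_marks isBall_plane hp.2 hq.2 (arc_ne hA)
  have i1 : S₁ ∩ A = {p, q} := by
    apply Subset.antisymm
    · rintro x ⟨hx, hx'⟩
      rw [← hAS, ← h2]; exact ⟨hx', Or.inl hx⟩
    · intro x hx
      exact ⟨h1.ball₁.subset hx, hA.subset hx⟩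
  have i2 : S₂ ∩ A = {p, q} := by
    apply Subset.antisymm
    · rintro x ⟨hx, hx'⟩
      rw [← hAS, ← h2]; exact ⟨hx', Or.inr hx⟩
    · intro x hx
      exact ⟨h1.ball₂.subset hx, hA.subset hx⟩
  obtain ⟨H₁, hH₁, a1, a2⟩ := stdS_of_arcs h1.ball₁ hA i1
  obtain ⟨H₂, hH₂, b1, b2⟩ := stdS_of_arcs h1.ball₂ hA i2
  have hid : (Homeomorph.refl (ℝ × ℝ)) '' {p : ℝ × ℝ | N1 p ≤ 1} = {p : ℝ × ℝ | N1 p ≤ 1} := by
    simp
  obtain ⟨t1, t2⟩ := theta_split (F := ℝ) isBall_real (H := Homeomorph.refl _) PLH.refl hH₁ hH₂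
    (E₁ := S₁) (E₂ := S₂) (D := A) (Γ := {p, q}) (by simpa using h2.symm) a1 a2 b1 b2
    h1.inter i1 i2 (by rw [hid]; exact hAB)
  rw [hid] at t1
  have P1 := (ballPair_model isBall_real).plh hH₁
  rw [a1, a2, StdS.inter a1 a2, i1] at P1
  have P2 := (ballPair_model isBall_real).plh hH₂
  rw [b1, b2, StdS.inter b1 b2, i2] at P2
  exact ⟨_, _, S₁, S₂, h1, h2, P1.symm, P2.symm, t1, t2⟩

/-- **cutting a 2-ball by an arc** (any ambient space) -/
theorem cut_disc {E : Type*} [NormedAddCommGroup E] [NormedSpace ℝ E] {K S A : Set E} {p q : E}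
    (hK : IsBall 2 K S) (hA : IsBall 1 A {p, q}) (hAK : A ⊆ K) (hAS : A ∩ S = {p, q}) :
    ∃ K₁ K₂ S₁ S₂, BallPair 1 K S₁ S₂ {p, q} ∧ S₁ ∪ S₂ = S ∧
      BallPair 1 K₁ A S₁ {p, q} ∧ BallPair 1 K₂ A S₂ {p, q} ∧ K₁ ∪ K₂ = K ∧ K₁ ∩ K₂ = A := by
  obtain ⟨e, he, he'⟩ := isBall_plane.exists_equiv hK
  have hSK : S ⊆ K := hK.subset
  have hA' : IsBall 1 (e.g '' A) {e.g p, e.g q} := by
    have := hA.map (e.symm.restrImage hAK)
    rw [← image_pair]
    exact this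
  have c1 : e.g '' A ⊆ {p : ℝ × ℝ | N1 p ≤ 1} := by
    rintro _ ⟨x, hx, rfl⟩; exact e.mg (hAK hx)
  have c2 : e.g '' A ∩ S1 ℝ = {e.g p, e.g q} := by
    have hgi : InjOn e.g K := e.symm.injOn
    rw [← he', ← hgi.image_inter hAK hSK, hAS]
    exact image_pair _ _ _
  obtain ⟨K₁, K₂, S₁, S₂, d1, d2, d3, d4, d5, d6⟩ := cut_plane hA' c1 c2
  have hK1 : K₁ ⊆ {p : ℝ × ℝ | N1 p ≤ 1} := by rw [← d5]; exact subset_union_left
  have hK2 : K₂ ⊆ {p : ℝ × ℝ | N1 p ≤ 1} := by rw [← d5]; exact subset_union_right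
  have hpq : e.f '' {e.g p, e.g q} = {p, q} := by
    have hpA : p ∈ A := hA.subset (by simp)
    have hqA : q ∈ A := hA.subset (by simp)
    rw [image_pair, e.ri _ (hAK hpA), e.ri _ (hAK hqA)]
  have hAe : e.f '' (e.g '' A) = A := by
    rw [image_image]
    exact (image_congr fun x hx => e.ri x (hAK hx)).trans (image_id' _)
  refine ⟨e.f '' K₁, e.f '' K₂, e.f '' S₁, e.f '' S₂, ?_, ?_, ?_, ?_, ?_, ?_⟩
  · have := d1.map e
    rwa [hpq] at this
  · rw [← image_union, d2, he]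
  · have := d3.map (e.restrImage hK1)
    have h : BallPair 1 (e.f '' K₁) (e.f '' (e.g '' A)) (e.f '' S₁) (e.f '' {e.g p, e.g q}) := this
    rwa [hpq, hAe] at h
  · have := d4.map (e.restrImage hK2)
    have h : BallPair 1 (e.f '' K₂) (e.f '' (e.g '' A)) (e.f '' S₂) (e.f '' {e.g p, e.g q}) := this
    rwa [hpq, hAe] at h
  · rw [← image_union, d5, e.image_eq]
  · rw [← e.injOn.image_inter hK1 hK2, d6, hAe]

end Plane

end Crest.Agent.R096.Cb_609
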