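/-
helper296, row 96, COMPOSITE B, leaf [SET] in 622's form `Onp_622.SetD` (#12068).
-/
import Crest.Agent.R096.Cbs5_296
import Crest.Agent.R096.Onp2_622

set_option autoImplicit false
set_option linter.unusedSectionVars false
set_option linter.style.longLine false

open Set Metric Filter Topology MeasureTheory
open scoped ENNReal NNReal

namespace Crest.Agent.R096.Cbs_296

open Crest.Agent.R096.Ce_537 Crest.Agent.R096.Bd_416 Crest.Agent.R96.Hole_348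
open Crest.AnalysisR.VecCalc3 Crest.AnalysisR.Sobolev Crest.Agent.R096.Sk_962
open Crest.Agent.R096.Msh_715 (P I Tiling)
open Crest.Agent.R096.Mal_874 (CB)
open Crest.Agent.R096.Sq_55 (E3 Sys Face Cell FaceOf w2 IsDp GG Shp2 GG_mono)
open Crest.Agent.R096.Sqt_143 (cu sg Edge OnC OnF CT)
open Crest.Agent.R096.Efi_296
open Crest.Agent.R096.Ca_855 (MIn deepT)
open Crest.Agent.R096.Dps_476 (deepJ)
open Crest.Agent.R096.Gsc_476 (sclT)
open Crest.Agent.R096.Cob_622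
open Crest.Agent.R096.Onp_622 (SetD)
open Crest.Agent.R96.Eld_538 (Cl1)
open Crest.Agent.R096.Sk2_855 (Mv sk1)

noncomputable section

variable {Om W : Set R3} {ρ₀ : R3 → ℝ} {J : Type} [Finite J] {Qb : J → CB R3 3} {k0 : ℕ} {σ : ℝ}

/-- **[SET]** in the form `SetD` -/
theorem exists_setD {p : ℝ} (hp2 : p ≤ 2) (h : MIn Om W ρ₀ Qb k0 σ) (a : R3)
    (kk : J → Fin 3 → ℤ) (Q : Finset (Fin 3 → ℤ)) (K1 K3 : ℕ) {vU vI vN : ℝ≥0} {f : R3 → R3}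
    {Φ : R3 ≃ₜ R3} {U K₀ : Set R3} (hMv : Mv (h.T a) Φ) (hK : IsCompact K₀) (hKO : K₀ ⊆ Om)
    (hface : p = 2 → ∀ x ∈ Om, (h.T a).dim x = 2 → ∀ z ∈ (h.T a).cc x,
      (∀ᶠ w in 𝓝 z, Φ w = w) ∨ f (Φ z) ∈ U)
    {B : h.ιT a → E3 ≃ᵃ[ℝ] E3} {κt : h.ιT a → ℕ} {R u : h.ιT a → ℝ≥0}
    (hS : ∀ t, Shp2 (Te (h.T a)) t (B t) (R t) (u t))
    (κ1 : ∀ t, sclT h a t ≤ κt t) (κ2 : ∀ t, κt t ≤ sclT h a t + 1)
    (R_eq : ∀ t, R t = ((2:ℝ≥0) ^ κt t)⁻¹)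
    (R2 : ∀ k l, (P ((h.T a).H k) ∩ P ((h.T a).H l)).Nonempty →
      R k ≤ u k * R l ∧ R l ≤ u k * R k)
    (u1 : ∀ t, 1 ≤ u t) (uU : ∀ t, Cl1 h 3 a t → u t ≤ vU)
    (uI : ∀ j, ∀ t ∈ deepJ h a j K3, u t ≤ vI) (uN : ∀ t, u t ≤ vN) :
    ∃ (s : Finset (h.ιT a)) (pr : (Te (h.T a)).Cell → Prop) (c : h.ιT a → E3)
      (X : Sys s (reps (Te (h.T a)) s pr)),
      SetD p h a kk Q K1 K3 vU vI vN f Φ U K₀ s pr c κt R u X := by
  obtain ⟨s, h1, h2, -, c, X, h4, h5, h6⟩ := exists_set hMv hK hKO (p < 2)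
    (deepT h a kk Q K1) (f := f) (U := U)
    (fun hq => hface (le_antisymm hp2 (not_lt.1 hq))) B R u hS R2
  exact ⟨s, prS (h.T a) s (p < 2) (deepT h a kk Q K1), c, X,
    { sys := h4
      edge := h5
      κ1 := κ1
      κ2 := κ2
      R_eq := R_eq
      R2 := R2
      u1 := u1
      uU := uU
      uI := uI
      uN := uN
      supp := h2
      mem_s := h1
      pr_s := fun _ hc => hc.1
      pr_d := fun _ hc => hc.2
      pr_of := fun _ _ ha hb => ⟨ha, hb⟩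
      good := h6 }⟩

end

end Crest.Agent.R096.Cbs_296
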