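import Mathlib
import Crest.Agent.R096.Mfi5_290

/-!
# Row 96, leaf [CM] of 365 #11372 (helper374): ONE finite list of shapes for all blocks

`LB B R := simL (N0 3) 1 2 ∪ simL (NB 3 B) 1 R` is finite, depends on the bounds `B`, `R` only and
contains the lists `qSh M X j k0 _ c` of ALL classes of ALL aligned meshes with `X.B j ≤ B`,
`X.R j ≤ R`.  So `Cm` can be chosen before the data (`exists_Cm`).
-/

set_option autoImplicit false

open MeasureTheory Set Filter Metric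
open scoped Topology ENNReal

namespace Crest.Agent.R096.Ucm1_374

open Msh_715 Cut_874 Msh_810 Mal_874 Mfi_290
open Crest.Agent.R096.SkC1_961 (E3 Cfg)

/-! ### monotonicity of the lists -/

section mono

variable {n : ℕ}

theorem thr_mono {𝒩 𝒩' : Finset (Fin n → ℝ)} (h : 𝒩 ⊆ 𝒩') (d : ℕ) {B B' : ℝ} (hB : B ≤ B') :
    thr 𝒩 d B ⊆ thr 𝒩' d B' := by
  rintro p ⟨h1, t, ht, e⟩
  exact ⟨h h1, t, ht.trans hB, e⟩

theorem shapes_mono {𝒩 𝒩' : Finset (Fin n → ℝ)} (h : 𝒩 ⊆ 𝒩') (d : ℕ) {B B' : ℝ} (hB : B ≤ B') :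
    shapes 𝒩 d B ⊆ shapes 𝒩' d B' := by
  rintro S ⟨C1, h1, C2, h2, e⟩
  exact ⟨C1, h1.trans (thr_mono h d hB), C2, h2.trans (thr_mono h d hB), e⟩

theorem bnd_mono {𝒩 𝒩' : Finset (Fin n → ℝ)} (h : 𝒩 ⊆ 𝒩') (d : ℕ) {R R' : ℝ} (hR : |R| ≤ |R'|) :
    bnd 𝒩 d R ≤ bnd 𝒩' d R' := by
  unfold bnd
  have h1 : ∑ ν ∈ 𝒩, n1 ν ≤ ∑ ν ∈ 𝒩', n1 ν :=
    Finset.sum_le_sum_of_subset_of_nonneg h fun ν _ _ => n1_nonneg ν
  have h0 : 0 ≤ ∑ ν ∈ 𝒩, n1 ν := Finset.sum_nonneg fun ν _ => n1_nonneg ν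
  have h2 : (|R| + 1) * (d : ℝ) ≤ (|R'| + 1) * d :=
    mul_le_mul_of_nonneg_right (by linarith) (Nat.cast_nonneg d)
  have h3 : 0 ≤ (|R'| + 1) * (d : ℝ) := by positivity
  exact mul_le_mul h2 h1 h0 h3

/-- the lists grow with the normals and with the size -/
theorem simL_mono {𝒩 𝒩' : Finset (Fin n → ℝ)} (h : 𝒩 ⊆ 𝒩') (d : ℕ) {R R' : ℝ}
    (hR : |R| ≤ |R'|) : simL 𝒩 d R ⊆ simL 𝒩' d R' := by
  intro K hK S' hS'
  obtain ⟨S, hS, v, hv, e⟩ := hK hS'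
  exact ⟨S, shapes_mono h d (bnd_mono h d hR) hS, v, fun m => (hv m).trans (by linarith), e⟩

theorem NB_mono {B B' : ℕ} (h : B ≤ B') : NB n B ⊆ NB n B' := by
  classical
  unfold NB
  refine Finset.image_subset_image ?_
  intro ν hν
  rw [Fintype.mem_piFinset] at hν ⊢
  intro l
  have h1 := Finset.mem_Icc.1 (hν l)
  have h2 : (B : ℤ) ≤ B' := by exact_mod_cast h
  exact Finset.mem_Icc.2 ⟨by linarith [h1.1], by linarith [h1.2]⟩

end mono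

/-! ### the universal list -/

/-- **the universal finite list of configurations** for blocks with bounds `B`, `R` -/
def LB (B : ℕ) (R : ℝ) : Set (Set (Set E3)) := simL (N0 3) 1 2 ∪ simL (NB 3 B) 1 R

theorem LB_finite (B : ℕ) (R : ℝ) : (LB B R).Finite :=
  (simL_finite _ _ _).union (simL_finite _ _ _)

theorem LB_mono {B B' : ℕ} {R R' : ℝ} (hB : B ≤ B') (h0 : 0 ≤ R) (hR : R ≤ R') :
    LB B R ⊆ LB B' R' :=
  union_subset_union_right _ (simL_mono (NB_mono hB) 1 (by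
    rw [abs_of_nonneg h0, abs_of_nonneg (h0.trans hR)]; exact hR))

section inst

variable {J : Type} {M : MD E3 3 J}

/-- **[CM]: the lists of all classes of all blocks are contained in one list** -/
theorem qSh_LB (X : RD M) (j : J) (k0 : ℕ) (hk0 : (M.Q j).kc ≤ k0) {B : ℕ} {R : ℝ}
    (hB : X.B j ≤ B) (hR : X.R j ≤ R) (c : Pt (M.Q j) ⊕ ℕ) : qSh M X j k0 hk0 c ⊆ LB B R :=
  (qSh_sub M X j k0 hk0 c).trans (LB_mono hB (zero_le_one.trans (X.R1 j)) hR)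

theorem QI_Sh (X : RD M) (j : J) (k0 : ℕ) (hk0 : (M.Q j).kc ≤ k0) {B : ℕ} {R : ℝ}
    (hB : X.B j ≤ B) (hR : X.R j ≤ R) (c : (QI M X j k0 hk0).κ) :
    (QI M X j k0 hk0).Sh c ⊆ LB B R :=
  qSh_LB X j k0 hk0 hB hR c

end inst

/-! ### constants before the data -/

/-- a function is bounded on the universal list -/
theorem exists_bound (C : Set (Set E3) → ℝ) (B : ℕ) (R : ℝ) :
    ∃ K : ℝ, 1 ≤ K ∧ ∀ 𝒞 ∈ LB B R, C 𝒞 ≤ K := by
  obtain ⟨K, hK⟩ := ((LB_finite B R).image C).bddAbove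
  exact ⟨max K 1, le_max_right _ _, fun 𝒞 h =>
    (hK (mem_image_of_mem C h)).trans (le_max_left _ _)⟩

/-- **`Cm` before the data**: `K` depends on `C`, `B`, `R` only -/
theorem exists_Cm (C : Set (Set E3) → ℝ) (B : ℕ) (R : ℝ) :
    ∃ K : ℝ, 1 ≤ K ∧ ∀ (J : Type) (M : MD E3 3 J) (X : RD M) (j : J) (k0 : ℕ)
      (hk0 : (M.Q j).kc ≤ k0), X.B j ≤ B → X.R j ≤ R → ∀ c, ∀ 𝒞 ∈ qSh M X j k0 hk0 c,
      C 𝒞 ≤ K := by
  obtain ⟨K, h1, hK⟩ := exists_bound C B R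
  exact ⟨K, h1, fun J M X j k0 hk0 hB hR c 𝒞 h => hK 𝒞 (qSh_LB X j k0 hk0 hB hR c h)⟩

end Crest.Agent.R096.Ucm1_374
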