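import Mathlib
import Crest.Agent.R096.Mfi6_290
import Crest.Agent.R096.Ucm1_374

/-!
# Row 96, CARD bound of 365 #11531 (helper374), part 1: the number of coarse names of a block

`CT Q k0` = the used coarse potential tiles of the block `Q` (cubes of scale `< k0`, cubes at the
shell, the shell).  `card_CT`: their number is at most `NT n dk S I`, a number of the dimension, the
number of scales `dk`, the size `S` of the block in cells and the number `I` of the shell tiles.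
`card_edges`: the number of their potential edges (290's `QI`).
-/

set_option autoImplicit false
set_option linter.unusedSectionVars false

open MeasureTheory Set Filter Metric
open scoped Topology ENNReal

namespace Crest.Agent.R096.Cct_374

open Msh_715 Cut_874 Msh_810 Mal_874 Mfi_290
open Crest.Agent.R096.SkC1_961 (E3 Cfg)

/-! ### cubes in a box -/

section cubes

variable {n : ℕ} {E : Type*} [NormedAddCommGroup E] [NormedSpace ℝ E] (Q : CB E n)

/-- scaled coordinates of two scales -/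
theorem ps_scale (a x : Fin n → ℝ) {k m : ℕ} (h : k ≤ m) (l : Fin n) :
    ps a m x l = 2 ^ (m - k) * ps a k x l := by
  unfold ps
  rw [← mul_assoc, ← pow_add, Nat.sub_add_cancel h]

/-- a cube of scale `m` inside the block has its corner in an integer box -/
theorem corner_mem {m : ℕ} (hm : Q.kc ≤ m) {z : Fin n → ℤ} (h : cube Q m z ⊆ Q.N) :
    z ∈ bx (fun l => 2 ^ (m - Q.kc) * Q.al l) (fun l => 2 ^ (m - Q.kc) * Q.be l) := by
  have hp : (0 : ℝ) < 2 ^ (m - Q.kc) := by positivity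
  intro l
  obtain ⟨y, hy⟩ := exists_ps Q.ψ Q.a' m (fun l => (z l : ℝ))
  obtain ⟨y', hy'⟩ := exists_ps Q.ψ Q.a' m (fun l => (z l : ℝ) + 1)
  have h1 : y ∈ cube Q m z := by
    unfold cube
    rw [mem_ofPred_eq, mem_Cu]
    intro i
    rw [hy]
    constructor <;> simp
  have h2 : y' ∈ cube Q m z := by
    unfold cube
    rw [mem_ofPred_eq, mem_Cu]
    intro i
    rw [hy']
    constructor <;> simp
  have h3 := (Q.mem_N.1 (h h1) l).1
  have h4 := (Q.mem_N.1 (h h2) l).2
  have e1 := congrFun hy l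
  have e2 := congrFun hy' l
  rw [ps_scale _ _ hm] at e1 e2
  constructor
  · have : (2 ^ (m - Q.kc) * (Q.al l : ℝ)) ≤ z l := by
      rw [← e1]
      refine mul_le_mul_of_nonneg_left ?_ hp.le
      unfold CB.al
      push_cast
      exact h3
    exact_mod_cast this
  · have : (z l : ℝ) + 1 ≤ 2 ^ (m - Q.kc) * (Q.be l : ℝ) := by
      rw [← e2]
      refine mul_le_mul_of_nonneg_left ?_ hp.le
      unfold CB.be
      push_cast
      exact h4
    have h5 : (z l + 1 : ℤ) ≤ 2 ^ (m - Q.kc) * Q.be l := by exact_mod_cast this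
    show z l < 2 ^ (m - Q.kc) * Q.be l
    omega

/-- the number of points of an integer box -/
theorem ncard_bx {α β : Fin n → ℤ} {S : ℕ} (h : ∀ l, β l - α l ≤ S) : (bx α β).ncard ≤ S ^ n := by
  classical
  have e : bx α β = ((Fintype.piFinset fun l => Finset.Ico (α l) (β l) : Finset (Fin n → ℤ)) :
      Set (Fin n → ℤ)) := by
    ext z
    rw [Finset.mem_coe, Fintype.mem_piFinset]
    exact forall_congr' fun l => Finset.mem_Ico.symm
  rw [e, Set.ncard_coe_finset, Fintype.card_piFinset]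
  calc ∏ l, (Finset.Ico (α l) (β l)).card ≤ ∏ _l : Fin n, S := by
        refine Finset.prod_le_prod' fun l _ => ?_
        rw [Int.card_Ico]
        have := h l
        omega
    _ = S ^ n := by simp

/-- the cubes of scale `m` inside the block -/
theorem ncard_cubes {m dk S : ℕ} (hm : Q.kc ≤ m) (hdk : m ≤ Q.kc + dk)
    (hS : ∀ l, Q.be l - Q.al l ≤ (S : ℤ)) :
    {z | cube Q m z ⊆ Q.N}.Finite ∧ {z | cube Q m z ⊆ Q.N}.ncard ≤ (2 ^ dk * S) ^ n := by
  have h0 : {z | cube Q m z ⊆ Q.N} ⊆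
      bx (fun l => 2 ^ (m - Q.kc) * Q.al l) (fun l => 2 ^ (m - Q.kc) * Q.be l) :=
    fun z hz => corner_mem Q hm hz
  refine ⟨(bx_finite _ _).subset h0, (Set.ncard_le_ncard h0 (bx_finite _ _)).trans (ncard_bx ?_)⟩
  intro l
  have h1 : (2 : ℤ) ^ (m - Q.kc) ≤ 2 ^ dk := pow_le_pow_right₀ (by norm_num) (by omega)
  have h2 := hS l
  have h3 := Q.al_lt l
  have h4 : (0 : ℤ) < 2 ^ (m - Q.kc) := by positivity
  push_cast
  rw [← mul_sub]
  calc (2 : ℤ) ^ (m - Q.kc) * (Q.be l - Q.al l) ≤ 2 ^ dk * (Q.be l - Q.al l) :=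
        mul_le_mul_of_nonneg_right h1 (by linarith)
    _ ≤ 2 ^ dk * S := mul_le_mul_of_nonneg_left h2 (by positivity)

/-! ### the coarse names -/

/-- the used coarse names of the block: cubes of scale `< k0`, cubes at the shell, the shell -/
def CT (k0 : ℕ) : Set (Pt Q) :=
  {t | (∀ p, t = Sum.inl p → Use Q p ∧
    (p.1 < k0 ∨ (cube Q p.1 p.2 ∩ Q.S.bp Q.ψ Q.a' Q.kc).Nonempty))}

/-- the used cubes have scale at least `kc` -/
theorem kc_le_use {p : ℕ × (Fin n → ℤ)} (h : Use Q p) : Q.kc ≤ p.1 := by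
  obtain ⟨⟨k, hk, hI⟩, -⟩ := h
  exact Q.kc_le k hk (τ := ⟨⟨⟨p.1, p.2, Finset.univ⟩, hI⟩, rfl⟩)

/-- the used cubes at the shell have scale `kc` -/
theorem kc_eq_use [NeZero n] {p : ℕ × (Fin n → ℤ)} (h : Use Q p)
    (hb : (cube Q p.1 p.2 ∩ Q.S.bp Q.ψ Q.a' Q.kc).Nonempty) : p.1 = Q.kc := by
  obtain ⟨⟨k, hk, hI⟩, -⟩ := h
  obtain ⟨y, hy, hyb⟩ := hb
  refine Q.near_k k hk (τ := ⟨⟨⟨p.1, p.2, Finset.univ⟩, hI⟩, rfl⟩) (y := y)
    ((Q.tile_T0 k hk).2 hy) ?_
  have h1 := Q.near_of_bp hyb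
  intro l
  have h2 := h1 l
  constructor <;> linarith [h2.1, h2.2]

/-- the bound of the number of coarse names: dimension, scales, size in cells, shell tiles -/
def NT (n dk S I : ℕ) : ℕ := (dk + 1) * (2 ^ dk * S) ^ n + I

theorem NT_mono {n dk dk' S S' I I' : ℕ} (h1 : dk ≤ dk') (h2 : S ≤ S') (h3 : I ≤ I') :
    NT n dk S I ≤ NT n dk' S' I' := by
  unfold NT
  have h4 : 2 ^ dk * S ≤ 2 ^ dk' * S' := Nat.mul_le_mul (Nat.pow_le_pow_right (by norm_num) h1) h2
  exact Nat.add_le_add (Nat.mul_le_mul (by omega) (Nat.pow_le_pow_left h4 _)) h3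

/-- **the number of coarse names of a block is bounded by a number without data** -/
theorem card_CT [NeZero n] {k0 dk S I : ℕ} (hk0 : k0 ≤ Q.kc + dk)
    (hS : ∀ l, Q.be l - Q.al l ≤ (S : ℤ)) (hI : Nat.card Q.S.Ix ≤ I) :
    (CT Q k0).Finite ∧ (CT Q k0).ncard ≤ NT n dk S I := by
  classical
  set Z : Finset (ℕ × (Fin n → ℤ)) := (Finset.range (dk + 1)).biUnion fun d =>
    ((ncard_cubes Q (m := Q.kc + min d dk) (dk := dk) (by omega) (by omega) hS).1.toFinset).image
      fun z => (Q.kc + min d dk, z) with hZ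
  have hZc : Z.card ≤ (dk + 1) * (2 ^ dk * S) ^ n := by
    refine Finset.card_biUnion_le.trans ?_
    calc ∑ d ∈ Finset.range (dk + 1), _ ≤ ∑ _d ∈ Finset.range (dk + 1), (2 ^ dk * S) ^ n := by
          refine Finset.sum_le_sum fun d _ => Finset.card_image_le.trans ?_
          rw [← Set.ncard_eq_toFinset_card _ (ncard_cubes Q (m := Q.kc + min d dk) (dk := dk)
            (by omega) (by omega) hS).1]
          exact (ncard_cubes Q (m := Q.kc + min d dk) (dk := dk) (by omega) (by omega) hS).2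
      _ = (dk + 1) * (2 ^ dk * S) ^ n := by simp
  have hsub : CT Q k0 ⊆ Sum.inl '' (Z : Set (ℕ × (Fin n → ℤ))) ∪ range (Sum.inr : Q.S.Ix → Pt Q) := by
    rintro (p | s) ht
    · left
      refine ⟨p, ?_, rfl⟩
      obtain ⟨h1, h2⟩ := ht p rfl
      have h3 := kc_le_use Q h1
      have h4 : p.1 ≤ Q.kc + dk := by
        rcases h2 with h2 | h2
        · omega
        · rw [kc_eq_use Q h1 h2]
          omega
      obtain ⟨m, z⟩ := p
      simp only at h3 h4
      rw [hZ, Finset.mem_coe, Finset.mem_biUnion]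
      refine ⟨m - Q.kc, Finset.mem_range.2 (by omega), Finset.mem_image.2 ⟨z, ?_, ?_⟩⟩
      · rw [Set.Finite.mem_toFinset]
        have e : Q.kc + min (m - Q.kc) dk = m := by omega
        rw [e]
        exact h1.2.1
      · have e : Q.kc + min (m - Q.kc) dk = m := by omega
        rw [e]
    · exact Or.inr ⟨s, rfl⟩
  have hf1 : (Sum.inl '' (Z : Set (ℕ × (Fin n → ℤ))) : Set (Pt Q)).Finite := Z.finite_toSet.image _
  have hf2 : (range (Sum.inr : Q.S.Ix → Pt Q)).Finite := Set.finite_range _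
  refine ⟨(hf1.union hf2).subset hsub, (Set.ncard_le_ncard hsub (hf1.union hf2)).trans ?_⟩
  refine (Set.ncard_union_le _ _).trans (Nat.add_le_add ?_ ?_)
  · refine (Set.ncard_image_le Z.finite_toSet).trans ?_
    rw [Set.ncard_coe_finset]
    exact hZc
  · rw [← Set.image_univ]
    refine (Set.ncard_image_le Set.finite_univ).trans ?_
    rw [Set.ncard_univ]
    exact hI

end cubes

/-! ### the edges -/

section edges

variable {J : Type} (M : MD E3 3 J) (X : RD M) (j : J) (k0 : ℕ) (hk0 : (M.Q j).kc ≤ k0)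

/-- an active coarse name is in `CT` -/
theorem mem_CT {t : Pt (M.Q j)} (hc : Coarse M k0 j t) (ha : (qAc M j t).Nonempty) :
    t ∈ CT (M.Q j) k0 := by
  rintro p rfl
  obtain ⟨s, hs⟩ := ha
  exact ⟨hs.2.1, hc⟩

/-- the number of edges of a tile with bounds `B`, `R` -/
noncomputable def nB (B : ℕ) (R : ℝ) : ℕ := (⋃₀ {c | c ∈ Ucm1_374.LB B R ∧ c.Finite}).ncard

theorem shs_LB_finite (B : ℕ) (R : ℝ) : (⋃₀ {c | c ∈ Ucm1_374.LB B R ∧ c.Finite}).Finite :=
  Set.Finite.sUnion ((Ucm1_374.LB_finite B R).subset fun _ h => h.1) fun _ h => h.2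

/-- **the number of potential edges of a potential tile, no data** -/
theorem card_Ed {B : ℕ} {R : ℝ} (hB : X.B j ≤ B) (hR : X.R j ≤ R) {𝒦 : Set (Set E3)} {U : Set E3}
    (h𝒦 : 𝒦.Countable) (hU : U.Countable) (t : Pt (M.Q j)) :
    (((QI M X j k0 hk0).toPT 𝒦 U h𝒦 hU).Ed t).card ≤ nB B R := by
  refine (RT.card_Ed_le (QI M X j k0 hk0) 𝒦 U h𝒦 hU t).trans ?_
  refine Set.ncard_le_ncard ?_ (shs_LB_finite B R)
  rintro K ⟨c, ⟨hc, hf⟩, hK⟩
  exact ⟨c, ⟨Ucm1_374.QI_Sh X j k0 hk0 hB hR _ hc, hf⟩, hK⟩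

/-- the coarse edges: pairs of an active coarse name and a potential edge of it -/
def CE {𝒦 : Set (Set E3)} {U : Set E3} (h𝒦 : 𝒦.Countable) (hU : U.Countable) : Type :=
  Σ t : CT (M.Q j) k0, {K // K ∈ ((QI M X j k0 hk0).toPT 𝒦 U h𝒦 hU).Ed t.1}

/-- **CARD: the number of coarse edges of the block `j` is bounded by a number without data** -/
theorem card_CE {B : ℕ} {R : ℝ} (hB : X.B j ≤ B) (hR : X.R j ≤ R) {dk S I : ℕ}
    (hdk : k0 ≤ (M.Q j).kc + dk) (hS : ∀ l, (M.Q j).be l - (M.Q j).al l ≤ (S : ℤ))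
    (hI : Nat.card (M.Q j).S.Ix ≤ I) {𝒦 : Set (Set E3)} {U : Set E3}
    (h𝒦 : 𝒦.Countable) (hU : U.Countable) :
    Finite (CE M X j k0 hk0 h𝒦 hU) ∧
      Nat.card (CE M X j k0 hk0 h𝒦 hU) ≤ NT 3 dk S I * nB B R := by
  classical
  obtain ⟨h1, h2⟩ := card_CT (M.Q j) hdk hS hI
  have := h1.to_subtype
  have := Fintype.ofFinite (CT (M.Q j) k0)
  refine ⟨inferInstanceAs (Finite (Σ _, _)), ?_⟩
  unfold CE
  rw [Nat.card_sigma]
  calc ∑ t : CT (M.Q j) k0, Nat.card {K // K ∈ ((QI M X j k0 hk0).toPT 𝒦 U h𝒦 hU).Ed t.1}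
      ≤ ∑ _t : CT (M.Q j) k0, nB B R := by
        refine Finset.sum_le_sum fun t _ => ?_
        rw [Nat.card_eq_fintype_card, Fintype.card_coe]
        exact card_Ed M X j k0 hk0 hB hR h𝒦 hU t.1
    _ = Fintype.card (CT (M.Q j) k0) * nB B R := by simp
    _ ≤ NT 3 dk S I * nB B R := by
        refine Nat.mul_le_mul_right _ ?_
        rw [← Nat.card_eq_fintype_card, Nat.card_coe_set_eq]
        exact h2

end edges

end Crest.Agent.R096.Cct_374
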