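import Crest.Agent.R096.Wd8_120
import Crest.Agent.R096.Bsp3_628

/-!
Row 96, exact cores (helper120), part 9: WORDS for all exact cores.
-/

set_option autoImplicit false
set_option linter.unusedSectionVars false

open Set Filter Topology Metric MeasureTheory
open scoped ENNReal

namespace Crest.Agent.R096.Wd_120

open Crest.Agent.R096.Bsp_628 Crest.Agent.R096.Bxs_627 Crest.Agent.R096.Brk1_582
open Crest.Agent.R096.Brk3_582 Crest.Agent.R096.Brk5_582 Crest.Agent.R096.Core_124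
open Crest.Agent.R096.Msh_715 Crest.Agent.R096.Ls_222 Crest.Agent.R96.Sg1_199
open Crest.Agent.R096.SkC1_961 (FoamD th)
open Crest.Agent.R096.Mbf_337 (sb)

section touch

variable {κ : Type*} [Fintype κ] [Nonempty κ] [DecidableEq κ] {La : Set (κ → ℝ)} {F : Set (Bx κ)}
  {δ κ0 R : ℝ}

/-- finitely many bricks touch a brick, at most `Nb κ (R κ0)` -/
theorem touch_finset (BF : BoxFoam La F δ κ0) (hκ : 0 < κ0) (hR : 0 < R) (hcmp : Cmp F R) (c' : F)
    (S : Finset F) (hS : ∀ c ∈ S, (Pc F c' ∩ Pc F c).Nonempty) : S.card ≤ Nb κ (R * κ0) := by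
  classical
  have h1 : (S.image Subtype.val).card = S.card :=
    Finset.card_image_of_injective _ Subtype.val_injective
  rw [← h1]
  refine touch_card (B := c'.1) (by positivity) (Bx.sz_pos (BF.pos _ c'.2)) ?_ ?_ ?_
  · intro C hC k
    obtain ⟨c, hc, rfl⟩ := Finset.mem_image.1 hC
    obtain ⟨y, hy', hy⟩ := hS c hc
    have a1 := Bx.mem_set.1 hy' k
    have a2 := Bx.mem_set.1 hy k
    exact ⟨a1.1.trans a2.2, a2.1.trans a1.2⟩
  · intro C hC i
    obtain ⟨c, hc, rfl⟩ := Finset.mem_image.1 hC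
    have a1 := hcmp c' c (hS c hc)
    have a2 := BF.asp _ c.2 i
    calc c'.1.sz ≤ R * c.1.sz := a1
      _ ≤ R * (κ0 * c.1.side i) := mul_le_mul_of_nonneg_left a2 hR.le
      _ = R * κ0 * c.1.side i := by ring
  · intro C hC C' hC' hne
    obtain ⟨c, hc, rfl⟩ := Finset.mem_image.1 hC
    obtain ⟨c1, hc1, rfl⟩ := Finset.mem_image.1 hC'
    exact BF.inv.disj c.2 c1.2 (BF.pos _ c.2) (BF.pos _ c1.2) hne

theorem touch_finite (BF : BoxFoam La F δ κ0) (hκ : 0 < κ0) (hR : 0 < R) (hcmp : Cmp F R) (c' : F) :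
    {c : F | (Pc F c' ∩ Pc F c).Nonempty}.Finite := by
  by_contra hinf
  obtain ⟨S, hS, hcard⟩ := (show Set.Infinite _ from hinf).exists_subset_card_eq (Nb κ (R * κ0) + 1)
  have := touch_finset BF hκ hR hcmp c' S fun c hc => hS hc
  omega

end touch

section all

variable {δ κ0 R c0 : ℝ} {La Om : Set (Fin 3 → ℝ)} {ι : Type}

theorem Cs_pos (hδ : 0 < δ) (hR : 0 < R) : 0 < Cs (Fintype.card (Fin 3)) δ R := by
  have h3 : Fintype.card (Fin 3) = 2 + 1 := by simp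
  rw [h3]
  unfold Cs
  simp only [Brk4_582.Lc]
  have hw : 0 < δ / R := by positivity
  have : 0 ≤ max (2 * (2 / (δ / R) + max (2 * (2 / (δ / R) + max (2 * 0) (1 / (δ / R)) *
    (1 + 1 / (δ / R)))) (1 / (δ / R)) * (1 + 1 / (δ / R)))) (1 / (δ / R)) *
    (1 + 1 / (δ / R)) := by
    refine mul_nonneg (le_max_of_le_right (by positivity)) (by positivity)
  positivity

/-- **WORDS.**  For every allowed measure `η` of the bad levels, every bound `M` of the grids, `n` of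
the numbers of edges of the cores and `lam1 < 1` of the ratios there is `kw > 0` such that: if on the
edges of every exact core `f` is `kw lam sz`-close to `A` and the integrated defect of the increments
is at most `kw lam sz`, then there are sets of bad levels of measure `≤ η`, and all other levels have
exact words and signs on all exact cores. -/
theorem words (hδ : 0 < δ) (hκ : 1 ≤ κ0) (hR : 1 ≤ R) {η lam1 : ℝ} (hη : 0 < η) (hl1 : lam1 < 1)
    {M : ℕ} (hM : 0 < M) (n : ℕ) :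
    ∃ kw : ℝ, 0 < kw ∧ ∀ (La Om : Set (Fin 3 → ℝ)), IsOpen La → ∀ (c0 : ℝ)
      (Φ : FoamD δ κ0 R c0 La) (ι : Type) (T : Tiling Om ι) (f : (Fin 3 → ℝ) → Fin 3 → ℝ)
      (X : Set Φ.F) (ct : Φ.F → ι) (A : Φ.F → (Fin 3 → ℝ) ≃ᵃ[ℝ] (Fin 3 → ℝ)) (lam : Φ.F → ℝ)
      (Mc : Φ.F → ℕ) (g : Φ.F → Edg T → ℝ → ℝ),
      (∀ c ∈ X, CoreW Φ T f c (ct c) (A c) (lam c) (Mc c) (kw * (lam c * c.1.sz)) (g c)) →
      (∀ c ∈ X, lam c ≤ lam1) → (∀ c ∈ X, Mc c ≤ M) → (∀ c ∈ X, (eIn T (ct c)).card ≤ n) →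
      (∀ c ∈ X, ∑ e ∈ eIn T (ct c), ∫ τ in (0:ℝ)..1, g c e τ ≤ kw * (lam c * c.1.sz)) →
      ∃ Bad : Φ.F → Set ℝ, (∀ c', MeasurableSet (Bad c')) ∧
        (∀ c', volume (Bad c') ≤ ENNReal.ofReal η) ∧
        ∀ c ∈ X, ∀ c', ∀ t ∈ Ioo (0 : ℝ) 1, t ∉ Bad c' →
          WS Φ T f c (ct c) (A c) (lam c) (zz c.1 (lam c)) c' t := by
  classical
  have hR0 : 0 < R := by linarith
  have hκ0 : 0 < κ0 := by linarith
  have hC := Cs_pos (R := R) hδ hR0
  set N : ℕ := Nb (Fin 3) (R * κ0) with hN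
  have hη' : 0 < η / (N + 1) := by positivity
  obtain ⟨θ, kw, hθ, hθ1, hkw, k1, k2, k3, k4, k5⟩ := exists_kw hC hκ0.le hη' hl1 hM n
  refine ⟨kw, hkw, ?_⟩
  intro La Om hLa c0 Φ ι T f X ct A lam Mc g hX hlam hMc hn hg
  have hM' : (0 : ℝ) < M := by exact_mod_cast hM
  set C := Cs (Fintype.card (Fin 3)) δ R with hCdef
  have cond : ∀ c ∈ X, 1 / (M : ℝ) ≤ 1 / (Mc c) := by
    intro c hc
    have h1 : (0 : ℝ) < Mc c := by exact_mod_cast (hX c hc).M0
    exact one_div_le_one_div_of_le h1 (by exact_mod_cast hMc c hc)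
  have hone : ∀ c ∈ X, ∀ c', ∃ Bad : Set ℝ, MeasurableSet Bad ∧
      volume Bad ≤ ENNReal.ofReal (η / (N + 1)) ∧
      ∀ t ∉ Bad, WS Φ T f c (ct c) (A c) (lam c) (zz c.1 (lam c)) c' t := by
    intro c hc c'
    have hh := cond c hc
    have hMr : ((Mc c : ℕ) : ℝ) ≤ M := by exact_mod_cast hMc c hc
    refine (hX c hc).bad hLa hδ hR0 hC hθ hθ1 ?_ ?_ k3 ?_ ?_ hkw.le (hn c hc) (hg c hc) c'
    · refine k1.trans_le (mul_le_mul_of_nonneg_left (min_le_min le_rfl ?_) hθ.le)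
      exact div_le_div_of_nonneg_right (by linarith) hC.le
    · linarith [hlam c hc]
    · exact k4.trans_le (mul_le_mul_of_nonneg_left hh hθ.le)
    · refine le_trans ?_ k5
      have hD : 0 ≤ C * (1 + κ0) * (4 / 3) * kw := by positivity
      nlinarith
  choose! B b1 b2 b3 using hone
  have hfin : ∀ c' : Φ.F, {c : Φ.F | (Pc Φ.F c' ∩ Pc Φ.F c).Nonempty}.Finite :=
    fun c' => touch_finite Φ.bf hκ0 hR0 Φ.cmp c'
  refine ⟨fun c' => ⋃ c ∈ ((hfin c').toFinset.filter fun c => c ∈ X), B c c', ?_, ?_, ?_⟩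
  · intro c'
    exact Finset.measurableSet_biUnion _ fun c hc => b1 c (Finset.mem_filter.1 hc).2 c'
  · intro c'
    refine (measure_biUnion_finset_le _ _).trans ?_
    refine (Finset.sum_le_sum (g := fun _ => ENNReal.ofReal (η / (N + 1))) fun c hc =>
      b2 c (Finset.mem_filter.1 hc).2 c').trans ?_
    rw [Finset.sum_const, nsmul_eq_mul, ← ENNReal.ofReal_natCast, ← ENNReal.ofReal_mul
      (Nat.cast_nonneg _)]
    refine ENNReal.ofReal_le_ofReal ?_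
    have hcard : ((hfin c').toFinset.filter fun c => c ∈ X).card ≤ N :=
      touch_finset Φ.bf hκ0 hR0 Φ.cmp c' _ fun c hc => by
        have := (Finset.mem_filter.1 hc).1
        rwa [Set.Finite.mem_toFinset] at this
    have hcard' : ((((hfin c').toFinset.filter fun c => c ∈ X).card : ℕ) : ℝ) ≤ N := by
      exact_mod_cast hcard
    have hN0 : (0 : ℝ) ≤ N := Nat.cast_nonneg _
    rw [mul_div_assoc', div_le_iff₀ (by positivity)]
    nlinarith
  · intro c hc c' t ht htB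
    by_cases htouch : (Pc Φ.F c' ∩ Pc Φ.F c).Nonempty
    · refine b3 c hc c' t fun hh => htB ?_
      simp only [mem_iUnion]
      exact ⟨c, Finset.mem_filter.2 ⟨(Set.Finite.mem_toFinset _).2 htouch, hc⟩, hh⟩
    · have h := hX c hc
      have hsz := Bx.sz_pos (Φ.bf.pos _ c.2)
      have hl := h.lam0
      have hl' := h.lam1
      have h0 : 0 ≤ 2 * κ0 * kw := by positivity
      refine h.ws_far hLa ?_ ?_ htouch ht
      · rw [scale1 hsz]; nlinarith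
      · rw [scale1 hsz]
        have := hlam c hc
        nlinarith

/-- the clause `push` of `CoreW` for 627's concentric two-stage push -/
theorem push_pus {Φ : FoamD δ κ0 R c0 La} {c : Φ.F} {lam : ℝ} (hQ : c.1.Pos) (hl : 0 < lam)
    (hl1 : lam < 1) (hpu : Φ.pu c = pus c.1 hQ lam hl) :
    ∀ y ∈ Pc Φ.F c, 3 / 4 * lam ≤ mu c.1 y → Φ.pu c y = rp c.1 y := by
  intro y _ hy
  rw [hpu]
  exact pus_eq_rp hQ hl hl1 (by linarith)

/-- **the clauses `word` and `sign` of `Mbf_337.Words`** -/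
theorem word_sign {Φ : FoamD δ κ0 R c0 La} {T : Tiling Om ι} {f : (Fin 3 → ℝ) → Fin 3 → ℝ}
    {X : Set Φ.F} {ct : Φ.F → ι} {A : Φ.F → (Fin 3 → ℝ) ≃ᵃ[ℝ] (Fin 3 → ℝ)} {lam : Φ.F → ℝ}
    {Bad : Φ.F → Set ℝ} (hB : ∀ c ∈ X, ∀ c', ∀ t ∈ Ioo (0 : ℝ) 1, t ∉ Bad c' →
      WS Φ T f c (ct c) (A c) (lam c) (zz c.1 (lam c)) c' t) {L : Φ.F → Finset ℝ}
    (hL : ∀ c', ∀ t ∈ L c', t ∈ Ioo (0 : ℝ) 1 ∧ t ∉ Bad c') :
    (∀ c ∈ X, ∀ x ∈ P (T.H (ct c)), T.dim x = 1 → ∀ c' : Φ.F, ∀ t ∈ L c',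
      ∀ a b : Fin 3 → ℝ, T.cc x = segment ℝ a b →
      let s := fun y => sb Φ (th (A c) (lam c) (zz c.1 (lam c)) y) c'
      s a ≠ t ∧ s b ≠ t ∧
      ((s a < t ∧ t < s b) ∨ (s b < t ∧ t < s a) → ∃! y, y ∈ T.cc x ∧ Φ.lev c' (f y) = t) ∧
      (¬ ((s a < t ∧ t < s b) ∨ (s b < t ∧ t < s a)) → ∀ y ∈ T.cc x, Φ.lev c' (f y) ≠ t)) ∧
    (∀ c ∈ X, ∀ x ∈ P (T.H (ct c)), T.dim x = 0 → ∀ c' : Φ.F, ∀ t ∈ L c',
      (Φ.lev c' (f x) < t ↔ sb Φ (th (A c) (lam c) (zz c.1 (lam c)) x) c' < t)) :=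
  ⟨fun c hc x hx hd c' t ht a b hab =>
    (hB c hc c' t (hL c' t ht).1 (hL c' t ht).2).1 x hx hd a b hab,
   fun c hc x hx hd c' t ht => (hB c hc c' t (hL c' t ht).1 (hL c' t ht).2).2 x hx hd⟩

end all

end Crest.Agent.R096.Wd_120
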