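import Mathlib
import Crest.Agent.R096.Cct1_374
import Crest.Agent.R096.Mdd4_360
import Crest.Agent.R096.Blu1_812
import Crest.Agent.R096.Wd9_120

/-!
# Row 96, CARD bound of 365 #11531 (helper374), part 2: the block of a brick

For 360's `blkD` and 812's `blkK` (628's prism shell in 874's block): the size of the block in cells
and the number of shell tiles are bounded by numbers of `m`, `t`, `B`, `R * κ0` only.
-/

set_option autoImplicit false
set_option linter.unusedSectionVars false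
set_option linter.style.longLine false

open MeasureTheory Set Filter Metric
open scoped Topology ENNReal

namespace Crest.Agent.R096.Cct_374

open Crest.Agent.R096.Bsp_628 Crest.Agent.R096.Brk1_582 Crest.Agent.R096.Brk2_582
open Crest.Agent.R096.Brk3_582 Crest.Agent.R096.Brk5_582 Crest.Agent.R096.Grd_714
open Crest.Agent.R096.Msh_715 Crest.Agent.R096.Msh_810 Crest.Agent.R096.Cut_874
open Crest.Agent.R096.Mal_874 Crest.Agent.R096.Mfi_290 Crest.Agent.R096.Fbr_628
open Crest.Agent.R096.SkC1_961 (E3)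

noncomputable section

variable {La : Set E3} {F : Set (Bx (Fin 3))} {δ κ0 : ℝ} {N : ℕ} {FF : Foam La (Pc F) (bc (F := F)) N}
  {h3 : Module.finrank ℝ (Fin 3 → ℝ) = 3} {c : F} {o : E3} {B R : ℝ}

/-- the number of flags of a brick -/
theorem card_flg (BF : BoxFoam La F δ κ0) (hκ : 0 < κ0)
    (hR : 0 < R) (hcmp : Cmp F R) (c : F) :
    Nat.card (Flg (Pc F) c) ≤ Nb (Fin 3) (R * κ0) ^ 3 := by
  classical
  have hfin := Wd_120.touch_finite BF hκ hR hcmp c
  set S : Finset F := hfin.toFinset with hS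
  have hcard : S.card ≤ Nb (Fin 3) (R * κ0) := Wd_120.touch_finset BF hκ hR hcmp c S fun d hd =>
    (Set.Finite.mem_toFinset hfin).1 hd
  have hm : ∀ (f : Flg (Pc F) c), f.a1 ∈ S ∧ f.a2 ∈ S ∧ f.a3 ∈ S := by
    intro f
    obtain ⟨y, hy⟩ := f.ne
    rw [mem_fc] at hy
    rw [hS]
    simp only [Set.Finite.mem_toFinset, mem_ofPred_eq]
    have h0 := hy c (by simp)
    exact ⟨⟨y, h0, hy _ (by simp)⟩, ⟨y, h0, hy _ (by simp)⟩, ⟨y, h0, hy _ (by simp)⟩⟩
  let g : Flg (Pc F) c → S × S × S := fun f => (⟨f.a1, (hm f).1⟩, ⟨f.a2, (hm f).2.1⟩, ⟨f.a3, (hm f).2.2⟩)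
  have hg : Function.Injective g := by
    intro f f' h
    simp only [g, Prod.mk.injEq, Subtype.mk.injEq] at h
    cases f; cases f'
    simp only [Flg.mk.injEq]
    exact h
  refine (Nat.card_le_card_of_injective g hg).trans ?_
  rw [Nat.card_prod, Nat.card_prod, Nat.card_eq_fintype_card, Fintype.card_coe]
  calc S.card * (S.card * S.card) = S.card ^ 3 := by ring
    _ ≤ _ := Nat.pow_le_pow_left hcard 3

variable (D : Fbr_628.BD FF h3 c o B) (hN : N ≤ 4) (BF : BoxFoam La F δ κ0) (hLa : IsOpen La)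
  (hQ : Quads (Pc F) (bc (F := F))) {m : ℕ} (hm : 0 < m) {t : ℤ} (ht : 0 < t)

/-- the bound of the number of shell tiles -/
def NI (m b : ℕ) : ℕ := 27 * (b ^ 3 * m ^ 2 + 1)

/-- **the number of shell tiles of a brick** -/
theorem card_Ix (hκ : 0 < κ0) (hR : 0 < R) (hcmp : Cmp F R) :
    Nat.card (D.shell hN BF hLa hQ hm t ht).Ix ≤ NI m (Nb (Fin 3) (R * κ0)) := by
  classical
  have hfl := card_flg BF hκ hR hcmp c
  have hff := finite_flg FF c
  set b := Nb (Fin 3) (R * κ0) with hb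
  have h1 : 1 ≤ m := hm
  have key : ∀ σ : Fin 3 → SignType, Nat.card (D.shF hN BF hLa hQ hm σ).Tc ≤ b ^ 3 * m ^ 2 + 1 := by
    intro σ
    rcases D.shF_cases hN BF hLa hQ hm σ with ⟨l0, h0, h1', e⟩ | ⟨l1, l2, hl, h01, h02, h1', e⟩ |
      ⟨-, e⟩
    · rw [e]
      have hfin : Finite (Flg (Pc F) c × Fin m × Fin m) := inferInstance
      refine le_trans (Nat.card_le_card_of_injective
        (fun t : {t : Tc (Pc F) c m // Fct c t.1.1.a1 l0 ((σ l0 : SignType) : ℝ)} => t.1.1)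
        fun a b h => Subtype.ext (Subtype.ext h)) ?_
      rw [Nat.card_prod, Nat.card_prod, Nat.card_fin]
      have : Nat.card (Flg (Pc F) c) * (m * m) ≤ b ^ 3 * m ^ 2 := by
        rw [pow_two]
        exact Nat.mul_le_mul_right _ hfl
      omega
    · rw [e]
      refine le_trans (Nat.card_le_card_of_injective
        (fun x : {x : Flg (Pc F) c × Fin m // Fct c x.1.a1 l1 ((σ l1 : SignType) : ℝ) ∧
          Fct c x.1.a2 l2 ((σ l2 : SignType) : ℝ)} => x.1)
        fun a b h => Subtype.ext h) ?_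
      rw [Nat.card_prod, Nat.card_fin]
      have h2 : Nat.card (Flg (Pc F) c) * m ≤ b ^ 3 * m := Nat.mul_le_mul_right _ hfl
      have h3 : b ^ 3 * m ≤ b ^ 3 * m ^ 2 := Nat.mul_le_mul_left _ (by nlinarith)
      omega
    · rw [e]
      change Nat.card Unit ≤ _
      rw [Nat.card_eq_fintype_card, Fintype.card_unit]
      omega
  have hfin : ∀ σ, Finite (D.shF hN BF hLa hQ hm σ).Tc := fun σ =>
    haveI := (D.shF hN BF hLa hQ hm σ).fin
    inferInstance
  change Nat.card (Σ σ : Fin 3 → SignType, (D.shF hN BF hLa hQ hm σ).Tc) ≤ _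
  rw [Nat.card_sigma]
  calc ∑ σ : Fin 3 → SignType, Nat.card (D.shF hN BF hLa hQ hm σ).Tc
      ≤ ∑ _σ : Fin 3 → SignType, (b ^ 3 * m ^ 2 + 1) := Finset.sum_le_sum fun σ _ => key σ
    _ = NI m b := by
        rw [Finset.sum_const, Finset.card_univ, Fintype.card_fun, Fintype.card_fin]
        rfl

include hN BF hLa in
/-- the half sides of a brick in units of its lattice -/
theorem h_le (l : Fin 3) : (D.h l : ℝ) ≤ B := by
  have hw := D.w0
  obtain ⟨f, -, hfl⟩ := exists_fct_flag FF h3 hN BF hLa (c := c) (l := l)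
    (u := hs c l • (Pi.single l 1 : Fin 3 → ℝ)) (ε := 1) (by
      intro j
      rw [Pi.smul_apply, smul_eq_mul]
      by_cases hj : j = l
      · subst hj
        rw [Pi.single_eq_same, mul_one, abs_of_pos (hs_pos BF c j)]
      · rw [Pi.single_eq_of_ne hj, mul_zero, abs_zero]
        exact (hs_pos BF c j).le) (Or.inl rfl) (by simp)
  have h1 := dir_coord FF hfl 0
  rw [one_mul] at h1
  have h2 := D.dle f 0 l
  rw [h1, D.side l] at h2
  have h4 := (le_abs_self _).trans h2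
  exact le_of_mul_le_mul_right h4 hw

/-- the size of the block in cells -/
def NS (m t : ℕ) (B : ℝ) : ℕ := 2 * m * ⌊B⌋₊ + 2 * (t + 10)

/-- **the size of the block of a brick in cells** -/
theorem size_le {w : ℤ} (hw' : w ≤ t + 10)
    {T : ℕ} (hT : t ≤ T) (Q : CB E3 3)
    (hS : Q.S = D.shell hN BF hLa hQ hm t ht) (hQw : Q.w = w) (l : Fin 3) :
    Q.be l - Q.al l ≤ (NS m T B : ℤ) := by
  have h1 := h_le D hN BF hLa l
  have h0 := D.h0 l
  have h2 : D.h l ≤ (⌊B⌋₊ : ℤ) := by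
    have h3 : ((D.h l).toNat : ℝ) ≤ B := by
      have : ((D.h l).toNat : ℤ) = D.h l := Int.toNat_of_nonneg h0.le
      have h4 : (((D.h l).toNat : ℤ) : ℝ) = D.h l := by rw [this]
      rw [Int.cast_natCast] at h4
      rw [h4]
      exact h1
    have h5 := Nat.le_floor h3
    omega
  have e1 : Q.S.hi l = m * (D.z l + D.h l) := by rw [hS]; rfl
  have e2 : Q.S.lo l = m * (D.z l - D.h l) := by rw [hS]; rfl
  have h6 : (m : ℤ) * D.h l ≤ m * (⌊B⌋₊ : ℤ) := mul_le_mul_of_nonneg_left h2 (by positivity)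
  unfold CB.be CB.al NS
  rw [e1, e2, hQw]
  push_cast
  nlinarith

section blk

variable (A : E3 ≃ᵃ[ℝ] E3) {lam : ℝ} (hl : 0 < lam)

theorem size_blkD {T : ℕ} (hT : t ≤ T) (l : Fin 3) :
    (Mdd_360.blkD D hN BF hLa hQ hm ht A hl).be l - (Mdd_360.blkD D hN BF hLa hQ hm ht A hl).al l ≤
      (NS m T B : ℤ) :=
  size_le D hN BF hLa hQ hm ht (w := t + 10) le_rfl hT _ rfl rfl l

theorem size_blkK (kc : ℕ) (hkc : 3 ≤ kc) {T : ℕ} (hT : t ≤ T) (l : Fin 3) :
    (Blu_812.blkK D hN BF hLa hQ hm ht A hl kc hkc).be l -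
      (Blu_812.blkK D hN BF hLa hQ hm ht A hl kc hkc).al l ≤ (NS m T B : ℤ) :=
  size_le D hN BF hLa hQ hm ht (w := t + 10) le_rfl hT _ rfl rfl l

theorem card_blkD (hκ : 0 < κ0) (hR : 0 < R) (hcmp : Cmp F R) :
    Nat.card (Mdd_360.blkD D hN BF hLa hQ hm ht A hl).S.Ix ≤ NI m (Nb (Fin 3) (R * κ0)) :=
  card_Ix D hN BF hLa hQ hm ht hκ hR hcmp

theorem card_blkK (kc : ℕ) (hkc : 3 ≤ kc) (hκ : 0 < κ0) (hR : 0 < R) (hcmp : Cmp F R) :
    Nat.card (Blu_812.blkK D hN BF hLa hQ hm ht A hl kc hkc).S.Ix ≤ NI m (Nb (Fin 3) (R * κ0)) :=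
  card_Ix D hN BF hLa hQ hm ht hκ hR hcmp

/-- **the number of coarse names of the block of a brick** -/
theorem card_CT_blkD (hκ : 0 < κ0) (hR : 0 < R) (hcmp : Cmp F R) {T : ℕ} (hT : t ≤ T) {k0 dk : ℕ}
    (hk : k0 ≤ 3 + dk) :
    (CT (Mdd_360.blkD D hN BF hLa hQ hm ht A hl) k0).Finite ∧
      (CT (Mdd_360.blkD D hN BF hLa hQ hm ht A hl) k0).ncard ≤
        NT 3 dk (NS m T B) (NI m (Nb (Fin 3) (R * κ0))) :=
  card_CT _ hk (size_blkD D hN BF hLa hQ hm ht A hl hT) (card_blkD D hN BF hLa hQ hm ht A hl hκ hR hcmp)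

end blk

end

end Crest.Agent.R096.Cct_374
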