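import Crest.Agent.R096.Cel1_715
import Crest.Agent.R096.Agl3_543

/-!
# R096 (row 96): cellular exactness for tilings (helper715)

A cochain on the 1-cells of a tiling of a 3-dimensional region which is exact on the 2-cells is
exact on the tiles and on every set with trivial torsors.
-/

set_option autoImplicit false

open Set Metric Filter Topology Module
open scoped Classical

namespace Crest.Agent.R096.Msh_715

open Coh_184 Ce_537

variable {E : Type*} [NormedAddCommGroup E] [NormedSpace ℝ E]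
variable {A : Type*} [AddCommGroup A]

namespace Tiling

variable {Om : Set E} {ι : Type*} (T : Tiling Om ι)

/-- `ψ` is a potential of `κ` on the 1-cells in `C` -/
def Exact (κ : E → E → E → A) (ψ : E → A) (C : Set E) : Prop :=
  ∀ e ∈ C, T.dim e = 1 → ∀ a b : E, T.cc e = segment ℝ a b → ψ a - ψ b = κ e a b

theorem Exact.mono {κ : E → E → E → A} {ψ : E → A} {C D : Set E} (h : T.Exact κ ψ C)
    (hD : D ⊆ C) : T.Exact κ ψ D := fun e he => h e (hD he)

theorem Exact.edgeConst {κ : E → E → E → A} {ψ ψ' : E → A} {C : Set E} (h : T.Exact κ ψ C)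
    (h' : T.Exact κ ψ' C) : T.EdgeConst (fun v => ψ v - ψ' v) C := by
  intro e he h1 a b hab
  have e1 := h e he h1 a b hab
  have e2 := h' e he h1 a b hab
  show ψ a - ψ' a = ψ b - ψ' b
  have e3 : ψ a - ψ b = ψ' a - ψ' b := e1.trans e2.symm
  rw [sub_eq_sub_iff_add_eq_add] at e3 ⊢
  rw [e3, add_comm]

theorem Exact.of_dim {κ : E → E → E → A} (ψ : E → A) {C : Set E} (h : ∀ x ∈ C, T.dim x ≠ 1) :
    T.Exact κ ψ C := fun e he h1 => absurd h1 (h e he)

variable [FiniteDimensional ℝ E]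

theorem dim_ends {e a b : E} (he : e ∈ Om) (h1 : T.dim e = 1) (hab : T.cc e = segment ℝ a b) :
    T.dim a = 0 ∧ T.dim b = 0 ∧ a ∈ T.cc e ∧ b ∈ T.cc e ∧ a ≠ b := by
  obtain ⟨a', b', hne, e1, e2, ha, hb, hae, hbe⟩ := T.edge_eq he h1
  have h3 := T.vertex_of_edge he h1 hab hae ha
  have h4 := T.vertex_of_edge he h1 hab hbe hb
  rcases h3 with rfl | rfl <;> rcases h4 with rfl | rfl
  · exact absurd rfl hne
  · exact ⟨ha, hb, hae, hbe, hne⟩
  · exact ⟨hb, ha, hbe, hae, hne.symm⟩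
  · exact absurd rfl hne

/-- **gluing of potentials** over a set with trivial torsors -/
theorem glue {J : Type*} [Finite J] {Q : J → Set E} (hQc : ∀ j, IsClosed (Q j))
    (hQO : ∀ j, Q j ⊆ Om) (hQ : ∀ j, ∀ x ∈ Q j, T.cc x ⊆ Q j) {S : Set E} (ht : TrivF A S)
    (hcov : S ⊆ ⋃ j, Q j) (hpre : ∀ j, IsPreconnected (Q j ∩ S)) {κ : E → E → E → A}
    (hex : ∀ j, ∃ ψ : E → A, T.Exact κ ψ (Q j)) :
    ∃ ψ : E → A, ∀ e ∈ Om, T.dim e = 1 → T.cc e ⊆ S → ∀ a b : E, T.cc e = segment ℝ a b →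
      ψ a - ψ b = κ e a b := by
  choose ψ hψ using hex
  have hvert : ∀ x ∈ Om, ∃ v ∈ T.cc x, T.dim v = 0 := fun x hx => T.exists_vertex hx
  choose! g hg hg0 using hvert
  have hgv : ∀ v ∈ Om, T.dim v = 0 → g v = v := by
    intro v hv hv0
    have h1 := hg v hv
    rw [T.cc_eq_singleton (T.dim_eq_zero_iff.1 hv0), mem_singleton_iff] at h1
    exact h1
  -- the cocycle
  have hcoc : Coc Q (fun i j x => ψ i (g x) - ψ j (g x)) S := by
    refine ⟨hQc, hcov, fun i j => ?_, fun i j k x _ _ _ _ => by abel⟩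
    rintro x ⟨⟨hxi, hxj⟩, hxS⟩
    have hxO := hQO i hxi
    have h1 : ∀ᶠ y in 𝓝[Q i ∩ Q j ∩ S] x, y ∈ Om ∧ x ∈ T.cc y :=
      (T.eventually_mem_cc hxO).filter_mono nhdsWithin_le_nhds
    filter_upwards [h1, self_mem_nhdsWithin] with y hy hyC
    have h2 : T.EdgeConst (fun v => ψ i v - ψ j v) (T.cc y) :=
      Exact.edgeConst T ((hψ i).mono T (hQ i y hyC.1.1)) ((hψ j).mono T (hQ j y hyC.1.2))
    exact T.const_cell hy.1 h2 (g y) (hg y hy.1) (g x) (T.cc_sub_of_mem hy.2 (hg x hxO))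
      (hg0 y hy.1) (hg0 x hxO)
  obtain ⟨χ, hχ, hχd⟩ := (ht.all J) Q _ hcoc
  -- the constants
  have hc : ∀ j, ∃ c : A, ∀ x ∈ Q j ∩ S, χ j x = c := by
    intro j
    rcases (Q j ∩ S).eq_empty_or_nonempty with h | ⟨x0, hx0⟩
    · exact ⟨0, fun x hx => by rw [h] at hx; exact absurd hx (notMem_empty x)⟩
    · exact ⟨χ j x0, fun x hx => (hχ j).eq_of_preconnected (hpre j) hx hx0⟩
  choose c hc using hc
  have hsel : ∀ v ∈ S, ∃ j, v ∈ Q j := fun v hv => mem_iUnion.1 (hcov hv)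
  refine ⟨fun v => if h : ∃ j, v ∈ Q j then ψ h.choose v - c h.choose else 0, ?_⟩
  have hval : ∀ v ∈ S, T.dim v = 0 → ∀ j, v ∈ Q j →
      (if h : ∃ j, v ∈ Q j then ψ h.choose v - c h.choose else 0) = ψ j v - c j := by
    intro v hv hv0 j hj
    have h : ∃ j, v ∈ Q j := ⟨j, hj⟩
    rw [dif_pos h]
    have h1 : χ h.choose v - χ j v = ψ h.choose (g v) - ψ j (g v) :=
      hχd h.choose j v h.choose_spec hj hv
    rw [hc _ v ⟨h.choose_spec, hv⟩, hc j v ⟨hj, hv⟩, hgv v (hQO j hj) hv0] at h1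
    rw [sub_eq_sub_iff_add_eq_add] at h1 ⊢
    rw [add_comm (ψ j v)]
    exact h1.symm
  intro e he h1 heS a b hab
  obtain ⟨ha0, hb0, hae, hbe, -⟩ := T.dim_ends he h1 hab
  obtain ⟨j, hj⟩ := hsel e (heS (T.self_mem_cc e))
  show (if h : ∃ j, a ∈ Q j then ψ h.choose a - c h.choose else 0) -
    (if h : ∃ j, b ∈ Q j then ψ h.choose b - c h.choose else 0) = κ e a b
  rw [hval a (heS hae) ha0 j (hQ j e hj hae), hval b (heS hbe) hb0 j (hQ j e hj hbe),
    ← hψ j e hj h1 a b hab]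
  abel

end Tiling

/-- the sphere of the cube has trivial torsors -/
theorem trivF_sph3 : TrivF A (sph 3) := by
  let g : EuclideanSpace ℝ (Fin 3) → (Fin 3 → ℝ) := fun y => ‖WithLp.ofLp y‖⁻¹ • WithLp.ofLp y
  have hne : ∀ y ∈ (Sph : Set (EuclideanSpace ℝ (Fin 3))), ‖WithLp.ofLp y‖ ≠ 0 := by
    intro y hy h0
    have h1 : WithLp.ofLp y = 0 := norm_eq_zero.1 h0
    have h2 : y = 0 := by
      ext i
      exact congrFun h1 i
    rw [h2] at hy
    simp at hy
  have hcont : ContinuousOn g Sph := by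
    have hc : Continuous fun y : EuclideanSpace ℝ (Fin 3) => (WithLp.ofLp y : Fin 3 → ℝ) :=
      PiLp.continuous_ofLp 2 _
    exact ((hc.norm).continuousOn.inv₀ hne).smul hc.continuousOn
  have hinj : InjOn g Sph := by
    intro y hy z hz hyz
    have hy1 := hne y hy
    have hz1 := hne z hz
    have h1 : y = (‖WithLp.ofLp y‖ * ‖WithLp.ofLp z‖⁻¹) • z := by
      ext i
      have h2 := congrFun hyz i
      simp only [g, Pi.smul_apply, smul_eq_mul] at h2
      show y i = (‖WithLp.ofLp y‖ * ‖WithLp.ofLp z‖⁻¹) * z i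
      rw [mul_assoc, ← h2, ← mul_assoc, mul_inv_cancel₀ hy1, one_mul]
    have h3 : ‖y‖ = 1 := by simpa using hy
    have h4 : ‖z‖ = 1 := by simpa using hz
    have h5 : ‖y‖ = (‖WithLp.ofLp y‖ * ‖WithLp.ofLp z‖⁻¹) * ‖z‖ := by
      conv_lhs => rw [h1]
      rw [norm_smul, Real.norm_eq_abs, abs_of_nonneg (by positivity)]
    rw [h3, h4, mul_one] at h5
    rw [h1, ← h5, one_smul]
  have himg : g '' Sph = sph 3 := by
    ext w
    constructor
    · rintro ⟨y, hy, rfl⟩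
      rw [sph, mem_sphere_zero_iff_norm]
      show ‖‖WithLp.ofLp y‖⁻¹ • WithLp.ofLp y‖ = 1
      rw [norm_smul, norm_inv, norm_norm]
      exact inv_mul_cancel₀ (hne y hy)
    · intro hw
      have hw1 : ‖w‖ = 1 := by simpa using hw
      have hw0 : w ≠ 0 := by
        rintro rfl
        rw [norm_zero] at hw1
        exact one_ne_zero hw1.symm
      set z : EuclideanSpace ℝ (Fin 3) := WithLp.toLp 2 w with hz
      have hz0 : ‖z‖ ≠ 0 := by
        intro h0
        apply hw0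
        have h1 : z = 0 := norm_eq_zero.1 h0
        have h2 : WithLp.ofLp z = w := rfl
        rw [← h2, h1]
        rfl
      refine ⟨‖z‖⁻¹ • z, ?_, ?_⟩
      · rw [mem_sphere_zero_iff_norm, norm_smul, norm_inv, norm_norm]
        exact inv_mul_cancel₀ hz0
      · show ‖WithLp.ofLp (‖z‖⁻¹ • z)‖⁻¹ • WithLp.ofLp (‖z‖⁻¹ • z) = w
        have h1 : WithLp.ofLp (‖z‖⁻¹ • z) = ‖z‖⁻¹ • w := rfl
        rw [h1, norm_smul, norm_inv, norm_norm, hw1, mul_one, inv_inv, smul_smul,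
          mul_inv_cancel₀ hz0, one_smul]
  rw [← himg]
  exact trivF_sphere_image hcont hinj

namespace Tiling

variable {Om : Set E} {ι : Type*} (T : Tiling Om ι) [FiniteDimensional ℝ E]

/-- the boundary of a cell of dimension three has trivial torsors -/
theorem trivF_bdry {x : E} (hx : x ∈ Om) (hd : T.dim x = 3) : TrivF A (T.cc x \ T.oc x) := by
  have hB := T.isBall_cell hx
  rw [hd] at hB
  obtain ⟨e, he⟩ := hB
  rw [← he]
  exact trivF_sph3.of_image (isCompact_sphere _ _) isClosed_sphere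
    (e.pf.1.mono sph_subset_cube) (e.injOn.mono sph_subset_cube)

/-- **exactness on the 2-cells of a tile implies exactness on the tile** -/
theorem exact_tile (h3 : finrank ℝ E = 3) (q : ι) {κ : E → E → E → A}
    (h2 : ∀ x ∈ P (T.H q), T.dim x = 2 → ∃ ψ : E → A, T.Exact κ ψ (T.cc x)) :
    ∃ ψ : E → A, T.Exact κ ψ (P (T.H q)) := by
  obtain ⟨z, hz⟩ := T.ne q
  have hzO : z ∈ Om := T.sub q (I_sub_P _ hz)
  have hzcc : T.cc z = P (T.H q) := T.cc_eq_tile hz
  have hzoc : T.oc z = I (T.H q) := T.oc_eq_tile hz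
  have hzd : T.dim z = 3 := by
    have h1 := (T.V_eq_top_iff hzO).2 ⟨q, hz⟩
    unfold Tiling.dim
    rw [h1, finrank_top, h3]
  set S : Set E := T.cc z \ T.oc z with hS
  have hST : TrivF A S := T.trivF_bdry hzO hzd
  have hSO : S ⊆ Om := fun y hy => T.cc_sub_Om hzO hy.1
  have hSc : IsCompact S := by
    have hB := T.isBall_cell hzO
    exact hB.isCompact_bdry
  have hScc : ∀ x ∈ S, T.cc x ⊆ S := by
    intro x hx y hy
    refine ⟨T.cc_sub_of_mem hx.1 hy, fun hyo => ?_⟩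
    exact (Set.disjoint_left.1 (T.disjoint_oc_cc hzO hx.1 hx.2)) hyo hy
  have hSd : ∀ x ∈ S, T.dim x ≤ 2 := by
    intro x hx
    have := T.dim_lt hx.1 hx.2
    omega
  -- the finite family of cells in the boundary
  have hfin := T.finite_cells hSc hSO
  let J := {c : Set E // (∃ x ∈ Om, c = T.cc x) ∧ (c ∩ S).Nonempty ∧ c ⊆ S}
  have hJfin : Finite J := by
    have : {c : Set E | (∃ x ∈ Om, c = T.cc x) ∧ (c ∩ S).Nonempty ∧ c ⊆ S}.Finite :=
      hfin.subset fun c hc => ⟨hc.1, hc.2.1⟩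
    exact this
  have hrep : ∀ j : J, ∃ x ∈ S, j.1 = T.cc x := by
    rintro ⟨c, ⟨x, hx, rfl⟩, hne, hcS⟩
    exact ⟨x, hcS (T.self_mem_cc x), rfl⟩
  obtain ⟨ψ, hψ⟩ := T.glue (J := J) (Q := fun j => j.1) (S := S) (κ := κ)
    (fun j => by
      obtain ⟨x, hx, e⟩ := hrep j
      rw [e]; exact T.isClosed_cc x)
    (fun j => j.2.2.2.trans hSO)
    (fun j y hy => by
      obtain ⟨x, hx, e⟩ := hrep j
      rw [e] at hy ⊢
      exact T.cc_sub_of_mem hy)
    hST
    (fun x hx => mem_iUnion.2 ⟨⟨T.cc x, ⟨x, hSO hx, rfl⟩, ⟨x, T.self_mem_cc x, hx⟩, hScc x hx⟩,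
      T.self_mem_cc x⟩)
    (fun j => by
      rw [Set.inter_eq_left.2 j.2.2.2]
      obtain ⟨x, hx, e⟩ := hrep j
      rw [e]; exact (T.convex_cc x).isPreconnected)
    (fun j => by
      obtain ⟨x, hx, e⟩ := hrep j
      rw [e]
      have hxq : x ∈ P (T.H q) := by rw [← hzcc]; exact hx.1
      have hd := hSd x hx
      rcases Nat.lt_or_ge (T.dim x) 1 with h | h
      · refine ⟨fun _ => 0, Exact.of_dim T _ fun y hy => ?_⟩
        have := T.dim_le hy
        omega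
      rcases Nat.lt_or_ge (T.dim x) 2 with h' | h'
      · have hx1 : T.dim x = 1 := by omega
        obtain ⟨x₁, hx₁, x₂, hx₂, hd1, -, hq1, -, hm1, -, -, -⟩ :=
          Agl3_543.two_cells T h3 (hSO hx) hx1 (q := q) hxq
        obtain ⟨ψ, hψ⟩ := h2 x₁ hq1 hd1
        exact ⟨ψ, hψ.mono T (T.cc_sub_of_mem hm1)⟩
      · exact h2 x hxq (by omega))
  refine ⟨ψ, fun e he h1 a b hab => hψ e (T.sub q he) h1 ?_ a b hab⟩
  apply hScc
  refine ⟨by rw [hzcc]; exact he, fun ho => ?_⟩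
  have := T.dim_eq_of_mem_oc hzO ho
  omega

/-- **exactness on the tiles implies exactness on every compact set with trivial torsors which
meets the tiles in connected sets** -/
theorem exact_of_triv {S : Set E} (hS : IsCompact S) (hSO : S ⊆ Om) (ht : TrivF A S)
    (hpre : ∀ q, IsPreconnected (P (T.H q) ∩ S)) {κ : E → E → E → A}
    (hq : ∀ q, (P (T.H q) ∩ S).Nonempty → ∃ ψ : E → A, T.Exact κ ψ (P (T.H q))) :
    ∃ ψ : E → A, ∀ e ∈ Om, T.dim e = 1 → T.cc e ⊆ S → ∀ a b : E, T.cc e = segment ℝ a b →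
      ψ a - ψ b = κ e a b := by
  have hfin := T.finite_tiles hS hSO
  have : Finite {q // (P (T.H q) ∩ S).Nonempty} := hfin
  refine T.glue (J := {q // (P (T.H q) ∩ S).Nonempty}) (Q := fun q => P (T.H q.1))
    (fun q => isClosed_P _) (fun q => T.sub q.1) (fun q x hx => T.cc_sub_tile hx) ht ?_
    (fun q => hpre q.1) (fun q => hq q.1 q.2)
  intro x hx
  obtain ⟨q, hq⟩ := T.cov x (hSO hx)
  exact mem_iUnion.2 ⟨⟨q, x, hq, hx⟩, hq⟩

/-- the same with exactness on the 2-cells (dimension three) -/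
theorem exact_of_triv' (h3 : finrank ℝ E = 3) {S : Set E} (hS : IsCompact S) (hSO : S ⊆ Om)
    (ht : TrivF A S) (hpre : ∀ q, IsPreconnected (P (T.H q) ∩ S)) {κ : E → E → E → A}
    (h2 : ∀ x ∈ Om, T.dim x = 2 → ∃ ψ : E → A, T.Exact κ ψ (T.cc x)) :
    ∃ ψ : E → A, ∀ e ∈ Om, T.dim e = 1 → T.cc e ⊆ S → ∀ a b : E, T.cc e = segment ℝ a b →
      ψ a - ψ b = κ e a b :=
  T.exact_of_triv hS hSO ht hpre fun q _ => T.exact_tile h3 q fun x hx => h2 x (T.sub q hx)

/-- union of tiles version -/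
theorem exact_of_tiles (h3 : finrank ℝ E = 3) {J : Set ι} (hJ : J.Finite)
    (ht : TrivF A (⋃ q ∈ J, P (T.H q))) {κ : E → E → E → A}
    (h2 : ∀ q ∈ J, ∀ x ∈ P (T.H q), T.dim x = 2 → ∃ ψ : E → A, T.Exact κ ψ (T.cc x)) :
    ∃ ψ : E → A, T.Exact κ ψ (⋃ q ∈ J, P (T.H q)) := by
  have : Finite (J : Type _) := hJ
  obtain ⟨ψ, hψ⟩ := T.glue (J := (J : Type _)) (Q := fun q => P (T.H q.1)) (κ := κ)
    (fun q => isClosed_P _) (fun q => T.sub q.1) (fun q x hx => T.cc_sub_tile hx) ht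
    (by rw [biUnion_eq_iUnion])
    (fun q => by
      rw [Set.inter_eq_left.2 (subset_biUnion_of_mem (u := fun q => P (T.H q)) q.2)]
      exact (convex_P _).isPreconnected)
    (fun q => T.exact_tile h3 q.1 (h2 q.1 q.2))
  refine ⟨ψ, fun e he h1 a b hab => ?_⟩
  obtain ⟨q, hq, heq⟩ := mem_iUnion₂.1 he
  exact hψ e (T.sub q heq) h1 ((T.cc_sub_tile heq).trans
    (subset_biUnion_of_mem (u := fun q => P (T.H q)) hq)) a b hab

end Tiling

end Crest.Agent.R096.Msh_715
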