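import Crest.Agent.R096.Core4_124
import Crest.Agent.R096.Mbf_337

/-!
# R096 (row 96), EXACT-CORE words, piece (G) of 124 #10617 (helper9): grid ⟹ edges, vertices, number

`GridC` : the clauses `tile` (of `Mbf_337.Exact`) and `grid` (of `Mbf_337.Words`) for one core.
`GridC.edge` : every 1-cell of the core tile is a segment `[y0, y1]` on which one label `a` runs from
`j / M` to `(j + 1) / M` and all other labels are constant (`MSeg`).
`GridC.vert` : the labels of the vertices are multiples of `1 / M`.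
`GridC.card` : number of the 1-cells.
-/

set_option autoImplicit false
set_option linter.unusedSectionVars false
set_option linter.style.longLine false

open Set

namespace Crest.Agent.R096.Cgr_9

open Crest.Agent.R096.Bsp_628 Crest.Agent.R096.Brk1_582 Crest.Agent.R096.Brk2_582
open Crest.Agent.R096.Brk3_582 Crest.Agent.R096.Brk5_582 Crest.Agent.R096.Msh_715
open Crest.Agent.R096.SkC1_961 (E3 FoamD th)
open Crest.Agent.R096.Mbf_337 (sb)
open Crest.Agent.R096.Core_124 (MSeg)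

/-! ### rounding -/

theorem flo_fix {r : ℝ} (h0 : 0 ≤ r) (h : ¬ ⌊r⌋₊ < ⌈r⌉₊) : r = ⌊r⌋₊ ∧ ⌈r⌉₊ = ⌊r⌋₊ := by
  have h1 := Nat.floor_le h0
  have h2 := Nat.le_ceil r
  have h3 := Nat.floor_le_ceil r
  have h4 : ⌈r⌉₊ = ⌊r⌋₊ := by omega
  rw [h4] at h2
  exact ⟨le_antisymm h2 h1, h4⟩

theorem flo_step {r : ℝ} (h : ⌊r⌋₊ < ⌈r⌉₊) : ⌈r⌉₊ = ⌊r⌋₊ + 1 := by
  have := Nat.ceil_le_floor_add_one r
  omega

section cube

variable {E : Type*} [NormedAddCommGroup E] [NormedSpace ℝ E] {J : Type*} {P : J → Set E}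
  {u : J → ℝ} {M : ℕ}

/-- rounding down to the grid -/
theorem floor_mem_K (hM : 0 < M) (hu : u ∈ K P) : (fun a => (⌊(M : ℝ) * u a⌋₊ : ℝ) / M) ∈ K P := by
  obtain ⟨h1, ⟨c, hc⟩, h3⟩ := hu
  have hM' : (0 : ℝ) < M := by exact_mod_cast hM
  have h0 : ∀ a, 0 ≤ (M : ℝ) * u a := fun a => mul_nonneg hM'.le (h1 a).1
  have hle : ∀ a, (⌊(M : ℝ) * u a⌋₊ : ℝ) / M ≤ u a := fun a => by
    rw [div_le_iff₀ hM', mul_comm (u a)]
    exact Nat.floor_le (h0 a)
  refine ⟨fun a => ⟨by positivity, (hle a).trans (h1 a).2⟩, ⟨c, by simp [hc]⟩, ?_⟩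
  have e : {a | (⌊(M : ℝ) * u a⌋₊ : ℝ) / M < 1} = {a | u a < 1} := by
    ext a
    simp only [mem_ofPred_eq]
    constructor
    · intro h
      by_contra hn
      have h5 : u a = 1 := le_antisymm (h1 a).2 (not_lt.1 hn)
      rw [h5, mul_one, Nat.floor_natCast, div_self hM'.ne'] at h
      exact lt_irrefl _ h
    · exact fun h => (hle a).trans_lt h
  rw [e]
  exact h3

/-- rounding up to the grid -/
theorem ceil_mem_K (hM : 0 < M) (hu : u ∈ K P) : (fun a => (⌈(M : ℝ) * u a⌉₊ : ℝ) / M) ∈ K P := by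
  obtain ⟨h1, ⟨c, hc⟩, h3⟩ := hu
  have hM' : (0 : ℝ) < M := by exact_mod_cast hM
  have hle : ∀ a, u a ≤ (⌈(M : ℝ) * u a⌉₊ : ℝ) / M := fun a => by
    rw [le_div_iff₀ hM', mul_comm (u a)]
    exact Nat.le_ceil _
  refine ⟨fun a => ⟨by positivity, ?_⟩, ⟨c, by simp [hc]⟩, ?_⟩
  · show (⌈(M : ℝ) * u a⌉₊ : ℝ) / M ≤ 1
    rw [div_le_one hM']
    have h5 : ⌈(M : ℝ) * u a⌉₊ ≤ M := by
      refine Nat.ceil_le.2 ?_
      have := (h1 a).2
      nlinarith
    exact_mod_cast h5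
  · obtain ⟨y, hy⟩ := h3
    exact ⟨y, fc_anti (fun a ha => (hle a).trans_lt ha) hy⟩

end cube

/-- the interior of a polyhedron with an interior point -/
theorem interior_P' {E : Type*} [NormedAddCommGroup E] [NormedSpace ℝ E]
    {H : Finset ((E →L[ℝ] ℝ) × ℝ)} (hne : (I H).Nonempty) : interior (P H) ⊆ I H := by
  intro x hx h hh
  obtain ⟨z, hz⟩ := hne
  have hxP : x ∈ P H := interior_subset hx
  by_contra hcon
  have e : h.1 x = h.2 := le_antisymm (hxP h hh) (not_lt.1 hcon)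
  have hc : ContinuousAt (fun s : ℝ => x + s • (x - z)) 0 := by fun_prop
  have hev : ∀ᶠ s in nhds (0 : ℝ), x + s • (x - z) ∈ interior (P H) := by
    refine hc.eventually_mem (isOpen_interior.mem_nhds ?_)
    simpa using hx
  obtain ⟨r, hr, hr'⟩ := Metric.eventually_nhds_iff.1 hev
  have h1 : x + (r / 2) • (x - z) ∈ P H := interior_subset (hr' (by
    rw [Real.dist_eq, sub_zero, abs_of_pos (by positivity)]; linarith))
  have h2 := h1 h hh
  rw [map_add, map_smul, map_sub, e, smul_eq_mul] at h2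
  have h3 := hz h hh
  have h4 : 0 < r / 2 * (h.2 - h.1 z) := by
    apply mul_pos (by positivity); linarith
  linarith

variable {δ κ0 R c0 : ℝ} {La Om : Set E3} {ι : Type} {Φ : FoamD δ κ0 R c0 La} {T : Tiling Om ι}

/-- **the grid of one exact core**: clauses `tile` of `Exact` and `grid` of `Words` -/
structure GridC (Φ : FoamD δ κ0 R c0 La) (T : Tiling Om ι) (c : Φ.F) (i : ι) (A : E3 ≃ᵃ[ℝ] E3)
    (lam : ℝ) (z : E3) (M : ℕ) : Prop where
  lam0 : 0 < lam
  tile : P (T.H i) = A ⁻¹' {y | ∀ k, z k + lam * c.1.lo k ≤ y k ∧ y k ≤ z k + lam * c.1.hi k}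
  M0 : 0 < M
  cell : ∀ x ∈ P (T.H i), x ∉ I (T.H i) →
    T.cc x = {y | y ∈ P (T.H i) ∧ ∀ a : Φ.F,
      (⌊M * sb Φ (th A lam z x) a⌋₊ : ℝ) ≤ M * sb Φ (th A lam z y) a ∧
      M * sb Φ (th A lam z y) a ≤ ⌈M * sb Φ (th A lam z x) a⌉₊} ∧
    T.dim x = {a : Φ.F | ⌊M * sb Φ (th A lam z x) a⌋₊ < ⌈M * sb Φ (th A lam z x) a⌉₊}.ncard

variable {c : Φ.F} {i : ι} {A : E3 ≃ᵃ[ℝ] E3} {lam : ℝ} {z : E3} {M : ℕ}

theorem foamΦ (hLa : IsOpen La) (Φ : FoamD δ κ0 R c0 La) :
    Foam La (Pc Φ.F) (bc (F := Φ.F)) 4 := by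
  have := foam Φ.bf hLa
  simpa using this

theorem th_line (A : E3 ≃ᵃ[ℝ] E3) (lam : ℝ) (z x y : E3) (t : ℝ) :
    th A lam z (x + t • (y - x)) = th A lam z x + t • (th A lam z y - th A lam z x) := by
  have e : A (x + t • (y - x)) = A x + t • (A y - A x) := by
    have h1 := A.toAffineMap.apply_lineMap x y t
    rw [AffineMap.lineMap_apply, AffineMap.lineMap_apply] at h1
    simp only [vsub_eq_sub, vadd_eq_add, AffineEquiv.coe_toAffineMap] at h1
    rw [add_comm x, h1, add_comm]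
  funext k
  simp only [th, e, Pi.add_apply, Pi.smul_apply, Pi.sub_apply, smul_eq_mul]
  ring

theorem th_surj (hl : 0 < lam) (y : E3) : ∃ x, th A lam z x = y := by
  refine ⟨A.symm (fun k => z k + lam * y k), ?_⟩
  funext k
  unfold th
  rw [AffineEquiv.apply_symm_apply, add_sub_cancel_left, mul_div_cancel_left₀ _ hl.ne']

theorem th_inj (hl : 0 < lam) {x x' : E3} (e : th A lam z x = th A lam z x') : x = x' := by
  refine A.injective (funext fun k => ?_)
  have h1 := congrFun e k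
  unfold th at h1
  rw [div_left_inj' hl.ne'] at h1
  linarith

theorem th_cont (A : E3 ≃ᵃ[ℝ] E3) (lam : ℝ) (z : E3) : Continuous (th A lam z) := by
  have h : Continuous A := A.toAffineMap.continuous_of_finiteDimensional
  unfold th
  fun_prop

namespace GridC

theorem mem (G : GridC Φ T c i A lam z M) {x : E3} :
    x ∈ P (T.H i) ↔ th A lam z x ∈ c.1.set := by
  rw [G.tile, Bx.mem_set]
  have h0 := G.lam0
  unfold th
  simp only [mem_preimage, mem_ofPred_eq]
  refine forall_congr' fun k => ?_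
  rw [le_div_iff₀ h0, div_le_iff₀ h0]
  constructor
  · rintro ⟨h1, h2⟩
    constructor <;> linarith
  · rintro ⟨h1, h2⟩
    constructor <;> linarith

theorem th_La (G : GridC Φ T c i A lam z M) {x : E3} (hx : x ∈ P (T.H i)) :
    th A lam z x ∈ La := Φ.bf.sub _ c.2 (G.mem.1 hx)

theorem not_I {x : E3} (hx : x ∈ P (T.H i)) (hd : T.dim x ≤ 2) : x ∉ I (T.H i) := by
  intro hI
  have h1 := (T.V_eq_top_iff (T.sub i hx)).2 ⟨i, hI⟩
  have h2 : T.dim x = 3 := by
    unfold Tiling.dim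
    rw [h1, finrank_top]
    simp
  omega

/-- a point of the boundary of the core lies in a second brick -/
theorem exists_other (G : GridC Φ T c i A lam z M) (hLa : IsOpen La) {x : E3}
    (hx : x ∈ P (T.H i)) (hn : x ∉ I (T.H i)) : ∃ d : Φ.F, d ≠ c ∧ th A lam z x ∈ d.1.set := by
  have hmem := G.mem.1 hx
  set y := th A lam z x with hy
  by_contra hcon
  push Not at hcon
  -- `y` would be interior
  have hint : y ∈ {w : E3 | ∀ k, c.1.lo k < w k ∧ w k < c.1.hi k} := by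
    intro k
    have h1 := Bx.mem_set.1 hmem k
    constructor
    · refine lt_of_le_of_ne h1.1 fun he => ?_
      obtain ⟨d, hd, ε, hε, hdε⟩ := cover_dir Φ.bf hLa (G.th_La hx) (fun j => if j = k then (-1 : ℝ) else 0)
      refine hcon d ?_ hd
      rintro rfl
      have h2 := (Bx.mem_set.1 hdε k).1
      simp only [Pi.add_apply, Pi.smul_apply, if_true, smul_eq_mul, mul_neg, mul_one] at h2
      have h3 : th A lam z x k = y k := rfl
      linarith
    · refine lt_of_le_of_ne h1.2 fun he => ?_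
      obtain ⟨d, hd, ε, hε, hdε⟩ := cover_dir Φ.bf hLa (G.th_La hx) (fun j => if j = k then (1 : ℝ) else 0)
      refine hcon d ?_ hd
      rintro rfl
      have h2 := (Bx.mem_set.1 hdε k).2
      simp only [Pi.add_apply, Pi.smul_apply, if_true, smul_eq_mul, mul_one] at h2
      have h3 : th A lam z x k = y k := rfl
      linarith
  refine hn (interior_P' (T.ne i) ?_)
  have hop : IsOpen {w : E3 | ∀ k, c.1.lo k < w k ∧ w k < c.1.hi k} := by
    have : {w : E3 | ∀ k, c.1.lo k < w k ∧ w k < c.1.hi k} =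
        ⋂ k, {w : E3 | c.1.lo k < w k ∧ w k < c.1.hi k} := by
      ext w; simp
    rw [this]
    exact isOpen_iInter_of_finite fun k =>
      (isOpen_lt continuous_const (continuous_apply k)).inter
        (isOpen_lt (continuous_apply k) continuous_const)
  refine mem_interior.2 ⟨th A lam z ⁻¹' {w : E3 | ∀ k, c.1.lo k < w k ∧ w k < c.1.hi k}, ?_,
    hop.preimage (th_cont A lam z), hint⟩
  intro w hw
  exact G.mem.2 (Bx.mem_set.2 fun k => ⟨(hw k).1.le, (hw k).2.le⟩)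

/-- **(G2)** the vertices -/
theorem vert (G : GridC Φ T c i A lam z M) (hLa : IsOpen La) {x : E3} (hx : x ∈ P (T.H i))
    (hd : T.dim x = 0) : (∀ a, ∃ j : ℕ, j ≤ M ∧ sb Φ (th A lam z x) a = j / M) ∧
      ∃ d : Φ.F, d ≠ c ∧ th A lam z x ∈ d.1.set := by
  have F := foamΦ hLa Φ
  have hM' : (0 : ℝ) < M := by exact_mod_cast G.M0
  have hI := not_I hx (by omega)
  refine ⟨fun a => ?_, G.exists_other hLa hx hI⟩
  have hK : sb Φ (th A lam z x) ∈ K (Pc Φ.F) := F.sc_mem_K (G.th_La hx)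
  have hfin : {a : Φ.F | ⌊M * sb Φ (th A lam z x) a⌋₊ < ⌈M * sb Φ (th A lam z x) a⌉₊}.Finite := by
    refine (F.sc_lt_one_finite (G.th_La hx)).subset fun a ha => ?_
    have ha' : ⌊(M : ℝ) * sb Φ (th A lam z x) a⌋₊ < ⌈(M : ℝ) * sb Φ (th A lam z x) a⌉₊ := ha
    show sb Φ (th A lam z x) a < 1
    by_contra hn
    have h5 : sb Φ (th A lam z x) a = 1 := le_antisymm (hK.1 a).2 (not_lt.1 hn)
    rw [h5, mul_one, Nat.floor_natCast, Nat.ceil_natCast] at ha'
    exact lt_irrefl _ ha'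
  have h1 := (G.cell x hx hI).2
  rw [hd] at h1
  have h3 := (Set.ncard_eq_zero hfin).1 h1.symm
  have h4 : ¬ ⌊M * sb Φ (th A lam z x) a⌋₊ < ⌈M * sb Φ (th A lam z x) a⌉₊ := fun h => by
    have : a ∈ {a : Φ.F | ⌊M * sb Φ (th A lam z x) a⌋₊ < ⌈M * sb Φ (th A lam z x) a⌉₊} := h
    rw [h3] at this
    exact this
  have h5 := (flo_fix (mul_nonneg hM'.le (hK.1 a).1) h4).1
  refine ⟨⌊M * sb Φ (th A lam z x) a⌋₊, ?_, ?_⟩
  · refine Nat.floor_le_of_le ?_
    have := (hK.1 a).2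
    nlinarith
  · rw [eq_div_iff hM'.ne', mul_comm]
    exact h5

/-- **(G1)** the edges -/
theorem edge (G : GridC Φ T c i A lam z M) (hLa : IsOpen La) {x : E3} (hx : x ∈ P (T.H i))
    (hd : T.dim x = 1) : ∃ (a d : Φ.F) (y0 y1 : E3), y0 ∈ P (T.H i) ∧ y1 ∈ P (T.H i) ∧
      T.cc x = segment ℝ y0 y1 ∧
      MSeg (Pc Φ.F) (bc (F := Φ.F)) La (th A lam z y0) (th A lam z y1) a c ∧ d ≠ c ∧ d ≠ a ∧
      th A lam z y0 ∈ d.1.set ∧
      |sb Φ (th A lam z y1) a - sb Φ (th A lam z y0) a| = 1 / M := by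
  classical
  have F := foamΦ hLa Φ
  have hM' : (0 : ℝ) < M := by exact_mod_cast G.M0
  have hI := not_I hx (by omega)
  obtain ⟨hcc, hdim⟩ := G.cell x hx hI
  rw [hd] at hdim
  obtain ⟨a, ha⟩ := Set.ncard_eq_one.1 hdim.symm
  have hK : sb Φ (th A lam z x) ∈ K (Pc Φ.F) := F.sc_mem_K (G.th_La hx)
  set u : Φ.F → ℝ := sb Φ (th A lam z x) with hu
  have hnn : ∀ b, 0 ≤ (M : ℝ) * u b := fun b => mul_nonneg hM'.le (hK.1 b).1
  have ha1 : ⌊(M : ℝ) * u a⌋₊ < ⌈(M : ℝ) * u a⌉₊ := by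
    have : a ∈ {a : Φ.F | ⌊M * u a⌋₊ < ⌈M * u a⌉₊} := by rw [ha]; exact rfl
    exact this
  have hne : ∀ b, b ≠ a → (M : ℝ) * u b = ⌊(M : ℝ) * u b⌋₊ ∧ ⌈(M : ℝ) * u b⌉₊ = ⌊(M : ℝ) * u b⌋₊ := by
    intro b hb
    refine flo_fix (hnn b) fun h => hb ?_
    have : b ∈ {a : Φ.F | ⌊M * u a⌋₊ < ⌈M * u a⌉₊} := h
    rw [ha] at this
    exact this
  have hstep := flo_step ha1
  have huc : u c = 0 := (F.sc_eq_zero (G.th_La hx)).2 (G.mem.1 hx)
  have hzero : ∀ b, u b = 0 → b ≠ a := by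
    rintro b hb rfl
    rw [hb] at ha1
    simp at ha1
  -- the two ends
  set u0 : Φ.F → ℝ := fun b => (⌊(M : ℝ) * u b⌋₊ : ℝ) / M with hu0
  set u1 : Φ.F → ℝ := fun b => (⌈(M : ℝ) * u b⌉₊ : ℝ) / M with hu1
  have hK0 : u0 ∈ K (Pc Φ.F) := floor_mem_K G.M0 hK
  have hK1 : u1 ∈ K (Pc Φ.F) := ceil_mem_K G.M0 hK
  obtain ⟨y0, hy0⟩ := th_surj (A := A) (z := z) G.lam0 (Brk1_582.T (bc (F := Φ.F)) u0)
  obtain ⟨y1, hy1⟩ := th_surj (A := A) (z := z) G.lam0 (Brk1_582.T (bc (F := Φ.F)) u1)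
  have s0 : sc (Pc Φ.F) (bc (F := Φ.F)) (th A lam z y0) = u0 := by rw [hy0, F.sc_T hK0]
  have s1 : sc (Pc Φ.F) (bc (F := Φ.F)) (th A lam z y1) = u1 := by rw [hy1, F.sc_T hK1]
  have m0 : th A lam z y0 ∈ La := by rw [hy0]; exact F.T_mem_La hK0
  have m1 : th A lam z y1 ∈ La := by rw [hy1]; exact F.T_mem_La hK1
  have u0z : ∀ b, u b = 0 → u0 b = 0 := fun b hb => by simp [hu0, hb]
  have u1z : ∀ b, u b = 0 → u1 b = 0 := fun b hb => by simp [hu1, hb]
  have p0 : y0 ∈ P (T.H i) := G.mem.2 ((F.sc_eq_zero m0).1 (by rw [s0]; exact u0z c huc))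
  have p1 : y1 ∈ P (T.H i) := G.mem.2 ((F.sc_eq_zero m1).1 (by rw [s1]; exact u1z c huc))
  have hdiff : u1 a - u0 a = 1 / M := by
    simp only [hu0, hu1, hstep]
    push_cast
    field_simp
    ring
  have hlt : u0 a < u1 a := by
    have : (0 : ℝ) < 1 / M := by positivity
    linarith
  have hMS : MSeg (Pc Φ.F) (bc (F := Φ.F)) La (th A lam z y0) (th A lam z y1) a c := by
    refine ⟨m0, m1, ?_, ?_, ?_, ?_, ?_⟩
    · intro b hb
      rw [s0, s1]
      simp only [hu0, hu1, (hne b hb).2]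
    · rw [s0, s1]
      exact hlt.ne
    · intro b hb
      rw [s0, s1, min_eq_left hlt.le, max_eq_right hlt.le]
      rcases Nat.lt_or_ge ⌊(M : ℝ) * u a⌋₊ ⌊(M : ℝ) * u b⌋₊ with h | h
      · right
        simp only [hu0, hu1, hstep]
        exact div_le_div_of_nonneg_right (by exact_mod_cast h) hM'.le
      · left
        simp only [hu0]
        exact div_le_div_of_nonneg_right (by exact_mod_cast h) hM'.le
    · rw [s0]; exact u0z c huc
    · exact hzero c huc
  obtain ⟨d, hdc, hdx⟩ := G.exists_other hLa hx hI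
  have hud : u d = 0 := (F.sc_eq_zero (G.th_La hx)).2 hdx
  refine ⟨a, d, y0, y1, p0, p1, ?_, hMS, hdc, hzero d hud,
    (F.sc_eq_zero m0).1 (by rw [s0]; exact u0z d hud), ?_⟩
  · rw [hcc]
    -- labels of a point with parameter `t`
    have hpt : ∀ t ∈ Icc (0:ℝ) 1, th A lam z (y0 + t • (y1 - y0)) ∈ La ∧
        (∀ b, b ≠ a → sb Φ (th A lam z (y0 + t • (y1 - y0))) b = u0 b) ∧
        sb Φ (th A lam z (y0 + t • (y1 - y0))) a = u0 a + t * (u1 a - u0 a) := by
      intro t ht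
      obtain ⟨h1, h2, h3⟩ := hMS.point' F ht
      rw [← th_line] at h1 h2 h3
      rw [s0] at h2 h3
      rw [s1] at h3
      exact ⟨h1, h2, h3⟩
    have ea0 : (M : ℝ) * u0 a = ⌊(M : ℝ) * u a⌋₊ := by
      simp only [hu0]; field_simp
    have ea1 : (M : ℝ) * u1 a = ⌈(M : ℝ) * u a⌉₊ := by
      simp only [hu1]; field_simp
    rw [segment_eq_image']
    ext y
    simp only [mem_ofPred_eq, mem_image]
    constructor
    · rintro ⟨hy, hl⟩
      have hyK := F.sc_mem_K (G.th_La hy)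
      refine ⟨(M : ℝ) * (sb Φ (th A lam z y) a - u0 a), ?_, ?_⟩
      · have h1 := (hl a).1
        have h2 := (hl a).2
        rw [hstep] at h2
        push_cast at h2
        constructor
        · rw [mul_sub, ea0]; linarith
        · rw [mul_sub, ea0]; linarith
      · have ht : (M : ℝ) * (sb Φ (th A lam z y) a - u0 a) ∈ Icc (0:ℝ) 1 := by
          have h1 := (hl a).1
          have h2 := (hl a).2
          rw [hstep] at h2
          push_cast at h2
          constructor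
          · rw [mul_sub, ea0]; linarith
          · rw [mul_sub, ea0]; linarith
        obtain ⟨g1, g2, g3⟩ := hpt _ ht
        refine th_inj G.lam0 (F.sc_inj g1 (G.th_La hy) (funext fun b => ?_))
        by_cases hb : b = a
        · subst hb
          have g4 : sc (Pc Φ.F) (bc (F := Φ.F)) (th A lam z (y0 + ((M : ℝ) *
              (sb Φ (th A lam z y) b - u0 b)) • (y1 - y0))) b = _ := g3
          rw [g4, hdiff]
          show _ = sb Φ (th A lam z y) b
          field_simp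
          ring
        · have g4 := g2 b hb
          have h1 := (hl b).1
          have h2 := (hl b).2
          rw [(hne b hb).2] at h2
          have h3 : (M : ℝ) * sb Φ (th A lam z y) b = ⌊(M : ℝ) * u b⌋₊ := le_antisymm h2 h1
          show sb Φ _ b = sb Φ (th A lam z y) b
          rw [g4]
          simp only [hu0]
          rw [← h3]
          field_simp
    · rintro ⟨t, ht, rfl⟩
      obtain ⟨g1, g2, g3⟩ := hpt t ht
      refine ⟨G.mem.2 ((F.sc_eq_zero g1).1 ?_), fun b => ?_⟩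
      · have := g2 c (hzero c huc)
        exact this.trans (u0z c huc)
      · by_cases hb : b = a
        · subst hb
          rw [g3, hdiff]
          have h4 : (M : ℝ) * (u0 b + t * (1 / M)) = ⌊(M : ℝ) * u b⌋₊ + t := by
            rw [mul_add, ea0]; field_simp
          rw [h4, hstep]
          push_cast
          exact ⟨by linarith [ht.1], by linarith [ht.2]⟩
        · rw [g2 b hb]
          have h3 : (M : ℝ) * u0 b = ⌊(M : ℝ) * u b⌋₊ := by
            simp only [hu0]; field_simp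
          rw [h3, (hne b hb).2]
          exact ⟨le_rfl, le_rfl⟩
  · show |sc (Pc Φ.F) (bc (F := Φ.F)) (th A lam z y1) a -
      sc (Pc Φ.F) (bc (F := Φ.F)) (th A lam z y0) a| = 1 / M
    rw [s0, s1, hdiff, abs_of_pos (by positivity)]

end GridC

end Crest.Agent.R096.Cgr_9
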