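import Crest.Agent.R096.Cgr1_9

/-!
# R096 (row 96), EXACT-CORE words, piece (G3) of 124 #10617 (helper9): number of the 1-cells

`touch_ncard` : a brick meets at most `Nb (Fin 3) (R * κ0)` bricks.
`GridC.card` : the core tile has at most `((M + 1) ^ 2) ^ Nb (Fin 3) (R * κ0)` closed cells of
dimension `≤ 2` (in particular 1-cells).
-/

set_option autoImplicit false
set_option linter.unusedSectionVars false
set_option linter.style.longLine false

open Set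

namespace Crest.Agent.R096.Cgr_9

open Crest.Agent.R096.Bsp_628 Crest.Agent.R096.Brk1_582 Crest.Agent.R096.Brk2_582
open Crest.Agent.R096.Brk3_582 Crest.Agent.R096.Brk5_582 Crest.Agent.R096.Msh_715
open Crest.Agent.R096.SkC1_961 (E3 FoamD th)
open Crest.Agent.R096.Mbf_337 (sb)

variable {δ κ0 R c0 : ℝ} {La Om : Set E3} {ι : Type} {Φ : FoamD δ κ0 R c0 La} {T : Tiling Om ι}

/-- the bricks touching the brick `c` -/
def tch (Φ : FoamD δ κ0 R c0 La) (c : Φ.F) : Set Φ.F := {a | (Pc Φ.F a ∩ Pc Φ.F c).Nonempty}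

theorem tch_finite (hLa : IsOpen La) (c : Φ.F) : (tch Φ c).Finite := finite_touch (foamΦ hLa Φ) c

/-- **a brick touches boundedly many bricks** -/
theorem tch_ncard (hLa : IsOpen La) (hκ : 0 < κ0) (hR : 0 < R) (c : Φ.F) :
    (tch Φ c).ncard ≤ Nb (Fin 3) (R * κ0) := by
  classical
  have hfin := tch_finite hLa c
  have hszc : 0 < c.1.sz := Bx.sz_pos (Φ.bf.pos _ c.2)
  have h1 : (hfin.toFinset.image (Subtype.val : Φ.F → Bx (Fin 3))).card = (tch Φ c).ncard := by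
    rw [Finset.card_image_of_injective _ Subtype.val_injective, ncard_eq_toFinset_card _ hfin]
  rw [← h1]
  refine touch_card (B := c.1) (by positivity) hszc ?_ ?_ ?_
  · intro C hC
    obtain ⟨a, ha, rfl⟩ := Finset.mem_image.1 hC
    obtain ⟨y, hya, hyc⟩ := (hfin.mem_toFinset.1 ha : (Pc Φ.F a ∩ Pc Φ.F c).Nonempty)
    intro k
    have e1 := Bx.mem_set.1 hya k
    have e2 := Bx.mem_set.1 hyc k
    exact ⟨e2.1.trans e1.2, e1.1.trans e2.2⟩
  · intro C hC k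
    obtain ⟨a, ha, rfl⟩ := Finset.mem_image.1 hC
    have hne : (Pc Φ.F c ∩ Pc Φ.F a).Nonempty := by
      obtain ⟨y, hya, hyc⟩ := (hfin.mem_toFinset.1 ha : (Pc Φ.F a ∩ Pc Φ.F c).Nonempty)
      exact ⟨y, hyc, hya⟩
    have e1 := Φ.cmp c a hne
    have e2 := Φ.bf.asp _ a.2 k
    calc c.1.sz ≤ R * a.1.sz := e1
      _ ≤ R * (κ0 * a.1.side k) := mul_le_mul_of_nonneg_left e2 hR.le
      _ = R * κ0 * a.1.side k := by ring
  · intro C hC C' hC' hne
    obtain ⟨a, -, rfl⟩ := Finset.mem_image.1 hC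
    obtain ⟨a', -, rfl⟩ := Finset.mem_image.1 hC'
    exact Φ.bf.inv.disj a.2 a'.2 (Φ.bf.pos _ a.2) (Φ.bf.pos _ a'.2) hne

variable {c : Φ.F} {i : ι} {A : E3 ≃ᵃ[ℝ] E3} {lam : ℝ} {z : E3} {M : ℕ}

/-- the labels of the bricks which do not touch `c` are `1` on `c` -/
theorem sb_eq_one (hLa : IsOpen La) {y : E3} (hy : y ∈ c.1.set) {a : Φ.F} (ha : a ∉ tch Φ c) :
    sb Φ y a = 1 := by
  have F := foamΦ hLa Φ
  have hyLa : y ∈ La := Φ.bf.sub _ c.2 hy
  have hK := F.sc_mem_K hyLa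
  have h0 : sb Φ y c = 0 := (F.sc_eq_zero hyLa).2 hy
  refine le_antisymm (hK.1 a).2 (not_lt.1 fun hlt => ha ?_)
  have h1 : sc (Pc Φ.F) (bc (F := Φ.F)) y c < 1 := by
    have : sc (Pc Φ.F) (bc (F := Φ.F)) y c = 0 := h0
    rw [this]; exact one_pos
  exact lt_one_sub F hK h1 hlt

namespace GridC

/-- the closed cells of the boundary of the core tile have boundedly many label patterns -/
theorem card' (G : GridC Φ T c i A lam z M) (hLa : IsOpen La) :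
    {K : Set E3 | ∃ x ∈ P (T.H i), x ∉ I (T.H i) ∧ K = T.cc x}.Finite ∧
    {K : Set E3 | ∃ x ∈ P (T.H i), x ∉ I (T.H i) ∧ K = T.cc x}.ncard ≤
      ((M + 1) ^ 2) ^ (tch Φ c).ncard := by
  classical
  have F := foamΦ hLa Φ
  have hM' : (0 : ℝ) < M := by exact_mod_cast G.M0
  have hfin := tch_finite hLa c
  have : Finite (tch Φ c) := hfin
  let Ψ : (tch Φ c → Fin (M + 1) × Fin (M + 1)) → Set E3 := fun m =>
    {y | y ∈ P (T.H i) ∧ ∀ b : tch Φ c, ((m b).1 : ℝ) ≤ M * sb Φ (th A lam z y) b.1 ∧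
      (M : ℝ) * sb Φ (th A lam z y) b.1 ≤ (m b).2}
  have hsub : {K : Set E3 | ∃ x ∈ P (T.H i), x ∉ I (T.H i) ∧ K = T.cc x} ⊆ Ψ '' univ := by
    rintro K ⟨x, hx, hxI, rfl⟩
    have hK : sb Φ (th A lam z x) ∈ K (Pc Φ.F) := F.sc_mem_K (G.th_La hx)
    have hle : ∀ a, (M : ℝ) * sb Φ (th A lam z x) a ≤ M := fun a => by
      have := (hK.1 a).2
      nlinarith
    have hf : ∀ a, ⌊(M : ℝ) * sb Φ (th A lam z x) a⌋₊ < M + 1 := fun a =>
      Nat.lt_succ_of_le (Nat.floor_le_of_le (hle a))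
    have hc' : ∀ a, ⌈(M : ℝ) * sb Φ (th A lam z x) a⌉₊ < M + 1 := fun a =>
      Nat.lt_succ_of_le (Nat.ceil_le.2 (hle a))
    refine ⟨fun b => (⟨_, hf b.1⟩, ⟨_, hc' b.1⟩), mem_univ _, ?_⟩
    rw [(G.cell x hx hxI).1]
    ext y
    simp only [Ψ, mem_ofPred_eq]
    constructor
    · rintro ⟨hy, h⟩
      refine ⟨hy, fun a => ?_⟩
      by_cases ha : a ∈ tch Φ c
      · exact h ⟨a, ha⟩
      · rw [sb_eq_one hLa (G.mem.1 hx) ha, sb_eq_one hLa (G.mem.1 hy) ha, mul_one,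
          Nat.floor_natCast, Nat.ceil_natCast]
        exact ⟨le_rfl, le_rfl⟩
    · rintro ⟨hy, h⟩
      exact ⟨hy, fun b => h b.1⟩
  have hfinI : (Ψ '' univ).Finite := (finite_univ).image Ψ
  refine ⟨hfinI.subset hsub, (ncard_le_ncard hsub hfinI).trans ((ncard_image_le finite_univ).trans ?_)⟩
  rw [ncard_univ, Nat.card_fun, Nat.card_prod, Nat.card_eq_fintype_card, Fintype.card_fin, sq]
  exact le_rfl

/-- **(G3)** the number of the 1-cells -/
theorem card (G : GridC Φ T c i A lam z M) (hLa : IsOpen La) (hκ : 0 < κ0) (hR : 0 < R) :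
    {K : Set E3 | ∃ x ∈ P (T.H i), T.dim x = 1 ∧ K = T.cc x}.Finite ∧
    {K : Set E3 | ∃ x ∈ P (T.H i), T.dim x = 1 ∧ K = T.cc x}.ncard ≤
      ((M + 1) ^ 2) ^ Nb (Fin 3) (R * κ0) := by
  obtain ⟨h1, h2⟩ := G.card' hLa
  have hsub : {K : Set E3 | ∃ x ∈ P (T.H i), T.dim x = 1 ∧ K = T.cc x} ⊆
      {K : Set E3 | ∃ x ∈ P (T.H i), x ∉ I (T.H i) ∧ K = T.cc x} := by
    rintro K ⟨x, hx, hd, rfl⟩
    exact ⟨x, hx, not_I hx (by omega), rfl⟩
  refine ⟨h1.subset hsub, (ncard_le_ncard hsub h1).trans (h2.trans ?_)⟩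
  exact Nat.pow_le_pow_right (by positivity) (tch_ncard hLa hκ hR c)

end GridC

end Crest.Agent.R096.Cgr_9
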