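import Crest.Agent.R096.Sec3_892

/-!
# Row 96, DOORS, CUT for all families (helper344): the families one after the other

The barriers of different families may have points on the same face (the exact circles of
`(a,{c,d})` and `(a',{c,d})` cross near `b_cd`), so the new points of two families can only be kept
apart by choosing the families one after the other.

* `exists_seq`  : sequential choice along an enumeration;
* `exists_cuts` : simultaneous cut states, new points pairwise different and not in `P`.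
-/

set_option autoImplicit false

namespace Crest.Agent.R096.Cgs_344

open Crest.Agent.R096.St_147 Crest.Agent.R096.Sec_892

/-- sequential choice: the choice for `b` sees the points of all earlier choices -/
theorem exists_seq {C W : Type} {T : C → Type} (pts : ∀ a, T a → Finset W)
    (enc : C → ℕ) (henc : Function.Injective enc) (base : C → Finset W)
    (R : ∀ a, Finset W → T a → Prop) (h : ∀ a (Ph : Finset W), base a ⊆ Ph → ∃ t, R a Ph t) :
    ∃ (Ph : C → Finset W) (t : ∀ a, T a), (∀ a, base a ⊆ Ph a ∧ R a (Ph a) (t a)) ∧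
      ∀ a b, enc a < enc b → pts a (t a) ⊆ Ph b := by
  classical
  -- the choice function
  choose F hF using h
  let fin : ∀ b : C, Finset C := fun b =>
    (Set.Finite.preimage henc.injOn (Set.finite_lt_nat (enc b))).toFinset
  have hfin : ∀ a b, a ∈ fin b ↔ enc a < enc b := by
    intro a b
    simp only [fin, Set.Finite.mem_toFinset, Set.mem_preimage, Set.mem_ofPred_eq]
  have hwf : WellFounded (fun a b : C => enc a < enc b) := InvImage.wf enc Nat.lt_wfRel.wf
  let G : ∀ b, (∀ a, enc a < enc b → T a) → T b := fun b rec =>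
    F b (base b ∪ (fin b).attach.biUnion fun a => pts a.1 (rec a.1 ((hfin a.1 b).1 a.2)))
      Finset.subset_union_left
  let t : ∀ a, T a := hwf.fix G
  have ht : ∀ b, t b = F b (base b ∪ (fin b).attach.biUnion fun a => pts a.1 (t a.1))
      Finset.subset_union_left := by
    intro b
    show hwf.fix G b = _
    rw [hwf.fix_eq]
  refine ⟨fun b => base b ∪ (fin b).attach.biUnion fun a => pts a.1 (t a.1), t, fun b => ?_, ?_⟩
  · refine ⟨Finset.subset_union_left, ?_⟩
    have := hF b (base b ∪ (fin b).attach.biUnion fun a => pts a.1 (t a.1))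
      Finset.subset_union_left
    rw [← ht b] at this
    exact this
  · intro a b hab w hw
    refine Finset.mem_union_right _ (Finset.mem_biUnion.2 ⟨⟨a, (hfin a b).2 hab⟩, ?_, hw⟩)
    exact Finset.mem_attach _ _

variable {ι Φ W C : Type} {M : MeshC ι Φ W} {I : C → Type} {col : ∀ a, I a → Bool}

/-- **simultaneous cut states.**  `P` = the points of the state with barriers, `p a` = the pair state
of the family `a`, `R a Ph t` = the output of the cut of `p a` with the forbidden points `Ph`. -/
theorem exists_cuts [Countable C] (P : Set W) (p : ∀ a, St M (col a))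
    (hfin : ∀ F, {w | w ∈ P ∧ w ∈ M.On F}.Finite)
    (hon : ∀ w ∈ P, ∃ F, w ∈ M.On F)
    (R : ∀ a, Finset W → St M (col a) → Prop)
    (hR : ∀ a (Ph : Finset W), (p a).P ⊆ Ph → ∃ t, R a Ph t)
    (hnew : ∀ a (Ph : Finset W) t, (p a).P ⊆ Ph → R a Ph t → ∀ w ∈ t.P, w ∈ (p a).P ∨
      (w ∉ Ph ∧ ∃ h, HP (p a) h ∧ Nb M Ph h w)) :
    ∃ (Ph : C → Finset W) (t : ∀ a, St M (col a)),
      (∀ a, (p a).P ⊆ Ph a ∧ R a (Ph a) (t a)) ∧
      (∀ a h F x, HP (p a) h → h ∈ M.On F → x ∈ P → x ∈ M.On F → x ∈ Ph a) ∧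
      (∀ a, ∀ w ∈ (t a).P, w ∉ (p a).P → w ∉ P) ∧
      ∀ a b, a ≠ b → ∀ w ∈ (t a).P, w ∉ (p a).P → w ∈ (t b).P → w ∈ (p b).P := by
  classical
  obtain ⟨enc, henc⟩ := Countable.exists_injective_nat C
  -- the points of `P` on the faces at the barrier points of `a`
  have hloc : ∀ a, {x | x ∈ P ∧ ∃ h F, HP (p a) h ∧ h ∈ M.On F ∧ x ∈ M.On F}.Finite := by
    intro a
    have h1 : {F | ∃ h ∈ (p a).P, h ∈ M.On F}.Finite := by
      have : {F | ∃ h ∈ (p a).P, h ∈ M.On F} = ⋃ h ∈ ((p a).P : Set W), {F | h ∈ M.On F} := by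
        ext F; simp
      rw [this]
      exact (p a).P.finite_toSet.biUnion fun h _ => M.fin h
    refine (h1.biUnion fun F _ => hfin F).subset ?_
    rintro x ⟨hx, h, F, hh, hF, hxF⟩
    exact Set.mem_biUnion (show F ∈ {F | ∃ h ∈ (p a).P, h ∈ M.On F} from ⟨h, hh.1, hF⟩) ⟨hx, hxF⟩
  let base : C → Finset W := fun a => (p a).P ∪ (hloc a).toFinset
  obtain ⟨Ph, t, h1, h2⟩ := exists_seq (fun a (t : St M (col a)) => t.P) enc henc base R
    (fun a Ph hb => hR a Ph (Finset.subset_union_left.trans hb))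
  have hb1 : ∀ a, (p a).P ⊆ Ph a := fun a => Finset.subset_union_left.trans (h1 a).1
  have hb2 : ∀ a h F x, HP (p a) h → h ∈ M.On F → x ∈ P → x ∈ M.On F → x ∈ Ph a := by
    intro a h F x hh hF hx hxF
    refine (h1 a).1 (Finset.mem_union_right _ ?_)
    rw [Set.Finite.mem_toFinset]
    exact ⟨hx, h, F, hh, hF, hxF⟩
  have key : ∀ a, ∀ w ∈ (t a).P, w ∉ (p a).P → w ∉ Ph a := by
    intro a w hw hn
    rcases hnew a (Ph a) (t a) (hb1 a) (h1 a).2 w hw with h | h
    · exact absurd h hn
    · exact h.1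
  refine ⟨Ph, t, fun a => ⟨hb1 a, (h1 a).2⟩, hb2, ?_, ?_⟩
  · intro a w hw hn hwP
    rcases hnew a (Ph a) (t a) (hb1 a) (h1 a).2 w hw with h | ⟨h3, h, h4, h5, _⟩
    · exact hn h
    · obtain ⟨F, hF⟩ := hon w hwP
      exact h3 (hb2 a h F w h4 ((h5 F).1 hF) hwP hF)
  · intro a b hab w hwa hna hwb
    by_contra hnb
    rcases lt_or_gt_of_ne (fun e => hab (henc e)) with h | h
    · exact key b w hwb hnb (h2 a b h hwa)
    · exact key a w hwa hna (h2 b a h hwb)

end Crest.Agent.R096.Cgs_344
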