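import Crest.Agent.R096.Ebr6_95

/-!
# Row 96 (S0127), DOORS, NE1, leaf G1 of helper778 #12223 (helper798): the chart of a transversal strip

`chart` : over a box of the moat of `c`, the strip `{ga = s, Psi = gam (t0, w)}` is the homeomorphic
image of the rectangle `Icc s0 s1 ×ˢ Icc 0 w1`.
-/

set_option autoImplicit false
set_option linter.unusedSectionVars false
set_option linter.style.longLine false

open Set Topology Filter Metric Module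
open scoped Classical

namespace Crest.Agent.R096.Chg_798

open Crest.Agent.R096.Msh_715 Crest.Agent.R096.Coh_184 Crest.Agent.R096.Bsp_628
  Crest.Agent.R096.Brk1_582 Crest.Agent.R096.Brk2_582 Crest.Agent.R096.Brk3_582
  Crest.Agent.R096.Brk5_582 Crest.Agent.R096.Init_543 Crest.Agent.R096.Mbf_337
  Crest.Agent.R96.Push_899 Crest.Agent.R096.Ess1_95 Crest.Agent.R096.Ess4_95
  Crest.Agent.R096.Ess5_95 Crest.Agent.R096.Ess6_95 Crest.Agent.R096.Ess7_95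
  Crest.Agent.R096.Lab_184 Crest.Agent.R096.Seq_213 Crest.Agent.R096.Seq_213.GSt
  Crest.Agent.R096.Main_4 Crest.Agent.R096.Exa_560 Crest.Agent.R096.Agl4_543
  Crest.Agent.R096.Agl5_543 Crest.Agent.R096.Agl6_543 Crest.Agent.R096.Agl8_543
  Crest.Agent.R096.Ebr1_95 Crest.Agent.R096.Ebr2_95
  Crest.Agent.R096.Ebr3_95 Crest.Agent.R096.Ebr4_95 Crest.Agent.R096.Ebr5_95
  Crest.Agent.R096.Ebr6_95 Crest.Agent.R096.Bar_106
  Crest.Agent.R096.Bgf_4 Crest.Agent.R096.Dib_438 Crest.Agent.R096.Sphg_316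

open Crest.Agent.R096.SkC1_961 (E3 Hom3 IsPush FoamD)

variable {δ κ0 R c0 : ℝ} {La Om : Set E3} {Φ : FoamD δ κ0 R c0 La} {f g : E3 → E3}

/-- **G1 (chart)** over polar coordinates `pol` round the point hole of `c` -/
theorem chart_pol (hLa : IsOpen La) (H : Hm f g Om La) {c : Φ.F}
    (hpt : (Φ.B c).lo = (Φ.B c).hi) {ρ : ℝ} (hρ : ρ < 1) {pol : ℝ × E3 → E3}
    (hPol : Pol Φ c ρ pol) {a p q : Φ.F} {Z : Set Φ.F} (hM : Mo (Pc Φ.F) c a Z p q)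
    {s0 s1 t0 w1 : ℝ} (hs0 : 0 < s0) (hs1 : s1 ≤ ρ) (ht0 : t0 ∈ Icc (0:ℝ) 1) (hw1 : w1 ≤ 1)
    (l0 mm ra : ℝ) :
    ∃ Wz : ℝ × ℝ → E3, ContinuousOn Wz (Icc s0 s1 ×ˢ Icc 0 w1) ∧
      InjOn Wz (Icc s0 s1 ×ˢ Icc 0 w1) ∧
      (∀ z ∈ Icc s0 s1 ×ˢ Icc (0:ℝ) w1, Wz z ∈ Om ∧ ga Φ c (f (Wz z)) = z.1 ∧
        Φ.Psi (f (Wz z)) = gam (bc (F := Φ.F)) a Z p q (t0, z.2) ∧
        Φ.lev a (f (Wz z)) = t0 ∧
        gmf Φ l0 mm ra a Z (Φ.Psi (f (Wz z))) = max (z.2 / l0) (|t0 - mm| / ra)) ∧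
      IsCompact (Wz '' (Icc s0 s1 ×ˢ Icc 0 w1)) ∧
      TrivF (ZMod 2) (Wz '' (Icc s0 s1 ×ˢ Icc 0 w1)) := by
  have FF := foam Φ.bf hLa
  have hcL : c.1.set ⊆ La := Φ.bf.sub c.1 c.2
  have hb : Bod (Φ.B c).lo (Pc Φ.F c) := Pse_316.bod_brick Φ c hpt
  have hgf : ga Φ c = Ng (Φ.B c).lo (Pc Φ.F c) := funext (Etg_163.gg_eq Φ c)
  have hgc : ∀ y, ga Φ c y ≤ ρ → y ∈ La := fun y hy =>
    hcL (hb.le_sub hρ.le (show y ∈ {y | Ng _ _ y ≤ ρ} by rw [← hgf]; exact hy))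
  have hRct : ∀ w ∈ Icc (0:ℝ) w1, ((t0, w) : ℝ × ℝ) ∈ Rct := fun w hw =>
    ⟨ht0, ⟨by linarith [hw.1], by linarith [hw.2]⟩⟩
  have hfr : ∀ w ∈ Icc (0:ℝ) w1, gam (bc (F := Φ.F)) a Z p q (t0, w) ∈ frontier c.1.set :=
    fun w hw => gam_fr hLa hM (hRct w hw)
  have hs : ∀ s ∈ Icc s0 s1, s ∈ Ioc (0:ℝ) ρ := fun s h => ⟨by linarith [h.1], by linarith [h.2]⟩
  set D : Set (ℝ × ℝ) := Icc s0 s1 ×ˢ Icc (0:ℝ) w1 with hD
  set Q : ℝ × ℝ → E3 := fun z => pol (z.1, gam (bc (F := Φ.F)) a Z p q (t0, z.2)) with hQ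
  have hga : ∀ z ∈ D, ga Φ c (Q z) = z.1 := fun z hz => hPol.gau _ (hs _ hz.1) _ (hfr _ hz.2)
  have hpsi : ∀ z ∈ D, Φ.Psi (Q z) = gam (bc (F := Φ.F)) a Z p q (t0, z.2) := fun z hz =>
    hPol.psi _ (hs _ hz.1) _ (hfr _ hz.2)
  have hQL : ∀ z ∈ D, Q z ∈ La := fun z hz =>
    hgc _ (by rw [hga z hz]; exact (hs _ hz.1).2)
  have hfg : ∀ z ∈ D, f (g (Q z)) = Q z := fun z hz => H.fg _ (hQL z hz)
  have hgamc : ContinuousOn (fun z : ℝ × ℝ => gam (bc (F := Φ.F)) a Z p q (t0, z.2)) D := by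
    refine (hM.continuousOn_gam FF).comp (Continuous.continuousOn (by fun_prop)) ?_
    intro z hz
    exact hRct _ hz.2
  have hQc : ContinuousOn Q D := by
    refine hPol.cont.comp (ContinuousOn.prodMk continuous_fst.continuousOn hgamc) ?_
    intro z hz
    exact ⟨mem_univ _, hfr _ hz.2⟩
  have hWc : ContinuousOn (fun z => g (Q z)) D := H.gc.comp hQc hQL
  have hinj : InjOn (fun z => g (Q z)) D := by
    intro z hz z' hz' h
    have h1 : Q z = Q z' := by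
      have h2 := congrArg f h
      rw [hfg z hz, hfg z' hz'] at h2
      exact h2
    have h3 : z.1 = z'.1 := by rw [← hga z hz, ← hga z' hz', h1]
    have h4 : gam (bc (F := Φ.F)) a Z p q (t0, z.2) = gam (bc (F := Φ.F)) a Z p q (t0, z'.2) := by
      rw [← hpsi z hz, ← hpsi z' hz', h1]
    have h5 := hM.gam_injOn FF (hRct _ hz.2) (hRct _ hz'.2) h4
    exact Prod.ext h3 (Prod.mk.inj h5).2
  have hDc : IsCompact D := isCompact_Icc.prod isCompact_Icc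
  refine ⟨fun z => g (Q z), hWc, hinj, fun z hz => ?_, hDc.image_of_continuousOn hWc,
    trivF_convex hDc ((convex_Icc _ _).prod (convex_Icc _ _)) hWc hinj⟩
  have hx := hfg z hz
  refine ⟨H.gm (hQL z hz), by rw [hx]; exact hga z hz, by rw [hx]; exact hpsi z hz, ?_, ?_⟩
  · show sc (Pc Φ.F) (bc (F := Φ.F)) (Φ.Psi (f (g (Q z)))) a = t0
    rw [hx, hpsi z hz, hM.sc_gam FF (hRct _ hz.2), uu_a]
  · rw [hx, hpsi z hz, gmf_gam hLa hM (hRct _ hz.2)]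
    show max (|z.2| / l0) (|t0 - mm| / ra) = _
    rw [abs_of_nonneg hz.2.1]

end Crest.Agent.R096.Chg_798
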