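import Crest.Agent.R96.Nu4_199
import Crest.Agent.R096.Msh3_715
import Crest.Agent.R096.Bd10_416

/-!
# R096 (row 96), charts of the cells of a tiling with constants = function of the shape (helper879)

(C2) of 147 #9871, adapter of 199's `exists_frame_charts`: every cell of every tiling has ONE chart
whose Lipschitz constants in every affine frame `B` are `Cs (dim) (B '' cell)`; local bounds
(`LM` / `MB`, the form consumed by `mesh_cone`) and global ones.
-/

set_option autoImplicit false
set_option linter.style.longLine false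
set_option linter.unusedVariables false

open Set Metric Filter Topology

namespace Crest.Agent.R096.Chs_879

open Crest.Agent.R096.Ce_537 Crest.Agent.R096.Bd_416 Crest.Agent.R096.Msh_715
open Crest.Agent.R96.Nu3_199 Crest.Agent.R96.Nu4_199

noncomputable section

/-- a locally Lipschitz map on a convex set is globally Lipschitz with the same constant -/
theorem lip_of_local {E F : Type*} [NormedAddCommGroup E] [NormedSpace ℝ E] [PseudoMetricSpace F]
    {L : ℝ} (hL : 0 ≤ L) {f : E → F} {K : Set E} (hK : Convex ℝ K)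
    (h : ∀ x ∈ K, ∀ᶠ y in 𝓝[K] x, dist (f y) (f x) ≤ L * dist y x) :
    ∀ x ∈ K, ∀ y ∈ K, dist (f y) (f x) ≤ L * dist y x := by
  intro x hx y hy
  have hf : ContinuousOn f K := fun z hz => LM.continuousWithinAt (L := L) (h z hz)
  set γ : ℝ → E := fun t => x + t • (y - x) with hγ
  have hγc : Continuous γ := by rw [hγ]; fun_prop
  have hγK : ∀ t ∈ Icc (0:ℝ) 1, γ t ∈ K := fun t ht => by
    have := hK.add_smul_sub_mem hx hy ht
    exact this
  have hγd : ∀ s t : ℝ, dist (γ s) (γ t) = |s - t| * dist y x := by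
    intro s t
    rw [dist_eq_norm, dist_eq_norm, ← Real.norm_eq_abs, ← norm_smul]
    congr 1
    simp only [hγ]
    rw [sub_smul]; abel
  set S : Set ℝ := {t | dist (f (γ t)) (f x) ≤ L * (t * dist y x)} with hS
  have hcl : IsClosed (S ∩ Icc (0:ℝ) 1) := by
    have h1 : ContinuousOn (fun t => dist (f (γ t)) (f x) - L * (t * dist y x)) (Icc (0:ℝ) 1) := by
      refine ContinuousOn.sub ?_ (by fun_prop)
      have h0 : ContinuousOn (fun t => f (γ t)) (Icc (0:ℝ) 1) := hf.comp hγc.continuousOn hγK
      exact continuous_dist.comp_continuousOn (h0.prodMk continuousOn_const)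
    have h2 := h1.preimage_isClosed_of_isClosed isClosed_Icc (isClosed_Iic (a := (0:ℝ)))
    have h3 : S ∩ Icc (0:ℝ) 1 = Icc (0:ℝ) 1 ∩
        (fun t => dist (f (γ t)) (f x) - L * (t * dist y x)) ⁻¹' Iic 0 := by
      ext t
      simp only [hS, mem_inter_iff, mem_ofPred_eq, mem_preimage, mem_Iic, sub_nonpos]
      tauto
    rw [h3]; exact h2
  have hsub : Icc (0:ℝ) 1 ⊆ S := by
    refine hcl.Icc_subset_of_forall_mem_nhdsWithin ?_ ?_
    · simp [hS, hγ]
    · rintro t ⟨ht, ht1⟩
      have ht2 : t ∈ Icc (0:ℝ) 1 := ⟨ht1.1, ht1.2.le⟩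
      have h4 : Tendsto γ (𝓝[>] t) (𝓝[K] (γ t)) := by
        refine tendsto_nhdsWithin_iff.2 ⟨(hγc.tendsto t).mono_left nhdsWithin_le_nhds, ?_⟩
        filter_upwards [Ioo_mem_nhdsGT ht1.2] with s hs
        exact hγK s ⟨ht1.1.trans hs.1.le, hs.2.le⟩
      filter_upwards [h4.eventually (h _ (hγK t ht2)), self_mem_nhdsWithin] with s hs hst
      have hst' : t < s := hst
      have h5 : dist (f (γ t)) (f x) ≤ L * (t * dist y x) := ht
      have h6 : dist (γ s) (γ t) = (s - t) * dist y x := by
        rw [hγd, abs_of_pos (by linarith)]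
      rw [h6] at hs
      show dist (f (γ s)) (f x) ≤ L * (s * dist y x)
      calc dist (f (γ s)) (f x) ≤ dist (f (γ s)) (f (γ t)) + dist (f (γ t)) (f x) :=
            dist_triangle _ _ _
        _ ≤ L * ((s - t) * dist y x) + L * (t * dist y x) := add_le_add hs h5
        _ = L * (s * dist y x) := by ring
  have h7 : (1:ℝ) ∈ S := hsub (right_mem_Icc.2 zero_le_one)
  have h8 : γ 1 = y := by simp [hγ]
  rw [hS, mem_ofPred_eq, h8, one_mul] at h7
  exact h7

/-- **(C2)** charts of the cells of all tilings; the constants are a function of the dimension and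
of the shape of the cell in the frame `B`. -/
theorem exists_chart_shape (E : Type) [NormedAddCommGroup E] [NormedSpace ℝ E]
    [FiniteDimensional ℝ E] :
    ∃ Cs : ℕ → Set E → ℝ, (∀ n S, 0 < Cs n S) ∧
      ∀ {Om : Set E} {ι : Type*} (T : Tiling Om ι) (q : T.Cell),
        ∃ e : PLEquiv (cube q.dim) q.set,
          e.f '' sph q.dim = bdS (fun c : T.Cell => c.set) q ∧ ∀ B : E ≃ᵃ[ℝ] E,
          (∀ w ∈ cube q.dim, MB (fun x => x) B (Cs q.dim (B '' q.set)) e.f (cube q.dim) w) ∧
          (∀ z ∈ q.set, MB B (fun x => x) (Cs q.dim (B '' q.set)) e.g q.set z) ∧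
          (∀ w ∈ cube q.dim, ∀ w' ∈ cube q.dim,
            ‖B (e.f w') - B (e.f w)‖ ≤ Cs q.dim (B '' q.set) * ‖w' - w‖) ∧
          ∀ z ∈ q.set, ∀ z' ∈ q.set,
            ‖e.g z' - e.g z‖ ≤ Cs q.dim (B '' q.set) * ‖B z' - B z‖ := by
  obtain ⟨AA, hAA, H⟩ := exists_frame_charts E
  refine ⟨AA, hAA, fun {Om ι} T q => ?_⟩
  have hx := q.pt_mem
  have hb : IsBall q.dim q.set (q.set \ ri q.set) := by
    have h2 := T.isBall_cell hx
    rw [← q.set_eq] at h2
    change IsBall q.dim q.set (q.set \ q.opn) at h2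
    rwa [bd_eq] at h2
  have hconv : Convex ℝ q.set := by
    rw [q.set_eq]
    exact T.convex_cc _
  have hne : q.set.Nonempty := by
    rw [q.set_eq]; exact ⟨_, T.self_mem_cc _⟩
  obtain ⟨e, he, hB⟩ := H q.dim q.set hconv hb.isCompact hne hb
  refine ⟨e, ?_, fun B => ?_⟩
  · rw [he, ← bd_eq, q.bdry]
  · obtain ⟨h1, h2⟩ := hB B
    refine ⟨h1, h2, ?_, ?_⟩
    · intro w hw w' hw'
      have h3 := lip_of_local (hAA _ _).le (f := fun x => B (e.f x)) (convex_closedBall _ _) h1
        w hw w' hw'
      rwa [dist_eq_norm, dist_eq_norm] at h3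
    · intro z hz z' hz'
      have hBK : Convex ℝ (B '' q.set) := hconv.affine_image (B : E →ᵃ[ℝ] E)
      have h3 : ∀ u ∈ B '' q.set, ∀ᶠ v in 𝓝[B '' q.set] u,
          dist (e.g (B.symm v)) (e.g (B.symm u)) ≤ AA q.dim (B '' q.set) * dist v u := by
        rintro _ ⟨x, hx', rfl⟩
        rw [B.symm_apply_apply]
        have h4 : Tendsto B.symm (𝓝[B '' q.set] (B x)) (𝓝[q.set] x) := by
          refine tendsto_nhdsWithin_iff.2 ⟨?_, ?_⟩
          · have h5 := ((B.symm : E →ᵃ[ℝ] E).continuous_of_finiteDimensional.tendsto (B x)).mono_left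
              (nhdsWithin_le_nhds (s := B '' q.set))
            have h6 : (B.symm : E →ᵃ[ℝ] E) (B x) = x := B.symm_apply_apply x
            rw [h6] at h5
            exact h5
          · filter_upwards [self_mem_nhdsWithin] with v hv
            obtain ⟨y, hy, rfl⟩ := hv
            rw [B.symm_apply_apply]; exact hy
        filter_upwards [h4.eventually (h2 x hx')] with v hv
        have h7 : B (B.symm v) = v := B.apply_symm_apply v
        rw [h7] at hv
        exact hv
      have h8 := lip_of_local (hAA _ _).le (f := fun v => e.g (B.symm v)) hBK h3 (B z)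
        (mem_image_of_mem _ hz) (B z') (mem_image_of_mem _ hz')
      simp only [B.symm_apply_apply] at h8
      rwa [dist_eq_norm, dist_eq_norm] at h8

end

end Crest.Agent.R096.Chs_879
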