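import Crest.Agent.R096.Wy1_664

/-!
# Row 96, DOORS, NE1 (helper244): the transversal chart of 778 (G1 of #12223)

`chart` : `Wz z = g (p (z.1, gam (t0, z.2)))` on `Icc s0 s1 ×ˢ Icc 0 w1`, for polar coordinates `p`;
`chart_bar` : the same over 4's `BarF`.
-/

set_option autoImplicit false
set_option linter.unusedSectionVars false

open Set Topology Filter Metric Module
open scoped Classical

namespace Crest.Agent.R096.Cht_244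

open Crest.Agent.R096.Msh_715 Crest.Agent.R096.Coh_184 Crest.Agent.R096.Bsp_628
  Crest.Agent.R096.Brk1_582 Crest.Agent.R096.Brk2_582 Crest.Agent.R096.Brk3_582
  Crest.Agent.R096.Brk5_582 Crest.Agent.R096.Init_543 Crest.Agent.R096.Mbf_337
  Crest.Agent.R96.Push_899 Crest.Agent.R096.Ess1_95 Crest.Agent.R096.Ess4_95
  Crest.Agent.R096.Ess5_95 Crest.Agent.R096.Ess6_95 Crest.Agent.R096.Ess7_95
  Crest.Agent.R096.Lab_184 Crest.Agent.R096.Seq_213 Crest.Agent.R096.Seq_213.GSt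
  Crest.Agent.R096.Main_4 Crest.Agent.R096.Exa_560 Crest.Agent.R096.Agl4_543
  Crest.Agent.R096.Agl5_543 Crest.Agent.R096.Agl6_543 Crest.Agent.R096.Agl8_543
  Crest.Agent.R096.Ebr1_95 Crest.Agent.R096.Ebr2_95
  Crest.Agent.R096.Ebr3_95 Crest.Agent.R096.Ebr4_95 Crest.Agent.R096.Ebr5_95
  Crest.Agent.R096.Ebr6_95 Crest.Agent.R096.Bar_106
  Crest.Agent.R096.Bgf_4 Crest.Agent.R096.Dib_438 Crest.Agent.R096.Sphg_316

open Crest.Agent.R096.SkC1_961 (E3 Hom3 IsPush FoamD)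

variable {δ κ0 R c0 : ℝ} {La Om : Set E3} {ι : Type} {Φ : FoamD δ κ0 R c0 La}
  {T : Tiling Om ι} {f g : E3 → E3} {J0 J V : Φ.F → Set ι} {θ : Φ.F → E3 → E3}

/-- **the transversal chart of a moat** (G1 of 778 #12223) -/
theorem chart (hLa : IsOpen La) (H : Hm f g Om La) {c : Φ.F} {ρ : ℝ} {pp : ℝ × E3 → E3}
    (hPol : Pol Φ c ρ pp) (hin : ∀ y, ga Φ c y ≤ ρ → y ∈ La) {a p q : Φ.F} {Z : Set Φ.F}
    (hM : Mo (Pc Φ.F) c a Z p q) (l0 mm ra : ℝ) {s0 s1 t0 w1 : ℝ} (h0 : 0 < s0) (h1 : s1 ≤ ρ)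
    (ht : t0 ∈ Icc (0 : ℝ) 1) (hw : w1 ≤ 1) :
    ∃ Wz : ℝ × ℝ → E3, ContinuousOn Wz (Icc s0 s1 ×ˢ Icc 0 w1) ∧
      InjOn Wz (Icc s0 s1 ×ˢ Icc 0 w1) ∧
      (∀ z ∈ Icc s0 s1 ×ˢ Icc 0 w1, Wz z ∈ Om ∧ ga Φ c (f (Wz z)) = z.1 ∧
        Φ.Psi (f (Wz z)) = gam (bc (F := Φ.F)) a Z p q (t0, z.2) ∧
        Φ.lev a (f (Wz z)) = t0 ∧
        gmf Φ l0 mm ra a Z (Φ.Psi (f (Wz z))) = max (z.2 / l0) (|t0 - mm| / ra)) ∧
      IsCompact (Wz '' (Icc s0 s1 ×ˢ Icc 0 w1)) ∧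
      TrivF (ZMod 2) (Wz '' (Icc s0 s1 ×ˢ Icc 0 w1)) := by
  have FF := foam Φ.bf hLa
  set D : Set (ℝ × ℝ) := Icc s0 s1 ×ˢ Icc 0 w1 with hD
  have hR : ∀ z ∈ D, ((t0, z.2) : ℝ × ℝ) ∈ Rct := fun z hz =>
    ⟨ht, by linarith [hz.2.1], hz.2.2.trans hw⟩
  set q0 : ℝ × ℝ → E3 := fun z => gam (bc (F := Φ.F)) a Z p q (t0, z.2) with hq0
  have hq0f : ∀ z ∈ D, q0 z ∈ frontier c.1.set := fun z hz => gam_fr hLa hM (hR z hz)
  have hs : ∀ z ∈ D, z.1 ∈ Ioc 0 ρ := fun z hz => ⟨h0.trans_le hz.1.1, hz.1.2.trans h1⟩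
  set y0 : ℝ × ℝ → E3 := fun z => pp (z.1, q0 z) with hy0
  have hga : ∀ z ∈ D, ga Φ c (y0 z) = z.1 := fun z hz => hPol.gau z.1 (hs z hz) _ (hq0f z hz)
  have hps : ∀ z ∈ D, Φ.Psi (y0 z) = q0 z := fun z hz => hPol.psi z.1 (hs z hz) _ (hq0f z hz)
  have hyL : ∀ z ∈ D, y0 z ∈ La := fun z hz => hin _ (by rw [hga z hz]; exact (hs z hz).2)
  have hfg : ∀ z ∈ D, f (g (y0 z)) = y0 z := fun z hz => H.fg _ (hyL z hz)
  have hq0c : ContinuousOn q0 D :=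
    (hM.continuousOn_gam FF).comp (Continuous.continuousOn (by fun_prop)) fun z hz => hR z hz
  have hy0c : ContinuousOn y0 D :=
    hPol.cont.comp (continuousOn_fst.prodMk hq0c) fun z hz => ⟨mem_univ _, hq0f z hz⟩
  have hWc : ContinuousOn (fun z => g (y0 z)) D := H.gc.comp hy0c fun z hz => hyL z hz
  have hinj : InjOn (fun z => g (y0 z)) D := by
    intro x hx y hy hxy
    have e0 : y0 x = y0 y := H.injOn (hyL x hx) (hyL y hy) hxy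
    have e1 : x.1 = y.1 := by rw [← hga x hx, ← hga y hy, e0]
    have e2 : q0 x = q0 y := by rw [← hps x hx, ← hps y hy, e0]
    have e3 := hM.gam_injOn FF (hR x hx) (hR y hy) e2
    have e4 : x.2 = y.2 := (Prod.ext_iff.1 e3).2
    exact Prod.ext e1 e4
  have hDc : IsCompact D := isCompact_Icc.prod isCompact_Icc
  have hDv : Convex ℝ D := (convex_Icc _ _).prod (convex_Icc _ _)
  refine ⟨fun z => g (y0 z), hWc, hinj, ?_, hDc.image_of_continuousOn hWc,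
    trivF_convex hDc hDv hWc hinj⟩
  intro z hz
  have e1 : f (g (y0 z)) = y0 z := hfg z hz
  have e2 : Φ.Psi (f (g (y0 z))) = gam (bc (F := Φ.F)) a Z p q (t0, z.2) := by
    rw [e1]; exact hps z hz
  refine ⟨H.gm (hyL z hz), ?_, e2, ?_, ?_⟩
  · show ga Φ c (f (g (y0 z))) = z.1
    rw [e1]; exact hga z hz
  · show sc (Pc Φ.F) (bc (F := Φ.F)) (Φ.Psi (f (g (y0 z)))) a = t0
    rw [e2, hM.sc_gam FF (hR z hz), uu_a]
  · show gmf Φ l0 mm ra a Z (Φ.Psi (f (g (y0 z)))) = _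
    rw [e2, gmf_gam hLa hM (hR z hz)]
    show max (|z.2| / l0) (|t0 - mm| / ra) = _
    rw [abs_of_nonneg hz.2.1]

variable {Mo' : Type} {co : Mo' → Φ.F} {ρ1 ρ2 ρ3 ρ4 d : Mo' → ℝ} {G : Mo' → E3 → ℝ}
  {rm h lo hi ω : Mo' → ℝ} {q₀ : Mo' → E3} {g0 : Mo' → ℝ}

/-- points of small gauge lie in the target -/
theorem bar_in (hB : BarF Φ T f J0 J V θ co ρ1 ρ2 ρ3 ρ4 d G rm h lo hi ω q₀ g0) (m : Mo') :
    ∀ y, ga Φ (co m) y ≤ ρ4 m → y ∈ La := by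
  intro y hy
  have hr := hB.room m
  have hcL : (co m).1.set ⊆ La := Φ.bf.sub (co m).1 (co m).2
  have hb : Bod (Φ.B (co m)).lo (Pc Φ.F (co m)) := Pse_316.bod_brick Φ (co m) (hB.pt m)
  have hgf : ga Φ (co m) = Ng (Φ.B (co m)).lo (Pc Φ.F (co m)) :=
    funext (Etg_163.gg_eq Φ (co m))
  exact hcL (hb.le_sub hr.r4.le (show y ∈ {y | Ng _ _ y ≤ ρ4 m} by rw [← hgf]; exact hy))

/-- **the transversal chart over `BarF`** -/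
theorem chart_bar (hLa : IsOpen La) (H : Hm f g Om La)
    (hB : BarF Φ T f J0 J V θ co ρ1 ρ2 ρ3 ρ4 d G rm h lo hi ω q₀ g0) {m : Mo'}
    {a p q : Φ.F} {Z : Set Φ.F} (hM : Mo (Pc Φ.F) (co m) a Z p q) (l0 mm ra : ℝ)
    {s0 s1 t0 w1 : ℝ} (h0 : 0 < s0) (h1 : s1 ≤ ρ4 m) (ht : t0 ∈ Icc (0 : ℝ) 1) (hw : w1 ≤ 1) :
    ∃ Wz : ℝ × ℝ → E3, ContinuousOn Wz (Icc s0 s1 ×ˢ Icc 0 w1) ∧
      InjOn Wz (Icc s0 s1 ×ˢ Icc 0 w1) ∧
      (∀ z ∈ Icc s0 s1 ×ˢ Icc 0 w1, Wz z ∈ Om ∧ ga Φ (co m) (f (Wz z)) = z.1 ∧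
        Φ.Psi (f (Wz z)) = gam (bc (F := Φ.F)) a Z p q (t0, z.2) ∧
        Φ.lev a (f (Wz z)) = t0 ∧
        gmf Φ l0 mm ra a Z (Φ.Psi (f (Wz z))) = max (z.2 / l0) (|t0 - mm| / ra)) ∧
      IsCompact (Wz '' (Icc s0 s1 ×ˢ Icc 0 w1)) ∧
      TrivF (ZMod 2) (Wz '' (Icc s0 s1 ×ˢ Icc 0 w1)) := by
  obtain ⟨pp, hPol⟩ := hB.pol hLa m
  exact chart hLa H hPol (bar_in hB m) hM l0 mm ra h0 h1 ht hw

end Crest.Agent.R096.Cht_244
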