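import Crest.Agent.R096.Ebr6_95

/-!
# Row 96, DOORS, NE1, leaf G1 of 778's board #12223 (helper280): the transversal chart of a wall

`exists_chart` : the strip `{s0 ≤ ga ≤ s1, lev a = t0, transversal coordinate in [0, w1]}` over the
patch of a moat: injective continuous image of a rectangle, compact, with trivial torsors.
-/

set_option autoImplicit false
set_option linter.unusedSectionVars false

open Set Topology Filter Metric Module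
open scoped Classical

namespace Crest.Agent.R096.Chw_280

open Crest.Agent.R096.Msh_715 Crest.Agent.R096.Coh_184 Crest.Agent.R096.Bsp_628
  Crest.Agent.R096.Brk1_582 Crest.Agent.R096.Brk2_582 Crest.Agent.R096.Brk3_582
  Crest.Agent.R096.Brk5_582 Crest.Agent.R096.Init_543 Crest.Agent.R096.Mbf_337
  Crest.Agent.R96.Push_899 Crest.Agent.R096.Ess1_95 Crest.Agent.R096.Ess4_95
  Crest.Agent.R096.Ess5_95 Crest.Agent.R096.Ess6_95 Crest.Agent.R096.Ess7_95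
  Crest.Agent.R096.Lab_184 Crest.Agent.R096.Seq_213 Crest.Agent.R096.Seq_213.GSt
  Crest.Agent.R096.Main_4 Crest.Agent.R096.Exa_560 Crest.Agent.R096.Agl4_543
  Crest.Agent.R096.Agl5_543 Crest.Agent.R096.Agl6_543 Crest.Agent.R096.Agl8_543
  Crest.Agent.R096.Ebr1_95 Crest.Agent.R096.Ebr2_95
  Crest.Agent.R096.Ebr3_95 Crest.Agent.R096.Ebr4_95 Crest.Agent.R096.Ebr5_95
  Crest.Agent.R096.Ebr6_95 Crest.Agent.R096.Bar_106
  Crest.Agent.R096.Bgf_4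

open Crest.Agent.R096.SkC1_961 (E3 Hom3 FoamD)
open Crest.Agent.R096.Sphg_316

variable {δ κ0 R c0 : ℝ} {La Om : Set E3} {Φ : FoamD δ κ0 R c0 La} {f g : E3 → E3}

/-- **the transversal chart**, from polar coordinates -/
theorem chart_of_pol (hLa : IsOpen La) (H : Hm f g Om La) {c a p q : Φ.F} {Z : Set Φ.F}
    (hM : Mo (Pc Φ.F) c a Z p q) {ρ : ℝ} {pl : ℝ × E3 → E3} (hP : Pol Φ c ρ pl)
    (hgc : ∀ y, ga Φ c y ≤ ρ → y ∈ La) {s0 s1 t0 w1 : ℝ} (hs0 : 0 < s0) (hs1 : s1 ≤ ρ)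
    (ht : t0 ∈ Icc (0 : ℝ) 1) (hw1 : w1 ≤ 1) :
    ∃ Wz : ℝ × ℝ → E3, ContinuousOn Wz (Icc s0 s1 ×ˢ Icc 0 w1) ∧
      InjOn Wz (Icc s0 s1 ×ˢ Icc 0 w1) ∧
      (∀ z ∈ Icc s0 s1 ×ˢ Icc 0 w1, Wz z ∈ Om ∧ ga Φ c (f (Wz z)) = z.1 ∧
        Φ.Psi (f (Wz z)) = gam (bc (F := Φ.F)) a Z p q (t0, z.2) ∧
        Φ.lev a (f (Wz z)) = t0 ∧
        ∀ l0 mm ra : ℝ, gmf Φ l0 mm ra a Z (Φ.Psi (f (Wz z))) =
          max (z.2 / l0) (|t0 - mm| / ra)) ∧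
      IsCompact (Wz '' (Icc s0 s1 ×ˢ Icc 0 w1)) ∧
      TrivF (ZMod 2) (Wz '' (Icc s0 s1 ×ˢ Icc 0 w1)) := by
  have FF := foam Φ.bf hLa
  set D : Set (ℝ × ℝ) := Icc s0 s1 ×ˢ Icc 0 w1 with hD
  have hr : ∀ z ∈ D, ((t0, z.2) : ℝ × ℝ) ∈ Rct := fun z hz =>
    ⟨ht, ⟨by linarith [hz.2.1], hz.2.2.trans hw1⟩⟩
  have hfr : ∀ z ∈ D, gam (bc (F := Φ.F)) a Z p q (t0, z.2) ∈ frontier c.1.set := fun z hz =>
    gam_fr hLa hM (hr z hz)
  have hsI : ∀ z ∈ D, z.1 ∈ Ioc 0 ρ := fun z hz => ⟨hs0.trans_le hz.1.1, hz.1.2.trans hs1⟩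
  set G : ℝ × ℝ → ℝ × E3 := fun z => (z.1, gam (bc (F := Φ.F)) a Z p q (t0, z.2)) with hG
  have hGm : ∀ z ∈ D, G z ∈ Ioc 0 ρ ×ˢ frontier c.1.set := fun z hz => ⟨hsI z hz, hfr z hz⟩
  have hGc : ContinuousOn G D := by
    refine continuousOn_fst.prodMk ?_
    refine (hM.continuousOn_gam FF).comp (Continuous.continuousOn (by fun_prop)) ?_
    intro z hz
    exact hr z hz
  have hGi : InjOn G D := by
    intro z hz z' hz' he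
    have h0 : ((z.1, gam (bc (F := Φ.F)) a Z p q (t0, z.2)) : ℝ × E3) =
        (z'.1, gam (bc (F := Φ.F)) a Z p q (t0, z'.2)) := he
    have h1 : z.1 = z'.1 := (Prod.mk.inj h0).1
    have h2 : ((t0, z.2) : ℝ × ℝ) = (t0, z'.2) :=
      hM.gam_injOn FF (hr z hz) (hr z' hz') (Prod.mk.inj h0).2
    have h3 : z.2 = z'.2 := (Prod.mk.inj h2).2
    exact Prod.ext h1 h3
  have hga : ∀ z ∈ D, ga Φ c (pl (G z)) = z.1 := fun z hz => hP.gau _ (hsI z hz) _ (hfr z hz)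
  have hps : ∀ z ∈ D, Φ.Psi (pl (G z)) = gam (bc (F := Φ.F)) a Z p q (t0, z.2) := fun z hz =>
    hP.psi _ (hsI z hz) _ (hfr z hz)
  have hLz : ∀ z ∈ D, pl (G z) ∈ La := fun z hz => hgc _ (by rw [hga z hz]; exact (hsI z hz).2)
  have hfg : ∀ z ∈ D, f (g (pl (G z))) = pl (G z) := fun z hz => H.fg _ (hLz z hz)
  have hpc : ContinuousOn (fun z => pl (G z)) D :=
    (hP.contOn (A := Ioc 0 ρ ×ˢ frontier c.1.set) (Subset.refl _)).comp hGc hGm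
  have hWc : ContinuousOn (fun z => g (pl (G z))) D := H.gc.comp hpc hLz
  have hWi : InjOn (fun z => g (pl (G z))) D := by
    intro z hz z' hz' he
    have h1 := H.injOn (hLz z hz) (hLz z' hz') he
    exact hGi hz hz' (hP.injOn (Subset.refl _) (hGm z hz) (hGm z' hz') h1)
  have hDc : IsCompact D := isCompact_Icc.prod isCompact_Icc
  have hDv : Convex ℝ D := (convex_Icc _ _).prod (convex_Icc _ _)
  refine ⟨fun z => g (pl (G z)), hWc, hWi, ?_, hDc.image_of_continuousOn hWc,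
    trivF_convex hDc hDv hWc hWi⟩
  intro z hz
  have h1 : Φ.Psi (f (g (pl (G z)))) = gam (bc (F := Φ.F)) a Z p q (t0, z.2) := by
    rw [hfg z hz]; exact hps z hz
  have h2 := hM.sc_gam FF (hr z hz)
  refine ⟨H.gm (hLz z hz), ?_, h1, ?_, ?_⟩
  · show ga Φ c (f (g (pl (G z)))) = z.1
    rw [hfg z hz]; exact hga z hz
  · show sb Φ (Φ.Psi (f (g (pl (G z))))) a = t0
    rw [h1]
    show sc (Pc Φ.F) bc (gam (bc (F := Φ.F)) a Z p q (t0, z.2)) a = t0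
    rw [h2, uu_a]
  · intro l0 mm ra
    show gmf Φ l0 mm ra a Z (Φ.Psi (f (g (pl (G z))))) = _
    rw [h1, gmf_gam hLa hM (hr z hz)]
    show max (|z.2| / l0) (|t0 - mm| / ra) = _
    rw [abs_of_nonneg hz.2.1]

/-- **G1: the transversal chart of a wall** -/
theorem exists_chart (hLa : IsOpen La) (H : Hm f g Om La) {c a p q : Φ.F} {Z : Set Φ.F}
    (hpt : (Φ.B c).lo = (Φ.B c).hi) {ρ : ℝ} (hρ0 : 0 < ρ) (hρ1 : ρ < 1) (hray : RayTo Φ c ρ)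
    (hM : Mo (Pc Φ.F) c a Z p q) {s0 s1 t0 w1 : ℝ} (hs0 : 0 < s0) (hs1 : s1 ≤ ρ)
    (ht : t0 ∈ Icc (0 : ℝ) 1) (hw1 : w1 ≤ 1) :
    ∃ Wz : ℝ × ℝ → E3, ContinuousOn Wz (Icc s0 s1 ×ˢ Icc 0 w1) ∧
      InjOn Wz (Icc s0 s1 ×ˢ Icc 0 w1) ∧
      (∀ z ∈ Icc s0 s1 ×ˢ Icc 0 w1, Wz z ∈ Om ∧ ga Φ c (f (Wz z)) = z.1 ∧
        Φ.Psi (f (Wz z)) = gam (bc (F := Φ.F)) a Z p q (t0, z.2) ∧
        Φ.lev a (f (Wz z)) = t0 ∧
        ∀ l0 mm ra : ℝ, gmf Φ l0 mm ra a Z (Φ.Psi (f (Wz z))) =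
          max (z.2 / l0) (|t0 - mm| / ra)) ∧
      IsCompact (Wz '' (Icc s0 s1 ×ˢ Icc 0 w1)) ∧
      TrivF (ZMod 2) (Wz '' (Icc s0 s1 ×ˢ Icc 0 w1)) := by
  obtain ⟨pl, hP⟩ := exists_pol hLa hpt hρ0 hρ1 hray
  have hb : Bod (Φ.B c).lo (Pc Φ.F c) := Pse_316.bod_brick Φ c hpt
  have hgf : ga Φ c = Ng (Φ.B c).lo (Pc Φ.F c) := funext (Etg_163.gg_eq Φ c)
  have hcL : c.1.set ⊆ La := Φ.bf.sub c.1 c.2
  refine chart_of_pol hLa H hM hP (fun y hy => ?_) hs0 hs1 ht hw1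
  exact hcL (hb.le_sub hρ1.le (show y ∈ {y | Ng _ _ y ≤ ρ} by rw [← hgf]; exact hy))

end Crest.Agent.R096.Chw_280
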