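import Crest.Agent.R096.Wy1_664

/-!
# Row 96, DOORS (helper31): G1 of 778 #12223, chart of a piece of a level surface of the level of a
moat in gauge and deviation.
-/

set_option autoImplicit false
set_option linter.unusedSectionVars false

open Set Topology Filter Metric Module
open scoped Classical

namespace Crest.Agent.R096.Chz_31

open Crest.Agent.R096.Msh_715 Crest.Agent.R096.Coh_184 Crest.Agent.R096.Bsp_628
  Crest.Agent.R096.Brk1_582 Crest.Agent.R096.Brk2_582 Crest.Agent.R096.Brk3_582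
  Crest.Agent.R096.Brk5_582 Crest.Agent.R096.Init_543 Crest.Agent.R096.Mbf_337
  Crest.Agent.R96.Push_899 Crest.Agent.R096.Ess1_95 Crest.Agent.R096.Ess4_95
  Crest.Agent.R096.Ess5_95 Crest.Agent.R096.Ess6_95 Crest.Agent.R096.Ess7_95
  Crest.Agent.R096.Lab_184 Crest.Agent.R096.Seq_213 Crest.Agent.R096.Seq_213.GSt
  Crest.Agent.R096.Main_4 Crest.Agent.R096.Exa_560 Crest.Agent.R096.Agl4_543
  Crest.Agent.R096.Agl5_543 Crest.Agent.R096.Agl6_543 Crest.Agent.R096.Agl8_543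
  Crest.Agent.R096.Ebr1_95 Crest.Agent.R096.Ebr2_95
  Crest.Agent.R096.Ebr3_95 Crest.Agent.R096.Ebr4_95 Crest.Agent.R096.Ebr5_95
  Crest.Agent.R096.Ebr6_95 Crest.Agent.R096.Bar_106
  Crest.Agent.R096.Bgf_4 Crest.Agent.R096.Dib_438 Crest.Agent.R096.Sphg_316

open Crest.Agent.R096.SkC1_961 (E3 Hom3 IsPush FoamD)
open Crest.Agent.R096.Ce_537 (PLEquiv IsBall)

/-- rectangles are acyclic -/
theorem trivF_rect {A : Type*} [AddCommGroup A] (s0 s1 w0 w1 : ℝ) :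
    TrivF A (Icc s0 s1 ×ˢ Icc w0 w1 : Set (ℝ × ℝ)) := by
  set K : Set (Fin 2 → ℝ) := Icc ![s0, w0] ![s1, w1] with hK
  have h1 : (fun v : Fin 2 → ℝ => (v 0, v 1)) '' K = Icc s0 s1 ×ˢ Icc w0 w1 := by
    ext ⟨x, y⟩
    constructor
    · rintro ⟨v, hv, he⟩
      have e1 : v 0 = x := congrArg Prod.fst he
      have e2 : v 1 = y := congrArg Prod.snd he
      rw [← e1, ← e2]
      have a0 := hv.1 0
      have a1 := hv.1 1
      have b0 := hv.2 0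
      have b1 := hv.2 1
      exact ⟨⟨a0, b0⟩, ⟨a1, b1⟩⟩
    · rintro ⟨hx, hy⟩
      refine ⟨![x, y], ⟨?_, ?_⟩, rfl⟩
      · intro i
        fin_cases i
        · exact hx.1
        · exact hy.1
      · intro i
        fin_cases i
        · exact hx.2
        · exact hy.2
  rw [← h1]
  refine trivF_convex_image isCompact_Icc (convex_Icc _ _) (Continuous.continuousOn (by fun_prop))
    ?_
  intro v _ v' _ he
  funext i
  fin_cases i
  · exact congrArg Prod.fst he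
  · exact congrArg Prod.snd he

variable {δ κ0 R c0 : ℝ} {La Om : Set E3} {Φ : FoamD δ κ0 R c0 La}
  {f g : E3 → E3}

/-- **chart** of the piece `{ga ∈ [s0, s1], Psi = gam (t0, w), w ∈ [w0, w1]}` -/
theorem exists_chart (hLa : IsOpen La) (H : Hm f g Om La) {c : Φ.F}
    (hpt : (Φ.B c).lo = (Φ.B c).hi) {ρ : ℝ} (hρ1 : ρ ≤ 1) {pl : ℝ × E3 → E3}
    (hPol : Pol Φ c ρ pl) {a p q : Φ.F} {Z : Set Φ.F} (hM : Mo (Pc Φ.F) c a Z p q)
    {l0 mm ra : ℝ} {s0 s1 t0 w0 w1 : ℝ} (hs0 : 0 < s0) (hs1 : s1 ≤ ρ) (ht0 : t0 ∈ Icc (0:ℝ) 1)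
    (hw0 : 0 ≤ w0) (hw1 : w1 ≤ 1) :
    ∃ Wz : ℝ × ℝ → E3, ContinuousOn Wz (Icc s0 s1 ×ˢ Icc w0 w1) ∧
      InjOn Wz (Icc s0 s1 ×ˢ Icc w0 w1) ∧
      (∀ z ∈ Icc s0 s1 ×ˢ Icc w0 w1, Wz z ∈ Om ∧ ga Φ c (f (Wz z)) = z.1 ∧
        Φ.Psi (f (Wz z)) = gam (bc (F := Φ.F)) a Z p q (t0, z.2) ∧ Φ.lev a (f (Wz z)) = t0 ∧
        gmf Φ l0 mm ra a Z (Φ.Psi (f (Wz z))) = max (z.2 / l0) (|t0 - mm| / ra)) ∧
      IsCompact (Wz '' (Icc s0 s1 ×ˢ Icc w0 w1)) ∧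
      TrivF (ZMod 2) (Wz '' (Icc s0 s1 ×ˢ Icc w0 w1)) := by
  have FF := foam Φ.bf hLa
  have hcL : c.1.set ⊆ La := Φ.bf.sub c.1 c.2
  have hgc : ∀ y, ga Φ c y ≤ ρ → y ∈ La := by
    intro y hy
    have hb : Bod (Φ.B c).lo (Pc Φ.F c) := Pse_316.bod_brick Φ c hpt
    have hgf : ga Φ c = Ng (Φ.B c).lo (Pc Φ.F c) := funext (Etg_163.gg_eq Φ c)
    exact hcL (hb.le_sub hρ1 (show y ∈ {y | Ng _ _ y ≤ ρ} by rw [← hgf]; exact hy))
  have hRct : ∀ w ∈ Icc w0 w1, ((t0, w) : ℝ × ℝ) ∈ Rct := fun w hw =>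
    ⟨ht0, ⟨by linarith [hw.1], by linarith [hw.2]⟩⟩
  have hfr : ∀ w ∈ Icc w0 w1, gam (bc (F := Φ.F)) a Z p q (t0, w) ∈ frontier c.1.set :=
    fun w hw => gam_fr hLa hM (hRct w hw)
  set K : Set (ℝ × ℝ) := Icc s0 s1 ×ˢ Icc w0 w1 with hK
  set Y : ℝ × ℝ → E3 := fun z => pl (z.1, gam (bc (F := Φ.F)) a Z p q (t0, z.2)) with hY
  have hga : ∀ z ∈ K, ga Φ c (Y z) = z.1 := fun z hz =>
    hPol.gau z.1 ⟨hs0.trans_le hz.1.1, hz.1.2.trans hs1⟩ _ (hfr _ hz.2)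
  have hps : ∀ z ∈ K, Φ.Psi (Y z) = gam (bc (F := Φ.F)) a Z p q (t0, z.2) := fun z hz =>
    hPol.psi z.1 ⟨hs0.trans_le hz.1.1, hz.1.2.trans hs1⟩ _ (hfr _ hz.2)
  have hYL : ∀ z ∈ K, Y z ∈ La := fun z hz => hgc _ (by rw [hga z hz]; exact hz.1.2.trans hs1)
  have hYc : ContinuousOn Y K := by
    refine hPol.cont.comp (ContinuousOn.prodMk continuous_fst.continuousOn ?_)
      (fun z hz => ⟨mem_univ _, hfr _ hz.2⟩)
    refine (hM.continuousOn_gam FF).comp (Continuous.continuousOn (by fun_prop)) ?_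
    intro z hz
    exact hRct _ hz.2
  have hWc : ContinuousOn (fun z => g (Y z)) K := H.gc.comp hYc hYL
  have hinj : InjOn (fun z => g (Y z)) K := by
    intro z hz z' hz' he
    have h1 : Y z = Y z' := H.injOn (hYL z hz) (hYL z' hz') he
    have h2 : z.1 = z'.1 := by rw [← hga z hz, ← hga z' hz', h1]
    have h3 : gam (bc (F := Φ.F)) a Z p q (t0, z.2) = gam (bc (F := Φ.F)) a Z p q (t0, z'.2) := by
      rw [← hps z hz, ← hps z' hz', h1]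
    have h4 := hM.gam_injOn FF (hRct _ hz.2) (hRct _ hz'.2) h3
    have h5 : z.2 = z'.2 := (Prod.ext_iff.1 h4).2
    exact Prod.ext h2 h5
  have hKc : IsCompact K := isCompact_Icc.prod isCompact_Icc
  refine ⟨fun z => g (Y z), hWc, hinj, ?_, hKc.image_of_continuousOn hWc,
    (trivF_rect s0 s1 w0 w1).of_image hKc hKc.isClosed hWc hinj⟩
  intro z hz
  have h1 : f (g (Y z)) = Y z := H.fg _ (hYL z hz)
  refine ⟨H.gm (hYL z hz), ?_, ?_, ?_, ?_⟩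
  · show ga Φ c (f (g (Y z))) = z.1
    rw [h1]; exact hga z hz
  · show Φ.Psi (f (g (Y z))) = _
    rw [h1]; exact hps z hz
  · show sc (Pc Φ.F) (bc (F := Φ.F)) (Φ.Psi (f (g (Y z)))) a = t0
    rw [h1, hps z hz, hM.sc_gam FF (hRct _ hz.2), uu_a]
  · show gmf Φ l0 mm ra a Z (Φ.Psi (f (g (Y z)))) = _
    rw [h1, hps z hz, gmf_gam hLa hM (hRct _ hz.2)]
    show max (|z.2| / l0) (|t0 - mm| / ra) = _
    rw [abs_of_nonneg (hw0.trans hz.2.1)]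

end Crest.Agent.R096.Chz_31
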