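import Crest.Agent.R096.Lm4_117
import Crest.Agent.R096.Bd8_416

/-!
# R096 (row 96), LMesh, part 5: CMB over a labelled mesh (helper117)
-/

set_option autoImplicit false
set_option linter.unusedSectionVars false

open Set

namespace Crest.Agent.R096.Lm_117

open Crest.Agent.R096.St_147 Crest.Agent.R096.Ac_117 Crest.Agent.R096.Seq_213
open Crest.Agent.R096.Bd_416 (Cmb)

variable {ι Φ W Q J C : Type} {M : MeshC ι Φ W} [PartialOrder Q] {dim : Q → ℕ}
variable {L : LM M Q dim} {fam : J → C} {s : GSt M fam}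

/-- the points of the sheet `j` -/
noncomputable def gP (s : GSt M fam) (j : J) : Finset W :=
  ((s.fin (fam j)).subset (fun w (hw : w ∈ {w | w ∈ s.P ∧ s.lab w = j}) =>
    ⟨hw.1, by rw [hw.2]⟩)).toFinset

lemma mem_gP {j : J} {w : W} : w ∈ gP s j ↔ w ∈ s.P ∧ s.lab w = j := by
  unfold gP; rw [Set.Finite.mem_toFinset]; rfl

lemma dim_le' (L : Sk W Q dim) {c d : Q} (h : c ≤ d) : dim c ≤ dim d := by
  rcases eq_or_lt_of_le h with rfl | h'
  · exact le_rfl
  · exact (L.dim_lt c d h').le

lemma eq_of_dim (L : Sk W Q dim) {c d : Q} (h : c ≤ d) (hd : dim d ≤ dim c) : c = d := by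
  rcases eq_or_lt_of_le h with rfl | h'
  · rfl
  · exact absurd (L.dim_lt c d h') (not_lt.2 hd)

lemma bv_vertex (L : Sk W Q dim) {c : Q} (h : dim c = 0) : bv L c = c :=
  eq_of_dim L (bv_le L c) (by rw [h]; exact Nat.zero_le _)

/-- the pieces of an edge are points -/
lemma pts_edge {h : LF L s} {c : Q} (hc : dim c = 1) (x : Pc L s c) {w w' : W}
    (hw : w ∈ pts h c x) (hw' : w' ∈ pts h c x) : w = w' := by
  obtain ⟨h1, e1⟩ := mem_pts.1 hw
  obtain ⟨h2, e2⟩ := mem_pts.1 hw'
  let g : Pc L s c → W := Quot.lift (fun a => a.1) (by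
    rintro a b ⟨F, hF, -, -⟩
    exfalso
    have := dim_le' L.toSk hF
    rw [L.cf_dim, hc] at this
    omega)
  have g1 : g (Quot.mk _ ⟨w, h1⟩) = w := rfl
  have g2 : g (Quot.mk _ ⟨w', h2⟩) = w' := rfl
  rw [← g1, ← g2, e1, e2]

/-- **CMB**: the discrete input of P4-MESH -/
noncomputable def cmb (h : LF L s) (Lam : J → Q → ZMod 2)
    (hLam : ∀ j c, L.toSk.XL (gP s j) (Lam j) c) : Cmb Q dim J C where
  I := fun c => Pc L s c
  fin := fun c => by
    have := h.pc c
    exact Fintype.ofFinite _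
  col := fun c x => pcol L s c x
  fam := fam
  up := fun hcd y => pup L s hcd.le y
  col_up := fun hcd y => pcol_pup L s hcd.le y
  up_up := fun h1 h2 y => pup_pup L s h1.le h2.le y
  vert := fun c hc => by
    refine ⟨fun x => ?_⟩
    obtain ⟨w, -⟩ := Quot.exists_rep x
    have h1 := dim_le' L.toSk w.2.2.2
    rw [L.ed_dim _ w.2.2.1, hc] at h1
    omega
  s := fun {c d} _ x => nl h d x (bv L.toSk c)
  coc := fun {p r q} h1 h2 x => by
    classical
    have := h.pc r
    let _ : Fintype (Pc L s r) := Fintype.ofFinite _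
    refine (nl_coc (h := h) h2.le x (Finset.univ.filter (fun y => pup L s h2.le y = x)) (fun y =>
      ⟨fun h => (Finset.mem_filter.1 h).2, fun h => Finset.mem_filter.2 ⟨Finset.mem_univ _, h⟩⟩)
      ((bv_le L.toSk p).trans h1.le) (bv_dim L.toSk p)).trans ?_
    congr 1
  o := fun c => bv L.toSk c
  o_dim := fun c _ => bv_dim L.toSk c
  o_lt := fun c hc => by
    refine lt_of_le_of_ne (bv_le L.toSk c) (fun h' => ?_)
    have := bv_dim L.toSk c
    rw [h'] at this
    omega
  s_o := fun c hc x => by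
    show nl h c x (bv L.toSk (bv L.toSk c)) = 0
    rw [bv_vertex _ (bv_dim _ c)]
    exact nl_bv h c x
  Lab := fun j c => Lam j (bv L.toSk c)
  lab_eq := fun {p q} hpq j => by
    classical
    have := h.pc q
    let _ : Fintype (Pc L s q) := Fintype.ofFinite _
    have hx2 := xl_sum (h := h) (c := q) (Y0 := gP s j)
      (Finset.univ.filter (fun x : Pc L s q => pcol L s q x = j)) (fun w hw => by
        rw [mem_gP]
        constructor
        · rintro ⟨h4, h5⟩
          exact ⟨Quot.mk _ ⟨w, h4, hw⟩, Finset.mem_filter.2 ⟨Finset.mem_univ _, h5⟩,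
            mem_pts.2 ⟨_, rfl⟩⟩
        · rintro ⟨x, hx, hwx⟩
          obtain ⟨h4, e4⟩ := mem_pts.1 hwx
          refine ⟨h4.1, ?_⟩
          have h5 := (Finset.mem_filter.1 hx).2
          rw [← e4] at h5
          exact h5)
    have h4 := (hLam j q).unique hx2 (fun _ _ => Iff.rfl) (v := bv L.toSk p) (v' := bv L.toSk q)
      ((bv_le L.toSk p).trans hpq.le) (bv_le L.toSk q) (bv_dim L.toSk p) (bv_dim L.toSk q)
    have h5 : ∑ x ∈ Finset.univ.filter (fun x : Pc L s q => pcol L s q x = j),
        nl h q x (bv L.toSk q) = 0 := Finset.sum_eq_zero fun y _ => nl_bv h q y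
    rw [h5, add_zero] at h4
    refine (z4 h4).trans ?_
    congr 1
  side := fun c x x' => nlw h c x' (rep h x)
  side_up := fun {p q} hpq y x' hne hfam => by
    classical
    have := h.pc p
    let _ : Fintype (Pc L s p) := Fintype.ofFinite _
    have hr := rep_mem h y
    have h1 : rep h y ∈ pts h q (pup L s hpq.le y) :=
      (mem_pts_pup hpq.le (pts_in hr).2).2 ⟨y, rfl, hr⟩
    have hfam' : fam (pcol L s q (pup L s hpq.le y)) = fam (pcol L s q x') := by
      rw [pcol_pup]; exact hfam
    have h2 := side_const (h := h) (Ne.symm hne) hfam' (rep_mem h (pup L s hpq.le y)) h1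
    have h4 := nlw_coc (h := h) hpq.le x' (Finset.univ.filter (fun y => pup L s hpq.le y = x'))
      (fun y => ⟨fun h => (Finset.mem_filter.1 h).2,
        fun h => Finset.mem_filter.2 ⟨Finset.mem_univ _, h⟩⟩) (pts_in hr).2
    refine (h2.trans h4).trans ?_
    congr 1
  s_edge := fun {v q} hvq hq hne x => by
    have hv0 : dim v = 0 := by
      have := L.dim_lt v q hvq
      omega
    have hbv : bv L.toSk v = v := bv_vertex _ hv0
    have hbq : bv L.toSk q < q := by
      refine lt_of_le_of_ne (bv_le L.toSk q) (fun h' => ?_)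
      have := bv_dim L.toSk q
      rw [h'] at this
      omega
    have h1 := nl_xl h q x q le_rfl hq
    have h2 : nW (pts h q x) (L.toSk.On1 q) = 1 := by
      obtain ⟨w, hw⟩ := pts_ne (h := h) x
      have hwq := (pts_in hw).2
      refine nW_one hw ⟨hwq.1, ?_⟩ (fun w' hw' _ => pts_edge hq x hw' hw)
      exact eq_of_dim L.toSk hwq.2 (by rw [hq, L.ed_dim _ hwq.1])
    rw [h2] at h1
    have h0 := nl_bv h q x
    show nl h q x (bv L.toSk v) = 1
    rw [hbv]
    rcases L.en_all q hq v hvq with e1 | e1 <;>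
      rcases L.en_all q hq _ hbq with e2 | e2
    · exact absurd (e1.trans e2.symm) hne
    · rw [e2] at h0
      rw [← e1, h0, add_zero] at h1
      exact h1
    · rw [e2] at h0
      rw [← e1, h0, zero_add] at h1
      exact h1
    · exact absurd (e1.trans e2.symm) hne

end Crest.Agent.R096.Lm_117
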