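import Crest.Agent.R096.Cin2_181
import Crest.Agent.R096.Lm5_117

/-!
# R096 (row 96), CORE-INST, part 3 (helper181): the range of the levels in a cell from 446's `Exa`; the
base of one exact core from the literal clauses of `MachBF`
-/

set_option autoImplicit false
set_option linter.unusedSectionVars false
set_option linter.style.longLine false

open Set Metric

namespace Crest.Agent.R096.Cin_181

open Crest.Agent.R096.Bsp_628 Crest.Agent.R096.Brk1_582 Crest.Agent.R096.Brk2_582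
open Crest.Agent.R096.Brk3_582 Crest.Agent.R096.Brk5_582 Crest.Agent.R096.Brk6_582
open Crest.Agent.R096.Ce_537 Crest.Agent.R096.Bd_416 Crest.Agent.R096.Xp_537
open Crest.Agent.R096.Msh_715 Crest.Agent.R096.Grd_714 Crest.Agent.R096.Bin_181
open Crest.Agent.R096.SkC1_961 (E3 FoamD th)
open Crest.Agent.R096.Mbf_337 (sb)
open Crest.Agent.R096.Ecm_446

/-! ### the range of the levels -/

section rng

variable {Q : Type} [PartialOrder Q] {dim : Q → ℕ} {J Fam : Type} {I : Type*}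
  (Cm : Cmb Q dim J Fam) (D : Set Q)

/-- every piece meets an edge; an edge has two ends -/
structure EdgeC : Prop where
  piece : ∀ q ∈ D, ∀ x : Cm.I q, ∃ e ≤ q, dim e = 1 ∧ ∃ y : Cm.I e, Cm.col e y = Cm.col q x
  two : ∀ e ∈ D, dim e = 1 → ∃ v < e, v ≠ Cm.o e ∧ dim v = 0

variable {Cm D} {fa : J → I} {lv : J → ℕ} {N : Q → I → ℕ} {L H : Q → I → ℕ}

/-- **the levels of the sheets in a cell are in the range of the cell** -/
theorem rng_of (h : Exa Cm D fa lv N L H) (hE : EdgeC Cm D) : ∀ q ∈ D, ∀ x : Cm.I q,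
    L q (fa (Cm.col q x)) ≤ lv (Cm.col q x) ∧ lv (Cm.col q x) < H q (fa (Cm.col q x)) := by
  classical
  intro q hq x
  obtain ⟨e, heq, he1, y, hy⟩ := hE.piece q hq x
  have heD : e ∈ D := h.mem_of_le hq heq
  obtain ⟨v, hv, hvo, hv0⟩ := hE.two e heD he1
  have ho : Cm.o e < e := Cm.o_lt e (by omega)
  have ho0 : dim (Cm.o e) = 0 := Cm.o_dim e (by omega)
  set j := Cm.col q x with hj
  have e1 : Cm.Lab j (Cm.o e) = Cm.Lab j e := by
    rw [Cm.lab_eq ho j, Finset.sum_eq_zero, add_zero]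
    intro x' _
    exact Cm.s_o e (by omega) x'
  have e2 : Cm.Lab j v = Cm.Lab j e + 1 := by
    rw [Cm.lab_eq hv j]
    congr 1
    rw [Finset.sum_eq_single y]
    · exact Cm.s_edge hv he1 hvo y
    · intro y' hy' hne
      exact absurd (h.one e heD y' y ((Finset.mem_filter.1 hy').2.trans hy.symm)) hne
    · intro hn
      exact absurd (by simp [hy]) hn
  have hvD : v ∈ D := h.dn e heD v hv
  have hoD : Cm.o e ∈ D := h.dn e heD _ ho
  have V1 := h.V v hvD hv0 j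
  have V2 := h.V _ hoD ho0 j
  have b1 := h.bd q hq v (hv.le.trans heq) hv0 (fa j)
  have b2 := h.bd q hq _ (ho.le.trans heq) ho0 (fa j)
  rw [e2] at V1
  rw [e1] at V2
  rcases z2 (Cm.Lab j e) with h0 | h0
  · rw [h0] at V1 V2
    have h1 : lv j < N v (fa j) := V1.1 (by simp)
    have h2 : ¬ lv j < N (Cm.o e) (fa j) := fun h' => by
      have := V2.2 h'
      exact absurd this (by decide)
    omega
  · rw [h0] at V1 V2
    have h1 : lv j < N (Cm.o e) (fa j) := V2.1 rfl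
    have h2 : ¬ lv j < N v (fa j) := fun h' => by
      have := V1.2 h'
      exact absurd this (by decide)
    omega

end rng

section lm

open Crest.Agent.R096.St_147 Crest.Agent.R096.Seq_213 Crest.Agent.R096.Seq_213.GSt
  Crest.Agent.R096.Lm_117

variable {ι Φ W Q : Type} [PartialOrder Q] {dim : Q → ℕ} {M : MeshC ι Φ W}
variable {J C : Type} {fam : J → C} {L : LM M Q dim} {s : GSt M fam}

/-- `EdgeC` for 117's combinatorics of a state -/
theorem edgeC_cmb (h : LF L s) (Lam : J → Q → ZMod 2) (hLam : ∀ j c, L.toSk.XL (gP s j) (Lam j) c)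
    (D : Set Q) : EdgeC (cmb h Lam hLam) D where
  piece := by
    intro q _ x
    obtain ⟨w, hw⟩ := pts_ne (h := h) x
    have h1 := pts_in hw
    have h2 : w ∈ L.toSk.In (L.ed w) := ⟨h1.2.1, le_rfl⟩
    obtain ⟨y, hy, -⟩ := (mem_pts_pup h1.2.2 h2).1 hw
    refine ⟨L.ed w, h1.2.2, L.ed_dim w h1.2.1, y, ?_⟩
    show pcol L s _ y = pcol L s _ x
    rw [← hy, pcol_pup]
  two := by
    intro e _ he
    have hlt : bv L.toSk e < e := by
      refine lt_of_le_of_ne (bv_le L.toSk e) fun h2 => ?_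
      have := bv_dim L.toSk e
      rw [h2] at this
      omega
    rcases L.en_all e he (bv L.toSk e) hlt with h1 | h1
    · refine ⟨L.en e true, L.en_lt e he true, fun h2 => ?_, L.en_dim e he true⟩
      have h3 : L.en e true = bv L.toSk e := h2
      exact L.en_ne e he (h1.symm.trans h3.symm)
    · refine ⟨L.en e false, L.en_lt e he false, fun h2 => ?_, L.en_dim e he false⟩
      have h3 : L.en e false = bv L.toSk e := h2
      exact L.en_ne e he (h3.trans h1)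

end lm

/-! ### the base of one exact core -/

section core

variable {δ κ0 R c0 : ℝ} {La Om : Set E3} {ι : Type} {Φ : FoamD δ κ0 R c0 La} {Tl : Tiling Om ι}
  {f : E3 → E3}
variable {κ1 κ2 : ℝ} {c : Φ.F} {i : ι} {A : E3 ≃ᵃ[ℝ] E3} {lam : ℝ} {z : E3} {M : ℕ}
variable {Q : Type} [PartialOrder Q] {dim : Q → ℕ} {ck : Q → Tl.Cell} {J Fam : Type}
  {Cm : Cmb Q dim J Fam} {m : Φ.F → ℕ} {fa : J → Φ.F} {lv : J → ℕ}

/-- **the base of one exact core**: `BoxG` of helper416 and `Inv` from `Exact`, `Grid`, `Exa`, `OrdN` -/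
theorem core_base (hLa : IsOpen La) (h : Mbf_337.Exact Φ Tl f κ1 κ2 c i A lam z)
    (hG : Grid Φ Tl i A lam z M) (hT : OnC Tl ck dim) (hne : ∀ c, (Pc Φ.F c).Nonempty)
    (hm : ∀ a, 0 < m a) {n : Φ.F → ℕ → ℝ} (hN : ∀ a, StrictMono (n a)) (hN0 : ∀ a, n a 0 = 0)
    (hNm : ∀ a, n a M = m a) {N : Φ.F → ℕ → ℕ} {κ : ℝ} (hκ : 0 < κ ∧ κ < 1)
    (hnN : ∀ a i, i ≤ M → |n a i - N a i| < κ / 2) (ce : Cel (Pc Φ.F) m)
    (hX : Exa Cm (Dk i ck) fa lv (fun v a => N a ⌊U Φ A lam z M (ck v).pt a⌋₊)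
      (fun q a => N a ⌊U Φ A lam z M (ck q).pt a⌋₊) (fun q a => N a ⌈U Φ A lam z M (ck q).pt a⌉₊))
    (hO : OrdN Cm lv) (hE : EdgeC Cm (Dk i ck))
    (hinj : ∀ j j', fa j = fa j' → lv j = lv j' → j = j') :
    ∃ gx : Q → Gx (Pc Φ.F) (fun _ => M),
      MeshG (fun q => (ck q).set) (Dk i ck) dim (thC hLa h (m' := fun _ => M) fun _ => hG.1) gx ∧
      (∀ q ∈ Dk i ck, ∀ a, (gx q).lo a = ⌊U Φ A lam z M (ck q).pt a⌋₊) ∧
      (∀ q ∈ Dk i ck, ∀ a, (gx q).hi a = ⌈U Φ A lam z M (ck q).pt a⌉₊) ∧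
      (∀ q ∈ Dk i ck, ∀ x : Cm.I q, N (fa (Cm.col q x)) ((gx q).lo (fa (Cm.col q x))) ≤
        lv (Cm.col q x) ∧ lv (Cm.col q x) < N (fa (Cm.col q x)) ((gx q).hi (fa (Cm.col q x)))) ∧
      Be_416.BoxG Cm (fun q => (ck q).set) (Dk i ck) (Pc Φ.F) (bc (F := Φ.F)) m κ fa lv
        ((thC hLa h (m' := fun _ => M) fun _ => hG.1).trans
          (rcR hN hN0 hNm (foamΦ hLa Φ) (quadsΦ Φ) (fun _ => hG.1) hm c))
        (fun q a => n a ((gx q).lo a)) (fun q a => n a ((gx q).hi a))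
        (fun q a => N a ((gx q).lo a)) (fun q a => N a ((gx q).hi a)) ∧
      Inv Cm (fun q => (ck q).set) (Dk i ck)
        (ekS (grid (foamΦ hLa Φ) (quadsΦ Φ) hne hm) (bc (F := Φ.F)) κ ce fa lv
          ((thC hLa h (m' := fun _ => M) fun _ => hG.1).trans
            (rcR hN hN0 hNm (foamΦ hLa Φ) (quadsΦ Φ) (fun _ => hG.1) hm c)))
        (fun q x => (ck q).set ∩ (ekS (grid (foamΦ hLa Φ) (quadsΦ Φ) hne hm) (bc (F := Φ.F)) κ ce fa
          lv ((thC hLa h (m' := fun _ => M) fun _ => hG.1).trans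
            (rcR hN hN0 hNm (foamΦ hLa Φ) (quadsΦ Φ) (fun _ => hG.1) hm c))).B (Cm.col q x))
        (fun q x z' => sg (Cm.Lab (Cm.col q x) q) *
          ((ekS (grid (foamΦ hLa Φ) (quadsΦ Φ) hne hm) (bc (F := Φ.F)) κ ce fa lv
            ((thC hLa h (m' := fun _ => M) fun _ => hG.1).trans
              (rcR hN hN0 hNm (foamΦ hLa Φ) (quadsΦ Φ) (fun _ => hG.1) hm c))).G
                (Cm.col q x) z' - 1/2)) := by
  obtain ⟨gx, G, hlo, hhi⟩ := exists_meshG hLa h hG hT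
  have hr0 := rng_of hX hE
  have rng : ∀ q ∈ Dk i ck, ∀ x : Cm.I q, N (fa (Cm.col q x)) ((gx q).lo (fa (Cm.col q x))) ≤
      lv (Cm.col q x) ∧ lv (Cm.col q x) < N (fa (Cm.col q x)) ((gx q).hi (fa (Cm.col q x))) := by
    intro q hq x
    rw [hlo q hq, hhi q hq]
    exact hr0 q hq x
  refine ⟨gx, G, hlo, hhi, rng, ?_, ?_⟩
  · exact G.boxG hN hN0 hNm (foamΦ hLa Φ) (quadsΦ Φ) (fun _ => hG.1) hm N hnN rng hX.one hinj
  · refine inv_base_mesh_R hN hN0 hNm (foamΦ hLa Φ) (quadsΦ Φ) hne (fun _ => hG.1) hm hκ ce fa lv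
      (thC hLa h (m' := fun _ => M) fun _ => hG.1) N hnN hinj hX.dn gx (fun hp hq => G.mono hp hq)
      G.K_eq (fun q hq => ?_) G.h0 hX.one (fun q hq j h1 h2 => ?_) hX.hfam
      (fun q hq j hj h1 => ?_) (fun q hq j hj h1 => ?_) (hX.sd hO)
    · rw [(ck q).set_eq]; exact Tl.isClosed_cc _
    · rw [hlo q hq] at h1
      rw [hhi q hq] at h2
      exact hX.ex q hq j h1 h2
    · rw [hlo q hq] at h1
      exact hX.lab1 q hq j hj h1
    · rw [hhi q hq] at h1
      exact hX.lab0' q hq j hj h1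

end core

end Crest.Agent.R096.Cin_181
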