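import Mathlib
import Crest.Agent.R096.Only1_847
import Crest.Agent.R096.Bar2_106

/-! Row 96 (helper847), DOORS (C2 of board 2): the geometric heart of the clause `dich` of 106's
`DoorInv`: at the boundary of the active tiles of a quad the other family of the quad is near 0 or 1,
so the point is near the axis of a moat. -/

set_option autoImplicit false
set_option linter.unusedSectionVars false
set_option linter.unusedVariables false
set_option linter.style.longLine false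

open Set Relation Module

namespace Crest.Agent.R096.Only_847

open Crest.Agent.R096.Brk1_582 Crest.Agent.R096.Brk2_582 Crest.Agent.R096.Brk3_582
open Crest.Agent.R096.Brk5_582 Crest.Agent.R096.Bsp_628
open Crest.Agent.R096.St_147 Crest.Agent.R096.Seq_213 Crest.Agent.R096.Seq_213.GSt
open Crest.Agent.R096.Lm_117 Crest.Agent.R096.Ac_117 Crest.Agent.R096.Msh_715
open Crest.Agent.R096.Agl5_543 Crest.Agent.R096.Ori_543 Crest.Agent.R096.Coh_184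
open Crest.Agent.R096.Init_543 Crest.Agent.R096.Qdl_662
open Crest.Agent.R096.SkC1_961 (E3 Hom3 FoamD Cfg th)
open Crest.Agent.R096.Mbf_337 (KJ sb)
open Crest.Agent.R096.Leaf_965 Crest.Agent.R096.Bar_106

variable {δ κ0 R c0 : ℝ} {La Om : Set E3} {ι : Type}
variable {Φ : FoamD δ κ0 R c0 La} {T : Tiling Om ι} {J0 : Φ.F → Set ι}
  {f g : E3 → E3} {ct' : Φ.F → ι} {r₀ : Φ.F → ℝ} {ε s₁ s' : ℝ}

/-- **all levels on an active tile** -/
theorem act_all (hLa : IsOpen La) (hR : InitR Φ T f g J0 ct' r₀)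
    (hM : Mesh0 T (Pc Φ.F) (bc (F := Φ.F)) (RF Φ r₀) f (KorJ Φ J0) ε) (hε : ε < s₁) (hε1 : ε < 1)
    {k : QK (Pc Φ.F)} {i : ι}
    (hi : i ∈ Act0 T (Pc Φ.F) (bc (F := Φ.F)) (RF Φ r₀) f (KorJ Φ J0) s₁ k) {x : E3}
    (hx : x ∈ P (T.H i)) :
    (∀ a ∈ k.B, Φ.lev a (f x) ∈ Ioo (0:ℝ) 1) ∧ (∀ e ∈ k.Z, Φ.lev e (f x) = 0) ∧
      ∀ e, e ∉ k.B → e ∉ k.Z → Φ.lev e (f x) = 1 := by
  have F := Ecm_446.foamΦ hLa Φ
  have hK : i ∉ KorJ Φ J0 := hi.1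
  have hva : ∀ a, va (Pc Φ.F) (bc (F := Φ.F)) (RF Φ r₀) f a x = Φ.lev a (f x) :=
    At_241.va_lev hLa hR hK hx
  obtain ⟨q1, q2⟩ := At_241.act_vals hR.hm (foam4 Φ hLa) (retF Φ hLa hR.pos hR.le_one) hM hε hε1
    hi hx
  refine ⟨fun a ha => by rw [← hva]; exact q1 a ha, fun e he => by rw [← hva]; exact q2 e he, ?_⟩
  intro b hb hbZ
  obtain ⟨a, ha⟩ : k.B.Nonempty := by
    rw [← ncard_pos (Set.finite_of_ncard_ne_zero (by rw [k.cB]; norm_num)), k.cB]; norm_num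
  obtain ⟨a', haa, ha', hB⟩ := k.exists_other ha
  have haZ : a ∉ k.Z := fun h => disjoint_left.1 k.dis ha h
  have haZ' : a' ∉ k.Z := fun h => disjoint_left.1 k.dis ha' h
  obtain ⟨e, e', hee, he, he'⟩ := hM.wall _ hK x hx
  obtain ⟨-, -, r3⟩ := quad_at F haa k.cZ haZ haZ' he ⟨e', hee.symm, he'⟩
    (show va (Pc Φ.F) (bc (F := Φ.F)) (RF Φ r₀) f a x ∈ Ioo (0 : ℝ) 1 from q1 a ha)
    (show va (Pc Φ.F) (bc (F := Φ.F)) (RF Φ r₀) f a' x ∈ Ioo (0 : ℝ) 1 from q1 a' ha')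
    (fun e he => by
      show va (Pc Φ.F) (bc (F := Φ.F)) (RF Φ r₀) f e x < 1
      rw [q2 e he]; exact one_pos)
  rw [← hva]
  exact r3 b (fun h => hb (h ▸ ha)) (fun h => hb (h ▸ ha')) hbZ

/-- a family at level 0 somewhere on an active tile is one of the two cores of the quad -/
theorem act_Z (hLa : IsOpen La) (hR : InitR Φ T f g J0 ct' r₀)
    (hM : Mesh0 T (Pc Φ.F) (bc (F := Φ.F)) (RF Φ r₀) f (KorJ Φ J0) ε) (hε : ε < s₁) (hε1 : ε < 1)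
    {k : QK (Pc Φ.F)} {i : ι}
    (hi : i ∈ Act0 T (Pc Φ.F) (bc (F := Φ.F)) (RF Φ r₀) f (KorJ Φ J0) s₁ k) {x : E3}
    (hx : x ∈ P (T.H i)) {c : Φ.F} (hc : Φ.lev c (f x) = 0) : c ∈ k.Z := by
  obtain ⟨h1, -, h3⟩ := act_all hLa hR hM hε hε1 hi hx
  by_contra hcZ
  by_cases hcB : c ∈ k.B
  · have := (h1 c hcB).1
    rw [hc] at this
    exact lt_irrefl _ this
  · have := h3 c hcB hcZ
    rw [hc] at this
    exact zero_ne_one this

/-- **THE HEART OF `dich`**: `q` on an active and on a non-active tile; a point of the family `a` of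
the quad has its level in the middle somewhere on one of the two tiles. Then the other family is
near 0 or 1 and `q` is near the axis of a moat `(a, Z)`. -/
theorem dich_moat (hLa : IsOpen La) (hR : InitR Φ T f g J0 ct' r₀)
    (hM : Mesh0 T (Pc Φ.F) (bc (F := Φ.F)) (RF Φ r₀) f (KorJ Φ J0) ε) (hε : ε < s₁) (hε1 : ε < 1)
    (hs1 : 0 ≤ s₁) {k : QK (Pc Φ.F)} {i i' : ι} {q : E3}
    (hi : i ∈ Act0 T (Pc Φ.F) (bc (F := Φ.F)) (RF Φ r₀) f (KorJ Φ J0) s₁ k)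
    (hi' : i' ∉ Act0 T (Pc Φ.F) (bc (F := Φ.F)) (RF Φ r₀) f (KorJ Φ J0) s₁ k)
    (hK' : i' ∉ KorJ Φ J0) (hq : q ∈ P (T.H i)) (hq' : q ∈ P (T.H i')) {a : Φ.F} (ha : a ∈ k.B)
    (hx : ∃ x, (x ∈ P (T.H i) ∨ x ∈ P (T.H i')) ∧ Φ.lev a (f x) ∈ Icc s' (1 - s'))
    (hs' : s₁ + ε ≤ s') :
    Φ.lev a (f q) ∈ Icc (s' - ε) (1 - s' + ε) ∧ ∃ Z : Set Φ.F, a ∉ Z ∧ k.Z ⊆ Z ∧
      (Z.ncard = 2 ∨ Z.ncard = 3) ∧ (fc (Pc Φ.F) (insert a Z)).Nonempty ∧
      ∀ e, dv a Z (fun e => Φ.lev e (f q)) e ≤ s₁ := by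
  have hiK : i ∉ KorJ Φ J0 := hi.1
  obtain ⟨h1, h2, h3⟩ := act_all hLa hR hM hε hε1 hi hq
  have hva : ∀ a, va (Pc Φ.F) (bc (F := Φ.F)) (RF Φ r₀) f a q = Φ.lev a (f q) :=
    At_241.va_lev hLa hR hiK hq
  have hqa : Φ.lev a (f q) ∈ Icc (s' - ε) (1 - s' + ε) := by
    obtain ⟨x, hx | hx, hxa⟩ := hx
    · have h4 := abs_le.1 (hM.osc i hiK q hq x hx a)
      rw [At_241.va_lev hLa hR hiK hx, hva] at h4
      exact ⟨by linarith [h4.1, h4.2, hxa.1, hxa.2], by linarith [h4.1, h4.2, hxa.1, hxa.2]⟩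
    · have h4 := abs_le.1 (hM.osc i' hK' q hq' x hx a)
      rw [At_241.va_lev hLa hR hK' hx, hva] at h4
      exact ⟨by linarith [h4.1, h4.2, hxa.1, hxa.2], by linarith [h4.1, h4.2, hxa.1, hxa.2]⟩
  refine ⟨hqa, ?_⟩
  obtain ⟨b, hab, hb, hB⟩ := k.exists_other ha
  have haZ : a ∉ k.Z := fun h => disjoint_left.1 k.dis ha h
  have hbZ : b ∉ k.Z := fun h => disjoint_left.1 k.dis hb h
  have hne : (fc (Pc Φ.F) (insert a (insert b k.Z))).Nonempty := by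
    have := k.ne
    rw [hB, insert_union, singleton_union] at this
    exact this
  have hbq : Φ.lev b (f q) ∉ Icc s₁ (1 - s₁) := by
    intro hbI
    refine hi' ⟨hK', q, hq', fun e he => ?_, fun e he => by rw [hva]; exact h2 e he⟩
    rw [hva]
    rw [hB] at he
    rcases he with rfl | he
    · exact ⟨by linarith [hqa.1], by linarith [hqa.2]⟩
    · rw [mem_singleton_iff.1 he]; exact hbI
  have hoth : ∀ e, e ≠ a → e ≠ b → e ∉ k.Z → Φ.lev e (f q) = 1 := fun e he he' heZ => by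
    refine h3 e (fun h => ?_) heZ
    rw [hB] at h
    rcases h with h | h
    · exact he h
    · exact he' (mem_singleton_iff.1 h)
  by_cases hlo : Φ.lev b (f q) < s₁
  · refine ⟨insert b k.Z, ?_, subset_insert _ _, Or.inr ?_, hne, fun e => ?_⟩
    · rintro (h | h)
      · exact hab h
      · exact haZ h
    · rw [ncard_insert_of_notMem hbZ (Set.finite_of_ncard_ne_zero (by rw [k.cZ]; norm_num)), k.cZ]
    · by_cases hea : e = a
      · rw [hea, dv_self]; exact hs1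
      by_cases heZ : e ∈ insert b k.Z
      · rw [dv_in hea heZ]
        rcases heZ with rfl | heZ
        · exact hlo.le
        · show Φ.lev e (f q) ≤ s₁
          rw [h2 e heZ]; exact hs1
      · rw [dv_out hea heZ]
        show 1 - Φ.lev e (f q) ≤ s₁
        rw [hoth e hea (fun h => heZ (Or.inl h)) (fun h => heZ (Or.inr h)), sub_self]
        exact hs1
  · have hhi : 1 - s₁ < Φ.lev b (f q) := by
      by_contra hno
      exact hbq ⟨not_lt.1 hlo, not_lt.1 hno⟩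
    refine ⟨k.Z, haZ, subset_rfl, Or.inl k.cZ, ?_, fun e => ?_⟩
    · obtain ⟨y, hy⟩ := hne
      refine ⟨y, ?_⟩
      rw [mem_fc] at hy ⊢
      intro e he
      refine hy e ?_
      rcases he with rfl | he
      · exact Or.inl rfl
      · exact Or.inr (Or.inr he)
    · by_cases hea : e = a
      · rw [hea, dv_self]; exact hs1
      by_cases heZ : e ∈ k.Z
      · rw [dv_in hea heZ]
        show Φ.lev e (f q) ≤ s₁
        rw [h2 e heZ]; exact hs1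
      · rw [dv_out hea heZ]
        show 1 - Φ.lev e (f q) ≤ s₁
        by_cases heb : e = b
        · rw [heb]; linarith
        · rw [hoth e hea heb heZ, sub_self]
          exact hs1

/-! ### on the mesh with layers -/

section mesh

open Crest.Agent.R096.Cp_298 Crest.Agent.R096.Gm_298 Crest.Agent.R096.Gl_422
open Crest.Agent.R096.SkB_662 Crest.Agent.R096.Cpo_642 Crest.Agent.R096.Frn_337

variable {X : Set Φ.F} {ι3 : Type} {T3 : Tiling Om ι3} {KK : Ti X → Set E3} {til : ι3 → ι}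
  {hsub : ∀ p, P (T3.H p) ⊆ P (T.H (til p))} {hLa : IsOpen La}
  {hR : InitR Φ T f g J0 ct' r₀}
  {hM : Mesh0 T (Pc Φ.F) (bc (F := Φ.F)) (RF Φ r₀) f (KorJ Φ J0) ε} {hε : ε < s₁} {hε1 : ε < 1}
  [Nonempty T3.Cell] {hH : ∀ k, CoreH T3 (KK k)}
  {hdis : ∀ k k', k ≠ k' → Disjoint (KK k) (KK k')}
  {L : Φ.F → Finset ℝ} {s₀ : GSt (mK fr3 hH hdis) (fun j : JJ Φ L => j.1)}

/-- a point not on a giant: inside `Act k`, or no face inner, or an active and a non-active cell -/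
theorem dich_cells {k : QK (Pc Φ.F)} {w : E3} (hon : ∃ F, w ∈ (mK fr3 hH hdis).On F)
    (hin : ∀ F, w ∈ (mK fr3 hH hdis).On F → ∀ q ∈ (mK fr3 hH hdis).side F,
      ∃ p, q = Sum.inl p ∧ til p ∉ KorJ Φ J0) :
    Int (mK fr3 hH hdis) ((qdT til hsub KK hLa hR hM hε hε1).Act k) w ∨
    (∀ F, w ∈ (mK fr3 hH hdis).On F →
      ¬ Inner (mK fr3 hH hdis) ((qdT til hsub KK hLa hR hM hε hε1).Act k) F) ∨
    ∃ p p', w ∈ P (T3.H p) ∧ w ∈ P (T3.H p') ∧ (∀ k', ¬ P (T3.H p) ⊆ KK k') ∧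
      (∀ k', ¬ P (T3.H p') ⊆ KK k') ∧
      til p ∈ Act0 T (Pc Φ.F) (bc (F := Φ.F)) (RF Φ r₀) f (KorJ Φ J0) s₁ k ∧
      til p' ∉ Act0 T (Pc Φ.F) (bc (F := Φ.F)) (RF Φ r₀) f (KorJ Φ J0) s₁ k ∧
      til p' ∉ KorJ Φ J0 := by
  by_cases hI : Int (mK fr3 hH hdis) ((qdT til hsub KK hLa hR hM hε hε1).Act k) w
  · exact Or.inl hI
  by_cases hN : ∀ F, w ∈ (mK fr3 hH hdis).On F →
      ¬ Inner (mK fr3 hH hdis) ((qdT til hsub KK hLa hR hM hε hε1).Act k) F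
  · exact Or.inr (Or.inl hN)
  refine Or.inr (Or.inr ?_)
  push Not at hN
  obtain ⟨F, hF, hFi⟩ := hN
  have hI' : ∃ F', w ∈ (mK fr3 hH hdis).On F' ∧
      ¬ Inner (mK fr3 hH hdis) ((qdT til hsub KK hLa hR hM hε hε1).Act k) F' := by
    by_contra hno
    push Not at hno
    exact hI ⟨hon, hno⟩
  obtain ⟨F', hF', hFi'⟩ := hI'
  unfold Seq_213.Inner at hFi'
  push Not at hFi'
  obtain ⟨q', hq', hqA'⟩ := hFi'
  obtain ⟨q, hq⟩ : ∃ q, q ∈ (mK fr3 hH hdis).side F := by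
    induction (mK fr3 hH hdis).side F using Sym2.ind with
    | _ x y => exact ⟨x, Sym2.mem_mk_left _ _⟩
  obtain ⟨p, hp, rfl⟩ := hFi q hq
  obtain ⟨p', rfl, hK'⟩ := hin F' hF' q' hq'
  have hout' : ∀ k', ¬ P (T3.H p') ⊆ KK k' := by
    have h1 : Sum.inl p' ∈ ((meshC T3 fr3).side F'.1).map (piK T3 KK) := hq'
    rw [mem_map_iff] at h1
    obtain ⟨p'', -, h2⟩ := h1
    obtain ⟨rfl, h4⟩ := piK_inl.1 h2
    exact h4
  have hw : w ∈ P (T3.H p) :=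
    (E1r_914.mem_side_K hp.2 F).1 hq (F.1.bd_sub (F.1.on_sub_bd hF))
  have hw' : w ∈ P (T3.H p') :=
    (E1r_914.mem_side_K hout' F').1 hq' (F'.1.bd_sub (F'.1.on_sub_bd hF'))
  exact ⟨p, p', hw, hw', hp.2, hout', hp.1, fun h => hqA' (inl_act.2 ⟨h, hout'⟩), hK'⟩

/-- **`dich` UP TO THE MOATS**: `q` = base point of `w` (a common point of the tiles of `T` of all
cells at `w`), `c` = the tiny core (`f q` in the brick `c`) -/
theorem dich_mesh (hs1 : 0 ≤ s₁) (hs' : s₁ + ε ≤ s')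
    (posB : ∀ w ∈ s₀.P, ∀ i3, (∀ k', ¬ P (T3.H i3) ⊆ KK k') → w ∈ P (T3.H i3) →
      til i3 ∉ KorJ Φ J0 → ∃ x ∈ P (T.H (til i3)), Φ.lev (s₀.lab w).1 (f x) ∈ Icc s' (1 - s'))
    {k : QK (Pc Φ.F)} {w q : E3} {c : Φ.F} (hw : w ∈ s₀.P)
    (hk : (qdT til hsub KK hLa hR hM hε hε1).In k (s₀.lab w).1)
    (hon : ∃ F, w ∈ (mK fr3 hH hdis).On F)
    (hin : ∀ F, w ∈ (mK fr3 hH hdis).On F → ∀ q ∈ (mK fr3 hH hdis).side F,
      ∃ p, q = Sum.inl p ∧ til p ∉ KorJ Φ J0)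
    (hq : ∀ p, w ∈ P (T3.H p) → (∀ k', ¬ P (T3.H p) ⊆ KK k') → q ∈ P (T.H (til p)))
    (hc : Φ.lev c (f q) = 0) :
    Int (mK fr3 hH hdis) ((qdT til hsub KK hLa hR hM hε hε1).Act k) w ∨
    (∀ F, w ∈ (mK fr3 hH hdis).On F →
      ¬ Inner (mK fr3 hH hdis) ((qdT til hsub KK hLa hR hM hε hε1).Act k) F) ∨
    (Φ.lev (s₀.lab w).1 (f q) ∈ Icc (s' - ε) (1 - s' + ε) ∧ ∃ Z : Set Φ.F, c ∈ Z ∧
      (s₀.lab w).1 ∉ Z ∧ (Z.ncard = 2 ∨ Z.ncard = 3) ∧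
      (fc (Pc Φ.F) (insert (s₀.lab w).1 Z)).Nonempty ∧
      (∀ e, dv (s₀.lab w).1 Z (fun e => Φ.lev e (f q)) e ≤ s₁) ∧
      ∃ p m, Mo (Pc Φ.F) c (s₀.lab w).1 Z p m) := by
  rcases dich_cells hon hin with h | h | ⟨p, p', h1, h2, h3, h4, h5, h6, h7⟩
  · exact Or.inl h
  · exact Or.inr (Or.inl h)
  · refine Or.inr (Or.inr ?_)
    have ha : (s₀.lab w).1 ∈ k.B := (qin k _).1 hk
    obtain ⟨x, hx, hxa⟩ := posB w hw p h3 h1 h5.1
    obtain ⟨r1, Z, z1, z2, z3, z4, z5⟩ := dich_moat hLa hR hM hε hε1 hs1 h5 h6 h7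
      (hq p h1 h3) (hq p' h2 h4) ha ⟨x, Or.inl hx, hxa⟩ hs'
    have hcZ : c ∈ k.Z := act_Z hLa hR hM hε hε1 h5 (hq p h1 h3) hc
    exact ⟨r1, Z, z2 hcZ, z1, z3, z4, z5,
      exists_mo Φ.bf hLa (by simp) (z2 hcZ) z1 z3 z4⟩

end mesh

end Crest.Agent.R096.Only_847
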