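import Mathlib
import Crest.Agent.R096.Dch1_847
import Crest.Agent.R096.Bar4_106
import Crest.Agent.R096.Civ1_662
import Crest.Agent.R096.Dfo1_539

/-! Row 96 (helper847), DOORS: 662's `Dich` for the state after CUT.

* `dich_of`  : from the window `[α, 1 - α]` of the levels near the tiny cores and the sides of the
  barriers at the points near the axes;
* `dich_cut` : the same over the state `s₂` before CUT: a new point is next to an enclosed barrier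
  point, which is not in the end walls (`ne`) and not near the axis (`far`), so only the old points
  have to be on the inner side of the barrier (`side`). -/

set_option autoImplicit false
set_option linter.unusedSectionVars false
set_option linter.unusedVariables false
set_option linter.style.longLine false

open Set Relation Module

namespace Crest.Agent.R096.Dch_847

open Crest.Agent.R096.Brk1_582 Crest.Agent.R096.Brk2_582 Crest.Agent.R096.Brk3_582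
open Crest.Agent.R096.Brk5_582 Crest.Agent.R096.Bsp_628
open Crest.Agent.R096.St_147 Crest.Agent.R096.Seq_213 Crest.Agent.R096.Seq_213.GSt
open Crest.Agent.R096.Lm_117 Crest.Agent.R096.Ac_117 Crest.Agent.R096.Msh_715
open Crest.Agent.R096.Agl5_543 Crest.Agent.R096.Ori_543 Crest.Agent.R096.Coh_184
open Crest.Agent.R096.Init_543 Crest.Agent.R096.Qdl_662
open Crest.Agent.R096.SkC1_961 (E3 Hom3 FoamD Cfg th)
open Crest.Agent.R096.Mbf_337 (KJ sb)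
open Crest.Agent.R096.Leaf_965 Crest.Agent.R096.Bar_106
open Crest.Agent.R096.Cp_298 Crest.Agent.R096.Gm_298 Crest.Agent.R096.Gl_422
open Crest.Agent.R096.SkB_662 Crest.Agent.R096.Cpo_642 Crest.Agent.R096.Frn_337
open Crest.Agent.R096.Only_847 Crest.Agent.R096.Civ_662
open Crest.Agent.R096.Hdr_334 (side_tile side_core brick_disj)

variable {δ κ0 R c0 : ℝ} {La Om : Set E3} {ι ι3 : Type} {Φ : FoamD δ κ0 R c0 La}
  {T : Tiling Om ι} {T3 : Tiling Om ι3} {f g : E3 → E3} {X : Set Φ.F} {J0 : Φ.F → Set ι}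
  {ct' : Φ.F → ι} {r₀ : Φ.F → ℝ} {KK : Ti X → Set E3} {til : ι3 → ι}
  {ε s₁ : ℝ} [Nonempty T3.Cell]
  {hH : ∀ k, CoreH T3 (KK k)} {hdis : ∀ k k', k ≠ k' → Disjoint (KK k) (KK k')}
  {hsub : ∀ p, P (T3.H p) ⊆ P (T.H (til p))} {hLa : IsOpen La}
  {hR : InitR Φ T f g J0 ct' r₀}
  {hM : Mesh0 T (Pc Φ.F) (bc (F := Φ.F)) (RF Φ r₀) f (KorJ Φ J0) ε} {hε : ε < s₁} {hε1 : ε < 1}
  {L : Φ.F → Finset ℝ} {s₃ : GSt (mK fr3 hH hdis) (fun j : JJ Φ L => j.1)}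

/-- a cell outside the remaining cores -/
abbrev Oc (T3 : Tiling Om ι3) (KK : Ti X → Set E3) (p : ι3) : Prop :=
  ∀ k, ¬ P (T3.H p) ⊆ KK k

/-- the moat with the axis `Z` at a tiny core -/
theorem exists_moZ (hLa : IsOpen La) {c : Ti X} {a : Φ.F} {Z : Set Φ.F} (hc : c.1 ∈ Z)
    (ha : a ∉ Z) (hZ : Z.ncard = 2 ∨ Z.ncard = 3) (hne : (fc (Pc Φ.F) (insert a Z)).Nonempty) :
    ∃ m : BM Φ X, m.co = c.1 ∧ m.am = a ∧ m.Zm = Z :=
  ⟨⟨⟨c, a, Z⟩, exists_mo Φ.bf hLa (by simp) hc ha hZ hne⟩, rfl, rfl, rfl⟩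

/-- **662's `Dich` FROM THE WINDOW AND THE SIDES** (the base point is the point itself) -/
theorem dich_of (hs1 : 0 ≤ s₁) {α : ℝ} (hα : s₁ + ε ≤ α) {UT : Set E3}
    (hU0 : ∀ w ∈ UT, w ∈ s₃.P → ¬ OnG hH hdis w → ∀ p, Oc T3 KK p → w ∈ P (T3.H p) →
      til p ∉ KorJ Φ J0 ∧ ∃ c : Ti X, Φ.lev c.1 (f w) = 0)
    (posW : ∀ w ∈ UT, w ∈ s₃.P → ¬ OnG hH hdis w → ∀ p, Oc T3 KK p → w ∈ P (T3.H p) →
      ∃ x ∈ P (T.H (til p)), Φ.lev (s₃.lab w).1 (f x) ∈ Icc α (1 - α))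
    {sd : BM Φ X → E3 → Prop}
    (hsd : ∀ w ∈ UT, w ∈ s₃.P → ¬ OnG hH hdis w → ∀ p, Oc T3 KK p → w ∈ P (T3.H p) →
      ∀ m : BM Φ X, m.am = (s₃.lab w).1 →
      Φ.lev m.co (f w) = 0 → Φ.lev m.am (f w) ∈ Icc (α - ε) (1 - α + ε) →
      (∀ e, dv m.am m.Zm (fun e => Φ.lev e (f w)) e ≤ s₁) → sd m w) :
    Dich (qdT til hsub KK hLa hR hM hε hε1) s₃ UT BM.am sd := by
  intro j k hk w hw hl hU hG hV
  have hin : ∀ F, w ∈ (mK fr3 hH hdis).On F → ∀ q ∈ (mK fr3 hH hdis).side F,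
      ∃ p, q = Sum.inl p ∧ Oc T3 KK p ∧ w ∈ P (T3.H p) ∧ til p ∉ KorJ Φ J0 := by
    intro F hF q hq
    rcases q with p | c
    · obtain ⟨h1, h2⟩ := side_tile hF hq
      exact ⟨p, rfl, h2, h1, (hU0 w hU hw hG p h2 h1).1⟩
    · exact absurd ⟨c, F, hq, hF⟩ hG
  by_cases hon : ∃ F, w ∈ (mK fr3 hH hdis).On F
  swap
  · exact Or.inr fun F hF => absurd ⟨F, hF⟩ hon
  rcases dich_cells (hsub := hsub) (hLa := hLa) (hR := hR) (hM := hM) (hε := hε) (hε1 := hε1)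
    (k := k) hon (fun F hF q hq => by
      obtain ⟨p, h1, -, -, h4⟩ := hin F hF q hq
      exact ⟨p, h1, h4⟩) with h | h | ⟨p, p', h1, h2, h3, h4, h5, h6, h7⟩
  · exact Or.inl h
  · exact Or.inr h
  exfalso
  have ha : (s₃.lab w).1 ∈ k.B := by
    rw [hl]
    exact (qin k _).1 hk
  obtain ⟨x, hx, hxa⟩ := posW w hU hw hG p h3 h1
  obtain ⟨-, c, hc⟩ := hU0 w hU hw hG p h3 h1
  obtain ⟨r1, Z, z1, z2, z3, z4, z5⟩ := dich_moat hLa hR hM hε hε1 hs1 h5 h6 h7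
    (hsub p h1) (hsub p' h2) ha ⟨x, Or.inl hx, hxa⟩ hα
  have hcZ : c.1 ∈ k.Z := act_Z hLa hR hM hε hε1 h5 (hsub p h1) hc
  obtain ⟨m, m1, m2, m3⟩ := exists_moZ (X := X) hLa (z2 hcZ) z1 z3 z4
  refine hV m (by rw [m2, hl]) (hsd w hU hw hG p h3 h1 m m2 (by rw [m1]; exact hc) ?_ ?_)
  · rw [m2]; exact r1
  · rw [m2, m3]; exact z5

section cut

variable {s₂ : GSt (mK fr3 hH hdis) (Sum.map (fun j : JJ Φ L => j.1) (id : BM Φ X → BM Φ X))}
  {Act : Φ.F → Set (ι3 ⊕ Ti X)}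

/-- **662's `Dich` over the state before CUT.** `α` = window of the family, `l` = upper bound,
`l1` = lower bound of the deviations at the barrier points. -/
theorem dich_cut (hs1 : 0 ≤ s₁) {α l l1 : ℝ} (hα : s₁ + ε ≤ α) (hl : s₁ + ε + l < 1)
    (hl1 : s₁ + ε < l1) {UT : Set E3}
    (hU0 : ∀ w ∈ UT, w ∈ s₃.P → ¬ OnG hH hdis w → ∀ p, Oc T3 KK p → w ∈ P (T3.H p) →
      til p ∉ KorJ Φ J0 ∧ ∃ c : Ti X, Φ.lev c.1 (f w) = 0)
    (cs : ∀ w ∈ s₃.P, ∀ p, Oc T3 KK p → w ∈ P (T3.H p) →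
      (w ∈ s₂.P ∧ s₂.lab w = Sum.inl (s₃.lab w)) ∨
      (w ∉ s₂.P ∧ ∃ b ∈ s₂.P, ∃ m, s₂.lab b = Sum.inr m ∧ BM.am m = (s₃.lab w).1 ∧
        b ∈ P (T3.H p) ∧ Dfo_539.Encl s₂ BM.am Act m b))
    (old : ∀ w ∈ s₂.P, ∀ j, s₂.lab w = Sum.inl j → ∀ p, Oc T3 KK p → w ∈ P (T3.H p) →
      til p ∉ KorJ Φ J0 → ∃ x ∈ P (T.H (til p)), Φ.lev j.1 (f x) ∈ Icc α (1 - α))
    (ne : ∀ b ∈ s₂.P, ∀ m, s₂.lab b = Sum.inr m → (∃ p, Oc T3 KK p ∧ b ∈ P (T3.H p) ∧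
      ∃ x ∈ P (T.H (til p)), Φ.lev (BM.am m) (f x) ≤ α ∨ 1 - α ≤ Φ.lev (BM.am m) (f x)) →
      ¬ Dfo_539.Encl s₂ BM.am Act m b)
    (far : ∀ b ∈ s₂.P, ∀ m, s₂.lab b = Sum.inr m → ∀ p, Oc T3 KK p → b ∈ P (T3.H p) →
      til p ∉ KorJ Φ J0 → (P (T3.H p) ∩ UT).Nonempty →
      (∀ x ∈ P (T.H (til p)), Φ.lev (BM.am m) (f x) ∈ Ioo α (1 - α)) →
      (∃ x ∈ P (T.H (til p)), ∀ e, dv (BM.am m) (BM.Zm m) (fun e => Φ.lev e (f x)) e ≤ l) ∧
      ∃ x ∈ P (T.H (til p)), ∃ e, l1 ≤ dv (BM.am m) (BM.Zm m) (fun e => Φ.lev e (f x)) e)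
    {sd : BM Φ X → E3 → Prop}
    (side : ∀ w ∈ UT, w ∈ s₂.P → ∀ j, s₂.lab w = Sum.inl j → ¬ OnG hH hdis w →
      ∀ m : BM Φ X, m.am = j.1 → Φ.lev m.co (f w) = 0 →
      Φ.lev m.am (f w) ∈ Icc (α - ε) (1 - α + ε) →
      (∀ e, dv m.am m.Zm (fun e => Φ.lev e (f w)) e ≤ s₁) → sd m w) :
    Dich (qdT til hsub KK hLa hR hM hε hε1) s₃ UT BM.am sd := by
  -- the whole tile of a new point is in the window
  have new : ∀ b ∈ s₂.P, ∀ m, s₂.lab b = Sum.inr m → ∀ p, Oc T3 KK p → b ∈ P (T3.H p) →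
      Dfo_539.Encl s₂ BM.am Act m b →
      ∀ x ∈ P (T.H (til p)), Φ.lev (BM.am m) (f x) ∈ Ioo α (1 - α) := by
    intro b hb m hm p hp hbp he x hx
    by_contra hcon
    refine ne b hb m hm ⟨p, hp, hbp, x, hx, ?_⟩ he
    by_cases h : Φ.lev (BM.am m) (f x) ≤ α
    · exact Or.inl h
    · right
      by_contra h'
      exact hcon ⟨not_le.1 h, not_le.1 h'⟩
  refine dich_of hs1 hα hU0 ?_ ?_
  · intro w hU hw hG p hp hwp
    rcases cs w hw p hp hwp with ⟨h1, h2⟩ | ⟨-, b, h1, m, h2, h4, h5, h6⟩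
    · exact old w h1 _ h2 p hp hwp (hU0 w hU hw hG p hp hwp).1
    · refine ⟨w, hsub p hwp, ?_⟩
      have h7 := new b h1 m h2 p hp h5 h6 w (hsub p hwp)
      rw [h4] at h7
      exact ⟨h7.1.le, h7.2.le⟩
  · intro w hU hw hG p hp hwp m m2 m1 m4 m5
    rcases cs w hw p hp hwp with ⟨h1, h2⟩ | ⟨-, b, h1, m', h2, h4, h5, h6⟩
    · exact side w hU h1 _ h2 hG m m2 m1 m4 m5
    exfalso
    have hK := (hU0 w hU hw hG p hp hwp).1
    have hosc : ∀ x ∈ P (T.H (til p)), ∀ e, |Φ.lev e (f x) - Φ.lev e (f w)| ≤ ε := by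
      intro x hx e
      have h7 := hM.osc _ hK _ hx _ (hsub p hwp) e
      rwa [At_241.va_lev hLa hR hK hx, At_241.va_lev hLa hR hK (hsub p hwp)] at h7
    have hdv : ∀ x ∈ P (T.H (til p)), ∀ e,
        dv m.am m.Zm (fun e => Φ.lev e (f x)) e ≤ s₁ + ε := by
      intro x hx e
      have h7 := abs_le.1 (hosc x hx e)
      have h8 := m5 e
      have h9 : 0 ≤ ε := (abs_nonneg _).trans (hosc x hx e)
      by_cases hea : e = m.am
      · rw [hea, dv_self]; linarith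
      by_cases heZ : e ∈ m.Zm
      · rw [dv_in hea heZ] at h8 ⊢
        linarith [h7.1, h7.2]
      · rw [dv_out hea heZ] at h8 ⊢
        linarith [h7.1, h7.2]
    obtain ⟨⟨x1, hx1, k1⟩, x2, hx2, e2, k2⟩ := far b h1 m' h2 p hp h5 hK ⟨w, hwp, hU⟩
      (new b h1 m' h2 p hp h5 h6)
    have ham : m'.am = m.am := h4.trans m2.symm
    have hZ : m'.Zm = m.Zm := by
      by_contra hne
      obtain ⟨e, he⟩ : ∃ e, ¬ (e ∈ m'.Zm ↔ e ∈ m.Zm) := by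
        by_contra hcon
        push Not at hcon
        exact hne (Set.ext hcon)
      obtain ⟨p1, p2, hmo⟩ := m.mo
      obtain ⟨p3, p4, hmo'⟩ := m'.mo
      have haZ : m.am ∉ m.Zm := hmo.aZ
      have haZ' : m.am ∉ m'.Zm := by
        rw [← ham]; exact hmo'.aZ
      have hea : e ≠ m.am := by
        rintro rfl
        exact he ⟨fun h => absurd h haZ', fun h => absurd h haZ⟩
      have g1 := k1 e
      rw [ham] at g1
      have g2 := hdv x1 hx1 e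
      by_cases hZe : e ∈ m'.Zm
      · have hZ' : e ∉ m.Zm := fun h3 => he ⟨fun _ => h3, fun _ => hZe⟩
        rw [dv_in hea hZe] at g1
        rw [dv_out hea hZ'] at g2
        linarith
      · have hZ' : e ∈ m.Zm := by
          by_contra h3
          exact he ⟨fun h => absurd h hZe, fun h => absurd h h3⟩
        rw [dv_out hea hZe] at g1
        rw [dv_in hea hZ'] at g2
        linarith
    rw [ham, hZ] at k2
    linarith [hdv x2 hx2 e2]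

end cut

end Crest.Agent.R096.Dch_847
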