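import Crest.Agent.R096.Civ3_662
import Crest.Agent.R096.Dchn1_316

/-!
# R096 (row 96), DOORS (helper662): LEAF BC of the composition, part 5 (board B8)

* `vIn_or`  : `VIn` for `sd` or `sd₁`;
* `newP`    : the new points over the end zone (the second half of 316's `sdN`, 688's `sd'`);
* `vIn_sdN` : `VIn` for `sdN` from `VIn` for `sd` and NEWIN.
-/

set_option autoImplicit false
set_option linter.unusedSectionVars false
set_option linter.unusedVariables false
set_option linter.style.longLine false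

open Set Topology Filter Metric Module Relation
open scoped Classical

namespace Crest.Agent.R096.Civ_662

open Crest.Agent.R096.Brk1_582 Crest.Agent.R096.Brk2_582 Crest.Agent.R096.Brk3_582
open Crest.Agent.R096.Brk5_582 Crest.Agent.R096.Bsp_628
open Crest.Agent.R096.St_147 Crest.Agent.R096.Seq_213 Crest.Agent.R096.Seq_213.GSt
open Crest.Agent.R096.Lm_117 Crest.Agent.R096.Ac_117 Crest.Agent.R096.Msh_715
open Crest.Agent.R096.Agl5_543 Crest.Agent.R096.Init_543 Crest.Agent.R096.At_241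
open Crest.Agent.R096.SkC1_961 (E3 Hom3 FoamD)
open Crest.Agent.R096.Mbf_337 (KJ sb)
open Crest.Agent.R096.Frn_337 (Ti cti Lay)
open Crest.Agent.R096.Bar_106
open Crest.Agent.R096.Dchn_316 (OnZ sdN)

variable {δ κ0 R c0 : ℝ} {La Om : Set E3} {ι ι3 : Type} {Φ : FoamD δ κ0 R c0 La}
  {T : Tiling Om ι} {T3 : Tiling Om ι3} {f : E3 → E3} {X : Set Φ.F}
  {KK : Ti X → Set E3} {til : ι3 → ι} [Nonempty T3.Cell]
  {hH : ∀ k, CoreH T3 (KK k)} {hdis : ∀ k k', k ≠ k' → Disjoint (KK k) (KK k')}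
  {L : Φ.F → Finset ℝ} {s₃ : GSt (mK fr3 hH hdis) (fun j : JJ Φ L => j.1)}
  {Q : Quads (ι3 ⊕ Ti X) Φ.F (Init_543.QK (Pc Φ.F))} {b : JJ Φ L → E3}

/-- **`VIn` for `sd` or `sd₁`** -/
theorem vIn_or {Mo : Type} {am : Mo → Φ.F} {sd sd₁ : Mo → E3 → Prop}
    (h : VIn Q s₃ b am sd) (h₁ : VIn Q s₃ b am sd₁) :
    VIn Q s₃ b am (fun m w => sd m w ∨ sd₁ m w) := by
  intro j m k hm hk Y hb hY hg w hw hl hs
  rcases hs with hs | hs
  · exact h j m k hm hk Y hb hY hg w hw hl hs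
  · exact h₁ j m k hm hk Y hb hY hg w hw hl hs

variable (Φ T f til) in
/-- the new points over the end zone -/
def newP (α : ℝ)
    (s₂ : GSt (mK fr3 hH hdis) (Sum.map (fun j : JJ Φ L => j.1) (id : BM Φ X → BM Φ X)))
    (m : BM Φ X) (w : E3) : Prop :=
  w ∉ s₂.P ∧ OnZ Φ T T3 f KK til α m.am w

/-- **`VIn` for 316's `sdN`** from `VIn` for `sd` and NEWIN -/
theorem vIn_sdN {α : ℝ}
    {s₂ : GSt (mK fr3 hH hdis) (Sum.map (fun j : JJ Φ L => j.1) (id : BM Φ X → BM Φ X))}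
    {sd : BM Φ X → E3 → Prop} (h : VIn Q s₃ b BM.am sd)
    (hn : VIn Q s₃ b BM.am (newP Φ T f til α s₂)) :
    VIn Q s₃ b BM.am (sdN Φ T f til α s₂ sd) :=
  vIn_or h hn

end Crest.Agent.R096.Civ_662
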