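import Crest.Agent.R096.Eta1_812
import Crest.Agent.R096.Eta2_812

/-!
Row 96 (S0127), helper692.  **(CL) of 753 #11736: the `C⁰` clauses of `Pas_753.OutP`** for
`f₂ = R ∘ f ∘ Φ ∘ χ`, `Φ, R` from `ResU.use` with `τ / 12`, `ζ = w`, `e ≤ hh * s` (numbers of `SelP`), over
812's `EtaOK` and `near_cel_T`.
-/

set_option autoImplicit false
set_option linter.style.longLine false
set_option linter.unusedSectionVars false

open Set Filter Topology Metric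

namespace Crest.Agent.R096.Cl_692

open Crest.AnalysisR.VecCalc3 Crest.AnalysisR.Sobolev
open Crest.Agent.R096.Msh_715 (Tiling P I)
open Crest.Agent.R096.Pin_753 (Bk)
open Crest.Agent.R096.Eta_812
open Crest.Agent.R96.Intr_538
open Crest.Agent.R96.Coarse_538

/-- the constant of the `C⁰` clauses -/
noncomputable def C1c (κ D : ℝ) (nc : ℕ) : ℝ :=
  3 * (nc * (nc * nc) + 2) * (κ⁻¹ * D) + κ⁻¹ * D + 3 * D + 1

theorem C1c_one {κ D : ℝ} (hκ : 0 < κ) (hD : 0 ≤ D) (nc : ℕ) : 1 ≤ C1c κ D nc := by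
  have : 0 ≤ κ⁻¹ * D := by positivity
  have h2 : 0 ≤ 3 * ((nc:ℝ) * (nc * nc) + 2) * (κ⁻¹ * D) := by positivity
  unfold C1c
  linarith

/-- the common numerical inequality -/
theorem c1c_le {κ D hh s σ' e : ℝ} {nc : ℕ} (hs : 0 < s) (hhh : 0 < hh) (hD : 0 ≤ D)
    (hσ1 : σ' ≤ 1) (he : e ≤ hh * s) :
    3 * (nc * (nc * nc) + 2) * (κ⁻¹ * (D * hh * s)) + e + 3 * (σ' * (D * hh * s)) +
      κ⁻¹ * (D * hh * s) ≤ C1c κ D nc * hh * s := by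
  have h1 : 0 ≤ D * hh * s := by positivity
  have h2 : σ' * (D * hh * s) ≤ 1 * (D * hh * s) := mul_le_mul_of_nonneg_right hσ1 h1
  unfold C1c
  have e1 : (3 * ((nc:ℝ) * (nc * nc) + 2) * (κ⁻¹ * D) + κ⁻¹ * D + 3 * D + 1) * hh * s =
      3 * (nc * (nc * nc) + 2) * (κ⁻¹ * (D * hh * s)) + κ⁻¹ * (D * hh * s) + 3 * (D * hh * s) +
        hh * s := by ring
  rw [e1]
  linarith

/-- the neighbourhood on which `R` moves is in `par .. s` -/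
theorem thick_sub {κ τ s : ℝ} {L : R3 →L[ℝ] R3} {b : R3} (hκ : 0 < κ) (hτ : 0 < τ) (hτ6 : 6 * τ < 1)
    (hs : 0 < s) (hL : ∀ v, κ * ‖v‖ ≤ ‖L v‖) :
    thickening (κ * (τ * s)) (par Cb L b ((1 - 4 * τ) * s)) ⊆ par Cb L b s := by
  have hτs : 0 < τ * s := mul_pos hτ hs
  have hr4 : 0 < (1 - 4 * τ) * s := mul_pos (by linarith) hs
  have hinj : Function.Injective L := by
    refine (injective_iff_map_eq_zero L).2 fun v hv => ?_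
    have h := hL v
    rw [hv, norm_zero] at h
    have h2 : ‖v‖ ≤ 0 := by
      by_contra hc
      push Not at hc
      have := mul_pos hκ hc
      linarith
    exact norm_le_zero_iff.1 h2
  intro y hy
  obtain ⟨y', hy', hd⟩ := mem_thickening_iff.1 hy
  have h1 := par_thick' ref_Cb hκ hL hr4.le hτs hy' (y' := y)
    (by rw [mul_one, ← dist_eq_norm]; exact hd.le)
  have h2 : (1 - 4 * τ) * s + τ * s ≤ s := by nlinarith
  exact Ca_855.par_mono hinj (by positivity) h2 h1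

theorem par_sub {κ τ s : ℝ} {L : R3 →L[ℝ] R3} {b : R3} (hκ : 0 < κ) (hτ : 0 < τ) (hτ6 : 6 * τ < 1)
    (hs : 0 < s) (hL : ∀ v, κ * ‖v‖ ≤ ‖L v‖) :
    par Cb L b ((1 - 4 * τ) * s) ⊆ par Cb L b s :=
  (self_subset_thickening (by positivity) _).trans (thick_sub hκ hτ hτ6 hs hL)

/-- **(CL): the two `C⁰` clauses of `OutP`** -/
theorem out_c0 {Om W K' : Set R3} {f : R3 → R3} {ι : Type} (T : Tiling Om ι)
    {Q : Finset (Fin 3 → ℤ)} {z b : (Fin 3 → ℤ) → R3} {L : (Fin 3 → ℤ) → R3 →L[ℝ] R3}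
    {κ τ s hh D σ' e d0 C1 : ℝ} {nc : ℕ} {η w : R3 → ℝ} {Φ R : R3 ≃ₜ R3} {χ : R3 → R3}
    (hκ : 0 < κ) (hτ : 0 < τ) (hτ4 : τ ≤ 1 / 4) (hs : 0 < s) (hhh : 0 < hh) (hD : 0 ≤ D)
    (hσ1 : σ' ≤ 1) (h24 : 24 * D * hh ≤ τ)
    (hL : ∀ k ∈ Q, (∀ v, κ * ‖v‖ ≤ ‖L k v‖) ∧ ‖L k‖ ≤ κ⁻¹)
    (hQW : ∀ k ∈ Q, cel Cb (z k) s ⊆ W) (hWO : W ⊆ Om)
    (hQK' : ∀ k ∈ Q, par Cb (L k) (b k) s ⊆ K')
    (hdiam : ∀ i, (P (T.H i) ∩ W).Nonempty → ∀ x ∈ P (T.H i), ∀ y ∈ P (T.H i),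
      ‖y - x‖ ≤ D * hh * s)
    (hosc : ∀ i, ∀ x ∈ P (T.H i), ∀ x' ∈ P (T.H i), ‖f x' - f x‖ ≤ w (f x))
    (hE : EtaOK Om f η w K' d0)
    (he : e ≤ hh * s) (hC1 : C1c κ D nc ≤ C1) (hs0 : C1c κ D nc * hh * s ≤ d0)
    (g2 : ∀ k ∈ Q, ∀ y ∈ cel Cb (z k) ((1 - 6 * (τ / 12)) * s),
      ‖f (Φ y) - (b k + L k (y - z k))‖ ≤
        3 * (nc * (nc * nc) + 2) * (κ⁻¹ * (D * hh * s)) + e)
    (g3 : ∀ i, ∀ y ∈ P (T.H i), ∀ r, (∀ y' ∈ P (T.H i), ‖f y' - f y‖ ≤ r) →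
      ‖f (Φ y) - f y‖ ≤ r + 3 * (nc * (nc * nc) + 2) * (κ⁻¹ * (D * hh * s)) + e)
    (g4 : ∀ i, ∀ y ∈ P (T.H i), ∀ r, (∀ y' ∈ P (T.H i), ‖f y' - f y‖ ≤ r) →
      (∀ k ∈ Q, Disjoint (closedBall (f y) (2 * r + w (f y)))
        (par Cb (L k) (b k) ((1 - 4 * (τ / 12)) * s))) → ‖f (Φ y) - f y‖ ≤ 4 * r + 4 * w (f y))
    (hR : ∀ y, ‖R y - y‖ ≤ 3 * (σ' * (D * hh * s)))
    (hR' : ∀ y, (∀ k ∈ Q, y ∉ thickening (κ * (τ / 12 * s))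
      (par Cb (L k) (b k) ((1 - 4 * (τ / 12)) * s))) → R y = y)
    (hχ : ∀ x ∈ Om, ∃ i, x ∈ P (T.H i) ∧ χ x ∈ P (T.H i)) :
    (∀ x ∈ Om, ‖R (f (Φ (χ x))) - f x‖ ≤ η x) ∧
      ∀ k ∈ Q, ∀ x ∈ cel Cb (z k) ((1 - τ) * s),
        ‖R (f (Φ (χ x))) - Bk (b k) (L k) (z k) x‖ ≤ C1 * hh * s := by
  have hτ12 : 0 < τ / 12 := by positivity
  have hτ6 : 6 * (τ / 12) < 1 := by linarith
  have ht0 : 0 ≤ D * hh * s := by positivity
  have hκt : 0 ≤ κ⁻¹ * (D * hh * s) := by positivity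
  have hnum := c1c_le (κ := κ) (nc := nc) hs hhh hD hσ1 he
  constructor
  · refine hE T (Q := (Q : Set (Fin 3 → ℤ)))
      (fun k => par Cb (L k) (b k) ((1 - 4 * (τ / 12)) * s)) hosc
      (fun k hk => (par_sub hκ hτ12 hτ6 hs (hL k hk).1).trans (hQK' k hk))
      (fun x => f (Φ x)) χ R (3 * (nc * (nc * nc) + 2) * (κ⁻¹ * (D * hh * s)) + e)
      (3 * (σ' * (D * hh * s))) ?_ hχ ?_ g4 hR ?_
    · linarith
    · intro i y hy r hr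
      have := g3 i y hy r hr
      linarith
    · intro y hy
      refine hR' y fun k hk hmem => hy ?_
      exact hQK' k hk (thick_sub hκ hτ12 hτ6 hs (hL k hk).1 hmem)
  · intro k hk x hx
    refine (near_cel_T T (Q := (Q : Set (Fin 3 → ℤ))) (κ := κ) (τ := τ) (τ' := τ / 12)
      (t := D * hh * s) (Φ := Φ) (χ := χ) (R := R) hs (by linarith) g2
      (fun k hk => (hL k hk).2) hR (fun k hk => (hQW k hk).trans hWO) hχ
      (fun k hk i hi => hdiam i (hi.mono (inter_subset_inter_right _ (hQW k hk)))) hτ.le ht0 ?_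
      hnum k hk x hx).trans ?_
    · nlinarith
    · have : 0 ≤ hh * s := by positivity
      nlinarith

end Crest.Agent.R096.Cl_692
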