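import Crest.Agent.R096.Clo2_441

/-!
# Row 96, (U6) CLOSE, part 3 (helper441): labels along ropes, first hitting of the core, gaps

`label_const` : vertex labels which may change along an edge only if the edge contains a crossing
point are constant along the rope of a connected compact set whose cells carry no crossing point.
`pin_labels` : the version with cell functions, levels and a slack `d0`.
`hit` : a path from a pin to a core, cut at its first entrance into the core.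
`exists_delta` : small cells meeting a compact set have small oscillation.
`gap` : from labels to distances.
-/

set_option autoImplicit false
set_option linter.unusedSectionVars false

open Set Metric Relation Filter Topology
open Crest.Agent.R096.Ce_537

namespace Crest.Agent.R096.Clo_441

section Labels

variable {E : Type*} [NormedAddCommGroup E] [NormedSpace ℝ E]
variable {Ω : Set E} {I : Type*} [PartialOrder I] {dim : I → ℕ} {K : I → Set E}

/-- the rope carries no point of `P` -/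
def Clean (dim : I → ℕ) (K : I → Set E) (J : Set I) (A P : Set E) : Prop :=
  ∀ i ∈ J, (K i ∩ A).Nonempty → ∀ j ≤ i, dim j = 1 → Disjoint (K j) P

/-- **Labels are constant along a clean rope.** -/
theorem label_const (C : Cplx Ω I dim K) {J : Set I} {A : Set E}
    (hA : IsCompact A) (hAc : IsPreconnected A) (hAJ : A ⊆ ⋃ i ∈ J, K i)
    {P : Set E} (hP : Clean dim K J A P) {κ : Type*} {lam : I → κ}
    (hlam : ∀ e, dim e = 1 → Disjoint (K e) P → ∀ v ≤ e, ∀ w ≤ e, dim v = 0 → dim w = 0 →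
      lam v = lam w)
    {i v i' v' : I} (hi : i ∈ J) (hiA : (K i ∩ A).Nonempty) (hv : v ≤ i) (hv0 : dim v = 0)
    (hi' : i' ∈ J) (hiA' : (K i' ∩ A).Nonempty) (hv' : v' ≤ i') (hv0' : dim v' = 0) :
    lam v = lam v' := by
  classical
  have hAΩ : A ⊆ Ω := by
    intro x hx
    obtain ⟨i, -, hi⟩ := mem_iUnion₂.1 (hAJ hx)
    exact C.sub i hi
  set M : Set I := {i | i ∈ J ∧ (K i ∩ A).Nonempty} with hM
  have hMf : M.Finite := (C.finite_meet hA hAΩ).subset fun i hi => hi.2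
  -- the cells of dimension ≤ 1 of the rope
  set R : Set I := {j | ∃ i ∈ M, j ≤ i ∧ dim j ≤ 1} with hR
  have hRf : R.Finite := by
    have h1 : R ⊆ ⋃ i ∈ M, {j | j ≤ i} := by
      rintro j ⟨i, hi, hj, -⟩
      exact mem_biUnion hi hj
    refine (hMf.biUnion fun i _ => ?_).subset h1
    have h2 : {j | j ≤ i} ⊆ insert i {j | j < i} := by
      intro j hj
      rcases (show j ≤ i from hj).eq_or_lt with rfl | h
      · exact mem_insert _ _
      · exact mem_insert_of_mem _ h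
    exact ((C.finite_below i).insert i).subset h2
  have hrope : ropeSet dim K J A = ⋃ j ∈ R, K j := by
    refine Subset.antisymm ?_ ?_
    · intro x hx
      obtain ⟨i, hi, hx⟩ := mem_iUnion₂.1 hx
      obtain ⟨j, hj, hxj⟩ := mem_iUnion₂.1 hx
      exact mem_biUnion (show j ∈ R from ⟨i, hi, hj.1, hj.2⟩) hxj
    · intro x hx
      obtain ⟨j, ⟨i, hi, hj, hd⟩, hxj⟩ := mem_iUnion₂.1 hx
      exact mem_ropeSet hi.1 hi.2 hj hd hxj
  have hpre : IsPreconnected (⋃ j ∈ R, K j) := hrope ▸ isPreconnected_ropeSet C hA hAc hAJ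
  -- all vertices of a cell of R have the same label
  have hsame : ∀ j ∈ R, ∀ a ≤ j, ∀ b ≤ j, dim a = 0 → dim b = 0 → lam a = lam b := by
    rintro j ⟨i, hi, hj, hd⟩ a ha b hb ha0 hb0
    rcases Nat.lt_or_ge (dim j) 1 with h | h
    · have hja : a = j := by
        rcases ha.eq_or_lt with h1 | h1
        · exact h1
        · exact absurd (C.mono j a h1) (by omega)
      have hjb : b = j := by
        rcases hb.eq_or_lt with h1 | h1
        · exact h1
        · exact absurd (C.mono j b h1) (by omega)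
      rw [hja, hjb]
    · have h1 : dim j = 1 := by omega
      exact hlam j h1 (hP i hi.1 hi.2 j hj h1) a ha b hb ha0 hb0
  by_contra hne
  set Z1 : Set E := ⋃ j ∈ {j | j ∈ R ∧ ∀ a ≤ j, dim a = 0 → lam a = lam v}, K j with hZ1
  set Z2 : Set E := ⋃ j ∈ {j | j ∈ R ∧ ∀ a ≤ j, dim a = 0 → lam a ≠ lam v}, K j with hZ2
  have hc1 : IsClosed Z1 :=
    (hRf.subset fun j hj => hj.1).isClosed_biUnion fun j _ => C.isClosed j
  have hc2 : IsClosed Z2 :=
    (hRf.subset fun j hj => hj.1).isClosed_biUnion fun j _ => C.isClosed j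
  have hcov : (⋃ j ∈ R, K j) ⊆ Z1 ∪ Z2 := by
    intro x hx
    obtain ⟨j, hj, hxj⟩ := mem_iUnion₂.1 hx
    obtain ⟨a, ha, ha0⟩ := exists_vertex C j
    by_cases h : lam a = lam v
    · refine Or.inl (mem_biUnion (show j ∈ {j | j ∈ R ∧ ∀ a ≤ j, dim a = 0 → lam a = lam v}
        from ⟨hj, fun b hb hb0 => ?_⟩) hxj)
      rw [hsame j hj b hb a ha hb0 ha0]; exact h
    · refine Or.inr (mem_biUnion (show j ∈ {j | j ∈ R ∧ ∀ a ≤ j, dim a = 0 → lam a ≠ lam v}
        from ⟨hj, fun b hb hb0 => ?_⟩) hxj)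
      rw [hsame j hj b hb a ha hb0 ha0]; exact h
  have hvR : v ∈ R := ⟨i, ⟨hi, hiA⟩, hv, by omega⟩
  have hvR' : v' ∈ R := ⟨i', ⟨hi', hiA'⟩, hv', by omega⟩
  have hmin : ∀ {w a : I}, dim w = 0 → a ≤ w → a = w := by
    intro w a hw ha
    rcases ha.eq_or_lt with h1 | h1
    · exact h1
    · exact absurd (C.mono w a h1) (by omega)
  have hn1 : ((⋃ j ∈ R, K j) ∩ Z1).Nonempty := by
    obtain ⟨x, hx⟩ := (C.isBall v).nonempty
    refine ⟨x, mem_biUnion hvR hx, mem_biUnion (show v ∈ {j | j ∈ R ∧ ∀ a ≤ j, dim a = 0 →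
      lam a = lam v} from ⟨hvR, fun a ha _ => ?_⟩) hx⟩
    rw [hmin hv0 ha]
  have hn2 : ((⋃ j ∈ R, K j) ∩ Z2).Nonempty := by
    obtain ⟨x, hx⟩ := (C.isBall v').nonempty
    refine ⟨x, mem_biUnion hvR' hx, mem_biUnion (show v' ∈ {j | j ∈ R ∧ ∀ a ≤ j, dim a = 0 →
      lam a ≠ lam v} from ⟨hvR', fun a ha _ => ?_⟩) hx⟩
    rw [hmin hv0' ha]
    exact fun h => hne h.symm
  obtain ⟨x, -, hx1, hx2⟩ := isPreconnected_closed_iff.1 hpre _ _ hc1 hc2 hcov hn1 hn2
  obtain ⟨j, hj, hxj⟩ := mem_iUnion₂.1 hx1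
  obtain ⟨l, hl, hxl⟩ := mem_iUnion₂.1 hx2
  obtain ⟨a, haj, hal, ha0, -⟩ := exists_common_vertex C hxj hxl
  exact hl.2 a hal ha0 (hj.2 a haj ha0)

/-- **(C3), combinatorial labels with slack.**  `σ c` = cell functions composed with `F`, within `b`
of `y c` on the cells meeting the fibre arc `A`; used levels keep distance `b + d0` from `y`; a
crossing point `w ∈ P` of any final sheet on an edge is within `d0` of SOME used level; labels
`lam q` change along an edge only if the edge carries a crossing point.  If the labels are the exact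
ones at one vertex they are `[y < t]` at every vertex of every cell meeting `A`. -/
theorem pin_labels (C : Cplx Ω I dim K) {J : Set I} {A : Set E}
    (hA : IsCompact A) (hAc : IsPreconnected A) (hAJ : A ⊆ ⋃ i ∈ J, K i)
    {κ : Type*} {σ : κ → E → ℝ} {y : κ → ℝ} {b d0 : ℝ}
    (hosc : ∀ i ∈ J, (K i ∩ A).Nonempty → ∀ z ∈ K i, ∀ c, |σ c z - y c| < b)
    {Lv : Set (κ × ℝ)} (hLv : ∀ q ∈ Lv, b + d0 ≤ |q.2 - y q.1|) (hd0 : 0 ≤ d0)
    {P : Set E} (hP : ∀ w ∈ P, ∀ i ∈ J, w ∈ K i → ∃ q ∈ Lv, |σ q.1 w - q.2| ≤ d0)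
    {lam : κ × ℝ → I → Prop}
    (hlam : ∀ q ∈ Lv, ∀ e, dim e = 1 → Disjoint (K e) P → ∀ v ≤ e, ∀ w ≤ e, dim v = 0 →
      dim w = 0 → (lam q v ↔ lam q w))
    {i0 v0 : I} (hi0 : i0 ∈ J) (hi0A : (K i0 ∩ A).Nonempty) (hv0 : v0 ≤ i0) (hd : dim v0 = 0)
    (hlab : ∀ q ∈ Lv, ∀ z ∈ K v0, (lam q v0 ↔ σ q.1 z < q.2))
    {i v : I} (hi : i ∈ J) (hiA : (K i ∩ A).Nonempty) (hv : v ≤ i) (hdv : dim v = 0)
    {q : κ × ℝ} (hq : q ∈ Lv) : lam q v ↔ y q.1 < q.2 := by
  have hclean : Clean dim K J A P := by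
    intro m hm hmA j hj _
    rw [Set.disjoint_left]
    intro w hwj hwP
    have hwm : w ∈ K m := C.subset hj hwj
    obtain ⟨q', hq', h1⟩ := hP w hwP m hm hwm
    have h2 := hosc m hm hmA w hwm q'.1
    have h3 := hLv q' hq'
    have h4 : |q'.2 - y q'.1| ≤ |σ q'.1 w - q'.2| + |σ q'.1 w - y q'.1| := by
      have := abs_sub_le q'.2 (σ q'.1 w) (y q'.1)
      rw [abs_sub_comm q'.2 (σ q'.1 w)] at this
      exact this
    linarith
  have hside : (lam q v ↔ lam q v0) := by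
    have h := label_const C hA hAc hAJ hclean (κ := Prop) (lam := lam q)
      (fun e he hd v hv w hw h1 h2 => propext (hlam q hq e he hd v hv w hw h1 h2))
      hi hiA hv hdv hi0 hi0A hv0 hd
    rw [h]
  obtain ⟨z, hz⟩ := (C.isBall v0).nonempty
  rw [hside, hlab q hq z hz]
  have h1 := hosc i0 hi0 hi0A z (C.subset hv0 hz) q.1
  have h2 := hLv q hq
  rw [abs_lt] at h1
  rcases le_abs.1 (show b ≤ |q.2 - y q.1| by linarith) with h3 | h3
  · constructor
    · intro _; linarith [h1.1]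
    · intro _; linarith [h1.2]
  · constructor
    · intro _; linarith [h1.1]
    · intro _; linarith [h1.2]

end Labels

/-- **First entrance.** A path from `x ∉ int` to a closed set `Kc`: there is a compact connected part
of the path which contains the start, ends in `Kc` and meets `Kc` only at its end point. -/
theorem hit {X : Type*} [TopologicalSpace X] {γ : ℝ → X} (hγ : ContinuousOn γ (Icc 0 1))
    {Kc : Set X} (hK : IsClosed Kc) (h1 : γ 1 ∈ Kc) :
    ∃ τ ∈ Icc (0 : ℝ) 1, γ τ ∈ Kc ∧ (∀ t ∈ Ico (0 : ℝ) τ, γ t ∉ Kc) ∧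
      IsCompact (γ '' Icc 0 τ) ∧ IsPreconnected (γ '' Icc 0 τ) := by
  set S : Set ℝ := Icc (0 : ℝ) 1 ∩ γ ⁻¹' Kc with hS
  have hSc : IsCompact S := by
    have : IsClosed S := hγ.preimage_isClosed_of_isClosed isClosed_Icc hK
    exact isCompact_Icc.of_isClosed_subset this inter_subset_left
  have hSn : S.Nonempty := ⟨1, ⟨zero_le_one, le_refl _⟩, h1⟩
  obtain ⟨τ, hτ, hmin⟩ := hSc.exists_isLeast hSn
  have hsub : Icc (0 : ℝ) τ ⊆ Icc 0 1 := Icc_subset_Icc_right hτ.1.2
  refine ⟨τ, hτ.1, hτ.2, ?_, isCompact_Icc.image_of_continuousOn (hγ.mono hsub),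
    isPreconnected_Icc.image _ (hγ.mono hsub)⟩
  intro t ht htK
  have : τ ≤ t := hmin ⟨⟨ht.1, ht.2.le.trans hτ.1.2⟩, htK⟩
  exact absurd ht.2 (not_lt.2 this)

/-- **Small cells have small oscillation near a compact set.** -/
theorem exists_delta {E Y : Type*} [PseudoMetricSpace E] [PseudoMetricSpace Y] {W A : Set E}
    (hW : IsOpen W) (hA : IsCompact A) (hAW : A ⊆ W) {F : E → Y} (hF : ContinuousOn F W)
    {b : ℝ} (hb : 0 < b) :
    ∃ δ > 0, ∀ x ∈ A, ∀ z, dist z x < δ → z ∈ W ∧ dist (F z) (F x) < b := by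
  have hloc : ∀ x ∈ A, ∃ ε > 0, ∀ z, dist z x < ε → z ∈ W ∧ dist (F z) (F x) < b / 2 := by
    intro x hx
    have hc : ContinuousAt F x := hF.continuousAt (hW.mem_nhds (hAW hx))
    obtain ⟨ε1, h1, h1'⟩ := Metric.continuousAt_iff.1 hc (b / 2) (by positivity)
    obtain ⟨ε2, h2, h2'⟩ := Metric.isOpen_iff.1 hW x (hAW hx)
    refine ⟨min ε1 ε2, lt_min h1 h2, fun z hz => ⟨?_, ?_⟩⟩
    · exact h2' (mem_ball.2 (hz.trans_le (min_le_right _ _)))
    · exact h1' (hz.trans_le (min_le_left _ _))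
  choose! ε hε hεz using hloc
  rcases A.eq_empty_or_nonempty with rfl | hne
  · exact ⟨1, one_pos, fun x hx => absurd hx (notMem_empty x)⟩
  obtain ⟨t, htA, htc⟩ := hA.elim_nhds_subcover (fun x => ball x (ε x / 2))
    (fun x hx => ball_mem_nhds x (half_pos (hε x hx)))
  have htn : t.Nonempty := by
    obtain ⟨x, hx⟩ := hne
    obtain ⟨i, hi, -⟩ := mem_iUnion₂.1 (htc hx)
    exact ⟨i, hi⟩
  obtain ⟨m, hm, hmin⟩ := t.exists_min_image (fun x => ε x / 2) htn
  refine ⟨ε m / 2, half_pos (hε m (htA m hm)), fun x hx z hz => ?_⟩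
  obtain ⟨i, hi, hxi⟩ := mem_iUnion₂.1 (htc hx)
  have hxi' : dist x i < ε i / 2 := mem_ball.1 hxi
  have hzi : dist z i < ε i := by
    have := dist_triangle z x i
    have h3 := hmin i hi
    linarith
  have hxi2 : dist x i < ε i := by linarith [hε i (htA i hi)]
  refine ⟨(hεz i (htA i hi) z hzi).1, ?_⟩
  have h4 := (hεz i (htA i hi) z hzi).2
  have h5 := (hεz i (htA i hi) x hxi2).2
  have h6 := dist_triangle_right (F z) (F x) (F i)
  linarith

/-- **From labels to distances.** If every used level separates `u` from `w` in the same way, and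
every interval of length `γ` contains a used level, then `|u - w| ≤ γ`. -/
theorem gap {L : Set ℝ} {γ u w : ℝ} (h : ∀ t ∈ L, (u < t ↔ w < t))
    (hL : ∀ a c, a + γ < c → ∃ t ∈ L, a < t ∧ t ≤ c) : |u - w| ≤ γ := by
  by_contra hcon
  rw [not_le, lt_abs] at hcon
  rcases hcon with h1 | h1
  · obtain ⟨t, ht, h2, h3⟩ := hL w u (by linarith)
    exact absurd ((h t ht).2 h2) (not_lt.2 h3)
  · obtain ⟨t, ht, h2, h3⟩ := hL u w (by linarith)
    exact absurd ((h t ht).1 h2) (not_lt.2 h3)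

/-- the same on `[lo, hi]` -/
theorem gap_Icc {L : Set ℝ} {lo hi γ u w : ℝ} (hu : u ∈ Icc lo hi) (hw : w ∈ Icc lo hi)
    (h : ∀ t ∈ L, (u < t ↔ w < t))
    (hL : ∀ a ∈ Icc lo hi, ∀ c ∈ Icc lo hi, a + γ < c → ∃ t ∈ L, a < t ∧ t ≤ c) :
    |u - w| ≤ γ := by
  by_contra hcon
  rw [not_le, lt_abs] at hcon
  rcases hcon with h1 | h1
  · obtain ⟨t, ht, h2, h3⟩ := hL w hw u hu (by linarith)
    exact absurd ((h t ht).2 h2) (not_lt.2 h3)
  · obtain ⟨t, ht, h2, h3⟩ := hL u hu w hw (by linarith)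
    exact absurd ((h t ht).1 h2) (not_lt.2 h3)

/-- **Grid levels minus finitely many bands.**  Every interval of length `(n+1) (2β + h)` contains a
grid point `h k` which is at distance `> β` from `n` given reals. -/
theorem exists_level {h β : ℝ} (hh : 0 < h) (hβ : 0 ≤ β) {n : ℕ} (y : Fin n → ℝ) {a c : ℝ}
    (hac : a + (n + 1) * (2 * β + h) ≤ c) :
    ∃ k : ℤ, a < h * k ∧ h * k ≤ c ∧ ∀ j, β < |h * k - y j| := by
  classical
  set k0 : ℤ := ⌊a / h⌋ + 1 with hk0
  set m : ℤ := ⌊2 * β / h⌋ + 1 with hm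
  have h1 : a < h * k0 := by
    have := Int.lt_floor_add_one (a / h)
    rw [div_lt_iff₀ hh] at this
    rw [hk0]; push_cast; linarith [mul_comm h ((⌊a / h⌋ : ℝ) + 1)]
  have h2 : h * k0 ≤ a + h := by
    have := Int.floor_le (a / h)
    rw [le_div_iff₀ hh] at this
    rw [hk0]; push_cast; linarith [mul_comm h (⌊a / h⌋ : ℝ)]
  have h3 : 2 * β < h * m := by
    have := Int.lt_floor_add_one (2 * β / h)
    rw [div_lt_iff₀ hh] at this
    rw [hm]; push_cast; linarith [mul_comm h ((⌊2 * β / h⌋ : ℝ) + 1)]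
  have h4 : h * m ≤ 2 * β + h := by
    have := Int.floor_le (2 * β / h)
    rw [le_div_iff₀ hh] at this
    rw [hm]; push_cast; linarith [mul_comm h (⌊2 * β / h⌋ : ℝ)]
  by_contra hcon
  push Not at hcon
  have hch : ∀ i : Fin (n + 1), ∃ j : Fin n, |h * ((k0 + i * m : ℤ) : ℝ) - y j| ≤ β := by
    intro i
    have hi0 : (0 : ℝ) ≤ (i : ℕ) := Nat.cast_nonneg _
    have hin : ((i : ℕ) : ℝ) ≤ n := by
      have := i.2
      exact_mod_cast Nat.lt_succ_iff.1 this
    refine hcon (k0 + i * m) ?_ ?_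
    · push_cast
      nlinarith [mul_nonneg hi0 (show (0 : ℝ) ≤ h * m by linarith)]
    · push_cast
      have h5 : (i : ℕ) * (h * m) ≤ (n : ℝ) * (2 * β + h) := by
        have h6 : ((i : ℕ) : ℝ) * (h * m) ≤ (n : ℝ) * (h * m) :=
          mul_le_mul_of_nonneg_right hin (by linarith)
        have h7 : (n : ℝ) * (h * m) ≤ (n : ℝ) * (2 * β + h) :=
          mul_le_mul_of_nonneg_left h4 (Nat.cast_nonneg _)
        linarith
      nlinarith [h5, h2, hac]
  choose f hf using hch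
  obtain ⟨i, i', hne, hff⟩ : ∃ i i' : Fin (n + 1), i ≠ i' ∧ f i = f i' := by
    have := Fintype.exists_ne_map_eq_of_card_lt f (by simp)
    exact this
  have e1 := hf i
  have e2 := hf i'
  rw [hff] at e1
  have e3 : |h * ((k0 + i * m : ℤ) : ℝ) - h * ((k0 + i' * m : ℤ) : ℝ)| ≤ 2 * β := by
    have := abs_sub_le (h * ((k0 + i * m : ℤ) : ℝ)) (y (f i')) (h * ((k0 + i' * m : ℤ) : ℝ))
    rw [abs_sub_comm (y (f i'))] at this
    linarith
  have e4 : h * ((k0 + i * m : ℤ) : ℝ) - h * ((k0 + i' * m : ℤ) : ℝ)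
      = (((i : ℕ) : ℝ) - ((i' : ℕ) : ℝ)) * (h * m) := by
    push_cast; ring
  rw [e4, abs_mul, abs_of_pos (show 0 < h * (m : ℝ) by linarith)] at e3
  have e5 : (1 : ℝ) ≤ |((i : ℕ) : ℝ) - ((i' : ℕ) : ℝ)| := by
    have h8 : ((i : ℕ) : ℤ) - ((i' : ℕ) : ℤ) ≠ 0 := by
      intro h9
      apply hne
      ext
      omega
    have h10 := Int.one_le_abs h8
    exact_mod_cast h10
  nlinarith

end Crest.Agent.R096.Clo_441
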