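import Crest.Agent.R096.Clo3_441

/-!
# Row 96, (U6) CLOSE, part 4 (helper441): collapse of the bands, composition at the pins

`exists_collapse` : monotone Lipschitz map of the line which is constant on small bands round finitely
many given values, is `0` near `0` and `1` near `1`, is uniformly close to the identity, has Lipschitz
constant `≤ 1 + η` and takes every other value exactly once.
`pin_close` : at the pins every final state is close to the collapsed map `F'`.
-/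

set_option autoImplicit false
set_option linter.unusedSectionVars false

open Set Metric Relation Filter Topology MeasureTheory
open Crest.Agent.R096.Ce_537

namespace Crest.Agent.R096.Clo_441

/-! ### collapse -/

/-- length of `[0,t]` outside the set `B` -/
noncomputable def len (B : Set ℝ) (t : ℝ) : ℝ := (volume (Icc 0 t \ B)).toReal

theorem len_fin (B : Set ℝ) (t : ℝ) : volume (Icc 0 t \ B) ≠ ⊤ :=
  ((measure_mono sdiff_subset).trans_lt (by rw [Real.volume_Icc]; exact ENNReal.ofReal_lt_top)).ne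

theorem len_mono (B : Set ℝ) : Monotone (len B) := fun _ t hst =>
  ENNReal.toReal_mono (len_fin B t)
    (measure_mono (sdiff_subset_sdiff_left (Icc_subset_Icc_right hst)))

theorem len_nonneg (B : Set ℝ) (t : ℝ) : 0 ≤ len B t := ENNReal.toReal_nonneg

theorem len_sub_le {B : Set ℝ} {s t : ℝ} :
    len B t - len B s ≤ (volume (Ioc s t \ B)).toReal := by
  have h1 : Icc 0 t \ B ⊆ (Icc 0 s \ B) ∪ (Ioc s t \ B) := by
    rintro x ⟨⟨h0, h1⟩, hB⟩
    rcases le_or_gt x s with h | h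
    · exact Or.inl ⟨⟨h0, h⟩, hB⟩
    · exact Or.inr ⟨⟨h, h1⟩, hB⟩
  have h2 : volume (Ioc s t \ B) ≠ ⊤ :=
    ((measure_mono sdiff_subset).trans_lt (by rw [Real.volume_Ioc]; exact ENNReal.ofReal_lt_top)).ne
  have h3 : len B t ≤ len B s + (volume (Ioc s t \ B)).toReal := by
    unfold len
    rw [← ENNReal.toReal_add (len_fin B s) h2]
    exact ENNReal.toReal_mono (ENNReal.add_ne_top.2 ⟨len_fin B s, h2⟩)
      ((measure_mono h1).trans (measure_union_le _ _))
  linarith

theorem le_len_sub {B : Set ℝ} (hB : MeasurableSet B) {s t : ℝ} (hs : 0 ≤ s) (hst : s ≤ t) :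
    (volume (Ioc s t \ B)).toReal ≤ len B t - len B s := by
  have h1 : (Icc 0 s \ B) ∪ (Ioc s t \ B) ⊆ Icc 0 t \ B := by
    rintro x (⟨⟨h0, h1⟩, hB⟩ | ⟨⟨h0, h1⟩, hB⟩)
    · exact ⟨⟨h0, h1.trans hst⟩, hB⟩
    · exact ⟨⟨hs.trans h0.le, h1⟩, hB⟩
  have h2 : volume (Ioc s t \ B) ≠ ⊤ :=
    ((measure_mono sdiff_subset).trans_lt (by rw [Real.volume_Ioc]; exact ENNReal.ofReal_lt_top)).ne
  have hd : Disjoint (Icc 0 s \ B) (Ioc s t \ B) := by
    rw [Set.disjoint_left]
    rintro x ⟨⟨-, h1⟩, -⟩ ⟨⟨h2, -⟩, -⟩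
    exact absurd h2 (not_lt.2 h1)
  have h3 : len B s + (volume (Ioc s t \ B)).toReal ≤ len B t := by
    unfold len
    rw [← ENNReal.toReal_add (len_fin B s) h2,
      ← measure_union hd (measurableSet_Ioc.diff hB)]
    exact ENNReal.toReal_mono (len_fin B t) (measure_mono h1)
  linarith

theorem len_lip {B : Set ℝ} (s t : ℝ) : |len B s - len B t| ≤ |s - t| := by
  wlog h : s ≤ t with H
  · rw [abs_sub_comm (len B s), abs_sub_comm s]; exact H t s (le_of_not_ge h)
  rw [abs_sub_comm (len B s), abs_sub_comm s, abs_of_nonneg (sub_nonneg.2 (len_mono B h)),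
    abs_of_nonneg (sub_nonneg.2 h)]
  rcases le_or_gt 0 s with _ | hs
  · refine len_sub_le.trans ?_
    have h1 : volume (Ioc s t \ B) ≤ volume (Ioc s t) := measure_mono sdiff_subset
    have h2 := ENNReal.toReal_mono (by rw [Real.volume_Ioc]; exact ENNReal.ofReal_ne_top) h1
    rwa [Real.volume_Ioc, ENNReal.toReal_ofReal (sub_nonneg.2 h)] at h2
  · have h0 : len B s = 0 := by
      unfold len
      rw [Icc_eq_empty (not_le.2 hs)]; simp
    rw [h0, sub_zero]
    rcases le_or_gt 0 t with ht | ht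
    · have h1 : volume (Icc 0 t \ B) ≤ volume (Icc 0 t) := measure_mono sdiff_subset
      have h2 := ENNReal.toReal_mono (by rw [Real.volume_Icc]; exact ENNReal.ofReal_ne_top) h1
      rw [Real.volume_Icc, ENNReal.toReal_ofReal (by linarith)] at h2
      unfold len; linarith
    · have h1 : len B t = 0 := by
        unfold len
        rw [Icc_eq_empty (not_le.2 ht)]; simp
      rw [h1]; linarith

theorem len_le {B : Set ℝ} {t : ℝ} (ht : 0 ≤ t) : len B t ≤ t := by
  have h1 : volume (Icc 0 t \ B) ≤ volume (Icc 0 t) := measure_mono sdiff_subset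
  have h2 := ENNReal.toReal_mono (by rw [Real.volume_Icc]; exact ENNReal.ofReal_ne_top) h1
  rwa [Real.volume_Icc, ENNReal.toReal_ofReal (by linarith), sub_zero] at h2

theorem le_len {B : Set ℝ} {t m : ℝ} (ht : 0 ≤ t) (hm : 0 ≤ m)
    (hB : volume (Icc 0 t ∩ B) ≤ ENNReal.ofReal m) : t - m ≤ len B t := by
  have h1 : volume (Icc 0 t) ≤ volume (Icc 0 t \ B) + volume (Icc 0 t ∩ B) := by
    refine (measure_mono ?_).trans (measure_union_le _ _)
    intro x hx
    by_cases h : x ∈ B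
    · exact Or.inr ⟨hx, h⟩
    · exact Or.inl ⟨hx, h⟩
  have h2 := h1.trans (add_le_add_right hB _)
  have h3 := ENNReal.toReal_mono (ENNReal.add_ne_top.2 ⟨len_fin B t, ENNReal.ofReal_ne_top⟩) h2
  rw [ENNReal.toReal_add (len_fin B t) ENNReal.ofReal_ne_top, Real.volume_Icc,
    ENNReal.toReal_ofReal (by linarith), ENNReal.toReal_ofReal hm] at h3
  unfold len; linarith

theorem len_const {B : Set ℝ} {s t : ℝ} (hst : s ≤ t) (h : Ioc s t ⊆ B) : len B s = len B t := by
  refine le_antisymm (len_mono B hst) ?_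
  refine ENNReal.toReal_mono (len_fin B s) (measure_mono ?_)
  rintro x ⟨⟨h0, h1⟩, hB⟩
  refine ⟨⟨h0, ?_⟩, hB⟩
  by_contra hcon
  exact hB (h ⟨not_le.1 hcon, h1⟩)

theorem len_lt {B : Set ℝ} (hBc : IsClosed B) {s t : ℝ} (hst : s < t) (ht0 : 0 < t) (ht : t ∉ B) :
    len B s < len B t := by
  obtain ⟨ε, hε, hεB⟩ := Metric.isOpen_iff.1 hBc.isOpen_compl t ht
  set a : ℝ := max (max s 0) (t - ε / 2) with ha
  have hat : a < t := max_lt (max_lt hst ht0) (by linarith)
  have ha0 : 0 ≤ a := (le_max_right _ _).trans (le_max_left _ _)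
  have hsa : s ≤ a := (le_max_left _ _).trans (le_max_left _ _)
  have h1 : Ioc a t \ B = Ioc a t := by
    refine Subset.antisymm sdiff_subset fun x hx => ⟨hx, fun hxB => ?_⟩
    refine hεB (show x ∈ ball t ε from ?_) hxB
    rw [mem_ball, Real.dist_eq, abs_lt]
    have h2 : t - ε / 2 ≤ a := le_max_right _ _
    constructor
    · linarith [hx.1]
    · linarith [hx.2]
  have h2 := le_len_sub hBc.measurableSet ha0 hat.le
  rw [h1, Real.volume_Ioc, ENNReal.toReal_ofReal (by linarith)] at h2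
  have h3 := len_mono B hsa
  linarith

/-- **Collapse of finitely many bands.**  `κ` is monotone, `(1 + η)`-Lipschitz, `η`-close to the
identity on `[0,1]`, `= 0` on `(-∞, β]`, `= 1` on `[1 - β, ∞)`, constant on the `β`-bands around the
given values, and takes every other value exactly once. -/
theorem exists_collapse {n : ℕ} (y : Fin n → ℝ) {η : ℝ} (hη : 0 < η) :
    ∃ β0 > 0, ∀ β, 0 < β → β ≤ β0 → ∃ κ : ℝ → ℝ,
      Monotone κ ∧ (∀ s t, |κ s - κ t| ≤ (1 + η) * |s - t|) ∧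
      (∀ t ≤ β, κ t = 0) ∧ (∀ t, 1 - β ≤ t → κ t = 1) ∧
      (∀ j t, |t - y j| ≤ β → κ t = κ (y j)) ∧
      (∀ t ∈ Icc (0 : ℝ) 1, |κ t - t| ≤ η) ∧
      (∀ t, (∀ j, κ t ≠ κ (y j)) → κ t ≠ 0 → κ t ≠ 1 → ∀ s, (s < t ↔ κ s < κ t)) := by
  have hn : (0 : ℝ) ≤ n := Nat.cast_nonneg n
  refine ⟨η / (4 * (n + 1) * (1 + η)), by positivity, ?_⟩
  intro β hβ hβ0
  have hx : 2 * ((n : ℝ) + 1) * β * (1 + η) ≤ η / 2 := by
    rw [le_div_iff₀ (by positivity)] at hβ0
    nlinarith
  set x : ℝ := 2 * ((n : ℝ) + 1) * β with hxdef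
  have hx0 : 0 ≤ x := by positivity
  have hx1 : x ≤ 1 / 2 := by
    have : x * (1 + η) ≤ η / 2 := hx
    by_contra hcon
    push Not at hcon
    nlinarith
  set B : Set ℝ := (Iic β ∪ Ici (1 - β)) ∪ ⋃ j : Fin n, Icc (y j - β) (y j + β) with hB
  have hBc : IsClosed B := by
    refine (isClosed_Iic.union isClosed_Ici).union ?_
    exact isClosed_iUnion_of_finite fun j => isClosed_Icc
  have hBm : volume (Icc 0 1 ∩ B) ≤ ENNReal.ofReal x := by
    have h1 : Icc (0 : ℝ) 1 ∩ B ⊆ (Icc 0 β ∪ Icc (1 - β) 1) ∪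
        ⋃ j : Fin n, Icc (y j - β) (y j + β) := by
      rintro z ⟨⟨h0, h1⟩, (h | h) | h⟩
      · exact Or.inl (Or.inl ⟨h0, h⟩)
      · exact Or.inl (Or.inr ⟨h, h1⟩)
      · exact Or.inr h
    refine (measure_mono h1).trans ((measure_union_le _ _).trans ?_)
    have h2 : volume (Icc (0 : ℝ) β ∪ Icc (1 - β) 1) ≤ ENNReal.ofReal (2 * β) := by
      refine (measure_union_le _ _).trans ?_
      rw [Real.volume_Icc, Real.volume_Icc, ← ENNReal.ofReal_add (by linarith) (by linarith)]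
      exact ENNReal.ofReal_le_ofReal (by linarith)
    have h3 : volume (⋃ j : Fin n, Icc (y j - β) (y j + β)) ≤ ENNReal.ofReal (n * (2 * β)) := by
      refine (measure_iUnion_fintype_le _ _).trans ?_
      have h4 : ∀ j : Fin n, volume (Icc (y j - β) (y j + β)) = ENNReal.ofReal (2 * β) := by
        intro j
        rw [Real.volume_Icc]; congr 1; ring
      simp only [h4, Finset.sum_const, Finset.card_univ, Fintype.card_fin, nsmul_eq_mul]
      rw [ENNReal.ofReal_mul hn, ENNReal.ofReal_natCast]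
    refine (add_le_add h2 h3).trans ?_
    rw [← ENNReal.ofReal_add (by positivity) (by positivity)]
    refine ENNReal.ofReal_le_ofReal ?_
    rw [hxdef]; linarith
  have hL : 1 - x ≤ len B 1 := le_len zero_le_one hx0 hBm
  have hL1 : len B 1 ≤ 1 := len_le zero_le_one
  have hL0 : 0 < len B 1 := by linarith
  have hinv : 1 / len B 1 ≤ 1 + η := by
    rw [div_le_iff₀ hL0]
    nlinarith
  have hdef : ∀ t, len B t / len B 1 = len B t * (1 / len B 1) := fun t => by ring
  refine ⟨fun t => len B t / len B 1, ?_, ?_, ?_, ?_, ?_, ?_, ?_⟩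
  · exact fun s t hst => div_le_div_of_nonneg_right (len_mono B hst) hL0.le
  · intro s t
    have h1 : len B s / len B 1 - len B t / len B 1 = (len B s - len B t) * (1 / len B 1) := by
      ring
    rw [h1, abs_mul, abs_of_pos (show 0 < 1 / len B 1 by positivity), mul_comm]
    exact mul_le_mul hinv (len_lip s t) (abs_nonneg _) (by positivity)
  · intro t ht
    have h1 : len B t = 0 := by
      unfold len
      have : Icc 0 t \ B = ∅ := by
        rw [Set.eq_empty_iff_forall_notMem]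
        rintro z ⟨⟨-, h1⟩, h2⟩
        exact h2 (Or.inl (Or.inl (h1.trans ht)))
      rw [this]; simp
    simp [h1]
  · intro t ht
    have h1 : len B t = len B 1 := by
      have h2 : ∀ u, 1 - β ≤ u → len B (1 - β) = len B u := fun u hu =>
        len_const hu fun z hz => Or.inl (Or.inr hz.1.le)
      rw [← h2 t ht, ← h2 1 (by linarith)]
    simp only [h1]
    exact div_self hL0.ne'
  · intro j t ht
    rw [abs_le] at ht
    have h1 : ∀ u, |u - y j| ≤ β → len B (y j - β) = len B u := by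
      intro u hu
      rw [abs_le] at hu
      refine len_const (by linarith) fun z hz => Or.inr (mem_iUnion.2 ⟨j, hz.1.le, ?_⟩)
      linarith [hz.2]
    have h2 := h1 t (abs_le.2 ht)
    have h3 := h1 (y j) (by simpa using hβ.le)
    simp only
    rw [← h2, ← h3]
  · intro t ht
    have h1 : len B t ≤ t := len_le ht.1
    have h2 : t - x ≤ len B t := by
      refine le_len ht.1 hx0 ((measure_mono ?_).trans hBm)
      exact inter_subset_inter_left _ (Icc_subset_Icc_right ht.2)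
    have h3 : len B t ≤ len B t / len B 1 := by
      rw [le_div_iff₀ hL0]
      nlinarith [len_nonneg B t]
    have h4 : len B t / len B 1 ≤ len B t * (1 + η) := by
      rw [hdef]; exact mul_le_mul_of_nonneg_left hinv (len_nonneg B t)
    have h5 : x ≤ η := by
      nlinarith
    rw [abs_le]
    constructor
    · simp only; linarith
    · simp only
      have h6 : len B t * η ≤ 1 * η := mul_le_mul_of_nonneg_right (h1.trans ht.2) hη.le
      nlinarith
  · intro t h1 h2 h3 s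
    have hmono : Monotone fun t => len B t / len B 1 :=
      fun s t hst => div_le_div_of_nonneg_right (len_mono B hst) hL0.le
    have htB : t ∉ B := by
      rintro ((h | h) | h)
      · apply h2
        have h5 : len B t = 0 := by
          unfold len
          have : Icc 0 t \ B = ∅ := by
            rw [Set.eq_empty_iff_forall_notMem]
            rintro z ⟨⟨-, h1⟩, h2⟩
            exact h2 (Or.inl (Or.inl (h1.trans h)))
          rw [this]; simp
        simp [h5]
      · apply h3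
        have h5 : len B t = len B 1 := by
          have h2 : ∀ u, 1 - β ≤ u → len B (1 - β) = len B u := fun u hu =>
            len_const hu fun z hz => Or.inl (Or.inr hz.1.le)
          rw [← h2 t h, ← h2 1 (by linarith)]
        simp only [h5]
        exact div_self hL0.ne'
      · obtain ⟨j, hj⟩ := mem_iUnion.1 h
        apply h1 j
        have h5 : ∀ u ∈ Icc (y j - β) (y j + β), len B (y j - β) = len B u := by
          intro u hu
          refine len_const hu.1 fun z hz => Or.inr (mem_iUnion.2 ⟨j, hz.1.le, ?_⟩)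
          linarith [hz.2, hu.2]
        simp only
        rw [← h5 t hj, ← h5 (y j) ⟨by linarith, by linarith⟩]
    have ht0 : 0 < t := by
      by_contra hcon
      exact htB (Or.inl (Or.inl ((not_lt.1 hcon).trans hβ.le)))
    constructor
    · intro hst
      exact div_lt_div_of_pos_right (len_lt hBc hst ht0 htB) hL0
    · intro hlt
      by_contra hcon
      exact absurd hlt (not_lt.2 (hmono (not_lt.1 hcon)))

/-! ### composition at the pins -/

section Pins

variable {E : Type*} [NormedAddCommGroup E] [NormedSpace ℝ E]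
variable {Ω : Set E} {I : Type*} [PartialOrder I] {dim : I → ℕ} {K : I → Set E}

/-- **Labels at the pins, exact form**: `F` is constant on the cells meeting the arc `A`, the points
of `P` lie on used levels `Lv`, no used level is a value of `F` on `A`. -/
theorem pin_labels_const (C : Cplx Ω I dim K) {J : Set I} {A : Set E}
    (hA : IsCompact A) (hAc : IsPreconnected A) (hAJ : A ⊆ ⋃ i ∈ J, K i)
    {κ Y : Type*} {s : κ → Y → ℝ} {F : E → Y} {y : Y}
    (hF : ∀ i ∈ J, (K i ∩ A).Nonempty → ∀ z ∈ K i, F z = y)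
    {Lv : Set (κ × ℝ)} (hLv : ∀ q ∈ Lv, s q.1 y ≠ q.2)
    {P : Set E} (hP : ∀ w ∈ P, ∀ i ∈ J, w ∈ K i → ∃ q ∈ Lv, s q.1 (F w) = q.2)
    {lam : κ × ℝ → I → Prop}
    (hlam : ∀ q ∈ Lv, ∀ e, dim e = 1 → Disjoint (K e) P → ∀ v ≤ e, ∀ w ≤ e, dim v = 0 →
      dim w = 0 → (lam q v ↔ lam q w))
    {i0 v0 : I} (hi0 : i0 ∈ J) (hi0A : (K i0 ∩ A).Nonempty) (hv0 : v0 ≤ i0) (hd : dim v0 = 0)
    (hlab : ∀ q ∈ Lv, (lam q v0 ↔ s q.1 y < q.2))
    {i v : I} (hi : i ∈ J) (hiA : (K i ∩ A).Nonempty) (hv : v ≤ i) (hdv : dim v = 0)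
    {q : κ × ℝ} (hq : q ∈ Lv) : lam q v ↔ s q.1 y < q.2 := by
  have hclean : Clean dim K J A P := by
    intro m hm hmA j hj _
    rw [Set.disjoint_left]
    intro w hwj hwP
    have hwm : w ∈ K m := C.subset hj hwj
    obtain ⟨q', hq', h1⟩ := hP w hwP m hm hwm
    rw [hF m hm hmA w hwm] at h1
    exact hLv q' hq' h1
  have h := label_const C hA hAc hAJ hclean (κ := Prop) (lam := lam q)
    (fun e he hd v hv w hw h1 h2 => propext (hlam q hq e he hd v hv w hw h1 h2))
    hi hiA hv hdv hi0 hi0A hv0 hd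
  rw [h]
  exact hlab q hq

/-- **From labels to distance in `Y`.** -/
theorem edist_le_of_labels {κ Y : Type*} [PseudoEMetricSpace Y] {s : κ → Y → ℝ}
    (h01 : ∀ c u, s c u ∈ Icc (0 : ℝ) 1) {Lv : Set (κ × ℝ)} {u w : Y}
    (h : ∀ q ∈ Lv, (s q.1 u < q.2 ↔ s q.1 w < q.2)) {γ : ℝ}
    (hrich : ∀ c, ∀ a ∈ Icc (0 : ℝ) 1, ∀ e ∈ Icc (0 : ℝ) 1, a + γ < e →
      ∃ t, (c, t) ∈ Lv ∧ a < t ∧ t ≤ e)
    {ε : ENNReal} (hmod : (∀ c, |s c u - s c w| ≤ γ) → edist u w ≤ ε) : edist u w ≤ ε := by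
  refine hmod fun c => ?_
  refine gap_Icc (L := {t | (c, t) ∈ Lv}) (h01 c u) (h01 c w) (fun t ht => h (c, t) ht) ?_
  intro a ha e he hae
  obtain ⟨t, ht, h1, h2⟩ := hrich c a ha e he hae
  exact ⟨t, ht, h1, h2⟩

/-- grid levels with an offset are rich -/
theorem grid_rich {m : ℝ} (hm : 0 < m) {θ a e : ℝ} (ha : 0 ≤ a) (h1 : θ < 1) (he : e ≤ 1)
    (hae : a + 1 / m < e) : ∃ k : ℕ, a < (k + θ) / m ∧ (k + θ) / m ≤ e ∧ (k + θ) / m < 1 := by
  have hm1 : m * (1 / m) = 1 := by field_simp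
  have hme : m * a + 1 < m * e := by
    have := mul_lt_mul_of_pos_left hae hm
    rw [mul_add, hm1] at this
    exact this
  rcases lt_or_ge (m * a - θ) 0 with h | h
  · refine ⟨0, ?_, ?_, ?_⟩
    · rw [lt_div_iff₀ hm]; push_cast; linarith [mul_comm a m]
    · rw [div_le_iff₀ hm]; push_cast; nlinarith [mul_nonneg hm.le ha, mul_comm e m]
    · rw [div_lt_iff₀ hm]; push_cast
      nlinarith [mul_nonneg hm.le ha, mul_le_mul_of_nonneg_left he hm.le]
  · refine ⟨⌊m * a - θ⌋₊ + 1, ?_, ?_, ?_⟩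
    · rw [lt_div_iff₀ hm]; push_cast
      have := Nat.lt_floor_add_one (m * a - θ)
      linarith [mul_comm a m]
    · rw [div_le_iff₀ hm]; push_cast
      have := Nat.floor_le h
      linarith [mul_comm e m]
    · rw [div_lt_iff₀ hm]; push_cast
      have := Nat.floor_le h
      nlinarith [mul_le_mul_of_nonneg_left he hm.le]

/-- **(C4) PINS, composition.**  `S` finite set of pins, `A x` a compact connected set through the
pin `x` (fibre arc, stopped at the core).  The (collapsed) map `F` is constant on the mesh cells which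
meet `A x`; the crossing points `P` of the final sheets lie on used levels of `F`; the labels
`lam q v` of the final state change along an edge only if the edge carries a point of `P` and are
exact at one vertex of the rope; `G v` is a point of `Y` whose coordinates have the labels of `v`.
Then `G` is close to `F` at all vertices of all cells meeting `A x`, in particular of every cell which
contains the pin. -/
theorem pin_close (C : Cplx Ω I dim K) {J : Set I} {S : Set E} {A : E → Set E}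
    (hA : ∀ x ∈ S, IsCompact (A x)) (hAc : ∀ x ∈ S, IsPreconnected (A x))
    (hAJ : ∀ x ∈ S, A x ⊆ ⋃ i ∈ J, K i)
    {κ Y : Type*} [PseudoEMetricSpace Y] {s : κ → Y → ℝ}
    (h01 : ∀ c u, s c u ∈ Icc (0 : ℝ) 1) {F : E → Y}
    (hF : ∀ x ∈ S, ∀ i ∈ J, (K i ∩ A x).Nonempty → ∀ z ∈ K i, F z = F x)
    {Lv : Set (κ × ℝ)} (hLv : ∀ x ∈ S, ∀ q ∈ Lv, s q.1 (F x) ≠ q.2)
    {P : Set E} (hP : ∀ w ∈ P, ∀ i ∈ J, w ∈ K i → ∃ q ∈ Lv, s q.1 (F w) = q.2)
    {lam : κ × ℝ → I → Prop}
    (hlam : ∀ q ∈ Lv, ∀ e, dim e = 1 → Disjoint (K e) P → ∀ v ≤ e, ∀ w ≤ e, dim v = 0 →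
      dim w = 0 → (lam q v ↔ lam q w))
    (hstart : ∀ x ∈ S, ∃ i ∈ J, (K i ∩ A x).Nonempty ∧ ∃ v ≤ i, dim v = 0 ∧
      ∀ q ∈ Lv, (lam q v ↔ s q.1 (F x) < q.2))
    {G : I → Y} (hG : ∀ q ∈ Lv, ∀ v, dim v = 0 → (lam q v ↔ s q.1 (G v) < q.2))
    {γ : ℝ} (hrich : ∀ c, ∀ a ∈ Icc (0 : ℝ) 1, ∀ e ∈ Icc (0 : ℝ) 1, a + γ < e →
      ∃ t, (c, t) ∈ Lv ∧ a < t ∧ t ≤ e)
    {ε : ENNReal} (hmod : ∀ x ∈ S, ∀ u, (∀ c, |s c u - s c (F x)| ≤ γ) → edist u (F x) ≤ ε)
    {x : E} (hx : x ∈ S) {i v : I} (hi : i ∈ J) (hiA : (K i ∩ A x).Nonempty) (hv : v ≤ i)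
    (hdv : dim v = 0) : edist (G v) (F x) ≤ ε := by
  obtain ⟨i0, hi0, hi0A, v0, hv0, hd0, hlab⟩ := hstart x hx
  refine edist_le_of_labels h01 (Lv := Lv) (u := G v) (w := F x) (fun q hq => ?_) hrich
    (hmod x hx (G v))
  rw [← hG q hq v hdv]
  exact pin_labels_const C (hA x hx) (hAc x hx) (hAJ x hx) (hF x hx) (hLv x hx) hP hlam hi0 hi0A
    hv0 hd0 hlab hi hiA hv hdv hq

/-- **(C4'), version with slack** (doors: inside the macro cubes the crossing points are only within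
`d0` of a used level and the start labels are exact for the value `y`).  `s c (F x) = y x c` before
the collapse, `u` = collapse of the coordinates; `G` has the labels in the collapsed coordinates. -/
theorem pin_close' (C : Cplx Ω I dim K) {J : Set I} {S : Set E} {A : E → Set E}
    (hA : ∀ x ∈ S, IsCompact (A x)) (hAc : ∀ x ∈ S, IsPreconnected (A x))
    (hAJ : ∀ x ∈ S, A x ⊆ ⋃ i ∈ J, K i)
    {κ Y : Type*} [PseudoEMetricSpace Y] {s : κ → Y → ℝ}
    (h01 : ∀ c u, s c u ∈ Icc (0 : ℝ) 1)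
    {σ : κ → E → ℝ} {y : E → κ → ℝ} {b d0 : ℝ}
    (hosc : ∀ x ∈ S, ∀ i ∈ J, (K i ∩ A x).Nonempty → ∀ z ∈ K i, ∀ c, |σ c z - y x c| < b)
    {Lv : Set (κ × ℝ)} (hLv : ∀ x ∈ S, ∀ q ∈ Lv, b + d0 ≤ |q.2 - y x q.1|)
    {P : Set E} (hP : ∀ w ∈ P, ∀ i ∈ J, w ∈ K i → ∃ q ∈ Lv, |σ q.1 w - q.2| ≤ d0)
    {lam : κ × ℝ → I → Prop}
    (hlam : ∀ q ∈ Lv, ∀ e, dim e = 1 → Disjoint (K e) P → ∀ v ≤ e, ∀ w ≤ e, dim v = 0 →
      dim w = 0 → (lam q v ↔ lam q w))
    (hstart : ∀ x ∈ S, ∃ i ∈ J, (K i ∩ A x).Nonempty ∧ ∃ v ≤ i, dim v = 0 ∧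
      ∀ q ∈ Lv, (lam q v ↔ y x q.1 < q.2))
    {u : ℝ → ℝ} (hu : ∀ q ∈ Lv, ∀ t, (t < q.2 ↔ u t < u q.2))
    {F' : E → Y} (hF' : ∀ x ∈ S, ∀ c, s c (F' x) = u (y x c))
    {G : I → Y} (hG : ∀ q ∈ Lv, ∀ v, dim v = 0 → (lam q v ↔ s q.1 (G v) < u q.2))
    {γ : ℝ} (hrich : ∀ c, ∀ a ∈ Icc (0 : ℝ) 1, ∀ e ∈ Icc (0 : ℝ) 1, a + γ < e →
      ∃ t, (c, t) ∈ Lv ∧ a < u t ∧ u t ≤ e)
    {ε : ENNReal} (hmod : ∀ x ∈ S, ∀ w, (∀ c, |s c w - s c (F' x)| ≤ γ) → edist w (F' x) ≤ ε)
    {x : E} (hx : x ∈ S) {i v : I} (hi : i ∈ J) (hiA : (K i ∩ A x).Nonempty) (hv : v ≤ i)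
    (hdv : dim v = 0) : edist (G v) (F' x) ≤ ε := by
  obtain ⟨i0, hi0, hi0A, v0, hv0, hd0', hlab⟩ := hstart x hx
  have hclean : Clean dim K J (A x) P := by
    intro m hm hmA j hj _
    rw [Set.disjoint_left]
    intro w hwj hwP
    have hwm : w ∈ K m := C.subset hj hwj
    obtain ⟨q', hq', h1⟩ := hP w hwP m hm hwm
    have h2 := hosc x hx m hm hmA w hwm q'.1
    have h3 := hLv x hx q' hq'
    have h4 : |q'.2 - y x q'.1| ≤ |σ q'.1 w - q'.2| + |σ q'.1 w - y x q'.1| := by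
      have := abs_sub_le q'.2 (σ q'.1 w) (y x q'.1)
      rw [abs_sub_comm q'.2 (σ q'.1 w)] at this
      exact this
    linarith
  refine edist_le_of_labels h01 (Lv := {q | ∃ t, (q.1, t) ∈ Lv ∧ q.2 = u t}) (u := G v)
    (w := F' x) ?_ ?_ (hmod x hx (G v))
  · rintro ⟨c, t'⟩ ⟨t, ht, ht'⟩
    simp only at ht ht' ⊢
    rw [ht', ← hG (c, t) ht v hdv, hF' x hx c, ← hu (c, t) ht (y x c)]
    have h := label_const C (hA x hx) (hAc x hx) (hAJ x hx) hclean (κ := Prop) (lam := lam (c, t))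
      (fun e he hd v hv w hw h1 h2 => propext (hlam (c, t) ht e he hd v hv w hw h1 h2))
      hi hiA hv hdv hi0 hi0A hv0 hd0'
    rw [h]
    exact hlab (c, t) ht
  · intro c a ha e he hae
    obtain ⟨t, ht, h1, h2⟩ := hrich c a ha e he hae
    exact ⟨u t, ⟨t, ht, rfl⟩, h1, h2⟩

/-- **Constancy near the arcs** from `exists_delta` and the collapse: if `|s c (F z) - s c (F x)| < β`
for all `c` on the cells meeting the arc, the collapsed coordinates are constant there. -/
theorem collapse_const {κ : Type*} {n : ℕ} {yv : Fin n → ℝ} {β : ℝ} {u : ℝ → ℝ}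
    (hu0 : ∀ t ≤ β, u t = 0) (hu1 : ∀ t, 1 - β ≤ t → u t = 1)
    (huj : ∀ j t, |t - yv j| ≤ β → u t = u (yv j)) {y z : κ → ℝ} (hβ : 0 ≤ β)
    (hy : ∀ c, y c = 0 ∨ y c = 1 ∨ ∃ j, y c = yv j) (hz : ∀ c, |z c - y c| ≤ β) (c : κ) :
    u (z c) = u (y c) := by
  have h := hz c
  rcases hy c with h1 | h1 | ⟨j, h1⟩
  · rw [h1] at h ⊢
    rw [hu0 0 hβ, hu0 _ (by linarith [(abs_le.1 h).2])]
  · rw [h1] at h ⊢
    rw [hu1 1 (by linarith), hu1 _ (by linarith [(abs_le.1 h).1])]
  · rw [h1] at h ⊢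
    exact huj j _ h

end Pins

end Crest.Agent.R096.Clo_441
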