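import Crest.Agent.R096.Clo3_441
import Crest.Agent.R096.Msh3_715

/-!
# Row 96, (U6) CLOSE, part 5 (helper441): the 1-skeleton of a connected union of closed cells

For every `Cplx` (537) and every tiling (715): if `A` is compact, preconnected and a union of closed
cells, then a function of the vertices which is constant along the 1-cells contained in `A` is
constant on the vertices in `A`; any two vertices in `A` are joined by a chain of 1-cells in `A`;
if `A` is nonempty it contains a vertex.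
-/

set_option autoImplicit false
set_option linter.unusedSectionVars false

open Set Metric Relation
open Crest.Agent.R096.Ce_537

namespace Crest.Agent.R096.Clo_441

variable {E : Type*} [NormedAddCommGroup E] [NormedSpace ℝ E]
variable {Ω : Set E} {I : Type*} [PartialOrder I] {dim : I → ℕ} {K : I → Set E}

/-- **A function of the vertices which is constant along the 1-cells contained in a compact connected
union `A` of closed cells is constant on the vertices in `A`.** -/
theorem const_of_edges (C : Cplx Ω I dim K) {A : Set E} (hA : IsCompact A)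
    (hAc : IsPreconnected A) (hU : ∀ x ∈ A, ∃ i, x ∈ K i ∧ K i ⊆ A) {κ : Type*} {lam : I → κ}
    (hlam : ∀ e, dim e = 1 → K e ⊆ A → ∀ v ≤ e, ∀ w ≤ e, dim v = 0 → dim w = 0 → lam v = lam w)
    {v w : I} (hv0 : dim v = 0) (hv : K v ⊆ A) (hw0 : dim w = 0) (hw : K w ⊆ A) :
    lam v = lam w := by
  have hAJ : A ⊆ ⋃ i ∈ {i | K i ⊆ A}, K i := by
    intro x hx
    obtain ⟨i, hi, hiA⟩ := hU x hx
    exact mem_biUnion (show i ∈ {i | K i ⊆ A} from hiA) hi
  have hne : ∀ {u : I}, K u ⊆ A → (K u ∩ A).Nonempty := by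
    intro u hu
    obtain ⟨z, hz⟩ := (C.isBall u).nonempty
    exact ⟨z, hz, hu hz⟩
  refine label_const C hA hAc hAJ (P := Aᶜ) ?_ ?_ (i := v) (i' := w) hv (hne hv) le_rfl hv0 hw
    (hne hw) le_rfl hw0
  · intro i hi _ j hj _
    exact disjoint_compl_right_iff_subset.2 ((C.subset hj).trans hi)
  · intro e he hd a ha b hb ha0 hb0
    exact hlam e he (disjoint_compl_right_iff_subset.1 hd) a ha b hb ha0 hb0

/-- two vertices joined by a 1-cell inside `A` -/
def EdgeIn (dim : I → ℕ) (K : I → Set E) (A : Set E) (a b : I) : Prop :=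
  ∃ e, dim e = 1 ∧ K e ⊆ A ∧ a ≤ e ∧ b ≤ e ∧ dim a = 0 ∧ dim b = 0

/-- **The 1-skeleton of a compact connected union of closed cells is connected** (chain form). -/
theorem chain_of_union (C : Cplx Ω I dim K) {A : Set E} (hA : IsCompact A)
    (hAc : IsPreconnected A) (hU : ∀ x ∈ A, ∃ i, x ∈ K i ∧ K i ⊆ A)
    {v w : I} (hv0 : dim v = 0) (hv : K v ⊆ A) (hw0 : dim w = 0) (hw : K w ⊆ A) :
    ReflTransGen (EdgeIn dim K A) v w := by
  have h := const_of_edges C hA hAc hU (lam := fun b => ReflTransGen (EdgeIn dim K A) v b) ?_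
    hv0 hv hw0 hw
  · exact h ▸ (ReflTransGen.refl : ReflTransGen (EdgeIn dim K A) v v)
  · intro e he hKe a ha b hb ha0 hb0
    refine propext ⟨fun h => h.tail ⟨e, he, hKe, ha, hb, ha0, hb0⟩,
      fun h => h.tail ⟨e, he, hKe, hb, ha, hb0, ha0⟩⟩

/-- a nonempty union of closed cells contains a vertex -/
theorem exists_vertex_in (C : Cplx Ω I dim K) {A : Set E} (hne : A.Nonempty)
    (hU : ∀ x ∈ A, ∃ i, x ∈ K i ∧ K i ⊆ A) : ∃ v, dim v = 0 ∧ K v ⊆ A := by
  obtain ⟨x, hx⟩ := hne
  obtain ⟨i, -, hi⟩ := hU x hx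
  obtain ⟨v, hv, hv0⟩ := exists_vertex C i
  exact ⟨v, hv0, (C.subset hv).trans hi⟩

/-! ### tilings -/

section Tiling

open Crest.Agent.R096.Msh_715

variable [FiniteDimensional ℝ E] {Om : Set E} {ι : Type*} (T : Tiling Om ι)

theorem mem_cc_iff_zero {v : E} (hv : T.dim v = 0) : T.cc v = {v} :=
  T.cc_eq_singleton (T.dim_eq_zero_iff.1 hv)

/-- the point of a vertex cell -/
theorem pt_of_zero {v : E} (hv : v ∈ Om) (h0 : T.dim v = 0) : (T.cl hv).pt = v := by
  have h := T.pt_cl hv
  have h2 := T.oc_sub_cc v h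
  rw [mem_cc_iff_zero T h0, mem_singleton_iff] at h2
  exact h2

/-- **tilings**: a function of the vertices constant along the 1-cells contained in a compact
preconnected union `A` of closed cells is constant on the vertices in `A`. -/
theorem tiling_const {A : Set E} (hA : IsCompact A) (hAc : IsPreconnected A) (hAO : A ⊆ Om)
    (hU : ∀ x ∈ A, T.cc x ⊆ A) {κ : Type*} {lam : E → κ}
    (hlam : ∀ w ∈ A, T.dim w = 1 → ∀ v ∈ T.cc w, ∀ v' ∈ T.cc w, T.dim v = 0 →
      T.dim v' = 0 → lam v = lam v')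
    {v v' : E} (hv : v ∈ A) (hv0 : T.dim v = 0) (hv' : v' ∈ A) (hv0' : T.dim v' = 0) :
    lam v = lam v' := by
  have hU' : ∀ x ∈ A, ∃ i : T.Cell, x ∈ i.set ∧ i.set ⊆ A := fun x hx =>
    ⟨T.cl (hAO hx), T.self_mem_cc x, hU x hx⟩
  have h := const_of_edges T.cplx hA hAc hU' (lam := fun c : T.Cell => lam c.pt) ?_
    (v := T.cl (hAO hv)) (w := T.cl (hAO hv')) ((T.dim_cl _).trans hv0) (hU v hv)
    ((T.dim_cl _).trans hv0') (hU v' hv')
  · simpa only [pt_of_zero T _ hv0, pt_of_zero T _ hv0'] using h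
  · intro e he hKe a ha b hb ha0 hb0
    have hset : e.set = T.cc e.pt := e.set_eq
    have hpt : e.pt ∈ A := hKe (by rw [hset]; exact T.self_mem_cc _)
    have hmem : ∀ {c : T.Cell}, c ≤ e → c.pt ∈ T.cc e.pt := by
      intro c hc
      have h1 : c.pt ∈ c.set := by rw [c.set_eq]; exact T.self_mem_cc _
      have h2 : c.pt ∈ e.set := hc h1
      rwa [hset] at h2
    exact hlam e.pt hpt he a.pt (hmem ha) b.pt (hmem hb) ha0 hb0

/-- two vertices of a tiling joined by a 1-cell inside `A` -/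
def TEdge (A : Set E) (a b : E) : Prop :=
  ∃ w ∈ A, T.dim w = 1 ∧ T.cc w ⊆ A ∧ T.cc w = segment ℝ a b ∧ T.dim a = 0 ∧ T.dim b = 0 ∧ a ≠ b

theorem ends_unique {Om : Set E} {ι : Type*} (T : Tiling Om ι) {w a b : E} (hw : w ∈ Om)
    (hw1 : T.dim w = 1) (hseg : T.cc w = segment ℝ a b) (ha0 : T.dim a = 0) (hb0 : T.dim b = 0)
    {c : E} (hc : c ∈ T.cc w) (hc0 : T.dim c = 0) : c = a ∨ c = b := by
  obtain ⟨p, q, hpq, hseg', hoc, -, -, -, -⟩ := T.edge_eq hw hw1
  have hends : ∀ {c : E}, c ∈ T.cc w → T.dim c = 0 → c = p ∨ c = q := by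
    intro c hc hc0
    by_contra hcon
    push Not at hcon
    rw [hseg'] at hc
    have h1 : c ∈ T.oc w := by
      rw [hoc]
      exact mem_openSegment_of_ne_left_right (Ne.symm hcon.1) (Ne.symm hcon.2) hc
    have h2 := T.dim_eq_of_mem_oc hw h1
    omega
  have ha : a ∈ T.cc w := by rw [hseg]; exact left_mem_segment ℝ a b
  have hb : b ∈ T.cc w := by rw [hseg]; exact right_mem_segment ℝ a b
  have hab : a ≠ b := by
    rintro rfl
    rw [hseg, segment_same] at hseg'
    have h1 : p ∈ ({a} : Set E) := hseg' ▸ left_mem_segment ℝ p q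
    have h2 : q ∈ ({a} : Set E) := hseg' ▸ right_mem_segment ℝ p q
    exact hpq ((mem_singleton_iff.1 h1).trans (mem_singleton_iff.1 h2).symm)
  rcases hends hc hc0 with rfl | rfl <;> rcases hends ha ha0 with rfl | rfl <;>
    rcases hends hb hb0 with rfl | rfl <;> simp_all

/-- **chain form for tilings**: any two vertices in `A` are joined by 1-cells in `A`. -/
theorem tiling_chain {A : Set E} (hA : IsCompact A) (hAc : IsPreconnected A) (hAO : A ⊆ Om)
    (hU : ∀ x ∈ A, T.cc x ⊆ A) {v v' : E} (hv : v ∈ A) (hv0 : T.dim v = 0) (hv' : v' ∈ A)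
    (hv0' : T.dim v' = 0) : ReflTransGen (TEdge T A) v v' := by
  have h := tiling_const T hA hAc hAO hU (lam := fun b => ReflTransGen (TEdge T A) v b) ?_
    hv hv0 hv' hv0'
  · exact h ▸ (ReflTransGen.refl : ReflTransGen (TEdge T A) v v)
  · intro w hw hw1 a ha b hb ha0 hb0
    obtain ⟨p, q, hpq, hseg, hoc, -, -, -, -⟩ := T.edge_eq (hAO hw) hw1
    -- the only vertices of the 1-cell are `p` and `q`
    have hends : ∀ {c : E}, c ∈ T.cc w → T.dim c = 0 → c = p ∨ c = q := by
      intro c hc hc0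
      by_contra hcon
      push Not at hcon
      rw [hseg] at hc
      have h1 : c ∈ T.oc w := by
        rw [hoc]
        exact mem_openSegment_of_ne_left_right (Ne.symm hcon.1) (Ne.symm hcon.2) hc
      have h2 := T.dim_eq_of_mem_oc (hAO hw) h1
      omega
    have hstep : ∀ {c d : E}, c ∈ T.cc w → d ∈ T.cc w → T.dim c = 0 → T.dim d = 0 → c ≠ d →
        TEdge T A c d := by
      intro c d hc hd hc0 hd0 hcd
      refine ⟨w, hw, hw1, hU w hw, ?_, hc0, hd0, hcd⟩
      rcases hends hc hc0 with rfl | rfl <;> rcases hends hd hd0 with rfl | rfl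
      · exact absurd rfl hcd
      · exact hseg
      · rw [hseg, segment_symm]
      · exact absurd rfl hcd
    by_cases hab : a = b
    · rw [hab]
    · exact propext ⟨fun h => h.tail (hstep ha hb ha0 hb0 hab),
        fun h => h.tail (hstep hb ha hb0 ha0 (Ne.symm hab))⟩

end Tiling

end Crest.Agent.R096.Clo_441
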