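import Crest.Agent.R96.Blk4_324

/-!
# Row 96, (U6) CLOSE, part 6 (helper441): (C5), from the vertices to whole cells

`Wc b T g r a z` = sum of the edge integrals of `g` over the edges `e`-translates of the cell of `z`.
`cells_small` : for small `r` and most translates `a` the set where `Wc > ε` is small.
`bulk_cont` : 324's `bulkE` for maps `Gc` defined on whole cells.
-/

set_option autoImplicit false
set_option linter.unusedSectionVars false

open MeasureTheory Set Filter Function Topology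
open scoped ENNReal

namespace Crest.Agent.R096.Clo_441

open Crest.Agent.R96.Blk_324

variable {d : ℕ} {E : Type*} [NormedAddCommGroup E] [NormedSpace ℝ E] [FiniteDimensional ℝ E]

/-- sum of the edge integrals of `g` over the edges in the directions `b i` at the vertices
`cell of z + e`, `e ∈ T` -/
noncomputable def Wc (b : Module.Basis (Fin d) ℝ E) (T : Finset (Fin d → ℤ)) (g : E → ℝ≥0∞) (r : ℝ)
    (a z : E) : ℝ≥0∞ :=
  ∑ e ∈ T, ∑ i : Fin d, ∫⁻ s in Ioc 0 r, g (vtE b r a (clE b r a z + e) + s • b i)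

theorem vtE_add (b : Module.Basis (Fin d) ℝ E) (r : ℝ) (a : E) (k e : Fin d → ℤ) :
    vtE b r a (k + e) = vtE b r a k + r • ∑ i, (e i : ℝ) • b i := by
  simp only [vtE, Pi.add_apply, Int.cast_add, add_smul, Finset.sum_add_distrib, smul_add, add_assoc]

variable [MeasurableSpace E] [BorelSpace E]

theorem measurableSet_tbE (b : Module.Basis (Fin d) ℝ E) (r : ℝ) : MeasurableSet (tbE b r) := by
  rw [← tb_Lc]
  exact (measurableSet_tb r).preimage (Lc b).continuous.measurable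

/-- the box of the points `w` with `z ∈ w + [0,r)^d` -/
def bx (b : Module.Basis (Fin d) ℝ E) (r : ℝ) (z : E) : Set E :=
  {w | ∀ i, b.repr w i ∈ Ioc (b.repr z i - r) (b.repr z i)}

theorem bx_eq (b : Module.Basis (Fin d) ℝ E) (r : ℝ) (z : E) :
    bx b r z = (fun w => z - w) ⁻¹' (tbE b r) := by
  ext w
  simp only [bx, mem_ofPred_eq, tbE, mem_preimage, map_sub, Finsupp.sub_apply, mem_Ioc, mem_Ico]
  refine forall_congr' fun i => ?_
  constructor
  · rintro ⟨h1, h2⟩; constructor <;> linarith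
  · rintro ⟨h1, h2⟩; constructor <;> linarith

/-- **law of the rounding** in `E` -/
theorem lintegral_rnd (b : Module.Basis (Fin d) ℝ E) (μ : Measure E) [μ.IsAddHaarMeasure] {r : ℝ}
    (hr : 0 < r) (z : E) {h : E → ℝ≥0∞} (hh : Measurable h) :
    ∫⁻ a in tbE b r, h (vtE b r a (clE b r a z)) ∂μ = ∫⁻ w in bx b r z, h w ∂μ := by
  set L := Lc b with hL
  set ν : Measure (Fin d → ℝ) := μ.map L with hν
  have hνH : ν.IsAddHaarMeasure := L.isAddHaarMeasure_map μ
  set c : ℝ≥0∞ := (Measure.addHaarScalarFactor ν volume : ℝ≥0∞) with hc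
  have hνc : ν = c • (volume : Measure (Fin d → ℝ)) :=
    Measure.isAddLeftInvariant_eq_smul ν (volume : Measure (Fin d → ℝ))
  have hmL : Measurable L := L.continuous.measurable
  have hmLs : Measurable L.symm := L.symm.continuous.measurable
  have key : ∀ (S : Set (Fin d → ℝ)) (hS : MeasurableSet S) (f : (Fin d → ℝ) → ℝ≥0∞)
      (hf : Measurable f), ∫⁻ a in L ⁻¹' S, f (L a) ∂μ = c * ∫⁻ v in S, f v := by
    intro S hS f hf
    rw [← setLIntegral_map hS hf hmL, ← hν, hνc, Measure.restrict_smul, lintegral_smul_measure,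
      smul_eq_mul]
  have h1 : ∫⁻ a in tbE b r, h (vtE b r a (clE b r a z)) ∂μ =
      c * ∫⁻ v in tb d r, h (L.symm (vt r v (cl r v (L z)))) := by
    rw [← tb_Lc, ← key (tb d r) (measurableSet_tb r)
      (fun v => h (L.symm (vt r v (cl r v (L z))))) ?_]
    · simp only [hL, cl_Lc, symm_vt]
    · have h2 := (measurable_rnd (d := d) r).comp
        (measurable_id.prodMk (measurable_const : Measurable fun _ : Fin d → ℝ => L z))
      exact hh.comp (hmLs.comp h2)
  have h2 : ∫⁻ w in bx b r z, h w ∂μ =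
      c * ∫⁻ v in univ.pi (fun j => Ioc (L z j - r) (L z j)), h (L.symm v) := by
    have h3 : bx b r z = L ⁻¹' univ.pi (fun j => Ioc (L z j - r) (L z j)) := by
      ext w
      simp only [bx, mem_ofPred_eq, mem_preimage, mem_univ_pi, hL, Lc_apply]
    rw [h3, ← key _ (MeasurableSet.univ_pi fun j => measurableSet_Ioc) (fun v => h (L.symm v))
      (hh.comp hmLs)]
    simp only [ContinuousLinearEquiv.symm_apply_apply]
  have hmr : Measurable fun a : Fin d → ℝ => vt r a (cl r a (L z)) :=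
    (measurable_rnd (d := d) r).comp
      (measurable_id.prodMk (measurable_const : Measurable fun _ : Fin d → ℝ => L z))
  have h4 : ∫⁻ v in univ.pi (fun j => Ioc (L z j - r) (L z j)), h (L.symm v) =
      ∫⁻ v in tb d r, h (L.symm (vt r v (cl r v (L z)))) := by
    have hf : Measurable fun v => h (L.symm v) := hh.comp hmLs
    rw [← map_rnd hr (L z), lintegral_map hf hmr]
  rw [h1, h2, h4]

theorem measurable_rndE (b : Module.Basis (Fin d) ℝ E) (r : ℝ) (e : Fin d → ℤ) :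
    Measurable (fun p : E × E => vtE b r p.1 (clE b r p.1 p.2 + e)) := by
  have h1 : (fun p : E × E => vtE b r p.1 (clE b r p.1 p.2 + e)) = fun p : E × E =>
      (Lc b).symm (vt r (Lc b p.1) (cl r (Lc b p.1) (Lc b p.2))) + r • ∑ i, (e i : ℝ) • b i := by
    funext p
    rw [vtE_add, cl_Lc, symm_vt]
  rw [h1]
  refine Measurable.add_const ?_ _
  have h2 : Measurable (fun p : E × E => (Lc b p.1, Lc b p.2)) :=
    ((Lc b).continuous.measurable.comp measurable_fst).prodMk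
      ((Lc b).continuous.measurable.comp measurable_snd)
  exact (Lc b).symm.continuous.measurable.comp ((measurable_rnd (d := d) r).comp h2)

theorem measurable_seg {g : E → ℝ≥0∞} (hg : Measurable g) (v : E) (r : ℝ) :
    Measurable (fun w : E => ∫⁻ s in Ioc 0 r, g (w + s • v)) := by
  have : Measurable (fun p : E × ℝ => g (p.1 + p.2 • v)) := by
    refine hg.comp (measurable_fst.add ?_)
    exact (measurable_snd.smul_const v)
  exact this.lintegral_prod_right'

theorem measurable_Wc (b : Module.Basis (Fin d) ℝ E) (T : Finset (Fin d → ℤ)) {g : E → ℝ≥0∞}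
    (hg : Measurable g) (r : ℝ) : Measurable (fun p : E × E => Wc b T g r p.1 p.2) := by
  unfold Wc
  refine Finset.measurable_sum _ fun e _ => Finset.measurable_sum _ fun i _ => ?_
  exact (measurable_seg hg (b i) r).comp (measurable_rndE b r e)

theorem measurable_Wc_right (b : Module.Basis (Fin d) ℝ E) (T : Finset (Fin d → ℤ))
    {g : E → ℝ≥0∞} (hg : Measurable g) (r : ℝ) (a : E) : Measurable fun z => Wc b T g r a z := by
  have h : Measurable fun z : E => (a, z) := measurable_const.prodMk measurable_id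
  have h2 := (measurable_Wc b T hg r).comp h
  exact h2

/-- **average of the cell sums** -/
theorem avg_Wc (b : Module.Basis (Fin d) ℝ E) (μ : Measure E) [μ.IsAddHaarMeasure]
    (T : Finset (Fin d → ℤ)) {g : E → ℝ≥0∞} (hg : Measurable g) {r : ℝ} (hr : 0 < r)
    {X U : Set E} (hU : MeasurableSet U)
    (hXU : ∀ z ∈ X, ∀ t ∈ tbE b r, ∀ e ∈ T, ∀ i, ∀ s ∈ Ioc 0 r,
      z - t + r • ∑ j, (e j : ℝ) • b j + s • b i ∈ U) :
    ∫⁻ a in tbE b r, ∫⁻ z in X, Wc b T g r a z ∂μ ∂μ ≤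
      T.card * (d * (ENNReal.ofReal r * (μ (tbE b r) * ∫⁻ y in U, g y ∂μ))) := by
  have hprop : ProperSpace E := FiniteDimensional.proper ℝ E
  have hsf : SigmaFinite μ := inferInstance
  have hmW := measurable_Wc b T hg r
  rw [lintegral_lintegral_swap (f := fun a z => Wc b T g r a z) hmW.aemeasurable]
  -- the inner integral
  have hin : ∀ z, ∫⁻ a in tbE b r, Wc b T g r a z ∂μ = ∑ e ∈ T, ∑ i : Fin d,
      ∫⁻ t in tbE b r, (∫⁻ s in Ioc 0 r,
        g (z - t + r • ∑ j, (e j : ℝ) • b j + s • b i)) ∂μ := by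
    intro z
    have hm1 : ∀ (e : Fin d → ℤ) (i : Fin d), Measurable fun a : E =>
        ∫⁻ s in Ioc 0 r, g (vtE b r a (clE b r a z + e) + s • b i) := fun e i =>
      ((measurable_seg hg (b i) r).comp (measurable_rndE b r e)).comp
        (measurable_id.prodMk measurable_const)
    unfold Wc
    rw [lintegral_finsetSum _ fun e _ => Finset.measurable_sum _ fun i _ => hm1 e i]
    refine Finset.sum_congr rfl fun e _ => ?_
    rw [lintegral_finsetSum _ fun i _ => hm1 e i]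
    refine Finset.sum_congr rfl fun i _ => ?_
    have h1 := lintegral_rnd b μ hr z
      (h := fun w => ∫⁻ s in Ioc 0 r, g (w + r • ∑ j, (e j : ℝ) • b j + s • b i))
      ((measurable_seg hg (b i) r).comp (measurable_id.add_const _))
    simp only [vtE_add]
    rw [h1, bx_eq]
    have h2 := (Measure.measurePreserving_sub_left μ z).setLIntegral_comp_preimage
      (measurableSet_tbE b r) (f := fun t => ∫⁻ s in Ioc 0 r,
        g (z - t + r • ∑ j, (e j : ℝ) • b j + s • b i)) ?_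
    · rw [← h2]
      simp only [sub_sub_cancel]
    · exact ((measurable_seg hg (b i) r).comp
        ((measurable_const.sub measurable_id).add_const _))
  simp only [hin]
  have hm2 : ∀ (e : Fin d → ℤ) (i : Fin d), Measurable fun p : E × E =>
      ∫⁻ s in Ioc 0 r, g (p.1 - p.2 + r • ∑ j, (e j : ℝ) • b j + s • b i) := fun e i =>
    (measurable_seg hg (b i) r).comp ((measurable_fst.sub measurable_snd).add_const _)
  have hm3 : ∀ (e : Fin d → ℤ) (i : Fin d), Measurable fun z : E =>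
      ∫⁻ t in tbE b r, (∫⁻ s in Ioc 0 r,
        g (z - t + r • ∑ j, (e j : ℝ) • b j + s • b i)) ∂μ := fun e i =>
    (hm2 e i).lintegral_prod_right'
  rw [lintegral_finsetSum _ fun e _ => Finset.measurable_sum _ fun i _ => hm3 e i]
  have hterm : ∀ e ∈ T, ∀ i : Fin d, ∫⁻ z in X, (∫⁻ t in tbE b r, (∫⁻ s in Ioc 0 r,
      g (z - t + r • ∑ j, (e j : ℝ) • b j + s • b i)) ∂μ) ∂μ ≤
      ENNReal.ofReal r * (μ (tbE b r) * ∫⁻ y in U, g y ∂μ) := by
    intro e he i
    rw [lintegral_lintegral_swap (f := fun z t => ∫⁻ s in Ioc 0 r,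
      g (z - t + r • ∑ j, (e j : ℝ) • b j + s • b i)) (hm2 e i).aemeasurable]
    have h1 : ∀ t ∈ tbE b r, ∫⁻ z in X, (∫⁻ s in Ioc 0 r,
        g (z - t + r • ∑ j, (e j : ℝ) • b j + s • b i)) ∂μ ≤
        ENNReal.ofReal r * ∫⁻ y in U, g y ∂μ := by
      intro t ht
      have hm4 : Measurable fun p : E × ℝ =>
          g (p.1 - t + r • ∑ j, (e j : ℝ) • b j + p.2 • b i) :=
        hg.comp (((measurable_fst.sub_const t).add_const _).add
          (measurable_snd.smul_const (b i)))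
      rw [lintegral_lintegral_swap (f := fun z s =>
        g (z - t + r • ∑ j, (e j : ℝ) • b j + s • b i)) hm4.aemeasurable]
      have h2 : ∀ s ∈ Ioc 0 r, ∫⁻ z in X,
          g (z - t + r • ∑ j, (e j : ℝ) • b j + s • b i) ∂μ ≤ ∫⁻ y in U, g y ∂μ := by
        intro s hs
        set v : E := - t + r • ∑ j, (e j : ℝ) • b j + s • b i with hv
        have h3 : ∀ z, z - t + r • ∑ j, (e j : ℝ) • b j + s • b i = z + v := by
          intro z; rw [hv]; abel
        simp only [h3]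
        have h4 := (measurePreserving_add_right μ v).setLIntegral_comp_preimage hU hg
        rw [← h4]
        refine lintegral_mono_set fun z hz => ?_
        rw [mem_preimage, ← h3]
        exact hXU z hz t ht e he i s hs
      refine (setLIntegral_mono measurable_const h2).trans ?_
      rw [lintegral_const, Measure.restrict_apply_univ, Real.volume_Ioc, sub_zero, mul_comm]
    refine (setLIntegral_mono measurable_const h1).trans ?_
    rw [lintegral_const, Measure.restrict_apply_univ]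
    exact le_of_eq (by ring)
  calc ∑ e ∈ T, ∫⁻ z in X, ∑ i : Fin d, ∫⁻ t in tbE b r, (∫⁻ s in Ioc 0 r,
        g (z - t + r • ∑ j, (e j : ℝ) • b j + s • b i)) ∂μ ∂μ
      ≤ ∑ e ∈ T, ((d : ℝ≥0∞) * (ENNReal.ofReal r * (μ (tbE b r) * ∫⁻ y in U, g y ∂μ))) := by
        refine Finset.sum_le_sum fun e he => ?_
        rw [lintegral_finsetSum _ fun i _ => hm3 e i]
        refine (Finset.sum_le_sum fun i _ => hterm e he i).trans ?_
        rw [Finset.sum_const, Finset.card_univ, Fintype.card_fin, nsmul_eq_mul]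
    _ = T.card * (d * (ENNReal.ofReal r * (μ (tbE b r) * ∫⁻ y in U, g y ∂μ))) := by
        rw [Finset.sum_const, nsmul_eq_mul]

theorem norm_le_of_tbE (b : Module.Basis (Fin d) ℝ E) {r : ℝ} {t : E} (ht : t ∈ tbE b r) :
    ‖t‖ ≤ r * ∑ i, ‖b i‖ := by
  conv_lhs => rw [← b.sum_repr t]
  refine (norm_sum_le _ _).trans ?_
  rw [Finset.mul_sum]
  refine Finset.sum_le_sum fun i _ => ?_
  rw [norm_smul, Real.norm_eq_abs, abs_of_nonneg (ht i).1]
  exact mul_le_mul_of_nonneg_right (ht i).2.le (norm_nonneg _)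

/-- **(C5) small cell sums**: for small `r` and most translates the sum of the `g`-integrals over the
edges near the cell of `z` is small for most `z ∈ X`. -/
theorem cells_small (b : Module.Basis (Fin d) ℝ E) (μ : Measure E) [μ.IsAddHaarMeasure]
    (T : Finset (Fin d → ℤ)) {Ω : Set E} (hΩ : IsOpen Ω) {g : E → ℝ≥0∞} (hg : Measurable g)
    (hgi : ∫⁻ x in Ω, g x ∂μ ≠ ∞) {X : Set E} (hX : IsCompact X) (hXΩ : X ⊆ Ω)
    {ε η : ℝ≥0∞} (hε : ε ≠ 0) (hη : η ≠ 0) :
    ∃ r0 > 0, ∀ r, 0 < r → r ≤ r0 → ∃ Z : Set E, MeasurableSet Z ∧ μ Z ≤ η * μ (tbE b r) ∧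
      ∀ a ∈ tbE b r \ Z, ∃ B : Set E, MeasurableSet B ∧ μ B ≤ η ∧
        ∀ z ∈ X \ B, Wc b T g r a z ≤ ε := by
  -- reduce to finite ε, η
  wlog hfin : ε ≠ ∞ ∧ η ≠ ∞ with H
  · obtain ⟨r0, h0, h1⟩ := H b μ T hΩ hg hgi hX hXΩ (ε := min ε 1) (η := min η 1)
      (by simpa using hε) (by simpa using hη)
      ⟨ne_top_of_le_ne_top ENNReal.one_ne_top (min_le_right _ _),
        ne_top_of_le_ne_top ENNReal.one_ne_top (min_le_right _ _)⟩
    refine ⟨r0, h0, fun r hr hr0 => ?_⟩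
    obtain ⟨Z, mZ, hZ, h2⟩ := h1 r hr hr0
    refine ⟨Z, mZ, hZ.trans (by gcongr; exact min_le_left _ _), fun a ha => ?_⟩
    obtain ⟨B, mB, hB, h3⟩ := h2 a ha
    exact ⟨B, mB, hB.trans (min_le_left _ _), fun z hz => (h3 z hz).trans (min_le_left _ _)⟩
  obtain ⟨hε', hη'⟩ := hfin
  obtain ⟨δ, hδ, hδΩ⟩ := hX.exists_thickening_subset_open hΩ hXΩ
  set C : ℝ := ∑ i, ‖b i‖ + ∑ e ∈ T, ‖∑ j, (e j : ℝ) • b j‖ + ∑ i, ‖b i‖ with hC
  have hC0 : 0 ≤ C := by positivity
  set M : ℝ≥0∞ := T.card * (d * ∫⁻ y in Ω, g y ∂μ) with hM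
  have hMt : M + 1 ≠ ∞ := by
    refine ENNReal.add_ne_top.2 ⟨?_, ENNReal.one_ne_top⟩
    exact ENNReal.mul_ne_top (ENNReal.natCast_ne_top _)
      (ENNReal.mul_ne_top (ENNReal.natCast_ne_top _) hgi)
  have hM0 : M + 1 ≠ 0 := by simp
  set c : ℝ≥0∞ := min 1 (η * ε * η / (M + 1)) with hc
  have hc0 : c ≠ 0 := by
    rw [hc, ← pos_iff_ne_zero, lt_min_iff]
    refine ⟨one_pos, ENNReal.div_pos (mul_ne_zero (mul_ne_zero hη hε) hη) hMt⟩
  have hct : c ≠ ∞ := ne_top_of_le_ne_top ENNReal.one_ne_top (min_le_left _ _)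
  refine ⟨min (δ / (C + 1) / 2) c.toReal, lt_min (by positivity)
    (ENNReal.toReal_pos hc0 hct), fun r hr hr0 => ?_⟩
  have hr1 : r < δ / (C + 1) := by
    have h1 := hr0.trans (min_le_left _ _)
    have h2 : 0 < δ / (C + 1) := by positivity
    linarith
  have hr2 : ENNReal.ofReal r ≤ c := by
    refine (ENNReal.ofReal_le_ofReal (hr0.trans (min_le_right _ _))).trans ?_
    rw [ENNReal.ofReal_toReal hct]
  have hXU : ∀ z ∈ X, ∀ t ∈ tbE b r, ∀ e ∈ T, ∀ i, ∀ s ∈ Ioc 0 r,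
      z - t + r • ∑ j, (e j : ℝ) • b j + s • b i ∈ Ω := by
    intro z hz t ht e he i s hs
    apply hδΩ
    rw [Metric.mem_thickening_iff]
    refine ⟨z, hz, ?_⟩
    have h1 : z - t + r • ∑ j, (e j : ℝ) • b j + s • b i - z =
        -t + r • ∑ j, (e j : ℝ) • b j + s • b i := by abel
    rw [dist_eq_norm, h1]
    have h2 := norm_add₃_le (a := -t) (b := r • ∑ j, (e j : ℝ) • b j) (c := s • b i)
    have h3 : ‖-t‖ ≤ r * ∑ i, ‖b i‖ := by rw [norm_neg]; exact norm_le_of_tbE b ht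
    have h4 : ‖r • ∑ j, (e j : ℝ) • b j‖ ≤ r * ∑ e ∈ T, ‖∑ j, (e j : ℝ) • b j‖ := by
      rw [norm_smul, Real.norm_eq_abs, abs_of_pos hr]
      exact mul_le_mul_of_nonneg_left
        (Finset.single_le_sum (f := fun e : Fin d → ℤ => ‖∑ j, (e j : ℝ) • b j‖)
          (fun _ _ => norm_nonneg _) he) hr.le
    have h5 : ‖s • b i‖ ≤ r * ∑ i, ‖b i‖ := by
      rw [norm_smul, Real.norm_eq_abs, abs_of_pos hs.1]
      exact mul_le_mul hs.2 (Finset.single_le_sum (f := fun i => ‖b i‖)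
        (fun _ _ => norm_nonneg _) (Finset.mem_univ i)) (norm_nonneg _) hr.le
    have h6 : r * C = r * ∑ i, ‖b i‖ + r * ∑ e ∈ T, ‖∑ j, (e j : ℝ) • b j‖ + r * ∑ i, ‖b i‖ := by
      rw [hC]; ring
    have h7 : r * C < δ := by
      rw [lt_div_iff₀ (by positivity)] at hr1
      nlinarith
    linarith
  have havg := avg_Wc b μ T hg hr hΩ.measurableSet hXU
  have hmW := measurable_Wc b T hg r
  have hprop : ProperSpace E := FiniteDimensional.proper ℝ E
  have hmΨ : Measurable fun a => ∫⁻ z in X, Wc b T g r a z ∂μ := hmW.lintegral_prod_right'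
  have hor : ENNReal.ofReal r ≠ 0 := by
    rw [Ne, ENNReal.ofReal_eq_zero, not_le]; exact hr
  set lam : ℝ≥0∞ := (M + 1) * ENNReal.ofReal r / η with hlam
  have hl0 : lam ≠ 0 := (ENNReal.div_pos (mul_ne_zero hM0 hor) hη').ne'
  have hlt : lam ≠ ∞ := ENNReal.div_ne_top (ENNReal.mul_ne_top hMt ENNReal.ofReal_ne_top) hη
  refine ⟨{a | lam ≤ ∫⁻ z in X, Wc b T g r a z ∂μ} ∩ tbE b r,
    (measurableSet_le measurable_const hmΨ).inter (measurableSet_tbE b r), ?_, ?_⟩
  · have h1 := mul_meas_ge_le_lintegral (μ := μ.restrict (tbE b r)) hmΨ lam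
    rw [Measure.restrict_apply (measurableSet_le measurable_const hmΨ)] at h1
    have h2 : lam * μ ({a | lam ≤ ∫⁻ z in X, Wc b T g r a z ∂μ} ∩ tbE b r) ≤
        lam * (η * μ (tbE b r)) := by
      refine h1.trans (havg.trans ?_)
      have h3 : lam * (η * μ (tbE b r)) = (M + 1) * ENNReal.ofReal r * μ (tbE b r) := by
        rw [hlam, ← mul_assoc, ENNReal.div_mul_cancel hη hη']
      rw [h3]
      calc (T.card : ℝ≥0∞) * (d * (ENNReal.ofReal r * (μ (tbE b r) * ∫⁻ y in Ω, g y ∂μ)))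
          = M * ENNReal.ofReal r * μ (tbE b r) := by rw [hM]; ring
        _ ≤ (M + 1) * ENNReal.ofReal r * μ (tbE b r) := by gcongr; exact le_self_add
    exact (ENNReal.mul_le_mul_iff_right hl0 hlt).1 h2
  · rintro a ⟨ha, haZ⟩
    have h1 : ∫⁻ z in X, Wc b T g r a z ∂μ < lam := by
      by_contra hcon
      exact haZ ⟨not_lt.1 hcon, ha⟩
    have hma : Measurable fun z => Wc b T g r a z := measurable_Wc_right b T hg r a
    refine ⟨{z | ε ≤ Wc b T g r a z} ∩ X,
      (measurableSet_le measurable_const hma).inter hX.measurableSet, ?_, ?_⟩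
    · have h2 := mul_meas_ge_le_lintegral (μ := μ.restrict X) hma ε
      rw [Measure.restrict_apply (measurableSet_le measurable_const hma)] at h2
      have h3 : ε * μ ({z | ε ≤ Wc b T g r a z} ∩ X) ≤ ε * η := by
        refine h2.trans (h1.le.trans ?_)
        rw [hlam]
        refine ENNReal.div_le_of_le_mul ?_
        calc (M + 1) * ENNReal.ofReal r ≤ (M + 1) * (η * ε * η / (M + 1)) := by
              gcongr; exact hr2.trans (min_le_right _ _)
          _ = η * ε * η := ENNReal.mul_div_cancel hM0 hMt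
          _ = ε * η * η := by ring
      exact (ENNReal.mul_le_mul_iff_right hε hε').1 h3
    · rintro z ⟨hzX, hzB⟩
      by_contra hcon
      exact hzB ⟨(not_le.1 hcon).le, hzX⟩

/-- **(C5) BULK FOR MAPS ON WHOLE CELLS.**  324's `bulkE` + `cells_small`. -/
theorem bulk_cont {Y : Type*} [PseudoEMetricSpace Y] (b : Module.Basis (Fin d) ℝ E)
    (μ : Measure E) [μ.IsAddHaarMeasure] (T : Finset (Fin d → ℤ)) {Ω : Set E} (hΩ : IsOpen Ω)
    {g : E → ℝ≥0∞} (hg : Measurable g) (hgi : ∫⁻ x in Ω, g x ∂μ ≠ ∞) {F : E → Y}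
    (hF : ContinuousOn F Ω) {X : Set E} (hX : IsCompact X) (hXΩ : X ⊆ Ω) {ε η : ℝ≥0∞}
    (hε : ε ≠ 0) (hε' : ε ≠ ∞) (hη : η ≠ 0) (hη' : η ≠ ∞) {Cst : ℝ≥0∞} (hCst : Cst ≠ ∞)
    {N : Set E} (hN : μ N = 0) {r : ℕ → ℝ} (hr : ∀ n, 0 < r n) (hr0 : Tendsto r atTop (𝓝 0)) :
    ∃ S : Finset E, (∀ x ∈ S, x ∈ Ω ∧ x ∉ N) ∧ ∃ φ : ℕ → ℕ, StrictMono φ ∧
      ∀ n, ∃ Z : Set E, MeasurableSet Z ∧ μ Z ≤ η * μ (tbE b (r (φ n))) ∧
        ∀ a ∈ tbE b (r (φ n)) \ Z, ∃ B : Set E, MeasurableSet B ∧ μ B ≤ η ∧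
          ∀ G : (Fin d → ℤ) → Y, AdmE b g (r (φ n)) a Ω G →
            (∀ x ∈ S, edist (G (clE b (r (φ n)) a x)) (F x) ≤ ε) →
            ∀ Gc : E → Y, ∀ z ∈ X \ B,
              edist (Gc z) (G (clE b (r (φ n)) a z)) ≤ Cst * Wc b T g (r (φ n)) a z →
              edist (Gc z) (F z) ≤ 4 * ε := by
  have hη2 : η / 2 ≠ 0 := (ENNReal.div_pos hη ENNReal.ofNat_ne_top).ne'
  have hη2' : η / 2 ≠ ∞ := ENNReal.div_ne_top hη' two_ne_zero
  obtain ⟨S, hS, φ, hφ, H⟩ := bulkE b μ hΩ hg hgi hF hX hXΩ hε hε' hη2 hη2' hN hr hr0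
  have hε2 : ε / (Cst + 1) ≠ 0 :=
    (ENNReal.div_pos hε (ENNReal.add_ne_top.2 ⟨hCst, ENNReal.one_ne_top⟩)).ne'
  obtain ⟨r0, hr0p, H2⟩ := cells_small b μ T hΩ hg hgi hX hXΩ hε2 hη2
  have hev : ∀ᶠ n in atTop, r (φ n) ≤ r0 :=
    (hr0.comp hφ.tendsto_atTop).eventually (ge_mem_nhds hr0p)
  obtain ⟨n0, hn0⟩ := eventually_atTop.1 hev
  refine ⟨S, hS, fun n => φ (n + n0), fun m n hmn => hφ (by omega), fun n => ?_⟩
  obtain ⟨Z1, mZ1, hZ1, HZ1⟩ := H (n + n0)
  obtain ⟨Z2, mZ2, hZ2, HZ2⟩ := H2 (r (φ (n + n0))) (hr _) (hn0 _ (by omega))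
  refine ⟨Z1 ∪ Z2, mZ1.union mZ2, ?_, ?_⟩
  · refine (measure_union_le _ _).trans ((add_le_add hZ1 hZ2).trans (le_of_eq ?_))
    rw [← add_mul, ENNReal.add_halves]
  · rintro a ⟨ha, haZ⟩
    obtain ⟨B1, mB1, hB1, HB1⟩ := HZ1 a ⟨ha, fun h => haZ (Or.inl h)⟩
    obtain ⟨B2, mB2, hB2, HB2⟩ := HZ2 a ⟨ha, fun h => haZ (Or.inr h)⟩
    refine ⟨B1 ∪ B2, mB1.union mB2, ?_, ?_⟩
    · refine (measure_union_le _ _).trans ((add_le_add hB1 hB2).trans (le_of_eq ?_))
      rw [ENNReal.add_halves]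
    · rintro G hG hGS Gc z ⟨hzX, hzB⟩ hGc
      have h1 := HB1 G hG hGS z ⟨hzX, fun h => hzB (Or.inl h)⟩
      have h2 := HB2 z ⟨hzX, fun h => hzB (Or.inr h)⟩
      have h3 : Cst * Wc b T g (r (φ (n + n0))) a z ≤ ε := by
        calc Cst * Wc b T g (r (φ (n + n0))) a z ≤ (Cst + 1) * (ε / (Cst + 1)) := by
              gcongr; exact le_self_add
          _ = ε := ENNReal.mul_div_cancel (by simp)
              (ENNReal.add_ne_top.2 ⟨hCst, ENNReal.one_ne_top⟩)
      calc edist (Gc z) (F z) ≤ edist (Gc z) (G (clE b (r (φ (n + n0))) a z)) +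
            edist (G (clE b (r (φ (n + n0))) a z)) (F z) := edist_triangle _ _ _
        _ ≤ ε + 3 * ε := add_le_add (hGc.trans h3) h1
        _ = 4 * ε := by ring

end Crest.Agent.R096.Clo_441
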