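import Crest.Agent.R096.Lab4_184
import Crest.Agent.R096.Agl5_543

/-!
# R096 (row 96), CMB, part 1: labels at all points of the 1-skeleton (helper117)

`nQ Q X` = number mod 2 of the points of `Q` in `X`.  `XL T Q lam K` : `lam` is a label function of
`Q` on the 1-cells of `K`, at all points outside `Q` (not only at the vertices).
-/

set_option autoImplicit false
set_option linter.unusedSectionVars false

open Set Topology Filter Metric Module

namespace Crest.Agent.R096.Cm_117

open Crest.Agent.R096.Msh_715 Crest.Agent.R096.Lab_184 Crest.Agent.R096.Agl5_543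
  Crest.Agent.R096.Pat5_543 Crest.Agent.R096.Coh_184

variable {E : Type} [NormedAddCommGroup E] [NormedSpace ℝ E]

open Classical in
/-- number mod 2 of the points of `Q` in `X` -/
noncomputable def nQ (Q : Finset E) (X : Set E) : ZMod 2 := ∑ w ∈ Q, if w ∈ X then 1 else 0

lemma nQ_ncard (Q : Finset E) (X : Set E) : nQ Q X = (((Q : Set E) ∩ X).ncard : ZMod 2) := by
  classical
  unfold nQ
  rw [← Finset.sum_filter, Finset.sum_const, nsmul_eq_mul, mul_one]
  congr 1
  rw [← Set.ncard_coe_finset]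
  congr 1
  ext w; simp

lemma nQ_congr {Q : Finset E} {X Y : Set E} (h : ∀ w ∈ Q, (w ∈ X ↔ w ∈ Y)) : nQ Q X = nQ Q Y := by
  classical
  unfold nQ
  apply Finset.sum_congr rfl
  intro w hw
  by_cases h1 : w ∈ X
  · rw [if_pos h1, if_pos ((h w hw).1 h1)]
  · rw [if_neg h1, if_neg (fun h2 => h1 ((h w hw).2 h2))]

lemma nQ_empty {Q : Finset E} {X : Set E} (h : ∀ w ∈ Q, w ∉ X) : nQ Q X = 0 := by
  classical
  unfold nQ
  apply Finset.sum_eq_zero
  intro w hw
  rw [if_neg (h w hw)]

lemma nQ_union {Q : Finset E} {X Y Z : Set E} (h : ∀ w ∈ Q, (w ∈ Z ↔ (w ∈ X ∨ w ∈ Y)))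
    (hd : ∀ w ∈ Q, ¬ (w ∈ X ∧ w ∈ Y)) : nQ Q Z = nQ Q X + nQ Q Y := by
  classical
  unfold nQ
  rw [← Finset.sum_add_distrib]
  apply Finset.sum_congr rfl
  intro w hw
  have h1 := h w hw
  have h2 := hd w hw
  by_cases hX : w ∈ X <;> by_cases hY : w ∈ Y <;> simp_all

lemma add_self (a : ZMod 2) : a + a = 0 := CharTwo.add_self_eq_zero a

lemma nQ_split {Q : Finset E} {p a b : E} (h : a ∈ segment ℝ p b) (ha : a ∉ Q) :
    nQ Q (segment ℝ p b) = nQ Q (segment ℝ p a) + nQ Q (segment ℝ a b) := by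
  by_cases hpb : p = b
  · subst hpb
    rw [segment_same, mem_singleton_iff] at h
    subst h
    have : nQ Q (segment ℝ a a) = 0 := nQ_empty fun w hw h' => by
      rw [segment_same, mem_singleton_iff] at h'
      subst h'; exact ha hw
    rw [this, add_zero]
  · rw [segment_eq_image_lineMap] at h
    obtain ⟨s, hs, rfl⟩ := h
    have hinj : Function.Injective (AffineMap.lineMap p b : ℝ → E) :=
      AffineMap.lineMap_injective ℝ hpb
    have e0 : segment ℝ p b = AffineMap.lineMap p b '' Icc (0:ℝ) 1 :=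
      segment_eq_image_lineMap ℝ p b
    have key : ∀ x y : ℝ, x ≤ y → segment ℝ (AffineMap.lineMap p b x) (AffineMap.lineMap p b y) =
        AffineMap.lineMap p b '' Icc x y := by
      intro x y hxy
      have h1 : (AffineMap.lineMap p b : ℝ →ᵃ[ℝ] E) '' segment ℝ x y =
          segment ℝ (AffineMap.lineMap p b x) (AffineMap.lineMap p b y) :=
        image_segment ℝ (AffineMap.lineMap p b : ℝ →ᵃ[ℝ] E) x y
      rw [← h1, segment_eq_Icc hxy]
    have e1 : segment ℝ p (AffineMap.lineMap p b s) = AffineMap.lineMap p b '' Icc (0:ℝ) s := by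
      have := key 0 s hs.1
      rwa [AffineMap.lineMap_apply_zero] at this
    have e2 : segment ℝ (AffineMap.lineMap p b s) b = AffineMap.lineMap p b '' Icc s 1 := by
      have := key s 1 hs.2
      rwa [AffineMap.lineMap_apply_one] at this
    apply nQ_union
    · intro w _
      rw [e0, e1, e2, ← mem_union, ← image_union, Icc_union_Icc_eq_Icc hs.1 hs.2]
    · rintro w hw ⟨h1, h2⟩
      rw [e1] at h1
      rw [e2] at h2
      obtain ⟨x, hx, rfl⟩ := h1
      obtain ⟨y, hy, hxy⟩ := h2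
      have := hinj hxy
      subst this
      have : y = s := le_antisymm hx.2 hy.1
      subst this
      exact ha hw

/-- a function on a segment counting from an end is a label -/
lemma nQ_three {Q : Finset E} {p q a b : E} (ha : a ∈ segment ℝ p q) (hb : b ∈ segment ℝ p q)
    (haQ : a ∉ Q) (hbQ : b ∉ Q) :
    nQ Q (segment ℝ p a) + nQ Q (segment ℝ p b) = nQ Q (segment ℝ a b) := by
  have main : ∀ a b : E, a ∈ segment ℝ p b → a ∉ Q →
      nQ Q (segment ℝ p a) + nQ Q (segment ℝ p b) = nQ Q (segment ℝ a b) := by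
    intro a b h1 h2
    rw [nQ_split h1 h2, ← add_assoc, add_self, zero_add]
  have hord : a ∈ segment ℝ p b ∨ b ∈ segment ℝ p a := by
    rw [segment_eq_image_lineMap] at ha hb
    obtain ⟨s, hs, rfl⟩ := ha
    obtain ⟨t, ht, rfl⟩ := hb
    have key : ∀ x y : ℝ, 0 ≤ x → x ≤ y →
        AffineMap.lineMap p q x ∈ segment ℝ p (AffineMap.lineMap p q y) := by
      intro x y hx hxy
      have h1 : (AffineMap.lineMap p q : ℝ →ᵃ[ℝ] E) '' segment ℝ 0 y =
          segment ℝ (AffineMap.lineMap p q (0:ℝ)) (AffineMap.lineMap p q y) :=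
        image_segment ℝ (AffineMap.lineMap p q : ℝ →ᵃ[ℝ] E) 0 y
      rw [AffineMap.lineMap_apply_zero] at h1
      rw [← h1, segment_eq_Icc (hx.trans hxy)]
      exact ⟨x, ⟨hx, hxy⟩, rfl⟩
    rcases le_total s t with h | h
    · exact Or.inl (key s t hs.1 h)
    · exact Or.inr (key t s ht.1 h)
  rcases hord with h | h
  · exact main a b h haQ
  · rw [add_comm, main b a h hbQ, segment_symm]

variable {Om : Set E} {ι : Type}

/-- `lam` is an extended label function of `Q` on the 1-cells of `K` -/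
def XL (T : Tiling Om ι) (Q : Finset E) (lam : E → ZMod 2) (K : Set E) : Prop :=
  ∀ e ∈ K, T.dim e = 1 → ∀ a ∈ T.cc e, ∀ b ∈ T.cc e, a ∉ Q → b ∉ Q →
    lam a + lam b = nQ Q (segment ℝ a b)

variable {T : Tiling Om ι}

lemma XL.mono {Q : Finset E} {lam : E → ZMod 2} {K K' : Set E} (h : XL T Q lam K) (hK : K' ⊆ K) :
    XL T Q lam K' := fun e he => h e (hK he)

lemma XL.add_const {Q : Finset E} {lam : E → ZMod 2} {K : Set E} (h : XL T Q lam K) (c : ZMod 2) :
    XL T Q (fun v => lam v + c) K := by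
  intro e he h1 a ha b hb haQ hbQ
  rw [← h e he h1 a ha b hb haQ hbQ]
  have := add_self c
  linear_combination this

/-- only the points of `Q` in `K` matter -/
lemma XL.congr {Q Q' : Finset E} {lam : E → ZMod 2} {K : Set E} (h : XL T Q lam K)
    (hK : ∀ x ∈ K, T.cc x ⊆ K) (hQ : ∀ w ∈ K, (w ∈ Q ↔ w ∈ Q')) : XL T Q' lam K := by
  classical
  intro e he h1 a ha b hb haQ hbQ
  have haK := hK e he ha
  have hbK := hK e he hb
  rw [h e he h1 a ha b hb (fun h' => haQ ((hQ a haK).1 h')) (fun h' => hbQ ((hQ b hbK).1 h'))]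
  rw [nQ_ncard, nQ_ncard]
  congr 2
  ext w
  constructor
  · rintro ⟨h2, h3⟩
    have : w ∈ K := hK e he ((T.convex_cc e).segment_subset ha hb h3)
    exact ⟨(hQ w this).1 h2, h3⟩
  · rintro ⟨h2, h3⟩
    have : w ∈ K := hK e he ((T.convex_cc e).segment_subset ha hb h3)
    exact ⟨(hQ w this).2 h2, h3⟩

section fd

variable [FiniteDimensional ℝ E]

/-- **uniqueness** -/
theorem XL.unique {Q : Finset E} {lam lam' : E → ZMod 2} {C : Set E} (h : XL T Q lam C)
    (h' : XL T Q lam' C) (hQ : ∀ w ∈ Q, T.dim w = 1) (hC : IsPreconnected C) (hCO : C ⊆ Om)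
    (hcc : ∀ x ∈ C, T.cc x ⊆ C) {v w : E} (hv : v ∈ C) (hw : w ∈ C) (hv1 : T.dim v ≤ 1)
    (hw1 : T.dim w ≤ 1) (hvQ : v ∉ Q) (hwQ : w ∉ Q) :
    lam v + lam' v = lam w + lam' w := by
  have hends : ∀ e ∈ C, T.dim e = 1 → ∀ a ∈ T.cc e, ∀ b ∈ T.cc e, a ∉ Q → b ∉ Q →
      lam a + lam' a = lam b + lam' b := by
    intro e he h1 a ha b hb haQ hbQ
    have e1 := h e he h1 a ha b hb haQ hbQ
    have e2 := h' e he h1 a ha b hb haQ hbQ
    have e3 := e1.trans e2.symm
    have e4 : ∀ a b c d : ZMod 2, a + b = c + d → a + c = b + d := by decide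
    exact e4 _ _ _ _ e3
  have hv0Q : ∀ v, T.dim v = 0 → v ∉ Q := fun v h0 hvQ => by
    have := hQ v hvQ; omega
  -- vertices
  have h0 := T.const_of_preconnected (φ := fun z => lam z + lam' z) hC hCO hcc
    (fun e he h1 a b hab => by
      obtain ⟨-, ha0, hb0, -⟩ := ends_of_segment (hCO he) h1 hab
      exact hends e he h1 a (by rw [hab]; exact left_mem_segment ℝ a b) b
        (by rw [hab]; exact right_mem_segment ℝ a b) (hv0Q a ha0) (hv0Q b hb0))
  have hnear : ∀ v ∈ C, T.dim v ≤ 1 → v ∉ Q → ∃ p ∈ C, T.dim p = 0 ∧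
      lam v + lam' v = lam p + lam' p := by
    intro v hv hv1 hvQ
    rcases Nat.eq_zero_or_pos (T.dim v) with h2 | h2
    · exact ⟨v, hv, h2, rfl⟩
    · have h3 : T.dim v = 1 := by omega
      obtain ⟨p, hp, hp0⟩ := T.exists_vertex (hCO hv)
      exact ⟨p, hcc v hv hp, hp0, hends v hv h3 v (T.self_mem_cc v) p hp hvQ (hv0Q p hp0)⟩
  obtain ⟨p, hp, hp0, e1⟩ := hnear v hv hv1 hvQ
  obtain ⟨p', hp', hp0', e2⟩ := hnear w hw hw1 hwQ
  rw [e1, e2]
  exact h0 p hp p' hp' hp0 hp0'

open Classical in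
/-- an end of the 1-cell of a point -/
noncomputable def vx (T : Tiling Om ι) (w : E) : E :=
  if h : w ∈ Om then (T.exists_vertex h).choose else w

lemma vx_spec {w : E} (h : w ∈ Om) : vx T w ∈ T.cc w ∧ T.dim (vx T w) = 0 := by
  unfold vx
  rw [dif_pos h]
  exact (T.exists_vertex h).choose_spec

open Classical in
/-- extension of a vertex label to the 1-skeleton -/
noncomputable def xt (T : Tiling Om ι) (Q : Finset E) (lam : E → ZMod 2) (w : E) : ZMod 2 :=
  if T.dim w = 0 then lam w else lam (vx T w) + nQ Q (segment ℝ (vx T w) w)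

lemma xt_zero {Q : Finset E} {lam : E → ZMod 2} {w : E} (h : T.dim w = 0) : xt T Q lam w = lam w := by
  unfold xt; rw [if_pos h]

/-- **extension** -/
theorem xl_of_exact {Q : Finset E} {lam : E → ZMod 2} {K : Set E} (hKO : K ⊆ Om)
    (hQ : ∀ w ∈ Q, T.dim w = 1) (h : T.Exact (kap T Q) lam K) : XL T Q (xt T Q lam) K := by
  rw [exact_kap_iff] at h
  intro e he h1 a ha b hb haQ hbQ
  obtain ⟨p, q, hpq, e1, e2, hp0, hq0, hp, hq⟩ := T.edge_eq (hKO he) h1
  have hv0Q : ∀ v, T.dim v = 0 → v ∉ Q := fun v h0 hvQ => by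
    have := hQ v hvQ; omega
  have h2 := h e he h1 p q e1
  rw [← nQ_ncard, e1] at h2
  have key : ∀ w ∈ T.cc e, w ∉ Q → xt T Q lam w = lam p + nQ Q (segment ℝ p w) := by
    intro w hw hwQ
    by_cases hw0 : T.dim w = 0
    · rw [xt_zero hw0]
      rcases T.vertex_of_edge (hKO he) h1 e1 hw hw0 with rfl | rfl
      · have : nQ Q (segment ℝ w w) = 0 := nQ_empty fun u hu h' => by
          rw [segment_same, mem_singleton_iff] at h'
          subst h'; exact hwQ hu
        rw [this, add_zero]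
      · rw [← h2, ← add_assoc, add_self, zero_add]
    · have hwoc : w ∈ T.oc e := by
        by_contra hn
        have h3 := T.dim_lt hw hn
        omega
      have hcc : T.cc w = T.cc e := T.cc_eq_of_mem_oc (hKO he) hwoc
      have hwO : w ∈ Om := T.cc_sub_Om (hKO he) hw
      obtain ⟨h3, h4⟩ := vx_spec (T := T) hwO
      rw [hcc] at h3
      unfold xt
      rw [if_neg hw0]
      rcases T.vertex_of_edge (hKO he) h1 e1 h3 h4 with h5 | h5
      · rw [h5]
      · rw [h5]
        have h6 : w ∈ segment ℝ p q := e1 ▸ hw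
        have h7 := nQ_split h6 hwQ
        rw [h7] at h2
        have h8 : lam q = lam p + (nQ Q (segment ℝ p w) + nQ Q (segment ℝ w q)) := by
          rw [← h2, ← add_assoc, add_self, zero_add]
        rw [h8, segment_symm ℝ q w, add_assoc, add_assoc, add_self, add_zero]
  rw [key a ha haQ, key b hb hbQ]
  have h3 := nQ_three (p := p) (q := q) (e1 ▸ ha) (e1 ▸ hb) haQ hbQ
  rw [← h3]
  have := add_self (lam p)
  linear_combination this

end fd

/-! ### positions on a 2-cell -/

theorem loop_rev {X : Type*} [TopologicalSpace X] {γ : ℝ → X} {C : Set X} (h : Loop γ C) :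
    Loop (fun θ => γ (1 - θ)) C := by
  have hper' : ∀ θ, γ (θ - 2) = γ θ := fun θ => by
    rw [← h.per (θ - 2)]; congr 1; ring
  refine ⟨h.cont.comp (by fun_prop), ?_, ?_, ?_⟩
  · intro θ
    show γ (1 - (θ + 2)) = γ (1 - θ)
    rw [← h.per (1 - (θ + 2))]
    congr 1; ring
  · -- reduce to `[0,2)`
    have key : ∀ θ ∈ Ico (0:ℝ) 2, ∃ t ∈ Ico (0:ℝ) 2, γ (1 - θ) = γ t ∧
        ((θ ≤ 1 ∧ t = 1 - θ) ∨ (1 < θ ∧ t = 3 - θ)) := by
      intro θ hθ
      rcases le_or_gt θ 1 with h1 | h1
      · exact ⟨1 - θ, ⟨by linarith, by linarith [hθ.1]⟩, rfl, Or.inl ⟨h1, rfl⟩⟩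
      · refine ⟨3 - θ, ⟨by linarith [hθ.2], by linarith⟩, ?_, Or.inr ⟨h1, rfl⟩⟩
        rw [← h.per (1 - θ)]
        congr 1; ring
    intro s hs t ht hst
    obtain ⟨a, ha, ea, ca⟩ := key s hs
    obtain ⟨b, hb, eb, cb⟩ := key t ht
    have hst' : γ (1 - s) = γ (1 - t) := hst
    rw [ea, eb] at hst'
    have hab := h.inj ha hb hst'
    rcases ca with ⟨c1, c2⟩ | ⟨c1, c2⟩ <;> rcases cb with ⟨d1, d2⟩ | ⟨d1, d2⟩
    · linarith
    · exfalso
      have h3 := hs.1
      have h4 := ht.2
      linarith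
    · exfalso
      have h3 := hs.2
      have h4 := ht.1
      linarith
    · linarith
  · rw [← h.img]
    apply Subset.antisymm
    · rintro _ ⟨θ, hθ, rfl⟩
      rcases le_or_gt θ 1 with h1 | h1
      · exact ⟨1 - θ, ⟨by linarith, by linarith [hθ.1]⟩, rfl⟩
      · refine ⟨3 - θ, ⟨by linarith [hθ.2], by linarith⟩, ?_⟩
        show γ (3 - θ) = γ (1 - θ)
        rw [← h.per (1 - θ)]
        congr 1; ring
    · rintro _ ⟨t, ht, rfl⟩
      rcases le_or_gt t 1 with h1 | h1
      · refine ⟨1 - t, ⟨by linarith, by linarith [ht.1]⟩, ?_⟩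
        show γ (1 - (1 - t)) = γ t
        congr 1; ring
      · refine ⟨3 - t, ⟨by linarith [ht.2], by linarith⟩, ?_⟩
        show γ (1 - (3 - t)) = γ t
        rw [← h.per (1 - (3 - t))]
        congr 1; ring

variable [FiniteDimensional ℝ E]

/-- the boundary loop of a 2-cell with `pos` as (reversed) position -/
noncomputable def gam (F : C2 T) (θ : ℝ) : E :=
  F.par (Complex.exp (Real.pi * ((1 - θ : ℝ) : ℂ) * Complex.I))

theorem loop_gam (F : C2 T) : Loop (gam F) F.bd :=
  loop_rev (loop_of_disc F.isDisc)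

theorem lpos_gam (F : C2 T) {p : E} (hp : p ∈ F.bd) : lpos (gam F) p = 1 - F.pos p / Real.pi := by
  have hpi := Real.pi_pos
  have h1 : (1 - F.pos p / Real.pi) ∈ Ico (0:ℝ) 2 := by
    have h2 := Complex.arg_le_pi (F.inv p)
    have h3 := Complex.neg_pi_lt_arg (F.inv p)
    have h4 : F.pos p / Real.pi ≤ 1 := by
      rw [div_le_one hpi]; exact h2
    have h5 : -1 < F.pos p / Real.pi := by
      rw [lt_div_iff₀ hpi]
      have : F.pos p = Complex.arg (F.inv p) := rfl
      linarith
    exact ⟨by linarith, by linarith⟩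
  have h2 : gam F (1 - F.pos p / Real.pi) = p := by
    unfold gam
    have h3 : (Real.pi : ℂ) * ((1 - (1 - F.pos p / Real.pi) : ℝ) : ℂ) * Complex.I =
        (F.pos p : ℝ) * Complex.I := by
      push_cast
      have : (Real.pi : ℂ) ≠ 0 := by exact_mod_cast Real.pi_ne_zero
      field_simp
      ring
    rw [h3, F.exp_pos hp]
    exact (F.inv_mem (F.bd_sub hp)).2
  have h3 := (loop_gam F).lpos_eq h1
  rw [h2] at h3
  exact h3

open Classical in
/-- number mod 2 of the points of `Q` on `F` below the position of `p` -/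
noncomputable def lamF (F : C2 T) (Q : Finset E) (p : E) : ZMod 2 :=
  ∑ w ∈ Q, if w ∈ F.set ∧ F.pos w < F.pos p then 1 else 0

/-- **the positions of a 2-cell give the labels on its boundary** -/
theorem xl_lamF (F : C2 T) {Q : Finset E} (hQ : ∀ w ∈ Q, T.dim w = 1)
    (heven : nQ Q F.set = 0) : XL T Q (lamF F Q) F.set := by
  classical
  have hpi := Real.pi_pos
  set Q' : Finset E := Q.filter (· ∈ F.set) with hQ'
  have hQ'C : (Q' : Set E) ⊆ F.bd := by
    intro w hw
    obtain ⟨h1, h2⟩ := Finset.mem_filter.1 (Finset.mem_coe.1 hw)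
    exact (F.mem_bd_iff h2).2 (hQ w h1).le
  have hcard : Even Q'.card := by
    have h1 : ((Q'.card : ℕ) : ZMod 2) = 0 := by
      rw [← heven]
      unfold nQ
      rw [← Finset.sum_filter, Finset.sum_const, nsmul_eq_mul, mul_one]
    rwa [ZMod.natCast_eq_zero_iff_even] at h1
  intro e he h1 a ha b hb haQ hbQ
  have hFcc : T.cc e ⊆ F.set := by
    rw [F.set_eq] at he ⊢
    exact T.cc_sub_of_mem he
  have hbd : ∀ u ∈ T.cc e, u ∈ F.bd := fun u hu =>
    (F.mem_bd_iff (hFcc hu)).2 ((T.dim_le hu).trans h1.le)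
  -- labels in terms of the counting function
  have hlam : ∀ u, u ∈ F.bd → u ∉ Q → lamF F Q u = ((cnt (gam F) Q' u : ℕ) : ZMod 2) := by
    intro u hu huQ
    unfold lamF cnt
    rw [hQ', Finset.filter_filter, Finset.card_filter, Nat.cast_sum]
    -- the sum of both is the total number on `F`
    have h2 : ∀ w ∈ Q, (if w ∈ F.set ∧ F.pos w < F.pos u then (1 : ZMod 2) else 0) +
        (((if w ∈ F.set ∧ lpos (gam F) w < lpos (gam F) u then 1 else 0 : ℕ) : ℕ) : ZMod 2) =
        if w ∈ F.set then 1 else 0 := by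
      intro w hw
      by_cases hwF : w ∈ F.set
      · have hwb : w ∈ F.bd := (F.mem_bd_iff hwF).2 (hQ w hw).le
        have hne : F.pos w ≠ F.pos u := fun h => huQ (by
          rw [← F.pos_injOn hwb hu h]; exact hw)
        have hiff : lpos (gam F) w < lpos (gam F) u ↔ F.pos u < F.pos w := by
          rw [lpos_gam F hwb, lpos_gam F hu, sub_lt_sub_iff_left, div_lt_div_iff_of_pos_right hpi]
        rcases lt_or_gt_of_ne hne with h3 | h3
        · rw [if_pos ⟨hwF, h3⟩, if_neg (fun h => lt_asymm h3 (hiff.1 h.2)), if_pos hwF]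
          simp
        · rw [if_neg (fun h => lt_asymm h3 h.2), if_pos ⟨hwF, hiff.2 h3⟩, if_pos hwF]
          simp
      · rw [if_neg (fun h => hwF h.1), if_neg (fun h => hwF h.1), if_neg hwF]
        simp
    have h3 := Finset.sum_congr rfl h2
    rw [Finset.sum_add_distrib] at h3
    have h4 : (∑ w ∈ Q, if w ∈ F.set then (1 : ZMod 2) else 0) = 0 := heven
    rw [h4] at h3
    have e4 : ∀ a b : ZMod 2, a + b = 0 → a = b := by decide
    exact e4 _ _ h3
  rw [hlam a (hbd a ha) haQ, hlam b (hbd b hb) hbQ]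
  by_cases hab : a = b
  · subst hab
    rw [add_self]
    symm
    apply nQ_empty
    intro w hw h'
    rw [segment_same, mem_singleton_iff] at h'
    subst h'
    exact haQ hw
  have hJ : segment ℝ a b ⊆ T.cc e := (T.convex_cc e).segment_subset ha hb
  have hop : segment ℝ a b \ {a, b} = openSegment ℝ a b := by
    rw [← insert_endpoints_openSegment]
    ext y
    simp only [Set.mem_sdiff, mem_insert_iff, mem_singleton_iff]
    constructor
    · rintro ⟨h7 | h7 | h7, h8⟩
      · exact absurd (Or.inl h7) h8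
      · exact absurd (Or.inr h7) h8
      · exact h7
    · intro h7
      refine ⟨Or.inr (Or.inr h7), ?_⟩
      rintro (rfl | rfl)
      · exact hab (left_mem_openSegment_iff.1 h7)
      · exact hab (right_mem_openSegment_iff.1 h7)
  have h2 := (loop_gam F).arc_count (Q := Q') hQ'C hcard hab (J := segment ℝ a b)
    (convex_segment a b).isPreconnected (left_mem_segment ℝ a b) (right_mem_segment ℝ a b)
    (fun h => haQ (Finset.mem_filter.1 h).1) (fun h => hbQ (Finset.mem_filter.1 h).1)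
    (fun u hu => hbd u (hJ hu)) (by rw [hop]; exact (convex_openSegment a b).isPreconnected)
  rw [h2, nQ_ncard, ← Set.ncard_coe_finset]
  congr 2
  ext u
  simp only [hQ', Finset.coe_filter, Finset.mem_filter, mem_ofPred_eq, mem_inter_iff,
    Finset.mem_coe]
  constructor
  · rintro ⟨⟨h2, h3⟩, h4⟩; exact ⟨h2, h4⟩
  · rintro ⟨h2, h4⟩; exact ⟨⟨h2, hFcc (hJ h4)⟩, h4⟩

end Crest.Agent.R096.Cm_117
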