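import Crest.Agent.R096.Cm1_117
import Crest.Agent.R096.Seq2_213

/-!
# R096 (row 96), CMB, part 2: existence of extended labels on a cell; the pieces of a global state
in a cell (helper117)
-/

set_option autoImplicit false
set_option linter.unusedSectionVars false

open Set Topology Filter Metric Module

namespace Crest.Agent.R096.Cm_117

open Crest.Agent.R096.Msh_715 Crest.Agent.R096.Lab_184 Crest.Agent.R096.Agl5_543
  Crest.Agent.R096.Pat5_543 Crest.Agent.R096.Coh_184 Crest.Agent.R096.Seq_213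

variable {E : Type} [NormedAddCommGroup E] [NormedSpace ℝ E]
variable {Om : Set E} {ι : Type} {T : Tiling Om ι}

section fd

variable [FiniteDimensional ℝ E]

/-- the 2-cell of a cell of dimension two -/
def toC2 (c : T.Cell) (h : c.dim = 2) : C2 T := ⟨c, h⟩

/-- **existence of extended labels on a cell** -/
theorem exists_xl (h3 : finrank ℝ E = 3) (c : T.Cell) {Q : Finset E}
    (hQ : ∀ w ∈ Q, T.dim w = 1) (heven : ∀ F : C2 T, F.set ⊆ c.set → nQ Q F.set = 0) :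
    ∃ lam : E → ZMod 2, XL T Q lam c.set := by
  have hle : T.dim c.pt ≤ 3 := by rw [← h3]; exact T.dim_le_finrank c.pt
  have hset := c.set_eq
  have hO := c.pt_mem
  rcases Nat.lt_or_ge (T.dim c.pt) 1 with h | h
  · -- a vertex
    refine ⟨fun _ => 0, fun e he h1 => ?_⟩
    exfalso
    have h2 : T.dim c.pt = 0 := by omega
    have h4 := T.cc_eq_singleton (T.dim_eq_zero_iff.1 h2)
    rw [hset, h4, mem_singleton_iff] at he
    rw [he] at h1
    omega
  rcases Nat.lt_or_ge (T.dim c.pt) 2 with h' | h'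
  · -- an edge
    have h2 : T.dim c.pt = 1 := by omega
    obtain ⟨p, q, hpq, e1, e2, hp0, hq0, hp, hq⟩ := T.edge_eq hO h2
    refine ⟨fun w => nQ Q (segment ℝ p w), fun e he h1 a ha b hb haQ hbQ => ?_⟩
    rw [hset] at he
    have hsub := T.cc_sub_of_mem he
    exact nQ_three (q := q) (e1 ▸ hsub ha) (e1 ▸ hsub hb) haQ hbQ
  rcases Nat.lt_or_ge (T.dim c.pt) 3 with h'' | h''
  · -- a 2-cell
    have h2 : c.dim = 2 := by
      show T.dim c.pt = 2
      omega
    exact ⟨_, xl_lamF (toC2 c h2) hQ (heven (toC2 c h2) (Subset.refl _))⟩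
  · -- a tile
    have h2 : T.dim c.pt = 3 := by omega
    have hV : T.V c.pt = ⊤ := by
      apply Submodule.eq_top_of_finrank_eq
      rw [h3]; exact h2
    obtain ⟨i, hi⟩ := (T.V_eq_top_iff hO).1 hV
    have hP := T.cc_eq_tile hi
    rw [hset, hP]
    obtain ⟨lam, hlam⟩ := exact_tile2 (T := T) h3 hQ i (fun x hx hd => by
      have h4 := heven (mk2 T (T.sub i hx) hd) (by
        rw [mk2_set, hset, hP]
        exact T.cc_sub_tile hx)
      rw [mk2_set, nQ_ncard] at h4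
      rwa [ZMod.natCast_eq_zero_iff_even] at h4)
    exact ⟨_, xl_of_exact (T.sub i) hQ hlam⟩

/-- the base vertex of a cell -/
noncomputable def bv (c : T.Cell) : E := (T.exists_vertex c.pt_mem).choose

lemma bv_mem (c : T.Cell) : bv c ∈ c.set := by
  rw [c.set_eq]; exact (T.exists_vertex c.pt_mem).choose_spec.1

lemma bv_dim (c : T.Cell) : T.dim (bv c) = 0 := (T.exists_vertex c.pt_mem).choose_spec.2

lemma cell_sub (c : T.Cell) : c.set ⊆ Om := by
  rw [c.set_eq]; exact T.cc_sub_Om c.pt_mem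

lemma cell_cc (c : T.Cell) : ∀ x ∈ c.set, T.cc x ⊆ c.set := by
  intro x hx
  rw [c.set_eq] at hx ⊢
  exact T.cc_sub_of_mem hx

lemma cell_conn (c : T.Cell) : IsPreconnected c.set := by
  rw [c.set_eq]; exact (T.convex_cc _).isPreconnected

/-- **normalised extended labels of a set of points on a cell** -/
theorem exists_nlab (h3 : finrank ℝ E = 3) (c : T.Cell) {Q : Finset E}
    (hQ : ∀ w ∈ Q, T.dim w = 1) (heven : ∀ F : C2 T, F.set ⊆ c.set → nQ Q F.set = 0) :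
    ∃ lam : E → ZMod 2, XL T Q lam c.set ∧ lam (bv c) = 0 := by
  obtain ⟨lam, h⟩ := exists_xl h3 c hQ heven
  exact ⟨fun v => lam v + lam (bv c), h.add_const _, add_self _⟩

/-- uniqueness of normalised labels -/
theorem nlab_unique (c : T.Cell) {Q Q' : Finset E} {lam lam' : E → ZMod 2}
    (hQ : ∀ w ∈ Q, T.dim w = 1) (hQ' : ∀ w ∈ c.set, (w ∈ Q' ↔ w ∈ Q))
    (h : XL T Q lam c.set) (h' : XL T Q' lam' c.set) {p v : E} (hp : p ∈ c.set)
    (hp1 : T.dim p ≤ 1) (hpQ : p ∉ Q) (hv : v ∈ c.set) (hv1 : T.dim v ≤ 1) (hvQ : v ∉ Q) :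
    lam v + lam' v = lam p + lam' p :=
  h.unique (h'.congr (cell_cc c) hQ') hQ (cell_conn c) (cell_sub c) (cell_cc c) hv hp hv1 hp1
    hvQ hpQ

end fd

/-! ### pieces -/

variable {h3 : finrank ℝ E = 3} [FiniteDimensional ℝ E] {J C : Type} {fam : J → C}

/-- the points of the state in the cell `c` -/
abbrev Pt (s : GSt (meshC T h3) fam) (c : T.Cell) : Type :=
  {w : E // w ∈ s.P ∧ w ∈ c.set ∧ T.dim w = 1}

/-- `w'` is the partner of `w` on a 2-cell of `c` -/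
def Rel (s : GSt (meshC T h3) fam) (c : T.Cell) (w w' : Pt s c) : Prop :=
  ∃ F : C2 T, F.set ⊆ c.set ∧ w.1 ∈ F.set ∧ w'.1 = s.mu F w.1

/-- the pieces of the state in the cell `c` -/
def Pc (s : GSt (meshC T h3) fam) (c : T.Cell) : Type := Quot (Rel s c)

variable (s : GSt (meshC T h3) fam)

lemma mem_On {F : C2 T} {w : E} (hw : w ∈ F.set) (h1 : T.dim w = 1) :
    w ∈ (meshC T h3).On F := ⟨hw, h1⟩

/-- sheet of a piece -/
def pcol (c : T.Cell) : Pc s c → J := Quot.lift (fun w => s.lab w.1) (by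
  rintro w w' ⟨F, hF, hw, h⟩
  show s.lab w.1 = s.lab w'.1
  rw [h]
  exact (s.mu_lab w.2.1 (mem_On hw w.2.2.2)).symm)

/-- inclusion of points -/
def pin {c d : T.Cell} (h : c ≤ d) (w : Pt s c) : Pt s d := ⟨w.1, w.2.1, h w.2.2.1, w.2.2.2⟩

/-- the piece of the bigger cell -/
def pup {c d : T.Cell} (h : c ≤ d) : Pc s c → Pc s d :=
  Quot.lift (fun w => Quot.mk _ (pin s h w)) (by
    rintro w w' ⟨F, hF, hw, h'⟩
    exact Quot.sound ⟨F, hF.trans h, hw, h'⟩)

lemma pup_mk {c d : T.Cell} (h : c ≤ d) (w : Pt s c) :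
    pup s h (Quot.mk _ w) = Quot.mk _ (pin s h w) := rfl

lemma pcol_pup {c d : T.Cell} (h : c ≤ d) (y : Pc s c) : pcol s d (pup s h y) = pcol s c y := by
  induction y using Quot.ind with
  | mk w => rfl

lemma pup_pup {c d e : T.Cell} (h : c ≤ d) (h' : d ≤ e) (y : Pc s c) :
    pup s (h.trans h') y = pup s h' (pup s h y) := by
  induction y using Quot.ind with
  | mk w => rfl

/-- local finiteness of the state -/
def LF : Prop := ∀ c : T.Cell, {w | w ∈ s.P ∧ w ∈ c.set}.Finite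

variable {s}

lemma LF.pt (h : LF s) (c : T.Cell) : Finite (Pt s c) := by
  have := (h c).to_subtype
  exact Finite.of_injective (β := {w | w ∈ s.P ∧ w ∈ c.set}) (fun w => ⟨w.1, w.2.1, w.2.2.1⟩)
    (fun a b hab => Subtype.ext (Subtype.mk.inj hab))

lemma LF.pc (h : LF s) (c : T.Cell) : Finite (Pc s c) := by
  have := h.pt c
  exact Finite.of_surjective (Quot.mk (Rel s c)) Quot.mk_surjective

open Classical in
/-- the points of a piece -/
noncomputable def pts (h : LF s) (c : T.Cell) (x : Pc s c) : Finset E :=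
  ((h c).subset (fun w (hw : w ∈ {w | ∃ h' : w ∈ s.P ∧ w ∈ c.set ∧ T.dim w = 1,
    (Quot.mk _ ⟨w, h'⟩ : Pc s c) = x}) => ⟨hw.1.1, hw.1.2.1⟩)).toFinset

lemma mem_pts {h : LF s} {c : T.Cell} {x : Pc s c} {w : E} :
    w ∈ pts h c x ↔ ∃ h' : w ∈ s.P ∧ w ∈ c.set ∧ T.dim w = 1,
      (Quot.mk _ ⟨w, h'⟩ : Pc s c) = x := by
  unfold pts
  rw [Set.Finite.mem_toFinset]
  rfl

lemma pts_dim {h : LF s} {c : T.Cell} {x : Pc s c} : ∀ w ∈ pts h c x, T.dim w = 1 := by
  intro w hw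
  obtain ⟨h', -⟩ := mem_pts.1 hw
  exact h'.2.2

lemma pts_ne {h : LF s} {c : T.Cell} (x : Pc s c) : ∃ w, w ∈ pts h c x := by
  obtain ⟨w, rfl⟩ := Quot.exists_rep x
  exact ⟨w.1, mem_pts.2 ⟨w.2, rfl⟩⟩

lemma pts_disj {h : LF s} {c : T.Cell} {x y : Pc s c} {w : E} (hx : w ∈ pts h c x)
    (hy : w ∈ pts h c y) : x = y := by
  obtain ⟨h1, e1⟩ := mem_pts.1 hx
  obtain ⟨h2, e2⟩ := mem_pts.1 hy
  rw [← e1, ← e2]

/-- partners stay in the piece -/
lemma mu_pts {h : LF s} {c : T.Cell} {x : Pc s c} {w : E} (hw : w ∈ pts h c x) {F : C2 T}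
    (hF : F.set ⊆ c.set) (hwF : w ∈ F.set) : s.mu F w ∈ pts h c x := by
  obtain ⟨h', hx⟩ := mem_pts.1 hw
  have h1 := s.mu_mem h'.1 (mem_On hwF h'.2.2)
  have h2 : s.mu F w ∈ s.P ∧ s.mu F w ∈ c.set ∧ T.dim (s.mu F w) = 1 :=
    ⟨h1.1, hF h1.2.1, h1.2.2⟩
  refine mem_pts.2 ⟨h2, ?_⟩
  rw [← hx]
  exact (Quot.sound ⟨F, hF, hwF, rfl⟩).symm

/-- a piece meets every 2-cell in an even number of points -/
lemma even_pts {h : LF s} {c : T.Cell} {x : Pc s c} {F : C2 T} (hF : F.set ⊆ c.set) :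
    nQ (pts h c x) F.set = 0 := by
  classical
  unfold nQ
  rw [← Finset.sum_filter]
  have hpar : ∀ w ∈ (pts h c x).filter (· ∈ F.set), s.mu F w ∈ (pts h c x).filter (· ∈ F.set) := by
    intro w hw
    obtain ⟨h1, h2⟩ := Finset.mem_filter.1 hw
    refine Finset.mem_filter.2 ⟨mu_pts h1 hF h2, ?_⟩
    obtain ⟨h', -⟩ := mem_pts.1 h1
    exact (s.mu_mem h'.1 (mem_On h2 h'.2.2)).2.1
  refine Finset.sum_involution (fun w _ => s.mu F w) ?_ ?_ ?_ ?_
  · intro w _; decide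
  · intro w hw _
    obtain ⟨h1, h2⟩ := Finset.mem_filter.1 hw
    obtain ⟨h', -⟩ := mem_pts.1 h1
    exact s.mu_ne h'.1 (mem_On h2 h'.2.2)
  · intro w hw
    exact hpar w hw
  · intro w hw
    obtain ⟨h1, h2⟩ := Finset.mem_filter.1 hw
    obtain ⟨h', -⟩ := mem_pts.1 h1
    exact s.mu_mu h'.1 (mem_On h2 h'.2.2)

/-- the points of a piece on a smaller cell are the points of the pieces over it -/
lemma mem_pts_pup {h : LF s} {c d : T.Cell} (hcd : c ≤ d) {x : Pc s d} {w : E} (hw : w ∈ c.set) :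
    w ∈ pts h d x ↔ ∃ y : Pc s c, pup s hcd y = x ∧ w ∈ pts h c y := by
  constructor
  · intro hx
    obtain ⟨h', e⟩ := mem_pts.1 hx
    refine ⟨Quot.mk _ ⟨w, h'.1, hw, h'.2.2⟩, ?_, mem_pts.2 ⟨⟨h'.1, hw, h'.2.2⟩, rfl⟩⟩
    rw [← e]; rfl
  · rintro ⟨y, rfl, hy⟩
    obtain ⟨h', rfl⟩ := mem_pts.1 hy
    exact mem_pts.2 ⟨⟨h'.1, hcd h'.2.1, h'.2.2⟩, rfl⟩

end Crest.Agent.R096.Cm_117
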