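import Crest.Agent.R096.Cm3_117

/-!
# R096 (row 96), CMB, part 4: laminarity of two pieces of one family, on the 1-skeleton of a cell
(helper117)
-/

set_option autoImplicit false
set_option linter.unusedSectionVars false

open Set Topology Filter Metric Module

namespace Crest.Agent.R096.Cm_117

open Crest.Agent.R096.Msh_715 Crest.Agent.R096.Lab_184 Crest.Agent.R096.Agl5_543
  Crest.Agent.R096.Pat5_543 Crest.Agent.R096.Coh_184 Crest.Agent.R096.Seq_213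

variable {E : Type} [NormedAddCommGroup E] [NormedSpace ℝ E]
variable {Om : Set E} {ι : Type} {T : Tiling Om ι}

/-- off a finite set -/
lemma ev_notMem (Q : Finset E) {w : E} (hw : w ∉ Q) (K : Set E) :
    ∀ᶠ v in 𝓝[K] w, v ∉ Q := by
  have h1 : IsClosed (Q : Set E) := Q.finite_toSet.isClosed
  have h2 : ∀ᶠ v in 𝓝 w, v ∉ Q := h1.isOpen_compl.mem_nhds hw
  exact h2.filter_mono nhdsWithin_le_nhds

/-- a label is locally constant off `Q` -/
lemma XL.ev_const {Q : Finset E} {lam : E → ZMod 2} {C : Set E} (h : XL T Q lam C) {e : E}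
    (he : e ∈ C) (h1 : T.dim e = 1) {w : E} (hw : w ∈ T.cc e) (hwQ : w ∉ Q) :
    ∀ᶠ v in 𝓝[T.cc e] w, lam v = lam w := by
  have hcl : IsClosed (Q : Set E) := Q.finite_toSet.isClosed
  obtain ⟨r, hr, hball⟩ := Metric.isOpen_iff.1 hcl.isOpen_compl w hwQ
  have h20 : ∀ᶠ v in 𝓝 w, v ∈ ball w r := ball_mem_nhds w hr
  have h2 : ∀ᶠ v in 𝓝[T.cc e] w, v ∈ ball w r := h20.filter_mono nhdsWithin_le_nhds
  filter_upwards [h2, self_mem_nhdsWithin] with v hv hvK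
  have hvQ : v ∉ Q := fun h' => hball hv h'
  have h3 := h e he h1 v hvK w hw hvQ hwQ
  have h4 : nQ Q (segment ℝ v w) = 0 := nQ_empty fun u hu hseg => by
    have : u ∈ ball w r := (convex_ball w r).segment_subset hv (mem_ball_self hr) hseg
    exact hball this hu
  rw [h4] at h3
  have e4 : ∀ a b : ZMod 2, a + b = 0 → a = b := by decide
  exact e4 _ _ h3

open Classical in
/-- the product of the two labels, `0` at the points of the patterns -/
noncomputable def HH (Q Q' : Finset E) (a b : E → ZMod 2) (β : ZMod 2) (v : E) : ZMod 2 :=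
  if v ∈ Q ∨ v ∈ Q' then 0 else (a v + 1) * (b v + β)

section fd
variable [FiniteDimensional ℝ E]

lemma hh_edge {Q Q' : Finset E} {a b : E → ZMod 2} {β : ZMod 2} {C : Set E} (ha : XL T Q a C)
    (hb : XL T Q' b C) (hd : ∀ w ∈ Q, w ∉ Q') (h1 : ∀ w ∈ Q', w ∈ C → a w = 1)
    (h2 : ∀ w ∈ Q, w ∈ C → b w = β) (hcc : ∀ x ∈ C, T.cc x ⊆ C) {e : E} (he : e ∈ C)
    (hd1 : T.dim e = 1) {v w : E} (hv : v ∈ T.cc e) (hw : w ∈ T.cc e) :
    HH Q Q' a b β v = HH Q Q' a b β w := by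
  classical
  have hlc : LC (HH Q Q' a b β) (T.cc e) := by
    intro u hu
    have huC := hcc e he hu
    by_cases hQ : u ∈ Q
    · have hQ' := hd u hQ
      have e1 := hb.ev_const he hd1 hu hQ'
      filter_upwards [e1] with x hx
      unfold HH
      rw [if_pos (Or.inl hQ : u ∈ Q ∨ u ∈ Q')]
      split_ifs
      · rfl
      · rw [hx, h2 u hQ huC, add_self, mul_zero]
    · by_cases hQ' : u ∈ Q'
      · have e1 := ha.ev_const he hd1 hu hQ
        filter_upwards [e1] with x hx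
        unfold HH
        rw [if_pos (Or.inr hQ' : u ∈ Q ∨ u ∈ Q')]
        split_ifs
        · rfl
        · rw [hx, h1 u hQ' huC, add_self, zero_mul]
      · have e1 := ha.ev_const he hd1 hu hQ
        have e2 := hb.ev_const he hd1 hu hQ'
        filter_upwards [e1, e2, ev_notMem Q hQ _, ev_notMem Q' hQ' _] with x x1 x2 x3 x4
        unfold HH
        rw [if_neg (not_or.2 ⟨x3, x4⟩), if_neg (not_or.2 ⟨hQ, hQ'⟩), x1, x2]
  exact hlc.eq_of_preconnected (T.convex_cc e).isPreconnected hv hw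

lemma hh_const {Q Q' : Finset E} {a b : E → ZMod 2} {β : ZMod 2} {C : Set E} (ha : XL T Q a C)
    (hb : XL T Q' b C) (hd : ∀ w ∈ Q, w ∉ Q') (h1 : ∀ w ∈ Q', w ∈ C → a w = 1)
    (h2 : ∀ w ∈ Q, w ∈ C → b w = β) (hC : IsPreconnected C) (hCO : C ⊆ Om)
    (hcc : ∀ x ∈ C, T.cc x ⊆ C) {v w : E} (hv : v ∈ C) (hw : w ∈ C) (hv1 : T.dim v ≤ 1)
    (hw1 : T.dim w ≤ 1) : HH Q Q' a b β v = HH Q Q' a b β w := by
  have h0 := T.const_of_preconnected (φ := HH Q Q' a b β) hC hCO hcc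
    (fun e he hd1 p p' hpp => hh_edge ha hb hd h1 h2 hcc he hd1
      (by rw [hpp]; exact left_mem_segment ℝ p p') (by rw [hpp]; exact right_mem_segment ℝ p p'))
  have hnear : ∀ v ∈ C, T.dim v ≤ 1 → ∃ p ∈ C, T.dim p = 0 ∧
      HH Q Q' a b β v = HH Q Q' a b β p := by
    intro v hv hv1
    rcases Nat.eq_zero_or_pos (T.dim v) with h2' | h2'
    · exact ⟨v, hv, h2', rfl⟩
    · have h3 : T.dim v = 1 := by omega
      obtain ⟨p, hp, hp0⟩ := T.exists_vertex (hCO hv)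
      exact ⟨p, hcc v hv hp, hp0, hh_edge ha hb hd h1 h2 hcc hv h3 (T.self_mem_cc v) hp⟩
  obtain ⟨p, hp, hp0, e1⟩ := hnear v hv hv1
  obtain ⟨p', hp', hp0', e2⟩ := hnear w hw hw1
  rw [e1, e2]
  exact h0 p hp p' hp' hp0 hp0'

/-- **laminarity on the 1-skeleton** -/
theorem lam_skel {c : T.Cell} {Q Q' : Finset E} {a b : E → ZMod 2} {β : ZMod 2}
    (ha : XL T Q a c.set) (hb : XL T Q' b c.set) (hQ1 : ∀ w ∈ Q, T.dim w = 1)
    (hQ1' : ∀ w ∈ Q', T.dim w = 1) (hd : ∀ w ∈ Q, w ∉ Q')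
    (h1 : ∀ w ∈ Q', w ∈ c.set → a w = 1)
    (h2 : ∀ w ∈ Q, w ∈ c.set → b w = β) (ha0 : a (bv c) = 0) (hb0 : b (bv c) = 0)
    (hne : ∃ w ∈ Q', w ∈ c.set) :
    β = 0 ∧ ∀ v ∈ c.set, T.dim v ≤ 1 → v ∉ Q → v ∉ Q' → b v = 1 → a v = 1 := by
  have hbQ : ∀ Q'' : Finset E, (∀ w ∈ Q'', T.dim w = 1) → bv c ∉ Q'' := fun Q'' h h' => by
    have := h _ h'
    rw [bv_dim] at this
    omega
  have hcon : ∀ v ∈ c.set, T.dim v ≤ 1 → HH Q Q' a b β v = HH Q Q' a b β (bv c) := fun v hv hv1 =>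
    hh_const ha hb hd h1 h2 (cell_conn c) (cell_sub c) (cell_cc c) hv (bv_mem c) hv1
      (by rw [bv_dim]; omega)
  have hbase : HH Q Q' a b β (bv c) = β := by
    unfold HH
    rw [if_neg (not_or.2 ⟨hbQ Q hQ1, hbQ Q' hQ1'⟩), ha0, hb0]
    ring
  have hβ : β = 0 := by
    obtain ⟨w, hw, hwc⟩ := hne
    have e1 := hcon w hwc (hQ1' w hw).le
    rw [hbase] at e1
    rw [← e1]
    unfold HH
    rw [if_pos (Or.inr hw)]
  refine ⟨hβ, fun v hv hv1 hvQ hvQ' hbv => ?_⟩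
  have e1 := hcon v hv hv1
  rw [hbase, hβ] at e1
  unfold HH at e1
  rw [if_neg (not_or.2 ⟨hvQ, hvQ'⟩), hbv, add_zero, mul_one] at e1
  have e4 : ∀ a : ZMod 2, a + 1 = 0 → a = 1 := by decide
  exact e4 _ e1

end fd

end Crest.Agent.R096.Cm_117
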