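import Crest.Agent.R096.Cm4_117
import Crest.Agent.R096.Ac9_117

/-!
# R096 (row 96), DEP, part 1: the closed chord cycles of a two-colour state on the boundary of a
tile (helper117)
-/

set_option autoImplicit false
set_option linter.unusedSectionVars false

open Set Topology Filter Metric Module

namespace Crest.Agent.R096.Cm_117

open Crest.Agent.R096.Msh_715 Crest.Agent.R096.Lab_184 Crest.Agent.R096.Agl5_543
  Crest.Agent.R096.Pat5_543 Crest.Agent.R096.Coh_184 Crest.Agent.R096.Seq_213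
  Crest.Agent.R096.St_147 Crest.Agent.R096.Wk_689 Crest.Agent.R096.Ac_117

variable {E : Type} [NormedAddCommGroup E] [NormedSpace ℝ E]
variable {Om : Set E} {ι : Type} {T : Tiling Om ι}
variable [FiniteDimensional ℝ E] {h3 : finrank ℝ E = 3} {J C I K : Type} {fam : J → C}
variable {col : I → Bool}

/-- `r` is the restriction of `s` to some families -/
structure ResOf (s : GSt (meshC T h3) fam) (r : St (meshC T h3) col) : Prop where
  sub : ∀ w ∈ r.P, w ∈ s.P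
  mu : ∀ F w, r.mu F w = s.mu F w
  cl : ∀ w ∈ r.P, ∀ w' ∈ s.P, fam (s.lab w') = fam (s.lab w) → w' ∈ r.P
  colr : ∀ w ∈ r.P, ∀ w' ∈ r.P, (col (r.lab w) = col (r.lab w') ↔ fam (s.lab w) = fam (s.lab w'))

theorem resOf (s : GSt (meshC T h3) fam) (Q : Quads ι C K) (k : K) (i0 : Q.Nm fam k) :
    ResOf s (s.res Q k i0) where
  sub := fun _ hw => (GSt.mem_res.1 hw).1
  mu := fun _ _ => rfl
  cl := fun w hw w' hw' hf => by
    rw [GSt.mem_res] at hw ⊢
    exact ⟨hw', by rw [hf]; exact hw.2⟩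
  colr := fun w hw w' hw' => by
    rw [GSt.mem_res] at hw hw'
    rw [GSt.res_lab hw.2, GSt.res_lab hw'.2]
    exact Q.cl_eq_iff fam k ⟨_, hw.2⟩ ⟨_, hw'.2⟩

variable {s : GSt (meshC T h3) fam} {r : St (meshC T h3) col}

/-- the tile as a cell -/
lemma face_sub {q : ι} {c : T.Cell} (hc : c.set = Msh_715.P (T.H q)) {F : C2 T}
    (hq : q ∈ (meshC T h3).side F) : F.set ⊆ c.set := by
  rw [hc]; exact C2.sub_tile (h3 := h3) hq

lemma face_side' {q : ι} {c : T.Cell} (hc : c.set = Msh_715.P (T.H q)) {F : C2 T}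
    (hF : F.set ⊆ c.set) : q ∈ (meshC T h3).side F := by
  show q ∈ F.side h3
  rw [C2.mem_side]
  have : F.pt ∈ F.set := by rw [F.set_eq]; exact T.self_mem_cc _
  have h1 := hF this
  rw [hc] at h1
  exact h1

variable {q : ι} {c : T.Cell}

lemma ptc (R : ResOf s r) (hc : c.set = Msh_715.P (T.H q)) {F : C2 T} {w : E} (hat : r.At F w)
    (hq : q ∈ (meshC T h3).side F) : w ∈ s.P ∧ w ∈ c.set ∧ T.dim w = 1 :=
  ⟨R.sub w hat.1, face_sub hc hq hat.2.1, hat.2.2⟩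

/-- the closed chord cycle of a sub-chord -/
noncomputable def cyc (R : ResOf s r) (hc : c.set = Msh_715.P (T.H q)) (p : Qq r q) : Pc s c :=
  Quot.mk _ ⟨(chd p.1.2).2, ptc R hc (chd_at p.1.2) p.2⟩

lemma mk_congr {w w' : E} (h : w = w') (hw : w ∈ s.P ∧ w ∈ c.set ∧ T.dim w = 1)
    (hw' : w' ∈ s.P ∧ w' ∈ c.set ∧ T.dim w' = 1) :
    (Quot.mk _ ⟨w, hw⟩ : Pc s c) = Quot.mk _ ⟨w', hw'⟩ := by
  subst h; rfl

variable (R : ResOf s r) (hc : c.set = Msh_715.P (T.H q))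

include R in
lemma mk_mu {F : C2 T} (hF : F.set ⊆ c.set) {w : E} (hat : r.At F w)
    (hw : w ∈ s.P ∧ w ∈ c.set ∧ T.dim w = 1)
    (hw' : r.mu F w ∈ s.P ∧ r.mu F w ∈ c.set ∧ T.dim (r.mu F w) = 1) :
    (Quot.mk _ ⟨r.mu F w, hw'⟩ : Pc s c) = Quot.mk _ ⟨w, hw⟩ :=
  (Quot.sound ⟨F, hF, hat.2.1, R.mu F w⟩).symm

lemma cyc_pt (d : Dart r) (h : q ∈ (meshC T h3).side (fc d)) :
    cyc R hc (pD d h) = Quot.mk _ ⟨pt d, ptc R hc (pt_at d) h⟩ := by
  obtain ⟨x, p, b⟩ := d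
  cases b
  · rfl
  · exact (mk_mu R (face_sub hc h) (chd_at p) (ptc R hc (chd_at p) h)
      (ptc R hc (pt_at ⟨x, p, true⟩) h)).symm

lemma chd_dj (z : r.Dbl) (x j : Bool) : chd (dj z x j).p = (z.F, z.e x) := by
  unfold dj
  cases (!(xor j (lowIn z x)))
  · rfl
  · exact below_chd (bel_spec z x)

lemma cyc_dj {z : r.Dbl} (hz : q ∈ (meshC T h3).side z.F) (x j : Bool) :
    cyc R hc (pcQ (Sum.inl (⟨z, hz⟩, x, j))) =
      Quot.mk _ ⟨z.e x, ptc R hc (z.at_ x) hz⟩ := by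
  apply mk_congr
  show (chd (dj z x j).p).2 = z.e x
  rw [chd_dj]

lemma cyc_lp (w : Lq r q) (i : Bool) :
    cyc R hc (pcQ (Sum.inr (w, i))) = Quot.mk _ ⟨w.1, ptc R hc (fa_at w i) (fa_side w i).1⟩ := by
  refine (cyc_pt R hc (ed (fa_at w i)) (toD_side (Sum.inr (w, i)))).trans ?_
  apply mk_congr
  rw [pt_ed]

lemma cyc_nx (d : Drt (Zq r q) (Lq r q)) : cyc R hc (pcQ (Arr.nx d)) = cyc R hc (pcQ d) := by
  rcases d with ⟨z, x, j⟩ | ⟨w, i⟩
  · show cyc R hc (pcQ (Sum.inl (z, x, !j))) = _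
    exact (cyc_dj R hc z.2 x (!j)).trans (cyc_dj R hc z.2 x j).symm
  · show cyc R hc (pcQ (Sum.inr (w, !i))) = _
    exact (cyc_lp R hc w (!i)).trans (cyc_lp R hc w i).symm

/-! ### connectedness of the cycles -/

section conn

variable {X : Set (Qq r q)} (hX : ∀ d : Drt (Zq r q) (Lq r q), pcQ d ∈ X → pcQ (Arr.nx d) ∈ X)

include hX

lemma x_z {z : r.Dbl} (hz : q ∈ (meshC T h3).side z.F) (x : Bool)
    (h1 : q ∈ (meshC T h3).side (chd (bel z x)).1) (h2 : q ∈ (meshC T h3).side (chd (abv z x)).1) :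
    (⟨⟨x, bel z x⟩, h1⟩ : Qq r q) ∈ X ↔ (⟨⟨x, abv z x⟩, h2⟩ : Qq r q) ∈ X := by
  obtain ⟨j, e1, e2⟩ := bel_abv z x
  have f1 : (⟨⟨x, bel z x⟩, h1⟩ : Qq r q) = pcQ (Sum.inl (⟨z, hz⟩, x, j)) := by
    apply Subtype.ext
    show (⟨x, bel z x⟩ : Σ x : Bool, r.Sub x) = ⟨(dj z x j).x, (dj z x j).p⟩
    rw [← e1]; rfl
  have f2 : (⟨⟨x, abv z x⟩, h2⟩ : Qq r q) = pcQ (Sum.inl (⟨z, hz⟩, x, !j)) := by
    apply Subtype.ext
    show (⟨x, abv z x⟩ : Σ x : Bool, r.Sub x) = ⟨(dj z x (!j)).x, (dj z x (!j)).p⟩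
    rw [← e2]; rfl
  rw [f1, f2]
  constructor
  · intro h; exact hX _ h
  · intro h
    have := hX _ h
    have e3 : Arr.nx (Sum.inl (⟨z, hz⟩, x, !j) : Drt (Zq r q) (Lq r q)) =
        Sum.inl (⟨z, hz⟩, x, j) := by
      show (Sum.inl (⟨z, hz⟩, x, !!j) : Drt (Zq r q) (Lq r q)) = _
      rw [Bool.not_not]
    rwa [e3] at this

/-- the first piece of the chord of a piece -/
noncomputable def fstp {x : Bool} (p : r.Sub x) : r.Sub x := Sum.inl ⟨chd p, chd_at p, chd_low p, chd_col p⟩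

lemma x_fst {x : Bool} (p : r.Sub x) (hp : q ∈ (meshC T h3).side (chd p).1) :
    (⟨⟨x, p⟩, hp⟩ : Qq r q) ∈ X ↔ (⟨⟨x, fstp p⟩, hp⟩ : Qq r q) ∈ X := by
  by_contra hbad
  -- the lowest bad double point
  have hne : {z : r.Dbl | ∃ hz : q ∈ (meshC T h3).side (chd (Sum.inr z : r.Sub x)).1,
      ¬ ((⟨⟨x, Sum.inr z⟩, hz⟩ : Qq r q) ∈ X ↔
        (⟨⟨x, fstp (Sum.inr z)⟩, hz⟩ : Qq r q) ∈ X)}.Nonempty := by
    cases p with
    | inl a => exact absurd Iff.rfl hbad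
    | inr z => exact ⟨z, hp, hbad⟩
  obtain ⟨z, ⟨hz, hzb⟩, hmin⟩ := Set.exists_min_image _ (fun z : r.Dbl => z.key x)
    (Set.toFinite _) hne
  have hb := bel_spec z x
  have hbc := below_chd hb
  have hbs : q ∈ (meshC T h3).side (chd (bel z x)).1 := by
    rw [hbc]; exact hz
  have h1 := x_z hX (z := z) hz x hbs hz
  apply hzb
  refine (h1.symm : _ ↔ (⟨⟨x, bel z x⟩, hbs⟩ : Qq r q) ∈ X).trans ?_
  have hfst : ∀ p' : r.Sub x, ∀ (hp' : q ∈ (meshC T h3).side (chd p').1), chd p' = (z.F, z.e x) →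
      ((⟨⟨x, fstp p'⟩, hp'⟩ : Qq r q) ∈ X ↔ (⟨⟨x, fstp (Sum.inr z)⟩, hz⟩ : Qq r q) ∈ X) := by
    intro p' hp' he
    have : fstp p' = fstp (Sum.inr z : r.Sub x) := by
      unfold fstp
      congr 1
      exact Subtype.ext he
    have e1 : (⟨⟨x, fstp p'⟩, hp'⟩ : Qq r q) = ⟨⟨x, fstp (Sum.inr z)⟩, hz⟩ := by
      apply Subtype.ext
      show (⟨x, fstp p'⟩ : Σ x : Bool, r.Sub x) = ⟨x, fstp (Sum.inr z)⟩
      rw [this]
    rw [e1]
  obtain ⟨b0, hbe0⟩ : ∃ b0, bel z x = b0 := ⟨_, rfl⟩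
  rcases b0 with a | z'
  · -- the piece below is the first one
    have h2 := hfst (bel z x) hbs hbc
    have h4 : fstp (bel z x) = bel z x := by
      rw [hbe0]; rfl
    have e1 : (⟨⟨x, fstp (bel z x)⟩, hbs⟩ : Qq r q) = ⟨⟨x, bel z x⟩, hbs⟩ := by
      apply Subtype.ext
      show (⟨x, fstp (bel z x)⟩ : Σ x : Bool, r.Sub x) = ⟨x, bel z x⟩
      rw [h4]
    rw [e1] at h2
    exact h2
  · have h5 : z'.key x < z.key x := by
      have := (below_start hb).1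
      rw [hbe0] at this
      exact this
    have hc' : chd (Sum.inr z' : r.Sub x) = (z.F, z.e x) := by rw [← hbe0]; exact hbc
    have hz' : q ∈ (meshC T h3).side (chd (Sum.inr z' : r.Sub x)).1 := by rw [hc']; exact hz
    have h6 : (⟨⟨x, Sum.inr z'⟩, hz'⟩ : Qq r q) ∈ X ↔
        (⟨⟨x, fstp (Sum.inr z')⟩, hz'⟩ : Qq r q) ∈ X := by
      by_contra hcon
      exact absurd (hmin z' ⟨hz', hcon⟩) (not_le.2 h5)
    have h7 := hfst (Sum.inr z') hz' hc'
    have e1 : (⟨⟨x, bel z x⟩, hbs⟩ : Qq r q) = ⟨⟨x, Sum.inr z'⟩, hz'⟩ := by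
      apply Subtype.ext
      show (⟨x, bel z x⟩ : Σ x : Bool, r.Sub x) = ⟨x, Sum.inr z'⟩
      rw [hbe0]
    rw [e1]
    exact h6.trans h7

/-- pieces of one chord -/
lemma x_chord {p p' : Qq r q} (h : chd p.1.2 = chd p'.1.2) : p ∈ X ↔ p' ∈ X := by
  obtain ⟨⟨x, p⟩, hp⟩ := p
  obtain ⟨⟨x', p'⟩, hp'⟩ := p'
  have h' : chd p = chd p' := h
  have hx : x = x' := by
    rw [← chd_col p, ← chd_col p', h']
  subst hx
  rw [x_fst hX p hp, x_fst hX p' hp']
  have e1 : (⟨⟨x, fstp p⟩, hp⟩ : Qq r q) = ⟨⟨x, fstp p'⟩, hp'⟩ := by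
    apply Subtype.ext
    show (⟨x, fstp p⟩ : Σ x : Bool, r.Sub x) = ⟨x, fstp p'⟩
    have : fstp p = fstp p' := by
      unfold fstp
      congr 1
      exact Subtype.ext h'
    rw [this]
  rw [e1]

/-- `w` is an end point of the chord of the piece -/
def IsEnd (p : Qq r q) (w : E) : Prop :=
  (chd p.1.2).2 = w ∨ r.mu (chd p.1.2).1 (chd p.1.2).2 = w

omit hX in
lemma isEnd_at {p : Qq r q} {w : E} (h : IsEnd p w) : r.At (chd p.1.2).1 w := by
  rcases h with h | h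
  · rw [← h]; exact chd_at p.1.2
  · rw [← h]; exact At.mu r (chd_at p.1.2)

omit hX in
lemma lo_dart (d : Dart r) : r.lo (fc d) (pt d) = (chd d.p).2 := by
  obtain ⟨x, p, b⟩ := d
  cases b
  · exact lo_eq_of_lt (chd_low p)
  · exact lo_mu_of_lt (chd_at p) (chd_low p)

omit hX in
lemma isEnd_lo {p : Qq r q} {w : E} (h : IsEnd p w) :
    r.lo (chd p.1.2).1 w = (chd p.1.2).2 := by
  rcases h with h | h
  · rw [← h]; exact lo_eq_of_lt (chd_low p.1.2)
  · rw [← h]; exact lo_mu_of_lt (chd_at p.1.2) (chd_low p.1.2)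

/-- all pieces of the chords which end at `w` -/
lemma x_ends (w : Lq r q) {i : Bool} (h : pcQ (Sum.inr (w, i)) ∈ X) :
    ∀ p : Qq r q, IsEnd p w.1 → p ∈ X := by
  have hall : ∀ j, pcQ (Sum.inr (w, j)) ∈ X := by
    intro j
    rcases bool_or_not j i with rfl | rfl
    · exact h
    · exact hX _ h
  intro p hp
  obtain ⟨j, hj⟩ := exists_fa w p.2 (isEnd_at hp).2
  refine (x_chord hX (p' := pcQ (Sum.inr (w, j))) ?_).2 (hall j)
  show chd p.1.2 = chd (ed (fa_at w j)).p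
  have h1 : fc (ed (fa_at w j)) = fa w j := fc_ed _
  have h2 := lo_dart (ed (fa_at w j))
  rw [pt_ed, h1] at h2
  apply Prod.ext
  · rw [hj]; exact h1.symm
  · rw [← h2, ← hj]; exact (isEnd_lo hp).symm

omit hX in
lemma isEnd_pc (w : Lq r q) (i : Bool) : IsEnd (pcQ (Sum.inr (w, i))) w.1 := by
  have h : pt (ed (fa_at w i)) = w.1 := pt_ed _
  show (chd (ed (fa_at w i)).p).2 = w.1 ∨ r.mu (chd (ed (fa_at w i)).p).1
    (chd (ed (fa_at w i)).p).2 = w.1
  unfold pt at h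
  rcases hb : (ed (fa_at w i)).b
  · rw [hb] at h; exact Or.inl h
  · rw [hb] at h; exact Or.inr h

include R hc in
/-- **the closed chord cycles are connected** -/
theorem x_cyc {p p' : Qq r q} (h : cyc R hc p = cyc R hc p') (hp : p ∈ X) : p' ∈ X := by
  -- a predicate on points
  have hinv : ∀ a b : Pt s c, Rel s c a b →
      (a.1 ∈ r.P → ∀ p : Qq r q, IsEnd p a.1 → p ∈ X) =
      (b.1 ∈ r.P → ∀ p : Qq r q, IsEnd p b.1 → p ∈ X) := by
    have one : ∀ a b : Pt s c, (∃ F : C2 T, F.set ⊆ c.set ∧ a.1 ∈ F.set ∧ b.1 = s.mu F a.1) →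
        (a.1 ∈ r.P → ∀ p : Qq r q, IsEnd p a.1 → p ∈ X) →
        (b.1 ∈ r.P → ∀ p : Qq r q, IsEnd p b.1 → p ∈ X) := by
      rintro a b ⟨F, hF, haF, hb⟩ ha hbP
      have hqF : q ∈ (meshC T h3).side F := face_side' hc hF
      have haP : a.1 ∈ r.P := by
        refine R.cl b.1 hbP a.1 a.2.1 ?_
        rw [hb, s.mu_lab a.2.1 (mem_On haF a.2.2.2)]
      have hat : r.At F a.1 := ⟨haP, mem_On haF a.2.2.2⟩
      let w : Lq r q := ⟨a.1, haP, F, hqF, hat.2⟩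
      have hbm : r.mu F a.1 = b.1 := by rw [R.mu, hb]
      have hatb : r.At F b.1 := by rw [← hbm]; exact At.mu r hat
      let w' : Lq r q := ⟨b.1, hbP, F, hqF, hatb.2⟩
      obtain ⟨i, hi⟩ := exists_fa w' hqF hatb.2
      refine x_ends hX w' (i := i) (ha haP _ ?_)
      -- the end piece at `b` on `F` is on the chord of `a`
      have hc1 : (chd (ed (fa_at w' i)).p).1 = F := by
        have : fc (ed (fa_at w' i)) = fa w' i := fc_ed _
        rw [hi]; exact this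
      have hend := isEnd_pc w' i
      show (chd (ed (fa_at w' i)).p).2 = a.1 ∨ r.mu (chd (ed (fa_at w' i)).p).1
        (chd (ed (fa_at w' i)).p).2 = a.1
      have hend' : (chd (ed (fa_at w' i)).p).2 = b.1 ∨ r.mu (chd (ed (fa_at w' i)).p).1
        (chd (ed (fa_at w' i)).p).2 = b.1 := hend
      rw [hc1] at hend' ⊢
      have hmb : r.mu F b.1 = a.1 := by rw [← hbm]; exact r.mu_mu hat.1 hat.2
      rcases hend' with h1 | h1
      · right; rw [h1]; exact hmb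
      · left
        have hat2 : r.At F (chd (ed (fa_at w' i)).p).2 := by
          have := chd_at (ed (fa_at w' i)).p
          rwa [hc1] at this
        rw [← r.mu_mu hat2.1 hat2.2, h1, hmb]
    intro a b hab
    apply propext
    constructor
    · exact one a b hab
    · refine one b a ?_
      obtain ⟨F, hF, haF, hb⟩ := hab
      have hm := s.mu_mem a.2.1 (mem_On haF a.2.2.2)
      refine ⟨F, hF, by rw [hb]; exact hm.2.1, ?_⟩
      rw [hb, s.mu_mu a.2.1 (mem_On haF a.2.2.2)]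
  let g : Pc s c → Prop := Quot.lift (fun a => a.1 ∈ r.P → ∀ p : Qq r q, IsEnd p a.1 → p ∈ X) hinv
  have hgp : g (cyc R hc p) := by
    intro _
    have hat := chd_at p.1.2
    let w : Lq r q := ⟨(chd p.1.2).2, hat.1, _, p.2, hat.2⟩
    obtain ⟨i, hi⟩ := exists_fa w p.2 hat.2
    refine x_ends hX w (i := i) ?_
    refine (x_chord hX (p' := p) ?_).2 hp
    show chd (ed (fa_at w i)).p = chd p.1.2
    have h1 : fc (ed (fa_at w i)) = fa w i := fc_ed _
    have h2 := lo_dart (ed (fa_at w i))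
    rw [pt_ed, h1] at h2
    have h3' : r.lo (chd p.1.2).1 (chd p.1.2).2 = (chd p.1.2).2 := lo_eq_of_lt (chd_low p.1.2)
    have h4 : r.lo (fa w i) w.1 = (chd p.1.2).2 := by
      have : r.lo (fa w i) w.1 = r.lo (chd p.1.2).1 (chd p.1.2).2 := by
        exact congrArg (fun G => r.lo G (chd p.1.2).2) hi.symm
      rw [this, h3']
    apply Prod.ext
    · exact h1.trans hi.symm
    · exact h2.symm.trans h4
  have hgp' : g (cyc R hc p') := h ▸ hgp
  exact hgp' (chd_at p'.1.2).1 p' (Or.inl rfl)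

end conn

end Crest.Agent.R096.Cm_117
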