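import Crest.Agent.R096.Cm5_117

/-!
# R096 (row 96), DEP, part 2: the inside function of a closed chord cycle on the boundary of a
tile (helper117)
-/

set_option autoImplicit false
set_option linter.unusedSectionVars false

open Set Topology Filter Metric Module

namespace Crest.Agent.R096.Cm_117

open Crest.Agent.R096.Msh_715 Crest.Agent.R096.Lab_184 Crest.Agent.R096.Agl5_543
  Crest.Agent.R096.Pat5_543 Crest.Agent.R096.Coh_184 Crest.Agent.R096.Seq_213
  Crest.Agent.R096.St_147 Crest.Agent.R096.Wk_689 Crest.Agent.R096.Ac_117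

variable {E : Type} [NormedAddCommGroup E] [NormedSpace ℝ E]
variable {Om : Set E} {ι : Type} {T : Tiling Om ι}
variable [FiniteDimensional ℝ E] {h3 : finrank ℝ E = 3} {J C I K : Type} {fam : J → C}
variable {col : I → Bool}
variable {s : GSt (meshC T h3) fam} {r : St (meshC T h3) col} {q : ι} {c : T.Cell}

open Classical in
/-- the jump of a piece -/
noncomputable def jx (h : LF s) (x : Pc s c) (b : Bool) (p : r.Sub b) : ZMod 2 :=
  if (chd p).2 ∈ pts h c x then 1 else 0

lemma jx_evD (h : LF s) (x : Pc s c) (F : C2 T) : EvD (jx (r := r) h x) F := by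
  intro z _
  unfold jx
  have e1 : ∀ b, chd (bel z b) = (z.F, z.e b) := fun b => below_chd (bel_spec z b)
  have e2 : ∀ b, chd (abv z b) = (z.F, z.e b) := fun b => rfl
  rw [e1, e1, e2, e2, add_self, add_self, add_zero]

/-- partners on the faces of the cell -/
lemma mem_mu (R : ResOf s r) {h : LF s} {x : Pc s c} {F : C2 T} (hF : F.set ⊆ c.set) {w : E}
    (hat : r.At F w) : r.mu F w ∈ pts h c x ↔ w ∈ pts h c x := by
  constructor
  · intro hw
    have h1 := mu_pts hw hF (At.mu r hat).2.1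
    rw [← R.mu, r.mu_mu hat.1 hat.2] at h1
    exact h1
  · intro hw
    rw [R.mu]
    exact mu_pts hw hF hat.2.1

lemma mem_lo (R : ResOf s r) {h : LF s} {x : Pc s c} {F : C2 T} (hF : F.set ⊆ c.set) {w : E}
    (hat : r.At F w) : r.lo F w ∈ pts h c x ↔ w ∈ pts h c x := by
  unfold St.lo
  split_ifs
  · rfl
  · exact mem_mu R hF hat

open Classical in
lemma jx_ed (R : ResOf s r) {h : LF s} {x : Pc s c} {F : C2 T} (hF : F.set ⊆ c.set) {w : E}
    (hat : r.At F w) : jx h x (ed hat).x (ed hat).p = if w ∈ pts h c x then 1 else 0 := by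
  have h1 := lo_dart (ed hat)
  rw [pt_ed, fc_ed] at h1
  unfold jx
  rw [← h1]
  by_cases hw : w ∈ pts h c x
  · rw [if_pos hw, if_pos ((mem_lo R hF hat).2 hw)]
  · rw [if_neg hw, if_neg (fun h' => hw ((mem_lo R hF hat).1 h'))]

open Classical in
lemma gF_lamF (R : ResOf s r) {h : LF s} {x : Pc s c} (hx : ∀ w ∈ pts h c x, w ∈ r.P) {F : C2 T}
    (hF : F.set ⊆ c.set) (w : E) :
    gF (jx (r := r) h x) F ((meshC T h3).pos F w) = lamF F (pts h c x) w := by
  rw [gF_eq (jx_evD h x F)]
  unfold lamF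
  have h1 : ∀ v ∈ r.P.filter (fun v => v ∈ (meshC T h3).On F ∧
      (meshC T h3).pos F v < (meshC T h3).pos F w),
      ue (jx (r := r) h x) F v = if v ∈ pts h c x then 1 else 0 := by
    intro v hv
    obtain ⟨a1, a2, -⟩ := Finset.mem_filter.1 hv
    have hat : r.At F v := ⟨a1, a2⟩
    rw [ue_ed hat]
    exact jx_ed R hF hat
  rw [Finset.sum_congr rfl h1, ← Finset.sum_filter, ← Finset.sum_filter]
  rw [Finset.sum_const, Finset.sum_const]
  congr 2
  ext v
  simp only [Finset.mem_filter]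
  constructor
  · rintro ⟨⟨a1, a2, a3⟩, a4⟩
    exact ⟨a4, a2.1, a3⟩
  · rintro ⟨a1, a2, a3⟩
    exact ⟨⟨hx v a1, ⟨a2, pts_dim v a1⟩, a3⟩, a1⟩

/-- the base value of a face -/
noncomputable def kap (h : LF s) (x : Pc s c) (F : C2 T) : ZMod 2 :=
  nl h c x (bv F.1) + lamF F (pts h c x) (bv F.1)

lemma add_swap {a b c d : ZMod 2} (h : a + b = c + d) : a = (c + d) + b := by
  revert a b c d; decide

lemma kap_eq {h : LF s} {x : Pc s c} {F : C2 T} (hF : F.set ⊆ c.set) {v : E} (hv : v ∈ F.set)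
    (hv1 : T.dim v ≤ 1) (hvx : v ∉ pts h c x) :
    nl h c x v = kap h x F + lamF F (pts h c x) v := by
  have h1 : XL T (pts h c x) (nl h c x) F.set := (nl_xl h c x).mono hF
  have h2 := xl_lamF F (pts_dim (h := h) (x := x)) (even_pts hF)
  have h3' := h1.unique h2 pts_dim (cell_conn F.1) (cell_sub F.1) (cell_cc F.1) hv (bv_mem F.1)
    hv1 (by rw [bv_dim]; omega) hvx (not_pts_of_dim (bv_dim F.1))
  unfold kap
  exact add_swap h3'

/-- **the side of a piece of the closed chord cycle `x`** -/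
noncomputable def inS (h : LF s) (x : Pc s c) (p : Qq r q) (i : Bool) : ZMod 2 :=
  kap h x (chd p.1.2).1 + sd (jx h x) p.1.2 i

open Classical in
lemma inS_end (R : ResOf s r) (hc : c.set = Msh_715.P (T.H q)) {h : LF s} {x : Pc s c}
    (hx : ∀ w ∈ pts h c x, w ∈ r.P) (w : Lq r q) (b i : Bool) :
    inS h x (pcQ (Sum.inr (w, b))) i = kap h x (fa w b) + lamF (fa w b) (pts h c x) w.1 +
      (if xor i (upb w b) = true then (if w.1 ∈ pts h c x then 1 else 0) else 0) := by
  have hF := face_sub hc (fa_side w b).1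
  have hat := fa_at w b
  have hend := Wk_689.end_ed hat
  obtain ⟨-, -, h3'⟩ := face_side (jx (r := r) h x) (fa w b) (jx_evD h x _)
  obtain ⟨g1, g2⟩ := h3' _ _ _ hend
  have hfc : (chd (ed hat).p).1 = fa w b := fc_ed _
  have e0 : inS h x (pcQ (Sum.inr (w, b))) i = kap h x (fa w b) + sd (jx h x) (ed hat).p i := by
    show kap h x (chd (ed hat).p).1 + sd (jx h x) (ed hat).p i = _
    rw [hfc]
  rw [gF_lamF R hx hF, jx_ed R hF hat] at g1 g2
  rw [e0, add_assoc]
  congr 1
  unfold upb
  by_cases hlt : (meshC T h3).pos (fa w b) (r.mu (fa w b) w.1) < (meshC T h3).pos (fa w b) w.1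
  · rw [decide_eq_true hlt]
    obtain ⟨k1, k2⟩ := g2 hlt
    cases i
    · simp only [Bool.xor_true, Bool.not_false, if_true]; exact k2
    · simp only [Bool.xor_true, Bool.not_true, Bool.false_eq_true, if_false, add_zero]; exact k1
  · rw [decide_eq_false hlt]
    have hne : (meshC T h3).pos (fa w b) w.1 ≠ (meshC T h3).pos (fa w b) (r.mu (fa w b) w.1) :=
      pos_ne r hat (At.mu r hat) (fun h' => r.mu_ne hat.1 hat.2 h'.symm)
    obtain ⟨k1, k2⟩ := g1 (lt_of_le_of_ne (not_lt.1 hlt) hne)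
    cases i
    · simp only [Bool.xor_false, Bool.false_eq_true, if_false, add_zero]; exact k1
    · simp only [Bool.xor_false, if_true]; exact k2

/-- off the points of `x` the value is the label -/
lemma inS_end' (R : ResOf s r) (hc : c.set = Msh_715.P (T.H q)) {h : LF s} {x : Pc s c}
    (hx : ∀ w ∈ pts h c x, w ∈ r.P) (w : Lq r q) (b i : Bool) (hw : w.1 ∉ pts h c x) :
    inS h x (pcQ (Sum.inr (w, b))) i = nl h c x w.1 := by
  classical
  have hF := face_sub hc (fa_side w b).1
  have h2 := (fa_side w b).2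
  rw [inS_end R hc hx w b i, if_neg hw, ite_self, add_zero,
    kap_eq hF h2.1 (le_of_eq h2.2) hw]

end Crest.Agent.R096.Cm_117
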