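import Crest.Agent.R096.Cm8_117

/-!
# R096 (row 96), DEP, part 5: the arc pairing of a two-family restriction (helper117)
-/

set_option autoImplicit false
set_option linter.unusedSectionVars false

open Set Topology Filter Metric Module

namespace Crest.Agent.R096.Cm_117

open Crest.Agent.R096.Msh_715 Crest.Agent.R096.Lab_184 Crest.Agent.R096.Agl5_543
  Crest.Agent.R096.Pat5_543 Crest.Agent.R096.Coh_184 Crest.Agent.R096.Seq_213
  Crest.Agent.R096.St_147 Crest.Agent.R096.Wk_689 Crest.Agent.R096.Ac_117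

variable {E : Type} [NormedAddCommGroup E] [NormedSpace ℝ E]
variable {Om : Set E} {ι : Type} {T : Tiling Om ι}
variable [FiniteDimensional ℝ E] {h3 : finrank ℝ E = 3} {J C I K : Type} {fam : J → C}
variable {col : I → Bool}
variable {s : GSt (meshC T h3) fam} {r : St (meshC T h3) col}

variable (T) in
/-- the cell of a tile -/
noncomputable def tc (q : ι) : T.Cell := T.cl (T.sub q (I_sub_P _ (T.ne q).choose_spec))

lemma tc_set (q : ι) : (tc T q).set = Msh_715.P (T.H q) := by
  unfold tc
  rw [T.cl_set]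
  exact T.cc_eq_tile (T.ne q).choose_spec

/-- **(ARCS) for a two-family restriction: the pairing of the double points on the boundaries of
the active tiles.**  `rk q` = any injective ranks of the closed chord cycles of the tile (small =
deep) such that outer cycles of one family are deeper. -/
theorem exists_arcs (R : ResOf s r) (h : LF s) (Act : Set ι)
    (S : ∀ q ∈ Act, SphM (meshC T h3) q) (rk : ∀ q, Pc s (tc T q) → ℕ)
    (hinj : ∀ q ∈ Act, Function.Injective (rk q)) (hord : ∀ q ∈ Act, Ord h (tc T q) (rk q)) :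
    ∃ A : r.Arcs Act, ∀ (q : ι) (hq : q ∈ Act) (z : r.Dbl) (hz : q ∈ (meshC T h3).side z.F),
      A.arc q z = ((depC (S q hq) R (tc_set q) h (rk q) (hinj q hq) (hord q hq)).arc ⟨z, hz⟩).1 :=
  arcs_of_dep Act (faceSide r) S
    (fun q hq => depC (S q hq) R (tc_set q) h (rk q) (hinj q hq) (hord q hq))

/-- the same for the quads of 213 -/
theorem exists_arcs_quad (s : GSt (meshC T h3) fam) (h : LF s) (Qd : Quads ι C K) (k : K)
    (i0 : Qd.Nm fam k) (S : ∀ q ∈ Qd.Act k, SphM (meshC T h3) q) (rk : ∀ q, Pc s (tc T q) → ℕ)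
    (hinj : ∀ q ∈ Qd.Act k, Function.Injective (rk q))
    (hord : ∀ q ∈ Qd.Act k, Ord h (tc T q) (rk q)) :
    ∃ A : (s.res Qd k i0).Arcs (Qd.Act k),
      ∀ (q : ι) (hq : q ∈ Qd.Act k) (z : (s.res Qd k i0).Dbl) (hz : q ∈ (meshC T h3).side z.F),
      A.arc q z = ((depC (S q hq) (resOf s Qd k i0) (tc_set q) h (rk q) (hinj q hq)
        (hord q hq)).arc ⟨z, hz⟩).1 :=
  exists_arcs (resOf s Qd k i0) h (Qd.Act k) S rk hinj hord

end Crest.Agent.R096.Cm_117
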