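import Crest.Agent.R096.Mfi5_290

/-!
# Row 96 (S0127), helper358.  Leaf [CM] of 365 #11372: a uniform finite list of shapes

The lists `qSh` (290) of all inner classes of all blocks are contained in ONE finite list which depends
only on the bounds `Bn`, `R0` of the record `RD`.
-/

set_option autoImplicit false
set_option linter.style.longLine false

open Set Filter Topology Metric

namespace Crest.Agent.R096.Cml_358

open Crest.Agent.R096.Mal_874 Crest.Agent.R096.Cut_874 Crest.Agent.R096.Msh_810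
open Crest.Agent.R096.Mfi_290
open Crest.Agent.R096.SkC1_961 (E3)

noncomputable section

variable {n : ℕ}

theorem thr_mono {𝒩 𝒩' : Finset (Fin n → ℝ)} {d : ℕ} {B B' : ℝ} (h : 𝒩 ⊆ 𝒩') (hB : B ≤ B') :
    thr 𝒩 d B ⊆ thr 𝒩' d B' := by
  rintro p ⟨h1, t, h2, h3⟩
  exact ⟨h h1, t, h2.trans hB, h3⟩

theorem shapes_mono {𝒩 𝒩' : Finset (Fin n → ℝ)} {d : ℕ} {B B' : ℝ} (h : 𝒩 ⊆ 𝒩') (hB : B ≤ B') :
    shapes 𝒩 d B ⊆ shapes 𝒩' d B' := by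
  rintro S ⟨C1, h1, C2, h2, rfl⟩
  exact ⟨C1, h1.trans (thr_mono h hB), C2, h2.trans (thr_mono h hB), rfl⟩

theorem bnd_mono {𝒩 𝒩' : Finset (Fin n → ℝ)} {d : ℕ} {R R' : ℝ} (h : 𝒩 ⊆ 𝒩') (hR : |R| ≤ |R'|) :
    bnd 𝒩 d R ≤ bnd 𝒩' d R' := by
  unfold bnd
  have h1 : ∑ ν ∈ 𝒩, n1 ν ≤ ∑ ν ∈ 𝒩', n1 ν :=
    Finset.sum_le_sum_of_subset_of_nonneg h fun ν _ _ => n1_nonneg ν
  have h2 : (0 : ℝ) ≤ d := Nat.cast_nonneg d
  have h3 : 0 ≤ ∑ ν ∈ 𝒩, n1 ν := Finset.sum_nonneg fun ν _ => n1_nonneg ν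
  have h4 : (0:ℝ) ≤ |R'| + 1 := by positivity
  gcongr

/-- **monotonicity of the lists of configurations** -/
theorem simL_mono {𝒩 𝒩' : Finset (Fin n → ℝ)} {d : ℕ} {R R' : ℝ} (h : 𝒩 ⊆ 𝒩') (hR : |R| ≤ |R'|) :
    simL 𝒩 d R ⊆ simL 𝒩' d R' := by
  intro K hK S hS
  obtain ⟨S0, h1, v, h2, h3⟩ := hK hS
  exact ⟨S0, shapes_mono h (bnd_mono h hR) h1, v, fun m => (h2 m).trans (by linarith), h3⟩

theorem NB_mono {B B' : ℕ} (h : B ≤ B') : NB n B ⊆ NB n B' := by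
  classical
  unfold NB
  refine Finset.image_subset_image fun ν hν => ?_
  rw [Fintype.mem_piFinset] at hν ⊢
  intro l
  have h1 := hν l
  rw [Finset.mem_Icc] at h1 ⊢
  have h2 : (B : ℤ) ≤ B' := by exact_mod_cast h
  exact ⟨by linarith [h1.1], h1.2.trans h2⟩

/-- the universal list of the inner classes -/
def LL (Bn : ℕ) (R0 : ℝ) : Set (Set (Set E3)) := simL (N0 3) 1 2 ∪ simL (NB 3 Bn) 1 R0

theorem LL_finite (Bn : ℕ) (R0 : ℝ) : (LL Bn R0).Finite :=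
  (simL_finite _ _ _).union (simL_finite _ _ _)

/-- **[CM]** -/
theorem qSh_sub_LL {Bn : ℕ} {R0 : ℝ} {J : Type} {M : Crest.Agent.R096.Mal_874.MD E3 3 J} (D : RD M) (j : J)
    (hB : D.B j ≤ Bn) (hR : D.R j ≤ R0) (k0 : ℕ) (hk0 : (M.Q j).kc ≤ k0) (c : Pt (M.Q j) ⊕ ℕ) :
    qSh M D j k0 hk0 c ⊆ LL Bn R0 := by
  refine (qSh_sub M D j k0 hk0 c).trans (union_subset_union_right _ (simL_mono (NB_mono hB) ?_))
  have h1 := D.R1 j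
  rw [abs_of_nonneg (by linarith), abs_of_nonneg (by linarith)]
  exact hR

/-- **[CM], existential form** -/
theorem exists_list (Bn : ℕ) (R0 : ℝ) : ∃ L : Set (Set (Set E3)), L.Finite ∧
    ∀ {J : Type} (M : Crest.Agent.R096.Mal_874.MD E3 3 J) (D : RD M) (j : J), D.B j ≤ Bn → D.R j ≤ R0 →
      ∀ (k0 : ℕ) (hk0 : (M.Q j).kc ≤ k0) (c : Pt (M.Q j) ⊕ ℕ), qSh M D j k0 hk0 c ⊆ L :=
  ⟨LL Bn R0, LL_finite Bn R0, fun _ D j hB hR k0 hk0 c => qSh_sub_LL D j hB hR k0 hk0 c⟩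

/-- a bound of `C` over a finite list -/
theorem exists_bound {C : Set (Set E3) → ℝ} {L : Set (Set (Set E3))} (hL : L.Finite) :
    ∃ C1 : ℝ, 1 ≤ C1 ∧ ∀ 𝒦 ∈ L, C 𝒦 ≤ C1 := by
  obtain ⟨b, hb⟩ := (hL.image C).bddAbove
  exact ⟨max b 1, le_max_right _ _, fun 𝒦 h => (hb (mem_image_of_mem C h)).trans (le_max_left _ _)⟩

/-- **[CM], the constant before the data** -/
theorem exists_Cm (C : Set (Set E3) → ℝ) (Bn : ℕ) (R0 : ℝ) : ∃ C1 : ℝ, 1 ≤ C1 ∧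
    ∀ {J : Type} (M : Crest.Agent.R096.Mal_874.MD E3 3 J) (D : RD M) (j : J), D.B j ≤ Bn → D.R j ≤ R0 →
      ∀ (k0 : ℕ) (hk0 : (M.Q j).kc ≤ k0) (c : Pt (M.Q j) ⊕ ℕ), ∀ 𝒦 ∈ qSh M D j k0 hk0 c,
        C 𝒦 ≤ C1 := by
  obtain ⟨C1, h1, h2⟩ := exists_bound (C := C) (LL_finite Bn R0)
  exact ⟨C1, h1, fun _ D j hB hR k0 hk0 c 𝒦 h => h2 𝒦 (qSh_sub_LL D j hB hR k0 hk0 c h)⟩

end

end Crest.Agent.R096.Cml_358
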