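import Crest.Agent.R096.Np4_962
import Crest.Agent.R096.Mon1_664

/-!
Row 96 (S0127), helper552, node NO0-PRE3: monotonicity of `MeshN` in the accuracy `κ1` (and in `κ2`).
-/

set_option autoImplicit false
set_option linter.unusedSectionVars false
set_option linter.unusedVariables false
set_option linter.style.longLine false
open Set Filter Topology MeasureTheory Metric
open scoped NNReal ENNReal

noncomputable section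

namespace Crest.Agent.R096.Prn_552

open Crest.Agent.R096.Msh_715 hiding P I
open Crest.Agent.R096.SkC1_961 (E3 Cfg FoamD Hom3 NN)
open Crest.Agent.R096.Ls_222
open Crest.Agent.R096.Mbf_337
open Crest.Agent.R096.Msh_810
open Crest.Agent.R096.No_276 (QL)
open Crest.Agent.R096.Np_962

variable {δ κ0 R c0 : ℝ} {La : Set E3} {ι : Type}

variable {p : ℝ} {q : ℕ} {al : Fin 3 → ℝ} {h : ℝ} {s : Fin 3 → ℝ} {L : ℕ} {η : ℝ}
  {Φ : FoamD δ κ0 R c0 La} {f1 : E3 → E3} {g : Φ.F → Fin 3 → E3 → ℝ} {W : Φ.F → ℝ}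
  {κ' μ κ1 κ2 κ3 : ℝ} {Cs : Set (Set E3) → ℝ} {𝒮0 : Set (Set (Set E3))} {HH R' : Set E3}
  {e1 e2 e3 e4 : ℝ≥0∞} {e5 : ℝ} {Ku : ℝ≥0∞} {D : Dat 3} {K0 : ℕ} {r : ℝ} {hr : r ≠ 0}
  {o : Fin 2 → ℤ} {M : ℕ} {Zs : Finset ℤ} {T : Tiling (QL L) ι} {Q : Set ι} {τ : ι → Top D}
  {J0 J V : Φ.F → Set ι} {ct : Φ.F → ι} {A : Φ.F → E3 ≃ᵃ[ℝ] E3} {lam : Φ.F → ℝ} {z : Φ.F → E3}
  {θ : Φ.F → E3 → E3} {φ : Φ.F → E3 → ℝ} {Mg : Φ.F → ℕ} {B : ι → E3 ≃ᵃ[ℝ] E3} {cw : ι → ℝ≥0∞}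

/-- **`MeshN` is monotone in the accuracies** -/
theorem meshN_mono (H : MeshN p q al h s L η Φ f1 g W κ' μ κ1 κ2 κ3 Cs 𝒮0 HH R' e1 e2 e3 e4 e5 Ku D K0
    r hr o M Zs T Q τ J0 J V ct A lam z θ φ Mg B cw) {κ1' κ2' : ℝ} (h1 : κ1 ≤ κ1') (h2 : κ2' ≤ κ2) :
    MeshN p q al h s L η Φ f1 g W κ' μ κ1' κ2' κ3 Cs 𝒮0 HH R' e1 e2 e3 e4 e5 Ku D K0
      r hr o M Zs T Q τ J0 J V ct A lam z θ φ Mg B cw :=
  { H with
    cores := Crest.Agent.R096.Mon_664.cores_mono H.cores h1 h2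
    fine := Crest.Agent.R096.Mon_664.fine_mono H.fine h1 }

/-- monotonicity in the numbers -/
theorem meshN_num (H : MeshN p q al h s L η Φ f1 g W κ' μ κ1 κ2 κ3 Cs 𝒮0 HH R' e1 e2 e3 e4 e5 Ku D K0
    r hr o M Zs T Q τ J0 J V ct A lam z θ φ Mg B cw) {e1' e2' e3' e4' : ℝ≥0∞}
    (h1 : e1 ≤ e1') (h2 : e2 ≤ e2') (h3 : e3 ≤ e3') (h4 : e4 ≤ e4') :
    MeshN p q al h s L η Φ f1 g W κ' μ κ1 κ2 κ3 Cs 𝒮0 HH R' e1' e2' e3' e4' e5 Ku D K0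
      r hr o M Zs T Q τ J0 J V ct A lam z θ φ Mg B cw :=
  { H with
    ed := fun l => (H.ed l).trans h1
    ed1 := fun l => (H.ed1 l).trans h1
    sR := H.sR.trans h2
    vR := H.vR.trans h2
    nonQ := H.nonQ.trans h3
    cs := H.cs.trans h4 }

end Crest.Agent.R096.Prn_552
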