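import Crest.Agent.R096.Mfi5_290

/-!
# Row 96, [CM] of 365 #11372 (helper561): a uniform finite list of shapes for the inner classes

`LU Bn R0` = `simL (N0 3) 1 2 ∪ simL (NB 3 Bn) 1 R0` depends on the bounds `Bn`, `R0` only, and contains
all lists `qSh M X j k0 hk0 c` of every mesh `M` with rational data `X` with `X.B j ≤ Bn`, `X.R j ≤ R0`.
-/

set_option autoImplicit false
set_option linter.unusedSectionVars false

open Set Filter Metric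

namespace Crest.Agent.R096.Cmu_561

open Crest.Agent.R096.Msh_715 Crest.Agent.R096.Cut_874 Crest.Agent.R096.Msh_810
open Crest.Agent.R096.Mal_874 Crest.Agent.R096.Mfi_290
open Crest.Agent.R096.SkC1_961 (E3 Cfg)

variable {n : ℕ}

theorem NB_mono {B B' : ℕ} (h : B ≤ B') : NB n B ⊆ NB n B' := by
  classical
  unfold NB
  refine Finset.image_subset_image (Fintype.piFinset_subset _ _ fun _ => ?_)
  refine Finset.Icc_subset_Icc ?_ ?_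
  · have : (B : ℤ) ≤ B' := by exact_mod_cast h
    omega
  · exact_mod_cast h

theorem N0_sub_NB {B : ℕ} (h : 1 ≤ B) : N0 n ⊆ NB n B := by
  classical
  intro ν hν
  have hB : (1 : ℤ) ≤ B := by exact_mod_cast h
  unfold N0 at hν
  rcases Finset.mem_union.1 hν with h1 | h1
  · obtain ⟨l, -, rfl⟩ := Finset.mem_image.1 h1
    have e : (Pi.single l (1 : ℝ) : Fin n → ℝ) = rv (Pi.single l (1 : ℤ) : Fin n → ℤ) := by
      funext m
      unfold rv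
      by_cases hm : m = l
      · subst hm; simp
      · rw [Pi.single_eq_of_ne hm, Pi.single_eq_of_ne hm]; simp
    rw [e]
    refine rv_mem_NB fun m => ?_
    by_cases hm : m = l
    · subst hm; simpa using hB
    · rw [Pi.single_eq_of_ne hm]; simp
  · obtain ⟨l, -, rfl⟩ := Finset.mem_image.1 h1
    have e : (fun m => -(Pi.single l (1 : ℝ) : Fin n → ℝ) m) =
        rv (fun m => -(Pi.single l (1 : ℤ) : Fin n → ℤ) m) := by
      funext m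
      unfold rv
      by_cases hm : m = l
      · subst hm; simp
      · simp only [Pi.single_eq_of_ne hm]; simp
    rw [e]
    refine rv_mem_NB fun m => ?_
    by_cases hm : m = l
    · subst hm; simpa using hB
    · simp only [Pi.single_eq_of_ne hm]; simp

theorem thr_mono {𝒩 𝒩' : Finset (Fin n → ℝ)} (h : 𝒩 ⊆ 𝒩') {d : ℕ} {b b' : ℝ} (hb : b ≤ b') :
    thr 𝒩 d b ⊆ thr 𝒩' d b' := by
  rintro p ⟨h1, t, h2, h3⟩
  exact ⟨h h1, t, h2.trans hb, h3⟩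

theorem shapes_mono {𝒩 𝒩' : Finset (Fin n → ℝ)} (h : 𝒩 ⊆ 𝒩') {d : ℕ} {b b' : ℝ} (hb : b ≤ b') :
    shapes 𝒩 d b ⊆ shapes 𝒩' d b' := by
  rintro S ⟨C1, h1, C2, h2, rfl⟩
  exact ⟨C1, h1.trans (thr_mono h hb), C2, h2.trans (thr_mono h hb), rfl⟩

theorem bnd_mono {𝒩 𝒩' : Finset (Fin n → ℝ)} (h : 𝒩 ⊆ 𝒩') {d : ℕ} {r r' : ℝ} (hr : |r| ≤ |r'|) :
    bnd 𝒩 d r ≤ bnd 𝒩' d r' := by
  unfold bnd
  have h1 : ∑ ν ∈ 𝒩, n1 ν ≤ ∑ ν ∈ 𝒩', n1 ν :=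
    Finset.sum_le_sum_of_subset_of_nonneg h fun ν _ _ => n1_nonneg ν
  have h2 : 0 ≤ ∑ ν ∈ 𝒩, n1 ν := Finset.sum_nonneg fun ν _ => n1_nonneg ν
  gcongr

theorem shpT_mono {𝒩 𝒩' : Finset (Fin n → ℝ)} (h : 𝒩 ⊆ 𝒩') {d : ℕ} {r r' : ℝ} (hr : |r| ≤ |r'|) :
    shpT 𝒩 d r ⊆ shpT 𝒩' d r' := by
  rintro S' ⟨S, hS, v, hv, rfl⟩
  exact ⟨S, shapes_mono h (bnd_mono h hr) hS, v, fun m => (hv m).trans (by linarith), rfl⟩

/-- **the lists of configurations are monotone** -/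
theorem simL_mono {𝒩 𝒩' : Finset (Fin n → ℝ)} (h : 𝒩 ⊆ 𝒩') {d : ℕ} {r r' : ℝ} (hr : |r| ≤ |r'|) :
    simL 𝒩 d r ⊆ simL 𝒩' d r' := fun _ hK => hK.trans (shpT_mono h hr)

/-- **the uniform list** -/
def LU (Bn : ℕ) (R0 : ℝ) : Set (Set (Set (Fin 3 → ℝ))) :=
  simL (N0 3) 1 2 ∪ simL (NB 3 Bn) 1 R0

theorem LU_finite (Bn : ℕ) (R0 : ℝ) : (LU Bn R0).Finite :=
  (simL_finite _ _ _).union (simL_finite _ _ _)

theorem LU_mono {Bn Bn' : ℕ} (h : Bn ≤ Bn') {R0 R0' : ℝ} (h0 : 0 ≤ R0) (hr : R0 ≤ R0') :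
    LU Bn R0 ⊆ LU Bn' R0' :=
  union_subset_union_right _ (simL_mono (NB_mono h) (by
    rw [abs_of_nonneg h0, abs_of_nonneg (h0.trans hr)]; exact hr))

/-- one list -/
theorem LU_sub {Bn : ℕ} (h : 1 ≤ Bn) {R0 : ℝ} (h0 : 0 ≤ R0) :
    LU Bn R0 ⊆ simL (NB 3 Bn) 1 (max 2 R0) := by
  have h2 : (0 : ℝ) ≤ max 2 R0 := le_max_of_le_right h0
  refine union_subset (simL_mono (N0_sub_NB h) ?_) (simL_mono (Finset.Subset.refl _) ?_)
  · rw [abs_of_nonneg h2, abs_of_nonneg (by norm_num)]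
    exact le_max_left _ _
  · rw [abs_of_nonneg h2, abs_of_nonneg h0]
    exact le_max_right _ _

/-- the lists `simL (N0 3) 1 2`, `simL (NB 3 B) 1 R` in the uniform list -/
theorem simL_sub_LU {B Bn : ℕ} (hB : B ≤ Bn) {R R0 : ℝ} (h0 : 0 ≤ R) (hR : R ≤ R0) :
    simL (N0 3) 1 2 ∪ simL (NB 3 B) 1 R ⊆ LU Bn R0 := LU_mono hB h0 hR

/-- **[CM]: all lists of the inner classes lie in the uniform list** -/
theorem qSh_sub_LU {J : Type} (M : MD E3 3 J) (X : RD M) (j : J) {Bn : ℕ} {R0 : ℝ}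
    (hB : X.B j ≤ Bn) (hR : X.R j ≤ R0) (k0 : ℕ) (hk0 : (M.Q j).kc ≤ k0) (c : Pt (M.Q j) ⊕ ℕ) :
    qSh M X j k0 hk0 c ⊆ LU Bn R0 :=
  (qSh_sub M X j k0 hk0 c).trans (LU_mono hB (zero_le_one.trans (X.R1 j)) hR)

/-- **[CM], as asked in #11372** -/
theorem exists_LU (Bn : ℕ) (R0 : ℝ) : ∃ L : Set (Set (Set E3)), L.Finite ∧
    ∀ (J : Type) (M : MD E3 3 J) (X : RD M) (j : J), X.B j ≤ Bn → X.R j ≤ R0 →
      ∀ (k0 : ℕ) (hk0 : (M.Q j).kc ≤ k0) (c : Pt (M.Q j) ⊕ ℕ), qSh M X j k0 hk0 c ⊆ L :=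
  ⟨LU Bn R0, LU_finite Bn R0, fun _ M X j hB hR k0 hk0 c => qSh_sub_LU M X j hB hR k0 hk0 c⟩

/-- a bound of a function over the uniform list, for every class (the constant `Cm` before the data) -/
theorem exists_Cm (C : Set (Set E3) → ℝ) (Bn : ℕ) (R0 : ℝ) : ∃ Cs : ℝ, 1 ≤ Cs ∧
    ∀ 𝒞 ∈ LU Bn R0, C 𝒞 ≤ Cs := by
  obtain ⟨b, hb⟩ := ((LU_finite Bn R0).image C).bddAbove
  exact ⟨max 1 b, le_max_left _ _, fun 𝒞 h => (hb (mem_image_of_mem C h)).trans (le_max_right _ _)⟩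

end Crest.Agent.R096.Cmu_561
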