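import Crest.Agent.R096.Sec11_892

/-!
# R096 / DOORS-SEC, part 14 (helper892): CUT with (ENC) for ONE sheet

New points of the sheet `i` lie only next to barrier points which are not joined, by barrier chords not
crossed by the sheet `i`, with a point on a frozen face.
-/

set_option autoImplicit false

namespace Crest.Agent.R096.SecW_892

open Crest.Agent.R096.St_147 Crest.Agent.R096.Wk_689 Crest.Agent.R096.F_422
open Crest.Agent.R096.Sec_892

variable {ι Φ W I : Type} {M : MeshC ι Φ W} {col : I → Bool} {s : St M col}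
variable {Act : Set ι} {far : I → Set W}

/-- the barrier chord `(F, x)` is not crossed by the sheet `i` -/
def NoC (s : St M col) (i : I) (F : Φ) (x : W) : Prop :=
  ∀ z : s.Dbl, z.F = F → z.e false = s.lo F x → s.lab (z.e true) ≠ i

/-- the barrier point `h` is not joined, by barrier chords which are not crossed by the sheet `i`, with
a point on a frozen face (or a marked point) -/
def EnclN (Act : Set ι) (far : I → Set W) (s : St M col) (i : I) (h : W) : Prop :=
  ∃ X : Set W, h ∈ X ∧ (∀ x ∈ X, HP s x ∧ s.lab x = s.lab h) ∧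
    (∀ F x, x ∈ X → s.At F x → NoC s i F x → s.mu F x ∈ X) ∧
    ∀ x ∈ X, x ∉ far (s.lab h) ∧ ∀ F, s.At F x → ¬ St.Frozen M Act F

/-- new points of the sheet `i` only next to barrier points enclosed by the sheet `i` -/
def EncN (Act : Set ι) (far : I → Set W) (Ph : Finset W) (s' s : St M col) : Prop :=
  ∀ w ∈ s'.P, w ∉ s.P → ∃ h, HP s h ∧ (∃ F, h ∈ M.On F) ∧ Nb M Ph h w ∧
    EnclN Act far s (s'.lab w) h

/-- every double point has an old one with the same names -/
def DblN (s' s : St M col) : Prop :=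
  ∀ z' : s'.Dbl, ∃ z : s.Dbl, z.F = z'.F ∧ z.e false = z'.e false ∧
    s.lab (z.e true) = s'.lab (z'.e true)

theorem DblN.refl (s : St M col) : DblN s s := fun z => ⟨z, rfl, rfl, rfl⟩

theorem DblN.trans {s'' s' s : St M col} (h2 : DblN s'' s') (h1 : DblN s' s) : DblN s'' s := by
  intro z
  obtain ⟨z1, a1, a2, a3⟩ := h2 z
  obtain ⟨z2, b1, b2, b3⟩ := h1 z1
  exact ⟨z2, b1.trans a1, b2.trans a2, b3.trans a3⟩

/-- the named form is stronger -/
theorem EnclN.encl {i : I} {h : W} (he : EnclN Act far s i h) : Encl Act far s h := by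
  obtain ⟨X, h1, h2, h3, h4⟩ := he
  refine ⟨X, h1, h2, fun F x hx hA hf => h3 F x hx hA ?_, h4⟩
  intro z hF he _
  exact hf z hF false he

theorem noC_of {Ph : Finset W} {s' s : St M col} (hc : CLe Act far Ph s' s) (hd : DblN s' s)
    {i : I} {F : Φ} {x : W} (hx : HP s x) (h : NoC s i F x) : NoC s' i F x := by
  intro z' hF he hl
  have hlo : s'.lo F x = s.lo F x := by
    unfold St.lo
    rw [hc.hmu x F hx]
  obtain ⟨z, h1, h2, h3⟩ := hd z'
  exact h z (h1.trans hF) (by rw [h2, he, hlo]) (h3.trans hl)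

theorem EnclN.of_cle {Ph : Finset W} {s' s : St M col} (hc : CLe Act far Ph s' s)
    (hd : DblN s' s) {i : I} {h : W} (he : EnclN Act far s' i h) : EnclN Act far s i h := by
  obtain ⟨X, h1, h2, h3, h4⟩ := he
  have hh := (hc.hp h).1 (h2 h h1).1
  have hl : s'.lab h = s.lab h := hc.hlab h hh
  refine ⟨X, h1, ?_, ?_, ?_⟩
  · intro x hx
    obtain ⟨h5, h6⟩ := h2 x hx
    have h7 := (hc.hp x).1 h5
    exact ⟨h7, by rw [← hc.hlab x h7, h6, hl]⟩
  · intro F x hx hA hf
    obtain ⟨h5, -⟩ := h2 x hx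
    have h7 := (hc.hp x).1 h5
    rw [← hc.hmu x F h7]
    exact h3 F x hx ⟨h5.1, hA.2⟩ (noC_of hc hd h7 hf)
  · intro x hx
    obtain ⟨h5, -⟩ := h2 x hx
    obtain ⟨h6, h7⟩ := h4 x hx
    rw [hl] at h6
    exact ⟨h6, fun F hA => h7 F ⟨h5.1, hA.2⟩⟩

theorem EncN.refl (Act : Set ι) (far : I → Set W) (Ph : Finset W) (s : St M col) :
    EncN Act far Ph s s := fun _ h h' => absurd h h'

theorem EncN.trans {Ph Ph' : Finset W} {s'' s' s : St M col} (hPh : Ph ⊆ Ph')
    (h2 : CL2 Act far Ph' s'' s') (h1 : CLe Act far Ph s' s) (hd : DblN s' s)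
    (e2 : EncN Act far Ph' s'' s') (e1 : EncN Act far Ph s' s) : EncN Act far Ph s'' s := by
  intro w hw hws
  by_cases h : w ∈ s'.P
  · rw [h2.lab w hw h]
    exact e1 w h hws
  · obtain ⟨v, h3, h3', h4, h5⟩ := e2 w hw h
    exact ⟨v, (h1.hp v).1 h3, h3', ⟨h4.1, fun F u h6 h7 h8 h9 => h4.2 F u h6 (hPh h7) h8 h9⟩,
      h5.of_cle h1 hd⟩

theorem EncN.enc {Ph : Finset W} {s' s : St M col} (h : EncN Act far Ph s' s) :
    Enc Act far Ph s' s := by
  intro w hw hws
  obtain ⟨v, h1, h2, h3, h4⟩ := h w hw hws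
  exact ⟨v, h1, h2, h3, h4.encl⟩

section enc

variable {G : Set s.Dbl} {inn : s.Dbl → Bool → Bool} {nm : Dart s → Option I}
variable {up : Φ → W → Bool} {Ph : Finset W} {b : Bool} {c : W → W}

/-- the disc function is constant along a barrier chord without points of the curve -/
theorem D_chd {A : s.Arcs Act} {τ : Bool → ι → s.Dbl → ZMod 2}
    {D : s.Dbl → Bool → Dart s → ZMod 2} {z₀ : s.Dbl} (hD : DD A τ A.mx far D) (hz₀ : z₀ ∈ A.mx)
    {F : Φ} {x : W} (hA : s.At F x) (hx : col (s.lab x) = false)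
    (hno : ∀ z ∈ A.cv z₀, z.F = F → z.e false ≠ s.lo F x) (hA' : s.At F (s.mu F x))
    (h1 : D z₀ false (ed hA) = 1) : D z₀ false (ed hA') = 1 := by
  classical
  have hG : ∀ z ∈ A.cv z₀, z.F = F → z.e (col (s.lab x)) ≠ s.lo F x := by
    rw [hx]; exact hno
  have hmu : mu' (A.cv z₀) (innD D) F x = s.mu F x := mu'_eq_mu hA hG
  have horb : ∀ y (hy : s.At F y), y = mu' (A.cv z₀) (innD D) F x →
      orb (A.cv z₀) (innD D) (ed hy) = orb (A.cv z₀) (innD D) (ed hA) := by
    rintro y hy rfl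
    exact orb_mu' hA
  have h2 := orb_eq_iff.1 (horb _ hA' hmu.symm).symm
    (fun d => (d.x = false ∧ chd d.p = (F, s.lo F x)) ∧ D z₀ false d = 1) ?_ ?_ ?_
  · exact h2.2
  · rintro d ⟨⟨h3, h4⟩, h5⟩
    exact ⟨⟨h3, h4⟩, by rw [hD.fl z₀ hz₀]; exact h5⟩
  · rintro d ⟨⟨h3, h4⟩, h5⟩
    rcases hn : node d with _ | z
    · rw [tt_none hn]
      exact ⟨⟨h3, h4⟩, h5⟩
    · have hd := eq_dz hn
      have h6 : chd d.p = (z.F, z.e d.x) := by
        conv_lhs => rw [hd]
        rw [chd_dz, dz_x]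
      rw [h4, h3] at h6
      have hzF : z.F = F := (Prod.mk.inj h6).1.symm
      have hze : z.e false = s.lo F x := (Prod.mk.inj h6).2.symm
      have hzn : z ∉ A.cv z₀ := fun h => hno z h hzF hze
      have h7 : tt (A.cv z₀) (innD D) d = dz z false (!d.b) := by
        conv_lhs => rw [hd]
        rw [tt_dz_out hzn, h3]
      rw [h7]
      refine ⟨⟨dz_x _ _ _, ?_⟩, ?_⟩
      · rw [chd_dz, dz_x, hzF, hze]
      · have h8 : D z₀ false (dz z false (!d.b)) = D z₀ false (dz z false d.b) := by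
          have h9 := hD.jump_out z₀ hz₀ z hzn false
          cases d.b
          · exact h9
          · exact h9.symm
        rw [h8]
        rw [hd, h3] at h5
        exact h5
  · refine ⟨⟨?_, Wk_689.chd_ed hA⟩, h1⟩
    rw [x_ed, hx]

/-- pushed points lie next to barrier points enclosed by the sheet -/
theorem pst_encN {A : s.Arcs Act} {τ : Bool → ι → s.Dbl → ZMod 2}
    {D : s.Dbl → Bool → Dart s → ZMod 2} {z₀ : s.Dbl} (hD : DD A τ A.mx far D) (hz₀ : z₀ ∈ A.mx)
    (hg : s.Good Act far) (N : NmsT s (A.cv z₀) far (innD D) (nm1 D z₀))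
    (hp : Push s up Ph b c) (hP : s.P ⊆ Ph) :
    EncN Act far Ph (pst hp hP (nst_sub hg N)) s := by
  intro w hw hws
  have hmx := A.mx_closed
  have hG' : A.Closed (A.cv z₀) := by
    intro u hu q hq
    exact ⟨(hmx u (cv_sub hmx hz₀ hu) q hq).1, cv_trans hu (cv_arc hq)⟩
  have hDw : DDw A τ (A.cv z₀) far D := DDw.of hD fun u hu => cv_sub hmx hz₀ hu
  rcases pst_cases hw with ⟨v, hv, rfl⟩ | h
  · have hvP := nst_sub hg N (mem_kA.1 hv).1
    cases hc : col (s.lab v)
    · have hm := (mem_nmd (hg := hg) (N := N)).1 (mem_kA.1 hv).1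
      have hface : ∃ F, s.At F v := by
        by_contra hcon
        have h1 : lab' s (nm1 D z₀) v = s.lab v := by
          classical
          unfold lab'
          rw [dif_neg hcon]
        rw [h1, hc] at hm
        exact Bool.false_ne_true hm.2.1
      have hin : ∀ F (hA : s.At F v), D z₀ false (ed hA) = 1 ∧
          lab' s (nm1 D z₀) v = s.lab (z₀.e true) := by
        intro F hA
        have h1 := joined_nm N hm.2.1 hm.2.2 hA
        rcases z2 (D z₀ false (ed hA)) with h2 | h2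
        · rw [nm1_f' (by rw [x_ed, hc]) h2] at h1
          exact absurd h1 (by simp)
        · refine ⟨h2, ?_⟩
          rw [nm1_f (by rw [x_ed, hc]) h2] at h1
          exact (Option.some.inj h1).symm
      have hlab : (pst hp hP (nst_sub hg N)).lab (ph s c v) = s.lab (z₀.e true) := by
        rw [(pst_ph hv).2.1]
        exact (hin _ hface.choose_spec).2
      rw [hlab]
      rw [ph_pos hc] at hws ⊢
      refine ⟨v, ⟨hvP, hc⟩, ⟨_, hface.choose_spec.2⟩, ⟨fun F => hp.on F ⟨hvP, hc⟩,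
          fun F u h3 h4 h5 h6 => hp.adj ⟨hvP, hc⟩ h3 h4 h5 h6⟩,
        {x | s.lab x = s.lab v ∧ (∃ F, s.At F x) ∧ ∀ F (hA : s.At F x), D z₀ false (ed hA) = 1},
        ⟨rfl, hface, fun F hA => (hin F hA).1⟩, ?_, ?_, ?_⟩
      · rintro x ⟨h1, ⟨F, hA⟩, -⟩
        exact ⟨⟨hA.1, by rw [h1]; exact hc⟩, h1⟩
      · rintro F x ⟨h1, -, h2⟩ hA hf
        have hA' := At.mu s hA
        refine ⟨(s.mu_lab hA.1 hA.2).trans h1, ⟨F, hA'⟩, fun F' hA'' => ?_⟩
        rw [hD.cont z₀ hz₀ false F' F _ hA'' hA']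
        refine D_chd hD hz₀ hA (by rw [h1]; exact hc) ?_ hA' (h2 F hA)
        intro z hz hzF hze
        exact hf z hzF hze (SecW_892.lab_cv hDw hG' (cv_refl A z₀) hz true)
      · rintro x ⟨h1, ⟨F, hA⟩, h2⟩
        constructor
        · intro hx
          have h3 := hD.far0 z₀ hz₀ false _ F x hA hx
          rw [h2 F hA] at h3
          exact one_ne_zero h3
        · intro F' hA' hF'
          have h3 := hD.far0 z₀ hz₀ false _ F' x hA' (hg.far_frozen hA' hF')
          rw [h2 F' hA'] at h3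
          exact one_ne_zero h3
    · rw [ph_neg hc] at hws
      exact absurd hvP hws
  · exact absurd h.1 hws

/-- double points keep their names -/
theorem pst_dblN {A : s.Arcs Act} {D : s.Dbl → Bool → Dart s → ZMod 2} {z₀ : s.Dbl}
    (hg : s.Good Act far) (N : NmsT s (A.cv z₀) far (innD D) (nm1 D z₀))
    (hp : Push s up Ph b c) (hP : s.P ⊆ Ph) (h2 : Two s up) :
    DblN (pst hp hP (nst_sub hg N)) s := by
  intro z'
  obtain ⟨v, hv, z, β, hk, he, h5, h6, h7, -⟩ := exists_old' h2 (nst_mu' hg N) z'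
  refine ⟨z, h5, h6, ?_⟩
  have hm := (mem_nmd (hg := hg) (N := N)).1 (mem_kA.1 hk).1
  have h8 := joined_nm N hm.2.1 hm.2.2 hv
  rw [← nmO_orb N, ← h7, nmO_orb N] at h8
  rw [he, (pst_ph hk).2.1]
  show _ = lab' s (nm1 D z₀) v
  rcases z2 (D z₀ true (dz z true β)) with h9 | h9
  · rw [nm1_t (dz_x _ _ _) h9, St_147.lab_dz] at h8
    exact Option.some.inj h8
  · rw [nm1_t' (dz_x _ _ _) h9] at h8
    exact absurd h8 (by simp)

/-- **one step, with (ENC) for one sheet** -/
theorem stepN (hg : s.Good Act far) (h2 : Two s up) (hP : s.P ⊆ Ph)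
    (hroom : ∀ b, ∃ c, Push s up Ph b c) (A : s.Arcs Act) {G : Set s.Dbl} (hG : A.Closed G)
    (hne : G.Nonempty) :
    ∃ s' : St M col, s'.Good Act far ∧ CL2 Act far Ph s' s ∧ DblN s' s ∧ EncN Act far Ph s' s ∧
      Nat.card s'.Dbl < Nat.card s.Dbl := by
  classical
  have hR := refStmt A (fun i => B_422.sep_of_h1 s i (hg.h1 i))
  obtain ⟨D, hD⟩ := Sd1_161.exists_DD hg A _ hR
  have hmx := A.mx_closed
  obtain ⟨z₀, hz₀, hin⟩ := exists_inner hD (hne.mono (A.sub_mx hG))
  have N := exists_nms1 hD hR (fun _ _ h => (hg.far_mem h).2) hz₀ hin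
  have hG' : A.Closed (A.cv z₀) := by
    intro u hu q hq
    exact ⟨(hmx u (cv_sub hmx hz₀ hu) q hq).1, cv_trans hu (cv_arc hq)⟩
  have hDw : DDw A _ (A.cv z₀) far D := DDw.of hD fun u hu => cv_sub hmx hz₀ hu
  have hn : nm1 D z₀ (dz z₀ true (!innD D z₀ true)) = none := by
    have h1 := SecW_892.D_in hDw (cv_refl A z₀) true
    exact nm1_t' (dz_x _ _ _) h1
  have hx : HP s (z₀.e false) := ⟨(z₀.at_ false).1, z₀.colr false⟩
  have hfin : ∀ {b : Bool} {c : W → W} (hp : Push s up Ph b c),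
      (¬ (M.Btw z₀.F (z₀.e false) (s.mu z₀.F (z₀.e false))
        (pt (flip (dz z₀ true (!innD D z₀ true)))) ↔
        M.pos z₀.F (z₀.e false) < M.pos z₀.F (c (z₀.e false)))) →
      ∃ s' : St M col, s'.Good Act far ∧ CL2 Act far Ph s' s ∧ DblN s' s ∧
        EncN Act far Ph s' s ∧ Nat.card s'.Dbl < Nat.card s.Dbl := by
    intro b c hp hanti
    have hgood := pst_good hG' hg N hp hP h2
    refine ⟨pst hp hP (nst_sub hg N), hgood,
      ⟨pst_cle hG' hg N hp hP h2, ?_, ?_, pst_pb hz₀ hg N hp hP hgood⟩,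
      pst_dblN hg N hp hP h2, pst_encN hD hz₀ hg N hp hP,
      pst_card hg N hp hP h2 (z₀ := z₀) (β₀ := !innD D z₀ true) hanti hn⟩
    · exact fun w hw hws => (pst_common hg N hp hP hw hws).2
    · exact fun F w hw hw' hf => pst_off hg N hp hP h2 hw hw' hf
  by_cases hQ : M.Btw z₀.F (z₀.e false) (s.mu z₀.F (z₀.e false))
      (pt (flip (dz z₀ true (!innD D z₀ true))))
  · obtain ⟨c, hp⟩ := hroom (!up z₀.F (z₀.e false))
    refine hfin hp ?_
    intro h
    have h3 := (hp.side hx (z₀.at_ false).2).1 (h.1 hQ)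
    cases up z₀.F (z₀.e false) <;> simp at h3
  · obtain ⟨c, hp⟩ := hroom (up z₀.F (z₀.e false))
    refine hfin hp ?_
    intro h
    exact hQ (h.2 ((hp.side hx (z₀.at_ false).2).2 rfl))

/-- **CUT with (ENC) for one sheet** -/
theorem cutN (up : Φ → W → Bool) (s : St M col) (hg : s.Good Act far) (h2 : Two s up)
    (hroom : Room s up) (Ph : Finset W) (hP : s.P ⊆ Ph) :
    ∃ s' : St M col, s'.Good Act far ∧ CL2 Act far Ph s' s ∧ DblN s' s ∧ EncN Act far Ph s' s ∧
      ∀ (A : s'.Arcs Act) (G : Set s'.Dbl), A.Closed G → G = ∅ := by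
  classical
  induction hn : Nat.card s.Dbl using Nat.strong_induction_on generalizing s Ph with
  | _ n ih =>
    by_cases h : ∀ (A : s.Arcs Act) (G : Set s.Dbl), A.Closed G → G = ∅
    · exact ⟨s, hg, CL2.refl _ _ _ _, DblN.refl _, EncN.refl _ _ _ _, h⟩
    · push Not at h
      obtain ⟨A, G, hG, hne⟩ := h
      obtain ⟨s₁, hg₁, hl₁, hd₁, he₁, hc₁⟩ := stepN hg h2 hP (fun b => hroom Ph b) A hG hne
      have h2' : Two s₁ up := by
        intro F w hw hF
        have hw' := (hl₁.cle.hp w).1 hw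
        rw [hl₁.cle.hmu w F hw']
        exact h2 hw' hF
      have hroom' : Room s₁ up := by
        intro Ph' b
        obtain ⟨c, hp⟩ := hroom Ph' b
        exact ⟨c, hp.congr hl₁.cle.hp⟩
      obtain ⟨s₂, hg₂, hl₂, hd₂, he₂, hc₂⟩ := ih _ (hn ▸ hc₁) s₁ hg₁ h2' hroom' (Ph ∪ s₁.P)
        Finset.subset_union_right rfl
      exact ⟨s₂, hg₂, CL2.trans Finset.subset_union_left (hP.trans Finset.subset_union_left)
        hl₂ hl₁ hg₁, hd₂.trans hd₁,
        EncN.trans Finset.subset_union_left hl₂ hl₁.cle hd₁ he₂ he₁, hc₂⟩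

end enc

end Crest.Agent.R096.SecW_892
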