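import Crest.Agent.R096.Cnp1_824
import Crest.Agent.R096.Sec14_892

/-!
# R096 / DOORS-SEC (helper689): CUT with the clauses (DBL), (TrD), (TrQ) of helper778's #11864

Over 892's Sec14 (`EncN`, `DblN`) and 824's `pst_pbn`:
* `pst_pbd` : the pulled back closed set has the same value at a double point of the new state and at
  an old double point on the same face, on the same barrier chord, of the same sheet;
* `pst_trg` : one curve, the clause `TrG`;
* `cutG`    : the whole cut.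
-/

set_option autoImplicit false

namespace Crest.Agent.R096.Cng_689

open Crest.Agent.R096.St_147 Crest.Agent.R096.Wk_689 Crest.Agent.R096.F_422
open Crest.Agent.R096.Sec_892 Crest.Agent.R096.SecW_892 Crest.Agent.R096.Cnp_824

variable {ι Φ W I : Type} {M : MeshC ι Φ W} {col : I → Bool} {s : St M col}
variable {Act : Set ι} {far : I → Set W}

/-- the double points of the sheet `i` on the faces of `R` are joined with `b` by `K`-chords -/
def TrD (s : St M col) (i : I) (K : Φ → W → Prop) (b : W) (R : Set Φ) : Prop :=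
  ∀ X : Set W, b ∈ X → KCl s i K X → ∀ z : s.Dbl, z.F ∈ R → s.lab (z.e true) = i → z.e true ∈ X

/-- the barrier points of `S` are joined, by barrier chords on the faces of `R`, with points which are
not enclosed -/
def ConnT (Act : Set ι) (far : I → Set W) (s : St M col) (R : Set Φ) (S : Set W) : Prop :=
  ∀ h ∈ S, HP s h → ∀ Y : Set W, h ∈ Y →
    (∀ F ∈ R, ∀ y ∈ Y, s.At F y → s.lab y = s.lab h → s.mu F y ∈ Y) →
    ∃ y ∈ Y, HP s y ∧ s.lab y = s.lab h ∧ ¬ Encl Act far s y

/-- the same with points which are not enclosed by the sheet `i` (weaker) -/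
def ConnI (Act : Set ι) (far : I → Set W) (s : St M col) (i : I) (R : Set Φ) (S : Set W) : Prop :=
  ∀ h ∈ S, HP s h → ∀ Y : Set W, h ∈ Y →
    (∀ F ∈ R, ∀ y ∈ Y, s.At F y → s.lab y = s.lab h → s.mu F y ∈ Y) →
    ∃ y ∈ Y, HP s y ∧ s.lab y = s.lab h ∧ ¬ EnclN Act far s i y

/-- the double points on `R`, and the points (not in `P₀`) next to `S` only, are joined with `b` -/
def TrQ (s : St M col) (i : I) (K : Φ → W → Prop) (b : W) (R : Set Φ) (S : Set W)
    (P₀ Ph₀ : Finset W) : Prop :=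
  TrD s i K b R ∧ ∀ X : Set W, b ∈ X → KCl s i K X → ∀ w ∈ s.P, w ∉ P₀ → s.lab w = i →
    (∀ h, HP s h → Nb M Ph₀ h w → h ∈ S) → w ∈ X

/-- **the clause** -/
def TrG (Act : Set ι) (far : I → Set W) (Ph : Finset W) (s' s : St M col) : Prop :=
  ∀ i, col i = true → ∀ K : Φ → W → Prop, KBar s K → ∀ b ∈ far i, ∀ (R : Set Φ) (S : Set W),
    ConnI Act far s i R S → TrD s i K b R → TrQ s' i K b R S s.P Ph

/-- pull back of closed sets, with the values at the double points -/
def PBD (s' s : St M col) : Prop :=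
  ∀ i, col i = true → ∀ K : Φ → W → Prop, KBar s K → ∀ X', KCl s' i K X' →
    ∃ X, KCl s i K X ∧
      (∀ w, w ∈ s.P → s.lab w = i → w ∈ s'.P → s'.lab w = i → (w ∈ X ↔ w ∈ X')) ∧
      ∀ z' : s'.Dbl, s'.lab (z'.e true) = i → ∃ z : s.Dbl, z.F = z'.F ∧
        z.e false = z'.e false ∧ s.lab (z.e true) = i ∧ (z.e true ∈ X ↔ z'.e true ∈ X')

theorem ConnT.connI {R : Set Φ} {S : Set W} (h : ConnT Act far s R S) (i : I) :
    ConnI Act far s i R S := by
  intro x hx hxP Y hxY hY
  obtain ⟨y, h1, h2, h3, h4⟩ := h x hx hxP Y hxY hY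
  exact ⟨y, h1, h2, h3, fun he => h4 he.encl⟩

theorem ConnI.of_cle {Ph : Finset W} {s' s : St M col} (hc : CLe Act far Ph s' s)
    (hd : DblN s' s) {i : I} {R : Set Φ} {S : Set W} (h : ConnI Act far s i R S) :
    ConnI Act far s' i R S := by
  intro x hxS hx Y hxY hY
  have hx' := (hc.hp x).1 hx
  obtain ⟨y, h1, h2, h3, h4⟩ := h x hxS hx' Y hxY (by
    intro F' hF' y hy hA hl
    have h5 : HP s y := ⟨hA.1, by rw [hl]; exact hx'.2⟩
    rw [← hc.hmu y F' h5]
    exact hY F' hF' y hy ⟨((hc.hp y).2 h5).1, hA.2⟩ (by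
      rw [hc.hlab y h5, hc.hlab x hx', hl]))
  refine ⟨y, h1, (hc.hp y).2 h2, by rw [hc.hlab y h2, hc.hlab x hx', h3], fun he => h4 ?_⟩
  exact he.of_cle hc hd

theorem TrG.refl (Act : Set ι) (far : I → Set W) (Ph : Finset W) (s : St M col) :
    TrG Act far Ph s s :=
  fun _ _ _ _ _ _ _ _ _ h => ⟨h, fun _ _ _ _ hw hw' => absurd hw hw'⟩

theorem TrG.trans {Ph Ph' : Finset W} {s'' s' s : St M col} (hPh : Ph ⊆ Ph')
    (hg' : s'.Good Act far) (hg'' : s''.Good Act far)
    (c2 : CL2 Act far Ph' s'' s') (c1 : CLe Act far Ph s' s) (hd : DblN s' s)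
    (t2 : TrG Act far Ph' s'' s') (t1 : TrG Act far Ph s' s) : TrG Act far Ph s'' s := by
  intro i hi K hK b hb R S hR hD
  have hK' := KBar.of_cle c1 hK
  have q1 := t1 i hi K hK b hb R S hR hD
  have q2 := t2 i hi K hK' b hb R S (hR.of_cle c1 hd) q1.1
  refine ⟨q2.1, fun X hbX hX w hw hws hwi hN => ?_⟩
  by_cases h : w ∈ s'.P
  · obtain ⟨X', hX', he⟩ := c2.pb i hi K hK' X hX
    have hl : s'.lab w = i := by rw [← c2.lab w hw h]; exact hwi
    have hb' := hg'.far_mem hb
    have hb'' := hg''.far_mem hb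
    rw [← he w h hl hw hwi]
    refine q1.2 X' ((he b hb'.1 hb'.2 hb''.1 hb''.2).2 hbX) hX' w h hws hl ?_
    exact fun x hx hn => hN x ((c2.cle.hp x).2 hx) hn
  · refine q2.2 X hbX hX w hw h hwi ?_
    intro x hx hn
    exact hN x hx ⟨hn.1, fun F u h6 h7 h8 h9 => hn.2 F u h6 (hPh h7) h8 h9⟩

theorem PBD.refl (s : St M col) : PBD s s :=
  fun _ _ _ _ X h => ⟨X, h, fun _ _ _ _ _ => Iff.rfl, fun z hz => ⟨z, rfl, rfl, hz, Iff.rfl⟩⟩

theorem PBD.trans {Ph Ph' : Finset W} {s'' s' s : St M col} (hP : s.P ⊆ Ph')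
    (c2 : CL2 Act far Ph' s'' s') (c1 : CL2 Act far Ph s' s)
    (t2 : PBD s'' s') (t1 : PBD s' s) : PBD s'' s := by
  intro i hi K hK X'' hX''
  obtain ⟨X', hX', e', d'⟩ := t2 i hi K (KBar.of_cle c1.cle hK) X'' hX''
  obtain ⟨X, hX, e, d⟩ := t1 i hi K hK X' hX'
  refine ⟨X, hX, fun w hw hwi hw'' hwi'' => ?_, fun z'' hz'' => ?_⟩
  · have h : w ∈ s'.P := by
      rcases c2.cle.P w hw'' with h | h
      · exact h
      · exact absurd (hP hw) h.1
    have hl : s'.lab w = i := by rw [c1.lab w h hw, hwi]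
    rw [e w hw hwi h hl, e' w h hl hw'' hwi'']
  · obtain ⟨z', a1, a2, a3, a4⟩ := d' z'' hz''
    obtain ⟨z, b1, b2, b3, b4⟩ := d z' a3
    exact ⟨z, b1.trans a1, b2.trans a2, b3, b4.trans a4⟩

section step

variable {G : Set s.Dbl} {inn : s.Dbl → Bool → Bool} {nm : Dart s → Option I}
variable {up : Φ → W → Bool} {Ph : Finset W} {b : Bool} {c : W → W}

/-- a pushed barrier point -/
theorem new_spec {A : s.Arcs Act} {D : s.Dbl → Bool → Dart s → ZMod 2} {z₀ : s.Dbl}
    (hg : s.Good Act far) (N : NmsT s (A.cv z₀) far (innD D) (nm1 D z₀))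
    (hp : Push s up Ph b c) (hP : s.P ⊆ Ph) {w : W}
    (hw : w ∈ (pst hp hP (nst_sub hg N)).P) (hws : w ∉ s.P) {i : I} (hi : col i = true)
    (hwi : (pst hp hP (nst_sub hg N)).lab w = i) :
    ∃ v, w = c v ∧ HP s v ∧ (∃ F, s.At F v) ∧ i = s.lab (z₀.e true) ∧
      ∀ F (hA : s.At F v), D z₀ false (ed hA) = 1 := by
  obtain ⟨v, hv, rfl⟩ := pst_true hw (by rw [hwi]; exact hi)
  have hvP := nst_sub hg N (mem_kA.1 hv).1
  have hc : col (s.lab v) = false := by
    cases hc : col (s.lab v)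
    · rfl
    · exact absurd (by rw [ph_neg hc]; exact hvP) hws
  have hvi : (nst hg N).lab v = i := (pst_ph hv).2.1.symm.trans hwi
  have hm := (mem_nmd (hg := hg) (N := N)).1 (mem_kA.1 hv).1
  have hface : ∃ F, s.At F v := by
    by_contra hcon
    have h1 : lab' s (nm1 D z₀) v = s.lab v := by
      classical
      unfold lab'
      rw [dif_neg hcon]
    rw [h1, hc] at hm
    exact Bool.false_ne_true hm.2.1
  have hval : ∀ F (hA : s.At F v), D z₀ false (ed hA) = 1 ∧ i = s.lab (z₀.e true) := by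
    intro F hA
    have h1 := joined_nm N hm.2.1 hm.2.2 hA
    rcases z2 (D z₀ false (ed hA)) with h2 | h2
    · rw [nm1_f' (by rw [x_ed, hc]) h2] at h1
      exact absurd h1 (by simp)
    · refine ⟨h2, ?_⟩
      rw [nm1_f (by rw [x_ed, hc]) h2] at h1
      rw [← hvi]
      exact (Option.some.inj h1).symm
  exact ⟨v, ph_pos hc, ⟨hvP, hc⟩, hface, (hval _ hface.choose_spec).2, fun F hA => (hval F hA).1⟩

/-- **pull back of closed sets for one curve, with the values at the new points and at the double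
points** -/
theorem pst_pbd {A : s.Arcs Act} {D : s.Dbl → Bool → Dart s → ZMod 2} {z₀ : s.Dbl}
    (hz₀ : z₀ ∈ A.mx) (hg : s.Good Act far)
    (N : NmsT s (A.cv z₀) far (innD D) (nm1 D z₀)) (hp : Push s up Ph b c) (hP : s.P ⊆ Ph)
    (h2 : Two s up) (hgood : (pst hp hP (nst_sub hg N)).Good Act far) :
    ∀ i, col i = true → ∀ K : Φ → W → Prop, KBar s K →
      ∀ X', KCl (pst hp hP (nst_sub hg N)) i K X' → ∃ X, KCl s i K X ∧
        (∀ w, w ∈ s.P → s.lab w = i → w ∈ (pst hp hP (nst_sub hg N)).P →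
          (pst hp hP (nst_sub hg N)).lab w = i → (w ∈ X ↔ w ∈ X')) ∧
        (∀ w ∈ (pst hp hP (nst_sub hg N)).P, w ∉ s.P → (pst hp hP (nst_sub hg N)).lab w = i →
          (w ∈ X' ↔ z₀.e true ∈ X)) ∧
        ∀ z' : (pst hp hP (nst_sub hg N)).Dbl, (pst hp hP (nst_sub hg N)).lab (z'.e true) = i →
          ∃ z : s.Dbl, z.F = z'.F ∧ z.e false = z'.e false ∧ s.lab (z.e true) = i ∧
            (z.e true ∈ X ↔ z'.e true ∈ X') := by
  classical
  intro i hi K hK X' hX'
  obtain ⟨X, hX, hold, hnew⟩ := pst_pbn hz₀ hg N hp hP hgood i hi K hK X' hX'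
  refine ⟨X, hX, hold, hnew, fun z' hz' => ?_⟩
  obtain ⟨v, hv, z, β, hk, he, h5, h6, h7, -⟩ := exists_old' h2 (nst_mu' hg N) z'
  have hvP := hv.1
  have hli : (nst hg N).lab v = i := by
    rw [← (pst_ph (hp := hp) (hP := hP) (ht := nst_sub hg N) hk).2.1, ← he]; exact hz'
  -- all chords on the face are `K`-chords
  have hKF : ∀ u, K z'.F u := by
    obtain ⟨q, hq⟩ := exists_side' (M := M) z'.F
    exact hK q z'.F z'.F (z'.e false) hq hq
      (pst_hp_iff.1 ⟨(z'.at_ false).1, z'.colr false⟩) (z'.at_ false).2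
  -- values along the curve
  have hcv : ∀ z1 ∈ A.cv z₀, s.lab (z1.e true) = s.lab (z₀.e true) ∧
      (s.lab (z₀.e true) = i → (z1.e true ∈ X ↔ z₀.e true ∈ X)) := by
    intro z1 hz1
    refine ⟨(curve_const (K := K) (Ψ := fun _ => 0) hz₀ hK (fun _ _ _ _ _ => rfl) hz1).1, ?_⟩
    intro h0
    have h1 := (curve_const (K := K) hz₀ hK (Ψ := fun w => if w ∈ X then (1 : ZMod 2) else 0)
      (fun F w hA hl hk => if_congr (hX F w hA (hl.trans h0) hk) rfl rfl) hz1).2
    by_cases ha : z1.e true ∈ X <;> by_cases hb : z₀.e true ∈ X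
    · exact iff_of_true ha hb
    · rw [if_pos ha, if_neg hb] at h1
      exact absurd h1 one_ne_zero
    · rw [if_neg ha, if_pos hb] at h1
      exact absurd h1 zero_ne_one
    · exact iff_of_false ha hb
  have horb := orb_eq_iff.1 h7.symm
    (fun d => (d.x = true ∧ s.lab (chd d.p).2 = i ∧ ((chd d.p).2 ∈ X ↔ z'.e true ∈ X')) ∨
      (d.x = false ∧ s.lab (z₀.e true) = i ∧ (z₀.e true ∈ X ↔ z'.e true ∈ X'))) ?_ ?_ ?_
  · rcases horb with ⟨-, h8, h9⟩ | ⟨h8, -⟩
    · rw [chd_dz, dz_x] at h8 h9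
      exact ⟨z, h5, h6, h8, h9⟩
    · rw [dz_x] at h8
      exact absurd h8.symm Bool.false_ne_true
  · rintro d (h8 | h8)
    · exact Or.inl h8
    · exact Or.inr h8
  · intro d hd
    rcases hn : node d with _ | z1
    · rw [tt_none hn]; exact hd
    · have hdz := eq_dz hn
      by_cases h1 : z1 ∈ A.cv z₀
      · obtain ⟨k1, k2⟩ := hcv z1 h1
        rcases hd with ⟨h8, h9, h10⟩ | ⟨h8, h9, h10⟩
        · rw [hdz, chd_dz, dz_x, h8] at h9 h10
          right
          have h11 : s.lab (z₀.e true) = i := k1.symm.trans h9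
          refine ⟨?_, h11, (k2 h11).symm.trans h10⟩
          rw [hdz, tt_dz_in h1, dz_x, h8]
          rfl
        · left
          have h11 : (tt (A.cv z₀) (innD D) d) =
              dz z1 true (!((d.b ^^ innD D z1 false) ^^ innD D z1 true)) := by
            conv_lhs => rw [hdz]
            rw [tt_dz_in h1, h8]
            rfl
          rw [h11]
          refine ⟨dz_x _ _ _, ?_, ?_⟩
          · rw [chd_dz, dz_x]
            exact k1.trans h9
          · rw [chd_dz, dz_x]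
            exact (k2 h9).trans h10
      · have h11 : tt (A.cv z₀) (innD D) d = dz z1 d.x (!d.b) := by
          conv_lhs => rw [hdz]
          rw [tt_dz_out h1]
        have h12 : (chd (dz z1 d.x (!d.b)).p) = chd d.p := by
          rw [chd_dz, dz_x]
          conv_rhs => rw [hdz]
          rw [chd_dz, dz_x]
        rw [h11]
        rcases hd with ⟨h8, h9, h10⟩ | ⟨h8, h9, h10⟩
        · exact Or.inl ⟨by rw [dz_x]; exact h8, by rw [h12]; exact h9, by rw [h12]; exact h10⟩
        · exact Or.inr ⟨by rw [dz_x]; exact h8, h9, h10⟩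
  · cases hc : col (s.lab v)
    · right
      rw [ph_pos hc] at he
      have hwn : z'.e true ∉ s.P := by
        rw [he]; exact fun h => hp.nin ⟨hvP, hc⟩ (hP h)
      obtain ⟨v', -, -, -, h9, -⟩ := new_spec hg N hp hP (z'.at_ true).1 hwn hi hz'
      refine ⟨by rw [x_ed]; exact hc, h9.symm, (hnew _ (z'.at_ true).1 hwn hz').symm⟩
    · left
      rw [ph_neg hc] at he
      have hsl : s.lab v = i := (nst_same hg N (mem_kA.1 hk).1 hc).symm.trans hli
      have h8 := Wk_689.chd_ed hv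
      have h9 : (s.lo z'.F v ∈ X ↔ v ∈ X) ∧ s.lab (s.lo z'.F v) = i := by
        unfold St.lo
        split_ifs
        · exact ⟨Iff.rfl, hsl⟩
        · exact ⟨(hX z'.F v hv hsl (hKF v)).symm, (s.mu_lab hv.1 hv.2).trans hsl⟩
      rw [h8]
      refine ⟨by rw [x_ed]; exact hc, h9.2, ?_⟩
      have hz1 := (z'.at_ true).1
      rw [he] at hz' hz1 ⊢
      exact h9.1.trans (hold v hvP hsl hz1 hz')

/-- **one curve : the clause** -/
theorem pst_trg {A : s.Arcs Act} {τ : Bool → ι → s.Dbl → ZMod 2}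
    {D : s.Dbl → Bool → Dart s → ZMod 2} {z₀ : s.Dbl} (hD : DD A τ A.mx far D) (hz₀ : z₀ ∈ A.mx)
    (hin : ∀ u ∉ A.cv z₀, ∀ b, D z₀ false (dz u false b) = 0)
    (hg : s.Good Act far) (N : NmsT s (A.cv z₀) far (innD D) (nm1 D z₀))
    (hp : Push s up Ph b c) (hP : s.P ⊆ Ph) (h2 : Two s up)
    (hgood : (pst hp hP (nst_sub hg N)).Good Act far) :
    TrG Act far Ph (pst hp hP (nst_sub hg N)) s := by
  intro i hi K hK b₀ hb₀ R S hR hT
  have hmx := A.mx_closed
  have hG' : A.Closed (A.cv z₀) := by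
    intro u hu q hq
    exact ⟨(hmx u (cv_sub hmx hz₀ hu) q hq).1, cv_trans hu (cv_arc hq)⟩
  have hDw : DDw A τ (A.cv z₀) far D := DDw.of hD fun u hu => cv_sub hmx hz₀ hu
  have hbs := hg.far_mem hb₀
  have hbs' := hgood.far_mem hb₀
  constructor
  · intro X' hbX' hX' z' hz'R hz'
    obtain ⟨X, hX, hold, -, hdbl⟩ := pst_pbd hz₀ hg N hp hP h2 hgood i hi K hK X' hX'
    have hbX : b₀ ∈ X := (hold b₀ hbs.1 hbs.2 hbs'.1 hbs'.2).2 hbX'
    obtain ⟨z, h5, -, h6, h7⟩ := hdbl z' hz'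
    exact h7.1 (hT X hbX hX z (by rw [h5]; exact hz'R) h6)
  · intro X' hbX' hX' w hw hws hwi hNb
    obtain ⟨X, hX, hold, hnew, -⟩ := pst_pbd hz₀ hg N hp hP h2 hgood i hi K hK X' hX'
    have hbX : b₀ ∈ X := (hold b₀ hbs.1 hbs.2 hbs'.1 hbs'.2).2 hbX'
    have hTX := hT X hbX hX
    obtain ⟨v, rfl, hv, hface, hi0, hval⟩ := new_spec hg N hp hP hw hws hi hwi
    have hc := hv.2
    -- one double point of the curve on `R` is enough
    have key : ∀ z ∈ A.cv z₀, z.F ∈ R → z₀.e true ∈ X := by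
      intro z hz hzR
      classical
      have h1 := curve_const (K := K) hz₀ hK (Ψ := fun w => if w ∈ X then (1 : ZMod 2) else 0)
        (fun F w hA hl hk => if_congr (hX F w hA (hl.trans hi0.symm) hk) rfl rfl) hz
      have h2 : z.e true ∈ X := hTX z hzR (h1.1.trans hi0.symm)
      by_contra hcon
      have h3 := h1.2
      rw [if_pos h2, if_neg hcon] at h3
      exact one_ne_zero h3
    refine (hnew _ hw hws hwi).2 ?_
    by_contra hcon
    have hvS : v ∈ S := by
      refine hNb v (pst_hp_iff.2 hv) ⟨fun F => hp.on F hv, fun F u h3 h4 h5 h6 => ?_⟩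
      exact hp.adj hv h3 h4 h5 h6
    -- the barrier points on the inner side
    obtain ⟨y, hy, hyP, hyl, hyE⟩ := hR v hvS hv
      {x | s.lab x = s.lab v ∧ (∃ F, s.At F x) ∧ ∀ F (hA : s.At F x), D z₀ false (ed hA) = 1}
      ⟨rfl, hface, hval⟩ (by
        rintro F' hF' x ⟨h1, -, h2⟩ hA -
        have hA' := At.mu s hA
        refine ⟨(s.mu_lab hA.1 hA.2).trans h1, ⟨F', hA'⟩, fun F'' hA'' => ?_⟩
        rcases hn : node (flip (ed hA)) with _ | z
        · rw [hD.cont z₀ hz₀ false F'' F' _ hA'' hA', ← flip_ed' hA hn, hD.fl z₀ hz₀]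
          exact h2 F' hA
        · exfalso
          have h3 := eq_dz hn
          have hx : (flip (ed hA)).x = false := by
            show (ed hA).x = false
            rw [x_ed, h1]; exact hc
          rw [hx] at h3
          have h4 : D z₀ false (flip (ed hA)) = 1 := by
            rw [hD.fl z₀ hz₀]; exact h2 F' hA
          have h5 : z ∈ A.cv z₀ := by
            by_contra h6
            rw [h3, hin z h6] at h4
            exact zero_ne_one h4
          have h6 : z.F = F' := by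
            have h7 := congrArg fc h3
            rw [fc_flip, fc_ed, fc_dz] at h7
            exact h7.symm
          exact hcon (key z h5 (by rw [h6]; exact hF')))
    refine hyE ⟨{x | s.lab x = s.lab v ∧ (∃ F, s.At F x) ∧
      ∀ F (hA : s.At F x), D z₀ false (ed hA) = 1}, hy, ?_, ?_, ?_⟩
    · rintro x ⟨h1, ⟨F, hA⟩, -⟩
      exact ⟨⟨hA.1, by rw [h1]; exact hc⟩, by rw [h1, hyl]⟩
    · rintro F x ⟨h1, -, h2⟩ hA hf
      have hA' := At.mu s hA
      refine ⟨(s.mu_lab hA.1 hA.2).trans h1, ⟨F, hA'⟩, fun F' hA'' => ?_⟩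
      rw [hD.cont z₀ hz₀ false F' F _ hA'' hA']
      refine D_chd hD hz₀ hA (by rw [h1]; exact hc) ?_ hA' (h2 F hA)
      intro z hz hzF hze
      exact hf z hzF hze ((SecW_892.lab_cv hDw hG' (cv_refl A z₀) hz true).trans hi0.symm)
    · rintro x ⟨h1, ⟨F, hA⟩, h2⟩
      constructor
      · intro hx
        have h3 := hD.far0 z₀ hz₀ false _ F x hA hx
        rw [h2 F hA] at h3
        exact one_ne_zero h3
      · intro F' hA' hF'
        have h3 := hD.far0 z₀ hz₀ false _ F' x hA' (hg.far_frozen hA' hF')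
        rw [h2 F' hA'] at h3
        exact one_ne_zero h3

end step

/-- **one step** -/
theorem stepG {up : Φ → W → Bool} {Ph : Finset W} (hg : s.Good Act far) (h2 : Two s up)
    (hP : s.P ⊆ Ph)
    (hroom : ∀ b, ∃ c, Push s up Ph b c) (A : s.Arcs Act) {G : Set s.Dbl} (hG : A.Closed G)
    (hne : G.Nonempty) :
    ∃ s' : St M col, s'.Good Act far ∧ CL2 Act far Ph s' s ∧ DblN s' s ∧ EncN Act far Ph s' s ∧
      TrN Act far s' s ∧ TrG Act far Ph s' s ∧ PBD s' s ∧ Nat.card s'.Dbl < Nat.card s.Dbl := by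
  classical
  have hR := refStmt A (fun i => B_422.sep_of_h1 s i (hg.h1 i))
  obtain ⟨D, hD⟩ := Sd1_161.exists_DD hg A _ hR
  have hmx := A.mx_closed
  obtain ⟨z₀, hz₀, hin⟩ := exists_inner hD (hne.mono (A.sub_mx hG))
  have N := exists_nms1 hD hR (fun _ _ h => (hg.far_mem h).2) hz₀ hin
  have hG' : A.Closed (A.cv z₀) := by
    intro u hu q hq
    exact ⟨(hmx u (cv_sub hmx hz₀ hu) q hq).1, cv_trans hu (cv_arc hq)⟩
  have hDw : DDw A _ (A.cv z₀) far D := DDw.of hD fun u hu => cv_sub hmx hz₀ hu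
  have hn : nm1 D z₀ (dz z₀ true (!innD D z₀ true)) = none := by
    have h1 := SecW_892.D_in hDw (cv_refl A z₀) true
    exact nm1_t' (dz_x _ _ _) h1
  have hx : HP s (z₀.e false) := ⟨(z₀.at_ false).1, z₀.colr false⟩
  have hfin : ∀ {b : Bool} {c : W → W} (hp : Push s up Ph b c),
      (¬ (M.Btw z₀.F (z₀.e false) (s.mu z₀.F (z₀.e false))
        (pt (flip (dz z₀ true (!innD D z₀ true)))) ↔
        M.pos z₀.F (z₀.e false) < M.pos z₀.F (c (z₀.e false)))) →
      ∃ s' : St M col, s'.Good Act far ∧ CL2 Act far Ph s' s ∧ DblN s' s ∧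
        EncN Act far Ph s' s ∧ TrN Act far s' s ∧ TrG Act far Ph s' s ∧ PBD s' s ∧
        Nat.card s'.Dbl < Nat.card s.Dbl := by
    intro b c hp hanti
    have hgood := pst_good hG' hg N hp hP h2
    refine ⟨pst hp hP (nst_sub hg N), hgood,
      ⟨pst_cle hG' hg N hp hP h2, ?_, ?_, pst_pb hz₀ hg N hp hP hgood⟩,
      pst_dblN hg N hp hP h2, pst_encN hD hz₀ hg N hp hP, pst_trn hD hz₀ hin hg N hp hP hgood,
      pst_trg hD hz₀ hin hg N hp hP h2 hgood, ?_,
      pst_card hg N hp hP h2 (z₀ := z₀) (β₀ := !innD D z₀ true) hanti hn⟩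
    · exact fun w hw hws => (pst_common hg N hp hP hw hws).2
    · exact fun F w hw hw' hf => pst_off hg N hp hP h2 hw hw' hf
    · intro i hi K hK X' hX'
      obtain ⟨X, h3, h4, -, h5⟩ := pst_pbd hz₀ hg N hp hP h2 hgood i hi K hK X' hX'
      exact ⟨X, h3, h4, h5⟩
  by_cases hQ : M.Btw z₀.F (z₀.e false) (s.mu z₀.F (z₀.e false))
      (pt (flip (dz z₀ true (!innD D z₀ true))))
  · obtain ⟨c, hp⟩ := hroom (!up z₀.F (z₀.e false))
    refine hfin hp ?_
    intro h
    have h3 := (hp.side hx (z₀.at_ false).2).1 (h.1 hQ)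
    cases up z₀.F (z₀.e false) <;> simp at h3
  · obtain ⟨c, hp⟩ := hroom (up z₀.F (z₀.e false))
    refine hfin hp ?_
    intro h
    exact hQ (h.2 ((hp.side hx (z₀.at_ false).2).2 rfl))

/-- **CUT with all clauses** : 892's `cutN` (`CL2`, `DblN`, `EncN`), 824's `TrN`, and
* `TrG` : for the sheet `i`, a set `R` of faces whose double points are joined with the base point, and
  a set `S` of barrier points joined on `R` with not enclosed points: the same for `R` in the cut state,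
  and the new points next to `S` are joined with the base point;
* `PBD` : the pull back, with the values at the double points -/
theorem cutG (up : Φ → W → Bool) (s : St M col) (hg : s.Good Act far) (h2 : Two s up)
    (hroom : Room s up) (Ph : Finset W) (hP : s.P ⊆ Ph) :
    ∃ s' : St M col, s'.Good Act far ∧ CL2 Act far Ph s' s ∧ DblN s' s ∧ EncN Act far Ph s' s ∧
      TrN Act far s' s ∧ TrG Act far Ph s' s ∧ PBD s' s ∧
      ∀ (A : s'.Arcs Act) (G : Set s'.Dbl), A.Closed G → G = ∅ := by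
  classical
  induction hn : Nat.card s.Dbl using Nat.strong_induction_on generalizing s Ph with
  | _ n ih =>
    by_cases h : ∀ (A : s.Arcs Act) (G : Set s.Dbl), A.Closed G → G = ∅
    · exact ⟨s, hg, CL2.refl _ _ _ _, DblN.refl _, EncN.refl _ _ _ _, TrN.refl _ _ _,
        TrG.refl _ _ _ _, PBD.refl _, h⟩
    · push Not at h
      obtain ⟨A, G, hG, hne⟩ := h
      obtain ⟨s₁, hg₁, hl₁, hd₁, he₁, ht₁, hq₁, hb₁, hc₁⟩ :=
        stepG hg h2 hP (fun b => hroom Ph b) A hG hne
      have h2' : Two s₁ up := by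
        intro F w hw hF
        have hw' := (hl₁.cle.hp w).1 hw
        rw [hl₁.cle.hmu w F hw']
        exact h2 hw' hF
      have hroom' : Room s₁ up := by
        intro Ph' b
        obtain ⟨c, hp⟩ := hroom Ph' b
        exact ⟨c, hp.congr hl₁.cle.hp⟩
      obtain ⟨s₂, hg₂, hl₂, hd₂, he₂, ht₂, hq₂, hb₂, hc₂⟩ := ih _ (hn ▸ hc₁) s₁ hg₁ h2' hroom'
        (Ph ∪ s₁.P) Finset.subset_union_right rfl
      exact ⟨s₂, hg₂, CL2.trans Finset.subset_union_left (hP.trans Finset.subset_union_left)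
        hl₂ hl₁ hg₁, hd₂.trans hd₁,
        EncN.trans Finset.subset_union_left hl₂ hl₁.cle hd₁ he₂ he₁,
        TrN.trans hl₁.cle ht₂ ht₁,
        TrG.trans Finset.subset_union_left hg₁ hg₂ hl₂ hl₁.cle hd₁ hq₂ hq₁,
        PBD.trans (hP.trans Finset.subset_union_left) hl₂ hl₁ hb₂ hb₁, hc₂⟩

end Crest.Agent.R096.Cng_689
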