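import Crest.Agent.R096.Dinv2_106

/-!
# Row 96, DOORS-INV (helper106), part 5: the truthful part, for any predicate on chords

`tr_of_locH1K` : `tr_of_locH1` with an arbitrary predicate `Kf` instead of `KFree`.  For the state
after CUT take `s := s₂`, `Kf F w := (s₃.At F w → s₃.lab w = j → KFree s₃ Q k F w)` and the set
given by 892's `pb`.
-/

set_option autoImplicit false

namespace Crest.Agent.R096.Dinv_106

open Crest.Agent.R096.St_147 Crest.Agent.R096.Seq_213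

variable {ι Φ W J C : Type} {M : MeshC ι Φ W} {fam : J → C}

/-- **the truthful part** : `s₀` = truthful state on the old mesh `M₀`, `N` = cells near the blob
(door discs and crossings of `k`), `R` = cells meeting the blob; `o` = old faces in the new mesh;
`X` is closed under the `Kf`-chords of the state `s` at the name `j`. -/
theorem tr_of_locH1K {ι₀ Φ₀ J₀ C₀ : Type} {M₀ : MeshC ι₀ Φ₀ W} {fam₀ : J₀ → C₀}
    {s₀ : GSt M₀ fam₀} {s : GSt M fam}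
    {Int : W → Prop} {Kf : Φ → W → Prop} {b : W} {U : Set W} {j₀ : J₀} {j : J}
    {N R : Set ι₀} (o : Φ₀ → Φ)
    (hconn : s₀.Conn j₀) (hloc : (Ginv_543.gSht s₀ j₀).LocH1 N R) (hNR : N ⊆ R)
    (hb : b ∈ s₀.P ∧ s₀.lab b = j₀ ∧ ∃ F, b ∈ M₀.On F ∧ ∃ q ∈ M₀.side F, q ∉ R)
    (hC : ∀ F w, s₀.At F w → s₀.lab w = j₀ → (∃ q ∈ M₀.side F, q ∉ N) → s.lab w = j →
      s.At (o F) w ∧ s.mu (o F) w = s₀.mu F w ∧ Kf (o F) w)
    (hl : s.lab b = j)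
    (hQ : ∀ w ∈ s.P, s.lab w = j → w ∉ U → ¬ Int w →
      w ∈ s₀.P ∧ s₀.lab w = j₀ ∧ ∃ F, w ∈ M₀.On F ∧ ∃ q ∈ M₀.side F, q ∉ R)
    (X : Set W) (hbX : b ∈ X)
    (hX : ∀ F w, w ∈ X → s.At F w → s.lab w = j → Kf F w → s.mu F w ∈ X) :
    ∀ w ∈ s.P, s.lab w = j → w ∉ U → ¬ Int w → w ∈ X := by
  classical
  obtain ⟨hbP, hbl, Fb, hbF, qb, hqb, hqR⟩ := hb
  obtain ⟨far, f1, f2, f3, -, f5⟩ := (Ginv_543.gSht s₀ j₀).far (Ginv_543.gSht_cn hconn)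
    (KK := ({()} : Finset Unit)) (N := fun _ => N) (Q := fun _ => R)
    (fun _ _ => hloc) (fun _ _ => hNR) (fun _ _ _ _ _ _ _ _ _ _ _ _ _ _ _ _ => rfl)
    (m := b) (Ginv_543.mem_gSht.2 ⟨hbP, hbl⟩) (Fm := Fb) hbF hqb (fun _ _ => hqR)
  intro w hw hwl hwU hwi
  obtain ⟨hw0, hwl0, F, hwF, q, hqF, hqR'⟩ := hQ w hw hwl hwU hwi
  have hwfar : w ∈ far := by
    by_contra h
    obtain ⟨_, _, h6⟩ := f3 w (Ginv_543.mem_gSht.2 ⟨hw0, hwl0⟩) h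
    exact hqR' (h6 F hwF q hqF)
  have h7 := f5 {y | y ∈ X ∧ s.lab y = j} ?_ b ⟨hbX, hl⟩ f1 hwfar
  · exact h7.1
  · rintro G y ⟨hyX, hyl⟩ hyf hyG hmf ⟨r, hr, hrN⟩
    have hy0 := Ginv_543.mem_gSht.1 (f2 y hyf)
    obtain ⟨h8, h9, h10⟩ := hC G y ⟨hy0.1, hyG⟩ hy0.2 ⟨r, hr, hrN () (Finset.mem_singleton_self _)⟩
      hyl
    have h11 := hX (o G) y hyX h8 hyl h10
    have h12 := s.mu_lab h8.1 h8.2
    rw [h9] at h11 h12
    exact ⟨h11, h12.trans hyl⟩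

end Crest.Agent.R096.Dinv_106
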