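import Crest.Agent.R096.Cng1_689
import Crest.Agent.R096.Sec13_892
import Crest.Agent.R096.Dinv5_106

/-!
# R096 / DOORS-INV (helper689): the field `tr` of `DoorInv` after CUT, with `ConnT` / `TrD`

* `cutAllG` : 892's `cutAll` and the clauses `TrG`, `PBD`, `TrN` for every family;
* `connI_of`: the input `ConnI` of the pair state in terms of the state with barriers;
* `trD_cut`, `trQ_cut` : the clause for the cut state;
* `tr_cutG` : the field `tr` of 106's `DoorInv`.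
-/

set_option autoImplicit false

namespace Crest.Agent.R096.Cng_689

open Crest.Agent.R096.St_147 Crest.Agent.R096.Seq_213 Crest.Agent.R096.Sec_892
  Crest.Agent.R096.SecW_892 Crest.Agent.R096.Cg_501 Crest.Agent.R096.Sgd_298
  Crest.Agent.R096.Cnp_824

variable {ι Φ W J C Mo : Type} {M : MeshC ι Φ W} {fam : J → C} {am : Mo → C}
variable {s : GSt M (Sum.map fam (id : Mo → Mo))} {hs : BSep s am}
  {hm : ∀ a, {m | am m = a}.Finite} {j0 : C → J} {hj0 : ∀ a, fam (j0 a) = a}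
  {Act : C → Set ι} {far : ∀ a, PN fam am a → Set W}

/-- 689's clause from 147's `PBN` (892) -/
theorem trG_of_pbn {I : Type} {col : I → Bool} {A : Set ι} {fr : I → Set W} {Q : Finset W}
    {s' s : St M col} (hc : CLe A fr Q s' s) (hN : Pbn_147.PBN A fr Q s' s)
    (hg : s.Good A fr) (hg' : s'.Good A fr) : TrG A fr Q s' s := by
  intro i hi K hK b hb R S hR hD
  constructor
  · intro X' hbX' hX' z' hzR hzl
    obtain ⟨X, hX, hcom, hd, -⟩ := hN i hi K hK X' hX'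
    have hbX : b ∈ X := (hcom b (hg.far_mem hb).1 (hg.far_mem hb).2 (hg'.far_mem hb).1
      (hg'.far_mem hb).2).2 hbX'
    obtain ⟨z, e1, e2, e3, e4⟩ := hd z' hzl
    exact e4.1 (hD X hbX hX z (by rw [e1]; exact hzR) e3)
  · intro X' hbX' hX' w hw hws hwl hall
    by_contra hwX
    obtain ⟨X, hX, hcom, hd, hn⟩ := hN i hi K hK X' hX'
    have hbX : b ∈ X := (hcom b (hg.far_mem hb).1 (hg.far_mem hb).2 (hg'.far_mem hb).1
      (hg'.far_mem hb).2).2 hbX'
    obtain ⟨h, hh, hnb, B, h1, h2, h3, h4⟩ := hn w hw hws hwl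
    obtain ⟨y, hyB, hy, hyl, hne⟩ := hR h (hall h ((hc.hp h).2 hh) hnb) hh B h1 (by
      intro F hF y hyB hA _
      exact h3 F y hyB hA fun z hzF _ hzl hiff =>
        hwX (hiff.1 (hD X hbX hX z (by rw [hzF]; exact hF) hzl)))
    apply hne
    refine ⟨B, hyB, fun x hx => ⟨(h2 x hx).1, (h2 x hx).2.trans hyl.symm⟩, ?_, ?_⟩
    · intro F x hx hA hf
      exact h3 F x hx hA fun z hzF hze hzl _ => hf z hzF hze hzl
    · intro x hx
      rw [hyl]
      exact h4 x hx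

/-- the double points from `PBN` (892) -/
theorem pbd_of_pbn {I : Type} {col : I → Bool} {A : Set ι} {fr : I → Set W} {Q : Finset W}
    {s' s : St M col} (hN : Pbn_147.PBN A fr Q s' s) : PBD s' s := by
  intro i hi K hK X' hX'
  obtain ⟨X, hX, hcom, hd, -⟩ := hN i hi K hK X' hX'
  exact ⟨X, hX, hcom, hd⟩

/-- **CUT for all families at once** -/
theorem cutAllG [Countable C] [Nonempty C]
    (hg : ∀ a, (prS s hs hm j0 hj0 a).Good (Act a) (far a))
    (hu : ∀ a, ∃ up, Two (prS s hs hm j0 hj0 a) up ∧ Room (prS s hs hm j0 hj0 a) up)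
    (hfin : ∀ F, (s.P ∩ M.On F).Finite) :
    ∃ (t : ∀ a, St M (pcol fam am a)) (Ph : C → Finset W) (s₃ : GSt M fam),
      CutR s hs hm j0 hj0 Act far t Ph s₃ ∧
        (∀ a, TrG (Act a) (far a) (Ph a) (t a) (prS s hs hm j0 hj0 a)) ∧
        (∀ a, TrN (Act a) (far a) (t a) (prS s hs hm j0 hj0 a)) ∧
        ∀ a, PBD (t a) (prS s hs hm j0 hj0 a) := by
  obtain ⟨t, Ph, s₃, D⟩ := cutAll hg hu hfin
  exact ⟨t, Ph, s₃, D, fun a => trG_of_pbn (D.cl2 a).cle (D.pbn a) (D.good0 a) (D.good a), D.trn,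
    fun a => pbd_of_pbn (D.pbn a)⟩

/-- `x` is not enclosed by the sheet `j` in the state with barriers: every set of points of the
barrier `m` which contains `x` and is closed under the barrier chords not crossed by the sheet `j` has
a point on a frozen face -/
def FreeOut (s : GSt M (Sum.map fam (id : Mo → Mo))) (A : Set ι) (j : J) (m : Mo) (x : W) : Prop :=
  ∀ X : Set W, x ∈ X → (∀ y ∈ X, y ∈ s.P ∧ s.lab y = Sum.inr m) →
    (∀ F y, y ∈ X → s.At F y → (∀ v, s.At F v → s.lab v = Sum.inl j →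
      ¬ M.Lace F y (s.mu F y) v (s.mu F v)) → s.mu F y ∈ X) →
    ∃ y ∈ X, ∃ F, s.At F y ∧ St.Frozen M A F

/-- `ConnI` of the pair state from the state with barriers -/
theorem connI_of {j : J} {R : Set Φ} {S : Set W}
    (h : ∀ x ∈ S, ∀ m, x ∈ s.P → s.lab x = Sum.inr m → am m = fam j → ∀ Y : Set W, x ∈ Y →
      (∀ F ∈ R, ∀ y ∈ Y, s.At F y → s.lab y = Sum.inr m → s.mu F y ∈ Y) →
      ∃ y ∈ Y, y ∈ s.P ∧ s.lab y = Sum.inr m ∧ FreeOut s (Act (fam j)) j m y) :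
    ConnI (Act (fam j)) (far (fam j)) (prS s hs hm j0 hj0 (fam j)) (nL am j) R S := by
  intro x hxS hx Y hxY hY
  obtain ⟨hxP, m, hma, hxl⟩ := pr_hp.1 hx
  have e1 : Sum.elim fam am (s.lab x) = fam j := by rw [hxl]; exact hma
  have e3 := (pr_lab_iff (hs := hs) (hm := hm) (i0 := ⟨Sum.inl (j0 (fam j)), hj0 _⟩) e1).1 rfl
  have hpr : ∀ {y}, y ∈ s.P → s.lab y = Sum.inr m →
      HP (prS s hs hm j0 hj0 (fam j)) y ∧
        (prS s hs hm j0 hj0 (fam j)).lab y = (prS s hs hm j0 hj0 (fam j)).lab x := by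
    intro y hy hyl
    have h1 : Sum.elim fam am (s.lab y) = fam j := by rw [hyl]; exact hma
    refine ⟨pr_hp.2 ⟨hy, m, hma, hyl⟩, (pr_lab_iff h1).2 ?_⟩
    rw [← e3, hyl, hxl]
  obtain ⟨y, hyY, hyP, hyl, hyF⟩ := h x hxS m hxP hxl hma Y hxY (by
    intro F hF y hy hA hl
    obtain ⟨h1, h2⟩ := hpr hA.1 hl
    exact hY F hF y hy ⟨h1.1, hA.2⟩ h2)
  obtain ⟨h1, h2⟩ := hpr hyP hyl
  refine ⟨y, hyY, h1, h2, ?_⟩
  rintro ⟨X, h6, h7, h8, h9⟩
  obtain ⟨v, hv, F, hA, hF⟩ := hyF X h6 (by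
    intro u hu
    obtain ⟨g1, g2⟩ := h7 u hu
    obtain ⟨g3, m', g4, g5⟩ := pr_hp.1 g1
    refine ⟨g3, ?_⟩
    have g6 := (pr_lab_iff (by rw [g5]; exact g4)).1 (g2.trans h2)
    rw [g6, ← e3, hxl]) (by
    intro F u hu hA hno
    obtain ⟨g1, g2⟩ := h7 u hu
    refine h8 F u hu ⟨g1.1, hA.2⟩ ?_
    intro z hF he hl
    subst hF
    have hA' : (prS s hs hm j0 hj0 (fam j)).At z.F u := ⟨g1.1, hA.2⟩
    have h13 := z.lace
    rw [he] at h13
    have h14 := (lace_lo_right (prS s hs hm j0 hj0 (fam j)) hA' _ _).1 h13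
    have h15 := Seq_213.lace_comm (prS s hs hm j0 hj0 (fam j)) (z.at_ true) hA' (by
      intro e
      have h16 := z.colr true
      have h17 := g1.2
      rw [← e, h16] at h17
      exact Bool.false_ne_true h17.symm) h14
    obtain ⟨h18, h19⟩ := pr_at.1 (z.at_ true)
    exact hno (z.e true) h18 ((pr_lab_iff h19).1 hl) h15)
  obtain ⟨g1, -⟩ := h7 v hv
  exact (h9 v hv).2 F ⟨g1.1, hA.2⟩ hF

section tr

variable {t : ∀ a, St M (pcol fam am a)} {Ph : C → Finset W} {s₃ : GSt M fam}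

/-- the chords of `j` which are not crossed in the quad `k` after CUT (no condition at the points
which CUT removed) -/
def K3 {K : Type} (s₃ : GSt M fam) (Q : Quads ι C K) (j : J) (k : K) (F : Φ) (w : W) : Prop :=
  s₃.At F w → s₃.lab w = j → Dinv_106.KFree s₃ Q k F w

/-- **the new points next to `S`** -/
theorem trQ_cut (D : CutR s hs hm j0 hj0 Act far t Ph s₃)
    (hG : ∀ a, TrG (Act a) (far a) (Ph a) (t a) (prS s hs hm j0 hj0 a)) {j : J}
    {K : Φ → W → Prop}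
    (hK : ∀ q F F' h m, q ∈ M.side F → q ∈ M.side F' → s.At F' h → s.lab h = Sum.inr m →
      am m = fam j → ∀ w, K F w) {b : W} (hb : b ∈ far (fam j) (nL am j)) {R : Set Φ} {S : Set W}
    (hR : ConnI (Act (fam j)) (far (fam j)) (prS s hs hm j0 hj0 (fam j)) (nL am j) R S)
    -- the double points on `R` before CUT
    (hT : ∀ X : Set W, b ∈ X →
      (∀ F w, s.At F w → s.lab w = Sum.inl j → K F w → (w ∈ X ↔ s.mu F w ∈ X)) →
      ∀ F ∈ R, ∀ w, s.At F w → s.lab w = Sum.inl j →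
        (∃ h m, s.At F h ∧ s.lab h = Sum.inr m ∧ am m = fam j ∧
          M.Lace F w (s.mu F w) h (s.mu F h)) → w ∈ X) {X : Set W} (hbX : b ∈ X)
    (hX : ∀ F w, s₃.At F w → s₃.lab w = j → K F w → (w ∈ X ↔ s₃.mu F w ∈ X)) :
    ∀ w ∈ s₃.P, s₃.lab w = j → w ∉ s.P →
      (∀ h m, h ∈ s.P → s.lab h = Sum.inr m → am m = fam j → (∀ F, w ∈ M.On F ↔ h ∈ M.On F) →
        (∀ F v, h ∈ M.On F → v ∈ s.P → v ∈ M.On F → v ≠ h →
          (M.pos F v < M.pos F h ↔ M.pos F v < M.pos F w)) → h ∈ S) → w ∈ X := by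
  have h1 : TrQ (t (fam j)) (nL am j) K b R S (prS s hs hm j0 hj0 (fam j)).P (Ph (fam j)) := by
    refine hG (fam j) (nL am j) rfl K (fun q F F' h hq hq' hh hF' w => ?_) b hb R S hR ?_
    · obtain ⟨h3, m, h4, h5⟩ := pr_hp.1 hh
      exact hK q F F' h m hq hq' ⟨h3, hF'⟩ h5 h4 w
    · intro Y hbY hY z hzR hzl
      obtain ⟨e1, e2⟩ := D.pr_of' (z.at_ true).1 hzl
      refine hT Y hbY (fun F' w' hw' hl' hk => ?_) z.F hzR (z.e true) ⟨e1, (z.at_ true).2⟩ e2 ?_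
      · obtain ⟨e3, e4⟩ := D.pr_of hw'.1 hl'
        exact hY F' w' ⟨e3, hw'.2⟩ e4 hk
      · obtain ⟨h3, m, h4, h5⟩ := pr_hp.1
          (show HP (prS s hs hm j0 hj0 (fam j)) (z.e false) from ⟨(z.at_ false).1, z.colr false⟩)
        exact ⟨z.e false, m, ⟨h3, (z.at_ false).2⟩, h5, h4, z.lace⟩
  intro w hw hl hws hS
  obtain ⟨e1, e2⟩ := D.mem.1 ⟨hw, hl⟩
  refine h1.2 X hbX (fun F' w' hw' hl' hk => ?_) w e1 (fun h => hws (mem_pr.1 h).1) e2 ?_
  · obtain ⟨e3, e4⟩ := D.at_iff.2 ⟨hw', hl'⟩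
    rw [← D.mu' e3.1 e4]
    exact hX F' w' e3 e4 hk
  · intro h hh hn
    have hh' := ((D.cl2 (fam j)).cle.hp h).1 hh
    obtain ⟨h3, m, h4, h5⟩ := pr_hp.1 hh'
    exact hS h m h3 h5 h4 hn.1 fun F v hF hv hvF hne =>
      hn.2 F v hF (D.full _ h F hh'.1 hF v hv hvF) hvF hne

/-- **the field `tr` of `DoorInv` after CUT**, for the sheet `j` and the quad `k` -/
theorem tr_cutG {K : Type} {Q : Quads ι C K} (D : CutR s hs hm j0 hj0 Act far t Ph s₃)
    (hG : ∀ a, TrG (Act a) (far a) (Ph a) (t a) (prS s hs hm j0 hj0 a)) {j : J} {k : K}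
    -- the chords of `j` on the cells with barrier points of the family are free in `k`
    (hK : ∀ q F F' h m, q ∈ M.side F → q ∈ M.side F' → s.At F' h → s.lab h = Sum.inr m →
      am m = fam j → ∀ w, s₃.At F w → s₃.lab w = j → Dinv_106.KFree s₃ Q k F w)
    {b : W} (hb : b ∈ far (fam j) (nL am j)) (hbs : b ∈ s.P) {R : Set Φ} {S : Set W}
    (hR : ConnI (Act (fam j)) (far (fam j)) (prS s hs hm j0 hj0 (fam j)) (nL am j) R S)
    {U : Set W}
    -- (T1) : the truthful part, and the double points on `R`, of the state before CUT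
    (hT : ∀ X : Set W, b ∈ X →
      (∀ F w, s.At F w → s.lab w = Sum.inl j → K3 s₃ Q j k F w → (w ∈ X ↔ s.mu F w ∈ X)) →
      (∀ w ∈ s.P, s.lab w = Sum.inl j → w ∉ U → ¬ Int M (Q.Act k) w → w ∈ X) ∧
      ∀ F ∈ R, ∀ w, s.At F w → s.lab w = Sum.inl j →
        (∃ h m, s.At F h ∧ s.lab h = Sum.inr m ∧ am m = fam j ∧
          M.Lace F w (s.mu F w) h (s.mu F h)) → w ∈ X)
    -- the new points are in `U`, inside `k`, or next to barrier points of `S` only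
    (hnew : ∀ w ∈ s₃.P, s₃.lab w = j → w ∉ s.P → w ∉ U → ¬ Int M (Q.Act k) w →
      ∀ h m, h ∈ s.P → s.lab h = Sum.inr m → am m = fam j → (∀ F, w ∈ M.On F ↔ h ∈ M.On F) →
        (∀ F v, h ∈ M.On F → v ∈ s.P → v ∈ M.On F → v ≠ h →
          (M.pos F v < M.pos F h ↔ M.pos F v < M.pos F w)) → h ∈ S) :
    ∀ X : Set W, b ∈ X → Dinv_106.KCl s₃ Q j k X →
      ∀ w ∈ s₃.P, s₃.lab w = j → w ∉ U → ¬ Int M (Q.Act k) w → w ∈ X := by
  intro X hbX hX w hw hl hU hI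
  have hK' : ∀ q F F' h m, q ∈ M.side F → q ∈ M.side F' → s.At F' h → s.lab h = Sum.inr m →
      am m = fam j → ∀ w, K3 s₃ Q j k F w := fun q F F' h m h1 h2 h3 h4 h5 w h6 h7 =>
    hK q F F' h m h1 h2 h3 h4 h5 w h6 h7
  have hX' : ∀ F w, s₃.At F w → s₃.lab w = j → K3 s₃ Q j k F w → (w ∈ X ↔ s₃.mu F w ∈ X) :=
    fun F w hA hl hk => (Dinv_106.KCl.iff hX hA hl (hk hA hl)).symm
  by_cases hws : w ∈ s.P
  · obtain ⟨Y, h1, h2⟩ := D.pb (j := j) (K := K3 s₃ Q j k) hK' hX'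
    have hls : s.lab w = Sum.inl j := by rw [D.old hw hws, hl]
    have hbm := (D.good (fam j)).far_mem hb
    obtain ⟨hb3, hbl3⟩ := D.mem.2 ⟨hbm.1, hbm.2⟩
    have hbls : s.lab b = Sum.inl j := by rw [D.old hb3 hbs, hbl3]
    have hbY : b ∈ Y := (h2 b hbs hbls hb3).2 hbX
    exact (h2 w hws hls hw).1 ((hT Y hbY h1).1 w hws hls hU hI)
  · exact trQ_cut D hG hK' hb hR (fun Y hbY hY => (hT Y hbY hY).2) hbX hX' w hw hl hws
      (hnew w hw hl hws hU hI)

end tr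

end Crest.Agent.R096.Cng_689
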