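import Crest.Agent.R096.Sec11_892

/-!
# R096 / DOORS-SEC (helper824): CUT with the clause (NEW) : the new points of the cut state are
joined with the base point if all points of the truthful zone are

Extension of 892's Sec10 / Sec11 (`pst_pb`, `cutE`): in `pst_pbn` the value of the closed set at
the new points is the value at the removed curve.
-/

set_option autoImplicit false

namespace Crest.Agent.R096.Cnp_824

open Crest.Agent.R096.St_147 Crest.Agent.R096.Wk_689 Crest.Agent.R096.F_422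
open Crest.Agent.R096.Sec_892 Crest.Agent.R096.SecW_892

variable {ι Φ W I : Type} {M : MeshC ι Φ W} {col : I → Bool} {s : St M col}
variable {Act : Set ι} {far : I → Set W}

/-- the part `R` (a set of faces) of the sheet `i` is joined with the point `b` by `K`-chords -/
def TrP (s : St M col) (i : I) (K : Φ → W → Prop) (b : W) (R : Set Φ) : Prop :=
  ∀ X : Set W, b ∈ X → KCl s i K X → ∀ F ∈ R, ∀ w, s.At F w → s.lab w = i → w ∈ X

/-- the barrier points on the faces of `R` are joined, by barrier chords on the faces of `R`, with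
points which are not enclosed -/
def ConnS (Act : Set ι) (far : I → Set W) (s : St M col) (R : Set Φ) : Prop :=
  ∀ h, HP s h → ∀ F ∈ R, h ∈ M.On F → ∀ Y : Set W, h ∈ Y →
    (∀ F ∈ R, ∀ y ∈ Y, s.At F y → s.lab y = s.lab h → s.mu F y ∈ Y) →
    ∃ y ∈ Y, HP s y ∧ s.lab y = s.lab h ∧ ¬ Encl Act far s y

/-- **the clause (NEW)** -/
def TrN (Act : Set ι) (far : I → Set W) (s' s : St M col) : Prop :=
  ∀ i, col i = true → ∀ K : Φ → W → Prop, KBar s K → ∀ b ∈ far i, ∀ R : Set Φ,
    ConnS Act far s R → TrP s i K b R → TrP s' i K b R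

theorem TrN.refl (Act : Set ι) (far : I → Set W) (s : St M col) : TrN Act far s s :=
  fun _ _ _ _ _ _ _ _ h => h

theorem KBar.of_cle {Ph : Finset W} {s' s : St M col} (hc : CLe Act far Ph s' s)
    {K : Φ → W → Prop} (hK : KBar s K) : KBar s' K :=
  fun q F F' h hq hq' hh hF' => hK q F F' h hq hq' ((hc.hp h).1 hh) hF'

theorem ConnS.of_cle {Ph : Finset W} {s' s : St M col} (hc : CLe Act far Ph s' s) {R : Set Φ}
    (h : ConnS Act far s R) : ConnS Act far s' R := by
  intro x hx F hF hxF Y hxY hY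
  have hx' := (hc.hp x).1 hx
  obtain ⟨y, h1, h2, h3, h4⟩ := h x hx' F hF hxF Y hxY (by
    intro F' hF' y hy hA hl
    have h5 : HP s y := ⟨hA.1, by rw [hl]; exact hx'.2⟩
    rw [← hc.hmu y F' h5]
    exact hY F' hF' y hy ⟨((hc.hp y).2 h5).1, hA.2⟩ (by
      rw [hc.hlab y h5, hc.hlab x hx', hl]))
  refine ⟨y, h1, (hc.hp y).2 h2, by rw [hc.hlab y h2, hc.hlab x hx', h3], fun he => h4 ?_⟩
  exact he.of_cle hc

theorem TrN.trans {Ph : Finset W} {s'' s' s : St M col} (hc : CLe Act far Ph s' s)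
    (h2 : TrN Act far s'' s') (h1 : TrN Act far s' s) : TrN Act far s'' s :=
  fun i hi K hK b hb R hR hT =>
    h2 i hi K (KBar.of_cle hc hK) b hb R (hR.of_cle hc) (h1 i hi K hK b hb R hR hT)

section step

variable {G : Set s.Dbl} {inn : s.Dbl → Bool → Bool} {nm : Dart s → Option I}
variable {up : Φ → W → Bool} {Ph : Finset W} {b : Bool} {c : W → W}

/-- **pull back of closed sets for one curve, with the values at the new points**
(892's `pst_pb` with one more conclusion) -/
theorem pst_pbn {A : s.Arcs Act} {z₀ : s.Dbl} (hz₀ : z₀ ∈ A.mx) (hg : s.Good Act far)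
    (N : NmsT s (A.cv z₀) far inn nm) (hp : Push s up Ph b c) (hP : s.P ⊆ Ph)
    (hgood : (pst hp hP (nst_sub hg N)).Good Act far) :
    ∀ i, col i = true → ∀ K : Φ → W → Prop, KBar s K →
      ∀ X', KCl (pst hp hP (nst_sub hg N)) i K X' → ∃ X, KCl s i K X ∧
        (∀ w, w ∈ s.P → s.lab w = i → w ∈ (pst hp hP (nst_sub hg N)).P →
          (pst hp hP (nst_sub hg N)).lab w = i → (w ∈ X ↔ w ∈ X')) ∧
        ∀ w ∈ (pst hp hP (nst_sub hg N)).P, w ∉ s.P → (pst hp hP (nst_sub hg N)).lab w = i →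
          (w ∈ X' ↔ z₀.e true ∈ X) := by
  classical
  intro i hi K hK X' hX'
  set t := nst hg N with ht
  set s' := pst hp hP (nst_sub hg N) with hs'
  set χ : W → ZMod 2 := fun w => if w ∈ X' then 1 else 0 with hχ
  have hχe : ∀ {u v : W}, (u ∈ X' ↔ v ∈ X') → χ u = χ v := fun h => if_congr h rfl rfl
  -- kept points
  have hkept : ∀ {w}, w ∈ t.P → s.lab w = i → t.lab w = i ∧ ph s c w = w ∧ w ∈ s'.P ∧
      s'.lab w = i := by
    intro w hw hwi
    have hc : col (s.lab w) = true := by rw [hwi]; exact hi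
    have h1 : t.lab w = i := (nst_same hg N hw hc).trans hwi
    have h2 : w ∈ kA t := mem_kA.2 ⟨hw, by rw [h1]; exact hi⟩
    have h3 := pst_ph (hp := hp) (hP := hP) (ht := nst_sub hg N) h2
    rw [ph_neg hc] at h3
    exact ⟨h1, ph_neg hc, h3.1, h3.2.1.trans h1⟩
  have hcom : ∀ w, w ∈ s.P → s.lab w = i → w ∈ s'.P → w ∈ t.P := by
    intro w hw hwi hw'
    rcases (pst_common hg N hp hP hw' hw).1 with h | ⟨h, hc⟩
    · exfalso
      have h3 := h.2
      rw [hwi, hi] at h3
      exact Bool.false_ne_true h3.symm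
    · exact (mem_kA.1 h).1
  have htm : ∀ {F w}, s.At F w → w ∈ t.P → t.mu F w ∈ t.P := fun hA hw => (nmd hg N).mem hA hw
  -- free chords
  have hfree : ∀ {F w}, s.At F w → s.lab w = i →
      (∀ z ∈ A.cv z₀, z.F = F → z.e true ≠ s.lo F w) → t.mu F w = s.mu F w := by
    intro F w hA hwi hz
    exact mu'_eq_mu hA (by rw [hwi, hi]; exact hz)
  have hfree_iff : ∀ {F w}, s.At F w → s.lab w = i →
      (∀ z ∈ A.cv z₀, z.F = F → z.e true ≠ s.lo F w) →
      (w ∈ t.P → s.mu F w ∈ t.P ∧ s'.mu F w = s.mu F w) := by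
    intro F w hA hwi hz hw
    have h1 := hfree hA hwi hz
    have h2 := htm hA hw
    rw [h1] at h2
    refine ⟨h2, ?_⟩
    obtain ⟨h3, h4, -, -⟩ := hkept hw hwi
    have h5 : w ∈ kA t := mem_kA.2 ⟨hw, by rw [h3]; exact hi⟩
    have h6 := (pst_ph (hp := hp) (hP := hP) (ht := nst_sub hg N) h5).2.2 F
    rw [h4] at h6
    refine h6.trans ?_
    show ph s c (t.mu F w) = _
    rw [h1]
    exact (hkept h2 ((s.mu_lab hA.1 hA.2).trans hwi)).2.1
  have hlo : ∀ {F w}, s.At F w → s.lo F (s.mu F w) = s.lo F w := by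
    intro F w hA
    unfold St.lo
    rw [s.mu_mu hA.1 hA.2]
    rcases lt_trichotomy (M.pos F w) (M.pos F (s.mu F w)) with h | h | h
    · rw [if_neg (not_le.2 h), if_pos h.le]
    · exact absurd (M.pos_inj F hA.2 (s.mu_mem hA.1 hA.2).2 h).symm (s.mu_ne hA.1 hA.2)
    · rw [if_pos h.le, if_neg (not_le.2 h)]
  -- the cochain
  set θ : Φ → W → ZMod 2 := fun F w =>
    if w ∈ t.P ∧ ¬ K F w ∧ ¬ K F (s.mu F w) then χ w + χ (s.mu F w) else 0 with hθ
  have hθK : ∀ {F w}, K F w → θ F w = 0 := fun h => if_neg fun h' => h'.2.1 h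
  obtain ⟨Ψ, hΨ⟩ := hg.h1 i θ (by
    intro q
    by_cases hq : ∃ F' h, q ∈ M.side F' ∧ HP s h ∧ h ∈ M.On F'
    · obtain ⟨F', h, hq', hh, hF'⟩ := hq
      refine ⟨fun _ => 0, fun F w hF hA hl => ?_⟩
      rw [add_zero]
      exact hθK (hK q F F' h hF hq' hh hF' w)
    · refine ⟨fun w => if w ∈ t.P then χ w else 0, fun F w hF hA hl => ?_⟩
      have hno : ∀ z ∈ A.cv z₀, z.F = F → z.e true ≠ s.lo F w := by
        intro z _ hzF _
        exact hq ⟨z.F, z.e false, by rw [hzF]; exact hF, ⟨(z.at_ false).1, z.colr false⟩,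
          (z.at_ false).2⟩
      have hA' := At.mu s hA
      have hl' : s.lab (s.mu F w) = i := (s.mu_lab hA.1 hA.2).trans hl
      have hno' : ∀ z ∈ A.cv z₀, z.F = F → z.e true ≠ s.lo F (s.mu F w) := by
        rw [hlo hA]; exact hno
      by_cases hw : w ∈ t.P
      · obtain ⟨h1, h2⟩ := hfree_iff hA hl hno hw
        beta_reduce
        rw [if_pos hw, if_pos h1]
        by_cases hk : K F w ∨ K F (s.mu F w)
        · have h3 : w ∈ X' ↔ s.mu F w ∈ X' := by
            rcases hk with hk | hk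
            · have := hX' F w ⟨(hkept hw hl).2.2.1, hA.2⟩ (hkept hw hl).2.2.2 hk
              rwa [h2] at this
            · have h4 := (hfree_iff hA' hl' hno' h1).2
              rw [s.mu_mu hA.1 hA.2] at h4
              have := hX' F (s.mu F w) ⟨(hkept h1 hl').2.2.1, hA'.2⟩ (hkept h1 hl').2.2.2 hk
              rw [h4] at this
              exact this.symm
          rw [hχe h3, add_self2]
          exact if_neg fun h' => hk.elim h'.2.1 h'.2.2
        · rw [not_or] at hk
          exact if_pos ⟨hw, hk.1, hk.2⟩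
      · have h1 : s.mu F w ∉ t.P := by
          intro h
          have := (hfree_iff hA' hl' hno' h).1
          rw [s.mu_mu hA.1 hA.2] at this
          exact hw this
        beta_reduce
        rw [if_neg hw, if_neg h1, add_zero]
        exact if_neg fun h' => hw h'.1)
  have hΨK : ∀ {F w}, s.At F w → s.lab w = i → K F w → Ψ w = Ψ (s.mu F w) := by
    intro F w hA hl hk
    have := hΨ F w hA hl
    rw [hθK hk] at this
    exact eq_of_add2 this.symm
  -- affected chords
  have haff : ∀ {F w}, s.At F w → s.lab w = i →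
      (∃ z ∈ A.cv z₀, z.F = F ∧ z.e true = s.lo F w) → Ψ w = Ψ (z₀.e true) := by
    rintro F w hA hl ⟨z, hz, hzF, hze⟩
    have hKF : ∀ u, K F u := by
      obtain ⟨q, hq⟩ := exists_side' (M := M) F
      exact hK q F F (z.e false) hq hq ⟨(z.at_ false).1, z.colr false⟩ (by
        rw [← hzF]; exact (z.at_ false).2)
    have hloA : s.lo F w = w ∨ s.lo F w = s.mu F w := by
      unfold St.lo
      split_ifs
      · exact Or.inl rfl
      · exact Or.inr rfl
    have hl2 : s.lab (s.lo F w) = i := by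
      rcases hloA with h | h
      · rw [h]; exact hl
      · rw [h, s.mu_lab hA.1 hA.2]; exact hl
    have hΨ2 : Ψ (s.lo F w) = Ψ w := by
      rcases hloA with h | h
      · rw [h]
      · rw [h]; exact (hΨK hA hl (hKF w)).symm
    have hz1 : s.lab (z.e true) = i := by rw [hze]; exact hl2
    have hmx := A.mx_closed
    -- the curve lies on the sheet `i`
    have hi0 : s.lab (z₀.e true) = i := by
      have := (curve_const (K := K) (Ψ := fun _ => 0) hz₀ hK (fun _ _ _ _ _ => rfl) hz).1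
      rw [← this]; exact hz1
    have := (curve_const (Ψ := Ψ) hz₀ hK (fun F w hA' hl' hk' => hΨK hA' (hl'.trans hi0) hk') hz).2
    rw [← this, hze]
    exact hΨ2.symm
  obtain ⟨b₀, hb₀⟩ := hg.far_ne i
  have hb1 : b₀ ∈ t.P := far_mem' hg N hi hb₀
  have hb2 : s.lab b₀ = i := (hg.far_mem hb₀).2
  set e : ZMod 2 := Ψ b₀ + χ b₀ with he
  set Z : Set W := {x | (x ∈ s.P → Ψ x + χ x = e) ∧ (x ∉ s.P → Ψ (z₀.e true) + χ x = e)} with hZ
  have hclosed : ∀ F x, x ∈ Z → s'.At F x → s'.lab x = i → s'.mu F x ∈ Z := by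
    intro F x hxZ hxA hxl
    obtain ⟨v, hv, rfl⟩ := pst_true hxA.1 (by rw [hxl]; exact hi)
    have hvP := nst_sub hg N (mem_kA.1 hv).1
    have hvF : v ∈ M.On F := (ph_on hp hvP F).1 hxA.2
    have hvA : s.At F v := ⟨hvP, hvF⟩
    have h4 := pst_ph (hp := hp) (hP := hP) (ht := nst_sub hg N) hv
    have hvl : t.lab v = i := h4.2.1.symm.trans hxl
    have hmu : s'.mu F (ph s c v) = ph s c (t.mu F v) := h4.2.2 F
    -- the new partner
    have hv' : t.mu F v ∈ t.P := htm hvA (mem_kA.1 hv).1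
    have hv'l : t.lab (t.mu F v) = i := (t.mu_lab (mem_kA.1 hv).1 hvF).trans hvl
    have hv'A : s.At F (t.mu F v) := mu'_at (A.cv z₀) inn hvA
    have hmm : t.mu F (t.mu F v) = v := t.mu_mu (mem_kA.1 hv).1 hvF
    -- values at a common point on an affected chord
    have hval : ∀ u, s.At F u → u ∈ t.P → col (s.lab u) = true → t.lab u = i →
        (∃ z ∈ A.cv z₀, z.F = F ∧ z.e true = s.lo F u) → Ψ u = Ψ (z₀.e true) := by
      intro u hu huP huc hul hz
      exact haff hu ((nst_same hg N huP huc).symm.trans hul) hz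
    by_cases haf : col (s.lab v) = true ∧ ∀ z ∈ A.cv z₀, z.F = F → z.e true ≠ s.lo F v
    · -- not affected
      obtain ⟨hc, hz⟩ := haf
      have hsl : s.lab v = i := (nst_same hg N (mem_kA.1 hv).1 hc).symm.trans hvl
      have h1 := hfree hvA hsl hz
      have hsl' : s.lab (s.mu F v) = i := (s.mu_lab hvP hvF).trans hsl
      obtain ⟨h2, h3⟩ := hfree_iff hvA hsl hz (mem_kA.1 hv).1
      rw [ph_neg hc] at hxZ hxA hxl ⊢
      rw [h3]
      have hmP : s.mu F v ∈ s.P := (At.mu s hvA).1
      have hx1 := hxZ.1 hvP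
      refine ⟨fun _ => ?_, fun h => absurd hmP h⟩
      rw [← hx1]
      have hq := hΨ F v hvA hsl
      by_cases hk : K F v ∨ K F (s.mu F v)
      · have h5 : v ∈ X' ↔ s.mu F v ∈ X' := by
          rcases hk with hk | hk
          · have := hX' F v hxA hxl hk
            rwa [h3] at this
          · have h6 := (hfree_iff (At.mu s hvA) hsl' (by rw [hlo hvA]; exact hz) h2).2
            rw [s.mu_mu hvP hvF] at h6
            have := hX' F (s.mu F v) ⟨(hkept h2 hsl').2.2.1, (At.mu s hvA).2⟩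
              (hkept h2 hsl').2.2.2 hk
            rw [h6] at this
            exact this.symm
        have h7 : θ F v = 0 := if_neg fun h' => hk.elim h'.2.1 h'.2.2
        rw [h7] at hq
        rw [← eq_of_add2 hq.symm, hχe h5]
      · rw [not_or] at hk
        have h7 : θ F v = χ v + χ (s.mu F v) := if_pos ⟨(mem_kA.1 hv).1, hk.1, hk.2⟩
        rw [h7] at hq
        have e1 := add_self2 (Ψ (s.mu F v))
        have e2 := add_self2 (χ (s.mu F v))
        have e3 := add_self2 (χ v)
        have e4 := add_self2 (Ψ v)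
        linear_combination hq + e1 - e3
    · -- affected: the face has a barrier point
      have hface : ∃ h, HP s h ∧ h ∈ M.On F := by
        by_cases hc : col (s.lab v) = true
        · have : ∃ z ∈ A.cv z₀, z.F = F ∧ z.e true = s.lo F v := by
            by_contra hcon
            apply haf
            refine ⟨hc, fun z hz hzF hze => hcon ⟨z, hz, hzF, hze⟩⟩
          obtain ⟨z, -, hzF, -⟩ := this
          exact ⟨z.e false, ⟨(z.at_ false).1, z.colr false⟩, by rw [← hzF]; exact (z.at_ false).2⟩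
        · exact ⟨v, ⟨hvP, by simpa using hc⟩, hvF⟩
      have hKF : ∀ u, K F u := by
        obtain ⟨h, hh, hhF⟩ := hface
        obtain ⟨q, hq⟩ := exists_side' (M := M) F
        exact hK q F F h hq hq hh hhF
      have hXX : (ph s c v ∈ X' ↔ s'.mu F (ph s c v) ∈ X') := hX' F _ hxA hxl (hKF _)
      -- the value at `x`
      have hx1 : Ψ (z₀.e true) + χ (ph s c v) = e := by
        by_cases hc : col (s.lab v) = true
        · have : ∃ z ∈ A.cv z₀, z.F = F ∧ z.e true = s.lo F v := by
            by_contra hcon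
            apply haf
            refine ⟨hc, fun z hz hzF hze => hcon ⟨z, hz, hzF, hze⟩⟩
          rw [ph_neg hc] at hxZ ⊢
          rw [← hval v hvA (mem_kA.1 hv).1 hc hvl this]
          exact hxZ.1 hvP
        · have hc' : col (s.lab v) = false := by simpa using hc
          refine hxZ.2 ?_
          rw [ph_pos hc']
          exact fun h => hp.nin ⟨hvP, hc'⟩ (hP h)
      have hx2 : Ψ (z₀.e true) + χ (s'.mu F (ph s c v)) = e := by rw [← hχe hXX]; exact hx1
      rw [hmu] at hx2 ⊢
      by_cases hc' : col (s.lab (t.mu F v)) = true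
      · rw [ph_neg hc'] at hx2 ⊢
        refine ⟨fun _ => ?_, fun _ => hx2⟩
        have : ∃ z ∈ A.cv z₀, z.F = F ∧ z.e true = s.lo F (t.mu F v) := by
          by_contra hcon
          push Not at hcon
          have hsl' : s.lab (t.mu F v) = i := (nst_same hg N hv' hc').symm.trans hv'l
          have h5 := hfree hv'A hsl' hcon
          rw [hmm] at h5
          -- `v` is the old partner of its new partner
          apply haf
          have h6 : t.mu F v = s.mu F v := by
            conv_rhs => rw [h5]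
            rw [s.mu_mu hv'A.1 hv'A.2]
          have hc : col (s.lab v) = true := by
            rw [h5, s.mu_lab hv'A.1 hv'A.2]; exact hc'
          refine ⟨hc, ?_⟩
          have h7 : s.lo F v = s.lo F (t.mu F v) := by
            rw [h6, hlo hvA]
          rw [h7]
          exact hcon
        rw [hval _ hv'A hv' hc' hv'l this]
        exact hx2
      · have hc'' : col (s.lab (t.mu F v)) = false := by simpa using hc'
        rw [ph_pos hc''] at hx2 ⊢
        exact ⟨fun h => absurd (hP h) (hp.nin ⟨hv'A.1, hc''⟩), fun _ => hx2⟩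
  have hbZ : b₀ ∈ Z := ⟨fun _ => rfl, fun h => absurd (hg.far_mem hb₀).1 h⟩
  have hall := (hgood.conn i).2 Z hclosed b₀ hbZ (hkept hb1 hb2).2.2.1 (hkept hb1 hb2).2.2.2
  refine ⟨{w | Ψ w = e + 1}, ?_, ?_, ?_⟩
  · intro F w hA hl hk
    show Ψ w = e + 1 ↔ Ψ (s.mu F w) = e + 1
    rw [hΨK hA hl hk]
  · intro w hw hwi hw' hwi'
    have h1 := (hall w hw' hwi').1 hw
    show Ψ w = e + 1 ↔ w ∈ X'
    by_cases hx : w ∈ X'
    · have h2 : χ w = 1 := if_pos hx
      rw [h2] at h1
      refine ⟨fun _ => hx, fun _ => ?_⟩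
      rw [← h1]
      have := add_self2 (1 : ZMod 2)
      linear_combination -this
    · have h2 : χ w = 0 := if_neg hx
      rw [h2, add_zero] at h1
      refine ⟨fun h3 => ?_, fun h => absurd h hx⟩
      exfalso
      rw [h1] at h3
      exact one_ne_zero (left_eq_add.1 h3)
  · intro w hw' hws hwi'
    have h1 := (hall w hw' hwi').2 hws
    show w ∈ X' ↔ Ψ (z₀.e true) = e + 1
    by_cases hx : w ∈ X'
    · have h2 : χ w = 1 := if_pos hx
      rw [h2] at h1
      refine ⟨fun _ => ?_, fun _ => hx⟩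
      rw [← h1]
      have := add_self2 (1 : ZMod 2)
      linear_combination -this
    · have h2 : χ w = 0 := if_neg hx
      rw [h2, add_zero] at h1
      refine ⟨fun h => absurd h hx, fun h3 => ?_⟩
      exfalso
      rw [h1] at h3
      exact one_ne_zero (left_eq_add.1 h3)

/-- the other end of a dart without a double point -/
theorem flip_ed' {F : Φ} {w : W} (hA : s.At F w) (hn : node (flip (ed hA)) = none) :
    flip (ed hA) = ed (At.mu s hA) := by
  refine eq_ed hn (fc_ed hA) ?_ _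
  have h1 : fc (ed hA) = F := fc_ed hA
  have h2 : pt (ed hA) = w := pt_ed hA
  rcases hd : ed hA with ⟨x, p, b⟩
  rw [hd] at h1 h2
  have h3 : (chd p).1 = F := h1
  cases b
  · have h4 : (chd p).2 = w := h2
    show s.mu (chd p).1 (chd p).2 = s.mu F w
    rw [h3, h4]
  · have h4 : s.mu (chd p).1 (chd p).2 = w := h2
    show (chd p).2 = s.mu F w
    rw [← h4, h3]
    have h5 := chd_at p
    rw [h3] at h5
    exact (s.mu_mu h5.1 h5.2).symm

/-- **one curve : the clause (NEW)** -/
theorem pst_trn {A : s.Arcs Act} {τ : Bool → ι → s.Dbl → ZMod 2}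
    {D : s.Dbl → Bool → Dart s → ZMod 2} {z₀ : s.Dbl} (hD : DD A τ A.mx far D) (hz₀ : z₀ ∈ A.mx)
    (hin : ∀ u ∉ A.cv z₀, ∀ b, D z₀ false (dz u false b) = 0)
    (hg : s.Good Act far) (N : NmsT s (A.cv z₀) far (innD D) (nm1 D z₀))
    (hp : Push s up Ph b c) (hP : s.P ⊆ Ph)
    (hgood : (pst hp hP (nst_sub hg N)).Good Act far) :
    TrN Act far (pst hp hP (nst_sub hg N)) s := by
  intro i hi K hK b₀ hb₀ R hR hT X' hbX' hX' F hF w hw hwi
  obtain ⟨X, hX, hold, hnew⟩ := pst_pbn hz₀ hg N hp hP hgood i hi K hK X' hX'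
  have hbs := hg.far_mem hb₀
  have hbs' := hgood.far_mem hb₀
  have hbX : b₀ ∈ X := (hold b₀ hbs.1 hbs.2 hbs'.1 hbs'.2).2 hbX'
  have hTX := hT X hbX hX
  by_cases hws : w ∈ s.P
  · have hl : s.lab w = i := by
      rw [← (pst_common hg N hp hP hw.1 hws).2]; exact hwi
    exact (hold w hws hl hw.1 hwi).1 (hTX F hF w ⟨hws, hw.2⟩ hl)
  -- a new point
  obtain ⟨v, hv, rfl⟩ := pst_true hw.1 (by rw [hwi]; exact hi)
  have hvP := nst_sub hg N (mem_kA.1 hv).1
  have hc : col (s.lab v) = false := by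
    cases hc : col (s.lab v)
    · rfl
    · exact absurd (by rw [ph_neg hc]; exact hvP) hws
  have hvF : v ∈ M.On F := (ph_on hp hvP F).1 hw.2
  have hvi : (nst hg N).lab v = i := (pst_ph hv).2.1.symm.trans hwi
  have hm := (mem_nmd (hg := hg) (N := N)).1 (mem_kA.1 hv).1
  have hval : ∀ F (hA : s.At F v), D z₀ false (ed hA) = 1 ∧ i = s.lab (z₀.e true) := by
    intro F hA
    have h1 := joined_nm N hm.2.1 hm.2.2 hA
    rcases z2 (D z₀ false (ed hA)) with h2 | h2
    · rw [nm1_f' (by rw [x_ed, hc]) h2] at h1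
      exact absurd h1 (by simp)
    · refine ⟨h2, ?_⟩
      rw [nm1_f (by rw [x_ed, hc]) h2] at h1
      rw [← hvi]
      exact (Option.some.inj h1).symm
  have hi0 : i = s.lab (z₀.e true) := (hval F ⟨hvP, hvF⟩).2
  -- one double point of the curve in the truthful zone is enough
  have key : ∀ z ∈ A.cv z₀, z.F ∈ R → z₀.e true ∈ X := by
    intro z hz hzR
    classical
    have h1 := curve_const (K := K) hz₀ hK (Ψ := fun w => if w ∈ X then (1 : ZMod 2) else 0)
      (fun F w hA hl hk => if_congr (hX F w hA (hl.trans hi0.symm) hk) rfl rfl) hz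
    have h2 : z.e true ∈ X := hTX z.F hzR (z.e true) (z.at_ true) (h1.1.trans hi0.symm)
    by_contra hcon
    have h3 := h1.2
    rw [if_pos h2, if_neg hcon] at h3
    exact one_ne_zero h3
  refine (hnew _ hw.1 hws hwi).2 ?_
  by_contra hcon
  -- the barrier points on the inner side
  obtain ⟨y, hy, hyP, hyl, hyE⟩ := hR v ⟨hvP, hc⟩ F hF hvF
    {x | s.lab x = s.lab v ∧ (∃ F, s.At F x) ∧ ∀ F (hA : s.At F x), D z₀ false (ed hA) = 1}
    ⟨rfl, ⟨F, hvP, hvF⟩, fun F hA => (hval F hA).1⟩ (by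
      rintro F' hF' x ⟨h1, -, h2⟩ hA -
      have hA' := At.mu s hA
      refine ⟨(s.mu_lab hA.1 hA.2).trans h1, ⟨F', hA'⟩, fun F'' hA'' => ?_⟩
      rcases hn : node (flip (ed hA)) with _ | z
      · rw [hD.cont z₀ hz₀ false F'' F' _ hA'' hA', ← flip_ed' hA hn, hD.fl z₀ hz₀]
        exact h2 F' hA
      · exfalso
        have h3 := eq_dz hn
        have hx : (flip (ed hA)).x = false := by
          show (ed hA).x = false
          rw [x_ed, h1]; exact hc
        rw [hx] at h3
        have h4 : D z₀ false (flip (ed hA)) = 1 := by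
          rw [hD.fl z₀ hz₀]; exact h2 F' hA
        have h5 : z ∈ A.cv z₀ := by
          by_contra h6
          rw [h3, hin z h6] at h4
          exact zero_ne_one h4
        have h6 : z.F = F' := by
          have h7 := congrArg fc h3
          rw [fc_flip, fc_ed, fc_dz] at h7
          exact h7.symm
        exact hcon (key z h5 (by rw [h6]; exact hF')))
  refine hyE ⟨{x | s.lab x = s.lab v ∧ (∃ F, s.At F x) ∧
    ∀ F (hA : s.At F x), D z₀ false (ed hA) = 1}, hy, ?_, ?_, ?_⟩
  · rintro x ⟨h1, ⟨F, hA⟩, -⟩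
    exact ⟨⟨hA.1, by rw [h1]; exact hc⟩, by rw [h1, hyl]⟩
  · rintro F x ⟨h1, -, h2⟩ hA hf
    have hA' := At.mu s hA
    refine ⟨(s.mu_lab hA.1 hA.2).trans h1, ⟨F, hA'⟩, fun F' hA'' => ?_⟩
    rw [hD.cont z₀ hz₀ false F' F _ hA'' hA', ← flip_ed hA hf, hD.fl z₀ hz₀]
    exact h2 F hA
  · rintro x ⟨h1, ⟨F, hA⟩, h2⟩
    constructor
    · intro hx
      have h3 := hD.far0 z₀ hz₀ false _ F x hA hx
      rw [h2 F hA] at h3
      exact one_ne_zero h3
    · intro F' hA' hF'
      have h3 := hD.far0 z₀ hz₀ false _ F' x hA' (hg.far_frozen hA' hF')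
      rw [h2 F' hA'] at h3
      exact one_ne_zero h3

end step

/-- **one step, with (ENC) and (NEW)** -/
theorem stepF {up : Φ → W → Bool} {Ph : Finset W} (hg : s.Good Act far) (h2 : Two s up)
    (hP : s.P ⊆ Ph)
    (hroom : ∀ b, ∃ c, Push s up Ph b c) (A : s.Arcs Act) {G : Set s.Dbl} (hG : A.Closed G)
    (hne : G.Nonempty) :
    ∃ s' : St M col, s'.Good Act far ∧ CL2 Act far Ph s' s ∧ Enc Act far Ph s' s ∧
      TrN Act far s' s ∧ Nat.card s'.Dbl < Nat.card s.Dbl := by
  classical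
  have hR := refStmt A (fun i => B_422.sep_of_h1 s i (hg.h1 i))
  obtain ⟨D, hD⟩ := Sd1_161.exists_DD hg A _ hR
  have hmx := A.mx_closed
  obtain ⟨z₀, hz₀, hin⟩ := exists_inner hD (hne.mono (A.sub_mx hG))
  have N := exists_nms1 hD hR (fun _ _ h => (hg.far_mem h).2) hz₀ hin
  have hG' : A.Closed (A.cv z₀) := by
    intro u hu q hq
    exact ⟨(hmx u (cv_sub hmx hz₀ hu) q hq).1, cv_trans hu (cv_arc hq)⟩
  have hDw : DDw A _ (A.cv z₀) far D := DDw.of hD fun u hu => cv_sub hmx hz₀ hu
  have hn : nm1 D z₀ (dz z₀ true (!innD D z₀ true)) = none := by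
    have h1 := SecW_892.D_in hDw (cv_refl A z₀) true
    exact nm1_t' (dz_x _ _ _) h1
  have hx : HP s (z₀.e false) := ⟨(z₀.at_ false).1, z₀.colr false⟩
  have hfin : ∀ {b : Bool} {c : W → W} (hp : Push s up Ph b c),
      (¬ (M.Btw z₀.F (z₀.e false) (s.mu z₀.F (z₀.e false))
        (pt (flip (dz z₀ true (!innD D z₀ true)))) ↔
        M.pos z₀.F (z₀.e false) < M.pos z₀.F (c (z₀.e false)))) →
      ∃ s' : St M col, s'.Good Act far ∧ CL2 Act far Ph s' s ∧ Enc Act far Ph s' s ∧
        TrN Act far s' s ∧ Nat.card s'.Dbl < Nat.card s.Dbl := by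
    intro b c hp hanti
    have hgood := pst_good hG' hg N hp hP h2
    refine ⟨pst hp hP (nst_sub hg N), hgood,
      ⟨pst_cle hG' hg N hp hP h2, ?_, ?_, pst_pb hz₀ hg N hp hP hgood⟩,
      pst_enc hD hz₀ hg N hp hP, pst_trn hD hz₀ hin hg N hp hP hgood,
      pst_card hg N hp hP h2 (z₀ := z₀) (β₀ := !innD D z₀ true) hanti hn⟩
    · exact fun w hw hws => (pst_common hg N hp hP hw hws).2
    · exact fun F w hw hw' hf => pst_off hg N hp hP h2 hw hw' hf
  by_cases hQ : M.Btw z₀.F (z₀.e false) (s.mu z₀.F (z₀.e false))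
      (pt (flip (dz z₀ true (!innD D z₀ true))))
  · obtain ⟨c, hp⟩ := hroom (!up z₀.F (z₀.e false))
    refine hfin hp ?_
    intro h
    have h3 := (hp.side hx (z₀.at_ false).2).1 (h.1 hQ)
    cases up z₀.F (z₀.e false) <;> simp at h3
  · obtain ⟨c, hp⟩ := hroom (up z₀.F (z₀.e false))
    refine hfin hp ?_
    intro h
    exact hQ (h.2 ((hp.side hx (z₀.at_ false).2).2 rfl))

/-- **CUT with (ENC) and (NEW)** : 892's `cutE` and: the points of the cut state on the faces of
`R` are joined with the base point if those of the old state are (and the barrier points of `R` are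
joined inside `R` with not enclosed ones) -/
theorem cutF (up : Φ → W → Bool) (s : St M col) (hg : s.Good Act far) (h2 : Two s up)
    (hroom : Room s up) (Ph : Finset W) (hP : s.P ⊆ Ph) :
    ∃ s' : St M col, s'.Good Act far ∧ CL2 Act far Ph s' s ∧ Enc Act far Ph s' s ∧
      TrN Act far s' s ∧ ∀ (A : s'.Arcs Act) (G : Set s'.Dbl), A.Closed G → G = ∅ := by
  classical
  induction hn : Nat.card s.Dbl using Nat.strong_induction_on generalizing s Ph with
  | _ n ih =>
    by_cases h : ∀ (A : s.Arcs Act) (G : Set s.Dbl), A.Closed G → G = ∅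
    · exact ⟨s, hg, CL2.refl _ _ _ _, Enc.refl _ _ _ _, TrN.refl _ _ _, h⟩
    · push Not at h
      obtain ⟨A, G, hG, hne⟩ := h
      obtain ⟨s₁, hg₁, hl₁, he₁, ht₁, hc₁⟩ := stepF hg h2 hP (fun b => hroom Ph b) A hG hne
      have h2' : Two s₁ up := by
        intro F w hw hF
        have hw' := (hl₁.cle.hp w).1 hw
        rw [hl₁.cle.hmu w F hw']
        exact h2 hw' hF
      have hroom' : Room s₁ up := by
        intro Ph' b
        obtain ⟨c, hp⟩ := hroom Ph' b
        exact ⟨c, hp.congr hl₁.cle.hp⟩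
      obtain ⟨s₂, hg₂, hl₂, he₂, ht₂, hc₂⟩ := ih _ (hn ▸ hc₁) s₁ hg₁ h2' hroom' (Ph ∪ s₁.P)
        Finset.subset_union_right rfl
      exact ⟨s₂, hg₂, CL2.trans Finset.subset_union_left (hP.trans Finset.subset_union_left)
        hl₂ hl₁ hg₁, Enc.trans Finset.subset_union_left hl₁.cle he₂ he₁,
        TrN.trans hl₁.cle ht₂ ht₁, hc₂⟩

end Crest.Agent.R096.Cnp_824
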