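import Crest.Agent.R096.Cnp1_824

/-!
# R096 / DOORS-SEC (helper824): CUT with the clause (NEW), form of 778 #11864

`TrD` : the double points of the sheet on the faces of `R` are joined with the base point
(this is preserved by CUT for any `R`); `cutG` : the new points next to barrier points of `S` are
joined with the base point, if every barrier point of `S` is joined, by barrier chords on faces of
`R`, with one which is not enclosed.
-/

set_option autoImplicit false

namespace Crest.Agent.R096.Cnp_824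

open Crest.Agent.R096.St_147 Crest.Agent.R096.Wk_689 Crest.Agent.R096.F_422
open Crest.Agent.R096.Sec_892 Crest.Agent.R096.SecW_892

variable {ι Φ W I : Type} {M : MeshC ι Φ W} {col : I → Bool} {s : St M col}
variable {Act : Set ι} {far : I → Set W}

/-- the double points of the sheet `i` on the faces of `R` are joined with `b` by `K`-chords -/
def TrD (s : St M col) (i : I) (K : Φ → W → Prop) (b : W) (R : Set Φ) : Prop :=
  ∀ X : Set W, b ∈ X → KCl s i K X → ∀ z : s.Dbl, z.F ∈ R → s.lab (z.e true) = i → z.e true ∈ X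

/-- the barrier points of `S` are joined, by barrier chords on the faces of `R`, with points which
are not enclosed -/
def ConnT (Act : Set ι) (far : I → Set W) (s : St M col) (R : Set Φ) (S : Set W) : Prop :=
  ∀ h ∈ S, HP s h → ∀ Y : Set W, h ∈ Y →
    (∀ F ∈ R, ∀ y ∈ Y, s.At F y → s.lab y = s.lab h → s.mu F y ∈ Y) →
    ∃ y ∈ Y, HP s y ∧ s.lab y = s.lab h ∧ ¬ Encl Act far s y

/-- the new points next to barrier points of `S` are joined with `b` -/
def TrQ (s' s : St M col) (Ph : Finset W) (i : I) (K : Φ → W → Prop) (b : W) (S : Set W) : Prop :=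
  ∀ X : Set W, b ∈ X → KCl s' i K X → ∀ w ∈ s'.P, w ∉ s.P → s'.lab w = i →
    (∀ h, HP s h → Nb M Ph h w → h ∈ S) → w ∈ X

/-- **the clause (NEW)**, second form -/
def TrG (Act : Set ι) (far : I → Set W) (Ph : Finset W) (s' s : St M col) : Prop :=
  ∀ i, col i = true → ∀ K : Φ → W → Prop, KBar s K → ∀ b ∈ far i, ∀ R : Set Φ,
    TrD s i K b R → TrD s' i K b R ∧ ∀ S, ConnT Act far s R S → TrQ s' s Ph i K b S

theorem TrG.refl (Act : Set ι) (far : I → Set W) (Ph : Finset W) (s : St M col) :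
    TrG Act far Ph s s :=
  fun _ _ _ _ _ _ _ h => ⟨h, fun _ _ _ _ _ _ hw hws => absurd hw hws⟩

theorem ConnT.of_cle {Ph : Finset W} {s' s : St M col} (hc : CLe Act far Ph s' s) {R : Set Φ}
    {S : Set W} (h : ConnT Act far s R S) : ConnT Act far s' R S := by
  intro x hxS hx Y hxY hY
  have hx' := (hc.hp x).1 hx
  obtain ⟨y, h1, h2, h3, h4⟩ := h x hxS hx' Y hxY (by
    intro F' hF' y hy hA hl
    have h5 : HP s y := ⟨hA.1, by rw [hl]; exact hx'.2⟩
    rw [← hc.hmu y F' h5]
    exact hY F' hF' y hy ⟨((hc.hp y).2 h5).1, hA.2⟩ (by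
      rw [hc.hlab y h5, hc.hlab x hx', hl]))
  exact ⟨y, h1, (hc.hp y).2 h2, by rw [hc.hlab y h2, hc.hlab x hx', h3],
    fun he => h4 (he.of_cle hc)⟩

theorem TrG.trans {Ph Ph' : Finset W} {s'' s' s : St M col} (hPh : Ph ⊆ Ph')
    (hg'' : s''.Good Act far) (hg' : s'.Good Act far)
    (c2 : CL2 Act far Ph' s'' s') (c1 : CL2 Act far Ph s' s)
    (h2 : TrG Act far Ph' s'' s') (h1 : TrG Act far Ph s' s) : TrG Act far Ph s'' s := by
  intro i hi K hK b hb R hT
  have hK' := KBar.of_cle c1.cle hK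
  obtain ⟨a1, a2⟩ := h1 i hi K hK b hb R hT
  obtain ⟨b1, b2⟩ := h2 i hi K hK' b hb R a1
  refine ⟨b1, fun S hS X'' hbX hX'' w hw hws hwi hh => ?_⟩
  by_cases hw' : w ∈ s'.P
  · -- a new point of the first step
    obtain ⟨X', e1, e2⟩ := c2.pb i hi K hK' X'' hX''
    have hbm := hg'.far_mem hb
    have hbm' := hg''.far_mem hb
    have hlw : s'.lab w = i := by rw [← c2.lab w hw hw']; exact hwi
    exact (e2 w hw' hlw hw hwi).1 (a2 S hS X' ((e2 b hbm.1 hbm.2 hbm'.1 hbm'.2).2 hbX) e1 w hw'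
      hws hlw hh)
  · refine b2 S (hS.of_cle c1.cle) X'' hbX hX'' w hw hw' hwi fun h hh' hnb => hh h
      ((c1.cle.hp h).1 hh') ⟨hnb.1, fun F u h6 h7 h8 h9 => hnb.2 F u h6 (hPh h7) h8 h9⟩

section step

variable {G : Set s.Dbl} {inn : s.Dbl → Bool → Bool} {nm : Dart s → Option I}
variable {up : Φ → W → Bool} {Ph : Finset W} {b : Bool} {c : W → W}

/-- **one curve : the clause (NEW)**, second form -/
theorem pst_trg {A : s.Arcs Act} {τ : Bool → ι → s.Dbl → ZMod 2}
    {D : s.Dbl → Bool → Dart s → ZMod 2} {z₀ : s.Dbl} (hD : DD A τ A.mx far D) (hz₀ : z₀ ∈ A.mx)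
    (hin : ∀ u ∉ A.cv z₀, ∀ b, D z₀ false (dz u false b) = 0)
    (hg : s.Good Act far) (N : NmsT s (A.cv z₀) far (innD D) (nm1 D z₀))
    (hp : Push s up Ph b c) (hP : s.P ⊆ Ph) (h2 : Two s up)
    (hgood : (pst hp hP (nst_sub hg N)).Good Act far) :
    TrG Act far Ph (pst hp hP (nst_sub hg N)) s := by
  intro i hi K hK b₀ hb₀ R hT
  have hbs := hg.far_mem hb₀
  have hbs' := hgood.far_mem hb₀
  -- one double point of the curve on a face of `R` is enough
  have key : ∀ X, b₀ ∈ X → KCl s i K X → i = s.lab (z₀.e true) → ∀ z ∈ A.cv z₀, z.F ∈ R →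
      z₀.e true ∈ X := by
    intro X hbX hX hi0 z hz hzR
    classical
    have h1 := curve_const (K := K) hz₀ hK (Ψ := fun w => if w ∈ X then (1 : ZMod 2) else 0)
      (fun F w hA hl hk => if_congr (hX F w hA (hl.trans hi0.symm) hk) rfl rfl) hz
    have h2 : z.e true ∈ X := hT X hbX hX z hzR (h1.1.trans hi0.symm)
    by_contra hcon
    have h3 := h1.2
    rw [if_pos h2, if_neg hcon] at h3
    exact one_ne_zero h3
  -- the value of a new point
  have hval : ∀ v, v ∈ kA (nst hg N) → col (s.lab v) = false → (nst hg N).lab v = i →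
      ∀ F (hA : s.At F v), D z₀ false (ed hA) = 1 ∧ i = s.lab (z₀.e true) := by
    intro v hv hc hvi F hA
    have hm := (mem_nmd (hg := hg) (N := N)).1 (mem_kA.1 hv).1
    have h1 := joined_nm N hm.2.1 hm.2.2 hA
    rcases z2 (D z₀ false (ed hA)) with h2 | h2
    · rw [nm1_f' (by rw [x_ed, hc]) h2] at h1
      exact absurd h1 (by simp)
    · refine ⟨h2, ?_⟩
      rw [nm1_f (by rw [x_ed, hc]) h2] at h1
      rw [← hvi]
      exact (Option.some.inj h1).symm
  refine ⟨?_, ?_⟩
  · -- the double points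
    intro X' hbX' hX' z' hz'R hl'
    obtain ⟨X, hX, hold, hnew⟩ := pst_pbn hz₀ hg N hp hP hgood i hi K hK X' hX'
    have hbX : b₀ ∈ X := (hold b₀ hbs.1 hbs.2 hbs'.1 hbs'.2).2 hbX'
    obtain ⟨v, hv, z, β, hk, hz'v, hzF, -, horb, -⟩ := exists_old' h2 (nst_mu' hg N) z'
    have hvi : (nst hg N).lab v = i := by
      rw [hz'v] at hl'
      exact (pst_ph hk).2.1.symm.trans hl'
    have hm := (mem_nmd (hg := hg) (N := N)).1 (mem_kA.1 hk).1
    have hA' := z'.at_ true
    rw [hz'v] at hA' hl' ⊢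
    by_cases ha : ∃ z1 ∈ A.cv z₀, z1.F = z'.F ∧ z1.e (col (s.lab v)) = s.lo z'.F v
    · obtain ⟨z1, hz1, hz1F, hz1e⟩ := ha
      have hz1R : z1.F ∈ R := by rw [hz1F]; exact hz'R
      cases hc : col (s.lab v)
      · -- new point
        rw [ph_pos hc] at hA' hl' ⊢
        have hi0 := (hval v hk hc hvi z'.F hv).2
        exact (hnew _ hA'.1 (fun h => hp.nin ⟨hv.1, hc⟩ (hP h)) hl').2
          (key X hbX hX hi0 z1 hz1 hz1R)
      · -- old point on an affected chord
        rw [ph_neg hc] at hA' hl' ⊢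
        rw [hc] at hz1e
        have hsl : s.lab v = i := (nst_same hg N (mem_kA.1 hk).1 hc).symm.trans hvi
        have hlA := lo_at hv
        have hll : s.lab (s.lo z'.F v) = i := by
          unfold St.lo
          split_ifs
          · exact hsl
          · rw [s.mu_lab hv.1 hv.2]; exact hsl
        have h3 : z1.e true ∈ X := hT X hbX hX z1 hz1R (by rw [hz1e]; exact hll)
        have hKF : K z'.F v := by
          obtain ⟨q, hq⟩ := exists_side' (M := M) z'.F
          exact hK q z'.F z'.F (z1.e false) hq hq ⟨(z1.at_ false).1, z1.colr false⟩ (by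
            rw [← hz1F]; exact (z1.at_ false).2) v
        have h4 : v ∈ X := by
          rw [hz1e] at h3
          unfold St.lo at h3
          split_ifs at h3
          · exact h3
          · exact (hX z'.F v hv hsl hKF).2 h3
        exact (hold v hv.1 hsl hA'.1 hl').1 h4
    · -- not affected
      push Not at ha
      have h3 := orb_chd hv (fun z hz hzF => ha z hz hzF) horb
      have hc : col (s.lab v) = true := by rw [← h3.1]; exact dz_x _ _ _
      have h4 := chd_dz z true β
      rw [h3.2, dz_x] at h4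
      have h5 : z.e true = s.lo z'.F v := (Prod.mk.inj h4).2.symm
      rw [ph_neg hc] at hA' hl' ⊢
      have hsl : s.lab v = i := (nst_same hg N (mem_kA.1 hk).1 hc).symm.trans hvi
      have hll : s.lab (s.lo z'.F v) = i := by
        unfold St.lo
        split_ifs
        · exact hsl
        · rw [s.mu_lab hv.1 hv.2]; exact hsl
      have h6 : z.e true ∈ X := hT X hbX hX z (by rw [hzF]; exact hz'R) (by rw [h5]; exact hll)
      have hKF : K z'.F v := by
        obtain ⟨q, hq⟩ := exists_side' (M := M) z'.F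
        exact hK q z'.F z'.F (z.e false) hq hq ⟨(z.at_ false).1, z.colr false⟩ (by
          rw [← hzF]; exact (z.at_ false).2) v
      have h7 : v ∈ X := by
        rw [h5] at h6
        unfold St.lo at h6
        split_ifs at h6
        · exact h6
        · exact (hX z'.F v hv hsl hKF).2 h6
      exact (hold v hv.1 hsl hA'.1 hl').1 h7
  · -- the new points
    intro S hS X' hbX' hX' w hw hws hwi hh
    obtain ⟨X, hX, hold, hnew⟩ := pst_pbn hz₀ hg N hp hP hgood i hi K hK X' hX'
    have hbX : b₀ ∈ X := (hold b₀ hbs.1 hbs.2 hbs'.1 hbs'.2).2 hbX'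
    obtain ⟨v, hv, rfl⟩ := pst_true hw (by rw [hwi]; exact hi)
    have hvP := nst_sub hg N (mem_kA.1 hv).1
    have hc : col (s.lab v) = false := by
      cases hc : col (s.lab v)
      · rfl
      · exact absurd (by rw [ph_neg hc]; exact hvP) hws
    have hvi : (nst hg N).lab v = i := (pst_ph hv).2.1.symm.trans hwi
    have hm := (mem_nmd (hg := hg) (N := N)).1 (mem_kA.1 hv).1
    have hface : ∃ F, s.At F v := by
      by_contra hcon
      have h1 : lab' s (nm1 D z₀) v = s.lab v := by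
        classical
        unfold lab'
        rw [dif_neg hcon]
      rw [h1, hc] at hm
      exact Bool.false_ne_true hm.2.1
    have hvS : v ∈ S := hh v ⟨hvP, hc⟩ (by
      rw [ph_pos hc]
      exact ⟨fun F => hp.on F ⟨hvP, hc⟩, fun F u h3 h4 h5 h6 => hp.adj ⟨hvP, hc⟩ h3 h4 h5 h6⟩)
    have hi0 : i = s.lab (z₀.e true) := by
      obtain ⟨F, hA⟩ := hface
      exact (hval v hv hc hvi F hA).2
    refine (hnew _ hw hws hwi).2 ?_
    by_contra hcon
    -- the barrier points on the inner side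
    obtain ⟨y, hy, hyP, hyl, hyE⟩ := hS v hvS ⟨hvP, hc⟩
      {x | s.lab x = s.lab v ∧ (∃ F, s.At F x) ∧ ∀ F (hA : s.At F x), D z₀ false (ed hA) = 1}
      ⟨rfl, hface, fun F hA => (hval v hv hc hvi F hA).1⟩ (by
        rintro F' hF' x ⟨h1, -, h2⟩ hA -
        have hA' := At.mu s hA
        refine ⟨(s.mu_lab hA.1 hA.2).trans h1, ⟨F', hA'⟩, fun F'' hA'' => ?_⟩
        rcases hn : node (flip (ed hA)) with _ | z
        · rw [hD.cont z₀ hz₀ false F'' F' _ hA'' hA', ← flip_ed' hA hn, hD.fl z₀ hz₀]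
          exact h2 F' hA
        · exfalso
          have h3 := eq_dz hn
          have hx : (flip (ed hA)).x = false := by
            show (ed hA).x = false
            rw [x_ed, h1]; exact hc
          rw [hx] at h3
          have h4 : D z₀ false (flip (ed hA)) = 1 := by
            rw [hD.fl z₀ hz₀]; exact h2 F' hA
          have h5 : z ∈ A.cv z₀ := by
            by_contra h6
            rw [h3, hin z h6] at h4
            exact zero_ne_one h4
          have h6 : z.F = F' := by
            have h7 := congrArg fc h3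
            rw [fc_flip, fc_ed, fc_dz] at h7
            exact h7.symm
          exact hcon (key X hbX hX hi0 z h5 (by rw [h6]; exact hF')))
    refine hyE ⟨{x | s.lab x = s.lab v ∧ (∃ F, s.At F x) ∧
      ∀ F (hA : s.At F x), D z₀ false (ed hA) = 1}, hy, ?_, ?_, ?_⟩
    · rintro x ⟨h1, ⟨F, hA⟩, -⟩
      exact ⟨⟨hA.1, by rw [h1]; exact hc⟩, by rw [h1, hyl]⟩
    · rintro F x ⟨h1, -, h2⟩ hA hf
      have hA' := At.mu s hA
      refine ⟨(s.mu_lab hA.1 hA.2).trans h1, ⟨F, hA'⟩, fun F' hA'' => ?_⟩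
      rw [hD.cont z₀ hz₀ false F' F _ hA'' hA', ← flip_ed hA hf, hD.fl z₀ hz₀]
      exact h2 F hA
    · rintro x ⟨h1, ⟨F, hA⟩, h2⟩
      constructor
      · intro hx
        have h3 := hD.far0 z₀ hz₀ false _ F x hA hx
        rw [h2 F hA] at h3
        exact one_ne_zero h3
      · intro F' hA' hF'
        have h3 := hD.far0 z₀ hz₀ false _ F' x hA' (hg.far_frozen hA' hF')
        rw [h2 F' hA'] at h3
        exact one_ne_zero h3

end step

/-- **one step, with (ENC) and (NEW)** -/
theorem stepG {up : Φ → W → Bool} {Ph : Finset W} (hg : s.Good Act far) (h2 : Two s up)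
    (hP : s.P ⊆ Ph)
    (hroom : ∀ b, ∃ c, Push s up Ph b c) (A : s.Arcs Act) {G : Set s.Dbl} (hG : A.Closed G)
    (hne : G.Nonempty) :
    ∃ s' : St M col, s'.Good Act far ∧ CL2 Act far Ph s' s ∧ Enc Act far Ph s' s ∧
      TrG Act far Ph s' s ∧ Nat.card s'.Dbl < Nat.card s.Dbl := by
  classical
  have hR := refStmt A (fun i => B_422.sep_of_h1 s i (hg.h1 i))
  obtain ⟨D, hD⟩ := Sd1_161.exists_DD hg A _ hR
  have hmx := A.mx_closed
  obtain ⟨z₀, hz₀, hin⟩ := exists_inner hD (hne.mono (A.sub_mx hG))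
  have N := exists_nms1 hD hR (fun _ _ h => (hg.far_mem h).2) hz₀ hin
  have hG' : A.Closed (A.cv z₀) := by
    intro u hu q hq
    exact ⟨(hmx u (cv_sub hmx hz₀ hu) q hq).1, cv_trans hu (cv_arc hq)⟩
  have hDw : DDw A _ (A.cv z₀) far D := DDw.of hD fun u hu => cv_sub hmx hz₀ hu
  have hn : nm1 D z₀ (dz z₀ true (!innD D z₀ true)) = none := by
    have h1 := SecW_892.D_in hDw (cv_refl A z₀) true
    exact nm1_t' (dz_x _ _ _) h1
  have hx : HP s (z₀.e false) := ⟨(z₀.at_ false).1, z₀.colr false⟩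
  have hfin : ∀ {b : Bool} {c : W → W} (hp : Push s up Ph b c),
      (¬ (M.Btw z₀.F (z₀.e false) (s.mu z₀.F (z₀.e false))
        (pt (flip (dz z₀ true (!innD D z₀ true)))) ↔
        M.pos z₀.F (z₀.e false) < M.pos z₀.F (c (z₀.e false)))) →
      ∃ s' : St M col, s'.Good Act far ∧ CL2 Act far Ph s' s ∧ Enc Act far Ph s' s ∧
        TrG Act far Ph s' s ∧ Nat.card s'.Dbl < Nat.card s.Dbl := by
    intro b c hp hanti
    have hgood := pst_good hG' hg N hp hP h2
    refine ⟨pst hp hP (nst_sub hg N), hgood,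
      ⟨pst_cle hG' hg N hp hP h2, ?_, ?_, pst_pb hz₀ hg N hp hP hgood⟩,
      pst_enc hD hz₀ hg N hp hP, pst_trg hD hz₀ hin hg N hp hP h2 hgood,
      pst_card hg N hp hP h2 (z₀ := z₀) (β₀ := !innD D z₀ true) hanti hn⟩
    · exact fun w hw hws => (pst_common hg N hp hP hw hws).2
    · exact fun F w hw hw' hf => pst_off hg N hp hP h2 hw hw' hf
  by_cases hQ : M.Btw z₀.F (z₀.e false) (s.mu z₀.F (z₀.e false))
      (pt (flip (dz z₀ true (!innD D z₀ true))))
  · obtain ⟨c, hp⟩ := hroom (!up z₀.F (z₀.e false))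
    refine hfin hp ?_
    intro h
    have h3 := (hp.side hx (z₀.at_ false).2).1 (h.1 hQ)
    cases up z₀.F (z₀.e false) <;> simp at h3
  · obtain ⟨c, hp⟩ := hroom (up z₀.F (z₀.e false))
    refine hfin hp ?_
    intro h
    exact hQ (h.2 ((hp.side hx (z₀.at_ false).2).2 rfl))

/-- **CUT with (ENC) and (NEW)** -/
theorem cutG (up : Φ → W → Bool) (s : St M col) (hg : s.Good Act far) (h2 : Two s up)
    (hroom : Room s up) (Ph : Finset W) (hP : s.P ⊆ Ph) :
    ∃ s' : St M col, s'.Good Act far ∧ CL2 Act far Ph s' s ∧ Enc Act far Ph s' s ∧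
      TrG Act far Ph s' s ∧ ∀ (A : s'.Arcs Act) (G : Set s'.Dbl), A.Closed G → G = ∅ := by
  classical
  induction hn : Nat.card s.Dbl using Nat.strong_induction_on generalizing s Ph with
  | _ n ih =>
    by_cases h : ∀ (A : s.Arcs Act) (G : Set s.Dbl), A.Closed G → G = ∅
    · exact ⟨s, hg, CL2.refl _ _ _ _, Enc.refl _ _ _ _, TrG.refl _ _ _ _, h⟩
    · push Not at h
      obtain ⟨A, G, hG, hne⟩ := h
      obtain ⟨s₁, hg₁, hl₁, he₁, ht₁, hc₁⟩ := stepG hg h2 hP (fun b => hroom Ph b) A hG hne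
      have h2' : Two s₁ up := by
        intro F w hw hF
        have hw' := (hl₁.cle.hp w).1 hw
        rw [hl₁.cle.hmu w F hw']
        exact h2 hw' hF
      have hroom' : Room s₁ up := by
        intro Ph' b
        obtain ⟨c, hp⟩ := hroom Ph' b
        exact ⟨c, hp.congr hl₁.cle.hp⟩
      obtain ⟨s₂, hg₂, hl₂, he₂, ht₂, hc₂⟩ := ih _ (hn ▸ hc₁) s₁ hg₁ h2' hroom' (Ph ∪ s₁.P)
        Finset.subset_union_right rfl
      exact ⟨s₂, hg₂, CL2.trans Finset.subset_union_left (hP.trans Finset.subset_union_left)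
        hl₂ hl₁ hg₁, Enc.trans Finset.subset_union_left hl₁.cle he₂ he₁,
        TrG.trans Finset.subset_union_left hg₂ hg₁ hl₂ hl₁ ht₂ ht₁, hc₂⟩

end Crest.Agent.R096.Cnp_824
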