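import Crest.Agent.R096.Cnp3_824
import Crest.Agent.R096.Sec13_892
import Crest.Agent.R096.Dinv5_106

/-!
# R096 / DOORS-INV (helper824): the field `tr` of `DoorInv` for the state after CUT

* `cutAllG` : 892's `cutAll` and the clause `TrG` (Cnp3) for every family;
* `tr_cutG` : the field `tr` of 106's `DoorInv` (662's `TrOut`) from facts about the state `s` before
  CUT: for the common points by 892's pull back `pb`, for the new points by `TrG`.
-/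

set_option autoImplicit false

namespace Crest.Agent.R096.Cnp_824

open Crest.Agent.R096.St_147 Crest.Agent.R096.Seq_213 Crest.Agent.R096.Sec_892
  Crest.Agent.R096.SecW_892 Crest.Agent.R096.Cg_501 Crest.Agent.R096.Sgd_298

variable {ι Φ W J C Mo : Type} {M : MeshC ι Φ W} {fam : J → C} {am : Mo → C}
variable {s : GSt M (Sum.map fam (id : Mo → Mo))} {hs : BSep s am}
  {hm : ∀ a, {m | am m = a}.Finite} {j0 : C → J} {hj0 : ∀ a, fam (j0 a) = a}
  {Act : C → Set ι} {far : ∀ a, PN fam am a → Set W}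

/-- 824's clause from 147's `PBN` (892) -/
theorem trG_of_pbn {I : Type} {col : I → Bool} {A : Set ι} {fr : I → Set W} {Q : Finset W}
    {s' s : St M col} (hc : CLe A fr Q s' s) (hN : Pbn_147.PBN A fr Q s' s)
    (hg : s.Good A fr) (hg' : s'.Good A fr) : TrG A fr Q s' s := by
  intro i hi K hK b hb R hT
  refine ⟨(Pbn_147.trQ_of_pbn (S := ∅) hc hN hg hg' hi hK hb
    (fun h hh => absurd hh (Set.notMem_empty h)) hT).1, fun S hS X hbX hX w hw hws hwi hh => ?_⟩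
  exact (Pbn_147.trQ_of_pbn (S := S) hc hN hg hg' hi hK hb hS hT).2 X hbX hX w hw hws hwi
    fun h hh' hnb => hh h ((hc.hp h).1 hh') hnb

/-- **CUT for all families at once** -/
theorem cutAllG [Countable C] [Nonempty C]
    (hg : ∀ a, (prS s hs hm j0 hj0 a).Good (Act a) (far a))
    (hu : ∀ a, ∃ up, Two (prS s hs hm j0 hj0 a) up ∧ Room (prS s hs hm j0 hj0 a) up)
    (hfin : ∀ F, (s.P ∩ M.On F).Finite) :
    ∃ (t : ∀ a, St M (pcol fam am a)) (Ph : C → Finset W) (s₃ : GSt M fam),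
      CutR s hs hm j0 hj0 Act far t Ph s₃ ∧
        ∀ a, TrG (Act a) (far a) (Ph a) (t a) (prS s hs hm j0 hj0 a) := by
  obtain ⟨t, Ph, s₃, D⟩ := cutAll hg hu hfin
  exact ⟨t, Ph, s₃, D, fun a => trG_of_pbn (D.cl2 a).cle (D.pbn a) (D.good0 a) (D.good a)⟩

section tr

variable {t : ∀ a, St M (pcol fam am a)} {Ph : C → Finset W} {s₃ : GSt M fam}

/-- **the new points** -/
theorem trQ_cut (D : CutR s hs hm j0 hj0 Act far t Ph s₃)
    (hG : ∀ a, TrG (Act a) (far a) (Ph a) (t a) (prS s hs hm j0 hj0 a)) {j : J}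
    {K : Φ → W → Prop}
    (hK : ∀ q F F' h m, q ∈ M.side F → q ∈ M.side F' → s.At F' h → s.lab h = Sum.inr m →
      am m = fam j → ∀ w, K F w) {b : W} (hb : b ∈ far (fam j) (nL am j)) {R : Set Φ} {S : Set W}
    (hR : ConnT (Act (fam j)) (far (fam j)) (prS s hs hm j0 hj0 (fam j)) R S)
    (hT : ∀ X : Set W, b ∈ X →
      (∀ F w, s.At F w → s.lab w = Sum.inl j → K F w → (w ∈ X ↔ s.mu F w ∈ X)) →
      ∀ F ∈ R, ∀ w, s.At F w → s.lab w = Sum.inl j →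
        (∃ h m, s.At F h ∧ s.lab h = Sum.inr m ∧ am m = fam j ∧
          M.Lace F w (s.mu F w) h (s.mu F h)) → w ∈ X) {X : Set W} (hbX : b ∈ X)
    (hX : ∀ F w, s₃.At F w → s₃.lab w = j → K F w → (w ∈ X ↔ s₃.mu F w ∈ X)) {w : W}
    (hw : w ∈ s₃.P) (hl : s₃.lab w = j) (hws : w ∉ s.P)
    (hh : ∀ h m, h ∈ s.P → s.lab h = Sum.inr m → am m = fam j →
      (∀ F, w ∈ M.On F ↔ h ∈ M.On F) → h ∈ S) : w ∈ X := by
  have h1 : TrD (prS s hs hm j0 hj0 (fam j)) (nL am j) K b R := by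
    intro Y hbY hY z hzR hzl
    have ht := z.at_ true
    have hf := z.at_ false
    obtain ⟨e1, e2⟩ := D.pr_of' ht.1 hzl
    obtain ⟨e3, m, e4, e5⟩ := pr_hp.1 (⟨hf.1, z.colr false⟩ : HP _ (z.e false))
    refine hT Y hbY (fun F' w' hw' hl' hk => ?_) z.F hzR (z.e true) ⟨e1, ht.2⟩ e2
      ⟨z.e false, m, ⟨e3, hf.2⟩, e5, e4, z.lace⟩
    obtain ⟨e3, e4⟩ := D.pr_of hw'.1 hl'
    exact hY F' w' ⟨e3, hw'.2⟩ e4 hk
  obtain ⟨e1, e2⟩ := D.mem.1 ⟨hw, hl⟩
  refine (hG (fam j) (nL am j) rfl K (fun q F F' h hq hq' hh hF' w => ?_) b hb R h1).2 S hR X hbX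
    (fun F' w' hw' hl' hk => ?_) w e1 (fun h => hws (mem_pr.1 h).1) e2 (fun h hh' hnb => ?_)
  · obtain ⟨h3, m, h4, h5⟩ := pr_hp.1 hh
    exact hK q F F' h m hq hq' ⟨h3, hF'⟩ h5 h4 w
  · obtain ⟨e3, e4⟩ := D.at_iff.2 ⟨hw', hl'⟩
    rw [← D.mu' e3.1 e4]
    exact hX F' w' e3 e4 hk
  · obtain ⟨h3, m, h4, h5⟩ := pr_hp.1 hh'
    exact hh h m h3 h5 h4 hnb.1

/-- the chords of `j` which are not crossed in the quad `k` after CUT (no condition at the points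
which CUT removed) -/
def KJ3 {K : Type} (s₃ : GSt M fam) (Q : Quads ι C K) (j : J) (k : K) (F : Φ) (w : W) : Prop :=
  s₃.At F w → s₃.lab w = j → Dinv_106.KFree s₃ Q k F w

/-- **the field `tr` of `DoorInv` after CUT**, for the sheet `j` and the quad `k` -/
theorem tr_cutG {K : Type} {Q : Quads ι C K} (D : CutR s hs hm j0 hj0 Act far t Ph s₃)
    (hG : ∀ a, TrG (Act a) (far a) (Ph a) (t a) (prS s hs hm j0 hj0 a)) {j : J} {k : K}
    -- the chords of `j` on the cells with barrier points of the family are free in `k`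
    (hK : ∀ q F F' h m, q ∈ M.side F → q ∈ M.side F' → s.At F' h → s.lab h = Sum.inr m →
      am m = fam j → ∀ w, s₃.At F w → s₃.lab w = j → Dinv_106.KFree s₃ Q k F w)
    {b : W} (hb : b ∈ far (fam j) (nL am j)) (hbs : b ∈ s.P) {R : Set Φ} {S : Set W}
    (hR : ConnT (Act (fam j)) (far (fam j)) (prS s hs hm j0 hj0 (fam j)) R S) {U : Set W}
    -- (T1) : the truthful part of the state before CUT
    (hT : ∀ X : Set W, b ∈ X →
      (∀ F w, s.At F w → s.lab w = Sum.inl j → KJ3 s₃ Q j k F w → (w ∈ X ↔ s.mu F w ∈ X)) →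
      ∀ w ∈ s.P, s.lab w = Sum.inl j →
        ((w ∉ U ∧ ¬ Int M (Q.Act k) w) ∨ ∃ F ∈ R, w ∈ M.On F ∧ ∃ h m, s.At F h ∧
          s.lab h = Sum.inr m ∧ am m = fam j ∧ M.Lace F w (s.mu F w) h (s.mu F h)) → w ∈ X)
    -- a new point is in `U`, inside `k`, or next to barrier points of `S`
    (hnew : ∀ w ∈ s₃.P, s₃.lab w = j → w ∉ s.P → w ∉ U → ¬ Int M (Q.Act k) w →
      ∀ h m, h ∈ s.P → s.lab h = Sum.inr m → am m = fam j → (∀ F, w ∈ M.On F ↔ h ∈ M.On F) →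
        h ∈ S) :
    ∀ X : Set W, b ∈ X → Dinv_106.KCl s₃ Q j k X →
      ∀ w ∈ s₃.P, s₃.lab w = j → w ∉ U → ¬ Int M (Q.Act k) w → w ∈ X := by
  intro X hbX hX w hw hl hU hI
  have hK' : ∀ q F F' h m, q ∈ M.side F → q ∈ M.side F' → s.At F' h → s.lab h = Sum.inr m →
      am m = fam j → ∀ w, KJ3 s₃ Q j k F w := fun q F F' h m h1 h2 h3 h4 h5 w h6 h7 =>
    hK q F F' h m h1 h2 h3 h4 h5 w h6 h7
  have hX' : ∀ F w, s₃.At F w → s₃.lab w = j → KJ3 s₃ Q j k F w → (w ∈ X ↔ s₃.mu F w ∈ X) :=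
    fun F w hA hl hk => (Dinv_106.KCl.iff hX hA hl (hk hA hl)).symm
  by_cases hws : w ∈ s.P
  · obtain ⟨Y, h1, h2⟩ := D.pb (j := j) (K := KJ3 s₃ Q j k) hK' hX'
    have hls : s.lab w = Sum.inl j := by rw [D.old hw hws, hl]
    have hbm := (D.good (fam j)).far_mem hb
    obtain ⟨hb3, hbl3⟩ := D.mem.2 ⟨hbm.1, hbm.2⟩
    have hbls : s.lab b = Sum.inl j := by rw [D.old hb3 hbs, hbl3]
    have hbY : b ∈ Y := (h2 b hbs hbls hb3).2 hbX
    exact (h2 w hws hls hw).1 (hT Y hbY h1 w hws hls (Or.inl ⟨hU, hI⟩))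
  · exact trQ_cut D hG hK' hb hR (fun Y hbY hY F hF w hw hl hx =>
      hT Y hbY hY w hw.1 hl (Or.inr ⟨F, hF, hw.2, hx⟩)) hbX hX' hw hl hws
      (hnew w hw hl hws hU hI)

end tr

end Crest.Agent.R096.Cnp_824
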