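import Crest.Agent.R096.Dfi3_471

/-!
# R096 (row 96), DOORS, CONN-S (helper778), part 1: a part of a sheet is joined by its own chords

`Cl s j G` : chord class of the points of the name `j` in a connected part `G` of the level set, along
faces of tiles which meet `G`.

* `cl_mem`, `cl_of`, `cl_step`, `cl_sub` : over the tiling;
* `cl_out`, `cl_s2`                       : if the tiles which meet `G` are outside the cores and the
  root is in the class, all this is in the outer state and in the state with layers.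
-/

set_option autoImplicit false
set_option linter.unusedSectionVars false
set_option linter.style.longLine false

open Set Module
open scoped Classical

namespace Crest.Agent.R096.Cns_778

open Crest.Agent.R096.Msh_715 Crest.Agent.R096.Agl5_543 Crest.Agent.R096.St_147
  Crest.Agent.R096.Seq_213 Crest.Agent.R096.Door_501 Crest.Agent.R096.Sla_184
  Crest.Agent.R096.Twr_438 Crest.Agent.R096.Ess3_95 Crest.Agent.R096.Dfi_471
open Crest.Agent.R096.Sla_184.Sla (hf vf old tg F0 Fn Out OnS InL In)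

section gen

variable {E : Type} [NormedAddCommGroup E] [NormedSpace ℝ E] [FiniteDimensional ℝ E]
variable {Om : Set E} {ι : Type} {T : Tiling Om ι} {J C : Type} {fam : J → C}
  {h3 : finrank ℝ E = 3} {s : GSt (meshC T h3) fam} {j : J} {G : Set E} {w u x y : E}

/-- the chord class of the points of `j` in `G` -/
def Cl (s : GSt (meshC T h3) fam) (j : J) (G : Set E) : Set E :=
  {u | ∃ w ∈ G, w ∈ s.P ∧ s.lab w = j ∧ Relation.ReflTransGen (GSt1 s G) w u}

theorem gst1_mem (h : GSt1 s G x y) : y ∈ s.P ∧ s.lab y = s.lab x := by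
  obtain ⟨F, _, hA, rfl⟩ := h
  exact ⟨(s.mu_mem hA.1 hA.2).1, s.mu_lab hA.1 hA.2⟩

theorem gst1_symm (h : GSt1 s G x y) : GSt1 s G y x := by
  obtain ⟨F, hF, hA, rfl⟩ := h
  exact ⟨F, hF, s.mu_mem hA.1 hA.2, (s.mu_mu hA.1 hA.2).symm⟩

theorem gst1_rev (h : Relation.ReflTransGen (GSt1 s G) x y) :
    Relation.ReflTransGen (GSt1 s G) y x := by
  induction h with
  | refl => exact .refl
  | tail _ h2 ih => exact Relation.ReflTransGen.head (gst1_symm h2) ih

theorem cl_of (hw : w ∈ s.P) (hl : s.lab w = j) (hG : w ∈ G) : w ∈ Cl s j G :=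
  ⟨w, hG, hw, hl, .refl⟩

/-- points of the class: names, and a tile which meets `G` -/
theorem cl_mem (hGO : G ⊆ Om) (h : u ∈ Cl s j G) :
    u ∈ s.P ∧ s.lab u = j ∧ ∃ q, u ∈ P (T.H q) ∧ (P (T.H q) ∩ G).Nonempty := by
  obtain ⟨w, hwG, hw, hl, hr⟩ := h
  induction hr with
  | refl =>
    obtain ⟨q, hq⟩ := T.cov w (hGO hwG)
    exact ⟨hw, hl, q, hq, w, hq, hwG⟩
  | tail _ h2 ih =>
    obtain ⟨h3', h4⟩ := gst1_mem h2
    refine ⟨h3', h4.trans ih.2.1, ?_⟩
    obtain ⟨F, ⟨q, hqF, hqG⟩, hA, rfl⟩ := h2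
    exact ⟨q, C2.sub_tile hqF (s.mu_mem hA.1 hA.2).2.1, hqG⟩

theorem cl_tail (h : u ∈ Cl s j G) (h2 : GSt1 s G u x) : x ∈ Cl s j G := by
  obtain ⟨w, hwG, hw, hl, hr⟩ := h
  exact ⟨w, hwG, hw, hl, hr.tail h2⟩

theorem cl_step {F : C2 T} (h : u ∈ Cl s j G) (hF : ∃ q ∈ F.side h3, (P (T.H q) ∩ G).Nonempty)
    (hA : s.At F u) : s.mu F u ∈ Cl s j G := cl_tail h ⟨F, hF, hA, rfl⟩

/-- **two points of the class are joined inside the class** -/
theorem cl_path {Sj : Set E} (hc : Car s j Sj) (hG : IsPreconnected G) (hGS : G ⊆ Sj)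
    (hx : x ∈ Cl s j G) (hy : y ∈ Cl s j G) : Relation.ReflTransGen (GSt1 s G) x y := by
  obtain ⟨w, hwG, hw, hl, hr⟩ := hx
  obtain ⟨w', hwG', hw', hl', hr'⟩ := hy
  exact (gst1_rev hr).trans ((hc G hG hGS w hwG w' hwG' hw hl hw' hl').trans hr')

/-- **closed sets** -/
theorem cl_sub {Sj : Set E} (hc : Car s j Sj) (hG : IsPreconnected G) (hGS : G ⊆ Sj)
    {Y : Set E} (hx : x ∈ Cl s j G) (hxY : x ∈ Y)
    (hY : ∀ (F : C2 T) w, (∃ q ∈ F.side h3, (P (T.H q) ∩ G).Nonempty) → w ∈ Y → w ∈ Cl s j G →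
      s.At F w → s.mu F w ∈ Y) : Cl s j G ⊆ Y := by
  intro y hy
  have h := cl_path hc hG hGS hx hy
  have key : ∀ z, Relation.ReflTransGen (GSt1 s G) x z → z ∈ Y ∧ z ∈ Cl s j G := by
    intro z hz
    induction hz with
    | refl => exact ⟨hxY, hx⟩
    | tail _ h2 ih =>
      refine ⟨?_, cl_tail ih.2 h2⟩
      obtain ⟨F, hF, hA, rfl⟩ := h2
      exact hY F _ hF ih.1 ih.2 hA
  exact (key y h).1

end gen

section layers

variable {E : Type} [NormedAddCommGroup E] [NormedSpace ℝ E] [FiniteDimensional ℝ E]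
variable {Om : Set E} {ι : Type} {T : Tiling Om ι} {κ : Type} {S : Sla T κ}
  {h3 : finrank ℝ E = 3} {J C : Type} {fam : J → C}
  {s : GSt (meshC T h3) fam} {r : J → E}
  {Tw : Twrs (S.sh h3) S.n (outK S.hH S.dis s r)} {l0 : E → J}
  {j : J} {G : Set E} {w u x y : E}

/-- faces of tiles outside the cores are not inside a core -/
theorem nd_of {F : C2 T} {q : ι} (hq : q ∈ F.side h3) (hqK : ∀ c, ¬ P (T.H q) ⊆ S.K c) :
    ¬ (((meshC T h3).side F).map (piK T S.K)).IsDiag := by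
  have : Nonempty T.Cell := ⟨T.cl F.pt_mem⟩
  exact Lm_117.out_face h3 F ⟨q, hqK, C2.sub_tile (h3 := h3) hq⟩

/-- a face of a tile outside the cores as a face of the mesh of the outer state -/
noncomputable def mkF0 (F : C2 T) {q : ι} (hq : q ∈ F.side h3)
    (hqK : ∀ c, ¬ P (T.H q) ⊆ S.K c) : S.F0 h3 := ⟨F, nd_of hq hqK⟩

/-- **the class is in the outer state** -/
theorem cl_out {Sj : Set E} (hc : Car s j Sj) (hG : IsPreconnected G) (hGS : G ⊆ Sj)
    (hGK : ∀ q, (P (T.H q) ∩ G).Nonempty → ∀ c, ¬ P (T.H q) ⊆ S.K c)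
    (hr : r j ∈ Cl s j G) (hx : x ∈ Cl s j G) (hl : s.lab x = j) (hP : x ∈ s.P) :
    x ∈ (outK S.hH S.dis s r).P := by
  refine ⟨hP, ?_⟩
  rw [hl]
  have h := cl_path hc hG hGS hr hx
  induction h with
  | refl => exact .refl
  | @tail b c h1 h2 ih =>
    have hb : b ∈ Cl s j G := by
      clear ih
      have : ∀ z, Relation.ReflTransGen (GSt1 s G) (r j) z → z ∈ Cl s j G := by
        intro z hz
        induction hz with
        | refl => exact hr
        | tail _ h4 ih' => exact cl_tail ih' h4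
      exact this b h1
    obtain ⟨F, ⟨q, hqF, hqG⟩, hA, e⟩ := h2
    have hlb : s.lab b = j := by
      rw [← hl, e, s.mu_lab hA.1 hA.2]
    exact (ih hb hlb hA.1).tail ⟨F, nd_of hqF (hGK q hqG), hA.1, hA.2, e⟩

end layers

end Crest.Agent.R096.Cns_778
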