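import Crest.Agent.R096.Core2_124
import Crest.Agent.R96.Sg5_199

/-!
Row 96 (S0127), helper976.  WORDS, leaf (N) of helper124: `NearSeg` (a curve close to an affine one, with
integrable defect of its increments) for `f` on a segment on which its coordinates are absolutely
continuous (`ACLat`).  The defect is the line integral of `|∂_v f - A v|`.
-/

set_option autoImplicit false
set_option linter.unusedSectionVars false

open MeasureTheory Set Filter
open scoped Topology ENNReal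

namespace Crest.Agent.R096.Cns_976

open Crest.Agent.R096.Core_124 Crest.Agent.R96.Acl_392 Crest.Agent.R96.Sob2_199
  Crest.Agent.R96.Sob3_199 Crest.Agent.R96.Sg1_199 Crest.Agent.R96.Sg5_199

noncomputable section

variable {E : Type*} [NormedAddCommGroup E] [NormedSpace ℝ E] [FiniteDimensional ℝ E]
  [MeasurableSpace E] [BorelSpace E] {ι : Type*} [Fintype ι]

/-- the defect of the direction derivative `D` from the constant vector `u` -/
def dfc (D : E → ι → ℝ) (u : ι → ℝ) (y : E) : ℝ := ∑ k, |D y k - u k|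

theorem dfc_nonneg (D : E → ι → ℝ) (u : ι → ℝ) (y : E) : 0 ≤ dfc D u y :=
  Finset.sum_nonneg fun _ _ => abs_nonneg _

theorem seg_mem {Om : Set E} {y0 v : E} (hsub : sgm y0 v ⊆ Om) {s t : ℝ} (hs : 0 ≤ s)
    (ht : t ≤ 1) : y0 ∈ segIn Om v s t := fun τ hτ =>
  hsub ⟨τ, ⟨hs.trans hτ.1, hτ.2.trans ht⟩, rfl⟩

theorem intOn_dfc {Om : Set E} {f D : E → ι → ℝ} {y0 v : E} {u : ι → ℝ} (hsub : sgm y0 v ⊆ Om)
    (h : ∀ k, ACLat Om (fun y => f y k) (fun y => D y k) v y0) :
    IntegrableOn (fun τ : ℝ => dfc D u (y0 + τ • v)) (Icc 0 1) := by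
  unfold dfc
  refine integrable_finsetSum _ fun k _ => ?_
  have h1 := (h k 0 1 zero_le_one (seg_mem hsub le_rfl le_rfl)).1
  have h2 : IntegrableOn (fun τ : ℝ => D (y0 + τ • v) k - u k) (Icc 0 1) :=
    Integrable.sub h1 (integrable_const _)
  exact Integrable.abs h2

theorem intervalIntegrable_dfc {Om : Set E} {f D : E → ι → ℝ} {y0 v : E} {u : ι → ℝ}
    (hsub : sgm y0 v ⊆ Om) (h : ∀ k, ACLat Om (fun y => f y k) (fun y => D y k) v y0) {s t : ℝ}
    (hs : 0 ≤ s) (hst : s ≤ t) (ht : t ≤ 1) :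
    IntervalIntegrable (fun τ : ℝ => dfc D u (y0 + τ • v)) volume s t := by
  rw [intervalIntegrable_iff_integrableOn_Icc_of_le hst]
  exact (intOn_dfc hsub h).mono_set (Icc_subset_Icc hs ht)

/-- **(N)**: `NearSeg` from absolute continuity of the coordinates on the segment. -/
theorem nearSeg_of_acl {Om : Set E} {f D : E → ι → ℝ} {y0 v : E} {a0 u : ι → ℝ} {ε : ℝ}
    (hsub : sgm y0 v ⊆ Om) (hfc : ContinuousOn f Om)
    (h : ∀ k, ACLat Om (fun y => f y k) (fun y => D y k) v y0)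
    (hcl : ∀ t ∈ Icc (0:ℝ) 1, ‖f (y0 + t • v) - (a0 + t • u)‖ ≤ ε) :
    NearSeg (fun τ : ℝ => f (y0 + τ • v)) (fun τ => dfc D u (y0 + τ • v)) a0 u ε where
  cont := by
    refine hfc.comp (by fun_prop) fun τ hτ => hsub ⟨τ, hτ, rfl⟩
  int := intervalIntegrable_dfc hsub h le_rfl zero_le_one le_rfl
  nonneg := fun t _ => dfc_nonneg D u _
  inc := by
    intro s hs t ht hst
    have hI := intervalIntegrable_dfc (u := u) hsub h hs.1 hst ht.2
    have h0 : 0 ≤ ∫ τ in s..t, dfc D u (y0 + τ • v) :=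
      intervalIntegral.integral_nonneg hst fun τ _ => dfc_nonneg D u _
    rw [pi_norm_le_iff_of_nonneg h0]
    intro k
    obtain ⟨h1, h2⟩ := h k s t hst (seg_mem hsub hs.1 ht.2)
    have h1' : IntervalIntegrable (fun τ : ℝ => D (y0 + τ • v) k) volume s t :=
      (intervalIntegrable_iff_integrableOn_Icc_of_le hst).2 h1
    have e : (f (y0 + t • v) - f (y0 + s • v) - (t - s) • u) k =
        ∫ τ in s..t, (D (y0 + τ • v) k - u k) := by
      rw [intervalIntegral.integral_sub h1' intervalIntegrable_const, ← h2,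
        intervalIntegral.integral_const]
      rfl
    rw [e]
    refine (intervalIntegral.norm_integral_le_integral_norm hst).trans ?_
    refine intervalIntegral.integral_mono_on hst (h1'.sub intervalIntegrable_const).norm hI
      fun τ _ => ?_
    rw [Real.norm_eq_abs]
    exact Finset.single_le_sum (f := fun k => |D (y0 + τ • v) k - u k|)
      (fun _ _ => abs_nonneg _) (Finset.mem_univ k)
  close := hcl

/-- the defect in terms of the line integrals of the `k`-th coordinates -/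
theorem integral_dfc_eq {Om : Set E} {f D : E → ι → ℝ} {y0 v : E} {u : ι → ℝ}
    (hsub : sgm y0 v ⊆ Om) (h : ∀ k, ACLat Om (fun y => f y k) (fun y => D y k) v y0) :
    ∫ τ in (0:ℝ)..1, dfc D u (y0 + τ • v) = (∑ k, li (fun y => ‖D y k - u k‖ₑ) y0 v).toReal := by
  have h1 : ∀ k, IntegrableOn (fun τ : ℝ => |D (y0 + τ • v) k - u k|) (Icc 0 1) := by
    intro k
    have h1 := (h k 0 1 zero_le_one (seg_mem hsub le_rfl le_rfl)).1
    have h2 : IntegrableOn (fun τ : ℝ => D (y0 + τ • v) k - u k) (Icc 0 1) :=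
      Integrable.sub h1 (integrable_const _)
    exact Integrable.abs h2
  have h3 : ∀ k, li (fun y => ‖D y k - u k‖ₑ) y0 v =
      ENNReal.ofReal (∫ τ in Icc (0:ℝ) 1, |D (y0 + τ • v) k - u k|) := by
    intro k
    rw [ofReal_integral_eq_lintegral_ofReal (h1 k) (Eventually.of_forall fun _ => abs_nonneg _)]
    unfold li
    refine lintegral_congr fun τ => ?_
    show ‖D (y0 + τ • v) k - u k‖ₑ = _
    rw [← ofReal_norm, Real.norm_eq_abs]
  rw [ENNReal.toReal_sum fun k _ => by rw [h3 k]; exact ENNReal.ofReal_ne_top]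
  rw [intervalIntegral.integral_of_le zero_le_one, ← integral_Icc_eq_integral_Ioc]
  unfold dfc
  rw [integral_finsetSum _ fun k _ => h1 k]
  refine Finset.sum_congr rfl fun k _ => ?_
  rw [h3 k, ENNReal.toReal_ofReal (integral_nonneg fun _ => abs_nonneg _)]

theorem ofReal_integral_dfc {Om : Set E} {f D : E → ι → ℝ} {y0 v : E} {u : ι → ℝ}
    (hsub : sgm y0 v ⊆ Om) (h : ∀ k, ACLat Om (fun y => f y k) (fun y => D y k) v y0) :
    ENNReal.ofReal (∫ τ in (0:ℝ)..1, dfc D u (y0 + τ • v)) =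
      ∑ k, li (fun y => ‖D y k - u k‖ₑ) y0 v := by
  have h1 := integral_dfc_eq (u := u) hsub h
  rw [h1, ENNReal.ofReal_toReal]
  refine ENNReal.sum_ne_top.2 fun k _ => ?_
  have h2 := (h k 0 1 zero_le_one (seg_mem hsub le_rfl le_rfl)).1
  have h3 : IntegrableOn (fun τ : ℝ => D (y0 + τ • v) k - u k) (Icc 0 1) :=
    Integrable.sub h2 (integrable_const _)
  exact h3.2.ne

/-- **(N)** for an affine map: the edge `[y0, y1]`. -/
theorem nearSeg_affine {Om : Set E} {f D : E → ι → ℝ} {y0 y1 : E} (A : E →ᵃ[ℝ] (ι → ℝ)) {ε : ℝ}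
    (hsub : segment ℝ y0 y1 ⊆ Om) (hfc : ContinuousOn f Om)
    (h : ∀ k, ACLat Om (fun y => f y k) (fun y => D y k) (y1 - y0) y0)
    (hcl : ∀ y ∈ segment ℝ y0 y1, ‖f y - A y‖ ≤ ε) :
    NearSeg (fun τ : ℝ => f (y0 + τ • (y1 - y0)))
      (fun τ => dfc D (A.linear (y1 - y0)) (y0 + τ • (y1 - y0))) (A y0) (A y1 - A y0) ε := by
  have e : A y1 - A y0 = A.linear (y1 - y0) := by
    rw [← vsub_eq_sub, ← A.linearMap_vsub, vsub_eq_sub]
  have hs : sgm y0 (y1 - y0) = segment ℝ y0 y1 := by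
    rw [sgm_eq_segment, add_sub_cancel]
  rw [e]
  refine nearSeg_of_acl (hs ▸ hsub) hfc h fun t ht => ?_
  have h1 : A (y0 + t • (y1 - y0)) = A y0 + t • A.linear (y1 - y0) := by
    have := A.map_vadd y0 (t • (y1 - y0))
    simp only [vadd_eq_add] at this
    rw [add_comm y0, this, LinearMap.map_smul, add_comm]
  rw [← h1]
  refine hcl _ ?_
  rw [← hs]
  exact ⟨t, ht, rfl⟩

theorem integral_affine {Om : Set E} {f D : E → ι → ℝ} {y0 y1 : E} (A : E →ᵃ[ℝ] (ι → ℝ))
    (hsub : segment ℝ y0 y1 ⊆ Om)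
    (h : ∀ k, ACLat Om (fun y => f y k) (fun y => D y k) (y1 - y0) y0) :
    ENNReal.ofReal (∫ τ in (0:ℝ)..1, dfc D (A.linear (y1 - y0)) (y0 + τ • (y1 - y0))) =
      ∑ k, li (fun y => ‖D y k - A.linear (y1 - y0) k‖ₑ) y0 (y1 - y0) := by
  refine ofReal_integral_dfc ?_ h
  rw [sgm_eq_segment, add_sub_cancel]
  exact hsub

/-- the defect of the directional derivative is at most `‖v‖` times the defect of the matrix -/
theorem dfc_gdir_le {n : ℕ} (g : ι → Fin n → (Fin n → ℝ) → ℝ)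
    (A : (Fin n → ℝ) →ₗ[ℝ] (ι → ℝ)) (v y : Fin n → ℝ) :
    dfc (fun y k => gdir (g k) v y) (A v) y ≤
      ‖v‖ * ∑ k, ∑ l, |g k l y - A (Pi.single l 1) k| := by
  unfold dfc gdir
  rw [Finset.mul_sum]
  refine Finset.sum_le_sum fun k _ => ?_
  have e : A v k = ∑ l, v l * A (Pi.single l 1) k := by
    conv_lhs => rw [show v = ∑ l, v l • (Pi.single l (1:ℝ) : Fin n → ℝ) by
      funext m; simp [Finset.sum_apply, Pi.single_apply]]
    rw [map_sum, Finset.sum_apply]
    exact Finset.sum_congr rfl fun l _ => by rw [map_smul]; rfl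
  rw [e, ← Finset.sum_sub_distrib, Finset.mul_sum]
  refine (Finset.abs_sum_le_sum_abs _ _).trans (Finset.sum_le_sum fun l _ => ?_)
  rw [← mul_sub, abs_mul]
  exact mul_le_mul_of_nonneg_right (norm_le_pi_norm v l) (abs_nonneg _)

/-- the same for the line integrals -/
theorem sum_li_gdir_le {n : ℕ} (g : ι → Fin n → (Fin n → ℝ) → ℝ)
    (A : (Fin n → ℝ) →ₗ[ℝ] (ι → ℝ)) {x v : Fin n → ℝ} (hm : ∀ k l, Measurable (g k l)) :
    ∑ k, li (fun y => ‖gdir (g k) v y - A v k‖ₑ) x v ≤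
      ‖v‖ₑ * ∑ k, ∑ l, li (fun y => ‖g k l y - A (Pi.single l 1) k‖ₑ) x v := by
  rw [Finset.mul_sum]
  refine Finset.sum_le_sum fun k _ => ?_
  have e : A v k = ∑ l, v l * A (Pi.single l 1) k := by
    conv_lhs => rw [show v = ∑ l, v l • (Pi.single l (1:ℝ) : Fin n → ℝ) by
      funext m; simp [Finset.sum_apply, Pi.single_apply]]
    rw [map_sum, Finset.sum_apply]
    exact Finset.sum_congr rfl fun l _ => by rw [map_smul]; rfl
  unfold li
  have hme : ∀ l, Measurable fun τ : ℝ => ‖g k l (x + τ • v) - A (Pi.single l 1) k‖ₑ := by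
    intro l
    exact (((hm k l).comp (by fun_prop)).sub measurable_const).enorm
  rw [← lintegral_finsetSum _ fun l _ => hme l, ← lintegral_const_mul _
    (Finset.measurable_sum _ fun l _ => hme l)]
  refine lintegral_mono fun τ => ?_
  show ‖gdir (g k) v (x + τ • v) - A v k‖ₑ ≤ ‖v‖ₑ * ∑ l, ‖g k l (x + τ • v) - A (Pi.single l 1) k‖ₑ
  unfold gdir
  rw [e, ← Finset.sum_sub_distrib, Finset.mul_sum]
  refine (enorm_sum_le _ _).trans (Finset.sum_le_sum fun l _ => ?_)
  rw [← mul_sub, enorm_mul]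
  refine mul_le_mul_left ?_ _
  rw [← ofReal_norm, ← ofReal_norm]
  exact ENNReal.ofReal_le_ofReal (norm_le_pi_norm v l)

end

end Crest.Agent.R096.Cns_976
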