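import Crest.Agent.R096.Cns2_778
import Crest.Agent.R096.Bgf11_4

/-!
# R096 (row 96), DOORS, CONN-T (helper778), part 3: the machine instance

* `Gma`      : the part of the sheet of a barrier above the gauge `rr m`;
* `gma_conn` : it is connected; `upp_stB` : `Upp` for 4's state `stB`;
* `mem_SB`   : points of `s₂` of the name `m` on an outer tile above `ρ3 + 7 d` are in `SB`;
* `RB_tile`  : the tiles of the faces of `RB`;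
* `connT_stB`: 147's `ConnT` from (NE) and the wall point.
-/

set_option autoImplicit false
set_option linter.unusedSectionVars false
set_option linter.style.longLine false

open Set Filter Topology Metric MeasureTheory

namespace Crest.Agent.R096.Cns_778

open Crest.Agent.R096.Msh_715 Crest.Agent.R096.Coh_184 Crest.Agent.R096.Bsp_628
  Crest.Agent.R096.Brk1_582 Crest.Agent.R096.Brk2_582 Crest.Agent.R096.Brk3_582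
  Crest.Agent.R096.Brk5_582 Crest.Agent.R096.Init_543 Crest.Agent.R096.Mbf_337
  Crest.Agent.R096.Main_4 Crest.Agent.R096.Lab_184
  Crest.Agent.R096.Seq_213 Crest.Agent.R096.Seq_213.GSt Crest.Agent.R096.Ginv_543
  Crest.Agent.R096.Agl5_543
  Crest.Agent.R96.Push_899 Crest.Agent.R096.Ess5_95 Crest.Agent.R096.Ess8_95
  Crest.Agent.R096.Ebr1_95 Crest.Agent.R096.Ebr4_95 Crest.Agent.R096.Bar_106
  Crest.Agent.R096.Exa_560 Crest.Agent.R096.Sphg_316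
  Crest.Agent.R096.Bgf_4 Crest.Agent.R096.Ess3_95 Crest.Agent.R096.Sla_184
  Crest.Agent.R096.Twr_438 Crest.Agent.R096.Dfi_471 Crest.Agent.R096.Pbn_147
  Crest.Agent.R096.Sec_892 Crest.Agent.R096.St_147 Crest.Agent.R096.Door_501
  Crest.Agent.R096.Cg_501
open Crest.Agent.R096.Frn_337 (Ti)
open Crest.Agent.R096.Sla_184.Sla (old Fn Out F0)

open Crest.Agent.R096.SkC1_961 (E3 Hom3 IsPush FoamD)

section gen

variable {δ κ0 R c0 : ℝ} {La Om : Set E3} {ι : Type} {Φ : FoamD δ κ0 R c0 La}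
  {T : Tiling Om ι} {f g : E3 → E3}
  {J0 J V : Φ.F → Set ι} {θ : Φ.F → E3 → E3} {Mo : Type} {co : Mo → Φ.F}
  {ρ1 ρ2 ρ3 ρ4 d : Mo → ℝ} {G : Mo → E3 → ℝ} {rm h lo hi ω : Mo → ℝ} {q₀ : Mo → E3}
  {g0 ε rr : Mo → ℝ}

/-- the part of the sheet of the barrier above the gauge `rr m` -/
def Gma (Om : Set E3) (Φ : FoamD δ κ0 R c0 La) (f : E3 → E3) (co : Mo → Φ.F)
    (ℓ : Mo → E3 → ℝ) (ε rr : Mo → ℝ) (m : Mo) : Set E3 :=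
  {x | x ∈ Om ∧ ℓ m (f x) = ε m ∧ rr m ≤ ga Φ (co m) (f x)}

theorem gma_conn (hB : BarF Φ T f J0 J V θ co ρ1 ρ2 ρ3 ρ4 d G rm h lo hi ω q₀ g0)
    (hLa : IsOpen La) (H : Hm f g Om La) (hε : ∀ m, ε m ∈ Ioo (lo m) (hi m)) {m : Mo}
    (h0 : 0 < rr m) (h1 : rm m - h m * ε m < rr m) (h2 : rr m ≤ rm m + h m * ε m) :
    IsPreconnected (Gma Om Φ f co (lM Φ co rm h hi G) ε rr m) := by
  obtain ⟨p, hP⟩ := hB.pol hLa m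
  have hr := hB.room m
  have hG := hB.gm m
  have hh := hB.h0 m
  have hεm := hε m
  have hεhi : h m * ε m < h m * hi m := mul_lt_mul_of_pos_left hεm.2 hh
  have hd := hr.d0
  have ha1 : rm m + h m * ε m ≤ ρ4 m := by linarith [hB.a1' m]
  have hε0 : 0 < ε m := lt_of_le_of_lt hG.lo0 hεm.1
  have hhε : 0 < h m * ε m := mul_pos hh hε0
  set a1 : ℝ := rm m + h m * ε m with ha1d
  set A : Set E3 := {q | q ∈ frontier (co m).1.set ∧ G m q = ε m} with hA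
  set B : Set E3 := {q | q ∈ frontier (co m).1.set ∧ G m q ≤ ε m} with hBd
  have c1 := hP.prod_conn (A := A) (fun q hq => hq.1) (hG.eq _ hεm) h0 ha1
  have c2 := hP.prod_conn (A := B) (fun q hq => hq.1) (GM.le_conn hP hG hεm)
    (h0.trans_le h2) ha1
  obtain ⟨q, hq, hqe⟩ := GM.eq_ne hP hG hεm
  have hmem : a1 ∈ Ioc 0 (ρ4 m) := ⟨h0.trans_le h2, ha1⟩
  have e1 := hP.gau a1 hmem q hq
  have e2 := hP.psi a1 hmem q hq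
  have m1 : p (a1, q) ∈ {y | (rr m ≤ ga Φ (co m) y ∧ ga Φ (co m) y ≤ a1) ∧ Φ.Psi y ∈ A} :=
    ⟨⟨by rw [e1]; exact h2, e1.le⟩, by rw [e2]; exact ⟨hq, hqe⟩⟩
  have m2 : p (a1, q) ∈ {y | (a1 ≤ ga Φ (co m) y ∧ ga Φ (co m) y ≤ a1) ∧ Φ.Psi y ∈ B} :=
    ⟨⟨e1.ge, e1.le⟩, by rw [e2]; exact ⟨hq, hqe.le⟩⟩
  have c3 := c1.union (p (a1, q)) m1 m2 c2
  have hb : Bod (Φ.B (co m)).lo (Pc Φ.F (co m)) := Pse_316.bod_brick Φ (co m) (hB.pt m)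
  have hgf : ga Φ (co m) = Ng (Φ.B (co m)).lo (Pc Φ.F (co m)) :=
    funext (Etg_163.gg_eq Φ (co m))
  have hDL : {y | ga Φ (co m) y ≤ ρ4 m} ⊆ La := by
    rw [hgf]
    exact (hb.le_sub hr.r4.le).trans (Φ.bf.sub (co m).1 (co m).2)
  have c4 := H.preconn_pre (D := _) (fun y hy => hDL (show ga Φ (co m) y ≤ ρ4 m by
    rcases hy with hy | hy
    · exact hy.1.2.trans ha1
    · exact hy.1.2.trans ha1)) c3
  have e : Gma Om Φ f co (lM Φ co rm h hi G) ε rr m = Om ∩ f ⁻¹'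
      ({y | (rr m ≤ ga Φ (co m) y ∧ ga Φ (co m) y ≤ a1) ∧ Φ.Psi y ∈ A} ∪
        {y | (a1 ≤ ga Φ (co m) y ∧ ga Φ (co m) y ≤ a1) ∧ Φ.Psi y ∈ B}) := by
    ext x
    constructor
    · rintro ⟨k1, k2, k3⟩
      obtain ⟨n1, n2, n3, n4⟩ := hB.pos hεm.2 k2
      have hfr := (hP.inv (f x) (h0.trans_le k3) (n2.trans ha1)).1
      refine ⟨k1, ?_⟩
      rcases n4 with n | n | n
      · linarith
      · exact Or.inr ⟨⟨n.ge, n.le⟩, hfr, n3⟩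
      · exact Or.inl ⟨⟨k3, n2⟩, hfr, n⟩
    · rintro ⟨k1, k2⟩
      have key : rr m ≤ ga Φ (co m) (f x) ∧ ga Φ (co m) (f x) ≤ a1 ∧ G m (Φ.Psi (f x)) ≤ ε m ∧
          (ga Φ (co m) (f x) = a1 ∨ G m (Φ.Psi (f x)) = ε m) := by
        rcases k2 with ⟨⟨n1, n2⟩, n3⟩ | ⟨⟨n1, n2⟩, n3⟩
        · exact ⟨n1, n2, n3.2.le, Or.inr n3.2⟩
        · exact ⟨h2.trans n1, n2, n3.2, Or.inl (le_antisymm n2 n1)⟩
      obtain ⟨n1, n2, n3, n4⟩ := key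
      refine ⟨k1, (bl_eq_iff hεm.2).2 ?_, n1⟩
      have u1 : |ga Φ (co m) (f x) - rm m| / h m ≤ ε m := by
        rw [div_le_iff₀ hh, abs_le]
        constructor <;> linarith
      rcases n4 with n | n
      · rw [n]
        have u2 : |a1 - rm m| / h m = ε m := by
          rw [ha1d, add_sub_cancel_left, abs_of_pos hhε, mul_div_cancel_left₀ _ hh.ne']
        rw [u2]
        exact max_eq_left n3
      · rw [n]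
        exact max_eq_right u1
  rw [e]
  exact c4

end gen

section bars

variable {δ κ0 R c0 : ℝ} {La Om : Set E3} {ι : Type} {Φ : FoamD δ κ0 R c0 La}
  {T : Tiling Om ι} {f g : E3 → E3}
variable {X : Set Φ.F} {J0 J V : Φ.F → Set ι} {ct : Φ.F → ι} {A : Φ.F → E3 ≃ᵃ[ℝ] E3}
  {lam : Φ.F → ℝ} {z : Φ.F → E3} {θ : Φ.F → E3 → E3} {φ : Φ.F → E3 → ℝ} {κ1 κ2 : ℝ}
  {ρ1 ρ2 ρ3 ρ4 d : Φ.F → ℝ} {sg l0 mm ra : ℝ}
variable {r₀ : Φ.F → ℝ} {L : Φ.F → Finset ℝ} [Nonempty (JJ Φ L)] {ct' : Φ.F → ι}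
  {bp : JJ Φ L → E3} {bm : BM Φ X → E3} {ε : BM Φ X → ℝ} {q₀ : BM Φ X → E3}
  {hGB : GFB Φ r₀ T f L (lBM Φ X ρ1 ρ3 d sg l0 mm ra) ε}
  {S : Sla T (Ti X)} {r : JJ Φ L → E3}

/-- the upper part of the barrier of the moat `m` -/
abbrev GmB (Om : Set E3) (Φ : FoamD δ κ0 R c0 La) (f : E3 → E3) (X : Set Φ.F)
    (ρ1 ρ3 d : Φ.F → ℝ) (sg l0 mm ra : ℝ) (ε : BM Φ X → ℝ) (m : BM Φ X) : Set E3 :=
  Gma Om Φ f (fun m : BM Φ X => m.co) (lBM Φ X ρ1 ρ3 d sg l0 mm ra) ε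
    (fun m => ρ3 m.co + 6 * d m.co) m

/-- the data of record of the barriers -/
abbrev BarM (Φ : FoamD δ κ0 R c0 La) (T : Tiling Om ι) (f : E3 → E3) (X : Set Φ.F)
    (J0 J V : Φ.F → Set ι) (θ : Φ.F → E3 → E3) (ρ1 ρ2 ρ3 ρ4 d : Φ.F → ℝ) (sg l0 mm ra : ℝ)
    (q₀ : BM Φ X → E3) : Prop :=
  BarF Φ T f J0 J V θ (fun m : BM Φ X => m.co) (fun m => ρ1 m.co)
    (fun m => ρ2 m.co) (fun m => ρ3 m.co) (fun m => ρ4 m.co) (fun m => d m.co)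
    (fun m => gmf Φ l0 mm ra m.am m.Zm) (fun m => rB ρ1 ρ3 d m.co)
    (fun m => hB ρ1 ρ3 d m.co) (fun _ => 1) (fun m => hiB ρ1 ρ3 d sg m.co)
    (fun m => max (d m.co / l0) (d m.co / ra)) q₀ (fun _ => 0)

theorem caps (hBM : BarM Φ T f X J0 J V θ ρ1 ρ2 ρ3 ρ4 d sg l0 mm ra q₀)
    (hε : ∀ m, ε m ∈ Ioo 1 (hiB ρ1 ρ3 d sg m.co)) (m : BM Φ X) :
    0 < ρ3 m.co ∧ 0 < d m.co ∧ ρ1 m.co < ρ3 m.co ∧
    rB ρ1 ρ3 d m.co - hB ρ1 ρ3 d m.co * ε m < ρ3 m.co + 6 * d m.co ∧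
    ρ1 m.co + 2 * d m.co ≤ rB ρ1 ρ3 d m.co - hB ρ1 ρ3 d m.co * ε m ∧
    ρ3 m.co + 9 * d m.co ≤ rB ρ1 ρ3 d m.co + hB ρ1 ρ3 d m.co * ε m ∧
    rB ρ1 ρ3 d m.co + hB ρ1 ρ3 d m.co * ε m + 2 * d m.co ≤ ρ4 m.co := by
  have hr := hBM.room m
  have hh := hBM.h0 m
  have h1 : hB ρ1 ρ3 d m.co * 1 < hB ρ1 ρ3 d m.co * ε m := mul_lt_mul_of_pos_left (hε m).1 hh
  have h2 : hB ρ1 ρ3 d m.co * ε m < hB ρ1 ρ3 d m.co * hiB ρ1 ρ3 d sg m.co :=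
    mul_lt_mul_of_pos_left (hε m).2 hh
  have e1 := hBM.a0 m
  have e2 := hBM.a0' m
  have e3 := hBM.a1 m
  have e4 := hBM.a1' m
  have e5 := hr.d0
  have e6 := hr.r1
  have e7 := hr.r12
  have e8 := hr.r23
  refine ⟨by linarith, e5, by linarith, by linarith, by linarith, by linarith, by linarith⟩

/-- a point of the name `m` in `stB` above the gauge `ρ3 + 6 d` -/
theorem mem_gmB (hLa : IsOpen La)
    (hBM : BarM Φ T f X J0 J V θ ρ1 ρ2 ρ3 ρ4 d sg l0 mm ra q₀)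
    (hε : ∀ m, ε m ∈ Ioo 1 (hiB ρ1 ρ3 d sg m.co)) {m : BM Φ X} {w : E3}
    (hw : w ∈ (stB hGB bp bm).P) (hl : (stB hGB bp bm).lab w = Sum.inr m)
    (hg : ρ3 m.co + 6 * d m.co ≤ ga Φ m.co (f w)) :
    w ∈ GmB Om Φ f X ρ1 ρ3 d sg l0 mm ra ε m := by
  obtain ⟨h1, h2, h3, -⟩ := stB_bar (hBM.bdata hLa) hε hGB hw hl
  exact ⟨h1, h3, hg⟩

/-- all tiles at a point of `GmB` are near the core, outside the inner core -/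
theorem gmB_tile
    (hBM : BarM Φ T f X J0 J V θ ρ1 ρ2 ρ3 ρ4 d sg l0 mm ra q₀)
    (hε : ∀ m, ε m ∈ Ioo 1 (hiB ρ1 ρ3 d sg m.co)) {m : BM Φ X} {x : E3}
    (hx : x ∈ GmB Om Φ f X ρ1 ρ3 d sg l0 mm ra ε m) {q : ι} (hq : x ∈ P (T.H q)) :
    q ∈ V m.co ∧ q ∉ J0 m.co ∧ ∀ y ∈ P (T.H q),
      ρ3 m.co + 5 * d m.co ≤ ga Φ m.co (f y) ∧
      ga Φ m.co (f y) ≤ rB ρ1 ρ3 d m.co + hB ρ1 ρ3 d m.co * ε m + d m.co ∧
      gmf Φ l0 mm ra m.am m.Zm (Φ.Psi (f y)) ≤ ε m + max (d m.co / l0) (d m.co / ra) := by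
  obtain ⟨h1, h2, h3⟩ := hx
  obtain ⟨c1, c2, c3, c4, c5, c6, c7⟩ := caps hBM hε m
  obtain ⟨n1, n2, n3, n4⟩ := hBM.pos (hε m).2 h2
  simp only at h3 n1 n2 n3 n4
  have hr := hBM.room m
  have g1 : ρ1 m.co ≤ ga Φ m.co (f x) := by linarith
  have g2 : ga Φ m.co (f x) ≤ ρ4 m.co := by linarith
  obtain ⟨t1, t2⟩ := hr.tile hq g1 g2
  refine ⟨t1, t2, fun y hy => ?_⟩
  have o1 := abs_le.1 (hr.tile_osc hq g1 g2 hy).1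
  have o2 := abs_le.1 (hBM.osc m q x hq g1 g2 y hy)
  refine ⟨by linarith [o1.2], by linarith [o1.1], by linarith [o2.1]⟩

theorem gmB_out (hLa : IsOpen La) (H : Hm f g Om La)
    (hC : Cores Φ T f κ1 κ2 X J0 J V ct A lam z θ φ)
    (hRm : ∀ c ∉ X, Rm Φ T f c (J0 c) (J c) (V c) (θ c) (ρ1 c) (ρ2 c) (ρ3 c) (ρ4 c) (d c))
    (hBM : BarM Φ T f X J0 J V θ ρ1 ρ2 ρ3 ρ4 d sg l0 mm ra q₀)
    (hε : ∀ m, ε m ∈ Ioo 1 (hiB ρ1 ρ3 d sg m.co)) {m : BM Φ X} {q : ι}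
    (hq : (P (T.H q) ∩ GmB Om Φ f X ρ1 ρ3 d sg l0 mm ra ε m).Nonempty) (c : Φ.F) :
    ¬ P (T.H q) ⊆ KJ T (J c) := by
  obtain ⟨x, hxq, hx⟩ := hq
  obtain ⟨c1, c2, c3, c4, c5, c6, c7⟩ := caps hBM hε m
  intro hsub
  refine out_core hLa H hC hRm m.co_notMem (x := x) (fun i hi => ?_) ?_ c (hsub hxq)
  · exact (gmB_tile hBM hε hx hi).1
  · have := hx.2.2
    simp only at this
    linarith

/-- **`Upp` for the state with all barriers** -/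
theorem upp_stB (hLa : IsOpen La)
    (hC : Cores Φ T f κ1 κ2 X J0 J V ct A lam z θ φ) (hI : InitR Φ T f g J0 ct' r₀)
    (hRm : ∀ c ∉ X, Rm Φ T f c (J0 c) (J c) (V c) (θ c) (ρ1 c) (ρ2 c) (ρ3 c) (ρ4 c) (d c))
    (hBM : BarM Φ T f X J0 J V θ ρ1 ρ2 ρ3 ρ4 d sg l0 mm ra q₀)
    (hε : ∀ m, ε m ∈ Ioo 1 (hiB ρ1 ρ3 d sg m.co))
    (hb : BBase T f L (lBM Φ X ρ1 ρ3 d sg l0 mm ra) ε bp bm)
    (hL : ∀ c, ∀ t ∈ L c, 0 < t ∧ t < 1)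
    (hga : ∀ m, ρ3 m.co + 6 * d m.co ≤ ga Φ m.co (f (bm m)))
    (hK : ∀ k, S.K k = KJ T (J k.1)) :
    Upp S (stB hGB bp bm) (Sum.elim r bm)
      (fun m => Bgf_4.SB Om Φ r₀ f L (lBM Φ X ρ1 ρ3 d sg l0 mm ra) ε (Sum.inr m))
      (GmB Om Φ f X ρ1 ρ3 d sg l0 mm ra ε) where
  car := fun m => car_gmain hGB (fun j => hb.mem hLa hI j) (Sum.inr m)
    (trivF_SB hLa hI (hBM.bdata hLa) hε hL (Sum.inr m))
  sub := fun m x hx => hx.1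
  conn := fun m => by
    obtain ⟨c1, c2, c3, c4, c5, c6, c7⟩ := caps hBM hε m
    exact gma_conn hBM hLa hI.hm hε (m := m) (by linarith) c4 (by linarith)
  gs := fun m x hx => ⟨hx.1, hx.2.1⟩
  out := fun m q hq c => by
    rw [hK c]
    exact gmB_out hLa hI.hm hC hRm hBM hε hq c.1
  root := fun m => by
    obtain ⟨h1, h2⟩ := stB_root hLa hI hb hGB m
    exact ⟨h1, h2, mem_gmB hLa hBM hε h1 h2 (hga m)⟩

section s2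

variable {Tw : Twrs (S.sh fr3) S.n (outK S.hH S.dis (stB hGB bp bm) (Sum.elim r bm))}
  {l0' : E3 → JJ Φ L ⊕ BM Φ X}

/-- **points of `SB`** : the points of `s₂` of the name `m` on an outer tile with a point above
`ρ3 + 7 d` -/
theorem mem_SB (hLa : IsOpen La)
    (hBM : BarM Φ T f X J0 J V θ ρ1 ρ2 ρ3 ρ4 d sg l0 mm ra q₀)
    (hε : ∀ m, ε m ∈ Ioo 1 (hiB ρ1 ρ3 d sg m.co)) {m : BM Φ X} {a : Φ.F} (ha : m.am = a)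
    {w : E3} (hw : w ∈ (s2 S fr3 Tw l0').P) (hl : (s2 S fr3 Tw l0').lab w = Sum.inr m)
    {q : ι} (hwq : w ∈ P (T.H q)) (hqK : ∀ c, ¬ P (T.H q) ⊆ S.K c) {x : E3}
    (hx : x ∈ P (T.H q)) (hg : ρ3 m.co + 7 * d m.co ≤ ga Φ m.co (f x)) :
    w ∈ SB BM.am (GmB Om Φ f X ρ1 ρ3 d sg l0 mm ra ε) (s2 S fr3 Tw l0').lab a := by
  obtain ⟨h1, h2⟩ := s2_out hw (Sla.out_of_tile hqK hwq)
  have hl' : (stB hGB bp bm).lab w = Sum.inr m := h2.symm.trans hl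
  refine ⟨m, ha, hl, mem_gmB hLa hBM hε h1.1 hl' ?_⟩
  obtain ⟨n1, n2, n3, -⟩ := stB_bar (hBM.bdata hLa) hε hGB h1.1 hl'
  obtain ⟨c1, c2, c3, c4, c5, c6, c7⟩ := caps hBM hε m
  obtain ⟨k1, k2, -⟩ := hBM.pos (hε m).2 n3
  have hr := hBM.room m
  have o := abs_le.1 (hr.tile_osc hwq (by show ρ1 m.co ≤ _; linarith)
    (by show _ ≤ ρ4 m.co; linarith) hx).1
  linarith [o.1]

/-- **the tiles of the faces of `RB`** -/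
theorem RB_tile (hLa : IsOpen La) (H : Hm f g Om La)
    (hC : Cores Φ T f κ1 κ2 X J0 J V ct A lam z θ φ)
    (hRm : ∀ c ∉ X, Rm Φ T f c (J0 c) (J c) (V c) (θ c) (ρ1 c) (ρ2 c) (ρ3 c) (ρ4 c) (d c))
    (hBM : BarM Φ T f X J0 J V θ ρ1 ρ2 ρ3 ρ4 d sg l0 mm ra q₀)
    (hε : ∀ m, ε m ∈ Ioo 1 (hiB ρ1 ρ3 d sg m.co)) {a : Φ.F} {F : S.Fn fr3}
    (hF : F ∈ RB S fr3 BM.am (GmB Om Φ f X ρ1 ρ3 d sg l0 mm ra ε) a) :
    ∃ m : BM Φ X, m.am = a ∧ ∃ (F0 : S.F0 fr3) (q : ι), F = old F0 ∧ q ∈ F0.1.side fr3 ∧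
      (∀ c, ¬ P (T.H q) ⊆ KJ T (J c)) ∧ q ∈ V m.co ∧ q ∉ J0 m.co ∧ ∀ y ∈ P (T.H q),
      ρ3 m.co + 5 * d m.co ≤ ga Φ m.co (f y) ∧
      ga Φ m.co (f y) ≤ rB ρ1 ρ3 d m.co + hB ρ1 ρ3 d m.co * ε m + d m.co ∧
      gmf Φ l0 mm ra m.am m.Zm (Φ.Psi (f y)) ≤ ε m + max (d m.co / l0) (d m.co / ra) := by
  obtain ⟨m, h1, F0, h2, q, h3, h4⟩ := hF
  obtain ⟨x, hxq, hx⟩ := id h4
  obtain ⟨k1, k2, k3⟩ := gmB_tile hBM hε hx hxq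
  exact ⟨m, h1, F0, q, h2, h3, gmB_out hLa H hC hRm hBM hε h4, k1, k2, k3⟩

/-- **147's `ConnT` of the machine**, from the wall points (664) and (NE) (106, 955) -/
theorem connT_stB (hLa : IsOpen La)
    (hC : Cores Φ T f κ1 κ2 X J0 J V ct A lam z θ φ) (hI : InitR Φ T f g J0 ct' r₀)
    (hRm : ∀ c ∉ X, Rm Φ T f c (J0 c) (J c) (V c) (θ c) (ρ1 c) (ρ2 c) (ρ3 c) (ρ4 c) (d c))
    (hBM : BarM Φ T f X J0 J V θ ρ1 ρ2 ρ3 ρ4 d sg l0 mm ra q₀)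
    (hε : ∀ m, ε m ∈ Ioo 1 (hiB ρ1 ρ3 d sg m.co))
    (hb : BBase T f L (lBM Φ X ρ1 ρ3 d sg l0 mm ra) ε bp bm)
    (hL : ∀ c, ∀ t ∈ L c, 0 < t ∧ t < 1)
    (hga : ∀ m, ρ3 m.co + 6 * d m.co ≤ ga Φ m.co (f (bm m)))
    (hK : ∀ k, S.K k = KJ T (J k.1)) {α : ℝ} {Act : Φ.F → Set (T.RIdx S.HH ⊕ Ti X)}
    -- the wall points
    (hw : ∀ m : BM Φ X, ∃ w ∈ (stB hGB bp bm).P, (stB hGB bp bm).lab w = Sum.inr m ∧
      ∃ q x, w ∈ P (T.H q) ∧ x ∈ P (T.H q) ∧ ρ3 m.co + 7 * d m.co ≤ ga Φ m.co (f x) ∧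
        (Φ.lev m.am (f x) ≤ α ∨ 1 - α ≤ Φ.lev m.am (f x)))
    -- (NE)
    (ne : ∀ h ∈ (s2 S fr3 Tw l0').P, ∀ m, (s2 S fr3 Tw l0').lab h = Sum.inr m →
      (∃ p, (∀ k, ¬ P (S.T3.H p) ⊆ S.KK k) ∧ h ∈ P (S.T3.H p) ∧ ∃ x ∈ P (T.H p.tile),
        Φ.lev m.am (f x) ≤ α ∨ 1 - α ≤ Φ.lev m.am (f x)) →
      ¬ Dfo_539.Encl (s2 S fr3 Tw l0') BM.am Act m h)
    {hs : BSep (s2 S fr3 Tw l0') BM.am} {hm : ∀ a : Φ.F, {m : BM Φ X | m.am = a}.Finite}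
    {a : Φ.F} {i0 : PN (fun j : JJ Φ L => j.1) BM.am a}
    {far : PN (fun j : JJ Φ L => j.1) BM.am a → Set E3} :
    ConnT (Act a) far (pr (s2 S fr3 Tw l0') hs hm a i0)
      (RB S fr3 BM.am (GmB Om Φ f X ρ1 ρ3 d sg l0 mm ra ε) a)
      (SB BM.am (GmB Om Φ f X ρ1 ρ3 d sg l0 mm ra ε) (s2 S fr3 Tw l0').lab a) := by
  have U := upp_stB (S := S) (r := r) (hGB := hGB) hLa hC hI hRm hBM hε hb hL hga hK
  refine connT_pr U fun m hma => ?_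
  obtain ⟨w, h1, h2, q, x, h3, h4, h5, h6⟩ := hw m
  have hwG : w ∈ GmB Om Φ f X ρ1 ρ3 d sg l0 mm ra ε m := by
    refine mem_gmB hLa hBM hε h1 h2 ?_
    obtain ⟨n1, n2, n3, -⟩ := stB_bar (hBM.bdata hLa) hε hGB h1 h2
    obtain ⟨c1, c2, c3, c4, c5, c6, c7⟩ := caps hBM hε m
    obtain ⟨k1, k2, -⟩ := hBM.pos (hε m).2 n3
    have hr := hBM.room m
    have o := abs_le.1 (hr.tile_osc h3 (by show ρ1 m.co ≤ _; linarith)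
      (by show _ ≤ ρ4 m.co; linarith) h4).1
    linarith [o.1]
  have hqK := U.out m q ⟨w, h3, hwG⟩
  obtain ⟨h7, h8⟩ := U.mem_s2' (Tw := Tw) (l0 := l0') (cl_of h1 h2 hwG)
  refine ⟨w, h1, h2, hwG, ne w h7 m h8 ⟨S.ot q hqK, ?_, ?_, x, ?_, h6⟩⟩
  · intro k hk
    refine hqK k ?_
    rw [← Sla.ot_P hqK]
    exact hk.trans Sla.KK_K
  · rw [Sla.ot_P hqK]; exact h3
  · exact h4

end s2

end bars

end Crest.Agent.R096.Cns_778
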