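import Mathlib

/-!
Row 96 (S0127), leaf [C] COUNT of helper962 #10270: a compact convex set which contains a cube of
side `r` meets few cubes of side `r` of any grid of mesh `r`.
-/

set_option autoImplicit false
set_option linter.style.longLine false

open MeasureTheory Set Filter Topology Metric
open scoped ENNReal Pointwise

namespace Crest.Agent.R096.Cnt1_197

abbrev E3 : Type := Fin 3 → ℝ

/-- the closed cube of the grid -/
def Qc (a : E3) (r : ℝ) (m : Fin 3 → ℤ) : Set E3 :=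
  {x | ∀ i, a i + r * m i ≤ x i ∧ x i ≤ a i + r * (m i + 1)}

/-- the open cube of the grid -/
def Qo (a : E3) (r : ℝ) (m : Fin 3 → ℤ) : Set E3 :=
  {x | ∀ i, a i + r * m i < x i ∧ x i < a i + r * (m i + 1)}

theorem Qo_eq (a : E3) (r : ℝ) (m : Fin 3 → ℤ) :
    Qo a r m = Set.pi univ fun i => Ioo (a i + r * m i) (a i + r * (m i + 1)) := by
  ext x
  simp [Qo, Set.mem_pi]

theorem vol_Qo (a : E3) {r : ℝ} (hr : 0 < r) (m : Fin 3 → ℤ) :
    volume (Qo a r m) = ENNReal.ofReal (r ^ 3) := by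
  rw [Qo_eq, Real.volume_pi_Ioo]
  have : ∀ i : Fin 3, ENNReal.ofReal (a i + r * (m i + 1) - (a i + r * m i)) = ENNReal.ofReal r := by
    intro i
    congr 1
    ring
  simp only [this, Finset.prod_const, Finset.card_univ, Fintype.card_fin]
  rw [ENNReal.ofReal_pow hr.le]

theorem disj_Qo (a : E3) {r : ℝ} (hr : 0 < r) : Pairwise (Function.onFun Disjoint (Qo a r)) := by
  intro m m' hne
  rw [Function.onFun, Set.disjoint_left]
  intro x hx hx'
  apply hne
  funext i
  have h1 := hx i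
  have h2 := hx' i
  have h3 : r * (m i : ℝ) < r * (m' i + 1) := by linarith [h1.1, h2.2]
  have h4 : r * (m' i : ℝ) < r * (m i + 1) := by linarith [h1.2, h2.1]
  have h5 : (m i : ℝ) < m' i + 1 := lt_of_mul_lt_mul_left h3 hr.le
  have h6 : (m' i : ℝ) < m i + 1 := lt_of_mul_lt_mul_left h4 hr.le
  have h7 : m i < m' i + 1 := by exact_mod_cast h5
  have h8 : m' i < m i + 1 := by exact_mod_cast h6
  omega

/-- the homothetic copy of ratio three contains every cube which meets `P` -/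
theorem Qo_sub {P : Set E3} (hc : Convex ℝ P) {r : ℝ} {z : E3}
    (hz : ∀ x : E3, (∀ i, |x i - z i| ≤ r / 2) → x ∈ P) (a : E3) (m : Fin 3 → ℤ)
    (hm : (Qc a r m ∩ P).Nonempty) : Qo a r m ⊆ (fun x : E3 => (3 : ℝ) • x - (2 : ℝ) • z) '' P := by
  obtain ⟨p, hp, hpP⟩ := hm
  intro x hx
  -- q = z + (x - p) / 2
  have hq : z + (1 / 2 : ℝ) • (x - p) ∈ P := by
    apply hz
    intro i
    have h1 := hp i
    have h2 := hx i
    have : (z + (1 / 2 : ℝ) • (x - p)) i - z i = (x i - p i) / 2 := by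
      simp only [Pi.add_apply, Pi.smul_apply, Pi.sub_apply, smul_eq_mul]
      ring
    rw [this, abs_le]
    constructor <;> nlinarith [h1.1, h1.2, h2.1, h2.2]
  refine ⟨(1 / 3 : ℝ) • p + (2 / 3 : ℝ) • (z + (1 / 2 : ℝ) • (x - p)), ?_, ?_⟩
  · exact hc hpP hq (by norm_num) (by norm_num) (by norm_num)
  · ext i
    simp only [Pi.add_apply, Pi.smul_apply, Pi.sub_apply, smul_eq_mul]
    ring

theorem vol_image (P : Set E3) (z : E3) :
    volume ((fun x : E3 => (3 : ℝ) • x - (2 : ℝ) • z) '' P) = 27 * volume P := by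
  have h1 : (fun x : E3 => (3 : ℝ) • x - (2 : ℝ) • z) '' P =
      (fun x : E3 => x + (-((2 : ℝ) • z))) '' ((3 : ℝ) • P) := by
    rw [← Set.image_smul, Set.image_image]
    congr 1
  rw [h1, Set.image_add_right, measure_preimage_add_right, Measure.addHaar_smul]
  have : ENNReal.ofReal |(3 : ℝ) ^ Module.finrank ℝ E3| = 27 := by
    have h2 : Module.finrank ℝ E3 = 3 := by simp
    rw [h2]
    norm_num
  rw [this]

/-- **count of the cubes of a grid which meet a convex set containing a cube of the same side** -/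
theorem count_finite {P : Set E3} (hc : Convex ℝ P) (hb : IsCompact P) {r : ℝ} (hr : 0 < r) {z : E3}
    (hz : ∀ x : E3, (∀ i, |x i - z i| ≤ r / 2) → x ∈ P) (a : E3) (S : Finset (Fin 3 → ℤ))
    (hS : ∀ m ∈ S, (Qc a r m ∩ P).Nonempty) :
    (S.card : ℝ) * r ^ 3 ≤ 27 * (volume P).toReal := by
  have hfin : volume P ≠ ⊤ := hb.measure_lt_top.ne
  have h1 : volume (⋃ m ∈ S, Qo a r m) = ∑ m ∈ S, volume (Qo a r m) := by
    apply measure_biUnion_finset
    · intro m _ m' _ hne
      exact disj_Qo a hr hne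
    · intro m _
      rw [Qo_eq]
      exact MeasurableSet.univ_pi fun i => measurableSet_Ioo
  have h2 : ∑ m ∈ S, volume (Qo a r m) = ENNReal.ofReal (S.card * r ^ 3) := by
    simp only [vol_Qo a hr, Finset.sum_const, nsmul_eq_mul]
    rw [ENNReal.ofReal_mul (by positivity), ENNReal.ofReal_natCast]
  have h3 : volume (⋃ m ∈ S, Qo a r m) ≤ 27 * volume P := by
    rw [← vol_image P z]
    apply measure_mono
    intro x hx
    simp only [Set.mem_iUnion] at hx
    obtain ⟨m, hm, hx⟩ := hx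
    exact Qo_sub hc hz a m (hS m hm) hx
  rw [h1, h2] at h3
  have h4 : (27 : ℝ≥0∞) * volume P = ENNReal.ofReal (27 * (volume P).toReal) := by
    rw [ENNReal.ofReal_mul (by norm_num), ENNReal.ofReal_toReal hfin]
    congr 1
    norm_num
  rw [h4] at h3
  exact (ENNReal.ofReal_le_ofReal_iff (by positivity)).1 h3

theorem count_set_finite {P : Set E3} (hc : Convex ℝ P) (hb : IsCompact P) {r : ℝ} (hr : 0 < r)
    {z : E3} (hz : ∀ x : E3, (∀ i, |x i - z i| ≤ r / 2) → x ∈ P) (a : E3) :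
    {m : Fin 3 → ℤ | (Qc a r m ∩ P).Nonempty}.Finite := by
  by_contra hinf
  obtain ⟨n, hn⟩ := exists_nat_gt (27 * (volume P).toReal / r ^ 3)
  obtain ⟨S, hS, hcard⟩ := (show Set.Infinite {m : Fin 3 → ℤ | (Qc a r m ∩ P).Nonempty} from hinf).exists_subset_card_eq n
  have h1 := count_finite hc hb hr hz a S (fun m hm => hS hm)
  rw [hcard] at h1
  rw [div_lt_iff₀ (by positivity)] at hn
  linarith

theorem count_cubes {P : Set E3} (hc : Convex ℝ P) (hb : IsCompact P) {r : ℝ} (hr : 0 < r)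
    {z : E3} (hz : ∀ x : E3, (∀ i, |x i - z i| ≤ r / 2) → x ∈ P) (a : E3) :
    ({m : Fin 3 → ℤ | ({x : E3 | ∀ i, a i + r * m i ≤ x i ∧ x i ≤ a i + r * (m i + 1)} ∩ P).Nonempty}.ncard : ℝ)
      * r ^ 3 ≤ 27 * (volume P).toReal := by
  have hf := count_set_finite hc hb hr hz a
  have h1 := count_finite hc hb hr hz a hf.toFinset (fun m hm => by simpa using hm)
  rw [← Set.ncard_eq_toFinset_card _ hf] at h1
  exact h1

/-! ### other index types: sets contained in different cubes of the grid -/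

section Idx

variable {Q : Type*} {A : Q → Set E3} {φ : Q → Fin 3 → ℤ}

theorem idx_finite {P : Set E3} (hc : Convex ℝ P) (hb : IsCompact P) {r : ℝ} (hr : 0 < r) {z : E3}
    (hz : ∀ x : E3, (∀ i, |x i - z i| ≤ r / 2) → x ∈ P) (a : E3) (hφ : Function.Injective φ)
    (hA : ∀ q, A q ⊆ Qc a r (φ q)) : {q | (A q ∩ P).Nonempty}.Finite := by
  refine Set.Finite.of_finite_image (f := φ) ((count_set_finite hc hb hr hz a).subset ?_)
    hφ.injOn
  rintro _ ⟨q, hq, rfl⟩
  obtain ⟨x, hx, hxP⟩ := hq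
  exact ⟨x, hA q hx, hxP⟩

theorem idx_count {P : Set E3} (hc : Convex ℝ P) (hb : IsCompact P) {r : ℝ} (hr : 0 < r) {z : E3}
    (hz : ∀ x : E3, (∀ i, |x i - z i| ≤ r / 2) → x ∈ P) (a : E3) (hφ : Function.Injective φ)
    (hA : ∀ q, A q ⊆ Qc a r (φ q)) :
    ({q | (A q ∩ P).Nonempty}.ncard : ℝ) * r ^ 3 ≤ 27 * (volume P).toReal := by
  have h1 : {q | (A q ∩ P).Nonempty}.ncard ≤ {m : Fin 3 → ℤ | (Qc a r m ∩ P).Nonempty}.ncard := by
    refine Set.ncard_le_ncard_of_injOn φ ?_ hφ.injOn (count_set_finite hc hb hr hz a)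
    rintro q ⟨x, hx, hxP⟩
    exact ⟨x, hA q hx, hxP⟩
  have h2 := count_cubes hc hb hr hz a
  have h3 : (({q | (A q ∩ P).Nonempty}.ncard : ℝ)) ≤
      ({m : Fin 3 → ℤ | (Qc a r m ∩ P).Nonempty}.ncard : ℝ) := by exact_mod_cast h1
  exact (mul_le_mul_of_nonneg_right h3 (by positivity)).trans h2

theorem idx_count_enn {P : Set E3} (hc : Convex ℝ P) (hb : IsCompact P) {r : ℝ} (hr : 0 < r)
    {z : E3} (hz : ∀ x : E3, (∀ i, |x i - z i| ≤ r / 2) → x ∈ P) (a : E3)
    (hφ : Function.Injective φ) (hA : ∀ q, A q ⊆ Qc a r (φ q)) (S : Finset Q)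
    (hS : ∀ q ∈ S, (A q ∩ P).Nonempty) :
    (S.card : ℝ≥0∞) * ENNReal.ofReal (r ^ 3) ≤ 27 * volume P := by
  have hfin : volume P ≠ ⊤ := hb.measure_lt_top.ne
  have h1 : S.card ≤ {q | (A q ∩ P).Nonempty}.ncard := by
    rw [← Set.ncard_coe_finset]
    exact Set.ncard_le_ncard (fun q hq => hS q hq) (idx_finite hc hb hr hz a hφ hA)
  have h2 := idx_count hc hb hr hz a hφ hA
  have h3 : (S.card : ℝ) * r ^ 3 ≤ 27 * (volume P).toReal := by
    refine le_trans (mul_le_mul_of_nonneg_right ?_ (by positivity)) h2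
    exact_mod_cast h1
  have h4 : (27 : ℝ≥0∞) * volume P = ENNReal.ofReal (27 * (volume P).toReal) := by
    rw [ENNReal.ofReal_mul (by norm_num), ENNReal.ofReal_toReal hfin]
    congr 1
    norm_num
  have h5 : (S.card : ℝ≥0∞) * ENNReal.ofReal (r ^ 3) = ENNReal.ofReal (S.card * r ^ 3) := by
    rw [ENNReal.ofReal_mul (by positivity), ENNReal.ofReal_natCast]
  rw [h4, h5]
  exact ENNReal.ofReal_le_ofReal h3

/-- **sum over the squares of the maximum over the tiles which meet the square** -/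
theorem sum_sup_le {ι : Type*} {P : ι → Set E3} (hc : ∀ i, Convex ℝ (P i))
    (hb : ∀ i, IsCompact (P i)) {r : ℝ} (hr : 0 < r) {z : ι → E3}
    (hz : ∀ i, ∀ x : E3, (∀ k, |x k - z i k| ≤ r / 2) → x ∈ P i) (a : E3)
    (hφ : Function.Injective φ) (hA : ∀ q, A q ⊆ Qc a r (φ q)) (S : Finset Q) (w : ι → ℝ≥0∞) :
    ∑ q ∈ S, (⨆ i, ⨆ _ : (A q ∩ P i).Nonempty, w i) * ENNReal.ofReal (r ^ 3) ≤
      27 * ∑' i, w i * volume (P i) := by
  classical
  have h1 : ∀ q ∈ S, (⨆ i, ⨆ _ : (A q ∩ P i).Nonempty, w i) * ENNReal.ofReal (r ^ 3) ≤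
      ∑' i, (if (A q ∩ P i).Nonempty then w i else 0) * ENNReal.ofReal (r ^ 3) := by
    intro q _
    rw [ENNReal.tsum_mul_right]
    gcongr
    refine iSup_le fun i => iSup_le fun hi => ?_
    refine le_trans (le_of_eq ?_) (ENNReal.le_tsum i)
    rw [if_pos hi]
  refine (Finset.sum_le_sum h1).trans ?_
  rw [← Summable.tsum_finsetSum (fun _ _ => ENNReal.summable), ← ENNReal.tsum_mul_left]
  · refine ENNReal.tsum_le_tsum fun i => ?_
    have h2 := idx_count_enn (hc i) (hb i) hr (hz i) a hφ hA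
      (S.filter fun q => (A q ∩ P i).Nonempty) (fun q hq => (Finset.mem_filter.1 hq).2)
    calc ∑ q ∈ S, (if (A q ∩ P i).Nonempty then w i else 0) * ENNReal.ofReal (r ^ 3)
        = ∑ q ∈ S.filter (fun q => (A q ∩ P i).Nonempty), w i * ENNReal.ofReal (r ^ 3) := by
          rw [Finset.sum_filter]
          refine Finset.sum_congr rfl fun q _ => ?_
          split_ifs <;> simp
      _ = w i * (((S.filter fun q => (A q ∩ P i).Nonempty).card : ℝ≥0∞) *
            ENNReal.ofReal (r ^ 3)) := by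
          rw [Finset.sum_const, nsmul_eq_mul]
          ring
      _ ≤ w i * (27 * volume (P i)) := by gcongr
      _ = 27 * (w i * volume (P i)) := by ring

end Idx

end Crest.Agent.R096.Cnt1_197
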