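import Crest.Agent.R096.Msh2_715
import Crest.Agent.R96.Sg1_199

/-!
# Row 96 (S0127), helper324: the cells of all shifted meshes form a countable family up to the shift

`HS T a 𝓗` : every inequality of every tile of `T` is an inequality of `𝓗` translated by `a`.
If `𝓗` is countable then the closed cells of all such tilings `T` (all shifts `a`) are the translates by
`a` of countably many polyhedra `pol F`, the 1-cells are `sgm (ex j + a) (ev j)`, `j : Eix 𝓗` countable.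
-/

set_option autoImplicit false
set_option linter.unusedSectionVars false

open MeasureTheory Set Filter Topology Metric

namespace Crest.Agent.R096.Cnt_324

open Crest.Agent.R096.Msh_715 Crest.Agent.R96.Sg1_199

noncomputable section

variable {E : Type*} [NormedAddCommGroup E] [NormedSpace ℝ E]

/-- all inequalities of `T` are inequalities of `𝓗` translated by `a` -/
def HS {Om : Set E} {ι : Type*} (T : Tiling Om ι) (a : E) (𝓗 : Set ((E →L[ℝ] ℝ) × ℝ)) : Prop :=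
  ∀ i, ∀ h ∈ T.H i, (h.1, h.2 - h.1 a) ∈ 𝓗

/-- the codes -/
abbrev Cod (𝓗 : Set ((E →L[ℝ] ℝ) × ℝ)) : Type _ := Finset (𝓗 × Bool)

/-- the polyhedron of a code -/
def pol {𝓗 : Set ((E →L[ℝ] ℝ) × ℝ)} (F : Cod 𝓗) : Set E :=
  {y | ∀ q ∈ F, q.1.1.1 y ≤ q.1.1.2 ∧ (q.2 = true → q.1.1.1 y = q.1.1.2)}

instance countable_cod {𝓗 : Set ((E →L[ℝ] ℝ) × ℝ)} [Countable 𝓗] : Countable (Cod 𝓗) :=
  inferInstance

variable {Om : Set E} {ι : Type*} {T : Tiling Om ι} {a : E} {𝓗 : Set ((E →L[ℝ] ℝ) × ℝ)}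

/-- **the closed cells are translates of the polyhedra of the codes** -/
theorem cell_code (h : HS T a 𝓗) {z : E} (hz : z ∈ Om) :
    ∃ F : Cod 𝓗, ∀ y, y ∈ T.cc z ↔ y - a ∈ pol F := by
  classical
  set S : Set (𝓗 × Bool) := {q | ∃ i ∈ T.at_ z, ∃ g ∈ T.H i, q.1.1 = (g.1, g.2 - g.1 a) ∧
    (q.2 = true ↔ g.1 z = g.2)} with hS
  have hfin : S.Finite := by
    have h1 : (⋃ i ∈ T.at_ z, (T.H i : Set ((E →L[ℝ] ℝ) × ℝ))).Finite :=
      (T.at_finite hz).biUnion fun i _ => (T.H i).finite_toSet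
    have h2 : ((fun g : (E →L[ℝ] ℝ) × ℝ => ((g.1, g.2 - g.1 a) : (E →L[ℝ] ℝ) × ℝ)) ''
      (⋃ i ∈ T.at_ z, (T.H i : Set ((E →L[ℝ] ℝ) × ℝ)))).Finite := h1.image _
    have h3 : (Subtype.val ⁻¹' ((fun g : (E →L[ℝ] ℝ) × ℝ => ((g.1, g.2 - g.1 a) : (E →L[ℝ] ℝ) × ℝ)) ''
      (⋃ i ∈ T.at_ z, (T.H i : Set ((E →L[ℝ] ℝ) × ℝ)))) : Set 𝓗).Finite :=
      h2.preimage Subtype.val_injective.injOn
    refine (h3.prod (Set.finite_univ (α := Bool))).subset ?_
    rintro ⟨q, b⟩ ⟨i, hi, g, hg, hq, -⟩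
    exact ⟨⟨g, Set.mem_biUnion hi hg, hq.symm⟩, Set.mem_univ _⟩
  refine ⟨hfin.toFinset, fun y => ⟨fun hy q hq => ?_, fun hy i hi g hg => ?_⟩⟩
  · rw [hfin.mem_toFinset] at hq
    obtain ⟨i, hi, g, hg, hq1, hq2⟩ := hq
    obtain ⟨h1, h2⟩ := hy i hi g hg
    rw [hq1, map_sub]
    refine ⟨by linarith, fun hb => ?_⟩
    have := h2 (hq2.1 hb)
    linarith
  · have hm : (g.1, g.2 - g.1 a) ∈ 𝓗 := h i g hg
    have hq : ((⟨(g.1, g.2 - g.1 a), hm⟩, decide (g.1 z = g.2)) : 𝓗 × Bool) ∈ hfin.toFinset := by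
      rw [hfin.mem_toFinset]
      exact ⟨i, hi, g, hg, rfl, by simp⟩
    obtain ⟨h1, h2⟩ := hy _ hq
    simp only [map_sub] at h1 h2
    refine ⟨by linarith, fun he => ?_⟩
    have := h2 (by simpa using he)
    linarith

theorem cell_code' (h : HS T a 𝓗) {z : E} (hz : z ∈ Om) :
    ∃ F : Cod 𝓗, T.cc z = (fun y => y + a) '' pol F := by
  obtain ⟨F, hF⟩ := cell_code h hz
  refine ⟨F, ?_⟩
  ext y
  rw [hF y]
  constructor
  · intro hy
    exact ⟨y - a, hy, sub_add_cancel y a⟩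
  · rintro ⟨y', hy', rfl⟩
    show y' + a - a ∈ pol F
    rwa [add_sub_cancel_right]

/-! ### 1-cells -/

/-- the codes of the segments -/
def Eix (𝓗 : Set ((E →L[ℝ] ℝ) × ℝ)) : Type _ :=
  {F : Cod 𝓗 // ∃ x v : E, v ≠ 0 ∧ pol F = sgm x v}

instance [Countable 𝓗] : Countable (Eix 𝓗) := by
  unfold Eix; infer_instance

/-- the initial point of the segment `j` -/
def ex (j : Eix 𝓗) : E := j.2.choose

/-- the direction of the segment `j` -/
def ev (j : Eix 𝓗) : E := j.2.choose_spec.choose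

theorem ev_ne (j : Eix 𝓗) : ev j ≠ 0 := j.2.choose_spec.choose_spec.1

theorem pol_eq (j : Eix 𝓗) : pol j.1 = sgm (ex j) (ev j) := j.2.choose_spec.choose_spec.2

theorem sgm_add (x v a : E) : sgm (x + a) v = (fun y => y + a) '' sgm x v := by
  ext y
  rw [mem_sgm]
  constructor
  · rintro ⟨τ, hτ, rfl⟩
    exact ⟨x + τ • v, mem_sgm.2 ⟨τ, hτ, rfl⟩, by show x + τ • v + a = _; abel⟩
  · rintro ⟨y', hy', rfl⟩
    obtain ⟨τ, hτ, rfl⟩ := mem_sgm.1 hy'
    exact ⟨τ, hτ, by show _ = x + τ • v + a; abel⟩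

theorem sgm_sub (x v a : E) : sgm (x - a) v = (fun y => y - a) '' sgm x v := by
  have h := sgm_add x v (-a)
  rw [← sub_eq_add_neg] at h
  rw [h]
  congr 1
  funext y
  exact (sub_eq_add_neg y a).symm

/-- **the 1-cells of all shifted meshes** -/
theorem edge_code [FiniteDimensional ℝ E] (h : HS T a 𝓗) {z : E} (hz : z ∈ Om)
    (hd : T.dim z = 1) : ∃ j : Eix 𝓗, T.cc z = sgm (ex j + a) (ev j) := by
  obtain ⟨F, hF⟩ := cell_code' h hz
  obtain ⟨p, q, hpq, hcc, -⟩ := T.edge_eq hz hd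
  have h1 : T.cc z = sgm p (q - p) := by
    rw [sgm_eq_segment, add_sub_cancel, hcc]
  have h2 : pol F = sgm (p - a) (q - p) := by
    rw [sgm_sub, ← h1, hF, Set.image_image]
    simp
  refine ⟨⟨F, p - a, q - p, sub_ne_zero.2 hpq.symm, h2⟩, ?_⟩
  rw [hF, sgm_add]
  congr 1
  exact pol_eq (⟨F, p - a, q - p, sub_ne_zero.2 hpq.symm, h2⟩ : Eix 𝓗)

/-! ### fixed points are in the open tiles for almost all shifts -/

/-- the codes of polyhedra in proper affine subspaces -/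
theorem pol_proper {z : E} (hV : T.V z ≠ ⊤) {F : Cod 𝓗}
    (hF : ∀ y, y ∈ T.cc z ↔ y - a ∈ pol F) :
    ∃ (V : Submodule ℝ E) (x : E), V ≠ ⊤ ∧ pol F ⊆ {y | y - x ∈ V} := by
  refine ⟨T.V z, z - a, hV, fun y hy => ?_⟩
  have h1 : y + a ∈ T.cc z := by
    rw [hF, add_sub_cancel_right]
    exact hy
  have h2 := T.sub_mem_V h1
  show y - (z - a) ∈ T.V z
  have e : y - (z - a) = y + a - z := by abel
  rw [e]
  exact h2

/-- **for almost every shift the point `x0` is on no cell of smaller dimension** -/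
theorem ae_top [FiniteDimensional ℝ E] [MeasurableSpace E] [BorelSpace E] (μ : Measure E)
    [μ.IsAddHaarMeasure] (h𝓗 : 𝓗.Countable) (x0 : E) :
    ∀ᵐ a ∂μ, ∀ (Om : Set E) (ι : Type) (T : Tiling Om ι), HS T a 𝓗 → ∀ z ∈ Om, T.V z ≠ ⊤ →
      x0 ∉ T.cc z := by
  have : Countable 𝓗 := h𝓗.to_subtype
  have h1 : ∀ F : {F : Cod 𝓗 // ∃ (V : Submodule ℝ E) (x : E), V ≠ ⊤ ∧ pol F ⊆ {y | y - x ∈ V}},
      ∀ᵐ a ∂μ, x0 - a ∉ pol F.1 := by
    rintro ⟨F, V, x, hV, hF⟩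
    have h2 : μ {a | x0 - a - x ∈ V} = 0 := by
      have h3 : {a | x0 - a - x ∈ V} = (fun a => a + -(x0 - x)) ⁻¹' (V : Set E) := by
        ext a
        rw [mem_ofPred_eq, mem_preimage, SetLike.mem_coe, ← V.neg_mem_iff]
        have e : -(x0 - a - x) = a + -(x0 - x) := by abel
        rw [e]
      rw [h3, measure_preimage_add_right]
      exact Measure.addHaar_submodule μ V hV
    refine measure_mono_null (fun a ha => ?_) h2
    rw [mem_compl_iff, mem_ofPred_eq, not_not] at ha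
    exact hF ha
  filter_upwards [ae_all_iff.2 h1] with a ha Om ι T hT z hz hV hx0
  obtain ⟨F, hF⟩ := cell_code hT hz
  exact ha ⟨F, pol_proper hV hF⟩ ((hF x0).1 hx0)

end

end Crest.Agent.R096.Cnt_324
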