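import Crest.Agent.R096.SkN1_477

/-!
Row 96 (S0127), helper477.  **Interface of the near-optimality assembly** between NO0-PRE (582,
before the machine) and the part after the machine.  Definitions and elementary facts only.

Everything in the stretched coordinates on `E3 = Fin 3 → ℝ`; `Om = QL L`.
* slices `x 2 = a 2 + r m`, `m ∈ Zs`; in every slice a square block of `M × M` squares of side `r`,
  vertices `vx a r o m v`, `v : Fin 2 → ℕ`, `v j ≤ M`.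
* uniform squares (`U m v`): they are closed 2-cells, their sides closed 1-cells, the cube above is a
  tile of standard shape.  (`p < 3`: all squares; `p ≥ 3`: all but a small fraction.)
-/

set_option autoImplicit false
set_option linter.style.longLine false
set_option linter.unusedSectionVars false

open MeasureTheory Set Filter Topology Metric
open scoped ENNReal

namespace Crest.Agent.R096.No0_477

open Crest.Agent.R096.Bsp_628 Crest.Agent.R096.Brk1_582 Crest.Agent.R096.Brk3_582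
open Crest.Agent.R096.Brk5_582
open Crest.Agent.R096.Msh_715
open Crest.Agent.R096.SkC1_961 Crest.Agent.R096.SkN1_477

noncomputable section

/-- vertex `v` of the slice `m` -/
def vx (a : E3) (r : ℝ) (o : Fin 2 → ℤ) (m : ℤ) (v : Fin 2 → ℕ) : E3 :=
  ![a 0 + r * (o 0 + v 0), a 1 + r * (o 1 + v 1), a 2 + r * m]

/-- the neighbour of `v` in direction `j` -/
def nx (v : Fin 2 → ℕ) (j : Fin 2) : Fin 2 → ℕ := fun i => v i + if i = j then 1 else 0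

/-- the frame at the point `w` with unit `r` -/
def fr (w : E3) (r : ℝ) (hr : r ≠ 0) : E3 ≃ᵃ[ℝ] E3 :=
  (AffineEquiv.constVAdd ℝ E3 (-w)).trans
    (LinearEquiv.smulOfNeZero ℝ E3 r⁻¹ (inv_ne_zero hr)).toAffineEquiv

theorem fr_apply (w : E3) {r : ℝ} (hr : r ≠ 0) (x : E3) : fr w r hr x = r⁻¹ • (x - w) := by
  simp [fr, sub_eq_add_neg, add_comm]

theorem fr_symm_apply (w : E3) {r : ℝ} (hr : r ≠ 0) (y : E3) :
    (fr w r hr).symm y = w + r • y := by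
  rw [AffineEquiv.symm_apply_eq, fr_apply, add_sub_cancel_left, smul_smul, inv_mul_cancel₀ hr,
    one_smul]

/-- closed cube with lowest corner `w` -/
def cub (w : E3) (r : ℝ) : Set E3 := {x | ∀ i, w i ≤ x i ∧ x i ≤ w i + r}

/-- middle of the square with lowest corner `w` (horizontal) -/
def mf (w : E3) (r : ℝ) : E3 := ![w 0 + r / 2, w 1 + r / 2, w 2]

/-- middle of the edge from `w` in direction `j` -/
def me (w : E3) (r : ℝ) (j : Fin 2) : E3 := ![w 0 + if j = 0 then r / 2 else 0,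
  w 1 + if j = 1 then r / 2 else 0, w 2]

section Pre

variable {δ κ0 R c0 : ℝ} {La Om : Set E3} {ι : Type}

/-- **geometry of the slices** -/
structure NOGeo (T : Tiling Om ι) (Ex : Set ι) (𝒬 : Set (Set E3)) (L : ℕ) (η r : ℝ) (hr : r ≠ 0)
    (a : E3) (o : Fin 2 → ℤ) (M : ℕ) (Zs : Finset ℤ) (U : ℤ → (Fin 2 → ℕ) → Prop) : Prop where
  r0 : 0 < r
  M0 : 0 < M
  lo : ∀ j : Fin 2, a j.castSucc + r * o j ≤ -(1 - η) ∧ -1 < a j.castSucc + r * o j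
  hi : ∀ j : Fin 2, 1 - η ≤ a j.castSucc + r * (o j + M) ∧ a j.castSucc + r * (o j + M) < 1
  zne : Zs.Nonempty
  zs : ∀ m ∈ Zs, |(L : ℝ) * (a 2 + r * m)| ≤ 1 / 2
  tile : ∀ m ∈ Zs, ∀ v, (∀ j, v j < M) → U m v → ∃ i, P (T.H i) = cub (vx a r o m v) r ∧
    (fun K => fr (vx a r o m v) r hr '' K) '' Cfg T i = 𝒬 ∧
    ∀ j ∈ Ex, Disjoint (P (T.H i)) (P (T.H j))
  face : ∀ m ∈ Zs, ∀ v, (∀ j, v j < M) → U m v → T.dim (mf (vx a r o m v) r) = 2 ∧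
    T.cc (mf (vx a r o m v) r) = usq (fr (vx a r o m v) r hr)
  edge : ∀ m ∈ Zs, ∀ v, (∀ j, v j < M) → U m v → ∀ (j : Fin 2) (b : ℕ), b = 0 ∨ b = 1 →
    ∃ z ∈ Om, T.dim z = 1 ∧ T.cc z = side (fr (vx a r o m v) r hr) j b
  off : ∀ m ∈ Zs, ∀ v, (∀ j, v j < M) → U m v → ∀ x ∈ cub (vx a r o m v) r, ∀ i,
    x ∈ P (T.H i) → i ∉ Ex

/-- the designated 2-cells -/
def DsN (a : E3) (r : ℝ) (o : Fin 2 → ℤ) (M : ℕ) (Zs : Finset ℤ) (U : ℤ → (Fin 2 → ℕ) → Prop) :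
    Set E3 :=
  {x | ∃ m ∈ Zs, ∃ v, (∀ j, v j < M) ∧ U m v ∧ x = mf (vx a r o m v) r}

/-- frame at the middle of a square -/
def frN (r : ℝ) (hr : r ≠ 0) (x : E3) : E3 ≃ᵃ[ℝ] E3 :=
  fr ![x 0 - r / 2, x 1 - r / 2, x 2] r hr

/-- the faces (index `(m, v)`) -/
def Fc (M : ℕ) (Zs : Finset ℤ) : Finset (ℤ × (Fin 2 → ℕ)) :=
  Zs ×ˢ Fintype.piFinset fun _ : Fin 2 => Finset.range M

/-- **the labels on the closed set `A`**: `T u` is affine in two labels, the others are constant. -/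
structure QF (Φ : FoamD δ κ0 R c0 La) (κ : Φ.F → ℕ) (L : Φ.F → Finset ℝ) (u : E3 → Φ.F → ℝ)
    (A : Set E3) (c1 c2 : Φ.F) (σ1 σ2 w : ℝ) (b : E3) : Prop where
  ne : c1 ≠ c2
  w0 : 0 < w
  w1 : (L c1).card * (2 : ℝ)⁻¹ ^ κ c1 = w
  w2 : (L c2).card * (2 : ℝ)⁻¹ ^ κ c2 = w
  sg1 : σ1 = 1 ∨ σ1 = -1
  sg2 : σ2 = 1 ∨ σ2 = -1
  form : ∀ y ∈ A, Brk1_582.T (bc (F := Φ.F)) (u y) =
    b + (σ1 * w * u y c1) • (Pi.single 0 1 : E3) + (σ2 * w * u y c2) • (Pi.single 1 1 : E3)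
  oth : ∀ c, c ≠ c1 → c ≠ c2 → ∀ y ∈ A, ∀ y' ∈ A, u y c = u y' c
  par : ∀ y ∈ A, Par (u y)

/-- weight of the INITIAL points on the closed cell `A` -/
def Vw (Φ : FoamD δ κ0 R c0 La) (f : E3 → E3) (κ : Φ.F → ℕ) (L : Φ.F → Finset ℝ) (A : Set E3) :
    ℝ≥0∞ :=
  ∑' c : Φ.F, ENNReal.ofReal ((2 : ℝ)⁻¹ ^ κ c) *
    ∑ t ∈ L c, (({y ∈ A | Φ.lev c (f y) = t}.encard : ℕ∞) : ℝ≥0∞)

/-- **the numbers of the slices** (normalised by `r`): all averages are small.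
`x j m v` = excess on the edge `(m, v)` of direction `j`; `X m v` = excess on the square;
`K1` = Lipschitz bound of the machine on pure squares; `N0 = #Zs * M ^ 2`. -/
structure NONum (p : ℝ) (Φ : FoamD δ κ0 R c0 La) (f : E3 → E3) (κ : Φ.F → ℕ) (L : Φ.F → Finset ℝ)
    (s : Fin 3 → ℝ) (ε K1 r : ℝ) (hr : r ≠ 0) (a : E3) (o : Fin 2 → ℤ) (M : ℕ) (Zs : Finset ℤ)
    (U : ℤ → (Fin 2 → ℕ) → Prop) (g : E3 → E3) (u : E3 → Φ.F → ℝ) : Prop where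
  /-- number of the squares which are not uniform or without quad -/
  good : (({q : ℤ × (Fin 2 → ℕ) | q ∈ Fc M Zs ∧ ¬ (U q.1 q.2 ∧ ∃ c1 c2 σ1 σ2 w b,
    QF Φ κ L u (cub (vx a r o q.1 q.2) r) c1 c2 σ1 σ2 w b ∧
    (2 : ℝ)⁻¹ ^ κ c1 ≤ ε * r ∧ (2 : ℝ)⁻¹ ^ κ c2 ≤ ε * r)}).ncard : ℝ) ≤
      ε * ((Zs.card : ℝ) * M ^ 2)
  /-- initial weight of the edges of uniform squares -/
  wt : ∃ x : Fin 2 → ℤ → (Fin 2 → ℕ) → ℝ, (∀ j m v, 0 ≤ x j m v) ∧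
    (∀ m ∈ Zs, ∀ v, (∀ j, v j < M) → U m v → ∀ (j : Fin 2) (b : ℕ), b = 0 ∨ b = 1 →
      Vw Φ f κ L (side (fr (vx a r o m v) r hr) j b) ≤
        ENNReal.ofReal (r * (s j.castSucc +
          x j m (fun i => v i + if i = j then 0 else b)))) ∧
    ∀ j, ∑ m ∈ Zs, ∑ v ∈ Fintype.piFinset fun _ : Fin 2 => Finset.range (M + 1), x j m v ≤
      ε * ((Zs.card : ℝ) * M ^ 2)
  /-- ends of the lines -/
  ends : ∀ j : Fin 2, ∑ m ∈ Zs, ∑ t ∈ Finset.range (M + 1),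
    |(g (vx a r o m (fun i => if i = j then M else t)) -
      g (vx a r o m (fun i => if i = j then 0 else t))) j.castSucc - s j.castSucc * (M * r)| ≤
      ε * ((Zs.card : ℝ) * M)
  /-- Lipschitz bounds on the squares -/
  lip : ∃ X : ℤ → (Fin 2 → ℕ) → ℝ, (∀ m v, 0 ≤ X m v) ∧
    (∀ m ∈ Zs, ∀ v, (∀ j, v j < M) → ∀ y ∈ usq (fr (vx a r o m v) r hr),
      ∀ y' ∈ usq (fr (vx a r o m v) r hr), ‖g y - g y'‖ ≤ (K1 + X m v) * ‖y - y'‖) ∧
    ∑ q ∈ Fc M Zs, X q.1 q.2 ^ p ≤ ε * ((Zs.card : ℝ) * M ^ 2)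

end Pre

end

end Crest.Agent.R096.No0_477
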