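import Crest.Agent.R096.Cnt1_197
import Crest.Agent.R096.No0_477

/-!
Row 96 (S0127), leaf [C] COUNT of helper962 #10270: the squares and cubes of `No0_477` which meet a
convex tile containing a cube of the same side; sums of maxima over the tiles.
-/

set_option autoImplicit false
set_option linter.style.longLine false
set_option maxHeartbeats 40000

open MeasureTheory Set Filter Topology Metric
open scoped ENNReal

namespace Crest.Agent.R096.Cnt2_197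

open Crest.Agent.R096.SkN1_477 Crest.Agent.R096.No0_477 Crest.Agent.R096.Cnt1_197

/-- index of the cube above the square `(m, v)` -/
def ix (o : Fin 2 → ℤ) (q : ℤ × (Fin 2 → ℕ)) : Fin 3 → ℤ :=
  ![o 0 + q.2 0, o 1 + q.2 1, q.1]

theorem ix_inj (o : Fin 2 → ℤ) : Function.Injective (ix o) := by
  intro q q' h
  have h0 := congrFun h 0
  have h1 := congrFun h 1
  have h2 := congrFun h 2
  simp only [ix, Matrix.cons_val_zero, Matrix.cons_val_one, Matrix.cons_val] at h0 h1 h2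
  refine Prod.ext h2 ?_
  funext j
  fin_cases j
  · simp only [Fin.zero_eta, Fin.isValue]
    omega
  · simp only [Fin.mk_one, Fin.isValue]
    omega

theorem cub_sub (a : E3) (r : ℝ) (o : Fin 2 → ℤ) (q : ℤ × (Fin 2 → ℕ)) :
    cub (vx a r o q.1 q.2) r ⊆ Qc a r (ix o q) := by
  intro x hx i
  have h := hx i
  fin_cases i
  all_goals
    simp only [vx, ix, Fin.zero_eta, Fin.mk_one, Fin.reduceFinMk, Fin.isValue,
      Matrix.cons_val_zero, Matrix.cons_val_one, Matrix.cons_val] at h ⊢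
    push_cast
    constructor <;> linarith [h.1, h.2]

theorem usq_sub_cub (w : E3) {r : ℝ} (hr : 0 < r) :
    usq (fr w r hr.ne') ⊆ cub w r := by
  rintro x ⟨y, hy, hyx⟩ i
  rw [fr_apply] at hyx
  have h1 : x = w + r • emb y := by
    rw [hyx, smul_smul, mul_inv_cancel₀ hr.ne', one_smul]
    abel
  rw [h1]
  have h2 : 0 ≤ emb y i ∧ emb y i ≤ 1 := by
    fin_cases i
    · exact hy 0
    · exact hy 1
    · simp [emb]
  simp only [Pi.add_apply, Pi.smul_apply, smul_eq_mul]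
  constructor
  · nlinarith [h2.1]
  · nlinarith [h2.2]

theorem usq_sub (a : E3) {r : ℝ} (hr : 0 < r) (o : Fin 2 → ℤ) (q : ℤ × (Fin 2 → ℕ)) :
    usq (fr (vx a r o q.1 q.2) r hr.ne') ⊆ Qc a r (ix o q) :=
  (usq_sub_cub _ hr).trans (cub_sub a r o q)

section Gen

variable {P : Set E3} (hc : Convex ℝ P) (hb : IsCompact P) {r : ℝ} (hr : 0 < r)
  {z : E3} (hz : ∀ x : E3, (∀ i, |x i - z i| ≤ r / 2) → x ∈ P) (a : E3) (o : Fin 2 → ℤ)
  (A : ℤ × (Fin 2 → ℕ) → Set E3) (hA : ∀ q, A q ⊆ Qc a r (ix o q))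

include hc hb hr hz hA

theorem fin_of : {q : ℤ × (Fin 2 → ℕ) | (A q ∩ P).Nonempty}.Finite :=
  idx_finite hc hb hr hz a (ix_inj o) hA

theorem count_of : ({q : ℤ × (Fin 2 → ℕ) | (A q ∩ P).Nonempty}.ncard : ℝ) * r ^ 3 ≤
    27 * (volume P).toReal :=
  idx_count hc hb hr hz a (ix_inj o) hA

end Gen

theorem sum_of {ι : Type*} {P : ι → Set E3} (hc : ∀ i, Convex ℝ (P i))
    (hb : ∀ i, IsCompact (P i)) {r : ℝ} (hr : 0 < r) {z : ι → E3}
    (hz : ∀ i, ∀ x : E3, (∀ k, |x k - z i k| ≤ r / 2) → x ∈ P i) (a : E3) (o : Fin 2 → ℤ)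
    (A : ℤ × (Fin 2 → ℕ) → Set E3) (hA : ∀ q, A q ⊆ Qc a r (ix o q))
    (S : Finset (ℤ × (Fin 2 → ℕ))) (w : ι → ℝ≥0∞) :
    ∑ q ∈ S, (⨆ i, ⨆ _ : (A q ∩ P i).Nonempty, w i) * ENNReal.ofReal (r ^ 3) ≤
      27 * ∑' i, w i * volume (P i) :=
  sum_sup_le hc hb hr hz a (ix_inj o) hA S w

/-- number of the horizontal squares which meet a tile -/
theorem count_squares {P : Set E3} (hc : Convex ℝ P) (hb : IsCompact P) {r : ℝ} (hr : 0 < r)
    {z : E3} (hz : ∀ x : E3, (∀ i, |x i - z i| ≤ r / 2) → x ∈ P) (a : E3) (o : Fin 2 → ℤ) :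
    ({q : ℤ × (Fin 2 → ℕ) | (usq (fr (vx a r o q.1 q.2) r hr.ne') ∩ P).Nonempty}.ncard : ℝ)
      * r ^ 3 ≤ 27 * (volume P).toReal := by
  refine count_of hc hb hr hz a o (fun q => usq (fr (vx a r o q.1 q.2) r hr.ne')) ?_
  intro q
  exact usq_sub a hr o q

theorem squares_finite {P : Set E3} (hc : Convex ℝ P) (hb : IsCompact P) {r : ℝ} (hr : 0 < r)
    {z : E3} (hz : ∀ x : E3, (∀ i, |x i - z i| ≤ r / 2) → x ∈ P) (a : E3) (o : Fin 2 → ℤ) :
    {q : ℤ × (Fin 2 → ℕ) | (usq (fr (vx a r o q.1 q.2) r hr.ne') ∩ P).Nonempty}.Finite := by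
  refine fin_of hc hb hr hz a o (fun q => usq (fr (vx a r o q.1 q.2) r hr.ne')) ?_
  intro q
  exact usq_sub a hr o q

/-- number of the closed cubes which meet a tile -/
theorem count_cub {P : Set E3} (hc : Convex ℝ P) (hb : IsCompact P) {r : ℝ} (hr : 0 < r)
    {z : E3} (hz : ∀ x : E3, (∀ i, |x i - z i| ≤ r / 2) → x ∈ P) (a : E3) (o : Fin 2 → ℤ) :
    ({q : ℤ × (Fin 2 → ℕ) | (cub (vx a r o q.1 q.2) r ∩ P).Nonempty}.ncard : ℝ)
      * r ^ 3 ≤ 27 * (volume P).toReal := by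
  refine count_of hc hb hr hz a o (fun q => cub (vx a r o q.1 q.2) r) ?_
  intro q
  exact cub_sub a r o q

theorem cub_finite {P : Set E3} (hc : Convex ℝ P) (hb : IsCompact P) {r : ℝ} (hr : 0 < r)
    {z : E3} (hz : ∀ x : E3, (∀ i, |x i - z i| ≤ r / 2) → x ∈ P) (a : E3) (o : Fin 2 → ℤ) :
    {q : ℤ × (Fin 2 → ℕ) | (cub (vx a r o q.1 q.2) r ∩ P).Nonempty}.Finite := by
  refine fin_of hc hb hr hz a o (fun q => cub (vx a r o q.1 q.2) r) ?_
  intro q
  exact cub_sub a r o q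

/-- **sum over the horizontal squares** of the maximum of `w i` over the tiles which meet the square -/
theorem squares_sum_sup_le {ι : Type*} {P : ι → Set E3} (hc : ∀ i, Convex ℝ (P i))
    (hb : ∀ i, IsCompact (P i)) {r : ℝ} (hr : 0 < r) {z : ι → E3}
    (hz : ∀ i, ∀ x : E3, (∀ k, |x k - z i k| ≤ r / 2) → x ∈ P i) (a : E3) (o : Fin 2 → ℤ)
    (S : Finset (ℤ × (Fin 2 → ℕ))) (w : ι → ℝ≥0∞) :
    ∑ q ∈ S, (⨆ i, ⨆ _ : (usq (fr (vx a r o q.1 q.2) r hr.ne') ∩ P i).Nonempty, w i) *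
      ENNReal.ofReal (r ^ 3) ≤ 27 * ∑' i, w i * volume (P i) := by
  refine sum_of hc hb hr hz a o (fun q => usq (fr (vx a r o q.1 q.2) r hr.ne')) ?_ S w
  intro q
  exact usq_sub a hr o q

/-- the same for the closed cubes -/
theorem cub_sum_sup_le {ι : Type*} {P : ι → Set E3} (hc : ∀ i, Convex ℝ (P i))
    (hb : ∀ i, IsCompact (P i)) {r : ℝ} (hr : 0 < r) {z : ι → E3}
    (hz : ∀ i, ∀ x : E3, (∀ k, |x k - z i k| ≤ r / 2) → x ∈ P i) (a : E3) (o : Fin 2 → ℤ)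
    (S : Finset (ℤ × (Fin 2 → ℕ))) (w : ι → ℝ≥0∞) :
    ∑ q ∈ S, (⨆ i, ⨆ _ : (cub (vx a r o q.1 q.2) r ∩ P i).Nonempty, w i) *
      ENNReal.ofReal (r ^ 3) ≤ 27 * ∑' i, w i * volume (P i) := by
  refine sum_of hc hb hr hz a o (fun q => cub (vx a r o q.1 q.2) r) ?_ S w
  intro q
  exact cub_sub a r o q

end Crest.Agent.R096.Cnt2_197
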