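import Mathlib

/-! P5-CORE2 (row 96), part a: Jacobian of real linear maps of `ℂ`, smooth logarithms along a curve,
the degree-zero angular function of a positively homogeneous injective map of the plane. -/

set_option autoImplicit false

open Complex Set Filter Topology
open scoped ContDiff Real

namespace Crest.Agent.R096.Co2_695

/-- Jacobian of a real linear map of `ℂ`. -/
noncomputable def J (L : ℂ →L[ℝ] ℂ) : ℝ := (L 1).re * (L I).im - (L 1).im * (L I).re

theorem det_eq_J (L : ℂ →L[ℝ] ℂ) : L.det = J L := by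
  have h : L.det = LinearMap.det (L : ℂ →ₗ[ℝ] ℂ) := rfl
  rw [h, ← LinearMap.det_toMatrix basisOneI, Matrix.det_fin_two]
  simp [LinearMap.toMatrix_apply, J]
  ring

theorem apply_eq (L : ℂ →L[ℝ] ℂ) (z : ℂ) : L z = z.re * L 1 + z.im * L I := by
  have h : z = (z.re : ℝ) • (1 : ℂ) + (z.im : ℝ) • I := by
    apply Complex.ext <;> simp
  conv_lhs => rw [h]
  rw [map_add, map_smul, map_smul]
  simp

/-- The Jacobian in the frame `z, i z`. -/
theorem im_conj_mul (L : ℂ →L[ℝ] ℂ) (z : ℂ) :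
    ((starRingEnd ℂ) (L z) * L (I * z)).im = normSq z * J L := by
  rw [apply_eq L z, apply_eq L (I * z)]
  simp [J, normSq_apply]
  ring

/-- A smooth logarithm along a smooth curve without zeros. -/
theorem exists_log {γ : ℝ → ℂ} (hγ : ContDiff ℝ ∞ γ) (h0 : ∀ t, γ t ≠ 0) :
    ∃ l : ℝ → ℂ, ContDiff ℝ ∞ l ∧ (∀ t, exp (l t) = γ t) ∧
      ∀ t, HasDerivAt l (deriv γ t / γ t) t := by
  have hd : ContDiff ℝ ∞ (deriv γ) := (contDiff_infty_iff_deriv.1 hγ).2
  have hq : ContDiff ℝ ∞ (fun t => deriv γ t / γ t) := by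
    simp only [div_eq_mul_inv]
    exact hd.mul (hγ.inv h0)
  have hqc : Continuous (fun t => deriv γ t / γ t) := hq.continuous
  let l : ℝ → ℂ := fun t => log (γ 0) + ∫ x in (0 : ℝ)..t, deriv γ x / γ x
  have hl : ∀ t, HasDerivAt l (deriv γ t / γ t) t := by
    intro t
    have := (intervalIntegral.integral_hasDerivAt_right (hqc.intervalIntegrable 0 t)
      (hqc.stronglyMeasurableAtFilter _ _) hqc.continuousAt)
    exact this.const_add _
  have hls : ContDiff ℝ ∞ l := by
    rw [contDiff_infty_iff_deriv]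
    refine ⟨fun t => (hl t).differentiableAt, ?_⟩
    have : deriv l = fun t => deriv γ t / γ t := funext fun t => (hl t).deriv
    rw [this]; exact hq
  refine ⟨l, hls, ?_, hl⟩
  have hγd : ∀ t, HasDerivAt γ (deriv γ t) t := fun t =>
    ((hγ.differentiable (by simp)) t).hasDerivAt
  have hconst : ∀ t, γ t * exp (-l t) = γ 0 * exp (-l 0) := by
    have hder : ∀ t, HasDerivAt (fun t => γ t * exp (-l t)) 0 t := by
      intro t
      have h1 : HasDerivAt (fun t => γ t * exp (-l t))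
          (deriv γ t * exp (-l t) + γ t * (exp (-l t) * -(deriv γ t / γ t))) t :=
        (hγd t).mul ((hl t).neg.cexp)
      have h2 : deriv γ t * exp (-l t) + γ t * (exp (-l t) * -(deriv γ t / γ t)) = 0 := by
        have := h0 t
        field_simp
        ring
      rw [h2] at h1
      exact h1
    intro t
    exact is_const_of_deriv_eq_zero (fun t => (hder t).differentiableAt)
      (fun t => (hder t).deriv) t 0
  intro t
  have h1 := hconst t
  have h2 : l 0 = log (γ 0) := by simp [l]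
  rw [h2, exp_neg, exp_neg, exp_log (h0 0), mul_inv_cancel₀ (h0 0)] at h1
  have h3 := exp_ne_zero (l t)
  field_simp at h1
  exact h1.symm

/-- Hypotheses of P5-CORE2. -/
structure Hyp (K : ℂ → ℂ) : Prop where
  cont : Continuous K
  hom : ∀ t : ℝ, 0 < t → ∀ z, K (t * z) = t * K z
  inj : Function.Injective K
  smooth : ContDiffOn ℝ ∞ K {0}ᶜ
  det_pos : ∀ z, z ≠ 0 → 0 < (fderiv ℝ K z).det

namespace Hyp

variable {K : ℂ → ℂ} (h : Hyp K)
include h

theorem map_zero : K 0 = 0 := by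
  have h1 := h.hom 2 (by norm_num) 0
  simp only [mul_zero] at h1
  push_cast at h1
  linear_combination (-1 : ℂ) * h1

theorem ne_zero {z : ℂ} (hz : z ≠ 0) : K z ≠ 0 := fun h0 =>
  hz (h.inj (h0.trans h.map_zero.symm))

theorem contDiffAt {z : ℂ} (hz : z ≠ 0) : ContDiffAt ℝ ∞ K z :=
  h.smooth.contDiffAt (isOpen_compl_singleton.mem_nhds hz)

theorem hasFDerivAt {z : ℂ} (hz : z ≠ 0) : HasFDerivAt K (fderiv ℝ K z) z :=
  ((h.contDiffAt hz).differentiableAt (by simp)).hasFDerivAt

/-- Euler's relation. -/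
theorem euler {z : ℂ} (hz : z ≠ 0) : fderiv ℝ K z z = K z := by
  have h1 : HasDerivAt (fun t : ℝ => (t : ℂ) * z) z 1 := by
    simpa using (ofRealCLM.hasDerivAt (x := (1 : ℝ))).mul_const z
  have h2 : HasDerivAt (fun t : ℝ => K ((t : ℂ) * z)) (fderiv ℝ K z z) 1 := by
    have h3 : HasFDerivAt K (fderiv ℝ K z) (((1 : ℝ) : ℂ) * z) := by
      simpa using h.hasFDerivAt hz
    exact h3.comp_hasDerivAt (1 : ℝ) h1
  have h3 : HasDerivAt (fun t : ℝ => (t : ℂ) * K z) (K z) 1 := by
    simpa using (ofRealCLM.hasDerivAt (x := (1 : ℝ))).mul_const (K z)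
  have h4 : (fun t : ℝ => K ((t : ℂ) * z)) =ᶠ[𝓝 1] fun t : ℝ => (t : ℂ) * K z := by
    filter_upwards [lt_mem_nhds (zero_lt_one' ℝ)] with t ht using h.hom t ht z
  exact h2.unique (h3.congr_of_eventuallyEq h4)

/-- The curve `θ ↦ K (e^{iθ})`. -/
theorem curve_contDiff : ContDiff ℝ ∞ (fun t : ℝ => K (exp (t * I))) := by
  rw [contDiff_iff_contDiffAt]
  intro t
  have h1 : ContDiffAt ℝ ∞ (fun t : ℝ => exp ((t : ℂ) * I)) t :=
    ((ofRealCLM.contDiff.mul contDiff_const).cexp).contDiffAt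
  exact (h.contDiffAt (exp_ne_zero _)).comp t h1

theorem curve_hasDerivAt (t : ℝ) :
    HasDerivAt (fun t : ℝ => K (exp (t * I)))
      (fderiv ℝ K (exp (t * I)) (I * exp (t * I))) t := by
  have h1 : HasDerivAt (fun t : ℝ => exp ((t : ℂ) * I)) (I * exp (t * I)) t := by
    have h2 : HasDerivAt (fun t : ℝ => (t : ℂ) * I) I t := by
      simpa using (ofRealCLM.hasDerivAt (x := t)).mul_const I
    simpa [mul_comm] using h2.cexp
  exact (h.hasFDerivAt (exp_ne_zero _)).comp_hasDerivAt t h1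

theorem curve_im_pos (t : ℝ) :
    0 < (deriv (fun t : ℝ => K (exp (t * I))) t / K (exp (t * I))).im := by
  have hz : exp (t * I) ≠ 0 := exp_ne_zero _
  rw [(h.curve_hasDerivAt t).deriv]
  set z := exp (t * I) with hzd
  have h1 := im_conj_mul (fderiv ℝ K z) z
  rw [h.euler hz, ← det_eq_J] at h1
  have h2 : (fderiv ℝ K z (I * z) / K z) =
      ((starRingEnd ℂ) (K z) * fderiv ℝ K z (I * z)) * ((normSq (K z))⁻¹ : ℝ) := by
    have h3 := h.ne_zero hz
    rw [div_eq_mul_inv, Complex.inv_def]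
    ring
  rw [h2, im_mul_ofReal, h1]
  have h3 : 0 < normSq z := normSq_pos.2 hz
  have h4 : 0 < normSq (K z) := normSq_pos.2 (h.ne_zero hz)
  have h5 := h.det_pos z hz
  positivity

end Hyp

end Crest.Agent.R096.Co2_695
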