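import Crest.Agent.R096.Co2a_695

/-! P5-CORE2 (row 96), part b: the periodic smooth function `lam` with
`K (e^{iθ}) = e^{iθ} e^{lam θ}` (winding number one). -/

set_option autoImplicit false

open Complex Set Filter Topology
open scoped ContDiff Real

namespace Crest.Agent.R096.Co2_695

/-- The data extracted from `K`: a smooth `2π`-periodic `lam` with `K (e^{iθ}) = e^{iθ + lam θ}`
and `θ + Im (lam θ)` strictly monotone with positive derivative. -/
structure LamData (K : ℂ → ℂ) (lam : ℝ → ℂ) : Prop where
  smooth : ContDiff ℝ ∞ lam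
  per : ∀ t, lam (t + 2 * π) = lam t
  eq : ∀ t : ℝ, K (exp (t * I)) = exp (t * I + lam t)
  pos : ∀ t, 0 < 1 + (deriv lam t).im

theorem Hyp.exists_lam {K : ℂ → ℂ} (h : Hyp K) : ∃ lam, LamData K lam := by
  obtain ⟨l, hls, hle0, hld0⟩ := exists_log h.curve_contDiff fun t => h.ne_zero (exp_ne_zero _)
  obtain ⟨γ, hγ⟩ : ∃ γ : ℝ → ℂ, γ = fun t : ℝ => K (exp (t * I)) := ⟨_, rfl⟩
  have hle : ∀ t, exp (l t) = γ t := by rw [hγ]; exact hle0
  have hld : ∀ t, HasDerivAt l (deriv γ t / γ t) t := by rw [hγ]; exact hld0
  have hγper : ∀ t, γ (t + 2 * π) = γ t := by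
    intro t
    simp only [hγ]
    congr 1
    push_cast
    rw [add_mul, exp_add, exp_two_pi_mul_I, mul_one]
  have hγdper : ∀ t, deriv γ (t + 2 * π) = deriv γ t := by
    intro t
    rw [← deriv_comp_add_const]
    congr 1
    funext s
    exact hγper s
  -- `l (t + 2π) - l t` is constant
  have hder : ∀ t, HasDerivAt (fun t => l (t + 2 * π) - l t) 0 t := by
    intro t
    have h1 : HasDerivAt (fun t => l (t + 2 * π)) (deriv γ (t + 2 * π) / γ (t + 2 * π)) t :=
      (hld (t + 2 * π)).comp_add_const t (2 * π)
    rw [hγdper, hγper] at h1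
    have h2 : HasDerivAt (fun t => l (t + 2 * π) - l t) (deriv γ t / γ t - deriv γ t / γ t) t :=
      h1.sub (hld t)
    simpa using h2
  have hconst : ∀ t, l (t + 2 * π) - l t = l (0 + 2 * π) - l 0 := fun t =>
    is_const_of_deriv_eq_zero (fun t => (hder t).differentiableAt) (fun t => (hder t).deriv) t 0
  have hexp : exp (l (0 + 2 * π)) = exp (l 0) := by rw [hle, hle]; exact hγper 0
  obtain ⟨n, hn⟩ := exp_eq_exp_iff_exists_int.1 hexp
  have hn' : ∀ t, l (t + 2 * π) = l t + n * (2 * π * I) := by
    intro t
    have := hconst t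
    rw [hn] at this
    linear_combination this
  -- the angle
  have him : ∀ t, HasDerivAt (fun t => (l t).im) (deriv γ t / γ t).im t := by
    intro t
    have h1 := (hasDerivAt_const t (imCLM)).clm_apply (hld t)
    simpa using h1
  have hmono : StrictMono fun t => (l t).im := by
    apply strictMono_of_deriv_pos
    intro t
    rw [(him t).deriv, hγ]
    exact h.curve_im_pos t
  have hn0 : (0 : ℝ) < n := by
    have h1 := hmono (show (0 : ℝ) < 0 + 2 * π by positivity)
    simp only [hn' 0] at h1
    have h2 : ((n : ℂ) * (2 * π * I)).im = n * (2 * π) := by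
      simp
    rw [add_im, h2] at h1
    by_contra hcon
    push Not at hcon
    nlinarith [Real.pi_pos]
  have hn1 : n = 1 := by
    by_contra hne
    have hn2 : (2 : ℤ) ≤ n := by
      have : 0 < n := by exact_mod_cast hn0
      omega
    have hn2' : (2 : ℝ) ≤ n := by exact_mod_cast hn2
    have hcontl : ContinuousOn (fun t => (l t).im) (Icc 0 (0 + 2 * π)) :=
      fun t _ => (him t).continuousAt.continuousWithinAt
    have h2 : ((n : ℂ) * (2 * π * I)).im = n * (2 * π) := by simp
    have hmem : (l 0).im + 2 * π ∈ Ioo (l 0).im (l (0 + 2 * π)).im := by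
      constructor
      · linarith [Real.pi_pos]
      · rw [hn' 0, add_im, h2]
        nlinarith [Real.pi_pos]
    obtain ⟨t, ht, htv⟩ := intermediate_value_Ioo (by positivity) hcontl hmem
    -- same direction
    have hK : γ t = (Real.exp ((l t).re - (l 0).re) : ℂ) * γ 0 := by
      rw [← hle t, ← hle 0, ofReal_exp, ← exp_add]
      rw [exp_eq_exp_iff_exists_int]
      refine ⟨1, ?_⟩
      apply Complex.ext
      · simp
      · have : (l t).im = (l 0).im + 2 * π := htv
        simp [this]
    have hK2 : K (exp (t * I)) = K ((Real.exp ((l t).re - (l 0).re) : ℝ) * 1) := by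
      rw [h.hom _ (Real.exp_pos _)]
      have h01 : γ 0 = K 1 := by simp [hγ]
      have h02 : γ t = K (exp (t * I)) := by rw [hγ]
      rw [← h01, ← h02]
      exact hK
    have h3 := h.inj hK2
    have h4 : ‖exp ((t : ℂ) * I)‖ = 1 := norm_exp_ofReal_mul_I t
    rw [h3, mul_one, norm_real, Real.norm_eq_abs, abs_of_pos (Real.exp_pos _)] at h4
    rw [h4] at h3
    simp only [ofReal_one, mul_one] at h3
    rw [exp_eq_one_iff] at h3
    obtain ⟨k, hk⟩ := h3
    have h5 : (t : ℝ) = k * (2 * π) := by
      have := congrArg Complex.im hk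
      simpa using this
    have h6 : (0 : ℝ) < k := by
      by_contra hcon
      push Not at hcon
      nlinarith [Real.pi_pos, ht.1]
    have h7 : (k : ℝ) < 1 := by
      by_contra hcon
      push Not at hcon
      nlinarith [Real.pi_pos, ht.2]
    have h8 : 0 < k := by exact_mod_cast h6
    have h9 : k < 1 := by exact_mod_cast h7
    omega
  refine ⟨fun t => l t - t * I, hls.sub (ofRealCLM.contDiff.mul contDiff_const), ?_, ?_, ?_⟩
  · intro t
    rw [hn' t, hn1]
    push_cast
    ring
  · intro t
    rw [add_sub_cancel, hle, hγ]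
  · intro t
    have h1 : HasDerivAt (fun t : ℝ => l t - t * I) (deriv γ t / γ t - I) t := by
      have h2 : HasDerivAt (fun t : ℝ => (t : ℂ) * I) I t := by
        simpa using (ofRealCLM.hasDerivAt (x := t)).mul_const I
      exact (hld t).sub h2
    rw [h1.deriv, hγ]
    have := h.curve_im_pos t
    simp only [sub_im, I_im]
    linarith

end Crest.Agent.R096.Co2_695
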