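import Crest.Agent.R096.Co2b_695

/-! P5-CORE2 (row 96), part c: slow cut-off, the map `Psi`, smoothness, Jacobian, injectivity. -/

set_option autoImplicit false

open Complex Set Filter Topology
open scoped ContDiff Real

namespace Crest.Agent.R096.Co2_695

/-- slow cut-off in the variable `s = log |z|`. -/
structure Cut (α : ℝ → ℝ) (S ε : ℝ) : Prop where
  smooth : ContDiff ℝ ∞ α
  nonneg : ∀ s, 0 ≤ α s
  le_one : ∀ s, α s ≤ 1
  one : ∀ s, 0 ≤ s → α s = 1
  zero : ∀ s, s ≤ -S → α s = 0
  deriv_le : ∀ s, |deriv α s| ≤ ε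

theorem smoothTransition_deriv_bound : ∃ C : ℝ, 0 < C ∧ ∀ s, |deriv Real.smoothTransition s| ≤ C := by
  have hsm : ContDiff ℝ ∞ Real.smoothTransition := Real.smoothTransition.contDiff
  have hc : Continuous (deriv Real.smoothTransition) :=
    ((contDiff_infty_iff_deriv.1 hsm).2).continuous
  obtain ⟨C, hC⟩ := (isCompact_Icc (a := (0 : ℝ)) (b := 1)).exists_bound_of_continuousOn
    hc.continuousOn
  refine ⟨max C 1, by positivity, fun s => ?_⟩
  by_cases h0 : s < 0
  · have : Real.smoothTransition =ᶠ[𝓝 s] fun _ => 0 := by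
      filter_upwards [gt_mem_nhds h0] with x hx
      exact Real.smoothTransition.zero_of_nonpos (le_of_lt hx)
    rw [this.deriv_eq]
    simp
  by_cases h1 : 1 < s
  · have : Real.smoothTransition =ᶠ[𝓝 s] fun _ => 1 := by
      filter_upwards [lt_mem_nhds h1] with x hx
      exact Real.smoothTransition.one_of_one_le (le_of_lt hx)
    rw [this.deriv_eq]
    simp
  push Not at h0 h1
  exact (hC s ⟨h0, h1⟩).trans (le_max_left _ _)

theorem exists_cut {ε : ℝ} (hε : 0 < ε) : ∃ (α : ℝ → ℝ) (S : ℝ), 0 < S ∧ Cut α S ε := by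
  obtain ⟨C, hC0, hC⟩ := smoothTransition_deriv_bound
  have hS : 0 < C / ε := by positivity
  refine ⟨fun s => Real.smoothTransition (1 + s / (C / ε)), C / ε, hS, ?_, ?_, ?_, ?_, ?_, ?_⟩
  · exact Real.smoothTransition.contDiff.comp (contDiff_const.add (contDiff_id.div_const _))
  · exact fun s => Real.smoothTransition.nonneg _
  · exact fun s => Real.smoothTransition.le_one _
  · intro s hs
    apply Real.smoothTransition.one_of_one_le
    have : 0 ≤ s / (C / ε) := by positivity
    linarith
  · intro s hs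
    apply Real.smoothTransition.zero_of_nonpos
    have : s / (C / ε) ≤ -1 := by
      rw [div_le_iff₀ hS]; linarith
    linarith
  · intro s
    have hd : HasDerivAt (fun s => Real.smoothTransition (1 + s / (C / ε)))
        (deriv Real.smoothTransition (1 + s / (C / ε)) * (1 / (C / ε))) s := by
      have h1 : HasDerivAt (fun s : ℝ => 1 + s / (C / ε)) (1 / (C / ε)) s :=
        ((hasDerivAt_id s).div_const _).const_add _
      have h2 : HasDerivAt Real.smoothTransition (deriv Real.smoothTransition (1 + s / (C / ε)))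
          (1 + s / (C / ε)) := by
        have hsm : ContDiff ℝ ∞ Real.smoothTransition := Real.smoothTransition.contDiff
        exact (hsm.differentiable (by simp) _).hasDerivAt
      exact h2.comp s h1
    rw [hd.deriv, abs_mul, abs_of_pos (by positivity : 0 < 1 / (C / ε))]
    calc |deriv Real.smoothTransition (1 + s / (C / ε))| * (1 / (C / ε))
        ≤ C * (1 / (C / ε)) := by gcongr; exact hC _
      _ = ε := by field_simp

theorem Cut.lip {α : ℝ → ℝ} {S ε : ℝ} (h : Cut α S ε) (s t : ℝ) : |α s - α t| ≤ ε * |s - t| := by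
  have h1 := Convex.norm_image_sub_le_of_norm_deriv_le (f := α) (s := univ) (C := ε)
    (fun x _ => (h.smooth.differentiable (by simp)) x) (fun x _ => h.deriv_le x) convex_univ
    (mem_univ t) (mem_univ s)
  simpa using h1

section Lam

variable {K : ℂ → ℂ} {lam : ℝ → ℂ} (h : LamData K lam)
include h

theorem LamData.per_int (t : ℝ) (n : ℤ) : lam (t + n * (2 * π)) = lam t := by
  have hp : Function.Periodic lam (2 * π) := h.per
  exact hp.int_mul n t

theorem LamData.arg_exp {z : ℂ} {s t : ℝ} (hz : z = exp (s + t * I)) :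
    lam (arg z) = lam t ∧ Real.log ‖z‖ = s := by
  have hz0 : z ≠ 0 := by rw [hz]; exact exp_ne_zero _
  have h1 : exp (log z) = exp (s + t * I) := by rw [exp_log hz0, hz]
  obtain ⟨n, hn⟩ := exp_eq_exp_iff_exists_int.1 h1
  constructor
  · have h2 : arg z = t + n * (2 * π) := by
      have := congrArg Complex.im hn
      rw [log_im] at this
      simpa using this
    rw [h2, h.per_int]
  · have := congrArg Complex.re hn
    rw [log_re] at this
    simpa using this

theorem LamData.contDiffAt_arg {z : ℂ} (hz : z ≠ 0) :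
    ContDiffAt ℝ ∞ (fun z => lam (arg z)) z := by
  have harg : ∀ w ∈ slitPlane, ContDiffAt ℝ ∞ arg w := by
    intro w hw
    have h1 : ContDiffAt ℝ ∞ log w := (contDiffAt_log hw).restrict_scalars ℝ
    have h2 : ContDiffAt ℝ ∞ (fun w => (log w).im) w :=
      (imCLM.contDiff.contDiffAt).comp w h1
    simpa [log_im] using h2
  by_cases hs : z ∈ slitPlane
  · exact (h.smooth.contDiffAt).comp z (harg z hs)
  · have hns : -z ∈ slitPlane := by
      rw [mem_slitPlane_iff] at hs ⊢
      push Not at hs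
      left
      have hre : z.re ≠ 0 := fun h0 => hz (Complex.ext h0 hs.2)
      have := lt_of_le_of_ne hs.1 hre
      simpa using this
    have h1 : ContDiffAt ℝ ∞ (fun w : ℂ => lam (arg (-w) + π)) z := by
      refine (h.smooth.contDiffAt).comp z (ContDiffAt.add ?_ contDiffAt_const)
      exact (harg (-z) hns).comp z contDiff_neg.contDiffAt
    refine h1.congr_of_eventuallyEq ?_
    filter_upwards [isOpen_compl_singleton.mem_nhds hz] with w hw
    have hw0 : w ≠ 0 := hw
    have hw1 : w = exp ((Real.log ‖w‖ : ℝ) + ((arg (-w) + π : ℝ) : ℂ) * I) := by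
      have h2 : exp (log (-w)) = -w := exp_log (neg_ne_zero.2 hw0)
      rw [log] at h2
      push_cast
      rw [add_mul, ← add_assoc, exp_add, exp_pi_mul_I]
      rw [norm_neg] at h2
      rw [h2]
      ring
    exact (h.arg_exp hw1).1

end Lam

/-- The filled map. -/
noncomputable def Psi (lam : ℝ → ℂ) (α : ℝ → ℝ) (z : ℂ) : ℂ :=
  z * exp (α (Real.log ‖z‖) * lam (arg z))

section Psi

variable {K : ℂ → ℂ} {lam : ℝ → ℂ} {α : ℝ → ℝ} {S ε : ℝ}

theorem Psi_exp (h : LamData K lam) (α : ℝ → ℝ) (s t : ℝ) :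
    Psi lam α (exp (s + t * I)) = exp (s + t * I + α s * lam t) := by
  obtain ⟨h1, h2⟩ := h.arg_exp (z := exp (s + t * I)) (s := s) (t := t) rfl
  rw [Psi, h1, h2, ← exp_add]

theorem exists_polar {z : ℂ} (hz : z ≠ 0) : z = exp ((Real.log ‖z‖ : ℝ) + (arg z : ℝ) * I) := by
  have := exp_log hz
  rw [log] at this
  exact this.symm

theorem Psi_small (hα : Cut α S ε) {z : ℂ} (hz : ‖z‖ < Real.exp (-S)) : Psi lam α z = z := by
  rcases eq_or_ne z 0 with rfl | hz0
  · simp [Psi]
  · have h1 : Real.log ‖z‖ ≤ -S := by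
      rw [Real.log_le_iff_le_exp (norm_pos_iff.2 hz0)]
      exact hz.le
    simp [Psi, hα.zero _ h1]

theorem Psi_large (hK : Hyp K) (h : LamData K lam) (hα : Cut α S ε) {z : ℂ} (hz : 1 ≤ ‖z‖) :
    Psi lam α z = K z := by
  have hz0 : z ≠ 0 := by
    rintro rfl
    simp at hz
    linarith
  have hp := exists_polar hz0
  set s := Real.log ‖z‖
  set t := arg z
  have hs : 0 ≤ s := Real.log_nonneg hz
  rw [hp, Psi_exp h, hα.one s hs]
  have h1 : exp ((s : ℂ) + t * I) = (Real.exp s : ℝ) * exp (t * I) := by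
    rw [ofReal_exp, ← exp_add]
  rw [h1, hK.hom _ (Real.exp_pos s), h.eq, ofReal_exp, ← exp_add]
  congr 1
  push_cast
  ring

theorem Psi_contDiff (h : LamData K lam) (hα : Cut α S ε) : ContDiff ℝ ∞ (Psi lam α) := by
  rw [contDiff_iff_contDiffAt]
  intro z
  by_cases hz : z = 0
  · subst hz
    have : Psi lam α =ᶠ[𝓝 0] id := by
      filter_upwards [Metric.ball_mem_nhds (0 : ℂ) (Real.exp_pos (-S))] with w hw
      exact Psi_small hα (by simpa using hw)
    exact contDiffAt_id.congr_of_eventuallyEq this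
  · have h1 : ContDiffAt ℝ ∞ (fun z : ℂ => α (Real.log ‖z‖)) z := by
      refine (hα.smooth.contDiffAt).comp z ?_
      exact (contDiffAt_norm ℝ hz).log (norm_ne_zero_iff.2 hz)
    have h2 : ContDiffAt ℝ ∞ (fun z : ℂ => ((α (Real.log ‖z‖) : ℝ) : ℂ)) z :=
      (ofRealCLM.contDiff.contDiffAt).comp z h1
    exact contDiffAt_id.mul ((h2.mul (h.contDiffAt_arg hz)).cexp)

theorem hasFDerivAt_Psi (h : LamData K lam) (hα : Cut α S ε) (z : ℂ) :
    HasFDerivAt (Psi lam α) (fderiv ℝ (Psi lam α) z) z :=
  (((Psi_contDiff h hα).differentiable (by simp)) z).hasFDerivAt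

theorem fderiv_radial (h : LamData K lam) (hα : Cut α S ε) (s t : ℝ) :
    fderiv ℝ (Psi lam α) (exp (s + t * I)) (exp (s + t * I)) =
      exp (s + t * I + α s * lam t) * (1 + (deriv α s : ℝ) * lam t) := by
  have h1 : HasDerivAt (fun x : ℝ => exp ((x : ℂ) + t * I)) (exp (s + t * I)) s := by
    have h2 : HasDerivAt (fun x : ℝ => (x : ℂ) + t * I) 1 s := by
      simpa using (ofRealCLM.hasDerivAt (x := s)).add_const (t * I : ℂ)
    simpa using h2.cexp
  have h3 := (hasFDerivAt_Psi h hα (exp (s + t * I))).comp_hasDerivAt s h1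
  have h4 : HasDerivAt (fun x : ℝ => exp ((x : ℂ) + t * I + α x * lam t))
      (exp (s + t * I + α s * lam t) * (1 + (deriv α s : ℝ) * lam t)) s := by
    have ha : HasDerivAt (fun x : ℝ => ((α x : ℝ) : ℂ)) ((deriv α s : ℝ) : ℂ) s :=
      (((hα.smooth.differentiable (by simp)) s).hasDerivAt).ofReal_comp
    have h5 : HasDerivAt (fun x : ℝ => (x : ℂ) + t * I + α x * lam t)
        (1 + (deriv α s : ℝ) * lam t) s := by
      have h6 : HasDerivAt (fun x : ℝ => (x : ℂ) + t * I) 1 s := by
        simpa using (ofRealCLM.hasDerivAt (x := s)).add_const (t * I : ℂ)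
      exact h6.add (ha.mul_const _)
    exact h5.cexp
  have h5 : (Psi lam α ∘ fun x : ℝ => exp ((x : ℂ) + t * I)) =
      fun x : ℝ => exp ((x : ℂ) + t * I + α x * lam t) := by
    funext x
    exact Psi_exp h α x t
  rw [h5] at h3
  exact h3.unique h4

theorem fderiv_angular (h : LamData K lam) (hα : Cut α S ε) (s t : ℝ) :
    fderiv ℝ (Psi lam α) (exp (s + t * I)) (I * exp (s + t * I)) =
      exp (s + t * I + α s * lam t) * (I + α s * deriv lam t) := by
  have h1 : HasDerivAt (fun x : ℝ => exp ((s : ℂ) + x * I)) (I * exp (s + t * I)) t := by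
    have h2 : HasDerivAt (fun x : ℝ => (s : ℂ) + x * I) I t := by
      simpa using ((ofRealCLM.hasDerivAt (x := t)).mul_const I).const_add (s : ℂ)
    simpa [mul_comm] using h2.cexp
  have h3 := (hasFDerivAt_Psi h hα (exp (s + t * I))).comp_hasDerivAt t h1
  have h4 : HasDerivAt (fun x : ℝ => exp ((s : ℂ) + x * I + α s * lam x))
      (exp (s + t * I + α s * lam t) * (I + α s * deriv lam t)) t := by
    have h5 : HasDerivAt (fun x : ℝ => (s : ℂ) + x * I + α s * lam x)
        (I + α s * deriv lam t) t := by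
      have h6 : HasDerivAt (fun x : ℝ => (s : ℂ) + x * I) I t := by
        simpa using ((ofRealCLM.hasDerivAt (x := t)).mul_const I).const_add (s : ℂ)
      exact h6.add ((((h.smooth.differentiable (by simp)) t).hasDerivAt).const_mul _)
    exact h5.cexp
  have h5 : (Psi lam α ∘ fun x : ℝ => exp ((s : ℂ) + x * I)) =
      fun x : ℝ => exp ((s : ℂ) + x * I + α s * lam x) := by
    funext x
    exact Psi_exp h α s x
  rw [h5] at h3
  exact h3.unique h4

end Psi

end Crest.Agent.R096.Co2_695
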