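import Crest.Agent.R096.Co2c_695

/-! P5-CORE2 (row 96), part d: positivity of the Jacobian, injectivity, surjectivity, final theorem. -/

set_option autoImplicit false

open Complex Set Filter Topology
open scoped ContDiff Real

namespace Crest.Agent.R096.Co2_695

variable {K : ℂ → ℂ} {lam : ℝ → ℂ} {α : ℝ → ℝ} {S ε M m : ℝ}

/-- Uniform constants: `M` bounds `lam` and `lam'`, `m` bounds the angular speed from below. -/
structure Bd (lam : ℝ → ℂ) (M m : ℝ) : Prop where
  M_pos : 0 < M
  m_pos : 0 < m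
  m_le : m ≤ 1
  lam_le : ∀ t, ‖lam t‖ ≤ M
  dlam_le : ∀ t, ‖deriv lam t‖ ≤ M
  speed : ∀ t, m ≤ 1 + (deriv lam t).im

theorem LamData.exists_bd (h : LamData K lam) : ∃ M m, Bd lam M m := by
  have hp : Function.Periodic lam (2 * π) := h.per
  have hdp : Function.Periodic (deriv lam) (2 * π) := by
    intro t
    rw [← deriv_comp_add_const]
    congr 1
    funext s
    exact h.per s
  have hdc : Continuous (deriv lam) := ((contDiff_infty_iff_deriv.1 h.smooth).2).continuous
  obtain ⟨M1, hM1⟩ := (isCompact_Icc (a := (0 : ℝ)) (b := 2 * π)).exists_bound_of_continuousOn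
    h.smooth.continuous.continuousOn
  obtain ⟨M2, hM2⟩ := (isCompact_Icc (a := (0 : ℝ)) (b := 2 * π)).exists_bound_of_continuousOn
    hdc.continuousOn
  have hne : (Icc (0 : ℝ) (2 * π)).Nonempty := ⟨0, ⟨le_rfl, by positivity⟩⟩
  have hcc : Continuous fun t => 1 + (deriv lam t).im := continuous_const.add (continuous_im.comp hdc)
  obtain ⟨t0, ht0, hmin⟩ := (isCompact_Icc (a := (0 : ℝ)) (b := 2 * π)).exists_isMinOn hne
    hcc.continuousOn
  refine ⟨max (max M1 M2) 1, min (1 + (deriv lam t0).im) 1, ?_, ?_, min_le_right _ _, ?_, ?_, ?_⟩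
  · positivity
  · exact lt_min (h.pos t0) one_pos
  · intro t
    obtain ⟨y, hy, hyt⟩ := hp.exists_mem_Ico₀ (by positivity) t
    rw [hyt]
    exact ((hM1 y ⟨hy.1, hy.2.le⟩).trans (le_max_left _ _)).trans (le_max_left _ _)
  · intro t
    obtain ⟨y, hy, hyt⟩ := hdp.exists_mem_Ico₀ (by positivity) t
    rw [hyt]
    exact ((hM2 y ⟨hy.1, hy.2.le⟩).trans (le_max_right _ _)).trans (le_max_left _ _)
  · intro t
    obtain ⟨y, hy, hyt⟩ := hdp.exists_mem_Ico₀ (by positivity) t
    rw [hyt]
    exact (min_le_left _ _).trans (hmin ⟨hy.1, hy.2.le⟩)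

theorem det_Psi_pos (h : LamData K lam) (hα : Cut α S ε) {M m : ℝ} (hb : Bd lam M m)
    (hε : 0 ≤ ε) (hεM : ε * (M + M ^ 2 / m) < 1) (z : ℂ) :
    0 < (fderiv ℝ (Psi lam α) z).det := by
  rw [det_eq_J]
  by_cases hz : z = 0
  · subst hz
    have h1 : Psi lam α =ᶠ[𝓝 0] id := by
      filter_upwards [Metric.ball_mem_nhds (0 : ℂ) (Real.exp_pos (-S))] with w hw
      exact Psi_small hα (by simpa using hw)
    rw [h1.fderiv_eq, fderiv_id]
    simp [J]
  have hp := exists_polar hz
  set s := Real.log ‖z‖ with hs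
  set t := arg z with ht
  have h1 := im_conj_mul (fderiv ℝ (Psi lam α) z) z
  have h2 : fderiv ℝ (Psi lam α) z z =
      exp (s + t * I + α s * lam t) * (1 + (deriv α s : ℝ) * lam t) := by
    rw [hp]; exact fderiv_radial h hα s t
  have h3 : fderiv ℝ (Psi lam α) z (I * z) =
      exp (s + t * I + α s * lam t) * (I + α s * deriv lam t) := by
    rw [hp]; exact fderiv_angular h hα s t
  rw [h2, h3] at h1
  set E := exp (s + t * I + α s * lam t) with hE
  have h4 : ((starRingEnd ℂ) (E * (1 + (deriv α s : ℝ) * lam t)) * (E * (I + α s * deriv lam t))).im =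
      normSq E * ((1 + deriv α s * (lam t).re) * (1 + α s * (deriv lam t).im) -
        (deriv α s * (lam t).im) * (α s * (deriv lam t).re)) := by
    simp [normSq_apply]
    ring
  rw [h4] at h1
  have hE0 : 0 < normSq E := normSq_pos.2 (exp_ne_zero _)
  have hz0 : 0 < normSq z := normSq_pos.2 hz
  have ha0 := hα.nonneg s
  have ha1 := hα.le_one s
  have hd := hα.deriv_le s
  have hM := hb.M_pos
  have hm := hb.m_pos
  have hre : |(lam t).re| ≤ M := (abs_re_le_norm _).trans (hb.lam_le t)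
  have him : |(lam t).im| ≤ M := (abs_im_le_norm _).trans (hb.lam_le t)
  have hdre : |(deriv lam t).re| ≤ M := (abs_re_le_norm _).trans (hb.dlam_le t)
  have hsp := hb.speed t
  have hA : m ≤ 1 + α s * (deriv lam t).im := by
    nlinarith [hb.m_le]
  have hB : 1 - ε * M ≤ 1 + deriv α s * (lam t).re := by
    have : |deriv α s * (lam t).re| ≤ ε * M := by
      rw [abs_mul]; exact mul_le_mul hd hre (abs_nonneg _) hε
    linarith [(abs_le.1 this).1]
  have hC : (deriv α s * (lam t).im) * (α s * (deriv lam t).re) ≤ ε * M * M := by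
    have h5 : |deriv α s * (lam t).im| ≤ ε * M := by
      rw [abs_mul]; exact mul_le_mul hd him (abs_nonneg _) hε
    have h6 : |α s * (deriv lam t).re| ≤ M := by
      rw [abs_mul, abs_of_nonneg ha0]
      calc α s * |(deriv lam t).re| ≤ 1 * M := mul_le_mul ha1 hdre (abs_nonneg _) zero_le_one
        _ = M := one_mul _
    calc (deriv α s * (lam t).im) * (α s * (deriv lam t).re)
        ≤ |(deriv α s * (lam t).im) * (α s * (deriv lam t).re)| := le_abs_self _
      _ = |deriv α s * (lam t).im| * |α s * (deriv lam t).re| := abs_mul _ _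
      _ ≤ ε * M * M := mul_le_mul h5 h6 (abs_nonneg _) (by positivity)
  have hkey : ε * M * m + ε * M ^ 2 < m := by
    have : ε * (M + M ^ 2 / m) * m < 1 * m := mul_lt_mul_of_pos_right hεM hm
    have h7 : ε * (M + M ^ 2 / m) * m = ε * M * m + ε * M ^ 2 := by
      field_simp
    linarith
  have hM1 : 0 ≤ 1 - ε * M := by
    have : ε * M ≤ ε * (M + M ^ 2 / m) := by
      gcongr
      have : 0 ≤ M ^ 2 / m := by positivity
      linarith
    linarith
  have hpos : 0 < (1 + deriv α s * (lam t).re) * (1 + α s * (deriv lam t).im) -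
        (deriv α s * (lam t).im) * (α s * (deriv lam t).re) := by
    have h8 : (1 - ε * M) * m ≤ (1 + deriv α s * (lam t).re) * (1 + α s * (deriv lam t).im) :=
      mul_le_mul hB hA hm.le (hM1.trans hB)
    nlinarith
  have h9 : 0 < normSq z * J (fderiv ℝ (Psi lam α) z) := by
    rw [← h1]; positivity
  exact (mul_pos_iff_of_pos_left hz0).1 h9

theorem Bd.lip (hb : Bd lam M m) (h : LamData K lam) (s t : ℝ) :
    ‖lam s - lam t‖ ≤ M * |s - t| := by
  have h1 := Convex.norm_image_sub_le_of_norm_deriv_le (f := lam) (s := univ) (C := M)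
    (fun x _ => (h.smooth.differentiable (by simp)) x) (fun x _ => hb.dlam_le x) convex_univ
    (mem_univ t) (mem_univ s)
  simpa using h1

/-- the angular map is expanding by `m` at least. -/
theorem Bd.mono (hb : Bd lam M m) (h : LamData K lam) {s t : ℝ} (hst : s ≤ t) :
    m * (t - s) ≤ (t + (lam t).im) - (s + (lam s).im) := by
  have hd : ∀ x, HasDerivAt (fun x => x + (lam x).im - m * x) (1 + (deriv lam x).im - m) x := by
    intro x
    have h1 : HasDerivAt (fun t => (lam t).im) (deriv lam x).im x := by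
      have := (hasDerivAt_const x imCLM).clm_apply
        (((h.smooth.differentiable (by simp)) x).hasDerivAt)
      simpa using this
    have h2 : HasDerivAt (fun x : ℝ => m * x) m x := by
      simpa using (hasDerivAt_id x).const_mul m
    exact ((hasDerivAt_id x).add h1).sub h2
  have hmono : Monotone fun x => x + (lam x).im - m * x := by
    apply monotone_of_deriv_nonneg (fun x => (hd x).differentiableAt)
    intro x
    rw [(hd x).deriv]
    linarith [hb.speed x]
  have := hmono hst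
  simp only at this
  linarith

theorem Psi_ne_zero {z : ℂ} (hz : z ≠ 0) : Psi lam α z ≠ 0 :=
  mul_ne_zero hz (exp_ne_zero _)

theorem Psi_inj (h : LamData K lam) (hα : Cut α S ε) {M m : ℝ} (hb : Bd lam M m)
    (hε : 0 ≤ ε) (hεM : ε * (M + M ^ 2 / m) < 1) : Function.Injective (Psi lam α) := by
  intro z w hzw
  by_cases hz : z = 0
  · by_contra hne
    have hw : w ≠ 0 := fun h0 => hne (hz.trans h0.symm)
    exact Psi_ne_zero (lam := lam) (α := α) hw (by rw [← hzw, hz]; simp [Psi])
  by_cases hw : w = 0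
  · exact absurd (by rw [hzw, hw]; simp [Psi]) (Psi_ne_zero (lam := lam) (α := α) hz)
  have hpz := exists_polar hz
  have hpw := exists_polar hw
  obtain ⟨s1, hs1⟩ : ∃ s, s = Real.log ‖z‖ := ⟨_, rfl⟩
  obtain ⟨t1, ht1⟩ : ∃ s, s = arg z := ⟨_, rfl⟩
  obtain ⟨s2, hs2⟩ : ∃ s, s = Real.log ‖w‖ := ⟨_, rfl⟩
  obtain ⟨t0, ht0⟩ : ∃ s, s = arg w := ⟨_, rfl⟩
  rw [← hs1, ← ht1] at hpz
  rw [← hs2, ← ht0] at hpw
  rw [hpz, hpw, Psi_exp h, Psi_exp h] at hzw
  obtain ⟨n, hn⟩ := exp_eq_exp_iff_exists_int.1 hzw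
  obtain ⟨t2, ht2⟩ : ∃ t, t = t0 + n * (2 * π) := ⟨_, rfl⟩
  have hl2 : lam t2 = lam t0 := by rw [ht2]; exact h.per_int t0 n
  have hpw2 : w = exp (s2 + t2 * I) := by
    rw [hpw, exp_eq_exp_iff_exists_int]
    refine ⟨-n, ?_⟩
    rw [ht2]
    push_cast
    ring
  have hn2 : (s1 : ℂ) + t1 * I + α s1 * lam t1 = s2 + t2 * I + α s2 * lam t2 := by
    rw [hn, hl2, ht2]
    push_cast
    ring
  have hre : s1 + α s1 * (lam t1).re = s2 + α s2 * (lam t2).re := by
    have := congrArg Complex.re hn2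
    simpa using this
  have him : t1 + α s1 * (lam t1).im = t2 + α s2 * (lam t2).im := by
    have := congrArg Complex.im hn2
    simpa using this
  have hM := hb.M_pos
  have hm := hb.m_pos
  have hαl := hα.lip s1 s2
  have ha0 := hα.nonneg s1
  have ha1 := hα.le_one s1
  have hb0 := hα.nonneg s2
  have hb1 := hα.le_one s2
  have hi2 : |(lam t2).im| ≤ M := (abs_im_le_norm _).trans (hb.lam_le t2)
  have hr1 : |(lam t1).re| ≤ M := (abs_re_le_norm _).trans (hb.lam_le t1)
  -- angular estimate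
  have hang : m * |t1 - t2| ≤ |α s1 - α s2| * M := by
    have hkey : (1 - α s1) * (t1 - t2) + α s1 * ((t1 + (lam t1).im) - (t2 + (lam t2).im)) =
        (α s2 - α s1) * (lam t2).im := by linear_combination him
    have hbd : |(α s2 - α s1) * (lam t2).im| ≤ |α s1 - α s2| * M := by
      rw [abs_mul, abs_sub_comm]
      gcongr
    rcases le_total t1 t2 with hle | hle
    · have h1 := hb.mono h hle
      have h2 : m * (t2 - t1) ≤ (1 - α s1) * (t2 - t1) +
          α s1 * ((t2 + (lam t2).im) - (t1 + (lam t1).im)) := by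
        have h3 : α s1 * (m * (t2 - t1)) ≤ α s1 * ((t2 + (lam t2).im) - (t1 + (lam t1).im)) :=
          mul_le_mul_of_nonneg_left h1 ha0
        have h4 : (1 - α s1) * (m * (t2 - t1)) ≤ (1 - α s1) * (t2 - t1) := by
          apply mul_le_mul_of_nonneg_left _ (by linarith)
          nlinarith [hb.m_le]
        nlinarith
      rw [abs_of_nonpos (by linarith : t1 - t2 ≤ 0)]
      have h5 := (abs_le.1 hbd).1
      nlinarith
    · have h1 := hb.mono h hle
      have h2 : m * (t1 - t2) ≤ (1 - α s1) * (t1 - t2) +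
          α s1 * ((t1 + (lam t1).im) - (t2 + (lam t2).im)) := by
        have h3 : α s1 * (m * (t1 - t2)) ≤ α s1 * ((t1 + (lam t1).im) - (t2 + (lam t2).im)) :=
          mul_le_mul_of_nonneg_left h1 ha0
        have h4 : (1 - α s1) * (m * (t1 - t2)) ≤ (1 - α s1) * (t1 - t2) := by
          apply mul_le_mul_of_nonneg_left _ (by linarith)
          nlinarith [hb.m_le]
        nlinarith
      rw [abs_of_nonneg (by linarith : 0 ≤ t1 - t2)]
      have h5 := (abs_le.1 hbd).2
      linarith
  -- radial estimate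
  have hrad : |s1 - s2| ≤ |α s1 - α s2| * M + M * |t1 - t2| := by
    have h1 : s1 - s2 = -((α s1 - α s2) * (lam t1).re) - α s2 * ((lam t1).re - (lam t2).re) := by
      linear_combination hre
    have h2 : |(lam t1).re - (lam t2).re| ≤ M * |t1 - t2| := by
      have := (abs_re_le_norm (lam t1 - lam t2)).trans (hb.lip h t1 t2)
      simpa using this
    rw [h1]
    calc |-((α s1 - α s2) * (lam t1).re) - α s2 * ((lam t1).re - (lam t2).re)|
        ≤ |-((α s1 - α s2) * (lam t1).re)| + |α s2 * ((lam t1).re - (lam t2).re)| := abs_sub _ _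
      _ = |α s1 - α s2| * |(lam t1).re| + α s2 * |(lam t1).re - (lam t2).re| := by
          rw [abs_neg, abs_mul, abs_mul, abs_of_nonneg hb0]
      _ ≤ |α s1 - α s2| * M + 1 * (M * |t1 - t2|) := by gcongr
      _ = _ := by ring
  have hs : s1 = s2 := by
    by_contra hne
    have hpos : 0 < |s1 - s2| := abs_pos.2 (sub_ne_zero.2 hne)
    have h1 : |t1 - t2| ≤ ε * |s1 - s2| * M / m := by
      rw [le_div_iff₀ hm]
      calc |t1 - t2| * m = m * |t1 - t2| := mul_comm _ _
        _ ≤ |α s1 - α s2| * M := hang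
        _ ≤ ε * |s1 - s2| * M := by gcongr
    have h2 : |s1 - s2| ≤ ε * (M + M ^ 2 / m) * |s1 - s2| := by
      calc |s1 - s2| ≤ |α s1 - α s2| * M + M * |t1 - t2| := hrad
        _ ≤ ε * |s1 - s2| * M + M * (ε * |s1 - s2| * M / m) := by gcongr
        _ = ε * (M + M ^ 2 / m) * |s1 - s2| := by ring
    nlinarith
  have ht : t1 = t2 := by
    rw [hs] at hang
    simp only [sub_self, abs_zero, zero_mul] at hang
    have : |t1 - t2| = 0 := le_antisymm (by
      by_contra hcon
      push Not at hcon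
      nlinarith) (abs_nonneg _)
    exact sub_eq_zero.1 (abs_eq_zero.1 this)
  rw [hpz, hpw2, hs, ht]

theorem norm_Psi_le (hα : Cut α S ε) (hb : Bd lam M m) (z : ℂ) :
    ‖Psi lam α z‖ ≤ Real.exp M * ‖z‖ := by
  rw [Psi, norm_mul, norm_exp, mul_comm]
  gcongr
  have h1 : ((α (Real.log ‖z‖) : ℂ) * lam (arg z)).re = α (Real.log ‖z‖) * (lam (arg z)).re := by
    simp
  rw [h1]
  calc α (Real.log ‖z‖) * (lam (arg z)).re ≤ |α (Real.log ‖z‖) * (lam (arg z)).re| := le_abs_self _
    _ = α (Real.log ‖z‖) * |(lam (arg z)).re| := by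
        rw [abs_mul, abs_of_nonneg (hα.nonneg _)]
    _ ≤ 1 * M := by
        gcongr
        · exact hα.le_one _
        · exact (abs_re_le_norm _).trans (hb.lam_le _)
    _ = M := one_mul M

theorem le_norm_Psi (hα : Cut α S ε) (hb : Bd lam M m) (z : ℂ) :
    Real.exp (-M) * ‖z‖ ≤ ‖Psi lam α z‖ := by
  rw [Psi, norm_mul, norm_exp, mul_comm]
  gcongr
  have h1 : ((α (Real.log ‖z‖) : ℂ) * lam (arg z)).re = α (Real.log ‖z‖) * (lam (arg z)).re := by
    simp
  rw [h1]
  have h2 : |α (Real.log ‖z‖) * (lam (arg z)).re| ≤ M := by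
    rw [abs_mul, abs_of_nonneg (hα.nonneg _)]
    calc α (Real.log ‖z‖) * |(lam (arg z)).re| ≤ 1 * M := by
          gcongr
          · exact hα.le_one _
          · exact (abs_re_le_norm _).trans (hb.lam_le _)
      _ = M := one_mul M
  exact (abs_le.1 h2).1

/-- **P5-CORE2.** -/
theorem core2 {K : ℂ → ℂ} (hK : Hyp K) :
    ∃ Ψ : ℂ → ℂ, ContDiff ℝ ∞ Ψ ∧ (∀ z, 1 ≤ ‖z‖ → Ψ z = K z) ∧
      (∀ z, 0 < (fderiv ℝ Ψ z).det) ∧ Function.Bijective Ψ ∧
      (∃ r > 0, ∀ z, ‖z‖ < r → Ψ z = z) ∧
      ∃ c C : ℝ, 0 < c ∧ 0 < C ∧ ∀ z, c * ‖z‖ ≤ ‖Ψ z‖ ∧ ‖Ψ z‖ ≤ C * ‖z‖ := by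
  obtain ⟨lam, hl⟩ := hK.exists_lam
  obtain ⟨M, m, hb⟩ := hl.exists_bd
  have hM := hb.M_pos
  have hm := hb.m_pos
  have hQ : 0 < M + M ^ 2 / m := by positivity
  have hε : 0 < 1 / (2 * (M + M ^ 2 / m)) := by positivity
  obtain ⟨α, S, hS, hα⟩ := exists_cut hε
  have hεM : 1 / (2 * (M + M ^ 2 / m)) * (M + M ^ 2 / m) < 1 := by
    have : 1 / (2 * (M + M ^ 2 / m)) * (M + M ^ 2 / m) = 1 / 2 := by field_simp
    rw [this]; norm_num
  have hinj := Psi_inj hl hα hb hε.le hεM
  have hsm := Psi_contDiff hl hα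
  have hdet := det_Psi_pos hl hα hb hε.le hεM
  have hsurj : Function.Surjective (Psi lam α) := by
    -- the range is open and closed
    have hopen : IsOpen (range (Psi lam α)) := by
      rw [isOpen_iff_mem_nhds]
      rintro _ ⟨z, rfl⟩
      have hdet0 : (fderiv ℝ (Psi lam α) z).det ≠ 0 := (hdet z).ne'
      let e : ℂ ≃L[ℝ] ℂ := (fderiv ℝ (Psi lam α) z).toContinuousLinearEquivOfDetNeZero hdet0
      have he : (e : ℂ →L[ℝ] ℂ) = fderiv ℝ (Psi lam α) z :=
        ContinuousLinearMap.coe_toContinuousLinearEquivOfDetNeZero _ _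
      have hs : HasStrictFDerivAt (Psi lam α) (e : ℂ →L[ℝ] ℂ) z := by
        rw [he]
        exact (hsm.contDiffAt).hasStrictFDerivAt (by simp)
      have h1 := hs.map_nhds_eq_of_equiv
      rw [← h1]
      exact Filter.mem_map.2 (Filter.univ_mem' fun x => mem_range_self x)
    have hclosed : IsClosed (range (Psi lam α)) := by
      have hemb : Topology.IsClosedEmbedding (Psi lam α) := by
        refine Topology.IsClosedEmbedding.of_continuous_injective_isClosedMap hsm.continuous hinj ?_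
        have hproper : IsProperMap (Psi lam α) := by
          rw [isProperMap_iff_tendsto_cocompact]
          refine ⟨hsm.continuous, ?_⟩
          rw [← Metric.cobounded_eq_cocompact, ← tendsto_norm_atTop_iff_cobounded]
          refine tendsto_atTop_mono (fun z => le_norm_Psi hα hb z) ?_
          exact tendsto_norm_cobounded_atTop.const_mul_atTop (Real.exp_pos _)
        exact hproper.isClosedMap
      exact hemb.isClosed_range
    have hclopen : IsClopen (range (Psi lam α)) := ⟨hclosed, hopen⟩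
    rcases isClopen_iff.1 hclopen with h0 | h0
    · exact absurd h0 (range_nonempty _).ne_empty
    · exact range_eq_univ.1 h0
  refine ⟨Psi lam α, hsm, fun z hz => Psi_large hK hl hα hz, hdet, ⟨hinj, hsurj⟩,
    ⟨Real.exp (-S), Real.exp_pos _, fun z hz => Psi_small hα hz⟩,
    Real.exp (-M), Real.exp M, Real.exp_pos _, Real.exp_pos _,
    fun z => ⟨le_norm_Psi hα hb z, norm_Psi_le hα hb z⟩⟩

end Crest.Agent.R096.Co2_695
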