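/-
helper622, row 96, COMPOSITE B, part 2: **SOBSQ for general densities with explicit `χ = H ∘ Y`**
(the proof is helper55's `sobsq`, Sq14_55).
-/
import Crest.Agent.R096.Cob1_622

set_option autoImplicit false
set_option linter.unusedSectionVars false

open Set Metric Filter Topology MeasureTheory
open scoped ENNReal NNReal

namespace Crest.Agent.R096.Cob_622

open Crest.Agent.R096.Ce_537 Crest.Agent.R096.Bd_416 Crest.Agent.R96.Hole_348
open Crest.AnalysisR.VecCalc3 Crest.AnalysisR.Sobolev Crest.Agent.R096.Sk_962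
open Crest.Agent.R096.Sq_55

/-- the exponent used on the faces -/
noncomputable def pf (p : ℝ) : ℝ := if p < 2 then p else 1

lemma pf_pos {p : ℝ} (hp : 0 < p) : 0 < pf p := by
  unfold pf; split_ifs <;> linarith

lemma pf_lt (p : ℝ) : pf p < 2 := by
  unfold pf; split_ifs <;> linarith

lemma pf_eq {p : ℝ} (h : p < 2) : pf p = p := if_pos h

/-- relative thickness of the layer of a cell -/
noncomputable def eC {κ ι : Type*} (X : Sys κ ι) (δ : ℝ) (k : κ) : ℝ :=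
  δ / (3 * (X.m k : ℝ)^3 * (X.C k).R)
/-- relative thickness of the layer of a face -/
noncomputable def eF {κ ι : Type*} (X : Sys κ ι) (δ : ℝ) (j : ι) : ℝ :=
  δ / (2 * (X.F j).M * (X.F j).ρ)

/-- the explicit squeeze -/
structure Chi {κ ι : Type*} (X : Sys κ ι) (p δ : ℝ) (NC : κ → ℕ) (NF : ι → ℕ)
    (Y H : E3 ≃ₜ E3) : Prop where
  nC : ∀ k, 1 ≤ NC k
  nF : ∀ j, 1 ≤ NF j
  plY : PLOn Y univ
  plY' : PLOn Y.symm univ
  plH : PLOn H univ
  plH' : PLOn H.symm univ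
  offY : ∀ x, (∀ k, x ∉ (X.C k).U) → Y x = x
  offH : ∀ x, (∀ j, x ∉ (X.F j).V) → H x = x
  onY : ∀ k, ∀ x ∈ (X.C k).P,
    Y x = (X.C k).e' (cgf (qn 3 p) (eC X δ k * (1 - qn 3 p)) (NC k) ((X.C k).e x))
  onH : ∀ j, ∀ x ∈ (X.F j).V, H x =
    (X.F j).e' (f0.T (cgf (qn 2 (pf p)) (eF X δ j * (1 - qn 2 (pf p))) (NF j)) ((X.F j).e x))
  heH : ∀ j, ∀ x ∈ (X.F j).V, (X.F j).e (H x) 0 = (X.F j).e x 0
  mapV : ∀ j, ∀ x, H x ∈ (X.F j).V ↔ x ∈ (X.F j).V
  mapU : ∀ k, ∀ x, Y x ∈ (X.C k).U ↔ x ∈ (X.C k).U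
  PY : ∀ k x, Y x ∈ (X.C k).P ↔ x ∈ (X.C k).P
  PH : ∀ k x, H x ∈ (X.C k).P ↔ x ∈ (X.C k).P

/-- **the constant** -/
noncomputable def CV (p : ℝ) (m : ℝ≥0) : ℝ := T3 p m * (1 + T2 p m)

lemma CV_nonneg (p : ℝ) (m : ℝ≥0) : 0 ≤ CV p m := by
  have := T3_nonneg p m
  have := T2_nonneg p m
  unfold CV; positivity

lemma mem_iff_of_fix {E : Type*} [TopologicalSpace E] {h : E ≃ₜ E} {O : Set E}
    (hfix : ∀ x, x ∉ O → h x = x) (x : E) : h x ∈ O ↔ x ∈ O := by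
  constructor
  · intro h1
    by_contra h2
    rw [hfix x h2] at h1
    exact h2 h1
  · intro h1
    by_contra h2
    have h3 : h (h x) = h x := hfix _ h2
    have h4 := h.injective h3
    rw [h4] at h2
    exact h2 h1

set_option maxHeartbeats 1000000 in
/-- **SOBSQ, general densities** -/
theorem sobsq_vw {κ ι : Type*} [Fintype κ] [Fintype ι] (X : Sys κ ι) {p : ℝ} (hp : 0 < p)
    (hp3 : p < 3) {δ : ℝ} (hδ : 0 < δ) (hδC : ∀ k, δ ≤ (X.C k).R) (hδF : ∀ j, δ ≤ (X.F j).ρ)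
    {B ε : ℝ≥0∞} (hB : B ≠ ∞) (hε : ε ≠ 0) :
    ∃ (NC : κ → ℕ) (NF : ι → ℕ) (Y H : E3 ≃ₜ E3), Chi X p δ NC NF Y H ∧
      ∀ k, (p < 2 ∨ ∀ j, Disjoint (X.F j).V (X.C k).P) →
        ∀ v : E3 → ℝ≥0∞, Measurable v → ∫⁻ x, v x ≤ B → ∀ w : E3 → ℝ≥0∞,
        (∀ᵐ x, x ∈ (X.C k).P → ∀ c, 1 ≤ c → LLV c (fun x => H (Y x)) x →
          w x ≤ ENNReal.ofReal (c^p) * v (H (Y x))) →
        ∫⁻ x in (X.C k).P, w x ≤
          ENNReal.ofReal (CV p (X.m k)) * (ENNReal.ofReal ((X.C k).R / δ) *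
            ((∑ j, ENNReal.ofReal ((X.F j).ρ / δ) *
              ∫⁻ x in (X.C k).P ∩ (X.F j).V ∩ nb δ (X.F j).rim, v x) +
            ∫⁻ x in (X.C k).P ∩ (nb δ X.Z ∪ ⋃ j, nb δ (X.F j).rim), v x)) + ε := by
  classical
  have hε2 : ε / 2 ≠ 0 := by
    rw [Ne, ENNReal.div_eq_zero_iff]; push Not
    exact ⟨hε, ENNReal.ofNat_ne_top⟩
  have hpf := pf_pos hp
  have hpf2 := pf_lt p
  -- parameters
  have hm1 : ∀ k, (1:ℝ) ≤ X.m k := fun k => by
    have := (X.C k).one.trans (X.mC k)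
    exact_mod_cast this
  have hηC0 : ∀ k, 0 < eC X δ k := fun k => by
    have := hm1 k
    have := (X.C k).R_pos
    unfold eC; positivity
  have hηC1 : ∀ k, eC X δ k ≤ 1/2 := fun k => by
    have h1 := hm1 k
    have h2 := (X.C k).R_pos
    have h3 := hδC k
    show δ / (3 * (X.m k : ℝ)^3 * (X.C k).R) ≤ 1/2
    have h4 : (1:ℝ) ≤ (X.m k : ℝ)^3 := one_le_pow₀ h1
    rw [div_le_iff₀ (by positivity)]
    nlinarith
  have hηF0 : ∀ j, 0 < eF X δ j := fun j => by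
    have := (X.F j).M_pos
    have := (X.F j).ρ_pos
    unfold eF; positivity
  have hηF1 : ∀ j, eF X δ j ≤ 1/2 := fun j => by
    have h1 := (X.F j).M_one
    have h2 := (X.F j).ρ_pos
    have h3 := hδF j
    show δ / (2 * (X.F j).M * (X.F j).ρ) ≤ 1/2
    rw [div_le_iff₀ (by positivity)]
    nlinarith
  set aC : κ → ℝ≥0∞ := fun k => ENNReal.ofReal (mc p (X.C k).M * (c3 p / eC X δ k)) with haC
  -- step 1: the faces
  set W1 : ℝ≥0∞ := (∑ k, aC k) * (Fintype.card ι * B) with hW1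
  have W1top : W1 ≠ ∞ := by
    refine ENNReal.mul_ne_top ?_ (ENNReal.mul_ne_top (ENNReal.natCast_ne_top _) hB)
    exact (ENNReal.sum_lt_top.2 fun k _ => ENNReal.ofReal_lt_top).ne
  obtain ⟨β1, hβ1, hW1β⟩ := exists_small W1top hε2
  have hface := fun j => face_h (X.F j) hpf hpf2 (hηF0 j) (hηF1 j) hβ1
  choose NF hj f0' f1 f2 f3 f4 f4' f5 using hface
  obtain ⟨H, H1, H2, H3, H4⟩ := exists_prod Finset.univ hj (fun j => (X.F j).V)
    (fun j _ => f1 j) (fun j _ => f2 j) (fun j _ => f3 j) (fun i _ j _ hij => X.disF i j hij)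
  have H3' : ∀ j, ∀ x ∈ (X.F j).V, H x = hj j x := fun j x hx => H3 j (Finset.mem_univ j) x hx
  have H4' : ∀ x, (∀ j, x ∉ (X.F j).V) → H x = x := fun x hx => H4 x fun j _ => hx j
  have HV : ∀ j, ∀ x ∈ (X.F j).V, H x ∈ (X.F j).V := fun j x hx => by
    rw [H3' j x hx]; exact maps_of_fix (hj j).injective (f3 j) hx
  have HV' : ∀ j, ∀ x, H x ∈ (X.F j).V → x ∈ (X.F j).V := by
    intro j x hx
    by_cases hx2 : ∃ i, x ∈ (X.F i).V
    · obtain ⟨i, hi⟩ := hx2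
      have h1 := HV i x hi
      by_cases hij : i = j
      · rw [← hij]; exact hi
      · exact absurd hx (fun h2 => Set.disjoint_left.1 (X.disF i j hij) h1 h2)
    · push Not at hx2
      rwa [H4' x hx2] at hx
  -- invariance of the cells
  have HP : ∀ k, ∀ x ∈ (X.C k).P, H x ∈ (X.C k).P := by
    intro k x hx
    by_cases hx2 : ∃ j, x ∈ (X.F j).V
    · obtain ⟨j, hj2⟩ := hx2
      refine X.side j k x hj2 _ (HV j x hj2) ?_ hx
      rw [H3' j x hj2, f4 j x hj2]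
    · push Not at hx2
      rw [H4' x hx2]; exact hx
  have HP' : ∀ k, ∀ x, H x ∈ (X.C k).P → x ∈ (X.C k).P := by
    intro k x hx
    by_cases hx2 : ∃ j, x ∈ (X.F j).V
    · obtain ⟨j, hj2⟩ := hx2
      refine X.side j k _ (HV j x hj2) _ hj2 ?_ hx
      rw [H3' j x hj2, f4 j x hj2]
    · push Not at hx2
      rwa [H4' x hx2] at hx
  -- step 2: the cells
  obtain ⟨CH, hCH, hpull⟩ := exists_pull hp.le H1 H2
  have W2top : CH * B ≠ ∞ := ENNReal.mul_ne_top hCH hB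
  obtain ⟨β2, hβ2, hW2β⟩ := exists_small W2top hε2
  have hcell := fun k => cell_h (X.C k) hp hp3 (hηC0 k) (hηC1 k) hβ2
  choose NC gk g0 g1 g2 g3 g4 g5 using hcell
  obtain ⟨Y, Y1, Y2, Y3, Y4⟩ := exists_prod Finset.univ gk (fun k => (X.C k).U)
    (fun k _ => g1 k) (fun k _ => g2 k) (fun k _ => g3 k) (fun i _ j _ hij => X.disC i j hij)
  have Y3' : ∀ k, ∀ x ∈ (X.C k).U, Y x = gk k x := fun k x hx => Y3 k (Finset.mem_univ k) x hx
  have Y4' : ∀ x, (∀ k, x ∉ (X.C k).U) → Y x = x := fun x hx => Y4 x fun k _ => hx k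
  have YU : ∀ k, ∀ x ∈ (X.C k).U, Y x ∈ (X.C k).U := fun k x hx => by
    rw [Y3' k x hx]; exact maps_of_fix (gk k).injective (g3 k) hx
  have YU' : ∀ k, ∀ x, Y x ∈ (X.C k).U → x ∈ (X.C k).U := by
    intro j x hx
    by_cases hx2 : ∃ i, x ∈ (X.C i).U
    · obtain ⟨i, hi⟩ := hx2
      have h1 := YU i x hi
      by_cases hij : i = j
      · rw [← hij]; exact hi
      · exact absurd hx (fun h2 => Set.disjoint_left.1 (X.disC i j hij) h1 h2)
    · push Not at hx2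
      rwa [Y4' x hx2] at hx
  have YP : ∀ k, ∀ x ∈ (X.C k).P, Y x ∈ (X.C k).P := by
    intro k x hx
    by_cases hx2 : ∃ l, x ∈ (X.C l).U
    · obtain ⟨l, hl⟩ := hx2
      have hkl : l = k := by
        by_contra hne
        exact Set.disjoint_left.1 (Cell.disjoint_P (X.disC k l (Ne.symm hne))) hx hl
      subst hkl
      exact (X.C l).cht.sub (YU l x hl)
    · push Not at hx2
      rw [Y4' x hx2]; exact hx
  have YP' : ∀ k, ∀ x, Y x ∈ (X.C k).P → x ∈ (X.C k).P := by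
    intro k x hx
    by_cases hx2 : ∃ l, x ∈ (X.C l).U
    · obtain ⟨l, hl⟩ := hx2
      have hkl : l = k := by
        by_contra hne
        exact Set.disjoint_left.1 (Cell.disjoint_P (X.disC k l (Ne.symm hne))) hx (YU l x hl)
      subst hkl
      exact (X.C l).cht.sub hl
    · push Not at hx2
      rwa [Y4' x hx2] at hx
  have YonP : ∀ k, ∀ x ∈ (X.C k).P, Y x = gk k x := by
    intro k x hx
    by_cases hx2 : ∃ l, x ∈ (X.C l).U
    · obtain ⟨l, hl⟩ := hx2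
      have hkl : l = k := by
        by_contra hne
        exact Set.disjoint_left.1 (Cell.disjoint_P (X.disC k l (Ne.symm hne))) hx hl
      subst hkl
      exact Y3' l x hl
    · push Not at hx2
      rw [Y4' x hx2, g3 k x (hx2 k)]
  refine ⟨NC, NF, Y, H, ⟨g0, f0', Y1, Y2, H1, H2, Y4', H4', ?_, ?_, ?_, ?_, ?_, ?_, ?_⟩, ?_⟩
  · intro k x hx
    rw [YonP k x hx, g4 k x hx]
  · intro j x hx
    rw [H3' j x hx, f4' j x ((X.F j).cht.sub hx)]
  · intro j x hx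
    rw [H3' j x hx, f4 j x hx]
  · exact fun j x => ⟨HV' j x, HV j x⟩
  · exact fun k x => ⟨YU' k x, YU k x⟩
  · exact fun k x => ⟨YP' k x, YP k x⟩
  · exact fun k x => ⟨HP' k x, HP k x⟩
  -- the estimate
  intro k hk v hv hvB w hw
  have hvfin : ∀ᵐ z, v z ≠ ∞ := by
    filter_upwards [ae_lt_top hv (ne_top_of_le_ne_top hB hvB)] with z hz
    exact hz.ne
  set u1 : E3 → ℝ≥0∞ := pull p H v with hu1
  have hu1m : Measurable u1 := measurable_pull H.continuous hv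
  have hu1B : ∫⁻ z, u1 z ≤ CH * B := (hpull v hv).trans (mul_le_mul' le_rfl hvB)
  have hu1fin : ∀ᵐ z, u1 z ≠ ∞ := by
    filter_upwards [ae_lt_top hu1m (ne_top_of_le_ne_top W2top hu1B)] with z hz
    exact hz.ne
  -- (a) the cell step
  set Lk : Set E3 := (X.C k).P ∩ (X.C k).e ⁻¹' {z | 1 - eC X δ k < ‖z‖ ∧ ‖z‖ ≤ 1} with hLk
  have hY : ∀ᵐ x, LLV (Lc H (Y x)) H (Y x) := null_pre Y2 (LLV_Lc H1)
  have qa : ∫⁻ x in (X.C k).U, w x ≤
      aC k * (∫⁻ x in Lk, u1 x) + β2 * ∫⁻ x in (X.C k).P, u1 x := by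
    have key := Est.prod (X.C k).cht.opU (Y3' k) (g5 k)
    refine key u1 w hu1m hu1fin ?_
    filter_upwards [hw, hY] with x hx1 hx2 hxU c hc hcx
    have h1 : 1 ≤ Lc H (Y x) := one_le_Lc _ _
    have h2 : LLV (Lc H (Y x) * c) (fun x => H (Y x)) x := by
      have h3 : Tendsto Y (𝓝 x) (𝓝 (Y x)) := Y.continuous.continuousAt
      filter_upwards [h3.eventually hx2, hcx] with y hy1 hy2
      calc ‖H (Y y) - H (Y x)‖ ≤ Lc H (Y x) * ‖Y y - Y x‖ := hy1
        _ ≤ Lc H (Y x) * (c * ‖y - x‖) := mul_le_mul_of_nonneg_left hy2 (by linarith)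
        _ = _ := by ring
    have h4 := hx1 ((X.C k).cht.sub hxU) _ (by nlinarith) h2
    refine h4.trans (le_of_eq ?_)
    show _ = ENNReal.ofReal (c^p) * (ENNReal.ofReal ((Lc H (Y x))^p) * v (H (Y x)))
    rw [Real.mul_rpow (by linarith) (by linarith), ENNReal.ofReal_mul (by positivity)]
    ring
  have qa' : ∫⁻ x in (X.C k).P, w x ≤
      aC k * (∫⁻ x in Lk, u1 x) + β2 * ∫⁻ x in (X.C k).P, u1 x := by
    refine le_trans ?_ qa
    have e1 : (X.C k).P ⊆ (X.C k).U ∪ ((X.C k).P \ (X.C k).U) := by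
      intro x hx
      by_cases h1 : x ∈ (X.C k).U
      · exact Or.inl h1
      · exact Or.inr ⟨hx, h1⟩
    refine (lintegral_mono_set e1).trans ((lintegral_union_le _ _ _).trans ?_)
    rw [setLIntegral_measure_zero _ _ (X.C k).null, add_zero]
  -- (b) off the faces
  have qb : ∀ᵐ z, (∀ j, z ∉ (X.F j).V) → u1 z ≤ v z := by
    have hn : ∀ᵐ z, ∀ j, z ∉ (X.F j).K \ (X.F j).V := by
      rw [ae_all_iff]
      intro j
      exact measure_eq_zero_iff_ae_notMem.1 (X.F j).null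
    filter_upwards [hn] with z hz2 hzV
    have hzK : ∀ j, z ∉ (X.F j).K := fun j hj3 => hz2 j ⟨hj3, hzV j⟩
    have h6 : ∀ᶠ y in 𝓝 z, ∀ j, y ∉ (X.F j).K :=
      eventually_all.2 fun j => (X.F j).cht.clK.isOpen_compl.mem_nhds (hzK j)
    have h7 : LLV 1 H z := by
      filter_upwards [h6] with y hy
      rw [H4' y fun j hj3 => hy j ((X.F j).cht.sub hj3), H4' z hzV, one_mul]
    have h8 := pull_le hp.le le_rfl h7 (v := v)
    rwa [Real.one_rpow, ENNReal.ofReal_one, one_mul, H4' z hzV] at h8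
  -- (c) the faces
  set Ij : ι → ℝ≥0∞ := fun j =>
    ∫⁻ x in (X.C k).P ∩ (X.F j).V ∩ nb δ (X.F j).rim, v x with hIj
  have hdist : ∀ j, ((X.F j).V ∩ (X.C k).P).Nonempty → ((X.F j).M : ℝ) ≤ X.m k := fun j hj3 => by
    exact_mod_cast X.mF k j hj3
  have hd0 : ((X.C k).M : ℝ) * (X.C k).R * eC X δ k ≤ δ / (3 * (X.m k : ℝ)^2) := by
    have h1 := hm1 k
    have h2 := (X.C k).R_pos
    have h3 : ((X.C k).M : ℝ) ≤ X.m k := by exact_mod_cast X.mC k
    show ((X.C k).M : ℝ) * (X.C k).R * (δ / (3 * (X.m k : ℝ)^3 * (X.C k).R)) ≤ _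
    have e : ((X.C k).M : ℝ) * (X.C k).R * (δ / (3 * (X.m k : ℝ)^3 * (X.C k).R)) =
        ((X.C k).M / X.m k) * (δ / (3 * (X.m k : ℝ)^2)) := by
      field_simp
    rw [e]
    have h5 : ((X.C k).M : ℝ) / X.m k ≤ 1 := by rw [div_le_one (by linarith)]; exact h3
    have h6 : 0 ≤ δ / (3 * (X.m k : ℝ)^2) := by positivity
    nlinarith
  have hδ' : δ / (3 * (X.m k : ℝ)^2) ≤ δ := by
    have h1 := hm1 k
    rw [div_le_iff₀ (by positivity)]
    have : (1:ℝ) ≤ (X.m k : ℝ)^2 := one_le_pow₀ h1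
    nlinarith
  have qc : ∀ j, ∫⁻ x in Lk ∩ (X.F j).V, u1 x ≤
      ENNReal.ofReal (T2 p (X.m k)) * (ENNReal.ofReal ((X.F j).ρ / δ) * Ij j) +
        β1 * ∫⁻ x, v x := by
    intro j
    by_cases hne : ((X.F j).V ∩ (X.C k).P).Nonempty
    · have hp2 : p < 2 := by
        rcases hk with h | h
        · exact h
        · exact absurd (h j) (not_disjoint_iff_nonempty_inter.2 hne)
      have hM := hdist j hne
      have hM1 := (X.F j).M_one
      have hρ := (X.F j).ρ_pos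
      set S : Set E3 := (X.C k).P ∩ ((X.F j).K ∩ (X.F j).e ⁻¹' {z | |z 0| ≤ eF X δ j}) with hSdef
      have clS : IsClosed S := by
        refine (X.C k).cht.clK.inter ?_
        refine (X.F j).cht.pl.1.preimage_isClosed_of_isClosed (X.F j).cht.clK ?_
        exact isClosed_le (continuous_apply 0).abs continuous_const
      have sub1 : Lk ∩ (X.F j).V ⊆ (X.F j).V ∩ S := by
        rintro x ⟨⟨hx1, hx2⟩, hx3⟩
        refine ⟨hx3, hx1, (X.F j).cht.sub hx3, ?_⟩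
        obtain ⟨y, hy, hxy⟩ := (X.C k).layer (by have := hηC1 k; linarith) hx1 hx2.1
        have h1 := X.slab j k x hx3 hx1 y hy
        show |(X.F j).e x 0| ≤ δ / (2 * (X.F j).M * (X.F j).ρ)
        rw [le_div_iff₀ (by positivity)]
        have h2 : ‖x - y‖ ≤ δ / (3 * (X.m k : ℝ)^2) := hxy.trans hd0
        have h3 : ((X.F j).M : ℝ) * ‖x - y‖ ≤ (X.F j).M * (δ / (3 * (X.m k : ℝ)^2)) :=
          mul_le_mul_of_nonneg_left h2 (by positivity)
        have h4 : (X.F j).ρ * |(X.F j).e x 0| ≤ (X.F j).M * (δ / (3 * (X.m k : ℝ)^2)) :=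
          h1.trans h3
        have h5 : 2 * ((X.F j).M : ℝ) * ((X.F j).M * (δ / (3 * (X.m k : ℝ)^2))) ≤ δ := by
          have h6 := hm1 k
          have e : 2 * ((X.F j).M : ℝ) * ((X.F j).M * (δ / (3 * (X.m k : ℝ)^2))) =
              (2/3) * δ * (((X.F j).M / X.m k) * ((X.F j).M / X.m k)) := by
            field_simp
          rw [e]
          have h7 : ((X.F j).M : ℝ) / X.m k ≤ 1 := by rw [div_le_one (by linarith)]; exact hM
          have h8 : 0 ≤ ((X.F j).M : ℝ) / X.m k := by positivity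
          have h9 : ((X.F j).M / X.m k : ℝ) * ((X.F j).M / X.m k) ≤ 1 := by nlinarith
          nlinarith
        calc |(X.F j).e x 0| * (2 * (X.F j).M * (X.F j).ρ)
            = 2 * ((X.F j).M : ℝ) * ((X.F j).ρ * |(X.F j).e x 0|) := by ring
          _ ≤ 2 * ((X.F j).M : ℝ) * ((X.F j).M * (δ / (3 * (X.m k : ℝ)^2))) :=
              mul_le_mul_of_nonneg_left h4 (by positivity)
          _ ≤ δ := h5
      have hEst := Est.prod (X.F j).cht.opU (H3' j) (f5 j)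
      rw [pf_eq hp2] at hEst
      have key := hEst.inter (S := S) clS.measurableSet (by
          rintro x hxV ⟨hx1, hx2, hx3⟩
          have h1 := HV j x hxV
          refine ⟨HP k x hx1, (X.F j).cht.sub h1, ?_⟩
          show |(X.F j).e (H x) 0| ≤ eF X δ j
          rw [H3' j x hxV, f4 j x hxV]
          exact hx3) hv hvfin (F := u1) (Eventually.of_forall fun z _ c hc hcz =>
            pull_le hp.le hc hcz)
      refine (lintegral_mono_set sub1).trans (key.trans (add_le_add ?_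
        (mul_le_mul' le_rfl (setLIntegral_le_lintegral _ _))))
      rw [← mul_assoc]
      refine mul_le_mul' (aF_le hp.le (X.F j).one (X.F j).pos (X.mF k j hne) hδ) ?_
      have sub2 : ((X.F j).K ∩ (X.F j).e ⁻¹'
          {z | (1 - eF X δ j) * (1 - |z 0|) ≤ wid z ∧ |z 0| + wid z ≤ 1}) ∩ S ⊆
          ((X.C k).P ∩ (X.F j).V ∩ nb δ (X.F j).rim) ∪ ((X.F j).K \ (X.F j).V) := by
        rintro x ⟨⟨hx1, hx2⟩, hx3, -, hx4⟩
        by_cases hxV : x ∈ (X.F j).V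
        · left
          refine ⟨⟨hx3, hxV⟩, ?_⟩
          obtain ⟨r, hr, hxr⟩ := (X.F j).near hx1 (hηF0 j).le hx4 hx2.1
          refine ⟨r, hr, hxr.trans (le_of_eq ?_)⟩
          show ((X.F j).M : ℝ) * (X.F j).ρ * (δ / (2 * (X.F j).M * (X.F j).ρ) +
            δ / (2 * (X.F j).M * (X.F j).ρ)) = δ
          field_simp
          ring
        · exact Or.inr ⟨hx1, hxV⟩
      refine (lintegral_mono_set sub2).trans ((lintegral_union_le _ _ _).trans ?_)
      rw [setLIntegral_measure_zero _ _ (X.F j).null, add_zero]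
    · have e1 : Lk ∩ (X.F j).V = ∅ := by
        rw [← not_nonempty_iff_eq_empty]
        rintro ⟨x, hx1, hx2⟩
        exact hne ⟨x, hx2, hx1.1⟩
      rw [e1, Measure.restrict_empty, lintegral_zero_measure]
      exact zero_le
  -- (d) the rest of the layer
  set J : ℝ≥0∞ := ∫⁻ x in (X.C k).P ∩ (nb δ X.Z ∪ ⋃ j, nb δ (X.F j).rim), v x with hJ
  have qd : ∫⁻ x in Lk \ ⋃ j, (X.F j).V, u1 x ≤ J := by
    have mW : MeasurableSet ((⋃ j, (X.F j).V)ᶜ) :=
      (isOpen_iUnion fun j => (X.F j).cht.opU).measurableSet.compl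
    have h1 : ∀ᵐ z ∂(volume.restrict ((⋃ j, (X.F j).V)ᶜ)), u1 z ≤ v z := by
      rw [ae_restrict_iff' mW]
      filter_upwards [qb] with z hz hzW
      exact hz fun j hj3 => hzW (mem_iUnion.2 ⟨j, hj3⟩)
    have h2 : Lk \ (⋃ j, (X.F j).V) ⊆ (⋃ j, (X.F j).V)ᶜ := fun x hx => hx.2
    have h3 : Lk \ (⋃ j, (X.F j).V) ⊆ (X.C k).P ∩ (nb δ X.Z ∪ ⋃ j, nb δ (X.F j).rim) := by
      rintro x ⟨⟨hx1, hx2⟩, hx3⟩
      refine ⟨hx1, ?_⟩
      obtain ⟨y, hy, hxy⟩ := (X.C k).layer (by have := hηC1 k; linarith) hx1 hx2.1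
      have h4 : ‖x - y‖ ≤ δ / (3 * (X.m k : ℝ)^2) := hxy.trans hd0
      rcases X.hZ k y hy with h5 | ⟨j, hj1, hj2⟩
      · left
        exact ⟨y, h5, h4.trans hδ'⟩
      · right
        have hxV : x ∉ (X.F j).V := fun h6 => hx3 (mem_iUnion.2 ⟨j, h6⟩)
        obtain ⟨r, hr, hyr⟩ := (X.F j).exit hj1 hj2 hxV h4
        refine mem_iUnion.2 ⟨j, r, hr, ?_⟩
        have hM := hdist j ⟨y, hj1, hy.1⟩
        have hM1 := (X.F j).M_one
        have h6 := hm1 k
        have h7 : ‖x - r‖ ≤ ‖x - y‖ + ‖y - r‖ := norm_sub_le_norm_sub_add_norm_sub _ _ _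
        have h8 : (1 + 2 * ((X.F j).M * (X.F j).M : ℝ)) * (δ / (3 * (X.m k : ℝ)^2)) ≤ δ := by
          have h9 : (1 + 2 * ((X.F j).M * (X.F j).M : ℝ)) ≤ 3 * (X.m k : ℝ)^2 := by nlinarith
          have h10 : 0 ≤ δ / (3 * (X.m k : ℝ)^2) := by positivity
          calc _ ≤ 3 * (X.m k : ℝ)^2 * (δ / (3 * (X.m k : ℝ)^2)) :=
                mul_le_mul_of_nonneg_right h9 h10
            _ = δ := by field_simp
        nlinarith
    calc ∫⁻ x in Lk \ ⋃ j, (X.F j).V, u1 x ≤ ∫⁻ x in Lk \ ⋃ j, (X.F j).V, v x :=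
          lintegral_mono_ae (ae_mono (Measure.restrict_mono h2 le_rfl) h1)
      _ ≤ J := lintegral_mono_set h3
  -- (e) the layer
  have t2' := T2_nonneg p (X.m k)
  have qe : ∫⁻ x in Lk, u1 x ≤ ENNReal.ofReal (1 + T2 p (X.m k)) *
      ((∑ j, ENNReal.ofReal ((X.F j).ρ / δ) * Ij j) + J) +
      Fintype.card ι * (β1 * ∫⁻ x, v x) := by
    have e1 : Lk ⊆ (Lk \ ⋃ j, (X.F j).V) ∪ ⋃ j, (Lk ∩ (X.F j).V) := by
      intro x hx
      by_cases h1 : x ∈ ⋃ j, (X.F j).V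
      · obtain ⟨j, hj3⟩ := mem_iUnion.1 h1
        exact Or.inr (mem_iUnion.2 ⟨j, hx, hj3⟩)
      · exact Or.inl ⟨hx, h1⟩
    have e2 : ∫⁻ x in ⋃ j, (Lk ∩ (X.F j).V), u1 x ≤ ∑ j, ∫⁻ x in Lk ∩ (X.F j).V, u1 x := by
      refine (lintegral_iUnion_le _ _).trans ?_
      rw [tsum_fintype]
    have t1 : (1:ℝ) ≤ 1 + T2 p (X.m k) := by linarith
    have t2 : (1:ℝ≥0∞) ≤ ENNReal.ofReal (1 + T2 p (X.m k)) := by
      rw [← ENNReal.ofReal_one]; exact ENNReal.ofReal_le_ofReal t1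
    have t3 : ENNReal.ofReal (T2 p (X.m k)) ≤ ENNReal.ofReal (1 + T2 p (X.m k)) :=
      ENNReal.ofReal_le_ofReal (by linarith)
    calc ∫⁻ x in Lk, u1 x ≤ J + ∑ j, (ENNReal.ofReal (T2 p (X.m k)) *
          (ENNReal.ofReal ((X.F j).ρ / δ) * Ij j) + β1 * ∫⁻ x, v x) :=
          (lintegral_mono_set e1).trans ((lintegral_union_le _ _ _).trans
            (add_le_add qd (e2.trans (Finset.sum_le_sum fun j _ => qc j))))
      _ = J + ENNReal.ofReal (T2 p (X.m k)) *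
          (∑ j, ENNReal.ofReal ((X.F j).ρ / δ) * Ij j) +
            Fintype.card ι * (β1 * ∫⁻ x, v x) := by
          rw [Finset.sum_add_distrib, ← Finset.mul_sum, Finset.sum_const,
            Finset.card_univ, nsmul_eq_mul, ← add_assoc]
      _ ≤ ENNReal.ofReal (1 + T2 p (X.m k)) * J + ENNReal.ofReal (1 + T2 p (X.m k)) *
          (∑ j, ENNReal.ofReal ((X.F j).ρ / δ) * Ij j) +
            Fintype.card ι * (β1 * ∫⁻ x, v x) := by
          refine add_le_add (add_le_add ?_ (mul_le_mul' t3 le_rfl)) le_rfl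
          calc J = 1 * J := (one_mul _).symm
            _ ≤ _ := mul_le_mul' t2 le_rfl
      _ = _ := by ring
  -- (f) conclusion
  set Sg := (∑ j, ENNReal.ofReal ((X.F j).ρ / δ) * Ij j) + J with hSg
  have hW : aC k * (Fintype.card ι * (β1 * ∫⁻ x, v x)) ≤ ε / 2 := by
    refine le_trans ?_ hW1β
    calc aC k * (Fintype.card ι * (β1 * ∫⁻ x, v x))
        ≤ aC k * (Fintype.card ι * (β1 * B)) := by gcongr
      _ = aC k * (Fintype.card ι * B) * β1 := by ring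
      _ ≤ (∑ k, aC k) * (Fintype.card ι * B) * β1 := by
          refine mul_le_mul' (mul_le_mul' ?_ le_rfl) le_rfl
          exact Finset.single_le_sum (f := fun k => aC k) (fun _ _ => zero_le)
            (Finset.mem_univ k)
  have hV : β2 * ∫⁻ x in (X.C k).P, u1 x ≤ ε / 2 := by
    refine le_trans ?_ hW2β
    calc β2 * ∫⁻ x in (X.C k).P, u1 x ≤ β2 * (CH * B) :=
          mul_le_mul' le_rfl ((setLIntegral_le_lintegral _ _).trans hu1B)
      _ = CH * B * β2 := by ring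
  have haCk : aC k ≤ ENNReal.ofReal (T3 p (X.m k)) * ENNReal.ofReal ((X.C k).R / δ) :=
    aC_le hp.le (X.C k).one (X.C k).pos (X.mC k) hδ
  have hCC : ENNReal.ofReal (CV p (X.m k)) = ENNReal.ofReal (T3 p (X.m k)) *
      ENNReal.ofReal (1 + T2 p (X.m k)) := by
    have t3 := T3_nonneg p (X.m k)
    rw [CV, ENNReal.ofReal_mul t3]
  calc ∫⁻ x in (X.C k).P, w x
      ≤ aC k * (∫⁻ x in Lk, u1 x) + β2 * ∫⁻ x in (X.C k).P, u1 x := qa'
    _ ≤ aC k * (ENNReal.ofReal (1 + T2 p (X.m k)) * Sg +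
        Fintype.card ι * (β1 * ∫⁻ x, v x)) + β2 * ∫⁻ x in (X.C k).P, u1 x :=
        add_le_add (mul_le_mul' le_rfl qe) le_rfl
    _ = aC k * (ENNReal.ofReal (1 + T2 p (X.m k)) * Sg) +
        aC k * (Fintype.card ι * (β1 * ∫⁻ x, v x)) +
        β2 * ∫⁻ x in (X.C k).P, u1 x := by ring
    _ ≤ (ENNReal.ofReal (T3 p (X.m k)) * ENNReal.ofReal ((X.C k).R / δ)) *
        (ENNReal.ofReal (1 + T2 p (X.m k)) * Sg) + ε / 2 + ε / 2 :=
        add_le_add (add_le_add (mul_le_mul' haCk le_rfl) hW) hV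
    _ = ENNReal.ofReal (CV p (X.m k)) * (ENNReal.ofReal ((X.C k).R / δ) * Sg) + ε := by
        rw [add_assoc, ENNReal.add_halves, hCC]
        ring

end Crest.Agent.R096.Cob_622
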