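import Crest.Agent.R096.Ou2_609

/-!
# R096 (row 96), helper609: ENERGY OF A CORE = the clause `core` of `Out`

`core_clause` : for the core `K = th⁻¹' P_c`, `G = st C κ (R (th x))` with `R` radial (628),
`st C κ ∘ R` Lipschitz (714), `R` locally `e1`-close to the identity off a set `W` of relative volume
`e1`, and `g` locally `τ`-close to `G` (EXPLODE): both halves of the clause `core` of `Out`.
-/

set_option autoImplicit false
set_option linter.unusedSectionVars false
set_option linter.unusedVariables false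

open Set Metric Topology Module Filter MeasureTheory
open scoped Classical NNReal ENNReal

namespace Crest.Agent.R096.Cog_609

open Crest.Agent.R096.Xp_537 Crest.Agent.R096.SkC1_961 Crest.Agent.R096.Ou_609

/-- an affine equivalence multiplies the volume by a constant -/
lemma vol_preimage {E : Type*} [NormedAddCommGroup E] [NormedSpace ℝ E] [FiniteDimensional ℝ E]
    [MeasurableSpace E] [BorelSpace E] (μ : Measure E) [μ.IsAddHaarMeasure] (B : E ≃ᵃ[ℝ] E) :
    ∃ d : ℝ≥0∞, d ≠ ⊤ ∧ ∀ S : Set E, μ (B ⁻¹' S) = d * μ S := by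
  refine ⟨ENNReal.ofReal |(LinearMap.det (B.linear : E →ₗ[ℝ] E))⁻¹|, ENNReal.ofReal_ne_top,
    fun S => ?_⟩
  have hdet : LinearMap.det (B.linear : E →ₗ[ℝ] E) ≠ 0 := (LinearEquiv.isUnit_det' B.linear).ne_zero
  have h1 : B ⁻¹' S = (B.linear : E →ₗ[ℝ] E) ⁻¹' ((fun v => v + B 0) ⁻¹' S) := by
    ext x
    have h2 : B x = B.linear x + B 0 := by
      have h3 := B.toAffineMap.linearMap_vsub x 0
      simp only [vsub_eq_sub, sub_zero] at h3
      have h4 : B.linear x = B x - B 0 := h3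
      rw [h4]; abel
    simp only [mem_preimage, LinearEquiv.coe_coe]
    rw [h2]
  rw [h1, Measure.addHaar_preimage_linearMap μ hdet, measure_preimage_add_right]

lemma th_sub (A : E3 ≃ᵃ[ℝ] E3) (lam : ℝ) (z x y : E3) :
    th A lam z y - th A lam z x = (1 / lam) • (A y - A x) := by
  funext k
  simp only [th, Pi.sub_apply, Pi.smul_apply, smul_eq_mul]
  ring

lemma norm_th_sub (A : E3 ≃ᵃ[ℝ] E3) {lam : ℝ} (hlam : 0 < lam) (z x y : E3) :
    ‖th A lam z y - th A lam z x‖ = 1 / lam * ‖A y - A x‖ := by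
  rw [th_sub, norm_smul, Real.norm_of_nonneg (by positivity)]

/-- the exact map is an affine equivalence -/
lemma exists_thE (A : E3 ≃ᵃ[ℝ] E3) {lam : ℝ} (hlam : 0 < lam) (z : E3) :
    ∃ B : E3 ≃ᵃ[ℝ] E3, ∀ x, B x = th A lam z x := by
  refine ⟨(A.trans (AffineEquiv.constVAdd ℝ E3 (-z))).trans
    (LinearEquiv.smulOfNeZero ℝ E3 (1 / lam) (by positivity)).toAffineEquiv, fun x => ?_⟩
  funext k
  simp only [AffineEquiv.trans_apply, AffineEquiv.constVAdd_apply, vadd_eq_add, th,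
    LinearEquiv.coe_toAffineEquiv, LinearEquiv.smulOfNeZero_apply, Pi.smul_apply, Pi.add_apply,
    Pi.neg_apply, smul_eq_mul]
  ring

section Clause

variable {Q : Type*} [PartialOrder Q] {La : Set E3}

/-- **ENERGY OF A CORE** -/
theorem core_clause (C : CC La Q) {q : Q} {κ : ℝ} (hκ : 0 < κ ∧ κ < 1)
    (hcpt : IsCompact (C.cell q)) (hcvx : Convex ℝ (C.cell q)) (hb : C.b q ∈ C.cell q)
    {A : E3 ≃ᵃ[ℝ] E3} {lam : ℝ} (hlam : 0 < lam) {z : E3} {K : Set E3}
    (hK : K = th A lam z ⁻¹' C.cell q) {R : E3 → E3}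
    (hRc : ContinuousOn R (C.cell q))
    (hrad : ∀ y ∈ C.cell q, ∀ s ∈ Icc (0:ℝ) 1,
      R (C.b q + s • (y - C.b q)) = C.b q + s • (R y - C.b q))
    (hint : MapsTo R (interior (C.cell q)) (interior (C.cell q)))
    {G : E3 → E3} (hG : ∀ x ∈ K, G x = st C κ (R (th A lam z x)))
    {S : ℝ} (hS : ∀ y ∈ C.cell q, ∀ y' ∈ C.cell q,
      ‖st C κ (R y) - st C κ (R y')‖ ≤ S * ‖y - y'‖)
    {e1 : ℝ} (he1 : 0 ≤ e1) {W : Set E3}
    (hW : volume (W ∩ C.cell q) ≤ ENNReal.ofReal e1 * volume (C.cell q))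
    (hR : ∀ y ∈ interior (C.cell q), y ∉ W → ∀ᶠ y' in 𝓝 y,
      ‖(R y' - R y) - (y' - y)‖ ≤ e1 * ‖y' - y‖) :
    ∃ m : ℝ, 0 < m ∧ ∀ τ : ℝ, 0 ≤ τ → ∀ g : E3 → E3,
      (∀ x ∈ interior K, ∀ᶠ y in 𝓝 x, ‖(g y - g x) - (G y - G x)‖ ≤ τ * ‖y - x‖) →
      (∀ x ∈ interior K, ∀ᶠ y in 𝓝 x,
        ‖g y - g x‖ ≤ (S + τ / m) * (1 / lam * ‖A y - A x‖)) ∧
      ∃ W' : Set E3, volume (W' ∩ K) ≤ ENNReal.ofReal (e1 + 3 * κ) * volume K ∧
        ∀ x ∈ interior K, x ∉ W' → ∀ᶠ y in 𝓝 x,
          ‖(g y - g x) - (1 / lam) • (A y - A x)‖ ≤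
            ((e1 + κ) / (1 - κ) + τ / m) * (1 / lam * ‖A y - A x‖) := by
  obtain ⟨B, hB⟩ := exists_thE A hlam z
  obtain ⟨m, hm, hexp⟩ := exists_expand B
  have hBfun : (B : E3 → E3) = th A lam z := funext hB
  have hthc : Continuous (th A lam z) := by
    rw [← hBfun]
    exact (AffineEquiv.continuous_of_finiteDimensional B)
  have hint' : interior K = th A lam z ⁻¹' interior (C.cell q) := by
    rw [hK, ← hBfun]
    exact (B.toContinuousAffineEquiv.toHomeomorph.preimage_interior (C.cell q)).symm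
  have hexp' : ∀ x y, m * ‖y - x‖ ≤ ‖th A lam z y - th A lam z x‖ := by
    intro x y
    have := hexp x y
    rwa [hB, hB] at this
  refine ⟨m, hm, fun τ hτ g hg => ⟨fun x hx => ?_, ?_⟩⟩
  · -- Lipschitz
    have h1 : ∀ᶠ y in 𝓝 x, ‖G y - G x‖ ≤ S * ‖th A lam z y - th A lam z x‖ := by
      filter_upwards [isOpen_interior.mem_nhds hx] with y hy
      have hy' : y ∈ K := interior_subset hy
      have hx' : x ∈ K := interior_subset hx
      rw [hG y hy', hG x hx']
      rw [hK] at hy' hx'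
      exact hS _ hy' _ hx'
    have h2 := core_lip (τ := τ) hm hτ h1 (Filter.Eventually.of_forall fun y => hexp' x y) (hg x hx)
    filter_upwards [h2] with y hy
    rwa [norm_th_sub A hlam] at hy
  · -- good part
    set inn : Set E3 := (fun t => (1 - κ) • t + κ • C.b q) '' interior (C.cell q) with hinn
    refine ⟨th A lam z ⁻¹' (W ∪ (C.cell q \ inn)), ?_, fun x hx hxW => ?_⟩
    · obtain ⟨d, hd, hvol⟩ := vol_preimage (volume : Measure E3) B
      have e1' : th A lam z ⁻¹' (W ∪ (C.cell q \ inn)) ∩ K =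
          B ⁻¹' ((W ∩ C.cell q) ∪ (C.cell q \ inn)) := by
        rw [hK, hBfun]
        ext x
        simp only [mem_inter_iff, mem_preimage, mem_union, Set.mem_sdiff]
        tauto
      have e2' : K = B ⁻¹' C.cell q := by rw [hK, hBfun]
      have hfr : ENNReal.ofReal (finrank ℝ E3 * κ) = ENNReal.ofReal (3 * κ) := by
        congr 2
        simp [E3]
      rw [e1', hvol]
      conv_rhs => rw [e2', hvol]
      calc d * volume ((W ∩ C.cell q) ∪ (C.cell q \ inn))
          ≤ d * (volume (W ∩ C.cell q) + volume (C.cell q \ inn)) := by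
            gcongr
            exact measure_union_le _ _
        _ ≤ d * (ENNReal.ofReal e1 * volume (C.cell q) +
              ENNReal.ofReal (3 * κ) * volume (C.cell q)) := by
            gcongr
            rw [← hfr]
            exact volume_inner (volume : Measure E3) hcpt hcvx hb hκ.1.le hκ.2
        _ = ENNReal.ofReal (e1 + 3 * κ) * (d * volume (C.cell q)) := by
            rw [ENNReal.ofReal_add he1 (by have := hκ.1; positivity)]
            ring
    · rw [hint'] at hx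
      have hxc : th A lam z x ∈ interior (C.cell q) := hx
      have hxcell : th A lam z x ∈ C.cell q := interior_subset hxc
      have hxW1 : th A lam z x ∉ W := fun h => hxW (Or.inl h)
      have hxin : th A lam z x ∈ inn := by
        by_contra h
        exact hxW (Or.inr ⟨hxcell, h⟩)
      obtain ⟨t, ht, htx⟩ := hxin
      have htx' : th A lam z x = C.b q + (1 - κ) • (t - C.b q) := by
        rw [← htx]
        module
      have hRx : R (th A lam z x) = (1 - κ) • R t + κ • C.b q := by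
        rw [htx', hrad t (interior_subset ht) (1 - κ) ⟨by linarith [hκ.2], by linarith [hκ.1]⟩]
        module
      have hloc : ∀ᶠ y in 𝓝 x, ‖(R (th A lam z y) - R (th A lam z x)) -
          (th A lam z y - th A lam z x)‖ ≤ e1 * ‖th A lam z y - th A lam z x‖ :=
        (hthc.tendsto x).eventually (hR _ hxc hxW1)
      have hcont : ContinuousAt (fun y => R (th A lam z y)) x := by
        have h1 : ContinuousAt R (th A lam z x) :=
          hRc.continuousAt (mem_interior_iff_mem_nhds.1 hxc)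
        exact ContinuousAt.comp (f := th A lam z) h1 hthc.continuousAt
      have hxi : x ∈ interior K := by rw [hint']; exact hxc
      have h2 := core_G C hκ (Kc := K) (G := G) (Th := fun y => R (th A lam z y))
        (th := th A lam z) hG hxi (hint ht) hRx hcont hloc
      have h3 := core_g (τ := τ) hm hτ h2 (Filter.Eventually.of_forall fun y => hexp' x y)
        (hg x hxi)
      filter_upwards [h3] with y hy
      rwa [norm_th_sub A hlam, th_sub] at hy

/-- the tile of an exact core is the preimage of the brick under the exact map -/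
lemma tile_th {c : Bsp_628.Bx (Fin 3)} {A : E3 ≃ᵃ[ℝ] E3} {lam : ℝ} (hlam : 0 < lam) {z : E3} :
    A ⁻¹' {y | ∀ k, z k + lam * c.lo k ≤ y k ∧ y k ≤ z k + lam * c.hi k} =
      th A lam z ⁻¹' c.set := by
  ext x
  simp only [mem_preimage, mem_ofPred_eq, Bsp_628.Bx.mem_set, th]
  refine forall_congr' fun k => ?_
  rw [le_div_iff₀ hlam, div_le_iff₀ hlam]
  constructor <;> rintro ⟨h1, h2⟩ <;> constructor <;> linarith

/-- **the clause `core` of `Out`** (one core), literal form -/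
theorem core_out (C : CC La Q) {q : Q} {κ : ℝ} (hκ : 0 < κ ∧ κ < 1)
    {Om : Set E3} {ι : Type} {T : Msh_715.Tiling Om ι} {i : ι} {c : Bsp_628.Bx (Fin 3)}
    (hcell : C.cell q = c.set) {A : E3 ≃ᵃ[ℝ] E3} {lam : ℝ} (hlam : 0 < lam) {z : E3}
    (hT : Msh_715.P (T.H i) =
      A ⁻¹' {y | ∀ k, z k + lam * c.lo k ≤ y k ∧ y k ≤ z k + lam * c.hi k})
    {R : E3 → E3} (hRc : ContinuousOn R c.set)
    (hrad : ∀ y ∈ c.set, ∀ s ∈ Icc (0:ℝ) 1,
      R (C.b q + s • (y - C.b q)) = C.b q + s • (R y - C.b q))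
    (hint : MapsTo R (interior c.set) (interior c.set))
    {G : E3 → E3} (hG : ∀ x ∈ Msh_715.P (T.H i), G x = st C κ (R (th A lam z x)))
    {S C0 : ℝ} (hSC : S < C0) (hS : ∀ y ∈ c.set, ∀ y' ∈ c.set,
      ‖st C κ (R y) - st C κ (R y')‖ ≤ S * ‖y - y'‖)
    {e1 e : ℝ} (he1 : 0 ≤ e1) (he : e1 + 3 * κ ≤ e) (he' : (e1 + κ) / (1 - κ) < e) {W : Set E3}
    (hW : volume (W ∩ c.set) ≤ ENNReal.ofReal e1 * volume c.set)
    (hR : ∀ y ∈ interior c.set, y ∉ W → ∀ᶠ y' in 𝓝 y,
      ‖(R y' - R y) - (y' - y)‖ ≤ e1 * ‖y' - y‖) :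
    ∃ τ : ℝ, 0 < τ ∧ ∀ g : E3 → E3, ∀ τ' : ℝ, 0 ≤ τ' → τ' ≤ τ →
      (∀ x ∈ Msh_715.P (T.H i), ∀ᶠ y in 𝓝 x, ‖(g y - g x) - (G y - G x)‖ ≤ τ' * ‖y - x‖) →
      (∀ x ∈ Msh_715.I (T.H i), ∀ᶠ y in 𝓝 x,
        ‖g y - g x‖ ≤ C0 * (1 / lam * ‖A y - A x‖)) ∧
      ∃ W' : Set E3, volume (W' ∩ Msh_715.P (T.H i)) ≤
          ENNReal.ofReal e * volume (Msh_715.P (T.H i)) ∧
        ∀ x ∈ Msh_715.I (T.H i), x ∉ W' → ∀ᶠ y in 𝓝 x,
          ‖(g y - g x) - (1 / lam) • (A y - A x)‖ ≤ e * (1 / lam * ‖A y - A x‖) := by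
  rw [tile_th hlam] at hT
  have hK : Msh_715.P (T.H i) = th A lam z ⁻¹' C.cell q := by rw [hcell]; exact hT
  obtain ⟨m, hm, hcl⟩ := core_clause C hκ (C.cpt q) (C.conv q) (C.bmem q) hlam hK
    (R := R) (by rwa [hcell]) (by rwa [hcell]) (by rwa [hcell]) hG (S := S) (by rwa [hcell])
    he1 (W := W) (by rwa [hcell]) (by rwa [hcell])
  have hIi : ∀ x ∈ Msh_715.I (T.H i), x ∈ interior (Msh_715.P (T.H i)) := fun x hx =>
    interior_maximal (Msh_715.I_sub_P _) (Msh_715.isOpen_I _) hx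
  refine ⟨m * min (C0 - S) (e - (e1 + κ) / (1 - κ)), by
    have := sub_pos.2 hSC; have := sub_pos.2 he'; positivity, fun g τ' h0 hτ' hg => ?_⟩
  have hdiv : τ' / m ≤ min (C0 - S) (e - (e1 + κ) / (1 - κ)) := by
    rw [div_le_iff₀ hm]; linarith
  obtain ⟨h1, W', hW', h2⟩ := hcl τ' h0 g fun x hx => hg x (interior_subset hx)
  refine ⟨fun x hx => ?_, W', hW'.trans (by gcongr), fun x hx hxW => ?_⟩
  · filter_upwards [h1 x (hIi x hx)] with y hy
    refine hy.trans ?_
    have : 0 ≤ 1 / lam * ‖A y - A x‖ := by positivity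
    have h3 : S + τ' / m ≤ C0 := by have := hdiv.trans (min_le_left _ _); linarith
    exact mul_le_mul_of_nonneg_right h3 this
  · filter_upwards [h2 x (hIi x hx) hxW] with y hy
    refine hy.trans ?_
    have : 0 ≤ 1 / lam * ‖A y - A x‖ := by positivity
    have h3 : (e1 + κ) / (1 - κ) + τ' / m ≤ e := by
      have := hdiv.trans (min_le_right _ _); linarith
    exact mul_le_mul_of_nonneg_right h3 this

end Clause

end Crest.Agent.R096.Cog_609
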