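import Crest.Agent.R096.Cog1_609

/-!
# R096 (row 96), helper609: ENERGY OF A CORE, part 2

`core_any` : the clause `core` of `Out` for `G = H ∘ th`, `H` Lipschitz on the box and locally close
to the identity off a small set.  `core_homot` : `H` = the inner homothety on the `(1-s)`-copy of the
box.  `core_st` : `H = st C κ ∘ R` with `R = id` on the `(1-s)`-copy (`κ ≤ s`).
-/

set_option autoImplicit false
set_option linter.unusedSectionVars false
set_option linter.unusedVariables false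

open Set Metric Topology Module Filter MeasureTheory
open scoped Classical NNReal ENNReal

namespace Crest.Agent.R096.Cog_609

open Crest.Agent.R096.Xp_537 Crest.Agent.R096.SkC1_961 Crest.Agent.R096.Ou_609

variable {Om : Set E3} {ι : Type} {T : Msh_715.Tiling Om ι} {i : ι} {c : Bsp_628.Bx (Fin 3)}
  {A : E3 ≃ᵃ[ℝ] E3} {lam : ℝ} {z : E3}

/-- both halves of the clause `core` for one core tile -/
def CoreOK (T : Msh_715.Tiling Om ι) (i : ι) (A : E3 ≃ᵃ[ℝ] E3) (lam C0 e : ℝ) (g : E3 → E3) : Prop :=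
  (∀ x ∈ Msh_715.I (T.H i), ∀ᶠ y in 𝓝 x, ‖g y - g x‖ ≤ C0 * (1 / lam * ‖A y - A x‖)) ∧
    ∃ W' : Set E3, volume (W' ∩ Msh_715.P (T.H i)) ≤
        ENNReal.ofReal e * volume (Msh_715.P (T.H i)) ∧
      ∀ x ∈ Msh_715.I (T.H i), x ∉ W' → ∀ᶠ y in 𝓝 x,
        ‖(g y - g x) - (1 / lam) • (A y - A x)‖ ≤ e * (1 / lam * ‖A y - A x‖)

/-- **general form**: `G = H ∘ th` -/
theorem core_any (hlam : 0 < lam)
    (hT : Msh_715.P (T.H i) =
      A ⁻¹' {y | ∀ k, z k + lam * c.lo k ≤ y k ∧ y k ≤ z k + lam * c.hi k})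
    {H G : E3 → E3} (hG : ∀ x ∈ Msh_715.P (T.H i), G x = H (th A lam z x))
    {S C0 : ℝ} (hSC : S < C0) (hS : ∀ y ∈ c.set, ∀ y' ∈ c.set, ‖H y - H y'‖ ≤ S * ‖y - y'‖)
    {e1 e2 e : ℝ} (he1 : e1 ≤ e) (he2 : e2 < e) {W : Set E3}
    (hW : volume (W ∩ c.set) ≤ ENNReal.ofReal e1 * volume c.set)
    (hH : ∀ y ∈ interior c.set, y ∉ W → ∀ᶠ y' in 𝓝 y,
      ‖(H y' - H y) - (y' - y)‖ ≤ e2 * ‖y' - y‖) :
    ∃ τ : ℝ, 0 < τ ∧ ∀ g : E3 → E3, ∀ τ' : ℝ, 0 ≤ τ' → τ' ≤ τ →
      (∀ x ∈ Msh_715.P (T.H i), ∀ᶠ y in 𝓝 x, ‖(g y - g x) - (G y - G x)‖ ≤ τ' * ‖y - x‖) →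
      CoreOK T i A lam C0 e g := by
  rw [tile_th hlam] at hT
  obtain ⟨B, hB⟩ := exists_thE A hlam z
  obtain ⟨m, hm, hexp⟩ := exists_expand B
  have hBfun : (B : E3 → E3) = th A lam z := funext hB
  have hthc : Continuous (th A lam z) := by
    rw [← hBfun]; exact (AffineEquiv.continuous_of_finiteDimensional B)
  have hint' : interior (Msh_715.P (T.H i)) = th A lam z ⁻¹' interior c.set := by
    rw [hT, ← hBfun]
    exact (B.toContinuousAffineEquiv.toHomeomorph.preimage_interior c.set).symm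
  have hexp' : ∀ x y, m * ‖y - x‖ ≤ ‖th A lam z y - th A lam z x‖ := by
    intro x y
    have := hexp x y
    rwa [hB, hB] at this
  have hIi : ∀ x ∈ Msh_715.I (T.H i), x ∈ interior (Msh_715.P (T.H i)) := fun x hx =>
    interior_maximal (Msh_715.I_sub_P _) (Msh_715.isOpen_I _) hx
  refine ⟨m * min (C0 - S) (e - e2), by
    have := sub_pos.2 hSC; have := sub_pos.2 he2; positivity, fun g τ' h0 hτ' hg => ⟨?_, ?_⟩⟩
  · intro x hx
    have hxi := hIi x hx
    have h1 : ∀ᶠ y in 𝓝 x, ‖G y - G x‖ ≤ S * ‖th A lam z y - th A lam z x‖ := by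
      filter_upwards [isOpen_interior.mem_nhds hxi] with y hy
      have hy' : y ∈ Msh_715.P (T.H i) := interior_subset hy
      have hx' : x ∈ Msh_715.P (T.H i) := interior_subset hxi
      rw [hG y hy', hG x hx']
      rw [hT] at hy' hx'
      exact hS _ hy' _ hx'
    have h2 := core_lip (τ := τ') hm h0 h1 (Filter.Eventually.of_forall fun y => hexp' x y)
      (hg x (interior_subset hxi))
    have h3 : S + τ' / m ≤ C0 := by
      have h4 : τ' / m ≤ min (C0 - S) (e - e2) := by rw [div_le_iff₀ hm]; linarith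
      have := h4.trans (min_le_left _ _); linarith
    filter_upwards [h2] with y hy
    rw [norm_th_sub A hlam] at hy
    exact hy.trans (mul_le_mul_of_nonneg_right h3 (by positivity))
  · refine ⟨th A lam z ⁻¹' W, ?_, fun x hx hxW => ?_⟩
    · obtain ⟨d, hd, hvol⟩ := vol_preimage (volume : Measure E3) B
      have e1' : th A lam z ⁻¹' W ∩ Msh_715.P (T.H i) = B ⁻¹' (W ∩ c.set) := by
        rw [hT, hBfun]; rfl
      have e2' : Msh_715.P (T.H i) = B ⁻¹' c.set := by rw [hT, hBfun]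
      rw [e1', hvol]
      conv_rhs => rw [e2', hvol]
      calc d * volume (W ∩ c.set) ≤ d * (ENNReal.ofReal e1 * volume c.set) := by gcongr
        _ ≤ d * (ENNReal.ofReal e * volume c.set) := by gcongr
        _ = ENNReal.ofReal e * (d * volume c.set) := by ring
    · have hxi := hIi x hx
      have hxc : th A lam z x ∈ interior c.set := by rw [hint'] at hxi; exact hxi
      have h1 : ∀ᶠ y in 𝓝 x, ‖(G y - G x) - (th A lam z y - th A lam z x)‖ ≤
          e2 * ‖th A lam z y - th A lam z x‖ := by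
        filter_upwards [isOpen_interior.mem_nhds hxi,
          (hthc.tendsto x).eventually (hH _ hxc hxW)] with y hy h2
        rw [hG y (interior_subset hy), hG x (interior_subset hxi)]
        exact h2
      have h3 := core_g (τ := τ') hm h0 h1 (Filter.Eventually.of_forall fun y => hexp' x y)
        (hg x (interior_subset hxi))
      have h4 : e2 + τ' / m ≤ e := by
        have h5 : τ' / m ≤ min (C0 - S) (e - e2) := by rw [div_le_iff₀ hm]; linarith
        have := h5.trans (min_le_right _ _); linarith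
      filter_upwards [h3] with y hy
      rw [norm_th_sub A hlam, th_sub] at hy
      exact hy.trans (mul_le_mul_of_nonneg_right h4 (by positivity))

/-- **homothety on the inner copy**: `H y = (1-κ)⁻¹ (y - κ b)` on the open `(1-s)`-copy -/
theorem core_homot (hlam : 0 < lam)
    (hT : Msh_715.P (T.H i) =
      A ⁻¹' {y | ∀ k, z k + lam * c.lo k ≤ y k ∧ y k ≤ z k + lam * c.hi k})
    {H G : E3 → E3} (hG : ∀ x ∈ Msh_715.P (T.H i), G x = H (th A lam z x))
    {S C0 : ℝ} (hSC : S < C0) (hS : ∀ y ∈ c.set, ∀ y' ∈ c.set, ‖H y - H y'‖ ≤ S * ‖y - y'‖)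
    {κ s e : ℝ} (hκ : 0 < κ ∧ κ < 1) (hs0 : 0 ≤ s) (hs1 : s < 1) (he1 : 3 * s ≤ e)
    (he2 : κ / (1 - κ) < e) {b : E3} (hb : b ∈ c.set)
    (hH : ∀ t ∈ interior c.set, H ((1 - s) • t + s • b) =
      (1 - κ)⁻¹ • (((1 - s) • t + s • b) - κ • b)) :
    ∃ τ : ℝ, 0 < τ ∧ ∀ g : E3 → E3, ∀ τ' : ℝ, 0 ≤ τ' → τ' ≤ τ →
      (∀ x ∈ Msh_715.P (T.H i), ∀ᶠ y in 𝓝 x, ‖(g y - g x) - (G y - G x)‖ ≤ τ' * ‖y - x‖) →
      CoreOK T i A lam C0 e g := by
  have hcvx : Convex ℝ c.set := convex_Icc _ _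
  have hcpt : IsCompact c.set := isCompact_Icc
  set inn : Set E3 := (fun t => (1 - s) • t + s • b) '' interior c.set with hinn
  have hs' : 0 < 1 - s := by linarith
  have himg : inn = AffineMap.homothety b (1 - s) '' interior c.set := by
    refine image_congr fun t _ => ?_
    rw [AffineMap.homothety_apply, vsub_eq_sub, vadd_eq_add]
    module
  have hopen : IsOpen inn := by
    rw [himg]
    exact (AffineMap.homothety_isOpenMap b (1 - s) hs'.ne') _ isOpen_interior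
  have hk : 0 < 1 - κ := by linarith [hκ.2]
  refine core_any (e1 := 3 * s) (e2 := κ / (1 - κ)) (W := c.set \ inn) hlam hT hG hSC hS he1 he2
    ?_ ?_
  · have hfr : ENNReal.ofReal (finrank ℝ E3 * s) = ENNReal.ofReal (3 * s) := by
      congr 2
      simp [E3]
    have h1 : (c.set \ inn) ∩ c.set = c.set \ inn := inter_eq_left.2 sdiff_subset
    rw [h1, ← hfr]
    exact volume_inner (volume : Measure E3) hcpt hcvx hb hs0 hs1
  · intro y hy hyW
    have hyin : y ∈ inn := by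
      by_contra h
      exact hyW ⟨interior_subset hy, h⟩
    filter_upwards [hopen.mem_nhds hyin] with y' hy'
    have hHin : ∀ y ∈ inn, H y = (1 - κ)⁻¹ • (y - κ • b) := by
      rintro _ ⟨t, ht, rfl⟩
      exact hH t ht
    rw [hHin y hyin, hHin y' hy']
    have e1 : (1 - κ)⁻¹ • (y' - κ • b) - (1 - κ)⁻¹ • (y - κ • b) - (y' - y) =
        (κ / (1 - κ)) • (y' - y) := by
      have : κ / (1 - κ) = (1 - κ)⁻¹ - 1 := by field_simp; ring
      rw [this]
      module
    rw [e1, norm_smul, Real.norm_of_nonneg (div_nonneg hκ.1.le hk.le)]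

/-- **`H = st C κ ∘ R`, `R = id` on the `(1-s)`-copy** -/
theorem core_st {La : Set E3} {Q : Type*} [PartialOrder Q] (C : CC La Q) {q : Q}
    (hcell : C.cell q = c.set) (hlam : 0 < lam)
    (hT : Msh_715.P (T.H i) =
      A ⁻¹' {y | ∀ k, z k + lam * c.lo k ≤ y k ∧ y k ≤ z k + lam * c.hi k})
    {κ : ℝ} (hκ : 0 < κ ∧ κ < 1) {R G : E3 → E3}
    (hG : ∀ x ∈ Msh_715.P (T.H i), G x = st C κ (R (th A lam z x)))
    {S C0 : ℝ} (hSC : S < C0) (hS : ∀ y ∈ c.set, ∀ y' ∈ c.set,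
      ‖st C κ (R y) - st C κ (R y')‖ ≤ S * ‖y - y'‖)
    {s e : ℝ} (hs0 : κ ≤ s) (hs1 : s < 1) (he1 : 3 * s ≤ e) (he2 : κ / (1 - κ) < e)
    (hR : ∀ t ∈ interior c.set, R ((1 - s) • t + s • C.b q) = (1 - s) • t + s • C.b q) :
    ∃ τ : ℝ, 0 < τ ∧ ∀ g : E3 → E3, ∀ τ' : ℝ, 0 ≤ τ' → τ' ≤ τ →
      (∀ x ∈ Msh_715.P (T.H i), ∀ᶠ y in 𝓝 x, ‖(g y - g x) - (G y - G x)‖ ≤ τ' * ‖y - x‖) →
      CoreOK T i A lam C0 e g := by
  have hbm : C.b q ∈ c.set := by rw [← hcell]; exact C.bmem q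
  have hcvx : Convex ℝ c.set := convex_Icc _ _
  have hk : 0 < 1 - κ := by linarith [hκ.2]
  refine core_homot (H := fun y => st C κ (R y)) hlam hT hG hSC hS hκ (hκ.1.le.trans hs0) hs1 he1
    he2 hbm fun t ht => ?_
  show st C κ (R ((1 - s) • t + s • C.b q)) = _
  rw [hR t ht]
  -- the point in the `(1-κ)`-copy
  set t' : E3 := ((1 - s) / (1 - κ)) • t + ((s - κ) / (1 - κ)) • C.b q with ht'
  have e1 : (1 - s) • t + s • C.b q = (1 - κ) • t' + κ • C.b q := by
    rw [ht', smul_add, smul_smul, smul_smul, mul_div_cancel₀ _ hk.ne', mul_div_cancel₀ _ hk.ne']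
    module
  have ht'm : t' ∈ interior c.set := by
    refine hcvx.combo_interior_self_mem_interior ht hbm (div_pos (by linarith) hk)
      (div_nonneg (by linarith) hk.le) ?_
    field_simp
    ring
  rw [e1, (st_inner C hκ (t := t') (interior_subset (by rw [hcell]; exact ht'm))).2]
  have e2 : (1 - κ) • t' + κ • C.b q - κ • C.b q = (1 - κ) • t' := by module
  rw [e2, smul_smul, inv_mul_cancel₀ hk.ne', one_smul]

end Crest.Agent.R096.Cog_609
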