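import Crest.Agent.R096.Oa1_527
import Crest.Agent.R096.Nr5_527

/-!
# Row 96 (S0127), OUT-ASM, part 2 (helper527): the literal `Out` of `Mbf_337.MachBF`

* `OutG` : the metric clauses of `Out` for the structure map `G`;
* **`out_of`** : `Expl Om C G` (538: `Trn.expl`) + `Adj` (`adj2`) + `OutG` ⟹ `∃ g, Mbf_337.Out ..`.
-/

set_option autoImplicit false
set_option linter.unusedSectionVars false
set_option linter.unusedVariables false

open Set Filter Topology Metric MeasureTheory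
open scoped ENNReal

namespace Crest.Agent.R096.Oa_527

open Crest.Agent.R096.Brk3_582 Crest.Agent.R096.Brk5_582 Crest.Agent.R096.Bsp_628
open Crest.Agent.R096.SkC1_961 (E3 Hom3 FoamD Cfg th NN)
open Crest.Agent.R096.Msh_715 Crest.Agent.R096.Nr_527
open Crest.Agent.R096.Xp_537 (CC Expl Trn)

variable {δ κ0 R c0 : ℝ} {La Om : Set E3} {ι : Type} {Φ : FoamD δ κ0 R c0 La}

/-- `exists_tolc` with injectivity on the exact cores only -/
theorem exists_tolc' {F : Type*} {ct : F → ι} {X : Set F} (hinj : InjOn ct X)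
    (A : F → E3 ≃ᵃ[ℝ] E3) (lam : F → ℝ) (hlam : ∀ c ∈ X, 0 < lam c) {e : ℝ} (he : 0 < e)
    (tol : ι → ℝ) (htol : ∀ i, 0 < tol i) :
    ∃ tol' : ι → ℝ, (∀ i, 0 < tol' i) ∧ (∀ i, tol' i ≤ tol i) ∧
      ∀ c ∈ X, ∀ x y : E3, tol' (ct c) * ‖y - x‖ ≤ e * (1 / lam c * ‖A c y - A c x‖) := by
  classical
  have key : ∀ c : F, ∃ m : ℝ, 0 < m ∧ (c ∈ X → ∀ x y : E3, m * ‖y - x‖ ≤
      e * (1 / lam c * ‖A c y - A c x‖)) := by
    intro c
    by_cases hc : c ∈ X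
    · obtain ⟨m, hm, hmA⟩ := Ou_609.exists_expand (A c)
      have hl := hlam c hc
      refine ⟨e * (1 / lam c * m), by positivity, fun _ x y => ?_⟩
      have := hmA x y
      calc e * (1 / lam c * m) * ‖y - x‖ = e * (1 / lam c * (m * ‖y - x‖)) := by ring
        _ ≤ e * (1 / lam c * ‖A c y - A c x‖) := by gcongr
    · exact ⟨1, one_pos, fun h => absurd h hc⟩
  choose m hm hmX using key
  refine ⟨fun i => if h : ∃ c ∈ X, ct c = i then min (tol i) (m h.choose) else tol i,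
    fun i => ?_, fun i => ?_, fun c hc x y => ?_⟩
  · dsimp only
    split_ifs with h
    · exact lt_min (htol i) (hm _)
    · exact htol i
  · dsimp only
    split_ifs with h
    · exact min_le_left _ _
    · exact le_rfl
  · dsimp only
    have h : ∃ d ∈ X, ct d = ct c := ⟨c, hc, rfl⟩
    rw [dif_pos h]
    have hch : h.choose = c := hinj h.choose_spec.1 hc h.choose_spec.2
    rw [hch]
    exact (mul_le_mul_of_nonneg_right (min_le_right _ _) (norm_nonneg _)).trans (hmX c hc x y)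

/-- the metric clauses of `Out` for the structure map `G` -/
structure OutG (C0 : ℝ) (C : Set (Set E3) → ℝ) (e : ℝ)
    (Φ : FoamD δ κ0 R c0 La) (T : Tiling Om ι) (f : E3 → E3) (X : Set Φ.F) (V : Φ.F → Set ι)
    (ct : Φ.F → ι) (A : Φ.F → E3 ≃ᵃ[ℝ] E3) (lam : Φ.F → ℝ) (κ : Φ.F → ℕ) (L : Φ.F → Finset ℝ)
    (G : E3 → E3) : Prop where
  /-- tiles in no `V c` (no tolerance) -/
  lip : ∀ i, (∀ c, i ∉ V c) → ∀ B : E3 ≃ᵃ[ℝ] E3, ∀ N : ℝ, 0 ≤ N →
    NN Φ T f κ L i ≤ ENNReal.ofReal N → ∀ x ∈ I (T.H i), ∀ᶠ y in 𝓝 x,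
      ‖G y - G x‖ ≤ C ((fun K => B '' K) '' Cfg T i) * N * ‖B y - B x‖
  /-- exact cores -/
  core : ∀ c ∈ X, (∀ x ∈ I (T.H (ct c)), ∀ᶠ y in 𝓝 x,
      ‖G y - G x‖ ≤ C0 * (1 / lam c * ‖A c y - A c x‖)) ∧
    ∃ W : Set E3, volume (W ∩ P (T.H (ct c))) ≤ ENNReal.ofReal e * volume (P (T.H (ct c))) ∧
      ∀ x ∈ I (T.H (ct c)), x ∉ W → ∀ᶠ y in 𝓝 x,
        ‖(G y - G x) - (1 / lam c) • (A c y - A c x)‖ ≤ e * (1 / lam c * ‖A c y - A c x‖)

theorem out_of {Q : Type*} [PartialOrder Q] (hOm : IsOpen Om) (hLa : IsOpen La)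
    (hne : La.Nonempty) {C : CC La Q} {G f : E3 → E3} (E : Expl Om C G) {T : Tiling Om ι}
    (hf : Hom3 f Om La) (hA : Adj Φ.F Om f G) {X : Set Φ.F} {V : Φ.F → Set ι} {ct : Φ.F → ι}
    (hinj : InjOn ct X) {A : Φ.F → E3 ≃ᵃ[ℝ] E3} {lam : Φ.F → ℝ}
    (hlam : ∀ c ∈ X, 0 < lam c) {κ : Φ.F → ℕ} {L : Φ.F → Finset ℝ} {C0 C0' e e' : ℝ}
    {Cs : Set (Set E3) → ℝ} (he' : e < e') (hC : C0 + (e' - e) ≤ C0')
    (hC' : 2 + R ≤ C0') (hG : OutG C0 Cs e Φ T f X V ct A lam κ L G)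
    {tol : ι → ℝ} (htol : ∀ i, 0 < tol i) :
    ∃ g : E3 → E3, Mbf_337.Out C0' Cs e' Φ T f X V ct A lam κ L tol g := by
  obtain ⟨tol', t1, t2, t3⟩ := exists_tolc' hinj A lam hlam (sub_pos.2 he') tol htol
  obtain ⟨g, g1, g2, -, g3, g4, g5⟩ := exists_g hOm hLa hne E T hf hA tol' t1
  have hl : ∀ c ∈ X, 0 < 1 / lam c := fun c hc => one_div_pos.2 (hlam c hc)
  refine ⟨g, g1, g2, fun x hx c hc => (g3 x hx c hc).trans
    (mul_le_mul_of_nonneg_right hC' (Bx.sz_pos (Φ.bf.pos _ c.2)).le), ?_, ?_⟩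
  · intro i hi B N hN hNN x hx
    filter_upwards [lip_add (hG.lip i hi B N hN hNN x hx) (g5 i x (I_sub_P _ hx))] with y hy
    exact hy.trans (by gcongr; exact t2 i)
  · intro c hc
    obtain ⟨h1, W, hW, h2⟩ := hG.core c hc
    refine ⟨fun x hx => ?_, W, hW.trans ?_, fun x hx hxW => ?_⟩
    · filter_upwards [core_add (h1 x hx) (g5 (ct c) x (I_sub_P _ hx)) (t3 c hc)] with y hy
      refine hy.trans (mul_le_mul_of_nonneg_right hC ?_)
      have := hl c hc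
      positivity
    · gcongr
    · filter_upwards [core_add' (h2 x hx hxW) (g5 (ct c) x (I_sub_P _ hx)) (t3 c hc)] with y hy
      simpa using hy

/-- the form with `Cores` -/
theorem out_of_cores {Q : Type*} [PartialOrder Q] (hOm : IsOpen Om) (hLa : IsOpen La)
    (hne : La.Nonempty) {C : CC La Q} {G f : E3 → E3} (E : Expl Om C G) {T : Tiling Om ι}
    (hf : Hom3 f Om La) (hA : Adj Φ.F Om f G) {κ1 κ2 : ℝ} {X : Set Φ.F} {J0 J V : Φ.F → Set ι}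
    {ct : Φ.F → ι} {A : Φ.F → E3 ≃ᵃ[ℝ] E3} {lam : Φ.F → ℝ} {z : Φ.F → E3} {θ : Φ.F → E3 → E3}
    {φ : Φ.F → E3 → ℝ} (hcr : Mbf_337.Cores Φ T f κ1 κ2 X J0 J V ct A lam z θ φ)
    {κ : Φ.F → ℕ} {L : Φ.F → Finset ℝ} {C0 C0' e e' : ℝ}
    {Cs : Set (Set E3) → ℝ} (he' : e < e') (hC : C0 + (e' - e) ≤ C0')
    (hC' : 2 + R ≤ C0') (hG : OutG C0 Cs e Φ T f X V ct A lam κ L G)
    {tol : ι → ℝ} (htol : ∀ i, 0 < tol i) :
    ∃ g : E3 → E3, Mbf_337.Out C0' Cs e' Φ T f X V ct A lam κ L tol g :=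
  out_of hOm hLa hne E hf hA (ct_inj hcr) (fun c hc => (hcr.exact_ c hc).lam0) he' hC hC' hG htol

end Crest.Agent.R096.Oa_527
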