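import Crest.Agent.R096.Cog2_609
import Crest.Agent.R096.Oa2_527

/-!
# R096 (row 96), helper609: ENERGY OF A CORE, part 3

The clause `core` of 527's `OutG` (structure map `G`, no tolerance) from `G = st C κ ∘ R_c ∘ th_c`.
-/

set_option autoImplicit false
set_option linter.unusedSectionVars false
set_option linter.unusedVariables false

open Set Metric Topology Module Filter MeasureTheory
open scoped Classical NNReal ENNReal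

namespace Crest.Agent.R096.Cog_609

open Crest.Agent.R096.Xp_537 Crest.Agent.R096.SkC1_961 Crest.Agent.R096.Ou_609

/-- `CoreOK` for `G` itself -/
theorem coreG_st {Om : Set E3} {ι : Type} {T : Msh_715.Tiling Om ι} {i : ι}
    {c : Bsp_628.Bx (Fin 3)} {A : E3 ≃ᵃ[ℝ] E3} {lam : ℝ} {z : E3}
    {La : Set E3} {Q : Type*} [PartialOrder Q] (C : CC La Q) {q : Q}
    (hcell : C.cell q = c.set) (hlam : 0 < lam)
    (hT : Msh_715.P (T.H i) =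
      A ⁻¹' {y | ∀ k, z k + lam * c.lo k ≤ y k ∧ y k ≤ z k + lam * c.hi k})
    {κ : ℝ} (hκ : 0 < κ ∧ κ < 1) {R G : E3 → E3}
    (hG : ∀ x ∈ Msh_715.P (T.H i), G x = st C κ (R (th A lam z x)))
    {S C0 : ℝ} (hSC : S < C0) (hS : ∀ y ∈ c.set, ∀ y' ∈ c.set,
      ‖st C κ (R y) - st C κ (R y')‖ ≤ S * ‖y - y'‖)
    {s e : ℝ} (hs0 : κ ≤ s) (hs1 : s < 1) (he1 : 3 * s ≤ e) (he2 : κ / (1 - κ) < e)
    (hR : ∀ t ∈ interior c.set, R ((1 - s) • t + s • C.b q) = (1 - s) • t + s • C.b q) :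
    CoreOK T i A lam C0 e G := by
  obtain ⟨τ, hτ, h⟩ := core_st C hcell hlam hT hκ hG hSC hS hs0 hs1 he1 he2 hR
  refine h G 0 le_rfl hτ.le fun x _ => Filter.Eventually.of_forall fun y => ?_
  rw [sub_self, norm_zero, zero_mul]

/-- **all cores**: the clause `core` of `OutG` -/
theorem outG_core {δ κ0 R0 c0 : ℝ} {La Om : Set E3} {ι : Type} {Φ : FoamD δ κ0 R0 c0 La}
    {T : Msh_715.Tiling Om ι} {f : E3 → E3} {κ1 κ2 : ℝ} {X : Set Φ.F} {J0 J V : Φ.F → Set ι}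
    {ct : Φ.F → ι} {A : Φ.F → E3 ≃ᵃ[ℝ] E3} {lam : Φ.F → ℝ} {z : Φ.F → E3} {θ : Φ.F → E3 → E3}
    {φ : Φ.F → E3 → ℝ} (hcr : Mbf_337.Cores Φ T f κ1 κ2 X J0 J V ct A lam z θ φ)
    {Q : Type*} [PartialOrder Q] (C : CC La Q) {q : Φ.F → Q}
    (hcell : ∀ c ∈ X, C.cell (q c) = c.1.set) {κ : ℝ} (hκ : 0 < κ ∧ κ < 1)
    {R : Φ.F → E3 → E3} {G : E3 → E3}
    (hG : ∀ c ∈ X, ∀ x ∈ Msh_715.P (T.H (ct c)),
      G x = st C κ (R c (th (A c) (lam c) (z c) x)))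
    {S C0 : ℝ} (hSC : S < C0) (hS : ∀ c ∈ X, ∀ y ∈ c.1.set, ∀ y' ∈ c.1.set,
      ‖st C κ (R c y) - st C κ (R c y')‖ ≤ S * ‖y - y'‖)
    {s e : ℝ} (hs0 : κ ≤ s) (hs1 : s < 1) (he1 : 3 * s ≤ e) (he2 : κ / (1 - κ) < e)
    (hR : ∀ c ∈ X, ∀ t ∈ interior c.1.set,
      R c ((1 - s) • t + s • C.b (q c)) = (1 - s) • t + s • C.b (q c)) :
    ∀ c ∈ X, (∀ x ∈ Msh_715.I (T.H (ct c)), ∀ᶠ y in 𝓝 x,
      ‖G y - G x‖ ≤ C0 * (1 / lam c * ‖A c y - A c x‖)) ∧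
    ∃ W : Set E3, volume (W ∩ Msh_715.P (T.H (ct c))) ≤
        ENNReal.ofReal e * volume (Msh_715.P (T.H (ct c))) ∧
      ∀ x ∈ Msh_715.I (T.H (ct c)), x ∉ W → ∀ᶠ y in 𝓝 x,
        ‖(G y - G x) - (1 / lam c) • (A c y - A c x)‖ ≤ e * (1 / lam c * ‖A c y - A c x‖) :=
  fun c hc => coreG_st C (hcell c hc) (hcr.exact_ c hc).lam0 (hcr.exact_ c hc).tile hκ (hG c hc)
    hSC (hS c hc) hs0 hs1 he1 he2 (hR c hc)

end Crest.Agent.R096.Cog_609
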