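import Crest.Agent.R096.Cog3_609

/-!
# R096 (row 96), helper609: ENERGY OF A CORE, part 4

The clause `core` of 527's `OutG` for 628's radial core map `R_c` (error set `W_c`).
-/

set_option autoImplicit false
set_option linter.unusedSectionVars false
set_option linter.unusedVariables false

open Set Metric Topology Module Filter MeasureTheory
open scoped Classical NNReal ENNReal

namespace Crest.Agent.R096.Cog_609

open Crest.Agent.R096.Xp_537 Crest.Agent.R096.SkC1_961 Crest.Agent.R096.Ou_609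

/-- radial maps of a box preserve its interior as soon as they preserve the box and its boundary -/
lemma mapsTo_interior_of_rad {K : Set E3} (hcvx : Convex ℝ K) (hcl : IsClosed K) {b : E3}
    (hb : b ∈ interior K) {R : E3 → E3}
    (hrad : ∀ y ∈ K, ∀ s ∈ Icc (0:ℝ) 1, R (b + s • (y - b)) = b + s • (R y - b))
    (hK : MapsTo R K K) : MapsTo R (interior K) (interior K) := by
  intro y hy
  -- `y = b + s (y' - b)` with `s < 1`, `y' ∈ K`
  obtain ⟨ε, hε, hball⟩ := Metric.isOpen_iff.1 isOpen_interior y hy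
  by_cases hyb : y = b
  · have h1 := hrad b (interior_subset hb) 0 ⟨le_rfl, zero_le_one⟩
    simp only [zero_smul, add_zero] at h1
    rw [hyb, h1]; exact hb
  have hn : 0 < ‖y - b‖ := norm_pos_iff.2 (sub_ne_zero.2 hyb)
  set r : ℝ := ε / (2 * ‖y - b‖) with hr
  have hr0 : 0 < r := by positivity
  set y' : E3 := y + r • (y - b) with hy'
  have hy'K : y' ∈ K := by
    refine interior_subset (hball ?_)
    rw [mem_ball, dist_eq_norm, hy', add_sub_cancel_left, norm_smul, Real.norm_of_nonneg hr0.le, hr,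
      div_mul_eq_mul_div, div_lt_iff₀ (by positivity)]
    nlinarith
  have h1r : (1 + r) ≠ 0 := by positivity
  have e1 : y = b + (1 + r)⁻¹ • (y' - b) := by
    have : y' - b = (1 + r) • (y - b) := by rw [hy']; module
    rw [this, smul_smul, inv_mul_cancel₀ h1r, one_smul]; abel
  rw [e1, hrad y' hy'K _ ⟨by positivity, inv_le_one_of_one_le₀ (by linarith)⟩]
  have e2 : b + (1 + r)⁻¹ • (R y' - b) = (1 - (1 + r)⁻¹) • b + (1 + r)⁻¹ • R y' := by module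
  rw [e2]
  refine hcvx.combo_interior_self_mem_interior hb (hK hy'K) ?_ (by positivity) (by ring)
  have : (1 + r)⁻¹ < 1 := inv_lt_one_of_one_lt₀ (by linarith)
  linarith

/-- **all cores, radial maps**: the clause `core` of `OutG` -/
theorem outG_core_rad {δ κ0 R0 c0 : ℝ} {La Om : Set E3} {ι : Type} {Φ : FoamD δ κ0 R0 c0 La}
    {T : Msh_715.Tiling Om ι} {f : E3 → E3} {κ1 κ2 : ℝ} {X : Set Φ.F} {J0 J V : Φ.F → Set ι}
    {ct : Φ.F → ι} {A : Φ.F → E3 ≃ᵃ[ℝ] E3} {lam : Φ.F → ℝ} {z : Φ.F → E3} {θ : Φ.F → E3 → E3}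
    {φ : Φ.F → E3 → ℝ} (hcr : Mbf_337.Cores Φ T f κ1 κ2 X J0 J V ct A lam z θ φ)
    {Q : Type*} [PartialOrder Q] (C : CC La Q) {q : Φ.F → Q}
    (hcell : ∀ c ∈ X, C.cell (q c) = c.1.set) {κ : Φ.F → ℝ} (hκ : ∀ c ∈ X, 0 < κ c ∧ κ c < 1)
    {R : Φ.F → E3 → E3} (hRc : ∀ c ∈ X, ContinuousOn (R c) c.1.set)
    (hRm : ∀ c ∈ X, MapsTo (R c) c.1.set c.1.set)
    (hb : ∀ c ∈ X, C.b (q c) ∈ interior c.1.set)
    (hrad : ∀ c ∈ X, ∀ y ∈ c.1.set, ∀ s ∈ Icc (0:ℝ) 1,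
      R c (C.b (q c) + s • (y - C.b (q c))) = C.b (q c) + s • (R c y - C.b (q c)))
    {G : E3 → E3}
    (hG : ∀ c ∈ X, ∀ x ∈ Msh_715.P (T.H (ct c)),
      G x = st C (κ c) (R c (th (A c) (lam c) (z c) x)))
    {S C0 : ℝ} (hSC : S < C0) (hS : ∀ c ∈ X, ∀ y ∈ c.1.set, ∀ y' ∈ c.1.set,
      ‖st C (κ c) (R c y) - st C (κ c) (R c y')‖ ≤ S * ‖y - y'‖)
    {e1 e : ℝ} (he1 : 0 ≤ e1) (he : ∀ c ∈ X, e1 + 3 * κ c ≤ e)
    (he' : ∀ c ∈ X, (e1 + κ c) / (1 - κ c) < e)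
    {W : Φ.F → Set E3}
    (hW : ∀ c ∈ X, volume (W c ∩ c.1.set) ≤ ENNReal.ofReal e1 * volume c.1.set)
    (hR : ∀ c ∈ X, ∀ y ∈ interior c.1.set, y ∉ W c → ∀ᶠ y' in 𝓝 y,
      ‖(R c y' - R c y) - (y' - y)‖ ≤ e1 * ‖y' - y‖) :
    ∀ c ∈ X, (∀ x ∈ Msh_715.I (T.H (ct c)), ∀ᶠ y in 𝓝 x,
      ‖G y - G x‖ ≤ C0 * (1 / lam c * ‖A c y - A c x‖)) ∧
    ∃ W : Set E3, volume (W ∩ Msh_715.P (T.H (ct c))) ≤
        ENNReal.ofReal e * volume (Msh_715.P (T.H (ct c))) ∧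
      ∀ x ∈ Msh_715.I (T.H (ct c)), x ∉ W → ∀ᶠ y in 𝓝 x,
        ‖(G y - G x) - (1 / lam c) • (A c y - A c x)‖ ≤
          e * (1 / lam c * ‖A c y - A c x‖) := by
  intro c hc
  obtain ⟨τ, hτ, h⟩ := core_out (i := ct c) (T := T) C (hκ c hc) (hcell c hc) (hcr.exact_ c hc).lam0
    (hcr.exact_ c hc).tile (hRc c hc) (hrad c hc)
    (mapsTo_interior_of_rad (convex_Icc _ _) isClosed_Icc (hb c hc) (hrad c hc) (hRm c hc))
    (hG c hc) hSC (hS c hc) he1 (he c hc) (he' c hc) (hW c hc) (hR c hc)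
  exact h G 0 le_rfl hτ.le fun x _ => Filter.Eventually.of_forall fun y => by
    rw [sub_self, norm_zero, zero_mul]

end Crest.Agent.R096.Cog_609
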