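import Mathlib

/-! Row 96, P1-COH (helper184), part 1: locally constant cocycles on finite closed covers. -/

set_option autoImplicit false

open Set Topology Filter

namespace Crest.Agent.R096.Coh_184

variable {X : Type*} [TopologicalSpace X] {A : Type*} {ι : Type*}

/-- `f` is locally constant on the set `s`. -/
def LC (f : X → A) (s : Set X) : Prop := ∀ x ∈ s, ∀ᶠ y in 𝓝[s] x, f y = f x

theorem LC.mono {f : X → A} {s t : Set X} (h : LC f s) (hts : t ⊆ s) : LC f t := by
  intro x hx
  exact (h x (hts hx)).filter_mono (nhdsWithin_mono x hts)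

theorem LC.congr {f g : X → A} {s : Set X} (h : LC f s) (hfg : ∀ x ∈ s, g x = f x) : LC g s := by
  intro x hx
  filter_upwards [h x hx, self_mem_nhdsWithin] with y hy hys
  rw [hfg y hys, hy, hfg x hx]

theorem LC_const (c : A) (s : Set X) : LC (fun _ => c) s := fun _ _ => Eventually.of_forall fun _ => rfl

theorem LC.comp₂ {B D : Type*} {f : X → A} {g : X → B} {s : Set X} (hf : LC f s) (hg : LC g s)
    (F : A → B → D) : LC (fun x => F (f x) (g x)) s := by
  intro x hx
  filter_upwards [hf x hx, hg x hx] with y h1 h2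
  rw [h1, h2]

theorem LC.union {f : X → A} {s t : Set X} (hs : IsClosed s) (ht : IsClosed t)
    (h1 : LC f s) (h2 : LC f t) : LC f (s ∪ t) := by
  intro x hx
  rw [nhdsWithin_union, eventually_sup]
  constructor
  · by_cases hxs : x ∈ s
    · exact h1 x hxs
    · have : 𝓝[s] x = ⊥ := by
        rw [← notMem_closure_iff_nhdsWithin_eq_bot, hs.closure_eq]; exact hxs
      rw [this]; exact eventually_bot
  · by_cases hxt : x ∈ t
    · exact h2 x hxt
    · have : 𝓝[t] x = ⊥ := by
        rw [← notMem_closure_iff_nhdsWithin_eq_bot, ht.closure_eq]; exact hxt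
      rw [this]; exact eventually_bot

theorem LC.iUnion [Finite ι] {f : X → A} {s : ι → Set X} (hs : ∀ i, IsClosed (s i))
    (h : ∀ i, LC f (s i)) : LC f (⋃ i, s i) := by
  intro x hx
  rw [nhdsWithin_iUnion, eventually_iSup]
  intro i
  by_cases hxs : x ∈ s i
  · exact h i x hxs
  · have : 𝓝[s i] x = ⊥ := by
      rw [← notMem_closure_iff_nhdsWithin_eq_bot, (hs i).closure_eq]; exact hxs
    rw [this]; exact eventually_bot

theorem LC.eq_of_preconnected {f : X → A} {s : Set X} (h : LC f s) (hs : IsPreconnected s)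
    {x y : X} (hx : x ∈ s) (hy : y ∈ s) : f x = f y := by
  let _ : TopologicalSpace A := ⊥
  have _ : DiscreteTopology A := ⟨rfl⟩
  have hc : ContinuousOn f s := by
    intro z hz
    have : Tendsto f (𝓝[s] z) (pure (f z)) := by
      rw [tendsto_pure]; exact h z hz
    exact this.mono_right (pure_le_nhds _)
  exact hs.constant hc hx hy

variable [AddCommGroup A]

/-- the cocycle `d` on the cover `C` is trivial over `Y` -/
def Triv (C : ι → Set X) (d : ι → ι → X → A) (Y : Set X) : Prop :=
  ∃ χ : ι → X → A, (∀ i, LC (χ i) (C i ∩ Y)) ∧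
    ∀ i j, ∀ x, x ∈ C i → x ∈ C j → x ∈ Y → χ i x - χ j x = d i j x

theorem Triv.mono {C : ι → Set X} {d : ι → ι → X → A} {Y Z : Set X} (h : Triv C d Y) (hZ : Z ⊆ Y) :
    Triv C d Z := by
  obtain ⟨χ, h1, h2⟩ := h
  exact ⟨χ, fun i => (h1 i).mono (inter_subset_inter_right _ hZ),
    fun i j x hi hj hx => h2 i j x hi hj (hZ hx)⟩

theorem Triv.glue [Finite ι] {C : ι → Set X} {d : ι → ι → X → A} (hC : ∀ i, IsClosed (C i))
    {Y Z : Set X} (hY : IsClosed Y) (hZ : IsClosed Z) (hcov : Y ∩ Z ⊆ ⋃ i, C i)
    (hcon : IsPreconnected (Y ∩ Z)) (h1 : Triv C d Y) (h2 : Triv C d Z) : Triv C d (Y ∪ Z) := by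
  classical
  obtain ⟨χ, hχ, hχd⟩ := h1
  obtain ⟨ω, hω, hωd⟩ := h2
  -- difference
  have key : ∃ ε0 : A, ∀ i x, x ∈ C i → x ∈ Y → x ∈ Z → χ i x = ω i x + ε0 := by
    by_cases hne : (Y ∩ Z).Nonempty
    · obtain ⟨x0, hx0⟩ := hne
      have hex : ∀ x ∈ Y ∩ Z, ∃ i, x ∈ C i := fun x hx => mem_iUnion.1 (hcov hx)
      let ε : X → A := fun x => if h : ∃ i, x ∈ C i then χ h.choose x - ω h.choose x else 0
      have hε : ∀ i x, x ∈ C i → x ∈ Y → x ∈ Z → ε x = χ i x - ω i x := by
        intro i x hi hy hz
        have h : ∃ i, x ∈ C i := ⟨i, hi⟩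
        have e1 : ε x = χ h.choose x - ω h.choose x := by simp only [ε]; rw [dif_pos h]
        have a := hχd h.choose i x h.choose_spec hi hy
        have b := hωd h.choose i x h.choose_spec hi hz
        rw [e1]
        have : χ h.choose x - χ i x = ω h.choose x - ω i x := by rw [a, b]
        rw [sub_eq_sub_iff_add_eq_add] at this ⊢
        rw [this]; abel
      have hLC : LC ε (Y ∩ Z) := by
        have hEq : Y ∩ Z = ⋃ i, (C i ∩ (Y ∩ Z)) := by
          rw [← iUnion_inter]
          exact (inter_eq_self_of_subset_right hcov).symm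
        rw [hEq]
        apply LC.iUnion
        · intro i; exact (hC i).inter (hY.inter hZ)
        · intro i
          have a : LC (fun x => χ i x - ω i x) (C i ∩ (Y ∩ Z)) := by
            apply LC.comp₂ (F := fun a b => a - b)
            · exact (hχ i).mono (fun x hx => ⟨hx.1, hx.2.1⟩)
            · exact (hω i).mono (fun x hx => ⟨hx.1, hx.2.2⟩)
          exact a.congr fun x hx => hε i x hx.1 hx.2.1 hx.2.2
      refine ⟨ε x0, fun i x hi hy hz => ?_⟩
      have := hLC.eq_of_preconnected hcon (show x ∈ Y ∩ Z from ⟨hy, hz⟩) hx0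
      rw [← this, hε i x hi hy hz]; abel
    · exact ⟨0, fun i x _ hy hz => (hne ⟨x, hy, hz⟩).elim⟩
  obtain ⟨ε0, hε0⟩ := key
  let τ : ι → X → A := fun i x => if x ∈ Y then χ i x else ω i x + ε0
  have hτY : ∀ i x, x ∈ Y → τ i x = χ i x := fun i x hx => if_pos hx
  have hτZ : ∀ i x, x ∈ C i → x ∈ Z → τ i x = ω i x + ε0 := by
    intro i x hi hz
    by_cases hy : x ∈ Y
    · rw [hτY i x hy, hε0 i x hi hy hz]
    · exact if_neg hy
  refine ⟨τ, fun i => ?_, ?_⟩
  · rw [inter_union_distrib_left]
    apply LC.union ((hC i).inter hY) ((hC i).inter hZ)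
    · exact (hχ i).congr fun x hx => hτY i x hx.2
    · have : LC (fun x => ω i x + ε0) (C i ∩ Z) :=
        LC.comp₂ (hω i) (LC_const ε0 _) (fun a b => a + b)
      exact this.congr fun x hx => hτZ i x hx.1 hx.2
  · intro i j x hi hj hx
    rcases hx with hx | hx
    · rw [hτY i x hx, hτY j x hx, hχd i j x hi hj hx]
    · rw [hτZ i x hi hx, hτZ j x hj hx, ← hωd i j x hi hj hx]; abel

/-- the data of a locally constant cocycle over `S` -/
structure Coc (C : ι → Set X) (d : ι → ι → X → A) (S : Set X) : Prop where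
  closed : ∀ i, IsClosed (C i)
  cov : S ⊆ ⋃ i, C i
  lc : ∀ i j, LC (d i j) (C i ∩ C j ∩ S)
  coc : ∀ i j k x, x ∈ C i → x ∈ C j → x ∈ C k → x ∈ S → d i j x + d j k x = d i k x

theorem Coc.local_triv [Finite ι] {C : ι → Set X} {d : ι → ι → X → A} {S : Set X}
    (h : Coc C d S) {x : X} (hx : x ∈ S) : ∃ W ∈ 𝓝 x, Triv C d (S ∩ W) := by
  obtain ⟨i0, hi0⟩ := mem_iUnion.1 (h.cov hx)
  have h1 : ∀ i, ∀ᶠ y in 𝓝 x, y ∈ C i → x ∈ C i := by
    intro i
    by_cases hxi : x ∈ C i
    · exact Eventually.of_forall fun _ _ => hxi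
    · filter_upwards [(h.closed i).isOpen_compl.mem_nhds hxi] with y hy hy2
      exact (hy hy2).elim
  have h2 : ∀ i j, ∀ᶠ y in 𝓝 x, y ∈ C i → y ∈ C j → y ∈ S → d i j y = d i j x := by
    intro i j
    by_cases hxi : x ∈ C i
    · by_cases hxj : x ∈ C j
      · have := h.lc i j x ⟨⟨hxi, hxj⟩, hx⟩
        rw [eventually_nhdsWithin_iff] at this
        filter_upwards [this] with y hy a b c
        exact hy ⟨⟨a, b⟩, c⟩
      · filter_upwards [(h.closed j).isOpen_compl.mem_nhds hxj] with y hy _ hy2 _
        exact (hy hy2).elim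
    · filter_upwards [(h.closed i).isOpen_compl.mem_nhds hxi] with y hy hy2
      exact (hy hy2).elim
  have h1' : ∀ᶠ y in 𝓝 x, ∀ i, y ∈ C i → x ∈ C i := eventually_all.2 h1
  have h2' : ∀ᶠ y in 𝓝 x, ∀ i j, y ∈ C i → y ∈ C j → y ∈ S → d i j y = d i j x :=
    eventually_all.2 fun i => eventually_all.2 fun j => h2 i j
  refine ⟨{y | (∀ i, y ∈ C i → x ∈ C i) ∧ ∀ i j, y ∈ C i → y ∈ C j → y ∈ S → d i j y = d i j x},
    h1'.and h2', fun i _ => d i i0 x, fun i => LC_const _ _, ?_⟩
  rintro i j y hi hj ⟨hyS, hy1, hy2⟩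
  have a := h.coc i j i0 x (hy1 i hi) (hy1 j hj) hi0 hx
  show d i i0 x - d j i0 x = d i j y
  rw [hy2 i j hi hj hyS, ← a]; abel

theorem Coc.mono {C : ι → Set X} {d : ι → ι → X → A} {S T : Set X}
    (h : Coc C d S) (hT : T ⊆ S) : Coc C d T where
  closed := h.closed
  cov := hT.trans h.cov
  lc := fun i j => (h.lc i j).mono (inter_subset_inter_right _ hT)
  coc := fun i j k x hi hj hk hx => h.coc i j k x hi hj hk (hT hx)

/-- additive intervals -/
theorem interval_add {Q : ℝ → ℝ → Prop} {η : ℝ} (hη : 0 < η)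
    (hadd : ∀ a b c, a ≤ b → b ≤ c → Q a b → Q b c → Q a c)
    (hsmall : ∀ a b, b - a ≤ η → Q a b) : ∀ a b, Q a b := by
  have key : ∀ n : ℕ, ∀ a b, b - a ≤ n * η → Q a b := by
    intro n
    induction n with
    | zero => intro a b h; apply hsmall; push_cast at h; linarith
    | succ n ih =>
      intro a b h
      by_cases hb : b - a ≤ η
      · exact hsmall a b hb
      · push Not at hb
        push_cast at h
        exact hadd a (b - η) b (by linarith) (by linarith) (ih _ _ (by linarith))
          (hsmall _ _ (by linarith))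
  intro a b
  obtain ⟨n, hn⟩ := exists_nat_ge ((b - a) / η)
  exact key n a b (by rwa [div_le_iff₀ hη] at hn)

theorem Triv.empty {C : ι → Set X} {d : ι → ι → X → A} : Triv C d (∅ : Set X) :=
  ⟨fun _ _ => 0, fun _ => LC_const _ _, fun _ _ _ _ _ hx => hx.elim⟩

/-- every cocycle over a compact convex subset of `ℝⁿ` is trivial -/
theorem Coc.triv_convex [Finite ι] {n : ℕ} {C : ι → Set (Fin n → ℝ)}
    {d : ι → ι → (Fin n → ℝ) → A} {S : Set (Fin n → ℝ)} (h : Coc C d S)
    (hS : IsCompact S) (hconv : Convex ℝ S) : Triv C d S := by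
  classical
  -- Lebesgue number
  choose! W hW hWt using fun x (hx : x ∈ S) => h.local_triv hx
  obtain ⟨V, hV, hleb⟩ := lebesgue_number_lemma_nhds' hS (fun x hx => hW x hx)
  obtain ⟨δ, hδ, hδV⟩ := Metric.mem_uniformity_dist.1 hV
  have hball : ∀ x ∈ S, Triv C d (S ∩ Metric.ball x δ) := by
    intro x hx
    obtain ⟨y, hy⟩ := hleb x hx
    refine (hWt y y.2).mono (inter_subset_inter_right _ (Subset.trans ?_ hy))
    intro z hz
    rw [Metric.mem_ball, dist_comm] at hz
    exact hδV hz
  have key : ∀ k : ℕ, k ≤ n → ∀ lo hi : Fin n → ℝ, (∀ i : Fin n, k ≤ i.1 → hi i - lo i ≤ δ / 2) →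
      Triv C d (S ∩ Icc lo hi) := by
    intro k
    induction k with
    | zero =>
      intro _ lo hi hlh
      by_cases hne : (S ∩ Icc lo hi).Nonempty
      · obtain ⟨x, hxS, hx⟩ := hne
        refine (hball x hxS).mono ?_
        rintro y ⟨hyS, hy⟩
        refine ⟨hyS, ?_⟩
        rw [Metric.mem_ball]
        refine lt_of_le_of_lt ((dist_pi_le_iff (by positivity)).2 fun i => ?_)
          (half_lt_self hδ)
        have h1 := hx.1 i
        have h2 := hx.2 i
        have h3 := hy.1 i
        have h4 := hy.2 i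
        have h5 := hlh i (Nat.zero_le _)
        rw [Real.dist_eq, abs_le]
        constructor <;> linarith
      · rw [not_nonempty_iff_eq_empty.1 hne]
        exact Triv.empty
    | succ k ih =>
      intro hk lo hi hlh
      let j : Fin n := ⟨k, hk⟩
      have hQ := interval_add (Q := fun a b =>
          Triv C d (S ∩ Icc (Function.update lo j a) (Function.update hi j b)))
        (half_pos hδ) ?_ ?_ (lo j) (hi j)
      · simpa using hQ
      · intro a b c hab hbc h1 h2
        have hu : S ∩ Icc (Function.update lo j a) (Function.update hi j c) =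
            (S ∩ Icc (Function.update lo j a) (Function.update hi j b)) ∪
            (S ∩ Icc (Function.update lo j b) (Function.update hi j c)) := by
          rw [← inter_union_distrib_left]
          congr 1
          ext x
          constructor
          · rintro ⟨h3, h4⟩
            rcases le_total (x j) b with hb | hb
            · left
              refine ⟨h3, fun i => ?_⟩
              by_cases hij : i = j
              · subst hij; simpa using hb
              · have := h4 i; rw [Function.update_of_ne hij] at this ⊢; exact this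
            · right
              refine ⟨fun i => ?_, h4⟩
              by_cases hij : i = j
              · subst hij; simpa using hb
              · have := h3 i; rw [Function.update_of_ne hij] at this ⊢; exact this
          · rintro (⟨h3, h4⟩ | ⟨h3, h4⟩)
            · refine ⟨h3, fun i => (h4 i).trans ?_⟩
              by_cases hij : i = j
              · subst hij; simpa using hbc
              · rw [Function.update_of_ne hij, Function.update_of_ne hij]
            · refine ⟨fun i => le_trans ?_ (h3 i), h4⟩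
              by_cases hij : i = j
              · subst hij; simpa using hab
              · rw [Function.update_of_ne hij, Function.update_of_ne hij]
        rw [hu]
        refine Triv.glue h.closed (hS.isClosed.inter isClosed_Icc) (hS.isClosed.inter isClosed_Icc)
          (fun x hx => h.cov hx.1.1) ?_ h1 h2
        exact ((hconv.inter (convex_Icc _ _)).inter (hconv.inter (convex_Icc _ _))).isPreconnected
      · intro a b hab
        apply ih (by omega)
        intro i hi'
        by_cases hij : i = j
        · subst hij; simpa using hab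
        · rw [Function.update_of_ne hij, Function.update_of_ne hij]
          apply hlh i
          have : i.1 ≠ k := fun h => hij (Fin.ext h)
          omega
  obtain ⟨r, hr⟩ := hS.isBounded.exists_norm_le
  have := key n le_rfl (fun _ => -r) (fun _ => r) (fun i hi => absurd i.2 (not_lt.2 hi))
  refine this.mono fun x hx => ⟨hx, fun i => ?_, fun i => ?_⟩
  · exact (abs_le.1 ((norm_le_pi_norm x i).trans (hr x hx))).1
  · exact (abs_le.1 ((norm_le_pi_norm x i).trans (hr x hx))).2

end Crest.Agent.R096.Coh_184
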