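import Crest.Agent.R096.Coh2_184

/-! Row 96, P1-COH (helper184), part 3: clopen separation of finitely many components, and the
theorem: a chord cocycle that is exact on every cell is exact. -/

set_option autoImplicit false

open Set Topology Filter

namespace Crest.Agent.R096.Coh_184

variable {X : Type*} [TopologicalSpace X] {ι A : Type*} [AddCommGroup A]

theorem mem_connectedComponentIn_coe {K : Set X} {p q : X} (hp : p ∈ K) (hq : q ∈ K)
    (h : (⟨q, hq⟩ : K) ∈ connectedComponent (⟨p, hp⟩ : K)) : q ∈ connectedComponentIn K p := by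
  rw [connectedComponentIn_eq_image hp]
  exact ⟨_, h, rfl⟩

/-- a relatively clopen subset of `K` containing `p` and no point of the finite set `P` of points
outside the component of `p` -/
theorem exists_clopen_sep [T2Space X] {K : Set X} (hK : IsCompact K) {p : X} (hp : p ∈ K)
    (P : Finset X) (hP : ∀ q ∈ P, q ∈ K → q ∉ connectedComponentIn K p) :
    ∃ Z : Set X, LC (fun x => x ∈ Z) K ∧ p ∈ Z ∧ ∀ q ∈ P, q ∈ K → q ∉ Z := by
  classical
  have _ : CompactSpace K := isCompact_iff_compactSpace.1 hK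
  have h1 : ∀ q ∈ P, ∃ Z : Set K, IsClopen Z ∧ (⟨p, hp⟩ : K) ∈ Z ∧ ∀ hq : q ∈ K, ⟨q, hq⟩ ∉ Z := by
    intro q hq
    by_cases hqK : q ∈ K
    · have h2 : (⟨q, hqK⟩ : K) ∉ connectedComponent (⟨p, hp⟩ : K) := fun h =>
        hP q hq hqK (mem_connectedComponentIn_coe hp hqK h)
      rw [connectedComponent_eq_iInter_isClopen, mem_iInter] at h2
      push Not at h2
      obtain ⟨⟨Z, hZ, hpZ⟩, hqZ⟩ := h2
      exact ⟨Z, hZ, hpZ, fun _ => hqZ⟩
    · exact ⟨univ, isClopen_univ, trivial, fun h => (hqK h).elim⟩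
  choose! Z hZ hpZ hqZ using h1
  have hcl : IsClopen (⋂ q ∈ P, Z q) := by
    apply isClopen_biInter_finset
    intro q hq; exact hZ q hq
  refine ⟨Subtype.val '' (⋂ q ∈ P, Z q), ?_, ⟨⟨p, hp⟩, ?_, rfl⟩, ?_⟩
  · intro x hx
    have hiff : ∀ y (hy : y ∈ K), (y ∈ Subtype.val '' (⋂ q ∈ P, Z q)) ↔
        (⟨y, hy⟩ : K) ∈ (⋂ q ∈ P, Z q) := by
      intro y hy
      constructor
      · rintro ⟨z, hz, hzy⟩
        have : z = ⟨y, hy⟩ := Subtype.ext hzy
        rwa [this] at hz
      · intro h; exact ⟨_, h, rfl⟩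
    have h3 : ∀ᶠ z in 𝓝 (⟨x, hx⟩ : K), (z ∈ (⋂ q ∈ P, Z q) ↔ (⟨x, hx⟩ : K) ∈ (⋂ q ∈ P, Z q)) := by
      by_cases hxZ : (⟨x, hx⟩ : K) ∈ (⋂ q ∈ P, Z q)
      · filter_upwards [hcl.2.mem_nhds hxZ] with z hz
        exact ⟨fun _ => hxZ, fun _ => hz⟩
      · filter_upwards [hcl.compl.2.mem_nhds hxZ] with z hz
        exact ⟨fun h => (hz h).elim, fun h => (hxZ h).elim⟩
    rw [nhdsWithin_eq_map_subtype_coe hx, eventually_map]
    filter_upwards [h3] with z hz
    apply propext
    rw [hiff z.1 z.2, hiff x hx]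
    exact hz
  · simp only [mem_iInter]
    intro q hq; exact hpZ q hq
  · rintro q hq hqK ⟨z, hz, hzq⟩
    have : z = ⟨q, hqK⟩ := Subtype.ext hzq
    rw [this] at hz
    simp only [mem_iInter] at hz
    exact hqZ q hq hqK (hz q hq)

/-- values prescribed at finitely many points, constant on components, extend to a locally
constant function on the compact set `K` -/
theorem exists_LC_of_components [T2Space X] {K : Set X} (hK : IsCompact K) (v : X → A)
    (P : Finset X) (hv : ∀ p ∈ P, ∀ q ∈ P, p ∈ K → q ∈ connectedComponentIn K p → v p = v q) :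
    ∃ d : X → A, LC d K ∧ ∀ p ∈ P, p ∈ K → d p = v p := by
  classical
  induction P using Finset.induction_on with
  | empty => exact ⟨fun _ => 0, LC_const _ _, fun p hp => (Finset.notMem_empty p hp).elim⟩
  | insert p P hpP ih =>
    obtain ⟨d, hd, hdP⟩ := ih fun a ha b hb => hv a (Finset.mem_insert_of_mem ha) b
      (Finset.mem_insert_of_mem hb)
    by_cases hpK : p ∈ K
    · by_cases hq : ∃ q ∈ P, q ∈ connectedComponentIn K p
      · obtain ⟨q, hqP, hq⟩ := hq
        refine ⟨d, hd, fun a ha haK => ?_⟩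
        rcases Finset.mem_insert.1 ha with rfl | ha
        · have hqK : q ∈ K := connectedComponentIn_subset _ _ hq
          have h1 : d a = d q := (hd.mono (connectedComponentIn_subset K a)).eq_of_preconnected
            isPreconnected_connectedComponentIn (mem_connectedComponentIn haK) hq
          rw [h1, hdP q hqP hqK]
          exact (hv a (Finset.mem_insert_self _ _) q (Finset.mem_insert_of_mem hqP) haK hq).symm
        · exact hdP a ha haK
      · push Not at hq
        obtain ⟨Z, hZ, hpZ, hqZ⟩ := exists_clopen_sep hK hpK P fun q hqP _ => hq q hqP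
        refine ⟨fun x => d x + if x ∈ Z then v p - d p else 0, ?_, ?_⟩
        · exact hd.comp₂ hZ fun a b => a + if b then v p - d p else 0
        · intro a ha haK
          rcases Finset.mem_insert.1 ha with rfl | ha
          · simp only [if_pos hpZ]; abel
          · simp only [if_neg (hqZ a ha haK), add_zero]
            exact hdP a ha haK
    · refine ⟨d, hd, fun a ha haK => ?_⟩
      rcases Finset.mem_insert.1 ha with rfl | ha
      · exact (hpK haK).elim
      · exact hdP a ha haK

/-- the chord relation: `p, p' ∈ P` lie in one component of `S ∩ c q ∩ c q'` -/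
structure Chord (S : Set X) (c : ι → Set X) (P : Finset X) (q q' : ι) (p p' : X) : Prop where
  ne : q ≠ q'
  left : p ∈ P
  right : p' ∈ P
  mem : p ∈ S ∩ (c q ∩ c q')
  conn : p' ∈ connectedComponentIn (S ∩ (c q ∩ c q')) p

theorem Chord.swap {S : Set X} {c : ι → Set X} {P : Finset X} {q q' : ι} {p p' : X}
    (h : Chord S c P q q' p p') : Chord S c P q' q p p' :=
  ⟨h.ne.symm, h.left, h.right, by rw [inter_comm (c q')]; exact h.mem,
    by rw [inter_comm (c q')]; exact h.conn⟩

theorem Chord.symm {S : Set X} {c : ι → Set X} {P : Finset X} {q q' : ι} {p p' : X}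
    (h : Chord S c P q q' p p') : Chord S c P q q' p' p := by
  have h1 := connectedComponentIn_subset _ _ h.conn
  refine ⟨h.ne, h.right, h.left, h1, ?_⟩
  rw [← connectedComponentIn_eq h.conn]
  exact mem_connectedComponentIn h.mem

/-- MAIN THEOREM: a `κ` which is exact on the chords of every single cell is exact. -/
theorem coh [Finite ι] [T2Space X] {S : Set X} (hS : IsCompact S) (htriv : TrivAll ι A S)
    {c : ι → Set X} (hc : ∀ q, IsClosed (c q)) (hcov : S ⊆ ⋃ q, c q) {P : Finset X}
    (hP : ↑P ⊆ S)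
    (htrip : ∀ q q' q'', q ≠ q' → q' ≠ q'' → q ≠ q'' → S ∩ (c q ∩ c q' ∩ c q'') ⊆ P)
    {κ : ι → ι → X → X → A} (hκ : ∀ q q' p p', κ q' q p p' = κ q q' p p')
    {ψ : ι → X → A} (hψ : ∀ q q' p p', Chord S c P q q' p p' → ψ q p - ψ q p' = κ q q' p p') :
    ∃ Ψ : X → A, ∀ q q' p p', Chord S c P q q' p p' → Ψ p - Ψ p' = κ q q' p p' := by
  classical
  -- the locally constant differences
  have h1 : ∀ q q', q ≠ q' → ∃ d : X → A, LC d (S ∩ (c q ∩ c q')) ∧
      ∀ p ∈ P, p ∈ S ∩ (c q ∩ c q') → d p = ψ q p - ψ q' p := by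
    intro q q' hqq
    have hcomp : IsCompact (S ∩ (c q ∩ c q')) := hS.inter_right ((hc q).inter (hc q'))
    refine exists_LC_of_components hcomp (fun p => ψ q p - ψ q' p) P ?_
    intro p hp p' hp' hpK hcon
    have hch : Chord S c P q q' p p' := ⟨hqq, hp, hp', hpK, hcon⟩
    have a := hψ q q' p p' hch
    have b := hψ q' q p p' hch.swap
    rw [hκ q q'] at b
    rw [← b, sub_eq_sub_iff_add_eq_add] at a
    rw [sub_eq_sub_iff_add_eq_add]
    show ψ q p + ψ q' p' = ψ q p' + ψ q' p
    rw [a]; abel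
  choose! D hD hDP using h1
  obtain ⟨n, ⟨e⟩⟩ := Finite.exists_equiv_fin ι
  let d : ι → ι → X → A := fun q q' x =>
    if e q < e q' then D q q' x else if e q' < e q then - D q' q x else 0
  have hlt : ∀ q q', e q < e q' → q ≠ q' := fun q q' h h' => by
    rw [h'] at h; exact lt_irrefl _ h
  have hdP : ∀ q q' p, p ∈ P → p ∈ S → p ∈ c q → p ∈ c q' → d q q' p = ψ q p - ψ q' p := by
    intro q q' p hp hpS hq hq'
    rcases lt_trichotomy (e q) (e q') with h | h | h
    · simp only [d, if_pos h]
      exact hDP q q' (hlt _ _ h) p hp ⟨hpS, hq, hq'⟩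
    · have : q = q' := e.injective h
      subst this
      simp [d]
    · simp only [d, if_neg h.not_gt, if_pos h]
      rw [hDP q' q (hlt _ _ h) p hp ⟨hpS, hq', hq⟩]; abel
  have hdlc : ∀ q q', LC (d q q') (c q ∩ c q' ∩ S) := by
    intro q q'
    rcases lt_trichotomy (e q) (e q') with h | h | h
    · have : d q q' = D q q' := by funext x; simp only [d, if_pos h]
      rw [this]
      exact (hD q q' (hlt _ _ h)).mono fun x hx => ⟨hx.2, hx.1⟩
    · have : d q q' = fun _ => 0 := by
        funext x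
        have hq : ¬ e q < e q' := by rw [h]; exact lt_irrefl _
        have hq' : ¬ e q' < e q := by rw [h]; exact lt_irrefl _
        simp only [d, if_neg hq, if_neg hq']
      rw [this]
      exact LC_const _ _
    · have : d q q' = fun x => - D q' q x := by
        funext x; simp only [d, if_neg h.not_gt, if_pos h]
      rw [this]
      have := (hD q' q (hlt _ _ h)).comp₂ (LC_const (0 : A) _) (fun a _ => -a)
      exact this.mono fun x hx => ⟨hx.2, hx.1.2, hx.1.1⟩
  have hanti : ∀ q q' x, d q q' x + d q' q x = 0 := by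
    intro q q' x
    rcases lt_trichotomy (e q) (e q') with h | h | h
    · simp only [d, if_pos h, if_neg h.not_gt]; abel
    · have : q = q' := e.injective h
      subst this
      simp [d]
    · simp only [d, if_pos h, if_neg h.not_gt]; abel
  have hself : ∀ q x, d q q x = 0 := by
    intro q x; simp [d]
  have hcoc : Coc c d S := by
    refine ⟨hc, hcov, hdlc, ?_⟩
    intro i j k x hi hj hk hx
    by_cases hij : i = j
    · subst hij; rw [hself, zero_add]
    by_cases hjk : j = k
    · subst hjk; rw [hself, add_zero]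
    by_cases hik : i = k
    · subst hik; rw [hself]; exact hanti _ _ _
    · have hxP : x ∈ P := htrip i j k hij hjk hik ⟨hx, ⟨hi, hj⟩, hk⟩
      rw [hdP i j x hxP hx hi hj, hdP j k x hxP hx hj hk, hdP i k x hxP hx hi hk]; abel
  obtain ⟨χ, hχ, hχd⟩ := htriv c d hcoc
  have hex : ∀ p ∈ P, ∃ q, p ∈ c q := fun p hp => mem_iUnion.1 (hcov (hP hp))
  let Ψ : X → A := fun p => if h : ∃ q, p ∈ c q then ψ h.choose p - χ h.choose p else 0
  have key : ∀ p ∈ P, ∀ q, p ∈ c q → Ψ p = ψ q p - χ q p := by
    intro p hp q hq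
    have h : ∃ q, p ∈ c q := ⟨q, hq⟩
    have e1 : Ψ p = ψ h.choose p - χ h.choose p := dif_pos h
    have a := hχd h.choose q p h.choose_spec hq (hP hp)
    rw [hdP h.choose q p hp (hP hp) h.choose_spec hq] at a
    rw [e1]
    rw [sub_eq_sub_iff_add_eq_add] at a ⊢
    rw [← a]; abel
  refine ⟨Ψ, ?_⟩
  intro q q' p p' hch
  have hpq : p ∈ c q := hch.mem.2.1
  have hp'S : p' ∈ S ∩ (c q ∩ c q') := connectedComponentIn_subset _ _ hch.conn
  have hsub : connectedComponentIn (S ∩ (c q ∩ c q')) p ⊆ c q ∩ S := fun x hx => by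
    have := connectedComponentIn_subset _ _ hx
    exact ⟨this.2.1, this.1⟩
  have hcc : χ q p = χ q p' := ((hχ q).mono hsub).eq_of_preconnected
    isPreconnected_connectedComponentIn (mem_connectedComponentIn hch.mem) hch.conn
  rw [key p hch.left q hpq, key p' hch.right q hp'S.2.1, hcc, ← hψ q q' p p' hch]; abel

end Crest.Agent.R096.Coh_184
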