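import Mathlib

/-!
Row 96, U3 (CORE3), part (C2): the bad-level lemma (one variable, no indicatrix).
A function which is close to an affine increasing one (in `C^0`, with an integrable
defect of its increments) crosses every level outside a small set of levels exactly
as the affine function does.
-/

namespace Crest.Agent.R096.Core_124

open MeasureTheory Set Filter Topology

noncomputable section

/-- union plus overlap of finitely many sets is at most the sum -/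
theorem measure_union_add_overlap {α ι : Type*} [MeasurableSpace α] (μ : Measure α)
    (s : Finset ι) (J : ι → Set α) (hJ : ∀ i ∈ s, MeasurableSet (J i)) :
    μ (⋃ i ∈ s, J i) + μ {y | ∃ i ∈ s, ∃ j ∈ s, i ≠ j ∧ y ∈ J i ∧ y ∈ J j} ≤ ∑ i ∈ s, μ (J i) := by
  classical
  have hB : MeasurableSet {y | ∃ i ∈ s, ∃ j ∈ s, i ≠ j ∧ y ∈ J i ∧ y ∈ J j} := by
    have : {y | ∃ i ∈ s, ∃ j ∈ s, i ≠ j ∧ y ∈ J i ∧ y ∈ J j}
        = ⋃ i ∈ s, ⋃ j ∈ s, (if i ≠ j then J i ∩ J j else ∅) := by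
      ext y
      simp only [mem_ofPred_eq, mem_iUnion, exists_prop]
      constructor
      · rintro ⟨i, hi, j, hj, hij, h1, h2⟩
        refine ⟨i, hi, j, hj, ?_⟩
        rw [if_pos hij]; exact ⟨h1, h2⟩
      · rintro ⟨i, hi, j, hj, h⟩
        by_cases hij : i ≠ j
        · rw [if_pos hij] at h; exact ⟨i, hi, j, hj, hij, h.1, h.2⟩
        · rw [if_neg hij] at h; exact absurd h (by simp)
    rw [this]
    refine Finset.measurableSet_biUnion _ (fun i hi => Finset.measurableSet_biUnion _ (fun j hj => ?_))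
    split_ifs
    · exact (hJ i hi).inter (hJ j hj)
    · exact MeasurableSet.empty
  have hU : MeasurableSet (⋃ i ∈ s, J i) := Finset.measurableSet_biUnion _ hJ
  have e1 : μ (⋃ i ∈ s, J i) = ∫⁻ y, (⋃ i ∈ s, J i).indicator (fun _ => (1 : ENNReal)) y ∂μ := by
    rw [lintegral_indicator hU]; simp
  have e2 : μ {y | ∃ i ∈ s, ∃ j ∈ s, i ≠ j ∧ y ∈ J i ∧ y ∈ J j}
      = ∫⁻ y, {y | ∃ i ∈ s, ∃ j ∈ s, i ≠ j ∧ y ∈ J i ∧ y ∈ J j}.indicator
          (fun _ => (1 : ENNReal)) y ∂μ := by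
    rw [lintegral_indicator hB]; simp
  have e3 : ∑ i ∈ s, μ (J i) = ∫⁻ y, ∑ i ∈ s, (J i).indicator (fun _ => (1 : ENNReal)) y ∂μ := by
    rw [lintegral_finsetSum' _ (fun i hi => (measurable_const.indicator (hJ i hi)).aemeasurable)]
    refine Finset.sum_congr rfl (fun i hi => ?_)
    rw [lintegral_indicator (hJ i hi)]; simp
  rw [e1, e2, e3, ← lintegral_add_left (measurable_const.indicator hU)]
  refine lintegral_mono (fun y => ?_)
  by_cases h2 : ∃ i ∈ s, ∃ j ∈ s, i ≠ j ∧ y ∈ J i ∧ y ∈ J j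
  · obtain ⟨i, hi, j, hj, hij, h1, h2'⟩ := h2
    have hyU : y ∈ ⋃ i ∈ s, J i := mem_biUnion hi h1
    rw [indicator_of_mem hyU, indicator_of_mem (show y ∈ {y | ∃ i ∈ s, ∃ j ∈ s, i ≠ j ∧ y ∈ J i ∧ y ∈ J j}
      from ⟨i, hi, j, hj, hij, h1, h2'⟩)]
    calc (1 : ENNReal) + 1 = ∑ k ∈ ({i, j} : Finset ι), (J k).indicator (fun _ => (1 : ENNReal)) y := by
          rw [Finset.sum_pair hij, indicator_of_mem h1, indicator_of_mem h2']
      _ ≤ _ := by
          refine Finset.sum_le_sum_of_subset ?_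
          intro k hk
          simp only [Finset.mem_insert, Finset.mem_singleton] at hk
          rcases hk with rfl | rfl <;> assumption
  · rw [indicator_of_notMem (show y ∉ {y | ∃ i ∈ s, ∃ j ∈ s, i ≠ j ∧ y ∈ J i ∧ y ∈ J j} from h2),
      add_zero]
    by_cases hyU : y ∈ ⋃ i ∈ s, J i
    · rw [indicator_of_mem hyU]
      obtain ⟨i, hi, h1⟩ := by simpa only [mem_iUnion, exists_prop] using hyU
      calc (1 : ENNReal) = (J i).indicator (fun _ => (1 : ENNReal)) y := by rw [indicator_of_mem h1]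
        _ ≤ _ := Finset.single_le_sum (f := fun k => (J k).indicator (fun _ => (1 : ENNReal)) y)
              (fun _ _ => zero_le) hi
    · rw [indicator_of_notMem hyU]; exact zero_le

/-- data of an edge: `v` on `[0,1]`, slope `b`, defect `g` -/
structure Near (v g : ℝ → ℝ) (a b e : ℝ) : Prop where
  cont : ContinuousOn v (Icc 0 1)
  int : IntervalIntegrable g volume 0 1
  nonneg : ∀ t ∈ Icc (0:ℝ) 1, 0 ≤ g t
  inc : ∀ s ∈ Icc (0:ℝ) 1, ∀ t ∈ Icc (0:ℝ) 1, s ≤ t → |v t - v s - b * (t - s)| ≤ ∫ τ in s..t, g τ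
  close : ∀ t ∈ Icc (0:ℝ) 1, |v t - (a + b * t)| ≤ e

/-- dyadic interval -/
def dy (n k : ℕ) : Set ℝ := Icc ((k:ℝ) / 2 ^ n) ((k + 1 : ℝ) / 2 ^ n)

theorem dy_sub {n k : ℕ} (hk : k < 2 ^ n) : dy n k ⊆ Icc 0 1 := by
  intro t ht
  have hp : (0:ℝ) < 2 ^ n := by positivity
  have h1 : (0:ℝ) ≤ (k:ℝ) / 2 ^ n := by positivity
  have h2 : ((k:ℝ) + 1) / 2 ^ n ≤ 1 := by
    rw [div_le_one hp]
    have : k + 1 ≤ 2 ^ n := hk
    exact_mod_cast this
  exact ⟨h1.trans ht.1, ht.2.trans h2⟩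

theorem mem_dy {n : ℕ} {t : ℝ} (ht : t ∈ Icc (0:ℝ) 1) (ht1 : t ≠ 1) :
    ∃ k < 2 ^ n, t ∈ dy n k ∧ k = ⌊t * 2 ^ n⌋₊ := by
  have hp : (0:ℝ) < 2 ^ n := by positivity
  have h0 : 0 ≤ t * 2 ^ n := mul_nonneg ht.1 hp.le
  refine ⟨⌊t * 2 ^ n⌋₊, ?_, ⟨?_, ?_⟩, rfl⟩
  · rw [Nat.floor_lt h0]
    have : t < 1 := lt_of_le_of_ne ht.2 ht1
    push_cast
    nlinarith
  · rw [div_le_iff₀ hp]; exact Nat.floor_le h0
  · rw [le_div_iff₀ hp]; exact (Nat.lt_floor_add_one _).le

/-- the set of levels hit by two different dyadic intervals of level `n` -/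
def badn (v : ℝ → ℝ) (n : ℕ) : Set ℝ :=
  {y | ∃ k ∈ Finset.range (2 ^ n), ∃ l ∈ Finset.range (2 ^ n), k ≠ l ∧ y ∈ v '' dy n k ∧ y ∈ v '' dy n l}

theorem image_dy_meas {v : ℝ → ℝ} (hc : ContinuousOn v (Icc 0 1)) {n k : ℕ} (hk : k < 2 ^ n) :
    MeasurableSet (v '' dy n k) :=
  ((isCompact_Icc.image_of_continuousOn (hc.mono (dy_sub hk))).measurableSet)

theorem badn_meas {v : ℝ → ℝ} (hc : ContinuousOn v (Icc 0 1)) (n : ℕ) : MeasurableSet (badn v n) := by
  classical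
  have : badn v n = ⋃ k ∈ Finset.range (2 ^ n), ⋃ l ∈ Finset.range (2 ^ n),
      (if k ≠ l then (v '' dy n k) ∩ (v '' dy n l) else ∅) := by
    ext y
    simp only [badn, mem_ofPred_eq, mem_iUnion, exists_prop]
    constructor
    · rintro ⟨i, hi, j, hj, hij, h1, h2⟩
      refine ⟨i, hi, j, hj, ?_⟩
      rw [if_pos hij]; exact ⟨h1, h2⟩
    · rintro ⟨i, hi, j, hj, h⟩
      by_cases hij : i ≠ j
      · rw [if_pos hij] at h; exact ⟨i, hi, j, hj, hij, h.1, h.2⟩
      · rw [if_neg hij] at h; exact absurd h (by simp)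
  rw [this]
  refine Finset.measurableSet_biUnion _ (fun i hi => Finset.measurableSet_biUnion _ (fun j hj => ?_))
  split_ifs
  · exact (image_dy_meas hc (Finset.mem_range.1 hi)).inter (image_dy_meas hc (Finset.mem_range.1 hj))
  · exact MeasurableSet.empty

variable {v g : ℝ → ℝ} {a b e : ℝ}

theorem Near.intOn (h : Near v g a b e) {s t : ℝ} (hs : s ∈ Icc (0:ℝ) 1) (ht : t ∈ Icc (0:ℝ) 1) :
    IntervalIntegrable g volume s t := by
  refine h.int.mono_set ?_
  rw [uIcc_of_le (zero_le_one' ℝ)]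
  exact uIcc_subset_Icc hs ht

theorem Near.int_nonneg (h : Near v g a b e) {s t : ℝ} (hs : s ∈ Icc (0:ℝ) 1) (ht : t ∈ Icc (0:ℝ) 1)
    (hst : s ≤ t) : 0 ≤ ∫ τ in s..t, g τ :=
  intervalIntegral.integral_nonneg hst (fun u hu => h.nonneg u ⟨hs.1.trans hu.1, hu.2.trans ht.2⟩)

theorem Near.int_mono (h : Near v g a b e) {s t s' t' : ℝ} (hs : s ∈ Icc (0:ℝ) 1) (ht : t ∈ Icc (0:ℝ) 1)
    (hs' : s' ∈ Icc s t) (ht' : t' ∈ Icc s t) (hst : s' ≤ t') :
    ∫ τ in s'..t', g τ ≤ ∫ τ in s..t, g τ := by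
  have m1 : s' ∈ Icc (0:ℝ) 1 := ⟨hs.1.trans hs'.1, hs'.2.trans ht.2⟩
  have m2 : t' ∈ Icc (0:ℝ) 1 := ⟨hs.1.trans ht'.1, ht'.2.trans ht.2⟩
  have e1 := intervalIntegral.integral_add_adjacent_intervals (h.intOn hs m1) (h.intOn m1 m2)
  have e2 := intervalIntegral.integral_add_adjacent_intervals (h.intOn hs m2) (h.intOn m2 ht)
  have n1 := h.int_nonneg hs m1 hs'.1
  have n2 := h.int_nonneg m2 ht ht'.2
  linarith

/-- measure of the image of an interval -/
theorem Near.image_le (h : Near v g a b e) (hb : 0 ≤ b) {s t : ℝ} (hs : s ∈ Icc (0:ℝ) 1)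
    (ht : t ∈ Icc (0:ℝ) 1) (hst : s ≤ t) :
    volume (v '' Icc s t) ≤ ENNReal.ofReal (b * (t - s) + ∫ τ in s..t, g τ) := by
  have hne : (Icc s t).Nonempty := nonempty_Icc.2 hst
  have hcs : ContinuousOn v (Icc s t) := h.cont.mono (Icc_subset_Icc hs.1 ht.2)
  obtain ⟨x1, hx1, hmin⟩ := isCompact_Icc.exists_isMinOn hne hcs
  obtain ⟨x2, hx2, hmax⟩ := isCompact_Icc.exists_isMaxOn hne hcs
  have hsub : v '' Icc s t ⊆ Icc (v x1) (v x2) := by
    rintro _ ⟨x, hx, rfl⟩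
    exact ⟨hmin hx, hmax hx⟩
  refine (measure_mono hsub).trans ?_
  rw [Real.volume_Icc]
  refine ENNReal.ofReal_le_ofReal ?_
  have m1 : x1 ∈ Icc (0:ℝ) 1 := ⟨hs.1.trans hx1.1, hx1.2.trans ht.2⟩
  have m2 : x2 ∈ Icc (0:ℝ) 1 := ⟨hs.1.trans hx2.1, hx2.2.trans ht.2⟩
  rcases le_total x1 x2 with hle | hle
  · have i1 := h.inc x1 m1 x2 m2 hle
    have i2 := h.int_mono hs ht hx1 hx2 hle
    have i3 := (abs_le.1 i1).2
    have : b * (x2 - x1) ≤ b * (t - s) := mul_le_mul_of_nonneg_left (by linarith [hx1.1, hx2.2]) hb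
    linarith
  · have i1 := h.inc x2 m2 x1 m1 hle
    have i2 := h.int_mono hs ht hx2 hx1 hle
    have i3 := (abs_le.1 i1).1
    have : 0 ≤ b * (x1 - x2) := mul_nonneg hb (by linarith)
    have : 0 ≤ b * (t - s) := mul_nonneg hb (by linarith)
    linarith

theorem iUnion_dy (n : ℕ) : (⋃ k ∈ Finset.range (2 ^ n), dy n k) = Icc 0 1 := by
  apply Subset.antisymm
  · exact iUnion₂_subset (fun k hk => dy_sub (Finset.mem_range.1 hk))
  · intro t ht
    by_cases h1 : t = 1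
    · have hp : (0:ℝ) < 2 ^ n := by positivity
      have hpn : 1 ≤ 2 ^ n := Nat.one_le_two_pow
      refine mem_biUnion (x := 2 ^ n - 1) (Finset.mem_coe.2 (Finset.mem_range.2 (by omega))) ?_
      subst h1
      have hc : ((2 ^ n - 1 : ℕ) : ℝ) = 2 ^ n - 1 := by
        rw [Nat.cast_sub hpn]; push_cast; ring
      constructor
      · rw [hc, div_le_one hp]; linarith
      · rw [hc, le_div_iff₀ hp]; linarith
    · obtain ⟨k, hk, hm, -⟩ := mem_dy (n := n) ht h1
      exact mem_biUnion (Finset.mem_coe.2 (Finset.mem_range.2 hk)) hm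

theorem Near.sum_dy (h : Near v g a b e) (n : ℕ) :
    ∑ k ∈ Finset.range (2 ^ n), (b * (((k:ℝ) + 1) / 2 ^ n - (k:ℝ) / 2 ^ n)
      + ∫ τ in ((k:ℝ) / 2 ^ n)..(((k:ℝ) + 1) / 2 ^ n), g τ) = b + ∫ τ in (0:ℝ)..1, g τ := by
  have hp : (0:ℝ) < 2 ^ n := by positivity
  rw [Finset.sum_add_distrib]
  congr 1
  · have : ∀ k ∈ Finset.range (2 ^ n), b * (((k:ℝ) + 1) / 2 ^ n - (k:ℝ) / 2 ^ n) = b / 2 ^ n := by
      intro k _; field_simp; ring
    rw [Finset.sum_congr rfl this, Finset.sum_const, Finset.card_range, nsmul_eq_mul]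
    push_cast
    field_simp
  · have key := intervalIntegral.sum_integral_adjacent_intervals (μ := volume) (f := g)
      (a := fun k : ℕ => (k:ℝ) / 2 ^ n) (n := 2 ^ n) (by
        intro k hk
        have hk1 : k + 1 ≤ 2 ^ n := hk
        have c1 : ((k:ℝ)) / 2 ^ n ∈ Icc (0:ℝ) 1 := ⟨by positivity, by
          rw [div_le_one hp]; exact_mod_cast (Nat.le_of_succ_le hk1)⟩
        have c2 : (((k + 1 : ℕ):ℝ)) / 2 ^ n ∈ Icc (0:ℝ) 1 := ⟨by positivity, by
          rw [div_le_one hp]; exact_mod_cast hk1⟩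
        exact h.intOn c1 c2)
    have e0 : ((0:ℕ):ℝ) / 2 ^ n = 0 := by simp
    have e1 : (((2 ^ n : ℕ)):ℝ) / 2 ^ n = 1 := by push_cast; field_simp
    simp only [e0, e1] at key
    rw [← key]
    refine Finset.sum_congr rfl (fun k _ => ?_)
    push_cast
    rfl

theorem Near.badn_le (h : Near v g a b e) (hb : 0 ≤ b) (n : ℕ) :
    volume (badn v n) ≤ ENNReal.ofReal (2 * ∫ τ in (0:ℝ)..1, g τ) := by
  set G := ∫ τ in (0:ℝ)..1, g τ with hG
  have hG0 : 0 ≤ G := h.int_nonneg (left_mem_Icc.2 zero_le_one) (right_mem_Icc.2 zero_le_one) zero_le_one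
  have hp : (0:ℝ) < 2 ^ n := by positivity
  have key := measure_union_add_overlap (volume : Measure ℝ) (Finset.range (2 ^ n)) (fun k => v '' dy n k)
    (fun k hk => image_dy_meas h.cont (Finset.mem_range.1 hk))
  have hU : (⋃ k ∈ Finset.range (2 ^ n), v '' dy n k) = v '' Icc 0 1 := by
    rw [← iUnion_dy n, image_iUnion₂]
  rw [hU] at key
  have hsum : ∑ k ∈ Finset.range (2 ^ n), volume (v '' dy n k) ≤ ENNReal.ofReal (b + G) := by
    rw [← h.sum_dy n, ENNReal.ofReal_sum_of_nonneg]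
    · refine Finset.sum_le_sum (fun k hk => ?_)
      have hk1 : k + 1 ≤ 2 ^ n := Finset.mem_range.1 hk
      have c1 : ((k:ℝ)) / 2 ^ n ∈ Icc (0:ℝ) 1 := ⟨by positivity, by
        rw [div_le_one hp]; exact_mod_cast (Nat.le_of_succ_le hk1)⟩
      have c2 : ((k:ℝ) + 1) / 2 ^ n ∈ Icc (0:ℝ) 1 := ⟨by positivity, by
        rw [div_le_one hp]; exact_mod_cast hk1⟩
      exact h.image_le hb c1 c2 (by gcongr; linarith)
    · intro k hk
      have hk1 : k + 1 ≤ 2 ^ n := Finset.mem_range.1 hk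
      have c1 : ((k:ℝ)) / 2 ^ n ∈ Icc (0:ℝ) 1 := ⟨by positivity, by
        rw [div_le_one hp]; exact_mod_cast (Nat.le_of_succ_le hk1)⟩
      have c2 : ((k:ℝ) + 1) / 2 ^ n ∈ Icc (0:ℝ) 1 := ⟨by positivity, by
        rw [div_le_one hp]; exact_mod_cast hk1⟩
      have hle : ((k:ℝ)) / 2 ^ n ≤ ((k:ℝ) + 1) / 2 ^ n := by gcongr; linarith
      exact add_nonneg (mul_nonneg hb (by linarith)) (h.int_nonneg c1 c2 hle)
  have hlow : ENNReal.ofReal (b - G) ≤ volume (v '' Icc 0 1) := by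
    have hpre : IsPreconnected (v '' Icc 0 1) := isPreconnected_Icc.image v h.cont
    have m0 : v 0 ∈ v '' Icc 0 1 := mem_image_of_mem v (left_mem_Icc.2 zero_le_one)
    have m1 : v 1 ∈ v '' Icc 0 1 := mem_image_of_mem v (right_mem_Icc.2 zero_le_one)
    have hsub : Icc (v 0) (v 1) ⊆ v '' Icc 0 1 := hpre.Icc_subset m0 m1
    refine le_trans ?_ (measure_mono hsub)
    rw [Real.volume_Icc]
    refine ENNReal.ofReal_le_ofReal ?_
    have := (abs_le.1 (h.inc 0 (left_mem_Icc.2 zero_le_one) 1 (right_mem_Icc.2 zero_le_one) zero_le_one)).1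
    linarith
  have hbad : volume (badn v n) = volume {y | ∃ i ∈ Finset.range (2 ^ n), ∃ j ∈ Finset.range (2 ^ n),
      i ≠ j ∧ y ∈ v '' dy n i ∧ y ∈ v '' dy n j} := rfl
  rw [← hbad] at key
  rcases le_total G b with hle | hle
  · have h1 : ENNReal.ofReal (b - G) + volume (badn v n) ≤ ENNReal.ofReal (b + G) :=
      (add_le_add_left hlow _).trans (key.trans hsum)
    have h2 : ENNReal.ofReal (b + G) = ENNReal.ofReal (b - G) + ENNReal.ofReal (2 * G) := by
      rw [← ENNReal.ofReal_add (by linarith) (by linarith)]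
      congr 1; ring
    rw [h2] at h1
    exact (ENNReal.add_le_add_iff_left ENNReal.ofReal_ne_top).1 h1
  · calc volume (badn v n) ≤ volume (v '' Icc 0 1) + volume (badn v n) := le_add_self
      _ ≤ ENNReal.ofReal (b + G) := key.trans hsum
      _ ≤ ENNReal.ofReal (2 * G) := ENNReal.ofReal_le_ofReal (by linarith)

/-- levels attained at least twice (for all large dyadic scales) -/
def multi (v : ℝ → ℝ) : Set ℝ := (⋃ m : ℕ, ⋂ n : ℕ, ⋂ (_ : m ≤ n), badn v n) ∪ {v 1}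

theorem multi_meas (hc : ContinuousOn v (Icc 0 1)) : MeasurableSet (multi v) := by
  refine MeasurableSet.union ?_ (measurableSet_singleton _)
  exact MeasurableSet.iUnion (fun m => MeasurableSet.iInter (fun n => MeasurableSet.iInter
    (fun _ => badn_meas hc n)))

theorem Near.multi_le (h : Near v g a b e) (hb : 0 ≤ b) :
    volume (multi v) ≤ ENNReal.ofReal (2 * ∫ τ in (0:ℝ)..1, g τ) := by
  refine (measure_union_le _ _).trans ?_
  rw [Real.volume_singleton, add_zero]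
  have hmono : Monotone (fun m : ℕ => ⋂ n : ℕ, ⋂ (_ : m ≤ n), badn v n) := by
    intro m m' hm y hy
    simp only [mem_iInter] at hy ⊢
    intro n hn
    exact hy n (hm.trans hn)
  rw [hmono.measure_iUnion]
  refine iSup_le (fun m => ?_)
  refine (measure_mono ?_).trans (h.badn_le hb m)
  intro y hy
  simp only [mem_iInter] at hy
  exact hy m le_rfl

theorem unique_of_notMem_multi {y : ℝ} (hy : y ∉ multi v)
    {s t : ℝ} (hs : s ∈ Icc (0:ℝ) 1) (ht : t ∈ Icc (0:ℝ) 1) (hvs : v s = y) (hvt : v t = y) : s = t := by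
  classical
  by_contra hne
  wlog hlt : s < t generalizing s t with H
  · exact H ht hs hvt hvs (Ne.symm hne) (lt_of_le_of_ne (not_lt.1 hlt) (Ne.symm hne))
  have ht1 : t ≠ 1 := by
    rintro rfl
    exact hy (Or.inr (by simp [hvt]))
  have hs1 : s ≠ 1 := by
    rintro rfl
    exact absurd ht.2 (not_le.2 hlt)
  obtain ⟨m, hm⟩ : ∃ m : ℕ, 1 < (t - s) * 2 ^ m := by
    have hpos : 0 < t - s := by linarith
    obtain ⟨m, hm⟩ := pow_unbounded_of_one_lt (1 / (t - s)) (one_lt_two : (1:ℝ) < 2)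
    refine ⟨m, ?_⟩
    rw [div_lt_iff₀ hpos] at hm
    linarith
  refine hy (Or.inl ?_)
  refine mem_iUnion.2 ⟨m, ?_⟩
  simp only [mem_iInter]
  intro n hn
  obtain ⟨k, hk, hks, ek⟩ := mem_dy (n := n) hs hs1
  obtain ⟨l, hl, hlt', el⟩ := mem_dy (n := n) ht ht1
  refine ⟨k, Finset.mem_range.2 hk, l, Finset.mem_range.2 hl, ?_, ⟨s, hks, hvs⟩, ⟨t, hlt', hvt⟩⟩
  rintro rfl
  have hp : (0:ℝ) < 2 ^ n := by positivity
  have h1 := hks.1
  have h2 := hlt'.2
  have hmn : (2:ℝ) ^ m ≤ 2 ^ n := pow_le_pow_right₀ (by norm_num) hn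
  have : (t - s) * 2 ^ n ≤ 1 := by
    rw [div_le_iff₀ hp] at h1
    rw [le_div_iff₀ hp] at h2
    nlinarith
  have : (t - s) * 2 ^ m ≤ (t - s) * 2 ^ n := mul_le_mul_of_nonneg_left hmn (by linarith)
  linarith

/-- the exact crossing pattern of an increasing affine function on one edge -/
def Exact (v : ℝ → ℝ) (a b y : ℝ) : Prop :=
  (a < y → y < a + b → ∃ t ∈ Ioo (0:ℝ) 1, v t = y ∧ (∀ s ∈ Icc (0:ℝ) 1, s < t → v s < y) ∧
      (∀ s ∈ Icc (0:ℝ) 1, t < s → y < v s)) ∧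
  (y ≤ a → ∀ s ∈ Icc (0:ℝ) 1, y < v s) ∧ (a + b ≤ y → ∀ s ∈ Icc (0:ℝ) 1, v s < y)

/-- **BAD LEVEL LEMMA** -/
theorem Near.bad_levels (h : Near v g a b e) (hb : 0 ≤ b) :
    ∃ Bad : Set ℝ, MeasurableSet Bad ∧
      volume Bad ≤ ENNReal.ofReal (2 * (∫ τ in (0:ℝ)..1, g τ) + 4 * e) ∧
      ∀ y ∉ Bad, Exact v a b y := by
  have he : 0 ≤ e := (abs_nonneg _).trans (h.close 0 (left_mem_Icc.2 zero_le_one))
  have hG0 : 0 ≤ ∫ τ in (0:ℝ)..1, g τ :=
    h.int_nonneg (left_mem_Icc.2 zero_le_one) (right_mem_Icc.2 zero_le_one) zero_le_one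
  refine ⟨multi v ∪ (Icc (a - e) (a + e) ∪ Icc (a + b - e) (a + b + e)),
    (multi_meas h.cont).union (measurableSet_Icc.union measurableSet_Icc), ?_, ?_⟩
  · refine (measure_union_le _ _).trans ?_
    refine (add_le_add (h.multi_le hb) (measure_union_le _ _)).trans ?_
    rw [Real.volume_Icc, Real.volume_Icc, ← ENNReal.ofReal_add (by linarith) (by linarith),
      ← ENNReal.ofReal_add (by linarith) (by linarith)]
    exact ENNReal.ofReal_le_ofReal (by linarith)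
  · intro y hy
    have h1 : y ∉ multi v := fun hh => hy (Or.inl hh)
    have h2 : y ∉ Icc (a - e) (a + e) := fun hh => hy (Or.inr (Or.inl hh))
    have h3 : y ∉ Icc (a + b - e) (a + b + e) := fun hh => hy (Or.inr (Or.inr hh))
    have m0 : (0:ℝ) ∈ Icc (0:ℝ) 1 := left_mem_Icc.2 zero_le_one
    have m1 : (1:ℝ) ∈ Icc (0:ℝ) 1 := right_mem_Icc.2 zero_le_one
    refine ⟨?_, ?_, ?_⟩
    · intro ha hb'
      have ya : a + e < y := by
        by_contra hh
        exact h2 ⟨by linarith, not_lt.1 hh⟩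
      have yb : y < a + b - e := by
        by_contra hh
        exact h3 ⟨not_lt.1 hh, by linarith⟩
      have v0 : v 0 < y := by
        have := (abs_le.1 (h.close 0 m0)).2
        simp only [mul_zero, add_zero] at this
        linarith
      have v1 : y < v 1 := by
        have := (abs_le.1 (h.close 1 m1)).1
        simp only [mul_one] at this
        linarith
      obtain ⟨t, ht, hvt⟩ := intermediate_value_Icc zero_le_one h.cont ⟨v0.le, v1.le⟩
      have uniq : ∀ s ∈ Icc (0:ℝ) 1, v s = y → s = t := fun s hs hvs =>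
        unique_of_notMem_multi h1 hs ht hvs hvt
      refine ⟨t, ⟨?_, ?_⟩, hvt, ?_, ?_⟩
      · rcases eq_or_lt_of_le ht.1 with h0 | h0
        · rw [← h0] at hvt; exact absurd hvt v0.ne
        · exact h0
      · rcases eq_or_lt_of_le ht.2 with h0 | h0
        · rw [h0] at hvt; exact absurd hvt.symm v1.ne
        · exact h0
      · intro s hs hst
        by_contra hh
        have hsy : y ≤ v s := not_lt.1 hh
        obtain ⟨r, hr, hvr⟩ := intermediate_value_Icc hs.1 (h.cont.mono (Icc_subset_Icc le_rfl hs.2))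
          ⟨v0.le, hsy⟩
        have := uniq r ⟨hr.1, hr.2.trans hs.2⟩ hvr
        linarith [hr.2]
      · intro s hs hst
        by_contra hh
        have hsy : v s ≤ y := not_lt.1 hh
        obtain ⟨r, hr, hvr⟩ := intermediate_value_Icc hs.2 (h.cont.mono (Icc_subset_Icc hs.1 le_rfl))
          ⟨hsy, v1.le⟩
        have := uniq r ⟨hs.1.trans hr.1, hr.2⟩ hvr
        linarith [hr.1]
    · intro ya s hs
      have ya' : y < a - e := by
        by_contra hh
        exact h2 ⟨not_lt.1 hh, by linarith⟩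
      have := (abs_le.1 (h.close s hs)).1
      have hbs : 0 ≤ b * s := mul_nonneg hb hs.1
      linarith
    · intro yb s hs
      have yb' : a + b + e < y := by
        by_contra hh
        exact h3 ⟨by linarith, not_lt.1 hh⟩
      have := (abs_le.1 (h.close s hs)).2
      have hbs : b * s ≤ b := by
        calc b * s ≤ b * 1 := mul_le_mul_of_nonneg_left hs.2 hb
          _ = b := mul_one b
      linarith

end

end Crest.Agent.R096.Core_124
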