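import Crest.Agent.R096.Core2_124

/-!
Row 96, U3 (EC-WORDS), part 1: bad levels with windows at the ends of an edge, finite
families of edges and of level functions.
-/

namespace Crest.Agent.R096.Core_124

open MeasureTheory Set Filter Topology Metric

noncomputable section

/-! ### one real function, slope hypothesis only in the middle of the edge -/

/-- as `Near`, but the increments are controlled only on `[θ, 1 - θ]` -/
structure NearW (v g : ℝ → ℝ) (a b e θ : ℝ) : Prop where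
  cont : ContinuousOn v (Icc 0 1)
  int : IntervalIntegrable g volume 0 1
  nonneg : ∀ t ∈ Icc (0:ℝ) 1, 0 ≤ g t
  th0 : 0 ≤ θ
  th1 : θ < 1 / 2
  inc : ∀ s ∈ Icc θ (1 - θ), ∀ t ∈ Icc θ (1 - θ), s ≤ t →
    |v t - v s - b * (t - s)| ≤ ∫ τ in s..t, g τ
  close : ∀ t ∈ Icc (0:ℝ) 1, |v t - (a + b * t)| ≤ e

variable {v g : ℝ → ℝ} {a b e θ : ℝ}

/-- restriction to the middle -/
theorem NearW.near (h : NearW v g a b e θ) :
    Near (fun t => v (θ + (1 - 2 * θ) * t)) (fun t => (1 - 2 * θ) * g (θ + (1 - 2 * θ) * t))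
      (a + b * θ) (b * (1 - 2 * θ)) e := by
  have hl : 0 < 1 - 2 * θ := by linarith [h.th1]
  have hmap : ∀ t ∈ Icc (0:ℝ) 1, θ + (1 - 2 * θ) * t ∈ Icc θ (1 - θ) := by
    intro t ht
    constructor
    · have := mul_nonneg hl.le ht.1; linarith
    · have : (1 - 2 * θ) * t ≤ (1 - 2 * θ) * 1 := mul_le_mul_of_nonneg_left ht.2 hl.le
      linarith
  have hsub : Icc θ (1 - θ) ⊆ Icc (0:ℝ) 1 := Icc_subset_Icc h.th0 (by linarith [h.th0])
  have hcv : ∀ s t : ℝ, (∫ τ in s..t, (1 - 2 * θ) * g (θ + (1 - 2 * θ) * τ))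
      = ∫ τ in (θ + (1 - 2 * θ) * s)..(θ + (1 - 2 * θ) * t), g τ := by
    intro s t
    rw [intervalIntegral.integral_const_mul]
    have := intervalIntegral.smul_integral_comp_add_mul (a := s) (b := t) g (1 - 2 * θ) θ
    simp only [smul_eq_mul] at this
    exact this
  refine ⟨?_, ?_, ?_, ?_, ?_⟩
  · refine h.cont.comp (by fun_prop) (fun t ht => hsub (hmap t ht))
  · have h1 : IntervalIntegrable g volume (θ + (1 - 2 * θ) * 0) (θ + (1 - 2 * θ) * 1) := by
      refine h.int.mono_set ?_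
      rw [uIcc_of_le (zero_le_one' ℝ)]
      exact uIcc_subset_Icc (hsub (hmap 0 (left_mem_Icc.2 zero_le_one)))
        (hsub (hmap 1 (right_mem_Icc.2 zero_le_one)))
    have h2 := h1.comp_add_left θ
    have h3 := h2.comp_mul_left (c := 1 - 2 * θ)
    have e1 : (θ + (1 - 2 * θ) * 0 - θ) / (1 - 2 * θ) = 0 := by field_simp; ring
    have e2 : (θ + (1 - 2 * θ) * 1 - θ) / (1 - 2 * θ) = 1 := by
      rw [div_eq_one_iff_eq hl.ne']; ring
    rw [e1, e2] at h3
    exact h3.const_mul _
  · intro t ht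
    exact mul_nonneg hl.le (h.nonneg _ (hsub (hmap t ht)))
  · intro s hs t ht hst
    have h1 := h.inc _ (hmap s hs) _ (hmap t ht)
      (by have := mul_le_mul_of_nonneg_left hst hl.le; linarith)
    rw [hcv]
    refine le_trans (le_of_eq ?_) h1
    congr 1
    ring
  · intro t ht
    have h1 := h.close _ (hsub (hmap t ht))
    refine le_trans (le_of_eq ?_) h1
    congr 1
    ring

/-- **bad levels, with windows** -/
theorem NearW.bad_levels (h : NearW v g a b e θ) (hb : 0 ≤ b) :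
    ∃ Bad : Set ℝ, MeasurableSet Bad ∧
      volume Bad ≤ ENNReal.ofReal (2 * (∫ τ in (0:ℝ)..1, g τ) + 8 * e + 2 * (b * θ)) ∧
      ∀ y ∉ Bad, Exact v a b y := by
  have hl : 0 < 1 - 2 * θ := by linarith [h.th1]
  have he : 0 ≤ e := (abs_nonneg _).trans (h.close 0 (left_mem_Icc.2 zero_le_one))
  have hbθ : 0 ≤ b * θ := mul_nonneg hb h.th0
  have hsub : Icc θ (1 - θ) ⊆ Icc (0:ℝ) 1 := Icc_subset_Icc h.th0 (by linarith [h.th0])
  obtain ⟨B0, hm, hB, hex⟩ := h.near.bad_levels (mul_nonneg hb hl.le)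
  have hint : ∫ τ in (0:ℝ)..1, (1 - 2 * θ) * g (θ + (1 - 2 * θ) * τ) ≤ ∫ τ in (0:ℝ)..1, g τ := by
    rw [intervalIntegral.integral_const_mul]
    have h1 := intervalIntegral.smul_integral_comp_add_mul (a := 0) (b := 1) g (1 - 2 * θ) θ
    rw [smul_eq_mul] at h1
    rw [h1]
    have e1 : θ + (1 - 2 * θ) * 0 = θ := by ring
    have e2 : θ + (1 - 2 * θ) * 1 = 1 - θ := by ring
    rw [e1, e2]
    refine intervalIntegral.integral_mono_interval h.th0 (by linarith [h.th1]) (by linarith [h.th0])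
      ?_ h.int
    rw [Filter.EventuallyLE, ae_restrict_iff' measurableSet_Ioc]
    exact Eventually.of_forall (fun t ht => h.nonneg t ⟨ht.1.le, ht.2⟩)
  refine ⟨B0 ∪ (Icc (a - e) (a + e + b * θ) ∪ Icc (a + b - b * θ - e) (a + b + e)),
    hm.union (measurableSet_Icc.union measurableSet_Icc), ?_, ?_⟩
  · have hG0 : 0 ≤ ∫ τ in (0:ℝ)..1, (1 - 2 * θ) * g (θ + (1 - 2 * θ) * τ) :=
      intervalIntegral.integral_nonneg zero_le_one (fun t ht => h.near.nonneg t ht)
    refine (measure_union_le _ _).trans ?_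
    refine (add_le_add hB (measure_union_le _ _)).trans ?_
    rw [Real.volume_Icc, Real.volume_Icc, ← ENNReal.ofReal_add (by linarith) (by linarith),
      ← ENNReal.ofReal_add (by linarith) (by linarith)]
    exact ENNReal.ofReal_le_ofReal (by linarith)
  · intro y hy
    have h1 : y ∉ B0 := fun hh => hy (Or.inl hh)
    have h2 : y ∉ Icc (a - e) (a + e + b * θ) := fun hh => hy (Or.inr (Or.inl hh))
    have h3 : y ∉ Icc (a + b - b * θ - e) (a + b + e) := fun hh => hy (Or.inr (Or.inr hh))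
    obtain ⟨hx1, -, -⟩ := hex y h1
    refine ⟨?_, ?_, ?_⟩
    · intro ha hb'
      have ya : a + e + b * θ < y := by
        by_contra hh
        exact h2 ⟨by linarith, not_lt.1 hh⟩
      have yb : y < a + b - b * θ - e := by
        by_contra hh
        exact h3 ⟨not_lt.1 hh, by linarith⟩
      obtain ⟨t, ht, hvt, hlo, hup⟩ := hx1 (by linarith) (by nlinarith)
      have lowend : ∀ s ∈ Icc (0:ℝ) 1, s ≤ θ → v s < y := by
        intro s hs hsθ
        have i1 := (abs_le.1 (h.close s hs)).2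
        have i2 : b * s ≤ b * θ := mul_le_mul_of_nonneg_left hsθ hb
        linarith
      have upend : ∀ s ∈ Icc (0:ℝ) 1, 1 - θ ≤ s → y < v s := by
        intro s hs hsθ
        have i1 := (abs_le.1 (h.close s hs)).1
        have i2 : b * (1 - θ) ≤ b * s := mul_le_mul_of_nonneg_left hsθ hb
        linarith
      have resc : ∀ s ∈ Icc θ (1 - θ), (s - θ) / (1 - 2 * θ) ∈ Icc (0:ℝ) 1 ∧
          θ + (1 - 2 * θ) * ((s - θ) / (1 - 2 * θ)) = s := by
        intro s hs
        refine ⟨⟨div_nonneg (by linarith [hs.1]) hl.le, ?_⟩, ?_⟩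
        · rw [div_le_one hl]; linarith [hs.2]
        · rw [mul_comm (1 - 2 * θ), div_mul_cancel₀ _ hl.ne']; ring
      have ht0 : 0 < t := ht.1
      have ht1 : t < 1 := ht.2
      have hT : θ + (1 - 2 * θ) * t ∈ Ioo (0:ℝ) 1 := by
        constructor
        · have := mul_pos hl ht0; linarith [h.th0]
        · have : (1 - 2 * θ) * t < (1 - 2 * θ) * 1 := mul_lt_mul_of_pos_left ht1 hl
          linarith [h.th0]
      refine ⟨θ + (1 - 2 * θ) * t, hT, hvt, ?_, ?_⟩
      · intro s hs hst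
        rcases le_total s θ with hle | hle
        · exact lowend s hs hle
        · have hs2 : s ∈ Icc θ (1 - θ) := ⟨hle, by
            have : (1 - 2 * θ) * t < (1 - 2 * θ) * 1 := mul_lt_mul_of_pos_left ht1 hl
            linarith⟩
          obtain ⟨q1, q2⟩ := resc s hs2
          have := hlo _ q1 (by rw [div_lt_iff₀ hl]; linarith)
          simp only [q2] at this
          exact this
      · intro s hs hst
        rcases le_total (1 - θ) s with hle | hle
        · exact upend s hs hle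
        · have hs2 : s ∈ Icc θ (1 - θ) := ⟨by
            have := mul_pos hl ht0
            linarith, hle⟩
          obtain ⟨q1, q2⟩ := resc s hs2
          have := hup _ q1 (by rw [lt_div_iff₀ hl]; linarith)
          simp only [q2] at this
          exact this
    · intro ya s hs
      have ya' : y < a - e := by
        by_contra hh
        exact h2 ⟨not_lt.1 hh, by linarith⟩
      have := (abs_le.1 (h.close s hs)).1
      have hbs : 0 ≤ b * s := mul_nonneg hb hs.1
      linarith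
    · intro yb s hs
      have yb' : a + b + e < y := by
        by_contra hh
        exact h3 ⟨by linarith, not_lt.1 hh⟩
      have := (abs_le.1 (h.close s hs)).2
      have hbs : b * s ≤ b := by
        calc b * s ≤ b * 1 := mul_le_mul_of_nonneg_left hs.2 hb
          _ = b := mul_one b
      linarith

/-! ### curves and nearly affine functions -/

section seg

variable {F : Type*} [NormedAddCommGroup F] [NormedSpace ℝ F]

/-- `S` is `L`-Lipschitz on `N`, affine with slope `β` on the segment `[y0, y0 + u]` itself and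
affine up to `κ` in the direction `u` near the middle part `[θ, 1 - θ]` of the segment -/
structure NearAffW (S : F → ℝ) (y0 u : F) (ε L κ β θ : ℝ) (N : Set F) : Prop where
  L0 : 0 ≤ L
  κ0 : 0 ≤ κ
  ε0 : 0 ≤ ε
  th0 : 0 ≤ θ
  th1 : θ < 1 / 2
  sub : ∀ t ∈ Icc (0:ℝ) 1, closedBall (y0 + t • u) ε ⊆ N
  lip : ∀ y ∈ N, ∀ y' ∈ N, |S y - S y'| ≤ L * ‖y - y'‖
  line : ∀ t ∈ Icc (0:ℝ) 1, S (y0 + t • u) = S y0 + β * t
  aff : ∀ t ∈ Icc θ (1 - θ), ∀ z : F, ‖z‖ ≤ ε → ∀ τ, 0 ≤ τ → t + τ ≤ 1 - θ →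
    |S (y0 + t • u + z + τ • u) - S (y0 + t • u + z) - β * τ| ≤ κ * τ

variable {c : ℝ → F} {g : ℝ → ℝ} {y0 u : F} {ε L κ β θ : ℝ} {S : F → ℝ} {N : Set F}

theorem NearAffW.neg (h : NearAffW S y0 u ε L κ β θ N) :
    NearAffW (fun y => - S y) y0 u ε L κ (-β) θ N where
  L0 := h.L0
  κ0 := h.κ0
  ε0 := h.ε0
  th0 := h.th0
  th1 := h.th1
  sub := h.sub
  lip := fun y hy y' hy' => by
    have := h.lip y hy y' hy'
    rwa [show -S y - -S y' = -(S y - S y') by ring, abs_neg]
  line := fun t ht => by rw [h.line t ht]; ring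
  aff := fun t ht z hz τ h1 h2 => by
    have := h.aff t ht z hz τ h1 h2
    rwa [show -S (y0 + t • u + z + τ • u) - -S (y0 + t • u + z) - -β * τ
      = -(S (y0 + t • u + z + τ • u) - S (y0 + t • u + z) - β * τ) by ring, abs_neg]

/-- the level function on the edge -/
theorem NearSeg.nearW (hc : NearSeg c g y0 u ε) (hS : NearAffW S y0 u ε L κ β θ N) :
    NearW (fun t => S (c t)) (fun τ => L * g τ + κ) (S y0) β (L * ε) θ := by
  have hmem : ∀ t ∈ Icc (0:ℝ) 1, c t ∈ N := fun t ht =>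
    hS.sub t ht (by rw [mem_closedBall, dist_eq_norm]; exact hc.close t ht)
  have hmem' : ∀ s ∈ Icc (0:ℝ) 1, ∀ t ∈ Icc (0:ℝ) 1, c s + (t - s) • u ∈ N := fun s hs t ht => by
    refine hS.sub t ht ?_
    rw [mem_closedBall, dist_eq_norm]
    have : c s + (t - s) • u - (y0 + t • u) = c s - (y0 + s • u) := by
      rw [sub_smul]; abel
    rw [this]; exact hc.close s hs
  have hline : ∀ t ∈ Icc (0:ℝ) 1, y0 + t • u ∈ N := fun t ht =>
    hS.sub t ht (mem_closedBall_self hS.ε0)
  have hsub : Icc θ (1 - θ) ⊆ Icc (0:ℝ) 1 := Icc_subset_Icc hS.th0 (by linarith [hS.th0])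
  refine ⟨?_, ?_, ?_, hS.th0, hS.th1, ?_, ?_⟩
  · have hl : ContinuousOn S N := by
      have : LipschitzOnWith (Real.toNNReal L) S N := by
        refine LipschitzOnWith.of_dist_le_mul (fun y hy y' hy' => ?_)
        rw [Real.dist_eq, dist_eq_norm, Real.coe_toNNReal L hS.L0]
        exact hS.lip y hy y' hy'
      exact this.continuousOn
    exact hl.comp hc.cont hmem
  · exact (hc.int.const_mul L).add intervalIntegrable_const
  · intro t ht
    have := mul_nonneg hS.L0 (hc.nonneg t ht)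
    have := hS.κ0
    linarith
  · intro s hs t ht hst
    have e1 := hS.lip (c t) (hmem t (hsub ht)) (c s + (t - s) • u) (hmem' s (hsub hs) t (hsub ht))
    have e2 := hS.aff s hs (c s - (y0 + s • u)) (hc.close s (hsub hs)) (t - s) (by linarith)
      (by linarith [ht.2])
    rw [add_sub_cancel] at e2
    have e3 : ‖c t - (c s + (t - s) • u)‖ ≤ ∫ τ in s..t, g τ := by
      have := hc.inc s (hsub hs) t (hsub ht) hst
      rwa [← sub_sub]
    have hgi : IntervalIntegrable g volume s t := by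
      refine hc.int.mono_set ?_
      rw [uIcc_of_le (zero_le_one' ℝ)]
      exact uIcc_subset_Icc (hsub hs) (hsub ht)
    have e4 : ∫ τ in s..t, (L * g τ + κ) = L * (∫ τ in s..t, g τ) + κ * (t - s) := by
      rw [intervalIntegral.integral_add (hgi.const_mul L) intervalIntegrable_const,
        intervalIntegral.integral_const_mul, intervalIntegral.integral_const, smul_eq_mul]
      ring
    rw [e4]
    calc |S (c t) - S (c s) - β * (t - s)|
        = |(S (c t) - S (c s + (t - s) • u)) + (S (c s + (t - s) • u) - S (c s) - β * (t - s))| := by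
          congr 1; ring
      _ ≤ |S (c t) - S (c s + (t - s) • u)| + |S (c s + (t - s) • u) - S (c s) - β * (t - s)| :=
          abs_add_le _ _
      _ ≤ L * (∫ τ in s..t, g τ) + κ * (t - s) :=
          add_le_add (e1.trans (mul_le_mul_of_nonneg_left e3 hS.L0)) e2
  · intro t ht
    have e1 := hS.lip (c t) (hmem t ht) (y0 + t • u) (hline t ht)
    have e3 := mul_le_mul_of_nonneg_left (hc.close t ht) hS.L0
    rw [hS.line t ht] at e1
    exact e1.trans e3

/-- **bad levels on one edge** (windows at the ends) -/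
theorem NearSeg.bad_levelsW (hc : NearSeg c g y0 u ε) (hS : NearAffW S y0 u ε L κ β θ N) :
    ∃ Bad : Set ℝ, MeasurableSet Bad ∧
      volume Bad ≤ ENNReal.ofReal (4 * (L * ∫ τ in (0:ℝ)..1, g τ) + 4 * κ + 16 * (L * ε)
        + 4 * (|β| * θ)) ∧
      ∀ y ∉ Bad, ExactZ (fun t => S (c t)) (S y0) β y := by
  have hG0 : 0 ≤ ∫ τ in (0:ℝ)..1, g τ := intervalIntegral.integral_nonneg zero_le_one hc.nonneg
  have e4 : ∫ τ in (0:ℝ)..1, (L * g τ + κ) = L * (∫ τ in (0:ℝ)..1, g τ) + κ := by
    rw [intervalIntegral.integral_add (hc.int.const_mul L) intervalIntegrable_const,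
      intervalIntegral.integral_const_mul, intervalIntegral.integral_const, smul_eq_mul]
    ring
  have hLG := mul_nonneg hS.L0 hG0
  have hLe := mul_nonneg hS.L0 hS.ε0
  have hκ := hS.κ0
  have hbt : 0 ≤ |β| * θ := mul_nonneg (abs_nonneg _) hS.th0
  set M : ℝ := 2 * (L * ∫ τ in (0:ℝ)..1, g τ) + 2 * κ + 8 * (L * ε) + 2 * (|β| * θ) with hM
  have pos : ∀ {β' : ℝ} {S' : F → ℝ}, NearAffW S' y0 u ε L κ β' θ N → 0 ≤ β' → |β'| = |β| →
      ∃ Bad : Set ℝ, MeasurableSet Bad ∧ volume Bad ≤ ENNReal.ofReal M ∧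
      ∀ y ∉ Bad, Exact (fun t => S' (c t)) (S' y0) β' y := by
    intro β' S' hS' hβ hab
    obtain ⟨Bad, h1, h2, h3⟩ := (hc.nearW hS').bad_levels hβ
    refine ⟨Bad, h1, h2.trans (ENNReal.ofReal_le_ofReal ?_), h3⟩
    rw [e4, hM, ← hab, abs_of_nonneg hβ]
    linarith
  classical
  have P1 : ∃ Bad : Set ℝ, MeasurableSet Bad ∧ volume Bad ≤ ENNReal.ofReal M ∧
      ∀ y ∉ Bad, 0 ≤ β → Exact (fun t => S (c t)) (S y0) β y := by
    by_cases hβ : 0 ≤ β
    · obtain ⟨Bad, h1, h2, h3⟩ := pos hS hβ rfl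
      exact ⟨Bad, h1, h2, fun y hy _ => h3 y hy⟩
    · exact ⟨∅, MeasurableSet.empty, by simp, fun y _ h => absurd h hβ⟩
  have P2 : ∃ Bad : Set ℝ, MeasurableSet Bad ∧ volume Bad ≤ ENNReal.ofReal M ∧
      ∀ y ∉ Bad, β ≤ 0 → Exact (fun t => - S (c t)) (- S y0) (-β) (-y) := by
    by_cases hβ : β ≤ 0
    · obtain ⟨Bad, h1, h2, h3⟩ := pos hS.neg (by linarith : (0:ℝ) ≤ -β) (abs_neg β)
      refine ⟨Neg.neg ⁻¹' Bad, measurable_neg h1, ?_, fun y hy _ => h3 (-y) hy⟩
      have : volume (Neg.neg ⁻¹' Bad) = volume Bad := Measure.measure_preimage_neg volume Bad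
      rw [this]; exact h2
    · exact ⟨∅, MeasurableSet.empty, by simp, fun y _ h => absurd h hβ⟩
  obtain ⟨B1, a1, a2, a3⟩ := P1
  obtain ⟨B2, b1, b2, b3⟩ := P2
  refine ⟨B1 ∪ B2, a1.union b1, ?_, fun y hy => ⟨a3 y (fun h => hy (Or.inl h)), b3 y (fun h => hy (Or.inr h))⟩⟩
  refine (measure_union_le _ _).trans ((add_le_add a2 b2).trans ?_)
  have nn : 0 ≤ M := by rw [hM]; linarith
  rw [← ENNReal.ofReal_add nn nn]
  exact ENNReal.ofReal_le_ofReal (by rw [hM]; linarith)

/-- **EC-WORDS**: finitely many edges `j`, one level function `S` -/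
theorem ec_words {J : Type*} [Fintype J] {c : J → ℝ → F} {g : J → ℝ → ℝ} {y0 u : J → F}
    {ε L κ θ β : J → ℝ} {N : J → Set F} (hc : ∀ j, NearSeg (c j) (g j) (y0 j) (u j) (ε j))
    (hS : ∀ j, NearAffW S (y0 j) (u j) (ε j) (L j) (κ j) (β j) (θ j) (N j)) :
    ∃ Bad : Set ℝ, MeasurableSet Bad ∧
      volume Bad ≤ ∑ j, ENNReal.ofReal (4 * (L j * ∫ τ in (0:ℝ)..1, g j τ) + 4 * κ j
        + 16 * (L j * ε j) + 4 * (|β j| * θ j)) ∧
      ∀ y ∉ Bad, ∀ j, ExactZ (fun t => S (c j t)) (S (y0 j)) (β j) y := by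
  classical
  choose Bad h1 h2 h3 using fun j => (hc j).bad_levelsW (hS j)
  refine ⟨⋃ j, Bad j, MeasurableSet.iUnion h1, ?_, ?_⟩
  · refine (measure_iUnion_fintype_le _ _).trans ?_
    exact Finset.sum_le_sum (fun j _ => h2 j)
  · intro y hy j
    exact h3 j y (fun hh => hy (mem_iUnion.2 ⟨j, hh⟩))

end seg

/-! ### consequences of exactness -/

section exact

variable {v : ℝ → ℝ} {a b y : ℝ}

/-- exactness in the form: number of crossings = number of crossings of `a + b t` -/
theorem ExactZ.cross (h : ExactZ v a b y) (hab : (a < y ∧ y < a + b) ∨ (a + b < y ∧ y < a)) :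
    ∃! t, t ∈ Icc (0:ℝ) 1 ∧ v t = y := by
  rcases hab with ⟨h1, h2⟩ | ⟨h1, h2⟩
  · obtain ⟨t, ht, hvt, hlo, hup⟩ := (h.1 (by linarith)).1 h1 h2
    refine ⟨t, ⟨⟨ht.1.le, ht.2.le⟩, hvt⟩, ?_⟩
    rintro s ⟨hs, hvs⟩
    rcases lt_trichotomy s t with hlt | heq | hgt
    · exact absurd hvs (hlo s hs hlt).ne
    · exact heq
    · exact absurd hvs (hup s hs hgt).ne'
  · obtain ⟨t, ht, hvt, hlo, hup⟩ := (h.2 (by linarith)).1 (by linarith) (by linarith)
    refine ⟨t, ⟨⟨ht.1.le, ht.2.le⟩, by linarith⟩, ?_⟩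
    rintro s ⟨hs, hvs⟩
    rcases lt_trichotomy s t with hlt | heq | hgt
    · exact absurd hvs (by have := hlo s hs hlt; intro hh; linarith)
    · exact heq
    · exact absurd hvs (by have := hup s hs hgt; intro hh; linarith)

theorem ExactZ.cross_mem (h : ExactZ v a b y)
    (hab : (a < y ∧ y < a + b) ∨ (a + b < y ∧ y < a)) {t : ℝ} (ht : t ∈ Icc (0:ℝ) 1)
    (hv : v t = y) : t ∈ Ioo (0:ℝ) 1 := by
  rcases hab with ⟨h1, h2⟩ | ⟨h1, h2⟩
  · obtain ⟨t', ht', hvt, hlo, hup⟩ := (h.1 (by linarith)).1 h1 h2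
    rcases lt_trichotomy t t' with hlt | heq | hgt
    · exact absurd hv (hlo t ht hlt).ne
    · rw [heq]; exact ht'
    · exact absurd hv (hup t ht hgt).ne'
  · obtain ⟨t', ht', hvt, hlo, hup⟩ := (h.2 (by linarith)).1 (by linarith) (by linarith)
    rcases lt_trichotomy t t' with hlt | heq | hgt
    · exact absurd hv (by have := hlo t ht hlt; intro hh; linarith)
    · rw [heq]; exact ht'
    · exact absurd hv (by have := hup t ht hgt; intro hh; linarith)

theorem ExactZ.no_cross (h : ExactZ v a b y) (hab : ¬ ((a < y ∧ y < a + b) ∨ (a + b < y ∧ y < a))) :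
    ∀ t ∈ Icc (0:ℝ) 1, v t ≠ y := by
  intro t ht hv
  rcases le_total 0 b with hb | hb
  · obtain ⟨-, g1, g2⟩ := h.1 hb
    rcases le_or_gt y a with h1 | h1
    · exact absurd hv (g1 h1 t ht).ne'
    · rcases le_or_gt (a + b) y with h2 | h2
      · exact absurd hv (g2 h2 t ht).ne
      · exact hab (Or.inl ⟨h1, h2⟩)
  · obtain ⟨-, g1, g2⟩ := h.2 hb
    rcases le_or_gt a y with h1 | h1
    · have := g1 (by linarith) t ht
      linarith
    · rcases le_or_gt y (a + b) with h2 | h2
      · have := g2 (by linarith) t ht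
        linarith
      · exact hab (Or.inr ⟨h2, h1⟩)

/-- the crossings of two exact levels are in the same order as those of `a + b t` -/
theorem ExactZ.order {y' t t' : ℝ} (h : ExactZ v a b y)
    (ht : t ∈ Icc (0:ℝ) 1) (ht' : t' ∈ Icc (0:ℝ) 1) (hv : v t = y) (hv' : v t' = y') (hb : b ≠ 0) :
    (t < t' ↔ (y - a) / b < (y' - a) / b) ∨ y = y' := by
  by_cases hyy : y = y'
  · exact Or.inr hyy
  left
  have hne : t ≠ t' := by rintro rfl; exact hyy (hv.symm.trans hv')
  by_cases hab : (a < y ∧ y < a + b) ∨ (a + b < y ∧ y < a)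
  · rcases hab with ⟨h1, h2⟩ | ⟨h1, h2⟩
    · have hbp : 0 < b := by linarith
      obtain ⟨s, hs, hvs, hlo, hup⟩ := (h.1 hbp.le).1 h1 h2
      have hts : t = s := by
        rcases lt_trichotomy t s with hlt | heq | hgt
        · exact absurd hv (hlo t ht hlt).ne
        · exact heq
        · exact absurd hv (hup t ht hgt).ne'
      subst hts
      rw [div_lt_div_iff_of_pos_right hbp]
      constructor
      · intro hlt
        have := hup t' ht' hlt
        linarith
      · intro hlt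
        by_contra hcon
        have hlt' : t' < t := lt_of_le_of_ne (not_lt.1 hcon) (Ne.symm hne)
        have := hlo t' ht' hlt'
        linarith
    · have hbn : b < 0 := by linarith
      obtain ⟨s, hs, hvs, hlo, hup⟩ := (h.2 hbn.le).1 (by linarith) (by linarith)
      have hts : t = s := by
        rcases lt_trichotomy t s with hlt | heq | hgt
        · exact absurd hv (by have := hlo t ht hlt; intro hh; linarith)
        · exact heq
        · exact absurd hv (by have := hup t ht hgt; intro hh; linarith)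
      subst hts
      rw [div_lt_div_right_of_neg hbn]
      constructor
      · intro hlt
        have := hup t' ht' hlt
        linarith
      · intro hlt
        by_contra hcon
        have hlt' : t' < t := lt_of_le_of_ne (not_lt.1 hcon) (Ne.symm hne)
        have := hlo t' ht' hlt'
        linarith
  · exact absurd hv (h.no_cross hab t ht)

end exact

/-! ### selection of the position of the core graph -/

section select

variable {E : Type*} [NormedAddCommGroup E] [NormedSpace ℝ E] [MeasurableSpace E] [BorelSpace E]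
  [SecondCountableTopology E]

/-- **selection of positions**, finitely many edges -/
theorem select (μ : Measure E) [SFinite μ] [μ.IsAddRightInvariant] {B : Set E}
    (hB : MeasurableSet B) {J : Type*} [Fintype J] {B' : J → Set E}
    (hB' : ∀ j, MeasurableSet (B' j)) {p w : J → E}
    (hsub : ∀ j, ∀ x ∈ B, ∀ t ∈ Icc (0:ℝ) 1, x + (p j + t • w j) ∈ B' j) {h : J → E → ENNReal}
    (hh : ∀ j, AEMeasurable (h j) μ) {c : J → ENNReal} (hc0 : ∀ j, c j ≠ 0) (hc1 : ∀ j, c j ≠ ⊤)
    (hsum : ∑ j, (∫⁻ x in B' j, h j x ∂μ) / c j < μ B) {P : E → Prop} (hP : ∀ᵐ x ∂μ, P x) :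
    ∃ x ∈ B, P x ∧ ∀ j, ∫⁻ t in Icc (0:ℝ) 1, h j (x + (p j + t • w j)) < c j := by
  by_contra hcon
  push Not at hcon
  have h1 : B ⊆ {x | ¬ P x} ∪ ⋃ j, {x ∈ B | c j ≤ ∫⁻ t in Icc (0:ℝ) 1, h j (x + (p j + t • w j))} := by
    intro x hx
    by_cases hPx : P x
    · obtain ⟨j, hj⟩ := hcon x hx hPx
      exact Or.inr (mem_iUnion.2 ⟨j, hx, hj⟩)
    · exact Or.inl hPx
  have h2 : μ B ≤ ∑ j, (∫⁻ x in B' j, h j x ∂μ) / c j := by
    refine (measure_mono h1).trans ((measure_union_le _ _).trans ?_)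
    have h0 : μ {x | ¬ P x} = 0 := hP
    rw [h0, zero_add]
    refine (measure_iUnion_fintype_le _ _).trans (Finset.sum_le_sum (fun j _ => ?_))
    rw [ENNReal.le_div_iff_mul_le (Or.inl (hc0 j)) (Or.inl (hc1 j)), mul_comm]
    exact seg_cheb μ (hsub j) (hh j) hB (hB' j) (c j)
  exact absurd hsum (not_lt.2 h2)

end select

end

end Crest.Agent.R096.Core_124
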