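import Crest.Agent.R096.Brk5_582

/-!
# Row 96 (S0127), helper124.  EXACT-CORE words, part 4: straight segments in label space.

`T_update`: moving one label `a` between two consecutive other labels moves `T b u` along a straight
line.  `MSeg`: a segment `[A0, A1]` of the foam on which only the label `a` varies, and crosses no other
label.  `MSeg.point`: the labels along the segment.  `MSeg.near`: the same translation from every
nearby point `p` (labels within `ρ`) changes the labels in exactly the same way.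
-/

set_option autoImplicit false
set_option linter.unusedSectionVars false
set_option linter.style.haveILetI false
open Set Filter Topology MeasureTheory

namespace Crest.Agent.R096.Core_124

open Crest.Agent.R096.Brk1_582 Crest.Agent.R096.Brk2_582

section labels

variable {E : Type*} [NormedAddCommGroup E] [NormedSpace ℝ E] [CompleteSpace E] {I : Type*}

open Classical in
/-- direction of the motion of the label `a` above the set `S` of smaller labels -/
noncomputable def dirT (b : Set I → E) (u : I → ℝ) (a : I) (m : ℝ) : E :=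
  b {c | c ≠ a ∧ u c ≤ m} - b (insert a {c | c ≠ a ∧ u c ≤ m})

open Classical in
theorem T_update_aux {b : Set I → E} {u : I → ℝ} (hS : {c | u c < 1}.Finite) {a : I} {m m' : ℝ}
    (hm : 0 ≤ m) (hm' : m' ≤ 1) (hg : ∀ c, c ≠ a → u c ≤ m ∨ m' ≤ u c) :
    ∃ X : E, ∀ s ∈ Icc m m', T b (Function.update u a s) = X +
      (s - m) • b {c | c ≠ a ∧ u c ≤ m} + (m' - s) • b (insert a {c | c ≠ a ∧ u c ≤ m}) := by
  refine ⟨(∫ τ in (0:ℝ)..m, b {c | c ≠ a ∧ u c ≤ τ}) +
    ∫ τ in m'..1, b (insert a {c | c ≠ a ∧ u c ≤ τ}), fun s hs => ?_⟩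
  have hfin : {c | Function.update u a s c < 1}.Finite := by
    refine (hS.insert a).subset fun c hc => ?_
    by_cases h : c = a
    · exact Or.inl h
    · right
      have : Function.update u a s c < 1 := hc
      rwa [Function.update_of_ne h] at this
  have hi1 := integr (b := b) hfin hm (hs.1.trans (hs.2.trans hm'))
  have hi2 := integr (b := b) hfin hs.1 (hs.2.trans hm')
  have hi3 := integr (b := b) hfin hs.2 hm'
  have hi4 := integr (b := b) hfin hm' le_rfl
  have e0 : T b (Function.update u a s) =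
      (((∫ τ in (0:ℝ)..m, b {c | Function.update u a s c ≤ τ}) +
        ∫ τ in m..s, b {c | Function.update u a s c ≤ τ}) +
        ∫ τ in s..m', b {c | Function.update u a s c ≤ τ}) +
        ∫ τ in m'..1, b {c | Function.update u a s c ≤ τ} := by
    rw [intervalIntegral.integral_add_adjacent_intervals hi1 hi2,
      intervalIntegral.integral_add_adjacent_intervals (hi1.trans hi2) hi3,
      intervalIntegral.integral_add_adjacent_intervals ((hi1.trans hi2).trans hi3) hi4, T]
  have e1 : (∫ τ in (0:ℝ)..m, b {c | Function.update u a s c ≤ τ}) =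
      ∫ τ in (0:ℝ)..m, b {c | c ≠ a ∧ u c ≤ τ} := by
    refine intervalIntegral.integral_congr_Ioo_of_le hm fun τ hτ => ?_
    have : {c | Function.update u a s c ≤ τ} = {c | c ≠ a ∧ u c ≤ τ} := by
      ext c
      by_cases h : c = a
      · subst h
        simp only [mem_ofPred_eq, Function.update_self, ne_eq, not_true_eq_false, false_and,
          iff_false, not_le]
        exact hτ.2.trans_le hs.1
      · simp [h]
    simp only [this]
  have e2 : (∫ τ in m..s, b {c | Function.update u a s c ≤ τ}) =
      (s - m) • b {c | c ≠ a ∧ u c ≤ m} := by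
    rw [intervalIntegral.integral_congr_Ioo_of_le (g := fun _ => b {c | c ≠ a ∧ u c ≤ m}) hs.1 ?_]
    · simp
    · intro τ hτ
      have : {c | Function.update u a s c ≤ τ} = {c | c ≠ a ∧ u c ≤ m} := by
        ext c
        by_cases h : c = a
        · subst h
          simp only [mem_ofPred_eq, Function.update_self, ne_eq, not_true_eq_false, false_and,
            iff_false, not_le]
          exact hτ.2
        · simp only [mem_ofPred_eq, Function.update_of_ne h, ne_eq, h, not_false_eq_true, true_and]
          constructor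
          · intro h1
            rcases hg c h with h2 | h2
            · exact h2
            · exact absurd (h2.trans h1) (not_le.2 (hτ.2.trans_le hs.2))
          · intro h1
            exact h1.trans hτ.1.le
      simp only [this]
  have e3 : (∫ τ in s..m', b {c | Function.update u a s c ≤ τ}) =
      (m' - s) • b (insert a {c | c ≠ a ∧ u c ≤ m}) := by
    rw [intervalIntegral.integral_congr_Ioo_of_le
      (g := fun _ => b (insert a {c | c ≠ a ∧ u c ≤ m})) hs.2 ?_]
    · simp
    · intro τ hτ
      have : {c | Function.update u a s c ≤ τ} = insert a {c | c ≠ a ∧ u c ≤ m} := by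
        ext c
        by_cases h : c = a
        · subst h
          simp only [mem_ofPred_eq, Function.update_self, mem_insert_iff, true_or, iff_true]
          exact hτ.1.le
        · simp only [mem_ofPred_eq, Function.update_of_ne h, mem_insert_iff, h, ne_eq,
            not_false_eq_true, true_and, false_or]
          constructor
          · intro h1
            rcases hg c h with h2 | h2
            · exact h2
            · exact absurd (h2.trans h1) (not_le.2 hτ.2)
          · intro h1
            exact h1.trans (hs.1.trans hτ.1.le)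
      simp only [this]
  have e4 : (∫ τ in m'..1, b {c | Function.update u a s c ≤ τ}) =
      ∫ τ in m'..1, b (insert a {c | c ≠ a ∧ u c ≤ τ}) := by
    refine intervalIntegral.integral_congr_Ioo_of_le hm' fun τ hτ => ?_
    have : {c | Function.update u a s c ≤ τ} = insert a {c | c ≠ a ∧ u c ≤ τ} := by
      ext c
      by_cases h : c = a
      · subst h
        simp only [mem_ofPred_eq, Function.update_self, mem_insert_iff, true_or, iff_true]
        exact hs.2.trans hτ.1.le
      · simp [h]
    simp only [this]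
  rw [e0, e1, e2, e3, e4]
  abel

open Classical in
/-- **moving one label between two consecutive other labels** -/
theorem T_update {b : Set I → E} {u : I → ℝ} (hS : {c | u c < 1}.Finite) {a : I} {m m' : ℝ}
    (hm : 0 ≤ m) (hm' : m' ≤ 1) (hg : ∀ c, c ≠ a → u c ≤ m ∨ m' ≤ u c) {s s' : ℝ}
    (hs : s ∈ Icc m m') (hs' : s' ∈ Icc m m') :
    T b (Function.update u a s') = T b (Function.update u a s) + (s' - s) • dirT b u a m := by
  obtain ⟨X, hX⟩ := T_update_aux (b := b) hS hm hm' hg
  rw [hX s hs, hX s' hs', dirT]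
  module

theorem dirT_congr {b : Set I → E} {u v : I → ℝ} {a : I} {m n : ℝ}
    (h : ∀ c, c ≠ a → (u c ≤ m ↔ v c ≤ n)) : dirT b u a m = dirT b v a n := by
  have : {c | c ≠ a ∧ u c ≤ m} = {c | c ≠ a ∧ v c ≤ n} := by
    ext c
    simp only [mem_ofPred_eq]
    constructor
    · rintro ⟨h1, h2⟩; exact ⟨h1, (h c h1).1 h2⟩
    · rintro ⟨h1, h2⟩; exact ⟨h1, (h c h1).2 h2⟩
  rw [dirT, dirT, this]

variable {La : Set E} {P : I → Set E} {b : Set I → E} {N : ℕ}

open Classical in
/-- the translate of a point of the foam which moves the label `a` from `sc p a` to `s` -/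
theorem sc_move (F : Foam La P b N) {p : E} (hp : p ∈ La) {a c : I} (hca : c ≠ a)
    (hc : sc P b p c = 0) {m m' : ℝ} (hm : 0 ≤ m) (hm' : m' ≤ 1)
    (hg : ∀ c, c ≠ a → sc P b p c ≤ m ∨ m' ≤ sc P b p c) (hpa : sc P b p a ∈ Icc m m')
    (hpa1 : sc P b p a < 1) {s : ℝ} (hs : s ∈ Icc m m') (hs1 : s < 1) :
    p + (s - sc P b p a) • dirT b (sc P b p) a m ∈ La ∧
      sc P b (p + (s - sc P b p a) • dirT b (sc P b p) a m) =
        Function.update (sc P b p) a s := by
  have hK := F.sc_mem_K hp
  have hK' := update_mem_K (P := P) hK hpa1 ⟨c, hca, hc⟩ (hm.trans hs.1) hs1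
  have h1 := T_update (b := b) (F.K_finite hK) hm hm' hg hpa hs
  rw [Function.update_eq_self, F.T_sc hp] at h1
  rw [← h1]
  exact ⟨F.T_mem_La hK', F.sc_T hK'⟩

/-- a segment of the foam on which only the label `a` varies and crosses no other label -/
structure MSeg (P : I → Set E) (b : Set I → E) (La : Set E) (A0 A1 : E) (a c : I) : Prop where
  m0 : A0 ∈ La
  m1 : A1 ∈ La
  lab : ∀ c', c' ≠ a → sc P b A1 c' = sc P b A0 c'
  ne : sc P b A0 a ≠ sc P b A1 a
  gap : ∀ c', c' ≠ a → sc P b A0 c' ≤ min (sc P b A0 a) (sc P b A1 a) ∨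
    max (sc P b A0 a) (sc P b A1 a) ≤ sc P b A0 c'
  zero : sc P b A0 c = 0
  nea : c ≠ a

namespace MSeg

variable {A0 A1 : E} {a c : I}

open Classical in
theorem dir (h : MSeg P b La A0 A1 a c) (F : Foam La P b N) :
    A1 - A0 = (sc P b A1 a - sc P b A0 a) •
      dirT b (sc P b A0) a (min (sc P b A0 a) (sc P b A1 a)) := by
  have hK := F.sc_mem_K h.m0
  have e : Function.update (sc P b A0) a (sc P b A1 a) = sc P b A1 := by
    funext c'
    by_cases hc : c' = a
    · subst hc; simp
    · rw [Function.update_of_ne hc, h.lab c' hc]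
  have h1 := T_update (b := b) (F.K_finite hK) (a := a)
    (m := min (sc P b A0 a) (sc P b A1 a)) (m' := max (sc P b A0 a) (sc P b A1 a))
    (le_min (F.sc_nonneg h.m0 a) (F.sc_nonneg h.m1 a))
    (max_le (F.sc_le_one h.m0 a) (F.sc_le_one h.m1 a)) h.gap
    (s := sc P b A0 a) (s' := sc P b A1 a) ⟨min_le_left _ _, le_max_left _ _⟩
    ⟨min_le_right _ _, le_max_right _ _⟩
  rw [e, Function.update_eq_self, F.T_sc h.m0, F.T_sc h.m1] at h1
  rw [← sub_eq_iff_eq_add'.2 h1]

theorem symm (h : MSeg P b La A0 A1 a c) : MSeg P b La A1 A0 a c where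
  m0 := h.m1
  m1 := h.m0
  lab := fun c' hc' => (h.lab c' hc').symm
  ne := h.ne.symm
  gap := fun c' hc' => by
    rw [h.lab c' hc', min_comm, max_comm]
    exact h.gap c' hc'
  zero := by rw [h.lab c h.nea, h.zero]
  nea := h.nea

open Classical in
/-- **the labels along the segment** -/
theorem point (h : MSeg P b La A0 A1 a c) (F : Foam La P b N) {t : ℝ} (ht : t ∈ Icc (0:ℝ) 1) :
    A0 + t • (A1 - A0) ∈ La ∧ sc P b (A0 + t • (A1 - A0)) =
      Function.update (sc P b A0) a (sc P b A0 a + t * (sc P b A1 a - sc P b A0 a)) := by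
  set α := sc P b A0 a with hα
  set β := sc P b A1 a - α with hβ
  have h0 : α ∈ Icc (0:ℝ) 1 := ⟨F.sc_nonneg h.m0 a, F.sc_le_one h.m0 a⟩
  have h1 : sc P b A1 a ∈ Icc (0:ℝ) 1 := ⟨F.sc_nonneg h.m1 a, F.sc_le_one h.m1 a⟩
  have hK := F.sc_mem_K h.m0
  have hK1 := F.sc_mem_K h.m1
  have hval : α + t * β ∈ Icc (min α (sc P b A1 a)) (max α (sc P b A1 a)) := by
    have e : α + t * β = (1 - t) * α + t * sc P b A1 a := by rw [hβ]; ring
    rw [e]
    obtain ⟨t0, t1⟩ := ht
    constructor
    · have a1 := min_le_left α (sc P b A1 a)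
      have a2 := min_le_right α (sc P b A1 a)
      nlinarith [mul_le_mul_of_nonneg_left a1 (sub_nonneg.2 t1), mul_le_mul_of_nonneg_left a2 t0]
    · have a1 := le_max_left α (sc P b A1 a)
      have a2 := le_max_right α (sc P b A1 a)
      nlinarith [mul_le_mul_of_nonneg_left a1 (sub_nonneg.2 t1), mul_le_mul_of_nonneg_left a2 t0]
  have hT := T_update (b := b) (F.K_finite hK) (a := a)
    (m := min α (sc P b A1 a)) (m' := max α (sc P b A1 a))
    (le_min h0.1 h1.1) (max_le h0.2 h1.2) h.gap
    (s := α) (s' := α + t * β) ⟨min_le_left _ _, le_max_left _ _⟩ hval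
  have hT' : T b (Function.update (sc P b A0) a (α + t * β)) = A0 + t • (A1 - A0) := by
    rw [hT, h.dir F, hα, Function.update_eq_self, F.T_sc h.m0, smul_smul, ← hα]
    congr 2
    ring
  have hKt : Function.update (sc P b A0) a (α + t * β) ∈ K P := by
    by_cases hlt : α + t * β < 1
    · have hpos : 0 ≤ α + t * β := (le_min h0.1 h1.1).trans hval.1
      by_cases hα1 : α < 1
      · exact update_mem_K hK hα1 ⟨c, h.nea, h.zero⟩ hpos hlt
      · have hA1 : sc P b A1 a < 1 := by
          refine lt_of_le_of_ne h1.2 fun h' => h.ne ?_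
          rw [h']
          exact le_antisymm h0.2 (not_lt.1 hα1)
        have := update_mem_K hK1 hA1 ⟨c, h.nea, by rw [h.lab c h.nea]; exact h.zero⟩ hpos hlt
        have e : Function.update (sc P b A1) a (α + t * β) =
            Function.update (sc P b A0) a (α + t * β) := by
          funext c'
          by_cases hc : c' = a
          · subst hc; simp
          · rw [Function.update_of_ne hc, Function.update_of_ne hc, h.lab c' hc]
        rwa [e] at this
    · have h1' : α + t * β = 1 :=
        le_antisymm (hval.2.trans (max_le h0.2 h1.2)) (not_lt.1 hlt)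
      -- one of the ends is `1` and we are there
      by_cases hα1 : α = 1
      · rw [h1', ← hα1, hα, Function.update_eq_self]
        exact hK
      · have hα' : α < 1 := lt_of_le_of_ne h0.2 hα1
        have ht1 : t = 1 := by
          by_contra hne
          have ht' : t < 1 := lt_of_le_of_ne ht.2 hne
          have e : α + t * β = (1 - t) * α + t * sc P b A1 a := by rw [hβ]; ring
          rw [e] at h1'
          nlinarith [mul_lt_mul_of_pos_left hα' (sub_pos.2 ht'), mul_le_mul_of_nonneg_left h1.2 ht.1]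
        have e : Function.update (sc P b A0) a (α + t * β) = sc P b A1 := by
          funext c'
          by_cases hc : c' = a
          · subst hc; rw [Function.update_self, ht1, hβ]; ring
          · rw [Function.update_of_ne hc, h.lab c' hc]
        rw [e]; exact hK1
  rw [← hT']
  exact ⟨F.T_mem_La hKt, F.sc_T hKt⟩

open Classical in
/-- **the same translation from a nearby point** -/
theorem near (h : MSeg P b La A0 A1 a c) (F : Foam La P b N) {ρ θ t σ : ℝ} {p : E} (hp : p ∈ La)
    (hpc : sc P b p c = 0) (hθ : 0 < θ) (ht : t ∈ Icc θ (1 - θ)) (hσ : t + σ ∈ Icc θ (1 - θ))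
    (hρ : 2 * ρ ≤ |sc P b A1 a - sc P b A0 a| * θ)
    (hV : ∀ c', |sc P b p c' - sc P b (A0 + t • (A1 - A0)) c'| ≤ ρ) :
    p + σ • (A1 - A0) ∈ La ∧ sc P b (p + σ • (A1 - A0)) =
      Function.update (sc P b p) a (sc P b p a + σ * (sc P b A1 a - sc P b A0 a)) := by
  set α := sc P b A0 a with hα
  set α1 := sc P b A1 a with hα1
  have h0 : α ∈ Icc (0:ℝ) 1 := ⟨F.sc_nonneg h.m0 a, F.sc_le_one h.m0 a⟩
  have h1 : α1 ∈ Icc (0:ℝ) 1 := ⟨F.sc_nonneg h.m1 a, F.sc_le_one h.m1 a⟩
  have hρ0 : 0 ≤ ρ := (abs_nonneg _).trans (hV a)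
  have ht01 : t ∈ Icc (0:ℝ) 1 := ⟨hθ.le.trans ht.1, by linarith [ht.2]⟩
  obtain ⟨-, hsc⟩ := h.point F ht01
  rw [hsc] at hV
  have hab : 0 < |α1 - α| := abs_pos.2 (sub_ne_zero.2 h.ne.symm)
  have hθ1 : θ ≤ 1 / 2 := by linarith [ht.1, ht.2]
  set m := min α α1 with hm
  set m' := max α α1 with hm'
  have hmm : m' - m = |α1 - α| := by
    rw [hm, hm', max_sub_min_eq_abs]
  -- values between
  have hval : ∀ τ ∈ Icc θ (1 - θ), m + |α1 - α| * θ ≤ α + τ * (α1 - α) ∧
      α + τ * (α1 - α) ≤ m' - |α1 - α| * θ := by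
    intro τ hτ
    rcases le_total α α1 with hle | hle
    · rw [hm, hm', min_eq_left hle, max_eq_right hle, abs_of_nonneg (sub_nonneg.2 hle)]
      constructor <;> nlinarith [hτ.1, hτ.2]
    · rw [hm, hm', min_eq_right hle, max_eq_left hle, abs_of_nonpos (sub_nonpos.2 hle)]
      constructor <;> nlinarith [hτ.1, hτ.2]
  have hVa : |sc P b p a - (α + t * (α1 - α))| ≤ ρ := by
    have := hV a
    rwa [Function.update_self] at this
  have hVc : ∀ c', c' ≠ a → |sc P b p c' - sc P b A0 c'| ≤ ρ := fun c' hc' => by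
    have := hV c'
    rwa [Function.update_of_ne hc'] at this
  have hg : ∀ c', c' ≠ a → sc P b p c' ≤ m + ρ ∨ m' - ρ ≤ sc P b p c' := by
    intro c' hc'
    have h2 := abs_le.1 (hVc c' hc')
    rcases h.gap c' hc' with h3 | h3
    · left; linarith [h2.2]
    · right; linarith [h2.1]
  obtain ⟨a1, a2⟩ := hval t ht
  obtain ⟨b1, b2⟩ := hval (t + σ) hσ
  have hVa' := abs_le.1 hVa
  have hpos : 0 < |α1 - α| * θ := mul_pos hab hθ
  have hm0 : 0 ≤ m := le_min h0.1 h1.1
  have hm1 : m' ≤ 1 := max_le h0.2 h1.2
  have hs : sc P b p a + σ * (α1 - α) ∈ Icc (m + ρ) (m' - ρ) := by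
    constructor <;> linarith
  have hpa : sc P b p a ∈ Icc (m + ρ) (m' - ρ) := by
    constructor <;> linarith
  have key := sc_move F hp h.nea hpc (m := m + ρ) (m' := m' - ρ) (by linarith) (by linarith) hg hpa
    ?_ hs ?_
  · have hdir : dirT b (sc P b p) a (m + ρ) = dirT b (sc P b A0) a m := by
      refine dirT_congr fun c' hc' => ?_
      have h2 := abs_le.1 (hVc c' hc')
      constructor
      · intro h4
        rcases h.gap c' hc' with h3 | h3
        · exact h3
        · exfalso
          have : |α1 - α| ≤ 2 * ρ := by rw [← hmm]; linarith [h2.1]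
          nlinarith
      · intro h4; linarith [h2.2]
    have e : (sc P b p a + σ * (α1 - α) - sc P b p a) • dirT b (sc P b p) a (m + ρ) =
        σ • (A1 - A0) := by
      rw [hdir, h.dir F, smul_smul]
      congr 1
      ring
    rw [e] at key
    exact key
  · -- `sc p a < 1`
    rcases hρ0.eq_or_lt with h5 | h5
    · rw [← h5] at hVa'
      linarith
    · linarith [hpa.2]
  · rcases hρ0.eq_or_lt with h5 | h5
    · rw [← h5] at hVa'
      linarith
    · linarith [hs.2]

/-- labels along the segment, componentwise -/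
theorem point' (h : MSeg P b La A0 A1 a c) (F : Foam La P b N) {t : ℝ} (ht : t ∈ Icc (0:ℝ) 1) :
    A0 + t • (A1 - A0) ∈ La ∧ (∀ c', c' ≠ a → sc P b (A0 + t • (A1 - A0)) c' = sc P b A0 c') ∧
      sc P b (A0 + t • (A1 - A0)) a = sc P b A0 a + t * (sc P b A1 a - sc P b A0 a) := by
  classical
  obtain ⟨h1, h2⟩ := h.point F ht
  refine ⟨h1, fun c' hc' => ?_, ?_⟩
  · rw [h2, Function.update_of_ne hc']
  · rw [h2, Function.update_self]

/-- translation from a nearby point, componentwise -/
theorem near' (h : MSeg P b La A0 A1 a c) (F : Foam La P b N) {ρ θ t σ : ℝ} {p : E} (hp : p ∈ La)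
    (hpc : sc P b p c = 0) (hθ : 0 < θ) (ht : t ∈ Icc θ (1 - θ)) (hσ : t + σ ∈ Icc θ (1 - θ))
    (hρ : 2 * ρ ≤ |sc P b A1 a - sc P b A0 a| * θ)
    (hV : ∀ c', |sc P b p c' - sc P b (A0 + t • (A1 - A0)) c'| ≤ ρ) :
    p + σ • (A1 - A0) ∈ La ∧ (∀ c', c' ≠ a → sc P b (p + σ • (A1 - A0)) c' = sc P b p c') ∧
      sc P b (p + σ • (A1 - A0)) a = sc P b p a + σ * (sc P b A1 a - sc P b A0 a) := by
  classical
  obtain ⟨h1, h2⟩ := h.near F hp hpc hθ ht hσ hρ hV
  refine ⟨h1, fun c' hc' => ?_, ?_⟩
  · rw [h2, Function.update_of_ne hc']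
  · rw [h2, Function.update_self]

end MSeg

end labels

end Crest.Agent.R096.Core_124
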