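import Crest.Agent.R096.Core3_124
import Crest.Agent.R096.Core4_124
import Crest.Agent.R96.Push20_899

/-!
# Row 96 (S0127), helper124.  EXACT-CORE words, part 5: (RADIAL).

For a brick `c` whose push is `psi Q C B` with `C = z + lam * Q` homothetic to `Q`, and for a segment
`[A0, A1]` of `∂Q` along which only one label varies (`MSeg`), the level functions `Φ.lev c'` are
`NearAffW` along `z + lam • [A0, A1] ⊆ ∂C`.
-/

set_option autoImplicit false
set_option linter.unusedSectionVars false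
set_option linter.style.haveILetI false
set_option linter.unusedVariables false
open Set Filter Topology MeasureTheory Metric

namespace Crest.Agent.R096.Core_124

open Crest.Agent.R096.Bsp_628 Crest.Agent.R096.Brk1_582 Crest.Agent.R096.Brk2_582
open Crest.Agent.R096.Brk3_582 Crest.Agent.R096.Brk5_582
open Crest.Agent.R96.Push_899 Crest.Agent.R096.SkC1_961

section box

variable {ι : Type*} [Fintype ι] [Nonempty ι] [DecidableEq ι]

theorem gg_congr {Q C : Box ι} {y y' : ι → ℝ} {i : ι} (h : y' i = y i) :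
    gg Q C y' i = gg Q C y i := by
  unfold gg; rw [h]

/-- the gauge is constant along `u` if the coordinates moved by `u` do not matter -/
theorem tt_const {Q C : Box ι} {y u : ι → ℝ} {τ r' : ℝ}
    (h1 : ∀ i, u i ≠ 0 → gg Q C y i ≤ r' ∧ gg Q C (y + τ • u) i ≤ r') (h2 : r' < tt Q C y) :
    tt Q C (y + τ • u) = tt Q C y := by
  apply le_antisymm
  · rw [tt_le_iff]
    intro i
    by_cases hi : u i = 0
    · rw [gg_congr (y := y) (by simp [hi])]; exact gg_le_tt Q C y i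
    · exact (h1 i hi).2.trans h2.le
  · obtain ⟨j, hj⟩ := exists_tt Q C y
    have huj : u j = 0 := by
      by_contra hne
      exact absurd (h1 j hne).1 (not_le.2 (hj ▸ h2))
    rw [hj, ← gg_congr (y' := y + τ • u) (y := y) (by simp [huj])]
    exact gg_le_tt _ _ _ _

theorem psh_move {Q C : Box ι} {y u : ι → ℝ} {τ : ℝ} (h : tt Q C (y + τ • u) = tt Q C y)
    (i : ι) : psh Q C (y + τ • u) i =
      psh Q C y i + τ * (u i * (Q.W i / ww Q C i (tt Q C y))) := by
  unfold psh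
  rw [h, Pi.add_apply, Pi.smul_apply, smul_eq_mul]
  ring

/-- coordinates away from the boundary of `C` have a small gauge -/
theorem gg_le_of {C B : Box ι} (h : Nest B C) {y : ι → ℝ} {i : ι} {ζ W : ℝ} (hζ : 0 ≤ ζ)
    (hW : 0 < W) (h1 : C.hi i - B.hi i ≤ W) (h2 : B.lo i - C.lo i ≤ W) (ha : C.lo i + ζ ≤ y i)
    (hb : y i ≤ C.hi i - ζ) : gg C B y i ≤ 1 - ζ / W := by
  rw [gg_le_iff h]
  unfold cl ch
  have e1 : ζ / W * (C.hi i - B.hi i) ≤ ζ := by
    rw [div_mul_eq_mul_div, div_le_iff₀ hW]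
    exact mul_le_mul_of_nonneg_left h1 hζ
  have e2 : ζ / W * (B.lo i - C.lo i) ≤ ζ := by
    rw [div_mul_eq_mul_div, div_le_iff₀ hW]
    exact mul_le_mul_of_nonneg_left h2 hζ
  constructor <;> linarith

end box

/-- the push of the brick `c` is `psi Q C B` with `C = z + lam * Q` -/
structure HCore {δ κ0 R c0 : ℝ} {La : Set E3} (Φ : FoamD δ κ0 R c0 La) (c : Φ.F)
    (P : Finset (Fin 3)) (κ ρ : ℝ) (C : Box (Fin 3)) (lam : ℝ) (z : E3) : Prop where
  shape : Shape P c0 κ ρ (bbox Φ c) C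
  inner : Inner C (Φ.B c)
  pu : Φ.pu c = psi (bbox Φ c) C (Φ.B c)
  l0 : 0 < lam
  l1 : lam ≤ 1
  lo : ∀ k, C.lo k = z k + lam * c.1.lo k
  hi : ∀ k, C.hi k = z k + lam * c.1.hi k

namespace HCore

variable {δ κ0 R c0 : ℝ} {La : Set E3} {Φ : FoamD δ κ0 R c0 La} {c : Φ.F} {P : Finset (Fin 3)}
  {κ ρ : ℝ} {C : Box (Fin 3)} {lam : ℝ} {z : E3} (H : HCore Φ c P κ ρ C lam z)
include H

theorem CW (k : Fin 3) : C.W k = lam * c.1.side k := by
  unfold Box.W Bx.side; rw [H.lo, H.hi]; ring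

theorem QW (k : Fin 3) : (bbox Φ c).W k = c.1.side k := rfl

theorem szpos : 0 < c.1.sz := Bx.sz_pos (Φ.bf.pos _ c.2)

theorem side_ge (k : Fin 3) : c.1.sz ≤ κ0 * c.1.side k := Φ.bf.asp _ c.2 k

theorem side_le (k : Fin 3) : c.1.side k ≤ c.1.sz := Bx.side_le_sz _ k

theorem k1 : 1 ≤ κ0 := by
  have h1 := H.side_ge 0
  have h2 := H.side_le 0
  have h3 := H.szpos
  have h4 : 0 < c.1.side 0 := Bx.side_pos (Φ.bf.pos _ c.2) 0
  by_contra hne
  nlinarith

theorem mem_S {p : E3} (hp : p ∈ c.1.set) : z + lam • p ∈ C.S := by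
  intro k
  have := Bx.mem_set.1 hp k
  rw [H.lo, H.hi]
  simp only [Pi.add_apply, Pi.smul_apply, smul_eq_mul]
  have hl := H.l0
  constructor <;> nlinarith

theorem not_mem_I {p : E3} (hp' : p ∉ (bbox Φ c).I) : z + lam • p ∉ C.I := by
  intro hI
  apply hp'
  intro k
  have := hI k
  rw [H.lo, H.hi] at this
  simp only [Pi.add_apply, Pi.smul_apply, smul_eq_mul, add_lt_add_iff_left,
    mul_lt_mul_iff_right₀ H.l0] at this
  exact this

/-- the push on the boundary of the core is the homothety -/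
theorem psh_hom {q : E3} (h1 : q ∈ C.S) (h2 : q ∉ C.I) :
    psh (bbox Φ c) C q = fun k => (q k - z k) / lam := by
  have hb : ∃ k, q k = z k + lam * (bbox Φ c).lo k ∨ q k = z k + lam * (bbox Φ c).hi k := by
    by_contra hcon
    push Not at hcon
    apply h2
    intro k
    have h3 := h1 k
    have h4 := hcon k
    refine ⟨lt_of_le_of_ne h3.1 ?_, lt_of_le_of_ne h3.2 ?_⟩
    · rw [H.lo]; exact (h4.1).symm
    · rw [H.hi]; exact h4.2
  have := psi_homothety H.shape H.inner H.l0 H.lo H.hi (y := q)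
    (fun k => by have := h1 k; rw [H.lo, H.hi] at this; exact this) hb
  rwa [psi_out H.inner.nest h2] at this

theorem psi_hom {p : E3} (hp : p ∈ c.1.set) (hp' : p ∉ (bbox Φ c).I) :
    psi (bbox Φ c) C (Φ.B c) (z + lam • p) = p := by
  rw [psi_out H.inner.nest (H.not_mem_I hp'), H.psh_hom (H.mem_S hp) (H.not_mem_I hp')]
  funext k
  simp only [Pi.add_apply, Pi.smul_apply, smul_eq_mul]
  have := H.l0.ne'
  field_simp
  ring

/-- points near the core boundary -/
def Nr (H : HCore Φ c P κ ρ C lam z) : Set E3 := {y | y ∈ c.1.set ∧ 1 / 2 ≤ tt C (Φ.B c) y}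

theorem off {y : E3} (hy : y ∈ H.Nr) : Off C (Φ.B c) y :=
  ⟨by linarith [hy.2], Or.inl (by linarith [hy.2])⟩

theorem psi_mem {y : E3} (hy : y ∈ H.Nr) : psi (bbox Φ c) C (Φ.B c) y ∈ c.1.set :=
  (mem_bbox Φ).1 (psi_bd H.shape H.inner ((mem_bbox Φ).2 hy.1) (H.off hy)).1

theorem Psi_eq {y : E3} (hy : y ∈ H.Nr) : Φ.Psi y = psi (bbox Φ c) C (Φ.B c) y := by
  rw [FoamD.Psi_eq Φ hy.1, H.pu]

omit H in
theorem sum_le (y y' : E3) : ∑ j, |y' j - y j| ≤ 3 * ‖y' - y‖ := by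
  have : ∀ j ∈ (Finset.univ : Finset (Fin 3)), |y' j - y j| ≤ ‖y' - y‖ := fun j _ => by
    have := norm_le_pi_norm (y' - y) j
    rwa [Pi.sub_apply, Real.norm_eq_abs] at this
  refine (Finset.sum_le_sum this).trans ?_
  simp

/-- **the push is Lipschitz near the boundary of the core** -/
theorem psi_lip {N : Set E3} (hN : Convex ℝ N) (hNr : N ⊆ H.Nr) :
    ∀ y ∈ N, ∀ y' ∈ N, ‖psi (bbox Φ c) C (Φ.B c) y - psi (bbox Φ c) C (Φ.B c) y'‖ ≤
      54 * κ0 / c0 ^ 2 * ‖y - y'‖ := by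
  have hc0 := H.shape.c0
  have hk := H.k1
  have hout : ∀ y y' : E3, y ∉ C.I → y' ∉ C.I →
      ‖psi (bbox Φ c) C (Φ.B c) y - psi (bbox Φ c) C (Φ.B c) y'‖ ≤
        54 * κ0 / c0 ^ 2 * ‖y - y'‖ := by
    intro y y' h1 h2
    refine (pi_norm_le_iff_of_nonneg (by positivity)).2 fun i => ?_
    rw [Pi.sub_apply, Real.norm_eq_abs]
    have h3 := psi_incr_out H.shape H.inner h2 h1 i
    refine h3.trans ?_
    have h4 := sum_le y' y
    have h5 : (2:ℝ) / c0 ^ 2 * ∑ j, |y j - y' j| ≤ 2 / c0 ^ 2 * (3 * ‖y - y'‖) :=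
      mul_le_mul_of_nonneg_left h4 (by positivity)
    refine h5.trans ?_
    rw [show (2:ℝ) / c0 ^ 2 * (3 * ‖y - y'‖) = 6 * ‖y - y'‖ / c0 ^ 2 by ring,
      show 54 * κ0 / c0 ^ 2 * ‖y - y'‖ = 54 * κ0 * ‖y - y'‖ / c0 ^ 2 by ring]
    apply div_le_div_of_nonneg_right _ (by positivity)
    nlinarith [norm_nonneg (y - y')]
  have hin : ∀ y y' : E3, y ∈ C.S → y' ∈ C.S → y ∈ H.Nr → y' ∈ H.Nr →
      ‖psi (bbox Φ c) C (Φ.B c) y - psi (bbox Φ c) C (Φ.B c) y'‖ ≤
        54 * κ0 / c0 ^ 2 * ‖y - y'‖ := by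
    intro y y' h1 h2 hn hn'
    refine (pi_norm_le_iff_of_nonneg (by positivity)).2 fun i => ?_
    rw [Pi.sub_apply, Real.norm_eq_abs]
    have h1t : tt C (Φ.B c) y ≤ 1 := (tt_le_one_iff H.inner.nest _).2 h1
    have h3 := psi_incr_in H.shape H.inner (y := y') (y' := y) h2 h1 (H.off hn') (H.off hn)
      (M := 2) (fun i => by
        have h4 := H.inner.W_le_ww i (t := tt C (Φ.B c) y) (by linarith [hn.2]) h1t
        have h5 := H.inner.W0 i
        nlinarith [hn.2]) (a := fun _ => κ0 / c0) (fun i j => by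
        have h5 : (bbox Φ c).W i ≤ κ0 * (bbox Φ c).W j :=
          (H.side_le i).trans (H.side_ge j)
        have h6 := H.shape.wd j
        have h8 := H.shape.W0 j
        rw [div_mul_eq_mul_div, le_div_iff₀ hc0]
        nlinarith) i
    refine h3.trans ?_
    have h4 := sum_le y' y
    have e : ∑ j, (fun _ : Fin 3 => κ0 / c0) j * |y j - y' j| = κ0 / c0 * ∑ j, |y j - y' j| := by
      rw [Finset.mul_sum]
    rw [e]
    have h5 : κ0 / c0 * ∑ j, |y j - y' j| ≤ κ0 / c0 * (3 * ‖y - y'‖) :=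
      mul_le_mul_of_nonneg_left h4 (by positivity)
    have h6 : κ0 / c0 ≤ κ0 / c0 ^ 2 := by
      apply div_le_div_of_nonneg_left (by linarith) (by positivity)
      nlinarith [H.shape.c1]
    have h7 : κ0 / c0 * (3 * ‖y - y'‖) ≤ κ0 / c0 ^ 2 * (3 * ‖y - y'‖) :=
      mul_le_mul_of_nonneg_right h6 (by positivity)
    calc _ ≤ 9 * 2 * (κ0 / c0 ^ 2 * (3 * ‖y - y'‖)) := by linarith
      _ = _ := by ring
  -- the mixed case
  have hmix : ∀ y ∈ N, ∀ y' ∈ N, y ∈ C.S → y' ∉ C.S →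
      ‖psi (bbox Φ c) C (Φ.B c) y - psi (bbox Φ c) C (Φ.B c) y'‖ ≤
        54 * κ0 / c0 ^ 2 * ‖y - y'‖ := by
    intro y hy y' hy' h1 h2
    have hy'I : y' ∉ C.I := fun h => h2 fun i => ⟨(h i).1.le, (h i).2.le⟩
    have ht1 : tt C (Φ.B c) y ≤ 1 := (tt_le_one_iff H.inner.nest _).2 h1
    have ht2 : 1 ≤ tt C (Φ.B c) y' := not_lt.1 (mt (tt_lt_one_iff H.inner.nest _).1 hy'I)
    have hcont : Continuous fun s : ℝ => tt C (Φ.B c) (y + s • (y' - y)) :=
      (continuous_tt C (Φ.B c)).comp (by fun_prop)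
    obtain ⟨s, hs, hs1⟩ : (1:ℝ) ∈ (fun s : ℝ => tt C (Φ.B c) (y + s • (y' - y))) '' Icc 0 1 := by
      refine intermediate_value_Icc zero_le_one hcont.continuousOn ?_
      constructor
      · simpa using ht1
      · simpa using ht2
    set x := y + s • (y' - y) with hx
    have hs1' : tt C (Φ.B c) x = 1 := hs1
    have hxN : x ∈ N := by
      have := hN hy hy' (sub_nonneg.2 hs.2) hs.1 (by ring)
      convert this using 1
      rw [hx]; module
    have hxS : x ∈ C.S := (tt_le_one_iff H.inner.nest _).1 hs1'.le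
    have hxI : x ∉ C.I := fun h => by
      have := (tt_lt_one_iff H.inner.nest _).2 h
      linarith
    have e1 : ‖y - x‖ = s * ‖y - y'‖ := by
      rw [hx, show y - (y + s • (y' - y)) = s • (y - y') by module, norm_smul,
        Real.norm_of_nonneg hs.1]
    have e2 : ‖x - y'‖ = (1 - s) * ‖y - y'‖ := by
      rw [hx, show y + s • (y' - y) - y' = (1 - s) • (y - y') by module, norm_smul,
        Real.norm_of_nonneg (sub_nonneg.2 hs.2)]
    have b1 := hin y x h1 hxS (hNr hy) (hNr hxN)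
    have b2 := hout x y' hxI hy'I
    calc _ ≤ ‖psi (bbox Φ c) C (Φ.B c) y - psi (bbox Φ c) C (Φ.B c) x‖ +
        ‖psi (bbox Φ c) C (Φ.B c) x - psi (bbox Φ c) C (Φ.B c) y'‖ := norm_sub_le_norm_sub_add_norm_sub _ _ _
      _ ≤ 54 * κ0 / c0 ^ 2 * ‖y - x‖ + 54 * κ0 / c0 ^ 2 * ‖x - y'‖ := add_le_add b1 b2
      _ = _ := by rw [e1, e2]; ring
  intro y hy y' hy'
  by_cases h1 : y ∈ C.S
  · by_cases h2 : y' ∈ C.S
    · exact hin y y' h1 h2 (hNr hy) (hNr hy')
    · exact hmix y hy y' hy' h1 h2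
  · by_cases h2 : y' ∈ C.S
    · have := hmix y' hy' y hy h2 h1
      rwa [norm_sub_rev, norm_sub_rev y'] at this
    · exact hout y y' (fun h => h1 fun i => ⟨(h i).1.le, (h i).2.le⟩)
        (fun h => h2 fun i => ⟨(h i).1.le, (h i).2.le⟩)

end HCore

end Crest.Agent.R096.Core_124
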