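import Crest.Agent.R096.Core5_124

/-!
# Row 96 (S0127), helper124.  EXACT-CORE words, part 6: the theorem (RADIAL).
-/

set_option autoImplicit false
set_option linter.unusedSectionVars false
set_option linter.style.haveILetI false
set_option linter.unusedVariables false
open Set Filter Topology MeasureTheory Metric

namespace Crest.Agent.R096.Core_124

open Crest.Agent.R096.Bsp_628 Crest.Agent.R096.Brk1_582 Crest.Agent.R096.Brk2_582
open Crest.Agent.R096.Brk3_582 Crest.Agent.R096.Brk5_582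
open Crest.Agent.R96.Push_899 Crest.Agent.R096.SkC1_961

/-- Lipschitz constant of the labels on the brick `c` -/
noncomputable def Ll {δ κ0 R c0 : ℝ} {La : Set E3} (Φ : FoamD δ κ0 R c0 La) (c : Φ.F) : ℝ :=
  Cs 3 δ R / c.1.sz

section

variable {δ κ0 R c0 : ℝ} {La : Set E3} {Φ : FoamD δ κ0 R c0 La} {c a : Φ.F}

theorem Ll_nonneg (hδ : 0 < δ) (hR : 0 < R) : 0 ≤ Ll Φ c :=
  div_nonneg (Cs_nonneg hδ hR) (Bx.sz_pos (Φ.bf.pos _ c.2)).le

theorem lab_lip (hLa : IsOpen La) (hδ : 0 < δ) (hR : 0 < R) {y y' : E3} (hy : y ∈ c.1.set)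
    (hy' : y' ∈ c.1.set) (c' : Φ.F) :
    |sc (Pc Φ.F) (bc (F := Φ.F)) y c' - sc (Pc Φ.F) (bc (F := Φ.F)) y' c'| ≤
      Ll Φ c * ‖y - y'‖ := by
  have := lip_cell Φ.bf hLa hδ hR Φ.cmp c y hy y' hy' c'
  rwa [Fintype.card_fin] at this

variable {A0 A1 : E3} (h : MSeg (Pc Φ.F) (bc (F := Φ.F)) La A0 A1 a c)
include h

theorem MSeg.mem_brick (hLa : IsOpen La) {t : ℝ} (ht : t ∈ Icc (0:ℝ) 1) :
    A0 + t • (A1 - A0) ∈ c.1.set := by
  classical
  have FF := foam Φ.bf hLa
  obtain ⟨h1, h2, -⟩ := h.point' FF ht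
  have : sc (Pc Φ.F) (bc (F := Φ.F)) (A0 + t • (A1 - A0)) c = 0 := by
    rw [h2 c h.nea, h.zero]
  exact (FF.sc_eq_zero h1).1 this

/-- **(COORD)** a coordinate which varies along the segment is far from the walls of the brick -/
theorem MSeg.coord (hLa : IsOpen La) (hδ : 0 < δ) (hR : 0 < R) {θ t η : ℝ} (hθ : 0 < θ)
    (ht : t ∈ Icc θ (1 - θ)) {i : Fin 3} (hi : (A1 - A0) i ≠ 0) (hη0 : 0 ≤ η)
    (hη : Ll Φ c * η ≤ |sc (Pc Φ.F) (bc (F := Φ.F)) A1 a - sc (Pc Φ.F) (bc (F := Φ.F)) A0 a| *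
      θ / 4) :
    c.1.lo i + η ≤ (A0 + t • (A1 - A0)) i ∧ (A0 + t • (A1 - A0)) i ≤ c.1.hi i - η := by
  classical
  have FF := foam Φ.bf hLa
  have ht01 : t ∈ Icc (0:ℝ) 1 := ⟨hθ.le.trans ht.1, by linarith [ht.2]⟩
  have heS := h.mem_brick hLa ht01
  set e := A0 + t • (A1 - A0) with he
  have heB := Bx.mem_set.1 heS
  have hL0 := Ll_nonneg (Φ := Φ) (c := c) hδ hR
  -- the key: no point of the brick at distance `≤ η` from `e` on the wall
  have key : ∀ v : ℝ, (v = c.1.lo i ∨ v = c.1.hi i) → |v - e i| ≤ η → False := by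
    intro v hv hve
    set p : E3 := Function.update e i v with hp
    have hpS : p ∈ c.1.set := by
      rw [Bx.mem_set]
      intro k
      by_cases hk : k = i
      · subst hk
        rw [hp, Function.update_self]
        have hpos := Φ.bf.pos _ c.2 k
        rcases hv with rfl | rfl
        · exact ⟨le_rfl, hpos.le⟩
        · exact ⟨hpos.le, le_rfl⟩
      · rw [hp, Function.update_of_ne hk]; exact heB k
    have hpe : ‖p - e‖ ≤ η := by
      refine (pi_norm_le_iff_of_nonneg hη0).2 fun k => ?_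
      rw [Pi.sub_apply, Real.norm_eq_abs]
      by_cases hk : k = i
      · subst hk; rw [hp, Function.update_self]; exact hve
      · rw [hp, Function.update_of_ne hk, sub_self, abs_zero]; exact hη0
    have hpLa : p ∈ La := FF.sub c hpS
    have hpc : sc (Pc Φ.F) (bc (F := Φ.F)) p c = 0 := (FF.sc_eq_zero hpLa).2 hpS
    have hV : ∀ c', |sc (Pc Φ.F) (bc (F := Φ.F)) p c' - sc (Pc Φ.F) (bc (F := Φ.F)) e c'| ≤
        Ll Φ c * η := fun c' =>
      (lab_lip hLa hδ hR hpS heS c').trans (mul_le_mul_of_nonneg_left hpe hL0)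
    -- choose the direction
    obtain ⟨σ, hσ, hout⟩ : ∃ σ : ℝ, t + σ ∈ Icc (θ / 2) (1 - θ / 2) ∧
        ¬ (c.1.lo i ≤ v + σ * (A1 - A0) i ∧ v + σ * (A1 - A0) i ≤ c.1.hi i) := by
      have hth : t + θ / 2 ∈ Icc (θ / 2) (1 - θ / 2) ∧ t + -(θ / 2) ∈ Icc (θ / 2) (1 - θ / 2) := by
        refine ⟨⟨?_, ?_⟩, ?_, ?_⟩ <;> linarith [ht.1, ht.2]
      rcases lt_or_gt_of_ne hi with hneg | hpos
      · rcases hv with rfl | rfl
        · refine ⟨θ / 2, hth.1, fun hh => ?_⟩
          nlinarith [hh.1]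
        · refine ⟨-(θ / 2), hth.2, fun hh => ?_⟩
          nlinarith [hh.2]
      · rcases hv with rfl | rfl
        · refine ⟨-(θ / 2), hth.2, fun hh => ?_⟩
          nlinarith [hh.1]
        · refine ⟨θ / 2, hth.1, fun hh => ?_⟩
          nlinarith [hh.2]
    obtain ⟨h1, h2, -⟩ := h.near' FF (ρ := Ll Φ c * η) (θ := θ / 2) (t := t) (σ := σ) hpLa hpc
      (by linarith) ⟨by linarith [ht.1], by linarith [ht.2]⟩ hσ (by linarith) hV
    have h3 : sc (Pc Φ.F) (bc (F := Φ.F)) (p + σ • (A1 - A0)) c = 0 := by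
      rw [h2 c h.nea, hpc]
    have h4 : p + σ • (A1 - A0) ∈ c.1.set := (FF.sc_eq_zero h1).1 h3
    have h5 := Bx.mem_set.1 h4 i
    have h6 : (p + σ • (A1 - A0)) i = v + σ * (A1 - A0) i := by
      rw [Pi.add_apply, Pi.smul_apply, smul_eq_mul, hp, Function.update_self]
    rw [h6] at h5
    exact hout h5
  constructor
  · by_contra hcon
    refine key (c.1.lo i) (Or.inl rfl) ?_
    rw [abs_le]
    constructor <;> linarith [(heB i).1, not_le.1 hcon]
  · by_contra hcon
    refine key (c.1.hi i) (Or.inr rfl) ?_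
    rw [abs_le]
    constructor <;> linarith [(heB i).2, not_le.1 hcon]

end

namespace HCore

variable {δ κ0 R c0 : ℝ} {La : Set E3} {Φ : FoamD δ κ0 R c0 La} {c a : Φ.F}
  {P : Finset (Fin 3)} {κ ρ : ℝ} {C : Box (Fin 3)} {lam : ℝ} {z : E3} {A0 A1 : E3}

/-- tubular neighbourhood of the segment -/
def Tb (lam : ℝ) (z A0 A1 : E3) (ε : ℝ) : Set E3 :=
  {y | ∃ t ∈ Icc (0:ℝ) 1, ‖y - (z + lam • (A0 + t • (A1 - A0)))‖ ≤ ε}

theorem convex_Tb (lam : ℝ) (z A0 A1 : E3) (ε : ℝ) : Convex ℝ (Tb lam z A0 A1 ε) := by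
  rintro x ⟨t, ht, hx⟩ y ⟨s, hs, hy⟩ α β hα hβ hαβ
  refine ⟨α * t + β * s, ?_, ?_⟩
  · have := (convex_Icc (0:ℝ) 1) ht hs hα hβ hαβ
    simpa [smul_eq_mul] using this
  · have e : α • x + β • y - (z + lam • (A0 + (α * t + β * s) • (A1 - A0))) =
        α • (x - (z + lam • (A0 + t • (A1 - A0)))) + β • (y - (z + lam • (A0 + s • (A1 - A0)))) := by
      have hβ' : β = 1 - α := by linarith
      subst hβ'
      module
    rw [e]
    refine (norm_add_le _ _).trans ?_
    rw [norm_smul, norm_smul, Real.norm_of_nonneg hα, Real.norm_of_nonneg hβ]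
    calc _ ≤ α * ε + β * ε := add_le_add (mul_le_mul_of_nonneg_left hx hα)
          (mul_le_mul_of_nonneg_left hy hβ)
      _ = ε := by rw [← add_mul, hαβ, one_mul]

variable (H : HCore Φ c P κ ρ C lam z)
include H

/-- distance estimate for the outer gauge -/
theorem ttQ_le {q y : E3} (hq : q ∈ C.S) {ε : ℝ} (hε : 0 ≤ ε) (hy : ‖y - q‖ ≤ ε) :
    tt (bbox Φ c) C y ≤ ε / (c0 * ρ) := by
  have hcr : 0 < c0 * ρ := mul_pos H.shape.c0 H.shape.r0
  rw [tt_le_iff]
  intro i
  rw [gg_le_iff H.shape.nest]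
  have h1 := norm_le_pi_norm (y - q) i
  rw [Pi.sub_apply, Real.norm_eq_abs] at h1
  have h2 := abs_le.1 (h1.trans hy)
  have h3 := hq i
  have e1 : ε ≤ ε / (c0 * ρ) * (C.lo i - (bbox Φ c).lo i) := by
    rw [div_mul_eq_mul_div, le_div_iff₀ hcr]
    exact mul_le_mul_of_nonneg_left (H.shape.lo1 i) hε
  have e2 : ε ≤ ε / (c0 * ρ) * ((bbox Φ c).hi i - C.hi i) := by
    rw [div_mul_eq_mul_div, le_div_iff₀ hcr]
    exact mul_le_mul_of_nonneg_left (H.shape.hi1 i) hε
  unfold cl ch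
  constructor <;> linarith

/-- distance estimate for the inner gauge -/
theorem ttC_ge {q y : E3} (hq : q ∈ C.S) (hq' : q ∉ C.I) {ε : ℝ} (hε : 0 ≤ ε)
    (hy : ‖y - q‖ ≤ ε) : 1 - 8 * κ0 * ε / (lam * c.1.sz) ≤ tt C (Φ.B c) y := by
  have hk := H.k1
  have hs := H.szpos
  have hl := H.l0
  obtain ⟨j, hj⟩ : ∃ j, q j = C.lo j ∨ q j = C.hi j := by
    by_contra hcon
    push Not at hcon
    apply hq'
    intro k
    exact ⟨lt_of_le_of_ne (hq k).1 (hcon k).1.symm, lt_of_le_of_ne (hq k).2 (hcon k).2⟩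
  have h1 := norm_le_pi_norm (y - q) j
  rw [Pi.sub_apply, Real.norm_eq_abs] at h1
  have h2 := abs_le.1 (h1.trans hy)
  have hWj : lam * c.1.sz ≤ κ0 * C.W j := by
    rw [H.CW]
    have := H.side_ge j
    nlinarith
  have hW0 := H.inner.W0 j
  have hg1 : C.W j / 8 ≤ C.hi j - (Φ.B c).hi j := by linarith [H.inner.hi j]
  have hg2 : C.W j / 8 ≤ (Φ.B c).lo j - C.lo j := by linarith [H.inner.lo j]
  have key : ∀ g : ℝ, C.W j / 8 ≤ g → ε / g ≤ 8 * κ0 * ε / (lam * c.1.sz) := by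
    intro g hg
    have hg0 : 0 < g := by linarith
    rw [div_le_div_iff₀ hg0 (by positivity)]
    nlinarith [mul_le_mul_of_nonneg_left hWj hε, mul_le_mul_of_nonneg_left hg (by positivity : 0 ≤ κ0 * ε)]
  refine le_trans ?_ (gg_le_tt C (Φ.B c) y j)
  unfold gg
  rcases hj with hj | hj
  · refine le_trans ?_ (le_max_right _ _)
    have hg0 : 0 < (Φ.B c).lo j - C.lo j := by linarith
    have h3 := key _ hg2
    have h4 : 1 - ε / ((Φ.B c).lo j - C.lo j) ≤ ((Φ.B c).lo j - y j) / ((Φ.B c).lo j - C.lo j) := by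
      rw [sub_le_iff_le_add, ← add_div, le_div_iff₀ hg0]
      rw [hj] at h2
      linarith [h2.2]
    linarith
  · refine le_trans ?_ (le_max_left _ _)
    have hg0 : 0 < C.hi j - (Φ.B c).hi j := by linarith
    have h3 := key _ hg1
    have h4 : 1 - ε / (C.hi j - (Φ.B c).hi j) ≤ (y j - (Φ.B c).hi j) / (C.hi j - (Φ.B c).hi j) := by
      rw [sub_le_iff_le_add, ← add_div, le_div_iff₀ hg0]
      rw [hj] at h2
      linarith [h2.1]
    linarith

/-- points of the tube are near the boundary of the core -/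
theorem Tb_sub (hbd : ∀ t ∈ Icc (0:ℝ) 1, A0 + t • (A1 - A0) ∈ c.1.set ∧
    A0 + t • (A1 - A0) ∉ (bbox Φ c).I) {ε : ℝ} (hε : 0 ≤ ε) (he1 : ε ≤ c0 * ρ)
    (he2 : 16 * κ0 * ε ≤ lam * c.1.sz) : Tb lam z A0 A1 ε ⊆ H.Nr := by
  rintro y ⟨t, ht, hy⟩
  obtain ⟨h1, h2⟩ := hbd t ht
  have hq := H.mem_S h1
  have hq' := H.not_mem_I h2
  have hcr : 0 < c0 * ρ := mul_pos H.shape.c0 H.shape.r0
  have hk := H.k1
  have hs := H.szpos
  have hl := H.l0
  constructor
  · rw [← mem_bbox Φ, ← tt_le_one_iff H.shape.nest]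
    refine (H.ttQ_le hq hε hy).trans ?_
    rw [div_le_one hcr]; exact he1
  · have h3 := H.ttC_ge hq hq' hε hy
    have h4 : 8 * κ0 * ε / (lam * c.1.sz) ≤ 1 / 2 := by
      rw [div_le_iff₀ (by positivity)]; linarith
    linarith

theorem bd_of (hLa : IsOpen La)
    (h : MSeg (Pc Φ.F) (bc (F := Φ.F)) La A0 A1 a c) {d : Φ.F} (hdc : d ≠ c) (hda : d ≠ a)
    (hd : A0 ∈ d.1.set) : ∀ t ∈ Icc (0:ℝ) 1, A0 + t • (A1 - A0) ∈ c.1.set ∧
      A0 + t • (A1 - A0) ∉ (bbox Φ c).I := by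
  intro t ht
  have FF := foam Φ.bf hLa
  obtain ⟨h1, h2, -⟩ := h.point' FF ht
  refine ⟨h.mem_brick hLa ht, ?_⟩
  have h3 : sc (Pc Φ.F) (bc (F := Φ.F)) A0 d = 0 := (FF.sc_eq_zero h.m0).2 hd
  have h4 : A0 + t • (A1 - A0) ∈ d.1.set := (FF.sc_eq_zero h1).1 (by rw [h2 d hda, h3])
  exact FoamD.not_mem_I Φ hdc h4

set_option maxHeartbeats 4000000 in
/-- **(RADIAL).** -/
theorem radial (hLa : IsOpen La) (hδ : 0 < δ) (hR : 0 < R)
    (h : MSeg (Pc Φ.F) (bc (F := Φ.F)) La A0 A1 a c) {d : Φ.F} (hdc : d ≠ c) (hda : d ≠ a)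
    (hd : A0 ∈ d.1.set) {θ ε : ℝ} (hθ : 0 < θ) (hθ1 : θ < 1 / 2) (hε : 0 < ε)
    (he1 : ε ≤ c0 * ρ) (he2 : 16 * κ0 * ε ≤ lam * c.1.sz)
    (he3 : Ll Φ c * (200 * κ0 / (c0 ^ 2 * lam) * ε) ≤
      |sc (Pc Φ.F) (bc (F := Φ.F)) A1 a - sc (Pc Φ.F) (bc (F := Φ.F)) A0 a| * θ) (c' : Φ.F) :
    NearAffW (fun y => Φ.lev c' y) (z + lam • A0) (lam • (A1 - A0)) ε
      (Ll Φ c * (54 * κ0 / c0 ^ 2))
      (|sc (Pc Φ.F) (bc (F := Φ.F)) A1 a - sc (Pc Φ.F) (bc (F := Φ.F)) A0 a| * (ε / (c0 * ρ * lam)) +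
        16 * κ0 * (Ll Φ c * ε) / lam)
      (sc (Pc Φ.F) (bc (F := Φ.F)) A1 c' - sc (Pc Φ.F) (bc (F := Φ.F)) A0 c') θ
      (Tb lam z A0 A1 ε) := by
  have FF := foam Φ.bf hLa
  have hc0 := H.shape.c0
  have hc1 := H.shape.c1
  have hr0 := H.shape.r0
  have hk := H.k1
  have hs := H.szpos
  have hl := H.l0
  have hl1 := H.l1
  have hL0 := Ll_nonneg (Φ := Φ) (c := c) hδ hR
  have hcr : 0 < c0 * ρ := mul_pos hc0 hr0
  set D := A1 - A0 with hD
  set S : E3 → Φ.F → ℝ := sc (Pc Φ.F) (bc (F := Φ.F)) with hS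
  set β := S A1 a - S A0 a with hβ
  have hβ0 : 0 < |β| := abs_pos.2 (sub_ne_zero.2 h.ne.symm)
  have hbd := H.bd_of hLa h hdc hda hd
  have hNr := H.Tb_sub hbd hε.le he1 he2
  have hconv := convex_Tb lam z A0 A1 ε
  have hlev : ∀ y ∈ Tb lam z A0 A1 ε, Φ.lev c' y = S (psi (bbox Φ c) C (Φ.B c) y) c' := by
    intro y hy
    change sc (Pc Φ.F) (bc (F := Φ.F)) (Φ.Psi y) c' = _
    rw [H.Psi_eq (hNr hy)]
  have hpsiB : ∀ y ∈ Tb lam z A0 A1 ε, psi (bbox Φ c) C (Φ.B c) y ∈ c.1.set := fun y hy =>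
    H.psi_mem (hNr hy)
  have hcen : ∀ t ∈ Icc (0:ℝ) 1, z + lam • (A0 + t • D) ∈ Tb lam z A0 A1 ε := fun t ht =>
    ⟨t, ht, by rw [sub_self, norm_zero]; exact hε.le⟩
  have hcenpsi : ∀ t ∈ Icc (0:ℝ) 1,
      psi (bbox Φ c) C (Φ.B c) (z + lam • (A0 + t • D)) = A0 + t • D := fun t ht =>
    H.psi_hom (hbd t ht).1 (hbd t ht).2
  -- slope of the label `c'`
  set β' := S A1 c' - S A0 c' with hβ'
  have hslope : c' ≠ a → β' = 0 := fun hne => by rw [hβ']; exact sub_eq_zero.2 (h.lab c' hne)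
  have hβ'le : |β'| ≤ |β| := by
    by_cases hne : c' = a
    · rw [hβ', hβ, hne]
    · rw [hslope hne, abs_zero]; exact abs_nonneg _
  have hDs : ‖D‖ ≤ c.1.sz := by
    have h0 := (hbd 0 ⟨le_rfl, zero_le_one⟩).1
    have h1 := (hbd 1 ⟨zero_le_one, le_rfl⟩).1
    have e0 : A0 + (0:ℝ) • D = A0 := by simp
    have e1 : A0 + (1:ℝ) • D = A1 := by rw [hD]; simp
    rw [← hD, e0] at h0
    rw [← hD, e1] at h1
    rw [hD]
    exact norm_sub_le_sz (Φ.bf.pos _ c.2) h1 h0
  refine ⟨by positivity, ?_, hε.le, hθ.le, hθ1, ?_, ?_, ?_, ?_⟩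
  · -- κ0
    have : 0 ≤ Ll Φ c * ε := mul_nonneg hL0 hε.le
    positivity
  · -- sub
    intro t ht y hy
    refine ⟨t, ht, ?_⟩
    rw [mem_closedBall, dist_eq_norm] at hy
    have e : z + lam • A0 + t • lam • D = z + lam • (A0 + t • (A1 - A0)) := by rw [hD]; module
    rwa [e] at hy
  · -- lip
    intro y hy y' hy'
    have h1 := lab_lip hLa hδ hR (hpsiB y hy) (hpsiB y' hy') c'
    have h2 := H.psi_lip hconv hNr y hy y' hy'
    rw [hlev y hy, hlev y' hy']
    refine h1.trans ((mul_le_mul_of_nonneg_left h2 hL0).trans (le_of_eq ?_))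
    ring
  · -- line
    intro t ht
    have e : z + lam • A0 + t • lam • D = z + lam • (A0 + t • D) := by module
    have e0 : z + lam • A0 = z + lam • (A0 + (0:ℝ) • D) := by simp
    have h0 := hcen 0 ⟨le_rfl, zero_le_one⟩
    change Φ.lev c' _ = Φ.lev c' _ + _
    rw [e, hlev _ (hcen t ht), hcenpsi t ht, e0, hlev _ h0, hcenpsi 0 ⟨le_rfl, zero_le_one⟩,
      zero_smul, add_zero]
    obtain ⟨-, h2, h3⟩ := h.point' FF ht
    by_cases hne : c' = a
    · rw [hβ', hne]
      rw [hS]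
      rw [h3]
      ring
    · rw [hslope hne, zero_mul, add_zero]
      exact h2 c' hne
  · -- aff
    intro t ht w hw τ hτ0 htτ
    have ht01 : t ∈ Icc (0:ℝ) 1 := ⟨hθ.le.trans ht.1, by linarith [ht.2]⟩
    have hts : t + τ ∈ Icc θ (1 - θ) := ⟨by linarith [ht.1], htτ⟩
    have hts01 : t + τ ∈ Icc (0:ℝ) 1 := ⟨by linarith [ht01.1], by linarith⟩
    set y : E3 := z + lam • (A0 + t • D) + w with hy
    have ey : z + lam • A0 + t • lam • D + w = y := by rw [hy]; module
    have ey' : z + lam • A0 + t • lam • D + w + τ • lam • D = y + τ • (lam • D) := by rw [ey]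
    have ey2 : y + τ • (lam • D) = z + lam • (A0 + (t + τ) • D) + w := by rw [hy]; module
    have hyN : y ∈ Tb lam z A0 A1 ε := ⟨t, ht01, by rw [hy, ← hD, add_sub_cancel_left]; exact hw⟩
    have hyN' : y + τ • (lam • D) ∈ Tb lam z A0 A1 ε :=
      ⟨t + τ, hts01, by rw [ey2, ← hD, add_sub_cancel_left]; exact hw⟩
    change |Φ.lev c' _ - Φ.lev c' _ - _| ≤ _
    rw [ey', ey, hlev _ hyN', hlev _ hyN]
    set p := psi (bbox Φ c) C (Φ.B c) y with hp
    have hpS : p ∈ c.1.set := hpsiB y hyN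
    have hpLa : p ∈ La := FF.sub c hpS
    have hpc : S p c = 0 := (FF.sc_eq_zero hpLa).2 hpS
    -- distance from `p` to the segment
    have hpe : ‖p - (A0 + t • D)‖ ≤ 54 * κ0 / c0 ^ 2 * ε := by
      have h2 := H.psi_lip hconv hNr y hyN _ (hcen t ht01)
      rw [hcenpsi t ht01] at h2
      refine h2.trans (mul_le_mul_of_nonneg_left ?_ (by positivity))
      rw [hy, add_sub_cancel_left]; exact hw
    set ρl := Ll Φ c * (54 * κ0 / c0 ^ 2 * ε) with hρl
    have hV : ∀ c'', |S p c'' - S (A0 + t • D) c''| ≤ ρl := fun c'' =>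
      (lab_lip hLa hδ hR hpS (hbd t ht01).1 c'').trans (mul_le_mul_of_nonneg_left hpe hL0)
    have hk2 : 0 ≤ Ll Φ c * (κ0 / (c0 ^ 2 * lam) * ε) := by positivity
    have hρ2 : 2 * ρl ≤ |β| * θ := by
      have e1 : 54 * κ0 / c0 ^ 2 * ε ≤ 54 * (κ0 / (c0 ^ 2 * lam) * ε) := by
        have : κ0 / c0 ^ 2 ≤ κ0 / (c0 ^ 2 * lam) := by
          apply div_le_div_of_nonneg_left (by linarith) (by positivity)
          nlinarith [sq_nonneg c0, pow_pos hc0 2]
        have h3 := mul_le_mul_of_nonneg_right this hε.le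
        calc 54 * κ0 / c0 ^ 2 * ε = 54 * (κ0 / c0 ^ 2 * ε) := by ring
          _ ≤ _ := by linarith
      have e2 := mul_le_mul_of_nonneg_left e1 hL0
      have e3 : Ll Φ c * (200 * κ0 / (c0 ^ 2 * lam) * ε) =
          200 * (Ll Φ c * (κ0 / (c0 ^ 2 * lam) * ε)) := by ring
      rw [e3] at he3
      have e4 : Ll Φ c * (54 * (κ0 / (c0 ^ 2 * lam) * ε)) =
          54 * (Ll Φ c * (κ0 / (c0 ^ 2 * lam) * ε)) := by ring
      rw [e4] at e2
      rw [hρl]
      linarith
    -- margins of the moving coordinates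
    set η := (8 * κ0 + 2) * ε / lam with hη
    have hη0 : 0 ≤ η := by positivity
    have hηL : Ll Φ c * η ≤ |β| * θ / 4 := by
      have e1 : η ≤ 10 * (κ0 / (c0 ^ 2 * lam) * ε) := by
        have h1 : (8 * κ0 + 2) * ε / lam ≤ 10 * κ0 * ε / lam := by
          apply div_le_div_of_nonneg_right _ hl.le
          nlinarith
        have h2 : κ0 / lam ≤ κ0 / (c0 ^ 2 * lam) := by
          apply div_le_div_of_nonneg_left (by linarith) (by positivity)
          have : c0 ^ 2 ≤ 1 := pow_le_one₀ hc0.le hc1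
          nlinarith
        have h3 := mul_le_mul_of_nonneg_right h2 hε.le
        calc η ≤ 10 * κ0 * ε / lam := h1
          _ = 10 * (κ0 / lam * ε) := by ring
          _ ≤ _ := by linarith
      have e2 := mul_le_mul_of_nonneg_left e1 hL0
      have e3 : Ll Φ c * (200 * κ0 / (c0 ^ 2 * lam) * ε) =
          200 * (Ll Φ c * (κ0 / (c0 ^ 2 * lam) * ε)) := by ring
      rw [e3] at he3
      have e4 : Ll Φ c * (10 * (κ0 / (c0 ^ 2 * lam) * ε)) =
          10 * (Ll Φ c * (κ0 / (c0 ^ 2 * lam) * ε)) := by ring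
      rw [e4] at e2
      linarith
    set ζ := lam * η - ε with hζ
    have hζe : lam * η = (8 * κ0 + 2) * ε := by rw [hη]; field_simp
    have hζ0 : 0 ≤ ζ := by rw [hζ, hζe]; nlinarith
    have hmar : ∀ s ∈ Icc θ (1 - θ), ∀ i, D i ≠ 0 →
        C.lo i + ζ ≤ (z + lam • (A0 + s • D) + w) i ∧
          (z + lam • (A0 + s • D) + w) i ≤ C.hi i - ζ := by
      intro s hs i hi
      obtain ⟨m1, m2⟩ := h.coord hLa hδ hR hθ hs (i := i) hi hη0 hηL
      have hwi := norm_le_pi_norm w i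
      rw [Real.norm_eq_abs] at hwi
      have hwi' := abs_le.1 (hwi.trans hw)
      have e : (z + lam • (A0 + s • D) + w) i = z i + lam * (A0 + s • D) i + w i := by
        simp only [Pi.add_apply, Pi.smul_apply, smul_eq_mul]
      rw [e, H.lo, H.hi, hζ]
      have n1 := mul_le_mul_of_nonneg_left m1 hl.le
      have n2 := mul_le_mul_of_nonneg_left m2 hl.le
      constructor <;> nlinarith
    have hmy : ∀ i, (lam • D) i ≠ 0 → C.lo i + ζ ≤ y i ∧ y i ≤ C.hi i - ζ := by
      intro i hi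
      refine hmar t ht i fun h0 => hi ?_
      rw [Pi.smul_apply, h0, smul_zero]
    have hmy' : ∀ i, (lam • D) i ≠ 0 → C.lo i + ζ ≤ (y + τ • (lam • D)) i ∧
        (y + τ • (lam • D)) i ≤ C.hi i - ζ := by
      intro i hi
      rw [ey2]
      refine hmar (t + τ) hts i fun h0 => hi ?_
      rw [Pi.smul_apply, h0, smul_zero]
    -- the label `c'` along the translation of `p`
    have hstep : ∀ σ : ℝ, t + σ ∈ Icc θ (1 - θ) →
        p + σ • D ∈ La ∧ S (p + σ • D) c' = S p c' + σ * β' ∧ p + σ • D ∈ c.1.set := by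
      intro σ hσ
      obtain ⟨m1, m2, m3⟩ := h.near' FF hpLa hpc hθ ht hσ hρ2 hV
      refine ⟨m1, ?_, (FF.sc_eq_zero m1).1 (by rw [m2 c h.nea]; exact hpc)⟩
      by_cases hne : c' = a
      · rw [hβ', hne]; exact m3
      · rw [hslope hne, mul_zero, add_zero]; exact m2 c' hne
    have hqS := H.mem_S (hbd t ht01).1
    have hqI := H.not_mem_I (hbd t ht01).2
    have hyq : ‖y - (z + lam • (A0 + t • (A1 - A0)))‖ ≤ ε := by
      rw [hy, ← hD, add_sub_cancel_left]; exact hw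
    by_cases hyC : y ∈ C.S
    · -- inside
      set r := tt C (Φ.B c) y with hr
      have hr1 : r ≤ 1 := (tt_le_one_iff H.inner.nest _).2 hyC
      have hr2 : 1 - 8 * κ0 * ε / (lam * c.1.sz) ≤ r := H.ttC_ge hqS hqI hε.le hyq
      have hr3 : 1 / 2 ≤ r := (hNr hyN).2
      have htt : tt C (Φ.B c) (y + τ • (lam • D)) = r := by
        refine tt_const (r' := 1 - ζ / (lam * c.1.sz)) (fun i hi => ?_) ?_
        · have hW1 : C.hi i - (Φ.B c).hi i ≤ lam * c.1.sz := by
            refine (H.inner.gapU i).1.trans ?_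
            rw [H.CW]; exact mul_le_mul_of_nonneg_left (H.side_le i) hl.le
          have hW2 : (Φ.B c).lo i - C.lo i ≤ lam * c.1.sz := by
            refine (H.inner.gapU i).2.trans ?_
            rw [H.CW]; exact mul_le_mul_of_nonneg_left (H.side_le i) hl.le
          exact ⟨gg_le_of H.inner.nest hζ0 (by positivity) hW1 hW2 (hmy i hi).1 (hmy i hi).2,
            gg_le_of H.inner.nest hζ0 (by positivity) hW1 hW2 (hmy' i hi).1 (hmy' i hi).2⟩
        · refine lt_of_lt_of_le ?_ hr2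
          have : 8 * κ0 * ε / (lam * c.1.sz) < ζ / (lam * c.1.sz) := by
            apply div_lt_div_of_pos_right _ (by positivity)
            rw [hζ, hζe]; linarith
          linarith
      have hyC' : y + τ • (lam • D) ∈ C.S := (tt_le_one_iff H.inner.nest _).1 (by rw [htt]; exact hr1)
      have hoff := H.off (hNr hyN)
      have hoff' := H.off (hNr hyN')
      -- formula
      have hform : ∀ x ∈ C.S, Off C (Φ.B c) x → ∀ i,
          psi (bbox Φ c) C (Φ.B c) x i = (psh C (Φ.B c) x i - z i) / lam := by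
        intro x hx hxo i
        rw [psi_in hx]
        have m1 := psh_mem H.inner.nest hxo.1 hxo.2
        have m2 := psh_not_mem_I H.inner.nest hxo.1 hxo.2
        rw [H.psh_hom m1 m2]
      set μ : Fin 3 → ℝ := fun i => C.W i / ww C (Φ.B c) i r with hμ
      have hmov : psi (bbox Φ c) C (Φ.B c) (y + τ • (lam • D)) = p + τ • fun i => μ i * D i := by
        funext i
        rw [hform _ hyC' hoff', psh_move htt i, Pi.add_apply, Pi.smul_apply, smul_eq_mul, hp,
          hform _ hyC hoff, Pi.smul_apply, smul_eq_mul]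
        have hl' := hl.ne'
        field_simp
        ring
      have hμ1 : ∀ i, |μ i - 1| ≤ 16 * κ0 * ε / (lam * c.1.sz) := by
        intro i
        have hW := H.inner.W0 i
        have hww := ww_pos H.inner.nest i hoff.1 hoff.2
        rw [← hr] at hww
        have h1 : r * C.W i ≤ ww C (Φ.B c) i r := H.inner.W_le_ww i (by linarith) hr1
        have h2 : ww C (Φ.B c) i r ≤ C.W i := by
          rw [ww_eq]
          have : (Φ.B c).W i ≤ C.W i := by
            have := H.inner.nest.g1 i; have := H.inner.nest.g2 i; unfold Box.W; linarith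
          nlinarith
        have e : μ i - 1 = (C.W i - ww C (Φ.B c) i r) / ww C (Φ.B c) i r := by
          rw [hμ]; field_simp
        rw [e, abs_of_nonneg (div_nonneg (by linarith) hww.le), div_le_iff₀ hww]
        have h3 : 1 - r ≤ 8 * κ0 * ε / (lam * c.1.sz) := by linarith
        have h4 : C.W i - ww C (Φ.B c) i r ≤ (1 - r) * C.W i := by linarith
        have h5 : C.W i ≤ 2 * ww C (Φ.B c) i r := by nlinarith
        have h6 : (1 - r) * C.W i ≤ (8 * κ0 * ε / (lam * c.1.sz)) * (2 * ww C (Φ.B c) i r) :=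
          mul_le_mul h3 h5 hW.le (by positivity)
        calc _ ≤ _ := h4.trans h6
          _ = _ := by ring
      obtain ⟨q1, q2, q3⟩ := hstep τ hts
      have hdif : ‖(p + τ • fun i => μ i * D i) - (p + τ • D)‖ ≤
          τ * (16 * κ0 * ε / (lam * c.1.sz) * c.1.sz) := by
        have e : (p + τ • fun i => μ i * D i) - (p + τ • D) = τ • fun i => (μ i - 1) * D i := by
          funext i
          simp only [Pi.sub_apply, Pi.add_apply, Pi.smul_apply, smul_eq_mul]
          ring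
        rw [e, norm_smul, Real.norm_of_nonneg hτ0]
        apply mul_le_mul_of_nonneg_left _ hτ0
        refine (pi_norm_le_iff_of_nonneg (by positivity)).2 fun i => ?_
        rw [norm_mul, Real.norm_eq_abs]
        exact mul_le_mul (hμ1 i) ((norm_le_pi_norm D i).trans hDs) (norm_nonneg _) (by positivity)
      have hlab := lab_lip hLa hδ hR (hmov ▸ hpsiB _ hyN') q3 c'
      rw [hmov]
      have e1 : S (p + τ • fun i => μ i * D i) c' - S p c' - β' * τ =
          S (p + τ • fun i => μ i * D i) c' - S (p + τ • D) c' := by rw [q2]; ring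
      rw [e1]
      refine hlab.trans ((mul_le_mul_of_nonneg_left hdif hL0).trans ?_)
      have e2 : Ll Φ c * (τ * (16 * κ0 * ε / (lam * c.1.sz) * c.1.sz)) =
          (16 * κ0 * (Ll Φ c * ε) / lam) * τ := by
        have := hs.ne'
        field_simp
      rw [e2]
      apply mul_le_mul_of_nonneg_right _ hτ0
      have : 0 ≤ |β| * (ε / (c0 * ρ * lam)) := by positivity
      linarith
    · -- outside
      have ht0 : 0 < tt (bbox Φ c) C y := not_le.1 (mt (tt_le_zero_iff H.shape.nest _).1 hyC)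
      set t' := tt (bbox Φ c) C y with ht'
      have ht1 : t' ≤ ε / (c0 * ρ) := H.ttQ_le hqS hε.le hyq
      have htt : tt (bbox Φ c) C (y + τ • (lam • D)) = t' := by
        refine tt_const (r' := 0) (fun i hi => ?_) ht0
        have m1 := hmy i hi
        have m2 := hmy' i hi
        rw [gg_le_iff H.shape.nest, gg_le_iff H.shape.nest, cl_zero, ch_zero]
        exact ⟨⟨by linarith [m1.1], by linarith [m1.2]⟩, ⟨by linarith [m2.1], by linarith [m2.2]⟩⟩
      have hyI : y ∉ C.I := fun hh => hyC fun i => ⟨(hh i).1.le, (hh i).2.le⟩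
      have hyC' : y + τ • (lam • D) ∉ C.S := fun hh => by
        have := (tt_le_zero_iff H.shape.nest _).2 hh
        rw [htt] at this
        linarith
      have hyI' : y + τ • (lam • D) ∉ C.I := fun hh => hyC' fun i => ⟨(hh i).1.le, (hh i).2.le⟩
      set μ := lam / (lam + t' * (1 - lam)) with hμ
      have hden : 0 < lam + t' * (1 - lam) := by nlinarith
      have hμ0 : 0 ≤ μ := by positivity
      have hμ1 : μ ≤ 1 := by
        rw [hμ, div_le_one hden]; nlinarith
      have hmov : psi (bbox Φ c) C (Φ.B c) (y + τ • (lam • D)) = p + (τ * μ) • D := by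
        rw [hp, psi_out H.inner.nest hyI, psi_out H.inner.nest hyI']
        funext i
        rw [psh_move htt i, Pi.add_apply, Pi.smul_apply, smul_eq_mul, Pi.smul_apply, smul_eq_mul,
          ← ht', ww_eq, H.CW, H.QW]
        have hsi : c.1.side i ≠ 0 := (Bx.side_pos (Φ.bf.pos _ c.2) i).ne'
        have e : c.1.side i / (lam * c.1.side i + t' * (c.1.side i - lam * c.1.side i)) =
            1 / (lam + t' * (1 - lam)) := by
          rw [show lam * c.1.side i + t' * (c.1.side i - lam * c.1.side i) =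
            (lam + t' * (1 - lam)) * c.1.side i by ring]
          rw [div_mul_cancel_right₀ hsi, one_div]
        rw [e, hμ]
        ring
      obtain ⟨q1, q2, q3⟩ := hstep (τ * μ) (by
        refine ⟨?_, ?_⟩
        · have : 0 ≤ τ * μ := mul_nonneg hτ0 hμ0
          linarith [ht.1]
        · have : τ * μ ≤ τ := by nlinarith
          linarith)
      rw [hmov, q2]
      have e1 : S p c' + τ * μ * β' - S p c' - β' * τ = -(β' * (1 - μ) * τ) := by ring
      rw [e1, abs_neg, abs_mul, abs_mul, abs_of_nonneg hτ0, abs_of_nonneg (sub_nonneg.2 hμ1)]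
      apply mul_le_mul_of_nonneg_right _ hτ0
      have h1 : 1 - μ ≤ ε / (c0 * ρ * lam) := by
        have e2 : 1 - μ = t' * (1 - lam) / (lam + t' * (1 - lam)) := by
          rw [hμ]; field_simp; ring
        rw [e2]
        calc t' * (1 - lam) / (lam + t' * (1 - lam)) ≤ t' / lam := by
              rw [div_le_div_iff₀ hden hl]
              nlinarith [mul_nonneg ht0.le (sub_nonneg.2 hl1), mul_nonneg ht0.le ht0.le,
                mul_nonneg (mul_nonneg ht0.le ht0.le) (sub_nonneg.2 hl1), mul_pos ht0 hl]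
          _ ≤ ε / (c0 * ρ) / lam := div_le_div_of_nonneg_right ht1 hl.le
          _ = ε / (c0 * ρ * lam) := by rw [div_div]
      have h2 : |β'| * (1 - μ) ≤ |β| * (ε / (c0 * ρ * lam)) :=
        mul_le_mul hβ'le h1 (sub_nonneg.2 hμ1) (abs_nonneg _)
      have h3 : 0 ≤ 16 * κ0 * (Ll Φ c * ε) / lam := by positivity
      linarith

end HCore

end Crest.Agent.R096.Core_124
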