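import Crest.Agent.R096.Core6_124
import Crest.Agent.R096.Mbf_337

/-!
# Row 96 (S0127), helper124.  EXACT-CORE words, part 7: the clauses `word` and `sign` of
`Mbf_337.Words` for one exact core.
-/

set_option autoImplicit false
set_option linter.unusedSectionVars false
set_option linter.style.haveILetI false
set_option linter.unusedVariables false
open Set Filter Topology MeasureTheory Metric

namespace Crest.Agent.R096.Core_124

open Crest.Agent.R096.Bsp_628 Crest.Agent.R096.Brk1_582 Crest.Agent.R096.Brk2_582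
open Crest.Agent.R096.Brk3_582 Crest.Agent.R096.Brk5_582
open Crest.Agent.R96.Push_899 Crest.Agent.R096.SkC1_961
open Crest.Agent.R096.Mbf_337 (sb)

section seg

variable {E : Type*} [AddCommGroup E] [Module ℝ E]

theorem mem_seg_iff {a b x : E} : x ∈ segment ℝ a b ↔ ∃ t ∈ Icc (0:ℝ) 1, x = a + t • (b - a) := by
  rw [segment_eq_image']
  constructor
  · rintro ⟨t, ht, rfl⟩; exact ⟨t, ht, rfl⟩
  · rintro ⟨t, ht, rfl⟩; exact ⟨t, ht, rfl⟩

/-- the ends of a segment are determined up to order -/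
theorem seg_ends {a b y0 y1 : E} (hne : y0 ≠ y1) (h : segment ℝ a b = segment ℝ y0 y1) :
    (a = y0 ∧ b = y1) ∨ (a = y1 ∧ b = y0) := by
  have hv : y1 - y0 ≠ 0 := sub_ne_zero.2 hne.symm
  obtain ⟨s, hs, ea⟩ := mem_seg_iff.1 (h ▸ left_mem_segment ℝ a b)
  obtain ⟨t, ht, eb⟩ := mem_seg_iff.1 (h ▸ right_mem_segment ℝ a b)
  obtain ⟨r, hr, e0⟩ := mem_seg_iff.1 (h.symm ▸ left_mem_segment ℝ y0 y1)
  obtain ⟨r', hr', e1⟩ := mem_seg_iff.1 (h.symm ▸ right_mem_segment ℝ y0 y1)
  have h0 : s + r * (t - s) = 0 := by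
    have h2 : (s + r * (t - s)) • (y1 - y0) = 0 := by
      have : y0 = y0 + (s + r * (t - s)) • (y1 - y0) := by
        conv_lhs => rw [e0, ea, eb]
        module
      exact left_eq_add.1 this
    exact (smul_eq_zero.1 h2).resolve_right hv
  have h1 : s + r' * (t - s) = 1 := by
    have h2 : (s + r' * (t - s) - 1) • (y1 - y0) = 0 := by
      have : y1 = y0 + (s + r' * (t - s)) • (y1 - y0) := by
        conv_lhs => rw [e1, ea, eb]
        module
      have e : (s + r' * (t - s) - 1) • (y1 - y0) =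
        (y0 + (s + r' * (t - s)) • (y1 - y0)) - y1 := by module
      rw [e, ← this, sub_self]
    have := (smul_eq_zero.1 h2).resolve_right hv
    linarith
  have a1 : 0 ≤ (1 - r) * s := mul_nonneg (by linarith [hr.2]) hs.1
  have a2 : 0 ≤ r * t := mul_nonneg hr.1 ht.1
  have a3 : 0 ≤ (1 - r') * (1 - s) := mul_nonneg (by linarith [hr'.2]) (by linarith [hs.2])
  have a4 : 0 ≤ r' * (1 - t) := mul_nonneg hr'.1 (by linarith [ht.2])
  have b1 : (1 - r) * s = 0 := by nlinarith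
  have b2 : r * t = 0 := by nlinarith
  have b3 : (1 - r') * (1 - s) = 0 := by nlinarith
  have b4 : r' * (1 - t) = 0 := by nlinarith
  rcases mul_eq_zero.1 b1 with c1 | c1
  · have hr1 : r = 1 := by linarith
    rw [hr1, one_mul] at b2
    rw [b2, sub_zero, mul_one] at b4
    rw [b4, sub_zero, one_mul] at b3
    right
    refine ⟨?_, ?_⟩
    · rw [ea, show s = 1 by linarith]; module
    · rw [eb, b2]; module
  · rw [c1, sub_zero, mul_one] at b3
    have hr1 : r' = 1 := by linarith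
    rw [hr1, one_mul] at b4
    left
    refine ⟨?_, ?_⟩
    · rw [ea, c1]; module
    · rw [eb, show t = 1 by linarith]; module

end seg

/-! ### from `ExactZ` to the word of one edge -/

/-- the word of the level `t` of `ℓ` (= level function of the map) along the edge `[y0,y1]` with exact
end values `s0`, `s1` -/
def Wd (ℓ : E3 → ℝ) (s0 s1 t : ℝ) (y0 y1 : E3) : Prop :=
  s0 ≠ t ∧ s1 ≠ t ∧ (s0 < t ↔ ℓ y0 < t) ∧ (s1 < t ↔ ℓ y1 < t) ∧
  ((s0 < t ∧ t < s1) ∨ (s1 < t ∧ t < s0) → ∃! y, y ∈ segment ℝ y0 y1 ∧ ℓ y = t) ∧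
  (¬ ((s0 < t ∧ t < s1) ∨ (s1 < t ∧ t < s0)) → ∀ y ∈ segment ℝ y0 y1, ℓ y ≠ t)

theorem Wd.symm {ℓ : E3 → ℝ} {s0 s1 t : ℝ} {y0 y1 : E3} (h : Wd ℓ s0 s1 t y0 y1) :
    Wd ℓ s1 s0 t y1 y0 := by
  obtain ⟨h1, h2, h3, h4, h5, h6⟩ := h
  refine ⟨h2, h1, h4, h3, fun hb => ?_, fun hb => ?_⟩
  · rw [segment_symm]; exact h5 hb.symm
  · rw [segment_symm]; exact h6 fun hb' => hb hb'.symm

theorem wd_of_exactZ {ℓ : E3 → ℝ} {s0 s1 t : ℝ} {y0 y1 : E3} (hne : y0 ≠ y1)
    (h : ExactZ (fun τ => ℓ (y0 + τ • (y1 - y0))) s0 (s1 - s0) t) (h0 : s0 ≠ t) (h1 : s1 ≠ t) :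
    Wd ℓ s0 s1 t y0 y1 := by
  have e0 : y0 + (0:ℝ) • (y1 - y0) = y0 := by module
  have e1 : y0 + (1:ℝ) • (y1 - y0) = y1 := by module
  have m0 : (0:ℝ) ∈ Icc (0:ℝ) 1 := ⟨le_rfl, zero_le_one⟩
  have m1 : (1:ℝ) ∈ Icc (0:ℝ) 1 := ⟨zero_le_one, le_rfl⟩
  have key : (s0 < t ↔ ℓ y0 < t) ∧ (s1 < t ↔ ℓ y1 < t) := by
    rcases le_total 0 (s1 - s0) with hb | hb
    · obtain ⟨g1, g2, g3⟩ := h.1 hb
      rcases lt_or_gt_of_ne h0 with ha | ha
      · rcases lt_or_gt_of_ne h1 with hc | hc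
        · have g0' := g3 (by linarith) 0 m0
          have g1' := g3 (by linarith) 1 m1
          simp only [e0] at g0'
          simp only [e1] at g1'
          exact ⟨⟨fun _ => g0', fun _ => ha⟩, ⟨fun _ => g1', fun _ => hc⟩⟩
        · obtain ⟨τ, hτ, -, hlo, hup⟩ := g1 ha (by linarith)
          have g0' := hlo 0 m0 hτ.1
          have g1' := hup 1 m1 hτ.2
          simp only [e0] at g0'
          simp only [e1] at g1'
          exact ⟨⟨fun _ => g0', fun _ => ha⟩, ⟨fun hh => absurd hh (not_lt.2 hc.le), fun hh => absurd hh (not_lt.2 g1'.le)⟩⟩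
      · have g0' := g2 ha.le 0 m0
        have g1' := g2 ha.le 1 m1
        simp only [e0] at g0'
        simp only [e1] at g1'
        refine ⟨⟨fun hh => absurd hh (not_lt.2 ha.le), fun hh => absurd hh (not_lt.2 g0'.le)⟩,
          ⟨fun hh => absurd hh (by linarith), fun hh => absurd hh (not_lt.2 g1'.le)⟩⟩
    · obtain ⟨g1, g2, g3⟩ := h.2 hb
      rcases lt_or_gt_of_ne h0 with ha | ha
      · have g0' := g2 (by linarith) 0 m0
        have g1' := g2 (by linarith) 1 m1
        simp only [e0] at g0'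
        simp only [e1] at g1'
        exact ⟨⟨fun _ => by linarith, fun _ => ha⟩, ⟨fun _ => by linarith, fun _ => by linarith⟩⟩
      · rcases lt_or_gt_of_ne h1 with hc | hc
        · obtain ⟨τ, hτ, -, hlo, hup⟩ := g1 (by linarith) (by linarith)
          have g0' := hlo 0 m0 hτ.1
          have g1' := hup 1 m1 hτ.2
          simp only [e0] at g0'
          simp only [e1] at g1'
          exact ⟨⟨fun hh => absurd hh (not_lt.2 ha.le), fun hh => by linarith⟩,
            ⟨fun _ => by linarith, fun _ => hc⟩⟩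
        · have g0' := g3 (by linarith) 0 m0
          have g1' := g3 (by linarith) 1 m1
          simp only [e0] at g0'
          simp only [e1] at g1'
          exact ⟨⟨fun hh => absurd hh (not_lt.2 ha.le), fun hh => by linarith⟩,
            ⟨fun hh => absurd hh (not_lt.2 hc.le), fun hh => by linarith⟩⟩
  refine ⟨h0, h1, key.1, key.2, fun hb => ?_, fun hb => ?_⟩
  · obtain ⟨τ, ⟨hτ, hv⟩, hu⟩ := h.cross (by rcases hb with hb | hb
                                            · exact Or.inl ⟨hb.1, by linarith [hb.2]⟩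
                                            · exact Or.inr ⟨by linarith [hb.1], hb.2⟩)
    refine ⟨y0 + τ • (y1 - y0), ⟨mem_seg_iff.2 ⟨τ, hτ, rfl⟩, hv⟩, ?_⟩
    rintro y ⟨hy, hyt⟩
    obtain ⟨τ', hτ', rfl⟩ := mem_seg_iff.1 hy
    rw [hu τ' ⟨hτ', hyt⟩]
  · intro y hy hyt
    obtain ⟨τ', hτ', rfl⟩ := mem_seg_iff.1 hy
    refine h.no_cross (fun hh => hb ?_) τ' hτ' hyt
    rcases hh with hh | hh
    · exact Or.inl ⟨hh.1, by linarith [hh.2]⟩
    · exact Or.inr ⟨by linarith [hh.1], hh.2⟩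

end Crest.Agent.R096.Core_124
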