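import Crest.Agent.R096.Fil3_313

/-!
# Row 96 (S0127), leaf [COVER] (753 #11141), helper58: a homeomorphism which is `r`-close to an affine
map on a cube covers the smaller parallelepiped and has no intruders there, `r ≤ κ τ s`
-/

set_option autoImplicit false

open Set Metric Filter Topology

namespace Crest.Agent.R096.Cov_58

open Crest.AnalysisR.VecCalc3 Crest.AnalysisR.Sobolev
open Crest.Agent.R096.Fil_313
open Crest.Agent.R96.Intr_538 Crest.Agent.R96.Coarse_538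

variable {Om La : Set R3} {f : R3 → R3} {κ τ s r : ℝ} {z b : R3} {L : R3 →L[ℝ] R3}

/-- covering of a slightly smaller parallelepiped -/
theorem cover_q (hf : IsHomeomorphOn f Om La) (hLa : IsOpen La) (hκ : 0 < κ)
    (low : ∀ v, κ * ‖v‖ ≤ ‖L v‖) (hs : 0 < s) (hτ : 0 < τ) (hτ4 : 4 * τ ≤ 1)
    (hsub : cel Cb z ((1 - τ) * s) ⊆ Om)
    (hc : ∀ x ∈ cel Cb z ((1 - τ) * s), ‖f x - (b + L (x - z))‖ ≤ r) (hr : r ≤ κ * τ * s)
    {q : ℝ} (hq : τ * s ≤ q) (hq' : q < (1 - 2 * τ) * s) :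
    par Cb L b q ⊆ f '' interior (cel Cb z ((1 - τ) * s)) := by
  obtain ⟨_, _, _, _, _, hcont, _⟩ := id hf
  have hR : 0 < (1 - τ) * s := mul_pos (by linarith) hs
  have hq0 : 0 < q := (mul_pos hτ hs).trans_le hq
  have hK : IsCompact (cel Cb z ((1 - τ) * s)) := isCompact_cel ref_Cb.cpt _ _
  have hopen : IsOpen (f '' interior (cel Cb z ((1 - τ) * s))) :=
    Osc_802.isOpen_image hf hLa isOpen_interior (interior_subset.trans hsub)
  have hdis : ∀ x ∈ cel Cb z ((1 - τ) * s), x ∉ interior (cel Cb z ((1 - τ) * s)) →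
      f x ∉ par Cb L b q := by
    intro x hx hxi hfx
    obtain ⟨i, hi⟩ := not_mem_interior_cel hR hxi
    have h1 := far_of_bd hκ low hq0 hi hfx
    have h2 := hc x hx
    rw [norm_sub_rev] at h2
    have h3 : κ * ((1 - τ) * s - q) ≤ κ * (τ * s) := by
      calc κ * ((1 - τ) * s - q) ≤ r := h1.trans h2
        _ ≤ κ * (τ * s) := by rw [← mul_assoc]; exact hr
    have h4 := le_of_mul_le_mul_left h3 hκ
    linarith
  have hz : z ∈ interior (cel Cb z ((1 - τ) * s)) := by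
    by_contra hcon
    obtain ⟨i, hi⟩ := not_mem_interior_cel hR hcon
    simp only [sub_self, abs_zero] at hi
    linarith
  refine Core_124.covers hK (hcont.mono hsub) hopen (convex_par L b _).isPreconnected hdis
    ⟨f z, ?_, mem_image_of_mem f hz⟩
  refine mem_par_of_near hκ low hq0 ?_
  have h1 := hc z (interior_subset hz)
  rw [sub_self, map_zero, add_zero] at h1
  calc ‖f z - b‖ ≤ κ * τ * s := h1.trans hr
    _ = κ * (τ * s) := by ring
    _ ≤ κ * q := mul_le_mul_of_nonneg_left hq hκ.le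

/-- **[COVER]** -/
theorem cover (hf : IsHomeomorphOn f Om La) (hLa : IsOpen La) (hκ : 0 < κ)
    (low : ∀ v, κ * ‖v‖ ≤ ‖L v‖) (hs : 0 < s) (hτ : 0 < τ) (hτ4 : 4 * τ ≤ 1)
    (hsub : cel Cb z ((1 - τ) * s) ⊆ Om)
    (hc : ∀ x ∈ cel Cb z ((1 - τ) * s), ‖f x - (b + L (x - z))‖ ≤ r) (hr : r ≤ κ * τ * s) :
    par Cb L b ((1 - 2 * τ) * s) ⊆ f '' cel Cb z ((1 - τ) * s) ∧
      ∀ x ∈ Om, f x ∈ par Cb L b ((1 - 2 * τ) * s) → x ∈ cel Cb z ((1 - τ) * s) := by
  have hf0 := hf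
  obtain ⟨fi, _, _, hgf, _, hcont, _⟩ := hf0
  have hK : IsCompact (cel Cb z ((1 - τ) * s)) := isCompact_cel ref_Cb.cpt _ _
  have hcl : IsClosed (f '' cel Cb z ((1 - τ) * s)) :=
    (hK.image_of_continuousOn (hcont.mono hsub)).isClosed
  have hτs : 0 < τ * s := mul_pos hτ hs
  have h12 : 0 < (1 - 2 * τ) * s := mul_pos (by linarith) hs
  have h2 : 2 * (τ * s) ≤ (1 - 2 * τ) * s := by nlinarith
  have key : par Cb L b ((1 - 2 * τ) * s) ⊆ f '' cel Cb z ((1 - τ) * s) := by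
    rintro _ ⟨u, hu, rfl⟩
    let S : Set ℝ := {θ : ℝ | b + (θ * ((1 - 2 * τ) * s)) • L u ∈ f '' cel Cb z ((1 - τ) * s)}
    have hS : IsClosed S := hcl.preimage (f := fun θ : ℝ => b + (θ * ((1 - 2 * τ) * s)) • L u)
      (by fun_prop)
    have hsubS : Ico (1/2 : ℝ) 1 ⊆ S := by
      intro θ hθ
      have e1 : τ * s ≤ θ * ((1 - 2 * τ) * s) := by
        have := mul_le_mul_of_nonneg_right hθ.1 h12.le
        linarith
      have e2 : θ * ((1 - 2 * τ) * s) < (1 - 2 * τ) * s := by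
        have := mul_lt_mul_of_pos_right hθ.2 h12
        linarith
      exact image_mono interior_subset
        (cover_q hf hLa hκ low hs hτ hτ4 hsub hc hr e1 e2 ⟨u, hu, rfl⟩)
    have h1 : (1 : ℝ) ∈ closure (Ico (1/2 : ℝ) 1) := by
      rw [closure_Ico (by norm_num)]
      exact ⟨by norm_num, le_rfl⟩
    have h3 : (1 : ℝ) ∈ S := closure_minimal hsubS hS h1
    have h4 : b + ((1:ℝ) * ((1 - 2 * τ) * s)) • L u ∈ f '' cel Cb z ((1 - τ) * s) := h3
    rw [one_mul] at h4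
    exact h4
  refine ⟨key, fun x hx hfx => ?_⟩
  obtain ⟨w, hw, hwx⟩ := key hfx
  have : w = x := by rw [← hgf w (hsub hw), hwx, hgf x hx]
  rw [← this]
  exact hw

end Crest.Agent.R096.Cov_58
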