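import Crest.Agent.R096.Cp9_298

/-!
# R096 / COPY, part 10 (helper298): the limit of the weighted sequence, `wseq`
-/

set_option autoImplicit false

namespace Crest.Agent.R096.Cp_298
open Crest.Agent.R096.St_147 Crest.Agent.R096.Seq_213 Crest.Agent.R096.Seq_213.GSt
open scoped ENNReal

variable {ι Φ W J C K : Type} {M : MeshC ι Φ W} {fam : J → C}

/-! ### renaming with a retraction -/

section retract
variable {J1 : Type} {fam1 : J1 → C} {ν : J1 → J} {hf : ∀ j', fam (ν j') = fam1 j'}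

/-- the renamed state embeds back -/
noncomputable def retrE (d : J → J1) (hd : ∀ j, d (ν j) = j) (hfd : ∀ y, fam1 (d y) = fam y)
    (s : GSt M fam1) (Q : Quads ι C K) (k : K) (i : Q.Nm fam1 k) (i' : Q.Nm fam k) :
    Emb ((push ν hf s).res Q k i') (s.res Q k i) where
  pt := id
  nu := fun y => ⟨d y.1, by rw [hfd]; exact y.2⟩
  mem := by
    intro w hw
    obtain ⟨h1, h2⟩ := mem_res.1 hw
    refine mem_res.2 ⟨h1, ?_⟩
    rw [← hf]; exact h2
  on := fun _ _ => Iff.rfl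
  inj := fun _ _ h => h
  mu := fun _ => rfl
  lab := by
    intro w hw
    obtain ⟨h1, h2⟩ := mem_res.1 hw
    have h4 : Q.In k (fam1 (s.lab w)) := by rw [← hf]; exact h2
    show (s.res Q k i).lab w = _
    rw [res_lab h4, res_lab h2]
    exact Subtype.ext (hd _).symm
  col_eq := by
    intro y
    rw [Q.cl_iff]
    show fam1 (d y.1) = _
    rw [hfd]
    exact (Q.cl_iff fam k y _).1 rfl
  surj := by
    rintro x hx _
    obtain ⟨h1, h2⟩ := mem_res.1 hx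
    refine ⟨x, mem_res.2 ⟨h1, ?_⟩, rfl⟩
    show Q.In k (fam (ν (s.lab x)))
    rw [hf]; exact h2
  lt := fun _ _ h => h

theorem retr_noClosed (d : J → J1) (hd : ∀ j, d (ν j) = j) (hfd : ∀ y, fam1 (d y) = fam y)
    {s : GSt M fam1} {Q : Quads ι C K} {k : K} {i : Q.Nm fam1 k}
    {i' : Q.Nm fam k} {Act : Set ι} (h : NoClosed ((push ν hf s).res Q k i') Act) :
    NoClosed (s.res Q k i) Act := by
  refine noClosed_of_emb (fun z' => ?_) h
  refine ⟨retrE (hf := hf) d hd hfd s Q k i i',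
    (retrE (hf := hf) d hd hfd s Q k i i').T_surj (fun x => ?_)⟩
  obtain ⟨h1, h2⟩ := mem_res.1 (z'.at_ x).1
  have h2' : Q.In k (fam (ν (s.lab (z'.e x)))) := by
    rw [hf]; exact h2
  refine ⟨⟨ν (s.lab (z'.e x)), h2'⟩, ?_⟩
  rw [res_lab h2]
  exact Subtype.ext (hd _).symm

end retract

/-- global name -/
def nuF {R : C → ℕ} (y : Nm' fam R) : J × ℕ := (y.1, (y.2 : ℕ))

theorem nuF_inj {R : C → ℕ} : Function.Injective (nuF : Nm' fam R → J × ℕ) := by
  intro x y h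
  exact nm_ext (congrArg Prod.fst h) (congrArg Prod.snd h)

/-- retraction of the global names -/
def retr (fam : J → C) {R : C → ℕ} (hR : ∀ c, 0 < R c) (y : J × ℕ) : Nm' fam R :=
  ⟨y.1, if h : y.2 < R (fam y.1) then ⟨y.2, h⟩ else ⟨0, hR _⟩⟩

theorem retr_nuF {R : C → ℕ} (hR : ∀ c, 0 < R c) (y : Nm' fam R) : retr fam hR (nuF y) = y := by
  refine nm_ext rfl ?_
  show (((if h : (y.2 : ℕ) < R (fam y.1) then ⟨y.2, h⟩ else ⟨0, hR _⟩ : Fin (R (fam y.1)))) : ℕ)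
    = y.2
  rw [dif_pos y.2.2]

theorem nuF_retr {R : C → ℕ} (hR : ∀ c, 0 < R c) {y : J × ℕ} (h : y.2 < R (fam y.1)) :
    nuF (retr fam hR y) = y := by
  refine Prod.ext rfl ?_
  show (((if h : y.2 < R (fam y.1) then ⟨y.2, h⟩ else ⟨0, hR _⟩ : Fin (R (fam y.1)))) : ℕ) = y.2
  rw [dif_pos h]

namespace WS

variable {O : Ori M} {Q : Quads ι C K} {Rel : W → W → Prop} {s₀ : GSt M fam}
  {far₀ : J → Set W} {σ₀ : W → ZMod 2} {e₀ e : C → ℕ} {D : Set K}

theorem sN_H1 (A : WS O Q Rel s₀ far₀ σ₀ e₀ e D) (j : A.J1) : A.sN.H1 (A.nu j) ↔ A.s.H1 j :=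
  push_H1 (fam := famN fam) (ν := A.nu) (hf := A.hp) A.nu_inj

theorem sN_Conn (A : WS O Q Rel s₀ far₀ σ₀ e₀ e D) (j : A.J1) :
    A.sN.Conn (A.nu j) ↔ A.s.Conn j :=
  push_Conn (fam := famN fam) (ν := A.nu) (hf := A.hp) A.nu_inj

theorem sN_OK (A : WS O Q Rel s₀ far₀ σ₀ e₀ e D) {F : Φ} {w : W} :
    A.sN.OK Q F w ↔ A.s.OK Q F w :=
  push_OK (fam := famN fam) (ν := A.nu) (hf := A.hp)

end WS

/-- the state with global names -/
def psh {R : C → ℕ} (s : GSt M (fam' fam R)) : GSt M (WS.famN fam) :=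
  push (fam := WS.famN fam) nuF (fun _ => rfl) s

theorem psh_H1 {R : C → ℕ} {s : GSt M (fam' fam R)} {y : Nm' fam R} :
    (psh s).H1 (nuF y) ↔ s.H1 y :=
  push_H1 (fam := WS.famN fam) (ν := nuF) (hf := fun _ => rfl) nuF_inj

theorem psh_Conn {R : C → ℕ} {s : GSt M (fam' fam R)} {y : Nm' fam R} :
    (psh s).Conn (nuF y) ↔ s.Conn y :=
  push_Conn (fam := WS.famN fam) (ν := nuF) (hf := fun _ => rfl) nuF_inj

theorem psh_OK {R : C → ℕ} {s : GSt M (fam' fam R)} {Q : Quads ι C K} {F : Φ} {w : W} :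
    (psh s).OK Q F w ↔ s.OK Q F w :=
  push_OK (fam := WS.famN fam) (ν := nuF) (hf := fun _ => rfl)

section lim

variable {O : Ori M} {Q : Quads ι C K} {Rel : W → W → Prop} {s₀ : GSt M fam}
  {far₀ : J → Set W} {σ₀ : W → ZMod 2} {κ : C → ℕ}

theorem un_le (T : (m : ℕ) → WS O Q Rel s₀ far₀ σ₀ κ (ex Q κ m) {k | dlt Q κ k < m})
    (hU : ∀ m c, (∀ k, Q.In k c → dlt Q κ k ≠ m) → WS.Un c (T m) (T (m + 1)))
    {N : C → ℕ} (hN : ∀ c k, Q.In k c → dlt Q κ k < N c) {c : C} {n m : ℕ}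
    (h1 : N c ≤ n) (h2 : n ≤ m) : WS.Un c (T n) (T m) := by
  induction m, h2 using Nat.le_induction with
  | base => exact WS.Un.refl _ _
  | succ m hm ih =>
    refine ih.trans (hU m c fun k hk => ?_)
    have := hN c k hk
    omega

/-- bound for a family and its partners -/
theorem exists_bound (Q : Quads ι C K) (N : C → ℕ) (c : C) :
    ∃ n, N c ≤ n ∧ ∀ k, Q.In k c → ∀ b, N (Q.pr k b) ≤ n := by
  obtain ⟨m, hm⟩ := ((Q.finK c).image
    (fun k => max (N (Q.pr k true)) (N (Q.pr k false)))).bddAbove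
  refine ⟨max (N c) m, le_max_left _ _, fun k hk b => ?_⟩
  have h1 : max (N (Q.pr k true)) (N (Q.pr k false)) ≤ m := hm ⟨k, hk, rfl⟩
  cases b
  · exact ((le_max_right _ _).trans h1).trans (le_max_right _ _)
  · exact ((le_max_left _ _).trans h1).trans (le_max_right _ _)

/-- **the limit of the weighted sequence** -/
theorem exists_lim (T : (m : ℕ) → WS O Q Rel s₀ far₀ σ₀ κ (ex Q κ m) {k | dlt Q κ k < m})
    (hU : ∀ m c, (∀ k, Q.In k c → dlt Q κ k ≠ m) → WS.Un c (T m) (T (m + 1)))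
    {N kap : C → ℕ} (hN : ∀ c k, Q.In k c → dlt Q κ k < N c)
    (hkap : ∀ c n, N c ≤ n → ex Q κ n c = kap c) {R : C → ℕ}
    (hR : ∀ c, R c = 2 ^ (kap c - κ c)) :
    ∃ (s : GSt M (fam' fam R)) (far : Nm' fam R → Set W) (β : W → W), s.Inv Q far ∧
      Cps O Q Rel s₀ far₀ σ₀ (fun y : Nm' fam R => y.1) (fun y => (y.2 : ℕ)) s far β ∧
      (∀ E : Set W, (∀ x y, Rel x y → (x ∈ E ↔ y ∈ E)) →
        wsum s (wgt kap) E ≤ wsum s₀ (wgt κ) E) ∧
      ∀ (k : K) (i : Q.Nm (fam' fam R) k), NoClosed (s.res Q k i) (Q.Act k) := by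
  classical
  have hRp : ∀ c, 0 < R c := fun c => by rw [hR]; positivity
  let S : ℕ → GSt M (WS.famN fam) := fun n => (T n).sN
  have hS : ∀ c n, N c ≤ n → Same c (S n) (S (n + 1)) := by
    intro c n hn
    refine (hU n c fun k hk => ?_).same
    have := hN c k hk
    omega
  set sL : GSt M (WS.famN fam) := lim S N hS with hsL
  have hL : ∀ {c n}, N c ≤ n → Same c (S n) sL := fun hn => lim_same S N hS hn
  let d : J × ℕ → Nm' fam R := retr fam hRp
  let sF : GSt M (fam' fam R) := push d (fun _ => rfl) sL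
  -- names of the limit
  have hrange : ∀ w ∈ sL.P, (sL.lab w).2 < R (fam (sL.lab w).1) := by
    intro w hw
    obtain ⟨h1, h2, _⟩ := (hL (c := fam (sL.lab w).1) le_rfl).symm.mem hw rfl
    have h3 : (T (N (fam (sL.lab w).1))).nu ((T (N (fam (sL.lab w).1))).s.lab w) = sL.lab w := h2
    have h4 := ((T (N (fam (sL.lab w).1))).rng (sL.lab w).1 (sL.lab w).2).1
      ⟨_, congrArg Prod.fst h3, congrArg Prod.snd h3⟩
    rw [hkap _ _ le_rfl, ← hR] at h4
    exact h4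
  have hnu : ∀ w ∈ sL.P, nuF (sF.lab w) = sL.lab w := fun w hw => nuF_retr hRp (hrange w hw)
  have hSF : ∀ c, Same c sL (psh sF) := by
    intro c
    refine ⟨fun w => ⟨?_, ?_⟩, ?_⟩
    · rintro ⟨h1, h2⟩
      exact ⟨h1, h2⟩
    · rintro ⟨h1, h2⟩
      exact ⟨h1, h2⟩
    · intro w h1 _
      exact ⟨hnu w h1, fun _ => rfl⟩
  have hF : ∀ {c n}, N c ≤ n → Same c (S n) (psh sF) :=
    fun hn => (hL hn).trans (hSF _)
  -- transfer of points
  have ofF : ∀ {x c n}, x ∈ sF.P → fam (sF.lab x).1 = c → N c ≤ n →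
      x ∈ (T n).s.P ∧ (T n).nu ((T n).s.lab x) = nuF (sF.lab x) ∧
      (∀ F, (T n).s.mu F x = sF.mu F x) ∧ (T n).fam1 ((T n).s.lab x) = c := by
    intro x c n hx hc hn
    obtain ⟨h1, h2, h3⟩ := (hF hn).symm.mem (w := x) hx hc
    refine ⟨h1, h2, h3, ?_⟩
    have h4 : fam ((T n).nu ((T n).s.lab x)).1 = c := by
      have : (T n).nu ((T n).s.lab x) = nuF (sF.lab x) := h2
      rw [this]; exact hc
    rw [← (T n).hp]; exact h4
  have toF : ∀ {x c n}, x ∈ (T n).s.P → (T n).fam1 ((T n).s.lab x) = c → N c ≤ n →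
      x ∈ sF.P ∧ nuF (sF.lab x) = (T n).nu ((T n).s.lab x) ∧
      (∀ F, sF.mu F x = (T n).s.mu F x) ∧ fam (sF.lab x).1 = c := by
    intro x c n hx hc hn
    have hc' : WS.famN fam ((S n).lab x) = c := by
      show fam ((T n).p ((T n).s.lab x)) = c
      rw [(T n).hp]; exact hc
    obtain ⟨h1, h2, h3⟩ := (hF hn).mem (w := x) hx hc'
    refine ⟨h1, h2, h3, ?_⟩
    have h4 : WS.famN fam ((psh sF).lab x) = c := by rw [h2]; exact hc'
    exact h4
  -- names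
  have exJ : ∀ (y : Nm' fam R) (n : ℕ), N (fam y.1) ≤ n → ∃ j, (T n).nu j = nuF y := by
    intro y n hn
    have h1 : (y.2 : ℕ) < R (fam y.1) := y.2.2
    have h1' : (y.2 : ℕ) < 2 ^ (ex Q κ n (fam y.1) - κ (fam y.1)) := by
      rw [hkap _ n hn, ← hR]; exact h1
    obtain ⟨j, h2, h3⟩ := ((T n).rng y.1 y.2).2 h1'
    exact ⟨j, Prod.ext h2 h3⟩
  let farF : Nm' fam R → Set W := fun y => (T (N (fam y.1))).farN (nuF y)
  have hfar : ∀ (y : Nm' fam R) (n : ℕ), N (fam y.1) ≤ n → (T n).farN (nuF y) = farF y :=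
    fun y n hn => (un_le T hU hN le_rfl hn).far (nuF y) rfl
  have hfar' : ∀ {y : Nm' fam R} {n : ℕ} {j : (T n).J1}, N (fam y.1) ≤ n → (T n).nu j = nuF y →
      (T n).far j = farF y := by
    intro y n j hn hj
    rw [← hfar y n hn, ← hj, (T n).farN_nu]
  let βF : W → W := fun x => (T (N (fam (sF.lab x).1))).β x
  have hβ : ∀ {x c n}, x ∈ sF.P → fam (sF.lab x).1 = c → N c ≤ n → βF x = (T n).β x := by
    intro x c n hx hc hn
    subst hc
    obtain ⟨h1, _, _, h4⟩ := ofF hx rfl le_rfl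
    exact ((un_le T hU hN le_rfl hn).beta x h1 h4).symm
  -- `OK`
  have hOK : ∀ {x F n}, x ∈ sF.P → x ∈ M.On F → N (fam (sF.lab x).1) ≤ n →
      (∀ k, Q.In k (fam (sF.lab x).1) → ∀ b, N (Q.pr k b) ≤ n) → (T n).s.OK Q F x →
      sF.OK Q F x := by
    intro x F n hx hxF hn hn2 hok
    obtain ⟨h1, h2, _, h4⟩ := ofF hx rfl hn
    have e1 : WS.famN fam ((S n).lab x) = fam (sF.lab x).1 := by
      show fam ((T n).p ((T n).s.lab x)) = _
      rw [(T n).hp]; exact h4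
    have h5 : (S n).OK Q F x := (T n).sN_OK.2 hok
    have h6 : (psh sF).OK Q F x :=
      OK_same (s := S n) ⟨h1, hxF⟩ (by rw [e1]; exact hF hn)
        (fun k hk b => hF (hn2 k (by rw [e1] at hk; exact hk) b)) h5
    exact psh_OK.1 h6
  have hOK' : ∀ {x F n}, x ∈ sF.P → x ∈ M.On F → N (fam (sF.lab x).1) ≤ n →
      (∀ k, Q.In k (fam (sF.lab x).1) → ∀ b, N (Q.pr k b) ≤ n) → sF.OK Q F x →
      (T n).s.OK Q F x := by
    intro x F n hx hxF hn hn2 hok
    have h5 : (psh sF).OK Q F x := psh_OK.2 hok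
    have h6 : (S n).OK Q F x :=
      OK_same (s := (psh sF)) (s' := S n)
        ⟨hx, hxF⟩ (hF hn).symm (fun k hk b => (hF (hn2 k hk b)).symm) h5
    exact (T n).sN_OK.1 h6
  have hInv : sF.Inv Q farF := by
    refine ⟨?_, ?_, ?_, ?_, ?_, ?_, ?_⟩
    · intro y
      obtain ⟨j, hj⟩ := exJ y _ le_rfl
      have h1 := ((T (N (fam y.1))).sN_H1 j).2 ((T (N (fam y.1))).inv.h1 j)
      rw [hj] at h1
      have h2 := (hF (c := fam y.1) le_rfl).h1 (j := nuF y) h1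
      exact psh_H1.1 h2
    · intro y
      obtain ⟨j, hj⟩ := exJ y _ le_rfl
      have h1 := ((T (N (fam y.1))).sN_Conn j).2 ((T (N (fam y.1))).inv.conn j)
      rw [hj] at h1
      have h2 := (hF (c := fam y.1) le_rfl).conn (j := nuF y) h1
      exact psh_Conn.1 h2
    · intro y x hx
      obtain ⟨j, hj⟩ := exJ y _ le_rfl
      rw [← hfar' le_rfl hj] at hx
      obtain ⟨h1, h2⟩ := (T (N (fam y.1))).inv.far_mem hx
      have h3 : (T (N (fam y.1))).fam1 ((T (N (fam y.1))).s.lab x) = fam y.1 := by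
        rw [h2, ← (T _).hp]
        exact congrArg fam (congrArg Prod.fst hj)
      obtain ⟨h4, h5, _⟩ := toF h1 h3 le_rfl
      refine ⟨h4, nuF_inj ?_⟩
      rw [h5, h2, hj]
    · intro y
      obtain ⟨j, hj⟩ := exJ y _ le_rfl
      rw [← hfar' le_rfl hj]
      exact (T _).inv.far_ne j
    · intro k F x hx hFi
      obtain ⟨h1, _, _, h4⟩ := ofF hx.1 rfl le_rfl
      have h5 := (T _).inv.only ⟨h1, hx.2⟩ hFi
      rw [h4] at h5
      exact h5
    · intro x hx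
      obtain ⟨h1, h2, _, h4⟩ := ofF hx rfl le_rfl
      rcases (T _).inv.loc h1 with h5 | h5
      · left
        rw [hfar' le_rfl h2] at h5
        exact h5
      · right
        rw [h4] at h5
        exact h5
    · intro y X hX w hw hwf
      obtain ⟨n, hn1, hn2⟩ := exists_bound Q N (fam y.1)
      obtain ⟨j, hj⟩ := exJ y n hn1
      rw [← hfar' hn1 hj] at hwf ⊢
      refine (T n).inv.gc j X ?_ w hw hwf
      intro F u hu huf hat huf' hok
      obtain ⟨_, hul⟩ := (T n).inv.far_mem huf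
      have h3 : (T n).fam1 ((T n).s.lab u) = fam y.1 := by
        rw [hul, ← (T n).hp]
        exact congrArg fam (congrArg Prod.fst hj)
      obtain ⟨h4, h5, h6, h7⟩ := toF hat.1 h3 hn1
      have h8 := hX F u hu (by rw [← hfar' hn1 hj]; exact huf) ⟨h4, hat.2⟩
        (by rw [h6, ← hfar' hn1 hj]; exact huf')
        (hOK h4 hat.2 (by rw [h7]; exact hn1) (by rw [h7]; exact hn2) hok)
      rw [h6] at h8
      exact h8
  have hC : Cps O Q Rel s₀ far₀ σ₀ (fun y : Nm' fam R => y.1) (fun y => (y.2 : ℕ)) sF farF βF := by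
    refine ⟨?_, ?_, ?_, ?_, ?_, ?_, ?_, ?_, ?_, ?_, ?_⟩
    · intro x hx
      exact (T _).cps.mem (ofF hx rfl le_rfl).1
    · intro x hx
      exact (T _).cps.rel (ofF hx rfl le_rfl).1
    · intro x F hx
      exact (T _).cps.on F (ofF hx rfl le_rfl).1
    · intro F x hx
      exact (T _).cps.dir ⟨(ofF hx.1 rfl le_rfl).1, hx.2⟩
    · intro F x y hx hy hlt
      have h1 : N (fam (sF.lab x).1) ≤ max (N (fam (sF.lab x).1)) (N (fam (sF.lab y).1)) :=
        le_max_left _ _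
      have h2 : N (fam (sF.lab y).1) ≤ max (N (fam (sF.lab x).1)) (N (fam (sF.lab y).1)) :=
        le_max_right _ _
      rw [hβ hx.1 rfl h1, hβ hy.1 rfl h2] at hlt
      exact (T _).cps.lt ⟨(ofF hx.1 rfl h1).1, hx.2⟩ ⟨(ofF hy.1 rfl h2).1, hy.2⟩ hlt
    · intro y x hx
      obtain ⟨h1, h2⟩ := hInv.far_mem hx
      obtain ⟨j, hj⟩ := exJ y _ le_rfl
      have hb := hβ (n := N (fam y.1)) h1 rfl (by rw [h2])
      rw [← hfar' le_rfl hj] at hx
      have h3 := (T _).cps.far_mem hx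
      have h4 : (T (N (fam y.1))).p j = y.1 := congrArg Prod.fst hj
      rw [h4] at h3
      rw [hb]; exact h3
    · intro y w hw
      obtain ⟨j, hj⟩ := exJ y _ le_rfl
      have h4 : (T (N (fam y.1))).p j = y.1 := congrArg Prod.fst hj
      have hw' : w ∈ far₀ ((T (N (fam y.1))).p j) := by rw [h4]; exact hw
      obtain ⟨x, hx, hxw⟩ := (T _).cps.far_ex hw'
      rw [hfar' le_rfl hj] at hx
      obtain ⟨h1, h2⟩ := hInv.far_mem hx
      refine ⟨x, hx, ?_⟩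
      rw [hβ (n := N (fam y.1)) h1 rfl (by rw [h2])]
      exact hxw
    · intro y x x' hx hx' he
      obtain ⟨j, hj⟩ := exJ y _ le_rfl
      obtain ⟨h1, h2⟩ := hInv.far_mem hx
      obtain ⟨h3, h4⟩ := hInv.far_mem hx'
      rw [hβ (n := N (fam y.1)) h1 rfl (by rw [h2]), hβ (n := N (fam y.1)) h3 rfl (by rw [h4])]
        at he
      rw [← hfar' le_rfl hj] at hx hx'
      exact (T _).cps.far_uniq hx hx' he
    · intro y y' x x' F hyy hm hx hx' he hxF
      have hyy' : y.1 = y'.1 := hyy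
      have hm' : (y.2 : ℕ) < y'.2 := hm
      have hn' : N (fam y'.1) ≤ N (fam y.1) := by rw [hyy']
      obtain ⟨j, hj⟩ := exJ y _ le_rfl
      obtain ⟨j', hj'⟩ := exJ y' _ hn'
      obtain ⟨h1, h2⟩ := hInv.far_mem hx
      obtain ⟨h3, h4⟩ := hInv.far_mem hx'
      have hb := hβ (n := N (fam y.1)) h1 rfl (by rw [h2])
      have hb' := hβ (n := N (fam y.1)) h3 rfl (by rw [h4]; exact hn')
      rw [hb, hb'] at he
      rw [← hfar' le_rfl hj] at hx
      rw [← hfar' hn' hj'] at hx'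
      rw [hb]
      have e1 : (T (N (fam y.1))).p j = y.1 := congrArg Prod.fst hj
      have e2 : (T (N (fam y.1))).p j' = y'.1 := congrArg Prod.fst hj'
      have e3 : (T (N (fam y.1))).m j = y.2 := congrArg Prod.snd hj
      have e4 : (T (N (fam y.1))).m j' = y'.2 := congrArg Prod.snd hj'
      exact (T _).cps.far_ord (by rw [e1, e2, hyy']) (by rw [e3, e4]; exact hm') hx hx' he hxF
    · intro y x F hx hat hmf hok
      obtain ⟨n, hn1, hn2⟩ := exists_bound Q N (fam y.1)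
      obtain ⟨h1, h2⟩ := hInv.far_mem hx
      obtain ⟨j, hj⟩ := exJ y n hn1
      have e1 : (T n).p j = y.1 := congrArg Prod.fst hj
      have hc : fam (sF.lab x).1 = fam y.1 := by rw [h2]
      have hb := hβ (n := n) h1 hc hn1
      rw [hb] at hat hmf hok ⊢
      have hxj : x ∈ (T n).far j := by rw [hfar' hn1 hj]; exact hx
      obtain ⟨h3, h4, h5⟩ := (T n).cps.ok hxj hat (by rw [e1]; exact hmf) hok
      obtain ⟨h6, h7, h8, h9⟩ := ofF h1 hc hn1
      have hxF : x ∈ M.On F := ((T n).cps.on F h6).2 hat.2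
      have hm : (T n).s.mu F x ∈ (T n).s.P := ((T n).s.mu_mem h6 hxF).1
      have h10 : sF.mu F x ∈ farF y := by rw [← h8, ← hfar' hn1 hj]; exact h4
      obtain ⟨h11, h12⟩ := hInv.far_mem h10
      refine ⟨?_, h10, hOK h1 hxF (by rw [hc]; exact hn1) (by rw [hc]; exact hn2) h5⟩
      rw [hβ (n := n) h11 rfl (by rw [h12]; exact hn1), ← h8]
      exact h3
    · intro F x y hx hy hne hl
      have g1 : N (fam (sF.lab x).1) ≤ max (N (fam (sF.lab x).1)) (N (fam (sF.lab y).1)) :=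
        le_max_left _ _
      have g2 : N (fam (sF.lab y).1) ≤ max (N (fam (sF.lab x).1)) (N (fam (sF.lab y).1)) :=
        le_max_right _ _
      obtain ⟨h1, h2, h3, h4⟩ := ofF hx.1 rfl g1
      obtain ⟨k1, k2, k3, k4⟩ := ofF hy.1 rfl g2
      rw [← h3, ← k3] at hl
      obtain ⟨w, v, l1, l2, l3, l4, l5⟩ := (T _).cps.cross ⟨h1, hx.2⟩ ⟨k1, hy.2⟩
        (by rw [h4, k4]; exact hne) hl
      have e1 := congrArg Prod.fst h2
      have e2 := congrArg Prod.fst k2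
      exact ⟨w, v, l1, l2, l3.trans e1, l4.trans e2, l5⟩
  refine ⟨sF, farF, βF, hInv, hC, ?_, ?_⟩
  · intro E hE
    refine wsum_le_of_finite fun A hA => ?_
    obtain ⟨n, hn⟩ : ∃ n, ∀ x ∈ A, N (fam (sF.lab x).1) ≤ n :=
      ⟨A.sup fun x => N (fam (sF.lab x).1), fun x hx =>
        Finset.le_sup (f := fun x => N (fam (sF.lab x).1)) hx⟩
    have h1 : ∑ x ∈ A, wgt kap (fam' fam R (sF.lab x)) =
        ∑ x ∈ A, wgt (ex Q κ n) ((T n).fam1 ((T n).s.lab x)) := by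
      refine Finset.sum_congr rfl fun x hx => ?_
      obtain ⟨_, _, _, h4⟩ := ofF (hA x hx).1 rfl (hn x hx)
      rw [h4]
      show ((2 : ℝ≥0∞) ^ kap (fam (sF.lab x).1))⁻¹ =
        ((2 : ℝ≥0∞) ^ ex Q κ n (fam (sF.lab x).1))⁻¹
      rw [hkap _ n (hn x hx)]
    rw [h1]
    exact (sum_le_wsum fun x hx => ⟨(ofF (hA x hx).1 rfl (hn x hx)).1, (hA x hx).2⟩).trans
      ((T n).wt E hE)
  · intro k i
    obtain ⟨n, hn0, hn⟩ : ∃ n, dlt Q κ k < n ∧ ∀ b, N (Q.pr k b) ≤ n := by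
      refine ⟨max (dlt Q κ k + 1) (max (N (Q.pr k true)) (N (Q.pr k false))),
        lt_of_lt_of_le (Nat.lt_succ_self _) (le_max_left _ _), fun b => ?_⟩
      cases b
      · exact (le_max_right _ _).trans (le_max_right _ _)
      · exact (le_max_left _ _).trans (le_max_right _ _)
    obtain ⟨b, hb⟩ := i.2
    have hni : N (fam i.1.1) ≤ n := by
      have : fam i.1.1 = Q.pr k b := hb.symm
      rw [this]; exact hn b
    obtain ⟨j, hj⟩ := exJ i.1 n hni
    have e1 : (T n).p j = i.1.1 := congrArg Prod.fst hj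
    have hj2 : Q.In k ((T n).fam1 j) := by
      rw [← (T n).hp, e1]; exact i.2
    have h1 := (T n).done k hn0 ⟨j, hj2⟩
    have hi2 : Q.In k (WS.famN fam (nuF i.1)) := i.2
    have h2 : NoClosed ((S n).res Q k ⟨nuF i.1, hi2⟩) (Q.Act k) :=
      push_noClosed (T n).nu_inj h1
    have h3 : NoClosed ((psh sF).res Q k
        ⟨nuF i.1, hi2⟩) (Q.Act k) :=
      (agr_same _ (fun b => hF (hn b)) (Q.Act k)).noClosed h2
    exact retr_noClosed (retr fam hRp) (retr_nuF hRp) (fun _ => rfl) h3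

end lim

/-- **WEIGHTED SEQUENCE (`wseq`).**  `Δ_c = 2^(-κ c)`; final weights `2^(-kap c)`, `kap c` = the
maximum of `κ c` and of the exponents of the quads of `c`; every sheet of `c` is replaced by
`2^(kap c - κ c)` copies. -/
theorem wseq (hP3 : P3) (O : Ori M) {Rel : W → W → Prop} {V : Set W} (hpar : WS.HasPar O Rel V)
    (hrefl : ∀ x, Rel x x) (htr : ∀ x y z, Rel x y → Rel y z → Rel x z)
    (hV : ∀ x y, Rel x y → y ∈ V → x ∈ V) (Q : Quads ι C K) (κ : C → ℕ)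
    (hκ : ∀ m, {k | dlt Q κ k = m}.Finite) (s₀ : GSt M fam) (far₀ : J → Set W)
    (h₀ : s₀.Inv Q far₀) (σ₀ : W → ZMod 2) (hσ₀ : TS s₀ O σ₀) (hP₀ : s₀.P ⊆ V)
    (hfin : ∀ F, (s₀.P ∩ M.On F).Finite) :
    ∃ (kap : C → ℕ), (∀ c, κ c ≤ kap c) ∧ (∀ c k, Q.In k c → dlt Q κ k ≤ kap c) ∧
      (∀ c, kap c = κ c ∨ ∃ k, Q.In k c ∧ kap c = dlt Q κ k) ∧
    ∃ (s : GSt M (fam' fam (fun c => 2 ^ (kap c - κ c))))
      (far : Nm' fam (fun c => 2 ^ (kap c - κ c)) → Set W) (σ : W → ZMod 2) (β : W → W),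
      s.Inv Q far ∧ TS s O σ ∧ (∀ j x, x ∈ far j → σ x = σ₀ (β x)) ∧ s.P ⊆ V ∧
      (∀ F, (s.P ∩ M.On F).Finite) ∧
      Cps O Q Rel s₀ far₀ σ₀ (fun y : Nm' fam (fun c => 2 ^ (kap c - κ c)) => y.1)
        (fun y => (y.2 : ℕ)) s far β ∧
      (∀ E : Set W, (∀ x y, Rel x y → (x ∈ E ↔ y ∈ E)) →
        wsum s (wgt kap) E ≤ wsum s₀ (wgt κ) E) ∧
      ∀ (k : K) (i : Q.Nm (fam' fam (fun c => 2 ^ (kap c - κ c))) k),
        (s.res Q k i).Good (Q.Act k) (s.farK Q far k) ∧ NoClosed (s.res Q k i) (Q.Act k) := by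
  classical
  obtain ⟨N, kap, hN, hkap, h1, h2, h3⟩ := exists_kap Q κ
  refine ⟨kap, h1, h2, h3, ?_⟩
  have hst : ∀ (m : ℕ) (A : WS O Q Rel s₀ far₀ σ₀ κ (ex Q κ m) {k | dlt Q κ k < m}),
      ∃ B : WS O Q Rel s₀ far₀ σ₀ κ (ex Q κ (m + 1)) {k | dlt Q κ k < m + 1},
        ∀ c, (∀ k, Q.In k c → dlt Q κ k ≠ m) → WS.Un c A B := fun m A =>
    WS.exists_stage hP3 hpar htr hV h₀ hσ₀ hP₀ hfin m (hκ m) A
  choose nxt hnxt using hst
  let T0 : WS O Q Rel s₀ far₀ σ₀ κ (ex Q κ 0) {k | dlt Q κ k < 0} :=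
    (WS.init hrefl h₀ κ).mono (fun k hk => absurd hk (Nat.not_lt_zero _))
  let T : (m : ℕ) → WS O Q Rel s₀ far₀ σ₀ κ (ex Q κ m) {k | dlt Q κ k < m} := fun m =>
    Nat.rec T0 (fun m A => nxt m A) m
  have hT : ∀ m, T (m + 1) = nxt m (T m) := fun m => rfl
  have hU : ∀ m c, (∀ k, Q.In k c → dlt Q κ k ≠ m) → WS.Un c (T m) (T (m + 1)) := by
    intro m c hc
    rw [hT]
    exact hnxt m (T m) c hc
  obtain ⟨s, far, β, hI, hC, hw, hn⟩ := exists_lim T hU hN hkap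
    (R := fun c => 2 ^ (kap c - κ c)) (fun _ => rfl)
  obtain ⟨σ, hσ, hs⟩ := hC.exists_sigma h₀ hσ₀ hI
  refine ⟨s, far, σ, β, hI, hσ, hs, fun x hx => hV _ _ (hC.rel hx) (hP₀ (hC.mem hx)),
    fun F => hC.finite (fun _ => rfl) h₀ hI (hfin F), hC, hw, fun k i => ⟨hI.good k i, hn k i⟩⟩

end Crest.Agent.R096.Cp_298
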