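import Crest.Agent.R096.Cp9_465

/-!
# Row 96 (S0127), p ≤ 2 (helper465), part 10: the mesh families of `PreIN` in the form of helper855
(#11691): all numbers chosen
-/

set_option autoImplicit false
set_option linter.unusedSectionVars false

open Set Metric Topology Filter MeasureTheory
open scoped ENNReal

namespace Crest.Agent.R096.Cp10_465

open Crest.AnalysisR.VecCalc3
open Crest.Agent.R096.Msh_715 (Tiling P I)
open Crest.Agent.R096.Ca_855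
open Crest.Agent.R096.Fsl_793
open Crest.Agent.R096.Cp8_465
open Crest.Agent.R096.Cp9_465
open Crest.Agent.R096.Mal_874 (CB reOm)
open Crest.Agent.R096.Msb_432 (Scl)
open Crest.Agent.R96.Coarse_538

noncomputable section

variable {Om W : Set R3} {t n n' β r : ℝ} {nc m : ℕ}

/-- larger density -/
def _root_.Crest.Agent.R096.Ca_855.MFam.wkn (M : MFam Om W t n β r nc) (h : n ≤ n') :
    MFam Om W t n' β r nc :=
  { M with
    dens := fun F hF => (M.dens F hF).trans (by gcongr) }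

/-- larger density -/
def _root_.Crest.Agent.R096.Fsl_793.MFam2.wkn (M : MFam2 Om W t n β r nc m) (h : n ≤ n') :
    MFam2 Om W t n' β r nc m :=
  { M with
    dens := fun F hF => (M.dens F hF).trans (by gcongr) }

theorem wkn_toMFam (M : MFam2 Om W t n β r nc m) (h : n ≤ n') :
    (M.wkn h).toMFam = M.toMFam.wkn h := rfl

theorem mfam_heq {M N : MFam Om W t n β r nc} (h : M = N) : M.Tr = N.Tr ∧ M.ι = N.ι ∧
    HEq M.T N.T ∧ M.κi = N.κi ∧ HEq M.x N.x ∧ HEq M.v N.v := by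
  subst h
  exact ⟨rfl, rfl, HEq.rfl, rfl, HEq.rfl, HEq.rfl⟩

/-- transport of a property of the tilings (no casts) -/
theorem transfer {M N : MFam Om W t n β r nc} (h : M = N)
    {Φ : ∀ ι : R3 → Type, (∀ a, Tiling Om (ι a)) → Prop} (hM : Φ M.ι M.T) : Φ N.ι N.T := by
  subst h
  exact hM

/-- transport of a property of the tilings and of the edges (no casts) -/
theorem transfer' {M N : MFam Om W t n β r nc} (h : M = N)
    {Φ : ∀ (ι : R3 → Type) (_ : ∀ a, Tiling Om (ι a)) (κi : Type) (_ _ : κi → R3) (_ : Set R3),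
      Prop} (hM : Φ M.ι M.T M.κi M.x M.v M.Tr) : Φ N.ι N.T N.κi N.x N.v N.Tr := by
  subst h
  exact hM

/-- **the mesh families of `PreIN`** (helper855's form): `D`, `nc` depend on `κ`, `Bs` only; the other
numbers on the net and on a lower bound `q` of `2 ^ (-k0) / t` -/
theorem exists_mfam2 {κ : ℝ} (hκ : 0 < κ) (hκ1 : κ ≤ 1) (Bs : ℕ) :
    ∃ D : ℝ, 0 < D ∧ ∃ nc : ℕ,
      (∀ {Om W : Set R3} {ρ₀ : R3 → ℝ} {J : Type} [Finite J] {Qb : J → CB R3 3} {k0 Nn : ℕ}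
        {σ : ℝ} (h : MIn Om W ρ₀ Qb k0 σ), (∀ j, MIn.BQ κ Bs Nn (Qb j) k0) → ∀ a,
        (∀ t, {j | (P ((h.T a).H j) ∩ P ((h.T a).H t)).Nonempty}.ncard ≤ nc ∧
          Nat.card (Crest.Agent.R096.Tgr_335.KT (h.T a) t) ≤ nc ∧
          Nat.card (Crest.Agent.R096.Sk3_812.KT (h.T a) t) ≤ nc) ∧
        ∀ j t, (P ((h.T a).H t) ∩ (h.M.Bk (fun _ => h.cl a) j).N).Nonempty →
          ∀ x ∈ P ((h.T a).H t), ∀ y ∈ P ((h.T a).H t), ‖x - y‖ ≤ D / 2 ^ (Qb j).kc) ∧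
      ∀ (Nn : ℕ) (q : ℝ), 0 < q → ∃ β > 0, ∃ r > 0, ∃ (n₀ : ℝ) (mf : ℕ), 0 < n₀ ∧
      ∀ n : ℝ, n₀ ≤ n → ∀ {Om W : Set R3} {ρ₀ : R3 → ℝ} {J : Type} [Finite J]
        {Qb : J → CB R3 3} {k0 : ℕ} {σ : ℝ} (h : MIn Om W ρ₀ Qb k0 σ),
        (∀ j, MIn.BQ κ Bs Nn (Qb j) k0) → ∀ t : ℝ, 0 < t → t ≤ σ / 8 →
        (∀ j, D / 2 ^ (Qb j).kc ≤ t) → D / 2 ^ k0 ≤ t → q * t ≤ 1 / 2 ^ k0 →
        ∃ (hι : ∀ a, ‖a‖ ≤ t → ‖a‖ ≤ σ / 8) (ht : 0 < t) (hr : 0 < r) (c : ∀ a, h.ιT a → R3)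
          (htile : ∀ a ∈ closedBall (0 : R3) t, ∀ i, (P ((h.T a).H i) ∩ W).Nonempty →
            TileG (h.T a) i (Gsm_432.H_ne (h.T a) i) (c a i) β (r * t) t nc)
          (hn : 2 ^ ⌊((1 + 1) / r) ^ 3⌋₊ ≤ n)
          (M : MFam2 Om W t n β r nc mf),
          M.Tr = closedBall 0 t ∧
          M.toMFam = (MFam.ofRig (T0 := h.T0) (T := h.T) (Tr := closedBall 0 t) (a₀ := 0) (d := 1)
            (h.rig fun a ha => hι a (mem_closedBall_zero_iff.1 ha)) c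
            measurableSet_closedBall (vol_closedBall_ge ht.le) measure_closedBall_lt_top.ne ht hr
            zero_le_one htile (fun a ha => by
              rw [sub_zero, one_mul]
              exact mem_closedBall_zero_iff.1 ha)).wkn hn := by
  obtain ⟨D, hD, nc, h1, h2⟩ := exists_tile2 hκ hκ1 Bs
  refine ⟨D, hD, nc, h1, fun Nn q hq => ?_⟩
  obtain ⟨ρ, hρ, h2⟩ := h2 Nn
  set r : ℝ := ρ * q / 2 with hrd
  have hr : 0 < r := by positivity
  obtain ⟨β, hβ, h2⟩ := h2 (D * r / 8) (by positivity)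
  refine ⟨β, hβ, r, hr, 2 ^ ⌊((1 + 1) / r) ^ 3⌋₊, (⌈((1 + 2) / r) ^ 3⌉₊) ^ 2, by positivity, ?_⟩
  intro n hn Om W ρ₀ J _ Qb k0 σ h hb t ht htσ hDk hD0 hqt
  have e8 : ∀ k : ℕ, D / 2 ^ k ≤ t → D * r / 8 / 2 ^ k ≤ r * t / 8 := by
    intro k hk
    have e : D * r / 8 / 2 ^ k = r * (D / 2 ^ k) / 8 := by ring
    rw [e]
    gcongr
  have hrt : r * t ≤ ρ / 2 ^ (k0 + 1) := by
    have e : ρ / 2 ^ (k0 + 1) = ρ / 2 * (1 / 2 ^ k0) := by
      rw [pow_succ]; ring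
    rw [e, hrd, show ρ * q / 2 * t = ρ / 2 * (q * t) by ring]
    exact mul_le_mul_of_nonneg_left hqt (by positivity)
  obtain ⟨c, htile, M, hM⟩ := h.exists_mfam2 hD.le (by positivity) (h2 h hb) hDk hD0
    (fun j => e8 _ (hDk j)) (e8 _ hD0) hrt ht htσ hr (m := ⌈((1 + 2) / r) ^ 3⌉₊) (Nat.le_ceil _)
  refine ⟨fun a ha => ha.trans htσ, ht, hr, c, htile, hn, M.wkn hn, ?_, ?_⟩
  · show M.toMFam.Tr = _
    rw [hM]
    rfl
  · rw [wkn_toMFam, hM]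

end

end Crest.Agent.R096.Cp10_465
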