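import Crest.Agent.R096.Fsl9_793

/-!
# Row 96 (S0127), p = 2 (helper465), part 11: the face measure `ν` of `comp_U` and the clause `faceD`
of `Pas_753.Pos`
-/

set_option autoImplicit false
set_option linter.unusedSectionVars false

open Set Metric Topology Filter MeasureTheory
open scoped ENNReal

namespace Crest.Agent.R096.Cp11_465

open Crest.AnalysisR.VecCalc3 Crest.AnalysisR.Sobolev
open Crest.Agent.R096.Fsl_793
open Crest.Agent.R096.Fce_793
open Crest.Agent.R096.Rmg_793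
open Crest.Agent.R96.Lu_538 Crest.Agent.R96.Intr_538
open Crest.Agent.R96.Coarse_538

noncomputable section

/-- **the face measure**: all faces with weight `t ^ 3`, translated by `a` -/
def nuF {κf : Type*} (x : κf → R3) (e : κf → Fin 2 → R3) (P : κf → Set (ℝ × ℝ)) (t : ℝ) :
    R3 → Measure R3 :=
  trM (fcM x e P fun _ => ENNReal.ofReal (t ^ 3)) (fun _ => univ)

theorem nuF_rm {Om W : Set R3} {t n n' β r : ℝ} {nc mf : ℕ} (M : MFam2 Om W t n β r nc mf)
    (hn : (mf : ℝ) ≤ n') : RM M.Tr (ENNReal.ofReal n') (nuF M.xf M.ef M.Pf t) := by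
  have := M.cntf
  refine Faces.rm M.meas M.fcs (fun φ => Subset.rfl) (fun φ => le_rfl) ?_
    (fun φ => MeasurableSet.univ)
  have h1 : (mf : ℝ≥0∞) ≤ ENNReal.ofReal n' := by
    rw [← ENNReal.ofReal_natCast]
    exact ENNReal.ofReal_le_ofReal hn
  exact mul_le_mul' h1 M.vol

/-- one face -/
theorem nuF_face {κf : Type*} {x : κf → R3} {e : κf → Fin 2 → R3} {P : κf → Set (ℝ × ℝ)} {t : ℝ}
    (hli : ∀ φ, LinearIndependent ℝ (e φ)) {S : Set R3} (hS : MeasurableSet S)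
    (F : R3 → ℝ≥0∞) (a : R3) (φ : κf) :
    ENNReal.ofReal (t ^ 3) * ∫⁻ u in P φ, S.indicator F (pt (e φ) (a + x φ) u) ≤
      ∫⁻ y in S, F y ∂nuF x e P t a := by
  have h1 : ∫⁻ y in S, F y ∂nuF x e P t a = ∑' φ, ∫⁻ y, S.indicator F y
      ∂((fcM x e P (fun _ => ENNReal.ofReal (t ^ 3)) φ).map (fun z => a + z)).restrict univ := by
    rw [← lintegral_indicator hS, nuF, trM, lintegral_sum_measure]
  rw [h1]
  refine le_trans (le_of_eq ?_) (ENNReal.le_tsum φ)
  have he : MeasurableEmbedding (fun z : R3 => a + z) := (Homeomorph.addLeft a).measurableEmbedding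
  have hp : MeasurableEmbedding (pt (e φ) (x φ)) :=
    (isClosedEmbedding_pt (hli φ) (x φ)).measurableEmbedding
  rw [Measure.restrict_univ, he.lintegral_map, fcM, lintegral_smul_measure, hp.lintegral_map,
    smul_eq_mul]
  congr 1
  apply lintegral_congr
  intro u
  congr 1
  simp only [pt]
  abel

/-- **the clause `faceD` of `Pas_753.Pos`** -/
theorem faceD_of {p : ℝ} (hp : p = 2) {Om W : Set R3} {t n β r : ℝ} {nc mf : ℕ}
    (M : MFam2 Om W t n β r nc mf) (ht : 0 < t) {G : Fin 3 → R3 → R3} {s η' η₁ : ℝ}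
    (hη : η' * s ^ 3 ≤ t ^ 3 * η₁ ^ 2)
    {z : R3} {L : R3 →L[ℝ] R3} {a : R3} (h : ∫⁻ y in cel Cb z s, ‖Gmat G y - L‖ₑ ^ (2:ℝ)
      ∂nuF M.xf M.ef M.Pf t a ≤ ENNReal.ofReal (η' * s ^ 3)) (φ : M.κf) :
    ∫⁻ u in M.Pf φ, (cel Cb z s).indicator (fun x => ‖Gmat G x - L‖ₑ ^ p)
      (pt (M.ef φ) (a + M.xf φ) u) ≤ ENNReal.ofReal (η₁ ^ p) := by
  subst hp
  have h1 := nuF_face (P := M.Pf) (t := t) M.fcs.li (isClosed_cel z s).measurableSet
    (fun x => ‖Gmat G x - L‖ₑ ^ (2:ℝ)) a φ (x := M.xf)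
  have h2 := (h1.trans h).trans (ENNReal.ofReal_le_ofReal hη)
  have ht3 : 0 < t ^ 3 := by positivity
  rw [ENNReal.ofReal_mul ht3.le] at h2
  have h3 := (ENNReal.mul_le_mul_iff_right (by
    rw [Ne, ENNReal.ofReal_eq_zero, not_le]; exact ht3) ENNReal.ofReal_ne_top).1 h2
  refine h3.trans (ENNReal.ofReal_le_ofReal ?_)
  rw [Real.rpow_two]

end

end Crest.Agent.R096.Cp11_465
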