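import Crest.Agent.R096.Cp11_298
import Crest.Agent.R096.Mrg2_715

/-!
# R096 / COPY, part 12 (helper298): orientation data and parallel points of merged meshes

`Ori.merge` : an orientation of `M` with opposite signs at the two sides of every face gives an
orientation of 715's merged mesh `mergeC M π h`.  `hasParC` : parallel points.
-/

set_option autoImplicit false

open Set
open scoped Classical

namespace Crest.Agent.R096.Cp_298
open Crest.Agent.R096.St_147 Crest.Agent.R096.Msh_715 Crest.Agent.R096.Seq_213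
  Crest.Agent.R096.Seq_213.GSt

section merge

variable {ι ι' Φ W : Type} {M : MeshC ι Φ W}

/-- opposite signs at the two sides of a face -/
def Ori.Opp (O : Ori M) : Prop :=
  ∀ {F q q'}, q ∈ M.side F → q' ∈ M.side F → q ≠ q' → O.eps q F + O.eps q' F = 1

/-- **orientation along the boundary of a locally connected set of cells** -/
theorem Ori.comp_merge {O : Ori M} (opp : O.Opp) {A : Set ι} {w : W} (h : ConnAt M A w)
    {F F' : Φ} {q q' : ι} (hw : w ∈ M.On F) (hw' : w ∈ M.On F') (hq : q ∈ M.side F) (hqA : q ∈ A)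
    (hb : ∃ k ∈ M.side F, k ∉ A) (hq' : q' ∈ M.side F') (hqA' : q' ∈ A)
    (hb' : ∃ k ∈ M.side F', k ∉ A) (hne : F ≠ F') :
    O.eps q F + O.dir F w + (O.eps q' F' + O.dir F' w) = 1 := by
  set V : Finset ι := (finite_cellsAt M A w).toFinset with hV
  set EI : Finset Φ := (finite_innAt M A w).toFinset with hEI
  set EB : Finset Φ := (finite_bdAt M A w).toFinset with hEB
  have hVm : ∀ q, q ∈ V ↔ q ∈ A ∧ ∃ F, w ∈ M.On F ∧ q ∈ M.side F := fun q => by
    rw [hV, Set.Finite.mem_toFinset]; rfl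
  have hIm : ∀ F, F ∈ EI ↔ w ∈ M.On F ∧ ∀ q ∈ M.side F, q ∈ A := fun F => by
    rw [hEI, Set.Finite.mem_toFinset]; rfl
  have hBm : ∀ F, F ∈ EB ↔ w ∈ M.On F ∧ (∃ q ∈ M.side F, q ∈ A) ∧ ∃ q ∈ M.side F, q ∉ A :=
    fun F => by rw [hEB, Set.Finite.mem_toFinset]; rfl
  have hs := handshake M A w
  rw [Set.ncard_eq_toFinset_card _ (finite_cellsAt M A w),
    Set.ncard_eq_toFinset_card _ (finite_innAt M A w)] at hs
  have hFB : F ∈ EB := (hBm F).2 ⟨hw, ⟨q, hq, hqA⟩, hb⟩
  have hFB' : F' ∈ EB := (hBm F').2 ⟨hw', ⟨q', hq', hqA'⟩, hb'⟩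
  have hbd : (bdAt M A w).ncard = 2 := by
    rcases ncard_bd h with h0 | h0
    · exfalso
      rw [Set.ncard_eq_toFinset_card _ (finite_bdAt M A w), ← hEB, Finset.card_eq_zero] at h0
      rw [h0] at hFB
      exact absurd hFB (Finset.notMem_empty _)
    · exact h0
  rw [hbd, ← hV, ← hEI] at hs
  have hcard : V.card = EI.card + 1 := by omega
  have hEB2 : EB = {F, F'} := by
    symm
    apply Finset.eq_of_subset_of_card_le
    · intro G hG
      rcases Finset.mem_insert.1 hG with rfl | hG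
      · exact hFB
      · rw [Finset.mem_singleton.1 hG]; exact hFB'
    · rw [Finset.card_pair hne]
      rw [Set.ncard_eq_toFinset_card _ (finite_bdAt M A w), ← hEB] at hbd
      exact hbd.le
  -- the function which is counted
  let τ : ι → Φ → ZMod 2 := fun q G => O.eps q G + O.dir G w
  have hdisj : Disjoint EI EB := by
    rw [Finset.disjoint_left]
    intro F h1 h2
    obtain ⟨q, hq, hqA⟩ := ((hBm F).1 h2).2.2
    exact hqA (((hIm F).1 h1).2 q hq)
  have hcell : ∀ k ∈ V, ∑ G ∈ (EI ∪ EB).filter (fun G => k ∈ M.side G), τ k G = 1 := by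
    intro k hk
    obtain ⟨hkA, F0, hF0, hk0⟩ := (hVm k).1 hk
    obtain ⟨F1, hne1, hk1, hw1, huniq⟩ := exists_other M hk0 hF0
    have hmem : ∀ G, w ∈ M.On G → k ∈ M.side G → G ∈ EI ∪ EB := by
      intro G hG hkG
      rw [Finset.mem_union, hIm, hBm]
      by_cases h3 : ∀ q ∈ M.side G, q ∈ A
      · exact Or.inl ⟨hG, h3⟩
      · push Not at h3
        obtain ⟨r, hr, hrA⟩ := h3
        exact Or.inr ⟨hG, ⟨k, hkG, hkA⟩, r, hr, hrA⟩
    have hon : ∀ G ∈ EI ∪ EB, w ∈ M.On G := by
      intro G hG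
      rcases Finset.mem_union.1 hG with h1 | h1
      · exact ((hIm G).1 h1).1
      · exact ((hBm G).1 h1).1
    have hset : (EI ∪ EB).filter (fun G => k ∈ M.side G) = {F0, F1} := by
      ext G
      rw [Finset.mem_filter, Finset.mem_insert, Finset.mem_singleton]
      constructor
      · rintro ⟨h1, h2⟩
        exact huniq G h2 (hon G h1)
      · rintro (rfl | rfl)
        · exact ⟨hmem _ hF0 hk0, hk0⟩
        · exact ⟨hmem _ hw1 hk1, hk1⟩
    rw [hset, Finset.sum_pair hne1.symm]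
    exact O.comp hk0 hk1 hF0 hw1 hne1.symm
  have hI1 : ∀ G ∈ EI, ∑ k ∈ V.filter (fun k => k ∈ M.side G), τ k G = 1 := by
    intro G hG
    obtain ⟨h1, h2⟩ := (hIm G).1 hG
    have hnd := M.side_nd G
    obtain ⟨⟨x, y⟩, hxy⟩ := Quot.exists_rep (M.side G)
    have hxy' : M.side G = s(x, y) := hxy.symm
    have hxne : x ≠ y := by
      intro h; rw [hxy', h] at hnd; exact hnd (Sym2.mk_isDiag_iff.2 rfl)
    have : (V.filter fun q => q ∈ M.side G) = {x, y} := by
      ext q
      simp only [Finset.mem_filter, hVm, Finset.mem_insert, Finset.mem_singleton]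
      constructor
      · rintro ⟨_, h3⟩; rw [hxy'] at h3; exact Sym2.mem_iff.1 h3
      · intro h3
        have h4 : q ∈ M.side G := by rw [hxy']; exact Sym2.mem_iff.2 h3
        exact ⟨⟨h2 q h4, G, h1, h4⟩, h4⟩
    rw [this, Finset.sum_pair hxne]
    have hx : x ∈ M.side G := by rw [hxy']; exact Sym2.mem_iff.2 (Or.inl rfl)
    have hy : y ∈ M.side G := by rw [hxy']; exact Sym2.mem_iff.2 (Or.inr rfl)
    have h5 := opp hx hy hxne
    have e : ∀ a b c : ZMod 2, a + b = 1 → a + c + (b + c) = 1 := by decide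
    exact e _ _ _ h5
  have hB1 : ∀ G ∈ EB, ∀ r, r ∈ M.side G → r ∈ A →
      ∑ k ∈ V.filter (fun k => k ∈ M.side G), τ k G = τ r G := by
    intro G hG r hr hrA
    obtain ⟨h1, -, k, hk, hkA⟩ := (hBm G).1 hG
    have hrk : r ≠ k := fun h => hkA (h ▸ hrA)
    have hs' : M.side G = s(r, k) := ((Sym2.mem_and_mem_iff hrk).1 ⟨hr, hk⟩)
    have : (V.filter fun q => q ∈ M.side G) = {r} := by
      ext x
      simp only [Finset.mem_filter, hVm, Finset.mem_singleton]
      constructor
      · rintro ⟨⟨hxA, _⟩, h3⟩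
        rw [hs'] at h3
        rcases Sym2.mem_iff.1 h3 with h4 | h4
        · exact h4
        · rw [h4] at hxA; exact absurd hxA hkA
      · rintro rfl
        exact ⟨⟨hrA, G, h1, hr⟩, hr⟩
    rw [this, Finset.sum_singleton]
  have hdc : ∑ k ∈ V, ∑ G ∈ (EI ∪ EB).filter (fun G => k ∈ M.side G), τ k G =
      ∑ G ∈ EI ∪ EB, ∑ k ∈ V.filter (fun k => k ∈ M.side G), τ k G := by
    simp only [Finset.sum_filter]
    exact Finset.sum_comm
  rw [Finset.sum_congr rfl hcell, Finset.sum_union hdisj, Finset.sum_congr rfl hI1, hEB2,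
    Finset.sum_pair hne, hB1 F hFB q hq hqA, hB1 F' hFB' q' hq' hqA'] at hdc
  simp only [Finset.sum_const, nsmul_eq_mul, mul_one, hcard, Nat.cast_add, Nat.cast_one] at hdc
  exact (add_left_cancel hdc).symm

variable (π : ι → ι') (hc : ∀ k w, ConnAt M (π ⁻¹' {k}) w)

/-- the sign of a merged cell at a face -/
noncomputable def epsm (O : Ori M) (k : ι') (F : Φ) : ZMod 2 :=
  if h : ∃ q, q ∈ M.side F ∧ π q = k then O.eps h.choose F else 0

theorem epsm_spec (O : Ori M) {k : ι'} {F : Φ} (h : k ∈ (M.side F).map π) :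
    ∃ q ∈ M.side F, π q = k ∧ epsm π O k F = O.eps q F := by
  have h' : ∃ q, q ∈ M.side F ∧ π q = k := by
    obtain ⟨q, h1, h2⟩ := mem_map_iff.1 h
    exact ⟨q, h1, h2⟩
  refine ⟨h'.choose, h'.choose_spec.1, h'.choose_spec.2, ?_⟩
  unfold epsm
  rw [dif_pos h']

/-- **the orientation of the merged mesh** -/
noncomputable def Ori.merge (O : Ori M) (opp : O.Opp) : Ori (mergeC M π hc) where
  dir := fun F w => O.dir F.1 w
  eps := fun k F => epsm π O k F.1
  comp := by
    intro k F F' w hk hk' hw hw' hne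
    obtain ⟨q, h1, h2, h3⟩ := epsm_spec π O hk
    obtain ⟨q', h1', h2', h3'⟩ := epsm_spec π O hk'
    have hbd : ∀ (G : {F : Φ // ¬ ((M.side F).map π).IsDiag}), ∃ r ∈ M.side G.1,
        r ∉ π ⁻¹' {k} := by
      intro G
      have h5 := G.2
      rw [map_isDiag_iff] at h5
      push Not at h5
      obtain ⟨x, hx, y, hy, hxy⟩ := h5
      by_cases hxk : π x = k
      · exact ⟨y, hy, fun h => hxy (hxk.trans h.symm)⟩
      · exact ⟨x, hx, hxk⟩
    rw [h3, h3']
    exact Ori.comp_merge opp (hc k w) hw hw' h1 h2 (hbd F) h1' h2' (hbd F')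
      (fun h => hne (Subtype.ext h))

theorem Ori.merge_opp (O : Ori M) (opp : O.Opp) : (O.merge π hc opp).Opp := by
  intro F k k' hk hk' hne
  obtain ⟨q, h1, h2, h3⟩ := epsm_spec π O hk
  obtain ⟨q', h1', h2', h3'⟩ := epsm_spec π O hk'
  show epsm π O k F.1 + epsm π O k' F.1 = 1
  rw [h3, h3']
  refine opp h1 h1' ?_
  rintro rfl
  exact hne (h2.symm.trans h2')

/-- parallel points of the merged mesh -/
def Par.merge {O : Ori M} (opp : O.Opp) {P : Set W} {n : W → ℕ} {R : W → W → Prop}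
    (p : Par M O P n R) : Par (mergeC M π hc) (O.merge π hc opp) P n R where
  c := p.c
  on := fun F hw hk => p.on F.1 hw hk
  inj := p.inj
  sep := fun {F} => p.sep (F := F.1)
  up := fun {F} => p.up (F := F.1)
  down := fun {F} => p.down (F := F.1)
  dir := fun {F} => p.dir (F := F.1)
  rel := p.rel

end merge

end Crest.Agent.R096.Cp_298
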