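import Crest.Agent.R096.Cp10_298

/-!
# R096 / COPY, part 14 (helper298): weighted numbers of points and numbers of levels

`wsum_levels` : if the names of the points of a state are (family, level), the weighted number of
the points in `A` is at most `∑' c, w c * ∑ t ∈ L c, #{y ∈ A | lv c y = t}`.
-/

set_option autoImplicit false

namespace Crest.Agent.R096.Cp_298
open Crest.Agent.R096.St_147 Crest.Agent.R096.Seq_213 Crest.Agent.R096.Seq_213.GSt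
open scoped ENNReal

variable {ι Φ W J C K : Type} {M : MeshC ι Φ W} {fam : J → C}

/-- the hypothesis `hκ` of `wseq` -/
theorem dlt_finite (Q : Quads ι C K) {κ : C → ℕ} (h : ∀ m, {c | κ c ≤ m}.Finite) (m : ℕ) :
    {k | dlt Q κ k = m}.Finite := by
  refine ((h m).biUnion (t := fun c => {k | Q.In k c}) fun c _ => Q.finK c).subset ?_
  intro k hk
  refine Set.mem_biUnion (x := Q.pr k true) ?_ ⟨true, rfl⟩
  show κ (Q.pr k true) ≤ m
  have hk' : dlt Q κ k = m := hk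
  rw [← hk']
  exact le_max_left _ _

theorem wsum_mono {s : GSt M fam} {w : C → ℝ≥0∞} {A B : Set W} (h : A ⊆ B) :
    wsum s w A ≤ wsum s w B := by
  refine wsum_le_of_finite fun F hF => ?_
  exact sum_le_wsum fun x hx => ⟨(hF x hx).1, h (hF x hx).2⟩

/-- **additivity over disjoint sets** -/
theorem sum_wsum_le {s : GSt M fam} {w : C → ℝ≥0∞} {κ : Type} (S : Finset κ) (A : κ → Set W)
    (hd : ∀ a ∈ S, ∀ b ∈ S, a ≠ b → Disjoint (A a) (A b)) {B : Set W}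
    (hB : ∀ a ∈ S, A a ⊆ B) : ∑ a ∈ S, wsum s w (A a) ≤ wsum s w B := by
  classical
  have h1 : ∑ a ∈ S, wsum s w (A a) =
      ∑' z : Σ a : S, {x : W // x ∈ s.P ∧ x ∈ A a.1}, w (fam (s.lab z.2.1)) := by
    rw [ENNReal.tsum_sigma', tsum_fintype]
    rw [← Finset.sum_coe_sort S (fun a => wsum s w (A a))]
    rfl
  rw [h1]
  let f : (Σ a : S, {x : W // x ∈ s.P ∧ x ∈ A a.1}) → {x : W // x ∈ s.P ∧ x ∈ B} := fun z =>
    ⟨z.2.1, z.2.2.1, hB z.1.1 z.1.2 z.2.2.2⟩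
  have hf : Function.Injective f := by
    rintro ⟨⟨a, ha⟩, x, hx, hxa⟩ ⟨⟨b, hb⟩, y, hy, hyb⟩ h
    have hxy : x = y := congrArg Subtype.val h
    subst hxy
    have hab : a = b := by
      by_contra hne
      exact Set.disjoint_left.1 (hd a ha b hb hne) hxa hyb
    subst hab
    rfl
  exact ENNReal.tsum_comp_le_tsum_of_injective hf (fun x => w (fam (s.lab x.1)))

/-- **points named by (family, level)** -/
theorem wsum_levels {s : GSt M fam} {w : C → ℝ≥0∞} {lv : C → W → ℝ} {t : J → ℝ}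
    (hinj : ∀ j j', fam j = fam j' → t j = t j' → j = j') {L : C → Finset ℝ}
    (hL : ∀ j, t j ∈ L (fam j)) (A : Set W)
    (hlev : ∀ x ∈ s.P, x ∈ A → lv (fam (s.lab x)) x = t (s.lab x)) : wsum s w A ≤
      ∑' c, w c * ∑ r ∈ L c, (({y ∈ A | lv c y = r}.encard : ℕ∞) : ℝ≥0∞) := by
  classical
  have h1 : (∑' c, w c * ∑ r ∈ L c, (({y ∈ A | lv c y = r}.encard : ℕ∞) : ℝ≥0∞)) =
      ∑' z : Σ c : C, Σ r : {r // r ∈ L c}, {y : W // y ∈ A ∧ lv c y = r.1}, w z.1 := by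
    rw [ENNReal.tsum_sigma']
    refine tsum_congr fun c => ?_
    rw [ENNReal.tsum_sigma', tsum_fintype, Finset.mul_sum,
      ← Finset.sum_coe_sort (L c) (fun r => w c * (({y ∈ A | lv c y = r}.encard : ℕ∞) : ℝ≥0∞))]
    refine Finset.sum_congr rfl fun r _ => ?_
    have h2 := ENNReal.tsum_set_const (s := {y ∈ A | lv c y = r.1}) (w c)
    rw [mul_comm, ← h2]
    rfl
  rw [h1]
  let f : {x : W // x ∈ s.P ∧ x ∈ A} →
      (Σ c : C, Σ r : {r // r ∈ L c}, {y : W // y ∈ A ∧ lv c y = r.1}) := fun x =>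
    ⟨fam (s.lab x.1), ⟨t (s.lab x.1), hL _⟩, x.1, x.2.2, hlev x.1 x.2.1 x.2.2⟩
  have hf : Function.Injective f := by
    rintro ⟨x, hx⟩ ⟨y, hy⟩ h
    have key : ∀ (c c' : C) (r : {r // r ∈ L c}) (r' : {r // r ∈ L c'})
        (u : {y : W // y ∈ A ∧ lv c y = r.1}) (u' : {y : W // y ∈ A ∧ lv c' y = r'.1}),
        (⟨c, r, u⟩ : Σ c : C, Σ r : {r // r ∈ L c}, {y : W // y ∈ A ∧ lv c y = r.1}) =
          ⟨c', r', u'⟩ → u.1 = u'.1 := by
      intro c c' r r' u u' he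
      obtain ⟨h3, h4⟩ := Sigma.mk.inj_iff.1 he
      subst h3
      obtain ⟨h5, h6⟩ := Sigma.mk.inj_iff.1 (eq_of_heq h4)
      subst h5
      rw [eq_of_heq h6]
    exact Subtype.ext (key _ _ _ _ _ _ h)
  exact ENNReal.tsum_comp_le_tsum_of_injective hf
    (fun z : Σ c : C, Σ r : {r // r ∈ L c}, {y : W // y ∈ A ∧ lv c y = r.1} => w z.1)

/-- **the weighted number as a finite real sum**: `pt` = the points of the state in `A` -/
theorem wsum_eq_sum {s : GSt M fam} {A : Set W} {I : Type} [Fintype I] (pt : I → W)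
    (hinj : Function.Injective pt) (hmem : ∀ x, pt x ∈ s.P ∧ pt x ∈ A)
    (hsur : ∀ w ∈ s.P, w ∈ A → ∃ x, pt x = w) (wt : C → ℝ) (hw : ∀ c, 0 ≤ wt c) :
    wsum s (fun c => ENNReal.ofReal (wt c)) A =
      ENNReal.ofReal (∑ x, wt (fam (s.lab (pt x)))) := by
  classical
  let e : I ≃ {x : W // x ∈ s.P ∧ x ∈ A} := Equiv.ofBijective (fun x => ⟨pt x, hmem x⟩)
    ⟨fun x y h => hinj (congrArg Subtype.val h), fun y => by
      obtain ⟨x, hx⟩ := hsur y.1 y.2.1 y.2.2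
      exact ⟨x, Subtype.ext hx⟩⟩
  unfold wsum
  rw [← e.tsum_eq, tsum_fintype, ENNReal.ofReal_sum_of_nonneg (fun x _ => hw _)]
  rfl

/-- the weights `2^(-κ)` as real numbers -/
theorem wgt_ofReal (κ : C → ℕ) : wgt κ = fun c => ENNReal.ofReal ((2 : ℝ)⁻¹ ^ κ c) := by
  funext c
  unfold wgt
  rw [ENNReal.ofReal_pow (by norm_num), ENNReal.ofReal_inv_of_pos (by norm_num),
    ENNReal.inv_pow]
  norm_num

/-- **WEIGHTS OF THE FINAL STATE ARE BOUNDED BY THE NUMBERS OF THE LEVELS.**  `s₀` initial state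
with names (family, level), `s` final state of `wseq`, `S` finite set of edges with pairwise
disjoint sets of points `A e ⊆ B`, `pt e` the points of the final state in `A e`. -/
theorem sum_wt_le {J1 : Type} {fam1 : J1 → C} {s₀ : GSt M fam} {s : GSt M fam1} {κ kap : C → ℕ}
    {Rel : W → W → Prop}
    (hwt : ∀ E : Set W, (∀ x y, Rel x y → (x ∈ E ↔ y ∈ E)) →
      wsum s (wgt kap) E ≤ wsum s₀ (wgt κ) E)
    {lv : C → W → ℝ} {t : J → ℝ} (hinj : ∀ j j', fam j = fam j' → t j = t j' → j = j')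
    {L : C → Finset ℝ} (hL : ∀ j, t j ∈ L (fam j)) {B : Set W}
    (hlev : ∀ x ∈ s₀.P, x ∈ B → lv (fam (s₀.lab x)) x = t (s₀.lab x))
    {κ' : Type} (S : Finset κ') (A : κ' → Set W)
    (hd : ∀ a ∈ S, ∀ b ∈ S, a ≠ b → Disjoint (A a) (A b))
    (hsat : ∀ a ∈ S, ∀ x y, Rel x y → (x ∈ A a ↔ y ∈ A a)) (hB : ∀ a ∈ S, A a ⊆ B)
    (I : κ' → Type) [∀ a, Fintype (I a)] (pt : ∀ a, I a → W)
    (hpi : ∀ a ∈ S, Function.Injective (pt a)) (hpm : ∀ a ∈ S, ∀ x, pt a x ∈ s.P ∧ pt a x ∈ A a)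
    (hps : ∀ a ∈ S, ∀ w ∈ s.P, w ∈ A a → ∃ x, pt a x = w) :
    ENNReal.ofReal (∑ a ∈ S, ∑ x, (2 : ℝ)⁻¹ ^ kap (fam1 (s.lab (pt a x)))) ≤
      ∑' c, ENNReal.ofReal ((2 : ℝ)⁻¹ ^ κ c) *
        ∑ r ∈ L c, (({y ∈ B | lv c y = r}.encard : ℕ∞) : ℝ≥0∞) := by
  have h0 : ∀ n : ℕ, (0 : ℝ) ≤ (2 : ℝ)⁻¹ ^ n := fun n => by positivity
  rw [ENNReal.ofReal_sum_of_nonneg (fun a _ => Finset.sum_nonneg fun x _ => h0 _)]
  calc ∑ a ∈ S, ENNReal.ofReal (∑ x, (2 : ℝ)⁻¹ ^ kap (fam1 (s.lab (pt a x))))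
      = ∑ a ∈ S, wsum s (wgt kap) (A a) := by
        refine Finset.sum_congr rfl fun a ha => ?_
        rw [wgt_ofReal]
        exact (wsum_eq_sum (pt a) (hpi a ha) (hpm a ha) (hps a ha)
          (fun c => (2 : ℝ)⁻¹ ^ kap c) (fun c => h0 _)).symm
    _ ≤ ∑ a ∈ S, wsum s₀ (wgt κ) (A a) := Finset.sum_le_sum fun a ha => hwt _ (hsat a ha)
    _ ≤ wsum s₀ (wgt κ) B := sum_wsum_le S A hd hB
    _ ≤ _ := by
        rw [wgt_ofReal]
        exact wsum_levels hinj hL B hlev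

end Crest.Agent.R096.Cp_298
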