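import Crest.Agent.R096.Gau2_812

/-!
# Row 96, 2SK for tiles (helper812), part 4: the box of a good level, with `a < s < b` (for p = 2)
-/

set_option autoImplicit false
set_option linter.unusedSectionVars false

open Set Metric

namespace Crest.Agent.R096.Sk3_812

open Crest.Agent.R096.Msh_715
open Crest.Agent.R096.Ce_537
open Crest.Agent.R096.Sk2_855
open Crest.Agent.R096.Ub_113
open Crest.Agent.R096.Sk3_270 (One exists_min)

variable {E : Type} [NormedAddCommGroup E] [NormedSpace ℝ E] [FiniteDimensional ℝ E]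
  {Om La : Set E} {ι : Type*} {T : Tiling Om ι} {i : ι}
  {f fi : E → E} {u : E → ℝ} {C : E} {a b : ℝ}

/-- **the box of a good level**, with the level strictly inside the interval -/
theorem GoodT.box2 (h3 : Module.finrank ℝ E = 3) (Q : GoodT T La f i u C a b) (F : HF Om La f fi)
    {s : ℝ} (hs : s ∈ GLv T f i u a b) {ζ : ℝ} (hζ : 0 < ζ) :
    ∃ (B : UBox T La) (η : ℝ), 0 < η ∧ B.u = u ∧ s - ζ ≤ B.a ∧ B.a < s ∧ s < B.b ∧ B.b ≤ s + ζ ∧
    B.Y ⊆ {y | u y ≤ b} ∧ (∀ k, ∃ x ∈ sk1 T, u (f x) = s ∧ B.M k ⊆ closedBall (f x) ζ) ∧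
    ∀ h : E → E, (∀ x ∈ Om, ‖h x - f x‖ ≤ η) → B.Ok h ∧
      ∀ x ∈ Om, T.dim x = 2 → T.cc x ⊆ P (T.H i) →
        B.NC x ∧ ∀ z ∈ T.cc x, z ∈ sk1 T → u (h z) < B.a := by
  have hsI : s ∈ Ioo a b := hs.1
  have hs0 : 0 < s := Q.a0.trans hsI.1
  choose x hx hxs using fun k : KT T i => Q.exists_x F hsI k
  obtain ⟨ω3, ω3p, hω3⟩ := c3 F hx
  obtain ⟨ω2, ω2p, hω2⟩ := Q.c2 F hsI hx hxs
  obtain ⟨L, hL, hlip⟩ := Q.ug.lip
  -- the size of the marks
  set ε := min ζ (min (ω2 / 2) (ω3 / 2)) with hε
  have εp : 0 < ε := by positivity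
  have ε1 : ε ≤ ζ := min_le_left _ _
  have ε2 : ε ≤ ω2 / 2 := (min_le_right _ _).trans (min_le_left _ _)
  have ε3 : ε ≤ ω3 / 2 := (min_le_right _ _).trans (min_le_right _ _)
  choose ω hω w1 hw1 hpos hsmall using fun k : KT T i =>
    Q.ug.exists_Mk (y0 := f (x k)) (by rw [hxs]; exact hs0) εp
  obtain ⟨w2, w2p, hw2⟩ := exists_min w1 hw1
  obtain ⟨ω0, ω0p, hω0⟩ := exists_min ω hω
  obtain ⟨w3, w3p, hw3⟩ := Q.c1 F hs hx hxs (ω := fun k => ω k / 2) fun k => by
    have := hω k
    positivity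
  set w := min (min w2 (w3 / 2)) (min ζ (min ((s - a) / 4) ((b - s) / 4))) with hw
  have hsa : 0 < s - a := sub_pos.2 hsI.1
  have hsb : 0 < b - s := sub_pos.2 hsI.2
  have wp : 0 < w := by positivity
  have wa : w ≤ w2 := (min_le_left _ _).trans (min_le_left _ _)
  have wb : w ≤ w3 / 2 := (min_le_left _ _).trans (min_le_right _ _)
  have wc : w ≤ ζ := (min_le_right _ _).trans (min_le_left _ _)
  have wd : w ≤ (s - a) / 4 := (min_le_right _ _).trans ((min_le_right _ _).trans (min_le_left _ _))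
  have we : w ≤ (b - s) / 4 := (min_le_right _ _).trans ((min_le_right _ _).trans (min_le_right _ _))
  set η := min (w / L) (min (ω0 / 2) ε) with hη
  have ηp : 0 < η := by positivity
  have ηa : L * η ≤ w := by
    have : η ≤ w / L := min_le_left _ _
    calc L * η ≤ L * (w / L) := mul_le_mul_of_nonneg_left this hL.le
      _ = w := mul_div_cancel₀ _ hL.ne'
  have ηb : η ≤ ω0 / 2 := (min_le_right _ _).trans (min_le_left _ _)
  have ηc : η ≤ ε := (min_le_right _ _).trans (min_le_right _ _)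
  have hMs : ∀ k, Mk u C (f (x k)) (ω k) (s - w) (s + w) ⊆ closedBall (f (x k)) ε := by
    intro k
    refine hsmall k _ _ ?_ ?_
    · rw [hxs]; linarith [hw2 k]
    · rw [hxs]; linarith [hw2 k]
  have hsw : 0 ≤ s - w := by
    have := Q.a0
    linarith
  let B : UBox T La :=
    { u := u
      cont := Q.ug.cont
      pl := Q.ug.pl
      a := s - w
      b := s + w
      ab := by linarith
      cpt := Q.ug.cpt _
      ball := fun t ht => by
        have h1 := Q.ug.ball t (lt_of_le_of_lt hsw ht.1)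
        rwa [h3] at h1
      sub := fun y hy => Q.sub y (hy.trans (by linarith))
      K := KT T i
      fin := inferInstance
      e := fun k => k.1.pt
      eOm := fun k => k.eOm
      edim := fun k => k.edim
      einj := fun k k' h => KT.inj h
      M := fun k => Mk u C (f (x k)) (ω k) (s - w) (s + w)
      Mc := fun k => Q.ug.isCompact_Mk (hpos k)
      Mdisj := fun k k' hne => by
        rw [Set.disjoint_left]
        intro z hz hz'
        have h1 := hω3 k k' hne
        have h4 := hMs k hz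
        have h5 := hMs k' hz'
        rw [mem_closedBall, dist_eq_norm] at h4 h5
        have h2 : ‖f (x k) - f (x k')‖ ≤ ε + ε := by
          have e : f (x k) - f (x k') = (z - f (x k')) - (z - f (x k)) := by abel
          rw [e]
          exact (norm_sub_le _ _).trans (add_le_add h5 h4)
        linarith
      Mlev := fun k t ht => Q.ug.Mk_level hsw (hpos k) ht (hω k).le
      two := Q.tg.two
      conn := Q.tg.conn }
  refine ⟨B, η, ηp, rfl, ?_, by show s - w < s; linarith, by show s < s + w; linarith, ?_, ?_, ?_, ?_⟩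
  · show s - ζ ≤ s - w
    linarith
  · show s + w ≤ s + ζ
    linarith
  · intro y (hy : u y ≤ s + w)
    show u y ≤ b
    linarith
  · intro k
    exact ⟨x k, cc_sub_sk1 k.eOm k.edim (T.oc_sub_cc _ (hx k)), hxs k,
      (hMs k).trans (closedBall_subset_closedBall ε1)⟩
  · intro h hh
    have hcmp : ∀ z ∈ Om, |u (h z) - u (f z)| ≤ w := fun z hz =>
      (hlip _ _).trans ((mul_le_mul_of_nonneg_left (hh z hz) hL.le).trans ηa)
    refine ⟨⟨fun z hz hsh => ?_, fun k => ?_, fun z hz _ hn k => ?_⟩, fun z hz hd hF => ⟨?_, ?_⟩⟩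
    · -- edges
      have h1 : s - w ≤ u (h z) := hsh.1
      have h2 : u (h z) ≤ s + w := hsh.2
      have h4 := abs_le.1 (hcmp z hz.1)
      have h5 : |u (f z) - s| ≤ w3 := by
        rw [abs_le]
        constructor <;> linarith [h4.1, h4.2]
      have h6 := Q.loc z hz (by linarith [h4.2]) (by linarith [h4.1])
      obtain ⟨k, hk⟩ := exists_KT h6
      refine ⟨k, hk, ?_⟩
      have h7 := hw3 k z (T.oc_sub_cc _ hk) h5
      refine mem_Mk ?_ (hpos k) h1 h2
      rw [mem_closedBall, dist_eq_norm]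
      have e1 : h z - f (x k) = (h z - f z) + (f z - f (x k)) := by abel
      rw [e1]
      refine (norm_add_le _ _).trans ?_
      linarith [hh z hz.1, hω0 k]
    · -- ends
      obtain ⟨v, hv, v', hv', dv, dv', hvi, hvi'⟩ := crs_ends k.crs
      refine ⟨v, hv, v', hv', dv, dv', ?_, ?_⟩
      · have h1 := Q.inn v (cc_sub_sk1 k.eOm k.edim hv) hvi
        have h4 := abs_le.1 (hcmp v (T.cc_sub_Om k.eOm hv))
        show u (h v) < s - w
        linarith [h4.2]
      · have h1 := Q.outv _ k.crs v' hv' dv' hvi'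
        have h4 := abs_le.1 (hcmp v' (T.cc_sub_Om k.eOm hv'))
        show s + w < u (h v')
        linarith [h4.1]
    · -- faces
      rw [Set.disjoint_left]
      rintro _ ⟨y, hy, rfl⟩ hyM
      have h1 := hω2 k z hz hn y hy
      have h2 := hMs k hyM
      rw [mem_closedBall, dist_eq_norm] at h2
      have h4 := hh y (T.cc_sub_Om hz hy)
      have h5 : ‖f y - f (x k)‖ ≤ ‖h y - f (x k)‖ + ‖h y - f y‖ := by
        have e1 : f y - f (x k) = (h y - f (x k)) - (h y - f y) := by abel
        rw [e1]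
        exact norm_sub_le _ _
      linarith
    · intro k hk
      exact k.crs.2.2.1 (hF hk)
    · intro y hy hy1
      have h1 := Q.inn y hy1 (hF hy)
      have h4 := abs_le.1 (hcmp y (T.cc_sub_Om hz hy))
      show u (h y) < s - w
      linarith [h4.2]

end Crest.Agent.R096.Sk3_812
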