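import Crest.Agent.R096.Cb6_609

/-!
# R096 (row 96), 2SK-SURG, part 1: innermost circles on a PL 2-sphere (helper465)

* `Side K Z D Γ`: `D` is one of the two discs cut off the sphere `Z = ∂K` by the circle `Γ`.
* `Side.split`: a preconnected set of `Z` which misses `Γ` is on one side.
* `exists_innermost`: in a finite family of disjoint circles, inside a given side of one of them
  there is a side which meets no other circle of the family.
-/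

set_option autoImplicit false
set_option linter.unusedSectionVars false

open Set Metric

namespace Crest.Agent.R096.Srg_465

open Ce_537 Pl Cb_609

variable {E : Type*} [NormedAddCommGroup E] [NormedSpace ℝ E]

/-- `D` is a side of the circle `Γ` on the sphere `Z = ∂K`. -/
def Side (K Z D Γ : Set E) : Prop := ∃ D', BallPair 2 K D D' Γ ∧ D ∪ D' = Z

theorem Side.isBall {K Z D Γ : Set E} (h : Side K Z D Γ) : IsBall 2 D Γ := by
  obtain ⟨D', h1, -⟩ := h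
  exact h1.ball₁

theorem Side.sub {K Z D Γ : Set E} (h : Side K Z D Γ) : D ⊆ Z := by
  obtain ⟨D', -, h1⟩ := h
  rw [← h1]; exact subset_union_left

theorem Side.other {K Z D Γ : Set E} (h : Side K Z D Γ) :
    ∃ D', Side K Z D' Γ ∧ D ∪ D' = Z ∧ D ∩ D' = Γ := by
  obtain ⟨D', h1, h2⟩ := h
  exact ⟨D', ⟨D, h1.symm, by rw [union_comm]; exact h2⟩, h2, h1.inter⟩

/-- a preconnected subset of `Z` missing `Γ` lies on one side -/
theorem split_of_union {D D' Z Γ C : Set E} (hD : IsClosed D) (hD' : IsClosed D')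
    (hU : D ∪ D' = Z) (hi : D ∩ D' = Γ) (hC : IsPreconnected C) (hCZ : C ⊆ Z)
    (hΓ : Disjoint C Γ) : (C ⊆ D ∧ Disjoint C D') ∨ (C ⊆ D' ∧ Disjoint C D) := by
  have hdis : C ∩ (D ∩ D') = ∅ := by rw [hi]; exact hΓ.inter_eq
  rcases isPreconnected_iff_subset_of_disjoint_closed.1 hC D D' hD hD'
    (by rw [hU]; exact hCZ) hdis with h | h
  · refine Or.inl ⟨h, ?_⟩
    rw [disjoint_left]
    intro x hx hx'
    exact (eq_empty_iff_forall_notMem.1 hdis) x ⟨hx, h hx, hx'⟩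
  · refine Or.inr ⟨h, ?_⟩
    rw [disjoint_left]
    intro x hx hx'
    exact (eq_empty_iff_forall_notMem.1 hdis) x ⟨hx, hx', h hx⟩

theorem Side.split {K Z D Γ C : Set E} (h : Side K Z D Γ) (hC : IsPreconnected C) (hCZ : C ⊆ Z)
    (hΓ : Disjoint C Γ) : C ⊆ D \ Γ ∨ Disjoint C D := by
  obtain ⟨D', h1, h2, h3⟩ := h.other
  rcases split_of_union h.isBall.isClosed h1.isBall.isClosed h2 h3 hC hCZ hΓ with h4 | h4
  · exact Or.inl fun x hx => ⟨h4.1 hx, disjoint_left.1 hΓ hx⟩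
  · exact Or.inr h4.2

/-- circles are preconnected -/
theorem isPreconnected_of_disc {D Γ : Set E} (h : IsBall 2 D Γ) : IsPreconnected Γ := by
  obtain ⟨c⟩ := circle_of_disc h
  rw [← c.image_eq]
  refine IsPreconnected.image ?_ _ c.pf.1
  have hS : S1 ℝ = th '' Icc 0 4 := th_image.symm
  rw [hS]
  exact isPreconnected_Icc.image _ th_pl.continuous.continuousOn

theorem nonempty_of_disc {D Γ : Set E} (h : IsBall 2 D Γ) : Γ.Nonempty := by
  obtain ⟨c⟩ := circle_of_disc h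
  exact ⟨c.f (1, 0), c.mf (by rw [mem_S1_real]; norm_num)⟩

/-- two sides of disjoint circles: if `Γ' ⊆ D \ Γ` there is a side `D''` of `Γ'` inside `D \ Γ` -/
theorem Side.sub_side {K Z D Γ Γ' : Set E} (hK : IsBall 3 K Z) (h : Side K Z D Γ)
    (hc : Nonempty (PLEquiv (S1 ℝ) Γ')) (hsub : Γ' ⊆ D \ Γ) :
    ∃ D'', Side K Z D'' Γ' ∧ D'' ⊆ D \ Γ := by
  obtain ⟨A, B, h1, h2⟩ := sphere_sides hK hc (fun x hx => h.sub (hsub hx).1)
  have hA : Side K Z A Γ' := ⟨B, h1, h2⟩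
  have hB : Side K Z B Γ' := ⟨A, h1.symm, by rw [union_comm]; exact h2⟩
  have hΓpre := isPreconnected_of_disc h.isBall
  have hΓΓ' : Disjoint Γ Γ' := by
    rw [disjoint_left]
    intro x hx hx'
    exact (hsub hx').2 hx
  have key : ∀ {A : Set E}, Side K Z A Γ' → Disjoint Γ A → A ⊆ D \ Γ := by
    intro A hA hd
    have hpre : IsPreconnected A := hA.isBall.isPreconnected
    rcases h.split hpre hA.sub hd.symm with h3 | h3
    · exact h3
    · exfalso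
      obtain ⟨x, hx⟩ := nonempty_of_disc hA.isBall
      exact disjoint_left.1 h3 (hA.isBall.subset hx) (hsub hx).1
  rcases split_of_union hA.isBall.isClosed hB.isBall.isClosed h2 h1.inter hΓpre
    (h.isBall.subset.trans h.sub) hΓΓ' with h4 | h4
  · exact ⟨B, hB, key hB h4.2⟩
  · exact ⟨A, hA, key hA h4.2⟩

/-- **innermost circle** -/
theorem exists_innermost {K Z : Set E} (hK : IsBall 3 K Z) {𝒞 : Set (Set E)} (hfin : 𝒞.Finite)
    (hcirc : ∀ Γ ∈ 𝒞, Nonempty (PLEquiv (S1 ℝ) Γ)) (hZ : ∀ Γ ∈ 𝒞, Γ ⊆ Z)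
    (hdis : ∀ Γ ∈ 𝒞, ∀ Γ' ∈ 𝒞, Γ ≠ Γ' → Disjoint Γ Γ') :
    ∀ n : ℕ, ∀ Γ ∈ 𝒞, ∀ D, Side K Z D Γ → {Γ' | Γ' ∈ 𝒞 ∧ Γ' ⊆ D \ Γ}.ncard ≤ n →
      ∃ Γ₁ ∈ 𝒞, ∃ D₁, Side K Z D₁ Γ₁ ∧ D₁ ⊆ D ∧ ∀ Γ' ∈ 𝒞, Γ' ≠ Γ₁ → Disjoint D₁ Γ' := by
  intro n
  induction n with
  | zero =>
    intro Γ hΓ D hD hn
    have hfin' : {Γ' | Γ' ∈ 𝒞 ∧ Γ' ⊆ D \ Γ}.Finite := hfin.subset fun _ h => h.1
    have hemp : {Γ' | Γ' ∈ 𝒞 ∧ Γ' ⊆ D \ Γ} = ∅ := by
      rw [← Set.ncard_eq_zero hfin']; omega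
    refine ⟨Γ, hΓ, D, hD, Subset.rfl, fun Γ' hΓ' hne => ?_⟩
    have hpre : IsPreconnected Γ' := by
      obtain ⟨c⟩ := hcirc Γ' hΓ'
      rw [← c.image_eq]
      refine IsPreconnected.image ?_ _ c.pf.1
      rw [← th_image]
      exact isPreconnected_Icc.image _ th_pl.continuous.continuousOn
    rcases hD.split hpre (hZ Γ' hΓ') (hdis Γ' hΓ' Γ hΓ hne) with h1 | h1
    · exfalso
      have : Γ' ∈ {Γ' | Γ' ∈ 𝒞 ∧ Γ' ⊆ D \ Γ} := ⟨hΓ', h1⟩
      rw [hemp] at this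
      exact this
    · exact h1.symm
  | succ n ih =>
    intro Γ hΓ D hD hn
    by_cases hex : ∃ Γ' ∈ 𝒞, Γ' ⊆ D \ Γ
    · obtain ⟨Γ', hΓ', hsub⟩ := hex
      obtain ⟨D'', hD'', hsub''⟩ := hD.sub_side hK (hcirc Γ' hΓ') hsub
      have hlt : {Γ₂ | Γ₂ ∈ 𝒞 ∧ Γ₂ ⊆ D'' \ Γ'}.ncard < {Γ' | Γ' ∈ 𝒞 ∧ Γ' ⊆ D \ Γ}.ncard := by
        apply Set.ncard_lt_ncard _ (hfin.subset fun _ h => h.1)
        rw [ssubset_iff_subset_not_subset]
        refine ⟨fun Γ₂ h2 => ⟨h2.1, h2.2.trans (sdiff_subset.trans hsub'')⟩, fun hcon => ?_⟩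
        have h3 := hcon (show Γ' ∈ {Γ' | Γ' ∈ 𝒞 ∧ Γ' ⊆ D \ Γ} from ⟨hΓ', hsub⟩)
        obtain ⟨x, hx⟩ := nonempty_of_disc hD''.isBall
        exact (h3.2 hx).2 hx
      obtain ⟨Γ₁, h1, D₁, h2, h3, h4⟩ := ih Γ' hΓ' D'' hD'' (by omega)
      exact ⟨Γ₁, h1, D₁, h2, h3.trans (hsub''.trans sdiff_subset), h4⟩
    · push Not at hex
      refine ⟨Γ, hΓ, D, hD, Subset.rfl, fun Γ' hΓ' hne => ?_⟩
      have hpre : IsPreconnected Γ' := by
        obtain ⟨c⟩ := hcirc Γ' hΓ'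
        rw [← c.image_eq]
        refine IsPreconnected.image ?_ _ c.pf.1
        rw [← th_image]
        exact isPreconnected_Icc.image _ th_pl.continuous.continuousOn
      rcases hD.split hpre (hZ Γ' hΓ') (hdis Γ' hΓ' Γ hΓ hne) with h1 | h1
      · exact absurd h1 (hex Γ' hΓ')
      · exact h1.symm

end Crest.Agent.R096.Srg_465
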