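import Crest.Agent.R096.Ptc1_160
import Crest.Agent.R096.Srg1_465

/-!
# P2-PATCH for `Side`: a side of a small circle which misses the marks is small
-/

set_option autoImplicit false

open Set Metric

namespace Crest.Agent.R096.Ptc_160

variable {E : Type*} [NormedAddCommGroup E] [NormedSpace ℝ E]

/-- The constant of P2-PATCH. -/
noncomputable def Cp (r R : ℝ) : ℝ := 8 * (1 + R / r)

theorem side_sub {u : E → ℝ} {t : ℝ} {y : E} {ρ ρ' : ℝ} {S D Γ X : Set E}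
    (hS : IsPreconnected S) (hS1 : S ⊆ {z | u z = t} \ closedBall y ρ)
    (hS2 : {z | u z = t} \ closedBall y ρ' ⊆ S)
    (hD : Srg_465.Side {z | u z ≤ t} {z | u z = t} D Γ) (hΓ : Γ ⊆ closedBall y ρ)
    (hX : (X ∩ ({z | u z = t} \ closedBall y ρ')).Nonempty) (hd : Disjoint D X) :
    D ⊆ closedBall y ρ' := by
  have hSΓ : Disjoint S Γ := by
    rw [disjoint_left]
    intro z hz hz'
    exact (hS1 hz).2 (hΓ hz')
  rcases hD.split hS (fun z hz => (hS1 hz).1) hSΓ with h | h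
  · obtain ⟨x, hx, hx'⟩ := hX
    exact absurd hx (disjoint_left.1 hd (h (hS2 hx')).1)
  · intro z hz
    by_contra hz'
    exact disjoint_left.1 h (hS2 ⟨hD.sub hz, hz'⟩) hz

/-- **(P) of 753 #10187, one ball, one level.** -/
theorem side_sub_ball (hrank : 1 < Module.rank ℝ E) {u : E → ℝ} (hu : Continuous u)
    (hc : ConvexOn ℝ univ u) {o : E} {t r R : ℝ} (ho : u o < t) (hr : 0 < r)
    (h1 : ball o r ⊆ {y | u y ≤ t}) (h2 : {y | u y ≤ t} ⊆ closedBall o R) {y : E} {ρ : ℝ}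
    (hρ : 0 < ρ) {D Γ X : Set E} (hD : Srg_465.Side {z | u z ≤ t} {z | u z = t} D Γ)
    (hΓ : Γ ⊆ closedBall y ρ) (hX : ∃ x ∈ X, u x = t ∧ x ∉ closedBall y (Cp r R * ρ))
    (hd : Disjoint D X) : D ⊆ closedBall y (Cp r R * ρ) := by
  obtain ⟨S, h3, h4, h5⟩ := patch hrank hu hc ho hr h1 h2 y hρ
  obtain ⟨x, hx, hx1, hx2⟩ := hX
  exact side_sub h3 h4 h5 hD hΓ ⟨x, hx, hx1, hx2⟩ hd

/-- **(P) of 753 #10187 for all levels of an interval**: constants from `{u ≤ a}` and `{u ≤ b}`.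
`hX`: at every level there are two marked points at distance `> 2 C ρ` (so one of them is outside
the patch). -/
theorem side_sub_patch (hrank : 1 < Module.rank ℝ E) {u : E → ℝ} (hu : Continuous u)
    (hc : ConvexOn ℝ univ u) {o : E} {a b r R : ℝ} (ho : u o ≤ a) (hr : 0 < r)
    (h1 : ball o r ⊆ {y | u y ≤ a}) (h2 : {y | u y ≤ b} ⊆ closedBall o R) {y : E} {ρ : ℝ}
    (hρ : 0 < ρ) {X : ℝ → Set E}
    (hX : ∀ t ∈ Ioo a b, ∃ x ∈ X t, ∃ x' ∈ X t, u x = t ∧ u x' = t ∧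
      2 * (Cp r R * ρ) < dist x x') :
    ∀ t ∈ Ioo a b, ∀ D Γ, Srg_465.Side {z | u z ≤ t} {z | u z = t} D Γ →
      Γ ⊆ closedBall y ρ → Disjoint D (X t) → D ⊆ closedBall y (Cp r R * ρ) := by
  intro t ht D Γ hD hΓ hd
  refine side_sub_ball hrank hu hc (lt_of_le_of_lt ho ht.1) hr
    (fun z hz => (h1 hz : u z ≤ a).trans ht.1.le) (fun z hz => h2 ((hz : u z ≤ t).trans ht.2.le))
    hρ hD hΓ ?_ hd
  obtain ⟨x, hx, x', hx', hxt, hxt', hdist⟩ := hX t ht
  by_cases hxy : x ∈ closedBall y (Cp r R * ρ)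
  · refine ⟨x', hx', hxt', fun h => ?_⟩
    rw [mem_closedBall] at hxy h
    have := dist_triangle_right x x' y
    linarith
  · exact ⟨x, hx, hxt, hxy⟩

end Crest.Agent.R096.Ptc_160
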