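import Crest.Agent.R096.P2l7_565
import Crest.Agent.R096.Gau4_812
import Crest.Agent.R096.Ptc2_160
import Crest.Agent.R096.Fce5_793

/-!
# Row 96 (S0127), p = 2 (helper565), part 8: `One2` from 812's `GoodT` and the face data
-/

set_option autoImplicit false
set_option linter.unusedSectionVars false

open Set Metric MeasureTheory Module

namespace Crest.Agent.R096.P2l_565

open Msh_715
open Sk2_855 (sk1 HP Mv)
open Ub_113 (UBox)
open Pst_465
open Sk3_812 (GoodT HF GLv)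
open Ptc_160 (Cp)

/-- the 2-cells contained in a tile -/
def cells2 {E : Type*} [NormedAddCommGroup E] [NormedSpace ℝ E] {Om : Set E} {ι : Type*}
    (T : Tiling Om ι) (i : ι) : Set (Set E) :=
  {K | ∃ x ∈ Om, T.dim x = 2 ∧ T.cc x ⊆ P (T.H i) ∧ K = T.cc x}

theorem finite_cells2 {E : Type*} [NormedAddCommGroup E] [NormedSpace ℝ E] {Om : Set E}
    {ι : Type*} (T : Tiling Om ι) (i : ι) : (cells2 T i).Finite := by
  refine (T.finite_cells (T.cpt i) (T.sub i)).subset ?_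
  rintro _ ⟨x, hx, -, hsub, rfl⟩
  exact ⟨⟨x, hx, rfl⟩, x, T.self_mem_cc x, hsub (T.self_mem_cc x)⟩

/-- representatives of the 2-cells of a tile -/
theorem exists_reps {E : Type*} [NormedAddCommGroup E] [NormedSpace ℝ E] {Om : Set E}
    {ι : Type*} (T : Tiling Om ι) (i : ι) :
    ∃ Fs : Finset E, Fs.card ≤ (cells2 T i).ncard ∧
      (∀ x ∈ Fs, x ∈ Om ∧ T.dim x = 2 ∧ T.cc x ⊆ P (T.H i)) ∧
      ∀ x ∈ Om, T.dim x = 2 → T.cc x ⊆ P (T.H i) → ∃ y ∈ Fs, T.cc y = T.cc x := by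
  classical
  have hfin := finite_cells2 T i
  choose! rep h1 h2 h3 h4 using fun K (hK : K ∈ cells2 T i) => hK
  refine ⟨hfin.toFinset.image rep, ?_, ?_, ?_⟩
  · rw [Set.ncard_eq_toFinset_card _ hfin]
    exact Finset.card_image_le
  · intro x hx
    obtain ⟨K, hK, rfl⟩ := Finset.mem_image.1 hx
    rw [Set.Finite.mem_toFinset] at hK
    exact ⟨h1 K hK, h2 K hK, h3 K hK⟩
  · intro x hx hd hsub
    have hK : T.cc x ∈ cells2 T i := ⟨x, hx, hd, hsub, rfl⟩
    exact ⟨rep (T.cc x), Finset.mem_image.2 ⟨_, hfin.mem_toFinset.2 hK, rfl⟩, (h4 _ hK).symm⟩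

section Main

variable {E : Type} [NormedAddCommGroup E] [NormedSpace ℝ E] [FiniteDimensional ℝ E]
  {Om La : Set E} {ι : Type*} {T : Tiling Om ι} {i : ι}
  {f fi : E → E} {u : E → ℝ} {C : E} {a b : ℝ}

/-- **`One2` from a good tile and its faces** -/
theorem exists_one2 (h3 : finrank ℝ E = 3) (Q : GoodT T La f i u C a b) (F : HF Om La f fi)
    {L : ℝ} (hL : 0 ≤ L) (lip : ∀ y z, |u y - u z| ≤ L * dist y z)
    {t0 tm th t1 : ℝ} (h0 : a ≤ t0) (hmh : tm ≤ th) (hht : th ≤ t1) (h1 : t1 ≤ b)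
    {θ0 : ℝ} (hθ0 : 0 ≤ θ0)
    (bad0 : volume (Ioo t0 tm \ GLv T f i u a b) ≤ ENNReal.ofReal θ0)
    {r R : ℝ} (hr : 0 < r) (hR : 0 ≤ R) (hin : ball C r ⊆ {y | u y ≤ t0})
    (hout : {y | u y ≤ tm} ⊆ closedBall C R) {θf σf : ℝ} (hθf : 0 ≤ θf) (hσf : 0 ≤ σf)
    (hsc : ∀ x ∈ Om, T.dim x = 2 → T.cc x ⊆ P (T.H i) →
      ∃ Bad : Set ℝ, MeasurableSet Bad ∧ volume Bad ≤ ENNReal.ofReal θf ∧
        ∀ ts ∈ Ioo t0 tm, ts ∉ Bad → ∃ (n : ℕ) (y : Fin n → E) (ρ : Fin n → ℝ),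
          (∀ m, 0 < ρ m) ∧ ∑ m, ρ m ≤ σf ∧ ∃ η > 0, Cov (T.cc x) f u th ts n y ρ η)
    {D0 : ℝ} (spread : ∀ s ∈ Ioo t0 tm, ∃ x1 ∈ sk1 T, ∃ x2 ∈ sk1 T, u (f x1) = s ∧
      u (f x2) = s ∧ D0 ≤ dist (f x1) (f x2))
    {nF : ℕ} (hnF : (cells2 T i).ncard ≤ nF) (hD0 : 2 * (Cp r R * (nF * σf)) < D0) :
    ∃ O : One2 T La f (P (T.H i)) {y | u y ≤ b}, O.u = u ∧ O.L = L ∧ O.t0 = t0 ∧ O.tm = tm ∧
      O.th = th ∧ O.t1 = t1 ∧ O.θ0 = θ0 ∧ O.C = Cp r R ∧ O.θf = θf ∧ O.σf = σf ∧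
      O.Fs.card ≤ nF := by
  obtain ⟨Fs, hcard, hFs, hrep⟩ := exists_reps T i
  have hrank : 1 < Module.rank ℝ E := by
    rw [← Module.finrank_eq_rank, h3]
    norm_num
  have hu0 : u C = 0 := by
    have := Q.ug.hom 0 le_rfl C
    simpa using this
  have hCp : 0 < Cp r R := by
    unfold Cp
    positivity
  have hc : (Fs.card : ℝ) ≤ nF := by exact_mod_cast hcard.trans hnF
  refine ⟨{ u := u
            cont := Q.ug.cont
            L := L
            L0 := hL
            lip := lip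
            t0 := t0
            tm := tm
            th := th
            t1 := t1
            mh := hmh
            ht := hht
            sub1 := fun y hy => le_trans hy h1
            G := GLv T f i u a b
            θ0 := θ0
            θ00 := hθ0
            bad0 := bad0
            fin := fun s hs => Q.fin hs
            box := fun s hs _ ζ hζ => by
              obtain ⟨B, η, g1, g2, g3, g4, g5, g6, -, g7, g8⟩ := Q.box2 h3 F hs hζ
              exact ⟨B, η, g1, g2, g3, g4, g5, g6, g7, g8⟩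
            C := Cp r R
            C0 := hCp
            patch := fun t ht y ρ hρ => by
              refine Ptc_160.patch hrank Q.ug.cont Q.ug.cvx (o := C) ?_ hr
                (fun z hz => le_trans (hin hz) ht.1.le) (fun z hz => hout (le_trans hz ht.2.le))
                y hρ
              rw [hu0]
              linarith [Q.a0, ht.1]
            Fs := Fs
            rep := hrep
            θf := θf
            σf := σf
            θf0 := hθf
            σf0 := hσf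
            sc := fun x hx => hsc x (hFs x hx).1 (hFs x hx).2.1 (hFs x hx).2.2
            D0 := D0
            spread := fun s _ hs => spread s hs
            hD0 := lt_of_le_of_lt (by
              have := mul_le_mul_of_nonneg_left (mul_le_mul_of_nonneg_right hc hσf) hCp.le
              linarith) hD0 },
    rfl, rfl, rfl, rfl, rfl, rfl, rfl, rfl, rfl, rfl, hcard.trans hnF⟩

end Main

/-- 793's `SmallPre` is the field `sc` -/
theorem sc_of_smallPre {κ : Type*} [Fintype κ] {E : Type*} [NormedAddCommGroup E]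
    [NormedSpace ℝ E] {F : Set E} {f : E → EuclideanSpace ℝ κ}
    {u : EuclideanSpace ℝ κ → ℝ} {t0 tm t1 σ θ : ℝ} (h : Fce_793.SmallPre F f u t0 tm t1 σ θ) :
    ∃ Bad : Set ℝ, MeasurableSet Bad ∧ volume Bad ≤ ENNReal.ofReal θ ∧
      ∀ ts ∈ Ioo t0 tm, ts ∉ Bad → ∃ (n : ℕ) (y : Fin n → EuclideanSpace ℝ κ) (ρ : Fin n → ℝ),
        (∀ m, 0 < ρ m) ∧ ∑ m, ρ m ≤ σ ∧ ∃ η > 0, Cov F f u t1 ts n y ρ η := h

end Crest.Agent.R096.P2l_565
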