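import Crest.Agent.R096.Cp1_465
import Crest.Agent.R096.P2l8_565
import Crest.Agent.R096.Fsl5_793
import Crest.Agent.R096.Spr2_113
import Crest.Agent.R096.Ca5_855

/-!
# Row 96 (S0127), p = 2: composite A (helper465; 753 #10547 (A2)), part 2: one tile
-/

set_option autoImplicit false
set_option linter.unusedSectionVars false

open Set Metric MeasureTheory
open scoped ENNReal

namespace Crest.Agent.R096.Cp_465

open Crest.AnalysisR.VecCalc3
open Crest.Agent.R096.Msh_715 (Tiling P I)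
open Crest.Agent.R096.Sk2_855 (sk1 HP Mv)
open Crest.Agent.R096.Sk3_812 (GoodT HF GLv Crs UG ug ug_level ug_le_one_iff ug_comp GH GH_ne)
open Crest.Agent.R096.P2l_565 (One2 cells2 exists_one2)
open Crest.Agent.R096.Ptc_160 (Cp)
open Crest.Agent.R096.Spr_113 (NearV spread gauge_le)
open Crest.Agent.R096.Ca_855
open Crest.Agent.R96.Gdt_538 (GH_norm gau_lip)
open Crest.Agent.R096.Fsl_793
open Crest.Agent.R96.Intr_538 (cel)
open Crest.Agent.R096.Fce_793 (pt)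

section gauge

variable {H : Finset ((R3 →L[ℝ] ℝ) × ℝ)} (hne : H.Nonempty) {c : R3} (hc : c ∈ I H)
  (A : R3 ≃ᵃ[ℝ] R3) {κ ρ d : ℝ}

include hc in
theorem ug_lip (hρ : 0 < ρ) (hκ : 0 < κ) (hB : closedBall c ρ ⊆ P H)
    (low : ∀ v, κ * ‖v‖ ≤ ‖A.linear v‖) (y z : R3) :
    |ug H hne c A y - ug H hne c A z| ≤ (κ * ρ)⁻¹ * dist y z := by
  have key : ∀ y z : R3, ug H hne c A y ≤ ug H hne c A z + (κ * ρ)⁻¹ * ‖y - z‖ := fun y z =>
    gau_lip (hG := GH_ne hne c A) (GH_norm hc A hρ hκ hB low) y z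
  have h1 := key y z
  have h2 := key z y
  rw [norm_sub_rev] at h2
  rw [dist_eq_norm, abs_le]
  constructor <;> linarith

include hc in
theorem ug_in (hκ : 0 < κ) (hB : closedBall c ρ ⊆ P H)
    (low : ∀ v, κ * ‖v‖ ≤ ‖A.linear v‖) {t0 : ℝ} (h0 : 1 ≤ t0) :
    ball (A c) (κ * ρ) ⊆ {y | ug H hne c A y ≤ t0} := by
  intro y hy
  rw [mem_ball, dist_eq_norm] at hy
  refine le_trans ?_ h0
  rw [ug_le_one_iff hne hc]
  apply hB
  rw [mem_closedBall, dist_eq_norm]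
  have h1 := low (A.symm y - c)
  rw [← aff_sub, A.apply_symm_apply] at h1
  by_contra hn
  rw [not_le] at hn
  have := mul_lt_mul_of_pos_left hn hκ
  linarith

include hc in
theorem ug_out (hκ : 0 < κ) (up : ∀ v, ‖A.linear v‖ ≤ κ⁻¹ * ‖v‖)
    (hD : ∀ y ∈ P H, ‖y - c‖ ≤ d) {tm : ℝ} (hm : 0 < tm) :
    {y | ug H hne c A y ≤ tm} ⊆ closedBall (A c) (tm * (κ⁻¹ * d)) := by
  intro y hy
  rw [ug_level hne hc A hm] at hy
  obtain ⟨z, hz, rfl⟩ := hy
  rw [mem_closedBall, dist_eq_norm, add_sub_cancel_left, norm_smul, Real.norm_eq_abs,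
    abs_of_pos hm, aff_sub]
  have h1 := (up (z - c)).trans (mul_le_mul_of_nonneg_left (hD z hz) (inv_pos.2 hκ).le)
  exact mul_le_mul_of_nonneg_left h1 hm.le

end gauge

/-- the constant of the patches -/
noncomputable def CC (β κ r : ℝ) : ℝ := 8 * (1 + (1 + 2 * β) * κ⁻¹ / (κ * r))

theorem CC_pos {β κ r : ℝ} (hβ : 0 < β) (hκ : 0 < κ) (hr : 0 < r) : 0 < CC β κ r := by
  unfold CC
  positivity

section tile

variable {Om La : Set R3} {ι : Type} {T : Tiling Om ι} {f fi : R3 → R3} {i : ι}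
  {κf : Type*} {J : Set R3} {xf : κf → R3} {ef : κf → Fin 2 → R3} {Pf : κf → Set (ℝ × ℝ)}
  {a0 : R3} {ε₀ : ℝ}

/-- the diameter of a tile -/
theorem diam_ge {c : R3} {ρ : ℝ} (hρ : 0 ≤ ρ) (hB : closedBall c ρ ⊆ P (T.H i)) :
    2 * ρ ≤ diam (P (T.H i)) := by
  obtain ⟨e, he⟩ := exists_norm_eq R3 (zero_le_one (α := ℝ))
  have h1 : c + ρ • e ∈ P (T.H i) := hB (by
    rw [mem_closedBall, dist_eq_norm, add_sub_cancel_left, norm_smul, he, mul_one,
      Real.norm_of_nonneg hρ])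
  have h2 : c - ρ • e ∈ P (T.H i) := hB (by
    rw [mem_closedBall, dist_eq_norm, sub_sub_cancel_left, norm_neg, norm_smul, he, mul_one,
      Real.norm_of_nonneg hρ])
  have h3 := dist_le_diam_of_mem (T.cpt i).isBounded h1 h2
  rw [dist_eq_norm, add_sub_sub_cancel] at h3
  have h4 : ρ • e + ρ • e = (2 * ρ) • e := by module
  rw [h4, norm_smul, he, mul_one, Real.norm_of_nonneg (by linarith)] at h3
  exact h3

/-- **the data of p = 2 of one tile** -/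
theorem one2_tile (F : HF Om La f fi) (hne : (T.H i).Nonempty) {c : R3} (hc : c ∈ I (T.H i))
    (A : R3 ≃ᵃ[ℝ] R3) {κ r t β η σ₂ : ℝ} {nc : ℕ} (hκ : 0 < κ) (hr : 0 < r) (ht : 0 < t)
    (hβ : 0 < β) (hσ : 0 < σ₂) (hε₀ : 0 < ε₀)
    (low : ∀ v, κ * ‖v‖ ≤ ‖A.linear v‖) (up : ∀ v, ‖A.linear v‖ ≤ κ⁻¹ * ‖v‖)
    (hB : closedBall c (r * t) ⊆ P (T.H i))
    (hD : ∀ y ∈ P (T.H i), ∀ y' ∈ P (T.H i), ‖y - y'‖ ≤ t)
    (Q : GoodT T La f i (ug (T.H i) hne c A) (A c) (1 + β) (1 + 3 * β))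
    (bad0 : volume (Ioo (1 + β) (1 + 3 * β) \
      GLv T f i (ug (T.H i) hne c A) (1 + β) (1 + 3 * β)) ≤ ENNReal.ofReal (β / 4))
    (near : ∀ e, Crs T i e → ∀ w ∈ T.cc e, ‖f w - A w‖ ≤ η * t)
    (hNV : NearV T i (ug (T.H i) hne c (AffineEquiv.refl ℝ R3)) (4 * β) (r * t / 8))
    (hface : ∀ x ∈ Om, T.dim x = 2 → T.cc x ⊆ P (T.H i) → ∃ φ, LinearIndependent ℝ (ef φ) ∧
      T.cc x = pt (ef φ) (a0 + xf φ) '' Pf φ)
    (hG : FaceG Om f xf ef Pf J (ε₀ * t ^ 2) a0)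
    (hJ : ∀ z ∈ P (T.H i), β * (κ * (r * t)) ≤ ‖f z - A z‖ → z ∈ J)
    (hnF : (cells2 T i).ncard ≤ nc)
    (n1 : 8 * η ≤ κ * r) (n2 : η ≤ 2 * β * (κ * r))
    (n3 : 8 * (CC β κ r * (nc * σ₂)) < κ * r)
    (n4 : 64 * (nc + 1) * ε₀ ≤ β * σ₂ * (κ * r)) :
    ∃ O : One2 T La f (P (T.H i)) {y | ug (T.H i) hne c A y ≤ 1 + 3 * β},
      O.L = (κ * (r * t))⁻¹ ∧ O.t0 = 1 + β ∧ O.tm = 1 + 2 * β ∧ O.th = 1 + 5 / 2 * β ∧
      O.t1 = 1 + 3 * β ∧ O.θ0 = β / 4 ∧ O.C = CC β κ r ∧ O.θf = β / (4 * (nc + 1)) ∧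
      O.σf = σ₂ * t ∧ O.Fs.card ≤ nc := by
  have hrt : 0 < r * t := mul_pos hr ht
  have hκr : 0 < κ * r := mul_pos hκ hr
  have hκrt : 0 < κ * (r * t) := mul_pos hκ hrt
  have hnc : (0 : ℝ) ≤ nc := Nat.cast_nonneg _
  have hlip := ug_lip hne hc A hrt hκ hB low
  have hcP : c ∈ P (T.H i) := hB (mem_closedBall_self hrt.le)
  have hin := ug_in hne hc A hκ hB low (t0 := 1 + β) (by linarith)
  have hout := ug_out hne hc A hκ up (fun y hy => hD y hy c hcP) (tm := 1 + 2 * β) (by linarith)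
  have hCp : Cp (κ * (r * t)) ((1 + 2 * β) * (κ⁻¹ * t)) = CC β κ r := by
    unfold Cp CC
    congr 2
    field_simp
  have hle1 : ∀ z ∈ P (T.H i), ug (T.H i) hne c A (A z) ≤ 1 := fun z hz => by
    rw [ug_le_one_iff hne hc, A.symm_apply_apply]
    exact hz
  -- faces
  have hsc : ∀ x ∈ Om, T.dim x = 2 → T.cc x ⊆ P (T.H i) →
      ∃ Bad : Set ℝ, MeasurableSet Bad ∧ volume Bad ≤ ENNReal.ofReal (β / (4 * (nc + 1))) ∧
        ∀ ts ∈ Ioo (1 + β) (1 + 2 * β), ts ∉ Bad →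
          ∃ (n : ℕ) (y : Fin n → R3) (ρ : Fin n → ℝ),
          (∀ m, 0 < ρ m) ∧ ∑ m, ρ m ≤ σ₂ * t ∧ ∃ η > 0,
          P2l_565.Cov (T.cc x) f (ug (T.H i) hne c A) (1 + 5 / 2 * β) ts n y ρ η := by
    intro x hx hd hsub
    obtain ⟨φ, hli, hcc⟩ := hface x hx hd hsub
    refine sc_of_faceG hG (by positivity) (E1 := 2 * (ε₀ * t ^ 2)) ?_ hx hd φ hli hcc
      (T.cc_sub_Om hx) (L := (κ * (r * t))⁻¹) (inv_pos.2 hκrt).le hlip
      (by linarith) (fun z hz hzs => Q.inn z hzs (hsub hz)) (fun z hz hu => ?_)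
      (by positivity) (by positivity) ?_
    · have : 0 < ε₀ * t ^ 2 := by positivity
      linarith
    · apply hJ z (hsub hz)
      have h1 := (abs_le.1 (hlip (f z) (A z))).2
      have h2 := hle1 z (hsub hz)
      rw [dist_eq_norm] at h1
      have h3 : β ≤ (κ * (r * t))⁻¹ * ‖f z - A z‖ := by linarith
      rw [le_inv_mul_iff₀ hκrt] at h3
      linarith
    · have e1 : 8 * (κ * (r * t))⁻¹ * (2 * (ε₀ * t ^ 2)) = 16 * ε₀ / (κ * r) * t := by
        field_simp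
        ring
      have e2 : β / (4 * (nc + 1)) * (σ₂ * t) = β * σ₂ / (4 * (nc + 1)) * t := by
        field_simp
      rw [e1, e2]
      refine mul_le_mul_of_nonneg_right ?_ ht.le
      rw [div_le_div_iff₀ hκr (by positivity)]
      linarith
  -- spread
  have hδ : (κ * (r * t))⁻¹ * (η * t) ≤ 2 * β := by
    rw [inv_mul_le_iff₀ hκrt]
    have := mul_le_mul_of_nonneg_right n2 ht.le
    calc η * t ≤ 2 * β * (κ * r) * t := this
      _ = κ * (r * t) * (2 * β) := by ring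
  have hspr : ∀ s ∈ Ioo (1 + β) (1 + 2 * β), ∃ x1 ∈ sk1 T, ∃ x2 ∈ sk1 T,
      ug (T.H i) hne c A (f x1) = s ∧ ug (T.H i) hne c A (f x2) = s ∧
      κ * (r * t) / 2 ≤ dist (f x1) (f x2) := by
    intro s hs
    obtain ⟨x1, h1, x2, h2, h3, h4, h5⟩ := spread Q F hNV (δ := (κ * (r * t))⁻¹ * (η * t))
      (fun e he z hz => gauge_le (u := ug (T.H i) hne c A) (inv_pos.2 hκrt).le
        (fun y y' => by rw [← dist_eq_norm]; exact hlip y y')
        (fun x => ug_comp hne A x) (near e he z hz))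
      (A := A) hκ.le (fun x y => by rw [aff_sub]; exact low _) near s
      ⟨hs.1, by linarith [hs.2]⟩ (by linarith [hs.2])
    refine ⟨x1, h1, x2, h2, h3, h4, le_trans ?_ h5⟩
    have h6 := diam_ge hrt.le hB
    have h7 : κ * (r * t) * (3 / 4) ≤ κ * (diam (P (T.H i)) / 2 - 2 * (r * t / 8)) := by
      rw [mul_assoc]
      exact mul_le_mul_of_nonneg_left (by linarith) hκ.le
    have h8 : 8 * η * t ≤ κ * r * t := mul_le_mul_of_nonneg_right n1 ht.le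
    have h9 : κ * r * t = κ * (r * t) := by ring
    linarith
  have hbad : volume (Ioo (1 + β) (1 + 2 * β) \
      GLv T f i (ug (T.H i) hne c A) (1 + β) (1 + 3 * β)) ≤ ENNReal.ofReal (β / 4) :=
    (measure_mono (sdiff_subset_sdiff_left (Ioo_subset_Ioo_right (by linarith)))).trans bad0
  obtain ⟨O, h1, h2, h3, h4, h5, h6, h7, h8, h9, h10, h11⟩ := exists_one2
    (finrank_euclideanSpace_fin) Q F (inv_pos.2 hκrt).le hlip le_rfl
    (tm := 1 + 2 * β) (th := 1 + 5 / 2 * β) (t1 := 1 + 3 * β) (by linarith) (by linarith) le_rfl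
    (θ0 := β / 4) (by positivity) hbad hκrt (by positivity) hin hout
    (θf := β / (4 * (nc + 1))) (σf := σ₂ * t) (by positivity) (by positivity) hsc hspr hnF (by
      rw [hCp]
      have h1 := mul_lt_mul_of_pos_right n3 ht
      have h2 : 8 * (CC β κ r * (nc * σ₂)) * t = 4 * (2 * (CC β κ r * (nc * (σ₂ * t)))) := by ring
      have h3 : κ * r * t = κ * (r * t) := by ring
      rw [h2, h3] at h1
      linarith)
  rw [hCp] at h8
  exact ⟨O, h2, h3, h4, h5, h6, h7, h8, h9, h10, h11⟩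

end tile

end Crest.Agent.R096.Cp_465
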