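import Crest.Agent.R096.Cp2_298

/-!
# R096 / COPY, part 3 (helper298): the state of the copies has the invariant of the sequence
-/

set_option autoImplicit false

namespace Crest.Agent.R096.Cp_298
open Crest.Agent.R096.St_147 Crest.Agent.R096.Seq_213

variable {ι Φ W J C K : Type} {M : MeshC ι Φ W} {fam : J → C}
variable {O : Ori M} {s : GSt M fam} {σ : W → ZMod 2} {r : C → ℕ} {R : W → W → Prop}
variable {hσ : TS s O σ} {hr : ∀ c, 0 < r c} {π : Par M O s.P (num s r) R}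

theorem cp_P : (cp s σ hσ hr π).P = cpP σ π := rfl

theorem cp_mem {w : W} {l : ℕ} (hw : w ∈ s.P) (hl : l < num s r w) :
    place σ π w l ∈ (cp s σ hσ hr π).P := place_mem π hw hl

theorem cp_cases {x : W} (hx : x ∈ (cp s σ hσ hr π).P) :
    ∃ w ∈ s.P, ∃ l < num s r w, x = place σ π w l := hx

theorem cp_at {F : Φ} {w : W} {l : ℕ} (hw : w ∈ s.P) (hl : l < num s r w) :
    (cp s σ hσ hr π).At F (place σ π w l) ↔ s.At F w := by
  constructor
  · rintro ⟨_, h⟩
    exact ⟨hw, (place_on π F hw hl).1 h⟩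
  · rintro ⟨_, h⟩
    exact ⟨place_mem π hw hl, (place_on π F hw hl).2 h⟩

theorem cp_mu {F : Φ} {w : W} {l : ℕ} (hw : s.At F w) (hl : l < num s r w) :
    (cp s σ hσ hr π).mu F (place σ π w l) = place σ π (s.mu F w) l := by
  classical
  show (if place σ π w l ∈ cpP σ π ∧ place σ π w l ∈ M.On F then _ else _) = _
  rw [if_pos ⟨place_mem π hw.1 hl, (place_on π F hw.1 hl).2 hw.2⟩, base_place π hw.1 hl,
    idx_place π hw.1 hl]

theorem cp_lab {w : W} {l : ℕ} (hw : w ∈ s.P) (hl : l < num s r w) :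
    (cp s σ hσ hr π).lab (place σ π w l) = ⟨s.lab w, ⟨l, hl⟩⟩ := by
  refine nm_ext ?_ ?_
  · show s.lab (base σ π (place σ π w l)) = s.lab w
    rw [base_place π hw hl]
  · show idx σ π (place σ π w l) = l
    rw [idx_place π hw hl]

theorem cp_lab_fst {w : W} {l : ℕ} (hw : w ∈ s.P) (hl : l < num s r w) :
    ((cp s σ hσ hr π).lab (place σ π w l)).1 = s.lab w := by
  rw [cp_lab hw hl]

/-- a point of the copy with a given name -/
theorem cp_named {x : W} {j' : Nm' fam r} (hx : x ∈ (cp s σ hσ hr π).P)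
    (hl : (cp s σ hσ hr π).lab x = j') :
    ∃ w ∈ s.P, s.lab w = j'.1 ∧ (j'.2 : ℕ) < num s r w ∧ x = place σ π w j'.2 := by
  obtain ⟨w, hw, l, hlt, rfl⟩ := hx
  rw [cp_lab hw hlt] at hl
  subst hl
  exact ⟨w, hw, rfl, hlt, rfl⟩

theorem num_of_lab {w : W} {j' : Nm' fam r} (h : s.lab w = j'.1) :
    (j'.2 : ℕ) < num s r w := by
  unfold num; rw [h]; exact j'.2.2

theorem cp_lab_of {w : W} {j' : Nm' fam r} (hw : w ∈ s.P) (h : s.lab w = j'.1) :
    (cp s σ hσ hr π).lab (place σ π w j'.2) = j' := by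
  rw [cp_lab hw (num_of_lab h)]
  exact nm_ext h rfl

/-- `H¹ = 0` for the copies -/
theorem cp_H1 {j' : Nm' fam r} (h : s.H1 j'.1) : (cp s σ hσ hr π).H1 j' := by
  intro κ hκ
  obtain ⟨Ψ, hΨ⟩ := h (fun F w => κ F (place σ π w j'.2)) (by
    intro q
    obtain ⟨ψ, hψ⟩ := hκ q
    refine ⟨fun w => ψ (place σ π w j'.2), fun F w hq hw hl => ?_⟩
    have hlt := num_of_lab hl
    have := hψ F (place σ π w j'.2) hq ((cp_at hw.1 hlt).2 hw) (cp_lab_of hw.1 hl)
    rw [cp_mu hw hlt] at this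
    exact this)
  refine ⟨fun x => Ψ (base σ π x), fun F x hx hl => ?_⟩
  obtain ⟨w, hw, hlw, hlt, rfl⟩ := cp_named hx.1 hl
  have hat := (cp_at hw hlt).1 hx
  have hltm : (j'.2 : ℕ) < num s r (s.mu F w) := by rw [num_mu hat]; exact hlt
  rw [cp_mu hat hlt]
  show κ F (place σ π w j'.2) = Ψ (base σ π (place σ π w j'.2)) +
    Ψ (base σ π (place σ π (s.mu F w) j'.2))
  rw [base_place π hw hlt, base_place π (mu_at hat).1 hltm]
  exact hΨ F w hat hlw

/-- the copies are connected -/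
theorem cp_Conn {j' : Nm' fam r} (h : s.Conn j'.1) : (cp s σ hσ hr π).Conn j' := by
  obtain ⟨⟨w0, hw0, hl0⟩, hc⟩ := h
  refine ⟨⟨place σ π w0 j'.2, cp_mem hw0 (num_of_lab hl0), cp_lab_of hw0 hl0⟩, ?_⟩
  intro X hX x hxX hx hlx y hy hly
  obtain ⟨w, hw, hlw, hlt, rfl⟩ := cp_named hx hlx
  obtain ⟨v, hv, hlv, hlt', rfl⟩ := cp_named hy hly
  refine hc {w | place σ π w j'.2 ∈ X} ?_ w hxX hw hlw v hv hlv
  intro F u hu hat hlu
  have := hX F (place σ π u j'.2) hu ((cp_at hat.1 (num_of_lab hlu)).2 hat)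
    (cp_lab_of hat.1 hlu)
  rw [cp_mu hat (num_of_lab hlu)] at this
  exact this

/-- transversal orientation of the copies -/
theorem cp_TS : TS (cp s σ hσ hr π) O (fun x => σ (base σ π x)) := by
  rintro F x hx
  obtain ⟨w, hw, l, hl, rfl⟩ := cp_cases hx.1
  have hat := (cp_at hw hl).1 hx
  have hlm : l < num s r (s.mu F w) := by rw [num_mu hat]; exact hl
  rw [cp_mu hat hl]
  simp only [base_place π hw hl, base_place π (mu_at hat).1 hlm]
  rw [place_dir π hw hl hat.2, place_dir π (mu_at hat).1 hlm (mu_at hat).2]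
  exact hσ F w hat

/-- crossings of different families come from crossings -/
theorem cp_lace {F : Φ} {w v : W} {l l' : ℕ} (hw : s.At F w) (hv : s.At F v)
    (hl : l < num s r w) (hl' : l' < num s r v) (hne : s.lab v ≠ s.lab w) :
    M.Lace F (place σ π w l) ((cp s σ hσ hr π).mu F (place σ π w l)) (place σ π v l')
      ((cp s σ hσ hr π).mu F (place σ π v l')) ↔ M.Lace F w (s.mu F w) v (s.mu F v) := by
  have hlm : l < num s r (s.mu F w) := by rw [num_mu hw]; exact hl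
  have hlm' : l' < num s r (s.mu F v) := by rw [num_mu hv]; exact hl'
  have e1 := s.mu_lab hw.1 hw.2
  have e2 := s.mu_lab hv.1 hv.2
  rw [cp_mu hw hl, cp_mu hv hl']
  refine lace_iff π hw (mu_at hw) hv (mu_at hv) hl hlm hl' hlm' ?_ ?_ ?_ ?_
  · intro e; exact hne (by rw [e])
  · intro e; exact hne (by rw [← e1, ← e])
  · intro e; exact hne (by rw [← e2, e])
  · intro e; exact hne (by rw [← e1, ← e, e2])

theorem cp_free {Q : Quads ι C K} {k : K} {F : Φ} {w : W} {l : ℕ} (hw : s.At F w)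
    (hl : l < num s r w) :
    (cp s σ hσ hr π).Free Q k F (place σ π w l) ↔ s.Free Q k F w := by
  constructor
  · intro h v hv hin hne hla
    have hl' : 0 < num s r v := hr _
    refine h (place σ π v 0) ((cp_at hv.1 hl').2 hv) ?_ ?_ ?_
    · simp only [fam', cp_lab_fst hv.1 hl']; exact hin
    · simp only [fam', cp_lab_fst hv.1 hl', cp_lab_fst hw.1 hl]; exact hne
    · exact (cp_lace hw hv hl hl' (fun e => hne (by rw [e]))).2 hla
  · intro h x hx hin hne hla
    obtain ⟨v, hv, l', hl', rfl⟩ := cp_cases hx.1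
    have hat := (cp_at hv hl').1 hx
    simp only [fam', cp_lab_fst hv hl'] at hin
    simp only [fam', cp_lab_fst hv hl', cp_lab_fst hw.1 hl] at hne
    exact h v hat hin hne ((cp_lace hw hat hl hl' (fun e => hne (by rw [e]))).1 hla)

theorem cp_OK {Q : Quads ι C K} {F : Φ} {w : W} {l : ℕ} (hw : s.At F w)
    (hl : l < num s r w) :
    (cp s σ hσ hr π).OK Q F (place σ π w l) ↔ s.OK Q F w := by
  unfold GSt.OK
  simp only [fam', cp_lab_fst hw.1 hl, cp_free hw hl]

/-- the marked points of the copies -/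
def cpFar (σ : W → ZMod 2) (π : Par M O s.P (num s r) R) (far : J → Set W) :
    Nm' fam r → Set W := fun j' => {x | ∃ w ∈ far j'.1, x = place σ π w j'.2}

/-- **the invariant of the copies** -/
theorem cp_Inv {Q : Quads ι C K} {far : J → Set W} (h : s.Inv Q far) :
    (cp s σ hσ hr π).Inv Q (cpFar σ π far) := by
  constructor
  · intro j'; exact cp_H1 (h.h1 j'.1)
  · intro j'; exact cp_Conn (h.conn j'.1)
  · rintro j' x ⟨w, hw, rfl⟩
    obtain ⟨h1, h2⟩ := h.far_mem hw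
    exact ⟨cp_mem h1 (num_of_lab h2), cp_lab_of h1 h2⟩
  · intro j'
    obtain ⟨w, hw⟩ := h.far_ne j'.1
    exact ⟨_, w, hw, rfl⟩
  · intro k F x hx hin
    obtain ⟨w, hw, l, hl, rfl⟩ := cp_cases hx.1
    simp only [fam', cp_lab_fst hw hl]
    exact h.only ((cp_at hw hl).1 hx) hin
  · intro x hx
    obtain ⟨w, hw, l, hl, rfl⟩ := cp_cases hx
    rcases h.loc hw with h1 | ⟨k, h1, h2⟩
    · left
      rw [cp_lab hw hl]
      exact ⟨w, h1, rfl⟩
    · right
      refine ⟨k, ?_, ?_, ?_⟩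
      · simp only [fam', cp_lab_fst hw hl]; exact h1
      · obtain ⟨F, hF⟩ := h2.1
        exact ⟨F, (place_on π F hw hl).2 hF⟩
      · intro F hF
        exact h2.2 F ((place_on π F hw hl).1 hF)
  · intro j' X hX x hxX hx y hy
    obtain ⟨w, hw, rfl⟩ := hx
    obtain ⟨v, hv, rfl⟩ := hy
    refine h.gc j'.1 {w | place σ π w j'.2 ∈ X} ?_ w hxX hw hv
    intro F u hu hfu hat hmu hOK
    have hlu := (h.far_mem hfu).2
    have hlt := num_of_lab hlu
    have := hX F (place σ π u j'.2) hu ⟨u, hfu, rfl⟩ ((cp_at hat.1 hlt).2 hat) (by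
      rw [cp_mu hat hlt]
      exact ⟨_, hmu, rfl⟩) ((cp_OK hat hlt).2 hOK)
    rw [cp_mu hat hlt] at this
    exact this

/-- the number of points of a family on an edge -/
theorem cp_ncard {e : Set W} (c : C) (he : ∀ x w, R x w → (x ∈ e ↔ w ∈ e)) :
    {x | x ∈ (cp s σ hσ hr π).P ∧ fam' fam r ((cp s σ hσ hr π).lab x) = c ∧ x ∈ e}.ncard =
      r c * {w | w ∈ s.P ∧ fam (s.lab w) = c ∧ w ∈ e}.ncard := by
  classical
  have hset : {x | x ∈ (cp s σ hσ hr π).P ∧ fam' fam r ((cp s σ hσ hr π).lab x) = c ∧ x ∈ e} =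
      (fun p : W × ℕ => place σ π p.1 p.2) ''
        ({w | w ∈ s.P ∧ fam (s.lab w) = c ∧ w ∈ e} ×ˢ {l | l < r c}) := by
    ext x
    constructor
    · rintro ⟨⟨w, hw, l, hl, rfl⟩, hc, hxe⟩
      simp only [fam', cp_lab_fst hw hl] at hc
      refine ⟨(w, l), ⟨⟨hw, hc, (he _ _ (place_rel π hw hl)).1 hxe⟩, ?_⟩, rfl⟩
      show l < r c
      rw [← hc]; exact hl
    · rintro ⟨⟨w, l⟩, ⟨⟨hw, hc, hwe⟩, hl⟩, rfl⟩
      have hl' : l < num s r w := by unfold num; rw [hc]; exact hl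
      refine ⟨cp_mem hw hl', ?_, (he _ _ (place_rel π hw hl')).2 hwe⟩
      simp only [fam', cp_lab_fst hw hl']; exact hc
  rw [hset, Set.InjOn.ncard_image, Set.ncard_prod, mul_comm]
  · congr 1
    rw [Set.ncard_eq_toFinset_card' {l | l < r c}]
    simp
  · rintro ⟨w, l⟩ ⟨⟨hw, hc, _⟩, hl⟩ ⟨w', l'⟩ ⟨⟨hw', hc', _⟩, hl'⟩ he
    have h1 : l < num s r w := by unfold num; rw [hc]; exact hl
    have h2 : l' < num s r w' := by unfold num; rw [hc']; exact hl'
    obtain ⟨h3, h4⟩ := place_inj π hw hw' h1 h2 he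
    exact Prod.ext h3 h4

end Crest.Agent.R096.Cp_298
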