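import Crest.Agent.R096.P2l8_565
import Crest.Agent.R96.Intr12_538
import Crest.Agent.R096.Srg4_465

/-!
# Row 96 (S0127), p = 2 (helper565), part 9: two counts

* `cells2_le`: a tile has at most as many 2-cells as it has neighbours;
* `bodies_le`: the number of tiles with inradius `r` in a cube.
-/

set_option autoImplicit false
set_option linter.unusedSectionVars false

open Set Metric MeasureTheory Module

namespace Crest.Agent.R096.P2l_565

open Msh_715

/-- a 2-cell of the tile `i` is the intersection of the tile with one neighbour -/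
theorem cells2_eq {E : Type*} [NormedAddCommGroup E] [NormedSpace ℝ E] [FiniteDimensional ℝ E]
    {Om : Set E} {ι : Type*} (T : Tiling Om ι) (h3 : finrank ℝ E = 3) {i : ι} {x : E}
    (hx : x ∈ Om) (hd : T.dim x = 2) (hi : x ∈ P (T.H i)) :
    ∃ j, j ≠ i ∧ T.at_ x = {i, j} ∧ T.cc x = P (T.H j) ∩ P (T.H i) := by
  obtain ⟨k, l, hkl, hat, hcc⟩ := T.two_tiles hx (by omega)
  have him : i ∈ T.at_ x := hi
  rw [hat] at him
  rcases him with rfl | him
  · exact ⟨l, hkl.symm, hat, by rw [hcc, inter_comm]⟩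
  · rw [mem_singleton_iff] at him
    subst him
    exact ⟨k, hkl, by rw [hat, pair_comm], hcc⟩

/-- **a tile has at most as many 2-cells as neighbours** -/
theorem cells2_le {E : Type*} [NormedAddCommGroup E] [NormedSpace ℝ E] [FiniteDimensional ℝ E]
    {Om : Set E} {ι : Type*} (T : Tiling Om ι) (h3 : finrank ℝ E = 3) (i : ι) :
    (cells2 T i).ncard ≤ {j | (P (T.H j) ∩ P (T.H i)).Nonempty}.ncard := by
  have hfin : {j | (P (T.H j) ∩ P (T.H i)).Nonempty}.Finite := T.finite_tiles (T.cpt i) (T.sub i)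
  have hsub : cells2 T i ⊆ (fun j => P (T.H j) ∩ P (T.H i)) ''
      {j | (P (T.H j) ∩ P (T.H i)).Nonempty} := by
    rintro _ ⟨x, hx, hd, hs, rfl⟩
    have hxi : x ∈ P (T.H i) := hs (T.self_mem_cc x)
    obtain ⟨j, -, hat, hcc⟩ := cells2_eq T h3 hx hd hxi
    refine ⟨j, ⟨x, ?_, hxi⟩, hcc.symm⟩
    have : j ∈ T.at_ x := by rw [hat]; exact Or.inr rfl
    exact this
  exact (Set.ncard_le_ncard hsub (hfin.image _)).trans (Set.ncard_image_le hfin)

/-- balls in different tiles are disjoint -/
theorem disjoint_balls {E : Type*} [NormedAddCommGroup E] [NormedSpace ℝ E]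
    {Om : Set E} {ι : Type*} (T : Tiling Om ι) {i j : ι} (hij : i ≠ j) {x y : E} {r r' : ℝ}
    (hx : closedBall x r ⊆ P (T.H i)) (hy : closedBall y r' ⊆ P (T.H j)) :
    Disjoint (ball x r) (ball y r') := by
  have h1 : ball x r ⊆ I (T.H i) := by
    rw [← Srg_465.interior_P (T.ne i)]
    exact interior_maximal (ball_subset_closedBall.trans hx) isOpen_ball
  have h2 : ball y r' ⊆ I (T.H j) := by
    rw [← Srg_465.interior_P (T.ne j)]
    exact interior_maximal (ball_subset_closedBall.trans hy) isOpen_ball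
  exact (T.dis i j hij).mono h1 h2

section R3

open Crest.AnalysisR.VecCalc3 Crest.Agent.R96.Intr_538 Crest.Agent.R96.Coarse_538

/-- **the number of tiles of inradius `r` in a cube of side `2 R`** -/
theorem bodies_le {Om : Set R3} {ι : Type*} (T : Tiling Om ι) {c : ι → R3} {r R : ℝ} (hr : 0 < r)
    (hR : 0 < R) (z : R3) (s : Finset ι) (hs : ∀ i ∈ s, P (T.H i) ⊆ cel Cb z R)
    (hb : ∀ i ∈ s, closedBall (c i) r ⊆ P (T.H i)) : (s.card : ℝ) * r ^ 3 ≤ 2 * R ^ 3 := by
  have h1 : volume (⋃ i ∈ s, ball (c i) r) = ∑ i ∈ s, volume (ball (c i) r) :=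
    measure_biUnion_finset (fun i hi j hj hij => disjoint_balls T hij (hb i hi) (hb j hj))
      fun i _ => isOpen_ball.measurableSet
  have h2 : volume (⋃ i ∈ s, ball (c i) r) ≤ volume (cel Cb z R) :=
    measure_mono (iUnion₂_subset fun i hi => ball_subset_closedBall.trans ((hb i hi).trans (hs i hi)))
  have h3 : ∀ i ∈ s, ENNReal.ofReal (4 * r ^ 3) ≤ volume (ball (c i) r) := by
    intro i _
    rw [EuclideanSpace.volume_ball_fin_three, ← ENNReal.ofReal_pow hr.le,
      ← ENNReal.ofReal_mul (by positivity)]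
    apply ENNReal.ofReal_le_ofReal
    have := Real.pi_gt_three
    have h4 : (0 : ℝ) < r ^ 3 := by positivity
    nlinarith
  have h5 : ENNReal.ofReal ((s.card : ℝ) * (4 * r ^ 3)) ≤ ENNReal.ofReal ((2 * R) ^ 3) := by
    rw [← vol_cel (z := z) hR]
    refine le_trans ?_ h2
    rw [h1]
    refine le_trans ?_ (Finset.sum_le_sum h3)
    rw [Finset.sum_const, nsmul_eq_mul, ENNReal.ofReal_mul (Nat.cast_nonneg _),
      ENNReal.ofReal_natCast]
  have h6 := (ENNReal.ofReal_le_ofReal_iff (by positivity)).1 h5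
  nlinarith

end R3

end Crest.Agent.R096.P2l_565
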