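import Crest.Agent.R096.Cp2_465
import Crest.Agent.R096.P2l9_565
import Crest.Agent.R96.Gdt5_538

/-!
# Row 96 (S0127), p = 2: composite A (helper465; 753 #10547 (A2)), part 3: one mesh

`regs2_of_mesh`: the data `Regs2` for the perfect cubes of one mesh, under the hypotheses of 855's
`regs_of_mesh` and the face data.
-/

set_option autoImplicit false
set_option linter.unusedSectionVars false

open Set Metric MeasureTheory
open scoped ENNReal

namespace Crest.Agent.R096.Cp_465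

open Crest.AnalysisR.VecCalc3
open Crest.Agent.R096.Msh_715 (Tiling P I)
open Crest.Agent.R096.Sk2_855 (sk1 HP Mv)
open Crest.Agent.R096.Sk3_812 (GoodT HF GLv Crs UG ug KT)
open Crest.Agent.R096.P2l_565 (One2 cells2 cells2_le bodies_le)
open Crest.Agent.R096.Spr_113 (NearV)
open Crest.Agent.R096.Ca_855
open Crest.Agent.R96.Gdt_538 (MeshG affE bad_vol_perf perf_near)
open Crest.Agent.R096.Fsl_793
open Crest.Agent.R96.Intr_538 (cel par cel_mono isCompact_cel)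
open Crest.Agent.R96.Coarse_538
open Crest.Agent.R096.Fce_793 (pt)

/-- **`Regs2` from uniform numbers of the tiles** -/
theorem regs2_of_tiles {Om La : Set R3} {ι : Type} {T : Tiling Om ι} {f : R3 → R3} {K : Type*}
    {U : K → Set R3} {u : K → ι → R3 → ℝ} {β κ r t σ₂ : ℝ} {nc Nt : ℕ} (hκ : 0 < κ) (hr : 0 < r)
    (ht : 0 < t) (hβ : 0 < β) (hσ : 0 < σ₂)
    (hO : ∀ j : Regs.J T U, ∃ O : One2 T La f (P (T.H j.1.2)) (Regs.Y u (1 + 3 * β) j),
      O.L = (κ * (r * t))⁻¹ ∧ O.t0 = 1 + β ∧ O.tm = 1 + 2 * β ∧ O.th = 1 + 5 / 2 * β ∧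
      O.t1 = 1 + 3 * β ∧ O.θ0 = β / 4 ∧ O.C = CC β κ r ∧ O.θf = β / (4 * (nc + 1)) ∧
      O.σf = σ₂ * t ∧ O.Fs.card ≤ nc)
    (hNt : ∀ k (s : Finset (Regs.J T U)), (∀ j ∈ s, j.1.1 = k) → s.card ≤ Nt)
    (n5 : 8 * (Nt * (CC β κ r * (nc * σ₂))) ≤ β * (κ * r)) :
    Nonempty (Regs2 T La f U u (1 + 3 * β) (fun _ => Nt * (CC β κ r * (nc * (σ₂ * t))))) := by
  have hrt : 0 < r * t := mul_pos hr ht
  have hκrt : 0 < κ * (r * t) := mul_pos hκ hrt
  have hnc : (0 : ℝ) ≤ nc := Nat.cast_nonneg _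
  have hCC := CC_pos hβ hκ hr
  choose O h1 h2 h3 h4 h5 h6 h7 h8 h9 h10 using hO
  have hc : ∀ j, ((O j).Fs.card : ℝ) ≤ nc := fun j => by exact_mod_cast h10 j
  have hL : 2 * ((κ * (r * t))⁻¹ * (Nt * (CC β κ r * (nc * (σ₂ * t))))) ≤ β / 4 := by
    have e1 : 2 * ((κ * (r * t))⁻¹ * (Nt * (CC β κ r * (nc * (σ₂ * t))))) =
        2 * (Nt * (CC β κ r * (nc * σ₂))) / (κ * r) := by
      field_simp
    rw [e1, div_le_iff₀ (mul_pos hκ hr)]
    linarith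
  refine ⟨⟨O, fun k s hs => ?_, fun j => ?_, fun j => ?_⟩⟩
  · have h11 : ∀ j ∈ s, (O j).C * ((O j).Fs.card * (O j).σf) ≤ CC β κ r * (nc * (σ₂ * t)) :=
      fun j _ => by
        rw [h7, h9]
        have := hc j
        gcongr
    refine (Finset.sum_le_sum h11).trans ?_
    rw [Finset.sum_const, nsmul_eq_mul]
    have h12 : ((s.card : ℕ) : ℝ) ≤ Nt := by exact_mod_cast hNt k s hs
    exact mul_le_mul_of_nonneg_right h12 (by positivity)
  · rw [h1, h2, h3, h6, h8]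
    have h11 : ((O j).Fs.card : ℝ) * (β / (4 * (nc + 1))) ≤ β / 4 := by
      calc ((O j).Fs.card : ℝ) * (β / (4 * (nc + 1))) ≤ (nc + 1) * (β / (4 * (nc + 1))) := by
            have := hc j
            gcongr
            linarith
        _ = β / 4 := by field_simp
    linarith
  · rw [h1, h4, h5]
    linarith

section mesh

variable {Om La : Set R3} {ι : Type} {T : Tiling Om ι} {f fi : R3 → R3} {κi : Type*}
  {x v : κi → R3} {p κ τ σ₀ η t s β r : ℝ} {a : R3} {D : R3 → R3 →L[ℝ] R3} {W : Set R3}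
  {Q : Finset (Fin 3 → ℤ)} {zc bb : (Fin 3 → ℤ) → R3} {LL : (Fin 3 → ℤ) → R3 →L[ℝ] R3} {nc : ℕ}
  {κf : Type*} {xf : κf → R3} {ef : κf → Fin 2 → R3} {Pf : κf → Set (ℝ × ℝ)}
  {ε₀ β' σ₂ : ℝ} {Nt : ℕ}

/-- **`Regs2` for one mesh** -/
theorem regs2_of_mesh (hp : 1 ≤ p) (F : HF Om La f fi) (hκ : 0 < κ) (hη : 0 < η) (ht : 0 < t)
    (hs : 0 < s) (hσ₀ : 0 < σ₀) (hσ₀τ : σ₀ < τ) (hτ6 : 6 * τ < 1) (htτ : 2 * t ≤ τ * s)
    (hP : ∀ k ∈ Q, PerfG x v p Om f D κ τ σ₀ η t s a (zc k) (bb k) (LL k))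
    (hA : ∀ e, ACV Om f D (v e) (a + x e)) (hv : ∀ e, ‖v e‖ ≤ t) (hM : MeshG T x v a W)
    (hWc : ∀ k ∈ Q, cel Cb (zc k) ((1 - σ₀) * s) ⊆ W)
    (hinj : ∀ k ∈ Q, Function.Injective (LL k))
    (hne : ∀ i, (T.H i).Nonempty) (c : ι → R3) (hβ : 0 < β) (hr : 0 < r)
    (hG : ∀ k ∈ Q, ∀ i, (P (T.H i) ∩ cel Cb (zc k) ((1 - 4 * τ) * s)).Nonempty →
      TileG T i (hne i) (c i) β (r * t) t nc)
    (hR : ∀ k : {k // k ∈ Q}, ∀ i, P (T.H i) ⊆ cel Cb (zc k) ((1 - 5 * τ) * s) →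
      GoodT T La f i (ug (T.H i) (hne i) (c i) (Aq zc bb LL hinj k)) (Aq zc bb LL hinj k (c i))
        (1 + β) (1 + 3 * β))
    (hNV : ∀ k ∈ Q, ∀ i, (P (T.H i) ∩ cel Cb (zc k) ((1 - 4 * τ) * s)).Nonempty →
      NearV T i (ug (T.H i) (hne i) (c i) (AffineEquiv.refl ℝ R3)) (4 * β) (r * t / 8))
    (hface : ∀ y ∈ Om, T.dim y = 2 → (T.cc y ∩ W).Nonempty → ∃ φ, LinearIndependent ℝ (ef φ) ∧
      T.cc y = pt (ef φ) (a + xf φ) '' Pf φ)
    (hFG : ∀ k ∈ Q, FaceG Om f xf ef Pf (Junk f s (zc k) (bb k) (LL k) (β' * t)) (ε₀ * t ^ 2) a)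
    (hβ' : β' ≤ β * (κ * r)) (hσ : 0 < σ₂) (hε₀ : 0 < ε₀)
    (hNt : 2 * s ^ 3 ≤ Nt * (r * t) ^ 3)
    (n0 : 16 * η * (nc + 1) ≤ β * (κ * r)) (n1 : 8 * η ≤ κ * r)
    (n3 : 8 * (CC β κ r * (nc * σ₂)) < κ * r)
    (n4 : 64 * (nc + 1) * ε₀ ≤ β * σ₂ * (κ * r))
    (n5 : 8 * (Nt * (CC β κ r * (nc * σ₂))) ≤ β * (κ * r)) :
    Nonempty (Regs2 T La f (fun k : {k // k ∈ Q} => cel Cb (zc k) ((1 - 5 * τ) * s))
      (fun k i => ug (T.H i) (hne i) (c i) (Aq zc bb LL hinj k)) (1 + 3 * β)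
      (fun _ => Nt * (CC β κ r * (nc * (σ₂ * t))))) := by
  have hτ : 0 < τ := hσ₀.trans hσ₀τ
  have hτs : 0 < τ * s := mul_pos hτ hs
  have hr5 : 0 < (1 - 5 * τ) * s := mul_pos (by linarith) hs
  have hr4 : 0 < (1 - 4 * τ) * s := mul_pos (by linarith) hs
  have h54 : (1 - 5 * τ) * s ≤ (1 - 4 * τ) * s := by nlinarith
  have h5s : (1 - 5 * τ) * s ≤ s := by nlinarith
  have h5σ : (1 - 5 * τ) * s ≤ (1 - σ₀) * s := by nlinarith
  have hκr : 0 < κ * r := mul_pos hκ hr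
  have hrt : 0 < r * t := mul_pos hr ht
  have hnc : (0 : ℝ) ≤ nc := Nat.cast_nonneg _
  refine regs2_of_tiles hκ hr ht hβ hσ ?_ ?_ n5
  · rintro ⟨⟨k, i⟩, hi⟩
    simp only at hi
    obtain ⟨q, hq⟩ := Regs.P_ne T i
    have hi4 : ∀ m, (P (T.H m) ∩ P (T.H i)).Nonempty →
        (P (T.H m) ∩ cel Cb (zc k) ((1 - 4 * τ) * s)).Nonempty := by
      rintro m ⟨w, hw, hw'⟩
      exact ⟨w, hw, cel_mono ref_Cb _ hr5.le h54 (hi hw')⟩
    have hii := hi4 i ⟨q, hq, hq⟩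
    have hTi := hG k k.2 i hii
    have hnear : ∀ m, (P (T.H m) ∩ P (T.H i)).Nonempty → ∀ y ∈ P (T.H m), ∀ R' : ℝ,
        (1 - 5 * τ) * s + t ≤ R' → y ∈ cel Cb (zc k) R' := by
      rintro m ⟨w, hw, hw'⟩ y hy R' hR'
      have h1 := (hG k k.2 m (hi4 m ⟨w, hw, hw'⟩)).diam y hy w hw
      exact cel_near ht.le hr5 hR' (hi hw') h1
    have hσs : (1 - 5 * τ) * s + t ≤ (1 - σ₀) * s := by nlinarith
    have hNc : ∀ y, Crs T i y → T.cc y ⊆ cel Cb (zc k) ((1 - σ₀) * s) := by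
      rintro y ⟨hyO, hy1, hyP, w, hw, hwP⟩
      obtain ⟨m, hm⟩ := T.at_nonempty hyO
      intro w' hw'
      have h1 : T.cc y ⊆ P (T.H m) := T.cc_sub_tile (i := m) hm
      exact hnear m ⟨w, h1 hw, hwP⟩ w' (h1 hw') _ hσs
    have hAq : ∀ y, Aq zc bb LL hinj k y = bb k + LL k (y - zc k) := fun y => aff_apply y
    have hAl : ∀ y, (Aq zc bb LL hinj k).linear y = LL k y := fun y => aff_linear y
    refine one2_tile (κf := κf) (xf := xf) (ef := ef) (Pf := Pf) (a0 := a) (ε₀ := ε₀) (η := η)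
      (J := Junk f s (zc k) (bb k) (LL k) (β' * t)) F (hne i) hTi.cI (Aq zc bb LL hinj k) hκ hr ht
      hβ hσ hε₀ (fun y => by rw [hAl]; exact (hP k k.2).low y) (fun y => by
        rw [hAl]
        exact ((LL k).le_opNorm y).trans (mul_le_mul_of_nonneg_right (hP k k.2).up (norm_nonneg _)))
      hTi.ball hTi.diam (hR k i hi) ?_ ?_ (hNV k k.2 i hii) ?_ (hFG k k.2) ?_ ?_ n1 ?_ n3 n4
    · have key := bad_vol_perf (La := La) (fi := fi) hp F hκ hη ht (hP k k.2) hA hv hM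
        (hWc k k.2) (hne i) hTi.cI hβ hrt hTi.ball hNc
        (fun y hy _ hyP hyC => hTi.gap y hy hyP hyC) (by
          have e1 : 4 * ((κ * (r * t))⁻¹ * (η * t)) = 4 * η / (κ * r) := by
            field_simp
          rw [e1, div_le_iff₀ hκr]
          nlinarith)
      rw [aff_eq] at key
      refine key.trans (ENNReal.ofReal_le_ofReal ?_)
      have e1 : (Nat.card (KT T i) : ℝ) * (2 * ((κ * (r * t))⁻¹ * (2 * η * t))) =
          (Nat.card (KT T i) : ℝ) * (4 * η) / (κ * r) := by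
        field_simp
        ring
      rw [e1, div_le_iff₀ hκr]
      have h1 : (Nat.card (KT T i) : ℝ) ≤ nc := Nat.cast_le.2 hTi.cardK
      have h2 : (Nat.card (KT T i) : ℝ) * (4 * η) ≤ nc * (4 * η) :=
        mul_le_mul_of_nonneg_right h1 (by linarith)
      nlinarith
    · intro e he w hw
      rw [hAq]
      exact perf_near (hP k k.2) hM (hWc k k.2)
        (Sk3_812.cc_sub_sk1 he.1 he.2.1 hw) (hNc e he hw)
    · intro y hy hd hsub
      exact hface y hy hd ⟨y, T.self_mem_cc y, hWc k k.2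
        (cel_mono ref_Cb _ hr5.le h5σ (hi (hsub (T.self_mem_cc y))))⟩
    · intro z hz hzz
      refine ⟨cel_mono ref_Cb _ hr5.le h5s (hi hz), ?_⟩
      rw [hAq] at hzz
      refine le_trans ?_ hzz
      calc β' * t ≤ β * (κ * r) * t := mul_le_mul_of_nonneg_right hβ' ht.le
        _ = β * (κ * (r * t)) := by ring
    · exact (cells2_le T finrank_euclideanSpace_fin i).trans hTi.cardN
    · nlinarith
  · intro k sJ hsJ
    classical
    have hinjJ : Set.InjOn (fun j : Regs.J T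
        (fun k : {k // k ∈ Q} => cel Cb (zc k) ((1 - 5 * τ) * s)) => j.1.2) sJ := by
      intro j hj j' hj' hjj
      apply Subtype.ext
      apply Prod.ext
      · rw [hsJ j hj, hsJ j' hj']
      · exact hjj
    rw [← Finset.card_image_of_injOn hinjJ]
    have h1 := bodies_le T (c := c) hrt hr5 (zc k) (sJ.image fun j => j.1.2) (fun i hi => by
        obtain ⟨j, hj, rfl⟩ := Finset.mem_image.1 hi
        have h2 := j.2
        rw [hsJ j hj] at h2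
        exact h2) (fun i hi => by
        obtain ⟨j, hj, rfl⟩ := Finset.mem_image.1 hi
        have h2 := j.2
        rw [hsJ j hj] at h2
        obtain ⟨q, hq⟩ := Regs.P_ne T j.1.2
        exact (hG k k.2 _ ⟨q, hq, cel_mono ref_Cb _ hr5.le h54 (h2 hq)⟩).ball)
    have h3 : ((1 - 5 * τ) * s) ^ 3 ≤ s ^ 3 := pow_le_pow_left₀ hr5.le h5s 3
    have h4 : (0 : ℝ) < (r * t) ^ 3 := by positivity
    have h5 : (((sJ.image fun j => j.1.2).card : ℕ) : ℝ) * (r * t) ^ 3 ≤ Nt * (r * t) ^ 3 := by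
      linarith
    exact_mod_cast le_of_mul_le_mul_right h5 h4

end mesh

end Crest.Agent.R096.Cp_465
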