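import Mathlib

/-! Row 96, P3-TIGHT (helper438), part 1: two involutions of a finite type; following a path.

`s`, `t` are involutions, `s` has no fixed point; the fixed points of `t` (the ends of the paths)
are paired by the fixpoint-free involution `pr s t d = (s t)^(n/2) d`, `n` the minimal period. -/

set_option autoImplicit false

namespace Crest.Agent.R096.Tig_438

variable {D : Type*}

/-- `e` lies on the path (or circle) of `d`: every predicate stable under `s` and `t` which holds
at `d` holds at `e` -/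
def Conn (s t : D → D) (d e : D) : Prop :=
  ∀ F : D → Prop, (∀ x, F x → F (s x)) → (∀ x, F x → F (t x)) → F d → F e

theorem Conn.refl (s t : D → D) (d : D) : Conn s t d d := fun _ _ _ h => h

theorem Conn.trans {s t : D → D} {d e f : D} (h : Conn s t d e) (h' : Conn s t e f) :
    Conn s t d f := fun F hs ht hd => h' F hs ht (h F hs ht hd)

theorem Conn.s {s t : D → D} {d e : D} (h : Conn s t d e) : Conn s t d (s e) :=
  fun F hs ht hd => hs _ (h F hs ht hd)

theorem Conn.t {s t : D → D} {d e : D} (h : Conn s t d e) : Conn s t d (t e) :=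
  fun F hs ht hd => ht _ (h F hs ht hd)

theorem Conn.symm {s t : D → D} (hs : ∀ x, s (s x) = x) (ht : ∀ x, t (t x) = x) {d e : D}
    (h : Conn s t d e) : Conn s t e d := by
  intro F hFs hFt he
  by_contra hd
  have h1 := h (fun x => ¬ F x) (fun x hx hx' => hx (by have := hFs _ hx'; rwa [hs] at this))
    (fun x hx hx' => hx (by have := hFt _ hx'; rwa [ht] at this)) hd
  exact h1 he

/-- a function invariant under `s` and `t` is constant along the path -/
theorem Conn.eq {s t : D → D} {A : Type*} {f : D → A} (hs : ∀ x, f (s x) = f x)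
    (ht : ∀ x, f (t x) = f x) {d e : D} (h : Conn s t d e) : f e = f d :=
  h (fun x => f x = f d) (fun x hx => (hs x).trans hx) (fun x hx => (ht x).trans hx) rfl

/-- the same with invariance only on a stable predicate -/
theorem Conn.eq_on {s t : D → D} {A : Type*} {f : D → A} {S : D → Prop}
    (hSs : ∀ x, S x → S (s x)) (hSt : ∀ x, S x → S (t x)) (hs : ∀ x, S x → f (s x) = f x)
    (ht : ∀ x, S x → f (t x) = f x) {d e : D} (h : Conn s t d e) (hd : S d) : f e = f d := by
  have := h (fun x => S x ∧ f x = f d) (fun x hx => ⟨hSs x hx.1, (hs x hx.1).trans hx.2⟩)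
    (fun x hx => ⟨hSt x hx.1, (ht x hx.1).trans hx.2⟩) ⟨hd, rfl⟩
  exact this.2

theorem Conn.mem {s t : D → D} {S : D → Prop} (hSs : ∀ x, S x → S (s x))
    (hSt : ∀ x, S x → S (t x)) {d e : D} (h : Conn s t d e) (hd : S d) : S e := h S hSs hSt hd

/-- the other end of the path -/
noncomputable def pr (s t : D → D) (d : D) : D :=
  (fun x => s (t x))^[Function.minimalPeriod (fun x => s (t x)) d / 2] d

theorem conn_iterate (s t : D → D) (d : D) (n : ℕ) : Conn s t d ((fun x => s (t x))^[n] d) := by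
  induction n with
  | zero => exact Conn.refl _ _ _
  | succ n ih => rw [Function.iterate_succ_apply']; exact ih.t.s

theorem conn_pr (s t : D → D) (d : D) : Conn s t d (pr s t d) := conn_iterate _ _ _ _

section perm

variable (S T : Equiv.Perm D)

theorem zpow_conj (hS : S * S = 1) (hT : T * T = 1) (k : ℤ) : T * (S * T) ^ k = (S * T) ^ (-k) * T := by
  have hT' : T⁻¹ = T := inv_eq_of_mul_eq_one_left hT
  have hS' : S⁻¹ = S := inv_eq_of_mul_eq_one_left hS
  have h1 : T * (S * T) * T⁻¹ = (S * T)⁻¹ := by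
    rw [mul_inv_rev, hT', hS', mul_assoc, mul_assoc, hT, mul_one]
  have h2 : T * (S * T) ^ k * T⁻¹ = ((S * T)⁻¹) ^ k := by rw [← h1, conj_zpow]
  rw [← mul_inv_eq_iff_eq_mul, h2, inv_zpow, zpow_neg]

variable {S T}

theorem apply_T (hS : S * S = 1) (hT : T * T = 1) {d : D} (hd : T d = d) (k : ℤ) :
    T (((S * T) ^ k) d) = ((S * T) ^ (-k)) d := by
  have := congrArg (fun f : Equiv.Perm D => f d) (zpow_conj S T hS hT k)
  simpa [Equiv.Perm.mul_apply, hd] using this

theorem apply_S (hS : S * S = 1) (hT : T * T = 1) {d : D} (hd : T d = d) (k : ℤ) :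
    S (((S * T) ^ k) d) = ((S * T) ^ (1 - k)) d := by
  have hTT : ∀ x, T (T x) = x := fun x => by
    have := congrArg (fun f : Equiv.Perm D => f x) hT
    simpa [Equiv.Perm.mul_apply] using this
  have h0 : ∀ x, S x = (S * T) (T x) := fun x => by rw [Equiv.Perm.mul_apply, hTT]
  rw [h0 (((S * T) ^ k) d), apply_T hS hT hd, ← Equiv.Perm.mul_apply, ← zpow_one_add]
  congr 2

theorem zpow_eq_iff {π : Equiv.Perm D} {d : D} (i j : ℤ) :
    (π ^ i) d = (π ^ j) d ↔ (Function.minimalPeriod π d : ℤ) ∣ i - j := by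
  have h := MulAction.zpow_smul_eq_iff_minimalPeriod_dvd (a := π) (b := d) (n := i - j)
  have h2 : (fun x => π • x) = (π : D → D) := rfl
  rw [h2] at h
  rw [← h]
  constructor
  · intro h3
    have : (π ^ (i - j)) d = (π ^ (-j)) ((π ^ i) d) := by
      rw [← Equiv.Perm.mul_apply, ← zpow_add]; congr 2; ring
    show (π ^ (i - j)) d = d
    rw [this, h3, ← Equiv.Perm.mul_apply, ← zpow_add]; simp
  · intro h3
    have h4 : (π ^ (i - j)) d = d := h3
    have : (π ^ i) d = (π ^ j) ((π ^ (i - j)) d) := by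
      rw [← Equiv.Perm.mul_apply, ← zpow_add]; congr 2; ring
    rw [this, h4]

end perm

section pair

variable {s t : D → D} (hs : ∀ x, s (s x) = x) (ht : ∀ x, t (t x) = x)
  (hsn : ∀ x, s x ≠ x)

/-- the permutation of an involution -/
def ofInv (s : D → D) (hs : ∀ x, s (s x) = x) : Equiv.Perm D := ⟨s, s, hs, hs⟩

@[simp] theorem ofInv_apply (x : D) : ofInv s hs x = s x := rfl

theorem ofInv_mul_self : ofInv s hs * ofInv s hs = 1 := by
  ext x; simp [Equiv.Perm.mul_apply, hs]

theorem coe_st : ((ofInv s hs * ofInv t ht : Equiv.Perm D) : D → D) = fun x => s (t x) := by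
  funext x; simp [Equiv.Perm.mul_apply]

include hs ht

theorem iterate_eq (n : ℕ) (d : D) :
    (fun x => s (t x))^[n] d = ((ofInv s hs * ofInv t ht) ^ (n : ℤ)) d := by
  rw [zpow_natCast, ← coe_st hs ht, ← Equiv.Perm.iterate_eq_pow]

include hsn

variable [Finite D]

theorem minimalPeriod_even {d : D} (hd : t d = d) :
    ∃ m, 0 < m ∧ Function.minimalPeriod (fun x => s (t x)) d = 2 * m := by
  have hS := ofInv_mul_self hs
  have hT := ofInv_mul_self ht
  have hd' : ofInv t ht d = d := hd
  have hpos : 0 < Function.minimalPeriod (fun x => s (t x)) d := by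
    rw [← coe_st hs ht]
    exact Function.minimalPeriod_pos_of_mem_periodicPts
      ((ofInv s hs * ofInv t ht).injective.mem_periodicPts d)
  rcases Nat.even_or_odd' (Function.minimalPeriod (fun x => s (t x)) d) with ⟨m, hm | hm⟩
  · exact ⟨m, by omega, hm⟩
  · exfalso
    have h1 := apply_S hS hT hd' ((m : ℤ) + 1)
    have h2 : ((ofInv s hs * ofInv t ht) ^ (1 - ((m : ℤ) + 1))) d =
        ((ofInv s hs * ofInv t ht) ^ ((m : ℤ) + 1)) d := by
      rw [zpow_eq_iff, coe_st hs ht, hm]
      exact ⟨-1, by push_cast; ring⟩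
    rw [h2] at h1
    exact hsn _ h1

theorem t_pr {d : D} (hd : t d = d) : t (pr s t d) = pr s t d := by
  obtain ⟨m, hm, h⟩ := minimalPeriod_even hs ht hsn hd
  have hS := ofInv_mul_self hs
  have hT := ofInv_mul_self ht
  have hd' : ofInv t ht d = d := hd
  unfold pr
  rw [h, Nat.mul_div_cancel_left _ (by norm_num), iterate_eq hs ht]
  have h1 := apply_T hS hT hd' (m : ℤ)
  rw [ofInv_apply] at h1
  rw [h1, zpow_eq_iff, coe_st hs ht, h]
  exact ⟨-1, by push_cast; ring⟩

theorem pr_ne {d : D} (hd : t d = d) : pr s t d ≠ d := by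
  obtain ⟨m, hm, h⟩ := minimalPeriod_even hs ht hsn hd
  unfold pr
  rw [h, Nat.mul_div_cancel_left _ (by norm_num), iterate_eq hs ht]
  intro h1
  have h2 : ((ofInv s hs * ofInv t ht) ^ (m : ℤ)) d = ((ofInv s hs * ofInv t ht) ^ (0 : ℤ)) d := by
    simpa using h1
  rw [zpow_eq_iff, coe_st hs ht, h] at h2
  obtain ⟨k, hk⟩ := h2
  push_cast at hk
  have : (m : ℤ) * (1 - 2 * k) = 0 := by linarith
  rcases mul_eq_zero.1 this with h3 | h3 <;> omega

/-- the ends of the path of `p` are `p` and `pr s t p` -/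
theorem end_unique {p e : D} (hp : t p = p) (he : t e = e) (hc : Conn s t p e) :
    e = p ∨ e = pr s t p := by
  obtain ⟨m, hm, h⟩ := minimalPeriod_even hs ht hsn hp
  have hS := ofInv_mul_self hs
  have hT := ofInv_mul_self ht
  have hp' : ofInv t ht p = p := hp
  have h1 : ∃ k : ℤ, e = ((ofInv s hs * ofInv t ht) ^ k) p := by
    refine hc (fun x => ∃ k : ℤ, x = ((ofInv s hs * ofInv t ht) ^ k) p) ?_ ?_ ⟨0, by simp⟩
    · rintro x ⟨k, rfl⟩
      exact ⟨1 - k, by have := apply_S hS hT hp' k; simpa using this⟩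
    · rintro x ⟨k, rfl⟩
      exact ⟨-k, by have := apply_T hS hT hp' k; rw [ofInv_apply] at this; exact this⟩
  obtain ⟨k, rfl⟩ := h1
  have h2 := apply_T hS hT hp' k
  rw [ofInv_apply, he, zpow_eq_iff, coe_st hs ht, h] at h2
  obtain ⟨j, hj⟩ := h2
  push_cast at hj
  have hkj : k = m * j := by linarith
  rcases Int.even_or_odd' j with ⟨i, hi | hi⟩
  · left
    have : ((ofInv s hs * ofInv t ht) ^ k) p = ((ofInv s hs * ofInv t ht) ^ (0 : ℤ)) p := by
      rw [zpow_eq_iff, coe_st hs ht, h, hkj, hi]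
      exact ⟨i, by push_cast; ring⟩
    simpa using this
  · right
    unfold pr
    rw [h, Nat.mul_div_cancel_left _ (by norm_num), iterate_eq hs ht, zpow_eq_iff,
      coe_st hs ht, h, hkj, hi]
    exact ⟨i, by push_cast; ring⟩

theorem pr_pr {d : D} (hd : t d = d) : pr s t (pr s t d) = d := by
  have h1 := t_pr hs ht hsn hd
  have h2 := t_pr hs ht hsn h1
  have hc : Conn s t d (pr s t (pr s t d)) := (conn_pr s t d).trans (conn_pr s t _)
  rcases end_unique hs ht hsn hd h2 hc with h | h
  · exact h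
  · exact absurd h (pr_ne hs ht hsn h1)

end pair

end Crest.Agent.R096.Tig_438
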