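import Crest.Agent.R096.Wk3_689
import Crest.Agent.R096.Tig1_438

/-!
# R096 / P3 / FACE (4): the new partner `mu'`, ends of orbits
-/

set_option autoImplicit false

namespace Crest.Agent.R096.Wk_689
open St_147 Fx_689

variable {ι Φ W I : Type} {M : MeshC ι Φ W} {col : I → Bool} {s : St M col}

instance (x : Bool) : Finite (s.Sub x) := by
  have hfin : {F : Φ | ∃ w ∈ s.P, w ∈ M.On F}.Finite := by
    have : {F : Φ | ∃ w ∈ s.P, w ∈ M.On F} = ⋃ w ∈ s.P, {F | w ∈ M.On F} := by
      ext F; simp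
    rw [this]
    exact s.P.finite_toSet.biUnion (fun w _ => M.fin w)
  have := hfin.to_subtype
  have h1 : Finite {p : Φ × W // s.At p.1 p.2 ∧ M.pos p.1 p.2 < M.pos p.1 (s.mu p.1 p.2) ∧
      col (s.lab p.2) = x} := by
    apply Finite.of_injective
      (fun a => ((⟨a.1.1, ⟨a.1.2, a.2.1.1, a.2.1.2⟩⟩, ⟨a.1.2, a.2.1.1⟩) :
        (↥{F : Φ | ∃ w ∈ s.P, w ∈ M.On F}) × {a // a ∈ s.P}))
    intro a b h
    simp only [Prod.mk.injEq, Subtype.mk.injEq] at h
    exact Subtype.ext (Prod.ext h.1 h.2)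
  exact inferInstanceAs (Finite ({p : Φ × W // s.At p.1 p.2 ∧
    M.pos p.1 p.2 < M.pos p.1 (s.mu p.1 p.2) ∧ col (s.lab p.2) = x} ⊕ s.Dbl))

instance : Finite (Dart s) := by
  apply Finite.of_injective (fun d : Dart s => (⟨d.x, d.p, d.b⟩ : (x : Bool) × s.Sub x × Bool))
  intro d d' h
  obtain ⟨x, p, b⟩ := d
  obtain ⟨x', p', b'⟩ := d'
  simp only [Sigma.mk.injEq] at h
  obtain ⟨rfl, h⟩ := h
  simp only [heq_eq_eq, Prod.mk.injEq] at h
  rw [h.1, h.2]

variable {G : Set s.Dbl} {inn : s.Dbl → Bool → Bool}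

lemma orb_eq_iff {d d' : Dart s} :
    orb G inn d = orb G inn d' ↔ Tig_438.Conn flip (tt G inn) d d' := by
  constructor
  · intro h F hs ht hd
    have key : ∀ e : Dart s, (F e ↔ F (flip e)) ∧ (F e ↔ F (tt G inn e)) := by
      intro e
      refine ⟨⟨hs e, fun h => ?_⟩, ⟨ht e, fun h => ?_⟩⟩
      · have := hs _ h; rwa [flip_flip] at this
      · have := ht _ h; rwa [tt_tt] at this
    let f : Orb G inn → Prop := Quot.lift F (by
      rintro a b (rfl | rfl)
      · exact propext (key a).1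
      · exact propext (key a).2)
    have h1 : f (orb G inn d) = f (orb G inn d') := by rw [h]
    have h2 : F d = F d' := h1
    exact h2.mp hd
  · intro h
    exact h (fun e => orb G inn d = orb G inn e) (fun e he => he.trans (orb_flip e).symm)
      (fun e he => he.trans (orb_tt e).symm) rfl

open Classical in
/-- the new partner: the other end of the walk -/
noncomputable def mu' (G : Set s.Dbl) (inn : s.Dbl → Bool → Bool) (F : Φ) (w : W) : W :=
  if h : s.At F w then pt (Tig_438.pr flip (tt G inn) (ed h)) else w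

lemma pr_node {F : Φ} {w : W} (h : s.At F w) :
    node (Tig_438.pr flip (tt G inn) (ed h)) = none :=
  tt_eq_iff.1 (Tig_438.t_pr flip_flip tt_tt flip_ne (tt_eq_iff.2 (node_ed h)))

lemma orb_pr {F : Φ} {w : W} (h : s.At F w) :
    orb G inn (Tig_438.pr flip (tt G inn) (ed h)) = orb G inn (ed h) :=
  (orb_eq_iff.2 (Tig_438.conn_pr flip (tt G inn) (ed h))).symm

lemma pr_fc {F : Φ} {w : W} (h : s.At F w) :
    fc (Tig_438.pr flip (tt G inn) (ed h)) = F := by
  rw [← fc_orb (G := G) (inn := inn), orb_pr, fc_orb, fc_ed]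

lemma mu'_at (G : Set s.Dbl) (inn : s.Dbl → Bool → Bool) {F : Φ} {w : W} (h : s.At F w) :
    s.At F (mu' G inn F w) := by
  unfold mu'
  rw [dif_pos h]
  have := pt_at (Tig_438.pr flip (tt G inn) (ed h))
  rwa [pr_fc h] at this

lemma ed_mu' {F : Φ} {w : W} (h : s.At F w) :
    ed (mu'_at G inn h) = Tig_438.pr flip (tt G inn) (ed h) := by
  symm
  apply eq_ed (pr_node h) (pr_fc h)
  unfold mu'
  rw [dif_pos h]

lemma orb_mu' {F : Φ} {w : W} (h : s.At F w) :
    orb G inn (ed (mu'_at G inn h)) = orb G inn (ed h) := by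
  rw [ed_mu', orb_pr]

lemma mu'_ne {F : Φ} {w : W} (h : s.At F w) : mu' G inn F w ≠ w := by
  intro h'
  have h1 := Tig_438.pr_ne flip_flip (tt_tt (G := G) (inn := inn)) flip_ne
    (tt_eq_iff.2 (node_ed h))
  apply h1
  apply ed_unique (pr_node h) (node_ed h) ((pr_fc h).trans (fc_ed h).symm)
  rw [pt_ed h]
  unfold mu' at h'
  rwa [dif_pos h] at h'

lemma ed_inj {F F' : Φ} {w w' : W} (h : s.At F w) (h' : s.At F' w') (he : ed h = ed h') :
    F = F' ∧ w = w' := by
  constructor
  · rw [← fc_ed h, he, fc_ed]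
  · rw [← pt_ed h, he, pt_ed]

lemma mu'_mu' {F : Φ} {w : W} (h : s.At F w) : mu' G inn F (mu' G inn F w) = w := by
  have h1 := mu'_at G inn h
  have h2 : ed (mu'_at G inn h1) = ed h := by
    rw [ed_mu' h1, ed_mu' h]
    exact Tig_438.pr_pr flip_flip tt_tt flip_ne (tt_eq_iff.2 (node_ed h))
  exact (ed_inj _ _ h2).2

/-- the end darts of an orbit -/
lemma orb_ed_iff {F F' : Φ} {w w' : W} (h : s.At F w) (h' : s.At F' w') :
    orb G inn (ed h') = orb G inn (ed h) ↔ F' = F ∧ (w' = w ∨ w' = mu' G inn F w) := by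
  constructor
  · intro he
    have hF : F' = F := by
      have := congrArg Orb.fc he
      rwa [fc_orb, fc_orb, fc_ed, fc_ed] at this
    subst hF
    refine ⟨rfl, ?_⟩
    have hc := orb_eq_iff.1 he.symm
    rcases Tig_438.end_unique flip_flip tt_tt flip_ne (tt_eq_iff.2 (node_ed h))
      (tt_eq_iff.2 (node_ed h')) hc with h1 | h1
    · left; exact (ed_inj _ _ h1).2
    · right
      rw [← ed_mu' h] at h1
      exact (ed_inj _ _ h1).2
  · rintro ⟨rfl, rfl | rfl⟩
    · rfl
    · exact orb_mu' h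

/-- `c` = a chord without points of `G`: the darts of the chord are stable -/
lemma chd_tt {d : Dart s} (hG : ∀ z ∈ G, (z.F, z.e d.x) ≠ chd d.p) :
    (tt G inn d).x = d.x ∧ chd (tt G inn d).p = chd d.p := by
  rcases hn : node d with _ | z
  · rw [tt_none hn]; exact ⟨rfl, rfl⟩
  · have h := eq_dz hn
    have hc : chd d.p = (z.F, z.e d.x) := by
      have key : ∀ x b : Bool, chd (dz z x b).p = (z.F, z.e (dz z x b).x) := by
        intro x b
        cases b
        · rfl
        · exact below_chd (bel_spec z x)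
      have := key d.x d.b
      rwa [← h] at this
    have hz : z ∉ G := fun hz => hG z hz hc.symm
    have h2 : tt G inn d = dz z d.x (!d.b) := by
      conv_lhs => rw [h]
      rw [tt_dz_out hz]
    rw [h2]
    refine ⟨dz_x _ _ _, ?_⟩
    rw [hc]
    have key : ∀ x b : Bool, chd (dz z x b).p = (z.F, z.e x) := by
      intro x b
      cases b
      · rfl
      · exact below_chd (bel_spec z x)
    exact key _ _

/-- the chord of an end dart -/
lemma chd_ed {F : Φ} {w : W} (h : s.At F w) : chd (ed h).p = (F, s.lo F w) := by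
  have h1 : (chd (ed h).p).1 = F := fc_ed h
  have h2 : s.lo (fc (ed h)) (pt (ed h)) = (chd (ed h).p).2 := by
    unfold pt
    split
    · exact lo_mu_of_lt (chd_at _) (chd_low _)
    · exact lo_eq_of_lt (chd_low _)
  rw [fc_ed h, pt_ed h] at h2
  exact Prod.ext h1 h2.symm

/-- a chord which carries no point of `G` keeps its ends -/
theorem mu'_eq_mu {F : Φ} {w : W} (h : s.At F w)
    (hG : ∀ z ∈ G, z.F = F → z.e (col (s.lab w)) ≠ s.lo F w) : mu' G inn F w = s.mu F w := by
  have hstab : ∀ d : Dart s, (d.x = (ed h).x ∧ chd d.p = chd (ed h).p) →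
      ((tt G inn d).x = (ed h).x ∧ chd (tt G inn d).p = chd (ed h).p) := by
    rintro d ⟨h1, h2⟩
    have h3 := chd_tt (inn := inn) (d := d) (G := G) (by
      intro z hz h4
      rw [h2, chd_ed h] at h4
      rw [h1, x_ed h] at h4
      simp only [Prod.mk.injEq] at h4
      exact hG z hz h4.1 h4.2)
    exact ⟨h3.1.trans h1, h3.2.trans h2⟩
  have hc := Tig_438.conn_pr flip (tt G inn) (ed h)
    (fun d => d.x = (ed h).x ∧ chd d.p = chd (ed h).p) (fun d hd => hd) hstab ⟨rfl, rfl⟩
  have h5 : s.lo F (mu' G inn F w) = s.lo F w := by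
    have h6 := hc.2
    rw [← ed_mu' h, chd_ed, chd_ed] at h6
    exact (Prod.mk.inj h6).2
  have h7 := mu'_ne (G := G) (inn := inn) h
  have hm := s.mu_mu h.1 h.2
  have hm' := s.mu_mu (mu'_at G inn h).1 (mu'_at G inn h).2
  unfold St.lo at h5
  split_ifs at h5 with a1 a2 a2
  · exact absurd h5 h7
  · exact h5
  · rw [h5] at hm'
    exact hm'.symm
  · have := congrArg (s.mu F) h5
    rw [hm, hm'] at this
    exact absurd this h7

end Crest.Agent.R096.Wk_689
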