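import Crest.Agent.R096.Seq2_213
import Crest.Agent.R096.Wk4_689

/-!
# R096 / COPY, part 4 (helper298): embeddings of states and closed double curves

`Emb s s'` : the state `s` is (combinatorially) the part of `s'` formed by some of the sheets.
`Emb.arcs` : arcs of `s'` restrict to arcs of `s`.
`noClosed_of_emb` : if every double point of `s'` is seen by an embedding of `s` and `s` has no
closed double curve, then `s'` has none.
-/

set_option autoImplicit false

namespace Crest.Agent.R096.Cp_298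
open Crest.Agent.R096.St_147 Crest.Agent.R096.Seq_213 Crest.Agent.R096.Wk_689

variable {ι Φ W I I' : Type} {M : MeshC ι Φ W} {col : I → Bool} {col' : I' → Bool}

section one
variable {s : St M col}

/-- a function on the pieces is constant between two pieces if there is no jump in between -/
theorem const_along {x : Bool} (φ : s.Sub x → ZMod 2) {p₁ : s.Sub x} :
    ∀ (n : ℕ) (p₂ : s.Sub x), {u : s.Dbl | (u.F, u.e x) = chd p₁ ∧ u.key x < start p₂}.ncard = n →
      chd p₁ = chd p₂ → start p₁ ≤ start p₂ →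
      (∀ u : s.Dbl, (u.F, u.e x) = chd p₁ → start p₁ < u.key x → u.key x ≤ start p₂ →
        φ (bel u x) = φ (Sum.inr u)) → φ p₁ = φ p₂ := by
  intro n
  induction n using Nat.strong_induction_on with
  | _ n ih =>
    intro p₂ hn hc hle hj
    rcases hle.eq_or_lt with he | hlt
    · rw [start_inj hc he]
    cases p₂ with
    | inl a =>
      exfalso
      exact absurd (start_inl_le (a := a) (p := p₁) hc.symm) (not_le.2 hlt)
    | inr u =>
      have hcu : (u.F, u.e x) = chd p₁ := hc.symm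
      have hb := below_start (bel_spec u x)
      have hbc := below_chd (bel_spec u x)
      have hj1 : φ (bel u x) = φ (Sum.inr u) := hj u hcu hlt le_rfl
      have h3 : start p₁ ≤ start (bel u x) := by
        by_contra h
        rw [not_le] at h
        exact hb.2 p₁ (by rw [hbc]; exact hcu.symm) ⟨h, hlt⟩
      have hc3 : chd p₁ = chd (bel u x) := by rw [hbc]; exact hcu.symm
      rw [← hj1]
      cases hp : bel u x with
      | inl a =>
        have h4 : start (Sum.inl a : s.Sub x) ≤ start p₁ := by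
          apply start_inl_le
          rw [← hp]; exact hc3.symm
        rw [hp] at h3 hc3
        rw [start_inj hc3 (le_antisymm h3 h4)]
      | inr y =>
        rw [hp] at h3 hc3 hb
        refine ih _ ?_ (Sum.inr y) rfl hc3 h3 ?_
        · rw [← hn]
          apply Set.ncard_lt_ncard _ (Set.toFinite _)
          refine ⟨?_, ?_⟩
          · rintro v ⟨h5, h6⟩
            exact ⟨h5, lt_trans h6 hb.1⟩
          · intro hsub
            have : y ∈ {u : s.Dbl | (u.F, u.e x) = chd p₁ ∧
                u.key x < start (Sum.inr y : s.Sub x)} := hsub ⟨hc3.symm, hb.1⟩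
            exact lt_irrefl _ this.2
        · intro v h5 h6 h7
          exact hj v h5 h6 (h7.trans hb.1.le)

theorem const_along' {x : Bool} (φ : s.Sub x → ZMod 2) {p₁ p₂ : s.Sub x}
    (hc : chd p₁ = chd p₂) (hle : start p₁ ≤ start p₂)
    (hj : ∀ u : s.Dbl, (u.F, u.e x) = chd p₁ → start p₁ < u.key x → u.key x ≤ start p₂ →
      φ (bel u x) = φ (Sum.inr u)) : φ p₁ = φ p₂ :=
  const_along φ _ p₂ rfl hc hle hj

/-- chord of an end piece -/
theorem end_chd {x : Bool} {p : s.Sub x} {F : Φ} {w : W} (h : p.End F w) :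
    chd p = (F, s.lo F w) := by
  obtain ⟨hat, h⟩ := h
  rcases h with ⟨h1, a, rfl, ha⟩ | ⟨h1, h2⟩
  · rw [lo_eq_of_lt h1]; exact ha
  · have e : s.lo F w = s.mu F w := by
      unfold St.lo
      rw [if_neg (not_le.2 h1)]
    rw [e]
    cases p with
    | inl a => exact h2.1
    | inr z => exact Prod.ext h2.1 h2.2.1

/-- end piece at an upper end: no double point above -/
theorem end_up {x : Bool} {p : s.Sub x} {F : Φ} {w : W} (h : p.End F w)
    (hlt : M.pos F (s.mu F w) < M.pos F w) (u : s.Dbl) (hu : (u.F, u.e x) = chd p) :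
    ¬ start p < u.key x := by
  have hc := end_chd h
  obtain ⟨hat, h⟩ := h
  rcases h with ⟨h1, _⟩ | ⟨h1, h2⟩
  · exact absurd h1 (lt_asymm hlt)
  · have e : s.lo F w = s.mu F w := by
      unfold St.lo
      rw [if_neg (not_le.2 h1)]
    rw [hc, e] at hu
    have hu1 : u.F = F := congrArg Prod.fst hu
    have hu2 : u.e x = s.mu F w := congrArg Prod.snd hu
    cases p with
    | inl a => exact absurd hu2 (h2.2 u hu1)
    | inr z => exact h2.2.2 u hu1 hu2

/-- the last piece is the end piece at the upper end -/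
theorem end_of_top {x : Bool} {p : s.Sub x} {F : Φ} {w : W} (hat : s.At F w)
    (hlt : M.pos F (s.mu F w) < M.pos F w) (hc : chd p = (F, s.mu F w)) (ht : IsTop p) :
    p.End F w := by
  refine ⟨hat, Or.inr ⟨hlt, ?_⟩⟩
  rw [top_iff] at ht
  cases p with
  | inl a =>
    refine ⟨hc, fun u hu he => ?_⟩
    have h1 := ht (Sum.inr u) (by rw [hc]; exact Prod.ext hu he)
    have h2 : M.pos a.1.1 a.1.2 < u.key x := by
      have ha : a.1 = (F, s.mu F w) := hc
      rw [ha]
      have := (key_mem u x).1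
      rw [hu, he] at this
      exact this
    exact absurd h1 (not_le.2 h2)
  | inr z =>
    refine ⟨congrArg Prod.fst hc, congrArg Prod.snd hc, fun u hu he => ?_⟩
    exact not_lt.2 (ht (Sum.inr u) (by rw [hc]; exact Prod.ext hu he))

theorem exists_top' {F : Φ} {a : W} {x : Bool} (hx : col (s.lab a) = x) (ha : s.At F a)
    (hl : M.pos F a < M.pos F (s.mu F a)) : ∃ p : s.Sub x, chd p = (F, a) ∧ IsTop p := by
  subst hx
  exact exists_top ha hl

/-- there is an end piece at every end of a chord -/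
theorem exists_end {F : Φ} {w : W} (hat : s.At F w) {x : Bool} (hx : col (s.lab w) = x) :
    ∃ p : s.Sub x, p.End F w := by
  have hne : M.pos F w ≠ M.pos F (s.mu F w) := fun e =>
    s.mu_ne hat.1 hat.2 (M.pos_inj F hat.2 (s.mu_mem hat.1 hat.2).2 e).symm
  rcases lt_or_gt_of_ne hne with h | h
  · exact ⟨Sum.inl ⟨(F, w), hat, h, hx⟩, hat, Or.inl ⟨h, _, rfl, rfl⟩⟩
  · have hm := s.mu_mem hat.1 hat.2
    have h' : M.pos F (s.mu F w) < M.pos F (s.mu F (s.mu F w)) := by
      rw [s.mu_mu hat.1 hat.2]; exact h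
    obtain ⟨p, h1, h2⟩ := exists_top' (s := s) (F := F) (a := s.mu F w) (x := x)
      (by rw [s.mu_lab hat.1 hat.2]; exact hx) ⟨hm.1, hm.2⟩ h'
    exact ⟨p, end_of_top hat h h1 h2⟩

/-- arcs keep the names -/
theorem arc_lab {Act : Set ι} (A : s.Arcs Act) {q : ι} {z : s.Dbl} (h1 : q ∈ Act)
    (h2 : q ∈ M.side z.F) (x : Bool) : s.lab ((A.arc q z).e x) = s.lab (z.e x) := by
  classical
  have h := A.same (z := z) x h1 h2
    (fun p => if s.lab (chd p).2 = s.lab (z.e x) then 1 else 0) ?_ ?_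
  · simp only [chd, if_pos] at h
    by_contra hne
    rw [if_neg hne] at h
    exact absurd h (by decide)
  · intro F F' w p p' _ _ hp hp'
    have e : ∀ (F : Φ) (p : s.Sub x), p.End F w → s.lab (chd p).2 = s.lab w := by
      intro F p hp
      rw [end_chd hp]
      exact Seq_213.lo_lab s hp.1
    simp only [e F p hp, e F' p' hp']
  · intro u p p' _ hb ha
    have e1 := below_chd hb
    have e2 : p' = Sum.inr u := ha
    have e3 : chd p' = (u.F, u.e x) := by rw [e2]; rfl
    show (if s.lab (chd p).2 = s.lab (z.e x) then (1 : ZMod 2) else 0) =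
      (if s.lab (chd p').2 = s.lab (z.e x) then (1 : ZMod 2) else 0)
    rw [e1, e3]

end one

/-- The state `s` is the part of `s'` formed by some of the sheets. -/
structure Emb (s : St M col) (s' : St M col') where
  pt : W → W
  nu : I → I'
  mem : ∀ {w}, w ∈ s.P → pt w ∈ s'.P
  on : ∀ {w} (F : Φ), w ∈ s.P → (pt w ∈ M.On F ↔ w ∈ M.On F)
  inj : ∀ {w v}, w ∈ s.P → v ∈ s.P → pt w = pt v → w = v
  mu : ∀ {F w}, s.At F w → s'.mu F (pt w) = pt (s.mu F w)
  lab : ∀ {w}, w ∈ s.P → s'.lab (pt w) = nu (s.lab w)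
  col_eq : ∀ i, col' (nu i) = col i
  surj : ∀ {x}, x ∈ s'.P → (∃ i, s'.lab x = nu i) → ∃ w ∈ s.P, pt w = x
  lt : ∀ {F w v}, s.At F w → s.At F v → M.pos F w < M.pos F v →
    M.pos F (pt w) < M.pos F (pt v)

namespace Emb

variable {s : St M col} {s' : St M col'}

theorem at_ (E : Emb s s') {F : Φ} {w : W} (h : s.At F w) : s'.At F (E.pt w) :=
  ⟨E.mem h.1, (E.on F h.1).2 h.2⟩

theorem lt_iff (E : Emb s s') {F : Φ} {w v : W} (hw : s.At F w) (hv : s.At F v) :
    M.pos F (E.pt w) < M.pos F (E.pt v) ↔ M.pos F w < M.pos F v := by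
  constructor
  · intro h
    by_contra hc
    rcases (not_lt.1 hc).eq_or_lt with h1 | h1
    · rw [M.pos_inj F hv.2 hw.2 h1] at h
      exact lt_irrefl _ h
    · exact lt_asymm h (E.lt hv hw h1)
  · exact E.lt hw hv

theorem lace_iff (E : Emb s s') {F : Φ} {a b c d : W} (ha : s.At F a) (hb : s.At F b)
    (hc : s.At F c) (hd : s.At F d) :
    M.Lace F (E.pt a) (E.pt b) (E.pt c) (E.pt d) ↔ M.Lace F a b c d := by
  unfold MeshC.Lace MeshC.Btw
  rw [E.lt_iff ha hc, E.lt_iff hc hb, E.lt_iff hb hc, E.lt_iff hc ha, E.lt_iff ha hd,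
    E.lt_iff hd hb, E.lt_iff hb hd, E.lt_iff hd ha]

theorem mu_at {F : Φ} {w : W} (h : s.At F w) : s.At F (s.mu F w) := s.mu_mem h.1 h.2

/-- the double point -/
def T (E : Emb s s') (z : s.Dbl) : s'.Dbl where
  F := z.F
  e := fun x => E.pt (z.e x)
  at_ := fun x => E.at_ (z.at_ x)
  low := fun x => by
    rw [E.mu (z.at_ x), E.lt_iff (z.at_ x) (mu_at (z.at_ x))]
    exact z.low x
  colr := fun x => by rw [E.lab (z.at_ x).1, E.col_eq]; exact z.colr x
  lace := by
    rw [E.mu (z.at_ true), E.mu (z.at_ false), E.lace_iff (z.at_ true) (mu_at (z.at_ true))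
      (z.at_ false) (mu_at (z.at_ false))]
    exact z.lace

theorem T_F (E : Emb s s') (z : s.Dbl) : (E.T z).F = z.F := rfl

theorem T_e (E : Emb s s') (z : s.Dbl) (x : Bool) : (E.T z).e x = E.pt (z.e x) := rfl

theorem T_inj (E : Emb s s') {z z' : s.Dbl} (h : E.T z = E.T z') : z = z' := by
  have h1 : z.F = z'.F := congrArg (fun y : s'.Dbl => y.F) h
  have h2 : ∀ x, E.pt (z.e x) = E.pt (z'.e x) := fun x =>
    congrFun (congrArg (fun y : s'.Dbl => y.e) h) x
  refine Seq_213.Dbl.ext' h1 (funext fun x => ?_)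
  exact E.inj (z.at_ x).1 (z'.at_ x).1 (h2 x)

theorem T_surj (E : Emb s s') {z' : s'.Dbl} (h : ∀ x, ∃ i, s'.lab (z'.e x) = E.nu i) :
    ∃ z : s.Dbl, E.T z = z' := by
  choose w hw hpt using fun x => E.surj (z'.at_ x).1 (h x)
  have hat : ∀ x, s.At z'.F (w x) := fun x =>
    ⟨hw x, (E.on z'.F (hw x)).1 (by rw [hpt]; exact (z'.at_ x).2)⟩
  have hmu : ∀ x, s'.mu z'.F (z'.e x) = E.pt (s.mu z'.F (w x)) := fun x => by
    rw [← hpt, E.mu (hat x)]
  refine ⟨⟨z'.F, w, hat, fun x => ?_, fun x => ?_, ?_⟩, ?_⟩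
  · have h1 := z'.low x
    rw [hmu x, ← hpt x, E.lt_iff (hat x) (mu_at (hat x))] at h1
    exact h1
  · have h1 := z'.colr x
    rw [← hpt x, E.lab (hw x), E.col_eq] at h1
    exact h1
  · have h1 := z'.lace
    rw [hmu true, hmu false, ← hpt true, ← hpt false,
      E.lace_iff (hat true) (mu_at (hat true)) (hat false) (mu_at (hat false))] at h1
    exact h1
  · exact Seq_213.Dbl.ext' rfl (funext hpt)

theorem T_kp (E : Emb s s') (z : s.Dbl) (x : Bool) : kp (E.T z) x = E.pt (kp z x) := by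
  classical
  unfold kp
  have hiff : M.Btw (E.T z).F ((E.T z).e x) (s'.mu (E.T z).F ((E.T z).e x)) ((E.T z).e (!x)) ↔
      M.Btw z.F (z.e x) (s.mu z.F (z.e x)) (z.e (!x)) := by
    rw [T_F, T_e, T_e, E.mu (z.at_ x)]
    unfold MeshC.Btw
    rw [E.lt_iff (z.at_ x) (z.at_ (!x)), E.lt_iff (z.at_ (!x)) (mu_at (z.at_ x)),
      E.lt_iff (mu_at (z.at_ x)) (z.at_ (!x)), E.lt_iff (z.at_ (!x)) (z.at_ x)]
  by_cases h : M.Btw z.F (z.e x) (s.mu z.F (z.e x)) (z.e (!x))
  · rw [if_pos h, if_pos (hiff.2 h), T_e]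
  · rw [if_neg h, if_neg (fun h' => h (hiff.1 h')), T_e, T_F, E.mu (z.at_ (!x))]

theorem T_key_lt (E : Emb s s') {z y : s.Dbl} (hF : z.F = y.F) (x : Bool) :
    (E.T z).key x < (E.T y).key x ↔ z.key x < y.key x := by
  rw [key_eq, key_eq, key_eq, key_eq, T_kp, T_kp, T_F, T_F, ← hF]
  exact E.lt_iff (kp_at z x) (by rw [hF]; exact kp_at y x)

/-- the piece -/
def TS (E : Emb s s') {x : Bool} (p : s.Sub x) : s'.Sub x :=
  match p with
  | .inl a => Sum.inl ⟨(a.1.1, E.pt a.1.2), E.at_ a.2.1, by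
      have h := a.2.2.1
      show M.pos a.1.1 (E.pt a.1.2) < M.pos a.1.1 (s'.mu a.1.1 (E.pt a.1.2))
      rw [E.mu a.2.1, E.lt_iff a.2.1 (mu_at a.2.1)]
      exact h, by
      show col' (s'.lab (E.pt a.1.2)) = x
      rw [E.lab a.2.1.1, E.col_eq]; exact a.2.2.2⟩
  | .inr z => Sum.inr (E.T z)

theorem TS_inr (E : Emb s s') {x : Bool} (z : s.Dbl) :
    E.TS (Sum.inr z : s.Sub x) = Sum.inr (E.T z) := rfl

theorem TS_chd (E : Emb s s') {x : Bool} (p : s.Sub x) :
    chd (E.TS p) = ((chd p).1, E.pt (chd p).2) := by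
  cases p with
  | inl a => rfl
  | inr z => rfl

/-- start points are in the same order as the keys -/
theorem TS_start_lt (E : Emb s s') {x : Bool} (p : s.Sub x) {u : s.Dbl}
    (hu : (u.F, u.e x) = chd p) : start (E.TS p) < (E.T u).key x ↔ start p < u.key x := by
  have huF : u.F = (chd p).1 := congrArg Prod.fst hu
  cases p with
  | inl a =>
    show M.pos a.1.1 (E.pt a.1.2) < (E.T u).key x ↔ M.pos a.1.1 a.1.2 < u.key x
    have huF' : u.F = a.1.1 := huF
    rw [key_eq, key_eq, T_kp, T_F, ← huF']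
    exact E.lt_iff (by rw [huF']; exact a.2.1) (kp_at u x)
  | inr z => exact E.T_key_lt huF.symm x

theorem TS_chd_inj (E : Emb s s') {x : Bool} {p : s.Sub x} {u : s.Dbl}
    (h : ((E.T u).F, (E.T u).e x) = chd (E.TS p)) : (u.F, u.e x) = chd p := by
  rw [TS_chd] at h
  have h1 : u.F = (chd p).1 := congrArg Prod.fst h
  have h2 : E.pt (u.e x) = E.pt (chd p).2 := congrArg Prod.snd h
  exact Prod.ext h1 (E.inj (u.at_ x).1 (chd_at p).1 h2)

/-- the names at a piece of a chord of the embedded state -/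
theorem start_bel_ge (E : Emb s s') {x : Bool} {p : s.Sub x} {u : s.Dbl} (h : p.Below u) :
    start (E.TS p) ≤ start (bel (E.T u) x) := by
  by_contra hc
  rw [not_le] at hc
  have hb := below_start (bel_spec (E.T u) x)
  have hbc := below_chd (bel_spec (E.T u) x)
  have hpc := below_chd h
  refine hb.2 (E.TS p) ?_ ⟨hc, ?_⟩
  · rw [hbc, TS_chd, hpc]; rfl
  · rw [E.TS_start_lt p hpc.symm]
    exact (below_start h).1

/-- a function of `s'` whose jumps are images of double points of `s` in `J`: values at pieces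
below a double point -/
theorem val_below (E : Emb s s') {x : Bool} (φ : s'.Sub x → ZMod 2) (Jm : s.Dbl → Prop)
    {F : Φ} (hφ : ∀ u' : s'.Dbl, u'.F = F → φ (bel u' x) ≠ φ (Sum.inr u') →
      ∃ u, Jm u ∧ E.T u = u') {p : s.Sub x} {u : s.Dbl} (hu : u.F = F) (h : p.Below u) :
    φ (E.TS p) = φ (bel (E.T u) x) := by
  have hpc := below_chd h
  refine const_along' φ ?_ (E.start_bel_ge h) ?_
  · rw [below_chd (bel_spec (E.T u) x), TS_chd, hpc]; rfl
  · intro v' h1 h2 h3
    by_contra hne
    have hvF : v'.F = F := by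
      have := congrArg Prod.fst h1
      rw [TS_chd, hpc] at this
      exact this.trans hu
    obtain ⟨v, _, rfl⟩ := hφ v' hvF hne
    have h4 := E.TS_chd_inj h1
    have h5 : start p < v.key x := (E.TS_start_lt p h4).1 h2
    have h6 : (E.T v).key x < (E.T u).key x :=
      lt_of_le_of_lt h3 (below_start (bel_spec (E.T u) x)).1
    have h7 : v.key x < u.key x := by
      refine (E.T_key_lt ?_ x).1 h6
      have := congrArg Prod.fst h4
      rw [hpc] at this
      exact this
    refine (below_start h).2 (Sum.inr v) h4 ⟨h5, h7⟩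

/-- values at end pieces -/
theorem val_end (E : Emb s s') {x : Bool} (φ : s'.Sub x → ZMod 2) (Jm : s.Dbl → Prop)
    {F : Φ} (hφ : ∀ u' : s'.Dbl, u'.F = F → φ (bel u' x) ≠ φ (Sum.inr u') →
      ∃ u, Jm u ∧ E.T u = u') {p : s.Sub x} {w : W} (h : p.End F w) :
    ∃ p' : s'.Sub x, p'.End F (E.pt w) ∧ φ (E.TS p) = φ p' := by
  have hat := h.1
  have hne : M.pos F w ≠ M.pos F (s.mu F w) := fun e =>
    s.mu_ne hat.1 hat.2 (M.pos_inj F hat.2 (s.mu_mem hat.1 hat.2).2 e).symm
  have hpc := end_chd h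
  rcases lt_or_gt_of_ne hne with hl | hl
  · -- lower end
    rcases h.2 with ⟨h1, a, rfl, ha⟩ | ⟨h1, _⟩
    · refine ⟨E.TS (Sum.inl a), ⟨E.at_ hat, Or.inl ⟨?_, _, rfl, ?_⟩⟩, rfl⟩
      · rw [E.mu hat, E.lt_iff hat (mu_at hat)]; exact hl
      · show (a.1.1, E.pt a.1.2) = (F, E.pt w)
        rw [ha]
    · exact absurd h1 (lt_asymm hl)
  · -- upper end
    have hcol : col (s.lab w) = x := by
      have := chd_col p
      rw [hpc] at this
      rw [← this]
      exact congrArg col (Seq_213.lo_lab s hat).symm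
    obtain ⟨p', hp'⟩ := exists_end (s := s') (E.at_ hat) (x := x) (by
      rw [E.lab hat.1, E.col_eq]; exact hcol)
    refine ⟨p', hp', ?_⟩
    have hlo : s.lo F w = s.mu F w := by
      unfold St.lo
      rw [if_neg (not_le.2 hl)]
    have hl' : M.pos F (s'.mu F (E.pt w)) < M.pos F (E.pt w) := by
      rw [E.mu hat, E.lt_iff (mu_at hat) hat]; exact hl
    have hlo' : s'.lo F (E.pt w) = s'.mu F (E.pt w) := by
      unfold St.lo
      rw [if_neg (not_le.2 hl')]
    have hpc' := end_chd hp'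
    have hcc : chd (E.TS p) = chd p' := by
      rw [hpc', TS_chd, hpc, hlo, hlo', E.mu hat]
    refine const_along' φ hcc ?_ ?_
    · -- `p'` is the last piece
      by_contra hcon
      rw [not_le] at hcon
      cases hq : E.TS p with
      | inl a =>
        rw [hq] at hcon hcc
        exact absurd (start_inl_le (a := a) hcc) (not_le.2 hcon)
      | inr v =>
        rw [hq] at hcon hcc
        exact end_up hp' hl' v hcc hcon
    · intro v' h1 h2 h3
      by_contra hne'
      have hvF : v'.F = F := by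
        have := congrArg Prod.fst h1
        rw [TS_chd, hpc] at this
        exact this
      obtain ⟨v, _, rfl⟩ := hφ v' hvF hne'
      have h4 := E.TS_chd_inj h1
      exact end_up h hl v h4 ((E.TS_start_lt p h4).1 h2)

/-! ### restriction of arcs -/

variable {Act : Set ι}

theorem exists_arc (E : Emb s s') (A : s'.Arcs Act) (q : ι) (z : s.Dbl) :
    ∃ y : s.Dbl, q ∈ Act → q ∈ M.side z.F → E.T y = A.arc q (E.T z) := by
  by_cases h : q ∈ Act ∧ q ∈ M.side z.F
  · obtain ⟨y, hy⟩ := E.T_surj (z' := A.arc q (E.T z)) (fun x => ⟨s.lab (z.e x), by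
      rw [arc_lab A h.1 (z := E.T z) h.2 x, T_e, E.lab (z.at_ x).1]⟩)
    exact ⟨y, fun _ _ => hy⟩
  · exact ⟨z, fun h1 h2 => absurd ⟨h1, h2⟩ h⟩

/-- the restricted arc map -/
noncomputable def arcF (E : Emb s s') (A : s'.Arcs Act) (q : ι) (z : s.Dbl) : s.Dbl :=
  (E.exists_arc A q z).choose

theorem T_arcF (E : Emb s s') (A : s'.Arcs Act) {q : ι} {z : s.Dbl} (h1 : q ∈ Act)
    (h2 : q ∈ M.side z.F) : E.T (E.arcF A q z) = A.arc q (E.T z) :=
  (E.exists_arc A q z).choose_spec h1 h2

theorem arcF_mem (E : Emb s s') (A : s'.Arcs Act) {q : ι} {z : s.Dbl} (h1 : q ∈ Act)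
    (h2 : q ∈ M.side z.F) : q ∈ M.side (E.arcF A q z).F := by
  have h := A.mem (z := E.T z) h1 h2
  rw [← E.T_arcF A h1 h2] at h
  exact h

open Classical in
/-- extension by zero of a function on the pieces, constant along every chord -/
noncomputable def ext (E : Emb s s') {x : Bool} (φ : s.Sub x → ZMod 2) (p' : s'.Sub x) : ZMod 2 :=
  if h : ∃ a : {p : Φ × W // s.At p.1 p.2 ∧ M.pos p.1 p.2 < M.pos p.1 (s.mu p.1 p.2) ∧
      col (s.lab p.2) = x}, chd p' = (a.1.1, E.pt a.1.2) then φ (Sum.inl h.choose) else 0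

theorem ext_eq (E : Emb s s') {x : Bool} (φ : s.Sub x → ZMod 2) {p' : s'.Sub x}
    (a : {p : Φ × W // s.At p.1 p.2 ∧ M.pos p.1 p.2 < M.pos p.1 (s.mu p.1 p.2) ∧
      col (s.lab p.2) = x}) (h : chd p' = (a.1.1, E.pt a.1.2)) :
    E.ext φ p' = φ (Sum.inl a) := by
  have hex : ∃ a : {p : Φ × W // s.At p.1 p.2 ∧ M.pos p.1 p.2 < M.pos p.1 (s.mu p.1 p.2) ∧
      col (s.lab p.2) = x}, chd p' = (a.1.1, E.pt a.1.2) := ⟨a, h⟩
  unfold ext
  rw [dif_pos hex]
  congr 2
  have h1 := h.symm.trans hex.choose_spec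
  refine Subtype.ext (Prod.ext (congrArg Prod.fst h1).symm ?_)
  exact (E.inj a.2.1.1 hex.choose.2.1.1 (congrArg Prod.snd h1)).symm

theorem ext_congr (E : Emb s s') {x : Bool} (φ : s.Sub x → ZMod 2) {p' p'' : s'.Sub x}
    (h : chd p' = chd p'') : E.ext φ p' = E.ext φ p'' := by
  unfold ext
  rw [h]

/-- a function without jumps is constant along the chord -/
theorem const_chord {x : Bool} (φ : s.Sub x → ZMod 2) {p : s.Sub x}
    (a : {p : Φ × W // s.At p.1 p.2 ∧ M.pos p.1 p.2 < M.pos p.1 (s.mu p.1 p.2) ∧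
      col (s.lab p.2) = x}) (hc : chd p = a.1)
    (hj : ∀ u : s.Dbl, u.F = (chd p).1 → φ (bel u x) = φ (Sum.inr u)) :
    φ (Sum.inl a) = φ p := by
  refine const_along' φ (p₁ := Sum.inl a) (p₂ := p) ?_ ?_ ?_
  · rw [hc]; rfl
  · exact start_inl_le (a := a) (by rw [hc]; rfl)
  · intro u h1 _ _
    refine hj u ?_
    have : u.F = a.1.1 := congrArg Prod.fst h1
    rw [this, hc]

/-- **arcs restrict to the embedded state** -/
noncomputable def arcs (E : Emb s s') (A : s'.Arcs Act) : s.Arcs Act where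
  arc := E.arcF A
  mem := fun h1 h2 => E.arcF_mem A h1 h2
  ne := by
    intro q z h1 h2 he
    apply A.ne (z := E.T z) h1 h2
    rw [← E.T_arcF A h1 h2, he]
  inv := by
    intro q z h1 h2
    apply E.T_inj
    rw [E.T_arcF A h1 (E.arcF_mem A h1 h2), E.T_arcF A h1 h2]
    exact A.inv (z := E.T z) h1 h2
  side := by
    intro q z x h1 h2
    obtain ⟨φ, a1, a2, a3⟩ := A.side (z := E.T z) x h1 h2
    have hjump : ∀ F, q ∈ M.side F → ∀ u' : s'.Dbl, u'.F = F → φ (bel u' x) ≠ φ (Sum.inr u') →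
        ∃ u : s.Dbl, (u = z ∨ u = E.arcF A q z) ∧ E.T u = u' := by
      intro F hq u' hu' hne
      rcases (a2 u' (bel u' x) (Sum.inr u') (by rw [hu']; exact hq) (bel_spec u' x) rfl).1 hne
        with h | h
      · exact ⟨z, Or.inl rfl, h.symm⟩
      · exact ⟨E.arcF A q z, Or.inr rfl, by rw [E.T_arcF A h1 h2, h]⟩
    refine ⟨fun p => φ (E.TS p), ?_, ?_, ?_⟩
    · intro F F' w p p' b1 b2 b3 b4
      obtain ⟨p2, c1, c2⟩ := E.val_end φ _ (hjump F b1) b3
      obtain ⟨p3, d1, d2⟩ := E.val_end φ _ (hjump F' b2) b4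
      show φ (E.TS p) = φ (E.TS p')
      rw [c2, d2]
      exact a1 F F' (E.pt w) p2 p3 b1 b2 c1 d1
    · intro u p p' b1 b2 b3
      have c3 : p' = Sum.inr u := b3
      show φ (E.TS p) ≠ φ (E.TS p') ↔ _
      rw [c3, E.val_below φ _ (hjump u.F b1) rfl b2, TS_inr,
        a2 (E.T u) (bel (E.T u) x) (Sum.inr (E.T u)) b1 (bel_spec _ x) rfl, ← E.T_arcF A h1 h2]
      constructor
      · rintro (e | e)
        · exact Or.inl (E.T_inj e)
        · exact Or.inr (E.T_inj e)
      · rintro (e | e)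
        · exact Or.inl (by rw [e])
        · exact Or.inr (by rw [e])
    · intro u b1 b2 b3
      show φ (E.TS (Sum.inr u)) = φ (E.TS (Sum.inr (E.arcF A q u)))
      rw [TS_inr, TS_inr, E.T_arcF A h1 b1]
      refine a3 (E.T u) b1 (fun e => b2 (E.T_inj e)) (fun e => b3 ?_)
      rw [← E.T_arcF A h1 h2] at e
      exact E.T_inj e
  same := by
    intro q z x h1 h2 φ a1 a2
    -- no jumps on the faces of `q`
    have hj : ∀ p : s.Sub x, q ∈ M.side (chd p).1 → ∀ u : s.Dbl, u.F = (chd p).1 →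
        φ (bel u x) = φ (Sum.inr u) := by
      intro p hq u hu
      exact a2 u (bel u x) (Sum.inr u) (by rw [hu]; exact hq) (bel_spec u x) rfl
    have key := A.same (z := E.T z) x h1 h2 (E.ext φ) ?_ ?_
    · have e1 : E.ext φ (Sum.inr (E.T z)) = φ (Sum.inr z) := by
        rw [E.ext_eq φ ⟨(z.F, z.e x), z.at_ x, z.low x, z.colr x⟩ rfl]
        exact const_chord φ _ rfl (hj (Sum.inr z) h2)
      have e2 : E.ext φ (Sum.inr (A.arc q (E.T z))) = φ (Sum.inr (E.arcF A q z)) := by
        rw [← E.T_arcF A h1 h2]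
        rw [E.ext_eq φ ⟨((E.arcF A q z).F, (E.arcF A q z).e x), (E.arcF A q z).at_ x,
          (E.arcF A q z).low x, (E.arcF A q z).colr x⟩ rfl]
        exact const_chord φ _ rfl (hj (Sum.inr (E.arcF A q z)) (E.arcF_mem A h1 h2))
      rw [← e1, key, e2]
    · intro F F' w' p p' b1 b2 b3 b4
      have c1 := end_chd b3
      have c2 := end_chd b4
      by_cases hr : ∃ i, s'.lab w' = E.nu i
      · obtain ⟨w, hw, rfl⟩ := E.surj b3.1.1 hr
        have hat : s.At F w := ⟨hw, (E.on F hw).1 b3.1.2⟩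
        have hat' : s.At F' w := ⟨hw, (E.on F' hw).1 b4.1.2⟩
        have hcol : col (s.lab w) = x := by
          have h5 := chd_col p
          rw [c1] at h5
          have h6 := Seq_213.lo_lab s' b3.1
          simp only at h5
          rw [h6, E.lab hw, E.col_eq] at h5
          exact h5
        have hlo : ∀ F, s.At F w → s'.lo F (E.pt w) = E.pt (s.lo F w) := by
          intro F hat
          have hm := mu_at hat
          unfold St.lo
          by_cases h7 : M.pos F w ≤ M.pos F (s.mu F w)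
          · have h8 : M.pos F (E.pt w) ≤ M.pos F (s'.mu F (E.pt w)) := by
              rw [E.mu hat]
              by_contra hc
              rw [not_le, E.lt_iff hm hat] at hc
              exact absurd hc (not_lt.2 h7)
            rw [if_pos h7, if_pos h8]
          · have h8 : ¬ M.pos F (E.pt w) ≤ M.pos F (s'.mu F (E.pt w)) := by
              rw [E.mu hat, not_le, E.lt_iff hm hat]
              exact not_le.1 h7
            rw [if_neg h7, if_neg h8, E.mu hat]
        obtain ⟨r, hr1⟩ := exists_end hat hcol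
        obtain ⟨r', hr2⟩ := exists_end hat' hcol
        have d1 := end_chd hr1
        have d2 := end_chd hr2
        have hrr := a1 F F' w r r' b1 b2 hr1 hr2
        have hchd : ∀ {F : Φ} {r : s.Sub x} {p : s'.Sub x} (_ : chd r = (F, s.lo F w))
            (_ : chd p = (F, s'.lo F (E.pt w))) (_ : s.At F w) (_ : q ∈ M.side F),
            E.ext φ p = φ r := by
          intro F r p e1 e2 e3 e4
          have e5 : (chd r).1 = F := by rw [e1]
          have hlow := chd_low r
          have hch := chd_at r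
          have hcc := chd_col r
          have e6 : chd p = ((chd r).1, E.pt (chd r).2) := by rw [e2, hlo F e3, e1]
          rw [E.ext_eq φ ⟨chd r, hch, hlow, hcc⟩ e6]
          exact const_chord φ _ rfl (hj r (by rw [e5]; exact e4))
        rw [hchd d1 c1 hat b1, hchd d2 c2 hat' b2]
        exact hrr
      · have hzero : ∀ {F : Φ} {p : s'.Sub x}, p.End F w' → E.ext φ p = 0 := by
          intro F p hp
          unfold ext
          rw [dif_neg]
          rintro ⟨a, ha⟩
          apply hr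
          rw [end_chd hp] at ha
          have h3 : s'.lo F w' = E.pt a.1.2 := congrArg Prod.snd ha
          have h4 := Seq_213.lo_lab s' hp.1
          rw [h3, E.lab a.2.1.1] at h4
          exact ⟨_, h4.symm⟩
        rw [hzero b3, hzero b4]
    · intro u p p' _ b2 b3
      have c3 : p' = Sum.inr u := b3
      refine E.ext_congr φ ?_
      rw [below_chd b2, c3]
      rfl

end Emb

/-- **closed double curves of a state covered by embeddings** -/
theorem noClosed_of_emb {s : St M col} {s' : St M col'} {Act : Set ι}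
    (h : ∀ z' : s'.Dbl, ∃ (E : Emb s s') (z : s.Dbl), E.T z = z') (hs : NoClosed s Act) :
    NoClosed s' Act := by
  intro A G hG
  rw [Set.eq_empty_iff_forall_notMem]
  intro z' hz'
  obtain ⟨E, z, rfl⟩ := h z'
  have hE := hs (E.arcs A) {z | E.T z ∈ G} ?_
  · have : z ∈ ({z | E.T z ∈ G} : Set s.Dbl) := hz'
    rw [hE] at this
    exact this
  · intro y hy q hq
    obtain ⟨h1, h2⟩ := hG (E.T y) hy q hq
    refine ⟨h1, ?_⟩
    show E.T (E.arcF A q y) ∈ G
    rw [E.T_arcF A h1 hq]
    exact h2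

end Crest.Agent.R096.Cp_298
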