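import Crest.Agent.R096.Cp3_465

/-!
# Row 96 (S0127), p = 2: composite A (helper465; 753 #10547 (A2)), part 4: `Φ`, balls, squeezes for
the perfect cubes of one mesh; the numbers
-/

set_option autoImplicit false
set_option linter.unusedSectionVars false

open Set Metric MeasureTheory Topology Filter
open scoped ENNReal

namespace Crest.Agent.R096.Cp_465

open Crest.AnalysisR.VecCalc3
open Crest.Agent.R096.Msh_715 (Tiling P I)
open Crest.Agent.R096.Sk2_855 (sk1 HP Mv)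
open Crest.Agent.R096.Sk3_812 (GoodT HF ug)
open Crest.Agent.R096.Spr_113 (NearV)
open Crest.Agent.R096.Ca_855
open Crest.Agent.R96.Gdt_538 (MeshG)
open Crest.Agent.R096.Fsl_793
open Crest.Agent.R96.Intr_538 (cel par cel_mono isCompact_cel par_thick')
open Crest.Agent.R96.Coarse_538
open Crest.Agent.R096.Fce_793 (pt)

/-- what composite A delivers on the side of the target for `p = 2`: small balls `y k l`, `ρ k l`
in the images of the cubes, and squeezes `R` of any strength near the balls -/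
def Sqz (La : Set R3) {K : Type*} (D : K → Set R3) (r σ : K → ℝ) {m : K → ℕ}
    (y : ∀ k, Fin (m k) → R3) (ρ : ∀ k, Fin (m k) → ℝ) : Prop :=
  ∀ n : ℕ, ∃ R : R3 ≃ₜ R3, LipschitzWith (3 / 2) R ∧ (∀ y, R y ∈ La ↔ y ∈ La) ∧
    (∀ y, (∀ k, y ∉ thickening (r k) (D k)) → R y = y) ∧
    (∀ k, ∀ y ∈ thickening (r k) (D k), R y ∈ thickening (r k) (D k) ∧ ‖R y - y‖ ≤ 3 * σ k) ∧
    (∀ k l, ∀ z ∈ ball (y k l) (ρ k l), ∀ᶠ z' in 𝓝 z, ‖R z' - R z‖ ≤ (1 / 2) ^ n * ‖z' - z‖) ∧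
    ∃ ψ : K → Fin 3 → ℝ → ℝ, (∀ q a, Monotone (ψ q a)) ∧
      (∀ q a x y, |ψ q a x - ψ q a y| ≤ |x - y|) ∧
      (∀ q a x, 0 ≤ ψ q a x) ∧ (∀ q a x, ψ q a x ≤ σ q) ∧
      ∀ q, ∀ y ∈ thickening (r q / 4) (D q), ∀ a, R y a = y a - ψ q a (y a)

section mesh

variable {Om La : Set R3} {ι : Type} {T : Tiling Om ι} {f fi : R3 → R3}
  {κ τ t s : ℝ} {Q : Finset (Fin 3 → ℤ)} {zc bb : (Fin 3 → ℤ) → R3}
  {LL : (Fin 3 → ℤ) → R3 →L[ℝ] R3} {nc : ℕ}

/-- **`Φ`, balls and squeezes from `Regs` and `Regs2`** on the perfect cubes -/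
theorem phi_of_regs (hκ : 0 < κ) (hτ : 0 < τ) (hτ6 : 6 * τ < 1) (hs : 0 < s) (ht : 0 ≤ t)
    (htτ : 2 * t ≤ τ * s) (hLa : IsOpen La)
    {hinj : ∀ k ∈ Q, Function.Injective (LL k)}
    {u : {k // k ∈ Q} → ι → R3 → ℝ} {C : {k // k ∈ Q} → ι → R3} {α α' Λ : ℝ}
    (hsub : ∀ k ∈ Q, cel Cb (zc k) s ⊆ Om)
    (hlow : ∀ k ∈ Q, ∀ v, κ * ‖v‖ ≤ ‖LL k v‖)
    (hpar : ∀ k ∈ Q, par Cb (LL k) (bb k) ((1 - τ) * s) ⊆ La)
    (hdis : ∀ k ∈ Q, ∀ l ∈ Q, k ≠ l →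
      Disjoint (par Cb (LL k) (bb k) ((1 - τ) * s)) (par Cb (LL l) (bb l) s))
    (R : Regs T La f (Aq zc bb LL hinj) (fun k => cel Cb (zc k) ((1 - 5 * τ) * s))
      (fun k => cel Cb (zc k) ((1 - 4 * τ) * s)) u C α α' nc t Λ)
    {Sg : ℝ} (R2 : Regs2 T La f (fun k : {k // k ∈ Q} => cel Cb (zc k) ((1 - 5 * τ) * s)) u α'
      (fun _ => Sg))
    (happ : ∀ η > 0, ∃ h hi, HP Om La h hi ∧ ∀ x ∈ Om, ‖h x - f x‖ ≤ η)
    {σ : ℝ} (hσ : 4 * Sg < σ) (hσr : 24 * σ ≤ κ * (τ * s)) {e : ℝ} (he : 0 < e) :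
    ∃ Φ : R3 ≃ₜ R3, Mv T Φ ∧
      (∀ k ∈ Q, ∀ y ∈ cel Cb (zc k) ((1 - 6 * τ) * s),
        ‖f (Φ y) - (bb k + LL k (y - zc k))‖ ≤ 3 * (nc * (nc * nc) + 2) * (Λ * t) + e) ∧
      (∀ i, ∀ y ∈ P (T.H i), ∀ r, (∀ y' ∈ P (T.H i), ‖f y' - f y‖ ≤ r) →
        ‖f (Φ y) - f y‖ ≤ r + 3 * (nc * (nc * nc) + 1) * (Λ * t) + e) ∧
      ∃ (m : {k // k ∈ Q} → ℕ) (y : ∀ k, Fin (m k) → R3) (ρ : ∀ k, Fin (m k) → ℝ),
        (∀ (k : {k // k ∈ Q}) l, y k l ∈ par Cb (LL k) (bb k) ((1 - 4 * τ) * s)) ∧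
        (∀ k l, 0 < ρ k l) ∧
        (∀ k, ∑ l, 2 * ρ k l ≤ σ) ∧ NearB T f Φ y ρ ∧
        Sqz La (fun k : {k // k ∈ Q} => par Cb (LL k) (bb k) ((1 - 4 * τ) * s))
          (fun _ => κ * (τ * s)) (fun _ => σ) y ρ := by
  have hτs : 0 < τ * s := mul_pos hτ hs
  have hr5 : 0 < (1 - 5 * τ) * s := mul_pos (by linarith) hs
  have hr4 : 0 < (1 - 4 * τ) * s := mul_pos (by linarith) hs
  have him : ∀ k : {k // k ∈ Q}, (Aq zc bb LL hinj k) '' cel Cb (zc k) ((1 - 4 * τ) * s) =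
      par Cb (LL k) (bb k) ((1 - 4 * τ) * s) := fun k => aff_image _
  have hth : ∀ k : {k // k ∈ Q}, thickening (κ * (τ * s)) (par Cb (LL k) (bb k)
      ((1 - 4 * τ) * s)) ⊆ par Cb (LL k) (bb k) ((1 - τ) * s) := by
    intro k y hy
    obtain ⟨y', hy', hd⟩ := mem_thickening_iff.1 hy
    have h1 := par_thick' ref_Cb hκ (hlow k k.2) hr4.le hτs hy' (y' := y)
      (by rw [mul_one, ← dist_eq_norm]; exact hd.le)
    have h2 : (1 - 4 * τ) * s + τ * s ≤ (1 - τ) * s := by nlinarith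
    exact par_mono (hinj k k.2) (by positivity) h2 h1
  have hLs : ∀ k : {k // k ∈ Q}, par Cb (LL k) (bb k) ((1 - τ) * s) ⊆
      par Cb (LL k) (bb k) s := fun k =>
    par_mono (hinj k k.2) (mul_nonneg (by linarith) hs.le) (by nlinarith)
  obtain ⟨Φ, hΦ, g1, g2, m, y, ρ, g3, g4, g5, g6, g7⟩ := exists_phiR R R2 hLa happ
    (σ := fun _ => σ) (r := fun _ => κ * (τ * s)) (fun _ => hσ) (fun k => ⟨zc k, by
      rw [mem_cel hr4]
      intro i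
      rw [sub_self, abs_zero]
      exact hr4.le⟩) (fun _ => hσr) (fun k l hkl => by
      simp only [him]
      have hkl' : (k : Fin 3 → ℤ) ≠ l := fun h => hkl (Subtype.ext h)
      exact (hdis k k.2 l l.2 hkl').mono (hth k) ((hth l).trans (hLs l))) (fun k => by
      simp only [him]
      exact (hth k).trans (hpar k k.2)) he
  refine ⟨Φ, hΦ, fun k hk y hy => ?_, g2, m, y, ρ, fun k l => ?_, g4, g5, g6, fun n => ?_⟩
  · have h6 : 0 < (1 - 6 * τ) * s := mul_pos (by linarith) hs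
    have hyO : y ∈ Om := hsub k hk (cel_mono ref_Cb _ h6.le (by nlinarith) hy)
    obtain ⟨i, hi⟩ := T.at_nonempty hyO
    have hi' : P (T.H i) ⊆ cel Cb (zc k) ((1 - 5 * τ) * s) := by
      intro w hw
      have h1 := R.diam ⟨k, hk⟩ i ⟨y, hi, cel_mono ref_Cb _ h6.le (by nlinarith) hy⟩ w hw y hi
      exact cel_near ht h6 (by nlinarith) hy h1
    have h2 := g1 ⟨k, hk⟩ i hi' y hi
    rw [show Aq zc bb LL hinj ⟨k, hk⟩ y = bb k + LL k (y - zc k) from aff_apply y] at h2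
    exact h2
  · have := g3 k l
    rwa [him] at this
  · have := g7 n
    simp only [him] at this
    exact this

end mesh

/-- **the numbers of composite A for p = 2** -/
theorem exists_numbers {κ β r N τ σ' : ℝ} (nc : ℕ) (hκ : 0 < κ) (hβ : 0 < β) (hr : 0 < r)
    (hN : 0 < N) (hτ : 0 < τ) (hσ' : 0 < σ') :
    ∃ (Nt : ℕ) (σ₂ ε₀ η₀ β' : ℝ), 0 < σ₂ ∧ 0 < ε₀ ∧ 0 < η₀ ∧ 0 < β' ∧
      (∀ s : ℝ, 0 < s → 2 * s ^ 3 ≤ Nt * (r * (s / N)) ^ 3) ∧ β' ≤ β * (κ * r) ∧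
      (∀ η, η ≤ η₀ → 16 * η * (nc + 1) ≤ β * (κ * r) ∧ 8 * η ≤ κ * r ∧
        4 * η * (nc + 1) ≤ β * (κ * r) ∧ ∀ s : ℝ, 0 < s → η * (s / N) ≤ κ * (τ * s)) ∧
      8 * (CC β κ r * (nc * σ₂)) < κ * r ∧
      64 * (nc + 1) * ε₀ ≤ β * σ₂ * (κ * r) ∧
      8 * (Nt * (CC β κ r * (nc * σ₂))) ≤ β * (κ * r) ∧
      5 * (Nt * (CC β κ r * (nc * σ₂))) ≤ σ' := by
  have hκr : 0 < κ * r := mul_pos hκ hr
  have hCC := CC_pos hβ hκ hr
  have hnc : (0 : ℝ) ≤ nc := Nat.cast_nonneg _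
  obtain ⟨Nt, hNt⟩ := exists_nat_ge (2 * (N / r) ^ 3)
  have hNt0 : (0 : ℝ) ≤ Nt := Nat.cast_nonneg _
  -- σ₂
  have hA : 0 ≤ CC β κ r * nc := by positivity
  have hB : 0 ≤ Nt * (CC β κ r * nc) := by positivity
  obtain ⟨σ₂, hσ₂, s1, s2, s3⟩ : ∃ σ₂ : ℝ, 0 < σ₂ ∧ 8 * (CC β κ r * nc) * σ₂ < κ * r ∧
      8 * (Nt * (CC β κ r * nc)) * σ₂ ≤ β * (κ * r) ∧ 5 * (Nt * (CC β κ r * nc)) * σ₂ ≤ σ' := by
    refine ⟨min (κ * r / (8 * (CC β κ r * nc) + 1) / 2)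
      (min (β * (κ * r) / (8 * (Nt * (CC β κ r * nc)) + 1))
        (σ' / (5 * (Nt * (CC β κ r * nc)) + 1))), by positivity, ?_, ?_, ?_⟩
    · have h1 : min (κ * r / (8 * (CC β κ r * nc) + 1) / 2)
        (min (β * (κ * r) / (8 * (Nt * (CC β κ r * nc)) + 1))
        (σ' / (5 * (Nt * (CC β κ r * nc)) + 1))) ≤ κ * r / (8 * (CC β κ r * nc) + 1) / 2 :=
        min_le_left _ _
      calc _ ≤ 8 * (CC β κ r * nc) * (κ * r / (8 * (CC β κ r * nc) + 1) / 2) :=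
            mul_le_mul_of_nonneg_left h1 (by positivity)
        _ < κ * r := by
            rw [show 8 * (CC β κ r * nc) * (κ * r / (8 * (CC β κ r * nc) + 1) / 2) =
              (8 * (CC β κ r * nc) * (κ * r)) / (2 * (8 * (CC β κ r * nc) + 1)) by
                field_simp, div_lt_iff₀ (by positivity)]
            nlinarith
    · have h1 : min (κ * r / (8 * (CC β κ r * nc) + 1) / 2)
        (min (β * (κ * r) / (8 * (Nt * (CC β κ r * nc)) + 1))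
        (σ' / (5 * (Nt * (CC β κ r * nc)) + 1))) ≤ β * (κ * r) / (8 * (Nt * (CC β κ r * nc)) + 1) :=
        (min_le_right _ _).trans (min_le_left _ _)
      calc _ ≤ 8 * (Nt * (CC β κ r * nc)) * (β * (κ * r) / (8 * (Nt * (CC β κ r * nc)) + 1)) :=
            mul_le_mul_of_nonneg_left h1 (by positivity)
        _ ≤ β * (κ * r) := by
            rw [mul_div_assoc', div_le_iff₀ (by positivity)]
            have : 0 < β * (κ * r) := by positivity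
            nlinarith
    · have h1 : min (κ * r / (8 * (CC β κ r * nc) + 1) / 2)
        (min (β * (κ * r) / (8 * (Nt * (CC β κ r * nc)) + 1))
        (σ' / (5 * (Nt * (CC β κ r * nc)) + 1))) ≤ σ' / (5 * (Nt * (CC β κ r * nc)) + 1) :=
        (min_le_right _ _).trans (min_le_right _ _)
      calc _ ≤ 5 * (Nt * (CC β κ r * nc)) * (σ' / (5 * (Nt * (CC β κ r * nc)) + 1)) :=
            mul_le_mul_of_nonneg_left h1 (by positivity)
        _ ≤ σ' := by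
            rw [mul_div_assoc', div_le_iff₀ (by positivity)]
            nlinarith
  -- η₀
  obtain ⟨η₀, hη₀, e1, e2, e3⟩ : ∃ η₀ : ℝ, 0 < η₀ ∧ 16 * (nc + 1) * η₀ ≤ β * (κ * r) ∧
      8 * η₀ ≤ κ * r ∧ η₀ ≤ κ * τ * N := by
    refine ⟨min (β * (κ * r) / (16 * (nc + 1))) (min (κ * r / 8) (κ * τ * N)), by positivity,
      ?_, ?_, (min_le_right _ _).trans (min_le_right _ _)⟩
    · have h1 : min (β * (κ * r) / (16 * (nc + 1))) (min (κ * r / 8) (κ * τ * N)) ≤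
          β * (κ * r) / (16 * (nc + 1)) := min_le_left _ _
      rw [le_div_iff₀ (by positivity)] at h1
      linarith
    · have h1 : min (β * (κ * r) / (16 * (nc + 1))) (min (κ * r / 8) (κ * τ * N)) ≤
          κ * r / 8 := (min_le_right _ _).trans (min_le_left _ _)
      linarith
  refine ⟨Nt, σ₂, β * σ₂ * (κ * r) / (64 * (nc + 1)), η₀, β * (κ * r), hσ₂, by positivity, hη₀,
    by positivity, fun s hs => ?_, le_rfl, fun η hη => ⟨?_, ?_, ?_, fun s hs => ?_⟩, ?_, ?_, ?_, ?_⟩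
  · have h1 : (r * (s / N)) ^ 3 = (r / N) ^ 3 * s ^ 3 := by
      field_simp
    rw [h1]
    have h2 : 2 ≤ Nt * (r / N) ^ 3 := by
      have h3 : 2 * (N / r) ^ 3 * (r / N) ^ 3 ≤ Nt * (r / N) ^ 3 :=
        mul_le_mul_of_nonneg_right hNt (by positivity)
      have h4 : 2 * (N / r) ^ 3 * (r / N) ^ 3 = 2 := by
        field_simp
      linarith
    calc 2 * s ^ 3 ≤ Nt * (r / N) ^ 3 * s ^ 3 := mul_le_mul_of_nonneg_right h2 (by positivity)
      _ = _ := by ring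
  · have h1 : 16 * η * (nc + 1) ≤ 16 * η₀ * (nc + 1) := by gcongr
    linarith
  · linarith
  · rcases le_or_gt 0 η with h0 | h0
    · have h1 : 16 * η * (nc + 1) ≤ 16 * η₀ * (nc + 1) := by gcongr
      have h2 : 0 ≤ η * (nc + 1) := by positivity
      linarith
    · have h2 : η * (nc + 1) ≤ 0 := mul_nonpos_of_nonpos_of_nonneg h0.le (by positivity)
      have h3 : 0 ≤ β * (κ * r) := by positivity
      linarith
  · have h1 : η * (s / N) ≤ κ * τ * N * (s / N) :=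
      mul_le_mul_of_nonneg_right (hη.trans e3) (by positivity)
    have h2 : κ * τ * N * (s / N) = κ * (τ * s) := by field_simp
    linarith
  · calc 8 * (CC β κ r * (nc * σ₂)) = 8 * (CC β κ r * nc) * σ₂ := by ring
      _ < _ := s1
  · rw [mul_div_cancel₀ _ (by positivity)]
  · calc 8 * (Nt * (CC β κ r * (nc * σ₂))) = 8 * (Nt * (CC β κ r * nc)) * σ₂ := by ring
      _ ≤ _ := s2
  · calc 5 * (Nt * (CC β κ r * (nc * σ₂))) = 5 * (Nt * (CC β κ r * nc)) * σ₂ := by ring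
      _ ≤ _ := s3

end Crest.Agent.R096.Cp_465
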