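import Crest.Agent.R096.Seq3_213

/-!
# R096 / SEQ, part 4: the limit of the sequence and the main theorem `GSt.seq`
-/

set_option autoImplicit false

namespace Crest.Agent.R096.Seq_213
open Crest.Agent.R096.St_147 Crest.Agent.R096.St_147.St

variable {ι Φ W J C K : Type} {M : MeshC ι Φ W} {fam : J → C}

namespace GSt

/-- the family `c` is the same in both states -/
def Same (c : C) (s s' : GSt M fam) : Prop :=
  (∀ w, (w ∈ s.P ∧ fam (s.lab w) = c) ↔ (w ∈ s'.P ∧ fam (s'.lab w) = c)) ∧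
  (∀ w, w ∈ s.P → fam (s.lab w) = c → s'.lab w = s.lab w ∧ ∀ F, s'.mu F w = s.mu F w)

theorem Same.refl (c : C) (s : GSt M fam) : Same c s s :=
  ⟨fun _ => Iff.rfl, fun _ _ _ => ⟨rfl, fun _ => rfl⟩⟩

theorem Same.symm {c : C} {s s' : GSt M fam} (h : Same c s s') : Same c s' s := by
  refine ⟨fun w => (h.1 w).symm, fun w hw hc => ?_⟩
  obtain ⟨h1, h2⟩ := (h.1 w).2 ⟨hw, hc⟩
  obtain ⟨h3, h4⟩ := h.2 w h1 h2
  exact ⟨h3.symm, fun F => (h4 F).symm⟩

theorem Same.trans {c : C} {s s' s'' : GSt M fam} (h : Same c s s') (h' : Same c s' s'') :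
    Same c s s'' := by
  refine ⟨fun w => (h.1 w).trans (h'.1 w), fun w hw hc => ?_⟩
  obtain ⟨h3, h4⟩ := h.2 w hw hc
  obtain ⟨h5, h6⟩ := (h.1 w).1 ⟨hw, hc⟩
  obtain ⟨h7, h8⟩ := h'.2 w h5 h6
  exact ⟨h7.trans h3, fun F => (h8 F).trans (h4 F)⟩

theorem Same.mem {c : C} {s s' : GSt M fam} (h : Same c s s') {w : W} (hw : w ∈ s.P)
    (hc : fam (s.lab w) = c) : w ∈ s'.P ∧ s'.lab w = s.lab w ∧ ∀ F, s'.mu F w = s.mu F w :=
  ⟨((h.1 w).1 ⟨hw, hc⟩).1, (h.2 w hw hc).1, (h.2 w hw hc).2⟩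

theorem Same.h1 {j : J} {s s' : GSt M fam} (h : Same (fam j) s s') (hs : s.H1 j) : s'.H1 j := by
  intro κ hκ
  obtain ⟨Ψ, hΨ⟩ := hs κ (fun q => by
    obtain ⟨ψ, hψ⟩ := hκ q
    refine ⟨ψ, fun F w hq hw hl => ?_⟩
    obtain ⟨h1, h2, h3⟩ := h.mem hw.1 (by rw [hl])
    rw [← h3]
    exact hψ F w hq ⟨h1, hw.2⟩ (h2.trans hl))
  refine ⟨Ψ, fun F w hw hl => ?_⟩
  obtain ⟨h1, h2, h3⟩ := h.symm.mem hw.1 (by rw [hl])
  rw [← h3]
  exact hΨ F w ⟨h1, hw.2⟩ (h2.trans hl)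

theorem Same.conn {j : J} {s s' : GSt M fam} (h : Same (fam j) s s') (hs : s.Conn j) :
    s'.Conn j := by
  obtain ⟨⟨w, hw, hl⟩, hc⟩ := hs
  obtain ⟨h1, h2, _⟩ := h.mem hw (by rw [hl])
  refine ⟨⟨w, h1, h2.trans hl⟩, ?_⟩
  intro X hX a ha haP hal b hbP hbl
  obtain ⟨a1, a2, _⟩ := h.symm.mem haP (by rw [hal])
  obtain ⟨b1, b2, _⟩ := h.symm.mem hbP (by rw [hbl])
  refine hc X ?_ a ha a1 (a2.trans hal) b b1 (b2.trans hbl)
  intro F u hu hat hul
  obtain ⟨u1, u2, u3⟩ := h.mem hat.1 (by rw [hul])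
  have := hX F u hu ⟨u1, hat.2⟩ (u2.trans hul)
  rw [u3] at this
  exact this

theorem OK_same {Q : Quads ι C K} {s s' : GSt M fam} {F : Φ} {u : W} (hu : s.At F u)
    (hc : Same (fam (s.lab u)) s s')
    (h : ∀ k, Q.In k (fam (s.lab u)) → ∀ b, Same (Q.pr k b) s s') (hok : s.OK Q F u) :
    s'.OK Q F u := by
  obtain ⟨_, h2, h3⟩ := hc.mem hu.1 rfl
  intro k hk hF x hx hxin hne
  rw [h2] at hk hne
  obtain ⟨b, hb⟩ := hxin
  obtain ⟨x1, x2, x3⟩ := (h k hk b).symm.mem hx.1 hb.symm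
  rw [h3, ← x3]
  rw [← x2] at hne
  exact hok k hk hF x ⟨x1, hx.2⟩ ⟨b, by rw [x2]; exact hb⟩ hne

theorem agr_same {Q : Quads ι C K} {s s' : GSt M fam} {k : K} (i : Q.Nm fam k)
    (h : ∀ b, Same (Q.pr k b) s s') (A : Set ι) : Agr (s.res Q k i) (s'.res Q k i) A := by
  intro F _ w
  constructor
  · rw [res_at, res_at]
    constructor
    · rintro ⟨h1, b, hb⟩
      obtain ⟨h3, h4, _⟩ := (h b).mem h1.1 hb.symm
      exact ⟨⟨h3, h1.2⟩, b, by rw [h4]; exact hb⟩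
    · rintro ⟨h1, b, hb⟩
      obtain ⟨h3, h4, _⟩ := (h b).symm.mem h1.1 hb.symm
      exact ⟨⟨h3, h1.2⟩, b, by rw [h4]; exact hb⟩
  · intro hw
    obtain ⟨h1, h2⟩ := res_at.1 hw
    obtain ⟨b, hb⟩ := h2
    obtain ⟨h3, h4, h5⟩ := (h b).mem h1.1 hb.symm
    refine ⟨by rw [res_mu, res_mu, h5], ?_⟩
    rw [res_lab ⟨b, hb⟩]
    symm
    rw [res_lab_iff (by rw [h4]; exact ⟨b, hb⟩)]
    exact h4

/-! ### the limit of a sequence in which every family changes only finitely often -/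
section lim
variable (S : ℕ → GSt M fam) (N : C → ℕ)

theorem same_le (hS : ∀ c n, N c ≤ n → Same c (S n) (S (n + 1))) {c : C} {n m : ℕ}
    (h1 : N c ≤ n) (h2 : n ≤ m) : Same c (S n) (S m) := by
  induction m, h2 using Nat.le_induction with
  | base => exact Same.refl _ _
  | succ m hm ih => exact ih.trans (hS c m (h1.trans hm))

theorem same_any (hS : ∀ c n, N c ≤ n → Same c (S n) (S (n + 1))) {c : C} {n m : ℕ}
    (h1 : N c ≤ n) (h2 : N c ≤ m) : Same c (S n) (S m) := by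
  rcases le_total n m with h | h
  · exact same_le S N hS h1 h
  · exact (same_le S N hS h2 h).symm

/-- points of the limit -/
def LP : Set W := {w | ∃ c, w ∈ (S (N c)).P ∧ fam ((S (N c)).lab w) = c}

open Classical in
/-- the stage from which on the point `w` does not change -/
noncomputable def stg (w : W) : ℕ :=
  if h : ∃ c, w ∈ (S (N c)).P ∧ fam ((S (N c)).lab w) = c then N (Classical.choose h) else 0

theorem stg_spec (hS : ∀ c n, N c ≤ n → Same c (S n) (S (n + 1))) {c : C} {n : ℕ} {w : W}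
    (hn : N c ≤ n) (hw : w ∈ (S n).P) (hc : fam ((S n).lab w) = c) :
    w ∈ LP S N ∧ (S (stg S N w)).lab w = (S n).lab w ∧
      ∀ F, (S (stg S N w)).mu F w = (S n).mu F w := by
  obtain ⟨h1, h2, _⟩ := (same_any S N hS hn le_rfl).mem hw hc
  have hex : ∃ c, w ∈ (S (N c)).P ∧ fam ((S (N c)).lab w) = c := ⟨c, h1, by rw [h2, hc]⟩
  refine ⟨hex, ?_⟩
  obtain ⟨h4, h5⟩ := Classical.choose_spec hex
  have hstg : stg S N w = N (Classical.choose hex) := dif_pos hex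
  obtain ⟨_, a2, a3⟩ := (same_any S N hS hn
    (hn.trans (le_max_left n (N (Classical.choose hex))))).mem hw hc
  obtain ⟨_, b2, b3⟩ := (same_any S N hS le_rfl
    (le_max_right n (N (Classical.choose hex)))).mem h4 h5
  rw [hstg]
  exact ⟨b2.symm.trans a2, fun F => (b3 F).symm.trans (a3 F)⟩

theorem LP_spec (hS : ∀ c n, N c ≤ n → Same c (S n) (S (n + 1))) {w : W} (hw : w ∈ LP S N) :
    ∃ c, ∀ n, N c ≤ n → w ∈ (S n).P ∧ fam ((S n).lab w) = c ∧
      (S (stg S N w)).lab w = (S n).lab w ∧ ∀ F, (S (stg S N w)).mu F w = (S n).mu F w := by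
  obtain ⟨c, h1, h2⟩ := hw
  refine ⟨c, fun n hn => ?_⟩
  obtain ⟨a1, a2, _⟩ := (same_any S N hS le_rfl hn).mem h1 h2
  have h3 : fam ((S n).lab w) = c := by rw [a2, h2]
  obtain ⟨_, b2, b3⟩ := stg_spec S N hS hn a1 h3
  exact ⟨a1, h3, b2, b3⟩

/-- the limit -/
noncomputable def lim (hS : ∀ c n, N c ≤ n → Same c (S n) (S (n + 1))) : GSt M fam where
  P := LP S N
  lab := fun w => (S (stg S N w)).lab w
  mu := fun F w => (S (stg S N w)).mu F w
  mu_mem := by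
    intro F w hw hF
    obtain ⟨c, hc⟩ := LP_spec S N hS hw
    obtain ⟨h1, h2, _, h4⟩ := hc (N c) le_rfl
    have h5 := (S (N c)).mu_mem h1 hF
    have h6 := stg_spec S N hS le_rfl h5.1 (by rw [(S (N c)).mu_lab h1 hF, h2])
    simp only [h4]
    exact ⟨h6.1, h5.2⟩
  mu_ne := by
    intro F w hw hF
    obtain ⟨c, hc⟩ := LP_spec S N hS hw
    obtain ⟨h1, h2, _, h4⟩ := hc (N c) le_rfl
    simp only [h4]
    exact (S (N c)).mu_ne h1 hF
  mu_mu := by
    intro F w hw hF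
    obtain ⟨c, hc⟩ := LP_spec S N hS hw
    obtain ⟨h1, h2, _, h4⟩ := hc (N c) le_rfl
    have h5 := (S (N c)).mu_mem h1 hF
    have h6 := stg_spec S N hS le_rfl h5.1 (by rw [(S (N c)).mu_lab h1 hF, h2])
    simp only [h4, h6.2.2]
    exact (S (N c)).mu_mu h1 hF
  mu_lab := by
    intro F w hw hF
    obtain ⟨c, hc⟩ := LP_spec S N hS hw
    obtain ⟨h1, h2, h3, h4⟩ := hc (N c) le_rfl
    have h5 := (S (N c)).mu_mem h1 hF
    have h6 := stg_spec S N hS le_rfl h5.1 (by rw [(S (N c)).mu_lab h1 hF, h2])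
    simp only [h4, h6.2.1, h3]
    exact (S (N c)).mu_lab h1 hF
  nc := by
    intro F w x hw hF hx hF' hc hne hne'
    obtain ⟨c, hcw⟩ := LP_spec S N hS hw
    obtain ⟨d, hdx⟩ := LP_spec S N hS hx
    obtain ⟨h1, h2, h3, h4⟩ := hcw (N c) le_rfl
    obtain ⟨k1, k2, k3, k4⟩ := hdx (N d) le_rfl
    have hcd : c = d := by
      rw [← h2, ← k2, ← h3, ← k3]; exact hc
    subst hcd
    simp only [h4] at hne' ⊢
    simp only [k4]
    exact (S (N c)).nc h1 hF k1 hF' (h2.trans k2.symm) hne hne'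
  fin := by
    intro c
    refine ((S (N c)).fin c).subset ?_
    rintro w ⟨hw, hc⟩
    obtain ⟨d, hd⟩ := LP_spec S N hS hw
    obtain ⟨h1, h2, h3, _⟩ := hd (N d) le_rfl
    have hcd : d = c := by rw [← h2, ← h3]; exact hc
    subst hcd
    exact ⟨h1, h2⟩

theorem lim_same (hS : ∀ c n, N c ≤ n → Same c (S n) (S (n + 1))) {c : C} {n : ℕ}
    (hn : N c ≤ n) : Same c (S n) (lim S N hS) := by
  constructor
  · intro w
    constructor
    · rintro ⟨h1, h2⟩
      obtain ⟨h3, h4, _⟩ := stg_spec S N hS hn h1 h2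
      exact ⟨h3, by show fam ((S (stg S N w)).lab w) = c; rw [h4, h2]⟩
    · rintro ⟨h1, h2⟩
      obtain ⟨d, hd⟩ := LP_spec S N hS h1
      have hdc : d = c := by
        obtain ⟨_, h4, h5, _⟩ := hd (N d) le_rfl
        rw [← h4, ← h5]; exact h2
      subst hdc
      obtain ⟨h3, h4, _⟩ := hd n hn
      exact ⟨h3, h4⟩
  · intro w h1 h2
    exact (stg_spec S N hS hn h1 h2).2

/-- the invariant passes to the limit -/
theorem lim_inv (hS : ∀ c n, N c ≤ n → Same c (S n) (S (n + 1))) {Q : Quads ι C K}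
    {far : J → Set W} (hInv : ∀ n, (S n).Inv Q far) : (lim S N hS).Inv Q far where
  h1 := fun j => (lim_same S N hS le_rfl).h1 ((hInv _).h1 j)
  conn := fun j => (lim_same S N hS le_rfl).conn ((hInv _).conn j)
  far_mem := by
    intro j w hw
    obtain ⟨h1, h2⟩ := (hInv (N (fam j))).far_mem hw
    obtain ⟨h3, h4, _⟩ := (lim_same S N hS (c := fam j) le_rfl).mem h1 (by rw [h2])
    exact ⟨h3, h4.trans h2⟩
  far_ne := (hInv 0).far_ne
  only := by
    intro k F w hw hF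
    obtain ⟨h1, h2, _⟩ := (lim_same S N hS
      (c := fam ((lim S N hS).lab w)) le_rfl).symm.mem hw.1 rfl
    have := (hInv _).only ⟨h1, hw.2⟩ hF
    rw [h2] at this
    exact this
  loc := by
    intro w hw
    obtain ⟨h1, h2, _⟩ := (lim_same S N hS
      (c := fam ((lim S N hS).lab w)) le_rfl).symm.mem hw rfl
    have := (hInv _).loc h1
    rw [h2] at this
    exact this
  gc := by
    intro j X hX w hw hwf
    have hbd : ∃ n, N (fam j) ≤ n ∧ ∀ k, Q.In k (fam j) → ∀ b, N (Q.pr k b) ≤ n := by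
      obtain ⟨m, hm⟩ := ((Q.finK (fam j)).image
        (fun k => max (N (Q.pr k true)) (N (Q.pr k false)))).bddAbove
      refine ⟨max (N (fam j)) m, le_max_left _ _, fun k hk b => ?_⟩
      have h1 : max (N (Q.pr k true)) (N (Q.pr k false)) ≤ m := hm ⟨k, hk, rfl⟩
      cases b
      · exact ((le_max_right _ _).trans h1).trans (le_max_right _ _)
      · exact ((le_max_left _ _).trans h1).trans (le_max_right _ _)
    obtain ⟨n, hn1, hn2⟩ := hbd
    refine (hInv n).gc j X ?_ w hw hwf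
    intro F u hu huf hat huf' hok
    obtain ⟨_, hul⟩ := (hInv n).far_mem huf
    obtain ⟨h1, h2, h3⟩ := (lim_same S N hS hn1).mem hat.1 (by rw [hul])
    have := hX F u hu huf ⟨h1, hat.2⟩ (by rw [h3]; exact huf')
      (OK_same hat (by rw [hul]; exact lim_same S N hS hn1)
        (fun k hk b => lim_same S N hS (hn2 k (by rw [hul] at hk; exact hk) b)) hok)
    rw [h3] at this
    exact this

end lim

/-! ### the sequence -/

/-- one step of the sequence: the quad number `n` -/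
structure Nxt (Q : Quads ι C K) (far : J → Set W) (enc : K → ℕ) (n : ℕ) (s s' : GSt M fam) :
    Prop where
  pos : ∀ k, enc k = n → ∀ _ : Q.Nm fam k, Step Q far k s s' ∧
    ∀ i1, NoClosed (s'.res Q k i1) (Q.Act k)
  neg : (∀ k, enc k = n → IsEmpty (Q.Nm fam k)) → s' = s

theorem exists_nxt (hP3 : P3) {Q : Quads ι C K} {far : J → Set W} {enc : K → ℕ}
    (henc : Function.Injective enc) {s : GSt M fam} (hI : s.Inv Q far) (n : ℕ) :
    ∃ s' : GSt M fam, s'.Inv Q far ∧ Nxt Q far enc n s s' := by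
  by_cases hh : ∃ k, enc k = n ∧ Nonempty (Q.Nm fam k)
  · obtain ⟨k, hk, ⟨i0⟩⟩ := hh
    obtain ⟨s', h1, h2, h3⟩ := hI.step hP3 k i0
    refine ⟨s', h2, ⟨?_, ?_⟩⟩
    · intro k' hk' _
      have : k' = k := henc (hk'.trans hk.symm)
      subst this
      exact ⟨h1, h3⟩
    · intro h
      exact ((h k hk).false i0).elim
  · refine ⟨s, hI, ⟨?_, fun _ => rfl⟩⟩
    intro k hk i
    exact absurd ⟨k, hk, ⟨i⟩⟩ hh

section Nxt
variable {Q : Quads ι C K} {far : J → Set W} {enc : K → ℕ} {n : ℕ} {s s' : GSt M fam}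

theorem Nxt.cases (h : Nxt Q far enc n s s') : (∃ k, enc k = n ∧ Step Q far k s s') ∨ s' = s := by
  by_cases hh : ∃ k, enc k = n ∧ Nonempty (Q.Nm fam k)
  · obtain ⟨k, hk, ⟨i0⟩⟩ := hh
    exact Or.inl ⟨k, hk, (h.pos k hk i0).1⟩
  · exact Or.inr (h.neg (fun k hk => not_nonempty_iff.1 (fun h' => hh ⟨k, hk, h'⟩)))

theorem Nxt.sub (h : Nxt Q far enc n s s') : s'.P ⊆ s.P := by
  rcases h.cases with ⟨k, _, hs⟩ | rfl
  · exact hs.P_sub
  · exact le_rfl

theorem Nxt.same (h : Nxt Q far enc n s s') {c : C} (hc : ∀ k, enc k = n → ¬ Q.In k c) :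
    Same c s s' := by
  rcases h.cases with ⟨k, hk, hs⟩ | rfl
  · have hkc := hc k hk
    refine ⟨fun w => ⟨?_, ?_⟩, ?_⟩
    · rintro ⟨h1, h2⟩
      obtain ⟨h3, h4, _⟩ := hs.off h1 (by rw [h2]; exact hkc)
      exact ⟨h3, by rw [h4, h2]⟩
    · rintro ⟨h1, h2⟩
      have h3 : ¬ Q.In k (fam (s.lab w)) := by rw [← hs.inn h1, h2]; exact hkc
      obtain ⟨_, h4, _⟩ := hs.off (hs.P_sub h1) h3
      exact ⟨hs.P_sub h1, by rw [← h4, h2]⟩
    · intro w h1 h2
      obtain ⟨_, h4, h5⟩ := hs.off h1 (by rw [h2]; exact hkc)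
      exact ⟨h4, h5⟩
  · exact Same.refl _ _

theorem Nxt.frozen (h : Nxt Q far enc n s s') {F : Φ} {w : W}
    (hF : ∀ k, Frozen M (Q.Act k) F) (hw : w ∈ M.On F) : (w ∈ s'.P ↔ w ∈ s.P) ∧
    (w ∈ s.P → s'.lab w = s.lab w ∧ s'.mu F w = s.mu F w) := by
  rcases h.cases with ⟨k, _, hs⟩ | rfl
  · exact hs.frozen (hF k) hw
  · exact ⟨Iff.rfl, fun _ => ⟨rfl, rfl⟩⟩

theorem Nxt.cross (h : Nxt Q far enc n s s') {F : Φ} {w x : W} (hw : s'.At F w)
    (hx : s'.At F x) (hne : fam (s'.lab w) ≠ fam (s'.lab x))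
    (hl : M.Lace F w (s'.mu F w) x (s'.mu F x)) : ∃ w' x', s.At F w' ∧ s.At F x' ∧
      s.lab w' = s'.lab w ∧ s.lab x' = s'.lab x ∧ M.Lace F w' (s.mu F w') x' (s.mu F x') := by
  rcases h.cases with ⟨k, _, hs⟩ | rfl
  · exact hs.cross hw hx hne hl
  · exact ⟨w, x, hw, hx, rfl, rfl, hl⟩

theorem Nxt.ok (h : Nxt Q far enc n s s') {F : Φ} {u : W} (hu : s.At F u)
    (h1 : u ∈ far (s.lab u)) (h2 : s.mu F u ∈ far (s.lab u)) (h3 : s.OK Q F u) :
    s'.mu F u = s.mu F u ∧ s'.OK Q F u := by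
  rcases h.cases with ⟨k, _, hs⟩ | rfl
  · exact hs.ok hu h1 h2 h3
  · exact ⟨rfl, h3⟩

theorem Nxt.noClosed (h : Nxt Q far enc n s s') {l : K} (hl : enc l ≠ n) {i : Q.Nm fam l}
    (hs : NoClosed (s.res Q l i) (Q.Act l)) : NoClosed (s'.res Q l i) (Q.Act l) := by
  rcases h.cases with ⟨k, hk, hst⟩ | rfl
  · exact hst.noClosed (fun e => hl (by rw [e, hk])) hs
  · exact hs

end Nxt

/-- **SEQ.** Apply `P3` to all quads, one after the other. -/
theorem seq (hP3 : P3) [Countable K] (Q : Quads ι C K) (s₀ : GSt M fam) (far : J → Set W)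
    (hI : s₀.Inv Q far) :
    ∃ s : GSt M fam, s.Inv Q far ∧ s.P ⊆ s₀.P ∧
      -- faces which are not inner to any quad: the pattern is the old one
      (∀ F w, (∀ k, Frozen M (Q.Act k) F) → w ∈ M.On F → (w ∈ s.P ↔ w ∈ s₀.P) ∧
        (w ∈ s₀.P → s.lab w = s₀.lab w ∧ s.mu F w = s₀.mu F w)) ∧
      -- chords with marked ends which are free in their quads are kept and stay free
      (∀ F u, s₀.At F u → u ∈ far (s₀.lab u) → s₀.mu F u ∈ far (s₀.lab u) → s₀.OK Q F u →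
        s.lab u = s₀.lab u ∧ s.mu F u = s₀.mu F u ∧ s.OK Q F u) ∧
      -- crossings of different families: same face, same names as an old one
      (∀ F w x, s.At F w → s.At F x → fam (s.lab w) ≠ fam (s.lab x) →
        M.Lace F w (s.mu F w) x (s.mu F x) → ∃ w' x', s₀.At F w' ∧ s₀.At F x' ∧
          s₀.lab w' = s.lab w ∧ s₀.lab x' = s.lab x ∧
          M.Lace F w' (s₀.mu F w') x' (s₀.mu F x')) ∧
      -- every quad: good, and no closed double curve, whatever arcs are chosen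
      ∀ (k : K) (i : Q.Nm fam k), (s.res Q k i).Good (Q.Act k) (s.farK Q far k) ∧
        ∀ (A : (s.res Q k i).Arcs (Q.Act k)) (G : Set (s.res Q k i).Dbl), A.Closed G → G = ∅ := by
  classical
  obtain ⟨enc, henc⟩ := Countable.exists_injective_nat K
  have hex : ∀ (s : {s : GSt M fam // s.Inv Q far}) (n : ℕ),
      ∃ s' : {s : GSt M fam // s.Inv Q far}, Nxt Q far enc n s.1 s'.1 := by
    intro s n
    obtain ⟨s', h1, h2⟩ := exists_nxt hP3 henc s.2 n
    exact ⟨⟨s', h1⟩, h2⟩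
  choose f hf using hex
  let T : ℕ → {s : GSt M fam // s.Inv Q far} := fun n => Nat.rec ⟨s₀, hI⟩ (fun n s => f s n) n
  let S : ℕ → GSt M fam := fun n => (T n).1
  have hS0 : S 0 = s₀ := rfl
  have hInv : ∀ n, (S n).Inv Q far := fun n => (T n).2
  have hN : ∀ n, Nxt Q far enc n (S n) (S (n + 1)) := fun n => hf (T n) n
  have hbd : ∀ c, ∃ m, ∀ k, Q.In k c → enc k < m := by
    intro c
    obtain ⟨m, hm⟩ := ((Q.finK c).image enc).bddAbove
    exact ⟨m + 1, fun k hk => Nat.lt_succ_of_le (hm ⟨k, hk, rfl⟩)⟩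
  choose N hNc using hbd
  have hS : ∀ c n, N c ≤ n → Same c (S n) (S (n + 1)) := by
    intro c n hn
    refine (hN n).same (fun k hk hin => ?_)
    have := hNc c k hin
    omega
  -- monotone facts
  have hsub : ∀ n, (S n).P ⊆ s₀.P := by
    intro n
    induction n with
    | zero => exact le_rfl
    | succ n ih => exact (hN n).sub.trans ih
  have hfrozen : ∀ n F w, (∀ k, Frozen M (Q.Act k) F) → w ∈ M.On F →
      (w ∈ (S n).P ↔ w ∈ s₀.P) ∧
      (w ∈ s₀.P → (S n).lab w = s₀.lab w ∧ (S n).mu F w = s₀.mu F w) := by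
    intro n F w hF hw
    induction n with
    | zero => exact ⟨Iff.rfl, fun _ => ⟨rfl, rfl⟩⟩
    | succ n ih =>
      obtain ⟨h1, h2⟩ := (hN n).frozen hF hw
      refine ⟨h1.trans ih.1, fun h => ?_⟩
      obtain ⟨h3, h4⟩ := h2 (ih.1.2 h)
      obtain ⟨h5, h6⟩ := ih.2 h
      exact ⟨h3.trans h5, h4.trans h6⟩
  have hcross : ∀ n F w x, (S n).At F w → (S n).At F x →
      fam ((S n).lab w) ≠ fam ((S n).lab x) →
      M.Lace F w ((S n).mu F w) x ((S n).mu F x) → ∃ w' x', s₀.At F w' ∧ s₀.At F x' ∧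
        s₀.lab w' = (S n).lab w ∧ s₀.lab x' = (S n).lab x ∧
        M.Lace F w' (s₀.mu F w') x' (s₀.mu F x') := by
    intro n
    induction n with
    | zero => intro F w x hw hx _ hl; exact ⟨w, x, hw, hx, rfl, rfl, hl⟩
    | succ n ih =>
      intro F w x hw hx hne hl
      obtain ⟨w', x', h1, h2, h3, h4, h5⟩ := (hN n).cross hw hx hne hl
      obtain ⟨w'', x'', k1, k2, k3, k4, k5⟩ := ih F w' x' h1 h2 (by rw [h3, h4]; exact hne) h5
      exact ⟨w'', x'', k1, k2, k3.trans h3, k4.trans h4, k5⟩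
  have hok : ∀ n F u, s₀.At F u → u ∈ far (s₀.lab u) → s₀.mu F u ∈ far (s₀.lab u) →
      s₀.OK Q F u → (S n).At F u ∧ (S n).lab u = s₀.lab u ∧ (S n).mu F u = s₀.mu F u ∧
        (S n).OK Q F u := by
    intro n F u hu h1 h2 h3
    have hm := (hInv n).far_mem h1
    refine ⟨⟨hm.1, hu.2⟩, hm.2, ?_⟩
    induction n with
    | zero => exact ⟨rfl, h3⟩
    | succ n ih =>
      have hm' := (hInv n).far_mem h1
      obtain ⟨h5, h6⟩ := ih hm'
      obtain ⟨h7, h8⟩ := (hN n).ok (F := F) (u := u) ⟨hm'.1, hu.2⟩ (by rw [hm'.2]; exact h1)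
        (by rw [hm'.2, h5]; exact h2) h6
      exact ⟨h7.trans h5, h8⟩
  have hnc : ∀ (k : K) (i : Q.Nm fam k) (n : ℕ), enc k < n →
      NoClosed ((S n).res Q k i) (Q.Act k) := by
    intro k i n hn
    induction n, hn using Nat.le_induction with
    | base => exact ((hN (enc k)).pos k rfl i).2 i
    | succ m hm ih => exact (hN m).noClosed (by omega) ih
  -- the limit
  have hL : ∀ {c : C} {n : ℕ}, N c ≤ n → Same c (S n) (lim S N hS) :=
    fun hn => lim_same S N hS hn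
  have hIL : (lim S N hS).Inv Q far := lim_inv S N hS hInv
  refine ⟨lim S N hS, hIL, ?_, ?_, ?_, ?_, ?_⟩
  · intro w hw
    exact hsub _ ((hL (c := fam ((lim S N hS).lab w)) le_rfl).symm.mem hw rfl).1
  · intro F w hF hw
    constructor
    · constructor
      · intro h
        exact hsub _ ((hL (c := fam ((lim S N hS).lab w)) le_rfl).symm.mem h rfl).1
      · intro h
        obtain ⟨h1, h2⟩ := hfrozen (N (fam (s₀.lab w))) F w hF hw
        exact ((hL (c := fam (s₀.lab w)) le_rfl).mem (h1.2 h) (by rw [(h2 h).1])).1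
    · intro h
      obtain ⟨h1, h2⟩ := hfrozen (N (fam (s₀.lab w))) F w hF hw
      obtain ⟨_, h3, h4⟩ := (hL (c := fam (s₀.lab w)) le_rfl).mem (h1.2 h) (by rw [(h2 h).1])
      exact ⟨h3.trans (h2 h).1, (h4 F).trans (h2 h).2⟩
  · intro F u hu h1 h2 h3
    have hb : ∃ n, N (fam (s₀.lab u)) ≤ n ∧
        ∀ k, Q.In k (fam (s₀.lab u)) → ∀ b, N (Q.pr k b) ≤ n := by
      obtain ⟨m, hm⟩ := ((Q.finK (fam (s₀.lab u))).image
        (fun k => max (N (Q.pr k true)) (N (Q.pr k false)))).bddAbove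
      refine ⟨max (N (fam (s₀.lab u))) m, le_max_left _ _, fun k hk b => ?_⟩
      have h1 : max (N (Q.pr k true)) (N (Q.pr k false)) ≤ m := hm ⟨k, hk, rfl⟩
      cases b
      · exact ((le_max_right _ _).trans h1).trans (le_max_right _ _)
      · exact ((le_max_left _ _).trans h1).trans (le_max_right _ _)
    obtain ⟨n, hn1, hn2⟩ := hb
    obtain ⟨k1, k2, k3, k4⟩ := hok n F u hu h1 h2 h3
    obtain ⟨_, l2, l3⟩ := (hL hn1).mem k1.1 (by rw [k2])
    refine ⟨l2.trans k2, (l3 F).trans k3, ?_⟩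
    exact OK_same k1 (by rw [k2]; exact hL hn1)
      (fun k hk b => hL (hn2 k (by rw [k2] at hk; exact hk) b)) k4
  · intro F w x hw hx hne hl
    obtain ⟨n, hn1, hn2⟩ : ∃ n, N (fam ((lim S N hS).lab w)) ≤ n ∧
      N (fam ((lim S N hS).lab x)) ≤ n := ⟨_, le_max_left _ _, le_max_right _ _⟩
    obtain ⟨w1, w2, w3⟩ := (hL hn1).symm.mem hw.1 rfl
    obtain ⟨x1, x2, x3⟩ := (hL hn2).symm.mem hx.1 rfl
    rw [← w3, ← x3] at hl
    rw [← w2, ← x2] at hne
    obtain ⟨w', x', k1, k2, k3, k4, k5⟩ := hcross _ F w x ⟨w1, hw.2⟩ ⟨x1, hx.2⟩ hne hl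
    exact ⟨w', x', k1, k2, k3.trans w2, k4.trans x2, k5⟩
  · intro k i
    refine ⟨hIL.good k i, ?_⟩
    have h1 : enc k < max (enc k + 1) (max (N (Q.pr k true)) (N (Q.pr k false))) :=
      lt_of_lt_of_le (Nat.lt_succ_self _) (le_max_left _ _)
    have h2 : ∀ b, N (Q.pr k b) ≤ max (enc k + 1) (max (N (Q.pr k true)) (N (Q.pr k false))) := by
      intro b
      cases b
      · exact (le_max_right _ _).trans (le_max_right _ _)
      · exact (le_max_left _ _).trans (le_max_right _ _)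
    exact (agr_same i (fun b => hL (h2 b)) (Q.Act k)).noClosed (hnc k i _ h1)

end GSt

end Crest.Agent.R096.Seq_213
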