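import Crest.Agent.R096.Cp3_298
import Crest.Agent.R096.Cp4_298
import Crest.Agent.R096.Seq4_213

/-!
# R096 / COPY, part 5 (helper298): copies have no closed double curves; renaming of sheets
-/

set_option autoImplicit false

namespace Crest.Agent.R096.Cp_298
open Crest.Agent.R096.St_147 Crest.Agent.R096.Seq_213 Crest.Agent.R096.Seq_213.GSt

variable {ι Φ W J C K : Type} {M : MeshC ι Φ W} {fam : J → C}

section copy

variable {O : Ori M} {s : GSt M fam} {σ : W → ZMod 2} {r : C → ℕ} {R : W → W → Prop}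
variable {hσ : TS s O σ} {hr : ∀ c, 0 < r c} {π : Par M O s.P (num s r) R}

/-- the section of the copies with the numbers `ℓ` -/
noncomputable def secE (Q : Quads ι C K) (k : K) (i : Q.Nm fam k)
    (i' : Q.Nm (fam' fam r) k) (ℓ : ∀ j : J, Fin (r (fam j))) :
    Emb (s.res Q k i) ((cp s σ hσ hr π).res Q k i') where
  pt := fun w => place σ π w (ℓ (s.lab w))
  nu := fun j => ⟨⟨j.1, ℓ j.1⟩, j.2⟩
  mem := by
    intro w hw
    obtain ⟨h1, h2⟩ := mem_res.1 hw
    have hl : ((ℓ (s.lab w)) : ℕ) < num s r w := (ℓ (s.lab w)).2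
    refine mem_res.2 ⟨cp_mem h1 hl, ?_⟩
    simp only [fam', cp_lab_fst h1 hl]; exact h2
  on := by
    intro w F hw
    obtain ⟨h1, _⟩ := mem_res.1 hw
    exact place_on π F h1 (ℓ (s.lab w)).2
  inj := by
    intro w v hw hv h
    obtain ⟨h1, _⟩ := mem_res.1 hw
    obtain ⟨h2, _⟩ := mem_res.1 hv
    exact (place_inj π h1 h2 (ℓ (s.lab w)).2 (ℓ (s.lab v)).2 h).1
  mu := by
    intro F w hw
    obtain ⟨h1, _⟩ := res_at.1 hw
    have hl : ((ℓ (s.lab w)) : ℕ) < num s r w := (ℓ (s.lab w)).2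
    simp only [res_mu]
    rw [cp_mu h1 hl, s.mu_lab h1.1 h1.2]
  lab := by
    intro w hw
    obtain ⟨h1, h2⟩ := mem_res.1 hw
    have hl : ((ℓ (s.lab w)) : ℕ) < num s r w := (ℓ (s.lab w)).2
    have h3 : (cp s σ hσ hr π).lab (place σ π w (ℓ (s.lab w))) = ⟨s.lab w, ℓ (s.lab w)⟩ :=
      cp_lab h1 hl
    have h4 : Q.In k (fam' fam r ((cp s σ hσ hr π).lab (place σ π w (ℓ (s.lab w))))) := by
      rw [h3]; exact h2
    rw [res_lab h4, res_lab h2]
    exact Subtype.ext h3
  col_eq := by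
    intro j
    rfl
  surj := by
    rintro x hx ⟨j, hj⟩
    obtain ⟨h1, h2⟩ := mem_res.1 hx
    rw [res_lab h2] at hj
    have h3 : (cp s σ hσ hr π).lab x = ⟨j.1, ℓ j.1⟩ := congrArg Subtype.val hj
    obtain ⟨w, hw, hlw, hlt, he⟩ := cp_named h1 h3
    have hlw' : s.lab w = j.1 := hlw
    refine ⟨w, mem_res.2 ⟨hw, by rw [hlw']; exact j.2⟩, ?_⟩
    have he' : x = place σ π w (ℓ j.1) := he
    rw [he', hlw']
  lt := by
    intro F w v hw hv h
    obtain ⟨h1, _⟩ := res_at.1 hw
    obtain ⟨h2, _⟩ := res_at.1 hv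
    have hne : w ≠ v := by rintro rfl; exact lt_irrefl _ h
    exact (place_lt_iff π h1 h2 (ℓ (s.lab w)).2 (ℓ (s.lab v)).2 hne).2 h

/-- **copies have no closed double curve** -/
theorem cp_noClosed (Q : Quads ι C K) (k : K) (i : Q.Nm fam k) (i' : Q.Nm (fam' fam r) k)
    {Act : Set ι} (h : NoClosed (s.res Q k i) Act) :
    NoClosed ((cp s σ hσ hr π).res Q k i') Act := by
  classical
  refine noClosed_of_emb (fun z' => ?_) h
  have hP : ∀ x, z'.e x ∈ (cp s σ hσ hr π).P ∧
      Q.In k (fam' fam r ((cp s σ hσ hr π).lab (z'.e x))) := fun x => mem_res.1 (z'.at_ x).1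
  let jj : Bool → Nm' fam r := fun x => (cp s σ hσ hr π).lab (z'.e x)
  have hlab : ∀ x, ((cp s σ hσ hr π).res Q k i').lab (z'.e x) = ⟨jj x, (hP x).2⟩ := fun x =>
    res_lab (hP x).2
  have hne : (jj true).1 ≠ (jj false).1 := by
    intro he
    have h1 := z'.colr true
    have h2 := z'.colr false
    rw [hlab] at h1 h2
    have h3 : Q.cl (fam' fam r) k ⟨jj true, (hP true).2⟩ =
        Q.cl (fam' fam r) k ⟨jj false, (hP false).2⟩ := by
      rw [Q.cl_eq_iff]
      show fam (jj true).1 = fam (jj false).1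
      rw [he]
    rw [h1, h2] at h3
    exact absurd h3 (by decide)
  let ℓ : ∀ j : J, Fin (r (fam j)) := fun j =>
    if h : j = (jj true).1 then h ▸ (jj true).2 else
      if h : j = (jj false).1 then h ▸ (jj false).2 else ⟨0, hr _⟩
  have hℓ : ∀ x, jj x = ⟨(jj x).1, ℓ (jj x).1⟩ := by
    intro x
    cases x with
    | true =>
      have : ℓ (jj true).1 = (jj true).2 := by
        show (if h : (jj true).1 = (jj true).1 then h ▸ (jj true).2 else _) = _
        rw [dif_pos rfl]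
      rw [this]
    | false =>
      have : ℓ (jj false).1 = (jj false).2 := by
        show (if h : (jj false).1 = (jj true).1 then h ▸ (jj true).2 else _) = _
        rw [dif_neg hne.symm, dif_pos rfl]
      rw [this]
  refine ⟨secE Q k i i' ℓ, (secE Q k i i' ℓ).T_surj (fun x => ?_)⟩
  refine ⟨⟨(jj x).1, (hP x).2⟩, ?_⟩
  rw [hlab]
  exact Subtype.ext (hℓ x)

end copy

/-! ### renaming of sheets -/

section push

variable {J' : Type} {fam1 : J' → C}

/-- renaming of the sheets along `ν` -/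
def push (ν : J' → J) (hf : ∀ j', fam (ν j') = fam1 j') (s : GSt M fam1) : GSt M fam where
  P := s.P
  lab := fun w => ν (s.lab w)
  mu := s.mu
  mu_mem := s.mu_mem
  mu_ne := s.mu_ne
  mu_mu := s.mu_mu
  mu_lab := fun hw hF => by rw [s.mu_lab hw hF]
  nc := by
    intro F w x hw hF hx hF' hc
    rw [hf, hf] at hc
    exact s.nc hw hF hx hF' hc
  fin := by
    intro c
    simp only [hf]
    exact s.fin c

variable {ν : J' → J} {hf : ∀ j', fam (ν j') = fam1 j'} {s : GSt M fam1}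

theorem push_At {F : Φ} {w : W} : (push ν hf s).At F w ↔ s.At F w := Iff.rfl

theorem push_H1 (hν : Function.Injective ν) {j' : J'} :
    (push ν hf s).H1 (ν j') ↔ s.H1 j' := by
  unfold GSt.H1
  have e : ∀ w, (push ν hf s).lab w = ν j' ↔ s.lab w = j' := fun w => hν.eq_iff
  simp only [e]
  exact Iff.rfl

theorem push_Conn (hν : Function.Injective ν) {j' : J'} :
    (push ν hf s).Conn (ν j') ↔ s.Conn j' := by
  unfold GSt.Conn
  have e : ∀ w, (push ν hf s).lab w = ν j' ↔ s.lab w = j' := fun w => hν.eq_iff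
  simp only [e]
  exact Iff.rfl

theorem push_TS {O : Ori M} {σ : W → ZMod 2} : TS (push ν hf s) O σ ↔ TS s O σ := Iff.rfl

theorem push_Free {Q : Quads ι C K} {k : K} {F : Φ} {w : W} :
    (push ν hf s).Free Q k F w ↔ s.Free Q k F w := by
  have e : ∀ w, fam ((push ν hf s).lab w) = fam1 (s.lab w) := fun w => hf _
  unfold GSt.Free
  simp only [e]
  exact Iff.rfl

theorem push_OK {Q : Quads ι C K} {F : Φ} {w : W} :
    (push ν hf s).OK Q F w ↔ s.OK Q F w := by
  have e : ∀ w, fam ((push ν hf s).lab w) = fam1 (s.lab w) := fun w => hf _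
  unfold GSt.OK
  simp only [push_Free, e]

/-- the invariant for the names in `A` -/
structure InvOn (s : GSt M fam) (Q : Quads ι C K) (far : J → Set W) (A : Set J) : Prop where
  lab_mem : ∀ {w}, w ∈ s.P → s.lab w ∈ A
  h1 : ∀ j ∈ A, s.H1 j
  conn : ∀ j ∈ A, s.Conn j
  far_mem : ∀ {j w}, j ∈ A → w ∈ far j → w ∈ s.P ∧ s.lab w = j
  far_ne : ∀ j ∈ A, (far j).Nonempty
  only : ∀ {k F w}, s.At F w → Inner M (Q.Act k) F → Q.In k (fam (s.lab w))
  loc : ∀ {w}, w ∈ s.P → w ∈ far (s.lab w) ∨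
    ∃ k, Q.In k (fam (s.lab w)) ∧ Int M (Q.Act k) w
  gc : ∀ j ∈ A, ∀ (X : Set W),
    (∀ F w, w ∈ X → w ∈ far j → s.At F w → s.mu F w ∈ far j → s.OK Q F w → s.mu F w ∈ X) →
    ∀ w ∈ X, w ∈ far j → far j ⊆ X

theorem inv_iff_invOn {s : GSt M fam} {Q : Quads ι C K} {far : J → Set W} :
    s.Inv Q far ↔ InvOn s Q far Set.univ := by
  constructor
  · intro h
    exact ⟨fun _ => trivial, fun j _ => h.h1 j, fun j _ => h.conn j, fun _ h' => h.far_mem h',
      fun j _ => h.far_ne j, h.only, h.loc, fun j _ => h.gc j⟩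
  · intro h
    exact ⟨fun j => h.h1 j trivial, fun j => h.conn j trivial, fun h' => h.far_mem trivial h',
      fun j => h.far_ne j trivial, h.only, h.loc, fun j => h.gc j trivial⟩

theorem push_InvOn (hν : Function.Injective ν) {Q : Quads ι C K} {far : J → Set W} :
    InvOn (push ν hf s) Q far (Set.range ν) ↔ s.Inv Q (fun j' => far (ν j')) := by
  constructor
  · intro h
    refine ⟨fun j' => (push_H1 hν).1 (h.h1 _ ⟨j', rfl⟩),
      fun j' => (push_Conn hν).1 (h.conn _ ⟨j', rfl⟩), ?_, fun j' => h.far_ne _ ⟨j', rfl⟩, ?_, ?_,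
      ?_⟩
    · intro j' w hw
      obtain ⟨h1, h2⟩ := h.far_mem ⟨j', rfl⟩ hw
      exact ⟨h1, hν h2⟩
    · intro k F w hw hF
      rw [← hf]
      exact h.only hw hF
    · intro w hw
      rw [← hf]
      exact h.loc hw
    · intro j' X hX
      refine h.gc (ν j') ⟨j', rfl⟩ X ?_
      intro F w h1 h2 h3 h4 h5
      exact hX F w h1 h2 h3 h4 (push_OK.1 h5)
  · intro h
    refine ⟨fun {w} _ => ⟨s.lab w, rfl⟩, ?_, ?_, ?_, ?_, ?_, ?_, ?_⟩
    · rintro _ ⟨j', rfl⟩
      exact (push_H1 hν).2 (h.h1 j')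
    · rintro _ ⟨j', rfl⟩
      exact (push_Conn hν).2 (h.conn j')
    · rintro _ w ⟨j', rfl⟩ hw
      obtain ⟨h1, h2⟩ := h.far_mem hw
      exact ⟨h1, congrArg ν h2⟩
    · rintro _ ⟨j', rfl⟩
      exact h.far_ne j'
    · intro k F w hw hF
      show Q.In k (fam (ν (s.lab w)))
      rw [hf]
      exact h.only hw hF
    · intro w hw
      show w ∈ far (ν (s.lab w)) ∨ ∃ k, Q.In k (fam (ν (s.lab w))) ∧ Int M (Q.Act k) w
      rw [hf]
      exact h.loc hw
    · rintro _ ⟨j', rfl⟩ X hX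
      refine h.gc j' X ?_
      intro F w h1 h2 h3 h4 h5
      exact hX F w h1 h2 h3 h4 (push_OK.2 h5)

/-- the renamed state contains the old one -/
noncomputable def pushE (ν : J' → J) (hf : ∀ j', fam (ν j') = fam1 j')
    (hν : Function.Injective ν) (s : GSt M fam1) (Q : Quads ι C K) (k : K)
    (i : Q.Nm fam1 k) (i' : Q.Nm fam k) :
    Emb (s.res Q k i) ((push ν hf s).res Q k i') where
  pt := id
  nu := fun j => ⟨ν j.1, by rw [hf]; exact j.2⟩
  mem := by
    intro w hw
    obtain ⟨h1, h2⟩ := mem_res.1 hw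
    refine mem_res.2 ⟨h1, ?_⟩
    show Q.In k (fam (ν (s.lab w)))
    rw [hf]; exact h2
  on := fun _ _ => Iff.rfl
  inj := fun _ _ h => h
  mu := fun _ => rfl
  lab := by
    intro w hw
    obtain ⟨h1, h2⟩ := mem_res.1 hw
    have h4 : Q.In k (fam ((push ν hf s).lab w)) := by
      show Q.In k (fam (ν (s.lab w)))
      rw [hf]; exact h2
    show ((push ν hf s).res Q k i').lab w = _
    rw [res_lab h4, res_lab h2]
    rfl
  col_eq := by
    intro j
    rw [Q.cl_iff]
    show fam (ν j.1) = _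
    rw [hf]
    exact (Q.cl_iff fam1 k j _).1 rfl
  surj := by
    rintro x hx ⟨j, hj⟩
    obtain ⟨h1, h2⟩ := mem_res.1 hx
    rw [res_lab h2] at hj
    have h3 : ν (s.lab x) = ν j.1 := congrArg Subtype.val hj
    refine ⟨x, mem_res.2 ⟨h1, ?_⟩, rfl⟩
    rw [hν h3]; exact j.2
  lt := fun _ _ h => h

theorem push_noClosed (hν : Function.Injective ν) {Q : Quads ι C K} {k : K} {i : Q.Nm fam1 k}
    {i' : Q.Nm fam k} {Act : Set ι} (h : NoClosed (s.res Q k i) Act) :
    NoClosed ((push ν hf s).res Q k i') Act := by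
  refine noClosed_of_emb (fun z' => ?_) h
  refine ⟨pushE ν hf hν s Q k i i', (pushE ν hf hν s Q k i i').T_surj (fun x => ?_)⟩
  obtain ⟨h1, h2⟩ := mem_res.1 (z'.at_ x).1
  have h2' : Q.In k (fam1 (s.lab (z'.e x))) := by
    rw [← hf]; exact h2
  refine ⟨⟨s.lab (z'.e x), h2'⟩, ?_⟩
  rw [res_lab h2]
  rfl

end push

/-! ### pulling back the names -/

section pull

variable {J' : Type} {fam1 : J' → C}

open Classical in
/-- the state with its names in the range of `ν` -/
noncomputable def pull (ν : J' → J) (hf : ∀ j', fam (ν j') = fam1 j') (d : J → J')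
    (s : GSt M fam) (hs : ∀ w ∈ s.P, s.lab w ∈ Set.range ν) : GSt M fam1 where
  P := s.P
  lab := fun w => if h : s.lab w ∈ Set.range ν then h.choose else d (s.lab w)
  mu := s.mu
  mu_mem := s.mu_mem
  mu_ne := s.mu_ne
  mu_mu := s.mu_mu
  mu_lab := fun hw hF => by simp only [s.mu_lab hw hF]
  nc := by
    intro F w x hw hF hx hF' hc
    rw [dif_pos (hs w hw), dif_pos (hs x hx), ← hf, ← hf, (hs w hw).choose_spec,
      (hs x hx).choose_spec] at hc
    exact s.nc hw hF hx hF' hc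
  fin := by
    intro c
    refine (s.fin c).subset ?_
    rintro w ⟨h1, h2⟩
    rw [dif_pos (hs w h1), ← hf, (hs w h1).choose_spec] at h2
    exact ⟨h1, h2⟩

variable {ν : J' → J} {hf : ∀ j', fam (ν j') = fam1 j'} {d : J → J'} {s : GSt M fam}
  {hs : ∀ w ∈ s.P, s.lab w ∈ Set.range ν}

theorem pull_lab {w : W} (hw : w ∈ s.P) : ν ((pull ν hf d s hs).lab w) = s.lab w := by
  classical
  show ν (if h : s.lab w ∈ Set.range ν then h.choose else d (s.lab w)) = _
  rw [dif_pos (hs w hw)]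
  exact (hs w hw).choose_spec

/-- `push` of `pull` agrees with the state -/
theorem push_pull (c : C) : Same c (push ν hf (pull ν hf d s hs)) s := by
  constructor
  · intro w
    constructor
    · rintro ⟨h1, h2⟩
      have h1' : w ∈ s.P := h1
      refine ⟨h1', ?_⟩
      rw [← pull_lab (hf := hf) (d := d) (hs := hs) h1']
      exact h2
    · rintro ⟨h1, h2⟩
      refine ⟨h1, ?_⟩
      show fam (ν ((pull ν hf d s hs).lab w)) = c
      rw [pull_lab (hf := hf) (d := d) (hs := hs) h1]; exact h2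
  · intro w h1 _
    exact ⟨(pull_lab (hf := hf) (d := d) (hs := hs) h1).symm, fun _ => rfl⟩

end pull

end Crest.Agent.R096.Cp_298
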