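import Crest.Agent.R096.Cp4_465
import Crest.Agent.R096.Fsl9_793

/-!
# Row 96 (S0127), p = 2: COMPOSITE A (helper465; 753 #10547 (A2)), final statement `comp_A2`
-/

set_option autoImplicit false
set_option linter.unusedSectionVars false
set_option maxHeartbeats 400000

open Set Metric MeasureTheory Topology Filter
open scoped ENNReal

namespace Crest.Agent.R096.Cp_465

open Crest.AnalysisR.VecCalc3 Crest.AnalysisR.Sobolev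
open Crest.Agent.R096.Msh_715 (Tiling P I)
open Crest.Agent.R096.Sk2_855 (sk1 HP Mv)
open Crest.Agent.R096.Sk3_812 (GoodT HF ug)
open Crest.Agent.R096.Spr_113 (NearV)
open Crest.Agent.R096.Ca_855
open Crest.Agent.R96.Gdt_538 (MeshG)
open Crest.Agent.R096.Fsl_793
open Crest.Agent.R96.Acl_392 Crest.Agent.R96.Lu_538 Crest.Agent.R96.Intr_538
open Crest.Agent.R96.Coarse_538
open Crest.Agent.R096.Fce_793 (pt)

/-- **the result of composite A for `p = 2` at one position**: closeness to the affine maps in the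
cubes, `C⁰` clause, small balls and squeezes -/
def ResA2 {ι : Type} (Ω Λ : Set R3) (T : Tiling Ω ι) (f : R3 → R3) (Q : Finset (Fin 3 → ℤ))
    (zc bb : (Fin 3 → ℤ) → R3) (LL : (Fin 3 → ℤ) → R3 →L[ℝ] R3) (κ τ s d σ : ℝ) : Prop :=
  ∀ e > 0, ∃ Φ : R3 ≃ₜ R3, Mv T Φ ∧
    (∀ k ∈ Q, ∀ y ∈ cel Cb (zc k) ((1 - 6 * τ) * s), ‖f (Φ y) - (bb k + LL k (y - zc k))‖ ≤ d + e) ∧
    (∀ i, ∀ y ∈ P (T.H i), ∀ r, (∀ y' ∈ P (T.H i), ‖f y' - f y‖ ≤ r) →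
      ‖f (Φ y) - f y‖ ≤ r + d + e) ∧
    ∃ (m : {k // k ∈ Q} → ℕ) (y : ∀ k, Fin (m k) → R3) (ρ : ∀ k, Fin (m k) → ℝ),
      (∀ (k : {k // k ∈ Q}) l, y k l ∈ par Cb (LL k) (bb k) ((1 - 4 * τ) * s)) ∧
      (∀ k l, 0 < ρ k l) ∧ (∀ k, ∑ l, 2 * ρ k l ≤ σ) ∧ NearB T f Φ y ρ ∧
      Sqz Λ (fun k : {k // k ∈ Q} => par Cb (LL k) (bb k) ((1 - 4 * τ) * s))
        (fun _ => κ * (τ * s)) (fun _ => σ) y ρ

/-- **COMPOSITE A, `p = 2`** -/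
theorem comp_A2 {Ω Λ : Set R3} (hΩ : IsOpen Ω)
    (hΩb : Bornology.IsBounded Ω) (hΛ : IsOpen Λ) (hΛf : volume Λ ≠ ∞) {f fi : R3 → R3}
    {G : Fin 3 → R3 → R3} (hinj : InjOn f Ω) (F : HF Ω Λ f fi) (hfΛ : MapsTo f Ω Λ)
    (happ : ∀ η > 0, ∃ h hi, HP Ω Λ h hi ∧ ∀ x ∈ Ω, ‖h x - f x‖ ≤ η)
    (hG : ∀ j, HasWeakGradOn Ω (fun x => f x j) (G j))
    (hGp : ∀ j, MemLp (G j) (ENNReal.ofReal 2) (volume.restrict Ω)) {ε : ℝ} (hε : 0 < ε) :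
    ∃ κ : ℝ, 0 < κ ∧ κ ≤ 1 ∧ ∃ K ⊆ Ω, IsCompact K ∧ ∃ K' ⊆ Λ, IsCompact K' ∧
      ∀ N n τ σ₀ β r σ' η₁ : ℝ, ∀ nc mf : ℕ, 0 < N → 0 < n → 0 < σ₀ → σ₀ < τ → 6 * τ < 1 →
        1 ≤ σ₀ * N → 2 ≤ τ * N → 0 < β → 0 < r → 0 < σ' → 24 * σ' ≤ κ * τ * N → 0 < η₁ →
        ∀ θ δ e₁ : ℝ, 0 < θ → 0 < δ → 0 < e₁ →
        ∀ (m : ℕ) (g : Fin m → R3 → ℝ≥0∞), (∀ l, AEMeasurable (g l) volume) →
        (∀ l, ∫⁻ y, g l y ≠ ∞) → ∀ (nE ncE : Fin m → ℝ) (εE : ℝ), (∀ l, 0 < nE l) →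
        (∀ l, 0 < ncE l) → 0 < εE →
        ∃ s₀ : ℝ, 0 < s₀ ∧ ∀ s : ℝ, 0 < s → s < s₀ → ∀ a₀ : R3,
        ∃ (Q₀ : Finset (Fin 3 → ℤ)) (b : (Fin 3 → ℤ) → R3) (L : (Fin 3 → ℤ) → R3 →L[ℝ] R3)
          (S : (Fin 3 → ℤ) → Set R3),
          (∀ k ∈ Q₀, GC Ω volume f (Gmat G) Cb κ e₁ s (vt (2 * s) a₀ k) (b k) (L k) (S k)) ∧
          (∀ k ∈ Q₀, cel Cb (vt (2 * s) a₀ k) s ⊆ K) ∧ (∀ k ∈ Q₀, par Cb (L k) (b k) s ⊆ K') ∧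
          (∀ k ∈ Q₀, ∀ l ∈ Q₀, k ≠ l →
            Disjoint (par Cb (L k) (b k) ((1 - τ) * s)) (par Cb (L l) (b l) s)) ∧
          ∑ k ∈ Q₀, ∫⁻ x in cel Cb (vt (2 * s) a₀ k) s, ‖Gmat G x - L k‖ₑ ^ (2:ℝ) ≤
            ENNReal.ofReal e₁ ∧
          volume ((Ω ∩ {x | (Gmat G x).det ≠ 0}) \ ⋃ k ∈ Q₀, cel Cb (vt (2 * s) a₀ k) s) ≤
            ENNReal.ofReal ε ∧
          ∀ (W : Set R3), K ⊆ W → (∀ y ∈ Ω, f y ∈ K' → y ∈ W) →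
            ∀ (M : MFam2 Ω W (s / N) n β r nc mf),
            ∀ ν : R3 → Measure R3, RM M.Tr (ENNReal.ofReal n) ν →
            ∀ (μ : Fin m → R3 → Measure R3), (∀ l, RM M.Tr (ENNReal.ofReal (nE l)) (μ l)) →
            (∀ l, ∀ a ∈ M.Tr, ∀ k : Fin 3 → ℤ, μ l a (cel Cb (vt (2 * s) a₀ k) s) ≤
              ENNReal.ofReal (ncE l * (2 * s) ^ 3)) →
            ∀ (E : Fin m → Set R3), (∀ l, MeasurableSet (E l)) →
            ∀ (J : Type) [Countable J] (Fj : J → R3 → ℝ≥0∞), (∀ j, AEMeasurable (Fj j) volume) →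
            (∀ j, ∫⁻ y, Fj j y ≠ ∞) →
            ∃ B : Set R3, volume B ≤ ENNReal.ofReal θ * volume M.Tr ∧
              ∀ a ∈ M.Tr, a ∉ B → (∀ e, ACV Ω f (Gmat G) (M.v e) (a + M.x e)) ∧
                (∀ e j, ∀ ε' : ℝ≥0∞, 0 < ε' → ∀ᶠ r in 𝓝[>] (0:ℝ),
                  ∫⁻ y in thickening r (seg M.x M.v a e), Fj j y ≤
                    ENNReal.ofReal (64 * ‖M.v e‖ * r ^ 2) *
                      ((∫⁻ σ in Ioc (0:ℝ) 1, Fj j (a + M.x e + σ • M.v e)) + ε')) ∧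
                ∃ Q ⊆ Q₀, ((Q₀ \ Q).card : ℝ) * (2 * s) ^ 3 ≤ δ ∧
                (∀ k ∈ Q, PerfG M.x M.v 2 Ω f (Gmat G) κ τ σ₀ η₁ (s / N) s a
                  (vt (2 * s) a₀ k) (b k) (L k) ∧
                ∫⁻ y in cel Cb (vt (2 * s) a₀ k) s, ‖Gmat G y - L k‖ₑ ^ (2:ℝ) ∂ν a ≤
                  ENNReal.ofReal (η₁ * s ^ 3)) ∧
                (∀ l, ∫⁻ y in E l ∪ ⋃ k ∈ Q₀ \ Q, cel Cb (vt (2 * s) a₀ k) s, g l y ∂μ l a ≤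
                  ENNReal.ofReal (nE l / (θ / (4 * (m + 1)))) * (∫⁻ y in E l, g l y) +
                    ENNReal.ofReal εE) ∧
                ResA2 Ω Λ (M.T a) f Q (vt (2 * s) a₀) b L κ τ s
                  (3 * (nc * (nc * nc) + 2) * (κ⁻¹ * (s / N))) (σ' * (s / N)) := by
  obtain ⟨κ, hκ, hκ1, K, hK, hKc, K', hK', hK'c, H⟩ :=
    coarse_mesh2 hΩ hΩb hΛ hΛf hinj F.cont hfΛ hG hGp hε
  refine ⟨κ, hκ, hκ1, K, hK, hKc, K', hK', hK'c, ?_⟩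
  intro N n τ σ₀ β r σ' η₁ nc mf hN hn hσ₀ hσ₀τ hτ6 hσN hτN hβ hr hσ' hσ'r hη₁ θ δ e₁ hθ hδ he₁ m g
    hg hgi nE ncE εE hnE hncE hεE
  have hτ : 0 < τ := hσ₀.trans hσ₀τ
  obtain ⟨Nt, σ₂, ε₀, η₀, β', hσ₂, hε₀, hη₀, hβ', n1, n2, n3, n4, n5, n6, n7⟩ :=
    exists_numbers nc hκ hβ hr hN hτ hσ'
  have hη : 0 < min η₀ η₁ := lt_min hη₀ hη₁
  have hε' : 0 < min ε₀ η₁ := lt_min hε₀ hη₁
  obtain ⟨q1, q2, q3, q4⟩ := n3 _ (min_le_left η₀ η₁)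
  obtain ⟨s₀, hs₀, Hs⟩ := H N n τ σ₀ (min η₀ η₁) θ δ e₁ (min ε₀ η₁) β' mf hN hn hσ₀ hσ₀τ
    (by linarith) hσN hη hθ hδ he₁ hε' hβ' m g hg hgi nE ncE εE hnE hncE hεE
  refine ⟨s₀, hs₀, fun s hs hss a₀ => ?_⟩
  obtain ⟨Q₀, b, L, S, h1, h2, h3, h4, h5, h6, h7⟩ := Hs s hs hss a₀
  refine ⟨Q₀, b, L, S, h1, h2, h3, h4, h5, h6, ?_⟩
  intro W hKW hKW' M ν hν μ hμ hcount E hE J _ Fj hF hFi
  obtain ⟨B, hB, hB'⟩ := h7 W β r nc M ν hν μ hμ hcount E hE J Fj hF hFi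
  refine ⟨B, hB, fun a ha haB => ?_⟩
  obtain ⟨g1, g2, Q, hQ, g3, g4, g5⟩ := hB' a ha haB
  have ht : 0 < s / N := div_pos hs hN
  have htτ : 2 * (s / N) ≤ τ * s := by
    rw [mul_div_assoc', div_le_iff₀ hN]
    nlinarith
  have hPe : ∀ k ∈ Q, PerfG M.x M.v 2 Ω f (Gmat G) κ τ σ₀ (min η₀ η₁) (s / N) s a
      (vt (2 * s) a₀ k) (b k) (L k) := fun k hk => (g4 k hk).1
  have hLi : ∀ k ∈ Q, Function.Injective (L k) := fun k hk => Ca_855.inj_of_low hκ (hPe k hk).low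
  have hcelK : ∀ k ∈ Q, ∀ ρ, 0 ≤ ρ → ρ ≤ s → cel Cb (vt (2 * s) a₀ k) ρ ⊆ W :=
    fun k hk ρ h0 hρ => (cel_mono ref_Cb _ h0 hρ).trans ((h2 k (hQ hk)).trans hKW)
  have hpm : ∀ k ∈ Q, par Cb (L k) (b k) ((1 - τ) * s) ⊆ K' := fun k hk =>
    (par_mono (hLi k hk) (mul_nonneg (by linarith) hs.le) (by nlinarith)).trans (h3 k (hQ hk))
  have hpar : ∀ k ∈ Q, par Cb (L k) (b k) ((1 - τ) * s) ⊆ Λ := fun k hk =>
    (hpm k hk).trans hK'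
  have hWc : ∀ k ∈ Q, cel Cb (vt (2 * s) a₀ k) ((1 - σ₀) * s) ⊆ W := fun k hk =>
    hcelK k hk _ (mul_nonneg (by linarith) hs.le) (by nlinarith)
  have hdis : ∀ k ∈ Q, ∀ l ∈ Q, k ≠ l →
      Disjoint (par Cb (L k) (b k) ((1 - τ) * s)) (par Cb (L l) (b l) s) := fun k hk l hl hkl =>
    h4 k (hQ hk) l (hQ hl) hkl
  have hG' : ∀ k ∈ Q, ∀ i, (P ((M.T a).H i) ∩
      cel Cb (vt (2 * s) a₀ k) ((1 - 4 * τ) * s)).Nonempty →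
      TileG (M.T a) i (Gsm_432.H_ne (M.T a) i) (M.c a i) β (r * (s / N)) (s / N) nc := by
    rintro k hk i ⟨w, hw, hw'⟩
    exact M.tile a ha i ⟨w, hw, hcelK k hk _ (mul_nonneg (by linarith) hs.le) (by nlinarith) hw'⟩
  have hNV : ∀ k ∈ Q, ∀ i, (P ((M.T a).H i) ∩
      cel Cb (vt (2 * s) a₀ k) ((1 - 4 * τ) * s)).Nonempty →
      NearV (M.T a) i (ug ((M.T a).H i) (Gsm_432.H_ne (M.T a) i) (M.c a i)
        (AffineEquiv.refl ℝ R3)) (4 * β) (r * (s / N) / 8) := by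
    rintro k hk i ⟨w, hw, hw'⟩
    exact M.near a ha i ⟨w, hw, hcelK k hk _ (mul_nonneg (by linarith) hs.le) (by nlinarith) hw'⟩
  have R1 := regs_of_mesh (La := Λ) (p := 2) (by norm_num) F hκ hη ht hs hσ₀ hσ₀τ hτ6 htτ
    hPe g1 M.vle (M.mesh a ha) (fun k hk y hy hyp => hKW' y hy (hpm k hk hyp)) hWc hpar hdis
    (q4 s hs) hLi (fun i => Gsm_432.H_ne (M.T a) i) (M.c a) hβ hr hG' q3
  obtain ⟨R2⟩ := regs2_of_mesh (La := Λ) (p := 2) (β' := β') (σ₂ := σ₂) (Nt := Nt)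
    (ε₀ := min ε₀ η₁) (by norm_num) F hκ hη ht
    hs hσ₀ hσ₀τ hτ6 htτ hPe g1 M.vle (M.mesh a ha) hWc hLi
    (fun i => Gsm_432.H_ne (M.T a) i) (M.c a) hβ hr hG' R1.good hNV (M.hface ha)
    (fun k hk => (g4 k hk).2.1) n2 hσ₂ hε' (n1 s hs) q1 q2 n4
    (le_trans (mul_le_mul_of_nonneg_left (min_le_left _ _) (by positivity)) n5) n6
  refine ⟨g1, g2, Q, hQ, g3, fun k hk => ⟨?_, ?_⟩, g5, ?_⟩
  · exact (hPe k hk).mono (by norm_num) ht.le hη.le (min_le_right _ _)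
  · refine (g4 k hk).2.2.trans (ENNReal.ofReal_le_ofReal ?_)
    exact mul_le_mul_of_nonneg_right (min_le_right _ _) (by positivity)
  · intro e he
    have hσσ : Nt * (CC β κ r * (nc * (σ₂ * (s / N)))) =
        (Nt * (CC β κ r * (nc * σ₂))) * (s / N) := by ring
    have hSg0 : 0 ≤ Nt * (CC β κ r * (nc * σ₂)) := by
      have := CC_pos hβ hκ hr
      positivity
    obtain ⟨Φ, k1, k2, k3, k4⟩ := phi_of_regs hκ hτ hτ6 hs ht.le htτ hΛ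
      (fun k hk => (hPe k hk).sub) (fun k hk => (hPe k hk).low) hpar hdis R1 R2 happ
      (σ := σ' * (s / N)) (by
        rw [hσσ, ← mul_assoc]
        refine mul_lt_mul_of_pos_right ?_ ht
        linarith) (by
        have e1 : 24 * (σ' * (s / N)) = 24 * σ' * (s / N) := by ring
        rw [e1]
        refine (mul_le_mul_of_nonneg_right hσ'r ht.le).trans (le_of_eq ?_)
        field_simp) he
    refine ⟨Φ, k1, k2, fun i y hy ρ hρ => ?_, k4⟩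
    refine (k3 i y hy ρ hρ).trans ?_
    have : 0 ≤ κ⁻¹ * (s / N) := by positivity
    nlinarith

end Crest.Agent.R096.Cp_465
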