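import Crest.Agent.R096.Cp1_465

/-!
# Row 96 (S0127), p = 2: composite A (helper465), part 6: the fine form (753 #11098 (G1), (G2))

`Happ`: approximation with a function `ζ ∘ f`.  `two_sk2_fine`, `exists_phi_fine`,
`exists_phiR_fine`: the additional clause (G2): away from the bodies the move is small compared with
`ζ`.
-/

set_option autoImplicit false
set_option linter.unusedSectionVars false

open Set Metric Topology Filter
open scoped NNReal

namespace Crest.Agent.R096.Cp_465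

open Crest.Agent.R096.Msh_715 (Tiling P I)
open Crest.Agent.R096.Sk2_855 (sk1 HP Mv)
open Crest.Agent.R096.Sk3_812 (GoodT HF)
open Crest.Agent.R096.Sk3_270 (exists_col exists_min)
open Crest.Agent.R096.P2l_565 (One2 family2)
open Crest.Agent.R096.Tsk_879 (Fam2)
open Crest.Agent.R096.Pst_465 (PBox Step2 step2_final Thr)
open Crest.Agent.R096.Ca_855

/-- the fine form of the approximation (753 (G1), 812's `happ_fine`) -/
def Happ {E : Type*} [NormedAddCommGroup E] [NormedSpace ℝ E] (Om La : Set E) (f : E → E) : Prop :=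
  ∀ ζ : E → ℝ, ContinuousOn ζ La → (∀ y ∈ La, 0 < ζ y) →
    ∃ h hi, HP Om La h hi ∧ ∀ x ∈ Om, ‖h x - f x‖ ≤ ζ (f x)

theorem Happ.unif {E : Type*} [NormedAddCommGroup E] [NormedSpace ℝ E] {Om La : Set E} {f : E → E}
    (H : Happ Om La f) : ∀ η > 0, ∃ h hi, HP Om La h hi ∧ ∀ x ∈ Om, ‖h x - f x‖ ≤ η :=
  fun η hη => H (fun _ => η) continuousOn_const fun _ _ => hη

theorem cont_of_half {E : Type*} [NormedAddCommGroup E] {ζ : E → ℝ}
    (hζL : ∀ y y', |ζ y - ζ y'| ≤ ‖y - y'‖ / 2) : Continuous ζ := by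
  refine LipschitzWith.continuous (K := 1) (LipschitzWith.of_dist_le_mul fun y y' => ?_)
  rw [Real.dist_eq, dist_eq_norm, NNReal.coe_one, one_mul]
  have := hζL y y'
  have := norm_nonneg (y - y')
  linarith

section

variable {E : Type*} [NormedAddCommGroup E] [NormedSpace ℝ E] [FiniteDimensional ℝ E]
  {Om La : Set E} {ι : Type*} {T : Tiling Om ι} {f : E → E} {J : Type*}
  {i : J → ι} {Y : J → Set E} {n : ℕ} {col : J → Fin n}

/-- 879's `two_sk2` with the fine clause (G2) -/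
theorem two_sk2_fine (F : Fam2 T La f i Y col) (h3 : Module.finrank ℝ E = 3) (hLa : IsOpen La)
    (hS : Step2 T La) [Finite J] (happ : Happ Om La f) {e : ℝ} (he : 0 < e) {ζ : E → ℝ}
    (hζ0 : ∀ y ∈ La, 0 < ζ y) (hζL : ∀ y y', |ζ y - ζ y'| ≤ ‖y - y'‖ / 2) :
    ∃ Ψ : E ≃ₜ E, Mv T Ψ ∧
      (∀ x ∈ Om, T.dim x = 2 → ∀ z ∈ T.cc x, (∀ᶠ y in 𝓝 z, Ψ y = y) ∨
        ∃ j m, ∃ w ∈ (F.B j).shell, w ∈ (F.B j).c' m ∧ ‖f (Ψ z) - w‖ ≤ e) ∧
      (∀ j (y0 : E) (R D : ℝ), 0 ≤ D → Y j ⊆ closedBall y0 R →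
        (∀ j', (Y j' ∩ closedBall y0 (R + n * D + e)).Nonempty →
          ∀ y ∈ Y j', ∀ y' ∈ Y j', ‖y - y'‖ ≤ D) →
        ∀ x ∈ P (T.H (i j)), ‖f (Ψ x) - y0‖ ≤ R + n * D + e) ∧
      (∀ k (y0 : E) (R D : ℝ), 0 ≤ D → (∀ x ∈ P (T.H k), T.dim x ≤ 2 → f x ∈ closedBall y0 R) →
        (∀ j', (Y j' ∩ closedBall y0 (R + n * D + e)).Nonempty →
          ∀ y ∈ Y j', ∀ y' ∈ Y j', ‖y - y'‖ ≤ D) →
        ∀ x ∈ P (T.H k), ‖f (Ψ x) - y0‖ ≤ R + n * D + e) ∧
      (∀ k, ∀ x ∈ P (T.H k), ∀ r, (∀ x' ∈ P (T.H k), ‖f x' - f x‖ ≤ r) →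
        (∀ j, Disjoint (closedBall (f x) (2 * r + ζ (f x))) (Y j)) →
        ‖f (Ψ x) - f x‖ ≤ 4 * r + 4 * ζ (f x)) := by
  obtain ⟨h, hi, H, hh⟩ := happ (fun y => min (ζ y) (min F.η (e / 2)))
    ((cont_of_half hζL).min continuous_const).continuousOn
    (fun y hy => lt_min (hζ0 y hy) (lt_min F.hη (by positivity)))
  have hh0 : ∀ x ∈ Om, ‖h x - f x‖ ≤ ζ (f x) := fun x hx => (hh x hx).trans (min_le_left _ _)
  have hh1 : ∀ x ∈ Om, ‖h x - f x‖ ≤ F.η := fun x hx =>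
    (hh x hx).trans ((min_le_right _ _).trans (min_le_left _ _))
  have hh2 : ∀ x ∈ Om, ‖h x - f x‖ ≤ e / 2 := fun x hx =>
    (hh x hx).trans ((min_le_right _ _).trans (min_le_right _ _))
  obtain ⟨Ψ, O⟩ := F.out hS H hh1
  obtain ⟨g1, g2, -⟩ := O.near (f := f) h3 hLa H i F.Y_sub F.Y1_sub
    (fun j => (F.ok h hh1 j).2.2) he.le hh2
  refine ⟨Ψ, O.mv, fun x hx hd z hz => O.patch (fun y hy => (hh2 y hy).trans (by linarith)) hx hd hz,
    g1, g2, fun k x hx r hr hdj => ?_⟩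
  have hxO := T.sub k hx
  have hr0 : 0 ≤ r := (norm_nonneg _).trans (hr x hx)
  obtain ⟨-, g4, -⟩ := O.tiles h3 hLa H i F.Y_sub F.Y1_sub (fun j => (F.ok h hh1 j).2.2)
    (fun _ => closedBall (f x) (2 * r + ζ (f x))) (fun _ => subset_rfl)
    (fun m _ j hne => absurd hne (by
      rw [Set.not_nonempty_iff_eq_empty, ← Set.disjoint_iff_inter_eq_empty]
      exact hdj j)) (convex_closedBall _ _) isClosed_closedBall
  have h1 := g4 k (fun x' hx' _ => by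
    have h2 := hh0 x' (T.sub k hx')
    have h4 := hr x' hx'
    have h5 := (abs_le.1 (hζL (f x') (f x))).2
    rw [mem_closedBall, dist_eq_norm]
    have e1 : h x' - f x = (h x' - f x') + (f x' - f x) := by abel
    rw [e1]
    exact (norm_add_le _ _).trans (by linarith)) x hx
  rw [mem_closedBall, dist_eq_norm] at h1
  have h2 := hh0 (Ψ x) (O.mv.mapsTo hxO)
  have h5 := (abs_le.1 (hζL (f (Ψ x)) (f x))).2
  have h6 : ‖f (Ψ x) - f x‖ ≤ ‖h (Ψ x) - f x‖ + ‖h (Ψ x) - f (Ψ x)‖ := by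
    have e1 : f (Ψ x) - f x = (h (Ψ x) - f x) - (h (Ψ x) - f (Ψ x)) := by abel
    rw [e1]
    exact norm_sub_le _ _
  linarith

end

section

variable {E : Type} [NormedAddCommGroup E] [NormedSpace ℝ E] [FiniteDimensional ℝ E]
  {Om La : Set E} {ι : Type} {T : Tiling Om ι}
  {f fi : E → E} {K : Type*} {A : K → E ≃ᵃ[ℝ] E}
    {U V : K → Set E} {u : K → ι → E → ℝ} {C : K → ι → E} {a b : ℝ} {nc : ℕ} {t Λ : ℝ}

/-- **(A2) (1)-(3) with the fine clause (G2)** -/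
theorem exists_phi_fine [Finite K] (R : Regs T La f A U V u C a b nc t Λ) {Sg : K → ℝ}
    (R2 : Regs2 T La f U u b Sg) (h3 : Module.finrank ℝ E = 3) (hLa : IsOpen La)
    (happ : Happ Om La f)
    {σ : K → ℝ} (hσ : ∀ k, 4 * Sg k < σ k) {e : ℝ} (he : 0 < e) {ζ : E → ℝ}
    (hζ0 : ∀ y ∈ La, 0 < ζ y) (hζL : ∀ y y', |ζ y - ζ y'| ≤ ‖y - y'‖ / 2) :
    ∃ Φ : E ≃ₜ E, Mv T Φ ∧
      (∀ k i, P (T.H i) ⊆ U k → ∀ x ∈ P (T.H i),
        ‖f (Φ x) - A k x‖ ≤ 3 * (nc * (nc * nc) + 2) * (Λ * t) + e) ∧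
      (∀ i, ∀ x ∈ P (T.H i), ∀ r, (∀ x' ∈ P (T.H i), ‖f x' - f x‖ ≤ r) →
        ‖f (Φ x) - f x‖ ≤ r + 3 * (nc * (nc * nc) + 1) * (Λ * t) + e) ∧
      (∀ i, ∀ x ∈ P (T.H i), ∀ r, (∀ x' ∈ P (T.H i), ‖f x' - f x‖ ≤ r) →
        (∀ k, Disjoint (closedBall (f x) (2 * r + ζ (f x))) (A k '' V k)) →
        ‖f (Φ x) - f x‖ ≤ 4 * r + 4 * ζ (f x)) ∧
      ∃ (m : K → ℕ) (y : ∀ k, Fin (m k) → E) (ρ : ∀ k, Fin (m k) → ℝ),
        (∀ k l, y k l ∈ A k '' V k) ∧ (∀ k l, 0 < ρ k l) ∧ (∀ k, ∑ l, 2 * ρ k l ≤ σ k) ∧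
        NearB T f Φ y ρ := by
  classical
  have hfin := R.finite_J
  cases nonempty_fintype (Regs.J T U)
  set Jt := Regs.J T U with hJt
  obtain ⟨col, hcol⟩ := exists_col (J := Jt)
    (fun j j' => (Regs.Y u b j ∩ Regs.Y u b j').Nonempty)
    (fun j j' h => by rwa [inter_comm]) (n := nc * (nc * nc) + 1)
    (fun j => Nat.lt_succ_of_le (R.meet_card j))
  have hcol' : ∀ j j', j ≠ j' → col j = col j' → Disjoint (Regs.Y u b j) (Regs.Y u b j') :=
    fun j j' hne hc => by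
      rw [Set.disjoint_iff_inter_eq_empty]
      by_contra hn
      exact hcol j j' hne hc (nonempty_iff_ne_empty.2 hn)
  have hYV : ∀ j : Jt, Regs.Y u b j ⊆ A j.1.1 '' V j.1.1 := fun j y hy => by
    obtain ⟨x, hxV, hxy, -⟩ := R.Y_sub j hy
    exact ⟨x, hxV, hxy⟩
  obtain ⟨B, η, hη, hu, ht1, hN, -, hM, hpat, hthr, hball, hok⟩ := family2 R2.O col
    (fun j : Jt => j.1.1)
    (fun j j' hne => (R.disj _ _ hne).mono (hYV j) (hYV j')) Sg
    (fun k => R2.sum k _ fun j hj => (Finset.mem_filter.1 hj).2) R2.win R2.osc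
  let F : Fam2 T La f (fun j : Jt => j.1.2) (fun j => Regs.Y u b j) col :=
    { B := B
      θ := fun j => (R2.O j).th
      η := η
      hη := hη
      hM := hM
      hpat := hpat
      hθ := fun j => by rw [ht1 j]; exact (R2.O j).ht
      hthr := hthr
      ok := fun h hh j => by
        obtain ⟨h1, h2, h4⟩ := hok h hh j
        exact ⟨h1, h2, fun x hx hd hs => h4 x hx hd hs⟩
      hY := fun j y hy => (R2.O j).sub1 (by
        have hy' : (B j).u y ≤ (B j).t1 := hy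
        rw [hu j, ht1 j] at hy'
        exact hy')
      hcol := hcol' }
  choose yc rc hr0 hcc hrs using hball
  -- the used patches
  let S := Σ j : Jt, Fin (B j).n
  let Ik : K → Type _ := fun k => {p : S // p.1.1.1 = k ∧ ((B p.1).shell ∩ (B p.1).c' p.2).Nonempty}
  have hIf : ∀ k, Finite (Ik k) := fun k => Subtype.finite
  let _ : ∀ k, Fintype (Ik k) := fun k => Fintype.ofFinite _
  have hcen : ∀ k (p : Ik k), ∃ w, w ∈ (B p.1.1).shell ∧ w ∈ (B p.1.1).c' p.1.2 := fun k p => by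
    obtain ⟨w, h1, h2⟩ := p.2.2
    exact ⟨w, h1, h2⟩
  choose w0 hw0 hw0' using hcen
  have hsumI : ∀ k, ∑ p : Ik k, rc p.1.1 p.1.2 ≤ Sg k := by
    intro k
    have hinj : Function.Injective fun p : Ik k => (p.1 : S) := Subtype.val_injective
    let s : Finset Jt := Finset.univ.filter fun j => j.1.1 = k
    have h1 : ∑ p : Ik k, rc p.1.1 p.1.2 = ∑ q ∈ Finset.univ.map ⟨_, hinj⟩, rc q.1 q.2 := by
      rw [Finset.sum_map]
      rfl
    rw [h1]
    have h2 : (Finset.univ.map ⟨fun p : Ik k => (p.1 : S), hinj⟩) ⊆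
        s.sigma fun j => (Finset.univ : Finset (Fin (B j).n)) := by
      intro q hq
      rw [Finset.mem_map] at hq
      obtain ⟨p, -, rfl⟩ := hq
      rw [Finset.mem_sigma]
      exact ⟨Finset.mem_filter.2 ⟨Finset.mem_univ _, p.2.1⟩, Finset.mem_univ _⟩
    refine (Finset.sum_le_sum_of_subset_of_nonneg h2 fun q _ _ => (hr0 q.1 q.2).le).trans ?_
    rw [Finset.sum_sigma]
    refine (Finset.sum_le_sum fun j _ => hrs j).trans ?_
    exact R2.sum k s fun j hj => (Finset.mem_filter.1 hj).2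
  -- the tolerance
  obtain ⟨e1, he1, he1'⟩ := exists_min (J := K)
    (fun k => (σ k - 4 * Sg k) / (4 * ((Fintype.card (Ik k) : ℝ) + 1))) (fun k => by
      have := hσ k
      have h1 : (0 : ℝ) < 4 * ((Fintype.card (Ik k) : ℝ) + 1) := by positivity
      exact div_pos (by linarith) h1)
  obtain ⟨Φ, hΦ, k1, k2, k3, k4⟩ := two_sk2_fine F h3 hLa (step2_final h3 T) happ
    (e := min e e1) (lt_min he he1) hζ0 hζL
  have hmin : min e e1 ≤ e := min_le_left _ _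
  have hmin1 : min e e1 ≤ e1 := min_le_right _ _
  have hmin0 : 0 < min e e1 := lt_min he he1
  have hΛt : 0 ≤ Λ * t := mul_nonneg R.Λ0 R.t0
  have hD : 0 ≤ Λ * (3 * t) := mul_nonneg R.Λ0 (by linarith [R.t0])
  refine ⟨Φ, hΦ, fun k i hi x hx => ?_, fun i x hx r hr => ?_, fun i x hx r hr hd =>
    k4 i x hx r hr fun j => (hd j.1.1).mono_right (hYV j), fun k => Fintype.card (Ik k),
    fun k l => w0 k ((Fintype.equivFin (Ik k)).symm l),
    fun k l => 2 * rc ((Fintype.equivFin (Ik k)).symm l).1.1 ((Fintype.equivFin (Ik k)).symm l).1.2 +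
      2 * min e e1, fun k l => ?_, fun k l => ?_, fun k => ?_, fun x hx hd z hz => ?_⟩
  · have h1 := k2 ⟨(k, i), hi⟩ (A k x) (Λ * (2 * t)) (Λ * (3 * t)) hD
      (by
        intro y hy
        rw [mem_closedBall, dist_eq_norm]
        have h2 : u k i (A k ((A k).symm y)) ≤ b := by
          rw [AffineEquiv.apply_symm_apply]; exact hy
        have h4 := aff_sub (A k) ((A k).symm y) x
        rw [AffineEquiv.apply_symm_apply] at h4
        rw [h4]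
        exact (R.lin _ _).trans (mul_le_mul_of_nonneg_left (R.dist_star hi h2 hx) R.Λ0))
      (fun j' _ y hy y' hy' => R.diam_Y j' hy hy') x hx
    refine h1.trans ?_
    push_cast
    nlinarith
  · have h1 := k3 i (f x) r (Λ * (3 * t)) hD
      (fun x' hx' _ => by rw [mem_closedBall, dist_eq_norm]; exact hr x' hx')
      (fun j' _ y hy y' hy' => R.diam_Y j' hy hy') x hx
    refine h1.trans ?_
    push_cast
    nlinarith
  · set p := (Fintype.equivFin (Ik k)).symm l with hp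
    have h1 : w0 k p ∈ Regs.Y u b p.1.1 := F.hY _ ((hw0 k p).2.trans (B p.1.1).bt)
    have h2 := hYV _ h1
    rwa [p.2.1] at h2
  · have := hr0 ((Fintype.equivFin (Ik k)).symm l).1.1 ((Fintype.equivFin (Ik k)).symm l).1.2
    linarith
  · have h1 : ∑ l : Fin (Fintype.card (Ik k)), 2 * (2 * rc ((Fintype.equivFin (Ik k)).symm l).1.1
        ((Fintype.equivFin (Ik k)).symm l).1.2 + 2 * min e e1) =
        ∑ p : Ik k, 2 * (2 * rc p.1.1 p.1.2 + 2 * min e e1) :=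
      Fintype.sum_equiv (Fintype.equivFin (Ik k)).symm _ _ fun _ => rfl
    rw [h1]
    have h2 : ∑ p : Ik k, 2 * (2 * rc p.1.1 p.1.2 + 2 * min e e1) =
        4 * ∑ p : Ik k, rc p.1.1 p.1.2 + 4 * (Fintype.card (Ik k) * min e e1) := by
      rw [Finset.mul_sum]
      have : ∀ p : Ik k, 2 * (2 * rc p.1.1 p.1.2 + 2 * min e e1) =
          4 * rc p.1.1 p.1.2 + 4 * min e e1 := fun p => by ring
      simp only [this]
      rw [Finset.sum_add_distrib, Finset.sum_const, Finset.card_univ, nsmul_eq_mul]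
      ring
    rw [h2]
    have h4 := he1' k
    have h5 : (0 : ℝ) < 4 * ((Fintype.card (Ik k) : ℝ) + 1) := by positivity
    rw [le_div_iff₀ h5] at h4
    have h6 : (Fintype.card (Ik k) : ℝ) * min e e1 ≤ Fintype.card (Ik k) * e1 :=
      mul_le_mul_of_nonneg_left hmin1 (Nat.cast_nonneg _)
    have h7 := hsumI k
    nlinarith
  · refine (k1 x hx hd z hz).imp_right ?_
    rintro ⟨j, m, w, hw, hwc, hwn⟩
    let p : Ik j.1.1 := ⟨⟨j, m⟩, rfl, w, hw, hwc⟩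
    have key : ∀ q : Ik j.1.1, q = p →
        f (Φ z) ∈ ball (w0 _ q) (2 * rc q.1.1 q.1.2 + 2 * min e e1) := by
      rintro _ rfl
      have h2 := hw0' _ p
      have h1' : w ∈ closedBall (yc j m) (rc j m) := by rw [← hcc]; exact hwc
      have h2' : w0 _ p ∈ closedBall (yc j m) (rc j m) := by rw [← hcc]; exact h2
      rw [mem_closedBall, dist_eq_norm] at h1' h2'
      rw [mem_ball, dist_eq_norm]
      have e2 : f (Φ z) - w0 _ p = (f (Φ z) - w) + ((w - yc j m) - (w0 _ p - yc j m)) := by abel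
      rw [e2]
      have h4 := norm_add_le (f (Φ z) - w) ((w - yc j m) - (w0 _ p - yc j m))
      have h5 := norm_sub_le (w - yc j m) (w0 _ p - yc j m)
      show _ < 2 * rc j m + 2 * min e e1
      linarith
    exact ⟨j.1.1, Fintype.equivFin _ p, key _ (Equiv.symm_apply_apply _ _)⟩

end

section R3

open Crest.AnalysisR.VecCalc3

variable {Om La : Set R3} {ι : Type} {T : Tiling Om ι} {f fi : R3 → R3} {K : Type*}
  {A : K → R3 ≃ᵃ[ℝ] R3} {U V : K → Set R3} {u : K → ι → R3 → ℝ} {C : K → ι → R3} {a b : ℝ}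
  {nc : ℕ} {t Λ : ℝ}

/-- **(A2) (1)-(4) with the fine clause (G2)** -/
theorem exists_phiR_fine [Finite K] (R : Regs T La f A U V u C a b nc t Λ) {Sg : K → ℝ}
    (R2 : Regs2 T La f U u b Sg) (hLa : IsOpen La)
    (happ : Happ Om La f)
    {σ r : K → ℝ} (hσ : ∀ k, 4 * Sg k < σ k) (hVne : ∀ k, (V k).Nonempty) (hr : ∀ k, 24 * σ k ≤ r k)
    (hdisj : ∀ k l, k ≠ l → Disjoint (thickening (r k) (A k '' V k)) (thickening (r l) (A l '' V l)))
    (hsub : ∀ k, thickening (r k) (A k '' V k) ⊆ La) {e : ℝ} (he : 0 < e) {ζ : R3 → ℝ}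
    (hζ0 : ∀ y ∈ La, 0 < ζ y) (hζL : ∀ y y', |ζ y - ζ y'| ≤ ‖y - y'‖ / 2) :
    ∃ Φ : R3 ≃ₜ R3, Mv T Φ ∧
      (∀ k i, P (T.H i) ⊆ U k → ∀ x ∈ P (T.H i),
        ‖f (Φ x) - A k x‖ ≤ 3 * (nc * (nc * nc) + 2) * (Λ * t) + e) ∧
      (∀ i, ∀ x ∈ P (T.H i), ∀ r, (∀ x' ∈ P (T.H i), ‖f x' - f x‖ ≤ r) →
        ‖f (Φ x) - f x‖ ≤ r + 3 * (nc * (nc * nc) + 1) * (Λ * t) + e) ∧
      (∀ i, ∀ x ∈ P (T.H i), ∀ r, (∀ x' ∈ P (T.H i), ‖f x' - f x‖ ≤ r) →
        (∀ k, Disjoint (closedBall (f x) (2 * r + ζ (f x))) (A k '' V k)) →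
        ‖f (Φ x) - f x‖ ≤ 4 * r + 4 * ζ (f x)) ∧
      ∃ (m : K → ℕ) (y : ∀ k, Fin (m k) → R3) (ρ : ∀ k, Fin (m k) → ℝ),
        (∀ k l, y k l ∈ A k '' V k) ∧ (∀ k l, 0 < ρ k l) ∧ (∀ k, ∑ l, 2 * ρ k l ≤ σ k) ∧
        NearB T f Φ y ρ ∧
        ∀ n : ℕ, ∃ R : R3 ≃ₜ R3, LipschitzWith (3 / 2) R ∧ (∀ y, R y ∈ La ↔ y ∈ La) ∧
          (∀ y, (∀ k, y ∉ thickening (r k) (A k '' V k)) → R y = y) ∧
          (∀ k, ∀ y ∈ thickening (r k) (A k '' V k),
            R y ∈ thickening (r k) (A k '' V k) ∧ ‖R y - y‖ ≤ 3 * σ k) ∧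
          (∀ k l, ∀ z ∈ ball (y k l) (ρ k l), ∀ᶠ z' in 𝓝 z,
            ‖R z' - R z‖ ≤ (1 / 2) ^ n * ‖z' - z‖) ∧
          ∃ ψ : K → Fin 3 → ℝ → ℝ, (∀ q a, Monotone (ψ q a)) ∧
            (∀ q a x y, |ψ q a x - ψ q a y| ≤ |x - y|) ∧
            (∀ q a x, 0 ≤ ψ q a x) ∧ (∀ q a x, ψ q a x ≤ σ q) ∧
            ∀ q, ∀ y ∈ thickening (r q / 4) (A q '' V q), ∀ a, R y a = y a - ψ q a (y a) := by
  obtain ⟨Φ, h1, h2, h3, h5, m, y, ρ, g1, g2, g3, g4⟩ := exists_phi_fine R R2 (by simp) hLa happ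
    hσ he hζ0 hζL
  have hσ0 : ∀ k, 0 < σ k := fun k => by
    have := hσ k
    have := R2.Sg0 k
    linarith
  refine ⟨Φ, h1, h2, h3, h5, m, y, ρ, g1, g2, g3, g4, fun n => ?_⟩
  exact Tsq_753.exists_R (fun k => A k '' V k) r σ (fun k => (hVne k).image _)
    (fun k => by have := hr k; have := hσ0 k; linarith) (fun k => (hσ0 k).le) hr hdisj hsub y ρ
    (fun k l => (g2 k l).le) g3 g1 n

end R3

end Crest.Agent.R096.Cp_465
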