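import Crest.Agent.R096.Cp6_298

/-!
# R096 / COPY, part 7 (helper298): weighted numbers of crossing points
-/

set_option autoImplicit false

namespace Crest.Agent.R096.Cp_298
open Crest.Agent.R096.St_147 Crest.Agent.R096.Seq_213 Crest.Agent.R096.Seq_213.GSt
open scoped ENNReal

variable {ι Φ W J C K : Type} {M : MeshC ι Φ W} {fam : J → C}

/-- weighted number of the points in `E` -/
noncomputable def wsum (s : GSt M fam) (w : C → ℝ≥0∞) (E : Set W) : ℝ≥0∞ :=
  ∑' x : {x : W // x ∈ s.P ∧ x ∈ E}, w (fam (s.lab x.1))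

section copy
variable {O : Ori M} {s : GSt M fam} {σ : W → ZMod 2} {r : C → ℕ} {R : W → W → Prop}
variable {hσ : TS s O σ} {hr : ∀ c, 0 < r c} {π : Par M O s.P (num s r) R}

/-- copies do not change the weighted number -/
theorem cp_wsum {w w' : C → ℝ≥0∞} (hw : ∀ c, (r c : ℝ≥0∞) * w' c = w c) {E : Set W}
    (hE : ∀ x y, R x y → (x ∈ E ↔ y ∈ E)) :
    wsum (cp s σ hσ hr π) w' E = wsum s w E := by
  classical
  let f : (Σ x : {x : W // x ∈ s.P ∧ x ∈ E}, Fin (num s r x.1)) →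
      {x : W // x ∈ (cp s σ hσ hr π).P ∧ x ∈ E} := fun y =>
    ⟨place σ π y.1.1 y.2, cp_mem y.1.2.1 y.2.2, (hE _ _ (place_rel π y.1.2.1 y.2.2)).2 y.1.2.2⟩
  have hf : Function.Bijective f := by
    constructor
    · rintro ⟨⟨x, hx⟩, l⟩ ⟨⟨y, hy⟩, l'⟩ h
      have h1 : place σ π x l = place σ π y l' := congrArg Subtype.val h
      obtain ⟨h2, h3⟩ := place_inj π hx.1 hy.1 l.2 l'.2 h1
      subst h2
      have : l = l' := Fin.ext h3
      rw [this]
    · rintro ⟨x, hx, hxE⟩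
      obtain ⟨y, hy, l, hl, rfl⟩ := cp_cases hx
      exact ⟨⟨⟨y, hy, (hE _ _ (place_rel π hy hl)).1 hxE⟩, ⟨l, hl⟩⟩, rfl⟩
  unfold wsum
  rw [← (Equiv.ofBijective f hf).tsum_eq, ENNReal.tsum_sigma']
  refine tsum_congr fun x => ?_
  have h1 : ∀ l : Fin (num s r x.1), w' (fam' fam r ((cp s σ hσ hr π).lab
      ((Equiv.ofBijective f hf) ⟨x, l⟩).1)) = w' (fam (s.lab x.1)) := by
    intro l
    show w' (fam ((cp s σ hσ hr π).lab (place σ π x.1 l)).1) = _
    rw [cp_lab_fst x.2.1 l.2]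
  simp only [h1]
  rw [tsum_fintype, Finset.sum_const, Finset.card_univ, Fintype.card_fin, nsmul_eq_mul]
  exact hw _

end copy

/-- the exchange does not increase the weighted number if the two weights are equal -/
theorem step_wsum {Q : Quads ι C K} {far : J → Set W} {k : K} {s s' : GSt M fam}
    (h : Step Q far k s s') {w : C → ℝ≥0∞} (hw : w (Q.pr k true) = w (Q.pr k false))
    (E : Set W) : wsum s' w E ≤ wsum s w E := by
  have hweq : ∀ c c', Q.In k c → Q.In k c' → w c = w c' := by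
    rintro c c' ⟨b, rfl⟩ ⟨b', rfl⟩
    cases b <;> cases b' <;> simp [hw]
  let f : {x : W // x ∈ s'.P ∧ x ∈ E} → {x : W // x ∈ s.P ∧ x ∈ E} := fun x =>
    ⟨x.1, h.P_sub x.2.1, x.2.2⟩
  have hf : Function.Injective f := by
    intro x y hxy
    exact Subtype.ext (congrArg (fun z : {x : W // x ∈ s.P ∧ x ∈ E} => z.1) hxy)
  unfold wsum
  refine le_trans (le_of_eq ?_) (ENNReal.tsum_comp_le_tsum_of_injective hf
    (fun x : {x : W // x ∈ s.P ∧ x ∈ E} => w (fam (s.lab x.1))))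
  refine tsum_congr fun x => ?_
  show w (fam (s'.lab x.1)) = w (fam (s.lab x.1))
  by_cases hin : Q.In k (fam (s.lab x.1))
  · exact hweq _ _ ((h.inn x.2.1).2 hin) hin
  · rw [(h.off (h.P_sub x.2.1) hin).2.1]

/-- renaming -/
theorem push_wsum {J1 : Type} {fam1 : J1 → C} {ν : J1 → J} {hf : ∀ j', fam (ν j') = fam1 j'}
    {s : GSt M fam1} (w : C → ℝ≥0∞) (E : Set W) :
    wsum (push ν hf s) w E = wsum s w E := by
  unfold wsum
  refine tsum_congr fun x => ?_
  show w (fam (ν (s.lab x.1))) = _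
  rw [hf]

/-- finite parts -/
theorem wsum_le_of_finite {s : GSt M fam} {w : C → ℝ≥0∞} {E : Set W} {B : ℝ≥0∞}
    (h : ∀ A : Finset W, (∀ x ∈ A, x ∈ s.P ∧ x ∈ E) → ∑ x ∈ A, w (fam (s.lab x)) ≤ B) :
    wsum s w E ≤ B := by
  classical
  unfold wsum
  rw [ENNReal.tsum_eq_iSup_sum]
  refine iSup_le fun A => ?_
  have h1 := h (A.map ⟨Subtype.val, Subtype.val_injective⟩) (by
    intro x hx
    rw [Finset.mem_map] at hx
    obtain ⟨y, _, rfl⟩ := hx
    exact y.2)
  rw [Finset.sum_map] at h1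
  exact h1

theorem sum_le_wsum {s : GSt M fam} {w : C → ℝ≥0∞} {E : Set W} {A : Finset W}
    (hA : ∀ x ∈ A, x ∈ s.P ∧ x ∈ E) : ∑ x ∈ A, w (fam (s.lab x)) ≤ wsum s w E := by
  classical
  unfold wsum
  let g : {x : W // x ∈ A} → {x : W // x ∈ s.P ∧ x ∈ E} := fun x => ⟨x.1, hA x.1 x.2⟩
  have hg : Function.Injective g := by
    intro x y h
    exact Subtype.ext (congrArg (fun z : {x : W // x ∈ s.P ∧ x ∈ E} => z.1) h)
  have h1 := ENNReal.tsum_comp_le_tsum_of_injective hg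
    (fun x : {x : W // x ∈ s.P ∧ x ∈ E} => w (fam (s.lab x.1)))
  rw [tsum_fintype] at h1
  have h2 : ∑ x ∈ A, w (fam (s.lab x)) = ∑ x : {x : W // x ∈ A}, w (fam (s.lab x.1)) :=
    (Finset.sum_coe_sort A (fun x => w (fam (s.lab x)))).symm
  rw [h2]
  exact h1

end Crest.Agent.R096.Cp_298
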