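import Crest.Agent.R096.Cp7_298

/-!
# R096 / COPY, part 8 (helper298): one stage of the weighted sequence

`WS e₀ e D` : a state with weights `2^(-e c)` obtained from the state `s₀` with weights
`2^(-e₀ c)` by copies and exchanges, without closed double curves in the quads of `D`.
-/

set_option autoImplicit false

namespace Crest.Agent.R096.Cp_298
open Crest.Agent.R096.St_147 Crest.Agent.R096.Seq_213 Crest.Agent.R096.Seq_213.GSt
open scoped ENNReal

variable {ι Φ W J C K : Type} {M : MeshC ι Φ W} {fam : J → C}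

/-- the weight `2^(-e c)` -/
noncomputable def wgt (e : C → ℕ) (c : C) : ℝ≥0∞ := ((2 : ℝ≥0∞) ^ (e c))⁻¹

theorem wgt_copy {e e' : C → ℕ} {c : C} (h : e c ≤ e' c) :
    (((2 ^ (e' c - e c) : ℕ)) : ℝ≥0∞) * wgt e' c = wgt e c := by
  unfold wgt
  have h1 : (2 : ℝ≥0∞) ^ (e' c) = 2 ^ (e' c - e c) * 2 ^ (e c) := by
    rw [← pow_add, Nat.sub_add_cancel h]
  have h2 : (2 : ℝ≥0∞) ^ (e' c - e c) ≠ 0 := pow_ne_zero _ (by norm_num)
  have h3 : (2 : ℝ≥0∞) ^ (e' c - e c) ≠ ⊤ := ENNReal.pow_ne_top (by norm_num)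
  rw [h1, ENNReal.mul_inv (Or.inl h2) (Or.inl h3), ← mul_assoc]
  push_cast
  rw [ENNReal.mul_inv_cancel h2 h3, one_mul]

/-- a state of the weighted sequence -/
structure WS (O : Ori M) (Q : Quads ι C K) (Rel : W → W → Prop) (s₀ : GSt M fam)
    (far₀ : J → Set W) (σ₀ : W → ZMod 2) (e₀ e : C → ℕ) (D : Set K) : Type 1 where
  J1 : Type
  fam1 : J1 → C
  p : J1 → J
  m : J1 → ℕ
  hp : ∀ j, fam (p j) = fam1 j
  inj : ∀ j j', p j = p j' → m j = m j' → j = j'
  rng : ∀ j l, (∃ j1, p j1 = j ∧ m j1 = l) ↔ l < 2 ^ (e (fam j) - e₀ (fam j))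
  s : GSt M fam1
  far : J1 → Set W
  β : W → W
  le : ∀ c, e₀ c ≤ e c
  inv : s.Inv Q far
  cps : Cps O Q Rel s₀ far₀ σ₀ p m s far β
  wt : ∀ E : Set W, (∀ x y, Rel x y → (x ∈ E ↔ y ∈ E)) →
    wsum s (wgt e) E ≤ wsum s₀ (wgt e₀) E
  done : ∀ k ∈ D, ∀ i : Q.Nm fam1 k, NoClosed (s.res Q k i) (Q.Act k)

namespace WS

variable {O : Ori M} {Q : Quads ι C K} {Rel : W → W → Prop} {s₀ : GSt M fam}
  {far₀ : J → Set W} {σ₀ : W → ZMod 2} {e₀ e e' e'' : C → ℕ} {D D' D'' : Set K}

/-- global names `(sheet, number of the copy)` -/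
def nu (A : WS O Q Rel s₀ far₀ σ₀ e₀ e D) : A.J1 → J × ℕ := fun j => (A.p j, A.m j)

theorem nu_inj (A : WS O Q Rel s₀ far₀ σ₀ e₀ e D) : Function.Injective A.nu := by
  intro j j' h
  exact A.inj j j' (congrArg Prod.fst h) (congrArg Prod.snd h)

/-- family of a global name -/
abbrev famN (fam : J → C) : J × ℕ → C := fun y => fam y.1

/-- the state with global names -/
def sN (A : WS O Q Rel s₀ far₀ σ₀ e₀ e D) : GSt M (famN fam) := push A.nu A.hp A.s

/-- marked points for global names -/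
def farN (A : WS O Q Rel s₀ far₀ σ₀ e₀ e D) (y : J × ℕ) : Set W :=
  {x | ∃ j, A.nu j = y ∧ x ∈ A.far j}

theorem farN_nu (A : WS O Q Rel s₀ far₀ σ₀ e₀ e D) (j : A.J1) : A.farN (A.nu j) = A.far j := by
  ext x
  constructor
  · rintro ⟨j', h1, h2⟩
    rw [← A.nu_inj h1]; exact h2
  · intro h
    exact ⟨j, rfl, h⟩

/-- the family `c` is the same in both states -/
structure Un (c : C) (A : WS O Q Rel s₀ far₀ σ₀ e₀ e D)
    (B : WS O Q Rel s₀ far₀ σ₀ e₀ e' D') : Prop where
  same : Same c A.sN B.sN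
  beta : ∀ x ∈ A.s.P, A.fam1 (A.s.lab x) = c → B.β x = A.β x
  far : ∀ y : J × ℕ, fam y.1 = c → B.farN y = A.farN y
  exp : e' c = e c

theorem Un.refl (c : C) (A : WS O Q Rel s₀ far₀ σ₀ e₀ e D) : Un c A A :=
  ⟨Same.refl _ _, fun _ _ _ => rfl, fun _ _ => rfl, rfl⟩

theorem Un.trans {c : C} {A : WS O Q Rel s₀ far₀ σ₀ e₀ e D}
    {B : WS O Q Rel s₀ far₀ σ₀ e₀ e' D'} {B' : WS O Q Rel s₀ far₀ σ₀ e₀ e'' D''}
    (h : Un c A B) (h' : Un c B B') : Un c A B' := by
  refine ⟨h.same.trans h'.same, fun x hx hc => ?_, fun y hy => (h'.far y hy).trans (h.far y hy),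
    h'.exp.trans h.exp⟩
  have hc' : famN fam (A.sN.lab x) = c := by
    show fam (A.p (A.s.lab x)) = c
    rw [A.hp]; exact hc
  obtain ⟨h1, h2, _⟩ := h.same.mem (w := x) hx hc'
  have h3 : B.fam1 (B.s.lab x) = c := by
    have h4 : famN fam (B.sN.lab x) = c := by rw [h2]; exact hc'
    rw [← B.hp]; exact h4
  rw [h'.beta x h1 h3, h.beta x hx hc]

/-- the beginning -/
def init (hrel : ∀ x, Rel x x) (hI : s₀.Inv Q far₀) (e₀ : C → ℕ) :
    WS O Q Rel s₀ far₀ σ₀ e₀ e₀ ∅ where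
  J1 := J
  fam1 := fam
  p := id
  m := fun _ => 0
  hp := fun _ => rfl
  inj := fun _ _ h _ => h
  rng := by
    intro j l
    rw [Nat.sub_self, pow_zero, Nat.lt_one_iff]
    constructor
    · rintro ⟨j1, _, h⟩; exact h.symm
    · intro h; exact ⟨j, rfl, h.symm⟩
  s := s₀
  far := far₀
  β := id
  le := fun _ => le_rfl
  inv := hI
  cps := Cps.refl hrel hI
  wt := fun _ _ => le_rfl
  done := fun _ h => absurd h (Set.notMem_empty _)

/-- fewer quads -/
def mono (A : WS O Q Rel s₀ far₀ σ₀ e₀ e D) (h : D' ⊆ D) : WS O Q Rel s₀ far₀ σ₀ e₀ e D' where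
  J1 := A.J1
  fam1 := A.fam1
  p := A.p
  m := A.m
  hp := A.hp
  inj := A.inj
  rng := A.rng
  s := A.s
  far := A.far
  β := A.β
  le := A.le
  inv := A.inv
  cps := A.cps
  wt := A.wt
  done := fun k hk => A.done k (h hk)

theorem Un.mono {c : C} {A : WS O Q Rel s₀ far₀ σ₀ e₀ e D}
    {B : WS O Q Rel s₀ far₀ σ₀ e₀ e' D'} (h : Un c A B) (hD : D'' ⊆ D') :
    Un c A (B.mono hD) := ⟨h.same, h.beta, h.far, h.exp⟩

/-- existence of parallel points -/
def HasPar (O : Ori M) (Rel : W → W → Prop) (V : Set W) : Prop :=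
  ∀ P : Set W, P ⊆ V → (∀ F, (P ∩ M.On F).Finite) → ∀ n : W → ℕ,
    ∃ π : Par M O P n Rel, ∀ w ∈ P, n w = 1 → π.c w 0 = w

/-- **the copy step** -/
theorem exists_copy {V : Set W} (hpar : HasPar O Rel V)
    (htr : ∀ x y z, Rel x y → Rel y z → Rel x z) (hV : ∀ x y, Rel x y → y ∈ V → x ∈ V)
    (h₀ : s₀.Inv Q far₀) (hσ₀ : TS s₀ O σ₀) (hP₀ : s₀.P ⊆ V)
    (hfin : ∀ F, (s₀.P ∩ M.On F).Finite) (A : WS O Q Rel s₀ far₀ σ₀ e₀ e D)
    (hle : ∀ c, e c ≤ e' c) :
    ∃ B : WS O Q Rel s₀ far₀ σ₀ e₀ e' D, ∀ c, e' c = e c → Un c A B := by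
  classical
  obtain ⟨σ, hσ, hs⟩ := A.cps.exists_sigma h₀ hσ₀ A.inv
  set r : C → ℕ := fun c => 2 ^ (e' c - e c) with hr_def
  have hr : ∀ c, 0 < r c := fun c => by positivity
  have hPV : A.s.P ⊆ V := fun x hx => hV _ _ (A.cps.rel hx) (hP₀ (A.cps.mem hx))
  obtain ⟨π, hπ⟩ := hpar A.s.P hPV (fun F => A.cps.finite A.hp h₀ A.inv (hfin F)) (num A.s r)
  let B : WS O Q Rel s₀ far₀ σ₀ e₀ e' D :=
    { J1 := Nm' A.fam1 r
      fam1 := fam' A.fam1 r
      p := fun x => A.p x.1
      m := cpm A.m r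
      hp := fun x => A.hp x.1
      inj := fun x y h1 h2 => cpm_inj A.hp A.inj h1 h2
      rng := by
        intro j l
        have hpow : 2 ^ (e (fam j) - e₀ (fam j)) * r (fam j) = 2 ^ (e' (fam j) - e₀ (fam j)) := by
          rw [hr_def, ← pow_add]
          congr 1
          have h1 := A.le (fam j)
          have h2 := hle (fam j)
          omega
        rw [← hpow]
        constructor
        · rintro ⟨⟨j1, ⟨b, hb⟩⟩, h1, h2⟩
          have h1' : A.p j1 = j := h1
          have h2' : A.m j1 * r (A.fam1 j1) + b = l := h2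
          have h3 : A.m j1 < 2 ^ (e (fam j) - e₀ (fam j)) := (A.rng j _).1 ⟨j1, h1', rfl⟩
          have h4 : A.fam1 j1 = fam j := by rw [← A.hp, h1']
          have h5 : b < r (A.fam1 j1) := hb
          rw [h4] at h2' h5
          calc l = A.m j1 * r (fam j) + b := h2'.symm
            _ < A.m j1 * r (fam j) + r (fam j) := by omega
            _ = (A.m j1 + 1) * r (fam j) := by ring
            _ ≤ 2 ^ (e (fam j) - e₀ (fam j)) * r (fam j) := Nat.mul_le_mul_right _ h3
        · intro hl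
          have h6 : l / r (fam j) < 2 ^ (e (fam j) - e₀ (fam j)) :=
            Nat.div_lt_of_lt_mul (by rw [mul_comm]; exact hl)
          obtain ⟨j1, h7, h8⟩ := (A.rng j _).2 h6
          have h4 : A.fam1 j1 = fam j := by rw [← A.hp, h7]
          refine ⟨⟨j1, ⟨l % r (fam j), by rw [h4]; exact Nat.mod_lt _ (hr _)⟩⟩, h7, ?_⟩
          show A.m j1 * r (A.fam1 j1) + l % r (fam j) = l
          rw [h4, h8, mul_comm]
          exact Nat.div_add_mod l (r (fam j))
      s := cp A.s σ hσ hr π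
      far := cpFar σ π A.far
      β := fun x => A.β (base σ π x)
      le := fun c => (A.le c).trans (hle c)
      inv := cp_Inv A.inv
      cps := A.cps.copy A.hp A.inj htr A.inv hs
      wt := by
        intro E hE
        rw [cp_wsum (w := wgt e) (w' := wgt e') (fun c => wgt_copy (hle c)) hE]
        exact A.wt E hE
      done := fun k hk i' => cp_noClosed Q k ⟨i'.1.1, i'.2⟩ i' (A.done k hk _) }
  refine ⟨B, fun c hc => ?_⟩
  have hrc : r c = 1 := by simp only [hr_def, hc, Nat.sub_self, pow_zero]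
  -- untouched points
  have hnum : ∀ w, A.fam1 (A.s.lab w) = c → num A.s r w = 1 := by
    intro w hw
    unfold num
    rw [hw, hrc]
  have hplace : ∀ w ∈ A.s.P, A.fam1 (A.s.lab w) = c → place σ π w 0 = w := by
    intro w hw hwc
    unfold place
    have h1 := hnum w hwc
    have h2 : (if σ w = 0 then 0 else num A.s r w - 1 - 0) = 0 := by
      rw [h1]; split_ifs <;> rfl
    rw [h2]
    exact hπ w hw h1
  have hlt : ∀ w, A.fam1 (A.s.lab w) = c → 0 < num A.s r w := fun w hw => by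
    rw [hnum w hw]; exact one_pos
  have hmemB : ∀ w ∈ A.s.P, A.fam1 (A.s.lab w) = c → w ∈ (cp A.s σ hσ hr π).P := by
    intro w hw hwc
    have := cp_mem (hσ := hσ) (hr := hr) (π := π) hw (hlt w hwc)
    rw [hplace w hw hwc] at this
    exact this
  have hlabB : ∀ w ∈ A.s.P, ∀ hwc : A.fam1 (A.s.lab w) = c,
      (cp A.s σ hσ hr π).lab w = ⟨A.s.lab w, ⟨0, hlt w hwc⟩⟩ := by
    intro w hw hwc
    have := cp_lab (hσ := hσ) (hr := hr) (π := π) hw (hlt w hwc)
    rw [hplace w hw hwc] at this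
    exact this
  have hbase : ∀ w ∈ A.s.P, A.fam1 (A.s.lab w) = c → base σ π w = w := by
    intro w hw hwc
    have := base_place (σ := σ) π hw (hlt w hwc)
    rw [hplace w hw hwc] at this
    exact this
  have hback : ∀ x ∈ (cp A.s σ hσ hr π).P, A.fam1 ((cp A.s σ hσ hr π).lab x).1 = c →
      x ∈ A.s.P ∧ A.fam1 (A.s.lab x) = c := by
    intro x hx hxc
    obtain ⟨w, hw, l, hl, rfl⟩ := cp_cases hx
    rw [cp_lab_fst hw hl] at hxc
    have h1 := hnum w hxc
    have h2 : l = 0 := by omega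
    subst h2
    rw [hplace w hw hxc]
    exact ⟨hw, hxc⟩
  have hfA : ∀ w, famN fam (A.sN.lab w) = A.fam1 (A.s.lab w) := fun w => A.hp _
  have hfB : ∀ w, famN fam (B.sN.lab w) = A.fam1 ((cp A.s σ hσ hr π).lab w).1 := fun w =>
    A.hp _
  refine ⟨⟨fun w => ⟨?_, ?_⟩, ?_⟩, ?_, ?_, hc⟩
  · rintro ⟨h1, h2⟩
    rw [hfA] at h2
    have h1' : w ∈ A.s.P := h1
    refine ⟨hmemB w h1' h2, ?_⟩
    rw [hfB, hlabB w h1' h2]; exact h2
  · rintro ⟨h1, h2⟩
    rw [hfB] at h2
    obtain ⟨h3, h4⟩ := hback w h1 h2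
    exact ⟨h3, by rw [hfA]; exact h4⟩
  · intro w h1 h2
    rw [hfA] at h2
    have h1' : w ∈ A.s.P := h1
    refine ⟨?_, fun F => ?_⟩
    · show (A.p ((cp A.s σ hσ hr π).lab w).1, cpm A.m r ((cp A.s σ hσ hr π).lab w)) =
        (A.p (A.s.lab w), A.m (A.s.lab w))
      rw [hlabB w h1' h2]
      refine Prod.ext rfl ?_
      show A.m (A.s.lab w) * r (A.fam1 (A.s.lab w)) + 0 = A.m (A.s.lab w)
      rw [h2, hrc, mul_one, add_zero]
    · show (cp A.s σ hσ hr π).mu F w = A.s.mu F w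
      by_cases hF : w ∈ M.On F
      · have hat : A.s.At F w := ⟨h1', hF⟩
        have h3 := cp_mu (hσ := hσ) (hr := hr) (π := π) hat (hlt w h2)
        rw [hplace w h1' h2] at h3
        rw [h3]
        exact hplace _ (A.s.mu_mem h1' hF).1 (by rw [A.s.mu_lab h1' hF]; exact h2)
      · show (if w ∈ cpP σ π ∧ w ∈ M.On F then _ else A.s.mu F w) = _
        rw [if_neg (fun h => hF h.2)]
  · intro x hx hxc
    show A.β (base σ π x) = A.β x
    rw [hbase x hx hxc]
  · intro y hy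
    ext x
    constructor
    · rintro ⟨⟨j, ⟨b, hb⟩⟩, h1, w, hw, rfl⟩
      have h2 : A.p j = y.1 := congrArg Prod.fst h1
      have h3 : A.m j * r (A.fam1 j) + b = y.2 := congrArg Prod.snd h1
      have h4 : A.fam1 j = c := by rw [← A.hp, h2, hy]
      have h5 : b < r (A.fam1 j) := hb
      rw [h4, hrc] at h3 h5
      have h6 : b = 0 := by omega
      obtain ⟨h7, h8⟩ := A.inv.far_mem hw
      have h9 : A.fam1 (A.s.lab w) = c := by rw [h8]; exact h4
      refine ⟨j, Prod.ext h2 (by show A.m j = y.2; omega), ?_⟩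
      show place σ π w b ∈ A.far j
      have h10 : place σ π w b = w := by rw [h6]; exact hplace w h7 h9
      rw [h10]
      exact hw
    · rintro ⟨j, h1, hx⟩
      have h2 : A.p j = y.1 := congrArg Prod.fst h1
      have h3 : A.m j = y.2 := congrArg Prod.snd h1
      have h4 : A.fam1 j = c := by rw [← A.hp, h2, hy]
      obtain ⟨h7, h8⟩ := A.inv.far_mem hx
      have h9 : A.fam1 (A.s.lab x) = c := by rw [h8]; exact h4
      refine ⟨⟨j, ⟨0, hr _⟩⟩, Prod.ext h2 ?_, x, hx, (hplace x h7 h9).symm⟩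
      show A.m j * r (A.fam1 j) + 0 = y.2
      rw [h4, hrc, mul_one, add_zero]; exact h3

/-- one exchange -/
theorem exists_step1 (hP3 : P3) (A : WS O Q Rel s₀ far₀ σ₀ e₀ e D) (k : K)
    (hk : e (Q.pr k true) = e (Q.pr k false)) :
    ∃ B : WS O Q Rel s₀ far₀ σ₀ e₀ e (insert k D), ∀ c, ¬ Q.In k c → Un c A B := by
  classical
  by_cases hne : Nonempty (Q.Nm A.fam1 k)
  · obtain ⟨i0⟩ := hne
    obtain ⟨s', h1, h2, h3⟩ := A.inv.step hP3 k i0
    let B : WS O Q Rel s₀ far₀ σ₀ e₀ e (insert k D) :=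
      { J1 := A.J1
        fam1 := A.fam1
        p := A.p
        m := A.m
        hp := A.hp
        inj := A.inj
        rng := A.rng
        s := s'
        far := A.far
        β := A.β
        le := A.le
        inv := h2
        cps := A.cps.step A.inv h1
        wt := fun E hE => (step_wsum h1 (by unfold wgt; rw [hk]) E).trans (A.wt E hE)
        done := by
          intro l hl i
          by_cases hlk : l = k
          · subst hlk; exact h3 i
          · exact h1.noClosed hlk (A.done l (hl.resolve_left hlk) i) }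
    refine ⟨B, fun c hc => ⟨⟨fun w => ⟨?_, ?_⟩, ?_⟩, fun _ _ _ => rfl, fun _ _ => rfl, rfl⟩⟩
    · rintro ⟨h4, h5⟩
      have h5' : A.fam1 (A.s.lab w) = c := by rw [← A.hp]; exact h5
      obtain ⟨h6, h7, _⟩ := h1.off h4 (by rw [h5']; exact hc)
      refine ⟨h6, ?_⟩
      show fam (A.p (s'.lab w)) = c
      rw [h7]; exact h5
    · rintro ⟨h4, h5⟩
      have h4' : w ∈ s'.P := h4
      have h5' : A.fam1 (s'.lab w) = c := by rw [← A.hp]; exact h5
      have h6 : ¬ Q.In k (A.fam1 (A.s.lab w)) := by rw [← h1.inn h4', h5']; exact hc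
      obtain ⟨_, h7, _⟩ := h1.off (h1.P_sub h4') h6
      refine ⟨h1.P_sub h4', ?_⟩
      show fam (A.p (A.s.lab w)) = c
      rw [← h7]; exact h5
    · intro w h4 h5
      have h5' : A.fam1 (A.s.lab w) = c := by rw [← A.hp]; exact h5
      obtain ⟨_, h7, h8⟩ := h1.off h4 (by rw [h5']; exact hc)
      refine ⟨?_, fun F => h8 F⟩
      show (A.p (s'.lab w), A.m (s'.lab w)) = (A.p (A.s.lab w), A.m (A.s.lab w))
      rw [h7]
  · let B : WS O Q Rel s₀ far₀ σ₀ e₀ e (insert k D) :=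
      { J1 := A.J1
        fam1 := A.fam1
        p := A.p
        m := A.m
        hp := A.hp
        inj := A.inj
        rng := A.rng
        s := A.s
        far := A.far
        β := A.β
        le := A.le
        inv := A.inv
        cps := A.cps
        wt := A.wt
        done := by
          intro l hl i
          by_cases hlk : l = k
          · subst hlk; exact absurd ⟨i⟩ hne
          · exact A.done l (hl.resolve_left hlk) i }
    exact ⟨B, fun c _ => ⟨Same.refl _ _, fun _ _ _ => rfl, fun _ _ => rfl, rfl⟩⟩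

/-- **the exchanges in finitely many quads** -/
theorem exists_steps (hP3 : P3) (A : WS O Q Rel s₀ far₀ σ₀ e₀ e D) (L : Finset K)
    (hL : ∀ k ∈ L, e (Q.pr k true) = e (Q.pr k false)) :
    ∃ B : WS O Q Rel s₀ far₀ σ₀ e₀ e ((L : Set K) ∪ D),
      ∀ c, (∀ k ∈ L, ¬ Q.In k c) → Un c A B := by
  classical
  induction L using Finset.induction_on with
  | empty =>
    refine ⟨A.mono ?_, fun c _ => (Un.refl c A).mono _⟩
    simp
  | insert k L _ ih =>
    obtain ⟨B, hB⟩ := ih (fun l hl => hL l (Finset.mem_insert_of_mem hl))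
    obtain ⟨B', hB'⟩ := B.exists_step1 hP3 k (hL k (Finset.mem_insert_self _ _))
    refine ⟨B'.mono ?_, fun c hc => ?_⟩
    · rw [Finset.coe_insert, Set.insert_union]
    · exact ((hB c fun l hl => hc l (Finset.mem_insert_of_mem hl)).trans
        (hB' c (hc k (Finset.mem_insert_self _ _)))).mono _

end WS

end Crest.Agent.R096.Cp_298
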