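import Crest.Agent.R096.Gsm7_432

/-!
# Row 96 (S0127), p = 2 (helper465): crossing edges near a tile, uniformly for a finite list of pairs

`NearT T i B c β ε`: the points of the crossing edges of the tile `i` inside `hom c (1 + 4 β)` are
`ε`-close, in the frame `B`, to the inner ends.  `near_goods` = helper432's `gap_goods` with `NearT`,
in the order `ρ D nc`, `ε`, `β`.
-/

set_option autoImplicit false
set_option linter.unusedSectionVars false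

open Set Metric Topology Filter

namespace Crest.Agent.R096.Nvt_465

open Crest.Agent.R096.Msh_715 Crest.Agent.R096.Msh_715.Tiling
open Crest.Agent.R096.Gsm_432
open Crest.Agent.R096.Mal_874

universe u v w

variable {F : Type w} [NormedAddCommGroup F] [NormedSpace ℝ F] [FiniteDimensional ℝ F]
variable {E : Type u} [NormedAddCommGroup E] [NormedSpace ℝ E] [FiniteDimensional ℝ E]
variable {Om : Set E} {ι : Type v} {T : Tiling Om ι}

/-- the crossing edges of the tile `i`, inside `hom c (1 + 4 β)`, are `ε`-close to the inner ends in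
the frame `B` -/
def NearT (T : Tiling Om ι) (i : ι) (B : E ≃ᵃ[ℝ] F) (c : E) (β ε : ℝ) : Prop :=
  ∀ e, Sk3_812.Crs T i e → ∀ v ∈ T.cc e, v ∈ P (T.H i) → ∀ z ∈ T.cc e,
    z ∈ hom c (1 + 4 * β) (P (T.H i)) → ‖B z - B v‖ ≤ ε

/-- the same as a property of the pair (tile, truncated tiles which touch it) -/
def NP (K0 : Set F) (𝒯 : Set (Set F)) (c : F) (β ε : ℝ) : Prop :=
  ∀ u ∈ hom c (1 + 4 * β) K0, (fcell 𝒯 u ∩ K0).Subsingleton → ∀ v ∈ fcell 𝒯 u ∩ K0, ‖u - v‖ ≤ ε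

theorem NP.mono {K0 : Set F} {𝒯 : Set (Set F)} {c : F} {β β' ε : ℝ} (h : NP K0 𝒯 c β ε)
    (hK : Convex ℝ K0) (hc : c ∈ K0) (h0 : 0 ≤ β') (hβ : β' ≤ β) : NP K0 𝒯 c β' ε :=
  fun u hu => h u (hom_mono hK hc (by linarith) (by linarith) hu)

/-- **one pair** -/
theorem exists_NP {i : ι} {B : E ≃ᵃ[ℝ] F} {W : Set F} (hW : B '' P (T.H i) ⊆ interior W) {c : F}
    (hc : c ∈ interior (B '' P (T.H i))) {ε : ℝ} (hε : 0 < ε) :
    ∃ β > 0, NP (B '' P (T.H i)) (stT T i B W) c β ε := by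
  have hcpt : IsCompact (B '' P (T.H i)) := (T.cpt i).image (continuous_aff B)
  obtain ⟨c0, rfl⟩ := B.surjective c
  have hc0 : c0 ∈ interior (P (T.H i)) := by
    rw [← image_interior_aff] at hc
    exact (B.injective.mem_set_image).1 hc
  obtain ⟨β1, hβ1, h1, h2⟩ := exists_gap1 i hc0
  obtain ⟨β2, hβ2, h3⟩ := exists_hom_sub hcpt isOpen_interior hW (B c0)
  have hDc : IsCompact (hom c0 (1 + 4 * β1) (P (T.H i))) := isCompact_hom (T.cpt i) _ _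
  have hDO : hom c0 (1 + 4 * β1) (P (T.H i)) ⊆ Om :=
    h1.trans (interior_subset.trans (Ust_sub i))
  have hfin := T.finite_cells hDc hDO
  set 𝒞 := {C : Set E | (∃ x ∈ Om, C = T.cc x) ∧
    (C ∩ hom c0 (1 + 4 * β1) (P (T.H i))).Nonempty} with h𝒞
  set bad : Set E → Set E := fun C => C ∩ {z | ∀ v ∈ C ∩ P (T.H i), ε ≤ ‖B z - B v‖} with hbad
  set N : Set E := ⋃ C ∈ 𝒞, bad C with hN
  have hcB := continuous_aff B
  have hNc : IsClosed N := by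
    refine hfin.isClosed_biUnion ?_
    rintro C ⟨⟨x, -, rfl⟩, -⟩
    refine (T.isClosed_cc x).inter ?_
    have e : {z | ∀ v ∈ T.cc x ∩ P (T.H i), ε ≤ ‖B z - B v‖} =
        ⋂ v ∈ T.cc x ∩ P (T.H i), {z | ε ≤ ‖B z - B v‖} := by
      ext z
      simp only [Set.mem_ofPred_eq, mem_iInter]
    rw [e]
    refine isClosed_biInter fun v _ => isClosed_le continuous_const ?_
    exact (hcB.sub continuous_const).norm
  have hd : P (T.H i) ⊆ Nᶜ := by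
    intro y hy hyN
    obtain ⟨C, -, hyC, hy2⟩ := mem_iUnion₂.1 hyN
    have := hy2 y ⟨hyC, hy⟩
    rw [sub_self, norm_zero] at this
    linarith
  obtain ⟨β4, hβ4, h4⟩ := exists_hom_sub (T.cpt i) hNc.isOpen_compl hd c0
  have hcP : c0 ∈ P (T.H i) := interior_subset hc0
  have hcv : Convex ℝ (B '' P (T.H i)) := (convex_P (T.H i)).affine_image B.toAffineMap
  set β := min (min β1 β2) β4 with hβ
  have hβ0 : 0 < β := lt_min (lt_min hβ1 hβ2) hβ4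
  have l1 : β ≤ β1 := (min_le_left _ _).trans (min_le_left _ _)
  have l2 : β ≤ β2 := (min_le_left _ _).trans (min_le_right _ _)
  have l4 : β ≤ β4 := min_le_right _ _
  have hs1 : hom c0 (1 + 4 * β) (P (T.H i)) ⊆ hom c0 (1 + 4 * β1) (P (T.H i)) :=
    hom_mono (convex_P _) hcP (by linarith) (by linarith)
  have hs4 : hom c0 (1 + 4 * β) (P (T.H i)) ⊆ hom c0 (1 + 4 * β4) (P (T.H i)) :=
    hom_mono (convex_P _) hcP (by linarith) (by linarith)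
  have hs2 : hom (B c0) (1 + 4 * β) (B '' P (T.H i)) ⊆ hom (B c0) (1 + 4 * β2) (B '' P (T.H i)) :=
    hom_mono hcv (mem_image_of_mem _ hcP) (by linarith) (by linarith)
  have hcell : ∀ x ∈ hom c0 (1 + 4 * β) (P (T.H i)),
      fcell (stT T i B W) (B x) = B '' T.cc x ∩ W := by
    intro x hx
    refine fcell_eq (h3 (hs2 ?_)) (Ust_sub i (interior_subset (h1 (hs1 hx))))
      (at_sub_star (h1 (hs1 hx)))
    rw [← image_hom]
    exact mem_image_of_mem _ hx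
  refine ⟨β, hβ0, fun u hu hsub v hv => ?_⟩
  rw [← image_hom] at hu
  obtain ⟨x, hx, rfl⟩ := hu
  rw [hcell x hx] at hsub hv
  obtain ⟨⟨⟨y, hy, rfl⟩, hyW⟩, hyP⟩ := hv
  have hyP' : y ∈ P (T.H i) := (B.injective.mem_set_image).1 hyP
  by_contra hcon
  rw [not_le] at hcon
  have hxN : x ∈ N := by
    refine mem_iUnion₂.2 ⟨T.cc x, ⟨⟨x, hDO (hs1 hx), rfl⟩, x, T.self_mem_cc x, hs1 hx⟩,
      T.self_mem_cc x, fun v' hv' => ?_⟩
    have e : B v' = B y := hsub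
      ⟨⟨mem_image_of_mem _ hv'.1, interior_subset (hW (mem_image_of_mem _ hv'.2))⟩,
        mem_image_of_mem _ hv'.2⟩ ⟨⟨mem_image_of_mem _ hy, hyW⟩, hyP⟩
    rw [e]
    exact hcon.le
  exact h4 (hs4 hx) hxN

/-- a crossing edge meets the tile in one point -/
theorem crs_sub {i : ι} {e : E} (he : Sk3_812.Crs T i e) : (T.cc e ∩ P (T.H i)).Subsingleton := by
  obtain ⟨hO, hd, hn, -, -, -⟩ := he
  obtain ⟨p, q, hpq, e1, e2, dp, dq, hp, hq⟩ := T.edge_eq hO hd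
  have key2 : ¬ (p ∈ P (T.H i) ∧ q ∈ P (T.H i)) := by
    rintro ⟨h1, h2⟩
    refine hn ((convex_P _).segment_subset h1 h2 ?_)
    rw [← e1]
    exact T.self_mem_cc e
  have key : ∀ z ∈ T.cc e ∩ P (T.H i), z = p ∨ z = q := by
    rintro z ⟨hz, hzi⟩
    have hz' := hz
    rw [e1, ← insert_endpoints_openSegment] at hz'
    rcases hz' with rfl | rfl | hz'
    · exact Or.inl rfl
    · exact Or.inr rfl
    · exfalso
      rw [← e2] at hz'
      have := T.at_eq_of_mem_oc hO hz'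
      exact hn (show i ∈ T.at_ e by rw [← this]; exact hzi)
  intro z hz z' hz'
  rcases key z hz with rfl | rfl <;> rcases key z' hz' with rfl | rfl
  · rfl
  · exact absurd ⟨hz.2, hz'.2⟩ key2
  · exact absurd ⟨hz'.2, hz.2⟩ key2
  · rfl

/-- **`NearT` from the pair** -/
theorem NP.nearT {i : ι} {B : E ≃ᵃ[ℝ] F} {W : Set F} {c : E} {β ρ D ε : ℝ} {nc : ℕ}
    (hW : B '' P (T.H i) ⊆ interior W)
    (hg : GapT T i B c β ρ D nc) (hWβ : hom (B c) (1 + 4 * β) (B '' P (T.H i)) ⊆ interior W)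
    (hN : NP (B '' P (T.H i)) (stT T i B W) (B c) β ε) (hε : 0 ≤ ε) : NearT T i B c β ε := by
  intro e he v hv hvP z hz hzh
  have hs := crs_sub he
  by_cases hzP : z ∈ P (T.H i)
  · have : z = v := hs ⟨hz, hzP⟩ ⟨hv, hvP⟩
    rw [this, sub_self, norm_zero]
    exact hε
  -- `z` is in the open edge
  have hzO : z ∈ Om := T.cc_sub_Om he.1 hz
  have hzo : z ∈ T.oc e := by
    by_contra hcon
    have h1 := T.dim_lt hz hcon
    rw [he.2.1] at h1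
    have h0 : T.dim z = 0 := by omega
    refine hg.gap z hzO ?_ hzh
    rw [T.cc_eq_singleton (T.dim_eq_zero_iff.1 h0), disjoint_singleton_left]
    exact hzP
  have hcc : T.cc z = T.cc e := T.cc_eq_of_mem_oc he.1 hzo
  have hBz : B z ∈ hom (B c) (1 + 4 * β) (B '' P (T.H i)) := by
    rw [← image_hom]
    exact mem_image_of_mem _ hzh
  have hcell : fcell (stT T i B W) (B z) = B '' T.cc z ∩ W :=
    fcell_eq (hWβ hBz) hzO (at_sub_star (hg.sub hzh))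
  refine hN (B z) hBz ?_ (B v) ?_
  · rw [hcell, hcc]
    rintro _ ⟨⟨⟨y, hy, rfl⟩, -⟩, hyP⟩ _ ⟨⟨⟨y', hy', rfl⟩, -⟩, hyP'⟩
    rw [hs ⟨hy, (B.injective.mem_set_image).1 hyP⟩ ⟨hy', (B.injective.mem_set_image).1 hyP'⟩]
  · rw [hcell, hcc]
    exact ⟨⟨mem_image_of_mem _ hv, interior_subset (hW (mem_image_of_mem _ hvP))⟩,
      mem_image_of_mem _ hvP⟩

variable (E)

/-- **GAPSIM with near vertices** -/
theorem gapsim_near (W : Set F) {𝒮 : Set (Set F × Set (Set F))} (h𝒮 : 𝒮.Finite) :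
    ∃ ρ > 0, ∃ D, ∃ nc : ℕ, ∀ ε > 0, ∃ β > 0, ∀ {Om : Set E} {ι : Type v} (T : Tiling Om ι) (i : ι)
      (B : E ≃ᵃ[ℝ] F), B '' P (T.H i) ⊆ interior W → (B '' P (T.H i), stT T i B W) ∈ 𝒮 →
      GapT T i B (B.symm (cK (B '' P (T.H i)))) β ρ D nc ∧
        NearT T i B (B.symm (cK (B '' P (T.H i)))) β ε := by
  obtain ⟨β0, hβ0, ρ, hρ, D, nc, h⟩ := gapsim.{u, v, w} E W h𝒮
  refine ⟨ρ, hρ, D, nc, fun ε hε => ?_⟩
  have key : ∀ p : Set F × Set (Set F), ∃ β > 0,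
      ∀ {Om : Set E} {ι : Type v} (T : Tiling Om ι) (i : ι) (B : E ≃ᵃ[ℝ] F),
      B '' P (T.H i) ⊆ interior W → (B '' P (T.H i), stT T i B W) = p →
      NP p.1 p.2 (cK p.1) β ε ∧ hom (cK p.1) (1 + 4 * β) p.1 ⊆ interior W := by
    intro p
    by_cases hr : ∃ (Om : Set E) (ι : Type v) (T : Tiling Om ι) (i : ι) (B : E ≃ᵃ[ℝ] F),
        B '' P (T.H i) ⊆ interior W ∧ (B '' P (T.H i), stT T i B W) = p
    · obtain ⟨Om, ι, T, i, B, h1, rfl⟩ := hr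
      have hc : cK (B '' P (T.H i)) ∈ interior (B '' P (T.H i)) := by
        refine cK_mem ?_
        rw [← image_interior_aff, I_eq_interior]
        exact (T.ne i).image _
      obtain ⟨β1, hβ1, g1⟩ := exists_NP h1 hc hε
      have hcpt : IsCompact (B '' P (T.H i)) := (T.cpt i).image (continuous_aff B)
      obtain ⟨β2, hβ2, g2⟩ := exists_hom_sub hcpt isOpen_interior h1 (cK (B '' P (T.H i)))
      have hcv : Convex ℝ (B '' P (T.H i)) := (convex_P (T.H i)).affine_image B.toAffineMap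
      refine ⟨min β1 β2, lt_min hβ1 hβ2, fun _ _ _ _ _ => ⟨?_, ?_⟩⟩
      · exact g1.mono hcv (interior_subset hc) (lt_min hβ1 hβ2).le (min_le_left _ _)
      · exact (hom_mono hcv (interior_subset hc) (by positivity)
          (by linarith [min_le_right β1 β2])).trans g2
    · exact ⟨1, one_pos, fun T i B h1 h2 => absurd ⟨_, _, T, i, B, h1, h2⟩ hr⟩
  choose β hβ g using key
  obtain ⟨β1, hβ1, h1⟩ := exists_lb h𝒮 hβ
  have hm : 0 < min β0 β1 := lt_min hβ0 hβ1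
  refine ⟨min β0 β1, hm, fun T i B hW hp => ?_⟩
  have hc : cK (B '' P (T.H i)) ∈ interior (B '' P (T.H i)) := by
    refine cK_mem ?_
    rw [← image_interior_aff, I_eq_interior]
    exact (T.ne i).image _
  have hcv : Convex ℝ (B '' P (T.H i)) := (convex_P (T.H i)).affine_image B.toAffineMap
  have hG := (h T i B hW hp).mono hm.le (min_le_left _ _) le_rfl le_rfl le_rfl
  obtain ⟨g1, g2⟩ := g _ T i B hW rfl
  have hle : min β0 β1 ≤ β (B '' P (T.H i), stT T i B W) := (min_le_right _ _).trans (h1 _ hp)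
  have hBc : B (B.symm (cK (B '' P (T.H i)))) = cK (B '' P (T.H i)) := B.apply_symm_apply _
  refine ⟨hG, NP.nearT (W := W) hW hG ?_ ?_ hε.le⟩
  · rw [hBc]
    exact (hom_mono hcv (interior_subset hc) (by positivity) (by linarith)).trans g2
  · rw [hBc]
    exact g1.mono hcv (interior_subset hc) hm.le hle

variable {E}

/-! ### the hypotheses of `Mal_874.sim_tile` -/

variable {n : ℕ}

theorem NearT.of_tz {i : ι} {χ : E ≃ᵃ[ℝ] (Fin n → ℝ)} {z : Fin n → ℤ} {c : E} {β ε : ℝ}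
    (h : NearT T i (χ.trans (tz z)) c β ε) : NearT T i χ c β ε := by
  intro e he v hv hvP y hy hyh
  have h1 := h e he v hv hvP y hy hyh
  have e2 : (χ.trans (tz z)) y - (χ.trans (tz z)) v = χ y - χ v := by
    funext m
    rw [Pi.sub_apply, Pi.sub_apply, AffineEquiv.trans_apply, AffineEquiv.trans_apply, tz_apply,
      tz_apply]
    ring
  rwa [e2] at h1

variable (E)

/-- helper432's `gap_tile` with `NearT` -/
theorem near_tile (𝒩 : Finset (Fin n → ℝ)) {d : ℕ} (hd : 0 < d)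
    (h𝒩 : ∀ ν ∈ 𝒩, ∀ m, ∃ c : ℤ, ν m = c / d) (R : ℝ) :
    ∃ ρ > 0, ∃ D, ∃ nc : ℕ, ∀ ε > 0, ∃ β > 0, ∀ {Om : Set E} {ι : Type v} (T : Tiling Om ι) (i : ι)
      (χ : E ≃ᵃ[ℝ] (Fin n → ℝ)) (s : ℝ), 0 < s →
      (∀ l, (P (T.H l) ∩ P (T.H i)).Nonempty → ∀ h ∈ T.H l, ∃ ν, ∃ t : ℤ, GF χ s 𝒩 d h ν t) →
      (∀ x ∈ P (T.H i), ∀ y ∈ P (T.H i), ∀ m, |χ y m - χ x m| ≤ R) →
      ∃ c, GapT T i χ c β ρ D nc ∧ NearT T i χ c β ε := by
  have hr : (0 : ℝ) < |R| + 2 := by positivity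
  obtain ⟨ρ, hρ, D, nc, h⟩ := gapsim_near E (closedBall (0 : Fin n → ℝ) (|R| + 2))
    (((lst_finite 𝒩 d (|R| + 2))).prod (lst_finite 𝒩 d (|R| + 2)).finite_subsets)
  refine ⟨ρ, hρ, D, nc, fun ε hε => ?_⟩
  obtain ⟨β, hβ, h⟩ := h ε hε
  refine ⟨β, hβ, fun {Om ι} T i χ s hs hgood hR => ?_⟩
  obtain ⟨x0, hx0⟩ := T.ne i
  have hx0' := I_sub_P _ hx0
  set z : Fin n → ℤ := fun m => ⌊χ x0 m⌋ with hz
  have hW' : (χ.trans (tz z)) '' P (T.H i) ⊆ Metric.ball (0 : Fin n → ℝ) (|R| + 2) := by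
    rintro _ ⟨y, hy, rfl⟩
    rw [mem_ball_zero_iff, pi_norm_lt_iff hr]
    intro m
    rw [AffineEquiv.trans_apply, tz_apply, Real.norm_eq_abs, abs_lt]
    have h1 := Int.floor_le (χ x0 m)
    have h2 := Int.lt_floor_add_one (χ x0 m)
    have h3 := abs_le.1 (hR x0 hx0' y hy m)
    have h4 := le_abs_self R
    constructor <;> simp only [hz] <;> linarith
  have hW : (χ.trans (tz z)) '' P (T.H i) ⊆ interior (closedBall (0 : Fin n → ℝ) (|R| + 2)) :=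
    hW'.trans ball_subset_interior_closedBall
  have hmem : ∀ l, (P (T.H l) ∩ P (T.H i)).Nonempty →
      (χ.trans (tz z)) '' P (T.H l) ∩ closedBall (0 : Fin n → ℝ) (|R| + 2) ∈
        lst 𝒩 d (|R| + 2) := by
    rintro l ⟨y, hy1, hy2⟩
    exact mem_lst hs hd h𝒩 hr.le (hgood l ⟨y, hy1, hy2⟩)
      ⟨y, hy1, ball_subset_closedBall (hW' (mem_image_of_mem _ hy2))⟩
  have hp : (χ.trans (tz z)) '' P (T.H i) ∈ lst 𝒩 d (|R| + 2) := by
    have h1 := hmem i ⟨x0, hx0', hx0'⟩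
    rwa [inter_eq_left.2 (hW'.trans ball_subset_closedBall)] at h1
  obtain ⟨g1, g2⟩ := h T i (χ.trans (tz z)) hW ⟨hp, by
    rintro Q ⟨j, hj, rfl⟩
    exact hmem j hj⟩
  exact ⟨_, g1.of_tz, g2.of_tz⟩

/-- helper432's `gap_good` with `NearT` -/
theorem near_good (𝒩 : Finset (Fin n → ℝ)) {d : ℕ} (hd : 0 < d)
    (h𝒩 : ∀ ν ∈ 𝒩, ∀ m, ∃ c : ℤ, ν m = c / d) (R : ℝ) :
    ∃ ρ > 0, ∃ D, ∃ nc : ℕ, ∀ ε > 0, ∃ β > 0, ∀ {Om : Set E} {ι : Type v} (T : Tiling Om ι) (t : ι)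
      (χ : E ≃ᵃ[ℝ] (Fin n → ℝ)) (k : ℕ), Good T t χ k 𝒩 d R →
      ∃ c, GapT T t χ c β ρ D nc ∧ NearT T t χ c β ε := by
  obtain ⟨ρ, hρ, D, nc, h⟩ := near_tile.{u, v} E 𝒩 hd h𝒩 R
  refine ⟨ρ, hρ, D, nc, fun ε hε => ?_⟩
  obtain ⟨β, hβ, h⟩ := h ε hε
  exact ⟨β, hβ, fun T i χ k hg => h T i χ (2 ^ k) (by positivity) hg.gf hg.sz⟩

/-- **helper432's `gap_goods` with `NearT`**: uniform constants for a finite list of lists -/
theorem near_goods {Ls : Set (Finset (Fin n → ℝ) × ℕ)} (hLs : Ls.Finite) (hpos : ∀ p ∈ Ls, 0 < p.2)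
    (hrat : ∀ p ∈ Ls, ∀ ν ∈ p.1, ∀ m, ∃ c : ℤ, ν m = c / p.2) (R : ℝ) :
    ∃ ρ > 0, ∃ D, ∃ nc : ℕ, ∀ ε > 0, ∃ β > 0, ∀ {Om : Set E} {ι : Type v} (T : Tiling Om ι) (t : ι)
      (χ : E ≃ᵃ[ℝ] (Fin n → ℝ)) (k : ℕ), ∀ p ∈ Ls, Good T t χ k p.1 p.2 R →
      ∃ c, GapT T t χ c β ρ D nc ∧ NearT T t χ c β ε := by
  have key : ∀ p : Finset (Fin n → ℝ) × ℕ, ∃ ρ > 0, ∃ D, ∃ nc : ℕ, ∀ ε > 0, ∃ β > 0, p ∈ Ls →
      ∀ {Om : Set E} {ι : Type v} (T : Tiling Om ι) (t : ι)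
      (χ : E ≃ᵃ[ℝ] (Fin n → ℝ)) (k : ℕ), Good T t χ k p.1 p.2 R →
      ∃ c, GapT T t χ c β ρ D nc ∧ NearT T t χ c β ε := by
    intro p
    by_cases hp : p ∈ Ls
    · obtain ⟨ρ, hρ, D, nc, h⟩ := near_good.{u, v} E p.1 (hpos p hp) (hrat p hp) R
      refine ⟨ρ, hρ, D, nc, fun ε hε => ?_⟩
      obtain ⟨β, hβ, h⟩ := h ε hε
      exact ⟨β, hβ, fun _ => h⟩
    · exact ⟨1, one_pos, 0, 0, fun ε _ => ⟨1, one_pos, fun h => absurd h hp⟩⟩
  choose ρ hρ D nc h using key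
  obtain ⟨ρ0, hρ0, h2⟩ := exists_lb hLs hρ
  obtain ⟨D0, h3⟩ := (hLs.image D).bddAbove
  obtain ⟨n0, h4⟩ := (hLs.image nc).bddAbove
  refine ⟨ρ0, hρ0, D0, n0, fun ε hε => ?_⟩
  choose β hβ g using fun p => h p ε hε
  obtain ⟨β0, hβ0, h1⟩ := exists_lb hLs hβ
  refine ⟨β0, hβ0, fun T i χ k p hp hg => ?_⟩
  obtain ⟨c, hc, hn⟩ := g p hp T i χ k hg
  refine ⟨c, hc.mono hβ0.le (h1 _ hp) (h2 _ hp) (h3 (mem_image_of_mem _ hp))
    (h4 (mem_image_of_mem _ hp)), fun e he v hv hvP z hz hzh => hn e he v hv hvP z hz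
    (hom_mono (convex_P _) (I_sub_P _ hc.mem) (by linarith) (by linarith [h1 _ hp]) hzh)⟩

end Crest.Agent.R096.Nvt_465
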