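import Crest.Agent.R096.Nbr4_896
import Crest.Agent.R096.Spr2_113
import Crest.Agent.R096.Nvt1_465

/-!
# Row 96 (S0127), p = 2 (helper465), part 8: the shape constants of the tiles of `meshS` together
with 113's `NearV` (the crossing edges are near their inner ends)

`TG2` = `TG` + `NearV`; `tg2_struct` = helper896's `tileG_struct` with `NearV`, in the order
`D nc`, net, `ρ`, `ε`, `β`.
-/

set_option autoImplicit false
set_option linter.unusedSectionVars false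

open Set Metric Topology Filter

namespace Crest.Agent.R096.Cp8_465

open Crest.Agent.R096.Msh_715 Crest.Agent.R096.Msh_715.Tiling Crest.Agent.R096.Mal_874
open Crest.Agent.R096.Msh_810 Crest.Agent.R096.Cut_874 Crest.Agent.R096.Msb_432
open Crest.Agent.R096.Gsm_432 Crest.Agent.R096.Sk2_855
open Crest.Agent.R096.Ca_855 (TileG)
open Crest.Agent.R096.Nbr_896 (Fb nbr_meshS good_diam diam_of_dist diam_block inner_goodW)
open Crest.Agent.R096.Spr_113 (NearV)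
open Crest.Agent.R096.Sk3_812 (ug)
open Crest.Agent.R096.Nvt_465

universe w

variable {n : ℕ} {E : Type} [NormedAddCommGroup E] [NormedSpace ℝ E] [FiniteDimensional ℝ E]

/-- the shape constants of a tile at the scale `κ`, with `NearV` -/
def TG2 {Om : Set E} {ι : Type*} (T : Tiling Om ι) (i : ι) (β ρ D : ℝ) (nc κ : ℕ) (ε : ℝ) : Prop :=
  (∀ y ∈ P (T.H i), ∀ y' ∈ P (T.H i), ‖y - y'‖ ≤ D / 2 ^ κ) ∧
  ∃ c, (∀ (hne : (T.H i).Nonempty) (K : ℕ) (t : ℝ), κ ≤ K → D / 2 ^ κ ≤ t →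
    TileG T i hne c β (ρ / 2 ^ K) t nc) ∧
    ∀ hne : (T.H i).Nonempty, NearV T i (ug (T.H i) hne c (AffineEquiv.refl ℝ E)) (4 * β)
      (ε / 2 ^ κ)

theorem TG2.of {Om : Set E} {ι : Type*} {T : Tiling Om ι} {i : ι} {φ : E ≃L[ℝ] (Fin n → ℝ)}
    {a : Fin n → ℝ} {κ : ℕ} {c : E} {β ρ D ε : ℝ} {nc : ℕ}
    (h : GapT T i (chi φ a κ) c β ρ D nc) (hN : NearT T i (chi φ a κ) c β ε) (hβ : 0 ≤ β)
    (hρ : 0 < ρ) {L1 L2 : ℝ} (hL1 : 0 < L1)
    (hL2 : 0 ≤ L2) (h1 : ∀ v, ‖φ v‖ ≤ L1 * ‖v‖) (h2 : ∀ v, ‖v‖ ≤ L2 * ‖φ v‖) :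
    TG2 T i β (ρ / L1) (L2 * (2 * D)) nc κ (L2 * ε) := by
  have hp : (0 : ℝ) < 2 ^ κ := by positivity
  have hpw := hp
  have hd : ∀ y ∈ P (T.H i), ∀ y' ∈ P (T.H i), ‖y - y'‖ ≤ L2 * (2 * D) / 2 ^ κ := by
    intro y hy y' hy'
    have h3 := h.diam (L := L2 / 2 ^ κ) (by positivity) (fun v => ?_) y hy y' hy'
    · rwa [div_mul_eq_mul_div] at h3
    · rw [chi_linear, div_mul_eq_mul_div, mul_left_comm, mul_div_assoc, mul_comm,
        div_mul_cancel₀ _ hp.ne']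
      exact h2 v
  refine ⟨hd, c, fun hne K t hK ht => ?_, fun hne e he v hv hvP z hz hg => ?_⟩
  · have hpK : (0 : ℝ) < 2 ^ K := by positivity
    have hle : (2 : ℝ) ^ κ ≤ 2 ^ K := pow_le_pow_right₀ (by norm_num) hK
    refine h.tileG hβ hne (L := 2 ^ κ * L1) (by positivity) (fun v => ?_) ?_
      (fun y hy y' hy' => (hd y hy y' hy').trans ht)
    · rw [chi_linear, mul_assoc]
      exact mul_le_mul_of_nonneg_left (h1 v) hp.le
    · have e : (2 : ℝ) ^ κ * L1 * (ρ / L1 / 2 ^ K) = ρ * (2 ^ κ / 2 ^ K) := by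
        field_simp
      rw [e]
      have h3 : (2 : ℝ) ^ κ / 2 ^ K ≤ 1 := (div_le_one hpK).2 hle
      nlinarith
  · have h3 : z ∈ hom c (1 + 4 * β) (P (T.H i)) :=
      (ug_le_iff_hom hne h.mem (AffineEquiv.refl ℝ E) (by linarith) z).1 hg
    have h4 := hN e he v hv hvP z hz h3
    rw [aff_sub, chi_linear] at h4
    have h5 : ‖φ (z - v)‖ ≤ ε / 2 ^ κ := by
      rw [le_div_iff₀ hp, mul_comm]
      exact h4
    rw [dist_eq_norm, mul_div_assoc]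
    exact (h2 _).trans (mul_le_mul_of_nonneg_left h5 hL2)

/-- better constants -/
theorem TG2.better {Om : Set E} {ι : Type*} {T : Tiling Om ι} {t : ι} {β ρ D D' ε : ℝ}
    {nc nc' κ : ℕ} (h : TG2 T t β ρ D' nc' κ ε)
    (hd : ∀ y ∈ P (T.H t), ∀ y' ∈ P (T.H t), ‖y - y'‖ ≤ D / 2 ^ κ)
    (h1 : (star T t).ncard ≤ nc) (h2 : Nat.card (Sk3_812.KT T t) ≤ nc) :
    TG2 T t β ρ D nc κ ε := by
  obtain ⟨-, c, hc, hN⟩ := h
  refine ⟨hd, c, fun hne K t' hK ht' => ?_, hN⟩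
  have h3 := hc hne K (max t' (D' / 2 ^ κ)) hK (le_max_right _ _)
  exact
    { cI := h3.cI
      ball := h3.ball
      gap := h3.gap
      star := h3.star
      cardK := h2
      cardN := h1
      diam := fun y hy y' hy' => (hd y hy y' hy').trans ht' }

/-- helper432's `tg_goods` with `NearV` -/
theorem tg2_goods (E : Type) [NormedAddCommGroup E] [NormedSpace ℝ E] [FiniteDimensional ℝ E]
    {Ls : Set (Finset (Fin n → ℝ) × ℕ)} (hLs : Ls.Finite) (hpos : ∀ p ∈ Ls, 0 < p.2)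
    (hrat : ∀ p ∈ Ls, ∀ ν ∈ p.1, ∀ m, ∃ c : ℤ, ν m = c / p.2) (R : ℝ) {L1 L2 : ℝ} (hL1 : 0 < L1)
    (hL2 : 0 < L2) :
    ∃ ρ > 0, ∃ D, ∃ nc : ℕ, ∀ ε > 0, ∃ β > 0, ∀ {Om : Set E} {ι : Type w} (T : Tiling Om ι) (t : ι)
      (φ : E ≃L[ℝ] (Fin n → ℝ)) (a : Fin n → ℝ) (κ : ℕ), ∀ p ∈ Ls,
      Good T t (chi φ a κ) κ p.1 p.2 R → (∀ v, ‖φ v‖ ≤ L1 * ‖v‖) → (∀ v, ‖v‖ ≤ L2 * ‖φ v‖) →
      TG2 T t β ρ D nc κ ε := by
  obtain ⟨ρ, hρ, D, nc, h⟩ := near_goods.{0, w} E hLs hpos hrat R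
  refine ⟨ρ / L1, by positivity, L2 * (2 * D), nc, fun ε hε => ?_⟩
  obtain ⟨β, hβ, h⟩ := h (ε / L2) (by positivity)
  refine ⟨β, hβ, fun T t φ a κ p hp hg h1 h2 => ?_⟩
  obtain ⟨c, hc, hN⟩ := h T t (chi φ a κ) κ p hp hg
  have h3 := TG2.of hc hN hβ.le hρ hL1 hL2.le h1 h2
  rwa [mul_div_cancel₀ _ hL2.ne'] at h3

/-- **896's `tileG_struct` with `NearV`**: `D`, `nc` before the net; then `ρ`, `ε`, `β` -/
theorem tg2_struct (E : Type) [NormedAddCommGroup E] [NormedSpace ℝ E] [FiniteDimensional ℝ E]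
    [NeZero n] (K R0 : ℝ) (B0 : ℕ) :
    ∃ D : ℝ, 0 < D ∧ ∃ nc : ℕ,
      (∀ {J : Type w} (M : MD E n J) {k : J → ℕ} (hk : M.Sc k)
        (a : Fin n → ℝ) {v : J → E} (hv : M.Adm v) (X : RD M), RP X a v k → Fb K M →
        (∀ j, X.B j ≤ B0) → (∀ j, X.R j ≤ R0) →
        (∀ t, (star (meshS M hk a hv) t).ncard ≤ nc ∧
          Nat.card (Tgr_335.KT (meshS M hk a hv) t) ≤ nc ∧
          Nat.card (Sk3_812.KT (meshS M hk a hv) t) ≤ nc) ∧
        ∀ j t, (P ((meshS M hk a hv).H t) ∩ (M.Bk v j).N).Nonempty →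
          ∀ x ∈ P ((meshS M hk a hv).H t), ∀ y ∈ P ((meshS M hk a hv).H t),
            ‖x - y‖ ≤ D / 2 ^ (M.Q j).kc) ∧
      ∀ {Ps : Set ((Fin n → Fin n → ℤ) × ℕ)}, Ps.Finite → ∀ c0 : ℝ, ∃ ρ > 0, ∀ ε > 0, ∃ β > 0,
      ∀ {J : Type w} (M : MD E n J) {k : J → ℕ} (hk : M.Sc k)
        (a : Fin n → ℝ) {v : J → E} (hv : M.Adm v) (X : RD M), RP X a v k → Fb K M →
        (∀ j, (X.A j, X.d j) ∈ Ps) → (∀ j, X.c j ≤ c0) → (∀ j, X.B j ≤ B0) → (∀ j, X.R j ≤ R0) →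
        ∀ t, ∃ κ, Scl M hk a hv t κ ∧ TG2 (meshS M hk a hv) t β ρ D nc κ ε := by
  classical
  obtain ⟨nc, hnc⟩ := nbr_meshS.{w} (n := n) E K R0 B0
  set L : ℝ := |K| + 1 with hL
  have hL0 : 0 < L := by positivity
  have hKL : K ≤ L := (le_abs_self K).trans (by rw [hL]; linarith)
  set D : ℝ := L * max 2 R0 with hD
  have hm2 : (2 : ℝ) ≤ max 2 R0 := le_max_left _ _
  have hD0 : 0 < D := by
    rw [hD]
    have : (0 : ℝ) < max 2 R0 := by linarith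
    positivity
  refine ⟨D, hD0, nc, ?_, ?_⟩
  · intro J M k hk a v hv X RPx hF hB hR
    refine ⟨hnc M hk a hv X RPx hF hB hR, fun j t ht x hx y hy => ?_⟩
    refine (diam_block M hk a hv X hL0.le (hF.mono hKL) hR t ht x hx y hy).trans ?_
    refine div_le_div_of_nonneg_right ?_ (by positivity)
    rw [hD]
    exact mul_le_mul_of_nonneg_left (max_le_max (by norm_num) le_rfl) hL0.le
  intro Ps hPs c0
  set Ls : Set (Finset (Fin n → ℝ) × ℕ) := {(N0 n, 1)} ∪ {(NB n B0, 1)} ∪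
    (fun p : (Fin n → Fin n → ℤ) × ℕ => (NR p.1 p.2, p.2)) '' {p ∈ Ps | 0 < p.2} with hLs
  have hfin : Ls.Finite := ((finite_singleton _).union (finite_singleton _)).union
    ((hPs.subset (sep_subset _ _)).image _)
  have hpos : ∀ p ∈ Ls, 0 < p.2 := by
    rintro p ((rfl | rfl) | ⟨q, hq, rfl⟩)
    · exact one_pos
    · exact one_pos
    · exact hq.2
  have hrat : ∀ p ∈ Ls, ∀ ν ∈ p.1, ∀ m, ∃ c : ℤ, ν m = c / p.2 := by
    rintro p ((rfl | rfl) | ⟨q, hq, rfl⟩)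
    · exact N0_rat one_pos
    · exact NB_rat B0 one_pos
    · exact NR_rat q.1 hq.2
  obtain ⟨ρ, hρ, D', nc', h⟩ := tg2_goods E hfin hpos hrat (max 2 (max R0 c0)) hL0 hL0
  refine ⟨ρ, hρ, fun ε hε => ?_⟩
  obtain ⟨β, hβ, h⟩ := h ε hε
  refine ⟨β, hβ, fun {J} M {k} hk a {v} hv X RPx hF0 hA hc hB hR => ?_⟩
  have hn := hnc M hk a hv X RPx hF0 hB hR
  have hF : Fb L M := hF0.mono hKL
  have m0 : (N0 n, 1) ∈ Ls := Or.inl (Or.inl rfl)
  have mB : (NB n B0, 1) ∈ Ls := Or.inl (Or.inr rfl)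
  have mR : ∀ j, (NR (X.A j) (X.d j), X.d j) ∈ Ls := fun j =>
    Or.inr ⟨_, ⟨hA j, X.dpos j⟩, rfl⟩
  have r1 : (1 : ℝ) ≤ max 2 (max R0 c0) := le_trans (by norm_num) (le_max_left _ _)
  have r2 : ∀ j, X.c j ≤ max 2 (max R0 c0) := fun j =>
    (hc j).trans ((le_max_right _ _).trans (le_max_right _ _))
  have r3 : ∀ j, X.R j ≤ max 2 (max R0 c0) := fun j =>
    (hR j).trans ((le_max_left _ _).trans (le_max_right _ _))
  -- diameters
  have dd : ∀ {R : ℝ} {κ : ℕ}, 0 ≤ R → R ≤ max 2 R0 → L * R / 2 ^ κ ≤ D / 2 ^ κ := by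
    intro R κ _ h1
    refine div_le_div_of_nonneg_right ?_ (by positivity)
    rw [hD]
    exact mul_le_mul_of_nonneg_left h1 hL0.le
  rintro (⟨t, ht⟩ | c)
  · rcases t with p | ⟨j, i⟩
    · have hsub : P ((M.mesh hk a hv).H (Sum.inl p)) ⊆ P ((M.ad hk a hv).T0.H p.1.par) :=
        cut_tile_sub (hA := AF_ne) p.1
      have hdist : ∀ x ∈ P ((M.mesh hk a hv).H (Sum.inl p)),
          ∀ y ∈ P ((M.mesh hk a hv).H (Sum.inl p)), ‖x - y‖ ≤ L * 1 / 2 ^ p.1.par.1.1.k := by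
        intro x hx y hy
        have h1 := diam_of_dist hL0.le hF.φ2 (dist_cube
          ((AD.tile_T0 (M := M.ad hk a hv) _).1 (hsub hx))
          ((AD.tile_T0 (M := M.ad hk a hv) _).1 (hsub hy)))
        rwa [mul_one_div, ← mul_one L] at h1
      rcases outer_goodS M hk a hv X RPx p with hg | ⟨j, hj, hg⟩
      · have hTG := h _ _ _ _ _ _ m0 (good_mono hg subset_rfl (le_max_left _ _)) hF.φ1 hF.φ2
        exact ⟨_, Or.inl rfl, TG2.better hTG (fun y hy y' hy' =>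
          (good_diam hL0.le hF.φ2 (by norm_num) hg y hy y' hy').trans (dd (by norm_num) hm2))
          (hn _).1 (hn _).2.2⟩
      · have hTG := h _ _ _ _ _ _ (mR j) (good_mono hg subset_rfl (r2 j)) hF.φ1 hF.φ2
        refine ⟨_, Or.inr ⟨j, rfl, hj⟩, TG2.better hTG (fun y hy y' hy' => ?_) (hn _).1
          (hn _).2.2⟩
        have h1 := hdist y hy y' hy'
        rw [hj] at h1
        exact h1.trans (dd (by norm_num) (by linarith))
    · have hi : i ≠ M.core hk a hv j := by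
        rintro rfl
        exact ht ⟨j, rfl⟩
      rcases inner_goodW M hk a hv X RPx i hi with ⟨τ, hτ, hg⟩ | hg | ⟨⟨τ, hτ, hτk⟩, -, hg⟩
      · have hTG := h _ _ _ _ _ _ m0 (good_mono hg subset_rfl (le_max_left _ _))
          (hF.ψ1 j) (hF.ψ2 j)
        refine ⟨_, ⟨?_, ?_⟩, TG2.better hTG (fun y hy y' hy' =>
          (good_diam hL0.le (hF.ψ2 j) (by norm_num) hg y hy y' hy').trans
            (dd (by norm_num) hm2)) (hn _).1 (hn _).2.2⟩
        · have := (M.Bk v j).kc_le (k j) (hk.kc j) (τ := τ.1)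
          exact this.trans (Nat.le_succ _)
        · exact Nat.succ_le_succ ((M.Bk v j).le_k (k j) (hk.kc j) (τ := τ.1))
      · have hR0 : 0 ≤ X.R j := zero_le_one.trans (X.R1 j)
        exact ⟨_, ⟨le_rfl, (hk.kc j).trans (Nat.le_succ _)⟩, TG2.better
          (h _ _ _ _ _ _ mB (good_mono hg (NB_mono (hB j)) (r3 j)) (hF.ψ1 j) (hF.ψ2 j))
          (fun y hy y' hy' => (good_diam hL0.le (hF.ψ2 j) hR0 hg y hy y' hy').trans
            (dd hR0 ((hR j).trans (le_max_right _ _)))) (hn _).1 (hn _).2.2⟩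
      · refine ⟨_, ⟨hk.kc j, Nat.le_succ _⟩, TG2.better
          (h _ _ _ _ _ _ (mR j) (good_mono hg subset_rfl (r2 j)) hF.φ1 hF.φ2)
          (fun y hy y' hy' => ?_) (hn _).1 (hn _).2.2⟩
        have hy1 : y ∈ P (((M.Bk v j).T (k j) (hk.kc j)).H i.1) := hy
        have hy2 : y' ∈ P (((M.Bk v j).T (k j) (hk.kc j)).H i.1) := hy'
        rw [hτ] at hy1 hy2
        have h1 := dist_cube (((M.Bk v j).tile_T0 (k j) (hk.kc j)).1 hy1)
          (((M.Bk v j).tile_T0 (k j) (hk.kc j)).1 hy2)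
        rw [hτk] at h1
        have h2 := diam_of_dist hL0.le (hF.ψ2 j) h1
        rw [mul_one_div, ← mul_one L] at h2
        exact h2.trans (dd (by norm_num) (by linarith))
  · exact ⟨_, rfl, TG2.better
      (h _ _ _ _ _ _ mB (good_mono (cube_goodS M hk a hv X c) (NB_mono (hB _)) r1)
        (hF.ψ1 _) (hF.ψ2 _))
      (fun y hy y' hy' => (good_diam hL0.le (hF.ψ2 _) (by norm_num)
        (cube_goodS M hk a hv X c) y hy y' hy').trans (dd (by norm_num) (by linarith)))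
      (hn _).1 (hn _).2.2⟩

end Crest.Agent.R096.Cp8_465
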