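import Crest.Agent.R096.Cp8_298

/-!
# R096 / COPY, part 9 (helper298): the weighted sequence and its limit
-/

set_option autoImplicit false

namespace Crest.Agent.R096.Cp_298
open Crest.Agent.R096.St_147 Crest.Agent.R096.Seq_213 Crest.Agent.R096.Seq_213.GSt
open scoped ENNReal

variable {ι Φ W J C K : Type} {M : MeshC ι Φ W} {fam : J → C}

/-- exponent of the weight of a quad -/
def dlt (Q : Quads ι C K) (κ : C → ℕ) (k : K) : ℕ := max (κ (Q.pr k true)) (κ (Q.pr k false))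

open Classical in
/-- exponents before the stage `m` -/
noncomputable def ex (Q : Quads ι C K) (κ : C → ℕ) : ℕ → C → ℕ
  | 0 => κ
  | m + 1 => fun c => if ∃ k, Q.In k c ∧ dlt Q κ k = m then m else ex Q κ m c

theorem dlt_ge (Q : Quads ι C K) (κ : C → ℕ) {k : K} {c : C} (h : Q.In k c) :
    κ c ≤ dlt Q κ k := by
  obtain ⟨b, rfl⟩ := h
  cases b
  · exact le_max_right _ _
  · exact le_max_left _ _

theorem ex_or (Q : Quads ι C K) (κ : C → ℕ) (m : ℕ) (c : C) :
    ex Q κ m c = κ c ∨ ex Q κ m c < m := by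
  classical
  induction m with
  | zero => exact Or.inl rfl
  | succ m ih =>
    show (if ∃ k, Q.In k c ∧ dlt Q κ k = m then m else ex Q κ m c) = κ c ∨
      (if ∃ k, Q.In k c ∧ dlt Q κ k = m then m else ex Q κ m c) < m + 1
    split_ifs with h
    · right; omega
    · rcases ih with h1 | h1
      · exact Or.inl h1
      · right; omega

theorem ex_le (Q : Quads ι C K) (κ : C → ℕ) (m : ℕ) (c : C) : ex Q κ m c ≤ ex Q κ (m + 1) c := by
  classical
  show ex Q κ m c ≤ if ∃ k, Q.In k c ∧ dlt Q κ k = m then m else ex Q κ m c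
  split_ifs with h
  · obtain ⟨k, h1, h2⟩ := h
    rcases ex_or Q κ m c with h3 | h3
    · rw [h3, ← h2]; exact dlt_ge Q κ h1
    · exact h3.le
  · exact le_rfl

theorem ex_succ_of_not (Q : Quads ι C K) (κ : C → ℕ) {m : ℕ} {c : C}
    (h : ∀ k, Q.In k c → dlt Q κ k ≠ m) : ex Q κ (m + 1) c = ex Q κ m c := by
  classical
  show (if ∃ k, Q.In k c ∧ dlt Q κ k = m then m else ex Q κ m c) = _
  rw [if_neg]
  rintro ⟨k, h1, h2⟩
  exact h k h1 h2

theorem ex_succ_of (Q : Quads ι C K) (κ : C → ℕ) {k : K} {c : C}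
    (h : Q.In k c) : ex Q κ (dlt Q κ k + 1) c = dlt Q κ k := by
  classical
  show (if ∃ l, Q.In l c ∧ dlt Q κ l = dlt Q κ k then dlt Q κ k else _) = _
  rw [if_pos ⟨k, h, rfl⟩]

/-- the final exponent: the maximum of the own exponent and of the exponents of the quads -/
theorem exists_kap (Q : Quads ι C K) (κ : C → ℕ) : ∃ (N : C → ℕ) (kap : C → ℕ),
    (∀ c k, Q.In k c → dlt Q κ k < N c) ∧ (∀ c n, N c ≤ n → ex Q κ n c = kap c) ∧
    (∀ c, κ c ≤ kap c) ∧ (∀ c k, Q.In k c → dlt Q κ k ≤ kap c) ∧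
    ∀ c, kap c = κ c ∨ ∃ k, Q.In k c ∧ kap c = dlt Q κ k := by
  classical
  have hbd : ∀ c, ∃ m, ∀ k, Q.In k c → dlt Q κ k < m := by
    intro c
    obtain ⟨m, hm⟩ := ((Q.finK c).image (dlt Q κ)).bddAbove
    exact ⟨m + 1, fun k hk => Nat.lt_succ_of_le (hm ⟨k, hk, rfl⟩)⟩
  choose N hN using hbd
  have hmono : ∀ c n m, n ≤ m → ex Q κ n c ≤ ex Q κ m c := by
    intro c n m h
    induction m, h using Nat.le_induction with
    | base => exact le_rfl
    | succ m _ ih => exact ih.trans (ex_le Q κ m c)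
  have hconst : ∀ c n, N c ≤ n → ex Q κ n c = ex Q κ (N c) c := by
    intro c n h
    induction n, h using Nat.le_induction with
    | base => rfl
    | succ n hn ih =>
      rw [ex_succ_of_not Q κ (fun k hk => by have := hN c k hk; omega), ih]
  refine ⟨N, fun c => ex Q κ (N c) c, hN, hconst, fun c => hmono c 0 _ (Nat.zero_le _),
    fun c k hk => ?_, fun c => ?_⟩
  · have h1 := hN c k hk
    calc dlt Q κ k = ex Q κ (dlt Q κ k + 1) c := (ex_succ_of Q κ hk).symm
      _ ≤ ex Q κ (N c) c := hmono c _ _ h1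
  · have : ∀ n, ex Q κ n c = κ c ∨ ∃ k, Q.In k c ∧ ex Q κ n c = dlt Q κ k := by
      intro n
      induction n with
      | zero => exact Or.inl rfl
      | succ n ih =>
        by_cases h : ∃ k, Q.In k c ∧ dlt Q κ k = n
        · obtain ⟨k, h1, h2⟩ := h
          right
          refine ⟨k, h1, ?_⟩
          subst h2
          exact ex_succ_of Q κ h1
        · rw [ex_succ_of_not Q κ (fun k h1 h2 => h ⟨k, h1, h2⟩)]
          exact ih
    exact this (N c)

namespace WS

variable {O : Ori M} {Q : Quads ι C K} {Rel : W → W → Prop} {s₀ : GSt M fam}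
  {far₀ : J → Set W} {σ₀ : W → ZMod 2} {κ : C → ℕ}

/-- **one stage** -/
theorem exists_stage (hP3 : P3) {V : Set W} (hpar : HasPar O Rel V)
    (htr : ∀ x y z, Rel x y → Rel y z → Rel x z) (hV : ∀ x y, Rel x y → y ∈ V → x ∈ V)
    (h₀ : s₀.Inv Q far₀) (hσ₀ : TS s₀ O σ₀) (hP₀ : s₀.P ⊆ V)
    (hfin : ∀ F, (s₀.P ∩ M.On F).Finite) (m : ℕ) (hm : {k | dlt Q κ k = m}.Finite)
    (A : WS O Q Rel s₀ far₀ σ₀ κ (ex Q κ m) {k | dlt Q κ k < m}) :
    ∃ B : WS O Q Rel s₀ far₀ σ₀ κ (ex Q κ (m + 1)) {k | dlt Q κ k < m + 1},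
      ∀ c, (∀ k, Q.In k c → dlt Q κ k ≠ m) → Un c A B := by
  classical
  obtain ⟨B, hB⟩ := exists_copy hpar htr hV h₀ hσ₀ hP₀ hfin A (fun c => ex_le Q κ m c)
  obtain ⟨B', hB'⟩ := B.exists_steps hP3 hm.toFinset (by
    intro k hk
    rw [Set.Finite.mem_toFinset] at hk
    have hk' : dlt Q κ k = m := hk
    have h1 := ex_succ_of Q κ (k := k) (c := Q.pr k true) ⟨true, rfl⟩
    have h2 := ex_succ_of Q κ (k := k) (c := Q.pr k false) ⟨false, rfl⟩
    rw [hk'] at h1 h2
    rw [h1, h2])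
  refine ⟨B'.mono ?_, fun c hc => ?_⟩
  · intro k hk
    have hk' : dlt Q κ k < m + 1 := hk
    rcases Nat.lt_succ_iff_lt_or_eq.1 hk' with h | h
    · right; exact h
    · left
      rw [Set.Finite.coe_toFinset]; exact h
  · refine ((hB c (ex_succ_of_not Q κ hc)).trans (hB' c ?_)).mono _
    intro k hk hin
    rw [Set.Finite.mem_toFinset] at hk
    exact hc k hin hk

end WS

end Crest.Agent.R096.Cp_298
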