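import Crest.Agent.R096.Csub2_487
import Crest.Agent.R096.Lm10_117

/-!
# R096 (row 96), leaf (b) of 337 #10755: the complex outside ALL open cores (helper642)

`T` tiling of `Om`, `KK k` = merged (type D) cores, `tl a` = tiles which are single (type R) cores.
* `cplx_emb` : the subcomplex over an index type which is embedded as a down-closed part
* `notTile` : the predicate "not the 3-cell of a tile `tl a`" on the cells
* `cplx_outO` : `Cplx (Om ∩ (⋃ a, interior (Kc a))ᶜ) {c // notTile c}` over the cells of `lmO`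
* `cplx_outK` : the same over the cells of `lmK` (`p` = not a giant and not the 3-cell of a `tl a`)
-/

set_option autoImplicit false
set_option linter.unusedSectionVars false

open Set Metric Filter Topology Module

namespace Crest.Agent.R096.Cpo_642

open Crest.Agent.R096.Ce_537 Crest.Agent.R096.Msh_715 Crest.Agent.R096.Lm_117

section Emb

variable {E : Type*} [NormedAddCommGroup E] [NormedSpace ℝ E]

/-- **the subcomplex over an embedded down-closed index set** -/
theorem cplx_emb {Q Q' : Type*} [PartialOrder Q] [PartialOrder Q'] {Ω Ω' : Set E} {dim : Q → ℕ}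
    {K : Q → Set E} (X : Cplx Ω Q dim K) {φ : Q' → Q} (hinj : Function.Injective φ)
    (hlt : ∀ a b, a < b ↔ φ a < φ b) (hdn : ∀ a j, j < φ a → ∃ b, φ b = j) (hΩ : Ω' ⊆ Ω)
    {dim' : Q' → ℕ} {K' : Q' → Set E} (hd : ∀ a, dim' a = dim (φ a)) (hK : ∀ a, K' a = K (φ a))
    (hsub : ∀ a, K' a ⊆ Ω') (hcov : ∀ x ∈ Ω', ∃ a, x ∈ K' a) : Cplx Ω' Q' dim' K' where
  isBall := by
    intro a
    have h2 : (⋃ b ∈ {b : Q' | b < a}, K' b) = ⋃ j ∈ {j | j < φ a}, K j := by
      ext x
      simp only [mem_iUnion, exists_prop, mem_ofPred_eq]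
      constructor
      · rintro ⟨b, hb, hx⟩
        exact ⟨φ b, (hlt b a).1 hb, by rwa [hK] at hx⟩
      · rintro ⟨j, hj, hx⟩
        obtain ⟨b, rfl⟩ := hdn a j hj
        exact ⟨b, (hlt b a).2 hj, by rwa [hK]⟩
    rw [h2, hd, hK]
    exact X.isBall (φ a)
  mono := fun i j h => by
    rw [hd, hd]
    exact X.mono _ _ ((hlt _ _).1 h)
  disj := by
    intro i j x hi hj
    have key : ∀ i, Opn K' i x → Opn K (φ i) x := by
      intro i hi
      refine ⟨by rw [← hK]; exact hi.1, fun l hl hx => ?_⟩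
      obtain ⟨b, rfl⟩ := hdn i l hl
      exact hi.2 b ((hlt _ _).2 hl) (by rwa [hK])
    exact hinj (X.disj _ _ x (key i hi) (key j hj))
  sub := hsub
  cover := hcov
  lf := by
    intro x hx
    obtain ⟨r, hr, hf⟩ := X.lf x (hΩ hx)
    refine ⟨r, hr, Finite.subset (hf.preimage (f := φ) hinj.injOn) ?_⟩
    intro a ha
    show (K (φ a) ∩ ball x r).Nonempty
    rw [← hK]
    exact ha

end Emb

section Tile

variable {E : Type} [NormedAddCommGroup E] [NormedSpace ℝ E] [FiniteDimensional ℝ E]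
variable {Om : Set E} {ι : Type} {κ : Type} {T : Tiling Om ι} {KK : κ → Set E}

/-- the interior of a polyhedron with an interior point -/
theorem interior_P {E : Type*} [NormedAddCommGroup E] [NormedSpace ℝ E]
    {H : Finset ((E →L[ℝ] ℝ) × ℝ)} (hne : (I H).Nonempty) : interior (P H) = I H := by
  apply Subset.antisymm
  · intro x hx h hh
    obtain ⟨z, hz⟩ := hne
    have hxP : x ∈ P H := interior_subset hx
    by_contra hcon
    have e : h.1 x = h.2 := le_antisymm (hxP h hh) (not_lt.1 hcon)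
    have hc : ContinuousAt (fun s : ℝ => x + s • (x - z)) 0 := by fun_prop
    have hev : ∀ᶠ s in 𝓝 (0 : ℝ), x + s • (x - z) ∈ interior (P H) := by
      refine hc.eventually_mem (isOpen_interior.mem_nhds ?_)
      simpa using hx
    obtain ⟨r, hr, hr'⟩ := Metric.eventually_nhds_iff.1 hev
    have h1 : x + (r / 2) • (x - z) ∈ P H := interior_subset (hr' (by
      rw [Real.dist_eq, sub_zero, abs_of_pos (by positivity)]; linarith))
    have h2 := h1 h hh
    rw [map_add, map_smul, map_sub, e, smul_eq_mul] at h2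
    have h3 := hz h hh
    have h4 : 0 < r / 2 * (h.2 - h.1 z) := by
      apply mul_pos (by positivity); linarith
    linarith
  · exact interior_maximal (I_sub_P H) (isOpen_I H)

/-- a closed cell which meets an open tile is this tile -/
theorem eq_tile_of_mem {i : ι} {c : T.Cell} {y : E} (hy : y ∈ c.set) (hi : y ∈ I (T.H i)) :
    c.set = P (T.H i) := by
  apply Subset.antisymm
  · obtain ⟨j, hj⟩ := T.at_nonempty c.pt_mem
    have h1 : c.set ⊆ P (T.H j) := by rw [c.set_eq]; exact T.cc_sub_tile hj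
    have h2 : j ∈ T.at_ y := h1 hy
    rw [T.at_eq_singleton hi, mem_singleton_iff] at h2
    rw [← h2]; exact h1
  · rw [c.set_eq] at hy ⊢
    rw [← T.cc_eq_tile hi]
    exact T.cc_sub_of_mem hy

/-- the closed cell of `x` is the tile `i` only if `x` is in the open tile -/
theorem mem_I_of_cc_eq {i : ι} {x : E} (h : T.cc x = P (T.H i)) : x ∈ I (T.H i) := by
  obtain ⟨y, hy⟩ := T.ne i
  have hyO : y ∈ Om := T.sub i (I_sub_P _ hy)
  rw [← T.cc_eq_tile hy, T.cc_eq_iff hyO, T.oc_eq_tile hy] at h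
  exact h

variable {α : Type*} (tl : α → ι)

/-- the cell is not the 3-cell of a single tile core -/
def notTile (T : Tiling Om ι) (tl : α → ι) (c : T.Cell) : Prop := ∀ a, c.set ≠ P (T.H (tl a))

theorem notTile_down {c d : T.Cell} (h : c ≤ d) (hd : notTile T tl d) : notTile T tl c := by
  intro a hc
  obtain ⟨y, hy⟩ := T.ne (tl a)
  have h1 : y ∈ c.set := by rw [hc]; exact I_sub_P _ hy
  exact hd a (eq_tile_of_mem (Tiling.Cell.le_def.1 h h1) hy)

/-- **the set outside the open cores, cell by cell** -/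
theorem out_iff (hcl : ∀ k, IsClosed (KK k))
    (hs : ∀ k, ∀ x ∈ frontier (KK k), T.cc x ⊆ frontier (KK k)) {c : T.Cell} (h1 : OutK T KK c)
    (h2 : notTile T tl c) {x : E} (hx : x ∈ c.set) :
    (∀ k, x ∉ interior (KK k)) ∧ ∀ a, x ∉ interior (P (T.H (tl a))) := by
  refine ⟨fun k hk => ?_, fun a ha => ?_⟩
  · obtain ⟨i, hi, hc⟩ := h1
    rcases T.tile_dich (hcl k) (hs k) i with h | h
    · exact hi k h.1
    · exact Set.disjoint_left.1 h.2.2 (hc hx) hk
  · rw [interior_P (T.ne _)] at ha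
    exact h2 a (eq_tile_of_mem hx ha)

theorem exists_cell (hcl : ∀ k, IsClosed (KK k)) (hKO : ∀ k, KK k ⊆ Om)
    (hdis : ∀ k l, k ≠ l → Disjoint (KK k) (KK l)) {x : E} (hx : x ∈ Om)
    (h1 : ∀ k, x ∉ interior (KK k)) (h2 : ∀ a, x ∉ interior (P (T.H (tl a)))) :
    ∃ c : T.Cell, OutK T KK c ∧ notTile T tl c ∧ x ∈ c.set := by
  refine ⟨T.cl hx, ?_, ?_, by rw [T.cl_set]; exact T.self_mem_cc x⟩
  · by_cases h : ∃ k, x ∈ KK k
    · obtain ⟨k, hk⟩ := h
      have hfr : x ∈ frontier (KK k) := by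
        rw [(hcl k).frontier_eq]; exact ⟨hk, h1 k⟩
      obtain ⟨i, hi, hiK⟩ := T.exists_outer (hcl k) (hKO k) hfr
      refine ⟨i, fun l hl => ?_, by rw [T.cl_set]; exact T.cc_sub_tile hi⟩
      by_cases hkl : k = l
      · subst hkl; exact hiK hl
      · exact Set.disjoint_left.1 (hdis k l hkl) hk (hl hi)
    · push Not at h
      obtain ⟨i, hi⟩ := T.at_nonempty hx
      exact ⟨i, fun k hk => h k (hk hi), by rw [T.cl_set]; exact T.cc_sub_tile hi⟩
  · intro a ha
    rw [T.cl_set] at ha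
    refine h2 a ?_
    rw [interior_P (T.ne _)]
    exact mem_I_of_cc_eq ha

variable {F : Type*} {Kc : F → Set E}

/-- `⋃` of the open cores: the `Kc f` are the `KK k` and the tiles `tl a` -/
theorem mem_cores (hK : ∀ f, (∃ k, Kc f = KK k) ∨ ∃ a, Kc f = P (T.H (tl a)))
    (hKK : ∀ k, ∃ f, Kc f = KK k) (hKt : ∀ a, ∃ f, Kc f = P (T.H (tl a))) {x : E} :
    x ∈ (⋃ f, interior (Kc f))ᶜ ↔
      (∀ k, x ∉ interior (KK k)) ∧ ∀ a, x ∉ interior (P (T.H (tl a))) := by
  rw [mem_compl_iff, mem_iUnion, not_exists]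
  constructor
  · intro h
    refine ⟨fun k => ?_, fun a => ?_⟩
    · obtain ⟨f, hf⟩ := hKK k
      rw [← hf]; exact h f
    · obtain ⟨f, hf⟩ := hKt a
      rw [← hf]; exact h f
  · rintro ⟨h1, h2⟩ f
    rcases hK f with ⟨k, hk⟩ | ⟨a, ha⟩
    · rw [hk]; exact h1 k
    · rw [ha]; exact h2 a

/-- **THE COMPLEX OUTSIDE ALL OPEN CORES**, over any index type embedded in the cells with image
`OutK ∧ notTile` -/
theorem cplx_out (hcl : ∀ k, IsClosed (KK k))
    (hs : ∀ k, ∀ x ∈ frontier (KK k), T.cc x ⊆ frontier (KK k)) (hKO : ∀ k, KK k ⊆ Om)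
    (hdis : ∀ k l, k ≠ l → Disjoint (KK k) (KK l))
    (hK : ∀ f, (∃ k, Kc f = KK k) ∨ ∃ a, Kc f = P (T.H (tl a)))
    (hKK : ∀ k, ∃ f, Kc f = KK k) (hKt : ∀ a, ∃ f, Kc f = P (T.H (tl a)))
    {Q' : Type*} [PartialOrder Q'] {φ : Q' → T.Cell} (hinj : Function.Injective φ)
    (hlt : ∀ a b, a < b ↔ φ a < φ b) (hφ : ∀ c, (∃ b, φ b = c) ↔ OutK T KK c ∧ notTile T tl c)
    {dim' : Q' → ℕ} {K' : Q' → Set E} (hd : ∀ a, dim' a = (φ a).dim)
    (hset : ∀ a, K' a = (φ a).set) :
    Cplx (Om ∩ (⋃ f, interior (Kc f))ᶜ) Q' dim' K' := by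
  refine cplx_emb T.cplx hinj hlt ?_ inter_subset_left hd hset ?_ ?_
  · intro a j hj
    have h1 := (hφ (φ a)).1 ⟨a, rfl⟩
    obtain ⟨q, h3, h4⟩ := h1.1
    exact (hφ j).2 ⟨⟨q, h3, (Tiling.Cell.le_def.1 hj.le).trans h4⟩, notTile_down tl hj.le h1.2⟩
  · intro a x hx
    rw [hset] at hx
    have h1 := (hφ (φ a)).1 ⟨a, rfl⟩
    exact ⟨T.cplx.sub (φ a) hx, (mem_cores tl hK hKK hKt).2
      (out_iff tl hcl hs h1.1 h1.2 hx)⟩
  · rintro x ⟨hx, hxK⟩
    obtain ⟨h1, h2⟩ := (mem_cores tl hK hKK hKt).1 hxK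
    obtain ⟨c, hc1, hc2, hxc⟩ := exists_cell tl hcl hKO hdis hx h1 h2
    obtain ⟨b, rfl⟩ := (hφ c).2 ⟨hc1, hc2⟩
    exact ⟨b, by rw [hset]; exact hxc⟩

/-! ### over `lmO` -/

theorem notTileO_down (c d : {c : T.Cell // OutK T KK c}) (h : c ≤ d) (hd : notTile T tl d.1) :
    notTile T tl c.1 := notTile_down tl h hd

/-- the cell of an element of `{c // notTile c.1}` -/
def celO (T : Tiling Om ι) (KK : κ → Set E) (tl : α → ι)
    (c : {c : {c : T.Cell // OutK T KK c} // notTile T tl c.1}) : T.Cell := c.1.1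

theorem celO_inj : Function.Injective (celO T KK tl) := by
  intro a b h
  exact Subtype.ext (Subtype.ext h)

theorem celO_lt (a b : {c : {c : T.Cell // OutK T KK c} // notTile T tl c.1}) :
    a < b ↔ celO T KK tl a < celO T KK tl b := Iff.rfl

theorem celO_range (c : T.Cell) :
    (∃ b, celO T KK tl b = c) ↔ OutK T KK c ∧ notTile T tl c := by
  constructor
  · rintro ⟨b, rfl⟩
    exact ⟨b.1.2, b.2⟩
  · rintro ⟨h1, h2⟩
    exact ⟨⟨⟨c, h1⟩, h2⟩, rfl⟩

/-- over the cells of `(lmO ..).sub p`, `p c := notTile T tl c.1` -/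
theorem cplx_outO (hH : ∀ k, CoreH T (KK k)) (hdis : ∀ k l, k ≠ l → Disjoint (KK k) (KK l))
    (hK : ∀ f, (∃ k, Kc f = KK k) ∨ ∃ a, Kc f = P (T.H (tl a)))
    (hKK : ∀ k, ∃ f, Kc f = KK k) (hKt : ∀ a, ∃ f, Kc f = P (T.H (tl a))) :
    Cplx (Om ∩ (⋃ f, interior (Kc f))ᶜ)
      {c : {c : T.Cell // OutK T KK c} // notTile T tl c.1} (fun c => c.1.1.dim)
      (fun c => c.1.1.set) :=
  cplx_out (T := T) (KK := KK) (Kc := Kc) tl (fun k => (hH k).cpt.isClosed) (fun k => (hH k).cc)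
    (fun k => (hH k).sub) hdis hK hKK hKt (celO_inj tl) (celO_lt tl) (celO_range tl)
    (fun _ => rfl) (fun _ => rfl)

/-! ### over `lmK` -/

/-- not a giant and not the 3-cell of a single tile core -/
def pK (T : Tiling Om ι) (KK : κ → Set E) (tl : α → ι) : QK (belK T KK) → Prop
  | Sum.inl c => notTile T tl c.1
  | Sum.inr _ => False

theorem pK_down (c d : QK (belK T KK)) (h : c ≤ d) (hd : pK T KK tl d) : pK T KK tl c := by
  rcases c with c | k <;> rcases d with d | l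
  · exact notTile_down tl (show c.1 ≤ d.1 from h) hd
  · exact hd.elim
  · exact False.elim h
  · exact hd.elim

/-- the cell of an element of `{c // pK c}` -/
def celK (T : Tiling Om ι) (KK : κ → Set E) (tl : α → ι) :
    {c : QK (belK T KK) // pK T KK tl c} → T.Cell
  | ⟨Sum.inl c, _⟩ => c.1
  | ⟨Sum.inr _, h⟩ => h.elim

theorem celK_inj : Function.Injective (celK T KK tl) := by
  rintro ⟨a | a, ha⟩ ⟨b | b, hb⟩ h
  · have h' : a = b := Subtype.ext h
    subst h'; rfl
  · exact hb.elim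
  · exact ha.elim
  · exact ha.elim

theorem celK_lt (a b : {c : QK (belK T KK) // pK T KK tl c}) :
    a < b ↔ celK T KK tl a < celK T KK tl b := by
  obtain ⟨a | a, ha⟩ := a
  · obtain ⟨b | b, hb⟩ := b
    · exact QK.cc_lt (b := belK T KK) (c := a) (d := b)
    · exact hb.elim
  · exact ha.elim

theorem celK_range (c : T.Cell) :
    (∃ b, celK T KK tl b = c) ↔ OutK T KK c ∧ notTile T tl c := by
  constructor
  · rintro ⟨⟨b | b, hb⟩, rfl⟩
    · exact ⟨b.2, hb⟩
    · exact hb.elim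
  · rintro ⟨h1, h2⟩
    exact ⟨⟨Sum.inl ⟨c, h1⟩, h2⟩, rfl⟩

theorem celK_dim (a : {c : QK (belK T KK) // pK T KK tl c}) :
    dimK (belK T KK) (fun c => c.1.dim) a.1 = (celK T KK tl a).dim := by
  obtain ⟨a | a, ha⟩ := a
  · rfl
  · exact ha.elim

theorem celK_set (a : {c : QK (belK T KK) // pK T KK tl c}) :
    setK T KK a.1 = (celK T KK tl a).set := by
  obtain ⟨a | a, ha⟩ := a
  · rfl
  · exact ha.elim

/-- over the cells of `(lmK ..).sub p`, `p = pK T KK tl` -/
theorem cplx_outK (hH : ∀ k, CoreH T (KK k)) (hdis : ∀ k l, k ≠ l → Disjoint (KK k) (KK l))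
    (hK : ∀ f, (∃ k, Kc f = KK k) ∨ ∃ a, Kc f = P (T.H (tl a)))
    (hKK : ∀ k, ∃ f, Kc f = KK k) (hKt : ∀ a, ∃ f, Kc f = P (T.H (tl a))) :
    Cplx (Om ∩ (⋃ f, interior (Kc f))ᶜ) {c : QK (belK T KK) // pK T KK tl c}
      (fun c => dimK (belK T KK) (fun c => c.1.dim) c.1) (fun c => setK T KK c.1) :=
  cplx_out (T := T) (KK := KK) (Kc := Kc) tl (fun k => (hH k).cpt.isClosed) (fun k => (hH k).cc)
    (fun k => (hH k).sub) hdis hK hKK hKt (celK_inj tl) (celK_lt tl) (celK_range tl) (celK_dim tl)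
    (celK_set tl)

end Tile

end Crest.Agent.R096.Cpo_642
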