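import Crest.Agent.R096.Rpk1_714
import Crest.Agent.R096.Cin2_181
import Crest.Agent.R096.Bd18_416

/-!
# R096 (row 96), helper609: CORE-BLOCK, part 1

The exact cores of `Fin_147.fin_st`.

* `exists_kap` : the constants `κb, β, sg` of the exact cores from `e`;
* `NodeOK` : the hypotheses on the nodes of one core;
* `core_one` : one core: the chart `U = R ∘ th` of the whole tile, `e = rcR ∘ th` on the boundary, the
  Lipschitz bound of `st ∘ R`, `R = id` on the inner copy (714's `rel_pack'`).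
-/

set_option autoImplicit false
set_option linter.unusedSectionVars false
set_option linter.unusedVariables false
set_option linter.style.longLine false

open Set Metric

namespace Crest.Agent.R096.Crb_609

open Crest.Agent.R096.Ce_537 (PLOn PLEquiv plOn_affine)
open Crest.Agent.R096.Bd_416 Crest.Agent.R096.Grd_714
open Crest.Agent.R096.Xp_537 Crest.Agent.R096.Bin_181
open Crest.Agent.R096.Brk1_582 Crest.Agent.R096.Brk2_582 Crest.Agent.R096.Brk3_582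
open Crest.Agent.R096.Brk5_582 Crest.Agent.R096.Brk6_582
open Crest.Agent.R096.Bsp_628
open Crest.Agent.R096.SkC1_961 (E3 Hom3 FoamD Cfg th NN)
open Crest.Agent.R096.Msh_715
open Crest.Agent.R096.Cin_181 (thC thA thI thA_eq thI_th th_thI)
open Crest.Agent.R096.Ecm_446 (th_mem)

/-! ### the constants -/

/-- **the constants of the exact cores** (`β0 < 1/2` = a lower bound for the numbers `bt n := β`) -/
theorem exists_kap {e β0 : ℝ} (he : 0 < e) (hβ0 : β0 < 1/2) :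
    ∃ κb β sg : ℝ, 0 < κb ∧ κb ≤ 1/2 ∧ β0 ≤ β ∧ 1/4 ≤ β ∧ β < 1/2 ∧ 0 < sg ∧ sg ≤ 1/4 ∧
      3 * sg ≤ e ∧ ∀ κf : ℝ, κf = 1 - (1 - κb) * bet (fun _ => β) 4 →
        0 < κf ∧ κf < 1 ∧ 2 * κf ≤ sg ∧ κf / (1 - κf) < e := by
  set sg : ℝ := min (e / 3) (1/4) with hsg
  have h0 : 0 < sg := lt_min (by positivity) (by norm_num)
  have h1 : sg ≤ e / 3 := min_le_left _ _
  have h2 : sg ≤ 1/4 := min_le_right _ _
  set x : ℝ := min (sg / 32) (1 - 2 * β0) with hx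
  have x0 : 0 < x := lt_min (by positivity) (by linarith)
  have x1 : x ≤ sg / 32 := min_le_left _ _
  have x2 : x ≤ 1 - 2 * β0 := min_le_right _ _
  refine ⟨sg / 8, 1/2 - x / 2, sg, by positivity, by linarith, by linarith, by linarith,
    by linarith, h0, h2, by linarith, fun κf hκ => ?_⟩
  have hb : bet (fun _ => 1/2 - x / 2) 4 = (1 - x) ^ 4 := by
    unfold bet
    rw [Finset.prod_const, Finset.card_range]
    ring
  rw [hb] at hκ
  have hB : 1 - 4 * x ≤ (1 - x) ^ 4 := by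
    have := one_add_mul_le_pow (a := -x) (by linarith) 4
    have e0 : (1 : ℝ) + -x = 1 - x := by ring
    rw [e0] at this
    push_cast at this
    linarith
  have hB' : (1 - x) ^ 4 < 1 := pow_lt_one₀ (by linarith) (by linarith) (by norm_num)
  have hB0 : 0 < (1 - x) ^ 4 := pow_pos (by linarith) 4
  have u1 : κf ≤ sg / 4 := by
    have : (1 - sg / 8) * (1 - 4 * x) ≤ (1 - sg / 8) * (1 - x) ^ 4 :=
      mul_le_mul_of_nonneg_left hB (by linarith)
    rw [hκ]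
    nlinarith
  have u2 : 0 < κf := by
    rw [hκ]
    nlinarith
  refine ⟨u2, by linarith, by linarith, ?_⟩
  have u4 : 0 < 1 - κf := by linarith
  rw [div_lt_iff₀ u4]
  nlinarith

/-! ### one core -/

section core

variable {δ κ0 R c0 : ℝ} {La Om : Set E3} {ι : Type} {Φ : FoamD δ κ0 R c0 La}
  {Tl : Tiling Om ι} {f : E3 → E3} {κ1 κ2 : ℝ} {c : Φ.F} {i : ι} {A : E3 ≃ᵃ[ℝ] E3} {lam : ℝ} {z : E3}

/-- **the hypotheses on the nodes of the core `c`** (`M`-mesh, `m` sheets, inner copy `1 - s`) -/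
structure NodeOK (Φ : FoamD δ κ0 R c0 La) (m : Φ.F → ℕ) (s : ℝ) (c : Φ.F) (M : ℕ)
    (n : Φ.F → ℕ → ℝ) : Prop where
  M0 : 0 < M
  sm : ∀ a, StrictMono (n a)
  z0 : ∀ a, n a 0 = 0
  nm : ∀ a, n a M = m a
  near : ∀ a : Φ.F, (Pc Φ.F a ∩ Pc Φ.F c).Nonempty →
    (∀ i < M, n a (i + 1) - n a i ≤ 4 * m a / M) ∧
    (∀ j ≤ M, |n a j / m a - (j : ℝ) / M| ≤ s / 2) ∧ 1 ≤ s / 2 * m a

/-- the whole exact map as a PL equivalence -/
noncomputable def thU (h : Mbf_337.Exact Φ Tl f κ1 κ2 c i A lam z) :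
    PLEquiv (P (Tl.H i)) (Pc Φ.F c) where
  f := th A lam z
  g := thI A lam z
  pf := (plOn_affine (thA A lam z) _).congr fun x _ => (thA_eq x).symm
  pg := plOn_affine (thI A lam z) _
  mf := fun x hx => (th_mem h).1 hx
  mg := fun y hy => (th_mem h).2 (by rw [th_thI h.lam0.ne']; exact hy)
  li := fun x _ => thI_th h.lam0.ne' x
  ri := fun y _ => th_thI h.lam0.ne' y

/-- **one exact core** -/
theorem core_one (hLa : IsOpen La) (hδ : 0 < δ) (hR : 0 < R)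
    (h : Mbf_337.Exact Φ Tl f κ1 κ2 c i A lam z) {m : Φ.F → ℕ} (hm : ∀ a, 0 < m a)
    (hne : ∀ c : Φ.F, (Pc Φ.F c).Nonempty) {s : ℝ} (hs : 0 < s) (hs1 : s < 1) {M : ℕ}
    {n : Φ.F → ℕ → ℝ} (hn : NodeOK Φ m s c M n) :
    ∃ (Rc : E3 → E3) (U : PLEquiv (P (Tl.H i)) (Pc Φ.F c)),
      (∀ x, U.f x = Rc (th A lam z x)) ∧
      (∀ x ∈ P (Tl.H i), x ∈ frontier (P (Tl.H i)) ↔
        U.f x ∈ bdP (Pc Φ.F) (bc (F := Φ.F)) m c) ∧
      (∀ x ∈ frontier (P (Tl.H i)), ((thC hLa h (m' := fun _ => M) (fun _ => hn.M0)).trans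
        (rcR (m' := fun _ => M) hn.sm hn.z0 hn.nm (foam Φ.bf hLa) (quads_box Φ.bf (by simp))
          (fun _ => hn.M0) hm c)).f x = U.f x) ∧
      (∀ y ∈ bdP (Pc Φ.F) (bc (F := Φ.F)) m c, ((thC hLa h (m' := fun _ => M) (fun _ => hn.M0)).trans
        (rcR (m' := fun _ => M) hn.sm hn.z0 hn.nm (foam Φ.bf hLa) (quads_box Φ.bf (by simp))
          (fun _ => hn.M0) hm c)).g y = U.g y) ∧
      (∀ u ∈ Pc Φ.F c, Rc ((1 - s) • u + s • bc {c}) = (1 - s) • u + s • bc {c}) ∧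
      ∀ κ', 0 < κ' → 2 * κ' ≤ s → ∀ y ∈ Pc Φ.F c, ∀ y' ∈ Pc Φ.F c,
        ‖st (grid (foam Φ.bf hLa) (quads_box Φ.bf (by simp)) hne hm) κ' (Rc y) -
          st (grid (foam Φ.bf hLa) (quads_box Φ.bf (by simp)) hne hm) κ' (Rc y')‖ ≤
          Rpk_714.Spk δ κ0 R * ‖y - y'‖ := by
  have h3 : Fintype.card (Fin 3) = 3 := by simp
  obtain ⟨Rc, r1, -, r3, -, -, r6⟩ := Rpk_714.rel_pack' h3 hδ hR hs hs1 Φ.bf hLa Φ.cmp hm hn.M0 hn.sm
    hn.z0 hn.nm c hn.near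
  set rc := rcR (m' := fun _ => M) hn.sm hn.z0 hn.nm (foam Φ.bf hLa) (quads_box Φ.bf (by simp))
    (fun _ => hn.M0) hm c with hrc
  have hbP : ∀ {m' : Φ.F → ℕ}, (∀ a, 0 < m' a) → ∀ y ∈ bdP (Pc Φ.F) (bc (F := Φ.F)) m' c,
      y ∈ Pc Φ.F c := by
    intro m' hm' y hy
    rw [bdP_eq (foam Φ.bf hLa) (quads_box Φ.bf (by simp)) hm'] at hy
    exact hy.1
  have hfr : frontier (P (Tl.H i)) ⊆ P (Tl.H i) := (Tl.cpt i).isClosed.frontier_subset
  have e1 : ∀ x ∈ frontier (P (Tl.H i)), rc.f (th A lam z x) = Rc.f (th A lam z x) := fun x hx =>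
    (r1 _ ((thC hLa h (m' := fun _ => M) (fun _ => hn.M0)).mf hx)).symm
  have hU : ∀ x ∈ frontier (P (Tl.H i)), Rc.f (th A lam z x) ∈ bdP (Pc Φ.F) (bc (F := Φ.F)) m c := by
    intro x hx
    rw [← e1 x hx]
    exact rc.mf ((thC hLa h (m' := fun _ => M) (fun _ => hn.M0)).mf hx)
  refine ⟨Rc.f, (thU h).trans Rc, fun x => rfl, fun x hx => ⟨fun hx' => hU x hx', fun hx' => ?_⟩,
    fun x hx => e1 x hx, fun y hy => ?_, r3, fun κ' k1 k2 y hy y' hy' => ?_⟩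
  · -- back to the boundary
    have hx'' : Rc.f (th A lam z x) ∈ bdP (Pc Φ.F) (bc (F := Φ.F)) m c := hx'
    obtain ⟨w, hw, hwe⟩ : ∃ w ∈ bdP (Pc Φ.F) (bc (F := Φ.F)) (fun _ => M) c,
        rc.f w = Rc.f (th A lam z x) := ⟨rc.g _, rc.mg hx'', rc.ri _ hx''⟩
    rw [← r1 w hw] at hwe
    have h4 : w = th A lam z x := by
      have h5 := Rc.li w (hbP (fun _ => hn.M0) w hw)
      rw [hwe, Rc.li _ ((th_mem h).1 hx)] at h5
      exact h5.symm
    rw [h4] at hw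
    exact (Cin_181.th_mem_bd hLa h (m' := fun _ => M) (fun _ => hn.M0)).2 hw
  · -- the inverses
    show thI A lam z (rc.g y) = thI A lam z (Rc.g y)
    have h4 := rc.mg hy
    have h5 : Rc.f (rc.g y) = y := by rw [r1 _ h4]; exact rc.ri y hy
    have h6 := Rc.li _ (hbP (fun _ => hn.M0) _ h4)
    rw [h5] at h6
    rw [h6]
  · exact r6 κ' k1 (by linarith) y hy y' hy'

end core

end Crest.Agent.R096.Crb_609
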