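import Crest.Agent.R096.Xr2_537
import Crest.Agent.R096.Bin6_181

/-!
# R096 (row 96), type R cores, part 3 (helper537)

`eqAt_R`: on the boundary of a type R core the merged structure of the mesh (416's recursion over
181's base, squeezed `n` times) is the exact core structure with the larger parameter `κf`
(`1 - κf = (1 - κ0) * bet β n`), given SQ-EXACT (147 / 181).
`bg_R`: the agreement clause of `GMach` / `Mach`.
-/

set_option autoImplicit false
set_option linter.unusedSectionVars false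
set_option linter.unusedVariables false
set_option linter.deprecated false

open Set Topology

namespace Crest.Agent.R096.Xr_537

open Crest.Agent.R096.Ce_537 (PLOn PLEquiv)
open Crest.Agent.R096.Bd_416
open Crest.Agent.R096.Brk1_582 Crest.Agent.R096.Brk2_582 Crest.Agent.R096.Brk6_582
open Crest.Agent.R096.Grd_714
open Crest.Agent.R096.Bin_181
open Crest.Agent.R096.Xp_537

variable {E V : Type*} [NormedAddCommGroup E] [NormedSpace ℝ E]
  [NormedAddCommGroup V] [NormedSpace ℝ V] {I J : Type*}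
  {b : Set I → E} {P : I → Set E} {m : I → ℕ} {La : Set E}

/-- **SQ-EXACT** (helper147): a squeezed exact structure is exact -/
def SqEx (C : CC La (Cel P m)) (b : Set I → E) (c : Cel P m) : Prop :=
  ∀ κ β : ℝ, 0 < κ → κ < 1 → 0 < β → β < 1/2 → ∀ q : Gx P m, ∀ y ∈ C.cell (.gr q),
    EqAt ((ek C b κ c).sq β) (ek C b (1 - (1 - κ) * (2 * β)) c) y

/-- pull back and squeeze commute -/
lemma pulg_sq {g : Gd E I} {f : V → E} {fi : E → V} (β : ℝ) (z : V) :
    EqAt (pulg (g.sq β) f fi) ((pulg g f fi).sq β) z :=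
  ⟨fun _ => rfl, fun _ => Iff.rfl, fun _ _ => rfl, fun _ _ _ _ => rfl⟩

/-- the factor of the final parameter -/
lemma kf_pos {κ0 β : ℝ} (h : 0 < κ0 ∧ κ0 < 1) (hβ : 0 < β) (hβ1 : β ≤ 1) :
    0 < 1 - (1 - κ0) * β ∧ 1 - (1 - κ0) * β < 1 := by
  have h1 : 0 < 1 - κ0 := by linarith [h.2]
  constructor
  · nlinarith [h.1]
  · nlinarith

variable [CompleteSpace E] (F : Foam La P b 4) (hQ : Quads P b)
  (hne : ∀ c, (P c).Nonempty) (hm : ∀ c, 0 < m c)

/-- **the merged mesh structure on the boundary of a type R core** -/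
theorem eqAt_R {κ0 : ℝ} (hκ : 0 < κ0 ∧ κ0 < 1) (c : Cel P m) {fa : J → I} {lv : J → ℕ}
    (hinj : ∀ j j', fa j = fa j' → lv j = lv j' → j = j')
    (hlt : ∀ j, lv j < m (fa j)) (hsur : ∀ a k, k < m a → ∃ j, fa j = a ∧ lv j = k)
    (hf : ∀ a, {j | fa j = a}.Finite) {S : Set V} {T : Set E} (e : PLEquiv S T)
    {A : Set V} (hmem : ∀ z ∈ A, ∃ q : Gx P m, e.f z ∈ (grid F hQ hne hm).cell (.gr q))
    {g0 g : Gd V J} (h0 : ∀ z ∈ A, EqAt (ekS (grid F hQ hne hm) b κ0 c fa lv e) g0 z)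
    {β : ℕ → ℝ} (hb0 : ∀ n, 0 < β n) (hb2 : ∀ n, β n < 1/2) (n : ℕ)
    (hg : ∀ z ∈ A, EqAt (sqs g0 β (n + 1)) g z)
    (hsq : SqEx (grid F hQ hne hm) b c) {z : V} (hz : z ∈ A) :
    EqAt (gdT (Tq b m) (co P b m)
        (cG (grid F hQ hne hm) (1 - (1 - κ0) * bet β (n + 1)) e.f)
        (ctop (grid F hQ hne hm) (1 - (1 - κ0) * bet β (n + 1)) c e.f)
        (ctr (grid F hQ hne hm) (1 - (1 - κ0) * bet β (n + 1)) e.f e.g)) (g.merge fa hf) z := by
  set C := grid F hQ hne hm with hC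
  -- the half factor
  have hβ := bet_pos hb0 (n + 1)
  have hβ2 : bet β (n + 1) / 2 < 1 / 2 := by
    have h3 := bet_le hb0 hb2 n
    have h4 := hb2 n
    have h5 := hb0 n
    have h6 := bet_pos hb0 n
    rw [bet_succ]
    nlinarith
  have hβ0 : 0 < bet β (n + 1) / 2 := by linarith
  -- disjointness of the sheets of a family
  have dj' : ∀ j j', j ≠ j' → fa j = fa j' → z ∈ (ekS C b κ0 c fa lv e).B j →
      z ∉ (ekS C b κ0 c fa lv e).B j' := by
    intro j j' hne' hf hz hz'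
    rw [ekS_B] at hz hz'
    apply hne'
    refine hinj j j' hf ?_
    have h1 := hz.2
    rw [hf, hz'.2] at h1
    exact_mod_cast h1.symm
  have dj : ∀ j j', j ≠ j' → fa j = fa j' → z ∈ g0.B j → z ∉ g0.B j' :=
    fun j j' hne hf h1 h2 => dj' j j' hne hf (((h0 z hz).B j).1 h1) (((h0 z hz).B j').1 h2)
  -- 1, 2, 3: merge of the final structure = squeeze of the merged base
  have s1 : EqAt ((sqs g0 β (n + 1)).merge fa hf) (g.merge fa hf) z := EqAt.merge (hg z hz)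
  have s2 : EqAt (sqs (g0.merge fa hf) β (n + 1)) ((sqs g0 β (n + 1)).merge fa hf) z :=
    merge_sqs dj hb0 hb2 (n + 1)
  have s3 : EqAt ((g0.merge fa hf).sq (bet β (n + 1) / 2)) (sqs (g0.merge fa hf) β (n + 1)) z :=
    sqs_eq (g0.merge fa hf) hb0 hb2 z n
  -- 4: the merged base
  have s4 : EqAt (((ekS C b κ0 c fa lv e).merge fa hf).sq (bet β (n + 1) / 2))
      ((g0.merge fa hf).sq (bet β (n + 1) / 2)) z := (EqAt.merge (h0 z hz)).sq hβ0 hβ2
  have s5 : EqAt (pulg (ek C b κ0 c) e.f e.g) ((ekS C b κ0 c fa lv e).merge fa hf) z :=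
    (gdT_core C κ0 c e.f e.g z).trans
      ((merge_eqs' F hQ hne hm hκ c e hinj hlt hsur hf hmem).eqAt hz)
  have s6 : EqAt ((pulg (ek C b κ0 c) e.f e.g).sq (bet β (n + 1) / 2))
      (((ekS C b κ0 c fa lv e).merge fa hf).sq (bet β (n + 1) / 2)) z := s5.sq hβ0 hβ2
  -- 5: SQ-EXACT
  obtain ⟨q, hq⟩ := hmem z hz
  have e1 : 1 - (1 - κ0) * (2 * (bet β (n + 1) / 2)) = 1 - (1 - κ0) * bet β (n + 1) := by ring
  have s7 : EqAt (ek C b (1 - (1 - κ0) * bet β (n + 1)) c)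
      ((ek C b κ0 c).sq (bet β (n + 1) / 2)) (e.f z) := by
    have := hsq κ0 (bet β (n + 1) / 2) hκ.1 hκ.2 hβ0 hβ2 q (e.f z) hq
    rw [e1] at this
    exact this.symm
  have s8 : EqAt (pulg (ek C b (1 - (1 - κ0) * bet β (n + 1)) c) e.f e.g)
      ((pulg (ek C b κ0 c) e.f e.g).sq (bet β (n + 1) / 2)) z :=
    (pulg_congr s7).trans (pulg_sq _ z)
  have s9 := (gdT_core (b := b) C (1 - (1 - κ0) * bet β (n + 1)) c e.f e.g z).symm
  exact s9.trans (s8.trans (s6.trans (s4.trans (s3.trans (s2.trans s1)))))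

/-- **the agreement clause for a type R core** -/
theorem bg_R [FiniteDimensional ℝ E] (q0 : Cel P m) (X : GridOK (grid F hQ hne hm) (Tq b m) (co P b m))
    {κ0 : ℝ} (hκ : 0 < κ0 ∧ κ0 < 1) (c : Cel P m) {fa : J → I} {lv : J → ℕ}
    (hinj : ∀ j j', fa j = fa j' → lv j = lv j' → j = j')
    (hlt : ∀ j, lv j < m (fa j)) (hsur : ∀ a k, k < m a → ∃ j, fa j = a ∧ lv j = k)
    (hf : ∀ a, {j | fa j = a}.Finite)
    {β : ℕ → ℝ} (hb0 : ∀ n, 0 < β n) (hb2 : ∀ n, β n < 1/2) (n : ℕ)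
    {κf : ℝ} (hκfd : κf = 1 - (1 - κ0) * bet β (n + 1)) {K : Set V}
    (Th : PLEquiv K (coreF (grid F hQ hne hm) κf c 0))
    {g0 g : Gd V J} {Z : Set V} (hK : IsClosed K) (hZc : IsClosed Z)
    {S : Set V} {T : Set E} (e : PLEquiv S T) (hS : ∀ z ∈ Z, z ∈ K → z ∈ S)
    (he : ∀ z ∈ S, e.f z = Th.f z) (hei : ∀ y ∈ T, e.g y = Th.g y)
    (hbd : ∀ z ∈ Z, z ∈ K → sl (grid F hQ hne hm) κf (Th.f z) c = 0)
    (hmem : ∀ z ∈ Z, z ∈ K → ∃ q : Gx P m, Th.f z ∈ (grid F hQ hne hm).cell (.gr q) ∧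
      (grid F hQ hne hm).cell (.gr q) ⊆ T)
    (h0 : ∀ z ∈ Z, z ∈ K → EqAt (ekS (grid F hQ hne hm) b κ0 c fa lv e) g0 z)
    (hg : ∀ z ∈ Z, z ∈ K → EqAt (sqs g0 β (n + 1)) g z)
    (hsq : SqEx (grid F hQ hne hm) b c)
    {gm : Gd V I} (hgm : ∀ z ∈ Z, z ∈ K → EqAt gm (g.merge fa hf) z)
    (hIs : gm.Is Z) (hcol : (cols gm m Z).Finite)
    (hG : ∀ x ∈ Z, (fun a => gm.G a x) ∈ G2 P m)
    (hff : ∀ q : Gx P m, q.free.Finite) {x : V} (hx : x ∈ Z) (hxK : x ∈ K) :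
    gG (Tq b m) gm x
        = cG (grid F hQ hne hm) κf Th.f x ∧
      gtop hm q0 gm x
        = ctop (grid F hQ hne hm) κf c Th.f x ∧
      ∀ t ∈ (grid F hQ hne hm).cell (gtop hm q0 gm x),
        gtr (co P b m) gm x t
          = ctr (grid F hQ hne hm) κf Th.f Th.g x t := by
  have hκf : 0 < κf ∧ κf < 1 := by
    rw [hκfd]; exact kf_pos hκ (bet_pos hb0 (n + 1)) (bet_le hb0 hb2 (n + 1))
  refine bg_of_eqAt X hm q0 hff hκf one_pos Th hIs hZc hK hcol hG
    (fun z hz => ⟨hz.2, hbd z hz.1 hz.2⟩) (fun z hz hzK => ?_) hx hxK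
  have key := eqAt_R F hQ hne hm hκ c hinj hlt hsur hf e (A := Z ∩ K)
    (fun z hz => by
      rw [he z (hS z hz.1 hz.2)]
      obtain ⟨q, h1, -⟩ := hmem z hz.1 hz.2
      exact ⟨q, h1⟩)
    (fun z hz => h0 z hz.1 hz.2) hb0 hb2 n (fun z hz => hg z hz.1 hz.2) hsq
    (z := z) ⟨hz, hzK⟩
  rw [← hκfd] at key
  refine (hgm z hz hzK).trans (key.symm.trans ?_)
  -- from `e` to `Th`
  have hzS := hS z hz hzK
  have hez := he z hzS
  refine ⟨fun a => ?_, fun a => ?_, fun a hB => ?_, fun a hB s hs => ?_⟩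
  · show co P b m (st (grid F hQ hne hm) κf (Th.f z)) a = co P b m (st (grid F hQ hne hm) κf (e.f z)) a
    rw [hez]
  · show a ∈ Xp_537.fre (mn c (sl (grid F hQ hne hm) κf (Th.f z))) ↔ a ∈ Xp_537.fre (mn c (sl (grid F hQ hne hm) κf (e.f z)))
    rw [hez]
  · show Xp_537.lof (mn c (sl (grid F hQ hne hm) κf (Th.f z))) a = Xp_537.lof (mn c (sl (grid F hQ hne hm) κf (e.f z))) a
    rw [hez]
  · classical
    show Th.g (pk (grid F hQ hne hm) κf (sl (grid F hQ hne hm) κf (Th.f z)) (Tq b m (Function.update (co P b m (st (grid F hQ hne hm) κf (Th.f z))) a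
      (Xp_537.lof (mn c (sl (grid F hQ hne hm) κf (Th.f z))) a + 1/2 + s)))) =
      e.g (pk (grid F hQ hne hm) κf (sl (grid F hQ hne hm) κf (e.f z)) (Tq b m (Function.update (co P b m (st (grid F hQ hne hm) κf (e.f z))) a
      (Xp_537.lof (mn c (sl (grid F hQ hne hm) κf (e.f z))) a + 1/2 + s))))
    rw [hez]
    refine (hei _ ?_).symm
    obtain ⟨q, hq, hqT⟩ := hmem z hz hzK
    refine hqT ?_
    have hB' : Th.f z ∈ (ek (grid F hQ hne hm) b κf c).B a := by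
      show a ∈ Bin_181.fr (mn c (sl (grid F hQ hne hm) κf (Th.f z)))
      rw [← fre_eq, ← hez]
      exact hB
    have h3 := (tr_spec F hQ hne hm hκf c hq hB' hs).1
    have h4 : (ek (grid F hQ hne hm) b κf c).tr a (Th.f z, s) = pk (grid F hQ hne hm) κf (sl (grid F hQ hne hm) κf (Th.f z)) (Tq b m
      (Function.update (co P b m (st (grid F hQ hne hm) κf (Th.f z))) a
        (Xp_537.lof (mn c (sl (grid F hQ hne hm) κf (Th.f z))) a + 1/2 + s))) := by
      rw [lof_eq]; rfl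
    rw [← h4]
    exact h3

end Crest.Agent.R096.Xr_537
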