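import Crest.Agent.R096.Fin4_147
import Crest.Agent.R096.Xr3_537
import Crest.Agent.R096.Bin10_181
import Crest.Agent.R096.Gia2_537

/-!
# R096 (row 96), bottom assembly, part 5 (helper147): TYPE R cores

`bdc_top` : the boundary of a top cell of the grid.
`chart_R` : the chart of an exact core, from the base on its boundary (181) and 416's squeeze.
-/

set_option autoImplicit false
set_option linter.unusedSectionVars false
set_option linter.unusedVariables false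
set_option linter.style.longLine false

open Set Filter Topology Metric Module

namespace Crest.Agent.R096.Fin_147

open Crest.Agent.R096.Ce_537 (PLOn PLEquiv cube sph IsBall Cplx)
open Crest.Agent.R096.Bd_416 Crest.Agent.R096.Grd_714 Crest.Agent.R096.Mg_441
open Crest.Agent.R096.Xp_537 Crest.Agent.R096.Bin_181
open Crest.Agent.R096.Brk1_582 Crest.Agent.R096.Brk2_582 Crest.Agent.R096.Brk6_582
open Crest.Agent.R096.As_241 (below bdc)


variable {Q : Type} [PartialOrder Q] {dim : Q → ℕ} {J Fam : Type}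
variable {E' : Type*} [NormedAddCommGroup E'] [NormedSpace ℝ E']
variable {E : Type*} [NormedAddCommGroup E] [NormedSpace ℝ E] {Pf : Fam → Set E}
variable [FiniteDimensional ℝ E] [CompleteSpace E]
variable {Λ : Set E} {b : Set Fam → E}

section bdry

variable {m : Fam → ℕ} (F : Foam Λ Pf b 4) (hQ : Quads Pf b) (hne : ∀ c, (Pf c).Nonempty)
  (hm : ∀ c, 0 < m c)

lemma mem_bdP {a : Fam} {y : E} (hy : y ∈ bdP Pf b m a) :
    ∃ q : Gx Pf m, q.hi a = 0 ∧ y ∈ (grid F hQ hne hm).cell (.gr q) := by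
  obtain ⟨v, ⟨hv, hb⟩, rfl⟩ := hy
  have h0 : v a = 0 := by
    have h1 := (hb a).2
    rw [Hc_self] at h1
    exact le_antisymm (by simpa using h1) (G2_nonneg hm hv a)
  refine ⟨flb hm v hv, ?_, ?_⟩
  · show ⌈v a⌉₊ = 0
    rw [h0]; simp
  · rw [grid_cell_gr]
    exact ⟨v, (flb_mem_obx hm hv).1, rfl⟩

lemma cell_sub_bdP {a : Fam} {q : Gx Pf m} (hq : q.hi a = 0) :
    (grid F hQ hne hm).cell (.gr q) ⊆ bdP Pf b m a := by
  rw [grid_cell_gr]
  rintro _ ⟨v, hv, rfl⟩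
  have hG := q.bx_sub hm hv
  refine ⟨v, ⟨hG, fun c => ⟨by simpa using G2_nonneg hm hG c, ?_⟩⟩, rfl⟩
  by_cases h : c = a
  · subst h
    rw [Hc_self, Gx.zero_of_bx hv hq]; simp
  · rw [Hc_ne m h]; exact G2_le hm hG c

/-- **the boundary of a top cell** -/
lemma bdc_top (a : Fam) : bdc (grid F hQ hne hm) (.top a) = bdP Pf b m a := by
  ext y
  constructor
  · intro hy
    obtain ⟨⟨q, hq⟩, hy⟩ := mem_iUnion.1 hy
    cases q with
    | top c => exact absurd hq Cel.not_top_lt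
    | gr q => exact cell_sub_bdP F hQ hne hm (Cel.gr_lt_top.1 hq) hy
  · intro hy
    obtain ⟨q, hq, hyq⟩ := mem_bdP F hQ hne hm hy
    exact mem_iUnion.2 ⟨⟨.gr q, Cel.gr_lt_top.2 hq⟩, hyq⟩

end bdry

variable {Cc : Cmb Q dim J Fam} {K : Q → Set E'} {g : Gd E' J}
  {P : ∀ q, Cc.I q → Set E'} {c : ∀ q, Cc.I q → E' → ℝ}
variable {hfin : ∀ a, {j | Cc.fam j = a}.Finite}
  (F : Foam Λ Pf b 4) (hQ : Quads Pf b) (hne : ∀ c, (Pf c).Nonempty)
  (hm : ∀ a, 0 < mm hfin a)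

/-- **TYPE R**: the chart of an exact core -/
theorem chart_R (H : Inv Cc K univ g P c) (q0 : Cel Pf (mm hfin))
    {lv : J → ℕ} (hinj : ∀ j j', Cc.fam j = Cc.fam j' → lv j = lv j' → j = j')
    (hlt : ∀ j, lv j < mm hfin (Cc.fam j))
    (hsur : ∀ a k, k < mm hfin a → ∃ j, Cc.fam j = a ∧ lv j = k)
    {κ0 : ℝ} (hκ : 0 < κ0 ∧ κ0 < 1) {β : ℕ → ℝ} (hb0 : ∀ n, 0 < β n)
    (hb2 : ∀ n, β n < 1/2) (n : ℕ) {κf : ℝ} (hκf : κf = 1 - (1 - κ0) * bet β (n + 1))
    {a : Fam} {K0 : Set E'} (hK0 : IsClosed K0) (U : PLEquiv K0 (Pf a))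
    (hU : ∀ x ∈ K0, x ∈ frontier K0 ↔ U.f x ∈ bdP Pf b (mm hfin) a)
    (e : PLEquiv (frontier K0) (bdP Pf b (mm hfin) a))
    (he : ∀ x ∈ frontier K0, e.f x = U.f x) (hei : ∀ y ∈ bdP Pf b (mm hfin) a, e.g y = U.g y)
    (hmesh : ∀ x ∈ frontier K0, ∃ q, x ∈ K q ∧ K q ⊆ frontier K0 ∧ IsClosed (K q) ∧
      ∃ y, Ex Cc Pf q y)
    {g0 : Gd E' J}
    (h0 : ∀ x ∈ frontier K0, EqAt (ekS (grid F hQ hne hm) b κ0 (.top a) Cc.fam lv e) g0 x)
    (hg : ∀ x ∈ frontier K0, EqAt (sqs g0 β (n + 1)) g x) :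
    ∃ Th : PLEquiv K0 (coreF (grid F hQ hne hm) κf (.top a) 0),
      (∀ x ∈ K0, Th.f x = U.f x) ∧
      (∀ x ∈ K0, x ∈ frontier K0 ↔ sl (grid F hQ hne hm) κf (Th.f x) (.top a) = 0) ∧
      ∀ x ∈ frontier K0,
        gG (Tq b (mm hfin)) (merge hfin g) x = cG (grid F hQ hne hm) κf Th.f x ∧
        gtop hm q0 (merge hfin g) x = ctop (grid F hQ hne hm) κf (.top a) Th.f x ∧
        ∀ t ∈ (grid F hQ hne hm).cell (gtop hm q0 (merge hfin g) x),
          gtr (co Pf b (mm hfin)) (merge hfin g) x t = ctr (grid F hQ hne hm) κf Th.f Th.g x t := by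
  classical
  have OK : GridOK (grid F hQ hne hm) (Tq b (mm hfin)) (co Pf b (mm hfin)) := gridOK F hQ hne hm
  have hκf1 : 0 < κf ∧ κf < 1 := by
    rw [hκf]; exact Xr_537.kf_pos hκ (bet_pos hb0 (n + 1)) (bet_le hb0 hb2 (n + 1))
  -- the target is the whole cell
  have hcore : coreF (grid F hQ hne hm) κf (.top a) 0 = Pf a := by
    ext y
    constructor
    · rintro ⟨h1, -⟩; rwa [grid_cell_top] at h1
    · intro h1
      have h1' : y ∈ (grid F hQ hne hm).cell (.top a) := by rw [grid_cell_top]; exact h1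
      obtain ⟨k1, -, -⟩ := Xp_537.st_spec (grid F hQ hne hm) hκf1 h1'
      exact ⟨h1', k1.wt.nn _⟩
  let Th : PLEquiv K0 (coreF (grid F hQ hne hm) κf (.top a) 0) :=
    U.restr (A' := K0) (B' := coreF (grid F hQ hne hm) κf (.top a) 0) subset_rfl
      (by rw [hcore]) (by rw [hcore]; exact U.mf) (by rw [hcore]; exact U.mg)
  have hThf : ∀ x, Th.f x = U.f x := fun x => rfl
  have hThg : ∀ y, Th.g y = U.g y := fun y => rfl
  have hbd : ∀ x ∈ K0, x ∈ frontier K0 ↔ sl (grid F hQ hne hm) κf (Th.f x) (.top a) = 0 := by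
    intro x hx
    have h1 : U.f x ∈ (grid F hQ hne hm).cell (.top a) := by rw [grid_cell_top]; exact U.mf hx
    rw [hU x hx, hThf, As_241.sl_zero_iff hκf1 h1, bdc_top]
  have hfr : frontier K0 ⊆ K0 := hK0.frontier_subset
  refine ⟨Th, fun x _ => rfl, hbd, fun x hx => ?_⟩
  obtain ⟨q, hxq, hqf, hqc, y, hy⟩ := hmesh x hx
  have hff : ∀ q : Gx Pf (mm hfin), q.free.Finite := fun q => q.free_fin F hm
  have hIs := H.merge_is hfin (mem_univ q)
  have hIs' := inv_merge_is H hfin (mem_univ q)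
  have hG2 : ∀ z ∈ K q, (fun a => (merge hfin g).G a z) ∈ G2 Pf (mm hfin) := fun z hz =>
    Nr_527.merge_mem_G2 H hfin hm (mem_univ q) hz hy
  have hcols : (cols (merge hfin g) (mm hfin) (K q)).Finite :=
    Gia_537.cols_fin F H (mem_univ q) hy
  have key := Xr_537.bg_R F hQ hne hm q0 OK hκ (.top a) hinj hlt hsur hfin hb0 hb2 n hκf Th
    (g0 := g0) (g := g) (Z := K q) hK0 hqc e (fun z hz _ => hqf hz)
    he hei
    (fun z hz hzK => (hbd z hzK).1 (hqf hz))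
    (fun z hz hzK => by
      obtain ⟨q', h1, h2⟩ := mem_bdP F hQ hne hm ((hU z hzK).1 (hqf hz))
      exact ⟨q', h2, cell_sub_bdP F hQ hne hm h1⟩)
    (fun z hz _ => h0 z (hqf hz)) (fun z hz _ => hg z (hqf hz))
    (fun κ β hκ0 hκ1 hβ0 hβ1 q' y' hy' => sq_exact F hQ hne hm (.top a) ⟨hκ0, hκ1⟩ hβ0 hβ1
      (by ring) hy')
    (fun z hz _ => Gia_537.merge_agree H (mem_univ q) hz) hIs' hcols hG2 hff hxq (hfr hx)
  exact key

end Crest.Agent.R096.Fin_147
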