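import Crest.Agent.R096.Crb1_609
import Crest.Agent.R096.Fin5_147

/-!
# R096 (row 96), helper609: CORE-BLOCK, part 2

`core_block` : the blocks `core`, `hS`, `hRr` of `Fin_147.fin_st` / `fin_stG`, literally, from the base
on the boundaries of the exact cores (181 `core_base`, 416 `base_all`) and 416's squeeze.
-/

set_option autoImplicit false
set_option linter.unusedSectionVars false
set_option linter.unusedVariables false
set_option linter.style.longLine false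

open Set Metric

namespace Crest.Agent.R096.Crb_609

open Crest.Agent.R096.Ce_537 (PLOn PLEquiv plOn_affine)
open Crest.Agent.R096.Bd_416 Crest.Agent.R096.Grd_714
open Crest.Agent.R096.Xp_537 Crest.Agent.R096.Bin_181
open Crest.Agent.R096.Brk1_582 Crest.Agent.R096.Brk2_582 Crest.Agent.R096.Brk3_582
open Crest.Agent.R096.Brk5_582 Crest.Agent.R096.Brk6_582
open Crest.Agent.R096.Bsp_628
open Crest.Agent.R096.SkC1_961 (E3 Hom3 FoamD Cfg th NN)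
open Crest.Agent.R096.Msh_715
open Crest.Agent.R096.Cin_181 (thC thA thI thA_eq thI_th th_thI)
open Crest.Agent.R096.Fin_147 (gr)

variable {δ κ0 R c0 : ℝ} {La Om : Set E3} {ι : Type} {Φ : FoamD δ κ0 R c0 La}
  {Tl : Tiling Om ι} {f : E3 → E3} {κ1 κ2 : ℝ} {X : Set Φ.F} {ct : Φ.F → ι}
  {A : Φ.F → E3 ≃ᵃ[ℝ] E3} {lam : Φ.F → ℝ} {z : Φ.F → E3}

/-- **`e = rcR ∘ th`** on the boundary of one core -/
noncomputable def eB (hLa : IsOpen La) {c : Φ.F} {i : ι} {A : E3 ≃ᵃ[ℝ] E3} {lam : ℝ} {z : E3}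
    (h : Mbf_337.Exact Φ Tl f κ1 κ2 c i A lam z) {m : Φ.F → ℕ} (hm : ∀ a, 0 < m a) {s : ℝ} {M : ℕ}
    {n : Φ.F → ℕ → ℝ} (hn : NodeOK Φ m s c M n) :
    PLEquiv (frontier (P (Tl.H i))) (bdP (Pc Φ.F) (bc (F := Φ.F)) m c) :=
  (thC hLa h (m' := fun _ => M) (fun _ => hn.M0)).trans
    (rcR (m' := fun _ => M) hn.sm hn.z0 hn.nm (foam Φ.bf hLa) (quads_box Φ.bf (by simp))
      (fun _ => hn.M0) hm c)

/-- **CORE-BLOCK** -/
theorem core_block (hLa : IsOpen La) (hδ : 0 < δ) (hR : 0 < R)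
    (hE : ∀ a ∈ X, Mbf_337.Exact Φ Tl f κ1 κ2 a (ct a) (A a) (lam a) (z a))
    {m : Φ.F → ℕ} (hm : ∀ a, 0 < m a) (hne : ∀ c : Φ.F, (Pc Φ.F c).Nonempty)
    {s κf : ℝ} (hs : 0 < s) (hs1 : s < 1) (hκf : 0 < κf) (hκs : 2 * κf ≤ s)
    {M : Φ.F → ℕ} {n : Φ.F → Φ.F → ℕ → ℝ} (hn : ∀ a ∈ X, NodeOK Φ m s a (M a) (n a))
    {Kc : Φ.F → Set E3} (hKX : ∀ a ∈ X, Kc a = P (Tl.H (ct a)))
    {Jf : Type} {fam : Jf → Φ.F} {lv : Jf → ℕ} {κb : ℝ} {bt : ℕ → ℝ} {k : ℕ} {g0 Gf : Gd E3 Jf}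
    {Q : Type} {K : Q → Set E3} {D : Φ.F → Set Q}
    (hD : ∀ a ∈ X, ∀ x ∈ frontier (P (Tl.H (ct a))), ∃ q ∈ D a, x ∈ K q)
    (hDf : ∀ a ∈ X, ∀ q ∈ D a, K q ⊆ frontier (P (Tl.H (ct a))) ∧ IsClosed (K q))
    (hb : ∀ a, ∀ ha : a ∈ X, ∀ q ∈ D a, ∀ x ∈ K q,
      EqAt (ekS (gr Φ hLa hne hm) (bc (F := Φ.F)) κb (.top a) fam lv
        (eB hLa (hE a ha) hm (hn a ha))) g0 x)
    (hg : ∀ a ∈ X, ∀ q ∈ D a, ∀ x ∈ K q, EqAt (sqs g0 bt k) Gf x) :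
    ∃ Rr : Φ.F → E3 → E3,
      (∀ a ∈ X, ∃ (U : PLEquiv (Kc a) (Pc Φ.F a))
        (e : PLEquiv (frontier (Kc a)) (bdP (Pc Φ.F) (bc (F := Φ.F)) m a)),
        (∀ x ∈ Kc a, U.f x = Rr a (th (A a) (lam a) (z a) x)) ∧
        (∀ x ∈ Kc a, x ∈ frontier (Kc a) ↔ U.f x ∈ bdP (Pc Φ.F) (bc (F := Φ.F)) m a) ∧
        (∀ x ∈ frontier (Kc a), e.f x = U.f x) ∧
        (∀ y ∈ bdP (Pc Φ.F) (bc (F := Φ.F)) m a, e.g y = U.g y) ∧
        (∀ x ∈ frontier (Kc a),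
          EqAt (ekS (gr Φ hLa hne hm) (bc (F := Φ.F)) κb (.top a) fam lv e) g0 x) ∧
        (∀ x ∈ frontier (Kc a), EqAt (sqs g0 bt k) Gf x) ∧
        ∀ x ∈ frontier (Kc a), ∃ q, x ∈ K q ∧ K q ⊆ frontier (Kc a) ∧ IsClosed (K q)) ∧
      (∀ a ∈ X, ∀ y ∈ a.1.set, ∀ y' ∈ a.1.set,
        ‖st (gr Φ hLa hne hm) κf (Rr a y) - st (gr Φ hLa hne hm) κf (Rr a y')‖ ≤
          Rpk_714.Spk δ κ0 R * ‖y - y'‖) ∧
      (∀ a ∈ X, ∀ u ∈ interior a.1.set,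
        Rr a ((1 - s) • u + s • (gr Φ hLa hne hm).b (.top a)) =
          (1 - s) • u + s • (gr Φ hLa hne hm).b (.top a)) := by
  classical
  have key := fun a (ha : a ∈ X) => core_one hLa hδ hR (hE a ha) hm hne hs hs1 (hn a ha)
  choose! Rr U hU1 hU2 he hei hin hlip using key
  refine ⟨Rr, fun a ha => ?_, fun a ha y hy y' hy' => ?_, fun a ha u hu => ?_⟩
  · have hK := hKX a ha
    refine ⟨(U a ha).restr (A' := Kc a) (B' := Pc Φ.F a) hK.subset subset_rfl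
      (by rw [hK]; exact (U a ha).mf) (by rw [hK]; exact (U a ha).mg),
      (eB hLa (hE a ha) hm (hn a ha)).restr (A' := frontier (Kc a))
        (B' := bdP (Pc Φ.F) (bc (F := Φ.F)) m a) (by rw [hK]) subset_rfl
        (by rw [hK]; exact (eB hLa (hE a ha) hm (hn a ha)).mf)
        (by rw [hK]; exact (eB hLa (hE a ha) hm (hn a ha)).mg), ?_, ?_, ?_, ?_, ?_, ?_, ?_⟩
    · exact fun x hx => hU1 a ha x
    · intro x hx
      have h5 := hU2 a ha x (hK.subset hx)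
      show x ∈ frontier (Kc a) ↔ (U a ha).f x ∈ _
      rw [hK]
      exact h5
    · intro x hx
      rw [hK] at hx
      exact he a ha x hx
    · exact fun y hy => hei a ha y hy
    · intro x hx
      rw [hK] at hx
      obtain ⟨q, hq, hxq⟩ := hD a ha x hx
      exact hb a ha q hq x hxq
    · intro x hx
      rw [hK] at hx
      obtain ⟨q, hq, hxq⟩ := hD a ha x hx
      exact hg a ha q hq x hxq
    · intro x hx
      rw [hK] at hx ⊢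
      obtain ⟨q, hq, hxq⟩ := hD a ha x hx
      exact ⟨q, hxq, (hDf a ha q hq).1, (hDf a ha q hq).2⟩
  · exact hlip a ha κf hκf hκs y hy y' hy'
  · exact hin a ha u (interior_subset hu)

end Crest.Agent.R096.Crb_609
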