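import Crest.Agent.R096.Lco2_714
import Crest.Agent.R096.Bin9_181
import Crest.Agent.R096.Cmh1_63

/-!
# R096 (row 96), LIP-CORE (helper714), part 3: box foams

`lip_core_box` : `R` = radial over 181's `rcR` near the boundary of the box, `S1`-Lipschitz, keeps the
inner copy.  Then `st κ ∘ R` is Lipschitz on the box with a constant which depends only on `S1`, the
constants of the foam and the slope bound `Λ` of the nodes.
-/

set_option autoImplicit false
set_option linter.unusedSectionVars false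
set_option linter.unusedVariables false

open Set Metric Filter Topology

namespace Crest.Agent.R096.Lco_714

open Crest.Agent.R096.Ce_537 Crest.Agent.R096.Bd_416 Crest.Agent.R096.Xp_537
open Crest.Agent.R096.Brk1_582 Crest.Agent.R096.Brk2_582 Crest.Agent.R096.Brk6_582
open Crest.Agent.R096.Grd_714 Crest.Agent.R096.Bin_181 Crest.Agent.R096.Fl_835
open Crest.Agent.R096.Cst_476
open Crest.Agent.R096.Bsp_628 Crest.Agent.R096.Brk3_582 Crest.Agent.R096.Brk5_582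

/-! ### slopes of the node functions -/

theorem nuR_lip {n : ℕ → ℝ} {M : ℕ} {s : ℝ} (hs : ∀ i < M, n (i + 1) - n i ≤ s) {x y : ℝ}
    (hx : x ∈ Icc (0 : ℝ) M) (hy : y ∈ Icc (0 : ℝ) M) (hN : StrictMono n) :
    |nuR n M x - nuR n M y| ≤ s * |x - y| := by
  wlog h : y ≤ x generalizing x y
  · rw [abs_sub_comm, abs_sub_comm x]
    exact this hy hx (not_le.1 h).le
  have h1 := nuR_mono (M := M) hN h
  rw [abs_of_nonneg (by linarith), abs_of_nonneg (by linarith)]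
  have e : nuR n M x - nuR n M y =
      ∑ i ∈ Finset.range M, (n (i+1) - n i) * (c01 (x - i) - c01 (y - i)) := by
    unfold nuR
    rw [← Finset.sum_sub_distrib]
    exact Finset.sum_congr rfl fun i _ => by ring
  have e2 : ∑ i ∈ Finset.range M, (c01 (x - i) - c01 (y - i)) = x - y := by
    rw [Finset.sum_sub_distrib, sum_c01 M hx.1 hx.2, sum_c01 M hy.1 hy.2]
  rw [e, ← e2, Finset.mul_sum]
  refine Finset.sum_le_sum fun i hi => ?_
  exact mul_le_mul_of_nonneg_right (hs i (Finset.mem_range.1 hi))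
    (sub_nonneg.2 (c01_mono (by linarith)))

/-! ### the level coordinates of `rcR` -/

section foam

variable {E : Type*} [NormedAddCommGroup E] [NormedSpace ℝ E] {I : Type*}
variable {b : Set I → E} {P : I → Set E} {m m' : I → ℕ}
variable {La : Set E} [CompleteSpace E] (F : Foam La P b 4) (hQ : Quads P b)

/-- the wall of a cell -/
def Wall (P : I → Set E) (c : I) : Set E := {z | z ∈ P c ∧ ∃ c', c' ≠ c ∧ z ∈ P c'}

variable {n : I → ℕ → ℝ} (hN : ∀ a, StrictMono (n a)) (hN0 : ∀ a, n a 0 = 0)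

include hN hN0 in
theorem rcR_wall (hNm : ∀ a, n a (m' a) = m a) (hm' : ∀ c, 0 < m' c) (hm : ∀ c, 0 < m c)
    {c : I} {z : E} (hz : z ∈ Wall P c) :
    (rcR hN hN0 hNm F hQ hm' hm c).f z ∈ Wall P c := by
  have h1 : z ∈ bdP P b m' c := by rw [bdP_eq F hQ hm']; exact hz
  have h2 := (rcR hN hN0 hNm F hQ hm' hm c).mf h1
  have h3 : ∀ y, y ∈ bdP P b m c → y ∈ Wall P c := fun y hy => by
    rw [bdP_eq F hQ hm] at hy; exact hy
  exact h3 _ h2

include hN hN0 in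
theorem co_rcR (hNm : ∀ a, n a (m' a) = m a) (hm' : ∀ c, 0 < m' c) (hm : ∀ c, 0 < m c)
    {c : I} {z : E} (hz : z ∈ Wall P c) (a : I) :
    co P b m ((rcR hN hN0 hNm F hQ hm' hm c).f z) a = nuR (n a) (m' a) (co P b m' z a) := by
  obtain ⟨h1, c', hc', h2⟩ := hz
  obtain ⟨h3, h4⟩ := Tq_co F hQ hm' (F.sub c h1) hc'.symm h1 h2
  rw [rcR_f, co_Tq F hQ hm (G2_nu (nuR_Nu hN hN0 hNm) hm' hm h3)]

/-- **the level coordinates of `rcR` over the constant mesh are Lipschitz** -/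
theorem rcR_lip {M : ℕ} (hM : 0 < M) (hNm : ∀ a, n a M = m a) (hm : ∀ c, 0 < m c) {c : I}
    {Λ Ls : ℝ} (hsc : ∀ z ∈ P c, ∀ z' ∈ P c, ∀ a, |sc P b z a - sc P b z' a| ≤ Ls * ‖z - z'‖)
    (hΛ : 0 ≤ Λ) {z z' : E} (hz : z ∈ Wall P c) (hz' : z' ∈ Wall P c) (a : I)
    (hsl : ∀ i < M, n a (i + 1) - n a i ≤ Λ * m a / M) :
    |co P b m ((rcR (m' := fun _ => M) hN hN0 hNm F hQ (fun _ => hM) hm c).f z) a -
      co P b m ((rcR (m' := fun _ => M) hN hN0 hNm F hQ (fun _ => hM) hm c).f z') a| ≤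
      Λ * Ls * m a * ‖z - z'‖ := by
  have hM0 : (0 : ℝ) < M := by exact_mod_cast hM
  rw [co_rcR F hQ hN hN0 hNm _ hm hz, co_rcR F hQ hN hN0 hNm _ hm hz']
  obtain ⟨h1, c1, hc1, h2⟩ := hz
  obtain ⟨h1', c1', hc1', h2'⟩ := hz'
  have hL := F.sub c h1
  have hL' := F.sub c h1'
  rw [Cmh_63.co_const F hQ hM hL hc1.symm h1 h2, Cmh_63.co_const F hQ hM hL' hc1'.symm h1' h2']
  have hk := F.sc_mem_K hL
  have hk' := F.sc_mem_K hL'
  have k1 : ∀ u : I → ℝ, u ∈ K P → (M : ℝ) * u a ∈ Icc (0 : ℝ) M := by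
    intro u hu
    have := hu.1 a
    refine ⟨mul_nonneg hM0.le this.1, ?_⟩
    have h3 := mul_le_mul_of_nonneg_left this.2 hM0.le
    linarith
  refine (nuR_lip hsl (k1 _ hk) (k1 _ hk') (hN a)).trans ?_
  rw [← mul_sub, abs_mul, abs_of_pos hM0]
  have h3 := hsc z h1 z' h1' a
  have hma : (0 : ℝ) ≤ m a := Nat.cast_nonneg _
  calc Λ * m a / M * (M * |sc P b z a - sc P b z' a|)
      = Λ * m a * |sc P b z a - sc P b z' a| := by field_simp
    _ ≤ Λ * m a * (Ls * ‖z - z'‖) := mul_le_mul_of_nonneg_left h3 (by positivity)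
    _ = Λ * Ls * m a * ‖z - z'‖ := by ring

include F hQ in
/-- levels of cells which do not touch `c` do not move -/
theorem co_far (hm : ∀ c, 0 < m c) {c : I} {y : E} (hy : y ∈ Wall P c) {a : I}
    (ha : ¬ (P a ∩ P c).Nonempty) : co P b m y a = m a := by
  obtain ⟨h1, c1, hc1, h2⟩ := hy
  obtain ⟨h3, h4⟩ := Tq_co F hQ hm (F.sub c h1) hc1.symm h1 h2
  by_contra hcon
  have h5 : co P b m y a < m a := lt_of_le_of_ne (G2_le hm h3 a) hcon
  have h6 : co P b m y c = 0 := (Tq_mem_iff F hQ hm h3).1 (by rw [h4]; exact h1)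
  apply ha
  obtain ⟨w, hw⟩ := h3.1.2.2
  rw [mem_fc] at hw
  refine ⟨w, hw a ?_, hw c ?_⟩
  · exact (lv_lt_one hm).2 h5
  · refine (lv_lt_one hm).2 ?_
    rw [h6]
    exact_mod_cast hm c

include F in
/-- points of the boundary of a cell with a gauge are in two cells -/
theorem wall_of_rho {A : E ≃L[ℝ] E} {c : I} (hb : P c = {y | rho A (b {c}) y ≤ 1}) {z : E}
    (hz : rho A (b {c}) z = 1) : z ∈ Wall P c := by
  have h1 : z ∈ P c := by rw [hb]; exact hz.le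
  refine ⟨h1, ?_⟩
  by_contra hcon
  have h2 : act P z = {c} := by
    rw [mem_top_iff F h1]
    rintro ⟨c', h3, h4⟩
    exact hcon ⟨c', h3, h4⟩
  have h3 : z ≠ b (act P z) := by
    rw [h2]; intro e
    rw [e, rho_center] at hz; exact zero_ne_one hz
  obtain ⟨t, ht, h4⟩ := F.exit z (F.sub c h1) h3
  rw [h2, fc_single, hb, mem_ofPred_eq, rho_add_smul (by linarith), hz] at h4
  linarith

include F in
/-- walls have gauge one -/
theorem rho_of_wall {A : E ≃L[ℝ] E} {c : I} (hb : P c = {y | rho A (b {c}) y ≤ 1}) {z : E}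
    (hz : z ∈ Wall P c) : rho A (b {c}) z = 1 := by
  obtain ⟨h1, c', hc', h2⟩ := hz
  have h3 : rho A (b {c}) z ≤ 1 := by rw [hb] at h1; exact h1
  refine le_antisymm h3 ?_
  by_contra hcon
  push Not at hcon
  have hzb : z ≠ b {c} ∨ z = b {c} := (em _).symm
  -- `z = b + t (w - b)` with `w ∈ P c`, `t < 1`
  have key : act P z = {c} := by
    rcases hzb with h | h
    · have hp := rho_pos (A := A) h
      have h5 : zz A (b {c}) z ∈ fc P {c} := by
        rw [fc_single, hb, mem_ofPred_eq, rho_zz h]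
      have h6 := F.rel {c} (singleton_nonempty c) _ h5 (rho A (b {c}) z) ⟨hp.le, hcon⟩
      rwa [add_zz h] at h6
    · have h5 : z ∈ fc P {c} := by rw [fc_single]; exact h1
      have h6 := F.rel {c} (singleton_nonempty c) _ h5 0 ⟨le_rfl, one_pos⟩
      rwa [zero_smul, add_zero, ← h] at h6
  rw [mem_top_iff F h1] at key
  exact key ⟨c', hc', h2⟩

end foam

/-! ### the radial coordinates of a box -/

section box

variable {κ : Type*} [Fintype κ] [Nonempty κ]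

/-- diagonal map -/
noncomputable def dg (w : κ → ℝ) (hw : ∀ k, 0 < w k) : (κ → ℝ) ≃L[ℝ] (κ → ℝ) :=
  (LinearEquiv.piCongrRight fun k => LinearEquiv.smulOfNeZero ℝ ℝ (w k) (hw k).ne')
    |>.toContinuousLinearEquiv

theorem dg_apply (w : κ → ℝ) (hw : ∀ k, 0 < w k) (v : κ → ℝ) (k : κ) :
    dg w hw v k = w k * v k := rfl

theorem dg_symm_apply (w : κ → ℝ) (hw : ∀ k, 0 < w k) (v : κ → ℝ) (k : κ) :
    (dg w hw).symm v k = (w k)⁻¹ * v k := by
  obtain ⟨u, rfl⟩ := (dg w hw).surjective v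
  rw [(dg w hw).symm_apply_apply, dg_apply, ← mul_assoc, inv_mul_cancel₀ (hw k).ne', one_mul]

theorem dg_le (w : κ → ℝ) (hw : ∀ k, 0 < w k) {h : ℝ} (hh : ∀ k, w k ≤ h) (v : κ → ℝ) :
    ‖dg w hw v‖ ≤ h * ‖v‖ := by
  have hh0 : 0 ≤ h := (hw (Classical.arbitrary κ)).le.trans (hh _)
  refine (pi_norm_le_iff_of_nonneg (by positivity)).2 fun k => ?_
  rw [dg_apply, norm_mul, Real.norm_eq_abs, abs_of_pos (hw k)]
  exact mul_le_mul (hh k) (norm_le_pi_norm v k) (norm_nonneg _) hh0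

theorem dg_symm_le (w : κ → ℝ) (hw : ∀ k, 0 < w k) {a : ℝ} (ha : ∀ k, (w k)⁻¹ ≤ a) (v : κ → ℝ) :
    ‖(dg w hw).symm v‖ ≤ a * ‖v‖ := by
  have ha0 : 0 ≤ a := (inv_pos.2 (hw (Classical.arbitrary κ))).le.trans (ha _)
  refine (pi_norm_le_iff_of_nonneg (by positivity)).2 fun k => ?_
  rw [dg_symm_apply, norm_mul, Real.norm_eq_abs, abs_of_pos (inv_pos.2 (hw k))]
  exact mul_le_mul (ha k) (norm_le_pi_norm v k) (norm_nonneg _) ha0

/-- half sides -/
noncomputable def hs (Q : Bx κ) (k : κ) : ℝ := Q.side k / 2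

theorem hs_pos {Q : Bx κ} (h : Q.Pos) (k : κ) : 0 < hs Q k := by
  have := Bx.side_pos h k
  unfold hs; linarith

/-- the linear map of the box -/
noncomputable def Ab (Q : Bx κ) (h : Q.Pos) : (κ → ℝ) ≃L[ℝ] (κ → ℝ) := dg (hs Q) (hs_pos h)

variable {La : Set (κ → ℝ)} {F : Set (Bx κ)} {δ κ0 : ℝ}

theorem bc_single (c : F) (k : κ) : bc ({c} : Set F) k = (c.1.lo k + c.1.hi k) / 2 := by
  simp [Brk3_582.bc, loA, hiA]

theorem mem_Pc_iff (c : F) (h : c.1.Pos) (y : κ → ℝ) :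
    y ∈ Pc F c ↔ rho (Ab c.1 h) (bc {c}) y ≤ 1 := by
  rw [rho, pi_norm_le_iff_of_nonneg zero_le_one, Pc, Bx.mem_set]
  refine forall_congr' fun k => ?_
  rw [Ab, dg_symm_apply, Real.norm_eq_abs, abs_mul, abs_of_pos (inv_pos.2 (hs_pos h k)),
    inv_mul_le_iff₀ (hs_pos h k), mul_one, Pi.sub_apply, bc_single, abs_le]
  unfold hs Bx.side
  constructor
  · rintro ⟨h1, h2⟩; constructor <;> linarith
  · rintro ⟨h1, h2⟩; constructor <;> linarith

theorem Pc_eq (c : F) (h : c.1.Pos) : Pc F c = {y | rho (Ab c.1 h) (bc {c}) y ≤ 1} := by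
  ext y; exact mem_Pc_iff c h y

theorem Ab_le (BF : BoxFoam La F δ κ0) (c : F) (v : κ → ℝ) :
    ‖Ab c.1 (BF.pos _ c.2) v‖ ≤ c.1.sz / 2 * ‖v‖ :=
  dg_le _ _ (fun k => by
    have := Bx.side_le_sz c.1 k
    unfold hs; linarith) v

theorem Ab_symm_le (BF : BoxFoam La F δ κ0) (c : F) (v : κ → ℝ) :
    ‖(Ab c.1 (BF.pos _ c.2)).symm v‖ ≤ 2 * κ0 / c.1.sz * ‖v‖ :=
  dg_symm_le _ _ (fun k => by
    have h1 := BF.asp _ c.2 k
    have h2 := Bx.side_pos (BF.pos _ c.2) k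
    have h3 := Bx.sz_pos (BF.pos _ c.2)
    unfold hs
    rw [inv_div, div_le_div_iff₀ h2 h3]
    nlinarith) v

theorem foam4 (BF : BoxFoam La F δ κ0) (hLa : IsOpen La) (h3 : Fintype.card κ = 3) :
    Foam La (Pc F) (bc (F := F)) 4 := by
  have := foam BF hLa
  rwa [h3] at this

theorem Pc_ne (BF : BoxFoam La F δ κ0) (c : F) : (Pc F c).Nonempty :=
  ⟨c.1.lo, Bx.mem_set.2 fun k => ⟨le_rfl, (BF.pos _ c.2 k).le⟩⟩

/-- the inner copy -/
def Cpy (c : F) (s : ℝ) : Set (κ → ℝ) := (fun u => (1 - s) • u + s • bc {c}) '' Pc F c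

theorem mem_Cpy_iff (BF : BoxFoam La F δ κ0) (c : F) {s : ℝ} (hs : s < 1) (y : κ → ℝ) :
    y ∈ Cpy c s ↔ rho (Ab c.1 (BF.pos _ c.2)) (bc {c}) y ≤ 1 - s := by
  have h1 : (0 : ℝ) < 1 - s := by linarith
  constructor
  · rintro ⟨u, hu, rfl⟩
    have e : (1 - s) • u + s • bc {c} = bc {c} + (1 - s) • (u - bc {c}) := by module
    show rho _ _ ((1 - s) • u + s • bc {c}) ≤ _
    rw [e, rho_add_smul h1.le]
    have := (mem_Pc_iff c (BF.pos _ c.2) u).1 hu
    nlinarith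
  · intro h
    refine ⟨bc {c} + (1 - s)⁻¹ • (y - bc {c}), ?_, ?_⟩
    · rw [mem_Pc_iff c (BF.pos _ c.2), rho_add_smul (inv_nonneg.2 h1.le), inv_mul_le_iff₀ h1]
      linarith
    · show (1 - s) • (bc {c} + (1 - s)⁻¹ • (y - bc {c})) + s • bc {c} = y
      rw [smul_add, smul_smul, mul_inv_cancel₀ h1.ne', one_smul]
      module

variable (BF : BoxFoam La F δ κ0) (hLa : IsOpen La) (h3 : Fintype.card κ = 3)
  {m : F → ℕ} (hm : ∀ c, 0 < m c)

/-- the constant of LIP-CORE -/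
noncomputable def Sc (S1 δ κ0 R Λ : ℝ) : ℝ :=
  max (2 * S1) (8 * (1 + κ0) * (R * R * Λ * Cs 3 δ R) + 4 * (R * R * κ0))

/-- the data of the core box -/
theorem rad_box (hδ : 0 < δ) {R : ℝ} (hR : 0 < R) (hcmp : Cmp F R) {M : ℕ} (hM : 0 < M)
    {n : F → ℕ → ℝ} (hN : ∀ a, StrictMono (n a)) (hN0 : ∀ a, n a 0 = 0)
    (hNm : ∀ a, n a M = m a) {Λ : ℝ} (hΛ : 0 ≤ Λ)
    {κ' S1 : ℝ} (hκ : 0 < κ') (hκ2 : κ' ≤ 1/2) (c : F)
    (hsl : ∀ a, (Pc F a ∩ Pc F c).Nonempty → ∀ i < M, n a (i + 1) - n a i ≤ Λ * m a / M) {Rm : (κ → ℝ) → κ → ℝ}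
    (hlip : ∀ x ∈ Pc F c, ∀ x' ∈ Pc F c, ‖Rm x' - Rm x‖ ≤ S1 * ‖x' - x‖)
    (hin : ∀ x ∈ Cpy c κ', Rm x ∈ Cpy c κ')
    (hsh : ∀ z ∈ Wall (Pc F) c, ∀ r ∈ Icc (1 - κ') 1, Rm (bc {c} + r • (z - bc {c})) =
      bc {c} + r • ((rcR (m' := fun _ => M) hN hN0 hNm (foam4 BF hLa h3) (quads_box BF h3)
        (fun _ => hM) hm c).f z - bc {c})) :
    Rad (Pc F) (bc (F := F)) m (fun a => R * a.1.sz) c κ' (Ab c.1 (BF.pos _ c.2))
      (2 * κ0 / c.1.sz) (c.1.sz / 2) S1 (R * R * Λ * Cs 3 δ R) (2 * (R * R * κ0)) Rm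
      (rcR (m' := fun _ => M) hN hN0 hNm (foam4 BF hLa h3) (quads_box BF h3)
        (fun _ => hM) hm c).f := by
  have FF := foam4 BF hLa h3
  have hQ := quads_box BF h3
  have hsz : 0 < c.1.sz := Bx.sz_pos (BF.pos _ c.2)
  have hb := Pc_eq c (BF.pos _ c.2)
  exact
    { ball := hb
      ha := Ab_symm_le BF c
      hh := Ab_le BF c
      lip := hlip
      inn := fun x hx h => by
        have h1 := (mem_Cpy_iff BF c (s := κ') (by linarith) x).2 h
        exact (mem_Cpy_iff BF c (s := κ') (by linarith) _).1 (hin x h1)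
      shell := fun x hx h => by
        have hle : rho (Ab c.1 (BF.pos _ c.2)) (bc {c}) x ≤ 1 := (mem_Pc_iff c _ x).1 hx
        have hxo : x ≠ bc {c} := by
          intro e; rw [e, rho_center] at h; linarith
        have h1 := hsh _ (wall_of_rho FF hb (rho_zz (A := Ab c.1 (BF.pos _ c.2)) hxo))
          (rho (Ab c.1 (BF.pos _ c.2)) (bc {c}) x) ⟨h, hle⟩
        rwa [add_zz hxo] at h1
      wall := fun z hz => rcR_wall FF hQ hN hN0 hNm _ hm (wall_of_rho FF hb hz)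
      co := fun z z' hz hz' a => by
        have w := wall_of_rho FF hb hz
        have w' := wall_of_rho FF hb hz'
        by_cases ha : (Pc F a ∩ Pc F c).Nonempty
        · have h1 := rcR_lip FF hQ hN hN0 hM hNm hm (c := c) (Ls := Cs 3 δ R / c.1.sz)
            (fun z hz z' hz' a => by
              have := lip_cell BF hLa hδ hR hcmp c z hz z' hz' a
              rwa [h3] at this) hΛ w w' a (hsl a ha)
          have h2 := hcmp a c ha
          have h4 : 0 ≤ Cs 3 δ R := Cs_nonneg hδ hR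
          have hma : (0 : ℝ) ≤ m a := Nat.cast_nonneg _
          have hsa : 0 < a.1.sz := Bx.sz_pos (BF.pos _ a.2)
          have h5 : a.1.sz / c.1.sz ≤ R := by rw [div_le_iff₀ hsz]; exact h2
          calc R * a.1.sz * _ ≤ R * a.1.sz * (Λ * (Cs 3 δ R / c.1.sz) * m a * ‖z - z'‖) :=
                mul_le_mul_of_nonneg_left h1 (by positivity)
            _ = R * (a.1.sz / c.1.sz) * (Λ * Cs 3 δ R * m a * ‖z - z'‖) := by
                field_simp
            _ ≤ R * R * (Λ * Cs 3 δ R * m a * ‖z - z'‖) := by gcongr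
            _ = R * R * Λ * Cs 3 δ R * m a * ‖z - z'‖ := by ring
        · have k1 := co_far FF hQ hm (rcR_wall FF hQ hN hN0 hNm (fun _ => hM) hm w) ha
          have k2 := co_far FF hQ hm (rcR_wall FF hQ hN hN0 hNm (fun _ => hM) hm w') ha
          rw [k1, k2, sub_self, abs_zero, mul_zero]
          have h4 : 0 ≤ Cs 3 δ R := Cs_nonneg hδ hR
          positivity
      step := step_box BF hLa hcmp
      D0 := fun a => by
        have hsa : 0 < a.1.sz := Bx.sz_pos (BF.pos _ a.2)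
        positivity
      Da := fun a ha => by
        have h2 := hcmp a c ha
        have h5 : a.1.sz / c.1.sz ≤ R := by rw [div_le_iff₀ hsz]; exact h2
        have hκ0 : 0 ≤ κ0 := by
          have h6 := BF.asp _ c.2 (Classical.arbitrary κ)
          have h7 := Bx.side_pos (BF.pos _ c.2) (Classical.arbitrary κ)
          by_contra hcon
          have : κ0 * c.1.side (Classical.arbitrary κ) < 0 :=
            mul_neg_of_neg_of_pos (not_le.1 hcon) h7
          linarith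
        calc R * a.1.sz * (2 * κ0 / c.1.sz) = 2 * κ0 * R * (a.1.sz / c.1.sz) := by
              field_simp
          _ ≤ 2 * κ0 * R * R := by gcongr
          _ = 2 * (R * R * κ0) := by ring }

/-- **LIP-CORE for box foams** -/
theorem lip_core_box (hδ : 0 < δ) {R : ℝ} (hR : 0 < R) (hcmp : Cmp F R) {M : ℕ} (hM : 0 < M)
    {n : F → ℕ → ℝ} (hN : ∀ a, StrictMono (n a)) (hN0 : ∀ a, n a 0 = 0)
    (hNm : ∀ a, n a M = m a) {Λ : ℝ} (hΛ : 0 ≤ Λ)
    {κ' S1 : ℝ} (hκ : 0 < κ') (hκ2 : κ' ≤ 1/2) (c : F)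
    (hsl : ∀ a, (Pc F a ∩ Pc F c).Nonempty → ∀ i < M, n a (i + 1) - n a i ≤ Λ * m a / M) {Rm : (κ → ℝ) → κ → ℝ}
    (hlip : ∀ x ∈ Pc F c, ∀ x' ∈ Pc F c, ‖Rm x' - Rm x‖ ≤ S1 * ‖x' - x‖)
    (hin : ∀ x ∈ Cpy c κ', Rm x ∈ Cpy c κ')
    (hsh : ∀ z ∈ Wall (Pc F) c, ∀ r ∈ Icc (1 - κ') 1, Rm (bc {c} + r • (z - bc {c})) =
      bc {c} + r • ((rcR (m' := fun _ => M) hN hN0 hNm (foam4 BF hLa h3) (quads_box BF h3)
        (fun _ => hM) hm c).f z - bc {c})) {x x' : κ → ℝ} (hx : x ∈ Pc F c)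
    (hx' : x' ∈ Pc F c) :
    ‖st (grid (foam4 BF hLa h3) (quads_box BF h3) (Pc_ne BF) hm) κ' (Rm x') -
      st (grid (foam4 BF hLa h3) (quads_box BF h3) (Pc_ne BF) hm) κ' (Rm x)‖ ≤
      Sc S1 δ κ0 R Λ * ‖x' - x‖ := by
  have X := rad_box BF hLa h3 hm hδ hR hcmp hM hN hN0 hNm hΛ hκ hκ2 c hsl hlip hin hsh
  have hsz : 0 < c.1.sz := Bx.sz_pos (BF.pos _ c.2)
  have hκ0 : 0 ≤ κ0 := by
    have h6 := BF.asp _ c.2 (Classical.arbitrary κ)
    have h7 := Bx.side_pos (BF.pos _ c.2) (Classical.arbitrary κ)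
    by_contra hcon
    have : κ0 * c.1.side (Classical.arbitrary κ) < 0 :=
      mul_neg_of_neg_of_pos (not_le.1 hcon) h7
    linarith
  have h4 : 0 ≤ Cs 3 δ R := Cs_nonneg hδ hR
  have main := X.lip_core (foam4 BF hLa h3) (quads_box BF h3) (Pc_ne BF) hm hκ hκ2
    (by positivity) (by positivity) hx hx'
  refine main.trans (le_of_eq ?_)
  rw [Sc]
  congr 2
  have e : c.1.sz / 2 * (2 * κ0 / c.1.sz) = κ0 := by field_simp
  rw [e]
  ring

end box

end Crest.Agent.R096.Lco_714
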