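import Crest.Agent.R096.Rlp2_150

/-!
# R096 (row 96), REL-P, part 3 (helper150): the map `Rm`, layer by layer; it is a bijection of the cell

`lvm e` = map of the boundary of the cell with relabelling `clp (σ a x) x e` and heights
`clp (N w) (min w) e`; `Rm` = `lvm (Ef δ / (1 - δ))` on the layer `gauge = 1 - δ`.
-/

set_option autoImplicit false
set_option linter.unusedSectionVars false
set_option linter.unusedVariables false

open Set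

namespace Crest.Agent.R096.Rlp_150

open Crest.Agent.R096.Brk1_582 Crest.Agent.R096.Brk2_582
open Crest.Agent.R096.Rel_628 Crest.Agent.R096.Grd_714

variable {E : Type*} [NormedAddCommGroup E] [NormedSpace ℝ E] {I : Type*}
variable {La : Set E} {P : I → Set E} {b : Set I → E}

/-- clamped relabelling -/
noncomputable def cs (σ : I → ℝ → ℝ) (e : ℝ) : I → ℝ → ℝ := fun a x => clp (σ a x) x e

/-- clamped heights -/
noncomputable def Nc (N : I → I → ℝ × ℝ → ℝ) (e : ℝ) : I → I → ℝ × ℝ → ℝ :=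
  fun c c' w => clp (N c c' w) (min w.1 w.2) e

/-- the map of the boundary -/
noncomputable def lvm (b : Set I → E) (σ : I → ℝ → ℝ) (N : I → I → ℝ × ℝ → ℝ) (e : ℝ)
    (w : I → ℝ) : E := Bn b (Nc N e) (sg (cs σ e) w)

open Classical in
/-- **the map of the cell** -/
noncomputable def Rm (P : I → Set E) (b : Set I → E) (C : Finset I) (c0 : I) (σ : I → ℝ → ℝ)
    (N : I → I → ℝ × ℝ → ℝ) (Ef : ℝ → ℝ) (y : E) : E :=
  if dl C c0 (sc P b y) = 1 then b {c0} else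
    b {c0} + (1 - dl C c0 (sc P b y)) •
      (lvm b σ N (Ef (dl C c0 (sc P b y)) / (1 - dl C c0 (sc P b y)))
        (up (dl C c0 (sc P b y)) (sc P b y)) - b {c0})

section main

variable [CompleteSpace E] (F : Foam La P b 4) (hQ : Quads P b) {c0 : I}
variable {σ : I → ℝ → ℝ} (hσ : Rl σ) {N : I → I → ℝ × ℝ → ℝ} (hA : ∀ c1 c2, Adm (N c1 c2))
  (hN : Sym N) {Ef : ℝ → ℝ} (hE : ∀ δ, 0 ≤ Ef δ)

omit [CompleteSpace E] in
theorem rl_cs (hσ : Rl σ) {e : ℝ} (he : 0 ≤ e) : Rl (cs σ e) := rl_clp hσ he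

theorem adm_Nc (hA : ∀ c1 c2, Adm (N c1 c2)) {e : ℝ} (he : 0 ≤ e) (c1 c2 : I) :
    Adm (Nc N e c1 c2) := adm_clp (hA c1 c2) he

theorem sym_Nc (hN : Sym N) (e : ℝ) : Sym (Nc N e) := sym_clp hN e

theorem sg_mem_KC {τ : I → ℝ → ℝ} (h : Rl τ) {w : I → ℝ} (hw : w ∈ KC P c0) :
    sg τ w ∈ KC P c0 := ⟨sg_mem_K h hw.1, by simp only [sg, hw.2]; exact h.zero c0⟩

theorem sg_mem_KB {τ : I → ℝ → ℝ} (h : Rl τ) {w : I → ℝ} (hw : w ∈ KB P c0) :
    sg τ w ∈ KB P c0 := by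
  obtain ⟨h1, h2, d, hd, h3⟩ := hw
  exact ⟨sg_mem_K h h1, by simp only [sg, h2]; exact h.zero c0, d, hd,
    by simp only [sg, h3]; exact h.zero d⟩

theorem sg_inj {τ : I → ℝ → ℝ} (h : Rl τ) {w w' : I → ℝ} (hw : w ∈ KC P c0) (hw' : w' ∈ KC P c0)
    (he : sg τ w = sg τ w') : w = w' := by
  funext a
  exact (h.mono a).injOn (hw.1.1 a) (hw'.1.1 a) (congrFun he a)

include F hQ hσ hA hN

/-- the image of a boundary point is a boundary point -/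
theorem lvm_mem {e : ℝ} (he : 0 ≤ e) {w : I → ℝ} (hw : w ∈ KB P c0) :
    lvm b σ N e w ∈ P c0 ∧ sc P b (lvm b σ N e w) ∈ KB P c0 := by
  have h1 := sg_mem_KB (rl_cs hσ he) hw
  have h2 : lvm b σ N e w ∈ La := Bn_mem_La (adm_Nc hA he) (sym_Nc hN e) F hQ (KB_sub_K2 h1)
  have h3 : act P (lvm b σ N e w) = {c | sg (cs σ e) w c = 0} :=
    act_Bn (adm_Nc hA he) (sym_Nc hN e) F hQ (KB_sub_K2 h1)
  obtain ⟨h4, h5, d, hd, h6⟩ := h1
  have m0 : lvm b σ N e w ∈ P c0 := (Set.ext_iff.1 h3 c0).2 h5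
  have m1 : lvm b σ N e w ∈ P d := (Set.ext_iff.1 h3 d).2 h6
  exact ⟨m0, F.sc_mem_K h2, (F.sc_eq_zero h2).2 m0, d, hd, (F.sc_eq_zero h2).2 m1⟩

/-- `lvm` is injective on the boundary -/
theorem lvm_inj {e : ℝ} (he : 0 ≤ e) {w w' : I → ℝ} (hw : w ∈ KB P c0) (hw' : w' ∈ KB P c0)
    (h : lvm b σ N e w = lvm b σ N e w') : w = w' := by
  have h1 := sg_mem_KB (rl_cs hσ he) hw
  have h1' := sg_mem_KB (rl_cs hσ he) hw'
  have := Bn_injOn (adm_Nc hA he) (sym_Nc hN e) F hQ (KB_sub_K2 h1) (KB_sub_K2 h1') h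
  exact sg_inj (rl_cs hσ he) ⟨hw.1, hw.2.1⟩ ⟨hw'.1, hw'.2.1⟩ this

/-- `lvm` is onto the boundary -/
theorem exists_lvm {e : ℝ} (he : 0 ≤ e) {w : I → ℝ} (hw : w ∈ KB P c0) :
    ∃ w' ∈ KB P c0, lvm b σ N e w' = T b w := by
  obtain ⟨h1, h2, d, hd, h3⟩ := id hw
  have hz := F.act_T h1
  have m0 : T b w ∈ P c0 := (Set.ext_iff.1 hz c0).2 h2
  have m1 : T b w ∈ P d := (Set.ext_iff.1 hz d).2 h3
  obtain ⟨u, hu, hBu⟩ := exists_Bn (adm_Nc hA he) (sym_Nc hN e) F hQ (F.T_mem_La h1) hd m1 m0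
  have h4 := act_Bn (adm_Nc hA he) (sym_Nc hN e) F hQ hu
  rw [hBu, hz] at h4
  have hu0 : u c0 = 0 := (Set.ext_iff.1 h4 c0).1 h2
  have huB : u ∈ KB P c0 := KB_of_K2 hu hu0
  obtain ⟨τ, hτ, hl, hr⟩ := (rl_cs hσ he).exists_inv
  refine ⟨sg τ u, sg_mem_KB hτ huB, ?_⟩
  have h5 : sg (cs σ e) (sg τ u) = u := funext fun a => hr a _ (huB.1.1 a)
  rw [lvm, h5, hBu]

include hE

theorem Rm_center {y : E} (hy : y ∈ P c0) (h : dl (nbF F c0) c0 (sc P b y) = 1) :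
    Rm P b (nbF F c0) c0 σ N Ef y = b {c0} := by
  rw [Rm, if_pos h]

/-- **`Rm` on a layer** -/
theorem Rm_cone {w : I → ℝ} (hw : w ∈ KB P c0) {μ : ℝ} (h0 : 0 < μ) (h1 : μ ≤ 1) :
    Rm P b (nbF F c0) c0 σ N Ef (T b (cone {c0} μ w)) =
      b {c0} + μ • (lvm b σ N (Ef (1 - μ) / μ) w - b {c0}) := by
  have hC := cone_mem' (c0 := c0) ⟨hw.1, hw.2.1⟩ h0.le h1
  have e1 : sc P b (T b (cone {c0} μ w)) = cone {c0} μ w := F.sc_T hC.1
  have e2 := dl_cone F hw h0.le h1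
  rw [Rm, e1, e2, if_neg (by linarith), up_cone ⟨hw.1, hw.2.1⟩ h0 h1]
  have e3 : 1 - (1 - μ) = μ := by ring
  rw [e3]

/-- `Rm` on a layer, coordinates of the image -/
theorem Rm_cone' {w : I → ℝ} (hw : w ∈ KB P c0) {μ : ℝ} (h0 : 0 < μ) (h1 : μ ≤ 1) :
    Rm P b (nbF F c0) c0 σ N Ef (T b (cone {c0} μ w)) =
      T b (cone {c0} μ (sc P b (lvm b σ N (Ef (1 - μ) / μ) w))) := by
  have he : 0 ≤ Ef (1 - μ) / μ := div_nonneg (hE _) h0.le
  obtain ⟨m1, m2⟩ := lvm_mem F hQ hσ hA hN he hw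
  rw [Rm_cone F hQ hσ hA hN hE hw h0 h1, T_cone' F ⟨m2.1, m2.2.1⟩ h0.le h1, F.T_sc (F.sub c0 m1)]

theorem Rm_mapsTo : MapsTo (Rm P b (nbF F c0) c0 σ N Ef) (P c0) (P c0) := by
  intro y hy
  have hu := sc_mem_KC F hy
  rcases (dl_le_one (C := nbF F c0) (c0 := c0) (u := sc P b y)).eq_or_lt with h | h
  · rw [Rm_center F hQ hσ hA hN hE hy h]; exact b_mem F ⟨y, hy⟩
  · obtain ⟨h1, h2⟩ := exists_cone F hu h
    have h3 := dl_nonneg F hu
    have hy' : y = T b (sc P b y) := (F.T_sc (F.sub c0 hy)).symm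
    set δ := dl (nbF F c0) c0 (sc P b y) with hδ
    have h4 : 0 < 1 - δ := by linarith
    have h5 : (1 : ℝ) - δ ≤ 1 := by linarith
    rw [hy', h2, Rm_cone' F hQ hσ hA hN hE h1 h4 h5]
    obtain ⟨m1, m2⟩ := lvm_mem F hQ hσ hA hN
      (div_nonneg (hE (1 - (1 - δ))) h4.le) h1
    exact T_mem_P F (cone_mem' ⟨m2.1, m2.2.1⟩ h4.le h5)

/-- `Rm` preserves the gauge -/
theorem dl_Rm {y : E} (hy : y ∈ P c0) :
    dl (nbF F c0) c0 (sc P b (Rm P b (nbF F c0) c0 σ N Ef y)) = dl (nbF F c0) c0 (sc P b y) := by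
  have hu := sc_mem_KC F hy
  rcases (dl_le_one (C := nbF F c0) (c0 := c0) (u := sc P b y)).eq_or_lt with h | h
  · rw [Rm_center F hQ hσ hA hN hE hy h, ← eq_b_of_dl F hy h]
  · obtain ⟨h1, h2⟩ := exists_cone F hu h
    have h3 := dl_nonneg F hu
    set δ := dl (nbF F c0) c0 (sc P b y) with hδ
    have hy' : y = T b (sc P b y) := (F.T_sc (F.sub c0 hy)).symm
    have h4 : 0 < 1 - δ := by linarith
    have h5 : (1 : ℝ) - δ ≤ 1 := by linarith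
    rw [hy', h2, Rm_cone' F hQ hσ hA hN hE h1 h4 h5]
    obtain ⟨m1, m2⟩ := lvm_mem F hQ hσ hA hN
      (div_nonneg (hE (1 - (1 - δ))) h4.le) h1
    rw [F.sc_T (cone_mem' ⟨m2.1, m2.2.1⟩ h4.le h5).1, dl_cone F m2 h4.le h5]
    ring

theorem Rm_injOn : InjOn (Rm P b (nbF F c0) c0 σ N Ef) (P c0) := by
  intro y hy y' hy' he
  have hu := sc_mem_KC F hy
  have hu' := sc_mem_KC F hy'
  have hd := dl_Rm F hQ hσ hA hN hE hy
  have hd' := dl_Rm F hQ hσ hA hN hE hy'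
  rw [he, hd'] at hd
  rcases (dl_le_one (C := nbF F c0) (c0 := c0) (u := sc P b y)).eq_or_lt with h | h
  · rw [eq_b_of_dl F hy h, eq_b_of_dl F hy' (hd.trans h)]
  · obtain ⟨h1, h2⟩ := exists_cone F hu h
    obtain ⟨h1', h2'⟩ := exists_cone F hu' (by rw [hd]; exact h)
    rw [hd] at h1' h2'
    have h3 := dl_nonneg F hu
    set δ := dl (nbF F c0) c0 (sc P b y) with hδ
    have e1 : y = T b (sc P b y) := (F.T_sc (F.sub c0 hy)).symm
    have e1' : y' = T b (sc P b y') := (F.T_sc (F.sub c0 hy')).symm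
    have h4 : 0 < 1 - δ := by linarith
    have h5 : (1 : ℝ) - δ ≤ 1 := by linarith
    have E1 : y = T b (cone {c0} (1 - δ) (up δ (sc P b y))) := by rw [← h2]; exact e1
    have E1' : y' = T b (cone {c0} (1 - δ) (up δ (sc P b y'))) := by rw [← h2']; exact e1'
    rw [E1, E1', Rm_cone F hQ hσ hA hN hE h1 h4 h5, Rm_cone F hQ hσ hA hN hE h1' h4 h5] at he
    have h6 := smul_right_injective E h4.ne' (add_left_cancel he)
    have h7 := lvm_inj F hQ hσ hA hN (div_nonneg (hE (1 - (1 - δ))) h4.le) h1 h1'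
      (sub_left_inj.1 h6)
    rw [E1, E1', h7]

theorem Rm_surjOn : SurjOn (Rm P b (nbF F c0) c0 σ N Ef) (P c0) (P c0) := by
  intro y hy
  have hu := sc_mem_KC F hy
  rcases (dl_le_one (C := nbF F c0) (c0 := c0) (u := sc P b y)).eq_or_lt with h | h
  · exact ⟨y, hy, by rw [Rm_center F hQ hσ hA hN hE hy h, eq_b_of_dl F hy h]⟩
  · obtain ⟨h1, h2⟩ := exists_cone F hu h
    have h3 := dl_nonneg F hu
    set δ := dl (nbF F c0) c0 (sc P b y) with hδ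
    have e1 : y = T b (sc P b y) := (F.T_sc (F.sub c0 hy)).symm
    have h4 : 0 < 1 - δ := by linarith
    have h5 : (1 : ℝ) - δ ≤ 1 := by linarith
    obtain ⟨w, hw, hwe⟩ := exists_lvm F hQ hσ hA hN
      (div_nonneg (hE (1 - (1 - δ))) h4.le) h1
    refine ⟨T b (cone {c0} (1 - δ) w), T_mem_P F (cone_mem' ⟨hw.1, hw.2.1⟩ h4.le h5), ?_⟩
    rw [Rm_cone F hQ hσ hA hN hE hw h4 h5, hwe, ← T_cone' F ⟨h1.1, h1.2.1⟩ h4.le h5, ← h2]
    exact e1.symm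

/-- **radial form** -/
theorem Rm_ray {z : E} (hz : z ∈ P c0) {d : I} (hd : d ≠ c0) (hzd : z ∈ P d) {ρ : ℝ} (h0 : 0 < ρ)
    (h1 : ρ ≤ 1) : Rm P b (nbF F c0) c0 σ N Ef (b {c0} + ρ • (z - b {c0})) =
      b {c0} + ρ • (lvm b σ N (Ef (1 - ρ) / ρ) (sc P b z) - b {c0}) := by
  have hzL := F.sub c0 hz
  have hw : sc P b z ∈ KB P c0 := ⟨F.sc_mem_K hzL, (F.sc_eq_zero hzL).2 hz, d, hd,
    (F.sc_eq_zero hzL).2 hzd⟩
  rw [← Rm_cone F hQ hσ hA hN hE hw h0 h1, T_cone' F ⟨hw.1, hw.2.1⟩ h0.le h1, F.T_sc hzL]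

end main

end Crest.Agent.R096.Rlp_150
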