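import Crest.Agent.R096.Ncl2_914
import Crest.Agent.R096.Rlp3_150
import Crest.Agent.R096.Cmh1_63

/-!
# R096 (row 96), REL-P (helper458 for helper150): the relabelling of the levels in the language of
`Rlp3_150`

`sgm n M m a x = nuR (n a) M (M x) / m a`.
-/

set_option autoImplicit false
set_option linter.unusedVariables false
set_option linter.unusedSectionVars false

open Set

namespace Crest.Agent.R096.Ncl_458

open Crest.Agent.R096.Brk1_582 Crest.Agent.R096.Brk2_582 Crest.Agent.R096.Brk6_582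
open Crest.Agent.R096.Grd_714 Crest.Agent.R096.Bin_181 Crest.Agent.R096.Fl_835
open Crest.Agent.R096.Bsp_628 Crest.Agent.R096.Brk3_582 Crest.Agent.R096.Brk5_582
open Crest.Agent.R096.Rel_628 Crest.Agent.R096.Rlp_150 Crest.Agent.R096.Ncl_914
open Crest.Agent.R096.Cmh_63

/-! ### the clamp and `nuR` -/

theorem c01_eq (t : ℝ) : c01 t = max 0 (min t 1) := by
  rcases le_total t 0 with h | h
  · rw [c01_of_le h, max_eq_left ((min_le_left _ _).trans h)]
  rcases le_total t 1 with h1 | h1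
  · rw [c01_of_mem h h1, min_eq_left h1, max_eq_right h]
  · rw [c01_of_ge h1, min_eq_right h1, max_eq_right zero_le_one]

theorem continuous_nuR (n : ℕ → ℝ) (M : ℕ) : Continuous (nuR n M) := by
  unfold nuR
  simp only [c01_eq]
  fun_prop

/-- the sum of the clamps is the identity -/
theorem sum_c01 {M : ℕ} {x : ℝ} (hx : x ∈ Icc (0 : ℝ) M) :
    ∑ i ∈ Finset.range M, c01 (x - i) = x := by
  have hN : StrictMono (fun i : ℕ => (i : ℝ)) := Nat.strictMono_cast
  rcases Nat.eq_zero_or_pos M with h0 | h0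
  · subst h0
    have : x = 0 := le_antisymm (by simpa using hx.2) hx.1
    simp [this]
  · obtain ⟨i, hi, h1, h2⟩ := exists_cell h0 hx
    have h3 := nuR_eq (n := fun i : ℕ => (i : ℝ)) hN (by simp) hi h1 h2
    have h4 : nuR (fun i : ℕ => (i : ℝ)) M x = ∑ i ∈ Finset.range M, c01 (x - i) := by
      unfold nuR
      refine Finset.sum_congr rfl fun i _ => ?_
      push_cast
      ring
    rw [← h4, h3]
    push_cast
    ring

/-- **slope bound of `nuR`** -/
theorem nuR_sub_le {n : ℕ → ℝ} {M : ℕ} {K : ℝ} (hK : ∀ j < M, n (j + 1) - n j ≤ K) {x x' : ℝ}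
    (hx : x ∈ Icc (0 : ℝ) M) (hx' : x' ∈ Icc (0 : ℝ) M) (h : x ≤ x') :
    nuR n M x' - nuR n M x ≤ K * (x' - x) := by
  have e : K * (x' - x) = ∑ i ∈ Finset.range M, K * (c01 (x' - i) - c01 (x - i)) := by
    rw [← Finset.mul_sum, Finset.sum_sub_distrib, sum_c01 hx, sum_c01 hx']
  rw [e]
  unfold nuR
  rw [← Finset.sum_sub_distrib]
  refine Finset.sum_le_sum fun i hi => ?_
  rw [← mul_sub]
  refine mul_le_mul_of_nonneg_right (hK i (Finset.mem_range.1 hi)) ?_
  have := c01_mono (show x - (i : ℝ) ≤ x' - i by linarith)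
  linarith

/-! ### the relabelling -/

variable {I : Type*}

/-- the relabelling in the coordinates `sc` -/
noncomputable def sgm (n : I → ℕ → ℝ) (M : ℕ) (m : I → ℕ) : I → ℝ → ℝ :=
  fun a x => nuR (n a) M (M * x) / m a

section sgm

variable {n : I → ℕ → ℝ} (hN : ∀ a, StrictMono (n a)) (hN0 : ∀ a, n a 0 = 0) {M : ℕ} (hM : 0 < M)
  {m : I → ℕ} (hm : ∀ a, 0 < m a) (hNm : ∀ a, n a M = m a)

theorem mul_mem {M : ℕ} {x : ℝ} (hx : x ∈ Icc (0 : ℝ) 1) : (M : ℝ) * x ∈ Icc (0 : ℝ) M := by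
  have h : (0 : ℝ) ≤ M := Nat.cast_nonneg M
  exact ⟨mul_nonneg h hx.1, by nlinarith [hx.2]⟩

include hN hN0 hM hm hNm

/-- (1) -/
theorem rl_sgm : Rl (sgm n M m) where
  zero a := by
    have := nuR_nat (hN a) (hN0 a) (Nat.zero_le M)
    rw [sgm, mul_zero]
    rw [hN0] at this
    simp only [Nat.cast_zero] at this
    rw [this, zero_div]
  one a := by
    have hmr : (0 : ℝ) < m a := by exact_mod_cast hm a
    rw [sgm, mul_one, nuR_nat (hN a) (hN0 a) le_rfl, hNm, div_self hmr.ne']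
  mono a := by
    intro x hx y hy hxy
    have hmr : (0 : ℝ) < m a := by exact_mod_cast hm a
    have hMr : (0 : ℝ) < M := by exact_mod_cast hM
    refine div_lt_div_of_pos_right ?_ hmr
    refine lt_of_le_of_ne (nuR_mono (hN a) (by nlinarith)) fun he => ?_
    have h1 := nuR_injOn (hN a) (hN0 a) hM (mul_mem hx) (mul_mem hy) he
    exact hxy.ne (mul_left_cancel₀ hMr.ne' h1)
  cont a := by
    have : Continuous (sgm n M m a) :=
      ((continuous_nuR _ _).comp (continuous_const.mul continuous_id)).div_const _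
    exact this.continuousOn

omit hm hNm in
/-- (2) -/
theorem sel_sgm (a : I) : Sel (Icc (0 : ℝ) 1) (sgm n M m a) := by
  classical
  refine ⟨(fun i : ℕ => (AffineMap.const ℝ ℝ ((n a i - (n a (i + 1) - n a i) * i) / m a) +
    ((n a (i + 1) - n a i) * M / m a) • (LinearMap.id : ℝ →ₗ[ℝ] ℝ).toAffineMap)) ''
      (Set.Iio M), (finite_Iio M).image _, fun x hx => ?_⟩
  obtain ⟨i, hi, h1⟩ := exists_cell hM (mul_mem (M := M) hx)
  refine ⟨_, mem_image_of_mem _ hi, ?_⟩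
  rw [sgm, nuR_eq (hN a) (hN0 a) hi h1.1 h1.2]
  simp only [AffineMap.coe_add, AffineMap.coe_const, AffineMap.coe_smul, Pi.add_apply,
    Function.const_apply, Pi.smul_apply, LinearMap.coe_toAffineMap, LinearMap.id_coe, id_eq,
    smul_eq_mul]
  ring

omit hN0 hNm in
/-- (3) -/
theorem sgm_lip {L : ℝ} (a : I) (hL : ∀ j < M, n a (j + 1) - n a j ≤ L * (m a / M)) :
    ∀ x ∈ Icc (0 : ℝ) 1, ∀ x' ∈ Icc (0 : ℝ) 1, |sgm n M m a x - sgm n M m a x'| ≤ L * |x - x'| := by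
  have hmr : (0 : ℝ) < m a := by exact_mod_cast hm a
  have hMr : (0 : ℝ) < M := by exact_mod_cast hM
  have key : ∀ x ∈ Icc (0 : ℝ) 1, ∀ x' ∈ Icc (0 : ℝ) 1, x ≤ x' →
      |sgm n M m a x - sgm n M m a x'| ≤ L * |x - x'| := by
    intro x hx x' hx' h
    have h1 := nuR_sub_le hL (mul_mem hx) (mul_mem hx') (by nlinarith)
    have h2 : nuR (n a) M (M * x) ≤ nuR (n a) M (M * x') := nuR_mono (hN a) (by nlinarith)
    rw [abs_sub_comm, abs_sub_comm x x', sgm, sgm, ← sub_div, abs_div, abs_of_pos hmr,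
      abs_of_nonneg (by linarith), abs_of_nonneg (by linarith), div_le_iff₀ hmr]
    refine h1.trans (le_of_eq ?_)
    field_simp
  intro x hx x' hx'
  rcases le_total x x' with h | h
  · exact key x hx x' hx' h
  · have := key x' hx' x hx h
    rwa [abs_sub_comm, abs_sub_comm x' x] at this

omit hNm in
/-- (4) -/
theorem sgm_close {η : ℝ} (a : I) (h : ∀ j ≤ M, |n a j / m a - (j : ℝ) / M| ≤ η) {x : ℝ}
    (hx : x ∈ Icc (0 : ℝ) 1) : |sgm n M m a x - x| ≤ η := by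
  have hmr : (0 : ℝ) < m a := by exact_mod_cast hm a
  have hMr : (0 : ℝ) < M := by exact_mod_cast hM
  have h1 := nuR_close (hN a) (hN0 a) hM hmr h (mul_mem hx)
  rwa [mul_div_cancel_left₀ _ hMr.ne'] at h1

omit hN hN0 hm hNm in
/-- the slopes from the density of the nodes: `N j` = number of levels below `j / M` -/
theorem slope_of_dens {N : ℕ → ℕ} {n : ℕ → ℝ} {m : ℕ} (hm : 0 < m) {κ1 a e : ℝ}
    (hd : ∀ i j : ℕ, i ≤ j → j ≤ M → (N j : ℝ) - N i ≤ (1 + κ1) * (((j : ℝ) - i) / M * m) + a)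
    (hn : ∀ j ≤ M, |n j - N j| ≤ e) :
    ∀ j < M, n (j + 1) - n j ≤ ((1 + κ1) + (a + 2 * e) * M / m) * (m / M) := by
  have hmr : (0 : ℝ) < m := by exact_mod_cast hm
  have hMr : (0 : ℝ) < M := by exact_mod_cast hM
  intro j hj
  have h1 := hd j (j + 1) (Nat.le_succ j) hj
  have h2 := abs_le.1 (hn (j + 1) hj)
  have h3 := abs_le.1 (hn j hj.le)
  have e1 : ((1 + κ1) + (a + 2 * e) * M / m) * (m / M) =
      (1 + κ1) * ((((j + 1 : ℕ) : ℝ) - j) / M * m) + a + 2 * e := by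
    push_cast
    field_simp
    ring
  rw [e1]
  linarith [h2.2, h3.1]

end sgm

/-! ### the heights -/

section sel

variable {V W : Type*} [NormedAddCommGroup V] [NormedSpace ℝ V] [NormedAddCommGroup W]
  [NormedSpace ℝ W] {K : Set V}

theorem sel_cases {ι : Type*} (s : Finset ι) {f : ι → V → W} {k : V → W}
    (h : ∀ i ∈ s, Sel K (f i)) (hk : ∀ x ∈ K, ∃ i ∈ s, k x = f i x) : Sel K k := by
  classical
  choose! S hS h1 using h
  refine ⟨⋃ i ∈ s, S i, s.finite_toSet.biUnion fun i hi => hS i hi, fun x hx => ?_⟩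
  obtain ⟨i, hi, e⟩ := hk x hx
  obtain ⟨a, ha, e'⟩ := h1 i hi x hx
  exact ⟨a, mem_iUnion₂.2 ⟨i, hi, ha⟩, e.trans e'⟩

theorem Sel.mul_const {f : V → ℝ} (hf : Sel K f) (c : ℝ) : Sel K (fun x => f x * c) := by
  have := hf.smul_const c
  simpa only [smul_eq_mul] using this

end sel

theorem sel_fst {K : Set (ℝ × ℝ)} : Sel K (fun w : ℝ × ℝ => w.1) :=
  sel_affine (K := K) (LinearMap.fst ℝ ℝ ℝ).toAffineMap

theorem sel_snd {K : Set (ℝ × ℝ)} : Sel K (fun w : ℝ × ℝ => w.2) :=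
  sel_affine (K := K) (LinearMap.snd ℝ ℝ ℝ).toAffineMap

/-- (5) -/
theorem sel_Nf {n1 n2 : ℕ} (h1 : 0 < n1) (h2 : 0 < n2) : Sel Sc (Nf n1 n2) := by
  classical
  have hn1 : (0 : ℝ) < n1 := by exact_mod_cast h1
  have hn2 : (0 : ℝ) < n2 := by exact_mod_cast h2
  refine sel_cases (Finset.range n1 ×ˢ Finset.range n2)
    (f := fun q w => itc (Grd_714.nu n1 n2) q.1 (q.1 + 1) q.2 (q.2 + 1)
      ((n1 : ℝ) * (1 - w.1), (n2 : ℝ) * (1 - w.2))) (fun q _ => ?_) (fun w hw => ?_)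
  · have e1 : Sel Sc (fun w : ℝ × ℝ => ((q.1 + 1 : ℕ) : ℝ) - (n1 : ℝ) * (1 - w.1)) := by
      refine (((sel_const (K := Sc) (((q.1 + 1 : ℕ) : ℝ) - n1)).add
        (Sel.mul_const (sel_fst) (n1 : ℝ)))).congr fun w _ => ?_
      ring
    have e2 : Sel Sc (fun w : ℝ × ℝ => ((q.2 + 1 : ℕ) : ℝ) - (n2 : ℝ) * (1 - w.2)) := by
      refine (((sel_const (K := Sc) (((q.2 + 1 : ℕ) : ℝ) - n2)).add
        (Sel.mul_const (sel_snd) (n2 : ℝ)))).congr fun w _ => ?_
      ring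
    exact (((sel_const (K := Sc) _).add (Sel.mul_const e2 _)).add (Sel.mul_const e1 _)).add
      (Sel.mul_const (e1.min e2) _)
  · obtain ⟨x, y⟩ := w
    obtain ⟨hx, hy⟩ := hw
    simp only at hx hy
    obtain ⟨p, hp, hp1⟩ := exists_cell h1 (t := n1 * (1 - x))
      ⟨mul_nonneg hn1.le (by linarith [hx.2]), by nlinarith [hx.1]⟩
    obtain ⟨q, hq, hq1⟩ := exists_cell h2 (t := n2 * (1 - y))
      ⟨mul_nonneg hn2.le (by linarith [hy.2]), by nlinarith [hy.1]⟩
    refine ⟨(p, q), Finset.mem_product.2 ⟨Finset.mem_range.2 hp, Finset.mem_range.2 hq⟩, ?_⟩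
    simp only [Nf]
    exact itp_box _ (by omega) le_rfl (by omega) le_rfl hp1.1 (by push_cast; exact hp1.2) hq1.1
      (by push_cast; exact hq1.2)

/-! ### the relabelling of the boundary is `lvm` -/

variable {E : Type*} [NormedAddCommGroup E] [NormedSpace ℝ E]
variable {La : Set E} {P : I → Set E} {b : Set I → E}

/-- only the heights of the active pair count -/
theorem Bn_congr {N N' : I → I → ℝ × ℝ → ℝ} {u : I → ℝ}
    (h : ∀ c1 c2, c1 ≠ c2 → av u = {c1, c2} →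
      N c1 c2 (1 - u c1, 1 - u c2) = N' c1 c2 (1 - u c1, 1 - u c2)) : Bn b N u = Bn b N' u := by
  by_cases hx : ∃ c1 c2 : I, c1 ≠ c2 ∧ av u = {c1, c2}
  · rw [Bn, Bn, dif_pos hx, dif_pos hx,
      h _ _ hx.choose_spec.choose_spec.1 hx.choose_spec.choose_spec.2]
  · rw [Bn, Bn, dif_neg hx, dif_neg hx]

variable [CompleteSpace E]

section lvm

variable (F : Foam La P b 4) (hQ : Quads P b)
include F hQ

/-- a point of the boundary of the cell in the coordinates `sc` -/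
theorem sc_bdP {M : ℕ} (hM : 0 < M) {c0 : I} {z : E} (hz : z ∈ bdP P b (fun _ => M) c0) :
    z ∈ P c0 ∧ sc P b z ∈ KB P c0 ∧ co P b (fun _ => M) z = fun a => (M : ℝ) * sc P b z a := by
  have hm : ∀ c : I, 0 < (fun _ : I => M) c := fun _ => hM
  have hMr : (0 : ℝ) < M := by exact_mod_cast hM
  obtain ⟨hg, hb, hT⟩ := co_bxS F hQ hm hz
  have h0 : co P b (fun _ => M) z c0 = 0 := by
    have := (hb c0).2
    rw [Hc_self] at this
    exact le_antisymm (by simpa using this) (G2_nonneg hm hg c0)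
  have h1 : z = T b (lv (fun _ => M) (co P b (fun _ => M) z)) := by
    conv_lhs => rw [← hT]
    exact Tq_const hM hg
  have h2 : sc P b z = lv (fun _ => M) (co P b (fun _ => M) z) := by
    conv_lhs => rw [h1]
    exact F.sc_T hg.1
  have h3 : sc P b z ∈ K2 P := by rw [h2]; exact hg
  have h4 : sc P b z c0 = 0 := by rw [h2]; show co P b (fun _ => M) z c0 / _ = 0; rw [h0, zero_div]
  have h5 : z ∈ La := by rw [h1]; exact F.T_mem_La hg.1
  refine ⟨(F.sc_eq_zero h5).1 h4, KB_of_K2 h3 h4, ?_⟩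
  funext a
  rw [h2]
  show _ = (M : ℝ) * (co P b (fun _ => M) z a / M)
  field_simp

/-- (6) **the relabelling of the boundary (181's `rcR` for the constant mesh) is `lvm`** for every
clamp width `e ≥ η` -/
theorem rc_lvm {n : I → ℕ → ℝ} {M : ℕ} {m : I → ℕ} (hN : ∀ a, StrictMono (n a))
    (hN0 : ∀ a, n a 0 = 0) (hM : 0 < M) (hm : ∀ a, 0 < m a) (hNm : ∀ a, n a M = m a)
    {c0 : I} {η e : ℝ} (hη : 0 ≤ η) (he : η ≤ e)
    (hε : ∀ a, (P a ∩ P c0).Nonempty → ∀ j ≤ M, |n a j / m a - (j : ℝ) / M| ≤ η)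
    (hmη : ∀ a, (P a ∩ P c0).Nonempty → 1 / (m a : ℝ) ≤ η) {z : E}
    (hz : z ∈ bdP P b (fun _ => M) c0) :
    (rcR (m' := fun _ => M) hN hN0 hNm F hQ (fun _ => hM) hm c0).f z =
      lvm b (sgm n M m) (Nm m) e (sc P b z) := by
  have he0 : 0 ≤ e := hη.trans he
  obtain ⟨hz0, hKB, hco⟩ := sc_bdP F hQ hM hz
  have hR := rl_sgm hN hN0 hM hm hNm
  have hK : sc P b z ∈ K P := hKB.1
  have h0 : sc P b z c0 = 0 := hKB.2.1
  have h01 : ∀ a, sc P b z a ∈ Icc (0 : ℝ) 1 := fun a => hK.1 a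
  have touch : ∀ a, sc P b z a < 1 → (P a ∩ P c0).Nonempty := by
    intro a ha
    obtain ⟨y, hy⟩ := hK.2.2
    refine ⟨y, mem_fc.1 hy a ha, mem_fc.1 hy c0 ?_⟩
    show sc P b z c0 < 1
    rw [h0]; exact one_pos
  -- the clamps of the relabelling
  have e1 : sg (cs (sgm n M m) e) (sc P b z) = sg (sgm n M m) (sc P b z) := by
    funext a
    show clp (sgm n M m a (sc P b z a)) (sc P b z a) e = sgm n M m a (sc P b z a)
    rcases (h01 a).2.eq_or_lt with h | h
    · rw [h, hR.one]; exact clp_self he0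
    · exact clp_of_abs ((sgm_close hN hN0 hM hm a (hε a (touch a h)) (h01 a)).trans he)
  -- the clamps of the heights
  have e2 : Bn b (Nc (Nm m) e) (sg (sgm n M m) (sc P b z)) =
      Bn b (Nm m) (sg (sgm n M m) (sc P b z)) := by
    refine Bn_congr fun c1 c2 hne hav => ?_
    set u := sg (sgm n M m) (sc P b z) with hu
    have m1 : c1 ∈ av u := by rw [hav]; simp
    have m2 : c2 ∈ av u := by rw [hav]; simp
    have t1 := touch c1 ((hR.lt_one c1 (h01 c1)).1 m1.2)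
    have t2 := touch c2 ((hR.lt_one c2 (h01 c2)).1 m2.2)
    have hw : ((1 - u c1, 1 - u c2) : ℝ × ℝ) ∈ Sc :=
      ⟨⟨by simp only; linarith [m1.2], by simp only; linarith [m1.1]⟩,
      ⟨by simp only; linarith [m2.2], by simp only; linarith [m2.1]⟩⟩
    show clp (Nm m c1 c2 (1 - u c1, 1 - u c2)) (min (1 - u c1) (1 - u c2)) e = _
    exact clp_of_abs ((nf_close (hm c1) (hm c2) hw).trans ((max_le (hmη c1 t1) (hmη c2 t2)).trans he))
  rw [rcR_f, lvm, e1, e2, Tq]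
  congr 1
  funext a
  show nuR (n a) M (co P b (fun _ => M) z a) / m a = nuR (n a) M (M * sc P b z a) / m a
  rw [hco]

end lvm

/-! ### box foams -/

section box

variable {κ : Type*} [Fintype κ] [Nonempty κ] {La : Set (κ → ℝ)} {F : Set (Bx κ)} {δ κ0 : ℝ}

/-- (7a) `T` is `sz`-Lipschitz on the coordinates of a cell -/
theorem T_lip_KC (BF : BoxFoam La F δ κ0) (hLa : IsOpen La) (FF : Foam La (Pc F) (bc (F := F)) 4)
    {c0 : F} {u v : F → ℝ} (hu : u ∈ KC (Pc F) c0) (hv : v ∈ KC (Pc F) c0) :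
    ‖T (bc (F := F)) u - T (bc (F := F)) v‖ ≤ c0.1.sz * ∑ a ∈ nbF FF c0, |u a - v a| :=
  T_lip BF hLa hu.1 hv.1 hu.2 hv.2 (nbF FF c0) fun c hc => by
    rw [KC_one FF hu hc, KC_one FF hv hc]

/-- (7b) the coordinates are `Cs / sz`-Lipschitz on a cell -/
theorem sc_lip_P (BF : BoxFoam La F δ κ0) (hLa : IsOpen La) (hδ : 0 < δ) {R : ℝ} (hR : 0 < R)
    (hcmp : Cmp F R) {c0 : F} {y y' : κ → ℝ} (hy : y ∈ Pc F c0) (hy' : y' ∈ Pc F c0) (a : F) :
    |sc (Pc F) (bc (F := F)) y a - sc (Pc F) (bc (F := F)) y' a| ≤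
      Cs (Fintype.card κ) δ R / c0.1.sz * ‖y - y'‖ := lip_cell BF hLa hδ hR hcmp c0 y hy y' hy' a

/-- (7a') the same with the sup distance: at most `8` coordinates differ -/
theorem T_lip_sup (BF : BoxFoam La F δ κ0) (hLa : IsOpen La)
    (FF : Foam La (Pc F) (bc (F := F)) 4) {c0 : F} {u v : F → ℝ} (hu : u ∈ KC (Pc F) c0)
    (hv : v ∈ KC (Pc F) c0) {t : ℝ} (ht : 0 ≤ t) (h : ∀ a, |u a - v a| ≤ t) :
    ‖T (bc (F := F)) u - T (bc (F := F)) v‖ ≤ 8 * (c0.1.sz * t) := by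
  classical
  have hs0 : 0 < c0.1.sz := Bx.sz_pos (BF.pos _ c0.2)
  have key : ∀ w ∈ KC (Pc F) c0, {a | w a < 1}.Finite ∧ {a | w a < 1}.ncard ≤ 4 := by
    intro w hw
    obtain ⟨y, hy⟩ := hw.1.2.2
    have hsub : {a | w a < 1} ⊆ act (Pc F) y := fun a ha => mem_fc.1 hy a ha
    have hyL : y ∈ La := FF.sub c0 (mem_fc.1 hy c0 (by
      show w c0 < 1
      rw [hw.2]; exact one_pos))
    have hfin : (act (Pc F) y).Finite := FF.finite_act hyL
    exact ⟨hfin.subset hsub, (ncard_le_ncard hsub hfin).trans (FF.card y hyL)⟩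
  obtain ⟨f1, n1⟩ := key u hu
  obtain ⟨f2, n2⟩ := key v hv
  set S : Finset F := f1.toFinset ∪ f2.toFinset with hS
  have hcard : (S.card : ℝ) ≤ 8 := by
    have h1 : S.card ≤ f1.toFinset.card + f2.toFinset.card := Finset.card_union_le _ _
    rw [← ncard_eq_toFinset_card _ f1, ← ncard_eq_toFinset_card _ f2] at h1
    have : S.card ≤ 8 := by omega
    exact_mod_cast this
  have h1 := T_lip BF hLa hu.1 hv.1 hu.2 hv.2 S fun c hc => by
    rw [hS, Finset.mem_union, not_or, Finite.mem_toFinset, Finite.mem_toFinset] at hc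
    rw [le_antisymm (hu.1.1 c).2 (not_lt.1 hc.1), le_antisymm (hv.1.1 c).2 (not_lt.1 hc.2)]
  refine h1.trans ?_
  have h2 : ∑ c ∈ S, |u c - v c| ≤ 8 * t := by
    calc ∑ c ∈ S, |u c - v c| ≤ ∑ _c ∈ S, t := Finset.sum_le_sum fun c _ => h c
      _ = S.card * t := by rw [Finset.sum_const, nsmul_eq_mul]
      _ ≤ 8 * t := mul_le_mul_of_nonneg_right hcard ht
  calc c0.1.sz * ∑ c ∈ S, |u c - v c| ≤ c0.1.sz * (8 * t) := mul_le_mul_of_nonneg_left h2 hs0.le
    _ = 8 * (c0.1.sz * t) := by ring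

/-- (7c) the product of the two constants depends on the foam constants only -/
theorem Dt_mul_Ds (BF : BoxFoam La F δ κ0) {R : ℝ} (c0 : F) :
    c0.1.sz * (Cs (Fintype.card κ) δ R / c0.1.sz) = Cs (Fintype.card κ) δ R := by
  have hs0 : 0 < c0.1.sz := Bx.sz_pos (BF.pos _ c0.2)
  field_simp

end box

end Crest.Agent.R096.Ncl_458
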