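import Crest.Agent.R096.Rlp4_150

/-!
# R096 (row 96), REL-P, part 6 (helper714): `Rm` is a selection of finitely many affine maps
-/

set_option autoImplicit false
set_option linter.unusedSectionVars false
set_option linter.unusedVariables false

open Set

namespace Crest.Agent.R096.Rlp_150

open Crest.Agent.R096.Brk1_582 Crest.Agent.R096.Brk2_582
open Crest.Agent.R096.Rel_628 Crest.Agent.R096.Grd_714

variable {E : Type*} [NormedAddCommGroup E] [NormedSpace ℝ E] {I : Type*}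
variable {La : Set E} {P : I → Set E} {b : Set I → E}

section sel

variable [CompleteSpace E] (F : Foam La P b 4) {c0 : I}
variable {σ : I → ℝ → ℝ} (hσ : Rl σ) {N : I → I → ℝ × ℝ → ℝ} {Ef : ℝ → ℝ}
  (hE : ∀ δ, 0 ≤ Ef δ)

include F hσ hE in
theorem dl_le_su' {u : I → ℝ} (hu : u ∈ KC P c0) {a : I} (ha : a ≠ c0) :
    dl (nbF F c0) c0 u ≤ su (nbF F c0) c0 σ Ef u a := by
  rcases (dl_le_one (C := nbF F c0) (c0 := c0) (u := u)).eq_or_lt with h | h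
  · rw [su_center F hE hu h]; exact dl_le_all F hu ha
  · obtain ⟨h1, h2⟩ := exists_cone F hu h
    have h3 := dl_nonneg F hu
    set δ := dl (nbF F c0) c0 u with hδ
    have h4 : 0 < 1 - δ := by linarith
    have h5 : (1 : ℝ) - δ ≤ 1 := by linarith
    rw [h2, su_cone F hE h1 h4 h5, cone_ne _ _ ha]
    have he : 0 ≤ Ef (1 - (1 - δ)) / (1 - δ) := div_nonneg (hE _) h4.le
    have h6 := ((sg_mem_KB (rl_cs hσ he) h1).1.1 a).1
    have := mul_nonneg h4.le h6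
    linarith

/-- `1 - τ = 0` or in the cube, homogenised -/
theorem inv_smul_mem_Sc {τ x y : ℝ} (hx : 0 ≤ x) (hy : 0 ≤ y) (hxt : x ≤ τ) (hyt : y ≤ τ) :
    τ⁻¹ • ((x, y) : ℝ × ℝ) ∈ Sc := by
  have h0 : 0 ≤ τ := hx.trans hxt
  have key : ∀ z : ℝ, 0 ≤ z → z ≤ τ → τ⁻¹ * z ∈ Icc (0 : ℝ) 1 := by
    intro z hz hzt
    refine ⟨mul_nonneg (inv_nonneg.2 h0) hz, ?_⟩
    rcases h0.eq_or_lt with h | h
    · rw [← h]; simp
    · rw [inv_mul_le_iff₀ h]; linarith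
  exact ⟨key x hx hxt, key y hy hyt⟩

theorem inv_smul_mem_Icc {τ z : ℝ} (hz : 0 ≤ z) (hzt : z ≤ τ) : τ⁻¹ • z ∈ Icc (0 : ℝ) 1 := by
  have := (inv_smul_mem_Sc hz hz hzt hzt).1
  exact this

variable [FiniteDimensional ℝ E]

include F

theorem sel_sc (a : I) : Sel (P c0) (fun y => sc P b y a) := (plOn_sc_apply F c0 a).2

theorem sel_dl : Sel (P c0) (fun y => dl (nbF F c0) c0 (sc P b y)) := by
  classical
  have := sel_fold_min (K := P c0) ((nbF F c0).erase c0) (f := fun a y => sc P b y a) 1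
    fun a _ => sel_sc F a
  refine this.congr fun y _ => ?_
  simp only [dl]

theorem sel_om : Sel (P c0) (fun y => 1 - dl (nbF F c0) c0 (sc P b y)) :=
  (sel_const 1).sub (sel_dl F)

theorem sel_E (hsE : Sel (Icc 0 1) Ef) : Sel (P c0) (fun y => Ef (dl (nbF F c0) c0 (sc P b y))) :=
  Sel.comp (L := Icc (0 : ℝ) 1) hsE (sel_dl F) fun y hy =>
    ⟨dl_nonneg F (sc_mem_KC F hy), dl_le_one⟩

theorem sel_su (hsσ : ∀ a, Sel (Icc 0 1) (σ a)) (hsE : Sel (Icc 0 1) Ef) (a : I) :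
    Sel (P c0) (fun y => su (nbF F c0) c0 σ Ef (sc P b y) a) := by
  by_cases ha : a = c0
  · refine (sel_const (K := P c0) (0 : ℝ)).congr fun y _ => ?_
    simp only [ha, su_c0]
  · refine Sel.congr (f := fun y => clp (dl (nbF F c0) c0 (sc P b y) +
      hom (σ a) (1 - dl (nbF F c0) c0 (sc P b y)) (sc P b y a - dl (nbF F c0) c0 (sc P b y)))
      (sc P b y a) (Ef (dl (nbF F c0) c0 (sc P b y)))) ?_ fun y _ => su_ne ha
    refine sel_clp ((sel_dl F).add (sel_hom (hsσ a) (sel_om F) ((sel_sc F a).sub (sel_dl F)) ?_ ?_))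
      (sel_sc F a) (sel_E F hsE)
    · intro y hy h
      have h1 : dl (nbF F c0) c0 (sc P b y) = 1 := by linarith
      rw [h1, one_of_dl F (sc_mem_KC F hy) h1 ha, sub_self]
    · intro y hy
      have h1 := dl_le_all F (sc_mem_KC F hy) ha
      have h2 := ((sc_mem_KC F hy).1.1 a).2
      exact inv_smul_mem_Icc (by linarith) (by linarith)

include hσ in
theorem sel_T_su (hE : ∀ δ, 0 ≤ Ef δ) (hsσ : ∀ a, Sel (Icc 0 1) (σ a)) (hsE : Sel (Icc 0 1) Ef) :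
    Sel (P c0) (fun y => T b (su (nbF F c0) c0 σ Ef (sc P b y))) := by
  have h1 : Sel (P c0) (fun y => rs (nbF F c0) (su (nbF F c0) c0 σ Ef (sc P b y))) :=
    sel_pi fun c => sel_su F hsσ hsE c
  have e : ∀ y ∈ P c0, ex (nbF F c0) (rs (nbF F c0) (su (nbF F c0) c0 σ Ef (sc P b y))) =
      su (nbF F c0) c0 σ Ef (sc P b y) := fun y hy => ex_rs fun c hc =>
    su_one F hσ hE (sc_mem_KC F hy) (KC_one F (sc_mem_KC F hy) hc)
  have h2 := Sel.comp (L := KF P (nbF F c0) c0) (plOn_T F (nbF F c0) c0).2 h1 fun y hy => by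
    have := su_mem F hσ hE (sc_mem_KC F hy)
    refine ⟨by rw [e y hy]; exact this.1, by rw [e y hy]; exact this.2⟩
  refine h2.congr fun y hy => ?_
  change T b _ = T b (ex _ (rs _ _))
  rw [e y hy]

include hσ in
theorem sel_hh (hE : ∀ δ, 0 ≤ Ef δ) (hsσ : ∀ a, Sel (Icc 0 1) (σ a)) (hsE : Sel (Icc 0 1) Ef)
    (hsN : ∀ c1 c2, Sel Sc (N c1 c2)) (d c1 c2 : I) :
    Sel (P c0) (fun y => hh N Ef c1 c2 (dl (nbF F c0) c0 (sc P b y))
      (su (nbF F c0) c0 σ Ef (sc P b y)) • Vc P b c0 d c1 c2) := by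
  by_cases hV : c1 ≠ c2 ∧ c1 ≠ c0 ∧ c1 ≠ d ∧ c2 ≠ c0 ∧ c2 ≠ d ∧
      (fc P (insert c2 (insert c1 {c0, d}))).Nonempty
  · refine Sel.smul_const ?_ _
    have s1 : ∀ a, Sel (P c0) (fun y => 1 - su (nbF F c0) c0 σ Ef (sc P b y) a) := fun a =>
      (sel_const 1).sub (sel_su F hsσ hsE a)
    have h0 : ∀ a, a ≠ c0 → ∀ y ∈ P c0, 0 ≤ 1 - su (nbF F c0) c0 σ Ef (sc P b y) a ∧
        1 - su (nbF F c0) c0 σ Ef (sc P b y) a ≤ 1 - dl (nbF F c0) c0 (sc P b y) := by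
      intro a ha y hy
      have h1 := dl_le_su' F hσ hE (sc_mem_KC F hy) ha
      have h2 := ((su_mem F hσ hE (sc_mem_KC F hy)).1.1 a).2
      exact ⟨by linarith, by linarith⟩
    refine Sel.sub (sel_clp (sel_hom (hsN c1 c2) (sel_om F) (sel_prod (s1 c1) (s1 c2)) ?_ ?_)
      ((s1 c1).min (s1 c2)) (sel_E F hsE)) ((s1 c1).min (s1 c2))
    · intro y hy h
      obtain ⟨a1, a2⟩ := h0 c1 hV.2.1 y hy
      obtain ⟨b1, b2⟩ := h0 c2 hV.2.2.2.1 y hy
      rw [h] at a2 b2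
      exact Prod.ext (le_antisymm a2 a1) (le_antisymm b2 b1)
    · intro y hy
      obtain ⟨a1, a2⟩ := h0 c1 hV.2.1 y hy
      obtain ⟨b1, b2⟩ := h0 c2 hV.2.2.2.1 y hy
      exact inv_smul_mem_Sc a1 b1 a2 b2
  · refine (sel_const (K := P c0) (0 : E)).congr fun y _ => ?_
    simp only [Vc, if_neg hV, smul_zero]

/-- the local formula is a selection -/
theorem sel_piece (hσ : Rl σ) (hE : ∀ δ, 0 ≤ Ef δ) (hsσ : ∀ a, Sel (Icc 0 1) (σ a))
    (hsE : Sel (Icc 0 1) Ef) (hsN : ∀ c1 c2, Sel Sc (N c1 c2)) (d c1 c2 : I) :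
    Sel (P c0) (fun y => T b (su (nbF F c0) c0 σ Ef (sc P b y)) +
      hh N Ef c1 c2 (dl (nbF F c0) c0 (sc P b y)) (su (nbF F c0) c0 σ Ef (sc P b y)) •
        Vc P b c0 d c1 c2) :=
  (sel_T_su F hσ hE hsσ hsE).add (sel_hh F hσ hE hsσ hsE hsN d c1 c2)

omit [FiniteDimensional ℝ E] in
/-- **every point of the cell off the centre lies in a piece** -/
theorem exists_piece {y : E} (hy : y ∈ P c0) (h : dl (nbF F c0) c0 (sc P b y) < 1) :
    ∃ d ∈ nbF F c0, ∃ c1 ∈ nbF F c0, ∃ c2 ∈ nbF F c0, d ≠ c0 ∧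
      (∀ a ∈ nbF F c0, a ≠ c0 → sc P b y d ≤ sc P b y a) ∧
      ∀ a, a ≠ c0 → a ≠ d → a ≠ c1 → a ≠ c2 → sc P b y a = 1 := by
  classical
  obtain ⟨d, hd, hdc, hde⟩ := exists_dl h
  have hc0 : c0 ∈ nbF F c0 := self_mem_nbF F ⟨y, hy⟩
  have hK := sc_mem_KC F hy
  set B : Set I := {a | sc P b y a < 1} with hB
  have hBne : B.Nonempty := ⟨c0, by rw [hB, mem_ofPred_eq, hK.2]; exact one_pos⟩
  have hBf : (fc P B).Nonempty := hK.1.2.2
  have hcard : B.ncard ≤ 4 := F.ncard_le_of_fc hBne hBf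
  have hBsub : B ⊆ (nbF F c0 : Set I) := by
    intro a ha
    by_contra hn
    have := KC_one F hK (a := a) hn
    rw [hB, mem_ofPred_eq, this] at ha
    exact lt_irrefl _ ha
  have hBfin : B.Finite := (nbF F c0).finite_toSet.subset hBsub
  have hcB : c0 ∈ B := by rw [hB, mem_ofPred_eq, hK.2]; exact one_pos
  have hdB : d ∈ B := by rw [hB, mem_ofPred_eq, hde]; exact h
  have h2 : (B \ {c0, d}).ncard ≤ 2 := by
    have e1 : ({c0, d} : Set I).ncard = 2 := ncard_pair hdc.symm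
    have e2 := ncard_sdiff_add_ncard_of_subset (s := {c0, d}) (t := B) (by
      rintro a (rfl | rfl)
      · exact hcB
      · exact hdB) hBfin
    omega
  have hf2 : (B \ {c0, d}).Finite := hBfin.subset sdiff_subset
  obtain ⟨c1, hc1, c2, hc2, h12⟩ : ∃ c1 ∈ nbF F c0, ∃ c2 ∈ nbF F c0, B \ {c0, d} ⊆ {c1, c2} := by
    have hs : ∀ x ∈ B \ {c0, d}, x ∈ nbF F c0 := fun x hx => hBsub hx.1
    obtain h0 | h0 | h0 : (B \ {c0, d}).ncard = 0 ∨ (B \ {c0, d}).ncard = 1 ∨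
        (B \ {c0, d}).ncard = 2 := by omega
    · refine ⟨c0, hc0, c0, hc0, ?_⟩
      rw [(ncard_eq_zero hf2).1 h0]; exact empty_subset _
    · obtain ⟨x, hx⟩ := ncard_eq_one.1 h0
      refine ⟨x, hs x (by rw [hx]; rfl), x, hs x (by rw [hx]; rfl), ?_⟩
      rw [hx]; intro z hz; exact Or.inl hz
    · obtain ⟨x, z, -, hx⟩ := ncard_eq_two.1 h0
      exact ⟨x, hs x (by rw [hx]; simp), z, hs z (by rw [hx]; simp), by rw [hx]⟩
  refine ⟨d, hd, c1, hc1, c2, hc2, hdc, fun a ha hac => by rw [hde]; exact dl_le ha hac, ?_⟩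
  intro a g1 g2 g3 g4
  by_contra hne
  have ha : a ∈ B \ {c0, d} := ⟨lt_of_le_of_ne (hK.1.1 a).2 hne, by
    rintro (h | h)
    · exact g1 h
    · exact g2 h⟩
  rcases h12 ha with h | h
  · exact g3 h
  · exact g4 h

/-- **SEL half of REL-P: `Rm` is a selection of finitely many affine maps on the cell** -/
theorem sel_Rm (hQ : Quads P b) (hσ : Rl σ) (hA : ∀ c1 c2, Adm (N c1 c2)) (hN : Sym N)
    (hE : ∀ δ, 0 ≤ Ef δ) (hsσ : ∀ a, Sel (Icc 0 1) (σ a)) (hsE : Sel (Icc 0 1) Ef)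
    (hsN : ∀ c1 c2, Sel Sc (N c1 c2)) :
    Sel (P c0) (Rm P b (nbF F c0) c0 σ N Ef) := by
  choose! S hS h1 using fun p : I × I × I => sel_piece (c0 := c0) F hσ hE hsσ hsE hsN p.1 p.2.1
    p.2.2
  set C := nbF F c0 with hC
  refine ⟨{AffineMap.const ℝ E (b {c0})} ∪ ⋃ p ∈ (C ×ˢ C ×ˢ C : Finset (I × I × I)), S p,
    (finite_singleton _).union ((C ×ˢ C ×ˢ C).finite_toSet.biUnion fun p _ => hS p),
    fun y hy => ?_⟩
  rcases (dl_le_one (C := C) (c0 := c0) (u := sc P b y)).eq_or_lt with h | h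
  · exact ⟨_, Or.inl rfl, by rw [Rm_center F hQ hσ hA hN hE hy h]; rfl⟩
  · obtain ⟨d, hd, c1, hc1, c2, hc2, hdc, hdm, h2⟩ := exists_piece F hy h
    obtain ⟨g, hg, e⟩ := h1 (d, c1, c2) y hy
    refine ⟨g, Or.inr (mem_iUnion₂.2 ⟨(d, c1, c2), ?_, hg⟩), ?_⟩
    · simp only [Finset.mem_product]
      exact ⟨hd, hc1, hc2⟩
    · rw [Rm_eq F hQ hσ hA hN hE hy hdc hd hdm fun a _ g1 g2 g3 g4 => h2 a g1 g2 g3 g4]
      exact e

end sel

end Crest.Agent.R096.Rlp_150
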