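import Crest.Agent.R096.Rlp5_150
import Crest.Agent.R096.Rlp6_714
import Crest.Agent.R096.Ncl3_458
import Crest.Agent.R096.Lco3_714

/-!
# R096 (row 96), REL-PACK (helper714): the relabelling of a box, packed

`rel_pack` : the PL self-map `Rc` of the cell `Pc F c` with `rcR` on the boundary, radial near the
boundary, the identity on the inner copy of size `1 - s`, keeping the copies, and with
`st κ' ∘ Rc` Lipschitz with a constant chosen before `s`.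
On Rlp1-5 of helper150, Ncl3 of helper458 / helper914, Rlp6 and Lco1-3 (helper714).
-/

set_option autoImplicit false
set_option linter.unusedSectionVars false
set_option linter.unusedVariables false

open Set Metric Filter Topology

namespace Crest.Agent.R096.Rpk_714

open Crest.Agent.R096.Ce_537 Crest.Agent.R096.Bd_416 Crest.Agent.R096.Xp_537
open Crest.Agent.R096.Brk1_582 Crest.Agent.R096.Brk2_582 Crest.Agent.R096.Brk6_582
open Crest.Agent.R096.Grd_714 Crest.Agent.R096.Bin_181 Crest.Agent.R096.Fl_835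
open Crest.Agent.R096.Bsp_628 Crest.Agent.R096.Brk3_582 Crest.Agent.R096.Brk5_582
open Crest.Agent.R096.Rel_628 Crest.Agent.R096.Rlp_150 Crest.Agent.R096.Ncl_458
open Crest.Agent.R096.Lco_714

/-! ### the clamp size -/

/-- the clamp size -/
noncomputable def Es (s : ℝ) (t : ℝ) : ℝ := max (s - t) 0

theorem Es_nonneg (s t : ℝ) : 0 ≤ Es s t := le_max_right _ _

theorem Es_zero {s t : ℝ} (h : s ≤ t) : Es s t = 0 := max_eq_right (by linarith)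

theorem Es_lip (s t t' : ℝ) : |Es s t - Es s t'| ≤ |t - t'| := by
  refine (abs_max_sub_max_le_abs (s - t) (s - t') 0).trans (le_of_eq ?_)
  have : s - t - (s - t') = -(t - t') := by ring
  rw [this, abs_neg]

theorem sel_Es (s : ℝ) (K : Set ℝ) : Sel K (Es s) := by
  have h1 : Sel K (fun t : ℝ => t) := sel_affine (K := K) (LinearMap.id : ℝ →ₗ[ℝ] ℝ).toAffineMap
  exact ((sel_const s).sub h1).max (sel_const 0)

theorem Es_ge {s ρ : ℝ} (hs : 0 ≤ s) (h0 : 0 < ρ) (h1 : ρ ≤ 1) (h : 1 - ρ ≤ s / 2) :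
    s / 2 ≤ Es s (1 - ρ) / ρ := by
  have h2 : s / 2 ≤ Es s (1 - ρ) := le_max_of_le_left (by linarith)
  rw [le_div_iff₀ h0]
  nlinarith

/-! ### gauge -/

section foam

variable {E : Type*} [NormedAddCommGroup E] [NormedSpace ℝ E] {I : Type*}
variable {b : Set I → E} {P : I → Set E} {La : Set E} [CompleteSpace E] (F : Foam La P b 4)

include F in
/-- **the gauge is `1 - dl`** -/
theorem rho_dl {A : E ≃L[ℝ] E} {c : I} (hb : P c = {y | rho A (b {c}) y ≤ 1}) {y : E}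
    (hy : y ∈ P c) : rho A (b {c}) y = 1 - dl (nbF F c) c (sc P b y) := by
  rcases (dl_le_one (C := nbF F c) (c0 := c) (u := sc P b y)).eq_or_lt with h | h
  · rw [h, eq_b_of_dl F hy h, rho_center, sub_self]
  · obtain ⟨h1, h2⟩ := exists_cone F (sc_mem_KC F hy) h
    have h3 := dl_nonneg F (sc_mem_KC F hy)
    set δ := dl (nbF F c) c (sc P b y) with hδ
    have h4 : 0 ≤ 1 - δ := by linarith
    have e1 : y = T b (sc P b y) := (F.T_sc (F.sub c hy)).symm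
    have hw : T b (up δ (sc P b y)) ∈ Wall P c := by
      obtain ⟨k1, k2, d, hd, k3⟩ := h1
      have m : ∀ a, up δ (sc P b y) a = 0 → T b (up δ (sc P b y)) ∈ P a := fun a ha =>
        mem_fc.1 (F.T_mem_fc k1) a ha
      exact ⟨m c k2, d, hd, m d k3⟩
    have e2 : y = b {c} + (1 - δ) • (T b (up δ (sc P b y)) - b {c}) := by
      rw [← T_cone' F ⟨h1.1, h1.2.1⟩ h4 (by linarith), ← h2]; exact e1
    conv_lhs => rw [e2]
    rw [rho_add_smul h4, rho_of_wall F hb hw, mul_one]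

variable [FiniteDimensional ℝ E] (hQ : Quads P b) {c0 : I}
variable {σ : I → ℝ → ℝ} (hσ : Rl σ) {N : I → I → ℝ × ℝ → ℝ} (hA : ∀ c1 c2, Adm (N c1 c2))
  (hN : Sym N) {Ef : ℝ → ℝ} (hE : ∀ δ, 0 ≤ Ef δ)

include F hQ hσ hA hN hE in
/-- **`Rm` is the identity where the clamp vanishes** -/
theorem Rm_id {y : E} (hy : y ∈ P c0) (h0 : Ef (dl (nbF F c0) c0 (sc P b y)) = 0) :
    Rm P b (nbF F c0) c0 σ N Ef y = y := by
  rcases (dl_le_one (C := nbF F c0) (c0 := c0) (u := sc P b y)).eq_or_lt with h | h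
  · rw [Rm_center F hQ hσ hA hN hE hy h]; exact (eq_b_of_dl F hy h).symm
  · obtain ⟨d, hd, c1, hc1, c2, hc2, hdc, hdm, h2⟩ := exists_piece F hy h
    rw [Rm_eq F hQ hσ hA hN hE hy hdc hd hdm fun a _ g1 g2 g3 g4 => h2 a g1 g2 g3 g4]
    have e1 : su (nbF F c0) c0 σ Ef (sc P b y) = sc P b y := by
      funext a
      by_cases ha : a = c0
      · rw [ha, su_c0, (sc_mem_KC F hy).2]
      · rw [su_ne ha, h0, clp_zero]
    rw [e1, hh, h0, clp_zero, sub_self, zero_smul, add_zero, F.T_sc (F.sub c0 hy)]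

include hQ hσ hA hN hE in
/-- `Rm` is a PL equivalence -/
theorem exists_equiv (hsσ : ∀ a, Sel (Icc 0 1) (σ a)) (hsE : Sel (Icc 0 1) Ef)
    (hsN : ∀ c1 c2, Sel Sc (N c1 c2)) {L : ℝ}
    (hL : ∀ y ∈ P c0, ∀ y' ∈ P c0, ‖Rm P b (nbF F c0) c0 σ N Ef y -
      Rm P b (nbF F c0) c0 σ N Ef y'‖ ≤ L * ‖y - y'‖) :
    ∃ e : PLEquiv (P c0) (P c0), e.f = Rm P b (nbF F c0) c0 σ N Ef := by
  refine Cx_609.exists_equiv_of_bijOn (F.cvx c0).finConv (F.cpt c0).isClosed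
    (Cx_609.plOn_iff.1 ⟨?_, sel_Rm F hQ hσ hA hN hE hsσ hsE hsN⟩)
    ⟨Rm_mapsTo F hQ hσ hA hN hE, Rm_injOn F hQ hσ hA hN hE, Rm_surjOn F hQ hσ hA hN hE⟩
  refine LipschitzOnWith.continuousOn (K := Real.toNNReal L) ?_
  refine LipschitzOnWith.of_dist_le_mul fun x hx y hy => ?_
  rw [dist_eq_norm, dist_eq_norm]
  refine (hL x hx y hy).trans (mul_le_mul_of_nonneg_right ?_ (norm_nonneg _))
  exact Real.le_coe_toNNReal L

end foam

/-! ### nodes from densities -/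

/-- **the hypotheses on the nodes from the density** (`r` copies of every level) -/
theorem nodes_of_dens {N : ℕ → ℕ} {n : ℕ → ℝ} {M m : ℕ} (hM : 0 < M) (hm : 0 < m) (hN0 : N 0 = 0)
    (hNM : N M = m) {κp r e η : ℝ} (hκ0 : 0 ≤ κp) (hκ1 : κp ≤ 1)
    (hd : ∀ i j : ℕ, i ≤ j → j ≤ M → (N j : ℝ) - N i ≤ (1 + κp) * (((j : ℝ) - i) / M * m) + r)
    (hn : ∀ j ≤ M, |n j - N j| ≤ e) (hr : (r + 2 * e) * M ≤ 2 * m)
    (hη : κp * m + (r + e) ≤ η * m) (hη1 : 1 ≤ η * m) :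
    (∀ i < M, n (i + 1) - n i ≤ 4 * m / M) ∧ (∀ j ≤ M, |n j / m - (j : ℝ) / M| ≤ η) ∧
      1 ≤ η * m := by
  have hM' : (0 : ℝ) < M := by exact_mod_cast hM
  have hm' : (0 : ℝ) < m := by exact_mod_cast hm
  refine ⟨fun i hi => ?_, fun j hj => ?_, hη1⟩
  · refine (slope_of_dens hM hm hd hn i hi).trans ?_
    have h1 : (r + 2 * e) * M / m ≤ 2 := by rw [div_le_iff₀ hm']; exact hr
    have h2 : 0 ≤ (m : ℝ) / M := by positivity
    have e1 : (4 : ℝ) * m / M = 4 * (m / M) := mul_div_assoc _ _ _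
    rw [e1]
    exact mul_le_mul_of_nonneg_right (by linarith) h2
  · refine (Ncl_914.nodes_close_real hM hm (Ncl_914.nodes_close hM hN0 hNM hκ0 hd hj)
      (hn j hj)).trans ?_
    have : κp + (r + e) / m = (κp * m + (r + e)) / m := by field_simp
    rw [this, div_le_iff₀ hm']
    exact hη

/-! ### box foams -/

section box

variable {κ : Type*} [Fintype κ] [Nonempty κ] {La : Set (κ → ℝ)} {F : Set (Bx κ)} {δ κ0 : ℝ}

/-- the Lipschitz constant of `Rc` -/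
noncomputable def S1c (δ R : ℝ) : ℝ := Cs 3 δ R * (27 * 4 + 24)

/-- the Lipschitz constant of `st ∘ Rc` -/
noncomputable def Spk (δ κ0 R : ℝ) : ℝ := max 1 (Lco_714.Sc (S1c δ R) δ κ0 R 4)

/-- **REL-PACK**, explicit: `κs = η = s / 2` -/
theorem rel_pack' (h3 : Fintype.card κ = 3) (hδ : 0 < δ) {R : ℝ} (hR : 0 < R) {s : ℝ}
    (hs : 0 < s) (hs1 : s < 1) (BF : BoxFoam La F δ κ0) (hLa : IsOpen La) (hcmp : Cmp F R)
    {m : F → ℕ} (hm : ∀ a, 0 < m a) {M : ℕ} (hM : 0 < M) {n : F → ℕ → ℝ}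
    (hN : ∀ a, StrictMono (n a)) (hN0 : ∀ a, n a 0 = 0) (hNm : ∀ a, n a M = m a) (c : F)
    (hn : ∀ a, (Pc F a ∩ Pc F c).Nonempty → (∀ i < M, n a (i + 1) - n a i ≤ 4 * m a / M) ∧
      (∀ j ≤ M, |n a j / m a - (j : ℝ) / M| ≤ s / 2) ∧ 1 ≤ s / 2 * m a) :
    ∃ Rc : PLEquiv (Pc F c) (Pc F c),
      (∀ z ∈ bdP (Pc F) (bc (F := F)) (fun _ => M) c, Rc.f z =
        (rcR (m' := fun _ => M) hN hN0 hNm (foam4 BF hLa h3) (quads_box BF h3)
          (fun _ => hM) hm c).f z) ∧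
      (∀ z ∈ Wall (Pc F) c, ∀ r ∈ Icc (1 - s / 2) 1, Rc.f (bc {c} + r • (z - bc {c})) =
        bc {c} + r • ((rcR (m' := fun _ => M) hN hN0 hNm (foam4 BF hLa h3) (quads_box BF h3)
          (fun _ => hM) hm c).f z - bc {c})) ∧
      (∀ u ∈ Pc F c, Rc.f ((1 - s) • u + s • bc {c}) = (1 - s) • u + s • bc {c}) ∧
      (∀ κ', 0 ≤ κ' → κ' < 1 → ∀ y ∈ Cpy c κ', Rc.f y ∈ Cpy c κ') ∧
      (∀ y ∈ Pc F c, ∀ y' ∈ Pc F c, ‖Rc.f y - Rc.f y'‖ ≤ S1c δ R * ‖y - y'‖) ∧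
      (∀ κ', 0 < κ' → κ' ≤ s / 2 → ∀ y ∈ Pc F c, ∀ y' ∈ Pc F c,
        ‖st (grid (foam4 BF hLa h3) (quads_box BF h3) (Pc_ne BF) hm) κ' (Rc.f y) -
          st (grid (foam4 BF hLa h3) (quads_box BF h3) (Pc_ne BF) hm) κ' (Rc.f y')‖ ≤
          Spk δ κ0 R * ‖y - y'‖) := by
  have FF := foam4 BF hLa h3
  have hQ := quads_box BF h3
  have hsz : 0 < c.1.sz := Bx.sz_pos (BF.pos _ c.2)
  have hb := Pc_eq c (BF.pos _ c.2)
  have hσ : Rl (sgm n M m) := rl_sgm hN hN0 hM hm hNm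
  have hA : ∀ c1 c2, Adm (Nm m c1 c2) := adm_Nm hm
  have hNs : Sym (Nm m) := sym_Nm m
  have hE := Es_nonneg s
  have hEs : ∀ t ∈ Icc (0 : ℝ) 1, ∀ t' ∈ Icc (0 : ℝ) 1, |Es s t - Es s t'| ≤ |t - t'| :=
    fun t _ t' _ => Es_lip s t t'
  have hσL : ∀ a ∈ nbF FF c, ∀ x ∈ Icc (0 : ℝ) 1, ∀ x' ∈ Icc (0 : ℝ) 1,
      |sgm n M m a x - sgm n M m a x'| ≤ 4 * |x - x'| := fun a ha =>
    sgm_lip hN hM hm a fun j hj => by
      have := (hn a ((mem_nbF FF).1 ha)).1 j hj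
      rwa [mul_div_assoc] at this
  have hlip : ∀ y ∈ Pc F c, ∀ y' ∈ Pc F c,
      ‖Rm (Pc F) (bc (F := F)) (nbF FF c) c (sgm n M m) (Nm m) (Es s) y -
        Rm (Pc F) (bc (F := F)) (nbF FF c) c (sgm n M m) (Nm m) (Es s) y'‖ ≤
        S1c δ R * ‖y - y'‖ := by
    intro y hy y' hy'
    have h1 := Rm_lip FF hQ hσ hA hNs hE hEs (L := 4) (by norm_num) hσL (D := c.1.sz)
      (S := Cs 3 δ R / c.1.sz) hsz.le (fun x hx y hy => norm_sub_le_sz (BF.pos _ c.2) hx hy)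
      (fun y hy y' hy' a => by
        have := lip_cell BF hLa hδ hR hcmp c y hy y' hy' a
        rwa [h3] at this) hy hy'
    refine h1.trans (le_of_eq ?_)
    rw [S1c]
    field_simp
  obtain ⟨Rc, hRc⟩ := exists_equiv FF hQ hσ hA hNs hE (fun a => sel_sgm hN hN0 hM a)
    (sel_Es s _) (fun c1 c2 => sel_Nf (hm c1) (hm c2)) hlip
  have hcpy : ∀ κ' < 1, ∀ y ∈ Pc F c, y ∈ Cpy c κ' ↔ κ' ≤ dl (nbF FF c) c (sc (Pc F) bc y) := by
    intro κ' hκ' y hy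
    rw [mem_Cpy_iff BF c hκ', rho_dl FF hb hy]
    constructor <;> intro h <;> linarith
  have hsub : ∀ κ' < 1, 0 ≤ κ' → Cpy c κ' ⊆ Pc F c := by
    intro κ' h1 h0 y hy
    rw [mem_Cpy_iff BF c h1] at hy
    rw [hb]
    exact hy.trans (by linarith)
  have hray : ∀ z ∈ Wall (Pc F) c, ∀ r ∈ Icc (1 - s / 2) 1, Rc.f (bc {c} + r • (z - bc {c})) =
        bc {c} + r • ((rcR (m' := fun _ => M) hN hN0 hNm (foam4 BF hLa h3) (quads_box BF h3)
          (fun _ => hM) hm c).f z - bc {c}) := by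
    rintro z hz r ⟨hr0, hr1⟩
    have hrp : 0 < r := by linarith
    obtain ⟨hz1, d, hd, hz2⟩ := hz
    have hzb : z ∈ bdP (Pc F) (bc (F := F)) (fun _ => M) c := by
      rw [bdP_eq FF hQ (fun _ => hM)]; exact ⟨hz1, d, hd, hz2⟩
    rw [hRc, Rm_ray FF hQ hσ hA hNs hE hz1 hd hz2 hrp hr1,
      rc_lvm FF hQ hN hN0 hM hm hNm (η := s / 2) (e := Es s (1 - r) / r) (by linarith)
        (Es_ge hs.le hrp hr1 (by linarith)) (fun a ha => (hn a ha).2.1)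
        (fun a ha => by
          have h1 := (hn a ha).2.2
          have h2 : (0 : ℝ) < m a := by exact_mod_cast hm a
          rw [div_le_iff₀ h2]; exact h1) hzb]
  have hkeep : ∀ κ', 0 ≤ κ' → κ' < 1 → ∀ y ∈ Cpy c κ', Rc.f y ∈ Cpy c κ' := by
    intro κ' h0 hκ' y hy
    have hyP := hsub κ' hκ' h0 hy
    rw [hRc, hcpy κ' hκ' _ (Rm_mapsTo FF hQ hσ hA hNs hE hyP), dl_Rm FF hQ hσ hA hNs hE hyP]
    exact (hcpy κ' hκ' y hyP).1 hy
  have hRlip : ∀ y ∈ Pc F c, ∀ y' ∈ Pc F c, ‖Rc.f y - Rc.f y'‖ ≤ S1c δ R * ‖y - y'‖ := by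
    intro y hy y' hy'
    rw [hRc]; exact hlip y hy y' hy'
  refine ⟨Rc, fun z hz => ?_, hray, fun u hu => ?_, hkeep, hRlip, ?_⟩
  · have hzW : z ∈ Wall (Pc F) c := by
      rw [bdP_eq FF hQ (fun _ => hM)] at hz; exact hz
    have := hray z hzW 1 ⟨by linarith, le_rfl⟩
    simpa using this
  · have h1 : (1 - s) • u + s • bc {c} ∈ Cpy c s := ⟨u, hu, rfl⟩
    have h2 := hsub s hs1 hs.le h1
    rw [hRc]
    refine Rm_id FF hQ hσ hA hNs hE h2 (Es_zero ((hcpy s hs1 _ h2).1 h1))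
  · intro κ' hκ0 hκ1 y hy y' hy'
    have h1 := lip_core_box BF hLa h3 hm hδ hR hcmp hM hN hN0 hNm (Λ := 4) (by norm_num)
      (κ' := κ') (S1 := S1c δ R) hκ0 (by linarith) c (fun a ha => (hn a ha).1) (Rm := Rc.f)
      (fun x hx x' hx' => hRlip x' hx' x hx) (fun x hx => hkeep κ' hκ0.le (by linarith) x hx)
      (fun z hz r hr => hray z hz r ⟨by linarith [hr.1], hr.2⟩) hy' hy
    refine h1.trans (mul_le_mul_of_nonneg_right (le_max_right _ _) (norm_nonneg _))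

theorem Spk_pos (δ κ0 R : ℝ) : 0 < Spk δ κ0 R := one_pos.trans_le (le_max_left _ _)

/-- **REL-PACK** -/
theorem rel_pack (h3 : Fintype.card κ = 3) (hδ : 0 < δ) {R : ℝ} (hR : 0 < R) :
    ∃ S > 0, ∀ s, 0 < s → s < 1 → ∃ κs > 0, κs ≤ s ∧ κs ≤ 1/2 ∧ ∃ η > 0,
      ∀ {La : Set (κ → ℝ)} {F : Set (Bx κ)} (BF : BoxFoam La F δ κ0) (hLa : IsOpen La)
      (hcmp : Cmp F R) {m : F → ℕ} (hm : ∀ a, 0 < m a) {M : ℕ} (hM : 0 < M) {n : F → ℕ → ℝ}
      (hN : ∀ a, StrictMono (n a)) (hN0 : ∀ a, n a 0 = 0) (hNm : ∀ a, n a M = m a) (c : F),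
      (∀ a, (Pc F a ∩ Pc F c).Nonempty → (∀ i < M, n a (i + 1) - n a i ≤ 4 * m a / M) ∧
        (∀ j ≤ M, |n a j / m a - (j : ℝ) / M| ≤ η) ∧ 1 ≤ η * m a) →
      ∃ Rc : PLEquiv (Pc F c) (Pc F c),
        (∀ z ∈ bdP (Pc F) (bc (F := F)) (fun _ => M) c, Rc.f z =
          (rcR (m' := fun _ => M) hN hN0 hNm (foam4 BF hLa h3) (quads_box BF h3)
            (fun _ => hM) hm c).f z) ∧
        (∀ z ∈ Wall (Pc F) c, ∀ r ∈ Icc (1 - κs) 1, Rc.f (bc {c} + r • (z - bc {c})) =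
          bc {c} + r • ((rcR (m' := fun _ => M) hN hN0 hNm (foam4 BF hLa h3) (quads_box BF h3)
            (fun _ => hM) hm c).f z - bc {c})) ∧
        (∀ u ∈ Pc F c, Rc.f ((1 - s) • u + s • bc {c}) = (1 - s) • u + s • bc {c}) ∧
        (∀ κ', 0 ≤ κ' → κ' < 1 → ∀ y ∈ Cpy c κ', Rc.f y ∈ Cpy c κ') ∧
        (∀ y ∈ Pc F c, ∀ y' ∈ Pc F c, ‖Rc.f y - Rc.f y'‖ ≤ S * ‖y - y'‖) ∧
        (∀ κ', 0 < κ' → κ' ≤ κs → ∀ y ∈ Pc F c, ∀ y' ∈ Pc F c,
          ‖st (grid (foam4 BF hLa h3) (quads_box BF h3) (Pc_ne BF) hm) κ' (Rc.f y) -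
            st (grid (foam4 BF hLa h3) (quads_box BF h3) (Pc_ne BF) hm) κ' (Rc.f y')‖ ≤
            S * ‖y - y'‖) := by
  refine ⟨max (S1c δ R) (Spk δ κ0 R), (Spk_pos δ κ0 R).trans_le (le_max_right _ _),
    fun s hs hs1 => ⟨s / 2, half_pos hs, by linarith, by linarith, s / 2, half_pos hs, ?_⟩⟩
  intro La F BF hLa hcmp m hm M hM n hN hN0 hNm c hn
  obtain ⟨Rc, h1, h2, h3', h4, h5, h6⟩ := rel_pack' h3 hδ hR hs hs1 BF hLa hcmp hm hM hN hN0 hNm c hn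
  exact ⟨Rc, h1, h2, h3', h4,
    fun y hy y' hy' => (h5 y hy y' hy').trans
      (mul_le_mul_of_nonneg_right (le_max_left _ _) (norm_nonneg _)),
    fun κ' a1 a2 y hy y' hy' => (h6 κ' a1 a2 y hy y' hy').trans
      (mul_le_mul_of_nonneg_right (le_max_right _ _) (norm_nonneg _))⟩

end box

end Crest.Agent.R096.Rpk_714
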