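import Crest.Agent.R096.Fin7_147
import Crest.Agent.R096.Ecm5_446
import Crest.Agent.R096.Cin1_181
import Crest.Agent.R096.Rpk1_714

/-!
# R096 (row 96), NODES (helper714): the nodes of the relabelling from `Mbf_337.Levels`

`nn_dens` : density of the numbers `NN` of 446 from `Levels.dens`;
`exists_nodes_levels` : the real nodes with all hypotheses of 181's `core_base` and of `rel_pack'`;
`exists_m0` : the lower bound of the number of the levels.
-/

set_option autoImplicit false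
set_option linter.unusedSectionVars false
set_option linter.unusedVariables false

open Set Filter Topology

namespace Crest.Agent.R096.Nod_714

open Crest.Agent.R096.Brk1_582 Crest.Agent.R096.Brk2_582 Crest.Agent.R096.Brk3_582
open Crest.Agent.R096.Brk5_582 Crest.Agent.R096.Bsp_628
open Crest.Agent.R096.Grd_714 Crest.Agent.R096.Bin_181
open Crest.Agent.R096.SkC1_961 (E3 FoamD)
open Crest.Agent.R096.Msh_715 Crest.Agent.R096.SkB_662 Crest.Agent.R096.Gl_422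
open Crest.Agent.R096.Init_543 (JJ)
open Crest.Agent.R096.Fin_147 (fmJ jj_inj jj_finite)
open Crest.Agent.R096.Ecm_446 (NN cnt NN_eq NN_mono NN_zero NN_top)
open Crest.Agent.R096.Mbf_337 (Levels)

variable {δ κ0 R c0 : ℝ} {La Om : Set E3} {ι : Type} {Φ : FoamD δ κ0 R c0 La} {Tl : Tiling Om ι}
  {f : E3 → E3} {κp μ κ3 : ℝ} {Z : Φ.F → Set ℝ} {m0 κw kap : Φ.F → ℕ} {Lv : Φ.F → Finset ℝ}

/-- the height of a sheet in units of the mesh -/
noncomputable def hgt (Φ : FoamD δ κ0 R c0 La) (Lv : Φ.F → Finset ℝ) (M : ℕ) : JJ Φ Lv → ℝ :=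
  fun j => M * j.2.1

/-- the number of the levels up to a height -/
theorem cnt_levels (M : ℕ) (a : Φ.F) (i : ℕ) :
    cnt (fmJ Φ Lv) (hgt Φ Lv M) a i = ((Lv a).filter fun t => (M : ℝ) * t ≤ i).card := by
  classical
  unfold cnt
  rw [← Set.ncard_coe_finset]
  refine Set.ncard_congr (fun j _ => j.2.1) ?_ ?_ ?_
  · rintro j ⟨rfl, h⟩
    rw [Finset.mem_coe, Finset.mem_filter]
    exact ⟨j.2.2, h⟩
  · rintro j j' ⟨h1, -⟩ ⟨h2, -⟩ h
    exact jj_inj j j' (h1.trans h2.symm) h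
  · intro t ht
    rw [Finset.mem_coe, Finset.mem_filter] at ht
    exact ⟨⟨a, t, ht.1⟩, ⟨rfl, ht.2⟩, rfl⟩

theorem cnt_dens (hL : Levels Φ Tl f κp μ κ3 Z m0 κw Lv) (hκp : 0 ≤ κp) {M : ℕ} (hM : 0 < M)
    (a : Φ.F) {i j : ℕ} (hij : i ≤ j) :
    (cnt (fmJ Φ Lv) (hgt Φ Lv M) a j : ℝ) - cnt (fmJ Φ Lv) (hgt Φ Lv M) a i ≤
      (1 + κp) * (((j : ℝ) - i) / M * (Lv a).card) + 1 := by
  classical
  have hM' : (0 : ℝ) < M := by exact_mod_cast hM
  rw [cnt_levels, cnt_levels]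
  have e1 : ((Lv a).filter fun t => (M : ℝ) * t ≤ j).card =
      ((Lv a).filter fun t => (M : ℝ) * t ≤ i).card +
        ((Lv a).filter fun t => (i : ℝ) < M * t ∧ (M : ℝ) * t ≤ j).card := by
    rw [← Finset.card_union_of_disjoint]
    · congr 1
      ext t
      simp only [Finset.mem_filter, Finset.mem_union]
      constructor
      · rintro ⟨h1, h2⟩
        rcases le_or_gt ((M : ℝ) * t) i with h | h
        · exact Or.inl ⟨h1, h⟩
        · exact Or.inr ⟨h1, h, h2⟩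
      · rintro (⟨h1, h2⟩ | ⟨h1, h2, h3⟩)
        · exact ⟨h1, h2.trans (by exact_mod_cast hij)⟩
        · exact ⟨h1, h3⟩
    · rw [Finset.disjoint_filter]
      rintro t - h1 ⟨h2, -⟩
      exact absurd h1 (not_le.2 h2)
  rw [e1]
  push_cast
  have key : ∀ ε > 0, ((((Lv a).filter fun t => (i : ℝ) < M * t ∧ (M : ℝ) * t ≤ j).card : ℕ) : ℝ) ≤
      (1 + κp) * ((j : ℝ) / M + ε - i / M) * (Lv a).card + 1 := by
    intro ε hε
    have h1 := hL.dens a ((i : ℝ) / M) ((j : ℝ) / M + ε) (by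
      have : (i : ℝ) / M ≤ j / M := div_le_div_of_nonneg_right (by exact_mod_cast hij) hM'.le
      linarith)
    refine le_trans ?_ h1
    have : ((Lv a).filter fun t => (i : ℝ) < M * t ∧ (M : ℝ) * t ≤ j) ⊆
        (Lv a).filter fun t => (i : ℝ) / M < t ∧ t < (j : ℝ) / M + ε := by
      intro t ht
      rw [Finset.mem_filter] at ht ⊢
      refine ⟨ht.1, ?_, ?_⟩
      · rw [div_lt_iff₀ hM', mul_comm]; exact ht.2.1
      · have : t ≤ (j : ℝ) / M := by rw [le_div_iff₀ hM', mul_comm]; exact ht.2.2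
        linarith
    exact_mod_cast Finset.card_le_card this
  have h2 : ((((Lv a).filter fun t => (i : ℝ) < M * t ∧ (M : ℝ) * t ≤ j).card : ℕ) : ℝ) ≤
      (1 + κp) * ((j : ℝ) / M - i / M) * (Lv a).card + 1 := by
    refine le_of_forall_pos_le_add fun ε hε => ?_
    set C : ℝ := (1 + κp) * (Lv a).card with hC
    have hC0 : 0 ≤ C := by positivity
    have h3 := key (ε / (C + 1)) (by positivity)
    refine h3.trans ?_
    have h4 : C * (ε / (C + 1)) ≤ ε := by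
      rw [mul_div_assoc', div_le_iff₀ (by positivity)]
      nlinarith
    have e2 : (1 + κp) * ((j : ℝ) / M + ε / (C + 1) - i / M) * (Lv a).card + 1 =
        (1 + κp) * ((j : ℝ) / M - i / M) * (Lv a).card + 1 + C * (ε / (C + 1)) := by
      rw [hC]; ring
    rw [e2]
    linarith
  have e3 : (1 + κp) * (((j : ℝ) - i) / M * (Lv a).card) + 1 =
      (1 + κp) * ((j : ℝ) / M - i / M) * (Lv a).card + 1 := by
    rw [sub_div]; ring
  rw [e3]
  linarith

/-- **density of the numbers of the final sheets** -/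
theorem nn_dens (hL : Levels Φ Tl f κp μ κ3 Z m0 κw Lv) (hκp : 0 ≤ κp) {M : ℕ} (hM : 0 < M)
    (a : Φ.F) {i j : ℕ} (hij : i ≤ j) :
    (NN (fmJ Φ Lv) κw kap (hgt Φ Lv M) a j : ℝ) - NN (fmJ Φ Lv) κw kap (hgt Φ Lv M) a i ≤
      (1 + κp) * (((j : ℝ) - i) / M * ((Rk κw kap a * (Lv a).card : ℕ) : ℝ)) + Rk κw kap a := by
  have h1 := cnt_dens hL hκp hM a hij
  rw [NN_eq jj_finite, NN_eq jj_finite]
  push_cast
  have h2 : (0 : ℝ) ≤ 2 ^ (kap a - κw a) := by positivity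
  have h3 := mul_le_mul_of_nonneg_left h1 h2
  have e : (1 + κp) * (((j : ℝ) - i) / M * ((2 : ℝ) ^ (kap a - κw a) * (Lv a).card)) +
      (2 : ℝ) ^ (kap a - κw a) =
      (2 : ℝ) ^ (kap a - κw a) * ((1 + κp) * (((j : ℝ) - i) / M * (Lv a).card) + 1) := by ring
  rw [e, ← mul_sub]
  exact h3

theorem one_le_Rk (a : Φ.F) : 1 ≤ Rk κw kap a := Nat.one_le_two_pow

/-- every brick has a level -/
theorem card_pos (hL : Levels Φ Tl f κp μ κ3 Z m0 κw Lv) (a : Φ.F) : 0 < (Lv a).card := by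
  rcases Nat.eq_zero_or_pos (Lv a).card with h | h
  · have h1 := hL.many a
    rw [h, Nat.cast_zero, zero_mul, mul_zero] at h1
    have h2 : 0 < a.1.sz := Bx.sz_pos (Φ.bf.pos _ a.2)
    linarith
  · exact h

/-- **NODES**: the real nodes of the final state over one exact core -/
theorem exists_nodes_levels (hL : Levels Φ Tl f κp μ κ3 Z m0 κw Lv) (hμ : 0 < μ) {η κ : ℝ}
    (hκp : 0 ≤ κp) (hη0 : 0 < η) (hκη : κp ≤ η / 2) (hη1 : η ≤ 1) (hκ : 0 < κ) (hκ1 : κ ≤ 1)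
    {M : ℕ} (hM : 0 < M) {c : Φ.F}
    (hm0 : ∀ a, (Pc Φ.F a ∩ Pc Φ.F c).Nonempty → M ≤ m0 a ∧ 4 / η ≤ m0 a)
    {m : Φ.F → ℕ} (hm : ∀ a, m a = Rk κw kap a * (Lv a).card) :
    ∃ n : Φ.F → ℕ → ℝ, (∀ a, StrictMono (n a)) ∧ (∀ a, n a 0 = 0) ∧ (∀ a, n a M = m a) ∧
      (∀ a i, i ≤ M → |n a i - NN (fmJ Φ Lv) κw kap (hgt Φ Lv M) a i| < κ / 2) ∧
      ∀ a, (Pc Φ.F a ∩ Pc Φ.F c).Nonempty →
        (∀ i < M, n a (i + 1) - n a i ≤ 4 * m a / M) ∧
        (∀ j ≤ M, |n a j / m a - (j : ℝ) / M| ≤ η) ∧ 1 ≤ η * m a := by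
  have hMr : (0 : ℝ) < M := by exact_mod_cast hM
  have hpos : ∀ a, 0 < m a := fun a => by
    rw [hm]; exact Nat.mul_pos (one_le_Rk a) (card_pos hL a)
  have ht0 : ∀ j : JJ Φ Lv, 0 < hgt Φ Lv M j := fun j =>
    mul_pos hMr (hμ.trans_le (hL.marg _ _ j.2.2).1)
  have ht1 : ∀ j : JJ Φ Lv, hgt Φ Lv M j ≤ M := fun j => by
    have := (hL.marg _ _ j.2.2).2
    show (M : ℝ) * j.2.1 ≤ M
    nlinarith
  have hN0 : ∀ a, NN (fmJ Φ Lv) κw kap (hgt Φ Lv M) a 0 = 0 := fun a => NN_zero ht0 a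
  have hNM : ∀ a, NN (fmJ Φ Lv) κw kap (hgt Φ Lv M) a M = m a := fun a => by
    rw [NN_eq jj_finite, cnt_levels, hm]
    congr 2
    rw [Finset.filter_eq_self]
    intro t ht
    have := (hL.marg _ _ ht).2
    nlinarith
  choose ε hε0 hε1 h1 h2 h3 h4 using fun a => Cin_181.exists_nodes hκ hM (hpos a)
    (NN_mono (fam := fmJ Φ Lv) (κc := κw) (kap := kap) (τ := hgt Φ Lv M) jj_finite a) (hN0 a) (hNM a)
  refine ⟨fun a => Cin_181.nds (ε a) M (m a) (NN (fmJ Φ Lv) κw kap (hgt Φ Lv M) a), h1, h2, h3, h4, ?_⟩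
  intro a ha
  obtain ⟨k1, k2⟩ := hm0 a ha
  have hr1 : (1 : ℝ) ≤ Rk κw kap a := by exact_mod_cast one_le_Rk a
  have hcard : (m0 a : ℝ) ≤ (Lv a).card := by exact_mod_cast hL.large a
  have k1' : (M : ℝ) ≤ m0 a := by exact_mod_cast k1
  have em : (m a : ℝ) = Rk κw kap a * (Lv a).card := by rw [hm]; push_cast; ring
  have e4 : 4 ≤ η * (Lv a).card := by
    have : 4 / η ≤ (Lv a).card := k2.trans hcard
    rwa [div_le_iff₀ hη0, mul_comm] at this
  have hmη : 4 * (Rk κw kap a : ℝ) ≤ η * m a := by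
    rw [em]
    have := mul_le_mul_of_nonneg_left e4 (by linarith : (0 : ℝ) ≤ Rk κw kap a)
    nlinarith
  have hmpos : (0 : ℝ) < m a := by exact_mod_cast hpos a
  refine Rpk_714.nodes_of_dens (N := NN (fmJ Φ Lv) κw kap (hgt Φ Lv M) a) (κp := κp)
    (r := Rk κw kap a) (e := κ / 2) hM (hpos a) (hN0 a) (hNM a) hκp (by linarith) ?_
    (fun j hj => (h4 a j hj).le) ?_ ?_ ?_
  · intro i j hij _
    have := nn_dens (kap := kap) hL hκp hM a hij
    rwa [← hm a] at this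
  · have h5 : (Rk κw kap a : ℝ) * M ≤ m a := by
      rw [em]
      exact mul_le_mul_of_nonneg_left (k1'.trans hcard) (by linarith)
    have h6 : κ * M ≤ Rk κw kap a * M := by
      apply mul_le_mul_of_nonneg_right _ hMr.le
      linarith
    nlinarith
  · have h5 : κp * m a ≤ η / 2 * m a := mul_le_mul_of_nonneg_right hκη hmpos.le
    nlinarith
  · linarith

/-- **the number of the levels which is needed**: finitely many neighbours -/
theorem exists_m0 (hLa : IsOpen La) (Φ : FoamD δ κ0 R c0 La) (M : Φ.F → ℕ) (η : ℝ) :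
    ∃ m0 : Φ.F → ℕ, ∀ c a, (Pc Φ.F a ∩ Pc Φ.F c).Nonempty → M c ≤ m0 a ∧ 4 / η ≤ m0 a := by
  have FF := foam Φ.bf hLa
  refine ⟨fun a => (finite_touch FF a).toFinset.sup M + ⌈4 / η⌉₊, fun c a h => ⟨?_, ?_⟩⟩
  · refine le_trans ?_ (Nat.le_add_right _ _)
    refine Finset.le_sup (f := M) ?_
    rw [Set.Finite.mem_toFinset]
    rwa [inter_comm] at h
  · refine (Nat.le_ceil _).trans ?_
    exact_mod_cast Nat.le_add_left _ _

end Crest.Agent.R096.Nod_714
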