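import Crest.Agent.R096.Crb2_609
import Crest.Agent.R096.Be7_416
import Crest.Agent.R096.Nod1_714

/-!
# R096 (row 96), helper609: CORE-BLOCK, part 3

* `exists_nodeOK` : nodes with `NodeOK` and 446's numbers, from `Mbf_337.Levels` (714's Nod1);
* `core_block_ug` : the blocks `core`, `hS`, `hRr` of `Fin_147.fin_stG` from the last clause of 416's
  `StO.mesh` (one datum for each exact core; `g0` = 416's union).
-/

set_option autoImplicit false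
set_option linter.unusedSectionVars false
set_option linter.unusedVariables false
set_option linter.style.longLine false

open Set Metric

namespace Crest.Agent.R096.Crb_609

open Crest.Agent.R096.Ce_537 (PLOn PLEquiv plOn_affine)
open Crest.Agent.R096.Bd_416 Crest.Agent.R096.Grd_714
open Crest.Agent.R096.Xp_537 Crest.Agent.R096.Bin_181
open Crest.Agent.R096.Brk1_582 Crest.Agent.R096.Brk2_582 Crest.Agent.R096.Brk3_582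
open Crest.Agent.R096.Brk5_582 Crest.Agent.R096.Brk6_582
open Crest.Agent.R096.Bsp_628
open Crest.Agent.R096.SkC1_961 (E3 Hom3 FoamD Cfg th NN)
open Crest.Agent.R096.Msh_715
open Crest.Agent.R096.Cin_181 (thC thA thI thA_eq thI_th th_thI)
open Crest.Agent.R096.Fin_147 (gr fmJ)
open Crest.Agent.R096.Be_416 (ug ug_eqAt eqAt_sqs)
open Crest.Agent.R096.SkB_662 Crest.Agent.R096.Gl_422
open Crest.Agent.R096.Init_543 (JJ)

section nodes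

variable {δ κ0 R c0 : ℝ} {La Om : Set E3} {ι : Type} {Φ : FoamD δ κ0 R c0 La} {Tl : Tiling Om ι}
  {f : E3 → E3} {κp μ κ3 : ℝ} {Z : Φ.F → Set ℝ} {m0 κw kap : Φ.F → ℕ} {Lv : Φ.F → Finset ℝ}

/-- **the nodes of one exact core** -/
theorem exists_nodeOK (hL : Mbf_337.Levels Φ Tl f κp μ κ3 Z m0 κw Lv) (hμ : 0 < μ) {s κ : ℝ}
    (hκp : 0 ≤ κp) (hs : 0 < s) (hs1 : s ≤ 1) (hκs : κp ≤ s / 4) (hκ : 0 < κ) (hκ1 : κ ≤ 1) {M : ℕ}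
    (hM : 0 < M) {c : Φ.F}
    (hm0 : ∀ a, (Pc Φ.F a ∩ Pc Φ.F c).Nonempty → M ≤ m0 a ∧ 4 / (s / 2) ≤ m0 a)
    {m : Φ.F → ℕ} (hm : ∀ a, m a = Rk κw kap a * (Lv a).card) :
    ∃ n : Φ.F → ℕ → ℝ, NodeOK Φ m s c M n ∧
      ∀ a i, i ≤ M → |n a i - Ecm_446.NN (fmJ Φ Lv) κw kap (fun j => (M : ℝ) * j.2.1) a i| <
        κ / 2 := by
  obtain ⟨n, h1, h2, h3, h4, h5⟩ := Nod_714.exists_nodes_levels (kap := kap) hL hμ (η := s / 2) hκp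
    (by positivity) (by linarith) (by linarith) hκ hκ1 hM hm0 hm
  exact ⟨n, ⟨hM, h1, h2, h3, h5⟩, h4⟩

end nodes

variable {δ κ0 R c0 : ℝ} {La Om : Set E3} {ι : Type} {Φ : FoamD δ κ0 R c0 La}
  {Tl : Tiling Om ι} {f : E3 → E3} {κ1 κ2 : ℝ} {X : Set Φ.F} {ct : Φ.F → ι}
  {A : Φ.F → E3 ≃ᵃ[ℝ] E3} {lam : Φ.F → ℝ} {z : Φ.F → E3}

/-- the data of the base on the boundary of the exact core `a` -/
noncomputable def gbX {Jf : Type} (hLa : IsOpen La) {m : Φ.F → ℕ} (hm : ∀ a, 0 < m a)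
    (hne : ∀ c : Φ.F, (Pc Φ.F c).Nonempty) (κb : ℝ) (fam : Jf → Φ.F) (lv : Jf → ℕ)
    (hE : ∀ a ∈ X, Mbf_337.Exact Φ Tl f κ1 κ2 a (ct a) (A a) (lam a) (z a)) {s : ℝ}
    {M : Φ.F → ℕ} {n : Φ.F → Φ.F → ℕ → ℝ} (hn : ∀ a ∈ X, NodeOK Φ m s a (M a) (n a)) (a : X) :
    Gd E3 Jf :=
  ekS (gr Φ hLa hne hm) (bc (F := Φ.F)) κb (.top a) fam lv (eB hLa (hE a a.2) hm (hn a a.2))

/-- **CORE-BLOCK from 416's mesh** -/
theorem core_block_ug (hLa : IsOpen La) (hδ : 0 < δ) (hR : 0 < R)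
    (hE : ∀ a ∈ X, Mbf_337.Exact Φ Tl f κ1 κ2 a (ct a) (A a) (lam a) (z a))
    (hdis : ∀ a ∈ X, ∀ a' ∈ X, a ≠ a' → Disjoint (P (Tl.H (ct a))) (P (Tl.H (ct a'))))
    {m : Φ.F → ℕ} (hm : ∀ a, 0 < m a) (hne : ∀ c : Φ.F, (Pc Φ.F c).Nonempty)
    {s κf : ℝ} (hs : 0 < s) (hs1 : s < 1) (hκf : 0 < κf) (hκs : 2 * κf ≤ s)
    {M : Φ.F → ℕ} {n : Φ.F → Φ.F → ℕ → ℝ} (hn : ∀ a ∈ X, NodeOK Φ m s a (M a) (n a))
    {Kc : Φ.F → Set E3} (hKX : ∀ a ∈ X, Kc a = P (Tl.H (ct a)))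
    {Jf : Type} {fam : Jf → Φ.F} {lv : Jf → ℕ} {κb : ℝ} {bt : ℕ → ℝ} (hb0 : ∀ n, 0 < bt n)
    (hb2 : ∀ n, bt n < 1/2) {k : ℕ} {Gf : Gd E3 Jf} {Q : Type} {K : Q → Set E3} {D : X → Set Q}
    (hcov : ∀ a : X, ∀ x ∈ frontier (P (Tl.H (ct a))), ∃ q ∈ D a, x ∈ K q)
    (hDf : ∀ a : X, ∀ q ∈ D a, K q ⊆ frontier (P (Tl.H (ct a))) ∧ IsClosed (K q))
    (hg : ∀ a : X, ∀ q ∈ D a, ∀ x ∈ K q,
      EqAt (sqs (gbX hLa hm hne κb fam lv hE hn a) bt k) Gf x) :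
    ∃ (g0 : Gd E3 Jf) (Rr : Φ.F → E3 → E3),
      (∀ a ∈ X, ∃ (U : PLEquiv (Kc a) (Pc Φ.F a))
        (e : PLEquiv (frontier (Kc a)) (bdP (Pc Φ.F) (bc (F := Φ.F)) m a)),
        (∀ x ∈ Kc a, U.f x = Rr a (th (A a) (lam a) (z a) x)) ∧
        (∀ x ∈ Kc a, x ∈ frontier (Kc a) ↔ U.f x ∈ bdP (Pc Φ.F) (bc (F := Φ.F)) m a) ∧
        (∀ x ∈ frontier (Kc a), e.f x = U.f x) ∧
        (∀ y ∈ bdP (Pc Φ.F) (bc (F := Φ.F)) m a, e.g y = U.g y) ∧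
        (∀ x ∈ frontier (Kc a),
          EqAt (ekS (gr Φ hLa hne hm) (bc (F := Φ.F)) κb (.top a) fam lv e) g0 x) ∧
        (∀ x ∈ frontier (Kc a), EqAt (sqs g0 bt k) Gf x) ∧
        ∀ x ∈ frontier (Kc a), ∃ q, x ∈ K q ∧ K q ⊆ frontier (Kc a) ∧ IsClosed (K q)) ∧
      (∀ a ∈ X, ∀ y ∈ a.1.set, ∀ y' ∈ a.1.set,
        ‖st (gr Φ hLa hne hm) κf (Rr a y) - st (gr Φ hLa hne hm) κf (Rr a y')‖ ≤
          Rpk_714.Spk δ κ0 R * ‖y - y'‖) ∧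
      (∀ a ∈ X, ∀ u ∈ interior a.1.set,
        Rr a ((1 - s) • u + s • (gr Φ hLa hne hm).b (.top a)) =
          (1 - s) • u + s • (gr Φ hLa hne hm).b (.top a)) := by
  classical
  have hS : ∀ i i' : X, i ≠ i' →
      Disjoint (frontier (P (Tl.H (ct i)))) (frontier (P (Tl.H (ct i')))) := fun i i' h =>
    (hdis i i.2 i' i'.2 fun e => h (Subtype.ext e)).mono
      (Tl.cpt _).isClosed.frontier_subset (Tl.cpt _).isClosed.frontier_subset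
  have hE0 : ∀ (a : X), ∀ x ∈ frontier (P (Tl.H (ct a))),
      EqAt (gbX hLa hm hne κb fam lv hE hn a)
        (ug (fun a : X => frontier (P (Tl.H (ct a)))) (gbX hLa hm hne κb fam lv hE hn)) x :=
    fun a x hx => ug_eqAt (S := fun a : X => frontier (P (Tl.H (ct a))))
      (gbX hLa hm hne κb fam lv hE hn) hS hx
  obtain ⟨Rr, h1, h2, h3⟩ := core_block hLa hδ hR hE hm hne hs hs1 hκf hκs hn hKX (fam := fam)
    (lv := lv) (κb := κb) (bt := bt) (k := k) (Gf := Gf) (K := K)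
    (g0 := ug (fun a : X => frontier (P (Tl.H (ct a)))) (gbX hLa hm hne κb fam lv hE hn))
    (D := fun a => {q | ∃ ha : a ∈ X, q ∈ D ⟨a, ha⟩})
    (fun a ha x hx => by
      obtain ⟨q, h1, h2⟩ := hcov ⟨a, ha⟩ x hx
      exact ⟨q, ⟨ha, h1⟩, h2⟩)
    (fun a ha q hq => by
      obtain ⟨ha', hq⟩ := hq
      exact hDf ⟨a, ha'⟩ q hq)
    (fun a ha q hq x hx => by
      obtain ⟨ha', hq⟩ := hq
      exact hE0 ⟨a, ha⟩ x ((hDf ⟨a, ha'⟩ q hq).1 hx))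
    (fun a ha q hq x hx => by
      obtain ⟨ha', hq⟩ := hq
      exact ((eqAt_sqs (hE0 ⟨a, ha⟩ x ((hDf ⟨a, ha'⟩ q hq).1 hx)) hb0 hb2 k).symm).trans
        (hg ⟨a, ha'⟩ q hq x hx))
  exact ⟨_, Rr, h1, h2, h3⟩

end Crest.Agent.R096.Crb_609
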