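import Crest.Agent.R096.Ecm7_446

/-!
# R096 (row 96), BASE-DISC, part 8 (helper446): the base of ALL type R cores for the final state

`base_R : BaseC h.cmb K wts Kbase (⋃ c ∈ X, Dk (ct c) κ) ..` and `EqAt` on the boundaries of the tiles
-/

set_option autoImplicit false
set_option linter.unusedSectionVars false
set_option linter.style.longLine false

open Set Relation

namespace Crest.Agent.R096.Ecm_446

open Crest.Agent.R096.Bsp_628 Crest.Agent.R096.Brk1_582 Crest.Agent.R096.Brk2_582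
open Crest.Agent.R096.Brk3_582 Crest.Agent.R096.Brk5_582 Crest.Agent.R096.Brk6_582
open Crest.Agent.R096.Ce_537 Crest.Agent.R096.Bd_416 Crest.Agent.R096.Xp_537
open Crest.Agent.R096.Msh_715 Crest.Agent.R096.Grd_714 Crest.Agent.R096.Bin_181
open Crest.Agent.R096.Be_416 Crest.Agent.R096.Cin_181
open Crest.Agent.R096.SkC1_961 (E3 FoamD th)
open Crest.Agent.R096.Mbf_337 (sb)
open Crest.Agent.R96.Nu3_199 (ri)
open Crest.Agent.R096.St_147 Crest.Agent.R096.Seq_213 Crest.Agent.R096.Seq_213.GSt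
  Crest.Agent.R096.Lm_117 Crest.Agent.R096.Ac_117 Crest.Agent.R096.Gl_422
  Crest.Agent.R096.Mg_441 Crest.Agent.R096.Lab_184 Crest.Agent.R096.Agl5_543
  Crest.Agent.R096.Cp_298 Crest.Agent.R096.SkB_662

section tile

variable {Om : Set E3} {ι : Type} {T : Tiling Om ι} {i : ι} {Q : Type} {κ : Q → T.Cell}

/-- a cell of `Dk` lies in the boundary of the tile -/
theorem dk_sub_frontier {q : Q} (hq : q ∈ Dk i κ) : (κ q).set ⊆ frontier (P (T.H i)) := by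
  intro x hx
  have h1 : x ∈ P (T.H i) := hq.1 hx
  rw [(κ q).set_eq] at hx
  have h2 : T.dim x ≤ 2 := (T.dim_le hx).trans hq.2
  exact mem_fr_iff.2 ⟨h1, not_I_of_dim h1 h2⟩

/-- every point of the boundary of the tile lies in a cell of `Dk` -/
theorem exists_dk [PartialOrder Q] (hF : Full T i κ) {x : E3} (hx : x ∈ frontier (P (T.H i))) :
    ∃ q ∈ Dk i κ, x ∈ (κ q).set := by
  obtain ⟨h1, h2⟩ := mem_fr_iff.1 hx
  have hO : x ∈ Om := T.sub i h1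
  have hc : T.cl hO ∈ Dc T i := by
    refine ⟨by rw [T.cl_set]; exact T.cc_sub_tile h1, ?_⟩
    have h3 : T.dim (T.cl hO).pt = T.dim x := T.dim_eq_of_mem_oc hO (T.pt_cl hO)
    show T.dim (T.cl hO).pt ≤ 2
    rw [h3]
    have h4 : T.dim x ≤ 3 := by
      have := T.dim_le_finrank x
      simpa using this
    rcases h4.lt_or_eq with h5 | h5
    · omega
    · exfalso
      have h6 : T.V x = ⊤ := Submodule.eq_top_of_finrank_eq (by
        show T.dim x = _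
        rw [h5]; simp)
      obtain ⟨j, hj⟩ := (T.V_eq_top_iff hO).1 h6
      have h7 : i ∈ T.at_ x := h1
      rw [T.at_eq_singleton hj, mem_singleton_iff] at h7
      rw [h7] at h2
      exact h2 hj
  obtain ⟨q, hq⟩ := hF.sur _ hc
  refine ⟨q, ?_, ?_⟩
  · show κ q ∈ Dc T i
    rw [hq]; exact hc
  · rw [hq, T.cl_set]; exact T.self_mem_cc x

end tile

section all

variable {δ κ0 R c0 : ℝ} {La Om : Set E3} {ι : Type} {Φ : FoamD δ κ0 R c0 La} {T : Tiling Om ι}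
  {f : E3 → E3} {κ1 κ2 : ℝ}
variable {ι' Fc Q J K : Type} [PartialOrder Q] {dim : Q → ℕ} {Mc : MeshC ι' Fc E3}
  {L : LM Mc Q dim} {κ : Q → T.Cell}
variable {O : Ori Mc} {σ : Q → ZMod 2} {Rel : E3 → E3 → Prop} {VV : Set E3}
  {Qd : Quads ι' Φ.F K} {κc : Φ.F → ℕ} {fam : J → Φ.F} {s₀ : GSt Mc fam} {far₀ : J → Set E3}
  {G₀ : Φ.F → Set E3} {Z : Φ.F → Set Q} {lam₀ : J → Q → ZMod 2} {v₀ v₁ : Φ.F → Q}
  {hfin : ∀ a, {j | fam j = a}.Finite} {kap : Φ.F → ℕ} {s : GSt Mc (fam' fam (Rk κc kap))}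
  {far : Nm' fam (Rk κc kap) → Set E3} {β : E3 → E3} {lab : Nm' fam (Rk κc kap) → Q → ZMod 2}
variable {X : Set Φ.F} {ct : Φ.F → ι} {A : Φ.F → E3 ≃ᵃ[ℝ] E3} {lam : Φ.F → ℝ} {z : Φ.F → E3}
  {M : Φ.F → ℕ} {t : J → ℝ} {κf : ℝ} {n : Φ.F → Φ.F → ℕ → ℝ}

variable (Φ T f κ1 κ2 L Qd κ s₀ Z v₀ lam₀ κc kap X ct A lam z M t κf n) in
/-- **all exact cores** : exact maps, grids, words, initial state, nodes -/
structure CoresR (hfin : ∀ a, {j | fam j = a}.Finite) : Prop where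
  ex : ∀ c ∈ X, Mbf_337.Exact Φ T f κ1 κ2 c (ct c) (A c) (lam c) (z c)
  gr : ∀ c ∈ X, Grid Φ T (ct c) (A c) (lam c) (z c) (M c)
  wd : ∀ c ∈ X, CWt Φ T f (ct c) (A c) (lam c) (z c) (M c) fam t
  st : ∀ c ∈ X, CoreS Φ f L Qd κ (ct c) s₀ t Z v₀ lam₀
  nd : ∀ c ∈ X, Nod (M c) (mm (fin_copies (Rk κc kap) hfin)) (NNt fam κc kap t (M c)) κf (n c)
  disj : ∀ c ∈ X, ∀ c' ∈ X, c ≠ c' → Disjoint (P (T.H (ct c))) (P (T.H (ct c')))

/-- the chart of the boundary of the exact core `c` onto the boundary of the brick of the final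
foam -/
noncomputable def chR (hLa : IsOpen La) (hm : ∀ a, 0 < mm (fin_copies (Rk κc kap) hfin) a)
    (H : CoresR Φ T f κ1 κ2 L κ Qd κc s₀ Z lam₀ v₀ kap X ct A lam z M t κf n hfin) (c : X) :
    PLEquiv (frontier (P (T.H (ct c))))
      (bdP (Pc Φ.F) (bc (F := Φ.F)) (mm (fin_copies (Rk κc kap) hfin)) c) :=
  (thC hLa (H.ex c c.2) (m' := fun _ => M c) fun _ => (H.gr c c.2).1).trans
    (rcR (H.nd c c.2).mono (H.nd c c.2).zero (H.nd c c.2).top (foamΦ hLa Φ) (quadsΦ Φ)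
      (fun _ => (H.gr c c.2).1) hm c)

/-- the data of the base on the boundary of the exact core `c` -/
noncomputable def gbR (hLa : IsOpen La) (hne : ∀ c, (Pc Φ.F c).Nonempty)
    (hm : ∀ a, 0 < mm (fin_copies (Rk κc kap) hfin) a)
    (ce : Φ.F → Cel (Pc Φ.F) (mm (fin_copies (Rk κc kap) hfin)))
    (nu : Nm' fam (Rk κc kap) → ℕ)
    (H : CoresR Φ T f κ1 κ2 L κ Qd κc s₀ Z lam₀ v₀ kap X ct A lam z M t κf n hfin) (c : X) :
    Gd E3 (Nm' fam (Rk κc kap)) :=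
  ekS (grid (foamΦ hLa Φ) (quadsΦ Φ) hne hm) (bc (F := Φ.F)) κf (ce c)
    (fam' fam (Rk κc kap)) nu (chR hLa hm H c)

/-- **THE BASE OF ALL TYPE R CORES OF THE FINAL STATE** -/
theorem base_R (hi : StI L O σ Rel VV Qd κc s₀ far₀ G₀ Z lam₀ v₀ v₁)
    (h : StO L O σ Rel VV Qd κc s₀ far₀ Z lam₀ v₀ v₁ hfin kap s far β lab)
    (hLa : IsOpen La) (hδ : 0 < δ) (hR : 0 < R)
    (hT : OnT T L.toSk κ) {Ω : Set E3} (Xc : Cplx Ω Q dim (fun q => (κ q).set))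
    (hbd : ∀ q, bdS (fun q => (κ q).set) q = (κ q).set \ ri (κ q).set)
    (hne : ∀ c, (Pc Φ.F c).Nonempty) (hm : ∀ a, 0 < mm (fin_copies (Rk κc kap) hfin) a)
    (ht : ∀ j, t j ≤ 1) (hκ : 0 < κf ∧ κf < 1)
    (ce : Φ.F → Cel (Pc Φ.F) (mm (fin_copies (Rk κc kap) hfin)))
    (H : CoresR Φ T f κ1 κ2 L κ Qd κc s₀ Z lam₀ v₀ kap X ct A lam z M t κf n hfin) :
    ∃ (g0 : Gd E3 (Nm' fam (Rk κc kap))) (P0 : ∀ q, h.cmb.I q → Set E3)
      (c0 : ∀ q, h.cmb.I q → E3 → ℝ),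
      BaseC h.cmb (fun q => (κ q).set) (wts κc kap fam) (Kbase 3 δ R κf)
        (⋃ c : X, Dk (ct c) κ) g0 P0 c0 ∧
      ∀ c : X, ∀ x ∈ frontier (P (T.H (ct c))),
        EqAt (gbR hLa hne hm ce (nr L s lab h.fin1) H c) g0 x ∧
        ∃ q ∈ Dk (ct c) κ, x ∈ (κ q).set ∧ (κ q).set ⊆ frontier (P (T.H (ct c))) ∧
          IsClosed (κ q).set := by
  have hB : ∀ c : X, BaseC h.cmb (fun q => (κ q).set) (wts κc kap fam) (Kbase 3 δ R κf)
      (Dk (ct c) κ) (gbR hLa hne hm ce (nr L s lab h.fin1) H c)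
      (fun q x => (κ q).set ∩ (gbR hLa hne hm ce (nr L s lab h.fin1) H c).B (h.cmb.col q x))
      (fun q x z' => sg (h.cmb.Lab (h.cmb.col q x) q) *
        ((gbR hLa hne hm ce (nr L s lab h.fin1) H c).G (h.cmb.col q x) z' - 1/2)) := fun c =>
    sto_baseC hi h hLa hδ hR hT Xc hbd hne hm ht hκ (ce c) (H.ex c c.2) (H.gr c c.2) (H.wd c c.2)
      (H.st c c.2) (H.nd c c.2)
  have hdis : ∀ c c' : X, c ≠ c' →
      Disjoint (frontier (P (T.H (ct c)))) (frontier (P (T.H (ct c')))) := fun c c' hcc =>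
    (H.disj c c.2 c' c'.2 fun e => hcc (Subtype.ext e)).mono
      (isClosed_P _).frontier_subset (isClosed_P _).frontier_subset
  have hK : ∀ c : X, ∀ q ∈ Dk (ct c) κ, (κ q).set ⊆ frontier (P (T.H (ct c))) := fun c q hq =>
    dk_sub_frontier hq
  obtain ⟨h1, h2⟩ := base_all (K := fun q => (κ q).set) hdis hK (fun q => (Xc.isBall q).nonempty) hB
  refine ⟨_, _, _, h1, fun c x hx => ?_⟩
  obtain ⟨q, hq, hxq⟩ := exists_dk (H.st c c.2).full hx
  exact ⟨h2 c q hq x hxq, q, hq, hxq, hK c q hq, by rw [(κ q).set_eq]; exact T.isClosed_cc _⟩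

end all

end Crest.Agent.R096.Ecm_446
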