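import Crest.Agent.R096.Crb3_609
import Crest.Agent.R096.Ecm8_446

/-!
# R096 (row 96), helper609: CORE-BLOCK, part 4

`core_block_R` : the blocks `core`, `hS`, `hRr` of `Fin_147.fin_stG` over the final state, from 446's
`CoresR` and `base_R` (a single datum `g0`) and the last clause of the mesh.
-/

set_option autoImplicit false
set_option linter.unusedSectionVars false
set_option linter.unusedVariables false
set_option linter.style.longLine false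

open Set Metric

namespace Crest.Agent.R096.Crb_609

open Crest.Agent.R096.Ce_537 (PLOn PLEquiv plOn_affine)
open Crest.Agent.R096.Bd_416 Crest.Agent.R096.Grd_714
open Crest.Agent.R096.Xp_537 Crest.Agent.R096.Bin_181
open Crest.Agent.R096.Brk1_582 Crest.Agent.R096.Brk2_582 Crest.Agent.R096.Brk3_582
open Crest.Agent.R096.Brk5_582 Crest.Agent.R096.Brk6_582
open Crest.Agent.R096.Bsp_628
open Crest.Agent.R096.SkC1_961 (E3 Hom3 FoamD Cfg th NN)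
open Crest.Agent.R096.Msh_715
open Crest.Agent.R096.Cin_181 (thC thA thI thA_eq thI_th th_thI)
open Crest.Agent.R096.Fin_147 (gr fmJ)
open Crest.Agent.R096.Be_416 (ug ug_eqAt eqAt_sqs)
open Crest.Agent.R096.St_147 Crest.Agent.R096.Seq_213 Crest.Agent.R096.Seq_213.GSt
  Crest.Agent.R096.Lm_117 Crest.Agent.R096.Ac_117 Crest.Agent.R096.Gl_422
  Crest.Agent.R096.Mg_441 Crest.Agent.R096.Lab_184 Crest.Agent.R096.Agl5_543
  Crest.Agent.R096.Cp_298 Crest.Agent.R096.SkB_662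
open Crest.Agent.R096.Ecm_446 (CoresR gbR chR Dk nr Nod NNt exists_dk dk_sub_frontier)

variable {δ κ0 R c0 : ℝ} {La Om : Set E3} {ι : Type} {Φ : FoamD δ κ0 R c0 La} {T : Tiling Om ι}
  {f : E3 → E3} {κ1 κ2 : ℝ}
variable {ι' Fc Q J K : Type} [PartialOrder Q] {dim : Q → ℕ} {Mc : MeshC ι' Fc E3}
  {L : LM Mc Q dim} {κ : Q → T.Cell}
variable {O : Ori Mc} {σ : Q → ZMod 2} {Rel : E3 → E3 → Prop} {VV : Set E3}
  {Qd : Quads ι' Φ.F K} {κc : Φ.F → ℕ} {fam : J → Φ.F} {s₀ : GSt Mc fam} {far₀ : J → Set E3}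
  {Z : Φ.F → Set Q} {lam₀ : J → Q → ZMod 2} {v₀ v₁ : Φ.F → Q}
  {hfin : ∀ a, {j | fam j = a}.Finite} {kap : Φ.F → ℕ} {s : GSt Mc (fam' fam (Rk κc kap))}
  {far : Nm' fam (Rk κc kap) → Set E3} {β : E3 → E3} {lab : Nm' fam (Rk κc kap) → Q → ZMod 2}
variable {X : Set Φ.F} {ct : Φ.F → ι} {A : Φ.F → E3 ≃ᵃ[ℝ] E3} {lam : Φ.F → ℝ} {z : Φ.F → E3}
  {M : Φ.F → ℕ} {t : J → ℝ} {κb : ℝ} {n : Φ.F → Φ.F → ℕ → ℝ}

/-- the nodes of 446's `CoresR` -/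
theorem nodeOK_of (H : CoresR Φ T f κ1 κ2 L κ Qd κc s₀ Z lam₀ v₀ kap X ct A lam z M t κb n hfin)
    {sg : ℝ} {c : Φ.F} (hc : c ∈ X)
    (near : ∀ a : Φ.F, (Pc Φ.F a ∩ Pc Φ.F c).Nonempty →
      (∀ i < M c, n c a (i + 1) - n c a i ≤
        4 * mm (fin_copies (Rk κc kap) hfin) a / M c) ∧
      (∀ j ≤ M c, |n c a j / mm (fin_copies (Rk κc kap) hfin) a -
        (j : ℝ) / M c| ≤ sg / 2) ∧
      1 ≤ sg / 2 * mm (fin_copies (Rk κc kap) hfin) a) :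
    NodeOK Φ (mm (fin_copies (Rk κc kap) hfin)) sg c (M c) (n c) :=
  ⟨(H.gr c hc).1, (H.nd c hc).mono, (H.nd c hc).zero, (H.nd c hc).top, near⟩

/-- **CORE-BLOCK over the final state** (446's base of all exact cores) -/
theorem core_block_R
    (h : StO L O σ Rel VV Qd κc s₀ far₀ Z lam₀ v₀ v₁ hfin kap s far β lab)
    (hLa : IsOpen La) (hδ : 0 < δ) (hR : 0 < R)
    (hne : ∀ c, (Pc Φ.F c).Nonempty)
    (hm : ∀ a, 0 < mm (fin_copies (Rk κc kap) hfin) a)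
    (H : CoresR Φ T f κ1 κ2 L κ Qd κc s₀ Z lam₀ v₀ kap X ct A lam z M t κb n hfin)
    {g0 Gf : Gd E3 (Nm' fam (Rk κc kap))}
    (hb : ∀ c : X, ∀ x ∈ frontier (P (T.H (ct c))),
      EqAt (gbR hLa hne hm (fun a => .top a) (nr L s lab h.fin1) H c) g0 x)
    {sg κf : ℝ} (hs : 0 < sg) (hs1 : sg < 1) (hκf : 0 < κf) (hκs : 2 * κf ≤ sg)
    (near : ∀ c ∈ X, ∀ a : Φ.F, (Pc Φ.F a ∩ Pc Φ.F c).Nonempty →
      (∀ i < M c, n c a (i + 1) - n c a i ≤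
        4 * mm (fin_copies (Rk κc kap) hfin) a / M c) ∧
      (∀ j ≤ M c, |n c a j / mm (fin_copies (Rk κc kap) hfin) a -
        (j : ℝ) / M c| ≤ sg / 2) ∧
      1 ≤ sg / 2 * mm (fin_copies (Rk κc kap) hfin) a)
    {Kc : Φ.F → Set E3} (hKX : ∀ a ∈ X, Kc a = P (T.H (ct a))) {bt : ℕ → ℝ} {k : ℕ}
    (hg : ∀ c : X, ∀ q ∈ Dk (ct c) κ, ∀ x ∈ (κ q).set, EqAt (sqs g0 bt k) Gf x) :
    ∃ Rr : Φ.F → E3 → E3,
      (∀ a ∈ X, ∃ (U : PLEquiv (Kc a) (Pc Φ.F a))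
        (e : PLEquiv (frontier (Kc a)) (bdP (Pc Φ.F) (bc (F := Φ.F))
          (mm (fin_copies (Rk κc kap) hfin)) a)),
        (∀ x ∈ Kc a, U.f x = Rr a (th (A a) (lam a) (z a) x)) ∧
        (∀ x ∈ Kc a, x ∈ frontier (Kc a) ↔ U.f x ∈ bdP (Pc Φ.F) (bc (F := Φ.F))
          (mm (fin_copies (Rk κc kap) hfin)) a) ∧
        (∀ x ∈ frontier (Kc a), e.f x = U.f x) ∧
        (∀ y ∈ bdP (Pc Φ.F) (bc (F := Φ.F))
          (mm (fin_copies (Rk κc kap) hfin)) a, e.g y = U.g y) ∧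
        (∀ x ∈ frontier (Kc a),
          EqAt (ekS (gr Φ hLa hne hm) (bc (F := Φ.F)) κb (.top a) h.cmb.fam
            (nr L s lab h.fin1) e) g0 x) ∧
        (∀ x ∈ frontier (Kc a), EqAt (sqs g0 bt k) Gf x) ∧
        ∀ x ∈ frontier (Kc a), ∃ q, x ∈ (κ q).set ∧ (κ q).set ⊆ frontier (Kc a) ∧
          IsClosed (κ q).set) ∧
      (∀ a ∈ X, ∀ y ∈ a.1.set, ∀ y' ∈ a.1.set,
        ‖st (gr Φ hLa hne hm) κf (Rr a y) - st (gr Φ hLa hne hm) κf (Rr a y')‖ ≤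
          Rpk_714.Spk δ κ0 R * ‖y - y'‖) ∧
      (∀ a ∈ X, ∀ u ∈ interior a.1.set,
        Rr a ((1 - sg) • u + sg • (gr Φ hLa hne hm).b (.top a)) =
          (1 - sg) • u + sg • (gr Φ hLa hne hm).b (.top a)) :=
  core_block (Q := Q) hLa hδ hR H.ex hm hne hs hs1 hκf hκs (fun a ha => nodeOK_of H ha (near a ha)) hKX
    (K := fun q => (κ q).set) (D := fun a => Dk (ct a) κ)
    (fun a ha x hx => exists_dk (H.st a ha).full hx)
    (fun a ha q hq => ⟨dk_sub_frontier hq, by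
      rw [(κ q).set_eq]; exact (T.isCompact_cc (κ q).pt_mem).isClosed⟩)
    (fun a ha q hq x hx => hb ⟨a, ha⟩ x (dk_sub_frontier hq hx))
    (fun a ha q hq x hx => hg ⟨a, ha⟩ q hq x hx)

end Crest.Agent.R096.Crb_609
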