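import Crest.Agent.R96.Crs1_538
import Crest.Agent.R096.Fsl6_793

/-!
Row 96, p ≤ 2 (helper565, repair (R-b) of the objection to `PreIN`): 538's `coarse_E` and 793's
`coarse_EF` with TWO boxes of translates: a big set `D'` (volume at least `(s/N)³`, density of the
segments and faces) and the set `D ⊆ D'` of the translates which are really used (`ρv * volume D' ≤
volume D`), over which the weighted energies `μ l a` are averaged.  The proofs are those of 538 / 793.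
-/

set_option autoImplicit false
set_option linter.unusedSectionVars false
set_option maxHeartbeats 400000

open MeasureTheory Set Filter Metric Module
open scoped ENNReal NNReal Topology

namespace Crest.Agent.R096.Crs_565

open Crest.AnalysisR.VecCalc3 Crest.AnalysisR.Sobolev
open Crest.Agent.R96.Acl_392 Crest.Agent.R96.Lu_538 Crest.Agent.R96.Intr_538
open Crest.Agent.R96.Poi_392 Crest.Agent.R96.Coarse_538

noncomputable section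

/-- **COARSE SELECTION WITH ENERGIES**: COARSE-G + absolute continuity + thin tubes + finitely many
weighted energies `μ l a`, one bad set of translates. -/
theorem coarse_E2 {p : ℝ} (hp : 1 ≤ p) {Ω Λ : Set R3} (hΩ : IsOpen Ω)
    (hΩb : Bornology.IsBounded Ω) (hΛ : IsOpen Λ) (hΛf : volume Λ ≠ ∞) {f : R3 → R3}
    {G : Fin 3 → R3 → R3} (hinj : InjOn f Ω)
    (hf : ContinuousOn f Ω) (hfΛ : MapsTo f Ω Λ)
    (hG : ∀ j, HasWeakGradOn Ω (fun x => f x j) (G j))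
    (hGp : ∀ j, MemLp (G j) (ENNReal.ofReal p) (volume.restrict Ω)) {ε : ℝ} (hε : 0 < ε) :
    ∃ κ : ℝ, 0 < κ ∧ κ ≤ 1 ∧ ∃ K ⊆ Ω, IsCompact K ∧ ∃ K' ⊆ Λ, IsCompact K' ∧
      ∀ N n τ σ₀ η θ δ e₁ ρv : ℝ, 0 < ρv → 0 < N → 0 < n → 0 < σ₀ → σ₀ < τ → 2 * τ ≤ 1 → 1 ≤ σ₀ * N →
        0 < η → 0 < θ → 0 < δ → 0 < e₁ →
        ∀ (m : ℕ) (g : Fin m → R3 → ℝ≥0∞), (∀ l, AEMeasurable (g l) volume) →
        (∀ l, ∫⁻ y, g l y ≠ ∞) → ∀ (nE ncE : Fin m → ℝ) (εE : ℝ), (∀ l, 0 < nE l) →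
        (∀ l, 0 < ncE l) → 0 < εE →
        ∃ s₀ : ℝ, 0 < s₀ ∧ ∀ s : ℝ, 0 < s → s < s₀ → ∀ a₀ : R3,
        ∃ (Q₀ : Finset (Fin 3 → ℤ)) (b : (Fin 3 → ℤ) → R3) (L : (Fin 3 → ℤ) → R3 →L[ℝ] R3)
          (S : (Fin 3 → ℤ) → Set R3),
          (∀ k ∈ Q₀, GC Ω volume f (Gmat G) Cb κ e₁ s (vt (2 * s) a₀ k) (b k) (L k) (S k)) ∧
          (∀ k ∈ Q₀, cel Cb (vt (2 * s) a₀ k) s ⊆ K) ∧ (∀ k ∈ Q₀, par Cb (L k) (b k) s ⊆ K') ∧
          (∀ k ∈ Q₀, ∀ l ∈ Q₀, k ≠ l →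
            Disjoint (par Cb (L k) (b k) ((1 - τ) * s)) (par Cb (L l) (b l) s)) ∧
          ∑ k ∈ Q₀, ∫⁻ x in cel Cb (vt (2 * s) a₀ k) s, ‖Gmat G x - L k‖ₑ ^ p ≤
            ENNReal.ofReal e₁ ∧
          volume ((Ω ∩ {x | (Gmat G x).det ≠ 0}) \ ⋃ k ∈ Q₀, cel Cb (vt (2 * s) a₀ k) s) ≤
            ENNReal.ofReal ε ∧
          ∀ (κi : Type) [Countable κi] (x v : κi → R3) (D' D : Set R3), MeasurableSet D' →
            MeasurableSet D → D ⊆ D' → ENNReal.ofReal ρv * volume D' ≤ volume D →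
            ENNReal.ofReal ((s / N) ^ 3) ≤ volume D' → volume D' ≠ ∞ → (∀ e, ‖v e‖ ≤ s / N) →
            (∀ e, v e ≠ 0) → Dens D' (ENNReal.ofReal n) x v →
            ∀ (μ : Fin m → R3 → Measure R3), (∀ l, RM D (ENNReal.ofReal (nE l)) (μ l)) →
            (∀ l, ∀ a ∈ D, ∀ k : Fin 3 → ℤ, μ l a (cel Cb (vt (2 * s) a₀ k) s) ≤
              ENNReal.ofReal (ncE l * (2 * s) ^ 3)) →
            ∀ (E : Fin m → Set R3), (∀ l, MeasurableSet (E l)) →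
            ∀ (J : Type) [Countable J] (F : J → R3 → ℝ≥0∞), (∀ j, AEMeasurable (F j) volume) →
            (∀ j, ∫⁻ y, F j y ≠ ∞) →
            ∃ B : Set R3, volume B ≤ ENNReal.ofReal θ * volume D ∧
              ∀ a ∈ D, a ∉ B → (∀ e, ACV Ω f (Gmat G) (v e) (a + x e)) ∧
                (∀ e j, ∀ ε' : ℝ≥0∞, 0 < ε' → ∀ᶠ r in 𝓝[>] (0:ℝ),
                  ∫⁻ y in thickening r (seg x v a e), F j y ≤
                    ENNReal.ofReal (64 * ‖v e‖ * r ^ 2) *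
                      ((∫⁻ σ in Ioc (0:ℝ) 1, F j (a + x e + σ • v e)) + ε')) ∧
                ∃ Q ⊆ Q₀, ((Q₀ \ Q).card : ℝ) * (2 * s) ^ 3 ≤ δ ∧
                (∀ k ∈ Q, PerfG x v p Ω f (Gmat G) κ τ σ₀ η (s / N) s a (vt (2 * s) a₀ k)
                  (b k) (L k)) ∧
                ∀ l, ∫⁻ y in E l ∪ ⋃ k ∈ Q₀ \ Q, cel Cb (vt (2 * s) a₀ k) s, g l y ∂μ l a ≤
                  ENNReal.ofReal (nE l / (θ / (4 * (m + 1)))) * (∫⁻ y in E l, g l y) +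
                    ENNReal.ofReal εE := by
  classical
  obtain ⟨κ, hκ, hκ1, K, hK, hKc, K', hK', hK'c, H⟩ :=
    coarse_G hp hΩ hΩb hΛ hΛf hinj hf hfΛ hG hGp hε
  refine ⟨κ, hκ, hκ1, K, hK, hKc, K', hK', hK'c, ?_⟩
  intro N n τ σ₀ η θ δ e₁ ρv hρv hN hn hσ₀ hσ₀τ hτ hσN hη hθ hδ he₁ m g hg hgi nE ncE εE hnE hncE hεE
  have hθ' : 0 < θ / (4 * ((m:ℝ) + 1)) := by positivity
  have hen := fun l => energy_M (hg l) (hgi l) (hnE l) (hncE l) hθ' hεE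
  choose δE hδE HE using hen
  obtain ⟨δ', hδ', hδ'δ, hδ'E⟩ : ∃ δ' : ℝ, 0 < δ' ∧ δ' ≤ δ ∧ ∀ l, δ' ≤ δE l := by
    rcases isEmpty_or_nonempty (Fin m) with h0 | h0
    · exact ⟨δ, hδ, le_rfl, fun l => (h0.false l).elim⟩
    · refine ⟨min δ (Finset.univ.inf' Finset.univ_nonempty δE), lt_min hδ ?_, min_le_left _ _,
        fun l => (min_le_right _ _).trans (Finset.inf'_le _ (Finset.mem_univ l))⟩
      rw [Finset.lt_inf'_iff]
      exact fun l _ => hδE l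
  obtain ⟨s₀, hs₀, Hs⟩ := H N n τ σ₀ η (θ / 4 * ρv) δ' e₁ hN hn hσ₀ hσ₀τ hτ hσN hη (by positivity)
    hδ' he₁
  refine ⟨s₀, hs₀, fun s hs hss a₀ => ?_⟩
  obtain ⟨Q₀, b, L, S, h1, h2, h3, h4, h5, h6, h7⟩ := Hs s hs hss a₀
  refine ⟨Q₀, b, L, S, h1, h2, h3, h4, h5, h6, ?_⟩
  intro κi _ x v D' D hD' hD hDD hρ hVD hVDt' hv hv0 hdens μ hμ hcount E hE J _ F hF hFi
  obtain ⟨B₁, hB₁', HB₁⟩ := h7 κi x v D' hD' hVD hv hdens
  have hB₁ : volume B₁ ≤ ENNReal.ofReal (θ / 4) * volume D := by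
    refine hB₁'.trans ?_
    rw [ENNReal.ofReal_mul (by positivity), mul_assoc]
    gcongr
  have hVDt : volume D ≠ ∞ := ne_top_of_le_ne_top hVDt' (measure_mono hDD)
  have hV0 : volume D ≠ 0 := by
    intro h
    rw [h] at hρ
    have h9 : 0 < (s / N) ^ 3 := by positivity
    have h8 : ENNReal.ofReal ρv * volume D' = 0 := le_antisymm hρ zero_le
    rcases mul_eq_zero.1 h8 with h10 | h10
    · have := ENNReal.ofReal_eq_zero.1 h10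
      linarith
    · rw [h10] at hVD
      have h11 := ENNReal.ofReal_eq_zero.1 (le_antisymm hVD zero_le)
      linarith
  have hEl := fun l => HE l s hs a₀ (μ l) D hD hV0 hVDt (hμ l) (hcount l) (E l) (hE l)
  choose B₂ hB₂ HB₂ using hEl
  have hacv := acv_countable hΩ hG hf x v
  have htub := tubes (x := x) hv0 hF hFi
  have hacv' : volume {a | ¬ ∀ e, ACV Ω f (Gmat G) (v e) (a + x e)} = 0 := hacv
  have htub' : volume {a | ¬ ∀ e j, ∀ ε' : ℝ≥0∞, 0 < ε' → ∀ᶠ r in 𝓝[>] (0:ℝ),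
      ∫⁻ y in thickening r (seg x v a e), F j y ≤ ENNReal.ofReal (64 * ‖v e‖ * r ^ 2) *
        ((∫⁻ σ in Ioc (0:ℝ) 1, F j (a + x e + σ • v e)) + ε')} = 0 := htub
  refine ⟨(B₁ ∪ ⋃ l, B₂ l) ∪ ({a | ¬ ∀ e, ACV Ω f (Gmat G) (v e) (a + x e)} ∪
    {a | ¬ ∀ e j, ∀ ε' : ℝ≥0∞, 0 < ε' → ∀ᶠ r in 𝓝[>] (0:ℝ),
      ∫⁻ y in thickening r (seg x v a e), F j y ≤ ENNReal.ofReal (64 * ‖v e‖ * r ^ 2) *
        ((∫⁻ σ in Ioc (0:ℝ) 1, F j (a + x e + σ • v e)) + ε')}), ?_, ?_⟩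
  · have hz : volume ({a | ¬ ∀ e, ACV Ω f (Gmat G) (v e) (a + x e)} ∪
        {a | ¬ ∀ e j, ∀ ε' : ℝ≥0∞, 0 < ε' → ∀ᶠ r in 𝓝[>] (0:ℝ),
        ∫⁻ y in thickening r (seg x v a e), F j y ≤ ENNReal.ofReal (64 * ‖v e‖ * r ^ 2) *
        ((∫⁻ σ in Ioc (0:ℝ) 1, F j (a + x e + σ • v e)) + ε')}) = 0 := by
      rw [measure_union_null_iff]
      exact ⟨hacv', htub'⟩
    refine (measure_union_le _ _).trans ?_
    rw [hz, add_zero]
    refine (measure_union_le _ _).trans ?_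
    have h8 : volume (⋃ l, B₂ l) ≤ ENNReal.ofReal (θ / 4) * volume D := by
      refine (measure_iUnion_fintype_le _ _).trans ?_
      refine (Finset.sum_le_sum fun l _ => hB₂ l).trans ?_
      rw [Finset.sum_const, Finset.card_univ, Fintype.card_fin, nsmul_eq_mul, ← mul_assoc,
        ← ENNReal.ofReal_natCast, ← ENNReal.ofReal_mul (Nat.cast_nonneg _)]
      gcongr
      have : (m:ℝ) ≤ m + 1 := by linarith
      rw [mul_div_assoc', div_le_div_iff₀ (by positivity) (by norm_num)]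
      nlinarith
    calc volume B₁ + volume (⋃ l, B₂ l)
        ≤ ENNReal.ofReal (θ / 4) * volume D + ENNReal.ofReal (θ / 4) * volume D :=
          add_le_add hB₁ h8
      _ = ENNReal.ofReal (θ / 4 + θ / 4) * volume D := by
          rw [← add_mul, ENNReal.ofReal_add (by positivity) (by positivity)]
      _ ≤ ENNReal.ofReal θ * volume D := by
          gcongr
          linarith
  · intro a haD haB
    have hn1 : a ∉ B₁ := fun h => haB (Or.inl (Or.inl h))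
    have hn2 : ∀ l, a ∉ B₂ l := fun l h => haB (Or.inl (Or.inr (mem_iUnion.2 ⟨l, h⟩)))
    have hn3 : ∀ e, ACV Ω f (Gmat G) (v e) (a + x e) := by
      by_contra h
      exact haB (Or.inr (Or.inl h))
    have hn4 : ∀ e j, ∀ ε' : ℝ≥0∞, 0 < ε' → ∀ᶠ r in 𝓝[>] (0:ℝ),
        ∫⁻ y in thickening r (seg x v a e), F j y ≤ ENNReal.ofReal (64 * ‖v e‖ * r ^ 2) *
          ((∫⁻ σ in Ioc (0:ℝ) 1, F j (a + x e + σ • v e)) + ε') := by
      by_contra h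
      exact haB (Or.inr (Or.inr h))
    obtain ⟨Q, hQ, hQc, hQP⟩ := HB₁ a (hDD haD) hn1
    exact ⟨hn3, hn4, Q, hQ, hQc.trans hδ'δ, hQP, fun l =>
      HB₂ l a haD (hn2 l) (Q₀ \ Q) (hQc.trans (hδ'E l))⟩


end

section Faces2

open Crest.Agent.R96.Sob4_199 Crest.Agent.R096.Sc_968 Crest.Agent.R096.Fce_793
open Crest.Agent.R096.Fsl_793

noncomputable section

/-- **COARSE SELECTION at p = 2: edges, faces, a random measure, tubes, weighted energies**, one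
bad set of translates. -/
theorem coarse_EF2 {Ω Λ : Set R3} (hΩ : IsOpen Ω)
    (hΩb : Bornology.IsBounded Ω) (hΛ : IsOpen Λ) (hΛf : volume Λ ≠ ∞) {f : R3 → R3}
    {G : Fin 3 → R3 → R3} (hinj : InjOn f Ω)
    (hf : ContinuousOn f Ω) (hfΛ : MapsTo f Ω Λ)
    (hG : ∀ j, HasWeakGradOn Ω (fun x => f x j) (G j))
    (hGp : ∀ j, MemLp (G j) (ENNReal.ofReal 2) (volume.restrict Ω)) {ε : ℝ} (hε : 0 < ε) :
    ∃ κ : ℝ, 0 < κ ∧ κ ≤ 1 ∧ ∃ K ⊆ Ω, IsCompact K ∧ ∃ K' ⊆ Λ, IsCompact K' ∧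
      ∀ N n τ σ₀ η θ δ e₁ ε₀ β Λf ρv : ℝ, ∀ M : ℕ, 0 < ρv → 0 < N → 0 < n → 0 < σ₀ → σ₀ < τ → 2 * τ ≤ 1 →
        1 ≤ σ₀ * N → 0 < η → 0 < θ → 0 < δ → 0 < e₁ → 0 < ε₀ → 0 < β → 0 < Λf →
        ∀ (m : ℕ) (g : Fin m → R3 → ℝ≥0∞), (∀ l, AEMeasurable (g l) volume) →
        (∀ l, ∫⁻ y, g l y ≠ ∞) → ∀ (nE ncE : Fin m → ℝ) (εE : ℝ), (∀ l, 0 < nE l) →
        (∀ l, 0 < ncE l) → 0 < εE →
        ∃ s₀ : ℝ, 0 < s₀ ∧ ∀ s : ℝ, 0 < s → s < s₀ → ∀ a₀ : R3,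
        ∃ (Q₀ : Finset (Fin 3 → ℤ)) (b : (Fin 3 → ℤ) → R3) (L : (Fin 3 → ℤ) → R3 →L[ℝ] R3)
          (S : (Fin 3 → ℤ) → Set R3),
          (∀ k ∈ Q₀, GC Ω volume f (Gmat G) Cb κ e₁ s (vt (2 * s) a₀ k) (b k) (L k) (S k)) ∧
          (∀ k ∈ Q₀, cel Cb (vt (2 * s) a₀ k) s ⊆ K) ∧ (∀ k ∈ Q₀, par Cb (L k) (b k) s ⊆ K') ∧
          (∀ k ∈ Q₀, ∀ l ∈ Q₀, k ≠ l →
            Disjoint (par Cb (L k) (b k) ((1 - τ) * s)) (par Cb (L l) (b l) s)) ∧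
          ∑ k ∈ Q₀, ∫⁻ x in cel Cb (vt (2 * s) a₀ k) s, ‖Gmat G x - L k‖ₑ ^ (2:ℝ) ≤
            ENNReal.ofReal e₁ ∧
          volume ((Ω ∩ {x | (Gmat G x).det ≠ 0}) \ ⋃ k ∈ Q₀, cel Cb (vt (2 * s) a₀ k) s) ≤
            ENNReal.ofReal ε ∧
          ∀ (κi : Type) [Countable κi] (x v : κi → R3) (κf : Type) [Countable κf]
            (xf : κf → R3) (ef : κf → Fin 2 → R3) (Pf : κf → Set (ℝ × ℝ)) (Rf : κf → Set R3)
            (D' D : Set R3), MeasurableSet D' → MeasurableSet D → D ⊆ D' →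
            ENNReal.ofReal ρv * volume D' ≤ volume D →
            ENNReal.ofReal ((s / N) ^ 3) ≤ volume D' → volume D' ≠ ∞ → (∀ e, ‖v e‖ ≤ s / N) →
            (∀ e, v e ≠ 0) →
            Dens D' (ENNReal.ofReal n) x v → Faces D' (Λf * (s / N)) M xf ef Pf Rf →
            ∀ ν : R3 → Measure R3, RM D' (ENNReal.ofReal n) ν →
            ∀ (μ : Fin m → R3 → Measure R3), (∀ l, RM D (ENNReal.ofReal (nE l)) (μ l)) →
            (∀ l, ∀ a ∈ D, ∀ k : Fin 3 → ℤ, μ l a (cel Cb (vt (2 * s) a₀ k) s) ≤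
              ENNReal.ofReal (ncE l * (2 * s) ^ 3)) →
            ∀ (E : Fin m → Set R3), (∀ l, MeasurableSet (E l)) →
            ∀ (J : Type) [Countable J] (F : J → R3 → ℝ≥0∞), (∀ j, AEMeasurable (F j) volume) →
            (∀ j, ∫⁻ y, F j y ≠ ∞) →
            ∃ B : Set R3, volume B ≤ ENNReal.ofReal θ * volume D ∧
              ∀ a ∈ D, a ∉ B → (∀ e, ACV Ω f (Gmat G) (v e) (a + x e)) ∧
                (∀ e j, ∀ ε' : ℝ≥0∞, 0 < ε' → ∀ᶠ r in 𝓝[>] (0:ℝ),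
                  ∫⁻ y in thickening r (seg x v a e), F j y ≤
                    ENNReal.ofReal (64 * ‖v e‖ * r ^ 2) *
                      ((∫⁻ σ in Ioc (0:ℝ) 1, F j (a + x e + σ • v e)) + ε')) ∧
                ∃ Q ⊆ Q₀, ((Q₀ \ Q).card : ℝ) * (2 * s) ^ 3 ≤ δ ∧
                (∀ k ∈ Q, PerfG x v 2 Ω f (Gmat G) κ τ σ₀ η (s / N) s a (vt (2 * s) a₀ k)
                  (b k) (L k) ∧
                FaceG Ω f xf ef Pf (Junk f s (vt (2 * s) a₀ k) (b k) (L k) (β * (s / N)))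
                  (ε₀ * (s / N) ^ 2) a ∧
                ∫⁻ y in cel Cb (vt (2 * s) a₀ k) s, ‖Gmat G y - L k‖ₑ ^ (2:ℝ) ∂ν a ≤
                  ENNReal.ofReal (ε₀ * s ^ 3)) ∧
                ∀ l, ∫⁻ y in E l ∪ ⋃ k ∈ Q₀ \ Q, cel Cb (vt (2 * s) a₀ k) s, g l y ∂μ l a ≤
                  ENNReal.ofReal (nE l / (θ / (4 * (m + 1)))) * (∫⁻ y in E l, g l y) +
                    ENNReal.ofReal εE := by
  classical
  obtain ⟨κ, hκ, hκ1, K, hK, hKc, K', hK', hK'c, H⟩ :=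
    coarse_F hΩ hΩb hΛ hΛf hinj hf hfΛ hG hGp hε
  refine ⟨κ, hκ, hκ1, K, hK, hKc, K', hK', hK'c, ?_⟩
  intro N n τ σ₀ η θ δ e₁ ε₀ β Λf ρv M hρv hN hn hσ₀ hσ₀τ hτ hσN hη hθ hδ he₁ hε₀ hβ hΛf0 m g hg hgi nE
    ncE εE hnE hncE hεE
  have hθ' : 0 < θ / (4 * ((m:ℝ) + 1)) := by positivity
  have hen := fun l => energy_M (hg l) (hgi l) (hnE l) (hncE l) hθ' hεE
  choose δE hδE HE using hen
  obtain ⟨δ', hδ', hδ'δ, hδ'E⟩ : ∃ δ' : ℝ, 0 < δ' ∧ δ' ≤ δ ∧ ∀ l, δ' ≤ δE l := by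
    rcases isEmpty_or_nonempty (Fin m) with h0 | h0
    · exact ⟨δ, hδ, le_rfl, fun l => (h0.false l).elim⟩
    · refine ⟨min δ (Finset.univ.inf' Finset.univ_nonempty δE), lt_min hδ ?_, min_le_left _ _,
        fun l => (min_le_right _ _).trans (Finset.inf'_le _ (Finset.mem_univ l))⟩
      rw [Finset.lt_inf'_iff]
      exact fun l _ => hδE l
  obtain ⟨s₀, hs₀, Hs⟩ := H N n τ σ₀ η (θ / 4 * ρv) δ' e₁ ε₀ β Λf M hN hn hσ₀ hσ₀τ hτ hσN hη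
    (by positivity) hδ' he₁ hε₀ hβ hΛf0
  refine ⟨s₀, hs₀, fun s hs hss a₀ => ?_⟩
  obtain ⟨Q₀, b, L, S, h1, h2, h3, h4, h5, h6, h7⟩ := Hs s hs hss a₀
  refine ⟨Q₀, b, L, S, h1, h2, h3, h4, h5, h6, ?_⟩
  intro κi _ x v κf _ xf ef Pf Rf D' D hD' hD hDD hρ hVD hVDt' hv hv0 hdens hFa ν hν μ hμ hcount
    E hE J _ F hF hFi
  obtain ⟨B₁, hB₁', HB₁⟩ := h7 κi x v κf xf ef Pf Rf D' hD' hVD hVDt' hv hdens hFa ν hν
  have hB₁ : volume B₁ ≤ ENNReal.ofReal (θ / 4) * volume D := by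
    refine hB₁'.trans ?_
    rw [ENNReal.ofReal_mul (by positivity), mul_assoc]
    gcongr
  have hVDt : volume D ≠ ∞ := ne_top_of_le_ne_top hVDt' (measure_mono hDD)
  have hV0 : volume D ≠ 0 := by
    intro h
    rw [h] at hρ
    have h9 : 0 < (s / N) ^ 3 := by positivity
    have h8 : ENNReal.ofReal ρv * volume D' = 0 := le_antisymm hρ zero_le
    rcases mul_eq_zero.1 h8 with h10 | h10
    · have := ENNReal.ofReal_eq_zero.1 h10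
      linarith
    · rw [h10] at hVD
      have h11 := ENNReal.ofReal_eq_zero.1 (le_antisymm hVD zero_le)
      linarith
  have hEl := fun l => HE l s hs a₀ (μ l) D hD hV0 hVDt (hμ l) (hcount l) (E l) (hE l)
  choose B₂ hB₂ HB₂ using hEl
  have hacv := acv_countable hΩ hG hf x v
  have htub := tubes (x := x) hv0 hF hFi
  have hacv' : volume {a | ¬ ∀ e, ACV Ω f (Gmat G) (v e) (a + x e)} = 0 := hacv
  have htub' : volume {a | ¬ ∀ e j, ∀ ε' : ℝ≥0∞, 0 < ε' → ∀ᶠ r in 𝓝[>] (0:ℝ),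
      ∫⁻ y in thickening r (seg x v a e), F j y ≤ ENNReal.ofReal (64 * ‖v e‖ * r ^ 2) *
        ((∫⁻ σ in Ioc (0:ℝ) 1, F j (a + x e + σ • v e)) + ε')} = 0 := htub
  refine ⟨(B₁ ∪ ⋃ l, B₂ l) ∪ ({a | ¬ ∀ e, ACV Ω f (Gmat G) (v e) (a + x e)} ∪
    {a | ¬ ∀ e j, ∀ ε' : ℝ≥0∞, 0 < ε' → ∀ᶠ r in 𝓝[>] (0:ℝ),
      ∫⁻ y in thickening r (seg x v a e), F j y ≤ ENNReal.ofReal (64 * ‖v e‖ * r ^ 2) *
        ((∫⁻ σ in Ioc (0:ℝ) 1, F j (a + x e + σ • v e)) + ε')}), ?_, ?_⟩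
  · have hz : volume ({a | ¬ ∀ e, ACV Ω f (Gmat G) (v e) (a + x e)} ∪
        {a | ¬ ∀ e j, ∀ ε' : ℝ≥0∞, 0 < ε' → ∀ᶠ r in 𝓝[>] (0:ℝ),
        ∫⁻ y in thickening r (seg x v a e), F j y ≤ ENNReal.ofReal (64 * ‖v e‖ * r ^ 2) *
        ((∫⁻ σ in Ioc (0:ℝ) 1, F j (a + x e + σ • v e)) + ε')}) = 0 := by
      rw [measure_union_null_iff]
      exact ⟨hacv', htub'⟩
    refine (measure_union_le _ _).trans ?_
    rw [hz, add_zero]
    refine (measure_union_le _ _).trans ?_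
    have h8 : volume (⋃ l, B₂ l) ≤ ENNReal.ofReal (θ / 4) * volume D := by
      refine (measure_iUnion_fintype_le _ _).trans ?_
      refine (Finset.sum_le_sum fun l _ => hB₂ l).trans ?_
      rw [Finset.sum_const, Finset.card_univ, Fintype.card_fin, nsmul_eq_mul, ← mul_assoc,
        ← ENNReal.ofReal_natCast, ← ENNReal.ofReal_mul (Nat.cast_nonneg _)]
      gcongr
      have : (m:ℝ) ≤ m + 1 := by linarith
      rw [mul_div_assoc', div_le_div_iff₀ (by positivity) (by norm_num)]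
      nlinarith
    calc volume B₁ + volume (⋃ l, B₂ l)
        ≤ ENNReal.ofReal (θ / 4) * volume D + ENNReal.ofReal (θ / 4) * volume D :=
          add_le_add hB₁ h8
      _ = ENNReal.ofReal (θ / 4 + θ / 4) * volume D := by
          rw [← add_mul, ENNReal.ofReal_add (by positivity) (by positivity)]
      _ ≤ ENNReal.ofReal θ * volume D := by
          gcongr
          linarith
  · intro a haD haB
    have hn1 : a ∉ B₁ := fun h => haB (Or.inl (Or.inl h))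
    have hn2 : ∀ l, a ∉ B₂ l := fun l h => haB (Or.inl (Or.inr (mem_iUnion.2 ⟨l, h⟩)))
    have hn3 : ∀ e, ACV Ω f (Gmat G) (v e) (a + x e) := by
      by_contra h
      exact haB (Or.inr (Or.inl h))
    have hn4 : ∀ e j, ∀ ε' : ℝ≥0∞, 0 < ε' → ∀ᶠ r in 𝓝[>] (0:ℝ),
        ∫⁻ y in thickening r (seg x v a e), F j y ≤ ENNReal.ofReal (64 * ‖v e‖ * r ^ 2) *
          ((∫⁻ σ in Ioc (0:ℝ) 1, F j (a + x e + σ • v e)) + ε') := by
      by_contra h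
      exact haB (Or.inr (Or.inr h))
    obtain ⟨Q, hQ, hQc, hQP⟩ := HB₁ a (hDD haD) hn1
    exact ⟨hn3, hn4, Q, hQ, hQc.trans hδ'δ, hQP, fun l =>
      HB₂ l a haD (hn2 l) (Q₀ \ Q) (hQc.trans (hδ'E l))⟩

end

end Faces2

end Crest.Agent.R096.Crs_565
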