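import Crest.Agent.R96.Nu8_199

/-!
Row 96 (S0127), helper713.  The subcomplex of a down-closed set of cells, and 199's `tile_piece`,
`tile_fam` for the cells of a tiling outside a family of (giant) cores.
-/

set_option autoImplicit false
set_option linter.unusedSectionVars false
set_option linter.style.longLine false

open Set Metric Filter Topology

namespace Crest.Agent.R096.Csb_713

open Crest.Agent.R096.Ce_537 Crest.Agent.R096.Bd_416 Crest.Agent.R096.Msh_715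
open Crest.Agent.R96.Nu3_199 Crest.Agent.R96.Nu5_199 Crest.Agent.R96.Nu6_199
open Crest.Agent.R96.Nu7_199 Crest.Agent.R96.Nu8_199

open scoped Classical

section Sub

variable {E : Type*} [NormedAddCommGroup E] [NormedSpace ℝ E]
variable {Ω Ω' : Set E} {Q : Type*} [PartialOrder Q] {dim : Q → ℕ} {K : Q → Set E} {D : Set Q}

theorem opn_sub_iff (hD : ∀ i ∈ D, ∀ j ≤ i, j ∈ D) {i : D} {x : E} :
    Opn (fun i : D => K i.1) i x ↔ Opn K i.1 x := by
  constructor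
  · rintro ⟨h1, h2⟩
    refine ⟨h1, fun j hj hx => ?_⟩
    exact h2 ⟨j, hD i.1 i.2 j hj.le⟩ hj hx
  · rintro ⟨h1, h2⟩
    exact ⟨h1, fun j hj => h2 j.1 hj⟩

/-- **the subcomplex of a down-closed set of cells** -/
theorem Cplx_sub (X : Cplx Ω Q dim K) (hD : ∀ i ∈ D, ∀ j ≤ i, j ∈ D) (hΩ : Ω' ⊆ Ω)
    (hsub : ∀ i ∈ D, K i ⊆ Ω') (hcov : ∀ x ∈ Ω', ∃ i ∈ D, x ∈ K i) :
    Cplx Ω' D (fun i : D => dim i.1) (fun i : D => K i.1) where
  isBall := by
    intro i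
    have h1 := X.isBall i.1
    have h2 : (⋃ j ∈ {j : D | j < i}, K j.1) = ⋃ j ∈ {j | j < i.1}, K j := by
      ext x
      simp only [mem_iUnion, exists_prop]
      constructor
      · rintro ⟨j, hj, hx⟩
        exact ⟨j.1, hj, hx⟩
      · rintro ⟨j, hj, hx⟩
        exact ⟨⟨j, hD i.1 i.2 j (le_of_lt hj)⟩, hj, hx⟩
    rw [h2]
    exact h1
  mono := fun i j h => X.mono i.1 j.1 h
  disj := fun i j x hi hj =>
    Subtype.ext (X.disj i.1 j.1 x ((opn_sub_iff hD).1 hi) ((opn_sub_iff hD).1 hj))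
  sub := fun i => hsub i.1 i.2
  cover := by
    intro x hx
    obtain ⟨i, hi, hxi⟩ := hcov x hx
    exact ⟨⟨i, hi⟩, hxi⟩
  lf := by
    intro x hx
    obtain ⟨r, hr, hf⟩ := X.lf x (hΩ hx)
    refine ⟨r, hr, ?_⟩
    exact hf.preimage (f := (Subtype.val : D → Q)) Subtype.val_injective.injOn

/-- the subcomplex over the union of its cells -/
theorem Cplx_sub' (X : Cplx Ω Q dim K) (hD : ∀ i ∈ D, ∀ j ≤ i, j ∈ D) :
    Cplx (⋃ i ∈ D, K i) D (fun i : D => dim i.1) (fun i : D => K i.1) := by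
  refine Cplx_sub X hD (iUnion₂_subset fun i _ => X.sub i) (fun i hi => subset_biUnion_of_mem hi) ?_
  intro x hx
  obtain ⟨i, hi, hxi⟩ := mem_iUnion₂.1 hx
  exact ⟨i, hi, hxi⟩

end Sub

noncomputable section

variable {E : Type} [NormedAddCommGroup E] [NormedSpace ℝ E] [FiniteDimensional ℝ E]
variable {Om Ω' : Set E} {ι : Type*} {T : Tiling Om ι} {D : Set T.Cell}

/-- the cells not contained in the interiors of a family of closed sets (the cores) are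
down-closed as soon as every core is a union of tiles: general form, by a predicate on sets -/
theorem lower_of_sub {S : Set E} {i j : T.Cell} (h : j ≤ i) (hi : i.set ⊆ S) : j.set ⊆ S :=
  (Tiling.Cell.le_def.1 h).trans hi

variable {J Fam : Type} {C : Cmb D (fun c : D => c.1.dim) J Fam} {R : Set D} {K₀ ε : ℝ}
  {b : ℕ → ℝ} {wt : J → ℝ} {δ : D → ℝ} {g0 : Gd E J} {P0 : ∀ q, C.I q → Set E}
  {c0 : ∀ q, C.I q → E → ℝ}

/-- **THE PIECES OF A TILE IN THE FRAME `B`, subcomplex form** (`X` = any `Cplx` structure on the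
subtype `D` of the cells of `T`, e.g. `Cplx_sub' T.cplx hD`). -/
theorem tile_piece_D (X : Cplx Ω' D (fun c : D => c.1.dim) (fun c : D => c.1.set))
    (h2 : 2 ≤ Module.finrank ℝ E) (hw : ∀ j, 0 < wt j) (hb0 : ∀ n, 0 < b n)
    (hK : 0 ≤ K₀) (hδ : ∀ q, 0 < δ q)
    (hδ2 : ∀ q, 0 < WE X C wt q → ∀ σ ≤ q, δ σ ≤ WE X C wt q)
    {i : ι} {q : D} (hqi : q.1.set = P (T.H i)) (hqd : q.1.dim = Module.finrank ℝ E)
    (hne : ∀ σ ≤ q, 2 ≤ σ.1.dim → ∀ x : C.I σ, ∃ e, ∃ h : e < σ, e.1.dim = 1 ∧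
      ∃ y : C.I e, C.up h y = x)
    {Spec : ∀ q : D, Lam q.1.set (C.I q) → Prop} {g : Gd E J} {P : C.I q → Set E}
    {c : C.I q → E → ℝ}
    (hT : Trk C (fun c : D => c.1.set) R g0 P0 c0 b Spec (fun _ => FrA E) wt
      (LamS X C K₀ ε b wt δ) (Module.finrank ℝ E + 1) q g P c)
    (B : E ≃ᵃ[ℝ] E) (x : C.I q) {z : E} (hz : z ∈ q.1.set) :
    LB B (2 * C𝒦 K₀ ε b (Module.finrank ℝ E) (CfgB T i B) * WE X C wt q / wt (C.col q x))
      (c x) q.1.set z := by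
  refine tile_piece (dim := fun c : D => c.1.dim) (K := fun c : D => c.1.set) X hw hb0 hK
    hδ hδ2 (by rw [hqd]; exact h2) hqd.le (finite_CfgB T i B) (fun σ hσ => ?_)
    (fun σ _ σ' _ h => Subtype.ext (Tiling.Cell.ext h)) hne hT x hz
  exact mem_image_of_mem _ (mem_Cfg (hqi ▸ Tiling.Cell.le_def.1 (show σ.1 ≤ q.1 from hσ)))

/-- **THE FAMILIES OF A TILE IN THE FRAME `B`, subcomplex form** -/
theorem tile_fam_D (X : Cplx Ω' D (fun c : D => c.1.dim) (fun c : D => c.1.set))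
    (h2 : 2 ≤ Module.finrank ℝ E) (hw : ∀ j, 0 < wt j) (hb0 : ∀ n, 0 < b n)
    (hK : 0 ≤ K₀) (hδ : ∀ q, 0 < δ q)
    (hδ2 : ∀ q, 0 < WE X C wt q → ∀ σ ≤ q, δ σ ≤ WE X C wt q)
    {i : ι} {q : D} (hqi : q.1.set = P (T.H i)) (hqd : q.1.dim = Module.finrank ℝ E)
    (hne : ∀ σ ≤ q, 2 ≤ σ.1.dim → ∀ x : C.I σ, ∃ e, ∃ h : e < σ, e.1.dim = 1 ∧
      ∃ y : C.I e, C.up h y = x)
    {Spec : ∀ q : D, Lam q.1.set (C.I q) → Prop} {D' : Set D} {g : Gd E J}
    {P : ∀ q, C.I q → Set E} {c : ∀ q, C.I q → E → ℝ}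
    (H : Inv C (fun c : D => c.1.set) D' g P c) (hqD : q ∈ D')
    (hT : Trk C (fun c : D => c.1.set) R g0 P0 c0 b Spec (fun _ => FrA E) wt
      (LamS X C K₀ ε b wt δ) (Module.finrank ℝ E + 1) q g (P q) (c q))
    (S : Finset J) (hS : ∀ j ∈ S, ∀ j' ∈ S, C.fam j = C.fam j') (B : E ≃ᵃ[ℝ] E) {z : E}
    (hz : z ∈ q.1.set) :
    LB B (2 * C𝒦 K₀ ε b (Module.finrank ℝ E) (CfgB T i B) * WE X C wt q)
      (fun w => ∑ j ∈ S, wt j * g.G j w) q.1.set z := by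
  refine tile_fam (dim := fun c : D => c.1.dim) (K := fun c : D => c.1.set) X hw hb0 hK
    hδ hδ2 (by rw [hqd]; exact h2) hqd.le (finite_CfgB T i B) (fun σ hσ => ?_)
    (fun σ _ σ' _ h => Subtype.ext (Tiling.Cell.ext h)) hne H hqD hT S hS hz
  exact mem_image_of_mem _ (mem_Cfg (hqi ▸ Tiling.Cell.le_def.1 (show σ.1 ≤ q.1 from hσ)))

end

end Crest.Agent.R096.Csb_713
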