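import Crest.Agent.R096.Csb1_713
import Crest.Agent.R096.Mrg2_715

/-!
Row 96 (S0127), helper713.  The cells of a tiling outside the interiors of the cores `Kc k` (closed
sets whose frontiers are subcomplexes): they form a down-closed set `DK`, and a `Cplx` of
`Om \ ⋃ k, interior (Kc k)`.
-/

set_option autoImplicit false
set_option linter.unusedSectionVars false
set_option linter.style.longLine false

open Set Metric Filter Topology

namespace Crest.Agent.R096.Csb_713

open Crest.Agent.R096.Ce_537 Crest.Agent.R096.Bd_416 Crest.Agent.R096.Msh_715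
open Crest.Agent.R96.Nu3_199 Crest.Agent.R96.Nu5_199 Crest.Agent.R96.Nu6_199
open Crest.Agent.R96.Nu7_199 Crest.Agent.R96.Nu8_199

open scoped Classical

variable {E : Type} [NormedAddCommGroup E] [NormedSpace ℝ E] [FiniteDimensional ℝ E]
variable {Om : Set E} {ι : Type} (T : Tiling Om ι) {κ : Type*} (Kc : κ → Set E)

/-- an open cell which is not in the interior of the core misses it; so does the closed cell -/
theorem cc_disj {K : Set E} (hcl : IsClosed K) (hs : ∀ x ∈ frontier K, T.cc x ⊆ frontier K)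
    {x : E} (hx : x ∈ Om) (hxK : x ∉ interior K) : Disjoint (T.cc x) (interior K) := by
  have hoc : T.oc x ⊆ (interior K)ᶜ := by
    by_cases hxF : x ∈ frontier K
    · intro y hy hyi
      have h1 : y ∈ frontier K := hs x hxF (T.oc_sub_cc x hy)
      rw [hcl.frontier_eq] at h1
      exact h1.2 hyi
    · have hxn : x ∉ K := by
        intro h
        exact hxF (by rw [hcl.frontier_eq]; exact ⟨h, hxK⟩)
      have hno : ∀ y ∈ T.oc x, y ∉ frontier K := by
        intro y hy hyF
        have h1 := hs y hyF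
        rw [T.cc_eq_of_mem_oc hx hy] at h1
        exact hxF (h1 (T.self_mem_cc x))
      have h2 : T.oc x ⊆ interior K ∨ T.oc x ⊆ Kᶜ := by
        refine (T.convex_oc x).isPreconnected.subset_or_subset isOpen_interior hcl.isOpen_compl ?_ ?_
        · rw [Set.disjoint_left]; intro y hy hyK; exact hyK (interior_subset hy)
        · intro y hy
          by_cases hyK : y ∈ K
          · left
            by_contra hyi
            exact hno y hy (by rw [hcl.frontier_eq]; exact ⟨hyK, hyi⟩)
          · exact Or.inr hyK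
      rcases h2 with h2 | h2
      · exact absurd (h2 (T.self_mem_oc x)) hxK
      · intro y hy hyi
        exact h2 hy (interior_subset hyi)
  rw [Set.disjoint_left]
  intro y hy hyi
  have h3 : T.cc x ⊆ (interior K)ᶜ := by
    rw [← T.closure_oc x]
    exact closure_minimal hoc isOpen_interior.isClosed_compl
  exact h3 hy hyi

/-- the cells outside the interiors of the cores -/
def DK : Set T.Cell := {c | ∀ k, Disjoint c.set (interior (Kc k))}

theorem DK_lower : ∀ i ∈ DK T Kc, ∀ j ≤ i, j ∈ DK T Kc := by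
  intro i hi j hj k
  exact (hi k).mono_left (Tiling.Cell.le_def.1 hj)

/-- **the complex outside the cores** -/
theorem cplxK (hcl : ∀ k, IsClosed (Kc k))
    (hs : ∀ k, ∀ x ∈ frontier (Kc k), T.cc x ⊆ frontier (Kc k)) :
    Cplx (Om \ ⋃ k, interior (Kc k)) (DK T Kc) (fun c : DK T Kc => c.1.dim)
      (fun c : DK T Kc => c.1.set) := by
  refine Cplx_sub T.cplx (DK_lower T Kc) sdiff_subset ?_ ?_
  · intro i hi x hx
    refine ⟨T.cplx.sub i hx, fun hxU => ?_⟩
    obtain ⟨k, hk⟩ := mem_iUnion.1 hxU
    exact Set.disjoint_left.1 (hi k) hx hk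
  · rintro x ⟨hx, hxU⟩
    refine ⟨T.cl hx, ?_, ?_⟩
    · intro k
      rw [T.cl_set hx]
      exact cc_disj T (hcl k) (hs k) hx fun h => hxU (mem_iUnion.2 ⟨k, h⟩)
    · rw [T.cl_set hx]
      exact T.self_mem_cc x

/-- the cell of a tile which is contained in no core -/
theorem exists_tile_D (hcl : ∀ k, IsClosed (Kc k))
    (hs : ∀ k, ∀ x ∈ frontier (Kc k), T.cc x ⊆ frontier (Kc k)) {i : ι}
    (hi : ∀ k, ¬ P (T.H i) ⊆ Kc k) :
    ∃ q : DK T Kc, q.1.set = P (T.H i) ∧ q.1.dim = Module.finrank ℝ E := by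
  obtain ⟨q, h1, h2⟩ := exists_tile T i
  refine ⟨⟨q, fun k => ?_⟩, h1, h2⟩
  rw [h1]
  rcases T.tile_dich (hcl k) (hs k) i with h | h
  · exact absurd h.1 (hi k)
  · exact h.2.2

/-- the cells of the frontier of a core are in `DK` -/
theorem mem_DK_of_sub_frontier (hcl : ∀ k, IsClosed (Kc k))
    (hdis : ∀ k k', k ≠ k' → Disjoint (Kc k) (Kc k')) {k : κ} {c : T.Cell}
    (hc : c.set ⊆ frontier (Kc k)) : c ∈ DK T Kc := by
  intro k'
  rw [Set.disjoint_left]
  intro y hy hyi
  have h1 := hc hy
  rw [(hcl k).frontier_eq] at h1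
  by_cases h : k = k'
  · subst h
    exact h1.2 hyi
  · exact Set.disjoint_left.1 (hdis k k' h) h1.1 (interior_subset hyi)

end Crest.Agent.R096.Csb_713
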