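import Crest.Agent.R096.Xp1_537
import Crest.Agent.R096.Msh3_715

/-!
# R096 (row 96), EXPLODE, part 7 (helper537)

Constructors for the convex complexes `CC`: from relative interiors, and from 715's tilings.
-/

set_option autoImplicit false
set_option linter.unusedSectionVars false
set_option linter.unusedVariables false
set_option linter.deprecated false

open Set

namespace Crest.Agent.R096.Xp_537

variable {E : Type*} [NormedAddCommGroup E] [NormedSpace ℝ E]

/-- constructor of a convex complex: `seg` = the points `b q` are in the relative interior,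
`ext` = the open cells are relatively open (seen from `b q`). -/
def CC.mk' {Λ : Set E} {Q : Type*} [PartialOrder Q] (cell : Q → Set E) (b : Q → E) (dim : Q → ℕ)
    (conv : ∀ q, Convex ℝ (cell q)) (cpt : ∀ q, IsCompact (cell q)) (bmem : ∀ q, b q ∈ cell q)
    (mono : ∀ {p q}, p < q → cell p ⊆ cell q) (dim_lt : ∀ {p q}, p < q → dim p < dim q)
    (seg : ∀ {p q}, p < q → ∀ y ∈ cell q, ∀ w ∈ Ioc (0 : ℝ) 1, (1 - w) • y + w • b q ∉ cell p)
    (ext : ∀ q, ∀ z ∈ cell q, (∀ p < q, z ∉ cell p) → z ≠ b q →
      ∃ ε : ℝ, 0 < ε ∧ z + ε • (z - b q) ∈ cell q)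
    (disj : ∀ {p q : Q} {y : E}, y ∈ cell p → (∀ r < p, y ∉ cell r) → y ∈ cell q →
      (∀ r < q, y ∉ cell r) → p = q)
    (sub : ∀ q, cell q ⊆ Λ) (cover : ∀ y ∈ Λ, ∃ q, y ∈ cell q)
    (lf : ∀ y ∈ Λ, ∃ r > 0, {q | (cell q ∩ Metric.ball y r).Nonempty}.Finite) : CC Λ Q where
  cell := cell
  b := b
  dim := dim
  conv := conv
  cpt := cpt
  bmem := bmem
  mono := mono
  dim_lt := dim_lt
  b_notMem := fun {p q} h hb => by
    refine seg h (b q) (bmem q) 1 ⟨one_pos, le_rfl⟩ ?_
    rw [sub_self, zero_smul, zero_add, one_smul]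
    exact hb
  rad := fun q y hy => by
    by_cases hyb : y = b q
    · exact Or.inl hyb
    · right
      have hne : y - b q ≠ 0 := sub_ne_zero.2 hyb
      have hn : 0 < ‖y - b q‖ := norm_pos_iff.2 hne
      set T : Set ℝ := {t | 1 ≤ t ∧ b q + t • (y - b q) ∈ cell q} with hT
      have hcl : IsClosed T := by
        refine IsClosed.inter isClosed_Ici ?_
        exact (cpt q).isClosed.preimage (by fun_prop : Continuous fun t : ℝ => b q + t • (y - b q))
      obtain ⟨R, hR⟩ := (cpt q).isBounded.exists_norm_le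
      have hbd : T ⊆ Icc 1 ((R + ‖b q‖) / ‖y - b q‖) := by
        rintro t ⟨h1, h2⟩
        refine ⟨h1, ?_⟩
        rw [le_div_iff₀ hn]
        have h3 := hR _ h2
        have h4 : ‖t • (y - b q)‖ = t * ‖y - b q‖ := by
          rw [norm_smul, Real.norm_eq_abs, abs_of_pos (by linarith)]
        rw [← h4]
        calc ‖t • (y - b q)‖ = ‖(b q + t • (y - b q)) - b q‖ := by rw [add_sub_cancel_left]
          _ ≤ ‖b q + t • (y - b q)‖ + ‖b q‖ := norm_sub_le _ _
          _ ≤ R + ‖b q‖ := by linarith
      have hcpt : IsCompact T := isCompact_Icc.of_isClosed_subset hcl hbd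
      have h1T : (1 : ℝ) ∈ T := ⟨le_rfl, by rw [one_smul, add_sub_cancel]; exact hy⟩
      obtain ⟨t, ht, hmax⟩ := hcpt.exists_isGreatest ⟨1, h1T⟩
      have ht0 : 0 < t := by linarith [ht.1]
      set z := b q + t • (y - b q) with hz
      have hzb : z ≠ b q := by
        intro h
        rw [hz, add_eq_left, smul_eq_zero] at h
        rcases h with h | h
        · exact ht0.ne' h
        · exact hne h
      by_cases hlow : ∃ p < q, z ∈ cell p
      · obtain ⟨p, hp, hzp⟩ := hlow
        refine ⟨p, hp, z, hzp, 1 - t⁻¹, ⟨sub_nonneg.2 (inv_le_one_of_one_le₀ ht.1), ?_⟩, ?_⟩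
        · have := inv_pos.2 ht0; linarith
        · rw [sub_sub_cancel, hz, smul_add, smul_smul, inv_mul_cancel₀ ht0.ne', one_smul]
          module
      · push Not at hlow
        exfalso
        obtain ⟨ε, hε, hmem⟩ := ext q z ht.2 hlow hzb
        have h5 : t * (1 + ε) ∈ T := by
          refine ⟨by nlinarith [ht.1], ?_⟩
          have : b q + (t * (1 + ε)) • (y - b q) = z + ε • (z - b q) := by
            rw [hz]; module
          rw [this]; exact hmem
        have h6 := hmax h5
        nlinarith
  rad_uniq := fun {q p p' y y' w w'} hp hp' hy hy' hw hw' he => by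
    -- the common argument
    have key : ∀ (p p' : Q) (y y' : E) (w w' : ℝ), p < q → p' < q → y ∈ cell p → y' ∈ cell p' →
        w ∈ Ico (0 : ℝ) 1 → w' ∈ Ico (0 : ℝ) 1 →
        (1 - w) • y + w • b q = (1 - w') • y' + w' • b q → ¬ w < w' := by
      intro p p' y y' w w' hp hp' hy hy' hw hw' he hlt
      have h1 : 0 < 1 - w := by linarith [hw.2]
      have h2 : (1 - (w' - w) / (1 - w)) • y' + ((w' - w) / (1 - w)) • b q = y := by
        have h3 : (1 - w) • ((1 - (w' - w) / (1 - w)) • y' + ((w' - w) / (1 - w)) • b q) =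
            (1 - w) • y := by
          have e1 : (1 - w) * (1 - (w' - w) / (1 - w)) = 1 - w' := by field_simp; ring
          have e2 : (1 - w) * ((w' - w) / (1 - w)) = w' - w := by field_simp
          rw [smul_add, smul_smul, smul_smul, e1, e2]
          have e3 : (1 - w) • y = (1 - w') • y' + w' • b q - w • b q := by
            rw [← he]; abel
          rw [e3]; module
        exact smul_right_injective E h1.ne' h3
      refine seg hp y' (mono hp' hy') ((w' - w) / (1 - w)) ⟨div_pos (by linarith) h1, ?_⟩ ?_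
      · rw [div_le_one h1]; linarith [hw'.2]
      · rw [h2]; exact hy
    have h1 := key p p' y y' w w' hp hp' hy hy' hw hw' he
    have h2 := key p' p y' y w' w hp' hp hy' hy hw' hw he.symm
    have h3 : w = w' := le_antisymm (not_lt.1 h2) (not_lt.1 h1)
    subst h3
    refine ⟨?_, rfl⟩
    have h4 := add_right_cancel he
    have h5 : (1 - w) ≠ 0 := by
      have := hw.2
      intro h; linarith
    exact smul_right_injective E h5 h4
  disj := disj
  sub := sub
  cover := cover
  lf := lf

/-- **the convex complex of a tiling** (any points in the open cells as centres) -/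
noncomputable def ofTiling [FiniteDimensional ℝ E] {Om : Set E} {ι : Type*}
    (T : Msh_715.Tiling Om ι) (b : T.Cell → E) (hb : ∀ c : T.Cell, b c ∈ c.opn) : CC Om T.Cell :=
  CC.mk' (fun c => c.set) b (fun c => c.dim)
    (fun c => by
      show Convex ℝ c.set
      rw [c.set_eq]; exact T.convex_cc _)
    (fun c => by
      show IsCompact c.set
      rw [c.set_eq]; exact T.isCompact_cc c.pt_mem)
    (fun c => c.opn_sub (hb c))
    (fun {c d} h => le_of_lt h)
    (fun {c d} h => T.cplx.mono d c h)
    (fun {c d} h y hy w hw hmem => by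
      have h1 : y ∈ T.cc (b d) := by
        have h2 : T.cc (b d) = d.set := by
          rw [d.set_eq]
          exact T.cc_eq_of_mem_oc d.pt_mem (hb d)
        rw [h2]; exact hy
      have h2 := T.move_mem_oc h1 hw.1 hw.2
      have h3 : T.oc (b d) = d.opn := T.oc_eq_of_mem d.pt_mem (hb d)
      have h4 : y + w • (b d - y) = (1 - w) • y + w • b d := by module
      rw [h3, h4] at h2
      exact (T.opn_iff.2 h2).2 c h hmem)
    (fun d z hz hlow hne => by
      have h1 : z ∈ d.opn := T.opn_iff.1 ⟨hz, hlow⟩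
      have hzO : z ∈ Om := T.cplx.sub d hz
      obtain ⟨r, hr, hball⟩ := T.exists_ball_oc hzO
      have h2 : T.cc z = d.set := by
        rw [d.set_eq]
        exact T.cc_eq_of_mem_oc d.pt_mem h1
      have h3 : z - b d ∈ T.V z :=
        T.sub_mem_V' (T.self_mem_cc z) (by rw [h2]; exact d.opn_sub (hb d))
      have hn : 0 < ‖z - b d‖ := norm_pos_iff.2 (sub_ne_zero.2 hne)
      refine ⟨r / (2 * ‖z - b d‖), by positivity, ?_⟩
      have h4 := hball ((r / (2 * ‖z - b d‖)) • (z - b d)) ((T.V z).smul_mem _ h3) (by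
        rw [norm_smul, Real.norm_eq_abs, abs_of_pos (by positivity)]
        have : r / (2 * ‖z - b d‖) * ‖z - b d‖ = r / 2 := by field_simp
        rw [this]; linarith)
      show _ ∈ d.set
      rw [← h2]
      exact T.oc_sub_cc z h4)
    (fun {c d y} h1 h2 h3 h4 => T.cplx.disj c d y ⟨h1, h2⟩ ⟨h3, h4⟩)
    (fun c => T.cplx.sub c)
    (fun y hy => T.cplx.cover y hy)
    (fun y hy => T.cplx.lf y hy)

end Crest.Agent.R096.Xp_537
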