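import Crest.Agent.R096.Grd5_714
import Crest.Agent.R096.Xp7_537

/-!
# R096 (row 96), GRID, part 6 (helper714): the convex complex of the grid

`grid F hQ hm : CC La (Cel P m)`: cells `P c` (dimension 3) and the grid cells `Tq '' q.bx`
(dimension = number of free colours).
-/

set_option autoImplicit false
set_option linter.unusedSectionVars false

open Set

namespace Crest.Agent.R096.Grd_714

open Crest.Agent.R096.Brk1_582 Crest.Agent.R096.Brk2_582 Crest.Agent.R096.Brk6_582
open Crest.Agent.R096.Xp_537

variable {E : Type*} [NormedAddCommGroup E] [NormedSpace ℝ E] {I : Type*}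
variable {b : Set I → E} {P : I → Set E} {m : I → ℕ}

/-- the carriers -/
def Cel.set (b : Set I → E) : Cel P m → Set E
  | .top c => P c
  | .gr q => Tq b m '' q.bx

/-- the centres -/
noncomputable def Cel.pt (b : Set I → E) : Cel P m → E
  | .top c => b {c}
  | .gr q => Tq b m q.ctr

/-- the dimensions -/
noncomputable def Cel.dm : Cel P m → ℕ
  | .top _ => 3
  | .gr q => q.free.ncard

theorem fc_single {c : I} : fc P {c} = P c := by
  ext y; simp [fc]

variable {La : Set E} [CompleteSpace E] (F : Foam La P b 4)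
include F

/-- finitely many grid cells live on a finite set of colours -/
theorem finite_Gx {N : Set I} (hN : N.Finite) : {q : Gx P m | {c | q.lo c < m c} ⊆ N}.Finite := by
  classical
  have : Fintype N := hN.fintype
  let φ : Gx P m → (N → ℕ × ℕ) := fun q c => (q.lo c, q.hi c)
  have hT : (Set.univ.pi fun c : N => (Iic (m c) ×ˢ Iic (m c) : Set (ℕ × ℕ))).Finite :=
    Set.Finite.pi fun c => (finite_Iic _).prod (finite_Iic _)
  refine Set.Finite.of_finite_image (f := φ) (hT.subset ?_) ?_
  · rintro _ ⟨q, _, rfl⟩ c _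
    exact ⟨(q.le c).trans (q.him c), q.him c⟩
  · intro q hq q' hq' he
    have out : ∀ q : Gx P m, q ∈ {q : Gx P m | {c | q.lo c < m c} ⊆ N} → ∀ c, c ∉ N →
        q.lo c = m c ∧ q.hi c = m c := by
      intro q hq c hc
      have h1 : ¬ q.lo c < m c := fun h => hc (hq h)
      have := q.le c
      have := q.him c
      constructor <;> omega
    ext c
    · by_cases hc : c ∈ N
      · have := congrFun he ⟨c, hc⟩
        exact (Prod.ext_iff.1 this).1
      · rw [(out q hq c hc).1, (out q' hq' c hc).1]
    · by_cases hc : c ∈ N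
      · have := congrFun he ⟨c, hc⟩
        exact (Prod.ext_iff.1 this).2
      · rw [(out q hq c hc).2, (out q' hq' c hc).2]

theorem finite_Gx_of_mem (hm : ∀ c, 0 < m c) {S : Set I} (hS : S.Finite) :
    {q : Gx P m | ∃ c ∈ S, q.hi c = 0}.Finite := by
  have h : (⋃ c ∈ S, {q : Gx P m | {c' | q.lo c' < m c'} ⊆ {c' | (P c' ∩ P c).Nonempty}}).Finite :=
    hS.biUnion fun c _ => finite_Gx F (finite_touch F c)
  refine h.subset ?_
  rintro q ⟨c, hc, h0⟩
  simp only [mem_iUnion]
  refine ⟨c, hc, fun c' hc' => ?_⟩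
  obtain ⟨y, hy⟩ := q.face
  rw [mem_fc] at hy
  exact ⟨y, hy c' hc', hy c (q.Z_sub hm h0)⟩

theorem mem_top_iff {c : I} {y : E} (hy : y ∈ P c) :
    act P y = {c} ↔ ¬ ∃ c', c' ≠ c ∧ y ∈ P c' := by
  constructor
  · rintro h ⟨c', hne, hc'⟩
    have : c' ∈ act P y := hc'
    rw [h] at this
    exact hne this
  · intro h
    ext c'
    constructor
    · intro hc'
      by_contra hne
      exact h ⟨c', hne, hc'⟩
    · rintro rfl; exact hy

variable (hQ : Quads P b)
include hQ

theorem mem_P_of_gr (hm : ∀ c, 0 < m c) {q : Gx P m} {y : E} (hy : y ∈ Tq b m '' q.bx) {c : I}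
    (hc : q.hi c = 0) : y ∈ P c := by
  obtain ⟨g, hg, rfl⟩ := hy
  exact (Tq_mem_iff F hQ hm (q.bx_sub hm hg)).2 (Gx.zero_of_bx hg hc)

/-- a point of `P c` in no smaller cell lies in `P c` only -/
theorem act_of_top (hm : ∀ c, 0 < m c) {y : E} {c : I} (hy : y ∈ P c)
    (h : ∀ q : Gx P m, q.hi c = 0 → y ∉ Tq b m '' q.bx) : act P y = {c} := by
  rw [mem_top_iff F hy]
  rintro ⟨c', hne, hc'⟩
  obtain ⟨g, hg, rfl⟩ := exists_Tq F hQ hm (F.sub c hy) hne.symm hy hc'
  refine h (flb hm g hg) ?_ ⟨g, mem_flb hm hg, rfl⟩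
  rw [← Gx.zero_iff_of_obx (flb_mem_obx hm hg)]
  exact (Tq_mem_iff F hQ hm hg).1 hy

theorem act_of_gr (hm : ∀ c, 0 < m c) {q : Gx P m} {y : E} (hy : y ∈ Tq b m '' q.bx) (c : I) :
    act P y ≠ {c} := by
  intro h
  obtain ⟨c1, c2, hne, h1, h2⟩ := q.two
  have a1 : c1 ∈ act P y := mem_P_of_gr F hQ hm hy h1
  have a2 : c2 ∈ act P y := mem_P_of_gr F hQ hm hy h2
  rw [h] at a1 a2
  exact hne (a1.trans a2.symm)

/-- **the grid complex** -/
noncomputable def grid (hne : ∀ c, (P c).Nonempty) (hm : ∀ c, 0 < m c) : CC La (Cel P m) :=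
  CC.mk' (Cel.set b) (Cel.pt b) Cel.dm
    (fun q => by
      cases q with
      | top c => exact F.cvx c
      | gr q => exact (cell_spec F hQ hm q).2.2.1.conv)
    (fun q => by
      cases q with
      | top c => exact F.cpt c
      | gr q => exact (cell_spec F hQ hm q).2.2.1.cpt)
    (fun q => by
      cases q with
      | top c =>
        have h1 : b {c} ∈ fc P {c} := F.mem {c} (singleton_nonempty c) (by
          rw [fc_single]; exact hne c)
        rw [fc_single] at h1
        exact h1
      | gr q => exact ⟨q.ctr, q.ctr_mem.1, rfl⟩)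
    (fun {p q} h => by
      cases q with
      | top c =>
        cases p with
        | top c' => exact absurd h Cel.not_top_lt
        | gr p => exact fun y hy => mem_P_of_gr F hQ hm hy (Cel.gr_lt_top.1 h)
      | gr q =>
        cases p with
        | top c' => exact absurd h Cel.not_top_lt
        | gr p => exact image_mono (bx_mono (Cel.gr_lt_gr.1 h).le))
    (fun {p q} h => by
      cases q with
      | top c =>
        cases p with
        | top c' => exact absurd h Cel.not_top_lt
        | gr p => exact (p.free_card F hm).trans_lt (show 2 < 3 by norm_num)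
      | gr q =>
        cases p with
        | top c' => exact absurd h Cel.not_top_lt
        | gr p => exact ncard_lt_ncard (Gx.free_lt (Cel.gr_lt_gr.1 h)) (q.free_fin F hm))
    (fun {p q} h y hy w hw => by
      cases q with
      | top c =>
        cases p with
        | top c' => exact absurd h Cel.not_top_lt
        | gr p =>
          have hy' : y ∈ fc P {c} := by rw [fc_single]; exact hy
          have h1 := F.rel {c} (singleton_nonempty c) y hy' (1 - w)
            ⟨by linarith [hw.2], by linarith [hw.1]⟩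
          have e : b {c} + (1 - w) • (y - b {c}) = (1 - w) • y + w • b {c} := by module
          rw [e] at h1
          intro hmem
          exact act_of_gr F hQ hm hmem c h1
      | gr q =>
        cases p with
        | top c' => exact absurd h Cel.not_top_lt
        | gr p =>
          have h1 := (cell_spec F hQ hm q).2.2.1.seg y hy _ ⟨q.ctr, q.ctr_mem, rfl⟩ w hw
          exact ((mem_opn_iff F hQ hm).1 h1).2 p (Cel.gr_lt_gr.1 h))
    (fun q z hz hlow hne => by
      cases q with
      | top c =>
        have h1 : act P z = {c} := act_of_top F hQ hm hz fun q hq =>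
          hlow (.gr q) (Cel.gr_lt_top.2 hq)
        obtain ⟨t, ht, h2⟩ := F.exit z (F.sub c hz) (by rw [h1]; exact hne)
        rw [h1, fc_single] at h2
        refine ⟨t - 1, by linarith, ?_⟩
        have e : z + (t - 1) • (z - b {c}) = b {c} + t • (z - b {c}) := by module
        show z + (t - 1) • (z - b {c}) ∈ P c
        rw [e]; exact h2
      | gr q =>
        have h1 : z ∈ Tq b m '' q.obx := (mem_opn_iff F hQ hm).2
          ⟨hz, fun p hp => hlow (.gr p) (Cel.gr_lt_gr.2 hp)⟩
        exact (cell_spec F hQ hm q).2.2.1.ext z h1 _ ⟨q.ctr, q.ctr_mem.1, rfl⟩)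
    (fun {p q y} hp hpl hq hql => by
      cases p with
      | top c =>
        have h1 : act P y = {c} := act_of_top F hQ hm hp fun q hq =>
          hpl (.gr q) (Cel.gr_lt_top.2 hq)
        cases q with
        | top c' =>
          have h2 : act P y = {c'} := act_of_top F hQ hm hq fun q hq =>
            hql (.gr q) (Cel.gr_lt_top.2 hq)
          rw [h1] at h2
          rw [singleton_injective h2]
        | gr q => exact absurd h1 (act_of_gr F hQ hm hq c)
      | gr p =>
        cases q with
        | top c =>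
          have h1 : act P y = {c} := act_of_top F hQ hm hq fun q hq =>
            hql (.gr q) (Cel.gr_lt_top.2 hq)
          exact absurd h1 (act_of_gr F hQ hm hp c)
        | gr q =>
          obtain ⟨g, hg, e⟩ := (mem_opn_iff F hQ hm).2
            ⟨hp, fun r hr => hpl (.gr r) (Cel.gr_lt_gr.2 hr)⟩
          obtain ⟨g', hg', e'⟩ := (mem_opn_iff F hQ hm).2
            ⟨hq, fun r hr => hql (.gr r) (Cel.gr_lt_gr.2 hr)⟩
          have e2 := Tq_injOn F hQ hm (p.bx_sub hm hg.1) (q.bx_sub hm hg'.1) (e.trans e'.symm)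
          subst e2
          rw [← Gx.flb_of_obx hm hg, ← Gx.flb_of_obx hm hg'])
    (fun q => by
      cases q with
      | top c => exact F.sub c
      | gr q =>
        rintro _ ⟨g, hg, rfl⟩
        exact Tq_mem_La F hQ hm (q.bx_sub hm hg))
    (fun y hy => by
      obtain ⟨c, hc⟩ := F.cov y hy
      exact ⟨.top c, hc⟩)
    (fun y hy => by
      obtain ⟨r, hr, hfin⟩ := F.lf y hy
      refine ⟨r, hr, ?_⟩
      have h1 := (hfin.image (Cel.top (P := P) (m := m))).union
        ((finite_Gx_of_mem F hm hfin).image Cel.gr)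
      refine h1.subset ?_
      intro q hq
      cases q with
      | top c => exact Or.inl ⟨c, hq, rfl⟩
      | gr q =>
        right
        refine ⟨q, ?_, rfl⟩
        obtain ⟨z, hz, hzb⟩ := hq
        obtain ⟨c, c', _, h0, _⟩ := q.two
        exact ⟨c, ⟨z, mem_P_of_gr F hQ hm hz h0, hzb⟩, h0⟩)

theorem grid_cell_top (hne : ∀ c, (P c).Nonempty) (hm : ∀ c, 0 < m c) (c : I) :
    (grid F hQ hne hm).cell (.top c) = P c := rfl

theorem grid_cell_gr (hne : ∀ c, (P c).Nonempty) (hm : ∀ c, 0 < m c) (q : Gx P m) :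
    (grid F hQ hne hm).cell (.gr q) = Tq b m '' q.bx := rfl

theorem grid_b_top (hne : ∀ c, (P c).Nonempty) (hm : ∀ c, 0 < m c) (c : I) :
    (grid F hQ hne hm).b (.top c) = b {c} := rfl

theorem grid_b_gr (hne : ∀ c, (P c).Nonempty) (hm : ∀ c, 0 < m c) (q : Gx P m) :
    (grid F hQ hne hm).b (.gr q) = Tq b m q.ctr := rfl

theorem grid_dim_top (hne : ∀ c, (P c).Nonempty) (hm : ∀ c, 0 < m c) (c : I) :
    (grid F hQ hne hm).dim (.top c) = 3 := rfl

theorem grid_dim_gr (hne : ∀ c, (P c).Nonempty) (hm : ∀ c, 0 < m c) (q : Gx P m) :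
    (grid F hQ hne hm).dim (.gr q) = q.free.ncard := rfl

theorem grid_dim_le (hne : ∀ c, (P c).Nonempty) (hm : ∀ c, 0 < m c) (q : Cel P m) :
    (grid F hQ hne hm).dim q ≤ 3 := by
  cases q with
  | top c => exact le_rfl
  | gr q => exact (q.free_card F hm).trans (by norm_num)

end Crest.Agent.R096.Grd_714
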