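import Crest.Agent.R096.Grd8_714
import Crest.Agent.R096.Grd6_714
import Crest.Agent.R096.Brk5_582

/-!
# R096 (row 96), FIN-LIP (helper835), part 1: Lipschitz bound of the grid map `Tq`

`Tq_lip`: on a grid cell the map `Tq` is `D c / m c`-Lipschitz in the free coordinate `c`, where
`‖b (insert c A) - b A‖ ≤ D c` for all faces.  `Tq_lip_box`: box foams, `D c = R * size c`.
-/

set_option autoImplicit false
set_option linter.unusedSectionVars false

open Set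

namespace Crest.Agent.R096.Fl_835

open Crest.Agent.R096.Brk1_582 Crest.Agent.R096.Brk2_582 Crest.Agent.R096.Brk6_582
open Crest.Agent.R096.Grd_714 Crest.Agent.R096.Bsp_628 Crest.Agent.R096.Brk3_582
open Crest.Agent.R096.Brk5_582

variable {E : Type*} [NormedAddCommGroup E] [NormedSpace ℝ E] {I : Type*}

/-! ### the map of a height function -/

theorem nl_sub_le1 (X : Fr E) {N : ℝ × ℝ → ℝ} (A : Adm N) {D1 : ℝ} (h1 : ‖X.f2‖ ≤ D1)
    (h1' : ‖X.α • X.f1 + (1 + X.β) • X.f2‖ ≤ D1) {x x' y : ℝ} (hx : x ∈ Icc (0 : ℝ) 1)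
    (hx' : x' ∈ Icc (0 : ℝ) 1) (hy : y ∈ Icc (0 : ℝ) 1) :
    ‖X.nl N (x, y) - X.nl N (x', y)‖ ≤ D1 * |x - x'| := by
  have main : ∀ x x' : ℝ, x ∈ Icc (0 : ℝ) 1 → x' ∈ Icc (0 : ℝ) 1 → x' ≤ x →
      ‖X.nl N (x, y) - X.nl N (x', y)‖ ≤ D1 * |x - x'| := by
    intro x x' hx hx' hle
    obtain ⟨k1, k2⟩ := A.m1 x x' y hx hx' hy hle
    set ν := N (x, y) - N (x', y) with hν
    have hN : N (x, y) = N (x', y) + ν := by rw [hν]; ring
    have e : X.nl N (x, y) - X.nl N (x', y) = (x - x' - ν) • X.f2 +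
        ν • (X.α • X.f1 + (1 + X.β) • X.f2) := by
      simp only [Fr.nl, tn, Fr.pt, hN]
      module
    have hν0 : 0 ≤ ν := by rw [hν]; linarith
    rw [e, abs_of_nonneg (by linarith)]
    refine (norm_add_le _ _).trans ?_
    rw [norm_smul, norm_smul, Real.norm_eq_abs, Real.norm_eq_abs,
      abs_of_nonneg (by linarith : 0 ≤ x - x' - ν), abs_of_nonneg hν0]
    have := mul_le_mul_of_nonneg_left h1 (by linarith : 0 ≤ x - x' - ν)
    have := mul_le_mul_of_nonneg_left h1' hν0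
    linarith
  rcases le_total x' x with h | h
  · exact main x x' hx hx' h
  · rw [norm_sub_rev, abs_sub_comm]
    exact main x' x hx' hx h

theorem nl_sub_le2 (X : Fr E) {N : ℝ × ℝ → ℝ} (A : Adm N) {D2 : ℝ} (h2 : ‖X.f1‖ ≤ D2)
    (h2' : ‖(1 + X.α) • X.f1 + X.β • X.f2‖ ≤ D2) {x y y' : ℝ} (hx : x ∈ Icc (0 : ℝ) 1)
    (hy : y ∈ Icc (0 : ℝ) 1) (hy' : y' ∈ Icc (0 : ℝ) 1) :
    ‖X.nl N (x, y) - X.nl N (x, y')‖ ≤ D2 * |y - y'| := by
  have main : ∀ y y' : ℝ, y ∈ Icc (0 : ℝ) 1 → y' ∈ Icc (0 : ℝ) 1 → y' ≤ y →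
      ‖X.nl N (x, y) - X.nl N (x, y')‖ ≤ D2 * |y - y'| := by
    intro y y' hy hy' hle
    obtain ⟨k1, k2⟩ := A.m2 x y y' hx hy hy' hle
    set ν := N (x, y) - N (x, y') with hν
    have hN : N (x, y) = N (x, y') + ν := by rw [hν]; ring
    have e : X.nl N (x, y) - X.nl N (x, y') = (y - y' - ν) • X.f1 +
        ν • ((1 + X.α) • X.f1 + X.β • X.f2) := by
      simp only [Fr.nl, tn, Fr.pt, hN]
      module
    have hν0 : 0 ≤ ν := by rw [hν]; linarith
    rw [e, abs_of_nonneg (by linarith)]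
    refine (norm_add_le _ _).trans ?_
    rw [norm_smul, norm_smul, Real.norm_eq_abs, Real.norm_eq_abs,
      abs_of_nonneg (by linarith : 0 ≤ y - y' - ν), abs_of_nonneg hν0]
    have := mul_le_mul_of_nonneg_left h2 (by linarith : 0 ≤ y - y' - ν)
    have := mul_le_mul_of_nonneg_left h2' hν0
    linarith
  rcases le_total y' y with h | h
  · exact main y y' hy hy' h
  · rw [norm_sub_rev, abs_sub_comm]
    exact main y' y hy' hy h

/-- **the map of a height function is Lipschitz on the whole square** -/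
theorem nl_sub_le (X : Fr E) {N : ℝ × ℝ → ℝ} (A : Adm N) {D1 D2 : ℝ} (h1 : ‖X.f2‖ ≤ D1)
    (h1' : ‖X.α • X.f1 + (1 + X.β) • X.f2‖ ≤ D1) (h2 : ‖X.f1‖ ≤ D2)
    (h2' : ‖(1 + X.α) • X.f1 + X.β • X.f2‖ ≤ D2) {w w' : ℝ × ℝ} (hw : w ∈ Sc) (hw' : w' ∈ Sc) :
    ‖X.nl N w - X.nl N w'‖ ≤ D1 * |w.1 - w'.1| + D2 * |w.2 - w'.2| := by
  obtain ⟨x, y⟩ := w
  obtain ⟨x', y'⟩ := w'
  have k1 := nl_sub_le1 X A h1 h1' hw.1 hw'.1 hw.2
  have k2 := nl_sub_le2 X A h2 h2' hw'.1 hw.2 hw'.2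
  have k3 := norm_sub_le_norm_sub_add_norm_sub (X.nl N (x, y)) (X.nl N (x', y)) (X.nl N (x', y'))
  simp only at k1 k2 k3 ⊢
  linarith

/-! ### the map `Tq` -/

section foam

variable {La : Set E} {P : I → Set E} {b : Set I → E} {m : I → ℕ} [CompleteSpace E]

/-- bound for the steps of the base points -/
def StepLe (P : I → Set E) (b : Set I → E) (D : I → ℝ) : Prop :=
  ∀ (A : Set I) (c : I), A.Nonempty → c ∉ A → (fc P (insert c A)).Nonempty →
    ‖b (insert c A) - b A‖ ≤ D c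

/-- bound for the steps of the base points of the faces over the box `q` -/
def StepAt (b : Set I → E) (q : Gx P m) (D : I → ℝ) : Prop :=
  ∀ (A : Set I) (c : I), {c | q.hi c = 0} ⊆ A → insert c A ⊆ {c | q.lo c < m c} → c ∉ A →
    ‖b (insert c A) - b A‖ ≤ D c

omit [CompleteSpace E] in
theorem StepLe.at {D : I → ℝ} (hD : StepLe P b D) (q : Gx P m) : StepAt b q D := by
  intro A c hA hL hc
  obtain ⟨c', _, _, h, _⟩ := q.two
  exact hD A c ⟨c', hA h⟩ hc (q.face.mono (fc_anti hL))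

variable (F : Foam La P b 4) (hQ : Quads P b) {D : I → ℝ} {q : Gx P m} (hD : StepAt b q D)
include F hQ hD

/-- a box in a square of the foam -/
theorem Tq_lip_sq (hm : ∀ c, 0 < m c) {c1 c2 : I} (hne : c1 ≠ c2)
    (h1 : c1 ∈ {c | q.lo c < m c} \ {c | q.hi c = 0})
    (h2 : c2 ∈ {c | q.lo c < m c} \ {c | q.hi c = 0}) {g g' : I → ℝ} (hg : g ∈ q.bx)
    (hg' : g' ∈ q.bx) :
    ‖Tq b m g - Tq b m g'‖ ≤ D c1 / m c1 * |g c1 - g' c1| + D c2 / m c2 * |g c2 - g' c2| := by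
  have hZne : {c | q.hi c = 0}.Nonempty := by
    obtain ⟨c, c', _, h, _⟩ := q.two
    exact ⟨c, h⟩
  obtain ⟨hZ, hL, hin⟩ := sq_of F q hm hne h1 h2
  have hfc : (fc P (insert c2 (insert c1 {c | q.hi c = 0}))).Nonempty := by
    rw [← hL]; exact q.face
  have hq := hQ _ c1 c2 hZ h1.2 h2.2 hne hfc
  have p1 : (0 : ℝ) < m c1 := by exact_mod_cast hm c1
  have p2 : (0 : ℝ) < m c2 := by exact_mod_cast hm c2
  rw [Tq, Tq, Bn_fr (adm_Nm hm) (sym_Nm m) F hZne h1.2 h2.2 hne hfc hq (hin g hg),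
    Bn_fr (adm_Nm hm) (sym_Nm m) F hZne h1.2 h2.2 hne hfc hq (hin g' hg')]
  set A : Set I := {c | q.hi c = 0}
  have hcr := hq.fr_cross
  have ef2 : hq.fr.f2 = b (insert c1 A) - b A := rfl
  have ef1 : hq.fr.f1 = b (insert c2 A) - b A := rfl
  have ev1 : hq.fr.α • hq.fr.f1 + (1 + hq.fr.β) • hq.fr.f2 =
      b (insert c2 (insert c1 A)) - b (insert c2 A) := by
    rw [add_smul, one_smul, ← add_assoc, add_right_comm, hcr, ef2]; abel
  have ev2 : (1 + hq.fr.α) • hq.fr.f1 + hq.fr.β • hq.fr.f2 =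
      b (insert c2 (insert c1 A)) - b (insert c1 A) := by
    rw [add_smul, one_smul, add_assoc, hcr, ef1]; abel
  have n1 : c1 ∉ insert c2 A := by
    rw [mem_insert_iff, not_or]; exact ⟨hne, h1.2⟩
  have n2 : c2 ∉ insert c1 A := by
    rw [mem_insert_iff, not_or]; exact ⟨hne.symm, h2.2⟩
  have b1 : ‖hq.fr.f2‖ ≤ D c1 := by
    rw [ef2]
    exact hD A c1 subset_rfl (by rw [hL]; exact subset_insert _ _) h1.2
  have b1' : ‖hq.fr.α • hq.fr.f1 + (1 + hq.fr.β) • hq.fr.f2‖ ≤ D c1 := by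
    rw [ev1, insert_comm]
    exact hD (insert c2 A) c1 (subset_insert _ _) (by rw [hL, insert_comm]) n1
  have b2 : ‖hq.fr.f1‖ ≤ D c2 := by
    rw [ef1]
    exact hD A c2 subset_rfl (by rw [hL]; exact insert_subset_insert (subset_insert _ _)) h2.2
  have b2' : ‖(1 + hq.fr.α) • hq.fr.f1 + hq.fr.β • hq.fr.f2‖ ≤ D c2 := by
    rw [ev2]
    exact hD (insert c1 A) c2 (subset_insert _ _) (by rw [hL]) n2
  have hs : ∀ g ∈ q.bx, ((1 - lv m g c1, 1 - lv m g c2) : ℝ × ℝ) ∈ Sc := by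
    intro g hg
    have k1 := (hin g hg).m1
    have k2 := (hin g hg).m2
    exact ⟨⟨by simp only; linarith [k1.2], by simp only; linarith [k1.1]⟩,
      ⟨by simp only; linarith [k2.2], by simp only; linarith [k2.1]⟩⟩
  refine (nl_sub_le hq.fr (adm_Nm hm c1 c2) b1 b1' b2 b2' (hs g hg) (hs g' hg')).trans
    (le_of_eq ?_)
  simp only [lv]
  rw [show 1 - g c1 / (m c1 : ℝ) - (1 - g' c1 / m c1) = (g' c1 - g c1) / m c1 by ring,
    show 1 - g c2 / (m c2 : ℝ) - (1 - g' c2 / m c2) = (g' c2 - g c2) / m c2 by ring,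
    abs_div, abs_div, abs_of_pos p1, abs_of_pos p2, abs_sub_comm (g' c1), abs_sub_comm (g' c2)]
  ring

/-- a box in an edge of the foam -/
theorem Tq_lip_ed (hm : ∀ c, 0 < m c) {c1 : I}
    (h1 : c1 ∈ {c | q.lo c < m c} \ {c | q.hi c = 0})
    (hR : ∀ c, c ∈ {c | q.lo c < m c} \ {c | q.hi c = 0} → c = c1) {g g' : I → ℝ} (hg : g ∈ q.bx)
    (hg' : g' ∈ q.bx) :
    ‖Tq b m g - Tq b m g'‖ ≤ D c1 / m c1 * |g c1 - g' c1| := by
  have hZne : {c | q.hi c = 0}.Nonempty := by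
    obtain ⟨c, c', _, h, _⟩ := q.two
    exact ⟨c, h⟩
  have p1' : (0 : ℝ) < m c1 := by exact_mod_cast hm c1
  have hL : {c | q.lo c < m c} = insert c1 {c | q.hi c = 0} := by
    ext c
    have a2 := @Gx.Z_sub _ _ _ _ P m q hm c
    have a3 := hR c
    have a4 := h1.1
    simp only [mem_insert_iff, mem_sdiff, mem_ofPred_eq] at a2 a3 a4 ⊢
    constructor
    · intro h
      by_contra h5
      push Not at h5
      exact h5.1 (a3 ⟨h, h5.2⟩)
    · rintro (rfl | h)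
      · exact a4
      · exact a2 h
  have hfc : (fc P (insert c1 {c | q.hi c = 0})).Nonempty := by
    rw [← hL]; exact q.face
  have hB : ∀ g ∈ q.bx, Tq b m g = b {c | q.hi c = 0} + (1 - lv m g c1) •
      (b (insert c1 {c | q.hi c = 0}) - b {c | q.hi c = 0}) := by
    intro g hg
    have hoth : ∀ c, c ∉ {c | q.hi c = 0} → c ≠ c1 → lv m g c = 1 := by
      intro c hc hcc
      apply lv_one hm hg
      intro h
      have : c ∈ {c | q.lo c < m c} := h
      rw [hL] at this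
      simp only [mem_insert_iff] at this
      tauto
    have hav : (av (lv m g)).ncard ≠ 2 := by
      have : av (lv m g) ⊆ {c1} := by
        intro c hc
        by_contra hcc
        by_cases hz : q.hi c = 0
        · exact hc.1.ne' (lv_zero hg hz)
        · exact hc.2.ne (hoth c hz hcc)
      have := ncard_le_ncard this
      rw [ncard_singleton] at this
      omega
    rw [Tq, Bn_of_ncard hav, T_one F hZne hfc (fun c hc => lv_zero hg hc)
      ((q.bx_sub hm hg).1.1 c1) hoth]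
    module
  rw [hB g hg, hB g' hg']
  have e : b {c | q.hi c = 0} + (1 - lv m g c1) •
      (b (insert c1 {c | q.hi c = 0}) - b {c | q.hi c = 0}) -
      (b {c | q.hi c = 0} + (1 - lv m g' c1) •
      (b (insert c1 {c | q.hi c = 0}) - b {c | q.hi c = 0})) =
      (lv m g' c1 - lv m g c1) • (b (insert c1 {c | q.hi c = 0}) - b {c | q.hi c = 0}) := by
    module
  rw [e, norm_smul, Real.norm_eq_abs, abs_sub_comm]
  have hlv : |lv m g c1 - lv m g' c1| = |g c1 - g' c1| / m c1 := by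
    simp only [lv]
    rw [← sub_div, abs_div, abs_of_pos p1']
  rw [hlv]
  have := mul_le_mul_of_nonneg_left (hD _ c1 subset_rfl (by rw [hL]) h1.2)
    (div_nonneg (abs_nonneg (g c1 - g' c1)) p1'.le)
  refine this.trans (le_of_eq ?_)
  ring

omit F hQ hD [CompleteSpace E] in
theorem Tq_lip0 (hf : q.free = ∅) {g g' : I → ℝ}
    (hg : g ∈ q.bx) (hg' : g' ∈ q.bx) : g = g' := by
  funext c
  have hc' : c ∉ q.free := by rw [hf]; simp
  rw [Gx.eq_of_mem hc' hg, Gx.eq_of_mem hc' hg']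

/-- **(B)**: on a grid cell, local form -/
theorem Tq_lip_at (hm : ∀ c, 0 < m c) {g g' : I → ℝ} (hg : g ∈ q.bx) (hg' : g' ∈ q.bx)
    {M : ℝ} (hM0 : 0 ≤ M) (hM : ∀ c ∈ q.free, D c * |g c - g' c| ≤ M * m c) :
    ‖Tq b m g - Tq b m g'‖ ≤ 2 * M := by
  have key : ∀ c, D c / m c * |g c - g' c| ≤ M := by
    intro c
    by_cases hc : c ∈ q.free
    · have p1 : (0 : ℝ) < m c := by exact_mod_cast hm c
      have := hM c hc
      rw [div_mul_eq_mul_div, div_le_iff₀ p1]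
      exact this
    · rw [Gx.eq_of_mem hc hg, Gx.eq_of_mem hc hg', sub_self, abs_zero, mul_zero]
      exact hM0
  by_cases h0 : ∃ c1, c1 ∈ {c | q.lo c < m c} \ {c | q.hi c = 0}
  · obtain ⟨c1, h1⟩ := h0
    by_cases hR : ∃ c2, c2 ≠ c1 ∧ c2 ∈ {c | q.lo c < m c} \ {c | q.hi c = 0}
    · obtain ⟨c2, hne, h2⟩ := hR
      have := Tq_lip_sq F hQ hD hm hne.symm h1 h2 hg hg'
      linarith [key c1, key c2]
    · push Not at hR
      have := Tq_lip_ed F hQ hD hm h1 (fun c hc => by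
        by_contra h
        exact hR c h hc) hg hg'
      linarith [key c1]
  · push Not at h0
    have hf : q.free = ∅ := by
      rw [eq_empty_iff_forall_notMem]
      exact fun c hc => h0 c (q.free_sub hc)
    rw [Tq_lip0 hf hg hg', sub_self, norm_zero]
    linarith

omit hD in
/-- **(B)**: on a grid cell, general form -/
theorem Tq_lip (hD : StepLe P b D) (hm : ∀ c, 0 < m c) {g g' : I → ℝ} (hg : g ∈ q.bx)
    (hg' : g' ∈ q.bx) {M : ℝ} (hM0 : 0 ≤ M) (hM : ∀ c ∈ q.free, D c * |g c - g' c| ≤ M * m c) :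
    ‖Tq b m g - Tq b m g'‖ ≤ 2 * M :=
  Tq_lip_at F hQ (hD.at q) hm hg hg' hM0 hM

end foam

/-! ### box foams -/

section box

variable {κ : Type*} [Fintype κ] [Nonempty κ] {La : Set (κ → ℝ)} {F : Set (Bx κ)} {δ κ0 : ℝ}

/-- the steps of the base points of a box foam -/
theorem step_box (BF : BoxFoam La F δ κ0) (hLa : IsOpen La) {R : ℝ} (hcmp : Cmp F R) :
    StepLe (Pc F) (bc (F := F)) (fun c => R * c.1.sz) := by
  intro A c hA hc hfc
  have FF := foam BF hLa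
  obtain ⟨c0, hc0⟩ := hA
  have h1 : bc (insert c A) ∈ Pc F c0 :=
    mem_fc.1 (FF.mem _ (insert_nonempty _ _) hfc) c0 (mem_insert_of_mem _ hc0)
  have h1' : bc (insert c A) ∈ Pc F c :=
    mem_fc.1 (FF.mem _ (insert_nonempty _ _) hfc) c (mem_insert _ _)
  have h2 : bc A ∈ Pc F c0 :=
    mem_fc.1 (FF.mem _ ⟨c0, hc0⟩ (hfc.mono (fc_anti (subset_insert _ _)))) c0 hc0
  exact (norm_sub_le_sz (BF.pos _ c0.2) h1 h2).trans (hcmp c0 c ⟨_, h1, h1'⟩)

/-- **(B) for box foams in dimension 3** -/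
theorem Tq_lip_box (BF : BoxFoam La F δ κ0) (hLa : IsOpen La) (h3 : Fintype.card κ = 3) {R : ℝ}
    (hcmp : Cmp F R) {m : F → ℕ} (hm : ∀ c, 0 < m c) {q : Gx (Pc F) m} {g g' : F → ℝ}
    (hg : g ∈ q.bx) (hg' : g' ∈ q.bx) {M : ℝ} (hM0 : 0 ≤ M)
    (hM : ∀ c ∈ q.free, R * c.1.sz * |g c - g' c| ≤ M * m c) :
    ‖Tq (bc (F := F)) m g - Tq (bc (F := F)) m g'‖ ≤ 2 * M := by
  have FF : Foam La (Pc F) (bc (F := F)) 4 := by
    have := foam BF hLa
    rwa [h3] at this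
  exact Tq_lip FF (quads_box BF h3) (step_box BF hLa hcmp) hm hg hg' hM0 hM

end box

end Crest.Agent.R096.Fl_835
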