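import Crest.Agent.R096.Bin8_181
import Crest.Agent.R096.Fl1_835

/-!
# R096 (row 96), CORE-ST (helper476): the base point `st C κ` on a brick in level coordinates

`337 #10350 (2) (d)` with `Y = id`: on the shell `p = (1 - κ r) y + κ r b_c` (`y` in a grid cell `q` of
`bd P_c`) the base point `st C κ p` is `Tq b m` of the clamps of
`((1 - κ r) g a - κ (1 - r) ctr a) / (1 - κ)`, `g = co y`.  Consequence: Lipschitz bounds in which the
inverse of `Tq` does not occur.
-/

set_option autoImplicit false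
set_option linter.unusedSectionVars false
set_option linter.unusedVariables false

open Set Metric

namespace Crest.Agent.R096.Cst_476

open Crest.Agent.R096.Ce_537 Crest.Agent.R096.Bd_416 Crest.Agent.R096.Xp_537
open Crest.Agent.R096.Brk1_582 Crest.Agent.R096.Brk2_582 Crest.Agent.R096.Brk6_582
open Crest.Agent.R096.Grd_714 Crest.Agent.R096.Bin_181 Crest.Agent.R096.Fl_835

/-- clamp to `[lo, hi]` -/
def cl (lo hi x : ℝ) : ℝ := max lo (min hi x)

lemma cl_lip (lo hi x y : ℝ) : |cl lo hi x - cl lo hi y| ≤ |x - y| := by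
  unfold cl
  refine (abs_max_sub_max_le_max _ _ _ _).trans ?_
  rw [sub_self, abs_zero, max_eq_right (abs_nonneg _)]
  refine (abs_min_sub_min_le_max _ _ _ _).trans ?_
  rw [sub_self, abs_zero, max_eq_right (abs_nonneg _)]

lemma cl_mem {lo hi x : ℝ} (h : lo ≤ hi) : lo ≤ cl lo hi x ∧ cl lo hi x ≤ hi := by
  unfold cl
  exact ⟨le_max_left _ _, max_le h (min_le_left _ _)⟩

lemma cl_eq {lo hi x : ℝ} (h : lo ≤ x) (h' : x ≤ hi) : cl lo hi x = x := by
  unfold cl; rw [min_eq_right h', max_eq_right h]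

lemma cl_lo {lo hi x : ℝ} (h : x ≤ lo) (h' : lo ≤ hi) : cl lo hi x = lo := by
  unfold cl; rw [min_eq_right (h.trans h'), max_eq_left h]

lemma cl_hi {lo hi x : ℝ} (h : hi ≤ x) (h' : lo ≤ hi) : cl lo hi x = hi := by
  unfold cl; rw [min_eq_left h, max_eq_right h']

variable {E : Type*} [NormedAddCommGroup E] [NormedSpace ℝ E] {I : Type*}
variable {b : Set I → E} {P : I → Set E} {m : I → ℕ}

/-- **the level coordinates of the base point on the shell** -/
noncomputable def cG (q : Gx P m) (κ r : ℝ) (g : I → ℝ) (a : I) : ℝ :=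
  cl (q.lo a) (q.hi a) (((1 - κ * r) * g a - κ * (1 - r) * q.ctr a) / (1 - κ))

lemma cG_mem (q : Gx P m) (κ r : ℝ) (g : I → ℝ) : cG q κ r g ∈ q.bx := by
  intro a
  have h : (q.lo a : ℝ) ≤ q.hi a := by exact_mod_cast q.le a
  exact cl_mem h

lemma cG_lip {q : Gx P m} {κ r r' : ℝ} (hκ : 0 < κ ∧ κ < 1) (h0 : 0 ≤ r) (h1 : r ≤ 1)
    {g g' : I → ℝ} (hg' : g' ∈ q.bx) (a : I) :
    |cG q κ r g a - cG q κ r' g' a| ≤ (|g a - g' a| + κ / 2 * |r - r'|) / (1 - κ) := by
  have hd : 0 < 1 - κ := by linarith [hκ.2]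
  refine (cl_lip _ _ _ _).trans ?_
  have h2 := hg' a
  have e : q.ctr a = ((q.lo a : ℝ) + q.hi a) / 2 := rfl
  have h3 : (q.hi a : ℝ) ≤ q.lo a + 1 := by exact_mod_cast q.le1 a
  have h4 : |g' a - q.ctr a| ≤ 1 / 2 := by
    rw [e, abs_le]; constructor <;> linarith [h2.1, h2.2]
  rw [← sub_div, abs_div, abs_of_pos hd]
  refine div_le_div_of_nonneg_right ?_ hd.le
  have e2 : (1 - κ * r) * g a - κ * (1 - r) * q.ctr a -
      ((1 - κ * r') * g' a - κ * (1 - r') * q.ctr a) =
      (1 - κ * r) * (g a - g' a) + κ * (r' - r) * (g' a - q.ctr a) := by ring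
  rw [e2]
  refine (abs_add_le _ _).trans (add_le_add ?_ ?_)
  · rw [abs_mul]
    have h5 : |1 - κ * r| ≤ 1 := by
      rw [abs_le]; constructor <;> nlinarith [hκ.1, hκ.2, mul_nonneg hκ.1.le h0]
    exact mul_le_of_le_one_left (abs_nonneg _) h5
  · rw [abs_mul, abs_mul, abs_of_pos hκ.1, abs_sub_comm r' r]
    have h5 : 0 ≤ κ * |r - r'| := mul_nonneg hκ.1.le (abs_nonneg _)
    calc κ * |r - r'| * |g' a - q.ctr a| ≤ κ * |r - r'| * (1 / 2) :=
        mul_le_mul_of_nonneg_left h4 h5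
      _ = κ / 2 * |r - r'| := by ring

/-- the state of a point of the shell -/
noncomputable def lc (c : I) (r : ℝ) (l : Cel P m →₀ ℝ) : Cel P m →₀ ℝ :=
  Finsupp.single (.top c) r + (1 - r) • l

open Classical in
lemma lc_val (c : I) (r : ℝ) (l' : Cel P m →₀ ℝ) (ρ : Cel P m) :
    lc c r l' ρ = (if ρ = .top c then r else 0) + (1 - r) * l' ρ := by
  show (Finsupp.single (.top c) r : Cel P m →₀ ℝ) ρ + (1 - r) * l' ρ = _
  rw [Finsupp.single_apply]
  simp only [eq_comm]

open Classical in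
lemma lc_sup (c : I) (r : ℝ) (l' : Cel P m →₀ ℝ) :
    (lc c r l').support ⊆ insert (.top c) l'.support := by
  intro ρ hρ
  rw [Finset.mem_insert]
  by_contra hcon
  push Not at hcon
  rw [Finsupp.mem_support_iff] at hρ
  apply hρ
  rw [lc_val, if_neg hcon.1, Finsupp.notMem_support_iff.1 hcon.2]
  ring

lemma lc_sum {c : I} {l' : Cel P m →₀ ℝ} (hl0 : l' (.top c) = 0) (r : ℝ) {V : Type*}
    [AddCommGroup V] [Module ℝ V] (w : Cel P m → V) :
    ∑ ρ ∈ (lc c r l').support, lc c r l' ρ • w ρ =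
      r • w (.top c) + (1 - r) • ∑ ρ ∈ l'.support, l' ρ • w ρ := by
  classical
  have e1 : ∑ ρ ∈ (lc c r l').support, lc c r l' ρ • w ρ =
      ∑ ρ ∈ insert (.top c) l'.support, lc c r l' ρ • w ρ := by
    refine Finset.sum_subset (lc_sup c r l') fun ρ _ h => ?_
    rw [Finsupp.notMem_support_iff.1 h, zero_smul]
  have hnot : (.top c : Cel P m) ∉ l'.support := by
    rw [Finsupp.notMem_support_iff]; exact hl0
  rw [e1, Finset.sum_insert hnot, lc_val, if_pos rfl, hl0, mul_zero, add_zero, Finset.smul_sum]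
  congr 1
  refine Finset.sum_congr rfl fun ρ hρ => ?_
  have hne' : ρ ≠ .top c := by rintro rfl; exact hnot hρ
  rw [lc_val, if_neg hne', zero_add, mul_smul]

section foam

variable {La : Set E} [CompleteSpace E] (F : Foam La P b 4) (hQ : Quads P b)
  (hne : ∀ c, (P c).Nonempty) (hm : ∀ c, 0 < m c)
variable {κ : ℝ} (hκ : 0 < κ ∧ κ < 1)

include hκ in
/-- **(a)**: on a grid cell the base point is a product of one dimensional clamps -/
theorem co_st {q : Gx P m} {y : E} (hy : y ∈ (grid F hQ hne hm).cell (.gr q)) (a : I) :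
    co P b m (st (grid F hQ hne hm) κ y) a =
      cl (q.lo a) (q.hi a) ((co P b m y a - κ * q.ctr a) / (1 - κ)) := by
  have hd : 0 < 1 - κ := by linarith [hκ.2]
  have hle : (q.lo a : ℝ) ≤ q.hi a := by exact_mod_cast q.le a
  have e : q.ctr a = ((q.lo a : ℝ) + q.hi a) / 2 := rfl
  by_cases hB : y ∈ (ek (grid F hQ hne hm) b κ (.gr q)).B a
  · obtain ⟨h1, h2, h3⟩ := clampA F hQ hne hm hκ (.gr q) hy hB
    have h4 : (q.hi a : ℝ) = q.lo a + 1 := by exact_mod_cast Gx.hi_eq h1
    have e2 : (co P b m y a - κ * q.ctr a) / (1 - κ) = co P b m (st (grid F hQ hne hm) κ y) a := by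
      rw [div_eq_iff hd.ne', h3, e, h4]; ring
    rw [e2, cl_eq h2.1 (by rw [h4]; exact h2.2)]
  · obtain ⟨k, k1, k2, k3, k4⟩ := clampB F hQ hne hm hκ (.gr q) hy hB
    rw [k3]
    by_cases hf : a ∈ q.free
    · have h4 : (q.hi a : ℝ) = q.lo a + 1 := by exact_mod_cast Gx.hi_eq hf
      have h5 := Gx.hi_eq hf
      rw [abs_lt] at k4
      have h6 : k = q.lo a ∨ k = q.hi a := by omega
      rcases h6 with h6 | h6
      · rw [h6] at k4 ⊢
        rw [cl_lo _ hle]
        rw [div_le_iff₀ hd, e, h4]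
        nlinarith [k4.2]
      · rw [h6] at k4 ⊢
        rw [cl_hi _ hle]
        rw [le_div_iff₀ hd, e, h4]
        nlinarith [k4.1, h4]
    · have h5 := Gx.lo_eq hf
      have h6 : k = q.lo a := by omega
      have h7 : (q.hi a : ℝ) = q.lo a := by exact_mod_cast h5.symm
      rw [h6, h7]
      exact (le_antisymm (cl_mem le_rfl).2 (cl_mem le_rfl).1).symm

include hκ in
/-- **(d)**: the base point on the shell of the brick `c` -/
theorem core_st {c : I} {q : Gx P m} (hq : q.hi c = 0) {y : E}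
    (hy : y ∈ (grid F hQ hne hm).cell (.gr q)) {r : ℝ} (h0 : 0 ≤ r) (h1 : r < 1) :
    (1 - κ * r) • y + (κ * r) • b {c} ∈ (grid F hQ hne hm).cell (.top c) ∧
    sl (grid F hQ hne hm) κ ((1 - κ * r) • y + (κ * r) • b {c}) (.top c) = r ∧
    co P b m (st (grid F hQ hne hm) κ ((1 - κ * r) • y + (κ * r) • b {c})) =
      cG q κ r (co P b m y) ∧
    st (grid F hQ hne hm) κ ((1 - κ * r) • y + (κ * r) • b {c}) =
      Tq b m (cG q κ r (co P b m y)) := by
  classical
  have hκr : κ * r < 1 := by nlinarith [hκ.1, hκ.2]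
  have hd : 0 < 1 - κ * r := by linarith
  have hd1 : 0 < 1 - κ := by linarith [hκ.2]
  set κ' : ℝ := κ * (1 - r) / (1 - κ * r) with hκ'
  have hκp : 0 < κ' ∧ κ' < 1 := by
    constructor
    · exact div_pos (mul_pos hκ.1 (by linarith)) hd
    · rw [hκ', div_lt_one hd]; nlinarith [hκ.2]
  have k1 : (1 - κ * r) * κ' = κ * (1 - r) := by
    rw [hκ', mul_div_cancel₀ _ hd.ne']
  have k2 : (1 - κ * r) * (1 - κ') = 1 - κ := by
    rw [mul_sub, k1]; ring
  obtain ⟨s1, s2, s3⟩ := st_spec (grid F hQ hne hm) hκp hy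
  set l' := sl (grid F hQ hne hm) κ' y with hl'
  set t := st (grid F hQ hne hm) κ' y with ht
  have htop : ∀ ρ ∈ l'.support, ρ ≤ (.top c : Cel P m) := fun ρ hρ =>
    (s3 ρ hρ).trans (Cel.gr_le_top.2 hq)
  have hl0 : l' (.top c) = 0 := by
    by_contra h
    exact Cel.top_le_gr (s3 _ (Finsupp.mem_support_iff.2 h))
  obtain ⟨ρ0, hρ0, -⟩ := s1.exists_top
  have htc : t ∈ (grid F hQ hne hm).cell (.top c) :=
    (grid F hQ hne hm).mono_le (htop ρ0 hρ0) (s1.mem _ hρ0)
  have hsup := lc_sup c r l'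
  have hval := lc_val c r l'
  have hsum : ∑ ρ ∈ (lc c r l').support, lc c r l' ρ = 1 := by
    have h := lc_sum (c := c) hl0 r (fun _ => (1 : ℝ))
    simp only [smul_eq_mul, mul_one] at h
    rw [h, s1.sum]; ring
  have hst : State (grid F hQ hne hm) (lc c r l') t := by
    refine ⟨fun ρ => ?_, ?_, ?_, ?_⟩
    · rw [hval]
      have := s1.nn ρ
      split_ifs
      · have := mul_nonneg (sub_nonneg.2 h1.le) this; linarith
      · have := mul_nonneg (sub_nonneg.2 h1.le) this; linarith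
    · exact hsum
    · intro ρ hρ σ hσ
      have e1 := hsup hρ
      have e2 := hsup hσ
      rw [Finset.mem_insert] at e1 e2
      rcases e1 with rfl | e1
      · rcases e2 with rfl | e2
        · exact Or.inl le_rfl
        · exact Or.inr (htop _ e2)
      · rcases e2 with rfl | e2
        · exact Or.inl (htop _ e1)
        · exact s1.chain _ e1 _ e2
    · intro ρ hρ
      have e1 := hsup hρ
      rw [Finset.mem_insert] at e1
      rcases e1 with rfl | e1
      · exact htc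
      · exact s1.mem _ e1
  have hle : ∀ ρ ∈ (lc c r l').support, ρ ≤ (.top c : Cel P m) := by
    intro ρ hρ
    have e1 := hsup hρ
    rw [Finset.mem_insert] at e1
    rcases e1 with rfl | e1
    · exact le_rfl
    · exact htop _ e1
  have hpk : pk (grid F hQ hne hm) κ (lc c r l') t = (1 - κ * r) • y + (κ * r) • b {c} := by
    have e1 : bs (grid F hQ hne hm).b (lc c r l') =
        r • b {c} + (1 - r) • bs (grid F hQ hne hm).b l' := by
      unfold bs
      exact lc_sum (c := c) hl0 r _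
    unfold pk
    rw [e1, ← s2]
    unfold pk
    have e2 : (1 - κ * r) • ((1 - κ') • t + κ' • bs (grid F hQ hne hm).b l') =
        (1 - κ) • t + (κ * (1 - r)) • bs (grid F hQ hne hm).b l' := by
      rw [smul_add, smul_smul, smul_smul, k1, k2]
    rw [e2]
    module
  rw [← hpk]
  have hct : co P b m t = cG q κ r (co P b m y) := by
    funext a
    rw [ht, co_st F hQ hne hm hκp hy a]
    unfold cG
    congr 1
    rw [div_eq_div_iff (by linarith [hκp.2]) hd1.ne']
    have k3 : κ * (1 - r) = (1 - κ * r) * κ' := k1.symm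
    rw [k3, ← k2]
    ring
  refine ⟨pk_mem _ hκ hst hle, ?_, ?_, ?_⟩
  · rw [sl_pk _ hκ hst, hval, if_pos rfl, hl0]; ring
  · rw [st_pk _ hκ hst]; exact hct
  · rw [st_pk _ hκ hst, ← hct]
    exact (Tq_co_of_mem F hQ hm (st_mem _ hκp hy)).symm

include hκ in
/-- the inner copy -/
theorem core_in {c : I} {u : E} (hu : u ∈ P c) :
    st (grid F hQ hne hm) κ ((1 - κ) • u + κ • b {c}) = u ∧
    sl (grid F hQ hne hm) κ ((1 - κ) • u + κ • b {c}) = Finsupp.single (.top c) 1 := by
  classical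
  have hs : (Finsupp.single (.top c) 1 : Cel P m →₀ ℝ).support = {.top c} :=
    Finsupp.support_single _ one_ne_zero
  have hst : State (grid F hQ hne hm) (Finsupp.single (.top c) 1) u := by
    refine ⟨fun ρ => ?_, ?_, ?_, ?_⟩
    · rw [Finsupp.single_apply]; split_ifs <;> norm_num
    · rw [hs, Finset.sum_singleton, Finsupp.single_eq_same]
    · intro ρ hρ σ hσ
      rw [hs, Finset.mem_singleton] at hρ hσ
      rw [hρ, hσ]; exact Or.inl le_rfl
    · intro ρ hρ
      rw [hs, Finset.mem_singleton] at hρ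
      rw [hρ]; exact hu
  have hpk : pk (grid F hQ hne hm) κ (Finsupp.single (.top c) 1) u = (1 - κ) • u + κ • b {c} := by
    unfold pk bs
    rw [hs, Finset.sum_singleton, Finsupp.single_eq_same, one_smul]; rfl
  rw [← hpk]
  exact ⟨st_pk _ hκ hst, sl_pk _ hκ hst⟩

include hκ in
/-- **(d) for `r ≤ 1`** -/
theorem core_st' {c : I} {q : Gx P m} (hq : q.hi c = 0) {y : E}
    (hy : y ∈ (grid F hQ hne hm).cell (.gr q)) {r : ℝ} (h0 : 0 ≤ r) (h1 : r ≤ 1) :
    st (grid F hQ hne hm) κ ((1 - κ * r) • y + (κ * r) • b {c}) =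
      Tq b m (cG q κ r (co P b m y)) := by
  rcases h1.lt_or_eq with h1 | rfl
  · exact (core_st F hQ hne hm hκ hq hy h0 h1).2.2.2
  · have hyc : y ∈ P c := (grid F hQ hne hm).mono_le
      (p := .gr q) (q := .top c) (Cel.gr_le_top.2 hq) hy
    rw [mul_one, (core_in F hQ hne hm hκ hyc).1]
    have e : cG q κ 1 (co P b m y) = co P b m y := by
      funext a
      unfold cG
      have hd : (1 : ℝ) - κ ≠ 0 := by linarith [hκ.2]
      have h2 := co_mem F hQ hm hy a
      rw [mul_one, sub_self, mul_zero, zero_mul, sub_zero, mul_div_cancel_left₀ _ hd,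
        cl_eq h2.1 h2.2]
    rw [e]
    exact (Tq_co_of_mem F hQ hm hy).symm

include hκ in
/-- **Lipschitz bound on the shell over a grid cell**: no inverse of `Tq`, no fatness. -/
theorem core_st_lip {D : I → ℝ} (hD : StepLe P b D) {c : I} {q : Gx P m} (hq : q.hi c = 0)
    {y y' : E} (hy : y ∈ (grid F hQ hne hm).cell (.gr q))
    (hy' : y' ∈ (grid F hQ hne hm).cell (.gr q)) {r r' : ℝ} (h0 : 0 ≤ r) (h1 : r ≤ 1)
    (h0' : 0 ≤ r') (h1' : r' ≤ 1) {M : ℝ} (hM0 : 0 ≤ M)
    (hM : ∀ a ∈ q.free, 0 ≤ D a ∧ D a * (|co P b m y a - co P b m y' a| + κ / 2 * |r - r'|) ≤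
      (1 - κ) * M * m a) :
    ‖st (grid F hQ hne hm) κ ((1 - κ * r) • y + (κ * r) • b {c}) -
      st (grid F hQ hne hm) κ ((1 - κ * r') • y' + (κ * r') • b {c})‖ ≤ 2 * M := by
  have hd : 0 < 1 - κ := by linarith [hκ.2]
  rw [core_st' F hQ hne hm hκ hq hy h0 h1, core_st' F hQ hne hm hκ hq hy' h0' h1']
  refine Tq_lip F hQ hD hm (cG_mem _ _ _ _) (cG_mem _ _ _ _) hM0 fun a ha => ?_
  obtain ⟨k0, k1⟩ := hM a ha
  have k2 := cG_lip (r' := r') hκ h0 h1 (g := co P b m y) (co_mem F hQ hm hy') a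
  calc D a * |cG q κ r (co P b m y) a - cG q κ r' (co P b m y') a|
      ≤ D a * ((|co P b m y a - co P b m y' a| + κ / 2 * |r - r'|) / (1 - κ)) :=
        mul_le_mul_of_nonneg_left k2 k0
    _ = D a * (|co P b m y a - co P b m y' a| + κ / 2 * |r - r'|) / (1 - κ) := by ring
    _ ≤ M * m a := by
        rw [div_le_iff₀ hd]; linarith

end foam

end Crest.Agent.R096.Cst_476
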