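import Crest.Agent.R096.Xq1_537

/-!
# R096 (row 96), EXPLODE, part q4 (helper537): LIP-ST

The Lipschitz constant of the base point `st C κ` on a cell `q` is at most
`(1 + S) ^ dim q / (1 - κ)` where `S` bounds diameter / (relative inradius at the barycentre) of the
cells `≤ q`: uniform in the number of cells.
-/

set_option autoImplicit false
set_option linter.unusedSectionVars false
set_option linter.unusedVariables false
set_option linter.deprecated false

open Set Filter Topology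
open scoped NNReal

namespace Crest.Agent.R096.Xp_537

open Crest.Agent.R096.Ce_537 (PLOn PLEquiv cube sph IsBall LocPL)
open Crest.Agent.R096.Bd_416

variable {E : Type*} [NormedAddCommGroup E] [NormedSpace ℝ E]
variable {Q : Type*} [PartialOrder Q] {Λ : Set E}

/-- relative ball of radius `r` about the barycentre -/
def Fat (C : CC Λ Q) (q : Q) (r : ℝ) : Prop :=
  ∀ u ∈ C.cell q, ∀ u' ∈ C.cell q, u ≠ u' → C.b q + (r / ‖u - u'‖) • (u - u') ∈ C.cell q

lemma fat_of_span {C : CC Λ Q} {q : Q} {r : ℝ} (hr : 0 ≤ r)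
    (h : ∀ v ∈ vectorSpan ℝ (C.cell q), ‖v‖ ≤ r → C.b q + v ∈ C.cell q) : Fat C q r := by
  intro u hu u' hu' hne
  have h1 : 0 < ‖u - u'‖ := norm_pos_iff.2 (sub_ne_zero.2 hne)
  refine h _ (Submodule.smul_mem _ _ (vsub_mem_vectorSpan ℝ hu hu')) ?_
  rw [norm_smul, Real.norm_eq_abs, abs_of_nonneg (by positivity), div_mul_cancel₀ _ h1.ne']

variable {C : CC Λ Q} {κ : ℝ}

/-- the part of the point off `b q` -/
lemma pk_split (hκ : 0 < κ ∧ κ < 1) {q : Q} {l : Q →₀ ℝ} {t : E} (h : St C 1 q l t) :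
    ∃ u ∈ C.cell q, pk C κ l t = (κ * l q) • C.b q + (1 - κ * l q) • u := by
  classical
  have hlq1 : l q ≤ 1 := by
    by_cases hq : q ∈ l.support
    · rw [← h.sum]; exact Finset.single_le_sum (fun ρ _ => h.nn ρ) hq
    · rw [Finsupp.notMem_support_iff.1 hq]; exact zero_le_one
  have hlq0 := h.nn q
  have ht : t ∈ C.cell q := by
    obtain ⟨p, hp, hpq, -⟩ := h.exists_top one_pos
    exact C.mono_le hpq (h.mem p hp)
  have hd : 0 < 1 - κ * l q := by nlinarith [hκ.1, hκ.2]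
  rcases hlq1.eq_or_lt with h1 | h1
  · refine ⟨t, ht, ?_⟩
    have hqm : q ∈ l.support := by rw [Finsupp.mem_support_iff, h1]; exact one_ne_zero
    have hl : l = Finsupp.single q 1 := by
      obtain ⟨-, d2⟩ := dec0 h hqm
      rcases d2 with e | ⟨e, -⟩
      · exact e
      · rw [h1] at e; exact absurd e (lt_irrefl _)
    rw [hl]
    simp only [pk, Finsupp.single_eq_same, mul_one]
    rw [bs_single C.b one_pos, one_smul]
    abel
  · -- mass 1 - l q elsewhere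
    set l' : Q →₀ ℝ := (1 - l q)⁻¹ • l.erase q with hl'
    have h2 : 0 < 1 - l q := by linarith
    have hs : l'.support = l.support.erase q := by
      rw [hl', Finsupp.support_smul_eq (inv_ne_zero h2.ne'), Finsupp.support_erase]
    have hv : ∀ ρ, ρ ≠ q → l' ρ = (1 - l q)⁻¹ * l ρ := fun ρ hρ => by
      rw [hl', Finsupp.smul_apply, Finsupp.erase_ne hρ, smul_eq_mul]
    have hsum : ∑ ρ ∈ l.support.erase q, l ρ = 1 - l q := by
      by_cases hqm : q ∈ l.support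
      · have := Finset.sum_erase_add l.support (fun ρ => l ρ) hqm
        rw [h.sum] at this; linarith
      · rw [Finset.erase_eq_of_notMem hqm, h.sum, Finsupp.notMem_support_iff.1 hqm]; ring
    have hw : Wt l' := by
      refine ⟨fun ρ => ?_, ?_, ?_⟩
      · by_cases hρ : ρ = q
        · subst hρ; rw [hl', Finsupp.smul_apply, Finsupp.erase_same, smul_zero]
        · rw [hv ρ hρ]; exact mul_nonneg (inv_nonneg.2 h2.le) (h.nn ρ)
      · rw [hs]
        have e1 : ∑ ρ ∈ l.support.erase q, l' ρ = ∑ ρ ∈ l.support.erase q, (1 - l q)⁻¹ * l ρ :=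
          Finset.sum_congr rfl (fun ρ hρ => hv ρ (Finset.ne_of_mem_erase hρ))
        rw [e1, ← Finset.mul_sum, hsum, inv_mul_cancel₀ h2.ne']
      · rw [hs]
        intro ρ hρ σ hσ
        exact h.chain ρ (Finset.mem_of_mem_erase hρ) σ (Finset.mem_of_mem_erase hσ)
    have hb : bs C.b l' ∈ C.cell q := bs_mem C hw (fun ρ hρ => by
      rw [hs] at hρ; exact h.le ρ (Finset.mem_of_mem_erase hρ))
    have hbs : bs C.b l = (1 - l q) • bs C.b l' + l q • C.b q := by
      have e1 : (1 - l q) • bs C.b l' = ∑ ρ ∈ l.support.erase q, l ρ • C.b ρ := by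
        unfold bs
        rw [hs, Finset.smul_sum]
        refine Finset.sum_congr rfl (fun ρ hρ => ?_)
        rw [hv ρ (Finset.ne_of_mem_erase hρ), smul_smul, ← mul_assoc, mul_inv_cancel₀ h2.ne',
          one_mul]
      rw [e1]
      unfold bs
      by_cases hqm : q ∈ l.support
      · exact (Finset.sum_erase_add _ _ hqm).symm
      · rw [Finset.erase_eq_of_notMem hqm, Finsupp.notMem_support_iff.1 hqm, zero_smul, add_zero]
    have hne := hd.ne'
    refine ⟨((1 - κ) / (1 - κ * l q)) • t + (κ * (1 - l q) / (1 - κ * l q)) • bs C.b l', ?_, ?_⟩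
    · refine C.conv q ht hb (div_nonneg (by linarith [hκ.2]) hd.le)
        (div_nonneg (mul_nonneg hκ.1.le h2.le) hd.le) ?_
      rw [← add_div, div_eq_one_iff_eq hne]
      ring
    · have e5 : (1 - κ * l q) • (((1 - κ) / (1 - κ * l q)) • t +
          (κ * (1 - l q) / (1 - κ * l q)) • bs C.b l') =
          (1 - κ) • t + (κ * (1 - l q)) • bs C.b l' := by
        rw [smul_add, smul_smul, smul_smul, mul_div_cancel₀ _ hne, mul_div_cancel₀ _ hne]
      unfold pk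
      rw [e5, hbs]
      module

/-- the weight at `q` dominates any radial weight -/
lemma pk_ge (hκ : 0 < κ ∧ κ < 1) {q : Q} {l : Q →₀ ℝ} {t : E} (h : St C 1 q l t) {w : ℝ}
    (hw0 : 0 ≤ w) (hwκ : w ≤ κ) {u : E} (hu : u ∈ C.cell q)
    (he : pk C κ l t = w • C.b q + (1 - w) • u) : w ≤ κ * l q := by
  classical
  by_cases h1 : l q = 1
  · rw [h1]; linarith
  have hw1 : w < 1 := by linarith [hκ.2]
  -- the point is radial over a proper face
  have key : ∃ r < q, ∃ y1 ∈ C.cell r, ∃ v ∈ Ico (0 : ℝ) 1, v = κ * l q ∧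
      pk C κ l t = (1 - v) • y1 + v • C.b q := by
    by_cases hq : q ∈ l.support
    · have hA : Adm (mm C) 1 (fun _ => (0 : E)) 0 := Adm.base
      obtain ⟨d1, d2⟩ := dec (mm_MM C) (κ := fun _ => κ) (fun _ => hκ) one_pos hA h hq
      rcases d2 with e | ⟨e1, r, hr, hrs, hst, y1, hy1, hyo, e2, e3⟩
      · exfalso; apply h1; rw [e]; simp
      · refine ⟨r, hr, y1, hy1, κ * l q, ⟨mul_nonneg hκ.1.le (h.nn q), by nlinarith [hκ.1, hκ.2]⟩,
          rfl, ?_⟩
        rw [gg_const C κ h.state] at e3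
        simp only [add_zero] at e3
        rw [e3]
    · obtain ⟨r, hr, hrq, hst⟩ := h.exists_top one_pos
      have hlt : r < q := lt_of_le_of_ne hrq (by rintro rfl; exact hq hr)
      refine ⟨r, hlt, pk C κ l t, pk_mem C hκ h.state hst.le, 0, ⟨le_rfl, one_pos⟩, ?_, by simp⟩
      rw [Finsupp.notMem_support_iff.1 hq, mul_zero]
  obtain ⟨r, hr, y1, hy1, v, hv, hve, he1⟩ := key
  rw [← hve]
  rcases C.rad q u hu with rfl | ⟨r', hr', u', hu', v', hv', rfl⟩
  · exfalso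
    have h2 : pk C κ l t = C.b q := by rw [he, ← add_smul]; simp
    rw [h2] at he1
    have h3 : (1 - v) • (C.b q - y1) = 0 := by
      have : (1 - v) • (C.b q - y1) = C.b q - ((1 - v) • y1 + v • C.b q) := by module
      rw [this, ← he1, sub_self]
    have h4 : C.b q = y1 := sub_eq_zero.1 ((smul_eq_zero.1 h3).resolve_left (by linarith [hv.2]))
    exact C.b_notMem hr (h4 ▸ hy1)
  · have h2 : (1 - (w + (1 - w) * v')) • u' + (w + (1 - w) * v') • C.b q =
        (1 - v) • y1 + v • C.b q := by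
      rw [← he1, he]; module
    have h3 : 0 ≤ w + (1 - w) * v' := by nlinarith [hv'.1]
    have h4 : w + (1 - w) * v' < 1 := by nlinarith [hv'.2]
    have h5 := (C.rad_uniq hr' hr hu' hy1 ⟨h3, h4⟩ hv h2).2
    nlinarith [hv'.1]

/-- **the top weight is Lipschitz** -/
lemma top_lip (hκ : 0 < κ ∧ κ < 1) {q : Q} {r : ℝ} (hr : 0 < r) (hF : Fat C q r)
    {l l' : Q →₀ ℝ} {t t' : E} (h : St C 1 q l t) (h' : St C 1 q l' t') :
    κ * l q - κ * l' q ≤ ‖pk C κ l t - pk C κ l' t'‖ / r := by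
  set y := pk C κ l t with hy
  set y' := pk C κ l' t' with hy'
  obtain ⟨u, hu, he⟩ := pk_split hκ h
  by_cases hyy : y = y'
  · have h1 : l = l' := (pk_inj C hκ h.state h'.state hyy).1
    rw [h1, hyy]; simp
  set δ : ℝ := ‖y - y'‖ with hδ
  have hδ0 : 0 < δ := norm_pos_iff.2 (sub_ne_zero.2 hyy)
  set w : ℝ := κ * l q with hw
  have hlq1 : l q ≤ 1 := by
    by_cases hq : q ∈ l.support
    · rw [← h.sum]; exact Finset.single_le_sum (fun ρ _ => h.nn ρ) hq
    · rw [Finsupp.notMem_support_iff.1 hq]; exact zero_le_one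
  have hwκ : w ≤ κ := by rw [hw]; nlinarith [hκ.1]
  have hw0 : 0 ≤ w := mul_nonneg hκ.1.le (h.nn q)
  rcases le_or_gt w (δ / r) with hc | hc
  · have := mul_nonneg hκ.1.le (h'.nn q)
    linarith
  have hyc : y ∈ C.cell q := pk_mem C hκ h.state h.le
  have hyc' : y' ∈ C.cell q := pk_mem C hκ h'.state h'.le
  have hb := hF y' hyc' y hyc (Ne.symm hyy)
  rw [norm_sub_rev, ← hδ] at hb
  set z : E := C.b q + (r / δ) • (y' - y) with hz
  have hdr : 0 < δ / r := div_pos hδ0 hr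
  have hw1 : w < 1 := by linarith [hκ.2]
  have hden : 0 < 1 - (w - δ / r) := by linarith
  have e1 : y' = (w - δ / r) • C.b q + (1 - (w - δ / r)) •
      (((δ / r) / (1 - (w - δ / r))) • z + ((1 - w) / (1 - (w - δ / r))) • u) := by
    rw [smul_add, smul_smul, smul_smul, mul_div_cancel₀ _ hden.ne', mul_div_cancel₀ _ hden.ne',
      hz, smul_add, smul_smul]
    have e2 : δ / r * (r / δ) = 1 := by field_simp
    rw [e2, one_smul]
    have e3 : y = w • C.b q + (1 - w) • u := he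
    have e4 : (w - δ / r) • C.b q + ((δ / r) • C.b q + (y' - y) + (1 - w) • u) =
        (w • C.b q + (1 - w) • u) + (y' - y) := by module
    rw [e4, ← e3]
    abel
  have hmem : ((δ / r) / (1 - (w - δ / r))) • z + ((1 - w) / (1 - (w - δ / r))) • u ∈
      C.cell q := by
    refine C.conv q hb hu (by positivity) (div_nonneg (by linarith) hden.le) ?_
    rw [← add_div, div_eq_one_iff_eq hden.ne']
    ring
  have h2 := pk_ge hκ h' (by linarith) (by linarith) hmem e1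
  linarith

lemma top_lip' (hκ : 0 < κ ∧ κ < 1) {q : Q} {r : ℝ} (hr : 0 < r) (hF : Fat C q r)
    {l l' : Q →₀ ℝ} {t t' : E} (h : St C 1 q l t) (h' : St C 1 q l' t') :
    |κ * l q - κ * l' q| ≤ ‖pk C κ l t - pk C κ l' t'‖ / r := by
  rw [abs_le]
  constructor
  · have := top_lip hκ hr hF h' h
    rw [norm_sub_rev] at this
    linarith
  · exact top_lip hκ hr hF h h'

open Classical in
/-- moving the mass of `q` to `p` -/
noncomputable def shift (q p : Q) (l : Q →₀ ℝ) : Q →₀ ℝ := l.erase q + Finsupp.single p (l q)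

open Classical in
lemma shift_spec {γ : Finset Q} {q p : Q} (hqγ : q ∉ γ) (hp : p ∈ γ) (hlt : p < q)
    (hch : ∀ ρ ∈ insert q γ, ∀ σ ∈ insert q γ, ρ ≤ σ ∨ σ ≤ ρ) (hle : ∀ ρ ∈ γ, ρ ≤ p)
    {l : Q →₀ ℝ} {t : E} (h : State C l t) (hs : l.support ⊆ insert q γ)
    (ht : ∀ ρ ∈ insert q γ, t ∈ C.cell ρ) :
    State C (shift q p l) t ∧ (shift q p l).support ⊆ γ ∧
      pk C κ (shift q p l) t = pk C κ l t - (κ * l q) • (C.b q - C.b p) := by
  classical
  have hpq : p ≠ q := hlt.ne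
  have hv : ∀ ρ, shift q p l ρ = (if ρ = q then 0 else l ρ) + (if ρ = p then l q else 0) := by
    intro ρ
    have e1 : (l.erase q) ρ = if ρ = q then 0 else l ρ := by
      by_cases h1 : ρ = q
      · subst h1; simp
      · rw [Finsupp.erase_ne h1, if_neg h1]
    have e2 : (Finsupp.single p (l q)) ρ = if ρ = p then l q else 0 := by
      by_cases h1 : ρ = p
      · subst h1; simp
      · rw [Finsupp.single_eq_of_ne h1, if_neg h1]
    show (l.erase q) ρ + (Finsupp.single p (l q)) ρ = _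
    rw [e1, e2]
  have hsub : (shift q p l).support ⊆ γ := by
    intro ρ hρ
    rw [Finsupp.mem_support_iff, hv] at hρ
    by_cases h1 : ρ = p
    · rw [h1]; exact hp
    · rw [if_neg h1, add_zero] at hρ
      by_cases h2 : ρ = q
      · rw [if_pos h2] at hρ; exact absurd rfl hρ
      · rw [if_neg h2] at hρ
        have := hs (Finsupp.mem_support_iff.2 hρ)
        exact (Finset.mem_insert.1 this).resolve_left h2
  have hsum : ∑ ρ ∈ γ, shift q p l ρ = 1 := by
    have e1 : ∑ ρ ∈ γ, shift q p l ρ = ∑ ρ ∈ γ, (l ρ + (if ρ = p then l q else 0)) := by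
      refine Finset.sum_congr rfl (fun ρ hρ => ?_)
      have hne : ρ ≠ q := by rintro rfl; exact hqγ hρ
      rw [hv, if_neg hne]
    rw [e1, Finset.sum_add_distrib, Finset.sum_ite_eq' γ p (fun _ => l q), if_pos hp]
    have e2 : ∑ ρ ∈ insert q γ, l ρ = 1 := by
      rw [← h.sum]; exact (sum_support_eq hs (fun ρ => l ρ) (fun _ h => h)).symm
    rw [Finset.sum_insert hqγ] at e2
    linarith
  have hbs : bs C.b (shift q p l) = bs C.b l - l q • (C.b q - C.b p) := by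
    rw [bs_eq_of hsub, bs_eq_of hs, Finset.sum_insert hqγ]
    have e1 : ∑ ρ ∈ γ, shift q p l ρ • C.b ρ =
        ∑ ρ ∈ γ, (l ρ • C.b ρ + (if ρ = p then l q • C.b p else 0)) := by
      refine Finset.sum_congr rfl (fun ρ hρ => ?_)
      have hne : ρ ≠ q := by rintro rfl; exact hqγ hρ
      rw [hv, if_neg hne, add_smul]
      by_cases h1 : ρ = p
      · subst h1; simp
      · simp [h1]
    rw [e1, Finset.sum_add_distrib, Finset.sum_ite_eq' γ p (fun _ => l q • C.b p), if_pos hp]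
    module
  refine ⟨⟨fun ρ => ?_, ?_, fun ρ hρ σ hσ => hch ρ (Finset.mem_insert_of_mem (hsub hρ)) σ
    (Finset.mem_insert_of_mem (hsub hσ)), fun ρ hρ => ht ρ (Finset.mem_insert_of_mem (hsub hρ))⟩,
    hsub, ?_⟩
  · rw [hv]
    have := h.nn ρ; have := h.nn q
    split_ifs <;> linarith
  · rw [sum_support_eq hsub (fun ρ => shift q p l ρ) (fun _ h => h), hsum]
  · unfold pk
    rw [hbs]
    module

/-- **two states over the same chain** -/
theorem chain_lip (hκ : 0 < κ ∧ κ < 1) {S : ℝ} (hS : 0 ≤ S) : ∀ (n : ℕ) (γ : Finset Q),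
    γ.card = n + 1 → (∀ ρ ∈ γ, ∀ σ ∈ γ, ρ ≤ σ ∨ σ ≤ ρ) →
    (∀ ρ ∈ γ, ∃ r > 0, Fat C ρ r ∧ Metric.diam (C.cell ρ) ≤ S * r) →
    ∀ {l l' : Q →₀ ℝ} {t t' : E}, State C l t → State C l' t' → l.support ⊆ γ →
      l'.support ⊆ γ → (∀ ρ ∈ γ, t ∈ C.cell ρ) → (∀ ρ ∈ γ, t' ∈ C.cell ρ) →
      (1 - κ) * ‖t - t'‖ ≤ (1 + S) ^ n * ‖pk C κ l t - pk C κ l' t'‖ := by
  classical
  intro n
  induction n with
  | zero =>
    intro γ hc hch hfat l l' t t' h h' hs hs' ht ht'
    obtain ⟨q, rfl⟩ := Finset.card_eq_one.1 (by simpa using hc)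
    have key : ∀ {l : Q →₀ ℝ} {t : E}, State C l t → l.support ⊆ {q} →
        pk C κ l t = (1 - κ) • t + κ • C.b q := by
      intro l t h hs
      have h1 : ∑ ρ ∈ ({q} : Finset Q), l ρ = 1 := by
        rw [← h.sum]; exact (sum_support_eq hs (fun ρ => l ρ) (fun _ h => h)).symm
      rw [Finset.sum_singleton] at h1
      unfold pk
      rw [bs_eq_of hs, Finset.sum_singleton, h1, one_smul]
    rw [key h hs, key h' hs', pow_zero, one_mul]
    have e1 : (1 - κ) • t + κ • C.b q - ((1 - κ) • t' + κ • C.b q) = (1 - κ) • (t - t') := by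
      module
    rw [e1, norm_smul, Real.norm_eq_abs, abs_of_pos (by linarith [hκ.2])]
  | succ n ih =>
    intro γ hc hch hfat l l' t t' h h' hs hs' ht ht'
    have hne : γ.Nonempty := by rw [← Finset.card_pos]; omega
    obtain ⟨q, hq, hmax⟩ := γ.exists_maximal hne
    have hleq : ∀ ρ ∈ γ, ρ ≤ q := fun ρ hρ => by
      rcases hch ρ hρ q hq with h1 | h1
      · exact h1
      · exact hmax hρ h1
    set γ' := γ.erase q with hγ'
    have hins : insert q γ' = γ := Finset.insert_erase hq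
    have hcard : γ'.card = n + 1 := by rw [hγ', Finset.card_erase_of_mem hq, hc]; rfl
    have hne' : γ'.Nonempty := by rw [← Finset.card_pos]; omega
    obtain ⟨p, hp, hmax'⟩ := γ'.exists_maximal hne'
    have hsubγ : ∀ ρ ∈ γ', ρ ∈ γ := fun ρ hρ => Finset.mem_of_mem_erase hρ
    have hlep : ∀ ρ ∈ γ', ρ ≤ p := fun ρ hρ => by
      rcases hch ρ (hsubγ ρ hρ) p (hsubγ p hp) with h1 | h1
      · exact h1
      · exact hmax' hρ h1
    have hpq : p < q := lt_of_le_of_ne (hleq p (hsubγ p hp)) (Finset.ne_of_mem_erase hp)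
    have hqγ' : q ∉ γ' := Finset.notMem_erase q γ
    obtain ⟨r, hr, hF, hD⟩ := hfat q hq
    have hst : St C 1 q l t := st_toState h (fun ρ hρ => hleq ρ (hs hρ))
    have hst' : St C 1 q l' t' := st_toState h' (fun ρ hρ => hleq ρ (hs' hρ))
    have h1 := top_lip' hκ hr hF hst hst'
    obtain ⟨a1, a2, a3⟩ := shift_spec (κ := κ) hqγ' hp hpq (by rwa [hins]) hlep h
      (by rwa [hins]) (by rwa [hins])
    obtain ⟨b1, b2, b3⟩ := shift_spec (κ := κ) hqγ' hp hpq (by rwa [hins]) hlep h'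
      (by rwa [hins]) (by rwa [hins])
    have h2 := ih γ' hcard (fun ρ hρ σ hσ => hch ρ (hsubγ ρ hρ) σ (hsubγ σ hσ))
      (fun ρ hρ => hfat ρ (hsubγ ρ hρ)) a1 b1 a2 b2 (fun ρ hρ => ht ρ (hsubγ ρ hρ))
      (fun ρ hρ => ht' ρ (hsubγ ρ hρ))
    refine h2.trans ?_
    rw [pow_succ, mul_assoc]
    refine mul_le_mul_of_nonneg_left ?_ (by positivity)
    rw [a3, b3]
    have e1 : pk C κ l t - (κ * l q) • (C.b q - C.b p) -
        (pk C κ l' t' - (κ * l' q) • (C.b q - C.b p)) =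
        (pk C κ l t - pk C κ l' t') - (κ * l q - κ * l' q) • (C.b q - C.b p) := by module
    rw [e1]
    refine (norm_sub_le _ _).trans ?_
    rw [norm_smul, Real.norm_eq_abs]
    have h3 : ‖C.b q - C.b p‖ ≤ S * r := by
      rw [← dist_eq_norm]
      exact (Metric.dist_le_diam_of_mem (C.cpt q).isBounded (C.bmem q)
        (C.mono hpq (C.bmem p))).trans hD
    have h4 : |κ * l q - κ * l' q| * ‖C.b q - C.b p‖ ≤
        ‖pk C κ l t - pk C κ l' t'‖ / r * (S * r) :=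
      mul_le_mul h1 h3 (norm_nonneg _) (div_nonneg (norm_nonneg _) hr.le)
    have h5 : ‖pk C κ l t - pk C κ l' t'‖ / r * (S * r) = S * ‖pk C κ l t - pk C κ l' t'‖ := by
      field_simp
    rw [h5] at h4
    linarith

/-- chains below `q` have at most `dim q + 1` elements -/
lemma chain_card (C : CC Λ Q) {γ : Finset Q} (hch : ∀ ρ ∈ γ, ∀ σ ∈ γ, ρ ≤ σ ∨ σ ≤ ρ) {q : Q}
    (hq : ∀ ρ ∈ γ, ρ ≤ q) : γ.card ≤ C.dim q + 1 := by
  classical
  have h1 : Set.InjOn C.dim (γ : Set Q) := by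
    intro ρ hρ σ hσ he
    rcases hch ρ hρ σ hσ with h | h
    · rcases h.eq_or_lt with e | e
      · exact e
      · exact absurd he (C.dim_lt e).ne
    · rcases h.eq_or_lt with e | e
      · exact e.symm
      · exact absurd he (C.dim_lt e).ne'
  have h2 : γ.image C.dim ⊆ Finset.range (C.dim q + 1) := by
    intro d hd
    obtain ⟨ρ, hρ, rfl⟩ := Finset.mem_image.1 hd
    rw [Finset.mem_range]
    rcases (hq ρ hρ).eq_or_lt with e | e
    · rw [e]; omega
    · have := C.dim_lt e; omega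
  calc γ.card = (γ.image C.dim).card := (Finset.card_image_of_injOn h1).symm
    _ ≤ (Finset.range (C.dim q + 1)).card := Finset.card_le_card h2
    _ = C.dim q + 1 := Finset.card_range _

/-- a function on `[0,1]` which is `L`-Lipschitz on finitely many closed sets covering `[0,1]` -/
lemma lip_of_cover {W ι : Type*} [NormedAddCommGroup W] {φ : ℝ → W} {L : ℝ}
    {I : Set ι} (hI : I.Finite) {F : ι → Set ℝ} (hcl : ∀ i ∈ I, IsClosed (F i))
    (hcov : Icc (0 : ℝ) 1 ⊆ ⋃ i ∈ I, F i)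
    (hL : ∀ i ∈ I, ∀ s ∈ F i ∩ Icc 0 1, ∀ s' ∈ F i ∩ Icc 0 1, ‖φ s - φ s'‖ ≤ L * |s - s'|)
    (hc : ContinuousOn φ (Icc 0 1)) : ‖φ 1 - φ 0‖ ≤ L := by
  have hne : ((0 : ℝ) ∈ Icc (0 : ℝ) 1) := ⟨le_rfl, zero_le_one⟩
  set A : Set ℝ := {s | s ∈ Icc (0 : ℝ) 1 ∧ ‖φ s - φ 0‖ ≤ L * s} with hA
  have hA0 : (0 : ℝ) ∈ A := ⟨hne, by simp⟩
  have hAc : IsClosed A := by
    have h1 : ContinuousOn (fun s => L * s - ‖φ s - φ 0‖) (Icc 0 1) := by
      have := hc.sub (continuousOn_const (c := φ 0))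
      exact (continuousOn_const.mul continuousOn_id).sub this.norm
    have h2 := h1.preimage_isClosed_of_isClosed isClosed_Icc (isClosed_Ici (a := (0 : ℝ)))
    have h3 : A = Icc 0 1 ∩ (fun s => L * s - ‖φ s - φ 0‖) ⁻¹' Ici 0 := by
      ext s; simp [hA]
    rw [h3]; exact h2
  have hAb : BddAbove A := ⟨1, fun s hs => hs.1.2⟩
  set s0 := sSup A with hs0
  have hs0A : s0 ∈ A := hAc.csSup_mem ⟨0, hA0⟩ hAb
  rcases hs0A.1.2.eq_or_lt with h1 | h1
  · have := hs0A.2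
    rw [h1, mul_one] at this
    exact this
  exfalso
  -- a closed set accumulating at s0 from the right
  have hex : ∃ i ∈ I, ∃ᶠ s in 𝓝[>] s0, s ∈ F i := by
    by_contra hcon
    push Not at hcon
    have h2 : ∀ᶠ s in 𝓝[>] s0, ∀ i ∈ I, s ∉ F i := by
      rw [Filter.eventually_all_finite hI]
      intro i hi
      exact hcon i hi
    have h3 : ∀ᶠ s in 𝓝[>] s0, s ∈ Ioo s0 1 := Ioo_mem_nhdsGT h1
    obtain ⟨s, hs, hs'⟩ := (h2.and h3).exists
    obtain ⟨i, hi, hsi⟩ := mem_iUnion₂.1 (hcov ⟨hs0A.1.1.trans hs'.1.le, hs'.2.le⟩)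
    exact hs i hi hsi
  obtain ⟨i, hi, hfr⟩ := hex
  have hs0F : s0 ∈ F i := by
    have h2 : ∃ᶠ s in 𝓝 s0, s ∈ F i := hfr.filter_mono nhdsWithin_le_nhds
    exact (hcl i hi).mem_of_frequently_of_tendsto h2 tendsto_id
  obtain ⟨s, hs, hs'⟩ := (hfr.and_eventually (Ioo_mem_nhdsGT h1)).exists
  have hs1 : s ∈ Icc (0 : ℝ) 1 := ⟨hs0A.1.1.trans hs'.1.le, hs'.2.le⟩
  have h2 := hL i hi s ⟨hs, hs1⟩ s0 ⟨hs0F, hs0A.1⟩
  rw [abs_of_pos (by linarith [hs'.1])] at h2
  have h3 : s ∈ A := by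
    refine ⟨hs1, ?_⟩
    have e1 : φ s - φ 0 = (φ s - φ s0) + (φ s0 - φ 0) := by abel
    rw [e1]
    have := hs0A.2
    refine (norm_add_le _ _).trans ?_
    nlinarith
  have := le_csSup hAb h3
  linarith [hs'.1]

/-- **LIP-ST**: uniform Lipschitz constant of the base point. -/
theorem lip_st_unif [FiniteDimensional ℝ E] (C : CC Λ Q) (q : Q) {S : ℝ} (hS : 0 ≤ S)
    (hfat : ∀ ρ ≤ q, ∃ r > 0, Fat C ρ r ∧ Metric.diam (C.cell ρ) ≤ S * r)
    {κ : ℝ} (hκ : 0 < κ ∧ κ < 1) {y z : E} (hy : y ∈ C.cell q) (hz : z ∈ C.cell q) :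
    (1 - κ) * ‖st C κ y - st C κ z‖ ≤ (1 + S) ^ (C.dim q) * ‖y - z‖ := by
  classical
  set I : Set (Finset Q) := {γ | γ ⊆ C.dn q ∧ γ.Nonempty ∧
    ∀ ρ ∈ γ, ∀ σ ∈ γ, ρ ≤ σ ∨ σ ≤ ρ} with hI
  have hIf : I.Finite := ((C.dn q).powerset.finite_toSet).subset
    (fun γ hγ => Finset.mem_coe.2 (Finset.mem_powerset.2 hγ.1))
  set p : ℝ → E := fun s => z + s • (y - z) with hp
  have hpm : ∀ s ∈ Icc (0 : ℝ) 1, p s ∈ C.cell q := fun s hs => (C.conv q).add_smul_sub_mem hz hy hs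
  have hpc : Continuous p := by rw [hp]; fun_prop
  have hstc : ContinuousOn (st C κ) (C.cell q) := (plOn_st C hκ q).1
  set F : Finset Q → Set ℝ := fun γ => {s | s ∈ Icc (0 : ℝ) 1 ∧ (∀ ρ ∈ C.dn q, ρ ∉ γ →
    sl C κ (p s) ρ = 0) ∧ ∀ ρ ∈ γ, st C κ (p s) ∈ C.cell ρ} with hF
  have hFc : ∀ γ ∈ I, IsClosed (F γ) := by
    intro γ _
    have h1 : F γ = Icc (0 : ℝ) 1 ∩ ((⋂ ρ ∈ (C.dn q : Set Q) \ γ,
        (Icc (0 : ℝ) 1 ∩ (fun s => sl C κ (p s) ρ) ⁻¹' {0})) ∩
        ⋂ ρ ∈ (γ : Set Q), (Icc (0 : ℝ) 1 ∩ (fun s => st C κ (p s)) ⁻¹' C.cell ρ)) := by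
      ext s
      simp only [hF, mem_setOf_eq, mem_inter_iff, mem_iInter, mem_diff, Finset.mem_coe,
        mem_preimage, mem_singleton_iff]
      constructor
      · rintro ⟨h1, h2, h3⟩
        exact ⟨h1, fun ρ hρ => ⟨h1, h2 ρ hρ.1 hρ.2⟩, fun ρ hρ => ⟨h1, h3 ρ hρ⟩⟩
      · rintro ⟨h1, h2, h3⟩
        exact ⟨h1, fun ρ hρ hρ' => (h2 ρ ⟨hρ, hρ'⟩).2, fun ρ hρ => (h3 ρ hρ).2⟩
    rw [h1]
    refine isClosed_Icc.inter (IsClosed.inter ?_ ?_)
    · refine isClosed_biInter (fun ρ _ => ?_)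
      refine ContinuousOn.preimage_isClosed_of_isClosed ?_ isClosed_Icc isClosed_singleton
      exact (plOn_sl C hκ q ρ).1.comp hpc.continuousOn hpm
    · refine isClosed_biInter (fun ρ _ => ?_)
      refine ContinuousOn.preimage_isClosed_of_isClosed ?_ isClosed_Icc (C.cpt ρ).isClosed
      exact hstc.comp hpc.continuousOn hpm
  have hcov : Icc (0 : ℝ) 1 ⊆ ⋃ γ ∈ I, F γ := by
    intro s hs
    obtain ⟨h1, h2, h3⟩ := st_spec C hκ (hpm s hs)
    refine mem_iUnion₂.2 ⟨(sl C κ (p s)).support, ⟨fun ρ hρ => C.mem_dn.2 (h3 ρ hρ),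
      h1.wt.nonempty, h1.chain⟩, hs, fun ρ _ hρ => Finsupp.notMem_support_iff.1 hρ, h1.mem⟩
  have hLip : ∀ γ ∈ I, ∀ s ∈ F γ ∩ Icc 0 1, ∀ s' ∈ F γ ∩ Icc 0 1,
      ‖(1 - κ) • st C κ (p s) - (1 - κ) • st C κ (p s')‖ ≤
        ((1 + S) ^ (C.dim q) * ‖y - z‖) * |s - s'| := by
    rintro γ ⟨hγ1, hγ2, hγ3⟩ s ⟨⟨hs, hs1, hs2⟩, -⟩ s' ⟨⟨hs', hs1', hs2'⟩, -⟩
    obtain ⟨h1, h2, h3⟩ := st_spec C hκ (hpm s hs)
    obtain ⟨h1', h2', h3'⟩ := st_spec C hκ (hpm s' hs')
    have hleq : ∀ ρ ∈ γ, ρ ≤ q := fun ρ hρ => C.mem_dn.1 (hγ1 hρ)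
    have hsup : ∀ {l : Q →₀ ℝ}, (∀ ρ ∈ l.support, ρ ≤ q) → (∀ ρ ∈ C.dn q, ρ ∉ γ → l ρ = 0) →
        l.support ⊆ γ := by
      intro l h4 h5 ρ hρ
      by_contra hn
      exact Finsupp.mem_support_iff.1 hρ (h5 ρ (C.mem_dn.2 (h4 ρ hρ)) hn)
    obtain ⟨n, hn⟩ : ∃ n, γ.card = n + 1 := ⟨γ.card - 1, by
      have := Finset.card_pos.2 hγ2; omega⟩
    have hnd : n ≤ C.dim q := by
      have := chain_card C hγ3 hleq; omega
    have h6 := chain_lip hκ hS n γ hn hγ3 (fun ρ hρ => hfat ρ (hleq ρ hρ)) h1 h1'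
      (hsup h3 hs1) (hsup h3' hs1') hs2 hs2'
    rw [h2, h2'] at h6
    have h7 : ‖p s - p s'‖ = |s - s'| * ‖y - z‖ := by
      have : p s - p s' = (s - s') • (y - z) := by simp only [hp]; module
      rw [this, norm_smul, Real.norm_eq_abs]
    rw [h7] at h6
    rw [← smul_sub, norm_smul, Real.norm_eq_abs, abs_of_pos (by linarith [hκ.2])]
    refine h6.trans ?_
    have h8 : (1 + S) ^ n ≤ (1 + S) ^ (C.dim q) := pow_le_pow_right₀ (by linarith) hnd
    calc (1 + S) ^ n * (|s - s'| * ‖y - z‖) ≤ (1 + S) ^ (C.dim q) * (|s - s'| * ‖y - z‖) :=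
          mul_le_mul_of_nonneg_right h8 (by positivity)
      _ = ((1 + S) ^ (C.dim q) * ‖y - z‖) * |s - s'| := by ring
  have hcc : ContinuousOn (fun s => (1 - κ) • st C κ (p s)) (Icc 0 1) :=
    continuousOn_const.smul (hstc.comp hpc.continuousOn hpm)
  have h9 := lip_of_cover (φ := fun s => (1 - κ) • st C κ (p s)) hIf hFc hcov hLip hcc
  have e1 : p 1 = y := by simp [hp]
  have e0 : p 0 = z := by simp [hp]
  simp only [e1, e0] at h9
  rw [← smul_sub, norm_smul, Real.norm_eq_abs, abs_of_pos (by linarith [hκ.2])] at h9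
  exact h9

end Crest.Agent.R096.Xp_537
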