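import Crest.Agent.R096.Xq2_537
import Crest.Agent.R096.Xq4_537

/-!
# R096 (row 96), EXPLODE, part q5 (helper537): cores of type D

* the exact core `coreF C κ c θ` is the homothetic copy `(1 - κθ) P_c + κθ b_c` of the cell,
  its boundary `sphF C κ c θ = {l_c = θ}` the copy of the boundary of the cell;
* `CC.below C c` = the complex of the cells `< c`;
* a transport structure on a compact set `S` over `C.below c` (all fibres balls) gives
  `PLEquiv S (sphF C κ c θ)`; if `S` is the boundary of the ball `K` it extends to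
  `Th : PLEquiv K (coreF C κ c θ)`, and the exact structure of `K` restricts to the given one.
-/

set_option autoImplicit false
set_option linter.unusedSectionVars false
set_option linter.unusedVariables false
set_option linter.deprecated false

open Set
open scoped NNReal

namespace Crest.Agent.R096.Xp_537

open Crest.Agent.R096.Ce_537 (PLOn PLEquiv cube sph IsBall LocPL)
open Crest.Agent.R096.Bd_416

variable {E E' : Type*} [NormedAddCommGroup E] [NormedSpace ℝ E]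
  [NormedAddCommGroup E'] [NormedSpace ℝ E']
variable {Q : Type*} [PartialOrder Q] {Λ : Set E}

/-! ### the core is a homothetic copy of the cell -/

/-- homothety towards the barycentre -/
def hom (C : CC Λ Q) (c : Q) (a : ℝ) (y : E) : E := (1 - a) • y + a • C.b c

/-- the boundary of a cell -/
def bdc (C : CC Λ Q) (c : Q) : Set E := ⋃ q ∈ {q | q < c}, C.cell q

/-- the boundary of the exact core -/
def sphF (C : CC Λ Q) (κ : ℝ) (c : Q) (θ : ℝ) : Set E := {y | y ∈ C.cell c ∧ sl C κ y c = θ}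

lemma sphF_sub {C : CC Λ Q} {κ θ : ℝ} {c : Q} : sphF C κ c θ ⊆ coreF C κ c θ :=
  fun _ h => ⟨h.1, h.2.ge⟩

lemma bdc_sub {C : CC Λ Q} {c : Q} : bdc C c ⊆ C.cell c := by
  intro y hy
  obtain ⟨q, hq, hy⟩ := mem_iUnion₂.1 hy
  exact C.mono hq hy

section Hom

variable {C : CC Λ Q} {κ θ : ℝ} {c : Q}

lemma hom_core (hκ : 0 < κ ∧ κ < 1) (h0 : 0 ≤ θ) (h1 : θ ≤ 1) {u : E} (hu : u ∈ C.cell c) :
    hom C c (κ * θ) u ∈ coreF C κ c θ := by
  have hy : hom C c (κ * θ) u ∈ C.cell c :=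
    C.conv c hu (C.bmem c) (by nlinarith [hκ.1, hκ.2]) (mul_nonneg hκ.1.le h0) (by ring)
  refine ⟨hy, ?_⟩
  obtain ⟨s1, s2, s3⟩ := st_spec C hκ hy
  have h2 := pk_ge hκ (st_toState s1 s3) (w := κ * θ) (mul_nonneg hκ.1.le h0)
    (by nlinarith [hκ.1]) hu (by rw [s2]; unfold hom; rw [add_comm])
  have := hκ.1
  exact le_of_mul_le_mul_left h2 this

/-- a point with `l_c < 1` is radial over a proper face with weight `κ l_c` -/
lemma radial (hκ : 0 < κ ∧ κ < 1) {y : E} (hy : y ∈ C.cell c) (h1 : sl C κ y c ≠ 1) :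
    ∃ u ∈ bdc C c, y = hom C c (κ * sl C κ y c) u := by
  classical
  obtain ⟨s1, s2, s3⟩ := st_spec C hκ hy
  have h := st_toState s1 s3
  by_cases hq : c ∈ (sl C κ y).support
  · have hA : Adm (mm C) 1 (fun _ => (0 : E)) 0 := Adm.base
    obtain ⟨d1, d2⟩ := dec (mm_MM C) (κ := fun _ => κ) (fun _ => hκ) one_pos hA h hq
    rcases d2 with e | ⟨e1, r, hr, hrs, hst, y1, hy1, hyo, e2, e3⟩
    · exfalso; apply h1; rw [e]; simp
    · refine ⟨y1, mem_biUnion (show r ∈ {q | q < c} from hr) hy1, ?_⟩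
      rw [gg_const C κ h.state, s2] at e3
      simp only [add_zero] at e3
      exact e3
  · obtain ⟨r, hr, hrq, hst⟩ := h.exists_top one_pos
    have hlt : r < c := lt_of_le_of_ne hrq (by rintro rfl; exact hq hr)
    refine ⟨y, mem_biUnion (show r ∈ {q | q < c} from hlt) ?_, ?_⟩
    · have := pk_mem C hκ h.state hst.le
      rwa [s2] at this
    · rw [Finsupp.notMem_support_iff.1 hq]; simp [hom]

lemma hom_sph (hκ : 0 < κ ∧ κ < 1) (h0 : 0 ≤ θ) (h1 : θ < 1) {u : E} (hu : u ∈ bdc C c) :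
    sl C κ (hom C c (κ * θ) u) c = θ := by
  have hc := hom_core hκ h0 h1.le (bdc_sub hu)
  obtain ⟨p, hp, hup⟩ := mem_iUnion₂.1 hu
  have hp : p < c := hp
  obtain ⟨s1, s2, s3⟩ := st_spec C hκ hc.1
  obtain ⟨v, hv, he⟩ := pk_split hκ (st_toState s1 s3)
  set L := sl C κ (hom C c (κ * θ) u) c with hL
  have hL0 : 0 ≤ L := s1.nn c
  have hL1 : L ≤ 1 := by
    by_cases hq : c ∈ (sl C κ (hom C c (κ * θ) u)).support
    · rw [← s1.sum]; exact Finset.single_le_sum (fun ρ _ => s1.nn ρ) hq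
    · rw [hL, Finsupp.notMem_support_iff.1 hq]; exact zero_le_one
  rw [s2] at he
  have hκθ : κ * θ ∈ Ico (0 : ℝ) 1 := ⟨mul_nonneg hκ.1.le h0, by nlinarith [hκ.1, hκ.2]⟩
  have he' : (1 - κ * θ) • u + (κ * θ) • C.b c = (κ * L) • C.b c + (1 - κ * L) • v := he
  have key : κ * L ≤ κ * θ := by
    rcases C.rad c v hv with rfl | ⟨p', hp', v', hv', w', hw', rfl⟩
    · exfalso
      have h2 : (κ * L) • C.b c + (1 - κ * L) • C.b c = C.b c := by rw [← add_smul]; simp
      rw [h2] at he'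
      have h3 : (1 - κ * θ) • (C.b c - u) = 0 := by
        have : (1 - κ * θ) • (C.b c - u) = C.b c - ((1 - κ * θ) • u + (κ * θ) • C.b c) := by
          module
        rw [this, he', sub_self]
      have h4 : C.b c = u :=
        sub_eq_zero.1 ((smul_eq_zero.1 h3).resolve_left (by linarith [hκθ.2]))
      exact C.b_notMem hp (h4 ▸ hup)
    · have h2 : (1 - κ * θ) • u + (κ * θ) • C.b c =
          (1 - (κ * L + (1 - κ * L) * w')) • v' + (κ * L + (1 - κ * L) * w') • C.b c := by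
        rw [he']; module
      have hκL : κ * L < 1 := by nlinarith [hκ.1, hκ.2]
      have hκL0 : 0 ≤ κ * L := mul_nonneg hκ.1.le hL0
      have h5 := (C.rad_uniq hp hp' hup hv' hκθ
        ⟨by nlinarith [hw'.1], by nlinarith [hw'.2]⟩ h2).2
      nlinarith [hw'.1]
  exact le_antisymm (le_of_mul_le_mul_left key hκ.1) hc.2

/-- the core as a homothetic copy -/
noncomputable def homEquiv [FiniteDimensional ℝ E] (C : CC Λ Q) (c : Q) (hκ : 0 < κ ∧ κ < 1)
    (h0 : 0 ≤ θ) (h1 : θ ≤ 1) : PLEquiv (C.cell c) (coreF C κ c θ) where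
  f := hom C c (κ * θ)
  g := fun y => (1 - κ * θ)⁻¹ • (y - (κ * θ) • C.b c)
  pf := pl_add (pl_smul _ (Ce_537.plOn_id _)) (Ce_537.plOn_const _ _)
  pg := pl_smul _ (pl_sub_const (Ce_537.plOn_id _) _)
  mf := fun u hu => hom_core hκ h0 h1 hu
  mg := by
    intro y hy
    have hd : 0 < 1 - κ * θ := by nlinarith [hκ.1, hκ.2]
    obtain ⟨s1, s2, s3⟩ := st_spec C hκ hy.1
    obtain ⟨v, hv, he⟩ := pk_split hκ (st_toState s1 s3)
    rw [s2] at he
    set L := sl C κ y c with hL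
    have hL1 : L ≤ 1 := by
      by_cases hq : c ∈ (sl C κ y).support
      · rw [← s1.sum]; exact Finset.single_le_sum (fun ρ _ => s1.nn ρ) hq
      · rw [hL, Finsupp.notMem_support_iff.1 hq]; exact zero_le_one
    have hLθ : θ ≤ L := hy.2
    have hκL : κ * L < 1 := by nlinarith [hκ.1, hκ.2]
    have e1 : (1 - κ * θ)⁻¹ • (y - (κ * θ) • C.b c) =
        ((κ * L - κ * θ) / (1 - κ * θ)) • C.b c + ((1 - κ * L) / (1 - κ * θ)) • v := by
      have e2 : y - (κ * θ) • C.b c = (κ * L - κ * θ) • C.b c + (1 - κ * L) • v := by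
        have : y - (κ * θ) • C.b c = ((κ * L) • C.b c + (1 - κ * L) • v) - (κ * θ) • C.b c := by
          rw [← he]
        rw [this]; module
      rw [e2, smul_add, smul_smul, smul_smul, div_eq_inv_mul, div_eq_inv_mul]
    show (1 - κ * θ)⁻¹ • (y - (κ * θ) • C.b c) ∈ C.cell c
    rw [e1]
    refine C.conv c (C.bmem c) hv (div_nonneg ?_ hd.le) (div_nonneg (by linarith) hd.le) ?_
    · nlinarith [hκ.1]
    · rw [← add_div, div_eq_one_iff_eq hd.ne']; ring
  li := by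
    intro u hu
    have hd : 1 - κ * θ ≠ 0 := by nlinarith [hκ.1, hκ.2]
    show (1 - κ * θ)⁻¹ • (hom C c (κ * θ) u - (κ * θ) • C.b c) = u
    unfold hom
    rw [add_sub_cancel_right, smul_smul, inv_mul_cancel₀ hd, one_smul]
  ri := by
    intro y hy
    have hd : 1 - κ * θ ≠ 0 := by nlinarith [hκ.1, hκ.2]
    show (1 - κ * θ) • ((1 - κ * θ)⁻¹ • (y - (κ * θ) • C.b c)) + (κ * θ) • C.b c = y
    rw [smul_smul, mul_inv_cancel₀ hd, one_smul, sub_add_cancel]

lemma hom_bdc [FiniteDimensional ℝ E] (hκ : 0 < κ ∧ κ < 1) (h0 : 0 ≤ θ) (h1 : θ < 1) :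
    hom C c (κ * θ) '' bdc C c = sphF C κ c θ := by
  ext y
  constructor
  · rintro ⟨u, hu, rfl⟩
    exact ⟨(hom_core hκ h0 h1.le (bdc_sub hu)).1, hom_sph hκ h0 h1 hu⟩
  · rintro ⟨hy, hθ⟩
    obtain ⟨u, hu, he⟩ := radial hκ hy (by rw [hθ]; exact h1.ne)
    rw [hθ] at he
    exact ⟨u, hu, he.symm⟩

/-- **the core is a ball** -/
theorem isBall_coreF [FiniteDimensional ℝ E] (hκ : 0 < κ ∧ κ < 1) (h0 : 0 ≤ θ) (h1 : θ < 1)
    {n : ℕ} (h : IsBall n (C.cell c) (bdc C c)) : IsBall n (coreF C κ c θ) (sphF C κ c θ) := by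
  have h2 := h.map (homEquiv C c hκ h0 h1.le)
  have h3 : (homEquiv C c hκ h0 h1.le).f '' bdc C c = sphF C κ c θ := hom_bdc hκ h0 h1
  rwa [h3] at h2

end Hom

/-! ### the complex of the cells below `c` -/

/-- the complex of the cells `< c` -/
def CC.below (C : CC Λ Q) (c : Q) : CC (bdc C c) {q : Q // q < c} where
  cell := fun q => C.cell q.1
  b := fun q => C.b q.1
  dim := fun q => C.dim q.1
  conv := fun q => C.conv q.1
  cpt := fun q => C.cpt q.1
  bmem := fun q => C.bmem q.1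
  mono := fun {p q} h => C.mono (Subtype.coe_lt_coe.2 h)
  dim_lt := fun {p q} h => C.dim_lt (Subtype.coe_lt_coe.2 h)
  b_notMem := fun {p q} h => C.b_notMem (Subtype.coe_lt_coe.2 h)
  rad := fun q y hy => by
    rcases C.rad q.1 y hy with h | ⟨p, hp, y', hy', w, hw, e⟩
    · exact Or.inl h
    · exact Or.inr ⟨⟨p, hp.trans q.2⟩, Subtype.coe_lt_coe.1 hp, y', hy', w, hw, e⟩
  rad_uniq := fun {q p p' y y' w w'} h h' hy hy' hw hw' e =>
    C.rad_uniq (Subtype.coe_lt_coe.2 h) (Subtype.coe_lt_coe.2 h') hy hy' hw hw' e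
  disj := fun {p q y} hp ho hq ho' => by
    apply Subtype.ext
    exact C.disj hp (fun r hr => ho ⟨r, hr.trans p.2⟩ (Subtype.coe_lt_coe.1 hr)) hq
      (fun r hr => ho' ⟨r, hr.trans q.2⟩ (Subtype.coe_lt_coe.1 hr))
  sub := fun q => subset_biUnion_of_mem (u := fun q => C.cell q) (show q.1 ∈ {q | q < c} from q.2)
  cover := fun y hy => by
    obtain ⟨q, hq, hy⟩ := mem_iUnion₂.1 hy
    exact ⟨⟨q, hq⟩, hy⟩
  lf := fun y hy => by
    have hy' : y ∈ Λ := by
      obtain ⟨q, hq, hy⟩ := mem_iUnion₂.1 hy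
      exact C.sub q hy
    obtain ⟨r, hr, hf⟩ := C.lf y hy'
    refine ⟨r, hr, ?_⟩
    have h1 : {q : {q : Q // q < c} | (C.cell q.1 ∩ Metric.ball y r).Nonempty} =
        Subtype.val ⁻¹' {q | (C.cell q ∩ Metric.ball y r).Nonempty} := rfl
    rw [h1]
    exact hf.preimage Subtype.val_injective.injOn

section Below

variable {C : CC Λ Q} {κ θ : ℝ} {c : Q}

open Classical in
/-- weights below `c` completed by `θ` at `c` -/
noncomputable def bl (c : Q) (θ : ℝ) (l : {q : Q // q < c} →₀ ℝ) : Q →₀ ℝ :=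
  Finsupp.onFinset (insert c (l.support.map (Function.Embedding.subtype _)))
    (fun ρ => if h : ρ < c then (1 - θ) * l ⟨ρ, h⟩ else if ρ = c then θ else 0) (fun ρ hρ => by
      by_cases h : ρ < c
      · rw [dif_pos h] at hρ
        refine Finset.mem_insert_of_mem (Finset.mem_map.2 ⟨⟨ρ, h⟩, ?_, rfl⟩)
        exact Finsupp.mem_support_iff.2 (fun e => hρ (by rw [e, mul_zero]))
      · rw [dif_neg h] at hρ
        by_cases h1 : ρ = c
        · rw [h1]; exact Finset.mem_insert_self _ _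
        · rw [if_neg h1] at hρ; exact absurd rfl hρ)

open Classical in
lemma bl_lt {l : {q : Q // q < c} →₀ ℝ} {ρ : Q} (h : ρ < c) :
    bl c θ l ρ = (1 - θ) * l ⟨ρ, h⟩ := by
  show (if h : ρ < c then (1 - θ) * l ⟨ρ, h⟩ else if ρ = c then θ else 0) = _
  rw [dif_pos h]

open Classical in
lemma bl_c {l : {q : Q // q < c} →₀ ℝ} : bl c θ l c = θ := by
  show (if h : c < c then (1 - θ) * l ⟨c, h⟩ else if c = c then θ else 0) = _
  rw [dif_neg (lt_irrefl c), if_pos rfl]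

open Classical in
lemma bl_else {l : {q : Q // q < c} →₀ ℝ} {ρ : Q} (h : ¬ ρ ≤ c) : bl c θ l ρ = 0 := by
  show (if h : ρ < c then (1 - θ) * l ⟨ρ, h⟩ else if ρ = c then θ else 0) = _
  rw [dif_neg (fun h1 => h h1.le), if_neg (fun h1 => h h1.le)]

open Classical in
lemma bl_sub (l : {q : Q // q < c} →₀ ℝ) :
    (bl c θ l).support ⊆ insert c (l.support.map (Function.Embedding.subtype _)) :=
  Finsupp.support_onFinset_subset

lemma bl_sum {W : Type*} [AddCommGroup W] [Module ℝ W] (l : {q : Q // q < c} →₀ ℝ)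
    (f : Q → W) : ∑ ρ ∈ (bl c θ l).support, bl c θ l ρ • f ρ =
      θ • f c + (1 - θ) • ∑ ρ ∈ l.support, l ρ • f ρ.1 := by
  classical
  have h1 := sum_support_eq (bl_sub (θ := θ) l) (fun ρ => bl c θ l ρ • f ρ)
    (fun q hq => by rw [hq, zero_smul])
  rw [h1, Finset.sum_insert, bl_c, Finset.sum_map, Finset.smul_sum]
  · congr 1
    refine Finset.sum_congr rfl (fun ρ _ => ?_)
    show bl c θ l ρ.1 • f ρ.1 = _
    rw [bl_lt ρ.2, smul_smul]
  · intro h
    obtain ⟨ρ, -, hρ⟩ := Finset.mem_map.1 h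
    have h2 : ρ.1 = c := hρ
    have h3 := ρ.2
    rw [h2] at h3
    exact lt_irrefl _ h3

lemma bl_mem {l : {q : Q // q < c} →₀ ℝ} {ρ : Q} (hρ : ρ ∈ (bl c θ l).support) :
    ρ = c ∨ ∃ h : ρ < c, (⟨ρ, h⟩ : {q : Q // q < c}) ∈ l.support := by
  classical
  rcases Finset.mem_insert.1 (bl_sub l hρ) with h | h
  · exact Or.inl h
  · obtain ⟨σ, hσ, e⟩ := Finset.mem_map.1 h
    have e' : σ.1 = ρ := e
    subst e'
    exact Or.inr ⟨σ.2, hσ⟩

lemma bl_state (h0 : 0 ≤ θ) (h1 : θ ≤ 1) {l : {q : Q // q < c} →₀ ℝ} {t : E}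
    (h : State (C.below c) l t) : State C (bl c θ l) t := by
  have ht : t ∈ C.cell c := by
    obtain ⟨p, hp, -⟩ := h.exists_top
    exact C.mono p.2 (h.mem p hp)
  refine ⟨fun ρ => ?_, ?_, fun ρ hρ σ hσ => ?_, fun ρ hρ => ?_⟩
  · by_cases h2 : ρ < c
    · rw [bl_lt h2]; exact mul_nonneg (by linarith) (h.nn _)
    · by_cases h3 : ρ = c
      · rw [h3, bl_c]; exact h0
      · rw [bl_else (fun h4 => h2 (lt_of_le_of_ne h4 h3))]
  · have h2 := bl_sum (θ := θ) l (fun _ => (1 : ℝ))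
    simp only [smul_eq_mul, mul_one] at h2
    rw [h2, h.sum]; ring
  · rcases bl_mem hρ with h2 | ⟨h2, h3⟩
    · rcases bl_mem hσ with h4 | ⟨h4, h5⟩
      · rw [h2, h4]; exact Or.inl le_rfl
      · rw [h2]; exact Or.inr h4.le
    · rcases bl_mem hσ with h4 | ⟨h4, h5⟩
      · rw [h4]; exact Or.inl h2.le
      · exact h.chain _ h3 _ h5
  · rcases bl_mem hρ with h2 | ⟨h2, h3⟩
    · rw [h2]; exact ht
    · exact h.mem _ h3

lemma bl_inj (h1 : θ < 1) {l l' : {q : Q // q < c} →₀ ℝ} (h : bl c θ l = bl c θ l') : l = l' := by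
  ext ρ
  have h2 := DFunLike.congr_fun h ρ.1
  rw [bl_lt ρ.2, bl_lt ρ.2] at h2
  exact mul_left_cancel₀ (by linarith) h2

/-- every state with `l_c = θ` comes from the complex below `c` -/
lemma exists_bl (h0 : 0 ≤ θ) (h1 : θ < 1) {l : Q →₀ ℝ} {t : E} (h : State C l t)
    (hle : ∀ ρ ∈ l.support, ρ ≤ c) (hc : l c = θ) :
    ∃ l' : {q : Q // q < c} →₀ ℝ, State (C.below c) l' t ∧ bl c θ l' = l := by
  classical
  set l' : {q : Q // q < c} →₀ ℝ := (1 - θ)⁻¹ •
    Finsupp.comapDomain (Subtype.val : {q : Q // q < c} → Q) l Subtype.val_injective.injOn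
    with hl'
  have hd : 1 - θ ≠ 0 := by linarith
  have hv : ∀ ρ : {q : Q // q < c}, l' ρ = (1 - θ)⁻¹ * l ρ.1 := fun ρ => by
    rw [hl', Finsupp.smul_apply, Finsupp.comapDomain_apply, smul_eq_mul]
  have hbl : bl c θ l' = l := by
    ext ρ
    by_cases h2 : ρ < c
    · rw [bl_lt h2, hv]
      show (1 - θ) * ((1 - θ)⁻¹ * l ρ) = l ρ
      rw [← mul_assoc, mul_inv_cancel₀ hd, one_mul]
    · by_cases h3 : ρ = c
      · rw [h3, bl_c, hc]
      · have h4 : ¬ ρ ≤ c := fun h4 => h2 (lt_of_le_of_ne h4 h3)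
        rw [bl_else h4]
        exact (Finsupp.notMem_support_iff.1 (fun h5 => h4 (hle ρ h5))).symm
  have hin : ∀ ρ ∈ l'.support, ρ.1 ∈ l.support := fun ρ hρ => by
    rw [Finsupp.mem_support_iff, hv] at hρ
    exact Finsupp.mem_support_iff.2 (fun e => hρ (by rw [e, mul_zero]))
  refine ⟨l', ⟨fun ρ => ?_, ?_, fun ρ hρ σ hσ => h.chain _ (hin ρ hρ) _ (hin σ hσ),
    fun ρ hρ => h.mem _ (hin ρ hρ)⟩, hbl⟩
  · rw [hv]; exact mul_nonneg (inv_nonneg.2 (by linarith)) (h.nn _)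
  · have h2 := bl_sum (θ := θ) l' (fun _ => (1 : ℝ))
    simp only [smul_eq_mul, mul_one] at h2
    rw [hbl, h.sum] at h2
    have h3 : (1 - θ) * (∑ ρ ∈ l'.support, l' ρ) = (1 - θ) * 1 := by linarith
    exact mul_left_cancel₀ hd h3

/-! ### the chart of the boundary sphere -/

variable {S : Set E'} {G : E' → E}

/-- the map `S → {l_c = θ}` -/
noncomputable def th0 (X : Expl S (C.below c) G) (κ θ : ℝ) (x : E') : E :=
  pk C κ (bl c θ (X.LAM x)) (G x)

lemma th0_sl (X : Expl S (C.below c) G) (hκ : 0 < κ ∧ κ < 1) (h0 : 0 ≤ θ) (h1 : θ ≤ 1) {x : E'}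
    (hx : x ∈ S) : sl C κ (th0 X κ θ x) = bl c θ (X.LAM x) ∧ st C κ (th0 X κ θ x) = G x :=
  sl_st_pk C hκ (bl_state h0 h1 (X.LAM_state hx))

lemma th0_mem (X : Expl S (C.below c) G) (hκ : 0 < κ ∧ κ < 1) (h0 : 0 ≤ θ) (h1 : θ ≤ 1) {x : E'}
    (hx : x ∈ S) : th0 X κ θ x ∈ sphF C κ c θ := by
  refine ⟨pk_mem C hκ (bl_state h0 h1 (X.LAM_state hx)) (fun ρ hρ => ?_), ?_⟩
  · rcases bl_mem hρ with h2 | ⟨h2, -⟩
    · exact h2.le
    · exact h2.le
  · rw [(th0_sl X hκ h0 h1 hx).1, bl_c]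

lemma th0_inj (X : Expl S (C.below c) G) (hκ : 0 < κ ∧ κ < 1) (h0 : 0 ≤ θ) (h1 : θ < 1) :
    InjOn (th0 X κ θ) S := by
  intro x hx y hy he
  obtain ⟨a1, a2⟩ := th0_sl X hκ h0 h1.le hx
  obtain ⟨b1, b2⟩ := th0_sl X hκ h0 h1.le hy
  rw [he] at a1 a2
  exact X.LAM_inj hx hy (bl_inj h1 (a1.symm.trans b1)) (a2.symm.trans b2)

lemma th0_surj (X : Expl S (C.below c) G) (hκ : 0 < κ ∧ κ < 1) (h0 : 0 ≤ θ) (h1 : θ < 1) {y : E}
    (hy : y ∈ sphF C κ c θ) : ∃ x ∈ S, th0 X κ θ x = y := by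
  obtain ⟨s1, s2, s3⟩ := st_spec C hκ hy.1
  obtain ⟨l', hl', hbl⟩ := exists_bl h0 h1 s1 s3 hy.2
  obtain ⟨q, -, x, hx, e1, e2⟩ := X.LAM_surj hl'
  refine ⟨x, X.sub q hx, ?_⟩
  unfold th0
  rw [e1, e2, hbl, s2]

lemma plOn_th0 [FiniteDimensional ℝ E] (X : Expl S (C.below c) G) (κ θ : ℝ) :
    PLOn (th0 X κ θ) S := by
  classical
  have hfinQ : Finite {q : Q // q < c} := ((C.finite_le c).subset (fun q hq => le_of_lt hq))
  have hS : S = ⋃ q ∈ (univ : Set {q : Q // q < c}), X.P q := by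
    ext x
    simp only [mem_univ, iUnion_true, mem_iUnion]
    exact ⟨fun hx => X.cover x hx, fun ⟨q, hq⟩ => X.sub q hq⟩
  have hfin : (univ : Set {q : Q // q < c}).Finite := Set.toFinite _
  set F : Finset {q : Q // q < c} := hfin.toFinset with hF
  suffices hsuff : PLOn (th0 X κ θ) (⋃ q ∈ (univ : Set {q : Q // q < c}), X.P q) by
    exact hsuff.mono hS.subset
  refine Ce_537.plOn_biUnion _ hfin (fun q _ => ?_) (fun q _ => (X.isCompact_P q).isClosed)
  have h1 : PLOn (fun x => ∑ ρ ∈ F, X.LAM x ρ • C.b ρ.1) (X.P q) :=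
    pl_sum _ (fun ρ _ => pl_clm (X.plOn_LAM q ρ)
      ((ContinuousLinearMap.id ℝ ℝ).smulRight (C.b ρ.1)))
  have h2 : PLOn (fun x => (1 - κ) • G x + κ • (θ • C.b c + (1 - θ) •
      ∑ ρ ∈ F, X.LAM x ρ • C.b ρ.1)) (X.P q) :=
    pl_add (pl_smul _ (X.plOn_G q)) (pl_smul _ (pl_add (Ce_537.plOn_const _ _) (pl_smul _ h1)))
  refine h2.congr (fun x hx => ?_)
  show (1 - κ) • G x + κ • bs C.b (bl c θ (X.LAM x)) = _
  unfold bs
  rw [bl_sum, sum_support_eq (F := F) (fun ρ _ => by simp [hF]) (fun ρ => X.LAM x ρ • C.b ρ.1)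
    (fun ρ hρ => by rw [hρ, zero_smul])]

/-- **the chart of the sphere** -/
noncomputable def sphEquiv [FiniteDimensional ℝ E] [FiniteDimensional ℝ E']
    (X : Expl S (C.below c) G) (hκ : 0 < κ ∧ κ < 1) (h0 : 0 ≤ θ) (h1 : θ < 1) :
    PLEquiv S (sphF C κ c θ) where
  f := th0 X κ θ
  g := Function.invFunOn (th0 X κ θ) S
  pf := plOn_th0 X κ θ
  pg := by
    have hfinQ : Finite {q : Q // q < c} := ((C.finite_le c).subset (fun q hq => le_of_lt hq))
    have hS : S = ⋃ q ∈ (univ : Set {q : Q // q < c}), X.P q := by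
      ext x
      simp only [mem_univ, iUnion_true, mem_iUnion]
      exact ⟨fun hx => X.cover x hx, fun ⟨q, hq⟩ => X.sub q hq⟩
    have hfin : (univ : Set {q : Q // q < c}).Finite := Set.toFinite _
    have hFC : Cx_609.FinConv S := by
      rw [hS]; exact Cx_609.FinConv.biUnion hfin (fun q _ => X.finConv_P q)
    have hcp : IsCompact S := by
      rw [hS]; exact hfin.isCompact_biUnion (fun q _ => X.isCompact_P q)
    have h2 := Cx_609.PLOn.inv hFC hcp (Cx_609.plOn_iff.2 (plOn_th0 X κ θ))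
      (r := Function.invFunOn (th0 X κ θ) S)
      (fun x hx => (th0_inj X hκ h0 h1).leftInvOn_invFunOn hx)
    have h3 : th0 X κ θ '' S = sphF C κ c θ := by
      ext y
      constructor
      · rintro ⟨x, hx, rfl⟩; exact th0_mem X hκ h0 h1.le hx
      · intro hy; exact th0_surj X hκ h0 h1 hy
    rw [h3] at h2
    exact Cx_609.plOn_iff.1 h2
  mf := fun x hx => th0_mem X hκ h0 h1.le hx
  mg := fun y hy => Function.invFunOn_mem (th0_surj X hκ h0 h1 hy)
  li := fun x hx => (th0_inj X hκ h0 h1).leftInvOn_invFunOn hx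
  ri := fun y hy => Function.invFunOn_eq (th0_surj X hκ h0 h1 hy)

/-- **the core chart** (type D) -/
theorem exists_coreTh [FiniteDimensional ℝ E] [FiniteDimensional ℝ E']
    (X : Trn S (C.below c) G) (hκ : 0 < κ ∧ κ < 1) (h0 : 0 ≤ θ) (h1 : θ < 1) {n : ℕ} {K : Set E'}
    (hK : IsBall n K S) (hc : IsBall n (C.cell c) (bdc C c)) :
    ∃ Th : PLEquiv K (coreF C κ c θ), MapsTo Th.f S (sphF C κ c θ) ∧
      MapsTo Th.g (sphF C κ c θ) S ∧ ∀ x ∈ S, cG C κ Th.f x = G x ∧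
        ctop C κ c Th.f x = (X.top x).1 ∧
        ∀ t ∈ C.cell (X.top x).1, ctr C κ Th.f Th.g x t = X.tr x t := by
  obtain ⟨Th, e1, e2⟩ := hK.extend (isBall_coreF hκ h0 h1 hc) (sphEquiv X.expl hκ h0 h1)
  have hf : ∀ x ∈ S, Th.f x = th0 X.expl κ θ x := fun x hx => e1 hx
  have hg : ∀ x ∈ S, Th.g (th0 X.expl κ θ x) = x := fun x hx => by
    rw [e2 (th0_mem X.expl hκ h0 h1.le hx)]
    exact (sphEquiv X.expl hκ h0 h1).li x hx
  refine ⟨Th, fun x hx => ?_, fun y hy => ?_, fun x hx => ?_⟩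
  · rw [hf x hx]; exact th0_mem X.expl hκ h0 h1.le hx
  · rw [e2 hy]; exact (sphEquiv X.expl hκ h0 h1).mg hy
  obtain ⟨a1, a2⟩ := th0_sl X.expl hκ h0 h1.le hx
  have htop : X.expl.IsTop x (X.top x) :=
    ⟨⟨hx, le_rfl, X.G_mem x hx⟩, fun q hq => hq.2.1⟩
  refine ⟨?_, ?_, fun t ht => ?_⟩
  · show st C κ (Th.f x) = G x
    rw [hf x hx, a2]
  · show mn c (sl C κ (Th.f x)) = _
    rw [hf x hx, a1]
    obtain ⟨m1, m2⟩ := X.expl.LAM_top htop
    have hst := bl_state (C := C) h0 h1.le (X.expl.LAM_state hx)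
    refine mn_eq c hst.wt ?_ (fun ρ hρ => ?_)
    · rw [Finsupp.mem_support_iff, bl_lt (X.top x).2]
      exact mul_ne_zero (by linarith) (Finsupp.mem_support_iff.1 m1)
    · rcases bl_mem hρ with h2 | ⟨h2, h3⟩
      · rw [h2]; exact (X.top x).2.le
      · exact m2 _ h3
  · have ht' : t ∈ (C.below c).cell (X.top x) := ht
    have hx' : X.tr x t ∈ S := X.tr_mem x hx t ht'
    have hG' : G (X.tr x t) = t := X.tr_G x hx t ht'
    have hPx' : X.tr x t ∈ X.P (X.top x) :=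
      ⟨hx', X.tr_top x hx t ht', by rw [hG']; exact ht'⟩
    have hL : X.expl.LAM (X.tr x t) = X.expl.LAM x := by
      rw [X.expl.LAM_eq (q := X.top x) hPx', X.expl.LAM_eq (q := X.top x) htop.1]
      congr 1
      show X.tr (X.tr x t) ((C.below c).b (X.top x)) = X.tr x ((C.below c).b (X.top x))
      exact X.tr_tr x hx t ht' _ ((C.below c).bmem _)
    show Th.g (pk C κ (sl C κ (Th.f x)) t) = X.tr x t
    have h3 : pk C κ (sl C κ (Th.f x)) t = th0 X.expl κ θ (X.tr x t) := by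
      rw [hf x hx, a1]
      unfold th0
      rw [hL, hG']
    rw [h3, hg _ hx']

/-- a local structure whose tops are `< c`, over the complex below `c` -/
theorem TrnOn.below {top : E' → Q} {tr : E' → E → E'} (h : TrnOn S C G top tr)
    (top' : E' → {q : Q // q < c}) (htop : ∀ x ∈ S, (top' x).1 = top x) :
    TrnOn S (C.below c) G top' tr := by
  have hset : ∀ q : {q : Q // q < c}, {x | x ∈ S ∧ q ≤ top' x ∧ G x ∈ (C.below c).cell q} =
      {x | x ∈ S ∧ q.1 ≤ top x ∧ G x ∈ C.cell q.1} := fun q => by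
    ext x
    simp only [mem_setOf_eq]
    constructor
    · rintro ⟨h1, h2, h3⟩
      exact ⟨h1, by rw [← htop x h1]; exact h2, h3⟩
    · rintro ⟨h1, h2, h3⟩
      exact ⟨h1, show q.1 ≤ (top' x).1 by rw [htop x h1]; exact h2, h3⟩
  have hcell : ∀ x ∈ S, (C.below c).cell (top' x) = C.cell (top x) := fun x hx => by
    show C.cell (top' x).1 = _
    rw [htop x hx]
  refine ⟨fun x hx => ?_, fun x hx t ht => ?_, fun x hx t ht => ?_, fun x hx t ht => ?_,
    fun x hx => h.tr_self x hx, fun x hx t ht s hs => ?_, fun q => ?_, fun q => ?_, fun q => ?_⟩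
  · rw [hcell x hx]; exact h.G_mem x hx
  · rw [hcell x hx] at ht; exact h.tr_mem x hx t ht
  · rw [hcell x hx] at ht; exact h.tr_G x hx t ht
  · rw [hcell x hx] at ht
    show (top' x).1 ≤ (top' (tr x t)).1
    rw [htop x hx, htop _ (h.tr_mem x hx t ht)]; exact h.tr_top x hx t ht
  · rw [hcell x hx] at ht hs; exact h.tr_tr x hx t ht s hs
  · rw [hset]; exact h.plG q.1
  · rw [hset]; exact h.plc q.1
  · exact h.pltr q.1

end Below

end Crest.Agent.R096.Xp_537
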