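import Crest.Agent.R096.Cst1_476
import Crest.Agent.R096.Xq5_537

/-!
# R096 (row 96), CORE-ST 2 (helper476): common cells near a point; local Lipschitz bounds on a convex
set are global
-/

set_option autoImplicit false
set_option linter.unusedSectionVars false
set_option linter.unusedVariables false

open Set Metric Filter Topology

namespace Crest.Agent.R096.Cst_476

open Crest.Agent.R096.Ce_537 Crest.Agent.R096.Bd_416 Crest.Agent.R096.Xp_537
open Crest.Agent.R096.Brk1_582 Crest.Agent.R096.Brk2_582 Crest.Agent.R096.Brk6_582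
open Crest.Agent.R096.Grd_714 Crest.Agent.R096.Bin_181 Crest.Agent.R096.Fl_835

section lip

variable {V W : Type*} [NormedAddCommGroup V] [NormedSpace ℝ V] [NormedAddCommGroup W]

/-- **local => global** on a convex set -/
theorem lip_of_local {S : Set V} (hS : Convex ℝ S) {G : V → W} {K : ℝ} (hK : 0 ≤ K)
    (h : ∀ x ∈ S, ∀ᶠ x' in 𝓝[S] x, ‖G x' - G x‖ ≤ K * ‖x' - x‖) {x x' : V} (hx : x ∈ S)
    (hx' : x' ∈ S) : ‖G x' - G x‖ ≤ K * ‖x' - x‖ := by
  set L := K * ‖x' - x‖ with hL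
  have hL0 : 0 ≤ L := mul_nonneg hK (norm_nonneg _)
  set γ : ℝ → V := fun t => x + t • (x' - x) with hγ
  have hγc : Continuous γ := by fun_prop
  have hγS : ∀ t ∈ Icc (0 : ℝ) 1, γ t ∈ S := by
    intro t ht
    have := hS hx hx' (sub_nonneg.2 ht.2) ht.1 (by ring)
    have e : γ t = (1 - t) • x + t • x' := by simp only [hγ]; module
    rw [e]; exact this
  have hd : ∀ s t, ‖γ s - γ t‖ = |s - t| * ‖x' - x‖ := by
    intro s t
    have e : γ s - γ t = (s - t) • (x' - x) := by simp only [hγ]; module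
    rw [e, norm_smul, Real.norm_eq_abs]
  have hloc : ∀ t ∈ Icc (0 : ℝ) 1, ∀ᶠ s in 𝓝[Icc 0 1] t,
      ‖G (γ s) - G (γ t)‖ ≤ L * |s - t| := by
    intro t ht
    have h1 : Tendsto γ (𝓝[Icc 0 1] t) (𝓝[S] (γ t)) :=
      tendsto_nhdsWithin_iff.2 ⟨(hγc.tendsto t).mono_left nhdsWithin_le_nhds,
        eventually_mem_nhdsWithin.mono fun s hs => hγS s hs⟩
    filter_upwards [h1.eventually (h _ (hγS t ht))] with s hs
    refine hs.trans (le_of_eq ?_)
    rw [hd, hL]; ring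
  have hc : ContinuousOn (fun t => G (γ t)) (Icc 0 1) := by
    intro t ht
    rw [ContinuousWithinAt, tendsto_iff_norm_sub_tendsto_zero]
    have h2 : Tendsto (fun s => L * |s - t|) (𝓝[Icc 0 1] t) (𝓝 0) := by
      have : Tendsto (fun s : ℝ => L * |s - t|) (𝓝 t) (𝓝 (L * |t - t|)) :=
        ((continuous_const.mul ((continuous_id.sub continuous_const).abs)).tendsto t)
      rw [sub_self, abs_zero, mul_zero] at this
      exact this.mono_left nhdsWithin_le_nhds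
    refine squeeze_zero' (Eventually.of_forall fun s => norm_nonneg _) (hloc t ht) h2
  have hsub : Icc (0 : ℝ) 1 ⊆ {t | ‖G (γ t) - G (γ 0)‖ ≤ L * t} := by
    have hcl : IsClosed ({t | ‖G (γ t) - G (γ 0)‖ ≤ L * t} ∩ Icc (0 : ℝ) 1) := by
      have h3 : ContinuousOn (fun t => L * t - ‖G (γ t) - G (γ 0)‖) (Icc (0 : ℝ) 1) :=
        (continuousOn_const.mul continuousOn_id).sub ((hc.sub continuousOn_const).norm)
      have h4 := h3.preimage_isClosed_of_isClosed isClosed_Icc (isClosed_Ici (a := (0 : ℝ)))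
      have e : {t | ‖G (γ t) - G (γ 0)‖ ≤ L * t} ∩ Icc (0 : ℝ) 1 =
          Icc 0 1 ∩ (fun t => L * t - ‖G (γ t) - G (γ 0)‖) ⁻¹' Ici 0 := by
        ext t
        simp only [mem_inter_iff, mem_ofPred_eq, mem_preimage, mem_Ici, sub_nonneg, and_comm]
      rw [e]; exact h4
    refine hcl.Icc_subset_of_forall_exists_gt ?_ ?_
    · show ‖G (γ 0) - G (γ 0)‖ ≤ L * 0
      rw [sub_self, norm_zero, mul_zero]
    · rintro t ⟨ht, ht0⟩ y hy
      have h5 : ∀ᶠ s in 𝓝[>] t, ‖G (γ s) - G (γ t)‖ ≤ L * |s - t| := by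
        have h6 : 𝓝[>] t ≤ 𝓝[Icc 0 1] t := by
          rw [nhdsWithin, nhdsWithin]
          refine le_inf inf_le_left ?_
          have h7 : Icc (0 : ℝ) 1 ∈ 𝓝[>] t := by
            refine mem_nhdsWithin_iff_exists_mem_nhds_inter.2 ⟨Iio 1, Iio_mem_nhds ht0.2, ?_⟩
            rintro s ⟨hs1, hs2⟩
            exact ⟨ht0.1.trans (le_of_lt hs2), le_of_lt hs1⟩
          exact le_principal_iff.2 h7
        exact h6 (hloc t ⟨ht0.1, ht0.2.le⟩)
      have h8 : ∀ᶠ s in 𝓝[>] t, s ∈ Ioc t y := Ioc_mem_nhdsGT hy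
      obtain ⟨s, hs1, hs2⟩ := (h5.and h8).exists
      refine ⟨s, ?_, hs2⟩
      show ‖G (γ s) - G (γ 0)‖ ≤ L * s
      have ht' : ‖G (γ t) - G (γ 0)‖ ≤ L * t := ht
      rw [abs_of_pos (sub_pos.2 hs2.1)] at hs1
      calc ‖G (γ s) - G (γ 0)‖ = ‖(G (γ s) - G (γ t)) + (G (γ t) - G (γ 0))‖ := by
            rw [sub_add_sub_cancel]
        _ ≤ ‖G (γ s) - G (γ t)‖ + ‖G (γ t) - G (γ 0)‖ := norm_add_le _ _
        _ ≤ L * (s - t) + L * t := add_le_add hs1 ht'
        _ = L * s := by ring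
  have h9 := hsub (right_mem_Icc.2 zero_le_one)
  have e0 : γ 0 = x := by simp [hγ]
  have e1 : γ 1 = x' := by simp [hγ]
  have h10 : ‖G (γ 1) - G (γ 0)‖ ≤ L * 1 := h9
  rwa [e0, e1, mul_one] at h10

end lip

section cc

variable {E : Type*} [NormedAddCommGroup E] [NormedSpace ℝ E]
variable {Q : Type*} [PartialOrder Q] {Λ : Set E}

/-- near `y` only the cells of `y` occur -/
theorem near_cells (C : CC Λ Q) {y : E} (hy : y ∈ Λ) :
    ∀ᶠ y' in 𝓝 y, ∀ q, y' ∈ C.cell q → y ∈ C.cell q := by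
  obtain ⟨r, hr, hf⟩ := C.lf y hy
  have h1 : ∀ q ∈ {q | (C.cell q ∩ Metric.ball y r).Nonempty},
      ∀ᶠ y' in 𝓝 y, y' ∈ C.cell q → y ∈ C.cell q := by
    intro q _
    by_cases h : y ∈ C.cell q
    · exact Eventually.of_forall fun _ _ => h
    · filter_upwards [(C.cpt q).isClosed.isOpen_compl.mem_nhds h] with y' hy' h'
      exact absurd h' hy'
  filter_upwards [(hf.eventually_all).2 h1, Metric.ball_mem_nhds y hr] with y' h2 h3 q hq
  exact h2 q ⟨y', hq, h3⟩ hq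

end cc

section foam

variable {E : Type*} [NormedAddCommGroup E] [NormedSpace ℝ E] {I : Type*}
variable {b : Set I → E} {P : I → Set E} {m : I → ℕ}
variable {La : Set E} [CompleteSpace E] (F : Foam La P b 4) (hQ : Quads P b)
  (hne : ∀ c, (P c).Nonempty) (hm : ∀ c, 0 < m c)

/-- the points of `bd P_c` lie in grid cells of `c` -/
theorem exists_gr {c c' : I} (hcc : c' ≠ c) {y : E} (hy : y ∈ P c) (hy' : y ∈ P c') :
    ∃ q : Gx P m, q.hi c = 0 ∧ y ∈ (grid F hQ hne hm).cell (.gr q) := by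
  obtain ⟨g, hg, rfl⟩ := exists_Tq F hQ hm (F.sub c hy) hcc hy' hy
  refine ⟨flb hm g hg, ?_, g, mem_flb hm hg, rfl⟩
  rw [← Gx.zero_iff_of_obx (flb_mem_obx hm hg)]
  exact (Tq_mem_iff F hQ hm hg).1 hy

/-- **a point of `bd P_c` near `y` shares a grid cell with `y`** -/
theorem share {c : I} {y : E} (hy : y ∈ P c) :
    ∀ᶠ y' in 𝓝 y, y' ∈ P c → (∃ c', c' ≠ c ∧ y' ∈ P c') →
      ∃ q : Gx P m, q.hi c = 0 ∧ y ∈ (grid F hQ hne hm).cell (.gr q) ∧
        y' ∈ (grid F hQ hne hm).cell (.gr q) := by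
  filter_upwards [near_cells (grid F hQ hne hm) (F.sub c hy)] with y' h h1 ⟨c', h2, h3⟩
  obtain ⟨q, hq, hq'⟩ := exists_gr F hQ hne hm h2 h1 h3
  exact ⟨q, hq, h _ hq', hq'⟩

variable {κ : ℝ} (hκ : 0 < κ ∧ κ < 1)

include hκ in
/-- **the points of the shell**: `p = (1 - κ r) y + κ r b_c` -/
theorem exists_shell {c : I} {p : E} (hp : p ∈ P c)
    (h1 : sl (grid F hQ hne hm) κ p (.top c) ≠ 1) :
    ∃ y r, 0 ≤ r ∧ r < 1 ∧ (∃ q : Gx P m, q.hi c = 0 ∧ y ∈ (grid F hQ hne hm).cell (.gr q)) ∧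
      p = (1 - κ * r) • y + (κ * r) • b {c} := by
  obtain ⟨u, hu, he⟩ := radial (C := grid F hQ hne hm) (c := .top c) hκ hp h1
  obtain ⟨q, hq, huq⟩ := mem_iUnion₂.1 hu
  have hs := (st_spec (grid F hQ hne hm) hκ (q := .top c) hp).1
  have h0 : 0 ≤ sl (grid F hQ hne hm) κ p (.top c) := hs.nn _
  have hle : sl (grid F hQ hne hm) κ p (.top c) ≤ 1 := by
    by_cases hq' : (.top c : Cel P m) ∈ (sl (grid F hQ hne hm) κ p).support
    · rw [← hs.sum]; exact Finset.single_le_sum (fun ρ _ => hs.nn ρ) hq'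
    · rw [Finsupp.notMem_support_iff.1 hq']; exact zero_le_one
  refine ⟨u, _, h0, lt_of_le_of_ne hle h1, ?_, he⟩
  cases q with
  | top c' => exact absurd hq Cel.not_top_lt
  | gr q => exact ⟨q, Cel.gr_lt_top.1 hq, huq⟩

end foam

end Crest.Agent.R096.Cst_476
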