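import Mathlib
import Crest.Prelude.Def_VecCalc3

/-!
Row 96, SK-CUBES (1): L^p Lebesgue points and rotated cubes.
-/

set_option autoImplicit false

open MeasureTheory Set Metric Filter Topology
open scoped ENNReal NNReal

namespace Crest.Agent.R096.Cub_298

open Crest.AnalysisR.VecCalc3

noncomputable section

/-- closed cube with centre `x`, half side `r`, in the frame `V` -/
def Kc (V : R3 ≃ₗᵢ[ℝ] R3) (x : R3) (r : ℝ) : Set R3 :=
  {y | ∃ u : R3, (∀ i, |u i| ≤ 1) ∧ y = x + r • V u}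

theorem norm_le_two {u : R3} (h : ∀ i, |u i| ≤ 1) : ‖u‖ ≤ 2 := by
  rw [EuclideanSpace.norm_eq, Real.sqrt_le_iff]
  refine ⟨by norm_num, ?_⟩
  have h1 : ∀ i : Fin 3, ‖u i‖ ^ 2 ≤ 1 := by
    intro i
    rw [Real.norm_eq_abs]
    have := h i
    have h0 := abs_nonneg (u i)
    nlinarith
  rw [Fin.sum_univ_three]
  linarith [h1 0, h1 1, h1 2]

theorem abs_le_of_norm {u : R3} (h : ‖u‖ ≤ 1) (i : Fin 3) : |u i| ≤ 1 := by
  have h1 := PiLp.norm_apply_le u i
  rw [Real.norm_eq_abs] at h1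
  exact h1.trans h

theorem Kc_subset (V : R3 ≃ₗᵢ[ℝ] R3) (x : R3) {r : ℝ} (hr : 0 ≤ r) :
    Kc V x r ⊆ closedBall x (2 * r) := by
  rintro y ⟨u, hu, rfl⟩
  rw [mem_closedBall, dist_eq_norm]
  have h1 := norm_le_two hu
  have : x + r • V u - x = r • V u := by abel
  rw [this, norm_smul, Real.norm_of_nonneg hr, LinearIsometryEquiv.norm_map]
  nlinarith

theorem subset_Kc (V : R3 ≃ₗᵢ[ℝ] R3) (x : R3) {r : ℝ} (hr : 0 < r) :
    closedBall x r ⊆ Kc V x r := by
  intro y hy
  rw [mem_closedBall, dist_eq_norm] at hy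
  refine ⟨V.symm (r⁻¹ • (y - x)), ?_, ?_⟩
  · apply abs_le_of_norm
    rw [LinearIsometryEquiv.norm_map, norm_smul, norm_inv, Real.norm_of_nonneg hr.le]
    rw [inv_mul_le_iff₀ hr]
    linarith
  · rw [LinearIsometryEquiv.apply_symm_apply, smul_smul, mul_inv_cancel₀ hr.ne', one_smul]
    abel

theorem isCompact_Kc (V : R3 ≃ₗᵢ[ℝ] R3) (x : R3) (r : ℝ) : IsCompact (Kc V x r) := by
  have h1 : IsCompact {u : R3 | ∀ i, |u i| ≤ 1} := by
    apply Metric.isCompact_of_isClosed_isBounded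
    · have : {u : R3 | ∀ i, |u i| ≤ 1} = ⋂ i, {u : R3 | |u i| ≤ 1} := by
        ext u; simp
      rw [this]
      apply isClosed_iInter
      intro i
      have hc : Continuous (fun u : R3 => |u i|) :=
        (EuclideanSpace.proj (𝕜 := ℝ) i).continuous.abs
      exact isClosed_le hc continuous_const
    · refine (Metric.isBounded_closedBall (x := (0 : R3)) (r := 2)).subset ?_
      intro u hu
      rw [mem_closedBall_zero_iff]
      exact norm_le_two hu
  have h2 : Kc V x r = (fun u : R3 => x + r • V u) '' {u : R3 | ∀ i, |u i| ≤ 1} := by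
    ext y
    constructor
    · rintro ⟨u, hu, rfl⟩
      exact ⟨u, hu, rfl⟩
    · rintro ⟨u, hu, rfl⟩
      exact ⟨u, hu, rfl⟩
  rw [h2]
  apply h1.image
  fun_prop

theorem vol_closedBall (x : R3) {r : ℝ} (hr : 0 ≤ r) :
    volume (closedBall x r) = ENNReal.ofReal (r ^ 3) * volume (closedBall (0 : R3) 1) := by
  rw [Measure.addHaar_closedBall' volume x hr]
  simp

theorem vol_ball_comp (V : R3 ≃ₗᵢ[ℝ] R3) (x : R3) {r c : ℝ} (hr : 0 < r) (hc : 0 ≤ c) :
    volume (closedBall x (c * r)) ≤ ENNReal.ofReal (c ^ 3) * volume (Kc V x r) := by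
  have h1 : volume (closedBall x r) ≤ volume (Kc V x r) := measure_mono (subset_Kc V x hr)
  have h2 : volume (closedBall x (c * r)) = ENNReal.ofReal (c ^ 3) * volume (closedBall x r) := by
    rw [vol_closedBall x (mul_nonneg hc hr.le), vol_closedBall x hr.le, mul_pow,
      ENNReal.ofReal_mul (by positivity), mul_assoc]
  rw [h2]
  gcongr

/-- `L^p` Lebesgue points. -/
theorem ae_leb {Om : Set R3} (hO : IsOpen Om) (hb : Bornology.IsBounded Om) {p : ℝ} (hp : 1 ≤ p)
    {G : R3 → R3} (hG : MemLp G (ENNReal.ofReal p) (volume.restrict Om)) :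
    ∀ᵐ x ∂(volume.restrict Om), ∀ δ : ℝ≥0∞, 0 < δ → ∀ᶠ r in 𝓝[>] (0 : ℝ),
      ∫⁻ y in closedBall x r, ‖G y - G x‖ₑ ^ p ≤ δ * volume (closedBall x r) := by
  have hp0 : 0 < p := by linarith
  have hfin : volume Om ≠ ∞ := hb.measure_lt_top.ne
  have hint : ∫⁻ y in Om, ‖G y‖ₑ ^ p ≠ ∞ := by
    have h1 := hG.2
    rw [eLpNorm_lt_top_iff_lintegral_rpow_enorm_lt_top (by simpa using hp0)
      ENNReal.ofReal_ne_top] at h1
    rw [ENNReal.toReal_ofReal hp0.le] at h1
    exact h1.ne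
  -- the comparison functions
  set S := TopologicalSpace.denseSeq R3 with hS
  have key : ∀ n : ℕ, ∀ᵐ x ∂(volume : Measure R3), x ∈ Om →
      Tendsto (fun r => (∫⁻ y in closedBall x r, Om.indicator (fun y => ‖G y - S n‖ₑ ^ p) y) /
        volume (closedBall x r)) (𝓝[>] 0) (𝓝 (‖G x - S n‖ₑ ^ p)) := by
    intro n
    have hm : AEMeasurable (Om.indicator (fun y => ‖G y - S n‖ₑ ^ p)) volume := by
      rw [aemeasurable_indicator_iff hO.measurableSet]
      exact ((hG.1.aemeasurable.sub aemeasurable_const).enorm).pow_const _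
    have hi : ∫⁻ y, Om.indicator (fun y => ‖G y - S n‖ₑ ^ p) y ≠ ∞ := by
      rw [lintegral_indicator hO.measurableSet]
      have h1 : ∫⁻ y in Om, ‖G y - S n‖ₑ ^ p ≤
          ∫⁻ y in Om, 2 ^ (p - 1) * (‖G y‖ₑ ^ p + ‖S n‖ₑ ^ p) := by
        apply lintegral_mono
        intro y
        refine le_trans ?_ (ENNReal.rpow_add_le_mul_rpow_add_rpow _ _ hp)
        exact ENNReal.rpow_le_rpow enorm_sub_le hp0.le
      have h2 : ∫⁻ y in Om, 2 ^ (p - 1) * (‖G y‖ₑ ^ p + ‖S n‖ₑ ^ p) < ∞ := by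
        rw [lintegral_const_mul' _ _ (by
          exact ENNReal.rpow_ne_top_of_nonneg (by linarith) (by simp)),
          lintegral_add_right _ measurable_const, lintegral_const,
          Measure.restrict_apply_univ]
        apply ENNReal.mul_lt_top
        · exact ENNReal.rpow_lt_top_of_nonneg (by linarith) (by simp)
        · apply ENNReal.add_lt_top.2 ⟨hint.lt_top, ?_⟩
          apply ENNReal.mul_lt_top _ hfin.lt_top
          exact ENNReal.rpow_lt_top_of_nonneg hp0.le (by simp)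
      exact (h1.trans_lt h2).ne
    have h3 := (Besicovitch.vitaliFamily (volume : Measure R3)).ae_tendsto_lintegral_div hm hi
    filter_upwards [h3] with x hx hxO
    have h4 := hx.comp (Besicovitch.tendsto_filterAt (volume : Measure R3) x)
    rw [indicator_of_mem hxO] at h4
    exact h4
  rw [ae_restrict_iff' hO.measurableSet]
  filter_upwards [ae_all_iff.2 key] with x hx hxO
  intro δ hδ
  -- choose a dense point near G x
  have hc : (0 : ℝ≥0∞) < 2 ^ (p - 1) := ENNReal.rpow_pos (by simp) (by simp)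
  have hcT : (2 : ℝ≥0∞) ^ (p - 1) ≠ ∞ :=
    ENNReal.rpow_ne_top_of_nonneg (by linarith) (by simp)
  obtain ⟨n, hn⟩ : ∃ n, 2 ^ (p - 1) * (3 * ‖G x - S n‖ₑ ^ p) < δ := by
    have h1 : Tendsto (fun c : R3 => 2 ^ (p - 1) * (3 * ‖G x - c‖ₑ ^ p)) (𝓝 (G x)) (𝓝 0) := by
      have h2 : Tendsto (fun c : R3 => ‖G x - c‖ₑ) (𝓝 (G x)) (𝓝 0) := by
        have : Tendsto (fun c : R3 => G x - c) (𝓝 (G x)) (𝓝 (G x - G x)) :=
          tendsto_const_nhds.sub tendsto_id
        rw [sub_self] at this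
        have h5 := this.enorm
        simpa using h5
      have h3 := h2.ennrpow_const p
      rw [ENNReal.zero_rpow_of_pos hp0] at h3
      have h4 := ENNReal.Tendsto.const_mul (a := (2 : ℝ≥0∞) ^ (p - 1))
        (ENNReal.Tendsto.const_mul (a := (3 : ℝ≥0∞)) h3 (Or.inr (by simp))) (Or.inr hcT)
      simpa using h4
    have h2 : ∀ᶠ c in 𝓝 (G x), 2 ^ (p - 1) * (3 * ‖G x - c‖ₑ ^ p) < δ :=
      h1.eventually (gt_mem_nhds hδ)
    obtain ⟨n, hn⟩ := (TopologicalSpace.denseRange_denseSeq R3).exists_mem_open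
      (isOpen_interior (s := {c : R3 | 2 ^ (p - 1) * (3 * ‖G x - c‖ₑ ^ p) < δ}))
      ⟨G x, mem_interior_iff_mem_nhds.2 h2⟩
    have hn' := interior_subset hn
    exact ⟨n, hn'⟩
  set c : ℝ≥0∞ := ‖G x - S n‖ₑ ^ p with hcdef
  have hcT' : c ≠ ∞ := ENNReal.rpow_ne_top_of_nonneg hp0.le (by simp)
  have h1 : 2 ^ (p - 1) * (c + c) < δ := by
    refine lt_of_le_of_lt ?_ hn
    gcongr
    rw [show (3 : ℝ≥0∞) = 2 + 1 by norm_num, add_mul, two_mul, one_mul]
    exact le_self_add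
  have h2 : Tendsto (fun r => 2 ^ (p - 1) * ((∫⁻ y in closedBall x r,
      Om.indicator (fun y => ‖G y - S n‖ₑ ^ p) y) / volume (closedBall x r) + c))
      (𝓝[>] 0) (𝓝 (2 ^ (p - 1) * (c + c))) :=
    ENNReal.Tendsto.const_mul ((hx n hxO).add_const c) (Or.inr hcT)
  have h3 := h2.eventually (gt_mem_nhds h1)
  obtain ⟨ρ, hρ, hρO⟩ := Metric.isOpen_iff.1 hO x hxO
  have h4 : ∀ᶠ r in 𝓝[>] (0 : ℝ), r ∈ Ioo 0 ρ := Ioo_mem_nhdsGT hρ
  filter_upwards [h3, h4] with r hr hr2
  have hsub : closedBall x r ⊆ Om := (closedBall_subset_ball hr2.2).trans hρO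
  have hv0 : volume (closedBall x r) ≠ 0 := (measure_closedBall_pos volume x hr2.1).ne'
  have hvT : volume (closedBall x r) ≠ ∞ := measure_closedBall_lt_top.ne
  have h5 : ∫⁻ y in closedBall x r, ‖G y - G x‖ₑ ^ p ≤
      ∫⁻ y in closedBall x r, 2 ^ (p - 1) *
        (Om.indicator (fun y => ‖G y - S n‖ₑ ^ p) y + c) := by
    apply setLIntegral_mono_ae' measurableSet_closedBall
    refine Eventually.of_forall fun y hy => ?_
    rw [indicator_of_mem (hsub hy), hcdef]
    refine le_trans ?_ (ENNReal.rpow_add_le_mul_rpow_add_rpow _ _ hp)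
    apply ENNReal.rpow_le_rpow _ hp0.le
    have : G y - G x = (G y - S n) - (G x - S n) := by abel
    rw [this]
    exact enorm_sub_le
  refine h5.trans ?_
  rw [lintegral_const_mul' _ _ hcT, lintegral_add_right _ measurable_const, lintegral_const,
    Measure.restrict_apply_univ]
  have h6 : ∫⁻ y in closedBall x r, Om.indicator (fun y => ‖G y - S n‖ₑ ^ p) y =
      (∫⁻ y in closedBall x r, Om.indicator (fun y => ‖G y - S n‖ₑ ^ p) y) /
        volume (closedBall x r) * volume (closedBall x r) := by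
    rw [ENNReal.div_mul_cancel hv0 hvT]
  rw [h6, ← add_mul, ← mul_assoc]
  gcongr

end

end Crest.Agent.R096.Cub_298
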