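import Crest.Agent.R096.Cub1_298

/-!
Row 96, SK-CUBES (2): finitely many disjoint rotated cubes on which `G` is nearly constant in
`L^p` mean and which cover almost everything (volume and energy).
-/

set_option autoImplicit false

open MeasureTheory Set Metric Filter Topology
open scoped ENNReal NNReal

namespace Crest.Agent.R096.Cub_298

open Crest.AnalysisR.VecCalc3

noncomputable section

theorem cubes {Om : Set R3} (hO : IsOpen Om) (hb : Bornology.IsBounded Om) {p : ℝ} (hp : 1 ≤ p)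
    {G : Fin 3 → R3 → R3} (hG : ∀ j, MemLp (G j) (ENNReal.ofReal p) (volume.restrict Om))
    (V : R3 → (R3 ≃ₗᵢ[ℝ] R3)) (d : R3 → ℝ) (hd : ∀ x, 0 < d x) {ε : ℝ≥0∞} (hε : 0 < ε) :
    ∃ T : Finset (R3 × ℝ),
      (∀ a ∈ T, a.1 ∈ Om ∧ 0 < a.2 ∧ Kc (V a.1) a.1 a.2 ⊆ Om ∧
        ∫⁻ y in Kc (V a.1) a.1 a.2, ∑ j, ‖G j y - G j a.1‖ₑ ^ p ≤
          ENNReal.ofReal (d a.1) * volume (Kc (V a.1) a.1 a.2)) ∧
      (T : Set (R3 × ℝ)).PairwiseDisjoint (fun a => Kc (V a.1) a.1 a.2) ∧
      ∫⁻ y in Om \ ⋃ a ∈ T, Kc (V a.1) a.1 a.2, ∑ j, ‖G j y‖ₑ ^ p < ε ∧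
      volume (Om \ ⋃ a ∈ T, Kc (V a.1) a.1 a.2) < ε := by
  have hp0 : 0 < p := by linarith
  set B : R3 × ℝ → Set R3 := fun a => Kc (V a.1) a.1 a.2 with hB
  have hBc : ∀ a, IsClosed (B a) := fun a => (isCompact_Kc _ _ _).isClosed
  -- good points
  have hgood : ∀ᵐ x ∂(volume.restrict Om), ∀ j, ∀ δ : ℝ≥0∞, 0 < δ → ∀ᶠ r in 𝓝[>] (0 : ℝ),
      ∫⁻ y in closedBall x r, ‖G j y - G j x‖ₑ ^ p ≤ δ * volume (closedBall x r) :=
    ae_all_iff.2 fun j => ae_leb hO hb hp (hG j)
  set good : Set R3 := {x | x ∈ Om ∧ ∀ j, ∀ δ : ℝ≥0∞, 0 < δ → ∀ᶠ r in 𝓝[>] (0 : ℝ),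
      ∫⁻ y in closedBall x r, ‖G j y - G j x‖ₑ ^ p ≤ δ * volume (closedBall x r)} with hgd
  have hnull : volume (Om \ good) = 0 := by
    rw [ae_restrict_iff' hO.measurableSet] at hgood
    refine measure_mono_null ?_ (mem_ae_iff.1 hgood)
    rintro x ⟨hx1, hx2⟩ hx3
    exact hx2 ⟨hx1, hx3 hx1⟩
  set t : Set (R3 × ℝ) := {a | a.1 ∈ Om ∧ 0 < a.2 ∧ B a ⊆ Om ∧
      ∫⁻ y in B a, ∑ j, ‖G j y - G j a.1‖ₑ ^ p ≤ ENNReal.ofReal (d a.1) * volume (B a)} with ht
  obtain ⟨u, hut, huc, hud, hu0⟩ := Vitali.exists_disjoint_covering_ae (volume : Measure R3) good t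
    216 (fun a => 2 * a.2) (fun a => a.1) B
    (fun a ha => Kc_subset _ _ ha.2.1.le)
    (by
      intro a ha
      have h1 := vol_ball_comp (V a.1) a.1 (r := a.2) (c := 6) ha.2.1 (by norm_num)
      have h2 : 3 * (2 * a.2) = 6 * a.2 := by ring
      rw [h2]
      refine h1.trans (le_of_eq ?_)
      congr 1
      norm_num)
    (by
      intro a ha
      refine ⟨a.1, ?_⟩
      rw [mem_interior_iff_mem_nhds]
      exact mem_of_superset (closedBall_mem_nhds _ ha.2.1) (subset_Kc _ _ ha.2.1))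
    (fun a _ => hBc a)
    (by
      intro x hx η hη
      set δ : ℝ≥0∞ := ENNReal.ofReal (d x / 24) with hδ
      have hδ0 : 0 < δ := ENNReal.ofReal_pos.2 (by have := hd x; positivity)
      have h1 : ∀ᶠ s in 𝓝[>] (0 : ℝ), ∀ j,
          ∫⁻ y in closedBall x s, ‖G j y - G j x‖ₑ ^ p ≤ δ * volume (closedBall x s) :=
        eventually_all.2 fun j => hx.2 j δ hδ0
      obtain ⟨ρ, hρ, hρO⟩ := Metric.isOpen_iff.1 hO x hx.1
      have h2 : ∀ᶠ s in 𝓝[>] (0 : ℝ), s ∈ Ioo 0 (min ρ η) := Ioo_mem_nhdsGT (lt_min hρ hη)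
      obtain ⟨s, hs1, hs2⟩ := (h1.and h2).exists
      have hs0 : 0 < s := hs2.1
      refine ⟨(x, s / 2), ⟨hx.1, by simpa using hs0, ?_, ?_⟩, ?_, rfl⟩
      · have h3 := Kc_subset (V x) x (r := s / 2) (by positivity)
        have h4 : 2 * (s / 2) = s := by ring
        rw [h4] at h3
        exact h3.trans ((closedBall_subset_ball (hs2.2.trans_le (min_le_left _ _))).trans hρO)
      · have h3 := Kc_subset (V x) x (r := s / 2) (by positivity)
        have h4 : 2 * (s / 2) = s := by ring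
        rw [h4] at h3
        have h5 : B (x, s / 2) ⊆ Om :=
          h3.trans ((closedBall_subset_ball (hs2.2.trans_le (min_le_left _ _))).trans hρO)
        have h6 : ∫⁻ y in B (x, s / 2), ∑ j, ‖G j y - G j x‖ₑ ^ p =
            ∑ j, ∫⁻ y in B (x, s / 2), ‖G j y - G j x‖ₑ ^ p := by
          apply lintegral_finsetSum'
          intro j _
          have h7 : AEMeasurable (G j) (volume.restrict (B (x, s / 2))) :=
            (hG j).1.aemeasurable.mono_measure (Measure.restrict_mono h5 le_rfl)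
          exact ((h7.sub aemeasurable_const).enorm).pow_const _
        change ∫⁻ y in B (x, s / 2), ∑ j, ‖G j y - G j x‖ₑ ^ p ≤ _
        rw [h6]
        have h8 : ∀ j, ∫⁻ y in B (x, s / 2), ‖G j y - G j x‖ₑ ^ p ≤
            δ * volume (closedBall x s) := fun j =>
          (lintegral_mono_set h3).trans (hs1 j)
        have h9 : volume (closedBall x s) ≤ ENNReal.ofReal (2 ^ 3) * volume (B (x, s / 2)) := by
          have := vol_ball_comp (V x) x (r := s / 2) (c := 2) (by positivity) (by norm_num)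
          rwa [h4] at this
        calc ∑ j, ∫⁻ y in B (x, s / 2), ‖G j y - G j x‖ₑ ^ p
            ≤ ∑ _j : Fin 3, δ * (ENNReal.ofReal (2 ^ 3) * volume (B (x, s / 2))) := by
              apply Finset.sum_le_sum
              intro j _
              refine (h8 j).trans ?_
              gcongr
          _ = ENNReal.ofReal (d x) * volume (B (x, s / 2)) := by
              rw [Finset.sum_const, Finset.card_univ, Fintype.card_fin, nsmul_eq_mul,
                ← mul_assoc, ← mul_assoc, hδ]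
              congr 1
              have : ((3 : ℕ) : ℝ≥0∞) = ENNReal.ofReal 3 := by norm_num
              rw [this, ← ENNReal.ofReal_mul (by norm_num), ← ENNReal.ofReal_mul (by
                have := hd x; positivity)]
              congr 1
              ring
      · have : 2 * (s / 2) = s := by ring
        change 2 * (s / 2) ≤ η
        rw [this]
        exact (hs2.2.trans_le (min_le_right _ _)).le)
  -- the finite measure
  set F : R3 → ℝ≥0∞ := fun y => 1 + ∑ j, ‖G j y‖ₑ ^ p with hF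
  set ν : Measure R3 := (volume.restrict Om).withDensity F with hν
  have hFm : AEMeasurable (fun y => ∑ j, ‖G j y‖ₑ ^ p) (volume.restrict Om) :=
    Finset.aemeasurable_fun_sum _ fun j _ => ((hG j).1.aemeasurable.enorm).pow_const _
  have hint : ∀ j, ∫⁻ y in Om, ‖G j y‖ₑ ^ p ≠ ∞ := by
    intro j
    have h1 := (hG j).2
    rw [eLpNorm_lt_top_iff_lintegral_rpow_enorm_lt_top (by simpa using hp0)
      ENNReal.ofReal_ne_top] at h1
    rw [ENNReal.toReal_ofReal hp0.le] at h1
    exact h1.ne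
  have hνfin : ν univ ≠ ∞ := by
    rw [hν, withDensity_apply _ MeasurableSet.univ, Measure.restrict_univ, hF,
      lintegral_add_left measurable_const]
    apply ENNReal.add_ne_top.2 ⟨?_, ?_⟩
    · rw [lintegral_one, Measure.restrict_apply_univ]
      exact hb.measure_lt_top.ne
    · rw [lintegral_finsetSum' _ fun j _ => ((hG j).1.aemeasurable.enorm).pow_const _]
      exact ENNReal.sum_ne_top.2 fun j _ => hint j
  have : Countable u := huc.to_subtype
  have hdis : Pairwise (Function.onFun Disjoint (fun a : u => B a.1)) := by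
    intro a b hab
    exact hud a.2 b.2 (fun h => hab (Subtype.ext h))
  have hsum : ∑' a : u, ν (B a.1) ≠ ∞ := by
    rw [← measure_iUnion hdis (fun a => (hBc a.1).measurableSet)]
    exact ne_top_of_le_ne_top hνfin (measure_mono (subset_univ _))
  have htend := ENNReal.tendsto_tsum_compl_atTop_zero hsum
  obtain ⟨S, hS⟩ := (htend.eventually (gt_mem_nhds hε)).exists
  set T : Finset (R3 × ℝ) := S.map (Function.Embedding.subtype _) with hT
  have hTu : ∀ a ∈ T, a ∈ u := by
    intro a ha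
    rw [hT, Finset.mem_map] at ha
    obtain ⟨b, _, rfl⟩ := ha
    exact b.2
  have hνOm : ν (Om \ ⋃ a ∈ u, B a) = 0 := by
    have h1 : volume (Om \ ⋃ a ∈ u, B a) = 0 := by
      refine measure_mono_null ?_ (measure_union_null hnull hu0)
      rintro x ⟨hx1, hx2⟩
      by_cases hg : x ∈ good
      · exact Or.inr ⟨hg, hx2⟩
      · exact Or.inl ⟨hx1, hg⟩
    have h2 : (volume.restrict Om) (Om \ ⋃ a ∈ u, B a) = 0 :=
      le_antisymm ((Measure.restrict_apply_le _ _).trans h1.le) bot_le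
    exact withDensity_absolutelyContinuous _ _ h2
  have hmain : ν (Om \ ⋃ a ∈ T, B a) < ε := by
    refine lt_of_le_of_lt ?_ hS
    calc ν (Om \ ⋃ a ∈ T, B a)
        ≤ ν ((Om \ ⋃ a ∈ u, B a) ∪ ⋃ b : {x // x ∉ S}, B (b.1.1)) := by
          apply measure_mono
          rintro x ⟨hx1, hx2⟩
          by_cases hx3 : x ∈ ⋃ a ∈ u, B a
          · right
            rw [mem_iUnion₂] at hx3
            obtain ⟨a, ha, hxa⟩ := hx3
            rw [mem_iUnion]
            refine ⟨⟨⟨a, ha⟩, ?_⟩, hxa⟩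
            intro hS'
            apply hx2
            rw [mem_iUnion₂]
            refine ⟨a, ?_, hxa⟩
            rw [hT, Finset.mem_map]
            exact ⟨⟨a, ha⟩, hS', rfl⟩
          · exact Or.inl ⟨hx1, hx3⟩
      _ ≤ ν (Om \ ⋃ a ∈ u, B a) + ν (⋃ b : {x // x ∉ S}, B (b.1.1)) := measure_union_le _ _
      _ ≤ 0 + ∑' b : {x // x ∉ S}, ν (B (b.1.1)) := by
          gcongr
          · exact hνOm.le
          · exact measure_iUnion_le _
      _ = _ := by rw [zero_add]
  have hmeas : MeasurableSet (Om \ ⋃ a ∈ T, B a) := by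
    apply hO.measurableSet.diff
    exact Finset.measurableSet_biUnion _ fun a _ => (hBc a).measurableSet
  have hνeq : ν (Om \ ⋃ a ∈ T, B a) = ∫⁻ y in Om \ ⋃ a ∈ T, B a, F y := by
    rw [hν, withDensity_apply _ hmeas, Measure.restrict_restrict hmeas]
    congr 2
    exact inter_eq_left.2 sdiff_subset
  rw [hνeq] at hmain
  refine ⟨T, fun a ha => hut (hTu a ha), ?_, ?_, ?_⟩
  · intro a ha b hb hab
    exact hud (hTu a (by simpa using ha)) (hTu b (by simpa using hb)) hab
  · refine lt_of_le_of_lt ?_ hmain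
    apply lintegral_mono
    intro y
    exact le_add_self
  · refine lt_of_le_of_lt ?_ hmain
    rw [← setLIntegral_one]
    apply lintegral_mono
    intro y
    exact le_self_add

end

end Crest.Agent.R096.Cub_298
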