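import Crest.Agent.R096.Msh5_715
import Crest.Agent.R096.Cel1_715

/-!
# R096 (row 96), TINY-MESH (helper715), part 1: cutting a tiling along level sets of PL functions

`Cut` : the output of the cutting theorem.
-/

set_option autoImplicit false

open Set Metric Filter Topology Module
open scoped Classical

namespace Crest.Agent.R096.Msh_715

variable {E : Type*} [NormedAddCommGroup E] [NormedSpace ℝ E]

theorem affine_eval {F : Type*} [AddCommGroup F] [Module ℝ F] (g : E →ᵃ[ℝ] F) (x : E) :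
    g x = g.linear x + g 0 := by
  have := g.map_vadd 0 x
  simpa using this

theorem affine_seg (g : E →ᵃ[ℝ] ℝ) (x v : E) (s : ℝ) :
    g (x + s • (v - x)) = (1 - s) * g x + s * g v := by
  rw [affine_eval g, affine_eval g x, affine_eval g v, map_add, map_smul, map_sub, smul_eq_mul]
  ring

namespace Tiling

variable {Om : Set E} {ι : Type*} (T : Tiling Om ι) {HH : ι → Finset ((E →L[ℝ] ℝ) × ℝ)}

/-- off the cuts nothing changes -/
theorem refine_V_eq (h0 : ∀ i, ∀ h ∈ HH i, h.1 ≠ 0) {x : E}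
    (hx : ∀ i ∈ T.at_ x, ∀ h ∈ HH i, h.1 x ≠ h.2) : (T.refine HH h0).V x = T.V x := by
  ext v
  rw [mem_V, mem_V]
  constructor
  · intro hv i hi h hh he
    obtain ⟨p, rfl, hp⟩ := T.exists_mem_at h0 hi
    exact hv p hp h (T.sub_rH HH _ _ hh) he
  · intro hv p hp h hh he
    have hi := T.tile_mem_at h0 hp
    rcases Finset.mem_union.1 hh with hh | hh
    · exact hv _ hi h hh he
    · obtain ⟨g, hg, rfl⟩ := Finset.mem_image.1 hh
      exfalso
      apply hx _ hi g hg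
      by_cases hs : g ∈ p.1.2
      · simp only [hs, if_true, opp_fst, opp_snd] at he
        linarith
      · simpa only [hs, if_false] using he

theorem refine_dim_eq (h0 : ∀ i, ∀ h ∈ HH i, h.1 ≠ 0) {x : E}
    (hx : ∀ i ∈ T.at_ x, ∀ h ∈ HH i, h.1 x ≠ h.2) : (T.refine HH h0).dim x = T.dim x := by
  unfold dim
  rw [T.refine_V_eq h0 hx]

variable [FiniteDimensional ℝ E]

/-- finitely many vertices in a compact set -/
theorem finite_vertices {K : Set E} (hK : IsCompact K) (hKO : K ⊆ Om) :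
    {v | v ∈ K ∧ T.dim v = 0}.Finite := by
  have hfin := T.finite_cells hK hKO
  refine Set.Finite.of_finite_image (f := fun v => ({v} : Set E)) (hfin.subset ?_)
    (fun a _ b _ h => singleton_injective h)
  rintro _ ⟨v, ⟨hv, h0⟩, rfl⟩
  refine ⟨⟨v, hKO hv, ?_⟩, v, rfl, hv⟩
  exact (T.cc_eq_singleton (T.dim_eq_zero_iff.1 h0)).symm

/-- an affine function attains its minimum on a tile at a vertex -/
theorem exists_vertex_le {q : ι} {x : E} (hx : x ∈ P (T.H q)) (g : E →ᵃ[ℝ] ℝ) :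
    ∃ v ∈ P (T.H q), T.dim v = 0 ∧ g v ≤ g x := by
  obtain ⟨x0, hx0, hmin⟩ := (T.cpt q).exists_isMinOn ⟨x, hx⟩
    (AffineMap.continuous_of_finiteDimensional g).continuousOn
  have hmin' : ∀ y ∈ P (T.H q), g x0 ≤ g y := fun y hy => hmin hy
  have hO := T.sub q hx0
  obtain ⟨v, hv, hv0⟩ := T.exists_vertex hO
  refine ⟨v, T.cc_sub_tile hx0 hv, hv0, ?_⟩
  obtain ⟨r, hr, hoc⟩ := T.exists_ball_oc hO
  -- the point opposite to `v`
  have hV : x0 - v ∈ T.V x0 := T.sub_mem_V' (T.self_mem_cc x0) hv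
  set s : ℝ := r / (2 * (‖x0 - v‖ + 1)) with hs
  have hs0 : 0 < s := by positivity
  have hsn : ‖s • (x0 - v)‖ < r := by
    rw [norm_smul, Real.norm_eq_abs, abs_of_pos hs0, hs, div_mul_eq_mul_div, div_lt_iff₀ (by positivity)]
    nlinarith [norm_nonneg (x0 - v)]
  have h1 := hoc _ ((T.V x0).smul_mem s hV) hsn
  have h2 := hmin' _ (T.cc_sub_tile hx0 (T.oc_sub_cc _ h1))
  have h3 : g (x0 + s • (x0 - v)) = (1 + s) * g x0 - s * g v := by
    rw [affine_eval g, affine_eval g x0, affine_eval g v, map_add, map_smul, map_sub, smul_eq_mul]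
    ring
  rw [h3] at h2
  have h4 : g v ≤ g x0 := by nlinarith
  exact h4.trans (hmin' x hx)

theorem exists_vertex_ge {q : ι} {x : E} (hx : x ∈ P (T.H q)) (g : E →ᵃ[ℝ] ℝ) :
    ∃ v ∈ P (T.H q), T.dim v = 0 ∧ g x ≤ g v := by
  obtain ⟨v, h1, h2, h3⟩ := T.exists_vertex_le hx (-g)
  refine ⟨v, h1, h2, ?_⟩
  have : -(g v) ≤ -(g x) := h3
  linarith

/-- an affine function attains its minimum on a closed cell at a vertex -/
theorem exists_vertex_le_cc {x y : E} (hx : x ∈ Om) (hy : y ∈ T.cc x) (g : E →ᵃ[ℝ] ℝ) :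
    ∃ v ∈ T.cc x, T.dim v = 0 ∧ g v ≤ g y := by
  obtain ⟨x0, hx0, hmin⟩ := (T.isCompact_cc hx).exists_isMinOn ⟨y, hy⟩
    (AffineMap.continuous_of_finiteDimensional g).continuousOn
  have hmin' : ∀ y ∈ T.cc x, g x0 ≤ g y := fun y hy => hmin hy
  have hO := T.cc_sub_Om hx hx0
  obtain ⟨v, hv, hv0⟩ := T.exists_vertex hO
  refine ⟨v, T.cc_sub_of_mem hx0 hv, hv0, ?_⟩
  obtain ⟨r, hr, hoc⟩ := T.exists_ball_oc hO
  have hV : x0 - v ∈ T.V x0 := T.sub_mem_V' (T.self_mem_cc x0) hv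
  set s : ℝ := r / (2 * (‖x0 - v‖ + 1)) with hs
  have hs0 : 0 < s := by positivity
  have hsn : ‖s • (x0 - v)‖ < r := by
    rw [norm_smul, Real.norm_eq_abs, abs_of_pos hs0, hs, div_mul_eq_mul_div, div_lt_iff₀ (by positivity)]
    nlinarith [norm_nonneg (x0 - v)]
  have h1 := hoc _ ((T.V x0).smul_mem s hV) hsn
  have h2 := hmin' _ (T.cc_sub_of_mem hx0 (T.oc_sub_cc _ h1))
  have h3 : g (x0 + s • (x0 - v)) = (1 + s) * g x0 - s * g v := by
    rw [affine_eval g, affine_eval g x0, affine_eval g v, map_add, map_smul, map_sub, smul_eq_mul]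
    ring
  rw [h3] at h2
  have h4 : g v ≤ g x0 := by nlinarith
  exact h4.trans (hmin' y hy)

theorem exists_vertex_ge_cc {x y : E} (hx : x ∈ Om) (hy : y ∈ T.cc x) (g : E →ᵃ[ℝ] ℝ) :
    ∃ v ∈ T.cc x, T.dim v = 0 ∧ g y ≤ g v := by
  obtain ⟨v, h1, h2, h3⟩ := T.exists_vertex_le_cc hx hy (-g)
  refine ⟨v, h1, h2, ?_⟩
  have : -(g v) ≤ -(g y) := h3
  linarith

/-- a level which is no vertex value meets the open cell if it meets the closed cell -/
theorem exists_level {x y : E} (hx : x ∈ Om) (g : E →ᵃ[ℝ] ℝ) {t : ℝ}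
    (hv : ∀ v ∈ T.cc x, T.dim v = 0 → g v ≠ t) (hy : y ∈ T.cc x) (hgy : g y = t) :
    ∃ z ∈ T.oc x, g z = t := by
  rcases lt_trichotomy (g x) t with h | h | h
  · obtain ⟨v, hv1, hv2, hv3⟩ := T.exists_vertex_ge_cc hx hy g
    have h1 : t < g v := lt_of_le_of_ne (hgy ▸ hv3) (Ne.symm (hv v hv1 hv2))
    refine ⟨v + ((g v - t) / (g v - g x)) • (x - v), T.move_mem_oc hv1 (div_pos (by linarith)
      (by linarith)) ((div_le_one (by linarith)).2 (by linarith)), ?_⟩
    rw [affine_seg]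
    have : g v - g x ≠ 0 := by linarith
    field_simp
    ring
  · exact ⟨x, T.self_mem_oc x, h⟩
  · obtain ⟨v, hv1, hv2, hv3⟩ := T.exists_vertex_le_cc hx hy g
    have h1 : g v < t := lt_of_le_of_ne (hgy ▸ hv3) (hv v hv1 hv2)
    refine ⟨v + ((t - g v) / (g x - g v)) • (x - v), T.move_mem_oc hv1 (div_pos (by linarith)
      (by linarith)) ((div_le_one (by linarith)).2 (by linarith)), ?_⟩
    rw [affine_seg]
    have : g x - g v ≠ 0 := by linarith
    field_simp
    ring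

omit [FiniteDimensional ℝ E] in
/-- the directions of a cell in the level -/
theorem refine_V_level (h0 : ∀ i, ∀ h ∈ HH i, h.1 ≠ 0) {z : E} (hz : z ∈ Om) {g : E →ᵃ[ℝ] ℝ} {t : ℝ}
    (hL : ∀ i ∈ T.at_ z, ∀ h ∈ HH i, ∀ y ∈ T.cc z, (h.1 y = h.2 ↔ g y = t))
    (hex : ∃ i ∈ T.at_ z, (HH i).Nonempty) (hgz : g z = t) :
    (T.refine HH h0).V z = T.V z ⊓ LinearMap.ker g.linear := by
  obtain ⟨r, hr, hoc⟩ := T.exists_ball_oc hz
  have hsm : ∀ v : E, ∃ s : ℝ, 0 < s ∧ ‖s • v‖ < r := by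
    intro v
    refine ⟨r / (2 * (‖v‖ + 1)), by positivity, ?_⟩
    rw [norm_smul, Real.norm_eq_abs, abs_of_pos (by positivity), div_mul_eq_mul_div,
      div_lt_iff₀ (by positivity)]
    nlinarith [norm_nonneg v]
  have hgv : ∀ (v : E) (s : ℝ), g (z + s • v) = t + s * g.linear v := by
    intro v s
    rw [affine_eval g, map_add, map_smul, smul_eq_mul, ← hgz, affine_eval g z]
    ring
  ext v
  rw [Submodule.mem_inf, LinearMap.mem_ker]
  constructor
  · intro hv
    have hvV : v ∈ T.V z := by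
      intro i hi h hh he
      obtain ⟨p, rfl, hp⟩ := T.exists_mem_at h0 hi
      exact hv p hp h (T.sub_rH HH _ _ hh) he
    refine ⟨hvV, ?_⟩
    obtain ⟨i, hi, h, hh⟩ := hex
    obtain ⟨p, rfl, hp⟩ := T.exists_mem_at h0 hi
    have hhz : h.1 z = h.2 := (hL _ hi h hh z (T.self_mem_cc z)).2 hgz
    have hhv : h.1 v = 0 := by
      by_cases hs : h ∈ p.1.2
      · have h1 := hv p hp (opp h) (T.mem_rH_of_mem HH hh hs) (by
          simp only [opp_fst, opp_snd]; linarith)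
        simp only [opp_fst] at h1
        linarith
      · exact hv p hp h (T.mem_rH_of_notMem HH hh hs) hhz
    obtain ⟨s, hs, hsr⟩ := hsm v
    have h1 := hoc _ ((T.V z).smul_mem s hvV) hsr
    have h2 := (hL _ hi h hh _ (T.oc_sub_cc _ h1)).1 (by
      rw [map_add, map_smul, hhv, hhz, smul_zero, add_zero])
    rw [hgv] at h2
    have h3 : s * g.linear v = 0 := by linarith
    exact (mul_eq_zero.1 h3).resolve_left hs.ne'
  · rintro ⟨hvV, hgl⟩ p hp h hh he
    have hi := T.tile_mem_at h0 hp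
    rcases Finset.mem_union.1 hh with hh | hh
    · exact hvV _ hi h hh he
    · obtain ⟨k, hk, rfl⟩ := Finset.mem_image.1 hh
      have hkz : k.1 z = k.2 := (hL _ hi k hk z (T.self_mem_cc z)).2 hgz
      obtain ⟨s, hs, hsr⟩ := hsm v
      have h1 := hoc _ ((T.V z).smul_mem s hvV) hsr
      have h2 := (hL _ hi k hk _ (T.oc_sub_cc _ h1)).2 (by rw [hgv, hgl]; ring)
      rw [map_add, map_smul, hkz, smul_eq_mul] at h2
      have h3 : k.1 v = 0 := by
        have : s * k.1 v = 0 := by linarith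
        exact (mul_eq_zero.1 this).resolve_left hs.ne'
      by_cases hs : k ∈ p.1.2
      · simp only [hs, if_true, opp_fst]
        exact neg_eq_zero.2 h3
      · simp only [hs, if_false]
        exact h3

theorem finrank_inf_ker {V : Submodule ℝ E} {L : E →ₗ[ℝ] ℝ} {v : E} (hv : v ∈ V) (hL : L v ≠ 0) :
    finrank ℝ ↥(V ⊓ LinearMap.ker L) + 1 = finrank ℝ V := by
  have hne : (L.comp V.subtype : Module.Dual ℝ V) ≠ 0 := by
    intro h
    apply hL
    have := LinearMap.congr_fun h ⟨v, hv⟩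
    simpa using this
  have h1 := Module.Dual.finrank_ker_add_one_of_ne_zero hne
  have h2 : (LinearMap.ker (L.comp V.subtype)).map V.subtype = V ⊓ LinearMap.ker L := by
    ext w
    simp only [Submodule.mem_map, LinearMap.mem_ker, LinearMap.comp_apply, Submodule.subtype_apply,
      Submodule.mem_inf]
    constructor
    · rintro ⟨u, hu, rfl⟩
      exact ⟨u.2, hu⟩
    · rintro ⟨hw1, hw2⟩
      exact ⟨⟨w, hw1⟩, hw2, rfl⟩
  rw [← h2, Submodule.finrank_map_subtype_eq]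
  exact h1

/-- **transversality of a level cut** -/
theorem refine_level (h0 : ∀ i, ∀ h ∈ HH i, h.1 ≠ 0) {x z : E} (hx : x ∈ Om) {g : E →ᵃ[ℝ] ℝ} {t : ℝ}
    (hL : ∀ i ∈ T.at_ x, ∀ h ∈ HH i, ∀ y ∈ T.cc x, (h.1 y = h.2 ↔ g y = t))
    (hex : ∃ i ∈ T.at_ x, (HH i).Nonempty) (hgx : g x ≠ t) (hz : z ∈ T.oc x) (hgz : g z = t) :
    z ∈ (T.refine HH h0).cc x ∧ (T.refine HH h0).dim z + 1 = (T.refine HH h0).dim x ∧
      ∀ y ∈ (T.refine HH h0).cc x, g y = t → y ∈ (T.refine HH h0).cc z := by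
  have hzO : z ∈ Om := T.cc_sub_Om hx (T.oc_sub_cc _ hz)
  have hat := T.at_eq_of_mem_oc hx hz
  have hcc := T.cc_eq_of_mem_oc hx hz
  have hVz := T.refine_V_level h0 hzO (g := g) (t := t) (by rw [hat, hcc]; exact hL)
    (by rw [hat]; exact hex) hgz
  have hVx : (T.refine HH h0).dim x = T.dim x := T.refine_dim_eq h0 fun i hi h hh he =>
    hgx ((hL i hi h hh x (T.self_mem_cc x)).1 he)
  refine ⟨?_, ?_, ?_⟩
  · intro p hp h hh
    have hi := T.tile_mem_at h0 hp
    rcases Finset.mem_union.1 hh with hh | hh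
    · exact T.oc_sub_cc _ hz _ hi h hh
    · obtain ⟨k, hk, rfl⟩ := Finset.mem_image.1 hh
      have hkz : k.1 z = k.2 := (hL _ hi k hk z (T.oc_sub_cc _ hz)).2 hgz
      by_cases hs : k ∈ p.1.2
      · simp only [hs, if_true, opp_fst, opp_snd]
        exact ⟨by linarith, fun _ => by linarith⟩
      · simp only [hs, if_false]
        exact ⟨hkz.le, fun _ => hkz⟩
  · rw [hVx]
    unfold dim
    rw [hVz, T.V_eq_of_mem_oc hx hz]
    refine finrank_inf_ker (v := x - z) (T.sub_mem_V' (T.self_mem_cc x) (T.oc_sub_cc _ hz)) ?_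
    intro h
    apply hgx
    rw [map_sub] at h
    rw [affine_eval g x, ← hgz, affine_eval g z]
    linarith
  · intro y hy hgy p hp h hh
    have hi := T.tile_mem_at h0 hp
    rw [hat] at hi
    have hyc : y ∈ T.cc x := T.refine_cc_sub h0 x hy
    rcases Finset.mem_union.1 hh with hh | hh
    · have h1 := hyc _ hi h hh
      exact ⟨h1.1, fun e => h1.2 ((hz _ hi h hh).2.1 e)⟩
    · obtain ⟨k, hk, rfl⟩ := Finset.mem_image.1 hh
      have hky : k.1 y = k.2 := (hL _ hi k hk y hyc).2 hgy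
      by_cases hs : k ∈ p.1.2
      · simp only [hs, if_true, opp_fst, opp_snd]
        exact ⟨by linarith, fun _ => by linarith⟩
      · simp only [hs, if_false]
        exact ⟨hky.le, fun _ => hky⟩

omit [FiniteDimensional ℝ E] in
/-- a point below the level is in the closed cells of the points below the level -/
theorem refine_mem_cc (h0 : ∀ i, ∀ h ∈ HH i, h.1 ≠ 0) {x y : E} (hx : x ∈ T.cc y)
    (hs : ∀ i ∈ T.at_ y, ∀ h ∈ HH i, h.1 y < h.2 ∧ h.1 x ≤ h.2) : x ∈ (T.refine HH h0).cc y := by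
  intro p hp h hh
  have hi := T.tile_mem_at h0 hp
  rcases Finset.mem_union.1 hh with hh | hh
  · exact hx _ hi h hh
  · obtain ⟨k, hk, rfl⟩ := Finset.mem_image.1 hh
    have h1 := hs _ hi k hk
    by_cases hks : k ∈ p.1.2
    · exfalso
      have h2 := hp (opp k) (T.mem_rH_of_mem HH hk hks)
      simp only [opp_fst, opp_snd] at h2
      have h3 : -(k.1 y) ≤ -k.2 := h2
      linarith [h1.1]
    · simp only [hks, if_false]
      exact ⟨h1.2, fun e => absurd e h1.1.ne⟩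

end Tiling

/-- the output of the cutting theorem -/
structure Cut {E : Type} [NormedAddCommGroup E] [NormedSpace ℝ E] {Om : Set E} {ι κ : Type}
    (T : Tiling Om ι) (W : κ → Set ι) (ε : ι → ℝ) (D : ι → Finset ((E →L[ℝ] ℝ) × ℝ))
    (φ : κ → E → ℝ) (a b : κ → ℝ) where
  J : Type
  T' : Tiling Om J
  π : J → ι
  /-- the tiles of `T'` over `i` -/
  sub : ∀ p, P (T'.H p) ⊆ P (T.H (π p))
  subI : ∀ p, I (T'.H p) ⊆ I (T.H (π p))
  cov : ∀ i, ∀ x ∈ P (T.H i), ∃ p, π p = i ∧ x ∈ P (T'.H p)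
  fin : ∀ i, {p | π p = i}.Finite
  off : ∀ i, (∀ c, i ∉ W c) → ∃ p, π p = i ∧ T'.H p = T.H i ∧ ∀ p', π p' = i → p' = p
  cc_sub : ∀ x, T'.cc x ⊆ T.cc x
  oc_sub : ∀ x, T'.oc x ⊆ T.oc x
  cc_off : ∀ x, (∀ i ∈ T.at_ x, ∀ c, i ∉ W c) → T'.cc x = T.cc x
  oc_off : ∀ x, (∀ i ∈ T.at_ x, ∀ c, i ∉ W c) → T'.oc x = T.oc x
  fine : ∀ c p, π p ∈ W c → ∀ y ∈ P (T'.H p), ∀ z ∈ P (T'.H p), dist y z ≤ ε (π p)
  data : ∀ c p, π p ∈ W c → ∀ h ∈ D (π p),
    (∀ y ∈ P (T'.H p), h.1 y ≤ h.2) ∨ (∀ y ∈ P (T'.H p), h.2 ≤ h.1 y)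
  a' : κ → ℝ
  t : κ → ℝ
  b' : κ → ℝ
  haa : ∀ c, a c ≤ a' c
  hat : ∀ c, a' c < t c
  htb : ∀ c, t c < b' c
  hbb : ∀ c, b' c ≤ b c
  aff : ∀ c p, π p ∈ W c → ∃ g : E →ᵃ[ℝ] ℝ, EqOn (φ c) g (P (T'.H p))
  vert : ∀ c, ∀ i ∈ W c, ∀ v ∈ P (T.H i), T'.dim v = 0 → φ c v ≤ a' c ∨ φ c v = t c ∨ b' c ≤ φ c v
  side : ∀ c p, π p ∈ W c →
    (∀ y ∈ P (T'.H p), φ c y ≤ t c) ∨ (∀ y ∈ P (T'.H p), t c ≤ φ c y)
  /-- near a point of the level there are tiles below and tiles above -/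
  below : ∀ c, ∀ i ∈ W c, ∀ x ∈ P (T.H i), φ c x = t c →
    (∃ p, π p = i ∧ x ∈ P (T'.H p) ∧ ∀ y ∈ P (T'.H p), φ c y ≤ t c)
  above : ∀ c, ∀ i ∈ W c, ∀ x ∈ P (T.H i), φ c x = t c →
    (∃ p, π p = i ∧ x ∈ P (T'.H p) ∧ ∀ y ∈ P (T'.H p), t c ≤ φ c y)
  lower : ∀ c, ∀ i ∈ W c, ∀ x ∈ P (T.H i), φ c x = t c → x ∈ closure (P (T.H i) ∩ {y | φ c y < t c})
  upper : ∀ c, ∀ i ∈ W c, ∀ x ∈ P (T.H i), φ c x = t c → x ∈ closure (P (T.H i) ∩ {y | t c < φ c y})
  /-- transversality -/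
  tr : ∀ c, ∀ i ∈ W c, ∀ x ∈ P (T.H i), φ c x ≠ t c → ∀ y ∈ T'.cc x, φ c y = t c →
    ∃ z ∈ T'.cc x, φ c z = t c ∧ T'.dim z + 1 = T'.dim x ∧
      ∀ w ∈ T'.cc x, φ c w = t c → w ∈ T'.cc z
  /-- over a point of the level there is one smallest cell below -/
  st : ∀ c, ∀ i ∈ W c, ∀ z ∈ P (T.H i), φ c z = t c → ∃ x ∈ P (T.H i), φ c x < t c ∧ z ∈ T'.cc x ∧
    T'.dim x = T'.dim z + 1 ∧ ∀ y, φ c y < t c → z ∈ T'.cc y → x ∈ T'.cc y


/-! ### existence -/

section Exist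

variable {E : Type} [NormedAddCommGroup E] [NormedSpace ℝ E] [FiniteDimensional ℝ E]
variable {Om : Set E} {ι κ : Type} (T : Tiling Om ι) (W : κ → Set ι)

/-- the hyperplane `g = s` -/
noncomputable def hyp (g : E →ᵃ[ℝ] ℝ) (s : ℝ) : (E →L[ℝ] ℝ) × ℝ :=
  (LinearMap.toContinuousLinearMap g.linear, s - g 0)

theorem hyp_lt {g : E →ᵃ[ℝ] ℝ} {s : ℝ} {x : E} : (hyp g s).1 x < (hyp g s).2 ↔ g x < s := by
  rw [affine_eval g x]
  show g.linear x < s - g 0 ↔ _
  constructor <;> intro h <;> linarith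

theorem hyp_le {g : E →ᵃ[ℝ] ℝ} {s : ℝ} {x : E} : (hyp g s).1 x ≤ (hyp g s).2 ↔ g x ≤ s := by
  rw [affine_eval g x]
  show g.linear x ≤ s - g 0 ↔ _
  constructor <;> intro h <;> linarith

theorem hyp_ge {g : E →ᵃ[ℝ] ℝ} {s : ℝ} {x : E} : (hyp g s).2 ≤ (hyp g s).1 x ↔ s ≤ g x := by
  rw [affine_eval g x]
  show s - g 0 ≤ g.linear x ↔ _
  constructor <;> intro h <;> linarith

theorem hyp_eq {g : E →ᵃ[ℝ] ℝ} {s : ℝ} {x : E} : (hyp g s).1 x = (hyp g s).2 ↔ g x = s := by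
  rw [affine_eval g x]
  show g.linear x = s - g 0 ↔ _
  constructor <;> intro h <;> linarith

theorem const_of_hyp {g : E →ᵃ[ℝ] ℝ} {s : ℝ} (h : (hyp g s).1 = 0) (x : E) : g x = g 0 := by
  rw [affine_eval g x]
  have : g.linear x = (hyp g s).1 x := rfl
  rw [this, h]
  simp

/-- avoiding finitely many values -/
theorem exists_gap {F : Set ℝ} (hF : F.Finite) {a b : ℝ} (hab : a < b) :
    ∃ a' t b', a ≤ a' ∧ a' < t ∧ t < b' ∧ b' ≤ b ∧ ∀ s ∈ F, s ≤ a' ∨ b' ≤ s := by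
  have h1 : (Ioo a b \ F).Nonempty := ((Ioo_infinite hab).sdiff hF).nonempty
  obtain ⟨t, ht, htF⟩ := h1
  have hO : IsOpen (Ioo a b \ F) := isOpen_Ioo.sdiff hF.isClosed
  obtain ⟨δ, hδ, hb⟩ := Metric.isOpen_iff.1 hO t ⟨ht, htF⟩
  refine ⟨t - δ / 2, t, t + δ / 2, ?_, by linarith, by linarith, ?_, ?_⟩
  · have h2 : t - δ / 2 ∈ ball t δ := by
      rw [mem_ball, Real.dist_eq, abs_sub_lt_iff]; constructor <;> linarith
    exact (hb h2).1.1.le
  · have h2 : t + δ / 2 ∈ ball t δ := by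
      rw [mem_ball, Real.dist_eq, abs_sub_lt_iff]; constructor <;> linarith
    exact (hb h2).1.2.le
  · intro s hs
    by_contra hcon
    push Not at hcon
    have h2 : s ∈ ball t δ := by
      rw [mem_ball, Real.dist_eq, abs_sub_lt_iff]; constructor <;> linarith [hcon.1, hcon.2]
    exact (hb h2).2 hs

variable {T W}

omit [FiniteDimensional ℝ E] in
theorem finite_over (HH : ι → Finset ((E →L[ℝ] ℝ) × ℝ)) (i : ι) :
    {p : T.RIdx HH | p.tile = i}.Finite := by
  have hfin : ((fun s => ((i, s) : ι × Finset ((E →L[ℝ] ℝ) × ℝ))) ''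
      ((HH i).powerset : Set _)).Finite := (HH i).powerset.finite_toSet.image _
  refine Set.Finite.of_finite_image (f := Subtype.val) (hfin.subset ?_)
    Subtype.val_injective.injOn
  rintro _ ⟨p, hp, rfl⟩
  have hp' : p.1.1 = i := hp
  refine ⟨p.1.2, Finset.mem_powerset.2 (hp' ▸ p.2.1), ?_⟩
  exact Prod.ext hp'.symm rfl

/-- **the cutting theorem** -/
theorem exists_cut (hWf : ∀ c, (W c).Finite)
    (hWD : ∀ c c', c ≠ c' → Disjoint (⋃ i ∈ W c, P (T.H i)) (⋃ i ∈ W c', P (T.H i)))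
    {ε : ι → ℝ} (hε : ∀ i, 0 < ε i) (D : ι → Finset ((E →L[ℝ] ℝ) × ℝ)) {φ : κ → E → ℝ}
    (hφ : ∀ c, ∀ i ∈ W c, Ce_537.PLOn (φ c) (P (T.H i))) {a b : κ → ℝ} (hab : ∀ c, a c < b c) :
    Nonempty (Cut T W ε D φ a b) := by
  have hWd : ∀ c c', c ≠ c' → Disjoint (W c) (W c') := by
    intro c c' hne
    rw [Set.disjoint_left]
    intro i hi hi'
    obtain ⟨z, hz⟩ := T.ne i
    exact Set.disjoint_left.1 (hWD c c' hne) (mem_biUnion hi (I_sub_P _ hz))
      (mem_biUnion hi' (I_sub_P _ hz))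
  -- the first refinement
  choose G1 hG10 hG1 using fun i => T.exists_fine i (hε i)
  let ow : ι → Prop := fun i => ∃ c, i ∈ W c
  have hown : ∀ i c (hi : i ∈ W c) (h : ow i), h.choose = c := by
    intro i c hi h
    by_contra hne
    exact Set.disjoint_left.1 (hWd _ _ hne) h.choose_spec hi
  have hex : ∀ i (h : ow i), ∃ G : Finset ((E →L[ℝ] ℝ) × ℝ), (∀ g ∈ G, g.1 ≠ 0) ∧
      ∀ HH : ι → Finset ((E →L[ℝ] ℝ) × ℝ), G ⊆ HH i → ∀ p : T.RIdx HH, p.tile = i →
        ∃ g : E →ᵃ[ℝ] ℝ, EqOn (φ h.choose) g (P p.HS) := fun i h =>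
    T.exists_affine i (hφ _ i h.choose_spec)
  let HH1 : ι → Finset ((E →L[ℝ] ℝ) × ℝ) := fun i =>
    if h : ow i then G1 i ∪ (hex i h).choose ∪ (D i).filter (fun g => g.1 ≠ 0) else ∅
  have hHH1 : ∀ i (h : ow i), HH1 i = G1 i ∪ (hex i h).choose ∪ (D i).filter (fun g => g.1 ≠ 0) :=
    fun i h => dif_pos h
  have hHH1' : ∀ i, ¬ ow i → HH1 i = ∅ := fun i h => dif_neg h
  have h10 : ∀ i, ∀ h ∈ HH1 i, h.1 ≠ 0 := by
    intro i h hh
    by_cases hi : ow i
    · rw [hHH1 i hi] at hh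
      rcases Finset.mem_union.1 hh with hh | hh
      · rcases Finset.mem_union.1 hh with hh | hh
        · exact hG10 i h hh
        · exact (hex i hi).choose_spec.1 h hh
      · exact (Finset.mem_filter.1 hh).2
    · rw [hHH1' i hi] at hh
      exact absurd hh (Finset.notMem_empty h)
  set T1 := T.refine HH1 h10 with hT1
  -- affine functions on the pieces
  have haff : ∀ p : T.RIdx HH1, ∀ c, p.tile ∈ W c → ∃ g : E →ᵃ[ℝ] ℝ, EqOn (φ c) g (P p.HS) := by
    intro p c hc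
    have hi : ow p.tile := ⟨c, hc⟩
    have h1 := (hex p.tile hi).choose_spec.2 HH1 (by
      rw [hHH1 _ hi]
      exact Finset.subset_union_left.trans' Finset.subset_union_right) p rfl
    rw [hown _ c hc hi] at h1
    exact h1
  have hex2 : ∀ p : T.RIdx HH1, ∃ g : E →ᵃ[ℝ] ℝ, ∀ c, p.tile ∈ W c → EqOn (φ c) g (P p.HS) := by
    intro p
    by_cases h : ow p.tile
    · obtain ⟨c, hc⟩ := h
      obtain ⟨g, hg⟩ := haff p c hc
      refine ⟨g, fun c' hc' => ?_⟩
      have : c' = c := by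
        by_contra hne
        exact Set.disjoint_left.1 (hWd _ _ hne) hc' hc
      rw [this]; exact hg
    · exact ⟨0, fun c hc => absurd ⟨c, hc⟩ h⟩
  choose gp hgp using hex2
  -- levels without vertex values
  have hR : ∀ c, IsCompact (⋃ i ∈ W c, P (T.H i)) := fun c =>
    (hWf c).isCompact_biUnion fun i _ => T.cpt i
  have hRO : ∀ c, (⋃ i ∈ W c, P (T.H i)) ⊆ Om := fun c => iUnion₂_subset fun i _ => T.sub i
  have hgap : ∀ c, ∃ a' t b', a c ≤ a' ∧ a' < t ∧ t < b' ∧ b' ≤ b c ∧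
      ∀ v ∈ ⋃ i ∈ W c, P (T.H i), T1.dim v = 0 → φ c v ≤ a' ∨ b' ≤ φ c v := by
    intro c
    have hfin := (T1.finite_vertices (hR c) (hRO c)).image (φ c)
    obtain ⟨a', t, b', h1, h2, h3, h4, h5⟩ := exists_gap hfin (hab c)
    exact ⟨a', t, b', h1, h2, h3, h4, fun v hv h0 => h5 _ ⟨v, ⟨hv, h0⟩, rfl⟩⟩
  choose a' t b' haa hat htb hbb hvert using hgap
  -- the second refinement
  let HH2 : T.RIdx HH1 → Finset ((E →L[ℝ] ℝ) × ℝ) := fun p =>
    if h : ow p.tile then ({hyp (gp p) (t h.choose)} : Finset _).filter (fun g => g.1 ≠ 0) else ∅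
  have hHH2 : ∀ p c, p.tile ∈ W c →
      HH2 p = ({hyp (gp p) (t c)} : Finset _).filter (fun g => g.1 ≠ 0) := by
    intro p c hc
    have h : ow p.tile := ⟨c, hc⟩
    show (if h : ow p.tile then ({hyp (gp p) (t h.choose)} : Finset _).filter (fun g => g.1 ≠ 0)
      else ∅) = _
    rw [dif_pos h, hown _ c hc h]
  have hHH2' : ∀ p, ¬ ow p.tile → HH2 p = ∅ := fun p h => dif_neg h
  have h20 : ∀ p, ∀ h ∈ HH2 p, h.1 ≠ 0 := by
    intro p h hh
    by_cases hp : ow p.tile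
    · obtain ⟨c, hc⟩ := hp
      rw [hHH2 p c hc] at hh
      exact (Finset.mem_filter.1 hh).2
    · rw [hHH2' p hp] at hh
      exact absurd hh (Finset.notMem_empty h)
  set T2 := T1.refine HH2 h20 with hT2
  have hoff : ∀ x, (∀ i ∈ T.at_ x, ∀ c, i ∉ W c) → (∀ i ∈ T.at_ x, HH1 i = ∅) ∧
      ∀ p ∈ T1.at_ x, HH2 p = ∅ := by
    intro x hx
    refine ⟨fun i hi => hHH1' i fun ⟨c, hc⟩ => hx i hi c hc, fun p hp => hHH2' p fun ⟨c, hc⟩ => ?_⟩
    exact hx _ (T.tile_mem_at h10 hp) c hc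
  -- the second level of pieces over a tile of `T1`
  have hside : ∀ (p : T1.RIdx HH2) c, p.tile.tile ∈ W c →
      (∀ y ∈ P p.HS, φ c y ≤ t c) ∨ (∀ y ∈ P p.HS, t c ≤ φ c y) := by
    intro p c hc
    have hE : ∀ y ∈ P p.HS, φ c y = gp p.tile y := fun y hy => hgp p.tile c hc (p.P_sub hy)
    by_cases hz : (hyp (gp p.tile) (t c)).1 = 0
    · rcases le_total (gp p.tile 0) (t c) with h | h
      · left; intro y hy; rw [hE y hy, const_of_hyp hz]; exact h
      · right; intro y hy; rw [hE y hy, const_of_hyp hz]; exact h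
    · have hm : hyp (gp p.tile) (t c) ∈ HH2 p.tile := by
        rw [hHH2 _ c hc]; exact Finset.mem_filter.2 ⟨Finset.mem_singleton_self _, hz⟩
      rcases p.side hm with h | h
      · left; intro y hy; rw [hE y hy]; exact hyp_le.1 (h y hy)
      · right; intro y hy; rw [hE y hy]; exact hyp_ge.1 (h y hy)
  -- vertices of `T1` below and above
  have hlow : ∀ c, ∀ p : T.RIdx HH1, p.tile ∈ W c → ∀ x ∈ P p.HS, φ c x = t c →
      (∃ v ∈ P p.HS, φ c v < t c) ∧ ∃ v ∈ P p.HS, t c < φ c v := by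
    intro c p hc x hx hxt
    have hE : ∀ y ∈ P p.HS, φ c y = gp p y := hgp p c hc
    have hmemR : ∀ v ∈ P p.HS, v ∈ ⋃ i ∈ W c, P (T.H i) := fun v hv => mem_biUnion hc (p.P_sub hv)
    obtain ⟨v, hv, hv0, hle⟩ := T1.exists_vertex_le (q := p) hx (gp p)
    obtain ⟨w, hw, hw0, hge⟩ := T1.exists_vertex_ge (q := p) hx (gp p)
    rw [← hE x hx, hxt] at hle hge
    have hv' : v ∈ P p.HS := hv
    have hw' : w ∈ P p.HS := hw
    rw [← hE v hv'] at hle
    rw [← hE w hw'] at hge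
    refine ⟨⟨v, hv', ?_⟩, ⟨w, hw', ?_⟩⟩
    · rcases hvert c v (hmemR v hv') hv0 with h | h
      · exact h.trans_lt (hat c)
      · exact absurd (h.trans hle) (not_le.2 (htb c))
    · rcases hvert c w (hmemR w hw') hw0 with h | h
      · exact absurd (hge.trans h) (not_le.2 (hat c))
      · exact (htb c).trans_le h
  have hseg : ∀ (p : T.RIdx HH1) (x v : E), x ∈ P p.HS → v ∈ P p.HS → ∀ s ∈ Icc (0 : ℝ) 1,
      x + s • (v - x) ∈ P p.HS := fun p x v hx hv s hs =>
    (convex_P p.HS).add_smul_sub_mem hx hv hs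
  have htend : ∀ x v : E, Tendsto (fun s : ℝ => x + s • (v - x)) (𝓝[>] 0) (𝓝 x) := by
    intro x v
    have : Tendsto (fun s : ℝ => x + s • (v - x)) (𝓝 0) (𝓝 (x + (0 : ℝ) • (v - x))) := by
      apply Continuous.tendsto; fun_prop
    rw [zero_smul, add_zero] at this
    exact this.mono_left nhdsWithin_le_nhds
  have hev : ∀ᶠ s in 𝓝[>] (0 : ℝ), 0 < s ∧ s < 1 :=
    (self_mem_nhdsWithin : Ioi (0 : ℝ) ∈ 𝓝[>] 0) |> fun h =>
      Filter.Eventually.and h (eventually_nhdsWithin_of_eventually_nhds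
        (Iio_mem_nhds (one_pos : (0 : ℝ) < 1)))
  refine ⟨{
    J := T1.RIdx HH2
    T' := T2
    π := fun p => p.tile.tile
    sub := fun p => p.P_sub.trans p.tile.P_sub
    subI := fun p => p.I_sub.trans p.tile.I_sub
    cov := ?_
    fin := ?_
    off := ?_
    cc_sub := fun x => (T1.refine_cc_sub h20 x).trans (T.refine_cc_sub h10 x)
    oc_sub := fun x => (T1.refine_oc_sub h20 x).trans (T.refine_oc_sub h10 x)
    cc_off := fun x hx => (T1.refine_cc_eq h20 (hoff x hx).2).trans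
      (T.refine_cc_eq h10 (hoff x hx).1)
    oc_off := fun x hx => (T1.refine_oc_eq h20 (hoff x hx).2).trans
      (T.refine_oc_eq h10 (hoff x hx).1)
    fine := ?_
    data := ?_
    a' := a'
    t := t
    b' := b'
    haa := haa
    hat := hat
    htb := htb
    hbb := hbb
    aff := ?_
    vert := ?_
    side := fun c p hc => hside p c hc
    below := ?_
    above := ?_
    lower := ?_
    upper := ?_
    tr := ?_
    st := ?_ }⟩
  · intro i x hx
    obtain ⟨p, hp, hxp⟩ := T.exists_piece h10 hx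
    obtain ⟨q, hq, hxq⟩ := T1.exists_piece h20 (i := p) hxp
    exact ⟨q, by rw [← hp, ← hq], hxq⟩
  · intro i
    have h1 : (⋃ p ∈ {p : T.RIdx HH1 | p.tile = i}, {q : T1.RIdx HH2 | q.tile = p}).Finite :=
      (finite_over HH1 i).biUnion fun p _ => finite_over HH2 p
    refine h1.subset fun q hq => ?_
    exact mem_biUnion (show q.tile ∈ {p : T.RIdx HH1 | p.tile = i} from hq) rfl
  · intro i hi
    have e1 : HH1 i = ∅ := hHH1' i fun ⟨c, hc⟩ => hi c hc
    have e2 : HH2 (Tiling.RIdx.of T e1) = ∅ := hHH2' _ fun ⟨c, hc⟩ => hi c hc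
    refine ⟨Tiling.RIdx.of T1 e2, rfl, ?_, ?_⟩
    · exact (Tiling.RIdx.HS_of_eq (T := T1) (p := Tiling.RIdx.of T1 e2) e2).trans
        (Tiling.RIdx.HS_of_eq (T := T) (p := Tiling.RIdx.of T e1) e1)
    · intro q hq
      have hq1 : q.tile = Tiling.RIdx.of T e1 := by
        have e3 : HH1 q.tile.tile = ∅ := by rw [hq]; exact e1
        have h4 := Tiling.RIdx.eq_of (T := T) (p := q.tile) e3
        rw [h4]
        have h5 : q.tile.tile = i := hq
        clear_value T1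
        subst h5
        rfl
      have e4 : HH2 q.tile = ∅ := by rw [hq1]; exact e2
      have h6 := Tiling.RIdx.eq_of (T := T1) (p := q) e4
      have h7 : ∀ {p p' : T.RIdx HH1} (h : p = p') (e : HH2 p = ∅) (e' : HH2 p' = ∅),
          Tiling.RIdx.of T1 e = Tiling.RIdx.of T1 e' := by
        intro p p' h e e'
        subst h
        rfl
      exact h6.trans (h7 hq1 e4 e2)
  · intro c p hc y hy z hz
    have hi : ow p.tile.tile := ⟨c, hc⟩
    exact hG1 p.tile.tile HH1 (by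
      rw [hHH1 _ hi]
      exact Finset.subset_union_left.trans' Finset.subset_union_left) p.tile rfl y (p.P_sub hy) z
        (p.P_sub hz)
  · intro c p hc h hh
    have hi : ow p.tile.tile := ⟨c, hc⟩
    by_cases hz : h.1 = 0
    · rcases le_total 0 h.2 with h' | h'
      · left; intro y _; rw [hz]; exact h'
      · right; intro y _; rw [hz]; exact h'
    · have hm : h ∈ HH1 p.tile.tile := by
        rw [hHH1 _ hi]
        exact Finset.mem_union_right _ (Finset.mem_filter.2 ⟨hh, hz⟩)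
      rcases p.tile.side hm with h' | h'
      · exact Or.inl fun y hy => h' y (p.P_sub hy)
      · exact Or.inr fun y hy => h' y (p.P_sub hy)
  · intro c p hc
    exact ⟨gp p.tile, (hgp p.tile c hc).mono p.P_sub⟩
  · intro c i hi v hv hv0
    by_contra hcon
    push Not at hcon
    obtain ⟨h1, h2, h3⟩ := hcon
    have hcut : ∀ p ∈ T1.at_ v, ∀ h ∈ HH2 p, h.1 v ≠ h.2 := by
      intro p hp h hh he
      by_cases hw : ow p.tile
      · obtain ⟨c', hc'⟩ := hw
        rw [hHH2 p c' hc'] at hh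
        have h4 := Finset.mem_singleton.1 (Finset.mem_filter.1 hh).1
        subst h4
        have hvp : v ∈ P p.HS := hp
        have hcc : c' = c := by
          by_contra hne
          exact Set.disjoint_left.1 (hWD _ _ hne) (mem_biUnion hc' (p.P_sub hvp))
            (mem_biUnion hi hv)
        subst hcc
        apply h2
        rw [hgp p c' hc' hvp]
        exact hyp_eq.1 he
      · rw [hHH2' p hw] at hh
        exact absurd hh (Finset.notMem_empty h)
    have h4 : T1.dim v = 0 := by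
      rw [← T1.refine_dim_eq h20 hcut]; exact hv0
    rcases hvert c v (mem_biUnion hi hv) h4 with h5 | h5
    · exact absurd h5 (not_le.2 h1)
    · exact absurd h5 (not_le.2 h3)
  · intro c i hi x hx hxt
    obtain ⟨p, rfl, hxp⟩ := T.exists_piece h10 hx
    obtain ⟨⟨v, hv, hvt⟩, _⟩ := hlow c p hi x hxp hxt
    obtain ⟨r, hr, _, hball⟩ := T2.exists_ball (T.sub _ hx)
    obtain ⟨s, hs, hsb⟩ := (hev.and ((htend x v).eventually (ball_mem_nhds x hr))).exists
    have h1 := hseg p x v hxp hv s ⟨hs.1.le, hs.2.le⟩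
    have h2 : φ c (x + s • (v - x)) < t c := by
      rw [hgp p c hi h1, affine_seg, ← hgp p c hi hxp, ← hgp p c hi hv, hxt]
      nlinarith [hs.1]
    obtain ⟨q, hq, hyq⟩ := T1.exists_piece h20 (i := p) h1
    have hxq : x ∈ P q.HS := hball _ hsb hyq
    refine ⟨q, by show q.tile.tile = p.tile; rw [hq], hxq, ?_⟩
    have hqW : q.tile.tile ∈ W c := by rw [hq]; exact hi
    rcases hside q c hqW with h | h
    · exact h
    · exact absurd (h _ hyq) (not_le.2 h2)
  · intro c i hi x hx hxt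
    obtain ⟨p, rfl, hxp⟩ := T.exists_piece h10 hx
    obtain ⟨_, ⟨v, hv, hvt⟩⟩ := hlow c p hi x hxp hxt
    obtain ⟨r, hr, _, hball⟩ := T2.exists_ball (T.sub _ hx)
    obtain ⟨s, hs, hsb⟩ := (hev.and ((htend x v).eventually (ball_mem_nhds x hr))).exists
    have h1 := hseg p x v hxp hv s ⟨hs.1.le, hs.2.le⟩
    have h2 : t c < φ c (x + s • (v - x)) := by
      rw [hgp p c hi h1, affine_seg, ← hgp p c hi hxp, ← hgp p c hi hv, hxt]
      nlinarith [hs.1]
    obtain ⟨q, hq, hyq⟩ := T1.exists_piece h20 (i := p) h1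
    have hxq : x ∈ P q.HS := hball _ hsb hyq
    refine ⟨q, by show q.tile.tile = p.tile; rw [hq], hxq, ?_⟩
    have hqW : q.tile.tile ∈ W c := by rw [hq]; exact hi
    rcases hside q c hqW with h | h
    · exact absurd (h _ hyq) (not_le.2 h2)
    · exact h
  · intro c i hi x hx hxt
    obtain ⟨p, rfl, hxp⟩ := T.exists_piece h10 hx
    obtain ⟨⟨v, hv, hvt⟩, _⟩ := hlow c p hi x hxp hxt
    refine mem_closure_of_tendsto (htend x v) ?_
    filter_upwards [hev] with s hs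
    have h1 := hseg p x v hxp hv s ⟨hs.1.le, hs.2.le⟩
    refine ⟨p.P_sub h1, ?_⟩
    show φ c (x + s • (v - x)) < t c
    rw [hgp p c hi h1, affine_seg, ← hgp p c hi hxp, ← hgp p c hi hv, hxt]
    nlinarith [hs.1]
  · intro c i hi x hx hxt
    obtain ⟨p, rfl, hxp⟩ := T.exists_piece h10 hx
    obtain ⟨_, ⟨v, hv, hvt⟩⟩ := hlow c p hi x hxp hxt
    refine mem_closure_of_tendsto (htend x v) ?_
    filter_upwards [hev] with s hs
    have h1 := hseg p x v hxp hv s ⟨hs.1.le, hs.2.le⟩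
    refine ⟨p.P_sub h1, ?_⟩
    show t c < φ c (x + s • (v - x))
    rw [hgp p c hi h1, affine_seg, ← hgp p c hi hxp, ← hgp p c hi hv, hxt]
    nlinarith [hs.1]
  · intro c i hi x hx hxt y hy hyt
    have hxR : x ∈ ⋃ i ∈ W c, P (T.H i) := mem_biUnion hi hx
    have hxO := T.sub i hx
    obtain ⟨p, rfl, hxp⟩ := T.exists_piece h10 hx
    have hpat : p ∈ T1.at_ x := hxp
    have hE : ∀ w ∈ T1.cc x, φ c w = gp p w := fun w hw => hgp p c hi (T1.cc_sub_tile hpat hw)
    have hy1 : y ∈ T1.cc x := T1.refine_cc_sub h20 x hy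
    have hgx : gp p x ≠ t c := by rw [← hE x (T1.self_mem_cc x)]; exact hxt
    have hgy : gp p y = t c := by rw [← hE y hy1]; exact hyt
    obtain ⟨z, hz, hgz⟩ := T1.exists_level hxO (gp p) (t := t c) (fun v hv hv0 he => by
      have hvR : v ∈ ⋃ i ∈ W c, P (T.H i) :=
        mem_biUnion hi (p.P_sub (T1.cc_sub_tile hpat hv))
      rw [← hE v hv] at he
      rcases hvert c v hvR hv0 with h | h
      · rw [he] at h; exact absurd h (not_le.2 (hat c))
      · rw [he] at h; exact absurd h (not_le.2 (htb c))) hy1 hgy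
    have hL : ∀ q ∈ T1.at_ x, ∀ h ∈ HH2 q, ∀ w ∈ T1.cc x, (h.1 w = h.2 ↔ gp p w = t c) := by
      intro q hq h hh w hw
      by_cases how : ow q.tile
      · obtain ⟨c', hc'⟩ := how
        have hcc : c' = c := by
          by_contra hne
          exact Set.disjoint_left.1 (hWD _ _ hne)
            (mem_biUnion hc' (T.tile_mem_at h10 hq)) hxR
        subst hcc
        rw [hHH2 q c' hc'] at hh
        have h4 := Finset.mem_singleton.1 (Finset.mem_filter.1 hh).1
        subst h4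
        rw [hyp_eq, ← hE w hw, hgp q c' hc' (T1.cc_sub_tile hq hw)]
      · rw [hHH2' q how] at hh
        exact absurd hh (Finset.notMem_empty h)
    obtain ⟨h1, h2, h3⟩ := T1.refine_level h20 hxO hL ⟨p, hpat, by
      rw [hHH2 p c hi]
      refine ⟨_, Finset.mem_filter.2 ⟨Finset.mem_singleton_self _, fun h => hgx ?_⟩⟩
      rw [const_of_hyp h x, ← const_of_hyp h y, hgy]⟩ hgx hz hgz
    refine ⟨z, h1, ?_, h2, fun w hw hwt => h3 w hw ?_⟩
    · rw [hE z (T1.oc_sub_cc _ hz)]; exact hgz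
    · rw [← hE w (T1.refine_cc_sub h20 x hw)]; exact hwt
  · intro c i hi z hz hzt
    have hzR : z ∈ ⋃ i ∈ W c, P (T.H i) := mem_biUnion hi hz
    have hzO := T.sub i hz
    obtain ⟨p, rfl, hzp⟩ := T.exists_piece h10 hz
    have hpat : p ∈ T1.at_ z := hzp
    have hE : ∀ w ∈ T1.cc z, φ c w = gp p w := fun w hw => hgp p c hi (T1.cc_sub_tile hpat hw)
    -- a point of the open cell of `z` below the level
    have hgz : gp p z = t c := by rw [← hE z (T1.self_mem_cc z)]; exact hzt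
    obtain ⟨v, hv1, hv2, hv3⟩ := T1.exists_vertex_le_cc hzO (T1.self_mem_cc z) (gp p)
    have hvR : v ∈ ⋃ i ∈ W c, P (T.H i) := mem_biUnion hi (p.P_sub (T1.cc_sub_tile hpat hv1))
    have hvt : gp p v < t c := by
      rw [hgz, ← hE v hv1] at hv3
      rw [← hE v hv1]
      rcases hvert c v hvR hv2 with h | h
      · exact h.trans_lt (hat c)
      · exact absurd (h.trans hv3) (not_le.2 (htb c))
    set x : E := v + (1 / 2 : ℝ) • (z - v) with hx
    have hxo : x ∈ T1.oc z := T1.move_mem_oc hv1 (by norm_num) (by norm_num)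
    have hgx : gp p x < t c := by
      rw [hx, affine_seg, hgz]; linarith
    have hxO : x ∈ Om := T1.cc_sub_Om hzO (T1.oc_sub_cc _ hxo)
    have hcc := T1.cc_eq_of_mem_oc hzO hxo
    have hat' := T1.at_eq_of_mem_oc hzO hxo
    have hzx : z ∈ T1.oc x := by
      rw [T1.oc_eq_of_mem hzO hxo]; exact T1.self_mem_oc z
    -- the cuts near `z`
    have hcut : ∀ q ∈ T1.at_ z, ∀ h ∈ HH2 q, ∀ u ∈ P q.HS,
        (h.1 u < h.2 ↔ φ c u < t c) ∧ (h.1 u = h.2 ↔ φ c u = t c) := by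
      intro q hq h hh u hu
      by_cases how : ow q.tile
      · obtain ⟨c', hc'⟩ := how
        have hcc : c' = c := by
          by_contra hne
          exact Set.disjoint_left.1 (hWD _ _ hne)
            (mem_biUnion hc' (T.tile_mem_at h10 hq)) hzR
        subst hcc
        rw [hHH2 q c' hc'] at hh
        have h4 := Finset.mem_singleton.1 (Finset.mem_filter.1 hh).1
        subst h4
        rw [hyp_eq, hyp_lt, ← hgp q c' hc' hu]
        exact ⟨Iff.rfl, Iff.rfl⟩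
      · rw [hHH2' q how] at hh
        exact absurd hh (Finset.notMem_empty h)
    obtain ⟨h1, h2, h3⟩ := T1.refine_level h20 hxO (g := gp p) (t := t c) (by
        intro q hq h hh w hw
        rw [hcc] at hw
        rw [hat'] at hq
        rw [(hcut q hq h hh w (T1.cc_sub_tile hq hw)).2, hE w hw]) ⟨p, by rw [hat']; exact hpat, by
      rw [hHH2 p c hi]
      refine ⟨_, Finset.mem_filter.2 ⟨Finset.mem_singleton_self _, fun h => ?_⟩⟩
      rw [const_of_hyp h x, ← const_of_hyp h z, hgz] at hgx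
      exact lt_irrefl _ hgx⟩ hgx.ne hzx hgz
    refine ⟨x, p.P_sub (T1.cc_sub_tile hpat (T1.oc_sub_cc _ hxo)), ?_, h1, h2.symm, ?_⟩
    · rw [hE x (T1.oc_sub_cc _ hxo)]; exact hgx
    · intro y hyt hzy
      have hzy1 : z ∈ T1.cc y := T1.refine_cc_sub h20 y hzy
      refine T1.refine_mem_cc h20 (T1.cc_sub_of_mem hzy1 (T1.oc_sub_cc _ hxo)) fun q hq h hh => ?_
      have hqz : q ∈ T1.at_ z := T1.at_sub_of_mem_cc hzy1 hq
      have hqx : q ∈ T1.at_ x := by rw [hat']; exact hqz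
      refine ⟨((hcut q hqz h hh y hq).1).2 hyt, le_of_lt (((hcut q hqz h hh x hqx).1).2 ?_)⟩
      rw [hE x (T1.oc_sub_cc _ hxo)]; exact hgx

namespace Cut

variable {ε : ι → ℝ} {D : ι → Finset ((E →L[ℝ] ℝ) × ℝ)} {φ : κ → E → ℝ} {a b : κ → ℝ}
  (C : Cut T W ε D φ a b)

/-- the core -/
def K (c : κ) : Set E := {x | φ c x ≤ C.t c}

/-- the tiles of the core -/
def In (c : κ) : Set C.J := {p | C.π p ∈ W c ∧ P (C.T'.H p) ⊆ C.K c}

omit [FiniteDimensional ℝ E] in
theorem finite_In (hWf : ∀ c, (W c).Finite) (c : κ) : (C.In c).Finite := by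
  have h1 : (⋃ i ∈ W c, {p | C.π p = i}).Finite := (hWf c).biUnion fun i _ => C.fin i
  exact h1.subset fun p hp => mem_biUnion hp.1 rfl

omit [FiniteDimensional ℝ E] in
/-- **the core is the union of its tiles** -/
theorem K_eq (c : κ) (hsub : {x | φ c x < b c} ⊆ ⋃ i ∈ W c, P (T.H i)) :
    C.K c = ⋃ p ∈ C.In c, P (C.T'.H p) := by
  apply Subset.antisymm
  · intro x hx
    have hx' : φ c x ≤ C.t c := hx
    have hxb : φ c x < b c := hx'.trans_lt ((C.htb c).trans_le (C.hbb c))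
    obtain ⟨i, hi, hxi⟩ := mem_iUnion₂.1 (hsub hxb)
    rcases hx'.lt_or_eq with h | h
    · obtain ⟨p, hp, hxp⟩ := C.cov i x hxi
      have hpW : C.π p ∈ W c := by rw [hp]; exact hi
      rcases C.side c p hpW with h1 | h1
      · exact mem_biUnion (show p ∈ C.In c from ⟨hpW, h1⟩) hxp
      · exact absurd (h1 x hxp) (not_le.2 h)
    · obtain ⟨p, hp, hxp, h1⟩ := C.below c i hi x hxi h
      exact mem_biUnion (show p ∈ C.In c from ⟨by rw [hp]; exact hi, h1⟩) hxp
  · exact iUnion₂_subset fun p hp => hp.2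

omit [FiniteDimensional ℝ E] in
theorem isClosed_K (c : κ) (hφ : Continuous (φ c)) : IsClosed (C.K c) :=
  isClosed_le hφ continuous_const

omit [FiniteDimensional ℝ E] in
theorem frontier_K (c : κ) (hφ : Continuous (φ c))
    (hsub : {x | φ c x < b c} ⊆ ⋃ i ∈ W c, P (T.H i)) :
    frontier (C.K c) = {x | φ c x = C.t c} := by
  apply Subset.antisymm
  · exact frontier_le_subset_eq hφ continuous_const
  · intro x hx
    have hx' : φ c x = C.t c := hx
    have hxb : φ c x < b c := by rw [hx']; exact (C.htb c).trans_le (C.hbb c)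
    obtain ⟨i, hi, hxi⟩ := mem_iUnion₂.1 (hsub hxb)
    rw [(C.isClosed_K c hφ).frontier_eq]
    refine ⟨hx'.le, fun hint => ?_⟩
    obtain ⟨y, hy1, hy2⟩ := mem_closure_iff.1 (C.upper c i hi x hxi hx') _ isOpen_interior hint
    have h1 : φ c y ≤ C.t c := interior_subset (s := C.K c) hy1
    exact absurd h1 (not_le.2 hy2.2)

omit [FiniteDimensional ℝ E] in
theorem reg_K (c : κ) (hφ : Continuous (φ c))
    (hsub : {x | φ c x < b c} ⊆ ⋃ i ∈ W c, P (T.H i)) :
    frontier (C.K c) ⊆ closure (interior (C.K c)) := by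
  intro x hx
  rw [C.frontier_K c hφ hsub] at hx
  have hx' : φ c x = C.t c := hx
  have hxb : φ c x < b c := by rw [hx']; exact (C.htb c).trans_le (C.hbb c)
  obtain ⟨i, hi, hxi⟩ := mem_iUnion₂.1 (hsub hxb)
  have h1 : P (T.H i) ∩ {y | φ c y < C.t c} ⊆ interior (C.K c) := by
    intro y hy
    exact interior_maximal (fun z hz => le_of_lt hz) (isOpen_lt hφ continuous_const) hy.2
  exact closure_mono h1 (C.lower c i hi x hxi hx')

end Cut

end Exist

end Crest.Agent.R096.Msh_715
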