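import Crest.Agent.R096.Msh1_715

/-!
# Row 96, library: cutting a tiling by hyperplanes, tile by tile (MESH-CUT)

`T.cut A`: every tile `i` is cut by its own finite set `A i` of hyperplanes (`A i = ∅`: the tile is
untouched).  Hanging nodes are allowed in `Msh_715.Tiling`, so no compatibility is needed.
-/

set_option autoImplicit false

open Set Filter Topology Metric

namespace Crest.Agent.R096.Cut_874

open Msh_715

variable {E : Type*} [NormedAddCommGroup E] [NormedSpace ℝ E]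

/-- a finite set of proper hyperplanes does not cover a non empty open set -/
theorem exists_generic (A : Finset ((E →L[ℝ] ℝ) × ℝ)) (hA : ∀ a ∈ A, a.1 ≠ 0) {U : Set E}
    (hU : IsOpen U) (hne : U.Nonempty) : ∃ z ∈ U, ∀ a ∈ A, a.1 z ≠ a.2 := by
  classical
  induction A using Finset.induction_on generalizing U with
  | empty => obtain ⟨z, hz⟩ := hne; exact ⟨z, hz, by simp⟩
  | insert a A ha ih =>
    have h0 : a.1 ≠ 0 := hA a (Finset.mem_insert_self _ _)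
    have hop : IsOpen (U ∩ {z | a.1 z ≠ a.2}) :=
      hU.inter (isOpen_ne_fun a.1.continuous continuous_const)
    have hne' : (U ∩ {z | a.1 z ≠ a.2}).Nonempty := by
      obtain ⟨z, hz⟩ := hne
      by_cases hz2 : a.1 z = a.2
      · obtain ⟨v, hv⟩ : ∃ v, a.1 v ≠ 0 := by
          by_contra hcon
          push Not at hcon
          exact h0 (ContinuousLinearMap.ext hcon)
        have hc : Tendsto (fun s : ℝ => z + s • v) (𝓝 0) (𝓝 (z + (0 : ℝ) • v)) := by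
          apply Continuous.tendsto
          fun_prop
        rw [zero_smul, add_zero] at hc
        have h1 : ∀ᶠ s in 𝓝[>] (0 : ℝ), z + s • v ∈ U :=
          (hc.eventually (hU.mem_nhds hz)).filter_mono nhdsWithin_le_nhds
        obtain ⟨s, hs, hs0⟩ := (h1.and self_mem_nhdsWithin).exists
        have hs0 : (0 : ℝ) < s := hs0
        refine ⟨z + s • v, hs, ?_⟩
        simp only [Set.mem_setOf_eq, map_add, map_smul, smul_eq_mul, hz2]
        intro hcon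
        have : s * a.1 v = 0 := by linarith
        rcases mul_eq_zero.1 this with h | h
        · exact hs0.ne' h
        · exact hv h
      · exact ⟨z, hz, hz2⟩
    obtain ⟨z, hz, hz'⟩ := ih (fun b hb => hA b (Finset.mem_insert_of_mem hb)) hop hne'
    refine ⟨z, hz.1, ?_⟩
    intro b hb
    rcases Finset.mem_insert.1 hb with rfl | hb
    · exact hz.2
    · exact hz' b hb

/-- the opposite half space -/
def opp (a : (E →L[ℝ] ℝ) × ℝ) : (E →L[ℝ] ℝ) × ℝ := (-a.1, -a.2)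

open Classical in
/-- the inequalities of one piece of a cut tile: `σ` = the hyperplanes of `A` on the side `≤` -/
noncomputable def cutH (H A σ : Finset ((E →L[ℝ] ℝ) × ℝ)) : Finset ((E →L[ℝ] ℝ) × ℝ) :=
  H ∪ σ ∪ (A \ σ).image opp

theorem mem_cutH {H A σ : Finset ((E →L[ℝ] ℝ) × ℝ)} {h : (E →L[ℝ] ℝ) × ℝ} :
    h ∈ cutH H A σ ↔ h ∈ H ∨ h ∈ σ ∨ ∃ a ∈ A, a ∉ σ ∧ opp a = h := by
  classical
  unfold cutH
  simp only [Finset.mem_union, Finset.mem_image, Finset.mem_sdiff]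
  constructor
  · rintro ((h1 | h1) | ⟨a, ⟨h1, h2⟩, h3⟩)
    · exact Or.inl h1
    · exact Or.inr (Or.inl h1)
    · exact Or.inr (Or.inr ⟨a, h1, h2, h3⟩)
  · rintro (h1 | h1 | ⟨a, h1, h2, h3⟩)
    · exact Or.inl (Or.inl h1)
    · exact Or.inl (Or.inr h1)
    · exact Or.inr ⟨a, ⟨h1, h2⟩, h3⟩

/-- quantifying over the inequalities of a piece -/
theorem forall_cutH {H A σ : Finset ((E →L[ℝ] ℝ) × ℝ)} {p : (E →L[ℝ] ℝ) × ℝ → Prop} :
    (∀ h ∈ cutH H A σ, p h) ↔ (∀ h ∈ H, p h) ∧ (∀ a ∈ σ, p a) ∧ ∀ a ∈ A, a ∉ σ → p (opp a) := by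
  constructor
  · intro h
    exact ⟨fun a ha => h a (mem_cutH.2 (Or.inl ha)), fun a ha => h a (mem_cutH.2 (Or.inr (Or.inl ha))),
      fun a ha hn => h _ (mem_cutH.2 (Or.inr (Or.inr ⟨a, ha, hn, rfl⟩)))⟩
  · rintro ⟨h1, h2, h3⟩ h hh
    rcases mem_cutH.1 hh with h | h | ⟨a, ha, hn, rfl⟩
    · exact h1 _ h
    · exact h2 _ h
    · exact h3 a ha hn

theorem mem_P_cutH {H A σ : Finset ((E →L[ℝ] ℝ) × ℝ)} {x : E} :
    x ∈ P (cutH H A σ) ↔ x ∈ P H ∧ (∀ a ∈ σ, a.1 x ≤ a.2) ∧ ∀ a ∈ A, a ∉ σ → a.2 ≤ a.1 x := by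
  show (∀ h ∈ cutH H A σ, h.1 x ≤ h.2) ↔ _
  rw [forall_cutH (p := fun h => h.1 x ≤ h.2)]
  simp only [opp, ContinuousLinearMap.neg_apply, neg_le_neg_iff]
  rfl

theorem mem_I_cutH {H A σ : Finset ((E →L[ℝ] ℝ) × ℝ)} {x : E} :
    x ∈ I (cutH H A σ) ↔ x ∈ I H ∧ (∀ a ∈ σ, a.1 x < a.2) ∧ ∀ a ∈ A, a ∉ σ → a.2 < a.1 x := by
  show (∀ h ∈ cutH H A σ, h.1 x < h.2) ↔ _
  rw [forall_cutH (p := fun h => h.1 x < h.2)]
  simp only [opp, ContinuousLinearMap.neg_apply, neg_lt_neg_iff]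
  rfl

variable {Om : Set E} {ι : Type*} (T : Tiling Om ι)

/-- index type of the cut tiling: (tile, sign pattern) with non empty interior -/
def CutIx (T : Tiling Om ι) (A : ι → Finset ((E →L[ℝ] ℝ) × ℝ)) : Type _ :=
  {p : ι × Finset ((E →L[ℝ] ℝ) × ℝ) // p.2 ⊆ A p.1 ∧ (I (cutH (T.H p.1) (A p.1) p.2)).Nonempty}

/-- the tile of a piece -/
def CutIx.par {T : Tiling Om ι} {A : ι → Finset ((E →L[ℝ] ℝ) × ℝ)} (p : CutIx T A) : ι := p.1.1

/-- the sign pattern of a piece -/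
def CutIx.sg {T : Tiling Om ι} {A : ι → Finset ((E →L[ℝ] ℝ) × ℝ)} (p : CutIx T A) :
    Finset ((E →L[ℝ] ℝ) × ℝ) := p.1.2

theorem CutIx.ext {T : Tiling Om ι} {A : ι → Finset ((E →L[ℝ] ℝ) × ℝ)} {p q : CutIx T A}
    (h1 : p.par = q.par) (h2 : p.sg = q.sg) : p = q := Subtype.ext (Prod.ext h1 h2)

/-- every point of a tile lies in one of its pieces -/
theorem exists_piece {A : ι → Finset ((E →L[ℝ] ℝ) × ℝ)} (hA : ∀ i, ∀ a ∈ A i, a.1 ≠ 0) {x : E}
    {i : ι} (hi : x ∈ P (T.H i)) :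
    ∃ p : CutIx T A, p.par = i ∧ x ∈ P (cutH (T.H i) (A i) p.sg) := by
  classical
  obtain ⟨z, hz, hzg⟩ := exists_generic (A i) (hA i) (isOpen_I (T.H i)) (T.ne i)
  set σ : Finset ((E →L[ℝ] ℝ) × ℝ) :=
    (A i).filter fun a => a.1 x < a.2 ∨ (a.1 x = a.2 ∧ a.1 z < a.2) with hσ
  -- a small step towards `z`
  have key : ∀ a ∈ A i, ∀ᶠ s in 𝓝[>] (0 : ℝ),
      (a ∈ σ → a.1 (x + s • (z - x)) < a.2) ∧ (a ∉ σ → a.2 < a.1 (x + s • (z - x))) := by
    intro a ha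
    have hform : ∀ s : ℝ, a.1 (x + s • (z - x)) = a.1 x + s * (a.1 z - a.1 x) := by
      intro s; simp only [map_add, map_smul, map_sub, smul_eq_mul]
    have hc : Tendsto (fun s : ℝ => a.1 (x + s • (z - x))) (𝓝 0) (𝓝 (a.1 (x + (0 : ℝ) • (z - x)))) := by
      apply Continuous.tendsto
      fun_prop
    rw [zero_smul, add_zero] at hc
    rcases lt_trichotomy (a.1 x) a.2 with h | h | h
    · have hmem : a ∈ σ := by rw [hσ]; exact Finset.mem_filter.2 ⟨ha, Or.inl h⟩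
      have := (hc.eventually (gt_mem_nhds h)).filter_mono (nhdsWithin_le_nhds (s := Ioi (0 : ℝ)))
      filter_upwards [this] with s hs
      exact ⟨fun _ => hs, fun hn => absurd hmem hn⟩
    · rcases lt_or_gt_of_ne (hzg a ha) with h2 | h2
      · have hmem : a ∈ σ := by rw [hσ]; exact Finset.mem_filter.2 ⟨ha, Or.inr ⟨h, h2⟩⟩
        filter_upwards [self_mem_nhdsWithin] with s hs
        have hs : (0 : ℝ) < s := hs
        refine ⟨fun _ => ?_, fun hn => absurd hmem hn⟩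
        rw [hform, h]
        nlinarith
      · have hmem : a ∉ σ := by
          rw [hσ]
          intro hcon
          rcases (Finset.mem_filter.1 hcon).2 with h3 | h3
          · exact (h ▸ h3).false
          · exact absurd h3.2 (not_lt.2 h2.le)
        filter_upwards [self_mem_nhdsWithin] with s hs
        have hs : (0 : ℝ) < s := hs
        refine ⟨fun hn => absurd hn hmem, fun _ => ?_⟩
        rw [hform, h]
        nlinarith
    · have hmem : a ∉ σ := by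
        rw [hσ]
        intro hcon
        rcases (Finset.mem_filter.1 hcon).2 with h3 | h3
        · exact absurd h3 (not_lt.2 h.le)
        · exact absurd h3.1 h.ne'
      have := (hc.eventually (lt_mem_nhds h)).filter_mono (nhdsWithin_le_nhds (s := Ioi (0 : ℝ)))
      filter_upwards [this] with s hs
      exact ⟨fun hn => absurd hn hmem, fun _ => hs⟩
  have hall : ∀ᶠ s in 𝓝[>] (0 : ℝ), ∀ a ∈ A i,
      (a ∈ σ → a.1 (x + s • (z - x)) < a.2) ∧ (a ∉ σ → a.2 < a.1 (x + s • (z - x))) :=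
    (Finset.eventually_all (l := 𝓝[>] (0 : ℝ)) (A i)).2 key
  have h1 : ∀ᶠ s in 𝓝[>] (0 : ℝ), s < 1 :=
    (gt_mem_nhds (zero_lt_one' ℝ)).filter_mono nhdsWithin_le_nhds
  obtain ⟨s, ⟨hs1, hs2⟩, hs3⟩ := ((hall.and h1).and self_mem_nhdsWithin).exists
  have hs3 : (0 : ℝ) < s := hs3
  have hsub : σ ⊆ A i := Finset.filter_subset _ _
  have hI : x + s • (z - x) ∈ I (cutH (T.H i) (A i) σ) := by
    refine mem_I_cutH.2 ⟨mem_I_of_move hi hz hs3 hs2.le, fun a ha => (hs1 a (hsub ha)).1 ha,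
      fun a ha hn => (hs1 a ha).2 hn⟩
  refine ⟨⟨(i, σ), hsub, _, hI⟩, rfl, ?_⟩
  show x ∈ P (cutH (T.H i) (A i) σ)
  refine mem_P_cutH.2 ⟨hi, ?_, ?_⟩
  · intro a ha
    rcases (Finset.mem_filter.1 ha).2 with h | h
    · exact h.le
    · exact h.1.le
  · intro a ha hn
    by_contra hcon
    push Not at hcon
    exact hn (Finset.mem_filter.2 ⟨ha, Or.inl hcon⟩)

/-- **the cut tiling** -/
noncomputable def cut (T : Tiling Om ι) (A : ι → Finset ((E →L[ℝ] ℝ) × ℝ))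
    (hA : ∀ i, ∀ a ∈ A i, a.1 ≠ 0) : Tiling Om (CutIx T A) where
  H p := cutH (T.H p.1.1) (A p.1.1) p.1.2
  cpt p := (T.cpt p.1.1).of_isClosed_subset (isClosed_P _) fun _ hx => (mem_P_cutH.1 hx).1
  ne p := p.2.2
  sub p := fun _ hx => T.sub p.1.1 (mem_P_cutH.1 hx).1
  cov x hx := by
    obtain ⟨i, hi⟩ := T.cov x hx
    obtain ⟨p, rfl, hp⟩ := exists_piece T hA hi
    exact ⟨p, hp⟩
  dis p q hpq := by
    rw [Set.disjoint_left]
    intro x hx hy
    obtain ⟨hx1, hx2, hx3⟩ := mem_I_cutH.1 hx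
    obtain ⟨hy1, hy2, hy3⟩ := mem_I_cutH.1 hy
    by_cases h : p.1.1 = q.1.1
    · apply hpq
      refine Subtype.ext (Prod.ext h ?_)
      ext a
      constructor
      · intro ha
        by_contra hn
        have h1 := hx2 a ha
        have h2 := hy3 a (h ▸ p.2.1 ha) hn
        exact absurd h1 (not_lt.2 h2.le)
      · intro ha
        by_contra hn
        have h1 := hy2 a ha
        have h2 := hx3 a (h.symm ▸ q.2.1 ha) hn
        exact absurd h1 (not_lt.2 h2.le)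
    · exact (Set.disjoint_left.1 (T.dis _ _ h)) hx1 hy1
  lf x hx := by
    classical
    obtain ⟨r, hr, hf⟩ := T.lf x hx
    refine ⟨r, hr, ?_⟩
    have hfin : (⋃ i ∈ {i | (P (T.H i) ∩ ball x r).Nonempty},
        (fun σ => ((i, σ) : ι × Finset ((E →L[ℝ] ℝ) × ℝ))) ''
          ((A i).powerset : Set (Finset ((E →L[ℝ] ℝ) × ℝ)))).Finite :=
      hf.biUnion fun i _ => ((A i).powerset.finite_toSet).image _
    refine Set.Finite.of_finite_image (f := Subtype.val) (hfin.subset ?_) Subtype.val_injective.injOn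
    rintro _ ⟨p, ⟨y, hy, hyb⟩, rfl⟩
    simp only [Set.mem_iUnion, Set.mem_image]
    refine ⟨p.1.1, ⟨y, (mem_P_cutH.1 hy).1, hyb⟩, p.1.2, ?_, rfl⟩
    simpa using p.2.1
  op := T.op

section

variable {T} {A : ι → Finset ((E →L[ℝ] ℝ) × ℝ)} {hA : ∀ i, ∀ a ∈ A i, a.1 ≠ 0}

theorem cut_H (p : CutIx T A) : (cut T A hA).H p = cutH (T.H p.par) (A p.par) p.sg := rfl

theorem mem_at_cut {x : E} {p : CutIx T A} : p ∈ (cut T A hA).at_ x ↔
    p.par ∈ T.at_ x ∧ (∀ a ∈ p.sg, a.1 x ≤ a.2) ∧ ∀ a ∈ A p.par, a ∉ p.sg → a.2 ≤ a.1 x := by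
  show x ∈ P (cutH (T.H p.par) (A p.par) p.sg) ↔ _
  rw [mem_P_cutH]
  rfl

theorem exists_at_cut (hA : ∀ i, ∀ a ∈ A i, a.1 ≠ 0) {x : E} {i : ι} (hi : i ∈ T.at_ x) :
    ∃ p ∈ (cut T A hA).at_ x, p.par = i := by
  obtain ⟨p, rfl, hp⟩ := exists_piece T hA hi
  exact ⟨p, hp, rfl⟩

/-- **the closed cells of the cut tiling** -/
theorem mem_cc_cut {x y : E} : y ∈ (cut T A hA).cc x ↔ y ∈ T.cc x ∧
    ∀ i ∈ T.at_ x, ∀ a ∈ A i, (a.1 x ≤ a.2 → a.1 y ≤ a.2) ∧ (a.2 ≤ a.1 x → a.2 ≤ a.1 y) := by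
  constructor
  · intro hy
    constructor
    · intro i hi h hh
      obtain ⟨p, hp, rfl⟩ := exists_at_cut hA hi
      exact hy p hp h (mem_cutH.2 (Or.inl hh))
    · intro i hi a ha
      obtain ⟨p, hp, rfl⟩ := exists_at_cut hA hi
      obtain ⟨-, h2, h3⟩ := mem_at_cut.1 hp
      by_cases hs : a ∈ p.sg
      · have h4 := hy p hp a (mem_cutH.2 (Or.inr (Or.inl hs)))
        exact ⟨fun _ => h4.1, fun h5 => (h4.2 (le_antisymm (h2 a hs) h5)).ge⟩
      · have h4 := hy p hp (opp a) (mem_cutH.2 (Or.inr (Or.inr ⟨a, ha, hs, rfl⟩)))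
        simp only [opp, ContinuousLinearMap.neg_apply, neg_le_neg_iff, neg_inj] at h4
        exact ⟨fun h5 => (h4.2 (le_antisymm h5 (h3 a ha hs))).le, fun _ => h4.1⟩
  · rintro ⟨h1, h2⟩ p hp h hh
    obtain ⟨h3, h4, h5⟩ := mem_at_cut.1 hp
    rcases mem_cutH.1 hh with h | h | ⟨a, ha, hn, rfl⟩
    · exact h1 p.par h3 _ h
    · have h6 := h2 p.par h3 _ (p.2.1 h)
      exact ⟨h6.1 (h4 _ h), fun h7 => le_antisymm (h6.1 h7.le) (h6.2 h7.ge)⟩
    · have h6 := h2 p.par h3 a ha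
      simp only [opp, ContinuousLinearMap.neg_apply, neg_le_neg_iff, neg_inj]
      exact ⟨h6.2 (h5 a ha hn), fun h7 => le_antisymm (h6.1 h7.le) (h6.2 h7.ge)⟩

/-- **the open cells of the cut tiling** -/
theorem mem_oc_cut {x y : E} : y ∈ (cut T A hA).oc x ↔ y ∈ T.oc x ∧
    ∀ i ∈ T.at_ x, ∀ a ∈ A i, (a.1 y ≤ a.2 ↔ a.1 x ≤ a.2) ∧ (a.2 ≤ a.1 y ↔ a.2 ≤ a.1 x) := by
  constructor
  · intro hy
    constructor
    · intro i hi h hh
      obtain ⟨p, hp, rfl⟩ := exists_at_cut hA hi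
      exact hy p hp h (mem_cutH.2 (Or.inl hh))
    · intro i hi a ha
      obtain ⟨p, hp, rfl⟩ := exists_at_cut hA hi
      obtain ⟨-, h2, h3⟩ := mem_at_cut.1 hp
      by_cases hs : a ∈ p.sg
      · have h4 := hy p hp a (mem_cutH.2 (Or.inr (Or.inl hs)))
        refine ⟨⟨fun _ => h2 a hs, fun _ => h4.1⟩, ⟨fun h5 => ?_, fun h5 => ?_⟩⟩
        · exact (h4.2.1 (le_antisymm h4.1 h5)).ge
        · exact (h4.2.2 (le_antisymm (h2 a hs) h5)).ge
      · have h4 := hy p hp (opp a) (mem_cutH.2 (Or.inr (Or.inr ⟨a, ha, hs, rfl⟩)))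
        simp only [opp, ContinuousLinearMap.neg_apply, neg_le_neg_iff, neg_inj] at h4
        refine ⟨⟨fun h5 => ?_, fun h5 => ?_⟩, ⟨fun _ => h3 a ha hs, fun _ => h4.1⟩⟩
        · exact (h4.2.1 (le_antisymm h5 h4.1)).le
        · exact (h4.2.2 (le_antisymm h5 (h3 a ha hs))).le
  · rintro ⟨h1, h2⟩ p hp h hh
    obtain ⟨h3, h4, h5⟩ := mem_at_cut.1 hp
    rcases mem_cutH.1 hh with h | h | ⟨a, ha, hn, rfl⟩
    · exact h1 p.par h3 _ h
    · have h6 := h2 p.par h3 _ (p.2.1 h)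
      refine ⟨h6.1.2 (h4 _ h), fun h7 => ?_, fun h7 => ?_⟩
      · exact le_antisymm (h6.1.1 h7.le) (h6.2.1 h7.ge)
      · exact le_antisymm (h6.1.2 h7.le) (h6.2.2 h7.ge)
    · have h6 := h2 p.par h3 a ha
      simp only [opp, ContinuousLinearMap.neg_apply, neg_le_neg_iff, neg_inj]
      refine ⟨h6.2.2 (h5 a ha hn), fun h7 => ?_, fun h7 => ?_⟩
      · exact le_antisymm (h6.1.1 h7.le) (h6.2.1 h7.ge)
      · exact le_antisymm (h6.1.2 h7.le) (h6.2.2 h7.ge)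

/-- **the directions of the cells of the cut tiling** -/
theorem mem_V_cut {x v : E} : v ∈ (cut T A hA).V x ↔ v ∈ T.V x ∧
    ∀ i ∈ T.at_ x, ∀ a ∈ A i, a.1 x = a.2 → a.1 v = 0 := by
  rw [Tiling.mem_V, Tiling.mem_V]
  constructor
  · intro hy
    constructor
    · intro i hi h hh
      obtain ⟨p, hp, rfl⟩ := exists_at_cut hA hi
      exact hy p hp h (mem_cutH.2 (Or.inl hh))
    · intro i hi a ha e
      obtain ⟨p, hp, rfl⟩ := exists_at_cut hA hi
      by_cases hs : a ∈ p.sg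
      · exact hy p hp a (mem_cutH.2 (Or.inr (Or.inl hs))) e
      · have h4 := hy p hp (opp a) (mem_cutH.2 (Or.inr (Or.inr ⟨a, ha, hs, rfl⟩)))
        simp only [opp, ContinuousLinearMap.neg_apply, neg_inj, neg_eq_zero] at h4
        exact h4 e
  · rintro ⟨h1, h2⟩ p hp h hh e
    obtain ⟨h3, h4, h5⟩ := mem_at_cut.1 hp
    rcases mem_cutH.1 hh with h | h | ⟨a, ha, hn, rfl⟩
    · exact h1 p.par h3 _ h e
    · exact h2 p.par h3 _ (p.2.1 h) e
    · simp only [opp, ContinuousLinearMap.neg_apply, neg_inj, neg_eq_zero] at e ⊢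
      exact h2 p.par h3 a ha e

theorem cc_cut_sub (x : E) : (cut T A hA).cc x ⊆ T.cc x := fun _ hy => (mem_cc_cut.1 hy).1

theorem oc_cut_sub (x : E) : (cut T A hA).oc x ⊆ T.oc x := fun _ hy => (mem_oc_cut.1 hy).1

theorem V_cut_le (x : E) : (cut T A hA).V x ≤ T.V x := fun _ hy => (mem_V_cut.1 hy).1

theorem dim_cut_le [FiniteDimensional ℝ E] (x : E) : (cut T A hA).dim x ≤ T.dim x :=
  Submodule.finrank_mono (V_cut_le x)

/-- nothing changes at a point all of whose tiles are untouched -/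
theorem cc_cut_eq {x : E} (h : ∀ i ∈ T.at_ x, A i = ∅) : (cut T A hA).cc x = T.cc x := by
  ext y
  rw [mem_cc_cut]
  refine ⟨fun h => h.1, fun hy => ⟨hy, fun i hi a ha => ?_⟩⟩
  rw [h i hi] at ha
  exact absurd ha (Finset.notMem_empty _)

theorem oc_cut_eq {x : E} (h : ∀ i ∈ T.at_ x, A i = ∅) : (cut T A hA).oc x = T.oc x := by
  ext y
  rw [mem_oc_cut]
  refine ⟨fun h => h.1, fun hy => ⟨hy, fun i hi a ha => ?_⟩⟩
  rw [h i hi] at ha
  exact absurd ha (Finset.notMem_empty _)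

theorem V_cut_eq {x : E} (h : ∀ i ∈ T.at_ x, A i = ∅) : (cut T A hA).V x = T.V x := by
  ext y
  rw [mem_V_cut]
  refine ⟨fun h => h.1, fun hy => ⟨hy, fun i hi a ha => ?_⟩⟩
  rw [h i hi] at ha
  exact absurd ha (Finset.notMem_empty _)

theorem dim_cut_eq {x : E} (h : ∀ i ∈ T.at_ x, A i = ∅) : (cut T A hA).dim x = T.dim x := by
  unfold Tiling.dim; rw [V_cut_eq h]

/-- more generally: only the hyperplanes through `x` matter for the directions -/
theorem V_cut_eq' {x : E} (h : ∀ i ∈ T.at_ x, ∀ a ∈ A i, a.1 x ≠ a.2) :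
    (cut T A hA).V x = T.V x := by
  ext y
  rw [mem_V_cut]
  exact ⟨fun h => h.1, fun hy => ⟨hy, fun i hi a ha e => absurd e (h i hi a ha)⟩⟩

/-- a tile of the cut tiling is a piece of its parent -/
theorem cut_tile_sub (p : CutIx T A) : P ((cut T A hA).H p) ⊆ P (T.H p.par) := fun _ hx =>
  (mem_P_cutH.1 hx).1

theorem cut_I_sub (p : CutIx T A) : I ((cut T A hA).H p) ⊆ I (T.H p.par) := fun _ hx =>
  (mem_I_cutH.1 hx).1

/-- the pieces of a tile cover it -/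
theorem tile_eq_iUnion (hA : ∀ i, ∀ a ∈ A i, a.1 ≠ 0) (i : ι) :
    P (T.H i) = ⋃ p ∈ {p : CutIx T A | p.par = i}, P ((cut T A hA).H p) := by
  apply Set.Subset.antisymm
  · intro x hx
    obtain ⟨p, rfl, hp⟩ := exists_piece T hA hx
    simp only [Set.mem_iUnion]
    exact ⟨p, rfl, hp⟩
  · intro x hx
    simp only [Set.mem_iUnion] at hx
    obtain ⟨p, hp, hx⟩ := hx
    have : p.par = i := hp
    exact this ▸ cut_tile_sub p hx

/-- the pieces of an untouched tile: the tile itself -/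
theorem cut_H_of_empty {p : CutIx T A} (h : A p.par = ∅) :
    P ((cut T A hA).H p) = P (T.H p.par) ∧ I ((cut T A hA).H p) = I (T.H p.par) := by
  have h1 : p.sg = ∅ := Finset.subset_empty.1 (h ▸ p.2.1)
  constructor
  · ext x
    rw [cut_H, mem_P_cutH, h1, h]
    simp
  · ext x
    rw [cut_H, mem_I_cutH, h1, h]
    simp

/-- an untouched tile has exactly one piece -/
theorem existsUnique_piece (hA : ∀ i, ∀ a ∈ A i, a.1 ≠ 0) {i : ι} (h : A i = ∅) :
    ∃! p : CutIx T A, p.par = i := by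
  obtain ⟨z, hz⟩ := T.ne i
  obtain ⟨p, hp, -⟩ := exists_piece T hA (I_sub_P _ hz)
  have key : ∀ q : CutIx T A, q.par = i → q.sg = ∅ := by
    intro q hq
    have h1 : q.sg ⊆ A q.par := q.2.1
    rw [hq, h] at h1
    exact Finset.subset_empty.1 h1
  exact ⟨p, hp, fun q hq => CutIx.ext (hq.trans hp.symm) ((key q hq).trans (key p hp).symm)⟩

/-! ### subcomplexes -/

/-- a closed polyhedron given by relations from the `A i`: `Le` (side `≤`), `Ge` (side `≥`) -/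
def poly (Le Ge : Set ((E →L[ℝ] ℝ) × ℝ)) : Set E :=
  {y | (∀ a ∈ Le, a.1 y ≤ a.2) ∧ ∀ a ∈ Ge, a.2 ≤ a.1 y}

/-- **a polyhedron whose relations are among the cutting hyperplanes of ONE tile at `x` contains the
cell of each of its points** -/
theorem cc_sub_poly {Le Ge : Set ((E →L[ℝ] ℝ) × ℝ)} {x : E}
    (hL : ∀ a ∈ Le, ∃ i ∈ T.at_ x, a ∈ A i) (hG : ∀ a ∈ Ge, ∃ i ∈ T.at_ x, a ∈ A i)
    (hx : x ∈ poly Le Ge) : (cut T A hA).cc x ⊆ poly Le Ge := by
  intro y hy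
  obtain ⟨-, h2⟩ := mem_cc_cut.1 hy
  constructor
  · intro a ha
    obtain ⟨i, hi, hai⟩ := hL a ha
    exact (h2 i hi a hai).1 (hx.1 a ha)
  · intro a ha
    obtain ⟨i, hi, hai⟩ := hG a ha
    exact (h2 i hi a hai).2 (hx.2 a ha)

/-- a set `S` which is a union of such polyhedra is a **subcomplex** of the cut tiling -/
theorem cc_sub_of_poly {S : Set E} {κ : Type*} (L G : κ → Set ((E →L[ℝ] ℝ) × ℝ))
    (hS : ∀ x ∈ S, ∃ k, x ∈ poly (L k) (G k) ∧ poly (L k) (G k) ∩ T.cc x ⊆ S ∧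
      (∀ a ∈ L k, ∃ i ∈ T.at_ x, a ∈ A i) ∧ ∀ a ∈ G k, ∃ i ∈ T.at_ x, a ∈ A i)
    {x : E} (hx : x ∈ S) : (cut T A hA).cc x ⊆ S := by
  obtain ⟨k, h1, h2, h3, h4⟩ := hS x hx
  exact fun y hy => h2 ⟨cc_sub_poly h3 h4 h1 hy, cc_cut_sub x hy⟩

end

end Crest.Agent.R096.Cut_874
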