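import Crest.Agent.R096.Cut1_874
import Crest.Agent.R096.Msh2_715

/-!
# Row 96, library: cutting a tiling, part 2: coordinate grids (fineness), subcomplexes, sides
-/

set_option autoImplicit false

open Set Filter Topology Metric

namespace Crest.Agent.R096.Cut_874

open Msh_715

variable {E : Type*} [NormedAddCommGroup E] [NormedSpace ℝ E]
variable {Om : Set E} {ι : Type*}

/-! ### Subcomplexes of a tiling -/

/-- `S` is a subcomplex: it contains the closed cell of each of its points -/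
def IsSub (T : Tiling Om ι) (S : Set E) : Prop := ∀ x ∈ S, T.cc x ⊆ S

namespace IsSub

variable {T : Tiling Om ι} {S S' : Set E}

theorem union (h : IsSub T S) (h' : IsSub T S') : IsSub T (S ∪ S') := by
  rintro x (hx | hx)
  · exact (h x hx).trans Set.subset_union_left
  · exact (h' x hx).trans Set.subset_union_right

theorem inter (h : IsSub T S) (h' : IsSub T S') : IsSub T (S ∩ S') := fun x hx =>
  Set.subset_inter (h x hx.1) (h' x hx.2)

theorem iUnion {κ : Sort*} {F : κ → Set E} (h : ∀ k, IsSub T (F k)) : IsSub T (⋃ k, F k) := by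
  intro x hx
  obtain ⟨k, hk⟩ := Set.mem_iUnion.1 hx
  exact (h k x hk).trans (Set.subset_iUnion F k)

theorem tile (i : ι) : IsSub T (P (T.H i)) := fun _ hx => T.cc_sub_tile hx

/-- an open cell with centre off a subcomplex misses it -/
theorem disjoint_oc (h : IsSub T S) {x : E} (hx : x ∈ Om) (hxS : x ∉ S) : Disjoint (T.oc x) S := by
  rw [Set.disjoint_left]
  intro y hy hyS
  apply hxS
  have h1 := h y hyS
  rw [T.cc_eq_of_mem_oc hx hy] at h1
  exact h1 (T.self_mem_cc x)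

theorem oc_sub (h : IsSub T S) {x : E} (hx : x ∈ S) : T.oc x ⊆ S :=
  (T.oc_sub_cc x).trans (h x hx)

/-- a closed set with frontier in a subcomplex: an open cell off `S` is inside or outside -/
theorem oc_side (h : IsSub T S) {K : Set E} (hK : frontier K ⊆ S) {x : E} (hx : x ∈ Om)
    (hxS : x ∉ S) : T.oc x ⊆ interior K ∨ T.oc x ⊆ (closure K)ᶜ := by
  have hpre : IsPreconnected (T.oc x) := (T.convex_oc x).isPreconnected
  have hd : Disjoint (T.oc x) (frontier K) := (h.disjoint_oc hx hxS).mono_right hK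
  have hcov : T.oc x ⊆ interior K ∪ (closure K)ᶜ := by
    intro y hy
    by_cases h1 : y ∈ closure K
    · left
      by_contra h2
      exact (Set.disjoint_left.1 hd) hy ⟨h1, h2⟩
    · exact Or.inr h1
  rcases hpre.subset_or_subset isOpen_interior isClosed_closure.isOpen_compl
    (Set.disjoint_left.2 fun y h1 h2 => h2 (interior_subset_closure h1)) hcov with h1 | h1
  · exact Or.inl h1
  · exact Or.inr h1

/-- the same for tiles -/
theorem tile_side (h : IsSub T S) (hI : interior S = ∅) {K : Set E} (hK : frontier K ⊆ S) (i : ι) :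
    (I (T.H i) ⊆ interior K ∧ P (T.H i) ⊆ closure K) ∨
      (I (T.H i) ⊆ (closure K)ᶜ ∧ P (T.H i) ⊆ closure (Kᶜ)) := by
  have hex : ∃ z ∈ I (T.H i), z ∉ S := by
    by_contra hcon
    push Not at hcon
    have : I (T.H i) ⊆ interior S := (isOpen_I _).subset_interior_iff.2 hcon
    rw [hI] at this
    obtain ⟨z, hz⟩ := T.ne i
    exact this hz
  obtain ⟨z, hz, hzS⟩ := hex
  have hzO : z ∈ Om := T.sub i (I_sub_P _ hz)
  have hcl : closure (I (T.H i)) = P (T.H i) := by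
    rw [← T.oc_eq_tile hz, T.closure_oc, T.cc_eq_tile hz]
  rcases h.oc_side hK hzO hzS with h1 | h1
  · left
    rw [T.oc_eq_tile hz] at h1
    refine ⟨h1, ?_⟩
    rw [← hcl]
    exact closure_mono (h1.trans interior_subset)
  · right
    rw [T.oc_eq_tile hz] at h1
    refine ⟨h1, ?_⟩
    rw [← hcl]
    exact closure_mono (h1.trans (Set.compl_subset_compl.2 subset_closure))

/-- the cut of a tiling keeps subcomplexes -/
theorem cut (h : IsSub T S) {A : ι → Finset ((E →L[ℝ] ℝ) × ℝ)} {hA : ∀ i, ∀ a ∈ A i, a.1 ≠ 0} :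
    IsSub (Cut_874.cut T A hA) S := fun x hx => (cc_cut_sub x).trans (h x hx)

end IsSub

/-! ### Coordinate grids -/

section grid

variable {n : ℕ} (φ : E ≃L[ℝ] (Fin n → ℝ))

/-- the `j`-th coordinate in the frame `φ` -/
noncomputable def co (j : Fin n) : E →L[ℝ] ℝ :=
  (ContinuousLinearMap.proj (R := ℝ) (φ := fun _ : Fin n => ℝ) j).comp
    (φ : E →L[ℝ] (Fin n → ℝ))

@[simp] theorem co_apply (j : Fin n) (x : E) : co φ j x = φ x j := rfl

theorem co_ne_zero (j : Fin n) : co φ j ≠ 0 := by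
  intro h
  have h1 : co φ j (φ.symm (Pi.single j 1)) = 0 := by rw [h]; rfl
  rw [co_apply, ContinuousLinearEquiv.apply_symm_apply, Pi.single_eq_same] at h1
  exact one_ne_zero h1

open Classical in
/-- the hyperplanes `φ_j = t`, `t ∈ Θ j` -/
noncomputable def grid (Θ : Fin n → Finset ℝ) : Finset ((E →L[ℝ] ℝ) × ℝ) :=
  Finset.univ.biUnion fun j => (Θ j).image fun t => (co φ j, t)

theorem mem_grid {Θ : Fin n → Finset ℝ} {a : (E →L[ℝ] ℝ) × ℝ} :
    a ∈ grid φ Θ ↔ ∃ j, ∃ t ∈ Θ j, (co φ j, t) = a := by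
  classical
  simp [grid]

theorem grid_ne {Θ : ι → Fin n → Finset ℝ} : ∀ i, ∀ a ∈ grid φ (Θ i), a.1 ≠ 0 := by
  intro i a ha
  obtain ⟨j, t, -, rfl⟩ := (mem_grid φ).1 ha
  exact co_ne_zero φ j

/-- the tiling cut by a grid in every tile -/
noncomputable def gcut (T : Tiling Om ι) (Θ : ι → Fin n → Finset ℝ) :
    Tiling Om (CutIx T fun i => grid φ (Θ i)) :=
  cut T (fun i => grid φ (Θ i)) (grid_ne φ)

variable {φ} {T : Tiling Om ι} {Θ : ι → Fin n → Finset ℝ}

theorem mem_cc_gcut {x y : E} : y ∈ (gcut φ T Θ).cc x ↔ y ∈ T.cc x ∧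
    ∀ i ∈ T.at_ x, ∀ j, ∀ t ∈ Θ i j, (φ x j ≤ t → φ y j ≤ t) ∧ (t ≤ φ x j → t ≤ φ y j) := by
  unfold gcut
  rw [mem_cc_cut]
  refine and_congr_right fun _ => ?_
  constructor
  · intro h i hi j t ht
    exact h i hi (co φ j, t) ((mem_grid φ).2 ⟨j, t, ht, rfl⟩)
  · intro h i hi a ha
    obtain ⟨j, t, ht, rfl⟩ := (mem_grid φ).1 ha
    exact h i hi j t ht

theorem mem_oc_gcut {x y : E} : y ∈ (gcut φ T Θ).oc x ↔ y ∈ T.oc x ∧
    ∀ i ∈ T.at_ x, ∀ j, ∀ t ∈ Θ i j, (φ y j ≤ t ↔ φ x j ≤ t) ∧ (t ≤ φ y j ↔ t ≤ φ x j) := by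
  unfold gcut
  rw [mem_oc_cut]
  refine and_congr_right fun _ => ?_
  constructor
  · intro h i hi j t ht
    exact h i hi (co φ j, t) ((mem_grid φ).2 ⟨j, t, ht, rfl⟩)
  · intro h i hi a ha
    obtain ⟨j, t, ht, rfl⟩ := (mem_grid φ).1 ha
    exact h i hi j t ht

/-- the signs of a piece with respect to a hyperplane of its grid -/
theorem piece_side {p : CutIx T fun i => grid φ (Θ i)} {j : Fin n} {t : ℝ}
    (ht : t ∈ Θ p.par j) :
    (∀ y ∈ P ((gcut φ T Θ).H p), φ y j ≤ t) ∨ (∀ y ∈ P ((gcut φ T Θ).H p), t ≤ φ y j) := by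
  classical
  have hmem : ((co φ j, t) : (E →L[ℝ] ℝ) × ℝ) ∈ grid φ (Θ p.par) := (mem_grid φ).2 ⟨j, t, ht, rfl⟩
  by_cases hs : ((co φ j, t) : (E →L[ℝ] ℝ) × ℝ) ∈ p.sg
  · left
    intro y hy
    exact (mem_P_cutH.1 hy).2.1 _ hs
  · right
    intro y hy
    exact (mem_P_cutH.1 hy).2.2 _ hmem hs

/-- finitely many values of a dense set separate all pairs at distance `> d` in a bounded interval -/
theorem exists_sep {D : Set ℝ} (hD : Dense D) (R : ℝ) {d : ℝ} (hd : 0 < d) :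
    ∃ Θ : Finset ℝ, (∀ t ∈ Θ, t ∈ D) ∧ ∀ u v : ℝ, -R ≤ u → u ≤ R → u + d < v → ∃ t ∈ Θ, u < t ∧ t < v := by
  classical
  have hex : ∀ k : ℤ, ∃ t ∈ D, (k : ℝ) * (d / 2) < t ∧ t < ((k : ℝ) + 1) * (d / 2) := by
    intro k
    obtain ⟨t, ht, ht'⟩ := hD.exists_between (show (k : ℝ) * (d / 2) < ((k : ℝ) + 1) * (d / 2) by
      nlinarith)
    exact ⟨t, ht, ht'.1, ht'.2⟩
  choose f hf hf1 hf2 using hex
  obtain ⟨N, hN⟩ := exists_nat_ge (R / (d / 2) + 1)
  refine ⟨(Finset.Icc (-(N : ℤ)) N).image f, ?_, ?_⟩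
  · intro t ht
    obtain ⟨k, -, rfl⟩ := Finset.mem_image.1 ht
    exact hf k
  · intro u v hu hu' huv
    have hd2 : 0 < d / 2 := by linarith
    set k : ℤ := ⌈u / (d / 2)⌉ with hk
    have h1 : u ≤ (k : ℝ) * (d / 2) := by
      have := Int.le_ceil (u / (d / 2))
      rw [← hk] at this
      rwa [div_le_iff₀ hd2] at this
    have h2 : (k : ℝ) * (d / 2) < u + d / 2 := by
      have := Int.ceil_lt_add_one (u / (d / 2))
      rw [← hk] at this
      have h3 : (k : ℝ) * (d / 2) < (u / (d / 2) + 1) * (d / 2) := mul_lt_mul_of_pos_right this hd2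
      have h4 : (u / (d / 2) + 1) * (d / 2) = u + d / 2 := by field_simp
      linarith
    refine ⟨f k, Finset.mem_image_of_mem f (Finset.mem_Icc.2 ⟨?_, ?_⟩), lt_of_le_of_lt h1 (hf1 k), ?_⟩
    · have h5 : -(N : ℝ) ≤ (k : ℝ) := by
        have h6 : -(R / (d / 2)) ≤ u / (d / 2) := by
          rw [← neg_div]; exact (div_le_div_iff_of_pos_right hd2).2 hu
        have h7 := Int.le_ceil (u / (d / 2))
        rw [← hk] at h7
        linarith
      exact_mod_cast h5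
    · have h5 : (k : ℝ) ≤ (N : ℝ) := by
        have h6 : u / (d / 2) ≤ R / (d / 2) := (div_le_div_iff_of_pos_right hd2).2 hu'
        have h7 := Int.ceil_lt_add_one (u / (d / 2))
        rw [← hk] at h7
        linarith
      exact_mod_cast h5
    · have := hf2 k
      nlinarith

/-- **arbitrary fineness with generic grids**: in the tiles of `C` the pieces are as small as one
likes, the given values `Θ₀` are used, all the other ones are in the dense sets `D j`;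
the other tiles are cut by `Θ₀` only. -/
theorem exists_fine (φ : E ≃L[ℝ] (Fin n → ℝ)) (T : Tiling Om ι) {D : Fin n → Set ℝ}
    (hD : ∀ j, Dense (D j)) (Θ₀ : ι → Fin n → Finset ℝ) (C : Set ι) {δ : ι → ℝ}
    (hδ : ∀ i, 0 < δ i) :
    ∃ Θ : ι → Fin n → Finset ℝ, (∀ i j, Θ₀ i j ⊆ Θ i j) ∧
      (∀ i j, ∀ t ∈ Θ i j, t ∈ Θ₀ i j ∨ t ∈ D j) ∧ (∀ i, i ∉ C → Θ i = Θ₀ i) ∧
      ∀ p : CutIx T (fun i => grid φ (Θ i)), p.par ∈ C →
        ∀ y ∈ P ((gcut φ T Θ).H p), ∀ z ∈ P ((gcut φ T Θ).H p), dist y z < δ p.par := by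
  classical
  -- bounds of the coordinates on a tile
  have hbd : ∀ i, ∃ R : ℝ, ∀ y ∈ P (T.H i), ∀ j, |φ y j| ≤ R := by
    intro i
    obtain ⟨R, hR⟩ := ((T.cpt i).image φ.continuous).isBounded.exists_norm_le
    refine ⟨R, fun y hy j => ?_⟩
    have h1 := hR _ (Set.mem_image_of_mem φ hy)
    exact (norm_le_pi_norm (φ y) j).trans h1
  choose R hR using hbd
  set c : ℝ := ‖(φ.symm : (Fin n → ℝ) →L[ℝ] E)‖ + 1 with hc
  have hc0 : 0 < c := by positivity
  have hsep : ∀ i j, ∃ Θ : Finset ℝ, (∀ t ∈ Θ, t ∈ D j) ∧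
      ∀ u v : ℝ, -R i ≤ u → u ≤ R i → u + δ i / (2 * c) < v → ∃ t ∈ Θ, u < t ∧ t < v := by
    intro i j
    exact exists_sep (hD j) (R i) (by have := hδ i; positivity)
  choose Θ₁ hΘ₁ hΘ₁' using hsep
  refine ⟨fun i j => if i ∈ C then Θ₀ i j ∪ Θ₁ i j else Θ₀ i j, ?_, ?_, ?_, ?_⟩
  · intro i j
    show Θ₀ i j ⊆ if i ∈ C then Θ₀ i j ∪ Θ₁ i j else Θ₀ i j
    split_ifs
    · exact Finset.subset_union_left
    · exact Finset.Subset.refl _
  · intro i j t ht
    have ht : t ∈ (if i ∈ C then Θ₀ i j ∪ Θ₁ i j else Θ₀ i j) := ht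
    split_ifs at ht with h
    · rcases Finset.mem_union.1 ht with h1 | h1
      · exact Or.inl h1
      · exact Or.inr (hΘ₁ i j t h1)
    · exact Or.inl ht
  · intro i hi
    funext j
    show (if i ∈ C then Θ₀ i j ∪ Θ₁ i j else Θ₀ i j) = Θ₀ i j
    rw [if_neg hi]
  · intro p hp y hy z hz
    have key : ∀ y ∈ P (T.H p.par), ∀ z ∈ P (T.H p.par),
        y ∈ P ((gcut φ T fun i j => if i ∈ C then Θ₀ i j ∪ Θ₁ i j else Θ₀ i j).H p) →
        z ∈ P ((gcut φ T fun i j => if i ∈ C then Θ₀ i j ∪ Θ₁ i j else Θ₀ i j).H p) →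
        ∀ j, φ z j ≤ φ y j + δ p.par / (2 * c) := by
      intro y hy z hz hyp hzp j
      by_contra hcon
      push Not at hcon
      have hy1 := abs_le.1 (hR _ y hy j)
      obtain ⟨t, ht, ht1, ht2⟩ := hΘ₁' p.par j (φ y j) (φ z j) hy1.1 hy1.2 hcon
      have htm : t ∈ (if p.par ∈ C then Θ₀ p.par j ∪ Θ₁ p.par j else Θ₀ p.par j) := by
        rw [if_pos hp]; exact Finset.mem_union_right _ ht
      rcases piece_side (p := p) (Θ := fun i j => if i ∈ C then Θ₀ i j ∪ Θ₁ i j else Θ₀ i j) htm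
        with h | h
      · exact absurd (h z hzp) (not_le.2 ht2)
      · exact absurd (h y hyp) (not_le.2 ht1)
    have hyT : y ∈ P (T.H p.par) := cut_tile_sub p hy
    have hzT : z ∈ P (T.H p.par) := cut_tile_sub p hz
    have h1 : ‖φ y - φ z‖ ≤ δ p.par / (2 * c) := by
      rw [pi_norm_le_iff_of_nonneg (by have := hδ p.par; positivity)]
      intro j
      rw [Pi.sub_apply, Real.norm_eq_abs, abs_le]
      have a := key y hyT z hzT hy hz j
      have b := key z hzT y hyT hz hy j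
      constructor <;> linarith
    have h2 : y - z = φ.symm (φ y - φ z) := by
      rw [map_sub, ContinuousLinearEquiv.symm_apply_apply, ContinuousLinearEquiv.symm_apply_apply]
    have h3 : ‖y - z‖ ≤ c * (δ p.par / (2 * c)) := by
      rw [h2]
      refine ((φ.symm : (Fin n → ℝ) →L[ℝ] E).le_opNorm _).trans ?_
      refine mul_le_mul ?_ h1 (norm_nonneg _) hc0.le
      rw [hc]; linarith
    have h4 : c * (δ p.par / (2 * c)) = δ p.par / 2 := by field_simp
    rw [dist_eq_norm]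
    have := hδ p.par
    linarith

/-- closed boxes in the frame `φ` (degenerate sides allowed: rectangles, segments) -/
def bx (φ : E ≃L[ℝ] (Fin n → ℝ)) (lo hi : Fin n → ℝ) : Set E := {y | ∀ j, lo j ≤ φ y j ∧ φ y j ≤ hi j}

/-- **every finite (or infinite) union of boxes whose bounds are grid values is a subcomplex** -/
theorem isSub_boxes {κ : Type*} (lo hi : κ → Fin n → ℝ)
    (h : ∀ k i, (P (T.H i) ∩ bx φ (lo k) (hi k)).Nonempty → ∀ j, lo k j ∈ Θ i j ∧ hi k j ∈ Θ i j)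
    (hO : ∀ k, bx φ (lo k) (hi k) ⊆ Om) : IsSub (gcut φ T Θ) (⋃ k, bx φ (lo k) (hi k)) := by
  intro x hx
  obtain ⟨k, hk⟩ := Set.mem_iUnion.1 hx
  obtain ⟨i, hi⟩ := T.at_nonempty (hO k hk)
  have hg := h k i ⟨x, hi, hk⟩
  intro y hy
  obtain ⟨-, h2⟩ := mem_cc_gcut.1 hy
  refine Set.mem_iUnion.2 ⟨k, fun j => ?_⟩
  exact ⟨(h2 i hi j _ (hg j).1).2 (hk j).1, (h2 i hi j _ (hg j).2).1 (hk j).2⟩

end grid

/-- cutting twice = cutting once by the union (cells) -/
theorem cc_cut_cut {T : Tiling Om ι} {A B : ι → Finset ((E →L[ℝ] ℝ) × ℝ)}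
    {hA : ∀ i, ∀ a ∈ A i, a.1 ≠ 0} {hB : ∀ i, ∀ a ∈ B i, a.1 ≠ 0} {C : ι → Finset ((E →L[ℝ] ℝ) × ℝ)}
    {hC : ∀ i, ∀ a ∈ C i, a.1 ≠ 0} (h : ∀ i a, a ∈ C i ↔ a ∈ A i ∨ a ∈ B i) (x : E) :
    (cut (cut T A hA) (fun p => B p.par) (fun p => hB p.par)).cc x = (cut T C hC).cc x := by
  ext y
  rw [mem_cc_cut, mem_cc_cut, mem_cc_cut]
  constructor
  · rintro ⟨⟨h1, h2⟩, h3⟩
    refine ⟨h1, fun i hi a ha => ?_⟩
    rcases (h i a).1 ha with ha | ha
    · exact h2 i hi a ha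
    · obtain ⟨p, hp, rfl⟩ := exists_at_cut hA hi
      exact h3 p hp a ha
  · rintro ⟨h1, h2⟩
    exact ⟨⟨h1, fun i hi a ha => h2 i hi a ((h i a).2 (Or.inl ha))⟩,
      fun p hp a ha => h2 p.par (mem_at_cut.1 hp).1 a ((h p.par a).2 (Or.inr ha))⟩

end Crest.Agent.R096.Cut_874
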