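import Crest.Agent.R096.Core2_124

/-!
# R096 (row 96, p ≤ 2): words on core edges under a target squeeze (helper527)

`v` is close to affine on `[0,1]` (defect `g`), `ψ` nondecreasing, 1-Lipschitz with values in
`[0,σ]` : the increments of `ψ ∘ v` have a density of integral `≤ σ + 2 ∫ g`
(`ψ ∘ v` moves only while `v` crosses the support of `ψ'`, and this costs at most `σ` plus the
defect).  Hence a curve `c` near an affine one (`NearSeg`) stays near after composition with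
`R y = y - ∑ a, ψ a (ℓ a y) • e a`.
-/

set_option autoImplicit false

namespace Crest.Agent.R096.Cwr_527

open MeasureTheory Set Filter Topology Crest.Agent.R096.Core_124

noncomputable section

/-- domination of increments gives absolute continuity -/
theorem ac_of_le {w V : ℝ → ℝ} (hV : AbsolutelyContinuousOnInterval V 0 1)
    (h : ∀ s ∈ Icc (0:ℝ) 1, ∀ t ∈ Icc (0:ℝ) 1, |w s - w t| ≤ |V s - V t|) :
    AbsolutelyContinuousOnInterval w 0 1 := by
  rw [absolutelyContinuousOnInterval_iff] at hV ⊢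
  intro ε hε
  obtain ⟨δ, hδ, H⟩ := hV ε hε
  refine ⟨δ, hδ, fun E hE hs => lt_of_le_of_lt (Finset.sum_le_sum fun i hi => ?_) (H E hE hs)⟩
  have h1 := hE.1 i hi
  rw [uIcc_of_le (zero_le_one' ℝ)] at h1
  rw [Real.dist_eq, Real.dist_eq]
  exact h _ h1.1 _ h1.2

/-- increments dominated by `V`, nondecreasing: density -/
theorem exists_density {w V : ℝ → ℝ} (hV : AbsolutelyContinuousOnInterval V 0 1)
    (h0 : ∀ s ∈ Icc (0:ℝ) 1, ∀ t ∈ Icc (0:ℝ) 1, s ≤ t → w s ≤ w t)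
    (h1 : ∀ s ∈ Icc (0:ℝ) 1, ∀ t ∈ Icc (0:ℝ) 1, s ≤ t → w t - w s ≤ V t - V s) :
    ∃ γ : ℝ → ℝ, IntervalIntegrable γ volume 0 1 ∧ (∀ t, 0 ≤ γ t) ∧
      ∀ s ∈ Icc (0:ℝ) 1, ∀ t ∈ Icc (0:ℝ) 1, s ≤ t → ∫ τ in s..t, γ τ = w t - w s := by
  have hw : AbsolutelyContinuousOnInterval w 0 1 := by
    refine ac_of_le hV fun s hs t ht => ?_
    rcases le_total s t with hst | hst
    · have e0 := h0 s hs t ht hst
      have e1 := h1 s hs t ht hst
      rw [abs_of_nonpos (by linarith), abs_of_nonpos (by linarith)]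
      linarith
    · have e0 := h0 t ht s hs hst
      have e1 := h1 t ht s hs hst
      rw [abs_of_nonneg (by linarith), abs_of_nonneg (by linarith)]
      linarith
  refine ⟨fun t => |deriv w t|, hw.intervalIntegrable_deriv.abs, fun t => abs_nonneg _, ?_⟩
  intro s hs t ht hst
  have hsub : uIcc s t ⊆ uIcc 0 1 := by
    rw [uIcc_of_le (zero_le_one' ℝ)]
    exact uIcc_subset_Icc hs ht
  rw [← (hw.mono hsub).integral_deriv_eq_sub]
  refine intervalIntegral.integral_congr_ae ?_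
  have hne : ∀ᵐ x : ℝ, x ≠ 1 := by simp [ae_iff, measure_singleton]
  filter_upwards [hne] with x hx1 hx
  rw [uIoc_of_le hst] at hx
  have hx0 : 0 < x := lt_of_le_of_lt hs.1 hx.1
  have hx2 : x < 1 := lt_of_le_of_ne (hx.2.trans ht.2) hx1
  refine abs_of_nonneg ?_
  have hmon : MonotoneOn w (Icc 0 1) := fun a ha b hb hab => h0 a ha b hb hab
  have h2 : 0 ≤ derivWithin w (Icc 0 1) x := hmon.derivWithin_nonneg
  rwa [derivWithin_of_mem_nhds (Icc_mem_nhds hx0 hx2)] at h2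

/-- **slab lemma** : increments of `ψ ∘ v` -/
theorem slab {v g ψ : ℝ → ℝ} {b σ : ℝ} (hb : 0 ≤ b)
    (hg : IntervalIntegrable g volume 0 1) (hg0 : ∀ t ∈ Icc (0:ℝ) 1, 0 ≤ g t)
    (hv : ∀ s ∈ Icc (0:ℝ) 1, ∀ t ∈ Icc (0:ℝ) 1, s ≤ t →
      |v t - v s - b * (t - s)| ≤ ∫ τ in s..t, g τ)
    (hm : Monotone ψ) (hL : ∀ x y, |ψ x - ψ y| ≤ |x - y|) (h0 : ∀ x, 0 ≤ ψ x) (h1 : ∀ x, ψ x ≤ σ) :
    ∃ γ : ℝ → ℝ, IntervalIntegrable γ volume 0 1 ∧ (∀ t ∈ Icc (0:ℝ) 1, 0 ≤ γ t) ∧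
      (∀ s ∈ Icc (0:ℝ) 1, ∀ t ∈ Icc (0:ℝ) 1, s ≤ t →
        |ψ (v t) - ψ (v s)| ≤ ∫ τ in s..t, γ τ) ∧
      ∫ τ in (0:ℝ)..1, γ τ ≤ σ + 2 * ∫ τ in (0:ℝ)..1, g τ := by
  have m0 : (0:ℝ) ∈ Icc (0:ℝ) 1 := left_mem_Icc.2 zero_le_one
  have m1 : (1:ℝ) ∈ Icc (0:ℝ) 1 := right_mem_Icc.2 zero_le_one
  have hgi : ∀ s ∈ Icc (0:ℝ) 1, ∀ t ∈ Icc (0:ℝ) 1, IntervalIntegrable g volume s t := by
    intro s hs t ht
    refine hg.mono_set ?_
    rw [uIcc_of_le (zero_le_one' ℝ)]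
    exact uIcc_subset_Icc hs ht
  set G : ℝ → ℝ := fun t => ∫ τ in (0:ℝ)..t, g τ with hG
  have hGst : ∀ s ∈ Icc (0:ℝ) 1, ∀ t ∈ Icc (0:ℝ) 1, G t - G s = ∫ τ in s..t, g τ := by
    intro s hs t ht
    have := intervalIntegral.integral_add_adjacent_intervals (hgi 0 m0 s hs) (hgi s hs t ht)
    simp only [hG]
    linarith
  have hGn : ∀ s ∈ Icc (0:ℝ) 1, ∀ t ∈ Icc (0:ℝ) 1, s ≤ t → 0 ≤ ∫ τ in s..t, g τ :=
    fun s hs t ht hst => intervalIntegral.integral_nonneg hst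
      fun u hu => hg0 u ⟨hs.1.trans hu.1, hu.2.trans ht.2⟩
  have hACG : AbsolutelyContinuousOnInterval G 0 1 :=
    hg.absolutelyContinuousOnInterval_intervalIntegral (c := 0) (by simp)
  have hACb : AbsolutelyContinuousOnInterval (fun t => b * t) 0 1 := by
    have : LipschitzOnWith (Real.toNNReal b) (fun t : ℝ => b * t) (uIcc 0 1) := by
      refine LipschitzOnWith.of_dist_le_mul fun x _ y _ => ?_
      rw [Real.dist_eq, Real.dist_eq, Real.coe_toNNReal b hb, ← mul_sub, abs_mul, abs_of_nonneg hb]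
    exact this.absolutelyContinuousOnInterval
  have hACV : AbsolutelyContinuousOnInterval (fun t => b * t + 2 * G t) 0 1 :=
    hACb.fun_add (hACG.const_mul 2)
  obtain ⟨γ, c1, c2, c3⟩ := exists_density (w := fun t => ψ (v t) + G t) hACV (by
      intro s hs t ht hst
      have e1 := abs_le.1 (hv s hs t ht hst)
      have e2 := hGst s hs t ht
      have e3 := hGn s hs t ht hst
      show ψ (v s) + G s ≤ ψ (v t) + G t
      rcases le_total (v s) (v t) with hc | hc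
      · have := hm hc
        linarith
      · have e4 := abs_le.1 (hL (v t) (v s))
        have e5 : |v t - v s| = v s - v t := by rw [abs_sub_comm]; exact abs_of_nonneg (by linarith)
        have e6 : 0 ≤ b * (t - s) := mul_nonneg hb (by linarith)
        rw [e5] at e4
        linarith [e4.1]) (by
      intro s hs t ht hst
      have e1 := abs_le.1 (hv s hs t ht hst)
      have e2 := hGst s hs t ht
      have e3 := hGn s hs t ht hst
      have e6 : 0 ≤ b * (t - s) := mul_nonneg hb (by linarith)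
      show ψ (v t) + G t - (ψ (v s) + G s) ≤ b * t + 2 * G t - (b * s + 2 * G s)
      rcases le_total (v s) (v t) with hc | hc
      · have e4 := abs_le.1 (hL (v t) (v s))
        rw [abs_of_nonneg (by linarith : 0 ≤ v t - v s)] at e4
        nlinarith [e4.2]
      · have := hm hc
        nlinarith)
  refine ⟨fun t => γ t + g t, c1.add hg, fun t ht => add_nonneg (c2 t) (hg0 t ht), ?_, ?_⟩
  · intro s hs t ht hst
    have hγi : IntervalIntegrable γ volume s t := by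
      refine c1.mono_set ?_
      rw [uIcc_of_le (zero_le_one' ℝ)]
      exact uIcc_subset_Icc hs ht
    rw [intervalIntegral.integral_add hγi (hgi s hs t ht), c3 s hs t ht hst]
    have e2 := hGst s hs t ht
    have e3 := hGn s hs t ht hst
    have e7 : 0 ≤ ∫ τ in s..t, γ τ := intervalIntegral.integral_nonneg hst fun u _ => c2 u
    rw [c3 s hs t ht hst] at e7
    rw [abs_le]
    constructor
    · linarith
    · linarith
  · rw [intervalIntegral.integral_add c1 hg, c3 0 m0 1 m1 zero_le_one]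
    have e2 := hGst 0 m0 1 m1
    have e8 := h1 (v 1)
    have e9 := h0 (v 0)
    linarith

/-- slab lemma, any slope -/
theorem slab' {v g ψ : ℝ → ℝ} {b σ : ℝ}
    (hg : IntervalIntegrable g volume 0 1) (hg0 : ∀ t ∈ Icc (0:ℝ) 1, 0 ≤ g t)
    (hv : ∀ s ∈ Icc (0:ℝ) 1, ∀ t ∈ Icc (0:ℝ) 1, s ≤ t →
      |v t - v s - b * (t - s)| ≤ ∫ τ in s..t, g τ)
    (hm : Monotone ψ) (hL : ∀ x y, |ψ x - ψ y| ≤ |x - y|) (h0 : ∀ x, 0 ≤ ψ x) (h1 : ∀ x, ψ x ≤ σ) :
    ∃ γ : ℝ → ℝ, IntervalIntegrable γ volume 0 1 ∧ (∀ t ∈ Icc (0:ℝ) 1, 0 ≤ γ t) ∧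
      (∀ s ∈ Icc (0:ℝ) 1, ∀ t ∈ Icc (0:ℝ) 1, s ≤ t →
        |ψ (v t) - ψ (v s)| ≤ ∫ τ in s..t, γ τ) ∧
      ∫ τ in (0:ℝ)..1, γ τ ≤ σ + 2 * ∫ τ in (0:ℝ)..1, g τ := by
  rcases le_total 0 b with hb | hb
  · exact slab hb hg hg0 hv hm hL h0 h1
  · obtain ⟨γ, a1, a2, a3, a4⟩ := slab (v := fun t => - v t) (b := -b) (ψ := fun x => σ - ψ (-x))
      (σ := σ) (by linarith) hg hg0 (by
        intro s hs t ht hst
        have := hv s hs t ht hst
        rwa [show -v t - -v s - -b * (t - s) = -(v t - v s - b * (t - s)) by ring, abs_neg])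
      (fun x y hxy => by
        have := hm (neg_le_neg hxy)
        show σ - ψ (-x) ≤ σ - ψ (-y)
        linarith)
      (fun x y => by
        have := hL (-x) (-y)
        show |σ - ψ (-x) - (σ - ψ (-y))| ≤ |x - y|
        rw [show σ - ψ (-x) - (σ - ψ (-y)) = -(ψ (-x) - ψ (-y)) by ring, abs_neg]
        rwa [show -x - -y = -(x - y) by ring, abs_neg] at this)
      (fun x => by have := h1 (-x); show 0 ≤ σ - ψ (-x); linarith)
      (fun x => by have := h0 (-x); show σ - ψ (-x) ≤ σ; linarith)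
    refine ⟨γ, a1, a2, fun s hs t ht hst => ?_, a4⟩
    have := a3 s hs t ht hst
    simp only [neg_neg] at this
    rwa [show σ - ψ (v t) - (σ - ψ (v s)) = -(ψ (v t) - ψ (v s)) by ring, abs_neg] at this

section seg

variable {F : Type*} [NormedAddCommGroup F] [NormedSpace ℝ F]

/-- one shear -/
theorem NearSeg.shear {c : ℝ → F} {g : ℝ → ℝ} {y0 u : F} {ε : ℝ} (h : NearSeg c g y0 u ε)
    {k : ℝ → ℝ} {bv : ℝ} {v : ℝ → ℝ}
    (hk : IntervalIntegrable k volume 0 1) (hk0 : ∀ t ∈ Icc (0:ℝ) 1, 0 ≤ k t)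
    (hv : ∀ s ∈ Icc (0:ℝ) 1, ∀ t ∈ Icc (0:ℝ) 1, s ≤ t →
      |v t - v s - bv * (t - s)| ≤ ∫ τ in s..t, k τ)
    (hvc : ContinuousOn v (Icc 0 1))
    {ψ : ℝ → ℝ} {σ : ℝ} {e : F} (he : ‖e‖ ≤ 1)
    (hm : Monotone ψ) (hL : ∀ x y, |ψ x - ψ y| ≤ |x - y|) (h0 : ∀ x, 0 ≤ ψ x) (h1 : ∀ x, ψ x ≤ σ) :
    ∃ g' : ℝ → ℝ, NearSeg (fun t => c t - ψ (v t) • e) g' y0 u (ε + σ) ∧
      ∫ τ in (0:ℝ)..1, g' τ ≤ (∫ τ in (0:ℝ)..1, g τ) + (σ + 2 * ∫ τ in (0:ℝ)..1, k τ) := by
  obtain ⟨γ, a1, a2, a3, a4⟩ := slab' hk hk0 hv hm hL h0 h1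
  refine ⟨fun t => g t + γ t, ⟨?_, h.int.add a1, fun t ht => add_nonneg (h.nonneg t ht) (a2 t ht),
    ?_, ?_⟩, ?_⟩
  · have hψc : Continuous ψ := by
      have : LipschitzWith 1 ψ := LipschitzWith.of_dist_le_mul fun x y => by
        rw [Real.dist_eq, Real.dist_eq, NNReal.coe_one, one_mul]; exact hL x y
      exact this.continuous
    exact h.cont.sub ((hψc.comp_continuousOn hvc).smul continuousOn_const)
  · intro s hs t ht hst
    have hi : IntervalIntegrable g volume s t := by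
      refine h.int.mono_set ?_
      rw [uIcc_of_le (zero_le_one' ℝ)]
      exact uIcc_subset_Icc hs ht
    have hi2 : IntervalIntegrable γ volume s t := by
      refine a1.mono_set ?_
      rw [uIcc_of_le (zero_le_one' ℝ)]
      exact uIcc_subset_Icc hs ht
    rw [intervalIntegral.integral_add hi hi2]
    have e1 := h.inc s hs t ht hst
    have e2 := a3 s hs t ht hst
    calc ‖c t - ψ (v t) • e - (c s - ψ (v s) • e) - (t - s) • u‖
        = ‖(c t - c s - (t - s) • u) - (ψ (v t) - ψ (v s)) • e‖ := by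
          congr 1; simp only [sub_smul]; abel
      _ ≤ ‖c t - c s - (t - s) • u‖ + ‖(ψ (v t) - ψ (v s)) • e‖ := norm_sub_le _ _
      _ ≤ (∫ τ in s..t, g τ) + ∫ τ in s..t, γ τ := by
          refine add_le_add e1 ?_
          rw [norm_smul, Real.norm_eq_abs]
          calc |ψ (v t) - ψ (v s)| * ‖e‖ ≤ |ψ (v t) - ψ (v s)| * 1 :=
                mul_le_mul_of_nonneg_left he (abs_nonneg _)
            _ ≤ _ := by rw [mul_one]; exact e2
  · intro t ht
    have e1 := h.close t ht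
    calc ‖c t - ψ (v t) • e - (y0 + t • u)‖ = ‖(c t - (y0 + t • u)) - ψ (v t) • e‖ := by
          congr 1; abel
      _ ≤ ‖c t - (y0 + t • u)‖ + ‖ψ (v t) • e‖ := norm_sub_le _ _
      _ ≤ ε + σ := by
          refine add_le_add e1 ?_
          rw [norm_smul, Real.norm_eq_abs, abs_of_nonneg (h0 _)]
          calc ψ (v t) * ‖e‖ ≤ ψ (v t) * 1 := mul_le_mul_of_nonneg_left he (h0 _)
            _ ≤ σ := by rw [mul_one]; exact h1 _
  · rw [intervalIntegral.integral_add h.int a1]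
    linarith

/-- **words under a coordinatewise squeeze** `R y = y - ∑ a, ψ a (ℓ a y) • e a` -/
theorem NearSeg.squeeze {κ : Type*} (s : Finset κ) {c : ℝ → F} {g : ℝ → ℝ} {y0 u : F} {ε : ℝ}
    (h : NearSeg c g y0 u ε) (ℓ : κ → F →L[ℝ] ℝ) (e : κ → F) (ψ : κ → ℝ → ℝ) (σ : κ → ℝ)
    (hℓ : ∀ a ∈ s, ‖ℓ a‖ ≤ 1) (he : ∀ a ∈ s, ‖e a‖ ≤ 1)
    (hm : ∀ a ∈ s, Monotone (ψ a)) (hL : ∀ a ∈ s, ∀ x y, |ψ a x - ψ a y| ≤ |x - y|)
    (h0 : ∀ a ∈ s, ∀ x, 0 ≤ ψ a x) (h1 : ∀ a ∈ s, ∀ x, ψ a x ≤ σ a) :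
    ∃ g' : ℝ → ℝ, NearSeg (fun t => c t - ∑ a ∈ s, ψ a (ℓ a (c t)) • e a) g' y0 u
        (ε + ∑ a ∈ s, σ a) ∧
      ∫ τ in (0:ℝ)..1, g' τ ≤ (1 + 2 * s.card) * (∫ τ in (0:ℝ)..1, g τ) + ∑ a ∈ s, σ a := by
  classical
  induction s using Finset.induction_on with
  | empty =>
    refine ⟨g, ?_, ?_⟩
    · simpa using h
    · simp
  | insert a s ha ih =>
    obtain ⟨g1, b1, b2⟩ := ih (fun x hx => hℓ x (Finset.mem_insert_of_mem hx))
      (fun x hx => he x (Finset.mem_insert_of_mem hx))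
      (fun x hx => hm x (Finset.mem_insert_of_mem hx))
      (fun x hx => hL x (Finset.mem_insert_of_mem hx))
      (fun x hx => h0 x (Finset.mem_insert_of_mem hx))
      (fun x hx => h1 x (Finset.mem_insert_of_mem hx))
    have hma := Finset.mem_insert_self a s
    obtain ⟨g2, d1, d2⟩ := NearSeg.shear b1 (k := g) (bv := ℓ a u) (v := fun t => ℓ a (c t))
      h.int h.nonneg (by
        intro x hx t ht hxt
        have e1 := h.inc x hx t ht hxt
        have e2 : ℓ a (c t) - ℓ a (c x) - ℓ a u * (t - x) = ℓ a (c t - c x - (t - x) • u) := by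
          simp only [map_sub, map_smul, smul_eq_mul]
          ring
        rw [e2]
        calc |ℓ a (c t - c x - (t - x) • u)| ≤ ‖ℓ a‖ * ‖c t - c x - (t - x) • u‖ :=
              (ℓ a).le_opNorm _
          _ ≤ 1 * ‖c t - c x - (t - x) • u‖ :=
              mul_le_mul_of_nonneg_right (hℓ a hma) (norm_nonneg _)
          _ ≤ _ := by rw [one_mul]; exact e1)
      ((ℓ a).continuous.comp_continuousOn h.cont) (he a hma) (hm a hma) (hL a hma) (h0 a hma)
      (h1 a hma)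
    refine ⟨g2, ?_, ?_⟩
    · have e1 : (fun t => c t - ∑ x ∈ insert a s, ψ x (ℓ x (c t)) • e x)
          = fun t => c t - ∑ x ∈ s, ψ x (ℓ x (c t)) • e x - ψ a (ℓ a (c t)) • e a := by
        funext t
        rw [Finset.sum_insert ha]; abel
      have e2 : ε + ∑ x ∈ insert a s, σ x = ε + ∑ x ∈ s, σ x + σ a := by
        rw [Finset.sum_insert ha]; ring
      rw [e1, e2]
      exact d1
    · rw [Finset.sum_insert ha, Finset.card_insert_of_notMem ha]
      push_cast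
      have e3 : (1 + 2 * ((s.card : ℝ) + 1)) * (∫ τ in (0:ℝ)..1, g τ)
          = (1 + 2 * (s.card : ℝ)) * (∫ τ in (0:ℝ)..1, g τ) + 2 * ∫ τ in (0:ℝ)..1, g τ := by ring
      rw [e3]
      linarith

end seg

end

end Crest.Agent.R096.Cwr_527
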