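import Crest.Agent.R096.Tsq2_753
import Crest.Agent.R096.Cwr1_527

/-!
# R096 (row 96, p = 2): 753's target squeeze with its coordinatewise form, and the words of the
core edges under it (helper527)
-/

set_option autoImplicit false

open MeasureTheory Set
open scoped NNReal ENNReal

namespace Crest.Agent.R096.Cwr_527

open Crest.Agent.R096.Tsq_753 Crest.Agent.R096.Core_124

variable {ι : Type*} [Fintype ι]

/-- **Target squeeze** (753), with the coordinatewise form where the cut-off is one. -/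
theorem exists_squeeze_coord {J : Type*} [Fintype J] {χ : EuclideanSpace ℝ ι → ℝ} {L : ℝ}
    (hL0 : 0 ≤ L)
    (h01 : ∀ y, 0 ≤ χ y ∧ χ y ≤ 1) (hL : ∀ y z, |χ y - χ z| ≤ L * ‖y - z‖) (n : ℕ) :
    ∀ {σ : ℝ} (_ : 0 ≤ σ) (lo hi : J → ι → ℝ) (_ : ∀ j a, lo j a ≤ hi j a)
      (_ : ∀ a, ∑ j, (hi j a - lo j a) ≤ σ) (_ : L * (Fintype.card ι * σ) ≤ 1 / 4)
      (_ : ∀ j, ∀ x ∈ bx (lo j) (hi j), ∀ y, ‖y - x‖ ≤ Fintype.card ι * σ → χ y = 1),
    ∃ R : EuclideanSpace ℝ ι ≃ₜ EuclideanSpace ℝ ι,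
      (∀ y, χ y = 0 → R y = y) ∧ (∀ y, ‖R y - y‖ ≤ Fintype.card ι * σ) ∧
      (∀ y z, ‖R y - R z‖ ≤ (1 + 2 * (L * (Fintype.card ι * σ))) * ‖y - z‖) ∧
      (∀ y z, (1 / 4) ^ n * ‖y - z‖ ≤ ‖R y - R z‖) ∧
      (∀ j, ∀ y ∈ bx (lo j) (hi j), ∀ z ∈ bx (lo j) (hi j),
        ‖R y - R z‖ ≤ (1 / 2) ^ n * ‖y - z‖) ∧
      ∃ ψ : ι → ℝ → ℝ, (∀ a, Monotone (ψ a)) ∧ (∀ a x y, |ψ a x - ψ a y| ≤ |x - y|) ∧
        (∀ a x, 0 ≤ ψ a x) ∧ (∀ a x, ψ a x ≤ σ) ∧
        ∀ y, (∀ z, ‖z - y‖ ≤ Fintype.card ι * σ → χ z = 1) → ∀ a, R y a = y a - ψ a (y a) := by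
  induction n with
  | zero =>
    intro σ hσ lo hi hlh hsum hs h1
    refine ⟨Homeomorph.refl _, fun _ _ => rfl, fun y => ?_, fun y z => ?_, fun y z => ?_,
      fun j y _ z _ => ?_, fun _ _ => 0, fun _ => monotone_const, fun _ x y => ?_,
      fun _ _ => le_rfl, fun _ _ => hσ, fun y _ a => ?_⟩
    · have e : (Homeomorph.refl (EuclideanSpace ℝ ι)) y = y := rfl
      rw [e, sub_self, norm_zero]; positivity
    · have e : ∀ y, (Homeomorph.refl (EuclideanSpace ℝ ι)) y = y := fun _ => rfl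
      rw [e, e]
      have : 0 ≤ L * (Fintype.card ι * σ) := by positivity
      nlinarith [norm_nonneg (y - z)]
    · simp
    · simp
    · simp only [sub_self, abs_zero]; exact abs_nonneg _
    · have e : (Homeomorph.refl (EuclideanSpace ℝ ι)) y = y := rfl
      rw [e, sub_zero]
  | succ n ih =>
    intro σ hσ lo hi hlh hsum hs h1
    set P : ι → Set ℝ := fun a => ⋃ j, Icc (lo j a) (hi j a) with hPdef
    have hP : ∀ a, volume (P a) ≤ ENNReal.ofReal σ := fun a =>
      volume_union_le (fun j => lo j a) (fun j => hi j a) (fun j => hlh j a) (hsum a)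
    have hPf : ∀ a, volume (P a) ≠ ⊤ := fun a => fin_of (a := a) hP
    have hsub : ∀ j a, Icc (lo j a) (hi j a) ⊆ P a := fun j a =>
      subset_iUnion (fun j => Icc (lo j a) (hi j a)) j
    obtain ⟨R1, hR1⟩ := exists_stp_homeo (P := P) hσ hP h01 hL hs
    set lo' : J → ι → ℝ := fun j a => lo j a - ml (P a) (lo j a) / 2 with hlo'
    set hi' : J → ι → ℝ := fun j a => hi j a - ml (P a) (hi j a) / 2 with hhi'
    have hw : ∀ j a, hi' j a - lo' j a = (hi j a - lo j a) / 2 := fun j a =>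
      phi_full (hPf a) (hsub j a) (hlh j a) le_rfl le_rfl (hlh j a)
    have hx0 : 0 ≤ L * (Fintype.card ι * σ) := by positivity
    have hσ2 : 0 ≤ σ / 2 := by linarith
    have key : ∀ j, ∀ x' ∈ bx (lo' j) (hi' j), ∀ y,
        ‖y - x'‖ ≤ Fintype.card ι * (σ / 2) → χ y = 1 := by
      intro j x' hx' y hy
      obtain ⟨x, hx, hxx⟩ := clamp_exists (hlh j) hσ2 (x' := x') (fun a => by
        have ha := hx' a
        have e1 := ml_le hσ (hP a) (lo j a)
        have e2 := ml_nonneg (P := P a) (hi j a)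
        simp only [hlo', hhi'] at ha
        constructor <;> linarith [ha.1, ha.2])
      refine h1 j x hx y ?_
      calc ‖y - x‖ ≤ ‖y - x'‖ + ‖x' - x‖ := by
            have := norm_sub_le_norm_sub_add_norm_sub y x' x
            exact this
        _ ≤ Fintype.card ι * (σ / 2) + Fintype.card ι * (σ / 2) := add_le_add hy hxx
        _ = _ := by ring
    obtain ⟨R2, a1, a2, a3, a4, a5, ψ2, p1, p2, p3, p4, p5⟩ := ih (σ := σ / 2) hσ2 lo' hi'
      (fun j a => by
        have := hw j a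
        have := hlh j a
        linarith)
      (fun a => by
        have : ∑ j, (hi' j a - lo' j a) = (∑ j, (hi j a - lo j a)) / 2 := by
          rw [Finset.sum_div]
          exact Finset.sum_congr rfl fun j _ => hw j a
        rw [this]; linarith [hsum a])
      (by
        have : L * (Fintype.card ι * (σ / 2)) = L * (Fintype.card ι * σ) / 2 := by ring
        rw [this]; linarith) key
    have hone : ∀ j, ∀ y ∈ bx (lo j) (hi j), χ y = 1 := fun j y hy =>
      h1 j y hy y (by rw [sub_self, norm_zero]; positivity)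
    have hml : ∀ a {x y : ℝ}, x ≤ y → 0 ≤ ml (P a) y - ml (P a) x :=
      fun a x y hxy => (ml_mono_diff (hPf a) hxy).1
    have hφm : ∀ a {x y : ℝ}, x ≤ y → x - ml (P a) x / 2 ≤ y - ml (P a) y / 2 :=
      fun a x y hxy => phi_mono (hPf a) hxy
    refine ⟨R1.trans R2, fun y hy => ?_, fun y => ?_, fun y z => ?_, fun y z => ?_,
      fun j y hy z hz => ?_,
      fun a x => ml (P a) x / 2 + ψ2 a (x - ml (P a) x / 2), fun a x y hxy => ?_,
      fun a x y => ?_, fun a x => ?_, fun a x => ?_, fun y hy a => ?_⟩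
    · have : R1 y = y := by rw [hR1]; unfold stp; rw [hy, zero_smul, add_zero]
      rw [Homeomorph.trans_apply, this, a1 y hy]
    · rw [Homeomorph.trans_apply]
      have b1 := stp_dist hσ hP h01 y
      rw [← hR1] at b1
      have b2 := a2 (R1 y)
      calc ‖R2 (R1 y) - y‖ ≤ ‖R2 (R1 y) - R1 y‖ + ‖R1 y - y‖ :=
            norm_sub_le_norm_sub_add_norm_sub _ _ _
        _ ≤ Fintype.card ι * (σ / 2) + Fintype.card ι * (σ / 2) := add_le_add b2 b1
        _ = _ := by ring
    · rw [Homeomorph.trans_apply, Homeomorph.trans_apply]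
      have b1 := (stp_est hσ hP h01 hL y z).1
      rw [← hR1, ← hR1] at b1
      have b2 := a3 (R1 y) (R1 z)
      set X := L * (Fintype.card ι * σ) with hX
      have e1 : L * (Fintype.card ι * (σ / 2)) = X / 2 := by rw [hX]; ring
      rw [e1] at b1 b2
      have c1 : 1 + 2 * (X / 2) = 1 + X := by ring
      rw [c1] at b2
      have c2 : (1 + X) * ‖R1 y - R1 z‖ ≤ (1 + X) * ((1 + X / 2) * ‖y - z‖) :=
        mul_le_mul_of_nonneg_left b1 (by linarith)
      refine b2.trans (c2.trans ?_)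
      rw [← mul_assoc]
      refine mul_le_mul_of_nonneg_right ?_ (norm_nonneg _)
      nlinarith
    · rw [Homeomorph.trans_apply, Homeomorph.trans_apply]
      have b1 := stp_lower hσ hP h01 hL hs y z
      rw [← hR1, ← hR1] at b1
      have b2 := a4 (R1 y) (R1 z)
      refine le_trans ?_ b2
      rw [pow_succ, mul_assoc]
      exact mul_le_mul_of_nonneg_left b1 (by positivity)
    · rw [Homeomorph.trans_apply, Homeomorph.trans_apply]
      have hm : ∀ y ∈ bx (lo j) (hi j), R1 y ∈ bx (lo' j) (hi' j) := by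
        intro y hy a
        rw [hR1, stp_apply_of_one (hone j y hy)]
        exact ⟨phi_mono (hPf a) (hy a).1, phi_mono (hPf a) (hy a).2⟩
      have b2 := a5 j _ (hm y hy) _ (hm z hz)
      have b1 : ‖R1 y - R1 z‖ ≤ 1 / 2 * ‖y - z‖ := by
        refine norm_le_coord (by norm_num) fun a => ?_
        rw [PiLp.sub_apply, PiLp.sub_apply, hR1, hR1, stp_apply_of_one (hone j y hy),
          stp_apply_of_one (hone j z hz),
          phi_full (hPf a) (hsub j a) (hy a).1 (hy a).2 (hz a).1 (hz a).2, abs_div, abs_two]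
        linarith
      refine b2.trans ?_
      rw [pow_succ, mul_assoc]
      exact mul_le_mul_of_nonneg_left b1 (by positivity)
    · have e1 := hml a hxy
      have e2 := p1 a (hφm a hxy)
      show ml (P a) x / 2 + ψ2 a (x - ml (P a) x / 2) ≤ ml (P a) y / 2 + ψ2 a (y - ml (P a) y / 2)
      linarith
    · have main : ∀ {x y : ℝ}, x ≤ y →
          |ml (P a) x / 2 + ψ2 a (x - ml (P a) x / 2)
            - (ml (P a) y / 2 + ψ2 a (y - ml (P a) y / 2))| ≤ |x - y| := by
        intro x y hxy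
        have e1 := hml a hxy
        have e2 := p1 a (hφm a hxy)
        have e3 := p2 a (y - ml (P a) y / 2) (x - ml (P a) x / 2)
        rw [abs_of_nonneg (sub_nonneg.2 (hφm a hxy)), abs_of_nonneg (sub_nonneg.2 e2)] at e3
        rw [abs_sub_comm, abs_sub_comm x y, abs_of_nonneg (by linarith), abs_of_nonneg (by linarith)]
        linarith
      rcases le_total x y with h | h
      · exact main h
      · have := main h
        rwa [abs_sub_comm, abs_sub_comm y x] at this
    · exact add_nonneg (div_nonneg (ml_nonneg _) zero_le_two) (p3 a _)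
    · have e1 := ml_le hσ (hP a) x
      have e2 := p4 a (x - ml (P a) x / 2)
      show ml (P a) x / 2 + ψ2 a (x - ml (P a) x / 2) ≤ σ
      linarith
    · have hc0 : (0 : ℝ) ≤ Fintype.card ι * σ := by positivity
      have h0 : χ y = 1 := hy y (by rw [sub_self, norm_zero]; exact hc0)
      have e1 : R1 y a = y a - ml (P a) (y a) / 2 := by rw [hR1, stp_apply_of_one h0]
      have e2 := p5 (R1 y) (fun z hz => hy z (by
        have b1 := stp_dist hσ hP h01 y
        rw [← hR1] at b1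
        calc ‖z - y‖ ≤ ‖z - R1 y‖ + ‖R1 y - y‖ := norm_sub_le_norm_sub_add_norm_sub _ _ _
          _ ≤ Fintype.card ι * (σ / 2) + Fintype.card ι * (σ / 2) := add_le_add hz b1
          _ = _ := by ring)) a
      rw [Homeomorph.trans_apply, e2, e1]
      ring

theorem NearSeg.congr {F : Type*} [NormedAddCommGroup F] [NormedSpace ℝ F] {c c' : ℝ → F}
    {g : ℝ → ℝ} {y0 u : F} {ε : ℝ} (h : NearSeg c g y0 u ε) (hc : ∀ t ∈ Icc (0:ℝ) 1, c' t = c t) :
    NearSeg c' g y0 u ε where
  cont := h.cont.congr hc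
  int := h.int
  nonneg := h.nonneg
  inc := fun s hs t ht hst => by rw [hc s hs, hc t ht]; exact h.inc s hs t ht hst
  close := fun t ht => by rw [hc t ht]; exact h.close t ht

/-- **core words under the target squeeze** -/
theorem NearSeg.of_coord {R : EuclideanSpace ℝ ι → EuclideanSpace ℝ ι} {ψ : ι → ℝ → ℝ} {σ : ℝ}
    (hm : ∀ a, Monotone (ψ a)) (hL : ∀ a x y, |ψ a x - ψ a y| ≤ |x - y|)
    (h0 : ∀ a x, 0 ≤ ψ a x) (h1 : ∀ a x, ψ a x ≤ σ)
    {c : ℝ → EuclideanSpace ℝ ι} {g : ℝ → ℝ} {y0 u : EuclideanSpace ℝ ι} {ε : ℝ}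
    (h : NearSeg c g y0 u ε)
    (hR : ∀ t ∈ Icc (0:ℝ) 1, ∀ a, R (c t) a = c t a - ψ a (c t a)) :
    ∃ g' : ℝ → ℝ, NearSeg (fun t => R (c t)) g' y0 u (ε + Fintype.card ι * σ) ∧
      ∫ τ in (0:ℝ)..1, g' τ ≤ (1 + 2 * Fintype.card ι) * (∫ τ in (0:ℝ)..1, g τ)
        + Fintype.card ι * σ := by
  classical
  obtain ⟨g', b1, b2⟩ := NearSeg.squeeze (Finset.univ : Finset ι) h
    (fun a => EuclideanSpace.proj a) (fun a => EuclideanSpace.single a (1:ℝ)) ψ (fun _ => σ)
    (fun a _ => by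
      refine ContinuousLinearMap.opNorm_le_bound _ zero_le_one fun x => ?_
      rw [one_mul]
      have e : (EuclideanSpace.proj a : EuclideanSpace ℝ ι →L[ℝ] ℝ) x = x a := rfl
      rw [e]
      exact PiLp.norm_apply_le x a)
    (fun a _ => by simp) (fun a _ => hm a) (fun a _ => hL a)
    (fun a _ => h0 a) (fun a _ => h1 a)
  refine ⟨g', ?_, ?_⟩
  · have e1 : ε + ∑ _a : ι, σ = ε + Fintype.card ι * σ := by
      rw [Finset.sum_const, Finset.card_univ, nsmul_eq_mul]
    rw [← e1]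
    refine NearSeg.congr b1 fun t ht => ?_
    ext a
    rw [hR t ht a, PiLp.sub_apply, WithLp.ofLp_sum, Finset.sum_apply]
    congr 1
    rw [Finset.sum_eq_single a]
    · simp
    · intro b _ hb
      simp [hb.symm]
    · intro hh; exact absurd (Finset.mem_univ a) hh
  · have e1 : ∑ _a : ι, σ = Fintype.card ι * σ := by
      rw [Finset.sum_const, Finset.card_univ, nsmul_eq_mul]
    rw [e1, Finset.card_univ] at b2
    exact b2

end Crest.Agent.R096.Cwr_527
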