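import Mathlib

/-! # Row 96, LAB-POS (helper543), part 1: connected superlevel sets. -/

set_option autoImplicit false

open Set Topology Filter

namespace Crest.Agent.R096.Lbp_543

variable {X : Type*} [TopologicalSpace X]

/-- **superlevel sets are connected if the level is connected** -/
theorem preconn_ge {S : Set X} (hS : IsPreconnected S) {u : X → ℝ} (hu : ContinuousOn u S) {t : ℝ}
    (ht : IsPreconnected {x | x ∈ S ∧ u x = t}) : IsPreconnected {x | x ∈ S ∧ t ≤ u x} := by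
  -- one half of the argument
  have key : ∀ U V : Set X, IsOpen U → IsOpen V → {x | x ∈ S ∧ t ≤ u x} ⊆ U ∪ V →
      ({x | x ∈ S ∧ t ≤ u x} ∩ U).Nonempty → ({x | x ∈ S ∧ t ≤ u x} ∩ V).Nonempty →
      (∀ x, x ∈ S → t ≤ u x → x ∈ U → x ∈ V → False) →
      (∀ x, x ∈ S → u x = t → x ∉ V) → False := by
    intro U V hU hV hcov hnU hnV hno hlev
    obtain ⟨O1, hO1, he1⟩ := continuousOn_iff'.1 hu (Ioi t) isOpen_Ioi
    obtain ⟨O2, hO2, he2⟩ := continuousOn_iff'.1 hu (Iio t) isOpen_Iio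
    have h1 : ∀ x ∈ S, (x ∈ O1 ↔ t < u x) := fun x hx => by
      have : x ∈ u ⁻¹' Ioi t ∩ S ↔ x ∈ O1 ∩ S := by rw [he1]
      exact ⟨fun h => (this.2 ⟨h, hx⟩).1, fun h => (this.1 ⟨h, hx⟩).1⟩
    have h2 : ∀ x ∈ S, (x ∈ O2 ↔ u x < t) := fun x hx => by
      have : x ∈ u ⁻¹' Iio t ∩ S ↔ x ∈ O2 ∩ S := by rw [he2]
      exact ⟨fun h => (this.2 ⟨h, hx⟩).1, fun h => (this.1 ⟨h, hx⟩).1⟩
    obtain ⟨x, ⟨hx, hxt⟩, hxU⟩ := hnU
    obtain ⟨y, ⟨hy, hyt⟩, hyV⟩ := hnV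
    have hyt' : t < u y := lt_of_le_of_ne hyt fun h => hlev y hy h.symm hyV
    have hcv : S ⊆ (V ∩ O1) ∪ (U ∪ O2) := by
      intro z hz
      rcases lt_trichotomy (u z) t with h | h | h
      · exact Or.inr (Or.inr ((h2 z hz).2 h))
      · rcases hcov ⟨hz, h.ge⟩ with h3 | h3
        · exact Or.inr (Or.inl h3)
        · exact (hlev z hz h h3).elim
      · rcases hcov ⟨hz, h.le⟩ with h3 | h3
        · exact Or.inr (Or.inl h3)
        · exact Or.inl ⟨h3, (h1 z hz).2 h⟩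
    obtain ⟨z, hz, hzA, hzB⟩ := hS (V ∩ O1) (U ∪ O2) (hV.inter hO1) (hU.union hO2) hcv
      ⟨y, hy, hyV, (h1 y hy).2 hyt'⟩ ⟨x, hx, Or.inl hxU⟩
    rcases hzB with hzB | hzB
    · exact hno z hz ((h1 z hz).1 hzA.2).le hzB hzA.1
    · exact absurd ((h1 z hz).1 hzA.2) (not_lt.2 ((h2 z hz).1 hzB).le)
  intro U V hU hV hcov hnU hnV
  by_contra hcon
  rw [not_nonempty_iff_eq_empty] at hcon
  have hno : ∀ x, x ∈ S → t ≤ u x → x ∈ U → x ∈ V → False := fun x h1 h2 h3 h4 => by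
    have : x ∈ {x | x ∈ S ∧ t ≤ u x} ∩ (U ∩ V) := ⟨⟨h1, h2⟩, h3, h4⟩
    rw [hcon] at this
    exact this
  by_cases hV' : ∀ x, x ∈ S → u x = t → x ∉ V
  · exact key U V hU hV hcov hnU hnV hno hV'
  by_cases hU' : ∀ x, x ∈ S → u x = t → x ∉ U
  · exact key V U hV hU (by rw [union_comm]; exact hcov) hnV hnU
      (fun x h1 h2 h3 h4 => hno x h1 h2 h4 h3) hU'
  push Not at hV' hU'
  obtain ⟨x, h1, h2, h3⟩ := hV'
  obtain ⟨y, h4, h5, h6⟩ := hU'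
  obtain ⟨z, hz, hzU, hzV⟩ := ht U V hU hV (fun z hz => hcov ⟨hz.1, hz.2.ge⟩)
    ⟨y, ⟨h4, h5⟩, h6⟩ ⟨x, ⟨h1, h2⟩, h3⟩
  exact hno z hz.1 hz.2.ge hzU hzV

/-- **sublevel sets are connected if the level is connected** -/
theorem preconn_le {S : Set X} (hS : IsPreconnected S) {u : X → ℝ} (hu : ContinuousOn u S) {t : ℝ}
    (ht : IsPreconnected {x | x ∈ S ∧ u x = t}) : IsPreconnected {x | x ∈ S ∧ u x ≤ t} := by
  have h := preconn_ge hS (u := fun x => - u x) hu.neg (t := -t) (by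
    have : {x | x ∈ S ∧ -u x = -t} = {x | x ∈ S ∧ u x = t} := by
      ext x; simp
    rw [this]; exact ht)
  have e : {x | x ∈ S ∧ u x ≤ t} = {x | x ∈ S ∧ -t ≤ -u x} := by
    ext x; simp
  rw [e]; exact h

/-- **nested intersection** of connected superlevel sets of a compact set -/
theorem preconn_ge_of_lt [T2Space X] {S : Set X} (hS : IsCompact S) {u : X → ℝ}
    (hu : ContinuousOn u S) {t t0 : ℝ} (h0 : t0 < t)
    (h : ∀ s, t0 < s → s < t → IsPreconnected {x | x ∈ S ∧ s ≤ u x}) :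
    IsPreconnected {x | x ∈ S ∧ t ≤ u x} := by
  have hcl : ∀ s, IsClosed {x | x ∈ S ∧ s ≤ u x} := fun s =>
    hu.preimage_isClosed_of_isClosed hS.isClosed isClosed_Ici
  have hcp : ∀ s, IsCompact {x | x ∈ S ∧ s ≤ u x} := fun s =>
    hS.of_isClosed_subset (hcl s) fun x hx => hx.1
  rw [isPreconnected_closed_iff]
  intro A B hA hB hcov hnA hnB
  by_contra hcon
  rw [not_nonempty_iff_eq_empty] at hcon
  have hno : ∀ x, x ∈ S → t ≤ u x → x ∈ A → x ∈ B → False := fun x h1 h2 h3 h4 => by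
    have : x ∈ {x | x ∈ S ∧ t ≤ u x} ∩ (A ∩ B) := ⟨⟨h1, h2⟩, h3, h4⟩
    rw [hcon] at this
    exact this
  -- separation
  obtain ⟨U, V, hU, hV, hAU, hBV, hUV⟩ := SeparatedNhds.of_isCompact_isCompact
    ((hcp t).inter_right hA) ((hcp t).inter_right hB) (by
      rw [disjoint_left]
      rintro x ⟨⟨h1, h2⟩, h3⟩ ⟨-, h4⟩
      exact hno x h1 h2 h3 h4)
  -- some superlevel set is inside `U ∪ V`
  have hex : ∃ s, t0 < s ∧ s < t ∧ {x | x ∈ S ∧ s ≤ u x} ⊆ U ∪ V := by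
    by_contra hne
    push Not at hne
    have hKc : IsCompact (S \ (U ∪ V)) := hS.diff (hU.union hV)
    have hne' : ∀ s, t0 < s → s < t → ∃ x ∈ S \ (U ∪ V), s ≤ u x := by
      intro s h1 h2
      obtain ⟨x, ⟨h3, h4⟩, h5⟩ := Set.not_subset.1 (hne s h1 h2)
      exact ⟨x, ⟨h3, h5⟩, h4⟩
    have hKn : (S \ (U ∪ V)).Nonempty := by
      obtain ⟨x, hx, -⟩ := hne' ((t0 + t) / 2) (by linarith) (by linarith)
      exact ⟨x, hx⟩
    obtain ⟨x, hx, hmax⟩ := hKc.exists_isMaxOn hKn (hu.mono sdiff_subset)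
    have hxt : t ≤ u x := by
      by_contra hlt
      push Not at hlt
      obtain ⟨y, hy, hys⟩ := hne' (max ((t0 + t) / 2) ((u x + t) / 2))
        (lt_of_lt_of_le (by linarith) (le_max_left _ _)) (max_lt (by linarith) (by linarith))
      have h1 : u y ≤ u x := hmax hy
      have h2 := (le_max_right ((t0 + t) / 2) ((u x + t) / 2)).trans hys
      linarith
    rcases hcov ⟨hx.1, hxt⟩ with h1 | h1
    · exact hx.2 (Or.inl (hAU ⟨⟨hx.1, hxt⟩, h1⟩))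
    · exact hx.2 (Or.inr (hBV ⟨⟨hx.1, hxt⟩, h1⟩))
  obtain ⟨s, hs1, hs2, hs3⟩ := hex
  obtain ⟨x, hx, hxA⟩ := hnA
  obtain ⟨y, hy, hyB⟩ := hnB
  obtain ⟨z, -, hzU, hzV⟩ := h s hs1 hs2 U V hU hV hs3 ⟨x, ⟨hx.1, hs2.le.trans hx.2⟩,
    hAU ⟨hx, hxA⟩⟩ ⟨y, ⟨hy.1, hs2.le.trans hy.2⟩, hBV ⟨hy, hyB⟩⟩
  exact disjoint_left.1 hUV hzU hzV

/-- **one detour**: `A` connected, `K` closed with interior `Ki`, `N` a connected patch -/
theorem preconn_detour {A K Ki N : Set X} (hA : IsPreconnected A) (hK : IsClosed K)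
    (hKi : IsOpen Ki) (hKK : Ki ⊆ K) (hN : IsPreconnected N) (hfr : (A ∩ K) \ Ki ⊆ N)
    (hAN : (A ∩ K).Nonempty) :
    IsPreconnected ((A \ Ki) ∪ N) := by
  intro U V hU hV hcov hnU hnV
  by_contra hcon
  rw [not_nonempty_iff_eq_empty] at hcon
  have hno : ∀ x, x ∈ (A \ Ki) ∪ N → x ∈ U → x ∈ V → False := fun x h1 h2 h3 => by
    have : x ∈ ((A \ Ki) ∪ N) ∩ (U ∩ V) := ⟨h1, h2, h3⟩
    rw [hcon] at this
    exact this
  have key : ∀ U V : Set X, IsOpen U → IsOpen V → (A \ Ki) ∪ N ⊆ U ∪ V →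
      (∀ x, x ∈ (A \ Ki) ∪ N → x ∈ U → x ∈ V → False) → N ⊆ U →
      (((A \ Ki) ∪ N) ∩ V).Nonempty → False := by
    intro U V hU hV hcov hno hNU hnV
    obtain ⟨y, hy, hyV⟩ := hnV
    have hyA : y ∈ A \ Ki := hy.resolve_right fun h => hno y hy (hNU h) hyV
    have hyK : y ∉ K := fun h => hno y hy (hNU (hfr ⟨⟨hyA.1, h⟩, hyA.2⟩)) hyV
    obtain ⟨x, hxA, hxK⟩ := hAN
    -- the two open sets of `A`
    have hcv : A ⊆ (U ∪ Ki) ∪ (V ∩ Kᶜ) := by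
      intro z hzA
      by_cases hzi : z ∈ Ki
      · exact Or.inl (Or.inr hzi)
      · by_cases hzK : z ∈ K
        · exact Or.inl (Or.inl (hNU (hfr ⟨⟨hzA, hzK⟩, hzi⟩)))
        · rcases hcov (Or.inl ⟨hzA, hzi⟩) with h | h
          · exact Or.inl (Or.inl h)
          · exact Or.inr ⟨h, hzK⟩
    have hxn : (A ∩ (U ∪ Ki)).Nonempty := by
      by_cases hxi : x ∈ Ki
      · exact ⟨x, hxA, Or.inr hxi⟩
      · exact ⟨x, hxA, Or.inl (hNU (hfr ⟨⟨hxA, hxK⟩, hxi⟩))⟩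
    obtain ⟨z, hzA, hz1, hz2⟩ := hA (U ∪ Ki) (V ∩ Kᶜ) (hU.union hKi) (hV.inter hK.isOpen_compl)
      hcv hxn ⟨y, hyA.1, hyV, hyK⟩
    have hz3 : z ∉ Ki := fun h => hz2.2 (hKK h)
    rcases hz1 with hz1 | hz1
    · exact hno z (Or.inl ⟨hzA, hz3⟩) hz1 hz2.1
    · exact hz3 hz1
  -- `N` lies on one side
  have hside : N ⊆ U ∨ N ⊆ V := by
    by_contra h
    push Not at h
    obtain ⟨x, hx, hxU⟩ := Set.not_subset.1 h.1
    obtain ⟨y, hy, hyV⟩ := Set.not_subset.1 h.2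
    have hxV : x ∈ V := (hcov (Or.inr hx)).resolve_left hxU
    have hyU : y ∈ U := (hcov (Or.inr hy)).resolve_right hyV
    obtain ⟨z, hz, hzU, hzV⟩ := hN U V hU hV (fun z hz => hcov (Or.inr hz)) ⟨y, hy, hyU⟩ ⟨x, hx, hxV⟩
    exact hno z (Or.inr hz) hzU hzV
  rcases hside with h | h
  · exact key U V hU hV hcov hno h hnV
  · exact key V U hV hU (by rw [union_comm V U]; exact hcov) (fun x h1 h2 h3 => hno x h1 h3 h2) h hnU

end Crest.Agent.R096.Lbp_543
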