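import Mathlib
import Crest.Agent.R096.Lbp1_543
import Crest.Agent.R096.Init9_543
import Crest.Agent.R096.Init6_543
import Crest.Agent.R096.Exc1_965

/-! # Row 96, LAB-POS (helper543), part 2: connected superlevel sets on the boundaries of the cells,
chains of cells which avoid the cell `a`. -/

set_option autoImplicit false
set_option linter.unusedSectionVars false

open Set Topology Filter

namespace Crest.Agent.R096.Lbp_543

open Crest.Agent.R096.Brk1_582 Crest.Agent.R096.Brk2_582 Crest.Agent.R096.Brk3_582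
  Crest.Agent.R096.Bsp_628 Crest.Agent.R096.Coh_184 Crest.Agent.R096.Init_543
  Crest.Agent.R096.Vb_965 Crest.Agent.R096.Exc_965 Crest.Agent.R096.Lab_184

/-! ### general foams -/

section foam

variable {V : Type*} [NormedAddCommGroup V] [NormedSpace ℝ V] [FiniteDimensional ℝ V] {I : Type*}
  {La : Set V} {P : I → Set V} {b : Set I → V} {N : ℕ}

/-- the part `θ ≤ s_a` of the boundary of the cell `c` -/
def Bge (P : I → Set V) (b : Set I → V) (a : I) (θ : ℝ) (c : I) : Set V :=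
  {y | y ∈ Bd P c ∧ θ ≤ sc P b y a}

/-- the part `s_a ≤ θ` of the boundary of the cell `c` -/
def Ble (P : I → Set V) (b : Set I → V) (a : I) (θ : ℝ) (c : I) : Set V :=
  {y | y ∈ Bd P c ∧ sc P b y a ≤ θ}

theorem bd_eq_frontier (F : Foam La P b N) (c : I) : Bd P c = frontier (P c) := by
  rw [frontier_cell F, Lset_zero F]; rfl

theorem isCompact_bd (F : Foam La P b N) (c : I) : IsCompact (Bd P c) := by
  rw [bd_eq_frontier F]
  exact (F.cpt c).of_isClosed_subset isClosed_frontier (F.cpt c).isClosed.frontier_subset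

theorem bd_sub (F : Foam La P b N) (c : I) : Bd P c ⊆ La := fun _ h => F.sub c h.1

theorem continuousOn_sc_bd (F : Foam La P b N) (a c : I) :
    ContinuousOn (fun y => sc P b y a) (Bd P c) :=
  (continuousOn_sc_apply F a).mono (bd_sub F c)

theorem isCompact_bge (F : Foam La P b N) (a : I) (θ : ℝ) (c : I) : IsCompact (Bge P b a θ c) :=
  (isCompact_bd F c).of_isClosed_subset
    ((continuousOn_sc_bd F a c).preimage_isClosed_of_isClosed (isCompact_bd F c).isClosed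
      isClosed_Ici) fun _ h => h.1

theorem isCompact_ble (F : Foam La P b N) (a : I) (θ : ℝ) (c : I) : IsCompact (Ble P b a θ c) :=
  (isCompact_bd F c).of_isClosed_subset
    ((continuousOn_sc_bd F a c).preimage_isClosed_of_isClosed (isCompact_bd F c).isClosed
      isClosed_Iic) fun _ h => h.1

/-- not touching: `s_a = 1` -/
theorem sc_one_of_not_touch (F : Foam La P b N) {a c : I} (h : ¬ (P c ∩ P a).Nonempty) {y : V}
    (hy : y ∈ P c) : sc P b y a = 1 := by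
  have hyL := F.sub c hy
  by_contra hne
  obtain ⟨z, hz⟩ := F.sc_lt_one_fc hyL
  refine h ⟨z, mem_fc.1 hz c ?_, mem_fc.1 hz a ?_⟩
  · show sc P b y c < 1
    rw [(F.sc_eq_zero hyL).2 hy]; exact one_pos
  · exact lt_of_le_of_ne (F.sc_le_one hyL a) hne

/-- the cells `≠ a` are connected by touching -/
theorem touch_induction' (F : Foam La P b N) (hV : Module.finrank ℝ V = 3)
    (hLa : IsPreconnected La) (hne : ∀ c, (P c).Nonempty) {a : I} {X : Set I} (haX : a ∉ X)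
    (hX : ∀ c ∈ X, ∀ c', c' ≠ a → (P c ∩ P c').Nonempty → c' ∈ X) {c₀ : I} (h0 : c₀ ∈ X) {c : I}
    (hca : c ≠ a) : c ∈ X := by
  have hB : IsPreconnected {y | y ∈ La ∧ (1 / 2 : ℝ) ≤ sc P b y a} := by
    refine preconn_ge hLa (continuousOn_sc_apply F a) ?_
    rw [← Lset_eq_of_pos F (by norm_num : (1 / 2 : ℝ) ≠ 0)]
    exact isPreconnected_Lset F hV (hne a) (by norm_num) (by norm_num)
  have hop : ∀ Y : Set I, IsOpen {y | y ∈ La ∧ ∀ c, y ∈ P c → c ∈ Y} := by
    intro Y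
    rw [Metric.isOpen_iff]
    rintro y ⟨hy, hyY⟩
    obtain ⟨r, hr, hfin⟩ := F.lf y hy
    have hcl : IsClosed (⋃ c ∈ {c | (P c ∩ Metric.ball y r).Nonempty ∧ c ∉ Y}, P c) :=
      (hfin.subset fun c hc => hc.1).isClosed_biUnion fun c _ => (F.cpt c).isClosed
    have hyn : y ∉ ⋃ c ∈ {c | (P c ∩ Metric.ball y r).Nonempty ∧ c ∉ Y}, P c := by
      intro h
      obtain ⟨c, hc, hyc⟩ := mem_iUnion₂.1 h
      exact hc.2 (hyY c hyc)
    have h1 : La ∩ (Metric.ball y r ∩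
        (⋃ c ∈ {c | (P c ∩ Metric.ball y r).Nonempty ∧ c ∉ Y}, P c)ᶜ) ∈ 𝓝 y :=
      inter_mem (F.op.mem_nhds hy) (inter_mem (Metric.ball_mem_nhds y hr)
        (hcl.isOpen_compl.mem_nhds hyn))
    obtain ⟨δ, hδ, hsub⟩ := Metric.mem_nhds_iff.1 h1
    refine ⟨δ, hδ, fun z hz => ?_⟩
    obtain ⟨g1, g2, g3⟩ := hsub hz
    refine ⟨g1, fun c hc => ?_⟩
    by_contra hcY
    exact g3 (mem_iUnion₂.2 ⟨c, ⟨⟨z, hc, g2⟩, hcY⟩, hc⟩)
  have hna : ∀ {y : V}, y ∈ La → (1 / 2 : ℝ) ≤ sc P b y a → y ∉ P a := fun {y} hy h1 h2 => by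
    rw [(F.sc_eq_zero hy).2 h2] at h1
    norm_num at h1
  have hcov : {y | y ∈ La ∧ (1 / 2 : ℝ) ≤ sc P b y a} ⊆
      {y | y ∈ La ∧ ∀ c, y ∈ P c → c ∈ X} ∪ {y | y ∈ La ∧ ∀ c, y ∈ P c → c ∈ Xᶜ} := by
    rintro y ⟨hy, hy1⟩
    have hya := hna hy hy1
    obtain ⟨d, hd⟩ := F.cov y hy
    by_cases hdX : d ∈ X
    · refine Or.inl ⟨hy, fun c hc => hX d hdX c ?_ ⟨y, hd, hc⟩⟩
      rintro rfl; exact hya hc
    · refine Or.inr ⟨hy, fun c hc hcX => hdX (hX c hcX d ?_ ⟨y, hc, hd⟩)⟩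
      rintro rfl; exact hya hd
  have hdis : Disjoint {y | y ∈ La ∧ ∀ c, y ∈ P c → c ∈ X}
      {y | y ∈ La ∧ ∀ c, y ∈ P c → c ∈ Xᶜ} := by
    rw [disjoint_left]
    rintro y ⟨h1, h2⟩ ⟨-, h3⟩
    obtain ⟨d, hd⟩ := F.cov y h1
    exact h3 d hd (h2 d hd)
  have hfc1 : ∀ c, (fc P {c}).Nonempty := fun c => by
    obtain ⟨y, hy⟩ := hne c
    exact ⟨y, mem_fc.2 fun d hd => by rw [mem_singleton_iff.1 hd]; exact hy⟩
  have hb1 : ∀ c, b {c} ∈ P c := fun c =>
    mem_fc.1 (F.mem _ (singleton_nonempty c) (hfc1 c)) c rfl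
  have hsb : ∀ c, c ≠ a → sc P b (b {c}) a = 1 := fun c hc => by
    classical
    rw [F.sc_b (singleton_nonempty c) (hfc1 c) a, if_neg]
    exact fun h => hc (mem_singleton_iff.1 h).symm
  have h0a : c₀ ≠ a := fun h => haX (h ▸ h0)
  have h4 := hB.subset_left_of_subset_union (hop X) (hop Xᶜ) hdis hcov
    ⟨b {c₀}, ⟨F.sub c₀ (hb1 c₀), by rw [hsb c₀ h0a]; norm_num⟩, F.sub c₀ (hb1 c₀), fun c hc => ?_⟩
  · exact (h4 ⟨F.sub c (hb1 c), by rw [hsb c hca]; norm_num⟩).2 c (hb1 c)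
  · have h5 := F.act_b (singleton_nonempty c₀) (hfc1 c₀)
    have h6 : c ∈ act P (b {c₀}) := hc
    rw [h5] at h6
    rw [mem_singleton_iff.1 h6]; exact h0

/-- **UPPER CHAIN**: the parts `θ ≤ s_a` of the boundaries of two cells `≠ a` lie in one compact
connected set of walls with `θ ≤ s_a` -/
theorem upper_chain (F : Foam La P b N) (hV : Module.finrank ℝ V = 3)
    (hLa : IsPreconnected La) (hne : ∀ c, (P c).Nonempty) {a : I} {θ : ℝ} (hθ : θ ≤ 1)
    (hpre : ∀ c, c ≠ a → IsPreconnected (Bge P b a θ c)) {c₀ : I} (h0 : c₀ ≠ a) {c : I}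
    (hca : c ≠ a) : ∃ G : Set V, IsCompact G ∧ IsPreconnected G ∧
      G ⊆ {y | (∃ d, y ∈ Bd P d) ∧ θ ≤ sc P b y a} ∧ Bge P b a θ c₀ ⊆ G ∧ Bge P b a θ c ⊆ G := by
  classical
  have hcp : ∀ c, IsCompact (Bge P b a θ c) := fun c => isCompact_bge F a θ c
  have key : c ∈ {c | c ≠ a ∧ ∃ G : Set V, IsCompact G ∧ IsPreconnected G ∧
      G ⊆ {y | (∃ d, y ∈ Bd P d) ∧ θ ≤ sc P b y a} ∧ Bge P b a θ c₀ ⊆ G ∧
      Bge P b a θ c ⊆ G} := by
    refine touch_induction' F hV hLa hne (fun h => h.1 rfl) ?_ (c₀ := c₀) ?_ hca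
    · rintro c ⟨hc, G, h1, h2, h3, h4, h5⟩ c' hc' hcc
      by_cases he : c' = c
      · rw [he]; exact ⟨hc, G, h1, h2, h3, h4, h5⟩
      · have hfc2 : (fc P {c, c'}).Nonempty := by
          obtain ⟨y, g1, g2⟩ := hcc
          refine ⟨y, mem_fc.2 fun e he => ?_⟩
          rcases he with rfl | he
          · exact g1
          · rw [mem_singleton_iff.1 he]; exact g2
        have hb := F.mem {c, c'} ⟨c, by simp⟩ hfc2
        have hbc : b {c, c'} ∈ P c := mem_fc.1 hb c (by simp)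
        have hbc' : b {c, c'} ∈ P c' := mem_fc.1 hb c' (by simp)
        have hs : sc P b (b {c, c'}) a = 1 := by
          rw [F.sc_b ⟨c, by simp⟩ hfc2 a, if_neg]
          rintro (h | h)
          · exact hc h.symm
          · exact hc' (mem_singleton_iff.1 h).symm
        have m1 : b {c, c'} ∈ Bge P b a θ c := ⟨⟨hbc, c', he, hbc'⟩, by rw [hs]; exact hθ⟩
        have m2 : b {c, c'} ∈ Bge P b a θ c' :=
          ⟨⟨hbc', c, fun h => he h.symm, hbc⟩, by rw [hs]; exact hθ⟩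
        refine ⟨hc', G ∪ Bge P b a θ c', h1.union (hcp c'), ?_, ?_, ?_, ?_⟩
        · exact IsPreconnected.union (b {c, c'}) (h5 m1) m2 h2 (hpre c' hc')
        · exact union_subset h3 fun y hy => ⟨⟨c', hy.1⟩, hy.2⟩
        · exact h4.trans subset_union_left
        · exact subset_union_right
    · exact ⟨h0, Bge P b a θ c₀, hcp c₀, hpre c₀ h0, fun y hy => ⟨⟨c₀, hy.1⟩, hy.2⟩, Subset.rfl,
        Subset.rfl⟩
  exact key.2

end foam

/-! ### box foams of dimension 3 -/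

section box

variable {La : Set (Fin 3 → ℝ)} {F : Set (Bx (Fin 3))} {δ κ0 : ℝ}

theorem preconn_bd (BF : BoxFoam La F δ κ0) (hLa : IsOpen La) (c : F) :
    IsPreconnected (Bd (Pc F) c) := by
  have FF := foam BF hLa
  rw [bd_eq_frontier FF]
  refine isPreconnected_frontier (by simp) (FF.cpt c) (FF.cvx c) ?_
  have hpos := BF.pos c.1 c.2
  refine ⟨fun k => (c.1.lo k + c.1.hi k) / 2, mem_interior.2 ⟨{y | ∀ k, c.1.lo k < y k ∧
    y k < c.1.hi k}, ?_, ?_, ?_⟩⟩
  · exact fun y hy => ⟨fun k => (hy k).1.le, fun k => (hy k).2.le⟩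
  · simp only [ofPred_forall]
    refine isOpen_iInter_of_finite fun k => ?_
    exact (isOpen_lt continuous_const (continuous_apply k)).inter
      (isOpen_lt (continuous_apply k) continuous_const)
  · intro k
    have := hpos k
    constructor <;> linarith

theorem level_preconn (BF : BoxFoam La F δ κ0) (hLa : IsOpen La) {a c : F} (hac : a ≠ c)
    (ht : (Pc F c ∩ Pc F a).Nonempty) {θ : ℝ} (h0 : 0 < θ) (h1 : θ < 1) :
    IsPreconnected {y | y ∈ Bd (Pc F) c ∧ sc (Pc F) (bc (F := F)) y a = θ} := by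
  have h := (isPreconnected_ring BF hLa (by simp) hac ht h0 h1).1
  have e : {y | y ∈ Bd (Pc F) c ∧ sc (Pc F) (bc (F := F)) y a = θ} =
      ring (Pc F) (bc (F := F)) c a θ := by
    ext y
    exact ⟨fun h => ⟨h.1.1, h.1.2, h.2⟩, fun h => ⟨⟨h.1, h.2.1⟩, h.2.2⟩⟩
  rw [e]; exact h

/-- **the part `θ ≤ s_a` of the boundary of a brick is connected**, `0 < θ ≤ 1` -/
theorem preconn_bge (BF : BoxFoam La F δ κ0) (hLa : IsOpen La) {a c : F} (hca : c ≠ a) {θ : ℝ}
    (h0 : 0 < θ) (h1 : θ ≤ 1) : IsPreconnected (Bge (Pc F) (bc (F := F)) a θ c) := by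
  have FF := foam BF hLa
  by_cases ht : (Pc F c ∩ Pc F a).Nonempty
  · have key : ∀ θ : ℝ, 0 < θ → θ < 1 → IsPreconnected (Bge (Pc F) (bc (F := F)) a θ c) :=
      fun θ h0 h1 => preconn_ge (preconn_bd BF hLa c) (continuousOn_sc_bd FF a c)
        (level_preconn BF hLa hca.symm ht h0 h1)
    rcases h1.lt_or_eq with h | rfl
    · exact key θ h0 h
    · exact preconn_ge_of_lt (isCompact_bd FF c) (continuousOn_sc_bd FF a c) (t0 := 0) one_pos
        fun s hs hs1 => key s hs hs1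
  · have e : Bge (Pc F) (bc (F := F)) a θ c = Bd (Pc F) c := by
      ext y
      refine ⟨fun h => h.1, fun h => ⟨h, ?_⟩⟩
      rw [sc_one_of_not_touch FF ht h.1]; exact h1
    rw [e]; exact preconn_bd BF hLa c

/-- **the part `s_a ≤ θ` of the boundary of a brick is connected**, `0 ≤ θ < 1`, `c` touches `a` -/
theorem preconn_ble (BF : BoxFoam La F δ κ0) (hLa : IsOpen La) {a c : F} (hca : c ≠ a)
    (ht : (Pc F c ∩ Pc F a).Nonempty) {θ : ℝ} (h0 : 0 ≤ θ) (h1 : θ < 1) :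
    IsPreconnected (Ble (Pc F) (bc (F := F)) a θ c) := by
  have FF := foam BF hLa
  rcases h0.eq_or_lt with rfl | h0
  · have e : Ble (Pc F) (bc (F := F)) a 0 c = Pc F c ∩ Pc F a := by
      ext y
      constructor
      · rintro ⟨h2, h3⟩
        have hyL := FF.sub c h2.1
        have h4 : sc (Pc F) (bc (F := F)) y a = 0 := le_antisymm h3 (FF.sc_nonneg hyL a)
        exact ⟨h2.1, (FF.sc_eq_zero hyL).1 h4⟩
      · rintro ⟨h2, h3⟩
        refine ⟨⟨h2, a, hca.symm, h3⟩, ?_⟩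
        rw [(FF.sc_eq_zero (FF.sub c h2)).2 h3]
    rw [e]
    exact ((FF.cvx c).inter (FF.cvx a)).isPreconnected
  · exact preconn_le (preconn_bd BF hLa c) (continuousOn_sc_bd FF a c)
      (level_preconn BF hLa hca.symm ht h0 h1)

end box

end Crest.Agent.R096.Lbp_543
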