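import Crest.Agent.R096.Init12_543
import Crest.Agent.R096.Lbp2_543
import Crest.Agent.R096.Nr5_527

/-!
# R096 (row 96), DOORS (helper662): the vertices `v₀ a`, `v₁ a` of the families on OUTER tiles

* `out_of_wall` : a tile with a point over a wall of the foam is in no `V c`;
* `exists_v0`   : outer tile with a point over the wall of the brick `a` (`lev a = 0`);
* `exists_v1`   : outer tile, not in the interior of the body of `a`, with a point over a wall of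
                  bricks which do not touch `a` (`lev a = 1`);
* `supp_tile`, `supp_core` : `supp` of `Lmx_662.labIn_mixD` from the body.
-/

set_option autoImplicit false
set_option linter.unusedSectionVars false
set_option linter.unusedVariables false

open Set Filter Topology Metric Relation

namespace Crest.Agent.R096.Lmx_662

open Crest.Agent.R096.Brk1_582 Crest.Agent.R096.Brk2_582 Crest.Agent.R096.Brk3_582
open Crest.Agent.R096.Brk4_582 Crest.Agent.R096.Brk5_582 Crest.Agent.R096.Bsp_628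
open Crest.Agent.R096.SkC1_961 (E3 Hom3 FoamD)
open Crest.Agent.R096.Vb_965 Crest.Agent.R096.Msh_715 Crest.Agent.R096.Init_543
open Crest.Agent.R96.Push_899
open Crest.Agent.R096.Mbf_337 (KJ sb)

section wall

variable {δ κ0 R c0 : ℝ} {La Om : Set E3} {ι : Type} {Φ : FoamD δ κ0 R c0 La}
  {T : Tiling Om ι} {f g : E3 → E3} {κ1 κ2 : ℝ} {X : Set Φ.F} {J0 J V : Φ.F → Set ι} {ct : Φ.F → ι}
  {A : Φ.F → E3 ≃ᵃ[ℝ] E3} {lam : Φ.F → ℝ} {z : Φ.F → E3} {θ : Φ.F → E3 → E3} {φ : Φ.F → E3 → ℝ}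

/-- a point over two different bricks lies on no tile of the neighbourhoods of the cores -/
theorem out_of_wall (hLa : IsOpen La) (hC : Mbf_337.Cores Φ T f κ1 κ2 X J0 J V ct A lam z θ φ)
    {x : E3} {d e : Φ.F} (hde : d ≠ e) (hd : f x ∈ Pc Φ.F d) (he : f x ∈ Pc Φ.F e) {q : ι}
    (hq : x ∈ P (T.H q)) (c : Φ.F) : q ∉ V c := by
  intro hqc
  have h1 := Nr_527.V_inside hC (Nr_527.mem_KJ.2 ⟨q, hqc, hq⟩)
  obtain ⟨-, h2⟩ := Nr_527.open_only Φ hLa h1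
  exact hde ((h2 d hd).trans (h2 e he).symm)

/-- every brick has a wall point -/
theorem exists_wall (hLa : IsOpen La) (H : Hm f g Om La) (a : Φ.F) :
    ∃ x ∈ Om, f x ∈ Pc Φ.F a ∧ ∃ d, d ≠ a ∧ f x ∈ Pc Φ.F d := by
  have F := foam4 Φ hLa
  have hne : (Pc Φ.F a).Nonempty :=
    ⟨a.1.lo, Bx.mem_set.2 fun k => ⟨le_rfl, (Φ.bf.pos a.1 a.2 k).le⟩⟩
  have hfr : (frontier (Pc Φ.F a)).Nonempty := by
    rw [nonempty_iff_ne_empty]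
    intro h
    have h1 := isClopen_iff_frontier_eq_empty.2 h
    rcases isClopen_iff.1 h1 with h2 | h2
    · exact hne.ne_empty h2
    · exact (noncompact_univ E3) (h2 ▸ F.cpt a)
  obtain ⟨y, hy⟩ := hfr
  rw [← Lbp_543.bd_eq_frontier F] at hy
  obtain ⟨h1, d, hd, h2⟩ := hy
  have hyL : y ∈ La := F.sub a h1
  refine ⟨g y, H.gm hyL, ?_, d, hd, ?_⟩
  · rw [H.fg y hyL]; exact h1
  · rw [H.fg y hyL]; exact h2

/-- **`v₀ a`**: an outer tile with a point over the wall of the brick `a`, and a vertex of it -/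
theorem exists_v0 (hLa : IsOpen La) (H : Hm f g Om La)
    (hC : Mbf_337.Cores Φ T f κ1 κ2 X J0 J V ct A lam z θ φ) (a : Φ.F) :
    ∃ (q : ι) (v x : E3), (∀ c, q ∉ V c) ∧ v ∈ P (T.H q) ∧ T.dim v = 0 ∧ x ∈ P (T.H q) ∧
      f x ∈ Pc Φ.F a ∧ ∃ d, d ≠ a ∧ f x ∈ Pc Φ.F d := by
  obtain ⟨x, hx, h1, d, hd, h2⟩ := exists_wall hLa H a
  obtain ⟨q, hq⟩ := T.cov x hx
  obtain ⟨v, hv, hv0⟩ := Main_4.exists_vertex_tile hq
  exact ⟨q, v, x, fun c => out_of_wall hLa hC hd h2 h1 hq c, hv, hv0, hq, h1, d, hd, h2⟩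

/-- **`v₁ a`**: an outer tile, not in the interior of the body, with a wall point of bricks of which
one does not touch the brick `a` -/
theorem exists_v1 (hLa : IsOpen La) (H : Hm f g Om La)
    (hC : Mbf_337.Cores Φ T f κ1 κ2 X J0 J V ct A lam z θ φ) {a : Φ.F} {D : Set E3}
    (hD : Body Om f (Pc Φ.F) a D) :
    ∃ (q : ι) (v x : E3), (∀ c, q ∉ V c) ∧ v ∈ P (T.H q) ∧ T.dim v = 0 ∧ x ∈ P (T.H q) ∧
      ¬ P (T.H q) ⊆ interior D ∧ x ∉ D ∧ ∃ e d, d ≠ e ∧ f x ∈ Pc Φ.F e ∧ f x ∈ Pc Φ.F d ∧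
      ¬ (Pc Φ.F e ∩ Pc Φ.F a).Nonempty := by
  obtain ⟨e, he⟩ := hD.far
  obtain ⟨x, hx, h1, d, hd, h2⟩ := exists_wall hLa H e
  obtain ⟨q, hq⟩ := T.cov x hx
  obtain ⟨v, hv, hv0⟩ := Main_4.exists_vertex_tile hq
  have hxD : x ∉ D := fun h => he x h h1
  exact ⟨q, v, x, fun c => out_of_wall hLa hC hd h2 h1 hq c, hv, hv0, hq,
    fun h => hxD (interior_subset (h hq)), hxD, e, d, hd, h1, h2,
    fun h => hxD (interior_subset (hD.star e h x hx h1))⟩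

/-- **all families at once**: tiles `q0 a`, `q1 a`, vertices `v0 a`, `v1 a`, wall points `x0 a`,
`x1 a` -/
structure VxD (Φ : FoamD δ κ0 R c0 La) (T : Tiling Om ι) (f : E3 → E3) (V : Φ.F → Set ι)
    (D : Φ.F → Set E3) (q0 q1 : Φ.F → ι) (v0 v1 x0 x1 : Φ.F → E3) : Prop where
  out0 : ∀ a c, q0 a ∉ V c
  mem0 : ∀ a, v0 a ∈ P (T.H (q0 a))
  dim0 : ∀ a, T.dim (v0 a) = 0
  px0 : ∀ a, x0 a ∈ P (T.H (q0 a))
  f0 : ∀ a, f (x0 a) ∈ Pc Φ.F a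
  w0 : ∀ a, ∃ d, d ≠ a ∧ f (x0 a) ∈ Pc Φ.F d
  out1 : ∀ a c, q1 a ∉ V c
  mem1 : ∀ a, v1 a ∈ P (T.H (q1 a))
  dim1 : ∀ a, T.dim (v1 a) = 0
  px1 : ∀ a, x1 a ∈ P (T.H (q1 a))
  far : ∀ a, ¬ P (T.H (q1 a)) ⊆ interior (D a)
  notD : ∀ a, x1 a ∉ D a
  f1 : ∀ a, ∃ e d, d ≠ e ∧ f (x1 a) ∈ Pc Φ.F e ∧ f (x1 a) ∈ Pc Φ.F d ∧
    ¬ (Pc Φ.F e ∩ Pc Φ.F a).Nonempty

/-- **`v₀`, `v₁` for all families on outer tiles** -/
theorem exists_vxD (hLa : IsOpen La) (H : Hm f g Om La)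
    (hC : Mbf_337.Cores Φ T f κ1 κ2 X J0 J V ct A lam z θ φ) {D : Φ.F → Set E3}
    (hD : ∀ a, Body Om f (Pc Φ.F) a (D a)) : ∃ (q0 q1 : Φ.F → ι) (v0 v1 x0 x1 : Φ.F → E3),
      VxD Φ T f V D q0 q1 v0 v1 x0 x1 := by
  choose q0 v0 x0 a1 a2 a3 a4 a5 a6 using fun a => exists_v0 hLa H hC a
  choose q1 v1 x1 b1 b2 b3 b4 b5 b6 b7 using fun a => exists_v1 hLa H hC (hD a)
  exact ⟨q0, q1, v0, v1, x0, x1, a1, a2, a3, a4, a5, a6, b1, b2, b3, b4, b5, b6, b7⟩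

/-! ### values -/

/-- on the walls the push is the identity -/
theorem Psi_wall (hLa : IsOpen La) {y : E3} {d e : Φ.F} (hde : d ≠ e) (hd : y ∈ Pc Φ.F d)
    (he : y ∈ Pc Φ.F e) : Φ.Psi y = y := by
  rw [Psi_eq Φ hLa he]
  exact pu_bd (raysF Φ hLa) (show y ∈ Bd (Pc Φ.F) e from ⟨he, d, hde, hd⟩)

variable {D : Φ.F → Set E3} {q0 q1 : Φ.F → ι} {v0 v1 x0 x1 : Φ.F → E3}

namespace VxD

theorem lev0 (h : VxD Φ T f V D q0 q1 v0 v1 x0 x1) (hLa : IsOpen La) (a : Φ.F) :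
    Φ.lev a (f (x0 a)) = 0 := by
  obtain ⟨d, hd, h2⟩ := h.w0 a
  show sc (Pc Φ.F) (bc (F := Φ.F)) (Φ.Psi (f (x0 a))) a = 0
  rw [Psi_wall hLa hd h2 (h.f0 a)]
  exact ((foam4 Φ hLa).sc_eq_zero ((foam4 Φ hLa).sub a (h.f0 a))).2 (h.f0 a)

theorem lev1 (h : VxD Φ T f V D q0 q1 v0 v1 x0 x1) (hLa : IsOpen La) (a : Φ.F) :
    Φ.lev a (f (x1 a)) = 1 := by
  obtain ⟨e, d, hd, h1, h2, h4⟩ := h.f1 a
  show sc (Pc Φ.F) (bc (F := Φ.F)) (Φ.Psi (f (x1 a))) a = 1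
  rw [Psi_wall hLa hd h2 h1]
  exact Lbp_543.sc_one_of_not_touch (foam4 Φ hLa) h4 h1

theorem va0 (h : VxD Φ T f V D q0 q1 v0 v1 x0 x1) (hLa : IsOpen La) {RR : E3 → E3}
    (hR : Ret La (Pc Φ.F) RR) (a : Φ.F) : va (Pc Φ.F) (bc (F := Φ.F)) RR f a (x0 a) = 0 := by
  have h1 := hR.cell a (h.f0 a)
  exact ((foam4 Φ hLa).sc_eq_zero ((foam4 Φ hLa).sub a h1)).2 h1

theorem va1 (h : VxD Φ T f V D q0 q1 v0 v1 x0 x1) (hLa : IsOpen La) {RR : E3 → E3}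
    (hR : Ret La (Pc Φ.F) RR) (a : Φ.F) : va (Pc Φ.F) (bc (F := Φ.F)) RR f a (x1 a) = 1 := by
  obtain ⟨e, d, hd, h1, h2, h4⟩ := h.f1 a
  exact Lbp_543.sc_one_of_not_touch (foam4 Φ hLa) h4 (hR.cell e h1)

/-- the tiles are in no core -/
theorem notKor0 (h : VxD Φ T f V D q0 q1 v0 v1 x0 x1)
    (hC : Mbf_337.Cores Φ T f κ1 κ2 X J0 J V ct A lam z θ φ) (a : Φ.F) :
    q0 a ∉ KorJ Φ J ∧ q0 a ∉ KorJ Φ J0 :=
  ⟨fun ⟨c, hc⟩ => h.out0 a c (Nr_527.J_sub hC c hc),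
    fun ⟨c, hc⟩ => h.out0 a c (Nr_527.J_sub hC c (Nr_527.J0_sub hC c hc))⟩

theorem notKor1 (h : VxD Φ T f V D q0 q1 v0 v1 x0 x1)
    (hC : Mbf_337.Cores Φ T f κ1 κ2 X J0 J V ct A lam z θ φ) (a : Φ.F) :
    q1 a ∉ KorJ Φ J ∧ q1 a ∉ KorJ Φ J0 :=
  ⟨fun ⟨c, hc⟩ => h.out1 a c (Nr_527.J_sub hC c hc),
    fun ⟨c, hc⟩ => h.out1 a c (Nr_527.J_sub hC c (Nr_527.J0_sub hC c hc))⟩

/-- the values at the vertices -/
theorem vv0 (h : VxD Φ T f V D q0 q1 v0 v1 x0 x1) (hLa : IsOpen La) {RR : E3 → E3}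
    (hR : Ret La (Pc Φ.F) RR) (hC : Mbf_337.Cores Φ T f κ1 κ2 X J0 J V ct A lam z θ φ) {ε : ℝ}
    (hM : Mesh0 T (Pc Φ.F) (bc (F := Φ.F)) RR f (KorJ Φ J0) ε) (a : Φ.F) :
    va (Pc Φ.F) (bc (F := Φ.F)) RR f a (v0 a) ≤ ε := by
  have h1 := abs_le.1 (hM.osc (q0 a) (h.notKor0 hC a).2 (v0 a) (h.mem0 a) (x0 a) (h.px0 a) a)
  rw [h.va0 hLa hR a] at h1
  linarith [h1.2]

theorem vv1 (h : VxD Φ T f V D q0 q1 v0 v1 x0 x1) (hLa : IsOpen La) {RR : E3 → E3}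
    (hR : Ret La (Pc Φ.F) RR) (hC : Mbf_337.Cores Φ T f κ1 κ2 X J0 J V ct A lam z θ φ) {ε : ℝ}
    (hM : Mesh0 T (Pc Φ.F) (bc (F := Φ.F)) RR f (KorJ Φ J0) ε) (a : Φ.F) :
    1 - ε ≤ va (Pc Φ.F) (bc (F := Φ.F)) RR f a (v1 a) := by
  have h1 := abs_le.1 (hM.osc (q1 a) (h.notKor1 hC a).2 (v1 a) (h.mem1 a) (x1 a) (h.px1 a) a)
  rw [h.va1 hLa hR a] at h1
  linarith [h1.1]

end VxD

/-! ### the bodies: `supp` -/

/-- the core of a brick which touches `a` is inside the body of `a` -/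
theorem core_body (hC : Mbf_337.Cores Φ T f κ1 κ2 X J0 J V ct A lam z θ φ) {a c : Φ.F}
    {D : Set E3} (hD : Body Om f (Pc Φ.F) a D) (hca : (Pc Φ.F c ∩ Pc Φ.F a).Nonempty) :
    KJ T (V c) ⊆ interior D := by
  intro x hx
  have h := Nr_527.V_inside hC hx
  obtain ⟨i, hi, hxi⟩ := Nr_527.mem_KJ.1 hx
  exact hD.star c hca x (T.sub i hxi) (Bx.mem_set.2 fun k => ⟨(h k).1.le, (h k).2.le⟩)

/-- **`supp` of the truthful state**: all tiles through a point of level `≤ 1 - μ` are inside the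
body -/
theorem tile_body (hLa : IsOpen La) (H : Hm f g Om La) {RR : E3 → E3}
    (hR : Ret La (Pc Φ.F) RR) (hC : Mbf_337.Cores Φ T f κ1 κ2 X J0 J V ct A lam z θ φ) {ε : ℝ}
    (hM : Mesh0 T (Pc Φ.F) (bc (F := Φ.F)) RR f (KorJ Φ J0) ε) (hε : 0 ≤ ε) {a : Φ.F} {D : Set E3}
    (hD : Body Om f (Pc Φ.F) a D) {q : ι} {w : E3} (hw : w ∈ P (T.H q))
    (h1 : va (Pc Φ.F) (bc (F := Φ.F)) RR f a w < 1 - ε) : P (T.H q) ⊆ interior D :=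
  tile_in_body H (foam4 Φ hLa) hR hM (core_sub Φ hC) hε hD hw h1

end wall

end Crest.Agent.R096.Lmx_662
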