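import Crest.Agent.R096.Hl4_955
import Crest.Agent.R096.Lmx2_662
import Crest.Agent.R096.Lbp3_438

/-!
# R096 (row 96), BASE-R (helper955), part 5: **the labels of INIT at the vertices of the exact core
tiles, for all `X`** (tiny cores allowed)

`lam_low_T`, `lam_high_T` : the label of INIT at the vertices outside the open cores with `va a` near
`0` / near `1`; `hl_init`; `exists_u` : two vertices of the exact core tile with `s_a = 0` and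
`s_a = 1`.
-/

set_option autoImplicit false
set_option linter.unusedSectionVars false
set_option linter.unusedVariables false
set_option linter.style.longLine false

open Set Relation Module

namespace Crest.Agent.R096.Hl_955

open Crest.Agent.R096.Brk1_582 Crest.Agent.R096.Brk2_582 Crest.Agent.R096.Brk3_582
  Crest.Agent.R096.Brk5_582 Crest.Agent.R096.Bsp_628 Crest.Agent.R096.Init_543
  Crest.Agent.R096.Vb_965 Crest.Agent.R096.Msh_715 Crest.Agent.R096.St_147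
  Crest.Agent.R096.Seq_213 Crest.Agent.R096.Lm_117 Crest.Agent.R096.Gl_422
  Crest.Agent.R096.SkB_662 Crest.Agent.R096.SkMv_362 Crest.Agent.R096.Cpo_642
  Crest.Agent.R096.Ce_537 Crest.Agent.R096.Agl5_543 Crest.Agent.R096.Ecm_446
  Crest.Agent.R096.Cp_298 Crest.Agent.R096.Kin_527 Crest.Agent.R096.Ac_117
  Crest.Agent.R096.Rop_441 Crest.Agent.R096.Lmx_662 Crest.Agent.R096.Main_4
open Crest.Agent.R096.SkC1_961 (E3 Hom3 FoamD th)
open Crest.Agent.R096.Mbf_337 (KJ sb)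
open Crest.Agent.R096.Gia_537 (Kc Kc_sub Kc_compact Kc_disj Kc_exact)
open Crest.Agent.R096.Exa_560 (Cn Cn_nonneg)
open Crest.Agent.R096.Etg_163 (Dge Dle)

section gen

variable {δ κ0 R c0 : ℝ} {La Om : Set E3} {ι : Type} {Φ : FoamD δ κ0 R c0 La}
  {T : Tiling Om ι} {f g : E3 → E3} {κ1 κ2 s₁ : ℝ} {X : Set Φ.F} {J0 J V : Φ.F → Set ι}
  {ct : Φ.F → ι}
  {A : Φ.F → E3 ≃ᵃ[ℝ] E3} {lm : Φ.F → ℝ} {z : Φ.F → E3} {θ : Φ.F → E3 → E3} {φ : Φ.F → E3 → ℝ}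
  {ct' : Φ.F → ι} {r₀ : Φ.F → ℝ}

/-- points of dimension `≤ 2` of an exact core tile are outside the open cores -/
theorem out_exact (hLa : IsOpen La) (hC : Mbf_337.Cores Φ T f κ1 κ2 X J0 J V ct A lm z θ φ)
    {c : Φ.F} (hc : c ∈ X) {x : E3} (hx : x ∈ P (T.H (ct c))) (hd : T.dim x ≤ 2) (c' : Φ.F) :
    x ∉ interior (Kc T J c') := by
  by_cases h : c' = c
  · subst h
    rw [Kc_exact hC hc, Csub_487.interior_tile]
    exact not_I_of_dim hx hd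
  · intro h'
    refine Set.disjoint_left.1 (Kc_disj hLa hC h) (interior_subset h') ?_
    rw [Kc_exact hC hc]; exact hx

end gen

section init

variable {δ κ0 R c0 : ℝ} {La Om : Set E3} {ι : Type} {Φ : FoamD δ κ0 R c0 La}
  {T : Tiling Om ι} {f g : E3 → E3} [Nonempty T.Cell] {J0 : Φ.F → Set ι} {ct' : Φ.F → ι}
  {r₀ : Φ.F → ℝ} {κ1 s₁ : ℝ} {hLa : IsOpen La} {hR : InitR Φ T f g J0 ct' r₀}
  {hM : Mesh0 T (Pc Φ.F) (bc (F := Φ.F)) (RF Φ r₀) f (KorJ Φ J0) κ1} {h1 : κ1 < s₁}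
  {h2 : κ1 < 1} {X : Set Φ.F} {ct : Φ.F → ι} {L : Φ.F → Finset ℝ} [Nonempty (JJ Φ L)]
  {hG : GF Φ r₀ T f L} {D : Φ.F → Set E3} {bp : JJ Φ L → E3} {lam₀ : JJ Φ L → E3 → ZMod 2}
  {v₀ v₁ : Φ.F → E3}
  {κ2 : ℝ} {J V : Φ.F → Set ι} {A : Φ.F → E3 ≃ᵃ[ℝ] E3} {lm : Φ.F → ℝ} {z : Φ.F → E3}
  {θ : Φ.F → E3 → E3} {φ : Φ.F → E3 → ℝ} {M : Φ.F → ℕ}

/-- the tiles outside the cores, over the tiling -/
theorem env_T (hC : Mbf_337.Cores Φ T f κ1 κ2 X J0 J V ct A lm z θ φ) :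
    Env T (Pc Φ.F) (bc (F := Φ.F)) (RF Φ r₀) f (KorJ Φ J) s₁ (fun c : T.Cell => c.set)
      (lmT T fr3) (qdF hLa hR hM h1 h2) (KorJ Φ J)ᶜ id (tcell T) where
  mid := by
    intro q hq e he heq
    have h3 : e.set ⊆ P (T.H q) := by
      have h5 : e.set ⊆ (tcell T q).set := heq
      rwa [tcell_set] at h5
    obtain ⟨F, h4, h5⟩ := Onb_63.exists_face fr3 he h3
    exact ⟨F, h4, h5⟩
  set := fun q _ => tcell_set q
  no := fun q hq => hq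
  sur := fun q hq => ⟨q, hq, rfl⟩
  act := by
    rintro q hq k ⟨-, x, hx⟩
    exact ⟨k, ⟨hq, x, hx⟩, fun c hc => (qdF_in hLa hR hM h1 h2).1 hc⟩

theorem mesh0_J (hC : Mbf_337.Cores Φ T f κ1 κ2 X J0 J V ct A lm z θ φ)
    (hM : Mesh0 T (Pc Φ.F) (bc (F := Φ.F)) (RF Φ r₀) f (KorJ Φ J0) κ1) :
    Mesh0 T (Pc Φ.F) (bc (F := Φ.F)) (RF Φ r₀) f (KorJ Φ J) κ1 where
  wall := fun q hq => hM.wall q fun h => hq (korJ_mono hC h)
  osc := fun q hq => hM.osc q fun h => hq (korJ_mono hC h)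

theorem edC_vtx {v : E3} (hv : v ∈ Om) (hd : T.dim v = 0) :
    (edC T v).dim = 0 ∧ (edC T v).pt = v ∧ (edC T v).set = {v} := by
  have h0 := edC_vertex hv hd
  have h3 : (edC T v).set = {v} := by
    rw [edC_set hv, T.cc_eq_singleton (T.dim_eq_zero_iff.1 hd)]
  refine ⟨h0.1, ?_, h3⟩
  have h4 : (edC T v).pt ∈ (edC T v).set := by
    rw [(edC T v).set_eq]; exact T.self_mem_cc _
  rw [h3] at h4
  exact h4

theorem levOn_T (hLa : IsOpen La) (hR : InitR Φ T f g J0 ct' r₀) {μ : ℝ} (hμ : s₁ ≤ μ)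
    (hm : ∀ c, ∀ t ∈ L c, μ ≤ t ∧ t ≤ 1 - μ) :
    LevOn (Pc Φ.F) (bc (F := Φ.F)) (RF Φ r₀) f s₁ (fun c : T.Cell => c.set) (lmT T fr3)
      (st0 hG bp) (KorJ Φ J)ᶜ (tcell T) := by
  intro w hw q hq hwq
  obtain ⟨a1, a2, a3⟩ := st0_mem hLa hR hw
  have h4 : (edC T w).set ⊆ (tcell T q).set := hwq
  have h5 : w ∈ (edC T w).set := by rw [edC_set a1]; exact T.self_mem_cc _
  refine ⟨h4 h5, ?_⟩
  have h7 : va (Pc Φ.F) (bc (F := Φ.F)) (RF Φ r₀) f ((st0 hG bp).lab w).1 w =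
      ((st0 hG bp).lab w).2.1 := by
    rw [← a3]
    exact hR.v_eq' Φ hLa a1 (by omega) _
  have h8 := hm _ _ ((st0 hG bp).lab w).2.2
  rw [h7]
  constructor <;> linarith [h8.1, h8.2]

theorem glab_init (hI : InitS hLa hR hM h1 h2 hG D bp lam₀ v₀ v₁) (j : JJ Φ L) :
    GLab (lmT T fr3) (gp (st0 hG bp) j) (fun v : T.Cell => lam₀ j v.pt) :=
  gLab_T (fun w hw => ⟨(st0_mem hLa hR hw).1, (st0_mem hLa hR hw).2.1⟩) (hI.lab.lab j)

/-- **LOW**: the label of INIT is 1 at the vertices outside the open cores with `va a ≤ θN` -/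
theorem lam_low_T (hf : Hom3 f Om La) (hN : Num δ κ0 R c0 κ2 κ1 s₁)
    (hC : Mbf_337.Cores Φ T f κ1 κ2 X J0 J V ct A lm z θ φ) (hF : Mbf_337.Fine Φ T f κ1 J0)
    {μ : ℝ} (hκμ : κ1 < μ) (hμ : s₁ ≤ μ) (hm : ∀ c, ∀ t ∈ L c, μ ≤ t ∧ t ≤ 1 - μ)
    (hI : InitS hLa hR hM h1 h2 hG D bp lam₀ v₀ v₁) (j : JJ Φ L) {v : E3} (hv : v ∈ Om)
    (hd : T.dim v = 0) (hout : ∀ c, v ∉ interior (Kc T J c))
    (hva : va (Pc Φ.F) (bc (F := Φ.F)) (RF Φ r₀) f j.1 v ≤ θN δ κ0 R c0 κ2 κ1) :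
    lam₀ j v = 1 := by
  have hRet := retF Φ hLa hR.pos hR.le_one
  obtain ⟨q0, q1, w0, w1, x0, x1, hV⟩ := exists_vxD hLa hR.hm hC hI.body
  have hCT := corT hLa hN.hδ hN.hR hN.hκ0 hN.hκ1 hN.hκ2 hN.hκ hN.hκn hC hR
  have hq0 := (hV.notKor0 hC j.1).1
  have hw0 : w0 j.1 ∈ Om := T.sub _ (hV.mem0 j.1)
  have hx0 : x0 j.1 ∈ Om := T.sub _ (hV.px0 j.1)
  obtain ⟨e1, e2, e3⟩ := edC_vtx hw0 (hV.dim0 j.1)
  obtain ⟨e1', e2', e3'⟩ := edC_vtx hv hd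
  have hdeep : Deep Om La (Pc Φ.F) (bc (F := Φ.F)) (RF Φ r₀) f (Kc T J) (tauC hC)
      (ηN δ κ0 R c0 κ2 κ1) (θN δ κ0 R c0 κ2 κ1) (fun c : T.Cell => c.dim) (fun c => c.set)
      (KorJ Φ J)ᶜ (tcell T) j.1 (edC T (w0 j.1)) := by
    refine deep_of_zero hR.hm (foam4 Φ hLa) hRet hCT (q := q0 j.1) hq0 ?_ e1 (x := x0 j.1) ?_ hx0
      (int_J hq0 (hV.px0 j.1)) ?_
    · show (edC T (w0 j.1)).set ⊆ (tcell T (q0 j.1)).set
      rw [e3, tcell_set]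
      exact singleton_subset_iff.2 (hV.mem0 j.1)
    · show x0 j.1 ∈ (tcell T (q0 j.1)).set
      rw [tcell_set]; exact hV.px0 j.1
    · rw [hV.va0 hLa hRet j.1]; exact hN.hθ
  have hone : lam₀ j (w0 j.1) = 1 :=
    (Lbp_438.dat_init hLa hf hC hF hI hN.hκ1 hκμ hm j).at_cell hLa
      ⟨hV.dim0 j.1, q0 j.1, ⟨x0 j.1, hV.px0 j.1, hx0, hV.f0 j.1⟩, hV.mem0 j.1⟩
  have h5 := lam_low (x := v) T.cplx (env_T (hLa := hLa) (hR := hR) (hM := hM) (h1 := h1) (h2 := h2) hC)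
    kor_sub hR.hm (foam4 Φ hLa) hRet hCT (mesh0_J hC hM) (by simp) hN.hθ hN.h00 le_rfl hN.hκ1 hN.hs
    hN.hs1 (levOn_T hLa hR hμ hm) (glab_init hI j) hdeep (by rw [e2]; exact hone) e1'
    (by rw [e3']; rfl) hv hout hva
  have h6 : lam₀ j (edC T v).pt = 1 := h5
  rwa [e2'] at h6

/-- **HIGH**: the label of INIT is 0 at the vertices outside the open cores with `va a ≥ 1 - θN` -/
theorem lam_high_T (hLc : IsPreconnected La) (hN : Num δ κ0 R c0 κ2 κ1 s₁)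
    (hC : Mbf_337.Cores Φ T f κ1 κ2 X J0 J V ct A lm z θ φ)
    {μ : ℝ} (hμ : s₁ ≤ μ) (hm : ∀ c, ∀ t ∈ L c, μ ≤ t ∧ t ≤ 1 - μ)
    (hI : InitS hLa hR hM h1 h2 hG D bp lam₀ v₀ v₁) (j : JJ Φ L) {v : E3} (hv : v ∈ Om)
    (hd : T.dim v = 0) (hout : ∀ c, v ∉ interior (Kc T J c))
    (hva : 1 - θN δ κ0 R c0 κ2 κ1 ≤ va (Pc Φ.F) (bc (F := Φ.F)) (RF Φ r₀) f j.1 v) :
    lam₀ j v = 0 := by
  have hRet := retF Φ hLa hR.pos hR.le_one
  obtain ⟨q0, q1, w0, w1, x0, x1, hV⟩ := exists_vxD hLa hR.hm hC hI.body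
  have hCT := corT hLa hN.hδ hN.hR hN.hκ0 hN.hκ1 hN.hκ2 hN.hκ hN.hκn hC hR
  have hq1 := (hV.notKor1 hC j.1).1
  have hw1 : w1 j.1 ∈ Om := T.sub _ (hV.mem1 j.1)
  obtain ⟨e1, e2, e3⟩ := edC_vtx hw1 (hV.dim1 j.1)
  obtain ⟨e1', e2', e3'⟩ := edC_vtx hv hd
  have hzero : lam₀ j (w1 j.1) = 0 := (hI.farL j).far _ (hV.far j.1) _ (hV.mem1 j.1)
  have h5 := lam_high (x := v) (x₁ := x1 j.1) (v₁ := edC T (w1 j.1)) T.cplx
    (env_T (hLa := hLa) (hR := hR) (hM := hM) (h1 := h1) (h2 := h2) hC)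
    kor_sub hR.hm (foam4 Φ hLa) hRet hCT (mesh0_J hC hM) (by simp) hN.hθ hN.h00 le_rfl hN.hκ1 hN.hs
    hN.hs1 (levOn_T hLa hR hμ hm) hLc (j := j) (fun c h => preconn_brick Φ hLa h) (glab_init hI j)
    (by rw [e2]; exact hzero) e1 (i := q1 j.1) hq1
    (by
      show (edC T (w1 j.1)).set ⊆ (tcell T (q1 j.1)).set
      rw [e3, tcell_set]
      exact singleton_subset_iff.2 (hV.mem1 j.1))
    (by
      show x1 j.1 ∈ (tcell T (q1 j.1)).set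
      rw [tcell_set]; exact hV.px1 j.1)
    (int_J hq1 (hV.px1 j.1))
    (by rw [hV.va1 hLa hRet j.1]; linarith [hN.hθ]) e1'
    (by rw [e3']; rfl) hv hout hva
  have h6 : lam₀ j (edC T v).pt = 0 := h5
  rwa [e2'] at h6

theorem full_T (i : ι) : Full T i (fun c : T.Cell => c) where
  sur := fun c hc => ⟨c, rfl⟩
  inj := fun _ _ h => h

/-- **THE LABELS OF INIT AT THE EXACT CORES, ALL `X`** -/
theorem hl_init (hf : Hom3 f Om La) (hLc : IsPreconnected La) (hN : Num δ κ0 R c0 κ2 κ1 s₁)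
    (hC : Mbf_337.Cores Φ T f κ1 κ2 X J0 J V ct A lm z θ φ) (hF : Mbf_337.Fine Φ T f κ1 J0)
    (hW : Mbf_337.Words Φ T f X ct A lm z M L)
    {μ : ℝ} (hκμ : κ1 < μ) (hμ : s₁ ≤ μ) (hm : ∀ c, ∀ t ∈ L c, μ ≤ t ∧ t ≤ 1 - μ)
    (hI : InitS hLa hR hM h1 h2 hG D bp lam₀ v₀ v₁) {c : Φ.F} (hc : c ∈ X) :
    ∀ v ∈ P (T.H (ct c)), T.dim v = 0 → ∀ j : JJ Φ L,
      lam₀ j v = 1 ↔ Φ.lev j.1 (f v) < j.2.1 := by
  have hE := hC.exact_ c hc
  have hg := grid_of_words hW hc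
  have hM0 := hg.1
  have hM' : (0 : ℝ) < M c := by exact_mod_cast hM0
  have F := foamΦ hLa Φ
  have hμ0 : 0 < μ := lt_of_le_of_lt hN.hκ1 hκμ
  have key := hl_core (L := lmT T fr3) (s := st0 hG bp) (fam := fun j : JJ Φ L => j.1)
    (X := fun j : JJ Φ L => {y | Φ.lev j.1 (f y) = j.2.1})
    (V := fun j : JJ Φ L => {y | Φ.lev j.1 (f y) < j.2.1})
    (τ := fun j : JJ Φ L => M c * j.2.1) (N := M c)
    (lam₀ := fun j v => lam₀ j v.pt) (onT_skT T) (full_T (ct c)) (cg_of_grid hLa hE hg)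
    (stp_of_grid hLa hE hg) (same_of_words hW hc hM0 fun j => j.2.2)
    (cw_of_words hW hc hM0 fun j => j.2.2).side (fun w hw _ => (st0_mem hLa hR hw).2.2) (fun j => by
      have h3 := hm _ _ j.2.2
      refine ⟨mul_pos hM' (hμ0.trans_le h3.1), ?_⟩
      have h4 : j.2.1 < 1 := by linarith [h3.2]
      nlinarith)
    (fun v hv _ a => by
      show (M c : ℝ) * sb Φ (th (A c) (lm c) (z c) v) a ≤ M c
      have := ((F.sc_mem_K (th_La hE hv)).1 a).2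
      have h4 : sb Φ (th (A c) (lm c) (z c) v) a ≤ 1 := this
      nlinarith)
    (fun j => glab_init hI j)
    (fun v hv h0 j hu => by
      have hP : v.pt ∈ P (T.H (ct c)) := (dc_pt hv).1
      have hd : T.dim v.pt = 0 := h0
      have hd2 : T.dim v.pt ≤ 2 := by omega
      exact lam_low_T hf hN hC hF hκμ hμ hm hI j v.pt_mem hd (out_exact hLa hC hc hP hd2)
        ((va_ends hLa hN hR hE hM0 hP hd2 j.1).1 hu))
    (fun v hv h0 j hu => by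
      have hP : v.pt ∈ P (T.H (ct c)) := (dc_pt hv).1
      have hd : T.dim v.pt = 0 := h0
      have hd2 : T.dim v.pt ≤ 2 := by omega
      exact lam_high_T hLc hN hC hμ hm hI j v.pt_mem hd (out_exact hLa hC hc hP hd2)
        ((va_ends hLa hN hR hE hM0 hP hd2 j.1).2 hu))
  intro v hv hd j
  have hO := T.sub _ hv
  obtain ⟨e1, e2, e3⟩ := edC_vtx hO hd
  have h3 := key (edC T v) ⟨by rw [e3]; exact singleton_subset_iff.2 hv, by rw [e1]; norm_num⟩ e1 j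
  have h4 : lam₀ j (edC T v).pt = 1 ↔ Φ.lev j.1 (f (edC T v).pt) < j.2.1 := h3
  rwa [e2] at h4

/-- **two vertices of the exact core tile** with `s_a = 0` and `s_a = 1`: labels 1 and 0 for all
sheets of `a` -/
theorem exists_u (hf : Hom3 f Om La) (hLc : IsPreconnected La) (hN : Num δ κ0 R c0 κ2 κ1 s₁)
    (hC : Mbf_337.Cores Φ T f κ1 κ2 X J0 J V ct A lm z θ φ) (hF : Mbf_337.Fine Φ T f κ1 J0)
    (hW : Mbf_337.Words Φ T f X ct A lm z M L)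
    {μ : ℝ} (hκμ : κ1 < μ) (hμ : s₁ ≤ μ) (hm : ∀ c, ∀ t ∈ L c, μ ≤ t ∧ t ≤ 1 - μ)
    (hI : InitS hLa hR hM h1 h2 hG D bp lam₀ v₀ v₁) {c : Φ.F} (hc : c ∈ X) {a : Φ.F} (hac : a ≠ c)
    (hne : (Pc Φ.F a ∩ Pc Φ.F c).Nonempty) :
    ∃ u₀ ∈ P (T.H (ct c)), ∃ u₁ ∈ P (T.H (ct c)), T.dim u₀ = 0 ∧ T.dim u₁ = 0 ∧
      va (Pc Φ.F) (bc (F := Φ.F)) (RF Φ r₀) f a u₀ ≤ θN δ κ0 R c0 κ2 κ1 ∧
      1 - θN δ κ0 R c0 κ2 κ1 ≤ va (Pc Φ.F) (bc (F := Φ.F)) (RF Φ r₀) f a u₁ ∧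
      ∀ j : JJ Φ L, j.1 = a → lam₀ j u₀ = 1 ∧ lam₀ j u₁ = 0 := by
  have hE := hC.exact_ c hc
  have hg := grid_of_words hW hc
  have hM0 := hg.1
  have hM' : (0 : ℝ) < M c := by exact_mod_cast hM0
  have F := foamΦ hLa Φ
  have G := cg_of_grid hLa hE hg
  have hdim : ∀ x ∈ P (T.H (ct c)), (∃ e, e ≠ c ∧ th (A c) (lm c) (z c) x ∈ Pc Φ.F e) →
      T.dim x ≤ 2 := by
    intro x hx he
    have hI' : x ∉ I (T.H (ct c)) := (Leaf_965.not_mem_I_iff hE hLa hx).2 he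
    by_contra hcon
    have h3 : finrank ℝ E3 = 3 := by simp
    have hle : T.dim x ≤ finrank ℝ E3 := Submodule.finrank_le _
    have hV : T.V x = ⊤ := by
      refine Submodule.eq_top_of_finrank_eq ?_
      have : T.dim x = 3 := by omega
      rw [h3]; exact this
    obtain ⟨i, hi⟩ := (T.V_eq_top_iff (T.sub _ hx)).1 hV
    by_cases hic : i = ct c
    · subst hic; exact hI' hi
    · exact not_mem_I (T := T) (fun e => hic e.symm) hx hi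
  -- the low vertex
  obtain ⟨y, hya, hyc⟩ := hne
  obtain ⟨x, hx, hxy⟩ := Leaf_965.exists_pre hE hyc
  have hxd := hdim x hx ⟨a, hac, by rw [hxy]; exact hya⟩
  obtain ⟨u₀, hu₀, hd₀, hU₀⟩ := G.exists_lo hx hxd
  have hP₀ := (G.sub hx hxd hu₀).1
  have e₀ : Ecm_446.U Φ (A c) (lm c) (z c) (M c) u₀ a = 0 := by
    rw [hU₀ a]
    have h3 : Ecm_446.U Φ (A c) (lm c) (z c) (M c) x a = 0 := by
      unfold Ecm_446.U
      rw [hxy]
      have h4 : sb Φ y a = 0 := (F.sc_eq_zero (F.sub a hya)).2 hya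
      rw [h4, mul_zero]
    rw [h3]; simp
  -- the high vertex
  have hθ1 : 1 - 1 / (2 * (M c : ℝ)) < 1 := by
    have : 0 < 1 / (2 * (M c : ℝ)) := by positivity
    linarith
  have hM1 : (1 : ℝ) ≤ M c := by exact_mod_cast hM0
  have hθ0 : 0 < 1 - 1 / (2 * (M c : ℝ)) := by
    have h5 : 1 / (2 * (M c : ℝ)) ≤ 1 / 2 := by
      apply one_div_le_one_div_of_le (by norm_num)
      linarith
    linarith
  obtain ⟨y', hy1, hy2, hy3⟩ := (Lbp_438.preconn_hi hLa hac hθ0 hθ1).2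
  obtain ⟨x', hx', hxy'⟩ := Leaf_965.exists_pre hE hy1
  have hxd' := hdim x' hx' (by rw [hxy']; exact hy2)
  obtain ⟨u₁, hu₁, hd₁, hU₁⟩ := G.exists_hi hx' hxd'
  have hP₁ := (G.sub hx' hxd' hu₁).1
  have e₁ : Ecm_446.U Φ (A c) (lm c) (z c) (M c) u₁ a = M c := by
    rw [hU₁ a]
    have h3 : Ecm_446.U Φ (A c) (lm c) (z c) (M c) x' a = (M c : ℝ) * sb Φ y' a := by
      unfold Ecm_446.U
      rw [hxy']
    have h4 : (1 - 1 / (2 * (M c : ℝ))) ≤ sb Φ y' a := hy3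
    have h5 : sb Φ y' a ≤ 1 := ((F.sc_mem_K (F.sub c hy1)).1 a).2
    have h6 : (M c : ℝ) * (1 - 1 / (2 * (M c : ℝ))) = M c - 1 / 2 := by
      field_simp
    have h7 : ⌈Ecm_446.U Φ (A c) (lm c) (z c) (M c) x' a⌉₊ = M c := by
      rw [h3]
      apply le_antisymm
      · refine Nat.ceil_le.2 ?_
        nlinarith
      · have h8 : (M c : ℝ) - 1 / 2 ≤ (M c : ℝ) * sb Φ y' a := by
          rw [← h6]; exact mul_le_mul_of_nonneg_left h4 hM'.le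
        have h9 : ((M c - 1 : ℕ) : ℝ) < (M c : ℝ) * sb Φ y' a := by
          rw [Nat.cast_sub hM0]
          push_cast
          linarith
        have := Nat.lt_ceil.2 h9
        omega
    rw [h7]
  have hl := hl_init hf hLc hN hC hF hW hκμ hμ hm hI hc
  refine ⟨u₀, hP₀, u₁, hP₁, hd₀, hd₁, (va_ends hLa hN hR hE hM0 hP₀ (by omega) a).1 e₀,
    (va_ends hLa hN hR hE hM0 hP₁ (by omega) a).2 e₁, ?_⟩
  rintro j rfl
  refine ⟨lam_low_T hf hN hC hF hκμ hμ hm hI j (T.sub _ hP₀) hd₀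
    (out_exact hLa hC hc hP₀ (by omega)) ((va_ends hLa hN hR hE hM0 hP₀ (by omega) _).1 e₀),
    lam_high_T hLc hN hC hμ hm hI j (T.sub _ hP₁) hd₁
    (out_exact hLa hC hc hP₁ (by omega)) ((va_ends hLa hN hR hE hM0 hP₁ (by omega) _).2 e₁)⟩

end init

end Crest.Agent.R096.Hl_955
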