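import Crest.Agent.R096.Frk3_441
import Crest.Agent.R096.Hl5_955
import Crest.Agent.R096.Dia2_316

/-!
# R096 (row 96), FRONT, field `lab` (helper117): the core datum of every family

* `GiD`       : the state on the boundary of the shrunk core is the exact pattern;
* `exists_cd` : **`Cd` for every family** (422's input of `labIn_sla`), from 441's `exists_cd_tiny`,
  `cd_exact_L` and 955's `exists_u`.
-/

set_option autoImplicit false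
set_option linter.unusedSectionVars false
set_option linter.unusedVariables false

open Set Relation Module

namespace Crest.Agent.R096.Fcd_117

open Crest.Agent.R096.Brk1_582 Crest.Agent.R096.Brk2_582 Crest.Agent.R096.Brk3_582
  Crest.Agent.R096.Brk5_582 Crest.Agent.R096.Bsp_628 Crest.Agent.R096.Init_543
  Crest.Agent.R096.Vb_965 Crest.Agent.R096.Msh_715 Crest.Agent.R096.St_147
  Crest.Agent.R096.Seq_213 Crest.Agent.R096.Lm_117 Crest.Agent.R096.Gl_422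
  Crest.Agent.R096.SkB_662 Crest.Agent.R096.Cpo_642
  Crest.Agent.R096.Ce_537 Crest.Agent.R096.Agl5_543
  Crest.Agent.R096.Cp_298 Crest.Agent.R096.Gm_298 Crest.Agent.R096.Ac_117
  Crest.Agent.R096.Sla_184 Crest.Agent.R096.Sla_184.Sla Crest.Agent.R096.Kin_527
  Crest.Agent.R096.Vrt_422 Crest.Agent.R096.Rop_441 Crest.Agent.R096.Qdl_662
  Crest.Agent.R096.Lmx_662 Crest.Agent.R096.Flb_422 Crest.Agent.R096.Frk_441
  Crest.Agent.R096.Exa_560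
open Crest.Agent.R096.SkC1_961 (E3 Hom3 FoamD)
open Crest.Agent.R096.Mbf_337 (KJ sb)
open Crest.Agent.R096.Gia_537 (Kc Kc_sub Kc_compact Kc_disj Kc_exact)
open Crest.Agent.R096.Frn_337 (Ti cti Lay pO)
open Crest.Agent.R096.Dia_316 (nbT)

variable {δ κ0 R c0 : ℝ} {La Om : Set E3} {ι : Type} {Φ : FoamD δ κ0 R c0 La}
  {T : Tiling Om ι} {f g : E3 → E3} {κ1 κ2 s₁ s' : ℝ} {X : Set Φ.F} {J0 J V : Φ.F → Set ι}
  {ct : Φ.F → ι}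
  {A : Φ.F → E3 ≃ᵃ[ℝ] E3} {lam : Φ.F → ℝ} {z : Φ.F → E3} {θ : Φ.F → E3 → E3} {φ : Φ.F → E3 → ℝ}
  {ct' : Φ.F → ι} {r₀ : Φ.F → ℝ} {S : Sla T (Ti X)} {M : Φ.F → ℕ}
  [Nonempty S.T3.Cell] {hH : ∀ k, CoreH S.T3 (S.KK k)} {hne : ∃ c, OutK S.T3 S.KK c}
  {L : Φ.F → Finset ℝ} {s₀ : GSt (mK fr3 hH (dis_KK (S := S))) (fun j : JJ Φ L => j.1)}
  {hLa : IsOpen La} {hR : InitR Φ T f g J0 ct' r₀}
  {hM : Mesh0 T (Pc Φ.F) (bc (F := Φ.F)) (RF Φ r₀) f (KorJ Φ J0) κ1} {hε : κ1 < s₁}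
  {hε1 : κ1 < 1}

variable (θ S s₀ s₁) in
/-- the state on the boundary of the shrunk core `k` is the exact pattern of the family `a` -/
def GiD (k : Ti X) (a : Φ.F) : Prop :=
  ∃ Lv : Lev T (frontier (S.K k)) (JJ Φ L), (∀ x ∈ frontier (S.K k), Lv.u x = sb Φ (θ k.1 x) a) ∧
    ∀ j : JJ Φ L, j.1 = a → j ∈ Lv.J0 ∧ s₁ ≤ Lv.lv j ∧ Lv.lv j ≤ 1 - s₁ ∧
      ExG S k Lv j {w | w ∈ s₀.P ∧ s₀.lab w = j}

/-- the tiles of the exact cores are outside the tiny cores -/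
theorem out_ct (hLa : IsOpen La) (hC : Mbf_337.Cores Φ T f κ1 κ2 X J0 J V ct A lam z θ φ)
    (hK : ∀ k : Ti X, S.K k = KJ T (J k.1)) {c : Φ.F} (hc : c ∈ X) (k : Ti X) :
    ¬ P (T.H (ct c)) ⊆ S.K k := by
  intro h
  rw [hK k] at h
  obtain ⟨y, hy⟩ := T.ne (ct c)
  have hne' : k.1 ≠ c := fun e => k.2 (e ▸ hc)
  refine disjoint_left.1 (Kc_disj (T := T) (J := J) hLa hC hne') (h (I_sub_P _ hy)) ?_
  rw [Kc_exact hC hc]; exact I_sub_P _ hy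

/-- **THE CORE DATUM OF EVERY FAMILY** -/
theorem exists_cd [Nonempty (JJ Φ L)] {hG : GF Φ r₀ T f L} {D : Φ.F → Set E3}
    {bp : JJ Φ L → E3} {lam₀ : JJ Φ L → E3 → ZMod 2} {v₀ v₁ : Φ.F → E3} {μ : ℝ}
    (hf : Hom3 f Om La) (hLc : IsPreconnected La) (hN : Num δ κ0 R c0 κ2 κ1 s₁)
    (hC : Mbf_337.Cores Φ T f κ1 κ2 X J0 J V ct A lam z θ φ) (hF : Mbf_337.Fine Φ T f κ1 J0)
    (hW : Mbf_337.Words Φ T f X ct A lam z M L)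
    (hκμ : κ1 < μ) (hμ : s₁ ≤ μ) (hm : ∀ c, ∀ t ∈ L c, μ ≤ t ∧ t ≤ 1 - μ)
    (hK : ∀ k : Ti X, S.K k = KJ T (J k.1)) (hs' : s₁ + κ1 ≤ s')
    (on : ∀ w ∈ s₀.P, w ∈ (lmK fr3 hH (dis_KK (S := S)) hne).W1)
    (posB : PosS Φ T f s' J0 S s₀)
    (hI : InitS hLa hR hM hε hε1 hG D bp lam₀ v₀ v₁)
    {q0 q1 : Φ.F → ι} {w0 w1 x0 x1 : Φ.F → E3} (hv : VxD Φ T f V D q0 q1 w0 w1 x0 x1)
    (hgi : ∀ (k : Ti X) a, nbT Φ X k a → (∃ j : JJ Φ L, j.1 = a) → GiD s₁ θ S s₀ k a)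
    (hst : ∀ j : JJ Φ L, (∀ k : Ti X, ¬ nbT Φ X k j.1) → ∀ c ∈ X, ∀ w ∈ P (T.H (ct c)),
      ((w ∈ s₀.P ∧ s₀.lab w = j) ↔ (w ∈ (st0 hG bp).P ∧ (st0 hG bp).lab w = j)))
    (j : JJ Φ L) {u₀ u₁ : QK (belK S.T3 S.KK)} (hw₀ : DeepS hC r₀ S j.1 u₀)
    (hw₁ : FarS Φ f r₀ J S (θN δ κ0 R c0 κ2 κ1) j.1 u₁) :
    ∃ co p0 p1 o0 o1 uu tt,
      Cd hne (qdT (fun p : T.RIdx S.HH => p.tile) (sla_sub S) S.KK hLa hR hM hε hε1) s₀
        (st0 hG bp) lam₀ u₀ u₁ j.1 co p0 p1 o0 o1 uu tt := by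
  have h := lst_of_B (hLa := hLa) (hR := hR) (hM := hM) (hε := hε) (hε1 := hε1) (hne := hne) hC hK
    hs' on posB
  have hσ : s₁ ≤ s' := by linarith [hN.hκ1]
  by_cases ht : ∃ k : Ti X, nbT Φ X k j.1
  · -- a tiny core
    obtain ⟨⟨c, hcX⟩, hca, hne3⟩ := ht
    obtain ⟨Lv, hu, hL⟩ := hgi ⟨c, hcX⟩ j.1 ⟨hca, hne3⟩ ⟨j, rfl⟩
    obtain ⟨p0, p1, o0, o1, uu, tt, h'⟩ := exists_cd_tiny (t0 := st0 hG bp) (lam0 := lam₀) hLa hLc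
      hN hσ hR hC hM (tinyK_of hK) (cplxS hC hK) h (k := ⟨c, hcX⟩) hcX (hK ⟨c, hcX⟩) hca
      hne3 Lv hu (fun l => inr_act) (fun i hi => (hL i hi).1)
      (fun i hi => ⟨(hL i hi).2.1, (hL i hi).2.2.1⟩) (fun i hi => (hL i hi).2.2.2) hw₀ hw₁
    exact ⟨_, _, _, _, _, _, _, h'⟩
  · -- all neighbours are exact
    push Not at ht
    obtain ⟨c, hca, hcc⟩ := hv.w0 j.1
    have hne2 : (Pc Φ.F j.1 ∩ Pc Φ.F c).Nonempty := ⟨_, hv.f0 j.1, hcc⟩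
    have hcX : c ∈ X := by
      by_contra hcX
      exact ht ⟨c, hcX⟩ ⟨Ne.symm hca, by rw [inter_comm]; exact hne2⟩
    have hcell : Nonempty T.Cell := ⟨T.cl (T.sub _ (hv.mem0 j.1))⟩
    obtain ⟨p0, hp0, p1, hp1, hd0, hd1, hl0, hl1, hj⟩ := Hl_955.exists_u hf hLc hN hC hF hW hκμ hμ
      hm hI hcX (Ne.symm hca) hne2
    have hO : ∀ {v : E3}, v ∈ P (T.H (ct c)) → T.dim v = 0 → ∃ i, i ∉ KorJ Φ J ∧ v ∈ P (T.H i) :=
      fun {v} hv hd => exists_out T (kor_sub (Φ := Φ) (J := J))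
        (fun _ _ h => Kc_disj hLa hC h) (T.sub _ hv) fun d => out_X hLa hC hcX hv (by omega) d
    obtain ⟨i0, g1, g2⟩ := hO hp0 hd0
    obtain ⟨i1, g3, g4⟩ := hO hp1 hd1
    refine ⟨_, _, _, _, _, _, _, cd_exact_L hLa hLc hN hσ hR hC hM (tinyK_of hK) (cplxS hC hK) h
      (out_ct hLa hC hK hcX) hp0 hd0 hp1 hd1 (fun k hk hact => ?_) (fun i hi => hI.lab.lab i)
      (fun i hi w hw => hst i (fun k => by rw [hi]; exact ht k) c hcX w hw) (fun i hi => ?_)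
      g1 g2 g3 g4 hl0 hl1 hw₀ hw₁⟩
    · exact (inl_act.1 hact).1.1 ⟨c, by
        show ct c ∈ J0 c
        rw [(hC.one c hcX).1]; rfl⟩
    · rw [(hj i hi).1, (hj i hi).2, add_zero]

end Crest.Agent.R096.Fcd_117
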