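import Crest.Agent.R096.Flb5_422
import Crest.Agent.R096.Fcd1_117
import Crest.Agent.R096.Frs3_662

/-!
# R096 (row 96), DOORS, composition (helper534): LEAF E of the skeleton (`lab`)

`leafE` : `LabIn` of the state `s₀` over 471's slicing for the vertices `vA`, `vB` of 662's `FrontN`,
from (B), the exact patterns at the giants (`GiD`) and the truthful tiles of the exact cores.
-/

set_option autoImplicit false
set_option linter.unusedSectionVars false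
set_option linter.unusedVariables false
set_option linter.style.longLine false

open Set Relation Module Topology Filter Metric MeasureTheory
open scoped Classical

namespace Crest.Agent.R096.Dce_534

open Crest.Agent.R096.Brk1_582 Crest.Agent.R096.Brk2_582 Crest.Agent.R096.Brk3_582
open Crest.Agent.R096.Brk5_582 Crest.Agent.R096.Bsp_628
open Crest.Agent.R096.St_147 Crest.Agent.R096.Seq_213 Crest.Agent.R096.Seq_213.GSt
open Crest.Agent.R096.Lm_117 Crest.Agent.R096.Ac_117 Crest.Agent.R096.Msh_715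
open Crest.Agent.R096.Cp_298 Crest.Agent.R096.Gm_298 Crest.Agent.R096.Gl_422
open Crest.Agent.R096.SkB_662 Crest.Agent.R096.Cpo_642
open Crest.Agent.R096.Agl5_543 Crest.Agent.R096.Ori_543
open Crest.Agent.R096.Init_543 Crest.Agent.R096.Qdl_662 Crest.Agent.R096.Lmx_662
open Crest.Agent.R096.SkC1_961 (E3 Hom3 FoamD Cfg th NN)
open Crest.Agent.R096.Mbf_337 (Star Cores Fine Levels Words KJ sb)
open Crest.Agent.R096.Frn_337 Crest.Agent.R096.Rop_441 Crest.Agent.R096.Frk_441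
open Crest.Agent.R096.Frs_662 Crest.Agent.R096.Fcd_117 Crest.Agent.R096.Flb_422
open Crest.Agent.R096.Dia_316 (nbT)

variable {δ κ0 R c0 : ℝ} {La Om : Set E3} {ι : Type} {Φ : FoamD δ κ0 R c0 La} {T : Tiling Om ι}
  {f g : E3 → E3} {κ1 κ2 s₁ s' μ : ℝ} {X : Set Φ.F} {J0 J V : Φ.F → Set ι}
  {ct ct' : Φ.F → ι} {A : Φ.F → E3 ≃ᵃ[ℝ] E3} {lam : Φ.F → ℝ} {z : Φ.F → E3} {θ : Φ.F → E3 → E3}
  {φ : Φ.F → E3 → ℝ} {r₀ : Φ.F → ℝ} {M : Φ.F → ℕ} {L : Φ.F → Finset ℝ}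

/-- **LEAF E** -/
theorem leafE [Nonempty (JJ Φ L)] {hG : GF Φ r₀ T f L} {D : Φ.F → Set E3}
    {bp : JJ Φ L → E3} {lam₀ : JJ Φ L → E3 → ZMod 2} {v₀ v₁ : Φ.F → E3}
    (hLa : IsOpen La) (hLc : IsPreconnected La) (hf : Hom3 f Om La)
    (hN : Num δ κ0 R c0 κ2 κ1 s₁) (hC : Cores Φ T f κ1 κ2 X J0 J V ct A lam z θ φ)
    (hF : Fine Φ T f κ1 J0) (hW : Words Φ T f X ct A lam z M L) (hκμ : κ1 < μ) (hμ : s₁ ≤ μ)
    (hm : ∀ c, ∀ t ∈ L c, μ ≤ t ∧ t ≤ 1 - μ) (hs' : s₁ + κ1 ≤ s')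
    {hR : InitR Φ T f g J0 ct' r₀}
    {hM : Mesh0 T (Pc Φ.F) (bc (F := Φ.F)) (RF Φ r₀) f (KorJ Φ J0) κ1} {h1 : κ1 < s₁} {h2 : κ1 < 1}
    (hI : InitS hLa hR hM h1 h2 hG D bp lam₀ v₀ v₁)
    {q0 q1 : Φ.F → ι} {w0 w1 x0 x1 : Φ.F → E3} (hv : VxD Φ T f V D q0 q1 w0 w1 x0 x1)
    {n : Ti X → ℕ} {hn : ∀ c, 0 < n c} [Nonempty (slC hLa hC n hn).T3.Cell]
    {hne : ∃ c, OutK (slC hLa hC n hn).T3 (slC hLa hC n hn).KK c}
    {s₀ : GSt (mK fr3 (Lay_316.lay_sla hLa hC n hn).core (Lay_316.lay_sla hLa hC n hn).disj)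
      (fun j : JJ Φ L => j.1)}
    (on : ∀ w ∈ s₀.P, w ∈ (lmK fr3 (Lay_316.lay_sla hLa hC n hn).core
      (Lay_316.lay_sla hLa hC n hn).disj hne).W1)
    (posB : PosS Φ T f s' J0 (slC hLa hC n hn) s₀)
    (hgi : ∀ (k : Ti X) a, nbT Φ X k a → (∃ j : JJ Φ L, j.1 = a) →
      GiD s₁ θ (slC hLa hC n hn) s₀ k a)
    (hst : ∀ j : JJ Φ L, (∀ k : Ti X, ¬ nbT Φ X k j.1) → ∀ c ∈ X, ∀ w ∈ P (T.H (ct c)),
      ((w ∈ s₀.P ∧ s₀.lab w = j) ↔ (w ∈ (st0 hG bp).P ∧ (st0 hG bp).lab w = j))) :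
    ∃ Gc Zc lm, LabIn (lmK fr3 (Lay_316.lay_sla hLa hC n hn).core
        (Lay_316.lay_sla hLa hC n hn).disj hne)
      (qdT (fun p : T.RIdx (slC hLa hC n hn).HH => p.tile) (sla_sub (slC hLa hC n hn))
        (slC hLa hC n hn).KK hLa hR hM h1 h2) s₀ Gc Zc lm (vA hLa hC hv n hn)
      (vB hLa hC hv n hn) := by
  have hK : ∀ k : Ti X, (slC hLa hC n hn).K k = KJ T (J k.1) := fun k => rfl
  obtain ⟨lm, hlm⟩ := labIn_front (t0 := st0 hG bp) (lam0 := lam₀) (w₀ := vA hLa hC hv n hn)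
    (w₁ := vB hLa hC hv n hn) hN hC hK hs' on posB hI.body
    (fun j => vK_far _ (hv.mem1 j.1) (hv.dim1 j.1) (hv.far j.1))
    (fun j => exists_cd hf hLc hN hC hF hW hκμ hμ hm hK hs' on posB hI hv hgi hst j
      (deep_vK hLa hN hR hC hK hv j.1 _) (far_vK hLa hN hR hC hK hv j.1 _))
  exact ⟨_, _, lm, hlm⟩

end Crest.Agent.R096.Dce_534
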