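import Mathlib
import Crest.Agent.R096.Dch2_847
import Crest.Agent.R096.Lam1_847
import Crest.Agent.R096.Bse2_344
import Crest.Agent.R096.Bgf11_4
import Crest.Agent.R096.Bmf1_416

/-! Row 96 (helper847), DOORS: the machine inputs of `dich_cut`, part 1.

* `loc2o` : 344's `loc2` with the predicate only at the outer points of the outer state;
* `FarP`  : a point of a tile is not deep inside the box of a moat (lower bound of the deviations);
* `far_tr` : the truthful barrier points outside the open cores (from 4's `exists_bars`);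
* `far_s2` : all barrier points of `s2`. -/

set_option autoImplicit false
set_option linter.unusedSectionVars false
set_option linter.unusedVariables false
set_option linter.style.longLine false

open Set Topology Filter Metric Module
open scoped Classical

namespace Crest.Agent.R096.Dch_847

open Crest.Agent.R096.Msh_715 Crest.Agent.R096.Agl5_543 Crest.Agent.R096.St_147
  Crest.Agent.R096.Seq_213 Crest.Agent.R096.Door_501 Crest.Agent.R096.Sla_184
  Crest.Agent.R096.Twr_438 Crest.Agent.R096.Exa_560 Crest.Agent.R096.Ess3_95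
  Crest.Agent.R096.Ess4_95 Crest.Agent.R096.Dfi_539 Crest.Agent.R096.Dfi_471

section loc

variable {E : Type} [NormedAddCommGroup E] [NormedSpace ℝ E] [FiniteDimensional ℝ E]
variable {Om : Set E} {ι : Type} {T : Tiling Om ι} {κ : Type} {S : Sla T κ}
  {h3 : finrank ℝ E = 3} {J C : Type} {fam : J → C} [Nonempty J]
  {s : GSt (meshC T h3) fam} {r : J → E} {Sf : J → Set E} {nb : κ → C → Prop}
  {v0 v1 : ∀ c, C → VxK T S.K c} {u : κ → C → E → ℝ} {A B : κ → C → ℝ}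
  {L : ∀ c, C → Lev T (frontier (S.K c)) J}
  {Tw : Twrs (S.sh h3) S.n (outK S.hH S.dis s r)} {l0 : E → J} {w : E}

/-- 344's `loc2`, the predicate only at the outer points of `s` which are in no open core -/
theorem loc2o (D : DIn S.hH s r Sf nb v0 v1 u A B) (lo : LevOut s nb u A B L)
    (tt : TwOut S h3 s r v0 v1 L Tw) {n : J} (Bx : E → Prop)
    (htr : ∀ w ∈ s.P, s.lab w = n → (∀ c, ¬ S.In c w) → Bx w)
    (hex : ∀ c, nb c (fam n) → ∀ x ∈ frontier (S.K c), A c (fam n) < u c (fam n) x →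
      u c (fam n) x < B c (fam n) → Bx x)
    (hR : ∀ c, nb c (fam n) → ∀ v : S.Vx c,
      Rgn (S.sh h3 c) (v0 c (fam n)) (v1 c (fam n)) (trc S.hH S.dis s r c (fam n))
        (exa h3 S.hH S.dis (L c (fam n))) n v → Bx v.1)
    (hw : w ∈ (s2 S h3 Tw l0).P) (hl : (s2 S h3 Tw l0).lab w = n)
    {p : T.RIdx S.HH} (hp : w ∈ P (S.T3.H p)) : ∃ x ∈ P (T.H p.tile), Bx x := by
  have hpw : w ∈ P (T.H p.tile) := Sla.P3_sub p hp
  have hO : w ∈ Om := (s2_dim hw).1
  rcases Sla.out_or (S := S) hO with ho | ⟨c, hc⟩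
  · obtain ⟨h1, h2, -⟩ := out2 hw ho
    exact ⟨w, hpw, htr w h1 (h2.symm.trans hl) ho.2⟩
  · have hn := (in2 D lo tt hw hc).1
    obtain ⟨q, h1, -, h2, h4⟩ := base2 D lo tt hw hc
    have hq : q ∈ P (T.H p.tile) := by
      have h5 : p.tile ∈ T.at_ w := hpw
      rw [h2] at h5
      exact h5.1
    refine ⟨q, hq, ?_⟩
    rw [hl] at hn
    rcases h4 with ⟨h5, h6⟩ | ⟨i, h5, -, h7⟩ | ⟨v, h5, h6⟩
    · refine htr q h5 (h6.trans hl) fun c' hc' => ?_
      by_cases hcc : c' = c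
      · subst hcc
        exact hc'.2 h1
      · have h8 : q ∈ S.K c := (S.hH c).cpt.isClosed.frontier_subset h1
        exact Set.disjoint_left.1 (S.dis c' c hcc) hc'.1 h8
    · have h8 := lo.win c _ i h5
      rw [hl] at h7 h8
      exact hex c hn q h1 (by rw [h7]; exact h8.1) (by rw [h7]; exact h8.2)
    · rw [hl] at h6
      rw [← h5]
      exact hR c hn v h6

end loc

open Crest.Agent.R096.Brk1_582 Crest.Agent.R096.Brk2_582 Crest.Agent.R096.Brk3_582
  Crest.Agent.R096.Brk5_582 Crest.Agent.R096.Bsp_628 Crest.Agent.R096.Init_543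
  Crest.Agent.R096.Bar_106 Crest.Agent.R096.Dib_438 Crest.Agent.R096.Rgl_527
  Crest.Agent.R096.Ebr4_95 Crest.Agent.R096.Ebr3_95 Crest.Agent.R096.Lam_847
open Crest.Agent.R096.Mbf_337 (sb KJ Tiny gau Cores Fine)
open Crest.Agent.R096.SkC1_961 (E3 FoamD Hom3)
open Crest.Agent.R096.Frn_337 (Ti)
open Crest.Agent.R096.Frs_662 (slC)

variable {δ κ0 R c0 : ℝ} {La Om : Set E3} {ι : Type} {Φ : FoamD δ κ0 R c0 La} {T : Tiling Om ι}
  {f g : E3 → E3} {κ1 κ2 μ : ℝ} {X : Set Φ.F} {J0 Jt V : Φ.F → Set ι}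
  {ct ct' : Φ.F → ι} {A : Φ.F → E3 ≃ᵃ[ℝ] E3} {lam : Φ.F → ℝ} {z : Φ.F → E3}
  {θ : Φ.F → E3 → E3} {φ : Φ.F → E3 → ℝ} {r₀ : Φ.F → ℝ}

/-- `x` is not deep inside the box of the moat `(c, a, Z)` -/
def FarP (Φ : FoamD δ κ0 R c0 La) (f : E3 → E3) (c a : Φ.F) (Z : Set Φ.F) (α l1 rF : ℝ)
    (x : E3) : Prop :=
  (∃ e, l1 ≤ dv a Z (fun e => Φ.lev e (f x)) e) ∨ Φ.lev a (f x) ≤ α ∨ 1 - α ≤ Φ.lev a (f x) ∨
    rF ≤ gau c.1 (Φ.B c).lo (f x)

/-- from a lower bound of `Gm` -/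
theorem farP_of_gm {c a : Φ.F} {Z : Set Φ.F} {α l1 rF l0 mm ra t : ℝ} {x : E3} (hl0 : 0 < l0)
    (hra : 0 < ra) (h1 : l1 < l0 * t) (h2 : mm - ra * t ≤ α) (h3 : 1 - α ≤ mm + ra * t)
    (h : t ≤ Gm l0 mm ra a Z (fun e => Φ.lev e (f x))) : FarP Φ f c a Z α l1 rF x := by
  rcases le_max_iff.1 h with h | h
  · left
    by_contra hcon
    push Not at hcon
    have h4 : Fm a Z (fun e => Φ.lev e (f x)) ≤ l1 := Fm_le fun e => (hcon e).le
    rw [le_div_iff₀ hl0] at h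
    linarith
  · right
    have h' : t ≤ |Φ.lev a (f x) - mm| / ra := h
    rw [le_div_iff₀ hra] at h'
    rcases le_abs.1 h' with h4 | h4
    · exact Or.inr (Or.inl (by linarith))
    · exact Or.inl (by linarith)

/-- from a lower bound of `Gm` at `θ x` -/
theorem farP_of_gmf (hLa : IsOpen La) (hδ : 0 < δ) (hR : 0 < R) (hκ : Cn δ R * κ1 < 1)
    {c a : Φ.F} {Z : Set Φ.F} {J0 J V : Set ι} {θ : E3 → E3} {φ : E3 → ℝ}
    (H : Tiny Φ T f κ1 c J0 J V θ φ) {α l1 rF l0 mm ra t : ℝ} {x : E3}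
    (hx : x ∈ frontier (KJ T J)) (hl0 : 0 < l0)
    (hra : 0 < ra) (h1 : l1 + Cn δ R * κ1 < l0 * t) (h2 : mm - ra * t + Cn δ R * κ1 ≤ α)
    (h3 : 1 - α ≤ mm + ra * t - Cn δ R * κ1)
    (h : t ≤ gmf Φ l0 mm ra a Z (θ x)) : FarP Φ f c a Z α l1 rF x := by
  have hn := fun e => abs_le.1 (tiny_near hLa hδ hR hκ H hx e)
  rcases le_max_iff.1 h with h | h
  · left
    by_contra hcon
    push Not at hcon
    have h4 : Fm a Z (sb Φ (θ x)) ≤ l1 + Cn δ R * κ1 := by
      refine Fm_le fun e => ?_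
      have h5 := (abs_le.1 (abs_dv_sub (a := a) (Z := Z) (u := sb Φ (θ x))
        (v := fun e => Φ.lev e (f x)) e)).2
      have h6 : |sb Φ (θ x) e - (fun e => Φ.lev e (f x)) e| ≤ Cn δ R * κ1 :=
        tiny_near hLa hδ hR hκ H hx e
      have h7 := (hcon e).le
      linarith
    rw [le_div_iff₀ hl0] at h
    linarith
  · right
    have h' : t ≤ |sb Φ (θ x) a - mm| / ra := h
    rw [le_div_iff₀ hra] at h'
    have h8 := hn a
    rcases le_abs.1 h' with h4 | h4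
    · exact Or.inr (Or.inl (by linarith [h8.1, h8.2]))
    · exact Or.inl (by linarith [h8.1, h8.2])

/-- from a lower bound of `Fs` at `θ x` -/
theorem farP_of_fs (hLa : IsOpen La) (hδ : 0 < δ) (hR : 0 < R) (hκ : Cn δ R * κ1 < 1)
    {c a p m : Φ.F} {Z : Set Φ.F} {N : Finset Φ.F} {J0 J V : Set ι} {θ : E3 → E3} {φ : E3 → ℝ}
    (H : Tiny Φ T f κ1 c J0 J V θ φ) (M : Mo (Pc Φ.F) c a Z p m) (hp : p ∈ N) (hm : m ∈ N)
    {α l1 rF W : ℝ} {x : E3} (hx : x ∈ frontier (KJ T J)) (hα : Cn δ R * κ1 ≤ α)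
    (h1 : l1 + Cn δ R * κ1 ≤ W) (h2 : W < 1)
    (h : W < Fs N a Z (sb Φ (θ x))) : FarP Φ f c a Z α l1 rF x := by
  have hn := abs_le.1 (tiny_near hLa hδ hR hκ H hx a)
  by_contra hcon
  unfold FarP at hcon
  push Not at hcon
  obtain ⟨g1, g2, g3, -⟩ := hcon
  have h4 : Fm a Z (sb Φ (θ x)) ≤ l1 + Cn δ R * κ1 := by
    refine Fm_le fun e => ?_
    have h5 := (abs_le.1 (abs_dv_sub (a := a) (Z := Z) (u := sb Φ (θ x))
      (v := fun e => Φ.lev e (f x)) e)).2
    have h6 : |sb Φ (θ x) e - (fun e => Φ.lev e (f x)) e| ≤ Cn δ R * κ1 :=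
      tiny_near hLa hδ hR hκ H hx e
    have h7 := (g1 e).le
    linarith
  rw [fs_eq_fm hLa M hp hm (th_mem H hx) (by linarith [hn.1, hn.2]) (by linarith [hn.1, hn.2])
    (by linarith)] at h
  linarith

end Crest.Agent.R096.Dch_847
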