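import Mathlib
import Crest.Agent.R096.Dch3_847
import Crest.Agent.R096.Nmd2_698

/-! Row 96 (helper847), DOORS: the machine inputs of `dich_cut`, part 2.

* `trF_bars` : the truthful record from 4's `exists_bars`;
* `far_s2` : no barrier point of `s2` has a tile deep inside its box;
* `core_pt` : the points near a tiny core outside the remaining cores have coordinate `0`. -/

set_option autoImplicit false
set_option linter.unusedSectionVars false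
set_option linter.unusedVariables false
set_option linter.style.longLine false

open Set Topology Filter Metric Module
open scoped Classical

namespace Crest.Agent.R096.Dch_847

open Crest.Agent.R096.Msh_715 Crest.Agent.R096.Agl5_543 Crest.Agent.R096.St_147
  Crest.Agent.R096.Seq_213 Crest.Agent.R096.Door_501 Crest.Agent.R096.Sla_184
  Crest.Agent.R096.Twr_438 Crest.Agent.R096.Exa_560 Crest.Agent.R096.Ess3_95
  Crest.Agent.R096.Ess4_95 Crest.Agent.R096.Dfi_539 Crest.Agent.R096.Dfi_471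
open Crest.Agent.R096.Brk1_582 Crest.Agent.R096.Brk2_582 Crest.Agent.R096.Brk3_582
  Crest.Agent.R096.Brk5_582 Crest.Agent.R096.Bsp_628 Crest.Agent.R096.Init_543
  Crest.Agent.R096.Bar_106 Crest.Agent.R096.Dib_438 Crest.Agent.R096.Rgl_527
  Crest.Agent.R096.Ebr4_95 Crest.Agent.R096.Ebr3_95 Crest.Agent.R096.Lam_847
  Crest.Agent.R096.Ess5_95 Crest.Agent.R096.Ess6_95 Crest.Agent.R096.Ess8_95 Crest.Agent.R096.Bgf_4
open Crest.Agent.R096.Mbf_337 (sb KJ Tiny gau Cores Fine)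
open Crest.Agent.R096.SkC1_961 (E3 FoamD Hom3)
open Crest.Agent.R096.Frn_337 (Ti)
open Crest.Agent.R096.Frs_662 (slC)


variable {δ κ0 R c0 : ℝ} {La Om : Set E3} {ι : Type} {Φ : FoamD δ κ0 R c0 La} {T : Tiling Om ι}
  {f g : E3 → E3} {κ1 κ2 μ : ℝ} {X : Set Φ.F} {J0 Jt V : Φ.F → Set ι}
  {ct ct' : Φ.F → ι} {A : Φ.F → E3 ≃ᵃ[ℝ] E3} {lam : Φ.F → ℝ} {z : Φ.F → E3}
  {θ : Φ.F → E3 → E3} {φ : Φ.F → E3 → ℝ} {r₀ : Φ.F → ℝ} {ρ1 ρ2 ρ3 ρ4 d : Φ.F → ℝ}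

/-- **the points near a tiny core**, on a tile which is not near the hole, have coordinate `0` -/
theorem lev_zero (hLa : IsOpen La) (H : Hm f g Om La) {c : Φ.F} {J0 J V : Set ι} {θ : E3 → E3}
    {φ : E3 → ℝ} {ρ1 ρ2 ρ3 ρ4 d : ℝ} (hT : Tiny Φ T f κ1 c J0 J V θ φ)
    (hR : Rm Φ T f c J0 J V θ ρ1 ρ2 ρ3 ρ4 d) {q : ι} (hqV : q ∈ V) (hqJ : q ∉ J0) {y : E3}
    (hy : y ∈ P (T.H q)) : Φ.lev c (f y) = 0 := by
  have h := (psi_tile hLa H hT hR hqV hqJ hy).2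
  have FF := foam Φ.bf hLa
  rw [frontier_c Φ hLa c] at h
  have h1 : Φ.Psi (f y) ∈ Pc Φ.F c := h.1
  exact (FF.sc_eq_zero (FF.sub c h1)).2 h1

section tr

variable {Mo' : Type} {JN C : Type} {fam : JN → C}

/-- the truthful barrier points of `m`: in a cap or on the wall -/
def TrF (Φ : FoamD δ κ0 R c0 La) (f : E3 → E3) (ρ1 ρ3 d : Φ.F → ℝ) (l0 mm ra : ℝ) (c a : Φ.F)
    (Z : Set Φ.F) (w : E3) : Prop :=
  (∀ e, 0 ≤ Φ.lev e (f w) ∧ Φ.lev e (f w) ≤ 1) ∧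
    (ga Φ c (f w) ≤ ρ1 c + 4 * d c ∨ ρ3 c + 12 * d c ≤ ga Φ c (f w) ∨
      1 ≤ Gm l0 mm ra a Z (fun e => Φ.lev e (f w)))

/-- from the clause of `exists_bars` -/
theorem trF_of {sg l0 mm ra ε : ℝ} {X : Set Φ.F} {Jt V : Φ.F → Set ι}
    (rd : Nmd2_698.RadD Φ T f κ1 X J0 Jt V θ ρ1 ρ2 ρ3 ρ4 d) {c a : Φ.F} {Z : Set Φ.F} (hc : c ∉ X)
    (hε : 1 ≤ ε) {w : E3} (hlev : ∀ e, 0 ≤ Φ.lev e (f w) ∧ Φ.lev e (f w) ≤ 1)
    (h : ga Φ c (f w) = rB ρ1 ρ3 d c - hB ρ1 ρ3 d c * ε ∨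
      ga Φ c (f w) = rB ρ1 ρ3 d c + hB ρ1 ρ3 d c * ε ∨ gmf Φ l0 mm ra a Z (Φ.Psi (f w)) = ε) :
    TrF Φ f ρ1 ρ3 d l0 mm ra c a Z w := by
  refine ⟨hlev, ?_⟩
  rcases h with h | h | h
  · left
    rw [h]
    exact rd.bot' hc hε
  · right; left
    rw [h]
    exact rd.top' hc hε
  · right; right
    have h' : Gm l0 mm ra a Z (fun e => Φ.lev e (f w)) = ε := h
    rw [h']
    exact hε

end tr

section s2

variable {Mo' : Type} {n : Ti X → ℕ} {hn : ∀ c, 0 < n c} {hLa : IsOpen La}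
  {hC : Cores Φ T f κ1 κ2 X J0 Jt V ct A lam z θ φ}
  {JN C : Type} {fam : JN → C} [Nonempty (JN ⊕ Mo')]
  {s : GSt (meshC T fr3) (Sum.map fam (id : Mo' → Mo'))} {r : JN ⊕ Mo' → E3}
  {Sf : JN ⊕ Mo' → Set E3} {nb : Ti X → C ⊕ Mo' → Prop}
  {v0 v1 : ∀ c, C ⊕ Mo' → VxK T (slC hLa hC n hn).K c} {u : Ti X → C ⊕ Mo' → E3 → ℝ}
  {Aw Bw : Ti X → C ⊕ Mo' → ℝ}
  {Lv : ∀ c, C ⊕ Mo' → Lev T (frontier ((slC hLa hC n hn).K c)) (JN ⊕ Mo')}
  {Tw : Twrs ((slC hLa hC n hn).sh fr3) (slC hLa hC n hn).n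
    (outK (slC hLa hC n hn).hH (slC hLa hC n hn).dis s r)} {ln : E3 → JN ⊕ Mo'}
  {co am : Mo' → Φ.F} {Zm : Mo' → Set Φ.F}

/-- a truthful point of low gauge is in the open core -/
theorem low_in (hLa : IsOpen La) (hC : Cores Φ T f κ1 κ2 X J0 Jt V ct A lam z θ φ)
    (n : Ti X → ℕ) (hn : ∀ c, 0 < n c) (H : Hm f g Om La)
    (rd : ∀ c ∉ X, Rm Φ T f c (J0 c) (Jt c) (V c) (θ c) (ρ1 c) (ρ2 c) (ρ3 c) (ρ4 c) (d c))
    {c : Φ.F} (hc : c ∉ X) {w : E3} (hw : w ∈ Om) (h : ga Φ c (f w) < ρ2 c) :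
    (slC hLa hC n hn).In ⟨c, hc⟩ w := by
  have hT := hC.tiny c hc
  have hr := rd c hc
  have hG := Ess8_95.ga_of_ray hLa hT.pt (by linarith [hr.r1, hr.r12, hr.r23, hr.r34, hr.d0]) hr.r4 hr.ray
  have hcl : IsClosed (KJ T (Jt c)) :=
    (hT.finV.subset hT.sub).isClosed_biUnion fun i _ => isClosed_P _
  have h1 : w ∈ interior (KJ T (Jt c)) :=
    K_int H (Φ.bf.sub c.1 c.2) hG hr hT.sub0 hcl hT.mem hw h
  refine ⟨interior_subset h1, fun h2 => ?_⟩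
  have h3 : w ∈ frontier (KJ T (Jt c)) := h2
  rw [hcl.frontier_eq] at h3
  exact h3.2 h1

/-- **no barrier point of `s2` has a tile deep inside its box** -/
theorem far_s2 (hδ : 0 < δ) (hR : 0 < R) (hκ1 : 0 < κ1) (hκ : Cn δ R * κ1 < 1)
    (H : Hm f g Om La)
    (rd : ∀ c ∉ X, Rm Φ T f c (J0 c) (Jt c) (V c) (θ c) (ρ1 c) (ρ2 c) (ρ3 c) (ρ4 c) (d c))
    (D : DIn (slC hLa hC n hn).hH s r Sf nb v0 v1 u Aw Bw)
    (lo : LevOut (Kc := (slC hLa hC n hn).K) s nb u Aw Bw Lv)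
    (tt : TwOut (slC hLa hC n hn) fr3 s r v0 v1 Lv Tw)
    (m : Mo') (hcX : co m ∉ X) {p' q' : Φ.F}
    (hM : Bar_106.Mo (Pc Φ.F) (co m) (am m) (Zm m) p' q')
    (hco : ∀ c : Ti X, nb c (Sum.inr m) → c.1 = co m)
    {N : Finset Φ.F} (hN : ∀ e, (Pc Φ.F (co m) ∩ Pc Φ.F e).Nonempty → e ∈ N)
    (hu : ∀ c : Ti X, nb c (Sum.inr m) → ∀ x,
      u c (Sum.inr m) x = Fs N (am m) (Zm m) (sb Φ (θ c.1 x)))
    {l0 mm ra hi z0 W α l1 rF : ℝ} (hNm : Nm l0 mm ra hi) (hz : z0 ≤ hi)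
    (hA : ∀ c : Ti X, nb c (Sum.inr m) → W ≤ Aw c (Sum.inr m)) (hzA : l0 * z0 ≤ W) (hW : W < 1)
    (hzb : z0 + max ((3 * Cn δ R + 1) * κ1 / l0) ((3 * Cn δ R + 1) * κ1 / ra) < 1)
    (hv0 : ∀ c : Ti X, nb c (Sum.inr m) →
      gmf Φ l0 mm ra (am m) (Zm m) (θ c.1 (v0 c (Sum.inr m)).1) ≤ z0)
    (htr : ∀ w ∈ s.P, s.lab w = Sum.inr m → TrF Φ f ρ1 ρ3 d l0 mm ra (co m) (am m) (Zm m) w)
    (hl1 : l1 + Cn δ R * κ1 < l0 * z0) (hα1 : mm - ra * z0 + Cn δ R * κ1 ≤ α)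
    (hα2 : 1 - α ≤ mm + ra * z0 - Cn δ R * κ1) (hα3 : Cn δ R * κ1 ≤ α)
    (hrF : rF ≤ ρ3 (co m) + 12 * d (co m))
    {w : E3} (hw : w ∈ (s2 (slC hLa hC n hn) fr3 Tw ln).P)
    (hwl : (s2 (slC hLa hC n hn) fr3 Tw ln).lab w = Sum.inr m)
    {p : T.RIdx (slC hLa hC n hn).HH} (hp : w ∈ P ((slC hLa hC n hn).T3.H p)) :
    ∃ x ∈ P (T.H p.tile), FarP Φ f (co m) (am m) (Zm m) α l1 rF x := by
  have hCn := Cn_nonneg hδ hR
  have hCκ : 0 ≤ Cn δ R * κ1 := mul_nonneg hCn hκ1.le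
  have hz1 : z0 ≤ 1 := by
    have h1 : 0 ≤ max ((3 * Cn δ R + 1) * κ1 / l0) ((3 * Cn δ R + 1) * κ1 / ra) :=
      le_max_of_le_left (div_nonneg (by positivity) hNm.hl.le)
    linarith
  have hl0 := hNm.hl
  have hra := hNm.hra
  have hr := rd (co m) hcX
  refine loc2o D lo tt (n := Sum.inr m) (FarP Φ f (co m) (am m) (Zm m) α l1 rF) ?_ ?_ ?_ hw hwl hp
  · intro w hw hl hin
    obtain ⟨-, h | h | h⟩ := htr w hw hl
    · refine absurd (low_in hLa hC n hn H rd hcX (D.dim1 w hw).1 ?_) (hin ⟨co m, hcX⟩)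
      linarith [hr.r12, hr.d0]
    · exact Or.inr (Or.inr (Or.inr (hrF.trans h)))
    · refine farP_of_gm (t := 1) hl0 hra (by nlinarith) (by nlinarith) (by nlinarith) h
  · intro c hc x hx h1 _
    have hcc := hco c hc
    have hT : Tiny Φ T f κ1 (co m) (J0 (co m)) (Jt (co m)) (V (co m)) (θ (co m)) (φ (co m)) :=
      hC.tiny _ hcX
    have hx' : x ∈ frontier (KJ T (Jt (co m))) := by rw [← hcc]; exact hx
    have h1' : W < Fs N (am m) (Zm m) (sb Φ (θ (co m) x)) := by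
      have h2 := h1
      have h3 : Sum.map fam (id : Mo' → Mo') (Sum.inr m : JN ⊕ Mo') = Sum.inr m := rfl
      rw [h3, hu c hc x, hcc] at h2
      exact (hA c hc).trans_lt h2
    exact farP_of_fs hLa hδ hR hκ hT hM
      (hN _ (by
        obtain ⟨y, hy⟩ := hM.fcp
        exact ⟨y, mem_fc.1 hy _ (Or.inl hM.cZ), mem_fc.1 hy _ (Or.inr (Or.inr rfl))⟩))
      (hN _ (by
        obtain ⟨y, hy⟩ := hM.fcm
        exact ⟨y, mem_fc.1 hy _ (Or.inl hM.cZ), mem_fc.1 hy _ (Or.inr (Or.inr rfl))⟩))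
      hx' hα3 (by linarith) hW h1'
  · intro c hc v hv
    have hcc := hco c hc
    have hM' : Bar_106.Mo (Pc Φ.F) c.1 (am m) (Zm m) p' q' := by rw [hcc]; exact hM
    have hgt : z0 < gmf Φ l0 mm ra (am m) (Zm m) (θ c.1 v.1) := by
      by_contra hno
      refine not_rgn_axis (κ := Ti X) (cf := fun k => k.1) (J0 := fun k => J0 k.1)
        (J := fun k => Jt k.1) (V := fun k => V k.1) (θ := fun k => θ k.1) (φ := fun k => φ k.1)
        (h3 := fr3) (hH := (slC hLa hC n hn).hH) (hdis := (slC hLa hC n hn).dis) (k := c)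
        (b' := Sum.inr m) (N := N) (a := am m) (Z := Zm m) (p := p') (m := q')
        hLa hδ hR hκ1 hκ (fun k => hC.tiny k.1 k.2) lo (v0 := v0) (v1 := v1) (hu c hc) hM'
        (hN _ (by
          obtain ⟨y, hy⟩ := hM.fcp
          exact ⟨y, mem_fc.1 hy _ (Or.inl hM.cZ), mem_fc.1 hy _ (Or.inr (Or.inr rfl))⟩))
        (hN _ (by
          obtain ⟨y, hy⟩ := hM.fcm
          exact ⟨y, mem_fc.1 hy _ (Or.inl hM.cZ), mem_fc.1 hy _ (Or.inr (Or.inr rfl))⟩))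
        hNm hz (hzA.trans (hA c hc)) hzb (hv0 c hc) ?_ (v := v) (not_lt.1 hno) _ hv
      intro w hw hl hwf
      have hl' : s.lab w = Sum.inr m := by
        rcases hj : s.lab w with j | m'
        · rw [hj] at hl; cases hl
        · rw [hj] at hl
          exact congrArg Sum.inr (Sum.inr_injective hl)
      obtain ⟨h1, h2⟩ := htr w hw hl'
      refine ⟨h1, ?_⟩
      have hfr := hr.fr w (by rw [← hcc]; exact hwf)
      rcases h2 with h2 | h2 | h2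
      · linarith [hr.r12, hr.d0, hfr.1]
      · linarith [hr.d0, hfr.2]
      · exact h2
    have hT : Tiny Φ T f κ1 c.1 (J0 c.1) (Jt c.1) (V c.1) (θ c.1) (φ c.1) := hC.tiny _ c.2
    have h5 : FarP Φ f c.1 (am m) (Zm m) α l1 rF v.1 :=
      farP_of_gmf hLa hδ hR hκ hT v.2.2 hl0 hra hl1 hα1 hα2 hgt.le
    rw [hcc] at h5
    exact h5

end s2

end Crest.Agent.R096.Dch_847
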