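import Crest.Agent.R096.Dchn2_316
import Crest.Agent.R096.Dch4_847
import Crest.Agent.R096.Lbc2_334
import Crest.Agent.R096.Sde4_422
import Crest.Agent.R096.Pb2_416
import Crest.Agent.R096.Civ4_662

/-! Row 96 (helper316), DOORS, piece 3 of board #12234, part 3: **`Dich` OF THE MACHINE** for 688's
`sdN` over 422's sides. -/

set_option autoImplicit false
set_option linter.unusedSectionVars false
set_option linter.unusedVariables false
set_option linter.style.longLine false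

open Set Topology Filter Metric Module Relation MeasureTheory
open scoped Classical

namespace Crest.Agent.R096.Dchn_316

open Crest.Agent.R096.Msh_715 Crest.Agent.R096.Coh_184 Crest.Agent.R096.Lab_184
  Crest.Agent.R096.Main_4 Crest.Agent.R096.Agl5_543
  Crest.Agent.R096.Seq_213 Crest.Agent.R096.St_147 Crest.Agent.R096.Door_501
  Crest.Agent.R096.Twr_438 Crest.Agent.R096.Exa_560
  Crest.Agent.R096.Ess3_95 Crest.Agent.R096.Ess4_95 Crest.Agent.R096.Ac_117 Crest.Agent.R096.Lm_117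
  Crest.Agent.R096.Dfi_539 Crest.Agent.R096.Dfi_471 Crest.Agent.R096.Dfo_539
  Crest.Agent.R096.Sla_184 Crest.Agent.R096.Gm_298
  Crest.Agent.R096.Brk1_582 Crest.Agent.R096.Brk2_582 Crest.Agent.R096.Brk3_582
  Crest.Agent.R096.Brk5_582 Crest.Agent.R096.Bsp_628 Crest.Agent.R096.Init_543
  Crest.Agent.R096.Lv3_471 Crest.Agent.R096.Lv4_471 Crest.Agent.R096.Slt_471
  Crest.Agent.R096.Dib_438 Crest.Agent.R096.Rop_441 Crest.Agent.R096.Frk_441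
  Crest.Agent.R096.Dff_539 Crest.Agent.R096.Frs_662 Crest.Agent.R096.Qdl_662
  Crest.Agent.R096.Cg_501 Crest.Agent.R096.SecW_892 Crest.Agent.R096.Sgd_298
  Crest.Agent.R096.Dfg_539 Crest.Agent.R096.Nmd1_698 Crest.Agent.R096.Civ_662
  Crest.Agent.R096.Lbc_334 Crest.Agent.R096.Bar_106 Crest.Agent.R096.Bgf_4
open Crest.Agent.R096.Sgo_298 (RmA rout ActR)
open Crest.Agent.R096.Bse_344 (BoxP)
open Crest.Agent.R096.Mbf_337 (KJ Tiny Cores Fine sb gau)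
open Crest.Agent.R096.SkC1_961 (E3 FoamD Hom3)
open Crest.Agent.R096.Frn_337 (Ti)
open Crest.Agent.R096.Ess7_95 (KT Sh)
open Crest.Agent.R096.Dia_316 (nbT)
open Crest.Agent.R096.Dfn_416 (BarS)
open Crest.Agent.R096.Bmf_416 (coT coT_fin)
open Crest.Agent.R096.Vin_527 (sdm)
open Crest.Agent.R096.Sde_422 (gR)
open Crest.Agent.R096.Gl_422 (GLab)
open Crest.Agent.R096.Gm_298 (ZK)
open Crest.Agent.R096.Ess5_95 (ga Rm)

variable {δ κ0 R c0 : ℝ} {La Om : Set E3} {ι : Type} {Φ : FoamD δ κ0 R c0 La} {T : Tiling Om ι}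
  {f g : E3 → E3} {κ1 κ2 μ : ℝ} {X : Set Φ.F} {J0 J V : Φ.F → Set ι}
  {ct ct' : Φ.F → ι} {A : Φ.F → E3 ≃ᵃ[ℝ] E3} {lam : Φ.F → ℝ} {z : Φ.F → E3}
  {θ : Φ.F → E3 → E3} {φ : Φ.F → E3 → ℝ} {r₀ : Φ.F → ℝ}
  {L : Φ.F → Finset ℝ} [Nonempty (JJ Φ L)] {hG : GF Φ r₀ T f L} {bp : JJ Φ L → E3}
  {N' : BM Φ X → Set ℝ} {ρ1 ρ2 ρ3 ρ4 d : Φ.F → ℝ} {q₀ : BM Φ X → E3} {ε : BM Φ X → ℝ}
  {bm : BM Φ X → E3} {hGB : GFB Φ r₀ T f L (lRc Φ X μ ρ1 ρ3 d) ε}
  {v0F v1F : ∀ c, Φ.F → VxK T (KT T J X) c} {v0B v1B : ∀ c, BM Φ X → VxK T (KT T J X) c}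
  {hLa : IsOpen La} {hC : Cores Φ T f κ1 κ2 X J0 J V ct A lam z θ φ}
  {n : Ti X → ℕ} {hn : ∀ c, 0 < n c} {r : JJ Φ L ⊕ BM Φ X → E3}
  {Sf : JJ Φ L ⊕ BM Φ X → Set E3}
  {Lv : ∀ c, Φ.F ⊕ BM Φ X → Lev T (frontier ((slC hLa hC n hn).K c)) (JJ Φ L ⊕ BM Φ X)}
  {Tw : Twrs ((slC hLa hC n hn).sh fr3) (slC hLa hC n hn).n
    (outK (slC hLa hC n hn).hH (slC hLa hC n hn).dis (stB hGB bp bm) r)}
  {l0' : E3 → JJ Φ L ⊕ BM Φ X}

/-- `w` is near the core `c` -/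
def NrC (Om : Set E3) (Φ : FoamD δ κ0 R c0 La) (f : E3 → E3) (X : Set Φ.F) (ρ3 d : Φ.F → ℝ)
    (c : Φ.F) (w : E3) : Prop := c ∉ X ∧ w ∈ Om ∧ ga Φ c (f w) ≤ ρ3 c + 8 * d c

/-- a tile near the core: in `V`, not near the holes -/
theorem tile_near (hLa : IsOpen La) (hC : Cores Φ T f κ1 κ2 X J0 J V ct A lam z θ φ)
    (n : Ti X → ℕ) (hn : ∀ c, 0 < n c)
    (hRm : RmA Φ T f X J0 J V θ ρ1 ρ2 ρ3 ρ4 d) {c : Φ.F} {w : E3} (h : NrC Om Φ f X ρ3 d c w)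
    {p : T.RIdx (slC hLa hC n hn).HH} (hp : w ∈ P ((slC hLa hC n hn).T3.H p))
    (hout : ∀ k, ¬ P ((slC hLa hC n hn).T3.H p) ⊆ (slC hLa hC n hn).KK k) :
    p.tile ∈ V c ∧ p.tile ∉ KorJ Φ J0 := by
  have hr := hRm c h.1
  have hwt : w ∈ P (T.H p.tile) := sla_sub (slC hLa hC n hn) p hp
  have hV : p.tile ∈ V c := hr.v _ ⟨w, hwt, by linarith [h.2.2, hr.r34, hr.d0]⟩
  refine ⟨hV, notKor_of_lay (Lay_316.lay_sla hLa hC n hn) (sla_sub (slC hLa hC n hn))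
    (fun i hi => ?_) hC hout fun c' hc' e => ?_⟩
  · have h : ∀ c, ¬ P (T.H i) ⊆ (slC hLa hC n hn).K c := fun k hk =>
      hi k (Slt_471.sub_KJ_iff.1 hk)
    rw [Lay_316.c3_of h]
    rfl
  · have h1 : p.tile ∈ V c' := by
      rw [(hC.one c' hc').2.2, e]
      exact rfl
    have hne : c ≠ c' := fun e' => h.1 (e' ▸ hc')
    exact disjoint_left.1 (hC.disj c c' hne) hV h1

/-- points near two cores: the same core -/
theorem near_unique (hC : Cores Φ T f κ1 κ2 X J0 J V ct A lam z θ φ) {c c' : Φ.F} {q : ι}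
    (h : q ∈ V c) (h' : q ∈ V c') : c = c' := by
  by_contra hne
  exact disjoint_left.1 (hC.disj c c' hne) h h'

section mach

variable (N : NumD δ κ0 R c0 κ2 μ κ1) (H : Hm f g Om La)
  (bar : BarOut Φ T f κ1 μ X J0 J V θ hG bp N' ρ1 ρ2 ρ3 ρ4 d q₀ ε bm hGB v0B v1B)
  (barS : BarS hG bp V coT (stB hGB bp bm))
  (D : DIn (slC hLa hC n hn).hH (stB hGB bp bm) r Sf (nbA Φ X) (vS v0F v0B) (vS v1F v1B)
    (uA Φ hLa X θ) (AA Φ X μ κ1) (BA Φ X μ))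
  (lo : LevOut (Kc := (slC hLa hC n hn).K) (stB hGB bp bm) (nbA Φ X) (uA Φ hLa X θ)
    (AA Φ X μ κ1) (BA Φ X μ) Lv)
  (tt : TwOut (slC hLa hC n hn) fr3 (stB hGB bp bm) r (vS v0F v0B) (vS v1F v1B) Lv Tw)
  (rec : BR hLa (stB hGB bp bm) f X J θ coT BM.am BM.Zm (nbA Φ X) (vS v0F v0B) (vS v1F v1B)
    (uA Φ hLa X θ) (AA Φ X μ κ1) (BA Φ X μ) μ κ1)
include N H bar barS D lo tt rec

/-- **662's `Dich` OF THE MACHINE**, for 688's `sdN` -/
theorem dich_m [Nonempty (slC hLa hC n hn).T3.Cell] (hR : InitR Φ T f g J0 ct' r₀)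
    (hM : Mesh0 T (Pc Φ.F) (bc (F := Φ.F)) (RF Φ r₀) f (KorJ Φ J0) κ1) (h1 : κ1 < μ / 32)
    (h2 : κ1 < 1) (hm : ∀ c, ∀ t ∈ L c, μ ≤ t ∧ t ≤ 1 - μ)
    (hnC : ∃ c, OutK (slC hLa hC n hn).T3 (slC hLa hC n hn).KK c)
    {lm : BM Φ X → Lm_117.QK (belK (slC hLa hC n hn).T3 (slC hLa hC n hn).KK) → ZMod 2}
    (hlm : ∀ m, ∀ w ∈ (lmK fr3 (Lay_316.lay_sla hLa hC n hn).core
          (Sla.dis_KK (S := slC hLa hC n hn)) hnC).W1,
        ∀ p, (∀ c, ¬ P ((slC hLa hC n hn).T3.H p) ⊆ (slC hLa hC n hn).KK c) →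
        w ∈ P ((slC hLa hC n hn).T3.H p) → ga Φ m.co (f w) ≤ ρ3 m.co + 8 * d m.co →
        gR Φ X μ m (Φ.Psi (f w)) ≤ 1 - μ / 16 →
        sdm (lmK fr3 (Lay_316.lay_sla hLa hC n hn).core (Sla.dis_KK (S := slC hLa hC n hn)) hnC)
          (s2 (slC hLa hC n hn) fr3 Tw l0') lm m w)
    {Act : Φ.F → Set (T.RIdx (slC hLa hC n hn).HH ⊕ Ti X)}
    {s₃ : GSt ((slC hLa hC n hn).mn fr3) (fun j : JJ Φ L => j.1)}
    (D3 : Dfo_539.CutOut (s2 (slC hLa hC n hn) fr3 Tw l0') BM.am Act s₃) :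
    Dich (hH := (Lay_316.lay_sla hLa hC n hn).core) (hdis := Sla.dis_KK)
      (qdT (fun p : T.RIdx (slC hLa hC n hn).HH => p.tile) (sla_sub (slC hLa hC n hn))
        (slC hLa hC n hn).KK hLa hR hM h1 h2) s₃ (UTm Om Φ f X ρ3 d) BM.am
      (sdN (hH := (Lay_316.lay_sla hLa hC n hn).core) (hdis := Sla.dis_KK)
        Φ T f (fun p : T.RIdx (slC hLa hC n hn).HH => p.tile) (3 * μ / 8)
        (s2 (slC hLa hC n hn) fr3 Tw l0')
        (sdm (lmK fr3 (Lay_316.lay_sla hLa hC n hn).core (Sla.dis_KK (S := slC hLa hC n hn)) hnC)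
          (s2 (slC hLa hC n hn) fr3 Tw l0') lm)) := by
  have hμ := N.hμ
  have hμb := N.hμb
  have hRm := rma_bo bar
  have hga := ga_bo bar
  have hCκ : 0 ≤ Cn δ R * κ1 := mul_nonneg (Cn_nonneg N.hδ N.hR) N.hκ.le
  refine dich_cutR (Nr := NrC Om Φ f X ρ3 d) (l := 3 * μ / 16 + Cn δ R * κ1) (l1 := μ / 16)
    (by linarith) (by linarith) ?_ (by linarith) ?_ ?_ ?_ ?_ ?_
  · linarith [N.ex1]
  · -- the points near the cores
    rintro w ⟨hwO, c, hc⟩ hw hG p hp hwp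
    have hn' : NrC Om Φ f X ρ3 d c.1 w := ⟨c.2, hwO, hc⟩
    obtain ⟨k1, k2⟩ := tile_near hLa hC n hn hRm hn' hwp hp
    exact ⟨k2, c, hn', Dch_847.lev_zero hLa H (hC.tiny c.1 c.2) (hRm c.1 c.2) k1
      (fun h => k2 ⟨c.1, h⟩) (sla_sub (slC hLa hC n hn) p hwp)⟩
  · -- old or new
    intro w hw p hp hwp
    rcases cases3 (hKK := (Lay_316.lay_sla hLa hC n hn).core) D3 hw hwp hp with h | ⟨h0, b, h1, m, h2,
      h3, h4, -⟩
    · exact Or.inl h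
    · exact Or.inr ⟨h0, b, h1, m, h2, h3, h4⟩
  · -- the window of the old points
    intro w hw j hl p hp hwp hK
    obtain ⟨x, hx, g1, g2⟩ := pos_m N D lo tt rec j w hw hl p hp hwp hK
    exact ⟨x, hx, by linarith [N.ex1, N.hκ], by linarith [N.ex1, N.hκ]⟩
  · -- the barrier points
    rintro b hb m hbl p hp hbp hK ⟨w', hw', hwO, c, hc⟩ hwin
    obtain ⟨x, hx, hx2⟩ := box_m N hRm D lo tt rec hga m hb hbl hbp
    refine ⟨⟨x, hx, fun e => hx2.2 e⟩, ?_⟩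
    have hr := hRm m.co m.co_notMem
    obtain ⟨b1, b2, b3, b4⟩ := rad_bar (fun c hc => (bar.rm c hc).2) m (bar.lv m)
    have hoscN := N.om2 (r := (3 * Cn δ R + 1) * κ1) (by nlinarith [N.cn0, N.hκ])
    obtain ⟨y, hy, hyF⟩ := Dch_847.far_s2 (co := fun m : BM Φ X => m.co) (am := BM.am)
      (Zm := BM.Zm) (N := Nb Φ hLa m.co) (l0 := μ / 8) (mm := 1 / 2) (ra := 1 / 2 - 5 * μ / 16)
      (hi := 1 + μ / 16) (z0 := 1 - μ / 64) (W := 5 * μ / 32) (α := 3 * μ / 8) (l1 := μ / 16)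
      (rF := ρ3 m.co + 12 * d m.co) N.hδ N.hR N.hκ N.cn1 H hRm D lo tt m m.co_notMem (mo_pq m)
      (fun c hc => (congrArg Subtype.val ((rec.nbm c m).1 hc)).symm) (fun e he => mem_Nb.2 he)
      (fun c hc x => by
        have h3 : m.co = c.1 := congrArg Subtype.val ((rec.nbm c m).1 hc)
        rw [rec.um c m x, h3]) N.nm (by linarith)
      (fun c hc => (rec.Am c m).ge) (by nlinarith) (by linarith) (by linarith)
      (fun c hc => by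
        have h3 : coT m = c := (rec.nbm c m).1 hc
        subst h3
        exact (Sde_422.g_v0 N hLa hC bar m).trans (by linarith)) (fun w hw hl => by
        obtain ⟨-, -, -, -, -, -, -, e4⟩ := bar.pos m w hw hl
        obtain ⟨g1, g2⟩ := bar.lev m w hw hl
        refine ⟨g1, ?_⟩
        rcases e4 with e4 | e4 | e4
        · left; linarith
        · right; left; linarith
        · right; right
          exact (bar.lv m).1.le.trans e4.ge)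
      (by nlinarith [N.ex1, N.hκ]) (by nlinarith [N.ex1, N.hκ]) (by nlinarith [N.ex1, N.hκ])
      (by linarith [N.ex1, N.hκ]) le_rfl hb hbl hbp
    rcases hyF with h | h | h | h
    · exact ⟨y, hy, h⟩
    · exact absurd (hwin y hy).1 (not_lt.2 h)
    · exact absurd (hwin y hy).2 (not_lt.2 h)
    · exfalso
      have hwt : w' ∈ P (T.H p.tile) := sla_sub (slC hLa hC n hn) p hw'
      have hV1 : p.tile ∈ V m.co := hr.v _ ⟨x, hx, le_trans hx2.1 hr.r34⟩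
      have hrc := hRm c.1 c.2
      have hV2 : p.tile ∈ V c.1 := hrc.v _ ⟨w', hwt, by linarith [hrc.r34, hrc.d0]⟩
      have e : c.1 = m.co := near_unique hC hV2 hV1
      rw [e] at hc
      have h4 := abs_le.1 (hr.osc _ hV1 (fun h => hK ⟨m.co, h⟩) y hy w' hwt).1
      have h5 : ρ3 m.co + 12 * d m.co ≤ ga Φ m.co (f y) := h
      linarith [h4.2, hr.d0]
  · -- the sides
    intro w hU hw j hl hG m ham hN0 hlev hwin hdv
    obtain ⟨q, hq, hqK⟩ := s2_tile hw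
    refine hlm m w (mem_W1K.2 ⟨(s2_dim hw).1, (s2_dim hw).2, fun c => s2_not_int hw c⟩) q hqK hq
      hN0.2.2 ?_
    have : Nonempty Φ.F := ⟨m.am⟩
    have h3 : Fm m.am m.Zm (fun e => Φ.lev e (f w)) ≤ μ / 32 := ciSup_le hdv
    have h4 : |Φ.lev m.am (f w) - 1 / 2| ≤ 1 / 2 - 3 * μ / 8 + κ1 :=
      abs_le.2 ⟨by linarith [hwin.1], by linarith [hwin.2]⟩
    refine max_le ?_ ?_
    · show Fm m.am m.Zm (fun e => Φ.lev e (f w)) / (μ / 8) ≤ 1 - μ / 16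
      rw [div_le_iff₀ N.l0]
      nlinarith
    · show |Φ.lev m.am (f w) - 1 / 2| / (1 / 2 - 5 * μ / 16) ≤ 1 - μ / 16
      rw [div_le_iff₀ N.ra0]
      nlinarith

end mach

end Crest.Agent.R096.Dchn_316
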