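import Crest.Agent.R096.Dcn1_635

/-!
Row 96 (S0127), NO0 for `p ≥ 3` (helper635), (Q1) of 899's #11058: **the dictionary with a second
map `φ₂`** (`φ = Γ⁻¹ Th Γ f` is built after the foam, the strips are chosen for `φ₂ = Γ⁻¹ th Γ f`).
-/

set_option autoImplicit false
set_option linter.unusedSectionVars false
set_option linter.unusedVariables false
open Set Filter Topology MeasureTheory
open scoped NNReal ENNReal

noncomputable section

namespace Crest.Agent.R096.Dcn2_635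

open Crest.Agent.R096.Brk1_582 Crest.Agent.R096.Brk2_582 Crest.Agent.R096.Brk3_582
open Crest.Agent.R096.Brk4_582 Crest.Agent.R096.Brk5_582
open Crest.Agent.R096.Bsp_628 Crest.Agent.R096.Log1_582 Crest.Agent.R096.Log2_582
open Crest.Agent.R096.Log3_582 Crest.Agent.R096.Dic1_582 Crest.Agent.R096.Dic2_582
open Crest.Agent.R096.Dic3_582 Crest.Agent.R096.Dic4_582 Crest.Agent.R096.Dic6_582
open Crest.Agent.R096.Dic7_582 Crest.Agent.R096.Npr_582 Crest.Agent.R096.Np_962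
open Crest.Agent.R096.Bxc1_635 Crest.Agent.R096.Dcn_635
open Crest.Agent.R96.Push_899 (EE co SE IE Box coreBF Mid Psi Pun Wall Foam0 FoamC Uni IsStretch
  Lands Hole foamBF foamHole toBox brk foam0_brk brk_asp countable_brk mem_SE_brk co_injective
  mem_co_image continuous_co uni_logA LaE co_image_LaE isOpen_LaE mkFoamD mkFoamD_Psi brk')
open Crest.Agent.R96.Acl_392 Crest.Agent.R96.Sob1_199 Crest.Agent.R96.Sob2_199
  Crest.Agent.R96.Sob3_199 Crest.Agent.R96.Sob4_199 Crest.Agent.R96.Sob5_199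
open Crest.Agent.R096.SkC1_961 (E3 Hom3 FoamD IsPush)
open Crest.Agent.R096.Er_594 (SH3)
open Crest.Agent.R96.En10_199 (P3)
open Crest.Agent.R096.Bxs_627 (ctr)

section dict

variable {E : Type*} [NormedAddCommGroup E] [NormedSpace ℝ E] [FiniteDimensional ℝ E]
  [MeasurableSpace E] [BorelSpace E] {μ : Measure E} [μ.IsAddHaarMeasure]
  {q : ℕ} {Λ K₀ : Set (EE (Fin 3))} {M s : ℝ} {a : Fin 3 → ℝ} {F : Set (Bx (Fin 3))}
  {S : EE (Fin 3) ≃ₜ EE (Fin 3)} {φ φ₂ : E → EE (Fin 3)} {Ω : Set E} {c₀ : ℝ}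

/-- **dictionary for the pushed map**, the strips of a second map -/
theorem dict_FF2 (h : Fr q Λ K₀ M s a F) (hM : 3 ≤ M) (hΛ : IsOpen Λ) (hΩ : IsOpen Ω)
    (hφ : ContinuousOn φ Ω) (hm : MapsTo φ Ω Λ)
    (hS : IsStretch 2 Λ s S) {X : Set E} (hXK : ∀ x ∈ Ω \ X, φ x ∈ K₀)
    (hφ₂ : ∀ x ∈ Ω \ X, ∀ i, |φ x i - φ₂ x i| ≤ s / 2) {B : F → Box (Fin 3)}
    {z : F → Fin 3 → ℝ} {κ ρ : F → ℝ}
    (hC : FoamC Λ (brk h.foam) (fun c => coreBF (brk h.foam c) (z c)) B ∅ c₀ κ ρ)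
    (hland : ∀ x ∈ Ω \ X, ∀ c, S (φ x) ∈ SE (brk h.foam c) →
      Lands 2 s (brk h.foam c) (φ x) (FF (brk h.foam) B z S φ x))
    {u : E} {D : E → EE (Fin 3)}
    (hD : VWD (OO Ω Λ B S φ) μ (FF (brk h.foam) B z S φ) D u) {g : F → E → ℝ}
    (hg : ∀ c, WD (OO Ω Λ B S φ) μ (fun x => s3 F c (FF (brk h.foam) B z S φ x)) (g c) u)
    {w : F → ℝ≥0∞} (hw : ∀ c : F, IsLog q a s c.1 → w c = ENNReal.ofReal (s / 2))
    (hw' : ∀ c : F, w c ≤ ENNReal.ofReal c.1.sz) (v : EE (Fin 3)) {p : ℝ} (hp : 1 ≤ p) :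
    ∫⁻ x in OO Ω Λ B S φ, (∑' c, w c * ‖g c x‖ₑ - (‖v 0‖ₑ + ‖v 1‖ₑ)) ^ p ∂μ ≤
      (2 ^ p + C0 p + C1 q p) * ∫⁻ x in OO Ω Λ B S φ, ‖D x - v‖ₑ ^ p ∂μ +
      (C0 p * (‖v‖ₑ ^ p * (μ.restrict Ω) (Strip q a s φ₂)) +
        C1 q p * (‖v‖ₑ ^ p * μ (Ω ∩ X))) := by
  have hs := h.s0
  have hOO : IsOpen (OO Ω Λ B S φ) := isOpen_OO hC hΛ hΩ hφ
  have hco : IsOpen (co '' Λ) := by
    have : co '' Λ = (WithLp.toLp 2 : (Fin 3 → ℝ) → EE (Fin 3)) ⁻¹' Λ := by
      ext y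
      constructor
      · rintro ⟨x, hx, rfl⟩; exact hx
      · intro hy; exact ⟨_, hy, rfl⟩
    rw [this]
    exact hΛ.preimage (PiLp.continuous_toLp 2 _)
  have hnear : ∀ x ∈ OO Ω Λ B S φ, x ∉ X → ∀ i, |FF (brk h.foam) B z S φ x i - φ₂ x i| ≤ s := by
    intro x hx hxX i
    have h1 := (lands_at h (by linarith) hm hS hXK hland ⟨hx.1, hxX⟩).2.2.2 i
    have h2 := hφ₂ x ⟨hx.1, hxX⟩ i
    calc |FF (brk h.foam) B z S φ x i - φ₂ x i|
        = |(FF (brk h.foam) B z S φ x i - φ x i) + (φ x i - φ₂ x i)| := by ring_nf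
      _ ≤ |FF (brk h.foam) B z S φ x i - φ x i| + |φ x i - φ₂ x i| := abs_add_le _ _
      _ ≤ s := by linarith
  have key := dict_energy (μ := μ) h.foam hco (dF_pos h.q1) (by norm_num : (0 : ℝ) < 6) h.cmp
    h.q1 hs h.logs (r' := s / 2) (by nlinarith) hOO hD (continuousOn_FF hC hΛ hφ)
    (fun x hx => mem_co_image.2 (mapsTo_FF hC hx)) hg hw hw' v (X := X) (φ := φ₂)
    (fun x hx hxX => (lands_at h (by linarith) hm hS hXK hland ⟨hx.1, hxX⟩).2.1)
    (fun x hx hxX => (lands_at h (by linarith) hm hS hXK hland ⟨hx.1, hxX⟩).2.2.1)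
    (fun x hx hxX => ⟨hnear x hx hxX 0, hnear x hx hxX 1⟩) hp
  refine key.trans (add_le_add le_rfl (add_le_add ?_ ?_))
  · refine mul_le_mul' le_rfl (mul_le_mul' le_rfl ?_)
    calc μ (OO Ω Λ B S φ ∩ Strip q a s φ₂) ≤ μ (Strip q a s φ₂ ∩ Ω) :=
          measure_mono fun x hx => ⟨hx.2, hx.1.1⟩
      _ ≤ _ := Measure.le_restrict_apply _ _
  · unfold C1
    gcongr
    exact fun x hx => hx.1

end dict

/-- **DICTIONARY, `p ≥ 3`**: `FrontC` from the data of the push; the strips are those of a second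
map `φ₂` with `|φ - φ₂| ≤ h / 2` off the bad set. -/
theorem frontC_of2 {p : ℝ} (hp : 1 ≤ p) {q : ℕ} {s : Fin 3 → ℝ} (hs : ∀ i, 0 ≤ s i) (hs2 : s 2 = 0)
    {ε ε' d : ℝ≥0∞} (hqε : 6 / (q : ℝ≥0∞) ≤ ε) (hdε : d ≤ ε')
    (hd1 : C1 q p * (d + Vs p s * d) ≤ ε')
    (hcon : (2 ^ p + C0 p + C1 q p) * d + (C0 p * (Vs p s * (6 / (q : ℝ≥0∞))) +
      C1 q p * (Vs p s * d)) ≤ ε)
    {Om La : Set E3} (hOm : IsOpen Om) (hLa : IsOpen La) {K₀ : Set (EE (Fin 3))}
    (hK : IsCompact K₀) (hKΛ : K₀ ⊆ LaE La) {M h : ℝ} {a : Fin 3 → ℝ} {F : Set (Bx (Fin 3))}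
    (hF : Fr q (LaE La) K₀ M h a F) (hM : 3 ≤ M) (lam : F → ℝ) (hl : ∀ c, 0 < lam c)
    (hl4 : ∀ c, lam c ≤ 1 / 4)
    {φ : E3 → EE (Fin 3)} (hφc : ContinuousOn φ Om) (hφm : MapsTo φ Om (LaE La))
    (hφw : ∀ l : Fin 3, ∃ D : E3 → EE (Fin 3), VWD Om volume φ D (Pi.single l 1))
    {S : EE (Fin 3) ≃ₜ EE (Fin 3)} (hS : IsStretch 2 (LaE La) h S)
    (homeo : Hom3 (fun x => co (S (φ x))) Om La)
    {X : Set E3} (hXO : X ⊆ Om) (hXm : MeasurableSet X) (hXv : volume X ≤ d * volume Om)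
    (hXK : ∀ x ∈ Om \ X, φ x ∈ K₀)
    (hXh : ∀ x ∈ Om, ∀ c, co (S (φ x)) ∈ (holeN (bfOf hF) lam hl c).S → x ∈ X)
    (hland : ∀ x ∈ Om \ X, ∀ c, S (φ x) ∈ SE (brk' (bfOf hF) c) → Lands 2 h (brk' (bfOf hF) c) (φ x)
      (Psi (brk' (bfOf hF)) (coreN (bfOf hF)) (holeN (bfOf hF) lam hl) (S (φ x))))
    {φ₂ : E3 → EE (Fin 3)} (hφ₂ : ∀ x ∈ Om \ X, ∀ i, |φ x i - φ₂ x i| ≤ h / 2)
    (hstrip : (volume.restrict Om) (Strip q a h φ₂) ≤ 6 / (q : ℝ≥0∞) * volume Om)
    (hE : ∀ D' : Fin 3 → E3 → EE (Fin 3),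
      (∀ l, VWD (Om ∩ (fun x => S (φ x)) ⁻¹' (Pun (LaE La) (holeN (bfOf hF) lam hl))) volume
        (fun x => Psi (brk' (bfOf hF)) (coreN (bfOf hF)) (holeN (bfOf hF) lam hl) (S (φ x)))
        (D' l) (Pi.single l 1)) →
      ∫⁻ x in Om ∩ (fun x => S (φ x)) ⁻¹' (Pun (LaE La) (holeN (bfOf hF) lam hl)),
        ∑ l : Fin 3, ‖D' l x - EuclideanSpace.single l (s l)‖ₑ ^ p ≤ d * volume Om) :
    ∃ (HH : Set E3) (g : F → Fin 3 → E3 → ℝ),
      FrontC p q s ε ε' Om La M h a (ΦN (bfOf hF) hF.cmp lam hl hl4) (fun x => co (S (φ x))) X HH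
        g := by
  have hh := hF.s0
  have hLE : IsOpen (LaE La) := isOpen_LaE hLa
  set z : F → Fin 3 → ℝ := fun c => ctr c.1 with hz
  set B : F → Box (Fin 3) := holeN (bfOf hF) lam hl with hB
  set v : Fin 3 → EE (Fin 3) := fun l => EuclideanSpace.single l (s l) with hv
  have hC : FoamC (LaE La) (brk hF.foam) (fun c => coreBF (brk hF.foam c) (z c)) B ∅ (cN q)
      (fun _ => 0) (fun c => Crest.Agent.R96.Push_899.side (brk hF.foam c)) :=
    foamN (bfOf hF) (kF_one q) (cN_pos q) (cN_le q) lam hl hl4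
  have hOO : IsOpen (OO Om (LaE La) B S φ) := isOpen_OO hC hLE hOm hφc
  set f1 : E3 → E3 := fun x => co (S (φ x)) with hf1d
  have hland' : ∀ x ∈ Om \ X, ∀ c, S (φ x) ∈ SE (brk hF.foam c) →
      Lands 2 h (brk hF.foam c) (φ x) (FF (brk hF.foam) B z S φ x) := hland
  have hSm : ∀ x ∈ Om, S (φ x) ∈ LaE La := fun x hx => (stretch_mem hS).2 (hφm hx)
  have hOp : Op (ΦN (bfOf hF) hF.cmp lam hl hl4) Om f1 = OO Om (LaE La) B S φ := by
    ext x
    constructor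
    · rintro ⟨h1, h2⟩
      refine ⟨h1, hSm x h1, ?_⟩
      rw [mem_iUnion]
      rintro ⟨c, hc⟩
      exact h2 c hc
    · rintro ⟨h1, h2, h3⟩
      refine ⟨h1, fun c hc => h3 ?_⟩
      rw [mem_iUnion]
      exact ⟨c, hc⟩
  have hPsi : ∀ x ∈ Om, (ΦN (bfOf hF) hF.cmp lam hl hl4).Psi (f1 x) =
      co (FF (brk hF.foam) B z S φ x) := fun x hx =>
    fN_Psi (bfOf hF) hF.cmp (kF_one q) (cN_pos q) (cN_le q) lam hl hl4 (hSm x hx)
  have hlev : ∀ x ∈ Om, ∀ c : F, (ΦN (bfOf hF) hF.cmp lam hl hl4).lev c (f1 x) =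
      s3 F c (FF (brk hF.foam) B z S φ x) := by
    intro x hx c
    unfold FoamD.lev
    rw [hPsi x hx]
    rfl
  -- weak derivatives
  have hex : ∀ l : Fin 3, ∃ D', VWD (OO Om (LaE La) B S φ) volume
      (FF (brk hF.foam) B z S φ) D' (Pi.single l 1) := fun l => by
    obtain ⟨D, hD⟩ := hφw l
    exact exists_vwd_FF hF hLE hOm hφc hS hC hD
  choose D' hD' using hex
  have hexg : ∀ l : Fin 3, ∃ g : F → E3 → ℝ, ∀ c,
      WD (OO Om (LaE La) B S φ) volume
        (fun x => s3 F c (FF (brk hF.foam) B z S φ x)) (g c)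
          (Pi.single l 1) := fun l => exists_wd_s3 hF hLE hOm hφc hC (hD' l)
  choose g0 hg0 using hexg
  have hexm : ∀ (c : F) (l : Fin 3), ∃ g' : E3 → ℝ, Measurable g' ∧
      WD (OO Om (LaE La) B S φ) volume
        (fun x => s3 F c (FF (brk hF.foam) B z S φ x)) g'
          (Pi.single l 1) := fun c l => exists_measurable_wd hOO (hg0 l c)
  choose g hgm hg using hexm
  have hEn : ∫⁻ x in OO Om (LaE La) B S φ, ∑ l : Fin 3, ‖D' l x - v l‖ₑ ^ p ≤ d * volume Om :=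
    hE D' hD'
  have hsl : ∀ l : Fin 3, ‖v l 0‖ₑ + ‖v l 1‖ₑ = ENNReal.ofReal (s l) := by
    intro l
    fin_cases l
    · simp [hv, ← ofReal_norm, abs_of_nonneg (hs 0)]
    · simp [hv, ← ofReal_norm, abs_of_nonneg (hs 1)]
    · simp [hv, hs2]
  have e1 : ∀ l : Fin 3, ∫⁻ x in OO Om (LaE La) B S φ, ‖D' l x - v l‖ₑ ^ p ≤ d * volume Om := by
    intro l
    refine le_trans (lintegral_mono fun x => ?_) hEn
    exact Finset.single_le_sum (f := fun l => ‖D' l x - v l‖ₑ ^ p) (fun _ _ => zero_le)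
      (Finset.mem_univ l)
  have e2 : ∀ l : Fin 3, ‖v l‖ₑ ^ p ≤ Vs p s := fun l =>
    Finset.single_le_sum (f := fun l => ‖v l‖ₑ ^ p) (fun _ _ => zero_le) (Finset.mem_univ l)
  have e3 : volume (Om ∩ X) ≤ d * volume Om := (measure_mono inter_subset_right).trans hXv
  have hXin : ∀ x ∈ Om \ X, x ∈ OO Om (LaE La) B S φ := by
    rintro x ⟨hx, hxX⟩
    refine ⟨hx, hSm x hx, ?_⟩
    rw [mem_iUnion]
    rintro ⟨c, hc⟩
    exact hxX (hXh x hx c hc)
  refine ⟨OO Om (LaE La) B S φ ∩ {x | ∀ᶠ x' in 𝓝 x,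
      HW F q a h (co (FF (brk hF.foam) B z S φ x'))}, g, ?_⟩
  exact
    { q1 := hF.q1
      h0 := hh
      fr := ⟨K₀, hK, hKΛ, hF⟩
      homeo := homeo
      op := by rw [hOp]; exact hOO
      XO := hXO
      Xm := hXm
      Xv := hXv.trans (by gcongr)
      HHo := hOO.inter (isOpen_iff_mem_nhds.2 fun x hx => eventually_eventually_nhds.2 hx)
      HHs := by rw [hOp]; exact inter_subset_left
      HHX := fun x hx => ⟨hXin x hx,
        hor_eventually hF hM hLE hOm hφc hφm hS hXK hC hland' (hXin x hx) hx.2⟩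
      HHw := by
        intro x hx
        rw [hPsi x hx.1.1]
        exact hx.2.self_of_nhds
      Qv := by
        have h1 : {x | x ∈ Om ∧ ¬ (x ∈ OO Om (LaE La) B S φ ∩ {x | ∀ᶠ x' in 𝓝 x,
              HW F q a h (co (FF (brk hF.foam) B z S φ x'))} ∧
            QW (ΦN (bfOf hF) hF.cmp lam hl hl4).F q a h
              ((ΦN (bfOf hF) hF.cmp lam hl hl4).Psi (f1 x)))} ⊆
            (Strip q a h φ₂ ∩ Om) ∪ X := by
          rintro x ⟨hx, hn⟩
          by_cases hX : x ∈ X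
          · exact Or.inr hX
          by_cases hst : x ∈ Strip q a h φ₂
          · exact Or.inl ⟨hst, hx⟩
          exfalso
          apply hn
          refine ⟨⟨hXin x ⟨hx, hX⟩,
            hor_eventually hF hM hLE hOm hφc hφm hS hXK hC hland' (hXin x ⟨hx, hX⟩) hX⟩, ?_⟩
          rw [hPsi x hx]
          obtain ⟨-, l2, ⟨n, l3⟩, l4⟩ := lands_at hF (by linarith) hφm hS hXK hland' ⟨hx, hX⟩
          have hY : ¬ NearMul q ⌊(φ₂ x 0 - a 0) / h⌋ ∧ ¬ NearMul q ⌊(φ₂ x 1 - a 1) / h⌋ :=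
            not_or.1 hst
          have l5 : ∀ i, |FF (brk hF.foam) B z S φ x i - φ₂ x i| ≤ h := by
            intro i
            have h1 := l4 i
            have h2 := hφ₂ x ⟨hx, hX⟩ i
            calc |FF (brk hF.foam) B z S φ x i - φ₂ x i|
                = |(FF (brk hF.foam) B z S φ x i - φ x i) + (φ x i - φ₂ x i)| := by ring_nf
              _ ≤ |FF (brk hF.foam) B z S φ x i - φ x i| + |φ x i - φ₂ x i| := abs_add_le _ _
              _ ≤ h := by linarith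
          have e1 : ∀ s t b : ℝ, |s - t| ≤ h → |⌊(s - b) / h⌋ - ⌊(t - b) / h⌋| ≤ 1 := by
            intro s t b hst
            apply abs_floor_sub_le
            have : (s - b) / h - (t - b) / h = (s - t) / h := by ring
            rw [this, abs_div, abs_of_pos hh, div_le_one hh]
            linarith
          exact gsq_near hF.q1 hh hF.logs (r' := h / 2) (by nlinarith) l2 l3
            (not_dvd_of hY.1 (e1 _ _ _ (l5 0))) (not_dvd_of hY.2 (e1 _ _ _ (l5 1)))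
        calc _ ≤ volume ((Strip q a h φ₂ ∩ Om) ∪ X) := measure_mono h1
          _ ≤ volume (Strip q a h φ₂ ∩ Om) + volume X := measure_union_le _ _
          _ ≤ (volume.restrict Om) (Strip q a h φ₂) + ε' * volume Om :=
            add_le_add (Measure.le_restrict_apply _ _) (hXv.trans (by gcongr))
          _ ≤ ε * volume Om + ε' * volume Om :=
            add_le_add (hstrip.trans (by gcongr)) le_rfl
          _ = (ε + ε') * volume Om := by ring
      gm := hgm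
      wd := by
        intro c l
        rw [hOp]
        refine wd_congr hOO (hg c l) (Eventually.of_forall fun x hx => ?_)
          (Eventually.of_forall fun _ _ => rfl)
        exact (hlev x hx.1 c).symm
      eW := by
        intro l w hw hw'
        rw [hOp]
        have key := dict_FF2 (μ := volume) hF hM hLE hOm hφc hφm hS hXK hφ₂ hC hland' (hD' l)
          (fun c => hg c l) hw hw' (v l) hp
        rw [hsl l] at key
        refine key.trans ?_
        calc _ ≤ (2 ^ p + C0 p + C1 q p) * (d * volume Om) +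
              (C0 p * (Vs p s * (6 / q * volume Om)) + C1 q p * (Vs p s * (d * volume Om))) :=
              add_le_add (mul_le_mul' le_rfl (e1 l)) (add_le_add
                (mul_le_mul' le_rfl (mul_le_mul' (e2 l) hstrip))
                (mul_le_mul' le_rfl (mul_le_mul' (e2 l) e3)))
          _ = ((2 ^ p + C0 p + C1 q p) * d + (C0 p * (Vs p s * (6 / q)) +
              C1 q p * (Vs p s * d))) * volume Om := by ring
          _ ≤ ε * volume Om := by gcongr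
      eX := by
        intro l w hw hw'
        rw [hOp]
        have key := dict_X (μ := volume) hF hLE hOm hφc hXm hC (hD' l) (fun c => hg c l) hw' (v l) hp
        refine key.trans ?_
        calc C1 q p * ((∫⁻ x in OO Om (LaE La) B S φ, ‖D' l x - v l‖ₑ ^ p) +
              ‖v l‖ₑ ^ p * volume X) ≤
            C1 q p * (d * volume Om + Vs p s * (d * volume Om)) := by
              refine mul_le_mul' le_rfl (add_le_add (e1 l) (mul_le_mul' (e2 l) hXv))
          _ = C1 q p * (d + Vs p s * d) * volume Om := by ring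
          _ ≤ ε' * volume Om := by gcongr }

end Crest.Agent.R096.Dcn2_635
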