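import Crest.Agent.R096.Dcn2_635
import Crest.Agent.R096.Shl1_798
import Crest.Agent.R096.ThC6_766
import Crest.Agent.R96.PnU1_849

/-!
Row 96 (S0127), NO0 for `p ≥ 3` (helper635): small lemmas for `exists_front3` (899, [U4]).
(a) the preimage of the hole lies in the core (`hXh_of`), monotonicity of `ExIn` in `κ1`;
(b) `f1 = co ∘ S ∘ Γ⁻¹ ∘ Th ∘ Γ ∘ P3 ∘ f`: homeomorphism, `near`, `nb`;
(c) the hypotheses `hφc`, `hφm`, `hφw` of `frontC_of2` from `SH3 p Om La f1 D1`.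
-/

set_option autoImplicit false
set_option linter.unusedSectionVars false
set_option linter.unusedVariables false
open Set Filter Topology MeasureTheory
open scoped NNReal ENNReal

noncomputable section

namespace Crest.Agent.R096.Dcn3_635

open Crest.Agent.R096.Brk5_582 Crest.Agent.R096.Bsp_628 Crest.Agent.R096.Dic2_582
open Crest.Agent.R096.Bxc1_635
open Crest.Agent.R96.Push_899 (EE co Box IsStretch LaE continuous_co)
open Crest.Agent.R96.PnU_849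
open Crest.Agent.R96.Acl_392 Crest.Agent.R96.Sob1_199 Crest.Agent.R96.Sob2_199
  Crest.Agent.R96.Sob3_199 Crest.Agent.R96.Sob4_199 Crest.Agent.R96.Sob5_199
open Crest.Agent.R096.SkC1_961 (E3 Hom3)
open Crest.Agent.R096.Er_594 (SH3)
open Crest.Agent.R96.En10_199 (P3)
open Crest.Agent.R096.Bxs_627 (ctr)
open Crest.Agent.R096.EaX_766 (cbx lin RatA ExIn)

/-! ### (a) exact cores -/

theorem exIn_mono {p : ℝ} {Om : Set E3} {f : E3 → E3} {D : E3 → E3 →L[ℝ] E3} {o : E3}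
    {u κ1 κ1' κ2 : ℝ} {Q : Bx (Fin 3)} {A : E3 ≃ᵃ[ℝ] E3} {lam : ℝ} (hl : 0 ≤ lam) (hs : 0 ≤ Q.sz)
    (hκ : κ1 ≤ κ1') (h : ExIn p Om f D o u κ1 κ2 Q A lam) : ExIn p Om f D o u κ1' κ2 Q A lam where
  rat := h.rat
  cor := fun x hx => by
    obtain ⟨h1, h2⟩ := h.cor x hx
    exact ⟨h1, h2.trans (mul_le_mul_of_nonneg_right hκ (mul_nonneg hl hs))⟩
  lp := h.lp.trans (ENNReal.ofReal_le_ofReal
    (mul_le_mul_of_nonneg_right hκ (pow_nonneg (mul_nonneg hl hs) 3)))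

/-- **the hypothesis `hXh` of `frontC_of`**: the preimage of the hole lies in the enlarged core. -/
theorem hXh_of {p : ℝ} {Om La : Set E3} {F : Set (Bx (Fin 3))} {δ κ0 : ℝ}
    (bf : BoxFoam La F δ κ0) (lam : F → ℝ) (hl : ∀ c, 0 < lam c) {f1 : E3 → E3}
    {D1 : E3 → E3 →L[ℝ] E3} {o : E3} {u κ1 κ2 : ℝ} {A : F → E3 ≃ᵃ[ℝ] E3} (h2 : 0 ≤ κ2)
    (h1 : 0 ≤ κ1) (hκ : κ1 * κ0 ≤ 1 / 4)
    (hex : ∀ c : F, ExIn p Om f1 D1 o u κ1 κ2 c.1 (A c) (lam c)) {X : Set E3}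
    (hXN : ∀ c : F, A c ⁻¹' cbx c.1 ((1 + 2 * κ2) * lam c) ⊆ X) :
    ∀ x ∈ Om, ∀ c, f1 x ∈ (holeN bf lam hl c).S → x ∈ X := by
  intro x hx c hc
  apply hXN c
  have hp := bf.pos _ c.2
  have hlc := hl c
  have hb : ∀ k, |f1 x k - ctr c.1 k| ≤ lam c / 2 * (c.1.side k / 2) := by
    intro k
    have h3 := hc k
    have e1 : (holeN bf lam hl c).lo k = ctr c.1 k - lam c / 2 * (c.1.side k / 2) := by
      unfold holeN; rw [Bxs_627.cb_lo]; ring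
    have e2 : (holeN bf lam hl c).hi k = ctr c.1 k + lam c / 2 * (c.1.side k / 2) := by
      unfold holeN; rw [Bxs_627.cb_hi]; ring
    rw [e1, e2] at h3
    rw [abs_le]
    constructor <;> linarith [h3.1, h3.2]
  have hin : f1 x ∈ cbx c.1 (lam c) := by
    intro k
    refine (hb k).trans ?_
    have := mul_pos hlc (Bx.side_pos hp k)
    nlinarith
  obtain ⟨-, h4⟩ := (hex c).cor x (Or.inl ⟨hx, hin⟩)
  intro k
  have hs := Bx.side_pos hp k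
  have h5 : |A c x k - f1 x k| ≤ κ1 * (lam c * c.1.sz) := by
    have := norm_le_pi_norm (f1 x - A c x) k
    rw [Pi.sub_apply, Real.norm_eq_abs, abs_sub_comm] at this
    exact this.trans h4
  have h6 : κ1 * (lam c * c.1.sz) ≤ 1 / 4 * (lam c * c.1.side k) := by
    have h7 := bf.asp _ c.2 k
    calc κ1 * (lam c * c.1.sz) ≤ κ1 * (lam c * (κ0 * c.1.side k)) := by gcongr
      _ = κ1 * κ0 * (lam c * c.1.side k) := by ring
      _ ≤ 1 / 4 * (lam c * c.1.side k) := by gcongr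
  calc |A c x k - ctr c.1 k| = |(A c x k - f1 x k) + (f1 x k - ctr c.1 k)| := by ring_nf
    _ ≤ |A c x k - f1 x k| + |f1 x k - ctr c.1 k| := abs_add_le _ _
    _ ≤ 1 / 4 * (lam c * c.1.side k) + lam c / 2 * (c.1.side k / 2) :=
      add_le_add (h5.trans h6) (hb k)
    _ = lam c * c.1.side k / 2 := by ring
    _ ≤ (1 + 2 * κ2) * lam c * c.1.side k / 2 := by
      have : 0 ≤ κ2 * (lam c * c.1.side k) := by positivity
      nlinarith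

/-! ### (b) the map `f1` -/

/-- the homeomorphism `S ∘ Γ⁻¹ ∘ Th ∘ Γ` -/
def HH1 (G : ℝ) (hG : 1 ≤ G) (Th S : EE (Fin 3) ≃ₜ EE (Fin 3)) : EE (Fin 3) ≃ₜ EE (Fin 3) :=
  (((GmL 2 G (by positivity)).toHomeomorph.trans Th).trans
    (GmL 2 G (by positivity)).symm.toHomeomorph).trans S

theorem HH1_apply {G : ℝ} (hG : 1 ≤ G) (Th S : EE (Fin 3) ≃ₜ EE (Fin 3)) (y : EE (Fin 3)) :
    HH1 G hG Th S y = S (Gm 2 G⁻¹ (Th (Gm 2 G y))) := rfl

theorem Gm_inv_Gm {G : ℝ} (hG : 1 ≤ G) (y : EE (Fin 3)) : Gm 2 G⁻¹ (Gm 2 G y) = y :=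
  Gm_Gm (inv_mul_cancel₀ (by positivity)) y

theorem Gm_Gm_inv {G : ℝ} (hG : 1 ≤ G) (y : EE (Fin 3)) : Gm 2 G (Gm 2 G⁻¹ y) = y :=
  Gm_Gm (mul_inv_cancel₀ (by positivity)) y

theorem Gm_mem {G : ℝ} (hG : 1 ≤ G) {Λ : Set (EE (Fin 3))} {y : EE (Fin 3)} :
    Gm 2 G y ∈ Gm 2 G '' Λ ↔ y ∈ Λ := by
  constructor
  · rintro ⟨z, hz, he⟩
    have : z = y := by rw [← Gm_inv_Gm hG z, he, Gm_inv_Gm hG]
    rwa [← this]
  · exact fun h => ⟨y, h, rfl⟩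

theorem Gm_inv_mem {G : ℝ} (hG : 1 ≤ G) {Λ : Set (EE (Fin 3))} {y : EE (Fin 3)} :
    Gm 2 G⁻¹ y ∈ Λ ↔ y ∈ Gm 2 G '' Λ := by
  rw [← Gm_mem hG (Λ := Λ), Gm_Gm_inv hG]

variable {Om La : Set E3} {f : E3 → E3} {G h : ℝ} {Th S : EE (Fin 3) ≃ₜ EE (Fin 3)}

theorem HH1_mem (hG : 1 ≤ G) (hTh : ∀ y, Th y ∈ Gm 2 G '' LaE La ↔ y ∈ Gm 2 G '' LaE La)
    (hS : IsStretch 2 (LaE La) h S) (y : EE (Fin 3)) :
    HH1 G hG Th S y ∈ LaE La ↔ y ∈ LaE La := by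
  rw [HH1_apply, Dic6_582.stretch_mem hS, Gm_inv_mem hG, hTh, Gm_mem hG]

/-- **`f1` is a homeomorphism** -/
theorem hom3_f1 (hf : Hom3 f Om La) (hG : 1 ≤ G)
    (hTh : ∀ y, Th y ∈ Gm 2 G '' LaE La ↔ y ∈ Gm 2 G '' LaE La)
    (hS : IsStretch 2 (LaE La) h S) :
    Hom3 (fun x => co (S (Gm 2 G⁻¹ (Th (Gm 2 G (P3 (f x))))))) Om La :=
  Shl_798.hom3_comp hf (S := HH1 G hG Th S) (HH1_mem hG hTh hS)

theorem tilde_near (hG : 1 ≤ G) {y : EE (Fin 3)} {t : ℝ} (ht : ‖Th (Gm 2 G y) - Gm 2 G y‖ ≤ t) :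
    ‖Gm 2 G⁻¹ (Th (Gm 2 G y)) - y‖ ≤ t := by
  calc ‖Gm 2 G⁻¹ (Th (Gm 2 G y)) - y‖
      = ‖Gm 2 G⁻¹ (Th (Gm 2 G y)) - Gm 2 G⁻¹ (Gm 2 G y)‖ := by rw [Gm_inv_Gm hG]
    _ = ‖Gm 2 G⁻¹ (Th (Gm 2 G y) - Gm 2 G y)‖ := by rw [Gm_sub]
    _ ≤ ‖Th (Gm 2 G y) - Gm 2 G y‖ := norm_Gm_inv_le hG _
    _ ≤ t := ht

/-- **clause `near`** -/
theorem near_f1 (hG : 1 ≤ G) {t : ℝ} (ht : ∀ y, ‖Th y - y‖ ≤ t) (hS : IsStretch 2 (LaE La) h S)
    (x : E3) : ‖co (S (Gm 2 G⁻¹ (Th (Gm 2 G (P3 (f x)))))) - f x‖ ≤ h + t := by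
  have e : f x = co (P3 (f x)) := rfl
  set y : EE (Fin 3) := Gm 2 G⁻¹ (Th (Gm 2 G (P3 (f x)))) with hy
  calc ‖co (S y) - f x‖ = ‖co (S y) - co (P3 (f x))‖ := by rw [← e]
    _ ≤ ‖S y - P3 (f x)‖ := norm_ofLp_sub_le _ _
    _ = ‖(S y - y) + (y - P3 (f x))‖ := by congr 1; abel
    _ ≤ ‖S y - y‖ + ‖y - P3 (f x)‖ := norm_add_le _ _
    _ ≤ h + t := add_le_add (hS.near y) (tilde_near hG (ht _))

theorem infDist_co (hLa : (Laᶜ).Nonempty) (y : E3) :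
    Metric.infDist (P3 y : EE (Fin 3)) (LaE La)ᶜ ≤ 2 * Metric.infDist y Laᶜ := by
  have hne : ((LaE La)ᶜ).Nonempty := by
    obtain ⟨z, hz⟩ := hLa
    exact ⟨P3 z, fun h => hz h⟩
  rw [← div_le_iff₀' (by norm_num : (0 : ℝ) < 2)]
  rw [Metric.le_infDist hLa]
  intro z hz
  rw [div_le_iff₀' (by norm_num : (0 : ℝ) < 2)]
  have h1 : Metric.infDist (P3 y : EE (Fin 3)) (LaE La)ᶜ ≤ dist (P3 y : EE (Fin 3)) (P3 z) :=
    Metric.infDist_le_dist_of_mem (fun h => hz h)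
  refine h1.trans ?_
  rw [dist_eq_norm, dist_eq_norm, ← map_sub, EuclideanSpace.norm_eq]
  apply Real.sqrt_le_iff.2
  refine ⟨by positivity, ?_⟩
  have h2 : ∀ i : Fin 3, ‖(P3 (y - z) : EE (Fin 3)) i‖ ^ 2 ≤ ‖y - z‖ ^ 2 := fun i =>
    pow_le_pow_left₀ (norm_nonneg _) (norm_le_pi_norm (y - z) i) 2
  have h3 : ∑ i : Fin 3, ‖(P3 (y - z) : EE (Fin 3)) i‖ ^ 2 ≤ ∑ i : Fin 3, ‖y - z‖ ^ 2 :=
    Finset.sum_le_sum fun i _ => h2 i
  rw [Finset.sum_const, Finset.card_univ, Fintype.card_fin, nsmul_eq_mul] at h3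
  push_cast at h3
  nlinarith [sq_nonneg ‖y - z‖]

/-- a scale function of `ΓΛ` is at most `G / 8` times the distance to the complement of `Λ` -/
theorem scale_le (hG : 1 ≤ G) {Λ : Set (EE (Fin 3))} (hne : (Λᶜ).Nonempty) {w : EE (Fin 3) → ℝ}
    (hw : ThC6_766.Scale (Gm 2 G '' Λ) w) (y : EE (Fin 3)) :
    w (Gm 2 G y) ≤ G / 8 * Metric.infDist y Λᶜ := by
  have hG0 : 0 < G := by positivity
  rw [← div_le_iff₀' (by positivity), Metric.le_infDist hne]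
  intro z hz
  rw [div_le_iff₀' (by positivity)]
  have h1 := hw.lip (Gm 2 G y) (Gm 2 G z)
  have h2 : w (Gm 2 G z) = 0 := hw.off _ (fun h => hz ((Gm_mem hG).1 h))
  rw [h2, Gm_sub] at h1
  have h3 := norm_Gm_le (k := 2) hG (y - z)
  rw [dist_eq_norm]
  linarith

/-- **clause `nb`** -/
theorem nb_f1 (hLa : IsOpen La) (hLac : (Laᶜ).Nonempty) (hG : 1 ≤ G) {w : EE (Fin 3) → ℝ} {Ct : ℝ}
    (hCt : 0 ≤ Ct) (hw : ThC6_766.Scale (Gm 2 G '' LaE La) w) (ht : ∀ y, ‖Th y - y‖ ≤ Ct * w y)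
    (h0 : 0 ≤ h) (hS : IsStretch 2 (LaE La) h S) :
    ∃ Cn : ℝ, 0 ≤ Cn ∧ ∀ x ∈ Om,
      ‖co (S (Gm 2 G⁻¹ (Th (Gm 2 G (P3 (f x)))))) - f x‖ ≤ Cn * Metric.infDist (f x) Laᶜ := by
  have hne : ((LaE La)ᶜ).Nonempty := by
    obtain ⟨z, hz⟩ := hLac
    exact ⟨P3 z, fun h => hz h⟩
  obtain ⟨K, hK, hKL, hKS⟩ := hS.supp
  -- the stretch
  obtain ⟨Cs, hCs, hCs2⟩ : ∃ Cs : ℝ, 0 ≤ Cs ∧ ∀ y, ‖S y - y‖ ≤ Cs * Metric.infDist y (LaE La)ᶜ := by
    rcases K.eq_empty_or_nonempty with hKe | hKn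
    · refine ⟨0, le_rfl, fun y => ?_⟩
      rw [hKS y (by rw [hKe]; exact notMem_empty y), sub_self, norm_zero, zero_mul]
    obtain ⟨y₀, hy₀, hmin⟩ := hK.exists_isMinOn hKn
      (Metric.continuous_infDist_pt (LaE La)ᶜ).continuousOn
    have hLE : IsOpen (LaE La) := Crest.Agent.R96.Push_899.isOpen_LaE hLa
    have hpos : 0 < Metric.infDist y₀ (LaE La)ᶜ := by
      rw [← hLE.isClosed_compl.notMem_iff_infDist_pos hne]
      exact fun h => h (hKL hy₀)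
    refine ⟨h / Metric.infDist y₀ (LaE La)ᶜ, by positivity, fun y => ?_⟩
    by_cases hy : y ∈ K
    · refine (hS.near y).trans ?_
      have h1 : Metric.infDist y₀ (LaE La)ᶜ ≤ Metric.infDist y (LaE La)ᶜ := hmin hy
      calc h = h / Metric.infDist y₀ (LaE La)ᶜ * Metric.infDist y₀ (LaE La)ᶜ := by field_simp
        _ ≤ _ := by gcongr
    · rw [hKS y hy, sub_self, norm_zero]
      exact mul_nonneg (by positivity) Metric.infDist_nonneg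
  refine ⟨(Cs * (1 + Ct * (G / 8)) + Ct * (G / 8)) * 2, by positivity, fun x _ => ?_⟩
  have e : f x = co (P3 (f x)) := rfl
  set y : EE (Fin 3) := Gm 2 G⁻¹ (Th (Gm 2 G (P3 (f x)))) with hy
  set d : ℝ := Metric.infDist (P3 (f x) : EE (Fin 3)) (LaE La)ᶜ with hd
  have hd0 : 0 ≤ d := Metric.infDist_nonneg
  have h1 : ‖y - P3 (f x)‖ ≤ Ct * (G / 8) * d := by
    refine tilde_near hG ((ht _).trans ?_)
    rw [mul_assoc]
    exact mul_le_mul_of_nonneg_left (scale_le hG hne hw _) hCt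
  have h2 : Metric.infDist y (LaE La)ᶜ ≤ (1 + Ct * (G / 8)) * d := by
    have h3 : Metric.infDist y (LaE La)ᶜ ≤ d + dist y (P3 (f x)) := Metric.infDist_le_infDist_add_dist
    rw [dist_eq_norm] at h3
    linarith
  calc ‖co (S y) - f x‖ = ‖co (S y) - co (P3 (f x))‖ := by rw [← e]
    _ ≤ ‖S y - P3 (f x)‖ := norm_ofLp_sub_le _ _
    _ = ‖(S y - y) + (y - P3 (f x))‖ := by congr 1; abel
    _ ≤ ‖S y - y‖ + ‖y - P3 (f x)‖ := norm_add_le _ _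
    _ ≤ Cs * ((1 + Ct * (G / 8)) * d) + Ct * (G / 8) * d := by
      refine add_le_add ((hCs2 y).trans (mul_le_mul_of_nonneg_left h2 hCs)) h1
    _ = (Cs * (1 + Ct * (G / 8)) + Ct * (G / 8)) * d := by ring
    _ ≤ (Cs * (1 + Ct * (G / 8)) + Ct * (G / 8)) * (2 * Metric.infDist (f x) Laᶜ) := by
      gcongr
      exact infDist_co hLac _
    _ = _ := by ring

/-! ### (c) the hypotheses on `φ` of `frontC_of` from `SH3` of `f1 = co ∘ S ∘ φ` -/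

theorem phi_data {p : ℝ} (hOm : IsOpen Om) {D1 : E3 → E3 →L[ℝ] E3} {φ : E3 → EE (Fin 3)}
    (hS : IsStretch 2 (LaE La) h S) (hsh : SH3 p Om La (fun x => co (S (φ x))) D1) :
    ContinuousOn φ Om ∧ MapsTo φ Om (LaE La) ∧
      ∀ l : Fin 3, ∃ D : E3 → EE (Fin 3), VWD Om volume φ D (Pi.single l 1) := by
  have e : ∀ x, S.symm (P3 ((fun x => co (S (φ x))) x)) = φ x := fun x => by
    have e1 : P3 ((fun x => co (S (φ x))) x) = S (φ x) := rfl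
    rw [e1, S.symm_apply_apply]
  have hc : ContinuousOn (fun x => co (S (φ x))) Om := by
    obtain ⟨_, _, _, _, _, h5, _⟩ := hsh.homeo
    exact h5
  have hm : MapsTo (fun x => co (S (φ x))) Om La := by
    obtain ⟨_, h1, _, _, _, _, _⟩ := hsh.homeo
    exact h1
  have hc' : ContinuousOn (fun x => P3 ((fun x => co (S (φ x))) x)) Om :=
    P3.continuous.comp_continuousOn hc
  refine ⟨?_, ?_, fun l => ?_⟩
  · refine (S.symm.continuous.comp_continuousOn hc').congr fun x _ => (e x).symm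
  · intro x hx
    have h1 : S (φ x) ∈ LaE La := hm hx
    exact (Dic6_582.stretch_mem hS).1 h1
  · obtain ⟨K, hK⟩ := hS.anti
    have hlip : LipschitzWith K S.symm := by
      have := hK.to_rightInverse (fun y => S.apply_symm_apply y)
      exact this
    obtain ⟨D', hD'⟩ := comp_exists hOm (hsh.vwd l) hc' (S := univ) (fun x _ => mem_univ _)
      (θ := S.symm) hlip.locallyLipschitz.locallyLipschitzOn
    refine ⟨D', ?_⟩
    have e2 : (fun x => S.symm (P3 ((fun x => co (S (φ x))) x))) = φ := funext e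
    rwa [e2] at hD'

end Crest.Agent.R096.Dcn3_635
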