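import Crest.Agent.R096.Dchn2_316
import Crest.Agent.R096.Dch4_847
import Crest.Agent.R096.Civ4_662
import Crest.Agent.R096.Sde4_422
import Crest.Agent.R096.Lbc2_334

/-! Row 96 (helper522), DOORS: 662's `Dich` in the machine with 316's sides `sdN` (piece 3 of #12234). -/

set_option autoImplicit false
set_option linter.unusedSectionVars false
set_option linter.unusedVariables false
set_option linter.style.longLine false

open Set Topology Filter Metric Module Relation MeasureTheory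
open scoped Classical

namespace Crest.Agent.R096.Dcs_522

open Crest.Agent.R096.Msh_715 Crest.Agent.R096.Coh_184 Crest.Agent.R096.Lab_184
  Crest.Agent.R096.Main_4 Crest.Agent.R096.Agl5_543
  Crest.Agent.R096.Seq_213 Crest.Agent.R096.St_147 Crest.Agent.R096.Door_501
  Crest.Agent.R096.Twr_438 Crest.Agent.R096.Exa_560
  Crest.Agent.R096.Ess3_95 Crest.Agent.R096.Ess4_95 Crest.Agent.R096.Ac_117 Crest.Agent.R096.Lm_117
  Crest.Agent.R096.Dfi_539 Crest.Agent.R096.Dfi_471 Crest.Agent.R096.Dfo_539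
  Crest.Agent.R096.Sla_184 Crest.Agent.R096.Gm_298
  Crest.Agent.R096.Brk1_582 Crest.Agent.R096.Brk2_582 Crest.Agent.R096.Brk3_582
  Crest.Agent.R096.Brk5_582 Crest.Agent.R096.Bsp_628 Crest.Agent.R096.Init_543
  Crest.Agent.R096.Lv3_471 Crest.Agent.R096.Lv4_471 Crest.Agent.R096.Slt_471
  Crest.Agent.R096.Dib_438 Crest.Agent.R096.Rop_441 Crest.Agent.R096.Frk_441
  Crest.Agent.R096.Dff_539 Crest.Agent.R096.Frs_662 Crest.Agent.R096.Qdl_662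
  Crest.Agent.R096.Cg_501 Crest.Agent.R096.SecW_892 Crest.Agent.R096.Sgd_298
  Crest.Agent.R096.Dfg_539 Crest.Agent.R096.Nmd1_698 Crest.Agent.R096.Civ_662
  Crest.Agent.R096.Lbc_334 Crest.Agent.R096.Bar_106 Crest.Agent.R096.Bgf_4
  Crest.Agent.R096.Dch_847
open Crest.Agent.R096.Sgo_298 (RmA rout ActR)
open Crest.Agent.R096.Mbf_337 (KJ Tiny Cores Fine sb gau Star Levels Words)
open Crest.Agent.R096.SkC1_961 (E3 FoamD Hom3)
open Crest.Agent.R096.Frn_337 (Ti)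
open Crest.Agent.R096.Ess7_95 (KT Sh)
open Crest.Agent.R096.Dia_316 (nbT)
open Crest.Agent.R096.Dfn_416 (BarS)
open Crest.Agent.R096.Bmf_416 (coT coT_fin)
open Crest.Agent.R096.Vin_527 (sdm)
open Crest.Agent.R096.Sde_422 (gR)
open Crest.Agent.R096.Gl_422 (GLab)
open Crest.Agent.R096.Gm_298 (ZK)
open Crest.Agent.R096.Dchn_316 (sdN OnZ dich_cutR)

variable {δ κ0 R c0 : ℝ} {La Om : Set E3} {ι : Type} {Φ : FoamD δ κ0 R c0 La} {T : Tiling Om ι}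
  {f g : E3 → E3} {κ1 κ2 μ : ℝ} {X : Set Φ.F} {J0 J V : Φ.F → Set ι}
  {ct ct' : Φ.F → ι} {A : Φ.F → E3 ≃ᵃ[ℝ] E3} {lam : Φ.F → ℝ} {z : Φ.F → E3}
  {θ : Φ.F → E3 → E3} {φ : Φ.F → E3 → ℝ} {r₀ : Φ.F → ℝ}
  {L : Φ.F → Finset ℝ} [Nonempty (JJ Φ L)] {hG : GF Φ r₀ T f L} {bp : JJ Φ L → E3}
  {N' : BM Φ X → Set ℝ} {ρ1 ρ2 ρ3 ρ4 d : Φ.F → ℝ} {q₀ : BM Φ X → E3} {ε : BM Φ X → ℝ}
  {bm : BM Φ X → E3} {hGB : GFB Φ r₀ T f L (lRc Φ X μ ρ1 ρ3 d) ε}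
  {v0F v1F : ∀ c, Φ.F → VxK T (KT T J X) c} {v0B v1B : ∀ c, BM Φ X → VxK T (KT T J X) c}
  {hLa : IsOpen La} {hC : Cores Φ T f κ1 κ2 X J0 J V ct A lam z θ φ}
  {n : Ti X → ℕ} {hn : ∀ c, 0 < n c} {r : JJ Φ L ⊕ BM Φ X → E3}
  {Sf : JJ Φ L ⊕ BM Φ X → Set E3}
  {Lv : ∀ c, Φ.F ⊕ BM Φ X → Lev T (frontier ((slC hLa hC n hn).K c)) (JJ Φ L ⊕ BM Φ X)}
  {Tw : Twrs ((slC hLa hC n hn).sh fr3) (slC hLa hC n hn).n
    (outK (slC hLa hC n hn).hH (slC hLa hC n hn).dis (stB hGB bp bm) r)}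
  {l0' : E3 → JJ Φ L ⊕ BM Φ X}

/-- the points near the tiny cores outside the remaining cores -/
theorem hU0_m (H : Hm f g Om La) (hRm : RmA Φ T f X J0 J V θ ρ1 ρ2 ρ3 ρ4 d)
    {w : E3} (hw : w ∈ UTm Om Φ f X ρ3 d) {p : T.RIdx (slC hLa hC n hn).HH}
    (hp : ∀ k, ¬ P ((slC hLa hC n hn).T3.H p) ⊆ (slC hLa hC n hn).KK k)
    (hwp : w ∈ P ((slC hLa hC n hn).T3.H p)) :
    p.tile ∉ KorJ Φ J0 ∧ ∃ c : Ti X, Φ.lev c.1 (f w) = 0 ∧ Ess5_95.ga Φ c.1 (f w) ≤ ρ3 c.1 + 8 * d c.1 := by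
  obtain ⟨hwO, c, hc⟩ := hw
  have hr := hRm c.1 c.2
  have hwt : w ∈ P (T.H p.tile) := Sla.P3_sub p hwp
  have hV : p.tile ∈ V c.1 := hr.v p.tile ⟨w, hwt, by linarith [hr.r34, hr.d0]⟩
  have hk := Bse_344.kor_s2 hLa hC n hn p hp ⟨c.1, c.2, hV⟩
  exact ⟨fun ⟨e, he⟩ => hk e he, c, lev_zero hLa H (hC.tiny c.1 c.2) hr hV (hk c.1) hwt, hc⟩

/-- the patch function near the axis -/
theorem gR_le (N : NumD δ κ0 R c0 κ2 μ κ1) (h1 : κ1 < μ / 32) (m : BM Φ X) {w : E3}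
    (ha : Φ.lev m.am (f w) ∈ Icc (3 * μ / 8 - κ1) (1 - 3 * μ / 8 + κ1))
    (hd : ∀ e, dv m.am m.Zm (fun e => Φ.lev e (f w)) e ≤ μ / 32) :
    gR Φ X μ m (Φ.Psi (f w)) ≤ 1 - μ / 16 := by
  have hμ := N.hμ
  have hμb := N.hμb
  have hra : (0 : ℝ) < 1 / 2 - 5 * μ / 16 := by linarith
  show max (Fm m.am m.Zm (fun e => Φ.lev e (f w)) / (μ / 8))
    (|Φ.lev m.am (f w) - 1 / 2| / (1 / 2 - 5 * μ / 16)) ≤ 1 - μ / 16
  refine max_le ?_ ?_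
  · rw [div_le_iff₀ N.l0]
    have h3 : Fm m.am m.Zm (fun e => Φ.lev e (f w)) ≤ μ / 32 := Fm_le hd
    nlinarith
  · rw [div_le_iff₀ hra, abs_le]
    constructor <;> nlinarith [ha.1, ha.2]

section s2

variable (N : NumD δ κ0 R c0 κ2 μ κ1) (H : Hm f g Om La)
  (bar : BarOut Φ T f κ1 μ X J0 J V θ hG bp N' ρ1 ρ2 ρ3 ρ4 d q₀ ε bm hGB v0B v1B)
  (D : DIn (slC hLa hC n hn).hH (stB hGB bp bm) r Sf (nbA Φ X) (vS v0F v0B) (vS v1F v1B)
    (uA Φ hLa X θ) (AA Φ X μ κ1) (BA Φ X μ))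
  (lo : LevOut (Kc := (slC hLa hC n hn).K) (stB hGB bp bm) (nbA Φ X) (uA Φ hLa X θ)
    (AA Φ X μ κ1) (BA Φ X μ) Lv)
  (tt : TwOut (slC hLa hC n hn) fr3 (stB hGB bp bm) r (vS v0F v0B) (vS v1F v1B) Lv Tw)
  (rec : BR hLa (stB hGB bp bm) f X J θ coT BM.am BM.Zm (nbA Φ X) (vS v0F v0B) (vS v1F v1B)
    (uA Φ hLa X θ) (AA Φ X μ κ1) (BA Φ X μ) μ κ1)
include N H bar D lo tt rec

/-- the barrier points of `s2` : upper and lower bound of the deviations -/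
theorem far_m {b : E3} (hb : b ∈ (s2 (slC hLa hC n hn) fr3 Tw l0').P) {m : BM Φ X}
    (hbl : (s2 (slC hLa hC n hn) fr3 Tw l0').lab b = Sum.inr m)
    {p : T.RIdx (slC hLa hC n hn).HH}
    (hp : ∀ k, ¬ P ((slC hLa hC n hn).T3.H p) ⊆ (slC hLa hC n hn).KK k)
    (hbp : b ∈ P ((slC hLa hC n hn).T3.H p))
    (hU : (P ((slC hLa hC n hn).T3.H p) ∩ UTm Om Φ f X ρ3 d).Nonempty)
    (ha : ∀ x ∈ P (T.H p.tile), Φ.lev m.am (f x) ∈ Ioo (3 * μ / 8) (1 - 3 * μ / 8)) :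
    (∃ x ∈ P (T.H p.tile), ∀ e, dv m.am m.Zm (fun e => Φ.lev e (f x)) e ≤
      3 * μ / 16 + Cn δ R * κ1) ∧
    ∃ x ∈ P (T.H p.tile), ∃ e, μ / 16 + κ1 ≤ dv m.am m.Zm (fun e => Φ.lev e (f x)) e := by
  have hμ := N.hμ
  have hμb := N.hμb
  have hκ := N.hκ
  have hRm : RmA Φ T f X J0 J V θ ρ1 ρ2 ρ3 ρ4 d := fun c hc => (bar.rm c hc).2
  obtain ⟨n1, n2, n3, n4, n5, n6⟩ := N.base
  have hga : ∀ w ∈ (stB hGB bp bm).P, ∀ m, (stB hGB bp bm).lab w = Sum.inr m →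
      Ess5_95.ga Φ (coT m).1 (f w) ≤ ρ3 (coT m).1 + 15 * d (coT m).1 := fun w hw m hl => by
    have h3 := (bar.gau m w hw hl).2
    have h4 := (hRm m.co m.co_notMem).d0
    show Ess5_95.ga Φ m.co (f w) ≤ ρ3 m.co + 15 * d m.co
    linarith
  constructor
  · obtain ⟨x, hx, h3⟩ := box_m N hRm D lo tt rec hga m hb hbl hbp
    exact ⟨x, hx, h3.2⟩
  · obtain ⟨w, hwp, hwU⟩ := hU
    have hwt : w ∈ P (T.H p.tile) := Sla.P3_sub p hwp
    obtain ⟨p', q', hmo⟩ := m.mo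
    have hfar := far_s2 (co := fun m : BM Φ X => m.co) (am := BM.am) (Zm := BM.Zm)
      (N := Nb Φ hLa m.co) (l0 := μ / 8) (mm := 1 / 2) (ra := 1 / 2 - 5 * μ / 16) (hi := 1 + μ / 2)
      (z0 := 1 - μ / 64) (W := 5 * μ / 32) (α := 3 * μ / 8) (l1 := μ / 16 + κ1)
      (rF := ρ3 m.co + 12 * d m.co) N.hδ N.hR N.hκ N.cn1 H hRm D lo tt m m.co_notMem hmo
      (fun c hc => by
        have h : coT m = c := hc
        rw [← h]; rfl) (fun e he => mem_Nb.2 he)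
      (fun c hc x => by
        have h : coT m = c := hc
        subst h; exact rec.um (coT m) m x)
      (nm_rec hμ hμb (by linarith) le_rfl) (by linarith)
      (fun c hc => by rw [rec.Am c m]) (by nlinarith) (by linarith) ?_ ?_ ?_ ?_ ?_ ?_ ?_ le_rfl
      hb hbl hbp
    · obtain ⟨x, hx, h3 | h3 | h3 | h3⟩ := hfar
      · exact ⟨x, hx, h3⟩
      · exact absurd h3 (not_le.2 (ha x hx).1)
      · exact absurd h3 (not_le.2 (ha x hx).2)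
      · exfalso
        obtain ⟨-, c, hc⟩ := hwU
        have hr := hRm c.1 c.2
        have hV : p.tile ∈ V c.1 := hr.v p.tile ⟨w, hwt, by linarith [hr.r34, hr.d0]⟩
        have hk := Bse_344.kor_s2 hLa hC n hn p hp ⟨c.1, c.2, hV⟩ c.1
        obtain ⟨x', hx', h5, -⟩ := box_m N hRm D lo tt rec hga m hb hbl hbp
        have hrm := hRm m.co m.co_notMem
        have hV' : p.tile ∈ V m.co := hrm.v p.tile ⟨x', hx', by
          have h6 : Ess5_95.ga Φ m.co (f x') ≤ ρ3 m.co + 16 * d m.co := h5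
          linarith [hrm.r34]⟩
        have hcc : c.1 = m.co := by
          by_contra hne
          exact Set.disjoint_left.1 (hC.disj c.1 m.co hne) hV hV'
        have h7 := (abs_le.1 (hr.osc p.tile hV hk x hx w hwt).1).2
        have h8 : ρ3 m.co + 12 * d m.co ≤ Ess5_95.ga Φ m.co (f x) := h3
        rw [← hcc] at h8
        linarith [hr.d0]
    · have h3 := N.om2 (r := (3 * Cn δ R + 1) * κ1) (by nlinarith [N.cn0, N.hκ])
      linarith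
    · intro c hc
      have h : coT m = c := hc
      subst h
      exact (Sde_422.g_v0 N hLa hC bar m).trans (by linarith)
    · intro w hw hl
      have rd : Nmd2_698.RadD Φ T f κ1 X J0 J V θ ρ1 ρ2 ρ3 ρ4 d := ⟨hRm, fun c hc => (bar.rm c hc).1⟩
      obtain ⟨-, -, -, -, -, -, -, e4⟩ := bar.pos m w hw hl
      exact trF_of (sg := μ / 16) rd m.co_notMem (bar.lv m).1.le (bar.lev m w hw hl).1 e4
    · nlinarith
    · nlinarith
    · nlinarith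
    · linarith

/-- **662's `Dich` IN THE MACHINE** with the sides `sdN` of 422's labels -/
theorem dich_mS [Nonempty (slC hLa hC n hn).T3.Cell]
    (hnC : ∃ c, OutK (slC hLa hC n hn).T3 (slC hLa hC n hn).KK c)
    {hR : InitR Φ T f g J0 ct' r₀}
    {hM : Mesh0 T (Pc Φ.F) (bc (F := Φ.F)) (RF Φ r₀) f (KorJ Φ J0) κ1}
    {h1 : κ1 < μ / 32} {h2 : κ1 < 1}
    {lm : BM Φ X → Lm_117.QK (belK (slC hLa hC n hn).T3 (slC hLa hC n hn).KK) → ZMod 2}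
    (l3 : ∀ m, ∀ w ∈ (lmK fr3 (Lay_316.lay_sla hLa hC n hn).core
          (Sla.dis_KK (S := slC hLa hC n hn)) hnC).W1,
        ∀ p, (∀ c, ¬ P ((slC hLa hC n hn).T3.H p) ⊆ (slC hLa hC n hn).KK c) →
        w ∈ P ((slC hLa hC n hn).T3.H p) → Ess5_95.ga Φ m.co (f w) ≤ ρ3 m.co + 8 * d m.co →
        gR Φ X μ m (Φ.Psi (f w)) ≤ 1 - μ / 16 →
        sdm (lmK fr3 (Lay_316.lay_sla hLa hC n hn).core (Sla.dis_KK (S := slC hLa hC n hn)) hnC)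
          (s2 (slC hLa hC n hn) fr3 Tw l0') lm m w)
    {Act : Φ.F → Set (T.RIdx (slC hLa hC n hn).HH ⊕ Ti X)}
    {s₃ : GSt ((slC hLa hC n hn).mn fr3) (fun j : JJ Φ L => j.1)}
    (D3 : Dfo_539.CutOut (s2 (slC hLa hC n hn) fr3 Tw l0') BM.am Act s₃) :
    Dich (hH := (Lay_316.lay_sla hLa hC n hn).core) (hdis := Sla.dis_KK)
      (qdT (fun p : T.RIdx (slC hLa hC n hn).HH => p.tile) (sla_sub (slC hLa hC n hn))
        (slC hLa hC n hn).KK hLa hR hM h1 h2) s₃ (UTm Om Φ f X ρ3 d) BM.am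
      (sdN (hH := (Lay_316.lay_sla hLa hC n hn).core) (hdis := Sla.dis_KK) Φ T f
        (fun p : T.RIdx (slC hLa hC n hn).HH => p.tile) (3 * μ / 8)
        (s2 (slC hLa hC n hn) fr3 Tw l0')
        (sdm (lmK fr3 (Lay_316.lay_sla hLa hC n hn).core (Sla.dis_KK (S := slC hLa hC n hn)) hnC)
          (s2 (slC hLa hC n hn) fr3 Tw l0') lm)) := by
  have hμ := N.hμ
  have hμb := N.hμb
  have hRm : RmA Φ T f X J0 J V θ ρ1 ρ2 ρ3 ρ4 d := fun c hc => (bar.rm c hc).2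
  obtain ⟨n1, n2, n3, n4, n5, n6⟩ := N.base
  have hon : ∀ w ∈ (s2 (slC hLa hC n hn) fr3 Tw l0').P,
      w ∈ (lmK fr3 (Lay_316.lay_sla hLa hC n hn).core (Sla.dis_KK (S := slC hLa hC n hn)) hnC).W1 :=
    fun w hw => mem_W1K.2 ⟨(s2_dim hw).1, (s2_dim hw).2, fun c => s2_not_int hw c⟩
  refine dich_cutR (s₂ := s2 (slC hLa hC n hn) fr3 Tw l0') (α := 3 * μ / 8)
    (l := 3 * μ / 16 + Cn δ R * κ1) (l1 := μ / 16 + κ1)
    (Nr := fun c w => Ess5_95.ga Φ c (f w) ≤ ρ3 c + 8 * d c)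
    (by linarith) (by linarith) (by linarith) (by linarith) ?_ ?_ ?_ ?_ ?_
  · intro w hw _ _ p hp hwp
    obtain ⟨g1, c, g2, g3⟩ := hU0_m (hLa := hLa) (hC := hC) (n := n) (hn := hn) H hRm hw hp hwp
    exact ⟨g1, c, g3, g2⟩
  · intro w hw p hp hwp
    rcases cases3 (hKK := (Lay_316.lay_sla hLa hC n hn).core) D3 hw hwp hp with
      ⟨g1, g2⟩ | ⟨g1, b, g2, m, g3, g4, g5, -⟩
    · exact Or.inl ⟨g1, g2⟩
    · exact Or.inr ⟨g1, b, g2, m, g3, g4, g5⟩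
  · intro w hw j hl p hp hwp hK
    obtain ⟨x, hx, h3⟩ := pos_m N D lo tt rec j w hw hl p hp hwp hK
    exact ⟨x, hx, by linarith [h3.1], by linarith [h3.2]⟩
  · intro b hb m hm p hp hbp _ hU ha
    exact far_m N H bar D lo tt rec hb hm hp hbp hU ha
  · intro w _ hw j _ _ m hm hG _ ha hd
    obtain ⟨p, hwp, hp⟩ := s2_tile hw
    refine l3 m w (hon w hw) p hp hwp hG (gR_le N h1 m ?_ hd)
    exact ⟨by linarith [ha.1], by linarith [ha.2]⟩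

end s2

end Crest.Agent.R096.Dcs_522
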