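import Crest.Agent.R096.Der1_764
import Crest.Agent.R96.Push20_899
import Crest.Agent.R096.Bxs8_627
import Crest.Agent.R096.Er3_594

/-!
Row 96 (S0127), helper764, EA-ASM leaf [DER], part 2: the derivative of `Psi ∘ f` for two-stage
pushes; the pointwise bound for homothetic cores (`fD` of 627; `p ≥ 3`, all bricks exact).
-/

set_option autoImplicit false
set_option linter.style.longLine false
set_option linter.unusedSectionVars false

open MeasureTheory Set Filter Topology Metric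
open scoped ENNReal NNReal

namespace Crest.Agent.R096.Der_764

open Crest.Agent.R096.Bsp_628 Crest.Agent.R096.Brk1_582 Crest.Agent.R096.Brk3_582
open Crest.Agent.R096.Brk5_582
open Crest.Agent.R096.SkC1_961 Crest.Agent.R096.Ls_222
open Crest.Agent.R96.Acl_392 Crest.Agent.R96.Sob2_199 Crest.Agent.R96.Sob3_199
open Crest.Agent.R96.Sob4_199 Crest.Agent.R96.Sob5_199
open Crest.Agent.R96.En9_199 Crest.Agent.R96.En10_199 Crest.Agent.R96.Sg5_199
open Crest.Agent.R96.Push_899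
open Crest.AnalysisR.VecCalc3 (R3)

noncomputable section

section two

variable {δ κ0 R c0 : ℝ} {La Om : Set E3} {Φ : FoamD δ κ0 R c0 La} {f : E3 → E3}
  {C : Φ.F → Box (Fin 3)} {P : Finset (Fin 3)} {c₁ : ℝ} {κ ρ : Φ.F → ℝ}

theorem co_P3 (y : E3) : co (P3 y : R3) = y := rfl

/-- for two-stage pushes the push of `FoamD` is 899's push -/
theorem P3_Psi (hLa : IsOpen La) (h : FoamC (LaE La) (bbox Φ) C Φ.B P c₁ κ ρ)
    (hpu : ∀ c, Φ.pu c = psi (bbox Φ c) (C c) (Φ.B c)) {y : E3} (hy : y ∈ La) :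
    P3 (Φ.Psi y) = R96.Push_899.Psi (bbox Φ) C Φ.B (P3 y) := by
  obtain ⟨c, hc⟩ := (Brk3_582.foam Φ.bf hLa).cov y hy
  have h1 : (P3 y : R3) ∈ SE (bbox Φ c) := (mem_bbox Φ).2 hc
  ext i
  rw [h.Psi_apply h1 i, FoamD.Psi_eq Φ hc, hpu c]
  rfl

theorem OmH_eq (hf : Hom3 f Om La) :
    Om ∩ (fun x => (P3 (f x) : R3)) ⁻¹' Pun (LaE La) Φ.B = OmH Φ f Om := by
  obtain ⟨fi, h1, -⟩ := hf
  ext x
  constructor
  · rintro ⟨hx, -, h2⟩
    refine ⟨hx, fun c hc => h2 (mem_iUnion.2 ⟨c, hc⟩)⟩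
  · rintro ⟨hx, h2⟩
    refine ⟨hx, h1 hx, fun h3 => ?_⟩
    obtain ⟨c, hc⟩ := mem_iUnion.1 h3
    exact h2 c hc

theorem continuousOn_P3f (hf : Hom3 f Om La) : ContinuousOn (fun x => (P3 (f x) : R3)) Om := by
  obtain ⟨fi, h1, -, -, -, h5, -⟩ := hf
  exact P3.continuous.comp_continuousOn h5

/-- change of the function on `OmH` -/
theorem vwd_congr {Ω : Set E3} (hΩ : IsOpen Ω) {v v' D : E3 → R3} {e : E3}
    (h : VWD Ω volume v D e) (hv : ∀ x ∈ Ω, v x = v' x) : VWD Ω volume v' D e := fun i =>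
  wd_congr hΩ (h i) (Eventually.of_forall fun x hx => by rw [hv x hx])
    (Eventually.of_forall fun _ _ => rfl)

/-- **the derivative of `Psi ∘ f`**, two-stage pushes -/
theorem exists_DPsi (hOm : IsOpen Om) (hLa : IsOpen La) (hf : Hom3 f Om La)
    (h : FoamC (LaE La) (bbox Φ) C Φ.B P c₁ κ ρ)
    (hpu : ∀ c, Φ.pu c = psi (bbox Φ c) (C c) (Φ.B c)) {D : Fin 3 → E3 → R3}
    (hD : ∀ l, VWD Om volume (fun x => P3 (f x)) (D l) (Pi.single l (1:ℝ))) :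
    ∃ D' : Fin 3 → E3 → R3,
      ∀ l, VWD (OmH Φ f Om) volume (fun x => P3 (Φ.Psi (f x))) (D' l) (Pi.single l (1:ℝ)) := by
  have hO := isOpen_OmH (Φ := Φ) hOm hLa hf
  have hO' : IsOpen (LaE La) := isOpen_LaE hLa
  have h1 : ∀ l, ∃ D', VWD (OmH Φ f Om) volume
      (fun x => R96.Push_899.Psi (bbox Φ) C Φ.B (P3 (f x))) D' (Pi.single l (1:ℝ)) := by
    intro l
    refine comp_exists hO (fun i => wd_mono (hD l i) OmH_sub)
      ((continuousOn_P3f hf).mono OmH_sub) (S := Pun (LaE La) Φ.B) ?_ (h.locLip hO')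
    intro x hx
    rw [← OmH_eq hf] at hx
    exact hx.2
  choose D' hD' using h1
  refine ⟨D', fun l => vwd_congr hO (hD' l) fun x hx => ?_⟩
  exact (P3_Psi hLa h hpu (mapsTo_OmH (Φ := Φ) hf hx).1).symm

/-- **pointwise factor**, all bricks with prescribed box holes -/
theorem DPsi_le (hOm : IsOpen Om) (hLa : IsOpen La) (hf : Hom3 f Om La)
    (h : FoamC (LaE La) (bbox Φ) C Φ.B P c₁ κ ρ)
    (hpu : ∀ c, Φ.pu c = psi (bbox Φ c) (C c) (Φ.B c)) {a0 M : ℝ} (ha0 : 1 ≤ a0) (haκ : κ0 ≤ a0)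
    (hM : 1 ≤ M) {ρ₁ : Φ.F → ℝ} (hG : Given univ a0 M (bbox Φ) C Φ.B ρ₁) {D D' : Fin 3 → E3 → R3}
    (hD : ∀ l, VWD Om volume (fun x => P3 (f x)) (D l) (Pi.single l (1:ℝ)))
    (hD' : ∀ l, VWD (OmH Φ f Om) volume (fun x => P3 (Φ.Psi (f x))) (D' l) (Pi.single l (1:ℝ))) :
    ∀ᵐ x, x ∈ OmH Φ f Om → ∀ l, ‖D' l x‖ ≤ Kpt (Fin 3) a0 M * ‖D l x‖ := by
  have : Countable Φ.F := countable_F Φ
  have hO := isOpen_OmH (Φ := Φ) hOm hLa hf
  have h0 : Foam0 (LaE La) (bbox Φ) := foam0' Φ.bf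
  have hA : ∀ c i j, (bbox Φ c).W i ≤ a0 * (bbox Φ c).W j := by
    intro c i j
    have h1 : (bbox Φ c).W i ≤ κ0 * (bbox Φ c).W j := asp' Φ.bf c i j
    have h2 : 0 < (bbox Φ c).W j := h0.W0 c j
    nlinarith
  set z : Φ.F → Fin 3 → ℝ := fun c k => ((bbox Φ c).lo k + (bbox Φ c).hi k) / 2 with hz
  have hzM : ∀ c, z c ∈ Mid (bbox Φ c) := by
    intro c
    constructor <;> intro i
    · have := h0.W0 c i
      simp only [hz]
      unfold Box.W at *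
      linarith
    · have := h0.W0 c i
      simp only [hz]
      unfold Box.W at *
      linarith
  have eC : mixC univ (bbox Φ) C z = C := funext fun c => mixC_mem (mem_univ c)
  have eB : mixB univ Φ.B z = Φ.B := funext fun c => mixB_mem (mem_univ c)
  have h1 : ∀ l, ∀ᵐ x, x ∈ OmH Φ f Om → ‖D' l x‖ ≤ Kpt (Fin 3) a0 M * ‖D l x‖ := by
    intro l
    have h2 : VWD (Om ∩ (fun x => (P3 (f x) : R3)) ⁻¹' Pun (LaE La) (mixB univ Φ.B z)) volume
        (fun x => R96.Push_899.Psi (bbox Φ) (mixC univ (bbox Φ) C z) (mixB univ Φ.B z) (P3 (f x)))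
        (D' l) (Pi.single l (1:ℝ)) := by
      rw [eC, eB, OmH_eq hf]
      exact vwd_congr hO (hD' l) fun x hx => P3_Psi hLa h hpu (mapsTo_OmH (Φ := Φ) hf hx).1
    have h3 := mix_ptw ha0 hM (isOpen_LaE hLa) h0 hA hG hzM hOm (continuousOn_P3f hf) (hD l) h2
    rw [eC, eB, OmH_eq hf] at h3
    filter_upwards [h3] with x hx hxO
    exact hx hxO fun c _ => mem_univ c
  rw [← ae_all_iff] at h1
  filter_upwards [h1] with x hx hxO l using hx l hxO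

/-- **DER for two-stage pushes with prescribed box holes**, `f` in `SH3`. -/
theorem exists_der_SH3 {p : ℝ} (hδ : 0 < δ) (hR : 0 < R) (hOm : IsOpen Om) (hLa : IsOpen La)
    {D : E3 → E3 →L[ℝ] E3} (hf : Er_594.SH3 p Om La f D)
    (h : FoamC (LaE La) (bbox Φ) C Φ.B P c₁ κ ρ)
    (hpu : ∀ c, Φ.pu c = psi (bbox Φ c) (C c) (Φ.B c)) {a0 M : ℝ} (ha0 : 1 ≤ a0) (haκ : κ0 ≤ a0)
    (hM : 1 ≤ M) {ρ₁ : Φ.F → ℝ} (hG : Given univ a0 M (bbox Φ) C Φ.B ρ₁) :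
    ∃ g : Φ.F → Fin 3 → E3 → ℝ, (∀ c l, Measurable (g c l)) ∧
      (∀ c l, WD (OmH Φ f Om) volume (us Φ f c) (g c l) (Pi.single l (1:ℝ))) ∧
      (∀ c l, ∀ x ∉ OmH Φ f Om, g c l x = 0) ∧
      (∀ᵐ x, x ∈ OmH Φ f Om → ∀ l, ∑' c : Φ.F, ENNReal.ofReal (2 * c.1.sz) * ‖g c l x‖ₑ ≤
          ENNReal.ofReal (2 * CD δ R * Kpt (Fin 3) a0 M) * ‖D x (Pi.single l 1)‖ₑ) ∧
      (∀ᵐ x, x ∈ OmH Φ f Om → GGw (fun c : Φ.F => ENNReal.ofReal (2 * c.1.sz)) g x ≤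
        ENNReal.ofReal (6 * CD δ R * Kpt (Fin 3) a0 M) * ‖D x‖ₑ) := by
  obtain ⟨D', hD'⟩ := exists_DPsi (Φ := Φ) hOm hLa hf.homeo h hpu hf.vwd
  obtain ⟨g, h1, h2, h3, h4, h5⟩ := exists_der hδ hR hOm hLa hf.homeo hD'
  have h6 := DPsi_le hOm hLa hf.homeo h hpu ha0 haκ hM hG hf.vwd hD'
  have hC := CD_nonneg hδ hR
  have hK : 0 ≤ Kpt (Fin 3) a0 M := by
    unfold Kpt
    have : 0 ≤ a0 := by linarith
    have : 0 ≤ M := by linarith
    positivity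
  have key : ∀ᵐ x, x ∈ OmH Φ f Om → ∀ l, ENNReal.ofReal (CD δ R) * ‖D' l x‖ₑ ≤
      ENNReal.ofReal (2 * CD δ R * Kpt (Fin 3) a0 M) * ‖D x (Pi.single l 1)‖ₑ := by
    filter_upwards [h6] with x hx hxO l
    rw [← ofReal_norm, ← ofReal_norm, ← ENNReal.ofReal_mul hC, ← ENNReal.ofReal_mul (by positivity)]
    apply ENNReal.ofReal_le_ofReal
    have h7 : ‖(P3 (D x (Pi.single l 1)) : R3)‖ ≤ 2 * ‖D x (Pi.single l 1)‖ :=
      Er_594.norm_P3_le _
    calc CD δ R * ‖D' l x‖ ≤ CD δ R * (Kpt (Fin 3) a0 M * (2 * ‖D x (Pi.single l 1)‖)) := by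
          refine mul_le_mul_of_nonneg_left ((hx hxO l).trans ?_) hC
          exact mul_le_mul_of_nonneg_left h7 hK
      _ = _ := by ring
  refine ⟨g, h1, h2, h3, ?_, ?_⟩
  · filter_upwards [h4, key] with x a1 a2 hx l using (a1 hx l).trans (a2 hx l)
  · filter_upwards [h5, key] with x a1 a2 hx
    refine (a1 hx).trans ?_
    rw [Finset.mul_sum]
    refine (Finset.sum_le_sum fun l _ => a2 hx l).trans ?_
    have h8 : ∀ l, ‖D x (Pi.single l 1)‖ₑ ≤ ‖D x‖ₑ := by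
      intro l
      rw [← ofReal_norm, ← ofReal_norm]
      apply ENNReal.ofReal_le_ofReal
      refine ((D x).le_opNorm _).trans ?_
      rw [Pi.norm_single, norm_one, mul_one]
    refine (Finset.sum_le_sum (g := fun _ => ENNReal.ofReal (2 * CD δ R * Kpt (Fin 3) a0 M) *
      ‖D x‖ₑ) fun l _ => by gcongr; exact h8 l).trans ?_
    rw [Finset.sum_const, Finset.card_univ, Fintype.card_fin, nsmul_eq_mul, ← mul_assoc]
    refine mul_le_mul_left (le_of_eq ?_) _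
    rw [show ((3 : ℕ) : ℝ≥0∞) = ENNReal.ofReal 3 by simp, ← ENNReal.ofReal_mul (by norm_num)]
    congr 1; ring

end two

/-! ### homothetic cores (627) -/

section fd

open Crest.Agent.R096.Bxs_627 hiding E3

variable {La Om : Set E3} {F : Set (Bx (Fin 3))} {δ κ0 R c0 : ℝ}

/-- `Shape` with a smaller constant -/
theorem Shape_mono {P : Finset (Fin 3)} {c c' κ ρ : ℝ} {Q C : Box (Fin 3)} (h : Shape P c κ ρ Q C)
    (h0 : 0 < c') (h1 : c' ≤ c) : Shape P c' κ ρ Q C where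
  c0 := h0
  c1 := h1.trans h.c1
  r0 := h.r0
  k0 := h.k0
  W0 := h.W0
  lo1 i := (mul_le_mul_of_nonneg_right h1 h.r0.le).trans (h.lo1 i)
  lo2 := h.lo2
  hi1 i := (mul_le_mul_of_nonneg_right h1 h.r0.le).trans (h.hi1 i)
  hi2 := h.hi2
  wd i := (mul_le_mul_of_nonneg_right h1 (h.W0 i).le).trans (h.wd i)
  wdP := h.wdP

variable (bf : BoxFoam La F δ κ0) (cmp : Cmp F R) (hκ : 1 ≤ κ0) (hc : 0 < c0)
    (hc2 : c0 * κ0 ≤ 1) (lam : F → ℝ) (hl : ∀ c, c0 ≤ lam c) (hl1 : ∀ c, lam c < 1)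

/-- the cores of `fD` -/
def cfD (c : (fD bf cmp hκ hc hc2 lam hl hl1).F) : Box (Fin 3) :=
  cb c.1 (bf.pos _ c.2) (lam c) (hc.trans_le (hl c)).le

theorem fD_pu (c : (fD bf cmp hκ hc hc2 lam hl hl1).F) :
    (fD bf cmp hκ hc hc2 lam hl hl1).pu c = psi (bbox _ c) (cfD bf cmp hκ hc hc2 lam hl hl1 c)
      ((fD bf cmp hκ hc hc2 lam hl hl1).B c) := rfl

theorem given_fD : Given univ (κ0 / c0) 2 (bbox (fD bf cmp hκ hc hc2 lam hl hl1))
    (cfD bf cmp hκ hc hc2 lam hl hl1) (fD bf cmp hκ hc hc2 lam hl hl1).B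
    (fun c => (1 - lam c) * c.1.sz / 2) where
  shape c _ := by
    have h1 := shape_cb' (bf.pos _ c.2) hκ (bf.asp _ c.2) (hc.trans_le (hl c)) (hl1 c) hc (hl c) hc2
    refine Shape_mono h1 (by positivity) ?_
    rw [div_le_iff₀ (by positivity)]
    have h2 : κ0 / c0 * c0 = κ0 := div_mul_cancel₀ _ hc.ne'
    nlinarith
  inner c _ := inner_cb (bf.pos _ c.2) (hc.trans_le (hl c))
  asp c _ i j := by
    have h1 : (bbox (fD bf cmp hκ hc hc2 lam hl hl1) c).W i ≤ κ0 *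
      (bbox (fD bf cmp hκ hc hc2 lam hl hl1) c).W j := asp' bf c i j
    have h2 : (cfD bf cmp hκ hc hc2 lam hl hl1 c).W j =
        lam c * (bbox (fD bf cmp hκ hc hc2 lam hl hl1) c).W j := by
      unfold cfD
      rw [cb, hb_W]
      rfl
    have h3 : 0 < (bbox (fD bf cmp hκ hc hc2 lam hl hl1) c).W j :=
      (foam0' bf).W0 c j
    rw [h2]
    refine h1.trans ?_
    have h4 : κ0 ≤ 4 * (κ0 / c0) * lam c := by
      have h5 : κ0 / c0 * c0 = κ0 := div_mul_cancel₀ _ hc.ne'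
      have h6 : κ0 / c0 * c0 ≤ κ0 / c0 * lam c := mul_le_mul_of_nonneg_left (hl c) (by positivity)
      have h7 : 0 ≤ κ0 / c0 * lam c := by
        have := hl c
        have : 0 ≤ lam c := by linarith
        positivity
      linarith
    nlinarith
  hole c _ i := by
    have h2 : (cfD bf cmp hκ hc hc2 lam hl hl1 c).W i =
        lam c * (bbox (fD bf cmp hκ hc hc2 lam hl hl1) c).W i := by
      unfold cfD
      rw [cb, hb_W]
      rfl
    have h3 : ((fD bf cmp hκ hc hc2 lam hl hl1).B c).W i =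
        lam c / 2 * (bbox (fD bf cmp hκ hc hc2 lam hl hl1) c).W i := by
      show (cb c.1 (bf.pos _ c.2) (lam c / 2) (half_pos (hc.trans_le (hl c))).le).W i = _
      rw [cb, hb_W]
      rfl
    rw [h2, h3]
    exact le_of_eq (by ring)
  pos c _ i := by
    have h3 : ((fD bf cmp hκ hc hc2 lam hl hl1).B c).W i =
        lam c / 2 * (bbox (fD bf cmp hκ hc hc2 lam hl hl1) c).W i := by
      show (cb c.1 (bf.pos _ c.2) (lam c / 2) (half_pos (hc.trans_le (hl c))).le).W i = _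
      rw [cb, hb_W]
      rfl
    have h4 : 0 < (bbox (fD bf cmp hκ hc hc2 lam hl hl1) c).W i :=
      (foam0' bf).W0 c i
    have h5 := hc.trans_le (hl c)
    rw [h3]
    positivity

theorem foamC_fD : FoamC (LaE La) (bbox (fD bf cmp hκ hc hc2 lam hl hl1))
    (cfD bf cmp hκ hc hc2 lam hl hl1) (fD bf cmp hκ hc hc2 lam hl hl1).B ∅ c0 (fun _ => 0)
    (fun c => (1 - lam c) * c.1.sz / 2) where
  cells := (foam0' bf).cells
  disj := (foam0' bf).disj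
  shape c := shape_cb' (bf.pos _ c.2) hκ (bf.asp _ c.2) (hc.trans_le (hl c)) (hl1 c) hc (hl c) hc2
  inner c := inner_cb (bf.pos _ c.2) (hc.trans_le (hl c))

/-- the constant -/
def CF (δ κ0 R c0 : ℝ) : ℝ := 6 * CD δ R * Kpt (Fin 3) (κ0 / c0) 2

/-- **DER for the foam `fD` of 627 (all bricks exact)**: `us Φ f c` has the measurable weak
derivatives `g c l` off the holes, and `Σ'_c 2 sz(c) |∂_l us_c| ≤ CF |∂_l f|` a.e. -/
theorem exists_der_fD {p : ℝ} (hδ : 0 < δ) (hR : 0 < R) (hOm : IsOpen Om) (hLa : IsOpen La)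
    {f : E3 → E3} {D : E3 → E3 →L[ℝ] E3} (hf : Er_594.SH3 p Om La f D) :
    ∃ g : (fD bf cmp hκ hc hc2 lam hl hl1).F → Fin 3 → E3 → ℝ, (∀ c l, Measurable (g c l)) ∧
      (∀ c l, WD (OmH (fD bf cmp hκ hc hc2 lam hl hl1) f Om) volume
        (us (fD bf cmp hκ hc hc2 lam hl hl1) f c) (g c l) (Pi.single l (1:ℝ))) ∧
      (∀ c l, ∀ x ∉ OmH (fD bf cmp hκ hc hc2 lam hl hl1) f Om, g c l x = 0) ∧
      (∀ᵐ x, x ∈ OmH (fD bf cmp hκ hc hc2 lam hl hl1) f Om → ∀ l,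
        ∑' c : (fD bf cmp hκ hc hc2 lam hl hl1).F, ENNReal.ofReal (2 * c.1.sz) * ‖g c l x‖ₑ ≤
          ENNReal.ofReal (CF δ κ0 R c0) * ‖D x (Pi.single l 1)‖ₑ) ∧
      (∀ᵐ x, x ∈ OmH (fD bf cmp hκ hc hc2 lam hl hl1) f Om →
        GGw (fun c : (fD bf cmp hκ hc hc2 lam hl hl1).F => ENNReal.ofReal (2 * c.1.sz)) g x ≤
        ENNReal.ofReal (CF δ κ0 R c0) * ‖D x‖ₑ) := by
  have ha0 : 1 ≤ κ0 / c0 := by
    rw [le_div_iff₀ hc]
    nlinarith
  have haκ : κ0 ≤ κ0 / c0 := by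
    rw [le_div_iff₀ hc]
    nlinarith
  obtain ⟨g, h1, h2, h3, h4, h5⟩ := exists_der_SH3 (Φ := fD bf cmp hκ hc hc2 lam hl hl1) hδ hR hOm
    hLa hf (foamC_fD bf cmp hκ hc hc2 lam hl hl1) (fD_pu bf cmp hκ hc hc2 lam hl hl1) ha0 haκ
    one_le_two (given_fD bf cmp hκ hc hc2 lam hl hl1)
  refine ⟨g, h1, h2, h3, ?_, h5⟩
  have hC := CD_nonneg hδ hR
  have hK : 0 ≤ Kpt (Fin 3) (κ0 / c0) 2 := by
    unfold Kpt
    have : 0 ≤ κ0 / c0 := by linarith
    positivity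
  filter_upwards [h4] with x hx hxO l
  refine (hx hxO l).trans (mul_le_mul_left ?_ _)
  apply ENNReal.ofReal_le_ofReal
  unfold CF
  have : 0 ≤ CD δ R * Kpt (Fin 3) (κ0 / c0) 2 := by positivity
  linarith

end fd

end

end Crest.Agent.R096.Der_764
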