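import Crest.Agent.R096.Str1_696

/-!
Row 96 (S0127), helper663.  A locally PL map is affine near almost every point; an injective locally
PL map has invertible differential almost everywhere.
-/

set_option autoImplicit false
set_option linter.unusedSectionVars false
set_option linter.style.longLine false

open MeasureTheory Set Filter Topology Metric
open scoped ENNReal
open Crest.Agent.R096.Str_696 (LocPL)

namespace Crest.Agent.R096.DetN_663

variable {E F : Type*} [NormedAddCommGroup E] [NormedSpace ℝ E] [FiniteDimensional ℝ E]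
  [MeasurableSpace E] [BorelSpace E] (μ : Measure E) [μ.IsAddHaarMeasure]
  [NormedAddCommGroup F] [NormedSpace ℝ F]

/-- two different affine maps agree only on a null set. -/
theorem null_eqLocus {A B : E →ᵃ[ℝ] F} (hAB : A ≠ B) : μ {x | A x = B x} = 0 := by
  let s : AffineSubspace ℝ E :=
    { carrier := {x | A x = B x}
      smul_vsub_vadd_mem' := by
        intro c p₁ p₂ p₃ h₁ h₂ h₃
        simp only [mem_ofPred_eq] at *
        rw [AffineMap.map_vadd, AffineMap.map_vadd, map_smul, map_smul,
          AffineMap.linearMap_vsub, AffineMap.linearMap_vsub, h₁, h₂, h₃] }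
  have hs : s ≠ ⊤ := by
    intro h
    apply hAB
    ext x
    have : x ∈ s := by rw [h]; exact AffineSubspace.mem_top ℝ E x
    exact this
  exact Measure.addHaar_affineSubspace μ s hs

/-- a locally PL map is affine near almost every point. -/
theorem ae_affine {h : E → F} {Ω : Set E} (hΩ : IsOpen Ω) (hh : LocPL h Ω) :
    ∀ᵐ x ∂(μ.restrict Ω), ∃ A : E →ᵃ[ℝ] F, h =ᶠ[𝓝 x] A := by
  rw [ae_restrict_iff' hΩ.measurableSet, ae_iff]
  simp only [Classical.not_imp]
  refine measure_null_of_locally_null _ ?_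
  rintro x ⟨hx, -⟩
  obtain ⟨r, hr, S, hc, hS⟩ := hh x hx
  classical
  refine ⟨ball x r ∩ {a | a ∈ Ω ∧ ¬∃ A : E →ᵃ[ℝ] F, h =ᶠ[𝓝 a] A},
    inter_mem (mem_nhdsWithin_of_mem_nhds (ball_mem_nhds x hr)) self_mem_nhdsWithin, ?_⟩
  have hsub : ball x r ∩ {a | a ∈ Ω ∧ ¬∃ A : E →ᵃ[ℝ] F, h =ᶠ[𝓝 a] A} ⊆
      ⋃ A ∈ S, ⋃ B ∈ S, {y | A ≠ B ∧ A y = B y} := by
    rintro y ⟨hy, -, hno⟩
    by_contra hcon
    apply hno
    obtain ⟨A, hA, hyA⟩ := hS y hy
    refine ⟨A, ?_⟩
    have h1 : ∀ B ∈ S, ∀ᶠ z in 𝓝 y, B ≠ A → h z ≠ B z := by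
      intro B hB
      by_cases hBA : B = A
      · exact Eventually.of_forall fun z hz => absurd hBA hz
      · have h2 : h y ≠ B y := by
          intro h3
          apply hcon
          simp only [mem_iUnion]
          exact ⟨A, hA, B, hB, fun h4 => hBA h4.symm, by rw [← hyA, h3]⟩
        have h4 : ContinuousAt h y := hc.continuousAt (isOpen_ball.mem_nhds hy)
        have h5 : ContinuousAt B y := B.continuous_of_finiteDimensional.continuousAt
        filter_upwards [(h4.prodMk_nhds h5).eventually (isOpen_ne_fun continuous_fst continuous_snd |>.mem_nhds h2)] with z hz _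
        exact hz
    have h6 : ∀ᶠ z in 𝓝 y, ∀ B ∈ S, B ≠ A → h z ≠ B z := (Finset.eventually_all S).2 h1
    filter_upwards [h6, isOpen_ball.mem_nhds hy] with z hz hzb
    obtain ⟨B, hB, hzB⟩ := hS z hzb
    by_cases hBA : B = A
    · rw [hzB, hBA]
    · exact absurd hzB (hz B hB hBA)
  refine measure_mono_null hsub ?_
  refine (measure_biUnion_null_iff S.countable_toSet).2 fun A hA => ?_
  refine (measure_biUnion_null_iff S.countable_toSet).2 fun B hB => ?_
  by_cases hAB : A = B
  · convert measure_empty (μ := μ)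
    ext y
    simp [hAB]
  · exact measure_mono_null (fun y hy => hy.2) (null_eqLocus μ hAB)

/-- **an injective locally PL map has invertible differential almost everywhere.** -/
theorem ae_det_ne_zero {h : E → E} {Ω : Set E} (hΩ : IsOpen Ω) (hh : LocPL h Ω)
    (hinj : InjOn h Ω) :
    ∀ᵐ x ∂(μ.restrict Ω), DifferentiableAt ℝ h x ∧ (fderiv ℝ h x).det ≠ 0 := by
  filter_upwards [ae_affine μ hΩ hh, ae_restrict_mem hΩ.measurableSet] with x hx hxΩ
  obtain ⟨A, hA⟩ := hx
  have hd : HasFDerivAt h A.linear.toContinuousLinearMap x := by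
    have h1 : HasFDerivAt (fun y => A y) A.linear.toContinuousLinearMap x := by
      have h2 : (fun y => A y) = fun y => A.linear.toContinuousLinearMap y + A 0 := by
        ext y
        have := A.decomp
        simpa using congrFun this y
      rw [h2]
      exact (A.linear.toContinuousLinearMap.hasFDerivAt).add_const _
    exact h1.congr_of_eventuallyEq hA
  refine ⟨hd.differentiableAt, ?_⟩
  rw [hd.fderiv]
  intro hdet
  have h0 : LinearMap.det A.linear = 0 := hdet
  have hker : LinearMap.ker A.linear ≠ ⊥ := by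
    intro hk
    have := LinearMap.isUnit_det A.linear ((LinearMap.isUnit_iff_ker_eq_bot A.linear).2 hk)
    exact this.ne_zero h0
  obtain ⟨v, hv, hv0⟩ := (Submodule.ne_bot_iff _).1 hker
  have hev : ∀ᶠ y in 𝓝 x, y ∈ Ω ∧ h y = A y := (hΩ.eventually_mem hxΩ).and hA
  have hc : Tendsto (fun t : ℝ => x + t • v) (𝓝[≠] 0) (𝓝 x) := by
    have : Tendsto (fun t : ℝ => x + t • v) (𝓝 0) (𝓝 (x + (0 : ℝ) • v)) :=
      (continuous_const.add (continuous_id.smul continuous_const)).tendsto 0
    simp only [zero_smul, add_zero] at this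
    exact this.mono_left nhdsWithin_le_nhds
  obtain ⟨t, ⟨ht, ht'⟩, ht0⟩ := ((hc.eventually hev).and self_mem_nhdsWithin).exists
  have h3 : h (x + t • v) = h x := by
    rw [ht', hA.self_of_nhds, add_comm x, ← vadd_eq_add, A.map_vadd, map_smul,
      LinearMap.mem_ker.1 hv, smul_zero, zero_vadd]
  have h4 := hinj ht hxΩ h3
  have h5 : t • v = 0 := by simpa using h4
  rcases smul_eq_zero.1 h5 with h6 | h6
  · exact ht0 h6
  · exact hv0 h6

end Crest.Agent.R096.DetN_663
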