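import Crest.Agent.R096.DetN_663
import Crest.Agent.R096.Sk0_962
import Crest.Agent.R96.Lu7_538
import Crest.Agent.R96.Sob8_199

/-!
Row 96 (S0127), helper663.  The matrix form of `DetN_663` on `R3`.
-/

set_option autoImplicit false
set_option linter.unusedSectionVars false
set_option linter.style.longLine false

open MeasureTheory Set Filter Topology Metric
open scoped ENNReal Gradient NNReal
open Crest.AnalysisR.VecCalc3 Crest.AnalysisR.Sobolev
open Crest.Agent.R096.Str_696 (LocPL)
open Crest.Agent.R096.Sk_962 (SH Gr Q0 Qc0 Kc Ko dg)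
open Crest.Agent.R96.Lu_538 (Gmat Gmat_apply gmatL Lus exists_lus_R3)

namespace Crest.Agent.R096.DetN_663

/-- at a point of differentiability the matrix of gradients is the Frechet derivative. -/
theorem Gmat_Gr {h : R3 → R3} {x : R3} (hd : DifferentiableAt ℝ h x) :
    Gmat (Gr h) x = fderiv ℝ h x := by
  ext w j
  rw [Gmat_apply]
  have h1 : DifferentiableAt ℝ (fun y => h y j) x := by
    have := (EuclideanSpace.proj (𝕜 := ℝ) (ι := Fin 3) j).differentiableAt (x := h x)
    exact this.comp x hd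
  have h2 : fderiv ℝ (fun y => h y j) x w = fderiv ℝ h x w j := by
    have h3 : HasFDerivAt (fun y => h y j)
        ((EuclideanSpace.proj (𝕜 := ℝ) (ι := Fin 3) j).comp (fderiv ℝ h x)) x :=
      (EuclideanSpace.proj (𝕜 := ℝ) (ι := Fin 3) j).hasFDerivAt.comp x hd.hasFDerivAt
    rw [h3.fderiv]
    rfl
  rw [← h2]
  unfold Gr gradient
  exact InnerProductSpace.toDual_symm_apply

/-- an injective locally PL map of `R3` has `det (Gr h) ≠ 0` almost everywhere. -/
theorem ae_Gmat_det {h : R3 → R3} {Ω : Set R3} (hΩ : IsOpen Ω) (hh : LocPL h Ω)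
    (hinj : InjOn h Ω) :
    ∀ᵐ x ∂(volume.restrict Ω), DifferentiableAt ℝ h x ∧ (Gmat (Gr h) x).det ≠ 0 := by
  filter_upwards [ae_det_ne_zero volume hΩ hh hinj] with x hx
  refine ⟨hx.1, ?_⟩
  rw [Gmat_Gr hx.1]
  exact hx.2

end Crest.Agent.R096.DetN_663
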