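import Crest.Agent.R096.Sla6_184
import Crest.Agent.R096.Door9_501
import Crest.Agent.R096.Twr9_438

/-!
# Row 96, DOORS_final, part 2 (helper471): the state with layers over 184's `Sla`

`s2 S h3 Tw l0` : 501's `(Twrs.rel (S.cols h3) Tw).st l0` on `S.mn h3 = meshK S.T3 h3 S.KK`.

* `s2_h1`, `s2_conn`;
* `mem_s2`, `lab_old / lab_hp / lab_vp` : all points and labels;
* `faces` : old faces, level faces `hf G j`, vertical faces `vf e j`;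
* `mu_old / mu_hf / mu_vf`, `on_old / on_hf / on_vf` : chords and points on the faces;
* `pos_*` : where the points are (`Out`, `OnS`, `InL`);
* `fin_on` : finitely many points on every face.
-/

set_option autoImplicit false
set_option linter.unusedSectionVars false
set_option linter.style.longLine false

open Set Module
open scoped Classical

namespace Crest.Agent.R096.Dfi_471

open Crest.Agent.R096.Msh_715 Crest.Agent.R096.Agl5_543 Crest.Agent.R096.St_147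
  Crest.Agent.R096.Seq_213 Crest.Agent.R096.Door_501 Crest.Agent.R096.Sla_184
  Crest.Agent.R096.Twr_438
open Crest.Agent.R096.Sla_184.Sla (hf vf old tg F0 Fn Out OnS InL In)

variable {E : Type} [NormedAddCommGroup E] [NormedSpace ℝ E] [FiniteDimensional ℝ E]
variable {Om : Set E} {ι : Type} {T : Tiling Om ι} {κ : Type} {S : Sla T κ}
  {h3 : finrank ℝ E = 3} {J C : Type} {fam : J → C} {s : GSt (S.m0 h3) fam}
  {c : κ} {a : C} {j : ℕ} {w x y : E}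

/-- **the state with layers** -/
noncomputable def s2 (S : Sla T κ) (h3 : finrank ℝ E = 3) {s : GSt (S.m0 h3) fam}
    (Tw : Twrs (S.sh h3) S.n s) (l0 : E → J) : GSt (S.mn h3) fam :=
  (Twrs.rel (S.cols h3) Tw).st l0

variable {Tw : Twrs (S.sh h3) S.n s} {l0 : E → J}

theorem s2_h1 {i : J} (hi : s.H1 i) : (s2 S h3 Tw l0).H1 i := Twrs.h1 hi l0

theorem s2_conn {i : J} (hi : s.Conn i) : (s2 S h3 Tw l0).Conn i := Twrs.conn hi l0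

/-! ### points and labels -/

/-- the points -/
theorem mem_s2 : w ∈ (s2 S h3 Tw l0).P ↔ w ∈ s.P ∨
    (∃ c a j u, 0 < j ∧ j ≤ S.n c ∧ u ∈ ((Tw.tw c a).pat j).P ∧ w = S.hp c j u) ∨
    ∃ c a j, ∃ v : S.Vx c, j < S.n c ∧ v ∈ ((Tw.tw c a).mv j).Qv ∧ w = S.vc c v.1 j := by
  constructor
  · rintro ⟨i, h | ⟨c, a, j, u, h1, h2, h3', h4, -⟩ | ⟨c, a, j, v, h1, h2, h3', -⟩⟩
    · exact Or.inl h.1
    · exact Or.inr (Or.inl ⟨c, a, j, u, h1, h2, h3', h4⟩)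
    · exact Or.inr (Or.inr ⟨c, a, j, v, h1, h2, h3'⟩)
  · rintro (h | ⟨c, a, j, u, h1, h2, h3', h4⟩ | ⟨c, a, j, v, h1, h2, h3'⟩)
    · exact ⟨s.lab w, Or.inl ⟨h, rfl⟩⟩
    · exact ⟨_, Or.inr (Or.inl ⟨c, a, j, u, h1, h2, h3', h4, rfl⟩)⟩
    · exact ⟨_, Or.inr (Or.inr ⟨c, a, j, v, h1, h2, h3', rfl⟩)⟩

theorem mem_old (h : w ∈ s.P) : w ∈ (s2 S h3 Tw l0).P := mem_s2.2 (Or.inl h)

theorem lab_old (h : w ∈ s.P) : (s2 S h3 Tw l0).lab w = s.lab w :=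
  (Twrs.rel (S.cols h3) Tw).lab_eq (Or.inl ⟨h, rfl⟩)

theorem pat_onE {u : E} (hu : u ∈ ((Tw.tw c a).pat j).P) : ∃ e : S.Ed c, u ∈ e.1.opn := by
  obtain ⟨e, he⟩ := Twrs.onE hu
  exact ⟨e, he⟩

theorem mem_hp {u : E} (hj : j ≤ S.n c) (hu : u ∈ ((Tw.tw c a).pat j).P) :
    S.hp c j u ∈ (s2 S h3 Tw l0).P := by
  by_cases h0 : j = 0
  · subst h0
    rw [Sla.hp_zero]
    exact mem_old ((Tw.P0 c a u).1 hu).1
  · exact mem_s2.2 (Or.inr (Or.inl ⟨c, a, j, u, Nat.pos_of_ne_zero h0, hj, hu, rfl⟩))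

theorem lab_hp {u : E} (hj : j ≤ S.n c) (hu : u ∈ ((Tw.tw c a).pat j).P) :
    (s2 S h3 Tw l0).lab (S.hp c j u) = ((Tw.tw c a).pat j).lab u := by
  by_cases h0 : j = 0
  · subst h0
    rw [Sla.hp_zero, lab_old ((Tw.P0 c a u).1 hu).1, Tw.lab0 hu]
  · exact (Twrs.rel (S.cols h3) Tw).lab_eq
      (Or.inr (Or.inl ⟨c, a, j, u, Nat.pos_of_ne_zero h0, hj, hu, rfl, rfl⟩))

theorem mem_vp {v : S.Vx c} (hj : j < S.n c) (hv : v ∈ ((Tw.tw c a).mv j).Qv) :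
    S.vc c v.1 j ∈ (s2 S h3 Tw l0).P :=
  mem_s2.2 (Or.inr (Or.inr ⟨c, a, j, v, hj, hv, rfl⟩))

theorem lab_vp {v : S.Vx c} (hj : j < S.n c) (hv : v ∈ ((Tw.tw c a).mv j).Qv) :
    (s2 S h3 Tw l0).lab (S.vc c v.1 j) = ((Tw.tw c a).mv j).i0 :=
  (Twrs.rel (S.cols h3) Tw).lab_eq (Or.inr (Or.inr ⟨c, a, j, v, hj, hv, rfl, rfl⟩))

/-! ### faces -/

/-- all faces -/
theorem faces (F : S.Fn h3) : (∃ F0 : S.F0 h3, F = old F0) ∨
    (∃ c, ∃ G : (S.sh h3 c).Fk, ∃ j, 0 < j ∧ j ≤ S.n c ∧ F = hf G j) ∨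
    ∃ c, ∃ e : S.Ed c, ∃ j, j < S.n c ∧ F = vf h3 e j := (S.cols h3).cases F

/-- the point embedding of the layer `j` -/
theorem emb_top {u : E} : Twrs.emb (S.cols h3) c j (Sum.inl u) = S.hp c j u := rfl

theorem emb_bot {u : E} : Twrs.emb (S.cols h3) c j (Sum.inr (Sum.inl u)) = S.hp c (j + 1) u := rfl

theorem emb_vert {v : S.Vx c} :
    Twrs.emb (S.cols h3) c j (Sum.inr (Sum.inr v)) = S.vc c v.1 j := rfl

/-- points on an old face -/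
theorem on_old {F : S.F0 h3} (hw : w ∈ (s2 S h3 Tw l0).P) (hF : w ∈ (S.m0 h3).On F) : w ∈ s.P :=
  Twrs.of_old (Z := S.cols h3) (T := Tw) hF hw

theorem on_old' {F : S.F0 h3} (hw : w ∈ (s2 S h3 Tw l0).P) (hF : w ∈ (S.mn h3).On (old F)) :
    w ∈ s.P ∧ w ∈ (S.m0 h3).On F := by
  rw [Sla.on_old F] at hF
  exact ⟨on_old hw hF, hF⟩

/-- chords on an old face -/
theorem mu_old {F : S.F0 h3} (hw : w ∈ s.P) (hF : w ∈ (S.m0 h3).On F) :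
    (s2 S h3 Tw l0).mu (old F) w = s.mu F w := Twrs.old_mu (Z := S.cols h3) (T := Tw) hw hF l0

/-- points on a level face -/
theorem on_hf {G : (S.sh h3 c).Fk} (h0 : 0 < j) (hj : j ≤ S.n c)
    (hw : w ∈ (s2 S h3 Tw l0).P) (hF : w ∈ (S.mn h3).On (hf G j)) :
    ∃ a u, u ∈ ((Tw.tw c a).pat j).P ∧ u ∈ (S.m0 h3).On G.1 ∧ w = S.hp c j u ∧
      (s2 S h3 Tw l0).mu (hf G j) w = S.hp c j (((Tw.tw c a).pat j).mu G u) := by
  obtain ⟨i, h⟩ := hw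
  obtain ⟨x, hx⟩ := Twrs.r_ex (Z := S.cols h3) (T := Tw) h hF
  have h2 := (Twrs.rel (S.cols h3) Tw).mu_eq (l0 := l0) hx
  obtain ⟨a, u, g1, g2, g3, g4⟩ := Twrs.r_hf (Z := S.cols h3) (T := Tw) (G := G) h0 hj hx
  exact ⟨a, u, g1, g2, g3, h2.trans g4⟩

/-- chords on a level face -/
theorem mu_hf {G : (S.sh h3 c).Fk} {u : E} (h0 : 0 < j) (hj : j ≤ S.n c)
    (hu : u ∈ ((Tw.tw c a).pat j).P) (hG : u ∈ (S.m0 h3).On G.1) :
    (s2 S h3 Tw l0).mu (hf G j) (S.hp c j u) = S.hp c j (((Tw.tw c a).pat j).mu G u) :=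
  (Twrs.rel (S.cols h3) Tw).mu_eq
    (Or.inr (Or.inl ⟨c, a, j, G, u, h0, hj, rfl, hu, hG, rfl, rfl⟩))

/-- points on a vertical face -/
theorem on_vf {e : S.Ed c} (hj : j < S.n c) (hw : w ∈ (s2 S h3 Tw l0).P)
    (hF : w ∈ (S.mn h3).On (vf h3 e j)) :
    ∃ a, ∃ x0 : (S.sh h3 c).Pnt, x0 ∈ ((Tw.tw c a).mv j).P' ∧
      x0 ∈ (S.sh h3 c).On (Sum.inr (Sum.inr e)) ∧ w = Twrs.emb (S.cols h3) c j x0 ∧
      (s2 S h3 Tw l0).mu (vf h3 e j) w = Twrs.emb (S.cols h3) c j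
        (((Tw.tw c a).mv j).mu' ((Tw.tw c a).par j) (Sum.inr (Sum.inr e)) x0) := by
  obtain ⟨i, h⟩ := hw
  obtain ⟨x, hx⟩ := Twrs.r_ex (Z := S.cols h3) (T := Tw) h hF
  have h2 := (Twrs.rel (S.cols h3) Tw).mu_eq (l0 := l0) hx
  obtain ⟨a, x0, g1, g2, g3, g4⟩ := Twrs.r_vf (Z := S.cols h3) (T := Tw) (e := e) hj hx
  exact ⟨a, x0, g1, g2, g3, h2.trans g4⟩

/-- chords on a vertical face -/
theorem mu_vf {e : S.Ed c} {x0 : (S.sh h3 c).Pnt} (hj : j < S.n c)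
    (hx : x0 ∈ ((Tw.tw c a).mv j).P') (hF : x0 ∈ (S.sh h3 c).On (Sum.inr (Sum.inr e))) :
    (s2 S h3 Tw l0).mu (vf h3 e j) (Twrs.emb (S.cols h3) c j x0) =
      Twrs.emb (S.cols h3) c j
        (((Tw.tw c a).mv j).mu' ((Tw.tw c a).par j) (Sum.inr (Sum.inr e)) x0) :=
  (Twrs.rel (S.cols h3) Tw).mu_eq
    (Or.inr (Or.inr ⟨c, a, j, e, x0, hj, rfl, hx, hF, rfl, rfl⟩))

/-! ### where the points are -/

/-- the points of the outer state are outside the open cores -/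
theorem s_out (h : w ∈ s.P) (Tw : Twrs (S.sh h3) S.n s) : S.Out w ∧ T.dim w = 1 := by
  obtain ⟨F0, hF0⟩ := Tw.on w h
  exact ⟨Sla.set_out F0 hF0.1, hF0.2⟩

/-- all points are on edges of the inner mesh -/
theorem s2_dim (hw : w ∈ (s2 S h3 Tw l0).P) : w ∈ Om ∧ S.T3.dim w = 1 := by
  rcases mem_s2.1 hw with h | ⟨c, a, j, u, h1, h2, h4, rfl⟩ | ⟨c, a, j, v, h1, h2, rfl⟩
  · obtain ⟨g1, g2⟩ := s_out h Tw
    exact ⟨g1.1, g1.dim.trans g2⟩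
  · obtain ⟨e, he⟩ := pat_onE h4
    exact ⟨(Sla.hp_onS e he h2).mem, Sla.hp_dim3 e he h2⟩
  · exact ⟨(Sla.vc_inL (Sla.vx_bd v) h1).mem, (Sla.vc_dim3 (Sla.vx_bd v) j).trans (Sla.vx_D v)⟩

/-- **outside the open cores: the outer state** -/
theorem s2_out (hw : w ∈ (s2 S h3 Tw l0).P) (ho : S.Out w) :
    w ∈ s.P ∧ (s2 S h3 Tw l0).lab w = s.lab w := by
  rcases mem_s2.1 hw with h | ⟨c, a, j, u, h1, h2, h4, rfl⟩ | ⟨c, a, j, v, h1, h2, rfl⟩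
  · exact ⟨h, lab_old h⟩
  · obtain ⟨e, he⟩ := pat_onE h4
    exact absurd ((Sla.hp_onS e he h2).bo h1).1 (ho.2 c)
  · exact absurd (Sla.vc_inL (Sla.vx_bd v) h1).bo.1 (ho.2 c)

/-- **inside the core `c`: the layers** -/
theorem s2_in (hw : w ∈ (s2 S h3 Tw l0).P) (hc : S.In c w) :
    (∃ a j u, 0 < j ∧ j ≤ S.n c ∧ u ∈ ((Tw.tw c a).pat j).P ∧ w = S.hp c j u ∧
      (s2 S h3 Tw l0).lab w = ((Tw.tw c a).pat j).lab u ∧ fam ((s2 S h3 Tw l0).lab w) = a) ∨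
    ∃ a j, ∃ v : S.Vx c, j < S.n c ∧ v ∈ ((Tw.tw c a).mv j).Qv ∧ w = S.vc c v.1 j ∧
      (s2 S h3 Tw l0).lab w = ((Tw.tw c a).mv j).i0 ∧ fam ((s2 S h3 Tw l0).lab w) = a := by
  rcases mem_s2.1 hw with h | ⟨c', a, j, u, h1, h2, h4, rfl⟩ | ⟨c', a, j, v, h1, h2, rfl⟩
  · exact absurd hc ((s_out h Tw).1.2 c)
  · obtain ⟨e, he⟩ := pat_onE h4
    have hcc : c = c' := S.core_unique hc.1 (Sla.hp_onS e he h2).1
    subst hcc
    have hl := lab_hp (l0 := l0) h2 h4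
    exact Or.inl ⟨a, j, u, h1, h2, h4, rfl, hl, by rw [hl, Tw.labj h4]⟩
  · have hcc : c = c' := S.core_unique hc.1 (Sla.vc_inL (Sla.vx_bd v) h1).1
    subst hcc
    have hl := lab_vp (l0 := l0) h1 h2
    exact Or.inr ⟨a, j, v, h1, h2, rfl, hl, by rw [hl, Tw.labv h2]⟩

/-- a point of the closed core is on the frontier (outer state) or inside (layers) -/
theorem s2_cases (hw : w ∈ (s2 S h3 Tw l0).P) (hc : w ∈ S.K c) :
    (w ∈ frontier (S.K c) ∧ w ∈ s.P ∧ (s2 S h3 Tw l0).lab w = s.lab w) ∨ S.In c w := by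
  by_cases h : w ∈ frontier (S.K c)
  · have ho := Sla.out_fr h
    exact Or.inl ⟨h, s2_out hw ho⟩
  · exact Or.inr ⟨hc, h⟩

end Crest.Agent.R096.Dfi_471
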