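import Crest.Agent.R096.Dfi2_471
import Crest.Agent.R096.Dfi1_539
import Crest.Agent.R096.Sla7_184
import Crest.Agent.R096.Slt1_471

/-!
# Row 96, DOORS_final, part 3 (helper471): the state `s₂` from 539's `exists_towers`

`TwOut` : the conclusions of `Dfi_539.exists_towers` over `S : Sla T κ`.  For
`s2 S h3 Tw l0` (`Tw` over `outK S.hH S.dis s r`):

* `root2`       : the roots;
* `out2`        : outside the open cores it is `s` (points, labels);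
* `in2`         : inside a core: copies of points of the trace or of the exact pattern, or vertex
                  points with `Rgn`; only families with `nb`;
* `gi2`, `gi2'` : on the boundary of the shrunk core it is the exact pattern;
* `face_out`, `mu_out` : faces with a side outside the cores are old faces, the chords are those of `s`;
* `fin2`        : finitely many points on every face;
* `supp2`       : the supports (for `labIn_KD`).
-/

set_option autoImplicit false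
set_option linter.unusedSectionVars false
set_option linter.style.longLine false

open Set Module
open scoped Classical

namespace Crest.Agent.R096.Dfi_471

open Crest.Agent.R096.Msh_715 Crest.Agent.R096.Agl5_543 Crest.Agent.R096.St_147
  Crest.Agent.R096.Seq_213 Crest.Agent.R096.Door_501 Crest.Agent.R096.Sla_184
  Crest.Agent.R096.Twr_438 Crest.Agent.R096.Exa_560 Crest.Agent.R096.Ess3_95
  Crest.Agent.R096.Ess4_95 Crest.Agent.R096.Dfi_539
open Crest.Agent.R096.Sla_184.Sla (hf vf old tg F0 Fn Out OnS InL In)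

variable {E : Type} [NormedAddCommGroup E] [NormedSpace ℝ E] [FiniteDimensional ℝ E]
variable {Om : Set E} {ι : Type} {T : Tiling Om ι} {κ : Type} {S : Sla T κ}
  {h3 : finrank ℝ E = 3} {J C : Type} {fam : J → C} [Nonempty J]
  {s : GSt (meshC T h3) fam} {r : J → E} {Sf : J → Set E} {nb : κ → C → Prop}
  {v0 v1 : ∀ c, C → VxK T S.K c} {u : κ → C → E → ℝ} {A B : κ → C → ℝ}
  {L : ∀ c, C → Lev T (frontier (S.K c)) J}
  {Tw : Twrs (S.sh h3) S.n (outK S.hH S.dis s r)} {l0 : E → J}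
  {c : κ} {a : C} {j : ℕ} {w x y : E}

/-- the conclusions of `Dfi_539.exists_towers` -/
structure TwOut (S : Sla T κ) (h3 : finrank ℝ E = 3) (s : GSt (meshC T h3) fam) (r : J → E)
    (v0 v1 : ∀ c, C → VxK T S.K c) (L : ∀ c, C → Lev T (frontier (S.K c)) J)
    (Tw : Twrs (S.sh h3) S.n (outK S.hH S.dis s r)) : Prop where
  bot : ∀ c a, ((Tw.tw c a).pat (S.n c)).P = (exa h3 S.hH S.dis (L c a)).P ∧
    (∀ w ∈ (exa h3 S.hH S.dis (L c a)).P,
      ((Tw.tw c a).pat (S.n c)).lab w = (exa h3 S.hH S.dis (L c a)).lab w) ∧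
    ∀ F, ∀ w ∈ (exa h3 S.hH S.dis (L c a)).P, w ∈ (S.sh h3 c).sph.On F →
      ((Tw.tw c a).pat (S.n c)).mu F w = (exa h3 S.hH S.dis (L c a)).mu F w
  top : ∀ c a, (Tw.tw c a).pat 0 = trc S.hH S.dis s r c a
  fits : ∀ c a j, Fits (trc S.hH S.dis s r c a) (exa h3 S.hH S.dis (L c a)) ((Tw.tw c a).pat j)
  rgn : ∀ c a j, ∀ v ∈ ((Tw.tw c a).mv j).Qv,
    Rgn (S.sh h3 c) (v0 c a) (v1 c a) (trc S.hH S.dis s r c a)
      (exa h3 S.hH S.dis (L c a)) ((Tw.tw c a).mv j).i0 v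

/-! ### empty patterns -/

/-- an exact pattern has the families with `nb` only -/
theorem exa_nb (lo : LevOut s nb u A B L) (hw : w ∈ (exa h3 S.hH S.dis (L c a)).P) :
    nb c a ∧ fam ((exa h3 S.hH S.dis (L c a)).lab w) = a := by
  have h := (lo.mem c a _).1 (exa_lab (L c a) hw).1
  exact ⟨h.2, h.1⟩

theorem trc_nb (D : DIn S.hH s r Sf nb v0 v1 u A B) (hw : w ∈ (trc S.hH S.dis s r c a).P) :
    nb c a := by
  obtain ⟨h1, h2, h4⟩ := trc_P hw
  exact h4 ▸ D.far c w h1 h2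

theorem pat_nb (D : DIn S.hH s r Sf nb v0 v1 u A B) (lo : LevOut s nb u A B L)
    (tt : TwOut S h3 s r v0 v1 L Tw) (hw : w ∈ ((Tw.tw c a).pat j).P) : nb c a := by
  rcases tt.fits c a j w hw with h | h
  · exact trc_nb D h.1
  · exact (exa_nb lo h.1).1

theorem qv_nb (D : DIn S.hH s r Sf nb v0 v1 u A B) (tt : TwOut S h3 s r v0 v1 L Tw)
    {v : S.Vx c} (hv : v ∈ ((Tw.tw c a).mv j).Qv) : nb c a := by
  rcases tt.rgn c a j v hv with ⟨w, hw, _⟩ | ⟨w, hw, _⟩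
  · exact trc_nb D hw
  · exact trc_nb D hw

/-! ### roots, outer part -/

theorem outK_mem (hw : w ∈ (outK S.hH S.dis s r).P) : w ∈ s.P := hw.1

/-- the roots -/
theorem root2 (D : DIn S.hH s r Sf nb v0 v1 u A B) (i : J) :
    r i ∈ (s2 S h3 Tw l0).P ∧ (s2 S h3 Tw l0).lab (r i) = i := by
  have h1 : r i ∈ (outK S.hH S.dis s r).P := by
    refine ⟨(D.root i).1, ?_⟩
    rw [(D.root i).2]
  refine ⟨mem_old h1, (lab_old h1).trans ?_⟩
  exact (D.root i).2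

/-- `H¹` and connectedness -/
theorem h12 (D : DIn S.hH s r Sf nb v0 v1 u A B) (i : J) :
    (s2 S h3 Tw l0).H1 i ∧ (s2 S h3 Tw l0).Conn i :=
  ⟨s2_h1 (outer_h1 s _ _ r i (D.h1 i)),
    s2_conn (outer_conn s _ _ r i (D.root i).1 (D.root i).2)⟩

/-- **outside the open cores** -/
theorem out2 (hw : w ∈ (s2 S h3 Tw l0).P) (ho : S.Out w) :
    w ∈ s.P ∧ (s2 S h3 Tw l0).lab w = s.lab w ∧ w ∈ (outK S.hH S.dis s r).P := by
  obtain ⟨h1, h2⟩ := s2_out hw ho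
  exact ⟨h1.1, h2, h1⟩

/-- in particular on the tiles outside the cores -/
theorem out2_tile (hw : w ∈ (s2 S h3 Tw l0).P) {i : ι} (hi : ∀ c, ¬ P (T.H i) ⊆ S.K c)
    (hwi : w ∈ P (T.H i)) : w ∈ s.P ∧ (s2 S h3 Tw l0).lab w = s.lab w :=
  ⟨(out2 hw (Sla.out_of_tile hi hwi)).1, (out2 hw (Sla.out_of_tile hi hwi)).2.1⟩

/-! ### the cores -/

/-- **inside a core** -/
theorem in2 (D : DIn S.hH s r Sf nb v0 v1 u A B) (lo : LevOut s nb u A B L)
    (tt : TwOut S h3 s r v0 v1 L Tw) (hw : w ∈ (s2 S h3 Tw l0).P) (hc : S.In c w) :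
    nb c (fam ((s2 S h3 Tw l0).lab w)) ∧
    ((∃ j q, 0 < j ∧ j ≤ S.n c ∧ q ∈ ((Tw.tw c (fam ((s2 S h3 Tw l0).lab w))).pat j).P ∧
      w = S.hp c j q ∧ q ∈ frontier (S.K c) ∧ T.dim q = 1 ∧
      ((q ∈ (trc S.hH S.dis s r c (fam ((s2 S h3 Tw l0).lab w))).P ∧ q ∈ s.P ∧
          (s2 S h3 Tw l0).lab w = s.lab q) ∨
        (q ∈ (exa h3 S.hH S.dis (L c (fam ((s2 S h3 Tw l0).lab w)))).P ∧
          (s2 S h3 Tw l0).lab w =
            (exa h3 S.hH S.dis (L c (fam ((s2 S h3 Tw l0).lab w)))).lab q))) ∨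
    ∃ j, ∃ v : S.Vx c, j < S.n c ∧ v ∈ ((Tw.tw c (fam ((s2 S h3 Tw l0).lab w))).mv j).Qv ∧
      w = S.vc c v.1 j ∧
      Rgn (S.sh h3 c) (v0 c (fam ((s2 S h3 Tw l0).lab w))) (v1 c (fam ((s2 S h3 Tw l0).lab w)))
        (trc S.hH S.dis s r c (fam ((s2 S h3 Tw l0).lab w)))
        (exa h3 S.hH S.dis (L c (fam ((s2 S h3 Tw l0).lab w)))) ((s2 S h3 Tw l0).lab w) v) := by
  rcases s2_in hw hc with ⟨a, j, q, h1, h2, h4, h5, h6, h7⟩ | ⟨a, j, v, h1, h2, h4, h5, h6⟩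
  · refine ⟨h7 ▸ pat_nb D lo tt h4, Or.inl ⟨j, q, h1, h2, h7.symm ▸ h4, h5, ?_, ?_, ?_⟩⟩
    · obtain ⟨e, he⟩ := pat_onE h4
      exact Sla.ed_opn_fr e he
    · obtain ⟨e, he⟩ := pat_onE h4
      exact Sla.ed_opn_dim e he
    · rw [h7]
      rcases tt.fits c a j q h4 with ⟨g1, g2, -⟩ | ⟨g1, g2, -⟩
      · exact Or.inl ⟨g1, (trc_P g1).1, h6.trans g2⟩
      · exact Or.inr ⟨g1, h6.trans g2⟩
  · refine ⟨h6 ▸ qv_nb D tt h2, Or.inr ⟨j, v, h1, h6.symm ▸ h2, h4, ?_⟩⟩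
    rw [h6, h5]
    exact tt.rgn c a j v h2

/-- **in a closed core only the families which pass it** -/
theorem nb2 (D : DIn S.hH s r Sf nb v0 v1 u A B) (lo : LevOut s nb u A B L)
    (tt : TwOut S h3 s r v0 v1 L Tw) (hw : w ∈ (s2 S h3 Tw l0).P) (hc : w ∈ S.K c) :
    nb c (fam ((s2 S h3 Tw l0).lab w)) := by
  rcases s2_cases hw hc with ⟨h1, h2, h4⟩ | h
  · rw [h4]
    exact D.far c w h2.1 h1
  · exact (in2 D lo tt hw h).1

/-- **the exact pattern on the boundary of the shrunk core**: points -/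
theorem gi2 (tt : TwOut S h3 s r v0 v1 L Tw)
    (hw : w ∈ (exa h3 S.hH S.dis (L c a)).P) :
    S.hp c (S.n c) w ∈ (s2 S h3 Tw l0).P ∧
      (s2 S h3 Tw l0).lab (S.hp c (S.n c) w) = (exa h3 S.hH S.dis (L c a)).lab w ∧
      ∀ G : (S.sh h3 c).Fk, w ∈ (S.m0 h3).On G.1 →
        (s2 S h3 Tw l0).mu (hf G (S.n c)) (S.hp c (S.n c) w) =
          S.hp c (S.n c) ((exa h3 S.hH S.dis (L c a)).mu G w) := by
  have hP : w ∈ ((Tw.tw c a).pat (S.n c)).P := by rw [(tt.bot c a).1]; exact hw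
  refine ⟨mem_hp le_rfl hP, (lab_hp le_rfl hP).trans ((tt.bot c a).2.1 w hw), fun G hG => ?_⟩
  rw [mu_hf (S.npos c) le_rfl hP hG, (tt.bot c a).2.2 G w hw hG]

/-- all points on the boundary of the shrunk core -/
theorem gi2' (tt : TwOut S h3 s r v0 v1 L Tw) {G : (S.sh h3 c).Fk}
    (hw : w ∈ (s2 S h3 Tw l0).P) (hF : w ∈ (S.mn h3).On (hf G (S.n c))) :
    ∃ a q, q ∈ (exa h3 S.hH S.dis (L c a)).P ∧ q ∈ (S.m0 h3).On G.1 ∧ w = S.hp c (S.n c) q ∧
      (s2 S h3 Tw l0).lab w = (exa h3 S.hH S.dis (L c a)).lab q ∧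
      (s2 S h3 Tw l0).mu (hf G (S.n c)) w =
        S.hp c (S.n c) ((exa h3 S.hH S.dis (L c a)).mu G q) := by
  obtain ⟨a, q, h1, h2, h4, h5⟩ := on_hf (S.npos c) le_rfl hw hF
  have hq : q ∈ (exa h3 S.hH S.dis (L c a)).P := by rw [← (tt.bot c a).1]; exact h1
  refine ⟨a, q, hq, h2, h4, ?_, ?_⟩
  · rw [h4, lab_hp le_rfl h1]
    exact (tt.bot c a).2.1 q hq
  · rw [h5, (tt.bot c a).2.2 G q hq h2]

/-! ### faces outside the cores -/

/-- **a face with a side outside the cores is an old face** -/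
theorem face_out (F : S.Fn h3) {i : ι} (hi : ∀ c, ¬ P (T.H i) ⊆ S.K c)
    (hF : Sum.inl (S.ot i hi) ∈ (S.mn h3).side F) :
    ∃ F0 : S.F0 h3, F = old F0 ∧ Sum.inl i ∈ (S.m0 h3).side F0 ∧ F.1.set = F0.1.set ∧
      i ∈ F0.1.side h3 := by
  obtain ⟨p, hp, hpi⟩ := Sla.mem_sideN.1 hF
  have hp' : p = S.ot i hi := by
    unfold piK at hpi
    split_ifs at hpi with h
    · exact Sum.inl_injective hpi
  subst hp'
  have hpt : F.1.pt ∈ P (T.H i) := by rw [← Sla.ot_P hi]; exact hp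
  have hout : S.Out F.1.pt := Sla.out_of_tile hi hpt
  rcases faces F with ⟨F0, rfl⟩ | ⟨c, G, j, h1, h2, rfl⟩ | ⟨c, e, j, h1, rfl⟩
  · have hO : F0.1.pt ∈ Om := F0.1.pt_mem
    have hat : i ∈ T.at_ F0.1.pt := by
      have h1 : (old F0).1.pt ∈ S.T3.oc F0.1.pt :=
        Slc_184.mk2_pt F0.1.pt_mem ((Sla.F0.out F0).dim.trans F0.1.dim_pt)
      rw [(Sla.F0.out F0).oc] at h1
      rw [← T.at_eq_of_mem_oc hO h1]
      exact hpt
    have hpiK : piK T S.K i = Sum.inl i := by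
      unfold piK
      rw [dif_neg]
      rintro ⟨c, hc⟩
      exact hi c hc
    exact ⟨F0, rfl, Sla.mem_side0.2 ⟨i, hat, hpiK⟩, Sla.old_set F0, C2.mem_side.2 hat⟩
  · exfalso
    have h5 : S.OnS c j (hf G j).1.pt := Sla.hf_onS G h2
    exact hout.2 c (h5.bo h1).1
  · exfalso
    have h5 : S.InL c j (vf h3 e j).1.pt := Sla.vf_inL e h1
    exact hout.2 c h5.bo.1

/-- **old faces: points, labels and chords of `s`** -/
theorem mu_out {F0 : S.F0 h3} (hw : w ∈ (s2 S h3 Tw l0).P) (hF : w ∈ (S.mn h3).On (old F0)) :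
    w ∈ s.P ∧ w ∈ F0.1.On ∧ (s2 S h3 Tw l0).lab w = s.lab w ∧
      (s2 S h3 Tw l0).mu (old F0) w = s.mu F0.1 w ∧ w ∈ (outK S.hH S.dis s r).P := by
  obtain ⟨h1, h2⟩ := on_old' hw hF
  exact ⟨h1.1, h2, lab_old h1, mu_old h1 h2, h1⟩

/-- a point of `s` on an old face which is in the outer state -/
theorem mu_out' {F0 : S.F0 h3} (hw : w ∈ (outK S.hH S.dis s r).P) (hF : w ∈ F0.1.On) :
    w ∈ (s2 S h3 Tw l0).P ∧ w ∈ (S.mn h3).On (old F0) ∧ (s2 S h3 Tw l0).lab w = s.lab w ∧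
      (s2 S h3 Tw l0).mu (old F0) w = s.mu F0.1 w := by
  refine ⟨mem_old hw, ?_, lab_old hw, mu_old hw hF⟩
  rw [Sla.on_old F0]
  exact hF

/-! ### finiteness -/

/-- **finitely many points on every face** -/
theorem fin2 (D : DIn S.hH s r Sf nb v0 v1 u A B) (lo : LevOut s nb u A B L)
    (tt : TwOut S h3 s r v0 v1 L Tw) (hfin : ∀ F : C2 T, (s.P ∩ F.On).Finite) (F : S.Fn h3) :
    ((s2 S h3 Tw l0).P ∩ (S.mn h3).On F).Finite := by
  rcases faces F with ⟨F0, rfl⟩ | ⟨c, G, j, h1, h2, rfl⟩ | ⟨c, e, j, h1, rfl⟩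
  · refine (hfin F0.1).subset ?_
    rintro w ⟨hw, hF⟩
    have h := mu_out hw hF
    exact ⟨h.1, h.2.1⟩
  · refine ((D.nb_c c).biUnion (t := fun a => S.hp c j '' ((Tw.tw c a).pat j).P)
      fun a _ => (((Tw.tw c a).pat j).P.finite_toSet).image _).subset ?_
    rintro w ⟨hw, hF⟩
    obtain ⟨a, q, g1, _, g3, _⟩ := on_hf h1 h2 hw hF
    have hn : nb c a := pat_nb D lo tt g1
    exact mem_biUnion (show a ∈ {a | nb c a} from hn) ⟨q, g1, g3.symm⟩
  · refine ((D.nb_c c).biUnion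
      (t := fun a => Twrs.emb (S.cols h3) c j '' (((Tw.tw c a).mv j).P' : Set (S.sh h3 c).Pnt))
      fun a _ => ((((Tw.tw c a).mv j).P').finite_toSet).image _).subset ?_
    rintro w ⟨hw, hF⟩
    obtain ⟨a, x0, g1, _, g3, _⟩ := on_vf h1 hw hF
    have hn : nb c a := by
      rcases x0 with q | q | v
      · exact pat_nb D lo tt (((Tw.tw c a).mv j).top_mem_P'.1 g1)
      · exact pat_nb D lo tt (Twrs.mem_B.1 (((Tw.tw c a).mv j).bot_mem_P'.1 g1))
      · exact qv_nb D tt (((Tw.tw c a).mv j).vert_mem_P'.1 g1)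
    exact mem_biUnion (show a ∈ {a | nb c a} from hn) ⟨x0, g1, g3.symm⟩

/-- finitely many points in every closed core -/
theorem fin2_core (D : DIn S.hH s r Sf nb v0 v1 u A B) (lo : LevOut s nb u A B L)
    (tt : TwOut S h3 s r v0 v1 L Tw) (c : κ) : {w | w ∈ (s2 S h3 Tw l0).P ∧ w ∈ S.K c}.Finite := by
  refine ((D.nb_c c).biUnion
    (t := fun a => {w | w ∈ (s2 S h3 Tw l0).P ∧ fam ((s2 S h3 Tw l0).lab w) = a})
    fun a _ => (s2 S h3 Tw l0).fin a).subset ?_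
  rintro w ⟨h1, h2⟩
  exact mem_biUnion (show fam ((s2 S h3 Tw l0).lab w) ∈ {a | nb c a} from nb2 D lo tt h1 h2)
    ⟨h1, rfl⟩

/-! ### supports -/

/-- **the supports of `labIn_KD`** -/
theorem supp2 (D : DIn S.hH s r Sf nb v0 v1 u A B) (lo : LevOut s nb u A B L)
    (tt : TwOut S h3 s r v0 v1 L Tw) {Dd : C → Set E}
    (hs : ∀ w ∈ s.P, ∀ q, w ∈ P (T.H q) → P (T.H q) ⊆ interior (Dd (fam (s.lab w))))
    (hK : ∀ c a, nb c a → S.K c ⊆ interior (Dd a)) (hw : w ∈ (s2 S h3 Tw l0).P) :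
    (∀ q, w ∈ P (S.T3.H q) → P (S.T3.H q) ⊆ interior (Dd (fam ((s2 S h3 Tw l0).lab w)))) ∧
      ∀ c, w ∈ S.K c → S.K c ⊆ interior (Dd (fam ((s2 S h3 Tw l0).lab w))) := by
  have h1 : ∀ c, w ∈ S.K c → S.K c ⊆ interior (Dd (fam ((s2 S h3 Tw l0).lab w))) := fun c hc =>
    hK c _ (nb2 D lo tt hw hc)
  refine ⟨fun q hq => ?_, h1⟩
  rcases Sla.tile_or S q.tile with h | ⟨c, hc⟩
  · have h2 : w ∈ P (T.H q.tile) := Sla.P3_sub q hq
    obtain ⟨h4, h5⟩ := out2_tile hw h h2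
    rw [h5]
    exact (Sla.P3_sub q).trans (hs w h4 _ h2)
  · have h2 : P (S.T3.H q) ⊆ S.K c := Sla.P3_K.2 hc
    exact h2.trans (h1 c (h2 hq))

end Crest.Agent.R096.Dfi_471
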