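import Crest.Agent.R096.Ess6_95

/-!
# Row 96, DOORS, (E-S) (helper95), part 7: **`EG` from the literal data of the machine**

`exists_EG` : for 543's truthful state `st0 hG bp`, a tiny core `c`, a sheet `j` of a neighbour.
-/

set_option autoImplicit false
set_option linter.unusedSectionVars false

open Set Topology Filter Metric Module
open scoped Classical

namespace Crest.Agent.R096.Ess7_95

open Crest.Agent.R096.Msh_715 Crest.Agent.R096.Coh_184 Crest.Agent.R096.Bsp_628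
  Crest.Agent.R096.Brk1_582 Crest.Agent.R096.Brk2_582 Crest.Agent.R096.Brk3_582
  Crest.Agent.R096.Brk5_582 Crest.Agent.R096.Init_543 Crest.Agent.R096.Mbf_337
  Crest.Agent.R96.Push_899 Crest.Agent.R096.Ess1_95 Crest.Agent.R096.Ess4_95
  Crest.Agent.R096.Ess5_95 Crest.Agent.R096.Ess6_95 Crest.Agent.R096.Lab_184
  Crest.Agent.R096.Main_4 Crest.Agent.R096.Exa_560 Crest.Agent.R096.Agl5_543
  Crest.Agent.R096.Agl6_543

open Crest.Agent.R096.SkC1_961 (E3 Hom3 IsPush FoamD)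
open Crest.Agent.R096.Ce_537 (PLEquiv IsBall)

variable {δ κ0 R c0 : ℝ} {La Om : Set E3} {ι : Type} {Φ : FoamD δ κ0 R c0 La}
  {T : Tiling Om ι} {f g : E3 → E3} {κ1 κ2 : ℝ} {X : Set Φ.F} {J0 J V : Φ.F → Set ι}
  {ct ct' : Φ.F → ι} {A : Φ.F → E3 ≃ᵃ[ℝ] E3} {lam : Φ.F → ℝ} {z : Φ.F → E3}
  {θ : Φ.F → E3 → E3} {φ : Φ.F → E3 → ℝ} {r₀ : Φ.F → ℝ}
  {ρ1 ρ2 ρ3 ρ4 d : Φ.F → ℝ}

/-- **(G4)**: the level `t` of the family `a` minus an open disc at the tiny core `c` -/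
def G4 (Φ : FoamD δ κ0 R c0 La) (r₀ : Φ.F → ℝ) (c : Φ.F) (ρ : ℝ) : Prop :=
  ∀ (a : Φ.F) (t r : ℝ), 0 < t → t < 1 → 0 < r → r ≤ ρ →
    (∀ y ∈ c.1.set, rdF Φ c y < r₀ c → ga Φ c y < r) →
    IsPreconnected {y | y ∈ La ∧ sc (Pc Φ.F) (bc (F := Φ.F)) (RF Φ r₀ y) a = t ∧
      (y ∈ c.1.set → r ≤ ga Φ c y)}

/-- the sheet `j` -/
abbrev Sh (Om : Set E3) (Φ : FoamD δ κ0 R c0 La) (r₀ : Φ.F → ℝ) (f : E3 → E3)
    {L : Φ.F → Finset ℝ} (j : JJ Φ L) : Set E3 :=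
  shS Om (Pc Φ.F) (bc (F := Φ.F)) (RF Φ r₀) f (fun j : JJ Φ L => j.1) (fun j => j.2.1) j

/-- the tiny cores -/
abbrev KT (T : Tiling Om ι) (J : Φ.F → Set ι) (X : Set Φ.F) : {c : Φ.F // c ∉ X} → Set E3 :=
  fun c => KJ T (J c.1)

/-- `EG` from the label clause `hlab` -/
theorem exists_EG0 (hLa : IsOpen La) (hδ : 0 < δ) (hR0 : 0 < R)
    (hC : Cores Φ T f κ1 κ2 X J0 J V ct A lam z θ φ) (hI : InitR Φ T f g J0 ct' r₀)
    (rm : ∀ c ∉ X, Rm Φ T f c (J0 c) (J c) (V c) (θ c) (ρ1 c) (ρ2 c) (ρ3 c) (ρ4 c) (d c))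
    (hdk : ∀ c ∉ X, d c ≤ κ1) (hga : ∀ c ∉ X, GA Φ c (ρ4 c)) (hg4 : ∀ c ∉ X, G4 Φ r₀ c (ρ4 c))
    {L : Φ.F → Finset ℝ} [Nonempty (JJ Φ L)] (hG : GF Φ r₀ T f L) {bp : JJ Φ L → E3} {μ : ℝ}
    (hμ : 0 < μ) (hκ0 : 0 < κ1) (hκ : 8 * ((Cn δ R + 1) * κ1) ≤ μ) (hμ1 : μ ≤ 1) (j : JJ Φ L)
    (hj : μ ≤ j.2.1 ∧ (j.2.1 : ℝ) ≤ 1 - μ) (c : {c : Φ.F // c ∉ X}) (hac : j.1 ≠ c.1)
    (hne : (Pc Φ.F c.1 ∩ Pc Φ.F j.1).Nonempty) {v0 v1 : VxK T (KT T J X) c}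
    (hv0 : sb Φ (θ c v0.1) j.1 ≤ μ / 2) (hv1 : 1 - μ / 2 ≤ sb Φ (θ c v1.1) j.1) {r : E3}
    (hr : r ∈ Sh Om Φ r₀ f j) (hrq : ∃ q, r ∈ P (T.H q) ∧ ∀ c ∉ X, q ∉ V c)
    {lm : E3 → ZMod 2} (hlam : IsLab T (gPts (st0 hG bp) j) lm)
    (hlab : ∀ q, ∀ x ∈ P (T.H q), ρ1 c ≤ ga Φ c (f x) → ga Φ c (f x) ≤ ρ4 c →
      ∀ v ∈ P (T.H q), T.dim v = 0 → (Φ.lev j.1 (f x) ≤ μ / 4 → lm v = 1) ∧
        (1 - μ / 4 ≤ Φ.lev j.1 (f x) → lm v = 0)) :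
    Nonempty (EG (st0 hG bp) j (Sh Om Φ r₀ f j) (KT T J X) c v0 v1 r) := by
  have H := hI.hm
  have FF := foam4 Φ hLa
  have hsub : ∀ c : Φ.F, c.1.set ⊆ La := fun c => FF.sub c
  have hTc := hC.tiny c.1 c.2
  have hr1 := rm c.1 c.2
  have hG1 := hga c.1 c.2
  have hpt := hTc.pt
  have hd := hr1.d0
  have hCn : 0 ≤ Cn δ R := Cn_nonneg hδ hR0
  have hCk : 0 ≤ Cn δ R * κ1 := mul_nonneg hCn hκ0.le
  have hCk8 : 8 * (Cn δ R * κ1) + 8 * κ1 ≤ μ := by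
    have : 8 * ((Cn δ R + 1) * κ1) = 8 * (Cn δ R * κ1) + 8 * κ1 := by ring
    linarith
  have hdκ := hdk c.1 c.2
  have h12 := hr1.r12
  have h23 := hr1.r23
  have h34 := hr1.r34
  have h4 := hr1.r4
  have h01 := hr1.r1
  have hCκ : Cn δ R * κ1 < 1 := by linarith
  have hcore : CoreH T (KJ T (J c.1)) := coreH_tiny hTc
  have hcl := hcore.cpt.isClosed
  have hKloc : ∀ x ∈ KJ T (J c.1), ga Φ c.1 (f x) ≤ ρ3 c.1 := fun x hx =>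
    K_loc H (hsub c.1) hG1 hr1 hTc.sub hcl hTc.inside hx
  have hKint : ∀ x ∈ Om, ga Φ c.1 (f x) < ρ2 c.1 → x ∈ interior (KJ T (J c.1)) := fun x hx h =>
    K_int H (hsub c.1) hG1 hr1 hTc.sub0 hcl hTc.mem hx h
  have hopen : ∀ y, ga Φ c.1 y < 1 → ∀ k, c.1.1.lo k < y k ∧ y k < c.1.1.hi k := hG1.lt_one
  have hmemc : ∀ y, ga Φ c.1 y ≤ 1 → y ∈ c.1.1.set := fun y hy => (hG1.one y).1 hy
  -- points of the sheet
  have hpts : ∀ u ∈ (st0 hG bp).P, (st0 hG bp).lab u = j → u ∈ Sh Om Φ r₀ f j ∧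
      Φ.lev j.1 (f u) = j.2.1 := by
    intro u hu hl
    have h1 := st0_mem hLa hI hu
    have h2 := hG.mem_lab hu.1
    have h3 : labf (fun j : JJ Φ L => Sh Om Φ r₀ f j) u = j := hl
    refine ⟨?_, ?_⟩
    · have : u ∈ Sh Om Φ r₀ f (labf (fun j : JJ Φ L => Sh Om Φ r₀ f j) u) := h2
      rwa [h3] at this
    · have h4 := h1.2.2
      rw [hl] at h4
      exact h4
  -- sets over the brick
  have hfc : frontier c.1.1.set = {q | q ∈ Pc Φ.F c.1 ∧ ∃ d, d ≠ c.1 ∧ q ∈ Pc Φ.F d} :=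
    frontier_c Φ hLa c.1
  have hAlo := Etg_163.frontier_le Φ hLa (a := j.1) (c := c.1) hac
    (by obtain ⟨q, h1, h2⟩ := hne; exact ⟨q, h2, h1⟩) (t := μ / 4) (by linarith) (by linarith)
  have hAhi := Etg_163.frontier_ge Φ hLa (a := j.1) (c := c.1) hac
    (by obtain ⟨q, h1, h2⟩ := hne; exact ⟨q, h2, h1⟩) (t := 1 - μ / 4) (by linarith)
    (by linarith)
  have hBlo := Etg_163.frontier_le Φ hLa (a := j.1) (c := c.1) hac
    (by obtain ⟨q, h1, h2⟩ := hne; exact ⟨q, h2, h1⟩) (t := μ / 2) (by linarith) (by linarith)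
  have hBhi := Etg_163.frontier_ge Φ hLa (a := j.1) (c := c.1) hac
    (by obtain ⟨q, h1, h2⟩ := hne; exact ⟨q, h2, h1⟩) (t := 1 - μ / 2) (by linarith)
    (by linarith)
  set Alo : Set E3 := {q | q ∈ frontier c.1.1.set ∧
    sc (Pc Φ.F) (bc (F := Φ.F)) q j.1 ≤ μ / 4} with hAlo'
  set Ahi : Set E3 := {q | q ∈ frontier c.1.1.set ∧
    1 - μ / 4 ≤ sc (Pc Φ.F) (bc (F := Φ.F)) q j.1} with hAhi'
  let AA : Bool → Set E3 := fun i => if i then Ahi else Alo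
  have hAAf : ∀ i, AA i ⊆ frontier c.1.1.set := by
    intro i q hq
    cases i
    · exact hq.1
    · exact hq.1
  have hAAc : ∀ i, IsPreconnected (AA i) := by
    intro i
    cases i
    · exact hAlo.1
    · exact hAhi.1
  have hAAn : ∀ i, (AA i).Nonempty := by
    intro i
    cases i
    · exact hAlo.2.2
    · exact hAhi.2.2
  let rD : ℝ := ρ1 c.1 + 8 * d c.1
  let rF : ℝ := ρ3 c.1 + 8 * d c.1
  have hrD : rD = ρ1 c.1 + 8 * d c.1 := rfl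
  have hrF : rF = ρ3 c.1 + 8 * d c.1 := rfl
  -- the oscillation on a tile
  have hosc : ∀ q, ∀ x ∈ P (T.H q), ρ1 c.1 ≤ ga Φ c.1 (f x) → ga Φ c.1 (f x) ≤ ρ4 c.1 →
      ∀ y ∈ P (T.H q), (ga Φ c.1 (f x) - d c.1 ≤ ga Φ c.1 (f y) ∧
        ga Φ c.1 (f y) ≤ ga Φ c.1 (f x) + d c.1) ∧
        Φ.lev j.1 (f x) - d c.1 ≤ Φ.lev j.1 (f y) ∧ Φ.lev j.1 (f y) ≤ Φ.lev j.1 (f x) + d c.1 := by
    intro q x hx h1 h5 y hy
    obtain ⟨g1, -, g3⟩ := hr1.tile_osc hx h1 h5 hy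
    have g4 := abs_le.1 g1
    have g5 := abs_le.1 (g3 j.1)
    exact ⟨⟨by linarith [g4.2], by linarith [g4.1]⟩, by linarith [g5.2], by linarith [g5.1]⟩
  -- L
  let Lh : Bool → Set E3 := fun i => {y | y ∈ c.1.1.set ∧ rD ≤ ga Φ c.1 y ∧ ga Φ c.1 y ≤ rF ∧
    Φ.Psi y ∈ AA i}
  have hLhL : ∀ i, Lh i ⊆ La := fun i y hy => hsub c.1 hy.1
  have hLhc : ∀ i, IsPreconnected (Lh i) := fun i => hG1.shell (AA i) (hAAf i) (hAAc i) rD rF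
    (by rw [hrD]; linarith) (by rw [hrD, hrF]; linarith) (by rw [hrF]; linarith)
  have hLlev : ∀ x, x ∈ Lh false → Φ.lev j.1 x ≤ μ / 4 := fun x hx => hx.2.2.2.2
  have hHlev : ∀ x, x ∈ Lh true → 1 - μ / 4 ≤ Φ.lev j.1 x := fun x hx => hx.2.2.2.2
  have hLex : ∀ i, ∀ ρ, rD ≤ ρ → ρ ≤ rF → ∃ x ∈ Om, f x ∈ Lh i ∧ ga Φ c.1 (f x) = ρ := by
    intro i ρ h1 h2
    obtain ⟨q, hq⟩ := hAAn i
    obtain ⟨y, hy, hy1, hy2⟩ := hG1.ex q (hAAf i hq) ρ (by rw [hrD] at h1; linarith)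
      (by rw [hrF] at h2; linarith)
    refine ⟨g y, H.gm (hsub c.1 hy), ?_, ?_⟩
    · rw [H.fg y (hsub c.1 hy)]
      exact ⟨hy, by rw [hy1]; exact h1, by rw [hy1]; exact h2, by rw [hy2]; exact hq⟩
    · rw [H.fg y (hsub c.1 hy), hy1]
  -- Z
  obtain ⟨e, he⟩ := hTc.bij
  let ZB : Bool → Set E3 := fun i => if i then {q | q ∈ frontier c.1.1.set ∧
    1 - μ / 2 ≤ sc (Pc Φ.F) (bc (F := Φ.F)) q j.1} else {q | q ∈ frontier c.1.1.set ∧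
    sc (Pc Φ.F) (bc (F := Φ.F)) q j.1 ≤ μ / 2}
  have hZBf : ∀ i, ZB i ⊆ frontier c.1.1.set := by
    intro i q hq
    cases i
    · exact hq.1
    · exact hq.1
  have hZBc : ∀ i, IsPreconnected (ZB i) := by
    intro i
    cases i
    · exact hBlo.1
    · exact hBhi.1
  have hZmem : ∀ i, ∀ x ∈ frontier (KJ T (J c.1)), θ c.1 x ∈ ZB i → x ∈ e.g '' ZB i := by
    intro i x hx hxZ
    refine ⟨θ c.1 x, hxZ, ?_⟩
    rw [← he x hx]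
    exact e.li x hx
  have hZinv : ∀ i, ∀ x ∈ e.g '' ZB i, x ∈ frontier (KJ T (J c.1)) ∧ θ c.1 x ∈ ZB i := by
    rintro i _ ⟨q, hq, rfl⟩
    have h1 := e.mg (hZBf i hq)
    refine ⟨h1, ?_⟩
    rw [← he _ h1, e.ri q (hZBf i hq)]
    exact hq
  have hnear : ∀ x ∈ frontier (KJ T (J c.1)),
      Φ.lev j.1 (f x) - Cn δ R * κ1 ≤ sb Φ (θ c.1 x) j.1 ∧
      sb Φ (θ c.1 x) j.1 ≤ Φ.lev j.1 (f x) + Cn δ R * κ1 := by
    intro x hx
    have h1 := abs_le.1 (tiny_near hLa hδ hR0 hCκ hTc hx j.1)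
    exact ⟨by linarith [h1.1], by linarith [h1.2]⟩
  have hfrO : ∀ x ∈ frontier (KJ T (J c.1)), x ∈ Om := fun x hx =>
    hcore.sub (hcl.frontier_subset hx)
  -- the ring
  obtain ⟨hringc, -⟩ := Exc_965.isPreconnected_ring Φ.bf hLa (by simp) hac hne
    (t := j.2.1) (by linarith [hj.1]) (by linarith [hj.2])
  have hringf : Exc_965.ring (Pc Φ.F) (bc (F := Φ.F)) c.1 j.1 j.2.1 ⊆ frontier c.1.1.set := by
    rw [Exc_965.ring_eq_frontier FF]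
    exact fun q hq => hq.1
  let Gd : Set E3 := {y | y ∈ c.1.1.set ∧ rD - 2 * d c.1 ≤ ga Φ c.1 y ∧
    ga Φ c.1 y ≤ rD + 2 * d c.1 ∧ Φ.Psi y ∈ Exc_965.ring (Pc Φ.F) (bc (F := Φ.F)) c.1 j.1 j.2.1}
  have hGdc : IsPreconnected Gd := hG1.shell _ hringf hringc _ _ (by rw [hrD]; linarith)
    (by linarith) (by rw [hrD]; linarith)
  have hGdL : Gd ⊆ La := fun y hy => hsub c.1 hy.1
  have hGdS : Om ∩ f ⁻¹' Gd ⊆ Sh Om Φ r₀ f j := by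
    rintro x ⟨hxO, hx1, hx2, hx3, hx4⟩
    refine ⟨hxO, ?_⟩
    have h5 : ρ1 c.1 ≤ ga Φ c.1 (f x) := by rw [hrD] at hx2; linarith
    have h6 : ga Φ c.1 (f x) < 1 := by rw [hrD] at hx3; linarith
    exact (vF_eq hLa hC hI hr1.j0 hxO (hopen _ h6) h5 j.1).trans hx4.2.2
  -- the discs
  let Gout : Φ.F → Set E3 := fun c' => {y | y ∈ La ∧
    sc (Pc Φ.F) (bc (F := Φ.F)) (RF Φ r₀ y) j.1 = j.2.1 ∧
    (y ∈ c'.1.set → ρ3 c' + 6 * d c' ≤ ga Φ c' y)}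
  have hGoc : ∀ c' ∉ X, IsPreconnected (Om ∩ f ⁻¹' Gout c') := by
    intro c' hc'
    have hr' := rm c' hc'
    have e1 := hr'.d0
    have e2 := hr'.r12
    have e3 := hr'.r23
    have e4 := hr'.r34
    have e5 := hr'.r1
    refine H.preconn_pre (fun y hy => hy.1) (hg4 c' hc' j.1 j.2.1 (ρ3 c' + 6 * d c')
      (by linarith [hj.1]) (by linarith [hj.2]) (by linarith) (by linarith) fun y hy hyr => ?_)
    exact cap_lt hsub hI hr'.j0 (by linarith) hy hyr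
  have hGoS : ∀ c', Om ∩ f ⁻¹' Gout c' ⊆ Sh Om Φ r₀ f j := fun c' x hx => ⟨hx.1, hx.2.2.1⟩
  have hGoK : ∀ c' ∉ X, ∀ x ∈ Om ∩ f ⁻¹' Gout c', x ∉ KJ T (J c') := by
    rintro c' hc' x ⟨hxO, hx1, hx2, hx3⟩ hxK
    have hT' := hC.tiny c' hc'
    have hr' := rm c' hc'
    have hxV : x ∈ KJ T (V c') := KJ_mono hT'.sub hxK
    have h5 := hT'.inside x hxV
    have h6 := hx3 ⟨fun k => (h5 k).1.le, fun k => (h5 k).2.le⟩
    have h7 := K_loc H (hsub c') (hga c' hc') hr' hT'.sub (coreH_tiny hT').cpt.isClosed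
      hT'.inside hxK
    linarith [hr'.d0]
  have hGor : ∀ c' ∉ X, r ∈ Om ∩ f ⁻¹' Gout c' := by
    intro c' hc'
    obtain ⟨q, hq, hqV⟩ := hrq
    refine ⟨hr.1, H.fm hr.1, hr.2, fun hrc => ?_⟩
    have hr' := rm c' hc'
    by_contra hcon
    push Not at hcon
    exact hqV c' hc' (hr'.v q ⟨r, hq, by linarith [hr'.d0, hr'.r34]⟩)
  have hgaS : ∀ ρ, 0 < ρ → ρ ≤ 1 → {y | ga Φ c.1 y = ρ} ⊆ La := fun ρ _ h1 y hy =>
    hsub c.1 (hmemc y (by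
      have : ga Φ c.1 y = ρ := hy
      linarith))
  have hS0L : {y | ga Φ c.1 y ≤ ρ4 c.1} ⊆ La := fun y hy => hsub c.1 (hmemc y (by
    have : ga Φ c.1 y ≤ ρ4 c.1 := hy
    linarith))
  exact ⟨{
    lam := lm
    hlam := hlam
    S0 := Om ∩ f ⁻¹' {y | ga Φ c.1 y ≤ ρ4 c.1}
    S0c := H.isCompact_pre hS0L (hG1.cpt _ (by linarith) (by linarith))
    S0O := inter_subset_left
    S0t := by
      rw [H.pre_eq hS0L]
      exact trivF_convex (hG1.cpt _ (by linarith) (by linarith))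
        (hG1.cvx _ (by linarith) (by linarith)) (H.gc.mono hS0L) (H.injOn.mono hS0L)
    L := fun i => Om ∩ f ⁻¹' Lh i
    Lc := fun i => H.preconn_pre (hLhL i) (hLhc i)
    LO := fun i => inter_subset_left
    LS := by
      rintro i q ⟨x, hxq, hxO, hxL⟩ y hy
      have h5 := hxL.2.1
      have h6 := hxL.2.2.1
      rw [hrD] at h5
      rw [hrF] at h6
      obtain ⟨⟨g1, g2⟩, -⟩ := hosc q x hxq (by linarith) (by linarith) y hy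
      refine ⟨T.sub q hy, ?_⟩
      show ga Φ c.1 (f y) ≤ ρ4 c.1
      linarith
    Ln := by
      rintro i q ⟨x, hxq, hxO, hxL⟩ u hu hul huq
      have h5 := hxL.2.1
      have h6 := hxL.2.2.1
      rw [hrD] at h5
      rw [hrF] at h6
      obtain ⟨-, g1, g2⟩ := hosc q x hxq (by linarith) (by linarith) u huq
      have h7 := (hpts u hu hul).2
      cases i
      · have h8 := hLlev _ hxL
        linarith [hj.1]
      · have h8 := hHlev _ hxL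
        linarith [hj.2]
    Ll := by
      have hv : ∀ i, ∃ v ∈ VM T (Om ∩ f ⁻¹' Lh i), ∃ q, v ∈ P (T.H q) ∧ T.dim v = 0 ∧
          ∃ x ∈ P (T.H q), f x ∈ Lh i ∧ ρ1 c ≤ ga Φ c (f x) ∧ ga Φ c (f x) ≤ ρ4 c := by
        intro i
        obtain ⟨x, hxO, hxL, hx1⟩ := hLex i rD le_rfl (by rw [hrD, hrF]; linarith)
        obtain ⟨q, hq⟩ := T.cov x hxO
        obtain ⟨v, hv, hv0'⟩ := exists_vertex_tile hq
        rw [hrD] at hx1
        exact ⟨v, mem_VM hq ⟨hxO, hxL⟩ hv hv0', q, hv, hv0', x, hq, hxL, by linarith,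
          by linarith⟩
      obtain ⟨v, hvM, q, hvq, hvd, x, hxq, hxL, g1, g2⟩ := hv true
      obtain ⟨v', hvM', q', hvq', hvd', x', hxq', hxL', g1', g2'⟩ := hv false
      refine ⟨v, hvM, v', hvM', ?_⟩
      rw [(hlab q x hxq g1 g2 v hvq hvd).2 (hHlev _ hxL),
        (hlab q' x' hxq' g1' g2' v' hvq' hvd').1 (hLlev _ hxL')]
      exact zero_add 1
    Z := fun i => e.g '' ZB i
    Zc := fun i => (hZBc i).image _ (e.pg.1.mono (hZBf i))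
    Zf := fun i x hx => (hZinv i x hx).1
    Zn := by
      rintro i q ⟨x, hxq, hxZ⟩ u hu hul huq
      obtain ⟨hxf, hxZ'⟩ := hZinv i x hxZ
      obtain ⟨k1, k2⟩ := hr1.fr x hxf
      obtain ⟨-, g1, g2⟩ := hosc q x hxq (by linarith) (by linarith) u huq
      have h7 := (hpts u hu hul).2
      obtain ⟨n1, n2⟩ := hnear x hxf
      cases i
      · have h8 : sb Φ (θ c.1 x) j.1 ≤ μ / 2 := hxZ'.2
        linarith [hj.1]
      · have h8 : 1 - μ / 2 ≤ sb Φ (θ c.1 x) j.1 := hxZ'.2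
        linarith [hj.2]
    LZ := by
      rintro i v ⟨hv0', q, ⟨x, hxq, hxO, hxL⟩, hvq⟩ hvf
      have h5 := hxL.2.1
      have h6 := hxL.2.2.1
      rw [hrD] at h5
      rw [hrF] at h6
      obtain ⟨-, g1, g2⟩ := hosc q x hxq (by linarith) (by linarith) v hvq
      obtain ⟨n1, n2⟩ := hnear v hvf
      refine hZmem i v hvf ?_
      have hth : θ c.1 v ∈ frontier c.1.1.set := th_mem hTc hvf
      cases i
      · have h8 := hLlev _ hxL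
        have h9 : sb Φ (θ c.1 v) j.1 ≤ μ / 2 := by linarith
        exact ⟨hth, h9⟩
      · have h8 := hHlev _ hxL
        have h9 : 1 - μ / 2 ≤ sb Φ (θ c.1 v) j.1 := by linarith
        exact ⟨hth, h9⟩
    Z0 := hZmem false _ v0.2.2 ⟨th_mem hTc v0.2.2, hv0⟩
    Z1 := hZmem true _ v1.2.2 ⟨th_mem hTc v1.2.2, hv1⟩
    D := Om ∩ f ⁻¹' {y | ga Φ c.1 y = rD}
    Dc := H.preconn_pre (hgaS rD (by rw [hrD]; linarith) (by rw [hrD]; linarith))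
      (hG1.eq rD (by rw [hrD]; linarith) (by rw [hrD]; linarith))
    DO := inter_subset_left
    DS := by
      rintro q ⟨x, hxq, hxO, hxD⟩ y hy
      have h5 : ga Φ c.1 (f x) = rD := hxD
      rw [hrD] at h5
      obtain ⟨⟨g1, g2⟩, -⟩ := hosc q x hxq (by linarith) (by linarith) y hy
      refine ⟨T.sub q hy, ?_⟩
      show ga Φ c.1 (f y) ≤ ρ4 c.1
      linarith
    DK := by
      rintro q ⟨x, hxq, hxO, hxD⟩ y hy
      have h5 : ga Φ c.1 (f x) = rD := hxD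
      rw [hrD] at h5
      obtain ⟨⟨g1, g2⟩, -⟩ := hosc q x hxq (by linarith) (by linarith) y hy
      exact hKint y (T.sub q hy) (by linarith)
    LD := by
      intro i
      obtain ⟨x, hxO, hxL, hx1⟩ := hLex i rD le_rfl (by rw [hrD, hrF]; linarith)
      exact ⟨x, ⟨hxO, hxL⟩, hxO, hx1⟩
    F := Om ∩ f ⁻¹' {y | ga Φ c.1 y = rF}
    Fc := H.preconn_pre (hgaS rF (by rw [hrF]; linarith) (by rw [hrF]; linarith))
      (hG1.eq rF (by rw [hrF]; linarith) (by rw [hrF]; linarith))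
    FO := inter_subset_left
    FS := by
      rintro q ⟨x, hxq, hxO, hxD⟩ y hy
      have h5 : ga Φ c.1 (f x) = rF := hxD
      rw [hrF] at h5
      obtain ⟨⟨g1, g2⟩, -⟩ := hosc q x hxq (by linarith) (by linarith) y hy
      refine ⟨T.sub q hy, ?_⟩
      show ga Φ c.1 (f y) ≤ ρ4 c.1
      linarith
    FK := by
      rintro q ⟨x, hxq, hxO, hxD⟩
      have h5 : ga Φ c.1 (f x) = rF := hxD
      rw [hrF] at h5
      rw [Set.eq_empty_iff_forall_notMem]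
      rintro y ⟨hy, hyK⟩
      obtain ⟨⟨g1, g2⟩, -⟩ := hosc q x hxq (by linarith) (by linarith) y hy
      have := hKloc y hyK
      linarith
    LF := by
      intro i
      obtain ⟨x, hxO, hxL, hx1⟩ := hLex i rF (by rw [hrD, hrF]; linarith) le_rfl
      exact ⟨x, ⟨hxO, hxL⟩, hxO, hx1⟩
    Gd := Om ∩ f ⁻¹' Gd
    Gdc := H.preconn_pre hGdL hGdc
    GdS := hGdS
    GdK := by
      rintro q ⟨x, hxq, hxO, hx1, hx2, hx3, hx4⟩ y hy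
      rw [hrD] at hx2 hx3
      obtain ⟨⟨g1, g2⟩, -⟩ := hosc q x hxq (by linarith) (by linarith) y hy
      exact hKint y (T.sub q hy) (by linarith)
    GdD := by
      rintro q ⟨x, hxq, hxO, hxD⟩ u hu hul huq
      have h5 : ga Φ c.1 (f x) = rD := hxD
      rw [hrD] at h5
      obtain ⟨⟨g1, g2⟩, -⟩ := hosc q x hxq (by linarith) (by linarith) u huq
      have hfu : f u ∈ c.1.1.set := hmemc _ (by linarith)
      obtain ⟨p1, p2⟩ := Psi_fr hLa hG1 hpt hfu (by linarith)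
      exact ⟨T.sub q huq, hfu, by rw [hrD]; linarith, by rw [hrD]; linarith, p1, p2,
        (hpts u hu hul).2⟩
    Go := Om ∩ f ⁻¹' Gout c.1
    Goc := hGoc c.1 c.2
    GoS := hGoS c.1
    GoK := by
      rintro q ⟨x, hxq, hx⟩ hq
      exact hGoK c.1 c.2 x hx (hq hxq)
    GoF := by
      rintro q ⟨x, hxq, hxO, hxD⟩ u hu hul huq
      have h5 : ga Φ c.1 (f x) = rF := hxD
      rw [hrF] at h5
      obtain ⟨⟨g1, g2⟩, -⟩ := hosc q x hxq (by linarith) (by linarith) u huq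
      have huS := (hpts u hu hul).1
      exact ⟨huS.1, H.fm huS.1, huS.2, fun _ => by linarith⟩
    Gor := hGor c.1 c.2
    Gx := fun c' => Om ∩ f ⁻¹' Gout c'.1
    Gxc := fun c' _ => hGoc c'.1 c'.2
    GxS := fun c' _ => hGoS c'.1
    Gxr := fun c' _ => hGor c'.1 c'.2
    Gxd := by
      intro c' hc' x hx
      have hxS := hGdS hx
      refine ⟨hxS.1, H.fm hxS.1, hxS.2, fun hxc => ?_⟩
      obtain ⟨-, -, -, hx3, -⟩ := hx
      rw [hrD] at hx3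
      exact absurd (Subtype.ext (only_brick hLa (hopen (f x) (by linarith)) hxc)) hc'
    GxK := by
      rintro c' - q ⟨x, hxq, hx⟩ hq
      exact hGoK c'.1 c'.2 x hx (hq hxq) }⟩

/-- `EG` with the labels off `⋃ J0` -/
theorem exists_EG (hLa : IsOpen La) (hδ : 0 < δ) (hR0 : 0 < R)
    (hC : Cores Φ T f κ1 κ2 X J0 J V ct A lam z θ φ) (hI : InitR Φ T f g J0 ct' r₀)
    (rm : ∀ c ∉ X, Rm Φ T f c (J0 c) (J c) (V c) (θ c) (ρ1 c) (ρ2 c) (ρ3 c) (ρ4 c) (d c))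
    (hdk : ∀ c ∉ X, d c ≤ κ1) (hga : ∀ c ∉ X, GA Φ c (ρ4 c)) (hg4 : ∀ c ∉ X, G4 Φ r₀ c (ρ4 c))
    {L : Φ.F → Finset ℝ} [Nonempty (JJ Φ L)] (hG : GF Φ r₀ T f L) {bp : JJ Φ L → E3} {μ : ℝ}
    (hμ : 0 < μ) (hκ0 : 0 < κ1) (hκ : 8 * ((Cn δ R + 1) * κ1) ≤ μ) (hμ1 : μ ≤ 1) (j : JJ Φ L)
    (hj : μ ≤ j.2.1 ∧ (j.2.1 : ℝ) ≤ 1 - μ) (c : {c : Φ.F // c ∉ X}) (hac : j.1 ≠ c.1)
    (hne : (Pc Φ.F c.1 ∩ Pc Φ.F j.1).Nonempty) {v0 v1 : VxK T (KT T J X) c}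
    (hv0 : sb Φ (θ c v0.1) j.1 ≤ μ / 2) (hv1 : 1 - μ / 2 ≤ sb Φ (θ c v1.1) j.1) {r : E3}
    (hr : r ∈ Sh Om Φ r₀ f j) (hrq : ∃ q, r ∈ P (T.H q) ∧ ∀ c ∉ X, q ∉ V c)
    {lm : E3 → ZMod 2} (hlam : IsLab T (gPts (st0 hG bp) j) lm)
    (hlo : ∀ q ∉ KorJ Φ J0, ∀ v ∈ P (T.H q), T.dim v = 0 →
      Φ.lev j.1 (f v) ≤ j.2.1 - 2 * κ1 → lm v = 1)
    (hhi : ∀ q ∉ KorJ Φ J0, ∀ v ∈ P (T.H q), T.dim v = 0 →
      j.2.1 + 2 * κ1 ≤ Φ.lev j.1 (f v) → lm v = 0) :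
    Nonempty (EG (st0 hG bp) j (Sh Om Φ r₀ f j) (KT T J X) c v0 v1 r) := by
  refine exists_EG0 hLa hδ hR0 hC hI rm hdk hga hg4 hG hμ hκ0 hκ hμ1 j hj c hac hne hv0 hv1 hr hrq
    hlam fun q x hx h1 h4 v hv hvd => ?_
  have hr1 := rm c.1 c.2
  have hCk : 0 ≤ Cn δ R * κ1 := mul_nonneg (Cn_nonneg hδ hR0) hκ0.le
  have hCk8 : 8 * (Cn δ R * κ1) + 8 * κ1 ≤ μ := by
    have : 8 * ((Cn δ R + 1) * κ1) = 8 * (Cn δ R * κ1) + 8 * κ1 := by ring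
    linarith
  have hdκ := hdk c.1 c.2
  have hq : q ∉ KorJ Φ J0 := not_KorJ hLa hC (hr1.tile hx h1 h4).2 hx
    ((hga c.1 c.2).lt_one _ (by linarith [hr1.r4]))
  have h5 := abs_le.1 ((hr1.tile_osc hx h1 h4 hv).2.2 j.1)
  refine ⟨fun h => hlo q hq v hv hvd ?_, fun h => hhi q hq v hv hvd ?_⟩
  · linarith [h5.1, hj.1]
  · linarith [h5.2, hj.2]

end Crest.Agent.R096.Ess7_95
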