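import Crest.Agent.R096.Twr10_438

/-!
# Row 96, DOORS-TOWER, part 11 (helper438): **the towers are monotone** (539 #11432 (MON)):
a point which is not a point of the outer pattern stays in all lower layers
-/

set_option autoImplicit false

namespace Crest.Agent.R096.Twr_438

open Crest.Agent.R096.St_147 Crest.Agent.R096.Seq_213 Crest.Agent.R096.Door_501
  Crest.Agent.R096.Qp_106 Classical

section chain

variable {ι Φ W : Type} {M : MeshC ι Φ W} {k : ι} {Vx Ed : Type} {S : Shell M k Vx Ed}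
variable {I : Type} {col : I → Bool}

/-- a tame move which keeps all points off `K` -/
def TameK (R : I → Vx → Prop) (L : St S.sph col → Prop) (K : Set W) (s : St S.sph col)
    (m : Move S.sphSh s) : Prop :=
  Tame R L s m ∧ ∀ x ∈ s.P, x ∉ K → x ∈ m.botS.P

namespace Tgt

variable {v0 v1 : Vx} {t d : St S.sph col} {rk : I → ℝ}

/-- **all slides**, with the monotonicity: points off `t` stay -/
theorem slidesK [Fintype Ed] (h : Tgt S v0 v1 t d rk) (hS : S.sphSh.Sph)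
    (hC : S.sphSh.Circ) (hCon : S.sphSh.Con) (hv0 : ∃ e b, S.en e b = v0)
    (hv1 : ∃ e b, S.en e b = v1) (hcol : ∀ i j : I, col i = col j)
    (R : I → Vx → Prop) (L : St S.sph col → Prop) (hL : ∀ u, Mid t d u → L u)
    (hR : ∀ w ∈ t.P, ∀ w' ∈ d.P, d.lab w' = t.lab w → ∀ v, (∃ e b, S.en e b = v) →
      lbl S.sphSh v0 (comp true t w) v + lbl S.sphSh v0 (comp true d w') v = 1 →
        R (t.lab w) v) : ∀ (n : ℕ) (u : St S.sph col), Mid t d u → Hi t d rk u →
      (u.P.filter fun x => x ∈ t.P).card ≤ n →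
      ∃ m u', Chn (TameK R L {w | w ∈ t.P}) m u u' ∧ u'.P = d.P ∧ (∀ w ∈ d.P, u'.lab w = d.lab w) ∧
        ∀ F, ∀ w ∈ d.P, w ∈ S.sph.On F → u'.mu F w = d.mu F w := by
  have hdone : ∀ u : St S.sph col, Mid t d u → (∀ w ∈ u.P, w ∉ t.P) →
      ∃ m u', Chn (TameK R L {w | w ∈ t.P}) m u u' ∧ u'.P = d.P ∧ (∀ w ∈ d.P, u'.lab w = d.lab w) ∧
        ∀ F, ∀ w ∈ d.P, w ∈ S.sph.On F → u'.mu F w = d.mu F w := by
    intro u hm hno
    have hP : u.P = d.P := by
      ext x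
      constructor
      · intro hx
        rcases hm.sub x hx with ⟨h1, _⟩ | ⟨h1, _⟩
        · exact (hno x hx h1).elim
        · exact h1
      · intro hx
        rcases hm.alt (d.lab x) with h1 | h1
        · exfalso
          obtain ⟨w', hw', hl'⟩ := h.ex_s x hx
          exact hno w' ((h1 w').2 ⟨hw', hl'⟩).1 hw'
        · exact ((h1 x).2 ⟨hx, rfl⟩).1
    refine ⟨0, u, Chn.nil u, hP, fun w hw => ?_, fun F w hw hF => ?_⟩
    · rcases hm.sub w (by rw [hP]; exact hw) with ⟨h1, _⟩ | ⟨_, h2, _⟩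
      · exact (Finset.disjoint_left.1 h.disj h1 hw).elim
      · exact h2
    · rcases hm.sub w (by rw [hP]; exact hw) with ⟨h1, _⟩ | ⟨_, _, h3⟩
      · exact (Finset.disjoint_left.1 h.disj h1 hw).elim
      · exact h3 F hF
  intro n
  induction n with
  | zero =>
    intro u hm _ hn
    have h0 := Finset.filter_eq_empty_iff.1 (Finset.card_eq_zero.1 (Nat.le_zero.1 hn))
    exact hdone u hm fun w hw => h0 hw
  | succ n ih =>
    intro u hm hT hn
    by_cases hex : ∃ w ∈ u.P, w ∈ t.P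
    · obtain ⟨w0, hw0u, hw0⟩ := hex
      obtain ⟨w, hwf, hmx⟩ := (u.P.filter fun x => x ∈ t.P).exists_max_image
        (fun x => rk (t.lab x)) ⟨w0, Finset.mem_filter.2 ⟨hw0u, hw0⟩⟩
      obtain ⟨hwu, hw⟩ := Finset.mem_filter.1 hwf
      have hmax : ∀ x ∈ u.P, x ∈ t.P → rk (t.lab x) ≤ rk (t.lab w) := fun x hx hx' =>
        hmx x (Finset.mem_filter.2 ⟨hx, hx'⟩)
      obtain ⟨w', hw', hl⟩ := h.ex_d w hw
      obtain ⟨g1, g2⟩ := h.slide_mid hS hC hCon hv0 hv1 hcol hm hT hmax hw hwu hw' hl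
      have g0 : Hi t d rk
          (h.slide hS hC hCon hv0 hv1 hcol hm hT hmax hw hwu hw' hl).move.botS := by
        intro y hy hyd x hx hxt
        rcases (g2 x).1 hx with ⟨x1, x2⟩ | x1
        · rcases (g2 y).1 hy with ⟨y1, _⟩ | y1
          · exact hT y y1 hyd x x1 hxt
          · rw [(mem_comp.1 y1).2.lab, hl]
            exact lt_of_le_of_ne (hmax x x1 hxt)
              (h.rk_ne hxt hw fun e => x2 (h.conn_s w hw x hxt e))
        · exact (Finset.disjoint_left.1 h.disj hxt (mem_comp.1 x1).1).elim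
      obtain ⟨m, u', c1, c2, c3, c4⟩ := ih _ g1 g0 (by
        have h1 : ((h.slide hS hC hCon hv0 hv1 hcol hm hT hmax hw hwu hw'
            hl).move.botS.P.filter fun x => x ∈ t.P) ⊂ u.P.filter fun x => x ∈ t.P := by
          refine (Finset.ssubset_iff_of_subset ?_).2 ⟨w, Finset.mem_filter.2 ⟨hwu, hw⟩, ?_⟩
          · intro x hx
            obtain ⟨a1, a2⟩ := Finset.mem_filter.1 hx
            rcases (g2 x).1 a1 with ⟨b1, _⟩ | b1
            · exact Finset.mem_filter.2 ⟨b1, a2⟩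
            · exact (Finset.disjoint_left.1 h.disj a2 (mem_comp.1 b1).1).elim
          · intro hx
            rcases (g2 w).1 (Finset.mem_filter.1 hx).1 with ⟨_, b2⟩ | b1
            · exact b2 (self_mem hw)
            · exact Finset.disjoint_left.1 h.disj hw (mem_comp.1 b1).1
        have := Finset.card_lt_card h1
        omega)
      refine ⟨m + 1, u', Chn.cons _ ⟨⟨h.slide_good hS hC hCon hv0 hv1 hcol hm hT hmax hw hwu hw' hl,
        hL u hm, ?_, w, hwu, ?_⟩, fun x hx hxt => (g2 x).2 (Or.inl ⟨hx, fun hxc =>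
          hxt (mem_comp.1 hxc).1⟩)⟩ c1, c2, c3, c4⟩
      · intro v hv
        obtain ⟨a1, a2⟩ := (S.sphSh.mem_vset).1 hv
        exact hR w hw w' hw' hl v a2 a1
      · show t.lab w = u.lab w
        rcases hm.sub w hwu with ⟨_, h2, _⟩ | ⟨h1, _, _⟩
        · exact h2.symm
        · exact (Finset.disjoint_left.1 h.disj hw h1).elim
    · exact hdone u hm fun w hw h1 => hex ⟨w, hw, h1⟩

end Tgt

/-- **existence of the tower of one family at one core**, monotone -/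
theorem exists_chainK [Fintype Ed] (hS : S.sphSh.Sph) (hC : S.sphSh.Circ) (hCon : S.sphSh.Con)
    {v0 v1 : Vx} (hv0 : ∃ e b, S.en e b = v0) (hv1 : ∃ e b, S.en e b = v1)
    (hcol : ∀ i j : I, col i = col j) (s d : St S.sph col) (hs : ∀ w ∈ s.P, ∃ e, w ∈ S.OnE e)
    {rk : I → ℝ} (h : Tgt S v0 v1 (essSt S v0 v1 s) d rk) :
    ∃ n u, Chn (TameK (Rgn S v0 v1 s d) (Fits s d) {w | w ∈ s.P}) n s u ∧ Fits s d u ∧ u.P = d.P ∧
      (∀ w ∈ d.P, u.lab w = d.lab w) ∧ ∀ F, ∀ w ∈ d.P, w ∈ S.sph.On F → u.mu F w = d.mu F w := by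
  obtain ⟨m, t, c1, t1, t2, t3⟩ := deaths hS hC hCon hv0 hv1 hcol (Rgn S v0 v1 s d)
    (fun u => Fits s d u ∧ ∀ x ∈ u.P, x ∈ s.P)
    s.P.card s le_rfl hs
    (fun s' h1 h2 h3 => ⟨fun w hw => Or.inl ⟨h1 hw, by rw [h2], fun F _ => by rw [h3]⟩,
      fun x hx => h1 hx⟩)
    (fun w hw h1 v _ h2 => Or.inl ⟨w, hw, rfl, h1, h2⟩)
  have ht : t = essSt S v0 v1 s := st_ext t1 t2 t3
  rw [ht] at c1
  have c1' : Chn (TameK (Rgn S v0 v1 s d) (Fits s d) {w | w ∈ s.P}) m s (essSt S v0 v1 s) :=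
    c1.mono fun u mv hu => ⟨⟨hu.1, hu.2.1.1, hu.2.2.1, hu.2.2.2⟩,
      fun x hx hxK => (hxK (hu.2.1.2 x hx)).elim⟩
  obtain ⟨m', u, c2, u1, u2, u3⟩ := h.slidesK hS hC hCon hv0 hv1 hcol (Rgn S v0 v1 s d)
    (Fits s d) (fun u hm w hw => by
      rcases hm.sub w hw with ⟨h1, h2, h3⟩ | h1
      · exact Or.inl ⟨(mem_ess.1 h1).1, h2, h3⟩
      · exact Or.inr h1)
    (fun w hw w' hw' hl v _ h1 => by
      rw [comp_ess hw] at h1
      exact Or.inr ⟨w, (mem_ess.1 hw).1, w', hw', rfl, hl, (mem_ess.1 hw).2, h1⟩)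
    _ (essSt S v0 v1 s) (Mid.refl _ _)
    (fun w hw hwd => (Finset.disjoint_left.1 h.disj hw hwd).elim) le_rfl
  have c2' : Chn (TameK (Rgn S v0 v1 s d) (Fits s d) {w | w ∈ s.P}) m' (essSt S v0 v1 s) u :=
    c2.mono fun u mv hu => ⟨hu.1, fun x hx hxK => hu.2 x hx fun h1 => hxK (mem_ess.1 h1).1⟩
  refine ⟨m + m', u, c1'.trans c2', fun w hw => Or.inr ?_, u1, u2, u3⟩
  rw [u1] at hw
  exact ⟨hw, u2 w hw, fun F hF => u3 F w hw hF⟩

end chain

/-! ### from chains to 501's towers -/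

section seq

variable {ι Φ W : Type} {M : MeshC ι Φ W} {k : ι} {Vx Ed : Type} {S : Shell M k Vx Ed}
variable {J : Type}

/-- a chain gives a tower -/
theorem exists_twrK (i0 : J) {R : J → Vx → Prop} {L : St S.sph (fun _ : J => true) → Prop}
    {K : Set W} {n : ℕ}
    {s t : St S.sph (fun _ : J => true)} (h : Chn (TameK R L K) n s t) (hL : L t)
    (hs : ∀ w ∈ s.P, ∃ e, w ∈ S.OnE e) :
    ∃ T : Twr S J, T.pat 0 = s ∧ (∀ j, n ≤ j → T.pat j = t ∧ (T.mv j).Qv = ∅) ∧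
      (∀ j, Tm R L (T.pat j) (T.mv j)) ∧
      ∀ j, ∀ x ∈ (T.pat j).P, x ∉ K → x ∈ (T.pat (j + 1)).P := by
  induction h with
  | nil s =>
    exact ⟨idle s i0 hs, rfl, fun _ _ => ⟨rfl, rfl⟩, fun _ => triv_tm s i0 hs hL,
      fun _ _ hx _ => hx⟩
  | cons m hm _ ih =>
    obtain ⟨T, t1, t2, t3, t4⟩ := ih hL (fun w hw => m.B_on hw)
    refine ⟨consT m hm.1.1 T t1, rfl, ?_, ?_, ?_⟩
    · intro j hj
      cases j with
      | zero => omega
      | succ j => exact t2 j (by omega)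
    · intro j
      cases j with
      | zero => exact ⟨hm.1.2.1, fun v hv => ⟨hm.1.2.2.1 v hv, hm.1.2.2.2⟩⟩
      | succ j => exact t3 j
    · intro j
      cases j with
      | zero =>
        intro x hx hxK
        show x ∈ (T.pat 0).P
        rw [t1]
        exact hm.2 x hx hxK
      | succ j => exact t4 j

/-- the tower placed in the window `[N, N + n)` -/
theorem exists_windowK (i0 : J) {R : J → Vx → Prop} {L : St S.sph (fun _ : J => true) → Prop}
    {K : Set W} {n : ℕ} {s t : St S.sph (fun _ : J => true)} (h : Chn (TameK R L K) n s t)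
    (hLs : L s) (hL : L t) (hs : ∀ w ∈ s.P, ∃ e, w ∈ S.OnE e) (N : ℕ) :
    ∃ T : Twr S J, T.pat 0 = s ∧ (∀ j, N + n ≤ j → T.pat j = t ∧ (T.mv j).Qv = ∅) ∧
      (∀ j, j < N → (T.mv j).Qv = ∅) ∧ (∀ j, Tm R L (T.pat j) (T.mv j)) ∧
      ∀ j, ∀ x ∈ (T.pat j).P, x ∉ K → x ∈ (T.pat (j + 1)).P := by
  induction N with
  | zero =>
    obtain ⟨T, t1, t2, t3, t4⟩ := exists_twrK i0 h hL hs
    exact ⟨T, t1, fun j hj => t2 j (by omega), fun j hj => absurd hj (Nat.not_lt_zero j), t3, t4⟩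
  | succ N ih =>
    obtain ⟨T, t1, t2, t3, t4, t5⟩ := ih
    refine ⟨consT (Move.triv s i0 hs) (triv_good s i0 hs) T t1, rfl, ?_, ?_, ?_, ?_⟩
    · intro j hj
      cases j with
      | zero => omega
      | succ j => exact t2 j (by omega)
    · intro j hj
      cases j with
      | zero => rfl
      | succ j => exact t3 j (by omega)
    · intro j
      cases j with
      | zero => exact triv_tm s i0 hs hLs
      | succ j => exact t4 j
    · intro j
      cases j with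
      | zero =>
        intro x hx _
        show x ∈ (T.pat 0).P
        rw [t1]
        exact hx
      | succ j => exact t5 j

end seq

variable {ι0 Φ0 W J C : Type} {M0 : MeshC ι0 Φ0 W} {κ : Type} {k0 : κ → ι0}
  {Vx Ed : κ → Type} {fam : J → C}

/-- **the towers exist, monotone**: the points which are not in the outer pattern stay -/
theorem exists_twrsK [∀ c, Fintype (Ed c)] [Nonempty J]
    {S : ∀ c, Shell M0 (k0 c) (Vx c) (Ed c)} {s : GSt M0 fam}
    {d : ∀ c (_ : C), St (S c).sph (fun _ : J => true)} (D : TIn S s d) (m : κ → ℕ) :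
    ∃ (n : κ → ℕ) (T : Twrs S n s), (∀ c, 0 < n c ∧ m c ≤ n c) ∧
      (∀ c a, ((T.tw c a).pat (n c)).P = (d c a).P ∧
        (∀ w ∈ (d c a).P, ((T.tw c a).pat (n c)).lab w = (d c a).lab w) ∧
        ∀ F, ∀ w ∈ (d c a).P, w ∈ (S c).sph.On F →
          ((T.tw c a).pat (n c)).mu F w = (d c a).mu F w) ∧
      (∀ c a, (T.tw c a).pat 0 = trace (S c) s a) ∧
      (∀ c a j, Fits (trace (S c) s a) (d c a) ((T.tw c a).pat j)) ∧
      (∀ c a j, ∀ v ∈ ((T.tw c a).mv j).Qv,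
        Rgn (S c) (D.v0 c a) (D.v1 c a) (trace (S c) s a) (d c a) ((T.tw c a).mv j).i0 v) ∧
      ∀ c a j, ∀ w ∈ (d c a).P, w ∈ ((T.tw c a).pat j).P → w ∈ ((T.tw c a).pat (j + 1)).P := by
  obtain ⟨i0⟩ := ‹Nonempty J›
  have hch : ∀ c a, ∃ n u, Chn (TameK (Rgn (S c) (D.v0 c a) (D.v1 c a) (trace (S c) s a) (d c a))
      (Fits (trace (S c) s a) (d c a)) {w | w ∈ (trace (S c) s a).P}) n (trace (S c) s a) u ∧
      Fits (trace (S c) s a) (d c a) u ∧ u.P = (d c a).P ∧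
      (∀ w ∈ (d c a).P, u.lab w = (d c a).lab w) ∧
      ∀ F, ∀ w ∈ (d c a).P, w ∈ (S c).sph.On F → u.mu F w = (d c a).mu F w := fun c a =>
    exists_chainK ((S c).sphSh_Sph (D.sph c)) ((S c).sphSh_Circ (D.circ c))
      ((S c).sphSh_Con (D.con c)) (D.hv0 c a) (D.hv1 c a) (fun _ _ => rfl) _ _
      (fun w hw => (mem_trace.1 hw).2.2) (D.tgt c a)
  choose nn u c1 c2 c3 c4 c5 using hch
  have hF : ∀ c, ∃ (N : C → ℕ) (B : ℕ), (∀ a ∈ (D.fin_c c).toFinset, N a + nn c a ≤ B) ∧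
      ∀ a ∈ (D.fin_c c).toFinset, ∀ b ∈ (D.fin_c c).toFinset, a ≠ b →
        N a + nn c a ≤ N b ∨ N b + nn c b ≤ N a := fun c => exists_offsets (nn c) _
  choose N B hB hdis using hF
  have hs : ∀ c a, ∀ w ∈ (trace (S c) s a).P, ∃ e, w ∈ (S c).OnE e :=
    fun c a w hw => (mem_trace.1 hw).2.2
  have hLs : ∀ c a, Fits (trace (S c) s a) (d c a) (trace (S c) s a) :=
    fun c a w hw => Or.inl ⟨hw, rfl, fun _ _ => rfl⟩
  have htw : ∀ c a, ∃ T : Twr (S c) J, T.pat 0 = trace (S c) s a ∧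
      (∀ j, B c + 1 + m c ≤ j → (T.pat j).P = (d c a).P ∧
        (∀ w ∈ (d c a).P, (T.pat j).lab w = (d c a).lab w) ∧
        ∀ F, ∀ w ∈ (d c a).P, w ∈ (S c).sph.On F → (T.pat j).mu F w = (d c a).mu F w) ∧
      (∀ j, Tm (Rgn (S c) (D.v0 c a) (D.v1 c a) (trace (S c) s a) (d c a))
        (Fits (trace (S c) s a) (d c a)) (T.pat j) (T.mv j)) ∧
      (∀ j, (T.mv j).Qv.Nonempty → a ∈ (D.fin_c c).toFinset ∧ N c a ≤ j ∧ j < N c a + nn c a) ∧
      ∀ j, ∀ x ∈ (T.pat j).P, x ∉ (trace (S c) s a).P → x ∈ (T.pat (j + 1)).P := by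
    intro c a
    by_cases ha : a ∈ (D.fin_c c).toFinset
    · obtain ⟨T, t1, t2, t3, t4, t5⟩ := exists_windowK i0 (c1 c a) (hLs c a) (c2 c a) (hs c a) (N c a)
      refine ⟨T, t1, fun j hj => ?_, t4, fun j hj => ⟨ha, ?_, ?_⟩, t5⟩
      · have h1 := hB c a ha
        rw [(t2 j (by omega)).1]
        exact ⟨c3 c a, c4 c a, c5 c a⟩
      · by_contra h
        rw [t3 j (not_le.1 h)] at hj
        exact Finset.not_nonempty_empty hj
      · by_contra h
        rw [(t2 j (not_lt.1 h)).2] at hj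
        exact Finset.not_nonempty_empty hj
    · have h1 : (trace (S c) s a).P = ∅ := by
        by_contra h
        exact ha ((D.fin_c c).mem_toFinset.2 (Or.inl (Finset.nonempty_iff_ne_empty.2 h)))
      have h2 : (d c a).P = ∅ := by
        by_contra h
        exact ha ((D.fin_c c).mem_toFinset.2 (Or.inr (Finset.nonempty_iff_ne_empty.2 h)))
      refine ⟨idle (trace (S c) s a) i0 (hs c a), rfl, fun j _ => ?_,
        fun j => triv_tm _ i0 (hs c a) (hLs c a), fun j hj => ?_, fun j x hx _ => hx⟩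
      · refine ⟨h1.trans h2.symm, fun w hw => ?_, fun F w hw => ?_⟩
        · rw [h2] at hw
          exact absurd hw (Finset.notMem_empty w)
        · rw [h2] at hw
          exact absurd hw (Finset.notMem_empty w)
      · exact absurd hj Finset.not_nonempty_empty
  choose T t1 t2 t3 t4 t5 using htw
  have hfam : ∀ c a j w, w ∈ ((T c a).pat j).P →
      (w ∈ s.P ∧ ((T c a).pat j).lab w = s.lab w ∧ fam (s.lab w) = a) ∨
      (w ∈ (d c a).P ∧ ((T c a).pat j).lab w = (d c a).lab w) := by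
    intro c a j w hw
    rcases (t3 c a j).1 w hw with ⟨h1, h2, _⟩ | ⟨h1, h2, _⟩
    · exact Or.inl ⟨(mem_trace.1 h1).1, h2, (mem_trace.1 h1).2.1⟩
    · exact Or.inr ⟨h1, h2⟩
  have hlab : ∀ c a j w, w ∈ ((T c a).pat j).P → fam (((T c a).pat j).lab w) = a := by
    intro c a j w hw
    rcases hfam c a j w hw with ⟨_, h2, h3⟩ | ⟨h1, h2⟩
    · rw [h2]; exact h3
    · rw [h2]; exact D.d_fam h1
  refine ⟨fun c => B c + 1 + m c,
    { tw := T
      P0 := fun c a w => by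
        rw [t1 c a]
        exact mem_trace
      lab0 := fun {c a w} _ => by rw [t1 c a]; rfl
      mu0 := fun {c a G w} _ _ => by rw [t1 c a]; rfl
      labj := fun {c a j w} hw => hlab c a j w hw
      dis := ?_
      labv := ?_
      disv := ?_
      fin := ?_
      on := D.on }, ?_, ?_, t1, fun c a j => (t3 c a j).1, ?_, ?_⟩
  · intro c a b j w h1 h2
    rcases hfam c a j w h1 with ⟨g1, _, g3⟩ | ⟨g1, _⟩ <;>
      rcases hfam c b j w h2 with ⟨g1', _, g3'⟩ | ⟨g1', _⟩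
    · exact g3.symm.trans g3'
    · exact (D.d_new g1' g1).elim
    · exact (D.d_new g1 g1').elim
    · exact D.d_dis g1 g1'
  · intro c a j v hv
    obtain ⟨_, w, hw, hi⟩ := (t3 c a j).2 v hv
    rw [hi]
    exact hlab c a j w hw
  · intro c a b j v h1 h2
    obtain ⟨a1, a2, a3⟩ := t4 c a j ⟨v, h1⟩
    obtain ⟨b1, b2, b3⟩ := t4 c b j ⟨v, h2⟩
    by_contra hab
    rcases hdis c a a1 b b1 hab with h | h <;> omega
  · intro a
    refine (D.fin_a a).subset ?_
    rintro c ⟨j, _, h⟩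
    rcases h with ⟨w, hw⟩ | ⟨v, hv⟩
    · rcases (t3 c a j).1 w hw with ⟨h1, _⟩ | ⟨h1, _⟩
      · exact Or.inl ⟨w, h1⟩
      · exact Or.inr ⟨w, h1⟩
    · exact (D.fin_c c).mem_toFinset.1 (t4 c a j ⟨v, hv⟩).1
  · intro c
    show 0 < B c + 1 + m c ∧ m c ≤ B c + 1 + m c
    exact ⟨by omega, by omega⟩
  · intro c a
    exact t2 c a _ le_rfl
  · intro c a j v hv
    exact ((t3 c a j).2 v hv).1
  · intro c a j w hw hwp
    exact t5 c a j w hwp fun h => D.d_new hw (mem_trace.1 h).1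

end Crest.Agent.R096.Twr_438
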