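import Crest.Agent.R096.Dfi5_471
import Crest.Agent.R096.Twr11_438
import Crest.Agent.R096.Ess7_95

/-!
# R096 (row 96), DOORS_final (helper416): the towers with (MON), and the state with layers over 471's
`sla` for any `DIn` over the tiny cores

* `exists_towersK` : 539's `exists_towers` with the clause (MON) (438's `exists_twrsK`);
* `S2K`            : everything about `s₂` in one record;
* `exists_s2K`     : from `DIn` over the tiny cores.
-/

set_option autoImplicit false
set_option linter.unusedSectionVars false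
set_option linter.style.longLine false

open Set Topology Filter Metric Module
open scoped Classical

namespace Crest.Agent.R096.Dfk_416

open Crest.Agent.R096.Msh_715 Crest.Agent.R096.Coh_184 Crest.Agent.R096.Lab_184
  Crest.Agent.R096.Main_4 Crest.Agent.R096.Agl5_543
  Crest.Agent.R096.Seq_213 Crest.Agent.R096.St_147 Crest.Agent.R096.Door_501
  Crest.Agent.R096.Twr_438 Crest.Agent.R096.Exa_560 Crest.Agent.R096.Qp_106
  Crest.Agent.R096.Ess3_95 Crest.Agent.R096.Ess4_95 Crest.Agent.R096.Ac_117 Crest.Agent.R096.Lm_117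
  Crest.Agent.R096.Dfi_539 Crest.Agent.R096.Dfi_471 Crest.Agent.R096.Sla_184

section gen

variable {E : Type} [NormedAddCommGroup E] [NormedSpace ℝ E] [FiniteDimensional ℝ E]
variable {Om : Set E} {ι : Type} {T : Tiling Om ι} {J C : Type} {fam : J → C}
variable {κ : Type} {Kc : κ → Set E} {h3 : finrank ℝ E = 3}
variable {hH : ∀ c, CoreH T (Kc c)} {hdis : ∀ c c', c ≠ c' → Disjoint (Kc c) (Kc c')}
  {s : GSt (meshC T h3) fam} {r : J → E} {Sf : J → Set E} {nb : κ → C → Prop}
  {v0 v1 : ∀ c, C → VxK T Kc c} {u : κ → C → E → ℝ} {A B : κ → C → ℝ}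

/-- **the towers exist**, with the monotonicity (MON) of 438 -/
theorem exists_towersK [∀ c, Fintype (EdK T Kc c)] [Nonempty J]
    (D : DIn hH s r Sf nb v0 v1 u A B) (m : κ → ℕ) :
    ∃ (n : κ → ℕ) (L : ∀ c, C → Lev T (frontier (Kc c)) J)
      (Tw : Twrs (fun c => shellH h3 hH hdis c) n (outK hH hdis s r)),
      LevOut s nb u A B L ∧ (∀ c, 0 < n c ∧ m c ≤ n c) ∧
      (∀ c a, ((Tw.tw c a).pat (n c)).P = (exa h3 hH hdis (L c a)).P ∧
        (∀ w ∈ (exa h3 hH hdis (L c a)).P,
          ((Tw.tw c a).pat (n c)).lab w = (exa h3 hH hdis (L c a)).lab w) ∧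
        ∀ F, ∀ w ∈ (exa h3 hH hdis (L c a)).P, w ∈ (shellH h3 hH hdis c).sph.On F →
          ((Tw.tw c a).pat (n c)).mu F w = (exa h3 hH hdis (L c a)).mu F w) ∧
      (∀ c a, (Tw.tw c a).pat 0 = trc hH hdis s r c a) ∧
      (∀ c a j, Fits (trc hH hdis s r c a) (exa h3 hH hdis (L c a)) ((Tw.tw c a).pat j)) ∧
      (∀ c a j, ∀ v ∈ ((Tw.tw c a).mv j).Qv,
        Rgn (shellH h3 hH hdis c) (v0 c a) (v1 c a) (trc hH hdis s r c a)
          (exa h3 hH hdis (L c a)) ((Tw.tw c a).mv j).i0 v) ∧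
      ∀ c a j, ∀ w ∈ (exa h3 hH hdis (L c a)).P, w ∈ ((Tw.tw c a).pat j).P →
        w ∈ ((Tw.tw c a).pat (j + 1)).P := by
  have hS : ∀ c, (shellH h3 hH hdis c).Sph := fun c => shellH_sph c
  have hCi : ∀ c, (shellH h3 hH hdis c).Circ := fun c => shellH_circ c
  have hCo : ∀ c, (shellH h3 hH hdis c).Con := fun c => shellH_con c
  have hon : ∀ w ∈ s.P, T.dim w = 1 := fun w hw => (D.dim1 w hw).2
  -- the essential pattern
  let t : ∀ c a, St (shellH h3 hH hdis c).sph (fun _ : J => true) := fun c a =>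
    essSt (shellH h3 hH hdis c) (v0 c a) (v1 c a) (trc hH hdis s r c a)
  have ht_on : ∀ c a, ∀ w ∈ (t c a).P, ∃ e, w ∈ (shellH h3 hH hdis c).OnE e := fun c a w hw =>
    (mem_trc.1 (mem_ess.1 hw).1).2.2
  have hconn : ∀ c a, nb c a → ∀ w ∈ (t c a).P, ∀ w' ∈ (t c a).P,
      (t c a).lab w' = (t c a).lab w → w' ∈ comp true (t c a) w := by
    intro c a hn
    exact Ess4_95.conn_s (fun j _ => D.car j) (fun j _ => D.sub j) hon (fun j _ => D.h1 j)
      (fun j _ => D.conn j) (fun j _ => D.root j)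
      (fun j hj => by
        have h := (D.eg c j (by rw [hj]; exact hn)).some
        rw [hj] at h
        exact h)
  have hex : ∀ c a, nb c a → ∀ j, fam j = a → ∃ w ∈ (t c a).P, (t c a).lab w = j := by
    intro c a hn
    exact Ess4_95.ex_s (fun j _ => D.car j) (fun j _ => D.sub j) hon (fun j _ => D.h1 j)
      (fun j _ => D.conn j) (fun j _ => D.root j)
      (fun j hj => by
        have h := (D.eg c j (by rw [hj]; exact hn)).some
        rw [hj] at h
        exact h)
  have hess : ∀ c a, ∀ w ∈ (t c a).P, lbl (shellH h3 hH hdis c).sphSh (v0 c a)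
      (comp true (t c a) w) (v1 c a) = 1 := by
    intro c a w hw
    rw [comp_ess hw]
    exact (mem_ess.1 hw).2
  -- the order of the essential curves
  have hrk : ∀ c a, nb c a → ∃ rk : J → ℕ, ∀ x ∈ (t c a).P, ∀ w ∈ (t c a).P,
      (t c a).lab x ≠ (t c a).lab w →
      (rk ((t c a).lab x) < rk ((t c a).lab w) ∧
        sd (shellH h3 hH hdis c).sphSh (v0 c a) (comp true (t c a) w) x = 0) ∨
      (rk ((t c a).lab w) < rk ((t c a).lab x) ∧
        sd (shellH h3 hH hdis c).sphSh (v0 c a) (comp true (t c a) w) x = 1) := by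
    intro c a hn
    obtain ⟨rk, -, h⟩ := exists_rk ((shellH h3 hH hdis c).sphSh_Sph (hS c))
      ((shellH h3 hH hdis c).sphSh_Circ (hCi c)) ((shellH h3 hH hdis c).sphSh_Con (hCo c))
      (vx_edge (v0 c a)) (vx_edge (v1 c a)) (fun _ _ => rfl) (t c a) (ht_on c a) (hconn c a hn)
      (hess c a)
    exact ⟨rk, h⟩
  -- one order for every core
  have hlvl : ∀ c, ∃ lvl : J → ℝ, (∀ i j, fam i = fam j → lvl i = lvl j → i = j) ∧
      ∀ a, nb c a → ∀ x ∈ (t c a).P, ∀ w ∈ (t c a).P, lvl ((t c a).lab x) < lvl ((t c a).lab w) →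
        sd (shellH h3 hH hdis c).sphSh (v0 c a) (comp true (t c a) w) x = 0 := by
    intro c
    choose rk hrk' using hrk c
    have henum : ∀ a, ∃ f : J → ℕ, ∀ i j, fam i = a → fam j = a → f i = f j → i = j := by
      intro a
      have hcn : Countable {j | fam j = a} := (D.finJ a).countable
      obtain ⟨f, hf⟩ := hcn.exists_injective_nat
      refine ⟨fun j => if h : fam j = a then f ⟨j, h⟩ else 0, fun i j hi hj h => ?_⟩
      simp only [dif_pos hi, dif_pos hj] at h
      exact congrArg Subtype.val (hf h)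
    choose f hf using henum
    have key : ∀ a (h : nb c a) b (h' : nb c b), a = b → ∀ x, rk a h x = rk b h' x := by
      rintro a h _ h' rfl x; rfl
    refine ⟨fun j => if h : nb c (fam j) then (rk (fam j) h j : ℝ) else (f (fam j) j : ℝ), ?_, ?_⟩
    · intro i j hij h
      by_cases hn : nb c (fam j)
      · have hn' : nb c (fam i) := hij ▸ hn
        simp only [dif_pos hn, dif_pos hn'] at h
        have h : rk (fam i) hn' i = rk (fam j) hn j := by exact_mod_cast h
        obtain ⟨w, hw, hwl⟩ := hex c (fam j) hn i hij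
        obtain ⟨w', hw', hwl'⟩ := hex c (fam j) hn j rfl
        have h' : rk (fam j) hn i = rk (fam j) hn j := by
          rw [← h]
          exact key _ _ _ _ hij.symm i
        by_contra hne
        rcases hrk' (fam j) hn w hw w' hw' (by rw [hwl, hwl']; exact hne) with h4 | h4
        · rw [hwl, hwl', h'] at h4
          exact lt_irrefl _ h4.1
        · rw [hwl, hwl', h'] at h4
          exact lt_irrefl _ h4.1
      · have hn' : ¬ nb c (fam i) := hij ▸ hn
        simp only [dif_neg hn, dif_neg hn'] at h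
        rw [hij] at h
        have h : f (fam j) i = f (fam j) j := by exact_mod_cast h
        exact hf (fam j) i j hij rfl h
    · intro a hn x hx w hw hl
      have hxa : fam ((t c a).lab x) = a := (trc_P (mem_ess.1 hx).1).2.2
      have hwa : fam ((t c a).lab w) = a := (trc_P (mem_ess.1 hw).1).2.2
      have hnx : nb c (fam ((t c a).lab x)) := hxa.symm ▸ hn
      have hnw : nb c (fam ((t c a).lab w)) := hwa.symm ▸ hn
      simp only [dif_pos hnx, dif_pos hnw] at hl
      rw [key _ hnx a hn hxa, key _ hnw a hn hwa] at hl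
      have hl : rk a hn ((t c a).lab x) < rk a hn ((t c a).lab w) := by exact_mod_cast hl
      rcases hrk' a hn x hx w hw (fun h => by rw [h] at hl; exact lt_irrefl _ hl) with h4 | h4
      · exact h4.2
      · exact absurd h4.1 (not_lt.2 hl.le)
  choose lvl lvl_inj lvl_ord using hlvl
  -- the exact levels
  have hQ : ∀ c, {w | w ∈ s.P ∧ w ∈ frontier (Kc c)}.Finite := by
    intro c
    refine ((D.nb_c c).biUnion (t := fun a => {w | w ∈ s.P ∧ fam (s.lab w) = a})
      fun a _ => s.fin a).subset ?_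
    rintro w ⟨h1, h2⟩
    exact mem_biUnion (D.far c w h1 h2) ⟨h1, rfl⟩
  choose L l1 l2 l4 l5 l6 l7 l8 using fun c => D.lev c (lvl c) (lvl_inj c) _ (hQ c)
  have hexp : ∀ c a, ¬ nb c a → (exa h3 hH hdis (L c a)).P = ∅ := by
    intro c a hn
    rw [Finset.eq_empty_iff_forall_notMem]
    intro w hw
    exact hn ((l2 c a _).1 (exa_lab (L c a) hw).1).2
  let DT : TIn (fun c => shellH h3 hH hdis c) (outK hH hdis s r)
      (fun c a => exa h3 hH hdis (L c a)) := {
    sph := hS
    circ := hCi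
    con := hCo
    v0 := v0
    v1 := v1
    hv0 := fun c a => vx_edge (v0 c a)
    hv1 := fun c a => vx_edge (v1 c a)
    rk := fun c a => (L c a).lv
    tgt := by
      intro c a
      by_cases hn : nb c a
      · refine exa_tgt (L c a) (fun j hj => (l8 c a j hj).1) (fun j hj => (l8 c a j hj).2) ?_ ?_
          (t c a) (ht_on c a) (hconn c a hn) (hess c a) ?_ ?_ ?_ ?_
        · intro j hj
          rw [l1 c a]
          exact (D.v0_lt c a hn).trans_lt (l4 c a j hj).1
        · intro j hj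
          rw [l1 c a]
          exact (l4 c a j hj).2.trans_le (D.v1_gt c a hn)
        · intro j hj
          exact hex c a hn j ((l2 c a j).1 hj).1
        · intro w hw
          have h1 := trc_P (mem_ess.1 hw).1
          exact (l2 c a _).2 ⟨h1.2.2, hn⟩
        · intro w hw j hj
          obtain ⟨g1, g2, g3⟩ := trc_P (mem_ess.1 hw).1
          have g4 := D.low c w g1 g2
          rw [g3] at g4
          rw [l1 c a]
          exact g4.trans_lt (l4 c a j hj).1
        · intro x hx w hw hl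
          have h1 := trc_P (mem_ess.1 hx).1
          have h2 := trc_P (mem_ess.1 hw).1
          exact lvl_ord c a hn x hx w hw
            ((l6 c a _ ((l2 c a _).2 ⟨h1.2.2, hn⟩) _ ((l2 c a _).2 ⟨h2.2.2, hn⟩)).1 hl)
      · refine tgt_empty _ ?_ (hexp c a hn)
        rw [Finset.eq_empty_iff_forall_notMem]
        intro w hw
        have h1 := (mem_ess.1 hw).1
        have h2 : (trc hH hdis s r c a).P = ∅ := D.trc_empty hn
        rw [h2] at h1
        exact Finset.notMem_empty w h1
    d_fam := fun {c a w} hw => ((l2 c a _).1 (exa_lab (L c a) hw).1).1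
    d_new := by
      intro c a w hw hws
      obtain ⟨h1, h2, j, hj, h4⟩ := (mem_P (L c a)).1 hw
      exact l5 c a j hj w ⟨hws.1, h1⟩ h4
    d_dis := by
      intro c a b w hw hw'
      obtain ⟨h1, h2, j, hj, h4⟩ := (mem_P (L c a)).1 hw
      obtain ⟨g1, g2, i, hi, g4⟩ := (mem_P (L c b)).1 hw'
      by_contra hab
      exact l7 c a b hab j hj i hi w h1 h2 h4 g4
    fin_c := by
      intro c
      refine (D.nb_c c).subset ?_
      rintro a (h | h)
      · by_contra hn
        have h2 : (trc hH hdis s r c a).P = ∅ := D.trc_empty hn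
        exact Finset.not_nonempty_empty (h2 ▸ h)
      · by_contra hn
        exact Finset.not_nonempty_empty (hexp c a hn ▸ h)
    fin_a := by
      intro a
      refine (D.nb_a a).subset ?_
      rintro c (h | h)
      · by_contra hn
        have h2 : (trc hH hdis s r c a).P = ∅ := D.trc_empty hn
        exact Finset.not_nonempty_empty (h2 ▸ h)
      · by_contra hn
        exact Finset.not_nonempty_empty (hexp c a hn ▸ h)
    on := by
      exact out_on D }
  obtain ⟨n, Tw, a1, a2, a3, a4, a5, a6⟩ := exists_twrsK DT m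
  exact ⟨n, L, Tw, ⟨l1, l2, l4, fun c a j hj w h1 h2 => l5 c a j hj w ⟨h1, h2⟩, l7, l8⟩, a1, a2, a3,
    a4, a5, a6⟩


end gen

open Crest.Agent.R096.Brk1_582 Crest.Agent.R096.Brk2_582 Crest.Agent.R096.Brk3_582
  Crest.Agent.R096.Brk5_582 Crest.Agent.R096.Bsp_628
open Crest.Agent.R096.Mbf_337 (KJ Tiny)
open Crest.Agent.R096.SkC1_961 (E3 FoamD)
open Crest.Agent.R096.Init_543 (fr3)
open Crest.Agent.R096.Slt_471 (sla)
open Crest.Agent.R096.Ess7_95 (KT)

section mach

variable {δ κ0 R c0 : ℝ} {La Om : Set E3} {ι : Type} {Φ : FoamD δ κ0 R c0 La} {T : Tiling Om ι}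
  {f : E3 → E3} {κ1 : ℝ} {X : Set Φ.F} {J0 J V : Φ.F → Set ι} {θ : Φ.F → E3 → E3}
  {φ : Φ.F → E3 → ℝ} {Jn Cn' : Type} {fam : Jn → Cn'}
  {s : GSt (meshC T fr3) fam} {r : Jn → E3} {Sf : Jn → Set E3} {nb : {c : Φ.F // c ∉ X} → Cn' → Prop}
  {v0 v1 : ∀ c, Cn' → VxK T (KT T J X) c} {u : {c : Φ.F // c ∉ X} → Cn' → E3 → ℝ}
  {A B : {c : Φ.F // c ∉ X} → Cn' → ℝ} {hH : ∀ c, CoreH T (KT T J X c)}

/-- **THE STATE WITH LAYERS over `sla`** for any input of the towers over the tiny cores, with (MON) -/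
theorem exists_tw [Nonempty Jn] (hLa : IsOpen La)
    (H : ∀ c ∉ X, Tiny Φ T f κ1 c (J0 c) (J c) (V c) (θ c) (φ c))
    (D : DIn hH s r Sf nb v0 v1 u A B) (m : {c : Φ.F // c ∉ X} → ℕ) :
    ∃ (n : {c : Φ.F // c ∉ X} → ℕ) (hn : ∀ c, 0 < n c)
      (L : ∀ c, Cn' → Lev T (frontier ((sla hLa H n hn).K c)) Jn)
      (Tw : Twrs ((sla hLa H n hn).sh fr3) (sla hLa H n hn).n
        (outK (sla hLa H n hn).hH (sla hLa H n hn).dis s r)),
      LevOut (Kc := (sla hLa H n hn).K) s nb u A B L ∧
      TwOut (sla hLa H n hn) fr3 s r v0 v1 L Tw ∧ (∀ c, m c ≤ n c) ∧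
      ∀ c a j, ∀ w ∈ (exa fr3 (sla hLa H n hn).hH (sla hLa H n hn).dis (L c a)).P,
        w ∈ ((Tw.tw c a).pat j).P → w ∈ ((Tw.tw c a).pat (j + 1)).P := by
  have hdis : ∀ c c' : {c : Φ.F // c ∉ X}, c ≠ c' → Disjoint (KT T J X c) (KT T J X c') :=
    fun c c' hne => Exa_560.tiny_disj hLa (H c.1 c.2) (H c'.1 c'.2) fun h => hne (Subtype.ext h)
  have hfin : ∀ c, Finite (EdK T (KT T J X) c) := fun c => finite_EdK (hH c).cpt (hH c).sub
  have : ∀ c, Fintype (EdK T (KT T J X) c) := fun c => Fintype.ofFinite _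
  obtain ⟨n, L, Tw, lo, hn, a1, a2, a3, a4, a5⟩ := exists_towersK (hdis := hdis) D m
  exact ⟨n, fun c => (hn c).1, L, Tw, lo, ⟨a1, a2, a3, a4⟩, fun c => (hn c).2, a5⟩

end mach

end Crest.Agent.R096.Dfk_416
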