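import Crest.Agent.R096.Dfn1_416
import Crest.Agent.R096.Hl6_955

/-!
# R096 (row 96), DOORS_final (helper416), part 2: **662's `FrontM` from the state after CUT**

`frontM_S3` : over 471's slicing `slC`, for `CutOut (s2 ..) am Act s₃`; open inputs: the invariant
(106, 501), (B) (539), the labels (422), (E1) and (E2) at the tiny cores (560).
-/

set_option autoImplicit false
set_option linter.unusedSectionVars false
set_option linter.unusedVariables false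
set_option linter.style.longLine false

open Set Topology Filter Metric Module Relation
open scoped Classical

namespace Crest.Agent.R096.Dfn_416

open Crest.Agent.R096.Msh_715 Crest.Agent.R096.Coh_184 Crest.Agent.R096.Lab_184
  Crest.Agent.R096.Main_4 Crest.Agent.R096.Agl5_543
  Crest.Agent.R096.Seq_213 Crest.Agent.R096.St_147 Crest.Agent.R096.Door_501
  Crest.Agent.R096.Twr_438 Crest.Agent.R096.Exa_560
  Crest.Agent.R096.Ess3_95 Crest.Agent.R096.Ess4_95 Crest.Agent.R096.Ac_117 Crest.Agent.R096.Lm_117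
  Crest.Agent.R096.Dfi_539 Crest.Agent.R096.Dfi_471 Crest.Agent.R096.Dfo_539
  Crest.Agent.R096.Sla_184 Crest.Agent.R096.Gm_298
  Crest.Agent.R096.Brk1_582 Crest.Agent.R096.Brk2_582 Crest.Agent.R096.Brk3_582
  Crest.Agent.R096.Brk5_582 Crest.Agent.R096.Bsp_628 Crest.Agent.R096.Init_543
  Crest.Agent.R096.Qdl_662 Crest.Agent.R096.Lmx_662 Crest.Agent.R096.Frs_662
  Crest.Agent.R096.Rop_441 Crest.Agent.R096.Frk_441 Crest.Agent.R096.Gl_422
  Crest.Agent.R096.Ori_543 Crest.Agent.R096.Cp_298 Crest.Agent.R096.SkB_662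
  Crest.Agent.R096.Cpo_642 Crest.Agent.R096.Seq_213.GSt
open Crest.Agent.R096.Mbf_337 (KJ Tiny Cores Words)
open Crest.Agent.R096.SkC1_961 (E3 FoamD Hom3)
open Crest.Agent.R096.Frn_337 (Ti)
open Crest.Agent.R096.Bgf_4 (Ext)

variable {δ κ0 R c0 : ℝ} {La Om : Set E3} {ι : Type} {Φ : FoamD δ κ0 R c0 La} {T : Tiling Om ι}
  {f g : E3 → E3} {κ1 κ2 μ s₁ s' : ℝ} {X : Set Φ.F} {J0 J V : Φ.F → Set ι}
  {ct ct' : Φ.F → ι} {A : Φ.F → E3 ≃ᵃ[ℝ] E3} {lam : Φ.F → ℝ} {z : Φ.F → E3}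
  {θ : Φ.F → E3 → E3} {φ : Φ.F → E3 → ℝ} {M : Φ.F → ℕ} {r₀ : Φ.F → ℝ}
  {L : Φ.F → Finset ℝ} [Nonempty (JJ Φ L)] {hG : GF Φ r₀ T f L} {bp : JJ Φ L → E3}
  {Mo : Type} {co : Mo → Ti X} [Nonempty (JJ Φ L ⊕ Mo)]
  {sB : GSt (meshC T fr3) (Sum.map (fun j : JJ Φ L => j.1) (id : Mo → Mo))}
  {r : JJ Φ L ⊕ Mo → E3} {Sf : JJ Φ L ⊕ Mo → Set E3} {nb : Ti X → Φ.F ⊕ Mo → Prop}

/-- **`FrontM` FROM THE STATE AFTER CUT** -/
theorem frontM_S3 (hLa : IsOpen La) (hLc : IsPreconnected La) (hN : Num δ κ0 R c0 κ2 κ1 s₁)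
    (hR : InitR Φ T f g J0 ct' r₀) (hC : Cores Φ T f κ1 κ2 X J0 J V ct A lam z θ φ)
    (hW : Words Φ T f X ct A lam z M L)
    (hM : Mesh0 T (Pc Φ.F) (bc (F := Φ.F)) (RF Φ r₀) f (KorJ Φ J0) κ1) (h1 : κ1 < s₁) (h2 : κ1 < 1)
    (hs' : s₁ + κ1 ≤ s') (hσ : 2 * κ1 < s') (hμ : 0 < μ) (hm : ∀ c, ∀ t ∈ L c, μ ≤ t ∧ t ≤ 1 - μ)
    {Db : Φ.F → Set E3} {q0 q1 : Φ.F → ι} {w0 w1 x0 x1 : Φ.F → E3}
    (hv : VxD Φ T f V Db q0 q1 w0 w1 x0 x1)
    (n : Ti X → ℕ) (hn : ∀ c, 0 < n c) [Nonempty (slC hLa hC n hn).T3.Cell]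
    (hne : ∃ c, OutK (slC hLa hC n hn).T3 (slC hLa hC n hn).KK c)
    (hB : BarS hG bp V co sB)
    {v0 v1 : ∀ c, Φ.F ⊕ Mo → VxK T (slC hLa hC n hn).K c} {u : Ti X → Φ.F ⊕ Mo → E3 → ℝ}
    {Al Bl : Ti X → Φ.F ⊕ Mo → ℝ}
    {Lx : ∀ c, Φ.F ⊕ Mo → Lev T (frontier ((slC hLa hC n hn).K c)) (JJ Φ L ⊕ Mo)}
    {Tw : Twrs ((slC hLa hC n hn).sh fr3) (slC hLa hC n hn).n
      (outK (slC hLa hC n hn).hH (slC hLa hC n hn).dis sB r)} {l0 : E3 → JJ Φ L ⊕ Mo}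
    (Dn : DIn (slC hLa hC n hn).hH sB r Sf nb v0 v1 u Al Bl)
    (lo : LevOut (Kc := (slC hLa hC n hn).K) sB nb u Al Bl Lx)
    (tt : TwOut (slC hLa hC n hn) fr3 sB r v0 v1 Lx Tw)
    {am : Mo → Φ.F} {Act : Φ.F → Set (T.RIdx (slC hLa hC n hn).HH ⊕ Ti X)}
    {s3 : GSt (mK fr3 (Lay_316.lay_sla hLa hC n hn).core (Lay_316.lay_sla hLa hC n hn).disj)
      (fun j : JJ Φ L => j.1)}
    (D3 : CutOut (s2 (slC hLa hC n hn) fr3 Tw l0) am Act s3)
    {far₀ : JJ Φ L → Set E3}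
    (inv : s3.Inv (qdT (fun p : T.RIdx (slC hLa hC n hn).HH => p.tile)
      (sla_sub (slC hLa hC n hn)) (slC hLa hC n hn).KK hLa hR hM h1 h2) far₀)
    (posB : PosS Φ T f s' J0 (slC hLa hC n hn) s3)
    {Gc : Φ.F → Set E3}
    {Zc : Φ.F → Set (QK (belK (slC hLa hC n hn).T3 (slC hLa hC n hn).KK))}
    {lm : JJ Φ L → QK (belK (slC hLa hC n hn).T3 (slC hLa hC n hn).KK) → ZMod 2}
    (lab : LabIn (lmK fr3 (Lay_316.lay_sla hLa hC n hn).core (Lay_316.lay_sla hLa hC n hn).disj hne)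
      (qdT (fun p : T.RIdx (slC hLa hC n hn).HH => p.tile)
      (sla_sub (slC hLa hC n hn)) (slC hLa hC n hn).KK hLa hR hM h1 h2) s3 Gc Zc lm
      (fun a => vK (S := slC hLa hC n hn) (out_of_V hC (hv.out0 a)) (hv.mem0 a) (hv.dim0 a))
      (fun a => vK (S := slC hLa hC n hn) (out_of_V hC (hv.out1 a)) (hv.mem1 a) (hv.dim1 a)))
    (oneT : ∀ (k : Ti X) (j : JJ Φ L), One s3 {F | Sum.inr k ∈ (mK fr3
      (Lay_316.lay_sla hLa hC n hn).core (Lay_316.lay_sla hLa hC n hn).disj).side F} j)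
    (twoT : ∀ (q : Init_543.QK (Pc Φ.F)) (k : Ti X), k.1 ∈ q.Z → ∀ j j' : JJ Φ L, j.1 ∈ q.B →
      j'.1 ∈ q.B → j.1 ≠ j'.1 →
      Two s3 ((qdT (fun p : T.RIdx (slC hLa hC n hn).HH => p.tile)
      (sla_sub (slC hLa hC n hn)) (slC hLa hC n hn).KK hLa hR hM h1 h2).Act q) {Sum.inr k} j j') :
    FrontM T f J0 V ct (Lay_316.c3 (slC hLa hC n hn)) (fun p => p.tile) s'
      (Lay_316.lay_sla hLa hC n hn).core (Lay_316.lay_sla hLa hC n hn).disj hne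
      (qdT (fun p : T.RIdx (slC hLa hC n hn).HH => p.tile) (sla_sub (slC hLa hC n hn))
        (slC hLa hC n hn).KK hLa hR hM h1 h2) s3 far₀ Gc Zc lm
      (fun a => vK (S := slC hLa hC n hn) (out_of_V hC (hv.out0 a)) (hv.mem0 a) (hv.dim0 a))
      (fun a => vK (S := slC hLa hC n hn) (out_of_V hC (hv.out1 a)) (hv.mem1 a) (hv.dim1 a)) := by
  have hK : ∀ k : Ti X, (slC hLa hC n hn).K k = KJ T (J k.1) := fun k => rfl
  have hL := Lay_316.lay_sla hLa hC n hn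
  have on := on_S3 (hKK := hL.core) (hne := hne) D3
  have h0 : ∀ j : JJ Φ L, DeepS hC r₀ (slC hLa hC n hn) j.1
      (vK (S := slC hLa hC n hn) (out_of_V hC (hv.out0 j.1)) (hv.mem0 j.1) (hv.dim0 j.1)) :=
    fun j => deep_vK hLa hN hR hC hK hv j.1 _
  have h1' : ∀ j : JJ Φ L, FarS Φ f r₀ J (slC hLa hC n hn) (θN δ κ0 R c0 κ2 κ1) j.1
      (vK (S := slC hLa hC n hn) (out_of_V hC (hv.out1 j.1)) (hv.mem1 j.1) (hv.dim1 j.1)) :=
    fun j => far_vK hLa hN hR hC hK hv j.1 _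
  have hlev := lev_S3 (hKK := hL.core) hB hLa hR hC hK Dn D3
  exact {
    inv := inv
    on := on
    fin := fun F => fin_S3 (hKK := hL.core) hB hLa hR hC hμ hm Dn lo tt D3 F
    lab := lab
    posB := posB
    lev := hlev
    labX := by
      refine Hl_955.labX_S
        (v₀ := fun a => vK (S := slC hLa hC n hn) (out_of_V hC (hv.out0 a)) (hv.mem0 a) (hv.dim0 a))
        (v₁ := fun a => vK (S := slC hLa hC n hn) (out_of_V hC (hv.out1 a)) (hv.mem1 a) (hv.dim1 a))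
        hLa hLc hN hR hC hM (tinyK_of hK) (cplxS hC hK)
        (lst_of_B (hLa := hLa) (hR := hR) (hM := hM) (hε := h1) (hε1 := h2) (hne := hne) hC hK hs' on
          posB) hL hW hμ hm lab.lab h0 h1' lab.one lab.zero (fun c hc w hw hwt => ?_)
      refine hlev w hw (ct c) (fun k hk => ?_) hwt
      have hck : c ≠ k.1 := fun e => k.2 (e ▸ hc)
      have h3 : ct c ∈ V c := by rw [(hC.one c hc).2.2]; rfl
      exact Set.disjoint_left.1 (hC.disj c k.1 hck) h3 hk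
    ropX := fun c hc j => ropX_front
      (v₀ := fun a => vK (S := slC hLa hC n hn) (out_of_V hC (hv.out0 a)) (hv.mem0 a) (hv.dim0 a))
      (v₁ := fun a => vK (S := slC hLa hC n hn) (out_of_V hC (hv.out1 a)) (hv.mem1 a) (hv.dim1 a))
      hLc hN hC hK hs' on posB h0 h1' lab c hc j
    k4 := fun q hq => k4_front
      (v₀ := fun a => vK (S := slC hLa hC n hn) (out_of_V hC (hv.out0 a)) (hv.mem0 a) (hv.dim0 a))
      (v₁ := fun a => vK (S := slC hLa hC n hn) (out_of_V hC (hv.out1 a)) (hv.mem1 a) (hv.dim1 a))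
      hLc hN hσ hC hK hs' on posB h0 h1' lab.far q hq
    oneT := oneT
    twoT := twoT }

end Crest.Agent.R096.Dfn_416
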