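import Crest.Agent.R096.Dfn1_416
import Crest.Agent.R096.Dff2_539
import Crest.Agent.R096.Frs3_662

/-!
# R096 (row 96), DOORS_final (helper416), part 4: 662's `FrontN` from the state after CUT

`barS_gsum` : `BarS` for 539's state `sJB` (truthful state of the families + barriers);
`frontN_S3` : `FrontN` over 471's slicing `slC` at `vA`, `vB`; open inputs: inv, lab, posB, oneT, twoT.
-/

set_option autoImplicit false
set_option linter.unusedSectionVars false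
set_option linter.unusedVariables false
set_option linter.style.longLine false

open Set Topology Filter Metric Module Relation
open scoped Classical

namespace Crest.Agent.R096.Dfn_416

open Crest.Agent.R096.Msh_715 Crest.Agent.R096.Coh_184 Crest.Agent.R096.Lab_184
  Crest.Agent.R096.Main_4 Crest.Agent.R096.Agl5_543
  Crest.Agent.R096.Seq_213 Crest.Agent.R096.St_147 Crest.Agent.R096.Door_501
  Crest.Agent.R096.Twr_438 Crest.Agent.R096.Exa_560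
  Crest.Agent.R096.Ess3_95 Crest.Agent.R096.Ess4_95 Crest.Agent.R096.Ac_117 Crest.Agent.R096.Lm_117
  Crest.Agent.R096.Dfi_539 Crest.Agent.R096.Dfi_471 Crest.Agent.R096.Dfo_539
  Crest.Agent.R096.Dff_539
  Crest.Agent.R096.Sla_184 Crest.Agent.R096.Gm_298
  Crest.Agent.R096.Brk1_582 Crest.Agent.R096.Brk2_582 Crest.Agent.R096.Brk3_582
  Crest.Agent.R096.Brk5_582 Crest.Agent.R096.Bsp_628 Crest.Agent.R096.Init_543
  Crest.Agent.R096.Qdl_662 Crest.Agent.R096.Lmx_662 Crest.Agent.R096.Frs_662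
  Crest.Agent.R096.Rop_441 Crest.Agent.R096.Gl_422
  Crest.Agent.R096.Ori_543 Crest.Agent.R096.Cp_298 Crest.Agent.R096.SkB_662
  Crest.Agent.R096.Cpo_642 Crest.Agent.R096.Seq_213.GSt
open Crest.Agent.R096.Mbf_337 (KJ Tiny Cores Words)
open Crest.Agent.R096.SkC1_961 (E3 FoamD Hom3)
open Crest.Agent.R096.Frn_337 (Ti)
open Crest.Agent.R096.Bgf_4 (Ext)
open Crest.Agent.R096.Ess7_95 (KT)

variable {δ κ0 R c0 : ℝ} {La Om : Set E3} {ι : Type} {Φ : FoamD δ κ0 R c0 La} {T : Tiling Om ι}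
  {f g : E3 → E3} {κ1 κ2 μ s₁ s' : ℝ} {X : Set Φ.F} {J0 J V : Φ.F → Set ι}
  {ct ct' : Φ.F → ι} {A : Φ.F → E3 ≃ᵃ[ℝ] E3} {lam : Φ.F → ℝ} {z : Φ.F → E3}
  {θ : Φ.F → E3 → E3} {φ : Φ.F → E3 → ℝ} {M : Φ.F → ℕ} {r₀ : Φ.F → ℝ}
  {L : Φ.F → Finset ℝ} [Nonempty (JJ Φ L)] {hG : GF Φ r₀ T f L} {bp : JJ Φ L → E3}
  {Mo : Type} {co : Mo → Ti X}

/-- `BarS` for 539's state -/
theorem barS_gsum {sB : GSt (meshC T fr3) (id : Mo → Mo)} (hd : ∀ w ∈ (st0 hG bp).P, w ∉ sB.P)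
    (htile : ∀ w ∈ sB.P, ∀ i, w ∈ P (T.H i) → i ∈ V (co (sB.lab w)).1)
    (hfin : ∀ k : Ti X, {m | co m = k}.Finite) : BarS hG bp V co (sJB hG bp sB hd) := by
  have hl1 : Dis_184.Part (st0 hG bp) (sJB hG bp sB hd) Sum.inl := Dis_184.gsum_left (hd := hd)
  have hl2 : Dis_184.Part sB (sJB hG bp sB hd) Sum.inr := Dis_184.gsum_right (hd := hd)
  refine ⟨⟨fun w j => (hl1.pts w j).symm, fun F w hw => hl1.mu F w hw.1 hw.2⟩, ?_, hfin⟩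
  intro w hw m hl i hi
  obtain ⟨h1, h2⟩ := hl2.mem' hw hl
  have h3 := htile w h1 i hi
  rwa [h2] at h3

/-- **`FrontN` FROM THE STATE AFTER CUT** -/
theorem frontN_S3 [Nonempty (JJ Φ L ⊕ Mo)]
    {sB : GSt (meshC T fr3) (Sum.map (fun j : JJ Φ L => j.1) (id : Mo → Mo))}
    {r : JJ Φ L ⊕ Mo → E3} {Sf : JJ Φ L ⊕ Mo → Set E3} {nb : Ti X → Φ.F ⊕ Mo → Prop}
    (hLa : IsOpen La) (hR : InitR Φ T f g J0 ct' r₀)
    (hC : Cores Φ T f κ1 κ2 X J0 J V ct A lam z θ φ)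
    (hM : Mesh0 T (Pc Φ.F) (bc (F := Φ.F)) (RF Φ r₀) f (KorJ Φ J0) κ1) (h1 : κ1 < s₁) (h2 : κ1 < 1)
    (hμ : 0 < μ) (hm : ∀ c, ∀ t ∈ L c, μ ≤ t ∧ t ≤ 1 - μ)
    {Db : Φ.F → Set E3} {q0 q1 : Φ.F → ι} {w0 w1 x0 x1 : Φ.F → E3}
    (hv : VxD Φ T f V Db q0 q1 w0 w1 x0 x1)
    (n : Ti X → ℕ) (hn : ∀ c, 0 < n c) [Nonempty (slC hLa hC n hn).T3.Cell]
    (hne : ∃ c, OutK (slC hLa hC n hn).T3 (slC hLa hC n hn).KK c)
    (hB : BarS hG bp V co sB)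
    {v0 v1 : ∀ c, Φ.F ⊕ Mo → VxK T (slC hLa hC n hn).K c} {u : Ti X → Φ.F ⊕ Mo → E3 → ℝ}
    {Al Bl : Ti X → Φ.F ⊕ Mo → ℝ}
    {Lx : ∀ c, Φ.F ⊕ Mo → Lev T (frontier ((slC hLa hC n hn).K c)) (JJ Φ L ⊕ Mo)}
    {Tw : Twrs ((slC hLa hC n hn).sh fr3) (slC hLa hC n hn).n
      (outK (slC hLa hC n hn).hH (slC hLa hC n hn).dis sB r)} {l0 : E3 → JJ Φ L ⊕ Mo}
    (Dn : DIn (slC hLa hC n hn).hH sB r Sf nb v0 v1 u Al Bl)
    (lo : LevOut (Kc := (slC hLa hC n hn).K) sB nb u Al Bl Lx)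
    (tt : TwOut (slC hLa hC n hn) fr3 sB r v0 v1 Lx Tw)
    {am : Mo → Φ.F} {Act : Φ.F → Set (T.RIdx (slC hLa hC n hn).HH ⊕ Ti X)}
    {s3 : GSt (mK fr3 (Lay_316.lay_sla hLa hC n hn).core (Lay_316.lay_sla hLa hC n hn).disj)
      (fun j : JJ Φ L => j.1)}
    (D3 : CutOut (s2 (slC hLa hC n hn) fr3 Tw l0) am Act s3)
    {far₀ : JJ Φ L → Set E3}
    (inv : s3.Inv (qdT (fun p : T.RIdx (slC hLa hC n hn).HH => p.tile)
      (sla_sub (slC hLa hC n hn)) (slC hLa hC n hn).KK hLa hR hM h1 h2) far₀)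
    {Gc : Φ.F → Set E3}
    {Zc : Φ.F → Set (QK (belK (slC hLa hC n hn).T3 (slC hLa hC n hn).KK))}
    {lm : JJ Φ L → QK (belK (slC hLa hC n hn).T3 (slC hLa hC n hn).KK) → ZMod 2}
    (lab : LabIn (lmK fr3 (Lay_316.lay_sla hLa hC n hn).core (Lay_316.lay_sla hLa hC n hn).disj hne)
      (qdT (fun p : T.RIdx (slC hLa hC n hn).HH => p.tile)
      (sla_sub (slC hLa hC n hn)) (slC hLa hC n hn).KK hLa hR hM h1 h2) s3 Gc Zc lm
      (vA hLa hC hv n hn) (vB hLa hC hv n hn))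
    (posB : ∀ w ∈ s3.P, ∀ i3, (∀ k', ¬ P ((slC hLa hC n hn).T3.H i3) ⊆ (slC hLa hC n hn).KK k') →
      w ∈ P ((slC hLa hC n hn).T3.H i3) → i3.tile ∉ KorJ Φ J0 →
      ∃ x ∈ P (T.H i3.tile), Φ.lev (s3.lab w).1 (f x) ∈ Icc s' (1 - s'))
    (oneT : ∀ (k : Ti X) (j : JJ Φ L), One s3 {F | Sum.inr k ∈ (mK fr3
      (Lay_316.lay_sla hLa hC n hn).core (Lay_316.lay_sla hLa hC n hn).disj).side F} j)
    (twoT : ∀ (q : Init_543.QK (Pc Φ.F)) (k : Ti X), k.1 ∈ q.Z → ∀ j j' : JJ Φ L, j.1 ∈ q.B →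
      j'.1 ∈ q.B → j.1 ≠ j'.1 →
      Two s3 ((qdT (fun p : T.RIdx (slC hLa hC n hn).HH => p.tile)
      (sla_sub (slC hLa hC n hn)) (slC hLa hC n hn).KK hLa hR hM h1 h2).Act q) {Sum.inr k} j j') :
    FrontN T f J0 V (fun p => p.tile) s'
      (Lay_316.lay_sla hLa hC n hn).core (Lay_316.lay_sla hLa hC n hn).disj hne
      (qdT (fun p : T.RIdx (slC hLa hC n hn).HH => p.tile) (sla_sub (slC hLa hC n hn))
        (slC hLa hC n hn).KK hLa hR hM h1 h2) s3 far₀ Gc Zc lm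
      (vA hLa hC hv n hn) (vB hLa hC hv n hn) := by
  have hK : ∀ k : Ti X, (slC hLa hC n hn).K k = KJ T (J k.1) := fun k => rfl
  have hL := Lay_316.lay_sla hLa hC n hn
  exact {
    inv := inv
    on := on_S3 (hKK := hL.core) (hne := hne) D3
    fin := fun F => fin_S3 (hKK := hL.core) hB hLa hR hC hμ hm Dn lo tt D3 F
    lab := lab
    posB := posB
    lev := lev_S3 (hKK := hL.core) hB hLa hR hC hK Dn D3
    oneT := oneT
    twoT := twoT }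

end Crest.Agent.R096.Dfn_416
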