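import Crest.Agent.R096.Dib2_438
import Crest.Agent.R096.Dib3_438
import Crest.Agent.R096.Bgf10_4
import Crest.Agent.R096.Dia2_316
import Crest.Agent.R096.Bar4_543

/-! Row 96 (helper438), DOORS, `DIn` for the barrier families, part 4: the half record `DInR` for
the moats `BM Φ X` over any state with the barriers

* `BM.cx`, `bm_fin` : the core of a moat; finitely many moats at a core;
* `exists_vbm` : the vertices `v0`, `v1` of all moats;
* **`dinR_BM`** : `DInR` from the posts of 4's `exists_bars` and 95's `EG`. -/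

set_option autoImplicit false
set_option linter.unusedSectionVars false
set_option linter.style.longLine false

open Set Topology Filter Metric Module
open scoped Classical

namespace Crest.Agent.R096.Dib_438

open Crest.Agent.R096.Msh_715 Crest.Agent.R096.Coh_184 Crest.Agent.R096.Bsp_628
  Crest.Agent.R096.Brk1_582 Crest.Agent.R096.Brk2_582 Crest.Agent.R096.Brk3_582
  Crest.Agent.R096.Brk5_582 Crest.Agent.R096.Init_543 Crest.Agent.R096.Mbf_337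
  Crest.Agent.R96.Push_899 Crest.Agent.R096.Ess4_95 Crest.Agent.R096.Ess5_95
  Crest.Agent.R096.Lab_184 Crest.Agent.R096.Main_4 Crest.Agent.R096.Exa_560
  Crest.Agent.R096.Agl5_543 Crest.Agent.R096.Agl6_543
  Crest.Agent.R096.Seq_213 Crest.Agent.R096.St_147 Crest.Agent.R096.Door_501
  Crest.Agent.R096.Twr_438 Crest.Agent.R096.Bar_106 Crest.Agent.R096.Ebr4_95
open Crest.Agent.R096.SkC1_961 (E3 Hom3 IsPush FoamD)
open Crest.Agent.R096.Ess3_95 (Car)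
open Crest.Agent.R096.Ess7_95 (KT)
open Crest.Agent.R096.Frn_337 (Ti)
open Crest.Agent.R096.Bgf_4 (psi_tile)

variable {δ κ0 R c0 : ℝ} {La Om : Set E3} {ι : Type} {Φ : FoamD δ κ0 R c0 La} {T : Tiling Om ι}
  {f g : E3 → E3} {κ1 κ2 : ℝ} {X : Set Φ.F} {J0 J V : Φ.F → Set ι}
  {ct : Φ.F → ι} {A : Φ.F → E3 ≃ᵃ[ℝ] E3} {lam : Φ.F → ℝ} {z : Φ.F → E3}
  {θ : Φ.F → E3 → E3} {φ : Φ.F → E3 → ℝ}

/-- the core of a moat -/
def cx (m : BM Φ X) : Ti X := m.1.1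

theorem cx_co (m : BM Φ X) : (cx m).1 = m.co := rfl

/-- the sides of a moat -/
noncomputable def pp (m : BM Φ X) : Φ.F := m.mo.choose
noncomputable def qq (m : BM Φ X) : Φ.F := m.mo.choose_spec.choose

theorem mo_pq (m : BM Φ X) : Mo (Pc Φ.F) m.co m.am m.Zm (pp m) (qq m) :=
  m.mo.choose_spec.choose_spec

/-- **finitely many moats at a core** -/
theorem bm_fin (hLa : IsOpen La) (c : Ti X) : {m : BM Φ X | cx m = c}.Finite := by
  have hN : {a : Φ.F | (Pc Φ.F c.1 ∩ Pc Φ.F a).Nonempty}.Finite := finite_nbr hLa c.1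
  refine Set.Finite.of_finite_image (f := fun m : BM Φ X => (m.am, m.Zm))
    ((hN.prod hN.finite_subsets).subset ?_) ?_
  · rintro _ ⟨m, hm, rfl⟩
    have hm' : m.co = c.1 := by
      have : cx m = c := hm
      rw [← cx_co, this]
    have M := mo_pq m
    obtain ⟨y, hy⟩ := M.fcp
    have hyc : y ∈ Pc Φ.F m.co := mem_fc.1 hy m.co (Or.inl M.cZ)
    rw [hm'] at hyc
    refine ⟨⟨y, hyc, mem_fc.1 hy m.am (Or.inr (Or.inl rfl))⟩, fun e he => ?_⟩
    exact ⟨y, hyc, mem_fc.1 hy e (Or.inl he)⟩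
  · intro m hm m' hm' h
    have h1 : cx m = c := hm
    have h2 : cx m' = c := hm'
    have h3 : m.am = m'.am := congrArg Prod.fst h
    have h4 : m.Zm = m'.Zm := congrArg Prod.snd h
    refine BM.ext ?_ h3 h4
    rw [← cx_co, ← cx_co, h1, h2]

theorem moD (hLa : IsOpen La) : MoD Φ (cx (Φ := Φ) (X := X)) BM.am BM.Zm pp qq where
  mo := mo_pq
  fin := bm_fin hLa

/-- **the vertices of all moats** -/
theorem exists_vbm (hLa : IsOpen La) (hδ : 0 < δ) (hR : 0 < R) (hκ : Cn δ R * κ1 < 1)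
    (hC : Cores Φ T f κ1 κ2 X J0 J V ct A lam z θ φ) {x : ℝ × ℝ} (hx : x ∈ Rct) :
    ∃ v : ∀ c, BM Φ X → VxK T (KT T J X) c, ∀ c m, cx m = c →
      ∀ e, |sb Φ (θ c.1 (v c m).1) e - uu m.am m.Zm (pp m) (qq m) x.1 x.2 e| ≤
        (2 * Cn δ R + 1) * κ1 := by
  have h : ∀ (c : Ti X) (m : BM Φ X), ∃ v : VxK T (KT T J X) c, cx m = c →
      ∀ e, |sb Φ (θ c.1 v.1) e - uu m.am m.Zm (pp m) (qq m) x.1 x.2 e| ≤
        (2 * Cn δ R + 1) * κ1 := by
    intro c m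
    by_cases hm : cx m = c
    · have M := mo_pq m
      rw [← cx_co, hm] at M
      obtain ⟨v, hv, hv0, h1⟩ := exists_vuu hLa hδ hR hκ (hC.tiny c.1 c.2) M hx
      exact ⟨⟨v, hv0, hv⟩, fun _ => h1⟩
    · obtain ⟨v, hv, hv0⟩ := tiny_vx hLa hδ hR hκ (hC.tiny c.1 c.2)
      exact ⟨⟨v, hv0, hv⟩, fun h => absurd h hm⟩
  choose v hv using h
  exact ⟨v, hv⟩

/-- the points of a barrier on a sphere: the sphere of its own core -/
theorem bm_far (hC : Cores Φ T f κ1 κ2 X J0 J V ct A lam z θ φ) {m : BM Φ X}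
    {w : E3} (hw : ∀ i, w ∈ P (T.H i) → i ∈ V m.co) {c : Ti X}
    (hf : w ∈ frontier (KT T J X c)) : cx m = c := by
  have hcl : IsClosed (KJ T (J c.1)) := (coreH_tiny (hC.tiny c.1 c.2)).cpt.isClosed
  have hwK : w ∈ KJ T (J c.1) := hcl.frontier_subset hf
  obtain ⟨i, hi, hwi⟩ := mem_iUnion₂.1 hwK
  have h1 := (hC.tiny c.1 c.2).sub hi
  have h2 := hw i hwi
  by_contra hne
  have hne' : c.1 ≠ m.co := fun h => hne (Subtype.ext h.symm)
  exact disjoint_left.1 (hC.disj c.1 m.co hne') h1 h2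

/-- the levels of `f w` for a point between the radii -/
theorem lev_Icc (hLa : IsOpen La) (H : Hm f g Om La) {c : Φ.F} {J0 J V : Set ι} {θ : E3 → E3}
    {φ : E3 → ℝ} {ρ1 ρ2 ρ3 ρ4 d : ℝ}
    (hT : Tiny Φ T f κ1 c J0 J V θ φ) (hR : Rm Φ T f c J0 J V θ ρ1 ρ2 ρ3 ρ4 d) {w : E3}
    (hw : w ∈ Om) (h1 : ρ1 ≤ ga Φ c (f w)) (h4 : ga Φ c (f w) ≤ ρ4) :
    Φ.Psi (f w) ∈ frontier c.1.set ∧ ∀ e, 0 ≤ Φ.lev e (f w) ∧ Φ.lev e (f w) ≤ 1 := by
  obtain ⟨q, hq⟩ := T.cov w hw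
  obtain ⟨hV, hJ⟩ := hR.tile hq h1 h4
  have h5 := (psi_tile hLa H hT hR hV hJ hq).2
  exact ⟨h5, fun e => sb_mem hLa h5 e⟩

variable {J1 C1 : Type} {fam1 : J1 → C1}
  {s : GSt (meshC T fr3) (Sum.map fam1 (id : BM Φ X → BM Φ X))} {bm : BM Φ X → E3}
  {Sf : BM Φ X → Set E3}

/-- **`DInR` for the moats** -/
theorem dinR_BM (hLa : IsOpen La) (hδ : 0 < δ) (hR : 0 < R) (hκ0 : 0 < κ1) (H : Hm f g Om La)
    (hC : Cores Φ T f κ1 κ2 X J0 J V ct A lam z θ φ)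
    {l0 mm ra hi' : ℝ} (hN : Nm l0 mm ra hi') {Aw Bw : ℝ}
    (n1 : l0 * hi' + (2 * Cn δ R + 1) * κ1 ≤ Aw) (n2 : Aw < Bw)
    (n3 : Bw ≤ 1 - (2 * Cn δ R + 1) * κ1) (n4 : 0 < mm - ra * hi' - Cn δ R * κ1)
    (n5 : mm + ra * hi' + Cn δ R * κ1 < 1) (n6 : (2 * Cn δ R + 1) * κ1 < 1 / 2)
    (hH1 : ∀ m, s.H1 (Sum.inr m)) (hcn : ∀ m, s.Conn (Sum.inr m))
    (hroot : ∀ m, bm m ∈ s.P ∧ s.lab (bm m) = Sum.inr m)
    (hout : ∀ m c, bm m ∉ KJ T (J c)) (hcar : ∀ m, Car s (Sum.inr m) (Sf m))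
    (hsub : ∀ m, Sf m ⊆ Om)
    (hpos : ∀ m, ∀ w ∈ s.P, s.lab w = Sum.inr m → w ∈ Om ∧ T.dim w = 1 ∧
      (∀ i, w ∈ P (T.H i) → i ∈ V m.co) ∧ gmf Φ l0 mm ra m.am m.Zm (Φ.Psi (f w)) ≤ hi')
    {v0 v1 : ∀ c, BM Φ X → VxK T (KT T J X) c}
    (hv0 : ∀ c m, cx m = c → ∀ e, |sb Φ (θ c.1 (v0 c m).1) e -
      uu m.am m.Zm (pp m) (qq m) (1 / 2) 0 e| ≤ (2 * Cn δ R + 1) * κ1)
    (hv1 : ∀ c m, cx m = c → ∀ e, |sb Φ (θ c.1 (v1 c m).1) e -
      uu m.am m.Zm (pp m) (qq m) (1 / 2) 1 e| ≤ (2 * Cn δ R + 1) * κ1)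
    (heg : ∀ c m, cx m = c → Nonempty
      (EG s (Sum.inr m) (Sf m) (KT T J X) c (v0 c m) (v1 c m) (bm m))) :
    DInR (fun c => Dia_316.coreH_KT hC c) s bm Sf (fun c m => cx m = c) v0 v1
      (uM Φ hLa BM.am BM.Zm θ) (fun _ _ => Aw) (fun _ _ => Bw) := by
  have hCn := Cn_nonneg hδ hR
  have hk : 0 ≤ Cn δ R * κ1 := mul_nonneg hCn hκ0.le
  have e1 : (2 * Cn δ R + 1) * κ1 = 2 * (Cn δ R * κ1) + κ1 := by ring
  have hk1 : Cn δ R * κ1 < 1 := by linarith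
  have hl : 0 ≤ l0 * hi' := mul_nonneg hN.hl.le hN.hhi.le
  have hM : ∀ (c : Ti X) (m : BM Φ X), cx m = c →
      Mo (Pc Φ.F) c.1 m.am m.Zm (pp m) (qq m) := by
    intro c m hm
    have M := mo_pq m
    rw [← cx_co, hm] at M
    exact M
  exact
  { h1 := hH1
    conn := hcn
    root := hroot
    out := fun m c h => hout m c.1 (interior_subset h)
    dim1 := fun w hw m hl => ⟨(hpos m w hw hl).1, (hpos m w hw hl).2.1⟩
    car := hcar
    sub := hsub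
    finJ := fun a => (finite_singleton a).subset fun j hj => hj
    nb_c := fun c => bm_fin hLa c
    nb_a := fun a => (finite_singleton (cx a)).subset fun c hc => (show cx a = c from hc).symm
    far := fun c w m hw hl hf => bm_far hC (hpos m w hw hl).2.2.1 hf
    eg := fun c m hm => heg c m hm
    low := by
      intro c w m hw hl hf
      obtain ⟨g1, g2, g3, g4⟩ := hpos m w hw hl
      have hm := bm_far hC g3 hf
      obtain ⟨ρ1, ρ2, ρ3, ρ4, d, -, hr⟩ := exists_rm (hC.tiny c.1 c.2)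
      have h5 := hr.fr w hf
      have h6 := (lev_Icc hLa H (hC.tiny c.1 c.2) hr g1
        (by linarith [h5.1, hr.r12, hr.d0]) (by linarith [h5.2, hr.r34, hr.d0])).2
      refine (fs_low hLa hδ hR hk1 (hC.tiny c.1 c.2) (hM c m hm) (mo_p (hM c m hm))
        (mo_m (hM c m hm)) hN.hl hN.hra (mm := mm) (hi := hi') (by linarith) n4 n5 hf h6
        g4).trans ?_
      show l0 * hi' + Cn δ R * κ1 ≤ Aw
      linarith
    v0_lt := by
      intro c m hm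
      refine (fs_uu0 hLa (hM c m hm) (mo_p (hM c m hm)) (mo_m (hM c m hm))
        (th_mem (hC.tiny c.1 c.2) (v0 c m).2.2) n6 (hv0 c m hm)).trans ?_
      show (2 * Cn δ R + 1) * κ1 ≤ Aw
      linarith
    v1_gt := by
      intro c m hm
      refine le_trans n3 (fs_uu1 hLa (hM c m hm) (fun e he => mem_Nb.2 he)
        (th_mem (hC.tiny c.1 c.2) (v1 c m).2.2) (hv1 c m hm))
    lev := fun c lvl hlvl Q hQ => lev_mo hLa hC.tiny (moD hLa) (by linarith) n2 (by linarith)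
      (fun c a p m Z M t ht0 ht1 => by
        obtain ⟨h1, -, h3⟩ := Bar_543.fs_eq_c hLa M (fun e he => mem_Nb.2 he) ht0 ht1
        exact ⟨h1, h3⟩) c lvl hlvl Q hQ }

end Crest.Agent.R096.Dib_438
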