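import Crest.Agent.R096.Dib6_438
import Crest.Agent.R096.Rte1_543
import Crest.Agent.R096.Nmd1_698
import Crest.Agent.R096.Dff1_539

/-! Row 96 (helper438), DOORS, part 7: **LEAF A with 543's roots, and the slices and towers over
it** (numbers of record `NumD`) -/

set_option autoImplicit false
set_option linter.unusedSectionVars false
set_option linter.style.longLine false

open Set Topology Filter Metric Module MeasureTheory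
open scoped Classical

namespace Crest.Agent.R096.Dib_438

open Crest.Agent.R096.Msh_715 Crest.Agent.R096.Coh_184 Crest.Agent.R096.Bsp_628
  Crest.Agent.R096.Brk1_582 Crest.Agent.R096.Brk2_582 Crest.Agent.R096.Brk3_582
  Crest.Agent.R096.Brk5_582 Crest.Agent.R096.Init_543 Crest.Agent.R096.Mbf_337
  Crest.Agent.R96.Push_899 Crest.Agent.R096.Ess4_95 Crest.Agent.R096.Ess5_95
  Crest.Agent.R096.Lab_184 Crest.Agent.R096.Main_4 Crest.Agent.R096.Exa_560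
  Crest.Agent.R096.Agl4_543 Crest.Agent.R096.Agl5_543 Crest.Agent.R096.Agl6_543
  Crest.Agent.R096.Seq_213 Crest.Agent.R096.St_147 Crest.Agent.R096.Door_501
  Crest.Agent.R096.Twr_438 Crest.Agent.R096.Bar_106 Crest.Agent.R096.Ebr4_95
  Crest.Agent.R096.Bgf_4
open Crest.Agent.R096.SkC1_961 (E3 Hom3 IsPush FoamD)
open Crest.Agent.R096.Ess3_95 (outK)
open Crest.Agent.R096.Ess7_95 (KT Sh)
open Crest.Agent.R096.Frn_337 (Ti)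
open Crest.Agent.R096.Dia_316 (nbT)
open Crest.Agent.R096.Dfi_539 (DIn LevOut)
open Crest.Agent.R096.Dfi_471 (TwOut)
open Crest.Agent.R096.Dff_539 (vS fmB Mon exists_pipe)
open Crest.Agent.R096.Dfg_539 (BRec)
open Crest.Agent.R096.Dfn_416 (BarS)
open Crest.Agent.R096.Bmf_416 (coT coT_fin)
open Crest.Agent.R096.Dis_184 (Part)
open Crest.Agent.R096.Frs_662 (slC)
open Crest.Agent.R096.Nmd1_698 (NumD)

variable {δ κ0 R c0 : ℝ} {La Om : Set E3} {ι : Type} {Φ : FoamD δ κ0 R c0 La} {T : Tiling Om ι}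
  {f g : E3 → E3} {κ1 κ2 μ : ℝ} {X : Set Φ.F} {J0 J V : Φ.F → Set ι}
  {ct ct' : Φ.F → ι} {A : Φ.F → E3 ≃ᵃ[ℝ] E3} {lam : Φ.F → ℝ} {z : Φ.F → E3}
  {θ : Φ.F → E3 → E3} {φ : Φ.F → E3 → ℝ} {r₀ : Φ.F → ℝ}
  {L : Φ.F → Finset ℝ} [Nonempty (JJ Φ L)] {hG : GF Φ r₀ T f L} {bp : JJ Φ L → E3}

/-- roots of the machine families (543's `exists_rootE`) -/
def RootE (Φ : FoamD δ κ0 R c0 La) (T : Tiling Om ι) (f : E3 → E3) (J0 V : Φ.F → Set ι)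
    {r₀ : Φ.F → ℝ} {L : Φ.F → Finset ℝ} [Nonempty (JJ Φ L)] (hG : GF Φ r₀ T f L)
    (bp : JJ Φ L → E3) (ε₀ : ℝ) (r : JJ Φ L → E3) : Prop :=
  ∀ j, (r j ∈ (st0 hG bp).P ∧ (st0 hG bp).lab (r j) = j) ∧
    ∃ q, r j ∈ P (T.H q) ∧ (∃ c, ∃ x ∈ P (T.H q), f x ∈ Lbp_438.Wl Φ c) ∧ (∀ c, q ∉ V c) ∧
      ∀ (k : QK (Pc Φ.F)) (s : ℝ), j.1 ∈ k.B → ε₀ < s →
        q ∉ Act0 T (Pc Φ.F) (bc (F := Φ.F)) (RF Φ r₀) f (KorJ Φ J0) s k

/-- **everything before CUT**: roots, vertices, barriers, `DIn`, position record, slices, towers -/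
theorem exists_upE (hLa : IsOpen La) (hLc : IsPreconnected La) (hf : Hom3 f Om La)
    (hn : NumD δ κ0 R c0 κ2 μ κ1)
    (hC : Cores Φ T f κ1 κ2 X J0 J V ct A lam z θ φ) (hF : Fine Φ T f κ1 J0)
    {hI : InitR Φ T f g J0 ct' r₀} {ε₀ s₁ : ℝ}
    {hM : Mesh0 T (Pc Φ.F) (bc (F := Φ.F)) (RF Φ r₀) f (KorJ Φ J0) ε₀} {hε : ε₀ < s₁}
    {hε1 : ε₀ < 1} {D : Φ.F → Set E3} {lam₀ : JJ Φ L → E3 → ZMod 2} {v₀ v₁ : Φ.F → E3}
    (hS : InitS hLa hI hM hε hε1 hG D bp lam₀ v₀ v₁)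
    (hm : ∀ c, ∀ t ∈ L c, μ ≤ t ∧ t ≤ 1 - μ)
    (N : BM Φ X → Set ℝ) (hN0 : ∀ m, volume (N m) = 0) (nn : Ti X → ℕ) :
    ∃ (r : JJ Φ L → E3) (v0 v1 : ∀ c, Φ.F → VxK T (KT T J X) c)
      (ρ1 ρ2 ρ3 ρ4 d : Φ.F → ℝ) (q₀ : BM Φ X → E3) (ε : BM Φ X → ℝ) (bm : BM Φ X → E3)
      (hGB : GFB Φ r₀ T f L (lRc Φ X μ ρ1 ρ3 d) ε)
      (v0B v1B : ∀ c, BM Φ X → VxK T (KT T J X) c),
      RootE Φ T f J0 V hG bp ε₀ r ∧
      (∀ (c : Ti X) a, nbT Φ X c a → sb Φ (θ c.1 (v0 c a).1) a ≤ (2 * Cn δ R + 1) * κ1) ∧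
      (∀ (c : Ti X) a, nbT Φ X c a → 1 - (2 * Cn δ R + 1) * κ1 ≤ sb Φ (θ c.1 (v1 c a).1) a) ∧
      BarOut Φ T f κ1 μ X J0 J V θ hG bp N ρ1 ρ2 ρ3 ρ4 d q₀ ε bm hGB v0B v1B ∧
      BarS hG bp V coT (stB hGB bp bm) ∧
      DIn (fun c => Dia_316.coreH_KT hC c) (stB hGB bp bm) (Sum.elim r bm)
        (SfA Om Φ X r₀ f L μ ρ1 ρ3 d ε) (nbA Φ X) (vS v0 v0B) (vS v1 v1B) (uA Φ hLa X θ)
        (AA Φ X μ κ1) (BA Φ X μ) ∧
      BRec hLa (stB hGB bp bm) f X J θ coT BM.am BM.Zm (nbA Φ X) (vS v0 v0B) (vS v1 v1B)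
        (uA Φ hLa X θ) (AA Φ X μ κ1) (BA Φ X μ) μ (Cn δ R * κ1) (μ / 8) (1 / 2)
        (1 / 2 - 5 * μ / 16) (1 + μ / 16) (5 * μ / 32) (3 * μ / 16) ∧
      ∃ (n : Ti X → ℕ) (hn0 : ∀ c, 0 < n c), (∀ c, nn c ≤ n c) ∧
        ∃ (Lv : ∀ c, Φ.F ⊕ BM Φ X →
            Lev T (frontier ((slC hLa hC n hn0).K c)) (JJ Φ L ⊕ BM Φ X))
          (Tw : Twrs ((slC hLa hC n hn0).sh fr3) (slC hLa hC n hn0).n
            (outK (slC hLa hC n hn0).hH (slC hLa hC n hn0).dis (stB hGB bp bm) (Sum.elim r bm))),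
          LevOut (stB hGB bp bm) (nbA Φ X) (uA Φ hLa X θ) (AA Φ X μ κ1) (BA Φ X μ) Lv ∧
          TwOut (slC hLa hC n hn0) fr3 (stB hGB bp bm) (Sum.elim r bm) (vS v0 v0B) (vS v1 v1B)
            Lv Tw ∧
          Mon (slC hLa hC n hn0) fr3 Lv Tw := by
  have hδ := hn.hδ
  have hR := hn.hR
  have hκ0 := hn.hκ
  have hμ := hn.hμ
  have hμ1 := hn.half
  have hκ' : (2 * Cn δ R + 1) * κ1 ≤ μ ^ 2 / 512 := by
    have h1 := hn.sm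
    have h2 := hn.cn0
    have e1 : (2 * Cn δ R + 1) * κ1 = 2 * (Cn δ R * κ1) + κ1 := by ring
    have e2 : 65536 * ((Cn δ R + 1) * κ1) = 65536 * (Cn δ R * κ1) + 65536 * κ1 := by ring
    linarith
  have e2 : μ ^ 2 / 512 ≤ μ / 1024 := by nlinarith
  obtain ⟨r, v0, v1, h1, h2, h3, D1⟩ := Rte_543.exists_dIn_initE
    (hH := fun c => Dia_316.coreH_KT hC c) hLa hLc hf hδ hR hκ0 hn.cn8 hμ1 hC hF hS hm
  have hL : ∀ c, ∀ t ∈ L c, 0 < t ∧ t < 1 := fun c t ht => by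
    obtain ⟨g1, g2⟩ := hm c t ht
    exact ⟨by linarith, by linarith⟩
  have hbp : ∀ j : JJ Φ L, bp j ∈ Om ∧ T.dim (bp j) = 1 ∧ Φ.lev j.1 (f (bp j)) = j.2.1 :=
    fun j => ⟨(hS.base j).1, (hS.base j).2.1, (hS.base j).2.2.1⟩
  obtain ⟨ρ1, ρ2, ρ3, ρ4, d, q₀, ε, bm, hGB, v0B, v1B, hB⟩ :=
    exists_barOut (hG := hG) hLa hδ hR hκ0 hμ hμ1 hκ' hC hI hL hbp N hN0
  have hD2 := hB.dinR hLa hδ hR hκ0 hμ hμ1 hκ' hC hI
  have hDIn : DIn (fun c => Dia_316.coreH_KT hC c) (stB hGB bp bm) (Sum.elim r bm)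
        (SfA Om Φ X r₀ f L μ ρ1 ρ3 d ε) (nbA Φ X) (vS v0 v0B) (vS v1 v1B) (uA Φ hLa X θ)
        (AA Φ X μ κ1) (BA Φ X μ) := din_sumR (part_ext' hB.ext) D1 hD2
  obtain ⟨n, hn0, hmn, Lv, Tw, lo, tt, mon⟩ := exists_pipe hLa hC.tiny hDIn nn
  refine ⟨r, v0, v1, ρ1, ρ2, ρ3, ρ4, d, q₀, ε, bm, hGB, v0B, v1B, h1, h2, h3, hB,
    ⟨hB.ext, fun w hw m hl i hi => (hB.pos m w hw hl).2.2.2.1 i hi, fun k => coT_fin hLa k⟩,
    hDIn, ?_, n, hn0, hmn, Lv, Tw, lo, tt, mon⟩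
  exact
  { nbl := fun c a => Iff.rfl
    ul := fun c a x => rfl
    Al := fun c a => rfl
    Bl := fun c a => rfl
    v0l := fun c a ha => (h2 c a ha).trans (by linarith)
    v1l := fun c a ha => le_trans (by linarith) (h3 c a ha)
    trl := fun w hw j hl => by
      obtain ⟨g1, g2⟩ := hB.ext.of_lab hw hl
      have g3 := (st0_mem hLa hI g1).2.2
      rw [g2] at g3
      rw [g3]
      exact hm _ _ j.2.2
    mo := fun m => m.mo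
    nbm := fun c m => Iff.rfl
    um := fun c m x => rfl
    Am := fun c m => rfl
    Bm := fun c m => rfl
    trm := fun w hw m hl => hB.lev m w hw hl }

end Crest.Agent.R096.Dib_438
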