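import Crest.Agent.R096.Log1_582
import Crest.Agent.R096.Brk7_582
import Crest.Agent.R96.En10_199

/-!
# Row 96, DICT (task 2217): weak derivatives of the coordinates of a map into the walls

`f : Ω → walls`, `D` its weak derivative in the direction `e`, `v c = s_c ∘ f`, `g c` the weak
derivative of `v c`.
-/

set_option autoImplicit false
set_option linter.unusedSectionVars false
set_option linter.style.haveILetI false
open Set Filter Topology MeasureTheory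
open scoped NNReal ENNReal

namespace Crest.Agent.R096.Dic1_582

open Crest.Agent.R096.Brk1_582 Crest.Agent.R096.Brk2_582 Crest.Agent.R096.Brk3_582
open Crest.Agent.R096.Brk4_582 Crest.Agent.R096.Brk5_582 Crest.Agent.R096.Brk7_582
open Crest.Agent.R096.Bsp_628 Crest.Agent.R096.Log1_582
open Crest.Agent.R96.Acl_392 Crest.Agent.R96.Sob2_199 Crest.Agent.R96.Sob3_199
open Crest.Agent.R96.Sob4_199 Crest.Agent.R96.Sob5_199 Crest.Agent.R96.En10_199

section general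

variable {E : Type*} [NormedAddCommGroup E] [NormedSpace ℝ E] [FiniteDimensional ℝ E]
  [MeasurableSpace E] [BorelSpace E] {μ : Measure E} [μ.IsAddHaarMeasure]

/-- **weak derivatives agree a.e. on the coincidence set** -/
theorem wd_coinc {Ω : Set E} (hΩ : IsOpen Ω) {v g v' g' : E → ℝ} {e : E} (h : WD Ω μ v g e)
    (hv : ContinuousOn v Ω) (h' : WD Ω μ v' g' e) (hv' : ContinuousOn v' Ω) :
    ∀ᵐ x ∂μ, x ∈ Ω → v x = v' x → g x = g' x := by
  filter_upwards [wd_level hΩ (wd_sub h h') (hv.sub hv') 0] with x hx hxΩ hxv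
  have := hx hxΩ (by simp [hxv])
  exact sub_eq_zero.1 this

theorem wd_aff {Ω : Set E} (hΩ : IsOpen Ω) {v g v' g' : E → ℝ} {e : E} (h : WD Ω μ v g e)
    (hv : ContinuousOn v Ω) (h' : WD Ω μ v' g' e) (hv' : ContinuousOn v' Ω) (α β : ℝ) :
    ∀ᵐ x ∂μ, x ∈ Ω → v x = α + β * v' x → g x = β * g' x := by
  filter_upwards [wd_level hΩ (wd_sub h (wd_const_mul h' β))
    (hv.sub (continuousOn_const.mul hv')) α] with x hx hxΩ hxv
  have := hx hxΩ (by rw [hxv]; ring)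
  exact sub_eq_zero.1 this

end general

/-! ### good squares -/

/-- a good square of the foam `F` which contains the logs around it -/
structure GSq (F : Set (Bx (Fin 3))) (q : ℕ) (a : Fin 3 → ℝ) (h : ℝ) (e o i j : ℤ) : Prop where
  he : Even e
  ho : ¬ Even o
  adj : o = e + 1 ∨ e = o + 1
  good : GoodSq q i j
  hE : ∀ τ : ℤ, τ = -1 ∨ τ = 0 ∨ τ = 1 → Lx q a h e i (j + τ) ∈ F
  hO : ∀ σ : ℤ, σ = -1 ∨ σ = 0 ∨ σ = 1 → Ly q a h o (i + σ) j ∈ F

/-- the closed square -/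
def sqr (a : Fin 3 → ℝ) (h : ℝ) (e o i j : ℤ) : Set (Fin 3 → ℝ) :=
  Icc (pt a h i j ((max e o : ℤ) : ℝ)) (pt a h (i + 1) (j + 1) ((max e o : ℤ) : ℝ))

theorem mem_sqr {a : Fin 3 → ℝ} {h : ℝ} {e o i j : ℤ} {y : Fin 3 → ℝ} :
    y ∈ sqr a h e o i j ↔ (a 0 + h * i ≤ y 0 ∧ y 0 ≤ a 0 + h * (i + 1)) ∧
      (a 1 + h * j ≤ y 1 ∧ y 1 ≤ a 1 + h * (j + 1)) ∧
      y 2 = a 2 + h * ((max e o : ℤ) : ℝ) := by
  rw [sqr, mem_Icc, Pi.le_def, Pi.le_def]
  simp only [Fin.forall_fin_succ, Fin.succ_zero_eq_one, Fin.succ_one_eq_two, pt_zero, pt_one,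
    pt_two, IsEmpty.forall_iff, and_true]
  constructor
  · rintro ⟨⟨b1, b3, b5⟩, b2, b4, b6⟩
    exact ⟨⟨b1, b2⟩, ⟨b3, b4⟩, le_antisymm b6 b5⟩
  · rintro ⟨⟨b1, b2⟩, ⟨b3, b4⟩, b5⟩
    exact ⟨⟨b1, b3, b5.ge⟩, b2, b4, b5.le⟩

section sq

variable {q : ℕ} {a : Fin 3 → ℝ} {h : ℝ} {F : Set (Bx (Fin 3))} {La : Set (Fin 3 → ℝ)} {δ κ0 : ℝ}
  {e o i j : ℤ}

/-- the four neighbours -/
noncomputable def GSq.xp (G : GSq F q a h e o i j) : F := ⟨_, G.hO 1 (Or.inr (Or.inr rfl))⟩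
noncomputable def GSq.xm (G : GSq F q a h e o i j) : F := ⟨_, G.hO (-1) (Or.inl rfl)⟩
noncomputable def GSq.yp (G : GSq F q a h e o i j) : F := ⟨_, G.hE 1 (Or.inr (Or.inr rfl))⟩
noncomputable def GSq.ym (G : GSq F q a h e o i j) : F := ⟨_, G.hE (-1) (Or.inl rfl)⟩

open Classical in
/-- the coordinates on a good square, in terms of the point -/
theorem GSq.sc_eq (G : GSq F q a h e o i j) (BF : BoxFoam La F δ κ0) (hLa : IsOpen La)
    (hq : 1 ≤ q) (hh : 0 < h) {y : Fin 3 → ℝ} (hy : y ∈ sqr a h e o i j) (c : F) :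
    sc (Pc F) (bc (F := F)) y c =
      if c.1 = Lx q a h e i j ∨ c.1 = Ly q a h o i j then 0
      else if c = G.xp then 1 - 2 * max ((y 0 - a 0) / h - (i + 1 / 2)) 0
      else if c = G.xm then 1 - 2 * max (-((y 0 - a 0) / h - (i + 1 / 2))) 0
      else if c = G.yp then 1 - 2 * max ((y 1 - a 1) / h - (j + 1 / 2)) 0
      else if c = G.ym then 1 - 2 * max (-((y 1 - a 1) / h - (j + 1 / 2))) 0
      else 1 := by
  obtain ⟨⟨h1, h2⟩, ⟨h3, h4⟩, h5⟩ := mem_sqr.1 hy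
  set ξ : ℝ := (y 0 - a 0) / h - (i + 1 / 2) with hξ
  set ζ : ℝ := (y 1 - a 1) / h - (j + 1 / 2) with hζ
  have e1 : (y 0 - a 0) / h = i + 1 / 2 + ξ := by rw [hξ]; ring
  have e2 : (y 1 - a 1) / h = j + 1 / 2 + ζ := by rw [hζ]; ring
  have e1' : y 0 = a 0 + h * (i + 1 / 2 + ξ) := by
    rw [← e1]; field_simp; ring
  have e2' : y 1 = a 1 + h * (j + 1 / 2 + ζ) := by
    rw [← e2]; field_simp; ring
  have hy' : y = pt a h (i + 1 / 2 + ξ) (j + 1 / 2 + ζ) ((max e o : ℤ) : ℝ) := by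
    funext k
    fin_cases k
    · exact e1'
    · exact e2'
    · exact h5
  have b1 : |ξ| ≤ 1 / 2 := by
    rw [e1'] at h1 h2
    rw [abs_le]
    constructor
    · have := le_of_mul_le_mul_left (by linarith : h * (i : ℝ) ≤ h * (i + 1 / 2 + ξ)) hh
      linarith
    · have := le_of_mul_le_mul_left (by linarith : h * (i + 1 / 2 + ξ) ≤ h * ((i : ℝ) + 1)) hh
      linarith
  have b2 : |ζ| ≤ 1 / 2 := by
    rw [e2'] at h3 h4
    rw [abs_le]
    constructor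
    · have := le_of_mul_le_mul_left (by linarith : h * (j : ℝ) ≤ h * (j + 1 / 2 + ζ)) hh
      linarith
    · have := le_of_mul_le_mul_left (by linarith : h * (j + 1 / 2 + ζ) ≤ h * ((j : ℝ) + 1)) hh
      linarith
  have := sc_square BF hLa hq hh G.he G.ho G.adj G.good G.hE G.hO b1 b2 c
  rw [hy', this]
  simp only [GSq.xp, GSq.xm, GSq.yp, GSq.ym, Subtype.ext_iff, sub_eq_add_neg]

theorem GSq.xp_ne_xm (G : GSq F q a h e o i j) (hh : 0 < h) : G.xp ≠ G.xm := fun h1 => by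
  have := Ly_inj hh G.ho (congrArg Subtype.val h1)
  omega

theorem GSq.yp_ne_ym (G : GSq F q a h e o i j) (hh : 0 < h) : G.yp ≠ G.ym := fun h1 => by
  have := Lx_inj hh G.he (congrArg Subtype.val h1)
  omega

theorem GSq.xp_ne_yp (G : GSq F q a h e o i j) (hh : 0 < h) : G.xp ≠ G.yp := fun h1 =>
  Lx_ne_Ly hh G.he G.ho (congrArg Subtype.val h1).symm

theorem GSq.xp_ne_ym (G : GSq F q a h e o i j) (hh : 0 < h) : G.xp ≠ G.ym := fun h1 =>
  Lx_ne_Ly hh G.he G.ho (congrArg Subtype.val h1).symm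

theorem GSq.xm_ne_yp (G : GSq F q a h e o i j) (hh : 0 < h) : G.xm ≠ G.yp := fun h1 =>
  Lx_ne_Ly hh G.he G.ho (congrArg Subtype.val h1).symm

theorem GSq.xm_ne_ym (G : GSq F q a h e o i j) (hh : 0 < h) : G.xm ≠ G.ym := fun h1 =>
  Lx_ne_Ly hh G.he G.ho (congrArg Subtype.val h1).symm

theorem GSq.xp_not (G : GSq F q a h e o i j) (hh : 0 < h) :
    ¬ (G.xp.1 = Lx q a h e i j ∨ G.xp.1 = Ly q a h o i j) := by
  rintro (h1 | h1)
  · exact Lx_ne_Ly hh G.he G.ho h1.symm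
  · have := Ly_inj hh G.ho h1; omega

theorem GSq.xm_not (G : GSq F q a h e o i j) (hh : 0 < h) :
    ¬ (G.xm.1 = Lx q a h e i j ∨ G.xm.1 = Ly q a h o i j) := by
  rintro (h1 | h1)
  · exact Lx_ne_Ly hh G.he G.ho h1.symm
  · have := Ly_inj hh G.ho h1; omega

theorem GSq.yp_not (G : GSq F q a h e o i j) (hh : 0 < h) :
    ¬ (G.yp.1 = Lx q a h e i j ∨ G.yp.1 = Ly q a h o i j) := by
  rintro (h1 | h1)
  · have := Lx_inj hh G.he h1; omega
  · exact Lx_ne_Ly hh G.he G.ho h1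

theorem GSq.ym_not (G : GSq F q a h e o i j) (hh : 0 < h) :
    ¬ (G.ym.1 = Lx q a h e i j ∨ G.ym.1 = Ly q a h o i j) := by
  rintro (h1 | h1)
  · have := Lx_inj hh G.he h1; omega
  · exact Lx_ne_Ly hh G.he G.ho h1

section val

variable (G : GSq F q a h e o i j) (BF : BoxFoam La F δ κ0) (hLa : IsOpen La)
    (hq : 1 ≤ q) (hh : 0 < h) {y : Fin 3 → ℝ} (hy : y ∈ sqr a h e o i j)

include BF hLa hq hh hy

theorem GSq.sc_xp : sc (Pc F) (bc (F := F)) y G.xp =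
    1 - 2 * max ((y 0 - a 0) / h - (i + 1 / 2)) 0 := by
  classical
  rw [G.sc_eq BF hLa hq hh hy, if_neg (G.xp_not hh), if_pos rfl]

theorem GSq.sc_xm : sc (Pc F) (bc (F := F)) y G.xm =
    1 - 2 * max (-((y 0 - a 0) / h - (i + 1 / 2))) 0 := by
  classical
  rw [G.sc_eq BF hLa hq hh hy, if_neg (G.xm_not hh), if_neg (G.xp_ne_xm hh).symm, if_pos rfl]

theorem GSq.sc_yp : sc (Pc F) (bc (F := F)) y G.yp =
    1 - 2 * max ((y 1 - a 1) / h - (j + 1 / 2)) 0 := by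
  classical
  rw [G.sc_eq BF hLa hq hh hy, if_neg (G.yp_not hh), if_neg (G.xp_ne_yp hh).symm,
    if_neg (G.xm_ne_yp hh).symm, if_pos rfl]

theorem GSq.sc_ym : sc (Pc F) (bc (F := F)) y G.ym =
    1 - 2 * max (-((y 1 - a 1) / h - (j + 1 / 2))) 0 := by
  classical
  rw [G.sc_eq BF hLa hq hh hy, if_neg (G.ym_not hh), if_neg (G.xp_ne_ym hh).symm,
    if_neg (G.xm_ne_ym hh).symm, if_neg (G.yp_ne_ym hh).symm, if_pos rfl]

theorem GSq.sc_other {c : F} (h1 : c ≠ G.xp) (h2 : c ≠ G.xm) (h3 : c ≠ G.yp) (h4 : c ≠ G.ym) :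
    sc (Pc F) (bc (F := F)) y c = 0 ∨ sc (Pc F) (bc (F := F)) y c = 1 := by
  classical
  rw [G.sc_eq BF hLa hq hh hy, if_neg h1, if_neg h2, if_neg h3, if_neg h4]
  split_ifs
  · exact Or.inl rfl
  · exact Or.inr rfl

end val

/-! ### (D1) derivatives on the preimage of a good square -/

variable {E : Type*} [NormedAddCommGroup E] [NormedSpace ℝ E] [FiniteDimensional ℝ E]
  [MeasurableSpace E] [BorelSpace E] {μ : Measure E} [μ.IsAddHaarMeasure]

/-- one direction of the square -/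
theorem pair_ae {Ω : Set E} (hΩ : IsOpen Ω) {u : E} {f D vp vm gp gm : E → ℝ}
    (hf : WD Ω μ f D u) (hfc : ContinuousOn f Ω) (hp : WD Ω μ vp gp u) (hpc : ContinuousOn vp Ω)
    (hm : WD Ω μ vm gm u) (hmc : ContinuousOn vm Ω) {h b m : ℝ} (hh : 0 < h) :
    ∀ᵐ x ∂μ, x ∈ Ω → vp x = 1 - 2 * max ((f x - b) / h - m) 0 →
      vm x = 1 - 2 * max (-((f x - b) / h - m)) 0 → |gp x| + |gm x| = 2 / h * |D x| := by
  filter_upwards [wd_aff hΩ hp hpc hf hfc (1 + 2 * (b / h + m)) (-(2 / h)),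
    wd_level hΩ hp hpc 1, wd_aff hΩ hm hmc hf hfc (1 - 2 * (b / h + m)) (2 / h),
    wd_level hΩ hm hmc 1] with x h1 h2 h3 h4 hx hvp hvm
  rcases le_total 0 ((f x - b) / h - m) with h0 | h0
  · rw [max_eq_left h0] at hvp
    rw [max_eq_right (by linarith)] at hvm
    have g1 := h1 hx (by rw [hvp]; field_simp; ring)
    have g2 := h4 hx (by rw [hvm]; ring)
    rw [g1, g2, abs_zero, add_zero, abs_mul, abs_neg, abs_of_pos (by positivity)]
  · rw [max_eq_right h0] at hvp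
    rw [max_eq_left (by linarith)] at hvm
    have g1 := h2 hx (by rw [hvp]; ring)
    have g2 := h3 hx (by rw [hvm]; field_simp; ring)
    rw [g1, g2, abs_zero, zero_add, abs_mul, abs_of_pos (by positivity)]

/-- **(D1)**: on the preimage of a good square the derivatives of the coordinates are those of the
two horizontal coordinates, and the third component does not move -/
theorem good_ae (G : GSq F q a h e o i j) (BF : BoxFoam La F δ κ0) (hLa : IsOpen La)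
    (hq : 1 ≤ q) (hh : 0 < h) {Ω : Set E} (hΩ : IsOpen Ω) {u : E}
    {f D : E → EuclideanSpace ℝ (Fin 3)} (hD : VWD Ω μ f D u) (hf : ContinuousOn f Ω)
    {g : F → E → ℝ}
    (hg : ∀ c, WD Ω μ (fun x => sc (Pc F) (bc (F := F)) (WithLp.ofLp (f x)) c) (g c) u)
    (hgc : ∀ c, ContinuousOn (fun x => sc (Pc F) (bc (F := F)) (WithLp.ofLp (f x)) c) Ω) :
    ∀ᵐ x ∂μ, x ∈ Ω → WithLp.ofLp (f x) ∈ sqr a h e o i j →
      D x 2 = 0 ∧ |g G.xp x| + |g G.xm x| = 2 / h * |D x 0| ∧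
      |g G.yp x| + |g G.ym x| = 2 / h * |D x 1| ∧
      ∀ c, c ≠ G.xp → c ≠ G.xm → c ≠ G.yp → c ≠ G.ym → g c x = 0 := by
  have hcnt : Countable F := BF.countable.to_subtype
  filter_upwards [wd_level hΩ (hD 2) (continuousOn_comp_apply hf 2)
      (a 2 + h * ((max e o : ℤ) : ℝ)),
    pair_ae hΩ (hD 0) (continuousOn_comp_apply hf 0) (hg G.xp) (hgc _) (hg G.xm) (hgc _)
      (b := a 0) (m := (i : ℝ) + 1 / 2) hh,
    pair_ae hΩ (hD 1) (continuousOn_comp_apply hf 1) (hg G.yp) (hgc _) (hg G.ym) (hgc _)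
      (b := a 1) (m := (j : ℝ) + 1 / 2) hh,
    ae_all_iff.2 fun c => wd_level hΩ (hg c) (hgc c) 0,
    ae_all_iff.2 fun c => wd_level hΩ (hg c) (hgc c) 1] with x h1 h2 h3 h4 h5 hx hy
  refine ⟨h1 hx (mem_sqr.1 hy).2.2, h2 hx (G.sc_xp BF hLa hq hh hy) (G.sc_xm BF hLa hq hh hy),
    h3 hx (G.sc_yp BF hLa hq hh hy) (G.sc_ym BF hLa hq hh hy), fun c c1 c2 c3 c4 => ?_⟩
  rcases G.sc_other BF hLa hq hh hy c1 c2 c3 c4 with h6 | h6
  · exact h4 c hx h6
  · exact h5 c hx h6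

/-- **(D1), weighted sum**: with the weight `h / 2` of the logs the sum is `|D_1| + |D_2|` -/
theorem good_tsum (G : GSq F q a h e o i j) (BF : BoxFoam La F δ κ0) (hLa : IsOpen La)
    (hq : 1 ≤ q) (hh : 0 < h) {Ω : Set E} (hΩ : IsOpen Ω) {u : E}
    {f D : E → EuclideanSpace ℝ (Fin 3)} (hD : VWD Ω μ f D u) (hf : ContinuousOn f Ω)
    {g : F → E → ℝ}
    (hg : ∀ c, WD Ω μ (fun x => sc (Pc F) (bc (F := F)) (WithLp.ofLp (f x)) c) (g c) u)
    (hgc : ∀ c, ContinuousOn (fun x => sc (Pc F) (bc (F := F)) (WithLp.ofLp (f x)) c) Ω)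
    {w : F → ℝ≥0∞} (hw : ∀ c : F, (∃ k j m, c.1 = logA a h q k j m) → w c = ENNReal.ofReal (h / 2)) :
    ∀ᵐ x ∂μ, x ∈ Ω → WithLp.ofLp (f x) ∈ sqr a h e o i j →
      D x 2 = 0 ∧ ∑' c, w c * ‖g c x‖ₑ = ‖D x 0‖ₑ + ‖D x 1‖ₑ := by
  classical
  filter_upwards [good_ae G BF hLa hq hh hΩ hD hf hg hgc] with x hx hxΩ hy
  obtain ⟨h1, h2, h3, h4⟩ := hx hxΩ hy
  refine ⟨h1, ?_⟩
  have hS : ∀ c ∉ ({G.xp, G.xm, G.yp, G.ym} : Finset F), w c * ‖g c x‖ₑ = 0 := by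
    intro c hc
    simp only [Finset.mem_insert, Finset.mem_singleton, not_or] at hc
    rw [h4 c hc.1 hc.2.1 hc.2.2.1 hc.2.2.2, enorm_zero, mul_zero]
  rw [tsum_eq_sum hS, Finset.sum_insert, Finset.sum_insert, Finset.sum_insert,
    Finset.sum_singleton, hw _ ⟨_, _, _, rfl⟩, hw G.xm ⟨_, _, _, rfl⟩, hw G.yp ⟨_, _, _, rfl⟩,
    hw G.ym ⟨_, _, _, rfl⟩]
  · have key : ∀ {A B C : ℝ}, |A| + |B| = 2 / h * |C| →
        ENNReal.ofReal (h / 2) * ‖A‖ₑ + ENNReal.ofReal (h / 2) * ‖B‖ₑ = ‖C‖ₑ := by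
      intro A B C hABC
      rw [← mul_add, ← ofReal_norm, ← ofReal_norm, ← ofReal_norm,
        ← ENNReal.ofReal_add (norm_nonneg _) (norm_nonneg _), ← ENNReal.ofReal_mul (by positivity)]
      congr 1
      simp only [Real.norm_eq_abs]
      rw [hABC]
      field_simp
    rw [← key h2, ← key h3]
    ring
  · simp only [Finset.mem_singleton]
    exact G.yp_ne_ym hh
  · simp only [Finset.mem_insert, Finset.mem_singleton, not_or]
    exact ⟨G.xm_ne_yp hh, G.xm_ne_ym hh⟩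
  · simp only [Finset.mem_insert, Finset.mem_singleton, not_or]
    exact ⟨G.xp_ne_xm hh, G.xp_ne_yp hh, G.xp_ne_ym hh⟩

end sq

end Crest.Agent.R096.Dic1_582
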