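import Crest.Agent.R096.Dic1_582
import Crest.Agent.R096.Log2_582

/-!
# Row 96, DICT: pointwise Lipschitz constants, transport to `R3`, inputs of 199's `shift_R3`
-/

set_option autoImplicit false
set_option linter.unusedSectionVars false
set_option linter.style.haveILetI false
open Set Filter Topology MeasureTheory
open scoped NNReal ENNReal

namespace Crest.Agent.R096.Dic2_582

open Crest.Agent.R096.Brk1_582 Crest.Agent.R096.Brk2_582 Crest.Agent.R096.Brk3_582
open Crest.Agent.R096.Brk4_582 Crest.Agent.R096.Brk5_582 Crest.Agent.R096.Brk7_582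
open Crest.Agent.R096.Bsp_628 Crest.Agent.R096.Log1_582 Crest.Agent.R096.Log2_582
open Crest.Agent.R096.Dic1_582

section foam

variable {E : Type*} [NormedAddCommGroup E] [NormedSpace ℝ E] [CompleteSpace E] {I : Type*}
variable {La : Set E} {P : I → Set E} {b : Set I → E} {N : ℕ}

/-- near `y` only the cells of `y` are met -/
theorem act_near (F : Foam La P b N) {y : E} (hy : y ∈ La) : ∀ᶠ z in 𝓝 y, act P z ⊆ act P y := by
  obtain ⟨r, hr, hfin⟩ := F.lf y hy
  have h1 : ∀ᶠ z in 𝓝 y, ∀ c ∈ {c | (P c ∩ Metric.ball y r).Nonempty}, z ∈ P c → y ∈ P c := by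
    rw [Filter.eventually_all_finite hfin]
    intro c _
    by_cases hc : y ∈ P c
    · exact Eventually.of_forall fun _ _ => hc
    · filter_upwards [(F.cpt c).isClosed.isOpen_compl.mem_nhds hc] with z hz hz'
      exact absurd hz' hz
  filter_upwards [h1, Metric.ball_mem_nhds y hr] with z hz hzb c hc
  exact hz c ⟨z, hc, hzb⟩ hc

/-- the coordinate of a cell which does not touch `c0` is `1` on `c0` -/
theorem sc_eq_one_of_not_touch (F : Foam La P b N) {c c0 : I} (h : ¬ (P c ∩ P c0).Nonempty)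
    {y : E} (hy : y ∈ P c0) : sc P b y c = 1 := by
  have hyL := F.sub c0 hy
  refine le_antisymm (F.sc_le_one hyL c) (not_lt.1 fun hlt => h ?_)
  obtain ⟨x, hx⟩ := F.sc_lt_one_fc hyL
  refine ⟨x, mem_fc.1 hx c hlt, mem_fc.1 hx c0 ?_⟩
  change sc P b y c0 < 1
  rw [(F.sc_eq_zero hyL).2 hy]
  exact one_pos

/-- at most `N - 1` coordinates are different from `0` and `1` -/
theorem active_encard (F : Foam La P b N) {y : E} (hy : y ∈ La) :
    {c | sc P b y c ≠ 0 ∧ sc P b y c ≠ 1}.encard ≤ (N - 1 : ℕ) := by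
  have h1 : {c | sc P b y c ≠ 0 ∧ sc P b y c ≠ 1} = av (sc P b y) := by
    ext c
    simp only [av, mem_ofPred_eq]
    constructor
    · rintro ⟨h1, h2⟩
      exact ⟨lt_of_le_of_ne (F.sc_nonneg hy c) (Ne.symm h1), lt_of_le_of_ne (F.sc_le_one hy c) h2⟩
    · rintro ⟨h1, h2⟩
      exact ⟨h1.ne', h2.ne⟩
  rw [h1]
  have h2 := F.active_ncard hy
  have h3 : 1 ≤ (act P y).ncard := by
    rw [Nat.one_le_iff_ne_zero, Ne, ncard_eq_zero (F.finite_act hy)]
    exact (F.act_nonempty hy).ne_empty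
  have h4 : (av (sc P b y)).Finite := F.av_finite (F.sc_mem_K hy)
  rw [← h4.cast_ncard_eq]
  exact_mod_cast (by omega : (av (sc P b y)).ncard ≤ N - 1)

end foam

section box

variable {κ : Type*} [Fintype κ] [Nonempty κ] {La : Set (κ → ℝ)} {F : Set (Bx κ)} {δ κ0 : ℝ}

/-- **pointwise Lipschitz constants**: `Cs R / size c` everywhere -/
theorem sc_local (BF : BoxFoam La F δ κ0) (hLa : IsOpen La) (hδ : 0 < δ) {R : ℝ} (hR : 0 < R)
    (hcmp : Cmp F R) (c : F) {y : κ → ℝ} (hy : y ∈ La) :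
    ∀ᶠ z in 𝓝 y, z ∈ La → |sc (Pc F) (bc (F := F)) z c - sc (Pc F) (bc (F := F)) y c| ≤
      Cs (Fintype.card κ) δ R * R / c.1.sz * ‖z - y‖ := by
  have FF := foam BF hLa
  have hC := Cs_nonneg (n := Fintype.card κ) hδ hR
  filter_upwards [act_near FF hy] with z hz hzL
  obtain ⟨c0, hc0⟩ := FF.cov z hzL
  have hy0 : y ∈ Pc F c0 := hz hc0
  have hsz : 0 < c.1.sz := Bx.sz_pos (BF.pos _ c.2)
  have hsz0 : 0 < c0.1.sz := Bx.sz_pos (BF.pos _ c0.2)
  by_cases ht : (Pc F c ∩ Pc F c0).Nonempty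
  · refine (lip_cell BF hLa hδ hR hcmp c0 z hc0 y hy0 c).trans ?_
    refine mul_le_mul_of_nonneg_right ?_ (norm_nonneg _)
    have h1 := hcmp c c0 ht
    rw [div_le_div_iff₀ hsz0 hsz, mul_assoc]
    exact mul_le_mul_of_nonneg_left h1 hC
  · rw [sc_eq_one_of_not_touch FF ht hc0, sc_eq_one_of_not_touch FF ht hy0, sub_self, abs_zero]
    positivity

end box

/-! ### derivatives on sets where a function of `f` is Lipschitz -/

section deriv

open Crest.Agent.R96.Acl_392 Crest.Agent.R96.Sob2_199 Crest.Agent.R96.Sob3_199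
open Crest.Agent.R96.Sob4_199 Crest.Agent.R96.Sob5_199 Crest.Agent.R96.En10_199

variable {E : Type*} [NormedAddCommGroup E] [NormedSpace ℝ E] [FiniteDimensional ℝ E]
  [MeasurableSpace E] [BorelSpace E] {μ : Measure E} [μ.IsAddHaarMeasure]
variable {ι : Type*} [Fintype ι]

/-- if `v = θ ∘ f` on the preimage of a set on which `θ` is `K`-Lipschitz, then `|D v| ≤ K |D f|`
a.e. on this preimage -/
theorem wd_lipOn {Ω : Set E} (hΩ : IsOpen Ω) {u : E} {f D : E → EuclideanSpace ℝ ι}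
    (hD : VWD Ω μ f D u) (hf : ContinuousOn f Ω) {S : Set (EuclideanSpace ℝ ι)}
    {θ : EuclideanSpace ℝ ι → ℝ} {K : ℝ≥0} (hθ : LipschitzOnWith K θ S) {v g : E → ℝ}
    (hv : WD Ω μ v g u) (hvc : ContinuousOn v Ω) :
    ∀ᵐ x ∂μ, x ∈ Ω → f x ∈ S → v x = θ (f x) → |g x| ≤ K * ‖D x‖ := by
  obtain ⟨θ', hθ', hEq⟩ := hθ.extend_real
  have hloc : LocallyLipschitzOn univ θ' := fun y _ => ⟨K, univ, univ_mem, hθ'.lipschitzOnWith⟩
  obtain ⟨h1, -, h2, -⟩ := comp_real_bound hΩ hD hf (mapsTo_univ _ _) hloc (L := K) (by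
    intro y _ ε hε
    refine Eventually.of_forall fun z => ?_
    have h3 := hθ'.dist_le_mul z y
    rw [Real.dist_eq, dist_eq_norm] at h3
    refine h3.trans (mul_le_mul_of_nonneg_right (by linarith) (norm_nonneg _)))
  have hc : ContinuousOn (fun x => θ' (f x)) Ω := hθ'.continuous.comp_continuousOn hf
  filter_upwards [h2, wd_coinc hΩ hv hvc h1 hc] with x h3 h4 hx hxS hxv
  rw [h4 hx (by rw [hxv, hEq hxS])]
  exact h3 hx

end deriv

/-! ### (D1'): the horizontal faces, cut or not -/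

section hor

open Crest.Agent.R96.Acl_392 Crest.Agent.R96.Sob2_199 Crest.Agent.R96.Sob3_199
open Crest.Agent.R96.Sob4_199 Crest.Agent.R96.Sob5_199 Crest.Agent.R96.En10_199

variable {E : Type*} [NormedAddCommGroup E] [NormedSpace ℝ E] [FiniteDimensional ℝ E]
  [MeasurableSpace E] [BorelSpace E] {μ : Measure E} [μ.IsAddHaarMeasure]
variable {q : ℕ} {a : Fin 3 → ℝ} {h : ℝ} {F : Set (Bx (Fin 3))} {La : Set (Fin 3 → ℝ)} {δ κ0 : ℝ}

theorem norm_ofLp_sub_le {ι : Type*} [Fintype ι] (z y : EuclideanSpace ℝ ι) :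
    ‖WithLp.ofLp z - WithLp.ofLp y‖ ≤ ‖z - y‖ := by
  refine (pi_norm_le_iff_of_nonneg (norm_nonneg _)).2 fun k => ?_
  exact PiLp.norm_apply_le (p := 2) (z - y) k

theorem Hor.third {C O : F} (H : Hor F q a h C O) (hh : 0 < h) {y : Fin 3 → ℝ}
    (hy : y ∈ Pc F C ∩ Pc F O) : ∃ z : ℤ, y 2 = a 2 + h * z := by
  obtain ⟨k1, j1, m1, hk1, hE⟩ := H.even
  obtain ⟨k2, j2, m2, hk2, hO⟩ := H.odd
  have h1 : y ∈ C.1.set := hy.1
  have h2 : y ∈ O.1.set := hy.2
  rw [hE, Bx.mem_set] at h1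
  rw [hO, Bx.mem_set] at h2
  have h3 := h1 2
  have h4 := h2 2
  simp only [logA, Bx.aff, dmap, logB_lo2, logB_hi2] at h3 h4
  rcases lt_trichotomy k1 k2 with hlt | heq | hlt
  · refine ⟨k2, le_antisymm ?_ h4.1⟩
    have h5 : (k1 : ℝ) + 1 ≤ k2 := by exact_mod_cast hlt
    have := mul_le_mul_of_nonneg_left h5 hh.le
    linarith
  · exact absurd (heq ▸ hk1) hk2
  · refine ⟨k1, le_antisymm ?_ h3.1⟩
    have h5 : (k2 : ℝ) + 1 ≤ k1 := by exact_mod_cast hlt
    have := mul_le_mul_of_nonneg_left h5 hh.le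
    linarith

/-- **(D1')**: on the preimage of a horizontal face between two logs the third component does not
move and the weighted sum of the derivatives of the coordinates is at most `64 |D|` -/
theorem hor_tsum {C O : F} (H : Hor F q a h C O) (BF : BoxFoam La F δ κ0) (hLa : IsOpen La)
    (hq : 1 ≤ q) (hh : 0 < h) {Ω : Set E} (hΩ : IsOpen Ω) {u : E}
    {f D : E → EuclideanSpace ℝ (Fin 3)} (hD : VWD Ω μ f D u) (hf : ContinuousOn f Ω)
    {g : F → E → ℝ}
    (hg : ∀ c, WD Ω μ (fun x => sc (Pc F) (bc (F := F)) (WithLp.ofLp (f x)) c) (g c) u)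
    (hgc : ∀ c, ContinuousOn (fun x => sc (Pc F) (bc (F := F)) (WithLp.ofLp (f x)) c) Ω)
    {w : F → ℝ≥0∞} (hw : ∀ c : F, IsLog q a h c.1 → w c = ENNReal.ofReal (h / 2)) :
    ∀ᵐ x ∂μ, x ∈ Ω → WithLp.ofLp (f x) ∈ Pc F C ∩ Pc F O →
      D x 2 = 0 ∧ ∑' c, w c * ‖g c x‖ₑ ≤ 64 * ‖D x‖ₑ := by
  classical
  have hcnt : Countable F := BF.countable.to_subtype
  have FF := foam BF hLa
  have hlip : ∀ c : F, LipschitzOnWith (Real.toNNReal (64 / h))
      (fun y : EuclideanSpace ℝ (Fin 3) => sc (Pc F) (bc (F := F)) (WithLp.ofLp y) c)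
      {y | WithLp.ofLp y ∈ Pc F C ∩ Pc F O} := by
    intro c
    refine LipschitzOnWith.of_dist_le_mul fun y hy y' hy' => ?_
    rw [Real.dist_eq, dist_eq_norm, Real.coe_toNNReal _ (by positivity)]
    refine (H.lip BF hLa hq hh hy hy' c).trans ?_
    exact mul_le_mul_of_nonneg_left (norm_ofLp_sub_le y y') (by positivity)
  filter_upwards [ae_all_iff.2 fun z : ℤ => wd_level hΩ (hD 2) (continuousOn_comp_apply hf 2)
      (a 2 + h * (z : ℝ)),
    ae_all_iff.2 fun c => wd_lipOn hΩ hD hf (hlip c) (hg c) (hgc c),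
    ae_all_iff.2 fun c => wd_level hΩ (hg c) (hgc c) 0,
    ae_all_iff.2 fun c => wd_level hΩ (hg c) (hgc c) 1] with x h1 h2 h4 h5 hx hy
  have hyL : WithLp.ofLp (f x) ∈ La := FF.sub C hy.1
  refine ⟨?_, ?_⟩
  · obtain ⟨z, hz⟩ := Hor.third H hh hy
    exact h1 z hx hz
  · set y := WithLp.ofLp (f x) with hyd
    set Tset : Set F := av (sc (Pc F) (bc (F := F)) y) with hT
    have hTfin : Tset.Finite := FF.av_finite (FF.sc_mem_K hyL)
    have hcard : hTfin.toFinset.card ≤ 2 := by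
      rw [← ncard_eq_toFinset_card _ hTfin]
      have h6 : Tset.ncard + (act (Pc F) y).ncard ≤ _ := FF.active_ncard hyL
      have h7 : ({C, O} : Set F).ncard = 2 := ncard_pair (H.ne hh)
      have h8 : ({C, O} : Set F) ⊆ act (Pc F) y := by
        rintro c (rfl | rfl)
        · exact hy.1
        · exact hy.2
      have h9 := ncard_le_ncard h8 (FF.finite_act hyL)
      simp only [Fintype.card_fin] at h6
      omega
    have hzero : ∀ c ∉ hTfin.toFinset, w c * ‖g c x‖ₑ = 0 := by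
      intro c hc
      rw [hTfin.mem_toFinset] at hc
      have h6 : sc (Pc F) (bc (F := F)) y c = 0 ∨ sc (Pc F) (bc (F := F)) y c = 1 := by
        by_contra hcon
        push Not at hcon
        exact hc ⟨lt_of_le_of_ne (FF.sc_nonneg hyL c) (Ne.symm hcon.1),
          lt_of_le_of_ne (FF.sc_le_one hyL c) hcon.2⟩
      rcases h6 with h6 | h6
      · rw [h4 c hx h6, enorm_zero, mul_zero]
      · rw [h5 c hx h6, enorm_zero, mul_zero]
    rw [tsum_eq_sum hzero]
    have hterm : ∀ c ∈ hTfin.toFinset, w c * ‖g c x‖ₑ ≤ 32 * ‖D x‖ₑ := by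
      intro c hc
      rw [hTfin.mem_toFinset] at hc
      obtain ⟨p, hp⟩ := FF.sc_lt_one_fc hyL
      have hlog : IsLog q a h c.1 := by
        refine H.log c ⟨p, mem_fc.1 hp c hc.2, mem_fc.1 hp C ?_, mem_fc.1 hp O ?_⟩
        · change sc (Pc F) (bc (F := F)) y C < 1
          rw [(FF.sc_eq_zero hyL).2 hy.1]; exact one_pos
        · change sc (Pc F) (bc (F := F)) y O < 1
          rw [(FF.sc_eq_zero hyL).2 hy.2]; exact one_pos
      have h6 := h2 c hx hy rfl
      rw [Real.coe_toNNReal _ (by positivity)] at h6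
      rw [hw c hlog, ← ofReal_norm, ← ofReal_norm, ← ENNReal.ofReal_mul (by positivity),
        show (32 : ℝ≥0∞) = ENNReal.ofReal 32 by norm_num, ← ENNReal.ofReal_mul (by norm_num)]
      apply ENNReal.ofReal_le_ofReal
      rw [Real.norm_eq_abs]
      calc h / 2 * |g c x| ≤ h / 2 * (64 / h * ‖D x‖) := by gcongr
        _ = 32 * ‖D x‖ := by field_simp; ring
    calc ∑ c ∈ hTfin.toFinset, w c * ‖g c x‖ₑ ≤ ∑ _c ∈ hTfin.toFinset, 32 * ‖D x‖ₑ :=
          Finset.sum_le_sum hterm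
      _ = (hTfin.toFinset.card : ℝ≥0∞) * (32 * ‖D x‖ₑ) := by
          rw [Finset.sum_const, nsmul_eq_mul]
      _ ≤ 2 * (32 * ‖D x‖ₑ) := by
          gcongr
          exact_mod_cast hcard
      _ = 64 * ‖D x‖ₑ := by rw [← mul_assoc]; norm_num

end hor

end Crest.Agent.R096.Dic2_582
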