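import Crest.Agent.R096.Dic2_582
import Crest.Agent.R096.Log3_582

/-!
# Row 96, DICT: good squares near `K₀`, weighted sum of the derivatives everywhere, measure of the
strips of cut squares, final inequality
-/

set_option autoImplicit false
set_option linter.unusedSectionVars false
set_option linter.style.haveILetI false
open Set Filter Topology MeasureTheory
open scoped NNReal ENNReal

namespace Crest.Agent.R096.Dic3_582

open Crest.Agent.R096.Brk1_582 Crest.Agent.R096.Brk2_582 Crest.Agent.R096.Brk3_582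
open Crest.Agent.R096.Brk4_582 Crest.Agent.R096.Brk5_582 Crest.Agent.R096.Brk7_582
open Crest.Agent.R096.Bsp_628 Crest.Agent.R096.Log1_582 Crest.Agent.R096.Log2_582
open Crest.Agent.R096.Log3_582 Crest.Agent.R096.Dic1_582 Crest.Agent.R096.Dic2_582

section near

variable {q : ℕ} {a : Fin 3 → ℝ} {h : ℝ} {F : Set (Bx (Fin 3))} {La : Set (Fin 3 → ℝ)} {δ κ0 : ℝ}
  {K₀ : Set (Fin 3 → ℝ)} {r r' : ℝ}

theorem floor_bounds (hh : 0 < h) (x b : ℝ) :
    b + h * (⌊(x - b) / h⌋ : ℝ) ≤ x ∧ x ≤ b + h * ((⌊(x - b) / h⌋ : ℝ) + 1) := by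
  have h1 := Int.floor_le ((x - b) / h)
  have h2 := (Int.lt_floor_add_one ((x - b) / h)).le
  rw [le_div_iff₀ hh] at h1
  rw [div_le_iff₀ hh] at h2
  constructor <;> linarith

/-- **good squares near `K₀`** -/
theorem gsq_near (hq : 1 ≤ q) (hh : 0 < h) (H : LogsNear F q a h K₀ r)
    (hr : r' + 2 * h ≤ r) {y : Fin 3 → ℝ} (hy : y ∈ Nr K₀ r') {z : ℤ} (hyz : y 2 = a 2 + h * z)
    (hi : ¬ (q : ℤ) ∣ ⌊(y 0 - a 0) / h⌋) (hj : ¬ (q : ℤ) ∣ ⌊(y 1 - a 1) / h⌋) :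
    ∃ e o i j, GSq F q a h e o i j ∧ y ∈ sqr a h e o i j := by
  obtain ⟨e, o, he, ho, heo, hz⟩ := exists_slabs z
  set i := ⌊(y 0 - a 0) / h⌋ with hi'
  set j := ⌊(y 1 - a 1) / h⌋ with hj'
  have hb0 := floor_bounds hh (y 0) (a 0)
  have hb1 := floor_bounds hh (y 1) (a 1)
  rw [← hi'] at hb0
  rw [← hj'] at hb1
  have hgood : GoodSq q i j := goodSq_of hi hj
  obtain ⟨b1, b2⟩ := slab_bounds hh heo hz hyz
  have hnorm : ∀ x : Fin 3 → ℝ, |x 0 - y 0| ≤ 2 * h → |x 1 - y 1| ≤ 2 * h → x 2 = y 2 →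
      x ∈ Nr K₀ r := by
    intro x h0 h1 h2
    refine Nr_mono hr (Nr_add hy ?_)
    refine (pi_norm_le_iff_of_nonneg (by positivity)).2 fun k => ?_
    rw [Pi.sub_apply, Real.norm_eq_abs]
    fin_cases k
    · exact h0
    · exact h1
    · change |x 2 - y 2| ≤ _
      rw [h2, sub_self, abs_zero]; positivity
  have hcast : ∀ τ : ℤ, τ = -1 ∨ τ = 0 ∨ τ = 1 → -1 ≤ (τ : ℝ) ∧ (τ : ℝ) ≤ 1 := by
    rintro τ (rfl | rfl | rfl) <;> norm_num
  refine ⟨e, o, i, j, ⟨he, ho, heo, hgood, fun τ hτ => ?_, fun σ hσ => ?_⟩, ?_⟩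
  · obtain ⟨t1, t2⟩ := hcast τ hτ
    refine H _ ⟨_, _, _, rfl⟩ ⟨pt a h (i + 1 / 2) (j + τ + 1 / 2) z, ?_, hnorm _ ?_ ?_ ?_⟩
    · refine Lx_of hq hh he (hgood τ hτ).1 ?_ ?_ ?_
      · rw [pt_zero]; constructor <;> nlinarith
      · rw [pt_one]; push_cast; constructor <;> nlinarith
      · rw [pt_two, ← hyz]; exact b1
    · rw [pt_zero, abs_le]; constructor <;> nlinarith
    · rw [pt_one, abs_le]; constructor <;> nlinarith
    · rw [pt_two, hyz]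
  · obtain ⟨t1, t2⟩ := hcast σ hσ
    refine H _ ⟨_, _, _, rfl⟩ ⟨pt a h (i + σ + 1 / 2) (j + 1 / 2) z, ?_, hnorm _ ?_ ?_ ?_⟩
    · refine Ly_of hq hh ho (hgood σ hσ).2 ?_ ?_ ?_
      · rw [pt_zero]; push_cast; constructor <;> nlinarith
      · rw [pt_one]; constructor <;> nlinarith
      · rw [pt_two, ← hyz]; exact b2
    · rw [pt_zero, abs_le]; constructor <;> nlinarith
    · rw [pt_one, abs_le]; constructor <;> nlinarith
    · rw [pt_two, hyz]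
  · rw [mem_sqr, hz]
    exact ⟨hb0, hb1, hyz⟩

end near

/-! ### the inputs of 199's `shift_R3`, `exists_derivs` -/

section inputs

variable {F : Set (Bx (Fin 3))} {La : Set (Fin 3 → ℝ)} {δ κ0 R : ℝ}

/-- `La` in the euclidean space -/
def La3 (La : Set (Fin 3 → ℝ)) : Set (EuclideanSpace ℝ (Fin 3)) := {y | WithLp.ofLp y ∈ La}

/-- the coordinates as functions on the euclidean space -/
noncomputable def s3 (F : Set (Bx (Fin 3))) (c : F) (y : EuclideanSpace ℝ (Fin 3)) : ℝ :=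
  sc (Pc F) (bc (F := F)) (WithLp.ofLp y) c

/-- the pointwise Lipschitz constants -/
noncomputable def L3 (F : Set (Bx (Fin 3))) (δ R : ℝ) (c : F) : ℝ≥0 :=
  Real.toNNReal (Cs 3 δ R * R / c.1.sz)

theorem L3_coe (BF : BoxFoam La F δ κ0) (hδ : 0 < δ) (hR : 0 < R) (c : F) :
    (L3 F δ R c : ℝ) = Cs 3 δ R * R / c.1.sz := by
  have hsz : 0 < c.1.sz := Bx.sz_pos (BF.pos _ c.2)
  exact Real.coe_toNNReal _ (div_nonneg (mul_nonneg (Cs_nonneg hδ hR) hR.le) hsz.le)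

theorem continuous_ofLp3 : Continuous (fun y : EuclideanSpace ℝ (Fin 3) => WithLp.ofLp y) :=
  PiLp.continuous_ofLp 2 _

theorem s3_locLip (BF : BoxFoam La F δ κ0) (hLa : IsOpen La) (hδ : 0 < δ) (hR : 0 < R)
    (hcmp : Cmp F R) (c : F) : LocallyLipschitzOn (La3 La) (s3 F c) := by
  intro y hy
  obtain ⟨K, t, ht, hK⟩ := locallyLipschitzOn_sc BF hLa hδ hR hcmp c hy
  refine ⟨K, (fun y : EuclideanSpace ℝ (Fin 3) => WithLp.ofLp y) ⁻¹' t, ?_, ?_⟩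
  · have h1 : Tendsto (fun y : EuclideanSpace ℝ (Fin 3) => WithLp.ofLp y) (𝓝[La3 La] y)
        (𝓝[La] (WithLp.ofLp y)) := by
      apply tendsto_nhdsWithin_iff.2
      exact ⟨continuous_ofLp3.continuousAt.mono_left nhdsWithin_le_nhds,
        eventually_nhdsWithin_of_forall fun y hy => hy⟩
    exact h1 ht
  · refine LipschitzOnWith.of_dist_le_mul fun z hz z' hz' => ?_
    refine (hK.dist_le_mul _ hz _ hz').trans ?_
    rw [dist_eq_norm, dist_eq_norm]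
    exact mul_le_mul_of_nonneg_left (norm_ofLp_sub_le z z') K.2

theorem s3_hL (BF : BoxFoam La F δ κ0) (hLa : IsOpen La) (hδ : 0 < δ) (hR : 0 < R)
    (hcmp : Cmp F R) (c : F) : ∀ y ∈ La3 La, ∀ ε > 0, ∀ᶠ z in 𝓝[La3 La] y,
      |s3 F c z - s3 F c y| ≤ (L3 F δ R c + ε) * ‖z - y‖ := by
  intro y hy ε hε
  have h1 := (sc_local BF hLa hδ hR hcmp c hy)
  have h2 := (continuous_ofLp3.continuousAt (x := y)).eventually h1
  filter_upwards [h2.filter_mono nhdsWithin_le_nhds, self_mem_nhdsWithin] with z h3 hz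
  rw [L3_coe BF hδ hR]
  refine (h3 hz).trans ?_
  have h4 := norm_ofLp_sub_le z y
  have h5 : 0 ≤ Cs 3 δ R * R / c.1.sz := by
    rw [← L3_coe BF hδ hR]; exact NNReal.coe_nonneg _
  calc Cs (Fintype.card (Fin 3)) δ R * R / c.1.sz * ‖WithLp.ofLp z - WithLp.ofLp y‖
      ≤ Cs 3 δ R * R / c.1.sz * ‖z - y‖ := by
        rw [Fintype.card_fin]; exact mul_le_mul_of_nonneg_left h4 h5
    _ ≤ _ := mul_le_mul_of_nonneg_right (by linarith) (norm_nonneg _)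

theorem s3_N (BF : BoxFoam La F δ κ0) (hLa : IsOpen La) {y : EuclideanSpace ℝ (Fin 3)}
    (hy : y ∈ La3 La) : {c | s3 F c y ≠ 0 ∧ s3 F c y ≠ 1}.encard ≤ (3 : ℕ) := by
  have h1 := active_encard (foam BF hLa) (y := WithLp.ofLp y) hy
  simpa [s3] using h1

theorem s3_w (BF : BoxFoam La F δ κ0) (hδ : 0 < δ) (hR : 0 < R) {w : F → ℝ≥0∞}
    (hw : ∀ c : F, w c ≤ ENNReal.ofReal c.1.sz) (c : F) :
    w c * L3 F δ R c ≤ ENNReal.ofReal (Cs 3 δ R * R) := by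
  have hsz : 0 < c.1.sz := Bx.sz_pos (BF.pos _ c.2)
  rw [← ENNReal.ofReal_coe_nnreal (p := L3 F δ R c), L3_coe BF hδ hR]
  refine (mul_le_mul' (hw c) le_rfl).trans ?_
  rw [← ENNReal.ofReal_mul hsz.le]
  apply ENNReal.ofReal_le_ofReal
  rw [mul_div_cancel₀ _ hsz.ne']

end inputs

/-! ### the general bound -/

section gen

open Crest.Agent.R96.Acl_392 Crest.Agent.R96.Sob2_199 Crest.Agent.R96.Sob3_199
open Crest.Agent.R96.Sob4_199 Crest.Agent.R96.Sob5_199 Crest.Agent.R96.En10_199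

variable {E : Type*} [NormedAddCommGroup E] [NormedSpace ℝ E] [FiniteDimensional ℝ E]
  [MeasurableSpace E] [BorelSpace E] {μ : Measure E} [μ.IsAddHaarMeasure]
variable {F : Set (Bx (Fin 3))} {La : Set (Fin 3 → ℝ)} {δ κ0 R : ℝ}

/-- **everywhere** the weighted sum of the derivatives of the coordinates is at most
`3 Cs R |D f|` (weights at most the sizes) -/
theorem gen_tsum (BF : BoxFoam La F δ κ0) (hLa : IsOpen La) (hδ : 0 < δ) (hR : 0 < R)
    (hcmp : Cmp F R) {Ω : Set E} (hΩ : IsOpen Ω) {u : E}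
    {f D : E → EuclideanSpace ℝ (Fin 3)} (hD : VWD Ω μ f D u) (hf : ContinuousOn f Ω)
    (hfL : MapsTo f Ω (La3 La)) {g : F → E → ℝ}
    (hg : ∀ c, WD Ω μ (fun x => s3 F c (f x)) (g c) u)
    {w : F → ℝ≥0∞} (hw : ∀ c : F, w c ≤ ENNReal.ofReal c.1.sz) :
    ∀ᵐ x ∂μ, x ∈ Ω → ∑' c, w c * ‖g c x‖ₑ ≤ ENNReal.ofReal (3 * (Cs 3 δ R * R)) * ‖D x‖ₑ := by
  classical
  have hcnt : Countable F := BF.countable.to_subtype
  have hCR : 0 ≤ Cs 3 δ R * R := mul_nonneg (Cs_nonneg hδ hR) hR.le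
  have key := fun c => comp_real_bound hΩ hD hf hfL (s3_locLip BF hLa hδ hR hcmp c)
    (s3_hL BF hLa hδ hR hcmp c)
  have hcont : ∀ c, ContinuousOn (fun x => s3 F c (f x)) Ω := fun c =>
    (s3_locLip BF hLa hδ hR hcmp c).continuousOn.comp hf hfL
  filter_upwards [ae_all_iff.2 fun c => (key c).2.2.1,
    ae_all_iff.2 fun c => wd_unique hΩ (hg c) (key c).1,
    ae_all_iff.2 fun c => wd_level hΩ (hg c) (hcont c) 0,
    ae_all_iff.2 fun c => wd_level hΩ (hg c) (hcont c) 1] with x h1 h2 h3 h4 hx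
  have hN := s3_N BF hLa (hfL hx)
  set Tset : Set F := {c | s3 F c (f x) ≠ 0 ∧ s3 F c (f x) ≠ 1} with hT
  have hfin : Tset.Finite := Set.finite_of_encard_le_coe hN
  have hcard : hfin.toFinset.card ≤ 3 := by
    have h5 : (Tset.encard : ℕ∞) = hfin.toFinset.card := hfin.encard_eq_coe_toFinset_card
    rw [h5] at hN
    exact_mod_cast hN
  have hzero : ∀ c ∉ hfin.toFinset, w c * ‖g c x‖ₑ = 0 := by
    intro c hc
    rw [hfin.mem_toFinset] at hc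
    by_cases h5 : s3 F c (f x) = 0
    · rw [h3 c hx h5, enorm_zero, mul_zero]
    · by_cases h6 : s3 F c (f x) = 1
      · rw [h4 c hx h6, enorm_zero, mul_zero]
      · exact absurd ⟨h5, h6⟩ hc
  rw [tsum_eq_sum hzero]
  have hterm : ∀ c ∈ hfin.toFinset, w c * ‖g c x‖ₑ ≤ ENNReal.ofReal (Cs 3 δ R * R) * ‖D x‖ₑ := by
    intro c _
    have h5 := h1 c hx
    rw [← h2 c hx] at h5
    calc w c * ‖g c x‖ₑ ≤ w c * (L3 F δ R c * ‖D x‖ₑ) := by
          gcongr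
          rw [← ofReal_norm, ← ofReal_norm, ← ENNReal.ofReal_coe_nnreal,
            ← ENNReal.ofReal_mul (NNReal.coe_nonneg _)]
          exact ENNReal.ofReal_le_ofReal h5
      _ = w c * L3 F δ R c * ‖D x‖ₑ := by rw [mul_assoc]
      _ ≤ _ := by gcongr; exact s3_w BF hδ hR hw c
  calc ∑ c ∈ hfin.toFinset, w c * ‖g c x‖ₑ
      ≤ ∑ _c ∈ hfin.toFinset, ENNReal.ofReal (Cs 3 δ R * R) * ‖D x‖ₑ := Finset.sum_le_sum hterm
    _ = (hfin.toFinset.card : ℝ≥0∞) * (ENNReal.ofReal (Cs 3 δ R * R) * ‖D x‖ₑ) := by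
        rw [Finset.sum_const, nsmul_eq_mul]
    _ ≤ 3 * (ENNReal.ofReal (Cs 3 δ R * R) * ‖D x‖ₑ) := by
        gcongr
        exact_mod_cast hcard
    _ = ENNReal.ofReal (3 * (Cs 3 δ R * R)) * ‖D x‖ₑ := by
        rw [ENNReal.ofReal_mul (p := (3 : ℝ)) (q := Cs 3 δ R * R) (by norm_num), ← mul_assoc]
        norm_num

variable {q : ℕ} {a : Fin 3 → ℝ} {h : ℝ} {K₀ : Set (Fin 3 → ℝ)} {r r' : ℝ}

/-- **DICTIONARY, pointwise**: at almost every point which is mapped to a horizontal plane near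
`K₀`: the third component does not move, the weighted sum of the derivatives of the coordinates is
at most `64 |D|`, and equal to `|D_0| + |D_1|` outside the strips of the cut squares -/
theorem dict_ptw (BF : BoxFoam La F δ κ0) (hLa : IsOpen La) (hδ : 0 < δ) (hR : 0 < R)
    (hcmp : Cmp F R) (hq : 1 ≤ q) (hh : 0 < h) (H : LogsNear F q a h K₀ r) (hr : r' + 2 * h < r)
    {Ω : Set E} (hΩ : IsOpen Ω) {u : E}
    {f D : E → EuclideanSpace ℝ (Fin 3)} (hD : VWD Ω μ f D u) (hf : ContinuousOn f Ω)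
    (hfL : MapsTo f Ω (La3 La)) {g : F → E → ℝ}
    (hg : ∀ c, WD Ω μ (fun x => s3 F c (f x)) (g c) u)
    {w : F → ℝ≥0∞} (hw : ∀ c : F, IsLog q a h c.1 → w c = ENNReal.ofReal (h / 2)) :
    ∀ᵐ x ∂μ, x ∈ Ω → WithLp.ofLp (f x) ∈ Nr K₀ r' → (∃ z : ℤ, f x 2 = a 2 + h * z) →
      D x 2 = 0 ∧ ∑' c, w c * ‖g c x‖ₑ ≤ 64 * ‖D x‖ₑ ∧
      (¬ (q : ℤ) ∣ ⌊(f x 0 - a 0) / h⌋ → ¬ (q : ℤ) ∣ ⌊(f x 1 - a 1) / h⌋ →
        ∑' c, w c * ‖g c x‖ₑ = ‖D x 0‖ₑ + ‖D x 1‖ₑ) := by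
  have hcnt : Countable F := BF.countable.to_subtype
  have hcont : ∀ c, ContinuousOn (fun x => s3 F c (f x)) Ω := fun c =>
    (s3_locLip BF hLa hδ hR hcmp c).continuousOn.comp hf hfL
  have h1 : ∀ᵐ x ∂μ, ∀ C O : F, Hor F q a h C O → x ∈ Ω →
      WithLp.ofLp (f x) ∈ Pc F C ∩ Pc F O → D x 2 = 0 ∧ ∑' c, w c * ‖g c x‖ₑ ≤ 64 * ‖D x‖ₑ := by
    rw [ae_all_iff]; intro C
    rw [ae_all_iff]; intro O
    by_cases hH : Hor F q a h C O
    · filter_upwards [hor_tsum hH BF hLa hq hh hΩ hD hf hg hcont hw] with x hx _ using hx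
    · exact Eventually.of_forall fun x hx => absurd hx hH
  have h2 : ∀ᵐ x ∂μ, ∀ e o i j : ℤ, GSq F q a h e o i j → x ∈ Ω →
      WithLp.ofLp (f x) ∈ sqr a h e o i j →
      D x 2 = 0 ∧ ∑' c, w c * ‖g c x‖ₑ = ‖D x 0‖ₑ + ‖D x 1‖ₑ := by
    rw [ae_all_iff]; intro e
    rw [ae_all_iff]; intro o
    rw [ae_all_iff]; intro i
    rw [ae_all_iff]; intro j
    by_cases hH : GSq F q a h e o i j
    · filter_upwards [good_tsum hH BF hLa hq hh hΩ hD hf hg hcont hw] with x hx _ using hx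
    · exact Eventually.of_forall fun x hx => absurd hx hH
  filter_upwards [h1, h2] with x h1 h2 hx hK hz
  obtain ⟨z, hz⟩ := hz
  obtain ⟨C, O, hH, hy⟩ := hor_near BF hq hh H (by linarith) hK (z := z) hz
  obtain ⟨h3, h4⟩ := h1 C O hH hx hy
  refine ⟨h3, h4, fun hi hj => ?_⟩
  obtain ⟨e, o, i, j, hG, hy'⟩ := gsq_near hq hh H hr.le hK (z := z) hz hi hj
  exact (h2 e o i j hG hx hy').2

end gen

end Crest.Agent.R096.Dic3_582
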