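import Crest.Agent.R096.Dic3_582

/-!
# Row 96, DICT: measure of the strips of the cut squares, energy inequality
-/

set_option autoImplicit false
set_option linter.unusedSectionVars false
set_option linter.style.haveILetI false
open Set Filter Topology MeasureTheory
open scoped NNReal ENNReal

namespace Crest.Agent.R096.Dic4_582

open Crest.Agent.R096.Brk1_582 Crest.Agent.R096.Brk2_582 Crest.Agent.R096.Brk3_582
open Crest.Agent.R096.Brk4_582 Crest.Agent.R096.Brk5_582 Crest.Agent.R096.Brk7_582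
open Crest.Agent.R096.Bsp_628 Crest.Agent.R096.Log1_582 Crest.Agent.R096.Log2_582
open Crest.Agent.R096.Log3_582 Crest.Agent.R096.Dic1_582 Crest.Agent.R096.Dic2_582
open Crest.Agent.R096.Dic3_582

/-! ### strips -/

/-- the integer `n` is within `1` of a multiple of `q` -/
def NearMul (q : ℕ) (n : ℤ) : Prop := ∃ σ : ℤ, (σ = -1 ∨ σ = 0 ∨ σ = 1) ∧ (q : ℤ) ∣ n + σ

theorem not_dvd_of {q : ℕ} {n n' : ℤ} (h : ¬ NearMul q n) (h' : |n' - n| ≤ 1) : ¬ (q : ℤ) ∣ n' := by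
  intro h1
  apply h
  refine ⟨n' - n, ?_, by rwa [add_sub_cancel]⟩
  have := abs_le.1 h'
  omega

/-- **pigeonhole for the strips**: one of `q` consecutive integer shifts is good -/
theorem exists_shift_strip {X : Type*} [MeasurableSpace X] (ν : Measure X) {f : X → ℝ}
    (hf : AEMeasurable f ν) {q : ℕ} (hq : 1 ≤ q) :
    ∃ α : ℕ, α < q ∧ ν {x | NearMul q (⌊f x⌋ - α)} ≤ 3 * ν univ / q := by
  classical
  have hq0 : (q : ℝ≥0∞) ≠ 0 := by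
    have : q ≠ 0 := by omega
    exact_mod_cast this
  set S : ℤ → ℕ → Set X := fun σ α => {x | (q : ℤ) ∣ ⌊f x⌋ - α + σ} with hS
  have hSm : ∀ σ α, NullMeasurableSet (S σ α) ν := by
    intro σ α
    have h1 : Measurable fun t : ℝ => ⌊t⌋ := Int.measurable_floor
    have h2 : MeasurableSet {t : ℝ | (q : ℤ) ∣ ⌊t⌋ - α + σ} :=
      h1 (show MeasurableSet {n : ℤ | (q : ℤ) ∣ n - α + σ} from MeasurableSet.of_discrete)
    exact hf.nullMeasurableSet_preimage h2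
  have hsum : ∀ σ, ∑ α ∈ Finset.range q, ν (S σ α) ≤ ν univ := by
    intro σ
    rw [← measure_biUnion_finset₀ ?_ fun α _ => hSm σ α]
    · exact measure_mono (subset_univ _)
    · intro α hα β hβ hne
      refine Disjoint.aedisjoint ?_
      rw [Set.disjoint_left]
      intro x hx hy
      have h1 : (q : ℤ) ∣ (⌊f x⌋ - α + σ) - (⌊f x⌋ - β + σ) := dvd_sub hx hy
      have h2 : (⌊f x⌋ - α + σ) - (⌊f x⌋ - β + σ) = (β : ℤ) - α := by ring
      rw [h2] at h1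
      have h3 : α < q := Finset.mem_range.1 (by exact_mod_cast hα)
      have h4 : β < q := Finset.mem_range.1 (by exact_mod_cast hβ)
      obtain ⟨c, hc⟩ := h1
      apply hne
      have h5 : -(q : ℤ) < (β : ℤ) - α := by omega
      have h6 : (β : ℤ) - α < q := by omega
      have hc0 : c = 0 := by
        rcases lt_trichotomy c 0 with h7 | h7 | h7
        · exfalso; nlinarith
        · exact h7
        · exfalso; nlinarith
      rw [hc0, mul_zero] at hc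
      omega
  set g : ℕ → ℝ≥0∞ := fun α => ν (S (-1) α) + ν (S 0 α) + ν (S 1 α) with hg
  have hgs : ∑ α ∈ Finset.range q, g α ≤ 3 * ν univ := by
    simp only [hg, Finset.sum_add_distrib]
    calc _ ≤ ν univ + ν univ + ν univ := by gcongr <;> exact hsum _
      _ = 3 * ν univ := by ring
  obtain ⟨α, hα, hmin⟩ := Finset.exists_min_image (Finset.range q) g ⟨0, Finset.mem_range.2 (by omega)⟩
  refine ⟨α, Finset.mem_range.1 hα, ?_⟩
  have h1 : (q : ℝ≥0∞) * g α ≤ 3 * ν univ := by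
    refine le_trans ?_ hgs
    calc (q : ℝ≥0∞) * g α = ∑ _β ∈ Finset.range q, g α := by
          rw [Finset.sum_const, Finset.card_range, nsmul_eq_mul]
      _ ≤ _ := Finset.sum_le_sum hmin
  have h2 : g α ≤ 3 * ν univ / q := by
    rw [ENNReal.le_div_iff_mul_le (Or.inl hq0) (Or.inl (ENNReal.natCast_ne_top q)), mul_comm]
    exact h1
  refine le_trans ?_ h2
  have h3 : {x | NearMul q (⌊f x⌋ - α)} ⊆ S (-1) α ∪ S 0 α ∪ S 1 α := by
    rintro x ⟨σ, hσ | hσ | hσ, hx⟩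
    · exact Or.inl (Or.inl (by rw [hσ] at hx; exact hx))
    · exact Or.inl (Or.inr (by rw [hσ] at hx; exact hx))
    · exact Or.inr (by rw [hσ] at hx; exact hx)
  refine (measure_mono h3).trans ((measure_union_le _ _).trans ?_)
  exact add_le_add (measure_union_le _ _) le_rfl

/-- the floor moves by at most `1` -/
theorem abs_floor_sub_le {x y : ℝ} (h : |x - y| ≤ 1) : |⌊x⌋ - ⌊y⌋| ≤ 1 := by
  rw [abs_le] at h ⊢
  have h1 := Int.floor_le x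
  have h2 := Int.lt_floor_add_one x
  have h3 := Int.floor_le y
  have h4 := Int.lt_floor_add_one y
  have h5 : (⌊x⌋ : ℝ) - ⌊y⌋ < 2 := by linarith
  have h6 : (-2 : ℝ) < (⌊x⌋ : ℝ) - ⌊y⌋ := by linarith
  have h7 : ⌊x⌋ - ⌊y⌋ < 2 := by exact_mod_cast h5
  have h8 : -2 < ⌊x⌋ - ⌊y⌋ := by exact_mod_cast h6
  omega

/-! ### the energy inequality -/

section split

variable {E : Type*} [MeasurableSpace E] {μ : Measure E}

theorem lint_part {d : E → ℝ≥0∞} {H : E → ℝ≥0∞} {s N C : ℝ≥0∞} (hC : C ≠ ⊤) {p : ℝ}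
    (hp : 1 ≤ p) {Ω Z : Set E} (hZ : MeasurableSet Z) (hZΩ : Z ⊆ Ω)
    (h : ∀ᵐ x ∂μ, x ∈ Z → H x ≤ C * (d x + N)) :
    ∫⁻ x in Z, (H x - s) ^ p ∂μ ≤ C ^ p * 2 ^ (p - 1) * (∫⁻ x in Ω, d x ^ p ∂μ + N ^ p * μ Z) := by
  have hp0 : 0 ≤ p := by linarith
  calc ∫⁻ x in Z, (H x - s) ^ p ∂μ
      ≤ ∫⁻ x in Z, C ^ p * 2 ^ (p - 1) * (d x ^ p + N ^ p) ∂μ := by
        apply lintegral_mono_ae
        rw [ae_restrict_iff' hZ]
        filter_upwards [h] with x hx hxZ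
        calc (H x - s) ^ p ≤ (C * (d x + N)) ^ p :=
              ENNReal.rpow_le_rpow (tsub_le_self.trans (hx hxZ)) hp0
          _ = C ^ p * (d x + N) ^ p := ENNReal.mul_rpow_of_nonneg _ _ hp0
          _ ≤ C ^ p * (2 ^ (p - 1) * (d x ^ p + N ^ p)) := by
              gcongr
              exact ENNReal.rpow_add_le_mul_rpow_add_rpow _ _ hp
          _ = _ := by rw [mul_assoc]
    _ = C ^ p * 2 ^ (p - 1) * ∫⁻ x in Z, (d x ^ p + N ^ p) ∂μ := by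
        apply lintegral_const_mul'
        exact ENNReal.mul_ne_top (ENNReal.rpow_ne_top_of_nonneg hp0 hC)
          (ENNReal.rpow_ne_top_of_nonneg (by linarith) (by norm_num))
    _ = C ^ p * 2 ^ (p - 1) * (∫⁻ x in Z, d x ^ p ∂μ + N ^ p * μ Z) := by
        rw [lintegral_add_right _ measurable_const, setLIntegral_const]
    _ ≤ _ := by
        gcongr

/-- good set, strips, bad set -/
theorem energy_split {Ω : Set E} (hΩ : MeasurableSet Ω) {d H : E → ℝ≥0∞} {s N c C₀ C₁ : ℝ≥0∞}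
    (hc : c ≠ ⊤) (hC₀ : C₀ ≠ ⊤) (hC₁ : C₁ ≠ ⊤) {p : ℝ} (hp : 1 ≤ p) {X Y : Set E}
    (h1 : ∀ᵐ x ∂μ, x ∈ Ω → H x ≤ C₁ * (d x + N))
    (h2 : ∀ᵐ x ∂μ, x ∈ Ω → x ∉ X → H x ≤ C₀ * (d x + N))
    (h3 : ∀ᵐ x ∂μ, x ∈ Ω → x ∉ X → x ∉ Y → H x ≤ s + c * d x) :
    ∫⁻ x in Ω, (H x - s) ^ p ∂μ ≤
      (c ^ p + C₀ ^ p * 2 ^ (p - 1) + C₁ ^ p * 2 ^ (p - 1)) * ∫⁻ x in Ω, d x ^ p ∂μ +
      (C₀ ^ p * 2 ^ (p - 1) * (N ^ p * μ (Ω ∩ Y)) + C₁ ^ p * 2 ^ (p - 1) * (N ^ p * μ (Ω ∩ X))) := by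
  have hp0 : 0 ≤ p := by linarith
  set X' := toMeasurable μ (Ω ∩ X) with hX'
  set Y' := toMeasurable μ (Ω ∩ Y) with hY'
  have mX : MeasurableSet X' := measurableSet_toMeasurable _ _
  have mY : MeasurableSet Y' := measurableSet_toMeasurable _ _
  have sX : Ω ∩ X ⊆ X' := subset_toMeasurable _ _
  have sY : Ω ∩ Y ⊆ Y' := subset_toMeasurable _ _
  set A := Ω \ (X' ∪ Y') with hA
  set B := (Ω ∩ Y') \ X' with hB
  set C := Ω ∩ X' with hC
  have mA : MeasurableSet A := hΩ.diff (mX.union mY)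
  have mB : MeasurableSet B := (hΩ.inter mY).diff mX
  have mC : MeasurableSet C := hΩ.inter mX
  have hcov : Ω ⊆ A ∪ B ∪ C := by
    intro x hx
    by_cases hxX : x ∈ X'
    · exact Or.inr ⟨hx, hxX⟩
    · by_cases hxY : x ∈ Y'
      · exact Or.inl (Or.inr ⟨⟨hx, hxY⟩, hxX⟩)
      · exact Or.inl (Or.inl ⟨hx, fun h => h.elim hxX hxY⟩)
  have eA : ∫⁻ x in A, (H x - s) ^ p ∂μ ≤ c ^ p * ∫⁻ x in Ω, d x ^ p ∂μ := by
    calc ∫⁻ x in A, (H x - s) ^ p ∂μ ≤ ∫⁻ x in A, c ^ p * d x ^ p ∂μ := by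
          apply lintegral_mono_ae
          rw [ae_restrict_iff' mA]
          filter_upwards [h3] with x hx hxA
          rw [← ENNReal.mul_rpow_of_nonneg _ _ hp0]
          refine ENNReal.rpow_le_rpow ?_ hp0
          have hxX : x ∉ X := fun h => hxA.2 (Or.inl (sX ⟨hxA.1, h⟩))
          have hxY : x ∉ Y := fun h => hxA.2 (Or.inr (sY ⟨hxA.1, h⟩))
          exact tsub_le_iff_left.2 (hx hxA.1 hxX hxY)
      _ = c ^ p * ∫⁻ x in A, d x ^ p ∂μ :=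
          lintegral_const_mul' _ _ (ENNReal.rpow_ne_top_of_nonneg hp0 hc)
      _ ≤ _ := by gcongr; exact sdiff_subset
  have eB : ∫⁻ x in B, (H x - s) ^ p ∂μ ≤
      C₀ ^ p * 2 ^ (p - 1) * (∫⁻ x in Ω, d x ^ p ∂μ + N ^ p * μ (Ω ∩ Y)) := by
    have h4 := lint_part (μ := μ) (d := d) (H := H) (s := s) (N := N) hC₀ hp mB
      (fun x hx => hx.1.1) (by
        filter_upwards [h2] with x hx hxB
        exact hx hxB.1.1 fun h => hxB.2 (sX ⟨hxB.1.1, h⟩))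
    have h5 : μ B ≤ μ (Ω ∩ Y) := by
      calc μ B ≤ μ Y' := measure_mono fun x hx => hx.1.2
        _ = μ (Ω ∩ Y) := measure_toMeasurable _
    exact h4.trans (mul_le_mul' le_rfl (add_le_add le_rfl (mul_le_mul' le_rfl h5)))
  have eC : ∫⁻ x in C, (H x - s) ^ p ∂μ ≤
      C₁ ^ p * 2 ^ (p - 1) * (∫⁻ x in Ω, d x ^ p ∂μ + N ^ p * μ (Ω ∩ X)) := by
    have h4 := lint_part (μ := μ) (d := d) (H := H) (s := s) (N := N) hC₁ hp mC
      (fun x hx => hx.1) (by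
        filter_upwards [h1] with x hx hxC
        exact hx hxC.1)
    have h5 : μ C ≤ μ (Ω ∩ X) := by
      calc μ C ≤ μ X' := measure_mono fun x hx => hx.2
        _ = μ (Ω ∩ X) := measure_toMeasurable _
    exact h4.trans (mul_le_mul' le_rfl (add_le_add le_rfl (mul_le_mul' le_rfl h5)))
  calc ∫⁻ x in Ω, (H x - s) ^ p ∂μ ≤ ∫⁻ x in A ∪ B ∪ C, (H x - s) ^ p ∂μ :=
        lintegral_mono_set hcov
    _ ≤ (∫⁻ x in A, (H x - s) ^ p ∂μ + ∫⁻ x in B, (H x - s) ^ p ∂μ) +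
        ∫⁻ x in C, (H x - s) ^ p ∂μ :=
        (lintegral_union_le _ _ _).trans (add_le_add (lintegral_union_le _ _ _) le_rfl)
    _ ≤ _ := (add_le_add (add_le_add eA eB) eC).trans (le_of_eq (by ring))

end split

section final

open Crest.Agent.R96.Acl_392 Crest.Agent.R96.Sob2_199 Crest.Agent.R96.Sob3_199
open Crest.Agent.R96.Sob4_199 Crest.Agent.R96.Sob5_199 Crest.Agent.R96.En10_199

variable {E : Type*} [NormedAddCommGroup E] [NormedSpace ℝ E] [FiniteDimensional ℝ E]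
  [MeasurableSpace E] [BorelSpace E] {μ : Measure E} [μ.IsAddHaarMeasure]
variable {F : Set (Bx (Fin 3))} {La : Set (Fin 3 → ℝ)} {δ κ0 R : ℝ}
variable {q : ℕ} {a : Fin 3 → ℝ} {h : ℝ} {K₀ : Set (Fin 3 → ℝ)} {r r' : ℝ}

/-- the strips: `φ x` is over a square next to a possibly cut one -/
def Strip (q : ℕ) (a : Fin 3 → ℝ) (h : ℝ) (φ : E → EuclideanSpace ℝ (Fin 3)) : Set E :=
  {x | NearMul q ⌊(φ x 0 - a 0) / h⌋ ∨ NearMul q ⌊(φ x 1 - a 1) / h⌋}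

omit [NormedAddCommGroup E] [NormedSpace ℝ E] [FiniteDimensional ℝ E] [BorelSpace E]
  [μ.IsAddHaarMeasure] in
/-- **a translate of the log pattern has small strips** -/
theorem exists_translate (hq : 1 ≤ q) (hh : 0 < h) {Ω : Set E}
    {φ : E → EuclideanSpace ℝ (Fin 3)} (hφ : ∀ i, AEMeasurable (fun x => φ x i) (μ.restrict Ω))
    (a : Fin 3 → ℝ) : ∃ α β : ℕ, α < q ∧ β < q ∧
      (μ.restrict Ω) (Strip q (fun i => a i + h * (![(α : ℝ), β, 0] : Fin 3 → ℝ) i) h φ) ≤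
        6 * μ Ω / q := by
  have key : ∀ i, ∃ α : ℕ, α < q ∧
      (μ.restrict Ω) {x | NearMul q ⌊(φ x i - (a i + h * α)) / h⌋} ≤ 3 * μ Ω / q := by
    intro i
    obtain ⟨α, h1, h2⟩ := exists_shift_strip (μ.restrict Ω)
      (f := fun x => (φ x i - a i) / h) (((hφ i).sub_const _).div_const _) hq
    refine ⟨α, h1, ?_⟩
    rw [Measure.restrict_apply_univ] at h2
    refine le_trans (le_of_eq ?_) h2
    congr 1
    ext x
    have e1 : (φ x i - (a i + h * α)) / h = (φ x i - a i) / h - (α : ℤ) := by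
      push_cast
      field_simp
      ring
    simp only [mem_ofPred_eq]
    rw [e1, Int.floor_sub_intCast]
  obtain ⟨α, hα, h1⟩ := key 0
  obtain ⟨β, hβ, h2⟩ := key 1
  refine ⟨α, β, hα, hβ, ?_⟩
  have h3 : Strip q (fun i => a i + h * (![(α : ℝ), β, 0] : Fin 3 → ℝ) i) h φ =
      {x | NearMul q ⌊(φ x 0 - (a 0 + h * α)) / h⌋} ∪
      {x | NearMul q ⌊(φ x 1 - (a 1 + h * β)) / h⌋} := by
    ext x
    simp [Strip]
  rw [h3]
  refine (measure_union_le _ _).trans ((add_le_add h1 h2).trans (le_of_eq ?_))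
  rw [ENNReal.div_add_div_same]
  congr 1
  ring

/-- **DICT, energy form**: `H x = Σ w_c |D (s_c ∘ f)|`, target derivative `v` -/
theorem dict_energy (BF : BoxFoam La F δ κ0) (hLa : IsOpen La) (hδ : 0 < δ) (hR : 0 < R)
    (hcmp : Cmp F R) (hq : 1 ≤ q) (hh : 0 < h) (H : LogsNear F q a h K₀ r) (hr : r' + 2 * h < r)
    {Ω : Set E} (hΩ : IsOpen Ω) {u : E}
    {f D φ : E → EuclideanSpace ℝ (Fin 3)} (hD : VWD Ω μ f D u) (hf : ContinuousOn f Ω)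
    (hfL : MapsTo f Ω (La3 La)) {g : F → E → ℝ}
    (hg : ∀ c, WD Ω μ (fun x => s3 F c (f x)) (g c) u)
    {w : F → ℝ≥0∞} (hw : ∀ c : F, IsLog q a h c.1 → w c = ENNReal.ofReal (h / 2))
    (hw' : ∀ c : F, w c ≤ ENNReal.ofReal c.1.sz) (v : EuclideanSpace ℝ (Fin 3)) {X : Set E}
    (hX1 : ∀ x ∈ Ω, x ∉ X → WithLp.ofLp (f x) ∈ Nr K₀ r')
    (hX2 : ∀ x ∈ Ω, x ∉ X → ∃ z : ℤ, f x 2 = a 2 + h * z)
    (hX3 : ∀ x ∈ Ω, x ∉ X → |f x 0 - φ x 0| ≤ h ∧ |f x 1 - φ x 1| ≤ h)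
    {p : ℝ} (hp : 1 ≤ p) :
    ∫⁻ x in Ω, (∑' c, w c * ‖g c x‖ₑ - (‖v 0‖ₑ + ‖v 1‖ₑ)) ^ p ∂μ ≤
      (2 ^ p + 64 ^ p * 2 ^ (p - 1) + ENNReal.ofReal (3 * (Cs 3 δ R * R)) ^ p * 2 ^ (p - 1)) *
        ∫⁻ x in Ω, ‖D x - v‖ₑ ^ p ∂μ +
      (64 ^ p * 2 ^ (p - 1) * (‖v‖ₑ ^ p * μ (Ω ∩ Strip q a h φ)) +
        ENNReal.ofReal (3 * (Cs 3 δ R * R)) ^ p * 2 ^ (p - 1) * (‖v‖ₑ ^ p * μ (Ω ∩ X))) := by
  have hDv : ∀ x, ‖D x‖ₑ ≤ ‖D x - v‖ₑ + ‖v‖ₑ := by
    intro x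
    calc ‖D x‖ₑ = ‖(D x - v) + v‖ₑ := by rw [sub_add_cancel]
      _ ≤ _ := enorm_add_le _ _
  have happ : ∀ (y : EuclideanSpace ℝ (Fin 3)) (i : Fin 3), ‖y i‖ₑ ≤ ‖y‖ₑ := by
    intro y i
    rw [← ofReal_norm, ← ofReal_norm]
    exact ENNReal.ofReal_le_ofReal (PiLp.norm_apply_le y i)
  have hptw := dict_ptw BF hLa hδ hR hcmp hq hh H hr hΩ hD hf hfL hg hw
  refine energy_split hΩ.measurableSet (c := 2) (by norm_num) (by norm_num) ENNReal.ofReal_ne_top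
    hp ?_ ?_ ?_
  · filter_upwards [gen_tsum BF hLa hδ hR hcmp hΩ hD hf hfL hg hw'] with x hx hxΩ
    exact (hx hxΩ).trans (mul_le_mul' le_rfl (hDv x))
  · filter_upwards [hptw] with x hx hxΩ hxX
    exact (hx hxΩ (hX1 x hxΩ hxX) (hX2 x hxΩ hxX)).2.1.trans (mul_le_mul' le_rfl (hDv x))
  · filter_upwards [hptw] with x hx hxΩ hxX hxY
    obtain ⟨h3, h4⟩ := hX3 x hxΩ hxX
    have hY : ¬ NearMul q ⌊(φ x 0 - a 0) / h⌋ ∧ ¬ NearMul q ⌊(φ x 1 - a 1) / h⌋ :=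
      not_or.1 hxY
    have e1 : ∀ s t b : ℝ, |s - t| ≤ h → |⌊(s - b) / h⌋ - ⌊(t - b) / h⌋| ≤ 1 := by
      intro s t b hst
      apply abs_floor_sub_le
      have : (s - b) / h - (t - b) / h = (s - t) / h := by ring
      rw [this, abs_div, abs_of_pos hh, div_le_one hh]
      exact hst
    rw [(hx hxΩ (hX1 x hxΩ hxX) (hX2 x hxΩ hxX)).2.2 (not_dvd_of hY.1 (e1 _ _ _ h3))
      (not_dvd_of hY.2 (e1 _ _ _ h4))]
    have h5 : ∀ i : Fin 3, ‖D x i‖ₑ ≤ ‖v i‖ₑ + ‖D x - v‖ₑ := by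
      intro i
      calc ‖D x i‖ₑ = ‖v i + (D x - v) i‖ₑ := by
            congr 1
            simp
        _ ≤ ‖v i‖ₑ + ‖(D x - v) i‖ₑ := enorm_add_le _ _
        _ ≤ _ := add_le_add le_rfl (happ _ _)
    calc ‖D x 0‖ₑ + ‖D x 1‖ₑ ≤ (‖v 0‖ₑ + ‖D x - v‖ₑ) + (‖v 1‖ₑ + ‖D x - v‖ₑ) :=
          add_le_add (h5 0) (h5 1)
      _ = ‖v 0‖ₑ + ‖v 1‖ₑ + 2 * ‖D x - v‖ₑ := by ring

end final

end Crest.Agent.R096.Dic4_582
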