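import Crest.Agent.R096.Dic4_582

/-!
# Row 96, DICT, the `T` side: horizontal coordinates of `T u` on the good squares
-/

set_option autoImplicit false
set_option linter.unusedSectionVars false
set_option linter.style.haveILetI false
open Set Filter Topology MeasureTheory
open scoped NNReal ENNReal

namespace Crest.Agent.R096.Dic5_582

open Crest.Agent.R096.Brk1_582 Crest.Agent.R096.Brk2_582 Crest.Agent.R096.Brk3_582
open Crest.Agent.R096.Brk4_582 Crest.Agent.R096.Brk5_582 Crest.Agent.R096.Brk7_582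
open Crest.Agent.R096.Bsp_628 Crest.Agent.R096.Log1_582 Crest.Agent.R096.Log2_582
open Crest.Agent.R096.Log3_582 Crest.Agent.R096.Dic1_582 Crest.Agent.R096.Dic2_582
open Crest.Agent.R096.Dic3_582 Crest.Agent.R096.Dic4_582

variable {q : ℕ} {a : Fin 3 → ℝ} {h : ℝ} {F : Set (Bx (Fin 3))} {La : Set (Fin 3 → ℝ)} {δ κ0 : ℝ}
  {e o i j : ℤ}

/-- the two logs of the square -/
noncomputable def cx (G : GSq F q a h e o i j) : F :=
  ⟨Lx q a h e i j, by simpa using G.hE 0 (Or.inr (Or.inl rfl))⟩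
noncomputable def cy (G : GSq F q a h e o i j) : F :=
  ⟨Ly q a h o i j, by simpa using G.hO 0 (Or.inr (Or.inl rfl))⟩

/-- the square is the common face of its two logs -/
theorem inter_eq (G : GSq F q a h e o i j) (hq : 1 ≤ q) (hh : 0 < h) :
    Pc F (cx G) ∩ Pc F (cy G) = sqr a h e o i j := by
  have h0 : ∀ τ' ∈ ({0} : Finset ℤ), τ' = -1 ∨ τ' = 0 ∨ τ' = 1 := by simp
  obtain ⟨f0, -⟩ := fc_crs (F := F) (a := a) hq hh G.he G.ho G.adj (J := {0}) (K := {0}) (by simp)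
    (by simp) (fun t ht => (G.good t (h0 t ht)).1) (fun t ht => (G.good t (h0 t ht)).2)
    (fun t ht => G.hE t (h0 t ht)) (fun t ht => G.hO t (h0 t ht)) (l0 := i) (r0 := i + 1)
    (l1 := j) (r1 := j + 1) (by linarith) (by linarith) (one_Icc i) (one_Icc j)
  rw [sqr, ← f0]
  ext x
  rw [mem_fc]
  constructor
  · rintro ⟨h1, h2⟩ c hc
    rcases mem_crs_zero.1 hc with h3 | h3
    · have : c = cx G := Subtype.ext h3
      rw [this]; exact h1
    · have : c = cy G := Subtype.ext h3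
      rw [this]; exact h2
  · intro h1
    exact ⟨h1 _ (mem_crs_zero.2 (Or.inl rfl)), h1 _ (mem_crs_zero.2 (Or.inr rfl))⟩

section one

variable (G : GSq F q a h e o i j) (BF : BoxFoam La F δ κ0) (hLa : IsOpen La)
    (hq : 1 ≤ q) (hh : 0 < h)

include BF hLa hq hh

/-- **(T1)** the coordinates of a point of the square are read off from its foam coordinates -/
theorem GSq.coord {y : Fin 3 → ℝ} (hy : y ∈ sqr a h e o i j) :
    y 0 = a 0 + h * (i + 1 / 2 + (sc (Pc F) (bc (F := F)) y G.xm -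
        sc (Pc F) (bc (F := F)) y G.xp) / 2) ∧
      y 1 = a 1 + h * (j + 1 / 2 + (sc (Pc F) (bc (F := F)) y G.ym -
        sc (Pc F) (bc (F := F)) y G.yp) / 2) ∧
      y 2 = a 2 + h * ((max e o : ℤ) : ℝ) := by
  have key : ∀ t : ℝ, (1 - 2 * max (-t) 0 - (1 - 2 * max t 0)) / 2 = t := by
    intro t
    rcases le_total 0 t with h1 | h1
    · rw [max_eq_left h1, max_eq_right (by linarith)]; ring
    · rw [max_eq_right h1, max_eq_left (by linarith)]; ring
  refine ⟨?_, ?_, (mem_sqr.1 hy).2.2⟩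
  · rw [G.sc_xp BF hLa hq hh hy, G.sc_xm BF hLa hq hh hy, key]
    field_simp
    ring
  · rw [G.sc_yp BF hLa hq hh hy, G.sc_ym BF hLa hq hh hy, key]
    field_simp
    ring

/-- **(T1)** in terms of `u ∈ K` -/
theorem GSq.coord_T {u : F → ℝ} (hu : u ∈ K (Pc F)) (h0 : u (cx G) = 0) (h1 : u (cy G) = 0) :
    T (bc (F := F)) u ∈ sqr a h e o i j ∧
      T (bc (F := F)) u 0 = a 0 + h * (i + 1 / 2 + (u G.xm - u G.xp) / 2) ∧
      T (bc (F := F)) u 1 = a 1 + h * (j + 1 / 2 + (u G.ym - u G.yp) / 2) ∧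
      T (bc (F := F)) u 2 = a 2 + h * ((max e o : ℤ) : ℝ) := by
  have FF := foam BF hLa
  have hact := FF.act_T hu
  have hy : T (bc (F := F)) u ∈ sqr a h e o i j := by
    rw [← inter_eq G hq hh]
    constructor
    · have : cx G ∈ act (Pc F) (T (bc (F := F)) u) := by rw [hact]; exact h0
      exact this
    · have : cy G ∈ act (Pc F) (T (bc (F := F)) u) := by rw [hact]; exact h1
      exact this
  have h2 := GSq.coord G BF hLa hq hh hy
  rw [FF.sc_T hu] at h2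
  exact ⟨hy, h2⟩

end one

/-! ### (T2) the universal constant on the horizontal faces -/

theorem hor_diam {C O : F} (H : Hor F q a h C O) (hh : 0 < h) {x y : Fin 3 → ℝ}
    (hx : x ∈ Pc F C ∩ Pc F O) (hy : y ∈ Pc F C ∩ Pc F O) : ‖x - y‖ ≤ h := by
  obtain ⟨k1, j1, m1, hk1, hC⟩ := H.even
  obtain ⟨k2, j2, m2, hk2, hO⟩ := H.odd
  refine (pi_norm_le_iff_of_nonneg hh.le).2 fun k => ?_
  rw [Pi.sub_apply, Real.norm_eq_abs, abs_le]
  have x1 : x ∈ C.1.set := hx.1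
  have x2 : x ∈ O.1.set := hx.2
  have y1 : y ∈ C.1.set := hy.1
  have y2 : y ∈ O.1.set := hy.2
  by_cases hk : k = 0
  · subst hk
    have s1 := logA_side_odd (a := a) (h := h) (q := q) (j := j2) (m := m2) hk2 0 (by decide)
    rw [hO] at x2 y2
    have s2 := Bx.mem_set.1 x2 0
    have s3 := Bx.mem_set.1 y2 0
    unfold Bx.side at s1
    constructor <;> linarith [s2.1, s2.2, s3.1, s3.2]
  · have s1 := logA_side_even (a := a) (h := h) (q := q) (j := j1) (m := m1) hk1 k hk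
    rw [hC] at x1 y1
    have s2 := Bx.mem_set.1 x1 k
    have s3 := Bx.mem_set.1 y1 k
    unfold Bx.side at s1
    constructor <;> linarith [s2.1, s2.2, s3.1, s3.2]

/-- **(T2)**: `T` is `h`-Lipschitz over a horizontal face between two logs, cut or not -/
theorem hor_T_lip {C O : F} (H : Hor F q a h C O) (BF : BoxFoam La F δ κ0) (hLa : IsOpen La)
    (hh : 0 < h) {u v : F → ℝ} (hu : u ∈ K (Pc F)) (hv : v ∈ K (Pc F)) (huC : u C = 0)
    (huO : u O = 0) (hvC : v C = 0) (hvO : v O = 0) (S : Finset F)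
    (hS : ∀ c, c ∉ S → u c = v c) :
    ‖T (bc (F := F)) u - T (bc (F := F)) v‖ ≤ h * ∑ c ∈ S, |u c - v c| := by
  have FF := foam BF hLa
  refine norm_T_sub_le (FF.K_finite hu) (FF.K_finite hv) S hS hh.le fun τ hτ => ?_
  have hb : ∀ u : F → ℝ, u ∈ K (Pc F) → u C = 0 → u O = 0 →
      bc {c | u c ≤ τ} ∈ Pc F C ∩ Pc F O := by
    intro u hu hu0 hu1
    have h1 : C ∈ {c | u c ≤ τ} := by
      change u C ≤ τ
      rw [hu0]; exact hτ.1.le
    have h1' : O ∈ {c | u c ≤ τ} := by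
      change u O ≤ τ
      rw [hu1]; exact hτ.1.le
    have h2 : (fc (Pc F) {c | u c ≤ τ}).Nonempty :=
      hu.2.2.mono (fc_anti fun c (hc : u c ≤ τ) => hc.trans_lt hτ.2)
    have h3 := FF.mem _ ⟨C, h1⟩ h2
    exact ⟨mem_fc.1 h3 C h1, mem_fc.1 h3 O h1'⟩
  exact hor_diam H hh (hb u hu huC huO) (hb v hv hvC hvO)

/-! ### increments along paths -/

theorem incr_cover {ι : Type*} {g V : ℝ → ℝ} (s : Finset ι) (D : ι → Set ℝ)
    (hD : ∀ i ∈ s, IsClosed (D i)) :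
    ∀ a b : ℝ, a ≤ b → (∀ x ∈ Icc a b, ∀ y ∈ Icc a b, x ≤ y → V x ≤ V y) →
      (∀ i ∈ s, ∀ x ∈ D i ∩ Icc a b, ∀ y ∈ D i ∩ Icc a b, x ≤ y → |g x - g y| ≤ V y - V x) →
      Icc a b ⊆ ⋃ i ∈ s, D i → |g a - g b| ≤ V b - V a := by
  classical
  induction' hn : s.card using Nat.strong_induction_on with n ih generalizing s
  intro a b hab hV hlip hcov
  obtain ⟨i0, hi0, ha⟩ := mem_iUnion₂.1 (hcov (left_mem_Icc.2 hab))
  have hcomp : IsCompact (D i0 ∩ Icc a b) := isCompact_Icc.inter_left (hD i0 hi0)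
  obtain ⟨a', ⟨ha'D, ha'I⟩, hmax⟩ := hcomp.exists_isGreatest ⟨a, ha, left_mem_Icc.2 hab⟩
  have h1 : |g a - g a'| ≤ V a' - V a :=
    hlip i0 hi0 a ⟨ha, left_mem_Icc.2 hab⟩ a' ⟨ha'D, ha'I⟩ ha'I.1
  rcases ha'I.2.eq_or_lt with h | h
  · rw [← h]; exact h1
  have hclU : IsClosed (⋃ i ∈ s.erase i0, D i) :=
    (s.erase i0).finite_toSet.isClosed_biUnion fun i hi => hD i (Finset.mem_of_mem_erase hi)
  have hIoc : Ioc a' b ⊆ ⋃ i ∈ s.erase i0, D i := by
    intro x hx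
    obtain ⟨i, hi, hxi⟩ := mem_iUnion₂.1 (hcov ⟨ha'I.1.trans hx.1.le, hx.2⟩)
    refine mem_iUnion₂.2 ⟨i, Finset.mem_erase.2 ⟨?_, hi⟩, hxi⟩
    rintro rfl
    have := hmax ⟨hxi, ha'I.1.trans hx.1.le, hx.2⟩
    exact absurd hx.1 (not_lt.2 this)
  have hIcc : Icc a' b ⊆ ⋃ i ∈ s.erase i0, D i := by
    have h2 : closure (Ioc a' b) ⊆ ⋃ i ∈ s.erase i0, D i := hclU.closure_subset_iff.2 hIoc
    rwa [closure_Ioc h.ne] at h2
  have hsub : Icc a' b ⊆ Icc a b := Icc_subset_Icc_left ha'I.1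
  have h3 := ih (s.erase i0).card (by rw [← hn]; exact Finset.card_erase_lt_of_mem hi0)
    (s.erase i0) (fun i hi => hD i (Finset.mem_of_mem_erase hi)) rfl a' b h.le
    (fun x hx y hy => hV x (hsub hx) y (hsub hy))
    (fun i hi x hx y hy => hlip i (Finset.mem_of_mem_erase hi) x ⟨hx.1, hsub hx.2⟩ y
      ⟨hy.1, hsub hy.2⟩) hIcc
  calc |g a - g b| ≤ |g a - g a'| + |g a' - g b| := abs_sub_le _ _ _
    _ ≤ V b - V a := by linarith

/-- finitely many squares meet a bounded set -/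
theorem finite_sqr (hh : 0 < h) (a : Fin 3 → ℝ) (R : ℝ) :
    {t : ℤ × ℤ × ℤ × ℤ | (t.2.1 = t.1 + 1 ∨ t.1 = t.2.1 + 1) ∧
      ∃ y ∈ sqr a h t.1 t.2.1 t.2.2.1 t.2.2.2, ∀ k, |y k| ≤ R}.Finite := by
  obtain ⟨N, hN⟩ := exists_nat_ge ((R + |a 0| + |a 1| + |a 2|) / h + 2)
  have hN' : R + |a 0| + |a 1| + |a 2| ≤ h * ((N : ℝ) - 2) := by
    have : (R + |a 0| + |a 1| + |a 2|) / h ≤ (N : ℝ) - 2 := by linarith
    rw [div_le_iff₀ hh] at this
    linarith
  refine ((Set.finite_Icc (-(N : ℤ)) N).prod ((Set.finite_Icc (-(N : ℤ)) N).prod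
    ((Set.finite_Icc (-(N : ℤ)) N).prod (Set.finite_Icc (-(N : ℤ)) N)))).subset ?_
  rintro ⟨e, o, i, j⟩ ⟨hadj, y, hy, hR⟩
  simp only at hadj hy
  obtain ⟨⟨b1, b2⟩, ⟨b3, b4⟩, b5⟩ := mem_sqr.1 hy
  have r0 := abs_le.1 (hR 0)
  have r1 := abs_le.1 (hR 1)
  have r2 := abs_le.1 (hR 2)
  have s0 := abs_le.1 (le_refl |a 0|)
  have s1 := abs_le.1 (le_refl |a 1|)
  have s2 := abs_le.1 (le_refl |a 2|)
  have n0 := abs_nonneg (a 0)
  have n1 := abs_nonneg (a 1)
  have n2 := abs_nonneg (a 2)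
  have hR0 : 0 ≤ R := (abs_nonneg _).trans (hR 0)
  have key : ∀ n : ℤ, h * (n : ℝ) ≤ R + |a 0| + |a 1| + |a 2| →
      -(R + |a 0| + |a 1| + |a 2|) ≤ h * ((n : ℝ) + 1) → -(N : ℤ) + 1 ≤ n ∧ n ≤ N - 2 := by
    intro n h1 h2
    have h3 : (n : ℝ) ≤ (N : ℝ) - 2 := le_of_mul_le_mul_left (h1.trans hN') hh
    have h4 : -((N : ℝ) - 2) ≤ (n : ℝ) + 1 := by
      refine le_of_mul_le_mul_left (a := h) ?_ hh
      linarith
    constructor
    · have : (-(N : ℤ) + 1 : ℝ) ≤ n := by push_cast; linarith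
      exact_mod_cast this
    · have : (n : ℝ) ≤ ((N : ℤ) - 2 : ℤ) := by push_cast; linarith
      exact_mod_cast this
  have k0 := key i (by linarith [r0.2, s0.1]) (by linarith [r0.1, s0.2])
  have k1 := key j (by linarith [r1.2, s1.1]) (by linarith [r1.1, s1.2])
  have k2 := key (max e o) (by linarith [r2.2, s2.1]) (by
    have := hh
    nlinarith [r2.1, s2.2])
  simp only [mem_prod, mem_Icc]
  rcases hadj with h1 | h1
  · have : max e o = o := max_eq_right (by omega)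
    rw [this] at k2
    omega
  · have : max e o = e := max_eq_left (by omega)
    rw [this] at k2
    omega

/-- **the horizontal coordinates of a path `T ∘ γ` over good squares**: they move by at most `h/2`
times the total movement of the foam coordinates of the own class -/
theorem path_le (BF : BoxFoam La F δ κ0) (hLa : IsOpen La) (hq : 1 ≤ q) (hh : 0 < h)
    {γ : ℝ → F → ℝ} {s t : ℝ} (hst : s ≤ t) (hγK : ∀ τ ∈ Icc s t, γ τ ∈ K (Pc F))
    (hγc : ContinuousOn γ (Icc s t))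
    (hsq : ∀ τ ∈ Icc s t, ∃ e o i j, GSq F q a h e o i j ∧ T (bc (F := F)) (γ τ) ∈ sqr a h e o i j)
    {W : F → ℝ → ℝ} (hW : ∀ c, ∀ x ∈ Icc s t, ∀ y ∈ Icc s t, x ≤ y →
      |γ x c - γ y c| ≤ W c y - W c x) {Sx Sy : Finset F}
    (hSx : ∀ e o i j, ∀ G : GSq F q a h e o i j,
      (∃ τ ∈ Icc s t, T (bc (F := F)) (γ τ) ∈ sqr a h e o i j) → G.xp ∈ Sx ∧ G.xm ∈ Sx)
    (hSy : ∀ e o i j, ∀ G : GSq F q a h e o i j,
      (∃ τ ∈ Icc s t, T (bc (F := F)) (γ τ) ∈ sqr a h e o i j) → G.yp ∈ Sy ∧ G.ym ∈ Sy) :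
    |T (bc (F := F)) (γ s) 0 - T (bc (F := F)) (γ t) 0| ≤ h / 2 * ∑ c ∈ Sx, (W c t - W c s) ∧
    |T (bc (F := F)) (γ s) 1 - T (bc (F := F)) (γ t) 1| ≤ h / 2 * ∑ c ∈ Sy, (W c t - W c s) := by
  classical
  have FF := foam BF hLa
  have hTc : ContinuousOn (fun τ => T (bc (F := F)) (γ τ)) (Icc s t) :=
    (continuousOn_T FF).comp hγc hγK
  -- finitely many squares
  obtain ⟨R, hR⟩ := (isCompact_Icc.image_of_continuousOn hTc).isBounded.exists_norm_le
  have hfin := finite_sqr hh a R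
  have hWm : ∀ c, ∀ x ∈ Icc s t, ∀ y ∈ Icc s t, x ≤ y → W c x ≤ W c y := by
    intro c x hx y hy hxy
    have := (abs_nonneg _).trans (hW c x hx y hy hxy)
    linarith
  have hcov : Icc s t ⊆ ⋃ p ∈ hfin.toFinset, (if GSq F q a h p.1 p.2.1 p.2.2.1 p.2.2.2 then
      {τ | τ ∈ Icc s t ∧ T (bc (F := F)) (γ τ) ∈ sqr a h p.1 p.2.1 p.2.2.1 p.2.2.2} else ∅) := by
    intro τ hτ
    obtain ⟨e, o, i, j, hG, hmem⟩ := hsq τ hτ
    refine mem_iUnion₂.2 ⟨(e, o, i, j), ?_, ?_⟩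
    · rw [hfin.mem_toFinset]
      refine ⟨hG.adj, _, hmem, fun k => ?_⟩
      have h1 := hR _ (mem_image_of_mem _ hτ)
      exact (norm_le_pi_norm (T (bc (F := F)) (γ τ)) k).trans h1
    · simp only
      rw [if_pos hG]
      exact ⟨hτ, hmem⟩
  have hclosed : ∀ p ∈ hfin.toFinset, IsClosed (if GSq F q a h p.1 p.2.1 p.2.2.1 p.2.2.2 then
      {τ | τ ∈ Icc s t ∧ T (bc (F := F)) (γ τ) ∈ sqr a h p.1 p.2.1 p.2.2.1 p.2.2.2} else ∅) := by
    intro p _
    split_ifs with hG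
    · exact hTc.preimage_isClosed_of_isClosed isClosed_Icc isClosed_Icc
    · exact isClosed_empty
  -- the increments on one square
  have hinc : ∀ e o i j, ∀ G : GSq F q a h e o i j, ∀ x ∈ Icc s t, ∀ y ∈ Icc s t, x ≤ y →
      T (bc (F := F)) (γ x) ∈ sqr a h e o i j → T (bc (F := F)) (γ y) ∈ sqr a h e o i j →
      |T (bc (F := F)) (γ x) 0 - T (bc (F := F)) (γ y) 0| ≤
        h / 2 * ∑ c ∈ Sx, (W c y - W c x) ∧
      |T (bc (F := F)) (γ x) 1 - T (bc (F := F)) (γ y) 1| ≤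
        h / 2 * ∑ c ∈ Sy, (W c y - W c x) := by
    intro e o i j G x hx y hy hxy hmx hmy
    have hnn : ∀ c, 0 ≤ W c y - W c x := fun c => by linarith [hWm c x hx y hy hxy]
    have two : ∀ {S : Finset F} {c c' : F}, c ∈ S → c' ∈ S → c ≠ c' →
        (W c y - W c x) + (W c' y - W c' x) ≤ ∑ c ∈ S, (W c y - W c x) := by
      intro S c c' hc hc' hne
      refine (Finset.sum_pair (f := fun c => W c y - W c x) hne).symm.le.trans ?_
      refine Finset.sum_le_sum_of_subset_of_nonneg ?_ fun d _ _ => hnn d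
      intro d hd
      rcases Finset.mem_insert.1 hd with rfl | hd
      · exact hc
      · rw [Finset.mem_singleton.1 hd]; exact hc'
    have cX := GSq.coord G BF hLa hq hh hmx
    have cY := GSq.coord G BF hLa hq hh hmy
    rw [FF.sc_T (hγK x hx)] at cX
    rw [FF.sc_T (hγK y hy)] at cY
    obtain ⟨s1, s2⟩ := hSx e o i j G ⟨x, hx, hmx⟩
    obtain ⟨s3, s4⟩ := hSy e o i j G ⟨x, hx, hmx⟩
    constructor
    · rw [cX.1, cY.1]
      have e1 : a 0 + h * (i + 1 / 2 + (γ x G.xm - γ x G.xp) / 2) -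
          (a 0 + h * (i + 1 / 2 + (γ y G.xm - γ y G.xp) / 2)) =
          h / 2 * ((γ x G.xm - γ y G.xm) - (γ x G.xp - γ y G.xp)) := by ring
      rw [e1, abs_mul, abs_of_pos (by positivity)]
      refine mul_le_mul_of_nonneg_left ?_ (by positivity)
      refine (abs_sub _ _).trans ?_
      refine (add_le_add (hW _ x hx y hy hxy) (hW _ x hx y hy hxy)).trans ?_
      exact two s2 s1 (G.xp_ne_xm hh).symm
    · rw [cX.2.1, cY.2.1]
      have e1 : a 1 + h * (j + 1 / 2 + (γ x G.ym - γ x G.yp) / 2) -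
          (a 1 + h * (j + 1 / 2 + (γ y G.ym - γ y G.yp) / 2)) =
          h / 2 * ((γ x G.ym - γ y G.ym) - (γ x G.yp - γ y G.yp)) := by ring
      rw [e1, abs_mul, abs_of_pos (by positivity)]
      refine mul_le_mul_of_nonneg_left ?_ (by positivity)
      refine (abs_sub _ _).trans ?_
      refine (add_le_add (hW _ x hx y hy hxy) (hW _ x hx y hy hxy)).trans ?_
      exact two s4 s3 (G.yp_ne_ym hh).symm
  have hsumm : ∀ (S : Finset F), ∀ x ∈ Icc s t, ∀ y ∈ Icc s t, x ≤ y →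
      h / 2 * ∑ c ∈ S, W c x ≤ h / 2 * ∑ c ∈ S, W c y := by
    intro S x hx y hy hxy
    refine mul_le_mul_of_nonneg_left ?_ (by positivity)
    exact Finset.sum_le_sum fun c _ => hWm c x hx y hy hxy
  constructor
  · have := incr_cover (g := fun τ => T (bc (F := F)) (γ τ) 0)
      (V := fun τ => h / 2 * ∑ c ∈ Sx, W c τ) hfin.toFinset _ hclosed s t hst
      (hsumm Sx) ?_ hcov
    · simp only [← mul_sub, ← Finset.sum_sub_distrib] at this
      exact this
    · rintro p _ x ⟨hx, hxI⟩ y ⟨hy, hyI⟩ hxy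
      by_cases hG : GSq F q a h p.1 p.2.1 p.2.2.1 p.2.2.2
      · rw [if_pos hG] at hx hy
        have := (hinc _ _ _ _ hG x hxI y hyI hxy hx.2 hy.2).1
        simp only [← mul_sub, ← Finset.sum_sub_distrib]
        exact this
      · rw [if_neg hG] at hx
        exact absurd hx (notMem_empty _)
  · have := incr_cover (g := fun τ => T (bc (F := F)) (γ τ) 1)
      (V := fun τ => h / 2 * ∑ c ∈ Sy, W c τ) hfin.toFinset _ hclosed s t hst
      (hsumm Sy) ?_ hcov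
    · simp only [← mul_sub, ← Finset.sum_sub_distrib] at this
      exact this
    · rintro p _ x ⟨hx, hxI⟩ y ⟨hy, hyI⟩ hxy
      by_cases hG : GSq F q a h p.1 p.2.1 p.2.2.1 p.2.2.2
      · rw [if_pos hG] at hx hy
        have := (hinc _ _ _ _ hG x hxI y hyI hxy hx.2 hy.2).2
        simp only [← mul_sub, ← Finset.sum_sub_distrib]
        exact this
      · rw [if_neg hG] at hx
        exact absurd hx (notMem_empty _)

end Crest.Agent.R096.Dic5_582
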