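import Crest.Agent.R096.Dic6_582

/-!
# Row 96, NO0-FRONT, two parameters; the open set mapped into the horizontal log walls
-/

set_option autoImplicit false
set_option linter.unusedSectionVars false
set_option linter.unusedVariables false
open Set Filter Topology MeasureTheory
open scoped NNReal ENNReal

noncomputable section

namespace Crest.Agent.R096.Dic7_582

open Crest.Agent.R096.Brk1_582 Crest.Agent.R096.Brk2_582 Crest.Agent.R096.Brk3_582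
open Crest.Agent.R096.Brk4_582 Crest.Agent.R096.Brk5_582
open Crest.Agent.R096.Bsp_628 Crest.Agent.R096.Log1_582 Crest.Agent.R096.Log2_582
open Crest.Agent.R096.Log3_582 Crest.Agent.R096.Dic2_582
open Crest.Agent.R096.Dic3_582 Crest.Agent.R096.Dic4_582 Crest.Agent.R096.Dic6_582
open Crest.Agent.R96.Push_899 (EE co SE IE Box coreBF Mid Psi Pun Wall Foam0 FoamC Uni IsStretch
  Lands Hole foamBF foamHole toBox brk foam0_brk brk_asp countable_brk mem_SE_brk co_injective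
  mem_co_image continuous_co uni_logA)
open Crest.Agent.R96.Acl_392 Crest.Agent.R96.Sob1_199 Crest.Agent.R96.Sob2_199
  Crest.Agent.R96.Sob3_199 Crest.Agent.R96.Sob4_199 Crest.Agent.R96.Sob5_199

variable {E : Type*} [NormedAddCommGroup E] [NormedSpace ℝ E] [FiniteDimensional ℝ E]
  [MeasurableSpace E] [BorelSpace E] {μ : Measure E} [μ.IsAddHaarMeasure]

section push

open Crest.Agent.R96.Push_899

variable {ι : Type*} [Fintype ι] [Nonempty ι] [DecidableEq ι]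

/-- 899's `pushNO_lt'` with one more clause: off the bad set the stretched point is in no hole -/
theorem pushNO_lt2 (k : ι) {a0 p : ℝ} (ha0 : 1 ≤ a0) (hp : 0 < p) (hpn : p < Fintype.card ι)
    {J : Type*} [Fintype J] (v : J → EE ι) (hv : ∀ l, v l k = 0) {d : ℝ≥0∞} (hd : 0 < d) :
    ∃ m : ℕ, 0 < m ∧ ∃ δ : ℝ≥0∞, 0 < δ ∧
      ∀ (Ω : Set E) (Λ : Set (EE ι)) (φ : E → EE ι) (e : J → E) (D : J → E → EE ι),
        IsOpen Ω → Ω.Nonempty → μ Ω ≠ ⊤ → IsOpen Λ → ContinuousOn φ Ω → MapsTo φ Ω Λ →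
        (∀ l, VWD Ω μ φ (D l) (e l)) →
        ∫⁻ x in Ω, ∑ l, ‖D l x - v l‖ₑ ^ p ∂μ ≤ δ * μ Ω →
      ∃ K₀ : Set (EE ι), IsCompact K₀ ∧ K₀ ⊆ Λ ∧ ∃ s₀ > 0, ∀ s, 0 < s → s < s₀ →
      ∀ b : ι → ℝ, ∃ a : ι → ℝ,
        (∀ i, ∃ j : ℕ, j < m ∧ a i = b i + j * (if i = k then s else s / 2) / m) ∧
      ∃ S : EE ι ≃ₜ EE ι, IsStretch k Λ s S ∧
      ∃ X ⊆ Ω, MeasurableSet X ∧ μ X ≤ d * μ Ω ∧ (∀ x ∈ Ω \ X, φ x ∈ K₀) ∧
      ∀ (I : Type) [Countable I] (Q : I → Box ι), Foam0 Λ Q →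
        (∀ c i j, (Q c).W i ≤ a0 * (Q c).W j) →
        (∀ c, (∃ y ∈ SE (Q c), ∃ y₀ ∈ K₀, ‖y - y₀‖ ≤ s) → Uni k a s (Q c)) →
      (∀ z : I → ι → ℝ, (∀ c, z c ∈ Mid (Q c)) → ∀ x ∈ Ω \ X,
        S (φ x) ∈ Pun Λ (fun c => Box.pt (z c)) ∧ ∀ c, S (φ x) ∈ SE (Q c) →
        Lands k s (Q c) (φ x)
          (Psi Q (fun c => coreBF (Q c) (z c)) (fun c => Box.pt (z c)) (S (φ x)))) ∧
      ∀ N : Set (ι → ℝ), volume N = 0 →
      ∃ z : I → ι → ℝ, (∀ c, z c ∈ Mid (Q c)) ∧ (∀ c, z c ∉ N) ∧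
      ∀ (D' : J → E → EE ι),
        (∀ l, VWD (Ω ∩ (fun x => S (φ x)) ⁻¹' (Pun Λ (fun c => Box.pt (z c)))) μ
          (fun x => Psi Q (fun c => coreBF (Q c) (z c)) (fun c => Box.pt (z c)) (S (φ x)))
            (D' l) (e l)) →
        ∫⁻ x in Ω ∩ (fun x => S (φ x)) ⁻¹' (Pun Λ (fun c => Box.pt (z c))),
          ∑ l, ‖D' l x - v l‖ₑ ^ p ∂μ ≤ d * μ Ω := by
  have hKK : KBF ι a0 p ≠ ⊤ := (KBF_lt_top hpn).ne
  obtain ⟨m, hm, δ, hδ, H⟩ := NO_setup (μ := μ) (E := E) k ha0 hp hKK v hv hd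
  refine ⟨m, hm, δ, hδ, ?_⟩
  intro Ω Λ φ e D hΩ hΩne hΩf hΛ hφ hmaps hD hG
  obtain ⟨K₀, hK, hne, hKΛ, r, hr, hrΛ, s₀, hs₀, H1⟩ := H Ω Λ φ e D hΩ hΩne hΩf hΛ hφ hmaps hD hG
  refine ⟨K₀, hK, hKΛ, s₀, hs₀, ?_⟩
  intro s hs hss b
  obtain ⟨hStP, H2⟩ := H1 s hs hss
  obtain ⟨a, ha, hXm, H3⟩ := H2 b
  obtain ⟨S, hS, hSe⟩ := isStretch_of (k := k) (a := a k) hr hK hrΛ hne hStP
  have mG : MeasurableSet (GX K₀ k a s (wm m) (ηm m)) :=
    measurableSet_GX hK.measurableSet k a hStP.hs hStP.hw hStP.hw1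
  have hm1 : (1:ℝ) ≤ m := by exact_mod_cast hm
  have hη : 0 < ηm m := by unfold ηm; positivity
  have hη1 : ηm m ≤ 1 / 2 := by
    unfold ηm; rw [div_le_div_iff₀ (by positivity) (by norm_num)]; linarith
  refine ⟨a, ha, S, hS, Ω ∩ φ ⁻¹' (GX K₀ k a s (wm m) (ηm m))ᶜ, inter_subset_left,
    measurableSet_inter_preimage hΩ.measurableSet hφ mG.compl, hXm, ?_, ?_⟩
  · rintro x ⟨hx, hx2⟩
    by_contra hcon
    exact hx2 ⟨hx, fun hG => hcon hG.1⟩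
  intro I _ Q hF hA hU
  constructor
  · rintro z hz x ⟨hx, hx2⟩
    have hG : φ x ∈ GX K₀ k a s (wm m) (ηm m) := by
      by_contra hcon
      exact hx2 ⟨hx, hcon⟩
    have hFC := foamBF ha0 hF hA hz
    have hχ : ∀ y ∈ K₀, cutf K₀ r y = 1 := fun y hy => (cutf_near hr hy).self_of_nhds
    constructor
    · refine ⟨?_, ?_⟩
      · rw [← hS.image]
        exact ⟨φ x, hmaps hx, rfl⟩
      · rw [hSe]
        intro hmem
        obtain ⟨c, hc⟩ := mem_iUnion.1 hmem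
        have h1 := hFC.hole_sub c hc
        have h2 := IE_subset_SE _ (hFC.core_sub c (IE_subset_SE _ h1))
        have hH := good_mem ha0 hFC hA hStP hχ hU hη
          (le_of_eq rfl : εm a0 m ≤ ηm m / (8 * a0 ^ 2)) hG c h2
        have hηa : ηm m / a0 ≤ ηm m := div_le_self hη.le ha0
        have h3 := (tt_lt_zero_iff (hFC.shape c).nest _).2 h1
        rw [hH.tt_eq] at h3
        have h4 := hH.1
        linarith
    · intro c hc
      rw [hSe] at hc ⊢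
      exact good_lands ha0 hFC hA hStP hχ
        hU hη hη1 (le_of_eq rfl : εm a0 m ≤ ηm m / (8 * a0 ^ 2)) hG hc
  intro N hN
  have hSc : Continuous S := S.continuous
  have hφ₁ : ContinuousOn (fun x => S (φ x)) Ω := hSc.comp_continuousOn hφ
  -- the weak derivatives of `S ∘ φ`
  have hex : ∀ l, ∃ D₁, VWD Ω μ (fun x => S (φ x)) D₁ (e l) := by
    intro l
    rw [hSe]
    exact St_wd (k := k) (a := a k) hStP.hs hStP.hw hStP.hw1 hStP.hε.le hStP.hε1.le hStP.χ0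
      hStP.χ1 hStP.hL hStP.hL0 hΩ hφ (hD l)
  choose D₁ hD₁ using hex
  have nmX : NullMeasurableSet (Ω ∩ φ ⁻¹' (GX K₀ k a s (wm m) (ηm m))ᶜ) μ := by
    have h1 : NullMeasurableSet (φ ⁻¹' (GX K₀ k a s (wm m) (ηm m))ᶜ) (μ.restrict Ω) :=
      (hφ.aestronglyMeasurable hΩ.measurableSet).aemeasurable.nullMeasurable mG.compl
    have h2 := (nullMeasurableSet_restrict hΩ.measurableSet.nullMeasurableSet).1 h1
    rwa [inter_comm] at h2
  obtain ⟨z, hz, hzN, Hz⟩ := pushBF_X (I := I) ha0 hp.le hΛ hF hA hΩ hφ₁ hD₁ hN nmX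
  refine ⟨z, hz, hzN, ?_⟩
  intro D' hD'
  have hbad := (Hz D' hD').2
  have hFC := foamBF ha0 hF hA hz
  have key := H3 I Q (fun c => coreBF (Q c) (z c)) (fun c => Box.pt (z c)) (fun _ => 0) hFC hA hU
    D₁ D' (by rw [← hSe]; exact hD₁) (by rw [← hSe]; exact hD') (by rw [← hSe]; exact hbad)
  rw [← hSe] at key
  exact key

end push

section hor

variable {q : ℕ} {Λ K₀ : Set (EE (Fin 3))} {M s : ℝ} {a : Fin 3 → ℝ} {F : Set (Bx (Fin 3))}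
  {S : EE (Fin 3) ≃ₜ EE (Fin 3)} {φ : E → EE (Fin 3)} {Ω : Set E} {c₀ : ℝ}

/-- the point of the target lies in a horizontal wall between two logs -/
def HW (F : Set (Bx (Fin 3))) (q : ℕ) (a : Fin 3 → ℝ) (s : ℝ) (y : Fin 3 → ℝ) : Prop :=
  ∃ C O : F, Log2_582.Hor F q a s C O ∧ y ∈ Pc F C ∩ Pc F O

/-- **off the bad set a whole neighbourhood is mapped into the horizontal log walls** -/
theorem hor_eventually (h : Fr q Λ K₀ M s a F) (hM : 3 ≤ M) (hΛ : IsOpen Λ) (hΩ : IsOpen Ω)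
    (hφ : ContinuousOn φ Ω) (hm : MapsTo φ Ω Λ)
    (hS : IsStretch 2 Λ s S) {X : Set E} (hXK : ∀ x ∈ Ω \ X, φ x ∈ K₀) {B : F → Box (Fin 3)}
    {z : F → Fin 3 → ℝ} {κ ρ : F → ℝ}
    (hC : FoamC Λ (brk h.foam) (fun c => coreBF (brk h.foam c) (z c)) B ∅ c₀ κ ρ)
    (hland : ∀ x ∈ Ω \ X, ∀ c, S (φ x) ∈ SE (brk h.foam c) →
      Lands 2 s (brk h.foam c) (φ x) (FF (brk h.foam) B z S φ x)) {x : E}
    (hx : x ∈ OO Ω Λ B S φ) (hxX : x ∉ X) :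
    ∀ᶠ x' in 𝓝 x, HW F q a s (co (FF (brk h.foam) B z S φ x')) := by
  have hs := h.s0
  have hcont : ContinuousAt (FF (brk h.foam) B z S φ) x :=
    (continuousOn_FF hC hΛ hφ).continuousAt ((isOpen_OO hC hΛ hΩ hφ).mem_nhds hx)
  have hSφ : ContinuousAt (fun x => S (φ x)) x :=
    (S.continuous.comp_continuousOn hφ).continuousAt (hΩ.mem_nhds hx.1)
  have hSx : S (φ x) ∈ Λ := (stretch_mem hS).2 (hm hx.1)
  have hcells := (foam0_brk h.foam).cells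
  have hxx : x ∈ Ω \ X := ⟨hx.1, hxX⟩
  -- only the bricks through the image point matter
  have e1 : ∀ᶠ x' in 𝓝 x, ∀ c, S (φ x') ∈ SE (brk h.foam c) → S (φ x) ∈ SE (brk h.foam c) := by
    have h1 : Tendsto (fun x => S (φ x)) (𝓝 x) (𝓝[Λ] (S (φ x))) := by
      apply tendsto_nhdsWithin_iff.2 ⟨hSφ, ?_⟩
      filter_upwards [hΩ.mem_nhds hx.1] with x' hx'
      exact (stretch_mem hS).2 (hm hx')
    exact h1.eventually (hcells.near hSx)
  -- finitely many bricks: strict inequalities persist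
  have hfin : {c | S (φ x) ∈ SE (brk h.foam c)}.Finite := by
    obtain ⟨U, hU, hf⟩ := hcells.locfin _ hSx
    exact hf.subset fun c hc => ⟨_, hc, mem_of_mem_nhds hU⟩
  have hcoord : ∀ i, ContinuousAt (fun x' => FF (brk h.foam) B z S φ x' i) x := fun i =>
    (EuclideanSpace.proj i).continuous.continuousAt.comp hcont
  have e2 : ∀ᶠ x' in 𝓝 x, ∀ c ∈ {c | S (φ x) ∈ SE (brk h.foam c)}, ∀ i : Fin 3, i ≠ 2 →
      (brk h.foam c).lo i < FF (brk h.foam) B z S φ x' i ∧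
      FF (brk h.foam) B z S φ x' i < (brk h.foam c).hi i := by
    rw [eventually_all_finite hfin]
    intro c hc
    rw [eventually_all]
    intro i
    by_cases hi : i = 2
    · exact Eventually.of_forall fun x' h' => absurd hi h'
    · have h1 := (hland x hxx c hc).face i hi
      filter_upwards [(hcoord i).eventually_const_lt h1.1, (hcoord i).eventually_lt_const h1.2]
        with x' h2 h3 _
      exact ⟨h2, h3⟩
  have e3 : ∀ᶠ x' in 𝓝 x, x' ∈ OO Ω Λ B S φ := (isOpen_OO hC hΛ hΩ hφ).mem_nhds hx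
  have e4 : ∀ᶠ x' in 𝓝 x, ‖FF (brk h.foam) B z S φ x' - FF (brk h.foam) B z S φ x‖ ≤ s / 2 := by
    have h1 : Metric.closedBall (FF (brk h.foam) B z S φ x) (s / 2) ∈
        𝓝 (FF (brk h.foam) B z S φ x) := Metric.closedBall_mem_nhds _ (by linarith)
    filter_upwards [hcont h1] with x' hx'
    rwa [mem_preimage, mem_closedBall_iff_norm] at hx'
  obtain ⟨-, hN, -, -⟩ := lands_at h (by linarith) hm hS hXK hland hxx
  filter_upwards [e1, e2, e3, e4] with x' h1 h2 h3 h4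
  obtain ⟨c, hc⟩ := hcells.cover _ h3.2.1
  have hcx := h1 c hc
  have hb := hC.Psi_mem_brick h3.2 hc
  have hLog : IsLog q a s c.1 := h.isLog (by linarith) hcx (hXK x hxx) (hS.near _)
  -- the third coordinate is on the boundary of the brick
  have hz : ∃ n : ℤ, FF (brk h.foam) B z S φ x' 2 = a 2 + s * n := by
    have h5 : FF (brk h.foam) B z S φ x' 2 = (brk h.foam c).lo 2 ∨
        FF (brk h.foam) B z S φ x' 2 = (brk h.foam c).hi 2 := by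
      by_contra hcon
      push Not at hcon
      apply hb.2
      intro i
      have h6 : (brk h.foam c).lo i ≤ FF (brk h.foam) B z S φ x' i ∧
          FF (brk h.foam) B z S φ x' i ≤ (brk h.foam c).hi i := hb.1 i
      by_cases hi : i = 2
      · subst hi
        exact ⟨lt_of_le_of_ne h6.1 (Ne.symm hcon.1), lt_of_le_of_ne h6.2 hcon.2⟩
      · exact h2 c hcx i hi
    obtain ⟨⟨n, hn⟩, hU, -, -⟩ := h.uni_of_log hLog
    rcases h5 with hw | hw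
    · exact ⟨n, by rw [hw, hn]; ring⟩
    · exact ⟨n + 1, by rw [hw, hU, hn]; push_cast; ring⟩
  obtain ⟨n, hn⟩ := hz
  have hy : co (FF (brk h.foam) B z S φ x') ∈ Nr (co '' K₀) s := by
    have h5 := Nr_add hN (z := co (FF (brk h.foam) B z S φ x')) (r' := s / 2)
      ((norm_ofLp_sub_le _ _).trans h4)
    rwa [add_halves] at h5
  obtain ⟨C, O, h6, h7⟩ := hor_near h.foam h.q1 hs h.logs (r' := s) (by nlinarith) hy hn
  exact ⟨C, O, h6, h7⟩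

/-- **energy of the words on the bad set** -/
theorem dict_X (h : Fr q Λ K₀ M s a F) (hΛ : IsOpen Λ) (hΩ : IsOpen Ω)
    (hφ : ContinuousOn φ Ω) {X : Set E} (hXm : MeasurableSet X) {B : F → Box (Fin 3)}
    {z : F → Fin 3 → ℝ} {κ ρ : F → ℝ}
    (hC : FoamC Λ (brk h.foam) (fun c => coreBF (brk h.foam c) (z c)) B ∅ c₀ κ ρ)
    {u : E} {D : E → EE (Fin 3)}
    (hD : VWD (OO Ω Λ B S φ) μ (FF (brk h.foam) B z S φ) D u) {g : F → E → ℝ}
    (hg : ∀ c, WD (OO Ω Λ B S φ) μ (fun x => s3 F c (FF (brk h.foam) B z S φ x)) (g c) u)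
    {w : F → ℝ≥0∞} (hw' : ∀ c : F, w c ≤ ENNReal.ofReal c.1.sz) (v : EE (Fin 3)) {p : ℝ}
    (hp : 1 ≤ p) :
    ∫⁻ x in OO Ω Λ B S φ ∩ X, (∑' c, w c * ‖g c x‖ₑ) ^ p ∂μ ≤
      C1 q p * (∫⁻ x in OO Ω Λ B S φ, ‖D x - v‖ₑ ^ p ∂μ + ‖v‖ₑ ^ p * μ X) := by
  have hOO : IsOpen (OO Ω Λ B S φ) := isOpen_OO hC hΛ hΩ hφ
  have hco : IsOpen (co '' Λ) := by
    have : co '' Λ = (WithLp.toLp 2 : (Fin 3 → ℝ) → EE (Fin 3)) ⁻¹' Λ := by
      ext y
      constructor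
      · rintro ⟨x, hx, rfl⟩; exact hx
      · intro hy; exact ⟨_, hy, rfl⟩
    rw [this]
    exact hΛ.preimage (PiLp.continuous_toLp 2 _)
  have key := gen_tsum (μ := μ) h.foam hco (dF_pos h.q1) (by norm_num : (0 : ℝ) < 6) h.cmp
    hOO hD (continuousOn_FF hC hΛ hφ) (fun x hx => mem_co_image.2 (mapsTo_FF hC hx)) hg hw'
  have h1 := lint_part (μ := μ) (Ω := OO Ω Λ B S φ) (d := fun x => ‖D x - v‖ₑ)
    (H := fun x => ∑' c, w c * ‖g c x‖ₑ) (s := 0) (N := ‖v‖ₑ)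
    (C := ENNReal.ofReal (3 * (Cs 3 (dF q) 6 * 6))) ENNReal.ofReal_ne_top hp
    (Z := OO Ω Λ B S φ ∩ X) (hOO.measurableSet.inter hXm) inter_subset_left (by
      filter_upwards [key] with x hx hxZ
      refine (hx hxZ.1).trans (mul_le_mul' le_rfl ?_)
      calc ‖D x‖ₑ = ‖(D x - v) + v‖ₑ := by rw [sub_add_cancel]
        _ ≤ _ := enorm_add_le _ _)
  simp only [tsub_zero] at h1
  refine h1.trans ?_
  unfold C1
  gcongr
  exact inter_subset_right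

/-- the pushed map has weak derivatives -/
theorem exists_vwd_FF (h : Fr q Λ K₀ M s a F) (hΛ : IsOpen Λ) (hΩ : IsOpen Ω)
    (hφ : ContinuousOn φ Ω) (hS : IsStretch 2 Λ s S) {B : F → Box (Fin 3)}
    {z : F → Fin 3 → ℝ} {κ ρ : F → ℝ}
    (hC : FoamC Λ (brk h.foam) (fun c => coreBF (brk h.foam c) (z c)) B ∅ c₀ κ ρ)
    {u : E} {D : E → EE (Fin 3)} (hD : VWD Ω μ φ D u) :
    ∃ D', VWD (OO Ω Λ B S φ) μ (FF (brk h.foam) B z S φ) D' u := by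
  obtain ⟨K, hK⟩ := hS.lip
  obtain ⟨D₁, hD₁⟩ := comp_exists hΩ hD hφ (S := univ) (fun x _ => mem_univ _)
    (θ := S) hK.locallyLipschitz.locallyLipschitzOn
  have h1 : VWD (OO Ω Λ B S φ) μ (fun x => S (φ x)) D₁ u := fun i =>
    wd_mono (hD₁ i) inter_subset_left
  exact comp_exists (isOpen_OO hC hΛ hΩ hφ) h1
    ((S.continuous.comp_continuousOn hφ).mono inter_subset_left) (S := Pun Λ B)
    (fun x hx => hx.2) (hC.locLip hΛ)

/-- the cell functions of the pushed map have weak derivatives -/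
theorem exists_wd_s3 (h : Fr q Λ K₀ M s a F) (hΛ : IsOpen Λ) (hΩ : IsOpen Ω)
    (hφ : ContinuousOn φ Ω) {B : F → Box (Fin 3)}
    {z : F → Fin 3 → ℝ} {κ ρ : F → ℝ}
    (hC : FoamC Λ (brk h.foam) (fun c => coreBF (brk h.foam c) (z c)) B ∅ c₀ κ ρ)
    {u : E} {D : E → EE (Fin 3)}
    (hD : VWD (OO Ω Λ B S φ) μ (FF (brk h.foam) B z S φ) D u) :
    ∃ g : F → E → ℝ, ∀ c, WD (OO Ω Λ B S φ) μ
      (fun x => s3 F c (FF (brk h.foam) B z S φ x)) (g c) u := by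
  have hco : IsOpen (co '' Λ) := by
    have : co '' Λ = (WithLp.toLp 2 : (Fin 3 → ℝ) → EE (Fin 3)) ⁻¹' Λ := by
      ext y
      constructor
      · rintro ⟨x, hx, rfl⟩; exact hx
      · intro hy; exact ⟨_, hy, rfl⟩
    rw [this]
    exact hΛ.preimage (PiLp.continuous_toLp 2 _)
  exact ⟨_, fun c => comp_real (isOpen_OO hC hΛ hΩ hφ) hD (continuousOn_FF hC hΛ hφ)
    (fun x hx => mem_co_image.2 (mapsTo_FF hC hx))
    (s3_locLip h.foam hco (dF_pos h.q1) (by norm_num : (0 : ℝ) < 6) h.cmp c)⟩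

end hor

/-- the choice of `q` (first parameter), then of `d` (second parameter) -/
theorem exists_consts2 {p : ℝ} (hp : 1 ≤ p) (V : ℝ≥0∞) (hV : V ≠ ⊤) {ε : ℝ≥0∞} (hε : 0 < ε) :
    ∃ q : ℕ, 1 ≤ q ∧ 6 / (q : ℝ≥0∞) ≤ ε ∧ ∀ ε' : ℝ≥0∞, 0 < ε' →
      ∃ d : ℝ≥0∞, 0 < d ∧ d ≤ ε' ∧ C1 q p * (d + V * d) ≤ ε' ∧
      (2 ^ p + C0 p + C1 q p) * d + (C0 p * (V * (6 / (q : ℝ≥0∞))) + C1 q p * (V * d)) ≤ ε := by
  have hε3 : 0 < ε / 3 := ENNReal.div_pos hε.ne' (by norm_num)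
  have hc0 := C0_ne_top hp
  obtain ⟨q, hq, hq1⟩ := exists_div_le (6 * (1 + C0 p * V)) (by finiteness) hε3
  have hc1 := C1_ne_top hp q
  have h2p : (2 : ℝ≥0∞) ^ p ≠ ⊤ := ENNReal.rpow_ne_top_of_nonneg (by linarith) (by norm_num)
  have e3 : ε / 3 ≤ ε := ENNReal.div_le_of_le_mul' (by
    calc ε = 1 * ε := (one_mul _).symm
      _ ≤ 3 * ε := by gcongr; norm_num)
  refine ⟨q, hq, ?_, fun ε' hε' => ?_⟩
  · calc 6 / (q : ℝ≥0∞) = 6 * 1 / q := by rw [mul_one]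
      _ ≤ 6 * (1 + C0 p * V) / q := by gcongr; exact le_self_add
      _ ≤ ε := hq1.trans e3
  obtain ⟨d, hd, hd1⟩ := exists_mul_le (1 + (2 ^ p + C0 p + C1 q p) + C1 q p * V)
    (by finiteness) (lt_min hε3 (lt_min hε' hε'))
  have hd2 := hd1.trans (min_le_left _ _)
  have hd3 := hd1.trans ((min_le_right _ _).trans (min_le_left _ _))
  refine ⟨d, hd, ?_, ?_, ?_⟩
  · calc d = 1 * d := (one_mul d).symm
      _ ≤ (1 + (2 ^ p + C0 p + C1 q p) + C1 q p * V) * d := by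
          refine mul_le_mul' ?_ le_rfl
          rw [add_assoc]
          exact le_self_add
      _ ≤ ε' := hd3
  · refine le_trans ?_ hd3
    calc C1 q p * (d + V * d) = (C1 q p + C1 q p * V) * d := by ring
      _ ≤ _ := by
          refine mul_le_mul' (add_le_add ?_ le_rfl) le_rfl
          calc C1 q p ≤ 2 ^ p + C0 p + C1 q p := le_add_self
            _ ≤ _ := le_add_self
  · have h1 : (2 ^ p + C0 p + C1 q p) * d ≤ ε / 3 := by
      refine le_trans (mul_le_mul' ?_ le_rfl) hd2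
      calc 2 ^ p + C0 p + C1 q p ≤ 1 + (2 ^ p + C0 p + C1 q p) := le_add_self
        _ ≤ _ := le_self_add
    have h2 : C0 p * (V * (6 / (q : ℝ≥0∞))) ≤ ε / 3 := by
      refine le_trans ?_ hq1
      calc C0 p * (V * (6 / (q : ℝ≥0∞))) = 6 * (C0 p * V) / q := by
            simp only [div_eq_mul_inv]; ring
        _ ≤ 6 * (1 + C0 p * V) / q := by gcongr; exact le_add_self
    have h3 : C1 q p * (V * d) ≤ ε / 3 := by
      refine le_trans ?_ hd2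
      rw [← mul_assoc]
      refine mul_le_mul' ?_ le_rfl
      exact le_add_self
    calc _ ≤ ε / 3 + (ε / 3 + ε / 3) := add_le_add h1 (add_le_add h2 h3)
      _ = ε := by rw [← add_assoc]; exact ENNReal.add_thirds ε

/-- **FRONT OF NO0, `p < 3`, TWO PARAMETERS**: `ε` (cut squares, `q`) first, then `ε'` (bad set
`X`), which may depend on `q`. -/
theorem front2_lt {p : ℝ} (hp : 1 ≤ p) (hp3 : p < 3) {J : Type*} [Fintype J]
    (v : J → EE (Fin 3)) (hv : ∀ l, v l 2 = 0) {ε : ℝ≥0∞} (hε : 0 < ε) :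
    ∃ q : ℕ, 1 ≤ q ∧ ∀ ε' : ℝ≥0∞, 0 < ε' → ∃ m : ℕ, 0 < m ∧ ∃ δ : ℝ≥0∞, 0 < δ ∧
      ∀ (Ω : Set E) (Λ : Set (EE (Fin 3))) (φ : E → EE (Fin 3)) (e : J → E)
        (D : J → E → EE (Fin 3)),
        IsOpen Ω → Ω.Nonempty → μ Ω ≠ ⊤ → IsOpen Λ → Bornology.IsBounded Λ →
        ContinuousOn φ Ω → MapsTo φ Ω Λ → (∀ l, VWD Ω μ φ (D l) (e l)) →
        ∫⁻ x in Ω, ∑ l, ‖D l x - v l‖ₑ ^ p ∂μ ≤ δ * μ Ω →
      ∃ K₀ : Set (EE (Fin 3)), IsCompact K₀ ∧ K₀ ⊆ Λ ∧ ∀ M : ℝ, 3 ≤ M → ∃ s₀ > 0,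
      ∀ s, 0 < s → s < s₀ → ∀ b : Fin 3 → ℝ, ∃ a : Fin 3 → ℝ,
        (∀ i, ∃ j : ℕ, a i = b i + j * (s / (2 * m))) ∧
      ∃ S : EE (Fin 3) ≃ₜ EE (Fin 3), IsStretch 2 Λ s S ∧
      ∃ X ⊆ Ω, MeasurableSet X ∧ μ X ≤ ε' * μ Ω ∧ (∀ x ∈ Ω \ X, φ x ∈ K₀) ∧
      (μ.restrict Ω) (Strip q a s φ) ≤ ε * μ Ω ∧
      ∃ (F : Set (Bx (Fin 3))) (h : Fr q Λ K₀ M s a F),
      ∀ N : Set (Fin 3 → ℝ), volume N = 0 →
      ∃ z : F → Fin 3 → ℝ, (∀ c, z c ∈ Mid (brk h.foam c)) ∧ (∀ c, z c ∉ N) ∧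
        (∀ x ∈ Ω \ X, ∀ c, S (φ x) ∈ SE (brk h.foam c) → Lands 2 s (brk h.foam c) (φ x)
          (FF (brk h.foam) (fun c => Box.pt (z c)) z S φ x)) ∧
        (∃ HH : Set E, IsOpen HH ∧ HH ⊆ OO Ω Λ (fun c => Box.pt (z c)) S φ ∧ Ω \ X ⊆ HH ∧
          ∀ x ∈ HH, HW F q a s (co (FF (brk h.foam) (fun c => Box.pt (z c)) z S φ x))) ∧
        ∀ (D' : J → E → EE (Fin 3)),
          (∀ l, VWD (OO Ω Λ (fun c => Box.pt (z c)) S φ) μ
            (FF (brk h.foam) (fun c => Box.pt (z c)) z S φ) (D' l) (e l)) →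
          ∫⁻ x in OO Ω Λ (fun c => Box.pt (z c)) S φ, ∑ l, ‖D' l x - v l‖ₑ ^ p ∂μ ≤ ε' * μ Ω ∧
          ∀ (l : J) (w : F → ℝ≥0∞), (∀ c : F, IsLog q a s c.1 → w c = ENNReal.ofReal (s / 2)) →
            (∀ c : F, w c ≤ ENNReal.ofReal c.1.sz) → ∀ g : F → E → ℝ,
            (∀ c, WD (OO Ω Λ (fun c => Box.pt (z c)) S φ) μ
              (fun x => s3 F c (FF (brk h.foam) (fun c => Box.pt (z c)) z S φ x)) (g c) (e l)) →
            ∫⁻ x in OO Ω Λ (fun c => Box.pt (z c)) S φ,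
              (∑' c, w c * ‖g c x‖ₑ - (‖v l 0‖ₑ + ‖v l 1‖ₑ)) ^ p ∂μ ≤ ε * μ Ω ∧
            ∫⁻ x in OO Ω Λ (fun c => Box.pt (z c)) S φ ∩ X,
              (∑' c, w c * ‖g c x‖ₑ) ^ p ∂μ ≤ ε' * μ Ω := by
  have hV : (∑ l, ‖v l‖ₑ ^ p) ≠ ⊤ := by
    refine ENNReal.sum_ne_top.2 fun l _ => ENNReal.rpow_ne_top_of_nonneg (by linarith) (by simp)
  obtain ⟨q, hq, hqε, hcon⟩ := exists_consts2 hp _ hV hε
  refine ⟨q, hq, fun ε' hε' => ?_⟩
  obtain ⟨d, hd, hdε, hd1, hcon⟩ := hcon ε' hε'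
  obtain ⟨m, hm, δ, hδ, H⟩ := pushNO_lt2 (μ := μ) (E := E) 2 (one_le_kF q) (by linarith)
    (by rw [Fintype.card_fin]; exact_mod_cast hp3) v hv hd
  refine ⟨m, hm, δ, hδ, ?_⟩
  intro Ω Λ φ e D hΩ hΩne hΩf hΛ hΛb hφ hmaps hD hG
  obtain ⟨K₀, hK, hKΛ, s₁, hs₁, H1⟩ := H Ω Λ φ e D hΩ hΩne hΩf hΛ hφ hmaps hD hG
  refine ⟨K₀, hK, hKΛ, fun M hM => ?_⟩
  obtain ⟨s₂, hs₂, H2⟩ := exists_Fr hq hΛ hΛb hK hKΛ (M := M) (by linarith)
  refine ⟨min s₁ s₂, lt_min hs₁ hs₂, fun s hs hss b => ?_⟩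
  obtain ⟨a, ha, S, hS, X, hXΩ, hXm, hX, hXK, H3⟩ := H1 s hs (hss.trans_le (min_le_left _ _)) b
  have hφm : ∀ i, AEMeasurable (fun x => φ x i) (μ.restrict Ω) := fun i =>
    (((EuclideanSpace.proj i).continuous.comp_continuousOn hφ).aestronglyMeasurable
      hΩ.measurableSet).aemeasurable
  obtain ⟨α, β, hα, hβ, hstrip⟩ := exists_translate (μ := μ) (Ω := Ω) (φ := φ) hq hs hφm a
  obtain ⟨F, hF⟩ := H2 s hs (hss.trans_le (min_le_right _ _))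
    (fun i => a i + s * (![(α : ℝ), β, 0] : Fin 3 → ℝ) i)
  have hstrip' : (μ.restrict Ω) (Strip q (fun i => a i + s * (![(α : ℝ), β, 0] : Fin 3 → ℝ) i) s φ)
      ≤ 6 / q * μ Ω := by
    refine hstrip.trans (le_of_eq ?_)
    simp only [div_eq_mul_inv]; ring
  refine ⟨fun i => a i + s * (![(α : ℝ), β, 0] : Fin 3 → ℝ) i, ?_, S, hS, X, hXΩ, hXm,
    hX.trans (by gcongr), hXK, hstrip'.trans (by gcongr), F, hF, ?_⟩
  · intro i
    obtain ⟨j, hj, he⟩ := ha i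
    have hm0 : (m : ℝ) ≠ 0 := by exact_mod_cast hm.ne'
    fin_cases i
    · refine ⟨j + 2 * m * α, ?_⟩
      simp at he ⊢
      rw [he]; field_simp; ring
    · refine ⟨j + 2 * m * β, ?_⟩
      simp at he ⊢
      rw [he]; field_simp; ring
    · refine ⟨2 * j, ?_⟩
      simp at he ⊢
      rw [he]; field_simp
  intro N hN
  have : Countable F := countable_brk hF.foam
  obtain ⟨H4, H5⟩ := H3 F (brk hF.foam) (foam0_brk hF.foam) (fun c i j => brk_asp hF.foam c i j)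
    (fun c hc => by
      obtain ⟨y, hy, y₀, hy₀, hyy⟩ := hc
      exact uni_translate (hF.uni_of_log (hF.isLog (by linarith) hy hy₀ hyy)))
  obtain ⟨z, hz, hzN, H6⟩ := H5 N hN
  have hland : ∀ x ∈ Ω \ X, ∀ c, S (φ x) ∈ SE (brk hF.foam c) → Lands 2 s (brk hF.foam c) (φ x)
      (FF (brk hF.foam) (fun c => Box.pt (z c)) z S φ x) := fun x hx => (H4 z hz x hx).2
  have hC := foamBF (one_le_kF q) (foam0_brk hF.foam) (fun c i j => brk_asp hF.foam c i j) hz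
  have hOO : IsOpen (OO Ω Λ (fun c => Box.pt (z c)) S φ) := isOpen_OO hC hΛ hΩ hφ
  refine ⟨z, hz, hzN, hland, ?_, fun D' hD' => ?_⟩
  · refine ⟨OO Ω Λ (fun c => Box.pt (z c)) S φ ∩ {x | ∀ᶠ x' in 𝓝 x,
      HW F q (fun i => a i + s * (![(α : ℝ), β, 0] : Fin 3 → ℝ) i) s
        (co (FF (brk hF.foam) (fun c => Box.pt (z c)) z S φ x'))}, ?_, inter_subset_left, ?_, ?_⟩
    · exact hOO.inter (isOpen_iff_mem_nhds.2 fun x hx => eventually_eventually_nhds.2 hx)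
    · intro x hx
      have h1 : x ∈ OO Ω Λ (fun c => Box.pt (z c)) S φ := ⟨hx.1, (H4 z hz x hx).1⟩
      exact ⟨h1, hor_eventually hF hM hΛ hΩ hφ hmaps hS hXK hC hland h1 hx.2⟩
    · exact fun x hx => hx.2.self_of_nhds
  have hE := H6 D' hD'
  refine ⟨hE.trans (by gcongr), fun l w hw hw' g hg => ?_⟩
  have e1 : ∫⁻ x in OO Ω Λ (fun c => Box.pt (z c)) S φ, ‖D' l x - v l‖ₑ ^ p ∂μ ≤ d * μ Ω := by
    refine le_trans (lintegral_mono fun x => ?_) hE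
    exact Finset.single_le_sum (f := fun l => ‖D' l x - v l‖ₑ ^ p) (fun _ _ => zero_le)
      (Finset.mem_univ l)
  have e2 : ‖v l‖ₑ ^ p ≤ ∑ l, ‖v l‖ₑ ^ p :=
    Finset.single_le_sum (f := fun l => ‖v l‖ₑ ^ p) (fun _ _ => zero_le) (Finset.mem_univ l)
  have e3 : μ (Ω ∩ X) ≤ d * μ Ω := (measure_mono inter_subset_right).trans hX
  constructor
  · have key := dict_FF (μ := μ) hF hM hΛ hΩ hφ hmaps hS hXK hC hland (hD' l) hg hw hw' (v l) hp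
    refine key.trans ?_
    calc _ ≤ (2 ^ p + C0 p + C1 q p) * (d * μ Ω) +
          (C0 p * ((∑ l, ‖v l‖ₑ ^ p) * (6 / q * μ Ω)) + C1 q p * ((∑ l, ‖v l‖ₑ ^ p) * (d * μ Ω))) :=
          add_le_add (mul_le_mul' le_rfl e1) (add_le_add
            (mul_le_mul' le_rfl (mul_le_mul' e2 hstrip')) (mul_le_mul' le_rfl (mul_le_mul' e2 e3)))
      _ = ((2 ^ p + C0 p + C1 q p) * d + (C0 p * ((∑ l, ‖v l‖ₑ ^ p) * (6 / q)) +
          C1 q p * ((∑ l, ‖v l‖ₑ ^ p) * d))) * μ Ω := by ring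
      _ ≤ ε * μ Ω := by gcongr
  · have key := dict_X (μ := μ) hF hΛ hΩ hφ hXm hC (hD' l) hg hw' (v l) hp
    refine key.trans ?_
    calc C1 q p * (∫⁻ x in OO Ω Λ (fun c => Box.pt (z c)) S φ, ‖D' l x - v l‖ₑ ^ p ∂μ +
          ‖v l‖ₑ ^ p * μ X) ≤
        C1 q p * (d * μ Ω + (∑ l, ‖v l‖ₑ ^ p) * (d * μ Ω)) := by gcongr
      _ = C1 q p * (d + (∑ l, ‖v l‖ₑ ^ p) * d) * μ Ω := by ring
      _ ≤ ε' * μ Ω := by gcongr

end Crest.Agent.R096.Dic7_582
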