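import Crest.Agent.R096.Ginv3_543

/-!
# Row 96, DOORS-INV (helper106), part 1: the invariant from one star condition per quad

`Star s Q b` : for every sheet `j` and every quad `k` of its family, all points of `j` which are not
inside `k` are joined with the base point `b j` by chords which are not crossed **in the quad `k`**
(they may be crossed in the other quads).

`exists_inv_of_star` : `H1`, `Conn`, `only` and the star condition give `Inv`.
-/

set_option autoImplicit false

namespace Crest.Agent.R096.Dinv_106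

open Crest.Agent.R096.St_147 Crest.Agent.R096.Seq_213

variable {ι Φ W J C K : Type} {M : MeshC ι Φ W} {fam : J → C}

theorem free_mu {s : GSt M fam} {Q : Quads ι C K} {k : K} {F : Φ} {w : W} (h : s.At F w) :
    s.Free Q k F (s.mu F w) ↔ s.Free Q k F w := by
  unfold GSt.Free
  rw [s.mu_lab h.1 h.2, s.mu_mu h.1 h.2]
  constructor
  · intro h1 x hx hk hne hl
    exact h1 x hx hk hne (by rwa [lace_swap_left])
  · intro h1 x hx hk hne hl
    exact h1 x hx hk hne (by rwa [lace_swap_left] at hl)

theorem ok_mu {s : GSt M fam} {Q : Quads ι C K} {F : Φ} {w : W} (h : s.At F w) :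
    s.OK Q F (s.mu F w) ↔ s.OK Q F w := by
  unfold GSt.OK
  rw [s.mu_lab h.1 h.2]
  exact forall_congr' fun k => imp_congr_right fun _ => imp_congr_right fun _ => free_mu h

/-- the chord `(F,w)` is not crossed in the quad `k` -/
def KFree (s : GSt M fam) (Q : Quads ι C K) (k : K) (F : Φ) (w : W) : Prop :=
  Inner M (Q.Act k) F → s.Free Q k F w

/-- the points of `j` not inside the quad `k` are joined with the base point by chords which are
not crossed in `k` -/
def Star (s : GSt M fam) (Q : Quads ι C K) (b : J → W) : Prop :=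
  ∀ (j : J) (k : K), Q.In k (fam j) → ∀ X : Set W, b j ∈ X →
    (∀ F w, w ∈ X → s.At F w → s.lab w = j → KFree s Q k F w → s.mu F w ∈ X) →
    ∀ w ∈ s.P, s.lab w = j → ¬ Int M (Q.Act k) w → w ∈ X

/-- one step along an `OK` chord -/
def RStep (s : GSt M fam) (Q : Quads ι C K) (j : J) (w w' : W) : Prop :=
  ∃ F, s.At F w ∧ s.lab w = j ∧ s.OK Q F w ∧ w' = s.mu F w

theorem RStep.mem {s : GSt M fam} {Q : Quads ι C K} {j : J} {w w' : W} (h : RStep s Q j w w') :
    w' ∈ s.P ∧ s.lab w' = j := by
  obtain ⟨F, h1, h2, _, rfl⟩ := h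
  exact ⟨(s.mu_mem h1.1 h1.2).1, (s.mu_lab h1.1 h1.2).trans h2⟩

theorem RStep.symm {s : GSt M fam} {Q : Quads ι C K} {j : J} {w w' : W} (h : RStep s Q j w w') :
    RStep s Q j w' w := by
  obtain ⟨F, h1, h2, h3, rfl⟩ := h
  have h4 := s.mu_mem h1.1 h1.2
  exact ⟨F, h4, (s.mu_lab h1.1 h1.2).trans h2, (ok_mu h1).2 h3, (s.mu_mu h1.1 h1.2).symm⟩

theorem rreach_symm {s : GSt M fam} {Q : Quads ι C K} {j : J} {w w' : W}
    (h : Relation.ReflTransGen (RStep s Q j) w w') :
    Relation.ReflTransGen (RStep s Q j) w' w := by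
  induction h with
  | refl => exact Relation.ReflTransGen.refl
  | tail _ h2 ih => exact Relation.ReflTransGen.head h2.symm ih

theorem exists_side (M : MeshC ι Φ W) (F : Φ) : ∃ q, q ∈ M.side F := by
  induction hs : M.side F using Sym2.ind with
  | _ x y => exact ⟨x, Sym2.mem_mk_left _ _⟩

/-- **the invariant from the star condition** -/
theorem exists_inv_of_star {s : GSt M fam} {Q : Quads ι C K} {b : J → W}
    (h1 : ∀ j, s.H1 j) (conn : ∀ j, s.Conn j) (base : ∀ j, b j ∈ s.P ∧ s.lab (b j) = j)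
    (only : ∀ {k F w}, s.At F w → Inner M (Q.Act k) F → Q.In k (fam (s.lab w)))
    (star : Star s Q b) : ∃ far : J → Set W, s.Inv Q far ∧ ∀ j, b j ∈ far j := by
  classical
  let far : J → Set W := fun j => {w | Relation.ReflTransGen (RStep s Q j) (b j) w}
  have hfm : ∀ {j w}, w ∈ far j → w ∈ s.P ∧ s.lab w = j := by
    intro j w hw
    induction hw with
    | refl => exact base j
    | tail _ h _ => exact h.mem
  have hb : ∀ j, b j ∈ far j := fun j => Relation.ReflTransGen.refl
  have hstep : ∀ {j F w}, s.At F w → s.lab w = j → s.OK Q F w →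
      (s.mu F w ∈ far j ↔ w ∈ far j) := by
    intro j F w hA hl hok
    constructor
    · intro h
      exact h.tail (RStep.symm ⟨F, hA, hl, hok, rfl⟩)
    · intro h
      exact h.tail ⟨F, hA, hl, hok, rfl⟩
  have hdis : ∀ {q k k'}, q ∈ Q.Act k → q ∈ Q.Act k' → k = k' := by
    intro q k k' hk hk'
    by_contra hne
    exact Set.disjoint_left.1 (Q.disj k k' hne) hk hk'
  refine ⟨far, ⟨h1, conn, hfm, fun j => ⟨b j, hb j⟩, only, ?_, ?_⟩, hb⟩
  · intro w0 hw0
    by_contra hcon
    push Not at hcon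
    obtain ⟨hfar0, hint0⟩ := hcon
    set j := s.lab w0 with hj
    let χ : W → ZMod 2 := fun w => if w ∈ far j then 1 else 0
    let κ : K → Φ → W → ZMod 2 := fun k F w =>
      if Inner M (Q.Act k) F ∧ ¬ s.Free Q k F w then χ w + χ (s.mu F w) else 0
    have hχ : ∀ {F w}, s.At F w → s.lab w = j → s.OK Q F w → χ w + χ (s.mu F w) = 0 := by
      intro F w hA hl hok
      have := hstep hA hl hok
      show (if w ∈ far j then (1 : ZMod 2) else 0) + (if s.mu F w ∈ far j then 1 else 0) = 0
      rw [if_congr this rfl rfl]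
      exact CharTwo.add_self_eq_zero _
    have hΨ : ∀ k, ∃ Ψ : W → ZMod 2, ∀ F w, s.At F w → s.lab w = j →
        κ k F w = Ψ w + Ψ (s.mu F w) := by
      intro k
      refine h1 j (κ k) fun q => ?_
      by_cases hq : q ∈ Q.Act k
      · refine ⟨χ, fun F w hqF hA hl => ?_⟩
        show (if Inner M (Q.Act k) F ∧ ¬ s.Free Q k F w then χ w + χ (s.mu F w) else 0) = _
        split_ifs with hc
        · rfl
        · refine (hχ hA hl ?_).symm
          intro k' hk' hin'
          have hkk : k' = k := hdis (hin' q hqF) hq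
          subst hkk
          by_contra hf
          exact hc ⟨hin', hf⟩
      · refine ⟨fun _ => 0, fun F w hqF hA hl => ?_⟩
        show (if Inner M (Q.Act k) F ∧ ¬ s.Free Q k F w then χ w + χ (s.mu F w) else 0) = _
        rw [if_neg fun hc => hq (hc.1 q hqF), add_zero]
    choose Ψ hΨ using hΨ
    have hKfin : {k | Q.In k (fam j)}.Finite := Q.finK (fam j)
    let KK : Finset K := hKfin.toFinset
    have hsum : ∀ F w, s.At F w → s.lab w = j → χ w + χ (s.mu F w) = ∑ k ∈ KK, κ k F w := by
      intro F w hA hl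
      by_cases hok : s.OK Q F w
      · rw [hχ hA hl hok]
        refine (Finset.sum_eq_zero fun k _ => ?_).symm
        show (if Inner M (Q.Act k) F ∧ ¬ s.Free Q k F w then χ w + χ (s.mu F w) else 0) = _
        rw [hχ hA hl hok, ite_self]
      · unfold GSt.OK at hok
        push Not at hok
        obtain ⟨k0, hk0, hin0, hf0⟩ := hok
        rw [hl] at hk0
        rw [Finset.sum_eq_single k0]
        · show _ = (if Inner M (Q.Act k0) F ∧ ¬ s.Free Q k0 F w then χ w + χ (s.mu F w) else 0)
          rw [if_pos ⟨hin0, hf0⟩]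
        · intro k _ hne
          show (if Inner M (Q.Act k) F ∧ ¬ s.Free Q k F w then χ w + χ (s.mu F w) else 0) = _
          refine if_neg fun hc => ?_
          obtain ⟨q, hq⟩ := exists_side M F
          exact hne (hdis (hc.1 q hq) (hin0 q hq))
        · intro hk
          exact absurd (hKfin.mem_toFinset.2 hk0) hk
    let θ : W → ZMod 2 := fun w => χ w + ∑ k ∈ KK, Ψ k w
    have hθ : ∀ F w, s.At F w → s.lab w = j → θ (s.mu F w) = θ w := by
      intro F w hA hl
      have e1 := hsum F w hA hl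
      have e2 : ∑ k ∈ KK, κ k F w = ∑ k ∈ KK, Ψ k w + ∑ k ∈ KK, Ψ k (s.mu F w) := by
        rw [← Finset.sum_add_distrib]
        exact Finset.sum_congr rfl fun k _ => hΨ k F w hA hl
      rw [e2] at e1
      show χ (s.mu F w) + ∑ k ∈ KK, Ψ k (s.mu F w) = χ w + ∑ k ∈ KK, Ψ k w
      have e3 : (χ w + ∑ k ∈ KK, Ψ k w) + (χ (s.mu F w) + ∑ k ∈ KK, Ψ k (s.mu F w)) = 0 := by
        calc (χ w + ∑ k ∈ KK, Ψ k w) + (χ (s.mu F w) + ∑ k ∈ KK, Ψ k (s.mu F w))
            = (χ w + χ (s.mu F w)) + (∑ k ∈ KK, Ψ k w + ∑ k ∈ KK, Ψ k (s.mu F w)) := by ring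
          _ = 0 := by rw [e1]; exact CharTwo.add_self_eq_zero _
      exact (CharTwo.add_eq_zero.1 e3).symm
    have hall : θ w0 = θ (b j) := by
      refine (conn j).2 {w | θ w = θ (b j)} ?_ (b j) rfl (base j).1 (base j).2 w0 hw0 hj.symm
      intro F w hw hA hl
      exact (hθ F w hA hl).trans hw
    have hk0 : ∀ k ∈ KK, Ψ k w0 = Ψ k (b j) := by
      intro k hk
      have hk' : Q.In k (fam j) := hKfin.mem_toFinset.1 hk
      refine star j k hk' {w | Ψ k w = Ψ k (b j)} rfl ?_ w0 hw0 hj.symm (hint0 k hk')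
      intro F w hw hA hl hfree
      have e1 := hΨ k F w hA hl
      have e2 : κ k F w = 0 := by
        show (if Inner M (Q.Act k) F ∧ ¬ s.Free Q k F w then χ w + χ (s.mu F w) else 0) = _
        exact if_neg fun hc => hc.2 (hfree hc.1)
      rw [e2] at e1
      exact ((CharTwo.add_eq_zero.1 e1.symm).symm).trans hw
    have e5 : χ w0 = χ (b j) := by
      have e6 : χ w0 + ∑ k ∈ KK, Ψ k w0 = χ (b j) + ∑ k ∈ KK, Ψ k (b j) := hall
      rw [Finset.sum_congr rfl hk0] at e6
      exact add_right_cancel e6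
    have e7 : χ w0 = 0 := if_neg hfar0
    have e8 : χ (b j) = 1 := if_pos (hb j)
    rw [e7, e8] at e5
    exact absurd e5 (by decide)
  · intro j X hX w hwX hwf w' hw'
    have h2 : Relation.ReflTransGen (RStep s Q j) w w' := (rreach_symm hwf).trans hw'
    have h3 : ∀ y, Relation.ReflTransGen (RStep s Q j) w y → y ∈ X ∧ y ∈ far j := by
      intro y hy
      induction hy with
      | refl => exact ⟨hwX, hwf⟩
      | @tail y z _ hz ih =>
        obtain ⟨F, hA, hl, hok, rfl⟩ := hz
        have hm : s.mu F y ∈ far j := (hstep hA hl hok).2 ih.2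
        exact ⟨hX F y ih.1 ih.2 hA hm hok, hm⟩
    exact (h3 w' h2).1

end Crest.Agent.R096.Dinv_106
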