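import Crest.Agent.R096.Gl3_422

/-!
# R096 (row 96), DOORS (helper422): the side of the points of a state with respect to a sheet, and
interlaced chords: `L.ext (gp s i) lam` changes along a chord by the number of the chords of `i`
which are interlaced with it.
-/

set_option autoImplicit false
set_option linter.unusedSectionVars false

open Set Relation

namespace Crest.Agent.R096.Sid_422

open Crest.Agent.R096.St_147 Crest.Agent.R096.Seq_213 Crest.Agent.R096.Lm_117
  Crest.Agent.R096.Ac_117 Crest.Agent.R096.Gl_422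

variable {ι Φ W Q : Type} [PartialOrder Q] {dim : Q → ℕ} {M : MeshC ι Φ W}
variable {J C K : Type} {fam : J → C} {L : LM M Q dim}

/-- the side of the points with respect to the sheet `i` -/
noncomputable def side (L : LM M Q dim) (s : GSt M fam) (i : J) (lam : Q → ZMod 2) (w : W) :
    ZMod 2 := L.ext (gp s i) lam w

open Classical in
/-- one end for every chord of `i` on `F` which separates `w` and `w'` -/
noncomputable def sepF (s : GSt M fam) (i : J) (F : Φ) (w w' : W) : Finset W :=
  (gp s i).filter fun q => q ∈ M.On F ∧ M.Btw F w w' q ∧ ¬ M.Btw F w w' (s.mu F q)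

variable {s : GSt M fam} {i : J} {lam : Q → ZMod 2} {F : Φ} {w w' : W}

open Classical in
theorem bet_sep :
    bet M F (gp s i) w w' = ((sepF s i F w w').card : ZMod 2) := by
  unfold bet sepF
  have hsplit : (gp s i).filter (fun q => q ∈ M.On F ∧ M.Btw F w w' q) =
      (gp s i).filter (fun q => q ∈ M.On F ∧ M.Btw F w w' q ∧ ¬ M.Btw F w w' (s.mu F q)) ∪
      (gp s i).filter (fun q => q ∈ M.On F ∧ M.Btw F w w' q ∧ M.Btw F w w' (s.mu F q)) := by
    ext q
    simp only [Finset.mem_union, Finset.mem_filter]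
    constructor
    · rintro ⟨h1, h2, h3⟩
      by_cases h4 : M.Btw F w w' (s.mu F q)
      · exact Or.inr ⟨h1, h2, h3, h4⟩
      · exact Or.inl ⟨h1, h2, h3, h4⟩
    · rintro (⟨h1, h2, h3, -⟩ | ⟨h1, h2, h3, -⟩) <;> exact ⟨h1, h2, h3⟩
  have hd : Disjoint
      ((gp s i).filter (fun q => q ∈ M.On F ∧ M.Btw F w w' q ∧ ¬ M.Btw F w w' (s.mu F q)))
      ((gp s i).filter (fun q => q ∈ M.On F ∧ M.Btw F w w' q ∧ M.Btw F w w' (s.mu F q))) := by
    rw [Finset.disjoint_left]
    intro q h1 h2
    exact (Finset.mem_filter.1 h1).2.2.2 (Finset.mem_filter.1 h2).2.2.2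
  have h0 : (((gp s i).filter
      (fun q => q ∈ M.On F ∧ M.Btw F w w' q ∧ M.Btw F w w' (s.mu F q))).card : ZMod 2) = 0 := by
    have h1 : ∑ _q ∈ (gp s i).filter
        (fun q => q ∈ M.On F ∧ M.Btw F w w' q ∧ M.Btw F w w' (s.mu F q)), (1 : ZMod 2) = 0 := by
      refine Finset.sum_involution (fun q _ => s.mu F q) (fun q hq => by decide)
        (fun q hq _ => ?_) (fun q hq => ?_) (fun q hq => ?_)
      · obtain ⟨a1, a2, a3, a4⟩ := Finset.mem_filter.1 hq
        exact s.mu_ne (mem_gp.1 a1).1 a2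
      · obtain ⟨a1, a2, a3, a4⟩ := Finset.mem_filter.1 hq
        obtain ⟨a5, a6⟩ := mem_gp.1 a1
        obtain ⟨b1, b2⟩ := s.mu_mem a5 a2
        refine Finset.mem_filter.2 ⟨mem_gp.2 ⟨b1, (s.mu_lab a5 a2).trans a6⟩, b2, a4, ?_⟩
        rw [s.mu_mu a5 a2]; exact a3
      · obtain ⟨a1, a2, a3, a4⟩ := Finset.mem_filter.1 hq
        exact s.mu_mu (mem_gp.1 a1).1 a2
    rw [Finset.sum_const, nsmul_eq_mul, mul_one] at h1
    exact h1
  have e : ((gp s i).filter (fun q => q ∈ M.On F ∧ M.Btw F w w' q)).card =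
      _ := congrArg Finset.card hsplit
  rw [Finset.card_union_of_disjoint hd] at e
  have e2 : (((gp s i).filter (fun q => q ∈ M.On F ∧ M.Btw F w w' q)).card : ZMod 2) =
      (((gp s i).filter
        (fun q => q ∈ M.On F ∧ M.Btw F w w' q ∧ ¬ M.Btw F w w' (s.mu F q))).card : ZMod 2) := by
    rw [e, Nat.cast_add, h0, add_zero]
  convert e2

/-- **the side changes between two points of a face by the number of the chords of `i` which
separate them** -/
theorem side_add (h : GLab L (gp s i) lam) (hw : w ∈ M.On F) (hw' : w' ∈ M.On F)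
    (hl : w ∉ gp s i) (hl' : w' ∉ gp s i) :
    side L s i lam w + side L s i lam w' = ((sepF s i F w w').card : ZMod 2) := by
  unfold side
  rw [h.ext_add (gp_even s i F) hw hw' hl hl']
  exact bet_sep

/-- **no interlaced chord: the side is constant along the chord** -/
theorem side_zero (h : GLab L (gp s i) lam) (hw : s.At F w) (hl : s.lab w ≠ i)
    (hno : ∀ q, s.At F q → s.lab q = i → ¬ M.Lace F w (s.mu F w) q (s.mu F q)) :
    side L s i lam w = side L s i lam (s.mu F w) := by
  classical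
  have h1 := s.mu_mem hw.1 hw.2
  have h2 := s.mu_lab hw.1 hw.2
  have e := side_add h hw.2 h1.2 (fun h' => hl (mem_gp.1 h').2)
    (fun h' => hl (h2.symm.trans (mem_gp.1 h').2))
  have h0 : sepF s i F w (s.mu F w) = ∅ := by
    rw [Finset.eq_empty_iff_forall_notMem]
    intro q hq
    obtain ⟨a1, a2, a3, a4⟩ := Finset.mem_filter.1 hq
    obtain ⟨a5, a6⟩ := mem_gp.1 a1
    exact hno q ⟨a5, a2⟩ a6 (fun hiff => a4 (hiff.1 a3))
  rw [h0, Finset.card_empty, Nat.cast_zero] at e
  exact CharTwo.add_eq_zero.1 e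

/-- **exactly one interlaced chord: the side changes** -/
theorem side_one (h : GLab L (gp s i) lam) (hw : s.At F w) (hl : s.lab w ≠ i) {q : W}
    (hq : s.At F q) (hqi : s.lab q = i) (hlace : M.Lace F w (s.mu F w) q (s.mu F q))
    (huniq : ∀ q', s.At F q' → s.lab q' = i → M.Lace F w (s.mu F w) q' (s.mu F q') →
      q' = q ∨ q' = s.mu F q) :
    side L s i lam w + side L s i lam (s.mu F w) = 1 := by
  classical
  have h1 := s.mu_mem hw.1 hw.2
  have h2 := s.mu_lab hw.1 hw.2
  have e := side_add h hw.2 h1.2 (fun h' => hl (mem_gp.1 h').2)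
    (fun h' => hl (h2.symm.trans (mem_gp.1 h').2))
  have hm := s.mu_mem hq.1 hq.2
  have hmi := (s.mu_lab hq.1 hq.2).trans hqi
  have key : ∀ p, s.At F p → s.lab p = i → M.Btw F w (s.mu F w) p →
      ¬ M.Btw F w (s.mu F w) (s.mu F p) → (p = q ∨ p = s.mu F q) := fun p hp hpi b1 b2 =>
    huniq p hp hpi (fun hiff => b2 (hiff.1 b1))
  have hcard : (sepF s i F w (s.mu F w)).card = 1 := by
    rw [Finset.card_eq_one]
    by_cases hb : M.Btw F w (s.mu F w) q
    · have hb' : ¬ M.Btw F w (s.mu F w) (s.mu F q) := fun hb' => hlace ⟨fun _ => hb', fun _ => hb⟩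
      refine ⟨q, Finset.ext fun p => ?_⟩
      rw [Finset.mem_singleton]
      constructor
      · intro hp
        obtain ⟨a1, a2, a3, a4⟩ := Finset.mem_filter.1 hp
        obtain ⟨a5, a6⟩ := mem_gp.1 a1
        rcases key p ⟨a5, a2⟩ a6 a3 a4 with h | h
        · exact h
        · rw [h] at a3
          exact absurd a3 hb'
      · rintro rfl
        exact Finset.mem_filter.2 ⟨mem_gp.2 ⟨hq.1, hqi⟩, hq.2, hb, hb'⟩
    · have hb' : M.Btw F w (s.mu F w) (s.mu F q) := by
        by_contra hb'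
        exact hlace ⟨fun h => absurd h hb, fun h => absurd h hb'⟩
      refine ⟨s.mu F q, Finset.ext fun p => ?_⟩
      rw [Finset.mem_singleton]
      constructor
      · intro hp
        obtain ⟨a1, a2, a3, a4⟩ := Finset.mem_filter.1 hp
        obtain ⟨a5, a6⟩ := mem_gp.1 a1
        rcases key p ⟨a5, a2⟩ a6 a3 a4 with h | h
        · rw [h] at a3
          exact absurd a3 hb
        · exact h
      · rintro rfl
        refine Finset.mem_filter.2 ⟨mem_gp.2 ⟨hm.1, hmi⟩, hm.2, hb', ?_⟩
        rw [s.mu_mu hq.1 hq.2]; exact hb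
  rw [hcard, Nat.cast_one] at e
  exact e

/-- **labels of one sheet exist** (any family with a body) -/
theorem exists_glab {G : Set W} {Z : Set Q} (has : Gl_422.HasLab L G Z)
    (hW : ∀ w ∈ s.P, w ∈ L.W1) (supp : ∀ w ∈ s.P, s.lab w = i → w ∈ G) :
    ∃ lam : Q → ZMod 2, GLab L (gp s i) lam ∧ ∀ v ∈ Z, lam v = 0 :=
  has (gp s i) (fun w hw => hW w (mem_gp.1 hw).1)
    (fun w hw => supp w (mem_gp.1 hw).1 (mem_gp.1 hw).2) (gp_even s i)

/-- a point on a frozen empty path has the label of its vertex -/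
theorem side_first (h : GLab L (gp s i) lam) {w : W} (hw : w ∈ L.W1)
    (hno : ∀ q ∈ gp s i, q ∉ L.toSk.On1 (L.ed w)) :
    side L s i lam w = lam (L.en (L.ed w) false) ∧
      side L s i lam w = lam (L.en (L.ed w) true) := by
  classical
  have h0 : L.pre (gp s i) w = 0 := nW_empty fun q hq h' => hno q hq ⟨h'.1, h'.2.1⟩
  have h1 : nW (gp s i) (L.On1 (L.ed w)) = 0 := nW_empty fun q hq h' => hno q hq h'
  have h2 := h (L.ed w) (L.ed_dim w hw)
  rw [h1] at h2
  have h3 : side L s i lam w = lam (L.en (L.ed w) false) := by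
    show lam (L.en (L.ed w) false) + L.pre (gp s i) w = _
    rw [h0, add_zero]
  exact ⟨h3, h3.trans (CharTwo.add_eq_zero.1 h2)⟩

end Crest.Agent.R096.Sid_422
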