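import Crest.Agent.R096.Sec13_892
import Crest.Agent.R096.Sid1_422
import Crest.Agent.R096.Dinv4_106

/-!
# Row 96, DOORS-INV (helper106), part 6: `v_in` of `DoorInv` for the cut state

`v_in_of` : the points of the sheet `j` inside the barrier `m` (422's `side` = 1) are in every set
which contains the giant points and is closed under the chords not crossed in `k`.
-/

set_option autoImplicit false
set_option linter.unusedSectionVars false

namespace Crest.Agent.R096.Dinv_106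

open Crest.Agent.R096.St_147 Crest.Agent.R096.Seq_213 Crest.Agent.R096.Sec_892
  Crest.Agent.R096.SecW_892 Crest.Agent.R096.Cg_501 Crest.Agent.R096.Sgd_298
  Crest.Agent.R096.Lm_117 Crest.Agent.R096.Ac_117 Crest.Agent.R096.Gl_422
  Crest.Agent.R096.Sid_422

variable {ι Φ W J C Mo K Qc : Type} [PartialOrder Qc] {dim : Qc → ℕ} {M : MeshC ι Φ W}
  {fam : J → C} {am : Mo → C} {L : LM M Qc dim}
  {s : GSt M (Sum.map fam (id : Mo → Mo))} {hs : BSep s am}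
  {hm : ∀ a, {m | am m = a}.Finite} {j0 : C → J} {hj0 : ∀ a, fam (j0 a) = a}
  {Act : C → Set ι} {far : ∀ a, PN fam am a → Set W} {t : ∀ a, St M (pcol fam am a)}
  {Ph : C → Finset W} {s₃ : GSt M fam}

/-- barrier points are not changed by the cut -/
theorem bar_at (D : CutR s hs hm j0 hj0 Act far t Ph s₃) {a : C} {m : Mo} (hma : am m = a)
    {F : Φ} {x : W} : ((t a).At F x ∧ (t a).lab x = ⟨Sum.inr m, hma⟩) ↔
      (s.At F x ∧ s.lab x = Sum.inr m) := by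
  constructor
  · rintro ⟨h1, h2⟩
    have h3 : HP (t a) x := ⟨h1.1, by rw [h2]; rfl⟩
    have h4 := ((D.cl2 a).cle.hp x).1 h3
    have h5 := (D.cl2 a).lab x h1.1 h4.1
    obtain ⟨h6, h7⟩ := mem_pr.1 h4.1
    exact ⟨⟨h6, h1.2⟩, (pr_lab_iff h7).1 (h5.symm.trans h2)⟩
  · rintro ⟨h1, h2⟩
    have h3 : HP (prS s hs hm j0 hj0 a) x := pr_hp.2 ⟨h1.1, m, hma, h2⟩
    have h4 := ((D.cl2 a).cle.hp x).2 h3
    have h5 := (D.cl2 a).lab x h4.1 h3.1
    refine ⟨⟨h4.1, h1.2⟩, h5.trans ((pr_lab_iff (mem_pr.1 h3.1).2).2 h2)⟩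

theorem bar_mu (D : CutR s hs hm j0 hj0 Act far t Ph s₃) {a : C} {m : Mo} (hma : am m = a)
    {F : Φ} {x : W} (hx : s.At F x) (hl : s.lab x = Sum.inr m) : (t a).mu F x = s.mu F x :=
  (D.cl2 a).cle.hmu x F (pr_hp.2 ⟨hx.1, m, hma, hl⟩)

/-- **the points inside the barrier** -/
theorem v_in_of (D : CutR s hs hm j0 hj0 Act far t Ph s₃) {Qd : Quads ι C K} {j : J} {m : Mo}
    {k : K} (hma : am m = fam j) (A : (t (fam j)).Arcs (Act (fam j))) {lam : Qc → ZMod 2}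
    (hlab : GLab L (gp s (Sum.inr m)) lam) {b : W} (hb : b ∈ s₃.P) (hbl : s₃.lab b = j)
    (hb0 : side L s (Sum.inr m) lam b ≠ 1) (Near : ι → Prop)
    (hN1 : ∀ F x q, s.At F x → s.lab x = Sum.inr m → q ∈ M.side F → Near q)
    (hN2 : ∀ F w, s₃.At F w → s₃.lab w = j → side L s (Sum.inr m) lam w = 1 →
      ∃ q ∈ M.side F, Near q)
    (hKF : ∀ F w q, q ∈ M.side F → Near q → s₃.At F w → s₃.lab w = j → KFree s₃ Qd k F w)
    {X : Set W} (hX : KCl s₃ Qd j k X)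
    (hgi : ∀ F w x, St.Frozen M (Act (fam j)) F → s₃.At F w → s₃.lab w = j → s.At F x →
      s.lab x = Sum.inr m → w ∈ X)
    {w : W} (hw : w ∈ s₃.P) (hl : s₃.lab w = j) (h1 : side L s (Sum.inr m) lam w = 1) :
    w ∈ X := by
  classical
  have hnb : ∀ {F w}, (t (fam j)).At F w → (t (fam j)).lab w = nL am j →
      w ∉ gp s (Sum.inr m) := by
    intro F w hA hwl hg
    obtain ⟨g1, g2⟩ := mem_gp.1 hg
    have h3 := ((bar_at D hma (F := F)).2 ⟨⟨g1, hA.2⟩, g2⟩).2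
    rw [hwl] at h3
    have h4 : (Sum.inl j : J ⊕ Mo) = Sum.inr m := congrArg Subtype.val h3
    exact Sum.inl_ne_inr h4
  obtain ⟨hbP, hbl'⟩ := D.mem.1 ⟨hb, hbl⟩
  obtain ⟨hwP, hwl'⟩ := D.mem.1 ⟨hw, hl⟩
  refine moat_door A (D.noc _ A) (i := nL am j) (j := ⟨Sum.inr m, hma⟩) rfl rfl
    ((D.good _).conn _) (fun w => side L s (Sum.inr m) lam w = 1) ?_ ⟨b, hbP, hbl', hb0⟩
    {F | ∃ q ∈ M.side F, Near q} ?_ ?_ X ?_ ?_ hwP hwl' h1
  · -- the side is constant along the chords which are not crossed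
    intro F w hA hwl hno hw1
    have h2 := (t (fam j)).mu_mem hA.1 hA.2
    have h3 := (t (fam j)).mu_lab hA.1 hA.2
    have e := side_add hlab hA.2 h2.2 (hnb hA hwl) (hnb h2 (h3.trans hwl))
    have h0 : sepF s (Sum.inr m) F w ((t (fam j)).mu F w) = ∅ := by
      rw [Finset.eq_empty_iff_forall_notMem]
      intro q hq
      obtain ⟨a1, a2, a3, a4⟩ := Finset.mem_filter.1 hq
      obtain ⟨a5, a6⟩ := mem_gp.1 a1
      obtain ⟨b1, b2⟩ := (bar_at D hma).2 ⟨⟨a5, a2⟩, a6⟩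
      refine hno q b1 b2 ?_
      rw [bar_mu D hma ⟨a5, a2⟩ a6]
      exact fun hiff => a4 (hiff.1 a3)
    rw [h0, Finset.card_empty, Nat.cast_zero] at e
    have e' := CharTwo.add_eq_zero.1 e
    show side L s (Sum.inr m) lam ((t (fam j)).mu F w) = 1
    rw [← e']; exact hw1
  · intro z hz q F hq hqF
    obtain ⟨c1, c2⟩ := (bar_at D hma).1 ⟨z.at_ false, hz.2⟩
    exact ⟨q, hqF, hN1 _ _ q c1 c2 hq⟩
  · intro F w hA hwl hw1
    obtain ⟨c1, c2⟩ := D.at_iff.2 ⟨hA, hwl⟩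
    exact hN2 F w c1 c2 hw1
  · rintro F w ⟨q, hq, hn⟩ hwX hA hwl
    obtain ⟨c1, c2⟩ := D.at_iff.2 ⟨hA, hwl⟩
    rw [← D.mu' c1.1 c2]
    exact hX F w hwX c1 c2 (hKF F w q hq hn c1 c2)
  · intro z hz hF
    obtain ⟨c1, c2⟩ := (bar_at D hma).1 ⟨z.at_ false, hz.2⟩
    obtain ⟨c3, c4⟩ := D.at_iff.2 ⟨z.at_ true, hz.1⟩
    exact hgi _ _ _ hF c3 c4 c1 c2

end Crest.Agent.R096.Dinv_106
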