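import Crest.Agent.R096.Xp8_537
import Crest.Agent.R096.Pb1_715

/-!
# R096 (row 96), (R1) DUAL BALLS, part 1 (helper609)

`isBall_conic`: the general ball lemma.  A conic map `H : E → (ι → ℝ)` with nonnegative
coordinates which is invariant under a subspace `V` and recovers every vector modulo `V`
(`v - ∑ H v i • a i ∈ V`) realises `{c + ∑ H v i • a i | ∑ H v i ≤ 1}` as a PL ball of dimension
`finrank E - finrank V`, with boundary `∑ H v i = 1`.
-/

set_option autoImplicit false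
set_option linter.unusedSectionVars false
set_option linter.unusedVariables false
set_option linter.deprecated false

open Set Metric Module
open scoped Classical

namespace Crest.Agent.R096.Dl_609

open Ce_537

section Model

variable {E F : Type*} [NormedAddCommGroup E] [NormedSpace ℝ E]
  [NormedAddCommGroup F] [NormedSpace ℝ F]

/-- conic selections are PL on every set -/
theorem plOn_conic {H : E → F} {S : Finset (E →L[ℝ] F)} (hH : Str_696.Conic H S) (K : Set E) :
    PLOn H K := by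
  refine ⟨hH.cont.continuousOn,
    S.image (fun A : E →L[ℝ] F => (A : E →ₗ[ℝ] F).toAffineMap), fun x _ => ?_⟩
  obtain ⟨A, hA, e⟩ := hH.sel x
  exact ⟨_, Finset.mem_image_of_mem _ hA, e⟩

/-- a positive conic function on `Fin k → ℝ` is transported to the cube norm by a PL bijection -/
theorem exists_rescale_conic {k : ℕ} {P : (Fin k → ℝ) → ℝ} {S : Finset ((Fin k → ℝ) →L[ℝ] ℝ)}
    (hP : Str_696.Conic P S) (hpos : ∀ x, x ≠ 0 → 0 < P x) :
    ∃ f g : (Fin k → ℝ) → (Fin k → ℝ), (∀ K, PLOn f K) ∧ (∀ K, PLOn g K) ∧ (∀ x, g (f x) = x) ∧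
      (∀ x, f (g x) = x) ∧ ∀ x, P (f x) = ‖x‖ := by
  let M : Finset ((Fin k → ℝ) →L[ℝ] ℝ) :=
    insert 0 ((Finset.univ : Finset (Fin k × Bool)).image fun r =>
      (if r.2 then (1 : ℝ) else -1) • ContinuousLinearMap.proj (R := ℝ) (φ := fun _ : Fin k => ℝ) r.1)
  have hq : ∀ x : Fin k → ℝ, ∀ l ∈ M, l x ≤ ‖x‖ := by
    intro x l hl
    rcases Finset.mem_insert.1 hl with rfl | hl
    · simp
    · obtain ⟨⟨i, b⟩, -, rfl⟩ := Finset.mem_image.1 hl
      have h1 : |x i| ≤ ‖x‖ := by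
        rw [← Real.norm_eq_abs]; exact norm_le_pi_norm x i
      cases b
      · have : -x i ≤ |x i| := neg_le_abs _
        simpa using this.trans h1
      · have : x i ≤ |x i| := le_abs_self _
        simpa using this.trans h1
  have hq' : ∀ x : Fin k → ℝ, ∃ l ∈ M, ‖x‖ = l x := by
    intro x
    by_cases hx : x = 0
    · exact ⟨0, Finset.mem_insert_self _ _, by simp [hx]⟩
    · obtain ⟨i, hi⟩ := exists_coord hx
      refine ⟨(if decide (0 ≤ x i) then (1 : ℝ) else -1) •
        ContinuousLinearMap.proj (R := ℝ) (φ := fun _ : Fin k => ℝ) i,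
        Finset.mem_insert_of_mem (Finset.mem_image.2 ⟨(i, decide (0 ≤ x i)), Finset.mem_univ _,
          rfl⟩), ?_⟩
      rw [hi]
      by_cases h0 : 0 ≤ x i
      · simp [h0, abs_of_nonneg h0]
      · simp [h0, abs_of_neg (not_le.1 h0)]
  obtain ⟨V, hV, F, hF, -, hv, hsign⟩ := Fan_696.exists_Fan hP
    ((M ×ˢ M).image fun r => r.1 - r.2)
  have hlin1 : ∀ c ∈ F.T, ∃ L : (Fin k → ℝ) →L[ℝ] ℝ, ∀ x ∈ F.cone c, P x = L x := by
    intro c hc
    obtain ⟨A, -, hA⟩ := hF c hc
    exact ⟨A, fun x hx => hA hx.choose x hx.choose_spec⟩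
  have hlin2 : ∀ c ∈ F.T, ∃ L : (Fin k → ℝ) →L[ℝ] ℝ, ∀ x ∈ F.cone c, ‖x‖ = L x := by
    intro c hc
    have hNe : M.Nonempty := ⟨0, Finset.mem_insert_self _ _⟩
    obtain ⟨m, hm, hmm⟩ := Pb_715.exists_max F hNe (c := c) (fun l hl l' hl' =>
      hsign c hc (l - l') (Finset.mem_image.2 ⟨(l, l'), Finset.mem_product.2 ⟨hl, hl'⟩, rfl⟩))
    refine ⟨m, fun x hx => le_antisymm ?_ (hq x m hm)⟩
    obtain ⟨l, hl, e⟩ := hq' x
    rw [e]
    exact hmm l hl x hx
  exact Pb_715.exists_rescale F hv hlin1 hlin2 hpos (fun x hx => norm_pos_iff.2 hx)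

/-- **the general ball lemma** -/
theorem isBall_conic [FiniteDimensional ℝ E] {ι : Type*} [Fintype ι] (a : ι → E) (c : E)
    (V : Submodule ℝ E) {H : E → (ι → ℝ)} {S : Finset (E →L[ℝ] (ι → ℝ))}
    (hH : Str_696.Conic H S) (h0 : ∀ v i, 0 ≤ H v i)
    (hb : ∀ v, v - ∑ i, H v i • a i ∈ V) (hu : ∀ v, ∀ u ∈ V, H (v + u) = H v) :
    IsBall (finrank ℝ E - finrank ℝ V) {y | ∃ v, ∑ i, H v i ≤ 1 ∧ y = c + ∑ i, H v i • a i}
      {y | ∃ v, ∑ i, H v i = 1 ∧ y = c + ∑ i, H v i • a i} := by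
  obtain ⟨W, hVW⟩ := V.exists_isCompl
  have hk : finrank ℝ W = finrank ℝ E - finrank ℝ V := by
    have := Submodule.finrank_add_eq_of_isCompl hVW
    omega
  rw [← hk]
  set k := finrank ℝ W with hkdef
  let b : W ≃L[ℝ] (Fin k → ℝ) :=
    ((finBasis ℝ W).equivFun : W ≃ₗ[ℝ] (Fin k → ℝ)).toContinuousLinearEquiv
  let j : (Fin k → ℝ) →L[ℝ] E := W.subtypeL.comp b.symm.toContinuousLinearMap
  let pr : E →ₗ[ℝ] W := W.linearProjOfIsCompl V hVW.symm
  let π : E →L[ℝ] (Fin k → ℝ) := b.toContinuousLinearMap.comp (LinearMap.toContinuousLinearMap pr)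
  have hpr : ∀ w : W, pr (w : E) = w := fun w => Submodule.linearProjOfIsCompl_apply_left _ _
  have hπj : ∀ x, π (j x) = x := by
    intro x
    show b (pr ((b.symm x : W) : E)) = x
    rw [hpr, b.apply_symm_apply]
  have hπV : ∀ u ∈ V, π u = 0 := by
    intro u hu
    show b (pr u) = 0
    have : pr u = 0 := by
      have := Submodule.linearProjOfIsCompl_apply_right hVW.symm ⟨u, hu⟩
      exact this
    rw [this, map_zero]
  have hjπ : ∀ v, j (π v) - v ∈ V := by
    intro v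
    have h1 : ((b.symm (b (pr v)) : W) : E) = (pr v : E) := by rw [b.symm_apply_apply]
    have h2 : j (π v) = (pr v : E) := h1
    rw [h2]
    have h3 : pr ((pr v : E) - v) = 0 := by
      rw [map_sub, hpr, sub_self]
    exact (Submodule.linearProjOfIsCompl_apply_eq_zero_iff hVW.symm).1 h3
  -- the conic function
  let sm : (ι → ℝ) →L[ℝ] ℝ := ∑ i, ContinuousLinearMap.proj (R := ℝ) (φ := fun _ : ι => ℝ) i
  have hsm : ∀ x, sm x = ∑ i, x i := fun x => by simp [sm]
  let P : (Fin k → ℝ) → ℝ := fun x => ∑ i, H (j x) i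
  have hP : Str_696.Conic P (S.image fun A => (sm.comp A).comp j) := by
    refine ⟨?_, fun t v ht => ?_, fun v => ?_⟩
    · have h1 : P = fun x => sm (H (j x)) := by
        funext x; rw [hsm]
      rw [h1]
      exact sm.continuous.comp (hH.cont.comp j.continuous)
    · show ∑ i, H (j (t • v)) i = t • ∑ i, H (j v) i
      rw [map_smul, hH.homog t _ ht, Finset.smul_sum]
      rfl
    · obtain ⟨A, hA, e⟩ := hH.sel (j v)
      refine ⟨_, Finset.mem_image_of_mem _ hA, ?_⟩
      show ∑ i, H (j v) i = sm (A (j v))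
      rw [hsm, e]
  have hpos : ∀ x, x ≠ 0 → 0 < P x := by
    intro x hx
    refine lt_of_le_of_ne (Finset.sum_nonneg fun i _ => h0 _ i) fun h => hx ?_
    have h1 := (Finset.sum_eq_zero_iff_of_nonneg fun i _ => h0 (j x) i).1 h.symm
    have h2 : j x ∈ V := by
      have h3 := hb (j x)
      rw [Finset.sum_eq_zero fun i hi => by rw [h1 i hi, zero_smul], sub_zero] at h3
      exact h3
    rw [← hπj x, hπV _ h2]
  obtain ⟨f, g, hf, hg, hgf, hfg, hPf⟩ := exists_rescale_conic hP hpos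
  have hPg : ∀ x, ‖g x‖ = P x := fun x => by rw [← hPf, hfg]
  let Ψ : (Fin k → ℝ) → E := fun x => c + ∑ i, H (j x) i • a i
  have hΨ : ∀ K, PLOn Ψ K := by
    intro K
    let T : (ι → ℝ) →L[ℝ] E := ∑ i, (ContinuousLinearMap.proj (R := ℝ)
      (φ := fun _ : ι => ℝ) i).smulRight (a i)
    have hT : ∀ x, T x = ∑ i, x i • a i := fun x => by simp [T]
    have h1 : PLOn (fun x => H (j x)) K := by
      refine (plOn_conic hH univ).comp (plOn_affine (j : (Fin k → ℝ) →ₗ[ℝ] E).toAffineMap K) ?_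
      exact fun x _ => mem_univ _
    have h2 := h1
    have h3 : PLOn (fun x => T (H (j x)) + c) K := Bd_416.pl_add_const (Bd_416.pl_clm h1 T) c
    refine h3.congr fun x _ => ?_
    show c + ∑ i, H (j x) i • a i = T (H (j x)) + c
    rw [hT, add_comm]
  have hπΨ : ∀ x, π (Ψ x - c) = x := by
    intro x
    show π (c + ∑ i, H (j x) i • a i - c) = x
    rw [add_sub_cancel_left]
    have h1 := hπV _ (hb (j x))
    rw [map_sub, sub_eq_zero] at h1
    rw [← h1, hπj]
  have hHπ : ∀ v, H (j (π v)) = H v := by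
    intro v
    have := hu v _ (hjπ v)
    rwa [add_sub_cancel] at this
  have hπy : ∀ v, π (c + ∑ i, H v i • a i - c) = π v := by
    intro v
    rw [add_sub_cancel_left]
    have h1 := hπV _ (hb v)
    rw [map_sub, sub_eq_zero] at h1
    exact h1.symm
  have hΨπ : ∀ v, Ψ (π (c + ∑ i, H v i • a i - c)) = c + ∑ i, H v i • a i := by
    intro v
    rw [hπy]
    show c + ∑ i, H (j (π v)) i • a i = _
    rw [hHπ]
  have hPπ : ∀ v, P (π (c + ∑ i, H v i • a i - c)) = ∑ i, H v i := by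
    intro v
    rw [hπy]
    show ∑ i, H (j (π v)) i = _
    rw [hHπ]
  have hg' : ∀ K, PLOn (fun y => g (π (y - c))) K := by
    intro K
    have h1 : PLOn (fun y : E => π (y - c)) K :=
      Bd_416.pl_clm (Bd_416.pl_sub_const (plOn_id K) c) π
    exact (hg univ).comp h1 fun x _ => mem_univ _
  refine ⟨⟨fun x => Ψ (f x), fun y => g (π (y - c)), ?_, hg' _, ?_, ?_, ?_, ?_⟩, ?_⟩
  · exact (hΨ univ).comp (hf _) fun x _ => mem_univ _
  · intro x hx
    refine ⟨j (f x), ?_, rfl⟩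
    have h1 : P (f x) ≤ 1 := by
      rw [hPf]; simpa using hx
    exact h1
  · rintro y ⟨v, hv, rfl⟩
    rw [cube, mem_closedBall_zero_iff, hPg, hPπ]
    exact hv
  · intro x _
    show g (π (Ψ (f x) - c)) = x
    rw [hπΨ, hgf]
  · rintro y ⟨v, hv, rfl⟩
    show Ψ (f (g (π (c + ∑ i, H v i • a i - c)))) = _
    rw [hfg, hΨπ]
  · ext y
    constructor
    · rintro ⟨x, hx, rfl⟩
      refine ⟨j (f x), ?_, rfl⟩
      have h1 : P (f x) = 1 := by
        rw [hPf]; simpa using hx
      exact h1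
    · rintro ⟨v, hv, rfl⟩
      refine ⟨g (π (c + ∑ i, H v i • a i - c)), ?_, ?_⟩
      · rw [sph, mem_sphere_zero_iff_norm, hPg, hPπ]
        exact hv
      · show Ψ (f (g (π (c + ∑ i, H v i • a i - c)))) = _
        rw [hfg, hΨπ]

end Model

end Crest.Agent.R096.Dl_609
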