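import Crest.Agent.R096.Dl1_609

/-!
# R096 (row 96), (R1) DUAL BALLS, part 2 (helper609): the local structure of the barycentric
subdivision of a convex cell complex `CC Λ Q`, `Λ` open, at the points of an open simplex
-/

set_option autoImplicit false
set_option linter.unusedSectionVars false
set_option linter.unusedVariables false
set_option linter.deprecated false

open Set Metric Module Filter Topology
open scoped Classical

namespace Crest.Agent.R096.Dl_609

open Ce_537 Xp_537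

variable {E : Type*} [NormedAddCommGroup E] [NormedSpace ℝ E]
variable {Q : Type*}

section Lc

/-- linear combinations -/
noncomputable def lc (a : Q → E) : (Q →₀ ℝ) →ₗ[ℝ] E := Finsupp.linearCombination ℝ a

/-- the total mass -/
noncomputable def tot : (Q →₀ ℝ) →ₗ[ℝ] ℝ := Finsupp.linearCombination ℝ (fun _ : Q => (1 : ℝ))

lemma tot_eq (l : Q →₀ ℝ) : tot l = ∑ ρ ∈ l.support, l ρ := by
  simp [tot, Finsupp.linearCombination_apply, Finsupp.sum]

@[simp] lemma lc_single (a : Q → E) (q : Q) (s : ℝ) : lc a (Finsupp.single q s) = s • a q := by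
  simp [lc]

@[simp] lemma tot_single (q : Q) (s : ℝ) : tot (Finsupp.single q s) = s := by
  simp [tot]

lemma lc_sub (b : Q → E) (x : E) (l : Q →₀ ℝ) :
    lc (fun ρ => b ρ - x) l = lc b l - tot l • x := by
  simp only [lc, tot, Finsupp.linearCombination_apply, Finsupp.sum, smul_sub,
    Finset.sum_sub_distrib, smul_eq_mul, mul_one, Finset.sum_smul]

lemma lc_mem {V : Submodule ℝ E} {a : Q → E} {l : Q →₀ ℝ} (h : ∀ ρ ∈ l.support, a ρ ∈ V) :
    lc a l ∈ V := by
  rw [lc, Finsupp.linearCombination_apply]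
  exact Submodule.sum_mem _ fun ρ hρ => V.smul_mem _ (h ρ hρ)

lemma lc_erase {a : Q → E} {q : Q} (h : a q = 0) (l : Q →₀ ℝ) : lc a (l.erase q) = lc a l := by
  have h1 : l = l.erase q + Finsupp.single q (l q) := (Finsupp.erase_add_single q l).symm
  conv_rhs => rw [h1, map_add, lc_single, h, smul_zero, add_zero]

end Lc

variable [PartialOrder Q] {Λ : Set E} (C : CC Λ Q)

lemma lc_eq_bs (b : Q → E) (l : Q →₀ ℝ) : lc b l = bs b l := by
  simp [lc, Finsupp.linearCombination_apply, Finsupp.sum, bs]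

lemma tot_wt {l : Q →₀ ℝ} (h : Wt l) : tot l = 1 := by rw [tot_eq, h.sum]

/-- the open cell absorbs convex combinations -/
theorem opn_combo {σ : Q} {y z : E} (hy : y ∈ C.cell σ) (ho : ∀ p < σ, y ∉ C.cell p)
    (hz : z ∈ C.cell σ) {c : ℝ} (hc0 : 0 < c) (hc1 : c ≤ 1) {p : Q} (hp : p < σ) :
    c • y + (1 - c) • z ∉ C.cell p := by
  -- representation of `y`
  obtain ⟨y', hy', w, hw0, hw1, rfl⟩ : ∃ y' ∈ C.cell σ, ∃ w : ℝ, 0 < w ∧ w ≤ 1 ∧
      y = (1 - w) • y' + w • C.b σ := by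
    rcases C.rad σ y hy with rfl | ⟨r, hr, y', hy', w, hw, rfl⟩
    · exact ⟨C.b σ, C.bmem σ, 1, one_pos, le_rfl, by simp⟩
    · refine ⟨y', C.mono hr hy', w, ?_, hw.2.le, rfl⟩
      rcases hw.1.eq_or_lt with h0 | h0
      · exfalso
        apply ho r hr
        rw [← h0]; simpa using hy'
      · exact h0
  have hcw0 : 0 < c * w := mul_pos hc0 hw0
  have hcw1 : c * w ≤ 1 := by nlinarith
  intro hmem
  -- total representation
  have key : ∀ (W : ℝ) (r : Q) (y'' : E), r < σ → y'' ∈ C.cell r → 0 < W → W < 1 →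
      c • ((1 - w) • y' + w • C.b σ) + (1 - c) • z = (1 - W) • y'' + W • C.b σ → False := by
    intro W r y'' hr hy'' h0 h1 he
    have h2 : (1 - 0 : ℝ) • (c • ((1 - w) • y' + w • C.b σ) + (1 - c) • z) + (0 : ℝ) • C.b σ =
        (1 - W) • y'' + W • C.b σ := by
      rw [he]; module
    have h3 := (C.rad_uniq hp hr hmem hy'' (by simp) ⟨h0.le, h1⟩ h2).2
    linarith
  have keyb : c • ((1 - w) • y' + w • C.b σ) + (1 - c) • z = C.b σ → False := by
    intro he
    rw [he] at hmem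
    exact C.b_notMem hp hmem
  rcases hcw1.eq_or_lt with h1 | h1
  · -- `c w = 1`
    have hc : c = 1 := by nlinarith
    have hw : w = 1 := by nlinarith
    apply keyb
    rw [hc, hw]; simp
  · have hpos : 0 < 1 - c * w := by linarith
    set z' : E := (c * (1 - w) / (1 - c * w)) • y' + ((1 - c) / (1 - c * w)) • z with hz'
    have hz'm : z' ∈ C.cell σ := by
      refine C.conv σ hy' hz (div_nonneg (mul_nonneg hc0.le (by linarith)) hpos.le)
        (div_nonneg (by linarith) hpos.le) ?_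
      rw [← add_div, div_eq_one_iff_eq hpos.ne']
      ring
    have he : c • ((1 - w) • y' + w • C.b σ) + (1 - c) • z =
        (1 - c * w) • z' + (c * w) • C.b σ := by
      have e1 : (1 - c * w) • z' = (c * (1 - w)) • y' + (1 - c) • z := by
        rw [hz', smul_add, smul_smul, smul_smul, mul_div_cancel₀ _ hpos.ne',
          mul_div_cancel₀ _ hpos.ne']
      rw [e1]
      module
    rcases C.rad σ z' hz'm with h2 | ⟨r, hr, y'', hy'', w'', hw'', h2⟩
    · apply keyb
      rw [he, h2, ← add_smul]; simp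
    · refine key (1 - (1 - c * w) * (1 - w'')) r y'' hr hy'' ?_ ?_ ?_
      · nlinarith [hw''.1, hw''.2]
      · have : 0 < (1 - c * w) * (1 - w'') := mul_pos hpos (by linarith [hw''.2])
        linarith
      · rw [he, h2]
        module

include C in
/-- finitely many cells above `q` -/
lemma finite_ge (q : Q) : {ρ | q ≤ ρ}.Finite := by
  obtain ⟨r, hr, hf⟩ := C.lf (C.b q) (C.sub q (C.bmem q))
  exact hf.subset fun ρ hρ => ⟨C.b q, C.mono_le hρ (C.bmem q), mem_ball_self hr⟩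

lemma wt_mem_top {l : Q →₀ ℝ} (h : Wt l) {σ : Q} (hσ : σ ∈ l.support)
    (hm : ∀ ρ ∈ l.support, ρ ≤ σ) :
    bs C.b l ∈ C.cell σ ∧ ∀ p < σ, bs C.b l ∉ C.cell p := by
  obtain ⟨t, hst⟩ := h.st C hm
  obtain ⟨y, hy, hyo, he⟩ := bs_img C σ one_pos hst hσ
  rw [one_smul] at he
  rw [he]
  exact ⟨hy, hyo⟩

lemma wt_mem {l : Q →₀ ℝ} (h : Wt l) : bs C.b l ∈ Λ := by
  obtain ⟨σ, hσ, hm⟩ := h.exists_max
  exact C.sub σ (wt_mem_top C h hσ hm).1

lemma spec_of_mem {y : E} (hy : y ∈ Λ) : Wt (bc C y) ∧ bs C.b (bc C y) = y := by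
  obtain ⟨q, hq⟩ := C.cover y hy
  exact ⟨(bc_spec C hq).1, (bc_spec C hq).2.1⟩

section Loc

variable [FiniteDimensional ℝ E]

lemma locPL_bc (hΛ : IsOpen Λ) (ρ : Q) : LocPL (fun y => bc C y ρ) Λ :=
  Expl.locPL_of_pieces hΛ (fun i => (C.cpt i).isClosed) C.cover C.lf (fun i => plOn_bc C i ρ)

/-- near an open simplex all its vertices have positive weight -/
lemma near (hΛ : IsOpen Λ) {l0 : Q →₀ ℝ} (h0 : Wt l0) :
    ∃ r > 0, ∀ v : E, ‖v‖ < r → bs C.b l0 + v ∈ Λ ∧ ∀ c ∈ l0.support,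
      0 < bc C (bs C.b l0 + v) c := by
  have h1 : ∀ᶠ y in 𝓝 (bs C.b l0), y ∈ Λ := hΛ.mem_nhds (wt_mem C h0)
  have h2 : ∀ᶠ y in 𝓝 (bs C.b l0), ∀ c ∈ l0.support, 0 < bc C y c := by
    rw [Filter.eventually_all_finset]
    intro c hc
    have hcont : ContinuousAt (fun y => bc C y c) (bs C.b l0) :=
      ((locPL_continuousOn (locPL_bc C hΛ c)) _ (wt_mem C h0)).continuousAt
        (hΛ.mem_nhds (wt_mem C h0))
    have hv : 0 < bc C (bs C.b l0) c := by
      rw [bc_bs C h0]
      exact lt_of_le_of_ne (h0.nn c) (Ne.symm (Finsupp.mem_support_iff.1 hc))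
    exact hcont.eventually_const_lt hv
  obtain ⟨r, hr, hball⟩ := Metric.eventually_nhds_iff_ball.1 (h1.and h2)
  refine ⟨r, hr, fun v hv => ?_⟩
  have hm : bs C.b l0 + v ∈ ball (bs C.b l0) r := by
    rw [mem_ball_iff_norm, add_sub_cancel_left]; exact hv
  exact hball _ hm

/-- the direction space of a cell -/
def V0 (q : Q) : Submodule ℝ E := Submodule.span ℝ ((fun x => x - C.b q) '' C.cell q)

lemma sub_mem_V0 {q : Q} {x : E} (hx : x ∈ C.cell q) : x - C.b q ∈ V0 C q :=
  Submodule.subset_span ⟨x, hx, rfl⟩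

/-- the barycentre is a relative interior point -/
theorem small_mem (hΛ : IsOpen Λ) {q : Q} {u : E} (hu : u ∈ V0 C q) :
    ∀ᶠ t in 𝓝 (0 : ℝ), C.b q + t • u ∈ C.cell q := by
  have hb : bs C.b (Finsupp.single q (1 : ℝ)) = C.b q := by rw [bs_single _ one_pos, one_smul]
  induction hu using Submodule.span_induction with
  | mem x hx =>
    obtain ⟨x, hx, rfl⟩ := hx
    obtain ⟨r, hr, hnear⟩ := near C hΛ (Expl.wt_single q)
    have h1 : Tendsto (fun t : ℝ => t • (x - C.b q)) (𝓝 0) (𝓝 ((0 : ℝ) • (x - C.b q))) :=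
      (continuous_id.smul continuous_const).continuousAt
    rw [zero_smul] at h1
    have h2 : ∀ᶠ t in 𝓝 (0 : ℝ), ‖t • (x - C.b q)‖ < r := by
      have := h1.norm
      rw [norm_zero] at this
      exact this.eventually_lt_const hr
    have h3 : ∀ᶠ t in 𝓝 (0 : ℝ), t < 1 := eventually_lt_nhds one_pos
    filter_upwards [h2, h3] with t ht ht1
    rcases le_or_gt 0 t with h0 | h0
    · have : C.b q + t • (x - C.b q) = (1 - t) • C.b q + t • x := by module
      rw [this]
      exact C.conv q (C.bmem q) hx (by linarith) h0 (by ring)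
    · obtain ⟨hm, hpos⟩ := hnear _ ht
      rw [hb] at hm hpos
      have hq := hpos q (by simp)
      obtain ⟨hw, he⟩ := spec_of_mem C hm
      obtain ⟨σ, hσ, hmax⟩ := hw.exists_max
      obtain ⟨h4, h5⟩ := wt_mem_top C hw hσ hmax
      rw [he] at h4 h5
      have hqσ : q ≤ σ := hmax q (Finsupp.mem_support_iff.2 hq.ne')
      rcases hqσ.eq_or_lt with rfl | hlt
      · exact h4
      · exfalso
        have h6 : 0 < 1 - t := by linarith
        refine opn_combo C h4 h5 (C.mono hlt hx) (c := (1 - t)⁻¹) (by positivity)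
          (inv_le_one_of_one_le₀ (by linarith)) hlt ?_
        have h7 : (1 - t)⁻¹ • (C.b q + t • (x - C.b q)) + (1 - (1 - t)⁻¹) • x = C.b q := by
          have e1 : (1 - (1 - t)⁻¹) = (1 - t)⁻¹ * (-t) := by field_simp; ring
          have e2 : C.b q + t • (x - C.b q) = (1 - t) • C.b q + t • x := by module
          rw [e1, e2, smul_add, smul_smul, inv_mul_cancel₀ h6.ne', one_smul]
          module
        rw [h7]
        exact C.bmem q
  | zero =>
    refine Eventually.of_forall fun t => ?_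
    rw [smul_zero, add_zero]
    exact C.bmem q
  | add u u' _ _ hu hu' =>
    have h2 : Tendsto (fun t : ℝ => 2 * t) (𝓝 0) (𝓝 0) := by
      have : Tendsto (fun t : ℝ => 2 * t) (𝓝 0) (𝓝 (2 * 0)) :=
        (continuous_const.mul continuous_id).continuousAt
      simpa using this
    filter_upwards [h2.eventually hu, h2.eventually hu'] with t h h'
    have : C.b q + t • (u + u') = (1 / 2 : ℝ) • (C.b q + (2 * t) • u) +
        (1 / 2 : ℝ) • (C.b q + (2 * t) • u') := by module
    rw [this]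
    exact C.conv q h h' (by norm_num) (by norm_num) (by norm_num)
  | smul a u _ hu =>
    have h2 : Tendsto (fun t : ℝ => t * a) (𝓝 0) (𝓝 0) := by
      have : Tendsto (fun t : ℝ => t * a) (𝓝 0) (𝓝 (0 * a)) :=
        (continuous_id.mul continuous_const).continuousAt
      simpa using this
    filter_upwards [h2.eventually hu] with t h
    rwa [smul_smul]

end Loc

/-- a base simplex with minimal vertex `q` -/
structure Base (l0 : Q →₀ ℝ) (q : Q) : Prop where
  wt : Wt l0
  mem : q ∈ l0.support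
  min : ∀ c ∈ l0.support, q ≤ c

/-- the upper link of the base simplex -/
def lk (l0 : Q →₀ ℝ) (q : Q) : Set Q :=
  {ρ | q < ρ ∧ ρ ∉ l0.support ∧ ∀ c ∈ l0.support, ρ ≤ c ∨ c ≤ ρ}

/-- conic chain weights on the link -/
structure Rc (l0 : Q →₀ ℝ) (q : Q) (μ : Q →₀ ℝ) : Prop where
  nn : ∀ ρ, 0 ≤ μ ρ
  chain : ∀ ρ ∈ μ.support, ∀ σ ∈ μ.support, ρ ≤ σ ∨ σ ≤ ρ
  lk : ∀ ρ ∈ μ.support, ρ ∈ lk l0 q

/-- the direction space of the base simplex and of its minimal cell -/
def V (l0 : Q →₀ ℝ) (q : Q) : Submodule ℝ E :=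
  V0 C q ⊔ Submodule.span ℝ ((fun c => C.b c - C.b q) '' (l0.support : Set Q))

/-- direction vectors -/
noncomputable def dv (q : Q) : (Q →₀ ℝ) →ₗ[ℝ] E := lc (fun ρ => C.b ρ - C.b q)

lemma dv_eq (q : Q) (l : Q →₀ ℝ) : dv C q l = lc C.b l - tot l • C.b q := lc_sub _ _ _

lemma dv_erase (q : Q) (l : Q →₀ ℝ) : dv C q (l.erase q) = dv C q l := lc_erase (by simp) l

section Loc

variable [FiniteDimensional ℝ E]

/-- **the chain coordinates of `u + ∑ μ (b ρ - b q)`, near the base point** -/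
theorem bc_line (hΛ : IsOpen Λ) {l0 : Q →₀ ℝ} {q : Q} (hB : Base l0 q) {μ : Q →₀ ℝ}
    (hμ : Rc l0 q μ) {u : E} (hu : u ∈ V C l0 q) :
    ∀ᶠ t in 𝓝[>] (0 : ℝ), ∀ ρ ∈ lk l0 q, bc C (bs C.b l0 + t • (u + dv C q μ)) ρ = t * μ ρ := by
  obtain ⟨u0, hu0, w, hw, rfl⟩ := Submodule.mem_sup.1 hu
  obtain ⟨s1, hs1, rfl⟩ := (Finsupp.mem_span_image_iff_linearCombination ℝ).1 hw
  -- remove the `q`-part
  set s := s1.erase q with hs
  have hs1' : ∀ ρ ∈ s1.support, ρ ∈ l0.support := fun ρ hρ => by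
    have := (Finsupp.mem_supported ℝ s1).1 hs1 hρ
    exact this
  have hss : ∀ ρ ∈ s.support, ρ ∈ l0.support ∧ ρ ≠ q := by
    intro ρ hρ
    rw [hs, Finsupp.support_erase] at hρ
    exact ⟨hs1' ρ (Finset.mem_of_mem_erase hρ), Finset.ne_of_mem_erase hρ⟩
  have hsq : s q = 0 := by rw [hs]; simp
  have hw' : (Finsupp.linearCombination ℝ fun c => C.b c - C.b q) s1 = dv C q s := by
    rw [hs, dv_erase]; rfl
  rw [hw']
  clear_value s
  have hlq : 0 < l0 q := lt_of_le_of_ne (hB.wt.nn q) (Ne.symm (Finsupp.mem_support_iff.1 hB.mem))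
  -- small parameters
  set A : ℝ → ℝ := fun t => l0 q - t * (tot s + tot μ) with hA
  have hAc : Continuous A := continuous_const.sub (continuous_id.mul continuous_const)
  have hA0 : A 0 = l0 q := by simp [hA]
  have e1 : ∀ᶠ t in 𝓝 (0 : ℝ), 0 < A t := by
    have := hAc.continuousAt (x := (0 : ℝ))
    exact this.eventually_const_lt (by rw [hA0]; exact hlq)
  have e2 : ∀ᶠ t in 𝓝 (0 : ℝ), ∀ ρ ∈ l0.support, 0 < l0 ρ + t * s ρ := by
    rw [Filter.eventually_all_finset]
    intro ρ hρ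
    have h1 : ContinuousAt (fun t : ℝ => l0 ρ + t * s ρ) 0 :=
      (continuous_const.add (continuous_id.mul continuous_const)).continuousAt
    refine h1.eventually_const_lt ?_
    show 0 < l0 ρ + 0 * s ρ
    rw [zero_mul, add_zero]
    exact lt_of_le_of_ne (hB.wt.nn ρ) (Ne.symm (Finsupp.mem_support_iff.1 hρ))
  have e3 : ∀ᶠ t in 𝓝 (0 : ℝ), C.b q + (t / A t) • u0 ∈ C.cell q := by
    have h1 : ContinuousAt (fun t : ℝ => t / A t) 0 :=
      continuousAt_id.div hAc.continuousAt (by rw [hA0]; exact hlq.ne')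
    have h2 : Tendsto (fun t : ℝ => t / A t) (𝓝 0) (𝓝 0) := by
      have := h1.tendsto
      simpa using this
    exact h2.eventually (small_mem C hΛ hu0)
  filter_upwards [nhdsWithin_le_nhds e1, nhdsWithin_le_nhds e2, nhdsWithin_le_nhds e3,
    self_mem_nhdsWithin] with t hAt h2 hx ht ρ hρ
  have ht0 : 0 < t := ht
  set x : E := C.b q + (t / A t) • u0 with hxdef
  obtain ⟨k1, k2, k3⟩ := bc_spec C hx
  set k := bc C x with hk
  clear_value k
  set l : Q →₀ ℝ := A t • k + (l0.erase q + t • s) + t • μ with hl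
  have hlv : ∀ σ, l σ = A t * k σ + ((l0.erase q) σ + t * s σ) + t * μ σ := fun σ => by
    simp [hl]
  have hmid0 : ∀ σ, 0 ≤ (l0.erase q) σ + t * s σ := by
    intro σ
    by_cases h : σ = q
    · subst h; simp [hsq]
    · rw [Finsupp.erase_ne h]
      by_cases h' : σ ∈ l0.support
      · exact (h2 σ h').le
      · have h3 : l0 σ = 0 := Finsupp.notMem_support_iff.1 h'
        have h4 : s σ = 0 := Finsupp.notMem_support_iff.1 fun h'' => h' (hss σ h'').1
        rw [h3, h4]; simp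
  have hsupp : ∀ σ ∈ l.support, σ ∈ k.support ∨ (σ ∈ l0.support ∧ σ ≠ q) ∨ σ ∈ μ.support := by
    intro σ hσ
    by_contra hcon
    push Not at hcon
    obtain ⟨c1, c2, c3⟩ := hcon
    apply Finsupp.mem_support_iff.1 hσ
    rw [hlv, Finsupp.notMem_support_iff.1 c1, Finsupp.notMem_support_iff.1 c3]
    have c4 : (l0.erase q) σ + t * s σ = 0 := by
      by_cases h : σ = q
      · subst h; simp [hsq]
      · have h' : σ ∉ l0.support := fun h' => h (c2 h')
        have h4 : s σ = 0 := Finsupp.notMem_support_iff.1 fun h'' => h' (hss σ h'').1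
        rw [Finsupp.erase_ne h, Finsupp.notMem_support_iff.1 h', h4]; simp
    rw [c4]; simp
  have hwt : Wt l := by
    refine ⟨fun σ => ?_, ?_, ?_⟩
    · rw [hlv]
      have h3 := mul_nonneg hAt.le (k1.nn σ)
      have h4 := mul_nonneg ht0.le (hμ.nn σ)
      linarith [hmid0 σ]
    · rw [← tot_eq]
      have h3 : tot (l0.erase q) = 1 - l0 q := by
        have h5 : tot l0 = tot (l0.erase q) + l0 q := by
          conv_lhs => rw [← Finsupp.erase_add_single q l0, map_add, tot_single]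
        rw [tot_wt hB.wt] at h5
        linarith
      rw [hl, map_add, map_add, map_add, map_smul, map_smul, map_smul, h3, tot_wt k1]
      simp only [smul_eq_mul, hA]
      ring
    · intro σ hσ τ hτ
      rcases hsupp σ hσ with a | ⟨a, a'⟩ | a <;> rcases hsupp τ hτ with b | ⟨b, b'⟩ | b
      · exact k1.chain σ a τ b
      · exact Or.inl ((k3 σ a).trans (hB.min τ b))
      · exact Or.inl ((k3 σ a).trans (hμ.lk τ b).1.le)
      · exact Or.inr ((k3 τ b).trans (hB.min σ a))
      · exact hB.wt.chain σ a τ b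
      · exact ((hμ.lk τ b).2.2 σ a).symm
      · exact Or.inr ((k3 τ b).trans (hμ.lk σ a).1.le)
      · exact (hμ.lk σ a).2.2 τ b
      · exact hμ.chain σ a τ b
  have hbs : bs C.b l = bs C.b l0 + t • (u0 + dv C q s + dv C q μ) := by
    rw [← lc_eq_bs, ← lc_eq_bs, hl, map_add, map_add, map_add, map_smul, map_smul, map_smul]
    have h3 : lc C.b k = x := by rw [lc_eq_bs]; exact k2
    have h4 : lc C.b l0 = lc C.b (l0.erase q) + l0 q • C.b q := by
      conv_lhs => rw [← Finsupp.erase_add_single q l0, map_add, lc_single]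
    have h5 : A t • x = A t • C.b q + t • u0 := by
      rw [hxdef, smul_add, smul_smul, mul_div_cancel₀ _ hAt.ne']
    rw [h3, h4, h5, dv_eq, dv_eq]
    have h6 : A t = l0 q - t * (tot s + tot μ) := rfl
    rw [h6]
    module
  have hfin : bc C (bs C.b l0 + t • (u0 + dv C q s + dv C q μ)) ρ = l ρ := by
    rw [← hbs, bc_bs C hwt]
  rw [hfin, hlv]
  have h3 : k ρ = 0 := Finsupp.notMem_support_iff.1 fun h => absurd (k3 ρ h) (not_le_of_gt hρ.1)
  have h4 : (l0.erase q) ρ = 0 := by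
    rw [Finsupp.erase_ne hρ.1.ne']
    exact Finsupp.notMem_support_iff.1 hρ.2.1
  have h5 : s ρ = 0 := Finsupp.notMem_support_iff.1 fun h => hρ.2.1 (hss ρ h).1
  rw [h3, h4, h5]
  ring

/-- **decomposition of small vectors** -/
theorem bc_rep (hΛ : IsOpen Λ) {l0 : Q →₀ ℝ} {q : Q} (hB : Base l0 q) :
    ∃ r > 0, ∀ v : E, ‖v‖ < r →
      Rc l0 q ((bc C (bs C.b l0 + v)).filter (· ∈ lk l0 q)) ∧
      v - dv C q ((bc C (bs C.b l0 + v)).filter (· ∈ lk l0 q)) ∈ V C l0 q := by
  obtain ⟨r, hr, hnear⟩ := near C hΛ hB.wt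
  refine ⟨r, hr, fun v hv => ?_⟩
  obtain ⟨hm, hpos⟩ := hnear v hv
  obtain ⟨hw, he⟩ := spec_of_mem C hm
  set l := bc C (bs C.b l0 + v) with hl
  clear_value l
  have hcomp : ∀ ρ ∈ l.support, ∀ c ∈ l0.support, ρ ≤ c ∨ c ≤ ρ := fun ρ hρ c hc =>
    hw.chain ρ hρ c (Finsupp.mem_support_iff.2 (hpos c hc).ne')
  have hcase : ∀ ρ ∈ l.support, ρ ∈ l0.support ∨ ρ < q ∨ ρ ∈ lk l0 q := by
    intro ρ hρ
    by_cases h : ρ ∈ l0.support
    · exact Or.inl h
    · right
      rcases hcomp ρ hρ q hB.mem with h1 | h1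
      · left
        refine lt_of_le_of_ne h1 ?_
        rintro rfl
        exact h hB.mem
      · right
        refine ⟨lt_of_le_of_ne h1 ?_, h, hcomp ρ hρ⟩
        rintro rfl
        exact h hB.mem
  refine ⟨⟨fun ρ => ?_, fun ρ hρ σ hσ => ?_, fun ρ hρ => ?_⟩, ?_⟩
  · by_cases h : ρ ∈ lk l0 q
    · rw [Finsupp.filter_apply_pos _ _ h]; exact hw.nn ρ
    · rw [Finsupp.filter_apply_neg _ _ h]
  · rw [Finsupp.support_filter, Finset.mem_filter] at hρ hσ
    exact hw.chain ρ hρ.1 σ hσ.1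
  · rw [Finsupp.support_filter, Finset.mem_filter] at hρ
    exact hρ.2
  · have h1 : v = dv C q l - dv C q l0 := by
      rw [dv_eq, dv_eq, tot_wt hw, tot_wt hB.wt, lc_eq_bs, lc_eq_bs, he]
      abel
    have h2 : l = l.filter (· ∈ lk l0 q) + l.filter (fun ρ => ¬ ρ ∈ lk l0 q) :=
      (Finsupp.filter_pos_add_filter_neg l (· ∈ lk l0 q)).symm
    have h3 : v - dv C q (l.filter (· ∈ lk l0 q)) =
        dv C q (l.filter (fun ρ => ¬ ρ ∈ lk l0 q)) - dv C q l0 := by
      rw [h1]
      conv_lhs => rw [h2, map_add]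
      have h4 : (l.filter (· ∈ lk l0 q) + l.filter (fun ρ => ¬ ρ ∈ lk l0 q)).filter
          (· ∈ lk l0 q) = l.filter (· ∈ lk l0 q) := by rw [← h2]
      rw [h4]
      abel
    rw [h3]
    have h5 : ∀ c ∈ l0.support, C.b c - C.b q ∈ V C l0 q := fun c hc =>
      Submodule.mem_sup_right (Submodule.subset_span ⟨c, hc, rfl⟩)
    refine Submodule.sub_mem _ (lc_mem fun ρ hρ => ?_) (lc_mem h5)
    rw [Finsupp.support_filter, Finset.mem_filter] at hρ
    rcases hcase ρ hρ.1 with h | h | h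
    · exact h5 ρ h
    · exact Submodule.mem_sup_left (sub_mem_V0 C (C.mono h (C.bmem ρ)))
    · exact absurd h hρ.2

end Loc

end Crest.Agent.R096.Dl_609
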