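import Crest.Agent.R096.Dl2_609
import Crest.Agent.R096.Ar4_241

/-!
# R096 (row 96), (R1) DUAL BALLS, part 3 (helper609)

`isBall_Dd`: the dual ball of a base chain: the chain weights on `{q} ∪ (upper link)`.
-/

set_option autoImplicit false
set_option linter.unusedSectionVars false
set_option linter.unusedVariables false
set_option linter.deprecated false

open Set Metric Module Filter Topology
open scoped Classical

namespace Crest.Agent.R096.Dl_609

open Ce_537 Xp_537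

variable {E : Type*} [NormedAddCommGroup E] [NormedSpace ℝ E]
variable {Q : Type*}

lemma lc_sum {a : Q → E} {l : Q →₀ ℝ} {F : Finset Q} (h : l.support ⊆ F) :
    lc a l = ∑ i : F, l i • a i := by
  rw [lc, Finsupp.linearCombination_apply, Finsupp.sum_of_support_subset _ h _ (by simp),
    ← Finset.sum_coe_sort]

lemma tot_sum {l : Q →₀ ℝ} {F : Finset Q} (h : l.support ⊆ F) : tot l = ∑ i : F, l i := by
  rw [tot, Finsupp.linearCombination_apply, Finsupp.sum_of_support_subset _ h _ (by simp),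
    ← Finset.sum_coe_sort]
  simp

variable [PartialOrder Q] {Λ : Set E} (C : CC Λ Q)

lemma lc_toF {a : Q → E} {F : Finset Q} (x : F → ℝ) : lc a (toF F x) = ∑ i : F, x i • a i := by
  rw [lc_sum (toF_supp x)]
  exact Finset.sum_congr rfl fun i _ => by rw [toF_apply]

lemma tot_toF {F : Finset Q} (x : F → ℝ) : tot (toF F x) = ∑ i : F, x i := by
  rw [tot_sum (toF_supp x)]
  exact Finset.sum_congr rfl fun i _ => by rw [toF_apply]

section Loc

variable [FiniteDimensional ℝ E]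

lemma smul_small (v : E) {r : ℝ} (hr : 0 < r) : ∀ᶠ t in 𝓝[>] (0 : ℝ), ‖t • v‖ < r := by
  have h1 : Tendsto (fun t : ℝ => ‖t • v‖) (𝓝 0) (𝓝 ‖(0 : ℝ) • v‖) :=
    (continuous_id.smul continuous_const).norm.continuousAt
  rw [zero_smul, norm_zero] at h1
  exact nhdsWithin_le_nhds (h1.eventually_lt_const hr)

/-- **local structure at a base chain** -/
theorem loc (hΛ : IsOpen Λ) {l0 : Q →₀ ℝ} {q : Q} (hB : Base l0 q) :
    ∃ (LK : Finset Q) (S : Finset (E →L[ℝ] (LK → ℝ))) (H : E → (LK → ℝ)),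
      (∀ ρ, ρ ∈ LK ↔ ρ ∈ lk l0 q) ∧ Str_696.Conic H S ∧ (∀ v i, 0 ≤ H v i) ∧
      (∀ v (i j : LK), H v i ≠ 0 → H v j ≠ 0 → (i : Q) ≤ j ∨ (j : Q) ≤ i) ∧
      (∀ v, v - ∑ i, H v i • (C.b i - C.b q) ∈ V C l0 q) ∧
      (∀ μ, Rc l0 q μ → ∀ u ∈ V C l0 q, ∀ i : LK, H (u + dv C q μ) i = μ i) := by
  have hfin : (lk l0 q).Finite := (finite_ge C q).subset fun ρ hρ => hρ.1.le
  set LK : Finset Q := hfin.toFinset with hLKdef
  have hLK : ∀ ρ, ρ ∈ LK ↔ ρ ∈ lk l0 q := fun ρ => hfin.mem_toFinset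
  have hloc : LocPL (fun y => (fun i : LK => bc C y i)) Λ :=
    Expl.locPL_of_pieces hΛ (fun i => (C.cpt i).isClosed) C.cover C.lf
      (fun i => Bd_416.pl_pi fun j => plOn_bc C i j)
  set x := bs C.b l0 with hx
  obtain ⟨r1, S, H, hr1, hH, hHl⟩ := Str_696.LocPL.conic (locPL_iff.1 hloc) (wt_mem C hB.wt)
  obtain ⟨r2, hr2, hrep⟩ := bc_rep C hΛ hB
  have hx0 : ∀ i : LK, bc C x i = 0 := fun i => by
    rw [hx, bc_bs C hB.wt]
    exact Finsupp.notMem_support_iff.1 ((hLK i).1 i.2).2.1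
  have hHt : ∀ v, ∀ᶠ t in 𝓝[>] (0 : ℝ), 0 < t ∧ ‖t • v‖ < r2 ∧
      ∀ i : LK, bc C (x + t • v) i = t * H v i := by
    intro v
    filter_upwards [smul_small v hr1, smul_small v hr2, self_mem_nhdsWithin] with t h1 h2 h3
    refine ⟨h3, h2, fun i => ?_⟩
    have h4 := congrFun (hHl (t • v) h1) i
    have h5 : bc C (x + t • v) i = bc C x i + H (t • v) i := h4
    rw [h5, hx0, hH.homog t v (le_of_lt h3)]
    simp
  have hfil : ∀ (l : Q →₀ ℝ) (i : LK), (l.filter (· ∈ lk l0 q)) i = l i := fun l i =>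
    Finsupp.filter_apply_pos _ _ ((hLK i).1 i.2)
  refine ⟨LK, S, H, hLK, hH, fun v i => ?_, fun v i j hi hj => ?_, fun v => ?_,
    fun μ hμ u hu i => ?_⟩
  · obtain ⟨t, h1, h2, h3⟩ := (hHt v).exists
    have h4 := (hrep _ h2).1.nn i
    rw [hfil, h3] at h4
    exact nonneg_of_mul_nonneg_right h4 h1
  · obtain ⟨t, h1, h2, h3⟩ := (hHt v).exists
    refine (hrep _ h2).1.chain i ?_ j ?_
    · rw [Finsupp.mem_support_iff, hfil, h3]
      exact mul_ne_zero h1.ne' hi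
    · rw [Finsupp.mem_support_iff, hfil, h3]
      exact mul_ne_zero h1.ne' hj
  · obtain ⟨t, h1, h2, h3⟩ := (hHt v).exists
    have h4 := (hrep _ h2).2
    set m := (bc C (x + t • v)).filter (· ∈ lk l0 q) with hm
    have hs : m.support ⊆ LK := fun ρ hρ => (hLK ρ).2 ((hrep _ h2).1.lk ρ hρ)
    have h5 : dv C q m = t • ∑ i : LK, H v i • (C.b i - C.b q) := by
      rw [dv, lc_sum hs, Finset.smul_sum]
      refine Finset.sum_congr rfl fun i _ => ?_
      rw [hm, hfil, h3, smul_smul]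
    rw [h5, ← smul_sub] at h4
    exact (Submodule.smul_mem_iff _ h1.ne').1 h4
  · obtain ⟨t, ⟨h1, h2, h3⟩, h4⟩ := ((hHt (u + dv C q μ)).and (bc_line C hΛ hB hμ hu)).exists
    have h5 := h4 i ((hLK i).1 i.2)
    rw [h3] at h5
    exact mul_left_cancel₀ h1.ne' h5

/-- the dual cell of a base chain -/
def Dd (l0 : Q →₀ ℝ) (q : Q) : Set E :=
  {y | ∃ l, Wt l ∧ (∀ ρ ∈ l.support, ρ = q ∨ ρ ∈ lk l0 q) ∧ bs C.b l = y}

/-- its boundary -/
def Ld (l0 : Q →₀ ℝ) (q : Q) : Set E :=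
  {y | ∃ l, Wt l ∧ (∀ ρ ∈ l.support, ρ ∈ lk l0 q) ∧ bs C.b l = y}

lemma q_notMem_lk {l0 : Q →₀ ℝ} {q : Q} : q ∉ lk l0 q := fun h => lt_irrefl _ h.1

/-- **the dual cell of a base chain is a ball** -/
theorem isBall_Dd (hΛ : IsOpen Λ) {l0 : Q →₀ ℝ} {q : Q} (hB : Base l0 q) :
    IsBall (finrank ℝ E - finrank ℝ (V C l0 q)) (Dd C l0 q) (Ld C l0 q) := by
  obtain ⟨LK, S, H, hLK, hH, h0, hch, hV, hU⟩ := loc C hΛ hB
  have hrc : ∀ v, Rc l0 q (toF LK (H v)) := by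
    intro v
    have hm : ∀ ρ ∈ (toF LK (H v)).support, ∃ h : ρ ∈ LK, toF LK (H v) ρ = H v ⟨ρ, h⟩ :=
      fun ρ hρ => ⟨toF_supp _ hρ, toF_apply _ ⟨ρ, toF_supp _ hρ⟩⟩
    refine ⟨fun ρ => ?_, fun ρ hρ σ hσ => ?_, fun ρ hρ => (hLK ρ).1 (toF_supp _ hρ)⟩
    · by_cases h : ρ ∈ (toF LK (H v)).support
      · obtain ⟨h', e⟩ := hm ρ h
        rw [e]; exact h0 v _
      · rw [Finsupp.notMem_support_iff.1 h]
    · obtain ⟨h1, e1⟩ := hm ρ hρ
      obtain ⟨h2, e2⟩ := hm σ hσ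
      exact hch v ⟨ρ, h1⟩ ⟨σ, h2⟩ (by rw [← e1]; exact Finsupp.mem_support_iff.1 hρ)
        (by rw [← e2]; exact Finsupp.mem_support_iff.1 hσ)
  have hdv : ∀ v, dv C q (toF LK (H v)) = ∑ i, H v i • (C.b i - C.b q) := fun v => lc_toF _
  have hinv : ∀ v, ∀ u ∈ V C l0 q, H (v + u) = H v := by
    intro v u hu
    funext i
    have h1 := hU _ (hrc v) (v - dv C q (toF LK (H v)) + u)
      (Submodule.add_mem _ (by rw [hdv]; exact hV v) hu) i
    rw [toF_apply] at h1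
    rw [← h1]
    congr 1
    abel_nf
  have key := isBall_conic (fun i : LK => C.b i - C.b q) (C.b q) (V C l0 q) hH h0 hV hinv
  -- weights
  have hbs : ∀ l : Q →₀ ℝ, Wt l → bs C.b l = C.b q + dv C q (l.erase q) := by
    intro l hl
    rw [dv_erase, dv_eq, tot_wt hl, lc_eq_bs]
    module
  have hto : ∀ v, ∑ i, H v i ≤ 1 → ∃ l, Wt l ∧ (∀ ρ ∈ l.support, ρ = q ∨ ρ ∈ lk l0 q) ∧
      bs C.b l = C.b q + ∑ i, H v i • (C.b i - C.b q) ∧ l q = 1 - ∑ i, H v i := by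
    intro v hv
    set μ := toF LK (H v) with hμ
    have hμr := hrc v
    rw [← hμ] at hμr
    have ht : tot μ = ∑ i, H v i := tot_toF _
    have hμq : μ q = 0 := Finsupp.notMem_support_iff.1 fun h => q_notMem_lk (hμr.lk q h)
    set l := μ + Finsupp.single q (1 - tot μ) with hl
    have hlq : l q = 1 - tot μ := by simp [hl, hμq]
    have hlne : ∀ ρ, ρ ≠ q → l ρ = μ ρ := fun ρ h => by
      simp [hl, Finsupp.single_eq_of_ne h]
    have hs : ∀ ρ ∈ l.support, ρ = q ∨ ρ ∈ μ.support := by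
      intro ρ hρ
      by_cases h : ρ = q
      · exact Or.inl h
      · right
        rw [Finsupp.mem_support_iff, ← hlne ρ h]
        exact Finsupp.mem_support_iff.1 hρ
    have hwt : Wt l := by
      refine ⟨fun ρ => ?_, ?_, fun ρ hρ σ hσ => ?_⟩
      · by_cases h : ρ = q
        · subst h; rw [hlq, ht]; linarith
        · rw [hlne ρ h]; exact hμr.nn ρ
      · rw [← tot_eq, hl, map_add, tot_single]; ring
      · rcases hs ρ hρ with rfl | h1 <;> rcases hs σ hσ with rfl | h2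
        · exact Or.inl le_rfl
        · exact Or.inl (hμr.lk σ h2).1.le
        · exact Or.inr (hμr.lk ρ h1).1.le
        · exact hμr.chain ρ h1 σ h2
    refine ⟨l, hwt, fun ρ hρ => (hs ρ hρ).imp id (hμr.lk ρ), ?_, by rw [hlq, ht]⟩
    have h1 : l.erase q = μ := by
      ext ρ
      by_cases h : ρ = q
      · subst h; simp [hμq]
      · rw [Finsupp.erase_ne h, hlne ρ h]
    rw [hbs l hwt, h1, hμ, hdv]
  have hfrom : ∀ l, Wt l → (∀ ρ ∈ l.support, ρ = q ∨ ρ ∈ lk l0 q) →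
      ∃ v, ∑ i, H v i = 1 - l q ∧ bs C.b l = C.b q + ∑ i, H v i • (C.b i - C.b q) := by
    intro l hl hs
    have hes : ∀ ρ ∈ (l.erase q).support, ρ ∈ l.support ∧ ρ ∈ lk l0 q := by
      intro ρ hρ
      rw [Finsupp.support_erase] at hρ
      have h1 := Finset.mem_of_mem_erase hρ
      exact ⟨h1, (hs ρ h1).resolve_left (Finset.ne_of_mem_erase hρ)⟩
    have hrc' : Rc l0 q (l.erase q) := by
      refine ⟨fun ρ => ?_, fun ρ hρ σ hσ => hl.chain ρ (hes ρ hρ).1 σ (hes σ hσ).1,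
        fun ρ hρ => (hes ρ hρ).2⟩
      by_cases h : ρ = q
      · subst h; simp
      · rw [Finsupp.erase_ne h]; exact hl.nn ρ
    have hsub : (l.erase q).support ⊆ LK := fun ρ hρ => (hLK ρ).2 (hes ρ hρ).2
    have h1 : ∀ i : LK, H (dv C q (l.erase q)) i = (l.erase q) i := fun i => by
      have := hU _ hrc' 0 (Submodule.zero_mem _) i
      rwa [zero_add] at this
    refine ⟨dv C q (l.erase q), ?_, ?_⟩
    · rw [Finset.sum_congr rfl fun i _ => h1 i, ← tot_sum hsub]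
      have h5 : tot l = tot (l.erase q) + l q := by
        conv_lhs => rw [← Finsupp.erase_add_single q l, map_add, tot_single]
      rw [tot_wt hl] at h5
      linarith
    · rw [hbs l hl]
      congr 1
      rw [Finset.sum_congr rfl fun i _ => by rw [h1 i], dv, lc_sum hsub]
  have e1 : {y | ∃ v, ∑ i, H v i ≤ 1 ∧ y = C.b q + ∑ i, H v i • (C.b i - C.b q)} = Dd C l0 q := by
    ext y
    constructor
    · rintro ⟨v, hv, rfl⟩
      obtain ⟨l, h1, h2, h3, h4⟩ := hto v hv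
      exact ⟨l, h1, h2, h3⟩
    · rintro ⟨l, h1, h2, rfl⟩
      obtain ⟨v, h3, h4⟩ := hfrom l h1 h2
      exact ⟨v, by rw [h3]; linarith [h1.nn q], h4⟩
  have e2 : {y | ∃ v, ∑ i, H v i = 1 ∧ y = C.b q + ∑ i, H v i • (C.b i - C.b q)} = Ld C l0 q := by
    ext y
    constructor
    · rintro ⟨v, hv, rfl⟩
      obtain ⟨l, h1, h2, h3, h4⟩ := hto v hv.le
      refine ⟨l, h1, fun ρ hρ => (h2 ρ hρ).resolve_left ?_, h3⟩
      rintro rfl
      rw [Finsupp.mem_support_iff, h4, hv] at hρ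
      simp at hρ
    · rintro ⟨l, h1, h2, rfl⟩
      obtain ⟨v, h3, h4⟩ := hfrom l h1 fun ρ hρ => Or.inr (h2 ρ hρ)
      refine ⟨v, ?_, h4⟩
      rw [h3, Finsupp.notMem_support_iff.1 fun h => q_notMem_lk (h2 q h), sub_zero]
  rw [e1, e2] at key
  exact key

end Loc

end Crest.Agent.R096.Dl_609
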