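import Crest.Agent.R096.Dl3_609
import Crest.Agent.R096.Xq2_537
import Crest.Agent.R096.Cb2_609

/-!
# R096 (row 96), CORE BALLS (helper609)

The fibre over the barycentre `b q` inside the exact core `coreF C κ c θ` of a maximal cell `c`
is a ball; its side on the boundary of the core (`sl y c = θ`) and its side on the larger cells
(`sl y q = 0`) form a `BallPair` (`core_pair`, transported to `K ≃ coreF` in `core_pair_K`).
-/

set_option autoImplicit false
set_option linter.unusedSectionVars false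
set_option linter.unusedVariables false
set_option linter.deprecated false

open Set Metric Module Filter Topology
open scoped Classical

namespace Crest.Agent.R096.Dl_609

open Ce_537 Xp_537 Cb_609

variable {E : Type*} [NormedAddCommGroup E] [NormedSpace ℝ E]
variable {Q : Type*} [PartialOrder Q] {Λ : Set E} (C : CC Λ Q)

/-- barycentric combinations with support in `p` -/
def KK (p : Q → Prop) : Set E := {y | ∃ l, Wt l ∧ (∀ ρ ∈ l.support, p ρ) ∧ bs C.b l = y}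

lemma KK_congr {p p' : Q → Prop} (h : ∀ ρ, p ρ ↔ p' ρ) : KK C p = KK C p' := by
  have : p = p' := funext fun ρ => propext (h ρ)
  rw [this]

/-- adding mass at a top element -/
lemma wt_top {l : Q →₀ ℝ} {c : Q} (hl : Wt l) (hc : ∀ ρ ∈ l.support, ρ ≤ c) {t : ℝ}
    (h0 : 0 ≤ t) (h1 : t ≤ 1) : Wt ((1 - t) • l + Finsupp.single c t) := by
  have hv : ∀ ρ, ((1 - t) • l + Finsupp.single c t) ρ = (1 - t) * l ρ + Finsupp.single c t ρ :=
    fun ρ => by simp
  have hs : ∀ ρ ∈ ((1 - t) • l + Finsupp.single c t).support, ρ = c ∨ ρ ∈ l.support := by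
    intro ρ hρ
    by_contra hcon
    push Not at hcon
    apply Finsupp.mem_support_iff.1 hρ
    rw [hv, Finsupp.notMem_support_iff.1 hcon.2, Finsupp.single_eq_of_ne hcon.1]
    simp
  refine ⟨fun ρ => ?_, ?_, fun ρ hρ σ hσ => ?_⟩
  · rw [hv]
    have h2 : 0 ≤ Finsupp.single c t ρ := by
      by_cases h : ρ = c
      · subst h; simpa using h0
      · rw [Finsupp.single_eq_of_ne h]
    have h3 := mul_nonneg (sub_nonneg.2 h1) (hl.nn ρ)
    linarith
  · rw [← tot_eq, map_add, map_smul, tot_single, tot_wt hl]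
    simp
  · rcases hs ρ hρ with rfl | h2 <;> rcases hs σ hσ with rfl | h3
    · exact Or.inl le_rfl
    · exact Or.inr (hc σ h3)
    · exact Or.inl (hc ρ h2)
    · exact hl.chain ρ h2 σ h3

lemma bs_top' (b : Q → E) (l : Q →₀ ℝ) (c : Q) (t : ℝ) :
    bs b ((1 - t) • l + Finsupp.single c t) = (1 - t) • bs b l + t • b c := by
  rw [← lc_eq_bs, ← lc_eq_bs, map_add, map_smul, lc_single]

/-- removing the mass at the top element -/
lemma wt_untop {l : Q →₀ ℝ} {c : Q} (hl : Wt l) (h1 : l c < 1) :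
    Wt ((1 - l c)⁻¹ • l.erase c) ∧ l = (1 - l c) • ((1 - l c)⁻¹ • l.erase c) +
      Finsupp.single c (l c) ∧ (∀ ρ ∈ ((1 - l c)⁻¹ • l.erase c).support, ρ ∈ l.support ∧ ρ ≠ c) := by
  have hpos : 0 < 1 - l c := by linarith
  have hs : ∀ ρ ∈ ((1 - l c)⁻¹ • l.erase c).support, ρ ∈ l.support ∧ ρ ≠ c := by
    intro ρ hρ
    have h2 := Finsupp.support_smul hρ
    rw [Finsupp.support_erase] at h2
    exact ⟨Finset.mem_of_mem_erase h2, Finset.ne_of_mem_erase h2⟩
  refine ⟨⟨fun ρ => ?_, ?_, fun ρ hρ σ hσ => hl.chain ρ (hs ρ hρ).1 σ (hs σ hσ).1⟩, ?_, hs⟩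
  · rw [Finsupp.smul_apply, smul_eq_mul]
    refine mul_nonneg (inv_nonneg.2 hpos.le) ?_
    by_cases h : ρ = c
    · subst h; simp
    · rw [Finsupp.erase_ne h]; exact hl.nn ρ
  · have h5 : tot l = tot (l.erase c) + l c := by
      conv_lhs => rw [← Finsupp.erase_add_single c l, map_add, tot_single]
    rw [tot_wt hl] at h5
    rw [← tot_eq, map_smul, smul_eq_mul, inv_mul_eq_one₀ hpos.ne']
    linarith
  · rw [smul_smul, mul_inv_cancel₀ hpos.ne', one_smul, Finsupp.erase_add_single]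

lemma eq_single_of_one {l : Q →₀ ℝ} {c : Q} (hl : Wt l) (h1 : l c = 1) :
    l = Finsupp.single c 1 := by
  have h5 : tot l = tot (l.erase c) + l c := by
    conv_lhs => rw [← Finsupp.erase_add_single c l, map_add, tot_single]
  rw [tot_wt hl, h1] at h5
  have h6 : ∑ ρ ∈ (l.erase c).support, (l.erase c) ρ = 0 := by rw [← tot_eq]; linarith
  have hnn : ∀ ρ, 0 ≤ (l.erase c) ρ := fun ρ => by
    by_cases h : ρ = c
    · subst h; simp
    · rw [Finsupp.erase_ne h]; exact hl.nn ρ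
  have h7 := (Finset.sum_eq_zero_iff_of_nonneg fun ρ _ => hnn ρ).1 h6
  have h8 : l.erase c = 0 := by
    ext ρ
    by_cases h : ρ ∈ (l.erase c).support
    · rw [h7 ρ h]; rfl
    · rw [Finsupp.notMem_support_iff.1 h]; rfl
  rw [← Finsupp.erase_add_single c l, h8, h1, zero_add]

/-- the cone over `KK p` -/
lemma insert_cone {p : Q → Prop} {c : Q} (hp : ∀ ρ, p ρ → ρ < c) :
    insert (C.b c) (coneSet (C.b c) (KK C p)) = KK C (fun ρ => p ρ ∨ ρ = c) := by
  ext y
  constructor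
  · rintro (rfl | ⟨_, ⟨l, hl, hs, rfl⟩, t, ht, rfl⟩)
    · refine ⟨Finsupp.single c 1, Expl.wt_single c, fun ρ hρ => ?_, by
        rw [bs_single _ one_pos, one_smul]⟩
      rw [Finsupp.support_single_ne_zero c one_ne_zero, Finset.mem_singleton] at hρ
      exact Or.inr hρ
    · refine ⟨(1 - t) • l + Finsupp.single c t,
        wt_top hl (fun ρ hρ => (hp ρ (hs ρ hρ)).le) ht.1 ht.2, fun ρ hρ => ?_, bs_top' _ _ _ _⟩
      by_cases h : ρ = c
      · exact Or.inr h
      · refine Or.inl (hs ρ ?_)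
        rw [Finsupp.mem_support_iff]
        intro h0
        apply Finsupp.mem_support_iff.1 hρ
        simp [h0, Finsupp.single_eq_of_ne h]
  · rintro ⟨l, hl, hs, rfl⟩
    have hle : l c ≤ 1 := by
      rw [← hl.sum]
      by_cases h : c ∈ l.support
      · exact Finset.single_le_sum (fun ρ _ => hl.nn ρ) h
      · rw [Finsupp.notMem_support_iff.1 h]
        exact Finset.sum_nonneg fun ρ _ => hl.nn ρ
    rcases hle.lt_or_eq with h1 | h1
    · right
      obtain ⟨h2, h3, h4⟩ := wt_untop hl h1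
      refine ⟨_, ⟨_, h2, fun ρ hρ => ?_, rfl⟩, l c, ⟨hl.nn c, h1.le⟩, ?_⟩
      · exact (hs ρ (h4 ρ hρ).1).resolve_right (h4 ρ hρ).2
      · rw [← bs_top', ← h3]
    · left
      rw [eq_single_of_one hl h1, bs_single _ one_pos, one_smul]

lemma cone_eq {p : Q → Prop} {c : Q} (hp : ∀ ρ, p ρ → ρ < c) (hne : (KK C p).Nonempty) :
    coneSet (C.b c) (KK C p) = KK C (fun ρ => p ρ ∨ ρ = c) := by
  rw [← insert_cone C hp, insert_eq_of_mem]
  obtain ⟨x, hx⟩ := hne
  exact ⟨x, hx, 1, ⟨zero_le_one, le_rfl⟩, by simp⟩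

lemma joinable {p : Q → Prop} {c : Q} (hp : ∀ ρ, p ρ → ρ < c) : Joinable (C.b c) (KK C p) := by
  rintro _ ⟨l, hl, hs, rfl⟩ _ ⟨l', hl', hs', rfl⟩ t ht t' ht' he
  rw [← bs_top', ← bs_top'] at he
  have h1 := bs_inj C (wt_top hl (fun ρ hρ => (hp ρ (hs ρ hρ)).le) ht.1 ht.2.le)
    (wt_top hl' (fun ρ hρ => (hp ρ (hs' ρ hρ)).le) ht'.1 ht'.2) he
  have hc : l c = 0 := Finsupp.notMem_support_iff.1 fun h => lt_irrefl _ (hp c (hs c h))
  have hc' : l' c = 0 := Finsupp.notMem_support_iff.1 fun h => lt_irrefl _ (hp c (hs' c h))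
  have h2 := DFunLike.congr_fun h1 c
  simp [hc, hc'] at h2
  subst h2
  refine ⟨?_, rfl⟩
  have h3 : l = l' := by
    have h4 : (1 - t) • l = (1 - t) • l' := add_right_cancel h1
    exact smul_right_injective _ (by linarith [ht.2] : (1 - t) ≠ 0) h4
  rw [h3]

section Core

variable [FiniteDimensional ℝ E] {q c : Q}

/-- the base chain `q < c` -/
noncomputable def l2 (q c : Q) : Q →₀ ℝ := Finsupp.single q (1 / 2) + Finsupp.single c (1 / 2)

lemma l2_apply {q c : Q} (h : q < c) : (l2 q c) q = 1 / 2 ∧ (l2 q c) c = 1 / 2 ∧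
    ∀ ρ, ρ ≠ q → ρ ≠ c → (l2 q c) ρ = 0 := by
  refine ⟨?_, ?_, fun ρ h1 h2 => ?_⟩
  · simp [l2, Finsupp.single_eq_of_ne h.ne]
  · simp [l2, Finsupp.single_eq_of_ne h.ne']
  · simp [l2, Finsupp.single_eq_of_ne h1, Finsupp.single_eq_of_ne h2]

lemma l2_supp {q c : Q} (h : q < c) : ∀ ρ, ρ ∈ (l2 q c).support ↔ ρ = q ∨ ρ = c := by
  obtain ⟨h1, h2, h3⟩ := l2_apply h
  intro ρ
  rw [Finsupp.mem_support_iff]
  constructor
  · intro hρ
    by_contra hcon
    push Not at hcon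
    exact hρ (h3 ρ hcon.1 hcon.2)
  · rintro (rfl | rfl)
    · rw [h1]; norm_num
    · rw [h2]; norm_num

lemma l2_base {q c : Q} (h : q < c) : Base (l2 q c) q := by
  obtain ⟨h1, h2, h3⟩ := l2_apply h
  refine ⟨⟨fun ρ => ?_, ?_, fun ρ hρ σ hσ => ?_⟩, (l2_supp h q).2 (Or.inl rfl), fun ρ hρ => ?_⟩
  · by_cases e1 : ρ = q
    · subst e1; rw [h1]; norm_num
    · by_cases e2 : ρ = c
      · subst e2; rw [h2]; norm_num
      · rw [h3 ρ e1 e2]
  · rw [← tot_eq, l2, map_add, tot_single, tot_single]; norm_num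
  · rcases (l2_supp h ρ).1 hρ with rfl | rfl <;> rcases (l2_supp h σ).1 hσ with rfl | rfl
    · exact Or.inl le_rfl
    · exact Or.inl h.le
    · exact Or.inr h.le
    · exact Or.inl le_rfl
  · rcases (l2_supp h ρ).1 hρ with rfl | rfl
    · exact le_rfl
    · exact h.le

lemma l2_lk {q c : Q} (h : q < c) (hc : ∀ ρ, c ≤ ρ → ρ = c) :
    ∀ ρ, ρ ∈ lk (l2 q c) q ↔ q < ρ ∧ ρ < c := by
  intro ρ
  constructor
  · rintro ⟨h1, h2, h3⟩
    refine ⟨h1, ?_⟩
    have h4 : ρ ≠ c := fun e => h2 ((l2_supp h ρ).2 (Or.inr e))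
    rcases h3 c ((l2_supp h c).2 (Or.inr rfl)) with h5 | h5
    · exact lt_of_le_of_ne h5 h4
    · exact absurd (hc ρ h5) h4
  · rintro ⟨h1, h2⟩
    refine ⟨h1, fun h3 => ?_, fun σ hσ => ?_⟩
    · rcases (l2_supp h ρ).1 h3 with rfl | rfl
      · exact lt_irrefl _ h1
      · exact lt_irrefl _ h2
    · rcases (l2_supp h σ).1 hσ with rfl | rfl
      · exact Or.inr h1.le
      · exact Or.inl h2.le

/-- the barycentre of a larger cell is not in the direction of a smaller one -/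
lemma notMem_V0 (hΛ : IsOpen Λ) (h : q < c) : C.b c - C.b q ∉ V0 C q := by
  intro hm
  have h1 : ∀ᶠ t in 𝓝[>] (0 : ℝ), C.b q + t • (C.b c - C.b q) ∈ C.cell q :=
    nhdsWithin_le_nhds (small_mem C hΛ hm)
  have h2 : ∀ᶠ t in 𝓝[>] (0 : ℝ), t < 1 := nhdsWithin_le_nhds (eventually_lt_nhds one_pos)
  obtain ⟨t, ⟨h3, h4⟩, h5⟩ := ((h1.and h2).and self_mem_nhdsWithin).exists
  refine opn_combo C (C.bmem c) (fun p hp => C.b_notMem hp) (C.mono h (C.bmem q)) h5 h4.le h ?_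
  have : t • C.b c + (1 - t) • C.b q = C.b q + t • (C.b c - C.b q) := by module
  rw [this]
  exact h3

lemma finrank_V (hΛ : IsOpen Λ) (h : q < c) :
    finrank ℝ (V C (l2 q c) q) = finrank ℝ (V0 C q) + 1 := by
  have h1 : V C (l2 q c) q = V0 C q ⊔ Submodule.span ℝ {C.b c - C.b q} := by
    refine le_antisymm (sup_le le_sup_left ?_) (sup_le le_sup_left ?_)
    · rw [Submodule.span_le]
      rintro _ ⟨ρ, hρ, rfl⟩
      rcases (l2_supp h ρ).1 hρ with rfl | rfl
      · show C.b ρ - C.b ρ ∈ _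
        rw [sub_self]; exact Submodule.zero_mem _
      · exact Submodule.mem_sup_right (Submodule.subset_span rfl)
    · rw [Submodule.span_le]
      rintro _ rfl
      exact Submodule.mem_sup_right (Submodule.subset_span ⟨c, (l2_supp h c).2 (Or.inr rfl), rfl⟩)
  rw [h1]
  have hn := notMem_V0 C hΛ h
  have h0 : C.b c - C.b q ≠ 0 := fun e => hn (by rw [e]; exact Submodule.zero_mem _)
  have h2 : V0 C q ⊓ Submodule.span ℝ {C.b c - C.b q} = ⊥ := by
    rw [← disjoint_iff]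
    exact (Submodule.disjoint_span_singleton' h0).2 hn
  have h3 := Submodule.finrank_sup_add_finrank_inf_eq (V0 C q) (Submodule.span ℝ {C.b c - C.b q})
  rw [h2, finrank_bot, finrank_span_singleton h0] at h3
  omega

/-- the order complex of `[q, c)`, `c` maximal, is a ball with boundary the complex of `(q, c)` -/
theorem isBall_KK (hΛ : IsOpen Λ) (h : q < c) (hc : ∀ ρ, c ≤ ρ → ρ = c) {k : ℕ}
    (hk : Ar_241.cod C q = k + 1) :
    IsBall k (KK C fun ρ => q ≤ ρ ∧ ρ < c) (KK C fun ρ => q < ρ ∧ ρ < c) := by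
  have h1 := isBall_Dd C hΛ (l2_base h)
  have h2 : finrank ℝ E - finrank ℝ (V C (l2 q c) q) = k := by
    have h3 : Ar_241.cod C q = finrank ℝ E - finrank ℝ (V0 C q) := rfl
    rw [finrank_V C hΛ h]
    omega
  rw [h2] at h1
  have e1 : Dd C (l2 q c) q = KK C fun ρ => q ≤ ρ ∧ ρ < c := by
    refine KK_congr C fun ρ => ?_
    rw [l2_lk h hc]
    constructor
    · rintro (rfl | ⟨h3, h4⟩)
      · exact ⟨le_rfl, h⟩
      · exact ⟨h3.le, h4⟩
    · rintro ⟨h3, h4⟩
      rcases h3.eq_or_lt with h5 | h5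
      · exact Or.inl h5.symm
      · exact Or.inr ⟨h5, h4⟩
  have e2 : Ld C (l2 q c) q = KK C fun ρ => q < ρ ∧ ρ < c :=
    KK_congr C fun ρ => by rw [l2_lk h hc]
  rw [e1, e2] at h1
  exact h1

/-- the cone pair over `[q, c)` with apex `b c` -/
theorem cone_pair (hΛ : IsOpen Λ) (h : q < c) (hc : ∀ ρ, c ≤ ρ → ρ = c) {k : ℕ}
    (hk : Ar_241.cod C q = k + 1) :
    BallPair k (KK C fun ρ => q ≤ ρ ∧ ρ ≤ c) (KK C fun ρ => q ≤ ρ ∧ ρ < c)
      (KK C fun ρ => q < ρ ∧ ρ ≤ c) (KK C fun ρ => q < ρ ∧ ρ < c) := by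
  have h1 := isBall_KK C hΛ h hc hk
  have h2 := BallPair.coneFrom h1 (joinable C (c := c) (fun ρ hρ => hρ.2))
  rw [cone_eq C (fun ρ hρ => hρ.2) h1.nonempty, insert_cone C (fun ρ hρ => hρ.2)] at h2
  have e1 : (KK C fun ρ => (q ≤ ρ ∧ ρ < c) ∨ ρ = c) = KK C fun ρ => q ≤ ρ ∧ ρ ≤ c := by
    refine KK_congr C fun ρ => ?_
    constructor
    · rintro (⟨h3, h4⟩ | rfl)
      · exact ⟨h3, h4.le⟩
      · exact ⟨h.le, le_rfl⟩
    · rintro ⟨h3, h4⟩
      rcases h4.eq_or_lt with h5 | h5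
      · exact Or.inr h5
      · exact Or.inl ⟨h3, h5⟩
  have e2 : (KK C fun ρ => (q < ρ ∧ ρ < c) ∨ ρ = c) = KK C fun ρ => q < ρ ∧ ρ ≤ c := by
    refine KK_congr C fun ρ => ?_
    constructor
    · rintro (⟨h3, h4⟩ | rfl)
      · exact ⟨h3, h4.le⟩
      · exact ⟨h, le_rfl⟩
    · rintro ⟨h3, h4⟩
      rcases h4.eq_or_lt with h5 | h5
      · exact Or.inr h5
      · exact Or.inl ⟨h3, h5⟩
  rw [e1, e2] at h2
  exact h2

end Core

end Crest.Agent.R096.Dl_609
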