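import Crest.Agent.R096.Dl6_609
import Crest.Agent.R096.Ar8_241

/-!
# R096 (row 96), CORE-INST, part 2 (helper609)

`CoreFam`: a family of exact cores, one for every maximal cell.  Outputs for 241's `Tr0.trn3`:
`CoreFam.cores` (the structure `Cores`), `CoreFam.point` (top cells), `CoreFam.bdry_sub`
(squares: `S q ⊆ ⋃ Kc`), `CoreFam.coreData` (squares and edges).
-/

set_option autoImplicit false
set_option linter.unusedSectionVars false
set_option linter.unusedVariables false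
set_option linter.deprecated false

open Set Metric Module Filter Topology
open scoped Classical

namespace Crest.Agent.R096.Dl_609

open Ce_537 Xp_537 Cb_609 Ar_241

section Cod

variable {E : Type*} [NormedAddCommGroup E] [NormedSpace ℝ E] [FiniteDimensional ℝ E]
variable {Q : Type*} [PartialOrder Q] {Λ : Set E} (C : CC Λ Q)

/-- cells of codimension `0` are maximal -/
lemma max_of_cod (hΛ : IsOpen Λ) {q : Q} (h : cod C q = 0) : ∀ ρ, q ≤ ρ → ρ = q := by
  intro ρ hρ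
  rcases hρ.eq_or_lt with e | hlt
  · exact e.symm
  · have := cod_lt C hΛ hlt
    omega

lemma base_single (q : Q) : Base (Finsupp.single q (1 : ℝ)) q := by
  have hs : ∀ ρ, ρ ∈ (Finsupp.single q (1 : ℝ)).support ↔ ρ = q := fun ρ => by
    rw [Finsupp.support_single_ne_zero q one_ne_zero, Finset.mem_singleton]
  exact ⟨Expl.wt_single q, (hs q).2 rfl, fun c hc => ((hs c).1 hc).ge⟩

/-- maximal cells have codimension `0` -/
lemma cod_of_max (hΛ : IsOpen Λ) {q : Q} (h : ∀ ρ, q ≤ ρ → ρ = q) : cod C q = 0 := by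
  obtain ⟨LK, S, H, hLK, -, -, -, hV, -⟩ := loc C hΛ (base_single (Q := Q) q)
  have hLK0 : IsEmpty LK := ⟨fun i => by
    have h1 := (hLK i).1 i.2
    exact lt_irrefl _ ((h _ h1.1.le) ▸ h1.1)⟩
  have hV0 : V C (Finsupp.single q (1 : ℝ)) q ≤ dirW C q := by
    refine sup_le le_rfl ?_
    rw [Submodule.span_le]
    rintro _ ⟨ρ, hρ, rfl⟩
    have h1 : ρ = q := by
      have : ρ ∈ (Finsupp.single q (1 : ℝ)).support := hρ
      rwa [Finsupp.support_single_ne_zero q one_ne_zero, Finset.mem_singleton] at this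
    show C.b ρ - C.b q ∈ dirW C q
    rw [h1, sub_self]
    exact Submodule.zero_mem _
  have htop : dirW C q = ⊤ := by
    rw [eq_top_iff]
    intro v _
    have h1 := hV v
    rw [Finset.univ_eq_empty, Finset.sum_empty, sub_zero] at h1
    exact hV0 h1
  rw [cod, htop, finrank_top, Nat.sub_self]

include C in
/-- there is a maximal cell above every cell -/
lemma exists_max_ge (q : Q) : ∃ m, q ≤ m ∧ ∀ ρ, m ≤ ρ → ρ = m := by
  obtain ⟨m, hm⟩ := (finite_ge C q).exists_maximal ⟨q, le_rfl⟩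
  exact ⟨m, hm.1, fun ρ hρ => le_antisymm (hm.2 (hm.1.trans hρ) hρ) hρ⟩

end Cod

section Fam

variable {E : Type*} [NormedAddCommGroup E] [NormedSpace ℝ E] [FiniteDimensional ℝ E]
  {Q : Type*} [PartialOrder Q] {Λ : Set E}
  {E' : Type*} [NormedAddCommGroup E'] [NormedSpace ℝ E']
  {Ω : Set E'} {C : CC Λ Q} {G : E' → E}

/-- **a family of exact cores**, one for every maximal cell -/
structure CoreFam (X : Tr0 Ω C G) {ι : Type*} (Kc : ι → Set E') (X0 : Set E') where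
  c : ι → Q
  κ : ι → ℝ
  θ : ι → ℝ
  Th : ∀ i, PLEquiv (Kc i) (coreF C (κ i) (c i) (θ i))
  inj : Function.Injective c
  max : ∀ i ρ, c i ≤ ρ → ρ = c i
  ex : ∀ r, (∀ ρ, r ≤ ρ → ρ = r) → ∃ i, c i = r
  hκ : ∀ i, 0 < κ i ∧ κ i < 1
  hθ0 : ∀ i, 0 ≤ θ i
  hθ1 : ∀ i, θ i < 1
  sub : ∀ i, Kc i ⊆ Ω
  disj : ∀ i j, i ≠ j → Disjoint (Kc i) (Kc j)
  hG : ∀ i, ∀ x ∈ Kc i, G x = cG C (κ i) (Th i).f x
  htop : ∀ i, ∀ x ∈ Kc i, X.top x = ctop C (κ i) (c i) (Th i).f x
  htr : ∀ i, ∀ x ∈ Kc i, ∀ t ∈ C.cell (X.top x), X.tr x t = ctr C (κ i) (Th i).f (Th i).g x t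
  bdX : ∀ i, ∀ x ∈ Kc i, (x ∈ X0 ↔ sl C (κ i) ((Th i).f x) (c i) = θ i)
  out : ∀ x ∈ Ω, (∀ i, x ∉ Kc i) → cod C (X.top x) ≠ 0

namespace CoreFam

variable {X : Tr0 Ω C G} {ι : Type*} {Kc : ι → Set E'} {X0 : Set E'} (h : CoreFam X Kc X0)

include h

lemma isCompact (i : ι) : IsCompact (Kc i) := by
  have h1 : (h.Th i).g '' coreF C (h.κ i) (h.c i) (h.θ i) = Kc i := (h.Th i).symm.image_eq
  rw [← h1]
  exact (isCompact_coreF C (h.hκ i) (h.hθ0 i) (h.hθ1 i)).image_of_continuousOn (h.Th i).pg.1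

/-- the top cell in a core is below the maximal cell -/
lemma top_le {i : ι} {x : E'} (hx : x ∈ Kc i) : X.top x ≤ h.c i := by
  rw [h.htop i x hx]
  obtain ⟨k1, k2, k3⟩ := st_spec C (h.hκ i) ((h.Th i).mf hx).1
  exact k3 _ (mn_spec _ k1.wt).1

/-- **the structure `Cores`** -/
theorem cores [FiniteDimensional ℝ E'] (hX0 : IsClosed X0) (hcov : Ω ⊆ X0 ∪ ⋃ i, Kc i)
    (hlf : ∀ x ∈ Ω, ∃ ε > (0:ℝ), {i | (Kc i ∩ ball x ε).Nonempty}.Finite) : Cores X Kc X0 where
  closed := fun i => (h.isCompact i).isClosed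
  X0closed := hX0
  cov := hcov
  disj := h.disj
  lf := hlf
  bd := by
    intro i x hx hx0 ε hε
    by_contra hcon
    push Not at hcon
    have hb := (h.bdX i x hx).1 hx0
    have hxe : (h.Th i).g ((h.Th i).f x) = x := (h.Th i).li x hx
    refine not_interior (h.Th i) (b_mem_coreF C (h.hκ i) (h.hθ0 i) (h.hθ1 i)) ((h.Th i).mf hx)
      (fun y hy τ h0 h1 => coreF_star C (h.hκ i) (h.hθ0 i) (h.hθ1 i) hy h0 h1)
      (fun y hy τ h0 h1 => coreF_strict C (h.hκ i) (h.hθ0 i) (h.hθ1 i) hy ((h.Th i).mf hx) hb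
        h0 h1) ?_
    rw [hxe, mem_interior]
    exact ⟨ball x ε, fun z hz => hcon z hz, isOpen_ball, mem_ball_self hε⟩
  sat := by
    intro i x hx _ t ht
    rw [h.htr i x hx t ht]
    rw [h.htop i x hx] at ht
    exact (h.Th i).mg (coreF_move (h.hκ i) ((h.Th i).mf hx) ht)

/-- the cell of the core is above the cells of its fibres -/
lemma le_of_mem {i : ι} {q : Q} {x : E'} (hx : x ∈ Kc i) (hF : x ∈ X.F q) : q ≤ h.c i :=
  (X.F_top hF).trans (h.top_le hx)

/-- top cells: the fibre is one point -/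
theorem point (hΛ : IsOpen Λ) {q : Q} (hq : cod C q = 0) : ∃ x, X.F q = {x} := by
  have hmax := max_of_cod C hΛ hq
  obtain ⟨i, hi⟩ := h.ex q hmax
  subst hi
  set q := h.c i with hqdef
  have hb := b_mem_coreF C (c := q) (h.hκ i) (h.hθ0 i) (h.hθ1 i)
  -- the state of a point of the fibre in the core
  have huniq : ∀ y ∈ C.cell q, st C (h.κ i) y = C.b q → y = C.b q := by
    intro y hy hst
    obtain ⟨k1, k2, k3⟩ := st_spec C (h.hκ i) hy
    have hs := supp_fibre C (h.hκ i) hy hst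
    have h1 : ∀ ρ ∈ (sl C (h.κ i) y).support, ρ = q := fun ρ hρ => le_antisymm (hs ρ hρ).2 (hs ρ hρ).1
    have h2 : sl C (h.κ i) y = Finsupp.single q 1 := by
      apply eq_single_of_one k1.wt
      have h3 : (sl C (h.κ i) y).support ⊆ {q} := fun ρ hρ => Finset.mem_singleton.2 (h1 ρ hρ)
      have h4 := tot_wt k1.wt
      rw [tot_eq, Finset.sum_subset h3 (fun ρ _ hρ => Finsupp.notMem_support_iff.1 hρ),
        Finset.sum_singleton] at h4
      exact h4
    rw [← k2, hst, pk, h2, bs_single _ one_pos, one_smul]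
    module
  have hbs : st C (h.κ i) (C.b q) = C.b q := by
    obtain ⟨k1, k2, k3⟩ := st_spec C (h.hκ i) (C.bmem q)
    have hs : State C (Finsupp.single q (1 : ℝ)) (C.b q) := by
      have hw := Expl.wt_single q
      refine ⟨hw.nn, hw.sum, hw.chain, fun ρ hρ => ?_⟩
      rw [Finsupp.support_single_ne_zero q one_ne_zero, Finset.mem_singleton] at hρ
      rw [hρ]; exact C.bmem q
    have h1 : pk C (h.κ i) (Finsupp.single q (1 : ℝ)) (C.b q) = C.b q := by
      rw [pk, bs_single _ one_pos, one_smul]; module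
    have h2 := st_pk C (h.hκ i) hs
    rwa [h1] at h2
  refine ⟨(h.Th i).g (C.b q), ?_⟩
  ext x
  rw [mem_singleton_iff]
  constructor
  · intro hx
    have h1 : X.top x = q := hmax _ (X.F_top hx)
    have h2 : ∃ j, x ∈ Kc j := by
      by_contra hcon
      push Not at hcon
      exact h.out x hx.1 hcon (by rw [h1]; exact hq)
    obtain ⟨j, hj⟩ := h2
    have h3 : h.c j = q := hmax _ (h.le_of_mem hj hx)
    have h4 : j = i := h.inj h3
    subst h4
    have h5 : (h.Th j).f x = C.b q := by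
      apply huniq _ ((h.Th j).mf hj).1
      have := h.hG j x hj
      rw [← hx.2, this]
      rfl
    rw [← h5, (h.Th j).li x hj]
  · rintro rfl
    have hm := (h.Th i).mg hb
    refine ⟨h.sub i hm, ?_⟩
    rw [h.hG i _ hm]
    show st C (h.κ i) ((h.Th i).f ((h.Th i).g (C.b q))) = C.b q
    rw [(h.Th i).ri _ hb, hbs]

/-- squares: the boundary of the fibre is in the cores -/
theorem bdry_sub (hΛ : IsOpen Λ) {q : Q} (hq : cod C q = 1) : X.S q ⊆ ⋃ i, Kc i := by
  intro x hx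
  by_contra hcon
  simp only [mem_iUnion, not_exists] at hcon
  have h1 : q < X.top x := lt_of_le_of_ne (X.F_top (X.S_sub q hx)) (Ne.symm hx.2.2)
  have h2 := cod_lt C hΛ h1
  exact h.out x hx.1 hcon (by omega)

/-- **squares and edges: the pieces of the fibres in the cores** -/
theorem coreData (hΛ : IsOpen Λ) {q : Q} {k : ℕ} (hq : cod C q = k + 1) :
    CoreData X Kc X0 k q := by
  have hlt : ∀ i, q ≤ h.c i → q < h.c i := by
    intro i hi
    refine lt_of_le_of_ne hi ?_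
    rintro rfl
    have := cod_of_max C hΛ (h.max i)
    omega
  have hfin : {i | q ≤ h.c i}.Finite :=
    ((finite_ge C q).preimage h.inj.injOn).subset fun i hi => hi
  obtain ⟨m, hm1, hm2⟩ := exists_max_ge C q
  obtain ⟨i0, hi0⟩ := h.ex m hm2
  refine ⟨hfin.toFinset, fun i => X.F q ∩ Kc i ∩ X.S q,
    fun i => {x | (x ∈ Kc i ∧ cG C (h.κ i) (h.Th i).f x = C.b q) ∧
      sl C (h.κ i) ((h.Th i).f x) (h.c i) = h.θ i ∧ ctop C (h.κ i) (h.c i) (h.Th i).f x ≠ q},
    ⟨i0, hfin.mem_toFinset.2 (by rw [mem_setOf_eq, hi0]; exact hm1)⟩, ?_, ?_, ?_, ?_⟩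
  · rintro i ⟨x, hx, hxi⟩
    exact hfin.mem_toFinset.2 (h.le_of_mem hxi hx)
  · intro i hi
    have hqi := hlt i (hfin.mem_toFinset.1 hi)
    have h1 := core_pair_K C hΛ (h.hκ i) (h.hθ0 i) (h.hθ1 i) hqi (h.max i) hq (h.Th i)
    have e0 : ∀ x, x ∈ Kc i → (cG C (h.κ i) (h.Th i).f x = C.b q ↔ G x = C.b q) := fun x hx => by
      rw [h.hG i x hx]
    have e1 : {x | x ∈ Kc i ∧ cG C (h.κ i) (h.Th i).f x = C.b q} = X.F q ∩ Kc i := by
      ext x
      constructor
      · rintro ⟨h2, h3⟩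
        exact ⟨⟨h.sub i h2, (e0 x h2).1 h3⟩, h2⟩
      · rintro ⟨h2, h3⟩
        exact ⟨h3, (e0 x h3).2 h2.2⟩
    have e2 : {x | (x ∈ Kc i ∧ cG C (h.κ i) (h.Th i).f x = C.b q) ∧
        sl C (h.κ i) ((h.Th i).f x) (h.c i) = h.θ i} = X.F q ∩ Kc i ∩ X0 := by
      ext x
      constructor
      · rintro ⟨⟨h2, h3⟩, h4⟩
        exact ⟨⟨⟨h.sub i h2, (e0 x h2).1 h3⟩, h2⟩, (h.bdX i x h2).2 h4⟩
      · rintro ⟨⟨h2, h3⟩, h4⟩
        exact ⟨⟨h3, (e0 x h3).2 h2.2⟩, (h.bdX i x h3).1 h4⟩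
    have e3 : {x | (x ∈ Kc i ∧ cG C (h.κ i) (h.Th i).f x = C.b q) ∧
        ctop C (h.κ i) (h.c i) (h.Th i).f x ≠ q} = X.F q ∩ Kc i ∩ X.S q := by
      ext x
      constructor
      · rintro ⟨⟨h2, h3⟩, h4⟩
        have h5 := (e0 x h2).1 h3
        refine ⟨⟨⟨h.sub i h2, h5⟩, h2⟩, h.sub i h2, h5, ?_⟩
        rw [h.htop i x h2]; exact h4
      · rintro ⟨⟨h2, h3⟩, h4⟩
        refine ⟨⟨h3, (e0 x h3).2 h2.2⟩, ?_⟩
        rw [← h.htop i x h3]; exact h4.2.2
    rw [e1, e2, e3] at h1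
    exact h1
  · intro i hi; rfl
  · intro i _ j _ hij
    exact (h.disj i j hij).mono inter_subset_right inter_subset_right

end CoreFam

end Fam

end Crest.Agent.R096.Dl_609
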