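import Crest.Agent.R096.St1_147

/-!
# Row 96, DOORS (helper501), part 0: definitions

* `merge`  : the mesh in which all cells of a fibre of `κ : ι → ι'` are merged (giant cells).
* `Shell`  : vertices and edges of the boundary sphere of a (giant) cell `k`.
* `Shell.mesh` : one collar layer inside `k`: cells `F × I` (`F` a face of `k`), bottom faces
  `F × 0`, vertical faces `e × I` (`e` an edge); the new cell `k` is the shrunk one.
* `Shell.next` : the boundary sphere of the new `k`.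
* `Move` : an elementary move of ONE sheet `i0` in the layer (all other sheets are products).
-/

set_option autoImplicit false

namespace Crest.Agent.R096.Door_501

open Crest.Agent.R096.St_147 Classical

variable {ι Φ W : Type}

/-- vertices and edges of the boundary of the cell `k` -/
structure Shell (M : MeshC ι Φ W) (k : ι) (Vx Ed : Type) where
  en : Ed → Bool → Vx
  en_ne : ∀ e, en e false ≠ en e true
  fc : Ed → Bool → Φ
  fc_ne : ∀ e, fc e false ≠ fc e true
  fc_side : ∀ e b, k ∈ M.side (fc e b)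
  /-- the candidate points on the edge `e` -/
  OnE : Ed → Set W
  onE : ∀ {F : Φ} {w : W}, k ∈ M.side F → (w ∈ M.On F ↔ ∃ e b, fc e b = F ∧ w ∈ OnE e)
  onE_disj : ∀ {e e' : Ed} {w : W}, w ∈ OnE e → w ∈ OnE e' → e = e'
  /-- position along the edge, from `en e false` to `en e true` -/
  t : W → ℝ
  t_inj : ∀ e, Set.InjOn t (OnE e)
  t_pos : ∀ {e w}, w ∈ OnE e → 0 < t w
  t_lt : ∀ {e w}, w ∈ OnE e → t w < 1
  /-- a face of `k` containing the vertex `v` has exactly two edges at `v` -/
  vdeg : ∀ (F : Φ) (v : Vx), {e | (∃ b, fc e b = F) ∧ ∃ b, en e b = v}.ncard = 0 ∨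
    {e | (∃ b, fc e b = F) ∧ ∃ b, en e b = v}.ncard = 2
  vfin : ∀ v, {e | ∃ b, en e b = v}.Finite
  /-- the faces of `k` at `v` are connected through the edges at `v` -/
  vlink : ∀ (v : Vx) (A : Set Φ),
    (∀ e, (∃ b, en e b = v) → ∀ b, fc e b ∈ A → fc e (!b) ∈ A) →
    ∀ e, (∃ b, en e b = v) → ∀ b, fc e b ∈ A → ∀ e', (∃ b, en e' b = v) → ∀ b', fc e' b' ∈ A

variable {M : MeshC ι Φ W} {k : ι} {Vx Ed : Type}

namespace Shell

variable (S : Shell M k Vx Ed)

/-- the faces of `k` -/
abbrev Fk (_S : Shell M k Vx Ed) : Type := {F : Φ // k ∈ M.side F}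

/-- replace `k` by the collar cell over `F` -/
noncomputable def rep (F : Φ) (q : ι) : ι ⊕ S.Fk :=
  if h : q = k ∧ k ∈ M.side F then Sum.inr ⟨F, h.2⟩ else Sum.inl q

/-- cells: the old ones (`inl k` = the shrunk `k`) and one over every face of `k` -/
abbrev Cell (S : Shell M k Vx Ed) : Type := ι ⊕ S.Fk

/-- faces: the old ones, the bottom faces, the vertical faces -/
abbrev Face (S : Shell M k Vx Ed) : Type := Φ ⊕ (S.Fk ⊕ Ed)

/-- candidates: the old ones, their copies on the bottom, one point on every vertical edge -/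
abbrev Pnt (_S : Shell M k Vx Ed) : Type := W ⊕ (W ⊕ Vx)

noncomputable def side : S.Face → Sym2 S.Cell
  | Sum.inl F => (M.side F).map (S.rep F)
  | Sum.inr (Sum.inl F) => s(Sum.inr F, Sum.inl k)
  | Sum.inr (Sum.inr e) => s(Sum.inr ⟨S.fc e false, S.fc_side e false⟩,
      Sum.inr ⟨S.fc e true, S.fc_side e true⟩)

/-- top point -/
abbrev top (S : Shell M k Vx Ed) (w : W) : S.Pnt := Sum.inl w
/-- bottom point -/
abbrev bot (S : Shell M k Vx Ed) (w : W) : S.Pnt := Sum.inr (Sum.inl w)
/-- the point of the vertical edge over `v` -/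
abbrev vert (S : Shell M k Vx Ed) (v : Vx) : S.Pnt := Sum.inr (Sum.inr v)

def On : S.Face → Set S.Pnt
  | Sum.inl F => {x | ∃ w ∈ M.On F, x = S.top w}
  | Sum.inr (Sum.inl F) => {x | ∃ w ∈ M.On F.1, x = S.bot w}
  | Sum.inr (Sum.inr e) => {x | (∃ w ∈ S.OnE e, x = S.top w) ∨ (∃ w ∈ S.OnE e, x = S.bot w) ∨
      ∃ b, x = S.vert (S.en e b)}

/-- position on the boundary of the rectangle `e × I`: left vertical edge, top, right vertical
edge, bottom -/
noncomputable def pos : S.Face → S.Pnt → ℝ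
  | Sum.inl F, Sum.inl w => M.pos F w
  | Sum.inl _, Sum.inr _ => 0
  | Sum.inr (Sum.inl _), Sum.inl _ => 0
  | Sum.inr (Sum.inl F), Sum.inr (Sum.inl w) => M.pos F.1 w
  | Sum.inr (Sum.inl _), Sum.inr (Sum.inr _) => 0
  | Sum.inr (Sum.inr _), Sum.inl w => S.t w
  | Sum.inr (Sum.inr _), Sum.inr (Sum.inl w) => 3 - S.t w
  | Sum.inr (Sum.inr e), Sum.inr (Sum.inr v) => if v = S.en e false then -1 / 2 else 3 / 2

/-- position along the edge (top and bottom points together) -/
noncomputable def tau (e : Ed) : S.Pnt → ℝ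
  | Sum.inl w => S.t w
  | Sum.inr (Sum.inl w) => S.t w
  | Sum.inr (Sum.inr v) => if v = S.en e false then -1 / 2 else 3 / 2

theorem rep_of_ne {F : Φ} {q : ι} (h : q ≠ k) : S.rep F q = Sum.inl q :=
  dif_neg fun h' => h h'.1

theorem rep_self {F : Φ} (h : k ∈ M.side F) : S.rep F k = Sum.inr ⟨F, h⟩ := dif_pos ⟨rfl, h⟩

theorem rep_inj (F : Φ) : Function.Injective (S.rep F) := by
  intro q q' h
  unfold rep at h
  by_cases h1 : q = k ∧ k ∈ M.side F
  · by_cases h2 : q' = k ∧ k ∈ M.side F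
    · rw [h1.1, h2.1]
    · rw [dif_pos h1, dif_neg h2] at h
      cases h
  · by_cases h2 : q' = k ∧ k ∈ M.side F
    · rw [dif_neg h1, dif_pos h2] at h
      cases h
    · rw [dif_neg h1, dif_neg h2] at h
      exact Sum.inl.inj h

theorem rep_eq_inl {F : Φ} {q q' : ι} (hq : q ∈ M.side F) (h : S.rep F q = Sum.inl q') :
    q = q' ∧ q ≠ k := by
  unfold rep at h
  by_cases h1 : q = k ∧ k ∈ M.side F
  · rw [dif_pos h1] at h; cases h
  · rw [dif_neg h1] at h
    refine ⟨Sum.inl.inj h, fun hk => h1 ⟨hk, ?_⟩⟩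
    rw [← hk]; exact hq

theorem rep_eq_inr {F : Φ} {q : ι} {G : S.Fk} (h : S.rep F q = Sum.inr G) :
    q = k ∧ F = G.1 := by
  unfold rep at h
  by_cases h1 : q = k ∧ k ∈ M.side F
  · rw [dif_pos h1] at h
    exact ⟨h1.1, congrArg Subtype.val (Sum.inr.inj h)⟩
  · rw [dif_neg h1] at h; cases h

theorem inl_mem_side {F : Φ} {q : ι} :
    (Sum.inl q : S.Cell) ∈ S.side (Sum.inl F) ↔ q ∈ M.side F ∧ q ≠ k := by
  constructor
  · intro h
    obtain ⟨q', hq', he⟩ := Sym2.mem_map.1 h
    obtain ⟨rfl, hne⟩ := S.rep_eq_inl hq' he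
    exact ⟨hq', hne⟩
  · rintro ⟨h, hne⟩
    exact Sym2.mem_map.2 ⟨q, h, S.rep_of_ne hne⟩

theorem inr_mem_side {F : Φ} {G : S.Fk} :
    (Sum.inr G : S.Cell) ∈ S.side (Sum.inl F) ↔ F = G.1 := by
  constructor
  · intro h
    obtain ⟨q', hq', he⟩ := Sym2.mem_map.1 h
    exact (S.rep_eq_inr he).2
  · rintro rfl
    exact Sym2.mem_map.2 ⟨k, G.2, S.rep_self G.2⟩

theorem mem_side_bot {G : S.Fk} {q : S.Cell} :
    q ∈ S.side (Sum.inr (Sum.inl G)) ↔ q = Sum.inr G ∨ q = Sum.inl k := Sym2.mem_iff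

theorem mem_side_vert {e : Ed} {q : S.Cell} :
    q ∈ S.side (Sum.inr (Sum.inr e)) ↔ ∃ b, q = Sum.inr ⟨S.fc e b, S.fc_side e b⟩ := by
  constructor
  · intro h
    rcases Sym2.mem_iff.1 h with h | h
    · exact ⟨false, h⟩
    · exact ⟨true, h⟩
  · rintro ⟨b, rfl⟩
    cases b
    · exact Sym2.mem_mk_left _ _
    · exact Sym2.mem_mk_right _ _

theorem top_mem_On {F : Φ} {w : W} : S.top w ∈ S.On (Sum.inl F) ↔ w ∈ M.On F := by
  constructor
  · rintro ⟨w', h, he⟩
    rw [Sum.inl.inj he]; exact h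
  · intro h; exact ⟨w, h, rfl⟩

theorem bot_mem_On {G : S.Fk} {w : W} :
    S.bot w ∈ S.On (Sum.inr (Sum.inl G)) ↔ w ∈ M.On G.1 := by
  constructor
  · rintro ⟨w', h, he⟩
    rw [Sum.inl.inj (Sum.inr.inj he)]; exact h
  · intro h; exact ⟨w, h, rfl⟩

theorem bot_not_mem_On {F : Φ} {w : W} : S.bot w ∉ S.On (Sum.inl F) := by
  rintro ⟨w', h, he⟩
  cases he

theorem vert_not_mem_On {F : Φ} {v : Vx} : S.vert v ∉ S.On (Sum.inl F) := by
  rintro ⟨w', h, he⟩
  cases he

theorem top_not_mem_On {G : S.Fk} {w : W} : S.top w ∉ S.On (Sum.inr (Sum.inl G)) := by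
  rintro ⟨w', h, he⟩
  cases he

theorem vert_not_mem_On' {G : S.Fk} {v : Vx} : S.vert v ∉ S.On (Sum.inr (Sum.inl G)) := by
  rintro ⟨w', h, he⟩
  cases he

theorem top_mem_vert {e : Ed} {w : W} : S.top w ∈ S.On (Sum.inr (Sum.inr e)) ↔ w ∈ S.OnE e := by
  constructor
  · rintro (⟨w', h, he⟩ | ⟨w', h, he⟩ | ⟨b, he⟩)
    · rw [Sum.inl.inj he]; exact h
    · cases he
    · cases he
  · intro h; exact Or.inl ⟨w, h, rfl⟩

theorem bot_mem_vert {e : Ed} {w : W} : S.bot w ∈ S.On (Sum.inr (Sum.inr e)) ↔ w ∈ S.OnE e := by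
  constructor
  · rintro (⟨w', h, he⟩ | ⟨w', h, he⟩ | ⟨b, he⟩)
    · cases he
    · rw [Sum.inl.inj (Sum.inr.inj he)]; exact h
    · cases he
  · intro h; exact Or.inr (Or.inl ⟨w, h, rfl⟩)

theorem vert_mem_vert {e : Ed} {v : Vx} :
    S.vert v ∈ S.On (Sum.inr (Sum.inr e)) ↔ ∃ b, S.en e b = v := by
  constructor
  · rintro (⟨w', h, he⟩ | ⟨w', h, he⟩ | ⟨b, he⟩)
    · cases he
    · cases he
    · exact ⟨b, (Sum.inr.inj (Sum.inr.inj he)).symm⟩
  · rintro ⟨b, rfl⟩; exact Or.inr (Or.inr ⟨b, rfl⟩)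

theorem on_of_onE {e : Ed} {w : W} (h : w ∈ S.OnE e) (b : Bool) : w ∈ M.On (S.fc e b) :=
  (S.onE (S.fc_side e b)).2 ⟨e, b, rfl, h⟩

theorem fc_of_on {e : Ed} {w : W} (h : w ∈ S.OnE e) {F : Φ} (hF : k ∈ M.side F)
    (hw : w ∈ M.On F) : ∃ b, S.fc e b = F := by
  obtain ⟨e', b, hb, hw'⟩ := (S.onE hF).1 hw
  rw [S.onE_disj h hw']
  exact ⟨b, hb⟩

theorem en_of_ne {e : Ed} {v : Vx} (h : ∃ b, S.en e b = v) (hv : v ≠ S.en e false) :
    v = S.en e true := by
  obtain ⟨b, rfl⟩ := h
  cases b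
  · exact (hv rfl).elim
  · rfl

theorem side_nd (F : S.Face) : ¬ (S.side F).IsDiag := by
  rcases F with F | F | e
  · intro h
    have h1 : ((M.side F).map (S.rep F)).IsDiag := h
    rw [Sym2.isDiag_map (S.rep_inj F)] at h1
    exact M.side_nd F h1
  · intro h
    have h1 := Sym2.mk_isDiag_iff.1 h
    cases h1
  · intro h
    have h1 := Sym2.mk_isDiag_iff.1 h
    exact S.fc_ne e (congrArg Subtype.val (Sum.inr.inj h1))

theorem pos_inj (F : S.Face) : Set.InjOn (S.pos F) (S.On F) := by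
  rcases F with F | F | e
  · rintro x ⟨w, hw, rfl⟩ y ⟨w', hw', rfl⟩ h
    rw [M.pos_inj F hw hw' h]
  · rintro x ⟨w, hw, rfl⟩ y ⟨w', hw', rfl⟩ h
    rw [M.pos_inj F.1 hw hw' h]
  · have hv : ∀ b, S.pos (Sum.inr (Sum.inr e)) (S.vert (S.en e b)) = if b then 3 / 2 else -1 / 2 := by
      intro b
      cases b
      · simp [pos]
      · simp [pos, (S.en_ne e).symm]
    rintro x (⟨w, hw, rfl⟩ | ⟨w, hw, rfl⟩ | ⟨b, rfl⟩) y (⟨w', hw', rfl⟩ | ⟨w', hw', rfl⟩ | ⟨b', rfl⟩) h
    · rw [S.t_inj e hw hw' h]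
    · have h1 := S.t_lt hw
      have h2 := S.t_lt hw'
      have : S.t w = 3 - S.t w' := h
      linarith
    · rw [hv] at h
      have h1 := S.t_lt hw
      have h2 := S.t_pos hw
      have : S.t w = if b' then 3 / 2 else -1 / 2 := h
      split_ifs at this <;> linarith
    · have h1 := S.t_lt hw
      have h2 := S.t_lt hw'
      have : 3 - S.t w = S.t w' := h
      linarith
    · have : 3 - S.t w = 3 - S.t w' := h
      rw [S.t_inj e hw hw' (by linarith)]
    · rw [hv] at h
      have h1 := S.t_lt hw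
      have h2 := S.t_pos hw
      have : 3 - S.t w = if b' then 3 / 2 else -1 / 2 := h
      split_ifs at this <;> linarith
    · rw [hv] at h
      have h1 := S.t_lt hw'
      have h2 := S.t_pos hw'
      have : (if b then 3 / 2 else -1 / 2) = S.t w' := h
      split_ifs at this <;> linarith
    · rw [hv] at h
      have h1 := S.t_lt hw'
      have h2 := S.t_pos hw'
      have : (if b then 3 / 2 else -1 / 2) = 3 - S.t w' := h
      split_ifs at this <;> linarith
    · rw [hv, hv] at h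
      cases b <;> cases b' <;> simp at h ⊢ <;> linarith

theorem ncard_map {α β : Type} {s : Set α} {s' : Set β} (f : α → β) (hf : Function.Injective f)
    (h : s' = f '' s) : s'.ncard = s.ncard := by
  rw [h, Set.ncard_image_of_injective _ hf]

theorem deg (q : S.Cell) (x : S.Pnt) : {F | q ∈ S.side F ∧ x ∈ S.On F}.ncard = 0 ∨
    {F | q ∈ S.side F ∧ x ∈ S.On F}.ncard = 2 := by
  rcases q with q | G
  · rcases x with w | w | v
    · by_cases hq : q = k
      · left
        have : {F | (Sum.inl q : S.Cell) ∈ S.side F ∧ S.top w ∈ S.On F} = ∅ := by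
          ext F
          simp only [Set.mem_ofPred_eq, Set.mem_empty_iff_false, iff_false, not_and]
          rcases F with F | F | e
          · intro h
            exact ((S.inl_mem_side.1 h).2 hq).elim
          · intro _
            exact S.top_not_mem_On
          · intro h
            obtain ⟨b, hb⟩ := S.mem_side_vert.1 h
            cases hb
        change {F | (Sum.inl q : S.Cell) ∈ S.side F ∧ S.top w ∈ S.On F}.ncard = 0
        rw [this, Set.ncard_empty]
      · have : {F | (Sum.inl q : S.Cell) ∈ S.side F ∧ S.top w ∈ S.On F} =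
            Sum.inl '' {F | q ∈ M.side F ∧ w ∈ M.On F} := by
          ext F
          simp only [Set.mem_ofPred_eq, Set.mem_image]
          constructor
          · rintro ⟨h1, h2⟩
            rcases F with F | F | e
            · exact ⟨F, ⟨(S.inl_mem_side.1 h1).1, S.top_mem_On.1 h2⟩, rfl⟩
            · exact (S.top_not_mem_On h2).elim
            · obtain ⟨b, hb⟩ := S.mem_side_vert.1 h1
              cases hb
          · rintro ⟨F, ⟨h1, h2⟩, rfl⟩
            exact ⟨S.inl_mem_side.2 ⟨h1, hq⟩, S.top_mem_On.2 h2⟩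
        change {F | (Sum.inl q : S.Cell) ∈ S.side F ∧ S.top w ∈ S.On F}.ncard = 0 ∨
          {F | (Sum.inl q : S.Cell) ∈ S.side F ∧ S.top w ∈ S.On F}.ncard = 2
        rw [ncard_map _ Sum.inl_injective this]
        exact M.deg q w
    · by_cases hq : q = k
      · subst hq
        have : {F | (Sum.inl q : S.Cell) ∈ S.side F ∧ S.bot w ∈ S.On F} =
            (fun G : S.Fk => (Sum.inr (Sum.inl G) : S.Face)) '' {G | w ∈ M.On G.1} := by
          ext F
          simp only [Set.mem_ofPred_eq, Set.mem_image]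
          constructor
          · rintro ⟨h1, h2⟩
            rcases F with F | F | e
            · exact (S.bot_not_mem_On h2).elim
            · exact ⟨F, S.bot_mem_On.1 h2, rfl⟩
            · obtain ⟨b, hb⟩ := S.mem_side_vert.1 h1
              cases hb
          · rintro ⟨G, h2, rfl⟩
            exact ⟨S.mem_side_bot.2 (Or.inr rfl), S.bot_mem_On.2 h2⟩
        have h2 : {F | q ∈ M.side F ∧ w ∈ M.On F} =
            (fun G : S.Fk => G.1) '' {G | w ∈ M.On G.1} := by
          ext F
          simp only [Set.mem_ofPred_eq, Set.mem_image]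
          constructor
          · rintro ⟨h1, h2⟩
            exact ⟨⟨F, h1⟩, h2, rfl⟩
          · rintro ⟨G, h2, rfl⟩
            exact ⟨G.2, h2⟩
        have h3 := M.deg q w
        rw [ncard_map _ Subtype.val_injective h2] at h3
        change {F | (Sum.inl q : S.Cell) ∈ S.side F ∧ S.bot w ∈ S.On F}.ncard = 0 ∨
          {F | (Sum.inl q : S.Cell) ∈ S.side F ∧ S.bot w ∈ S.On F}.ncard = 2
        rw [ncard_map _ (fun a b h => Sum.inl.inj (Sum.inr.inj h)) this]
        exact h3
      · left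
        have : {F | (Sum.inl q : S.Cell) ∈ S.side F ∧ S.bot w ∈ S.On F} = ∅ := by
          ext F
          simp only [Set.mem_ofPred_eq, Set.mem_empty_iff_false, iff_false, not_and]
          rcases F with F | F | e
          · intro _
            exact S.bot_not_mem_On
          · intro h
            rcases S.mem_side_bot.1 h with h | h
            · cases h
            · exact (hq (Sum.inl.inj h)).elim
          · intro h
            obtain ⟨b, hb⟩ := S.mem_side_vert.1 h
            cases hb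
        change {F | (Sum.inl q : S.Cell) ∈ S.side F ∧ S.bot w ∈ S.On F}.ncard = 0
        rw [this, Set.ncard_empty]
    · left
      have : {F | (Sum.inl q : S.Cell) ∈ S.side F ∧ S.vert v ∈ S.On F} = ∅ := by
        ext F
        simp only [Set.mem_ofPred_eq, Set.mem_empty_iff_false, iff_false, not_and]
        rcases F with F | F | e
        · intro _
          exact S.vert_not_mem_On
        · intro _
          exact S.vert_not_mem_On'
        · intro h
          obtain ⟨b, hb⟩ := S.mem_side_vert.1 h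
          cases hb
      change {F | (Sum.inl q : S.Cell) ∈ S.side F ∧ S.vert v ∈ S.On F}.ncard = 0
      rw [this, Set.ncard_empty]
  · rcases x with w | w | v
    · by_cases hw : w ∈ M.On G.1
      · right
        obtain ⟨e, b, hb, hwe⟩ := (S.onE G.2).1 hw
        have : {F | (Sum.inr G : S.Cell) ∈ S.side F ∧ S.top w ∈ S.On F} =
            {Sum.inl G.1, Sum.inr (Sum.inr e)} := by
          ext F
          simp only [Set.mem_ofPred_eq, Set.mem_insert_iff, Set.mem_singleton_iff]
          constructor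
          · rintro ⟨h1, h2⟩
            rcases F with F | F | e'
            · left; rw [S.inr_mem_side.1 h1]
            · exact (S.top_not_mem_On h2).elim
            · right
              rw [S.onE_disj hwe (S.top_mem_vert.1 h2)]
          · rintro (rfl | rfl)
            · exact ⟨S.inr_mem_side.2 rfl, S.top_mem_On.2 hw⟩
            · exact ⟨S.mem_side_vert.2 ⟨b, by congr 1; exact Subtype.ext hb.symm⟩,
                S.top_mem_vert.2 hwe⟩
        change {F | (Sum.inr G : S.Cell) ∈ S.side F ∧ S.top w ∈ S.On F}.ncard = 2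
        rw [this]
        exact Set.ncard_pair (by intro h; cases h)
      · left
        have : {F | (Sum.inr G : S.Cell) ∈ S.side F ∧ S.top w ∈ S.On F} = ∅ := by
          ext F
          simp only [Set.mem_ofPred_eq, Set.mem_empty_iff_false, iff_false, not_and]
          rcases F with F | F | e'
          · intro h1 h2
            rw [S.inr_mem_side.1 h1] at h2
            exact hw (S.top_mem_On.1 h2)
          · intro _
            exact S.top_not_mem_On
          · intro h1 h2
            obtain ⟨b, hb⟩ := S.mem_side_vert.1 h1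
            have h3 := S.on_of_onE (S.top_mem_vert.1 h2) b
            have h4 : G.1 = S.fc e' b := congrArg Subtype.val (Sum.inr.inj hb)
            rw [← h4] at h3
            exact hw h3
        change {F | (Sum.inr G : S.Cell) ∈ S.side F ∧ S.top w ∈ S.On F}.ncard = 0
        rw [this, Set.ncard_empty]
    · by_cases hw : w ∈ M.On G.1
      · right
        obtain ⟨e, b, hb, hwe⟩ := (S.onE G.2).1 hw
        have : {F | (Sum.inr G : S.Cell) ∈ S.side F ∧ S.bot w ∈ S.On F} =
            {Sum.inr (Sum.inl G), Sum.inr (Sum.inr e)} := by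
          ext F
          simp only [Set.mem_ofPred_eq, Set.mem_insert_iff, Set.mem_singleton_iff]
          constructor
          · rintro ⟨h1, h2⟩
            rcases F with F | F | e'
            · exact (S.bot_not_mem_On h2).elim
            · rcases S.mem_side_bot.1 h1 with h | h
              · left; rw [Sum.inr.inj h]
              · cases h
            · right
              rw [S.onE_disj hwe (S.bot_mem_vert.1 h2)]
          · rintro (rfl | rfl)
            · exact ⟨S.mem_side_bot.2 (Or.inl rfl), S.bot_mem_On.2 hw⟩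
            · exact ⟨S.mem_side_vert.2 ⟨b, by congr 1; exact Subtype.ext hb.symm⟩,
                S.bot_mem_vert.2 hwe⟩
        change {F | (Sum.inr G : S.Cell) ∈ S.side F ∧ S.bot w ∈ S.On F}.ncard = 2
        rw [this]
        exact Set.ncard_pair (by intro h; cases h)
      · left
        have : {F | (Sum.inr G : S.Cell) ∈ S.side F ∧ S.bot w ∈ S.On F} = ∅ := by
          ext F
          simp only [Set.mem_ofPred_eq, Set.mem_empty_iff_false, iff_false, not_and]
          rcases F with F | F | e'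
          · intro _
            exact S.bot_not_mem_On
          · intro h1 h2
            rcases S.mem_side_bot.1 h1 with h | h
            · rw [Sum.inr.inj h] at hw
              exact hw (S.bot_mem_On.1 h2)
            · cases h
          · intro h1 h2
            obtain ⟨b, hb⟩ := S.mem_side_vert.1 h1
            have h3 := S.on_of_onE (S.bot_mem_vert.1 h2) b
            have h4 : G.1 = S.fc e' b := congrArg Subtype.val (Sum.inr.inj hb)
            rw [← h4] at h3
            exact hw h3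
        change {F | (Sum.inr G : S.Cell) ∈ S.side F ∧ S.bot w ∈ S.On F}.ncard = 0
        rw [this, Set.ncard_empty]
    · have : {F | (Sum.inr G : S.Cell) ∈ S.side F ∧ S.vert v ∈ S.On F} =
          (fun e : Ed => (Sum.inr (Sum.inr e) : S.Face)) ''
            {e | (∃ b, S.fc e b = G.1) ∧ ∃ b, S.en e b = v} := by
        ext F
        simp only [Set.mem_ofPred_eq, Set.mem_image]
        constructor
        · rintro ⟨h1, h2⟩
          rcases F with F | F | e
          · exact (S.vert_not_mem_On h2).elim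
          · exact (S.vert_not_mem_On' h2).elim
          · obtain ⟨b, hb⟩ := S.mem_side_vert.1 h1
            exact ⟨e, ⟨⟨b, (congrArg Subtype.val (Sum.inr.inj hb)).symm⟩,
              S.vert_mem_vert.1 h2⟩, rfl⟩
        · rintro ⟨e, ⟨⟨b, hb⟩, h2⟩, rfl⟩
          exact ⟨S.mem_side_vert.2 ⟨b, by congr 1; exact Subtype.ext hb.symm⟩,
            S.vert_mem_vert.2 h2⟩
      change {F | (Sum.inr G : S.Cell) ∈ S.side F ∧ S.vert v ∈ S.On F}.ncard = 0 ∨
        {F | (Sum.inr G : S.Cell) ∈ S.side F ∧ S.vert v ∈ S.On F}.ncard = 2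
      rw [ncard_map _ (fun a b h => Sum.inr.inj (Sum.inr.inj h)) this]
      exact S.vdeg G.1 v

theorem fin (x : S.Pnt) : {F | x ∈ S.On F}.Finite := by
  rcases x with w | w | v
  · have : {F | S.top w ∈ S.On F} ⊆ (Sum.inl '' {F | w ∈ M.On F}) ∪
        ((fun e : Ed => (Sum.inr (Sum.inr e) : S.Face)) '' {e | w ∈ S.OnE e}) := by
      rintro F h
      rcases F with F | F | e
      · exact Or.inl ⟨F, S.top_mem_On.1 h, rfl⟩
      · exact (S.top_not_mem_On h).elim
      · exact Or.inr ⟨e, S.top_mem_vert.1 h, rfl⟩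
    refine Set.Finite.subset (Set.Finite.union ((M.fin w).image _) (Set.Finite.image _ ?_)) this
    exact Set.Subsingleton.finite fun e he e' he' => S.onE_disj he he'
  · have : {F | S.bot w ∈ S.On F} ⊆
        ((fun G : S.Fk => (Sum.inr (Sum.inl G) : S.Face)) '' {G | w ∈ M.On G.1}) ∪
        ((fun e : Ed => (Sum.inr (Sum.inr e) : S.Face)) '' {e | w ∈ S.OnE e}) := by
      rintro F h
      rcases F with F | F | e
      · exact (S.bot_not_mem_On h).elim
      · exact Or.inl ⟨F, S.bot_mem_On.1 h, rfl⟩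
      · exact Or.inr ⟨e, S.bot_mem_vert.1 h, rfl⟩
    refine Set.Finite.subset (Set.Finite.union (Set.Finite.image _ ?_) (Set.Finite.image _ ?_)) this
    · exact (M.fin w).preimage (Subtype.val_injective.injOn)
    · exact Set.Subsingleton.finite fun e he e' he' => S.onE_disj he he'
  · have : {F | S.vert v ∈ S.On F} ⊆
        ((fun e : Ed => (Sum.inr (Sum.inr e) : S.Face)) '' {e | ∃ b, S.en e b = v}) := by
      rintro F h
      rcases F with F | F | e
      · exact (S.vert_not_mem_On h).elim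
      · exact (S.vert_not_mem_On' h).elim
      · exact ⟨e, S.vert_mem_vert.1 h, rfl⟩
    exact Set.Finite.subset ((S.vfin v).image _) this

theorem fc_pair {e : Ed} {G : Φ} (h : ∃ b, S.fc e b = G) (G' : Φ) (h' : ∃ b, S.fc e b = G')
    {A : Set Φ} (hA : ∀ b, S.fc e b ∈ A → S.fc e (!b) ∈ A) (hG : G ∈ A) : G' ∈ A := by
  obtain ⟨b, rfl⟩ := h
  obtain ⟨b', rfl⟩ := h'
  by_cases hb : b' = b
  · rw [hb]; exact hG
  · have : b' = !b := by cases b <;> cases b' <;> simp_all
    rw [this]; exact hA b hG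

theorem link (x : S.Pnt) (A : Set S.Cell)
    (hA : ∀ F, x ∈ S.On F → ∀ q ∈ S.side F, ∀ q' ∈ S.side F, q ∈ A → q' ∈ A) :
    ∀ F, x ∈ S.On F → ∀ q ∈ S.side F, q ∈ A → ∀ F', x ∈ S.On F' → ∀ q' ∈ S.side F', q' ∈ A := by
  rcases x with w | w | v
  · -- top point
    -- cells over the faces of `k` at `w` are equivalent
    have hinr : ∀ G G' : S.Fk, w ∈ M.On G.1 → w ∈ M.On G'.1 → Sum.inr G ∈ A → Sum.inr G' ∈ A := by
      intro G G' hG hG' h
      obtain ⟨e, b, hb, hwe⟩ := (S.onE G.2).1 hG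
      obtain ⟨b', hb'⟩ := S.fc_of_on hwe G'.2 hG'
      refine hA (Sum.inr (Sum.inr e)) (S.top_mem_vert.2 hwe) (Sum.inr G)
        (S.mem_side_vert.2 ⟨b, by congr 1; exact Subtype.ext hb.symm⟩) (Sum.inr G')
        (S.mem_side_vert.2 ⟨b', by congr 1; exact Subtype.ext hb'.symm⟩) h
    let A0 : Set ι := {q | (q ≠ k ∧ Sum.inl q ∈ A) ∨
      (q = k ∧ ∃ G : S.Fk, w ∈ M.On G.1 ∧ Sum.inr G ∈ A)}
    have hrep : ∀ F, w ∈ M.On F → ∀ q ∈ M.side F, (q ∈ A0 ↔ S.rep F q ∈ A) := by
      intro F hF q hq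
      by_cases hk : q = k
      · subst hk
        rw [S.rep_self hq]
        constructor
        · rintro (⟨h, _⟩ | ⟨_, G, hG, hGA⟩)
          · exact (h rfl).elim
          · exact hinr G ⟨F, hq⟩ hG hF hGA
        · intro h
          exact Or.inr ⟨rfl, ⟨F, hq⟩, hF, h⟩
      · rw [S.rep_of_ne hk]
        constructor
        · rintro (⟨_, h⟩ | ⟨h, _⟩)
          · exact h
          · exact (hk h).elim
        · intro h
          exact Or.inl ⟨hk, h⟩
    have hA0 : ∀ F, w ∈ M.On F → ∀ q ∈ M.side F, ∀ q' ∈ M.side F, q ∈ A0 → q' ∈ A0 := by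
      intro F hF q hq q' hq' h
      rw [hrep F hF q' hq']
      exact hA (Sum.inl F) (S.top_mem_On.2 hF) (S.rep F q) (Sym2.mem_map.2 ⟨q, hq, rfl⟩)
        (S.rep F q') (Sym2.mem_map.2 ⟨q', hq', rfl⟩) ((hrep F hF q hq).1 h)
    -- every face at the point has a cell of the form `rep F q`
    have hred : ∀ F, Sum.inl w ∈ S.On F → ∀ q ∈ S.side F, ∃ F0, w ∈ M.On F0 ∧
        ∃ q0 ∈ M.side F0, S.rep F0 q0 = q := by
      intro F hF q hq
      rcases F with F | F | e
      · obtain ⟨q0, hq0, rfl⟩ := Sym2.mem_map.1 hq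
        exact ⟨F, S.top_mem_On.1 hF, q0, hq0, rfl⟩
      · exact (S.top_not_mem_On hF).elim
      · obtain ⟨b, rfl⟩ := S.mem_side_vert.1 hq
        exact ⟨S.fc e b, S.on_of_onE (S.top_mem_vert.1 hF) b, k, S.fc_side e b,
          S.rep_self (S.fc_side e b)⟩
    intro F hF q hq hqA F' hF' q' hq'
    obtain ⟨F0, hF0, q0, hq0, rfl⟩ := hred F hF q hq
    obtain ⟨F1, hF1, q1, hq1, rfl⟩ := hred F' hF' q' hq'
    exact (hrep F1 hF1 q1 hq1).1
      (M.link w A0 hA0 F0 hF0 q0 hq0 ((hrep F0 hF0 q0 hq0).2 hqA) F1 hF1 q1 hq1)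
  · -- bottom point
    have hk : ∀ F, (Sum.inr (Sum.inl w) : S.Pnt) ∈ S.On F → ∀ q ∈ S.side F,
        (q ∈ A ↔ (Sum.inl k : S.Cell) ∈ A) := by
      intro F hF q hq
      rcases F with F | G | e
      · exact (S.bot_not_mem_On hF).elim
      · rcases S.mem_side_bot.1 hq with rfl | rfl
        · exact ⟨hA _ hF _ (S.mem_side_bot.2 (Or.inl rfl)) _ (S.mem_side_bot.2 (Or.inr rfl)),
            hA _ hF _ (S.mem_side_bot.2 (Or.inr rfl)) _ (S.mem_side_bot.2 (Or.inl rfl))⟩
        · exact Iff.rfl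
      · obtain ⟨b, rfl⟩ := S.mem_side_vert.1 hq
        have hwe := S.bot_mem_vert.1 hF
        have hF' : S.bot w ∈ S.On (Sum.inr (Sum.inl ⟨S.fc e b, S.fc_side e b⟩)) :=
          S.bot_mem_On.2 (S.on_of_onE hwe b)
        exact ⟨hA _ hF' _ (S.mem_side_bot.2 (Or.inl rfl)) _ (S.mem_side_bot.2 (Or.inr rfl)),
            hA _ hF' _ (S.mem_side_bot.2 (Or.inr rfl)) _ (S.mem_side_bot.2 (Or.inl rfl))⟩
    intro F hF q hq hqA F' hF' q' hq'
    exact (hk F' hF' q' hq').2 ((hk F hF q hq).1 hqA)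
  · -- vertical edge
    let A0 : Set Φ := {F | ∃ h : k ∈ M.side F, (Sum.inr ⟨F, h⟩ : S.Cell) ∈ A}
    have h0 : ∀ e, (∃ b, S.en e b = v) → ∀ b, S.fc e b ∈ A0 → S.fc e (!b) ∈ A0 := by
      rintro e he b ⟨_, h⟩
      refine ⟨S.fc_side e (!b), ?_⟩
      exact hA (Sum.inr (Sum.inr e)) (S.vert_mem_vert.2 he) _ (S.mem_side_vert.2 ⟨b, rfl⟩) _
        (S.mem_side_vert.2 ⟨!b, rfl⟩) h
    have hred : ∀ F, (Sum.inr (Sum.inr v) : S.Pnt) ∈ S.On F → ∀ q ∈ S.side F,
        ∃ e b, (∃ b, S.en e b = v) ∧ q = Sum.inr ⟨S.fc e b, S.fc_side e b⟩ := by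
      intro F hF q hq
      rcases F with F | G | e
      · exact (S.vert_not_mem_On hF).elim
      · exact (S.vert_not_mem_On' hF).elim
      · obtain ⟨b, rfl⟩ := S.mem_side_vert.1 hq
        exact ⟨e, b, S.vert_mem_vert.1 hF, rfl⟩
    intro F hF q hq hqA F' hF' q' hq'
    obtain ⟨e, b, he, rfl⟩ := hred F hF q hq
    obtain ⟨e', b', he', rfl⟩ := hred F' hF' q' hq'
    exact (S.vlink v A0 h0 e he b ⟨S.fc_side e b, hqA⟩ e' he' b').2

/-- the mesh with one more layer -/
noncomputable def mesh (S : Shell M k Vx Ed) : MeshC S.Cell S.Face S.Pnt where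
  side := S.side
  side_nd := S.side_nd
  On := S.On
  pos := S.pos
  pos_inj := S.pos_inj
  deg := S.deg
  fin := S.fin
  link := S.link

/-- the boundary sphere of the shrunk cell -/
noncomputable def next (S : Shell M k Vx Ed) : Shell S.mesh (Sum.inl k) Vx Ed where
  en := S.en
  en_ne := S.en_ne
  fc := fun e b => Sum.inr (Sum.inl ⟨S.fc e b, S.fc_side e b⟩)
  fc_ne := fun e h => S.fc_ne e (congrArg Subtype.val (Sum.inl.inj (Sum.inr.inj h)))
  fc_side := fun e b => S.mem_side_bot.2 (Or.inr rfl)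
  OnE := fun e => {x | ∃ w ∈ S.OnE e, x = S.bot w}
  onE := by
    intro F x hF
    rcases F with F | G | e
    · exact ((S.inl_mem_side.1 hF).2 rfl).elim
    · constructor
      · rintro ⟨w, hw, rfl⟩
        obtain ⟨e, b, hb, hwe⟩ := (S.onE G.2).1 hw
        exact ⟨e, b, by congr 2; exact Subtype.ext hb, w, hwe, rfl⟩
      · rintro ⟨e, b, hb, w, hw, rfl⟩
        have h1 : S.fc e b = G.1 := congrArg Subtype.val (Sum.inl.inj (Sum.inr.inj hb))
        exact S.bot_mem_On.2 ((S.onE G.2).2 ⟨e, b, h1, hw⟩)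
    · obtain ⟨b, hb⟩ := S.mem_side_vert.1 hF
      cases hb
  onE_disj := by
    rintro e e' x ⟨w, hw, rfl⟩ ⟨w', hw', he⟩
    rw [← Sum.inl.inj (Sum.inr.inj he)] at hw'
    exact S.onE_disj hw hw'
  t := fun x => match x with
    | Sum.inl _ => 0
    | Sum.inr (Sum.inl w) => S.t w
    | Sum.inr (Sum.inr _) => 0
  t_inj := by
    rintro e x ⟨w, hw, rfl⟩ y ⟨w', hw', rfl⟩ h
    rw [S.t_inj e hw hw' h]
  t_pos := by
    rintro e x ⟨w, hw, rfl⟩
    exact S.t_pos hw
  t_lt := by
    rintro e x ⟨w, hw, rfl⟩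
    exact S.t_lt hw
  vdeg := by
    intro F v
    rcases F with F | G | e
    · left
      have : {e | (∃ b, (Sum.inr (Sum.inl ⟨S.fc e b, S.fc_side e b⟩) : S.Face) = Sum.inl F) ∧
          ∃ b, S.en e b = v} = ∅ := by
        ext e
        simp
      rw [this, Set.ncard_empty]
    · have : {e | (∃ b, (Sum.inr (Sum.inl ⟨S.fc e b, S.fc_side e b⟩) : S.Face) =
          Sum.inr (Sum.inl G)) ∧ ∃ b, S.en e b = v} =
          {e | (∃ b, S.fc e b = G.1) ∧ ∃ b, S.en e b = v} := by
        ext e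
        constructor
        · rintro ⟨⟨b, hb⟩, h⟩
          exact ⟨⟨b, congrArg Subtype.val (Sum.inl.inj (Sum.inr.inj hb))⟩, h⟩
        · rintro ⟨⟨b, hb⟩, h⟩
          exact ⟨⟨b, by congr 2; exact Subtype.ext hb⟩, h⟩
      rw [this]
      exact S.vdeg G.1 v
    · left
      have : {e' | (∃ b, (Sum.inr (Sum.inl ⟨S.fc e' b, S.fc_side e' b⟩) : S.Face) =
          Sum.inr (Sum.inr e)) ∧ ∃ b, S.en e' b = v} = ∅ := by
        ext e
        simp
      rw [this, Set.ncard_empty]
  vfin := S.vfin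
  vlink := by
    intro v A hA e he b hb e' he' b'
    let A0 : Set Φ := {F | ∃ h : k ∈ M.side F, (Sum.inr (Sum.inl ⟨F, h⟩) : S.Face) ∈ A}
    have h0 : ∀ e, (∃ b, S.en e b = v) → ∀ b, S.fc e b ∈ A0 → S.fc e (!b) ∈ A0 := by
      rintro e he b ⟨_, h⟩
      exact ⟨S.fc_side e (!b), hA e he b h⟩
    exact (S.vlink v A0 h0 e he b ⟨S.fc_side e b, hb⟩ e' he' b').2

end Shell

end Crest.Agent.R096.Door_501
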