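import Crest.Agent.R096.Door4_501

/-!
# Row 96, DOORS (helper501), part 10: exactly one essential curve (the side of the sheet)

Purely combinatorial: `s : GSt M fam`, a sheet `i` with `H1` and `Conn`, `π : ι → ι'` (cells with
the same image are merged), `r` = root, `R0` = points joined with `r` by chords on faces which are
not inside a merged cell.

* `InF M π k F`   : both sides of `F` are in the merged cell `k`;
* `FrF M π k F`   : `F` is a face of the merged cell `k`;
* `Psi s π i k γ Ψ` : `Ψ` is constant along the chords which are not inside `k`, `Ψ + 1_γ` is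
  constant along the chords inside `k`;
* `exists_psi`    : it exists if `γ` is closed under the chords on the faces of `k`;
* `ess_unique`, `ess_exists` : **exactly one curve `γ` of `R0` on the boundary of `k` has
  `Ψ d ≠ Ψ r`**, for every point `d` of the sheet which is not in `R0` and which is joined with `r`
  by chords not inside `k'`, for every `k' ≠ k`.
-/

set_option autoImplicit false

namespace Crest.Agent.R096.Door_501

open Crest.Agent.R096.St_147 Crest.Agent.R096.Seq_213 Crest.Agent.R096.Msh_715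

theorem ess_a (a b : ZMod 2) : a + (a + b) = b := by
  revert a b; decide

theorem ess_b (a b : ZMod 2) (h : a + b = 0) : a = b := by
  revert a b; decide

theorem ess_c (a : ZMod 2) (h : a ≠ 0) : a = 1 := by
  revert a; decide

theorem ess_d (a b c : ZMod 2) (h : a + b = c) : b = a + c := by
  revert a b c; decide

theorem ess_e (a b : ZMod 2) (h : a ≠ b) : a + b = 1 := by
  revert a b; decide

theorem ess_f (a : ZMod 2) (h : a = 1 + 1) : a = 0 := by
  revert a; decide

open Classical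

variable {ι ι' Φ W J C : Type} {M : MeshC ι Φ W} {fam : J → C}

/-- `F` is inside the merged cell `k` -/
def InF (M : MeshC ι Φ W) (π : ι → ι') (k : ι') (F : Φ) : Prop := ∀ q ∈ M.side F, π q = k

/-- `F` is a face of the merged cell `k` -/
def FrF (M : MeshC ι Φ W) (π : ι → ι') (k : ι') (F : Φ) : Prop :=
  ¬ ((M.side F).map π).IsDiag ∧ ∃ q ∈ M.side F, π q = k

theorem exists_side (M : MeshC ι Φ W) (F : Φ) : ∃ q, q ∈ M.side F := by
  induction M.side F using Sym2.ind with
  | _ x y => exact ⟨x, Sym2.mem_mk_left _ _⟩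

theorem diag_iff {π : ι → ι'} {F : Φ} : ((M.side F).map π).IsDiag ↔ ∃ k, InF M π k F := by
  rw [map_isDiag_iff]
  constructor
  · intro h
    obtain ⟨q, hq⟩ := exists_side M F
    exact ⟨π q, fun q' hq' => h q' hq' q hq⟩
  · rintro ⟨k, h⟩ q hq q' hq'
    rw [h q hq, h q' hq']

theorem not_inF {π : ι → ι'} {F : Φ} (h : ¬ ((M.side F).map π).IsDiag) (k : ι') :
    ¬ InF M π k F := fun h' => h (diag_iff.2 ⟨k, h'⟩)

theorem frF_of {π : ι → ι'} {F : Φ} {k : ι'} {q : ι} (hq : q ∈ M.side F) (hk : π q = k)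
    (h : ¬ InF M π k F) : FrF M π k F := by
  refine ⟨fun h' => ?_, q, hq, hk⟩
  obtain ⟨k', h'⟩ := diag_iff.1 h'
  have := h' q hq
  rw [hk] at this
  subst this
  exact h h'

theorem inF_unique {π : ι → ι'} {F : Φ} {k k' : ι'} (h : InF M π k F) (h' : InF M π k' F) :
    k = k' := by
  obtain ⟨q, hq⟩ := exists_side M F
  rw [← h q hq, h' q hq]

/-- a point with a face inside `k` and a face not inside `k` is on a face of `k` -/
theorem exists_frF {π : ι → ι'} {F F' : Φ} {k : ι'} {w : W} (hw : w ∈ M.On F)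
    (hF : InF M π k F) (hw' : w ∈ M.On F') (hF' : ¬ InF M π k F') :
    ∃ G, FrF M π k G ∧ w ∈ M.On G := by
  by_contra hno
  obtain ⟨q, hq⟩ := exists_side M F
  refine hF' fun q' hq' => ?_
  refine M.link w {q | π q = k} ?_ F hw q hq (hF q hq) F' hw' q' hq'
  intro G hG q1 hq1 q2 hq2 h1
  have h1 : π q1 = k := h1
  by_contra h2
  exact hno ⟨G, frF_of hq1 h1 (fun h => h2 (h q2 hq2)), hG⟩

/-- potential of a set of points on the boundary of the merged cell `k` -/
def Psi (s : GSt M fam) (π : ι → ι') (i : J) (k : ι') (γ : Set W) (Ψ : W → ZMod 2) : Prop :=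
  ∀ F w, s.At F w → s.lab w = i → Ψ w + Ψ (s.mu F w) =
    if InF M π k F then (if w ∈ γ then 1 else 0) + (if s.mu F w ∈ γ then 1 else 0) else 0

/-- one step along a chord on a face of the merged cell `k` -/
def FStep (s : GSt M fam) (π : ι → ι') (k : ι') (w w' : W) : Prop :=
  ∃ F, FrF M π k F ∧ w ∈ s.P ∧ w ∈ M.On F ∧ w' = s.mu F w

/-- the closed curve of `w` on the boundary of the merged cell `k` -/
def crv (s : GSt M fam) (π : ι → ι') (k : ι') (w : W) : Set W :=
  {w' | Relation.ReflTransGen (FStep s π k) w w'}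

theorem FStep.symm {s : GSt M fam} {π : ι → ι'} {k : ι'} {w w' : W} (h : FStep s π k w w') :
    FStep s π k w' w := by
  obtain ⟨F, h1, h2, h3, rfl⟩ := h
  have h4 := s.mu_mem h2 h3
  exact ⟨F, h1, h4.1, h4.2, (s.mu_mu h2 h3).symm⟩

theorem FStep.ostep {s : GSt M fam} {π : ι → ι'} {k : ι'} {w w' : W} (h : FStep s π k w w') :
    OStep s π w w' := by
  obtain ⟨F, h1, h2, h3, h4⟩ := h
  exact ⟨F, h1.1, h2, h3, h4⟩

theorem freach_symm {s : GSt M fam} {π : ι → ι'} {k : ι'} {w w' : W}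
    (h : Relation.ReflTransGen (FStep s π k) w w') :
    Relation.ReflTransGen (FStep s π k) w' w := by
  induction h with
  | refl => exact Relation.ReflTransGen.refl
  | tail _ h2 ih => exact Relation.ReflTransGen.head h2.symm ih

theorem crv_symm {s : GSt M fam} {π : ι → ι'} {k : ι'} {w w' : W} (h : w' ∈ crv s π k w) :
    w ∈ crv s π k w' := freach_symm h

theorem crv_trans {s : GSt M fam} {π : ι → ι'} {k : ι'} {a b c : W} (h : b ∈ crv s π k a)
    (h' : c ∈ crv s π k b) : c ∈ crv s π k a :=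
  Relation.ReflTransGen.trans (show Relation.ReflTransGen (FStep s π k) a b from h) h'

theorem freach_ostep {s : GSt M fam} {π : ι → ι'} {k : ι'} {w w' : W}
    (h : Relation.ReflTransGen (FStep s π k) w w') : Relation.ReflTransGen (OStep s π) w w' := by
  induction h with
  | refl => exact Relation.ReflTransGen.refl
  | tail _ h2 ih => exact ih.tail h2.ostep

theorem crv_ostep {s : GSt M fam} {π : ι → ι'} {k : ι'} {w w' : W} (h : w' ∈ crv s π k w) :
    Relation.ReflTransGen (OStep s π) w w' := freach_ostep h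

theorem crv_mu {s : GSt M fam} {π : ι → ι'} {k : ι'} {w w' : W} {F : Φ} (hF : FrF M π k F)
    (hP : w' ∈ s.P) (hw : w' ∈ M.On F) : s.mu F w' ∈ crv s π k w ↔ w' ∈ crv s π k w := by
  constructor
  · intro h
    exact Relation.ReflTransGen.tail h
      ⟨F, hF, (s.mu_mem hP hw).1, (s.mu_mem hP hw).2, (s.mu_mu hP hw).symm⟩
  · intro h
    exact Relation.ReflTransGen.tail h ⟨F, hF, hP, hw, rfl⟩

/-- existence of the potential -/
theorem exists_psi {s : GSt M fam} {π : ι → ι'} {i : J} (h1 : s.H1 i) (k : ι') (γ : Set W)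
    (hγ : ∀ F w, FrF M π k F → s.At F w → s.lab w = i → (s.mu F w ∈ γ ↔ w ∈ γ)) :
    ∃ Ψ, Psi s π i k γ Ψ := by
  obtain ⟨Ψ, hΨ⟩ := h1 (fun F w => if InF M π k F then
    (if w ∈ γ then 1 else 0) + (if s.mu F w ∈ γ then 1 else 0) else 0) (by
    intro q
    by_cases hq : π q = k
    · refine ⟨fun w => if w ∈ γ then 1 else 0, fun F w hF hw hl => ?_⟩
      by_cases hin : InF M π k F
      · rw [if_pos hin]
      · rw [if_neg hin]
        have h2 := hγ F w (frF_of hF hq hin) hw hl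
        show (0 : ZMod 2) = (if w ∈ γ then 1 else 0) + (if s.mu F w ∈ γ then 1 else 0)
        by_cases h3 : w ∈ γ
        · rw [if_pos h3, if_pos (h2.2 h3)]; rfl
        · rw [if_neg h3, if_neg (fun h => h3 (h2.1 h))]; rfl
    · refine ⟨0, fun F w hF _ _ => ?_⟩
      rw [if_neg (fun h => hq (h q hF))]
      simp)
  exact ⟨Ψ, fun F w hw hl => (hΨ F w hw hl).symm⟩

theorem exists_psi_crv {s : GSt M fam} {π : ι → ι'} {i : J} (h1 : s.H1 i) (k : ι') (w : W) :
    ∃ Ψ, Psi s π i k (crv s π k w) Ψ :=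
  exists_psi h1 k _ fun _ _ hF hw _ => crv_mu hF hw.1 hw.2

/-- the potential is constant along chords which are not inside `k` -/
theorem Psi.out {s : GSt M fam} {π : ι → ι'} {i : J} {k : ι'} {γ : Set W} {Ψ : W → ZMod 2}
    (h : Psi s π i k γ Ψ) {F : Φ} {w : W} (hw : s.At F w) (hl : s.lab w = i)
    (hF : ¬ InF M π k F) : Ψ (s.mu F w) = Ψ w := by
  have := h F w hw hl
  rw [if_neg hF] at this
  exact (ess_b _ _ this).symm

theorem Psi.reach {s : GSt M fam} {π : ι → ι'} {i : J} {k : ι'} {γ : Set W} {Ψ : W → ZMod 2}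
    (h : Psi s π i k γ Ψ) {w w' : W} (hl : s.lab w = i)
    (hr : Relation.ReflTransGen (OStep s π) w w') : Ψ w' = Ψ w := by
  induction hr with
  | refl => rfl
  | tail h1 h2 ih =>
    obtain ⟨F, g1, g2, g3, rfl⟩ := h2
    rw [h.out ⟨g2, g3⟩ ((oreach_lab h1).trans hl) (not_inF g1 k)]
    exact ih

/-- a step along a chord which is not inside `k` -/
def NStep (s : GSt M fam) (π : ι → ι') (k : ι') (w w' : W) : Prop :=
  ∃ F, ¬ InF M π k F ∧ w ∈ s.P ∧ w ∈ M.On F ∧ w' = s.mu F w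

theorem nreach_lab {s : GSt M fam} {π : ι → ι'} {k : ι'} {w w' : W}
    (h : Relation.ReflTransGen (NStep s π k) w w') : s.lab w' = s.lab w := by
  induction h with
  | refl => rfl
  | tail _ h2 ih =>
    obtain ⟨F, _, g2, g3, rfl⟩ := h2
    exact (s.mu_lab g2 g3).trans ih

theorem Psi.nreach {s : GSt M fam} {π : ι → ι'} {i : J} {k : ι'} {γ : Set W} {Ψ : W → ZMod 2}
    (h : Psi s π i k γ Ψ) {w w' : W} (hl : s.lab w = i)
    (hr : Relation.ReflTransGen (NStep s π k) w w') : Ψ w' = Ψ w := by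
  induction hr with
  | refl => rfl
  | tail h1 h2 ih =>
    obtain ⟨F, g1, g2, g3, rfl⟩ := h2
    rw [h.out ⟨g2, g3⟩ ((nreach_lab h1).trans hl) g1]
    exact ih

/-- a step along a chord inside `k` -/
def IStep (s : GSt M fam) (π : ι → ι') (k : ι') (w w' : W) : Prop :=
  ∃ F, (∃ q ∈ M.side F, π q = k) ∧ w ∈ s.P ∧ w ∈ M.On F ∧ w' = s.mu F w

/-- `Ψ + 1_γ` is constant along the chords of the faces of the cells merged to `k` -/
theorem Psi.ireach {s : GSt M fam} {π : ι → ι'} {i : J} {k : ι'} {γ : Set W} {Ψ : W → ZMod 2}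
    (h : Psi s π i k γ Ψ)
    (hγ : ∀ F w, FrF M π k F → s.At F w → s.lab w = i → (s.mu F w ∈ γ ↔ w ∈ γ))
    {w w' : W} (hl : s.lab w = i) (hr : Relation.ReflTransGen (IStep s π k) w w') :
    (Ψ w' + if w' ∈ γ then 1 else 0) = Ψ w + if w ∈ γ then 1 else 0 := by
  have hlab : ∀ x, Relation.ReflTransGen (IStep s π k) w x → s.lab x = i := by
    intro x hx
    induction hx with
    | refl => exact hl
    | tail _ h2 ih =>
      obtain ⟨F, _, g2, g3, rfl⟩ := h2
      exact (s.mu_lab g2 g3).trans ih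
  induction hr with
  | refl => rfl
  | @tail b c h1 h2 ih =>
    obtain ⟨F, ⟨q, hq, hk⟩, g2, g3, rfl⟩ := h2
    rw [← ih]
    by_cases hin : InF M π k F
    · have h4 := h F b ⟨g2, g3⟩ (hlab _ h1)
      rw [if_pos hin] at h4
      have : ∀ a b c d : ZMod 2, a + b = c + d → b + d = a + c := by decide
      exact this _ _ _ _ h4
    · rw [h.out ⟨g2, g3⟩ (hlab _ h1) hin]
      have h5 := hγ F b (frF_of hq hk hin) ⟨g2, g3⟩ (hlab _ h1)
      by_cases h6 : b ∈ γ
      · rw [if_pos h6, if_pos (h5.2 h6)]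
      · rw [if_neg h6, if_neg (fun h => h6 (h5.1 h))]

/-- **uniqueness** -/
theorem ess_unique {s : GSt M fam} {π : ι → ι'} {i : J} (hc : s.Conn i) {r d : W}
    (hrP : r ∈ s.P) (hrl : s.lab r = i) (hdP : d ∈ s.P) (hdl : s.lab d = i) {k : ι'}
    {w0 w1 : W} (h0 : Relation.ReflTransGen (OStep s π) r w0)
    (h1 : Relation.ReflTransGen (OStep s π) r w1) {Ψ0 Ψ1 : W → ZMod 2}
    (hΨ0 : Psi s π i k (crv s π k w0) Ψ0) (hΨ1 : Psi s π i k (crv s π k w1) Ψ1)
    (hd0 : Ψ0 d ≠ Ψ0 r) (hd1 : Ψ1 d ≠ Ψ1 r) : w1 ∈ crv s π k w0 := by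
  by_contra hno
  have hdis : ∀ y, y ∈ crv s π k w0 → y ∈ crv s π k w1 → False := fun y hy hy' =>
    hno (crv_trans hy (crv_symm hy'))
  have c0 : ∀ y, y ∈ crv s π k w0 → Ψ0 y = Ψ0 r ∧ Ψ1 y = Ψ1 r := fun y hy => by
    have h2 := h0.trans (crv_ostep hy)
    exact ⟨hΨ0.reach hrl h2, hΨ1.reach hrl h2⟩
  have c1 : ∀ y, y ∈ crv s π k w1 → Ψ0 y = Ψ0 r ∧ Ψ1 y = Ψ1 r := fun y hy => by
    have h2 := h1.trans (crv_ostep hy)
    exact ⟨hΨ0.reach hrl h2, hΨ1.reach hrl h2⟩
  have key := hc.2 {x | Ψ0 x ≠ Ψ0 r ∧ Ψ1 x ≠ Ψ1 r} (by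
    rintro F x ⟨hx0, hx1⟩ hx hl
    by_cases hin : InF M π k F
    · have e0 := hΨ0 F x hx hl
      have e1 := hΨ1 F x hx hl
      rw [if_pos hin] at e0 e1
      have n0 : x ∉ crv s π k w0 := fun h => hx0 (c0 x h).1
      have n1 : x ∉ crv s π k w1 := fun h => hx1 (c1 x h).2
      rw [if_neg n0, zero_add] at e0
      rw [if_neg n1, zero_add] at e1
      have m0 : s.mu F x ∉ crv s π k w0 := by
        intro h
        have h2 := c0 _ h
        rw [if_neg (fun h' => hdis _ h h')] at e1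
        exact hx1 ((ess_b _ _ e1).trans h2.2)
      have m1 : s.mu F x ∉ crv s π k w1 := by
        intro h
        have h2 := c1 _ h
        rw [if_neg (fun h' => hdis _ h' h)] at e0
        exact hx0 ((ess_b _ _ e0).trans h2.1)
      rw [if_neg m0] at e0
      rw [if_neg m1] at e1
      exact ⟨by rw [← ess_b _ _ e0]; exact hx0, by rw [← ess_b _ _ e1]; exact hx1⟩
    · exact ⟨by rw [hΨ0.out hx hl hin]; exact hx0, by rw [hΨ1.out hx hl hin]; exact hx1⟩)
    d ⟨hd0, hd1⟩ hdP hdl r hrP hrl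
  exact key.1 rfl

/-- **existence** -/
theorem ess_exists {s : GSt M fam} {π : ι → ι'} {i : J} (hs : s.H1 i) (hc : s.Conn i) {r d : W}
    (hrP : r ∈ s.P) (hrl : s.lab r = i) (hrF : ∃ F, ¬ ((M.side F).map π).IsDiag ∧ r ∈ M.On F)
    (hdP : d ∈ s.P) (hdl : s.lab d = i) (hd0 : ¬ Relation.ReflTransGen (OStep s π) r d) (k : ι')
    (hk : ∀ k', k' ≠ k → Relation.ReflTransGen (NStep s π k') r d) :
    ∃ w0, Relation.ReflTransGen (OStep s π) r w0 ∧ (∃ F, FrF M π k F ∧ w0 ∈ M.On F) ∧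
      ∀ Ψ, Psi s π i k (crv s π k w0) Ψ → Ψ d ≠ Ψ r := by
  by_contra hno
  push Not at hno
  let X : Set W := {x | ¬ Relation.ReflTransGen (OStep s π) r x ∧
    ∀ k' w0, Relation.ReflTransGen (OStep s π) r w0 → (∃ F, FrF M π k' F ∧ w0 ∈ M.On F) →
      ∃ Ψ, Psi s π i k' (crv s π k' w0) Ψ ∧ Ψ x = Ψ r}
  have hdX : d ∈ X := by
    refine ⟨hd0, fun k' w0 h1 h2 => ?_⟩
    by_cases hkk : k' = k
    · subst hkk
      exact hno w0 h1 h2
    · obtain ⟨Ψ, hΨ⟩ := exists_psi_crv (π := π) hs k' w0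
      exact ⟨Ψ, hΨ, hΨ.nreach hrl (hk k' hkk)⟩
  have hX : ∀ F x, x ∈ X → s.At F x → s.lab x = i → s.mu F x ∈ X := by
    rintro F x ⟨hx1, hx2⟩ hx hl
    have hmem := s.mu_mem hx.1 hx.2
    have hml := (s.mu_lab hx.1 hx.2).trans hl
    by_cases hout : ((M.side F).map π).IsDiag
    · obtain ⟨k0, hk0⟩ := diag_iff.1 hout
      have hy : ¬ Relation.ReflTransGen (OStep s π) r (s.mu F x) := by
        intro hy
        have hG : ∃ G, ¬ ((M.side G).map π).IsDiag ∧ s.mu F x ∈ M.On G := by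
          rcases Relation.ReflTransGen.cases_tail hy with h | ⟨z, _, h⟩
          · rw [h]; exact hrF
          · obtain ⟨G, g1, g2, g3, g4⟩ := h
            exact ⟨G, g1, by rw [g4]; exact (s.mu_mem g2 g3).2⟩
        obtain ⟨G, hG1, hG2⟩ := hG
        have hS := exists_frF hmem.2 hk0 hG2 (not_inF hG1 k0)
        obtain ⟨Ψ, hΨ, hΨx⟩ := hx2 k0 _ hy hS
        have e := hΨ F x hx hl
        rw [if_pos hk0] at e
        have n0 : x ∉ crv s π k0 (s.mu F x) := fun h => hx1 (hy.trans (crv_ostep h))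
        have n1 : s.mu F x ∈ crv s π k0 (s.mu F x) := Relation.ReflTransGen.refl
        rw [if_neg n0, if_pos n1, hΨ.reach hrl hy, hΨx, zero_add] at e
        have : ∀ a : ZMod 2, a + a ≠ 1 := by decide
        exact this _ e
      refine ⟨hy, fun k' w0 g1 g2 => ?_⟩
      obtain ⟨Ψ, hΨ, hΨx⟩ := hx2 k' w0 g1 g2
      refine ⟨Ψ, hΨ, ?_⟩
      have e := hΨ F x hx hl
      have n0 : x ∉ crv s π k' w0 := fun h => hx1 (g1.trans (crv_ostep h))
      have n1 : s.mu F x ∉ crv s π k' w0 := fun h => hy (g1.trans (crv_ostep h))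
      rw [if_neg n0, if_neg n1, add_zero, ite_self] at e
      rw [← ess_b _ _ e]
      exact hΨx
    · have hstep : OStep s π (s.mu F x) x :=
        ⟨F, hout, hmem.1, hmem.2, (s.mu_mu hx.1 hx.2).symm⟩
      refine ⟨fun h => hx1 (h.tail hstep), fun k' w0 g1 g2 => ?_⟩
      obtain ⟨Ψ, hΨ, hΨx⟩ := hx2 k' w0 g1 g2
      exact ⟨Ψ, hΨ, (hΨ.out hx hl (not_inF hout k')).trans hΨx⟩
  exact (hc.2 X hX d hdX hdP hdl r hrP hrl).1 Relation.ReflTransGen.refl

end Crest.Agent.R096.Door_501
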