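import Crest.Agent.R096.Main3_4
import Crest.Agent.R096.Cel3_715

/-!
# Row 96, DOORS (helper501), part 11: three-dimensional labels with a wall

`K` = union of tiles (a core), `Q` = points of a sheet on the 1-cells, two weights `wi` (inside) and
`wo` (outside) of the points which agree off the frontier of `K` and differ there by the
coboundary of `lbl` (label of a curve on the frontier).

* `exists_Lam`  : the label of the closed surface `{w = 1} ∪ {lbl = 1}`;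
* `Lam_inside`  : along a path inside `K` on which all points have weight `δ`;
* `Lam_ray`     : along a path without points of `Q`, `lbl` constant at the frontier;
* **`lbl_eval`** : `l₀ + l₁ = δ`.
-/

set_option autoImplicit false

open Set Module

namespace Crest.Agent.R096.Door_501

open Crest.Agent.R096.Msh_715 Crest.Agent.R096.Main_4 Crest.Agent.R096.Coh_184
  Crest.Agent.R096.Lab_184

variable {E : Type*} [NormedAddCommGroup E] [NormedSpace ℝ E] [FiniteDimensional ℝ E]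
variable {Om : Set E} {ι : Type*} {T : Tiling Om ι}

open Classical in
/-- sum of the weights of the points of `Q` in `C` -/
noncomputable def sm (Q : Finset E) (w : E → ZMod 2) (C : Set E) : ZMod 2 :=
  ∑ p ∈ Q.filter (fun p => p ∈ C), w p

/-- the cochain of a weight -/
noncomputable def cw (T : Tiling Om ι) (Q : Finset E) (w : E → ZMod 2) : T.Cell → ZMod 2 :=
  fun e => sm Q w e.set

theorem sum_edges {Q : Finset E} {w : E → ZMod 2} (hQ : ∀ p ∈ Q, p ∈ Om ∧ T.dim p = 1) {x : E}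
    (hx : x ∈ Om) : ∑ e ∈ T.edges x, cw T Q w e = sm Q w (T.cc x) := by
  classical
  unfold cw sm
  rw [Finset.sum_comm' (t' := Q.filter (fun p => p ∈ T.cc x))
    (s' := fun p => (T.edges x).filter fun e => p ∈ e.set)]
  · refine Finset.sum_congr rfl fun p hp => ?_
    obtain ⟨hpQ, hpx⟩ := Finset.mem_filter.1 hp
    obtain ⟨hpO, hp1⟩ := hQ p hpQ
    have : (T.edges x).filter (fun e => p ∈ e.set) = {T.cl hpO} := by
      ext e
      rw [Finset.mem_filter, Finset.mem_singleton, Tiling.mem_edges hx]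
      constructor
      · rintro ⟨⟨h1, h2⟩, h3⟩
        refine T.eq_cl hpO ?_
        rw [e.set_eq] at h3
        exact Tiling.cl_eq_of_dim1 e.pt_mem h1 h3 hp1
      · rintro rfl
        refine ⟨⟨(T.dim_cl hpO).trans hp1, ?_⟩, ?_⟩
        · rw [Tiling.cl_set]; exact T.cc_sub_of_mem hpx
        · rw [Tiling.cl_set]; exact T.self_mem_cc _
    rw [this, Finset.sum_singleton]
  · intro e p
    rw [Finset.mem_filter, Finset.mem_filter, Finset.mem_filter, Tiling.mem_edges hx]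
    constructor
    · rintro ⟨⟨h1, h2⟩, h3, h4⟩
      exact ⟨⟨⟨h1, h2⟩, h4⟩, h3, h2 h4⟩
    · rintro ⟨⟨h1, h2⟩, h3, _⟩
      exact ⟨h1, h3, h2⟩

theorem exact_pts {Q : Finset E} {w : E → ZMod 2} (hQ : ∀ p ∈ Q, p ∈ Om ∧ T.dim p = 1) {x : E}
    (hx : x ∈ Om) (hd : T.dim x = 2) (h : sm Q w (T.cc x) = 0) :
    ∃ ψ : E → ZMod 2, ∀ e ∈ T.cc x, T.dim e = 1 → ∀ a b : E, T.cc e = segment ℝ a b →
      ψ a + ψ b = sm Q w (T.cc e) := by
  obtain ⟨ψ, hψ⟩ := Tiling.exact_cell2C (T := T) (c := cw T Q w) hx hd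
    (by rw [sum_edges hQ hx]; exact h)
  refine ⟨ψ, fun e he h1 a b hab => ?_⟩
  have heO := T.cc_sub_Om hx he
  have := hψ e he h1 a b hab
  rw [Tiling.kapC_cl _ heO, CharTwo.sub_eq_add] at this
  exact this

open Classical in
/-- `lbl` cut off outside `K` -/
noncomputable def lk (K : Set E) (lbl : E → ZMod 2) (v : E) : ZMod 2 := if v ∈ K then lbl v else 0

open Classical in
/-- **labels with a wall** -/
theorem exists_Lam (h3 : finrank ℝ E = 3) {K D : Set E} (hD : IsCompact D) (hDO : D ⊆ Om)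
    (hfr : IsPreconnected (frontier D)) (ht : TrivF (ZMod 2) D) {Q : Finset E}
    (hQ : ∀ p ∈ Q, p ∈ Om ∧ T.dim p = 1) {wi wo lbl : E → ZMod 2}
    (hin : ∀ x ∈ Om, T.dim x = 2 → T.cc x ⊆ K → sm Q wi (T.cc x) = 0)
    (hou : ∀ x ∈ Om, T.dim x = 2 → ¬ T.cc x ⊆ K → sm Q wo (T.cc x) = 0)
    (hK : ∀ x ∈ Om, T.dim x = 2 → ¬ T.cc x ⊆ K → ∀ e ∈ T.cc x, T.dim e = 1 → T.cc e ⊆ K →
      ∀ a b : E, T.cc e = segment ℝ a b →
        sm Q wi (T.cc e) = sm Q wo (T.cc e) + (lbl a + lbl b))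
    (hnear : ∀ q, (P (T.H q) ∩ K).Nonempty → P (T.H q) ⊆ interior D)
    (hsup : ∀ p ∈ Q, wo p ≠ 0 → ∀ q, p ∈ P (T.H q) → P (T.H q) ⊆ interior D) :
    ∃ Lam : E → ZMod 2, (∀ q, ¬ P (T.H q) ⊆ interior D → ∀ v ∈ P (T.H q), Lam v = 0) ∧
      ∀ e ∈ Om, T.dim e = 1 → ∀ a b : E, T.cc e = segment ℝ a b →
        Lam a + Lam b = if T.cc e ⊆ K then sm Q wi (T.cc e)
          else sm Q wo (T.cc e) + (lk K lbl a + lk K lbl b) := by
  let κ : E → E → E → ZMod 2 := fun e a b =>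
    if T.cc e ⊆ K then sm Q wi (T.cc e) else sm Q wo (T.cc e) + (lk K lbl a + lk K lbl b)
  obtain ⟨Lam, _, _, h1, h2⟩ := potential (T := T) (κ := κ) h3 hD hDO hfr ht (by
    intro x hx hd
    by_cases hxK : T.cc x ⊆ K
    · obtain ⟨ψ, hψ⟩ := exact_pts hQ hx hd (hin x hx hd hxK)
      refine ⟨ψ, fun e he he1 a b hab => ?_⟩
      show _ = if T.cc e ⊆ K then sm Q wi (T.cc e) else sm Q wo (T.cc e) +
        (lk K lbl a + lk K lbl b)
      rw [if_pos ((T.cc_sub_of_mem he).trans hxK), CharTwo.sub_eq_add]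
      exact hψ e he he1 a b hab
    · obtain ⟨ψ, hψ⟩ := exact_pts hQ hx hd (hou x hx hd hxK)
      refine ⟨fun v => ψ v + lk K lbl v, fun e he he1 a b hab => ?_⟩
      show _ = if T.cc e ⊆ K then sm Q wi (T.cc e) else sm Q wo (T.cc e) +
        (lk K lbl a + lk K lbl b)
      rw [CharTwo.sub_eq_add]
      have h5 := hψ e he he1 a b hab
      by_cases heK : T.cc e ⊆ K
      · rw [if_pos heK, hK x hx hd hxK e he he1 heK a b hab, ← h5]
        have heO := T.cc_sub_Om hx he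
        obtain ⟨_, _, ha, hb, _⟩ := T.dim_ends heO he1 hab
        show ψ a + lk K lbl a + (ψ b + lk K lbl b) = ψ a + ψ b + (lbl a + lbl b)
        rw [lk, if_pos (heK ha), lk, if_pos (heK hb)]
        ring
      · rw [if_neg heK, ← h5]
        show ψ a + lk K lbl a + (ψ b + lk K lbl b) = ψ a + ψ b + (lk K lbl a + lk K lbl b)
        ring) (by
    intro q hq e he he1 a b hab
    show (0 : ZMod 2) - 0 = if T.cc e ⊆ K then sm Q wi (T.cc e) else sm Q wo (T.cc e) +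
      (lk K lbl a + lk K lbl b)
    have heO := T.sub q he
    have hct : T.cc e ⊆ P (T.H q) := T.cc_sub_tile he
    have hKq : ∀ z ∈ P (T.H q), z ∉ K := fun z hz hzK => hq (hnear q ⟨z, hz, hzK⟩)
    obtain ⟨_, _, ha, hb, _⟩ := T.dim_ends heO he1 hab
    rw [if_neg (fun h => hKq e he (h (T.self_mem_cc _))), lk, if_neg (hKq a (hct ha)), lk,
      if_neg (hKq b (hct hb))]
    have : sm Q wo (T.cc e) = 0 := by
      unfold sm
      refine Finset.sum_eq_zero fun p hp => ?_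
      obtain ⟨hp1, hp2⟩ := Finset.mem_filter.1 hp
      by_contra hne
      exact hq (hsup p hp1 hne q (hct hp2))
    rw [this]
    simp)
  refine ⟨Lam, h1, fun e he he1 a b hab => ?_⟩
  have := h2 e he he1 a b hab
  rw [CharTwo.sub_eq_add] at this
  exact this

/-- along a path inside `K` on which all points have the inner weight `δ` -/
theorem Lam_inside {K : Set E} {Q : Finset E} {wi lam Lam : E → ZMod 2} {δ : ZMod 2}
    (hLam : ∀ e ∈ Om, T.dim e = 1 → ∀ a b : E, T.cc e = segment ℝ a b → T.cc e ⊆ K →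
      Lam a + Lam b = sm Q wi (T.cc e))
    (hlam : IsLab T Q lam) {W : Set ι} (hW : ∀ q ∈ W, P (T.H q) ⊆ K)
    (hδ : ∀ q ∈ W, ∀ p ∈ Q, p ∈ P (T.H q) → wi p = δ) {a b : E}
    (hp : Relation.ReflTransGen (Edg T W) a b) : Lam a + Lam b = δ * (lam a + lam b) := by
  classical
  induction hp with
  | refl => rw [CharTwo.add_self_eq_zero, CharTwo.add_self_eq_zero, mul_zero]
  | @tail c d _ hs ih =>
    obtain ⟨w, h1, h2, h3, i, h4, h5⟩ := hs
    have hct : T.cc w ⊆ P (T.H i) := T.cc_sub_tile h5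
    have e1 := hLam w h1 h2 _ _ h3 (hct.trans (hW i h4))
    have e2 := hlam w h1 h2 _ _ h3
    have e3 : sm Q wi (T.cc w) = δ * (lam c + lam d) := by
      rw [e2, sm]
      rw [Finset.sum_congr rfl (g := fun _ => δ)]
      · rw [Finset.sum_const, nsmul_eq_mul, mul_comm]
      · intro p hp
        obtain ⟨hp1, hp2⟩ := Finset.mem_filter.1 hp
        exact hδ i h4 p hp1 (hct hp2)
    rw [e3] at e1
    have key : ∀ x y z l m n δ : ZMod 2, x + y = δ * (l + m) → y + z = δ * (m + n) →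
        x + z = δ * (l + n) := by decide
    exact key _ _ _ _ _ _ _ ih e1

open Classical in
/-- along a path without points of `Q` -/
theorem Lam_ray {K : Set E} {Q : Finset E} {wi wo lbl Lam : E → ZMod 2} {l : ZMod 2}
    (hLam : ∀ e ∈ Om, T.dim e = 1 → ∀ a b : E, T.cc e = segment ℝ a b →
      Lam a + Lam b = if T.cc e ⊆ K then sm Q wi (T.cc e)
        else sm Q wo (T.cc e) + (lk K lbl a + lk K lbl b)) {W : Set ι}
    (hW : ∀ q ∈ W, ∀ p ∈ Q, p ∉ P (T.H q))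
    (hl : ∀ q ∈ W, ∀ v ∈ P (T.H q), T.dim v = 0 → v ∈ K →
      (∃ q', v ∈ P (T.H q') ∧ ¬ P (T.H q') ⊆ K) → lbl v = l) {a b : E}
    (hp : Relation.ReflTransGen (Edg T W) a b) :
    Lam a + (if a ∈ K then l else 0) = Lam b + if b ∈ K then l else 0 := by
  induction hp with
  | refl => rfl
  | @tail c d _ hs ih =>
    obtain ⟨w, h1, h2, h3, i, h4, h5⟩ := hs
    have hct : T.cc w ⊆ P (T.H i) := T.cc_sub_tile h5
    have e1 := hLam w h1 h2 _ _ h3
    have e0 : ∀ u : E → ZMod 2, sm Q u (T.cc w) = 0 := fun u =>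
      Finset.sum_eq_zero fun p hp => absurd (hct (Finset.mem_filter.1 hp).2)
        (hW i h4 p (Finset.mem_filter.1 hp).1)
    obtain ⟨hc0, hd0, hc, hd, _⟩ := T.dim_ends h1 h2 h3
    rw [ih]
    rw [e0, e0, zero_add] at e1
    by_cases hwK : T.cc w ⊆ K
    · rw [if_pos hwK] at e1
      rw [if_pos (hwK hc), if_pos (hwK hd), CharTwo.add_eq_zero.1 e1]
    · rw [if_neg hwK] at e1
      have hiK : ¬ P (T.H i) ⊆ K := fun h => hwK (hct.trans h)
      have hv : ∀ v ∈ T.cc w, T.dim v = 0 → lk K lbl v = if v ∈ K then l else 0 := by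
        intro v hv hv0
        unfold lk
        by_cases hvK : v ∈ K
        · rw [if_pos hvK, if_pos hvK]
          exact hl i h4 v (hct hv) hv0 hvK ⟨i, hct hv, hiK⟩
        · rw [if_neg hvK, if_neg hvK]
      rw [hv c hc hc0, hv d hd hd0] at e1
      have key : ∀ x y m n : ZMod 2, x + y = m + n → x + m = y + n := by decide
      exact key _ _ _ _ e1

open Classical in
/-- **evaluation**: the labels `l₀`, `l₁` of the curve at the two far sides of the frontier -/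
theorem lbl_eval (h3 : finrank ℝ E = 3) {K D : Set E} (hD : IsCompact D) (hDO : D ⊆ Om)
    (hfr : IsPreconnected (frontier D)) (ht : TrivF (ZMod 2) D) {Q : Finset E}
    (hQ : ∀ p ∈ Q, p ∈ Om ∧ T.dim p = 1) {wi wo lbl : E → ZMod 2}
    (hin : ∀ x ∈ Om, T.dim x = 2 → T.cc x ⊆ K → sm Q wi (T.cc x) = 0)
    (hou : ∀ x ∈ Om, T.dim x = 2 → ¬ T.cc x ⊆ K → sm Q wo (T.cc x) = 0)
    (hK : ∀ x ∈ Om, T.dim x = 2 → ¬ T.cc x ⊆ K → ∀ e ∈ T.cc x, T.dim e = 1 → T.cc e ⊆ K →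
      ∀ a b : E, T.cc e = segment ℝ a b →
        sm Q wi (T.cc e) = sm Q wo (T.cc e) + (lbl a + lbl b))
    (hnear : ∀ q, (P (T.H q) ∩ K).Nonempty → P (T.H q) ⊆ interior D)
    (hsup : ∀ p ∈ Q, wo p ≠ 0 → ∀ q, p ∈ P (T.H q) → P (T.H q) ⊆ interior D)
    {lam : E → ZMod 2} (hlam : IsLab T Q lam) {δ l₀ l₁ : ZMod 2}
    {a₀ a₁ : E} {W : Set ι} (hW : ∀ q ∈ W, P (T.H q) ⊆ K)
    (hδ : ∀ q ∈ W, ∀ p ∈ Q, p ∈ P (T.H q) → wi p = δ)
    (hp : Relation.ReflTransGen (Edg T W) a₀ a₁) (hne : lam a₀ ≠ lam a₁)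
    (ha₀ : a₀ ∈ K) (ha₁ : a₁ ∈ K)
    {b₀ b₁ : E} {W₀ W₁ : Set ι} (hW₀ : ∀ q ∈ W₀, ∀ p ∈ Q, p ∉ P (T.H q))
    (hW₁ : ∀ q ∈ W₁, ∀ p ∈ Q, p ∉ P (T.H q))
    (hl₀ : ∀ q ∈ W₀, ∀ v ∈ P (T.H q), T.dim v = 0 → v ∈ K →
      (∃ q', v ∈ P (T.H q') ∧ ¬ P (T.H q') ⊆ K) → lbl v = l₀)
    (hl₁ : ∀ q ∈ W₁, ∀ v ∈ P (T.H q), T.dim v = 0 → v ∈ K →
      (∃ q', v ∈ P (T.H q') ∧ ¬ P (T.H q') ⊆ K) → lbl v = l₁)
    (hp₀ : Relation.ReflTransGen (Edg T W₀) a₀ b₀) (hp₁ : Relation.ReflTransGen (Edg T W₁) a₁ b₁)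
    (hb₀ : ∃ q, ¬ P (T.H q) ⊆ interior D ∧ b₀ ∈ P (T.H q))
    (hb₁ : ∃ q, ¬ P (T.H q) ⊆ interior D ∧ b₁ ∈ P (T.H q)) : l₀ + l₁ = δ := by
  obtain ⟨Lam, h1, h2⟩ := exists_Lam h3 hD hDO hfr ht hQ hin hou hK hnear hsup
  have e0 := Lam_inside (K := K) (wi := wi) (fun e he he1 a b hab heK => by
    have := h2 e he he1 a b hab
    rwa [if_pos heK] at this) hlam hW hδ hp
  have f0 := Lam_ray h2 hW₀ hl₀ hp₀
  have f1 := Lam_ray h2 hW₁ hl₁ hp₁
  obtain ⟨q₀, hq₀, hbq₀⟩ := hb₀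
  obtain ⟨q₁, hq₁, hbq₁⟩ := hb₁
  rw [if_pos ha₀, h1 q₀ hq₀ b₀ hbq₀, if_neg (fun h => hq₀ (hnear q₀ ⟨b₀, hbq₀, h⟩)),
    add_zero] at f0
  rw [if_pos ha₁, h1 q₁ hq₁ b₁ hbq₁, if_neg (fun h => hq₁ (hnear q₁ ⟨b₁, hbq₁, h⟩)),
    add_zero] at f1
  have key : ∀ x y l m δ u v : ZMod 2, x + y = δ * (u + v) → u ≠ v → x + l = 0 → y + m = 0 →
      l + m = δ := by decide
  exact key _ _ _ _ _ _ _ e0 hne f0 f1

end Crest.Agent.R096.Door_501
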