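import Crest.Agent.R096.Door10_501
import Crest.Agent.R096.Door11_501
import Crest.Agent.R096.Mrg7_715

/-!
# Row 96, DOORS (helper501), part 12: the essential curve on the surface of a core

`s : GSt (meshC T h3) fam`, cores `Kc c` (715's `CoreH`), `π = piK T Kc`, `γ` a closed set of points
of the sheet `i` on the frontier of `Kc c`, `Ψ` its potential (`Door10`), `lbl` its label on the
vertices of the frontier.

* **`lbl_psi`** : `l₀ + l₁ = Ψ d + Ψ r`.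
-/

set_option autoImplicit false

open Set Module

namespace Crest.Agent.R096.Door_501

open Crest.Agent.R096.St_147 Crest.Agent.R096.Seq_213 Crest.Agent.R096.Msh_715
  Crest.Agent.R096.Agl5_543 Crest.Agent.R096.Main_4 Crest.Agent.R096.Coh_184
  Crest.Agent.R096.Lab_184

variable {E : Type} [NormedAddCommGroup E] [NormedSpace ℝ E] [FiniteDimensional ℝ E]
variable {Om : Set E} {ι κ : Type} {T : Tiling Om ι} {Kc : κ → Set E}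
variable {J C : Type} {fam : J → C}

/-- a closed cell of dimension two is in the core iff one of its tiles is -/
theorem cc_sub_iff {h3 : finrank ℝ E = 3} {K : Set E} (hK : CoreH T K) {x : E} (hx : x ∈ Om)
    (hd : T.dim x = 2) :
    T.cc x ⊆ K ↔ ∃ q ∈ (mk2 T hx hd).side h3, P (T.H q) ⊆ K := by
  have hat : T.at_ (mk2 T hx hd).pt = T.at_ x := T.at_eq_of_mem_oc hx (T.pt_cl hx)
  constructor
  · intro h
    obtain ⟨q, hq, hqK⟩ := T.exists_inner hK.core hK.sub hK.cc (h (T.self_mem_cc _))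
    exact ⟨q, C2.mem_side.2 (by rw [hat]; exact hq), hqK⟩
  · rintro ⟨q, hq, hqK⟩
    have h1 : q ∈ T.at_ x := by rw [← hat]; exact C2.mem_side.1 hq
    exact (T.cc_sub_tile h1).trans hqK

/-- the frontier faces of the giant cell -/
theorem frF_iff {h3 : finrank ℝ E = 3} (hH : ∀ c, CoreH T (Kc c))
    (hdis : ∀ c c', c ≠ c' → Disjoint (Kc c) (Kc c')) (F : C2 T) (c : κ) :
    FrF (meshC T h3) (piK T Kc) (Sum.inr c) F ↔ F.set ⊆ frontier (Kc c) := by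
  rw [face_iff h3 (fun c => (hH c).core) (fun c => (hH c).sub) (fun c => (hH c).cc) hdis F c,
    mem_map_iff]
  exact Iff.rfl

/-- the sum over a closed set of chords of a face -/
theorem sum_face {h3 : finrank ℝ E = 3} (s : GSt (meshC T h3) fam) {i : J} {Q : Finset E}
    (hQ : ∀ w, w ∈ Q ↔ w ∈ s.P ∧ s.lab w = i) (hon : ∀ w ∈ Q, T.dim w = 1) {x : E} (hx : x ∈ Om)
    (hd : T.dim x = 2) {u : E → ZMod 2}
    (hu : ∀ p ∈ Q, p ∈ T.cc x → u (s.mu (mk2 T hx hd) p) = u p) : sm Q u (T.cc x) = 0 := by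
  classical
  have hOn : ∀ p, p ∈ Q.filter (fun p => p ∈ T.cc x) → p ∈ s.P ∧ p ∈ (meshC T h3).On (mk2 T hx hd) :=
    fun p hp => by
      obtain ⟨h1, h2⟩ := Finset.mem_filter.1 hp
      exact ⟨((hQ p).1 h1).1, h2, hon p h1⟩
  unfold sm
  refine Finset.sum_involution (fun p _ => s.mu (mk2 T hx hd) p) ?_ ?_ ?_ ?_
  · intro p hp
    obtain ⟨h1, h2⟩ := Finset.mem_filter.1 hp
    rw [hu p h1 h2]
    exact CharTwo.add_self_eq_zero _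
  · intro p hp _
    exact s.mu_ne (hOn p hp).1 (hOn p hp).2
  · intro p hp
    obtain ⟨h1, h2⟩ := Finset.mem_filter.1 hp
    have h3' := s.mu_mem (hOn p hp).1 (hOn p hp).2
    refine Finset.mem_filter.2 ⟨(hQ _).2 ⟨h3'.1, ?_⟩, h3'.2.1⟩
    rw [s.mu_lab (hOn p hp).1 (hOn p hp).2]
    exact ((hQ p).1 h1).2
  · intro p hp
    exact s.mu_mu (hOn p hp).1 (hOn p hp).2

open Classical in
/-- **the label of a curve on the frontier of the core and its potential on the sheet** -/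
theorem lbl_psi {h3 : finrank ℝ E = 3} (s : GSt (meshC T h3) fam) (hH : ∀ c, CoreH T (Kc c))
    (hdis : ∀ c c', c ≠ c' → Disjoint (Kc c) (Kc c')) {i : J} (c : κ) {Q : Finset E}
    (hQ : ∀ w, w ∈ Q ↔ w ∈ s.P ∧ s.lab w = i) (hOm : ∀ w ∈ Q, w ∈ Om ∧ T.dim w = 1)
    {γ : Set E} (hγQ : ∀ w ∈ γ, w ∈ Q) (hγF : ∀ w ∈ γ, w ∈ frontier (Kc c))
    (hγ : ∀ F w, FrF (meshC T h3) (piK T Kc) (Sum.inr c) F → s.At F w → s.lab w = i →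
      (s.mu F w ∈ γ ↔ w ∈ γ))
    {Ψ : E → ZMod 2} (hΨ : Psi s (piK T Kc) i (Sum.inr c) γ Ψ) {lbl : E → ZMod 2}
    (hlbl : ∀ e ∈ frontier (Kc c), T.dim e = 1 → ∀ a b : E, T.cc e = segment ℝ a b →
      lbl a + lbl b = sm Q (fun p => if p ∈ γ then 1 else 0) (T.cc e))
    {D : Set E} (hD : IsCompact D) (hDO : D ⊆ Om) (hfr : IsPreconnected (frontier D))
    (ht : TrivF (ZMod 2) D) (hnear : ∀ q, (P (T.H q) ∩ Kc c).Nonempty → P (T.H q) ⊆ interior D)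
    {r d : E} (hrP : r ∈ s.P) (hrl : s.lab r = i) (hdP : d ∈ s.P) (hdl : s.lab d = i)
    (hdγ : d ∉ γ)
    (hout : ∀ p ∈ Q, ∀ q, p ∈ P (T.H q) → ¬ P (T.H q) ⊆ interior D →
      Relation.ReflTransGen (NStep s (piK T Kc) (Sum.inr c)) r p)
    {lam : E → ZMod 2} (hlam : IsLab T Q lam) {Zd Z₀ Z₁ : Set E}
    (hZd : IsPreconnected Zd) (hZdO : Zd ⊆ Om) (hZ₀ : IsPreconnected Z₀) (hZ₀O : Z₀ ⊆ Om)
    (hZ₁ : IsPreconnected Z₁) (hZ₁O : Z₁ ⊆ Om)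
    (hdK : ∀ q, (P (T.H q) ∩ Zd).Nonempty → P (T.H q) ⊆ Kc c)
    (hdeep : ∀ q, (P (T.H q) ∩ Zd).Nonempty → ∀ p ∈ Q, p ∈ P (T.H q) → p ∉ γ ∧
      Relation.ReflTransGen (IStep s (piK T Kc) (Sum.inr c)) d p)
    (hQ₀ : ∀ q, (P (T.H q) ∩ Z₀).Nonempty → ∀ p ∈ Q, p ∉ P (T.H q))
    (hQ₁ : ∀ q, (P (T.H q) ∩ Z₁).Nonempty → ∀ p ∈ Q, p ∉ P (T.H q))
    (hx₀ : (Zd ∩ Z₀).Nonempty) (hx₁ : (Zd ∩ Z₁).Nonempty)
    (hf₀ : ∃ q, ¬ P (T.H q) ⊆ interior D ∧ (P (T.H q) ∩ Z₀).Nonempty)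
    (hf₁ : ∃ q, ¬ P (T.H q) ⊆ interior D ∧ (P (T.H q) ∩ Z₁).Nonempty)
    (hne : ∃ v₀ ∈ VM T Z₀, ∃ v₁ ∈ VM T Z₁, lam v₀ ≠ lam v₁) {l₀ l₁ : ZMod 2}
    (hl₀ : ∀ v ∈ VM T Z₀, v ∈ frontier (Kc c) → lbl v = l₀)
    (hl₁ : ∀ v ∈ VM T Z₁, v ∈ frontier (Kc c) → lbl v = l₁) : l₀ + l₁ = Ψ d + Ψ r := by
  have hK := hH c
  have hmemQ : ∀ {p}, p ∈ Q → p ∈ s.P ∧ s.lab p = i := fun h => (hQ _).1 h
  have hFr : ∀ {F : C2 T}, FrF (meshC T h3) (piK T Kc) (Sum.inr c) F ↔ F.set ⊆ frontier (Kc c) :=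
    fun {F} => frF_iff hH hdis F c
  -- the weights
  let wo : E → ZMod 2 := fun w => Ψ w + Ψ r
  let wi : E → ZMod 2 := fun w => Ψ w + Ψ r + if w ∈ γ then 1 else 0
  have hon : ∀ w ∈ Q, T.dim w = 1 := fun w hw => (hOm w hw).2
  -- vertices
  obtain ⟨x₀, hx₀d, hx₀0⟩ := hx₀
  obtain ⟨x₁, hx₁d, hx₁0⟩ := hx₁
  obtain ⟨q₀, hq₀⟩ := T.cov x₀ (hZdO hx₀d)
  obtain ⟨q₁, hq₁⟩ := T.cov x₁ (hZdO hx₁d)
  obtain ⟨a₀, ha₀, ha₀0⟩ := exists_vertex_tile (T := T) hq₀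
  obtain ⟨a₁, ha₁, ha₁0⟩ := exists_vertex_tile (T := T) hq₁
  obtain ⟨p₀, hp₀, y₀, hy₀, hy₀Z⟩ := hf₀
  obtain ⟨p₁, hp₁, y₁, hy₁, hy₁Z⟩ := hf₁
  obtain ⟨b₀, hb₀, hb₀0⟩ := exists_vertex_tile (T := T) hy₀
  obtain ⟨b₁, hb₁, hb₁0⟩ := exists_vertex_tile (T := T) hy₁
  have m₀ : a₀ ∈ VM T Z₀ := mem_VM hq₀ hx₀0 ha₀ ha₀0
  have m₁ : a₁ ∈ VM T Z₁ := mem_VM hq₁ hx₁0 ha₁ ha₁0
  obtain ⟨v₀, hv₀, v₁, hv₁, hvne⟩ := hne
  have c₀ : lam v₀ = lam a₀ := hlam.const_geom hZ₀ hZ₀O (fun q hq u hu => hQ₀ q hq u hu) hv₀ m₀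
  have c₁ : lam v₁ = lam a₁ := hlam.const_geom hZ₁ hZ₁O (fun q hq u hu => hQ₁ q hq u hu) hv₁ m₁
  have hfrK : ∀ {v : E} {q : ι}, v ∈ Kc c → v ∈ P (T.H q) → ¬ P (T.H q) ⊆ Kc c →
      v ∈ frontier (Kc c) := by
    intro v q hv hvq hq
    rw [hK.core.closed.frontier_eq]
    exact ⟨hv, fun h => hq (T.sub_of_mem_interior hK.core.closed hK.cc hvq h)⟩
  refine lbl_eval (T := T) (lam := lam) (Q := Q) (wi := wi) (wo := wo) (lbl := lbl) (a₀ := a₀)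
    (a₁ := a₁) (b₀ := b₀) (b₁ := b₁) (W := {q | (P (T.H q) ∩ Zd).Nonempty})
    (W₀ := {q | (P (T.H q) ∩ Z₀).Nonempty}) (W₁ := {q | (P (T.H q) ∩ Z₁).Nonempty}) (K := Kc c)
    h3 hD hDO hfr ht hOm ?_ ?_ ?_ hnear ?_ hlam hdK ?_
    (edg_VM hZd hZdO (mem_VM hq₀ hx₀d ha₀ ha₀0) (mem_VM hq₁ hx₁d ha₁ ha₁0))
    (by rw [← c₀, ← c₁]; exact hvne) (hdK q₀ ⟨x₀, hq₀, hx₀d⟩ ha₀) (hdK q₁ ⟨x₁, hq₁, hx₁d⟩ ha₁)
    hQ₀ hQ₁ ?_ ?_ (edg_VM hZ₀ hZ₀O m₀ (mem_VM hy₀ hy₀Z hb₀ hb₀0))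
    (edg_VM hZ₁ hZ₁O m₁ (mem_VM hy₁ hy₁Z hb₁ hb₁0)) ⟨p₀, hp₀, hb₀⟩ ⟨p₁, hp₁, hb₁⟩
  · -- inside
    intro x hx hd hxK
    refine sum_face s hQ hon hx hd fun p hp hpx => ?_
    obtain ⟨q, hq, hqK⟩ := (cc_sub_iff (h3 := h3) hK hx hd).1 hxK
    have hst : IStep s (piK T Kc) (Sum.inr c) p (s.mu (mk2 T hx hd) p) :=
      ⟨mk2 T hx hd, ⟨q, hq, (piK_inr hdis).2 hqK⟩, (hmemQ hp).1, ⟨hpx, hon p hp⟩, rfl⟩
    have h1 := hΨ.ireach hγ (hmemQ hp).2 (Relation.ReflTransGen.single hst)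
    show Ψ _ + Ψ r + (if _ ∈ γ then (1 : ZMod 2) else 0) = Ψ p + Ψ r + if p ∈ γ then 1 else 0
    have key : ∀ a b c d e : ZMod 2, a + b = c + d → a + e + b = c + e + d := by decide
    exact key _ _ _ _ _ h1
  · -- outside
    intro x hx hd hxK
    refine sum_face s hQ hon hx hd fun p hp hpx => ?_
    have hn : ¬ InF (meshC T h3) (piK T Kc) (Sum.inr c) (mk2 T hx hd) := by
      intro hin
      obtain ⟨q, hq⟩ := exists_side (meshC T h3) (mk2 T hx hd)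
      exact hxK ((cc_sub_iff (h3 := h3) hK hx hd).2 ⟨q, hq, (piK_inr hdis).1 (hin q hq)⟩)
    show Ψ _ + Ψ r = Ψ p + Ψ r
    have hat : s.At (mk2 T hx hd) p := ⟨(hmemQ hp).1, hpx, hon p hp⟩
    rw [hΨ.out hat (hmemQ hp).2 hn]
  · -- the wall
    intro x hx hd hxK e he he1 heK a b hab
    have heF : e ∈ frontier (Kc c) := by
      obtain ⟨q, hq⟩ := T.cov x hx
      refine hfrK (heK (T.self_mem_cc _)) (T.cc_sub_tile hq he) fun h => hxK ?_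
      exact (T.cc_sub_tile hq).trans h
    rw [hlbl e heF he1 a b hab]
    unfold sm
    rw [← Finset.sum_add_distrib]
  · -- support
    intro p hp hne q hq
    by_contra hcon
    have h1 := hΨ.nreach hrl (hout p hp q hq hcon)
    apply hne
    show Ψ p + Ψ r = 0
    rw [h1]; exact CharTwo.add_self_eq_zero _
  · -- deep
    intro q hq p hp hpq
    obtain ⟨h1, h2⟩ := hdeep q hq p hp hpq
    have h4 := hΨ.ireach hγ hdl h2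
    rw [if_neg h1, if_neg hdγ, add_zero, add_zero] at h4
    show Ψ p + Ψ r + (if p ∈ γ then (1 : ZMod 2) else 0) = Ψ d + Ψ r
    rw [if_neg h1, h4, add_zero]
  · rintro q hq v hv hv0 hvK ⟨q', hvq', hq'⟩
    obtain ⟨y, hy, hyZ⟩ := hq
    exact hl₀ v (mem_VM hy hyZ hv hv0) (hfrK hvK hvq' hq')
  · rintro q hq v hv hv0 hvK ⟨q', hvq', hq'⟩
    obtain ⟨y, hy, hyZ⟩ := hq
    exact hl₁ v (mem_VM hy hyZ hv hv0) (hfrK hvK hvq' hq')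

end Crest.Agent.R096.Door_501
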