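import Crest.Agent.R096.Spp4_333

/-!
# R096 (row 96), DOORS / SPH (helper333), part 5: the sphere lemma

`sph_of_lay` : `θ : Sg → Sg'` near `g` from CARRY and a realisation of a fine cubic graph on `Sg'`;
`sph`        : the same for any PL sphere `Sg'` (with 560's `exists_fine`).

The inputs which are typed by others are the Props `ABS1` (881: paths), `ABS2` (923: faces) and
`FINE` (560: fine cubic structures).
-/

set_option autoImplicit false

open Set Metric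

namespace Crest.Agent.R096.Spp_333

open Crest.Agent.R096.Sph_560 Crest.Agent.R096.Ce_537

/-- 881: paths -/
def ABS1 : Prop := ∀ {V E T N R X : Type} [Fintype E] [Finite V] (S : Surf V E T)
  (G : Cub N R X) (P : Place S G),
  ∃ M : PEmb S G, ∀ r, ∀ v ∈ M.vs r, v ∈ P.Y r ∨ ∃ a ∈ G.ends r, v ∈ P.Z' a

/-- every tile has an even number of edges at every vertex (923) -/
def EvenT {V E T : Type*} [Fintype E] (S : Surf V E T) : Prop :=
  ∀ (f : T) (v : V), Even {e | S.On f e ∧ v ∈ S.ends e}.ncard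

/-- 923: faces -/
def ABS2 : Prop := ∀ {V E T N R X : Type} [Fintype E] [Finite T] [Finite R] [Finite X]
  [Nonempty X] (S : Surf V E T) (G : Cub N R X) (M : PEmb S G), EvenT S →
  ∃ M' : Emb S G, M'.toPEmb = M

/-- 560: fine cubic structures -/
def FINE (F : Type*) [NormedAddCommGroup F] [NormedSpace ℝ F] : Prop :=
  ∀ {K' Sg' : Set F}, IsBall 3 K' Sg' → ∀ {ε : ℝ}, 0 < ε →
    ∃ (N R X : Type) (_ : Finite N) (_ : Finite R) (_ : Finite X) (G : Cub N R X)
      (L : Lay G Sg'), ∀ x, ∀ y ∈ L.disc x, ∀ z ∈ L.disc x, dist y z ≤ ε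

variable {F : Type*} [NormedAddCommGroup F] [NormedSpace ℝ F]
  {Em : Type*} [NormedAddCommGroup Em] [NormedSpace ℝ Em]

/-- a tile has an edge -/
theorem exists_on {V E T : Type*} [Fintype E] (S : Surf V E T) [Nonempty E] (f : T) :
    ∃ e, S.On f e := by
  classical
  by_contra hcon
  push Not at hcon
  obtain ⟨e0⟩ := ‹Nonempty E›
  obtain ⟨f', g', hfg, hall⟩ := S.two e0
  obtain ⟨h, hh⟩ : ∃ h, h ≠ f := by
    by_cases h : f' = f
    · exact ⟨g', fun h' => hfg (h.trans h'.symm)⟩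
    · exact ⟨f', h⟩
  have := S.conn (fun h => if h = f then 1 else 0) (by
    intro e a b ha hb
    have h1 : a ≠ f := by rintro rfl; exact hcon e ha
    have h2 : b ≠ f := by rintro rfl; exact hcon e hb
    rw [if_neg h1, if_neg h2]) f h
  rw [if_pos rfl, if_neg hh] at this
  exact absurd this (by decide)

/-- **SPH over a given fine structure** -/
theorem sph_of_lay (hA1 : ABS1) (hA2 : ABS2) {N R X : Type} [Finite N] [Finite R] [Finite X]
    [Nonempty X] {G : Cub N R X} {Sg' : Set F} (L : Lay G Sg') {ε : ℝ} (hε : 0 < ε)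
    (hL : ∀ x, ∀ y ∈ L.disc x, ∀ z ∈ L.disc x, dist y z ≤ ε / 2) :
    ∃ δ₀ > 0, ∀ {V E T : Type} [Fintype E] [Finite V] [Finite T] (S : Surf V E T), EvenT S →
      ∀ {K Sg : Set Em} (A : Real S Sg), IsBall 3 K Sg → ∀ (gv : V → F), Carry S gv Sg' δ₀ →
      ∀ (g : Em → F), (∀ f e, S.On f e → ∀ v ∈ S.ends e, ∀ p ∈ A.tile f,
        dist (gv v) (g p) ≤ δ₀) →
      ∃ θ : PLEquiv Sg Sg', ∀ p ∈ Sg, dist (θ.f p) (g p) ≤ ε := by
  obtain ⟨ρ, hρ, δ1, hδ1, hclose⟩ := exists_close L (show (0 : ℝ) < ε / 4 by positivity)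
  obtain ⟨δ2, hδ2, hplace⟩ := exists_place L hρ
  refine ⟨min (min δ1 δ2) (ε / 4), by positivity, ?_⟩
  intro V E T _ _ _ S hev K Sg A hK gv hC g hg
  obtain ⟨P, hY, hZ⟩ := hplace S gv (hC.mono ((min_le_left _ _).trans (min_le_right _ _)))
  obtain ⟨M0, hM0⟩ := hA1 S G P
  obtain ⟨M, hM⟩ := hA2 S G M0 hev
  subst hM
  have hvs : ∀ r, ∀ v ∈ M.vs r, ∃ z ∈ L.arc r, dist (gv v) z ≤ ρ := by
    intro r v hv
    rcases hM0 r v hv with h | ⟨a, ha, h⟩
    · exact hY r v h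
    · exact ⟨L.pt a, L.pt_mem_arc ha, hZ a v h⟩
  have hcl := hclose S gv (hC.mono ((min_le_left _ _).trans (min_le_left _ _))) M hvs
  obtain ⟨θ, -, -, -, hθ⟩ := M.exists_theta A hK L (g := g) (ε := ε) (by
    intro x f hf p hp y hy
    obtain ⟨r, hr⟩ := G.bd_ne x
    obtain ⟨e0, -⟩ := M.P_ne r
    have : Nonempty E := ⟨e0⟩
    obtain ⟨e, he⟩ := exists_on S f
    obtain ⟨v, v', hvv⟩ : ∃ u v, S.ends e = s(u, v) := by
      induction h : S.ends e using Sym2.ind with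
      | _ a b => exact ⟨a, b, rfl⟩
    have hv : v ∈ S.ends e := by rw [hvv]; exact Sym2.mem_mk_left _ _
    obtain ⟨z, hz, hvz⟩ := hcl x f hf e he v hv
    have h1 := hg f e he v hv p hp
    have h2 := hL x y hy z hz
    have h3 : dist y (g p) ≤ dist y z + dist z (gv v) + dist (gv v) (g p) :=
      dist_triangle4 _ _ _ _
    have h4 : dist z (gv v) ≤ ε / 4 := by rw [dist_comm]; exact hvz
    have h5 : dist (gv v) (g p) ≤ ε / 4 := h1.trans (min_le_right _ _)
    linarith)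
  exact ⟨θ, hθ⟩

/-- **SPH, the sphere lemma** -/
theorem sph_of (hA1 : ABS1) (hA2 : ABS2) (hF : FINE F) {K' Sg' : Set F} (hK' : IsBall 3 K' Sg')
    {ε : ℝ} (hε : 0 < ε) :
    ∃ δ₀ > 0, ∀ {V E T : Type} [Fintype E] [Finite V] [Finite T] (S : Surf V E T), EvenT S →
      ∀ {K Sg : Set Em} (A : Real S Sg), IsBall 3 K Sg → ∀ (gv : V → F), Carry S gv Sg' δ₀ →
      ∀ (g : Em → F), (∀ f e, S.On f e → ∀ v ∈ S.ends e, ∀ p ∈ A.tile f,
        dist (gv v) (g p) ≤ δ₀) →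
      ∃ θ : PLEquiv Sg Sg', ∀ p ∈ Sg, dist (θ.f p) (g p) ≤ ε := by
  obtain ⟨N, R, X, _, _, _, G, L, hL⟩ := hF hK' (show (0 : ℝ) < ε / 2 by positivity)
  have : Nonempty X := by
    -- the sphere is not empty
    have hne : Sg'.Nonempty := by
      obtain ⟨e, he⟩ := hK'
      rw [← he]
      refine ⟨_, mem_image_of_mem _ (show (fun _ => 1 : Fin 3 → ℝ) ∈ sph 3 from ?_)⟩
      rw [mem_sphere_zero_iff_norm, pi_norm_const]
      exact norm_one
    obtain ⟨y, hy⟩ := hne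
    rw [L.cov] at hy
    obtain ⟨x, -⟩ := mem_iUnion.1 hy
    exact ⟨x⟩
  exact sph_of_lay hA1 hA2 L hε hL

end Crest.Agent.R096.Spp_333
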