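import Crest.Agent.R096.Spp0_333
import Crest.Agent.R096.Spp5_333

/-!
# R096 (row 96), DOORS / SPH (helper333), part s1: a constructor for `Surf`

`mkSurf`: a finite cell structure with polygonal tiles (every vertex of a tile is on exactly two of
its edges, the boundary of a tile is connected), vertex links connected, tile free `H¹ = 0`
(helper147's form) and connected is a `Surf` (560), and it satisfies `EvenT` (923).
-/

set_option autoImplicit false

open Set

namespace Crest.Agent.R096.Spp_333

open Crest.Agent.R096.Sph_560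

variable {V E T : Type*} [Fintype E]

omit [Fintype E] in
theorem exists_pair (ends : E → Sym2 V) (e : E) : ∃ u v, ends e = s(u, v) := by
  induction h : ends e using Sym2.ind with
  | _ a b => exact ⟨a, b, rfl⟩

/-- **exactness on a graph from orthogonality to the cycles** -/
theorem exact_of_orth {ends : E → Sym2 V} (nd : ∀ e, ¬ (ends e).IsDiag) (D : Set E)
    (κ : E → ZMod 2)
    (h : ∀ z : E → ZMod 2, (∀ e, e ∉ D → z e = 0) →
      (∀ v, (∑ e, open Classical in if v ∈ ends e then z e else 0) = 0) →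
      ∑ e, z e * κ e = 0) :
    ∃ ψ : V → ZMod 2, ∀ e ∈ D, ∀ u v, ends e = s(u, v) → κ e = ψ u + ψ v := by
  classical
  have hch := exists_pair ends
  choose a b hab using hch
  have hne : ∀ e, a e ≠ b e := fun e h => nd e (by
    rw [hab e, h]; exact Sym2.mk_isDiag_iff.2 rfl)
  let D1 : (V → ZMod 2) →ₗ[ZMod 2] (E → ZMod 2) :=
    { toFun := fun ψ e => if e ∈ D then ψ (a e) + ψ (b e) else 0
      map_add' := by
        intro ψ ψ'
        ext e
        simp only [Pi.add_apply]
        split_ifs
        · ring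
        · simp
      map_smul' := by
        intro c ψ
        ext e
        simp only [Pi.smul_apply, smul_eq_mul, RingHom.id_apply]
        split_ifs
        · ring
        · simp }
  let κ' : E → ZMod 2 := fun e => if e ∈ D then κ e else 0
  by_cases hmem : κ' ∈ LinearMap.range D1
  · obtain ⟨ψ, hψ⟩ := hmem
    refine ⟨ψ, fun e he u v huv => ?_⟩
    have h1 := congrFun hψ e
    have h2 : (if e ∈ D then ψ (a e) + ψ (b e) else 0) = (if e ∈ D then κ e else 0) := h1
    rw [if_pos he, if_pos he] at h2
    rw [← h2]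
    rw [hab e, Sym2.eq_iff] at huv
    rcases huv with ⟨rfl, rfl⟩ | ⟨rfl, rfl⟩
    · rfl
    · exact add_comm _ _
  · exfalso
    obtain ⟨φ, hφ0, hφ⟩ := Submodule.exists_le_ker_of_notMem hmem
    -- the chain of the functional
    let z : E → ZMod 2 := fun e => if e ∈ D then φ (Pi.single e 1) else 0
    have hexp : ∀ x : E → ZMod 2, φ x = ∑ e, x e * φ (Pi.single e 1) := by
      intro x
      conv_lhs => rw [← Finset.univ_sum_single x]
      rw [map_sum]
      refine Finset.sum_congr rfl fun e _ => ?_
      have : (Pi.single e (x e) : E → ZMod 2) = x e • Pi.single e 1 := by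
        rw [← Pi.single_smul, smul_eq_mul, mul_one]
      simp only [this, map_smul, smul_eq_mul]
    have hsum := h z (fun e he => if_neg he) (by
      intro v
      have h1 : φ (D1 (Pi.single v 1)) = 0 := hφ ⟨_, rfl⟩
      rw [hexp] at h1
      refine Eq.trans ?_ h1
      refine Finset.sum_congr rfl fun e _ => ?_
      show (if v ∈ ends e then (if e ∈ D then φ (Pi.single e 1) else 0) else 0) =
        (if e ∈ D then (Pi.single v (1 : ZMod 2) : V → ZMod 2) (a e) +
          (Pi.single v (1 : ZMod 2) : V → ZMod 2) (b e) else 0) * φ (Pi.single e 1)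
      by_cases he : e ∈ D
      · rw [if_pos he, if_pos he]
        by_cases hv : v ∈ ends e
        · rw [if_pos hv]
          rw [hab e, Sym2.mem_iff] at hv
          rcases hv with rfl | rfl
          · rw [Pi.single_eq_same, Pi.single_eq_of_ne (hne e).symm]; ring
          · rw [Pi.single_eq_same, Pi.single_eq_of_ne (hne e)]; ring
        · rw [if_neg hv]
          rw [hab e, Sym2.mem_iff, not_or] at hv
          rw [Pi.single_eq_of_ne (Ne.symm hv.1), Pi.single_eq_of_ne (Ne.symm hv.2)]
          ring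
      · rw [if_neg he, if_neg he]
        simp)
    apply hφ0
    rw [hexp, ← hsum]
    refine Finset.sum_congr rfl fun e _ => ?_
    show (if e ∈ D then κ e else 0) * _ = (if e ∈ D then φ (Pi.single e 1) else 0) * κ e
    split_ifs
    · ring
    · ring

/-- cell structure with polygonal tiles -/
structure Poly (V E T : Type*) [Fintype E] where
  ends : E → Sym2 V
  nd : ∀ e, ¬ (ends e).IsDiag
  On : T → E → Prop
  two : ∀ e, ∃ f g, f ≠ g ∧ ∀ h, On h e ↔ h = f ∨ h = g
  link : ∀ (v : V) (A : Set T),
    (∀ e, v ∈ ends e → ∀ f g, On f e → On g e → f ∈ A → g ∈ A) →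
    ∀ e, v ∈ ends e → ∀ f, On f e → f ∈ A → ∀ e', v ∈ ends e' → ∀ g, On g e' → g ∈ A
  /-- a vertex of a tile is on exactly two edges of the tile -/
  deg2 : ∀ f e v, On f e → v ∈ ends e → ∃ e', e' ≠ e ∧ On f e' ∧ v ∈ ends e' ∧
    ∀ e'', On f e'' → v ∈ ends e'' → e'' = e ∨ e'' = e'
  /-- the boundary of a tile is connected -/
  bdc : ∀ f (Z : Set V), (∀ e, On f e → ∀ u v, ends e = s(u, v) → u ∈ Z → v ∈ Z) →
    ∀ e e', On f e → On f e' → ∀ v ∈ ends e, ∀ v' ∈ ends e', v ∈ Z → v' ∈ Z
  /-- tile free `H¹ = 0` -/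
  h1 : ∀ κ : E → ZMod 2, (∀ f, ∃ ψ : V → ZMod 2, ∀ e, On f e → ∀ u v, ends e = s(u, v) →
      κ e = ψ u + ψ v) → ∃ Ψ : V → ZMod 2, ∀ e u v, ends e = s(u, v) → κ e = Ψ u + Ψ v
  /-- connected -/
  vconn : ∀ Z : Set V, (∀ e u v, ends e = s(u, v) → u ∈ Z → v ∈ Z) → ∀ u v, u ∈ Z → v ∈ Z
  /-- a tile has an edge -/
  ex_on : ∀ f, ∃ e, On f e

namespace Poly

variable (S : Poly V E T)

/-- a cochain with sum zero on a tile is exact on the tile -/
theorem exact_tile (f : T) (κ : E → ZMod 2)
    (h : (∑ e, open Classical in if S.On f e then κ e else 0) = 0) :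
    ∃ ψ : V → ZMod 2, ∀ e, S.On f e → ∀ u v, S.ends e = s(u, v) → κ e = ψ u + ψ v := by
  classical
  refine exact_of_orth S.nd {e | S.On f e} κ ?_
  intro z hz0 hzv
  -- `z` is constant on the edges at a vertex
  have hloc : ∀ e e' v, S.On f e → S.On f e' → v ∈ S.ends e → v ∈ S.ends e' → z e = z e' := by
    intro e e' v he he' hv hv'
    by_cases hee : e' = e
    · rw [hee]
    · obtain ⟨e1, h1, h2, h3, h4⟩ := S.deg2 f e v he hv
      have h5 := h4 e' he' hv'
      rcases h5 with h5 | h5
      · exact absurd h5 hee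
      · subst h5
        have h6 := hzv v
        rw [← Finset.sum_subset (Finset.subset_univ {e, e'}), Finset.sum_pair (Ne.symm hee),
          if_pos hv, if_pos hv'] at h6
        · have h7 : z e = - z e' := by linear_combination h6
          rw [h7, CharTwo.neg_eq]
        · intro e2 _ h7
          split_ifs with h8
          · apply hz0
            intro h9
            apply h7
            rw [Finset.mem_insert, Finset.mem_singleton]
            exact h4 e2 h9 h8
          · rfl
  -- so it is constant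
  have hconst : ∀ e e', S.On f e → S.On f e' → z e = 1 → z e' = 1 := by
    intro e e' he he' h1
    obtain ⟨u, v, huv⟩ := exists_pair S.ends e
    obtain ⟨u', v', huv'⟩ := exists_pair S.ends e'
    have hu : u ∈ S.ends e := by rw [huv]; exact Sym2.mem_mk_left _ _
    have hu' : u' ∈ S.ends e' := by rw [huv']; exact Sym2.mem_mk_left _ _
    have := S.bdc f {w | ∃ e2, S.On f e2 ∧ w ∈ S.ends e2 ∧ z e2 = 1} (by
      rintro e3 he3 a b hab ⟨e2, h2, h3, h4⟩
      have ha : a ∈ S.ends e3 := by rw [hab]; exact Sym2.mem_mk_left _ _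
      have hb : b ∈ S.ends e3 := by rw [hab]; exact Sym2.mem_mk_right _ _
      exact ⟨e3, he3, hb, by rw [← hloc e2 e3 a h2 he3 h3 ha]; exact h4⟩)
      e e' he he' u hu u' hu' ⟨e, he, hu, h1⟩
    obtain ⟨e2, h2, h3, h4⟩ := this
    rw [← hloc e2 e' u' h2 he' h3 hu']
    exact h4
  by_cases hex : ∃ e, S.On f e ∧ z e = 1
  · obtain ⟨e0, he0, h0⟩ := hex
    rw [← h]
    refine Finset.sum_congr rfl fun e _ => ?_
    by_cases he : S.On f e
    · rw [if_pos he, hconst e0 e he0 he h0, one_mul]
    · rw [if_neg he, hz0 e he, zero_mul]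
  · push Not at hex
    apply Finset.sum_eq_zero
    intro e _
    by_cases he : S.On f e
    · rcases Real.two' (z e) with h5 | h5
      · rw [h5, zero_mul]
      · exact absurd h5 (hex e he)
    · rw [hz0 e he, zero_mul]

/-- **the surface** -/
def surf : Surf V E T where
  ends := S.ends
  nd := S.nd
  On := S.On
  two := S.two
  link := S.link
  sep z hz := sep_of_h1 S.nd S.two (fun κ hκ => S.h1 κ fun f => S.exact_tile f κ (hκ f)) z hz
  conn w hw := by
    have key : ∀ (v : V) e e', v ∈ S.ends e → v ∈ S.ends e' → ∀ f g, S.On f e → S.On g e' →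
        w f = w g := by
      intro v e e' he he' f g hf hg
      exact (S.link v {h | w f = w h} (fun e1 _ f1 g1 hf1 hg1 h1 =>
        (show w f = w f1 from h1).trans (hw e1 f1 g1 hf1 hg1)) e he f hf rfl e' he' g hg)
    intro f g
    obtain ⟨e, he⟩ := S.ex_on f
    obtain ⟨e', he'⟩ := S.ex_on g
    obtain ⟨u, v, huv⟩ := exists_pair S.ends e
    obtain ⟨u', v', huv'⟩ := exists_pair S.ends e'
    have hu : u ∈ S.ends e := by rw [huv]; exact Sym2.mem_mk_left _ _
    have hu' : u' ∈ S.ends e' := by rw [huv']; exact Sym2.mem_mk_left _ _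
    have := S.vconn {x | ∀ e, x ∈ S.ends e → ∀ h, S.On h e → w f = w h} (by
      intro e1 a b hab ha e2 hb h hh
      have ha1 : a ∈ S.ends e1 := by rw [hab]; exact Sym2.mem_mk_left _ _
      have hb1 : b ∈ S.ends e1 := by rw [hab]; exact Sym2.mem_mk_right _ _
      obtain ⟨k, k', -, hall⟩ := S.two e1
      have hk : S.On k e1 := (hall k).2 (Or.inl rfl)
      exact (ha e1 ha1 k hk).trans (key b e1 e2 hb1 hb k h hk hh)) u u'
      (fun e2 he2 h hh => key u e e2 hu he2 f h he hh)
    exact this e' hu' g he'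

theorem evenT : EvenT S.surf := by
  intro f v
  rcases Set.eq_empty_or_nonempty {e | S.surf.On f e ∧ v ∈ S.surf.ends e} with h | ⟨e, he, hv⟩
  · rw [h, Set.ncard_empty]; exact Even.zero
  · obtain ⟨e', h1, h2, h3, h4⟩ := S.deg2 f e v he hv
    have : {e | S.surf.On f e ∧ v ∈ S.surf.ends e} = {e, e'} := by
      ext e''
      constructor
      · rintro ⟨h5, h6⟩
        exact h4 e'' h5 h6
      · rintro (rfl | rfl)
        · exact ⟨he, hv⟩
        · exact ⟨h2, h3⟩
    rw [this, Set.ncard_pair h1.symm]
    exact even_two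

end Poly

end Crest.Agent.R096.Spp_333
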