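import Crest.Agent.R096.Shp2_334
import Crest.Agent.R096.Sps1_333

/-!
# R096 (row 96), DOORS / SPH (helper333), part s2: a sheet of 416's band structure as `Surf` + `Real`

* `Mfd Q dim`      : the poset of the mesh is a 3-manifold near the 1-cells;
* `sheetPoly`      : the combinatorial surface of the sheet `j` (points, chords, tiles);
* `sheetReal`      : its geometric realisation (560's `Real`) on `{z ∈ Ω | G_j z = 1/2}`.
-/

set_option autoImplicit false

open Set Metric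

namespace Crest.Agent.R096.Spp_333

open Crest.Agent.R096.Sph_560 Crest.Agent.R096.Ce_537 Crest.Agent.R096.Bd_416
  Crest.Agent.R096.Shp_334

/-- the mesh is a manifold near its 1-cells -/
structure Mfd (Q : Type) [PartialOrder Q] (dim : Q → ℕ) : Prop where
  /-- a 2-cell is in exactly two 3-cells -/
  two : ∀ F, dim F = 2 → ∃ q q', q ≠ q' ∧ ∀ r, (F < r ∧ dim r = 3) ↔ r = q ∨ r = q'
  /-- the 3-cells at a 1-cell are connected through the 2-cells at it -/
  link : ∀ e, dim e = 1 → ∀ A : Set Q,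
    (∀ F, dim F = 2 → e < F → ∀ q q', dim q = 3 → dim q' = 3 → F < q → F < q' →
      q ∈ A → q' ∈ A) →
    ∀ q q', dim q = 3 → dim q' = 3 → e < q → e < q' → q ∈ A → q' ∈ A
  /-- a 1-cell of a 3-cell is in exactly two 2-cells of it -/
  dia : ∀ e q, dim e = 1 → dim q = 3 → e < q →
    ∃ F F', F ≠ F' ∧ ∀ G, (dim G = 2 ∧ e < G ∧ G < q) ↔ G = F ∨ G = F'

section comb

variable {Q : Type} [PartialOrder Q] {dim : Q → ℕ} {J Fam : Type}
variable {C : Cmb Q dim J Fam} {j : J}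

/-- the piece of a bigger cell over a piece -/
def upP {k l : ℕ} (y : Pce C j k) {q : Q} (h : y.1.1 < q) (hd : dim q = l) : Pce C j l :=
  ⟨⟨q, C.up h y.1.2⟩, hd, by
    show C.col q _ = j
    rw [C.col_up, y.2.2]⟩

theorem sub_upP {k l : ℕ} (y : Pce C j k) {q : Q} (h : y.1.1 < q) (hd : dim q = l) :
    Sub C y (upP y h hd) := ⟨h, rfl⟩

theorem eq_upP {k l : ℕ} {y : Pce C j k} {t : Pce C j l} (h : Sub C y t) :
    ∃ h' : y.1.1 < t.1.1, t = upP y h' t.2.1 := by
  obtain ⟨h', e⟩ := h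
  refine ⟨h', ?_⟩
  apply Subtype.ext
  show t.1 = ⟨t.1.1, C.up h' y.1.2⟩
  rw [e]

theorem upP_congr {k l : ℕ} {y : Pce C j k} {q q' : Q} {h : y.1.1 < q} {hd : dim q = l}
    {h' : y.1.1 < q'} {hd' : dim q' = l} (e : q = q') : upP y h hd = upP y h' hd' := by
  subst e; rfl

/-- two tiles at a chord -/
theorem two_tiles (hM : Mfd Q dim) (y : Pce C j 2) :
    ∃ f g : Pce C j 3, f ≠ g ∧ ∀ h, Sub C y h ↔ h = f ∨ h = g := by
  obtain ⟨q, q', hqq, hall⟩ := hM.two y.1.1 y.2.1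
  obtain ⟨h1, h2⟩ := (hall q).2 (Or.inl rfl)
  obtain ⟨h3, h4⟩ := (hall q').2 (Or.inr rfl)
  refine ⟨upP y h1 h2, upP y h3 h4, fun h => hqq (congrArg (fun t => t.1.1) h), fun t => ?_⟩
  constructor
  · intro ht
    obtain ⟨h', e⟩ := eq_upP ht
    rcases (hall t.1.1).1 ⟨h', t.2.1⟩ with h | h
    · left; rw [e]; exact upP_congr h
    · right; rw [e]; exact upP_congr h
  · rintro (rfl | rfl)
    · exact sub_upP y h1 h2
    · exact sub_upP y h3 h4

/-- the link of a point -/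
theorem link_pt (hM : Mfd Q dim) (v : Pce C j 1) (A : Set (Pce C j 3))
    (hA : ∀ y : Pce C j 2, Sub C v y → ∀ f g, Sub C y f → Sub C y g → f ∈ A → g ∈ A)
    {f g : Pce C j 3} (hf : Sub C v f) (hg : Sub C v g) (hfA : f ∈ A) : g ∈ A := by
  obtain ⟨h1, e1⟩ := eq_upP hf
  obtain ⟨h2, e2⟩ := eq_upP hg
  have := hM.link v.1.1 v.2.1 {q | ∀ (h : v.1.1 < q) (hd : dim q = 3), upP v h hd ∈ A} (by
    intro F hF heF q q' hq hq' hFq hFq' hqA h' hd'
    have hy := sub_upP v heF hF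
    have e3 : ∀ {r : Q} (hFr : F < r) (hr : dim r = 3),
        upP (upP v heF hF) hFr hr = upP v (heF.trans hFr) hr := by
      intro r hFr hr
      apply Subtype.ext
      show (⟨r, C.up hFr (C.up heF v.1.2)⟩ : Σ e, C.I e) = ⟨r, C.up (heF.trans hFr) v.1.2⟩
      rw [C.up_up heF hFr]
    have h5 := hA (upP v heF hF) hy (upP v (heF.trans hFq) hq) (upP v (heF.trans hFq') hq')
      (by rw [← e3 hFq hq]; exact sub_upP _ _ _) (by rw [← e3 hFq' hq']; exact sub_upP _ _ _)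
      (hqA _ _)
    exact h5) f.1.1 g.1.1 f.2.1 g.2.1 h1 h2 (by
      intro h hd
      rw [e1] at hfA
      exact hfA)
  rw [e2]
  exact this h2 g.2.1

/-- the two chords of a tile at a point -/
theorem two_chords (hM : Mfd Q dim) {t : Pce C j 3} {y : Pce C j 2} {v : Pce C j 1}
    (hy : Sub C y t) (hv : Sub C v y) : ∃ y' : Pce C j 2, y' ≠ y ∧ Sub C y' t ∧ Sub C v y' ∧
      ∀ y'', Sub C y'' t → Sub C v y'' → y'' = y ∨ y'' = y' := by
  obtain ⟨hyt, ey⟩ := eq_upP hy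
  obtain ⟨hvy, ev⟩ := eq_upP hv
  obtain ⟨F1, F2, hne, hall⟩ := hM.dia v.1.1 t.1.1 v.2.1 t.2.1 (hvy.trans hyt)
  have key : ∀ F, (dim F = 2 ∧ v.1.1 < F ∧ F < t.1.1) → F ≠ y.1.1 →
      (∀ G, (dim G = 2 ∧ v.1.1 < G ∧ G < t.1.1) → G = y.1.1 ∨ G = F) →
      ∃ y' : Pce C j 2, y' ≠ y ∧ Sub C y' t ∧ Sub C v y' ∧
      ∀ y'', Sub C y'' t → Sub C v y'' → y'' = y ∨ y'' = y' := by
    rintro F ⟨hF, hvF, hFt⟩ hFy hG
    refine ⟨upP v hvF hF, fun h => hFy (congrArg (fun t => t.1.1) h), ?_, sub_upP _ _ _, ?_⟩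
    · refine ⟨hFt, ?_⟩
      show C.up hFt (C.up hvF v.1.2) = t.1.2
      obtain ⟨h1, e1⟩ := hv.trans hy
      rw [← C.up_up hvF hFt]
      exact e1
    · intro y'' h1 h2
      obtain ⟨h3, e3⟩ := eq_upP h2
      obtain ⟨h4, -⟩ := h1
      rcases hG y''.1.1 ⟨y''.2.1, h3, h4⟩ with h5 | h5
      · left
        rw [e3, ev]
        exact upP_congr h5
      · right
        rw [e3]
        exact upP_congr h5
  rcases (hall y.1.1).1 ⟨y.2.1, hvy, hyt⟩ with h | h
  · refine key F2 ((hall F2).2 (Or.inr rfl)) (fun h' => hne (h.symm.trans h'.symm)) ?_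
    intro G hG
    rcases (hall G).1 hG with h' | h'
    · left; rw [h', h]
    · right; exact h'
  · refine key F1 ((hall F1).2 (Or.inl rfl)) (fun h' => hne (h'.trans h)) ?_
    intro G hG
    rcases (hall G).1 hG with h' | h'
    · right; exact h'
    · left; rw [h', h]

/-- a chord of a tile at a point of it -/
theorem exists_chord (hM : Mfd Q dim) {t : Pce C j 3} {v : Pce C j 1} (hv : Sub C v t) :
    ∃ y : Pce C j 2, Sub C v y ∧ Sub C y t := by
  obtain ⟨h, e⟩ := hv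
  obtain ⟨F, F', -, hall⟩ := hM.dia v.1.1 t.1.1 v.2.1 t.2.1 h
  obtain ⟨h1, h2, h3⟩ := (hall F).2 (Or.inl rfl)
  refine ⟨upP v h2 h1, sub_upP _ _ _, h3, ?_⟩
  show C.up h3 (C.up h2 v.1.2) = t.1.2
  rw [← C.up_up h2 h3]
  exact e

end comb

section geo

variable {Q : Type} [PartialOrder Q] {dim : Q → ℕ} {J Fam : Type}
variable {E : Type*} [NormedAddCommGroup E] [NormedSpace ℝ E]
variable {C : Cmb Q dim J Fam} {K : Q → Set E} {g : Gd E J}
  {P : ∀ q, C.I q → Set E} {c : ∀ q, C.I q → E → ℝ} {Ω : Set E}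
variable (H : Inv C K univ g P c) (X : Cplx Ω Q dim K) {j : J} (hB : Bls C K c j)
variable (hM : Mfd Q dim)

/-- the ends of a chord -/
noncomputable def cends (H : Inv C K univ g P c) (X : Cplx Ω Q dim K) (hB : Bls C K c j)
    (y : Pce C j 2) : Sym2 (Pce C j 1) := s(ea H X hB y, eb H X hB y)

theorem mem_cends {y : Pce C j 2} {v : Pce C j 1} : v ∈ cends H X hB y ↔ Sub C v y := by
  rw [cends, Sym2.mem_iff]
  obtain ⟨-, h1, h2, h3⟩ := ends_spec H X hB y
  constructor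
  · rintro (rfl | rfl)
    · exact h1
    · exact h2
  · exact h3 v

theorem cends_eq {y : Pce C j 2} {a b : Pce C j 1} (ha : Sub C a y) (hb : Sub C b y)
    (hab : a ≠ b) : cends H X hB y = s(a, b) := by
  rw [cends]
  obtain ⟨-, h1, h2, h3⟩ := ends_spec H X hB y
  rcases h3 a ha with rfl | rfl <;> rcases h3 b hb with rfl | rfl
  · exact absurd rfl hab
  · rfl
  · exact Sym2.eq_swap
  · exact absurd rfl hab

theorem cends_ne {y : Pce C j 2} {a b : Pce C j 1} (h : cends H X hB y = s(a, b)) : a ≠ b := by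
  rintro rfl
  rw [cends, Sym2.eq_iff] at h
  obtain ⟨h0, -⟩ := ends_spec H X hB y
  rcases h with ⟨h1, h2⟩ | ⟨h1, h2⟩ <;> exact h0 (h1.trans h2.symm)

/-- **the combinatorial surface of a sheet** -/
noncomputable def sheetPoly [Fintype (Pce C j 2)] (h1 : SH1 C j) (hc : SConn C j) :
    Poly (Pce C j 1) (Pce C j 2) (Pce C j 3) where
  ends := cends H X hB
  nd y h := (ends_spec H X hB y).1 (Sym2.mk_isDiag_iff.1 h)
  On t y := Sub C y t
  two y := two_tiles hM y
  link v A hA y hvy f hyf hfA y' hvy' g hyg := by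
    have h2 := (mem_cends H X hB).1 hvy
    have h3 := (mem_cends H X hB).1 hvy'
    refine link_pt hM v A (fun y'' h4 f' g' h5 h6 h7 => ?_) (h2.trans hyf) (h3.trans hyg) hfA
    exact hA y'' ((mem_cends H X hB).2 h4) f' g' h5 h6 h7
  deg2 t y v hyt hv := by
    obtain ⟨y', h2, h3, h4, h5⟩ := two_chords hM hyt ((mem_cends H X hB).1 hv)
    exact ⟨y', h2, h3, (mem_cends H X hB).2 h4,
      fun y'' h6 h7 => h5 y'' h6 ((mem_cends H X hB).1 h7)⟩
  bdc t Z hZ y y' hy hy' v hv v' hv' hvZ := by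
    refine tile_bdc H X hB t Z (fun y'' h2 => ?_) (((mem_cends H X hB).1 hv).trans hy)
      (((mem_cends H X hB).1 hv').trans hy') hvZ
    exact ⟨hZ y'' h2 _ _ rfl, hZ y'' h2 _ _ Sym2.eq_swap⟩
  h1 κ hκ := by
    obtain ⟨Ψ, hΨ⟩ := h1 κ (fun t => by
      obtain ⟨ψ, hψ⟩ := hκ t
      exact ⟨ψ, fun y hy a b ha hb hab => hψ y hy a b (cends_eq H X hB ha hb hab)⟩)
    refine ⟨Ψ, fun y u v huv => ?_⟩
    have hu : u ∈ cends H X hB y := by rw [huv]; exact Sym2.mem_mk_left _ _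
    have hv : v ∈ cends H X hB y := by rw [huv]; exact Sym2.mem_mk_right _ _
    exact hΨ y u v ((mem_cends H X hB).1 hu) ((mem_cends H X hB).1 hv) (cends_ne H X hB huv)
  vconn Z hZ u v hu := by
    refine hc.2 Z (fun y a b ha hb haZ => ?_) u v hu
    by_cases hab : a = b
    · rw [← hab]; exact haZ
    · exact hZ y a b (cends_eq H X hB ha hb hab) haZ
  ex_on t := by
    obtain ⟨v, hv⟩ := exists_sub_pt H X hB t
    obtain ⟨y, -, hy⟩ := exists_chord hM hv
    exact ⟨y, hy⟩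

include H X in
/-- a point of the sheet on a chord is an end of it -/
theorem sub_of_pt {k : ℕ} (hk : 1 < k) {y : Pce C j k} {v : Pce C j 1} (h : pt hB v ∈ Zs' c K y) :
    Sub C v y := by
  obtain ⟨m, w, hw, hd, hm, hc, h1, h1'⟩ := Zr_inter H X h (pt_mem hB v)
  rcases h1' with ⟨e', h'⟩ | ⟨hlt', h'⟩
  · rcases h1 with ⟨e, h2⟩ | ⟨hlt, h2⟩
    · exfalso
      have h3 := y.2.1
      rw [← e, e', v.2.1] at h3
      omega
    · subst e'
      simp only at h'
      subst h'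
      exact ⟨hlt, h2⟩
  · have h3 := X.mono _ _ hlt'
    rw [v.2.1] at h3
    omega

/-- **the realisation of a sheet** -/
noncomputable def sheetReal [Fintype (Pce C j 2)] (h1 : SH1 C j) (hc : SConn C j)
    (htop : Top3 Q dim) :
    Real (sheetPoly H X hB hM h1 hc).surf {z | z ∈ Ω ∧ g.G j z = 1/2} where
  pt := pt hB
  arc := Zs' c K
  tile := Zs' c K
  inj _ _ h := pt_inj H X hB h
  arc_ball y := by
    have h2 : IsBall 1 (Zs' c K y) (Zs' c K y ∩ bdS K y.1.1) := by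
      have := hB y.1.1 (by rw [y.2.1]; norm_num) y.1.2 y.2.2
      rwa [y.2.1] at this
    have h3 : Zs' c K y ∩ bdS K y.1.1 = pt hB '' {v | v ∈ cends H X hB y} := by
      ext z
      constructor
      · rintro ⟨hz, hb⟩
        obtain ⟨l, hl, hl', v, hv, hzv⟩ := Zr_bd H X hz hb
        obtain rfl : l = 1 := by omega
        rw [pt_eq hB v] at hzv
        exact ⟨v, (mem_cends H X hB).2 hv, hzv.symm⟩
      · rintro ⟨v, hv, rfl⟩
        have hv' := (mem_cends H X hB).1 hv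
        exact ⟨Zs'_mono H X hv' (pt_mem hB v), sub_bd X hv' (pt_mem hB v)⟩
    rw [h3] at h2
    exact h2
  pt_arc v y h := (mem_cends H X hB).2 (sub_of_pt H X hB (by norm_num) h)
  arc_arc y y' hne z hz hz' := by
    obtain ⟨l, hl, hl', w, hw, hw', hzw⟩ := Zr_inter_ne H X hne hz hz'
    obtain rfl : l = 1 := by omega
    rw [pt_eq hB w] at hzw
    exact ⟨w, (mem_cends H X hB).2 hw, hzw⟩
  tile_closed t := (hB t.1.1 (by rw [t.2.1]; norm_num) t.1.2 t.2.2).isClosed
  arc_tile t y h := Zs'_mono H X h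
  tile_arc t y z hz hz' := by
    obtain ⟨m, w, hw, hd, hm, hcm, h2, h3⟩ := Zr_inter H X hz hz'
    rcases h3 with ⟨e', h'⟩ | ⟨hlt', h'⟩
    · -- `m` is the cell of the chord
      left
      rcases h2 with ⟨e, h4⟩ | ⟨hlt, h4⟩
      · exfalso
        have h5 := t.2.1
        rw [← e, e', y.2.1] at h5
        omega
      · subst e'
        simp only at h'
        subst h'
        exact ⟨hlt, h4⟩
    · -- `m` is a 1-cell
      right
      have h5 := X.mono _ _ hlt'
      rw [y.2.1] at h5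
      have hm1 : dim m = 1 := by omega
      let v : Pce C j 1 := ⟨⟨m, w⟩, hm1, hcm⟩
      refine ⟨v, ?_⟩
      have h6 : z ∈ Zs' c K v := hw
      rw [pt_eq hB v] at h6
      exact h6
  tile_pt t v h := by
    obtain ⟨y, hy, hyt⟩ := exists_chord hM (sub_of_pt H X hB (by norm_num) h)
    exact ⟨y, (mem_cends H X hB).2 hy, hyt⟩
  tile_tile t t' hne z hz hz' := by
    obtain ⟨l, hl, hl', w, hw, hw', hzw⟩ := Zr_inter_ne H X hne hz hz'
    have hl2 : l = 1 ∨ l = 2 := by omega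
    rcases hl2 with rfl | rfl
    · obtain ⟨y, hy, hyt⟩ := exists_chord hM hw
      exact ⟨y, hyt, Zs'_mono H X hy hzw⟩
    · exact ⟨w, hw, hzw⟩
  tile_ne t := by
    have h2 : IsBall 2 (Zs' c K t) (Zs' c K t ∩ bdS K t.1.1) := by
      have := hB t.1.1 (by rw [t.2.1]; norm_num) t.1.2 t.2.2
      rwa [t.2.1] at this
    obtain ⟨e, he⟩ := h2
    have h0 : (0 : Fin 2 → ℝ) ∈ cube 2 := by simp [cube]
    refine ⟨e.f 0, e.mf h0, fun y hy => ?_⟩
    -- the point is on the boundary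
    have hyb : e.f 0 ∈ bdS K t.1.1 := by
      obtain ⟨m, w, hw, hd, hm, hcm, h3, h4⟩ := Zr_inter H X (e.mf h0) hy
      rcases h3 with ⟨e1, -⟩ | ⟨hlt, -⟩
      · exfalso
        have hle : dim m ≤ dim y.1.1 := by
          rcases h4 with ⟨e2, -⟩ | ⟨hlt, -⟩
          · rw [e2]
          · exact (X.mono _ _ hlt).le
        rw [e1, t.2.1, y.2.1] at hle
        omega
      · exact mem_biUnion (show m ∈ {i | i < t.1.1} from hlt) hw.1
    have h5 : e.f 0 ∈ e.f '' sph 2 := by rw [he]; exact ⟨e.mf h0, hyb⟩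
    obtain ⟨s, hs, hse⟩ := h5
    have h6 : s = 0 := by
      rw [← e.li s (sph_subset_cube hs), hse, e.li 0 h0]
    rw [h6] at hs
    have h7 : ‖(0 : Fin 2 → ℝ)‖ = 1 := mem_sphere_zero_iff_norm.1 hs
    rw [norm_zero] at h7
    exact zero_ne_one h7
  cov := by
    rw [← sheet_eq H X htop hB]
    rfl

end geo

end Crest.Agent.R096.Spp_333
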