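import Crest.Agent.R096.Shp3_334
import Crest.Agent.R096.Sps2_333

/-!
# R096 (row 96), DOORS / SPH (helper333), part s3: the cells of a 3-dimensional tiling are a manifold

`mfd_cell : Mfd T.Cell dim`, `top3_cell : Top3 T.Cell dim`.
-/

set_option autoImplicit false

open Set Metric

namespace Crest.Agent.R096.Spp_333

open Crest.Agent.R096.Msh_715 Crest.Agent.R096.Agl3_543 Crest.Agent.R096.Agl5_543
  Crest.Agent.R096.Shp_334 Crest.Agent.R096.Cm_117

variable {E : Type} [NormedAddCommGroup E] [NormedSpace ℝ E] [FiniteDimensional ℝ E]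
variable {Om : Set E} {ι : Type} {T : Tiling Om ι}

theorem tcell_inj {q q' : ι} (h : tcell T q = tcell T q') : q = q' := by
  have h1 : Msh_715.P (T.H q) = Msh_715.P (T.H q') := by
    rw [← tcell_set, ← tcell_set, h]
  obtain ⟨z, hz⟩ := T.ne q
  have h2 := T.at_eq_singleton hz
  have h3 : q' ∈ T.at_ z := by
    rw [Tiling.mem_at, ← h1]
    exact I_sub_P _ hz
  rw [h2] at h3
  exact (mem_singleton_iff.1 h3).symm

/-- a 3-cell is a tile -/
theorem exists_tcell (h3 : Module.finrank ℝ E = 3) {c : T.Cell} (hc : c.dim = 3) :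
    ∃ q, c = tcell T q := by
  have h1 : T.V c.pt = ⊤ := by
    apply Submodule.eq_top_of_finrank_eq
    rw [h3]
    exact hc
  obtain ⟨q, hq⟩ := (T.V_eq_top_iff c.pt_mem).1 h1
  refine ⟨q, Tiling.Cell.ext ?_⟩
  rw [tcell_set, c.set_eq, T.cc_eq_tile hq]

/-- a cell is in a tile iff its point is -/
theorem lt_tcell_iff (h3 : Module.finrank ℝ E = 3) {c : T.Cell} (hc : c.dim < 3) {q : ι} :
    c < tcell T q ↔ q ∈ T.at_ c.pt := by
  constructor
  · intro h
    have h1 := Tiling.Cell.le_def.1 h.le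
    rw [tcell_set] at h1
    exact h1 (by rw [c.set_eq]; exact T.self_mem_cc _)
  · intro h
    refine lt_of_le_of_ne ?_ ?_
    · rw [Tiling.Cell.le_def, tcell_set, c.set_eq]
      exact T.cc_sub_tile h
    · intro h'
      rw [h', tcell_dim (h3 := h3)] at hc
      omega

/-- **the cells of a tiling of dimension three are a manifold near the 1-cells** -/
theorem mfd_cell (h3 : Module.finrank ℝ E = 3) : Mfd T.Cell (fun c => c.dim) where
  two F hF := by
    obtain ⟨i, j, h1, h2, -⟩ := T.two_tiles F.pt_mem (by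
      show F.dim + 1 = _
      rw [hF, h3])
    refine ⟨tcell T i, tcell T j, fun h => h1 (tcell_inj h), fun r => ?_⟩
    constructor
    · rintro ⟨hr, hr3⟩
      obtain ⟨q, rfl⟩ := exists_tcell h3 hr3
      have h4 := (lt_tcell_iff h3 (by rw [hF]; norm_num)).1 hr
      rw [h2] at h4
      rcases h4 with rfl | h4
      · exact Or.inl rfl
      · rw [mem_singleton_iff.1 h4]; exact Or.inr rfl
    · rintro (rfl | rfl)
      · refine ⟨(lt_tcell_iff h3 (by rw [hF]; norm_num)).2 ?_, tcell_dim (h3 := h3) i⟩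
        rw [h2]; exact Or.inl rfl
      · refine ⟨(lt_tcell_iff h3 (by rw [hF]; norm_num)).2 ?_, tcell_dim (h3 := h3) j⟩
        rw [h2]; exact Or.inr rfl
  link e he A hA q q' hq hq' heq heq' hqA := by
    obtain ⟨i, rfl⟩ := exists_tcell h3 hq
    obtain ⟨i', rfl⟩ := exists_tcell h3 hq'
    have hlt : e.dim < 3 := by rw [he]; norm_num
    have h1 := (lt_tcell_iff h3 hlt).1 heq
    have h2 := (lt_tcell_iff h3 hlt).1 heq'
    refine link T h3 e.pt_mem he (A := {i | tcell T i ∈ A}) hqA h1 ?_ i' h2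
    intro k hk l x hx hd hpx hat
    have hF : (T.cl hx).dim = 2 := by rw [T.dim_cl hx, hd]
    have heF : e < T.cl hx := by
      refine lt_of_le_of_ne ?_ ?_
      · rw [Tiling.Cell.le_def, e.set_eq, T.cl_set]
        exact T.cc_sub_of_mem hpx
      · rintro h4
        rw [h4] at he
        rw [hF] at he
        norm_num at he
    have hat' : T.at_ (T.cl hx).pt = {k, l} := by
      rw [T.at_eq_of_mem_oc hx (T.pt_cl hx), hat]
    exact hA (T.cl hx) hF heF (tcell T k) (tcell T l) (tcell_dim (h3 := h3) k)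
      (tcell_dim (h3 := h3) l)
      ((lt_tcell_iff h3 (by rw [hF]; norm_num)).2 (by rw [hat']; exact Or.inl rfl))
      ((lt_tcell_iff h3 (by rw [hF]; norm_num)).2 (by rw [hat']; exact Or.inr rfl)) hk
  dia e q he hq heq := by
    obtain ⟨i, rfl⟩ := exists_tcell h3 hq
    have hlt : e.dim < 3 := by rw [he]; norm_num
    have h1 := (lt_tcell_iff h3 hlt).1 heq
    obtain ⟨x₁, hx1, x₂, hx2, hd1, hd2, hq1, hq2, hp1, hp2, hne, huniq⟩ :=
      two_cells T h3 e.pt_mem he h1
    refine ⟨T.cl hx1, T.cl hx2, fun h => hne (congrArg Tiling.Cell.set h), fun G => ?_⟩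
    have key : ∀ x (hx : x ∈ Om), T.dim x = 2 → i ∈ T.at_ x → e.pt ∈ T.cc x →
        (T.cl hx).dim = 2 ∧ e < T.cl hx ∧ T.cl hx < tcell T i := by
      intro x hx hd hix hex
      have hF : (T.cl hx).dim = 2 := by rw [T.dim_cl hx, hd]
      refine ⟨hF, lt_of_le_of_ne ?_ ?_, ?_⟩
      · rw [Tiling.Cell.le_def, e.set_eq, T.cl_set]
        exact T.cc_sub_of_mem hex
      · rintro h4
        rw [h4] at he
        rw [hF] at he
        norm_num at he
      · refine (lt_tcell_iff h3 (by rw [hF]; norm_num)).2 ?_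
        rw [T.at_eq_of_mem_oc hx (T.pt_cl hx)]
        exact hix
    constructor
    · rintro ⟨hG, heG, hGq⟩
      have h4 := (lt_tcell_iff h3 (by rw [hG]; norm_num)).1 hGq
      have h5 : e.pt ∈ T.cc G.pt := by
        rw [← G.set_eq]
        exact Tiling.Cell.le_def.1 heG.le (by rw [e.set_eq]; exact T.self_mem_cc _)
      rcases huniq G.pt G.pt_mem hG h4 h5 with h | h
      · left; exact Tiling.Cell.ext (by rw [G.set_eq, h]; rfl)
      · right; exact Tiling.Cell.ext (by rw [G.set_eq, h]; rfl)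
    · rintro (rfl | rfl)
      · exact key x₁ hx1 hd1 hq1 hp1
      · exact key x₂ hx2 hd2 hq2 hp2

/-- every cell lies in a 3-cell -/
theorem top3_cell (h3 : Module.finrank ℝ E = 3) : Top3 T.Cell (fun c => c.dim) := by
  intro c
  obtain ⟨i, hi⟩ := T.at_nonempty c.pt_mem
  refine ⟨tcell T i, ?_, tcell_dim (h3 := h3) i⟩
  rw [Tiling.Cell.le_def, tcell_set, c.set_eq]
  exact T.cc_sub_tile hi

end Crest.Agent.R096.Spp_333
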