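import Crest.Agent.R096.Main3_4
import Crest.Agent.R096.Sps3_333

/-!
# R096 (row 96), DOORS / SPH (helper333), part s4: CARRY for a realised sheet

`carry_fin`  : 890's CARRY for a tiling with infinitely many tiles;
`sheet_carry`: the points of the main class of a level surface `S`, mapped homeomorphically onto
`Sg` by `G`, satisfy `Carry`.
-/

set_option autoImplicit false

open Set Metric

namespace Crest.Agent.R096.Spp_333

open Crest.Agent.R096.Sph_560 Crest.Agent.R096.Ce_537 Crest.Agent.R096.Bd_416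
  Crest.Agent.R096.Shp_334 Crest.Agent.R096.Coh_184 Crest.Agent.R096.Jn_890
  Crest.Agent.R096.Seq_213 Crest.Agent.R096.St_147

/-- 890's CARRY for infinitely many cells -/
theorem carry_fin {X ι : Type*} [TopologicalSpace X] [T2Space X] {S : Set X} {c : ι → Set X}
    {P : Finset X} (hS : SheetHyp S c P) (htriv : TrivAll Bool (ZMod 2) S) (W : Set ι)
    {a : Set X} (ha : IsPreconnected a) (haW : a ⊆ un c W ∩ S) {p p' : X}
    (hpa : p ∈ a) (hpa' : p' ∈ a) (hpath : Relation.ReflTransGen (Step S c P) p p') :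
    Relation.ReflTransGen (InStep S c P W) p p' := by
  have hfin : Finite {q // (S ∩ c q).Nonempty} := hS.fin
  let c' : {q // (S ∩ c q).Nonempty} → Set X := fun q => c q.1
  have hch : ∀ {q q' : {q // (S ∩ c q).Nonempty}} {x y : X},
      Chord S c' P q q' x y ↔ Chord S c P q.1 q'.1 x y := by
    intro q q' x y
    constructor
    · intro h
      exact ⟨fun h' => h.ne (Subtype.ext h'), h.left, h.right, h.mem, h.conn⟩
    · intro h
      exact ⟨fun h' => h.ne (congrArg Subtype.val h'), h.left, h.right, h.mem, h.conn⟩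
  have key := carry (c := c') hS.cpt htriv (fun q => hS.closed q.1) (by
      intro x hx
      obtain ⟨q, hq⟩ := mem_iUnion.1 (hS.cov hx)
      exact mem_iUnion.2 ⟨⟨q, x, hx, hq⟩, hq⟩)
    (P := P) (fun q q' q'' h1 h2 h3 => hS.trip q.1 q'.1 q''.1 (fun h => h1 (Subtype.ext h))
      (fun h => h2 (Subtype.ext h)) (fun h => h3 (Subtype.ext h)))
    {q | q.1 ∈ W} ha (by
      intro x hx
      obtain ⟨h1, h2⟩ := haW hx
      obtain ⟨q, hq, hxq⟩ := mem_un.1 h1
      exact ⟨mem_un.2 ⟨⟨q, x, h2, hxq⟩, hq, hxq⟩, h2⟩) hpa hpa' (by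
      clear hpa'
      induction hpath with
      | refl => exact .refl
      | tail _ hs ih =>
        obtain ⟨q, q', h⟩ := hs
        refine ih.tail ⟨⟨q, _, h.mem.1, h.mem.2.1⟩, ⟨q', _, h.mem.1, h.mem.2.2⟩, hch.2 h⟩)
  clear hpa' hpath
  induction key with
  | refl => exact .refl
  | tail _ hs ih =>
    obtain ⟨q, hq, q', h⟩ := hs
    exact ih.tail ⟨q.1, hq, q'.1, hch.1 h⟩

section sheet

open Crest.Agent.R096.Msh_715 Crest.Agent.R096.Agl4_543 Crest.Agent.R096.Agl5_543
  Crest.Agent.R096.Main_4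

variable {E : Type} [NormedAddCommGroup E] [NormedSpace ℝ E] [FiniteDimensional ℝ E]
variable {Om : Set E} {ι : Type} {T : Tiling Om ι} (h3 : Module.finrank ℝ E = 3)
variable {J Fam : Type} {fam : J → Fam} {s : GSt (meshC T h3) fam}
variable {Q : Type} [PartialOrder Q] {dim : Q → ℕ}
variable {E' : Type*} [NormedAddCommGroup E'] [NormedSpace ℝ E']
variable {C : Cmb Q dim J Fam} {K : Q → Set E'} {g : Gd E' J}
  {P' : ∀ q, C.I q → Set E'} {c' : ∀ q, C.I q → E' → ℝ} {Ω : Set E'}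
variable (H : Inv C K univ g P' c') (X : Cplx Ω Q dim K) {j : J} (hB : Bls C K c' j)
variable (hM : Mfd Q dim)
variable {F : Type*} [NormedAddCommGroup F] [NormedSpace ℝ F]

omit [NormedSpace ℝ F] in
/-- **CARRY for a realised sheet** -/
theorem sheet_carry [Fintype (Pce C j 2)] (h1 : SH1 C j) (hc : SConn C j) (D : Dic C s j)
    {u : E → ℝ} {t : ℝ} {S : Set E} (hS : RegLevel T u t S) {P : Finset E}
    (hP : ∀ x, x ∈ P ↔ x ∈ S ∧ T.dim x ≤ 1) (htriv : TrivAll Bool (ZMod 2) S)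
    (hsP : ∀ w ∈ s.P, s.lab w = j → w ∈ S)
    (hstep : ∀ a b, a ∈ s.P → s.lab a = j → a ≠ b → St T S P a b → ∃ F, s.At F a ∧ b = s.mu F a)
    (hcls : ∀ a b, a ∈ s.P → s.lab a = j → b ∈ s.P → s.lab b = j →
      Relation.ReflTransGen (St T S P) a b)
    {G : E → F} {G' : F → E} {Sg : Set F} {δ : ℝ} (hG : MapsTo G S Sg)
    (hG' : ContinuousOn G' Sg) (hG'S : MapsTo G' Sg S) (hGG' : ∀ y ∈ Sg, G (G' y) = y)
    (hG'G : ∀ x ∈ S, G' (G x) = x)
    (hosc : ∀ q, ∀ x ∈ S, ∀ y ∈ S, x ∈ Msh_715.P (T.H q) → y ∈ Msh_715.P (T.H q) →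
      dist (G x) (G y) ≤ δ)
    (hdense : ∀ y ∈ Sg, ∃ w ∈ s.P, s.lab w = j ∧ dist (G w) y ≤ δ) :
    Carry (sheetPoly H X hB hM h1 hc).surf (fun v => G (D.pt v)) Sg δ := by
  have hptS : ∀ v, D.pt v ∈ S := fun v => hsP _ (D.mem v).1 (D.mem v).2
  refine ⟨fun v => hG (hptS v), ?_, ?_⟩
  · intro y hy
    obtain ⟨w, hw, hwj, hd⟩ := hdense y hy
    obtain ⟨a, rfl⟩ := D.sur w hw hwj
    exact ⟨a, hd⟩
  · intro B hB' hBp a b ha hb
    set A : Set E := G' '' B with hA
    have hAp : IsPreconnected A := hBp.image _ (hG'.mono hB')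
    have hAS : A ⊆ S := by
      rintro _ ⟨y, hy, rfl⟩
      exact hG'S (hB' hy)
    have hmemA : ∀ v, G (D.pt v) ∈ B → D.pt v ∈ A := fun v hv =>
      ⟨_, hv, hG'G _ (hptS v)⟩
    have hSH := hS.sheetHyp h3 hP
    set W : Set ι := {q | (Msh_715.P (T.H q) ∩ A).Nonempty} with hW
    have hAW : A ⊆ un (fun q => Msh_715.P (T.H q)) W ∩ S := by
      intro x hx
      refine ⟨?_, hAS hx⟩
      obtain ⟨q, hq⟩ := mem_iUnion.1 (hSH.cov (hAS hx))
      exact mem_un.2 ⟨q, ⟨x, hq, hx⟩, hq⟩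
    have hpath := carry_fin hSH htriv W hAp hAW (hmemA a ha) (hmemA b hb)
      (hcls _ _ (D.mem a).1 (D.mem a).2 (D.mem b).1 (D.mem b).2)
    -- points in the cells of `W` are near `B`
    have hnear : ∀ q ∈ W, ∀ x ∈ S, x ∈ Msh_715.P (T.H q) → ∃ y ∈ B, dist (G x) y ≤ δ := by
      rintro q ⟨z, hzq, y, hy, rfl⟩ x hx hxq
      refine ⟨y, hy, ?_⟩
      have := hosc q x hx _ (hAS ⟨y, hy, rfl⟩) hxq hzq
      rwa [hGG' y (hB' hy)] at this
    -- the path
    have key : ∀ {x : E}, Relation.ReflTransGen (InStep S (fun q => Msh_715.P (T.H q)) P W)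
        (D.pt a) x → ∃ v, D.pt v = x ∧
        (sheetPoly H X hB hM h1 hc).surf.ConnIn {a, v} {w | ∃ y ∈ B, dist (G (D.pt w)) y ≤ δ} := by
      intro x hx
      induction hx with
      | refl => exact ⟨a, rfl, connIn_self a _⟩
      | @tail y z _ hs ih =>
        obtain ⟨v, rfl, hv⟩ := ih
        by_cases hyz : D.pt v = z
        · exact ⟨v, hyz, hv⟩
        · obtain ⟨q, hq, q', hch⟩ := hs
          obtain ⟨F0, hAt, hz⟩ := hstep (D.pt v) z (D.mem v).1 (D.mem v).2 hyz ⟨q, q', hch⟩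
          obtain ⟨y', hy'⟩ := D.ch_ex F0 _ hAt (D.mem v).2
          obtain ⟨a', b', ha', hb', hab, hay, hby⟩ := D.ends hAt (D.mem v).2 hy'
          have hav : a' = v := D.inj ha'
          subst hav
          have hzP : z ∈ S := ((hP z).1 hch.right).1
          have hzq : z ∈ Msh_715.P (T.H q) := hch.mem_right.2.1
          have hvq : D.pt a' ∈ Msh_715.P (T.H q) := hch.mem.2.1
          have h4 : (sheetPoly H X hB hM h1 hc).surf.ConnIn {a', b'}
              {w | ∃ y ∈ B, dist (G (D.pt w)) y ≤ δ} := by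
            refine connIn_edge (e := y') (cends_eq H X hB hay hby hab) ?_ ?_
            · exact hnear q hq _ (hptS a') hvq
            · have : D.pt b' = z := by rw [hb', hz]
              show ∃ y ∈ B, dist (G (D.pt b')) y ≤ δ
              rw [this]
              exact hnear q hq z hzP hzq
          exact ⟨b', by rw [hb', hz], connIn_trans hv h4⟩
    obtain ⟨v, hv, hconn⟩ := key hpath
    rw [D.inj hv] at hconn
    exact hconn

end sheet

end Crest.Agent.R096.Spp_333
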