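import Crest.Agent.R096.Door12_501
import Crest.Agent.R096.Sps4_333
import Crest.Agent.R096.Ginv2_543

/-!
# Row 96, DOORS (helper501), part 13: exactly one essential curve, from connected subsets of the sheet

* `carry_gst`  : 890's `carry` in the language of the global state;
* `EssHyp`     : connected sets on the sheet and in `Om` (geometric input);
* **`ess`**    : on the frontier of the core `c` exactly one curve of the outer part of the sheet
  separates the two far vertices `v₀`, `v₁`.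
-/

set_option autoImplicit false

open Set Module

namespace Crest.Agent.R096.Door_501

open Crest.Agent.R096.St_147 Crest.Agent.R096.Seq_213 Crest.Agent.R096.Msh_715
  Crest.Agent.R096.Agl4_543 Crest.Agent.R096.Agl5_543 Crest.Agent.R096.Ginv_543
  Crest.Agent.R096.Main_4 Crest.Agent.R096.Coh_184 Crest.Agent.R096.Lab_184
  Crest.Agent.R096.Jn_890 Crest.Agent.R096.Spp_333 Crest.Agent.R096.Agl6_543

variable {E : Type} [NormedAddCommGroup E] [NormedSpace ℝ E] [FiniteDimensional ℝ E]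
variable {Om : Set E} {ι κ : Type} {T : Tiling Om ι} {Kc : κ → Set E}
variable {J C : Type} {u : J → E → ℝ} {lv : J → ℝ} {S : J → Set E} {fam : J → C}

/-- a chord on a face of a tile of `W` -/
def WStep {h3 : finrank ℝ E = 3} (s : GSt (meshC T h3) fam) (W : Set ι) (a b : E) : Prop :=
  ∃ F : C2 T, (∃ q ∈ F.side h3, q ∈ W) ∧ a ∈ s.P ∧ a ∈ F.On ∧ b = s.mu F a

theorem WStep.nstep {h3 : finrank ℝ E = 3} {s : GSt (meshC T h3) fam}
    (hdis : ∀ c c', c ≠ c' → Disjoint (Kc c) (Kc c')) {W : Set ι} {c : κ}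
    (hW : ∀ q ∈ W, ¬ P (T.H q) ⊆ Kc c) {a b : E} (h : WStep s W a b) :
    NStep s (piK T Kc) (Sum.inr c) a b := by
  obtain ⟨F, ⟨q, hq, hqW⟩, h1, h2, h4⟩ := h
  exact ⟨F, fun hin => hW q hqW ((piK_inr hdis).1 (hin q hq)), h1, h2, h4⟩

theorem WStep.istep {h3 : finrank ℝ E = 3} {s : GSt (meshC T h3) fam}
    (hdis : ∀ c c', c ≠ c' → Disjoint (Kc c) (Kc c')) {W : Set ι} {c : κ}
    (hW : ∀ q ∈ W, P (T.H q) ⊆ Kc c) {a b : E} (h : WStep s W a b) :
    IStep s (piK T Kc) (Sum.inr c) a b := by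
  obtain ⟨F, ⟨q, hq, hqW⟩, h1, h2, h4⟩ := h
  exact ⟨F, ⟨q, hq, (piK_inr hdis).2 (hW q hqW)⟩, h1, h2, h4⟩

theorem wreach_nstep {h3 : finrank ℝ E = 3} {s : GSt (meshC T h3) fam}
    (hdis : ∀ c c', c ≠ c' → Disjoint (Kc c) (Kc c')) {W : Set ι} {c : κ}
    (hW : ∀ q ∈ W, ¬ P (T.H q) ⊆ Kc c) {a b : E} (h : Relation.ReflTransGen (WStep s W) a b) :
    Relation.ReflTransGen (NStep s (piK T Kc) (Sum.inr c)) a b := by
  induction h with
  | refl => exact .refl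
  | tail _ h2 ih => exact ih.tail (WStep.nstep hdis hW h2)

theorem wreach_istep {h3 : finrank ℝ E = 3} {s : GSt (meshC T h3) fam}
    (hdis : ∀ c c', c ≠ c' → Disjoint (Kc c) (Kc c')) {W : Set ι} {c : κ}
    (hW : ∀ q ∈ W, P (T.H q) ⊆ Kc c) {a b : E} (h : Relation.ReflTransGen (WStep s W) a b) :
    Relation.ReflTransGen (IStep s (piK T Kc) (Sum.inr c)) a b := by
  induction h with
  | refl => exact .refl
  | tail _ h2 ih => exact ih.tail (WStep.istep hdis hW h2)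

/-- **CARRY for the global state**: two points of the main class on a connected subset `A` of the
sheet are joined by chords on faces of tiles of `W`, if `W` covers `A` -/
theorem carry_gst [Nonempty J] (h : GFam T u lv S fam) (h3 : finrank ℝ E = 3) {i : J}
    {P : Finset E} (hP : ∀ x, x ∈ P ↔ x ∈ S i ∧ T.dim x ≤ 1) (ht : TrivF (ZMod 2) (S i))
    {bp : J → E} {W : Set ι} {A : Set E} (hA : IsPreconnected A) (hAS : A ⊆ S i)
    (hAW : ∀ x ∈ A, ∃ q ∈ W, x ∈ Msh_715.P (T.H q)) {p p' : E} (hpA : p ∈ A) (hpA' : p' ∈ A)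
    (hb : ∀ i, bp i ∈ (h.gst h3).P ∧ (h.gst h3).lab (bp i) = i)
    (hp : p ∈ (gmain (h.gst h3) bp).P) (hp' : p' ∈ (gmain (h.gst h3) bp).P) :
    Relation.ReflTransGen (WStep (gmain (h.gst h3) bp) W) p p' := by
  have hlab : ∀ {x : E}, x ∈ A → x ∈ (gmain (h.gst h3) bp).P → (h.gst h3).lab x = i := by
    intro x hxA hx
    have h1 : x ∈ h.pts := hx.1
    obtain ⟨j, hj, hd⟩ := h1
    exact h.lab_eq (hAS hxA) hd
  have hPx : ∀ {x : E}, x ∈ A → x ∈ (gmain (h.gst h3) bp).P → x ∈ P := by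
    intro x hxA hx
    have h1 : x ∈ h.pts := hx.1
    obtain ⟨j, hj, hd⟩ := h1
    exact (hP x).2 ⟨hAS hxA, hd⟩
  have hreach : ∀ {x : E}, x ∈ A → x ∈ (gmain (h.gst h3) bp).P →
      Relation.ReflTransGen (GStep (h.gst h3)) (bp i) x := by
    intro x hxA hx
    obtain ⟨j, hj⟩ := hx.2
    have h1 := (gcomp_lab hb hj).2
    rw [hlab hxA hx] at h1
    rw [h1]; exact hj
  have hsymm : ∀ {x y : E}, Relation.ReflTransGen (GStep (h.gst h3)) x y →
      Relation.ReflTransGen (GStep (h.gst h3)) y x := by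
    intro x y hxy
    induction hxy with
    | refl => exact .refl
    | tail _ h2 ih => exact Relation.ReflTransGen.head h2.symm ih
  have h1 : Relation.ReflTransGen (GStep (h.gst h3)) p p' :=
    (hsymm (hreach hpA hp)).trans (hreach hpA' hp')
  have h2 := (mem_cls.1 ((reflTransGen_gstep_iff h h3 hP (hPx hpA hp)).1 h1)).2
  have h4 := carry_fin ((h.lev i).sheetHyp h3 hP) (ht.all Bool) W hA (fun x hx => by
    obtain ⟨q, hq, hxq⟩ := hAW x hx
    exact ⟨mem_un.2 ⟨q, hq, hxq⟩, hAS hx⟩) hpA hpA' h2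
  have key : ∀ y, Relation.ReflTransGen (InStep (S i) (fun q => Msh_715.P (T.H q)) P W) p y →
      Relation.ReflTransGen (WStep (gmain (h.gst h3) bp) W) p y ∧
        y ∈ (gmain (h.gst h3) bp).P ∧ (h.gst h3).lab y = i := by
    intro y hy
    induction hy with
    | refl => exact ⟨.refl, hp, hlab hpA hp⟩
    | @tail a b _ hs ih =>
      obtain ⟨g1, g2, g3⟩ := ih
      obtain ⟨q, hq, q', hch⟩ := hs
      by_cases hab : a = b
      · rw [← hab]; exact ⟨g1, g2, g3⟩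
      obtain ⟨x, hx, hd, hat, hcc⟩ := (h.lev i).chord_cell h3 hP (Ne.symm hab) hch
      set F : C2 T := mk2 T hx hd with hFdef
      have hFset : F.set = T.cc x := rfl
      have ha := (hP a).1 hch.left
      have hb' := (hP b).1 hch.right
      have haF : a ∈ F.On := by
        refine ⟨by rw [hFset, hcc]; exact hch.mem.2, ?_⟩
        have := (h.lev i).vert a ha.1
        have := ha.2
        omega
      have hbF : b ∈ F.On := by
        refine ⟨by rw [hFset, hcc]; exact hch.mem_right.2, ?_⟩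
        have := (h.lev i).vert b hb'.1
        have := hb'.2
        omega
      have hla : labf S a = i := h.lab_eq ha.1 ha.2
      have hmu : b = h.mu h3 F a := by
        refine (h.mu_spec h3 ⟨i, ha⟩ haF).2 b (Ne.symm hab) (by rw [hla]; exact hb'.1) hbF ?_
        rw [hla, hFset, hcc]
        exact hch.conn
      have hq' : q ∈ F.side h3 := by
        rw [C2.mem_side]
        have e : T.at_ F.pt = T.at_ x := T.at_eq_of_mem_oc hx (T.pt_cl hx)
        rw [e, hat]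
        exact mem_insert _ _
      have hst : WStep (gmain (h.gst h3) bp) W a b := ⟨F, ⟨q, hq', hq⟩, g2, haF, hmu⟩
      have hmem := (gmain (h.gst h3) bp).mu_mem (F := F) g2 haF
      refine ⟨g1.tail hst, ?_, ?_⟩
      · rw [hmu]; exact hmem.1
      · exact h.lab_eq hb'.1 hb'.2
  exact (key p' h4).1

/-- a 1-cell of `Fr` without points of `Si` -/
def FrE (T : Tiling Om ι) (Si Fr : Set E) (a b : E) : Prop :=
  ∃ w ∈ Fr, T.dim w = 1 ∧ T.cc w = segment ℝ a b ∧ ∀ p ∈ Si, p ∉ T.cc w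

/-- **the geometric input of `ess`** (sheet `Si`, root `r`, core `Kc c`) -/
structure EssHyp (T : Tiling Om ι) (Kc : κ → Set E) (c : κ) (Si : Set E) (r : E) (D : Set E)
    (Aout : κ → Set E) (Ain Zd Z₀ Z₁ : Set E) (v₀ v₁ : E) : Prop where
  cpt : IsCompact D
  sub : D ⊆ Om
  fr : IsPreconnected (frontier D)
  triv : TrivF (ZMod 2) D
  near : ∀ q, (P (T.H q) ∩ Kc c).Nonempty → P (T.H q) ⊆ interior D
  /-- `Aout k` = part of the sheet outside the core `k` -/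
  out_pre : ∀ k, IsPreconnected (Aout k)
  out_sub : ∀ k, Aout k ⊆ Si
  out_dis : ∀ k, Disjoint (Aout k) (Kc k)
  out_r : ∀ k, r ∈ Aout k
  out_D : ∀ p ∈ Si, ∀ q, p ∈ P (T.H q) → ¬ P (T.H q) ⊆ interior D → p ∈ Aout c
  /-- `Ain` = part of the sheet deep inside the core `c` -/
  in_pre : IsPreconnected Ain
  in_sub : Ain ⊆ Si
  in_K : Ain ⊆ Kc c
  d_pre : IsPreconnected Zd
  d_sub : Zd ⊆ Om
  d_K : ∀ q, (P (T.H q) ∩ Zd).Nonempty → P (T.H q) ⊆ interior (Kc c)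
  d_in : ∀ q, (P (T.H q) ∩ Zd).Nonempty → ∀ p ∈ Si, p ∈ P (T.H q) → p ∈ Ain ∧
    ∀ k, k ≠ c → p ∈ Aout k
  z0_pre : IsPreconnected Z₀
  z0_sub : Z₀ ⊆ Om
  z0_S : ∀ q, (P (T.H q) ∩ Z₀).Nonempty → ∀ p ∈ Si, p ∉ P (T.H q)
  z0_d : (Zd ∩ Z₀).Nonempty
  z0_f : ∃ q, ¬ P (T.H q) ⊆ interior D ∧ (P (T.H q) ∩ Z₀).Nonempty
  z1_pre : IsPreconnected Z₁
  z1_sub : Z₁ ⊆ Om
  z1_S : ∀ q, (P (T.H q) ∩ Z₁).Nonempty → ∀ p ∈ Si, p ∉ P (T.H q)
  z1_d : (Zd ∩ Z₁).Nonempty
  z1_f : ∃ q, ¬ P (T.H q) ⊆ interior D ∧ (P (T.H q) ∩ Z₁).Nonempty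
  v0 : ∀ v ∈ VM T Z₀, v ∈ frontier (Kc c) →
    Relation.ReflTransGen (FrE T Si (frontier (Kc c))) v₀ v
  v1 : ∀ v ∈ VM T Z₁, v ∈ frontier (Kc c) →
    Relation.ReflTransGen (FrE T Si (frontier (Kc c))) v₁ v

open Classical in
/-- `lbl` is a label of the set `γ` of points on the frontier -/
def IsL (T : Tiling Om ι) (Q : Finset E) (Fr γ : Set E) (lbl : E → ZMod 2) : Prop :=
  ∀ e ∈ Fr, T.dim e = 1 → ∀ a b : E, T.cc e = segment ℝ a b →
    lbl a + lbl b = sm Q (fun p => if p ∈ γ then 1 else 0) (T.cc e)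

open Classical in
theorem IsL.path {Q : Finset E} {Fr γ Si : Set E} {lbl : E → ZMod 2} (h : IsL T Q Fr γ lbl)
    (hQ : ∀ p ∈ Q, p ∈ Si) {v w : E} (hp : Relation.ReflTransGen (FrE T Si Fr) v w) :
    lbl w = lbl v := by
  induction hp with
  | refl => rfl
  | tail _ h2 ih =>
    obtain ⟨e, h4, h5, h6, h7⟩ := h2
    have h8 := h e h4 h5 _ _ h6
    have h9 : sm Q (fun p => if p ∈ γ then (1 : ZMod 2) else 0) (T.cc e) = 0 :=
      Finset.sum_eq_zero fun p hp =>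
        absurd (Finset.mem_filter.1 hp).2 (h7 p (hQ p (Finset.mem_filter.1 hp).1))
    rw [h9] at h8
    rw [← ih]
    exact (CharTwo.add_eq_zero.1 h8).symm

/-- **ESS**: exactly one essential curve of the outer part of the sheet on the frontier of the core -/
theorem ess [Nonempty J] (h : GFam T u lv S fam) (h3 : finrank ℝ E = 3)
    (hH : ∀ c, CoreH T (Kc c)) (hdis : ∀ c c', c ≠ c' → Disjoint (Kc c) (Kc c')) {i : J}
    (ht : TrivF (ZMod 2) (S i)) {bp : J → E}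
    (hb : ∀ i, bp i ∈ (h.gst h3).P ∧ (h.gst h3).lab (bp i) = i) {c : κ}
    {Q : Finset E} (hQ : ∀ w, w ∈ Q ↔ w ∈ (gmain (h.gst h3) bp).P ∧
      (gmain (h.gst h3) bp).lab w = i)
    {P : Finset E} (hP : ∀ x, x ∈ P ↔ x ∈ S i ∧ T.dim x ≤ 1)
    {D : Set E} {Aout : κ → Set E} {Ain Zd Z₀ Z₁ : Set E} {v₀ v₁ : E}
    (H : EssHyp T Kc c (S i) (bp i) D Aout Ain Zd Z₀ Z₁ v₀ v₁)
    {lam : E → ZMod 2} (hlam : IsLab T Q lam)
    (hne : ∃ v ∈ VM T Z₀, ∃ v' ∈ VM T Z₁, lam v ≠ lam v') :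
    (∃ w₀, Relation.ReflTransGen (OStep (gmain (h.gst h3) bp) (piK T Kc)) (bp i) w₀ ∧
      w₀ ∈ frontier (Kc c) ∧
      ∀ lbl, IsL T Q (frontier (Kc c)) (crv (gmain (h.gst h3) bp) (piK T Kc) (Sum.inr c) w₀) lbl →
        lbl v₀ + lbl v₁ = 1) ∧
    ∀ w₀ w₁, Relation.ReflTransGen (OStep (gmain (h.gst h3) bp) (piK T Kc)) (bp i) w₀ →
      Relation.ReflTransGen (OStep (gmain (h.gst h3) bp) (piK T Kc)) (bp i) w₁ →
      w₀ ∈ frontier (Kc c) → w₁ ∈ frontier (Kc c) →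
      (∃ lbl, IsL T Q (frontier (Kc c))
        (crv (gmain (h.gst h3) bp) (piK T Kc) (Sum.inr c) w₀) lbl ∧ lbl v₀ + lbl v₁ = 1) →
      (∃ lbl, IsL T Q (frontier (Kc c))
        (crv (gmain (h.gst h3) bp) (piK T Kc) (Sum.inr c) w₁) lbl ∧ lbl v₀ + lbl v₁ = 1) →
      w₁ ∈ crv (gmain (h.gst h3) bp) (piK T Kc) (Sum.inr c) w₀ := by
  set s := gmain (h.gst h3) bp with hs
  set π := piK T Kc with hπ
  have hH1 : s.H1 i := gH1_main (h.H1 h3 i ht)
  have hC : s.Conn i := gconn_main hb i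
  have hrP : bp i ∈ s.P := ⟨(hb i).1, i, .refl⟩
  have hrl : s.lab (bp i) = i := (hb i).2
  -- points of the sheet
  have hSQ : ∀ {w : E}, w ∈ s.P → s.lab w = i → w ∈ S i ∧ T.dim w ≤ 1 := by
    intro w hw hl
    exact h.mem_pts_iff.1 ⟨hw.1, hl⟩
  have hQS : ∀ p ∈ Q, p ∈ S i := fun p hp => (hSQ ((hQ p).1 hp).1 ((hQ p).1 hp).2).1
  have hOm : ∀ w ∈ Q, w ∈ Om ∧ T.dim w = 1 := by
    intro w hw
    obtain ⟨h1, h2⟩ := hSQ ((hQ w).1 hw).1 ((hQ w).1 hw).2
    refine ⟨(h.lev i).sub h1, ?_⟩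
    have := (h.lev i).vert w h1
    omega
  have hlabS : ∀ {w : E}, w ∈ s.P → w ∈ S i → s.lab w = i := by
    intro w hw hwS
    obtain ⟨j, hj, hd⟩ := hw.1
    exact h.lab_eq hwS hd
  -- a deep point
  obtain ⟨v, hv, v', hv', hvv⟩ := hne
  obtain ⟨x₀, hx₀d, hx₀0⟩ := H.z0_d
  obtain ⟨x₁, hx₁d, hx₁0⟩ := H.z1_d
  obtain ⟨q₀, hq₀⟩ := T.cov x₀ (H.d_sub hx₀d)
  obtain ⟨q₁, hq₁⟩ := T.cov x₁ (H.d_sub hx₁d)
  obtain ⟨a₀, ha₀, ha₀0⟩ := exists_vertex_tile (T := T) hq₀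
  obtain ⟨a₁, ha₁, ha₁0⟩ := exists_vertex_tile (T := T) hq₁
  have e₀ : lam v = lam a₀ := hlam.const_geom H.z0_pre H.z0_sub
    (fun q hq p hp => H.z0_S q hq p (hQS p hp)) hv (mem_VM hq₀ hx₀0 ha₀ ha₀0)
  have e₁ : lam v' = lam a₁ := hlam.const_geom H.z1_pre H.z1_sub
    (fun q hq p hp => H.z1_S q hq p (hQS p hp)) hv' (mem_VM hq₁ hx₁0 ha₁ ha₁0)
  obtain ⟨qd, hqd, d, hdQ, hdq⟩ := hlam.reach_geom H.d_pre H.d_sub
    (mem_VM hq₀ hx₀d ha₀ ha₀0) (mem_VM hq₁ hx₁d ha₁ ha₁0) (by rw [← e₀, ← e₁]; exact hvv)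
  have hdP := ((hQ d).1 hdQ).1
  have hdl := ((hQ d).1 hdQ).2
  have hdS := hQS d hdQ
  have hdint : d ∈ interior (Kc c) := H.d_K qd hqd hdq
  have hdin := H.d_in qd hqd d hdS hdq
  have hrK : bp i ∉ Kc c := Set.disjoint_left.1 (H.out_dis c) (H.out_r c)
  -- tiles
  have htin : ∀ {q : ι} {x : E}, x ∈ Msh_715.P (T.H q) → x ∈ interior (Kc c) →
      Msh_715.P (T.H q) ⊆ Kc c := fun hx hxi =>
    T.sub_of_mem_interior (hH c).core.closed (hH c).cc hx hxi
  have hpt_in : ∀ {F : C2 T} {x : E}, x ∈ F.On → x ∈ interior (Kc c) →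
      InF (meshC T h3) π (Sum.inr c) F := by
    intro F x hx hxi q hq
    exact (piK_inr hdis).2 (htin (C2.sub_tile (h3 := h3) hq hx.1) hxi)
  have hd0 : ¬ Relation.ReflTransGen (OStep s π) (bp i) d := by
    intro hd0
    rcases Relation.ReflTransGen.cases_tail hd0 with h1 | ⟨z, _, F, g1, g2, g3, g4⟩
    · exact hrK (interior_subset (h1 ▸ hdint))
    · have h5 : d ∈ F.On := by rw [g4]; exact (s.mu_mem g2 g3).2
      exact not_inF g1 (Sum.inr c) (hpt_in h5 hdint)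
  -- reachability
  have hN : ∀ k, ∀ p ∈ s.P, p ∈ Aout k → Relation.ReflTransGen (NStep s π (Sum.inr k)) (bp i) p := by
    intro k p hp hpA
    have h1 := carry_gst h h3 hP ht (W := {q | ¬ Msh_715.P (T.H q) ⊆ Kc k}) (H.out_pre k)
      (H.out_sub k) (fun x hx => by
        obtain ⟨q, hq⟩ := T.cov x ((h.lev i).sub (H.out_sub k hx))
        exact ⟨q, fun hK => Set.disjoint_left.1 (H.out_dis k) hx (hK hq), hq⟩)
      (H.out_r k) hpA hb hrP hp
    exact wreach_nstep hdis (fun q hq => hq) h1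
  have hI : ∀ p ∈ s.P, p ∈ Ain → Relation.ReflTransGen (IStep s π (Sum.inr c)) d p := by
    intro p hp hpA
    have h1 := carry_gst h h3 hP ht (W := {q | Msh_715.P (T.H q) ⊆ Kc c}) H.in_pre
      H.in_sub (fun x hx => by
        obtain ⟨q, hq, hqK⟩ := T.exists_inner (hH c).core (hH c).sub (hH c).cc (H.in_K hx)
        exact ⟨q, hqK, hq⟩) hdin.1 hpA hb hdP hp
    exact wreach_istep hdis (fun q hq => hq) h1
  have hno : ∀ (q : ι) (F : C2 T), ¬ InF (meshC T h3) π (Sum.inl q) F := by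
    intro q F hin
    induction hsd : F.side h3 using Sym2.ind with
    | _ a b =>
      have ha := hin a (by show a ∈ F.side h3; rw [hsd]; exact Sym2.mem_mk_left _ _)
      have hb := hin b (by show b ∈ F.side h3; rw [hsd]; exact Sym2.mem_mk_right _ _)
      have e1 := (piK_inl.1 ha).1
      have e2 := (piK_inl.1 hb).1
      have := F.side_nd (h3 := h3)
      rw [hsd] at this
      exact this (Sym2.mk_isDiag_iff.2 (e1.trans e2.symm))
  have hdk : ∀ k, k ≠ (Sum.inr c : ι ⊕ κ) → Relation.ReflTransGen (NStep s π k) (bp i) d := by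
    intro k hk
    rcases k with q | k
    · -- ordinary tiles are inside of no merged cell
      have h1 := hC.2 {x | Relation.ReflTransGen (NStep s π (Sum.inl q)) (bp i) x}
        (fun F w hw hat hl => Relation.ReflTransGen.tail hw ⟨F, hno q F, hat.1, hat.2, rfl⟩)
        (bp i) .refl hrP hrl d hdP hdl
      exact h1
    · exact hN k d hdP (hdin.2 k fun e => hk (by rw [e]))
  -- the frontier faces
  have hfrF : ∀ F : C2 T, FrF (meshC T h3) π (Sum.inr c) F ↔ F.set ⊆ frontier (Kc c) :=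
    fun F => frF_iff hH hdis F c
  -- evaluation
  have heval : ∀ w₀, Relation.ReflTransGen (OStep s π) (bp i) w₀ → w₀ ∈ frontier (Kc c) →
      ∀ Ψ, Psi s π i (Sum.inr c) (crv s π (Sum.inr c) w₀) Ψ → ∀ lbl,
        IsL T Q (frontier (Kc c)) (crv s π (Sum.inr c) w₀) lbl →
        lbl v₀ + lbl v₁ = Ψ d + Ψ (bp i) := by
    intro w₀ hw₀ hw₀F Ψ hΨ lbl hlbl
    have hw₀P : w₀ ∈ s.P ∧ s.lab w₀ = i := by
      refine ⟨?_, (oreach_lab hw₀).trans hrl⟩
      rcases Relation.ReflTransGen.cases_tail hw₀ with h1 | ⟨z, _, h2⟩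
      · rw [h1]; exact hrP
      · exact h2.mem.1
    have hcrv : ∀ w ∈ crv s π (Sum.inr c) w₀, w ∈ Q ∧ w ∈ frontier (Kc c) := by
      have key : ∀ w, Relation.ReflTransGen (FStep s π (Sum.inr c)) w₀ w →
          w ∈ Q ∧ w ∈ frontier (Kc c) := by
        intro w hw
        induction hw with
        | refl => exact ⟨(hQ _).2 hw₀P, hw₀F⟩
        | tail _ h2 ih =>
          obtain ⟨F, g1, g2, g3, rfl⟩ := h2
          have h4 := s.mu_mem g2 g3
          refine ⟨(hQ _).2 ⟨h4.1, ?_⟩, (hfrF F).1 g1 h4.2.1⟩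
          exact (s.mu_lab g2 g3).trans ((hQ _).1 ih.1).2
      exact fun w hw => key w hw
    have hint : ∀ {x : E}, x ∈ interior (Kc c) → x ∉ crv s π (Sum.inr c) w₀ := fun hx hx' =>
      (hcrv _ hx').2.2 hx
    have hclosed : ∀ F w, FrF (meshC T h3) π (Sum.inr c) F → s.At F w → s.lab w = i →
        (s.mu F w ∈ crv s π (Sum.inr c) w₀ ↔ w ∈ crv s π (Sum.inr c) w₀) :=
      fun F w hF hw _ => crv_mu hF hw.1 hw.2
    refine lbl_psi (h3 := h3) s hH hdis c hQ hOm (fun w hw => (hcrv w hw).1)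
      (fun w hw => (hcrv w hw).2) hclosed hΨ hlbl H.cpt H.sub H.fr H.triv H.near hrP hrl hdP hdl
      (hint hdint) ?_ hlam H.d_pre H.d_sub H.z0_pre H.z0_sub H.z1_pre H.z1_sub
      (fun q hq => (H.d_K q hq).trans interior_subset) ?_
      (fun q hq p hp => H.z0_S q hq p (hQS p hp)) (fun q hq p hp => H.z1_S q hq p (hQS p hp))
      H.z0_d H.z1_d H.z0_f H.z1_f ⟨v, hv, v', hv', hvv⟩ ?_ ?_
    · intro p hp q hq hqD
      exact hN c p ((hQ p).1 hp).1 (H.out_D p (hQS p hp) q hq hqD)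
    · intro q hq p hp hpq
      exact ⟨hint (H.d_K q hq hpq), hI p ((hQ p).1 hp).1 (H.d_in q hq p (hQS p hp) hpq).1⟩
    · exact fun x hx hxF => hlbl.path hQS (H.v0 x hx hxF)
    · exact fun x hx hxF => hlbl.path hQS (H.v1 x hx hxF)
  refine ⟨?_, ?_⟩
  · -- a face at the root
    have hrF : ∃ F : C2 T, ¬ (((meshC T h3).side F).map π).IsDiag ∧ bp i ∈ (meshC T h3).On F := by
      by_contra hcon
      push Not at hcon
      have hany : ∃ F : C2 T, bp i ∈ (meshC T h3).On F := by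
        by_contra hno
        push Not at hno
        have h1 : d ∈ ({bp i} : Set E) := hC.2 {bp i} (fun F w hw hat _ => by
          rw [mem_singleton_iff] at hw
          subst hw
          exact absurd hat.2 (hno F)) (bp i) rfl hrP hrl d hdP hdl
        rw [mem_singleton_iff] at h1
        exact hrK (h1 ▸ interior_subset hdint)
      obtain ⟨F, hF⟩ := hany
      have h1 : (((meshC T h3).side F).map π).IsDiag := by
        by_contra h2
        exact hcon F h2 hF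
      obtain ⟨k, hk⟩ := diag_iff.1 h1
      rcases k with q | k
      · exact hno q F hk
      · obtain ⟨q, hq⟩ := exists_side (meshC T h3) F
        have h2 : Msh_715.P (T.H q) ⊆ Kc k := (piK_inr hdis).1 (hk q hq)
        exact Set.disjoint_left.1 (H.out_dis k) (H.out_r k)
          (h2 (C2.sub_tile (h3 := h3) hq hF.1))
    obtain ⟨w₀, g1, ⟨F, g2, g3⟩, g4⟩ := ess_exists hH1 hC hrP hrl hrF hdP hdl hd0 (Sum.inr c) hdk
    have hw₀F : w₀ ∈ frontier (Kc c) := (hfrF F).1 g2 g3.1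
    refine ⟨w₀, g1, hw₀F, fun lbl hlbl => ?_⟩
    obtain ⟨Ψ, hΨ⟩ := exists_psi_crv (π := π) hH1 (Sum.inr c) w₀
    rw [heval w₀ g1 hw₀F Ψ hΨ lbl hlbl]
    exact ess_e _ _ (g4 Ψ hΨ)
  · rintro w₀ w₁ g0 g1 hF0 hF1 ⟨l0, hl0, e0⟩ ⟨l1, hl1, e1⟩
    obtain ⟨Ψ0, hΨ0⟩ := exists_psi_crv (π := π) hH1 (Sum.inr c) w₀
    obtain ⟨Ψ1, hΨ1⟩ := exists_psi_crv (π := π) hH1 (Sum.inr c) w₁
    have f0 := heval w₀ g0 hF0 Ψ0 hΨ0 l0 hl0
    have f1 := heval w₁ g1 hF1 Ψ1 hΨ1 l1 hl1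
    rw [e0] at f0
    rw [e1] at f1
    have key : ∀ a b : ZMod 2, 1 = a + b → a ≠ b := by decide
    exact ess_unique hC hrP hrl hdP hdl g0 g1 hΨ0 hΨ1 (key _ _ f0) (key _ _ f1)

end Crest.Agent.R096.Door_501
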