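import Crest.Agent.R096.Door0_501

/-!
# Row 96, DOORS (helper501), part 1: pairing of consecutive points, the structure `Move`,
the state of the layer.
-/

set_option autoImplicit false

namespace Crest.Agent.R096.Door_501

open Crest.Agent.R096.St_147 Classical

/-- pairing of consecutive points of a finite set with injective position `τ` -/
theorem exists_pairing {X : Type} (τ : X → ℝ) : ∀ (n : ℕ) (N : Finset X), N.card = 2 * n →
    Set.InjOn τ N → ∃ μ : X → X, ∀ x ∈ N, μ x ∈ N ∧ μ x ≠ x ∧ μ (μ x) = x ∧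
      (∀ y ∈ N, ¬ (τ x < τ y ∧ τ y < τ (μ x)) ∧ ¬ (τ (μ x) < τ y ∧ τ y < τ x)) ∧
      (τ x < τ (μ x) → Even (N.filter fun y => τ y < τ x).card) := by
  classical
  intro n
  induction n with
  | zero =>
    intro N hN _
    have : N = ∅ := Finset.card_eq_zero.1 (by omega)
    subst this
    exact ⟨id, fun x hx => (Finset.notMem_empty x hx).elim⟩
  | succ n ih =>
    intro N hN hinj
    have hne : N.Nonempty := Finset.card_pos.1 (by omega)
    obtain ⟨a, haN, ha⟩ := N.exists_min_image τ hne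
    have hne' : (N.erase a).Nonempty := by
      rw [← Finset.card_pos, Finset.card_erase_of_mem haN]; omega
    obtain ⟨b, hbN', hb⟩ := (N.erase a).exists_min_image τ hne'
    have hbN : b ∈ N := Finset.mem_of_mem_erase hbN'
    have hab : b ≠ a := Finset.ne_of_mem_erase hbN'
    have hlt : τ a < τ b := lt_of_le_of_ne (ha b hbN) fun h => hab (hinj hbN haN h.symm)
    set N' := (N.erase a).erase b with hN'
    have hcard : N'.card = 2 * n := by
      rw [hN', Finset.card_erase_of_mem hbN', Finset.card_erase_of_mem haN]; omega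
    have hsub : ∀ x ∈ N', x ∈ N ∧ x ≠ a ∧ x ≠ b := by
      intro x hx
      have h1 := Finset.mem_erase.1 hx
      have h2 := Finset.mem_erase.1 h1.2
      exact ⟨h2.2, h2.1, h1.1⟩
    have hsub' : ∀ x ∈ N, x ≠ a → x ≠ b → x ∈ N' := fun x hx h1 h2 =>
      Finset.mem_erase.2 ⟨h2, Finset.mem_erase.2 ⟨h1, hx⟩⟩
    have hbig : ∀ x ∈ N', τ b < τ x := by
      intro x hx
      obtain ⟨h1, h2, h3⟩ := hsub x hx
      exact lt_of_le_of_ne (hb x (Finset.mem_erase.2 ⟨h2, h1⟩)) fun h => h3 (hinj h1 hbN h.symm)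
    obtain ⟨μ, hμ⟩ := ih N' hcard (hinj.mono fun x hx => (hsub x hx).1)
    obtain ⟨ν, hν⟩ : ∃ ν : X → X, ∀ x, ν x = if x = a then b else if x = b then a else μ x :=
      ⟨_, fun _ => rfl⟩
    refine ⟨ν, fun x hx => ?_⟩
    by_cases hxa : x = a
    · subst hxa
      have e1 : ν x = b := by rw [hν, if_pos rfl]
      rw [e1]
      have e2 : ν b = x := by rw [hν, if_neg hab, if_pos rfl]
      rw [e2]
      refine ⟨hbN, hab, rfl, ?_, ?_⟩
      · intro y hy
        constructor
        · rintro ⟨h1, h2⟩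
          by_cases hyb : y = b
          · rw [hyb] at h2; exact lt_irrefl _ h2
          · have hya : y ≠ x := by rintro rfl; exact lt_irrefl _ h1
            have := hbig y (hsub' y hy hya hyb)
            linarith
        · rintro ⟨h1, h2⟩
          linarith
      · intro _
        have : N.filter (fun y => τ y < τ x) = ∅ := by
          rw [Finset.filter_eq_empty_iff]
          intro y hy h
          exact absurd (ha y hy) (not_le.2 h)
        rw [this]; simp
    · by_cases hxb : x = b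
      · subst hxb
        have e1 : ν x = a := by rw [hν, if_neg hxa, if_pos rfl]
        rw [e1]
        have e2 : ν a = x := by rw [hν, if_pos rfl]
        rw [e2]
        refine ⟨haN, Ne.symm hxa, rfl, ?_, ?_⟩
        · intro y hy
          constructor
          · rintro ⟨h1, h2⟩
            linarith
          · rintro ⟨h1, h2⟩
            by_cases hyb : y = x
            · rw [hyb] at h2; exact lt_irrefl _ h2
            · have hya : y ≠ a := by rintro rfl; exact lt_irrefl _ h1
              have := hbig y (hsub' y hy hya hyb)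
              linarith
        · intro h
          linarith
      · have hxN' := hsub' x hx hxa hxb
        obtain ⟨h1, h2, h3, h4, h5⟩ := hμ x hxN'
        obtain ⟨h6, h7, h8⟩ := hsub _ h1
        have e1 : ν x = μ x := by rw [hν, if_neg hxa, if_neg hxb]
        rw [e1]
        have e2 : ν (μ x) = x := by rw [hν, if_neg h7, if_neg h8, h3]
        rw [e2]
        refine ⟨h6, h2, rfl, ?_, ?_⟩
        · intro y hy
          by_cases hya : y = a
          · subst hya
            have := hbig x hxN'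
            have := hbig (μ x) h1
            constructor
            · rintro ⟨h9, h10⟩; linarith
            · rintro ⟨h9, h10⟩; linarith
          by_cases hyb : y = b
          · subst hyb
            have := hbig x hxN'
            have := hbig (μ x) h1
            constructor
            · rintro ⟨h9, h10⟩; linarith
            · rintro ⟨h9, h10⟩; linarith
          exact h4 y (hsub' y hy hya hyb)
        · intro h
          have h9 := h5 h
          have h10 : N.filter (fun y => τ y < τ x) =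
              insert a (insert b (N'.filter fun y => τ y < τ x)) := by
            ext y
            simp only [Finset.mem_filter, Finset.mem_insert]
            constructor
            · rintro ⟨hy, hlt⟩
              by_cases hya : y = a
              · exact Or.inl hya
              · by_cases hyb : y = b
                · exact Or.inr (Or.inl hyb)
                · exact Or.inr (Or.inr ⟨hsub' y hy hya hyb, hlt⟩)
            · have := hbig x hxN'
              rintro (rfl | rfl | ⟨hy, hlt⟩)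
              · exact ⟨haN, by linarith⟩
              · exact ⟨hbN, by linarith⟩
              · exact ⟨(hsub y hy).1, hlt⟩
          have hb' : b ∉ N'.filter (fun y => τ y < τ x) := fun h =>
            (hsub b (Finset.mem_filter.1 h).1).2.2 rfl
          have ha' : a ∉ insert b (N'.filter fun y => τ y < τ x) := by
            rw [Finset.mem_insert]
            rintro (h | h)
            · exact hab h.symm
            · exact (hsub a (Finset.mem_filter.1 h).1).2.1 rfl
          rw [h10, Finset.card_insert_of_notMem ha', Finset.card_insert_of_notMem hb']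
          obtain ⟨r, hr⟩ := h9
          exact ⟨r + 1, by omega⟩

variable {ι Φ W : Type} {M : MeshC ι Φ W} {k : ι} {Vx Ed : Type} {I : Type} {col : I → Bool}

/-- An elementary move: all sheets except `i0` are products; the sheet `i0` makes the horizontal
piece `Q` (vertices `Qv`; its boundary curves are the points in `s.P` xor `B`). -/
structure Move (S : Shell M k Vx Ed) (s : St M col) where
  i0 : I
  /-- the points of the new pattern on the boundary of the shrunk cell -/
  B : Finset W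
  lab0 : W → I
  mu0 : Φ → W → W
  B_on : ∀ {w}, w ∈ B → ∃ e, w ∈ S.OnE e
  mem : ∀ {F w}, k ∈ M.side F → w ∈ B → w ∈ M.On F → mu0 F w ∈ B ∧ mu0 F w ∈ M.On F
  ne : ∀ {F w}, k ∈ M.side F → w ∈ B → w ∈ M.On F → mu0 F w ≠ w
  inv : ∀ {F w}, k ∈ M.side F → w ∈ B → w ∈ M.On F → mu0 F (mu0 F w) = w
  lab : ∀ {F w}, k ∈ M.side F → w ∈ B → w ∈ M.On F → lab0 (mu0 F w) = lab0 w
  nc : ∀ {F : Φ} {w x : W}, k ∈ M.side F → w ∈ B → w ∈ M.On F → x ∈ B → x ∈ M.On F →
    col (lab0 w) = col (lab0 x) → x ≠ w → x ≠ mu0 F w → ¬ M.Lace F w (mu0 F w) x (mu0 F x)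
  same_lab : ∀ {w}, w ∈ s.P → w ∈ B → lab0 w = s.lab w
  same_mu : ∀ {F w}, k ∈ M.side F → w ∈ M.On F → w ∈ s.P → w ∈ B → mu0 F w = s.mu F w
  dif_top : ∀ {e w}, w ∈ S.OnE e → w ∈ s.P → w ∉ B → s.lab w = i0
  dif_bot : ∀ {w}, w ∈ B → w ∉ s.P → lab0 w = i0
  Qv : Finset Vx

namespace Move

variable {S : Shell M k Vx Ed} {s : St M col} (m : Move S s)

/-- the points of the boundary of the horizontal piece and its points on the vertical edges -/
noncomputable def qe : Finset S.Pnt :=
  ((s.P.filter fun w => w ∉ m.B ∧ ∃ e, w ∈ S.OnE e).image S.top) ∪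
    (((m.B.filter fun w => w ∉ s.P).image S.bot) ∪ (m.Qv.image S.vert))

theorem top_mem_qe {w : W} : S.top w ∈ m.qe ↔ w ∈ s.P ∧ w ∉ m.B ∧ ∃ e, w ∈ S.OnE e := by
  unfold qe
  simp [Finset.mem_union, Finset.mem_image]

theorem bot_mem_qe {w : W} : S.bot w ∈ m.qe ↔ w ∈ m.B ∧ w ∉ s.P := by
  unfold qe
  simp [Finset.mem_union, Finset.mem_image]

theorem vert_mem_qe {v : Vx} : S.vert v ∈ m.qe ↔ v ∈ m.Qv := by
  unfold qe
  simp [Finset.mem_union, Finset.mem_image]

/-- the same on the vertical face `e` -/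
noncomputable def qon (e : Ed) : Finset S.Pnt := m.qe.filter fun x => x ∈ S.On (Sum.inr (Sum.inr e))

theorem mem_qon {e : Ed} {x : S.Pnt} :
    x ∈ m.qon e ↔ x ∈ m.qe ∧ x ∈ S.On (Sum.inr (Sum.inr e)) := Finset.mem_filter

theorem tau_inj (e : Ed) : Set.InjOn (S.tau e) (m.qon e) := by
  have hv : ∀ b, S.tau e (S.vert (S.en e b)) = if b then 3 / 2 else -1 / 2 := by
    intro b
    cases b
    · simp [Shell.tau]
    · simp [Shell.tau, (S.en_ne e).symm]
  intro x hx y hy h
  rw [Finset.mem_coe, mem_qon] at hx hy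
  obtain ⟨hxq, hx⟩ := hx
  obtain ⟨hyq, hy⟩ := hy
  rcases hx with ⟨w, hw, rfl⟩ | ⟨w, hw, rfl⟩ | ⟨b, rfl⟩ <;>
    rcases hy with ⟨w', hw', rfl⟩ | ⟨w', hw', rfl⟩ | ⟨b', rfl⟩
  · rw [S.t_inj e hw hw' h]
  · exfalso
    have : w = w' := S.t_inj e hw hw' h
    subst this
    exact (m.top_mem_qe.1 hxq).2.1 (m.bot_mem_qe.1 hyq).1
  · rw [hv] at h
    have h1 := S.t_lt hw
    have h2 := S.t_pos hw
    have : S.t w = if b' then 3 / 2 else -1 / 2 := h
    split_ifs at this <;> linarith
  · exfalso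
    have : w = w' := S.t_inj e hw hw' h
    subst this
    exact (m.top_mem_qe.1 hyq).2.1 (m.bot_mem_qe.1 hxq).1
  · rw [S.t_inj e hw hw' h]
  · rw [hv] at h
    have h1 := S.t_lt hw
    have h2 := S.t_pos hw
    have : S.t w = if b' then 3 / 2 else -1 / 2 := h
    split_ifs at this <;> linarith
  · rw [hv] at h
    have h1 := S.t_lt hw'
    have h2 := S.t_pos hw'
    have : (if b then 3 / 2 else -1 / 2) = S.t w' := h
    split_ifs at this <;> linarith
  · rw [hv] at h
    have h1 := S.t_lt hw'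
    have h2 := S.t_pos hw'
    have : (if b then 3 / 2 else -1 / 2) = S.t w' := h
    split_ifs at this <;> linarith
  · rw [hv, hv] at h
    cases b <;> cases b' <;> simp at h ⊢ <;> linarith

/-- the parity conditions -/
structure Par : Prop where
  /-- the boundary curves and the vertices of `Q` fit together -/
  even : ∀ e, Even (m.qon e).card
  /-- no product point of the same colour inside `Q` -/
  free : ∀ {e w}, w ∈ S.OnE e → w ∈ s.P → w ∈ m.B → col (s.lab w) = col m.i0 →
    Even ((m.qon e).filter fun x => S.tau e x < S.t w).card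

theorem exists_pr (hp : m.Par) (e : Ed) : ∃ μ : S.Pnt → S.Pnt, ∀ x ∈ m.qon e, μ x ∈ m.qon e ∧
    μ x ≠ x ∧ μ (μ x) = x ∧ (∀ y ∈ m.qon e, ¬ (S.tau e x < S.tau e y ∧ S.tau e y < S.tau e (μ x)) ∧
      ¬ (S.tau e (μ x) < S.tau e y ∧ S.tau e y < S.tau e x)) ∧
      (S.tau e x < S.tau e (μ x) → Even ((m.qon e).filter fun y => S.tau e y < S.tau e x).card) := by
  obtain ⟨n, hn⟩ := hp.even e
  exact exists_pairing (S.tau e) n (m.qon e) (by omega) (m.tau_inj e)

/-- the pairing on the vertical face `e` -/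
noncomputable def pr (hp : m.Par) (e : Ed) : S.Pnt → S.Pnt := Classical.choose (m.exists_pr hp e)

theorem pr_spec (hp : m.Par) (e : Ed) : ∀ x ∈ m.qon e, m.pr hp e x ∈ m.qon e ∧
    m.pr hp e x ≠ x ∧ m.pr hp e (m.pr hp e x) = x ∧
    (∀ y ∈ m.qon e, ¬ (S.tau e x < S.tau e y ∧ S.tau e y < S.tau e (m.pr hp e x)) ∧
      ¬ (S.tau e (m.pr hp e x) < S.tau e y ∧ S.tau e y < S.tau e x)) ∧
    (S.tau e x < S.tau e (m.pr hp e x) →
      Even ((m.qon e).filter fun y => S.tau e y < S.tau e x).card) :=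
  Classical.choose_spec (m.exists_pr hp e)

/-- exchange top and bottom -/
def swp : S.Pnt → S.Pnt
  | Sum.inl w => S.bot w
  | Sum.inr (Sum.inl w) => S.top w
  | Sum.inr (Sum.inr v) => S.vert v

/-- the points of the new state -/
noncomputable def P' : Finset S.Pnt :=
  (s.P.image S.top) ∪ ((m.B.image S.bot) ∪ (m.Qv.image S.vert))

theorem top_mem_P' {w : W} : S.top w ∈ m.P' ↔ w ∈ s.P := by
  unfold P'
  simp [Finset.mem_union, Finset.mem_image]

theorem bot_mem_P' {w : W} : S.bot w ∈ m.P' ↔ w ∈ m.B := by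
  unfold P'
  simp [Finset.mem_union, Finset.mem_image]

theorem vert_mem_P' {v : Vx} : S.vert v ∈ m.P' ↔ v ∈ m.Qv := by
  unfold P'
  simp [Finset.mem_union, Finset.mem_image]

/-- the names -/
def lab' : S.Pnt → I
  | Sum.inl w => s.lab w
  | Sum.inr (Sum.inl w) => m.lab0 w
  | Sum.inr (Sum.inr _) => m.i0

/-- the partners -/
noncomputable def mu' (hp : m.Par) : S.Face → S.Pnt → S.Pnt
  | Sum.inl F, Sum.inl w => S.top (s.mu F w)
  | Sum.inl _, Sum.inr x => Sum.inr x
  | Sum.inr (Sum.inl _), Sum.inl w => Sum.inl w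
  | Sum.inr (Sum.inl G), Sum.inr (Sum.inl w) => S.bot (m.mu0 G.1 w)
  | Sum.inr (Sum.inl _), Sum.inr (Sum.inr v) => S.vert v
  | Sum.inr (Sum.inr e), x => if x ∈ m.qe then m.pr hp e x else swp x

theorem qe_sub_P' {x : S.Pnt} (h : x ∈ m.qe) : x ∈ m.P' := by
  rcases x with w | w | v
  · exact m.top_mem_P'.2 (m.top_mem_qe.1 h).1
  · exact m.bot_mem_P'.2 (m.bot_mem_qe.1 h).1
  · exact m.vert_mem_P'.2 (m.vert_mem_qe.1 h)

theorem lab_qe {x : S.Pnt} (h : x ∈ m.qe) : m.lab' x = m.i0 := by
  rcases x with w | w | v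
  · obtain ⟨h1, h2, e, h3⟩ := m.top_mem_qe.1 h
    exact m.dif_top h3 h1 h2
  · obtain ⟨h1, h2⟩ := m.bot_mem_qe.1 h
    exact m.dif_bot h1 h2
  · rfl

/-- a point of the state on a vertical face which is not in `qe` is a product point -/
theorem product {e : Ed} {x : S.Pnt} (hx : x ∈ m.P') (hxe : x ∈ S.On (Sum.inr (Sum.inr e)))
    (hq : x ∉ m.qe) : ∃ w ∈ S.OnE e, w ∈ s.P ∧ w ∈ m.B ∧ (x = S.top w ∨ x = S.bot w) := by
  rcases x with w | w | v
  · have hw := S.top_mem_vert.1 hxe
    have hP := m.top_mem_P'.1 hx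
    refine ⟨w, hw, hP, ?_, Or.inl rfl⟩
    by_contra hB
    exact hq (m.top_mem_qe.2 ⟨hP, hB, e, hw⟩)
  · have hw := S.bot_mem_vert.1 hxe
    have hB := m.bot_mem_P'.1 hx
    refine ⟨w, hw, ?_, hB, Or.inr rfl⟩
    by_contra hP
    exact hq (m.bot_mem_qe.2 ⟨hB, hP⟩)
  · exact (hq (m.vert_mem_qe.2 (m.vert_mem_P'.1 hx))).elim

theorem top_not_qe {w : W} (h : w ∈ m.B) : S.top w ∉ m.qe := fun h' => (m.top_mem_qe.1 h').2.1 h

theorem bot_not_qe {w : W} (h : w ∈ s.P) : S.bot w ∉ m.qe := fun h' => (m.bot_mem_qe.1 h').2 h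

theorem mu'_vert_qe (hp : m.Par) {e : Ed} {x : S.Pnt} (h : x ∈ m.qe) :
    m.mu' hp (Sum.inr (Sum.inr e)) x = m.pr hp e x := by
  show (if x ∈ m.qe then m.pr hp e x else swp x) = _
  rw [if_pos h]

theorem mu'_vert_nqe (hp : m.Par) {e : Ed} {x : S.Pnt} (h : x ∉ m.qe) :
    m.mu' hp (Sum.inr (Sum.inr e)) x = swp x := by
  show (if x ∈ m.qe then m.pr hp e x else swp x) = _
  rw [if_neg h]

theorem mu'_mem (hp : m.Par) {F : S.Face} {x : S.Pnt} (hx : x ∈ m.P') (hF : x ∈ S.On F) :
    m.mu' hp F x ∈ m.P' ∧ m.mu' hp F x ∈ S.On F := by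
  rcases F with F | G | e
  · rcases x with w | x
    · have h1 := S.top_mem_On.1 hF
      have h2 := s.mu_mem (m.top_mem_P'.1 hx) h1
      exact ⟨m.top_mem_P'.2 h2.1, S.top_mem_On.2 h2.2⟩
    · obtain ⟨w, _, h⟩ := hF
      cases h
  · rcases x with w | w | v
    · exact (S.top_not_mem_On hF).elim
    · have h1 := S.bot_mem_On.1 hF
      have h2 := m.mem G.2 (m.bot_mem_P'.1 hx) h1
      exact ⟨m.bot_mem_P'.2 h2.1, S.bot_mem_On.2 h2.2⟩
    · exact (S.vert_not_mem_On' hF).elim
  · by_cases hq : x ∈ m.qe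
    · rw [m.mu'_vert_qe hp hq]
      have h1 := (m.pr_spec hp e x (m.mem_qon.2 ⟨hq, hF⟩)).1
      rw [mem_qon] at h1
      exact ⟨m.qe_sub_P' h1.1, h1.2⟩
    · rw [m.mu'_vert_nqe hp hq]
      obtain ⟨w, hw, hP, hB, rfl | rfl⟩ := m.product hx hF hq
      · exact ⟨m.bot_mem_P'.2 hB, S.bot_mem_vert.2 hw⟩
      · exact ⟨m.top_mem_P'.2 hP, S.top_mem_vert.2 hw⟩

theorem mu'_ne (hp : m.Par) {F : S.Face} {x : S.Pnt} (hx : x ∈ m.P') (hF : x ∈ S.On F) :
    m.mu' hp F x ≠ x := by
  rcases F with F | G | e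
  · rcases x with w | x
    · intro h
      exact s.mu_ne (m.top_mem_P'.1 hx) (S.top_mem_On.1 hF) (Sum.inl.inj h)
    · obtain ⟨w, _, h⟩ := hF
      cases h
  · rcases x with w | w | v
    · exact (S.top_not_mem_On hF).elim
    · intro h
      exact m.ne G.2 (m.bot_mem_P'.1 hx) (S.bot_mem_On.1 hF) (Sum.inl.inj (Sum.inr.inj h))
    · exact (S.vert_not_mem_On' hF).elim
  · by_cases hq : x ∈ m.qe
    · rw [m.mu'_vert_qe hp hq]
      exact (m.pr_spec hp e x (m.mem_qon.2 ⟨hq, hF⟩)).2.1
    · rw [m.mu'_vert_nqe hp hq]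
      obtain ⟨w, hw, hP, hB, rfl | rfl⟩ := m.product hx hF hq
      · intro h; cases h
      · intro h; cases h

theorem mu'_mu' (hp : m.Par) {F : S.Face} {x : S.Pnt} (hx : x ∈ m.P') (hF : x ∈ S.On F) :
    m.mu' hp F (m.mu' hp F x) = x := by
  rcases F with F | G | e
  · rcases x with w | x
    · have := s.mu_mu (m.top_mem_P'.1 hx) (S.top_mem_On.1 hF)
      exact congrArg S.top this
    · rfl
  · rcases x with w | w | v
    · rfl
    · have := m.inv G.2 (m.bot_mem_P'.1 hx) (S.bot_mem_On.1 hF)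
      exact congrArg S.bot this
    · rfl
  · by_cases hq : x ∈ m.qe
    · have h1 := m.pr_spec hp e x (m.mem_qon.2 ⟨hq, hF⟩)
      rw [m.mu'_vert_qe hp hq, m.mu'_vert_qe hp (m.mem_qon.1 h1.1).1]
      exact h1.2.2.1
    · rw [m.mu'_vert_nqe hp hq]
      obtain ⟨w, hw, hP, hB, rfl | rfl⟩ := m.product hx hF hq
      · exact m.mu'_vert_nqe hp (m.bot_not_qe hP)
      · exact m.mu'_vert_nqe hp (m.top_not_qe hB)

theorem mu'_lab (hp : m.Par) {F : S.Face} {x : S.Pnt} (hx : x ∈ m.P') (hF : x ∈ S.On F) :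
    m.lab' (m.mu' hp F x) = m.lab' x := by
  rcases F with F | G | e
  · rcases x with w | x
    · exact s.mu_lab (m.top_mem_P'.1 hx) (S.top_mem_On.1 hF)
    · rfl
  · rcases x with w | w | v
    · rfl
    · exact m.lab G.2 (m.bot_mem_P'.1 hx) (S.bot_mem_On.1 hF)
    · rfl
  · by_cases hq : x ∈ m.qe
    · have h1 := m.pr_spec hp e x (m.mem_qon.2 ⟨hq, hF⟩)
      rw [m.mu'_vert_qe hp hq, m.lab_qe (m.mem_qon.1 h1.1).1, m.lab_qe hq]
    · rw [m.mu'_vert_nqe hp hq]
      obtain ⟨w, hw, hP, hB, rfl | rfl⟩ := m.product hx hF hq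
      · exact m.same_lab hP hB
      · exact (m.same_lab hP hB).symm

end Move

end Crest.Agent.R096.Door_501
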