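import Crest.Agent.R096.Door1_501

/-!
# Row 96, DOORS (helper501), part 2: the state of one layer; `H¹ = 0` and connectedness.
-/

set_option autoImplicit false

namespace Crest.Agent.R096.Door_501

open Crest.Agent.R096.St_147 Classical

variable {ι Φ W : Type} {M : MeshC ι Φ W} {k : ι} {Vx Ed : Type} {I : Type} {col : I → Bool}

theorem sep_real {a a' b b' m : ℝ} (_h : m < 3 / 2) (ha : a < m ∨ 3 - m < a)
    (ha' : a' < m ∨ 3 - m < a') (hb : m < b ∧ b < 3 - m) (hb' : m < b' ∧ b' < 3 - m) :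
    (((a < b ∧ b < a') ∨ (a' < b ∧ b < a)) ↔ ((a < b' ∧ b' < a') ∨ (a' < b' ∧ b' < a))) ∧
    (((b < a ∧ a < b') ∨ (b' < a ∧ a < b)) ↔ ((b < a' ∧ a' < b') ∨ (b' < a' ∧ a' < b))) := by
  obtain ⟨hb1, hb2⟩ := hb
  obtain ⟨hb3, hb4⟩ := hb'
  constructor
  · rcases ha with ha | ha <;> rcases ha' with ha' | ha'
    · constructor <;> (rintro (⟨h1, h2⟩ | ⟨h1, h2⟩) <;> exfalso <;> linarith)
    · constructor
      · intro _; left; constructor <;> linarith
      · intro _; left; constructor <;> linarith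
    · constructor
      · intro _; right; constructor <;> linarith
      · intro _; right; constructor <;> linarith
    · constructor <;> (rintro (⟨h1, h2⟩ | ⟨h1, h2⟩) <;> exfalso <;> linarith)
  · constructor
    · rintro (⟨h1, h2⟩ | ⟨h1, h2⟩) <;> exfalso <;> rcases ha with ha | ha <;> linarith
    · rintro (⟨h1, h2⟩ | ⟨h1, h2⟩) <;> exfalso <;> rcases ha' with ha' | ha' <;> linarith

namespace Shell

variable (S : Shell M k Vx Ed)

theorem tau_mem {e : Ed} {x : S.Pnt} (hx : x ∈ S.On (Sum.inr (Sum.inr e))) :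
    -1 / 2 ≤ S.tau e x ∧ S.tau e x ≤ 3 / 2 ∧ (S.pos (Sum.inr (Sum.inr e)) x = S.tau e x ∨
      S.pos (Sum.inr (Sum.inr e)) x = 3 - S.tau e x) := by
  rcases hx with ⟨w, hw, rfl⟩ | ⟨w, hw, rfl⟩ | ⟨b, rfl⟩
  · have h1 := S.t_pos hw
    have h2 := S.t_lt hw
    refine ⟨?_, ?_, Or.inl rfl⟩
    · show -1 / 2 ≤ S.t w
      linarith
    · show S.t w ≤ 3 / 2
      linarith
  · have h1 := S.t_pos hw
    have h2 := S.t_lt hw
    refine ⟨?_, ?_, Or.inr rfl⟩
    · show -1 / 2 ≤ S.t w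
      linarith
    · show S.t w ≤ 3 / 2
      linarith
  · refine ⟨?_, ?_, Or.inl rfl⟩
    · show -1 / 2 ≤ (if S.en e b = S.en e false then (-1 / 2 : ℝ) else 3 / 2)
      split_ifs <;> norm_num
    · show (if S.en e b = S.en e false then (-1 / 2 : ℝ) else 3 / 2) ≤ 3 / 2
      split_ifs <;> norm_num

theorem pos_of_lt {e : Ed} {x : S.Pnt} (hx : x ∈ S.On (Sum.inr (Sum.inr e))) {m : ℝ}
    (h : S.tau e x < m) : S.pos (Sum.inr (Sum.inr e)) x < m ∨
      3 - m < S.pos (Sum.inr (Sum.inr e)) x := by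
  obtain ⟨h1, h2, h3 | h3⟩ := S.tau_mem hx
  · left; rw [h3]; exact h
  · right; rw [h3]; linarith

theorem pos_of_gt {e : Ed} {x : S.Pnt} (hx : x ∈ S.On (Sum.inr (Sum.inr e))) {m : ℝ}
    (_hm : m < 3 / 2) (h : m < S.tau e x) : m < S.pos (Sum.inr (Sum.inr e)) x ∧
      S.pos (Sum.inr (Sum.inr e)) x < 3 - m := by
  obtain ⟨h1, h2, h3 | h3⟩ := S.tau_mem hx
  · rw [h3]; exact ⟨h, by linarith⟩
  · rw [h3]; exact ⟨by linarith, by linarith⟩

theorem sep {e : Ed} {x x' y y' : S.Pnt} {m : ℝ} (hx : x ∈ S.On (Sum.inr (Sum.inr e)))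
    (hx' : x' ∈ S.On (Sum.inr (Sum.inr e))) (hy : y ∈ S.On (Sum.inr (Sum.inr e)))
    (hy' : y' ∈ S.On (Sum.inr (Sum.inr e))) (hm : m < 3 / 2)
    (a1 : S.tau e x < m) (a2 : S.tau e x' < m) (b1 : m < S.tau e y) (b2 : m < S.tau e y') :
    ¬ S.mesh.Lace (Sum.inr (Sum.inr e)) x x' y y' ∧
      ¬ S.mesh.Lace (Sum.inr (Sum.inr e)) y y' x x' := by
  have h := sep_real hm (S.pos_of_lt hx a1) (S.pos_of_lt hx' a2) (S.pos_of_gt hy hm b1)
    (S.pos_of_gt hy' hm b2)
  exact ⟨fun h' => h' h.1, fun h' => h' h.2⟩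

/-- the faces of the layer cells -/
def Lay (F : S.Face) : Prop := ∃ G : S.Fk, (Sum.inr G : S.Cell) ∈ S.side F

theorem lay_top {F : Φ} (h : k ∈ M.side F) : S.Lay (Sum.inl F) :=
  ⟨⟨F, h⟩, S.inr_mem_side.2 rfl⟩

theorem of_lay_top {F : Φ} (h : S.Lay (Sum.inl F)) : k ∈ M.side F := by
  obtain ⟨G, hG⟩ := h
  rw [S.inr_mem_side.1 hG]
  exact G.2

theorem lay_bot (G : S.Fk) : S.Lay (Sum.inr (Sum.inl G)) := ⟨G, S.mem_side_bot.2 (Or.inl rfl)⟩

theorem lay_vert (e : Ed) : S.Lay (Sum.inr (Sum.inr e)) :=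
  ⟨⟨S.fc e false, S.fc_side e false⟩, S.mem_side_vert.2 ⟨false, rfl⟩⟩

end Shell

namespace Move

variable {S : Shell M k Vx Ed} {s : St M col} (m : Move S s)

theorem prod_out (hp : m.Par) {e : Ed} {w : W} (hw : w ∈ S.OnE e) (hP : w ∈ s.P) (hB : w ∈ m.B)
    (hc : col (s.lab w) = col m.i0) {y : S.Pnt} (hy : y ∈ m.qon e) :
    ¬ (S.tau e y < S.t w ∧ S.t w < S.tau e (m.pr hp e y)) := by
  rintro ⟨h1, h2⟩
  have h3 := hp.free hw hP hB hc
  obtain ⟨g1, g2, g3, g4, g5⟩ := m.pr_spec hp e y hy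
  have h4 := g5 (h1.trans h2)
  have h5 : (m.qon e).filter (fun x => S.tau e x < S.t w) =
      insert y ((m.qon e).filter fun x => S.tau e x < S.tau e y) := by
    ext z
    simp only [Finset.mem_filter, Finset.mem_insert]
    constructor
    · rintro ⟨hz, hlt⟩
      by_cases hzy : z = y
      · exact Or.inl hzy
      · right
        refine ⟨hz, ?_⟩
        rcases lt_trichotomy (S.tau e z) (S.tau e y) with h | h | h
        · exact h
        · exact (hzy (m.tau_inj e hz hy h)).elim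
        · exact ((g4 z hz).1 ⟨h, hlt.trans h2⟩).elim
    · rintro (rfl | ⟨hz, hlt⟩)
      · exact ⟨hy, h1⟩
      · exact ⟨hz, hlt.trans h1⟩
  rw [h5, Finset.card_insert_of_notMem (by simp)] at h3
  exact (Nat.even_add_one.1 h3) h4

theorem t_ne_tau {e : Ed} {w : W} (hw : w ∈ S.OnE e) (hP : w ∈ s.P) (hB : w ∈ m.B)
    {y : S.Pnt} (hy : y ∈ m.qon e) : S.t w ≠ S.tau e y := by
  intro h
  rw [mem_qon] at hy
  obtain ⟨hyq, hy⟩ := hy
  rcases hy with ⟨w', hw', rfl⟩ | ⟨w', hw', rfl⟩ | ⟨b, rfl⟩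
  · have : w = w' := S.t_inj e hw hw' h
    subst this
    exact (m.top_mem_qe.1 hyq).2.1 hB
  · have : w = w' := S.t_inj e hw hw' h
    subst this
    exact (m.bot_mem_qe.1 hyq).2 hP
  · have h1 := S.t_pos hw
    have h2 := S.t_lt hw
    have h3 : S.t w = if S.en e b = S.en e false then -1 / 2 else 3 / 2 := h
    split_ifs at h3 <;> linarith

/-- product chord and chord of `Q` -/
theorem nc_PQ (hp : m.Par) {e : Ed} {w : W} (hw : w ∈ S.OnE e) (hP : w ∈ s.P) (hB : w ∈ m.B)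
    (hc : col (s.lab w) = col m.i0) {x x' y : S.Pnt} (hx : x = S.top w ∨ x = S.bot w)
    (hx' : x' = S.top w ∨ x' = S.bot w) (hy : y ∈ m.qon e) :
    ¬ S.mesh.Lace (Sum.inr (Sum.inr e)) x x' y (m.pr hp e y) ∧
      ¬ S.mesh.Lace (Sum.inr (Sum.inr e)) y (m.pr hp e y) x x' := by
  obtain ⟨g1, g2, g3, g4, g5⟩ := m.pr_spec hp e y hy
  have h1 := m.prod_out hp hw hP hB hc hy
  have h2 := m.prod_out hp hw hP hB hc g1
  rw [g3] at h2
  have h3 := m.t_ne_tau hw hP hB hy
  have h4 := m.t_ne_tau hw hP hB g1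
  have hxF : x ∈ S.On (Sum.inr (Sum.inr e)) := by
    rcases hx with rfl | rfl
    · exact S.top_mem_vert.2 hw
    · exact S.bot_mem_vert.2 hw
  have hxF' : x' ∈ S.On (Sum.inr (Sum.inr e)) := by
    rcases hx' with rfl | rfl
    · exact S.top_mem_vert.2 hw
    · exact S.bot_mem_vert.2 hw
  have tx : S.tau e x = S.t w := by rcases hx with rfl | rfl <;> rfl
  have tx' : S.tau e x' = S.t w := by rcases hx' with rfl | rfl <;> rfl
  have t1 := S.t_pos hw
  have t2 := S.t_lt hw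
  have hyF := (m.mem_qon.1 hy).2
  have hyF' := (m.mem_qon.1 g1).2
  obtain ⟨b1, b2, _⟩ := S.tau_mem hyF
  obtain ⟨b3, b4, _⟩ := S.tau_mem hyF'
  rcases lt_or_gt_of_ne h3 with h5 | h5
  · -- `t w < tau y`
    have h6 : S.t w < S.tau e (m.pr hp e y) := by
      rcases lt_or_gt_of_ne h4 with h6 | h6
      · exact h6
      · exact (h2 ⟨h6, h5⟩).elim
    have h7 : S.t w < min (S.tau e y) (S.tau e (m.pr hp e y)) := lt_min h5 h6
    have h8 := min_le_left (S.tau e y) (S.tau e (m.pr hp e y))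
    have h9 := min_le_right (S.tau e y) (S.tau e (m.pr hp e y))
    set c := min (S.tau e y) (S.tau e (m.pr hp e y)) with hcdef
    exact S.sep (m := (S.t w + c) / 2) hxF hxF' hyF hyF' (by linarith) (by linarith) (by linarith)
      (by linarith) (by linarith)
  · have h6 : S.tau e (m.pr hp e y) < S.t w := by
      rcases lt_or_gt_of_ne h4 with h6 | h6
      · exact (h1 ⟨h5, h6⟩).elim
      · exact h6
    have h7 : max (S.tau e y) (S.tau e (m.pr hp e y)) < S.t w := max_lt h5 h6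
    have h8 := le_max_left (S.tau e y) (S.tau e (m.pr hp e y))
    have h9 := le_max_right (S.tau e y) (S.tau e (m.pr hp e y))
    set c := max (S.tau e y) (S.tau e (m.pr hp e y)) with hcdef
    exact (S.sep (m := (S.t w + c) / 2) hyF hyF' hxF hxF' (by linarith) (by linarith) (by linarith)
      (by linarith) (by linarith)).symm

/-- two chords of `Q` -/
theorem nc_QQ (hp : m.Par) {e : Ed} {x y : S.Pnt} (hx : x ∈ m.qon e) (hy : y ∈ m.qon e)
    (hne : y ≠ x) (hne' : y ≠ m.pr hp e x) :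
    ¬ S.mesh.Lace (Sum.inr (Sum.inr e)) x (m.pr hp e x) y (m.pr hp e y) := by
  obtain ⟨f1, f2, f3, f4, -⟩ := m.pr_spec hp e x hx
  obtain ⟨g1, g2, g3, g4, -⟩ := m.pr_spec hp e y hy
  have hne1 : m.pr hp e y ≠ x := by
    intro h; apply hne'; rw [← h, g3]
  have hne2 : m.pr hp e y ≠ m.pr hp e x := by
    intro h; apply hne
    rw [← f3, ← h, g3]
  have hxF := (m.mem_qon.1 hx).2
  have hxF' := (m.mem_qon.1 f1).2
  have hyF := (m.mem_qon.1 hy).2
  have hyF' := (m.mem_qon.1 g1).2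
  obtain ⟨a1, a2, _⟩ := S.tau_mem hxF
  obtain ⟨a3, a4, _⟩ := S.tau_mem hxF'
  obtain ⟨b1, b2, _⟩ := S.tau_mem hyF
  obtain ⟨b3, b4, _⟩ := S.tau_mem hyF'
  have n1 : S.tau e y ≠ S.tau e x := fun h => hne (m.tau_inj e hy hx h)
  have n2 : S.tau e y ≠ S.tau e (m.pr hp e x) := fun h => hne' (m.tau_inj e hy f1 h)
  have n3 : S.tau e (m.pr hp e y) ≠ S.tau e x := fun h => hne1 (m.tau_inj e g1 hx h)
  have n4 : S.tau e (m.pr hp e y) ≠ S.tau e (m.pr hp e x) := fun h => hne2 (m.tau_inj e g1 f1 h)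
  have n5 : S.tau e (m.pr hp e x) ≠ S.tau e x := fun h => f2 (m.tau_inj e f1 hx h)
  have n6 : S.tau e (m.pr hp e y) ≠ S.tau e y := fun h => g2 (m.tau_inj e g1 hy h)
  obtain ⟨e1, e2⟩ := f4 y hy
  obtain ⟨e3, e4⟩ := f4 _ g1
  obtain ⟨e5, e6⟩ := g4 x hx
  obtain ⟨e7, e8⟩ := g4 _ f1
  -- `{x, x'}` and `{y, y'}` have disjoint position intervals
  have hsep : max (S.tau e x) (S.tau e (m.pr hp e x)) < min (S.tau e y) (S.tau e (m.pr hp e y)) ∨
      max (S.tau e y) (S.tau e (m.pr hp e y)) < min (S.tau e x) (S.tau e (m.pr hp e x)) := by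
    rcases lt_or_gt_of_ne n1 with h1 | h1
    · -- `y < x`
      right
      have h2 : S.tau e y < S.tau e (m.pr hp e x) := by
        rcases lt_or_gt_of_ne n2 with h | h
        · exact h
        · exact (e2 ⟨h, h1⟩).elim
      have h3 : S.tau e (m.pr hp e y) < S.tau e x := by
        rcases lt_or_gt_of_ne n3 with h | h
        · exact h
        · exact (e5 ⟨h1, h⟩).elim
      have h4 : S.tau e (m.pr hp e y) < S.tau e (m.pr hp e x) := by
        rcases lt_or_gt_of_ne n4 with h | h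
        · exact h
        · exact (e4 ⟨h, h3⟩).elim
      exact max_lt (lt_min h1 h2) (lt_min h3 h4)
    · left
      have h2 : S.tau e (m.pr hp e x) < S.tau e y := by
        rcases lt_or_gt_of_ne n2 with h | h
        · exact (e1 ⟨h1, h⟩).elim
        · exact h
      have h3 : S.tau e x < S.tau e (m.pr hp e y) := by
        rcases lt_or_gt_of_ne n3 with h | h
        · exact (e6 ⟨h, h1⟩).elim
        · exact h
      have h4 : S.tau e (m.pr hp e x) < S.tau e (m.pr hp e y) := by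
        rcases lt_or_gt_of_ne n4 with h | h
        · exact (e3 ⟨h3, h⟩).elim
        · exact h
      exact max_lt (lt_min h1 h3) (lt_min h2 h4)
  have m1 := le_max_left (S.tau e x) (S.tau e (m.pr hp e x))
  have m2 := le_max_right (S.tau e x) (S.tau e (m.pr hp e x))
  have m3 := min_le_left (S.tau e x) (S.tau e (m.pr hp e x))
  have m4 := min_le_right (S.tau e x) (S.tau e (m.pr hp e x))
  have k1 := le_max_left (S.tau e y) (S.tau e (m.pr hp e y))
  have k2 := le_max_right (S.tau e y) (S.tau e (m.pr hp e y))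
  have k3 := min_le_left (S.tau e y) (S.tau e (m.pr hp e y))
  have k4 := min_le_right (S.tau e y) (S.tau e (m.pr hp e y))
  rcases hsep with h | h
  · set c := max (S.tau e x) (S.tau e (m.pr hp e x)) with hcdef
    set d := min (S.tau e y) (S.tau e (m.pr hp e y)) with hddef
    exact (S.sep (m := (c + d) / 2) hxF hxF' hyF hyF' (by linarith) (by linarith) (by linarith)
      (by linarith) (by linarith)).1
  · set c := max (S.tau e y) (S.tau e (m.pr hp e y)) with hcdef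
    set d := min (S.tau e x) (S.tau e (m.pr hp e x)) with hddef
    exact (S.sep (m := (c + d) / 2) hyF hyF' hxF hxF' (by linarith) (by linarith) (by linarith)
      (by linarith) (by linarith)).2

/-- two product chords -/
theorem nc_PP {e : Ed} {w w' : W} (hw : w ∈ S.OnE e) (hw' : w' ∈ S.OnE e) (hne : w' ≠ w)
    {x x' y y' : S.Pnt} (hx : x = S.top w ∨ x = S.bot w) (hx' : x' = S.top w ∨ x' = S.bot w)
    (hy : y = S.top w' ∨ y = S.bot w') (hy' : y' = S.top w' ∨ y' = S.bot w') :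
    ¬ S.mesh.Lace (Sum.inr (Sum.inr e)) x x' y y' := by
  have hF : ∀ {z : S.Pnt} {u : W}, u ∈ S.OnE e → z = S.top u ∨ z = S.bot u →
      z ∈ S.On (Sum.inr (Sum.inr e)) ∧ S.tau e z = S.t u := by
    rintro z u hu (rfl | rfl)
    · exact ⟨S.top_mem_vert.2 hu, rfl⟩
    · exact ⟨S.bot_mem_vert.2 hu, rfl⟩
  obtain ⟨a1, a2⟩ := hF hw hx
  obtain ⟨a3, a4⟩ := hF hw hx'
  obtain ⟨a5, a6⟩ := hF hw' hy
  obtain ⟨a7, a8⟩ := hF hw' hy'
  have t1 := S.t_pos hw
  have t2 := S.t_lt hw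
  have t3 := S.t_pos hw'
  have t4 := S.t_lt hw'
  rcases lt_or_gt_of_ne (fun h => hne (S.t_inj e hw' hw h) : S.t w' ≠ S.t w) with h | h
  · exact (S.sep (m := (S.t w + S.t w') / 2) a5 a7 a1 a3 (by linarith) (by linarith) (by linarith)
      (by linarith) (by linarith)).2
  · exact (S.sep (m := (S.t w + S.t w') / 2) a1 a3 a5 a7 (by linarith) (by linarith) (by linarith)
      (by linarith) (by linarith)).1

theorem swp_cases {w : W} {x : S.Pnt} (hx : x = S.top w ∨ x = S.bot w) :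
    (swp x : S.Pnt) = S.top w ∨ (swp x : S.Pnt) = S.bot w := by
  rcases hx with rfl | rfl
  · exact Or.inr rfl
  · exact Or.inl rfl

theorem nc' (hp : m.Par) {F : S.Face} {x y : S.Pnt} (hx : x ∈ m.P') (hxF : x ∈ S.On F)
    (hy : y ∈ m.P') (hyF : y ∈ S.On F) (hc : col (m.lab' x) = col (m.lab' y)) (hne : y ≠ x)
    (hne' : y ≠ m.mu' hp F x) :
    ¬ S.mesh.Lace F x (m.mu' hp F x) y (m.mu' hp F y) := by
  rcases F with F | G | e
  · rcases x with w | x
    · rcases y with w' | y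
      · exact s.nc (m.top_mem_P'.1 hx) (S.top_mem_On.1 hxF) (m.top_mem_P'.1 hy)
          (S.top_mem_On.1 hyF) hc (fun h => hne (congrArg S.top h))
          (fun h => hne' (congrArg S.top h))
      · obtain ⟨w, _, h⟩ := hyF
        cases h
    · obtain ⟨w, _, h⟩ := hxF
      cases h
  · rcases x with w | w | v
    · exact (S.top_not_mem_On hxF).elim
    · rcases y with w' | w' | v
      · exact (S.top_not_mem_On hyF).elim
      · exact m.nc G.2 (m.bot_mem_P'.1 hx) (S.bot_mem_On.1 hxF) (m.bot_mem_P'.1 hy)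
          (S.bot_mem_On.1 hyF) hc (fun h => hne (congrArg S.bot h))
          (fun h => hne' (congrArg S.bot h))
      · exact (S.vert_not_mem_On' hyF).elim
    · exact (S.vert_not_mem_On' hxF).elim
  · by_cases hxq : x ∈ m.qe
    · rw [m.mu'_vert_qe hp hxq] at hne' ⊢
      by_cases hyq : y ∈ m.qe
      · rw [m.mu'_vert_qe hp hyq]
        exact m.nc_QQ hp (m.mem_qon.2 ⟨hxq, hxF⟩) (m.mem_qon.2 ⟨hyq, hyF⟩) hne hne'
      · rw [m.mu'_vert_nqe hp hyq]
        obtain ⟨w, hw, hP, hB, hyw⟩ := m.product hy hyF hyq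
        have hl : m.lab' y = s.lab w := by
          rcases hyw with rfl | rfl
          · rfl
          · exact m.same_lab hP hB
        rw [m.lab_qe hxq, hl] at hc
        exact (m.nc_PQ hp hw hP hB hc.symm hyw (swp_cases hyw) (m.mem_qon.2 ⟨hxq, hxF⟩)).2
    · rw [m.mu'_vert_nqe hp hxq] at hne' ⊢
      obtain ⟨w, hw, hP, hB, hxw⟩ := m.product hx hxF hxq
      have hl : m.lab' x = s.lab w := by
        rcases hxw with rfl | rfl
        · rfl
        · exact m.same_lab hP hB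
      by_cases hyq : y ∈ m.qe
      · rw [m.mu'_vert_qe hp hyq]
        rw [m.lab_qe hyq, hl] at hc
        exact (m.nc_PQ hp hw hP hB hc hxw (swp_cases hxw) (m.mem_qon.2 ⟨hyq, hyF⟩)).1
      · rw [m.mu'_vert_nqe hp hyq]
        obtain ⟨w', hw', hP', hB', hyw⟩ := m.product hy hyF hyq
        refine nc_PP hw hw' ?_ hxw (swp_cases hxw) hyw (swp_cases hyw)
        rintro rfl
        rcases hxw with rfl | rfl <;> rcases hyw with rfl | rfl
        · exact hne rfl
        · exact hne' rfl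
        · exact hne' rfl
        · exact hne rfl

/-- **the state of the layer** -/
noncomputable def st (hp : m.Par) : St S.mesh col where
  P := m.P'
  lab := m.lab'
  mu := m.mu' hp
  mu_mem := fun hx hF => m.mu'_mem hp hx hF
  mu_ne := fun hx hF => m.mu'_ne hp hx hF
  mu_mu := fun hx hF => m.mu'_mu' hp hx hF
  mu_lab := fun hx hF => m.mu'_lab hp hx hF
  nc := fun hx hxF hy hyF hc hne hne' => m.nc' hp hx hxF hy hyF hc hne hne'

end Move

end Crest.Agent.R096.Door_501
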