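import Crest.Agent.R096.Door2_501

/-!
# Row 96, DOORS (helper501), part 3: `H¹ = 0` and connectedness of the state of one layer.
-/

set_option autoImplicit false

namespace Crest.Agent.R096.Door_501

open Crest.Agent.R096.St_147

theorem z1 : ∀ a b c d : ZMod 2, a + b = (c + d) + (a + c) + (b + d) := by decide

theorem z2 : ∀ a b c d : ZMod 2, (a + b) + c + d = (a + c) + (b + d) := by decide

theorem z3 : ∀ a b c d e : ZMod 2, a + e = b → a + c = b + d → c + e = d := by decide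

theorem z4 : ∀ a b : ZMod 2, a + (a + b) = b := by decide

theorem z5 : ∀ a b c : ZMod 2, a + b = (a + c) + (b + c) := by decide

theorem z6 : ∀ a b c d e : ZMod 2, a = b + c + d → a = e → b = e + c + d := by decide

open Classical

variable {ι Φ W : Type} {M : MeshC ι Φ W} {k : ι} {Vx Ed : Type} {I : Type} {col : I → Bool}

namespace Move

variable {S : Shell M k Vx Ed} {s : St M col} (m : Move S s)

/-- on a face of `k` the partner of an old point outside `B` is outside `B` -/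
theorem mu_not_B {F : Φ} {w : W} (hF : k ∈ M.side F) (hw : w ∈ M.On F) (hP : w ∈ s.P)
    (hB : w ∉ m.B) : s.mu F w ∉ m.B := by
  intro h
  have h1 := s.mu_mem hP hw
  have h2 := m.same_mu hF h1.2 h1.1 h
  rw [s.mu_mu hP hw] at h2
  have h3 := m.mem hF h h1.2
  rw [h2] at h3
  exact hB h3.1

theorem mu_B {F : Φ} {w : W} (hF : k ∈ M.side F) (hw : w ∈ M.On F) (hP : w ∈ s.P)
    (hB : w ∈ m.B) : s.mu F w ∈ m.B := by
  rw [← m.same_mu hF hw hP hB]
  exact (m.mem hF hB hw).1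

theorem mu0_not_P {F : Φ} {w : W} (hF : k ∈ M.side F) (hw : w ∈ M.On F) (hP : w ∉ s.P)
    (hB : w ∈ m.B) : m.mu0 F w ∉ s.P := by
  intro h
  have h1 := m.mem hF hB hw
  have h2 := m.same_mu hF h1.2 h h1.1
  rw [m.inv hF hB hw] at h2
  have h3 := s.mu_mem h h1.2
  rw [← h2] at h3
  exact hP h3.1

/-- the points of `qe` are closed under partners in the layer -/
theorem mu'_qe (hp : m.Par) {F : S.Face} {x : S.Pnt} (hF : S.Lay F) (hx : x ∈ m.qe)
    (hxF : x ∈ S.On F) : m.mu' hp F x ∈ m.qe := by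
  rcases F with F | G | e
  · rcases x with w | x
    · have hk := S.of_lay_top hF
      obtain ⟨h1, h2, h3⟩ := m.top_mem_qe.1 hx
      have hw := S.top_mem_On.1 hxF
      have h4 := s.mu_mem h1 hw
      obtain ⟨e, _, _, he⟩ := (S.onE hk).1 h4.2
      exact m.top_mem_qe.2 ⟨h4.1, m.mu_not_B hk hw h1 h2, e, he⟩
    · obtain ⟨w, _, h⟩ := hxF
      cases h
  · rcases x with w | w | v
    · exact (S.top_not_mem_On hxF).elim
    · obtain ⟨h1, h2⟩ := m.bot_mem_qe.1 hx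
      have hw := S.bot_mem_On.1 hxF
      exact m.bot_mem_qe.2 ⟨(m.mem G.2 h1 hw).1, m.mu0_not_P G.2 hw h2 h1⟩
    · exact (S.vert_not_mem_On' hxF).elim
  · rw [m.mu'_vert_qe hp hx]
    exact (m.mem_qon.1 (m.pr_spec hp e x (m.mem_qon.2 ⟨hx, hxF⟩)).1).1

/-- (QP): the horizontal piece has no period, when its lower boundary is filled -/
def QP (hp : m.Par) : Prop := ∀ κ : S.Face → S.Pnt → ZMod 2,
  (∀ G : S.Fk, ∃ ψ : S.Pnt → ZMod 2, ∀ F x, (Sum.inr G : S.Cell) ∈ S.side F → x ∈ m.qe →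
    x ∈ S.On F → κ F x = ψ x + ψ (m.mu' hp F x)) →
  (∃ ψ : S.Pnt → ZMod 2, ∀ F x, (Sum.inl k : S.Cell) ∈ S.side F → x ∈ m.qe →
    x ∈ S.On F → κ F x = ψ x + ψ (m.mu' hp F x)) →
  ∃ Ψ : S.Pnt → ZMod 2, ∀ F x, S.Lay F → x ∈ m.qe → x ∈ S.On F →
    κ F x = Ψ x + Ψ (m.mu' hp F x)

/-- (TC): the upper boundary of the horizontal piece is connected -/
def TC : Prop := ∀ X : Set W, (∀ F w, k ∈ M.side F → w ∈ M.On F → w ∈ s.P → w ∉ m.B → w ∈ X →
  s.mu F w ∈ X) → ∀ w ∈ X, w ∈ s.P → w ∉ m.B → (∃ e, w ∈ S.OnE e) →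
  ∀ w', w' ∈ s.P → w' ∉ m.B → (∃ e, w' ∈ S.OnE e) → w' ∈ X

/-- (QC): every point of the horizontal piece is connected to its upper boundary -/
def QC (hp : m.Par) : Prop := ∀ X : Set S.Pnt, (∀ F x, S.Lay F → x ∈ m.qe → x ∈ S.On F → x ∈ X →
  m.mu' hp F x ∈ X) → (∀ w, S.top w ∈ m.qe → S.top w ∈ X) → ∀ x ∈ m.qe, x ∈ X

theorem conn (hp : m.Par) (hQC : m.QC hp) (i : I) (h : s.Conn i) : (m.st hp).Conn i := by
  obtain ⟨⟨w0, hw0, hl0⟩, hconn⟩ := h
  refine ⟨⟨S.top w0, m.top_mem_P'.2 hw0, hl0⟩, ?_⟩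
  intro X hX x hx hxP hxl x' hxP' hxl'
  -- closed under partners
  have hX1 : ∀ F x, x ∈ X → x ∈ m.P' → x ∈ S.On F → m.lab' x = i → m.mu' hp F x ∈ X :=
    fun F x h1 h2 h3 h4 => hX F x h1 ⟨h2, h3⟩ h4
  have hX2 : ∀ F x, m.mu' hp F x ∈ X → x ∈ m.P' → x ∈ S.On F → m.lab' x = i → x ∈ X := by
    intro F x h1 h2 h3 h4
    have h5 := m.mu'_mem hp h2 h3
    have h6 := hX1 F _ h1 h5.1 h5.2 ((m.mu'_lab hp h2 h3).trans h4)
    rwa [m.mu'_mu' hp h2 h3] at h6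
  -- old points
  have hold : ∀ w, S.top w ∈ X → w ∈ s.P → s.lab w = i → ∀ w', w' ∈ s.P → s.lab w' = i →
      S.top w' ∈ X := by
    intro w h1 h2 h3 w' h4 h5
    exact hconn {w | S.top w ∈ X} (fun F w h6 h7 h8 => hX1 (Sum.inl F) (S.top w) h6
      (m.top_mem_P'.2 h7.1) (S.top_mem_On.2 h7.2) h8) w h1 h2 h3 w' h4 h5
  -- product points
  have hprod : ∀ e w, w ∈ S.OnE e → w ∈ s.P → w ∈ m.B → s.lab w = i →
      (S.top w ∈ X ↔ S.bot w ∈ X) := by
    intro e w h1 h2 h3 h4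
    have h5 : m.mu' hp (Sum.inr (Sum.inr e)) (S.top w) = S.bot w :=
      m.mu'_vert_nqe hp (m.top_not_qe h3)
    constructor
    · intro h
      have := hX1 (Sum.inr (Sum.inr e)) (S.top w) h (m.top_mem_P'.2 h2) (S.top_mem_vert.2 h1) h4
      rwa [h5] at this
    · intro h
      exact hX2 (Sum.inr (Sum.inr e)) (S.top w) (by rw [h5]; exact h) (m.top_mem_P'.2 h2)
        (S.top_mem_vert.2 h1) h4
  -- every point of the sheet is connected to an old one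
  have hred : ∀ x, x ∈ m.P' → m.lab' x = i → (x ∈ m.qe → m.i0 = i) →
      (∀ w ∈ s.P, s.lab w = i → S.top w ∈ X) → x ∈ X := by
    intro x h1 h2 h3 h4
    by_cases hq : x ∈ m.qe
    · have hi := h3 hq
      refine hQC X (fun F x _ h5 h6 h7 => hX1 F x h7 (m.qe_sub_P' h5) h6
        ((m.lab_qe h5).trans hi)) (fun w hw => ?_) x hq
      exact h4 w (m.top_mem_qe.1 hw).1 ((m.lab_qe hw).trans hi)
    · rcases x with w | w | v
      · exact h4 w (m.top_mem_P'.1 h1) h2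
      · have hB := m.bot_mem_P'.1 h1
        have hP : w ∈ s.P := by
          by_contra hP
          exact hq (m.bot_mem_qe.2 ⟨hB, hP⟩)
        obtain ⟨e, he⟩ := m.B_on hB
        have hl : s.lab w = i := (m.same_lab hP hB).symm.trans h2
        exact (hprod e w he hP hB hl).1 (h4 w hP hl)
      · exact (hq (m.vert_mem_qe.2 (m.vert_mem_P'.1 h1))).elim
  have hi0 : ∀ x, x ∈ m.qe → m.lab' x = i → m.i0 = i := fun x h1 h2 => (m.lab_qe h1).symm.trans h2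
  -- a point of `X` gives an old point of `X`
  have htop : ∃ w ∈ s.P, s.lab w = i ∧ S.top w ∈ X := by
    by_contra hno
    push Not at hno
    by_cases hq : x ∈ m.qe
    · have hi := hi0 x hq hxl
      have : x ∈ Xᶜ := by
        refine hQC Xᶜ (fun F y hF h5 h6 h7 h8 => ?_) (fun w hw h8 => ?_) x hq
        · exact h7 (hX2 F y h8 (m.qe_sub_P' h5) h6 ((m.lab_qe h5).trans hi))
        · exact hno w (m.top_mem_qe.1 hw).1 ((m.lab_qe hw).trans hi) h8
      exact this hx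
    · rcases x with w | w | v
      · exact hno w (m.top_mem_P'.1 hxP) hxl hx
      · have hB := m.bot_mem_P'.1 hxP
        have hP : w ∈ s.P := by
          by_contra hP
          exact hq (m.bot_mem_qe.2 ⟨hB, hP⟩)
        obtain ⟨e, he⟩ := m.B_on hB
        have hl : s.lab w = i := (m.same_lab hP hB).symm.trans hxl
        exact hno w hP hl ((hprod e w he hP hB hl).2 hx)
      · exact (hq (m.vert_mem_qe.2 (m.vert_mem_P'.1 hxP))).elim
  obtain ⟨w1, hw1, hl1, hX3⟩ := htop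
  exact hred x' hxP' hxl' (fun h => hi0 x' h hxl') (hold w1 hX3 hw1 hl1)

theorem h1 (hp : m.Par) (hQP : m.QP hp) (hTC : m.TC) (i : I) (h : s.H1 i) :
    (m.st hp).H1 i := by
  intro κ hκ
  choose ψ hψ' using hκ
  have hψ : ∀ (q : S.Cell) (F : S.Face) (x : S.Pnt), q ∈ S.side F → x ∈ m.P' → x ∈ S.On F →
      m.lab' x = i → κ F x = ψ q x + ψ q (m.mu' hp F x) :=
    fun q F x h1 h2 h3 h4 => hψ' q F x h1 ⟨h2, h3⟩ h4
  -- the potential on the horizontal piece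
  obtain ⟨ΨQ, hΨQ⟩ : ∃ ΨQ : S.Pnt → ZMod 2, m.i0 = i → ∀ F x, S.Lay F → x ∈ m.qe → x ∈ S.On F →
      κ F x = ΨQ x + ΨQ (m.mu' hp F x) := by
    by_cases hi : m.i0 = i
    · obtain ⟨Ψ, hΨ⟩ := hQP κ
        (fun G => ⟨ψ (Sum.inr G), fun F x h1 h2 h3 =>
          hψ _ F x h1 (m.qe_sub_P' h2) h3 ((m.lab_qe h2).trans hi)⟩)
        ⟨ψ (Sum.inl k), fun F x h1 h2 h3 =>
          hψ _ F x h1 (m.qe_sub_P' h2) h3 ((m.lab_qe h2).trans hi)⟩
      exact ⟨Ψ, fun _ => hΨ⟩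
    · exact ⟨0, fun h => (hi h).elim⟩
  -- the value of `κ` on the vertical chord at `w`
  obtain ⟨kv, hkv⟩ : ∃ kv : W → ZMod 2, ∀ e w, w ∈ S.OnE e →
      κ (Sum.inr (Sum.inr e)) (S.top w) = kv w := by
    refine ⟨fun w => if h : ∃ e, w ∈ S.OnE e then κ (Sum.inr (Sum.inr h.choose)) (S.top w) else 0,
      ?_⟩
    intro e w hw
    have h : ∃ e, w ∈ S.OnE e := ⟨e, hw⟩
    show _ = if h : ∃ e, w ∈ S.OnE e then κ (Sum.inr (Sum.inr h.choose)) (S.top w) else 0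
    rw [dif_pos h]
    congr 3
    exact S.onE_disj hw h.choose_spec
  -- product chords
  have hvG : ∀ (e : Ed) (w : W) (G : S.Fk), w ∈ S.OnE e → w ∈ s.P → w ∈ m.B → s.lab w = i →
      w ∈ M.On G.1 → kv w = ψ (Sum.inr G) (S.top w) + ψ (Sum.inr G) (S.bot w) := by
    intro e w G h1 h2 h3 h4 h5
    obtain ⟨b, hb⟩ := S.fc_of_on h1 G.2 h5
    have h6 := hψ (Sum.inr G) (Sum.inr (Sum.inr e)) (S.top w)
      (S.mem_side_vert.2 ⟨b, by congr 1; exact Subtype.ext hb.symm⟩) (m.top_mem_P'.2 h2)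
      (S.top_mem_vert.2 h1) h4
    rw [hkv e w h1, m.mu'_vert_nqe hp (m.top_not_qe h3)] at h6
    exact h6
  have hvb : ∀ (e : Ed) (w : W), w ∈ S.OnE e → w ∈ s.P → w ∈ m.B → s.lab w = i →
      κ (Sum.inr (Sum.inr e)) (S.bot w) = kv w := by
    intro e w h1 h2 h3 h4
    have h5 := hvG e w ⟨S.fc e false, S.fc_side e false⟩ h1 h2 h3 h4 (S.on_of_onE h1 false)
    have h6 := hψ (Sum.inr ⟨S.fc e false, S.fc_side e false⟩) (Sum.inr (Sum.inr e)) (S.bot w)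
      (S.mem_side_vert.2 ⟨false, rfl⟩) (m.bot_mem_P'.2 h3) (S.bot_mem_vert.2 h1)
      ((m.same_lab h2 h3).trans h4)
    rw [m.mu'_vert_nqe hp (m.bot_not_qe h2)] at h6
    rw [h5, h6, add_comm]
    rfl
  -- bottom chords of products
  have hbot : ∀ (G : S.Fk) (w : W), w ∈ M.On G.1 → w ∈ s.P → w ∈ m.B → s.lab w = i →
      κ (Sum.inl G.1) (S.top w) = κ (Sum.inr (Sum.inl G)) (S.bot w) + kv w + kv (s.mu G.1 w) := by
    intro G w h1 h2 h3 h4
    obtain ⟨e, _, _, he⟩ := (S.onE G.2).1 h1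
    have h5 := s.mu_mem h2 h1
    have h6 := m.mu_B G.2 h1 h2 h3
    obtain ⟨e', _, _, he'⟩ := (S.onE G.2).1 h5.2
    have g1 := hψ (Sum.inr G) (Sum.inr (Sum.inl G)) (S.bot w) (S.mem_side_bot.2 (Or.inl rfl))
      (m.bot_mem_P'.2 h3) (S.bot_mem_On.2 h1) ((m.same_lab h2 h3).trans h4)
    have g1' : m.mu' hp (Sum.inr (Sum.inl G)) (S.bot w) = S.bot (s.mu G.1 w) := by
      rw [← m.same_mu G.2 h1 h2 h3]
      rfl
    rw [g1'] at g1
    have g2 := hψ (Sum.inr G) (Sum.inl G.1) (S.top w) (S.inr_mem_side.2 rfl)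
      (m.top_mem_P'.2 h2) (S.top_mem_On.2 h1) h4
    have g2' : m.mu' hp (Sum.inl G.1) (S.top w) = S.top (s.mu G.1 w) := rfl
    rw [g2'] at g2
    have g3 := hvG e w G he h2 h3 h4 h1
    have g4 := hvG e' (s.mu G.1 w) G he' h5.1 h6 ((s.mu_lab h2 h1).trans h4) h5.2
    rw [g1, g2, g3, g4]
    exact z1 _ _ _ _
  -- the potential on the old part
  obtain ⟨Ψ0, hΨ0⟩ := h (fun F w => κ (Sum.inl F) (S.top w)) (by
    intro q
    by_cases hq : q = k
    · subst hq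
      refine ⟨fun w => if w ∈ m.B then ψ (Sum.inl q) (S.bot w) + kv w else ΨQ (S.top w), ?_⟩
      intro F w hF hw hl
      obtain ⟨e, _, _, he⟩ := (S.onE hF).1 hw.2
      show κ (Sum.inl F) (S.top w) =
        (if w ∈ m.B then ψ (Sum.inl q) (S.bot w) + kv w else ΨQ (S.top w)) +
        (if s.mu F w ∈ m.B then ψ (Sum.inl q) (S.bot (s.mu F w)) + kv (s.mu F w)
          else ΨQ (S.top (s.mu F w)))
      by_cases hB : w ∈ m.B
      · rw [if_pos hB, if_pos (m.mu_B hF hw.2 hw.1 hB), hbot ⟨F, hF⟩ w hw.2 hw.1 hB hl]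
        have g1 := hψ (Sum.inl q) (Sum.inr (Sum.inl ⟨F, hF⟩)) (S.bot w)
          (S.mem_side_bot.2 (Or.inr rfl)) (m.bot_mem_P'.2 hB) (S.bot_mem_On.2 hw.2)
          ((m.same_lab hw.1 hB).trans hl)
        have g1' : m.mu' hp (Sum.inr (Sum.inl ⟨F, hF⟩)) (S.bot w) = S.bot (s.mu F w) := by
          rw [← m.same_mu hF hw.2 hw.1 hB]
          rfl
        rw [g1'] at g1
        rw [g1]
        exact z2 _ _ _ _
      · rw [if_neg hB, if_neg (m.mu_not_B hF hw.2 hw.1 hB)]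
        exact hΨQ ((m.dif_top he hw.1 hB).symm.trans hl) (Sum.inl F) (S.top w) (S.lay_top hF)
          (m.top_mem_qe.2 ⟨hw.1, hB, e, he⟩) (S.top_mem_On.2 hw.2)
    · refine ⟨fun w => ψ (Sum.inl q) (S.top w), ?_⟩
      intro F w hF hw hl
      exact hψ (Sum.inl q) (Sum.inl F) (S.top w) (S.inl_mem_side.2 ⟨hF, hq⟩)
        (m.top_mem_P'.2 hw.1) (S.top_mem_On.2 hw.2) hl)
  have hΨ0' : ∀ F w, w ∈ s.P → w ∈ M.On F → s.lab w = i →
      κ (Sum.inl F) (S.top w) = Ψ0 w + Ψ0 (s.mu F w) := fun F w h1 h2 h3 => hΨ0 F w ⟨h1, h2⟩ h3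
  -- the constant
  obtain ⟨c, hc⟩ : ∃ c : ZMod 2, m.i0 = i → ∀ w, S.top w ∈ m.qe → ΨQ (S.top w) + c = Ψ0 w := by
    by_cases hex : m.i0 = i ∧ ∃ w, S.top w ∈ m.qe
    · obtain ⟨hi, w0, hw0⟩ := hex
      refine ⟨ΨQ (S.top w0) + Ψ0 w0, fun _ w hw => ?_⟩
      obtain ⟨a1, a2, a3⟩ := m.top_mem_qe.1 hw0
      obtain ⟨b1, b2, b3⟩ := m.top_mem_qe.1 hw
      refine hTC {w | ΨQ (S.top w) + (ΨQ (S.top w0) + Ψ0 w0) = Ψ0 w} ?_ w0
        (z4 _ _) a1 a2 a3 w b1 b2 b3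
      intro F w' h1 h2 h3 h4 h5
      have h5' : ΨQ (S.top w') + (ΨQ (S.top w0) + Ψ0 w0) = Ψ0 w' := h5
      show ΨQ (S.top (s.mu F w')) + (ΨQ (S.top w0) + Ψ0 w0) = Ψ0 (s.mu F w')
      obtain ⟨e, _, _, he⟩ := (S.onE h1).1 h2
      have hq : S.top w' ∈ m.qe := m.top_mem_qe.2 ⟨h3, h4, e, he⟩
      have h6 := hΨQ hi (Sum.inl F) (S.top w') (S.lay_top h1) hq (S.top_mem_On.2 h2)
      have h7 := hΨ0' F w' h3 h2 ((m.dif_top he h3 h4).trans hi)
      have h8 : m.mu' hp (Sum.inl F) (S.top w') = S.top (s.mu F w') := rfl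
      rw [h8] at h6
      rw [h6] at h7
      exact z3 _ _ _ _ _ h5' h7
    · refine ⟨0, fun hi w hw => (hex ⟨hi, w, hw⟩).elim⟩
  -- the final potential
  let Ψ : S.Pnt → ZMod 2 := fun x => match x with
    | Sum.inl w => Ψ0 w
    | Sum.inr (Sum.inl w) => if w ∈ s.P then Ψ0 w + kv w else ΨQ (S.bot w) + c
    | Sum.inr (Sum.inr v) => ΨQ (S.vert v) + c
  have Ψtop : ∀ w, Ψ (S.top w) = Ψ0 w := fun _ => rfl
  have Ψbot : ∀ w, Ψ (S.bot w) = if w ∈ s.P then Ψ0 w + kv w else ΨQ (S.bot w) + c :=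
    fun _ => rfl
  have Ψq : ∀ x, x ∈ m.qe → m.i0 = i → Ψ x = ΨQ x + c := by
    intro x hx hi
    rcases x with w | w | v
    · exact (hc hi w hx).symm
    · have h1 := (m.bot_mem_qe.1 hx).2
      exact (Ψbot w).trans (if_neg h1)
    · rfl
  refine ⟨Ψ, ?_⟩
  intro F x hx hxl
  obtain ⟨hxP, hxF⟩ := hx
  have hxP : x ∈ m.P' := hxP
  have hxF : x ∈ S.On F := hxF
  have hxl : m.lab' x = i := hxl
  show κ F x = Ψ x + Ψ (m.mu' hp F x)
  by_cases hq : x ∈ m.qe ∧ S.Lay F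
  · obtain ⟨hq, hF⟩ := hq
    have hi : m.i0 = i := (m.lab_qe hq).symm.trans hxl
    rw [Ψq x hq hi, Ψq _ (m.mu'_qe hp hF hq hxF) hi, hΨQ hi F x hF hq hxF]
    exact z5 _ _ _
  · rcases F with F | G | e
    · rcases x with w | x
      · have hw := S.top_mem_On.1 hxF
        have hP := m.top_mem_P'.1 hxP
        exact hΨ0' F w hP hw hxl
      · obtain ⟨w, _, h⟩ := hxF
        cases h
    · have hq : x ∉ m.qe := fun h => hq ⟨h, S.lay_bot G⟩
      rcases x with w | w | v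
      · exact (S.top_not_mem_On hxF).elim
      · have hw := S.bot_mem_On.1 hxF
        have hB := m.bot_mem_P'.1 hxP
        have hP : w ∈ s.P := by
          by_contra hP
          exact hq (m.bot_mem_qe.2 ⟨hB, hP⟩)
        have hl : s.lab w = i := (m.same_lab hP hB).symm.trans hxl
        have hmu : m.mu' hp (Sum.inr (Sum.inl G)) (S.bot w) = S.bot (s.mu G.1 w) := by
          rw [← m.same_mu G.2 hw hP hB]
          rfl
        show κ (Sum.inr (Sum.inl G)) (S.bot w) = Ψ (S.bot w) +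
          Ψ (m.mu' hp (Sum.inr (Sum.inl G)) (S.bot w))
        rw [hmu, Ψbot, Ψbot, if_pos hP, if_pos (s.mu_mem hP hw).1]
        have h1 := hbot G w hw hP hB hl
        have h2 := hΨ0' G.1 w hP hw hl
        rw [z6 _ _ _ _ _ h1 h2]
        exact z2 _ _ _ _
      · exact (S.vert_not_mem_On' hxF).elim
    · have hq : x ∉ m.qe := fun h => hq ⟨h, S.lay_vert e⟩
      rw [m.mu'_vert_nqe hp hq]
      obtain ⟨w, hw, hP, hB, rfl | rfl⟩ := m.product hxP hxF hq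
      · show κ (Sum.inr (Sum.inr e)) (S.top w) = Ψ (S.top w) + Ψ (S.bot w)
        rw [hkv e w hw, Ψtop, Ψbot, if_pos hP]
        exact (z4 _ _).symm
      · have hl : s.lab w = i := (m.same_lab hP hB).symm.trans hxl
        show κ (Sum.inr (Sum.inr e)) (S.bot w) = Ψ (S.bot w) + Ψ (S.top w)
        rw [hvb e w hw hP hB hl, Ψtop, Ψbot, if_pos hP, add_comm]
        exact (z4 _ _).symm

end Move

end Crest.Agent.R096.Door_501
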