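import Crest.Agent.R096.Mrg1_715
import Crest.Agent.R096.Seq2_213

/-!
# Row 96, DOORS (helper501), part 4: the outer state

`outer s π h r` : the state on the merged mesh `mergeC M π h` (715) which consists, for every sheet
`j`, of the points connected with the root `r j` through chords on the faces which are not inside a
merged cell.  `H1` and `Conn` are inherited without any condition on the sheets inside the merged
cells.
-/

set_option autoImplicit false

namespace Crest.Agent.R096.Door_501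

open Crest.Agent.R096.St_147 Crest.Agent.R096.Seq_213 Crest.Agent.R096.Msh_715 Classical

variable {ι ι' Φ W J C : Type} {M : MeshC ι Φ W} {fam : J → C}

/-- one step along a chord on a face which is not inside a merged cell -/
def OStep (s : GSt M fam) (π : ι → ι') (w w' : W) : Prop :=
  ∃ F, ¬ ((M.side F).map π).IsDiag ∧ w ∈ s.P ∧ w ∈ M.On F ∧ w' = s.mu F w

theorem OStep.mem {s : GSt M fam} {π : ι → ι'} {w w' : W} (h : OStep s π w w') :
    w' ∈ s.P ∧ s.lab w' = s.lab w := by
  obtain ⟨F, _, h2, h3, rfl⟩ := h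
  exact ⟨(s.mu_mem h2 h3).1, s.mu_lab h2 h3⟩

theorem OStep.symm {s : GSt M fam} {π : ι → ι'} {w w' : W} (h : OStep s π w w') :
    OStep s π w' w := by
  obtain ⟨F, h1, h2, h3, rfl⟩ := h
  have h4 := s.mu_mem h2 h3
  exact ⟨F, h1, h4.1, h4.2, (s.mu_mu h2 h3).symm⟩

theorem oreach_symm {s : GSt M fam} {π : ι → ι'} {w w' : W}
    (h : Relation.ReflTransGen (OStep s π) w w') : Relation.ReflTransGen (OStep s π) w' w := by
  induction h with
  | refl => exact Relation.ReflTransGen.refl
  | tail _ h2 ih => exact Relation.ReflTransGen.head h2.symm ih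

theorem oreach_lab {s : GSt M fam} {π : ι → ι'} {w w' : W}
    (h : Relation.ReflTransGen (OStep s π) w w') : s.lab w' = s.lab w := by
  induction h with
  | refl => rfl
  | tail _ h2 ih => exact h2.mem.2.trans ih

/-- the points connected with the roots outside the merged cells -/
def outerP (s : GSt M fam) (π : ι → ι') (r : J → W) : Set W :=
  {w | w ∈ s.P ∧ Relation.ReflTransGen (OStep s π) (r (s.lab w)) w}

theorem outerP_mu {s : GSt M fam} {π : ι → ι'} {r : J → W} {F : Φ}
    (hF : ¬ ((M.side F).map π).IsDiag) {w : W} (hw : w ∈ outerP s π r) (hwF : w ∈ M.On F) :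
    s.mu F w ∈ outerP s π r := by
  refine ⟨(s.mu_mem hw.1 hwF).1, ?_⟩
  rw [s.mu_lab hw.1 hwF]
  exact hw.2.tail ⟨F, hF, hw.1, hwF, rfl⟩

theorem outerP_mu_iff {s : GSt M fam} {π : ι → ι'} {r : J → W} {F : Φ}
    (hF : ¬ ((M.side F).map π).IsDiag) {w : W} (hw : w ∈ s.P) (hwF : w ∈ M.On F) :
    s.mu F w ∈ outerP s π r ↔ w ∈ outerP s π r := by
  constructor
  · intro h
    have h1 := outerP_mu hF h (s.mu_mem hw hwF).2
    rwa [s.mu_mu hw hwF] at h1
  · intro h
    exact outerP_mu hF h hwF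

/-- **the outer state** -/
noncomputable def outer (s : GSt M fam) (π : ι → ι') (h : ∀ k w, ConnAt M (π ⁻¹' {k}) w)
    (r : J → W) : GSt (mergeC M π h) fam where
  P := outerP s π r
  lab := s.lab
  mu := fun F w => s.mu F.1 w
  mu_mem := fun {F _} hw hF => ⟨outerP_mu F.2 hw hF, (s.mu_mem hw.1 hF).2⟩
  mu_ne := fun hw hF => s.mu_ne hw.1 hF
  mu_mu := fun hw hF => s.mu_mu hw.1 hF
  mu_lab := fun hw hF => s.mu_lab hw.1 hF
  nc := fun hw hF hx hF' hc hne hne' => s.nc hw.1 hF hx.1 hF' hc hne hne'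
  fin := fun c => (s.fin c).subset fun _ hw => ⟨hw.1.1, hw.2⟩

theorem outer_conn (s : GSt M fam) (π : ι → ι') (h : ∀ k w, ConnAt M (π ⁻¹' {k}) w) (r : J → W)
    (i : J) (hr : r i ∈ s.P) (hl : s.lab (r i) = i) : (outer s π h r).Conn i := by
  refine ⟨⟨r i, ⟨hr, ?_⟩, hl⟩, ?_⟩
  · rw [hl]
  · intro X hX w hw hwP hwl w' hwP' hwl'
    have hreach : ∀ a b, Relation.ReflTransGen (OStep s π) a b → a ∈ X → a ∈ outerP s π r →
        s.lab a = i → b ∈ X ∧ b ∈ outerP s π r := by
      intro a b hab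
      induction hab with
      | refl => exact fun h1 h2 _ => ⟨h1, h2⟩
      | tail h1 h2 ih =>
        intro h3 h4 h5
        obtain ⟨h6, h7⟩ := ih h3 h4 h5
        obtain ⟨F, g1, g2, g3, rfl⟩ := h2
        have hlab := (oreach_lab h1).trans h5
        exact ⟨hX ⟨F, g1⟩ _ h6 ⟨h7, g3⟩ hlab, outerP_mu g1 h7 g3⟩
    have h1 : Relation.ReflTransGen (OStep s π) w (r i) := by
      have := hwP.2
      rw [show s.lab w = i from hwl] at this
      exact oreach_symm this
    have h2 : Relation.ReflTransGen (OStep s π) (r i) w' := by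
      have := hwP'.2
      rwa [show s.lab w' = i from hwl'] at this
    exact (hreach w w' (h1.trans h2) hw hwP hwl).1

theorem outer_h1 (s : GSt M fam) (π : ι → ι') (h : ∀ k w, ConnAt M (π ⁻¹' {k}) w) (r : J → W)
    (i : J) (hs : s.H1 i) : (outer s π h r).H1 i := by
  intro κ hκ
  choose ψ hψ using hκ
  -- potentials extended by zero
  let ψ0 : ι' → W → ZMod 2 := fun k w => if w ∈ outerP s π r then ψ k w else 0
  let κ0 : Φ → W → ZMod 2 := fun F w =>
    if hF : ((M.side F).map π).IsDiag then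
      (if hq : ∃ q, q ∈ M.side F then ψ0 (π hq.choose) w + ψ0 (π hq.choose) (s.mu F w) else 0)
    else if w ∈ outerP s π r then κ ⟨F, hF⟩ w else 0
  obtain ⟨Ψ, hΨ⟩ := hs κ0 (by
    intro q
    refine ⟨ψ0 (π q), ?_⟩
    intro F w hq hw hl
    show (if hF : ((M.side F).map π).IsDiag then
      (if hq : ∃ q, q ∈ M.side F then ψ0 (π hq.choose) w + ψ0 (π hq.choose) (s.mu F w) else 0)
    else if w ∈ outerP s π r then κ ⟨F, hF⟩ w else 0) = _
    by_cases hF : ((M.side F).map π).IsDiag
    · have hex : ∃ q, q ∈ M.side F := ⟨q, hq⟩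
      rw [dif_pos hF, dif_pos hex]
      have h1 : π hex.choose = π q := by
        rw [map_isDiag_iff] at hF
        exact hF _ hex.choose_spec _ hq
      rw [h1]
    · rw [dif_neg hF]
      by_cases hwo : w ∈ outerP s π r
      · rw [if_pos hwo]
        show _ = (if w ∈ outerP s π r then ψ (π q) w else 0) +
          (if s.mu F w ∈ outerP s π r then ψ (π q) (s.mu F w) else 0)
        rw [if_pos hwo, if_pos (outerP_mu hF hwo hw.2)]
        exact hψ (π q) ⟨F, hF⟩ w (mem_map_iff.2 ⟨q, hq, rfl⟩) ⟨hwo, hw.2⟩ hl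
      · rw [if_neg hwo]
        show _ = (if w ∈ outerP s π r then ψ (π q) w else 0) +
          (if s.mu F w ∈ outerP s π r then ψ (π q) (s.mu F w) else 0)
        rw [if_neg hwo, if_neg (fun h => hwo ((outerP_mu_iff hF hw.1 hw.2).1 h)), add_zero])
  refine ⟨Ψ, fun F w hw hl => ?_⟩
  have h1 := hΨ F.1 w ⟨hw.1.1, hw.2⟩ hl
  rw [show κ0 F.1 w = κ F w by
    show (if hF : ((M.side F.1).map π).IsDiag then
      (if hq : ∃ q, q ∈ M.side F.1 then ψ0 (π hq.choose) w + ψ0 (π hq.choose) (s.mu F.1 w) else 0)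
    else if w ∈ outerP s π r then κ ⟨F.1, hF⟩ w else 0) = _
    have hw1 : w ∈ outerP s π r := hw.1
    rw [dif_neg F.2, if_pos hw1]] at h1
  exact h1

/-- the points of the outer state are points of the old state -/
theorem outer_mem {s : GSt M fam} {π : ι → ι'} {h : ∀ k w, ConnAt M (π ⁻¹' {k}) w} {r : J → W}
    {w : W} : w ∈ (outer s π h r).P ↔ w ∈ s.P ∧
      Relation.ReflTransGen (OStep s π) (r (s.lab w)) w := Iff.rfl

end Crest.Agent.R096.Door_501
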