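import Crest.Agent.R096.Door3_501

/-!
# Row 96, DOORS (helper501), part 5: the sphere mesh of a shell, the lower pattern of a move,
and the local form of `H¹ = 0` / connectedness of one layer.

* `S.sph : MeshC Bool S.Fk W` : only the faces of `k`, cells `true` (= `k`) and `false` (outside);
* `S.sphSh : Shell S.sph true Vx Ed` : its shell (all patterns on the sphere live on this mesh);
* `Move.bot : St S.sph col` : the pattern on the lower sphere after the move;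
* `Move.ext_top`, `Move.ext_down` : the two halves of `Move.h1`: a cochain on the layer which is
  exact on the cells of the layer and on the lower pattern is exact on the upper pattern, and every
  potential on the upper pattern extends to the layer.
-/

set_option autoImplicit false

namespace Crest.Agent.R096.Door_501

open Crest.Agent.R096.St_147 Classical

variable {ι Φ W : Type} {M : MeshC ι Φ W} {k : ι} {Vx Ed : Type} {I : Type} {col : I → Bool}

namespace Shell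

variable (S : Shell M k Vx Ed)

theorem mem_bool_side (b : Bool) : b ∈ (s(true, false) : Sym2 Bool) := by
  cases b
  · exact Sym2.mem_mk_right _ _
  · exact Sym2.mem_mk_left _ _

/-- the mesh consisting of the faces of `k` only -/
noncomputable def sph : MeshC Bool S.Fk W where
  side := fun _ => s(true, false)
  side_nd := fun _ h => by
    have := Sym2.mk_isDiag_iff.1 h
    cases this
  On := fun G => M.On G.1
  pos := fun G => M.pos G.1
  pos_inj := fun G => M.pos_inj G.1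
  deg := by
    intro q w
    have h1 : {G : S.Fk | q ∈ (s(true, false) : Sym2 Bool) ∧ w ∈ M.On G.1} =
        {G : S.Fk | w ∈ M.On G.1} := by
      ext G
      exact ⟨fun h => h.2, fun h => ⟨mem_bool_side q, h⟩⟩
    have h2 : {F | k ∈ M.side F ∧ w ∈ M.On F} = (fun G : S.Fk => G.1) '' {G | w ∈ M.On G.1} := by
      ext F
      simp only [Set.mem_ofPred_eq, Set.mem_image]
      constructor
      · rintro ⟨h1, h2⟩
        exact ⟨⟨F, h1⟩, h2, rfl⟩
      · rintro ⟨G, h2, rfl⟩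
        exact ⟨G.2, h2⟩
    have h3 := M.deg k w
    rw [ncard_map _ Subtype.val_injective h2] at h3
    rw [h1]
    exact h3
  fin := fun w => (M.fin w).preimage (Subtype.val_injective.injOn)
  link := by
    intro w A hA F hF q hq hqA F' hF' q' hq'
    have h1 : ∀ b : Bool, b ∈ A := fun b =>
      hA F hF q hq b (mem_bool_side b) hqA
    exact h1 q'

/-- its shell -/
noncomputable def sphSh : Shell S.sph true Vx Ed where
  en := S.en
  en_ne := S.en_ne
  fc := fun e b => ⟨S.fc e b, S.fc_side e b⟩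
  fc_ne := fun e h => S.fc_ne e (congrArg Subtype.val h)
  fc_side := fun _ _ => mem_bool_side _
  OnE := S.OnE
  onE := by
    intro G w _
    constructor
    · intro h
      obtain ⟨e, b, hb, he⟩ := (S.onE G.2).1 h
      exact ⟨e, b, Subtype.ext hb, he⟩
    · rintro ⟨e, b, hb, he⟩
      exact (S.onE G.2).2 ⟨e, b, congrArg Subtype.val hb, he⟩
  onE_disj := S.onE_disj
  t := S.t
  t_inj := S.t_inj
  t_pos := S.t_pos
  t_lt := S.t_lt
  vdeg := by
    intro G v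
    have : {e | (∃ b, (⟨S.fc e b, S.fc_side e b⟩ : S.Fk) = G) ∧ ∃ b, S.en e b = v} =
        {e | (∃ b, S.fc e b = G.1) ∧ ∃ b, S.en e b = v} := by
      ext e
      constructor
      · rintro ⟨⟨b, hb⟩, h⟩
        exact ⟨⟨b, congrArg Subtype.val hb⟩, h⟩
      · rintro ⟨⟨b, hb⟩, h⟩
        exact ⟨⟨b, Subtype.ext hb⟩, h⟩
    rw [this]
    exact S.vdeg G.1 v
  vfin := S.vfin
  vlink := by
    intro v A hA e he b hb e' he' b'
    let A0 : Set Φ := {F | ∃ h : k ∈ M.side F, (⟨F, h⟩ : S.Fk) ∈ A}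
    have h0 : ∀ e, (∃ b, S.en e b = v) → ∀ b, S.fc e b ∈ A0 → S.fc e (!b) ∈ A0 := by
      rintro e he b ⟨_, h⟩
      exact ⟨S.fc_side e (!b), hA e he b h⟩
    exact (S.vlink v A0 h0 e he b ⟨S.fc_side e b, hb⟩ e' he' b').2

end Shell

namespace Move

variable {S : Shell M k Vx Ed} {s : St M col} (m : Move S s)

/-- the pattern on the lower sphere -/
noncomputable def bot : St S.sph col where
  P := m.B
  lab := m.lab0
  mu := fun G => m.mu0 G.1
  mu_mem := fun {G _} hw hG => m.mem G.2 hw hG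
  mu_ne := fun {G _} hw hG => m.ne G.2 hw hG
  mu_mu := fun {G _} hw hG => m.inv G.2 hw hG
  mu_lab := fun {G _} hw hG => m.lab G.2 hw hG
  nc := fun {G _ _} hw hG hx hG' hc hne hne' => m.nc G.2 hw hG hx hG' hc hne hne'

/-- a cochain is exact on the cell `q` of the layer, for the sheet `i` -/
def Ex (hp : m.Par) (i : I) (κ : S.Face → S.Pnt → ZMod 2) (q : S.Cell) : Prop :=
  ∃ ψ : S.Pnt → ZMod 2, ∀ F x, q ∈ S.side F → x ∈ m.P' → x ∈ S.On F → m.lab' x = i →
    κ F x = ψ x + ψ (m.mu' hp F x)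

/-- **local form of `h1`**: the two halves. -/
theorem ext (hp : m.Par) (hQP : m.QP hp) (hTC : m.TC) (i : I) (κ : S.Face → S.Pnt → ZMod 2)
    (hG : ∀ G : S.Fk, m.Ex hp i κ (Sum.inr G)) (hk : m.Ex hp i κ (Sum.inl k)) :
    (∃ ψ : W → ZMod 2, ∀ F w, k ∈ M.side F → s.At F w → s.lab w = i →
      κ (Sum.inl F) (S.top w) = ψ w + ψ (s.mu F w)) ∧
    ∀ Ψ0 : W → ZMod 2, (∀ F w, k ∈ M.side F → s.At F w → s.lab w = i →
      κ (Sum.inl F) (S.top w) = Ψ0 w + Ψ0 (s.mu F w)) →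
      ∃ Ψ : S.Pnt → ZMod 2, (∀ w, Ψ (S.top w) = Ψ0 w) ∧
        ∀ F x, S.Lay F → x ∈ m.P' → x ∈ S.On F → m.lab' x = i →
          κ F x = Ψ x + Ψ (m.mu' hp F x) := by
  choose ψG hψG using hG
  obtain ⟨ψk, hψk⟩ := hk
  -- the potential on the horizontal piece
  obtain ⟨ΨQ, hΨQ⟩ : ∃ ΨQ : S.Pnt → ZMod 2, m.i0 = i → ∀ F x, S.Lay F → x ∈ m.qe → x ∈ S.On F →
      κ F x = ΨQ x + ΨQ (m.mu' hp F x) := by
    by_cases hi : m.i0 = i
    · obtain ⟨Ψ, hΨ⟩ := hQP κ
        (fun G => ⟨ψG G, fun F x h1 h2 h3 =>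
          hψG G F x h1 (m.qe_sub_P' h2) h3 ((m.lab_qe h2).trans hi)⟩)
        ⟨ψk, fun F x h1 h2 h3 =>
          hψk F x h1 (m.qe_sub_P' h2) h3 ((m.lab_qe h2).trans hi)⟩
      exact ⟨Ψ, fun _ => hΨ⟩
    · exact ⟨0, fun h => (hi h).elim⟩
  obtain ⟨kv, hkv⟩ : ∃ kv : W → ZMod 2, ∀ e w, w ∈ S.OnE e →
      κ (Sum.inr (Sum.inr e)) (S.top w) = kv w := by
    refine ⟨fun w => if h : ∃ e, w ∈ S.OnE e then κ (Sum.inr (Sum.inr h.choose)) (S.top w) else 0,
      ?_⟩
    intro e w hw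
    have h : ∃ e, w ∈ S.OnE e := ⟨e, hw⟩
    show _ = if h : ∃ e, w ∈ S.OnE e then κ (Sum.inr (Sum.inr h.choose)) (S.top w) else 0
    rw [dif_pos h]
    congr 3
    exact S.onE_disj hw h.choose_spec
  have hvG : ∀ (e : Ed) (w : W) (G : S.Fk), w ∈ S.OnE e → w ∈ s.P → w ∈ m.B → s.lab w = i →
      w ∈ M.On G.1 → kv w = ψG G (S.top w) + ψG G (S.bot w) := by
    intro e w G h1 h2 h3 h4 h5
    obtain ⟨b, hb⟩ := S.fc_of_on h1 G.2 h5
    have h6 := hψG G (Sum.inr (Sum.inr e)) (S.top w)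
      (S.mem_side_vert.2 ⟨b, by congr 1; exact Subtype.ext hb.symm⟩) (m.top_mem_P'.2 h2)
      (S.top_mem_vert.2 h1) h4
    rw [hkv e w h1, m.mu'_vert_nqe hp (m.top_not_qe h3)] at h6
    exact h6
  have hvb : ∀ (e : Ed) (w : W), w ∈ S.OnE e → w ∈ s.P → w ∈ m.B → s.lab w = i →
      κ (Sum.inr (Sum.inr e)) (S.bot w) = kv w := by
    intro e w h1 h2 h3 h4
    have h5 := hvG e w ⟨S.fc e false, S.fc_side e false⟩ h1 h2 h3 h4 (S.on_of_onE h1 false)
    have h6 := hψG ⟨S.fc e false, S.fc_side e false⟩ (Sum.inr (Sum.inr e)) (S.bot w)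
      (S.mem_side_vert.2 ⟨false, rfl⟩) (m.bot_mem_P'.2 h3) (S.bot_mem_vert.2 h1)
      ((m.same_lab h2 h3).trans h4)
    rw [m.mu'_vert_nqe hp (m.bot_not_qe h2)] at h6
    rw [h5, h6, add_comm]
    rfl
  have hbot : ∀ (G : S.Fk) (w : W), w ∈ M.On G.1 → w ∈ s.P → w ∈ m.B → s.lab w = i →
      κ (Sum.inl G.1) (S.top w) = κ (Sum.inr (Sum.inl G)) (S.bot w) + kv w + kv (s.mu G.1 w) := by
    intro G w h1 h2 h3 h4
    obtain ⟨e, _, _, he⟩ := (S.onE G.2).1 h1
    have h5 := s.mu_mem h2 h1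
    have h6 := m.mu_B G.2 h1 h2 h3
    obtain ⟨e', _, _, he'⟩ := (S.onE G.2).1 h5.2
    have g1 := hψG G (Sum.inr (Sum.inl G)) (S.bot w) (S.mem_side_bot.2 (Or.inl rfl))
      (m.bot_mem_P'.2 h3) (S.bot_mem_On.2 h1) ((m.same_lab h2 h3).trans h4)
    have g1' : m.mu' hp (Sum.inr (Sum.inl G)) (S.bot w) = S.bot (s.mu G.1 w) := by
      rw [← m.same_mu G.2 h1 h2 h3]
      rfl
    rw [g1'] at g1
    have g2 := hψG G (Sum.inl G.1) (S.top w) (S.inr_mem_side.2 rfl)
      (m.top_mem_P'.2 h2) (S.top_mem_On.2 h1) h4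
    have g2' : m.mu' hp (Sum.inl G.1) (S.top w) = S.top (s.mu G.1 w) := rfl
    rw [g2'] at g2
    have g3 := hvG e w G he h2 h3 h4 h1
    have g4 := hvG e' (s.mu G.1 w) G he' h5.1 h6 ((s.mu_lab h2 h1).trans h4) h5.2
    rw [g1, g2, g3, g4]
    exact z1 _ _ _ _
  refine ⟨⟨fun w => if w ∈ m.B then ψk (S.bot w) + kv w else ΨQ (S.top w), ?_⟩, ?_⟩
  · intro F w hF hw hl
    obtain ⟨e, _, _, he⟩ := (S.onE hF).1 hw.2
    show κ (Sum.inl F) (S.top w) =
      (if w ∈ m.B then ψk (S.bot w) + kv w else ΨQ (S.top w)) +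
      (if s.mu F w ∈ m.B then ψk (S.bot (s.mu F w)) + kv (s.mu F w)
        else ΨQ (S.top (s.mu F w)))
    by_cases hB : w ∈ m.B
    · rw [if_pos hB, if_pos (m.mu_B hF hw.2 hw.1 hB), hbot ⟨F, hF⟩ w hw.2 hw.1 hB hl]
      have g1 := hψk (Sum.inr (Sum.inl ⟨F, hF⟩)) (S.bot w)
        (S.mem_side_bot.2 (Or.inr rfl)) (m.bot_mem_P'.2 hB) (S.bot_mem_On.2 hw.2)
        ((m.same_lab hw.1 hB).trans hl)
      have g1' : m.mu' hp (Sum.inr (Sum.inl ⟨F, hF⟩)) (S.bot w) = S.bot (s.mu F w) := by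
        rw [← m.same_mu hF hw.2 hw.1 hB]
        rfl
      rw [g1'] at g1
      rw [g1]
      exact z2 _ _ _ _
    · rw [if_neg hB, if_neg (m.mu_not_B hF hw.2 hw.1 hB)]
      exact hΨQ ((m.dif_top he hw.1 hB).symm.trans hl) (Sum.inl F) (S.top w) (S.lay_top hF)
        (m.top_mem_qe.2 ⟨hw.1, hB, e, he⟩) (S.top_mem_On.2 hw.2)
  intro Ψ0 hΨ0
  have hΨ0' : ∀ F w, k ∈ M.side F → w ∈ s.P → w ∈ M.On F → s.lab w = i →
      κ (Sum.inl F) (S.top w) = Ψ0 w + Ψ0 (s.mu F w) :=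
    fun F w h0 h1 h2 h3 => hΨ0 F w h0 ⟨h1, h2⟩ h3
  -- the constant
  obtain ⟨c, hc⟩ : ∃ c : ZMod 2, m.i0 = i → ∀ w, S.top w ∈ m.qe → ΨQ (S.top w) + c = Ψ0 w := by
    by_cases hex : m.i0 = i ∧ ∃ w, S.top w ∈ m.qe
    · obtain ⟨hi, w0, hw0⟩ := hex
      refine ⟨ΨQ (S.top w0) + Ψ0 w0, fun _ w hw => ?_⟩
      obtain ⟨a1, a2, a3⟩ := m.top_mem_qe.1 hw0
      obtain ⟨b1, b2, b3⟩ := m.top_mem_qe.1 hw
      refine hTC {w | ΨQ (S.top w) + (ΨQ (S.top w0) + Ψ0 w0) = Ψ0 w} ?_ w0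
        (z4 _ _) a1 a2 a3 w b1 b2 b3
      intro F w' h1 h2 h3 h4 h5
      have h5' : ΨQ (S.top w') + (ΨQ (S.top w0) + Ψ0 w0) = Ψ0 w' := h5
      show ΨQ (S.top (s.mu F w')) + (ΨQ (S.top w0) + Ψ0 w0) = Ψ0 (s.mu F w')
      obtain ⟨e, _, _, he⟩ := (S.onE h1).1 h2
      have hq : S.top w' ∈ m.qe := m.top_mem_qe.2 ⟨h3, h4, e, he⟩
      have h6 := hΨQ hi (Sum.inl F) (S.top w') (S.lay_top h1) hq (S.top_mem_On.2 h2)
      have h7 := hΨ0' F w' h1 h3 h2 ((m.dif_top he h3 h4).trans hi)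
      have h8 : m.mu' hp (Sum.inl F) (S.top w') = S.top (s.mu F w') := rfl
      rw [h8] at h6
      rw [h6] at h7
      exact z3 _ _ _ _ _ h5' h7
    · refine ⟨0, fun hi w hw => (hex ⟨hi, w, hw⟩).elim⟩
  -- the final potential
  let Ψ : S.Pnt → ZMod 2 := fun x => match x with
    | Sum.inl w => Ψ0 w
    | Sum.inr (Sum.inl w) => if w ∈ s.P then Ψ0 w + kv w else ΨQ (S.bot w) + c
    | Sum.inr (Sum.inr v) => ΨQ (S.vert v) + c
  have Ψtop : ∀ w, Ψ (S.top w) = Ψ0 w := fun _ => rfl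
  have Ψbot : ∀ w, Ψ (S.bot w) = if w ∈ s.P then Ψ0 w + kv w else ΨQ (S.bot w) + c :=
    fun _ => rfl
  have Ψq : ∀ x, x ∈ m.qe → m.i0 = i → Ψ x = ΨQ x + c := by
    intro x hx hi
    rcases x with w | w | v
    · exact (hc hi w hx).symm
    · have h1 := (m.bot_mem_qe.1 hx).2
      exact (Ψbot w).trans (if_neg h1)
    · rfl
  refine ⟨Ψ, Ψtop, ?_⟩
  intro F x hF hxP hxF hxl
  by_cases hq : x ∈ m.qe
  · have hi : m.i0 = i := (m.lab_qe hq).symm.trans hxl
    rw [Ψq x hq hi, Ψq _ (m.mu'_qe hp hF hq hxF) hi, hΨQ hi F x hF hq hxF]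
    exact z5 _ _ _
  · rcases F with F | G | e
    · rcases x with w | x
      · have hw := S.top_mem_On.1 hxF
        have hP := m.top_mem_P'.1 hxP
        exact hΨ0' F w (S.of_lay_top hF) hP hw hxl
      · obtain ⟨w, _, h⟩ := hxF
        cases h
    · rcases x with w | w | v
      · exact (S.top_not_mem_On hxF).elim
      · have hw := S.bot_mem_On.1 hxF
        have hB := m.bot_mem_P'.1 hxP
        have hP : w ∈ s.P := by
          by_contra hP
          exact hq (m.bot_mem_qe.2 ⟨hB, hP⟩)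
        have hl : s.lab w = i := (m.same_lab hP hB).symm.trans hxl
        have hmu : m.mu' hp (Sum.inr (Sum.inl G)) (S.bot w) = S.bot (s.mu G.1 w) := by
          rw [← m.same_mu G.2 hw hP hB]
          rfl
        show κ (Sum.inr (Sum.inl G)) (S.bot w) = Ψ (S.bot w) +
          Ψ (m.mu' hp (Sum.inr (Sum.inl G)) (S.bot w))
        rw [hmu, Ψbot, Ψbot, if_pos hP, if_pos (s.mu_mem hP hw).1]
        have h1 := hbot G w hw hP hB hl
        have h2 := hΨ0' G.1 w G.2 hP hw hl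
        rw [z6 _ _ _ _ _ h1 h2]
        exact z2 _ _ _ _
      · exact (S.vert_not_mem_On' hxF).elim
    · rw [m.mu'_vert_nqe hp hq]
      obtain ⟨w, hw, hP, hB, rfl | rfl⟩ := m.product hxP hxF hq
      · show κ (Sum.inr (Sum.inr e)) (S.top w) = Ψ (S.top w) + Ψ (S.bot w)
        rw [hkv e w hw, Ψtop, Ψbot, if_pos hP]
        exact (z4 _ _).symm
      · have hl : s.lab w = i := (m.same_lab hP hB).symm.trans hxl
        show κ (Sum.inr (Sum.inr e)) (S.bot w) = Ψ (S.bot w) + Ψ (S.top w)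
        rw [hvb e w hw hP hB hl, Ψtop, Ψbot, if_pos hP, add_comm]
        exact (z4 _ _).symm

/-- **local form of `conn`**: a set of points closed under partners in the layer which contains
all points of the sheet on the upper sphere contains all points of the sheet in the layer. -/
theorem conn_ext (hp : m.Par) (hQC : m.QC hp) (i : I) (X : Set S.Pnt)
    (hX : ∀ F x, S.Lay F → x ∈ X → x ∈ m.P' → x ∈ S.On F → m.lab' x = i → m.mu' hp F x ∈ X)
    (htop : ∀ e w, w ∈ S.OnE e → w ∈ s.P → s.lab w = i → S.top w ∈ X) :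
    ∀ F x, S.Lay F → x ∈ m.P' → x ∈ S.On F → m.lab' x = i → x ∈ X := by
  intro F x hF hxP hxF hxl
  by_cases hq : x ∈ m.qe
  · have hi : m.i0 = i := (m.lab_qe hq).symm.trans hxl
    refine hQC X (fun F x h4 h5 h6 h7 => hX F x h4 h7 (m.qe_sub_P' h5) h6
      ((m.lab_qe h5).trans hi)) (fun w hw => ?_) x hq
    obtain ⟨h1, h2, e, h3⟩ := m.top_mem_qe.1 hw
    exact htop e w h3 h1 ((m.lab_qe hw).trans hi)
  · rcases x with w | w | v
    · have hP := m.top_mem_P'.1 hxP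
      rcases F with F | G | e
      · obtain ⟨e, _, _, he⟩ := (S.onE (S.of_lay_top hF)).1 (S.top_mem_On.1 hxF)
        exact htop e w he hP hxl
      · exact (S.top_not_mem_On hxF).elim
      · exact htop e w (S.top_mem_vert.1 hxF) hP hxl
    · have hB := m.bot_mem_P'.1 hxP
      have hP : w ∈ s.P := by
        by_contra hP
        exact hq (m.bot_mem_qe.2 ⟨hB, hP⟩)
      obtain ⟨e, he⟩ := m.B_on hB
      have hl : s.lab w = i := (m.same_lab hP hB).symm.trans hxl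
      have h1 := hX (Sum.inr (Sum.inr e)) (S.top w) (S.lay_vert e) (htop e w he hP hl)
        (m.top_mem_P'.2 hP) (S.top_mem_vert.2 he) hl
      rwa [m.mu'_vert_nqe hp (m.top_not_qe hB)] at h1
    · exact (hq (m.vert_mem_qe.2 (m.vert_mem_P'.1 hxP))).elim

end Move

end Crest.Agent.R096.Door_501
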