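import Crest.Agent.R096.Door5_501
import Crest.Agent.R096.Seq2_213

/-!
# Row 96, DOORS (helper501), part 6: towers of moves and the collars of a mesh

* `Move.botS`    : lower pattern of a move on the sphere mesh, again a state on `S.sph`;
* `Move.triv`    : the product move;
* `Col M kk S n` : `n` layers over the shell `S` inside the mesh `M` (interface with geometry);
* `Cols`         : the mesh `M` is obtained from `M0` by inserting layers at every core.
-/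

set_option autoImplicit false

namespace Crest.Agent.R096.Door_501

open Crest.Agent.R096.St_147 Classical

variable {ι0 Φ0 ι Φ W : Type} {I : Type} {col : I → Bool}

section sphere

variable {M : MeshC ι Φ W} {k : ι} {Vx Ed : Type} {S : Shell M k Vx Ed}

/-- the lower pattern of a move over the sphere mesh -/
noncomputable def Move.botS {s : St S.sph col} (m : Move S.sphSh s) : St S.sph col where
  P := m.B
  lab := m.lab0
  mu := m.mu0
  mu_mem := fun hw hG => m.mem (Shell.mem_bool_side _) hw hG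
  mu_ne := fun hw hG => m.ne (Shell.mem_bool_side _) hw hG
  mu_mu := fun hw hG => m.inv (Shell.mem_bool_side _) hw hG
  mu_lab := fun hw hG => m.lab (Shell.mem_bool_side _) hw hG
  nc := fun hw hG hx hG' hc hne hne' => m.nc (Shell.mem_bool_side _) hw hG hx hG' hc hne hne'

/-- the product move (nothing happens) -/
noncomputable def Move.triv (s : St S.sph col) (i : I) (hs : ∀ w ∈ s.P, ∃ e, w ∈ S.OnE e) :
    Move S.sphSh s where
  i0 := i
  B := s.P
  lab0 := s.lab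
  mu0 := s.mu
  B_on := fun {w} hw => hs w hw
  mem := fun _ hw hG => s.mu_mem hw hG
  ne := fun _ hw hG => s.mu_ne hw hG
  inv := fun _ hw hG => s.mu_mu hw hG
  lab := fun _ hw hG => s.mu_lab hw hG
  nc := fun _ hw hG hx hG' hc hne hne' => s.nc hw hG hx hG' hc hne hne'
  same_lab := fun _ _ => rfl
  same_mu := fun _ _ _ _ => rfl
  dif_top := fun _ h h' => absurd h h'
  dif_bot := fun h h' => absurd h h'
  Qv := ∅

theorem Move.triv_qe (s : St S.sph col) (i : I) (hs : ∀ w ∈ s.P, ∃ e, w ∈ S.OnE e) :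
    (Move.triv s i hs).qe = ∅ := by
  rw [Finset.eq_empty_iff_forall_notMem]
  rintro (w | w | v) hx
  · exact ((Move.top_mem_qe _).1 hx).2.1 ((Move.top_mem_qe _).1 hx).1
  · exact ((Move.bot_mem_qe _).1 hx).2 ((Move.bot_mem_qe _).1 hx).1
  · have := (Move.vert_mem_qe _).1 hx
    exact absurd this (Finset.notMem_empty _)

theorem Move.triv_par (s : St S.sph col) (i : I) (hs : ∀ w ∈ s.P, ∃ e, w ∈ S.OnE e) :
    (Move.triv s i hs).Par := by
  have h : ∀ e, (Move.triv s i hs).qon e = ∅ := by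
    intro e
    rw [Finset.eq_empty_iff_forall_notMem]
    intro x hx
    have := ((Move.triv s i hs).mem_qon.1 hx).1
    rw [Move.triv_qe] at this
    exact absurd this (Finset.notMem_empty _)
  constructor
  · intro e
    rw [h]; simp
  · intro e w _ _ _ _
    rw [h]; simp

theorem Move.triv_QP (s : St S.sph col) (i : I) (hs : ∀ w ∈ s.P, ∃ e, w ∈ S.OnE e)
    (hp : (Move.triv s i hs).Par) : (Move.triv s i hs).QP hp := by
  intro κ _ _
  refine ⟨0, fun F x _ hx _ => ?_⟩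
  rw [Move.triv_qe] at hx
  exact absurd hx (Finset.notMem_empty _)

theorem Move.triv_TC (s : St S.sph col) (i : I) (hs : ∀ w ∈ s.P, ∃ e, w ∈ S.OnE e) :
    (Move.triv s i hs).TC := by
  intro X _ w _ h h'
  exact absurd h h'

theorem Move.triv_QC (s : St S.sph col) (i : I) (hs : ∀ w ∈ s.P, ∃ e, w ∈ S.OnE e)
    (hp : (Move.triv s i hs).Par) : (Move.triv s i hs).QC hp := by
  intro X _ _ x hx
  rw [Move.triv_qe] at hx
  exact absurd hx (Finset.notMem_empty _)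

theorem Move.triv_botS (s : St S.sph col) (i : I) (hs : ∀ w ∈ s.P, ∃ e, w ∈ S.OnE e) :
    (Move.triv s i hs).botS = s := rfl

end sphere

/-- `n` layers over the shell `S` inside the mesh `M`; `kk` = the remaining core cell. -/
structure Col (M : MeshC ι Φ W) (kk : ι) {M0 : MeshC ι0 Φ0 W} {k0 : ι0} {Vx Ed : Type}
    (S : Shell M0 k0 Vx Ed) (n : ℕ) where
  /-- cell over the face `G` in the layer `j < n` -/
  cl : S.Fk → ℕ → ι
  /-- copy of the face `G` on the level `j ≤ n` -/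
  hf : S.Fk → ℕ → Φ
  /-- vertical face over the edge `e` in the layer `j < n` -/
  vf : Ed → ℕ → Φ
  /-- copy of the point `w` on the level `j ≤ n` -/
  hp : ℕ → W → W
  /-- point on the vertical edge over `v` in the layer `j < n` -/
  vp : ℕ → Vx → W
  npos : 0 < n
  cl_inj : ∀ {G G' j j'}, j < n → j' < n → cl G j = cl G' j' → G = G' ∧ j = j'
  cl_ne : ∀ {G j}, j < n → cl G j ≠ kk
  hf_inj : ∀ {G G' j j'}, j ≤ n → j' ≤ n → hf G j = hf G' j' → G = G' ∧ j = j'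
  vf_inj : ∀ {e e' j j'}, j < n → j' < n → vf e j = vf e' j' → e = e' ∧ j = j'
  hf_ne_vf : ∀ {G e j j'}, j ≤ n → j' < n → hf G j ≠ vf e j'
  hp_zero : ∀ w, hp 0 w = w
  hp_inj : ∀ {w w' e e' j j'}, j ≤ n → j' ≤ n → w ∈ S.OnE e → w' ∈ S.OnE e' →
    hp j w = hp j' w' → j = j' ∧ w = w'
  vp_inj : ∀ {v v' j j'}, j < n → j' < n → vp j v = vp j' v' → j = j' ∧ v = v'
  hp_ne_vp : ∀ {w e v j j'}, j ≤ n → j' < n → w ∈ S.OnE e → hp j w ≠ vp j' v
  side_top : ∀ G, cl G 0 ∈ M.side (hf G 0)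
  side_mid : ∀ G {j}, j + 1 < n → M.side (hf G (j + 1)) = s(cl G j, cl G (j + 1))
  side_bot : ∀ G {j}, j + 1 = n → M.side (hf G n) = s(cl G j, kk)
  side_vf : ∀ e {j}, j < n → M.side (vf e j) =
    s(cl ⟨S.fc e false, S.fc_side e false⟩ j, cl ⟨S.fc e true, S.fc_side e true⟩ j)
  faces_cl : ∀ {G j F}, j < n → cl G j ∈ M.side F → F = hf G j ∨ F = hf G (j + 1) ∨
    ∃ e, (∃ b, S.fc e b = G.1) ∧ F = vf e j
  faces_kk : ∀ {F}, kk ∈ M.side F → ∃ G, F = hf G n
  on_hf : ∀ {G j x}, j ≤ n → (x ∈ M.On (hf G j) ↔ ∃ w ∈ M0.On G.1, x = hp j w)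
  on_vf_hp : ∀ {w e e' j i}, j ≤ n → i < n → w ∈ S.OnE e →
    (hp j w ∈ M.On (vf e' i) ↔ e' = e ∧ (j = i ∨ j = i + 1))
  on_vf_vp : ∀ {v e j i}, j < n → i < n → (vp j v ∈ M.On (vf e i) ↔ j = i ∧ ∃ b, S.en e b = v)
  faces_hp : ∀ {w e j F}, 0 < j → j ≤ n → w ∈ S.OnE e → hp j w ∈ M.On F →
    (∃ G, F = hf G j) ∨ ∃ e i, i < n ∧ F = vf e i
  faces_vp : ∀ {v j F}, j < n → vp j v ∈ M.On F → ∃ e, F = vf e j
  lace_hf : ∀ {G j u v x y}, j ≤ n → u ∈ M0.On G.1 → v ∈ M0.On G.1 → x ∈ M0.On G.1 →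
    y ∈ M0.On G.1 → u ≠ v → x ≠ y → u ≠ x → u ≠ y → v ≠ x → v ≠ y →
    (M.Lace (hf G j) (hp j u) (hp j v) (hp j x) (hp j y) ↔ M0.Lace G.1 u v x y)
  /-- cyclic order on the vertical faces = the one of the rectangle; here
  `emb j (top w) = hp j w`, `emb j (bot w) = hp (j+1) w`, `emb j (vert v) = vp j v`. -/
  lace_vf : ∀ {e j} {a b c d : S.Pnt}, j < n → a ∈ S.On (Sum.inr (Sum.inr e)) →
    b ∈ S.On (Sum.inr (Sum.inr e)) → c ∈ S.On (Sum.inr (Sum.inr e)) →
    d ∈ S.On (Sum.inr (Sum.inr e)) → a ≠ b → c ≠ d → a ≠ c → a ≠ d → b ≠ c → b ≠ d →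
    (M.Lace (vf e j)
      (Sum.elim (hp j) (Sum.elim (hp (j + 1)) (vp j)) a)
      (Sum.elim (hp j) (Sum.elim (hp (j + 1)) (vp j)) b)
      (Sum.elim (hp j) (Sum.elim (hp (j + 1)) (vp j)) c)
      (Sum.elim (hp j) (Sum.elim (hp (j + 1)) (vp j)) d) ↔
      S.mesh.Lace (Sum.inr (Sum.inr e)) a b c d)

/-- `M` is obtained from `M0` by inserting `n c` layers at every core `k0 c`. -/
structure Cols (M : MeshC ι Φ W) (M0 : MeshC ι0 Φ0 W) {κ : Type} (k0 : κ → ι0) (kk : κ → ι)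
    {Vx Ed : κ → Type} (S : ∀ c, Shell M0 (k0 c) (Vx c) (Ed c)) (n : κ → ℕ) where
  old : Φ0 → Φ
  old_inj : Function.Injective old
  on_old : ∀ F, M.On (old F) = M0.On F
  lace_old : ∀ {F u v x y}, u ∈ M0.On F → v ∈ M0.On F → x ∈ M0.On F → y ∈ M0.On F →
    u ≠ v → x ≠ y → u ≠ x → u ≠ y → v ≠ x → v ≠ y →
    (M.Lace (old F) u v x y ↔ M0.Lace F u v x y)
  cl : ∀ c, Col M (kk c) (S c) (n c)
  hf_zero : ∀ c (G : (S c).Fk), (cl c).hf G 0 = old G.1
  /-- every face is old, horizontal or vertical -/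
  cases : ∀ F, (∃ F0, F = old F0) ∨ (∃ c, ∃ G : (S c).Fk, ∃ j, 0 < j ∧ j ≤ n c ∧ F = (cl c).hf G j) ∨
    ∃ c, ∃ e : Ed c, ∃ j, j < n c ∧ F = (cl c).vf e j
  hf_not_old : ∀ {c} {G : (S c).Fk} {j F0}, 0 < j → j ≤ n c → (cl c).hf G j ≠ old F0
  vf_not_old : ∀ {c} {e : Ed c} {j F0}, j < n c → (cl c).vf e j ≠ old F0
  /-- different cores have different faces -/
  hf_core : ∀ {c c'} {G : (S c).Fk} {G' : (S c').Fk} {j j'}, j ≤ n c → j' ≤ n c' →
    (cl c).hf G j = (cl c').hf G' j' → c = c'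
  vf_core : ∀ {c c'} {e : Ed c} {e' : Ed c'} {j j'}, j < n c → j' < n c' →
    (cl c).vf e j = (cl c').vf e' j' → c = c'
  hf_ne_vf : ∀ {c c'} {G : (S c).Fk} {e : Ed c'} {j j'}, j ≤ n c → j' < n c' →
    (cl c).hf G j ≠ (cl c').vf e j'
  /-- the new points are new -/
  hp_new : ∀ {c w e j F0}, 0 < j → j ≤ n c → w ∈ (S c).OnE e → (cl c).hp j w ∉ M0.On F0
  vp_new : ∀ {c v j F0}, j < n c → (cl c).vp j v ∉ M0.On F0
  hp_core : ∀ {c c' w w' e e' j j'}, j ≤ n c → j' ≤ n c' → w ∈ (S c).OnE e → w' ∈ (S c').OnE e' →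
    (cl c).hp j w = (cl c').hp j' w' → c = c'
  vp_core : ∀ {c c' v v' j j'}, j < n c → j' < n c' → (cl c).vp j v = (cl c').vp j' v' → c = c'
  hp_ne_vp : ∀ {c c' w e v j j'}, j ≤ n c → j' < n c' → w ∈ (S c).OnE e →
    (cl c).hp j w ≠ (cl c').vp j' v
  /-- an old face which contains a point of the upper sphere of `c`: the point is on no vertical
  face of another core -/
  on_vf_core : ∀ {c c' w e e' j}, c ≠ c' → w ∈ (S c).OnE e → j < n c' → w ∉ M.On ((cl c').vf e' j)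
  /-- the other points of the old faces are on no vertical face -/
  old_vf : ∀ {c F0 w e j}, w ∈ M0.On F0 → w ∈ M.On ((cl c).vf e j) → j < n c → ∃ e', w ∈ (S c).OnE e'
  /-- the cells of `M0` which are not cores are cells of `M` -/
  cells : ∀ q0, (∃ c, q0 = k0 c) ∨ ∃ q, ∀ F0, q0 ∈ M0.side F0 → q ∈ M.side (old F0)

end Crest.Agent.R096.Door_501
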