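import Crest.Agent.R096.Seq2_213

/-!
# Row 96, DOORS (helper501), part 7: a global state from relations

`GSt.ofRel` : a `GSt` from a relation `R F w w'` (partners) and a relation `Lb w j` (names).
-/

set_option autoImplicit false

namespace Crest.Agent.R096.Door_501

open Crest.Agent.R096.St_147 Crest.Agent.R096.Seq_213 Classical

variable {ι Φ W J C : Type}

/-- data of a state, given by relations -/
structure RelSt (M : MeshC ι Φ W) (fam : J → C) where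
  Lb : W → J → Prop
  R : Φ → W → W → Prop
  l_un : ∀ {w i j}, Lb w i → Lb w j → i = j
  r_ex : ∀ {F w i}, Lb w i → w ∈ M.On F → ∃ w', R F w w'
  r_un : ∀ {F w x y}, R F w x → R F w y → x = y
  r_lb : ∀ {F w x}, R F w x → ∃ i, Lb w i ∧ Lb x i
  r_on : ∀ {F w x}, R F w x → w ∈ M.On F
  r_ne : ∀ {F w x}, R F w x → x ≠ w
  r_symm : ∀ {F w x}, R F w x → R F x w
  r_nc : ∀ {F w x y z i j}, R F w x → R F y z → Lb w i → Lb y j → fam i = fam j → y ≠ w → y ≠ x →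
    ¬ M.Lace F w x y z
  fin : ∀ c, {w | ∃ i, Lb w i ∧ fam i = c}.Finite

namespace RelSt

variable {M : MeshC ι Φ W} {fam : J → C} (r : RelSt M fam)

/-- the state -/
noncomputable def st (l0 : W → J) : GSt M fam where
  P := {w | ∃ i, r.Lb w i}
  lab := fun w => if h : ∃ i, r.Lb w i then h.choose else l0 w
  mu := fun F w => if h : ∃ x, r.R F w x then h.choose else w
  mu_mem := by
    rintro F w ⟨i, hi⟩ hF
    obtain ⟨x, hx⟩ := r.r_ex hi hF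
    have h : ∃ x, r.R F w x := ⟨x, hx⟩
    simp only [dif_pos h]
    have h1 := h.choose_spec
    obtain ⟨j, _, hj⟩ := r.r_lb h1
    exact ⟨⟨j, hj⟩, r.r_on (r.r_symm h1)⟩
  mu_ne := by
    rintro F w ⟨i, hi⟩ hF
    obtain ⟨x, hx⟩ := r.r_ex hi hF
    have h : ∃ x, r.R F w x := ⟨x, hx⟩
    simp only [dif_pos h]
    exact r.r_ne h.choose_spec
  mu_mu := by
    rintro F w ⟨i, hi⟩ hF
    obtain ⟨x, hx⟩ := r.r_ex hi hF
    have h : ∃ x, r.R F w x := ⟨x, hx⟩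
    simp only [dif_pos h]
    have h1 := r.r_symm h.choose_spec
    have h2 : ∃ x, r.R F h.choose x := ⟨w, h1⟩
    rw [dif_pos h2]
    exact r.r_un h2.choose_spec h1
  mu_lab := by
    rintro F w ⟨i, hi⟩ hF
    obtain ⟨x, hx⟩ := r.r_ex hi hF
    have h : ∃ x, r.R F w x := ⟨x, hx⟩
    simp only [dif_pos h]
    obtain ⟨j, hj, hj'⟩ := r.r_lb h.choose_spec
    have h1 : ∃ i, r.Lb w i := ⟨j, hj⟩
    have h2 : ∃ i, r.Lb h.choose i := ⟨j, hj'⟩
    rw [dif_pos h1, dif_pos h2, r.l_un h1.choose_spec hj, r.l_un h2.choose_spec hj']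
  nc := by
    rintro F w y ⟨i, hi⟩ hF ⟨j, hj⟩ hF' hc hne hne'
    obtain ⟨x, hx⟩ := r.r_ex hi hF
    obtain ⟨z, hz⟩ := r.r_ex hj hF'
    have h : ∃ x, r.R F w x := ⟨x, hx⟩
    have h' : ∃ x, r.R F y x := ⟨z, hz⟩
    simp only [dif_pos h, dif_pos h'] at hne' ⊢
    have h1 : ∃ i, r.Lb w i := ⟨i, hi⟩
    have h2 : ∃ i, r.Lb y i := ⟨j, hj⟩
    simp only [dif_pos h1, dif_pos h2] at hc
    rw [r.l_un h1.choose_spec hi, r.l_un h2.choose_spec hj] at hc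
    exact r.r_nc h.choose_spec h'.choose_spec hi hj hc hne hne'
  fin := by
    intro c
    refine (r.fin c).subset ?_
    rintro w ⟨⟨i, hi⟩, h⟩
    have h1 : ∃ i, r.Lb w i := ⟨i, hi⟩
    simp only [dif_pos h1] at h
    rw [r.l_un h1.choose_spec hi] at h
    exact ⟨i, hi, h⟩

theorem lab_eq {l0 : W → J} {w : W} {i : J} (h : r.Lb w i) : (r.st l0).lab w = i := by
  have h1 : ∃ i, r.Lb w i := ⟨i, h⟩
  show (if h : ∃ i, r.Lb w i then h.choose else l0 w) = i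
  rw [dif_pos h1]
  exact r.l_un h1.choose_spec h

theorem mu_eq {l0 : W → J} {F : Φ} {w x : W} (h : r.R F w x) : (r.st l0).mu F w = x := by
  have h1 : ∃ x, r.R F w x := ⟨x, h⟩
  show (if h : ∃ x, r.R F w x then h.choose else w) = x
  rw [dif_pos h1]
  exact r.r_un h1.choose_spec h

theorem mem_P {l0 : W → J} {w : W} : w ∈ (r.st l0).P ↔ ∃ i, r.Lb w i := Iff.rfl

theorem lb_of_lab {l0 : W → J} {w : W} {i : J} (h : w ∈ (r.st l0).P)
    (hl : (r.st l0).lab w = i) : r.Lb w i := by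
  obtain ⟨j, hj⟩ := h
  rw [r.lab_eq hj] at hl
  rw [← hl]; exact hj

theorem h1 {l0 : W → J} {i : J}
    (h : ∀ κ : Φ → W → ZMod 2,
      (∀ q : ι, ∃ ψ : W → ZMod 2, ∀ F w x, q ∈ M.side F → r.R F w x → r.Lb w i →
        κ F w = ψ w + ψ x) →
      ∃ Ψ : W → ZMod 2, ∀ F w x, r.R F w x → r.Lb w i → κ F w = Ψ w + Ψ x) :
    (r.st l0).H1 i := by
  intro κ hκ
  obtain ⟨Ψ, hΨ⟩ := h κ (fun q => by
    obtain ⟨ψ, hψ⟩ := hκ q
    refine ⟨ψ, fun F w x hq hR hL => ?_⟩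
    have := hψ F w hq ⟨⟨i, hL⟩, r.r_on hR⟩ (r.lab_eq hL)
    rwa [r.mu_eq hR] at this)
  refine ⟨Ψ, fun F w hw hl => ?_⟩
  have hL := r.lb_of_lab hw.1 hl
  obtain ⟨x, hx⟩ := r.r_ex hL hw.2
  rw [r.mu_eq hx]
  exact hΨ F w x hx hL

theorem conn {l0 : W → J} {i : J} (hne : ∃ w, r.Lb w i)
    (h : ∀ X : Set W, (∀ F w x, w ∈ X → r.R F w x → r.Lb w i → x ∈ X) →
      ∀ w ∈ X, r.Lb w i → ∀ w', r.Lb w' i → w' ∈ X) :
    (r.st l0).Conn i := by
  obtain ⟨w0, hw0⟩ := hne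
  refine ⟨⟨w0, ⟨i, hw0⟩, r.lab_eq hw0⟩, ?_⟩
  intro X hX w hw hwP hwl w' hwP' hwl'
  refine h X (fun F w x hwX hR hL => ?_) w hw (r.lb_of_lab hwP hwl) w' (r.lb_of_lab hwP' hwl')
  have := hX F w hwX ⟨⟨i, hL⟩, r.r_on hR⟩ (r.lab_eq hL)
  rwa [r.mu_eq hR] at this

end RelSt

end Crest.Agent.R096.Door_501
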