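import Crest.Agent.R096.Door6_501
import Crest.Agent.R096.Door7_501

/-!
# Row 96, DOORS (helper501), part 8: the state on the mesh with layers

`Twr`  : a tower of moves on the sphere mesh (one family);
`Twrs` : towers for all cores and all families, starting with the trace of the outer state;
`Twrs.rel : RelSt M fam` : the state on the mesh with layers.
-/

set_option autoImplicit false

namespace Crest.Agent.R096.Door_501

open Crest.Agent.R096.St_147 Crest.Agent.R096.Seq_213 Classical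

/-- a tower of moves on the sphere mesh -/
structure Twr {ι Φ W : Type} {M : MeshC ι Φ W} {k : ι} {Vx Ed : Type} (S : Shell M k Vx Ed)
    (J : Type) where
  pat : ℕ → St S.sph (fun _ : J => true)
  mv : ∀ j, Move S.sphSh (pat j)
  par : ∀ j, (mv j).Par
  qp : ∀ j, (mv j).QP (par j)
  tc : ∀ j, (mv j).TC
  qc : ∀ j, (mv j).QC (par j)
  next : ∀ j, pat (j + 1) = (mv j).botS

variable {ι Φ ι0 Φ0 W J C : Type} {M : MeshC ι Φ W} {M0 : MeshC ι0 Φ0 W} {κ : Type} {k0 : κ → ι0}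
  {kk : κ → ι} {Vx Ed : κ → Type} {S : ∀ c, Shell M0 (k0 c) (Vx c) (Ed c)} {n : κ → ℕ}
  {fam : J → C}

/-- towers for all cores and all families -/
structure Twrs (S : ∀ c, Shell M0 (k0 c) (Vx c) (Ed c)) (n : κ → ℕ) (s : GSt M0 fam) where
  tw : ∀ c (_ : C), Twr (S c) J
  P0 : ∀ c a w, w ∈ ((tw c a).pat 0).P ↔ w ∈ s.P ∧ fam (s.lab w) = a ∧ ∃ e, w ∈ (S c).OnE e
  lab0 : ∀ {c a w}, w ∈ ((tw c a).pat 0).P → ((tw c a).pat 0).lab w = s.lab w
  mu0 : ∀ {c a} {G : (S c).Fk} {w}, w ∈ ((tw c a).pat 0).P → w ∈ M0.On G.1 →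
    ((tw c a).pat 0).mu G w = s.mu G.1 w
  labj : ∀ {c a j w}, w ∈ ((tw c a).pat j).P → fam (((tw c a).pat j).lab w) = a
  dis : ∀ {c a b j w}, w ∈ ((tw c a).pat j).P → w ∈ ((tw c b).pat j).P → a = b
  labv : ∀ {c a j v}, v ∈ ((tw c a).mv j).Qv → fam ((tw c a).mv j).i0 = a
  disv : ∀ {c a b j v}, v ∈ ((tw c a).mv j).Qv → v ∈ ((tw c b).mv j).Qv → a = b
  fin : ∀ a, {c | ∃ j, j ≤ n c ∧ ((∃ w, w ∈ ((tw c a).pat j).P) ∨
    ∃ v, v ∈ ((tw c a).mv j).Qv)}.Finite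
  on : ∀ w ∈ s.P, ∃ F0, w ∈ M0.On F0

namespace Twrs

theorem sph_pos {ι Φ W : Type} {M : MeshC ι Φ W} {k : ι} {Vx Ed : Type} (S : Shell M k Vx Ed)
    (e : Ed) : S.sphSh.pos (Sum.inr (Sum.inr e)) = S.pos (Sum.inr (Sum.inr e)) := by
  funext x
  rcases x with w | w | v <;> rfl

variable {s : GSt M0 fam} (Z : Cols M M0 k0 kk S n) (T : Twrs S n s)

/-- the embedding of the points of the layer `j` -/
def emb (c : κ) (j : ℕ) : (S c).Pnt → W :=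
  Sum.elim ((Z.cl c).hp j) (Sum.elim ((Z.cl c).hp (j + 1)) ((Z.cl c).vp j))

/-- names -/
def Lb (x : W) (i : J) : Prop :=
  (x ∈ s.P ∧ s.lab x = i) ∨
  (∃ c a j w, 0 < j ∧ j ≤ n c ∧ w ∈ ((T.tw c a).pat j).P ∧ x = (Z.cl c).hp j w ∧
    i = ((T.tw c a).pat j).lab w) ∨
  ∃ c a j v, j < n c ∧ v ∈ ((T.tw c a).mv j).Qv ∧ x = (Z.cl c).vp j v ∧ i = ((T.tw c a).mv j).i0

/-- partners -/
def R (F : Φ) (x y : W) : Prop :=
  (∃ F0, F = Z.old F0 ∧ x ∈ s.P ∧ x ∈ M0.On F0 ∧ y = s.mu F0 x) ∨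
  (∃ c a j, ∃ G : (S c).Fk, ∃ w, 0 < j ∧ j ≤ n c ∧ F = (Z.cl c).hf G j ∧
    w ∈ ((T.tw c a).pat j).P ∧ w ∈ M0.On G.1 ∧ x = (Z.cl c).hp j w ∧
    y = (Z.cl c).hp j (((T.tw c a).pat j).mu G w)) ∨
  ∃ c a j, ∃ e : Ed c, ∃ x0 : (S c).Pnt, j < n c ∧ F = (Z.cl c).vf e j ∧
    x0 ∈ ((T.tw c a).mv j).P' ∧ x0 ∈ (S c).On (Sum.inr (Sum.inr e)) ∧ x = emb Z c j x0 ∧
    y = emb Z c j (((T.tw c a).mv j).mu' ((T.tw c a).par j) (Sum.inr (Sum.inr e)) x0)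

variable {Z T}

include T in
/-- the points of the patterns are on edges -/
theorem onE {c : κ} {a : C} {j : ℕ} {w : W} (h : w ∈ ((T.tw c a).pat j).P) :
    ∃ e, w ∈ (S c).OnE e := by
  cases j with
  | zero => exact ((T.P0 c a w).1 h).2.2
  | succ j =>
    rw [(T.tw c a).next j] at h
    exact ((T.tw c a).mv j).B_on h

theorem mem_B {c : κ} {a : C} {j : ℕ} {w : W} :
    w ∈ ((T.tw c a).mv j).B ↔ w ∈ ((T.tw c a).pat (j + 1)).P := by
  rw [(T.tw c a).next j]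
  exact Iff.rfl

theorem lab0_eq {c : κ} {a : C} {j : ℕ} (w : W) :
    ((T.tw c a).mv j).lab0 w = ((T.tw c a).pat (j + 1)).lab w := by
  rw [(T.tw c a).next j]
  rfl

theorem mu0_eq {c : κ} {a : C} {j : ℕ} (G : (S c).Fk) (w : W) :
    ((T.tw c a).mv j).mu0 G w = ((T.tw c a).pat (j + 1)).mu G w := by
  rw [(T.tw c a).next j]
  rfl

/-- points of the sphere `c` are not new -/
theorem hp_zero_of_old {c : κ} {j : ℕ} {w x : W} {e : Ed c} (hj : j ≤ n c) (hw : w ∈ (S c).OnE e)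
    (hx : (Z.cl c).hp j w = x) (hxs : ∃ F0, x ∈ M0.On F0) : j = 0 := by
  by_contra h
  obtain ⟨F0, hF0⟩ := hxs
  rw [← hx] at hF0
  exact Z.hp_new (Nat.pos_of_ne_zero h) hj hw hF0

theorem emb_inj (c : κ) {j : ℕ} (hj : j < n c) {e : Ed c} {x y : (S c).Pnt}
    (hx : x ∈ (S c).On (Sum.inr (Sum.inr e))) (hy : y ∈ (S c).On (Sum.inr (Sum.inr e)))
    (h : emb Z c j x = emb Z c j y) : x = y := by
  rcases x with w | w | v <;> rcases y with w' | w' | v'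
  · have h1 := (S c).top_mem_vert.1 hx
    have h2 := (S c).top_mem_vert.1 hy
    have := ((Z.cl c).hp_inj hj.le hj.le h1 h2 h).2
    rw [this]
  · have h1 := (S c).top_mem_vert.1 hx
    have h2 := (S c).bot_mem_vert.1 hy
    have := ((Z.cl c).hp_inj hj.le hj h1 h2 h).1
    omega
  · have h1 := (S c).top_mem_vert.1 hx
    exact ((Z.cl c).hp_ne_vp hj.le hj h1 h).elim
  · have h1 := (S c).bot_mem_vert.1 hx
    have h2 := (S c).top_mem_vert.1 hy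
    have := ((Z.cl c).hp_inj hj hj.le h1 h2 h).1
    omega
  · have h1 := (S c).bot_mem_vert.1 hx
    have h2 := (S c).bot_mem_vert.1 hy
    have := ((Z.cl c).hp_inj hj hj h1 h2 h).2
    rw [this]
  · have h1 := (S c).bot_mem_vert.1 hx
    exact ((Z.cl c).hp_ne_vp hj hj h1 h).elim
  · have h1 := (S c).top_mem_vert.1 hy
    exact ((Z.cl c).hp_ne_vp hj.le hj h1 h.symm).elim
  · have h1 := (S c).bot_mem_vert.1 hy
    exact ((Z.cl c).hp_ne_vp hj hj h1 h.symm).elim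
  · have := ((Z.cl c).vp_inj hj hj h).2
    rw [this]

/-- a point of a vertical face is on the face -/
theorem emb_on {c : κ} {j : ℕ} (hj : j < n c) {e : Ed c} {x : (S c).Pnt}
    (hx : x ∈ (S c).On (Sum.inr (Sum.inr e))) : emb Z c j x ∈ M.On ((Z.cl c).vf e j) := by
  rcases x with w | w | v
  · exact ((Z.cl c).on_vf_hp hj.le hj ((S c).top_mem_vert.1 hx)).2 ⟨rfl, Or.inl rfl⟩
  · exact ((Z.cl c).on_vf_hp hj hj ((S c).bot_mem_vert.1 hx)).2 ⟨rfl, Or.inr rfl⟩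
  · exact ((Z.cl c).on_vf_vp hj hj).2 ⟨rfl, (S c).vert_mem_vert.1 hx⟩

/-- name of a point of the layer -/
theorem lb_emb {c : κ} {a : C} {j : ℕ} (hj : j < n c) {x : (S c).Pnt}
    (hx : x ∈ ((T.tw c a).mv j).P') : Lb Z T (emb Z c j x) (((T.tw c a).mv j).lab' x) := by
  rcases x with w | w | v
  · have h1 : w ∈ ((T.tw c a).pat j).P := ((T.tw c a).mv j).top_mem_P'.1 hx
    by_cases h0 : j = 0
    · subst h0
      left
      have h2 := (T.P0 c a w).1 h1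
      have h3 : emb Z c 0 (Sum.inl w) = w := (Z.cl c).hp_zero w
      rw [h3]
      exact ⟨h2.1, (T.lab0 h1).symm⟩
    · right; left
      exact ⟨c, a, j, w, Nat.pos_of_ne_zero h0, hj.le, h1, rfl, rfl⟩
  · have h1 : w ∈ ((T.tw c a).mv j).B := ((T.tw c a).mv j).bot_mem_P'.1 hx
    right; left
    exact ⟨c, a, j + 1, w, Nat.succ_pos j, hj, mem_B.1 h1, rfl, lab0_eq w⟩
  · have h1 : v ∈ ((T.tw c a).mv j).Qv := ((T.tw c a).mv j).vert_mem_P'.1 hx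
    right; right
    exact ⟨c, a, j, v, hj, h1, rfl, rfl⟩

/-- a name has the family of its tower -/
theorem fam_lab' {c : κ} {a : C} {j : ℕ} {x : (S c).Pnt}
    (hx : x ∈ ((T.tw c a).mv j).P') : fam (((T.tw c a).mv j).lab' x) = a := by
  rcases x with w | w | v
  · exact T.labj (((T.tw c a).mv j).top_mem_P'.1 hx)
  · have h1 : w ∈ ((T.tw c a).mv j).B := ((T.tw c a).mv j).bot_mem_P'.1 hx
    show fam (((T.tw c a).mv j).lab0 w) = a
    rw [lab0_eq]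
    exact T.labj (mem_B.1 h1)
  · exact T.labv (((T.tw c a).mv j).vert_mem_P'.1 hx)

/-- the towers of different families have different points in a layer -/
theorem dis_P' {c : κ} {a b : C} {j : ℕ} {x : (S c).Pnt}
    (hx : x ∈ ((T.tw c a).mv j).P') (hy : x ∈ ((T.tw c b).mv j).P') : a = b := by
  rcases x with w | w | v
  · exact T.dis (((T.tw c a).mv j).top_mem_P'.1 hx) (((T.tw c b).mv j).top_mem_P'.1 hy)
  · exact T.dis (mem_B.1 (((T.tw c a).mv j).bot_mem_P'.1 hx))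
      (mem_B.1 (((T.tw c b).mv j).bot_mem_P'.1 hy))
  · exact T.disv (((T.tw c a).mv j).vert_mem_P'.1 hx) (((T.tw c b).mv j).vert_mem_P'.1 hy)

theorem l_un {w : W} {i j : J} (h : Lb Z T w i) (h' : Lb Z T w j) : i = j := by
  rcases h with ⟨h1, h2⟩ | ⟨c, a, l, u, h1, h2, h3, h4, h5⟩ | ⟨c, a, l, v, h1, h2, h3, h4⟩
  · obtain ⟨F0, hF0⟩ := T.on w h1
    rcases h' with ⟨g1, g2⟩ | ⟨c', a', l', u', g1, g2, g3, g4, g5⟩ | ⟨c', a', l', v', g1, g2, g3, g4⟩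
    · exact h2.symm.trans g2
    · obtain ⟨e, he⟩ := onE g3
      rw [g4] at hF0
      exact (Z.hp_new g1 g2 he hF0).elim
    · rw [g3] at hF0
      exact (Z.vp_new g1 hF0).elim
  · obtain ⟨e, he⟩ := onE h3
    rcases h' with ⟨g1, g2⟩ | ⟨c', a', l', u', g1, g2, g3, g4, g5⟩ | ⟨c', a', l', v', g1, g2, g3, g4⟩
    · obtain ⟨F0, hF0⟩ := T.on w g1
      rw [h4] at hF0
      exact (Z.hp_new h1 h2 he hF0).elim
    · obtain ⟨e', he'⟩ := onE g3
      have hc := Z.hp_core h2 g2 he he' (h4.symm.trans g4)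
      subst hc
      obtain ⟨rfl, rfl⟩ := (Z.cl c).hp_inj h2 g2 he he' (h4.symm.trans g4)
      have ha := T.dis h3 g3
      subst ha
      rw [h5, g5]
    · exact (Z.hp_ne_vp h2 g1 he (h4.symm.trans g3)).elim
  · rcases h' with ⟨g1, g2⟩ | ⟨c', a', l', u', g1, g2, g3, g4, g5⟩ | ⟨c', a', l', v', g1, g2, g3, g4⟩
    · obtain ⟨F0, hF0⟩ := T.on w g1
      rw [h3] at hF0
      exact (Z.vp_new h1 hF0).elim
    · obtain ⟨e', he'⟩ := onE g3
      exact (Z.hp_ne_vp g2 h1 he' (g4.symm.trans h3)).elim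
    · have hc := Z.vp_core h1 g1 (h3.symm.trans g3)
      subst hc
      obtain ⟨rfl, rfl⟩ := (Z.cl c).vp_inj h1 g1 (h3.symm.trans g3)
      have ha := T.disv h2 g2
      subst ha
      rw [h4, g4]

theorem r_ex {F : Φ} {w : W} {i : J} (h : Lb Z T w i) (hF : w ∈ M.On F) :
    ∃ y, R Z T F w y := by
  rcases Z.cases F with ⟨F0, rfl⟩ | ⟨c, G, j, hj0, hj, rfl⟩ | ⟨c, e, j, hj, rfl⟩
  · rw [Z.on_old] at hF
    rcases h with ⟨h1, h2⟩ | ⟨c, a, l, u, h1, h2, h3, h4, h5⟩ | ⟨c, a, l, v, h1, h2, h3, h4⟩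
    · exact ⟨_, Or.inl ⟨F0, rfl, h1, hF, rfl⟩⟩
    · obtain ⟨e, he⟩ := onE h3
      rw [h4] at hF
      exact (Z.hp_new h1 h2 he hF).elim
    · rw [h3] at hF
      exact (Z.vp_new h1 hF).elim
  · obtain ⟨w0, hw0, rfl⟩ := ((Z.cl c).on_hf hj).1 hF
    obtain ⟨e, b, hb, he⟩ := ((S c).onE G.2).1 hw0
    rcases h with ⟨h1, h2⟩ | ⟨c', a, l, u, h1, h2, h3, h4, h5⟩ | ⟨c', a, l, v, h1, h2, h3, h4⟩
    · obtain ⟨F0, hF0⟩ := T.on _ h1
      exact (Z.hp_new hj0 hj he hF0).elim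
    · obtain ⟨e', he'⟩ := onE h3
      have hc := Z.hp_core hj h2 he he' h4
      subst hc
      obtain ⟨rfl, rfl⟩ := (Z.cl c).hp_inj hj h2 he he' h4
      exact ⟨_, Or.inr (Or.inl ⟨c, a, j, G, w0, hj0, hj, rfl, h3, hw0, rfl, rfl⟩)⟩
    · exact (Z.hp_ne_vp hj h1 he h3).elim
  · rcases h with ⟨h1, h2⟩ | ⟨c', a, l, u, h1, h2, h3, h4, h5⟩ | ⟨c', a, l, v, h1, h2, h3, h4⟩
    · obtain ⟨F0, hF0⟩ := T.on _ h1
      obtain ⟨e', he'⟩ := Z.old_vf hF0 hF hj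
      have h5 := hF
      rw [← (Z.cl c).hp_zero w] at h5
      obtain ⟨h6, h7⟩ := ((Z.cl c).on_vf_hp (Nat.zero_le _) hj he').1 h5
      subst h6
      have hj0 : j = 0 := by
        rcases h7 with h7 | h7
        · exact h7.symm
        · omega
      subst hj0
      have h8 : w ∈ ((T.tw c (fam (s.lab w))).pat 0).P := (T.P0 _ _ _).2 ⟨h1, rfl, _, he'⟩
      refine ⟨_, Or.inr (Or.inr ⟨c, fam (s.lab w), 0, e, (S c).top w, hj, rfl,
        ((T.tw c _).mv 0).top_mem_P'.2 h8, (S c).top_mem_vert.2 he', ?_, rfl⟩)⟩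
      exact ((Z.cl c).hp_zero w).symm
    · obtain ⟨e', he'⟩ := onE h3
      rw [h4] at hF
      have hc : c' = c := by
        rcases (Z.cl c').faces_hp h1 h2 he' hF with ⟨G, hG⟩ | ⟨e'', i', hi', he''⟩
        · exact (Z.hf_ne_vf h2 hj hG.symm).elim
        · exact (Z.vf_core hj hi' he'').symm
      subst hc
      obtain ⟨h6, h7⟩ := ((Z.cl c').on_vf_hp h2 hj he').1 hF
      subst h6
      rcases h7 with h7 | h7
      · subst h7
        exact ⟨_, Or.inr (Or.inr ⟨c', a, l, e, (S c').top u, hj, rfl,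
          ((T.tw c' _).mv l).top_mem_P'.2 h3, (S c').top_mem_vert.2 he', h4, rfl⟩)⟩
      · subst h7
        exact ⟨_, Or.inr (Or.inr ⟨c', a, j, e, (S c').bot u, hj, rfl,
          ((T.tw c' _).mv j).bot_mem_P'.2 (mem_B.2 h3), (S c').bot_mem_vert.2 he', h4, rfl⟩)⟩
    · rw [h3] at hF
      have hc : c' = c := by
        obtain ⟨e'', he''⟩ := (Z.cl c').faces_vp h1 hF
        exact (Z.vf_core hj h1 he'').symm
      subst hc
      obtain ⟨rfl, h7⟩ := ((Z.cl c').on_vf_vp h1 hj).1 hF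
      exact ⟨_, Or.inr (Or.inr ⟨c', a, l, e, (S c').vert v, hj, rfl,
        ((T.tw c' _).mv l).vert_mem_P'.2 h2, (S c').vert_mem_vert.2 h7, h3, rfl⟩)⟩

theorem mu'_spec {c : κ} {a : C} {j : ℕ} {e : Ed c} {x : (S c).Pnt}
    (hx : x ∈ ((T.tw c a).mv j).P') (hxe : x ∈ (S c).On (Sum.inr (Sum.inr e))) :
    ((T.tw c a).mv j).mu' ((T.tw c a).par j) (Sum.inr (Sum.inr e)) x ∈ ((T.tw c a).mv j).P' ∧
    ((T.tw c a).mv j).mu' ((T.tw c a).par j) (Sum.inr (Sum.inr e)) x ∈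
      (S c).On (Sum.inr (Sum.inr e)) :=
  ((T.tw c a).mv j).mu'_mem ((T.tw c a).par j) (F := Sum.inr (Sum.inr e)) hx hxe

theorem r_lb {F : Φ} {w x : W} (h : R Z T F w x) : ∃ i, Lb Z T w i ∧ Lb Z T x i := by
  rcases h with ⟨F0, h1, h2, h3, h4⟩ | ⟨c, a, j, G, u, h1, h2, h3, h4, h5, h6, h7⟩ |
    ⟨c, a, j, e, x0, h1, h2, h3, h4, h5, h6⟩
  · refine ⟨s.lab w, Or.inl ⟨h2, rfl⟩, Or.inl ?_⟩
    rw [h4]
    exact ⟨(s.mu_mem h2 h3).1, s.mu_lab h2 h3⟩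
  · have g1 := ((T.tw c a).pat j).mu_mem h4 (F := G) h5
    have g2 := ((T.tw c a).pat j).mu_lab h4 (F := G) h5
    exact ⟨((T.tw c a).pat j).lab u, Or.inr (Or.inl ⟨c, a, j, u, h1, h2, h4, h6, rfl⟩),
      Or.inr (Or.inl ⟨c, a, j, _, h1, h2, g1.1, h7, g2.symm⟩)⟩
  · have g1 := mu'_spec h3 h4
    have g2 := ((T.tw c a).mv j).mu'_lab ((T.tw c a).par j) (F := Sum.inr (Sum.inr e)) h3 h4
    refine ⟨((T.tw c a).mv j).lab' x0, ?_, ?_⟩
    · rw [h5]; exact lb_emb h1 h3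
    · rw [h6, ← g2]; exact lb_emb h1 g1.1

theorem r_on {F : Φ} {w x : W} (h : R Z T F w x) : w ∈ M.On F := by
  rcases h with ⟨F0, h1, h2, h3, h4⟩ | ⟨c, a, j, G, u, h1, h2, h3, h4, h5, h6, h7⟩ |
    ⟨c, a, j, e, x0, h1, h2, h3, h4, h5, h6⟩
  · rw [h1, Z.on_old]; exact h3
  · rw [h3, (Z.cl c).on_hf h2]; exact ⟨u, h5, h6⟩
  · rw [h2, h5]; exact emb_on h1 h4

theorem r_ne {F : Φ} {w x : W} (h : R Z T F w x) : x ≠ w := by
  rcases h with ⟨F0, h1, h2, h3, h4⟩ | ⟨c, a, j, G, u, h1, h2, h3, h4, h5, h6, h7⟩ |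
    ⟨c, a, j, e, x0, h1, h2, h3, h4, h5, h6⟩
  · rw [h4]; exact s.mu_ne h2 h3
  · have g1 := ((T.tw c a).pat j).mu_mem h4 (F := G) h5
    obtain ⟨e, he⟩ := onE h4
    obtain ⟨e', he'⟩ := onE g1.1
    rw [h6, h7]
    intro h
    exact ((T.tw c a).pat j).mu_ne h4 (F := G) h5 ((Z.cl c).hp_inj h2 h2 he' he h).2
  · rw [h5, h6]
    intro h
    exact ((T.tw c a).mv j).mu'_ne ((T.tw c a).par j) (F := Sum.inr (Sum.inr e)) h3 h4
      (emb_inj c h1 (mu'_spec h3 h4).2 h4 h)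

theorem r_symm {F : Φ} {w x : W} (h : R Z T F w x) : R Z T F x w := by
  rcases h with ⟨F0, h1, h2, h3, h4⟩ | ⟨c, a, j, G, u, h1, h2, h3, h4, h5, h6, h7⟩ |
    ⟨c, a, j, e, x0, h1, h2, h3, h4, h5, h6⟩
  · left
    have g := s.mu_mem h2 h3
    rw [h4]
    exact ⟨F0, h1, g.1, g.2, (s.mu_mu h2 h3).symm⟩
  · right; left
    have g := ((T.tw c a).pat j).mu_mem h4 (F := G) h5
    refine ⟨c, a, j, G, _, h1, h2, h3, g.1, g.2, h7, ?_⟩
    rw [((T.tw c a).pat j).mu_mu h4 (F := G) h5]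
    exact h6
  · right; right
    have g := mu'_spec h3 h4
    refine ⟨c, a, j, e, _, h1, h2, g.1, g.2, h6, ?_⟩
    rw [((T.tw c a).mv j).mu'_mu' ((T.tw c a).par j) (F := Sum.inr (Sum.inr e)) h3 h4]
    exact h5

/-- the three kinds of faces are different -/
theorem r_old {F0 : Φ0} {w x : W} (h : R Z T (Z.old F0) w x) :
    w ∈ s.P ∧ w ∈ M0.On F0 ∧ x = s.mu F0 w := by
  rcases h with ⟨F0', h1, h2, h3, h4⟩ | ⟨c, a, j, G, u, h1, h2, h3, h4, h5, h6, h7⟩ |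
    ⟨c, a, j, e, x0, h1, h2, h3, h4, h5, h6⟩
  · have := Z.old_inj h1
    subst this
    exact ⟨h2, h3, h4⟩
  · exact (Z.hf_not_old h1 h2 h3.symm).elim
  · exact (Z.vf_not_old h1 h2.symm).elim

theorem r_hf {c : κ} {G : (S c).Fk} {j : ℕ} (hj0 : 0 < j) (hj : j ≤ n c) {w x : W}
    (h : R Z T ((Z.cl c).hf G j) w x) : ∃ a u, u ∈ ((T.tw c a).pat j).P ∧ u ∈ M0.On G.1 ∧
      w = (Z.cl c).hp j u ∧ x = (Z.cl c).hp j (((T.tw c a).pat j).mu G u) := by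
  rcases h with ⟨F0', h1, h2, h3, h4⟩ | ⟨c', a, j', G', u, h1, h2, h3, h4, h5, h6, h7⟩ |
    ⟨c', a, j', e, x0, h1, h2, h3, h4, h5, h6⟩
  · exact (Z.hf_not_old hj0 hj h1).elim
  · have hc := Z.hf_core hj h2 h3
    subst hc
    obtain ⟨rfl, rfl⟩ := (Z.cl c).hf_inj hj h2 h3
    exact ⟨a, u, h4, h5, h6, h7⟩
  · exact (Z.hf_ne_vf hj h1 h2).elim

theorem r_vf {c : κ} {e : Ed c} {j : ℕ} (hj : j < n c) {w x : W}
    (h : R Z T ((Z.cl c).vf e j) w x) : ∃ a, ∃ x0 : (S c).Pnt, x0 ∈ ((T.tw c a).mv j).P' ∧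
      x0 ∈ (S c).On (Sum.inr (Sum.inr e)) ∧ w = emb Z c j x0 ∧
      x = emb Z c j (((T.tw c a).mv j).mu' ((T.tw c a).par j) (Sum.inr (Sum.inr e)) x0) := by
  rcases h with ⟨F0', h1, h2, h3, h4⟩ | ⟨c', a, j', G', u, h1, h2, h3, h4, h5, h6, h7⟩ |
    ⟨c', a, j', e', x0, h1, h2, h3, h4, h5, h6⟩
  · exact (Z.vf_not_old hj h1).elim
  · exact (Z.hf_ne_vf h2 hj h3.symm).elim
  · have hc := Z.vf_core hj h1 h2
    subst hc
    obtain ⟨rfl, rfl⟩ := (Z.cl c).vf_inj hj h1 h2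
    exact ⟨a, x0, h3, h4, h5, h6⟩

theorem r_un {F : Φ} {w x y : W} (h : R Z T F w x) (h' : R Z T F w y) : x = y := by
  rcases Z.cases F with ⟨F0, rfl⟩ | ⟨c, G, j, hj0, hj, rfl⟩ | ⟨c, e, j, hj, rfl⟩
  · rw [(r_old h).2.2, (r_old h').2.2]
  · obtain ⟨a, u, h1, h2, h3, h4⟩ := r_hf hj0 hj h
    obtain ⟨a', u', g1, g2, g3, g4⟩ := r_hf hj0 hj h'
    obtain ⟨e, he⟩ := onE h1
    obtain ⟨e', he'⟩ := onE g1
    obtain ⟨_, rfl⟩ := (Z.cl c).hp_inj hj hj he he' (h3.symm.trans g3)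
    have ha := T.dis h1 g1
    subst ha
    rw [h4, g4]
  · obtain ⟨a, u, h1, h2, h3, h4⟩ := r_vf hj h
    obtain ⟨a', u', g1, g2, g3, g4⟩ := r_vf hj h'
    have hu := emb_inj c hj h2 g2 (h3.symm.trans g3)
    subst hu
    have ha := dis_P' h1 g1
    subst ha
    rw [h4, g4]

theorem r_nc {F : Φ} {w x y z : W} {i j : J} (h : R Z T F w x) (h' : R Z T F y z)
    (hi : Lb Z T w i) (hj : Lb Z T y j) (hc : fam i = fam j) (hne : y ≠ w) (hne' : y ≠ x) :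
    ¬ M.Lace F w x y z := by
  -- the four points are different
  have n1 : x ≠ w := r_ne h
  have n2 : z ≠ y := r_ne h'
  have n3 : z ≠ w := by
    intro e
    rw [e] at h'
    exact hne' (r_un (r_symm h') h)
  have n4 : z ≠ x := by
    intro e
    rw [e] at h'
    exact hne (r_un (r_symm h') (r_symm h))
  rcases Z.cases F with ⟨F0, rfl⟩ | ⟨c, G, l, hl0, hl, rfl⟩ | ⟨c, e, l, hl, rfl⟩
  · obtain ⟨h1, h2, rfl⟩ := r_old h
    obtain ⟨g1, g2, rfl⟩ := r_old h'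
    have hi' := l_un hi (Or.inl ⟨h1, rfl⟩)
    have hj' := l_un hj (Or.inl ⟨g1, rfl⟩)
    rw [hi', hj'] at hc
    rw [Z.lace_old h2 (s.mu_mem h1 h2).2 g2 (s.mu_mem g1 g2).2 n1.symm n2.symm hne.symm n3.symm
      hne'.symm n4.symm]
    exact s.nc h1 h2 g1 g2 hc hne hne'
  · obtain ⟨a, u, h1, h2, h3, h4⟩ := r_hf hl0 hl h
    obtain ⟨a', u', g1, g2, g3, g4⟩ := r_hf hl0 hl h'
    have hi' := l_un hi (Or.inr (Or.inl ⟨c, a, l, u, hl0, hl, h1, h3, rfl⟩))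
    have hj' := l_un hj (Or.inr (Or.inl ⟨c, a', l, u', hl0, hl, g1, g3, rfl⟩))
    rw [hi', hj', T.labj h1, T.labj g1] at hc
    subst hc
    have m1 := ((T.tw c a).pat l).mu_mem h1 (F := G) h2
    have m2 := ((T.tw c a).pat l).mu_mem g1 (F := G) g2
    have hne1 : u' ≠ u := fun e => hne (by rw [g3, h3, e])
    have hne2 : u' ≠ ((T.tw c a).pat l).mu G u := fun e => hne' (by rw [g3, h4, e])
    rw [h3, h4, g3, g4]
    rw [(Z.cl c).lace_hf hl h2 m1.2 g2 m2.2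
      (fun e => n1 (by rw [h4, h3, ← e])) (fun e => n2 (by rw [g4, g3, ← e]))
      (fun e => hne1 e.symm) (fun e => n3 (by rw [g4, h3, ← e]))
      (fun e => hne2 e.symm) (fun e => n4 (by rw [g4, h4, ← e]))]
    exact ((T.tw c a).pat l).nc (F := G) h1 h2 g1 g2 rfl hne1 hne2
  · obtain ⟨a, u, h1, h2, h3, h4⟩ := r_vf hl h
    obtain ⟨a', u', g1, g2, g3, g4⟩ := r_vf hl h'
    have hi' : i = ((T.tw c a).mv l).lab' u := l_un hi (by rw [h3]; exact lb_emb hl h1)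
    have hj' : j = ((T.tw c a').mv l).lab' u' := l_un hj (by rw [g3]; exact lb_emb hl g1)
    rw [hi', hj', fam_lab' h1, fam_lab' g1] at hc
    subst hc
    have m1 := mu'_spec h1 h2
    have m2 := mu'_spec g1 g2
    have hne1 : u' ≠ u := fun e => hne (by rw [g3, h3, e])
    have hne2 : u' ≠ ((T.tw c a).mv l).mu' ((T.tw c a).par l) (Sum.inr (Sum.inr e)) u :=
      fun e => hne' (by rw [g3, h4, e])
    have key := ((T.tw c a).mv l).nc' ((T.tw c a).par l) (F := Sum.inr (Sum.inr e)) h1 h2 g1 g2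
      rfl hne1 hne2
    intro hl'
    apply key
    rw [h3, h4, g3, g4] at hl'
    have h9 := ((Z.cl c).lace_vf hl h2 m1.2 g2 m2.2
      (fun e => n1 (by rw [h4, h3, ← e])) (fun e => n2 (by rw [g4, g3, ← e]))
      (fun e => hne1 e.symm) (fun e => n3 (by rw [g4, h3, ← e]))
      (fun e => hne2 e.symm) (fun e => n4 (by rw [g4, h4, ← e]))).1 hl'
    have e1 : ∀ p : (S c).Pnt, (S c).sphSh.mesh.pos (Sum.inr (Sum.inr e)) p =
        (S c).mesh.pos (Sum.inr (Sum.inr e)) p := fun p => congrFun (sph_pos (S c) e) p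
    unfold MeshC.Lace MeshC.Btw at h9 ⊢
    simp only [e1]
    exact h9

theorem r_fin (a : C) : {w | ∃ i, Lb Z T w i ∧ fam i = a}.Finite := by
  have h0 := s.fin a
  have hU : (⋃ c ∈ {c | ∃ j, j ≤ n c ∧ ((∃ w, w ∈ ((T.tw c a).pat j).P) ∨
      ∃ v, v ∈ ((T.tw c a).mv j).Qv)}, ⋃ j ∈ Finset.range (n c + 1),
      ((Z.cl c).hp j '' (((T.tw c a).pat j).P : Set W)) ∪
      ((Z.cl c).vp j '' (((T.tw c a).mv j).Qv : Set (Vx c)))).Finite := by
    refine Set.Finite.biUnion (T.fin a) fun c _ => ?_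
    refine Set.Finite.biUnion (Finset.finite_toSet _) fun j _ => ?_
    exact Set.Finite.union ((Finset.finite_toSet _).image _) ((Finset.finite_toSet _).image _)
  refine (h0.union hU).subset ?_
  rintro w ⟨i, hi, hfi⟩
  rcases hi with ⟨h1, h2⟩ | ⟨c, a', l, u, h1, h2, h3, h4, h5⟩ | ⟨c, a', l, v, h1, h2, h3, h4⟩
  · left
    exact ⟨h1, by rw [h2]; exact hfi⟩
  · right
    have ha : a' = a := by
      rw [← hfi, h5]
      exact (T.labj h3).symm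
    subst ha
    refine Set.mem_biUnion (x := c) ⟨l, h2, Or.inl ⟨u, h3⟩⟩ ?_
    refine Set.mem_biUnion (x := l) (Finset.mem_coe.2 (Finset.mem_range.2 (by omega))) ?_
    exact Or.inl ⟨u, h3, h4.symm⟩
  · right
    have ha : a' = a := by
      rw [← hfi, h4]
      exact (T.labv h2).symm
    subst ha
    refine Set.mem_biUnion (x := c) ⟨l, h1.le, Or.inr ⟨v, h2⟩⟩ ?_
    refine Set.mem_biUnion (x := l) (Finset.mem_coe.2 (Finset.mem_range.2 (by omega))) ?_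
    exact Or.inr ⟨v, h2, h3.symm⟩

/-- **the state on the mesh with layers** -/
noncomputable def rel (Z : Cols M M0 k0 kk S n) (T : Twrs S n s) : RelSt M fam where
  Lb := Lb Z T
  R := R Z T
  l_un := l_un
  r_ex := r_ex
  r_un := r_un
  r_lb := r_lb
  r_on := r_on
  r_ne := r_ne
  r_symm := r_symm
  r_nc := r_nc
  fin := r_fin

end Twrs

end Crest.Agent.R096.Door_501
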