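import Crest.Agent.R096.Gg2_113

/-!
# Finitely many closed sets none of which separates two points of a convex set

* `not_sep`: two disjoint closed sets neither of which separates `v` from `w` in the convex set
  `F` do not separate them together.
* `not_sep_fin`: the same for finitely many pairwise disjoint closed sets.
* `conn_compl`: a compact set in the plane all of whose maps to the circle lift does not separate
  the plane; `conn_disc`: the same inside the closed unit disc.
-/

set_option autoImplicit false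

open Set Metric Topology Filter

namespace Crest.Agent.R096.Dsc_113

section sep

variable {E : Type*} [NormedAddCommGroup E] [NormedSpace ℝ E]

/-- `v` and `w` are joined in `A` -/
def Jn (A : Set E) (v w : E) : Prop := ∃ C : Set E, IsPreconnected C ∧ C ⊆ A ∧ v ∈ C ∧ w ∈ C

theorem not_sep {F : Set E} (hF : Convex ℝ F) {K1 K2 : Set E} (h1 : IsClosed K1)
    (h2 : IsClosed K2) (hd : Disjoint K1 K2) {v w : E} (j1 : Jn (F \ K1) v w)
    (j2 : Jn (F \ K2) v w) : Jn (F \ (K1 ∪ K2)) v w := by
  classical
  obtain ⟨C1, p1, s1, v1, w1⟩ := j1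
  obtain ⟨C2, p2, s2, v2, w2⟩ := j2
  set K := K1 ∪ K2 with hK
  have hKc : IsClosed K := h1.union h2
  have hvK : v ∈ F \ K := ⟨(s1 v1).1, fun h => h.elim (s1 v1).2 (s2 v2).2⟩
  have hwK : w ∈ F \ K := ⟨(s1 w1).1, fun h => h.elim (s1 w1).2 (s2 w2).2⟩
  rcases K.eq_empty_or_nonempty with he | hne
  · exact ⟨F, hF.isPreconnected, by rw [he, sdiff_empty], hvK.1, hwK.1⟩
  set C := connectedComponentIn (F \ K) v with hC
  by_cases hw : w ∈ C
  · exact ⟨C, isPreconnected_connectedComponentIn, connectedComponentIn_subset _ _,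
      mem_connectedComponentIn hvK, hw⟩
  exfalso
  -- small balls
  have hball : ∀ y ∈ F \ K, ∃ ε > 0, ∀ z ∈ F, dist z y < ε → (z ∈ C ↔ y ∈ C) := by
    intro y hy
    obtain ⟨ε, hε, hb⟩ := Metric.isOpen_iff.1 hKc.isOpen_compl y hy.2
    have hconv : IsPreconnected (F ∩ ball y ε) := (hF.inter (convex_ball y ε)).isPreconnected
    have hsub : F ∩ ball y ε ⊆ F \ K := fun z hz => ⟨hz.1, hb hz.2⟩
    have hyb : y ∈ F ∩ ball y ε := ⟨hy.1, mem_ball_self hε⟩
    refine ⟨ε, hε, fun z hz hzy => ?_⟩
    have hzb : z ∈ F ∩ ball y ε := ⟨hz, hzy⟩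
    constructor
    · intro hzC
      rw [hC, connectedComponentIn_eq (hC ▸ hzC)]
      exact hconv.subset_connectedComponentIn hzb hsub hyb
    · intro hyC
      rw [hC, connectedComponentIn_eq (hC ▸ hyC)]
      exact hconv.subset_connectedComponentIn hyb hsub hzb
  set u : E → ℝ := fun x => if x ∈ C then -infDist x K else infDist x K with hu
  have habs : ∀ x, |u x| = infDist x K := by
    intro x
    simp only [hu]
    split_ifs
    · rw [abs_neg, abs_of_nonneg infDist_nonneg]
    · rw [abs_of_nonneg infDist_nonneg]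
  have hcont : ContinuousOn u F := by
    intro x hx
    by_cases hxK : x ∈ K
    · have h0 : u x = 0 := by
        rw [← abs_eq_zero, habs, infDist_zero_of_mem hxK]
      rw [ContinuousWithinAt, h0]
      have h3 : Tendsto (fun y => infDist y K) (𝓝[F] x) (𝓝 0) := by
        have := (continuous_infDist_pt K).continuousWithinAt (s := F) (x := x)
        rw [ContinuousWithinAt, infDist_zero_of_mem hxK] at this
        exact this
      exact squeeze_zero_norm (fun y => by rw [Real.norm_eq_abs, habs]) h3
    · obtain ⟨ε, hε, hb⟩ := hball x ⟨hx, hxK⟩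
      have hev : ∀ᶠ z in 𝓝[F] x, z ∈ C ↔ x ∈ C := by
        filter_upwards [inter_mem_nhdsWithin F (ball_mem_nhds x hε)] with z hz
        exact hb z hz.1 hz.2
      by_cases hxC : x ∈ C
      · refine ((continuous_infDist_pt K).neg.continuousWithinAt).congr_of_eventuallyEq ?_ ?_
        · filter_upwards [hev] with z hz
          simp [hu, hz.2 hxC]
        · simp [hu, hxC]
      · refine ((continuous_infDist_pt K).continuousWithinAt).congr_of_eventuallyEq ?_ ?_
        · filter_upwards [hev] with z hz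
          have : z ∉ C := fun h => hxC (hz.1 h)
          simp [hu, this]
        · simp [hu, hxC]
  have hpos : ∀ y ∈ F \ K, 0 < infDist y K := fun y hy =>
    (hKc.notMem_iff_infDist_pos hne).1 hy.2
  refine Gg2_113.no_sep hF h1 h2 hd hcont (t := 0) ?_ p1 p2 (s1.trans sdiff_subset)
    (s2.trans sdiff_subset) (disjoint_left.2 fun y hy => (s1 hy).2)
    (disjoint_left.2 fun y hy => (s2 hy).2) v1 v2 w1 w2 ?_ ?_
  · intro z hz h0
    by_contra hzK
    have := hpos z ⟨hz, hzK⟩
    rw [← habs, h0, abs_zero] at this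
    exact lt_irrefl _ this
  · have : v ∈ C := mem_connectedComponentIn hvK
    simp only [hu, this, if_true]
    linarith [hpos v hvK]
  · simp only [hu, hw, if_false]
    exact hpos w hwK

theorem not_sep_fin {F : Set E} (hF : Convex ℝ F) {𝒦 : Set (Set E)} (hfin : 𝒦.Finite)
    (hcl : ∀ K ∈ 𝒦, IsClosed K) (hd : 𝒦.PairwiseDisjoint id) {v w : E} (hv : v ∈ F) (hw : w ∈ F)
    (hj : ∀ K ∈ 𝒦, Jn (F \ K) v w) : Jn (F \ ⋃₀ 𝒦) v w := by
  induction 𝒦, hfin using Set.Finite.induction_on with
  | empty =>
    refine ⟨F, hF.isPreconnected, by simp, hv, hw⟩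
  | @insert K 𝒦 hK hfin ih =>
    rw [sUnion_insert]
    refine not_sep hF (hcl K (mem_insert _ _)) ?_ ?_ (hj K (mem_insert _ _)) ?_
    · rw [sUnion_eq_biUnion]
      exact hfin.isClosed_biUnion fun L hL => hcl L (mem_insert_of_mem _ hL)
    · rw [disjoint_sUnion_right]
      intro L hL
      refine hd (mem_insert _ _) (mem_insert_of_mem _ hL) ?_
      rintro rfl
      exact hK hL
    · exact ih (fun L hL => hcl L (mem_insert_of_mem _ hL))
        (hd.subset (subset_insert _ _)) (fun L hL => hj L (mem_insert_of_mem _ hL))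

end sep

section plane

/-- the angle, in turns -/
noncomputable def ang (z : ℂ) : AddCircle (1 : ℝ) :=
  ((Complex.arg z * ((2 * Real.pi)⁻¹ * 1) : ℝ) : AddCircle (1 : ℝ))

theorem continuousAt_ang {z : ℂ} (hz : z ≠ 0) : ContinuousAt ang z := by
  have h2 : (2 * Real.pi) ≠ 0 := by positivity
  have h' : ContinuousAt (fun y : ℂ => AddCircle.homeomorphAddCircle (2 * Real.pi) 1 h2 one_ne_zero
      ((Complex.arg y : ℝ) : AddCircle (2 * Real.pi))) z :=
    (AddCircle.homeomorphAddCircle (2 * Real.pi) 1 h2
      one_ne_zero).continuous.continuousAt.comp (Complex.continuousAt_arg_coe_angle hz)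
  have e : ang = fun y : ℂ => AddCircle.homeomorphAddCircle (2 * Real.pi) 1 h2 one_ne_zero
      ((Complex.arg y : ℝ) : AddCircle (2 * Real.pi)) := by
    funext y
    exact (AddCircle.homeomorphAddCircle_apply_mk (p := 2 * Real.pi) (q := 1) h2 one_ne_zero _).symm
  rw [e]
  exact h'

theorem ang_exp {r s : ℝ} (hr : 0 < r) :
    ang (r * Complex.exp ((2 * Real.pi * s : ℝ) * Complex.I)) = (s : AddCircle (1 : ℝ)) := by
  have hpi := Real.pi_pos
  have h := Complex.arg_mul_cos_add_sin_mul_I_coe_angle hr ((2 * Real.pi * s : ℝ) : Real.Angle)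
  have e : ((r : ℂ) * (((((2 * Real.pi * s : ℝ) : Real.Angle)).cos : ℝ) +
      ((((2 * Real.pi * s : ℝ) : Real.Angle)).sin : ℝ) * Complex.I)) =
      r * Complex.exp ((2 * Real.pi * s : ℝ) * Complex.I) := by
    rw [Real.Angle.cos_coe, Real.Angle.sin_coe, Complex.exp_mul_I]
    push_cast
    ring
  rw [e] at h
  rw [Real.Angle.angle_eq_iff_two_pi_dvd_sub] at h
  obtain ⟨k, hk⟩ := h
  unfold ang
  set a := Complex.arg (r * Complex.exp ((2 * Real.pi * s : ℝ) * Complex.I)) with ha
  have e2 : a * ((2 * Real.pi)⁻¹ * 1) = s + k := by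
    have : a = 2 * Real.pi * s + 2 * Real.pi * k := by linarith
    rw [this]
    field_simp
  rw [e2, AddCircle.coe_add]
  have : ((k : ℝ) : AddCircle (1 : ℝ)) = 0 := by
    rw [AddCircle.coe_eq_zero_iff]
    exact ⟨k, by simp⟩
  rw [this, add_zero]

/-- the angle has no lift on a circle -/
theorem no_ang_lift {r : ℝ} (hr : 0 < r) {θ : ℂ → ℝ} (hθ : ContinuousOn θ (sphere 0 r))
    (h : ∀ y ∈ sphere (0 : ℂ) r, ((θ y : ℝ) : AddCircle (1 : ℝ)) = ang y) : False := by
  have hm : ∀ s : ℝ, (r : ℂ) * Complex.exp ((2 * Real.pi * s : ℝ) * Complex.I) ∈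
      sphere (0 : ℂ) r := by
    intro s
    rw [mem_sphere_zero_iff_norm, norm_mul, Complex.norm_exp_ofReal_mul_I, mul_one]
    simp [abs_of_pos hr]
  have hc : Continuous fun s : ℝ => (r : ℂ) * Complex.exp ((2 * Real.pi * s : ℝ) * Complex.I) := by
    fun_prop
  have hc2 : ContinuousOn (fun s : ℝ =>
      θ ((r : ℂ) * Complex.exp ((2 * Real.pi * s : ℝ) * Complex.I)) - s) (Icc 0 1) :=
    (hθ.comp hc.continuousOn fun s _ => hm s).sub continuousOn_id
  have := Gg2_113.const_of_int (isPreconnected_Icc (a := (0 : ℝ)) (b := 1)) hc2 (fun s _ => by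
    rw [AddCircle.coe_sub, h _ (hm s), ang_exp hr, sub_self]) (left_mem_Icc.2 zero_le_one)
    (right_mem_Icc.2 zero_le_one)
  simp only [mul_zero, Complex.ofReal_zero, zero_mul, Complex.exp_zero, mul_one, sub_zero,
    Complex.ofReal_mul, Complex.ofReal_ofNat, Complex.exp_two_pi_mul_I] at this
  linarith

/-- a compact set in the open disc on which maps to the circle lift does not separate the disc -/
theorem conn_disc {K : Set ℂ} (hK : IsCompact K) (hKb : K ⊆ ball 0 1)
    (hl : ∀ g : ℂ → AddCircle (1 : ℝ), ContinuousOn g K →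
      ∃ θ : ℂ → ℝ, ContinuousOn θ K ∧ ∀ x ∈ K, ((θ x : ℝ) : AddCircle (1 : ℝ)) = g x) :
    IsPreconnected (closedBall (0 : ℂ) 1 \ K) := by
  classical
  set D := closedBall (0 : ℂ) 1 with hD
  have hsK : sphere (0 : ℂ) 1 ⊆ D \ K := by
    intro y hy
    refine ⟨sphere_subset_closedBall hy, fun h => ?_⟩
    have h1 := mem_ball_zero_iff.1 (hKb h)
    rw [mem_sphere_zero_iff_norm.1 hy] at h1
    exact lt_irrefl _ h1
  have hsp : IsPreconnected (sphere (0 : ℂ) 1) :=
    isPreconnected_sphere (by rw [Complex.rank_real_complex]; norm_num) 0 1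
  have h1s : (1 : ℂ) ∈ sphere (0 : ℂ) 1 := by simp
  -- every component meets the circle
  have key : ∀ z ∈ D \ K, (1 : ℂ) ∈ connectedComponentIn (D \ K) z := by
    intro z hz
    set A := connectedComponentIn (D \ K) z with hA
    have hzA : z ∈ A := mem_connectedComponentIn hz
    have hAD : A ⊆ D \ K := connectedComponentIn_subset _ _
    have hAp : IsPreconnected A := isPreconnected_connectedComponentIn
    by_cases hmeet : (sphere (0 : ℂ) 1 ∩ A).Nonempty
    · obtain ⟨y, hy1, hy2⟩ := hmeet
      rw [hA, connectedComponentIn_eq (hA ▸ hy2)]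
      exact hsp.subset_connectedComponentIn hy1 hsK h1s
    exfalso
    rw [not_nonempty_iff_eq_empty] at hmeet
    have hAb : A ⊆ ball 0 1 := by
      intro y hy
      have h1 := (hAD hy).1
      rw [hD, mem_closedBall_zero_iff] at h1
      rw [mem_ball_zero_iff]
      refine lt_of_le_of_ne h1 fun e => ?_
      have : y ∈ sphere (0 : ℂ) 1 ∩ A := ⟨mem_sphere_zero_iff_norm.2 e, hy⟩
      rw [hmeet] at this
      exact this
    have hAo : IsOpen A := by
      rw [Metric.isOpen_iff]
      intro y hy
      have ho : IsOpen (ball (0 : ℂ) 1 \ K) := isOpen_ball.sdiff hK.isClosed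
      obtain ⟨ε, hε, hb⟩ := Metric.isOpen_iff.1 ho y ⟨hAb hy, (hAD hy).2⟩
      refine ⟨ε, hε, ?_⟩
      rw [hA, connectedComponentIn_eq (hA ▸ hy)]
      exact (convex_ball y ε).isPreconnected.subset_connectedComponentIn (mem_ball_self hε)
        fun w hw => ⟨ball_subset_closedBall (hb hw).1, (hb hw).2⟩
    have hcl : closure A ⊆ A ∪ K := by
      intro y hy
      by_cases hyK : y ∈ K
      · exact Or.inr hyK
      left
      have hyD : y ∈ D :=
        (isClosed_closedBall.closure_subset_iff.2 (hAD.trans sdiff_subset)) hy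
      have hp : IsPreconnected (insert y A) :=
        hAp.subset_closure (subset_insert _ _) (insert_subset hy subset_closure)
      rw [hA]
      exact hp.subset_connectedComponentIn (mem_insert_of_mem _ hzA)
        (insert_subset (show y ∈ D \ K from ⟨hyD, hyK⟩) hAD) (mem_insert _ _)
    have hAK : IsClosed (A ∪ K) := by
      rw [← closure_subset_iff_isClosed, closure_union, hK.isClosed.closure_eq]
      exact union_subset hcl subset_union_right
    -- the lift on `K`
    have hg0 : ContinuousOn (fun y => ang (y - z)) {z}ᶜ := by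
      intro y hy
      have : y - z ≠ 0 := sub_ne_zero.2 hy
      have h2 : ContinuousAt (fun y => ang (y - z)) y :=
        ContinuousAt.comp (f := fun y : ℂ => y - z) (g := ang) (continuousAt_ang this)
          (by fun_prop)
      exact h2.continuousWithinAt
    have hKz : K ⊆ {z}ᶜ := fun y hy e => hz.2 (by rw [← mem_singleton_iff.1 e]; exact hy)
    obtain ⟨θ0, hθ0, hθ0g⟩ := hl _ (hg0.mono hKz)
    obtain ⟨Θ, hΘ⟩ := ContinuousMap.exists_restrict_eq hK.isClosed
      (⟨K.domRestrict θ0, hθ0.domRestrict⟩ : C(K, ℝ))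
    have hΘK : ∀ y ∈ K, Θ y = θ0 y := fun y hy => by
      have := congrArg (fun f : C(K, ℝ) => f ⟨y, hy⟩) hΘ
      exact this
    set G : ℂ → AddCircle (1 : ℝ) := fun y => if y ∈ A then ((Θ y : ℝ) : AddCircle (1 : ℝ))
      else ang (y - z) with hG
    have hG1 : ContinuousOn G (A ∪ K) := by
      refine ContinuousOn.congr (f := fun y => ((Θ y : ℝ) : AddCircle (1 : ℝ))) ?_ ?_
      · exact ((AddCircle.continuous_mk' (1 : ℝ)).comp Θ.continuous).continuousOn
      · intro y hy
        by_cases hyA : y ∈ A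
        · simp [hG, hyA]
        · have hyK : y ∈ K := hy.resolve_left hyA
          simp only [hG, hyA, if_false]
          rw [hΘK y hyK, hθ0g y hyK]
    have hG2 : ContinuousOn G Aᶜ := by
      have hs : Aᶜ ⊆ {z}ᶜ := fun y hy e => hy (by rw [mem_singleton_iff.1 e]; exact hzA)
      refine (hg0.mono hs).congr ?_
      · intro y hy
        simp only [hG]
        rw [if_neg hy]
    have hGc : ContinuousOn G univ := by
      have := hG1.union_of_isClosed hG2 hAK hAo.isClosed_compl
      refine this.mono fun y _ => ?_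
      by_cases hy : y ∈ A
      · exact Or.inl (Or.inl hy)
      · exact Or.inr hy
    obtain ⟨θ, hθ, hθG⟩ := Gg2_113.exists_lift convex_univ hGc
    refine no_ang_lift (r := 2) (by norm_num) (θ := fun y => θ (y + z))
      ((hθ.comp (by fun_prop) fun _ _ => mem_univ _)) ?_
    intro y hy
    have hyA : y + z ∉ A := by
      intro h
      have h1 := mem_ball_zero_iff.1 (hAb h)
      have h2 := mem_ball_zero_iff.1 (hAb hzA)
      have h3 := mem_sphere_zero_iff_norm.1 hy
      have h4 : ‖y‖ ≤ ‖y + z‖ + ‖z‖ := by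
        have := norm_sub_le (y + z) z
        rwa [add_sub_cancel_right] at this
      linarith
    rw [hθG _ (mem_univ _)]
    simp only [hG]
    rw [if_neg hyA, add_sub_cancel_right]
  refine isPreconnected_of_forall (1 : ℂ) fun z hz => ?_
  exact ⟨connectedComponentIn (D \ K) z, connectedComponentIn_subset _ _, key z hz,
    mem_connectedComponentIn hz, isPreconnected_connectedComponentIn⟩

end plane

end Crest.Agent.R096.Dsc_113
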