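import Crest.Agent.R096.Gg2_113
import Crest.Agent.R096.Agl5_543

/-!
# The rim of a 2-cell minus an open edge is connected
-/

set_option autoImplicit false
set_option linter.unusedSectionVars false

open Set Metric Topology

namespace Crest.Agent.R096.Gg3_113

open Crest.Agent.R096.Msh_715 Crest.Agent.R096.Agl5_543 Crest.Agent.R096.Pat5_543

/-- the circle minus a connected set which does not contain `-1` is connected -/
theorem circle_diff {A : Set ℂ} (hA : A ⊆ sphere 0 1) (hp : IsPreconnected A)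
    (h1 : (-1 : ℂ) ∉ A) : IsPreconnected (sphere (0 : ℂ) 1 \ A) := by
  rcases A.eq_empty_or_nonempty with rfl | ⟨a0, ha0⟩
  · rw [sdiff_empty]
    exact isPreconnected_sphere (by rw [Complex.rank_real_complex]; norm_num) 0 1
  have hexp : ∀ z ∈ sphere (0 : ℂ) 1, Complex.exp ((Complex.arg z : ℝ) * Complex.I) = z := by
    intro z hz
    have h1 := Complex.norm_mul_exp_arg_mul_I z
    rw [mem_sphere_zero_iff_norm.1 hz, Complex.ofReal_one, one_mul] at h1
    exact h1
  have hslit : ∀ z ∈ A, z ∈ Complex.slitPlane := by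
    intro z hz
    rw [Complex.mem_slitPlane_iff_arg]
    refine ⟨fun h => ?_, fun h => ?_⟩
    · have := hexp z (hA hz)
      rw [h, Complex.exp_pi_mul_I] at this
      exact h1 (this ▸ hz)
    · have := mem_sphere_zero_iff_norm.1 (hA hz)
      rw [h, norm_zero] at this
      exact zero_ne_one this
  have hcont : ContinuousOn Complex.arg A := fun z hz =>
    (Complex.continuousAt_arg (hslit z hz)).continuousWithinAt
  have hO : (Complex.arg '' A).OrdConnected := (hp.image _ hcont).ordConnected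
  set f : ℝ → ℂ := fun θ => Complex.exp ((θ : ℝ) * Complex.I) with hf
  have hfc : Continuous f := by fun_prop
  have hfs : ∀ θ, f θ ∈ sphere (0 : ℂ) 1 := by
    intro θ
    rw [mem_sphere_zero_iff_norm, hf]
    exact Complex.norm_exp_ofReal_mul_I θ
  set D1 : Set ℝ := {θ | θ ∈ Icc (-Real.pi) Real.pi ∧ ∀ a ∈ Complex.arg '' A, θ < a} with hD1
  set D2 : Set ℝ := {θ | θ ∈ Icc (-Real.pi) Real.pi ∧ ∀ a ∈ Complex.arg '' A, a < θ} with hD2
  have hpi := Real.pi_pos
  have c1 : IsPreconnected D1 := by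
    apply OrdConnected.isPreconnected
    constructor
    rintro x hx y hy z hz
    exact ⟨⟨hx.1.1.trans hz.1, hz.2.trans hy.1.2⟩, fun a ha => hz.2.trans_lt (hy.2 a ha)⟩
  have c2 : IsPreconnected D2 := by
    apply OrdConnected.isPreconnected
    constructor
    rintro x hx y hy z hz
    exact ⟨⟨hx.1.1.trans hz.1, hz.2.trans hy.1.2⟩, fun a ha => (hx.2 a ha).trans_le hz.1⟩
  have m1 : -Real.pi ∈ D1 := by
    refine ⟨⟨le_rfl, by linarith⟩, ?_⟩
    rintro _ ⟨z, -, rfl⟩
    exact Complex.neg_pi_lt_arg z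
  have m2 : Real.pi ∈ D2 := by
    refine ⟨⟨by linarith, le_rfl⟩, ?_⟩
    rintro _ ⟨z, hz, rfl⟩
    exact lt_of_le_of_ne (Complex.arg_le_pi z) (Complex.mem_slitPlane_iff_arg.1 (hslit z hz)).1
  have e1 : f (-Real.pi) = -1 := by
    simp only [hf]
    rw [Complex.ofReal_neg, neg_mul, Complex.exp_neg, Complex.exp_pi_mul_I]
    norm_num
  have e2 : f Real.pi = -1 := by
    simp only [hf]
    exact Complex.exp_pi_mul_I
  have hU : sphere (0 : ℂ) 1 \ A = f '' D1 ∪ f '' D2 := by
    ext z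
    constructor
    · rintro ⟨hz, hzA⟩
      have hzf : f (Complex.arg z) = z := hexp z hz
      have hmem : Complex.arg z ∈ Icc (-Real.pi) Real.pi :=
        ⟨(Complex.neg_pi_lt_arg z).le, Complex.arg_le_pi z⟩
      have hn : Complex.arg z ∉ Complex.arg '' A := by
        rintro ⟨y, hy, e⟩
        have : y = z := by
          rw [← hexp y (hA hy), ← hexp z hz, e]
        exact hzA (this ▸ hy)
      rcases lt_or_ge (Complex.arg z) (Complex.arg a0) with h | h
      · left
        refine ⟨Complex.arg z, ⟨hmem, fun a ha => ?_⟩, hzf⟩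
        by_contra hle
        exact hn (hO.out ha (mem_image_of_mem _ ha0) ⟨not_lt.1 hle, h.le⟩)
      · right
        refine ⟨Complex.arg z, ⟨hmem, fun a ha => ?_⟩, hzf⟩
        by_contra hle
        exact hn (hO.out (mem_image_of_mem _ ha0) ha ⟨h, not_lt.1 hle⟩)
    · have hkey : ∀ θ ∈ Icc (-Real.pi) Real.pi, f θ ∈ A → θ ∈ Complex.arg '' A := by
        intro θ hθ hA'
        rcases eq_or_lt_of_le hθ.1 with h | h
        · rw [← h, e1] at hA'
          exact absurd hA' h1
        · refine ⟨f θ, hA', ?_⟩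
          simp only [hf]
          rw [Complex.arg_exp_mul_I, toIocMod_eq_self]
          exact ⟨h, by linarith [hθ.2]⟩
      rintro (⟨θ, hθ, rfl⟩ | ⟨θ, hθ, rfl⟩)
      · exact ⟨hfs θ, fun hA' => (hθ.2 θ (hkey θ hθ.1 hA')).false⟩
      · exact ⟨hfs θ, fun hA' => (hθ.2 θ (hkey θ hθ.1 hA')).false⟩
  rw [hU]
  refine IsPreconnected.union (-1 : ℂ) ⟨_, m1, e1⟩ ⟨_, m2, e2⟩ (c1.image _ hfc.continuousOn)
    (c2.image _ hfc.continuousOn)

variable {E : Type} [NormedAddCommGroup E] [NormedSpace ℝ E] [FiniteDimensional ℝ E]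
variable {Om : Set E} {ι : Type} {T : Tiling Om ι}

theorem continuousOn_inv {X Y : Type*} [TopologicalSpace X] [TopologicalSpace Y] [T2Space Y]
    {s : Set X} (hs : IsCompact s) {f : X → Y} (hf : ContinuousOn f s)
    {r : Y → X} (hr : LeftInvOn r f s) : ContinuousOn r (f '' s) := by
  rw [continuousOn_iff_isClosed]
  intro t ht
  refine ⟨f '' (s ∩ t), ((hs.inter_right ht).image_of_continuousOn
    (hf.mono inter_subset_left)).isClosed, ?_⟩
  ext y
  constructor
  · rintro ⟨hy, x, hx, rfl⟩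
    refine ⟨⟨x, ⟨hx, ?_⟩, rfl⟩, ⟨x, hx, rfl⟩⟩
    rw [mem_preimage, hr hx] at hy
    exact hy
  · rintro ⟨⟨x, ⟨hx, hxt⟩, rfl⟩, hy⟩
    refine ⟨?_, hy⟩
    rw [mem_preimage, hr hx]
    exact hxt

theorem inv_cut (F : C2 T) : F.inv F.cut = -1 := by
  rw [← F.exp_pos F.cut_bd, F.pos_cut, Complex.exp_pi_mul_I]

/-- the rim of a 2-cell minus a connected part of the rim without the vertex `cut` is connected -/
theorem rim_diff (F : C2 T) {A : Set E} (hA : A ⊆ F.bd) (hp : IsPreconnected A)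
    (h1 : F.cut ∉ A) : IsPreconnected (F.bd \ A) := by
  have hinv : ContinuousOn F.inv F.set := by
    have h := continuousOn_inv (isCompact_closedBall (0 : ℂ) 1) F.isDisc.cont (r := F.inv)
      (fun z hz => F.inv_par hz)
    rwa [F.isDisc.img] at h
  have hAF : A ⊆ F.set := hA.trans F.bd_sub
  have hp' : IsPreconnected (F.inv '' A) := hp.image _ (hinv.mono hAF)
  have hs : F.inv '' A ⊆ sphere 0 1 := by
    rintro _ ⟨w, hw, rfl⟩
    rw [mem_sphere_zero_iff_norm]
    exact F.norm_inv (hA hw)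
  have hn : (-1 : ℂ) ∉ F.inv '' A := by
    rintro ⟨w, hw, e⟩
    rw [← inv_cut F] at e
    have h2 := (F.inv_mem (hAF hw)).2
    rw [e, (F.inv_mem F.cut_mem).2] at h2
    exact h1 (h2 ▸ hw)
  have h := circle_diff hs hp' hn
  have e : F.bd \ A = F.par '' (sphere (0 : ℂ) 1 \ F.inv '' A) := by
    ext w
    constructor
    · rintro ⟨hw, hwA⟩
      have hwF := F.bd_sub hw
      refine ⟨F.inv w, ⟨by rw [mem_sphere_zero_iff_norm]; exact F.norm_inv hw, ?_⟩,
        (F.inv_mem hwF).2⟩
      rintro ⟨w', hw', e⟩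
      have h2 := (F.inv_mem (hAF hw')).2
      rw [e, (F.inv_mem hwF).2] at h2
      exact hwA (h2 ▸ hw')
    · rintro ⟨z, ⟨hz, hzA⟩, rfl⟩
      refine ⟨?_, fun hc => hzA ⟨_, hc, F.inv_par (sphere_subset_closedBall hz)⟩⟩
      rw [← F.isDisc.bd]
      exact mem_image_of_mem _ hz
  rw [e]
  exact h.image _ (F.isDisc.cont.mono (sdiff_subset.trans sphere_subset_closedBall))

/-- the rim minus an open edge is connected -/
theorem rim_edge (F : C2 T) {e : E} (he : e ∈ F.set) (hd : T.dim e = 1) :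
    IsPreconnected (F.bd \ T.oc e) := by
  have heO : e ∈ Om := F.set_sub he
  have hsub : T.oc e ⊆ F.bd := by
    intro w hw
    have hwc : w ∈ T.cc F.pt := by
      rw [F.set_eq] at he
      exact T.cc_sub_of_mem he (T.oc_sub_cc e hw)
    rw [F.mem_bd_iff (by rw [F.set_eq]; exact hwc), T.dim_eq_of_mem_oc heO hw, hd]
  refine rim_diff F hsub (T.convex_oc e).isPreconnected ?_
  intro hc
  have := T.dim_eq_of_mem_oc heO hc
  rw [F.dim_cut, hd] at this
  omega

end Crest.Agent.R096.Gg3_113
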