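import Crest.Agent.R096.Srg1_465
import Crest.Agent.R096.Msh5_715

/-!
# R096 (row 96), 2SK-SURG, part 2: the level sets of one face under one move (helper465)

* `Circ F rim φ t Γ`: `Γ` is a circle component of `{φ = t}` in the face `F`.
* `Lev F rim φ I`: all levels in `I` are regular on `F`.
* `Lev.half`: some half interval consists of levels attained in a given disc of `F`.
* `Lev.move`: the levels after one move.
-/

set_option autoImplicit false
set_option linter.unusedSectionVars false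

open Set Metric Topology Filter

namespace Crest.Agent.R096.Srg_465

open Ce_537 Pl Cb_609

variable {E : Type*} [NormedAddCommGroup E] [NormedSpace ℝ E]

/-- the level set of `φ` in `F` -/
def Ls (F : Set E) (φ : E → ℝ) (t : ℝ) : Set E := {y | y ∈ F ∧ φ y = t}

/-- `Γ` is a circle component of the level set, bounding a disc in the relative interior. -/
def Circ (F rim : Set E) (φ : E → ℝ) (t : ℝ) (Γ : Set E) : Prop :=
  (∃ x ∈ F, φ x = t ∧ Γ = connectedComponentIn (Ls F φ t) x) ∧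
  ∃ Fc, IsBall 2 Fc Γ ∧ Fc ⊆ F \ rim ∧ ∃ O, IsOpen O ∧ O ∩ F = Fc \ Γ

/-- the levels in `I` are regular on the face `F` -/
structure Lev (F rim : Set E) (φ : E → ℝ) (I : Set ℝ) : Prop where
  cont : ContinuousOn φ F
  fin : ∀ t ∈ I, {Γ | Circ F rim φ t Γ}.Finite
  comp : ∀ t ∈ I, ∀ x ∈ F, φ x = t →
    (connectedComponentIn (Ls F φ t) x ∩ rim).Nonempty ∨
      Circ F rim φ t (connectedComponentIn (Ls F φ t) x)
  extr : ∀ x ∈ F, x ∉ rim → φ x ∈ I → ¬ IsLocalMinOn φ F x ∧ ¬ IsLocalMaxOn φ F x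

theorem Lev.mono {F rim : Set E} {φ : E → ℝ} {I J : Set ℝ} (h : Lev F rim φ I) (hJ : J ⊆ I) :
    Lev F rim φ J :=
  ⟨h.cont, fun t ht => h.fin t (hJ ht), fun t ht => h.comp t (hJ ht),
    fun x hx hr hφ => h.extr x hx hr (hJ hφ)⟩

theorem Lev.congr {F rim : Set E} {φ ψ : E → ℝ} {I : Set ℝ} (h : Lev F rim φ I)
    (he : EqOn φ ψ F) : Lev F rim ψ I := by
  have hL : ∀ t, Ls F ψ t = Ls F φ t := by
    intro t; ext y; constructor
    · rintro ⟨h1, h2⟩; exact ⟨h1, (he h1).trans h2⟩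
    · rintro ⟨h1, h2⟩; exact ⟨h1, (he h1).symm.trans h2⟩
  have hC : ∀ t Γ, Circ F rim ψ t Γ ↔ Circ F rim φ t Γ := by
    intro t Γ
    unfold Circ
    rw [hL t]
    constructor
    · rintro ⟨⟨x, hx, h1, h2⟩, h3⟩; exact ⟨⟨x, hx, (he hx).trans h1, h2⟩, h3⟩
    · rintro ⟨⟨x, hx, h1, h2⟩, h3⟩; exact ⟨⟨x, hx, (he hx).symm.trans h1, h2⟩, h3⟩
  refine ⟨h.cont.congr fun x hx => (he hx).symm, ?_, ?_, ?_⟩
  · intro t ht
    simp only [hC]
    exact h.fin t ht
  · intro t ht x hx hxt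
    rw [hC, hL]
    exact h.comp t ht x hx ((he hx).trans hxt)
  · intro x hx hr hI
    have h1 := h.extr x hx hr (by rw [he hx]; exact hI)
    refine ⟨fun hm => h1.1 ?_, fun hm => h1.2 ?_⟩
    · filter_upwards [hm, self_mem_nhdsWithin] with y hy hyF
      rw [he hx, he hyF]; exact hy
    · filter_upwards [hm, self_mem_nhdsWithin] with y hy hyF
      rw [he hx, he hyF]; exact hy

section Disc

variable {F rim : Set E} {φ : E → ℝ} {Fc Γ O : Set E}

theorem disc_mem_open (hO' : O ∩ F = Fc \ Γ) {x : E} (hx : x ∈ Fc) (hxΓ : x ∉ Γ) : x ∈ O := by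
  have : x ∈ O ∩ F := by rw [hO']; exact ⟨hx, hxΓ⟩
  exact this.1

/-- a component of a level set which misses the circle is inside or outside the disc -/
theorem comp_cases (hFc : IsClosed Fc) (hO : IsOpen O) (hO' : O ∩ F = Fc \ Γ)
    {C : Set E} (hC : IsPreconnected C) (hCF : C ⊆ F) (hCΓ : Disjoint C Γ) :
    C ⊆ Fc \ Γ ∨ Disjoint C Fc := by
  have hcov : C ⊆ O ∪ Fcᶜ := by
    intro x hx
    by_cases hxF : x ∈ Fc
    · exact Or.inl (disc_mem_open hO' hxF (disjoint_left.1 hCΓ hx))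
    · exact Or.inr hxF
  have hdis : C ∩ (O ∩ Fcᶜ) = ∅ := by
    rw [eq_empty_iff_forall_notMem]
    rintro x ⟨hx, hxO, hxF⟩
    have : x ∈ Fc \ Γ := by rw [← hO']; exact ⟨hxO, hCF hx⟩
    exact hxF this.1
  rcases isPreconnected_iff_subset_of_disjoint.1 hC O Fcᶜ hO hFc.isOpen_compl hcov hdis with
    h | h
  · left
    intro x hx
    rw [← hO']; exact ⟨h hx, hCF hx⟩
  · right
    rw [disjoint_left]
    intro x hx hx'
    exact h hx hx'

/-- `φ` has a local extremum in the open disc -/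
theorem localMin_of_disc (hO : IsOpen O) (hO' : O ∩ F = Fc \ Γ) {x : E} (hx : x ∈ Fc)
    (hxΓ : x ∉ Γ) (hmin : ∀ y ∈ Fc, φ x ≤ φ y) : IsLocalMinOn φ F x := by
  have h1 : O ∈ 𝓝 x := hO.mem_nhds (disc_mem_open hO' hx hxΓ)
  filter_upwards [inter_mem_nhdsWithin F h1] with y hy
  have : y ∈ Fc \ Γ := by rw [← hO']; exact ⟨hy.2, hy.1⟩
  exact hmin y this.1

theorem localMax_of_disc (hO : IsOpen O) (hO' : O ∩ F = Fc \ Γ) {x : E} (hx : x ∈ Fc)
    (hxΓ : x ∉ Γ) (hmax : ∀ y ∈ Fc, φ y ≤ φ x) : IsLocalMaxOn φ F x := by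
  have h1 : O ∈ 𝓝 x := hO.mem_nhds (disc_mem_open hO' hx hxΓ)
  filter_upwards [inter_mem_nhdsWithin F h1] with y hy
  have : y ∈ Fc \ Γ := by rw [← hO']; exact ⟨hy.2, hy.1⟩
  exact hmax y this.1

/-- all levels of one of the two half intervals are attained in the disc -/
theorem Lev.half {a b t' : ℝ} (h : Lev F rim φ (Ioo a b)) (ht : t' ∈ Ioo a b)
    (hB : IsBall 2 Fc Γ) (hFc : Fc ⊆ F \ rim) (hO : IsOpen O) (hO' : O ∩ F = Fc \ Γ)
    (hΓ : ∀ x ∈ Γ, φ x = t') :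
    (∀ t ∈ Ioo a t', ∃ x ∈ Fc, φ x = t) ∨ (∀ t ∈ Ioo t' b, ∃ x ∈ Fc, φ x = t) := by
  have hcF : ContinuousOn φ Fc := h.cont.mono fun x hx => (hFc hx).1
  have hcpt := hB.isCompact
  have hpre : IsPreconnected Fc := hB.isPreconnected
  obtain ⟨z, hz⟩ := nonempty_of_disc hB
  have hzF : z ∈ Fc := hB.subset hz
  by_cases hlow : ∃ x ∈ Fc, φ x < t'
  · left
    obtain ⟨x, hx, hxt⟩ := hlow
    obtain ⟨m, hm, hmin⟩ := hcpt.exists_isMinOn ⟨x, hx⟩ hcF
    have hmt : φ m < t' := lt_of_le_of_lt (hmin hx) hxt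
    have hmΓ : m ∉ Γ := fun hc => by rw [hΓ m hc] at hmt; exact lt_irrefl _ hmt
    have h1 : IsLocalMinOn φ F m := localMin_of_disc (F := F) hO hO' hm hmΓ (fun y hy => hmin hy)
    have h2 : ¬ (a < φ m) := fun hc =>
      (h.extr m (hFc hm).1 (hFc hm).2 ⟨hc, hmt.trans ht.2⟩).1 h1
    intro t htt
    have h3 : t ∈ Icc (φ m) (φ z) := ⟨(not_lt.1 h2).trans htt.1.le, by
      rw [hΓ z hz]; exact htt.2.le⟩
    obtain ⟨y, hy, hyt⟩ := hpre.intermediate_value hm hzF hcF h3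
    exact ⟨y, hy, hyt⟩
  · by_cases hup : ∃ x ∈ Fc, t' < φ x
    · right
      obtain ⟨x, hx, hxt⟩ := hup
      obtain ⟨m, hm, hmax⟩ := hcpt.exists_isMaxOn ⟨x, hx⟩ hcF
      have hmt : t' < φ m := lt_of_lt_of_le hxt (hmax hx)
      have hmΓ : m ∉ Γ := fun hc => by rw [hΓ m hc] at hmt; exact lt_irrefl _ hmt
      have h1 : IsLocalMaxOn φ F m := localMax_of_disc (F := F) hO hO' hm hmΓ (fun y hy => hmax hy)
      have h2 : ¬ (φ m < b) := fun hc =>
        (h.extr m (hFc hm).1 (hFc hm).2 ⟨ht.1.trans hmt, hc⟩).2 h1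
      intro t htt
      have h3 : t ∈ Icc (φ z) (φ m) := ⟨by rw [hΓ z hz]; exact htt.1.le,
        htt.2.le.trans (not_lt.1 h2)⟩
      obtain ⟨y, hy, hyt⟩ := hpre.intermediate_value hzF hm hcF h3
      exact ⟨y, hy, hyt⟩
    · exfalso
      push Not at hlow hup
      have hconst : ∀ y ∈ Fc, φ y = t' := fun y hy => le_antisymm (hup y hy) (hlow y hy)
      obtain ⟨x, hx, hxΓ⟩ := hB.nonempty_diff
      have h1 := localMin_of_disc (F := F) (φ := φ) hO hO' hx hxΓ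
        (fun y hy => by rw [hconst x hx, hconst y hy])
      exact (h.extr x (hFc hx).1 (hFc hx).2 (by rw [hconst x hx]; exact ht)).1 h1

end Disc

section Move

variable {F rim : Set E} {φ φ' : E → ℝ} {Fc Γ O : Set E} {I : Set ℝ} {t' : ℝ}

/-- the data of one move on a face -/
structure MoveF (F rim : Set E) (φ φ' : E → ℝ) (Fc Γ O : Set E) (t' : ℝ) : Prop where
  ball : IsBall 2 Fc Γ
  sub : Fc ⊆ F \ rim
  op : IsOpen O
  opF : O ∩ F = Fc \ Γ
  lev : ∀ x ∈ Γ, φ x = t'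
  out : ∀ x ∈ F \ Fc, φ' x = φ x
  ins : ∀ x ∈ Fc, φ' x = t'

theorem MoveF.Ls_eq (m : MoveF F rim φ φ' Fc Γ O t') {t : ℝ} (ht : t ≠ t') :
    Ls F φ' t = Ls F φ t \ Fc := by
  ext x
  constructor
  · rintro ⟨h1, h2⟩
    have hx : x ∉ Fc := fun hc => ht (h2.symm.trans (m.ins x hc))
    exact ⟨⟨h1, (m.out x ⟨h1, hx⟩).symm.trans h2⟩, hx⟩
  · rintro ⟨⟨h1, h2⟩, hx⟩
    exact ⟨h1, (m.out x ⟨h1, hx⟩).trans h2⟩

theorem MoveF.disj (m : MoveF F rim φ φ' Fc Γ O t') {t : ℝ} (ht : t ≠ t') :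
    Disjoint (Ls F φ t) Γ := by
  rw [disjoint_left]
  rintro x ⟨-, h1⟩ h2
  exact ht (h1.symm.trans (m.lev x h2))

theorem MoveF.comp_eq (m : MoveF F rim φ φ' Fc Γ O t') {t : ℝ} (ht : t ≠ t') {x : E}
    (hx : x ∈ Ls F φ t) (hxF : x ∉ Fc) :
    connectedComponentIn (Ls F φ' t) x = connectedComponentIn (Ls F φ t) x := by
  have hx' : x ∈ Ls F φ' t := by rw [m.Ls_eq ht]; exact ⟨hx, hxF⟩
  apply Subset.antisymm
  · apply connectedComponentIn_mono
    rw [m.Ls_eq ht]; exact sdiff_subset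
  · apply IsPreconnected.subset_connectedComponentIn isPreconnected_connectedComponentIn
      (mem_connectedComponentIn hx)
    have hsub := connectedComponentIn_subset (Ls F φ t) x
    rcases comp_cases (F := F) m.ball.isClosed m.op m.opF
      (isPreconnected_connectedComponentIn (F := Ls F φ t) (x := x))
      (hsub.trans fun y hy => hy.1) ((m.disj ht).mono_left hsub) with h | h
    · exact absurd (h (mem_connectedComponentIn hx)).1 hxF
    · rw [m.Ls_eq ht]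
      exact fun y hy => ⟨hsub hy, disjoint_left.1 h hy⟩

/-- the circles after the move are circles before the move, outside the disc -/
theorem MoveF.circ (m : MoveF F rim φ φ' Fc Γ O t') {t : ℝ} (ht : t ≠ t') {Γ₁ : Set E}
    (h : Circ F rim φ' t Γ₁) : Circ F rim φ t Γ₁ ∧ Disjoint Γ₁ Fc := by
  obtain ⟨⟨x, hx, hxt, rfl⟩, h2⟩ := h
  have hx' : x ∈ Ls F φ' t := ⟨hx, hxt⟩
  have hx2 := hx'
  rw [m.Ls_eq ht] at hx2
  have he := m.comp_eq ht hx2.1 hx2.2
  refine ⟨?_, ?_⟩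
  · rw [he] at h2 ⊢
    exact ⟨⟨x, hx, hx2.1.2, rfl⟩, h2⟩
  · rw [disjoint_left]
    intro y hy hyF
    have := connectedComponentIn_subset _ _ hy
    rw [m.Ls_eq ht] at this
    exact this.2 hyF

theorem MoveF.circ_of (m : MoveF F rim φ φ' Fc Γ O t') {t : ℝ} (ht : t ≠ t') {x : E}
    (hx : x ∈ Ls F φ t) (hxF : x ∉ Fc)
    (h : Circ F rim φ t (connectedComponentIn (Ls F φ t) x)) :
    Circ F rim φ' t (connectedComponentIn (Ls F φ' t) x) := by
  have he := m.comp_eq ht hx hxF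
  have hx' : x ∈ Ls F φ' t := by rw [m.Ls_eq ht]; exact ⟨hx, hxF⟩
  refine ⟨⟨x, hx'.1, hx'.2, rfl⟩, ?_⟩
  rw [he]
  exact h.2

/-- **the levels after one move** -/
theorem Lev.move (h : Lev F rim φ I) (m : MoveF F rim φ φ' Fc Γ O t') (hI : t' ∉ I)
    (hc : ContinuousOn φ' F) : Lev F rim φ' I := by
  have hne : ∀ t ∈ I, t ≠ t' := fun t ht hc => hI (hc ▸ ht)
  refine ⟨hc, ?_, ?_, ?_⟩
  · intro t ht
    exact (h.fin t ht).subset fun Γ₁ hΓ₁ => (m.circ (hne t ht) hΓ₁).1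
  · intro t ht x hx hxt
    have hx' : x ∈ Ls F φ' t := ⟨hx, hxt⟩
    have hx2 := hx'
    rw [m.Ls_eq (hne t ht)] at hx2
    rcases h.comp t ht x hx hx2.1.2 with h1 | h1
    · left
      rw [m.comp_eq (hne t ht) hx2.1 hx2.2]
      exact h1
    · right
      exact m.circ_of (hne t ht) hx2.1 hx2.2 h1
  · intro x hx hr hxI
    have hxF : x ∉ Fc := fun hc => hI (by rw [← m.ins x hc]; exact hxI)
    have e0 : φ' x = φ x := m.out x ⟨hx, hxF⟩
    have h1 := h.extr x hx hr (by rw [← e0]; exact hxI)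
    have hev : ∀ᶠ y in 𝓝[F] x, φ' y = φ y := by
      have h2 : Fcᶜ ∈ 𝓝 x := m.ball.isClosed.isOpen_compl.mem_nhds hxF
      filter_upwards [inter_mem_nhdsWithin F h2] with y hy
      exact m.out y ⟨hy.1, hy.2⟩
    refine ⟨fun hm => h1.1 ?_, fun hm => h1.2 ?_⟩
    · filter_upwards [hm, hev] with y hy hye
      rw [← e0, ← hye]; exact hy
    · filter_upwards [hm, hev] with y hy hye
      rw [← e0, ← hye]; exact hy

/-- the number of circles drops at every level which is attained in the disc -/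
theorem MoveF.ncard_lt (m : MoveF F rim φ φ' Fc Γ O t') (h : Lev F rim φ I) {t : ℝ} (ht : t ∈ I)
    (hne : t ≠ t') (hex : ∃ x ∈ Fc, φ x = t) :
    {Γ₁ | Circ F rim φ' t Γ₁}.ncard < {Γ₁ | Circ F rim φ t Γ₁}.ncard := by
  obtain ⟨x, hx, hxt⟩ := hex
  have hxL : x ∈ Ls F φ t := ⟨(m.sub hx).1, hxt⟩
  have hsub := connectedComponentIn_subset (Ls F φ t) x
  have hin : connectedComponentIn (Ls F φ t) x ⊆ Fc \ Γ := by
    rcases comp_cases (F := F) m.ball.isClosed m.op m.opF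
      (isPreconnected_connectedComponentIn (F := Ls F φ t) (x := x))
      (hsub.trans fun y hy => hy.1) ((m.disj hne).mono_left hsub) with h1 | h1
    · exact h1
    · exact absurd hx (disjoint_left.1 h1 (mem_connectedComponentIn hxL))
  have hcirc : Circ F rim φ t (connectedComponentIn (Ls F φ t) x) := by
    rcases h.comp t ht x (m.sub hx).1 hxt with h1 | h1
    · obtain ⟨y, hy, hyr⟩ := h1
      exact absurd hyr (m.sub (hin hy).1).2
    · exact h1
  apply Set.ncard_lt_ncard _ (h.fin t ht)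
  rw [ssubset_iff_subset_not_subset]
  refine ⟨fun Γ₁ hΓ₁ => (m.circ hne hΓ₁).1, fun hcon => ?_⟩
  have h2 := (m.circ hne (hcon hcirc)).2
  exact disjoint_left.1 h2 (mem_connectedComponentIn hxL) hx

theorem MoveF.ncard_le (m : MoveF F rim φ φ' Fc Γ O t') (h : Lev F rim φ I) {t : ℝ} (ht : t ∈ I)
    (hne : t ≠ t') :
    {Γ₁ | Circ F rim φ' t Γ₁}.ncard ≤ {Γ₁ | Circ F rim φ t Γ₁}.ncard :=
  Set.ncard_le_ncard (fun _ hΓ₁ => (m.circ hne hΓ₁).1) (h.fin t ht)

end Move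

end Crest.Agent.R096.Srg_465
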