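import Crest.Agent.R096.Dsc1_113
import Crest.Agent.R096.Gg3_113
import Crest.Agent.R096.Srg2_465
import Crest.Agent.R096.Sk2a_855

/-!
# A disc does not separate a 2-cell; the circle around a high point

* `IsBall.lift`: maps from a PL ball to the circle lift.
* `conn_face`: a ball `Fc` in a 2-cell, off its rim: `T.cc x \ Fc` is preconnected.
* `exists_circle`: a point above the level `t`, the rim being below: some circle component of the
  level set bounds a disc which contains the point.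
* `exists_circle'`: the version with the inequalities reversed.
-/

set_option autoImplicit false
set_option linter.unusedSectionVars false

open Set Metric Topology Filter

namespace Crest.Agent.R096.Dsc_113

open Ce_537 Msh_715 Agl5_543 Pat5_543 Srg_465

section ball

variable {E : Type*} [NormedAddCommGroup E] [NormedSpace ℝ E]

theorem lift_ball {k : ℕ} {K dK : Set E} (h : IsBall k K dK) {g : E → AddCircle (1 : ℝ)}
    (hg : ContinuousOn g K) :
    ∃ θ : E → ℝ, ContinuousOn θ K ∧ ∀ x ∈ K, ((θ x : ℝ) : AddCircle (1 : ℝ)) = g x := by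
  obtain ⟨e, -⟩ := h
  have hc : Convex ℝ (cube k) := convex_closedBall _ _
  obtain ⟨θ, hθ, hθg⟩ := Gg2_113.exists_lift hc (g := g ∘ e.f) (hg.comp e.pf.1 e.mf)
  refine ⟨θ ∘ e.g, hθ.comp e.pg.1 e.mg, fun x hx => ?_⟩
  have := hθg (e.g x) (e.mg hx)
  simp only [Function.comp_apply] at this ⊢
  rw [this, e.ri x hx]

end ball

section face

variable {E : Type} [NormedAddCommGroup E] [NormedSpace ℝ E] [FiniteDimensional ℝ E]
variable {Om : Set E} {ι : Type} {T : Tiling Om ι}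

/-- a compact set off the rim on which maps to the circle lift does not separate the 2-cell -/
theorem conn_C2 (F : C2 T) {K : Set E} (hK : IsCompact K) (hKF : K ⊆ F.set \ F.bd)
    (hl : ∀ g : E → AddCircle (1 : ℝ), ContinuousOn g K →
      ∃ θ : E → ℝ, ContinuousOn θ K ∧ ∀ x ∈ K, ((θ x : ℝ) : AddCircle (1 : ℝ)) = g x) :
    IsPreconnected (F.set \ K) := by
  have hinv : ContinuousOn F.inv F.set := by
    have h := Gg3_113.continuousOn_inv (isCompact_closedBall (0 : ℂ) 1) F.isDisc.cont (r := F.inv)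
      (fun z hz => F.inv_par hz)
    rwa [F.isDisc.img] at h
  have hKs : K ⊆ F.set := fun x hx => (hKF hx).1
  have hK1 : IsCompact (F.inv '' K) := hK.image_of_continuousOn (hinv.mono hKs)
  have hpar : ∀ w ∈ F.set, F.par (F.inv w) = w := fun w hw => (F.inv_mem hw).2
  have hb : F.inv '' K ⊆ ball 0 1 := by
    rintro _ ⟨w, hw, rfl⟩
    have h1 := (F.inv_mem (hKs hw)).1
    rw [mem_closedBall_zero_iff] at h1
    rw [mem_ball_zero_iff]
    refine lt_of_le_of_ne h1 fun e => (hKF hw).2 ?_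
    rw [← F.isDisc.bd]
    exact ⟨F.inv w, mem_sphere_zero_iff_norm.2 e, hpar w (hKs hw)⟩
  have hKb : F.inv '' K ⊆ closedBall 0 1 := hb.trans ball_subset_closedBall
  have hcon := conn_disc hK1 hb (by
    intro g hg
    obtain ⟨θ, hθ, hθg⟩ := hl (g ∘ F.inv) (hg.comp (hinv.mono hKs) (mapsTo_image _ _))
    have hpm : MapsTo F.par (F.inv '' K) K := by
      rintro _ ⟨w, hw, rfl⟩
      rw [hpar w (hKs hw)]; exact hw
    refine ⟨θ ∘ F.par, hθ.comp (F.isDisc.cont.mono hKb) hpm, ?_⟩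
    intro z hz
    have := hθg (F.par z) (hpm hz)
    simp only [Function.comp_apply] at this ⊢
    rw [this, F.inv_par (hKb hz)])
  have e : F.set \ K = F.par '' (closedBall (0 : ℂ) 1 \ F.inv '' K) := by
    ext w
    constructor
    · rintro ⟨hw, hwK⟩
      refine ⟨F.inv w, ⟨(F.inv_mem hw).1, ?_⟩, hpar w hw⟩
      rintro ⟨w', hw', e⟩
      have h2 := hpar w' (hKs hw')
      rw [e, hpar w hw] at h2
      exact hwK (h2 ▸ hw')
    · rintro ⟨z, ⟨hz, hzK⟩, rfl⟩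
      refine ⟨?_, fun hc => hzK ⟨_, hc, F.inv_par hz⟩⟩
      rw [← F.isDisc.img]
      exact mem_image_of_mem _ hz
  rw [e]
  exact hcon.image _ (F.isDisc.cont.mono sdiff_subset)

/-- a disc off the rim does not separate the 2-cell -/
theorem conn_face {x : E} (hx : x ∈ Om) (hd : T.dim x = 2) {Fc Γ : Set E} {k : ℕ}
    (hB : IsBall k Fc Γ) (hFc : Fc ⊆ T.cc x \ (T.cc x ∩ Sk2_855.sk1 T)) :
    IsPreconnected (T.cc x \ Fc) := by
  have hs : (mk2 T hx hd).set = T.cc x := mk2_set hx hd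
  rw [← hs]
  refine conn_C2 _ hB.isCompact ?_ fun g hg => lift_ball hB hg
  intro y hy
  have h1 := hFc hy
  refine ⟨by rw [hs]; exact h1.1, fun hb => h1.2 ⟨h1.1, ?_⟩⟩
  have hyF : y ∈ (mk2 T hx hd).set := by rw [hs]; exact h1.1
  exact ⟨(mk2 T hx hd).set_sub hyF, ((mk2 T hx hd).mem_bd_iff hyF).1 hb⟩

theorem rim_nonempty {x : E} (hx : x ∈ Om) : (T.cc x ∩ Sk2_855.sk1 T).Nonempty := by
  obtain ⟨v, hv, hd⟩ := exists_vertex T hx
  exact ⟨v, hv, T.cc_sub_Om hx hv, by rw [hd]; exact Nat.zero_le _⟩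

end face

section circle

variable {E : Type*} [NormedAddCommGroup E] [NormedSpace ℝ E]

/-- the disc of a circle component of the level set -/
def DiscC (F rim : Set E) (φ : E → ℝ) (t : ℝ) (Γ Fc : Set E) : Prop :=
  (∃ x ∈ F, φ x = t ∧ Γ = connectedComponentIn (Ls F φ t) x) ∧
  IsBall 2 Fc Γ ∧ Fc ⊆ F \ rim ∧ ∃ O, IsOpen O ∧ O ∩ F = Fc \ Γ

theorem DiscC.circ {F rim : Set E} {φ : E → ℝ} {t : ℝ} {Γ Fc : Set E}
    (h : DiscC F rim φ t Γ Fc) : Circ F rim φ t Γ := ⟨h.1, Fc, h.2⟩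

theorem exists_circle_aux {F rim : Set E} (hF : Convex ℝ F)
    (hsep : ∀ Fc Γ : Set E, IsBall 2 Fc Γ → Fc ⊆ F \ rim → IsPreconnected (F \ Fc))
    (hrF : rim ⊆ F) (hne : rim.Nonempty) {φ : E → ℝ} {I : Set ℝ} (h : Lev F rim φ I) {t : ℝ}
    (ht : t ∈ I) (hrt : ∀ y ∈ rim, φ y ≠ t) {z : E} (hz : z ∈ F)
    (hsg : ∀ y ∈ rim, (φ y < t ∧ t < φ z) ∨ (φ z < t ∧ t < φ y)) :
    ∃ Γ Fc : Set E, DiscC F rim φ t Γ Fc ∧ z ∈ Fc := by
  by_contra hcon
  push Not at hcon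
  obtain ⟨w, hw⟩ := hne
  set 𝒦 : Set (Set E) := {Γ | Circ F rim φ t Γ} with h𝒦
  have hcov : ∀ y ∈ F, φ y = t → y ∈ ⋃₀ 𝒦 := by
    intro y hy hyt
    have hyL : y ∈ Ls F φ t := ⟨hy, hyt⟩
    rcases h.comp t ht y hy hyt with h1 | h1
    · obtain ⟨q, hq1, hq2⟩ := h1
      exact absurd (connectedComponentIn_subset _ _ hq1).2 (hrt q hq2)
    · exact ⟨_, h1, mem_connectedComponentIn hyL⟩
  have hd : 𝒦.PairwiseDisjoint id := by
    rintro Γ ⟨⟨a, ha, hat, rfl⟩, -⟩ Γ' ⟨⟨b, hb, hbt, rfl⟩, -⟩ hne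
    rw [Function.onFun, id, id, disjoint_left]
    intro q hq1 hq2
    exact hne (by rw [connectedComponentIn_eq hq1, connectedComponentIn_eq hq2])
  obtain ⟨C, hC, hCF, hzC, hwC⟩ := not_sep_fin hF (h.fin t ht) (𝒦 := 𝒦) (by
      rintro Γ ⟨-, Fc, hB, -⟩
      exact hB.isClosed_bdry) hd hz (hrF hw) (by
      rintro Γ ⟨hΓ, Fc, hB, hFc, hO⟩
      refine ⟨F \ Fc, hsep Fc Γ hB hFc, fun y hy => ⟨hy.1, fun hyΓ => hy.2 (hB.subset hyΓ)⟩,
        ⟨hz, hcon Γ Fc ⟨hΓ, hB, hFc, hO⟩⟩, ⟨hrF hw, fun hwF => (hFc hwF).2 hw⟩⟩)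
  have hcC : ContinuousOn φ C := h.cont.mono fun y hy => (hCF hy).1
  have hiv : ∃ y ∈ C, φ y = t := by
    rcases hsg w hw with h1 | h1
    · obtain ⟨y, hy, e⟩ := hC.intermediate_value hwC hzC hcC ⟨h1.1.le, h1.2.le⟩
      exact ⟨y, hy, e⟩
    · obtain ⟨y, hy, e⟩ := hC.intermediate_value hzC hwC hcC ⟨h1.1.le, h1.2.le⟩
      exact ⟨y, hy, e⟩
  obtain ⟨y, hy, e⟩ := hiv
  exact (hCF hy).2 (hcov y (hCF hy).1 e)

end circle

section main

variable {E : Type} [NormedAddCommGroup E] [NormedSpace ℝ E] [FiniteDimensional ℝ E]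
variable {Om : Set E} {ι : Type} {T : Tiling Om ι}

/-- **the circle around a high point** of a 2-cell with a low rim -/
theorem exists_circle {x : E} (hx : x ∈ Om) (hd : T.dim x = 2) {φ : E → ℝ} {I : Set ℝ}
    (h : Lev (T.cc x) (T.cc x ∩ Sk2_855.sk1 T) φ I) {t : ℝ} (ht : t ∈ I)
    (hr : ∀ y ∈ T.cc x ∩ Sk2_855.sk1 T, φ y < t) {z : E} (hz : z ∈ T.cc x) (hzt : t < φ z) :
    ∃ Γ Fc : Set E, DiscC (T.cc x) (T.cc x ∩ Sk2_855.sk1 T) φ t Γ Fc ∧ z ∈ Fc :=
  exists_circle_aux (T.convex_cc x) (fun _ _ hB hFc => conn_face hx hd hB hFc)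
    inter_subset_left (rim_nonempty hx) h ht (fun y hy => (hr y hy).ne) hz
    (fun y hy => Or.inl ⟨hr y hy, hzt⟩)

/-- the circle around a low point of a 2-cell with a high rim -/
theorem exists_circle' {x : E} (hx : x ∈ Om) (hd : T.dim x = 2) {φ : E → ℝ} {I : Set ℝ}
    (h : Lev (T.cc x) (T.cc x ∩ Sk2_855.sk1 T) φ I) {t : ℝ} (ht : t ∈ I)
    (hr : ∀ y ∈ T.cc x ∩ Sk2_855.sk1 T, t < φ y) {z : E} (hz : z ∈ T.cc x) (hzt : φ z < t) :
    ∃ Γ Fc : Set E, DiscC (T.cc x) (T.cc x ∩ Sk2_855.sk1 T) φ t Γ Fc ∧ z ∈ Fc :=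
  exists_circle_aux (T.convex_cc x) (fun _ _ hB hFc => conn_face hx hd hB hFc)
    inter_subset_left (rim_nonempty hx) h ht (fun y hy => (hr y hy).ne') hz
    (fun y hy => Or.inr ⟨hzt, hr y hy⟩)

end main

end Crest.Agent.R096.Dsc_113
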