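import Crest.Agent.R096.Dff1_539
import Crest.Agent.R096.Frs3_662
import Crest.Agent.R096.Dib3_438
import Crest.Agent.R096.Bgf3_4

/-!
# R096 (row 96), DOORS, upstream composition (helper534), part 1

* `part_of_ext`  : 184's `Part` from 4's `Ext`;
* `up_of_dinR`   : from INIT and 438's second half `DInR` over the combined state `stB` to the input of
  the towers, the slicing, the levels and the towers.
-/

set_option autoImplicit false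
set_option linter.unusedSectionVars false
set_option linter.unusedVariables false
set_option linter.style.longLine false

open Set Relation Module Topology Filter Metric MeasureTheory
open scoped Classical

namespace Crest.Agent.R096.Dup_534

open Crest.Agent.R096.Brk1_582 Crest.Agent.R096.Brk2_582 Crest.Agent.R096.Brk3_582
open Crest.Agent.R096.Brk5_582 Crest.Agent.R096.Bsp_628
open Crest.Agent.R096.St_147 Crest.Agent.R096.Seq_213 Crest.Agent.R096.Seq_213.GSt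
open Crest.Agent.R096.Ac_117 Crest.Agent.R096.Msh_715
open Crest.Agent.R096.Agl4_543 Crest.Agent.R096.Agl5_543 Crest.Agent.R096.Agl6_543
open Crest.Agent.R096.Init_543
open Crest.Agent.R096.Door_501 Crest.Agent.R096.Twr_438 Crest.Agent.R096.Exa_560
open Crest.Agent.R096.Qp_106 Crest.Agent.R096.Ess3_95 Crest.Agent.R096.Ess4_95
open Crest.Agent.R096.Ess7_95 (KT Sh)
open Crest.Agent.R096.Dia_316 (nbT)
open Crest.Agent.R096.Dfi_539 (DIn LevOut)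
open Crest.Agent.R096.Dfi_471 (TwOut s2)
open Crest.Agent.R096.Dff_539 (Mon exists_pipe)
open Crest.Agent.R096.Dis_184 (Part)
open Crest.Agent.R096.Dib_438 (DInR din_sumR)
open Crest.Agent.R096.Bgf_4 (Ext stB GFB famB)
open Crest.Agent.R096.SkC1_961 (E3 Hom3 FoamD)
open Crest.Agent.R096.Mbf_337 (Cores Fine KJ sb)
open Crest.Agent.R096.Frn_337 (Ti)
open Crest.Agent.R096.Frs_662 (slC)

theorem part_of_ext {ι Φ W J C Mo : Type} {M : MeshC ι Φ W} {fam : J → C}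
    {fam' : J ⊕ Mo → C ⊕ Mo} {s : GSt M fam} {s' : GSt M fam'} (h : Ext s s') :
    Part s s' Sum.inl where
  pts := fun w j => (h.pts w j).symm
  mu := fun F w hw hF => h.mu F w ⟨hw, hF⟩

section up

variable {δ κ0 R c0 : ℝ} {La Om : Set E3} {ι : Type} {Φ : FoamD δ κ0 R c0 La} {T : Tiling Om ι}
  {f g : E3 → E3} {κ1 κ2 μ : ℝ} {X : Set Φ.F} {J0 J V : Φ.F → Set ι}
  {ct ct' : Φ.F → ι} {A : Φ.F → E3 ≃ᵃ[ℝ] E3} {lam : Φ.F → ℝ} {z : Φ.F → E3}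
  {θ : Φ.F → E3 → E3} {φ : Φ.F → E3 → ℝ} {r₀ : Φ.F → ℝ}
  {L : Φ.F → Finset ℝ} [Nonempty (JJ Φ L)] {hG : GF Φ r₀ T f L} {bp : JJ Φ L → E3}
  {Mo : Type} {sB : GSt (meshC T fr3) (Sum.map (fun j : JJ Φ L => j.1) (id : Mo → Mo))}
  {bm : Mo → E3} {Sf2 : Mo → Set E3} {nb2 : Ti X → Mo → Prop}
  {v02 v12 : ∀ c, Mo → VxK T (KT T J X) c} {u2 : Ti X → Mo → E3 → ℝ} {A2 B2 : Ti X → Mo → ℝ}

/-- **UPSTREAM**: roots, vertices, `DIn` of the combined state, slices, levels, towers -/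
theorem up_of_dinR (hLa : IsOpen La) (hLc : IsPreconnected La) (hf : Hom3 f Om La)
    (hδ : 0 < δ) (hR : 0 < R) (hκ0 : 0 < κ1) (hκ : 8 * ((Cn δ R + 1) * κ1) ≤ μ) (hμ1 : μ ≤ 1 / 2)
    (hC : Cores Φ T f κ1 κ2 X J0 J V ct A lam z θ φ) (hF : Fine Φ T f κ1 J0)
    {hI : InitR Φ T f g J0 ct' r₀} {ε s₁ : ℝ}
    {hM : Mesh0 T (Pc Φ.F) (bc (F := Φ.F)) (RF Φ r₀) f (KorJ Φ J0) ε} {hε : ε < s₁} {hε1 : ε < 1}
    {D : Φ.F → Set E3} {lam₀ : JJ Φ L → E3 → ZMod 2} {v₀ v₁ : Φ.F → E3}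
    (hS : InitS hLa hI hM hε hε1 hG D bp lam₀ v₀ v₁)
    (hm : ∀ c, ∀ t ∈ L c, μ ≤ t ∧ t ≤ 1 - μ)
    (hext : Ext (st0 hG bp) sB)
    (D2 : DInR (fun c => Dia_316.coreH_KT hC c) sB bm Sf2 nb2 v02 v12 u2 A2 B2) (m : Ti X → ℕ) :
    ∃ (r : JJ Φ L → E3) (v0 v1 : ∀ c, Φ.F → VxK T (KT T J X) c),
      (∀ j, (r j ∈ (st0 hG bp).P ∧ (st0 hG bp).lab (r j) = j) ∧
        ∃ q, r j ∈ P (T.H q) ∧ (∃ c, ∃ x ∈ P (T.H q), f x ∈ Lbp_438.Wl Φ c) ∧ ∀ c, q ∉ V c) ∧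
      (∀ (c : {c : Φ.F // c ∉ X}) a, nbT Φ X c a →
        sb Φ (θ c.1 (v0 c a).1) a ≤ (2 * Cn δ R + 1) * κ1) ∧
      (∀ (c : {c : Φ.F // c ∉ X}) a, nbT Φ X c a →
        1 - (2 * Cn δ R + 1) * κ1 ≤ sb Φ (θ c.1 (v1 c a).1) a) ∧
      DIn (fun c => Dia_316.coreH_KT hC c) sB (Sum.elim r bm)
        (Sum.elim (fun j => Sh Om Φ r₀ f j) Sf2) (fun c => Sum.elim (nbT Φ X c) (nb2 c))
        (fun c => Sum.elim (v0 c) (v02 c)) (fun c => Sum.elim (v1 c) (v12 c))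
        (fun c => Sum.elim (fun a x => sb Φ (θ c.1 x) a) (u2 c))
        (fun c => Sum.elim (fun _ => 1 - μ + Cn δ R * κ1) (A2 c))
        (fun c => Sum.elim (fun _ => 1 - μ / 2) (B2 c)) ∧
      ∃ (n : Ti X → ℕ) (hn : ∀ c, 0 < n c), (∀ c, m c ≤ n c) ∧
        ∃ (Lv : ∀ c, Φ.F ⊕ Mo → Lev T (frontier ((slC hLa hC n hn).K c)) (JJ Φ L ⊕ Mo))
          (Tw : Twrs ((slC hLa hC n hn).sh fr3) (slC hLa hC n hn).n
            (outK (slC hLa hC n hn).hH (slC hLa hC n hn).dis sB (Sum.elim r bm))),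
          LevOut sB (fun c => Sum.elim (nbT Φ X c) (nb2 c))
            (fun c => Sum.elim (fun a x => sb Φ (θ c.1 x) a) (u2 c))
            (fun c => Sum.elim (fun _ => 1 - μ + Cn δ R * κ1) (A2 c))
            (fun c => Sum.elim (fun _ => 1 - μ / 2) (B2 c)) Lv ∧
          TwOut (slC hLa hC n hn) fr3 sB (Sum.elim r bm)
            (fun c => Sum.elim (v0 c) (v02 c)) (fun c => Sum.elim (v1 c) (v12 c)) Lv Tw ∧
          Mon (slC hLa hC n hn) fr3 Lv Tw := by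
  obtain ⟨r, v0, v1, h1, h2, h3, D1⟩ := Dia_316.exists_dIn_init (hH := fun c => Dia_316.coreH_KT hC c)
    hLa hLc hf hδ hR hκ0 hκ hμ1 hC hF hS hm
  have DD := din_sumR (part_of_ext hext) D1 D2
  obtain ⟨n, hn, hmn, Lv, Tw, lo, tt, mon⟩ := exists_pipe hLa hC.tiny DD m
  exact ⟨r, v0, v1, h1, h2, h3, DD, n, hn, hmn, Lv, Tw, lo, tt, mon⟩

end up

end Crest.Agent.R096.Dup_534
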