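import Crest.Agent.R096.Bgf11_4
import Crest.Agent.R096.Dfn5_416
import Crest.Agent.R096.Dup1_534

/-!
# R096 (row 96), DOORS, upstream composition (helper534), part 2: the record of the barriers

* `BarsO`         : the output of 4's `exists_bars` (all moats `BM Φ X` at the tiny cores, state
  `stB hGB bp bm`) with the rooms `Rm` of the tiny cores;
* `exists_barsO`  : from `Cores`, INIT and the numbers;
* positions of the barrier points: `ga_mem`, `ga_lo`, `ga_hi`, `gm_le`, `Fm_le'`, `am_mem`, `mem_V`;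
* `barS`          : 416's `BarS`.
-/

set_option autoImplicit false
set_option linter.unusedSectionVars false
set_option linter.unusedVariables false
set_option linter.style.longLine false

open Set Relation Module Topology Filter Metric MeasureTheory
open scoped Classical

namespace Crest.Agent.R096.Dup_534

open Crest.Agent.R096.Brk1_582 Crest.Agent.R096.Brk2_582 Crest.Agent.R096.Brk3_582
open Crest.Agent.R096.Brk5_582 Crest.Agent.R096.Bsp_628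
open Crest.Agent.R096.St_147 Crest.Agent.R096.Seq_213 Crest.Agent.R096.Seq_213.GSt
open Crest.Agent.R096.Ac_117 Crest.Agent.R096.Msh_715
open Crest.Agent.R096.Main_4 Crest.Agent.R096.Lab_184 Crest.Agent.R096.Ginv_543 Crest.Agent.R096.Coh_184
open Crest.Agent.R096.Agl4_543 Crest.Agent.R096.Agl5_543 Crest.Agent.R096.Agl6_543
open Crest.Agent.R096.Init_543
open Crest.Agent.R96.Push_899
open Crest.Agent.R096.Ess5_95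
open Crest.Agent.R096.Ess8_95 Crest.Agent.R096.Ebr1_95 Crest.Agent.R096.Ebr4_95 Crest.Agent.R096.Bar_106
open Crest.Agent.R096.Exa_560 Crest.Agent.R096.Sphg_316
open Crest.Agent.R096.Bgf_4
open Crest.Agent.R096.Bmf_416 (coT coT_fin am_fin co_fin)
open Crest.Agent.R096.Dfn_416 (BarS barS_stB)
open Crest.Agent.R096.SkC1_961 (E3 Hom3 FoamD IsPush)
open Crest.Agent.R096.Mbf_337 (Cores Fine KJ sb)
open Crest.Agent.R096.Frn_337 (Ti)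

variable {δ κ0 R c0 : ℝ} {La Om : Set E3} {ι : Type} {Φ : FoamD δ κ0 R c0 La} {T : Tiling Om ι}
  {f g : E3 → E3}
variable {X : Set Φ.F} {J0 J V : Φ.F → Set ι} {ct ct' : Φ.F → ι} {A : Φ.F → E3 ≃ᵃ[ℝ] E3}
  {lam : Φ.F → ℝ} {z : Φ.F → E3} {θ : Φ.F → E3 → E3} {φ : Φ.F → E3 → ℝ} {κ1 κ2 : ℝ}
  {ρ1 ρ2 ρ3 ρ4 d : Φ.F → ℝ} {sg l0 mm ra : ℝ} {r₀ : Φ.F → ℝ}
  {L : Φ.F → Finset ℝ} [Nonempty (JJ Φ L)] {hG : GF Φ r₀ T f L} {bp : JJ Φ L → E3}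

/-- **THE OUTPUT OF THE BARRIERS** over 4's combined state `stB hGB bp bm` -/
structure BarsO (X : Set Φ.F) (J0 J V : Φ.F → Set ι) (θ : Φ.F → E3 → E3) (κ1 : ℝ)
    (ρ1 ρ2 ρ3 ρ4 d : Φ.F → ℝ) (sg l0 mm ra : ℝ) (hG : GF Φ r₀ T f L) (bp : JJ Φ L → E3)
    (q₀ : BM Φ X → E3) (ε : BM Φ X → ℝ) (bm : BM Φ X → E3)
    (hGB : GFB Φ r₀ T f L (lBM Φ X ρ1 ρ3 d sg l0 mm ra) ε) : Prop where
  /-- rooms of the tiny cores -/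
  rm : ∀ c ∉ X, Rm Φ T f c (J0 c) (J c) (V c) (θ c) (ρ1 c) (ρ2 c) (ρ3 c) (ρ4 c) (d c)
  dk : ∀ c ∉ X, d c ≤ κ1
  nm : Nm l0 mm ra (1 + sg)
  sg0 : 0 < sg
  barF : BarF Φ T f J0 J V θ (fun m : BM Φ X => m.co) (fun m => ρ1 m.co)
    (fun m => ρ2 m.co) (fun m => ρ3 m.co) (fun m => ρ4 m.co) (fun m => d m.co)
    (fun m => gmf Φ l0 mm ra m.am m.Zm) (fun m => rB ρ1 ρ3 d m.co)
    (fun m => hB ρ1 ρ3 d m.co) (fun _ => 1) (fun m => hiB ρ1 ρ3 d sg m.co)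
    (fun m => max (d m.co / l0) (d m.co / ra)) q₀ (fun _ => 0)
  eps : ∀ m, ε m ∈ Ioo 1 (hiB ρ1 ρ3 d sg m.co)
  base : BBase T f L (lBM Φ X ρ1 ρ3 d sg l0 mm ra) ε bp bm
  ext : Ext (st0 hG bp) (stB hGB bp bm)
  h1 : ∀ j, (stB hGB bp bm).H1 j
  conn : ∀ j, (stB hGB bp bm).Conn j
  triv : ∀ j, TrivF (ZMod 2) (SB Om Φ r₀ f L (lBM Φ X ρ1 ρ3 d sg l0 mm ra) ε j)
  root : ∀ m, bm m ∈ (stB hGB bp bm).P ∧ (stB hGB bp bm).lab (bm m) = Sum.inr m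
  rga : ∀ m, ρ3 m.co + 6 * d m.co ≤ ga Φ m.co (f (bm m)) ∧ ga Φ m.co (f (bm m)) ≤ ρ4 m.co
  rout : ∀ m c, bm m ∉ KJ T (J c)
  /-- positions of the points of the barriers -/
  pos : ∀ m, ∀ w ∈ (stB hGB bp bm).P, (stB hGB bp bm).lab w = Sum.inr m →
    w ∈ Om ∧ T.dim w = 1 ∧ lBM Φ X ρ1 ρ3 d sg l0 mm ra m (f w) = ε m ∧
    (∀ i, w ∈ P (T.H i) → i ∈ V m.co) ∧
    (rB ρ1 ρ3 d m.co - hB ρ1 ρ3 d m.co * ε m ≤ ga Φ m.co (f w) ∧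
      ga Φ m.co (f w) ≤ rB ρ1 ρ3 d m.co + hB ρ1 ρ3 d m.co * ε m ∧
      gmf Φ l0 mm ra m.am m.Zm (Φ.Psi (f w)) ≤ ε m ∧
      (ga Φ m.co (f w) = rB ρ1 ρ3 d m.co - hB ρ1 ρ3 d m.co * ε m ∨
        ga Φ m.co (f w) = rB ρ1 ρ3 d m.co + hB ρ1 ρ3 d m.co * ε m ∨
        gmf Φ l0 mm ra m.am m.Zm (Φ.Psi (f w)) = ε m))
  /-- labels of the barriers: FarL, LOW, HIGH -/
  lab : ∀ m, ∃ lm,
    FarL T (Om ∩ f ⁻¹' {y | ga Φ m.co y ≤ ρ4 m.co}) (gPts (stB hGB bp bm) (Sum.inr m)) lm ∧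
    (∀ b, b + max (d m.co / l0) (d m.co / ra) < ε m →
      IsPreconnected {q | q ∈ frontier m.co.1.set ∧ gmf Φ l0 mm ra m.am m.Zm q ≤ b} →
      0 ≤ b → ∀ v ∈ Om, T.dim v = 0 →
      rB ρ1 ρ3 d m.co - hB ρ1 ρ3 d m.co * ε m + 2 * d m.co ≤ ga Φ m.co (f v) →
      ga Φ m.co (f v) ≤ rB ρ1 ρ3 d m.co + hB ρ1 ρ3 d m.co * ε m - 2 * d m.co →
      gmf Φ l0 mm ra m.am m.Zm (Φ.Psi (f v)) ≤ b → lm v = 1) ∧
    ∀ b, ε m + max (d m.co / l0) (d m.co / ra) < b →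
      IsPreconnected {q | q ∈ frontier m.co.1.set ∧ b ≤ gmf Φ l0 mm ra m.am m.Zm q} →
      {q | q ∈ frontier m.co.1.set ∧ b ≤ gmf Φ l0 mm ra m.am m.Zm q}.Nonempty →
      ∀ v ∈ Om, T.dim v = 0 →
        (ga Φ m.co (f v) ≤ rB ρ1 ρ3 d m.co - hB ρ1 ρ3 d m.co * ε m - 2 * d m.co ∨
          rB ρ1 ρ3 d m.co + hB ρ1 ρ3 d m.co * ε m + 2 * d m.co ≤ ga Φ m.co (f v) ∨
          b ≤ gmf Φ l0 mm ra m.am m.Zm (Φ.Psi (f v))) → lm v = 0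

/-- **the barriers exist** -/
theorem exists_barsO (hLa : IsOpen La) (hδ : 0 < δ) (hR0 : 0 < R)
    (hC : Cores Φ T f κ1 κ2 X J0 J V ct A lam z θ φ) (hI : InitR Φ T f g J0 ct' r₀)
    (hG : GF Φ r₀ T f L) (hsg : 0 < sg) (hN : Nm l0 mm ra (1 + sg)) (hl : κ1 ≤ l0) (hr : κ1 ≤ ra)
    (hL : ∀ c, ∀ t ∈ L c, 0 < t ∧ t < 1) {bp : JJ Φ L → E3}
    (hbp : ∀ j : JJ Φ L, bp j ∈ Om ∧ T.dim (bp j) = 1 ∧ Φ.lev j.1 (f (bp j)) = j.2.1)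
    (N : BM Φ X → Set ℝ) (hN0 : ∀ m, volume (N m) = 0) :
    ∃ (ρ1 ρ2 ρ3 ρ4 d : Φ.F → ℝ) (q₀ : BM Φ X → E3) (ε : BM Φ X → ℝ) (bm : BM Φ X → E3)
      (hGB : GFB Φ r₀ T f L (lBM Φ X ρ1 ρ3 d sg l0 mm ra) ε),
      BarsO X J0 J V θ κ1 ρ1 ρ2 ρ3 ρ4 d sg l0 mm ra hG bp q₀ ε bm hGB ∧ ∀ m, ε m ∉ N m := by
  have h : ∀ c : Φ.F, ∃ ρ1 ρ2 ρ3 ρ4 d : ℝ, c ∉ X → d ≤ κ1 ∧
      Rm Φ T f c (J0 c) (J c) (V c) (θ c) ρ1 ρ2 ρ3 ρ4 d := by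
    intro c
    by_cases hc : c ∈ X
    · exact ⟨0, 0, 0, 0, 0, fun h => absurd hc h⟩
    · obtain ⟨ρ1, ρ2, ρ3, ρ4, d, h⟩ := Ess5_95.exists_rm (hC.tiny c hc)
      exact ⟨ρ1, ρ2, ρ3, ρ4, d, fun _ => h⟩
  choose ρ1 ρ2 ρ3 ρ4 d h using h
  obtain ⟨q₀, ε, bm, hGB, a1, a2, a3, a4, a5, a6, a7, a8, a9, a10, a11, a12, a13⟩ :=
    exists_bars (ρ1 := ρ1) (ρ2 := ρ2) (ρ3 := ρ3) (ρ4 := ρ4) (d := d) hLa hδ hR0 hC hI hG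
      (fun c hc => (h c hc).2) hsg hN (fun c hc => (h c hc).1.trans hl)
      (fun c hc => (h c hc).1.trans hr) hL hbp N hN0
  exact ⟨ρ1, ρ2, ρ3, ρ4, d, q₀, ε, bm, hGB, ⟨fun c hc => (h c hc).2, fun c hc => (h c hc).1, hN, hsg,
    a1, a2, a4, a5, a6, a7, a8, a9, a10, a11, a12, a13⟩, a3⟩

namespace BarsO

variable {q₀ : BM Φ X → E3} {ε : BM Φ X → ℝ} {bm : BM Φ X → E3}
  {hGB : GFB Φ r₀ T f L (lBM Φ X ρ1 ρ3 d sg l0 mm ra) ε}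
  (B : BarsO X J0 J V θ κ1 ρ1 ρ2 ρ3 ρ4 d sg l0 mm ra hG bp q₀ ε bm hGB)
include B

theorem rmm (m : BM Φ X) : Rm Φ T f m.co (J0 m.co) (J m.co) (V m.co) (θ m.co) (ρ1 m.co) (ρ2 m.co)
    (ρ3 m.co) (ρ4 m.co) (d m.co) := B.rm m.co m.co_notMem

theorem dm (m : BM Φ X) : 0 < d m.co ∧ d m.co ≤ κ1 := ⟨(B.rmm m).d0, B.dk _ m.co_notMem⟩

theorem h0 (m : BM Φ X) : 12 * d m.co ≤ hB ρ1 ρ3 d m.co := by
  have hr := B.rmm m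
  unfold hB
  linarith [hr.r12, hr.r23]

theorem eps_lt (m : BM Φ X) : 1 < ε m ∧ ε m < 1 + sg :=
  ⟨(B.eps m).1, (B.eps m).2.trans_le (hiB_le sg m.co)⟩

/-- **the radii**: `ρ1 + 3 d ≤ rm - h ε ≤ ρ1 + 4 d` -/
theorem ra_lo (m : BM Φ X) :
    ρ1 m.co + 3 * d m.co ≤ rB ρ1 ρ3 d m.co - hB ρ1 ρ3 d m.co * ε m ∧
      rB ρ1 ρ3 d m.co - hB ρ1 ρ3 d m.co * ε m ≤ ρ1 m.co + 4 * d m.co := by
  have h1 := rB_sub (ρ1 := ρ1) (ρ3 := ρ3) (d := d) m.co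
  have h2 := hB_mul_hiB (ρ1 := ρ1) (ρ3 := ρ3) (d := d) (sg := sg) (c := m.co)
    (by linarith [B.h0 m, (B.dm m).1])
  have hh : 0 < hB ρ1 ρ3 d m.co := by linarith [B.h0 m, (B.dm m).1]
  have h3 : hB ρ1 ρ3 d m.co * ε m ≤ hB ρ1 ρ3 d m.co * hiB ρ1 ρ3 d sg m.co :=
    mul_le_mul_of_nonneg_left (B.eps m).2.le hh.le
  have h4 : hB ρ1 ρ3 d m.co * 1 ≤ hB ρ1 ρ3 d m.co * ε m :=
    mul_le_mul_of_nonneg_left (B.eps m).1.le hh.le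
  constructor <;> linarith

/-- **the radii**: `ρ3 + 12 d ≤ rm + h ε ≤ ρ3 + 13 d` -/
theorem ra_hi (m : BM Φ X) :
    ρ3 m.co + 12 * d m.co ≤ rB ρ1 ρ3 d m.co + hB ρ1 ρ3 d m.co * ε m ∧
      rB ρ1 ρ3 d m.co + hB ρ1 ρ3 d m.co * ε m ≤ ρ3 m.co + 13 * d m.co := by
  have h1 := rB_add (ρ1 := ρ1) (ρ3 := ρ3) (d := d) m.co
  have h2 := hB_mul_hiB (ρ1 := ρ1) (ρ3 := ρ3) (d := d) (sg := sg) (c := m.co)
    (by linarith [B.h0 m, (B.dm m).1])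
  have hh : 0 < hB ρ1 ρ3 d m.co := by linarith [B.h0 m, (B.dm m).1]
  have h3 : hB ρ1 ρ3 d m.co * ε m ≤ hB ρ1 ρ3 d m.co * hiB ρ1 ρ3 d sg m.co :=
    mul_le_mul_of_nonneg_left (B.eps m).2.le hh.le
  have h4 : hB ρ1 ρ3 d m.co * 1 ≤ hB ρ1 ρ3 d m.co * ε m :=
    mul_le_mul_of_nonneg_left (B.eps m).1.le hh.le
  constructor <;> linarith

/-- a point of a barrier -/
theorem ga_mem {m : BM Φ X} {w : E3} (hw : w ∈ (stB hGB bp bm).P)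
    (hl : (stB hGB bp bm).lab w = Sum.inr m) :
    ρ1 m.co + 3 * d m.co ≤ ga Φ m.co (f w) ∧ ga Φ m.co (f w) ≤ ρ3 m.co + 13 * d m.co := by
  obtain ⟨-, -, -, -, h1, h2, -⟩ := B.pos m w hw hl
  exact ⟨(B.ra_lo m).1.trans h1, h2.trans (B.ra_hi m).2⟩

theorem mem_Om {m : BM Φ X} {w : E3} (hw : w ∈ (stB hGB bp bm).P)
    (hl : (stB hGB bp bm).lab w = Sum.inr m) : w ∈ Om ∧ T.dim w = 1 :=
  ⟨(B.pos m w hw hl).1, (B.pos m w hw hl).2.1⟩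

theorem mem_V {m : BM Φ X} {w : E3} (hw : w ∈ (stB hGB bp bm).P)
    (hl : (stB hGB bp bm).lab w = Sum.inr m) {i : ι} (hi : w ∈ P (T.H i)) : i ∈ V m.co :=
  (B.pos m w hw hl).2.2.2.1 i hi

theorem gm_le {m : BM Φ X} {w : E3} (hw : w ∈ (stB hGB bp bm).P)
    (hl : (stB hGB bp bm).lab w = Sum.inr m) :
    Gm l0 mm ra m.am m.Zm (fun e => Φ.lev e (f w)) ≤ ε m :=
  (B.pos m w hw hl).2.2.2.2.2.2.1

/-- **the deviation of a barrier point** -/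
theorem Fm_le {m : BM Φ X} {w : E3} (hw : w ∈ (stB hGB bp bm).P)
    (hl : (stB hGB bp bm).lab w = Sum.inr m) :
    Fm m.am m.Zm (fun e => Φ.lev e (f w)) ≤ l0 * ε m := by
  have h1 : Fm m.am m.Zm (fun e => Φ.lev e (f w)) / l0 ≤ ε m :=
    (le_max_left _ _).trans (B.gm_le hw hl)
  rwa [div_le_iff₀ B.nm.hl, mul_comm] at h1

/-- **the own coordinate of a barrier point** -/
theorem am_le {m : BM Φ X} {w : E3} (hw : w ∈ (stB hGB bp bm).P)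
    (hl : (stB hGB bp bm).lab w = Sum.inr m) :
    |Φ.lev m.am (f w) - mm| ≤ ra * ε m := by
  have h1 : |Φ.lev m.am (f w) - mm| / ra ≤ ε m :=
    (le_max_right _ _).trans (B.gm_le hw hl)
  rwa [div_le_iff₀ B.nm.hra, mul_comm] at h1

/-- **BarS** -/
theorem barS (hLa : IsOpen La) (hI : InitR Φ T f g J0 ct' r₀) :
    BarS hG bp V coT (stB hGB bp bm) :=
  barS_stB hLa hI B.base (B.barF.bdata hLa) B.eps hGB

end BarsO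

end Crest.Agent.R096.Dup_534
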