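import Crest.Agent.R096.Pas2_753
import Crest.Agent.R096.Ca15_855

/-!
Row 96 (S0127), helper753.  Assembly of `PreIN p`, part 3: the good position (`Pos`), the last part of
`PreIN` (`OutP`), and the literal of the selection (`SelP`).  Definitions only.
-/

set_option autoImplicit false
set_option linter.style.longLine false
set_option linter.unusedSectionVars false

open MeasureTheory Set Filter Topology Metric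
open scoped ENNReal NNReal

namespace Crest.Agent.R096.Pas_753

open Crest.AnalysisR.VecCalc3 Crest.AnalysisR.Sobolev
open Crest.Agent.R096.Msh_715 (Tiling P I)
open Crest.Agent.R096.Mal_874 (CB)
open Crest.Agent.R096.Sk_962 (SH)
open Crest.Agent.R096.Br_695 (En)
open Crest.Agent.R096.Fce_793 (pt)
open Crest.Agent.R096.Ca_855
open Crest.Agent.R096.Gz_812 (HFine)
open Crest.Agent.R096.Pin_753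
open Crest.Agent.R96.Lu_538
open Crest.Agent.R96.Intr_538
open Crest.Agent.R96.Coarse_538
open Crest.Agent.R96.Acl_392
open Crest.Agent.R96.Gdt_538 (MeshG)

noncomputable section

/-- **a position which is good for composite A and for the near-optimality**; `x v` = the edges of the
mesh which meet `W`, `xf ef Pf` = the faces which meet `W` -/
structure Pos (p : ℝ) (Om La W : Set R3) (f : R3 → R3) (G : Fin 3 → R3 → R3) {ι : Type}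
    (T : Tiling Om ι) {κi : Type} (x v : κi → R3) {κf : Type} (xf : κf → R3) (ef : κf → Fin 2 → R3)
    (Pf : κf → Set (ℝ × ℝ)) (κ τ σ₀ η₁ t s d σr : ℝ) (z b : (Fin 3 → ℤ) → R3)
    (L : (Fin 3 → ℤ) → R3 →L[ℝ] R3) (Q : Finset (Fin 3 → ℤ)) (a : R3) : Prop where
  vne : ∀ e, v e ≠ 0
  vle : ∀ e, ‖v e‖ ≤ t
  mesh : MeshG T x v a W
  diam : ∀ i, (P (T.H i) ∩ W).Nonempty → ∀ y ∈ P (T.H i), ∀ y' ∈ P (T.H i), ‖y - y'‖ ≤ t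
  li : ∀ φ, LinearIndependent ℝ (ef φ)
  pcp : ∀ φ, IsCompact (Pf φ)
  psub : ∀ φ, Pf φ ⊆ Icc (0:ℝ) 1 ×ˢ Icc (0:ℝ) 1
  face : ∀ y ∈ Om, T.dim y = 2 → (T.cc y ∩ W).Nonempty → ∃ φ, T.cc y = pt (ef φ) (a + xf φ) '' Pf φ
  acv : ∀ e, ACV Om f (Gmat G) (v e) (a + x e)
  perf : ∀ k ∈ Q, PerfG x v p Om f (Gmat G) κ τ σ₀ η₁ t s a (z k) (b k) (L k)
  faceD : p = 2 → ∀ k ∈ Q, ∀ φ, ∫⁻ u in Pf φ, (cel Cb (z k) s).indicator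
    (fun x => ‖Gmat G x - L k‖ₑ ^ p) (pt (ef φ) (a + xf φ) u) ≤ ENNReal.ofReal (η₁ ^ p)
  res : ResU (p = 2) Om La T f Q z b L κ τ s d σr

/-- **the last part of `PreIN`** (after the blocks) -/
def OutP (p : ℝ) (C : ℝ≥0) (Om La : Set R3) (f : R3 → R3) (G : Fin 3 → R3 → R3)
    (τ hh κw e C1 s δ : ℝ) (η : R3 → ℝ) (a₀ : R3) (Q₀ : Finset (Fin 3 → ℤ)) (b : (Fin 3 → ℤ) → R3)
    (L : (Fin 3 → ℤ) → R3 →L[ℝ] R3) {J : Type} (kk : J → Fin 3 → ℤ) (Qb : J → CB R3 3) (k0 : ℕ)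
    (hk : ∀ j, (Qb j).kc ≤ k0) : Prop :=
  ∃ a : R3, ‖a‖ ≤ κw * s ∧ ∃ Q ⊆ Q₀, ((Q₀ \ Q).card : ℝ) * (2 * s) ^ 3 ≤ δ ∧
  ∃ (f₂ : R3 → R3) (G₂ : Fin 3 → R3 → R3) (er : J → ℝ≥0∞), SH p Om La f₂ G₂ ∧
    (∀ x ∈ Om, ‖f₂ x - f x‖ ≤ η x) ∧
    (∀ k ∈ Q, ∀ x ∈ cel Cb (vt (2 * s) a₀ k) ((1 - τ) * s),
      ‖f₂ x - Bk (b k) (L k) (vt (2 * s) a₀ k) x‖ ≤ C1 * hh * s) ∧
    (∀ j, kk j ∈ Q → InP p f₂ (Gmat G₂) C1 κw s (b (kk j)) (L (kk j))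
      (vt (2 * s) a₀ (kk j)) (er j) ((Qb j).tr a) k0 (hk j)) ∧
    (∑' j : {j // kk j ∈ Q}, er j) ≤ ENNReal.ofReal e ∧
    (∑' j : {j // kk j ∈ Q}, ∫⁻ x in Ly ((Qb j).tr a) k0, (1 + En p G₂ x)) ≤ ENNReal.ofReal e ∧
    (∫⁻ x in Om \ ⋃ j ∈ {j | kk j ∈ Q}, ((Qb j).tr a).N, (1 + En p G₂ x)) ≤
      C * (∫⁻ x in Om \ ⋃ j ∈ {j | kk j ∈ Q}, ((Qb j).tr a).Kc, (1 + En p G x)) + ENNReal.ofReal e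

/-- the structural constants of the mesh (first part of 855's `exists_tile`): `nc` bounds the numbers of
neighbours, `D` the diameters of the tiles which meet a block -/
def TileC (κ : ℝ) (Bs : ℕ) (D : ℝ) (nc : ℕ) : Prop :=
  ∀ {Om W : Set R3} {ρ₀ : R3 → ℝ} {J : Type} [Finite J] {Qb : J → CB R3 3} {k0 Nn : ℕ}
    {σ : ℝ} (h : MIn Om W ρ₀ Qb k0 σ), (∀ j, MIn.BQ κ Bs Nn (Qb j) k0) → ∀ a,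
    (∀ t, {j | (P ((h.T a).H j) ∩ P ((h.T a).H t)).Nonempty}.ncard ≤ nc ∧
      Nat.card (Crest.Agent.R096.Tgr_335.KT (h.T a) t) ≤ nc ∧
      Nat.card (Crest.Agent.R096.Sk3_812.KT (h.T a) t) ≤ nc) ∧
    ∀ j t, (P ((h.T a).H t) ∩ (h.M.Bk (fun _ => h.cl a) j).N).Nonempty →
      ∀ x ∈ P ((h.T a).H t), ∀ y ∈ P ((h.T a).H t), ‖x - y‖ ≤ D / 2 ^ (Qb j).kc

/-- **the selection**: constants of the mesh, good cubes, mesh of the blocks, good positions.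
`t = D * hh * s` is the bound for the diameters of the tiles near `W`. -/
def SelP (p : ℝ) (Om La : Set R3) (f : R3 → R3) (G : Fin 3 → R3 → R3) (ε : ℝ) (Bs : ℕ) : Prop :=
  ∃ κ : ℝ, 0 < κ ∧ κ ≤ 1 ∧ ∃ K ⊆ Om, IsCompact K ∧ ∃ K' ⊆ La, IsCompact K' ∧
  ∃ W ⊆ Om, IsCompact W ∧ K ⊆ W ∧ (∀ y ∈ Om, f y ∈ K' → y ∈ W) ∧ ∃ D : ℝ, 1 ≤ D ∧ ∃ nc : ℕ,
  TileC κ Bs D nc ∧
  ∀ (τ hh c1 c2 θ0 θ1 σ' η₁ : ℝ) (Nn : ℕ), 0 < τ → τ ≤ 1 / 4 → 0 < hh → 0 < c1 → 0 < c2 →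
    0 < θ0 → 0 < θ1 → 0 < σ' → 0 < η₁ → 24 * D * hh ≤ τ → 8 * D * hh ≤ c2 → 48 * θ0 < c2 →
    θ0 ≤ hh → 288 * σ' * D * hh ≤ κ * τ →
  ∀ ρ₀ : R3 → ℝ, (∀ x y, ρ₀ x ≤ ρ₀ y + ‖x - y‖) → (∀ x, 0 ≤ ρ₀ x) → (∀ x, ρ₀ x ≤ 1) →
    (∀ x, 0 < ρ₀ x ↔ x ∈ Om) → (∃ ρmin > 0, ∀ x ∈ W, ρmin ≤ ρ₀ x) →
  ∀ e1 δ : ℝ, 0 < e1 → 0 < δ →
  ∃ s₀ : ℝ, 0 < s₀ ∧ ∀ s : ℝ, 0 < s → s < s₀ → ∀ a₀ : R3,
  ∃ (Q₀ : Finset (Fin 3 → ℤ)) (b : (Fin 3 → ℤ) → R3) (L : (Fin 3 → ℤ) → R3 →L[ℝ] R3),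
    (∀ k ∈ Q₀, (∀ v, κ * ‖v‖ ≤ ‖L k v‖) ∧ ‖L k‖ ≤ κ⁻¹) ∧
    (∀ k ∈ Q₀, cel Cb (vt (2 * s) a₀ k) s ⊆ K) ∧ (∀ k ∈ Q₀, par Cb (L k) (b k) s ⊆ K') ∧
    (∀ k ∈ Q₀, ∀ l ∈ Q₀, k ≠ l →
      Disjoint (par Cb (L k) (b k) ((1 - τ) * s)) (par Cb (L l) (b l) s)) ∧
    (∑ k ∈ Q₀, ∫⁻ x in cel Cb (vt (2 * s) a₀ k) s, ‖Gmat G x - L k‖ₑ ^ p) ≤ ENNReal.ofReal e1 ∧
    volume ((Om ∩ {x | (Gmat G x).det ≠ 0}) \ ⋃ k ∈ Q₀, cel Cb (vt (2 * s) a₀ k) s) ≤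
      ENNReal.ofReal ε ∧
  ∀ (J : Type) [Finite J] (kk : J → Fin 3 → ℤ) (Qb : J → CB R3 3) (k0 : ℕ),
    (∀ j, (Qb j).kc ≤ k0) → (∀ j, kk j ∈ Q₀) →
    (∀ j, BlkP κ s τ hh c1 θ0 θ1 Bs Nn (vt (2 * s) a₀ (kk j)) (Qb j) k0) →
    (∀ i j, i ≠ j → ∀ x ∈ (Qb i).N, ∀ y ∈ (Qb j).N, c2 * s ≤ dist x y) →
  θ1 * s ≤ 1 / 2 ^ k0 → 1 / 2 ^ k0 ≤ θ0 * s →
  ∃ h : MIn Om W ρ₀ Qb k0 (c2 * s),
  ∃ (κi : Type) (_ : Countable κi) (x v : κi → R3) (κf : Type) (_ : Countable κf) (xf : κf → R3)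
    (ef : κf → Fin 2 → R3) (Pf : κf → Set (ℝ × ℝ)),
  ∀ B2 : Set R3, volume B2 ≤ ENNReal.ofReal (1 / 2) * volume (Dt (1 / 2 ^ k0)) →
  ∃ a ∈ Dt (1 / 2 ^ k0), a ∉ B2 ∧ ‖a‖ ≤ 2 / 2 ^ k0 ∧
  ∃ Q ⊆ Q₀, ((Q₀ \ Q).card : ℝ) * (2 * s) ^ 3 ≤ δ ∧
    Pos p Om La W f G (h.T a) x v xf ef Pf κ (τ / 12) (τ / 24) η₁ (D * hh * s) s
      (3 * (nc * (nc * nc) + 2) * (κ⁻¹ * (D * hh * s))) (σ' * (D * hh * s)) (vt (2 * s) a₀) b L Q a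

end

end Crest.Agent.R096.Pas_753
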