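import Crest.Agent.R096.Oi2_961
import Crest.Agent.R096.Pas3_753
import Crest.Agent.R96.Els1_538

/-!
Row 96 (S0127), helper227, (O1): **the deviations along all closed 1-cells of the system** (`Dev` of 961) for the
families of `AllC`, from `Pos` (whose family is another one: the same segments, other parametrisations).
-/

set_option autoImplicit false
set_option linter.style.longLine false
set_option linter.unusedSectionVars false

open MeasureTheory Set Filter Topology Metric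
open scoped ENNReal NNReal

namespace Crest.Agent.R096.Dvp_227

open Crest.AnalysisR.VecCalc3 Crest.AnalysisR.Sobolev
open Crest.Agent.R096.Msh_715 (P I Tiling)
open Crest.Agent.R096.Sq_55 (E3 w2)
open Crest.Agent.R096.Cob_622
open Crest.Agent.R096.Efi_296
open Crest.Agent.R096.Cbs_296
open Crest.Agent.R096.Oi_961 (Dev)
open Crest.Agent.R96.Coarse_538
open Crest.Agent.R96.Intr_538
open Crest.Agent.R96.Gdt_538 (MeshG seg_eq_segment)
open Crest.Agent.R96.Lu_538 (Gmat)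
open Crest.Agent.R96.En10_199 (P3)

noncomputable section

/-- the closed 1-cells of the system in `R3` -/
theorem egs_cc {Om : Set R3} {ι : Type*} {T : Tiling Om ι} {s : Finset ι} (c : EgS (Te T) s) :
    w2 c.1.pt ∈ Om ∧ T.dim (w2 c.1.pt) = 1 ∧ w2 '' c.1.set = T.cc (w2 c.1.pt) := by
  have h0 := c.1.pt_mem
  refine ⟨h0, ?_, ?_⟩
  · have h1 := c.2.1
    rw [← Te_dim]
    exact h1
  · rw [c.1.set_eq]
    ext y
    constructor
    · rintro ⟨z, hz, rfl⟩
      exact (Ttr_622.mem_cc_tr (T := T) (P3.symm : R3 ≃L[ℝ] Sq_55.E3) (x := c.1.pt) (y := z)).1 hz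
    · intro hy
      refine ⟨w2.symm y, ?_, w2.apply_symm_apply y⟩
      refine (Ttr_622.mem_cc_tr (T := T) (P3.symm : R3 ≃L[ℝ] Sq_55.E3) (x := c.1.pt)
        (y := w2.symm y)).2 ?_
      show w2 (w2.symm y) ∈ _
      rw [w2.apply_symm_apply]
      exact hy

/-- **deviations for another family** -/
theorem dev_of_mesh {Om W : Set R3} {ι : Type*} {T : Tiling Om ι} {κi κe : Type*} {x v : κi → R3}
    {x' v' : κe → R3} {a : R3} {s : Finset ι} {me : EgS (Te T) s → κe}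
    (hme : ∀ c, w2 '' c.1.set = seg x' v' a (me c)) (hM : MeshG T x v a W) {C : Set R3}
    (hCW : C ⊆ W) {g : R3 → ℝ≥0∞} {η : ℝ}
    (hE : ∀ i, ∫⁻ σ in Ioc (0:ℝ) 1, C.indicator g (a + x i + σ • v i) ≤ ENNReal.ofReal η) :
    Dev T s x' v' a me C g η := by
  intro c hc
  obtain ⟨h1, h2, h3⟩ := egs_cc c
  have h4 : T.cc (w2 c.1.pt) = seg x' v' a (me c) := by rw [← h3, hme]
  obtain ⟨i, hi⟩ := hM.cell _ h1 h2 (by rw [h4]; exact hc.trans hCW)
  have h5 : segment ℝ (a + x' (me c)) (a + x' (me c) + v' (me c)) =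
      segment ℝ (a + x i) (a + x i + v i) := by
    rw [← seg_eq_segment, ← seg_eq_segment, ← h4, hi]
  rw [(Crest.Agent.R96.Els_538.seg_int h5 (C.indicator g)).2]
  exact hE i

/-- **`Dev` from `Pos`** -/
theorem dev_of_pos {p : ℝ} {Om La W : Set R3} {f : R3 → R3} {G : Fin 3 → R3 → R3} {ι : Type}
    {T : Tiling Om ι} {κi : Type} {x v : κi → R3} {κf : Type} {xf : κf → R3} {ef : κf → Fin 2 → R3}
    {Pf : κf → Set (ℝ × ℝ)} {κ τ σ₀ η₁ t sz d σr : ℝ} {z b : (Fin 3 → ℤ) → R3}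
    {L : (Fin 3 → ℤ) → R3 →L[ℝ] R3} {Q : Finset (Fin 3 → ℤ)} {a : R3}
    (hP : Pas_753.Pos p Om La W f G T x v xf ef Pf κ τ σ₀ η₁ t sz d σr z b L Q a)
    {κe : Type*} {x' v' : κe → R3} {s : Finset ι} {me : EgS (Te T) s → κe}
    (hme : ∀ c, w2 '' c.1.set = seg x' v' a (me c)) {k : Fin 3 → ℤ} (hk : k ∈ Q)
    (hW : cel Cb (z k) sz ⊆ W) :
    Dev T s x' v' a me (cel Cb (z k) sz) (fun y => ‖Gmat G y - L k‖ₑ ^ p) (η₁ ^ p) :=
  dev_of_mesh hme hP.mesh hW (hP.perf k hk).edgeD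

end

end Crest.Agent.R096.Dvp_227
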