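import Crest.Agent.R096.DetR_663

/-!
Row 96 (S0127), helper663.  The Props `BFs`, `NO0` and the patching of a Sobolev homeomorphism on
an open set with compact closure.
-/

set_option autoImplicit false
set_option linter.unusedSectionVars false
set_option linter.style.longLine false

open MeasureTheory Set Filter Topology Metric
open scoped ENNReal Gradient NNReal
open Crest.AnalysisR.VecCalc3 Crest.AnalysisR.Sobolev
open Crest.Agent.R096.Str_696 (LocPL)
open Crest.Agent.R096.Sk_962 (SH Gr Q0 Qc0 Kc Ko dg PLA)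
open Crest.Agent.R96.Lu_538 (Gmat Gmat_apply gmatL)

namespace Crest.Agent.R096.Sk4_663

noncomputable section

/-- the set where the matrix of the rows `G j` is singular -/
def Zd (G : Fin 3 → R3 → R3) : Set R3 := {x | (Gmat G x).det = 0}

/-- **(BFs)**: bounded factor, near optimal off `{det = 0}`. -/
def BFs (p : ℝ) : Prop :=
  ∃ C : ℝ≥0, ∀ (Om La : Set R3) (f : R3 → R3) (G : Fin 3 → R3 → R3),
    IsOpen Om → Bornology.IsBounded Om → IsConnected Om →
    IsOpen La → Bornology.IsBounded La → IsConnected La → SH p Om La f G →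
    ∀ η : R3 → ℝ, ContinuousOn η Om → (∀ x ∈ Om, 0 < η x) →
    ∀ e : ℝ≥0∞, 0 < e →
    ∃ g : R3 → R3, IsHomeomorphOn g Om La ∧ LocPL g Om ∧
      (∀ x ∈ Om, ‖g x - f x‖ ≤ η x) ∧
      ∫⁻ x in Om, ∑ j : Fin 3, ‖Gr g j x - G j x‖ₑ ^ p ≤
        C * (∫⁻ x in Om ∩ Zd G, (1 + ∑ j : Fin 3, ‖G j x‖ₑ ^ p)) + e

/-- **(NO0)**: near a singular orthogonal frame. -/
def NO0 (p : ℝ) : Prop :=
  ∀ s : Fin 3 → ℝ, (∀ i, 0 ≤ s i) → s 2 = 0 → ∀ e : ℝ, 0 < e → ∃ d : ℝ, 0 < d ∧
    ∀ (U W : Set R3) (f : R3 → R3) (G : Fin 3 → R3 → R3),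
      IsOpen U → Bornology.IsBounded U → IsConnected U →
      IsOpen W → Bornology.IsBounded W → IsConnected W → Qc0 ⊆ U →
      SH p U W f G →
      ∫⁻ x in Q0, ∑ j : Fin 3, ‖G j x - dg s j‖ₑ ^ p ≤ ENNReal.ofReal d →
      volume (Q0 \ Zd G) ≤ ENNReal.ofReal d →
      ∃ g : R3 → R3, IsHomeomorphOn g Q0 (f '' Q0) ∧ LocPL g Q0 ∧
        (∀ z ∈ frontier Q0, Tendsto (fun x => g x - f x) (𝓝[Q0] z) (𝓝 0)) ∧
        ∫⁻ x in Q0, ∑ j : Fin 3, ‖Gr g j x - dg s j‖ₑ ^ p ≤ ENNReal.ofReal e

/-! ### patching -/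

section Patch

open Classical in
/-- the patched map -/
def pat (U : Set R3) (g f : R3 → R3) (x : R3) : R3 := if x ∈ U then g x else f x

theorem pat_of_mem {U : Set R3} {g f : R3 → R3} {x : R3} (hx : x ∈ U) : pat U g f x = g x :=
  if_pos hx

theorem pat_of_not {U : Set R3} {g f : R3 → R3} {x : R3} (hx : x ∉ U) : pat U g f x = f x :=
  if_neg hx

theorem pat_eq_near {U : Set R3} (hU : IsOpen U) {g f : R3 → R3} {x : R3} (hx : x ∈ U) :
    pat U g f =ᶠ[𝓝 x] g := by
  filter_upwards [hU.mem_nhds hx] with y hy using pat_of_mem hy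

variable {Om La U : Set R3} {f g : R3 → R3}

theorem pat_sub_cont (hO : IsOpen Om) (hU : IsOpen U) (hUO : closure U ⊆ Om)
    (hf : ContinuousOn f Om) (hg : ContinuousOn g U)
    (hbd : ∀ z ∈ frontier U, Tendsto (fun x => g x - f x) (𝓝[U] z) (𝓝 0)) :
    Continuous (fun x => pat U g f x - f x) := by
  rw [continuous_iff_continuousAt]
  intro x
  by_cases hx : x ∈ U
  · have h1 : ContinuousAt g x := hg.continuousAt (hU.mem_nhds hx)
    have h2 : ContinuousAt f x := hf.continuousAt (hO.mem_nhds (hUO (subset_closure hx)))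
    refine (h1.sub h2).congr ?_
    filter_upwards [pat_eq_near hU (f := f) (g := g) hx] with y hy
    simp [hy]
  · have h0 : pat U g f x - f x = 0 := by rw [pat_of_not hx, sub_self]
    rw [ContinuousAt, h0]
    have h1 : Tendsto (fun x => pat U g f x - f x) (𝓝[Uᶜ] x) (𝓝 0) := by
      refine tendsto_const_nhds.congr' ?_
      filter_upwards [self_mem_nhdsWithin] with y hy
      rw [pat_of_not hy, sub_self]
    have h2 : Tendsto (fun x => pat U g f x - f x) (𝓝[U] x) (𝓝 0) := by
      by_cases hc : x ∈ closure U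
      · have hfr : x ∈ frontier U := ⟨hc, by rwa [hU.interior_eq]⟩
        refine (hbd x hfr).congr' ?_
        filter_upwards [self_mem_nhdsWithin] with y hy
        rw [pat_of_mem hy]
      · rw [mem_closure_iff_nhdsWithin_neBot, not_neBot] at hc
        rw [hc]
        exact tendsto_bot
    have h3 := h1.sup h2
    rwa [← nhdsWithin_union, compl_union_self, nhdsWithin_univ] at h3

theorem pat_homeo (hO : IsOpen Om) (hU : IsOpen U) (hUc : IsCompact (closure U))
    (hUO : closure U ⊆ Om) (hf : IsHomeomorphOn f Om La) (hg : IsHomeomorphOn g U (f '' U))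
    (hbd : ∀ z ∈ frontier U, Tendsto (fun x => g x - f x) (𝓝[U] z) (𝓝 0)) :
    IsHomeomorphOn (pat U g f) Om La := by
  classical
  obtain ⟨fi, f1, f2, f3, f4, f5, f6⟩ := hf
  obtain ⟨gi, g1, g2, g3, g4, g5, g6⟩ := hg
  have hUO' : U ⊆ Om := subset_closure.trans hUO
  have hc : ContinuousOn (pat U g f) Om := by
    have h1 := (pat_sub_cont hO hU hUO f5 g5 hbd).continuousOn (s := Om)
    have h2 := h1.add f5
    refine h2.congr fun x _ => ?_
    simp
  set k : R3 → R3 := fun y => if y ∈ f '' U then gi y else fi y with hk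
  have hk1 : ∀ y ∈ f '' U, k y = gi y := fun y hy => if_pos hy
  have hk2 : ∀ y, y ∉ f '' U → k y = fi y := fun y hy => if_neg hy
  have hnot : ∀ x ∈ Om, x ∉ U → f x ∉ f '' U := by
    rintro x hx hxU ⟨z, hz, hzx⟩
    have : fi (f z) = fi (f x) := by rw [hzx]
    rw [f3 z (hUO' hz), f3 x hx] at this
    exact hxU (this ▸ hz)
  have hleft : ∀ x ∈ Om, k (pat U g f x) = x := by
    intro x hx
    by_cases hxU : x ∈ U
    · rw [pat_of_mem hxU, hk1 _ (g1 hxU), g3 x hxU]
    · rw [pat_of_not hxU, hk2 _ (hnot x hx hxU), f3 x hx]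
  have hright : ∀ y ∈ La, pat U g f (k y) = y := by
    intro y hy
    by_cases hyU : y ∈ f '' U
    · rw [hk1 y hyU, pat_of_mem (g2 hyU), g4 y hyU]
    · rw [hk2 y hyU]
      have : fi y ∉ U := fun h => hyU ⟨fi y, h, f4 y hy⟩
      rw [pat_of_not this, f4 y hy]
  have hmaps : MapsTo (pat U g f) Om La := by
    intro x hx
    by_cases hxU : x ∈ U
    · rw [pat_of_mem hxU]
      obtain ⟨z, hz, hzx⟩ := g1 hxU
      rw [← hzx]
      exact f1 (hUO' hz)
    · rw [pat_of_not hxU]
      exact f1 hx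
  have hmapsk : MapsTo k La Om := by
    intro y hy
    by_cases hyU : y ∈ f '' U
    · rw [hk1 y hyU]
      exact hUO' (g2 hyU)
    · rw [hk2 y hyU]
      exact f2 hy
  refine ⟨k, hmaps, hmapsk, hleft, hright, hc, ?_⟩
  -- continuity of the inverse
  set K := closure U with hKdef
  have himg : f '' K = pat U g f '' K := by
    apply Subset.antisymm
    · rintro y ⟨x, hx, rfl⟩
      by_cases hxU : x ∈ U
      · have hm : f x ∈ f '' U := ⟨x, hxU, rfl⟩
        refine ⟨gi (f x), subset_closure (g2 hm), ?_⟩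
        rw [pat_of_mem (g2 hm), g4 _ hm]
      · exact ⟨x, hx, pat_of_not hxU⟩
    · rintro y ⟨x, hx, rfl⟩
      by_cases hxU : x ∈ U
      · rw [pat_of_mem hxU]
        exact image_mono subset_closure (g1 hxU)
      · rw [pat_of_not hxU]
        exact ⟨x, hx, rfl⟩
  have hcK : ContinuousOn k (f '' K) := by
    rw [himg, continuousOn_iff_isClosed]
    intro t ht
    refine ⟨pat U g f '' (K ∩ t), ?_, ?_⟩
    · exact ((hUc.inter_right ht).image_of_continuousOn
        (hc.mono (inter_subset_left.trans hUO))).isClosed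
    · apply Subset.antisymm
      · rintro y ⟨hy1, x, hx, rfl⟩
        rw [mem_preimage, hleft x (hUO hx)] at hy1
        exact ⟨⟨x, ⟨hx, hy1⟩, rfl⟩, ⟨x, hx, rfl⟩⟩
      · rintro y ⟨⟨x, ⟨hx, hxt⟩, rfl⟩, -⟩
        refine ⟨?_, ⟨x, hx, rfl⟩⟩
        rw [mem_preimage, hleft x (hUO hx)]
        exact hxt
  have hfK : IsClosed (f '' K) :=
    (hUc.image_of_continuousOn (f5.mono hUO)).isClosed
  intro y hy
  have hsub : La ⊆ f '' K ∪ (La \ f '' U) := by
    intro z hz
    by_cases h : z ∈ f '' U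
    · exact Or.inl (image_mono subset_closure h)
    · exact Or.inr ⟨hz, h⟩
  refine ContinuousWithinAt.mono ?_ hsub
  refine ContinuousWithinAt.union ?_ ?_
  · by_cases hyK : y ∈ f '' K
    · exact hcK y hyK
    · have : 𝓝[f '' K] y = ⊥ := by
        rw [← not_neBot, ← mem_closure_iff_nhdsWithin_neBot, hfK.closure_eq]
        exact hyK
      rw [ContinuousWithinAt, this]
      exact tendsto_bot
  · by_cases hyU : y ∈ f '' U
    · have h1 : f '' U ∈ 𝓝[La] y := by
        have h2 : fi ⁻¹' U ∈ 𝓝[La] y := by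
          apply f6 y hy
          obtain ⟨z, hz, hzy⟩ := hyU
          have : fi y = z := by rw [← hzy, f3 z (hUO' hz)]
          rw [this]
          exact hU.mem_nhds hz
        filter_upwards [h2, self_mem_nhdsWithin] with w hw hwL
        exact ⟨fi w, hw, f4 w hwL⟩
      have : 𝓝[La \ f '' U] y = ⊥ := by
        rw [← empty_mem_iff_bot]
        have h3 : f '' U ∈ 𝓝[La \ f '' U] y := nhdsWithin_mono y sdiff_subset h1
        filter_upwards [h3, self_mem_nhdsWithin] with w hw hw'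
        exact hw'.2 hw
      rw [ContinuousWithinAt, this]
      exact tendsto_bot
    · refine ((f6.mono sdiff_subset) y ⟨hy, hyU⟩).congr (fun w hw => hk2 w hw.2) (hk2 y hyU)

end Patch

end

end Crest.Agent.R096.Sk4_663
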