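import Crest.Agent.R096.Acr1_733
import Crest.Agent.R096.Sk4b_663

/-!
Row 96 (S0127), helper466 (leaf [G] of 962's PRE3).  `p > 2`: the points where `det G = 0` stay
points with `det = 0` after composition with a Lipschitz map of the target.
-/

set_option autoImplicit false
set_option linter.unusedSectionVars false
set_option linter.style.longLine false

namespace Crest.Agent.R096.Dz_466

open MeasureTheory Set Filter Topology Metric
open scoped ENNReal NNReal RealInnerProductSpace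
open Crest.AnalysisR.VecCalc3 Crest.AnalysisR.Sobolev
open Crest.Agent.R096.Osc_802 Crest.Agent.R096.LusN_766 Crest.Agent.R096.VolC_766
open Crest.Agent.R096.VolC2_766 Crest.Agent.R96.Lu_538
open Crest.Agent.R096.Sk_962
open Crest.Agent.R096.Sk4_663 (Zd)

/-- difference quotients in the direction `v` -/
theorem tendsto_quot {E F : Type*} [NormedAddCommGroup E] [NormedSpace ℝ E]
    [NormedAddCommGroup F] [NormedSpace ℝ F] {g : E → F} {L : E →L[ℝ] F} {x : E}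
    (hL : HasFDerivAt g L x) (v : E) :
    Tendsto (fun t : ℝ => ‖t⁻¹ • (g (x + t • v) - g x)‖) (𝓝[≠] 0) (𝓝 ‖L v‖) := by
  have h1 : HasDerivAt (fun t : ℝ => g (x + t • v)) (L v) 0 := by
    have h2 : HasDerivAt (fun t : ℝ => x + t • v) v 0 := by
      simpa using ((hasDerivAt_id (0:ℝ)).smul_const v).const_add x
    have h3 : HasFDerivAt g L (x + (0:ℝ) • v) := by simpa using hL
    exact h3.comp_hasDerivAt (0:ℝ) h2
  have h4 := h1.tendsto_slope_zero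
  simp only [zero_add, zero_smul, add_zero] at h4
  exact h4.norm

/-- derivative of a composition with a Lipschitz (not necessarily differentiable) map -/
theorem norm_comp_le {E F F' : Type*} [NormedAddCommGroup E] [NormedSpace ℝ E]
    [NormedAddCommGroup F] [NormedSpace ℝ F] [NormedAddCommGroup F'] [NormedSpace ℝ F']
    {f : E → F} {S : F → F'} {Λ : Set F} {K : ℝ≥0} (hS : LipschitzOnWith K S Λ) {x : E}
    (hm : ∀ᶠ y in 𝓝 x, f y ∈ Λ) {A : E →L[ℝ] F} {B : E →L[ℝ] F'} (hA : HasFDerivAt f A x)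
    (hB : HasFDerivAt (fun y => S (f y)) B x) (v : E) : ‖B v‖ ≤ K * ‖A v‖ := by
  have h1 := tendsto_quot hA v
  have h2 := tendsto_quot hB v
  have h3 : Tendsto (fun t : ℝ => x + t • v) (𝓝[≠] 0) (𝓝 x) := by
    have : Tendsto (fun t : ℝ => x + t • v) (𝓝 0) (𝓝 (x + (0:ℝ) • v)) := by
      apply Continuous.tendsto; fun_prop
    rw [zero_smul, add_zero] at this
    exact this.mono_left nhdsWithin_le_nhds
  refine le_of_tendsto_of_tendsto h2 (h1.const_mul (K : ℝ)) ?_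
  filter_upwards [h3.eventually hm] with t ht
  have h4 := hS.dist_le_mul _ ht _ hm.self_of_nhds
  rw [dist_eq_norm, dist_eq_norm] at h4
  rw [norm_smul, norm_smul]
  calc ‖t⁻¹‖ * ‖S (f (x + t • v)) - S (f x)‖ ≤ ‖t⁻¹‖ * (K * ‖f (x + t • v) - f x‖) :=
        mul_le_mul_of_nonneg_left h4 (norm_nonneg _)
    _ = K * (‖t⁻¹‖ * ‖f (x + t • v) - f x‖) := by ring

/-- determinants under domination `‖B v‖ ≤ K ‖A v‖` -/
theorem det_zero_of_le {E : Type*} [NormedAddCommGroup E] [NormedSpace ℝ E]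
    [FiniteDimensional ℝ E] {A B : E →L[ℝ] E} {K : ℝ} (h : ∀ v, ‖B v‖ ≤ K * ‖A v‖)
    (hA : A.det = 0) : B.det = 0 := by
  have h1 : LinearMap.det (A : E →ₗ[ℝ] E) = 0 := hA
  have h2 := LinearMap.bot_lt_ker_of_det_eq_zero h1
  obtain ⟨v, hv, hv0⟩ := Submodule.exists_mem_ne_zero_of_ne_bot h2.ne'
  have h3 : A v = 0 := by simpa using hv
  have h4 : B v = 0 := by
    have := h v
    rw [h3, norm_zero, mul_zero] at this
    exact norm_le_zero_iff.1 this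
  by_contra hne
  have h5 : IsUnit (LinearMap.det (B : E →ₗ[ℝ] E)) := isUnit_iff_ne_zero.2 hne
  have h6 : (LinearMap.equivOfIsUnitDet h5) v = 0 := by
    rw [LinearMap.equivOfIsUnitDet_apply]
    simpa using h4
  exact hv0 ((LinearEquiv.map_eq_zero_iff _).1 h6)

/-- `‖Gmat G' x v‖ ≤ K ‖Gmat G x v‖` for a.e. `x`, all `v` -/
theorem gmat_comp_le {p : ℝ} (hp : 2 < p) {Ω Λ Λ' : Set R3} (hΩ : IsOpen Ω) (hΛ : IsOpen Λ)
    (hΛ' : IsOpen Λ') {f : R3 → R3} {G G' : Fin 3 → R3 → R3} (h : SH p Ω Λ f G) {S : R3 → R3}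
    {K : ℝ≥0} (hS : LipschitzOnWith K S Λ) (h' : SH p Ω Λ' (fun x => S (f x)) G') :
    ∀ᵐ x, x ∈ Ω → ∀ v, ‖Gmat G' x v‖ ≤ K * ‖Gmat G x v‖ := by
  have hm : MapsTo f Ω Λ := by
    obtain ⟨g, hfm, -⟩ := h.homeo
    exact hfm
  filter_upwards [homeo_ae_diff hΩ hΛ h.homeo h.wg hp h.memG,
    homeo_ae_diff hΩ hΛ' h'.homeo h'.wg hp h'.memG] with x h1 h2 hx v
  have h3 := (h1 hx).2
  have h4 := (h2 hx).2
  rw [rowMap_eq_Gmat] at h3 h4
  exact norm_comp_le hS (by filter_upwards [hΩ.mem_nhds hx] with y hy using hm hy) h3 h4 v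

/-- **leaf [G]** -/
theorem det_comp {p : ℝ} (hp : 2 < p) {Ω Λ Λ' : Set R3} (hΩ : IsOpen Ω) (hΛ : IsOpen Λ)
    (hΛ' : IsOpen Λ') {f : R3 → R3} {G G' : Fin 3 → R3 → R3} (h : SH p Ω Λ f G) {S : R3 → R3}
    {K : ℝ≥0} (hS : LipschitzOnWith K S Λ) (h' : SH p Ω Λ' (fun x => S (f x)) G') :
    ∀ᵐ x, x ∈ Ω → (Gmat G x).det = 0 → (Gmat G' x).det = 0 := by
  filter_upwards [gmat_comp_le hp hΩ hΛ hΛ' h hS h'] with x hx hxΩ h0
  exact det_zero_of_le (hx hxΩ) h0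

/-- `volume {det Gmat G' ≠ 0} ≤ volume {det Gmat G ≠ 0}`, inside any subset of `Ω` -/
theorem volume_det_ne_le {p : ℝ} (hp : 2 < p) {Ω Λ Λ' : Set R3} (hΩ : IsOpen Ω) (hΛ : IsOpen Λ)
    (hΛ' : IsOpen Λ') {f : R3 → R3} {G G' : Fin 3 → R3 → R3} (h : SH p Ω Λ f G) {S : R3 → R3}
    {K : ℝ≥0} (hS : LipschitzOnWith K S Λ) (h' : SH p Ω Λ' (fun x => S (f x)) G')
    {A : Set R3} (hA : A ⊆ Ω) :
    volume (A ∩ {x | (Gmat G' x).det ≠ 0}) ≤ volume (A ∩ {x | (Gmat G x).det ≠ 0}) := by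
  refine measure_mono_ae ?_
  filter_upwards [det_comp hp hΩ hΛ hΛ' h hS h'] with x hx
  intro hx1
  exact ⟨hx1.1, fun h0 => hx1.2 (hx (hA hx1.1) h0)⟩

/-- the same with 663's `Zd` -/
theorem volume_diff_Zd_le {p : ℝ} (hp : 2 < p) {Ω Λ Λ' : Set R3} (hΩ : IsOpen Ω) (hΛ : IsOpen Λ)
    (hΛ' : IsOpen Λ') {f : R3 → R3} {G G' : Fin 3 → R3 → R3} (h : SH p Ω Λ f G) {S : R3 → R3}
    {K : ℝ≥0} (hS : LipschitzOnWith K S Λ) (h' : SH p Ω Λ' (fun x => S (f x)) G')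
    {A : Set R3} (hA : A ⊆ Ω) :
    volume (A \ Zd G') ≤ volume (A \ Zd G) := by
  have h1 := volume_det_ne_le hp hΩ hΛ hΛ' h hS h' hA
  exact h1

end Crest.Agent.R096.Dz_466
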