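import Crest.Agent.R096.Ecm4_446
import Crest.Agent.R096.Exc1_965

/-!
# R096 (row 96), (E1) at the exact cores (337 #10755 (3)(c)), part 1 (helper914)

* `one_of_ring` : abstract: a preconnected set `R` covered by closed sets `A F` (faces of the tile
  `q₀`), two faces which meet on `R` have a common point of the sheet ⟹ the points of the sheet on the
  tile form at most one cycle (= `Gnt.one` of 334);
* `one_state` : the same from the grid `CG` of 446, `Exa` and `F1` for one tile of a tiling.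
-/

set_option autoImplicit false
set_option linter.unusedSectionVars false

open Set Relation

namespace Crest.Agent.R096.E1r_914

open Crest.Agent.R096.St_147 Crest.Agent.R096.Seq_213 Crest.Agent.R096.Lm_117
  Crest.Agent.R096.Ac_117 Crest.Agent.R096.Ecm_446
open Crest.Agent.R096.Bd_416 (Cmb)

/-! ### the abstract lemma -/

section abs

variable {ι Φ W J C X : Type} {M : MeshC ι Φ W} {fam : J → C} {s : GSt M fam} {j : J} {q₀ : ι}

/-- **at most one cycle**: literally `Gnt.one` for the tile `q₀` -/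
def OneCyc (s : GSt M fam) (j : J) (q₀ : ι) : Prop :=
  ∀ Z : Set W, (∀ F w, q₀ ∈ M.side F → w ∈ Z → s.At F w → s.lab w = j → s.mu F w ∈ Z) →
    ∀ F w F' w', q₀ ∈ M.side F → q₀ ∈ M.side F' → s.At F w → s.At F' w' → s.lab w = j →
      s.lab w' = j → w ∈ Z → w' ∈ Z

theorem one_of_ring [TopologicalSpace X] (hfin : {F | q₀ ∈ M.side F}.Finite) {A : Φ → Set X}
    (hA : ∀ F, q₀ ∈ M.side F → IsClosed (A F)) {R : Set X} (hR : IsPreconnected R)
    (hcov : ∀ x ∈ R, ∃ F, q₀ ∈ M.side F ∧ x ∈ A F)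
    (hne : ∀ F w, q₀ ∈ M.side F → s.At F w → s.lab w = j → (R ∩ A F).Nonempty)
    (hcom : ∀ F F', q₀ ∈ M.side F → q₀ ∈ M.side F' → F ≠ F' → ∀ x ∈ R, x ∈ A F → x ∈ A F' →
      ∃ w, s.At F w ∧ s.At F' w ∧ s.lab w = j)
    (h2 : ∀ F w w', q₀ ∈ M.side F → s.At F w → s.At F w' → s.lab w = j → s.lab w' = j →
      w' = w ∨ w' = s.mu F w) : OneCyc s j q₀ := by
  intro Z hZ F w F' w' hF hF' hw hw' hj hj' hwZ
  by_contra hn
  -- if a face contains one point of `Z`, all its points of the sheet are in `Z`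
  have key : ∀ G v v', q₀ ∈ M.side G → s.At G v → s.At G v' → s.lab v = j → s.lab v' = j →
      v ∈ Z → v' ∈ Z := by
    intro G v v' hG hv hv' e e' hvZ
    rcases h2 G v v' hG hv hv' e e' with h | h
    · rw [h]; exact hvZ
    · rw [h]; exact hZ G v hG hvZ hv e
  let U : Set Φ := {G | q₀ ∈ M.side G ∧ ∃ v ∈ Z, s.At G v ∧ s.lab v = j}
  let V : Set Φ := {G | q₀ ∈ M.side G ∧ ¬ ∃ v ∈ Z, s.At G v ∧ s.lab v = j}
  have hUf : U.Finite := hfin.subset fun G h => h.1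
  have hVf : V.Finite := hfin.subset fun G h => h.1
  have c1 : IsClosed (⋃ G ∈ U, A G) := hUf.isClosed_biUnion fun G h => hA G h.1
  have c2 : IsClosed (⋃ G ∈ V, A G) := hVf.isClosed_biUnion fun G h => hA G h.1
  have hFU : F ∈ U := ⟨hF, w, hwZ, hw, hj⟩
  have hFV : F' ∈ V := ⟨hF', fun ⟨v, hvZ, hv, hvj⟩ => hn (key F' v w' hF' hv hw' hvj hj' hvZ)⟩
  obtain ⟨x, hx1, hx2⟩ := hne F w hF hw hj
  obtain ⟨y, hy1, hy2⟩ := hne F' w' hF' hw' hj'
  obtain ⟨z, hz, hz1, hz2⟩ := (isPreconnected_closed_iff.1 hR) _ _ c1 c2 (by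
    intro z hz
    obtain ⟨G, hG, hzG⟩ := hcov z hz
    by_cases h : ∃ v ∈ Z, s.At G v ∧ s.lab v = j
    · exact Or.inl (mem_biUnion (show G ∈ U from ⟨hG, h⟩) hzG)
    · exact Or.inr (mem_biUnion (show G ∈ V from ⟨hG, h⟩) hzG))
    ⟨x, hx1, mem_biUnion hFU hx2⟩ ⟨y, hy1, mem_biUnion hFV hy2⟩
  obtain ⟨G, hG, hzG⟩ := mem_iUnion₂.1 hz1
  obtain ⟨G', hG', hzG'⟩ := mem_iUnion₂.1 hz2
  have hne' : G ≠ G' := fun h => hG'.2 (h ▸ hG.2)
  obtain ⟨v, hv, hv', hvj⟩ := hcom G G' hG.1 hG'.1 hne' z hz hzG hzG'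
  obtain ⟨u, huZ, hu, huj⟩ := hG.2
  exact hG'.2 ⟨v, key G u v hG.1 hu hv huj hvj huZ, hv', hvj⟩

end abs

/-! ### the boundary of an exact core -/

section core

open Crest.Agent.R096.Msh_715 Crest.Agent.R096.Cm_117

variable {E : Type} [NormedAddCommGroup E] [NormedSpace ℝ E] [FiniteDimensional ℝ E]
variable {Om : Set E} {ι ι' Φ Q J C : Type} [PartialOrder Q] {dim : Q → ℕ} {M : MeshC ι' Φ E}
variable {L : LM M Q dim} {T : Tiling Om ι} {i₀ : ι} {q₀ : ι'} {κ : Q → T.Cell}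
variable {fam : J → C} {s : GSt M fam} {U : E → C → ℝ}

theorem half_ne_nat (k n : ℕ) : (k : ℝ) + 1 / 2 ≠ n := by
  intro h
  have h1 : (2 * k + 1 : ℕ) = 2 * n := by
    have : ((2 * k + 1 : ℕ) : ℝ) = ((2 * n : ℕ) : ℝ) := by push_cast; linarith
    exact_mod_cast this
  omega

theorem floor_half (k : ℕ) : ⌊(k : ℝ) + 1 / 2⌋₊ = k ∧ ⌈(k : ℝ) + 1 / 2⌉₊ = k + 1 := by
  constructor
  · rw [Nat.floor_eq_iff (by positivity)]
    constructor <;> linarith
  · rw [Nat.ceil_eq_iff (by omega)]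
    push_cast
    constructor
    · simp
    · linarith

/-- the level `k + 1/2` of the height `a` on the boundary of the tile -/
def lvl (T : Tiling Om ι) (i₀ : ι) (U : E → C → ℝ) (a : C) (k : ℕ) : Set E :=
  {x | x ∈ P (T.H i₀) ∧ x ∉ I (T.H i₀) ∧ U x a = k + 1 / 2}

variable (hT : OnT T L.toSk κ) (G : CG T i₀ U)

/-- the heights of a 1-cell through a point of the level -/
theorem lo_hi_of {p : Q} (hp : p ∈ Dk i₀ κ) {x : E} (hx : x ∈ P (T.H i₀)) (hd : T.dim x ≤ 2)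
    (G : CG T i₀ U) (hcc : T.cc x = (κ p).set) {a : C} {k : ℕ} (hxa : U x a = k + 1 / 2) :
    lo U κ p a = k ∧ hi U κ p a = k + 1 := by
  have hpt := dc_pt hp
  have e1 : T.cc x = T.cc (κ p).pt := by rw [hcc, (κ p).set_eq]
  have h1 := (G.sub hpt.1 hpt.2 (y := x) (by rw [← e1]; exact T.self_mem_cc x)).2.2 a
  have h2 := (G.sub hx hd (y := (κ p).pt) (by rw [e1]; exact T.self_mem_cc _)).2.2 a
  rw [hxa] at h1 h2
  obtain ⟨f1, f2⟩ := floor_half k
  rw [f1, f2] at h2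
  push_cast at h2
  have h3 := Nat.ceil_le_floor_add_one (U (κ p).pt a)
  have k1 : ⌊U (κ p).pt a⌋₊ ≤ k := by
    by_contra hn
    have : (k : ℝ) + 1 ≤ ⌊U (κ p).pt a⌋₊ := by exact_mod_cast (not_le.1 hn)
    linarith [h1.1]
  have k2 : k ≤ ⌊U (κ p).pt a⌋₊ := Nat.le_floor h2.1
  have k3 : k + 1 ≤ ⌈U (κ p).pt a⌉₊ := by
    by_contra hn
    have : (⌈U (κ p).pt a⌉₊ : ℝ) ≤ k := by
      have : ⌈U (κ p).pt a⌉₊ ≤ k := by omega
      exact_mod_cast this
    linarith [h1.2]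
  unfold lo hi
  omega

theorem dim_not_I {x : E} (hx : x ∈ P (T.H i₀)) (hd : T.dim x ≤ 2)
    (h3 : Module.finrank ℝ E = 3) : x ∉ I (T.H i₀) := by
  intro hI
  have h1 := (T.V_eq_top_iff (T.sub i₀ hx)).2 ⟨i₀, hI⟩
  have h2 : T.dim x = 3 := by
    unfold Tiling.dim
    rw [h1, finrank_top, h3]
  omega

/-- **(E1) at one core tile from the grid, one level `[k, k + 1]`**: a cell of the tile contains a
point of the sheet `j` iff its heights in the direction `a` are `k`, `k + 1`. -/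
theorem one_level (h3 : Module.finrank ℝ E = 3) (hT : OnT T L.toSk κ) (G : CG T i₀ U)
    (hκ : ∀ p ∈ Dk i₀ κ, ∀ p' ∈ Dk i₀ κ, κ p = κ p' → p = p')
    (hU : ∀ a, ContinuousOn (fun x => U x a) (P (T.H i₀)))
    (hfin : {F | q₀ ∈ M.side F}.Finite)
    (hside : ∀ F, q₀ ∈ M.side F → L.cf F ∈ Dk i₀ κ)
    (hcov : ∀ x ∈ P (T.H i₀), x ∉ I (T.H i₀) → ∃ F, q₀ ∈ M.side F ∧ x ∈ (κ (L.cf F)).set)
    (h2 : F1 L s (Dk i₀ κ)) {j : J} {a : C} {k : ℕ}
    (hring : (lvl T i₀ U a k).Nonempty → IsPreconnected (lvl T i₀ U a k))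
    (hno : ∀ q ∈ Dk i₀ κ, ∀ w ∈ s.P, w ∈ L.toSk.In q → s.lab w = j →
      lo U κ q a = k ∧ hi U κ q a = k + 1)
    (hex : ∀ q ∈ Dk i₀ κ, dim q = 1 → lo U κ q a = k → hi U κ q a = k + 1 →
      ∃ w ∈ s.P, w ∈ L.toSk.In q ∧ s.lab w = j) : OneCyc s j q₀ := by
  -- faces with a point of the sheet meet the level
  have hne : ∀ F w, q₀ ∈ M.side F → s.At F w → s.lab w = j →
      (lvl T i₀ U a k ∩ (κ (L.cf F)).set).Nonempty := by
    intro F w hF hw hj
    have hD := hside F hF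
    have hpt := dc_pt hD
    obtain ⟨e1, e2⟩ := hno _ hD w hw.1 (on_in le_rfl hw.2) hj
    obtain ⟨y, hy, -, hy2⟩ := G.exists_lo hpt.1 hpt.2
    obtain ⟨y', hy', -, hy2'⟩ := G.exists_hi hpt.1 hpt.2
    have u1 : U y a = k := by rw [hy2]; exact_mod_cast e1
    have u2 : U y' a = k + 1 := by
      rw [hy2']
      have : ((⌈U (κ (L.cf F)).pt a⌉₊ : ℕ) : ℝ) = ((k + 1 : ℕ) : ℝ) := by
        exact_mod_cast e2
      rw [this]; push_cast; ring
    have hsub : T.cc (κ (L.cf F)).pt ⊆ P (T.H i₀) := fun x hx => (G.sub hpt.1 hpt.2 hx).1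
    obtain ⟨x, hx, hxU⟩ := (T.convex_cc (κ (L.cf F)).pt).isPreconnected.intermediate_value hy hy'
      ((hU a).mono hsub) (show (k : ℝ) + 1 / 2 ∈ Icc _ _ from by
        simp only [u1, u2]; constructor <;> linarith)
    have hx' := G.sub hpt.1 hpt.2 hx
    exact ⟨x, ⟨hx'.1, dim_not_I hx'.1 hx'.2.1 h3, hxU⟩, by rw [(κ (L.cf F)).set_eq]; exact hx⟩
  intro Z hZ F w F' w' hF hF' hw hw' hj hj' hwZ
  have hlne : (lvl T i₀ U a k).Nonempty := (hne F w hF hw hj).mono inter_subset_left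
  refine one_of_ring (A := fun F => (κ (L.cf F)).set) hfin (fun F _ => by
      rw [(κ (L.cf F)).set_eq]; exact T.isClosed_cc _)
    (hring hlne) (fun x hx => hcov x hx.1 hx.2.1) hne ?_ ?_ Z hZ F w F' w' hF hF' hw hw'
    hj hj' hwZ
  · -- two faces which meet on the level have a common point of the sheet
    intro F F' hF hF' hFF x hx hxF hxF'
    have hD := hside F hF
    have hD' := hside F' hF'
    have hpt := dc_pt hD
    have hpt' := dc_pt hD'
    have hxc : x ∈ T.cc (κ (L.cf F)).pt := by rw [← (κ (L.cf F)).set_eq]; exact hxF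
    have hxc' : x ∈ T.cc (κ (L.cf F')).pt := by rw [← (κ (L.cf F')).set_eq]; exact hxF'
    have hd2 : T.dim x ≤ 2 := (G.sub hpt.1 hpt.2 hxc).2.1
    have hO : x ∈ Om := T.sub i₀ hx.1
    obtain ⟨p, hp, ep⟩ := hT.down (L.cf F) (T.cl hO) (by
      rw [Tiling.Cell.le_def, T.cl_set, (κ (L.cf F)).set_eq]
      exact T.cc_sub_of_mem hxc)
    obtain ⟨p', hp', ep'⟩ := hT.down (L.cf F') (T.cl hO) (by
      rw [Tiling.Cell.le_def, T.cl_set, (κ (L.cf F')).set_eq]
      exact T.cc_sub_of_mem hxc')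
    have hpD : p ∈ Dk i₀ κ := by
      rcases hp.eq_or_lt with h | h
      · rw [h]; exact hD
      · exact dk_dn hT _ hD p h
    have hpD' : p' ∈ Dk i₀ κ := by
      rcases hp'.eq_or_lt with h | h
      · rw [h]; exact hD'
      · exact dk_dn hT _ hD' p' h
    have hpp : p = p' := hκ p hpD p' hpD' (ep.trans ep'.symm)
    subst hpp
    have hset : T.cc x = (κ p).set := by rw [ep, T.cl_set]
    have hdim : dim p = T.dim x := by
      rw [← hT.dim p, ep]; exact T.dim_cl hO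
    obtain ⟨l1, l2⟩ := lo_hi_of hpD hx.1 hd2 G hset hx.2.2
    have hd1 : dim p = 1 := by
      rcases Nat.lt_or_ge (dim p) 2 with h | h
      · rcases Nat.lt_or_ge (dim p) 1 with h' | h'
        · exfalso
          have h0 : T.dim x = 0 := by omega
          have := G.vtx hx.1 h0 a
          rw [hx.2.2] at this
          exact half_ne_nat _ _ this
        · omega
      · exfalso
        apply hFF
        apply L.cf_inj
        rw [← eq_of_dim L.toSk hp (by rw [L.cf_dim]; exact h),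
          ← eq_of_dim L.toSk hp' (by rw [L.cf_dim]; exact h)]
    obtain ⟨v, hv, hvi, hvj⟩ := hex p hpD hd1 l1 l2
    exact ⟨v, ⟨hv, on_of_in (Sk.In_mono hp hvi)⟩, ⟨hv, on_of_in (Sk.In_mono hp' hvi)⟩, hvj⟩
  · -- two points of the sheet on a face are partners
    intro F w w' hF hw hw' hj hj'
    have hm := s.mu_mem hw.1 hw.2
    rcases h2 _ (hside F hF) (L.cf_dim F) w (s.mu F w) w' hw.1 hm.1 hw'.1 (on_in le_rfl hw.2)
      (on_in le_rfl hm.2) (on_in le_rfl hw'.2) (s.mu_lab hw.1 hw.2).symm (hj.trans hj'.symm)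
      with h | h | h
    · exact absurd h.symm (s.mu_ne hw.1 hw.2)
    · exact Or.inl h.symm
    · exact Or.inr h.symm

/-- **(E1) at one core tile from the grid and `Exa`** (final state): the points of every sheet on
the tile form at most one cycle. -/
theorem one_state (h3 : Module.finrank ℝ E = 3) (hT : OnT T L.toSk κ) (G : CG T i₀ U)
    (hκ : ∀ p ∈ Dk i₀ κ, ∀ p' ∈ Dk i₀ κ, κ p = κ p' → p = p')
    (hU : ∀ a, ContinuousOn (fun x => U x a) (P (T.H i₀)))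
    (hring : ∀ a k, (lvl T i₀ U a k).Nonempty → IsPreconnected (lvl T i₀ U a k))
    (hfin : {F | q₀ ∈ M.side F}.Finite)
    (hside : ∀ F, q₀ ∈ M.side F → L.cf F ∈ Dk i₀ κ)
    (hcov : ∀ x ∈ P (T.H i₀), x ∉ I (T.H i₀) → ∃ F, q₀ ∈ M.side F ∧ x ∈ (κ (L.cf F)).set)
    {hLF : LF L s} {lam : J → Q → ZMod 2} {hX : ∀ j c, L.toSk.XL (gP s j) (lam j) c}
    {lv : J → ℕ} {N : Q → C → ℕ} {n : C → ℕ → ℕ} (hn : ∀ a, Monotone (n a))
    (X : Exa (cmb hLF lam hX) (Dk i₀ κ) fam lv N (fun q a => n a (lo U κ q a))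
      (fun q a => n a (hi U κ q a)))
    (h1 : E1 L s (Dk i₀ κ)) (h2 : F1 L s (Dk i₀ κ)) (j : J) : OneCyc s j q₀ := by
  -- the numbers of a cell with a point of the sheet
  have num : ∀ q ∈ Dk i₀ κ, ∀ w ∈ s.P, w ∈ L.toSk.In q → s.lab w = j →
      n (fam j) (lo U κ q (fam j)) ≤ lv j ∧ lv j < n (fam j) (hi U κ q (fam j)) := by
    intro q hq w hw hwq hj
    have h4 := rng_of_exa hLF hX h1 X q hq (Quot.mk _ ⟨w, hw, hwq⟩ : Pc L s q)
    have h5 : (cmb hLF lam hX).col q (Quot.mk _ ⟨w, hw, hwq⟩ : Pc L s q) = j := hj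
    rw [h5] at h4
    exact h4
  have hstep : ∀ q : Q, hi U κ q (fam j) ≤ lo U κ q (fam j) + 1 := fun q =>
    Nat.ceil_le_floor_add_one _
  intro Z hZ F w F' w' hF hF' hw hw' hj hj' hwZ
  obtain ⟨k1, k2⟩ := num _ (hside F hF) w hw.1 (on_in le_rfl hw.2) hj
  set k := lo U κ (L.cf F) (fam j) with hk
  have k3 : hi U κ (L.cf F) (fam j) = k + 1 := by
    have h4 := hstep (L.cf F)
    have h5 : k < hi U κ (L.cf F) (fam j) := by
      by_contra hn'
      exact absurd (hn (fam j) (not_lt.1 hn')) (by omega)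
    omega
  rw [k3] at k2
  refine one_level (a := fam j) (k := k) h3 hT G hκ hU hfin hside hcov h2 (hring (fam j) k) ?_ ?_
    Z hZ F w F' w' hF hF' hw hw' hj hj' hwZ
  · intro q hq w hw hwq hj
    obtain ⟨m1, m2⟩ := num q hq w hw hwq hj
    have h4 := hstep q
    have h5 : lo U κ q (fam j) ≤ k := by
      by_contra hn'
      have := hn (fam j) (show k + 1 ≤ lo U κ q (fam j) by omega)
      omega
    have h6 : k < hi U κ q (fam j) := by
      by_contra hn'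
      have := hn (fam j) (not_lt.1 hn')
      omega
    omega
  · intro p hpD _ l1 l2
    obtain ⟨y, hy⟩ := X.ex p hpD j (by rw [l1]; exact k1) (by rw [l2]; exact k2)
    obtain ⟨v, hv⟩ := pts_ne (h := hLF) (y : Pc L s p)
    have hvi := pts_in hv
    exact ⟨v, hvi.1, hvi.2, by rw [← pcol_pts hv]; exact hy⟩

/-- **(E1) at one core tile from the grid and the words** (initial state): labels `lam` with
`lam j v = 1` iff the vertex lies in `V j`. -/
theorem one_words (h3 : Module.finrank ℝ E = 3) (hT : OnT T L.toSk κ) (G : CG T i₀ U)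
    (hκ : ∀ p ∈ Dk i₀ κ, ∀ p' ∈ Dk i₀ κ, κ p = κ p' → p = p')
    (hU : ∀ a, ContinuousOn (fun x => U x a) (P (T.H i₀)))
    (hring : ∀ a k, (lvl T i₀ U a k).Nonempty → IsPreconnected (lvl T i₀ U a k))
    (hfin : {F | q₀ ∈ M.side F}.Finite)
    (hside : ∀ F, q₀ ∈ M.side F → L.cf F ∈ Dk i₀ κ)
    (hcov : ∀ x ∈ P (T.H i₀), x ∉ I (T.H i₀) → ∃ F, q₀ ∈ M.side F ∧ x ∈ (κ (L.cf F)).set)
    {τ : J → ℝ} {X V : J → Set E} (Wd : CW T i₀ U fam τ X V) (hXP : ∀ w ∈ s.P, w ∈ P (T.H i₀) → w ∈ X (s.lab w))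
    {lam : J → Q → ZMod 2} (hX : ∀ j c, L.toSk.XL (gP s j) (lam j) c)
    (hl : ∀ v ∈ Dk i₀ κ, dim v = 0 → ∀ j, lam j v = 1 ↔ (κ v).pt ∈ V j) (j : J)
    (hτ : 0 < τ j) : OneCyc s j q₀ := by
  have h1 := E1_core hT Wd hXP (s := s) (L := L)
  have h2 := F1_core hT G Wd hXP (s := s) (L := L)
  -- labels of the vertices
  have hV : ∀ v ∈ Dk i₀ κ, dim v = 0 → (lam j v = 1 ↔ (uu U κ v (fam j) : ℝ) < τ j) := by
    intro v hv h0
    rw [hl v hv h0 j, Wd.side _ (dc_pt hv).1 ((hT.dim v).trans h0) j, ← uu_eq hT G hv h0]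
  -- a 1-cell contains a point of the sheet iff its ends have different labels
  have edge : ∀ e ∈ Dk i₀ κ, dim e = 1 →
      ((∃ w ∈ s.P, w ∈ L.toSk.In e ∧ s.lab w = j) ↔
        lam j (L.en e false) + lam j (L.en e true) = 1) := by
    intro e he he1
    rw [hX j e e le_rfl he1]
    constructor
    · rintro ⟨w, hw, hwe, hwj⟩
      refine nW_one (p := w) (mem_gP.2 ⟨hw, hwj⟩) (in_edge he1 hwe) fun w' hw' hwe' => ?_
      obtain ⟨a1, a2⟩ := mem_gP.1 hw'
      exact h1 _ he he1 w' w a1 hw hwe' (in_edge he1 hwe) (a2.trans hwj.symm)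
    · intro h
      by_contra hn
      push Not at hn
      rw [nW_empty (fun w hw hwe => hn w (mem_gP.1 hw).1 ⟨hwe.1, hwe.2.le⟩ (mem_gP.1 hw).2)] at h
      exact zero_ne_one h
  -- the heights of a 1-cell with a point of the sheet
  have e4 : ∀ a b : ZMod 2, a + b = 1 ↔ ((a = 1 ∧ b ≠ 1) ∨ (a ≠ 1 ∧ b = 1)) := by decide
  have key1 : ∀ e ∈ Dk i₀ κ, dim e = 1 → (∃ w ∈ s.P, w ∈ L.toSk.In e ∧ s.lab w = j) →
      (lo U κ e (fam j) : ℝ) < τ j ∧ τ j ≤ hi U κ e (fam j) := by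
    intro e he he1 hw
    rw [edge e he he1, e4] at hw
    have hD : ∀ b, L.en e b ∈ Dk i₀ κ := fun b => dk_dn hT _ he _ (L.en_lt _ he1 b)
    have hb : ∀ b, lo U κ e (fam j) ≤ uu U κ (L.en e b) (fam j) ∧
        uu U κ (L.en e b) (fam j) ≤ hi U κ e (fam j) := fun b =>
      bd_core hT G e he _ (L.en_lt _ he1 b).le (L.en_dim _ he1 b) (fam j)
    have hv := fun b => hV _ (hD b) (L.en_dim _ he1 b)
    rcases hw with ⟨g1, g2⟩ | ⟨g1, g2⟩
    · rw [hv false] at g1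
      rw [Ne, hv true, not_lt] at g2
      exact ⟨lt_of_le_of_lt (by exact_mod_cast (hb false).1) g1,
        g2.trans (by exact_mod_cast (hb true).2)⟩
    · rw [hv true] at g2
      rw [Ne, hv false, not_lt] at g1
      exact ⟨lt_of_le_of_lt (by exact_mod_cast (hb true).1) g2,
        g1.trans (by exact_mod_cast (hb false).2)⟩
  -- the level of the sheet
  obtain ⟨k, hk⟩ : ∃ k : ℕ, ⌈τ j⌉₊ = k + 1 := by
    have := Nat.ceil_pos.2 hτ
    exact ⟨⌈τ j⌉₊ - 1, by omega⟩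
  have hkl : (k : ℝ) < τ j := by
    by_contra hn
    have := Nat.ceil_le.2 (not_lt.1 hn)
    omega
  have hkr : τ j ≤ ((k + 1 : ℕ) : ℝ) := by rw [← hk]; exact Nat.le_ceil _
  refine one_level (a := fam j) (k := k) h3 hT G hκ hU hfin hside hcov h2 (hring (fam j) k) ?_ ?_
  · intro q hq w hw hwq hj
    have hle : L.ed w ≤ q := hwq.2
    have hwe : w ∈ L.toSk.In (L.ed w) := ⟨hwq.1, le_rfl⟩
    have heD : L.ed w ∈ Dk i₀ κ := by
      rcases hle.eq_or_lt with h | h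
      · rw [h]; exact hq
      · exact dk_dn hT _ hq _ h
    obtain ⟨m1, m2⟩ := key1 _ heD (L.ed_dim w hwq.1) ⟨w, hw, hwe, hj⟩
    have hb : ∀ b, lo U κ q (fam j) ≤ uu U κ (L.en (L.ed w) b) (fam j) ∧
        uu U κ (L.en (L.ed w) b) (fam j) ≤ hi U κ q (fam j) := fun b =>
      bd_core hT G q hq _ ((L.en_lt _ (L.ed_dim w hwq.1) b).le.trans hle)
        (L.en_dim _ (L.ed_dim w hwq.1) b) (fam j)
    -- heights of `q` bound those of the 1-cell
    obtain ⟨v, hv, hv0, ev⟩ := lo_core hT G _ heD (fam j)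
    obtain ⟨v', hv', hv0', ev'⟩ := hi_core hT G _ heD (fam j)
    have b1 := (bd_core hT G q hq v (hv.trans hle) hv0 (fam j)).1
    have b2 := (bd_core hT G q hq v' (hv'.trans hle) hv0' (fam j)).2
    rw [ev] at b1
    rw [ev'] at b2
    have c1 : (lo U κ q (fam j) : ℝ) < τ j := lt_of_le_of_lt (by exact_mod_cast b1) m1
    have c2 : τ j ≤ (hi U κ q (fam j) : ℝ) := m2.trans (by exact_mod_cast b2)
    have c3 : hi U κ q (fam j) ≤ lo U κ q (fam j) + 1 := Nat.ceil_le_floor_add_one _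
    have c4 : k + 1 ≤ hi U κ q (fam j) := by rw [← hk]; exact Nat.ceil_le.2 c2
    have c5 : lo U κ q (fam j) < k + 1 := by
      have : (lo U κ q (fam j) : ℝ) < ((k + 1 : ℕ) : ℝ) := c1.trans_le hkr
      exact_mod_cast this
    omega
  · intro p hpD hp1 l1 l2
    rw [edge p hpD hp1, e4]
    have hD : ∀ b, L.en p b ∈ Dk i₀ κ := fun b => dk_dn hT _ hpD _ (L.en_lt _ hp1 b)
    have hv := fun b => hV _ (hD b) (L.en_dim _ hp1 b)
    -- the two ends have the heights `k` and `k + 1`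
    obtain ⟨v, hv1, hv0, ev⟩ := lo_core hT G _ hpD (fam j)
    obtain ⟨v', hv1', hv0', ev'⟩ := hi_core hT G _ hpD (fam j)
    rw [l1] at ev
    rw [l2] at ev'
    have lt1 : v < p := lt_of_le_of_ne hv1 fun h => by rw [h, hp1] at hv0; exact one_ne_zero hv0
    have lt2 : v' < p := lt_of_le_of_ne hv1' fun h => by rw [h, hp1] at hv0'; exact one_ne_zero hv0'
    have h01 : ∀ w : Q, dim w = 0 → w ∈ Dk i₀ κ → uu U κ w (fam j) = k → lam j w = 1 := by
      intro w hw hwD e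
      rw [hV w hwD hw, e]; exact hkl
    have h02 : ∀ w : Q, dim w = 0 → w ∈ Dk i₀ κ → uu U κ w (fam j) = k + 1 → lam j w ≠ 1 := by
      intro w hw hwD e
      rw [Ne, hV w hwD hw, e, not_lt]; exact hkr
    have hvD := dk_dn hT _ hpD _ lt1
    have hvD' := dk_dn hT _ hpD _ lt2
    rcases L.en_all p hp1 v lt1 with e1 | e1 <;> rcases L.en_all p hp1 v' lt2 with e2 | e2
    · exfalso
      rw [e1] at ev; rw [e2] at ev'; omega
    · left
      rw [← e1, ← e2]
      exact ⟨h01 v hv0 hvD ev, h02 v' hv0' hvD' ev'⟩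
    · right
      rw [← e1, ← e2]
      exact ⟨h02 v' hv0' hvD' ev', h01 v hv0 hvD ev⟩
    · exfalso
      rw [e1] at ev; rw [e2] at ev'; omega

end core

end Crest.Agent.R096.E1r_914
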