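import Crest.Agent.R096.Ecm3_446
import Crest.Agent.R096.Gm4_298
import Crest.Agent.R096.Gl12_422

/-!
# R096 (row 96), BASE-DISC, leaf (a) of 446 #10894 (helper63)

The cells of the placement skeleton are cells of the tiling, and the 1-cells of a tile which is
active for no quad are frozen.

* `exists_face` : a 1-cell of the tile `i` lies on a 2-cell `F` with `i ∈ side F`;
* `frE_T` : `FrE (lmT T h3) Qd c e`; `frE_K` : `FrE (lmK ..) Qd c e` for a tile outside the giants;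
* `onT_glue_sub` : `OnT` for a subcomplex without giants of a glued skeleton;
* instances: `onT_R`, `hfr_R`, `sur_R`, `inj_R`, .. for 298's `lmR`; `onT_sb`, `hfr_sb`, .. for
  422's `sb (lmK ..)` and any `p` without giants; `onT_O`, `hfr_O` for `lmO`; `onT_sbT`, `hfr_sbT`
  for `sb (lmT ..)` (no tiny core).
-/

set_option autoImplicit false
set_option linter.unusedSectionVars false

open Set Relation Module

namespace Crest.Agent.R096.Onb_63

open Crest.Agent.R096.Msh_715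
open Crest.Agent.R096.St_147 Crest.Agent.R096.Seq_213 Crest.Agent.R096.Seq_213.GSt
  Crest.Agent.R096.Lm_117 Crest.Agent.R096.Ac_117 Crest.Agent.R096.Gl_422
open Crest.Agent.R096.Lab_184 Crest.Agent.R096.Agl5_543
open Crest.Agent.R096.Cm_117 (cell_sub cell_cc dim_lt_cell)
open Crest.Agent.R096.Ecm_446 Crest.Agent.R096.Gm_298

variable {E : Type} [NormedAddCommGroup E] [NormedSpace ℝ E] [FiniteDimensional ℝ E]
variable {Om : Set E} {ι : Type} {T : Tiling Om ι} {κ : Type} {Kc : κ → Set E}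

/-! ### faces of a tile -/

section face

variable [Nonempty T.Cell] (h3 : finrank ℝ E = 3)

/-- a 1-cell of the tile `i` lies on a 2-cell of the tile `i` -/
theorem exists_face {i : ι} {e : T.Cell} (he : e.dim = 1) (hei : e.set ⊆ P (T.H i)) :
    ∃ F : C2 T, e ≤ F.1 ∧ i ∈ (meshC T h3).side F := by
  have h1 : e ≤ tcell T i := by
    show e.set ⊆ (tcell T i).set
    rw [tcell_set]
    exact hei
  have h2 : e < tcell T i := by
    refine lt_of_le_of_ne h1 fun h => ?_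
    have h4 := tcell_dim (T := T) h3 i
    rw [← h, he] at h4
    omega
  obtain ⟨F, h4, h5⟩ := (top3T (T := T) h3).mid (tcell T i) (tcell_dim h3 i) e he h2
  refine ⟨F, h4, Cm_117.face_side' (c := tcell T i) (tcell_set i) ?_⟩
  exact h5

end face

/-! ### frozen 1-cells -/

section fr

variable {ι' Φ W Q C K : Type} [PartialOrder Q] {dim : Q → ℕ} {M : MeshC ι' Φ W} {L : LM M Q dim}
  {Qd : Quads ι' C K}

/-- a 1-cell on a face of a tile which is active for no quad -/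
theorem frE_of_face {q : ι'} (hact : ∀ k, q ∉ Qd.Act k) {e : Q} {F : Φ} (hF : e ≤ L.cf F)
    (hq : q ∈ M.side F) (c : C) : FrE L Qd c e :=
  fun k _ => ⟨F, hF, q, hq, hact k⟩

end fr

section inst

variable [Nonempty T.Cell] (h3 : finrank ℝ E = 3) {C K : Type} {i₀ : ι}

/-- the tiling -/
theorem frE_T {Qd : Quads ι C K} (hact : ∀ k, i₀ ∉ Qd.Act k) {e : T.Cell} (he : e.dim = 1)
    (hei : e.set ⊆ P (T.H i₀)) (c : C) : FrE (lmT T h3) Qd c e := by
  obtain ⟨F, h1, h2⟩ := exists_face h3 he hei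
  exact frE_of_face hact h1 h2 c

variable (hH : ∀ c, CoreH T (Kc c)) (hdis : ∀ c c', c ≠ c' → Disjoint (Kc c) (Kc c'))

/-- a face of a tile outside the giants is a face of the merged mesh -/
theorem exists_faceK (hout : ∀ k, ¬ P (T.H i₀) ⊆ Kc k) {e : T.Cell} (he : e.dim = 1)
    (hei : e.set ⊆ P (T.H i₀)) :
    ∃ F : {F : C2 T // ¬ (((meshC T h3).side F).map (piK T Kc)).IsDiag}, e ≤ F.1.1 ∧
      Sum.inl i₀ ∈ (mK h3 hH hdis).side F := by
  obtain ⟨F, h1, h2⟩ := exists_face h3 he hei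
  have hFi : F.set ⊆ P (T.H i₀) := C2.sub_tile (h3 := h3) h2
  refine ⟨⟨F, out_face h3 F ⟨i₀, hout, hFi⟩⟩, h1, ?_⟩
  show Sum.inl i₀ ∈ ((meshC T h3).side F).map (piK T Kc)
  rw [mem_map_iff]
  exact ⟨i₀, h2, piK_inl.2 ⟨rfl, hout⟩⟩

variable (hne : ∃ c, OutK T Kc c)

/-- **`lmO`** -/
theorem frE_O {Qd : Quads (ι ⊕ κ) C K} (hact : ∀ k, Sum.inl i₀ ∉ Qd.Act k)
    (hout : ∀ k, ¬ P (T.H i₀) ⊆ Kc k) {e : {c : T.Cell // OutK T Kc c}} (he : e.1.dim = 1)
    (hei : e.1.set ⊆ P (T.H i₀)) (c : C) : FrE (lmO h3 hH hdis hne) Qd c e := by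
  obtain ⟨F, h1, h2⟩ := exists_faceK h3 hH hdis hout he hei
  exact frE_of_face hact (L := lmO h3 hH hdis hne) (F := F) h1 h2 c

/-- **`lmK`** -/
theorem frE_K {Qd : Quads (ι ⊕ κ) C K} (hact : ∀ k, Sum.inl i₀ ∉ Qd.Act k)
    (hout : ∀ k, ¬ P (T.H i₀) ⊆ Kc k) {e : {c : T.Cell // OutK T Kc c}} (he : e.1.dim = 1)
    (hei : e.1.set ⊆ P (T.H i₀)) (c : C) : FrE (lmK h3 hH hdis hne) Qd c (QK.c _ e) := by
  obtain ⟨F, h1, h2⟩ := exists_faceK h3 hH hdis hout he hei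
  exact frE_of_face hact (L := lmK h3 hH hdis hne) (F := F) h1 h2 c

end inst

/-! ### `OnT` -/

section onT

variable [Nonempty T.Cell]

open Classical in
/-- the cell of the tiling of a cell of `QK` (arbitrary at the giants) -/
noncomputable def kap {Q : Type} [PartialOrder Q] {b : Bel Q κ} (κ' : Q → T.Cell) : QK b → T.Cell :=
  Sum.elim κ' fun _ => Classical.arbitrary _

theorem kap_c {Q : Type} [PartialOrder Q] {b : Bel Q κ} {κ' : Q → T.Cell} (c : Q) :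
    kap κ' (QK.c b c) = κ' c := rfl

variable {Q : Type} [PartialOrder Q] {dim : Q → ℕ} {ι' Φ : Type} {M : MeshC ι' Φ E}
  {L : Sk E Q dim} {κ' : Q → T.Cell} {b : Bel Q κ} {cf : Φ → Q} {H : BelH L M cf b}

/-- a cell of a subcomplex without giants -/
theorem exists_c {p : QK b → Prop} (hk : ∀ k, ¬ p (QK.k b k)) (x : {c : QK b // p c}) :
    ∃ c : Q, x.1 = QK.c b c := by
  obtain ⟨x, hx⟩ := x
  rcases x with c | k
  · exact ⟨c, rfl⟩
  · exact absurd hx (hk k)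

/-- **`OnT` for a subcomplex without giants** -/
theorem onT_glue_sub (h : OnT T L κ') (p : QK b → Prop) (hp : ∀ c d, c ≤ d → p d → p c)
    (hne : ∃ c, p c) (hk : ∀ k, ¬ p (QK.k b k)) :
    OnT T ((L.glue b H).sub p hp hne) (fun c => kap κ' c.1) where
  w1 := fun w hw => h.w1 w hw.1
  mono := by
    intro x y hxy
    obtain ⟨c, hc⟩ := exists_c hk x
    obtain ⟨d, hd⟩ := exists_c hk y
    have h1 : x.1 ≤ y.1 := hxy
    rw [hc, hd] at h1
    rw [hc, hd, kap_c, kap_c]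
    exact h.mono _ _ h1
  dim := by
    intro x
    obtain ⟨c, hc⟩ := exists_c hk x
    rw [hc]
    exact h.dim c
  ed := fun w hw => by
    show (kap κ' (subEd (L.glue b H) p hne w).1).set = T.cc w
    rw [subEd_eq hw.2]
    exact h.ed w hw.1
  down := by
    intro x c hc
    obtain ⟨d, hd⟩ := exists_c hk x
    rw [hd, kap_c] at hc
    obtain ⟨r, h1, h2⟩ := h.down d c hc
    refine ⟨⟨QK.c b r, hp _ _ (show QK.c b r ≤ x.1 by rw [hd]; exact h1) x.2⟩, ?_, h2⟩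
    show QK.c b r ≤ x.1
    rw [hd]; exact h1

end onT

/-! ### the skeletons of the row -/

section main

variable [Nonempty T.Cell] {h3 : finrank ℝ E = 3} {hH : ∀ c, CoreH T (Kc c)}
  {hdis : ∀ c c', c ≠ c' → Disjoint (Kc c) (Kc c')} {hne : ∃ c, OutK T Kc c}
  {C K : Type} {i₀ : ι}

/-- `OnT` for 117's `lmO` -/
theorem onT_O : OnT T (lmO h3 hH hdis hne).toSk (fun c => c.1) :=
  onT_sub (onT_skT T) (OutK T Kc) outK_down hne

/-- the underlying cell of the tiling -/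
noncomputable abbrev kT (T : Tiling Om ι) [Nonempty T.Cell] (Kc : κ → Set E)
    (p : QK (belK T Kc) → Prop) (x : {c : QK (belK T Kc) // p c}) : T.Cell :=
  kap (fun c : {c : T.Cell // OutK T Kc c} => c.1) x.1

/-- **`OnT` for any subcomplex of `lmK` without giants** -/
theorem onT_K (p : QK (belK T Kc) → Prop) (hp : ∀ c d, c ≤ d → p d → p c) (hpe : ∃ c, p c)
    (hk : ∀ k, ¬ p (QK.k _ k)) :
    OnT T ((lmK h3 hH hdis hne).toSk.sub p hp hpe) (kT T Kc p) :=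
  onT_glue_sub (H := belH_K h3 hH hdis hne) (onT_O (h3 := h3) (hH := hH) (hdis := hdis)
    (hne := hne)) p hp hpe hk

theorem kT_inj {p : QK (belK T Kc) → Prop} (hk : ∀ k, ¬ p (QK.k _ k)) :
    Function.Injective (kT T Kc p) := by
  intro x y h
  obtain ⟨c, hc⟩ := exists_c hk x
  obtain ⟨d, hd⟩ := exists_c hk y
  apply Subtype.ext
  have h1 : c.1 = d.1 := by
    have h4 : kap (fun c : {c : T.Cell // OutK T Kc c} => c.1) x.1 =
      kap (fun c : {c : T.Cell // OutK T Kc c} => c.1) y.1 := h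
    rw [hc, hd] at h4
    exact h4
  rw [hc, hd, Subtype.ext h1]

/-- order embedding -/
theorem kT_le {p : QK (belK T Kc) → Prop} (hk : ∀ k, ¬ p (QK.k _ k))
    {x y : {c : QK (belK T Kc) // p c}} : x ≤ y ↔ kT T Kc p x ≤ kT T Kc p y := by
  obtain ⟨c, hc⟩ := exists_c hk x
  obtain ⟨d, hd⟩ := exists_c hk y
  show x.1 ≤ y.1 ↔ kap (fun c : {c : T.Cell // OutK T Kc c} => c.1) x.1 ≤
    kap (fun c : {c : T.Cell // OutK T Kc c} => c.1) y.1
  rw [hc, hd]
  exact Iff.rfl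

/-- every cell of dimension at most two of a tile outside the giants is a cell of the subcomplex -/
theorem kT_sur {p : QK (belK T Kc) → Prop}
    (h2 : ∀ c, dimK (belK T Kc) (fun c => c.1.dim) c ≤ 2 → p c)
    (hout : ∀ k, ¬ P (T.H i₀) ⊆ Kc k) {x : T.Cell} (hx : x.set ⊆ P (T.H i₀)) (hd : x.dim ≤ 2) :
    ∃ q, kT T Kc p q = x :=
  ⟨⟨QK.c _ ⟨x, i₀, hout, hx⟩, h2 _ hd⟩, rfl⟩

/-- **the 1-cells of an inactive tile are frozen** (any subcomplex without giants, same mesh) -/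
theorem hfr_K {p : QK (belK T Kc) → Prop} {hp : ∀ c d, c ≤ d → p d → p c} {hpe : ∃ c, p c}
    {h2 : ∀ c, dimK (belK T Kc) (fun c => c.1.dim) c ≤ 2 → p c} (hk : ∀ k, ¬ p (QK.k _ k))
    {Qd : Quads (ι ⊕ κ) C K} (hact : ∀ k, Sum.inl i₀ ∉ Qd.Act k)
    (hout : ∀ k, ¬ P (T.H i₀) ⊆ Kc k) :
    ∀ e ∈ Dk i₀ (kT T Kc p), dimK (belK T Kc) (fun c => c.1.dim) e.1 = 1 → ∀ c,
      FrE (sb (lmK h3 hH hdis hne) p hp hpe h2) Qd c e := by
  intro e he hd c
  obtain ⟨x, hx⟩ := exists_c hk e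
  rw [frE_sb, hx]
  have h1 : kT T Kc p e = x.1 := by
    show kap (fun c : {c : T.Cell // OutK T Kc c} => c.1) e.1 = x.1
    rw [hx]; rfl
  rw [hx] at hd
  refine frE_K h3 hH hdis hne hact hout (show x.1.dim = 1 from hd) ?_ c
  rw [← h1]
  exact he.1

/-! #### 298's `lmR` -/

theorem nr_k {R : Set ι} (k : κ) : ¬ NR T Kc R (QK.k _ k) := fun h => h

/-- **`OnT` for `lmR`** -/
theorem onT_R (R : Set ι) : OnT T (lmR h3 hH hdis hne R).toSk (kT T Kc (NR T Kc R)) :=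
  onT_K _ _ _ nr_k

/-- **`hfr` for `lmR`** -/
theorem hfr_R (R : Set ι) {Qd : Quads (ι ⊕ κ) C K} (hact : ∀ k, Sum.inl i₀ ∉ Qd.Act k)
    (hout : ∀ k, ¬ P (T.H i₀) ⊆ Kc k) :
    ∀ e ∈ Dk i₀ (kT T Kc (NR T Kc R)), dimK (belK T Kc) (fun c => c.1.dim) e.1 = 1 → ∀ c,
      FrE (lmR h3 hH hdis hne R) Qd c e :=
  fun e he hd c => hfr_K (h3 := h3) (hH := hH) (hdis := hdis) (hne := hne) (p := NR T Kc R)
    (hp := nr_down h3 R) (hpe := nr_ne h3 hne R) (h2 := nr_two h3 R) nr_k hact hout e he hd c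

theorem inj_R (R : Set ι) : Function.Injective (kT T Kc (NR T Kc R)) := kT_inj nr_k

theorem sur_R (h3 : finrank ℝ E = 3) (R : Set ι) (hout : ∀ k, ¬ P (T.H i₀) ⊆ Kc k) {x : T.Cell}
    (hx : x.set ⊆ P (T.H i₀)) (hd : x.dim ≤ 2) : ∃ q, kT T Kc (NR T Kc R) q = x :=
  kT_sur (nr_two h3 R) hout hx hd

/-! #### 422's `sb` over the tiling (no tiny core) -/

/-- `OnT` for `sb (lmT ..)` -/
theorem onT_sbT (p : T.Cell → Prop) (hp : ∀ c d, c ≤ d → p d → p c) (hpe : ∃ c, p c)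
    (h2 : ∀ c : T.Cell, c.dim ≤ 2 → p c) :
    OnT T (sb (lmT T h3) p hp hpe h2).toSk (fun c => c.1) :=
  onT_sub (onT_skT T) p hp hpe

theorem hfr_sbT {p : T.Cell → Prop} {hp : ∀ c d, c ≤ d → p d → p c} {hpe : ∃ c, p c}
    {h2 : ∀ c : T.Cell, c.dim ≤ 2 → p c} {Qd : Quads ι C K} (hact : ∀ k, i₀ ∉ Qd.Act k) :
    ∀ e ∈ Dk i₀ (fun c : {c : T.Cell // p c} => c.1), e.1.dim = 1 → ∀ c,
      FrE (sb (lmT T h3) p hp hpe h2) Qd c e :=
  fun _ he hd c => frE_sb.2 (frE_T h3 hact hd he.1 c)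

end main

end Crest.Agent.R096.Onb_63
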