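import Crest.Agent.R096.Shg6_334
import Crest.Agent.R096.Csub8_487

/-!
# R096 (row 96), ARR-SH (helper334), GIANT part 7: the sheets of 147's `fin_gout`

* `Emb.sheetK` : `Emb.sheet` with any name for the sets of the cells;
* `embR` : 298's index type `{c : QK (belK T KK) // NR T KK R c}` (`lmR`) names the cells outside all
  cores; `tlX`, `cor2X` : the tiles of the cores (337 #10755);
* `sheets_fin` : the hypothesis `sheets` of 147's `fin_gout` from the spheres;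
* `sheets_out` : everything together over `lmR`.
-/

set_option autoImplicit false
set_option linter.unusedSectionVars false

open Set Metric Topology Module

namespace Crest.Agent.R096.Shg_334

open Crest.Agent.R096.Ce_537 Crest.Agent.R096.Bd_416 Crest.Agent.R096.Shp_334
  Crest.Agent.R096.Seq_213 Crest.Agent.R096.St_147 Crest.Agent.R096.Lm_117

section emb

open Crest.Agent.R096.Ac_117
open Crest.Agent.R096.Msh_715 Crest.Agent.R096.Lab_184 Crest.Agent.R096.Agl5_543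
  Crest.Agent.R096.Pat5_543 Crest.Agent.R096.Coh_184

variable {E : Type} [NormedAddCommGroup E] [NormedSpace ℝ E] [FiniteDimensional ℝ E]
variable {Om : Set E} {ι : Type} {T : Tiling Om ι} {κ 𝒢 : Type} {KK : κ → Set E} {Kc : 𝒢 → Set E}
variable [Nonempty T.Cell]

section gen

variable {Q' : Type} [PartialOrder Q'] {dim' : Q' → ℕ} {vl : Q' → T.Cell}
variable {tl : 𝒢 → ι ⊕ κ}
variable (h3 : finrank ℝ E = 3) (hH : ∀ c, CoreH T (KK c))
  (hdis : ∀ c c', c ≠ c' → Disjoint (KK c) (KK c'))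
variable {J Fam : Type} {fam : J → Fam} {s : GSt (mK h3 hH hdis) fam}

/-- **the sheets over a tiling with exact tiles and tiny cores**, with names for the sets -/
theorem Emb.sheetK (V : Emb T Kc dim' vl) {K : Q' → Set E} (hK : ∀ q, K q = (vl q).set)
    (R : Cor2 T KK Kc tl)
    (L : LM (mK h3 hH hdis) Q' dim') (hcf : ∀ F, vl (L.cf F) = F.1.1) (hne : Nonempty Q')
    (hOm : IsOpen Om) (hball : ∀ k, IsBall 3 (KK k) (frontier (KK k)))
    (h : LF L s) (Lam : J → Q' → ZMod 2) (hLam : ∀ j c, L.toSk.XL (gP s j) (Lam j) c)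
    {g : Gd E J} {P' : ∀ q, (cmb h Lam hLam).I q → Set E} {c : ∀ q, (cmb h Lam hLam).I q → E → ℝ}
    (H : Inv (cmb h Lam hLam) K univ g P' c) {j : J} (hB : Bls (cmb h Lam hLam) K c j)
    (hon : ∀ w ∈ s.P, s.lab w = j → w ∈ L.toSk.W1)
    (one : ∀ a, One1 s j (tl a)) (h1 : s.H1 j) (hc : s.Conn j) :
    ∃ S : Set E, Nonempty (PLEquiv (sph 3) S) ∧ S ⊆ Om ∧
      ∀ z ∈ Om \ ⋃ k, interior (Kc k), (z ∈ S ↔ g.G j z = 1/2) := by
  obtain rfl : K = fun q => (vl q).set := funext hK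
  exact V.sheet h3 hH hdis R L hcf hne hOm hball h Lam hLam H hB hon one h1 hc

end gen

/-! ### 298's index type -/

section nr

open Crest.Agent.R096.Gm_298

variable (h3 : finrank ℝ E = 3) (hH : ∀ c, CoreH T (KK c))
  (hdis : ∀ c c', c ≠ c' → Disjoint (KK c) (KK c')) (hne : ∃ c, OutK T KK c) (Rr : Set ι)

/-- the cell of `T` -/
def vlR (T : Tiling Om ι) (KK : κ → Set E) (Rr : Set ι) :
    {c : QK (belK T KK) // NR T KK Rr c} → T.Cell
  | ⟨Sum.inl c, _⟩ => c.1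
  | ⟨Sum.inr _, h⟩ => h.elim

lemma vlR_c {c : {c : T.Cell // OutK T KK c}} (h : NR T KK Rr (QK.c _ c)) :
    vlR T KK Rr ⟨QK.c _ c, h⟩ = c.1 := rfl

lemma setK_vlR (q : {c : QK (belK T KK) // NR T KK Rr c}) :
    Lm_117.setK T KK q.1 = (vlR T KK Rr q).set := by
  obtain ⟨c, hc, -⟩ := nr_cases q
  obtain ⟨q, hq⟩ := q
  subst hc
  rfl

lemma dimK_vlR (q : {c : QK (belK T KK) // NR T KK Rr c}) :
    dimK (belK T KK) (fun c => c.1.dim) q.1 = (vlR T KK Rr q).dim := by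
  obtain ⟨c, hc, -⟩ := nr_cases q
  obtain ⟨q, hq⟩ := q
  subst hc
  rfl

variable {tl : 𝒢 → ι ⊕ κ}

/-- **298's index type names the cells outside all cores** -/
theorem embR (R : Cor2 T KK Kc tl) (hR : ∀ i, i ∈ Rr ↔ ∃ a, tl a = Sum.inl i)
    (h3 : finrank ℝ E = 3) (hH : ∀ c, CoreH T (KK c)) :
    Emb T Kc (fun c : {c : QK (belK T KK) // NR T KK Rr c} =>
      dimK (belK T KK) (fun c => c.1.dim) c.1) (vlR T KK Rr) where
  inj := by
    intro q q' h
    obtain ⟨c, hc, -⟩ := nr_cases q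
    obtain ⟨c', hc', -⟩ := nr_cases q'
    obtain ⟨q, hq⟩ := q
    obtain ⟨q', hq'⟩ := q'
    subst hc
    subst hc'
    have h1 : c.1 = c'.1 := h
    have h2 : c = c' := Subtype.ext h1
    subst h2
    rfl
  le := by
    intro q q'
    obtain ⟨c, hc, -⟩ := nr_cases q
    obtain ⟨c', hc', -⟩ := nr_cases q'
    obtain ⟨q, hq⟩ := q
    obtain ⟨q', hq'⟩ := q'
    subst hc
    subst hc'
    exact Iff.rfl
  dim := dimK_vlR Rr
  out := by
    intro q
    obtain ⟨c, hc, hn⟩ := nr_cases q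
    obtain ⟨q, hq⟩ := q
    subst hc
    show OutK T Kc c.1
    rcases Nat.lt_or_ge c.1.dim 3 with h | h
    · exact R.out_of h3 hH (by omega) c.2
    · have hle : c.1.dim ≤ finrank ℝ E := T.dim_le_finrank c.1.pt
      obtain ⟨i, hi, hI⟩ := Lm_117.tile_of_dim h3 (c := c.1) (by omega)
      have hci : c.1 = Lm_117.tcell T i := Tiling.Cell.ext (by rw [hi, Lm_117.tcell_set])
      have hout : ∀ k, ¬ P (T.H i) ⊆ KK k := by
        obtain ⟨i0, h1, h2⟩ := c.2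
        rw [hi] at h2
        rw [tile_sub h2]
        exact h1
      rcases R.cases hout with h4 | ⟨a, ha⟩
      · exact ⟨i, h4, hi.le⟩
      · exact absurd hci (hn i ((hR i).2 ⟨a, ha⟩))
  sur := by
    intro c hc
    refine ⟨⟨QK.c _ ⟨c, R.outK hc⟩, ?_⟩, rfl⟩
    intro i hi hci
    obtain ⟨a, ha⟩ := (hR i).1 hi
    obtain ⟨q, h1, h2⟩ := hc
    have h4 : c.set = P (T.H i) := by
      have : c = Lm_117.tcell T i := hci
      rw [this, Lm_117.tcell_set]
    rw [h4] at h2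
    have h5 := tile_sub h2
    subst h5
    exact h1 a (by rw [R.ct a i ha])

lemma cf_R (F : {F : C2 T // ¬ (((meshC T h3).side F).map (piK T KK)).IsDiag}) :
    vlR T KK Rr ((lmR h3 hH hdis hne Rr).cf F) = F.1.1 := rfl

end nr

/-! ### the cores indexed by the bricks (337 #10755) -/

section fam

open Crest.Agent.R096.Gm_298

variable {Fam : Type} {X : Set Fam} {KF : {a : Fam // a ∉ X} → Set E} {ct : Fam → ι}
  {Kall : Fam → Set E}

open Classical in
/-- the tile of a core -/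
noncomputable def tlX (X : Set Fam) (ct : Fam → ι) (a : Fam) : ι ⊕ {a : Fam // a ∉ X} :=
  if h : a ∈ X then Sum.inl (ct a) else Sum.inr ⟨a, h⟩

lemma tlX_of {a : Fam} (h : a ∈ X) : tlX X ct a = Sum.inl (ct a) := by
  unfold tlX
  rw [dif_pos h]

lemma tlX_not {a : Fam} (h : a ∉ X) : tlX X ct a = Sum.inr ⟨a, h⟩ := by
  unfold tlX
  rw [dif_neg h]

lemma tlX_inl {a : Fam} {i : ι} (h : tlX X ct a = Sum.inl i) : a ∈ X ∧ ct a = i := by
  by_cases ha : a ∈ X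
  · rw [tlX_of ha] at h
    exact ⟨ha, Sum.inl_injective h⟩
  · rw [tlX_not ha] at h
    cases h

lemma tlX_inr {a : Fam} {k : {a : Fam // a ∉ X}} (h : tlX X ct a = Sum.inr k) : k.1 = a := by
  by_cases ha : a ∈ X
  · rw [tlX_of ha] at h
    cases h
  · rw [tlX_not ha] at h
    exact congrArg Subtype.val (Sum.inr_injective h).symm

omit [FiniteDimensional ℝ E] [Nonempty T.Cell] in
/-- **the cores**: exact tiles `ct a`, `a ∈ X`, and tiny cores `KF ⟨a, _⟩`, `a ∉ X` -/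
theorem cor2X (hX : ∀ a ∈ X, Kall a = P (T.H (ct a))) (hN : ∀ a (h : a ∉ X), Kall a = KF ⟨a, h⟩)
    (hdisA : ∀ a a', a ≠ a' → Disjoint (Kall a) (Kall a')) :
    Cor2 T KF Kall (tlX X ct) where
  inj := by
    intro a a' h
    by_cases ha : a ∈ X
    · rw [tlX_of ha] at h
      obtain ⟨ha', hct⟩ := tlX_inl h.symm
      by_contra hne
      obtain ⟨z, hz⟩ := T.ne (ct a)
      have hz' := I_sub_P _ hz
      have hd := hdisA a a' hne
      rw [hX a ha, hX a' ha', hct] at hd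
      exact Set.disjoint_left.1 hd hz' hz'
    · rw [tlX_not ha] at h
      exact tlX_inr h.symm
  sur k := ⟨k.1, tlX_not k.2⟩
  kk a k h := by
    obtain ⟨b, hb⟩ := k
    have h1 : b = a := tlX_inr h
    subst h1
    exact hN b hb
  ct a i h := by
    obtain ⟨ha, rfl⟩ := tlX_inl h
    exact hX a ha
  dis := hdisA

lemma mem_imX {i : ι} : i ∈ ct '' X ↔ ∃ a, tlX X ct a = Sum.inl i := by
  constructor
  · rintro ⟨a, ha, rfl⟩
    exact ⟨a, tlX_of ha⟩
  · rintro ⟨a, ha⟩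
    obtain ⟨h1, h2⟩ := tlX_inl ha
    exact ⟨a, h1, h2⟩

/-- **THE SPHERES OF THE SHEETS over 298's `lmR`** -/
theorem spheres_R (h3 : finrank ℝ E = 3) (hH : ∀ c, CoreH T (KF c))
    (hdis : ∀ c c', c ≠ c' → Disjoint (KF c) (KF c')) (hne : ∃ c, OutK T KF c)
    (hX : ∀ a ∈ X, Kall a = P (T.H (ct a))) (hN : ∀ a (h : a ∉ X), Kall a = KF ⟨a, h⟩)
    (hdisA : ∀ a a', a ≠ a' → Disjoint (Kall a) (Kall a')) (hOm : IsOpen Om)
    (hball : ∀ k, IsBall 3 (KF k) (frontier (KF k)))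
    {J Fm : Type} {fam : J → Fm} {s : GSt (mK h3 hH hdis) fam}
    (h : LF (lmR h3 hH hdis hne (ct '' X)) s)
    (Lam : J → {c : QK (belK T KF) // NR T KF (ct '' X) c} → ZMod 2)
    (hLam : ∀ j c, (lmR h3 hH hdis hne (ct '' X)).toSk.XL (gP s j) (Lam j) c)
    {g : Gd E J} {P' : ∀ q, (cmb h Lam hLam).I q → Set E} {c : ∀ q, (cmb h Lam hLam).I q → E → ℝ}
    (H : Inv (cmb h Lam hLam) (fun q => Lm_117.setK T KF q.1) univ g P' c)
    (hon : ∀ w ∈ s.P, w ∈ (lmR h3 hH hdis hne (ct '' X)).toSk.W1) {j : J}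
    (hB : Bls (cmb h Lam hLam) (fun q => Lm_117.setK T KF q.1) c j)
    (one : ∀ a, One1 s j (tlX X ct a)) (h1 : s.H1 j) (hc : s.Conn j) :
    ∃ S : Set E, Nonempty (PLEquiv (sph 3) S) ∧ S ⊆ Om ∧
      ∀ z ∈ Om \ ⋃ a, interior (Kall a), (z ∈ S ↔ g.G j z = 1/2) := by
  have R := cor2X (T := T) hX hN hdisA
  have V := embR (ct '' X) R (fun i => mem_imX) h3 hH
  obtain ⟨v, hv⟩ := nr_ne h3 hne (ct '' X)
  exact V.sheetK h3 hH hdis (setK_vlR _) R _ (cf_R h3 hH hdis hne _) ⟨⟨v, hv⟩⟩ hOm hball h Lam hLam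
    H hB (fun w hw _ => hon w hw) one h1 hc

end fam

end emb

/-! ### the hypothesis `sheets` of `fin_gout` -/

section fin

open Crest.Agent.R096.Mg_441 Crest.Agent.R096.Xp_537 Crest.Agent.R096.Grd_714
open Crest.Agent.R096.Ar_241 (dirW cod Tr0 SheetData CoreData Exact TopC)
open Crest.Agent.R096.Fin_147 (Xout XM Ktc iUnion_Ktc)

variable {Q : Type} [PartialOrder Q] {dim : Q → ℕ} {J Fam : Type} {Cc : Cmb Q dim J Fam}
variable {E' : Type*} [NormedAddCommGroup E'] [NormedSpace ℝ E'] [FiniteDimensional ℝ E']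
variable {K : Q → Set E'} {g : Gd E' J} {P : ∀ q, Cc.I q → Set E'} {c : ∀ q, Cc.I q → E' → ℝ}
  {Ω : Set E'}
variable {E : Type*} [NormedAddCommGroup E] [NormedSpace ℝ E] [FiniteDimensional ℝ E]
  {Λ : Set E} {hfin : ∀ a, {j | Cc.fam j = a}.Finite} {Pf : Fam → Set E}
  {C : CC Λ (Cel Pf (Mg_441.mm hfin))} {T : (Fam → ℝ) → E} {co : E → Fam → ℝ}
  {Kc : Fam → Set E'}

/-- **the hypothesis `sheets` of 147's `fin_gout`** -/
theorem sheets_fin (hE3 : finrank ℝ E = 3) (hΛ : IsOpen Λ) (H : Inv Cc K univ g P c)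
    (Xc : Cplx (Ω ∩ Xout Kc) Q dim K)
    (hS : ∀ j, ∃ S : Set E', Nonempty (PLEquiv (sph 3) S) ∧ S ⊆ Ω ∧
      ∀ z ∈ Ω \ ⋃ a, interior (Kc a), (z ∈ S ↔ g.G j z = 1/2))
    {ℓ : J → ℝ} (hO : Ord Cc ℓ) (hℓ : ∀ j j', j ≠ j' → Cc.fam j = Cc.fam j' → ℓ j ≠ ℓ j')
    (OK : GridOK C T co) {κ θ : TopC (Cel Pf (Mg_441.mm hfin)) → ℝ} (G : E' → E)
    (Y : Tr0 Ω C G) (hM : OnMesh Y K g T (XM Ω K))
    (hX : Nonempty (Exact Y κ θ (Ktc Kc) (XM Ω K))) :
    ∀ q, cod C q = 2 →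
      SheetData Y (Ktc Kc : TopC (Cel Pf (Mg_441.mm hfin)) → Set E') (XM Ω K) q := by
  obtain ⟨hX⟩ := hX
  refine exact_sheets' hE3 hΛ H (fun p => (Xc.sub p).trans inter_subset_left) (fun j => ?_) hO hℓ
    OK hM ?_ hX
  · obtain ⟨S, h1, h2, h3⟩ := hS j
    refine ⟨S, h1, h2, fun z hz hz0 => h3 z ⟨hz, ?_⟩⟩
    rcases hz0 with h | h
    · exact absurd hz h
    · obtain ⟨q, hq⟩ := mem_iUnion.1 h
      exact (Xc.sub q hq).2
  · intro x hx
    by_cases h : x ∈ Xout Kc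
    · obtain ⟨q, hq⟩ := Xc.cover x ⟨hx, h⟩
      exact Or.inl (Or.inr (mem_iUnion.2 ⟨q, hq⟩))
    · right
      rw [iUnion_Ktc]
      unfold Xout at h
      rw [mem_compl_iff, not_not] at h
      obtain ⟨a, ha⟩ := mem_iUnion.1 h
      exact mem_iUnion.2 ⟨a, interior_subset ha⟩

end fin

end Crest.Agent.R096.Shg_334
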