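import Crest.Agent.R096.E1r2_914
import Crest.Agent.R096.Onb1_63
import Crest.Agent.R096.Shg7_334

/-!
# R096 (row 96), (E1) at the exact cores (337 #10755 (3)(c)), part 3 (helper914): over 298's `lmR`

`full_R`, `tileOf_R`, `one_R` (final state), `one_R0` (initial state), `one1_tlX` : the hypothesis
`one` of 334's `spheres_R`.
-/

set_option autoImplicit false
set_option linter.unusedSectionVars false
set_option linter.style.longLine false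

open Set Relation

namespace Crest.Agent.R096.E1r_914

open Crest.Agent.R096.St_147 Crest.Agent.R096.Seq_213 Crest.Agent.R096.Lm_117
  Crest.Agent.R096.Ac_117 Crest.Agent.R096.Ecm_446 Crest.Agent.R096.Msh_715
  Crest.Agent.R096.Cm_117 Crest.Agent.R096.Gm_298 Crest.Agent.R096.Onb_63
open Crest.Agent.R096.Agl5_543 (C2 meshC)
open Crest.Agent.R096.Shg_334 (One1 tlX tlX_of tlX_not)

section lmr

variable {E : Type} [NormedAddCommGroup E] [NormedSpace ℝ E] [FiniteDimensional ℝ E]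
variable {Om : Set E} {ι : Type} {T : Tiling Om ι} {Kp : Type} {Kc : Kp → Set E} [Nonempty T.Cell]
variable {h3 : Module.finrank ℝ E = 3} {hH : ∀ c, CoreH T (Kc c)}
  {hdis : ∀ c c', c ≠ c' → Disjoint (Kc c) (Kc c')} {hne : ∃ c, OutK T Kc c} {i₀ : ι}

include h3 in
/-- the cells of an ordinary tile are cells of `lmR` -/
theorem full_R (R : Set ι) (hout : ∀ k, ¬ P (T.H i₀) ⊆ Kc k) :
    Full T i₀ (kT T Kc (NR T Kc R)) where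
  sur := fun _ hc => sur_R h3 R hout hc.1 hc.2
  inj := fun _ _ h => inj_R R h

theorem tileOf_R (R : Set ι) (hout : ∀ k, ¬ P (T.H i₀) ⊆ Kc k) :
    TileOf (lmR h3 hH hdis hne R) T (kT T Kc (NR T Kc R)) (Sum.inl i₀) i₀ := by
  intro F
  exact mem_side_K hout F

theorem sur2_R (R : Set ι) (q : {c : QK (belK T Kc) // NR T Kc R c})
    (hq : dimK (belK T Kc) (fun c => c.1.dim) q.1 = 2) : ∃ F, (lmR h3 hH hdis hne R).cf F = q := by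
  obtain ⟨c, hc, -⟩ := nr_cases q
  obtain ⟨q, hq'⟩ := q
  subst hc
  have h2 : c.1.dim = 2 := hq
  obtain ⟨i, h4, h5⟩ := c.2
  exact ⟨⟨⟨c.1, h2⟩, out_face h3 ⟨c.1, h2⟩ ⟨i, h4, h5⟩⟩, rfl⟩

end lmr

section fin

open Crest.Agent.R096.Bsp_628 Crest.Agent.R096.Brk1_582 Crest.Agent.R096.Brk2_582
open Crest.Agent.R096.Brk3_582 Crest.Agent.R096.Brk5_582
open Crest.Agent.R096.SkC1_961 (E3 FoamD th)
open Crest.Agent.R096.Mbf_337 Crest.Agent.R096.SkB_662 Crest.Agent.R096.Gl_422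
open Crest.Agent.R096.Cp_298

variable {δ κ0 R c0 : ℝ} {La Om : Set E3} {ι ι₃ J Kq Kp : Type} {Φ : FoamD δ κ0 R c0 La}
  {T : Tiling Om ι} {T₃ : Tiling Om ι₃} {f : E3 → E3} [Nonempty T₃.Cell]
variable {κ1 κ2 : ℝ} {c : Φ.F} {i : ι} {i₃ : ι₃} {A : E3 ≃ᵃ[ℝ] E3} {lam : ℝ} {z : E3} {M : ℕ}
variable {Kc : Kp → Set E3} {h3 : Module.finrank ℝ E3 = 3} {hH3 : ∀ c, CoreH T₃ (Kc c)}
  {hdis : ∀ c c', c ≠ c' → Disjoint (Kc c) (Kc c')} {hne : ∃ c, OutK T₃ Kc c} {Rt : Set ι₃}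
  {fam : J → Φ.F}

/-- **(E1) at an exact core over `lmR`, initial state** -/
theorem one_R0 (hLa : IsOpen La) (h : Exact Φ T f κ1 κ2 c i A lam z) (hM : 0 < M)
    (hH : T₃.H i₃ = T.H i) (hout : ∀ k, ¬ P (T₃.H i₃) ⊆ Kc k)
    (G : CG T₃ i₃ (U Φ A lam z M)) {τ : J → ℝ} {X V : J → Set E3}
    (Wd : CW T₃ i₃ (U Φ A lam z M) fam τ X V) {s : GSt (mK h3 hH3 hdis) fam}
    (hX : ∀ w ∈ s.P, w ∈ P (T₃.H i₃) → w ∈ X (s.lab w))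
    {la : J → {c : QK (belK T₃ Kc) // NR T₃ Kc Rt c} → ZMod 2}
    (hXL : ∀ j c, (lmR h3 hH3 hdis hne Rt).toSk.XL (gP s j) (la j) c)
    (hl : ∀ v ∈ Dk i₃ (kT T₃ Kc (NR T₃ Kc Rt)), dimK (belK T₃ Kc) (fun c => c.1.dim) v.1 = 0 →
      ∀ j, la j v = 1 ↔ (kT T₃ Kc (NR T₃ Kc Rt) v).pt ∈ V j) (j : J) (hτ : 0 < τ j) :
    OneCyc s j (Sum.inl i₃) :=
  one_init (L := lmR h3 hH3 hdis hne Rt) hLa h hM hH (onT_R Rt) (full_R (h3 := h3) Rt hout)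
    (sur2_R Rt) (tileOf_R Rt hout) G Wd hX hXL hl j hτ

variable {O : Ori (mK h3 hH3 hdis)} {σ : {c : QK (belK T₃ Kc) // NR T₃ Kc Rt c} → ZMod 2}
  {Rel : E3 → E3 → Prop} {VV : Set E3}
  {Qd : Seq_213.Quads (ι₃ ⊕ Kp) Φ.F Kq} {κc : Φ.F → ℕ} {s₀ : GSt (mK h3 hH3 hdis) fam}
  {far₀ : J → Set E3} {G₀ : Φ.F → Set E3}
  {Z : Φ.F → Set {c : QK (belK T₃ Kc) // NR T₃ Kc Rt c}}
  {lam₀ : J → {c : QK (belK T₃ Kc) // NR T₃ Kc Rt c} → ZMod 2}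
  {v₀ v₁ : Φ.F → {c : QK (belK T₃ Kc) // NR T₃ Kc Rt c}}
  {hfin : ∀ a, {j | fam j = a}.Finite} {kap : Φ.F → ℕ}
  {s : GSt (mK h3 hH3 hdis) (fam' fam (Rk κc kap))}
  {far : Nm' fam (Rk κc kap) → Set E3} {β : E3 → E3}
  {lamF : Nm' fam (Rk κc kap) → {c : QK (belK T₃ Kc) // NR T₃ Kc Rt c} → ZMod 2}

/-- **(E1) at an exact core over `lmR`, final state** -/
theorem one_R (hLa : IsOpen La) (he : Exact Φ T f κ1 κ2 c i A lam z) (hM : 0 < M)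
    (hH : T₃.H i₃ = T.H i) (hout : ∀ k, ¬ P (T₃.H i₃) ⊆ Kc k)
    (hi : StI (lmR h3 hH3 hdis hne Rt) O σ Rel VV Qd κc s₀ far₀ G₀ Z lam₀ v₀ v₁)
    (h : StO (lmR h3 hH3 hdis hne Rt) O σ Rel VV Qd κc s₀ far₀ Z lam₀ v₀ v₁ hfin kap s far β lamF)
    (G : CG T₃ i₃ (U Φ A lam z M)) {τ : J → ℝ} {X V : J → Set E3}
    (Wd : CW T₃ i₃ (U Φ A lam z M) fam τ X V)
    (hX : ∀ w ∈ s₀.P, w ∈ P (T₃.H i₃) → w ∈ X (s₀.lab w))
    (hact : ∀ k, Sum.inl i₃ ∉ Qd.Act k)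
    (hpath : ∀ c, (∃ j, fam j = c) → (∃ v ∈ Dk i₃ (kT T₃ Kc (NR T₃ Kc Rt)),
      dimK (belK T₃ Kc) (fun c => c.1.dim) v.1 = 0 ∧
      ReflTransGen (Ed (lmR h3 hH3 hdis hne Rt) {e | FrE (lmR h3 hH3 hdis hne Rt) Qd c e}) (v₀ c) v) ∨
      ∀ v ∈ Dk i₃ (kT T₃ Kc (NR T₃ Kc Rt)), dimK (belK T₃ Kc) (fun c => c.1.dim) v.1 = 0 →
        v ∈ Z c ∧ ∀ j, fam j = c → lam₀ j v = 0)
    (hl : ∀ v ∈ Dk i₃ (kT T₃ Kc (NR T₃ Kc Rt)), dimK (belK T₃ Kc) (fun c => c.1.dim) v.1 = 0 →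
      ∀ j, lam₀ j v = 1 ↔ (kT T₃ Kc (NR T₃ Kc Rt) v).pt ∈ V j)
    (y : Nm' fam (Rk κc kap)) : OneCyc s y (Sum.inl i₃) :=
  one_final (L := lmR h3 hH3 hdis hne Rt) hLa he hM hH hi h (onT_R Rt)
    (full_R (h3 := h3) Rt hout) (tileOf_R Rt hout) G Wd hX (hfr_R Rt hact hout) hpath hl y

/-- **the hypothesis `one` of 334's `spheres_R`**: type R (`tlX a = inl (ct a)`) and type D -/
theorem one1_tlX {Fm J' Φm W : Type} {X : Set Fm} {ct : Fm → ι₃}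
    {Mm : MeshC (ι₃ ⊕ {a : Fm // a ∉ X}) Φm W} {fm : J' → Fm} {s : GSt Mm fm} {j : J'}
    (hR : ∀ a ∈ X, OneCyc s j (Sum.inl (ct a)))
    (hD : ∀ a : {a : Fm // a ∉ X}, OneCyc s j (Sum.inr a)) : ∀ a, One1 s j (tlX X ct a) := by
  intro a
  by_cases h : a ∈ X
  · rw [tlX_of h]; exact hR a h
  · rw [tlX_not h]; exact hD ⟨a, h⟩

end fin

end Crest.Agent.R096.E1r_914
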