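import Crest.Agent.R096.Str1_696
import Crest.Agent.R096.Ce1_537

/-!
Row 96 (S0127), helper273.  EA-ASM (HR2) of 663 #9825: **locally finite product** of PL
homeomorphisms with disjoint compact supports.

`LFam Om K` : the compact sets `K c ⊆ Om` are pairwise disjoint and locally finite in `Om`.
`prodH K χ` : `χ c` on `K c`, the identity off `⋃ K c`.
-/

set_option autoImplicit false
set_option linter.unusedSectionVars false
set_option linter.style.longLine false

open Set Metric Topology Filter MeasureTheory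
open scoped ENNReal

namespace Crest.Agent.R096.Ea_273

open Crest.Agent.R096.Str_696 Crest.Agent.R096.Ce_537

section top

variable {E : Type*} [TopologicalSpace E] {ι : Type*}

/-- pairwise disjoint compact sets in `Om`, locally finite in `Om` -/
structure LFam (Om : Set E) (K : ι → Set E) : Prop where
  cpt : ∀ c, IsCompact (K c)
  sub : ∀ c, K c ⊆ Om
  disj : ∀ c c', c ≠ c' → Disjoint (K c) (K c')
  lf : ∀ x ∈ Om, ∃ U ∈ 𝓝 x, {c | (K c ∩ U).Nonempty}.Finite

open Classical in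
/-- the product of the homeomorphisms `χ c` -/
noncomputable def prodH (K : ι → Set E) (χ : ι → E ≃ₜ E) (x : E) : E :=
  if h : ∃ c, x ∈ K c then χ h.choose x else x

variable {Om : Set E} {K : ι → Set E} {χ : ι → E ≃ₜ E}

theorem prodH_off {x : E} (hx : ∀ c, x ∉ K c) : prodH K χ x = x := by
  unfold prodH
  rw [dif_neg]
  rintro ⟨c, hc⟩
  exact hx c hc

theorem LFam.prodH_on (H : LFam Om K) {c : ι} {x : E} (hx : x ∈ K c) : prodH K χ x = χ c x := by
  unfold prodH
  have h : ∃ c, x ∈ K c := ⟨c, hx⟩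
  rw [dif_pos h]
  have : h.choose = c := by
    by_contra hne
    exact (disjoint_left.1 (H.disj _ _ hne)) h.choose_spec hx
  rw [this]

/-- the support condition for the inverse -/
theorem id_symm (hχ : ∀ c, ∀ x, x ∉ K c → χ c x = x) (c : ι) (x : E) (hx : x ∉ K c) :
    (χ c).symm x = x := by
  rw [Homeomorph.symm_apply_eq, hχ c x hx]

theorem maps (hχ : ∀ c, ∀ x, x ∉ K c → χ c x = x) {c : ι} {x : E} (hx : x ∈ K c) :
    χ c x ∈ K c := by
  by_contra hn
  have h1 := hχ c _ hn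
  have h2 := (χ c).injective h1
  exact hn (by rw [h2]; exact hx)

/-- near every point only one factor matters -/
theorem LFam.near_on [T2Space E] (H : LFam Om K) (hχ : ∀ c, ∀ x, x ∉ K c → χ c x = x)
    {c : ι} {x : E} (hx : x ∈ K c) : prodH K χ =ᶠ[𝓝 x] χ c := by
  obtain ⟨U, hU, hfin⟩ := H.lf x (H.sub c hx)
  have h1 : ∀ᶠ y in 𝓝 x, ∀ c' ∈ {c | (K c ∩ U).Nonempty}, c' ≠ c → y ∉ K c' := by
    rw [Filter.eventually_all_finite hfin]
    intro c' _
    by_cases hc : c' = c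
    · exact Eventually.of_forall fun y h => absurd hc h
    · have h2 : x ∉ K c' := fun h => (disjoint_left.1 (H.disj _ _ hc)) h hx
      filter_upwards [(H.cpt c').isClosed.isOpen_compl.mem_nhds h2] with y hy _ using hy
  filter_upwards [h1, hU] with y hy hyU
  by_cases hyc : y ∈ K c
  · exact H.prodH_on hyc
  · rw [hχ c y hyc]
    apply prodH_off
    intro c' hc'
    by_cases h : c' = c
    · subst h; exact hyc hc'
    · exact hy c' ⟨y, hc', hyU⟩ h hc'

theorem LFam.near_off [T2Space E] (H : LFam Om K) {x : E} (hxO : x ∈ Om) (hx : ∀ c, x ∉ K c) :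
    prodH K χ =ᶠ[𝓝 x] fun y => y := by
  obtain ⟨U, hU, hfin⟩ := H.lf x hxO
  have h1 : ∀ᶠ y in 𝓝 x, ∀ c' ∈ {c | (K c ∩ U).Nonempty}, y ∉ K c' := by
    rw [Filter.eventually_all_finite hfin]
    intro c' _
    exact (H.cpt c').isClosed.isOpen_compl.mem_nhds (hx c')
  filter_upwards [h1, hU] with y hy hyU
  apply prodH_off
  intro c' hc'
  exact hy c' ⟨y, hc', hyU⟩ hc'

theorem LFam.mapsTo (H : LFam Om K) (hχ : ∀ c, ∀ x, x ∉ K c → χ c x = x) :
    MapsTo (prodH K χ) Om Om := by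
  intro x hx
  by_cases h : ∃ c, x ∈ K c
  · obtain ⟨c, hc⟩ := h
    rw [H.prodH_on hc]
    exact H.sub c (maps hχ hc)
  · push Not at h
    rw [prodH_off h]
    exact hx

theorem LFam.left_inv (H : LFam Om K) (hχ : ∀ c, ∀ x, x ∉ K c → χ c x = x) (x : E) :
    prodH K (fun c => (χ c).symm) (prodH K χ x) = x := by
  by_cases h : ∃ c, x ∈ K c
  · obtain ⟨c, hc⟩ := h
    rw [H.prodH_on hc, H.prodH_on (maps hχ hc), Homeomorph.symm_apply_apply]
  · push Not at h
    rw [prodH_off h, prodH_off h]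

theorem LFam.right_inv (H : LFam Om K) (hχ : ∀ c, ∀ x, x ∉ K c → χ c x = x) (x : E) :
    prodH K χ (prodH K (fun c => (χ c).symm) x) = x := by
  have := H.left_inv (χ := fun c => (χ c).symm) (id_symm hχ) x
  simpa using this

theorem LFam.contOn [T2Space E] (H : LFam Om K) (hχ : ∀ c, ∀ x, x ∉ K c → χ c x = x) :
    ContinuousOn (prodH K χ) Om := by
  intro x hx
  by_cases h : ∃ c, x ∈ K c
  · obtain ⟨c, hc⟩ := h
    exact ((χ c).continuous.continuousAt.congr (H.near_on hχ hc).symm).continuousWithinAt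
  · push Not at h
    exact (continuousAt_id.congr (H.near_off hx h).symm).continuousWithinAt

/-- the product moves points only inside the sets `K c` -/
theorem LFam.same (H : LFam Om K) (hχ : ∀ c, ∀ x, x ∉ K c → χ c x = x) (x : E) :
    prodH K χ x = x ∨ ∃ c, x ∈ K c ∧ prodH K χ x ∈ K c := by
  by_cases h : ∃ c, x ∈ K c
  · obtain ⟨c, hc⟩ := h
    exact Or.inr ⟨c, hc, by rw [H.prodH_on hc]; exact maps hχ hc⟩
  · push Not at h
    exact Or.inl (prodH_off h)

end top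

section energy

variable {E : Type*} [TopologicalSpace E] [MeasurableSpace E] {ι : Type*} [Countable ι]

/-- splitting of an integral -/
theorem lintegral_split {Om : Set E} {K : ι → Set E} (hm : ∀ c, MeasurableSet (K c))
    (hOm : MeasurableSet Om) (m : Measure E) (w w0 : E → ℝ≥0∞) (wc : ι → E → ℝ≥0∞)
    (h0 : ∀ x ∈ Om, (∀ c, x ∉ K c) → w x ≤ w0 x) (hc : ∀ c, ∀ x ∈ K c, w x ≤ wc c x) :
    ∫⁻ x in Om, w x ∂m ≤ (∫⁻ x in Om \ ⋃ c, K c, w0 x ∂m) + ∑' c, ∫⁻ x in K c, wc c x ∂m := by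
  have hU : MeasurableSet (⋃ c, K c) := MeasurableSet.iUnion hm
  have e : Om ⊆ (Om \ ⋃ c, K c) ∪ ⋃ c, K c := by
    intro x hx
    by_cases h : x ∈ ⋃ c, K c
    · exact Or.inr h
    · exact Or.inl ⟨hx, h⟩
  calc ∫⁻ x in Om, w x ∂m ≤ ∫⁻ x in (Om \ ⋃ c, K c) ∪ ⋃ c, K c, w x ∂m := lintegral_mono_set e
    _ ≤ (∫⁻ x in Om \ ⋃ c, K c, w x ∂m) + ∫⁻ x in ⋃ c, K c, w x ∂m := lintegral_union_le _ _ _
    _ ≤ (∫⁻ x in Om \ ⋃ c, K c, w0 x ∂m) + ∑' c, ∫⁻ x in K c, w x ∂m := by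
        refine add_le_add ?_ (lintegral_iUnion_le _ _)
        refine setLIntegral_mono_ae' (hOm.diff hU) (Eventually.of_forall fun x hx => ?_)
        refine h0 x hx.1 fun c h => hx.2 (mem_iUnion.2 ⟨c, h⟩)
    _ ≤ _ := by
        refine add_le_add le_rfl (ENNReal.tsum_le_tsum fun c => ?_)
        exact setLIntegral_mono_ae' (hm c) (Eventually.of_forall fun x hx => hc c x hx)

end energy

section pl

variable {E F : Type*} [NormedAddCommGroup E] [NormedSpace ℝ E] [NormedAddCommGroup F]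
  [NormedSpace ℝ F] {ι : Type*} {Om : Set E} {K : ι → Set E} {χ : ι → E ≃ₜ E}

/-- a local property at one point -/
def LocPLAt (h : E → F) (x : E) : Prop :=
  ∃ r : ℝ, 0 < r ∧ ∃ S : Finset (E →ᵃ[ℝ] F), ContinuousOn h (ball x r) ∧
    ∀ y ∈ ball x r, ∃ g ∈ S, h y = g y

theorem LocPLAt.congr {h k : E → F} {x : E} (H : LocPLAt h x) (e : k =ᶠ[𝓝 x] h) :
    LocPLAt k x := by
  obtain ⟨r, hr, S, hc, hs⟩ := H
  obtain ⟨r', hr', hb⟩ := Metric.eventually_nhds_iff_ball.1 e
  refine ⟨min r r', lt_min hr hr', S, ?_, ?_⟩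
  · exact (hc.mono (ball_subset_ball (min_le_left _ _))).congr fun y hy =>
      hb y (ball_subset_ball (min_le_right _ _) hy)
  · intro y hy
    obtain ⟨g, hg, e'⟩ := hs y (ball_subset_ball (min_le_left _ _) hy)
    exact ⟨g, hg, by rw [hb y (ball_subset_ball (min_le_right _ _) hy), e']⟩

theorem LocPLAt.comp {G : Type*} [NormedAddCommGroup G] [NormedSpace ℝ G] {g : F → G} {h : E → F}
    {x : E} (hg : LocPLAt g (h x)) (hh : LocPLAt h x) : LocPLAt (fun y => g (h y)) x := by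
  classical
  obtain ⟨r, hr, S, hc, hs⟩ := hh
  obtain ⟨r', hr', S', hc', hs'⟩ := hg
  have hcx : ContinuousAt h x := hc.continuousAt (ball_mem_nhds x hr)
  obtain ⟨ρ, hρ, hb⟩ := Metric.mem_nhds_iff.1 (hcx.preimage_mem_nhds (ball_mem_nhds (h x) hr'))
  refine ⟨min r ρ, lt_min hr hρ, (S ×ˢ S').image (fun q => q.2.comp q.1), ?_, ?_⟩
  · exact hc'.comp (hc.mono (ball_subset_ball (min_le_left _ _))) fun y hy =>
      hb (ball_subset_ball (min_le_right _ _) hy)
  · intro y hy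
    obtain ⟨b, hbS, hby⟩ := hs y (ball_subset_ball (min_le_left _ _) hy)
    obtain ⟨a, haS, hay⟩ := hs' (h y) (hb (ball_subset_ball (min_le_right _ _) hy))
    refine ⟨a.comp b, Finset.mem_image.2 ⟨(b, a), Finset.mem_product.2 ⟨hbS, haS⟩, rfl⟩, ?_⟩
    show g (h y) = a (b y)
    rw [hay, hby]

theorem LocPLAt.of_plOn {h : E → F} (H : PLOn h univ) (x : E) : LocPLAt h x := by
  obtain ⟨hc, S, hs⟩ := H
  exact ⟨1, one_pos, S, hc.mono (subset_univ _), fun y _ => hs y (mem_univ y)⟩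

theorem LFam.locPLAt (H : LFam Om K) (hχ : ∀ c, ∀ x, x ∉ K c → χ c x = x)
    (hp : ∀ c, PLOn (χ c) univ) {x : E} (hx : x ∈ Om) : LocPLAt (prodH K χ) x := by
  by_cases h : ∃ c, x ∈ K c
  · obtain ⟨c, hc⟩ := h
    exact (LocPLAt.of_plOn (hp c) x).congr (H.near_on hχ hc)
  · push Not at h
    refine LocPLAt.congr (h := fun y => y) ?_ (H.near_off hx h)
    exact LocPLAt.of_plOn (plOn_id univ) x

/-- **composition with the product stays locally PL.** -/
theorem LFam.locPL_comp (H : LFam Om K) (hχ : ∀ c, ∀ x, x ∉ K c → χ c x = x)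
    (hp : ∀ c, PLOn (χ c) univ) {g : E → F} (hg : Str_696.LocPL g Om) :
    Str_696.LocPL (fun x => g (prodH K χ x)) Om := by
  intro x hx
  exact LocPLAt.comp (hg _ (H.mapsTo hχ hx)) (H.locPLAt hχ hp hx)

/-- `g ∘ prodH` agrees with `g ∘ χ c` near the points of `K c` -/
theorem LFam.comp_near_on (H : LFam Om K) (hχ : ∀ c, ∀ x, x ∉ K c → χ c x = x) (g : E → F)
    {c : ι} {x : E} (hx : x ∈ K c) : (fun y => g (prodH K χ y)) =ᶠ[𝓝 x] fun y => g (χ c y) := by
  filter_upwards [H.near_on hχ hx] with y hy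
  rw [hy]

theorem LFam.comp_near_off (H : LFam Om K) (g : E → F) {x : E} (hxO : x ∈ Om)
    (hx : ∀ c, x ∉ K c) : (fun y => g (prodH K χ y)) =ᶠ[𝓝 x] g := by
  filter_upwards [H.near_off (χ := χ) hxO hx] with y hy
  rw [hy]

/-- **energy split**: `Q` any functional of the derivative and the point. -/
theorem LFam.energy [MeasurableSpace E] [BorelSpace E] [Countable ι] (H : LFam Om K)
    (hO : IsOpen Om) (hχ : ∀ c, ∀ x, x ∉ K c → χ c x = x) (g : E → F) (m : Measure E)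
    (Q : E → (E →L[ℝ] F) → ℝ≥0∞) :
    ∫⁻ x in Om, Q x (fderiv ℝ (fun y => g (prodH K χ y)) x) ∂m ≤
      (∫⁻ x in Om \ ⋃ c, K c, Q x (fderiv ℝ g x) ∂m) +
        ∑' c, ∫⁻ x in K c, Q x (fderiv ℝ (fun y => g (χ c y)) x) ∂m := by
  refine lintegral_split (fun c => (H.cpt c).isClosed.measurableSet) hO.measurableSet m _ _ _
    ?_ ?_
  · intro x hx h
    rw [(H.comp_near_off g hx h).fderiv_eq]
  · intro c x hx
    rw [(H.comp_near_on hχ g hx).fderiv_eq]

/-- the homeomorphism clause (`Hom3` of SkC1, any space) -/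
theorem LFam.homeo {X : Type*} [TopologicalSpace X] (H : LFam Om K)
    (hχ : ∀ c, ∀ x, x ∉ K c → χ c x = x) {La : Set X} {f : E → X}
    (hf : ∃ fi : X → E, MapsTo f Om La ∧ MapsTo fi La Om ∧ (∀ x ∈ Om, fi (f x) = x) ∧
      (∀ y ∈ La, f (fi y) = y) ∧ ContinuousOn f Om ∧ ContinuousOn fi La) :
    ∃ fi : X → E, MapsTo (fun x => f (prodH K χ x)) Om La ∧ MapsTo fi La Om ∧
      (∀ x ∈ Om, fi (f (prodH K χ x)) = x) ∧ (∀ y ∈ La, f (prodH K χ (fi y)) = y) ∧
      ContinuousOn (fun x => f (prodH K χ x)) Om ∧ ContinuousOn fi La := by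
  obtain ⟨fi, h1, h2, h3, h4, h5, h6⟩ := hf
  have hχ' := id_symm hχ
  refine ⟨fun y => prodH K (fun c => (χ c).symm) (fi y), ?_, ?_, ?_, ?_, ?_, ?_⟩
  · exact fun x hx => h1 (H.mapsTo hχ hx)
  · exact fun y hy => H.mapsTo hχ' (h2 hy)
  · intro x hx
    show prodH K (fun c => (χ c).symm) (fi (f (prodH K χ x))) = x
    rw [h3 _ (H.mapsTo hχ hx), H.left_inv hχ]
  · intro y hy
    show f (prodH K χ (prodH K (fun c => (χ c).symm) (fi y))) = y
    rw [H.right_inv hχ, h4 y hy]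
  · exact h5.comp (H.contOn hχ) (H.mapsTo hχ)
  · exact (H.contOn hχ').comp h6 h2

end pl

end Crest.Agent.R096.Ea_273
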