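import Crest.Agent.R096.Ea3_273
import Crest.Agent.R096.Msh1_715

/-!
Row 96 (S0127), helper273.  EA-ASM (HR2), part 2: the family of macro cubes inside the tiles
`ct c` of a tiling; the final form.
-/

set_option autoImplicit false
set_option linter.unusedSectionVars false
set_option linter.style.longLine false

open Set Metric Topology Filter MeasureTheory
open scoped ENNReal

namespace Crest.Agent.R096.Ea_273

open Crest.Agent.R096.Str_696 Crest.Agent.R096.Ce_537 Crest.Agent.R096.Msh_715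

section tiles

variable {E : Type*} [NormedAddCommGroup E] [NormedSpace ℝ E] {Om : Set E} {ι κ : Type*}

/-- compact sets inside the interiors of different tiles are a locally finite family -/
theorem LFam.of_tiles (T : Tiling Om ι) {ct : κ → ι} (hct : Function.Injective ct)
    {K : κ → Set E} (hK : ∀ c, IsCompact (K c)) (hsub : ∀ c, K c ⊆ I (T.H (ct c))) :
    LFam Om K where
  cpt := hK
  sub := fun c => (hsub c).trans ((I_sub_P _).trans (T.sub _))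
  disj := fun c c' hne => (T.dis _ _ fun h => hne (hct h)).mono (hsub c) (hsub c')
  lf := by
    intro x hx
    obtain ⟨r, hr, hf⟩ := T.lf x hx
    refine ⟨ball x r, ball_mem_nhds x hr, ?_⟩
    refine (hf.preimage hct.injOn).subset ?_
    rintro c ⟨y, hy1, hy2⟩
    exact ⟨y, I_sub_P _ (hsub c hy1), hy2⟩

end tiles

section final

variable {E F : Type*} [NormedAddCommGroup E] [NormedSpace ℝ E] [NormedAddCommGroup F]
  [NormedSpace ℝ F] {ι : Type*}

/-- **(HR2) locally finite product of PL homeomorphisms**, everything in one theorem.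
`Q` is any functional of the point and the derivative (e.g. `‖L‖ₑ ^ p`, `‖L - D x‖ₑ ^ p`). -/
theorem exists_product [MeasurableSpace E] [BorelSpace E] [Countable ι] {Om : Set E}
    (hO : IsOpen Om) {K : ι → Set E} (H : LFam Om K) (χ : ι → E ≃ₜ E)
    (hp : ∀ c, PLOn (χ c) univ) (hχ : ∀ c, ∀ x, x ∉ K c → χ c x = x) :
    ∃ χ' : E → E, MapsTo χ' Om Om ∧ ContinuousOn χ' Om ∧
      (∀ c, ∀ x ∈ K c, χ' x = χ c x ∧ χ' =ᶠ[𝓝 x] χ c) ∧
      (∀ x, (∀ c, x ∉ K c) → χ' x = x) ∧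
      (∀ x ∈ Om, (∀ c, x ∉ K c) → χ' =ᶠ[𝓝 x] fun y => y) ∧
      (∀ x, χ' x = x ∨ ∃ c, x ∈ K c ∧ χ' x ∈ K c) ∧
      (∀ (La : Set F) (g : E → F), (∃ fi : F → E, MapsTo g Om La ∧ MapsTo fi La Om ∧
          (∀ x ∈ Om, fi (g x) = x) ∧ (∀ y ∈ La, g (fi y) = y) ∧ ContinuousOn g Om ∧
          ContinuousOn fi La) →
        ∃ fi : F → E, MapsTo (fun x => g (χ' x)) Om La ∧ MapsTo fi La Om ∧
          (∀ x ∈ Om, fi (g (χ' x)) = x) ∧ (∀ y ∈ La, g (χ' (fi y)) = y) ∧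
          ContinuousOn (fun x => g (χ' x)) Om ∧ ContinuousOn fi La) ∧
      (∀ g : E → F, Str_696.LocPL g Om → Str_696.LocPL (fun x => g (χ' x)) Om) ∧
      (∀ (g : E → F) (m : Measure E) (Q : E → (E →L[ℝ] F) → ℝ≥0∞),
        ∫⁻ x in Om, Q x (fderiv ℝ (fun y => g (χ' y)) x) ∂m ≤
          (∫⁻ x in Om \ ⋃ c, K c, Q x (fderiv ℝ g x) ∂m) +
            ∑' c, ∫⁻ x in K c, Q x (fderiv ℝ (fun y => g (χ c y)) x) ∂m) := by
  refine ⟨prodH K χ, H.mapsTo hχ, H.contOn hχ, fun c x hx => ⟨H.prodH_on hx, H.near_on hχ hx⟩,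
    fun x hx => prodH_off hx, fun x hx h => H.near_off hx h, H.same hχ, ?_, ?_, ?_⟩
  · intro La g hg
    exact H.homeo hχ hg
  · intro g hg
    exact H.locPL_comp hχ hp hg
  · intro g m Q
    exact H.energy hO hχ g m Q

/-- the same with pieces `R c` (e.g. the tiles `P (T.H (ct c)) ⊇ K c`). -/
theorem LFam.energy_pieces [MeasurableSpace E] [BorelSpace E] [Countable ι] {Om : Set E}
    {K R : ι → Set E} {χ : ι → E ≃ₜ E} (H : LFam Om K) (hO : IsOpen Om)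
    (hχ : ∀ c, ∀ x, x ∉ K c → χ c x = x)
    (g : E → F) (m : Measure E) (Q : E → (E →L[ℝ] F) → ℝ≥0∞) :
    ∫⁻ x in Om, Q x (fderiv ℝ (fun y => g (prodH K χ y)) x) ∂m ≤
      (∫⁻ x in Om \ ⋃ c, R c, Q x (fderiv ℝ g x) ∂m) +
        ∑' c, ((∫⁻ x in R c \ K c, Q x (fderiv ℝ g x) ∂m) +
          ∫⁻ x in K c, Q x (fderiv ℝ (fun y => g (χ c y)) x) ∂m) := by
  refine (H.energy hO hχ g m Q).trans ?_
  rw [ENNReal.tsum_add, ← add_assoc]
  refine add_le_add ?_ le_rfl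
  have e : Om \ ⋃ c, K c ⊆ (Om \ ⋃ c, R c) ∪ ⋃ c, (R c \ K c) := by
    intro x hx
    by_cases h : x ∈ ⋃ c, R c
    · obtain ⟨c, hc⟩ := mem_iUnion.1 h
      exact Or.inr (mem_iUnion.2 ⟨c, hc, fun hk => hx.2 (mem_iUnion.2 ⟨c, hk⟩)⟩)
    · exact Or.inl ⟨hx.1, h⟩
  calc ∫⁻ x in Om \ ⋃ c, K c, Q x (fderiv ℝ g x) ∂m
      ≤ ∫⁻ x in (Om \ ⋃ c, R c) ∪ ⋃ c, (R c \ K c), Q x (fderiv ℝ g x) ∂m := lintegral_mono_set e
    _ ≤ _ := (lintegral_union_le _ _ _).trans (add_le_add le_rfl (lintegral_iUnion_le _ _))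

end final

end Crest.Agent.R096.Ea_273
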