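import Crest.Agent.R096.Tms1_582
import Crest.Agent.R96.Eap2_348

/-!
# R096 (row 96), EA-B (helper747): GEO-ZONE

A tiling which in disjoint balls `closedBall (x₀ c) (R c)` looks like the lattice of scale `k c` with
finitely many cubes near `x₀ c` replaced (582's `InZone`): `V c` = tiles meeting the ball of radius
`R c / 2`; the rings `5/8 R c < |x - x₀ c| < 7/8 R c` are covered by lattice cubes: 348's `Geo`.
-/

set_option autoImplicit false
set_option linter.style.longLine false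
set_option linter.unusedSectionVars false

open MeasureTheory Set Filter Topology Metric
open scoped ENNReal

namespace Crest.Agent.R096.Eab_747

open Crest.Agent.R096.Msh_715
open Crest.Agent.R096.Msh_810 (Cu Hc ps)
open Crest.Agent.R096.Tms_582
open Crest.Agent.R96.EaPost_348 (Geo rg)
open Crest.Agent.R96.Hole_348 (RingFam)

abbrev E3 : Type := Fin 3 → ℝ

/-! ### lattice cubes -/

theorem Cu_eq_Icc {n : ℕ} (a : Fin n → ℝ) (k : ℕ) (z : Fin n → ℤ) :
    Cu a k z = Icc (fun i => a i + z i / 2 ^ k) (fun i => a i + (z i + 1) / 2 ^ k) := by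
  have hp : (0 : ℝ) < 2 ^ k := by positivity
  ext x
  rw [Msh_810.mem_Cu, mem_Icc, Pi.le_def, Pi.le_def, ← forall_and]
  refine forall_congr' fun i => ?_
  have e1 : ((z i : ℝ) ≤ ps a k x i ↔ a i + z i / 2 ^ k ≤ x i) := by
    unfold ps
    rw [← le_sub_iff_add_le', div_le_iff₀' hp]
  have e2 : (ps a k x i ≤ z i + 1 ↔ x i ≤ a i + (z i + 1) / 2 ^ k) := by
    unfold ps
    rw [← le_div_iff₀' hp, sub_le_iff_le_add']
  rw [e1, e2]

theorem volume_Cu (a : E3) (k : ℕ) (z : Fin 3 → ℤ) :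
    volume (Cu a k z) = ENNReal.ofReal (((2 : ℝ)⁻¹ ^ k) ^ 3) := by
  rw [Cu_eq_Icc, Real.volume_Icc_pi]
  have h : ∀ i : Fin 3, ENNReal.ofReal (a i + (z i + 1) / 2 ^ k - (a i + z i / 2 ^ k)) =
      ENNReal.ofReal ((2 : ℝ)⁻¹ ^ k) := by
    intro i
    congr 1
    rw [inv_pow]
    ring
  rw [Finset.prod_congr rfl fun i _ => h i, Finset.prod_const, Finset.card_univ, Fintype.card_fin,
    ← ENNReal.ofReal_pow (by positivity)]

theorem dist_Cu {a : E3} {k : ℕ} {z : Fin 3 → ℤ} {x y : E3} (hx : x ∈ Cu a k z) (hy : y ∈ Cu a k z) :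
    dist x y ≤ (2 : ℝ)⁻¹ ^ k := by
  have h1 := Msh_810.dist_le_of_mem_Cu hx hy
  have h2 : (0 : ℝ) < 2 ^ k := by positivity
  rw [inv_pow, ← one_div, le_div_iff₀' h2]
  exact h1

theorem P_Hc_id (w : E3) (k : ℕ) (z : Fin 3 → ℤ) : P (Hc idE w k z) = Cu w k z := by
  rw [Msh_810.P_Hc]
  rfl

/-- **the family of the zones of the tiny cores** -/
structure ZoneFam {Om : Set E3} {ι : Type} (T : Tiling Om ι) {κ : Type*} (x₀ : κ → E3) (R : κ → ℝ)
    (k : κ → ℕ) (w : κ → E3) (Zc : κ → Finset (Fin 3 → ℤ)) {κH : κ → Type}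
    (H : ∀ c, κH c → Finset ((E3 →L[ℝ] ℝ) × ℝ)) (e : ∀ c, κH c → ι) (Kt : Set ι) : Prop where
  pos : ∀ c, 0 < R c
  sub : ∀ c, closedBall (x₀ c) (R c) ⊆ Om
  disj : Pairwise fun c c' => Disjoint (closedBall (x₀ c) (R c)) (closedBall (x₀ c') (R c'))
  lf : ∀ x ∈ Om, ∃ U ∈ 𝓝 x, {c | (closedBall (x₀ c) (R c) ∩ U).Nonempty}.Finite
  scale : ∀ c, (2 : ℝ)⁻¹ ^ k c ≤ R c / 16
  zone : ∀ c, InZone T (x₀ c) (R c) (k c) (w c) (Zc c) (H c) (e c)
  w0 : ∀ c i, 0 ≤ w c i ∧ w c i ≤ (2 : ℝ)⁻¹ ^ k c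
  zc : ∀ c, ∀ z ∈ Zc c, Cu (0 : E3) (k c) z ⊆ ball (x₀ c) (R c / 4)
  repl : ∀ c, LatRepl (k c) (Zc c) (H c)
  kt : ∀ i ∈ Kt, ∀ c, Disjoint (P (T.H i)) (closedBall (x₀ c) (R c))

section

variable {Om : Set E3} {ι : Type} {T : Tiling Om ι} {κ : Type*} {x₀ : κ → E3} {R : κ → ℝ}
  {k : κ → ℕ} {w : κ → E3} {Zc : κ → Finset (Fin 3 → ℤ)} {κH : κ → Type}
  {H : ∀ c, κH c → Finset ((E3 →L[ℝ] ℝ) × ℝ)} {e : ∀ c, κH c → ι} {Kt : Set ι}

/-- the tiles near the tiny core `c` -/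
def VZ (T : Tiling Om ι) (x₀ : κ → E3) (R : κ → ℝ) (c : κ) : Set ι :=
  {i | (P (T.H i) ∩ closedBall (x₀ c) (R c / 2)).Nonempty}

namespace ZoneFam

variable (h : ZoneFam T x₀ R k w Zc H e Kt)
include h

/-- the new tiles lie near the centre -/
theorem new_sub (c : κ) (j : κH c) {x : E3} (hx : x ∈ P (T.H (e c j))) :
    dist x (x₀ c) < R c / 4 + R c / 16 := by
  rw [(h.zone c).loc j, mem_P_trH] at hx
  have h1 : x - w c ∈ ⋃ z ∈ Zc c, Cu (0 : E3) (k c) z := by
    rw [← (h.repl c).eq]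
    exact mem_iUnion.2 ⟨j, hx⟩
  obtain ⟨z, hz, hz'⟩ := mem_iUnion₂.1 h1
  have h2 : dist (x - w c) (x₀ c) < R c / 4 := h.zc c z hz hz'
  have h3 : dist x (x - w c) ≤ R c / 16 := by
    rw [dist_eq_norm, sub_sub_cancel]
    refine le_trans ((pi_norm_le_iff_of_nonneg (by positivity)).2 fun i => ?_) (h.scale c)
    rw [Real.norm_eq_abs, abs_of_nonneg (h.w0 c i).1]
    exact (h.w0 c i).2
  linarith [dist_triangle x (x - w c) (x₀ c)]

/-- a tile which meets the ball and leaves the small ball is a lattice cube -/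
theorem cube (c : κ) {i : ι} (hi : (P (T.H i) ∩ closedBall (x₀ c) (R c)).Nonempty)
    (he : i ∉ range (e c)) : ∃ z, P (T.H i) = Cu (w c) (k c) z := by
  obtain ⟨z, -, hz⟩ := (h.zone c).lat i hi he
  exact ⟨z, by rw [hz, P_Hc_id]⟩

/-- a tile which meets a ball of radius `r ≥ R/4 + R/16`, `r ≤ R`, lies in the ball of radius
`r + R/16` -/
theorem meet (c : κ) {r : ℝ} (hr : R c / 4 ≤ r) (hr' : r ≤ R c) {i : ι}
    (hi : (P (T.H i) ∩ closedBall (x₀ c) r).Nonempty) :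
    P (T.H i) ⊆ closedBall (x₀ c) (r + R c / 16) := by
  intro y hy
  by_cases he : i ∈ range (e c)
  · obtain ⟨j, rfl⟩ := he
    rw [mem_closedBall]
    linarith [h.new_sub c j hy]
  · obtain ⟨x, hx, hxr⟩ := hi
    obtain ⟨z, hz⟩ := h.cube c ⟨x, hx, closedBall_subset_closedBall hr' hxr⟩ he
    rw [hz] at hx hy
    rw [mem_closedBall] at hxr ⊢
    linarith [dist_triangle y x (x₀ c), dist_Cu hy hx, h.scale c]

theorem e_mem (c : κ) : range (e c) ⊆ VZ T x₀ R c := by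
  rintro _ ⟨j, rfl⟩
  obtain ⟨x, hx⟩ := T.ne (e c j)
  have hx' : x ∈ P (T.H (e c j)) := fun a ha => (hx a ha).le
  refine ⟨x, hx', ?_⟩
  rw [mem_closedBall]
  linarith [h.new_sub c j hx', h.pos c]

theorem V_sub' (c : κ) {i : ι} (hi : i ∈ VZ T x₀ R c) :
    P (T.H i) ⊆ closedBall (x₀ c) (5 / 8 * R c) := by
  refine (h.meet c (by linarith [h.pos c]) (by linarith [h.pos c]) hi).trans
    (closedBall_subset_closedBall ?_)
  linarith [h.pos c]

theorem V_sub (c : κ) : ∀ i ∈ VZ T x₀ R c, P (T.H i) ⊆ closedBall (x₀ c) (R c) := fun _ hi =>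
  (h.V_sub' c hi).trans (closedBall_subset_closedBall (by linarith [h.pos c]))

theorem V_fin (c : κ) : (VZ T x₀ R c).Finite :=
  T.finite_tiles (isCompact_closedBall (x₀ c) (R c / 2))
    ((closedBall_subset_closedBall (by linarith [h.pos c])).trans (h.sub c))

theorem V_disj {c c' : κ} (hc : c ≠ c') : Disjoint (VZ T x₀ R c) (VZ T x₀ R c') := by
  rw [Set.disjoint_left]
  intro i hi hi'
  obtain ⟨x, hx⟩ := T.ne i
  have hx' : x ∈ P (T.H i) := fun a ha => (hx a ha).le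
  exact Set.disjoint_left.1 (h.disj hc) (h.V_sub c i hi hx') (h.V_sub c' i hi' hx')

/-- tiles in the ring -/
theorem ring_sub (c : κ) {i : ι}
    (hi : (P (T.H i) ∩ rg x₀ (fun c => 5 / 8 * R c) (fun c => 7 / 8 * R c) c).Nonempty) :
    P (T.H i) ⊆ closedBall (x₀ c) (R c) := by
  obtain ⟨x, hx, hx1, -⟩ := hi
  refine (h.meet c (r := 7 / 8 * R c) (by linarith [h.pos c]) (by linarith [h.pos c])
    ⟨x, hx, ball_subset_closedBall hx1⟩).trans (closedBall_subset_closedBall ?_)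
  linarith [h.pos c]

theorem ring_cube (c : κ) {i : ι}
    (hi : (P (T.H i) ∩ rg x₀ (fun c => 5 / 8 * R c) (fun c => 7 / 8 * R c) c).Nonempty) :
    ∃ z, P (T.H i) = Cu (w c) (k c) z := by
  obtain ⟨x, hx, hx1, hx2⟩ := hi
  refine h.cube c ⟨x, hx, ?_⟩ ?_
  · rw [mem_closedBall]
    have : dist x (x₀ c) < 7 / 8 * R c := hx1
    linarith [h.pos c]
  · rintro ⟨j, rfl⟩
    have h1 := h.new_sub c j hx
    apply hx2
    rw [mem_closedBall]
    linarith [h.pos c]

/-- **GEO-ZONE** -/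
theorem geo : Geo T Kt {i | ∃ c, i ∈ VZ T x₀ R c} x₀ (fun c => 5 / 8 * R c)
    (fun c => 7 / 8 * R c) 1 where
  ring :=
    { pos := fun c => by linarith [h.pos c]
      lt := fun c => by linarith [h.pos c]
      sub := fun c => (closedBall_subset_closedBall (by linarith [h.pos c])).trans (h.sub c)
      disj := fun c c' hc => (h.disj hc).mono
        (closedBall_subset_closedBall (by linarith [h.pos c]))
        (closedBall_subset_closedBall (by linarith [h.pos c']))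
      lf := fun x hx => by
        obtain ⟨U, hU, hf⟩ := h.lf x hx
        refine ⟨U, hU, hf.subset ?_⟩
        rintro c ⟨y, hy, hyU⟩
        exact ⟨y, closedBall_subset_closedBall (by linarith [h.pos c]) hy, hyU⟩ }
  half := fun c => by linarith [h.pos c]
  vt := fun i ⟨c, hc⟩ => ⟨c, h.V_sub' c hc⟩
  kt := fun i hi c => (h.kt i hi c).mono_right (closedBall_subset_closedBall (by linarith [h.pos c]))
  one := fun i c c' hi hi' => by
    by_contra hc
    have h1 := h.ring_sub c hi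
    obtain ⟨x, hx, hx1, -⟩ := hi'
    refine Set.disjoint_left.1 (h.disj hc) (h1 hx) ?_
    rw [mem_closedBall]
    have : dist x (x₀ c') < 7 / 8 * R c' := hx1
    linarith [h.pos c']
  fat := fun c i hi => by
    obtain ⟨z, hz⟩ := h.ring_cube c hi
    refine ⟨(2 : ℝ)⁻¹ ^ k c, by positivity, fun x hx y hy => ?_, ?_⟩
    · rw [hz] at hx hy
      rw [← dist_eq_norm]
      exact dist_Cu hx hy
    · rw [hz, volume_Cu, one_mul]

/-- a core tile is in no `V c` -/
theorem kt_V {i : ι} (hi : i ∈ Kt) (c : κ) : i ∉ VZ T x₀ R c := by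
  rintro ⟨x, hx, hx'⟩
  exact Set.disjoint_left.1 (h.kt i hi c) hx
    (closedBall_subset_closedBall (by linarith [h.pos c]) hx')

end ZoneFam

end

end Crest.Agent.R096.Eab_747
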