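import Crest.Agent.R096.Eau1_365
import Crest.Agent.R96.Gj2_872

/-!
Row 96 (S0127), helper365.  **EAU2**, part 1: the good set of one block on the LARGE box of translations,
the dyadic pre-translation `w0` near a support point.
-/

set_option autoImplicit false
set_option linter.style.longLine false
set_option linter.unusedSectionVars false
set_option linter.unusedVariables false

open MeasureTheory Set Filter Topology Metric
open scoped ENNReal NNReal

namespace Crest.Agent.R096.Eau_365

open Crest.AnalysisR.VecCalc3 Crest.AnalysisR.Sobolev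
open Crest.Agent.R096.SkC1_961 (E3 Hom3 FoamD)
open Crest.Agent.R096.Er_594 (SH3)
open Crest.Agent.R096.Bsp_628 Crest.Agent.R096.Brk5_582
open Crest.Agent.R096.Bxs_627 (ctr)
open Crest.Agent.R096.EaX_766 (lin cbx ExIn Kor RatA)
open Crest.Agent.R096.Exa_365 Crest.Agent.R096.Acc_365
open Crest.Agent.R96.Gj_872 (Dy)

noncomputable section

/-- **dyadic pre-translation**: for a set `G` of positive measure and a radius `r`, a vector `w0` with
dyadic coordinates, `δ`-close to a point of `G`, such that `w0 + s ∈ G` for a set of positive measure of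
vectors `s` in the ball of radius `r`. -/
theorem exists_w0 {G : Set E3} (hG0 : volume G ≠ 0) {r δ : ℝ} (hr : 0 < r)
    (hδ : 0 < δ) : ∃ (w0 : E3) (κ : ℕ), w0 ∈ Dy (ContinuousLinearEquiv.refl ℝ E3) κ ∧
      (∃ x ∈ G, ‖w0 - x‖ < δ) ∧ volume {s : E3 | ‖s‖ ≤ r ∧ w0 + s ∈ G} ≠ 0 := by
  obtain ⟨x, hx, hpos⟩ := exists_mem_forall_mem_nhdsWithin_pos_measure hG0
  set ρ : ℝ := min δ (r / 2) with hρ
  have hρ0 : 0 < ρ := lt_min hδ (by positivity)
  have hd := Crest.Agent.R96.Gj_872.dy_dense (ContinuousLinearEquiv.refl ℝ E3)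
  obtain ⟨w0, hw0, hw1⟩ := hd.exists_dist_lt x hρ0
  obtain ⟨κ, hκ⟩ := mem_iUnion.1 hw0
  refine ⟨w0, κ, hκ, ⟨x, hx, ?_⟩, ?_⟩
  · rw [← dist_eq_norm, dist_comm]
    exact hw1.trans_le (min_le_left _ _)
  · have h1 : 0 < volume (ball x (r / 2) ∩ G) := by
      refine hpos _ ?_
      rw [inter_comm]
      exact inter_mem self_mem_nhdsWithin (mem_nhdsWithin_of_mem_nhds (ball_mem_nhds _ (by positivity)))
    have h2 : (fun s : E3 => s + w0) '' {s : E3 | ‖s‖ ≤ r ∧ w0 + s ∈ G} ⊇ ball x (r / 2) ∩ G := by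
      rintro y ⟨hy1, hy2⟩
      refine ⟨y - w0, ⟨?_, ?_⟩, by simp⟩
      · have h3 : dist y x < r / 2 := hy1
        have h4 : dist x w0 < r / 2 := hw1.trans_le (min_le_right _ _)
        rw [← dist_eq_norm]
        calc dist y w0 ≤ dist y x + dist x w0 := dist_triangle _ _ _
          _ ≤ r := by linarith
      · rw [add_sub_cancel]; exact hy2
    intro h0
    have h5 : volume ((fun s : E3 => s + w0) '' {s : E3 | ‖s‖ ≤ r ∧ w0 + s ∈ G}) = 0 := by
      rw [image_add_right, measure_preimage_add_right]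
      exact h0
    exact h1.ne' (measure_mono_null h2 h5)

theorem measurable_Gd {G : Set E3} (hG : MeasurableSet G) (r : ℝ) (w0 : E3) :
    MeasurableSet {s : E3 | ‖s‖ ≤ r ∧ w0 + s ∈ G} := by
  have h1 : MeasurableSet {s : E3 | ‖s‖ ≤ r} := measurableSet_le measurable_norm measurable_const
  have h2 : Measurable fun s : E3 => w0 + s := measurable_const.add measurable_id
  exact h1.inter (h2 hG)

/-- **the good set of one block**: `GoodW` and the energy `F` at most 8 times its mean, on the large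
box of translations -/
theorem exists_G {p : ℝ} {Om La : Set E3} {f : E3 → E3} {D : E3 → E3 →L[ℝ] E3} (hO : IsOpen Om)
    (h : SH3 p Om La f D) {o : E3} {u κ1 κ2 : ℝ} {Q : Bx (Fin 3)} {A : E3 ≃ᵃ[ℝ] E3} {lam : ℝ}
    (hE : ExIn p Om f D o u κ1 κ2 Q A lam)
    {J : Type*} [Fintype J] (x v : J → E3) {ρ : ℝ} (hρ : 0 < ρ)
    (hsub : ∀ j, ∀ y ∈ Crest.Agent.R96.Sg1_199.sgm (A (x j)) (lin A (v j)),
      ∀ b ∈ Icc (0 : E3) (fun _ => ρ), y + b ∈ cbx Q ((1 + 2 * κ2) * lam)) {η : ℝ} (hη : 0 < η)
    (hκ : (Fintype.card J : ℝ) * (κ1 * (lam * Q.sz) ^ 3) ≤ (1 / 4) * η * ρ ^ 3)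
    {F : E3 → ℝ≥0∞} (hF : Measurable F) {m : ℝ≥0∞} (hm0 : m ≠ 0)
    (hm : ∫⁻ v in Wt A ρ, F v ≤ m * volume (Wt A ρ)) {N : Set E3} (hN : volume N = 0) :
    ∃ G : Set E3, MeasurableSet G ∧ G ⊆ Wt A ρ ∧ volume G ≠ 0 ∧
      ∀ w ∈ G, GoodW p Om f D A x v (ENNReal.ofReal η) w ∧ F w ≤ 8 * m ∧ w ∉ N := by
  have hW0 : volume (Wt A ρ) ≠ 0 := Crest.Agent.R96.Gj_872.volume_Wt_ne A hρ
  have hWt : volume (Wt A ρ) ≠ ∞ := (Crest.Agent.R96.Gj_872.isBounded_Wt A ρ).measure_lt_top.ne
  have hWm := measurableSet_Wt A ρ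
  by_cases hmt : m = ∞
  · -- no condition on the energy
    have h1 := exin_box hO h hE x v hρ hsub hη (by norm_num : (0:ℝ) ≤ 1 / 4) hκ
    set B1 := {w | w ∈ Wt A ρ ∧ ¬ GoodW p Om f D A x v (ENNReal.ofReal η) w} with hB1
    set B := toMeasurable volume (B1 ∪ N) with hB
    refine ⟨Wt A ρ \ B, hWm.diff (measurableSet_toMeasurable _ _), diff_subset, ?_, ?_⟩
    · intro h0
      have h2 : volume (Wt A ρ) ≤ volume B := by
        calc volume (Wt A ρ) ≤ volume ((Wt A ρ \ B) ∪ B) := by
              refine measure_mono fun y hy => ?_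
              by_cases hyB : y ∈ B
              · exact Or.inr hyB
              · exact Or.inl ⟨hy, hyB⟩
          _ ≤ volume (Wt A ρ \ B) + volume B := measure_union_le _ _
          _ = volume B := by rw [h0, zero_add]
      have h3 : volume B ≤ ENNReal.ofReal (1 / 4) * volume (Wt A ρ) := by
        rw [hB, measure_toMeasurable]
        calc volume (B1 ∪ N) ≤ volume B1 + volume N := measure_union_le _ _
          _ = volume B1 := by rw [hN, add_zero]
          _ ≤ _ := h1
      have h4 := h2.trans h3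
      have h5 : ENNReal.ofReal (1 / 4) * volume (Wt A ρ) < 1 * volume (Wt A ρ) := by
        refine ENNReal.mul_lt_mul_left hW0 hWt ?_
        rw [← ENNReal.ofReal_one]
        exact (ENNReal.ofReal_lt_ofReal_iff one_pos).2 (by norm_num)
      rw [one_mul] at h5
      exact absurd h4 (not_le.2 h5)
    · rintro w ⟨hw1, hw2⟩
      have hw3 : w ∉ B1 ∪ N := fun h => hw2 (subset_toMeasurable _ _ h)
      refine ⟨?_, ?_, fun h => hw3 (Or.inr h)⟩
      · by_contra hcon
        exact hw3 (Or.inl ⟨hw1, hcon⟩)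
      · rw [hmt, ENNReal.mul_top (by norm_num)]
        exact le_top
  · have h1 := exin_box hO h hE x v hρ hsub hη (by norm_num : (0:ℝ) ≤ 1 / 4) hκ
    set B1 := {w | w ∈ Wt A ρ ∧ ¬ GoodW p Om f D A x v (ENNReal.ofReal η) w} with hB1
    set B2 := {w | w ∈ Wt A ρ ∧ 8 * m < F w} with hB2
    set B := toMeasurable volume (B1 ∪ B2 ∪ N) with hB
    have h2 : volume B2 ≤ ENNReal.ofReal (1 / 8) * volume (Wt A ρ) := by
      have h8m : 8 * m ≠ 0 := mul_ne_zero (by norm_num) hm0
      have h8t : 8 * m ≠ ∞ := ENNReal.mul_ne_top (by norm_num) hmt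
      have h3 : 8 * m * volume B2 ≤ m * volume (Wt A ρ) := by
        have h4 : 8 * m * volume B2 ≤ ∫⁻ v in Wt A ρ, F v := by
          have h5 := mul_meas_ge_le_lintegral (μ := volume.restrict (Wt A ρ)) hF (8 * m)
          refine le_trans (mul_le_mul' le_rfl ?_) h5
          rw [Measure.restrict_apply (measurableSet_le measurable_const hF)]
          exact measure_mono fun y hy => ⟨hy.2.le, hy.1⟩
        exact h4.trans hm
      have h6 : 8 * volume B2 ≤ volume (Wt A ρ) := by
        have h7 : m * (8 * volume B2) ≤ m * volume (Wt A ρ) := by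
          calc m * (8 * volume B2) = 8 * m * volume B2 := by ring
            _ ≤ _ := h3
        exact (ENNReal.mul_le_mul_iff_right hm0 hmt).1 h7
      calc volume B2 = ENNReal.ofReal (1 / 8) * (8 * volume B2) := by
            rw [← mul_assoc]
            have : ENNReal.ofReal (1 / 8) * 8 = 1 := by
              have h8 : (8 : ℝ≥0∞) = ENNReal.ofReal 8 := by norm_num
              rw [h8, ← ENNReal.ofReal_mul (by norm_num)]
              norm_num
            rw [this, one_mul]
        _ ≤ _ := by gcongr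
    refine ⟨Wt A ρ \ B, hWm.diff (measurableSet_toMeasurable _ _), diff_subset, ?_, ?_⟩
    · intro h0
      have h3 : volume (Wt A ρ) ≤ volume B := by
        calc volume (Wt A ρ) ≤ volume ((Wt A ρ \ B) ∪ B) := by
              refine measure_mono fun y hy => ?_
              by_cases hyB : y ∈ B
              · exact Or.inr hyB
              · exact Or.inl ⟨hy, hyB⟩
          _ ≤ volume (Wt A ρ \ B) + volume B := measure_union_le _ _
          _ = volume B := by rw [h0, zero_add]
      have h4 : volume B ≤ ENNReal.ofReal (1 / 2) * volume (Wt A ρ) := by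
        rw [hB, measure_toMeasurable]
        calc volume (B1 ∪ B2 ∪ N) ≤ volume (B1 ∪ B2) + volume N := measure_union_le _ _
          _ = volume (B1 ∪ B2) := by rw [hN, add_zero]
          _ ≤ volume B1 + volume B2 := measure_union_le _ _
          _ ≤ ENNReal.ofReal (1 / 4) * volume (Wt A ρ) + ENNReal.ofReal (1 / 8) * volume (Wt A ρ) :=
              add_le_add h1 h2
          _ = ENNReal.ofReal (1 / 4 + 1 / 8) * volume (Wt A ρ) := by
              rw [← add_mul, ← ENNReal.ofReal_add (by norm_num) (by norm_num)]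
          _ ≤ _ := by
              gcongr
              norm_num
      have h5 := h3.trans h4
      have h6 : ENNReal.ofReal (1 / 2) * volume (Wt A ρ) < 1 * volume (Wt A ρ) := by
        refine ENNReal.mul_lt_mul_left hW0 hWt ?_
        rw [← ENNReal.ofReal_one]
        exact (ENNReal.ofReal_lt_ofReal_iff one_pos).2 (by norm_num)
      rw [one_mul] at h6
      exact absurd h5 (not_le.2 h6)
    · rintro w ⟨hw1, hw2⟩
      have hw3 : w ∉ B1 ∪ B2 ∪ N := fun h => hw2 (subset_toMeasurable _ _ h)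
      refine ⟨?_, ?_, fun h => hw3 (Or.inr h)⟩
      · by_contra hcon
        exact hw3 (Or.inl (Or.inl ⟨hw1, hcon⟩))
      · by_contra hcon
        exact hw3 (Or.inl (Or.inr ⟨hw1, not_le.1 hcon⟩))

end

end Crest.Agent.R096.Eau_365
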