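import Crest.Agent.R096.Eau2_365
import Crest.Agent.R096.Mdd10_360
import Crest.Agent.R096.Wd19_120

/-!
Row 96 (S0127), helper365.  **EAU3**: the data of the block of one exact core (`BkX`).
-/

set_option autoImplicit false
set_option linter.style.longLine false
set_option linter.unusedSectionVars false
set_option linter.unusedVariables false

open MeasureTheory Set Filter Topology Metric
open scoped ENNReal NNReal

namespace Crest.Agent.R096.Eau_365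

open Crest.Agent.R096.SkC1_961 (E3 Hom3 FoamD th)
open Crest.Agent.R096.Bsp_628 Crest.Agent.R096.Brk5_582
open Crest.Agent.R096.Brk1_582 Crest.Agent.R096.Brk2_582 Crest.Agent.R096.Brk3_582
open Crest.Agent.R096.Bxs_627 (ctr zz)
open Crest.Agent.R096.EaX_766 (lin cbx RatA)
open Crest.Agent.R096.Msh_715 Crest.Agent.R096.Ls_222
open Crest.Agent.R096.Mal_874 Crest.Agent.R096.Msh_810

noncomputable section

/-- **the block of one exact core** of the brick `c` (`lam` = the ratio of the core tile, i.e.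
`(1 + θ) lam c` of `EA`; `m` = number of subdivisions): everything the assembly of `PreX` uses. -/
structure BkX (F : Set (Bx (Fin 3))) (c : F) (A : E3 ≃ᵃ[ℝ] E3) (lam κ4 : ℝ) (m Bn : ℕ) (R0 : ℝ)
    (Q : CB E3 3) : Prop where
  kc : Q.kc = 3
  Kc : Q.Kc = A ⁻¹' cbx c.1 lam
  N : Q.N ⊆ A ⁻¹' cbx c.1 ((1 + 2 * κ4) * lam)
  psi : ∃ s : ℝ, 0 < s ∧ m * s ≤ 4 * (lam * c.1.sz) ∧ ∀ y, Q.ψ y = s⁻¹ • lin A y
  rt : ∃ (Bm : Fin 3 → Fin 3 → ℤ) (d : ℕ), 0 < d ∧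
    Rt (ContinuousLinearEquiv.refl ℝ E3) Q.ψ Bm d ∧ ∀ l, ∃ z : ℤ, (d : ℝ) * Q.a' l = z
  bnd : ∀ i, ∀ p ∈ Q.S.GG i, ∀ l, |p.1 l| ≤ (Bn : ℤ)
  size : ∀ i, i ≠ Q.S.core → ∀ u ∈ ZP (Q.S.GG i), ∀ v ∈ ZP (Q.S.GG i), ∀ l, |v l - u l| ≤ R0
  grid : ∀ (k : ℕ) (hk : Q.kc ≤ k), ∀ x ∈ Q.Kc, x ∉ I ((Q.T k hk).H (Q.cix k hk)) →
    (Q.T k hk).cc x = {y | y ∈ Q.Kc ∧ ∀ a : F,
      (⌊m * sc (Pc F) (bc (F := F)) (th A lam (zz c.1 lam) x) a⌋₊ : ℝ) ≤
        m * sc (Pc F) (bc (F := F)) (th A lam (zz c.1 lam) y) a ∧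
      m * sc (Pc F) (bc (F := F)) (th A lam (zz c.1 lam) y) a ≤
        ⌈m * sc (Pc F) (bc (F := F)) (th A lam (zz c.1 lam) x) a⌉₊} ∧
    (Q.T k hk).dim x = {a : F | ⌊m * sc (Pc F) (bc (F := F)) (th A lam (zz c.1 lam) x) a⌋₊ <
      ⌈m * sc (Pc F) (bc (F := F)) (th A lam (zz c.1 lam) x) a⌉₊}.ncard

variable {F : Set (Bx (Fin 3))} {c : F} {A : E3 ≃ᵃ[ℝ] E3} {lam κ4 : ℝ} {m Bn : ℕ} {R0 : ℝ}
  {Q : CB E3 3}

/-- the coordinates of the block against the map -/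
theorem BkX.exists_uA (h : BkX F c A lam κ4 m Bn R0 Q) (hm : 0 < m) :
    ∃ uA : ℝ, 0 ≤ uA ∧ uA ≤ 4 / m * (lam * c.1.sz) ∧
      ∀ x y, ‖A y - A x‖ ≤ uA * dist (Q.ψ x) (Q.ψ y) := by
  obtain ⟨s, hs, hs1, hs2⟩ := h.psi
  have hm' : (0:ℝ) < m := by exact_mod_cast hm
  refine ⟨s, hs.le, ?_, fun x y => ?_⟩
  · rw [div_mul_eq_mul_div, le_div_iff₀ hm']
    linarith
  · have h1 : A y - A x = lin A (y - x) := by
      have := Crest.Agent.R096.Exa_365.aff_add A x (y - x)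
      rw [add_sub_cancel] at this
      rw [this, add_sub_cancel_left]
    rw [h1, dist_comm, dist_eq_norm, ← map_sub, hs2, norm_smul, norm_inv, Real.norm_eq_abs,
      abs_of_pos hs, ← mul_assoc, mul_inv_cancel₀ hs.ne', one_mul]

end

end Crest.Agent.R096.Eau_365
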