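import Crest.Agent.R096.Qc0_222
import Crest.Agent.R096.Exa3_365

/-!
# Row 96 (S0127), helper746.  EA-D, part 4 (**[D4-COARSE] for EaX**): the energy of the coarse classes of a
block at a shift which is good (`Exa_365.GoodW`) for the edges of the tiles of the block.
-/

set_option autoImplicit false
set_option linter.style.longLine false
set_option linter.unusedSectionVars false

open MeasureTheory Set Filter Metric
open scoped Topology ENNReal NNReal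

namespace Crest.Agent.R096.Eds_746

open Crest.Agent.R096.Msh_715 Crest.Agent.R096.Mal_874 Crest.Agent.R096.Ncl_476
  Crest.Agent.R096.Msh_810 Crest.Agent.R096.Ine_222 Crest.Agent.R096.Mfi_290 Crest.Agent.R096.Qc_222
open Crest.Agent.R096.SkC1_961 (E3 Cfg)
open Crest.Agent.R96.Sg1_199 (li sgm sgm_eq_segment)
open Crest.Agent.R096.Ls_222 (Edg ea ev eIn mem_eIn sgm_edg ev_ne sgm_cases)
open Crest.Agent.R096.EaX_766 (lin)
open Crest.Agent.R096.Pmc_112 (Gd')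
open Crest.Agent.R096.Exa_365 (GoodW)

noncomputable section

/-! ### one tile -/

section tile

variable {Om : Set E3} {ι : Type*} {T : Tiling Om ι}
variable {L : E3 →L[ℝ] E3} {𝒮 : Set (Set E3)} {O : Set ι} {s : ι → ℝ}

/-- the energy of one tile, from a bound of the line integrals along its edges -/
theorem tile_le (h : Fam T L 𝒮 O s) {t : ι} (ht : t ∈ O) {p : ℝ} (hp : 0 ≤ p) {g : Edg T → ℝ≥0∞}
    {K : ℝ≥0∞} (hg : ∀ e ∈ eIn T t, g e ≤ K * ‖L (ev e)‖ₑ) :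
    volume (P (T.H t)) * (ENNReal.ofReal (‖L‖ / s t) * ∑ e ∈ eIn T t, g e) ^ p ≤
      (((𝒮.ncard : ℕ) : ℝ≥0∞) * ENNReal.ofReal (Dsh 𝒮)) ^ p * K ^ p * ‖L‖ₑ ^ p *
        volume (P (T.H t)) := by
  obtain ⟨B, hB, hS⟩ := h.fr t ht
  have hs := h.pos t ht
  have hn : (eIn T t).card ≤ 𝒮.ncard := eIn_card_le h.fin hS
  have h1 : ∀ e ∈ eIn T t, g e ≤ K * ENNReal.ofReal (s t * Dsh 𝒮) := by
    intro e he
    refine (hg e he).trans ?_
    gcongr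
    have h2 := h.size ht (mem_eIn.1 he (eb_mem e)) (mem_eIn.1 he (ea_mem e))
    rw [add_sub_cancel_left] at h2
    rw [← ofReal_norm_eq_enorm]
    exact ENNReal.ofReal_le_ofReal h2
  have h3 : ENNReal.ofReal (‖L‖ / s t) * ∑ e ∈ eIn T t, g e ≤
      ((𝒮.ncard : ℕ) : ℝ≥0∞) * ENNReal.ofReal (Dsh 𝒮) * K * ‖L‖ₑ := by
    calc ENNReal.ofReal (‖L‖ / s t) * ∑ e ∈ eIn T t, g e
        ≤ ENNReal.ofReal (‖L‖ / s t) * ∑ _e ∈ eIn T t, K * ENNReal.ofReal (s t * Dsh 𝒮) := by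
          gcongr with e he
          exact h1 e he
      _ = (((eIn T t).card : ℕ) : ℝ≥0∞) * K *
          (ENNReal.ofReal (‖L‖ / s t) * ENNReal.ofReal (s t * Dsh 𝒮)) := by
          rw [Finset.sum_const, nsmul_eq_mul]
          ring
      _ = (((eIn T t).card : ℕ) : ℝ≥0∞) * K * (‖L‖ₑ * ENNReal.ofReal (Dsh 𝒮)) := by
          congr 1
          rw [← ofReal_norm_eq_enorm, ← ENNReal.ofReal_mul (by positivity),
            ← ENNReal.ofReal_mul (norm_nonneg _)]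
          congr 1
          field_simp
      _ ≤ ((𝒮.ncard : ℕ) : ℝ≥0∞) * K * (‖L‖ₑ * ENNReal.ofReal (Dsh 𝒮)) := by
          gcongr
      _ = _ := by ring
  calc volume (P (T.H t)) * (ENNReal.ofReal (‖L‖ / s t) * ∑ e ∈ eIn T t, g e) ^ p
      ≤ volume (P (T.H t)) *
        (((𝒮.ncard : ℕ) : ℝ≥0∞) * ENNReal.ofReal (Dsh 𝒮) * K * ‖L‖ₑ) ^ p := by gcongr
    _ = _ := by
        rw [ENNReal.mul_rpow_of_nonneg _ _ hp, ENNReal.mul_rpow_of_nonneg _ _ hp]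
        ring

end tile

/-! ### the block -/

section blk

variable (Q : CB E3 3) (k0 : ℕ) (hk : Q.kc ≤ k0)

/-- the tiles of the block without the core fill at most `N \ Kc` -/
theorem sum_vol_le :
    ∑' i0 : {i // P ((Q.T k0 hk).H i) ⊆ Q.N ∧ i ≠ Q.cix k0 hk}, volume (P ((Q.T k0 hk).H i0.1)) ≤
      volume (Q.N \ Q.Kc) := by
  calc ∑' i0 : {i // P ((Q.T k0 hk).H i) ⊆ Q.N ∧ i ≠ Q.cix k0 hk}, volume (P ((Q.T k0 hk).H i0.1))
      ≤ ∑' i0 : {i // P ((Q.T k0 hk).H i) ⊆ Q.N ∧ i ≠ Q.cix k0 hk},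
        volume (I ((Q.T k0 hk).H i0.1)) :=
        ENNReal.tsum_le_tsum fun i0 => vol_P_le ((Q.T k0 hk).ne i0.1)
    _ ≤ volume (⋃ i0 : {i // P ((Q.T k0 hk).H i) ⊆ Q.N ∧ i ≠ Q.cix k0 hk},
        I ((Q.T k0 hk).H i0.1)) := by
        refine tsum_meas_le_meas_iUnion_of_disjoint volume
          (fun i0 => (isOpen_I _).measurableSet) ?_
        intro i j hij
        exact (Q.T k0 hk).dis i.1 j.1 fun h => hij (Subtype.ext h)
    _ ≤ volume (Q.N \ Q.Kc) := by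
        refine measure_mono (iUnion_subset fun i0 => ?_)
        intro x hx
        refine ⟨i0.2.1 (I_sub_P _ hx), fun hK => ?_⟩
        rw [← Q.P_core k0 hk] at hK
        have h1 := disjoint_P_I ((Q.T k0 hk).ne (Q.cix k0 hk))
          ((Q.T k0 hk).dis (Q.cix k0 hk) i0.1 (Ne.symm i0.2.2))
        exact disjoint_left.1 h1 hK hx

/-- the edges of the tiles of the block (without the core tile) -/
def EB : Set (Edg (Q.T k0 hk)) :=
  {e | ∃ t, P ((Q.T k0 hk).H t) ⊆ Q.N ∧ t ≠ Q.cix k0 hk ∧ e ∈ eIn (Q.T k0 hk) t}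

end blk

/-! ### the coarse classes -/

/-- **[D4-COARSE]**, general: the energy of the coarse classes from a bound of the line integrals along the
edges of the tiles of the block mesh -/
theorem coarse_X {Bs : ℕ} (hB1 : 1 ≤ Bs) {p : ℝ} (hp : 0 < p) : ∃ C : ℝ≥0, 0 < C ∧
    ∀ {J : Type} (M : MD E3 3 J) (X : RD M) (j : J) (k0 : ℕ) (hk0 : (M.Q j).kc ≤ k0)
      (𝒦 : Set (Set E3)) (U : Set E3) (h𝒦 : 𝒦.Countable) (hU : U.Countable) (A : E3 ≃ᵃ[ℝ] E3)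
      (u : ℝ), 0 < u → (∀ x : E3, A.linear x = u • (M.Q j).ψ x) →
      (∀ i, ∀ p ∈ (M.Q j).S.GG i, ∀ l, |p.1 l| ≤ Bs) →
      (∀ i, i ≠ (M.Q j).S.core → ∀ v ∈ ZP ((M.Q j).S.GG i), ∀ w ∈ ZP ((M.Q j).S.GG i),
        ∀ l, |w l - v l| ≤ Bs) →
    ∀ (D' : E3 → E3 →L[ℝ] E3) (K : ℝ≥0∞) (s : E3),
      (∀ e ∈ EB (M.Q j) k0 hk0, li (Gd' D' (ev e)) (ea e + s) (ev e) ≤ K * ‖lin A (ev e)‖ₑ) →
      ∑' t : Pt (M.Q j), ((QI M X j k0 hk0).toPT 𝒦 U h𝒦 hU).EnC (Gd' D') p (Sum.inl t) s ≤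
        C * K ^ p * ‖lin A‖ₑ ^ p * volume ((M.Q j).N \ (M.Q j).Kc) := by
  have hCt : ((((SL Bs).ncard : ℕ) : ℝ≥0∞) * ENNReal.ofReal (Dsh (SL Bs))) ^ p ≠ ∞ :=
    ENNReal.rpow_ne_top_of_nonneg hp.le
      (ENNReal.mul_ne_top (ENNReal.natCast_ne_top _) ENNReal.ofReal_ne_top)
  refine ⟨((((SL Bs).ncard : ℕ) : ℝ≥0∞) * ENNReal.ofReal (Dsh (SL Bs))).toNNReal ^ p + 1,
    by positivity, ?_⟩
  intro J M X j k0 hk0 𝒦 U h𝒦 hU A u hu hA hB hR D' K s hK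
  set C0 : ℝ≥0∞ := (((SL Bs).ncard : ℕ) : ℝ≥0∞) * ENNReal.ofReal (Dsh (SL Bs)) with hC0
  have hC0t : C0 ≠ ∞ := ENNReal.mul_ne_top (ENNReal.natCast_ne_top _) ENNReal.ofReal_ne_top
  have hCC : C0 ^ p ≤ ((C0.toNNReal ^ p + 1 : ℝ≥0) : ℝ≥0∞) := by
    rw [ENNReal.coe_add, ENNReal.coe_rpow_of_nonneg _ hp.le, ENNReal.coe_toNNReal hC0t]
    exact le_self_add
  have hF := fam (M.Q j) k0 hk0 hB1 hu hA hB hR
  refine (coarse_le M X j k0 hk0 h𝒦 hU hu hA (gd_even D') hp s).trans ?_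
  calc ∑' i0 : {i // P (((M.Q j).T k0 hk0).H i) ⊆ (M.Q j).N ∧ i ≠ (M.Q j).cix k0 hk0},
        volume (P (((M.Q j).T k0 hk0).H i0.1)) *
          (ENNReal.ofReal (‖lin A‖ / (u / 2 ^ kap (M.Q j) k0 hk0 i0.1)) *
            ∑ e ∈ eIn ((M.Q j).T k0 hk0) i0.1, li (Gd' D' (ev e)) (ea e + s) (ev e)) ^ p
      ≤ ∑' i0 : {i // P (((M.Q j).T k0 hk0).H i) ⊆ (M.Q j).N ∧ i ≠ (M.Q j).cix k0 hk0},
          C0 ^ p * K ^ p * ‖lin A‖ₑ ^ p * volume (P (((M.Q j).T k0 hk0).H i0.1)) := by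
        refine ENNReal.tsum_le_tsum fun i0 => ?_
        exact tile_le hF i0.2.2 hp.le (g := fun e => li (Gd' D' (ev e)) (ea e + s) (ev e))
          fun e he => hK e ⟨i0.1, i0.2.1, i0.2.2, he⟩
    _ = C0 ^ p * K ^ p * ‖lin A‖ₑ ^ p *
          ∑' i0 : {i // P (((M.Q j).T k0 hk0).H i) ⊆ (M.Q j).N ∧ i ≠ (M.Q j).cix k0 hk0},
            volume (P (((M.Q j).T k0 hk0).H i0.1)) := ENNReal.tsum_mul_left
    _ ≤ C0 ^ p * K ^ p * ‖lin A‖ₑ ^ p * volume ((M.Q j).N \ (M.Q j).Kc) := by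
        gcongr
        exact sum_vol_le (M.Q j) k0 hk0
    _ ≤ _ := by gcongr

/-! ### translation of the block -/

section tr

variable (Q : CB E3 3) (b : E3) {k0 : ℕ} (hk : Q.kc ≤ k0)

/-- **the edges of the translated block are the translates of the edges of the block** -/
theorem EB_tr {e' : Edg ((Q.tr b).T k0 hk)} (he : e' ∈ EB (Q.tr b) k0 hk) :
    ∃ e ∈ EB Q k0 hk, sgm (ea e') (ev e') = sgm (ea e + b) (ev e) := by
  obtain ⟨t', h1, h2, h3⟩ := he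
  obtain ⟨x', hx', hd', hex'⟩ := e'.2
  have hxb : x' - b + b = x' := sub_add_cancel x' b
  have hrg := Q.rg_tr b k0 hk (x' - b)
  have hxP : x' ∈ P (((Q.tr b).T k0 hk).H t') :=
    mem_eIn.1 h3 (hex' ▸ ((Q.tr b).T k0 hk).self_mem_cc x')
  obtain ⟨t, ht, htt⟩ := hrg.2 t' (by rw [hxb]; exact hxP)
  have hxO : x' - b ∈ Q.ψ ⁻¹' (Q.D k0 hk).Om := (Q.T k0 hk).sub t ht
  have hdim : (Q.T k0 hk).dim (x' - b) = 1 := by
    rw [← hrg.dim, hxb]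
    exact hd'
  refine ⟨⟨(Q.T k0 hk).cc (x' - b), x' - b, hxO, hdim, rfl⟩, ⟨t, ?_, ?_, ?_⟩, ?_⟩
  · intro y hy
    have h4 : y + b ∈ (Q.tr b).N := h1 (by rw [htt]; exact mem_P_trS.2 hy)
    rw [Q.mem_N_tr, add_sub_cancel_right] at h4
    exact h4
  · rintro rfl
    apply h2
    apply Mfa_880.tile_inj ((Q.tr b).T k0 hk)
    rw [(Q.tr b).P_core k0 hk, htt]
    ext y
    rw [Q.mem_Kc_tr, ← Q.P_core k0 hk]
    constructor
    · intro hy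
      rw [← mem_P_trS (b := b), sub_add_cancel]
      exact hy
    · intro hy
      rw [← mem_P_trS (b := b), sub_add_cancel] at hy
      exact hy
  · exact mem_eIn.2 ((Q.T k0 hk).cc_sub_tile ht)
  · rw [sgm_edg]
    set e : Edg (Q.T k0 hk) := ⟨(Q.T k0 hk).cc (x' - b), x' - b, hxO, hdim, rfl⟩ with he
    have h5 : sgm (ea e) (ev e) = (Q.T k0 hk).cc (x' - b) := sgm_edg e
    ext y
    rw [hex']
    have h6 : y ∈ ((Q.tr b).T k0 hk).cc x' ↔ y - b ∈ (Q.T k0 hk).cc (x' - b) := by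
      have h7 := hrg.cc (y := y - b)
      have h8 : y - b + b = y := sub_add_cancel y b
      rw [h8, hxb] at h7
      exact h7
    rw [h6, ← h5]
    unfold sgm
    constructor
    · rintro ⟨τ, hτ, h7⟩
      refine ⟨τ, hτ, ?_⟩
      change ea e + τ • ev e = y - b at h7
      change ea e + b + τ • ev e = y
      rw [← sub_add_cancel y b, ← h7]
      abel
    · rintro ⟨τ, hτ, h7⟩
      refine ⟨τ, hτ, ?_⟩
      change ea e + b + τ • ev e = y at h7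
      change ea e + τ • ev e = y - b
      rw [← h7]
      abel

theorem volume_tr : volume ((Q.tr b).N \ (Q.tr b).Kc) = volume (Q.N \ Q.Kc) := by
  have e : (Q.tr b).N \ (Q.tr b).Kc = (fun y => y + -b) ⁻¹' (Q.N \ Q.Kc) := by
    ext y
    rw [mem_preimage, Set.mem_sdiff, Set.mem_sdiff, Q.mem_N_tr, Q.mem_Kc_tr, sub_eq_add_neg]
  rw [e]
  exact measure_preimage_add_right volume (-b) _

end tr

/-- the line integral of `D` along a segment of a good family -/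
theorem goodW_li {ι : Type*} {p : ℝ} {Om : Set E3} {f : E3 → E3} {D : E3 → E3 →L[ℝ] E3}
    {A : E3 ≃ᵃ[ℝ] E3} {x v : ι → E3} {η : ℝ≥0∞} {w : E3} (h : GoodW p Om f D A x v η w) (hp : 1 ≤ p)
    (j : ι) : li (Gd' D (v j)) (x j + w) (v j) ≤ (1 + η ^ (1 / p)) * ‖lin A (v j)‖ₑ := by
  calc li (Gd' D (v j)) (x j + w) (v j)
      ≤ ∫⁻ τ in Icc (0:ℝ) 1, (1 + Exa_365.Gd A D (x j + w + τ • v j)) * ‖lin A (v j)‖ₑ :=
        lintegral_mono fun τ => Exa_365.dir_le A D _ _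
    _ = (1 + li (Exa_365.Gd A D) (x j + w) (v j)) * ‖lin A (v j)‖ₑ := by
        rw [lintegral_mul_const' _ _ enorm_ne_top, lintegral_add_left measurable_const]
        congr 2
        simp
    _ ≤ _ := by
        gcongr
        exact h.li_Gd hp j

/-- restriction of a good family -/
theorem goodW_comp {ι ι' : Type*} {p : ℝ} {Om : Set E3} {f : E3 → E3} {D : E3 → E3 →L[ℝ] E3}
    {A : E3 ≃ᵃ[ℝ] E3} {x v : ι → E3} {η : ℝ≥0∞} {w : E3} (h : GoodW p Om f D A x v η w)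
    (φ : ι' → ι) : GoodW p Om f D A (fun i => x (φ i)) (fun i => v (φ i)) η w :=
  ⟨fun i j => h.ac i (φ j), fun j => h.ms (φ j), fun j => h.sm (φ j)⟩

/-- **[D4-COARSE] for EaX** (365 #11531 (b)): the energy of the coarse classes of the block `M.Q j = Q.tr w0`
at the room shift `s`, if the total shift `v = w0 + s` is good for the edges of the original block `Q`. -/
theorem coarse_good {Bs : ℕ} (hB1 : 1 ≤ Bs) {p : ℝ} (hp : 1 ≤ p) : ∃ C : ℝ≥0, 0 < C ∧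
    ∀ (Q : CB E3 3) (k0 : ℕ) (hk : Q.kc ≤ k0) (A : E3 ≃ᵃ[ℝ] E3) (u : ℝ), 0 < u →
      (∀ x : E3, A.linear x = u • Q.ψ x) → (∀ i, ∀ p ∈ Q.S.GG i, ∀ l, |p.1 l| ≤ Bs) →
      (∀ i, i ≠ Q.S.core → ∀ v ∈ ZP (Q.S.GG i), ∀ w ∈ ZP (Q.S.GG i), ∀ l, |w l - v l| ≤ Bs) →
    ∀ (Om : Set E3) (f : E3 → E3) (D : E3 → E3 →L[ℝ] E3) (η : ℝ≥0∞) (v : E3),
      GoodW p Om f D A (fun e : EB Q k0 hk => ea e.1) (fun e => ev e.1) η v →
    ∀ (D' : E3 → E3 →L[ℝ] E3) (Kq : ℝ≥0∞),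
      (∀ e ∈ EB Q k0 hk, li (Gd' D' (ev e)) (ea e + v) (ev e) ≤
        Kq * li (Gd' D (ev e)) (ea e + v) (ev e)) →
    ∀ {J : Type} (M : MD E3 3 J) (X : RD M) (j : J) (w0 s : E3), M.Q j = Q.tr w0 → w0 + s = v →
    ∀ (hk0 : (M.Q j).kc ≤ k0) (𝒦 : Set (Set E3)) (U : Set E3) (h𝒦 : 𝒦.Countable) (hU : U.Countable),
      ∑' t : Pt (M.Q j), ((QI M X j k0 hk0).toPT 𝒦 U h𝒦 hU).EnC (Gd' D') p (Sum.inl t) s ≤
        C * (Kq * (1 + η ^ (1 / p))) ^ p * ‖lin A‖ₑ ^ p * volume (Q.N \ Q.Kc) := by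
  obtain ⟨C, hC, H⟩ := coarse_X hB1 (p := p) (by linarith)
  refine ⟨C, hC, ?_⟩
  intro Q k0 hk A u hu hA hB hR Om f D η v hG D' Kq hD' J M X j w0 s hQ hs hk0 𝒦 U h𝒦 hU
  have key : ∀ Q' : CB E3 3, Q' = Q.tr w0 → ∀ hk' : Q'.kc ≤ k0,
      (∀ x : E3, A.linear x = u • Q'.ψ x) ∧ (∀ i, ∀ p ∈ Q'.S.GG i, ∀ l, |p.1 l| ≤ Bs) ∧
      (∀ i, i ≠ Q'.S.core → ∀ v ∈ ZP (Q'.S.GG i), ∀ w ∈ ZP (Q'.S.GG i), ∀ l, |w l - v l| ≤ Bs) ∧
      (∀ e ∈ EB Q' k0 hk', li (Gd' D' (ev e)) (ea e + s) (ev e) ≤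
        (Kq * (1 + η ^ (1 / p))) * ‖lin A (ev e)‖ₑ) ∧
      volume (Q'.N \ Q'.Kc) = volume (Q.N \ Q.Kc) := by
    rintro _ rfl hk'
    refine ⟨hA, hB, hR, ?_, volume_tr Q w0⟩
    intro e' he'
    obtain ⟨e, he, hee⟩ := EB_tr Q w0 hk he'
    have h1 : li (Gd' D' (ev e')) (ea e' + s) (ev e') = li (Gd' D' (ev e)) (ea e + v) (ev e) := by
      have := li_even (G := Gd' D') (gd_even D') (ev_ne e') hee s
      rw [this, ← hs]
      congr 1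
      abel
    have h2 : ‖lin A (ev e')‖ₑ = ‖lin A (ev e)‖ₑ := by
      rcases sgm_cases (ev_ne e') hee with ⟨h3, h4⟩ | ⟨h3, h4⟩
      · rw [h4]
      · rw [h4, map_neg, enorm_neg]
    rw [h1, h2]
    refine (hD' e he).trans ?_
    rw [mul_assoc]
    gcongr
    exact goodW_li hG hp ⟨e, he⟩
  obtain ⟨h1, h2, h3, h4, h5⟩ := key (M.Q j) hQ hk0
  rw [← h5]
  exact H M X j k0 hk0 𝒦 U h𝒦 hU A u hu h1 h2 h3 D' _ s h4

end

end Crest.Agent.R096.Eds_746
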