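import Crest.Agent.R096.Eau2_365
import Crest.Agent.R096.Eds4_746
import Crest.Agent.R096.Bm3_748

/-!
Row 96 (S0127), helper365.  **EAU4**: the good set of translations of one block (foam-free, abstract `D'`).
-/

set_option autoImplicit false
set_option linter.style.longLine false
set_option linter.unusedSectionVars false
set_option linter.unusedVariables false

open MeasureTheory Set Filter Topology Metric
open scoped ENNReal NNReal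

namespace Crest.Agent.R096.Eau_365

open Crest.Agent.R096.Msh_715 Crest.Agent.R096.Mal_874 Crest.Agent.R096.Ncl_476
  Crest.Agent.R096.Msh_810 Crest.Agent.R096.Ine_222 Crest.Agent.R096.Mfi_290
open Crest.Agent.R096.SkC1_961 (E3 Hom3 FoamD)
open Crest.Agent.R096.Er_594 (SH3)
open Crest.Agent.R096.Bsp_628 Crest.Agent.R096.Brk5_582
open Crest.Agent.R096.Bxs_627 (ctr)
open Crest.Agent.R096.EaX_766 (lin cbx ExIn Kor RatA)
open Crest.Agent.R096.Exa_365 Crest.Agent.R096.Acc_365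
open Crest.Agent.R096.Ls_222 (Edg ea ev eIn mem_eIn sgm_edg ev_ne)
open Crest.Agent.R096.Pmc_112 (Gd')
open Crest.Agent.R096.Eds_746 (EB)
open Crest.Agent.R96.Sg1_199 (li sgm)

noncomputable section

/-- the edges of the block tiling without the core tile: inside `N`, off the interior of the core -/
theorem eb_sub {Q : CB E3 3} {k0 : ℕ} {hk : Q.kc ≤ k0} {e : Edg (Q.T k0 hk)} (he : e ∈ EB Q k0 hk) :
    e.1 ⊆ Q.N \ interior Q.Kc := by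
  obtain ⟨t, h1, h2, h3⟩ := he
  intro y hy
  have hyt : y ∈ P ((Q.T k0 hk).H t) := mem_eIn.1 h3 hy
  refine ⟨h1 hyt, fun h => ?_⟩
  rw [← Q.P_core k0 hk] at h
  have h4 : y ∈ I ((Q.T k0 hk).H (Q.cix k0 hk)) := Crest.Agent.R096.Bm_748.int_P ((Q.T k0 hk).ne _) h
  have h5 : t ∈ (Q.T k0 hk).at_ y := hyt
  rw [(Q.T k0 hk).at_eq_singleton h4, mem_singleton_iff] at h5
  exact h2 h5

/-- `exists_G` without `m ≠ 0` -/
theorem exists_G' {p : ℝ} {Om La : Set E3} {f : E3 → E3} {D : E3 → E3 →L[ℝ] E3} (hO : IsOpen Om)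
    (h : SH3 p Om La f D) {o : E3} {u κ1 κ2 : ℝ} {Q : Bx (Fin 3)} {A : E3 ≃ᵃ[ℝ] E3} {lam : ℝ}
    (hE : ExIn p Om f D o u κ1 κ2 Q A lam)
    {J : Type*} [Fintype J] (x v : J → E3) {ρ : ℝ} (hρ : 0 < ρ)
    (hsub : ∀ j, ∀ y ∈ Crest.Agent.R96.Sg1_199.sgm (A (x j)) (lin A (v j)),
      ∀ b ∈ Icc (0 : E3) (fun _ => ρ), y + b ∈ cbx Q ((1 + 2 * κ2) * lam)) {η : ℝ} (hη : 0 < η)
    (hκ : (Fintype.card J : ℝ) * (κ1 * (lam * Q.sz) ^ 3) ≤ (1 / 4) * η * ρ ^ 3)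
    {F : E3 → ℝ≥0∞} (hF : Measurable F) {m : ℝ≥0∞}
    (hm : ∫⁻ v in Wt A ρ, F v ≤ m * volume (Wt A ρ)) {N : Set E3} (hN : volume N = 0) :
    ∃ G : Set E3, MeasurableSet G ∧ G ⊆ Wt A ρ ∧ volume G ≠ 0 ∧
      ∀ w ∈ G, GoodW p Om f D A x v (ENNReal.ofReal η) w ∧ F w ≤ 8 * m ∧ w ∉ N := by
  by_cases hm0 : m = 0
  · subst hm0
    have h0 : ∫⁻ v in Wt A ρ, F v = 0 := by
      rw [zero_mul] at hm
      exact le_antisymm hm bot_le
    rw [lintegral_eq_zero_iff hF] at h0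
    have h1 : volume (Wt A ρ ∩ {w | F w ≠ 0}) = 0 := by
      have h2 := ae_iff.1 h0
      rw [Measure.restrict_apply' (measurableSet_Wt A ρ)] at h2
      rw [inter_comm]
      exact h2
    obtain ⟨G, h2, h3, h4, h5⟩ := exists_G hO h hE x v hρ hsub hη hκ (F := fun _ => 0)
      measurable_const (m := 1) one_ne_zero (by simp) (N := N ∪ (Wt A ρ ∩ {w | F w ≠ 0}))
      (measure_union_null hN h1)
    refine ⟨G, h2, h3, h4, fun w hw => ?_⟩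
    obtain ⟨h6, -, h7⟩ := h5 w hw
    refine ⟨h6, ?_, fun hw' => h7 (Or.inl hw')⟩
    by_contra hcon
    refine h7 (Or.inr ⟨h3 hw, ?_⟩)
    intro h8
    rw [h8] at hcon
    exact hcon bot_le
  · exact exists_G hO h hE x v hρ hsub hη hκ hF hm0 hm hN

/-- **the good set of translations of one block.** -/
theorem block_good {p : ℝ} {Om La : Set E3} {f : E3 → E3} {D : E3 → E3 →L[ℝ] E3} (hO : IsOpen Om)
    (h : SH3 p Om La f D) {o : E3} {u κ1 κ2 : ℝ} {c : Bx (Fin 3)} {A : E3 ≃ᵃ[ℝ] E3} {lam : ℝ}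
    (hE : ExIn p Om f D o u κ1 κ2 c A lam) {Q : CB E3 3} {k0 : ℕ} (hk : Q.kc ≤ k0)
    {μ ρ : ℝ} (hN : Q.N ⊆ A ⁻¹' cbx c μ) (hρ : 0 < ρ)
    (hroom : ∀ k, μ * c.side k / 2 + ρ ≤ (1 + 2 * κ2) * lam * c.side k / 2)
    {NC : ℕ} (hfin : (EB Q k0 hk).Finite) (hcard : (EB Q k0 hk).ncard ≤ NC) {η : ℝ} (hη : 0 < η)
    (hκ1 : 0 ≤ κ1 * (lam * c.sz) ^ 3)
    (hκ : (NC : ℝ) * (κ1 * (lam * c.sz) ^ 3) ≤ (1 / 4) * η * ρ ^ 3)
    {D' : E3 → E3 →L[ℝ] E3} {Kq : ℝ} (hKq : 0 ≤ Kq) {S : Set E3}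
    (hD' : ∀ᵐ x, x ∈ S → ∀ v, ‖D' x v‖ ≤ Kq * ‖D x v‖)
    (hSA : ∀ y ∈ Q.N, y ∉ interior Q.Kc → ∀ v ∈ Wt A ρ, y + v ∈ S)
    {F : E3 → ℝ≥0∞} (hF : Measurable F) {m : ℝ≥0∞}
    (hm : ∫⁻ v in Wt A ρ, F v ≤ m * volume (Wt A ρ)) :
    ∃ G : Set E3, MeasurableSet G ∧ G ⊆ Wt A ρ ∧ volume G ≠ 0 ∧ ∀ w ∈ G,
      GoodW p Om f D A (fun e : EB Q k0 hk => ea e.1) (fun e => ev e.1) (ENNReal.ofReal η) w ∧
      F w ≤ 8 * m ∧
      ∀ e ∈ EB Q k0 hk, li (Gd' D' (ev e)) (ea e + w) (ev e) ≤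
        ENNReal.ofReal Kq * li (Gd' D (ev e)) (ea e + w) (ev e) := by
  classical
  have : Finite (EB Q k0 hk) := hfin
  have : Fintype (EB Q k0 hk) := Fintype.ofFinite _
  have hc1 : Fintype.card (EB Q k0 hk) ≤ NC := by
    rw [← Nat.card_eq_fintype_card, Nat.card_coe_set_eq]
    exact hcard
  -- the comparison of the line integrals
  have hcmp := Eds_746.ae_li_dir_all (O := univ) (D := D) (D' := D') hKq (Pz := fun y => y ∈ S)
    (fun x hx => absurd (mem_univ x) hx) (by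
      filter_upwards [hD'] with x hx _ hxS
      exact hx hxS) (fun e : EB Q k0 hk => ea e.1) (fun e => ev e.1)
  rw [ae_iff] at hcmp
  have hsub : ∀ j : EB Q k0 hk, ∀ y ∈ Crest.Agent.R96.Sg1_199.sgm (A (ea j.1)) (lin A (ev j.1)),
      ∀ b ∈ Icc (0 : E3) (fun _ => ρ), y + b ∈ cbx c ((1 + 2 * κ2) * lam) := by
    rintro ⟨e, he⟩ y ⟨τ, hτ, rfl⟩ b hb k
    have h5 : ea e + τ • ev e ∈ e.1 := by
      rw [← sgm_edg e]
      exact ⟨τ, hτ, rfl⟩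
    have h6 : |A (ea e + τ • ev e) k - ctr c k| ≤ μ * c.side k / 2 := hN (eb_sub he h5).1 k
    have h7 : A (ea e) + τ • lin A (ev e) = A (ea e + τ • ev e) := by
      rw [aff_add, map_smul]
    show |(A (ea e) + τ • lin A (ev e) + b) k - ctr c k| ≤ (1 + 2 * κ2) * lam * c.side k / 2
    rw [h7, Pi.add_apply]
    have h8 : 0 ≤ b k := hb.1 k
    have h9 : b k ≤ ρ := hb.2 k
    have h10 := hroom k
    rw [abs_le] at h6 ⊢
    constructor <;> linarith [h6.1, h6.2]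
  have hκ' : (Fintype.card (EB Q k0 hk) : ℝ) * (κ1 * (lam * c.sz) ^ 3) ≤ (1 / 4) * η * ρ ^ 3 := by
    refine le_trans ?_ hκ
    exact mul_le_mul_of_nonneg_right (by exact_mod_cast hc1) hκ1
  obtain ⟨G, h1, h2, h3, h4⟩ := exists_G' hO h hE (fun e : EB Q k0 hk => ea e.1)
    (fun e => ev e.1) hρ hsub hη hκ' hF hm hcmp
  refine ⟨G, h1, h2, h3, fun w hw => ?_⟩
  obtain ⟨g1, g2, g3⟩ := h4 w hw
  refine ⟨g1, g2, fun e he => ?_⟩
  have g4 := (not_not.1 g3) ⟨e, he⟩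
  refine (g4 ?_).2
  rintro y ⟨τ, hτ, rfl⟩ -
  have h5 : ea e + τ • ev e ∈ e.1 := by
    rw [← sgm_edg e]
    exact ⟨τ, hτ, rfl⟩
  obtain ⟨h6, h7⟩ := eb_sub he h5
  have h8 := hSA _ h6 h7 w (h2 hw)
  have e1 : ea e + w + τ • ev e = ea e + τ • ev e + w := by abel
  show ea e + w + τ • ev e ∈ S
  rw [e1]
  exact h8

end

end Crest.Agent.R096.Eau_365
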