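import Crest.Agent.R096.Eds4_746

/-!
# Row 96 (S0127), helper746.  EA-D, part 4b (**[NC]**): the edges of the tiles of a block are finitely many,
with a uniform number; they contain the edges of the core.
-/

set_option autoImplicit false
set_option linter.style.longLine false
set_option linter.unusedSectionVars false

open MeasureTheory Set Filter Metric
open scoped Topology ENNReal NNReal

namespace Crest.Agent.R096.Eds_746

open Crest.Agent.R096.Msh_715 Crest.Agent.R096.Mal_874 Crest.Agent.R096.Ncl_476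
  Crest.Agent.R096.Msh_810 Crest.Agent.R096.Ine_222 Crest.Agent.R096.Mfi_290 Crest.Agent.R096.Qc_222
open Crest.Agent.R096.SkC1_961 (E3 Cfg)
open Crest.Agent.R96.Sg1_199 (li sgm sgm_eq_segment)
open Crest.Agent.R096.Ls_222 (Edg ea ev eIn mem_eIn sgm_edg ev_ne sgm_cases)
open Crest.Agent.R096.EaX_766 (lin)

noncomputable section

/-! ### tilings -/

/-- a point of a tile where the cell is not a tile lies in another tile -/
theorem exists_other {E : Type*} [NormedAddCommGroup E] [NormedSpace ℝ E] {Om : Set E} {ι : Type*}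
    (T : Tiling Om ι) {x : E} (hx : x ∈ Om) (hV : T.V x ≠ ⊤) (i : ι) : ∃ j ≠ i, x ∈ P (T.H j) := by
  by_contra hcon
  push Not at hcon
  apply hV
  rw [T.V_eq_top_iff hx]
  have hsub : T.at_ x ⊆ {i} := by
    intro j hj
    by_contra h
    exact hcon j h hj
  obtain ⟨r, hr, hO, h1⟩ := T.exists_ball hx
  refine ⟨i, ?_⟩
  rw [← Nr_527.interior_P' (T.ne i), mem_interior]
  refine ⟨ball x r, ?_, isOpen_ball, mem_ball_self hr⟩
  intro y hy
  obtain ⟨j, hj⟩ := T.at_nonempty (hO hy)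
  have := hsub (h1 y hy hj)
  rw [mem_singleton_iff] at this
  rw [← this]
  exact hj

section blk

variable (Q : CB E3 3) (k0 : ℕ) (hk : Q.kc ≤ k0)

/-- a tile which meets the core lies in the block -/
theorem tile_sub_N {t : TIx Q k0 hk} {x : E3} (hx : x ∈ P ((Q.T k0 hk).H t)) (hK : x ∈ Q.Kc) :
    P ((Q.T k0 hk).H t) ⊆ Q.N := by
  rcases t with τ | s
  · intro y hy
    have hxb : x ∈ Q.S.bp Q.ψ Q.a' Q.kc := by
      rw [← Q.P_core k0 hk] at hK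
      exact Q.P_inr_sub k0 hk _ hK
    have h1 := Q.near_tile k0 hk (τ := τ.1) (x := x) (y := y) hx hy (Q.near_of_bp hxb)
    rw [CB.mem_N]
    intro l
    have h2 := h1 l
    have hw := Q.w_real
    constructor <;> linarith [h2.1, h2.2]
  · exact (Q.P_inr_sub k0 hk s).trans Q.bp_sub_N

/-- **the edges of the core are edges of other tiles of the block** -/
theorem core_sub_EB {e : Edg (Q.T k0 hk)} (he : e ∈ eIn (Q.T k0 hk) (Q.cix k0 hk)) :
    e ∈ EB Q k0 hk := by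
  obtain ⟨x, hx, hd, hex⟩ := e.2
  have hxK : x ∈ P ((Q.T k0 hk).H (Q.cix k0 hk)) := mem_eIn.1 he (hex ▸ (Q.T k0 hk).self_mem_cc x)
  have hV : (Q.T k0 hk).V x ≠ ⊤ := by
    intro h
    unfold Tiling.dim at hd
    rw [h, finrank_top, Module.finrank_fin_fun] at hd
    omega
  obtain ⟨t, ht, hxt⟩ := exists_other (Q.T k0 hk) hx hV (Q.cix k0 hk)
  refine ⟨t, tile_sub_N Q k0 hk hxt ?_, ht, ?_⟩
  · rw [← Q.P_core k0 hk]
    exact hxK
  · rw [mem_eIn, hex]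
    exact (Q.T k0 hk).cc_sub_tile hxt

/-- the tiles of the block, without the core -/
def OB : Set (TIx Q k0 hk) := {t | P ((Q.T k0 hk).H t) ⊆ Q.N ∧ t ≠ Q.cix k0 hk}

theorem kap_le {t : TIx Q k0 hk} : kap Q k0 hk t ≤ k0 + 1 := by
  rcases t with τ | s
  · by_cases hb : (P ((Q.T0 k0 hk).H τ.1) ∩ Q.S.bp Q.ψ Q.a' Q.kc).Nonempty
    · rw [kap_inl_meet _ _ _ hb]
      omega
    · rw [kap_inl _ _ _ hb]
      have := Q.le_k k0 hk (τ := τ.1)
      omega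
  · show Q.kc ≤ k0 + 1
    omega

end blk

/-- the identity frame of a block -/
def Aψ (Q : CB E3 3) : E3 ≃ᵃ[ℝ] E3 := Q.ψ.toLinearEquiv.toAffineEquiv

theorem Aψ_lin (Q : CB E3 3) (x : E3) : (Aψ Q).linear x = (1 : ℝ) • Q.ψ x := by
  rw [one_smul]
  rfl

/-- **the number of the tiles of a block** -/
theorem card_OB {Bs : ℕ} (hB1 : 1 ≤ Bs) (Nb : ℝ) (hNb : 0 ≤ Nb) (dk : ℕ) : ∃ NT : ℝ, 0 ≤ NT ∧
    ∀ (Q : CB E3 3) (k0 : ℕ) (hk : Q.kc ≤ k0), k0 ≤ Q.kc + dk →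
      (∀ i, ∀ p ∈ Q.S.GG i, ∀ l, |p.1 l| ≤ Bs) →
      (∀ i, i ≠ Q.S.core → ∀ v ∈ ZP (Q.S.GG i), ∀ w ∈ ZP (Q.S.GG i), ∀ l, |w l - v l| ≤ Bs) →
      (∀ l, (Q.be l : ℝ) - Q.al l ≤ Nb) →
      ∀ F : Finset (TIx Q k0 hk), (∀ t ∈ F, t ∈ OB Q k0 hk) → (F.card : ℝ) ≤ NT := by
  classical
  obtain ⟨v, hv0, hv⟩ := exists_vol_lb (volume : Measure E3) (SL_finite Bs)
  refine ⟨(2 ^ (dk + 1)) ^ 3 * Nb ^ 3 / v, by positivity, ?_⟩
  intro Q k0 hk hdk hB hR hN F hF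
  have hfam := fam Q k0 hk hB1 (A := Aψ Q) (u := 1) one_pos (Aψ_lin Q) hB hR
  have hpc : (0:ℝ) < 2 ^ Q.kc := by positivity
  -- the volume of the block
  have hB0 := frL_chi Q (A := Aψ Q) (u := 1) (Aψ_lin Q) Q.kc 0
  have hvN : ENNReal.ofReal |(lin (Aψ Q)).det| * volume Q.N ≤
      ENNReal.ofReal ((1 / 2 ^ Q.kc) ^ 3 * Nb ^ 3) := by
    rw [hB0.vol (by positivity), ENNReal.ofReal_mul (by positivity)]
    refine mul_le_mul' le_rfl ?_
    have h1 : ((chi Q.ψ Q.a' Q.kc).trans (trz 0)) '' Q.N ⊆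
        Icc (fun l => (Q.al l : ℝ)) (fun l => (Q.be l : ℝ)) := by
      rintro _ ⟨y, hy, rfl⟩
      rw [CB.mem_N] at hy
      have h2 : ∀ l, ((chi Q.ψ Q.a' Q.kc).trans (trz 0)) y l = ps Q.a' Q.kc (Q.ψ y) l := by
        intro l
        rw [AffineEquiv.trans_apply, trz_apply, chi_eq_ps]
        simp
      constructor
      · intro l
        have h3 := (hy l).1
        show (Q.al l : ℝ) ≤ _
        rw [h2]
        unfold CB.al
        push_cast
        exact h3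
      · intro l
        have h3 := (hy l).2
        show _ ≤ (Q.be l : ℝ)
        rw [h2]
        unfold CB.be
        push_cast
        exact h3
    refine (measure_mono h1).trans ?_
    rw [Real.volume_Icc_pi]
    calc ∏ i, ENNReal.ofReal ((Q.be i : ℝ) - Q.al i) ≤ ∏ _i : Fin 3, ENNReal.ofReal Nb :=
          Finset.prod_le_prod' fun i _ => ENNReal.ofReal_le_ofReal (hN i)
      _ = ENNReal.ofReal (Nb ^ 3) := by
          rw [Finset.prod_const, Finset.card_univ, Fintype.card_fin, ENNReal.ofReal_pow hNb]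
  -- each tile has a definite volume
  have hlow : ∀ t ∈ F, ENNReal.ofReal ((1 / 2 ^ (k0 + 1)) ^ 3 * v) ≤
      ENNReal.ofReal |(lin (Aψ Q)).det| * volume (P ((Q.T k0 hk).H t)) := by
    intro t ht
    refine le_trans (ENNReal.ofReal_le_ofReal ?_) (hfam.vol_ge hv (hF t ht).2)
    have h1 : (2:ℝ) ^ kap Q k0 hk t ≤ 2 ^ (k0 + 1) :=
      pow_le_pow_right₀ (by norm_num) (kap_le Q k0 hk)
    gcongr
  have hsum : ∑ t ∈ F, volume (P ((Q.T k0 hk).H t)) ≤ volume Q.N := by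
    calc ∑ t ∈ F, volume (P ((Q.T k0 hk).H t)) ≤ ∑ t ∈ F, volume (I ((Q.T k0 hk).H t)) :=
          Finset.sum_le_sum fun t _ => vol_P_le ((Q.T k0 hk).ne t)
      _ = volume (⋃ t ∈ F, I ((Q.T k0 hk).H t)) := (measure_biUnion_finset
          (fun a _ b _ hab => (Q.T k0 hk).dis a b hab) fun t _ => (isOpen_I _).measurableSet).symm
      _ ≤ volume Q.N := measure_mono (iUnion₂_subset fun t ht =>
          (I_sub_P _).trans (hF t ht).1)
  have h4 : ENNReal.ofReal (F.card * ((1 / 2 ^ (k0 + 1)) ^ 3 * v)) ≤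
      ENNReal.ofReal ((1 / 2 ^ Q.kc) ^ 3 * Nb ^ 3) := by
    calc ENNReal.ofReal (F.card * ((1 / 2 ^ (k0 + 1)) ^ 3 * v))
        = ∑ t ∈ F, ENNReal.ofReal ((1 / 2 ^ (k0 + 1)) ^ 3 * v) := by
          rw [Finset.sum_const, nsmul_eq_mul, ENNReal.ofReal_mul (Nat.cast_nonneg _),
            ENNReal.ofReal_natCast]
      _ ≤ ∑ t ∈ F, ENNReal.ofReal |(lin (Aψ Q)).det| * volume (P ((Q.T k0 hk).H t)) :=
          Finset.sum_le_sum hlow
      _ = ENNReal.ofReal |(lin (Aψ Q)).det| * ∑ t ∈ F, volume (P ((Q.T k0 hk).H t)) := by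
          rw [Finset.mul_sum]
      _ ≤ ENNReal.ofReal |(lin (Aψ Q)).det| * volume Q.N := by gcongr
      _ ≤ _ := hvN
  rw [ENNReal.ofReal_le_ofReal_iff (by positivity)] at h4
  rw [le_div_iff₀ hv0]
  have h5 : (2:ℝ) ^ (k0 + 1) ≤ 2 ^ (dk + 1) * 2 ^ Q.kc := by
    rw [← pow_add]
    exact pow_le_pow_right₀ (by norm_num) (by omega)
  have h6 : (0:ℝ) < (1 / 2 ^ (k0 + 1)) ^ 3 := by positivity
  have h7 : (1 / 2 ^ Q.kc : ℝ) ^ 3 ≤ (1 / 2 ^ (k0 + 1)) ^ 3 * (2 ^ (dk + 1)) ^ 3 := by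
    rw [← mul_pow]
    refine pow_le_pow_left₀ (by positivity) ?_ 3
    rw [div_mul_eq_mul_div, one_mul, div_le_div_iff₀ hpc (by positivity), one_mul]
    exact h5
  refine le_of_mul_le_mul_left ?_ h6
  calc (1 / 2 ^ (k0 + 1)) ^ 3 * (F.card * v) = F.card * ((1 / 2 ^ (k0 + 1)) ^ 3 * v) := by ring
    _ ≤ (1 / 2 ^ Q.kc) ^ 3 * Nb ^ 3 := h4
    _ ≤ ((1 / 2 ^ (k0 + 1)) ^ 3 * (2 ^ (dk + 1)) ^ 3) * Nb ^ 3 := by gcongr
    _ = _ := by ring

/-- **[NC]: the number of the edges of a block** -/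
theorem card_EB {Bs : ℕ} (hB1 : 1 ≤ Bs) (Nb : ℝ) (hNb : 0 ≤ Nb) (dk : ℕ) : ∃ NC : ℕ,
    ∀ (Q : CB E3 3) (k0 : ℕ) (hk : Q.kc ≤ k0), k0 ≤ Q.kc + dk →
      (∀ i, ∀ p ∈ Q.S.GG i, ∀ l, |p.1 l| ≤ Bs) →
      (∀ i, i ≠ Q.S.core → ∀ v ∈ ZP (Q.S.GG i), ∀ w ∈ ZP (Q.S.GG i), ∀ l, |w l - v l| ≤ Bs) →
      (∀ l, (Q.be l : ℝ) - Q.al l ≤ Nb) → (EB Q k0 hk).Finite ∧ (EB Q k0 hk).ncard ≤ NC := by
  classical
  obtain ⟨NT, hNT, H⟩ := card_OB hB1 Nb hNb dk
  refine ⟨⌊NT⌋₊ * (SL Bs).ncard, ?_⟩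
  intro Q k0 hk hdk hB hR hN
  have hcard := H Q k0 hk hdk hB hR hN
  have hfin : (OB Q k0 hk).Finite := by
    by_contra hinf
    obtain ⟨F, hF1, hF2⟩ := Set.Infinite.exists_subset_card_eq hinf (⌊NT⌋₊ + 1)
    have h1 := hcard F fun t ht => hF1 ht
    rw [hF2] at h1
    have h2 := Nat.lt_floor_add_one NT
    push_cast at h1
    linarith
  have hfam := fam Q k0 hk hB1 (A := Aψ Q) (u := 1) one_pos (Aψ_lin Q) hB hR
  have hsub : EB Q k0 hk ⊆ ((hfin.toFinset.biUnion fun t => eIn (Q.T k0 hk) t : Finset _) :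
      Set (Edg (Q.T k0 hk))) := by
    rintro e ⟨t, h1, h2, h3⟩
    rw [Finset.mem_coe, Finset.mem_biUnion]
    exact ⟨t, hfin.mem_toFinset.2 ⟨h1, h2⟩, h3⟩
  refine ⟨(Finset.finite_toSet _).subset hsub, ?_⟩
  calc (EB Q k0 hk).ncard
      ≤ ((hfin.toFinset.biUnion fun t => eIn (Q.T k0 hk) t : Finset _) :
        Set (Edg (Q.T k0 hk))).ncard := Set.ncard_le_ncard hsub (Finset.finite_toSet _)
    _ = (hfin.toFinset.biUnion fun t => eIn (Q.T k0 hk) t).card := Set.ncard_coe_finset _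
    _ ≤ ∑ t ∈ hfin.toFinset, (eIn (Q.T k0 hk) t).card := Finset.card_biUnion_le
    _ ≤ ∑ _t ∈ hfin.toFinset, (SL Bs).ncard := by
        refine Finset.sum_le_sum fun t ht => ?_
        obtain ⟨B, -, hS⟩ := hfam.fr t (hfin.mem_toFinset.1 ht).2
        exact eIn_card_le hfam.fin hS
    _ = hfin.toFinset.card * (SL Bs).ncard := by rw [Finset.sum_const, smul_eq_mul]
    _ ≤ ⌊NT⌋₊ * (SL Bs).ncard := by
        gcongr
        exact Nat.le_floor (hcard _ fun t ht => hfin.mem_toFinset.1 ht)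

end

end Crest.Agent.R096.Eds_746
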