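import Crest.Agent.R096.Eau5_365

/-!
Row 96 (S0127), helper365.  **EAU5b**: `block_en` for an arbitrary block (any `kc`, any unit `s`), for PRE3.
-/

set_option autoImplicit false
set_option linter.style.longLine false
set_option linter.unusedSectionVars false
set_option linter.unusedVariables false

open MeasureTheory Set Filter Topology Metric
open scoped ENNReal NNReal

namespace Crest.Agent.R096.Eau_365

open Crest.Agent.R096.Msh_715 Crest.Agent.R096.Mal_874 Crest.Agent.R096.Ncl_476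
  Crest.Agent.R096.Msh_810 Crest.Agent.R096.Ine_222 Crest.Agent.R096.Mfi_290
open Crest.Agent.R096.SkC1_961 (E3 Hom3 FoamD)
open Crest.Agent.R096.Er_594 (SH3)
open Crest.Agent.R096.Bsp_628 Crest.Agent.R096.Brk5_582
open Crest.Agent.R096.Bxs_627 (ctr)
open Crest.Agent.R096.EaX_766 (lin cbx ExIn Kor RatA)
open Crest.Agent.R096.Exa_365 Crest.Agent.R096.Acc_365
open Crest.Agent.R096.Ls_222 (Edg ea ev eIn mem_eIn sgm_edg ev_ne)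
open Crest.Agent.R096.Pmc_112 (Gd')
open Crest.Agent.R096.Eds_746 (EB)
open Crest.Agent.R96.Wm4_748 (K3)
open Crest.Agent.R96.Sg1_199 (li sgm)

noncomputable section

/-- **the good set of one block, with the energies of all classes**, arbitrary block: `Q.ψ = s⁻¹ lin A`,
`Q.N ⊆ A⁻¹ cbx c μ` -/
theorem block_en0 {p : ℝ} (hp : 1 ≤ p) (Bn : ℕ) {R0 : ℝ} (hR0 : 1 ≤ R0) (hBn : 1 ≤ Bn) :
    ∃ C4 : ℝ≥0, 0 < C4 ∧ ∀ {Om La : Set E3} {f : E3 → E3} {D : E3 → E3 →L[ℝ] E3}, IsOpen Om →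
      SH3 p Om La f D → ∀ {o : E3} {u κ1 κ2 : ℝ} {c : Bx (Fin 3)}
      {A : E3 ≃ᵃ[ℝ] E3} {lam : ℝ}, ExIn p Om f D o u κ1 κ2 c A lam →
      ∀ {μ s : ℝ} {Q : CB E3 3}, 0 < s → (∀ y, Q.ψ y = s⁻¹ • lin A y) → Q.N ⊆ A ⁻¹' cbx c μ →
      (∀ i, ∀ p ∈ Q.S.GG i, ∀ l, |p.1 l| ≤ (Bn : ℤ)) →
      (∀ i, i ≠ Q.S.core → ∀ u ∈ ZP (Q.S.GG i), ∀ v ∈ ZP (Q.S.GG i), ∀ l, |v l - u l| ≤ R0) →
      ∀ {k0 : ℕ} (hk : Q.kc ≤ k0) {ρ : ℝ}, 0 < ρ → s * (1 / 2 ^ k0) ≤ ρ →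
      (∀ k, μ * c.side k / 2 + ρ ≤ (1 + 2 * κ2) * lam * c.side k / 2) →
      ∀ {NC : ℕ}, (EB Q k0 hk).Finite → (EB Q k0 hk).ncard ≤ NC → ∀ {η : ℝ}, 0 < η →
      0 ≤ κ1 * (lam * c.sz) ^ 3 →
      (NC : ℝ) * (κ1 * (lam * c.sz) ^ 3) ≤ (1 / 4) * η * ρ ^ 3 →
      ∀ {D' : E3 → E3 →L[ℝ] E3}, (∀ v, Measurable fun z => D' z v) → ∀ {Kq : ℝ}, 0 ≤ Kq →
      ∀ {S : Set E3}, MeasurableSet S → (∀ᵐ x, x ∈ S → ∀ v, ‖D' x v‖ ≤ Kq * ‖D x v‖) →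
      (∀ y ∈ Q.N, y ∉ interior Q.Kc → ∀ v ∈ Wt A ρ, y + v ∈ S) →
      ∃ G : Set E3, MeasurableSet G ∧ G ⊆ Wt A ρ ∧ volume G ≠ 0 ∧ ∀ w ∈ G,
        GoodW p Om f D A (fun e : EB Q k0 hk => ea e.1) (fun e => ev e.1) (ENNReal.ofReal η) w ∧
        ∀ {J : Type} (M : MD E3 3 J) (X : RD M) (j : J) (w0 s : E3), M.Q j = Q.tr w0 →
          w0 + s = w → X.B j ≤ Bn → X.R j ≤ R0 →
          ∀ (hk0 : (M.Q j).kc ≤ k0) (𝒦 : Set (Set E3)) (U : Set E3) (h𝒦 : 𝒦.Countable)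
            (hU : U.Countable),
          ∑' c', ((QI M X j k0 hk0).toPT 𝒦 U h𝒦 hU).EnC (Gd' D') p c' s ≤
            C4 * (ENNReal.ofReal Kq * (1 + ENNReal.ofReal η ^ (1 / p))) ^ p * ‖lin A‖ₑ ^ p *
              volume (Q.N \ Q.Kc) +
            8 * (K3 p (Mfb_290.nE Bn R0) 2 1 1 181 *
              (‖lin A‖ₑ ^ p * ∫⁻ z in S, ‖(D' z).comp (lin A.symm)‖ₑ ^ p)) := by
  set Bs : ℕ := max Bn ⌈R0⌉₊ with hBs
  have hBs1 : 1 ≤ Bs := hBn.trans (le_max_left _ _)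
  obtain ⟨C4, hC4, H⟩ := Crest.Agent.R096.Eds_746.coarse_good hBs1 hp
  refine ⟨C4, hC4, ?_⟩
  intro Om La f D hO h o u κ1 κ2 c A lam hE μ s Q hs hψ hN hbnd hsize k0 hk ρ hρ hl hroom NC hfin
    hcard η hη hκ1 hκ D' hDm Kq hKq S hS hD' hSA
  have hlin : ∀ x : E3, A.linear x = s • Q.ψ x := by
    intro x
    rw [hψ x, smul_smul, mul_inv_cancel₀ hs.ne', one_smul]
    rfl
  have hB' : ∀ i, ∀ p ∈ Q.S.GG i, ∀ l, |p.1 l| ≤ (Bs : ℤ) := fun i p hp l =>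
    (hbnd i p hp l).trans (by exact_mod_cast le_max_left _ _)
  have hR' : ∀ i, i ≠ Q.S.core → ∀ v ∈ ZP (Q.S.GG i), ∀ w ∈ ZP (Q.S.GG i), ∀ l,
      |w l - v l| ≤ (Bs : ℝ) := by
    intro i hi v hv w hw l
    refine (hsize i hi v hv w hw l).trans ((Nat.le_ceil R0).trans ?_)
    exact_mod_cast le_max_right _ _
  have hl' : s * (1 / 2 ^ k0) ≤ 1 * ρ := by rw [one_mul]; exact hl
  obtain ⟨FF, hF1, hF2, hF3⟩ := Crest.Agent.R096.Bm_748.exists_F hk hR0 hsize Bn hs hψ hDm hρ.le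
    zero_le_one hl' hS (fun q hq y hy a ha => by
      rw [Crest.Agent.R096.Bm_748.used_iff] at hq
      exact hSA y (Crest.Agent.R096.Bm_748.used_sub_N hq hy)
        (Crest.Agent.R096.Bm_748.til_off_core hq hy) a ha) hp
  obtain ⟨G, g1, g2, g3, g4⟩ := block_good hO h hE hk hN hρ hroom hfin hcard hη hκ1 hκ hKq hD'
    hSA hF1 hF2
  refine ⟨G, g1, g2, g3, fun w hw => ?_⟩
  obtain ⟨g5, g6, g7⟩ := g4 w hw
  refine ⟨g5, ?_⟩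
  intro J M X j w0 s' hMQ hws hXB hXR hk0 𝒦 U h𝒦 hU
  rw [Crest.Agent.R096.Bm_748.sum_classes]
  refine add_le_add ?_ ?_
  · exact H Q k0 hk A s hs hlin hB' hR' Om f D _ w g5 D' _ g7 M X j w0 s' hMQ hws hk0 𝒦 U h𝒦 hU
  · refine (hF3 M X j w0 hMQ hXB hXR hk0 𝒦 U h𝒦 hU s').trans ?_
    rw [hws]
    exact g6

end

end Crest.Agent.R096.Eau_365
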