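import Crest.Agent.R096.Pth2_561
import Crest.Agent.R096.Pgn6_112

/-!
# Row 96 (helper561): the zone fields of 112's `GenIn`

`exists_zd` : from `ZBall M x₀ ρ` and `TinyLoc` for all bricks off `X`: a record `Zd : ZD Φ.F X` and
all (Z) fields of `GenIn` for the mesh data `zn Zb.zn Zd.k` (798).  `exists_zdX` : the same for 899's `fX`,
centres and radii included.
-/

set_option autoImplicit false
set_option linter.unusedSectionVars false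
set_option linter.unusedVariables false
set_option linter.style.longLine false

open MeasureTheory Set Filter Topology Metric

noncomputable section

namespace Crest.Agent.R096.Pth_561

open Crest.Agent.R096.Bsp_628 Crest.Agent.R096.Brk5_582
open Crest.Agent.R096.SkC1_961 (E3 Hom3 FoamD)
open Crest.Agent.R96.Push_899
open Crest.Agent.R96.EaP_899
open Crest.Agent.R096.Msh_715
open Crest.Agent.R096.Mal_874
open Crest.Agent.R096.Er_594 (SH3)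
open Crest.Agent.R096.Tms_582 (TinyLoc Zones LocF idE)
open Crest.Agent.R96.Eam_466 (TLAt exists_tl InB locF_of_tl)
open Crest.Agent.R096.Zlt_798 (ZBall zn wz zn_Om)
open Crest.Agent.R096.Pgn_112 (ZD)

variable {δ κ0 Rc c0 : ℝ} {La Om : Set E3}

/-- **all (Z) fields of `GenIn`** for a mesh with the zones `ZBall` -/
theorem exists_zd {Φ : FoamD δ κ0 Rc c0 La} {X : Set Φ.F} {M : MD E3 3 X}
    {x₀ : {c // c ∉ X} → E3} {ρ : {c // c ∉ X} → ℝ} (Zb : ZBall M x₀ ρ) (hOm : M.D0.Om = Om)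
    {f : E3 → E3} {κ1 : ℝ} (htl : ∀ c : {c // c ∉ X}, TinyLoc Φ Om f κ1 c.1 (x₀ c) (ρ c))
    (kz1 : {c // c ∉ X} → ℕ) :
    ∃ Zd : ZD Φ.F X, Zd.x = x₀ ∧ Zd.R = ρ ∧ (∀ c, kz1 c ≤ Zd.k c) ∧
      (zn Zb.zn Zd.k).φ ⁻¹' (zn Zb.zn Zd.k).D0.Om = Om ∧
      (∀ c, Zd.x c ∈ (zn Zb.zn Zd.k).φ ⁻¹' (zn Zb.zn Zd.k).D0.Om) ∧
      LocF Zd.x Zd.R Zd.k Zd.Zc Zd.H ∧
      (∀ c, TLAt Φ ((zn Zb.zn Zd.k).φ ⁻¹' (zn Zb.zn Zd.k).D0.Om) f κ1 c.1 (Zd.x c) (Zd.R c) (Zd.k c)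
        (Zd.Zc c) (Zd.H c) (Zd.J0 c) (Zd.J c) (Zd.θ c) (Zd.φ c)) ∧
      (∃ kZ : X → ℕ, ∀ (k : X → ℕ) (hk : (zn Zb.zn Zd.k).Sc k), (∀ j, kZ j ≤ k j) →
        ∀ (a : E3) (v : X → E3) (hv : (zn Zb.zn Zd.k).Adm v),
          Zones ((zn Zb.zn Zd.k).mesh hk a hv) Zd.x Zd.R Zd.k (fun c => wz a (Zd.k c))) ∧
      ∀ c j, Disjoint (closedBall (Zd.x c) (2 * Zd.R c)) ((zn Zb.zn Zd.k).V j) := by
  obtain ⟨kz0, hkz0⟩ := Crest.Agent.R096.Zlt_798.exists_zones Zb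
  obtain ⟨kt, hkt⟩ := exists_tl (Φ := Φ) (X := X) htl
  set kz : {c // c ∉ X} → ℕ := fun c => max (kz1 c) (max (kz0 c) (kt c)) with hkz
  obtain ⟨Zc, κ, Hh, J0, J, θ, φ, h⟩ := hkt kz fun c => (le_max_right _ _).trans (le_max_right _ _)
  obtain ⟨kZ, hkZ⟩ := hkz0 kz fun c => (le_max_left _ _).trans (le_max_right _ _)
  have hO' : (zn Zb.zn kz).φ ⁻¹' (zn Zb.zn kz).D0.Om = Om := by
    rw [zn_Om, hOm]
    show M.φ ⁻¹' Om = Om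
    rw [Zb.id]
    rfl
  refine ⟨⟨x₀, ρ, kz, Zc, κ, Hh, J0, J, θ, φ⟩, rfl, rfl, fun c => le_max_left _ _, hO', fun c => ?_,
    locF_of_tl h, fun c => ?_, ⟨kZ, fun k hk hkk a v hv => ?_⟩, fun c j => Zb.disV c j⟩
  · show x₀ c ∈ (zn Zb.zn kz).φ ⁻¹' (zn Zb.zn kz).D0.Om
    rw [hO', ← hOm]
    exact Zb.sub c (mem_closedBall_self (by have := Zb.R0 c; linarith))
  · show TLAt Φ ((zn Zb.zn kz).φ ⁻¹' (zn Zb.zn kz).D0.Om) f κ1 c.1 (x₀ c) (ρ c) (kz c) (Zc c) (Hh c)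
      (J0 c) (J c) (θ c) (φ c)
    rw [hO']
    exact h c
  · obtain ⟨hk', hz⟩ := hkZ k hkk
    exact hz a v hv

/-- **all (Z) fields of `GenIn` for 899's `fX`**: centres, radii, and for every mesh data over the open
bricks the record `Zd` -/
theorem exists_zdX {F : Set (Bx (Fin 3))} {X : Set F} {lam : F → ℝ} {z : F → E3} {p : ℝ}
    (hp : 1 ≤ p) (hO : IsOpen Om) (hLa : IsOpen La) {f : E3 → E3}
    {D : E3 → E3 →L[ℝ] E3} (hS : SH3 p Om La f D) (bf : BoxFoam La F δ κ0) (cmp : Cmp F Rc)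
    (H : XD bf c0 X lam z) {κ1 : ℝ} (hκ1 : 0 < κ1) {η : {c : F // c ∉ X} → ℝ} (hη : ∀ c, 0 < η c) :
    ∃ (x₀ : {c : F // c ∉ X} → E3) (R₀ : {c : F // c ∉ X} → ℝ),
      (∀ c, x₀ c ∈ Om ∧ f (x₀ c) = z c.1) ∧ (∀ c, 0 < R₀ c) ∧ (∀ c, R₀ c ≤ η c) ∧
      (∀ c, closedBall (x₀ c) (2 * R₀ c) ⊆ Om) ∧
      (∀ c, ∀ y ∈ closedBall (x₀ c) (2 * R₀ c), ∀ k, c.1.1.lo k < f y k ∧ f y k < c.1.1.hi k) ∧
      ∀ ρ : {c : F // c ∉ X} → ℝ, (∀ c, 0 < ρ c ∧ ρ c ≤ R₀ c) →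
        InB (fX bf cmp H) f X x₀ ρ ∧
        ∀ M : MD E3 3 X, M.φ = idE → M.D0.Om = Om →
          (∀ j : X, ∀ y ∈ M.V j, ∀ k, j.1.1.lo k < f y k ∧ f y k < j.1.1.hi k) →
          ∃ Zb : ZBall M x₀ ρ, ∀ kz1 : {c : F // c ∉ X} → ℕ,
            ∃ Zd : ZD F X, Zd.x = x₀ ∧ Zd.R = ρ ∧ (∀ c, kz1 c ≤ Zd.k c) ∧
              (zn Zb.zn Zd.k).φ ⁻¹' (zn Zb.zn Zd.k).D0.Om = Om ∧
              (∀ c, Zd.x c ∈ (zn Zb.zn Zd.k).φ ⁻¹' (zn Zb.zn Zd.k).D0.Om) ∧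
              LocF Zd.x Zd.R Zd.k Zd.Zc Zd.H ∧
              (∀ c, TLAt (fX bf cmp H) ((zn Zb.zn Zd.k).φ ⁻¹' (zn Zb.zn Zd.k).D0.Om) f κ1 c.1
                (Zd.x c) (Zd.R c) (Zd.k c) (Zd.Zc c) (Zd.H c) (Zd.J0 c) (Zd.J c) (Zd.θ c)
                (Zd.φ c)) ∧
              (∃ kZ : X → ℕ, ∀ (k : X → ℕ) (hk : (zn Zb.zn Zd.k).Sc k), (∀ j, kZ j ≤ k j) →
                ∀ (a : E3) (v : X → E3) (hv : (zn Zb.zn Zd.k).Adm v),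
                  Zones ((zn Zb.zn Zd.k).mesh hk a hv) Zd.x Zd.R Zd.k (fun c => wz a (Zd.k c))) ∧
              ∀ c j, Disjoint (closedBall (Zd.x c) (2 * Zd.R c)) ((zn Zb.zn Zd.k).V j) := by
  obtain ⟨x₀, R₀, a1, a2, a3, a4, a5, a6⟩ := exists_zones hp hO hLa hS bf cmp H hκ1 hη
  refine ⟨x₀, R₀, a1, a2, a3, a4, a5, fun ρ hρ => ⟨(a6 ρ hρ).1, fun M hid hOm hV => ?_⟩⟩
  obtain ⟨b1, b2, b3⟩ := a6 ρ hρ
  exact ⟨b3 M hid hOm hV, fun kz1 => exists_zd (Φ := fX bf cmp H) (X := X) (b3 M hid hOm hV) hOm b2 kz1⟩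

end Crest.Agent.R096.Pth_561
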