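import Crest.Agent.R096.Eax1_481
import Crest.Agent.R096.Pth3_561

/-!
# Row 96 (S0127), EaX (helper481), part 2: all geometric fields of 112's `GenIn` for EaX

**`eax_gen`** : `eax_data` + 561's zones: for every dyadic small pre-translation `w0` the mesh data
`M := zn ..`, rational data, zones `Zd`, and `GenIn` from good sets, words (B2) and energies (B3).
-/

set_option autoImplicit false
set_option linter.style.longLine false
set_option linter.unusedSectionVars false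
set_option linter.unusedVariables false

open MeasureTheory Set Filter Topology Metric
open scoped ENNReal NNReal

namespace Crest.Agent.R096.Eax_481

open Crest.Agent.R096.Bsp_628 Crest.Agent.R096.Brk5_582
open Crest.Agent.R096.SkC1_961 (E3 FoamD Hom3)
open Crest.Agent.R096.Er_594 (SH3)
open Crest.Agent.R096.EaX_766 (cbx lin)
open Crest.Agent.R096.Bxs_627 (ctr CoriE fD zz)
open Crest.Agent.R096.Mal_874 Crest.Agent.R096.Msh_810 Crest.Agent.R096.Msh_715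
open Crest.Agent.R096.Fns_360
open Crest.Agent.R096.Mdd_360
open Crest.Agent.R096.Mbf_337 (Cores)
open Crest.Agent.R096.Mfa_880 (BxM QU)
open Crest.Agent.R096.Eaz_663
open Crest.Agent.R096.Exg_766 (XG)
open Crest.Agent.R096.Eau_365 (BkX)
open Crest.Agent.R096.Pgn_112 (ZD GenIn WordsOk)
open Crest.Agent.R096.Pmc_112 (Gd')
open Crest.Agent.R096.Wd_120 (CoreAt)
open Crest.Agent.R096.Zlt_798 (ZBall zn znRD)
open Crest.Agent.R96.Pm_199 (Dec)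
open Crest.Agent.R96.EaP_899 (fX XD cm)
open Crest.Agent.R96.Eam_466 (OX FineX InB)

noncomputable section

variable {La Om : Set E3} {f : E3 → E3} {F : Set (Bx (Fin 3))} {δ κ0 R : ℝ} {X : Set F}

/-- **the geometric fields of `GenIn` for EaX** -/
theorem eax_gen {p : ℝ} {D : E3 → E3 →L[ℝ] E3} (hp : 1 ≤ p) (hOm : IsOpen Om) (hLa : IsOpen La)
    (hSH : SH3 p Om La f D) (hδ : 0 < δ)
    (hκ0 : 1 ≤ κ0) (hR : 0 < R) (bf : BoxFoam La F δ κ0) (cmp : Cmp F R)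
    {c0 κ1 κ2 κ3 κ4 κm κ1' lam2 θ κ τ1 τ u R0 : ℝ} {o : E3} {m Bn : ℕ}
    {A : F → E3 ≃ᵃ[ℝ] E3} {lam : F → ℝ}
    (h2 : κ2 ≤ 1 / 4) (h1 : 0 ≤ κ1) (hKC : KC δ κ0 R c0 (κ2 / 2) lam2 κm κ) (hlam2 : lam2 < 1)
    (hτ1 : 0 ≤ τ1) (hτ : 0 < τ) (hκs : κ1 + τ1 + τ ≤ κ) (h34 : κ4 + τ1 < κ3)
    (hm : 0 < m) (hR1 : 1 ≤ R0) (hB1 : 1 ≤ Bn) (hη : R0 / (2 * m) ≤ κ)
    (hlam : ∀ c ∈ X, (1 + θ) * lam c ≤ lam2)
    (G : XG p Om f D o u κ0 κ1 κ2 κ3 κ1' θ F X A lam) {Q0 : F → CB E3 3}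
    (hB : ∀ c ∈ X, BkX F c (A c) ((1 + θ) * lam c) κ4 m Bn R0 (Q0 c))
    {zc : F → E3} (H : XD bf c0 X (lx θ lam) zc) :
    ∃ (x : {c // c ∉ X} → E3) (Rz : {c // c ∉ X} → ℝ), InB (fX bf cmp H) f X x Rz ∧
      (∀ c, 0 < Rz c) ∧
    ∃ r : X → ℝ, (∀ c, 0 < r c) ∧
      (∀ (c : X) (v : E3), ‖v‖ ≤ r c → ‖lin (A c) v‖ ≤ τ * ((1 + θ) * lam c * c.1.1.sz) ∧
        ∀ k, |lin (A c) v k| ≤ τ * ((1 + θ) * lam c * c.1.1.side k)) ∧
      ∀ w0 : F → E3,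
        (∀ c ∈ X, ∃ κ : ℕ, w0 c ∈ Crest.Agent.R96.Gj_872.Dy (ContinuousLinearEquiv.refl ℝ E3) κ) →
        (∀ c ∈ X, ‖lin (A c) (w0 c)‖ ≤ τ1 * ((1 + θ) * lam c * c.1.sz) ∧
          ∀ k, |lin (A c) (w0 c) k| ≤ τ1 * ((1 + θ) * lam c * c.1.side k)) →
        ∃ (M : MD E3 3 X) (Y : RD M) (κd : X → ℕ) (Zd : ZD F X),
          M.φ = ContinuousLinearEquiv.refl ℝ E3 ∧ M.φ ⁻¹' M.D0.Om = Om ∧
          (M.Q = fun c => (Q0 c.1).tr (w0 c.1)) ∧ M.r = r ∧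
          (∀ j, Y.B j = Bn) ∧ (∀ j, Y.R j = R0) ∧ Zd.x = x ∧ Zd.R = Rz ∧
          (∀ c : X, cthickening (M.r c) (M.Q c).N ⊆
            A c ⁻¹' cbx c.1.1 ((1 + 2 * κ3) * ((1 + θ) * lam c))) ∧
          (∀ c : X, ∀ v : E3, ‖v‖ ≤ r c → ∀ y ∈ ((M.Q c).tr v).N, y ∈ Om ∧
            (∀ k, c.1.1.lo k < f y k ∧ f y k < c.1.1.hi k) ∧
            ‖f y - A c y‖ ≤ κ1 * ((1 + θ) * lam c * c.1.1.sz)) ∧
          ∀ (q κp : ℝ) (D' : E3 → E3 →L[ℝ] E3) (Mc : F → ℕ) (k0 : X → ℕ)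
            (hk0 : ∀ j, (M.Q j).kc ≤ k0 j) (Gd : X → Set E3)
            (wt : ∀ j : X, Mfi_290.Pt (M.Q j) ⊕ ℕ → ℝ≥0∞) (B : X → ℝ≥0∞),
            (∀ j, ∀ v ∈ Gd j, ‖v‖ ≤ r j) → (∀ j, MeasurableSet (Gd j)) →
            (∀ j, volume (Gd j) ≠ 0) →
            (∀ v : X → E3, (∀ j, v j ∈ Gd j) → ∀ D0 : Dec (M.φ ⁻¹' M.D0.Om) F,
              Cores (fX bf cmp H) D0.T f κm (κ2 / 2) X D0.J0 D0.J D0.V D0.ct D0.A D0.lam D0.z
                D0.θ D0.φ →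
              (∀ c : X, D0.lam c = lx θ lam c ∧ D0.z c = zz c.1.1 (lx θ lam c) ∧
                D0.A c = trA (trA (A c) (w0 c)) (v c) ∧ D0.M c = Mc c ∧
                CoreAt D0.T (D0.ct c) ((M.Q c).tr (v c))) →
              WordsOk (fX bf cmp H) f κp (κp / 64) X D0) →
            (∀ j, ∀ s ∈ Gd j, ∑' c, wt j c * (QU M Y k0 hk0 j).EnC (Gd' D') q c s ≤ B j) →
            GenIn (fX bf cmp H) f D' q κp κm (κ2 / 2) X (fun c => trA (A c) (w0 c)) (lx θ lam)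
              (fun c => zz c.1 (lx θ lam c)) Mc M Y k0 hk0 κd (BxM M) Gd wt B Zd := by
  have hf : Hom3 f Om La := hSH.homeo
  have hκm : 0 < κm := by linarith [hKC.m, hKC.pos]
  have hf' := hf
  obtain ⟨fi, f1, f2, f3, f4, f5, f6⟩ := hf'
  obtain ⟨x, Rz, a1, a2, -, a4, a5, a6⟩ := Pth_561.exists_zdX (p := p) hp hOm hLa hSH bf cmp H hκm
    (η := fun _ => 1) (fun _ => one_pos)
  obtain ⟨b1, b2⟩ := a6 Rz fun c => ⟨a2 c, le_rfl⟩
  obtain ⟨r, hr0, hr1, hr⟩ := eax_data hOm hLa hf hδ hκ0 hR bf cmp h2 h1 hKC hlam2 hτ1 hτ hκs h34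
    hm hR1 hB1 hη hlam G hB H (fi := fi) f3 f6
    (x := x) (Rz := Rz) fun c => ⟨(a1 c).1, (a1 c).2, a2 c⟩
  refine ⟨x, Rz, b1, a2, r, hr0, hr1, fun w0 hw0 hw => ?_⟩
  obtain ⟨M', Y, κd, g1, g2, g3, g4, g5, g6, g7, g8, g9, g10, g11, g12⟩ := hr w0 hw0 hw
  obtain ⟨Zb, hZb⟩ := b2 M' g1 g2 fun j y hy => (g11 j y hy).2.1
  obtain ⟨Zd, e1, e2, -, e4, e5, e6, e7, e8, e9⟩ := hZb fun _ => 0
  refine ⟨zn Zb.zn Zd.k, znRD Zb.zn Zd.k Y, κd, Zd, g1, e4, g5, g6, g7, g8, e1, e2, g10, ?_, ?_⟩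
  · intro c v hv y hy
    refine g11 c y ?_
    show y ∈ cthickening (M'.r c) (M'.φ '' (M'.Q c).N)
    rw [g1, refl_image]
    have hy' : y - v ∈ (M'.Q c).N := ((M'.Q c).mem_N_tr v y).1 hy
    refine mem_cthickening_of_dist_le y (y - v) _ _ hy' ?_
    rw [dist_eq_norm, sub_sub_cancel, g6]
    exact hv
  · intro q κp D' Mc k0 hk0 Gd wt B h3 h4 h5 h6 h7
    have key : B1 bf cmp H f κm (κ2 / 2) (fun c => trA (A c) (w0 c)) x Rz (zn Zb.zn Zd.k) :=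
      g12 (zn Zb.zn Zd.k) (finer_zn Zb.zn Zd.k) (znRD Zb.zn Zd.k Y) g8
    refine
      { φ := g1
        Bxs := fun j => Subset.rfl
        Gds := fun j v hv => ?_
        Gdm := h4
        Gd0 := h5
        h0 := g9
        ex := fun k hk a v hv _ c => ?_
        fine := fun k hk a v hv _ ct0 hct0 => ?_
        words := h6
        en := h7
        xO := e5
        LF := e6
        tl := e7
        Z := e8
        dis := e9 }
    · show ‖M'.φ v‖ ≤ M'.r j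
      rw [g1, g6]
      exact h3 j v hv
    · classical
      refine (key hk a hv (ct0 := fun c' => if h : c' ∈ X then
        Sum.inr ⟨⟨c', h⟩, (zn Zb.zn Zd.k).core hk a hv ⟨c', h⟩⟩ else
        Sum.inr ⟨c, (zn Zb.zn Zd.k).core hk a hv c⟩) fun c' => ?_).1 c
      exact dif_pos c'.2
    · rw [e1, e2]
      exact (key hk a hv hct0).2

end

end Crest.Agent.R096.Eax_481
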