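import Crest.Agent.R096.Eax2_481
import Crest.Agent.R096.Wd20_120
import Crest.Agent.R96.Ea0h_348

/-!
# Row 96 (S0127), EaX (helper481), part 3

* **`words_eax`** : the words clause (B2) of 112's `GenIn` for the pre-translated blocks (120's `b2_goodC`);
* **`preMesh_gen`** : 112's `GenOut` ⟹ 365's `PreMesh`.
-/

set_option autoImplicit false
set_option linter.style.longLine false
set_option linter.unusedSectionVars false
set_option linter.unusedVariables false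

open MeasureTheory Set Filter Topology Metric
open scoped ENNReal NNReal

namespace Crest.Agent.R096.Eax_481

open Crest.Agent.R096.Bsp_628 Crest.Agent.R096.Brk5_582
open Crest.Agent.R096.SkC1_961 (E3 FoamD Hom3)
open Crest.Agent.R096.Er_594 (SH3)
open Crest.Agent.R096.EaX_766 (cbx lin)
open Crest.Agent.R096.Exa_365 (GoodW)
open Crest.Agent.R096.Bxs_627 (ctr CoriE fD zz)
open Crest.Agent.R096.Mal_874 Crest.Agent.R096.Msh_810 Crest.Agent.R096.Msh_715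
open Crest.Agent.R096.Ls_222 (eIn ea ev)
open Crest.Agent.R096.Fns_360
open Crest.Agent.R096.Mdd_360
open Crest.Agent.R096.Mbf_337 (Cores)
open Crest.Agent.R096.Mfa_880 (BxM QU NmB)
open Crest.Agent.R096.Acc_365 (K2)
open Crest.Agent.R096.Eau_365 (BkX PreMesh Jx Tx)
open Crest.Agent.R096.Pgn_112 (ZD GenIn GenOut WordsOk COu)
open Crest.Agent.R096.Pmc_112 (Gd' Kl)
open Crest.Agent.R096.Wd_120 (CoreAt b2_goodC)
open Crest.Agent.R96.Pm_199 (Dec)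
open Crest.Agent.R96.EaP_899 (fX XD cm)
open Crest.Agent.R96.Eam_466 (InB)

noncomputable section

/-- **(B2) for EaX** -/
theorem words_eax {δ κ0 R : ℝ} (hδ : 0 < δ) (hκ : 1 ≤ κ0) (hR : 1 ≤ R) {κp lam0 lam1 : ℝ}
    (hκp : 0 < κp) (hl0 : 0 < lam0) (hl1 : lam1 < 1) {m : ℕ} (hm : 0 < m) :
    ∃ κw : ℝ, 0 < κw ∧ ∀ (La Om : Set E3), IsOpen La → ∀ (F : Set (Bx (Fin 3)))
      (bf : BoxFoam La F δ κ0) (cmp : Cmp F R) (c0 : ℝ) (X : Set F) (lam : F → ℝ) (zc : F → E3)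
      (H : XD bf c0 X lam zc) (f : E3 → E3) (p : ℝ), 1 ≤ p → ContinuousOn f Om →
      ∀ (D : E3 → E3 →L[ℝ] E3) (κm κ2m : ℝ), 0 ≤ κ2m → (∀ c ∈ X, lam0 ≤ lam c ∧ lam c ≤ lam1) →
      ∀ (A : F → E3 ≃ᵃ[ℝ] E3) (κ4 : ℝ) (Bn : ℕ) (R0 : ℝ) (Q0 : F → CB E3 3),
      (∀ c ∈ X, BkX F c (A c) (lam c) κ4 m Bn R0 (Q0 c)) →
      ∀ (k0 : X → ℕ) (hk : ∀ c : X, (Q0 c.1).kc ≤ k0 c) (η : ℝ≥0∞), η ≠ ∞ →
      (η ^ (1 / p)).toReal ≤ κw →
      ∀ (w0 : F → E3) (M : MD E3 3 X), M.φ ⁻¹' M.D0.Om = Om →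
      (M.Q = fun c => (Q0 c.1).tr (w0 c.1)) → ∀ (Gd : X → Set E3),
      (∀ c : X, ∀ v ∈ Gd c, GoodW p Om f D (A c)
        (fun e : {e // e ∈ eIn ((Q0 c.1).T (k0 c) (hk c)) ((Q0 c.1).cix (k0 c) (hk c))} => ea e.1)
        (fun e => ev e.1) η (w0 c + v)) →
      (∀ c : X, ∀ v ∈ Gd c, ∀ y ∈ ((M.Q c).tr v).N,
        ‖f y - A c y‖ + ‖lin (A c) (w0 c + v)‖ ≤ κw * (lam c * c.1.1.sz)) →
      ∀ v : X → E3, (∀ j, v j ∈ Gd j) → ∀ D0 : Dec (M.φ ⁻¹' M.D0.Om) F,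
        Cores (fX bf cmp H) D0.T f κm κ2m X D0.J0 D0.J D0.V D0.ct D0.A D0.lam D0.z D0.θ D0.φ →
        (∀ c : X, D0.lam c = lam c ∧ D0.z c = zz c.1.1 (lam c) ∧
          D0.A c = trA (trA (A c) (w0 c)) (v c) ∧ D0.M c = m ∧
          CoreAt D0.T (D0.ct c) ((M.Q c).tr (v c))) →
        WordsOk (fX bf cmp H) f κp (κp / 64) X D0 := by
  obtain ⟨κw, hκw, HH⟩ := b2_goodC hδ hκ hR (κp := κp) hκp hl0 hl1 m
  refine ⟨κw, hκw, ?_⟩
  intro La Om hLa F bf cmp c0 X lam zc H f p hp hf D κm κ2m hκ2 hlam A κ4 Bn R0 Q0 hB k0 hk η hη hηw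
    w0 M hO hQ Gd hG hcl v hv D0 hC hD
  subst hO
  refine HH La _ hLa F bf cmp c0 X lam zc H f p hp hf D κm κ2m (κp / 64) hκ2 (by positivity)
    (fun c : X => Q0 c.1) k0 hk (fun c => A c) (fun c => w0 c + v c) (fun _ => m) η hlam
    (fun _ => le_rfl) (fun c => ⟨hm, (hB c c.2).grid (k0 c) (hk c)⟩) hη hηw
    (fun c => hG c (v c) (hv c)) D0 hC (fun c => ?_) (fun c x hx hxi => ?_)
  · obtain ⟨g1, g2, g3, g4, g5⟩ := hD c
    rw [hQ] at g5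
    have g5' : CoreAt D0.T (D0.ct c) (((Q0 c.1).tr (w0 c.1)).tr (v c)) := g5
    rw [tr_tr] at g5'
    rw [trA_trA] at g3
    exact ⟨g1, g2, g3, g4, g5'⟩
  · obtain ⟨g1, g2, g3, g4, g5⟩ := hD c
    have h1 : x ∈ ((M.Q c).tr (v c)).N := by
      rw [g5.tile] at hx
      exact Crest.Agent.R096.Pgn_112.Kc_sub_N _ hx
    have h2 := hcl c (v c) (hv c) x h1
    rw [g3, trA_trA]
    have e : f x - trA (A c) (w0 c + v c) x = (f x - A c x) + (A c).linear (w0 c + v c) := by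
      rw [← trA_sub (A c) (w0 c + v c) x]; abel
    rw [e]
    exact (norm_add_le _ _).trans h2

variable {δ κ0 R c0 : ℝ} {La : Set E3} {F : Set (Bx (Fin 3))}

/-- the macro balls -/
theorem macro_of_inB {Φ : FoamD δ κ0 R c0 La} {f : E3 → E3} {X : Set Φ.F} {x : {c // c ∉ X} → E3}
    {Rz : {c // c ∉ X} → ℝ} (h : InB Φ f X x Rz) (hR : ∀ c, 0 < Rz c) :
    Crest.Agent.R96.EaCore_348.Macro Φ f x (fun c => 7 / 8 * Rz c) (fun c => c.1) := by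
  intro c y hy j
  refine h c y (closedBall_subset_closedBall ?_ hy) j
  have := hR c
  show 7 / 8 * Rz c ≤ Rz c
  linarith

/-- closeness to the translated map over the translated block -/
theorem hcl_of {Om : Set E3} {f : E3 → E3} {A : E3 ≃ᵃ[ℝ] E3} {a b c s : ℝ} {w v y : E3}
    (h1 : ‖f y - A y‖ ≤ a * s) (h2 : ‖lin A w‖ ≤ b * s) (h3 : ‖lin A v‖ ≤ c * s) :
    ‖f y - A y‖ + ‖lin A (w + v)‖ ≤ (a + b + c) * s := by
  rw [map_add]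
  have := norm_add_le (lin A w) (lin A v)
  linarith

/-- **112's `GenOut` ⟹ `PreMesh`** -/
theorem preMesh_gen {bf : BoxFoam La F δ κ0} {cmp : Cmp F R} {p : ℝ} {C : Set (Set E3) → ℝ}
    {κp κe κ1 κ2 θ : ℝ} {Om : Set E3} {f : E3 → E3} {D D' : E3 → E3 →L[ℝ] E3} {X : Set F}
    {A : F → E3 ≃ᵃ[ℝ] E3} {lam : F → ℝ} {Q0 : F → CB E3 3} {C1 : ℝ≥0} {E : ℝ} {ε ε' : ℝ≥0∞}
    {Bx Gd : X → Set E3} {z : F → E3} {H : XD bf c0 X (lx θ lam) z} {B : X → ℝ≥0∞}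
    {εb : X → ℝ≥0∞} {zc : F → E3} {Mc : F → ℕ} {M : MD E3 3 X} {Zd : ZD F X} {Cs : ℝ}
    {w0 : F → E3} (hκe : κe ≤ κ1) (hpX : p < 3 ∨ X = univ)
    (hQ : M.Q = fun c => (Q0 c.1).tr (w0 c.1))
    (hcore : ∀ c ∈ X, (Q0 c).Kc = A c ⁻¹' cbx c.1 ((1 + θ) * lam c))
    (hsh : ∀ c : X, ∀ v ∈ Gd c, ∀ k,
      |lin (A c) (w0 c + v) k| ≤ θ * (lam c * c.1.1.side k) / 2)
    (hInB : InB (fX bf cmp H) f X Zd.x Zd.R) (hR : ∀ c, 0 < Zd.R c)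
    (hE : ∀ x : ℝ≥0∞, x ≤ (ENNReal.ofReal Cs * Kl δ R) ^ p *
        (COu p * ∫⁻ x in Om \ NmB M Bx, ‖D' x‖ₑ ^ p) + ∑' j, B j + ε' →
      x ≤ C1 * Jx p Om D F X A lam + ENNReal.ofReal E * Tx p F X A lam + ε)
    (h : GenOut (fX bf cmp H) Om f D' p κp κe κ2 X (fun c => trA (A c) (w0 c)) (lx θ lam) zc Mc M
      Bx Gd B Zd C Cs ε' εb) :
    PreMesh (c0 := c0) bf cmp p C κp κ1 κ2 θ Om f D X A lam C1 E ε := by
  classical
  obtain ⟨v, Dd, h1, h2, h3, h4, h5, -⟩ := h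
  set v' : F → E3 := fun c => if hc : c ∈ X then w0 c + v ⟨c, hc⟩ else 0 with hv'
  have hv'e : ∀ c (hc : c ∈ X), v' c = w0 c + v ⟨c, hc⟩ := fun c hc => by
    simp only [hv']
    rw [dif_pos hc]
  refine ⟨z, H, Dd, _, v', {c // c ∉ X}, Zd.x, _, _, fun c => c.1, κe, hκe, h2, h3, ?_, ?_, ?_,
    hE _ h5⟩
  · intro c y hy j
    refine hInB c y (closedBall_subset_closedBall ?_ hy) j
    have := hR c
    linarith
  · refine hpX.imp id fun hX => ?_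
    subst hX
    exact ⟨fun c => c.2 (mem_univ _)⟩
  · intro c hc
    obtain ⟨g1, g2, g3, g4, g5⟩ := h4 ⟨c, hc⟩
    rw [hv'e c hc]
    refine ⟨?_, g2, ?_, hsh ⟨c, hc⟩ _ (h1 ⟨c, hc⟩)⟩
    · refine g1.trans ?_
      rw [hQ]
      show (((Q0 c).tr (w0 c)).tr (v ⟨c, hc⟩)).Kc = _
      rw [tr_tr]
      ext x
      rw [(Q0 c).mem_Kc_tr, hcore c hc]
      rfl
    · have g6 : Dd.A c = trA (trA (A c) (w0 c)) (v ⟨c, hc⟩) := g4
      rw [g6, Crest.Agent.R96.Ea0p_348.lin_trA, Crest.Agent.R96.Ea0p_348.lin_trA]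

end

end Crest.Agent.R096.Eax_481
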