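import Crest.Agent.R096.Mfe2_161
import Crest.Agent.R096.Mfa1_880

/-!
# Row 96 (helper161), MF-EDGE, part 3: the edges of 880's `PT` for free

`PTn` = `Mfa_880.PT` without potential edges (rigid frames `frr t`, countable families `𝒦 k` of
potential cells; `kk 𝓗 W o` from 324's `HS`); `PTn.toPT`, `PTn.Is → PT.Is`.
-/

set_option autoImplicit false
set_option linter.unusedSectionVars false

open MeasureTheory Set Filter Metric
open scoped Topology ENNReal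

namespace Crest.Agent.R096.Mfe_161

open Crest.Agent.R096.Msh_715
open Crest.Agent.R096.Cnt_324 (HS Cod pol cell_code')
open Crest.Agent.R096.SkC1_961 (E3 Cfg)
open Crest.Agent.R096.Ls_222 (Edg ea ev eIn mem_eIn sgm_edg ev_ne)
open Crest.Agent.R96.Sg1_199 (li sgm)
open Crest.Agent.R96.Pm_199 (Dec sh MF)
open Crest.Agent.R096.Mfa_880 (PT)

noncomputable section

variable {J : Type}

/-- the potential cells for the total shifts of the type `o` -/
def kk (𝓗 : Set ((E3 →L[ℝ] ℝ) × ℝ)) (W : J → Set E3) : Option J → Set (Set E3)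
  | none => pols 𝓗
  | some j => {Q | ∃ K ∈ pols 𝓗, ∃ u ∈ W j, Q = Mfe_161.shf (-u) K}

theorem kk_countable {𝓗 : Set ((E3 →L[ℝ] ℝ) × ℝ)} (h : 𝓗.Countable) {W : J → Set E3}
    (hW : ∀ j, (W j).Countable) (o : Option J) : (kk 𝓗 W o).Countable := by
  rcases o with _ | j
  · exact pols_countable h
  · have h1 : kk 𝓗 W (some j) = ⋃ K ∈ pols 𝓗, ⋃ u ∈ W j, {Mfe_161.shf (-u) K} := by
      ext Q
      simp only [kk, mem_ofPred_eq, mem_iUnion, mem_singleton_iff, exists_prop]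
    rw [h1]
    exact (pols_countable h).biUnion fun K _ => (hW j).biUnion fun u _ => countable_singleton _

theorem kk_mem {𝓗 : Set ((E3 →L[ℝ] ℝ) × ℝ)} {W : J → Set E3} {a : E3} {w : J → E3}
    (hw : ∀ j, w j ∈ W j) {Om : Set E3} {ι : Type*} {T : Tiling Om ι} (h : HS T a 𝓗)
    (o : Option J) {z : E3} (hz : z ∈ Om) : Mfe_161.shf (-(sh o a w)) (T.cc z) ∈ kk 𝓗 W o := by
  obtain ⟨K, hK, hc⟩ := cell_hs h hz
  rcases o with _ | j
  · show Mfe_161.shf (-a) (T.cc z) ∈ pols 𝓗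
    rw [hc, shf_neg]
    exact hK
  · refine ⟨K, hK, w j, hw j, ?_⟩
    show Mfe_161.shf (-(a + w j)) (T.cc z) = _
    rw [hc, Mfe_161.shf_shf, show -(a + w j) + a = -(w j) by abel]

theorem kk_mem' {𝓗 : Set ((E3 →L[ℝ] ℝ) × ℝ)} {W : J → Set E3} {a : E3} {w : J → E3}
    (hw : ∀ j, w j ∈ W j) {Om : Set E3} {ι : Type*} {T : Tiling Om ι} (h : HS T a 𝓗)
    (o : Option J) (e : Edg T) : Mfe_161.shf (-(sh o a w)) e.1 ∈ kk 𝓗 W o := by
  obtain ⟨x, hx, -, he⟩ := e.2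
  rw [he]
  exact kk_mem hw h o hx

/-- **potential tiles without edges** -/
structure PTn (J : Type) where
  κ : Type
  τ : Type
  cκ : Countable κ
  cτ : Countable τ
  cl : τ → κ
  bl : κ → Option J
  Til : τ → Set E3
  Ac : τ → Set E3
  Acm : ∀ t, MeasurableSet (Ac t)
  β : τ → ℝ
  Sh : κ → Set (Set (Set E3))
  shf : ∀ k, (Sh k).Finite
  frr : τ → E3 ≃ᵃ[ℝ] E3
  frn : ∀ t, ∀ y : E3, ‖(frr t).linear y‖ ≤ β t * ‖y‖
  /-- potential cells -/
  𝒦 : κ → Set (Set E3)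
  c𝒦 : ∀ k, (𝒦 k).Countable

namespace PTn

/-- the tile `i` of `T` is the potential tile `t` at the shifts `a, w` -/
structure Is (Q : PTn J) (a : E3) (w : J → E3) {Om : Set E3} {ι : Type} (T : Tiling Om ι) (i : ι)
    (t : Q.τ) : Prop where
  act : sh (Q.bl (Q.cl t)) a w ∈ Q.Ac t
  tile : P (T.H i) = (fun y => y + sh (Q.bl (Q.cl t)) a w) '' Q.Til t
  cell : ∀ e ∈ eIn T i, Mfe_161.shf (-(sh (Q.bl (Q.cl t)) a w)) e.1 ∈ Q.𝒦 (Q.cl t)
  shp : (fun K => Q.frr t '' Mfe_161.shf (-(sh (Q.bl (Q.cl t)) a w)) K) '' Cfg T i ∈ Q.Sh (Q.cl t)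

variable (Q : PTn J)

/-- potential segments -/
def Sg : Type := Σ k, {K : Set E3 // K ∈ Q.𝒦 k ∧ ∃ p : E3 × E3, p.2 ≠ 0 ∧ K = sgm p.1 p.2}

instance : Countable Q.Sg := by
  have := Q.cκ
  have : ∀ k, Countable {K : Set E3 // K ∈ Q.𝒦 k ∧ ∃ p : E3 × E3, p.2 ≠ 0 ∧ K = sgm p.1 p.2} := by
    intro k
    have h1 : {K : Set E3 | K ∈ Q.𝒦 k ∧ ∃ p : E3 × E3, p.2 ≠ 0 ∧ K = sgm p.1 p.2}.Countable :=
      (Q.c𝒦 k).mono fun K hK => hK.1
    exact h1.to_subtype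
  unfold Sg
  infer_instance

/-- parametrisation of a potential segment -/
def Sg.p {Q : PTn J} (K : Q.Sg) : E3 × E3 := K.2.2.2.choose

theorem Sg.p_ne {Q : PTn J} (K : Q.Sg) : K.p.2 ≠ 0 := K.2.2.2.choose_spec.1

theorem Sg.p_eq {Q : PTn J} (K : Q.Sg) : K.2.1 = sgm K.p.1 K.p.2 := K.2.2.2.choose_spec.2

/-- the cells of the finite configurations of the list of a class -/
def shs (k : Q.κ) : Set (Set E3) := ⋃₀ {c | c ∈ Q.Sh k ∧ c.Finite}

theorem shs_finite (k : Q.κ) : (Q.shs k).Finite :=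
  Set.Finite.sUnion ((Q.shf k).subset fun _ hc => hc.1) fun _ hc => hc.2

/-- the potential edges of the potential tile `t` -/
def EdS (t : Q.τ) : Set Q.Sg :=
  {j | j.1 = Q.cl t ∧ j.2.1 ⊆ Q.Til t ∧ Q.frr t '' j.2.1 ∈ Q.shs (Q.cl t)}

theorem EdS_injOn (t : Q.τ) : InjOn (fun j : Q.Sg => Q.frr t '' j.2.1) (Q.EdS t) := by
  rintro ⟨k, K⟩ hj ⟨k', K'⟩ hj' e
  have e1 : K.1 = K'.1 := (Q.frr t).injective.image_injective e
  have e2 : k = k' := hj.1.trans hj'.1.symm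
  subst e2
  rw [Subtype.ext e1]

theorem EdS_finite (t : Q.τ) : (Q.EdS t).Finite := by
  refine Set.Finite.of_finite_image ?_ (Q.EdS_injOn t)
  refine (Q.shs_finite (Q.cl t)).subset ?_
  rintro _ ⟨j, hj, rfl⟩
  exact hj.2.2

/-- **the structure with edges** -/
def toPT : PT J where
  κ := Q.κ
  τ := Q.τ
  η := Q.Sg
  cκ := Q.cκ
  cτ := Q.cτ
  cη := inferInstance
  cl := Q.cl
  bl := Q.bl
  Til := Q.Til
  Ac := Q.Ac
  Acm := Q.Acm
  x j := j.p.1
  v j := j.p.2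
  Ed t := (Q.EdS_finite t).toFinset
  sub t j hj := by
    rw [Set.Finite.mem_toFinset] at hj
    refine ⟨j.p_ne, ?_⟩
    rw [← j.p_eq]
    exact hj.2.1
  β := Q.β
  Sh := Q.Sh
  shf := Q.shf

/-- the number of potential edges of a potential tile -/
theorem card_Ed_le (t : Q.τ) : (Q.toPT.Ed t).card ≤ (Q.shs (Q.cl t)).ncard := by
  rw [← Set.ncard_coe_finset]
  show ((Q.EdS_finite t).toFinset : Set Q.Sg).ncard ≤ _
  rw [Set.Finite.coe_toFinset]
  exact Set.ncard_le_ncard_of_injOn (fun j : Q.Sg => Q.frr t '' j.2.1)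
    (fun j hj => hj.2.2) (Q.EdS_injOn t) (Q.shs_finite _)

/-- the potential edges of a potential tile are cells of the list of the class in the rigid frame -/
theorem mem_Ed {t : Q.τ} {j : Q.toPT.η} (hj : j ∈ Q.toPT.Ed t) :
    Q.toPT.v j ≠ 0 ∧ sgm (Q.toPT.x j) (Q.toPT.v j) ⊆ Q.Til t ∧
      Q.frr t '' sgm (Q.toPT.x j) (Q.toPT.v j) ∈ Q.shs (Q.cl t) ∧
      sgm (Q.toPT.x j) (Q.toPT.v j) ∈ Q.𝒦 (Q.cl t) := by
  have h1 : j ∈ Q.EdS t := (Set.Finite.mem_toFinset _).1 hj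
  have e : sgm (Q.toPT.x j) (Q.toPT.v j) = j.2.1 := (Sg.p_eq j).symm
  refine ⟨Sg.p_ne j, (Q.toPT.sub t j hj).2, ?_, ?_⟩
  · rw [e]
    exact h1.2.2
  · rw [e, ← h1.1]
    exact j.2.2.1

theorem shf_affine (B : E3 ≃ᵃ[ℝ] E3) (s : E3) (K : Set E3) :
    ((AffineEquiv.constVAdd ℝ E3 (-s)).trans B) '' K = B '' Mfe_161.shf (-s) K := by
  unfold Mfe_161.shf
  rw [image_image]
  refine image_congr fun y _ => ?_
  show B (-s + y) = B (y + -s)
  rw [add_comm]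

/-- **edges for free** -/
theorem Is.toPT {Q : PTn J} {a : E3} {w : J → E3} {Om : Set E3} {ι : Type} {T : Tiling Om ι}
    {i : ι} {t : Q.τ} (h : Q.Is a w T i t) : Q.toPT.Is a w T i t where
  act := h.act
  tile := h.tile
  tedge e he := by
    have hsub := mem_eIn.1 he
    have hK := h.cell e he
    set s := sh (Q.bl (Q.cl t)) a w with hs
    have hp : ∃ p : E3 × E3, p.2 ≠ 0 ∧ Mfe_161.shf (-s) e.1 = sgm p.1 p.2 := by
      refine ⟨(ea e + -s, ev e), ev_ne e, ?_⟩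
      rw [← sgm_edg e, shf_sgm]
    let j : Q.Sg := ⟨Q.cl t, ⟨Mfe_161.shf (-s) e.1, hK, hp⟩⟩
    refine subset_iUnion₂_of_subset j ?_ ?_
    · show j ∈ (Q.EdS_finite t).toFinset
      rw [Set.Finite.mem_toFinset]
      refine ⟨rfl, ?_, ?_⟩
      · show Mfe_161.shf (-s) e.1 ⊆ Q.Til t
        have h1 := h.tile
        change _ = Mfe_161.shf s _ at h1
        rw [h1] at hsub
        have h2 := image_mono (f := fun y => y + -s) hsub
        change Mfe_161.shf _ _ ⊆ Mfe_161.shf _ (Mfe_161.shf _ _) at h2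
        rwa [shf_neg] at h2
      · refine mem_sUnion.2 ⟨_, ⟨h.shp, ?_⟩, ?_⟩
        · refine Set.Finite.image _ ?_
          refine (T.finite_cells (T.cpt i) (T.sub i)).subset ?_
          rintro _ ⟨x, hx, rfl⟩
          exact ⟨⟨x, (T.sub i) hx, rfl⟩, x, T.self_mem_cc x, hx⟩
        · obtain ⟨x, hx, -, hex⟩ := e.2
          refine ⟨e.1, ⟨x, mem_eIn.1 he ?_, hex⟩, rfl⟩
          rw [hex]
          exact T.self_mem_cc x
    · show e.1 ⊆ sgm (j.p.1 + s) j.p.2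
      rw [← shf_sgm, ← j.p_eq]
      show e.1 ⊆ Mfe_161.shf s (Mfe_161.shf (-s) e.1)
      rw [shf_neg']
  frm := by
    refine ⟨(AffineEquiv.constVAdd ℝ E3 (-(sh (Q.bl (Q.cl t)) a w))).trans (Q.frr t), ?_, ?_⟩
    · intro y
      have e : ((AffineEquiv.constVAdd ℝ E3 (-(sh (Q.bl (Q.cl t)) a w))).trans
          (Q.frr t)).linear y = (Q.frr t).linear y := rfl
      rw [e]
      exact Q.frn t y
    · have h1 := h.shp
      have e : (fun K => ((AffineEquiv.constVAdd ℝ E3 (-(sh (Q.bl (Q.cl t)) a w))).trans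
          (Q.frr t)) '' K) = fun K => Q.frr t ''
            Mfe_161.shf (-(sh (Q.bl (Q.cl t)) a w)) K := by
        funext K
        exact shf_affine _ _ _
      show (fun K => ((AffineEquiv.constVAdd ℝ E3 (-(sh (Q.bl (Q.cl t)) a w))).trans
          (Q.frr t)) '' K) '' Cfg T i ∈ Q.Sh (Q.cl t)
      rw [e]
      exact h1

theorem Is.cov {Q : PTn J} {a : E3} {w : J → E3} {Om : Set E3} {ι : Type} {T : Tiling Om ι}
    {i : ι} {t : Q.τ} (h : Q.Is a w T i t) : Q.toPT.Cov a w T i := ⟨t, h.toPT⟩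

end PTn

end

end Crest.Agent.R096.Mfe_161
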