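import Crest.Agent.R096.Mou2_324
import Crest.Agent.R096.Mfe3_161
import Crest.Agent.R096.Cnt2_324

/-!
# Row 96 (S0127), instance of `MF` (helper324): the OUTER HALF in 880's / 161's format

`QP` : the outer cubes away from the walls (class `()`), potential tiles `Tw φ 0 s z`; active only if the tile misses
the open set `O`;  `QW` : the outer tiles at the walls (classes `J`), potential tiles `(j, z, S)`;
`QO = QP.toPT.sum QW.toPT`; **`cov_outer`** : every outer tile of 874's `MD.mesh` is covered.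
-/

set_option autoImplicit false
set_option linter.unusedSectionVars false

open MeasureTheory Set Filter Topology Metric
open scoped ENNReal

namespace Crest.Agent.R096.Mou_324

open Msh_715 Cut_874 Msh_810 Mal_874
open Crest.Agent.R096.SkC1_961 (E3 Cfg)
open Crest.Agent.R96.Wm_72 (Tw Aw Tw_tr mem_Aw measurableSet_Aw)
open Crest.Agent.R096.Ls_222 (Edg ea eIn mem_eIn)
open Crest.Agent.R96.Pm_199 (sh)
open Crest.Agent.R096.Mfe_161 (PTn shf kk kk_mem' kk_countable)
open Crest.Agent.R096.Mfa_880 (PT)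
open Crest.Agent.R096.Cnt_324 (HS Hfam countable_Hfam hs_mesh)

/-! ### sets of shifts -/

section gen

variable {n : ℕ} {E : Type*} [NormedAddCommGroup E] [NormedSpace ℝ E]

theorem shp_closed (C1 C2 : Set ((Fin n → ℝ) × ℝ)) : IsClosed (shp C1 C2) := by
  have hc : ∀ ν : Fin n → ℝ, Continuous fun u => dt ν u := by
    intro ν
    unfold dt
    fun_prop
  have e : shp C1 C2 = (⋂ p ∈ C1, {u | dt p.1 u ≤ p.2}) ∩ ⋂ p ∈ C2, {u | dt p.1 u = p.2} := by
    ext u
    simp only [shp, mem_ofPred_eq, mem_inter_iff, mem_iInter]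
  rw [e]
  exact (isClosed_biInter fun p _ => isClosed_le (hc _) continuous_const).inter
    (isClosed_biInter fun p _ => isClosed_eq (hc _) continuous_const)

theorem shapes_closed {𝒩 : Finset (Fin n → ℝ)} {d : ℕ} {B : ℝ} {S : Set (Fin n → ℝ)}
    (h : S ∈ shapes 𝒩 d B) : IsClosed S := by
  obtain ⟨C1, -, C2, -, rfl⟩ := h
  exact shp_closed C1 C2

theorem BS_compact {R : ℝ} {S : Set (Fin n → ℝ)} (h : IsClosed S) (hB : BS R S) : IsCompact S := by
  refine (isCompact_Icc (a := fun _ : Fin n => -R) (b := fun _ => R + 1)).of_isClosed_subset h ?_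
  intro u hu
  exact ⟨fun m => (hB u hu m).1, fun m => (hB u hu m).2⟩

theorem Tq_eq (φ : E ≃L[ℝ] (Fin n → ℝ)) (a0 : Fin n → ℝ) (κ : ℕ) (z : Fin n → ℤ)
    (S : Set (Fin n → ℝ)) : Tq φ a0 κ z S = (fun y => φ y) ⁻¹'
      ((fun u : Fin n → ℝ => fun m => (2 : ℝ) ^ κ * (u m - a0 m) - z m) ⁻¹' S) := by
  ext y
  rw [mem_Tq, frT_apply, mem_preimage, mem_preimage]
  have e : (fun m => chi φ a0 κ y m - (z m : ℝ)) =
      fun m => (2 : ℝ) ^ κ * (φ y m - a0 m) - z m := by
    funext m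
    rw [chi_apply]
  rw [e]

theorem Tq_compact {φ : E ≃L[ℝ] (Fin n → ℝ)} {a0 : Fin n → ℝ} {κ : ℕ} {z : Fin n → ℤ}
    {S : Set (Fin n → ℝ)} (hS : IsCompact S) : IsCompact (Tq φ a0 κ z S) := by
  rw [Tq_eq]
  refine φ.toHomeomorph.isCompact_preimage.2 ?_
  have hp : (2 : ℝ) ^ κ ≠ 0 := by positivity
  have e : ((fun u : Fin n → ℝ => fun m => (2 : ℝ) ^ κ * (u m - a0 m) - z m) ⁻¹' S) =
      (fun u : Fin n → ℝ => fun m => (u m + z m) / 2 ^ κ + a0 m) '' S := by
    ext u
    simp only [mem_preimage, mem_image]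
    constructor
    · intro h
      refine ⟨_, h, ?_⟩
      funext m
      field_simp
      ring
    · rintro ⟨u', h, rfl⟩
      have e2 : (fun m => (2 : ℝ) ^ κ * ((u' m + z m) / 2 ^ κ + a0 m - a0 m) - z m) = u' := by
        funext m
        field_simp
        ring
      rw [e2]
      exact h
  rw [e]
  exact hS.image (by fun_prop)

/-- the shifts which move `K` off `O` -/
def Off (K O : Set E) : Set E := {b | ∀ y ∈ K, y + b ∉ O}

/-- the shifts which move `K` into `U` -/
def Ins (K U : Set E) : Set E := {b | ∀ y ∈ K, y + b ∈ U}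

theorem isClosed_Off {K O : Set E} (hO : IsOpen O) : IsClosed (Off K O) := by
  have e : Off K O = ⋂ y ∈ K, (fun b => y + b) ⁻¹' Oᶜ := by
    ext b
    simp only [Off, mem_ofPred_eq, mem_iInter, mem_preimage, mem_compl_iff]
  rw [e]
  exact isClosed_biInter fun y _ => hO.isClosed_compl.preimage (by fun_prop)

theorem isOpen_Ins {K U : Set E} (hK : IsCompact K) (hU : IsOpen U) : IsOpen (Ins K U) := by
  rw [isOpen_iff_mem_nhds]
  intro b hb
  refine hK.eventually_forall_of_forall_eventually fun y hy => ?_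
  have h1 : Continuous fun p : E × E => p.2 + p.1 := by fun_prop
  exact (hU.preimage h1).mem_nhds (hb y hy)

end gen

/-! ### the potential tiles -/

section three

variable {J : Type} (M : MD E3 3 J) (k : J → ℕ) {W : J → Set E3}

/-- points of the block `j` for all admissible shifts (an open set), all blocks -/
def Nm : Set E3 := ⋃ j, interior {x | ∀ s, ‖M.φ s‖ ≤ M.r j → x - s ∈ (M.Q j).N}

theorem isOpen_Nm : IsOpen (Nm M) := isOpen_iUnion fun _ => isOpen_interior

theorem Nm_sub {v : J → E3} (hv : M.Adm v) {x : E3} (hx : x ∈ Nm M) :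
    ∃ j, x ∈ (M.Bk v j).N := by
  obtain ⟨j, hj⟩ := mem_iUnion.1 hx
  refine ⟨j, ((M.Q j).mem_N_tr (v j) x).2 ?_⟩
  exact interior_subset hj (v j) (hv j)

/-- **the outer cubes away from the walls** -/
noncomputable def QP [Countable J] (Wc : ∀ j, (W j).Countable) (r : ℝ) : PTn J where
  κ := Unit
  τ := ℕ × (Fin 3 → ℤ)
  cκ := inferInstance
  cτ := inferInstance
  cl _ := ()
  bl _ := none
  Til t := Tw M.φ 0 t.1 t.2
  Ac t := Aw M.φ (outD M.D0 k M.W 0) 0 r t.1 t.2 ∩ Off (Tw M.φ 0 t.1 t.2) (Nm M)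
  Acm t := measurableSet_Aw.inter (isClosed_Off (isOpen_Nm M)).measurableSet
  β t := 2 ^ (t.1 + 1) * ‖(M.φ : E3 →L[ℝ] (Fin 3 → ℝ))‖
  Sh _ := simL (N0 3) 1 2
  shf _ := simL_finite _ _ _
  frr t := frT M.φ 0 (t.1 + 1) (fun m => 2 * t.2 m)
  frn _ _ := frT_norm _ _ _ _ _
  𝒦 _ := kk (Hfam M (⋃ j, W j)) W none
  c𝒦 _ := kk_countable (countable_Hfam M (countable_iUnion Wc)) Wc _

/-- the shapes of the outer tiles at the wall `j` -/
abbrev SJ {M : MD E3 3 J} (X : RD M) (j : J) : Type :=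
  {S : Set (Fin 3 → ℝ) // S ∈ ShW X j ∧ BS (X.c j) S}

instance {M : MD E3 3 J} (X : RD M) (j : J) : Finite (SJ X j) :=
  ((shapes_finite _ _ _).subset fun _ hS => hS.1).to_subtype

variable {M}

/-- names of the potential outer tiles at the walls: block, offset, integer position, shape -/
abbrev TW (W : J → Set E3) (X : RD M) : Type := Σ j, W j × (Fin 3 → ℤ) × SJ X j

/-- potential outer tile at the wall -/
def tW (X : RD M) (t : TW W X) : Set E3 := Tq M.φ 0 (k t.1) t.2.2.1 t.2.2.2.1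

theorem tW_compact (X : RD M) (t : TW W X) : IsCompact (tW k X t) :=
  Tq_compact (BS_compact (shapes_closed t.2.2.2.2.1) t.2.2.2.2.2)

/-- the shifts for which it is used -/
def acW (W : J → Set E3) (X : RD M) (r : ℝ) (t : TW W X) : Set E3 :=
  {b | ‖b‖ ≤ r ∧ ‖M.φ (b + t.2.1)‖ ≤ M.r t.1 ∧
    NearW M t.1 (t.2.1 : E3) (2 + X.c t.1) (k t.1) (tW k X t)} ∩ Ins (tW k X t) (M.φ ⁻¹' M.D0.Om)

theorem acW_meas (X : RD M) (r : ℝ) (t : TW W X) : MeasurableSet (acW k W X r t) := by
  unfold acW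
  refine MeasurableSet.inter ?_ (isOpen_Ins (tW_compact k X t) ?_).measurableSet
  · have e : {b : E3 | ‖b‖ ≤ r ∧ ‖M.φ (b + t.2.1)‖ ≤ M.r t.1 ∧
        NearW M t.1 (t.2.1 : E3) (2 + X.c t.1) (k t.1) (tW k X t)} = {b | ‖b‖ ≤ r} ∩
        ({b | ‖M.φ (b + t.2.1)‖ ≤ M.r t.1} ∩
          {_b | NearW M t.1 (t.2.1 : E3) (2 + X.c t.1) (k t.1) (tW k X t)}) := by
      ext b
      simp only [mem_inter_iff, mem_ofPred_eq]
    rw [e]
    refine (isClosed_le continuous_norm continuous_const).measurableSet.inter ?_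
    refine (isClosed_le ?_ continuous_const).measurableSet.inter (MeasurableSet.const _)
    exact (M.φ.continuous.comp (continuous_id.add continuous_const)).norm
  · exact (isOpen_lt continuous_const M.D0.continuous_ρ).preimage M.φ.continuous

/-- **the outer tiles at the walls** -/
noncomputable def QW [Countable J] (Wc : ∀ j, (W j).Countable) (X : RD M) (r : ℝ) : PTn J where
  κ := J
  τ := TW W X
  cκ := inferInstance
  cτ := by
    have := fun j => (Wc j).to_subtype
    infer_instance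
  cl t := t.1
  bl _ := none
  Til t := tW k X t
  Ac t := acW k W X r t
  Acm t := acW_meas k X r t
  β t := 2 ^ k t.1 * ‖(M.φ : E3 →L[ℝ] (Fin 3 → ℝ))‖
  Sh j := simL (NR (X.A j) (X.d j)) (X.d j) (X.c j)
  shf _ := simL_finite _ _ _
  frr t := frT M.φ 0 (k t.1) t.2.2.1
  frn _ _ := frT_norm _ _ _ _ _
  𝒦 _ := kk (Hfam M (⋃ j, W j)) W none
  c𝒦 _ := kk_countable (countable_Hfam M (countable_iUnion Wc)) Wc _

/-- **the outer half** -/
noncomputable def QO [Countable J] (Wc : ∀ j, (W j).Countable) (X : RD M) (r : ℝ) : PT J :=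
  (QP M k Wc r).toPT.sum (QW k Wc X r).toPT

theorem fr_image (φ : E3 ≃L[ℝ] (Fin 3 → ℝ)) (b : E3) (κ : ℕ) (z : Fin 3 → ℤ) (K : Set E3) :
    frT φ 0 κ z '' (shf (-b) K) = frT φ (φ b) κ z '' K := by
  unfold shf
  rw [image_image]
  refine image_congr fun y _ => ?_
  have h := frT_shift φ 0 κ z b y
  rw [zero_add] at h
  rw [h, sub_eq_add_neg]

/-- **THE OUTER HALF**: every outer tile of the mesh is a potential tile of `QO` -/
theorem cov_outer [Countable J] (Wc : ∀ j, (W j).Countable) (X : RD M) {r : ℝ} (hk : M.Sc k)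
    {a : E3} {w : J → E3} (hv : M.Adm fun j => a + w j) (ha : ‖a‖ ≤ r) (hw : ∀ j, w j ∈ W j)
    (RPx : RP X (M.φ a) (fun j => a + w j) k) (p : M.OIx hk (M.φ a) hv) :
    (QO k Wc X r).Cov a w (M.mesh hk (M.φ a) hv) (Sum.inl p) := by
  have ea : M.φ.symm (M.φ a) = a := M.φ.symm_apply_apply a
  have hs : HS (M.mesh hk (M.φ a) hv) a (Hfam M (⋃ j, W j)) := by
    have h := hs_mesh (W := ⋃ j, W j) hk (M.φ a) hv
      (fun j => ⟨w j, mem_iUnion.2 ⟨j, hw j⟩, by rw [ea]⟩)
    rw [ea] at h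
    exact h
  rcases outer_pot M hk (M.φ a) hv X RPx (w := w) (fun j => by rw [ea]) p with
    ⟨s, z, h1, h2, h3, h4⟩ | ⟨j, z, S, h1, h2, h3, h4, h5⟩
  · rw [ea] at h1
    refine PT.Cov.inl (Mfe_161.PTn.Is.cov (Q := QP M k Wc r) (t := (s, z)) ⟨?_, h1, ?_, ?_⟩)
    · refine ⟨mem_Aw (D' := outD M.D0 k M.W (M.φ a)) rfl rfl (by rw [zero_add]; rfl) ha h2, ?_⟩
      intro y hy hn
      obtain ⟨j, hj⟩ := Nm_sub M hv hn
      refine disjoint_left.1 (h3 j) ?_ hj
      rw [h1]
      exact mem_image_of_mem _ hy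
    · intro e _
      exact kk_mem' hw hs none e
    · have e : (fun K => frT M.φ (M.φ a) (s + 1) (fun m => 2 * z m) '' K) =
          fun K => (QP M k Wc r).frr (s, z) '' shf (-a) K := by
        funext K
        exact (fr_image M.φ a (s + 1) _ K).symm
      rw [e] at h4
      exact h4
  · rw [ea] at h3
    refine PT.Cov.inr (Mfe_161.PTn.Is.cov (Q := QW k Wc X r) (t := ⟨j, ⟨w j, hw j⟩, z, S, h1, h2⟩)
      ⟨?_, h3, ?_, ?_⟩)
    · refine ⟨⟨ha, hv j, h4⟩, ?_⟩
      intro y hy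
      have h6 := (M.mesh hk (M.φ a) hv).sub (Sum.inl p)
      exact h6 (by rw [h3]; exact mem_image_of_mem _ hy)
    · intro e _
      exact kk_mem' hw hs none e
    · have e : (fun K => frT M.φ (M.φ a) (k j) z '' K) =
          fun K => (QW k Wc X r).frr ⟨j, ⟨w j, hw j⟩, z, S, h1, h2⟩ '' shf (-a) K := by
        funext K
        exact (fr_image M.φ a (k j) _ K).symm
      rw [e] at h5
      exact h5

end three

end Crest.Agent.R096.Mou_324
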