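/-
helper922, row 96, MF instance: the activity set of the outer classes does not see the blocks
(199 #10941 (1)).
-/
import Mathlib
import Crest.Agent.R096.Mal15_874

set_option autoImplicit false
set_option linter.unusedSectionVars false

open Set Metric Filter Topology

namespace Crest.Agent.R096.Eog_922

open Crest.Agent.R096.Msh_715 Crest.Agent.R096.Msh_810 Crest.Agent.R096.Mal_874
open Crest.Agent.R096.Cut_874

noncomputable section

variable {E : Type*} [NormedAddCommGroup E] [NormedSpace ℝ E] {n : ℕ}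
  {J : Type*} (M : MD E n J)

/-- points which are in `N_j + w` for every admissible total shift `w` of the block -/
def Nm (Bx : J → Set E) (j : J) : Set E := interior {x | ∀ w ∈ Bx j, x - w ∈ (M.Q j).N}

/-- all blocks -/
def NM (Bx : J → Set E) : Set E := ⋃ j, Nm M Bx j

theorem isOpen_Nm (Bx : J → Set E) (j : J) : IsOpen (Nm M Bx j) := isOpen_interior

theorem isOpen_NM (Bx : J → Set E) : IsOpen (NM M Bx) := isOpen_iUnion fun j => isOpen_Nm M Bx j

theorem measurableSet_NM [MeasurableSpace E] [BorelSpace E] (Bx : J → Set E) :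
    MeasurableSet (NM M Bx) := (isOpen_NM M Bx).measurableSet

theorem Nm_sub {Bx : J → Set E} {v : J → E} {j : J} (hB : v j ∈ Bx j) :
    Nm M Bx j ⊆ interior ((M.Q j).tr (v j)).N := by
  refine interior_mono fun x hx => ?_
  rw [CB.mem_N_tr]
  exact hx _ hB

/-- total shifts for which the potential tile misses a set -/
def Mis (U : Set E) (Til : Set E) : Set E := {b | ∀ y ∈ Til, y + b ∉ U}

theorem isClosed_Mis {U : Set E} (hU : IsOpen U) (Til : Set E) : IsClosed (Mis U Til) := by
  have e : Mis U Til = ⋂ y ∈ Til, (fun b => y + b) ⁻¹' Uᶜ := by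
    ext b
    simp [Mis]
  rw [e]
  exact isClosed_biInter fun y _ => hU.isClosed_compl.preimage (continuous_const_add y)

theorem measurableSet_Mis [MeasurableSpace E] [BorelSpace E] {U : Set E} (hU : IsOpen U)
    (Til : Set E) : MeasurableSet (Mis U Til) := (isClosed_Mis hU Til).measurableSet

theorem Mis_sub {U Til : Set E} {y b : E} (hy : y ∈ Til) (hb : b ∈ Mis U Til) : y + b ∈ Uᶜ :=
  hb y hy

/-- the region of an activity set `Ac ∩ Mis` -/
theorem Mis_region {U Til Ac R : Set E} (hR : ∀ y ∈ Til, ∀ b ∈ Ac, y + b ∈ R) :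
    ∀ y ∈ Til, ∀ b ∈ Ac ∩ Mis U Til, y + b ∈ R \ U :=
  fun y hy b hb => ⟨hR y hy b hb.1, Mis_sub hy hb.2⟩

section

variable [NeZero n] {k : J → ℕ} (hk : M.Sc k) (a : Fin n → ℝ) {v : J → E} (hv : M.Adm v)

/-- outer tiles miss the blocks -/
theorem outer_not_NM {Bx : J → Set E} (hB : ∀ j, v j ∈ Bx j) (p : M.OIx hk a hv) {x : E}
    (hx : x ∈ P ((M.mesh hk a hv).H (Sum.inl p))) : x ∉ NM M Bx := by
  intro h
  obtain ⟨j, hj⟩ := mem_iUnion.1 h
  exact AD.outer_interior p.2 j hx (Nm_sub M (hB j) hj)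

/-- **`act` for the additional clause** (any potential tile `Til` with total shift `s`) -/
theorem outer_mis {Bx : J → Set E} (hB : ∀ j, v j ∈ Bx j) (p : M.OIx hk a hv) {Til : Set E}
    {s : E} (hP : P ((M.mesh hk a hv).H (Sum.inl p)) = (fun y => y + s) '' Til) :
    s ∈ Mis (NM M Bx) Til := by
  intro y hy
  refine outer_not_NM M hk a hv hB p ?_
  rw [hP]
  exact ⟨y, hy, rfl⟩

end

/-- **the missing layer is thin**: `N_j \ N_j⁻` lies within `ρ` of the wall (in the frame of the
block) if all total shifts have `‖ψ w‖ ≤ ρ` -/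
theorem layer_Nm [NeZero n] {Bx : J → Set E} {j : J} {ρ : ℝ} (hB : ∀ w ∈ Bx j, ‖(M.Q j).ψ w‖ ≤ ρ)
    {x : E} (hx : x ∈ (M.Q j).N) (hn : x ∉ Nm M Bx j) : infDist ((M.Q j).ψ x) (M.Q j).W ≤ ρ := by
  by_contra hlt
  push Not at hlt
  apply hn
  obtain ⟨r, hr1, hr2⟩ := exists_between hlt
  -- the closed ball of radius `r` misses the wall, hence is contained in the block
  have hfr : ∀ y : E, dist ((M.Q j).ψ y) ((M.Q j).ψ x) ≤ r → y ∈ (M.Q j).N := by
    have hconv : Convex ℝ ((M.Q j).ψ ⁻¹' closedBall ((M.Q j).ψ x) r) :=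
      (convex_closedBall _ _).linear_preimage ((M.Q j).ψ : E →ₗ[ℝ] (Fin n → ℝ))
    by_cases hr0 : 0 ≤ r
    · have hmiss : ((M.Q j).ψ ⁻¹' closedBall ((M.Q j).ψ x) r) ∩ frontier (M.Q j).N = ∅ := by
        rw [← Set.not_nonempty_iff_eq_empty]
        rintro ⟨y, hy1, hy2⟩
        rw [CB.frontier_N, mem_preimage] at hy2
        have h1 := infDist_le_dist_of_mem (x := (M.Q j).ψ x) hy2
        rw [mem_preimage, mem_closedBall, dist_comm] at hy1
        linarith
      have hcl : IsClosed (M.Q j).N := (M.Q j).isCompact_N.isClosed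
      have hcov : (M.Q j).ψ ⁻¹' closedBall ((M.Q j).ψ x) r ⊆
          interior (M.Q j).N ∪ ((M.Q j).N)ᶜ := by
        intro y hy
        by_cases hyN : y ∈ (M.Q j).N
        · left
          by_contra hyi
          have hyf : y ∈ frontier (M.Q j).N := ⟨subset_closure hyN, hyi⟩
          have : y ∈ (M.Q j).ψ ⁻¹' closedBall ((M.Q j).ψ x) r ∩ frontier (M.Q j).N := ⟨hy, hyf⟩
          rw [hmiss] at this
          exact this
        · exact Or.inr hyN
      have hxb : x ∈ (M.Q j).ψ ⁻¹' closedBall ((M.Q j).ψ x) r := by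
        rw [mem_preimage]; exact mem_closedBall_self hr0
      have hsub := hconv.isPreconnected.subset_left_of_subset_union isOpen_interior
        hcl.isOpen_compl (by
          rw [Set.disjoint_left]
          exact fun y hy hy' => hy' (interior_subset hy)) hcov ⟨x, hxb, by
            rcases hcov hxb with h | h
            · exact h
            · exact absurd hx h⟩
      exact fun y hy => interior_subset (hsub hy)
    · intro y hy
      exact absurd (dist_nonneg.trans hy) hr0
  rw [Nm, mem_interior]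
  refine ⟨(M.Q j).ψ ⁻¹' ball ((M.Q j).ψ x) (r - ρ), ?_, isOpen_ball.preimage
    (M.Q j).ψ.continuous, ?_⟩
  · intro y hy w hw
    refine hfr _ ?_
    rw [mem_preimage, mem_ball] at hy
    rw [map_sub, dist_eq_norm]
    rw [dist_eq_norm] at hy
    have h1 := hB w hw
    calc ‖(M.Q j).ψ y - (M.Q j).ψ w - (M.Q j).ψ x‖
        = ‖((M.Q j).ψ y - (M.Q j).ψ x) - (M.Q j).ψ w‖ := by congr 1; abel
      _ ≤ ‖(M.Q j).ψ y - (M.Q j).ψ x‖ + ‖(M.Q j).ψ w‖ := norm_sub_le _ _
      _ ≤ r := by linarith
  · rw [mem_preimage]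
    exact mem_ball_self (by linarith)

end

end Crest.Agent.R096.Eog_922
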