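/-
helper922, row 96, MF instance: average of the energy of the outer class, outside the blocks
(199 #10941 (1)): 72's `outer_avg` with the region `φ ⁻¹' Om \ U`.
-/
import Mathlib
import Crest.Agent.R096.Eog4_922
import Crest.Agent.R96.Wm1_72

set_option autoImplicit false
set_option linter.unusedSectionVars false

open MeasureTheory Set Metric Filter Topology
open scoped ENNReal Pointwise

namespace Crest.Agent.R096.Eog_922

open Crest.Agent.R096.Msh_810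
open Crest.Agent.R96
open Crest.Agent.R96.Wm_72 (Tw Aw Aw_sub Zr_pos)
open Crest.Agent.R96.Sg8_199 (EnA Mu)

noncomputable section

variable {E : Type*} [NormedAddCommGroup E] [NormedSpace ℝ E] {n : ℕ}
  [FiniteDimensional ℝ E] [MeasurableSpace E] [BorelSpace E] {μ : Measure E}
  [μ.IsAddHaarMeasure] {φ : E ≃L[ℝ] (Fin n → ℝ)} {D : Dat n} {a₀ : Fin n → ℝ} {r : ℝ}

/-- **AVERAGE OF THE ENERGY OF THE OUTER CLASS**, activity sets inside `Aw ∩ Mis U Til`: only the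
region `φ ⁻¹' Om \ U` is seen -/
theorem outer_avg_mis {τ η : Type*} [Countable τ] {Til Ac : τ → Set E} (sc : τ → ℕ)
    (zc : τ → Fin n → ℤ) (hinj : ∀ t t', sc t = sc t' → zc t = zc t' → t = t')
    (hT : ∀ t, Til t = Tw φ a₀ (sc t) (zc t)) {U : Set E} (hU : IsOpen U)
    (hA : ∀ t, Ac t ⊆ Aw φ D a₀ r (sc t) (zc t) ∩ Mis U (Til t))
    (hAm : ∀ t, MeasurableSet (Ac t)) {c : ℝ} (hc0 : 0 ≤ c)
    (hc : ∀ x y : E, dist x y ≤ c * dist (φ x) (φ y)) {δ : ℝ} (hδ : ∀ x, D.ρ x ≤ δ)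
    (Ed : τ → Finset η) {m : ℕ} (hn : ∀ i, (Ed i).card ≤ m)
    (x v : η → E) (hsub : ∀ i, ∀ j ∈ Ed i, Sg1_199.sgm (x j) (v j) ⊆ Til i) (β : τ → ℝ≥0∞)
    {G : η → E → ℝ≥0∞} (hG : ∀ j, Measurable (G j)) {H : E → ℝ≥0∞} {cc : η → ℝ≥0∞}
    (hGH : ∀ᵐ z ∂μ, ∀ i, ∀ j ∈ Ed i, G j z ≤ cc j * H z) {K : ℝ≥0∞} (hK : K ≠ ∞)
    (hβ : ∀ i, ∀ j ∈ Ed i, β i * cc j ≤ K) {p : ℝ} (hp : 1 ≤ p) :
    ∫⁻ a, EnA μ Til Ac Ed β G x v p a ∂μ ≤
      (m * K) ^ p * (3 * μ (closedBall (0 : E) (r + c * (δ / D.C)))) *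
        ∫⁻ z in φ ⁻¹' D.Om \ U, H z ^ p ∂μ := by
  have hOm : MeasurableSet (φ ⁻¹' D.Om) :=
    ((isOpen_lt continuous_const D.continuous_ρ).preimage φ.continuous).measurableSet
  refine Sg8_199.act_avg hAm Ed hn x v hsub β hG hGH hK hβ (hOm.diff hU.measurableSet) ?_ ?_ ?_ hp
  · intro i y hy b hb
    have hb' := hA i hb
    refine ⟨?_, Mis_sub hy hb'.2⟩
    rw [hT i] at hy
    exact Zr_pos (Aw_sub hy hb'.1)
  · exact ENNReal.mul_ne_top (by norm_num) measure_closedBall_lt_top.ne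
  · intro z _
    exact Wm_72.Mu_le sc zc hinj hT (fun t => (hA t).trans inter_subset_left) hc0 hc (hδ _)

end

end Crest.Agent.R096.Eog_922
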