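/-
helper880, row 96, PREMACH, MF-SUM, part 6 (663's [BX], 961 #11325): the outer half with general sets
`Bx j` of admissible total shifts of the blocks: `NmB`, `QPB`, `cov_outerB`, `mean_QPB`.
(324's Mou3 and 72's Wm6 with `Nm M` replaced by `NmB M Bx`.)
-/
import Mathlib
import Crest.Agent.R096.Mou3_324
import Crest.Agent.R96.Wm6_72

set_option autoImplicit false
set_option linter.style.longLine false

open MeasureTheory Set Filter Metric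
open scoped Topology ENNReal

namespace Crest.Agent.R096.Mfa_880

open Crest.Agent.R096.Msh_715 Crest.Agent.R096.Cut_874 Crest.Agent.R096.Msh_810
  Crest.Agent.R096.Mal_874
open Crest.Agent.R096.SkC1_961 (E3 Cfg)
open Crest.Agent.R96.Wm_72 (Tw Aw Tw_tr mem_Aw measurableSet_Aw)
open Crest.Agent.R096.Ls_222 (Edg ea eIn mem_eIn)
open Crest.Agent.R96.Sg1_199 (li sgm)
open Crest.Agent.R96.Pm_199 (sh)
open Crest.Agent.R096.Mfe_161 (PTn shf kk kk_mem' kk_countable)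
open Crest.Agent.R096.Cnt_324 (HS Hfam countable_Hfam hs_mesh)
open Crest.Agent.R096.Mou_324
open Crest.Agent.R96.Wm5_72 (nO enA_restrict)

noncomputable section

variable {J : Type} (M : MD E3 3 J) (k : J → ℕ) {W : J → Set E3}

/-- points of the block `j` for all shifts in `Bx j` (an open set), all blocks -/
def NmB (Bx : J → Set E3) : Set E3 := ⋃ j, interior {x | ∀ s ∈ Bx j, x - s ∈ (M.Q j).N}

theorem isOpen_NmB (Bx : J → Set E3) : IsOpen (NmB M Bx) := isOpen_iUnion fun _ => isOpen_interior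

theorem NmB_sub {Bx : J → Set E3} {v : J → E3} (hv : ∀ j, v j ∈ Bx j) {x : E3}
    (hx : x ∈ NmB M Bx) : ∃ j, x ∈ (M.Bk v j).N := by
  obtain ⟨j, hj⟩ := mem_iUnion.1 hx
  refine ⟨j, ((M.Q j).mem_N_tr (v j) x).2 ?_⟩
  exact interior_subset hj (v j) (hv j)

/-- larger sets of shifts, smaller sets `NmB` -/
theorem NmB_anti {Bx Bx' : J → Set E3} (h : ∀ j, Bx j ⊆ Bx' j) : NmB M Bx' ⊆ NmB M Bx :=
  iUnion_mono fun j => interior_mono fun _ hx s hs => hx s (h j hs)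

/-- 324's `Nm` is the case of the full room -/
theorem NmB_full : NmB M (fun j => {s | ‖M.φ s‖ ≤ M.r j}) = Nm M := rfl

theorem Nm_sub_NmB {Bx : J → Set E3} (h : ∀ j, ∀ s ∈ Bx j, ‖M.φ s‖ ≤ M.r j) :
    Nm M ⊆ NmB M Bx := NmB_anti M (Bx := Bx) (Bx' := fun j => {s | ‖M.φ s‖ ≤ M.r j}) h

/-- **the outer cubes away from the walls**, active only off `NmB M Bx` -/
def QPB [Countable J] (Wc : ∀ j, (W j).Countable) (r : ℝ) (Bx : J → Set E3) : PTn J where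
  κ := Unit
  τ := ℕ × (Fin 3 → ℤ)
  cκ := inferInstance
  cτ := inferInstance
  cl _ := ()
  bl _ := none
  Til t := Tw M.φ 0 t.1 t.2
  Ac t := Aw M.φ (outD M.D0 k M.W 0) 0 r t.1 t.2 ∩ Off (Tw M.φ 0 t.1 t.2) (NmB M Bx)
  Acm t := measurableSet_Aw.inter (isClosed_Off (isOpen_NmB M Bx)).measurableSet
  β t := 2 ^ (t.1 + 1) * ‖(M.φ : E3 →L[ℝ] (Fin 3 → ℝ))‖
  Sh _ := simL (N0 3) 1 2
  shf _ := simL_finite _ _ _
  frr t := frT M.φ 0 (t.1 + 1) (fun m => 2 * t.2 m)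
  frn _ _ := frT_norm _ _ _ _ _
  𝒦 _ := kk (Hfam M (⋃ j, W j)) W none
  c𝒦 _ := kk_countable (countable_Hfam M (countable_iUnion Wc)) Wc _

/-- **THE OUTER HALF**, typed: an outer tile is a potential tile of `QPB` or of 324's `QW` -/
theorem cov_outerB [Countable J] (Wc : ∀ j, (W j).Countable) (X : RD M) {r : ℝ} (hk : M.Sc k)
    {Bx : J → Set E3} {a : E3} {w : J → E3} (hB : ∀ j, a + w j ∈ Bx j)
    (hv : M.Adm fun j => a + w j) (ha : ‖a‖ ≤ r) (hw : ∀ j, w j ∈ W j)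
    (RPx : RP X (M.φ a) (fun j => a + w j) k) (p : M.OIx hk (M.φ a) hv) :
    (QPB M k Wc r Bx).toPT.Cov a w (M.mesh hk (M.φ a) hv) (Sum.inl p) ∨
      (QW k Wc X r).toPT.Cov a w (M.mesh hk (M.φ a) hv) (Sum.inl p) := by
  have ea : M.φ.symm (M.φ a) = a := M.φ.symm_apply_apply a
  have hs : HS (M.mesh hk (M.φ a) hv) a (Hfam M (⋃ j, W j)) := by
    have h := hs_mesh (W := ⋃ j, W j) hk (M.φ a) hv
      (fun j => ⟨w j, mem_iUnion.2 ⟨j, hw j⟩, by rw [ea]⟩)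
    rw [ea] at h
    exact h
  rcases outer_pot M hk (M.φ a) hv X RPx (w := w) (fun j => by rw [ea]) p with
    ⟨s, z, h1, h2, h3, h4⟩ | ⟨j, z, S, h1, h2, h3, h4, h5⟩
  · rw [ea] at h1
    refine Or.inl (Mfe_161.PTn.Is.cov (Q := QPB M k Wc r Bx) (t := (s, z)) ⟨?_, h1, ?_, ?_⟩)
    · refine ⟨mem_Aw (D' := outD M.D0 k M.W (M.φ a)) rfl rfl (by rw [zero_add]; rfl) ha h2, ?_⟩
      intro y hy hn
      obtain ⟨j, hj⟩ := NmB_sub M hB hn
      refine disjoint_left.1 (h3 j) ?_ hj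
      rw [h1]
      exact mem_image_of_mem _ hy
    · intro e _
      exact kk_mem' hw hs none e
    · have e : (fun K => frT M.φ (M.φ a) (s + 1) (fun m => 2 * z m) '' K) =
          fun K => (QPB M k Wc r Bx).frr (s, z) '' shf (-a) K := by
        funext K
        exact (fr_image M.φ a (s + 1) _ K).symm
      rw [e] at h4
      exact h4
  · rw [ea] at h3
    refine Or.inr (Mfe_161.PTn.Is.cov (Q := QW k Wc X r) (t := ⟨j, ⟨w j, hw j⟩, z, S, h1, h2⟩)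
      ⟨?_, h3, ?_, ?_⟩)
    · refine ⟨⟨ha, hv j, h4⟩, ?_⟩
      intro y hy
      have h6 := (M.mesh hk (M.φ a) hv).sub (Sum.inl p)
      exact h6 (by rw [h3]; exact mem_image_of_mem _ hy)
    · intro e _
      exact kk_mem' hw hs none e
    · have e : (fun K => frT M.φ (M.φ a) (k j) z '' K) =
          fun K => (QW k Wc X r).frr ⟨j, ⟨w j, hw j⟩, z, S, h1, h2⟩ '' shf (-a) K := by
        funext K
        exact (fr_image M.φ a (k j) _ K).symm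
      rw [e] at h5
      exact h5

variable {M}

/-- **THE MEAN OF THE PLAIN OUTER CLASS** (72's `mean_QP`) -/
theorem mean_QPB [Countable J] (k : J → ℕ) (Wc : ∀ j, (W j).Countable) (r : ℝ) (Bx : J → Set E3)
    {c : ℝ} (hc0 : 0 ≤ c) (hc : ∀ x y : E3, dist x y ≤ c * dist (M.φ x) (M.φ y)) {A : Set E3}
    (Am : MeasurableSet A) {G : E3 → E3 → ℝ≥0∞} (hGm : ∀ v, Measurable (G v)) {H : E3 → ℝ≥0∞}
    (hGH : ∀ᵐ y : E3, ∀ v, G v y ≤ ‖v‖ₑ * H y) {p : ℝ} (hp : 1 ≤ p) :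
    ∫⁻ a in A, (QPB M k Wc r Bx).toPT.EnC G p () a ≤
      (nO * ENNReal.ofReal (2 * ‖(M.φ : E3 →L[ℝ] (Fin 3 → ℝ))‖ * c)) ^ p *
        (3 * volume (closedBall (0 : E3) (r + c / 6))) *
        ∫⁻ z in M.φ ⁻¹' M.D0.Om \ NmB M Bx, H z ^ p := by
  classical
  have hφ : 0 ≤ ‖(M.φ : E3 →L[ℝ] (Fin 3 → ℝ))‖ := norm_nonneg _
  have hOm : (outD M.D0 k M.W 0).Om = M.D0.Om := M.outD_Om_eq 0
  have := (QPB M k Wc r Bx).toPT.cτ
  have e1 := enA_restrict (μ := (volume : Measure E3))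
    (Til := fun t : {t // (QPB M k Wc r Bx).toPT.cl t = ()} => (QPB M k Wc r Bx).toPT.Til t.1)
    (Ac := fun t => (QPB M k Wc r Bx).toPT.Ac t.1) (Ed := fun t => (QPB M k Wc r Bx).toPT.Ed t.1)
    (β := fun t => ENNReal.ofReal ((QPB M k Wc r Bx).toPT.β t.1))
    (G := fun j => G ((QPB M k Wc r Bx).toPT.v j)) (x := (QPB M k Wc r Bx).toPT.x)
    (v := (QPB M k Wc r Bx).toPT.v) (p := p) Am
  refine (le_of_eq e1).trans ?_
  have key := Crest.Agent.R096.Eog_922.outer_avg_mis (μ := (volume : Measure E3)) (φ := M.φ)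
    (D := outD M.D0 k M.W 0) (a₀ := 0) (r := r)
    (Til := fun t : {t // (QPB M k Wc r Bx).toPT.cl t = ()} => (QPB M k Wc r Bx).toPT.Til t.1)
    (Ac := fun t => (QPB M k Wc r Bx).toPT.Ac t.1 ∩ A) (fun t => t.1.1) (fun t => t.1.2)
    (fun t t' h1 h2 => Subtype.ext (Prod.ext h1 h2)) (fun t => rfl) (isOpen_NmB M Bx)
    (fun t b hb => ⟨hb.1.1, hb.1.2⟩) (fun t => ((QPB M k Wc r Bx).toPT.Acm t.1).inter Am) hc0 hc
    (δ := 1) (fun x => (outD M.D0 k M.W 0).le_one x)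
    (fun t => (QPB M k Wc r Bx).toPT.Ed t.1)
    (m := nO) (fun t => PTn.card_Ed_le (QPB M k Wc r Bx) t.1) (QPB M k Wc r Bx).toPT.x
    (QPB M k Wc r Bx).toPT.v (fun t j hj => ((QPB M k Wc r Bx).toPT.sub t.1 j hj).2)
    (fun t => ENNReal.ofReal ((QPB M k Wc r Bx).toPT.β t.1))
    (G := fun j => G ((QPB M k Wc r Bx).toPT.v j))
    (fun j => hGm _) (H := H) (cc := fun j => ‖(QPB M k Wc r Bx).toPT.v j‖ₑ)
    (by
      filter_upwards [hGH] with y hy t j _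
      exact hy _)
    (K := ENNReal.ofReal (2 * ‖(M.φ : E3 →L[ℝ] (Fin 3 → ℝ))‖ * c)) ENNReal.ofReal_ne_top ?_ hp
  · refine key.trans ?_
    rw [hOm]
    gcongr
    have h1 : (outD M.D0 k M.W 0).C = M.D0.C := rfl
    rw [h1, mul_one_div]
    exact div_le_div_of_nonneg_left hc0 (by norm_num) M.hC
  · rintro ⟨⟨s, z⟩, h1⟩ e he
    obtain ⟨-, hsub⟩ := (QPB M k Wc r Bx).toPT.sub _ e he
    have hx : (QPB M k Wc r Bx).toPT.x e ∈ Tw M.φ 0 s z :=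
      hsub ⟨0, ⟨le_rfl, zero_le_one⟩, by simp⟩
    have hx' : (QPB M k Wc r Bx).toPT.x e + (QPB M k Wc r Bx).toPT.v e ∈ Tw M.φ 0 s z :=
      hsub ⟨1, ⟨zero_le_one, le_rfl⟩, by simp⟩
    have h5 : ‖(QPB M k Wc r Bx).toPT.v e‖ ≤ c / 2 ^ s := by
      have h4 := Crest.Agent.R96.Wm_72.Tw_dist hc0 hc hx hx'
      rwa [dist_eq_norm, add_sub_cancel_left] at h4
    have e1 : ‖(QPB M k Wc r Bx).toPT.v e‖ₑ = ENNReal.ofReal ‖(QPB M k Wc r Bx).toPT.v e‖ :=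
      (ofReal_norm _).symm
    show ENNReal.ofReal ((QPB M k Wc r Bx).toPT.β (s, z)) *
      ‖(QPB M k Wc r Bx).toPT.v e‖ₑ ≤ _
    rw [e1]
    have e2 : (QPB M k Wc r Bx).toPT.β (s, z) =
      2 ^ (s + 1) * ‖(M.φ : E3 →L[ℝ] (Fin 3 → ℝ))‖ := rfl
    rw [e2, ← ENNReal.ofReal_mul (by positivity)]
    refine ENNReal.ofReal_le_ofReal ?_
    calc 2 ^ (s + 1) * ‖(M.φ : E3 →L[ℝ] (Fin 3 → ℝ))‖ * ‖(QPB M k Wc r Bx).toPT.v e‖
        ≤ 2 ^ (s + 1) * ‖(M.φ : E3 →L[ℝ] (Fin 3 → ℝ))‖ * (c / 2 ^ s) :=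
          mul_le_mul_of_nonneg_left h5 (by positivity)
      _ = _ := by
          have hp2 : (2 : ℝ) ^ s ≠ 0 := by positivity
          rw [pow_succ]
          field_simp

/-- the form for `φ = refl` (operator norm `≤ 1`, `c = 1`) -/
theorem mean_QPB' [Countable J] (k : J → ℕ) (Wc : ∀ j, (W j).Countable) {r : ℝ}
    (Bx : J → Set E3) (h1 : ‖(M.φ : E3 →L[ℝ] (Fin 3 → ℝ))‖ ≤ 1)
    (hc : ∀ x y : E3, dist x y ≤ dist (M.φ x) (M.φ y)) {A : Set E3}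
    (Am : MeasurableSet A) {CA : ℝ≥0∞}
    (hCA : 3 * volume (closedBall (0 : E3) (r + 1)) ≤ CA * volume A)
    {G : E3 → E3 → ℝ≥0∞} (hGm : ∀ v, Measurable (G v)) {H : E3 → ℝ≥0∞}
    (hGH : ∀ᵐ y : E3, ∀ v, G v y ≤ ‖v‖ₑ * H y) {p : ℝ} (hp : 1 ≤ p) :
    ∫⁻ a in A, (QPB M k Wc r Bx).toPT.EnC G p () a ≤
      ((nO * 2) ^ p * CA * ∫⁻ z in M.φ ⁻¹' M.D0.Om \ NmB M Bx, H z ^ p) * volume A := by
  refine (mean_QPB (M := M) k Wc r Bx zero_le_one (by simpa using hc) Am hGm hGH hp).trans ?_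
  have h2 : ENNReal.ofReal (2 * ‖(M.φ : E3 →L[ℝ] (Fin 3 → ℝ))‖ * 1) ≤ 2 := by
    rw [show (2 : ℝ≥0∞) = ENNReal.ofReal 2 by simp]
    exact ENNReal.ofReal_le_ofReal (by linarith)
  calc (nO * ENNReal.ofReal (2 * ‖(M.φ : E3 →L[ℝ] (Fin 3 → ℝ))‖ * 1)) ^ p *
        (3 * volume (closedBall (0 : E3) (r + 1 / 6))) *
        ∫⁻ z in M.φ ⁻¹' M.D0.Om \ NmB M Bx, H z ^ p
      ≤ (nO * 2) ^ p * (CA * volume A) *
        ∫⁻ z in M.φ ⁻¹' M.D0.Om \ NmB M Bx, H z ^ p := by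
        gcongr ?_ ^ p * ?_ * _
        · exact mul_le_mul_of_nonneg_left h2 bot_le
        · refine le_trans ?_ hCA
          gcongr
          norm_num
    _ = _ := by ring

end

end Crest.Agent.R096.Mfa_880
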