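import Crest.Agent.R096.Eds3_746
import Crest.Agent.R096.Mfa6_880

/-!
# Row 96 (S0127), helper746.  EA-D, part 3b (**outer class**), for the general sets `Bx j` of shifts of the
blocks (880's `NmB M Bx`, 663's [BX]).
-/

set_option autoImplicit false
set_option linter.style.longLine false

open MeasureTheory Set Filter Metric
open scoped Topology ENNReal

namespace Crest.Agent.R096.Eds_746

open Crest.Agent.R096.Msh_715 Crest.Agent.R096.Cut_874 Crest.Agent.R096.Msh_810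
  Crest.Agent.R096.Mal_874
open Crest.Agent.R096.Bsp_628 Crest.Agent.R096.Brk5_582
open Crest.Agent.R096.SkC1_961 (E3)
open Crest.Agent.R96.Push_899 Crest.Agent.R96.EaP_899
open Crest.Agent.R096.Mou_324 (Nm isOpen_Nm)
open Crest.Agent.R096.Mfa_880 (NmB isOpen_NmB NmB_full Nm_sub_NmB)
open Crest.Agent.R096.EaX_766 (lin Kor)
open Crest.Agent.R096.Ea0_961 (Ly)

noncomputable section

section md

variable {J : Type} (M : MD E3 3 J) {Bx : J → Set E3}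

theorem mem_N_of_NmB (h0 : ∀ j, (0 : E3) ∈ Bx j) {x : E3} (hx : x ∈ NmB M Bx) :
    ∃ j, x ∈ (M.Q j).N := by
  obtain ⟨j, hj⟩ := mem_iUnion.1 hx
  refine ⟨j, ?_⟩
  have h1 := interior_subset hj 0 (h0 j)
  simpa using h1

/-- **the points of a block off `NmB` are near the wall** -/
theorem near_wallB {j : J} {x : E3} (hx : x ∈ (M.Q j).N) (hn : x ∉ NmB M Bx) {b b' : ℝ} (hbb : b < b')
    (hr : ∀ s ∈ Bx j, ‖(M.Q j).ψ s‖ ≤ b) :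
    ∃ z ∈ frontier (M.Q j).N, ‖(M.Q j).ψ x - (M.Q j).ψ z‖ ≤ b' := by
  by_contra hcon
  push Not at hcon
  apply hn
  refine mem_iUnion.2 ⟨j, ?_⟩
  rw [mem_interior_iff_mem_nhds]
  have h1 : ∀ᶠ x' in 𝓝 x, ‖(M.Q j).ψ (x' - x)‖ < b' - b := by
    have hc : Continuous fun x' => ‖(M.Q j).ψ (x' - x)‖ := by fun_prop
    have h0 : ‖(M.Q j).ψ (x - x)‖ < b' - b := by
      rw [sub_self, map_zero, norm_zero]
      linarith
    exact hc.continuousAt.eventually_lt continuousAt_const h0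
  filter_upwards [h1] with x' hx' s hs
  by_contra hns
  obtain ⟨t, ht, hz⟩ := exists_frontier_seg (M.Q j).isCompact_N.isClosed hx hns
  refine absurd ?_ (not_le.2 (hcon _ hz))
  have e1 : (M.Q j).ψ x - (M.Q j).ψ (x + t • (x' - s - x)) =
      -(t • ((M.Q j).ψ (x' - x) - (M.Q j).ψ s)) := by
    rw [← map_sub, ← map_sub, ← map_smul, ← map_neg]
    congr 1
    module
  rw [e1, norm_neg, norm_smul, Real.norm_of_nonneg ht.1]
  have h2 : ‖(M.Q j).ψ (x' - x) - (M.Q j).ψ s‖ ≤ b' := by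
    refine (norm_sub_le _ _).trans ?_
    have := hr s hs
    linarith
  calc t * ‖(M.Q j).ψ (x' - x) - (M.Q j).ψ s‖ ≤ 1 * b' :=
        mul_le_mul ht.2 h2 (norm_nonneg _) zero_le_one
    _ = b' := one_mul _

end md

section foam

variable {δ κ0 : ℝ} {La Om : Set E3} {F : Set (Bx (Fin 3))}
variable {X : Set F} (M : MD E3 3 X) {Bx : X → Set E3}

/-- **OUTER, general**: off `NmB` the energy of `D'` is controlled by the energy of `D` -/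
theorem outer_satB (bf : BoxFoam La F δ κ0) {f : E3 → E3} {D D' : E3 → E3 →L[ℝ] E3} {p : ℝ} {K : ℝ≥0∞}
    (hO : IsOpen Om) (h0 : ∀ j, (0 : E3) ∈ Bx j)
    (hS : ∀ S ⊆ Om, MeasurableSet S →
      (∀ c, c ∉ X → (∀ x ∈ Om, f x ∈ (brk' bf c).I → x ∈ S) ∨
        (∀ x ∈ Om, f x ∈ (brk' bf c).I → x ∉ S)) →
      (∫⁻ x in S, ‖D' x‖ₑ ^ p) ≤ K * (∫⁻ x in S, ‖D x‖ₑ ^ p))
    (hroom : ∀ j : X, ∀ x ∈ (M.Q j).N, f x ∈ (brk' bf j.1).I) :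
    (∫⁻ x in Om \ NmB M Bx, ‖D' x‖ₑ ^ p) ≤ K * (∫⁻ x in Om \ NmB M Bx, ‖D x‖ₑ ^ p) := by
  refine hS _ sdiff_subset (hO.measurableSet.diff (isOpen_NmB M Bx).measurableSet) fun c hc => ?_
  left
  intro x hx hfx
  refine ⟨hx, fun hn => ?_⟩
  obtain ⟨j, hj⟩ := mem_N_of_NmB M h0 hn
  have h1 := hroom j x hj
  have hne : (c : F) ≠ j.1 := fun h => hc (by rw [h]; exact j.2)
  refine (foam0' bf).disj c j.1 hne (f x) ?_ h1
  intro k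
  exact ⟨(hfx k).1.le, (hfx k).2.le⟩

/-- **OUTER for `EaX_766.EA`**, sets `Bx` inside the rooms -/
theorem outer_XB {D : E3 → E3 →L[ℝ] E3} {p : ℝ} {A : F → E3 ≃ᵃ[ℝ] E3} {lam : F → ℝ}
    (hB : ∀ j, ∀ s ∈ Bx j, ‖M.φ s‖ ≤ M.r j)
    (hK : ∀ j : X, ∀ x ∈ Kor F A lam j.1, ∀ s, ‖M.φ s‖ ≤ 2 * M.r j → x - s ∈ (M.Q j).N) :
    (∫⁻ x in Om \ NmB M Bx, ‖D x‖ₑ ^ p) ≤
      ∫⁻ x in Om \ ⋃ c ∈ X, Kor F A lam c, (1 + ‖D x‖ₑ ^ p) :=
  (lintegral_mono_set (sdiff_subset_sdiff_right (Nm_sub_NmB M hB))).trans (outer_X M hK)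

/-- **OUTER for `Ea0_961.EA0`**: blocks and layers (`Bx j := Tw (Q j) (k0 j)`) -/
theorem outer_0B (hF : F.Countable) {D : E3 → E3 →L[ℝ] E3} {p : ℝ} {Q : F → CB E3 3} {k0 : F → ℕ}
    (hQ : ∀ j : X, M.Q j = Q j.1)
    (hr : ∀ j : X, ∀ s ∈ Bx j, ‖(Q j.1).ψ s‖ ≤ 19 / 2 ^ (k0 j.1)) :
    (∫⁻ x in Om \ NmB M Bx, ‖D x‖ₑ ^ p) ≤ (∫⁻ x in Om \ ⋃ c ∈ X, (Q c).N, (1 + ‖D x‖ₑ ^ p)) +
      ∑' c : X, ∫⁻ x in Ly (Q c) (k0 c), (1 + ‖D x‖ₑ ^ p) := by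
  have : Countable F := hF.to_subtype
  have hsub : Om \ NmB M Bx ⊆ (Om \ ⋃ c ∈ X, (Q c).N) ∪ ⋃ c : X, Ly (Q c) (k0 c) := by
    rintro x ⟨hx, hn⟩
    by_cases h : x ∈ ⋃ c ∈ X, (Q c).N
    · right
      obtain ⟨c, hc, hxc⟩ := mem_iUnion₂.1 h
      refine mem_iUnion.2 ⟨⟨c, hc⟩, ?_⟩
      have h1 : x ∈ (M.Q ⟨c, hc⟩).N := by rw [hQ]; exact hxc
      obtain ⟨z, hz, hzx⟩ := near_wallB M h1 hn (b := 19 / 2 ^ (k0 c)) (b' := 20 / 2 ^ (k0 c))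
        (by
          apply div_lt_div_of_pos_right _ (by positivity)
          norm_num) (fun s hs => by
          have := hr ⟨c, hc⟩ s hs
          rw [hQ]; exact this)
      rw [hQ] at hz hzx
      exact ⟨z, hz, hzx⟩
    · exact Or.inl ⟨hx, h⟩
  calc (∫⁻ x in Om \ NmB M Bx, ‖D x‖ₑ ^ p) ≤ ∫⁻ x in Om \ NmB M Bx, (1 + ‖D x‖ₑ ^ p) :=
        lintegral_mono fun x => le_add_self
    _ ≤ ∫⁻ x in (Om \ ⋃ c ∈ X, (Q c).N) ∪ ⋃ c : X, Ly (Q c) (k0 c), (1 + ‖D x‖ₑ ^ p) :=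
        lintegral_mono_set hsub
    _ ≤ (∫⁻ x in Om \ ⋃ c ∈ X, (Q c).N, (1 + ‖D x‖ₑ ^ p)) +
        ∫⁻ x in ⋃ c : X, Ly (Q c) (k0 c), (1 + ‖D x‖ₑ ^ p) := lintegral_union_le _ _ _
    _ ≤ _ := by
        gcongr
        exact lintegral_iUnion_le _ _

/-- the box of shifts of a zone block: `0 ∈ Tw` and `‖ψ s‖ ≤ 19 / 2 ^ k0` -/
theorem zero_mem_Tw (Q : CB E3 3) (k0 : ℕ) : (0 : E3) ∈ Ea0_961.Tw Q k0 := by
  intro l
  rw [map_zero]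
  constructor
  · simp
  · show (0:ℝ) ≤ _
    positivity

theorem norm_le_of_mem_Tw {Q : CB E3 3} {k0 : ℕ} {s : E3} (hs : s ∈ Ea0_961.Tw Q k0) :
    ‖Q.ψ s‖ ≤ 19 / 2 ^ k0 := by
  rw [pi_norm_le_iff_of_nonneg (by positivity)]
  intro l
  have h := hs l
  rw [Real.norm_of_nonneg h.1]
  refine h.2.trans ?_
  rw [div_le_div_iff₀ (by positivity) (by positivity)]
  have : (0:ℝ) < 2 ^ k0 := by positivity
  nlinarith

end foam

end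

end Crest.Agent.R096.Eds_746
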