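import Crest.Agent.R096.Mdd2_360
import Crest.Agent.R096.Acc5_365
import Crest.Agent.R096.Exa3_365

/-!
Row 96 (S0127), helper766.  **[X2] of 365 #11246**: growth of the exact cores of `EaX_766.EA`, collars,
translations, pairwise disjoint zones.
-/

set_option autoImplicit false
set_option linter.style.longLine false
set_option linter.unusedSectionVars false
set_option linter.unusedVariables false

open MeasureTheory Set Filter Topology Metric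
open scoped ENNReal NNReal

namespace Crest.Agent.R096.Exg_766

open Crest.Agent.R096.SkC1_961 (E3 Hom3)
open Crest.Agent.R096.Er_594 (SH3)
open Crest.Agent.R096.Bsp_628 Crest.Agent.R096.Brk5_582
open Crest.Agent.R096.Bxs_627 (ctr CoriE)
open Crest.Agent.R096.EaX_766 (lin cbx ExIn Kor RatA)
open Crest.Agent.R096.Acc_365 (K1 K2 exIn_grow K1_subset_K2)
open Crest.Agent.R096.Exa_365 (Wt)
open Crest.Agent.R096.Fns_360 (trA)
open Crest.Agent.R096.Mdd_360 (img_open cor_tr)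

noncomputable section

variable {p : ℝ} {Om La : Set E3} {f : E3 → E3} {D : E3 → E3 →L[ℝ] E3} {o : E3} {u : ℝ}

/-! ### one brick -/

section one

variable {A : E3 ≃ᵃ[ℝ] E3} {Q : Bx (Fin 3)} {lam : ℝ}

theorem cori_of_exIn {κ1 κ2 : ℝ} (h : ExIn p Om f D o u κ1 κ2 Q A lam) :
    CoriE Om f A Q lam κ1 κ2 := by
  rintro x (⟨hx, h1⟩ | h1)
  · exact h.cor x (Or.inl ⟨hx, h1⟩)
  · exact h.cor x (Or.inr fun k => (h1 k).trans (le_of_eq (by ring)))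

theorem cori_mono {κ1 κ2 κ1' κ2' : ℝ} (h : CoriE Om f A Q lam κ1 κ2) (hQ : Q.Pos) (hl : 0 ≤ lam)
    (h1 : κ1 ≤ κ1') (h2 : κ2' ≤ κ2) : CoriE Om f A Q lam κ1' κ2' := by
  have hs := Bx.sz_pos hQ
  rintro x (hx | hx)
  · obtain ⟨h3, h4⟩ := h x (Or.inl hx)
    exact ⟨h3, h4.trans (by gcongr)⟩
  · obtain ⟨h3, h4⟩ := h x (Or.inr fun k => (hx k).trans (by
      have := Bx.side_pos hQ k
      gcongr))
    exact ⟨h3, h4.trans (by gcongr)⟩

theorem exIn_mono1 {κ1 κ1' κ2 : ℝ} (h : ExIn p Om f D o u κ1 κ2 Q A lam) (hQ : Q.Pos) (hl : 0 ≤ lam)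
    (h1 : κ1 ≤ κ1') : ExIn p Om f D o u κ1' κ2 Q A lam := by
  have hs := Bx.sz_pos hQ
  exact ⟨h.rat, fun x hx => ⟨(h.cor x hx).1, (h.cor x hx).2.trans (by gcongr)⟩,
    h.lp.trans (ENNReal.ofReal_le_ofReal (by gcongr))⟩

/-- **translations**: the core statement for `trA A v`, and the shift in terms of the old core -/
theorem cori_shift {κ1 κ2 κ1' κ2' θ τ : ℝ} (hQ : Q.Pos) (hl : 0 < lam)
    (h : CoriE Om f A Q ((1 + θ) * lam) κ1 κ2) (hθ : 0 ≤ θ) (hθ1 : θ ≤ 1) (h1 : κ1 + τ ≤ κ1')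
    (h2 : κ2' ≤ κ2 - τ) (h3 : τ ≤ θ / 4) {v : E3}
    (hv : ‖lin A v‖ ≤ τ * ((1 + θ) * lam * Q.sz))
    (hvk : ∀ k, |lin A v k| ≤ τ * ((1 + θ) * lam * Q.side k)) :
    CoriE Om f (trA A v) Q ((1 + θ) * lam) κ1' κ2' ∧ ∀ k, |lin A v k| ≤ θ * (lam * Q.side k) / 2 := by
  constructor
  · exact cori_mono (cor_tr h ⟨hv, hvk⟩) hQ (by positivity) h1 h2
  · intro k
    have hs := Bx.side_pos hQ k
    refine (hvk k).trans ?_
    have h4 : 0 < lam * Q.side k := by positivity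
    calc τ * ((1 + θ) * lam * Q.side k) = τ * (1 + θ) * (lam * Q.side k) := by ring
      _ ≤ (θ / 4) * (1 + 1) * (lam * Q.side k) := by gcongr
      _ = θ * (lam * Q.side k) / 2 := by ring

/-- the translations of `Wt A ρ` are small -/
theorem wt_small {ρ ρ0 κ0 : ℝ} {lam' : ℝ} (hQ : Q.Pos) (hκ : ∀ k, Q.sz ≤ κ0 * Q.side k) (hl : 0 ≤ lam')
    (hρ0 : 0 ≤ ρ0) (hκ0 : 0 ≤ κ0) (hρ : ρ ≤ ρ0 * (lam' * Q.sz)) {v : E3} (hv : v ∈ Wt A ρ) :
    ‖lin A v‖ ≤ ρ0 * (lam' * Q.sz) ∧ ∀ k, |lin A v k| ≤ ρ0 * κ0 * (lam' * Q.side k) := by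
  have h1 : ∀ k, |lin A v k| ≤ ρ := by
    intro k
    obtain ⟨h2, h3⟩ := hv
    have h4 := h2 k
    have h5 := h3 k
    rw [abs_le]
    constructor
    · have : (0 : ℝ) ≤ lin A v k := h4
      have h6 : lin A v k ≤ ρ := h5
      linarith
    · exact h5
  constructor
  · rw [pi_norm_le_iff_of_nonneg (by have := Bx.sz_pos hQ; positivity)]
    intro k
    rw [Real.norm_eq_abs]
    exact (h1 k).trans hρ
  · intro k
    refine (h1 k).trans (hρ.trans ?_)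
    calc ρ0 * (lam' * Q.sz) ≤ ρ0 * (lam' * (κ0 * Q.side k)) := by gcongr; exact hκ k
      _ = _ := by ring

/-- a translate of a point of the collar -/
theorem add_mem_cbx {a b t : ℝ} {x v : E3} (hx : A x ∈ cbx Q a)
    (hv : ∀ k, |lin A v k| ≤ t * Q.side k / 2) (hab : a + t ≤ b) (hQ : Q.Pos) :
    A (x + v) ∈ cbx Q b := by
  intro k
  have hs := Bx.side_pos hQ k
  have h1 : A (x + v) k = A x k + lin A v k := by
    have := Crest.Agent.R096.Exa_365.aff_add A x v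
    rw [this]; rfl
  rw [h1]
  have h2 : |A x k + lin A v k - ctr Q k| ≤ |A x k - ctr Q k| + |lin A v k| := by
    have : A x k + lin A v k - ctr Q k = (A x k - ctr Q k) + lin A v k := by ring
    rw [this]; exact abs_add_le _ _
  have h3 := hx k
  have h4 := hv k
  have h5 : (a + t) * Q.side k ≤ b * Q.side k := by gcongr
  linarith

/-- **the translated outside misses the small core** -/
theorem not_mem_of_shift {θ : ℝ} {x v : E3} (hQ : Q.Pos) (hl : 0 < lam)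
    (hv : ∀ k, |lin A v k| < θ * (lam * Q.side k) / 2)
    (hx : x ∉ interior (K1 A Q ((1 + θ) * lam))) : x + v ∉ K1 A Q lam := by
  intro h
  apply hx
  have hA : Continuous A := AffineMap.continuous_of_finiteDimensional A.toAffineMap
  have h1 : IsOpen (A ⁻¹' {y : E3 | ∀ k, |y k - ctr Q k| < (1 + θ) * lam * Q.side k / 2}) := by
    refine IsOpen.preimage hA ?_
    have : {y : E3 | ∀ k, |y k - ctr Q k| < (1 + θ) * lam * Q.side k / 2} =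
        ⋂ k : Fin 3, {y : E3 | |y k - ctr Q k| < (1 + θ) * lam * Q.side k / 2} := by
      ext y; simp
    rw [this]
    refine isOpen_iInter_of_finite fun k => isOpen_lt ?_ continuous_const
    fun_prop
  have h2 : A ⁻¹' {y : E3 | ∀ k, |y k - ctr Q k| < (1 + θ) * lam * Q.side k / 2} ⊆
      K1 A Q ((1 + θ) * lam) := fun y hy k => (hy k).le
  refine interior_maximal h2 h1 ?_
  intro k
  have h3 : |A (x + v) k - ctr Q k| ≤ lam * Q.side k / 2 := h k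
  have h4 : A (x + v) k = A x k + lin A v k := by
    have := Crest.Agent.R096.Exa_365.aff_add A x v
    rw [this]; rfl
  rw [h4] at h3
  have h5 := hv k
  have h6 : |A x k - ctr Q k| ≤ |A x k + lin A v k - ctr Q k| + |lin A v k| := by
    have : A x k - ctr Q k = (A x k + lin A v k - ctr Q k) - lin A v k := by ring
    rw [this]; exact abs_sub _ _
  calc |A x k - ctr Q k| ≤ |A x k + lin A v k - ctr Q k| + |lin A v k| := h6
    _ < lam * Q.side k / 2 + θ * (lam * Q.side k) / 2 := add_lt_add_of_le_of_lt h3 h5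
    _ = (1 + θ) * lam * Q.side k / 2 := by ring

end one

/-! ### the constants -/

/-- `κ3` after `lam2` -/
theorem exists_k3 {lam2 κ2 : ℝ} (h : lam2 < 1) (hκ2 : 0 < κ2) :
    ∃ κ3 : ℝ, 0 < κ3 ∧ κ3 ≤ 3 / 4 * κ2 ∧ (1 + 2 * κ3) * lam2 < 1 := by
  rcases le_or_gt lam2 0 with h0 | h0
  · refine ⟨3 / 4 * κ2, by positivity, le_rfl, ?_⟩
    have : (1 + 2 * (3 / 4 * κ2)) * lam2 ≤ 0 := mul_nonpos_of_nonneg_of_nonpos (by positivity) h0
    linarith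
  · refine ⟨min (3 / 4 * κ2) ((1 - lam2) / (4 * lam2)), ?_, min_le_left _ _, ?_⟩
    · exact lt_min (by positivity) (div_pos (by linarith) (by positivity))
    · have h1 : min (3 / 4 * κ2) ((1 - lam2) / (4 * lam2)) * lam2 ≤ (1 - lam2) / 4 := by
        calc min (3 / 4 * κ2) ((1 - lam2) / (4 * lam2)) * lam2 ≤ (1 - lam2) / (4 * lam2) * lam2 := by
              gcongr; exact min_le_right _ _
          _ = (1 - lam2) / 4 := by field_simp
      nlinarith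

/-- **choice of `κ1`** -/
structure K1Ok (κ0 κ1 κ2 κ3 κ1' lam2 : ℝ) : Prop where
  pos : 0 < κ1
  half : κ1 ≤ κ1' / 2
  k2 : κ1 * κ0 ≤ κ2 / 4
  gap : κ1 * κ0 ≤ (1 - (1 + 2 * κ3) * lam2) / 4

theorem exists_k1 {κ0 κ2 κ3 κ1' lam2 : ℝ} (hκ0 : 0 < κ0) (hκ2 : 0 < κ2) (hκ1' : 0 < κ1')
    (h3 : (1 + 2 * κ3) * lam2 < 1) :
    ∃ κ : ℝ, 0 < κ ∧ ∀ κ1, 0 < κ1 → κ1 ≤ κ → K1Ok κ0 κ1 κ2 κ3 κ1' lam2 := by
  have hg : 0 < 1 - (1 + 2 * κ3) * lam2 := by linarith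
  refine ⟨min (κ1' / 2) (min (κ2 / 4 / κ0) ((1 - (1 + 2 * κ3) * lam2) / 4 / κ0)),
    lt_min (by positivity) (lt_min (by positivity) (by positivity)), fun κ1 h0 h => ⟨h0, ?_, ?_, ?_⟩⟩
  · exact h.trans (min_le_left _ _)
  · have := h.trans ((min_le_right _ _).trans (min_le_left _ _))
    rwa [le_div_iff₀ hκ0] at this
  · have := h.trans ((min_le_right _ _).trans (min_le_right _ _))
    rwa [le_div_iff₀ hκ0] at this

/-! ### all bricks of `X` -/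

/-- the collar of the grown core without the old core -/
def Sx (F : Set (Bx (Fin 3))) (A : F → E3 ≃ᵃ[ℝ] E3) (lam : F → ℝ) (θ κ3 : ℝ) (c : F) : Set E3 :=
  A c ⁻¹' cbx c.1 ((1 + 2 * κ3) * ((1 + θ) * lam c)) \ Kor F A lam c

/-- **the output.** -/
structure XG (p : ℝ) (Om : Set E3) (f : E3 → E3) (D : E3 → E3 →L[ℝ] E3) (o : E3)
    (u κ0 κ1 κ2 κ3 κ1' θ : ℝ) (F : Set (Bx (Fin 3))) (X : Set F) (A : F → E3 ≃ᵃ[ℝ] E3)
    (lam : F → ℝ) : Prop where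
  lpos : ∀ c ∈ X, 0 < (1 + θ) * lam c
  /-- (a) -/
  ex : ∀ c ∈ X, ExIn p Om f D o u κ1 (3 / 4 * κ2) c.1 (A c) ((1 + θ) * lam c)
  cor : ∀ c ∈ X, CoriE Om f (A c) c.1 ((1 + θ) * lam c) κ1 (3 / 4 * κ2)
  cor3 : ∀ c ∈ X, CoriE Om f (A c) c.1 ((1 + θ) * lam c) κ1 κ3
  gap3 : ∀ c ∈ X, (1 / 2 + κ3) * ((1 + θ) * lam c) + κ1 * κ0 * ((1 + θ) * lam c) < 1 / 2
  /-- (b) -/
  tr : ∀ c ∈ X, ∀ τ : ℝ, τ ≤ κ1' / 2 → τ ≤ κ2 / 4 → τ ≤ θ / 4 → ∀ v : E3,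
    ‖lin (A c) v‖ ≤ τ * ((1 + θ) * lam c * c.1.sz) →
    (∀ k, |lin (A c) v k| ≤ τ * ((1 + θ) * lam c * c.1.side k)) →
    CoriE Om f (trA (A c) v) c.1 ((1 + θ) * lam c) κ1' (κ2 / 2) ∧
      ∀ k, |lin (A c) v k| ≤ θ * (lam c * c.1.side k) / 2
  /-- (c) the boxes -/
  vsub : ∀ c ∈ X, A c ⁻¹' cbx c.1 ((1 + 2 * κ3) * ((1 + θ) * lam c)) ⊆ Om
  vimg : ∀ c ∈ X, ∀ x ∈ A c ⁻¹' cbx c.1 ((1 + 2 * κ3) * ((1 + θ) * lam c)),
    ∀ k, c.1.lo k < f x k ∧ f x k < c.1.hi k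
  vdis : ∀ c ∈ X, ∀ c' ∈ X, c ≠ c' → Disjoint (A c ⁻¹' cbx c.1 ((1 + 2 * κ3) * ((1 + θ) * lam c)))
    (A c' ⁻¹' cbx c'.1 ((1 + 2 * κ3) * ((1 + θ) * lam c')))
  kv : ∀ c ∈ X, Kor F A lam c ⊆ A c ⁻¹' cbx c.1 ((1 + 2 * κ3) * ((1 + θ) * lam c))
  /-- the hypotheses of `Acc_365.inner_sum` (at `κ2`, `lam`) -/
  hS : ∀ c ∈ X, MeasurableSet (Sx F A lam θ κ3 c)
  hSV : ∀ c ∈ X, Sx F A lam θ κ3 c ⊆ A c ⁻¹' cbx c.1 ((1 + 2 * κ2) * lam c)
  hSd : X.PairwiseDisjoint (Sx F A lam θ κ3)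
  hSK : ∀ c ∈ X, ∀ c' ∈ X, Disjoint (Sx F A lam θ κ3 c) (Kor F A lam c')

theorem exg (hLa : IsOpen La) (hf : Hom3 f Om La) {δ κ0 : ℝ} {F : Set (Bx (Fin 3))}
    (bf : BoxFoam La F δ κ0) {κ1 κ2 κ3 κ1' lam2 c0 θ : ℝ} (hκ0 : 0 < κ0) (hκ2 : 0 < κ2)
    (hκ2' : κ2 ≤ 1 / 4) (hκ3 : 0 < κ3) (hκ3' : κ3 ≤ 3 / 4 * κ2)
    (hk : K1Ok κ0 κ1 κ2 κ3 κ1' lam2) (hθ : 0 < θ) (hθ' : θ ≤ κ2 / 4) {X : Set F}
    {A : F → E3 ≃ᵃ[ℝ] E3} {lam : F → ℝ} (hc0 : 0 < c0)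
    (hl : ∀ c ∈ X, c0 ≤ lam c ∧ (1 + θ) * lam c ≤ lam2)
    (hE : ∀ c ∈ X, ExIn p Om f D o u κ1 κ2 c.1 (A c) (lam c)) :
    XG p Om f D o u κ0 κ1 κ2 κ3 κ1' θ F X A lam := by
  have hpos : ∀ c : F, c.1.Pos := fun c => bf.pos _ c.2
  have hasp : ∀ c : F, ∀ k, c.1.sz ≤ κ0 * c.1.side k := fun c => bf.asp _ c.2
  have hl0 : ∀ c ∈ X, 0 < lam c := fun c hc => hc0.trans_le (hl c hc).1
  have hlp : ∀ c ∈ X, 0 < (1 + θ) * lam c := fun c hc => by have := hl0 c hc; positivity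
  have hκ1 := hk.pos
  have hk2 := hk.k2
  have hex : ∀ c ∈ X, ExIn p Om f D o u κ1 (3 / 4 * κ2) c.1 (A c) ((1 + θ) * lam c) := by
    intro c hc
    refine exIn_grow hLa hf (hpos c) (hl0 c hc) hκ0.le (hasp c) hκ1.le (hE c hc) hθ.le ?_ ?_ ?_
    · nlinarith
    · nlinarith
    · nlinarith [mul_pos hκ2 hθ]
  have hcor : ∀ c ∈ X, CoriE Om f (A c) c.1 ((1 + θ) * lam c) κ1 (3 / 4 * κ2) :=
    fun c hc => cori_of_exIn (hex c hc)
  have hcor3 : ∀ c ∈ X, CoriE Om f (A c) c.1 ((1 + θ) * lam c) κ1 κ3 :=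
    fun c hc => cori_mono (hcor c hc) (hpos c) (hlp c hc).le le_rfl hκ3'
  have hgap : ∀ c ∈ X, (1 / 2 + κ3) * ((1 + θ) * lam c) + κ1 * κ0 * ((1 + θ) * lam c) < 1 / 2 := by
    intro c hc
    have h1 := hk.gap
    have h2 := (hl c hc).2
    have h3 := hlp c hc
    have h4 : (1 / 2 + κ3) * ((1 + θ) * lam c) ≤ (1 / 2 + κ3) * lam2 := by gcongr
    have hκκ : 0 < κ1 * κ0 := by positivity
    have h7 : (1 + 2 * κ3) * lam2 < 1 := by
      by_contra hcon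
      push Not at hcon
      linarith
    have h6 : (1 + θ) * lam c ≤ 1 := by
      have : lam2 ≤ (1 + 2 * κ3) * lam2 := by nlinarith
      linarith
    have h5 : κ1 * κ0 * ((1 + θ) * lam c) ≤ κ1 * κ0 * 1 := by gcongr
    linarith
  have himg : ∀ c ∈ X, ∀ x ∈ A c ⁻¹' cbx c.1 ((1 + 2 * κ3) * ((1 + θ) * lam c)),
      x ∈ Om ∧ ∀ k, c.1.lo k < f x k ∧ f x k < c.1.hi k := by
    intro c hc x hx
    exact img_open (hpos c) (hasp c) (hlp c hc) hκ1.le (hgap c hc) (hcor3 c hc) hx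
  have hvdis : ∀ c ∈ X, ∀ c' ∈ X, c ≠ c' →
      Disjoint (A c ⁻¹' cbx c.1 ((1 + 2 * κ3) * ((1 + θ) * lam c)))
      (A c' ⁻¹' cbx c'.1 ((1 + 2 * κ3) * ((1 + θ) * lam c'))) := by
    intro c hc c' hc' hne
    rw [Set.disjoint_left]
    intro x hx hx'
    obtain ⟨k, hk⟩ := bf.inv.disj c.2 c'.2 (hpos c) (hpos c') (fun h => hne (Subtype.ext h))
    have h2 := (himg c hc x hx).2 k
    have h3 := (himg c' hc' x hx').2 k
    rcases hk with hk | hk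
    · linarith [h2.2, h3.1]
    · linarith [h2.1, h3.2]
  have hkv : ∀ c ∈ X, Kor F A lam c ⊆ A c ⁻¹' cbx c.1 ((1 + 2 * κ3) * ((1 + θ) * lam c)) := by
    intro c hc
    apply preimage_mono
    apply Crest.Agent.R096.Acc_365.cbx_mono (hpos c)
    have := hl0 c hc
    nlinarith [mul_pos hκ3 this, mul_pos hθ this, mul_pos hκ3 (mul_pos hθ this)]
  refine ⟨hlp, hex, hcor, hcor3, hgap, ?_, fun c hc x hx => (himg c hc x hx).1,
    fun c hc x hx => (himg c hc x hx).2, hvdis, hkv, ?_, ?_, ?_, ?_⟩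
  · intro c hc τ h1 h2 h3 v hv hvk
    exact cori_shift (hpos c) (hl0 c hc) (hcor c hc) hθ.le (by linarith) (by linarith [hk.half])
      (by linarith) h3 hv hvk
  · intro c hc
    exact (Crest.Agent.R096.Acc_365.measurableSet_K1 _ _ _).diff
      (Crest.Agent.R096.Acc_365.measurableSet_K1 _ _ _)
  · intro c hc x hx
    refine Crest.Agent.R096.Acc_365.cbx_mono (hpos c) ?_ hx.1
    have h1 := hl0 c hc
    have h2 : (1 + 2 * κ3) * (1 + θ) ≤ 1 + 2 * κ2 := by nlinarith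
    calc (1 + 2 * κ3) * ((1 + θ) * lam c) = (1 + 2 * κ3) * (1 + θ) * lam c := by ring
      _ ≤ (1 + 2 * κ2) * lam c := by gcongr
  · intro c hc c' hc' hne
    exact (hvdis c hc c' hc' hne).mono sdiff_subset sdiff_subset
  · intro c hc c' hc'
    by_cases h : c = c'
    · subst h
      exact disjoint_sdiff_left
    · exact (hvdis c hc c' hc' h).mono sdiff_subset (hkv c' hc')

/-! ### blocks and translations -/

variable {F : Set (Bx (Fin 3))} {X : Set F} {A : F → E3 ≃ᵃ[ℝ] E3} {lam : F → ℝ}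
  {κ0 κ1 κ2 κ3 κ1' θ : ℝ}

/-- a set with `S ⊆ A⁻¹ cbx ((1 + 2 κ4) lam')` translated by `v` stays in the collar box -/
theorem shift_sub {c : F} (hQ : c.1.Pos) {κ4 t : ℝ} {S : Set E3}
    (hS : S ⊆ A c ⁻¹' cbx c.1 ((1 + 2 * κ4) * ((1 + θ) * lam c))) {v : E3}
    (hv : ∀ k, |lin (A c) v k| ≤ t * ((1 + θ) * lam c * c.1.side k) / 2)
    (ht : κ4 + t / 2 ≤ κ3) (hl : 0 ≤ (1 + θ) * lam c) :
    ∀ x ∈ S, x + v ∈ A c ⁻¹' cbx c.1 ((1 + 2 * κ3) * ((1 + θ) * lam c)) := by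
  intro x hx
  refine add_mem_cbx (t := t * ((1 + θ) * lam c)) (hS hx) (fun k => (hv k).trans (le_of_eq (by ring)))
    ?_ hQ
  nlinarith

/-- **the tiles of the block other than the core, translated, lie in `Sx`** -/
theorem tile_sub {c : F} (hQ : c.1.Pos) (hl : 0 < lam c) {κ4 t : ℝ} {S : Set E3}
    (hS : S ⊆ A c ⁻¹' cbx c.1 ((1 + 2 * κ4) * ((1 + θ) * lam c)))
    (hSK : Disjoint S (interior (K1 (A c) c.1 ((1 + θ) * lam c)))) {v : E3}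
    (hv : ∀ k, |lin (A c) v k| ≤ t * ((1 + θ) * lam c * c.1.side k) / 2)
    (ht : κ4 + t / 2 ≤ κ3) (hθ : 0 < θ) (htθ : t * (1 + θ) < θ) :
    ∀ x ∈ S, x + v ∈ Sx F A lam θ κ3 c := by
  intro x hx
  refine ⟨shift_sub hQ hS hv ht (by positivity) x hx, ?_⟩
  refine not_mem_of_shift hQ hl (fun k => ?_) (disjoint_left.1 hSK hx)
  have hs := Bx.side_pos hQ k
  refine (hv k).trans_lt ?_
  have h1 : 0 < lam c * c.1.side k := by positivity
  have h2 : t * (1 + θ) * (lam c * c.1.side k) < θ * (lam c * c.1.side k) := by gcongr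
  linarith

/-- the translated blocks miss the other cores -/
theorem XG.other (H : XG p Om f D o u κ0 κ1 κ2 κ3 κ1' θ F X A lam) {c c' : F} (hc : c ∈ X)
    (hc' : c' ∈ X) (hne : c ≠ c') {S : Set E3}
    (hS : S ⊆ A c ⁻¹' cbx c.1 ((1 + 2 * κ3) * ((1 + θ) * lam c))) :
    Disjoint (Kor F A lam c') S :=
  ((H.vdis c hc c' hc' hne).mono hS (H.kv c' hc')).symm

/-- the shifted grown core contains the old core -/
theorem kor_sub {c : F} {v : E3} (hv : ∀ k, |lin (A c) v k| ≤ θ * (lam c * c.1.side k) / 2) :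
    Kor F A lam c ⊆ K2 (A c) c.1 ((1 + θ) * lam c) v := K1_subset_K2 hv

end

end Crest.Agent.R096.Exg_766
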