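import Crest.Agent.R096.Pmc5_112

/-!
# Row 96 (S0127), helper112.  PREMACH, part 7: `ea_mfR` = `ea_mf` with the full output of EA-CORE

`EE_leQ` (energies of a set of tiles by a set of classes), `ea_mfR`: MachBF + PREMACH + EA-CORE with
348's `Res` literally (energy on saturated sets of tiles, pointwise bounds with errors per tile).
-/

set_option autoImplicit false
set_option linter.style.longLine false

open MeasureTheory Set Filter Metric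
open scoped Topology ENNReal

namespace Crest.Agent.R096.Pmc_112

open Crest.Agent.R096.Msh_715
open Crest.Agent.R096.SkC1_961 (E3 Cfg FoamD Hom3 NN)
open Crest.Agent.R096.Bsp_628 Crest.Agent.R096.Brk5_582
open Crest.Agent.R096.Ls_222
open Crest.Agent.R096.Der_764 (OmH)
open Crest.Agent.R096.Mbf_337
open Crest.Agent.R096.Ea_713 (lin)
open Crest.Agent.R96.EaPost_348 (Geo)
open Crest.Agent.R96.Pm_199
open Crest.Agent.R96.Sob4_199 (VWD)
open Crest.Agent.R96.En10_199 (P3)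
open Crest.Agent.R96.Sg1_199 (li sgm)
open Crest.Agent.R96.Sg3_199 (EnF)
open Crest.Agent.R96.EaCore_348 (bt EE Choice Data Kea Res Ord ea_core)

noncomputable section

variable {Om : Set E3} {F J : Type}

/-- **energy of a set of tiles by a set of classes** -/
theorem EE_leQ (M : MF Om F J) {C : Set (Set E3) → ℝ} (hC0 : ∀ 𝒦, 0 ≤ C 𝒦) {Cm : M.κ → ℝ}
    (hC : ∀ k, ∀ 𝒦 ∈ M.Sh k, C 𝒦 ≤ Cm k) (G : E3 → E3 → ℝ≥0∞) (K : ℝ≥0∞) {p : ℝ} (hp : 0 ≤ p)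
    {a : E3} {w : J → E3} (h : M.Ok a w) {Q : Set (M.md a w h).ι} {S : Set M.κ}
    (hQS : ∀ i, (M.md a w h).Ord i → i ∈ Q → M.cl (M.pot a w h i) ∈ S) :
    EE C (M.md a w h).T (M.md a w h).fr ({i | (M.md a w h).Ord i} ∩ Q) (fun e => K * le G e) p ≤
      ∑' k : S, (ENNReal.ofReal (Cm k) * K) ^ p * M.EnT G p a w h k := by
  classical
  set T := (M.md a w h).T with hT
  set fr := (M.md a w h).fr with hfr
  set O : Set (M.md a w h).ι := {i | (M.md a w h).Ord i} ∩ Q with hO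
  have key : ∀ i : O, bt C T fr i.1 * ∑ e ∈ eIn T i.1, K * le G e ≤
      (ENNReal.ofReal (Cm (M.cl (M.pot a w h i.1))) * K) *
        (ENNReal.ofReal (M.β (M.pot a w h i.1)) * ∑ e ∈ eIn T i.1, le G e) := by
    intro i
    have h1 := M.shp a w h i.1 i.2.1
    obtain ⟨h2, h3⟩ := norm_lin_le (M.frn a w h i.1 i.2.1)
    rw [← Finset.mul_sum]
    have h4 : bt C T fr i.1 ≤ ENNReal.ofReal (Cm (M.cl (M.pot a w h i.1))) *
        ENNReal.ofReal (M.β (M.pot a w h i.1)) := by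
      unfold bt
      rw [← ENNReal.ofReal_mul ((hC0 _).trans (hC _ _ h1))]
      exact ENNReal.ofReal_le_ofReal (mul_le_mul (hC _ _ h1) h3 (norm_nonneg _)
        ((hC0 _).trans (hC _ _ h1)))
    calc bt C T fr i.1 * (K * ∑ e ∈ eIn T i.1, le G e)
        ≤ (ENNReal.ofReal (Cm (M.cl (M.pot a w h i.1))) *
            ENNReal.ofReal (M.β (M.pot a w h i.1))) * (K * ∑ e ∈ eIn T i.1, le G e) :=
          mul_le_mul' h4 le_rfl
      _ = _ := by ring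
  set f : O → ℝ≥0∞ := fun i => volume (P (T.H i.1)) *
      ((ENNReal.ofReal (Cm (M.cl (M.pot a w h i.1))) * K) *
        (ENNReal.ofReal (M.β (M.pot a w h i.1)) * ∑ e ∈ eIn T i.1, le G e)) ^ p with hf
  set cs : O → S := fun i => ⟨M.cl (M.pot a w h i.1), hQS i.1 i.2.1 i.2.2⟩ with hcs
  have e1 : ∑' i : O, f i = ∑' (k : S) (i : {i : O // cs i = k}), f i.1 := by
    rw [← ENNReal.tsum_sigma' (f := fun q : Σ k : S, {i : O // cs i = k} => f q.2.1)]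
    exact ((Equiv.sigmaFiberEquiv cs).tsum_eq f).symm
  calc EE C T fr O (fun e => K * le G e) p
      ≤ ∑' i : O, f i :=
        ENNReal.tsum_le_tsum fun i => mul_le_mul' le_rfl (ENNReal.rpow_le_rpow (key i) hp)
    _ = _ := e1
    _ ≤ ∑' k : S, (ENNReal.ofReal (Cm k) * K) ^ p * M.EnT G p a w h k := by
        refine ENNReal.tsum_le_tsum fun k => ?_
        unfold MF.EnT EnF
        rw [← ENNReal.tsum_mul_left]
        refine le_trans (le_of_eq ?_) (ENNReal.tsum_comp_le_tsum_of_injective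
          (f := fun i : {i : O // cs i = k} =>
            (⟨i.1.1, i.1.2.1, congrArg Subtype.val i.2⟩ :
              {i // (M.md a w h).Ord i ∧ M.cl (M.pot a w h i) = k}))
          (fun i j hij => by
            have h5 := congrArg Subtype.val hij
            exact Subtype.ext (Subtype.ext h5)) _)
        refine tsum_congr fun i => ?_
        obtain ⟨⟨i, hi⟩, hk⟩ := i
        have hk' : M.cl (M.pot a w h i) = k := congrArg Subtype.val hk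
        simp only [hf]
        rw [hk', ENNReal.mul_rpow_of_nonneg _ _ hp]
        ring

variable {δ κ0 R c0 : ℝ} {La : Set E3} {Φ : FoamD δ κ0 R c0 La} {f : E3 → E3}

/-- the numbers of the edges -/
def lP (δ R : ℝ) (D' : E3 → E3 →L[ℝ] E3) {ι : Type} {T : Tiling Om ι} (e : Edg T) : ℝ≥0∞ :=
  Kl δ R * le (Gd' D') e

/-- **`ea_mfR`**: the machine + PREMACH + EA-CORE, full output. -/
theorem ea_mfR (HM : MachBF) {δ κ0 R c0 κ2 : ℝ} (hδ : 0 < δ) (hκ0 : 1 ≤ κ0) (hR : 1 ≤ R)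
    (hc0 : 0 < c0) (hκ2 : 0 < κ2) :
    ∃ (C0 : ℝ) (C : Set (Set E3) → ℝ), 0 < C0 ∧ (∀ 𝒦, 0 < C 𝒦) ∧ ∀ e : ℝ, 0 < e →
    ∃ κp : ℝ, 0 < κp ∧ κp ≤ 1 ∧ ∃ κ1 : ℝ, 0 < κ1 ∧ κ1 * κ0 < κ2 ∧
    ∀ (Om La : Set E3) (f : E3 → E3), IsOpen Om → Bornology.IsBounded Om → IsConnected Om →
      IsOpen La → Bornology.IsBounded La → IsConnected La → Hom3 f Om La →
    ∀ (Φ : FoamD δ κ0 R c0 La), Star Φ → ∀ (X : Set Φ.F) (J : Type) (M : MF Om Φ.F J)
      (D' : E3 → E3 →L[ℝ] E3), (∀ v, Measurable fun y => D' y v) →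
      (∀ l, VWD (OmH Φ f Om) volume (fun x => P3 (Φ.Psi (f x)))
        (fun x => P3 (D' x (Pi.single l 1))) (Pi.single l (1:ℝ))) →
    ∀ (p : ℝ), 1 ≤ p → ∀ (Gd : J → Set E3), (∀ j, Gd j ⊆ M.Bx j) → ∀ (θ₁ θ₂ : ℝ≥0∞),
      volume (⋃ j, {a | a ∈ M.A ∧ ∀ w ∈ M.W j, a + w ∉ Gd j}) ≤ θ₁ * volume M.A →
    ∀ (m lam : M.κ → ℝ≥0∞), (∀ k, m k ≠ 0) →
      (∀ k, M.bl k = none → ∫⁻ a in M.A, M.EnC (Gd' D') p k a ≤ m k * volume M.A) →
      (∀ k, lam k ≠ 0) → (∀ k, lam k ≠ ∞) → ∑' k, (lam k)⁻¹ ≤ θ₂ →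
    ∀ (P' : E3 → Prop), (∀ᵐ a : E3, a ∈ M.A → P' a) →
      (∀ᵐ a : E3, a ∈ M.A → ∀ w (h : M.Ok a w), (∀ j, a + w j ∈ Gd j) →
        Mok Φ f κp (κp / 64) κ1 κ2 X (M.md a w h)) →
    ∃ A' ⊆ M.A, MeasurableSet A' ∧ volume (M.A \ A') ≤ (θ₁ + θ₂) * volume M.A ∧
      ∀ a ∈ A', P' a ∧ ∃ (w : J → E3) (h : M.Ok a w), (∀ j, a + w j ∈ Gd j) ∧
      (∀ (Cm : M.κ → ℝ), (∀ k, ∀ 𝒦 ∈ M.Sh k, C 𝒦 ≤ Cm k) →
        ∀ (Q : Set (M.md a w h).ι) (S : Set M.κ),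
          (∀ i, (M.md a w h).Ord i → i ∈ Q → M.cl (M.pot a w h i) ∈ S) →
          EE C (M.md a w h).T (M.md a w h).fr (Ord (M.md a w h).V ∩ Q) (lP δ R D') p ≤
            ∑' k : S, (ENNReal.ofReal (Cm k) * Kl δ R) ^ p * Bk M D' p lam m a w k) ∧
      ∀ (κ : Type) (b : κ → E3) (R0 R1 : κ → ℝ) (κv : ℝ), 0 < κv →
        Geo (M.md a w h).T ((M.md a w h).ct '' X) {i | ∃ c, c ∉ X ∧ i ∈ (M.md a w h).V c}
          b R0 R1 κv → (p < 3 ∨ IsEmpty κ) →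
      ∀ (ρ ρ' : E3 → ℝ), (∀ x ∈ Om, ∃ c : Φ.F, f x ∈ c.1.set ∧ C0 * c.1.sz ≤ ρ x) →
        (∀ x ∈ Om, ρ x ≤ ρ' x) →
        (∀ c, ∀ x ∈ closedBall (b c) (R1 c), ∀ x' ∈ closedBall (b c) (R1 c),
          ‖f x' - f x‖ + ρ x' ≤ ρ' x) →
      ∀ ε : ℝ≥0∞, ε ≠ 0 → ∀ η : (M.md a w h).ι → ℝ≥0∞, (∀ i, η i ≠ 0) →
      ∃ g : E3 → E3, Res C0 C e Φ (M.md a w h).T f κv X (M.md a w h).V (M.md a w h).ct
        (M.md a w h).A (M.md a w h).lam (lP δ R D') p ε (M.md a w h).fr ρ' b R0 R1 η g := by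
  obtain ⟨C0, C, hC0, hC, H⟩ := ea_core HM hδ hκ0 hR hc0 hκ2 (κ3 := 8) le_rfl
  refine ⟨C0, C, hC0, hC, fun e he => ?_⟩
  obtain ⟨κp0, hκp0, H⟩ := H e he
  set κp : ℝ := min κp0 1 with hκpd
  have hκp : 0 < κp := lt_min hκp0 one_pos
  have hκp1 : κp ≤ 1 := min_le_right _ _
  obtain ⟨κ10, hκ10, H⟩ := H (κp / 64) (by positivity) (by
    have : κp ≤ κp0 := min_le_left _ _
    linarith)
  set κ1 : ℝ := min κ10 (κ2 / (2 * κ0)) with hκ1d
  have hκ00 : 0 < κ0 := by linarith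
  have hκ1 : 0 < κ1 := lt_min hκ10 (by positivity)
  have hκ1κ : κ1 * κ0 < κ2 := by
    have h1 : κ1 ≤ κ2 / (2 * κ0) := min_le_right _ _
    have h2 : κ1 * κ0 ≤ κ2 / (2 * κ0) * κ0 := mul_le_mul_of_nonneg_right h1 hκ00.le
    have h3 : κ2 / (2 * κ0) * κ0 = κ2 / 2 := by field_simp
    linarith
  refine ⟨κp, hκp, hκp1, κ1, hκ1, hκ1κ, ?_⟩
  intro Om La f hO hOb hOc hLa hLb hLc hf Φ hst X J M D' hDm hD p hp Gd hGd θ₁ θ₂ hZ m lam hm0 hm
    hl0 hl1 hl P' hP hM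
  obtain ⟨A', h1, h2, h3, h4⟩ := premach hO hLa hδ (by linarith) hf M hDm hD (κ3 := 8) hκp hκp1
    (μ := κp / 64) le_rfl le_rfl hκ2.le hκ1κ (by linarith : (0:ℝ) ≤ p) hGd hZ hm0 hm hl0 hl1 hl hP hM
  refine ⟨A', h1, h2, h3, fun a ha => ?_⟩
  obtain ⟨h5, w, h, h6, h7, h8, h9⟩ := h4 a ha
  refine ⟨h5, w, h, h6, ?_, ?_⟩
  · intro Cm hCm Q S hQS
    refine (EE_leQ M (fun 𝒦 => (hC 𝒦).le) hCm (Gd' D') (ENNReal.ofReal (8 * Cl δ R))
      (by linarith : (0:ℝ) ≤ p) h hQS).trans ?_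
    exact ENNReal.tsum_le_tsum fun k => mul_le_mul' le_rfl (ent_le_Bk h8 h9 k)
  · intro κ b R0 R1 κv hκv hgeo hp3 ρ ρ' hρ hρ' hosc ε hε η hη
    exact H Om La f hO hOb hOc hLa hLb hLc hf Φ _ (M.md a w h).T X (M.md a w h).J0
      (M.md a w h).J (M.md a w h).V (M.md a w h).ct (M.md a w h).A (M.md a w h).lam (M.md a w h).z
      (M.md a w h).θ (M.md a w h).φ (M.md a w h).M (lP δ R D') κ b R0 R1 κv hκv
      { star := hst
        cores := cores_mono (min_le_left _ _) h7.cores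
        fine := fine_mono (min_le_left _ _) h7.fine
        fin := fun i _ e _ => h7.fin e
        choice := fun err herr Z m0 hZ' => by
          obtain ⟨κ', L, g1, g2, g3⟩ := h7.choice err herr Z m0 hZ'
          exact ⟨κ', L, levels_mono (min_le_left _ _) g1, g2, g3⟩
        geo := hgeo } p hp hp3 (M.md a w h).fr ρ ρ' hρ hρ' hosc ε hε η hη

end

end Crest.Agent.R096.Pmc_112
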