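import Crest.Agent.R096.Aclt2_608
import Crest.Agent.R096.Cnt1_324
import Crest.Agent.R096.Alt1_232
import Crest.Agent.R96.Pm1_199

/-!
# Row 96, EA p < 3, leaf [REG] of 348 #11024 (helper168)

For almost every common shift `a` of a shiftable mesh `M : MF Om F J` (199): every a.e. property of
segments holds on ALL closed 1-cells of all the meshes `M.md a w h` (`ae_edges`), a Sobolev
homeomorphism is absolutely continuous on them (`ae_acl`) and regular (`Tms_582.RegV`, `ae_regV`), and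
countably many prescribed points are in open tiles (`ae_open`, from 324's `HS`).
-/

set_option autoImplicit false
set_option linter.unusedSectionVars false

open MeasureTheory Set Filter Topology Metric Module
open scoped ENNReal NNReal

namespace Crest.Agent.R096.Rgv_168

open Crest.Agent.R096.Msh_715 Crest.Agent.R096.Tms_582
open Crest.Agent.R096.SkC1_961 (E3 Hom3)
open Crest.Agent.R096.Er_594 (SH3)
open Crest.Agent.R096.Mbf_337 (KJ)
open Crest.Agent.R96.Acl_392 Crest.Agent.R96.Sg1_199 Crest.Agent.R96.Sg2_199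
open Crest.Agent.R096.Ls_222 (Edg ea ev ev_ne sgm_edg sgm_sub_Om)
open Crest.Agent.R096.Aclt_608 (finite_level SH3.cont)
open Crest.Agent.R096.Cnt_324 (HS ae_top)
open Crest.Agent.R96.Pm_199

noncomputable section

variable {Om : Set E3} {F J : Type}

/-- relative shifts of a block (`none` = the outer mesh) -/
def Wb (M : MF Om F J) : Option J → Set E3
  | none => {0}
  | some j => M.W j

theorem Wb_countable (M : MF Om F J) (b : Option J) : (Wb M b).Countable := by
  cases b with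
  | none => exact countable_singleton 0
  | some j => exact M.Wc j

theorem sh_mem (M : MF Om F J) {a : E3} {w : J → E3} (h : M.Ok a w) (b : Option J) :
    ∃ s ∈ Wb M b, sh b a w = a + s := by
  cases b with
  | none => exact ⟨0, rfl, (add_zero a).symm⟩
  | some j => exact ⟨w j, (h.2 j).1, rfl⟩

/-- **every a.e. property of the segments with given direction holds on all closed 1-cells of the
mesh, for almost every common shift** -/
theorem ae_edges (M : MF Om F J) {Q : E3 → E3 → Prop} (hQ : ∀ v, ∀ᵐ x : E3, Q x v) :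
    ∀ᵐ a : E3, ∀ (w : J → E3) (h : M.Ok a w) (e : Edg (M.md a w h).T), Q (ea e) (ev e) := by
  have : Countable M.η := M.cη
  have hc : ∀ b, Countable (Wb M b) := fun b => (Wb_countable M b).to_subtype
  have h1 : ∀ᵐ a : E3, ∀ i : (j : M.η) × Wb M (M.eb j),
      Q (M.x i.1 + (i.2 : E3) + a) (M.v i.1) ∧
      Q (M.x i.1 + M.v i.1 + (i.2 : E3) + a) (-M.v i.1) := by
    rw [ae_all_iff]
    intro i
    have k1 := (measurePreserving_add_left (volume : Measure E3)
      (M.x i.1 + (i.2 : E3))).quasiMeasurePreserving.ae (hQ (M.v i.1))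
    have k2 := (measurePreserving_add_left (volume : Measure E3)
      (M.x i.1 + M.v i.1 + (i.2 : E3))).quasiMeasurePreserving.ae (hQ (-M.v i.1))
    filter_upwards [k1, k2] with a ha hb using ⟨ha, hb⟩
  filter_upwards [h1] with a ha w h e
  obtain ⟨j, hj⟩ := M.edge a w h e
  obtain ⟨s, hs, es⟩ := sh_mem M h (M.eb j)
  have k := ha ⟨j, s, hs⟩
  simp only at k
  rw [es, ← sgm_edg e] at hj
  rcases Alt_232.sgm_inj (ev_ne e) hj with ⟨e1, e2⟩ | ⟨e1, e2⟩
  · rw [← e1, ← e2]
    have e3 : M.x j + s + a = M.x j + (a + s) := by abel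
    rw [← e3]
    exact k.1
  · have e3 : ev e = -M.v j := by rw [e2, neg_neg]
    have e4 : ea e = M.x j + M.v j + s + a := by
      have : ea e = M.x j + (a + s) - ev e := by rw [e1, add_sub_cancel_right]
      rw [this, e3]; abel
    rw [e3, e4]
    exact k.2

variable {p : ℝ} {La : Set E3} {f : E3 → E3} {D : E3 → E3 →L[ℝ] E3}

/-- **absolute continuity on all closed 1-cells for almost every shift** -/
theorem ae_acl (M : MF Om F J) (hO : IsOpen Om) (h : SH3 p Om La f D) :
    ∀ᵐ a : E3, ∀ (w : J → E3) (hw : M.Ok a w) (e : Edg (M.md a w hw).T) (k : Fin 3),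
      ACLat Om (fun y => f y k) (fun y => D y (ev e) k) (ev e) (ea e) := by
  refine ae_edges M (Q := fun x v => ∀ k : Fin 3, ACLat Om (fun y => f y k) (fun y => D y v k) v x)
    fun v => ?_
  have h1 := Exa_365.ae_ac hO h (J := Unit) (fun _ => 0) (fun _ => v)
  filter_upwards [h1] with x hx k
  have := hx k ()
  rwa [zero_add] at this

/-- `RegV` from absolute continuity on all closed 1-cells -/
theorem regV_of_acl {ι : Type} {T : Tiling Om ι} (hf : ContinuousOn f Om)
    (h : ∀ (e : Edg T) (k : Fin 3), ACLat Om (fun y => f y k) (fun y => D y (ev e) k) (ev e) (ea e))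
    (V : Set ι) : RegV T f V := by
  intro x hx hd ℓ ⟨K, hℓ⟩
  obtain ⟨i, -, hxi⟩ := mem_iUnion₂.1 hx
  have hxO : x ∈ Om := T.sub i hxi
  let e : Edg T := ⟨T.cc x, x, hxO, hd, rfl⟩
  have h1 := finite_level (ev_ne e) (sgm_sub_Om e) hf (h e) hℓ
  have h2 : sgm (ea e) (ev e) = T.cc x := sgm_edg e
  rw [h2] at h1
  exact h1

/-- **[REG]** regularity of `f` on all closed 1-cells for almost every shift -/
theorem ae_regV (M : MF Om F J) (hO : IsOpen Om) (h : SH3 p Om La f D) :
    ∀ᵐ a : E3, ∀ (w : J → E3) (hw : M.Ok a w) (V : Set (M.md a w hw).ι),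
      RegV (M.md a w hw).T f V := by
  filter_upwards [ae_acl M hO h] with a ha w hw V
  exact regV_of_acl (SH3.cont h) (ha w hw) V

/-- countably many prescribed points are in open tiles for almost every shift -/
theorem ae_open {𝓗 : Set ((E3 →L[ℝ] ℝ) × ℝ)} (h𝓗 : 𝓗.Countable) {X0 : Set E3}
    (hX0 : X0.Countable) :
    ∀ᵐ a : E3, ∀ (Om : Set E3) (ι : Type) (T : Tiling Om ι), HS T a 𝓗 → ∀ x ∈ X0, x ∈ Om →
      ∃ i, x ∈ I (T.H i) := by
  have h1 : ∀ᵐ a : E3, ∀ x ∈ X0, ∀ (Om : Set E3) (ι : Type) (T : Tiling Om ι), HS T a 𝓗 →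
      ∀ z ∈ Om, T.V z ≠ ⊤ → x ∉ T.cc z := by
    rw [ae_ball_iff hX0]
    intro x _
    exact ae_top volume h𝓗 x
  filter_upwards [h1] with a ha Om ι T hT x hx hxO
  by_contra hn
  have h2 : T.V x ≠ ⊤ := fun h => hn ((T.V_eq_top_iff hxO).1 h)
  exact ha x hx Om ι T hT x hxO h2 (T.self_mem_cc x)

/-- **[REG], both clauses of `TinyLoc` at once** -/
theorem reg_all (M : MF Om F J) (hO : IsOpen Om) (h : SH3 p Om La f D)
    {𝓗 : Set ((E3 →L[ℝ] ℝ) × ℝ)} (h𝓗 : 𝓗.Countable)
    (hs : ∀ a w hw, HS (M.md a w hw).T a 𝓗) {X0 : Set E3} (hX0 : X0.Countable) :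
    ∀ᵐ a : E3, ∀ (w : J → E3) (hw : M.Ok a w),
      (∀ V : Set (M.md a w hw).ι, RegV (M.md a w hw).T f V) ∧
      ∀ x ∈ X0, x ∈ Om → ∃ i, x ∈ I ((M.md a w hw).T.H i) := by
  filter_upwards [ae_regV M hO h, ae_open h𝓗 hX0] with a h1 h2 w hw
  exact ⟨h1 w hw, h2 Om _ _ (hs a w hw)⟩

/-- the same for any family of tilings whose inequalities are translates by `a` (no `MF`) -/
theorem reg_hs (hO : IsOpen Om) (h : SH3 p Om La f D) {𝓗 : Set ((E3 →L[ℝ] ℝ) × ℝ)}
    (h𝓗 : 𝓗.Countable) {X0 : Set E3} (hX0 : X0.Countable) :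
    ∀ᵐ a : E3, ∀ (Om' : Set E3) (ι : Type) (T : Tiling Om' ι), Om' ⊆ Om → HS T a 𝓗 →
      (∀ V : Set ι, RegV T f V) ∧ ∀ x ∈ X0, x ∈ Om' → ∃ i, x ∈ I (T.H i) := by
  have h1 := Aclt_608.ae_regV (𝓛 := 𝓗) h𝓗 hO h
  filter_upwards [h1, ae_open h𝓗 hX0] with a h1 h2 Om' ι T hOm hT
  refine ⟨fun V => h1 Om' ι T V hOm ?_, h2 Om' ι T hT⟩
  intro i _ k hk
  refine ⟨(k.1, k.2 - k.1 a), hT i k hk, ?_⟩
  unfold trh
  simp

end

end Crest.Agent.R096.Rgv_168
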