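import Crest.Agent.R096.Wd15_120
import Crest.Agent.R096.Cns1_976
import Crest.Agent.R096.Ea0_961

/-!
Row 96, exact cores (helper120), part 16: **the words of the exact cores of a mesh whose core tiles are
the cores of 874's blocks** (`CoreAt`): `words_blk_good` (EaX, `GoodW` of helper365 at the total shift) and
`words_blk_in` (EA0: `Blk`, `InS` of helper961).
-/

set_option autoImplicit false
set_option linter.unusedSectionVars false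
set_option linter.style.longLine false

open Set Filter Topology Metric MeasureTheory
open scoped ENNReal

namespace Crest.Agent.R096.Wd_120

open Crest.Agent.R096.Bsp_628 Crest.Agent.R096.Bxs_627 Crest.Agent.R096.Brk1_582
open Crest.Agent.R096.Brk3_582 Crest.Agent.R096.Brk5_582 Crest.Agent.R096.Core_124
open Crest.Agent.R096.Msh_715 Crest.Agent.R096.Ls_222 Crest.Agent.R96.Sg1_199
open Crest.Agent.R096.SkC1_961 (FoamD th)
open Crest.Agent.R096.Mbf_337 (sb Cores Exact Words)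
open Crest.Agent.R096.EaX_766 (lin)
open Crest.Agent.R096.Exa_365 (GoodW)
open Crest.Agent.R096.Mal_874 (CB)
open Crest.Agent.R96.Acl_392 (ACLat)

/-- **words of the exact cores, `GoodW` form** (EaX, NO0): the core tiles are the cores of the blocks
`Q c` translated by `w c`. -/
theorem words_blk_good {δ κ0 R : ℝ} (hδ : 0 < δ) (hκ : 1 ≤ κ0) (hR : 1 ≤ R) {κb lam0 lam1 : ℝ}
    (hκb : 0 < κb) (hl0 : 0 < lam0) (hl1 : lam1 < 1) (Mx : ℕ) :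
    ∃ κw : ℝ, 0 < κw ∧ ∀ (La Om : Set (Fin 3 → ℝ)), IsOpen La → ∀ (c0 : ℝ)
      (Φ : FoamD δ κ0 R c0 La) (ι : Type) (T : Tiling Om ι) (f : (Fin 3 → ℝ) → Fin 3 → ℝ)
      (p : ℝ), 1 ≤ p → ContinuousOn f Om → ∀ (D : (Fin 3 → ℝ) → (Fin 3 → ℝ) →L[ℝ] (Fin 3 → ℝ))
      (κ1 κ2 : ℝ), κ1 ≤ κw → 0 ≤ κ2 → ∀ (X : Set Φ.F) (J0 J V : Φ.F → Set ι) (ct : Φ.F → ι)
      (A : Φ.F → (Fin 3 → ℝ) ≃ᵃ[ℝ] (Fin 3 → ℝ)) (lam : Φ.F → ℝ) (z : Φ.F → Fin 3 → ℝ)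
      (θ : Φ.F → (Fin 3 → ℝ) → Fin 3 → ℝ) (φ : Φ.F → (Fin 3 → ℝ) → ℝ) (M : Φ.F → ℕ)
      (Q : Φ.F → CB (Fin 3 → ℝ) 3) (k0 : Φ.F → ℕ) (hk : ∀ c, (Q c).kc ≤ k0 c)
      (A0 : Φ.F → (Fin 3 → ℝ) ≃ᵃ[ℝ] (Fin 3 → ℝ)) (w : Φ.F → Fin 3 → ℝ) (η : ℝ≥0∞),
      Cores Φ T f κ1 κ2 X J0 J V ct A lam z θ φ →
      (∀ c ∈ X, z c = zz c.1 (lam c)) →
      (∀ c ∈ X, CoreAt T (ct c) ((Q c).tr (w c))) →
      (∀ c ∈ X, ∀ y, A c y = A0 c (y - w c)) →
      (∀ c ∈ X, 0 < M c ∧ ∀ x ∈ (Q c).Kc, x ∉ I (((Q c).T (k0 c) (hk c)).H ((Q c).cix (k0 c) (hk c))) →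
        ((Q c).T (k0 c) (hk c)).cc x = {y | y ∈ (Q c).Kc ∧ ∀ a : Φ.F,
          (⌊M c * sb Φ (th (A0 c) (lam c) (z c) x) a⌋₊ : ℝ) ≤ M c * sb Φ (th (A0 c) (lam c) (z c) y) a ∧
          M c * sb Φ (th (A0 c) (lam c) (z c) y) a ≤ ⌈M c * sb Φ (th (A0 c) (lam c) (z c) x) a⌉₊} ∧
        ((Q c).T (k0 c) (hk c)).dim x = {a : Φ.F | ⌊M c * sb Φ (th (A0 c) (lam c) (z c) x) a⌋₊ <
          ⌈M c * sb Φ (th (A0 c) (lam c) (z c) x) a⌉₊}.ncard) →
      (∀ c ∈ X, M c ≤ Mx) → (∀ c ∈ X, lam0 ≤ lam c ∧ lam c ≤ lam1) →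
      (∀ c ∈ X, ∀ y ∈ Pc Φ.F c, 3 / 4 * lam c ≤ mu c.1 y → Φ.pu c y = rp c.1 y) →
      η ≠ ∞ → (η ^ (1 / p)).toReal ≤ κw →
      (∀ c ∈ X, GoodW p Om f D (A0 c)
        (fun e : {e // e ∈ eIn ((Q c).T (k0 c) (hk c)) ((Q c).cix (k0 c) (hk c))} => ea e.1)
        (fun e => ev e.1) η (w c)) →
      ∃ Bad : Φ.F → Set ℝ, (∀ c', MeasurableSet (Bad c')) ∧
        (∀ c', volume (Bad c') ≤ ENNReal.ofReal κb) ∧
        ∀ L : Φ.F → Finset ℝ, (∀ c', ∀ t ∈ L c', t ∈ Ioo (0 : ℝ) 1 ∧ t ∉ Bad c') →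
          Words Φ T f X ct A lam z M L := by
  obtain ⟨κw, hκw, H⟩ := words_good hδ hκ hR hκb hl0 hl1 Mx
  refine ⟨κw, hκw, ?_⟩
  intro La Om hLa c0 Φ ι T f p hp hf D κ1 κ2 hκ1 hκ2 X J0 J V ct A lam z θ φ M Q k0 hk A0 w η hC hz
    hcore hA hgrid hM hlam hpush hη hηw hgood
  have hlinA : ∀ c ∈ X, ∀ y, (A c).linear y = (A0 c).linear y := by
    intro c hc y
    have h1 := (A c).map_vadd 0 y
    have h2 := (A0 c).map_vadd (0 - w c) y
    rw [vadd_eq_add, vadd_eq_add] at h1 h2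
    rw [hA c hc, hA c hc, show y + 0 - w c = y + (0 - w c) by abel, h2] at h1
    exact (add_right_cancel h1).symm
  refine H La Om hLa c0 Φ ι T f p hp hf D κ1 κ2 hκ1 hκ2 X J0 J V ct A lam z θ φ M hC hz ?_ hM hlam
    hpush ?_
  · intro c hc
    exact ⟨(hgrid c hc).1, (hcore c hc).grid_tr (coreAt_T (Q c) (k0 c) (hk c)) (hA c hc)
      (hgrid c hc).2⟩
  · intro c hc
    refine ⟨{e // e ∈ eIn ((Q c).T (k0 c) (hk c)) ((Q c).cix (k0 c) (hk c))}, A0 c, _, _, η, w c,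
      hgood c hc, hη, hηw, hlinA c hc, fun e he => ?_⟩
    obtain ⟨e', he', h1⟩ := (hcore c hc).edge (coreAt_T (Q c) (k0 c) (hk c)) he
    exact ⟨⟨e', he'⟩, h1⟩

/-- **words of the exact cores, EA0 form**: `gam` and (2a) of `InS`, `thin` and `lin_eq` of `Blk`. -/
theorem words_blk_in {δ κ0 R : ℝ} (hδ : 0 < δ) (hκ : 1 ≤ κ0) (hR : 1 ≤ R) {κb lam0 lam1 : ℝ}
    (hκb : 0 < κb) (hl0 : 0 < lam0) (hl1 : lam1 < 1) (Mx : ℕ) :
    ∃ κw : ℝ, 0 < κw ∧ ∀ (La Om : Set (Fin 3 → ℝ)), IsOpen La → ∀ (c0 : ℝ)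
      (Φ : FoamD δ κ0 R c0 La) (ι : Type) (T : Tiling Om ι) (f : (Fin 3 → ℝ) → Fin 3 → ℝ),
      ContinuousOn f Om → ∀ (D : (Fin 3 → ℝ) → (Fin 3 → ℝ) →L[ℝ] (Fin 3 → ℝ))
      (u κ1 κ2 κv κt : ℝ), 0 ≤ u → 0 ≤ κv → κv ≤ κw → κt ≤ κw →
      ∀ (X : Set Φ.F) (J0 J V : Φ.F → Set ι) (ct : Φ.F → ι)
      (A : Φ.F → (Fin 3 → ℝ) ≃ᵃ[ℝ] (Fin 3 → ℝ)) (lam : Φ.F → ℝ) (z : Φ.F → Fin 3 → ℝ)
      (θ : Φ.F → (Fin 3 → ℝ) → Fin 3 → ℝ) (φ : Φ.F → (Fin 3 → ℝ) → ℝ) (M : Φ.F → ℕ)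
      (Q : Φ.F → CB (Fin 3 → ℝ) 3) (k0 : Φ.F → ℕ) (hk : ∀ c, (Q c).kc ≤ k0 c)
      (A0 : Φ.F → (Fin 3 → ℝ) ≃ᵃ[ℝ] (Fin 3 → ℝ)) (w : Φ.F → Fin 3 → ℝ),
      Cores Φ T f κ1 κ2 X J0 J V ct A lam z θ φ →
      (∀ c ∈ X, z c = zz c.1 (lam c)) →
      (∀ c ∈ X, CoreAt T (ct c) ((Q c).tr (w c))) →
      (∀ c ∈ X, ∀ y, A c y = A0 c (y - w c)) →
      (∀ c ∈ X, 0 < M c ∧ ∀ x ∈ (Q c).Kc, x ∉ I (((Q c).T (k0 c) (hk c)).H ((Q c).cix (k0 c) (hk c))) →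
        ((Q c).T (k0 c) (hk c)).cc x = {y | y ∈ (Q c).Kc ∧ ∀ a : Φ.F,
          (⌊M c * sb Φ (th (A0 c) (lam c) (z c) x) a⌋₊ : ℝ) ≤ M c * sb Φ (th (A0 c) (lam c) (z c) y) a ∧
          M c * sb Φ (th (A0 c) (lam c) (z c) y) a ≤ ⌈M c * sb Φ (th (A0 c) (lam c) (z c) x) a⌉₊} ∧
        ((Q c).T (k0 c) (hk c)).dim x = {a : Φ.F | ⌊M c * sb Φ (th (A0 c) (lam c) (z c) x) a⌋₊ <
          ⌈M c * sb Φ (th (A0 c) (lam c) (z c) x) a⌉₊}.ncard) →
      (∀ c ∈ X, M c ≤ Mx) → (∀ c ∈ X, lam0 ≤ lam c ∧ lam c ≤ lam1) →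
      (∀ c ∈ X, ∀ y ∈ Pc Φ.F c, 3 / 4 * lam c ≤ mu c.1 y → Φ.pu c y = rp c.1 y) →
      (∀ c ∈ X, ∀ x, (A0 c).linear x = u • (Q c).ψ x) →
      (∀ c ∈ X, ‖(Q c).ψ (w c)‖ ≤ 1 / (10 * 2 ^ k0 c)) →
      (∀ c ∈ X, u / 2 ^ k0 c ≤ κt * (lam c * c.1.sz) / M c) →
      (∀ c ∈ X, ∀ x ∈ (Q c).Kc, ((Q c).T (k0 c) (hk c)).dim x = 1 →
        ∀ y ∈ ((Q c).T (k0 c) (hk c)).cc x,
          ‖f (y + w c) - A0 c (y + w c)‖ ≤ κv * (lam c * c.1.sz) / M c) →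
      (∀ c ∈ X, ∀ e ∈ Ea0_961.Ed (Q c) (k0 c) (hk c), segment ℝ e.1 e.2 ⊆ (Q c).Kc →
        ∫⁻ τ in Icc (0:ℝ) 1, ‖D (e.1 + w c + τ • (e.2 - e.1)) (e.2 - e.1) -
          lin (A0 c) (e.2 - e.1)‖ₑ ≤ ENNReal.ofReal (κv * ‖lin (A0 c) (e.2 - e.1)‖)) →
      (∀ c ∈ X, ∀ e ∈ eIn ((Q c).T (k0 c) (hk c)) ((Q c).cix (k0 c) (hk c)), ∀ k,
        ACLat Om (fun y => f y k) (fun y => D y (ev e) k) (ev e) (ea e + w c)) →
      ∃ Bad : Φ.F → Set ℝ, (∀ c', MeasurableSet (Bad c')) ∧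
        (∀ c', volume (Bad c') ≤ ENNReal.ofReal κb) ∧
        ∀ L : Φ.F → Finset ℝ, (∀ c', ∀ t ∈ L c', t ∈ Ioo (0 : ℝ) 1 ∧ t ∉ Bad c') →
          Words Φ T f X ct A lam z M L := by
  obtain ⟨κw, hκw, H⟩ := words_edge hδ hκ hR hκb hl0 hl1 Mx
  refine ⟨κw / 3, by positivity, ?_⟩
  intro La Om hLa c0 Φ ι T f hf D u κ1 κ2 κv κt hu hκv0 hκv hκt X J0 J V ct A lam z θ φ M Q k0 hk
    A0 w hC hz hcore hA hgrid hM hlam hpush hlin hw hthin hgam htra hacl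
  have hA0 : ∀ c y v, A0 c (y + v) = A0 c y + (A0 c).linear v := by
    intro c y v
    have h2 := (A0 c).map_vadd y v
    rw [vadd_eq_add, vadd_eq_add, add_comm v] at h2
    rw [h2, add_comm]
  have hlinA : ∀ c ∈ X, ∀ y, (A c).linear y = (A0 c).linear y := by
    intro c hc y
    have h1 := (A c).map_vadd 0 y
    have h2 := (A0 c).map_vadd (0 - w c) y
    rw [vadd_eq_add, vadd_eq_add] at h1 h2
    rw [hA c hc, hA c hc, show y + 0 - w c = y + (0 - w c) by abel, h2] at h1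
    exact (add_right_cancel h1).symm
  refine H La Om hLa c0 Φ ι T f κ1 κ2 X J0 J V ct A lam z θ φ M hC hz ?_ hM hlam hpush ?_ ?_
  · intro c hc
    exact ⟨(hgrid c hc).1, (hcore c hc).grid_tr (coreAt_T (Q c) (k0 c) (hk c)) (hA c hc)
      (hgrid c hc).2⟩
  · intro c hc x hx hd
    have hsz : 0 < c.1.sz := Bx.sz_pos (Φ.bf.pos _ c.2)
    have hM1 : (1 : ℝ) ≤ M c := by exact_mod_cast (hgrid c hc).1
    have hl : 0 < lam c := hl0.trans_le (hlam c hc).1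
    have hl' : lam c < 1 := (hlam c hc).2.trans_lt hl1
    obtain ⟨e, he, hxe⟩ := edge_of_sk1 (by simp) hx hd
    obtain ⟨e', he', h1⟩ := (hcore c hc).edge (coreAt_T (Q c) (k0 c) (hk c)) he
    rw [h1] at hxe
    obtain ⟨τ, hτ, hxτ⟩ := hxe
    have hxτ' : ea e' + w c + τ • ev e' = x := hxτ
    have hy : x - w c ∈ e'.1 := by
      rw [← sgm_edg e']
      refine ⟨τ, hτ, ?_⟩
      show ea e' + τ • ev e' = x - w c
      rw [← hxτ']; abel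
    obtain ⟨x0, hx0O, hd0, hex0⟩ := e'.2
    have hx0K : x0 ∈ (Q c).Kc := by
      rw [← (coreAt_T (Q c) (k0 c) (hk c)).tile]
      exact mem_eIn.1 he' (by rw [hex0]; exact Tiling.self_mem_cc _ x0)
    have h2 := hgam c hc x0 hx0K hd0 (x - w c) (by rw [← hex0]; exact hy)
    rw [sub_add_cancel] at h2
    have h3 : A0 c x = A c x + (A0 c).linear (w c) := by
      rw [hA c hc, ← hA0, sub_add_cancel]
    have h4 : ‖(A0 c).linear (w c)‖ ≤ κt * (lam c * c.1.sz) / M c := by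
      rw [hlin c hc, norm_smul, Real.norm_of_nonneg hu]
      calc u * ‖(Q c).ψ (w c)‖ ≤ u * (1 / (10 * 2 ^ k0 c)) :=
            mul_le_mul_of_nonneg_left (hw c hc) hu
        _ = 1 / 10 * (u / 2 ^ k0 c) := by field_simp
        _ ≤ u / 2 ^ k0 c := by
            have : 0 ≤ u / 2 ^ k0 c := by positivity
            linarith
        _ ≤ _ := hthin c hc
    have h5 : f x - A c x = (f x - A0 c x) + (A0 c).linear (w c) := by rw [h3]; abel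
    have hs : lam c * c.1.sz / M c ≤ c.1.sz := by
      rw [div_le_iff₀ (by linarith)]
      nlinarith
    have hs0 : 0 ≤ lam c * c.1.sz / M c := by positivity
    calc ‖f x - A c x‖ ≤ ‖f x - A0 c x‖ + ‖(A0 c).linear (w c)‖ := by
          rw [h5]; exact norm_add_le _ _
      _ ≤ κv * (lam c * c.1.sz) / M c + κt * (lam c * c.1.sz) / M c := add_le_add h2 h4
      _ = (κv + κt) * (lam c * c.1.sz / M c) := by ring
      _ ≤ κw * (lam c * c.1.sz / M c) := mul_le_mul_of_nonneg_right (by linarith) hs0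
      _ ≤ κw * c.1.sz := mul_le_mul_of_nonneg_left hs hκw.le
  · intro c hc e he
    have hE := hC.exact_ c hc
    have hsz : 0 < c.1.sz := Bx.sz_pos (Φ.bf.pos _ c.2)
    obtain ⟨e', he', h1⟩ := (hcore c hc).edge (coreAt_T (Q c) (k0 c) (hk c)) he
    have heP : e.1 ⊆ P (T.H (ct c)) := mem_eIn.1 he
    have hsub : sgm (ea e' + w c) (ev e') ⊆ Om := by rw [← h1]; exact heP.trans (T.sub _)
    have hcpt : IsCompact (sgm (ea e' + w c) (ev e')) := by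
      rw [sgm_eq_segment, segment_eq_image_lineMap]
      exact isCompact_Icc.image (by fun_prop)
    have hcont : ContinuousOn (fun y => f y - A0 c y) (sgm (ea e' + w c) (ev e')) :=
      (hf.mono hsub).sub ((A0 c).toAffineMap.continuous_of_finiteDimensional.continuousOn)
    obtain ⟨ε, hε⟩ := hcpt.exists_bound_of_continuousOn hcont
    have hN := Cns_976.nearSeg_of_acl (D := fun y => D y (ev e')) (a0 := A0 c (ea e' + w c))
      (u := lin (A0 c) (ev e')) (ε := ε) hsub hf (hacl c hc e' he') (by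
        intro t ht
        have h2 := hε (ea e' + w c + t • ev e') ⟨t, ht, rfl⟩
        have h3 : A0 c (ea e' + w c + t • ev e') = A0 c (ea e' + w c) + t • lin (A0 c) (ev e') := by
          rw [hA0, map_smul]; rfl
        rw [h3] at h2
        exact h2)
    have hl : lin (A0 c) (ev e') = (A c).linear (ev e') := by rw [hlinA c hc]; rfl
    refine ⟨ea e' + w c, ev e', _, A0 c (ea e' + w c), ε, h1, by rw [← hl]; exact hN, ?_⟩
    -- the edge lies in the box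
    have hm0 : ea e' + w c ∈ e.1 := by rw [h1]; exact ⟨0, by simp, by simp⟩
    have hm1 : ea e' + w c + ev e' ∈ e.1 := by rw [h1]; exact ⟨1, by simp, by simp⟩
    have p0 := heP hm0
    have p1 := heP hm1
    rw [hE.tile] at p0 p1
    have hd : lin (A0 c) (ev e') = A c (ea e' + w c + ev e') - A c (ea e' + w c) := by
      rw [hl]
      have h3 := (A c).map_vadd (ea e' + w c) (ev e')
      rw [vadd_eq_add, vadd_eq_add, add_comm (ev e')] at h3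
      rw [h3]; abel
    have hb : ‖lin (A0 c) (ev e')‖ ≤ lam c * c.1.sz := by
      rw [hd, pi_norm_le_iff_of_nonneg (mul_pos hE.lam0 hsz).le]
      intro k
      have q0 := p0 k
      have q1 := p1 k
      have hs : lam c * c.1.side k ≤ lam c * c.1.sz :=
        mul_le_mul_of_nonneg_left (Bx.side_le_sz _ k) hE.lam0.le
      have hs' : lam c * c.1.side k = lam c * c.1.hi k - lam c * c.1.lo k := by
        unfold Bx.side; ring
      rw [Pi.sub_apply, Real.norm_eq_abs, abs_le]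
      constructor <;> linarith [q0.1, q0.2, q1.1, q1.2]
    -- (2a)
    have hEd : (ea e', ea e' + ev e') ∈ Ea0_961.Ed (Q c) (k0 c) (hk c) ∧
        segment ℝ (ea e') (ea e' + ev e') ⊆ (Q c).Kc := by
      obtain ⟨x0, hx0O, hd0, hex0⟩ := e'.2
      have h5 : e'.1 = segment ℝ (ea e') (ea e' + ev e') := by
        rw [← sgm_edg e', sgm_eq_segment]
      have h6 : e'.1 ⊆ (Q c).Kc := by
        rw [← (coreAt_T (Q c) (k0 c) (hk c)).tile]
        exact mem_eIn.1 he'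
      refine ⟨⟨x0, hd0, by rw [← hex0]; exact h5, ?_⟩, by rw [← h5]; exact h6⟩
      show segment ℝ (ea e') (ea e' + ev e') ⊆ (Q c).N
      rw [← h5]
      refine h6.trans (fun y hy => (Q c).bp_sub_N ?_)
      exact interior_subset (Mcc_715.mem_interior_bp (Q c).S (Q c).ψ (Q c).a' (Q c).kc
        (strict_of_mem hy))
    have h7 := htra c hc _ hEd.1 hEd.2
    simp only [add_sub_cancel_left] at h7
    have hfin : ∀ k, li (fun y => ‖D y (ev e') k - lin (A0 c) (ev e') k‖ₑ) (ea e' + w c) (ev e') ≤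
        ENNReal.ofReal (κv * ‖lin (A0 c) (ev e')‖) := by
      intro k
      refine le_trans (lintegral_mono fun τ => ?_) h7
      show ‖(D _ (ev e') - lin (A0 c) (ev e')) k‖ₑ ≤ _
      rw [← ofReal_norm, ← ofReal_norm]
      exact ENNReal.ofReal_le_ofReal (norm_le_pi_norm _ k)
    rw [Cns_976.integral_dfc_eq (D := fun y => D y (ev e')) hsub (hacl c hc e' he')]
    have h8 : ∑ k, li (fun y => ‖D y (ev e') k - lin (A0 c) (ev e') k‖ₑ) (ea e' + w c) (ev e') ≤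
        ENNReal.ofReal (3 * (κv * ‖lin (A0 c) (ev e')‖)) := by
      refine (Finset.sum_le_sum fun k _ => hfin k).trans ?_
      rw [Finset.sum_const, Finset.card_univ, Fintype.card_fin, nsmul_eq_mul,
        ENNReal.ofReal_mul (by norm_num : (0:ℝ) ≤ 3)]
      norm_num
    refine (ENNReal.toReal_le_of_le_ofReal (by positivity) h8).trans ?_
    calc 3 * (κv * ‖lin (A0 c) (ev e')‖) ≤ 3 * (κw / 3 * (lam c * c.1.sz)) := by
          gcongr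
      _ = κw * (lam c * c.1.sz) := by ring
      _ ≤ κw * c.1.sz := by
          refine mul_le_mul_of_nonneg_left ?_ hκw.le
          have := hE.lam1
          nlinarith

end Crest.Agent.R096.Wd_120
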