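import Crest.Agent.R096.Mfa4_880
import Crest.Agent.R96.Eac4_348
import Crest.Agent.R96.Eam3_466
import Crest.Agent.R096.Rgv1_168
import Crest.Agent.R096.Zlt2_798
import Crest.Agent.R096.Wd16_120
import Crest.Agent.R096.Wd12_120
import Crest.Agent.R096.Pmc7_112

/-!
# Row 96 (S0127), helper112.  The X-generic end theorem `pre_gen`, part 1

`ZD` = data of the zones of the bricks off `X`; `zin` = 348's `ZIn` for 880's instance `Ins.mf`;
`mok_zin` = `Pmc_112.Mok` for the patched meshes.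
-/

set_option autoImplicit false
set_option linter.style.longLine false

open MeasureTheory Set Filter Metric
open scoped Topology ENNReal

namespace Crest.Agent.R096.Pgn_112

open Crest.Agent.R096.Msh_715 Crest.Agent.R096.Msh_810 Crest.Agent.R096.Cut_874
  Crest.Agent.R096.Mal_874
open Crest.Agent.R096.SkC1_961 (E3 Cfg FoamD Hom3)
open Crest.Agent.R096.Bsp_628 Crest.Agent.R096.Brk5_582
open Crest.Agent.R096.Ls_222 (Edg ea ev eIn mem_eIn)
open Crest.Agent.R096.Mbf_337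
open Crest.Agent.R096.Tms_582
open Crest.Agent.R096.Cnt_324 (HS Hfam)
open Crest.Agent.R096.Eab_747 (ZoneFam VZ)
open Crest.Agent.R096.Mfa_880
open Crest.Agent.R96.Pm_199
open Crest.Agent.R96.Eam_466 (TLAt FineX InB mix_tmesh locF_of_tl)
open Crest.Agent.R96.Zpatch_348 (ZIn lv)
open Crest.Agent.R096.Pmc_112 (Mok)

noncomputable section

/-- data of the zones of the bricks off `X` -/
structure ZD (F : Type) (X : Set F) where
  x : {c // c ∉ X} → E3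
  R : {c // c ∉ X} → ℝ
  k : {c // c ∉ X} → ℕ
  Zc : {c // c ∉ X} → Finset (Fin 3 → ℤ)
  κ : {c // c ∉ X} → Type
  H : ∀ c, κ c → Finset ((E3 →L[ℝ] ℝ) × ℝ)
  J0 : ∀ c, Set (κ c)
  J : ∀ c, Set (κ c)
  θ : {c // c ∉ X} → E3 → E3
  φ : {c // c ∉ X} → E3 → ℝ

/-- the representative of the shift modulo `2 ^ (-k)` is a lattice translate -/
theorem wz_lat (a : E3) (k : ℕ) : ∃ z : Fin 3 → ℤ, Zlt_798.wz a k = a + lv k z := by
  refine ⟨fun i => -⌊2 ^ k * a i⌋, ?_⟩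
  funext i
  show a i - ⌊2 ^ k * a i⌋ / 2 ^ k = a i + (2 : ℝ)⁻¹ ^ k * ((-⌊2 ^ k * a i⌋ : ℤ) : ℝ)
  push_cast
  rw [inv_pow]
  ring

variable {F : Type} {X : Set F}

/-- **the hypotheses on the zones** of an instance -/
structure ZOk (I : Ins F X) (Zd : ZD F X) : Prop where
  cF : Countable {c // c ∉ X}
  φ : I.M.φ = ContinuousLinearEquiv.refl ℝ E3
  LF : LocF Zd.x Zd.R Zd.k Zd.Zc Zd.H
  Z : ∀ (a : E3) (v : X → E3) (hv : I.M.Adm v),
    Zones (I.M.mesh I.hk (I.M.φ a) hv) Zd.x Zd.R Zd.k (fun c => Zlt_798.wz a (Zd.k c))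
  dis : ∀ c j, Disjoint (closedBall (Zd.x c) (2 * Zd.R c)) (I.M.V j)

theorem Kc_sub_N {n : ℕ} {E : Type*} [NormedAddCommGroup E] [NormedSpace ℝ E] (Q : CB E n) :
    Q.Kc ⊆ Q.N := by
  rw [← Q.P_core Q.kc le_rfl]
  exact (Q.P_inr_sub Q.kc le_rfl _).trans Q.bp_sub_N

/-- the inner tiles cover the block -/
theorem exists_inner {J : Type} (M : MD E3 3 J) {k : J → ℕ} (hk : M.Sc k) (a : Fin 3 → ℝ)
    {v : J → E3} (hv : M.Adm v) (j : J) {x : E3} (hx : x ∈ (M.Bk v j).N) :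
    ∃ i : M.IIx hk a hv j, x ∈ P ((M.mesh hk a hv).H (Sum.inr ⟨j, i⟩)) := by
  obtain ⟨i, hi, hs⟩ := (M.Bk v j).un_N (k j) (hk.kc j) x hx
  exact ⟨⟨i, hs⟩, hi⟩

/-- the core of a translated block lies in its room -/
theorem mem_V_of_N (M : MD E3 3 X) (hφ : M.φ = ContinuousLinearEquiv.refl ℝ E3) {v : X → E3}
    (hv : M.Adm v) (j : X) {y : E3} (hy : y ∈ ((M.Q j).tr (v j)).N) : y ∈ M.V j := by
  have h := MD.N_mem hv j hy
  rwa [hφ] at h

/-- **348's `ZIn`** -/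
def zin (I : Ins F X) (Zd : ZD F X) (h : ZOk I Zd) : ZIn I.mf X where
  Hf := Hfam I.M (⋃ j, I.W j)
  Hf_c := I.countable_hs
  hs _ _ h := I.mf_hs h
  hX _ _ h _ hc := I.mf_V h hc
  hX' _ _ h _ hc := I.mf_V' h hc
  cF := h.cF
  x := Zd.x
  R := Zd.R
  k := Zd.k
  wz c a := Zlt_798.wz a (Zd.k c)
  wz_lat c a := wz_lat a (Zd.k c)
  Z a w hw := h.Z a _ (Ins.adm hw)
  core_off a w hw c hc c' := by
    rw [I.P_ct hw hc]
    have h1 := h.dis c' ⟨c, hc⟩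
    refine (h1.mono (closedBall_subset_closedBall ?_) ?_).symm
    · have := (h.Z a _ (Ins.adm hw)).R0 c'
      linarith
    · intro y hy
      exact mem_V_of_N I.M h.φ (Ins.adm hw) ⟨c, hc⟩ (Kc_sub_N _ hy)
  Zc := Zd.Zc
  κ := Zd.κ
  H := Zd.H
  F := h.LF
  J0 := Zd.J0
  J := Zd.J
  θ := Zd.θ
  φ := Zd.φ

end

end Crest.Agent.R096.Pgn_112
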