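import Crest.Agent.R096.Eau1_365
import Crest.Agent.R096.Exg1_766
import Crest.Agent.R096.Eds5_746
import Crest.Agent.R096.Eds1_746
import Crest.Agent.R096.Pmc6_112
import Crest.Agent.R096.Wd18_120
import Crest.Agent.R096.Pgn1_112

/-!
Row 96 (S0127), helper766.  **ENERGY of PreX** (365 #11714 (3)): `inner_sum2` (both kinds of block
energies), `dcomp_le` (from `D` to the derivative `D'` of the pushed map), `outer_le` (the outer tiles),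
`pre_energy` (the algebra).
-/

set_option autoImplicit false
set_option linter.style.longLine false
set_option linter.unusedSectionVars false
set_option linter.unusedVariables false

open MeasureTheory Set Filter Topology Metric
open scoped ENNReal NNReal

namespace Crest.Agent.R096.Enx_766

open Crest.Agent.R096.SkC1_961 (E3 Hom3)
open Crest.Agent.R096.Er_594 (SH3)
open Crest.Agent.R096.Bsp_628 Crest.Agent.R096.Brk5_582
open Crest.Agent.R096.Bxs_627 (ctr CoriE)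
open Crest.Agent.R096.EaX_766 (lin cbx ExIn Kor RatA)
open Crest.Agent.R096.Acc_365 (K1 K2 exin_mass inner_one)
open Crest.Agent.R096.Eau_365 (Jx Tx)
open Crest.Agent.R096.Exg_766 (Sx XG)
open Crest.Agent.R96.Push_899 Crest.Agent.R96.EaP_899
open Crest.Agent.R096.Mal_874
open Crest.Agent.R096.Mfa_880 (NmB BxM)

noncomputable section

variable {p : ℝ} {Om La : Set E3} {f : E3 → E3} {D D' : E3 → E3 →L[ℝ] E3}

/-! ### (a) the inner energies -/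

section inner

variable {F : Set (Bx (Fin 3))} {X : Set F} {A : F → E3 ≃ᵃ[ℝ] E3} {lam : F → ℝ}

/-- the sum over disjoint sets off the cores -/
theorem sum_S {o : E3} {u κ1 κ2 : ℝ} (hFc : F.Countable)
    (hE : ∀ c ∈ X, ExIn p Om f D o u κ1 κ2 c.1 (A c) (lam c)) {S : F → Set E3}
    (hS : ∀ c ∈ X, MeasurableSet (S c)) (hSV : ∀ c ∈ X, S c ⊆ A c ⁻¹' cbx c.1 ((1 + 2 * κ2) * lam c))
    (hSd : X.PairwiseDisjoint S) (hSK : ∀ c ∈ X, ∀ c' ∈ X, Disjoint (S c) (Kor F A lam c'))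
    (k : ℝ≥0∞) :
    ∑' c : X, ((∫⁻ x in S c, ‖D x‖ₑ ^ p) + k * ((1 + ‖lin (A c)‖ₑ ^ p) * volume (Kor F A lam c))) ≤
      Jx p Om D F X A lam + k * Tx p F X A lam := by
  classical
  have : Countable F := hFc.to_subtype
  have hsub : (⋃ c : X, S c) ⊆ Om \ ⋃ c ∈ X, Kor F A lam c := by
    intro x hx
    obtain ⟨c, hc⟩ := mem_iUnion.1 hx
    refine ⟨((hE c c.2).cor x (Or.inr (hSV c c.2 hc))).1, fun h => ?_⟩
    obtain ⟨c', hc', hx'⟩ := mem_iUnion₂.1 h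
    exact disjoint_left.1 (hSK c c.2 c' hc') hc hx'
  have hd : Pairwise (Function.onFun Disjoint fun c : X => S c) := fun c c' hcc =>
    hSd c.2 c'.2 fun h => hcc (Subtype.ext h)
  rw [ENNReal.tsum_add, ENNReal.tsum_mul_left]
  refine add_le_add ?_ le_rfl
  rw [← lintegral_iUnion (fun c : X => hS c c.2) hd]
  exact (lintegral_mono_set hsub).trans (lintegral_mono fun x => le_add_self)

/-- **(a)** `inner_sum` with both kinds of terms -/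
theorem inner_sum2 (hp : 1 ≤ p) (h : SH3 p Om La f D) {o : E3} {u κ1 κ2 κ0 : ℝ} (hκ1 : 0 ≤ κ1)
    (hFc : F.Countable) (hpos : ∀ c ∈ X, c.1.Pos) (hl : ∀ c ∈ X, 0 ≤ lam c)
    (hκ : ∀ c ∈ X, ∀ k, c.1.sz ≤ κ0 * c.1.side k)
    (hE : ∀ c ∈ X, ExIn p Om f D o u κ1 κ2 c.1 (A c) (lam c)) {S : F → Set E3}
    (hS : ∀ c ∈ X, MeasurableSet (S c)) (hSV : ∀ c ∈ X, S c ⊆ A c ⁻¹' cbx c.1 ((1 + 2 * κ2) * lam c))
    (hSd : X.PairwiseDisjoint S) (hSK : ∀ c ∈ X, ∀ c' ∈ X, Disjoint (S c) (Kor F A lam c'))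
    {Fn : X → ℝ≥0∞} {K5 K6 : ℝ≥0∞}
    (hF : ∀ c : X, Fn c ≤
      K5 * (‖lin (A c)‖ₑ ^ p * ∫⁻ x in S c, ‖(D x).comp (lin (A c).symm)‖ₑ ^ p) +
      K6 * (‖lin (A c)‖ₑ ^ p * volume (S c))) :
    ∑' c : X, Fn c ≤ (K5 * ENNReal.ofReal (4 ^ p) + K6 * 2 ^ (p - 1)) *
      (Jx p Om D F X A lam + ENNReal.ofReal (κ1 * κ0 ^ 3) * Tx p F X A lam) := by
  set k := ENNReal.ofReal (κ1 * κ0 ^ 3) with hk
  set KK := K5 * ENNReal.ofReal (4 ^ p) + K6 * 2 ^ (p - 1) with hKK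
  have h1 : ∀ c : X, Fn c ≤ KK * ((∫⁻ x in S c, ‖D x‖ₑ ^ p) +
      k * ((1 + ‖lin (A c)‖ₑ ^ p) * volume (Kor F A lam c))) := by
    intro c
    have a1 := inner_one hp h hκ1 (hpos c c.2) (hl c c.2) (hκ c c.2) (hE c c.2) (hS c c.2)
      (hSV c c.2)
    have a2 := exin_mass hp h hκ1 (hpos c c.2) (hl c c.2) (hκ c c.2)
      (Bx.sz_pos (hpos c c.2)).le (hE c c.2) (hS c c.2) (hSV c c.2)
    have a3 : ‖lin (A c)‖ₑ ^ p * volume (K1 (A c) c.1.1 (lam c)) ≤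
        (1 + ‖lin (A c)‖ₑ ^ p) * volume (Kor F A lam c) := mul_le_mul' le_add_self le_rfl
    calc Fn c ≤ _ := hF c
      _ ≤ K5 * (ENNReal.ofReal (4 ^ p) * ((∫⁻ x in S c, ‖D x‖ₑ ^ p) +
            k * ((1 + ‖lin (A c)‖ₑ ^ p) * volume (Kor F A lam c)))) +
          K6 * ((2:ℝ≥0∞) ^ (p - 1) * ((∫⁻ x in S c, ‖D x‖ₑ ^ p) +
            k * ((1 + ‖lin (A c)‖ₑ ^ p) * volume (Kor F A lam c)))) := by
          refine add_le_add (mul_le_mul' le_rfl (a1.trans ?_)) (mul_le_mul' le_rfl (a2.trans ?_)) <;>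
          exact mul_le_mul' le_rfl (add_le_add le_rfl (mul_le_mul' le_rfl a3))
      _ = _ := by rw [hKK]; ring
  calc ∑' c : X, Fn c ≤ ∑' c : X, KK * ((∫⁻ x in S c, ‖D x‖ₑ ^ p) +
        k * ((1 + ‖lin (A c)‖ₑ ^ p) * volume (Kor F A lam c))) := ENNReal.tsum_le_tsum h1
    _ = KK * ∑' c : X, ((∫⁻ x in S c, ‖D x‖ₑ ^ p) +
        k * ((1 + ‖lin (A c)‖ₑ ^ p) * volume (Kor F A lam c))) := ENNReal.tsum_mul_left
    _ ≤ _ := mul_le_mul' le_rfl (sum_S hFc hE hS hSV hSd hSK k)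

end inner

/-! ### (b) from `D'` to `D` -/

/-- **(b)** the energies of the pushed map against those of `f`, composed with a linear map -/
theorem dcomp_le {S : Set E3} (hS : MeasurableSet S) {KQ' : ℝ} (hK : 0 ≤ KQ') (hp : 0 ≤ p)
    (h : ∀ᵐ x, x ∈ S → ∀ v, ‖D' x v‖ ≤ KQ' * ‖D x v‖) (B : E3 →L[ℝ] E3) :
    (∫⁻ x in S, ‖(D' x).comp B‖ₑ ^ p) ≤
      ENNReal.ofReal KQ' ^ p * ∫⁻ x in S, ‖(D x).comp B‖ₑ ^ p := by
  rw [← lintegral_const_mul' _ _ (ENNReal.rpow_ne_top_of_nonneg hp ENNReal.ofReal_ne_top)]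
  refine setLIntegral_mono_ae' hS ?_
  filter_upwards [h] with x hx hxS
  rw [← ENNReal.mul_rpow_of_nonneg _ _ hp]
  exact ENNReal.rpow_le_rpow (Crest.Agent.R096.Eds_746.enorm_le_of_norm_le hK
    (Crest.Agent.R096.Eds_746.norm_comp_le_of_dir hK (hx hxS))) hp

theorem de_le {S : Set E3} (hS : MeasurableSet S) {KQ' : ℝ} (hK : 0 ≤ KQ') (hp : 0 ≤ p)
    (h : ∀ᵐ x, x ∈ S → ∀ v, ‖D' x v‖ ≤ KQ' * ‖D x v‖) :
    (∫⁻ x in S, ‖D' x‖ₑ ^ p) ≤ ENNReal.ofReal KQ' ^ p * ∫⁻ x in S, ‖D x‖ₑ ^ p := by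
  rw [← lintegral_const_mul' _ _ (ENNReal.rpow_ne_top_of_nonneg hp ENNReal.ofReal_ne_top)]
  refine setLIntegral_mono_ae' hS ?_
  filter_upwards [h] with x hx hxS
  rw [← ENNReal.mul_rpow_of_nonneg _ _ hp]
  exact ENNReal.rpow_le_rpow (Crest.Agent.R096.Eds_746.enorm_le_of_norm_le hK
    (Crest.Agent.R096.Eds_746.norm_le_of_dir hK (hx hxS))) hp

section foam

variable {δ κ0 R c0 : ℝ} {F : Set (Bx (Fin 3))}

/-- a value in the open brick `c` is in the push core of no other brick -/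
theorem core_unique (bf : BoxFoam La F δ κ0) {c c' : F} {y z : E3}
    (hz : z ∈ Mid (brk' bf c')) (hy : ∀ k, c.1.lo k < y k ∧ y k < c.1.hi k)
    (h : y ∈ (coreBF (brk' bf c') z).I) : c' = c := by
  by_contra hne
  refine (foam0' bf).disj c' c hne y ?_ (fun k => hy k)
  intro k
  have hW := (foam0' bf).W0 c'
  have h1 := h k
  have h2 := hz.1 k
  have h3 := hz.2 k
  have e1 := coreBF_lo hW z k
  have e2 := coreBF_hi hW z k
  have h4 := hW k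
  simp only at h2 h3
  constructor
  · have h5 : (coreBF (brk' bf c') z).lo k < y k := h1.1
    rw [e1] at h5
    linarith
  · have h5 : y k < (coreBF (brk' bf c') z).hi k := h1.2
    rw [e2] at h5
    linarith

/-- **the a.e. bound of `ea_pushL` on sets which `f` maps into one open brick of `X`** -/
theorem ae_dir (bf : BoxFoam La F δ κ0) {X : Set F} {z : F → E3} {KQ' : ℝ}
    (hz : ∀ c, z c ∈ Mid (brk' bf c))
    (h : ∀ᵐ x, (∀ c, f x ∈ (coreBF (brk' bf c) (z c)).I → c ∈ X) →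
      ∀ v, ‖D' x v‖ ≤ KQ' * ‖D x v‖) {c : F} (hc : c ∈ X) {S : Set E3}
    (hS : ∀ x ∈ S, ∀ k, c.1.lo k < f x k ∧ f x k < c.1.hi k) :
    ∀ᵐ x, x ∈ S → ∀ v, ‖D' x v‖ ≤ KQ' * ‖D x v‖ := by
  filter_upwards [h] with x hx hxS
  refine hx fun c' hc' => ?_
  rw [core_unique bf (hz c') (hS x hxS) hc']
  exact hc

/-! ### (c) the outer tiles -/

variable {X : Set F} {A : F → E3 ≃ᵃ[ℝ] E3} {lam : F → ℝ}

/-- shifts by at most twice the room keep the points of the exact core in the pre-translated block -/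
theorem kor_mem {θ τ τ1 : ℝ} (hθ : 0 ≤ θ) {Ac : E3 ≃ᵃ[ℝ] E3} {Q : Bx (Fin 3)} (hQ : Q.Pos)
    {l : ℝ} (hl : 0 ≤ l)
    {w s x : E3} (hw : ∀ k, |lin Ac w k| ≤ τ1 * ((1 + θ) * l * Q.side k))
    (hs : ∀ k, |lin Ac s k| ≤ 2 * τ * ((1 + θ) * l * Q.side k))
    (hτ : (τ1 + 2 * τ) * (1 + θ) ≤ θ / 2) (hx : x ∈ Ac ⁻¹' cbx Q l) :
    x - s - w ∈ Ac ⁻¹' cbx Q ((1 + θ) * l) := by
  intro k
  have e1 : Ac (x - s - w) = Ac x - lin Ac (s + w) := by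
    have h1 := Crest.Agent.R096.Exa_365.aff_add Ac x (-(s + w))
    have e2 : x + -(s + w) = x - s - w := by abel
    rw [e2, map_neg] at h1
    rw [h1, sub_eq_add_neg]
  have h2 := hx k
  have h3 : |lin Ac (s + w) k| ≤ (τ1 + 2 * τ) * ((1 + θ) * l * Q.side k) := by
    rw [map_add, Pi.add_apply]
    refine (abs_add_le _ _).trans ?_
    have := hs k
    have := hw k
    linarith
  have h4 := Bx.side_pos hQ k
  have h5 : (τ1 + 2 * τ) * ((1 + θ) * l * Q.side k) ≤ θ / 2 * (l * Q.side k) := by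
    have h6 : 0 ≤ l * Q.side k := by positivity
    calc (τ1 + 2 * τ) * ((1 + θ) * l * Q.side k) = (τ1 + 2 * τ) * (1 + θ) * (l * Q.side k) := by ring
      _ ≤ _ := mul_le_mul_of_nonneg_right hτ h6
  rw [e1, Pi.sub_apply]
  have e3 : Ac x k - lin Ac (s + w) k - ctr Q k = (Ac x k - ctr Q k) - lin Ac (s + w) k := by ring
  rw [e3]
  refine (abs_sub _ _).trans ?_
  calc |Ac x k - ctr Q k| + |lin Ac (s + w) k| ≤ l * Q.side k / 2 + θ / 2 * (l * Q.side k) :=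
        add_le_add h2 (h3.trans h5)
    _ = _ := by ring

/-- **(c)** the energy of the outer tiles -/
theorem outer_le (bf : BoxFoam La F δ κ0) {K : ℝ≥0∞} {θ τ τ1 : ℝ} (hO : IsOpen Om) (hθ : 0 ≤ θ)
    (hl : ∀ c ∈ X, 0 ≤ lam c)
    (hS : ∀ S ⊆ Om, MeasurableSet S →
      (∀ c, c ∉ X → (∀ x ∈ Om, f x ∈ (brk' bf c).I → x ∈ S) ∨
        (∀ x ∈ Om, f x ∈ (brk' bf c).I → x ∉ S)) →
      (∫⁻ x in S, ‖D' x‖ₑ ^ p) ≤ K * (∫⁻ x in S, ‖D x‖ₑ ^ p))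
    (M : MD E3 3 X) (hφ : M.φ = ContinuousLinearEquiv.refl ℝ E3) {Q0 : X → CB E3 3} {w0 : X → E3}
    (hQ : ∀ c, M.Q c = (Q0 c).tr (w0 c))
    (hK : ∀ c : X, (Q0 c).Kc = A c ⁻¹' cbx c.1.1 ((1 + θ) * lam c))
    (hw : ∀ c : X, ∀ k, |lin (A c) (w0 c) k| ≤ τ1 * ((1 + θ) * lam c * c.1.1.side k))
    (hr : ∀ c : X, ∀ s, ‖s‖ ≤ M.r c → ∀ k, |lin (A c) s k| ≤ τ * ((1 + θ) * lam c * c.1.1.side k))
    (hτ : (τ1 + 2 * τ) * (1 + θ) ≤ θ / 2)
    (himg : ∀ c : X, ∀ x ∈ (M.Q c).N, ∀ k, c.1.1.lo k < f x k ∧ f x k < c.1.1.hi k)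
    {Bx' : X → Set E3} (hB0 : ∀ j, (0 : E3) ∈ Bx' j) (hB : ∀ j, Bx' j ⊆ BxM M j) :
    (∫⁻ x in Om \ NmB M Bx', ‖D' x‖ₑ ^ p) ≤ K * Jx p Om D F X A lam := by
  have h1 := Crest.Agent.R096.Eds_746.outer_satB M bf (f := f) (D := D) (D' := D') (p := p) (K := K)
    (Bx := Bx') hO hB0 hS (fun j x hx k => himg j x hx k)
  refine h1.trans (mul_le_mul' le_rfl ?_)
  refine Crest.Agent.R096.Eds_746.outer_XB M (fun j s hs => hB j hs) ?_
  intro j x hx s hs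
  rw [hQ]
  refine Crest.Agent.R096.Pgn_112.Kc_sub_N _ ?_
  rw [CB.mem_Kc_tr, hK]
  have hs' : ‖s‖ ≤ 2 * M.r j := by rw [hφ] at hs; exact hs
  refine kor_mem hθ (bf.pos _ j.1.2) (hl j j.2) (hw j) (fun k => ?_) hτ hx
  have h2 : ‖(1 / 2 : ℝ) • s‖ ≤ M.r j := by
    rw [norm_smul, Real.norm_of_nonneg (by norm_num)]
    linarith
  have h3 := hr j _ h2 k
  rw [map_smul, Pi.smul_apply, smul_eq_mul, abs_mul, abs_of_pos (by norm_num : (0:ℝ) < 1 / 2)] at h3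
  linarith

end foam

/-! ### (d) the algebra -/

/-- **(d)** from the output of `pre_gen` to the energy clause of `PreMesh` -/
theorem pre_energy {EEt a CO Io SB ε Ko J T K k : ℝ≥0∞} {E : ℝ}
    (h : EEt ≤ a * (CO * Io) + SB + ε) (hI : Io ≤ Ko * J) (hSB : SB ≤ K * (J + k * T))
    (hE : K * k ≤ ENNReal.ofReal E) {C1 : ℝ≥0} (hC1 : a * (CO * Ko) + K ≤ C1) :
    EEt ≤ C1 * J + ENNReal.ofReal E * T + ε := by
  calc EEt ≤ a * (CO * Io) + SB + ε := h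
    _ ≤ a * (CO * (Ko * J)) + K * (J + k * T) + ε := by gcongr
    _ = (a * (CO * Ko) + K) * J + (K * k) * T + ε := by ring
    _ ≤ C1 * J + ENNReal.ofReal E * T + ε := by gcongr

/-- the constant `C1` -/
theorem exists_C1 {a CO Ko K : ℝ≥0∞} (ha : a ≠ ∞) (hCO : CO ≠ ∞) (hKo : Ko ≠ ∞) (hK : K ≠ ∞) :
    ∃ C1 : ℝ≥0, a * (CO * Ko) + K ≤ C1 :=
  ⟨(a * (CO * Ko) + K).toNNReal, by
    rw [ENNReal.coe_toNNReal]
    exact ENNReal.add_ne_top.2 ⟨ENNReal.mul_ne_top ha (ENNReal.mul_ne_top hCO hKo), hK⟩⟩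

/-- the bound on `κ1` -/
theorem exists_κ1E {K : ℝ≥0∞} (hK : K ≠ ∞) {κ0 E : ℝ} (hE : 0 < E) (hκ0 : 0 < κ0) :
    ∃ κE : ℝ, 0 < κE ∧ ∀ κ1 : ℝ, 0 < κ1 → κ1 ≤ κE →
      K * ENNReal.ofReal (κ1 * κ0 ^ 3) ≤ ENNReal.ofReal E := by
  refine ⟨E / ((K.toReal + 1) * κ0 ^ 3), by positivity, fun κ1 h1 h2 => ?_⟩
  have h3 : K = ENNReal.ofReal K.toReal := (ENNReal.ofReal_toReal hK).symm
  rw [h3, ← ENNReal.ofReal_mul ENNReal.toReal_nonneg]
  apply ENNReal.ofReal_le_ofReal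
  have h4 : κ1 * κ0 ^ 3 ≤ E / (K.toReal + 1) := by
    rw [le_div_iff₀ (by positivity)] at h2 ⊢
    calc κ1 * κ0 ^ 3 * (K.toReal + 1) = κ1 * ((K.toReal + 1) * κ0 ^ 3) := by ring
      _ ≤ E := h2
  have h5 : (0:ℝ) ≤ K.toReal := ENNReal.toReal_nonneg
  calc K.toReal * (κ1 * κ0 ^ 3) ≤ K.toReal * (E / (K.toReal + 1)) := by gcongr
    _ ≤ E := by
      rw [mul_div_assoc', div_le_iff₀ (by positivity)]
      nlinarith

end

end Crest.Agent.R096.Enx_766
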