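import Crest.Agent.R096.Mdd12_360
import Crest.Agent.R096.Eau3_365

/-!
Row 96 (S0127), helper360.  `exists_bkX` (365 #11714 (1)): the blocks of EaX for all bricks.
-/

set_option autoImplicit false
set_option linter.style.longLine false
set_option linter.unusedSectionVars false

open MeasureTheory Set Filter Topology Metric

namespace Crest.Agent.R096.Mdd_360

open Crest.Agent.R096.Bsp_628 Crest.Agent.R096.Brk5_582 Crest.Agent.R096.Brk1_582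
open Crest.Agent.R096.Brk2_582 Crest.Agent.R096.Brk3_582 Crest.Agent.R096.Grd_714
open Crest.Agent.R096.SkC1_961 (E3 FoamD Hom3 th)
open Crest.Agent.R096.EaX_766 (cbx RatA)
open Crest.Agent.R096.Bxs_627 (ctr zz)
open Crest.Agent.R096.Mal_874 Crest.Agent.R096.Msh_810 Crest.Agent.R096.Msh_715
open Crest.Agent.R096.Eau_365 (BkX)

noncomputable section

theorem BlkX.bkX {F : Set (Bx (Fin 3))} {Bn : ℕ} {R0 : ℝ} {m H : ℕ} {κ : ℝ} {c : F}
    {A : E3 ≃ᵃ[ℝ] E3} {lam : ℝ} {Q : CB E3 3} (h : BlkX F Bn R0 m H κ c A lam Q) (hm : 0 < m) :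
    BkX F c A lam κ m Bn R0 Q where
  kc := h.kc
  Kc := h.Kc
  N := h.N
  psi := by
    obtain ⟨s, hs, h1, h2⟩ := h.unit
    refine ⟨s, hs, ?_, h1⟩
    have hm' : (0 : ℝ) < m := by exact_mod_cast hm
    rw [div_mul_eq_mul_div, le_div_iff₀ hm'] at h2
    linarith
  rt := h.rt
  bnd := h.bnd
  size := h.size
  grid := h.grid

/-- **the blocks of EaX**: `Bn, R0` before `κ4`, `m0` before the number `m` of subdivisions, `Nb` before
the data -/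
theorem exists_bkX {R Md : ℝ} (hR : 1 ≤ R) (hM : 0 < Md) :
    ∃ (Bn : ℕ) (R0 : ℝ), 1 ≤ Bn ∧ 1 ≤ R0 ∧ ∀ κ4 : ℝ, 0 < κ4 → ∃ m0 : ℕ, 0 < m0 ∧ ∀ m : ℕ, m0 ≤ m →
      ∃ Nb : ℕ, ∀ {δ κ0 : ℝ} {La : Set E3}, IsOpen La → ∀ {F : Set (Bx (Fin 3))},
        BoxFoam La F δ κ0 → Cmp F R → ∀ {o : E3} {u : ℝ}, 0 < u → (∀ C ∈ F, Dy o u Md C) →
        ∀ (X : Set F) (A : F → E3 ≃ᵃ[ℝ] E3) (lam : F → ℝ),
          (∀ c ∈ X, 0 < lam c ∧ (∃ q : ℚ, lam c = q) ∧ RatA o u (A c)) →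
          ∃ Q : F → CB E3 3, ∀ c ∈ X, BkX F c (A c) (lam c) κ4 m Bn R0 (Q c) ∧
            ∀ l, (Q c).be l - (Q c).al l ≤ Nb := by
  have hB0 : 0 < BRM R Md := by unfold BRM; positivity
  refine ⟨BnX R Md, R0X R Md, by unfold BnX; omega, by unfold R0X; linarith, fun κ4 hκ4 => ?_⟩
  refine ⟨⌈11 / (2 * κ4)⌉₊ + 1, by omega, fun m hm => ⟨HX R Md m, ?_⟩⟩
  intro δ κ0 La hLa F bf cmp o u hu hdy X A lam hX
  have hm0 : 0 < m := by omega
  have hκ : 11 ≤ 2 * κ4 * m := by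
    have h1 : 11 / (2 * κ4) ≤ m := by
      refine (Nat.le_ceil _).trans ?_
      exact_mod_cast (by omega : ⌈11 / (2 * κ4)⌉₊ ≤ m)
    rw [div_le_iff₀ (by positivity)] at h1
    linarith
  obtain ⟨Q, hQ⟩ := exists_blkX hR hM hm0 hκ hLa bf cmp hu hdy X A lam hX
  refine ⟨Q, fun c hc => ⟨(hQ c hc).bkX hm0, fun l => ?_⟩⟩
  have h2 := (hQ c hc).H l
  unfold CB.be CB.al
  linarith

end

end Crest.Agent.R096.Mdd_360
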