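import Crest.Agent.R096.Eau5_365
import Crest.Agent.R096.Adx1_112
import Crest.Agent.R096.Eax2_481
import Crest.Agent.R096.Enx1_766
import Crest.Agent.R096.Wd20_120
import Crest.Agent.R096.Mdd13_360
import Crest.Agent.R096.Eax3_481

/-!
Row 96 (S0127), helper365.  **EAU7**: `PreX p` (PREMACH for `EA p`, bounded factor with exact cores).
-/

set_option autoImplicit false
set_option linter.style.longLine false
set_option linter.unusedSectionVars false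
set_option linter.unusedVariables false

open MeasureTheory Set Filter Topology Metric
open scoped ENNReal NNReal

namespace Crest.Agent.R096.Eau_365

open Crest.Agent.R096.Msh_715 Crest.Agent.R096.Mal_874
  Crest.Agent.R096.Msh_810 Crest.Agent.R096.Mfi_290
open Crest.Agent.R096.SkC1_961 (E3 Hom3 FoamD th)
open Crest.Agent.R096.Er_594 (SH3)
open Crest.Agent.R096.Bsp_628 Crest.Agent.R096.Brk5_582
open Crest.Agent.R096.Bxs_627 (ctr CoriE zz)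
open Crest.Agent.R096.EaX_766 (lin cbx ExIn Kor RatA)
open Crest.Agent.R096.Exa_365 Crest.Agent.R096.Acc_365
open Crest.Agent.R096.Ls_222 (Edg ea ev eIn mem_eIn sgm_edg ev_ne)
open Crest.Agent.R096.Pmc_112 (Gd' Kl)
open Crest.Agent.R096.PmcL_112 (KL ea_pushL KL_lt_top)
open Crest.Agent.R096.Eds_746 (EB card_EB core_sub_EB goodW_comp)
open Crest.Agent.R096.Mfa_880 (BxM NmB QU)
open Crest.Agent.R096.Pgn_112
open Crest.Agent.R096.Fns_360 (trA trA_apply trA_linear trA_sub)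
open Crest.Agent.R96.Wm4_748 (K3 K3_ne_top)
open Crest.Agent.R96.Sg1_199 (li sgm)
open Crest.Agent.R96.EaP_899 (XD fX cm KQ KQ_nonneg)
open Crest.Agent.R96.Pm_199 (Dec)
open Crest.Agent.R096.Wd_120 (CoreAt b2_goodC)
open Crest.Agent.R96.Gj_872 (Dy)
open Crest.Agent.R096.Exg_766 (XG Sx)

noncomputable section

/-- the size of the translations -/
theorem exists_beta {κ κw κ3 κ2 θ : ℝ} (h1 : 0 < κ) (h2 : 0 < κw) (h3 : 0 < κ3) (h4 : 0 < κ2)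
    (h5 : 0 < θ) : ∃ β : ℝ, 0 < β ∧ β ≤ κ / 8 ∧ β ≤ κw / 8 ∧ β ≤ κ3 / 16 ∧ β ≤ κ2 / 32 ∧
      β ≤ θ / 32 := by
  refine ⟨min (κ / 8) (min (κw / 8) (min (κ3 / 16) (min (κ2 / 32) (θ / 32)))), ?_, ?_, ?_, ?_, ?_, ?_⟩
  · exact lt_min (by positivity) (lt_min (by positivity) (lt_min (by positivity)
      (lt_min (by positivity) (by positivity))))
  · exact min_le_left _ _
  · exact (min_le_right _ _).trans (min_le_left _ _)
  · exact (min_le_right _ _).trans ((min_le_right _ _).trans (min_le_left _ _))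
  · exact (min_le_right _ _).trans ((min_le_right _ _).trans ((min_le_right _ _).trans
      (min_le_left _ _)))
  · exact (min_le_right _ _).trans ((min_le_right _ _).trans ((min_le_right _ _).trans
      (min_le_right _ _)))

/-- the smallness of the line integrals -/
theorem exists_eta {p κw : ℝ} (hp : 1 ≤ p) (h : 0 < κw) : ∃ η : ℝ, 0 < η ∧ η ≤ 1 ∧
    (ENNReal.ofReal η ^ (1 / p)).toReal ≤ κw := by
  have hp0 : 0 < p := by linarith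
  refine ⟨min 1 (κw ^ p), lt_min one_pos (Real.rpow_pos_of_pos h p), min_le_left _ _, ?_⟩
  rw [ENNReal.ofReal_rpow_of_nonneg (lt_min one_pos (Real.rpow_pos_of_pos h p)).le (by positivity),
    ENNReal.toReal_ofReal (by positivity)]
  calc (min 1 (κw ^ p)) ^ (1 / p) ≤ (κw ^ p) ^ (1 / p) :=
        Real.rpow_le_rpow (lt_min one_pos (Real.rpow_pos_of_pos h p)).le (min_le_right _ _)
          (by positivity)
    _ = κw := by
        rw [← Real.rpow_mul h.le, mul_one_div_cancel hp0.ne', Real.rpow_one]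

/-- the choice of `κ1` -/
theorem exists_k1f {κE κK κ κw η ρ0 : ℝ} (NC : ℕ) (h1 : 0 < κE) (h2 : 0 < κK) (h3 : 0 < κ)
    (h4 : 0 < κw) (h5 : 0 < η) (h6 : 0 < ρ0) : ∃ κ1 : ℝ, 0 < κ1 ∧ κ1 ≤ κE ∧ κ1 ≤ κK ∧
      κ1 ≤ κ / 4 ∧ κ1 ≤ κw / 4 ∧ NC * κ1 ≤ (1 / 4) * η * ρ0 ^ 3 := by
  have h7 : (0:ℝ) < NC + 1 := by positivity
  refine ⟨min κE (min κK (min (κ / 4) (min (κw / 4) ((1 / 4) * η * ρ0 ^ 3 / (NC + 1))))), ?_, ?_,
    ?_, ?_, ?_, ?_⟩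
  · exact lt_min h1 (lt_min h2 (lt_min (by positivity) (lt_min (by positivity) (by positivity))))
  · exact min_le_left _ _
  · exact (min_le_right _ _).trans (min_le_left _ _)
  · exact (min_le_right _ _).trans ((min_le_right _ _).trans (min_le_left _ _))
  · exact (min_le_right _ _).trans ((min_le_right _ _).trans ((min_le_right _ _).trans
      (min_le_left _ _)))
  · have h8 : min κE (min κK (min (κ / 4) (min (κw / 4) ((1 / 4) * η * ρ0 ^ 3 / (NC + 1))))) ≤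
        (1 / 4) * η * ρ0 ^ 3 / (NC + 1) :=
      (min_le_right _ _).trans ((min_le_right _ _).trans ((min_le_right _ _).trans
        (min_le_right _ _)))
    calc (NC : ℝ) * _ ≤ NC * ((1 / 4) * η * ρ0 ^ 3 / (NC + 1)) := by gcongr
      _ = ((1 / 4) * η * ρ0 ^ 3) * (NC / (NC + 1)) := by ring
      _ ≤ ((1 / 4) * η * ρ0 ^ 3) * 1 := by
          gcongr
          rw [div_le_one h7]
          linarith
      _ = _ := mul_one _

theorem Kl_ne_top (δ R : ℝ) : Kl δ R ≠ ∞ := ENNReal.ofReal_ne_top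

theorem ar1 {β θ : ℝ} (hθ : 0 < θ) (h : β ≤ θ / 32) (h1 : θ ≤ 1 / 16) : 2 * β * (1 + θ) < θ := by
  nlinarith

theorem ar2 {κ3 κ4 κ2 β T : ℝ} (h3 : κ3 ≤ 3 / 4 * κ2) (h4 : κ4 = κ3 / 4) (hb : β ≤ κ2 / 32)
    (hκ2 : 0 < κ2) (hT : 0 < T) : (1 + 2 * κ4) * T / 2 + β * T ≤ (1 + 2 * (3 / 4 * κ2)) * T / 2 := by
  subst h4
  have : (κ3 / 4 + β) * T ≤ (3 / 4 * κ2) * T := mul_le_mul_of_nonneg_right (by linarith) hT.le
  nlinarith

theorem ar3 {β θ : ℝ} (hθ : 0 < θ) (h : β ≤ θ / 32) (h1 : θ ≤ 1 / 16) (hβ : 0 < β) :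
    (2 * β + 2 * β) * (1 + θ) ≤ θ / 2 := by
  nlinarith

/-- **the good sets of the blocks** (the block part of `PreX`) -/
theorem blocks {p : ℝ} (hp : 1 ≤ p) {δ κ0 κ2 : ℝ} (hκ0 : 1 ≤ κ0) (hκ2 : 0 < κ2) {Bn : ℕ}
    {R0 : ℝ} {C4 : ℝ≥0}
    (HE : ∀ {Om La : Set E3} {f : E3 → E3} {D : E3 → E3 →L[ℝ] E3}, IsOpen Om →
      SH3 p Om La f D → ∀ {o : E3} {u κ1 κ2 : ℝ} {F : Set (Bx (Fin 3))} {c : F}
      {A : E3 ≃ᵃ[ℝ] E3} {lam : ℝ}, ExIn p Om f D o u κ1 κ2 c.1 A lam →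
      ∀ {κ4 : ℝ} {m : ℕ} {Q : CB E3 3}, 0 < m → BkX F c A lam κ4 m Bn R0 Q →
      ∀ {k0 : ℕ} (hk : Q.kc ≤ k0) {ρ : ℝ}, 0 < ρ → 4 * (lam * c.1.sz) * (1 / 2 ^ k0) ≤ m * ρ →
      (∀ k, (1 + 2 * κ4) * lam * c.1.side k / 2 + ρ ≤ (1 + 2 * κ2) * lam * c.1.side k / 2) →
      ∀ {NC : ℕ}, (EB Q k0 hk).Finite → (EB Q k0 hk).ncard ≤ NC → ∀ {η : ℝ}, 0 < η →
      0 ≤ κ1 * (lam * c.1.sz) ^ 3 →
      (NC : ℝ) * (κ1 * (lam * c.1.sz) ^ 3) ≤ (1 / 4) * η * ρ ^ 3 →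
      ∀ {D' : E3 → E3 →L[ℝ] E3}, (∀ v, Measurable fun z => D' z v) → ∀ {Kq : ℝ}, 0 ≤ Kq →
      ∀ {S : Set E3}, MeasurableSet S → (∀ᵐ x, x ∈ S → ∀ v, ‖D' x v‖ ≤ Kq * ‖D x v‖) →
      (∀ y ∈ Q.N, y ∉ interior Q.Kc → ∀ v ∈ Wt A ρ, y + v ∈ S) →
      ∃ G : Set E3, MeasurableSet G ∧ G ⊆ Wt A ρ ∧ volume G ≠ 0 ∧ ∀ w ∈ G,
        GoodW p Om f D A (fun e : EB Q k0 hk => ea e.1) (fun e => ev e.1) (ENNReal.ofReal η) w ∧
        ∀ {J : Type} (M : MD E3 3 J) (X : RD M) (j : J) (w0 s : E3), M.Q j = Q.tr w0 →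
          w0 + s = w → X.B j ≤ Bn → X.R j ≤ R0 →
          ∀ (hk0 : (M.Q j).kc ≤ k0) (𝒦 : Set (Set E3)) (U : Set E3) (h𝒦 : 𝒦.Countable)
            (hU : U.Countable),
          ∑' c', ((QI M X j k0 hk0).toPT 𝒦 U h𝒦 hU).EnC (Gd' D') p c' s ≤
            C4 * (ENNReal.ofReal Kq * (1 + ENNReal.ofReal η ^ (1 / p))) ^ p * ‖lin A‖ₑ ^ p *
              volume (Q.N \ Q.Kc) +
            8 * (K3 p (Mfb_290.nE Bn R0) 2 1 1 181 *
              (‖lin A‖ₑ ^ p * ∫⁻ z in S, ‖(D' z).comp (lin A.symm)‖ₑ ^ p)))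
    {κ3 θ β ρ0 κ1 κ η : ℝ} {m dk Nb NC : ℕ} (hκ3 : 0 < κ3) (hκ3' : κ3 ≤ 3 / 4 * κ2) (hθ : 0 < θ)
    (hθ16 : θ ≤ 1 / 16) (hβ : 0 < β) (hb3 : β ≤ κ3 / 16) (hb4 : β ≤ κ2 / 32) (hb5 : β ≤ θ / 32)
    (hρ0 : 0 < ρ0) (hρβ : ρ0 * κ0 = β) (hdk : (1 / 2 : ℝ) ^ dk < ρ0) (hm : 0 < m)
    (hN : ∀ (Q : CB E3 3) (k0 : ℕ) (hk : Q.kc ≤ k0), k0 ≤ Q.kc + dk →
      (∀ i, ∀ p ∈ Q.S.GG i, ∀ l, |p.1 l| ≤ ((max Bn ⌈R0⌉₊ : ℕ) : ℤ)) →
      (∀ i, i ≠ Q.S.core → ∀ v ∈ ZP (Q.S.GG i), ∀ w ∈ ZP (Q.S.GG i), ∀ l,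
        |w l - v l| ≤ ((max Bn ⌈R0⌉₊ : ℕ) : ℝ)) →
      (∀ l, (Q.be l : ℝ) - Q.al l ≤ (Nb : ℝ)) → (EB Q k0 hk).Finite ∧ (EB Q k0 hk).ncard ≤ NC)
    (hη : 0 < η) (hκ1 : 0 < κ1) (hNC : NC * κ1 ≤ (1 / 4) * η * ρ0 ^ 3)
    {Om La : Set E3} {f : E3 → E3} {D : E3 → E3 →L[ℝ] E3} (hO : IsOpen Om)
    (hSH : SH3 p Om La f D) {o : E3} {u : ℝ} {F : Set (Bx (Fin 3))} (bf : BoxFoam La F δ κ0)
    {X : Set F} {A : F → E3 ≃ᵃ[ℝ] E3} {lam : F → ℝ} (hlc : ∀ c ∈ X, 0 < lam c)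
    (HG : XG p Om f D o u κ0 κ1 κ2 κ3 κ θ F X A lam) {Q0 : F → CB E3 3}
    (hQ0 : ∀ c ∈ X, BkX F c (A c) ((1 + θ) * lam c) (κ3 / 4) m Bn R0 (Q0 c) ∧
      ∀ l, (Q0 c).be l - (Q0 c).al l ≤ Nb)
    (hkc : ∀ c : X, (Q0 c).kc ≤ 3 + dk) {D' : E3 → E3 →L[ℝ] E3}
    (hD' : ∀ v, Measurable fun z => D' z v) {Kq : ℝ} (hKq : 0 ≤ Kq)
    (hd : ∀ c : X, ∀ᵐ x, x ∈ Sx F A lam θ κ3 c → ∀ v, ‖D' x v‖ ≤ Kq * ‖D x v‖) :
    (∀ c : X, (Q0 c).N \ (Q0 c).Kc ⊆ Sx F A lam θ κ3 c) ∧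
    ∀ c : X, ∃ G : Set E3, MeasurableSet G ∧ volume G ≠ 0 ∧
      (∀ w ∈ G, ‖lin (A c) w‖ ≤ ρ0 * ((1 + θ) * lam c * c.1.1.sz) ∧
        ∀ k, |lin (A c) w k| ≤ β * ((1 + θ) * lam c * c.1.1.side k)) ∧ ∀ w ∈ G,
        GoodW p Om f D (A c) (fun e : EB (Q0 c) (3 + dk) (hkc c) => ea e.1) (fun e => ev e.1)
          (ENNReal.ofReal η) w ∧
        ∀ {J : Type} (M : MD E3 3 J) (X' : RD M) (j : J) (w0 s : E3), M.Q j = (Q0 c).tr w0 →
          w0 + s = w → X'.B j ≤ Bn → X'.R j ≤ R0 →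
          ∀ (hk0 : (M.Q j).kc ≤ 3 + dk) (𝒦 : Set (Set E3)) (U : Set E3) (h𝒦 : 𝒦.Countable)
            (hU : U.Countable),
          ∑' c', ((QI M X' j (3 + dk) hk0).toPT 𝒦 U h𝒦 hU).EnC (Gd' D') p c' s ≤
            C4 * (ENNReal.ofReal Kq * (1 + ENNReal.ofReal η ^ (1 / p))) ^ p * ‖lin (A c)‖ₑ ^ p *
              volume ((Q0 c).N \ (Q0 c).Kc) +
            8 * (K3 p (Mfb_290.nE Bn R0) 2 1 1 181 * (‖lin (A c)‖ₑ ^ p *
              ∫⁻ z in Sx F A lam θ κ3 c, ‖(D' z).comp (lin (A c).symm)‖ₑ ^ p)) := by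
  have hκ00 : 0 < κ0 := by linarith
  have hlp' : ∀ c ∈ X, 0 < (1 + θ) * lam c := fun c hc => mul_pos (by linarith) (hlc c hc)
  have hasp : ∀ c : F, ∀ k, c.1.sz ≤ κ0 * c.1.side k := fun c => bf.asp c.1 c.2
  have hszp : ∀ c : F, 0 < c.1.sz := fun c => Bx.sz_pos (bf.pos c.1 c.2)
  have hsdp : ∀ (c : F) k, 0 < c.1.side k := fun c k => Bx.side_pos (bf.pos c.1 c.2) k
  have hin : ∀ c : X, ∀ y ∈ (Q0 c).N, y ∉ interior (Q0 c).Kc → ∀ v : E3,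
      (∀ k, |lin (A c) v k| ≤ β * ((1 + θ) * lam c * c.1.1.side k)) →
      y + v ∈ Sx F A lam θ κ3 c := by
    intro c y hy hyK v hv
    have hBk := (hQ0 c c.2).1
    refine Exg_766.tile_sub (S := {y}) (t := 2 * β) (κ4 := κ3 / 4) (bf.pos c.1.1 c.1.2)
      (hlc c c.2) ?_ ?_ (fun k => ?_) (by linarith) hθ (ar1 hθ hb5 hθ16) y (mem_singleton y)
    · rw [singleton_subset_iff]
      exact hBk.N hy
    · rw [disjoint_singleton_left]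
      have h3 := hBk.Kc
      rw [h3] at hyK
      exact hyK
    · refine (hv k).trans (le_of_eq ?_)
      ring
  refine ⟨fun c y hy => ?_, fun c => ?_⟩
  · have h1 := hin c y hy.1 (fun h => hy.2 (interior_subset h)) 0 (fun k => by
      rw [map_zero, Pi.zero_apply, abs_zero]
      have := hsdp c.1 k
      have := hlp' c c.2
      positivity)
    rwa [add_zero] at h1
  · have hBk := (hQ0 c c.2).1
    have hNb := (hQ0 c c.2).2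
    have hl0 := hlp' c c.2
    have hs0 := hszp c.1
    have hsl : 0 < (1 + θ) * lam c * c.1.1.sz := mul_pos hl0 hs0
    obtain ⟨e1, e2⟩ := hN (Q0 c) (3 + dk) (hkc c) (by rw [hBk.kc]) (fun i q hq l =>
      (hBk.bnd i q hq l).trans (by exact_mod_cast le_max_left _ _)) (fun i hi v hv w hw l =>
      (hBk.size i hi v hv w hw l).trans ((Nat.le_ceil R0).trans (by exact_mod_cast le_max_right _ _)))
      (fun l => by exact_mod_cast hNb l)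
    have hm1 : (1:ℝ) ≤ m := by exact_mod_cast hm
    have k1 : 4 * ((1 + θ) * lam c * c.1.1.sz) * (1 / 2 ^ (3 + dk)) ≤
        m * (ρ0 * ((1 + θ) * lam c * c.1.1.sz)) := by
      have h1 : (1 / 2 : ℝ) ^ dk = 1 / 2 ^ dk := by rw [div_pow, one_pow]
      have h2 : (1:ℝ) / 2 ^ (3 + dk) = (1 / 8) * (1 / 2 : ℝ) ^ dk := by
        rw [pow_add, h1, ← one_div_mul_one_div]
        norm_num
      rw [h2]
      calc 4 * ((1 + θ) * lam c * c.1.1.sz) * ((1 / 8) * (1 / 2 : ℝ) ^ dk)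
          ≤ 4 * ((1 + θ) * lam c * c.1.1.sz) * ((1 / 8) * ρ0) := by gcongr
        _ = (1 / 2) * (ρ0 * ((1 + θ) * lam c * c.1.1.sz)) := by ring
        _ ≤ m * (ρ0 * ((1 + θ) * lam c * c.1.1.sz)) :=
            mul_le_mul_of_nonneg_right (by linarith) (by positivity)
    have k2 : ∀ k, (1 + 2 * (κ3 / 4)) * ((1 + θ) * lam c) * c.1.1.side k / 2 +
        ρ0 * ((1 + θ) * lam c * c.1.1.sz) ≤
        (1 + 2 * (3 / 4 * κ2)) * ((1 + θ) * lam c) * c.1.1.side k / 2 := by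
      intro k
      have h1 := hasp c.1 k
      have h2 : ρ0 * ((1 + θ) * lam c * c.1.1.sz) ≤ β * ((1 + θ) * lam c * c.1.1.side k) := by
        calc ρ0 * ((1 + θ) * lam c * c.1.1.sz) ≤ ρ0 * ((1 + θ) * lam c * (κ0 * c.1.1.side k)) := by
              gcongr
          _ = (ρ0 * κ0) * ((1 + θ) * lam c * c.1.1.side k) := by ring
          _ = _ := by rw [hρβ]
      have h3 : 0 < (1 + θ) * lam c * c.1.1.side k := mul_pos hl0 (hsdp c.1 k)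
      have h4 := ar2 (κ4 := κ3 / 4) hκ3' rfl hb4 hκ2 h3
      calc (1 + 2 * (κ3 / 4)) * ((1 + θ) * lam c) * c.1.1.side k / 2 +
            ρ0 * ((1 + θ) * lam c * c.1.1.sz)
          ≤ (1 + 2 * (κ3 / 4)) * ((1 + θ) * lam c * c.1.1.side k) / 2 +
            β * ((1 + θ) * lam c * c.1.1.side k) := by
            refine add_le_add (le_of_eq (by ring)) h2
        _ ≤ _ := h4
        _ = _ := by ring
    have k3 : (NC : ℝ) * (κ1 * ((1 + θ) * lam c * c.1.1.sz) ^ 3) ≤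
        (1 / 4) * η * (ρ0 * ((1 + θ) * lam c * c.1.1.sz)) ^ 3 := by
      calc (NC : ℝ) * (κ1 * ((1 + θ) * lam c * c.1.1.sz) ^ 3)
          = (NC * κ1) * ((1 + θ) * lam c * c.1.1.sz) ^ 3 := by ring
        _ ≤ ((1 / 4) * η * ρ0 ^ 3) * ((1 + θ) * lam c * c.1.1.sz) ^ 3 := by gcongr
        _ = _ := by ring
    obtain ⟨G, g1, g2, g3, g4⟩ := HE hO hSH (HG.ex c c.2) hm hBk (hkc c) (mul_pos hρ0 hsl) k1 k2 e1
      e2 hη (by positivity) k3 hD' hKq (HG.hS c c.2) (hd c) (fun y hy hyK v hv => by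
        obtain ⟨-, h2⟩ := Exg_766.wt_small (bf.pos c.1.1 c.1.2) (hasp c.1) (hlp' c c.2).le hρ0.le
          hκ00.le le_rfl hv
        rw [hρβ] at h2
        exact hin c y hy hyK v h2)
    refine ⟨G, g1, g3, fun w hw => ?_, g4⟩
    obtain ⟨h1, h2⟩ := Exg_766.wt_small (bf.pos c.1.1 c.1.2) (hasp c.1) (hlp' c c.2).le hρ0.le
      hκ00.le le_rfl (g2 hw)
    rw [hρβ] at h2
    exact ⟨h1, h2⟩

end

end Crest.Agent.R096.Eau_365
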