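import Crest.Agent.R096.Eau7_365

/-!
Row 96 (S0127), helper365.  **EAU8**: `PreX p` (PREMACH for `EA p`, bounded factor with exact cores).
-/

set_option autoImplicit false
set_option linter.style.longLine false
set_option linter.unusedSectionVars false
set_option linter.unusedVariables false
set_option maxHeartbeats 1600000

open MeasureTheory Set Filter Topology Metric
open scoped ENNReal NNReal

namespace Crest.Agent.R096.Eau_365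

open Crest.Agent.R096.Msh_715 Crest.Agent.R096.Mal_874
  Crest.Agent.R096.Msh_810 Crest.Agent.R096.Mfi_290
open Crest.Agent.R096.SkC1_961 (E3 Hom3 FoamD th)
open Crest.Agent.R096.Er_594 (SH3)
open Crest.Agent.R096.Bsp_628 Crest.Agent.R096.Brk5_582
open Crest.Agent.R096.Bxs_627 (ctr CoriE zz)
open Crest.Agent.R096.EaX_766 (lin cbx ExIn Kor RatA)
open Crest.Agent.R096.Exa_365 Crest.Agent.R096.Acc_365
open Crest.Agent.R096.Ls_222 (Edg ea ev eIn mem_eIn sgm_edg ev_ne)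
open Crest.Agent.R096.Pmc_112 (Gd' Kl)
open Crest.Agent.R096.PmcL_112 (KL ea_pushL KL_lt_top)
open Crest.Agent.R096.Eds_746 (EB card_EB core_sub_EB goodW_comp)
open Crest.Agent.R096.Mfa_880 (BxM NmB QU)
open Crest.Agent.R096.Pgn_112
open Crest.Agent.R096.Fns_360 (trA trA_apply trA_linear trA_sub)
open Crest.Agent.R96.Wm4_748 (K3 K3_ne_top)
open Crest.Agent.R96.Sg1_199 (li sgm)
open Crest.Agent.R96.EaP_899 (XD fX cm KQ KQ_nonneg)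
open Crest.Agent.R96.Pm_199 (Dec)
open Crest.Agent.R096.Wd_120 (CoreAt)
open Crest.Agent.R096.Eax_481 (lx words_eax eax_gen)
open Crest.Agent.R96.Gj_872 (Dy)
open Crest.Agent.R096.Exg_766 (XG Sx)

noncomputable section

theorem ar4 {β θ : ℝ} (hθ : 0 < θ) (h : β ≤ θ / 32) (h1 : θ ≤ 1 / 16) {l s : ℝ}
    (h3 : 0 ≤ l * s) : β * ((1 + θ) * l * s) ≤ θ * (l * s) / 2 := by
  have h4 : β * (1 + θ) ≤ θ / 2 := by nlinarith
  calc β * ((1 + θ) * l * s) = (β * (1 + θ)) * (l * s) := by ring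
    _ ≤ (θ / 2) * (l * s) := mul_le_mul_of_nonneg_right h4 h3
    _ = _ := by ring

theorem bd1 {a C4 k k' L V V' KK I I' q : ℝ≥0∞} (h4 : k ≤ k') (h2 : V ≤ V') (h1 : I ≤ q * I') :
    a * (C4 * k * L * V + 8 * (KK * (L * I))) ≤
      a * (8 * KK * q) * (L * I') + a * (C4 * k') * (L * V') := by
  calc a * (C4 * k * L * V + 8 * (KK * (L * I)))
      ≤ a * (C4 * k' * L * V' + 8 * (KK * (L * (q * I')))) := by gcongr
    _ = _ := by ring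

/-- **PREMACH for `EA p`** -/
theorem prex {p : ℝ} (hp : 1 ≤ p) : PreX p := by
  classical
  intro δ κ0 R c0 κ2 Md hδ hκ0 hR hc0 hcκ hκ2 hκ2' hMd C hC
  have hp0 : 0 < p := by linarith
  have hR0' : 0 < R := by linarith
  have hκ00 : 0 < κ0 := by linarith
  obtain ⟨Bn, R0, hBn, hR0, HB⟩ := Mdd_360.exists_bkX (R := R) (Md := Md) hR hMd
  obtain ⟨Cs, hCs0, hCs1, -⟩ := Cm_222.exists_Cs C Bn R0
  obtain ⟨C4, hC4, HE⟩ := block_en hp Bn hR0 hBn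
  obtain ⟨Kq, hKq⟩ : ∃ Kq : ℝ, Kq = KQ κ0 c0 := ⟨_, rfl⟩
  have hKq0 : 0 ≤ Kq := by rw [hKq]; exact KQ_nonneg hκ0
  obtain ⟨KK, hKK⟩ : ∃ KK : ℝ≥0∞, KK = K3 p (Mfb_290.nE Bn R0) 2 1 1 181 := ⟨_, rfl⟩
  have hKKt : KK ≠ ∞ := by rw [hKK]; exact K3_ne_top hp0.le (by norm_num)
  obtain ⟨a, ha⟩ : ∃ a : ℝ≥0∞, a = (ENNReal.ofReal Cs * Kl δ R) ^ p := ⟨_, rfl⟩
  have hat : a ≠ ∞ := by
    rw [ha]
    exact ENNReal.rpow_ne_top_of_nonneg hp0.le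
      (ENNReal.mul_ne_top ENNReal.ofReal_ne_top (Kl_ne_top δ R))
  obtain ⟨K5, hK5⟩ : ∃ K5 : ℝ≥0∞, K5 = a * (8 * KK * ENNReal.ofReal Kq ^ p) := ⟨_, rfl⟩
  have hK5t : K5 ≠ ∞ := by
    rw [hK5]
    exact ENNReal.mul_ne_top hat (ENNReal.mul_ne_top
      (ENNReal.mul_ne_top (by norm_num) hKKt)
      (ENNReal.rpow_ne_top_of_nonneg hp0.le ENNReal.ofReal_ne_top))
  obtain ⟨K6, hK6⟩ : ∃ K6 : ℝ≥0∞, K6 = a * (C4 * (ENNReal.ofReal Kq * 2) ^ p) := ⟨_, rfl⟩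
  have hK6t : K6 ≠ ∞ := by
    rw [hK6]
    exact ENNReal.mul_ne_top hat (ENNReal.mul_ne_top ENNReal.coe_ne_top
      (ENNReal.rpow_ne_top_of_nonneg hp0.le
        (ENNReal.mul_ne_top ENNReal.ofReal_ne_top (by norm_num))))
  obtain ⟨Kin, hKin⟩ : ∃ Kin : ℝ≥0∞, Kin = K5 * ENNReal.ofReal (4 ^ p) + K6 * 2 ^ (p - 1) :=
    ⟨_, rfl⟩
  have hKint : Kin ≠ ∞ := by
    rw [hKin]
    exact ENNReal.add_ne_top.2 ⟨ENNReal.mul_ne_top hK5t ENNReal.ofReal_ne_top,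
      ENNReal.mul_ne_top hK6t (ENNReal.rpow_ne_top_of_nonneg (by linarith) (by norm_num))⟩
  obtain ⟨C1, hC1⟩ := Enx_766.exists_C1 (a := a) (CO := COu p) (Ko := KL κ0 c0 p) (K := Kin) hat
    (COu_ne_top hp0.le) (KL_lt_top hp).ne hKint
  refine ⟨C1, ?_⟩
  intro κp κ1' E lam2 hκp hκp1 hκ1' hκ12 hE hlam2 θ hθ hθ2
  have hθ16 : (θ : ℝ) ≤ 1 / 16 := by linarith
  obtain ⟨κ3, hκ3, hκ3', hk3⟩ := Exg_766.exists_k3 hlam2 hκ2
  obtain ⟨κ, hKC⟩ := Eaz_663.exists_KC δ R c0 (κ0 := κ0) (κ2 := κ2 / 2) (lam1 := lam2)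
    (κm := κ1') hκ00 (by positivity) hlam2 hκ1'
  have hκ : 0 < κ := hKC.pos
  obtain ⟨m0, hm0, HB⟩ := HB (κ3 / 4) (by positivity)
  obtain ⟨m1, hm1⟩ := exists_nat_ge (R0 / (2 * κ))
  obtain ⟨m, hmm, hmR⟩ : ∃ m : ℕ, m0 ≤ m ∧ m1 ≤ m := ⟨max m0 m1, le_max_left _ _, le_max_right _ _⟩
  have hmpos : 0 < m := hm0.trans_le hmm
  have hmpos' : (0:ℝ) < m := by exact_mod_cast hmpos
  have hmη : R0 / (2 * m) ≤ κ := by
    have h1 : R0 / (2 * κ) ≤ m := hm1.trans (by exact_mod_cast hmR)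
    rw [div_le_iff₀ (by positivity)] at h1 ⊢
    linarith
  obtain ⟨Nb, HB⟩ := HB m hmm
  obtain ⟨κw, hκw, HW⟩ := words_eax hδ hκ0 hR hκp hc0 hlam2 hmpos
  obtain ⟨β, hβ, hb1, hb2, hb3, hb4, hb5⟩ := exists_beta hκ hκw hκ3 hκ2 hθ
  obtain ⟨ρ0, hρ0def⟩ : ∃ ρ0 : ℝ, ρ0 = β / κ0 := ⟨_, rfl⟩
  have hρ0 : 0 < ρ0 := by rw [hρ0def]; positivity
  have hρβ : ρ0 * κ0 = β := by rw [hρ0def]; field_simp
  have hρ1 : ρ0 ≤ β := by rw [hρ0def]; exact div_le_self hβ.le hκ0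
  obtain ⟨dk, hdk⟩ := exists_pow_lt_of_lt_one hρ0 (show (1 / 2 : ℝ) < 1 by norm_num)
  have hBs1 : 1 ≤ max Bn ⌈R0⌉₊ := hBn.trans (le_max_left _ _)
  obtain ⟨NC, HN⟩ := card_EB hBs1 (Nb : ℝ) (Nat.cast_nonneg _) dk
  obtain ⟨η, hη, hη1, hηw⟩ := exists_eta hp hκw
  obtain ⟨κE, hκE, HκE⟩ := Enx_766.exists_κ1E hKint hE hκ00
  obtain ⟨κK, hκK, HκK⟩ := Exg_766.exists_k1 hκ00 hκ2 (κ1' := κ) hκ hk3
  obtain ⟨κ1, hκ1, hc1, hc2, hc3, hc4, hc5⟩ := exists_k1f NC hκE hκK hκ hκw hη hρ0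
  refine ⟨κ1, hκ1, ?_⟩
  intro Om La f D hO hOb hOc hLa hLb hLc hSH o u hu F bf cmp hDy hst X hX A lam hlam hEx ε hε
  have hlc : ∀ c ∈ X, 0 < lam c := fun c hc => hc0.trans_le (hlam c hc).1
  have hlc' : ∀ c ∈ X, c0 ≤ (1 + (θ:ℝ)) * lam c := fun c hc => by
    nlinarith [(hlam c hc).1, hlc c hc]
  have hlp' : ∀ c ∈ X, 0 < (1 + (θ:ℝ)) * lam c := fun c hc => hc0.trans_le (hlc' c hc)
  have hasp : ∀ c : F, ∀ k, c.1.sz ≤ κ0 * c.1.side k := fun c => bf.asp c.1 c.2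
  have hszp : ∀ c : F, 0 < c.1.sz := fun c => Bx.sz_pos (bf.pos c.1 c.2)
  have hsdp : ∀ (c : F) k, 0 < c.1.side k := fun c k => Bx.side_pos (bf.pos c.1 c.2) k
  have HG : XG p Om f D o u κ0 κ1 κ2 κ3 κ θ F X A lam :=
    Exg_766.exg hLa hSH.homeo bf hκ00 hκ2 hκ2' hκ3 hκ3' (HκK κ1 hκ1 hc2) hθ hθ2 hc0
      (fun c hc => ⟨(hlam c hc).1, (hlam c hc).2.1⟩) hEx
  obtain ⟨z, H, hz, -, D', d1, d2, d3, d4, -, d6⟩ := ea_pushL hp hκ0 hc0 hcκ hO hLa hSH.homeo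
    hSH.vwd bf cmp X hX (lx (θ:ℝ) lam) hlc' (fun c hc => (hlam c hc).2.1.trans_lt hlam2)
    (N := ∅) measure_empty
  obtain ⟨Q0, hQ0⟩ := HB hLa bf cmp hu hDy X A (fun c => (1 + (θ:ℝ)) * lam c) fun c hc => by
    obtain ⟨q, hq⟩ := (hlam c hc).2.2
    exact ⟨hlp' c hc, ⟨(1 + θ) * q, by rw [hq]; push_cast; ring⟩, (hEx c hc).rat⟩
  have hkc : ∀ c : X, (Q0 c).kc ≤ 3 + dk := fun c => by rw [(hQ0 c c.2).1.kc]; omega
  have hdS : ∀ c : X, ∀ᵐ x, x ∈ Sx F A lam θ κ3 c → ∀ v, ‖D' x v‖ ≤ Kq * ‖D x v‖ := by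
    intro c
    rw [hKq]
    exact Enx_766.ae_dir bf hz d4 c.2 fun x hx => HG.vimg c c.2 x hx.1
  obtain ⟨hNS, hblk⟩ := blocks (Nb := Nb) (NC := NC) hp hκ0 hκ2 HE hκ3 hκ3' hθ hθ16 hβ
    hb3 hb4 hb5 hρ0 hρβ hdk
    hmpos HN hη hκ1 hc5 hO hSH bf hlc HG hQ0 hkc d1 hKq0 hdS
  choose G hG1 hG3 hG2 hG4 using hblk
  -- the mesh data
  obtain ⟨x, Rz, hInB, hRz, r, hr0, hr1, hgen⟩ := eax_gen hp hO hLa hSH hδ hκ0 hR0' bf cmp
    (τ1 := 2 * β) (τ := β) (κ4 := κ3 / 4) (m := m) (Bn := Bn) (R0 := R0)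
    hκ2' hκ1.le hKC hlam2 (by linarith) hβ (by linarith) (by linarith) hmpos hR0 hBn hmη
    (fun c hc => (hlam c hc).2.1) HG (fun c hc => (hQ0 c hc).1) H
  -- the pre-translations
  choose w' κd' hw1 hw2 hw3 using fun c : X => exists_w0 (hG3 c) (hr0 c) one_pos
  obtain ⟨w0, hw0⟩ : ∃ w0 : F → E3, ∀ c : X, w0 c = w' c :=
    ⟨fun c => if h : c ∈ X then w' ⟨c, h⟩ else 0, fun c => dif_pos c.2⟩
  have hwsm : ∀ c ∈ X, ‖lin (A c) (w0 c)‖ ≤ 2 * β * ((1 + (θ:ℝ)) * lam c * c.1.sz) ∧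
      ∀ k, |lin (A c) (w0 c) k| ≤ 2 * β * ((1 + (θ:ℝ)) * lam c * c.1.side k) := by
    intro c hc
    obtain ⟨s, hs1, hs2⟩ : ({s : E3 | ‖s‖ ≤ r ⟨c, hc⟩ ∧ w' ⟨c, hc⟩ + s ∈ G ⟨c, hc⟩}).Nonempty := by
      by_contra hcon
      rw [not_nonempty_iff_eq_empty] at hcon
      exact hw3 ⟨c, hc⟩ (by rw [hcon]; exact measure_empty)
    obtain ⟨g1, g2⟩ := hG2 ⟨c, hc⟩ _ hs2
    obtain ⟨g3, g4⟩ := hr1 ⟨c, hc⟩ s hs1
    have e1 : lin (A c) (w0 c) = lin (A c) (w' ⟨c, hc⟩ + s) - lin (A c) s := by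
      rw [map_add, add_sub_cancel_right]
      exact congrArg _ (hw0 ⟨c, hc⟩)
    have hT : 0 ≤ (1 + (θ:ℝ)) * lam c * c.1.sz := (mul_pos (hlp' c hc) (hszp c)).le
    constructor
    · rw [e1]
      refine (norm_sub_le _ _).trans ((add_le_add g1 g3).trans ?_)
      nlinarith [mul_le_mul_of_nonneg_right hρ1 hT]
    · intro k
      rw [e1, Pi.sub_apply]
      refine (abs_sub _ _).trans ((add_le_add (g2 k) (g4 k)).trans (le_of_eq ?_))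
      ring
  obtain ⟨M, Y, κd, Zd, m1, m2, m3, m4, m5, m6, m7, m8, m9, m10, m11⟩ := hgen w0
    (fun c hc => ⟨κd' ⟨c, hc⟩, by rw [hw0 ⟨c, hc⟩]; exact hw1 ⟨c, hc⟩⟩) hwsm
  have hk0 : ∀ j : X, (M.Q j).kc ≤ 3 + dk := fun j => by rw [m3]; exact hkc j
  obtain ⟨Gd, hGd⟩ : ∃ Gd : X → Set E3, Gd = fun c => {s : E3 | ‖s‖ ≤ r c ∧ w' c + s ∈ G c} :=
    ⟨_, rfl⟩
  have hGw : ∀ c : X, ∀ s ∈ Gd c, ‖s‖ ≤ r c ∧ w0 c + s ∈ G c := by
    intro c s hs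
    rw [hGd] at hs
    rw [hw0 c]
    exact hs
  have hGm : ∀ c : X, MeasurableSet (Gd c) := fun c => by
    rw [hGd]; exact measurable_Gd (hG1 c) (r c) (w' c)
  have hG0 : ∀ c : X, volume (Gd c) ≠ 0 := fun c => by rw [hGd]; exact hw3 c
  obtain ⟨B, hB⟩ : ∃ B : X → ℝ≥0∞, B = fun c : X => a *
      (C4 * (ENNReal.ofReal Kq * (1 + ENNReal.ofReal η ^ (1 / p))) ^ p * ‖lin (A c)‖ₑ ^ p *
        volume ((Q0 c).N \ (Q0 c).Kc) +
      8 * (K3 p (Mfb_290.nE Bn R0) 2 1 1 181 * (‖lin (A c)‖ₑ ^ p *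
        ∫⁻ z in Sx F A lam θ κ3 c, ‖(D' z).comp (lin (A c).symm)‖ₑ ^ p))) := ⟨_, rfl⟩
  have hfc : ContinuousOn f Om := by
    obtain ⟨-, -, -, -, -, h5, -⟩ := hSH.homeo
    exact h5
  have hwords := HW La Om hLa F bf cmp c0 X (lx (θ:ℝ) lam) z H f p hp hfc D κ1' (κ2 / 2)
    (by positivity) (fun c hc => ⟨hlc' c hc, (hlam c hc).2.1⟩) A (κ3 / 4) Bn R0 Q0
    (fun c hc => (hQ0 c hc).1) (fun _ => 3 + dk) hkc (ENNReal.ofReal η) ENNReal.ofReal_ne_top hηw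
    w0 M m2 m3 Gd
    (fun c v hv => goodW_comp (hG4 c _ (hGw c v hv).2).1
      (fun e : {e // e ∈ eIn ((Q0 c.1).T (3 + dk) (hkc c)) ((Q0 c.1).cix (3 + dk) (hkc c))} =>
        (⟨e.1, core_sub_EB (Q0 c.1) (3 + dk) (hkc c) e.2⟩ : EB (Q0 c.1) (3 + dk) (hkc c))))
    (fun c v hv y hy => by
      obtain ⟨h1, h2⟩ := hGw c v hv
      have h3 := (m10 c v h1 y hy).2.2
      have h4 := (hG2 c _ h2).1
      have hT : 0 ≤ (1 + (θ:ℝ)) * lam c * c.1.1.sz := (mul_pos (hlp' c c.2) (hszp c.1)).le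
      refine (add_le_add h3 h4).trans ?_
      rw [← add_mul]
      exact mul_le_mul_of_nonneg_right (by linarith) hT)
  have hGI := m11 p κp D' (fun _ => m) (fun _ => 3 + dk) hk0 Gd
    (fun j c => (ENNReal.ofReal Cs * Kl δ R) ^ p) B (fun j v hv => (hGw j v hv).1) hGm hG0 hwords
    (fun j s hs => by
      rw [ENNReal.tsum_mul_left, hB, ← ha]
      refine mul_le_mul' le_rfl ?_
      exact (hG4 j _ (hGw j s hs).2).2 M Y j (w0 j) s (by rw [m3]) rfl (m5 j).le (m6 j).le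
        (hk0 j) _ _ (Uni_663.KU_countable (QI M Y j (3 + dk) (hk0 j)))
        (countable_singleton 0))
  have hfin : ∫⁻ x in Om, ‖D' x‖ₑ ^ p ≠ ∞ := by
    refine ne_top_of_le_ne_top ?_ (d6 Om subset_rfl hO.measurableSet
      (fun c _ => Or.inl fun x hx _ => hx))
    exact ENNReal.mul_ne_top (KL_lt_top hp).ne hSH.energy
  have hOut := pre_gen hO hOc.nonempty hLa hδ hR0' hSH.homeo hSH d1 d3 hfin hp hκp hκp1
    (by positivity : 0 ≤ κ2 / 2) hκ12 (C := C) (fun 𝒦 => (hC 𝒦).le) (Cs := Cs)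
    (fun 𝒦 h => hCs1 𝒦 (Or.inl h)) (Cm := fun _ _ => Cs)
    (fun j c 𝒦 h => hCs1 𝒦 (Cm_222.qSh_LL Y j (m5 j).le (m6 j).le _ _ c h)) m2 hGI hε
    (εb := fun _ => 1) (fun _ => one_ne_zero)
  -- the shifts are small
  have hsm : ∀ c : X, ∀ s ∈ Gd c, ∀ k,
      |lin (A c) (w0 c + s) k| ≤ (θ:ℝ) * (lam c * c.1.1.side k) / 2 := by
    intro c s hs k
    have h1 := (hG2 c _ (hGw c s hs).2).2 k
    have h3 : 0 < lam c * c.1.1.side k := mul_pos (hlc c c.2) (hsdp c.1 k)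
    exact h1.trans (ar4 hθ hb5 hθ16 h3.le)
  have hZ : ∀ c : {c // c ∉ X}, ∀ y ∈ closedBall (Zd.x c) (7 / 8 * Zd.R c), ∀ j,
      c.1.1.lo j < f y j ∧ f y j < c.1.1.hi j := by
    intro c y hy j
    rw [m7, m8] at hy
    refine hInB c y (closedBall_subset_closedBall ?_ hy) j
    have := hRz c
    linarith
  -- the outer energy
  have hBx0 : ∀ j, (0 : E3) ∈ BxM M j := by
    intro j
    show ‖M.φ 0‖ ≤ M.r j
    rw [map_zero, norm_zero, m4]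
    exact (hr0 j).le
  have hI := Enx_766.outer_le bf (K := KL κ0 c0 p) (τ := β) (τ1 := 2 * β) (D := D) (D' := D')
    (A := A) hO hθ.le (fun c hc => (hlc c hc).le) d6 M m1 (Q0 := fun c : X => Q0 c)
    (w0 := fun c : X => w0 c) (fun c => by rw [m3]) (fun c => (hQ0 c c.2).1.Kc)
    (fun c => (hwsm c c.2).2) (fun c s hs => (hr1 c s (by rw [← m4]; exact hs)).2)
    (ar3 hθ hb5 hθ16 hβ)
    (fun c x hx => (m10 c 0 (by rw [norm_zero]; exact (hr0 c).le) x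
      (by rw [CB.mem_N_tr, sub_zero]; exact hx)).2.1)
    (Bx' := BxM M) hBx0 (fun j => subset_rfl)
  -- the inner energy
  have hB' : ∀ c : X, B c ≤
      K5 * (‖lin (A c)‖ₑ ^ p * ∫⁻ x in Sx F A lam θ κ3 c, ‖(D x).comp (lin (A c).symm)‖ₑ ^ p) +
      K6 * (‖lin (A c)‖ₑ ^ p * volume (Sx F A lam θ κ3 c)) := by
    intro c
    have h1 := Enx_766.dcomp_le (HG.hS c c.2) hKq0 hp0.le (hdS c) (lin (A c).symm)
    have h2 : volume ((Q0 c).N \ (Q0 c).Kc) ≤ volume (Sx F A lam θ κ3 c) := measure_mono (hNS c)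
    have h3 : (1 + ENNReal.ofReal η ^ (1 / p)) ≤ 2 := by
      refine (add_le_add le_rfl (ENNReal.rpow_le_one (?_ : ENNReal.ofReal η ≤ 1)
        (by positivity))).trans (le_of_eq one_add_one_eq_two)
      rw [← ENNReal.ofReal_one]
      exact ENNReal.ofReal_le_ofReal hη1
    have h4 : (ENNReal.ofReal Kq * (1 + ENNReal.ofReal η ^ (1 / p))) ^ p ≤
        (ENNReal.ofReal Kq * 2) ^ p := ENNReal.rpow_le_rpow (mul_le_mul' le_rfl h3) hp0.le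
    rw [hB, hK5, hK6]
    dsimp only
    rw [← hKK]
    exact bd1 h4 h2 h1
  have hin := Enx_766.inner_sum2 hp hSH hκ1.le bf.countable (fun c _ => bf.pos c.1 c.2)
    (fun c hc => (hlc c hc).le) (fun c _ => hasp c) hEx (S := Sx F A lam θ κ3) HG.hS HG.hSV
    HG.hSd HG.hSK (Fn := B) (K5 := K5) (K6 := K6) hB'
  rw [← hKin] at hin
  have hfinal := Enx_766.pre_energy (EEt := a * (COu p *
    ∫⁻ x in Om \ NmB M (BxM M), ‖D' x‖ₑ ^ p) + ∑' j, B j) (ε := 0) (by rw [add_zero]) hI hin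
    (HκE κ1 hκ1 hc1) hC1
  rw [add_zero, ha] at hfinal
  exact Adx_112.preMesh_of_gen le_rfl hOut (Q0 := fun c : X => Q0 c) (w0 := fun c : X => w0 c)
    (fun c => by rw [m3]) (fun c => (hQ0 c c.2).1.Kc) (fun c => rfl) hsm hZ hX hfinal

theorem prex_all : ∀ p : ℝ, 2 < p → PreX p := fun p hp => prex (by linarith)

end

end Crest.Agent.R096.Eau_365
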