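import Crest.Agent.R096.Eaz1_663
import Crest.Agent.R096.Mdd10_360
import Crest.Agent.R096.Exg1_766
import Crest.Agent.R096.Eau3_365
import Crest.Agent.R096.Mon1_664

/-!
# Row 96 (S0127), EaX (helper481), part 1: the MESH DATA of `EaX` for 112's `pre_gen`

**`eax_data`** : the rooms `r` are chosen before the pre-translations `w0`; for every dyadic small `w0`
the mesh data with the blocks `(Q0 c).tr (w0 c)`, rational data, position of the rooms, and (B1)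
(`Exact` and `FineX`) for every finer mesh data `M1`.
-/

set_option autoImplicit false
set_option linter.style.longLine false
set_option linter.unusedSectionVars false
set_option linter.unusedVariables false

open MeasureTheory Set Filter Topology Metric
open scoped ENNReal NNReal

namespace Crest.Agent.R096.Eax_481

open Crest.Agent.R096.Bsp_628 Crest.Agent.R096.Brk5_582
open Crest.Agent.R096.SkC1_961 (E3 FoamD Hom3)
open Crest.Agent.R096.EaX_766 (cbx lin)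
open Crest.Agent.R096.Bxs_627 (ctr CoriE fD zz)
open Crest.Agent.R096.Mal_874 Crest.Agent.R096.Msh_810 Crest.Agent.R096.Msh_715
open Crest.Agent.R096.Fns_360
open Crest.Agent.R096.Mdd_360
open Crest.Agent.R096.Eaz_663
open Crest.Agent.R096.Exg_766 (XG)
open Crest.Agent.R096.Eau_365 (BkX)
open Crest.Agent.R96.EaP_899 (fX XD cm)
open Crest.Agent.R96.Eam_466 (OX FineX InB)
open Crest.Agent.R96.EaCore_348 (exact_mono)

noncomputable section

variable {La Om : Set E3} {f : E3 → E3} {F : Set (Bx (Fin 3))} {δ κ0 R : ℝ} {X : Set F}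

/-- the final ratio of the core tiles -/
abbrev lx {F : Set (Bx (Fin 3))} (θ : ℝ) (lam : F → ℝ) : F → ℝ := fun c => (1 + θ) * lam c

/-- **(B1) of 112's `GenIn`** for the mesh data `M` -/
def B1 {c0 : ℝ} (bf : BoxFoam La F δ κ0) (cmp : Cmp F R) {lam : F → ℝ} {zc : F → E3}
    (H : XD bf c0 X lam zc) (f : E3 → E3) (κm κ2m : ℝ) (A : F → E3 ≃ᵃ[ℝ] E3)
    (x : {c // c ∉ X} → E3) (Rz : {c // c ∉ X} → ℝ) (M : MD E3 3 X) : Prop :=
  ∀ {k : X → ℕ} (hk : M.Sc k) (a : Fin 3 → ℝ) {v : X → E3} (hv : M.Adm v)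
    {ct0 : F → M.OIx hk a hv ⊕ Σ j, M.IIx hk a hv j},
    (∀ c : X, ct0 c.1 = Sum.inr ⟨c, M.core hk a hv c⟩) →
    (∀ c : X, Mbf_337.Exact (fX bf cmp H) (M.mesh hk a hv) f κm κ2m c.1
      (Sum.inr ⟨c, M.core hk a hv c⟩) (trA (A c) (v c)) (lam c) (zz c.1.1 (lam c))) ∧
    FineX (fX bf cmp H) (M.mesh hk a hv) f κm X ct0 x Rz

/-- **mesh data of EaX** -/
theorem eax_data (hOm : IsOpen Om) (hLa : IsOpen La) (hf : Hom3 f Om La) (hδ : 0 < δ)
    (hκ0 : 1 ≤ κ0) (hR : 0 < R) (bf : BoxFoam La F δ κ0) (cmp : Cmp F R)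
    {p c0 κ1 κ2 κ3 κ4 κm κ1' lam2 θ κ τ1 τ u R0 : ℝ} {o : E3} {m Bn : ℕ}
    {D : E3 → E3 →L[ℝ] E3} {A : F → E3 ≃ᵃ[ℝ] E3} {lam : F → ℝ}
    (h2 : κ2 ≤ 1 / 4) (h1 : 0 ≤ κ1) (hKC : KC δ κ0 R c0 (κ2 / 2) lam2 κm κ) (hlam2 : lam2 < 1)
    (hτ1 : 0 ≤ τ1) (hτ : 0 < τ) (hκs : κ1 + τ1 + τ ≤ κ) (h34 : κ4 + τ1 < κ3)
    (hm : 0 < m) (hR1 : 1 ≤ R0) (hB1 : 1 ≤ Bn) (hη : R0 / (2 * m) ≤ κ)
    (hlam : ∀ c ∈ X, (1 + θ) * lam c ≤ lam2)
    (G : XG p Om f D o u κ0 κ1 κ2 κ3 κ1' θ F X A lam) {Q0 : F → CB E3 3}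
    (hB : ∀ c ∈ X, BkX F c (A c) ((1 + θ) * lam c) κ4 m Bn R0 (Q0 c))
    {zc : F → E3} (H : XD bf c0 X (lx θ lam) zc)
    {fi : E3 → E3} (hfi : ∀ y ∈ Om, fi (f y) = y) (hfic : ContinuousOn fi La)
    {x : {c // c ∉ X} → E3} {Rz : {c // c ∉ X} → ℝ}
    (hx : ∀ c, x c ∈ Om ∧ f (x c) = zc c.1 ∧ 0 < Rz c) :
    ∃ r : X → ℝ, (∀ c, 0 < r c) ∧
      (∀ (c : X) (v : E3), ‖v‖ ≤ r c → ‖lin (A c) v‖ ≤ τ * ((1 + θ) * lam c * c.1.1.sz) ∧
        ∀ k, |lin (A c) v k| ≤ τ * ((1 + θ) * lam c * c.1.1.side k)) ∧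
      ∀ w0 : F → E3,
        (∀ c ∈ X, ∃ κ : ℕ, w0 c ∈ Crest.Agent.R96.Gj_872.Dy (ContinuousLinearEquiv.refl ℝ E3) κ) →
        (∀ c ∈ X, ‖lin (A c) (w0 c)‖ ≤ τ1 * ((1 + θ) * lam c * c.1.sz) ∧
          ∀ k, |lin (A c) (w0 c) k| ≤ τ1 * ((1 + θ) * lam c * c.1.side k)) →
        ∃ (M' : MD E3 3 X) (Y : RD M') (κd : X → ℕ),
          M'.φ = ContinuousLinearEquiv.refl ℝ E3 ∧ M'.D0.Om = Om ∧ M'.D0.C = 6 ∧
          (∀ y, M'.D0.ρ y ≤ 1) ∧ (M'.Q = fun c => (Q0 c.1).tr (w0 c.1)) ∧ M'.r = r ∧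
          (∀ j, Y.B j = Bn) ∧ (∀ j, Y.R j = R0) ∧
          (∀ j m, ∃ c : ℤ, 2 ^ κd j * (Y.d j : ℝ) * (M'.Q j).a' m = c) ∧
          (∀ c : X, cthickening (M'.r c) (M'.Q c).N ⊆
            A c ⁻¹' cbx c.1.1 ((1 + 2 * κ3) * ((1 + θ) * lam c))) ∧
          (∀ c : X, ∀ y ∈ M'.V c, y ∈ Om ∧ (∀ k, c.1.1.lo k < f y k ∧ f y k < c.1.1.hi k) ∧
            ‖f y - A c y‖ ≤ κ1 * ((1 + θ) * lam c * c.1.1.sz)) ∧
          ∀ M1 : MD E3 3 X, Finer M' M1 → ∀ Y1 : RD M1, (∀ j, Y1.R j = R0) →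
            B1 bf cmp H f κm (κ2 / 2) (fun c => trA (A c) (w0 c)) x Rz M1 := by
  have hf1 : ContinuousOn f Om ∧ MapsTo f Om La := by
    obtain ⟨g, h1, h2, h3, h4, h5, h6⟩ := hf
    exact ⟨h5, h1⟩
  have hκp := hKC.pos
  have hκm : 0 < κm := by linarith [hKC.m]
  have hlp := G.lpos
  obtain ⟨D0, hD1, hD2, hD3, hD4, hD5⟩ := exists_DatX hOm hLa hδ hR bf cmp H hf1.2 hf1.1 hfi hfic
    hx hκm (σ := fun _ => 1) (fun y y' => by have := dist_nonneg (x := y) (y := y'); linarith)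
    (fun _ => zero_le_one) (fun _ _ => one_pos) (C := 6) (by norm_num) 0
  obtain ⟨r, hr0, hr1, hr2, hr3, hr⟩ := md_genU hOm hf bf (b := fun c : X => c.1)
    Subtype.val_injective (A := fun c : X => A c) (lam := fun c : X => (1 + θ) * lam c)
    (fun c => hlp c c.2) (κ1 := κ1) (κ2 := κ3) (κ3 := κ4 + τ1) (τ := τ) h34 h1 hτ
    (fun c => G.gap3 c c.2) (fun c => G.cor3 c c.2) (D0 := D0) hD3 (by rw [hD1])
    (η := fun _ => 1) (fun _ => one_pos)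
  refine ⟨r, hr0, hr2, fun w0 hw0 hw => ?_⟩
  obtain ⟨M', g1, g2, g3, g4, g5, g6⟩ := hr (fun c : X => (Q0 c.1).tr (w0 c.1)) fun c =>
    n_tr_cbx (hB c c.2).N fun k => ((hw c c.2).2 k).trans (le_of_eq (by ring))
  have hOm' : M'.D0.Om = Om := by rw [g2, hD3]
  -- rational data
  choose Bm d hd hRt ha using fun c : X => (hB c c.2).rt
  choose κd hκd using fun c : X => hw0 c c.2
  choose cn hcn1 hcn2 using fun j : X => exists_cn M'.φ ((Q0 j.1).ψ)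
  obtain ⟨Y, hY1, hY2, hY3, hY4, hY5, hY6⟩ := exists_RD_tr M' (Q0 := fun c : X => Q0 c.1)
    (w0 := fun c : X => w0 c.1) g3 (κ0 := fun _ => 0) (κ := κd) (fun _ => Nat.zero_le _)
    (Bm := Bm) (d := d) hd (fun c => by rw [g1]; exact hRt c)
    (fun c l => by
      obtain ⟨z, hz⟩ := ha c l
      exact ⟨z, by rw [pow_zero, one_mul]; exact hz⟩)
    (fun c l => by rw [g1]; exact hκd c l) (fun _ => Bn) (fun _ => hB1)
    (fun c => (hB c c.2).bnd) (fun _ => R0) (fun _ => hR1) (fun c => (hB c c.2).size) hcn1 hcn2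
  -- the rooms
  have hV : ∀ c : X, ∀ y ∈ M'.V c, y ∈ A c ⁻¹' cbx c.1.1 ((1 + 2 * κ3) * ((1 + θ) * lam c)) := by
    intro c y hy
    have h9 : y ∈ cthickening (M'.r c) (M'.φ '' (M'.Q c).N) := hy
    rw [g1, refl_image] at h9
    exact g6 c h9
  have himg0 : ∀ (c : X), ∀ y ∈ A c ⁻¹' cbx c.1.1 ((1 + 2 * κ3) * ((1 + θ) * lam c)),
      y ∈ Om ∧ (∀ k, c.1.1.lo k < f y k ∧ f y k < c.1.1.hi k) ∧
        ‖f y - A c y‖ ≤ κ1 * ((1 + θ) * lam c * c.1.1.sz) := by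
    intro c y hy
    refine ⟨G.vsub c c.2 hy, G.vimg c c.2 y hy, (G.cor3 c c.2 y (Or.inr fun i => ?_)).2⟩
    exact (hy i).trans (le_of_eq (by ring))
  refine ⟨M', Y, κd, g1, hOm', by rw [g2, hD1], fun y => by rw [g2]; exact hD4 y, g3, g4,
    fun j => by rw [hY4], fun j => by rw [hY5], hY6, g6, fun c y hy => himg0 c y (hV c y hy), ?_⟩
  intro M1 hF1 Y1 hY1R k hkS a v hv ct0 hct0
  have hφ1 : M1.φ = ContinuousLinearEquiv.refl ℝ E3 := by rw [hF1.φ, g1]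
  have hQ1 : M1.Q = fun c : X => (Q0 c.1).tr (w0 c.1) := by rw [hF1.Q, g3]
  have hO1 : M1.φ ⁻¹' M1.D0.Om = Om := by
    rw [hφ1, hF1.Om, hOm']
    rfl
  have himg : Img M1 Om f A (lx θ lam) κ1 := by
    intro c y hy
    rw [hF1.r, hF1.Q] at hy
    obtain ⟨h10, h11, h12⟩ := himg0 c y (g6 c hy)
    exact ⟨h10, Bx.mem_set.2 fun i => ⟨(h11 i).1.le, (h11 i).2.le⟩, h12⟩
  have hsm : Sm M1 A (lx θ lam) τ := by
    intro c v hv
    rw [hF1.r, g4] at hv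
    exact hr2 c v hv
  have himg' := img_tr himg (w0 := w0) (τ := τ1) fun c => (hw c c.2).1
  have hsm' := sm_tr hsm w0
  have hcor' : ∀ c ∈ X, CoriE Om f (trA (A c) (w0 c)) c.1 (lx θ lam c) (κ1 + τ1)
      (3 / 4 * κ2 - τ1) := fun c hc => cor_tr' (G.cor c hc) (by
        have h9 := (hw c hc).1
        have e : κ1 + τ1 - κ1 = τ1 := by ring
        rw [e]
        exact h9) (fun k => by
        have h9 := (hw c hc).2 k
        have e : 3 / 4 * κ2 - (3 / 4 * κ2 - τ1) = τ1 := by ring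
        rw [e]
        exact h9)
  have hFin : ∀ y ∈ Om, FineS (fX bf cmp H) f κm (closedBall y (M1.D0.ρ y) ∩
      (Om ∩ offO f (OX X (lx θ lam) La fi x fun c => Rz c / 2))) := by
    intro y hy
    obtain ⟨-, h10⟩ := hD5 y hy
    refine h10.mono (inter_subset_inter_left _ (closedBall_subset_closedBall ?_))
    have h11 := hF1.ρ y
    rw [g2] at h11
    exact h11
  have hlx : ∀ c ∈ X, lx θ lam c ≤ lam2 := hlam
  have hm' : (0:ℝ) < m := by exact_mod_cast hm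
  have huA : ∀ c : X, ∃ uA : ℝ, 0 ≤ uA ∧ uA ≤ 4 / m * (lx θ lam c * c.1.1.sz) ∧
      ∀ x y, ‖A c y - A c x‖ ≤ uA * dist ((Q0 c.1).ψ x) ((Q0 c.1).ψ y) := fun c =>
    (hB c c.2).exists_uA hm
  choose uA hu0 hu1 hu2 using huA
  obtain ⟨hE, hFx⟩ := b1_gen hLa hδ hR bf cmp H hfi (κ1 := κ1 + τ1) (κ2 := 3 / 4 * κ2 - τ1)
    (τ := τ) (η := κ) (ε := κm) (by linarith) hτ.le (by linarith [hKC.k2]) (by linarith) (by
      have h9 := hKC.k8
      have h10 : (κ1 + τ1 + τ) * κ0 ≤ κ * κ0 := mul_le_mul_of_nonneg_right hκs (by linarith)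
      linarith) (fun c hc => by
      have h9 := hKC.lam
      have h10 : (κ1 + τ1 + τ) * κ0 ≤ κ * κ0 := mul_le_mul_of_nonneg_right hκs (by linarith)
      have h11 := hlx c hc
      have h12 := hlp c hc
      have h13 : (1 + 2 * ((κ1 + τ1 + τ) * κ0)) * lx θ lam c ≤ (1 + (1 - lam2) / 8) * lx θ lam c :=
        mul_le_mul_of_nonneg_right (by linarith) h12.le
      have h14 : (1 + (1 - lam2) / 8) * lx θ lam c ≤ (1 + (1 - lam2) / 8) * lam2 :=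
        mul_le_mul_of_nonneg_left h11 (by linarith)
      nlinarith) (A := fun c => trA (A c) (w0 c)) hcor' M1 hφ1 hO1 (fun c => by
        rw [hQ1]
        exact kc_tr (hB c c.2).Kc (w0 c)) himg' hsm' Y1
    (uA := uA) hu0 (fun c x y => by
        rw [hQ1]
        exact uA_tr (hu2 c) (w0 c) x y) (fun c => by
        rw [hY1R, hQ1]
        show uA c * (R0 / 2 ^ (Q0 c.1).kc) ≤ κ * c.1.1.sz
        rw [(hB c c.2).kc]
        have hs := Bx.sz_pos (bf.pos _ c.1.2)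
        have hl1 : lx θ lam c < 1 := H.hl1 c.1 c.2
        have h12 := hlp c c.2
        have h9 : uA c * (R0 / 2 ^ 3) ≤ 4 / m * (lx θ lam c * c.1.1.sz) * (R0 / 2 ^ 3) :=
          mul_le_mul_of_nonneg_right (hu1 c) (by positivity)
        have h10 : 4 / m * (lx θ lam c * c.1.1.sz) * (R0 / 2 ^ 3) =
            R0 / (2 * m) * (lx θ lam c * c.1.1.sz) := by
          field_simp
          ring
        have h11 : lx θ lam c * c.1.1.sz ≤ c.1.1.sz := by nlinarith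
        have h13 : R0 / (2 * m) * (lx θ lam c * c.1.1.sz) ≤ κ * c.1.1.sz :=
          mul_le_mul hη h11 (mul_nonneg h12.le hs.le) hκp.le
        linarith) (by
        have h9 := hKC.KI
        have h10 : Fns_360.KI δ κ0 R (cm κ0 c0) * (κ + 2 * (κ1 + τ1 + τ)) ≤
            |Fns_360.KI δ κ0 R (cm κ0 c0)| * (5 * κ) :=
          mul_le_mul (le_abs_self _) (by linarith) (by linarith) (abs_nonneg _)
        linarith) hFin hkS a hv hct0
  refine ⟨fun c => ?_, hFx⟩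
  have h9 := hE c
  have h10 := hKC.m
  have h11 := hKC.k2
  exact Crest.Agent.R096.Mon_664.exact_mono h9 (by linarith) (by linarith)

end

end Crest.Agent.R096.Eax_481
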