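import Crest.Agent.R096.Eax3_481
import Crest.Agent.R096.Enx1_766
import Crest.Agent.R096.Eau5_365
import Crest.Agent.R096.Mdd13_360
import Crest.Agent.R096.Ucm1_374
import Crest.Agent.R096.Pgn8_112

/-!
# Row 96 (S0127), EaX (helper481), part 4: the geometric and numerical facts of one block used by `preX`
-/

set_option autoImplicit false
set_option linter.style.longLine false
set_option linter.unusedSectionVars false
set_option linter.unusedVariables false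

open MeasureTheory Set Filter Topology Metric
open scoped ENNReal NNReal

namespace Crest.Agent.R096.Eax_481

open Crest.Agent.R096.Bsp_628 Crest.Agent.R096.Brk5_582
open Crest.Agent.R096.SkC1_961 (E3 FoamD Hom3)
open Crest.Agent.R096.Er_594 (SH3)
open Crest.Agent.R096.EaX_766 (cbx lin ExIn)
open Crest.Agent.R096.Exa_365 (GoodW Wt)
open Crest.Agent.R096.Bxs_627 (ctr CoriE fD zz)
open Crest.Agent.R096.Mal_874 Crest.Agent.R096.Msh_810 Crest.Agent.R096.Msh_715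
open Crest.Agent.R096.Ls_222 (eIn ea ev)
open Crest.Agent.R096.Fns_360
open Crest.Agent.R096.Mdd_360
open Crest.Agent.R096.Mbf_337 (Cores)
open Crest.Agent.R096.Mfa_880 (BxM QU NmB)
open Crest.Agent.R096.Acc_365 (K1 K2)
open Crest.Agent.R096.Eaz_663
open Crest.Agent.R096.Exg_766
open Crest.Agent.R096.Enx_766
open Crest.Agent.R096.Eds_746 (EB card_EB core_sub_EB goodW_comp)
open Crest.Agent.R096.Eau_365 (BkX PreMesh PreX Jx Tx block_en exists_w0 measurable_Gd)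
open Crest.Agent.R096.Pgn_112 (ZD GenIn GenOut WordsOk COu COu_ne_top pre_gen)
open Crest.Agent.R096.Pmc_112 (Gd' Kl)
open Crest.Agent.R096.PmcL_112 (KL KL_lt_top ea_pushL)
open Crest.Agent.R096.Wd_120 (CoreAt)
open Crest.Agent.R96.Pm_199 (Dec)
open Crest.Agent.R96.EaP_899 (fX XD cm KQ KQ_nonneg)
open Crest.Agent.R96.Eam_466 (InB)
open Crest.Agent.R96.Wm4_748 (K3 K3_ne_top)

noncomputable section

/-- the block bound in the form of `inner_sum2` -/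
theorem enB_le {p : ℝ} (hp : 1 ≤ p) {a C4 K3' kq η L vN vS ID' ID : ℝ≥0∞} (hη : η ≤ 1)
    (h1 : vN ≤ vS) (h2 : ID' ≤ kq ^ p * ID) :
    a * (C4 * (kq * (1 + η ^ (1 / p))) ^ p * L * vN + 8 * (K3' * (L * ID'))) ≤
      (a * (8 * (K3' * kq ^ p))) * (L * ID) + (a * (C4 * (kq * 2) ^ p)) * (L * vS) := by
  have h3 : η ^ (1 / p) ≤ 1 := ENNReal.rpow_le_one hη (by positivity)
  have h4 : 1 + η ^ (1 / p) ≤ 2 := by
    calc 1 + η ^ (1 / p) ≤ 1 + 1 := by gcongr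
      _ = 2 := by norm_num
  calc a * (C4 * (kq * (1 + η ^ (1 / p))) ^ p * L * vN + 8 * (K3' * (L * ID')))
      ≤ a * (C4 * (kq * 2) ^ p * L * vS + 8 * (K3' * (L * (kq ^ p * ID)))) := by gcongr
    _ = _ := by ring

section one

variable {p : ℝ} {Om La : Set E3} {f : E3 → E3} {D : E3 → E3 →L[ℝ] E3} {o : E3}
  {u κ0 κ1 κ2 κ3 κ1' θ δ : ℝ} {F : Set (Bx (Fin 3))} {X : Set F} {A : F → E3 ≃ᵃ[ℝ] E3}
  {lam : F → ℝ}

/-- the vectors of the large box of translations are small -/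
theorem wt_le (G : XG p Om f D o u κ0 κ1 κ2 κ3 κ1' θ F X A lam) (bf : BoxFoam La F δ κ0)
    (hκ0 : 1 ≤ κ0) {ρ0 τ : ℝ} (hρ0 : 0 < ρ0) (hρκ : ρ0 * κ0 = τ) {c : F} (hc : c ∈ X) {v : E3}
    (hv : v ∈ Wt (A c) (ρ0 * ((1 + θ) * lam c * c.1.sz))) :
    ‖lin (A c) v‖ ≤ τ * ((1 + θ) * lam c * c.1.sz) ∧
      ∀ k, |lin (A c) v k| ≤ τ * ((1 + θ) * lam c * c.1.side k) := by
  have h1 := wt_small (bf.pos _ c.2) (bf.asp _ c.2) (G.lpos c hc).le hρ0.le (by linarith) le_rfl hv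
  rw [hρκ] at h1
  refine ⟨h1.1.trans (mul_le_mul_of_nonneg_right ?_ ?_), h1.2⟩
  · rw [← hρκ]
    exact le_mul_of_one_le_right hρ0.le hκ0
  · exact (mul_pos (G.lpos c hc) (Bx.sz_pos (bf.pos _ c.2))).le

/-- the translated tiles lie in the collar `Sx` -/
theorem shift_Sx (G : XG p Om f D o u κ0 κ1 κ2 κ3 κ1' θ F X A lam) (bf : BoxFoam La F δ κ0)
    (hκ0 : 1 ≤ κ0) {ρ0 τ : ℝ} (hρ0 : 0 < ρ0) (hρκ : ρ0 * κ0 = τ) (t3 : τ ≤ κ3 / 8)
    (t4 : τ ≤ θ / 16) (hθ : 0 < θ) (hθ1 : θ ≤ 1) (hκ3 : 0 < κ3) {c : F} (hc : c ∈ X)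
    (hlc : 0 < lam c) {Q : CB E3 3}
    (hN : Q.N ⊆ A c ⁻¹' cbx c.1 ((1 + 2 * (κ3 / 4)) * ((1 + θ) * lam c)))
    (hK : Q.Kc = A c ⁻¹' cbx c.1 ((1 + θ) * lam c)) :
    ∀ y ∈ Q.N, y ∉ interior Q.Kc →
      ∀ v ∈ Wt (A c) (ρ0 * ((1 + θ) * lam c * c.1.sz)), y + v ∈ Sx F A lam θ κ3 c := by
  intro y hy hyK v hv
  refine tile_sub (S := {y}) (κ4 := κ3 / 4) (t := 2 * τ) (bf.pos _ c.2) hlc
    (singleton_subset_iff.2 (hN hy)) ?_ (fun k => ?_) (by linarith) hθ ?_ y rfl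
  · rw [disjoint_singleton_left]
    rw [hK] at hyK
    exact hyK
  · have h1 := (wt_le G bf hκ0 hρ0 hρκ hc hv).2 k
    linarith
  · nlinarith

/-- the blocks off the core lie in the collar `Sx` -/
theorem N_sub_Sx (G : XG p Om f D o u κ0 κ1 κ2 κ3 κ1' θ F X A lam) (bf : BoxFoam La F δ κ0)
    (hθ : 0 < θ) (hκ3 : 0 < κ3) {c : F} (hc : c ∈ X) (hlc : 0 < lam c) {Q : CB E3 3}
    (hN : Q.N ⊆ A c ⁻¹' cbx c.1 ((1 + 2 * (κ3 / 4)) * ((1 + θ) * lam c)))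
    (hK : Q.Kc = A c ⁻¹' cbx c.1 ((1 + θ) * lam c)) : Q.N \ Q.Kc ⊆ Sx F A lam θ κ3 c := by
  rintro y ⟨hy, hyK⟩
  have hQ := bf.pos _ c.2
  have hl := G.lpos c hc
  refine ⟨Crest.Agent.R096.Acc_365.cbx_mono hQ ?_ (hN hy), fun h => hyK ?_⟩
  · nlinarith
  · rw [hK]
    refine Crest.Agent.R096.Acc_365.cbx_mono hQ ?_ h
    nlinarith

/-- the first numerical hypothesis of `block_en` -/
theorem num1 (G : XG p Om f D o u κ0 κ1 κ2 κ3 κ1' θ F X A lam) (bf : BoxFoam La F δ κ0) {ρ0 : ℝ}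
    (hρ0 : 0 < ρ0) {dk m : ℕ} (hm : 0 < m) (hdk : 4 * (1 / 2 ^ (3 + dk)) ≤ ρ0) {c : F}
    (hc : c ∈ X) : 4 * ((1 + θ) * lam c * c.1.sz) * (1 / 2 ^ (3 + dk)) ≤
      m * (ρ0 * ((1 + θ) * lam c * c.1.sz)) := by
  have h1 : 0 < (1 + θ) * lam c * c.1.sz := mul_pos (G.lpos c hc) (Bx.sz_pos (bf.pos _ c.2))
  have h2 : (1:ℝ) ≤ m := by exact_mod_cast hm
  calc 4 * ((1 + θ) * lam c * c.1.sz) * (1 / 2 ^ (3 + dk))
      = (4 * (1 / 2 ^ (3 + dk))) * ((1 + θ) * lam c * c.1.sz) := by ring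
    _ ≤ ρ0 * ((1 + θ) * lam c * c.1.sz) := by gcongr
    _ ≤ m * (ρ0 * ((1 + θ) * lam c * c.1.sz)) := le_mul_of_one_le_left (by positivity) h2

/-- the second numerical hypothesis of `block_en` -/
theorem num2 (G : XG p Om f D o u κ0 κ1 κ2 κ3 κ1' θ F X A lam) (bf : BoxFoam La F δ κ0)
    {ρ0 τ : ℝ} (hρ0 : 0 < ρ0) (hρκ : ρ0 * κ0 = τ) (t3 : τ ≤ κ3 / 8) (hκ3 : 0 < κ3)
    (hκ3' : κ3 ≤ 3 / 4 * κ2) {c : F} (hc : c ∈ X) (k : Fin 3) :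
    (1 + 2 * (κ3 / 4)) * ((1 + θ) * lam c) * c.1.side k / 2 + ρ0 * ((1 + θ) * lam c * c.1.sz) ≤
      (1 + 2 * (3 / 4 * κ2)) * ((1 + θ) * lam c) * c.1.side k / 2 := by
  have h1 := bf.asp _ c.2 k
  have h2 := G.lpos c hc
  have h3 := Bx.side_pos (bf.pos _ c.2) k
  have h4 : ρ0 * ((1 + θ) * lam c * c.1.sz) ≤ τ * ((1 + θ) * lam c * c.1.side k) := by
    calc ρ0 * ((1 + θ) * lam c * c.1.sz) ≤ ρ0 * ((1 + θ) * lam c * (κ0 * c.1.side k)) := by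
          gcongr
      _ = ρ0 * κ0 * ((1 + θ) * lam c * c.1.side k) := by ring
      _ = _ := by rw [hρκ]
  have h5 : 0 < (1 + θ) * lam c * c.1.side k := mul_pos h2 h3
  have h6 : τ ≤ 3 / 4 * κ2 - κ3 / 4 := by linarith
  have h7 : τ * ((1 + θ) * lam c * c.1.side k) ≤
      (3 / 4 * κ2 - κ3 / 4) * ((1 + θ) * lam c * c.1.side k) := by gcongr
  linarith

/-- the third numerical hypothesis of `block_en` -/
theorem num3 {s ρ0 η N : ℝ} (hs : 0 ≤ s) (h : N * κ1 ≤ 1 / 4 * η * ρ0 ^ 3) :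
    N * (κ1 * s ^ 3) ≤ 1 / 4 * η * (ρ0 * s) ^ 3 := by
  have h1 : 0 ≤ s ^ 3 := by positivity
  calc N * (κ1 * s ^ 3) = (N * κ1) * s ^ 3 := by ring
    _ ≤ (1 / 4 * η * ρ0 ^ 3) * s ^ 3 := by gcongr
    _ = _ := by ring

end one

end

end Crest.Agent.R096.Eax_481
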