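import Crest.Agent.R096.Eaz1_663
import Crest.Agent.R096.Gz3_222
import Crest.Agent.R096.Pth3_561
import Crest.Agent.R096.Wd19_120
import Crest.Agent.R096.Ucm1_374
import Crest.Agent.R096.Pgn6_112

/-!
# Row 96 (S0127), EA0 (helper663), part 2: the INPUT of 112's `pre_gen` for `Pre0 p`

`genIn0` : all constants of `Pre0` and the instance of `GenIn` (mesh data `Eaz1`, zones `Pth3_561`, good sets
`Gz3_222`, words `Wd19_120`).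
-/

set_option autoImplicit false
set_option linter.style.longLine false
set_option linter.unusedSectionVars false

open MeasureTheory Set Filter Topology Metric
open scoped ENNReal NNReal

namespace Crest.Agent.R096.Eaz_663

open Crest.Agent.R096.Bsp_628 Crest.Agent.R096.Brk5_582 Crest.Agent.R096.Brk1_582
open Crest.Agent.R096.Brk2_582 Crest.Agent.R096.Brk3_582
open Crest.Agent.R096.SkC1_961 (E3 FoamD Hom3)
open Crest.Agent.R096.EaX_766 (cbx lin Kor)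
open Crest.Agent.R096.Bxs_627 (ctr CoriE fD zz)
open Crest.Agent.R096.Mal_874 Crest.Agent.R096.Msh_810 Crest.Agent.R096.Msh_715
open Crest.Agent.R096.Fns_360
open Crest.Agent.R096.Ea0_961
open Crest.Agent.R096.Mdd_360
open Crest.Agent.R096.Zlt_798
open Crest.Agent.R096.Er_594 (SH3)
open Crest.Agent.R096.Der_764 (OmH)
open Crest.Agent.R096.Ls_222 (Edg ea ev eIn)
open Crest.Agent.R096.Mfi_290 (qSh Pt)
open Crest.Agent.R096.Mfa_880 (NmB BxM QU)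
open Crest.Agent.R096.Pmc_112 (Gd' Kl)
open Crest.Agent.R096.Pgn_112
open Crest.Agent.R96.Push_899
open Crest.Agent.R96.EaP_899 (fX XD cm KQ)
open Crest.Agent.R96.Eam_466 (OX FineX InB TLAt)
open Crest.Agent.R96.Sob4_199 (VWD)
open Crest.Agent.R96.En10_199 (P3)
open Crest.Agent.R96.Acl_392 (ACLat)
open Crest.Agent.R96.EaCore_348 (exact_mono EE)
open Crest.Agent.R96.Ea0p_348 (Jn Sn Ln PreMesh0 Pre0)

noncomputable section

/-- **the input of `pre_gen` for `EA0 p`, with all constants of `Pre0`** -/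
theorem genIn0 {p : ℝ} (hp : 1 ≤ p) (hp3 : p < 3) (δ κ0 R c0 κ2 Cc : ℝ) (Bs : ℕ) (hδ : 0 < δ)
    (hκ0 : 1 ≤ κ0) (hR : 1 ≤ R) (hc0 : 0 < c0) (hcκ : c0 * κ0 ≤ 1) (hκ2 : 0 < κ2) (hκ24 : κ2 ≤ 1 / 4)
    (hCc : 1 ≤ Cc) (hBs : 1 ≤ Bs) (C : Set (Set E3) → ℝ) :
    ∃ (CK : ℝ) (C1g C2 : ℝ≥0), (∀ 𝒦 ∈ simL (N0 3) 1 2, C 𝒦 ≤ CK) ∧
    ∀ κp κm τ lam1 : ℝ, 0 < κp → 0 < κm → 0 < τ → lam1 < 1 →
    ∃ κ1 : ℝ, 0 < κ1 ∧ ∃ M0 : ℕ, ∀ M : ℕ, M0 ≤ M →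
    ∃ κw : ℝ, 0 < κw ∧ ∀ Nn : ℕ, ∃ (CAg : ℝ≥0) (κt : ℝ), 0 < κt ∧ κt ≤ τ ∧
    ∀ (Om La : Set E3) (f : E3 → E3) (D : E3 → E3 →L[ℝ] E3), IsOpen Om → IsOpen La →
      SH3 p Om La f D →
    ∀ (u : ℝ), 0 < u →
    ∀ (F : Set (Bx (Fin 3))) (bf : BoxFoam La F δ κ0) (cmp : Cmp F R),
    ∀ (X : Set F) (A : F → E3 ≃ᵃ[ℝ] E3) (lam : F → ℝ) (Q : F → CB E3 3) (k0 : F → ℕ)
      (hk : ∀ c, (Q c).kc ≤ k0 c) (er : F → ℝ≥0∞),
      (∀ c ∈ X, c0 ≤ lam c ∧ lam c ≤ lam1) →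
      (∀ c ∈ X, Blk F u Cc κ2 κt Bs M Nn c (A c) (lam c) (Q c) (k0 c) (hk c)) →
      (∀ c ∈ X, InS p Om f D Cc κ1 κ2 κw M c.1 (A c) (lam c) (er c) (Q c) (k0 c) (hk c)) →
    ∃ (zc : F → E3) (H : XD bf c0 X lam zc) (D' : E3 → E3 →L[ℝ] E3) (M' : MD E3 3 X) (Y : RD M')
      (k0' : X → ℕ) (hk0' : ∀ j, (M'.Q j).kc ≤ k0' j) (κr : X → ℕ) (Gd : X → Set E3)
      (Zd : ZD F X),
      (∀ v, Measurable fun y => D' y v) ∧
      (∀ l, VWD (OmH (fX bf cmp H) f Om) volume (fun x => P3 ((fX bf cmp H).Psi (f x)))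
        (fun x => P3 (D' x (Pi.single l 1))) (Pi.single l (1:ℝ))) ∧
      (∫⁻ x in Om, ‖D' x‖ₑ ^ p ≠ ∞) ∧
      (∀ j c, ∀ 𝒦 ∈ qSh M' Y j (k0' j) (hk0' j) c, C 𝒦 ≤ CK) ∧
      M'.φ ⁻¹' M'.D0.Om = Om ∧
      (∀ j : X, M'.Q j = Q j) ∧ (∀ j : X, k0' j = k0 j) ∧
      GenIn (fX bf cmp H) f D' p κp κm (κ2 / 2) X A lam (fun c => zz c.1 (lam c)) (fun _ => M) M' Y
        k0' hk0' κr (fun j : X => Tw (Q j) (k0 j)) Gd
        (fun _ _ => (ENNReal.ofReal CK * Kl δ R) ^ p)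
        (fun c : X => C1g * (Sn p F A lam Q c + er c) + CAg * Ln p D F Q k0 c) Zd ∧
      (∀ j : X, Gd j ⊆ Tw (Q j) (k0 j)) ∧
      (∀ c, 0 < Zd.R c) ∧
      (∀ c : {c // c ∉ X}, ∀ y ∈ closedBall (Zd.x c) (2 * Zd.R c),
        ∀ j, c.1.1.lo j < f y j ∧ f y j < c.1.1.hi j) ∧
      (ENNReal.ofReal CK * Kl δ R) ^ p * (COu p *
        ∫⁻ x in Om \ NmB M' (fun j : X => Tw (Q j) (k0 j)), ‖D' x‖ₑ ^ p) ≤
          C2 * (Jn p Om D F X Q + ∑' c : X, Ln p D F Q k0 c) := by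
  classical
  obtain ⟨CK, hCK1, hCK⟩ := Ucm1_374.exists_bound C Bs (Bs : ℝ)
  obtain ⟨C1g, HGz⟩ := Gz_222.good_sets_W hp hp3.le c0 δ R CK hκ0 hCc hBs
  obtain ⟨C2, HO⟩ := Gz_222.outer0 hp κ0 c0 δ R CK
  refine ⟨CK, C1g, C2, fun 𝒦 h => hCK 𝒦 (Or.inl h), ?_⟩
  intro κp κm τ lam1 hκp hκm hτ hlam1
  obtain ⟨κ, hKC⟩ := exists_KC δ R c0 (κ0 := κ0) (by linarith) hκ2 hlam1 hκm
  have hκ := hKC.pos
  refine ⟨κ, hκ, ⌈max (Bs * Cc / κ) (κ0 / κ2)⌉₊ + 1, ?_⟩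
  intro M hM0
  have hM : 0 < M := by omega
  have hMr : (0 : ℝ) < M := by exact_mod_cast hM
  have hMx : max (Bs * Cc / κ) (κ0 / κ2) ≤ M := by
    refine (Nat.le_ceil _).trans ?_
    exact_mod_cast (Nat.le_succ _).trans hM0
  have hMB : (Bs : ℝ) * Cc ≤ κ * M := by
    have h1 := (le_max_left _ _).trans hMx
    rw [div_le_iff₀ hκ] at h1
    linarith
  have hMm : κ0 ≤ κ2 * M := by
    have h1 := (le_max_right _ _).trans hMx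
    rw [div_le_iff₀ hκ2] at h1
    linarith
  obtain ⟨κw, hκw, HW⟩ := Wd_120.b2_in hδ hκ0 hR hκp hc0 hlam1 hM
  refine ⟨κw, hκw, ?_⟩
  intro Nn
  obtain ⟨CAg, HG⟩ := HGz Nn
  obtain ⟨K, hK1, hK⟩ := exists_K_net (ContinuousLinearEquiv.refl ℝ E3) Nn
  set τ' := κ / κ0 with hτ'
  have hκ0' : 0 < κ0 := by linarith
  have hτ'0 : 0 < τ' := by positivity
  have hK0 : 0 < K := by linarith
  have hCc0 : 0 < Cc := by linarith
  set κt := min (min τ κw) (min (5 * τ' / K ^ 2) (min (1 / 40) (1 / (2 * Cc)))) with hκt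
  have hκt0 : 0 < κt := by
    refine lt_min (lt_min hτ hκw) (lt_min (by positivity) (lt_min (by norm_num) (by positivity)))
  have t1 : κt ≤ τ := (min_le_left _ _).trans (min_le_left _ _)
  have t2 : κt ≤ κw := (min_le_left _ _).trans (min_le_right _ _)
  have t3 : κt ≤ 5 * τ' / K ^ 2 := (min_le_right _ _).trans (min_le_left _ _)
  have t4 : κt ≤ 1 / 40 := (min_le_right _ _).trans ((min_le_right _ _).trans (min_le_left _ _))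
  have t5 : κt ≤ 1 / (2 * Cc) :=
    (min_le_right _ _).trans ((min_le_right _ _).trans (min_le_right _ _))
  have t6 : K ^ 2 * κt ≤ 5 * τ' := by
    rw [le_div_iff₀ (by positivity)] at t3
    linarith
  have t7 : κt * Cc < 1 := by
    rw [le_div_iff₀ (by positivity)] at t5
    linarith
  refine ⟨CAg, κt, hκt0, t1, ?_⟩
  intro Om La f D hOm hLa hSH u hu F bf cmp X A lam Q k0 hk er hlam hB hI
  have hl : ∀ c ∈ X, c0 ≤ lam c := fun c hc => (hlam c hc).1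
  have hl1 : ∀ c ∈ X, lam c < 1 := fun c hc => (hlam c hc).2.trans_lt hlam1
  obtain ⟨zc, H, hz, -, D', hDm, -, hDv, hDle, -, hDS⟩ := PmcL_112.ea_pushL hp hκ0 hc0 hcκ hOm hLa
    hSH.homeo hSH.vwd bf cmp X (Or.inl hp3) lam hl hl1 (N := ∅) measure_empty
  obtain ⟨x₀, hx₀⟩ := Pth_561.exists_x0 hSH.homeo H
  obtain ⟨R₀, a1, -, a3, a4, a5, a6, a7⟩ := Pth_561.exists_R0 hp hOm hLa hSH bf cmp H hx₀ hκm
    (η := fun _ => 1) (fun _ => one_pos)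
  obtain ⟨fi, hf1, hf2, hf3, hf4, hf5, hf6⟩ := id hSH.homeo
  have hKQ : ∀ c ∈ X, ∀ y, ‖(Q c).ψ y‖ ≤ K * ‖y‖ ∧ ‖y‖ ≤ K * ‖(Q c).ψ y‖ := by
    intro c hc
    obtain ⟨d, B, n1, n2, n3, n4, -⟩ := (hB c hc).net
    exact hK _ d B n1 n2 n3 n4
  obtain ⟨M₁, Y, κd, b1, b2, b3, b4, b5, b6, b7, b8, b9, b10, b11, Zb, b13⟩ := ea0_data hOm hLa
    hSH.homeo hδ hκ0 (by linarith) bf cmp hκ24 hKC hlam1 hτ'0 (by rw [hτ', div_mul_cancel₀ _ hκ0'.ne'])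
    hBs hMB hM hu hK1 t6 hKQ hlam hB hI H hf3 hf6 (x := x₀) (Rz := R₀)
    (fun c => ⟨(hx₀ c).1, (hx₀ c).2, a1 c⟩) a3 a4 a5 a6
  obtain ⟨Zd, e1, e2, -, e4, e5, e6, e7, e8, e9⟩ := Pth_561.exists_zd (Φ := fX bf cmp H) (X := X) Zb b2
    (a7 R₀ fun c => ⟨a1 c, le_rfl⟩).2 (fun _ => 0)
  have hkM : ∀ j : X, (M₁.Q j).kc ≤ k0 j := fun j => by rw [b5]; exact hk j
  obtain ⟨Gd, hG⟩ := HG bf X A lam Q k0 hk er hu hκt0.le t4 t7 hκ2 hκ.le hlam1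
    (fun c hc => ⟨hc0.trans_le (hl c hc), (hlam c hc).2⟩)
    (Gz_222.mz_of_kc hKC hκ0'.le hCc hBs hM hMB hMm) hB hI zc hz D' hDm hDle
    (fun c v => ∀ e ∈ eIn ((Q c).T (k0 c) (hk c)) ((Q c).cix (k0 c) (hk c)), ∀ k,
      ACLat Om (fun y => f y k) (fun y => D y (ev e) k) (ev e) (ea e + v))
    (fun c => (Wd_120.ae_acl_core hOm hSH (Q c) (k0 c) (hk c)).mono fun v hv _ => hv)
    (zn Zb.zn Zd.k) (znRD Zb.zn Zd.k Y) (fun c => by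
      show M₁.Q c = Q c
      rw [b5]) hkM
  have hQ : ∀ j : X, (zn Zb.zn Zd.k).Q j = Q j := fun j => by
    show M₁.Q j = Q j
    rw [b5]
  have hbr : ∀ c ∈ X, ∀ x ∈ (Q c).N, x ∈ Om ∧ (∀ k, c.1.lo k < f x k ∧ f x k < c.1.hi k) := by
    intro c hc x hx
    obtain ⟨h1, h2, -⟩ := b11 ⟨c, hc⟩ x (self_subset_cthickening _ hx)
    exact ⟨h1, h2⟩
  refine ⟨zc, H, D', zn Zb.zn Zd.k, znRD Zb.zn Zd.k Y, fun j => k0 j, hkM, κd, Gd, Zd, hDm, hDv, ?_, ?_,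
    e4, hQ, fun _ => rfl, ?_, fun j => (hG j).2.1, ?_, ?_, ?_⟩
  · exact ne_top_of_le_ne_top (ENNReal.mul_ne_top (PmcL_112.KL_lt_top hp).ne hSH.energy)
      (hDS Om subset_rfl hOm.measurableSet fun c _ => Or.inl fun x hx _ => hx)
  · intro j c 𝒦 h
    exact hCK 𝒦 (Ucm1_374.qSh_LB (znRD Zb.zn Zd.k Y) j (k0 j) (hkM j) (b6 j).le (b7 j).le c h)
  · refine ⟨b1, fun j s hs => ?_, fun j => (hG j).2.1, fun j => (hG j).1, fun j => (hG j).2.2.1, b8,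
      ?_, ?_, ?_, fun j s hs => ((hG j).2.2.2 s hs).2.2, e5, e6, e7, e8, e9⟩
    · show ‖M₁.φ s‖ ≤ M₁.r j
      rw [b1]
      exact b9 j s hs
    · intro k hkS a v hv hvG c
      set ct0 : F → (zn Zb.zn Zd.k).OIx hkS a hv ⊕ Σ j, (zn Zb.zn Zd.k).IIx hkS a hv j := fun c' =>
        if h : c' ∈ X then Sum.inr ⟨⟨c', h⟩, (zn Zb.zn Zd.k).core hkS a hv ⟨c', h⟩⟩
        else Sum.inr ⟨c, (zn Zb.zn Zd.k).core hkS a hv c⟩ with hct
      have h1 : ∀ c' : X, ct0 c'.1 = Sum.inr ⟨c', (zn Zb.zn Zd.k).core hkS a hv c'⟩ := fun c' => by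
        rw [hct]
        exact dif_pos c'.2
      exact (b13 (zn Zb.zn Zd.k) (finer_zn Zb.zn Zd.k) (znRD Zb.zn Zd.k Y) b7 hkS a hv h1).1 c
    · intro k hkS a v hv hvG ct0 hct0
      have h1 := (b13 (zn Zb.zn Zd.k) (finer_zn Zb.zn Zd.k) (znRD Zb.zn Zd.k Y) b7 hkS a hv hct0).2
      rw [e1, e2]
      exact h1
    · intro v hvG D0 hC hD
      have hfc : ContinuousOn f ((zn Zb.zn Zd.k).φ ⁻¹' (zn Zb.zn Zd.k).D0.Om) :=
        (congrArg (fun S => ContinuousOn f S) e4).mpr hf5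
      refine HW La _ hLa F bf cmp c0 X lam zc H f hfc D u κm (κ2 / 2) κ2 κw κt (κp / 64) Cc Bs Nn
        hu.le hκw.le le_rfl t2 (by positivity) A Q k0 hk hlam hB ?_ v (fun c => (hG c).2.1 (hvG c))
        ?_ ?_ D0 hC ?_
      · intro c hc
        exact (hI c hc).gam
      · intro c
        exact ((hG c).2.2.2 (v c) (hvG c)).2.1.a2
      · intro c
        have h1 := ((hG c).2.2.2 (v c) (hvG c)).1
        exact fun e he k => (congrArg (fun S => ACLat S (fun y => f y k) (fun y => D y (ev e) k) (ev e)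
          (ea e + v c)) e4).mpr (h1 e he k)
      · intro c
        have h1 := hD c
        rw [hQ c] at h1
        exact h1
  · intro c
    rw [e2]
    exact a1 c
  · intro c
    rw [e1, e2]
    exact a4 c
  · exact HO bf hOm bf.countable (zn Zb.zn Zd.k) Q k0 hQ hDS fun c hc x hx => (hbr c hc x hx).2

end

end Crest.Agent.R096.Eaz_663
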