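import Crest.Agent.R096.Ess9_95

/-!
# Row 96, DOORS, barriers (helper95), part 1: `EG` for a barrier sheet

The sheet is a polar product `{max (|ga - rm| / h) (G ∘ Psi) = τ}` near a tiny core.

* `SB1`, `Gdn`, `Gup`, `mem_SB1`, `preconn_*` : the target sets;
* `structure GT` : target facts for the function `G` on the frontier of the brick;
* `exists_EG_bar` : `EG` for any state `s` whose points of the name `j` lie on the sheet.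
-/

set_option autoImplicit false
set_option linter.unusedSectionVars false

open Set Topology Filter Metric Module
open scoped Classical

namespace Crest.Agent.R096.Ebr1_95

open Crest.Agent.R096.Msh_715 Crest.Agent.R096.Coh_184 Crest.Agent.R096.Bsp_628
  Crest.Agent.R096.Brk1_582 Crest.Agent.R096.Brk2_582 Crest.Agent.R096.Brk3_582
  Crest.Agent.R096.Brk5_582 Crest.Agent.R096.Init_543 Crest.Agent.R096.Mbf_337
  Crest.Agent.R96.Push_899 Crest.Agent.R096.Ess1_95 Crest.Agent.R096.Ess4_95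
  Crest.Agent.R096.Ess5_95 Crest.Agent.R096.Ess6_95 Crest.Agent.R096.Ess7_95
  Crest.Agent.R096.Ess8_95 Crest.Agent.R096.Lab_184 Crest.Agent.R096.Seq_213
  Crest.Agent.R096.Main_4 Crest.Agent.R096.Exa_560 Crest.Agent.R096.Agl5_543
  Crest.Agent.R096.Agl6_543

open Crest.Agent.R096.SkC1_961 (E3 Hom3 IsPush FoamD)
open Crest.Agent.R096.Ce_537 (PLEquiv IsBall)

variable {δ κ0 R c0 : ℝ} {La : Set E3} {Φ : FoamD δ κ0 R c0 La}

/-- **target facts** for the function `G` of a barrier -/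
structure GT (Φ : FoamD δ κ0 R c0 La) (c : Φ.F) (G : E3 → ℝ) (g0 z0 τ z1 g1 : ℝ) : Prop where
  lo : IsPreconnected {q | q ∈ frontier c.1.set ∧ G q ≤ g0}
  lon : {q | q ∈ frontier c.1.set ∧ G q ≤ g0}.Nonempty
  zlo : IsPreconnected {q | q ∈ frontier c.1.set ∧ G q ≤ z0}
  le : IsPreconnected {q | q ∈ frontier c.1.set ∧ G q ≤ τ}
  eq : IsPreconnected {q | q ∈ frontier c.1.set ∧ G q = τ}
  eqn : {q | q ∈ frontier c.1.set ∧ G q = τ}.Nonempty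
  zhi : IsPreconnected {q | q ∈ frontier c.1.set ∧ z1 ≤ G q}
  hi : IsPreconnected {q | q ∈ frontier c.1.set ∧ g1 ≤ G q}
  hin : {q | q ∈ frontier c.1.set ∧ g1 ≤ G q}.Nonempty

/-- the sheet in the target -/
def SB1 (Φ : FoamD δ κ0 R c0 La) (c : Φ.F) (G : E3 → ℝ) (a0 a1 τ : ℝ) : Set E3 :=
  {y | y ∈ c.1.set ∧ a0 ≤ ga Φ c y ∧ ga Φ c y ≤ a1 ∧ G (Φ.Psi y) ≤ τ ∧
    (ga Φ c y = a0 ∨ ga Φ c y = a1 ∨ G (Φ.Psi y) = τ)}

/-- the lower part -/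
def Gdn (Φ : FoamD δ κ0 R c0 La) (c : Φ.F) (G : E3 → ℝ) (a0 r τ : ℝ) : Set E3 :=
  {y | y ∈ c.1.set ∧ a0 ≤ ga Φ c y ∧ ga Φ c y ≤ r ∧ G (Φ.Psi y) ≤ τ ∧
    (ga Φ c y = a0 ∨ G (Φ.Psi y) = τ)}

/-- the upper part -/
def Gup (Φ : FoamD δ κ0 R c0 La) (c : Φ.F) (G : E3 → ℝ) (r a1 τ : ℝ) : Set E3 :=
  {y | y ∈ c.1.set ∧ r ≤ ga Φ c y ∧ ga Φ c y ≤ a1 ∧ G (Φ.Psi y) ≤ τ ∧
    (ga Φ c y = a1 ∨ G (Φ.Psi y) = τ)}

/-- the formula with `max` -/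
theorem mem_SB1 {c : Φ.F} {G : E3 → ℝ} {rm h τ : ℝ} (hh : 0 < h) {y : E3} :
    y ∈ SB1 Φ c G (rm - h * τ) (rm + h * τ) τ ↔
      y ∈ c.1.set ∧ max (|ga Φ c y - rm| / h) (G (Φ.Psi y)) = τ := by
  constructor
  · rintro ⟨h1, h2, h3, h4, h5⟩
    refine ⟨h1, ?_⟩
    have h6 : |ga Φ c y - rm| / h ≤ τ := by
      rw [div_le_iff₀ hh, abs_le]
      constructor <;> linarith
    refine le_antisymm (max_le h6 h4) ?_
    rcases h5 with h5 | h5 | h5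
    · refine le_max_of_le_left ?_
      rw [le_div_iff₀ hh]
      refine le_trans ?_ (neg_le_abs _)
      linarith
    · refine le_max_of_le_left ?_
      rw [le_div_iff₀ hh]
      refine le_trans ?_ (le_abs_self _)
      linarith
    · exact le_max_of_le_right h5.ge
  · rintro ⟨h1, h2⟩
    have h3 : |ga Φ c y - rm| / h ≤ τ := by rw [← h2]; exact le_max_left _ _
    have h4 : G (Φ.Psi y) ≤ τ := by rw [← h2]; exact le_max_right _ _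
    rw [div_le_iff₀ hh, abs_le] at h3
    refine ⟨h1, by linarith [h3.1], by linarith [h3.2], h4, ?_⟩
    rcases max_choice (|ga Φ c y - rm| / h) (G (Φ.Psi y)) with h5 | h5
    · rw [h5, div_eq_iff hh.ne'] at h2
      rcases abs_choice (ga Φ c y - rm) with h6 | h6
      · right; left; rw [h6] at h2; linarith
      · left; rw [h6] at h2; linarith
    · right; right; rw [h5] at h2; exact h2

section target

variable {c : Φ.F} {ρ : ℝ} {G : E3 → ℝ} {a0 a1 g0 z0 τ z1 g1 : ℝ}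

theorem Psi_frontier (hLa : IsOpen La) (hG : GA Φ c ρ) (hpt : (Φ.B c).lo = (Φ.B c).hi) {y : E3}
    (hy : y ∈ c.1.set) (h : 0 < ga Φ c y) : Φ.Psi y ∈ frontier c.1.set := by
  rw [frontier_c Φ hLa c]
  exact Psi_fr hLa hG hpt hy h

/-- the wall between two radii -/
theorem preconn_wall (hG : GA Φ c ρ) (hT : GT Φ c G g0 z0 τ z1 g1) {r r' : ℝ} (h0 : 0 < r)
    (h : r ≤ r') (h1 : r' ≤ ρ) :
    IsPreconnected {y | y ∈ c.1.set ∧ r ≤ ga Φ c y ∧ ga Φ c y ≤ r' ∧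
      Φ.Psi y ∈ {q | q ∈ frontier c.1.set ∧ G q = τ}} :=
  hG.shell _ (fun _ hq => hq.1) hT.eq r r' h0 h h1

/-- the cap at a radius -/
theorem preconn_cap (hG : GA Φ c ρ) (hT : GT Φ c G g0 z0 τ z1 g1) {r : ℝ} (h0 : 0 < r)
    (h1 : r ≤ ρ) :
    IsPreconnected {y | y ∈ c.1.set ∧ r ≤ ga Φ c y ∧ ga Φ c y ≤ r ∧
      Φ.Psi y ∈ {q | q ∈ frontier c.1.set ∧ G q ≤ τ}} :=
  hG.shell _ (fun _ hq => hq.1) hT.le r r h0 le_rfl h1

theorem preconn_Gdn (hLa : IsOpen La) (hG : GA Φ c ρ) (hpt : (Φ.B c).lo = (Φ.B c).hi)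
    (hT : GT Φ c G g0 z0 τ z1 g1) {r : ℝ} (h0 : 0 < a0) (h : a0 ≤ r) (h1 : r ≤ ρ) :
    IsPreconnected (Gdn Φ c G a0 r τ) := by
  obtain ⟨q, hq, hqτ⟩ := hT.eqn
  obtain ⟨y, hy, hy1, hy2⟩ := hG.ex q hq a0 h0 (h.trans h1)
  have e : Gdn Φ c G a0 r τ =
      {y | y ∈ c.1.set ∧ a0 ≤ ga Φ c y ∧ ga Φ c y ≤ r ∧
        Φ.Psi y ∈ {q | q ∈ frontier c.1.set ∧ G q = τ}} ∪
      {y | y ∈ c.1.set ∧ a0 ≤ ga Φ c y ∧ ga Φ c y ≤ a0 ∧
        Φ.Psi y ∈ {q | q ∈ frontier c.1.set ∧ G q ≤ τ}} := by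
    ext z
    constructor
    · rintro ⟨g1, g2, g3, g4, g5⟩
      have g6 := Psi_frontier hLa hG hpt g1 (h0.trans_le g2)
      rcases g5 with g5 | g5
      · exact Or.inr ⟨g1, g2, g5.le, g6, g4⟩
      · exact Or.inl ⟨g1, g2, g3, g6, g5⟩
    · rintro (⟨g1, g2, g3, g4, g5⟩ | ⟨g1, g2, g3, g4, g5⟩)
      · exact ⟨g1, g2, g3, g5.le, Or.inr g5⟩
      · exact ⟨g1, g2, g3.trans h, g5, Or.inl (le_antisymm g3 g2)⟩
  rw [e]
  refine IsPreconnected.union y ⟨hy, hy1.ge, hy1.le.trans h, by rw [hy2]; exact ⟨hq, hqτ⟩⟩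
    ⟨hy, hy1.ge, hy1.le, by rw [hy2]; exact ⟨hq, hqτ.le⟩⟩ (preconn_wall hG hT h0 h h1)
    (preconn_cap hG hT h0 (h.trans h1))

theorem preconn_Gup (hLa : IsOpen La) (hG : GA Φ c ρ) (hpt : (Φ.B c).lo = (Φ.B c).hi)
    (hT : GT Φ c G g0 z0 τ z1 g1) {r : ℝ} (h0 : 0 < r) (h : r ≤ a1) (h1 : a1 ≤ ρ) :
    IsPreconnected (Gup Φ c G r a1 τ) := by
  obtain ⟨q, hq, hqτ⟩ := hT.eqn
  obtain ⟨y, hy, hy1, hy2⟩ := hG.ex q hq a1 (h0.trans_le h) h1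
  have e : Gup Φ c G r a1 τ =
      {y | y ∈ c.1.set ∧ r ≤ ga Φ c y ∧ ga Φ c y ≤ a1 ∧
        Φ.Psi y ∈ {q | q ∈ frontier c.1.set ∧ G q = τ}} ∪
      {y | y ∈ c.1.set ∧ a1 ≤ ga Φ c y ∧ ga Φ c y ≤ a1 ∧
        Φ.Psi y ∈ {q | q ∈ frontier c.1.set ∧ G q ≤ τ}} := by
    ext z
    constructor
    · rintro ⟨g1, g2, g3, g4, g5⟩
      have g6 := Psi_frontier hLa hG hpt g1 (h0.trans_le g2)
      rcases g5 with g5 | g5
      · exact Or.inr ⟨g1, g5.ge, g3, g6, g4⟩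
      · exact Or.inl ⟨g1, g2, g3, g6, g5⟩
    · rintro (⟨g1, g2, g3, g4, g5⟩ | ⟨g1, g2, g3, g4, g5⟩)
      · exact ⟨g1, g2, g3, g5.le, Or.inr g5⟩
      · exact ⟨g1, h.trans g2, g3, g5, Or.inl (le_antisymm g3 g2)⟩
  rw [e]
  refine IsPreconnected.union y ⟨hy, h.trans hy1.ge, hy1.le, by rw [hy2]; exact ⟨hq, hqτ⟩⟩
    ⟨hy, hy1.ge, hy1.le, by rw [hy2]; exact ⟨hq, hqτ.le⟩⟩ (preconn_wall hG hT h0 h h1)
    (preconn_cap hG hT (h0.trans_le h) h1)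

/-- the whole sheet is connected -/
theorem preconn_SB1 (hLa : IsOpen La) (hG : GA Φ c ρ) (hpt : (Φ.B c).lo = (Φ.B c).hi)
    (hT : GT Φ c G g0 z0 τ z1 g1) (h0 : 0 < a0) (h : a0 ≤ a1) (h1 : a1 ≤ ρ) :
    IsPreconnected (SB1 Φ c G a0 a1 τ) := by
  obtain ⟨q, hq, hqτ⟩ := hT.eqn
  obtain ⟨y, hy, hy1, hy2⟩ := hG.ex q hq a0 h0 (h.trans h1)
  have e : SB1 Φ c G a0 a1 τ = Gdn Φ c G a0 a1 τ ∪ Gup Φ c G a0 a1 τ := by
    ext z
    constructor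
    · rintro ⟨g1, g2, g3, g4, g5⟩
      rcases g5 with g5 | g5 | g5
      · exact Or.inl ⟨g1, g2, g3, g4, Or.inl g5⟩
      · exact Or.inr ⟨g1, g2, g3, g4, Or.inl g5⟩
      · exact Or.inl ⟨g1, g2, g3, g4, Or.inr g5⟩
    · rintro (⟨g1, g2, g3, g4, g5⟩ | ⟨g1, g2, g3, g4, g5⟩)
      · exact ⟨g1, g2, g3, g4, g5.elim Or.inl fun h => Or.inr (Or.inr h)⟩
      · exact ⟨g1, g2, g3, g4, Or.inr g5⟩
  rw [e]
  refine IsPreconnected.union y ⟨hy, hy1.ge, hy1.le.trans h, by rw [hy2]; exact hqτ.le,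
      Or.inl hy1⟩
    ⟨hy, hy1.ge, hy1.le.trans h, by rw [hy2]; exact hqτ.le, Or.inr (by rw [hy2]; exact hqτ)⟩
    (preconn_Gdn hLa hG hpt hT h0 h h1) (preconn_Gup hLa hG hpt hT h0 h h1)

end target

end Crest.Agent.R096.Ebr1_95
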