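import Crest.Agent.R096.Ebr2_95

/-!
# Row 96, DOORS, barriers (helper95), part 3: target facts from a chart

* `preconn_ge_of_eq` : `{F = t}` connected in a connected closed set ⟹ `{t ≤ F}` connected
  (and the same for `{F ≤ t}`);
* `gt_of_chart` : the structure `GT` from a chart of a rectangle in which `G` is the sup norm.
-/

set_option autoImplicit false
set_option linter.unusedSectionVars false

open Set Topology Filter Metric Module

namespace Crest.Agent.R096.Ebr3_95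

open Crest.Agent.R096.Bsp_628 Crest.Agent.R096.Brk1_582 Crest.Agent.R096.Brk2_582
  Crest.Agent.R096.Brk3_582 Crest.Agent.R096.Init_543 Crest.Agent.R096.Mbf_337
  Crest.Agent.R096.Exa_560 Crest.Agent.R096.Ess5_95 Crest.Agent.R096.Ebr1_95
open Crest.Agent.R096.SkC1_961 (E3 Hom3 IsPush FoamD)

section gen

variable {X : Type*} [TopologicalSpace X] {S : Set X} {F : X → ℝ} {t : ℝ}

/-- a level set which is connected does not disconnect one side -/
theorem preconn_ge_of_eq (hS : IsPreconnected S) (hcl : IsClosed S) (hF : ContinuousOn F S)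
    (h : IsPreconnected {x | x ∈ S ∧ F x = t}) : IsPreconnected {x | x ∈ S ∧ t ≤ F x} := by
  have hle : IsClosed {x | x ∈ S ∧ F x ≤ t} := by
    have := hF.preimage_isClosed_of_isClosed hcl (isClosed_Iic (a := t))
    exact this
  have hge : IsClosed {x | x ∈ S ∧ t ≤ F x} := by
    have := hF.preimage_isClosed_of_isClosed hcl (isClosed_Ici (a := t))
    exact this
  have key : ∀ u v : Set X, IsClosed u → IsClosed v → {x | x ∈ S ∧ t ≤ F x} ⊆ u ∪ v →
      ({x | x ∈ S ∧ t ≤ F x} ∩ u).Nonempty → ({x | x ∈ S ∧ t ≤ F x} ∩ v).Nonempty →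
      {x | x ∈ S ∧ t ≤ F x} ∩ (u ∩ v) = ∅ → {x | x ∈ S ∧ F x = t} ∩ v = ∅ → False := by
    intro u v hu hv huv hnu hnv hno hCv
    have h1 := isPreconnected_closed_iff.1 hS
      ({x | x ∈ S ∧ F x ≤ t} ∪ ({x | x ∈ S ∧ t ≤ F x} ∩ u)) ({x | x ∈ S ∧ t ≤ F x} ∩ v)
      (hle.union (hge.inter hu)) (hge.inter hv) ?_ ?_ ?_
    · obtain ⟨x, hxS, hx1, hx2, hxv⟩ := h1
      rcases hx1 with hx1 | ⟨hx1, hxu⟩
      · have h3 : x ∈ {x | x ∈ S ∧ F x = t} ∩ v := ⟨⟨hxS, le_antisymm hx1.2 hx2.2⟩, hxv⟩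
        rw [hCv] at h3
        exact h3
      · have h3 : x ∈ {x | x ∈ S ∧ t ≤ F x} ∩ (u ∩ v) := ⟨hx1, hxu, hxv⟩
        rw [hno] at h3
        exact h3
    · intro x hx
      rcases le_total (F x) t with h2 | h2
      · exact Or.inl (Or.inl ⟨hx, h2⟩)
      · rcases huv ⟨hx, h2⟩ with h3 | h3
        · exact Or.inl (Or.inr ⟨⟨hx, h2⟩, h3⟩)
        · exact Or.inr ⟨⟨hx, h2⟩, h3⟩
    · obtain ⟨x, hx, hxu⟩ := hnu
      exact ⟨x, hx.1, Or.inr ⟨hx, hxu⟩⟩
    · obtain ⟨x, hx, hxv⟩ := hnv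
      exact ⟨x, hx.1, hx, hxv⟩
  rw [isPreconnected_closed_iff]
  intro u v hu hv huv hnu hnv
  by_contra hno
  rw [not_nonempty_iff_eq_empty] at hno
  have hsub : {x | x ∈ S ∧ F x = t} ⊆ {x | x ∈ S ∧ t ≤ F x} := fun x hx => ⟨hx.1, hx.2.ge⟩
  by_cases hCu : ({x | x ∈ S ∧ F x = t} ∩ u).Nonempty
  · by_cases hCv : ({x | x ∈ S ∧ F x = t} ∩ v).Nonempty
    · obtain ⟨x, hx, hxu, hxv⟩ := isPreconnected_closed_iff.1 h u v hu hv (hsub.trans huv) hCu hCv
      have h3 : x ∈ {x | x ∈ S ∧ t ≤ F x} ∩ (u ∩ v) := ⟨hsub hx, hxu, hxv⟩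
      rw [hno] at h3
      exact h3
    · exact key u v hu hv huv hnu hnv hno (not_nonempty_iff_eq_empty.1 hCv)
  · refine key v u hv hu (by rwa [union_comm]) hnv hnu ?_ (not_nonempty_iff_eq_empty.1 hCu)
    rwa [inter_comm v u]

theorem preconn_le_of_eq (hS : IsPreconnected S) (hcl : IsClosed S) (hF : ContinuousOn F S)
    (h : IsPreconnected {x | x ∈ S ∧ F x = t}) : IsPreconnected {x | x ∈ S ∧ F x ≤ t} := by
  have h1 := preconn_ge_of_eq (F := fun x => - F x) (t := -t) hS hcl hF.neg (by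
    have : {x | x ∈ S ∧ - F x = -t} = {x | x ∈ S ∧ F x = t} := by
      ext x; simp
    rwa [this])
  have : {x | x ∈ S ∧ -t ≤ - F x} = {x | x ∈ S ∧ F x ≤ t} := by
    ext x; simp
  rwa [this] at h1

end gen

/-- the norm of the chart -/
noncomputable def Nr (l0 m ra : ℝ) (p : ℝ × ℝ) : ℝ := max (|p.2| / l0) (|p.1 - m| / ra)

section nr

variable {l0 m ra : ℝ} (hl0 : 0 < l0) (hra : 0 < ra)
include hl0 hra

theorem Nr_eq (v : ℝ × ℝ) : Nr l0 m ra (m + ra * v.1, l0 * v.2) = ‖v‖ := by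
  unfold Nr
  simp only [add_sub_cancel_left, abs_mul, abs_of_pos hl0, abs_of_pos hra]
  rw [mul_div_cancel_left₀ _ hl0.ne', mul_div_cancel_left₀ _ hra.ne', Prod.norm_def, max_comm]
  rfl

theorem set_eq (Q : ℝ → Prop) : {p | Q (Nr l0 m ra p)} =
    (fun v : ℝ × ℝ => ((m + ra * v.1, l0 * v.2) : ℝ × ℝ)) '' {v | Q ‖v‖} := by
  ext p
  constructor
  · intro hp
    have h1 : ((m + ra * ((p.1 - m) / ra), l0 * (p.2 / l0)) : ℝ × ℝ) = p := by
      ext
      · simp only []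
        field_simp
        ring
      · simp only []
        field_simp
    refine ⟨((p.1 - m) / ra, p.2 / l0), ?_, h1⟩
    show Q ‖(((p.1 - m) / ra, p.2 / l0) : ℝ × ℝ)‖
    rw [← Nr_eq (m := m) hl0 hra, h1]
    exact hp
  · rintro ⟨v, hv, rfl⟩
    show Q (Nr l0 m ra (m + ra * v.1, l0 * v.2))
    rw [Nr_eq hl0 hra]
    exact hv

theorem preconn_Nr_le (t : ℝ) : IsPreconnected {p | Nr l0 m ra p ≤ t} := by
  rw [set_eq hl0 hra (fun x => x ≤ t)]
  refine IsPreconnected.image ?_ _ (by fun_prop)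
  have : {v : ℝ × ℝ | ‖v‖ ≤ t} = closedBall 0 t := by
    ext v; simp
  rw [this]
  exact (convex_closedBall _ _).isPreconnected

theorem preconn_Nr_eq (t : ℝ) : IsPreconnected {p | Nr l0 m ra p = t} := by
  rw [set_eq hl0 hra (fun x => x = t)]
  refine IsPreconnected.image ?_ _ (by fun_prop)
  have : {v : ℝ × ℝ | ‖v‖ = t} = sphere 0 t := by
    ext v; simp
  rw [this]
  refine isPreconnected_sphere ?_ _ _
  have h2 : Module.finrank ℝ (ℝ × ℝ) = 2 := by simp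
  rw [← Module.finrank_eq_rank ℝ (ℝ × ℝ), h2]
  norm_num

end nr

variable {δ κ0 R c0 : ℝ} {La : Set E3} {Φ : FoamD δ κ0 R c0 La}

theorem preconn_frontier (hLa : IsOpen La) (c : Φ.F) : IsPreconnected (frontier c.1.set) := by
  have F := foam4 Φ hLa
  have hD := Vb_965.isPreconnected_Lset F (by simp [E3]) (Vb_965.cell_nonempty Φ c) le_rfl one_pos
  rw [Lset_zero F] at hD
  rw [frontier_c Φ hLa c]
  exact hD

/-- **`GT` from a chart** -/
theorem gt_of_chart (hLa : IsOpen La) {c : Φ.F} {G : E3 → ℝ}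
    (hGc : ContinuousOn G (frontier c.1.set)) {γ : ℝ × ℝ → E3} {l0 m ra s1 : ℝ} (hl0 : 0 < l0)
    (hra : 0 < ra) (hγc : ContinuousOn γ {p | Nr l0 m ra p ≤ s1})
    (hγ : ∀ p, Nr l0 m ra p ≤ s1 → γ p ∈ frontier c.1.set ∧ G (γ p) = Nr l0 m ra p)
    (hsur : ∀ q ∈ frontier c.1.set, G q ≤ s1 → ∃ p, Nr l0 m ra p ≤ s1 ∧ γ p = q)
    {g0 z0 τ z1 g1 : ℝ} (h0 : 0 ≤ g0) (hgz : g0 ≤ z0) (hz : z0 ≤ τ) (hτ : τ ≤ z1)
    (hzg : z1 ≤ g1) (hg1 : g1 ≤ s1) : GT Φ c G g0 z0 τ z1 g1 := by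
  have hle : ∀ t ≤ s1, IsPreconnected {q | q ∈ frontier c.1.set ∧ G q ≤ t} := by
    intro t ht
    have e : {q | q ∈ frontier c.1.set ∧ G q ≤ t} = γ '' {p | Nr l0 m ra p ≤ t} := by
      ext q
      constructor
      · rintro ⟨h1, h2⟩
        obtain ⟨p, hp, rfl⟩ := hsur q h1 (h2.trans ht)
        refine ⟨p, ?_, rfl⟩
        show Nr l0 m ra p ≤ t
        rw [← (hγ p hp).2]; exact h2
      · rintro ⟨p, hp, rfl⟩
        have h1 := hγ p (le_trans hp ht)
        exact ⟨h1.1, by rw [h1.2]; exact hp⟩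
    rw [e]
    exact (preconn_Nr_le hl0 hra t).image _ (hγc.mono fun p hp => le_trans hp ht)
  have heq : ∀ t ≤ s1, IsPreconnected {q | q ∈ frontier c.1.set ∧ G q = t} := by
    intro t ht
    have e : {q | q ∈ frontier c.1.set ∧ G q = t} = γ '' {p | Nr l0 m ra p = t} := by
      ext q
      constructor
      · rintro ⟨h1, h2⟩
        obtain ⟨p, hp, rfl⟩ := hsur q h1 (h2.le.trans ht)
        refine ⟨p, ?_, rfl⟩
        show Nr l0 m ra p = t
        rw [← (hγ p hp).2]; exact h2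
      · rintro ⟨p, hp, rfl⟩
        have hp' : Nr l0 m ra p = t := hp
        have h1 := hγ p (hp'.le.trans ht)
        exact ⟨h1.1, by rw [h1.2]; exact hp⟩
    rw [e]
    exact (preconn_Nr_eq hl0 hra t).image _ (hγc.mono fun p hp => le_trans (le_of_eq hp) ht)
  have hne : ∀ t, 0 ≤ t → t ≤ s1 → {q | q ∈ frontier c.1.set ∧ G q = t}.Nonempty := by
    intro t ht0 ht
    have h1 := Nr_eq (m := m) hl0 hra ((t, 0) : ℝ × ℝ)
    have h2 : ‖((t, 0) : ℝ × ℝ)‖ = t := by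
      rw [Prod.norm_def]
      simp [abs_of_nonneg ht0, ht0]
    rw [h2] at h1
    have h3 := hγ _ (h1.le.trans ht)
    exact ⟨_, h3.1, h3.2.trans h1⟩
  have hfr := preconn_frontier hLa c
  have hcl : IsClosed (frontier c.1.set) := isClosed_frontier
  exact {
    lo := hle g0 (by linarith)
    lon := (hne g0 h0 (by linarith)).mono fun q hq => ⟨hq.1, hq.2.le⟩
    zlo := hle z0 (by linarith)
    le := hle τ (by linarith)
    eq := heq τ (by linarith)
    eqn := hne τ (by linarith) (by linarith)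
    zhi := preconn_ge_of_eq hfr hcl hGc (heq z1 (by linarith))
    hi := preconn_ge_of_eq hfr hcl hGc (heq g1 hg1)
    hin := (hne g1 (by linarith) hg1).mono fun q hq => ⟨hq.1, hq.2.ge⟩ }

end Crest.Agent.R096.Ebr3_95
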