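import Crest.Agent.R096.Ebr4_95
import Crest.Agent.R096.Ebr2_95
import Crest.Agent.R096.Bgf9_4
import Crest.Agent.R096.Etg9_163

/-!
# Row 96, DOORS, barriers (helper95), part 5: **`eg_moat`**

`EG` (Ess4_95) of every barrier `inr m` of 4's state `stB` at its core `co m`; `gm_osc'` :
oscillation of `Gm` on all tiles near the core.
-/

set_option autoImplicit false
set_option linter.unusedSectionVars false

open Set Topology Filter Metric Module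
open scoped Classical

namespace Crest.Agent.R096.Ebr5_95

open Crest.Agent.R096.Msh_715 Crest.Agent.R096.Coh_184 Crest.Agent.R096.Bsp_628
  Crest.Agent.R096.Brk1_582 Crest.Agent.R096.Brk2_582 Crest.Agent.R096.Brk3_582
  Crest.Agent.R096.Brk5_582 Crest.Agent.R096.Init_543 Crest.Agent.R096.Mbf_337
  Crest.Agent.R96.Push_899 Crest.Agent.R096.Ess1_95 Crest.Agent.R096.Ess4_95
  Crest.Agent.R096.Ess5_95 Crest.Agent.R096.Ess6_95 Crest.Agent.R096.Ess7_95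
  Crest.Agent.R096.Lab_184 Crest.Agent.R096.Seq_213 Crest.Agent.R096.Seq_213.GSt
  Crest.Agent.R096.Main_4 Crest.Agent.R096.Exa_560 Crest.Agent.R096.Agl4_543
  Crest.Agent.R096.Agl5_543 Crest.Agent.R096.Agl6_543 Crest.Agent.R096.Agl8_543
  Crest.Agent.R096.Ebr1_95 Crest.Agent.R096.Ebr2_95
  Crest.Agent.R096.Ebr3_95 Crest.Agent.R096.Ebr4_95 Crest.Agent.R096.Bar_106
  Crest.Agent.R096.Bgf_4 Crest.Agent.R096.Dib_438 Crest.Agent.R096.Sphg_316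

open Crest.Agent.R096.SkC1_961 (E3 Hom3 IsPush FoamD)
open Crest.Agent.R096.Ce_537 (PLEquiv IsBall)

variable {δ κ0 R c0 : ℝ} {La Om : Set E3} {ι : Type} {Φ : FoamD δ κ0 R c0 La}
  {T : Tiling Om ι} {f g : E3 → E3} {κ1 κ2 : ℝ} {X : Set Φ.F} {J0 J V : Φ.F → Set ι}
  {ct : Φ.F → ι} {A : Φ.F → E3 ≃ᵃ[ℝ] E3} {lam : Φ.F → ℝ} {z : Φ.F → E3}
  {θ : Φ.F → E3 → E3} {φ : Φ.F → E3 → ℝ}

/-- the barrier is the sheet of Ebr1 -/
theorem bl_eq_iff_SB1 {c : Φ.F} {ρ : ℝ} (hG1 : GA Φ c ρ) {rm h hi ε : ℝ} {G : E3 → ℝ}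
    (hh : 0 < h) (h0 : 0 ≤ ε) (hε : ε < hi) (h1 : rm + h * ε ≤ 1) {y : E3} :
    bl Φ c rm h hi G y = ε ↔ y ∈ SB1 Φ c G (rm - h * ε) (rm + h * ε) ε := by
  rw [bl_eq_iff hε]
  constructor
  · intro h2
    have h3 : |ga Φ c y - rm| / h ≤ ε := by rw [← h2]; exact le_max_left _ _
    have h4 : G (Φ.Psi y) ≤ ε := by rw [← h2]; exact le_max_right _ _
    rw [div_le_iff₀ hh, abs_le] at h3
    have h5 : ga Φ c y ≤ rm + h * ε := by linarith [h3.2]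
    refine ⟨(hG1.one _).1 (by linarith), by linarith [h3.1], h5, h4, ?_⟩
    rcases max_choice (|ga Φ c y - rm| / h) (G (Φ.Psi y)) with h7 | h7
    · rw [h7, div_eq_iff hh.ne'] at h2
      rcases abs_choice (ga Φ c y - rm) with h8 | h8
      · right; left; rw [h8] at h2; linarith
      · left; rw [h8] at h2; linarith
    · right; right; rw [h7] at h2; exact h2
  · rintro ⟨-, h2, h3, h4, h5⟩
    have ht0 : 0 ≤ h * ε := mul_nonneg hh.le h0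
    have h6 : |ga Φ c y - rm| / h ≤ ε := by
      rw [div_le_iff₀ hh, abs_le]
      exact ⟨by linarith, by linarith⟩
    apply le_antisymm (max_le h6 h4)
    rcases h5 with h5 | h5 | h5
    · refine le_max_of_le_left ?_
      rw [h5, le_div_iff₀ hh, show rm - h * ε - rm = -(h * ε) by ring, abs_neg,
        abs_of_nonneg ht0]
      linarith
    · refine le_max_of_le_left ?_
      rw [h5, le_div_iff₀ hh, show rm + h * ε - rm = h * ε by ring, abs_of_nonneg ht0]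
      linarith
    · exact le_max_of_le_right h5.ge

section moat

variable {Mo : Type} {co : Mo → Φ.F} {ρ1 ρ2 ρ3 ρ4 d : Mo → ℝ} {G : Mo → E3 → ℝ}
  {rm h lo hi ω : Mo → ℝ} {q₀ : Mo → E3} {g0 : Mo → ℝ}
  {r₀ : Φ.F → ℝ} {L : Φ.F → Finset ℝ} [Nonempty (JJ Φ L)] {ε : Mo → ℝ}
  {bp : JJ Φ L → E3} {bm : Mo → E3}

/-- **`EG` of a barrier at its own core** over 4's state; `lm` with `IsLab`, LOW and HIGH is the
output of `BarF.exists_stB` -/
theorem eg_moat (hLa : IsOpen La) (H : Hm f g Om La)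
    (hC : Cores Φ T f κ1 κ2 X J0 J V ct A lam z θ φ) (c : {c : Φ.F // c ∉ X})
    (hB : BarF Φ T f J0 J V θ co ρ1 ρ2 ρ3 ρ4 d G rm h lo hi ω q₀ g0)
    (hGB : GFB Φ r₀ T f L (lM Φ co rm h hi G) ε) {m : Mo} (hm : co m = c.1)
    (hε : ε m ∈ Ioo (lo m) (hi m))
    (hrd : rm m - h m * lo m ≤ ρ1 m + 5 * d m) (hru : ρ3 m + 10 * d m ≤ rm m + h m * lo m)
    (hru' : rm m + h m * hi m ≤ ρ3 m + 15 * d m)
    (hbm : bm m ∈ Om ∧ T.dim (bm m) = 1 ∧ lM Φ co rm h hi G m (f (bm m)) = ε m)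
    (hbg : ρ3 m + 6 * d m ≤ ga Φ (co m) (f (bm m)))
    {lo' hi' ga0 z0 z1 g1 ω' : ℝ} (hGM : GM Φ (co m) (G m) lo' hi') (hω : ω m ≤ ω')
    (hω0 : 0 ≤ ω')
    (n1 : lo' < ga0) (n2 : g0 m ≤ ga0 + ω') (n3 : ga0 + 2 * ω' ≤ z0) (n4 : z0 + 2 * ω' < ε m)
    (n5 : ε m + 2 * ω' < z1) (n6 : z1 + 2 * ω' ≤ g1) (n7 : g1 < hi')
    (hnear : ∀ x ∈ frontier (KJ T (J (co m))),
      |G m (θ (co m) x) - G m (Φ.Psi (f x))| ≤ ω')
    {v0 v1 : VxK T (KT T J X) c} (hv0 : G m (θ (co m) v0.1) ≤ z0)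
    (hv1 : z1 ≤ G m (θ (co m) v1.1))
    {lm : E3 → ZMod 2} (hlam : IsLab T (gPts (stB hGB bp bm) (Sum.inr m)) lm)
    (LOW : ∀ b, b + ω m < ε m → IsPreconnected {q | q ∈ frontier (co m).1.set ∧ G m q ≤ b} →
      G m (q₀ m) ≤ b → ∀ v ∈ Om, T.dim v = 0 → rm m - h m * ε m + 2 * d m ≤ ga Φ (co m) (f v) →
        ga Φ (co m) (f v) ≤ rm m + h m * ε m - 2 * d m → G m (Φ.Psi (f v)) ≤ b → lm v = 1)
    (HIGH : ∀ b, ε m + ω m < b → IsPreconnected {q | q ∈ frontier (co m).1.set ∧ b ≤ G m q} →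
      {q | q ∈ frontier (co m).1.set ∧ b ≤ G m q}.Nonempty → ∀ v ∈ Om, T.dim v = 0 →
        (ga Φ (co m) (f v) ≤ rm m - h m * ε m - 2 * d m ∨
          rm m + h m * ε m + 2 * d m ≤ ga Φ (co m) (f v) ∨ b ≤ G m (Φ.Psi (f v))) → lm v = 0) :
    Nonempty (EG (stB hGB bp bm) (Sum.inr m)
      (SB Om Φ r₀ f L (lM Φ co rm h hi G) ε (Sum.inr m)) (KT T J X) c v0 v1 (bm m)) := by
  obtain ⟨c, hcX⟩ := c
  change co m = c at hm
  subst hm
  have hr := hB.room m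
  have hd := hr.d0
  have h12 := hr.r12
  have h23 := hr.r23
  have h34 := hr.r34
  have h4 := hr.r4
  have h01 := hr.r1
  have hh := hB.h0 m
  have hG1 : GA Φ (co m) (ρ4 m) := Etg_163.ga_gau Φ hLa (hC.tiny _ hcX).pt
    (by linarith) hr.r4 hr.ray
  have hlo0 := (hB.gm m).lo0
  have hε0 : 0 ≤ ε m := hlo0.trans hε.1.le
  have m1 : h m * lo m ≤ h m * ε m := mul_le_mul_of_nonneg_left hε.1.le hh.le
  have m2 : h m * ε m ≤ h m * hi m := mul_le_mul_of_nonneg_left hε.2.le hh.le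
  have b1 := hB.a0 m
  have hT : GT Φ (co m) (G m) ga0 z0 (ε m) z1 g1 :=
    gt_of_gm hLa hGM n1 (by linarith) (by linarith) (by linarith) (by linarith) n7
  have hSiff : ∀ x, x ∈ SB Om Φ r₀ f L (lM Φ co rm h hi G) ε (Sum.inr m) ↔ x ∈ Om ∧
      f x ∈ SB1 Φ (co m) (G m) (rm m - h m * ε m) (rm m + h m * ε m) (ε m) := by
    intro x
    rw [← bl_eq_iff_SB1 hG1 hh hε0 hε.2 (by linarith)]
    exact Iff.rfl
  obtain ⟨p, hPol⟩ := hB.pol hLa m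
  refine exists_EG_bar hLa H hC ⟨co m, hcX⟩ hr hG1 (ω := ω') (τ := ε m) hT (by linarith)
    (by linarith) (by linarith) (by linarith) n3 n4 n5 n6 hSiff ?_ ?_ hnear hv0 hv1
    (r := bm m) ⟨hbm.1, hbm.2.2⟩ hbg hlam ?_
  · intro u hu hl
    exact ((hGB.mem_pts_iff (w := u) (i := Sum.inr m)).1 ⟨hu.1, hl⟩).1
  · intro q x hx h1 h5 y hy
    exact (hB.osc m q x hx h1 h5 y hy).trans hω
  · intro q v hv hv0' hvr
    have hvO : v ∈ Om := T.sub q hv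
    have e1 : (rm m - h m * ε m + (rm m + h m * ε m)) / 2 = rm m := by ring
    rw [e1, abs_le] at hvr
    refine ⟨fun hg => ?_, fun hg => ?_⟩
    · refine LOW (ga0 + ω') (by linarith) ?_ ((hB.gq m).trans n2) v hvO hv0'
        (by linarith [hvr.1]) (by linarith [hvr.2]) hg
      exact hGM.le_conn hPol ⟨by linarith, by linarith⟩
    · refine HIGH (g1 - ω') (by linarith) ?_ ?_ v hvO hv0' (Or.inr (Or.inr hg))
      · exact hGM.ge_conn hPol ⟨by linarith, by linarith⟩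
      · obtain ⟨q1, h5, h6⟩ := hGM.high
        exact ⟨q1, h5, by linarith⟩

end moat

section osc

variable {l0 mm ra : ℝ} {c a : Φ.F} {Z : Set Φ.F} {J0 J V : Set ι} {θ : E3 → E3} {φ : E3 → ℝ}
  {ρ1 ρ2 ρ3 ρ4 d : ℝ}

/-- oscillation of `Gm ∘ Psi ∘ f` on all tiles near a tiny core (`BarF.osc`) -/
theorem gm_osc' (hLa : IsOpen La) (H : Hm f g Om La) (hl : 0 < l0) (hra : 0 < ra)
    (hTc : Tiny Φ T f κ1 c J0 J V θ φ)
    (hr : Rm Φ T f c J0 J V θ ρ1 ρ2 ρ3 ρ4 d) (hG : GA Φ c ρ4)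
    {q : ι} {x y : E3} (hx : x ∈ P (T.H q)) (h1 : ρ1 ≤ ga Φ c (f x)) (h4 : ga Φ c (f x) ≤ ρ4)
    (hy : y ∈ P (T.H q)) :
    |gmf Φ l0 mm ra a Z (Φ.Psi (f x)) - gmf Φ l0 mm ra a Z (Φ.Psi (f y))| ≤
      max (d / l0) (d / ra) := by
  have hpt := hTc.pt
  obtain ⟨h5, -, h6⟩ := hr.tile_osc hx h1 h4 hy
  obtain ⟨hqV, hqJ⟩ := hr.tile hx h1 h4
  have hxf := Psi_frontier hLa hG hpt ((hG.one _).1 (show ga Φ c (f x) ≤ 1 by linarith [hr.r4]))
    (by linarith [hr.r1])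
  have hyin := hTc.inside y (mem_biUnion (x := q) hqV hy)
  have hyc : f y ∈ c.1.set := ⟨fun k => (hyin k).1.le, fun k => (hyin k).2.le⟩
  have hypos : 0 < ga Φ c (f y) := by
    have hb : Bod (Φ.B c).lo (Pc Φ.F c) := Pse_316.bod_brick Φ c hpt
    have e0 : ga Φ c (f y) = Ng (Φ.B c).lo (Pc Φ.F c) (f y) := Etg_163.gg_eq Φ c (f y)
    rw [e0]
    refine hb.pos.2 fun h8 => ?_
    obtain ⟨i, hi, w, hw, hwf⟩ := hTc.mem
    have hwO : w ∈ Om := T.sub i (I_sub_P _ hw)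
    have hyO : y ∈ Om := T.sub q hy
    have e : y = w := by rw [← H.gf y hyO, ← H.gf w hwO, h8, hwf]
    subst e
    by_cases hqi : q = i
    · exact hqJ (by rw [hqi]; exact hi)
    · exact not_mem_I hqi hy hw
  have hyf := Psi_frontier hLa hG hpt hyc hypos
  exact Gm_sub_le hl hra (sb_mem hLa hxf) (sb_mem hLa hyf) h6

end osc

end Crest.Agent.R096.Ebr5_95
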