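import Crest.Agent.R096.Ebr5_95

/-!
# Row 96, DOORS, barriers (helper95), part 6: `eg_moat` with the numbers of record

`eg_gen` : general numbers; `eg_rec` : `l0 = μ / 8`, `mm = 1/2`, `ra = 1/2 - 5 μ / 16`; vertices `v0`,
`v1` near the points `(1/2, 0)`, `(1/2, 1)` of the chart of the moat.
-/

set_option autoImplicit false
set_option linter.unusedSectionVars false

open Set Topology Filter Metric Module
open scoped Classical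

namespace Crest.Agent.R096.Ebr6_95

open Crest.Agent.R096.Msh_715 Crest.Agent.R096.Coh_184 Crest.Agent.R096.Bsp_628
  Crest.Agent.R096.Brk1_582 Crest.Agent.R096.Brk2_582 Crest.Agent.R096.Brk3_582
  Crest.Agent.R096.Brk5_582 Crest.Agent.R096.Init_543 Crest.Agent.R096.Mbf_337
  Crest.Agent.R96.Push_899 Crest.Agent.R096.Ess1_95 Crest.Agent.R096.Ess4_95
  Crest.Agent.R096.Ess5_95 Crest.Agent.R096.Ess6_95 Crest.Agent.R096.Ess7_95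
  Crest.Agent.R096.Lab_184 Crest.Agent.R096.Seq_213 Crest.Agent.R096.Seq_213.GSt
  Crest.Agent.R096.Main_4 Crest.Agent.R096.Exa_560 Crest.Agent.R096.Agl4_543
  Crest.Agent.R096.Agl5_543 Crest.Agent.R096.Agl6_543 Crest.Agent.R096.Agl8_543
  Crest.Agent.R096.Ebr1_95 Crest.Agent.R096.Ebr2_95
  Crest.Agent.R096.Ebr3_95 Crest.Agent.R096.Ebr4_95 Crest.Agent.R096.Ebr5_95
  Crest.Agent.R096.Bar_106 Crest.Agent.R096.Bgf_4 Crest.Agent.R096.Dib_438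

open Crest.Agent.R096.SkC1_961 (E3 Hom3 IsPush FoamD)
open Crest.Agent.R096.Ce_537 (PLEquiv IsBall)

theorem RA_ge {μ : ℝ} (h : μ ≤ 1 / 2) : 11 / 32 ≤ 1 / 2 - 5 * μ / 16 := by linarith

theorem L0_le_RA {μ : ℝ} (h : μ ≤ 1 / 2) : μ / 8 ≤ 1 / 2 - 5 * μ / 16 := by linarith

/-- the chart of a moat up to `1 + μ / 2` -/
theorem nm_rec {μ : ℝ} (h : 0 < μ) (h1 : μ ≤ 1 / 2) :
    Nm (μ / 8) (1 / 2) (1 / 2 - 5 * μ / 16) (1 + μ / 2) where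
  hl := by positivity
  hra := by linarith
  hhi := by linarith
  l1 := by nlinarith
  m0 := by nlinarith
  m1 := by nlinarith

theorem nm_mono {l0 mm ra hi hi' : ℝ} (hN : Nm l0 mm ra hi) (h0 : 0 < hi') (hs : hi' ≤ hi) :
    Nm l0 mm ra hi' := by
  have e1 := mul_le_mul_of_nonneg_left hs hN.hl.le
  have e2 := mul_le_mul_of_nonneg_left hs hN.hra.le
  exact ⟨hN.hl, hN.hra, h0, by linarith [hN.l1], by linarith [hN.m0],
    by linarith [hN.m1]⟩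

theorem nm_rec' {μ s : ℝ} (h : 0 < μ) (h1 : μ ≤ 1 / 2) (h0 : 0 ≤ s) (hs : s ≤ μ / 2) :
    Nm (μ / 8) (1 / 2) (1 / 2 - 5 * μ / 16) (1 + s) :=
  nm_mono (nm_rec h h1) (by linarith) (by linarith)

variable {δ κ0 R c0 : ℝ} {La Om : Set E3} {ι : Type} {Φ : FoamD δ κ0 R c0 La}
  {T : Tiling Om ι} {f g : E3 → E3} {κ1 κ2 : ℝ} {X : Set Φ.F} {J0 J V : Φ.F → Set ι}
  {ct : Φ.F → ι} {A : Φ.F → E3 ≃ᵃ[ℝ] E3} {lam : Φ.F → ℝ} {z : Φ.F → E3}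
  {θ : Φ.F → E3 → E3} {φ : Φ.F → E3 → ℝ}

variable {Mo' : Type} {co : Mo' → Φ.F} {ρ1 ρ2 ρ3 ρ4 d : Mo' → ℝ} {G : Mo' → E3 → ℝ}
  {rm h lo hi ω : Mo' → ℝ} {q₀ : Mo' → E3} {g0 : Mo' → ℝ}
  {r₀ : Φ.F → ℝ} {L : Φ.F → Finset ℝ} [Nonempty (JJ Φ L)] {ε : Mo' → ℝ}
  {bp : JJ Φ L → E3} {bm : Mo' → E3}

/-- **`EG` of a barrier at its own core, general numbers** -/
theorem eg_gen (hLa : IsOpen La) (hδ : 0 < δ) (hR : 0 < R) (H : Hm f g Om La)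
    (hC : Cores Φ T f κ1 κ2 X J0 J V ct A lam z θ φ) (c : {c : Φ.F // c ∉ X})
    (hB : BarF Φ T f J0 J V θ co ρ1 ρ2 ρ3 ρ4 d G rm h lo hi ω q₀ g0)
    (hGB : GFB Φ r₀ T f L (lM Φ co rm h hi G) ε) {m : Mo'} (hm : co m = c.1)
    (hε : ε m ∈ Ioo (lo m) (hi m))
    (hrd : rm m - h m * lo m ≤ ρ1 m + 5 * d m) (hru : ρ3 m + 10 * d m ≤ rm m + h m * lo m)
    (hru' : rm m + h m * hi m ≤ ρ3 m + 15 * d m)
    (hbm : bm m ∈ Om ∧ T.dim (bm m) = 1 ∧ lM Φ co rm h hi G m (f (bm m)) = ε m)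
    (hbg : ρ3 m + 6 * d m ≤ ga Φ (co m) (f (bm m)))
    {μ : ℝ} (hμ : 0 < μ) (hμ1 : μ ≤ 1 / 2) (hκ1 : 0 ≤ κ1)
    {l0 mm ra : ℝ} (hN : Nm l0 mm ra (1 + μ / 2)) (hlr : l0 ≤ ra) (hl5 : l0 ≤ 5 / 32)
    (hmm : |1 / 2 - mm| ≤ 7 / 16 * ra)
    (hκ : (2 * Cn δ R + 1) * κ1 ≤ μ / 64 * l0)
    {a p q : Φ.F} {Z : Set Φ.F} (hM : Mo (Pc Φ.F) (co m) a Z p q)
    (hGm : G m = gmf Φ (l0) (mm) (ra) a Z) (hlo : 1 ≤ lo m) (hhi : hi m ≤ 1 + μ / 16)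
    (hω : ω m ≤ μ / 64) (hg0 : g0 m ≤ 1 / 8)
    {v0 v1 : VxK T (KT T J X) c}
    (hv0 : ∀ e, |sb Φ (θ (co m) v0.1) e - uu a Z p q (1 / 2) 0 e| ≤ (2 * Cn δ R + 1) * κ1)
    (hv1 : ∀ e, |sb Φ (θ (co m) v1.1) e - uu a Z p q (1 / 2) 1 e| ≤ (2 * Cn δ R + 1) * κ1)
    {lm : E3 → ZMod 2} (hlam : IsLab T (gPts (stB hGB bp bm) (Sum.inr m)) lm)
    (LOW : ∀ b, b + ω m < ε m → IsPreconnected {q | q ∈ frontier (co m).1.set ∧ G m q ≤ b} →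
      G m (q₀ m) ≤ b → ∀ v ∈ Om, T.dim v = 0 → rm m - h m * ε m + 2 * d m ≤ ga Φ (co m) (f v) →
        ga Φ (co m) (f v) ≤ rm m + h m * ε m - 2 * d m → G m (Φ.Psi (f v)) ≤ b → lm v = 1)
    (HIGH : ∀ b, ε m + ω m < b → IsPreconnected {q | q ∈ frontier (co m).1.set ∧ b ≤ G m q} →
      {q | q ∈ frontier (co m).1.set ∧ b ≤ G m q}.Nonempty → ∀ v ∈ Om, T.dim v = 0 →
        (ga Φ (co m) (f v) ≤ rm m - h m * ε m - 2 * d m ∨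
          rm m + h m * ε m + 2 * d m ≤ ga Φ (co m) (f v) ∨ b ≤ G m (Φ.Psi (f v))) → lm v = 0) :
    Nonempty (EG (stB hGB bp bm) (Sum.inr m)
      (SB Om Φ r₀ f L (lM Φ co rm h hi G) ε (Sum.inr m)) (KT T J X) c v0 v1 (bm m)) := by
  have hl := hN.hl
  have hra := hN.hra
  have hCn := Cn_nonneg hδ hR
  have hk : 0 ≤ Cn δ R * κ1 := mul_nonneg hCn hκ1
  have hη0 : 0 ≤ (2 * Cn δ R + 1) * κ1 := by positivity
  have hη1 : (2 * Cn δ R + 1) * κ1 ≤ μ / 64 * l0 := hκ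
  have hη2 : (2 * Cn δ R + 1) * κ1 ≤ μ / 64 * ra :=
    hη1.trans (mul_le_mul_of_nonneg_left hlr (by positivity))
  have hC1 : Cn δ R * κ1 ≤ (2 * Cn δ R + 1) * κ1 := by nlinarith
  have hmax : max ((2 * Cn δ R + 1) * κ1 / l0) ((2 * Cn δ R + 1) * κ1 / ra) ≤ μ / 64 := by
    refine max_le ?_ ?_
    · rw [div_le_iff₀ hl]; exact hη1
    · rw [div_le_iff₀ hra]; exact hη2
  have hcX : co m ∉ X := by rw [hm]; exact c.2
  have hTc := hC.tiny (co m) hcX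
  have hκlt : Cn δ R * κ1 < 1 := by
    have : μ / 64 * l0 < 1 := by nlinarith
    linarith
  have hr := hB.room m
  have hG1 : GA Φ (co m) (ρ4 m) := Etg_163.ga_gau Φ hLa hTc.pt
    (by linarith [hr.r1, hr.r12, hr.r23, hr.r34, hr.d0]) hr.r4 hr.ray
  have hfr : ∀ v : VxK T (KT T J X) c, v.1 ∈ frontier (KJ T (J (co m))) := by
    intro v
    rw [hm]
    exact v.2.2
  have hx0 : ((1 / 2 : ℝ), (0 : ℝ)) ∈ Rct :=
    ⟨⟨by norm_num, by norm_num⟩, ⟨by norm_num, by norm_num⟩⟩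
  have hx1 : ((1 / 2 : ℝ), (1 : ℝ)) ∈ Rct :=
    ⟨⟨by norm_num, by norm_num⟩, ⟨by norm_num, by norm_num⟩⟩
  -- the values at the two vertices
  have hV0 : G m (θ (co m) v0.1) ≤ 1 / 2 := by
    have h1 := (moat_val (mm := mm) hLa hl hra hM hx0 (th_mem hTc (hfr v0)) hv0).1
    rw [← hGm] at h1
    have h2 := (abs_le.1 (h1.trans hmax)).2
    have h3 : max (|(0 : ℝ)| / l0) (|(1 / 2 : ℝ) - mm| / ra) ≤ 7 / 16 := by
      refine max_le (by rw [abs_zero, zero_div]; norm_num) ?_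
      rw [div_le_iff₀ hra]
      exact hmm
    have h2' : G m (θ (co m) v0.1) - max (|(0 : ℝ)| / l0) (|(1 / 2 : ℝ) - mm| / ra) ≤
      μ / 64 := h2
    linarith
  have hV1 : 1 + μ / 4 ≤ G m (θ (co m) v1.1) := by
    have h1 := (moat_val (mm := mm) hLa hl hra hM hx1 (th_mem hTc (hfr v1)) hv1).1
    rw [← hGm] at h1
    have h2 := (abs_le.1 (h1.trans hmax)).1
    have h3 : 2 ≤ max (|(1 : ℝ)| / l0) (|(1 / 2 : ℝ) - mm| / ra) := by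
      refine le_max_of_le_left ?_
      rw [abs_one, le_div_iff₀ hl]
      linarith
    have h2' : -(μ / 64) ≤ G m (θ (co m) v1.1) -
      max (|(1 : ℝ)| / l0) (|(1 / 2 : ℝ) - mm| / ra) := h2
    linarith
  have hGM : GM Φ (co m) (G m) 0 (1 + μ / 2) := by
    rw [hGm]; exact gm_moat hLa hδ hR hM hN
  refine eg_moat hLa H hC c hB hGB hm hε hrd hru hru' hbm hbg (ga0 := 1 / 8) (z0 := 1 / 2)
    (z1 := 1 + μ / 4) (g1 := 1 + 3 * μ / 8) (ω' := μ / 64) hGM hω (by positivity) (by norm_num)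
    (by linarith) (by linarith) (by linarith [hε.1]) (by linarith [hε.2]) (by linarith)
    (by linarith) ?_ hV0 hV1 hlam LOW HIGH
  intro x hx
  have h1 := gm_near (a := a) (Z := Z) (mm := mm) hLa hδ hR hκlt hl hra hTc hr hG1 hx
  rw [← hGm] at h1
  refine h1.trans (le_trans ?_ hmax)
  exact max_le_max (div_le_div_of_nonneg_right hC1 hl.le) (div_le_div_of_nonneg_right hC1 hra.le)

/-- **`EG` of a barrier at its own core, numbers of record** -/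
theorem eg_rec (hLa : IsOpen La) (hδ : 0 < δ) (hR : 0 < R) (H : Hm f g Om La)
    (hC : Cores Φ T f κ1 κ2 X J0 J V ct A lam z θ φ) (c : {c : Φ.F // c ∉ X})
    (hB : BarF Φ T f J0 J V θ co ρ1 ρ2 ρ3 ρ4 d G rm h lo hi ω q₀ g0)
    (hGB : GFB Φ r₀ T f L (lM Φ co rm h hi G) ε) {m : Mo'} (hm : co m = c.1)
    (hε : ε m ∈ Ioo (lo m) (hi m))
    (hrd : rm m - h m * lo m ≤ ρ1 m + 5 * d m) (hru : ρ3 m + 10 * d m ≤ rm m + h m * lo m)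
    (hru' : rm m + h m * hi m ≤ ρ3 m + 15 * d m)
    (hbm : bm m ∈ Om ∧ T.dim (bm m) = 1 ∧ lM Φ co rm h hi G m (f (bm m)) = ε m)
    (hbg : ρ3 m + 6 * d m ≤ ga Φ (co m) (f (bm m)))
    {μ : ℝ} (hμ : 0 < μ) (hμ1 : μ ≤ 1 / 2) (hκ1 : 0 ≤ κ1)
    (hκ : (2 * Cn δ R + 1) * κ1 ≤ μ ^ 2 / 512)
    {a p q : Φ.F} {Z : Set Φ.F} (hM : Mo (Pc Φ.F) (co m) a Z p q)
    (hGm : G m = gmf Φ (μ / 8) (1 / 2) (1 / 2 - 5 * μ / 16) a Z) (hlo : 1 ≤ lo m)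
    (hhi : hi m ≤ 1 + μ / 16) (hω : ω m ≤ μ / 64) (hg0 : g0 m ≤ 1 / 8)
    {v0 v1 : VxK T (KT T J X) c}
    (hv0 : ∀ e, |sb Φ (θ (co m) v0.1) e - uu a Z p q (1 / 2) 0 e| ≤ (2 * Cn δ R + 1) * κ1)
    (hv1 : ∀ e, |sb Φ (θ (co m) v1.1) e - uu a Z p q (1 / 2) 1 e| ≤ (2 * Cn δ R + 1) * κ1)
    {lm : E3 → ZMod 2} (hlam : IsLab T (gPts (stB hGB bp bm) (Sum.inr m)) lm)
    (LOW : ∀ b, b + ω m < ε m → IsPreconnected {q | q ∈ frontier (co m).1.set ∧ G m q ≤ b} →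
      G m (q₀ m) ≤ b → ∀ v ∈ Om, T.dim v = 0 → rm m - h m * ε m + 2 * d m ≤ ga Φ (co m) (f v) →
        ga Φ (co m) (f v) ≤ rm m + h m * ε m - 2 * d m → G m (Φ.Psi (f v)) ≤ b → lm v = 1)
    (HIGH : ∀ b, ε m + ω m < b → IsPreconnected {q | q ∈ frontier (co m).1.set ∧ b ≤ G m q} →
      {q | q ∈ frontier (co m).1.set ∧ b ≤ G m q}.Nonempty → ∀ v ∈ Om, T.dim v = 0 →
        (ga Φ (co m) (f v) ≤ rm m - h m * ε m - 2 * d m ∨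
          rm m + h m * ε m + 2 * d m ≤ ga Φ (co m) (f v) ∨ b ≤ G m (Φ.Psi (f v))) → lm v = 0) :
    Nonempty (EG (stB hGB bp bm) (Sum.inr m)
      (SB Om Φ r₀ f L (lM Φ co rm h hi G) ε (Sum.inr m)) (KT T J X) c v0 v1 (bm m)) := by
  refine eg_gen hLa hδ hR H hC c hB hGB hm hε hrd hru hru' hbm hbg hμ hμ1 hκ1 (nm_rec hμ hμ1)
    (L0_le_RA hμ1) (by linarith) ?_ ?_ hM hGm hlo hhi hω hg0 hv0 hv1 hlam LOW HIGH
  · rw [sub_self, abs_zero]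
    have := RA_ge hμ1
    linarith
  · calc (2 * Cn δ R + 1) * κ1 ≤ μ ^ 2 / 512 := hκ
      _ = μ / 64 * (μ / 8) := by ring

end Crest.Agent.R096.Ebr6_95
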