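import Crest.Agent.R096.Bin9_181
import Crest.Agent.R096.Fl1_835

/-!
# R096 (row 96), REL (helper914 for helper150): sup-closeness of the relabelling, part 1

* `nodes_close` : density of the nodes ⟹ the nodes are close to the uniform ones;
* `nodes_close_real` : the same for the real nodes;
* `nuR_close` : the PL function through the nodes is close to the identity (level units);
* `nf_close` : `|Nf n1 n2 w - min w₁ w₂| ≤ max (1/n1) (1/n2)`.
-/

set_option autoImplicit false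
set_option linter.unusedVariables false

open Set

namespace Crest.Agent.R096.Ncl_914

open Crest.Agent.R096.Grd_714 Crest.Agent.R096.Bin_181

/-! ### nodes -/

/-- **the nodes are close to the uniform ones**: `N j` = number of levels below `j / M` -/
theorem nodes_close {N : ℕ → ℕ} {M m : ℕ} (hM : 0 < M) (h0 : N 0 = 0) (hm : N M = m) {κ1 a : ℝ}
    (hκ : 0 ≤ κ1)
    (hd : ∀ i j : ℕ, i ≤ j → j ≤ M → (N j : ℝ) - N i ≤ (1 + κ1) * (((j : ℝ) - i) / M * m) + a)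
    {j : ℕ} (hj : j ≤ M) : |(N j : ℝ) - (j : ℝ) / M * m| ≤ κ1 * m + a := by
  have hMr : (0 : ℝ) < M := by exact_mod_cast hM
  have hj1 : (j : ℝ) / M ≤ 1 := by
    rw [div_le_one hMr]; exact_mod_cast hj
  have hj0 : 0 ≤ (j : ℝ) / M := by positivity
  have hm0 : (0 : ℝ) ≤ m := Nat.cast_nonneg _
  have h1 := hd 0 j (Nat.zero_le _) hj
  have h2 := hd j M hj le_rfl
  rw [h0] at h1
  rw [hm, sub_div, div_self hMr.ne'] at h2
  simp only [Nat.cast_zero, sub_zero] at h1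
  have h3 : κ1 * ((j : ℝ) / M * m) ≤ κ1 * m := by
    apply mul_le_mul_of_nonneg_left _ hκ
    nlinarith
  have h4 : κ1 * ((1 - (j : ℝ) / M) * m) ≤ κ1 * m := by
    apply mul_le_mul_of_nonneg_left _ hκ
    nlinarith
  rw [abs_le]
  constructor <;> nlinarith

/-- real nodes near the integer ones -/
theorem nodes_close_real {N : ℕ → ℕ} {n : ℕ → ℝ} {M m : ℕ} (hM : 0 < M) (hm0 : 0 < m)
    {κ1 a e : ℝ} {j : ℕ} (h : |(N j : ℝ) - (j : ℝ) / M * m| ≤ κ1 * m + a)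
    (hn : |n j - N j| ≤ e) : |n j / m - (j : ℝ) / M| ≤ κ1 + (a + e) / m := by
  have hmr : (0 : ℝ) < m := by exact_mod_cast hm0
  have e1 : n j / m - (j : ℝ) / M = ((n j - N j) + (N j - (j : ℝ) / M * m)) / m := by
    field_simp
    ring
  rw [e1, abs_div, abs_of_pos hmr, div_le_iff₀ hmr]
  refine (abs_add_le _ _).trans ?_
  have e2 : (κ1 + (a + e) / m) * m = e + (κ1 * m + a) := by
    field_simp
    ring
  rw [e2]
  exact add_le_add hn h

/-- **the PL function through close nodes is close to the identity** -/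
theorem nuR_close {n : ℕ → ℝ} (hN : StrictMono n) (h0 : n 0 = 0) {M : ℕ} (hM : 0 < M) {m : ℝ}
    (hm : 0 < m) {ε : ℝ} (h : ∀ j ≤ M, |n j / m - (j : ℝ) / M| ≤ ε) {x : ℝ}
    (hx : x ∈ Icc (0 : ℝ) M) : |nuR n M x / m - x / M| ≤ ε := by
  obtain ⟨i, hi, h1, h2⟩ := exists_int (N := id) strictMono_id rfl hx.1 hM hx.2
  simp only [id] at h1 h2
  push_cast at h2
  have hMr : (0 : ℝ) < M := by exact_mod_cast hM
  rw [nuR_eq hN h0 hi h1 h2]
  have e : (n i + (n (i + 1) - n i) * (x - i)) / m - x / M =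
      (1 - (x - i)) * (n i / m - (i : ℝ) / M) +
        (x - i) * (n (i + 1) / m - ((i + 1 : ℕ) : ℝ) / M) := by
    push_cast
    field_simp
    ring
  rw [e]
  refine (abs_add_le _ _).trans ?_
  rw [abs_mul, abs_mul, abs_of_nonneg (by linarith : 0 ≤ 1 - (x - i)),
    abs_of_nonneg (by linarith : 0 ≤ x - i)]
  have k1 := mul_le_mul_of_nonneg_left (h i hi.le) (by linarith : 0 ≤ 1 - (x - i))
  have k2 := mul_le_mul_of_nonneg_left (h (i + 1) hi) (by linarith : 0 ≤ x - i)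
  linarith

/-! ### the heights -/

/-- the height at a grid point -/
theorem Nf_node {n1 n2 : ℕ} (h1 : 0 < n1) (h2 : 0 < n2) (p q : ℕ) :
    Nf n1 n2 (1 - (p : ℝ) / n1, 1 - (q : ℝ) / n2) = min (1 - (p : ℝ) / n1) (1 - (q : ℝ) / n2) := by
  have hn1 : (0 : ℝ) < n1 := by exact_mod_cast h1
  have hn2 : (0 : ℝ) < n2 := by exact_mod_cast h2
  have e1 : (n1 : ℝ) * (1 - (1 - (p : ℝ) / n1)) = p := by field_simp; ring
  have e2 : (n2 : ℝ) * (1 - (1 - (q : ℝ) / n2)) = q := by field_simp; ring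
  simp only [Nf, e1, e2]
  rw [itp_box (Grd_714.nu n1 n2) (i' := p) (i := p) (j' := q) (j := q) le_rfl (by omega) le_rfl (by omega)
    (by simp) (by simp) (by simp) (by simp)]
  simp only [itc, Grd_714.nu]
  simp

/-- **the interpolated heights are close to `min`** -/
theorem nf_close {n1 n2 : ℕ} (h1 : 0 < n1) (h2 : 0 < n2) {w : ℝ × ℝ} (hw : w ∈ Sc) :
    |Nf n1 n2 w - min w.1 w.2| ≤ max (1 / (n1 : ℝ)) (1 / n2) := by
  obtain ⟨x, y⟩ := w
  obtain ⟨hx, hy⟩ := hw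
  simp only at hx hy
  have hn1 : (0 : ℝ) < n1 := by exact_mod_cast h1
  have hn2 : (0 : ℝ) < n2 := by exact_mod_cast h2
  have A := adm_Nf h1 h2
  obtain ⟨p, hp, hp1⟩ := exists_cell h1 (t := n1 * (1 - x)) ⟨mul_nonneg hn1.le (by linarith [hx.2]),
    by nlinarith [hx.1]⟩
  obtain ⟨q, hq, hq1⟩ := exists_cell h2 (t := n2 * (1 - y)) ⟨mul_nonneg hn2.le (by linarith [hy.2]),
    by nlinarith [hy.1]⟩
  obtain ⟨p1, p2⟩ := hp1
  obtain ⟨q1, q2⟩ := hq1
  have hp' : (p : ℝ) + 1 ≤ n1 := by exact_mod_cast hp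
  have hq' : (q : ℝ) + 1 ≤ n2 := by exact_mod_cast hq
  -- corners
  have a1 : x ≤ 1 - (p : ℝ) / n1 := by
    rw [le_sub_iff_add_le, ← le_sub_iff_add_le', div_le_iff₀ hn1]; linarith
  have a2 : 1 - ((p + 1 : ℕ) : ℝ) / n1 ≤ x := by
    rw [sub_le_iff_le_add, ← sub_le_iff_le_add', le_div_iff₀ hn1]; push_cast; linarith
  have b1 : y ≤ 1 - (q : ℝ) / n2 := by
    rw [le_sub_iff_add_le, ← le_sub_iff_add_le', div_le_iff₀ hn2]; linarith
  have b2 : 1 - ((q + 1 : ℕ) : ℝ) / n2 ≤ y := by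
    rw [sub_le_iff_le_add, ← sub_le_iff_le_add', le_div_iff₀ hn2]; push_cast; linarith
  have mem : ∀ {n p : ℕ}, 0 < n → p ≤ n → (1 - (p : ℝ) / n) ∈ Icc (0 : ℝ) 1 := by
    intro n p hn hp
    have hn' : (0 : ℝ) < n := by exact_mod_cast hn
    have : (p : ℝ) / n ≤ 1 := by rw [div_le_one hn']; exact_mod_cast hp
    have h0 : 0 ≤ (p : ℝ) / n := by positivity
    exact ⟨by linarith, by linarith⟩
  have c1 := mem h1 hp.le
  have c2 := mem h1 (show p + 1 ≤ n1 from hp)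
  have d1 := mem h2 hq.le
  have d2 := mem h2 (show q + 1 ≤ n2 from hq)
  have up1 := (A.m1 _ _ _ c1 hx hy a1).1
  have up2 := (A.m2 _ _ _ c1 d1 hy b1).1
  have lo1 := (A.m1 _ _ _ hx c2 hy a2).1
  have lo2 := (A.m2 _ _ _ c2 hy d2 b2).1
  rw [Nf_node h1 h2] at up2 lo2
  have e1 : (1 - ((p + 1 : ℕ) : ℝ) / n1) = 1 - (p : ℝ) / n1 - 1 / n1 := by push_cast; ring
  have e2 : (1 - ((q + 1 : ℕ) : ℝ) / n2) = 1 - (q : ℝ) / n2 - 1 / n2 := by push_cast; ring
  have k1 : min (1 - (p : ℝ) / n1) (1 - (q : ℝ) / n2) - max (1 / (n1 : ℝ)) (1 / n2) ≤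
      min (1 - ((p + 1 : ℕ) : ℝ) / n1) (1 - ((q + 1 : ℕ) : ℝ) / n2) := by
    rw [e1, e2]
    refine le_min ?_ ?_
    · have := min_le_left (1 - (p : ℝ) / n1) (1 - (q : ℝ) / n2)
      have := le_max_left (1 / (n1 : ℝ)) (1 / n2)
      linarith
    · have := min_le_right (1 - (p : ℝ) / n1) (1 - (q : ℝ) / n2)
      have := le_max_right (1 / (n1 : ℝ)) (1 / n2)
      linarith
  have k2 : min x y ≤ min (1 - (p : ℝ) / n1) (1 - (q : ℝ) / n2) := min_le_min a1 b1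
  have k3 : min (1 - ((p + 1 : ℕ) : ℝ) / n1) (1 - ((q + 1 : ℕ) : ℝ) / n2) ≤ min x y :=
    min_le_min a2 b2
  simp only
  rw [abs_le]
  constructor <;> linarith

end Crest.Agent.R096.Ncl_914
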