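import Crest.Agent.R096.Ecm8_446
import Crest.Agent.R096.Ncl1_914

/-!
# R096 (row 96), BASE-DISC, part 9 (helper446): the nodes of an exact core are close to the uniform
nodes (density of the levels)
-/

set_option autoImplicit false
set_option linter.unusedSectionVars false
set_option linter.style.longLine false

open Set

namespace Crest.Agent.R096.Ecm_446

open Crest.Agent.R096.Mg_441 Crest.Agent.R096.Cp_298 Crest.Agent.R096.SkB_662
  Crest.Agent.R096.Gl_422

/-- half open windows -/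
theorem dens_le {L : Finset ℝ} {κp : ℝ} (hκ : 0 ≤ κp)
    (hd : ∀ u v : ℝ, u ≤ v →
      ((L.filter fun t => u < t ∧ t < v).card : ℝ) ≤ (1 + κp) * (v - u) * L.card + 1)
    {u v : ℝ} (huv : u ≤ v) :
    ((L.filter fun t => u < t ∧ t ≤ v).card : ℝ) ≤ (1 + κp) * (v - u) * L.card + 1 := by
  refine le_of_forall_pos_le_add fun ε hε => ?_
  have hL : (0 : ℝ) ≤ L.card := Nat.cast_nonneg _
  set η : ℝ := ε / ((1 + κp) * (L.card + 1)) with hη
  have hpos : 0 < (1 + κp) * ((L.card : ℝ) + 1) := by positivity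
  have hη0 : 0 < η := div_pos hε hpos
  have h1 := hd u (v + η) (by linarith)
  have h2 : ((L.filter fun t => u < t ∧ t ≤ v).card : ℝ) ≤
      ((L.filter fun t => u < t ∧ t < v + η).card : ℝ) := by
    exact_mod_cast Finset.card_le_card fun t ht => by
      rw [Finset.mem_filter] at ht ⊢
      exact ⟨ht.1, ht.2.1, ht.2.2.trans_lt (by linarith)⟩
  have h3 : (1 + κp) * η * L.card ≤ ε := by
    have e : η * ((1 + κp) * (L.card + 1)) = ε := div_mul_cancel₀ _ hpos.ne'
    have : (1 + κp) * η * L.card ≤ η * ((1 + κp) * (L.card + 1)) := by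
      have := mul_nonneg hη0.le (by positivity : (0 : ℝ) ≤ 1 + κp)
      nlinarith
    linarith
  nlinarith

section cnt

variable {J C : Type} {fam : J → C} {t : J → ℝ} {L : C → Finset ℝ}

/-- the number of the sheets in a window -/
theorem cnt_sub_le (hfin : ∀ a, {j | fam j = a}.Finite) (ht : ∀ j, t j ∈ L (fam j))
    (hinj : ∀ j j', fam j = fam j' → t j = t j' → j = j') {M : ℕ} (hM : 0 < M) (a : C) (i k : ℕ) :
    (cnt fam (fun j => M * t j) a k : ℝ) - cnt fam (fun j => M * t j) a i ≤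
      (((L a).filter fun r => (i : ℝ) / M < r ∧ r ≤ (k : ℝ) / M).card : ℝ) := by
  classical
  have hM' : (0 : ℝ) < M := by exact_mod_cast hM
  have h1 : {j | fam j = a ∧ (M : ℝ) * t j ≤ k} ⊆ {j | fam j = a ∧ (M : ℝ) * t j ≤ i} ∪
      {j | fam j = a ∧ (i : ℝ) < M * t j ∧ (M : ℝ) * t j ≤ k} := by
    rintro j ⟨e1, e2⟩
    rcases le_or_gt ((M : ℝ) * t j) i with h | h
    · exact Or.inl ⟨e1, h⟩
    · exact Or.inr ⟨e1, h, e2⟩
  have hf1 : {j | fam j = a ∧ (M : ℝ) * t j ≤ i}.Finite := (hfin a).subset fun j hj => hj.1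
  have hf2 : {j | fam j = a ∧ (i : ℝ) < M * t j ∧ (M : ℝ) * t j ≤ k}.Finite :=
    (hfin a).subset fun j hj => hj.1
  have h2 := (Set.ncard_le_ncard h1 (hf1.union hf2)).trans (Set.ncard_union_le _ _)
  have h3 : {j | fam j = a ∧ (i : ℝ) < M * t j ∧ (M : ℝ) * t j ≤ k}.ncard ≤
      ((L a).filter fun r => (i : ℝ) / M < r ∧ r ≤ (k : ℝ) / M).card := by
    rw [← Set.ncard_coe_finset]
    refine Set.ncard_le_ncard_of_injOn t ?_ ?_ (Finset.finite_toSet _)
    · rintro j ⟨e1, e2, e3⟩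
      rw [Finset.mem_coe, Finset.mem_filter]
      refine ⟨by rw [← e1]; exact ht j, ?_, ?_⟩
      · rw [div_lt_iff₀ hM']; linarith
      · rw [le_div_iff₀ hM']; linarith
    · rintro j ⟨e1, -⟩ j' ⟨e1', -⟩ e
      exact hinj j j' (e1.trans e1'.symm) e
  have h4 : (cnt fam (fun j => M * t j) a k : ℝ) ≤ cnt fam (fun j => M * t j) a i +
      (((L a).filter fun r => (i : ℝ) / M < r ∧ r ≤ (k : ℝ) / M).card : ℝ) := by
    unfold cnt
    exact_mod_cast h2.trans (Nat.add_le_add_left h3 _)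
  linarith

/-- the number of the sheets of a family is the number of its levels -/
theorem mm_card (hfin : ∀ a, {j | fam j = a}.Finite) (ht : ∀ j, t j ∈ L (fam j))
    (hinj : ∀ j j', fam j = fam j' → t j = t j' → j = j')
    (hsur : ∀ a, ∀ r ∈ L a, ∃ j, fam j = a ∧ t j = r) (a : C) : mm hfin a = (L a).card := by
  classical
  refine Finset.card_bij (fun j _ => t j) (fun j hj => ?_) (fun j hj j' hj' e => ?_) fun r hr => ?_
  · rw [← (mem_sh hfin).1 hj]; exact ht j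
  · exact hinj j j' (((mem_sh hfin).1 hj).trans ((mem_sh hfin).1 hj').symm) e
  · obtain ⟨j, h1, h2⟩ := hsur a r hr
    exact ⟨j, (mem_sh hfin).2 h1, h2⟩

/-- **upper density of the nodes** (914's `hd`) -/
theorem NNt_dens {κc kap : C → ℕ} (hfin : ∀ a, {j | fam j = a}.Finite) (ht : ∀ j, t j ∈ L (fam j))
    (hinj : ∀ j j', fam j = fam j' → t j = t j' → j = j')
    (hsur : ∀ a, ∀ r ∈ L a, ∃ j, fam j = a ∧ t j = r) {κp : ℝ} (hκ : 0 ≤ κp) (a : C)
    (hd : ∀ u v : ℝ, u ≤ v →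
      (((L a).filter fun t => u < t ∧ t < v).card : ℝ) ≤ (1 + κp) * (v - u) * (L a).card + 1)
    {M : ℕ} (hM : 0 < M) {i k : ℕ} (hik : i ≤ k) :
    (NN fam κc kap (fun j => M * t j) a k : ℝ) - NN fam κc kap (fun j => M * t j) a i ≤
      (1 + κp) * (((k : ℝ) - i) / M * mm (fin_copies (Rk κc kap) hfin) a) + Rk κc kap a := by
  have hM' : (0 : ℝ) < M := by exact_mod_cast hM
  rw [NN_eq hfin, NN_eq hfin, SkB_662.mm_eq (Rk κc kap) hfin a, mm_card hfin ht hinj hsur a]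
  have hR : (0 : ℝ) ≤ Rk κc kap a := Nat.cast_nonneg _
  have h1 := cnt_sub_le hfin ht hinj hM a i k
  have h2 := dens_le hκ hd (u := (i : ℝ) / M) (v := (k : ℝ) / M)
    (div_le_div_of_nonneg_right (by exact_mod_cast hik) hM'.le)
  have h3 := mul_le_mul_of_nonneg_left (h1.trans h2) hR
  have e : (k : ℝ) / M - i / M = (k - i) / M := by ring
  rw [e] at h3
  rw [Nat.cast_mul, Nat.cast_mul, Nat.cast_mul, ← mul_sub]
  refine h3.trans (le_of_eq ?_)
  ring

/-- **the nodes of an exact core are close to the uniform nodes** -/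
theorem nod_close {κc kap : C → ℕ} (hfin : ∀ a, {j | fam j = a}.Finite)
    (ht : ∀ j, t j ∈ L (fam j)) (ht1 : ∀ j, 0 < t j ∧ t j ≤ 1)
    (hinj : ∀ j j', fam j = fam j' → t j = t j' → j = j')
    (hsur : ∀ a, ∀ r ∈ L a, ∃ j, fam j = a ∧ t j = r) {κp : ℝ} (hκ : 0 ≤ κp) (a : C)
    (hL : 0 < (L a).card)
    (hd : ∀ u v : ℝ, u ≤ v →
      (((L a).filter fun t => u < t ∧ t < v).card : ℝ) ≤ (1 + κp) * (v - u) * (L a).card + 1)
    {M : ℕ} (hM : 0 < M) {κf : ℝ} (hκf : κf ≤ 2) {n : C → ℕ → ℝ}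
    (hn : Nod M (mm (fin_copies (Rk κc kap) hfin)) (NN fam κc kap (fun j => M * t j)) κf n)
    {j : ℕ} (hj : j ≤ M) :
    |n a j / mm (fin_copies (Rk κc kap) hfin) a - (j : ℝ) / M| ≤ κp + 2 / (L a).card := by
  have hM' : (0 : ℝ) < M := by exact_mod_cast hM
  have hR : 0 < Rk κc kap a := Rk_pos κc kap a
  have hR1 : (1 : ℝ) ≤ Rk κc kap a := by exact_mod_cast hR
  have hm : mm (fin_copies (Rk κc kap) hfin) a = Rk κc kap a * (L a).card := by
    rw [SkB_662.mm_eq (Rk κc kap) hfin a, mm_card hfin ht hinj hsur a]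
  have hm0 : 0 < mm (fin_copies (Rk κc kap) hfin) a := by
    rw [hm]; exact Nat.mul_pos hR hL
  have h1 := Ncl_914.nodes_close (N := NN fam κc kap (fun j => M * t j) a) hM
    (NN_zero (fun j => mul_pos hM' (ht1 j).1) a)
    (NN_top (fun j => by nlinarith [(ht1 j).2]) a hfin) hκ
    (fun i k hik _ => NNt_dens hfin ht hinj hsur hκ a hd hM hik) hj
  have h2 := Ncl_914.nodes_close_real hM hm0 h1 (hn.near a j hj).le
  refine h2.trans ?_
  have hL' : (0 : ℝ) < (L a).card := by exact_mod_cast hL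
  have hm0' : (0 : ℝ) < mm (fin_copies (Rk κc kap) hfin) a := by exact_mod_cast hm0
  have h3 : ((Rk κc kap a : ℝ) + κf / 2) / mm (fin_copies (Rk κc kap) hfin) a ≤
      2 / (L a).card := by
    rw [div_le_div_iff₀ hm0' hL', hm, Nat.cast_mul]
    have : (Rk κc kap a : ℝ) + κf / 2 ≤ 2 * Rk κc kap a := by linarith
    nlinarith
  linarith

/-- **slope of the nodes** -/
theorem nod_step {κc kap : C → ℕ} (hfin : ∀ a, {j | fam j = a}.Finite)
    (ht : ∀ j, t j ∈ L (fam j))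
    (hinj : ∀ j j', fam j = fam j' → t j = t j' → j = j')
    (hsur : ∀ a, ∀ r ∈ L a, ∃ j, fam j = a ∧ t j = r) {κp : ℝ} (hκ : 0 ≤ κp) (a : C)
    (hd : ∀ u v : ℝ, u ≤ v →
      (((L a).filter fun t => u < t ∧ t < v).card : ℝ) ≤ (1 + κp) * (v - u) * (L a).card + 1)
    {M : ℕ} (hM : 0 < M) (hML : M ≤ (L a).card) {κf : ℝ} {n : C → ℕ → ℝ}
    (hn : Nod M (mm (fin_copies (Rk κc kap) hfin)) (NN fam κc kap (fun j => M * t j)) κf n)
    (i : ℕ) :
    n a (i + 1) - n a i ≤ (2 + κp) * mm (fin_copies (Rk κc kap) hfin) a / M := by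
  have hM' : (0 : ℝ) < M := by exact_mod_cast hM
  have hm : mm (fin_copies (Rk κc kap) hfin) a = Rk κc kap a * (L a).card := by
    rw [SkB_662.mm_eq (Rk κc kap) hfin a, mm_card hfin ht hinj hsur a]
  refine hn.step a i (2 + κp) (by linarith) ?_
  have h1 := NNt_dens (κc := κc) (kap := kap) hfin ht hinj hsur hκ a hd hM (Nat.le_succ i)
  refine h1.trans ?_
  have hR0 : (0 : ℝ) ≤ Rk κc kap a := Nat.cast_nonneg _
  have h2 : (Rk κc kap a : ℝ) ≤ (mm (fin_copies (Rk κc kap) hfin) a : ℝ) / M := by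
    rw [le_div_iff₀ hM', hm, Nat.cast_mul]
    exact mul_le_mul_of_nonneg_left (by exact_mod_cast hML) hR0
  have h3 : (((i + 1 : ℕ) : ℝ) - i) = 1 := by push_cast; ring
  rw [h3]
  have e : (2 + κp) * (mm (fin_copies (Rk κc kap) hfin) a : ℝ) / M =
      (1 + κp) * (1 / M * mm (fin_copies (Rk κc kap) hfin) a) +
        (mm (fin_copies (Rk κc kap) hfin) a : ℝ) / M := by
    field_simp
    ring
  rw [e]
  linarith

end cnt

end Crest.Agent.R096.Ecm_446
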