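import Crest.Agent.R096.Fl5_835

/-!
# R096 (row 96), OUT-LIP (helper835), part 2: the numbers of 662 against `NN`

`we_le_NN`: weighted number of pieces on the edges of the cell of the tile `i` ≤ `NN Φ T f κ L i`.
`out_lip_st`, `out_lipT_st`: the clauses `lip`, `lipT` for the final state (`StO`).
-/

set_option autoImplicit false
set_option linter.unusedSectionVars false

open Set Filter Topology Relation MeasureTheory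
open scoped ENNReal

namespace Crest.Agent.R096.Fl_835

open Crest.Agent.R096.St_147 Crest.Agent.R096.Seq_213 Crest.Agent.R096.Seq_213.GSt
  Crest.Agent.R096.Bd_416 Crest.Agent.R096.Mg_441 Crest.Agent.R096.Lm_117
  Crest.Agent.R096.Cp_298 Crest.Agent.R096.Gl_422
  Crest.Agent.R096.On_441 Crest.Agent.R096.SkB_662 Crest.Agent.R096.Ce_537
open Crest.Agent.R096.Msh_715
open Crest.Agent.R096.Bsp_628 Crest.Agent.R096.Brk1_582 Crest.Agent.R096.Brk3_582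
open Crest.Agent.R096.Brk5_582
open Crest.Agent.R096.SkC1_961 (E3 FoamD Cfg NN)
open Crest.Agent.R96.Nu1_199 (Wd)
open Crest.Agent.R96.Nu2_199 (edg mem_edg)
open Crest.Agent.R96.Nu7_199 (WE)

variable {δ κ0 R c0 : ℝ} {La Om Ω' : Set E3} {ιt : Type}
variable {ι Φc Q J Kq : Type} {M : MeshC ι Φc E3} [PartialOrder Q] {dim : Q → ℕ}
  {Φ : FoamD δ κ0 R c0 La} {T : Tiling Om ιt} {f : E3 → E3}
  {L : LM M Q dim} {O : Ori M} {τ : Q → ZMod 2} {Rel : E3 → E3 → Prop} {V : Set E3}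
  {Qd : Quads ι Φ.F Kq} {κ : Φ.F → ℕ} {fam : J → Φ.F} {s₀ : GSt M fam} {far₀ : J → Set E3}
  {G : Φ.F → Set E3} {Z : Φ.F → Set Q} {lam₀ : J → Q → ZMod 2} {v₀ v₁ : Φ.F → Q}
  {hfin : ∀ a, {j | fam j = a}.Finite} {kap : Φ.F → ℕ} {s : GSt M (fam' fam (Rk κ kap))}
  {far : Nm' fam (Rk κ kap) → Set E3} {β : E3 → E3} {lam : Nm' fam (Rk κ kap) → Q → ZMod 2}
  {Kc : Q → Set E3}

/-- weight of a final sheet -/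
noncomputable def wk (κ kap : Φ.F → ℕ) (fam : J → Φ.F) (j : Nm' fam (Rk κ kap)) : ℝ :=
  (2 : ℝ)⁻¹ ^ kap (fam' fam (Rk κ kap) j)

theorem wk_pos (κ kap : Φ.F → ℕ) (fam : J → Φ.F) (j : Nm' fam (Rk κ kap)) : 0 < wk κ kap fam j := by
  unfold wk
  positivity

/-- **number of copies times weight of a copy** -/
theorem mm_wk (h : StO L O τ Rel V Qd κ s₀ far₀ Z lam₀ v₀ v₁ hfin kap s far β lam)
    {Lv : Φ.F → Finset ℝ} (hcard : ∀ a, mm hfin a = (Lv a).card) (a : Φ.F) :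
    (mm h.fin1 a : ℝ) * (2 : ℝ)⁻¹ ^ kap a = (Lv a).card * (2 : ℝ)⁻¹ ^ κ a := by
  rw [h.mm_eq, hcard]
  unfold Rk
  push_cast
  have e : kap a = κ a + (kap a - κ a) := by
    have := h.le a
    omega
  have e2 : (2 : ℝ)⁻¹ ^ kap a = (2 : ℝ)⁻¹ ^ κ a * (2 : ℝ)⁻¹ ^ (kap a - κ a) := by
    rw [← pow_add, ← e]
  rw [e2]
  have e3 : (2 : ℝ) ^ (kap a - κ a) * (2 : ℝ)⁻¹ ^ (kap a - κ a) = 1 := by
    rw [← mul_pow]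
    norm_num
  calc (2 : ℝ) ^ (kap a - κ a) * ((Lv a).card : ℝ) * ((2 : ℝ)⁻¹ ^ κ a * (2 : ℝ)⁻¹ ^ (kap a - κ a))
      = ((2 : ℝ) ^ (kap a - κ a) * (2 : ℝ)⁻¹ ^ (kap a - κ a)) *
        (((Lv a).card : ℝ) * (2 : ℝ)⁻¹ ^ κ a) := by ring
    _ = _ := by rw [e3, one_mul]

/-- **the numbers of a cell of a tile** -/
theorem we_le_NN (X : Cplx Ω' Q dim Kc)
    (h : StO L O τ Rel V Qd κ s₀ far₀ Z lam₀ v₀ v₁ hfin kap s far β lam)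
    (hrel : ∀ x w, Rel x w → (x ∈ L.W1 ∨ w ∈ L.W1) → x ∈ L.W1 ∧ w ∈ L.W1 ∧ L.ed x = L.ed w)
    {t : J → ℝ} (hinj : ∀ j j', fam j = fam j' → t j = t j' → j = j')
    {Lv : Φ.F → Finset ℝ} (hL : ∀ j, t j ∈ Lv (fam j)) {q : Q} {i : ιt}
    (hlev : ∀ x ∈ s₀.P, x ∈ P (T.H i) → T.dim x ≤ 1 →
      Φ.lev (fam (s₀.lab x)) (f x) = t (s₀.lab x))
    (hB : ∀ e, e < q → dim e = 1 → L.toSk.On1 e ⊆ {y | y ∈ P (T.H i) ∧ T.dim y ≤ 1}) :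
    ENNReal.ofReal (WE X h.cmb (wk κ kap fam) q) ≤ NN Φ T f κ Lv i := by
  have k := h.wd_le hrel (lv := fun c y => Φ.lev c (f y)) hinj hL
    (B := {y | y ∈ P (T.H i) ∧ T.dim y ≤ 1}) (fun x hx hxB => hlev x hx hxB.1 hxB.2) (edg X q)
    (fun e he => ((mem_edg X).1 he).2)
    (fun e he => hB e ((mem_edg X).1 he).1 ((mem_edg X).1 he).2)
  refine k.trans (le_of_eq ?_)
  unfold NN
  refine tsum_congr fun c => ?_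
  congr 1
  refine Finset.sum_congr rfl fun r _ => ?_
  congr 3
  ext y
  simp only [mem_ofPred_eq, and_assoc]

section clauses

variable {D : Set Q} {y0 : Φ.F → ℝ} {Ck : Set (Set E3) → ℝ} {g : E3 → E3} {tol : ℝ} {κ3 : ℝ}
  {t : J → ℝ} {Lv : Φ.F → Finset ℝ} {q : Q} {i : ιt}

/-- **the clause `lip` of `Mbf_337.Out` at the tile `i`, from the final state** -/
theorem out_lip_st (hLa : IsOpen La) (hR : 0 ≤ R) (h3 : 0 ≤ κ3)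
    (many : ∀ c, c.1.sz ≤ κ3 * ((Lv c).card * (2 : ℝ)⁻¹ ^ κ c)) (X : Cplx Ω' Q dim Kc)
    (h : StO L O τ Rel V Qd κ s₀ far₀ Z lam₀ v₀ v₁ hfin kap s far β lam)
    (hrel : ∀ x w, Rel x w → (x ∈ L.W1 ∨ w ∈ L.W1) → x ∈ L.W1 ∧ w ∈ L.W1 ∧ L.ed x = L.ed w)
    (hinj : ∀ j j', fam j = fam j' → t j = t j' → j = j') (hL : ∀ j, t j ∈ Lv (fam j))
    (hcard : ∀ a, mm hfin a = (Lv a).card)
    (hlev : ∀ x ∈ s₀.P, x ∈ P (T.H i) → T.dim x ≤ 1 →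
      Φ.lev (fam (s₀.lab x)) (f x) = t (s₀.lab x))
    {Gf : Gd E3 (Nm' fam (Rk κ kap))} {P' : ∀ q, h.cmb.I q → Set E3}
    {c : ∀ q, h.cmb.I q → E3 → ℝ} (H : Inv h.cmb Kc D Gf P' c) (hq : q ∈ D)
    (hqi : Kc q = P (T.H i)) (hy0 : Ex h.cmb (Pc Φ.F) q y0) (hCk : ∀ 𝒦, 0 ≤ Ck 𝒦)
    (hLB : ∀ (B : E3 ≃ᵃ[ℝ] E3) (x : h.cmb.I q), ∀ z ∈ Kc q,
      LB B (Ck ((fun K => B '' K) '' Cfg T i) * WE X h.cmb (wk κ kap fam) q /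
        wk κ kap fam (h.cmb.col q x)) (c q x) (Kc q) z)
    (hB : ∀ e, e < q → dim e = 1 → L.toSk.On1 e ⊆ {y | y ∈ P (T.H i) ∧ T.dim y ≤ 1})
    (hg : ∀ x ∈ I (T.H i), ∀ᶠ y in 𝓝 x,
      ‖(g y - Xp_537.gG (Grd_714.Tq (bc (F := Φ.F)) (mm h.fin1)) (merge h.fin1 Gf) y) -
        (g x - Xp_537.gG (Grd_714.Tq (bc (F := Φ.F)) (mm h.fin1)) (merge h.fin1 Gf) x)‖ ≤
          tol * ‖y - x‖) :
    ∀ B : E3 ≃ᵃ[ℝ] E3, ∀ N : ℝ, 0 ≤ N → NN Φ T f κ Lv i ≤ ENNReal.ofReal N →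
      ∀ x ∈ I (T.H i), ∀ᶠ y in 𝓝 x,
        ‖g y - g x‖ ≤ (2 * R * κ3 * Ck ((fun K => B '' K) '' Cfg T i)) * N * ‖B y - B x‖ +
          tol * ‖y - x‖ :=
  out_lip_tile hLa hR h3 many H hq hqi h.fin1 (wt := fun a => (2 : ℝ)⁻¹ ^ kap a)
    (fun a => by positivity) (mm_wk h hcard) hy0 hCk
    (Crest.Agent.R96.Nu7_199.WE_nonneg X (wk_pos κ kap fam) q) hLB
    (we_le_NN X h hrel hinj hL hlev hB) hg

/-- **the clause `lipT` of `OutNO` at the tile `i`, from the final state** -/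
theorem out_lipT_st (hLa : IsOpen La) (X : Cplx Ω' Q dim Kc)
    (h : StO L O τ Rel V Qd κ s₀ far₀ Z lam₀ v₀ v₁ hfin kap s far β lam)
    (hrel : ∀ x w, Rel x w → (x ∈ L.W1 ∨ w ∈ L.W1) → x ∈ L.W1 ∧ w ∈ L.W1 ∧ L.ed x = L.ed w)
    (hinj : ∀ j j', fam j = fam j' → t j = t j' → j = j') (hL : ∀ j, t j ∈ Lv (fam j))
    (hcard : ∀ a, mm hfin a = (Lv a).card) (hmm : ∀ a, 0 < mm h.fin1 a)
    (hlev : ∀ x ∈ s₀.P, x ∈ P (T.H i) → T.dim x ≤ 1 →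
      Φ.lev (fam (s₀.lab x)) (f x) = t (s₀.lab x))
    {Gf : Gd E3 (Nm' fam (Rk κ kap))} {P' : ∀ q, h.cmb.I q → Set E3}
    {c : ∀ q, h.cmb.I q → E3 → ℝ} (H : Inv h.cmb Kc D Gf P' c) (hq : q ∈ D)
    (hqi : Kc q = P (T.H i)) (hy0 : Ex h.cmb (Pc Φ.F) q y0) (hCk : ∀ 𝒦, 0 ≤ Ck 𝒦)
    (hLB : ∀ (B : E3 ≃ᵃ[ℝ] E3) (x : h.cmb.I q), ∀ z ∈ Kc q,
      LB B (Ck ((fun K => B '' K) '' Cfg T i) * WE X h.cmb (wk κ kap fam) q /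
        wk κ kap fam (h.cmb.col q x)) (c q x) (Kc q) z)
    (hB : ∀ e, e < q → dim e = 1 → L.toSk.On1 e ⊆ {y | y ∈ P (T.H i) ∧ T.dim y ≤ 1})
    (hg : ∀ x ∈ I (T.H i), ∀ᶠ y in 𝓝 x,
      ‖(g y - Xp_537.gG (Grd_714.Tq (bc (F := Φ.F)) (mm h.fin1)) (merge h.fin1 Gf) y) -
        (g x - Xp_537.gG (Grd_714.Tq (bc (F := Φ.F)) (mm h.fin1)) (merge h.fin1 Gf) x)‖ ≤
          tol * ‖y - x‖) :
    ∀ B : E3 ≃ᵃ[ℝ] E3, ∀ N : ℝ, 0 ≤ N → NN Φ T f κ Lv i ≤ ENNReal.ofReal N →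
      ∀ Wd w : ℝ, 0 ≤ Wd → 0 < w → ∀ Ds : Set E3, (∀ y ∈ Ds, ∀ y' ∈ Ds, ‖y - y'‖ ≤ Wd) →
      (∀ x ∈ P (T.H i), ∀ S : Set Φ.F, {c | lab h.fin1 Gf x c = 0} ⊆ S →
        S ⊆ {c | lab h.fin1 Gf x c < 1} → bc (F := Φ.F) S ∈ Ds) →
      (∀ x ∈ P (T.H i), ∀ c, 0 < lab h.fin1 Gf x c → lab h.fin1 Gf x c < 1 →
        w ≤ (Lv c).card * (2 : ℝ)⁻¹ ^ κ c) →
      ∀ x ∈ I (T.H i), ∀ᶠ y in 𝓝 x,
        ‖g y - g x‖ ≤ (2 * Ck ((fun K => B '' K) '' Cfg T i)) * (Wd / w) * N * ‖B y - B x‖ +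
          tol * ‖y - x‖ :=
  out_lipT_tile hLa H hq hqi h.fin1 (wt := fun a => (2 : ℝ)⁻¹ ^ kap a)
    (fun a => by positivity) hmm (mm_wk h hcard) hy0 hCk
    (Crest.Agent.R96.Nu7_199.WE_nonneg X (wk_pos κ kap fam) q) hLB
    (we_le_NN X h hrel hinj hL hlev hB) hg

/-- **the clause `lip` of 527's `OutG` at the tile `i`** (no tolerance): `Gm = gG` on the tile -/
theorem outG_lip_st (hLa : IsOpen La) (hR : 0 ≤ R) (h3 : 0 ≤ κ3)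
    (many : ∀ c, c.1.sz ≤ κ3 * ((Lv c).card * (2 : ℝ)⁻¹ ^ κ c)) (X : Cplx Ω' Q dim Kc)
    (h : StO L O τ Rel V Qd κ s₀ far₀ Z lam₀ v₀ v₁ hfin kap s far β lam)
    (hrel : ∀ x w, Rel x w → (x ∈ L.W1 ∨ w ∈ L.W1) → x ∈ L.W1 ∧ w ∈ L.W1 ∧ L.ed x = L.ed w)
    (hinj : ∀ j j', fam j = fam j' → t j = t j' → j = j') (hL : ∀ j, t j ∈ Lv (fam j))
    (hcard : ∀ a, mm hfin a = (Lv a).card)
    (hlev : ∀ x ∈ s₀.P, x ∈ P (T.H i) → T.dim x ≤ 1 →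
      Φ.lev (fam (s₀.lab x)) (f x) = t (s₀.lab x))
    {Gf : Gd E3 (Nm' fam (Rk κ kap))} {P' : ∀ q, h.cmb.I q → Set E3}
    {c : ∀ q, h.cmb.I q → E3 → ℝ} (H : Inv h.cmb Kc D Gf P' c) (hq : q ∈ D)
    (hqi : Kc q = P (T.H i)) (hy0 : Ex h.cmb (Pc Φ.F) q y0) (hCk : ∀ 𝒦, 0 ≤ Ck 𝒦)
    (hLB : ∀ (B : E3 ≃ᵃ[ℝ] E3) (x : h.cmb.I q), ∀ z ∈ Kc q,
      LB B (Ck ((fun K => B '' K) '' Cfg T i) * WE X h.cmb (wk κ kap fam) q /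
        wk κ kap fam (h.cmb.col q x)) (c q x) (Kc q) z)
    (hB : ∀ e, e < q → dim e = 1 → L.toSk.On1 e ⊆ {y | y ∈ P (T.H i) ∧ T.dim y ≤ 1})
    {Gm : E3 → E3} (hG : EqOn Gm
      (Xp_537.gG (Grd_714.Tq (bc (F := Φ.F)) (mm h.fin1)) (merge h.fin1 Gf)) (P (T.H i))) :
    ∀ B : E3 ≃ᵃ[ℝ] E3, ∀ N : ℝ, 0 ≤ N → NN Φ T f κ Lv i ≤ ENNReal.ofReal N →
      ∀ x ∈ I (T.H i), ∀ᶠ y in 𝓝 x,
        ‖Gm y - Gm x‖ ≤ (2 * R * κ3 * Ck ((fun K => B '' K) '' Cfg T i)) * N * ‖B y - B x‖ := by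
  intro B N hN hNN x hx
  have k := out_lip_st (tol := 0) (g := Gm) hLa hR h3 many X h hrel hinj hL hcard hlev H hq hqi
    hy0 hCk hLB hB (fun x hx => by
      have h1 : ∀ᶠ y in 𝓝 x, y ∈ P (T.H i) :=
        Filter.mem_of_superset ((isOpen_I _).mem_nhds hx) (I_sub_P _)
      filter_upwards [h1] with y hy
      rw [hG hy, hG (I_sub_P _ hx)]
      simp) B N hN hNN x hx
  filter_upwards [k] with y hy
  linarith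

/-- **the clause `lipT` for the structure map** -/
theorem outG_lipT_st (hLa : IsOpen La) (X : Cplx Ω' Q dim Kc)
    (h : StO L O τ Rel V Qd κ s₀ far₀ Z lam₀ v₀ v₁ hfin kap s far β lam)
    (hrel : ∀ x w, Rel x w → (x ∈ L.W1 ∨ w ∈ L.W1) → x ∈ L.W1 ∧ w ∈ L.W1 ∧ L.ed x = L.ed w)
    (hinj : ∀ j j', fam j = fam j' → t j = t j' → j = j') (hL : ∀ j, t j ∈ Lv (fam j))
    (hcard : ∀ a, mm hfin a = (Lv a).card) (hmm : ∀ a, 0 < mm h.fin1 a)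
    (hlev : ∀ x ∈ s₀.P, x ∈ P (T.H i) → T.dim x ≤ 1 →
      Φ.lev (fam (s₀.lab x)) (f x) = t (s₀.lab x))
    {Gf : Gd E3 (Nm' fam (Rk κ kap))} {P' : ∀ q, h.cmb.I q → Set E3}
    {c : ∀ q, h.cmb.I q → E3 → ℝ} (H : Inv h.cmb Kc D Gf P' c) (hq : q ∈ D)
    (hqi : Kc q = P (T.H i)) (hy0 : Ex h.cmb (Pc Φ.F) q y0) (hCk : ∀ 𝒦, 0 ≤ Ck 𝒦)
    (hLB : ∀ (B : E3 ≃ᵃ[ℝ] E3) (x : h.cmb.I q), ∀ z ∈ Kc q,
      LB B (Ck ((fun K => B '' K) '' Cfg T i) * WE X h.cmb (wk κ kap fam) q /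
        wk κ kap fam (h.cmb.col q x)) (c q x) (Kc q) z)
    (hB : ∀ e, e < q → dim e = 1 → L.toSk.On1 e ⊆ {y | y ∈ P (T.H i) ∧ T.dim y ≤ 1})
    {Gm : E3 → E3} (hG : EqOn Gm
      (Xp_537.gG (Grd_714.Tq (bc (F := Φ.F)) (mm h.fin1)) (merge h.fin1 Gf)) (P (T.H i))) :
    ∀ B : E3 ≃ᵃ[ℝ] E3, ∀ N : ℝ, 0 ≤ N → NN Φ T f κ Lv i ≤ ENNReal.ofReal N →
      ∀ Wd w : ℝ, 0 ≤ Wd → 0 < w → ∀ Ds : Set E3, (∀ y ∈ Ds, ∀ y' ∈ Ds, ‖y - y'‖ ≤ Wd) →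
      (∀ x ∈ P (T.H i), ∀ S : Set Φ.F, {c | lab h.fin1 Gf x c = 0} ⊆ S →
        S ⊆ {c | lab h.fin1 Gf x c < 1} → bc (F := Φ.F) S ∈ Ds) →
      (∀ x ∈ P (T.H i), ∀ c, 0 < lab h.fin1 Gf x c → lab h.fin1 Gf x c < 1 →
        w ≤ (Lv c).card * (2 : ℝ)⁻¹ ^ κ c) →
      ∀ x ∈ I (T.H i), ∀ᶠ y in 𝓝 x,
        ‖Gm y - Gm x‖ ≤
          (2 * Ck ((fun K => B '' K) '' Cfg T i)) * (Wd / w) * N * ‖B y - B x‖ := by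
  intro B N hN hNN Wd w hWd hw Ds hDs h1 h2 x hx
  have k := out_lipT_st (tol := 0) (g := Gm) hLa X h hrel hinj hL hcard hmm hlev H hq hqi
    hy0 hCk hLB hB (fun x hx => by
      have h1 : ∀ᶠ y in 𝓝 x, y ∈ P (T.H i) :=
        Filter.mem_of_superset ((isOpen_I _).mem_nhds hx) (I_sub_P _)
      filter_upwards [h1] with y hy
      rw [hG hy, hG (I_sub_P _ hx)]
      simp) B N hN hNN Wd w hWd hw Ds hDs h1 h2 x hx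
  filter_upwards [k] with y hy
  linarith

end clauses

end Crest.Agent.R096.Fl_835
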