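import Crest.Agent.R096.Fin5_147
import Crest.Agent.R096.Fl6_835
import Crest.Agent.R096.Cog3_609
import Crest.Agent.R096.Gia2_537

/-!
# R096 (row 96), bottom assembly, part 6 (helper147): [F3], [F7] -> [F10] over the final state

`fin_st` : `fin_gout` for the discrete data `h.cmb` of the final state (`StO` over any `LM`), metric
clauses from the numbers of the mesh (835) and the core maps (609), charts of the exact cores from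
the base (`chart_R`), charts of the tiny cores as a hypothesis.
-/

set_option autoImplicit false
set_option linter.unusedSectionVars false
set_option linter.unusedVariables false
set_option linter.style.longLine false

open Set Filter Topology Metric Module MeasureTheory
open scoped ENNReal

namespace Crest.Agent.R096.Fin_147

open Crest.Agent.R096.Ce_537 (PLOn PLEquiv cube sph IsBall Cplx)
open Crest.Agent.R096.Bd_416 Crest.Agent.R096.Grd_714 Crest.Agent.R096.Mg_441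
open Crest.Agent.R096.Xp_537 Crest.Agent.R096.Bin_181
open Crest.Agent.R096.Ar_241 (Tr0 TopC Exact cod SheetData)
open Crest.Agent.R096.Ar_241.Tr0 (P2)
open Crest.Agent.R096.Shp_334 (OnMesh)
open Crest.Agent.R096.Brk1_582 Crest.Agent.R096.Brk2_582 Crest.Agent.R096.Brk3_582
open Crest.Agent.R096.Brk5_582 Crest.Agent.R096.Brk6_582
open Crest.Agent.R096.Bsp_628
open Crest.Agent.R096.SkC1_961 (E3 Hom3 FoamD Cfg th NN)
open Crest.Agent.R096.Msh_715 Crest.Agent.R096.Nr_527 Crest.Agent.R096.Oa_527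
open Crest.Agent.R096.Mbf_337 (KJ sb gau)
open Crest.Agent.R096.St_147 Crest.Agent.R096.Seq_213 Crest.Agent.R096.Lm_117
  Crest.Agent.R096.Cp_298 Crest.Agent.R096.Gl_422 Crest.Agent.R096.SkB_662
open Crest.Agent.R096.Fl_835 (wk)
open Crest.Agent.R96.Nu7_199 (WE)

variable {δ κ0 R c0 : ℝ} {La Om : Set E3} {ι : Type} {Φ : FoamD δ κ0 R c0 La} {Tl : Tiling Om ι}
  {f : E3 → E3} {κ1 κ2 : ℝ} {X : Set Φ.F} {J0 Jt V : Φ.F → Set ι} {ct : Φ.F → ι}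
  {A : Φ.F → E3 ≃ᵃ[ℝ] E3} {lam : Φ.F → ℝ} {z : Φ.F → E3} {θ : Φ.F → E3 → E3} {φ : Φ.F → E3 → ℝ}

set_option maxHeartbeats 1000000 in
/-- **[F3], [F7] -> [F10]** -/
theorem fin_st (hOm : IsOpen Om) (hLa : IsOpen La) (hf : Hom3 f Om La)
    (hs : Small δ κ0 R κ1 κ2)
    (hC : Mbf_337.Cores Φ Tl f κ1 κ2 X J0 Jt V ct A lam z θ φ)
    (hF : Mbf_337.Fine Φ Tl f κ1 J0)
    -- the final state
    {ι' Φc Q J Kq : Type} {M : MeshC ι' Φc E3} [PartialOrder Q] [Nonempty Q] {dim : Q → ℕ}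
    {L : LM M Q dim} {O : Ori M} {τ : Q → ZMod 2} {Rel : E3 → E3 → Prop} {Vc : Set E3}
    {Qd : Quads ι' Φ.F Kq} {κw : Φ.F → ℕ} {fam : J → Φ.F} {s₀ : GSt M fam} {far₀ : J → Set E3}
    {Z : Φ.F → Set Q} {lam₀ : J → Q → ZMod 2} {v₀ v₁ : Φ.F → Q}
    {hfin : ∀ a, {j | fam j = a}.Finite} {kap : Φ.F → ℕ} {s : GSt M (fam' fam (Rk κw kap))}
    {far : Nm' fam (Rk κw kap) → Set E3} {β : E3 → E3}
    {lm : Nm' fam (Rk κw kap) → Q → ZMod 2}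
    (h : StO L O τ Rel Vc Qd κw s₀ far₀ Z lam₀ v₀ v₁ hfin kap s far β lm)
    (hrel : ∀ x w, Rel x w → (x ∈ L.W1 ∨ w ∈ L.W1) → x ∈ L.W1 ∧ w ∈ L.W1 ∧ L.ed x = L.ed w)
    -- the levels
    {κ3 : ℝ} (hR : 0 ≤ R) (h3 : 0 ≤ κ3) {Lv : Φ.F → Finset ℝ}
    (many : ∀ c, c.1.sz ≤ κ3 * ((Lv c).card * (2 : ℝ)⁻¹ ^ κw c))
    {t : J → ℝ} (hinj : ∀ j j', fam j = fam j' → t j = t j' → j = j')
    (hLv : ∀ j, t j ∈ Lv (fam j)) (hcard : ∀ a, mm hfin a = (Lv a).card)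
    (hlev : ∀ i, (∀ c, i ∉ V c) → ∀ x ∈ s₀.P, x ∈ P (Tl.H i) → Tl.dim x ≤ 1 →
      Φ.lev (fam (s₀.lab x)) (f x) = t (s₀.lab x))
    {hf1 : ∀ a, {j | h.cmb.fam j = a}.Finite} (hm : ∀ a, 0 < mm hf1 a)
    -- the mesh and its structure
    {K : Q → Set E3} {Gf : Gd E3 (Nm' fam (Rk κw kap))} {Pp : ∀ q, h.cmb.I q → Set E3}
    {cc : ∀ q, h.cmb.I q → E3 → ℝ} (H : Inv h.cmb K univ Gf Pp cc)
    (hex : MeshEx Φ Tl f J0 h.cmb K univ) (hne : ∀ c : Φ.F, (Pc Φ.F c).Nonempty)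
    {Kc : Φ.F → Set E3} (Xc : Cplx (Om ∩ Xout Kc) Q dim K)
    (hKJ : ∀ a, Kc a ⊆ KJ Tl (Jt a)) (hKc : ∀ a, IsClosed (Kc a))
    (hKX : ∀ a ∈ X, Kc a = P (Tl.H (ct a)))
    (q0 : Cel (Pc Φ.F) (mm hf1))
    -- the numbers on the tiles
    {Ck Cs : Set (Set E3) → ℝ} (hCk : ∀ 𝒦, 0 ≤ Ck 𝒦) (hCs : ∀ 𝒦, 2 * R * κ3 * Ck 𝒦 ≤ Cs 𝒦)
    (tile : ∀ i, (∀ c, i ∉ V c) → ∃ q, K q = P (Tl.H i) ∧
      (∀ e, e < q → dim e = 1 → L.toSk.On1 e ⊆ {y | y ∈ P (Tl.H i) ∧ Tl.dim y ≤ 1}) ∧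
      ∀ (B : E3 ≃ᵃ[ℝ] E3) (x : h.cmb.I q), ∀ y ∈ K q,
        LB B (Ck ((fun K => B '' K) '' Cfg Tl i) * WE Xc h.cmb (wk κw kap fam) q /
          wk κw kap fam (h.cmb.col q x)) (cc q x) (K q) y)
    -- the exact cores
    {κb : ℝ} (hκb : 0 < κb ∧ κb < 1) {bt : ℕ → ℝ} (hb0 : ∀ n, 0 < bt n) (hb2 : ∀ n, bt n < 1/2)
    (n : ℕ) {κf : ℝ} (hκf : κf = 1 - (1 - κb) * bet bt (n + 1))
    {lv : Nm' fam (Rk κw kap) → ℕ}
    (lv_inj : ∀ j j', h.cmb.fam j = h.cmb.fam j' → lv j = lv j' → j = j')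
    (lv_lt : ∀ j, lv j < mm hf1 (h.cmb.fam j))
    (lv_sur : ∀ a k, k < mm hf1 a → ∃ j, h.cmb.fam j = a ∧ lv j = k)
    {g0 : Gd E3 (Nm' fam (Rk κw kap))} (Rr : Φ.F → E3 → E3)
    (core : ∀ a ∈ X, ∃ (U : PLEquiv (Kc a) (Pc Φ.F a))
      (e : PLEquiv (frontier (Kc a)) (bdP (Pc Φ.F) (bc (F := Φ.F)) (mm hf1) a)),
      (∀ x ∈ Kc a, U.f x = Rr a (th (A a) (lam a) (z a) x)) ∧
      (∀ x ∈ Kc a, x ∈ frontier (Kc a) ↔
        U.f x ∈ bdP (Pc Φ.F) (bc (F := Φ.F)) (mm hf1) a) ∧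
      (∀ x ∈ frontier (Kc a), e.f x = U.f x) ∧
      (∀ y ∈ bdP (Pc Φ.F) (bc (F := Φ.F)) (mm hf1) a, e.g y = U.g y) ∧
      (∀ x ∈ frontier (Kc a),
        EqAt (ekS (gr Φ hLa hne hm) (bc (F := Φ.F)) κb (.top a) h.cmb.fam lv e) g0 x) ∧
      (∀ x ∈ frontier (Kc a), EqAt (sqs g0 bt (n + 1)) Gf x) ∧
      ∀ x ∈ frontier (Kc a), ∃ q, x ∈ K q ∧ K q ⊆ frontier (Kc a) ∧ IsClosed (K q))
    {C0 e S sg : ℝ} (hSC : S < C0)
    (hS : ∀ a ∈ X, ∀ y ∈ a.1.set, ∀ y' ∈ a.1.set,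
      ‖st (gr Φ hLa hne hm) κf (Rr a y) - st (gr Φ hLa hne hm) κf (Rr a y')‖ ≤ S * ‖y - y'‖)
    (hs0 : κf ≤ sg) (hs1 : sg < 1) (he1 : 3 * sg ≤ e) (he2 : κf / (1 - κf) < e)
    (hRr : ∀ a ∈ X, ∀ u ∈ interior a.1.set,
      Rr a ((1 - sg) • u + sg • (gr Φ hLa hne hm).b (.top a)) =
        (1 - sg) • u + sg • (gr Φ hLa hne hm).b (.top a))
    -- the tiny cores
    (tiny : ∀ a, a ∉ X → ∃ Th : PLEquiv (Kc a) (coreF (gr Φ hLa hne hm) κf (.top a) 0),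
      (∀ x ∈ Kc a, x ∈ frontier (Kc a) ↔ sl (gr Φ hLa hne hm) κf (Th.f x) (.top a) = 0) ∧
      ∀ x ∈ frontier (Kc a),
        gG (Tq (bc (F := Φ.F)) (mm hf1)) (merge hf1 Gf) x =
          cG (gr Φ hLa hne hm) κf Th.f x ∧
        gtop hm q0 (merge hf1 Gf) x = ctop (gr Φ hLa hne hm) κf (.top a) Th.f x ∧
        ∀ u ∈ (gr Φ hLa hne hm).cell (gtop hm q0 (merge hf1 Gf) x),
          gtr (co (Pc Φ.F) (bc (F := Φ.F)) (mm hf1)) (merge hf1 Gf) x u =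
            ctr (gr Φ hLa hne hm) κf Th.f Th.g x u)
    -- arcs and sheets
    (arcs : ∀ (G : E3 → E3) (Y : Tr0 Om (gr Φ hLa hne hm) G),
      OnMesh Y K Gf (Tq (bc (F := Φ.F)) (mm hf1)) (XM Om K) →
      Nonempty (Exact Y (fun _ => κf) (fun _ => 0) (Ktc (hfin := hf1) (Pf := Pc Φ.F) Kc) (XM Om K)) →
      ∀ q, cod (gr Φ hLa hne hm) q = 1 →
      IsBall 1 (Y.F q ∩ XM Om K)
        (Y.F q ∩ XM Om K ∩ ⋃ c : TopC (Cel (Pc Φ.F) (mm hf1)), Ktc (hfin := hf1) (Pf := Pc Φ.F) Kc c))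
    (sheets : ∀ (G : E3 → E3) (Y : Tr0 Om (gr Φ hLa hne hm) G),
      OnMesh Y K Gf (Tq (bc (F := Φ.F)) (mm hf1)) (XM Om K) →
      Nonempty (Exact Y (fun _ => κf) (fun _ => 0) (Ktc (hfin := hf1) (Pf := Pc Φ.F) Kc) (XM Om K)) →
      ∀ q, cod (gr Φ hLa hne hm) q = 2 →
        SheetData Y (Ktc (hfin := hf1) (Pf := Pc Φ.F) Kc) (XM Om K) q) :
    ∃ G : E3 → E3, GOut C0 Cs e Φ Tl f X J0 V ct A lam κw Lv G := by
  have hκf1 : 0 < κf ∧ κf < 1 := by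
    rw [hκf]; exact Xr_537.kf_pos hκb (bet_pos hb0 (n + 1)) (bet_le hb0 hb2 (n + 1))
  refine fin_gout hOm hLa hf hs hC hF H hm hex hne Xc hKJ hKc q0 hκf1 Rr ?_ arcs sheets ?_
  · intro a
    by_cases ha : a ∈ X
    · obtain ⟨U, e, hU1, hU2, he, hei, hb, hg, hmesh⟩ := core a ha
      obtain ⟨Th, h1, h2, h3'⟩ := chart_R (foam Φ.bf hLa) (quads_box Φ.bf (by simp)) hne hm H q0
        lv_inj lv_lt lv_sur hκb hb0 hb2 n hκf (hKc a) U hU2 e he hei (fun x hx => by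
          obtain ⟨q, k1, k2, k3⟩ := hmesh x hx
          exact ⟨q, k1, k2, k3, hex.ex (mem_univ q)⟩) hb hg
      exact ⟨Th, fun _ x hx => (h1 x hx).trans (hU1 x hx), h2, h3'⟩
    · obtain ⟨Th, h1, h2⟩ := tiny a ha
      exact ⟨Th, fun h' => absurd h' ha, h1, h2⟩
  · intro G hGc hG1 hG2
    refine ⟨fun i hi B N hN hNN x hx => ?_, ?_⟩
    · obtain ⟨q, hq, hB, hLB⟩ := tile i hi
      obtain ⟨y0, hy0⟩ := hex.ex (mem_univ q)
      have key := Fl_835.outG_lip_st (T := Tl) (f := f) (i := i) hLa hR h3 many Xc h hrel hinj hLv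
        hcard (hlev i hi) H (mem_univ q) hq hy0 hCk hLB hB (Gm := G)
        (fun y hy => hG1 q y (hq ▸ hy)) B N hN hNN x hx
      filter_upwards [key] with y hy
      refine hy.trans ?_
      have := hCs ((fun K => B '' K) '' Cfg Tl i)
      gcongr
    · exact Cog_609.outG_core hC (gr Φ hLa hne hm) (q := fun a => .top a)
        (fun a _ => grid_cell_top _ _ hne hm a) hκf1
        (fun a ha x hx => hG2 a ha x (hKX a ha ▸ hx)) hSC hS hs0 hs1 he1 he2 hRr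

end Crest.Agent.R096.Fin_147
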