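import Crest.Agent.R096.Frn1_337
import Crest.Agent.R096.Fin6_147
import Crest.Agent.R096.Nr5_527

/-!
# R096 (row 96), bottom, the seam, part 2 (helper337): geometry of the back half

From `Lay`, `Cores`: the cores `Kcs` of the placement, the complex outside them, the tiles off the
`V c` as cells.
-/

set_option autoImplicit false
set_option linter.unusedSectionVars false
set_option linter.unusedVariables false
set_option linter.style.longLine false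

open Set Relation Module Topology Filter Metric MeasureTheory

namespace Crest.Agent.R096.Frn_337

open Crest.Agent.R096.Brk1_582 Crest.Agent.R096.Brk2_582 Crest.Agent.R096.Brk3_582
open Crest.Agent.R096.Brk5_582 Crest.Agent.R096.Bsp_628
open Crest.Agent.R096.St_147 Crest.Agent.R096.Seq_213 Crest.Agent.R096.Seq_213.GSt
open Crest.Agent.R096.Lm_117 Crest.Agent.R096.Ac_117 Crest.Agent.R096.Msh_715
open Crest.Agent.R096.Cp_298 Crest.Agent.R096.Gm_298 Crest.Agent.R096.Gl_422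
open Crest.Agent.R096.SkB_662 Crest.Agent.R096.Cpo_642
open Crest.Agent.R096.Agl5_543 Crest.Agent.R096.Ori_543
open Crest.Agent.R096.Init_543 (JJ fr3)
open Crest.Agent.R096.Ce_537 (PLEquiv IsBall Cplx)
open Crest.Agent.R096.SkC1_961 (E3 Hom3 FoamD Cfg th NN)
open Crest.Agent.R096.Mbf_337 (KJ sb)
open Crest.Agent.R096.Nr_527 (mem_KJ J_sub J0_sub not_mem_interior_KJ)
open Crest.Agent.R096.Fin_147 (Xout)

variable {δ κ0 R c0 : ℝ} {La Om : Set E3} {ι : Type}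
variable {Φ : FoamD δ κ0 R c0 La} {T : Tiling Om ι} {f : E3 → E3} {κ1 κ2 : ℝ} {X : Set Φ.F}
  {J0 Jt V : Φ.F → Set ι} {ct : Φ.F → ι} {A : Φ.F → E3 ≃ᵃ[ℝ] E3} {lam : Φ.F → ℝ} {z : Φ.F → E3}
  {θ : Φ.F → E3 → E3} {φ : Φ.F → E3 → ℝ}
  {ι3 : Type} {T3 : Tiling Om ι3} {KK : Ti X → Set E3} {c3 : ι → ι3}

/-- a tile contained in a finite union of tiles is one of them -/
theorem mem_of_sub_KJ {K : Set ι} {i : ι} (h : P (T.H i) ⊆ KJ T K) : i ∈ K := by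
  by_contra hi
  obtain ⟨y, hy⟩ := T.ne i
  have h1 : y ∈ interior (P (T.H i)) :=
    mem_interior.2 ⟨I (T.H i), I_sub_P _, isOpen_I _, hy⟩
  exact not_mem_interior_KJ hi (I_sub_P _ hy) (interior_mono h h1)

theorem ct_notin (hC : Mbf_337.Cores Φ T f κ1 κ2 X J0 Jt V ct A lam z θ φ) {c : Φ.F} (hc : c ∈ X)
    (k : Ti X) : ct c ∉ V k.1 := by
  intro h
  have h1 := hC.disj c k.1 (fun e => k.2 (e ▸ hc))
  rw [(hC.one c hc).2.2] at h1
  exact Set.disjoint_left.1 h1 (mem_singleton _) h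

theorem ct_notinJ (hC : Mbf_337.Cores Φ T f κ1 κ2 X J0 Jt V ct A lam z θ φ) {c : Φ.F} (hc : c ∈ X)
    (k : Ti X) : ct c ∉ Jt k.1 := fun h => ct_notin hC hc k (J_sub hC k.1 h)

/-- the exact core tiles of `T3` -/
theorem tl_eq (hC : Mbf_337.Cores Φ T f κ1 κ2 X J0 Jt V ct A lam z θ φ)
    (hL : Lay Φ T X J0 Jt T3 KK c3) {c : Φ.F} (hc : c ∈ X) :
    P (T3.H (c3 (ct c))) = P (T.H (ct c)) := hL.keep _ fun k => ct_notinJ hC hc k

theorem Kcs_X {c : Φ.F} (hc : c ∈ X) : Kcs T KK ct c = P (T.H (ct c)) := by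
  unfold Kcs
  rw [dif_neg (not_not.2 hc)]

theorem Kcs_T (k : Ti X) : Kcs T KK ct k.1 = KK k := by
  unfold Kcs
  rw [dif_pos k.2]

theorem Kcs_or (hC : Mbf_337.Cores Φ T f κ1 κ2 X J0 Jt V ct A lam z θ φ)
    (hL : Lay Φ T X J0 Jt T3 KK c3) (c : Φ.F) :
    (∃ k, Kcs T KK ct c = KK k) ∨ ∃ a, Kcs T KK ct c = P (T3.H (tlX X c3 ct a)) := by
  by_cases hc : c ∈ X
  · refine Or.inr ⟨⟨c, hc⟩, ?_⟩
    rw [Kcs_X hc]
    exact (tl_eq hC hL hc).symm
  · exact Or.inl ⟨⟨c, hc⟩, Kcs_T ⟨c, hc⟩⟩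

theorem Kcs_closed (hL : Lay Φ T X J0 Jt T3 KK c3) (c : Φ.F) : IsClosed (Kcs T KK ct c) := by
  by_cases hc : c ∈ X
  · rw [Kcs_X hc]; exact (T.cpt _).isClosed
  · have := Kcs_T (T := T) (KK := KK) (ct := ct) ⟨c, hc⟩
    rw [this]; exact (hL.core _).cpt.isClosed

theorem Kcs_sub (hC : Mbf_337.Cores Φ T f κ1 κ2 X J0 Jt V ct A lam z θ φ)
    (hL : Lay Φ T X J0 Jt T3 KK c3) (c : Φ.F) : Kcs T KK ct c ⊆ KJ T (Jt c) := by
  by_cases hc : c ∈ X
  · rw [Kcs_X hc]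
    intro x hx
    exact mem_KJ.2 ⟨ct c, by rw [(hC.one c hc).2.1]; exact mem_singleton _, hx⟩
  · have := Kcs_T (T := T) (KK := KK) (ct := ct) ⟨c, hc⟩
    rw [this]; exact hL.sub ⟨c, hc⟩

/-- **the complex outside all open cores** -/
theorem cplxF (hC : Mbf_337.Cores Φ T f κ1 κ2 X J0 Jt V ct A lam z θ φ)
    (hL : Lay Φ T X J0 Jt T3 KK c3) :
    Cplx (Om ∩ Xout (Kcs T KK ct)) {c : QK (belK T3 KK) // pO T3 KK c3 ct c}
      (fun c => dimK (belK T3 KK) (fun c => c.1.dim) c.1) (fun c => setK T3 KK c.1) :=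
  cplx_outK (T := T3) (KK := KK) (Kc := Kcs T KK ct) (tlX X c3 ct) hL.core hL.disj (Kcs_or hC hL)
    (fun k => ⟨k.1, Kcs_T k⟩) (fun a => ⟨a.1, by rw [Kcs_X a.2]; exact (tl_eq hC hL a.2).symm⟩)

/-- a tile which is in no `V c` is a cell outside all cores -/
theorem tile_cell (hC : Mbf_337.Cores Φ T f κ1 κ2 X J0 Jt V ct A lam z θ φ)
    (hL : Lay Φ T X J0 Jt T3 KK c3) {i : ι} (hi : ∀ c, i ∉ V c) :
    ∃ q : {c : QK (belK T3 KK) // pO T3 KK c3 ct c}, setK T3 KK q.1 = P (T.H i) ∧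
      dimK (belK T3 KK) (fun c => c.1.dim) q.1 = 3 ∧
      ∀ e, e ≤ q → ∃ x ∈ P (T.H i), setK T3 KK e.1 = T.cc x ∧
        dimK (belK T3 KK) (fun c => c.1.dim) e.1 = T.dim x := by
  have hJ : ∀ k : Ti X, i ∉ Jt k.1 := fun k h => hi k.1 (J_sub hC k.1 h)
  have hP := hL.keep i hJ
  have h1 : ¬ ∃ k, P (T3.H (c3 i)) ⊆ KK k := by
    rintro ⟨k, hk⟩
    rw [hP] at hk
    exact hJ k (mem_of_sub_KJ (hk.trans (hL.sub k)))
  have h2 : notTile T3 (tlX X c3 ct) (tcell T3 (c3 i)) := by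
    rintro ⟨c, hc⟩ h
    rw [tcell_set, hP] at h
    have h3 : P (T.H i) = P (T.H (ct c)) := h.trans (tl_eq hC hL hc)
    have h4 : i ∈ ({ct c} : Set ι) := mem_of_sub_KJ (T := T) (by
      intro x hx
      exact mem_KJ.2 ⟨ct c, mem_singleton _, h3 ▸ hx⟩)
    rw [mem_singleton_iff] at h4
    refine hi c ?_
    rw [(hC.one c hc).2.2, h4]
    exact mem_singleton _
  refine ⟨⟨QK.c _ ⟨tcell T3 (c3 i), out_tcell h1⟩, h2⟩, ?_, ?_, ?_⟩
  · show (tcell T3 (c3 i)).set = _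
    rw [tcell_set, hP]
  · exact tcell_dim fr3 _
  · rintro ⟨e, he⟩ hle
    rcases e with e | k
    · have h3 : e.1 ≤ tcell T3 (c3 i) := hle
      have h4 : e.1.set ⊆ P (T.H i) := by
        have := Tiling.Cell.le_def.1 h3
        rwa [tcell_set, hP] at this
      have h5 : e.1.pt ∈ P (T.H i) := h4 (by rw [e.1.set_eq]; exact T3.self_mem_cc _)
      have h6 := hL.cc e.1.pt e.1.pt_mem (fun k => not_mem_interior_KJ (hJ k) h5)
      refine ⟨e.1.pt, h5, ?_, ?_⟩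
      · show e.1.set = _
        rw [e.1.set_eq, h6.1]
      · exact h6.2
    · exact he.elim

/-- the points on the 1-cells of such a tile -/
theorem on1_tile [Nonempty T3.Cell] {hH : ∀ k, CoreH T3 (KK k)}
    {hdis : ∀ k k', k ≠ k' → Disjoint (KK k) (KK k')} {hne : ∃ c, OutK T3 KK c}
    (hC : Mbf_337.Cores Φ T f κ1 κ2 X J0 Jt V ct A lam z θ φ)
    (hL : Lay Φ T X J0 Jt T3 KK c3) {i : ι} (hJ : ∀ k : Ti X, i ∉ Jt k.1)
    {e : {c : QK (belK T3 KK) // pO T3 KK c3 ct c}} (he : setK T3 KK e.1 ⊆ P (T.H i)) :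
    (Lp c3 ct hH hdis hne).toSk.On1 e ⊆ {y | y ∈ P (T.H i) ∧ T.dim y ≤ 1} := by
  rintro y ⟨hy1, hy2⟩
  have h1 : y ∈ (lmK fr3 hH hdis hne).W1 := sb_W1.1 hy1
  have h2 := mem_W1K.1 h1
  have h3 : (lmK fr3 hH hdis hne).ed y = e.1 := by
    rw [← sb_ed (p := pO T3 KK c3 ct) (hp := pO_down) (hne := pO_ne hne) (h2 := pO_two) h1]
    exact congrArg Subtype.val hy2
  have h4 : y ∈ setK T3 KK ((lmK fr3 hH hdis hne).ed y) := by
    show y ∈ ((lmO fr3 hH hdis hne).ed y).1.set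
    rw [edO_eq h1, edC_set h2.1]
    exact T3.self_mem_cc y
  rw [h3] at h4
  have h5 := he h4
  refine ⟨h5, ?_⟩
  have h6 := hL.cc y h2.1 (fun k => not_mem_interior_KJ (hJ k) h5)
  rw [← h6.2, h2.2.1]

end Crest.Agent.R096.Frn_337
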