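import Crest.Agent.R096.Onb2_63
import Crest.Agent.R096.Ecm9_446
import Crest.Agent.R096.Crb1_609
import Crest.Agent.R096.Exa7_560

/-!
# R096 (row 96), bottom: 446's `CoresR` (all exact cores) from 337's seam (helper63)

* `core_disj` : the tiles of the exact cores are disjoint;
* `exists_nodF` : nodes of every exact core from `Levels`;
* `nodeOK_of_nod` : 609's `NodeOK` for the same nodes;
* **`Front.coresR`** : `Lay` + `Cores` + `Words` + `Levels` + `Front` ⟹ `∃ n, CoresR ..` over `Lp`;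
* **`Front.coresR_nodeOK`** : the same with `NodeOK` for the same nodes.
-/

set_option autoImplicit false
set_option linter.unusedSectionVars false
set_option linter.unusedVariables false
set_option linter.style.longLine false

open Set Relation Module

namespace Crest.Agent.R096.Onb_63

open Crest.Agent.R096.Brk1_582 Crest.Agent.R096.Brk2_582 Crest.Agent.R096.Brk3_582
open Crest.Agent.R096.Brk5_582 Crest.Agent.R096.Bsp_628
open Crest.Agent.R096.St_147 Crest.Agent.R096.Seq_213 Crest.Agent.R096.Seq_213.GSt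
open Crest.Agent.R096.Lm_117 Crest.Agent.R096.Ac_117 Crest.Agent.R096.Msh_715
open Crest.Agent.R096.Cp_298 Crest.Agent.R096.Gm_298 Crest.Agent.R096.Gl_422
open Crest.Agent.R096.SkB_662 Crest.Agent.R096.Cpo_642 Crest.Agent.R096.Mg_441
open Crest.Agent.R096.Agl5_543 Crest.Agent.R096.Ori_543
open Crest.Agent.R096.Init_543 (JJ fr3)
open Crest.Agent.R096.SkC1_961 (E3 Hom3 FoamD Cfg th)
open Crest.Agent.R096.Mbf_337 (KJ sb Cores Words Exact Levels)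
open Crest.Agent.R096.Frn_337 Crest.Agent.R096.Ecm_446

variable {δ κ0 R c0 : ℝ} {La Om : Set E3} {ι : Type}
variable {Φ : FoamD δ κ0 R c0 La} {T : Tiling Om ι} {f : E3 → E3} {κ1 κ2 : ℝ} {X : Set Φ.F}
  {J0 Jt V : Φ.F → Set ι} {ct : Φ.F → ι} {A : Φ.F → E3 ≃ᵃ[ℝ] E3} {lam : Φ.F → ℝ} {z : Φ.F → E3}
  {θ : Φ.F → E3 → E3} {φ : Φ.F → E3 → ℝ}
  {ι3 : Type} {T3 : Tiling Om ι3} {KK : Ti X → Set E3} {c3 : ι → ι3}
  {M : Φ.F → ℕ} {L : Φ.F → Finset ℝ} {κp μ κ3 : ℝ} {Zl : Φ.F → Set ℝ} {m0 κc : Φ.F → ℕ}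

/-- the tiles of the exact cores are disjoint -/
theorem core_disj (hLa : IsOpen La) (hC : Cores Φ T f κ1 κ2 X J0 Jt V ct A lam z θ φ) {c c' : Φ.F}
    (hc : c ∈ X) (hc' : c' ∈ X) (hne : c ≠ c') : Disjoint (P (T.H (ct c))) (P (T.H (ct c'))) := by
  rw [Set.disjoint_left]
  intro x hx hx'
  have h1 := (hC.exact_ c hc).inside x hx
  have h2 := (hC.exact_ c' hc').inside x hx'
  exact hne (Exa_560.only_brick hLa (c := c) (d := c') h1
    ⟨fun k => (h2 k).1.le, fun k => (h2 k).2.le⟩).symm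

/-- every brick has a sheet -/
theorem lv_pos (hLv : Levels Φ T f κp μ κ3 Zl m0 κc L) (a : Φ.F) : 0 < (L a).card := by
  rcases Nat.eq_zero_or_pos (L a).card with h0 | h0
  · exfalso
    have h1 := hLv.many a
    rw [h0] at h1
    have h2 : 0 < a.1.sz := Bx.sz_pos (Φ.bf.pos _ a.2)
    simp at h1
    linarith
  · exact h0

theorem ex_sheet (hLv : Levels Φ T f κp μ κ3 Zl m0 κc L) (a : Φ.F) : ∃ j : JJ Φ L, j.1 = a := by
  obtain ⟨t, ht⟩ := Finset.card_pos.1 (lv_pos hLv a)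
  exact ⟨⟨a, t, ht⟩, rfl⟩

/-- the levels are in `(0, 1]` -/
theorem lv_mem (hLv : Levels Φ T f κp μ κ3 Zl m0 κc L) (hμ : 0 < μ) (j : JJ Φ L) :
    0 < j.2.1 ∧ j.2.1 ≤ 1 := by
  have h1 := hLv.marg j.1 j.2.1 j.2.2
  exact ⟨hμ.trans_le h1.1, by linarith [h1.2]⟩

/-- **nodes** of one exact core -/
theorem exists_nodF (hLv : Levels Φ T f κp μ κ3 Zl m0 κc L) (hμ : 0 < μ)
    (hfin : ∀ a, {j : JJ Φ L | j.1 = a}.Finite) (kap : Φ.F → ℕ) {κf : ℝ} (hκf : 0 < κf) {N : ℕ}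
    (hN : 0 < N) : ∃ n, Nod N (mm (fin_copies (Rk κc kap) hfin))
      (NNt (fun j : JJ Φ L => j.1) κc kap (fun j => j.2.1) N) κf n := by
  have hN' : (0 : ℝ) < N := by exact_mod_cast hN
  refine exists_nod hκf hN (fun a => ?_) (fun a => NN_mono hfin a)
    (fun a => NN_zero (fun j => mul_pos hN' (lv_mem hLv hμ j).1) a)
    (fun a => NN_top (fun j => by nlinarith [(lv_mem hLv hμ j).2]) a hfin)
  rw [SkB_662.mm_eq (Rk κc kap) hfin a]
  refine Nat.mul_pos (Rk_pos κc kap a) ?_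
  obtain ⟨j, hj⟩ := ex_sheet hLv a
  exact Finset.card_pos.2 ⟨j, (mem_sh hfin).2 hj⟩

/-- **609's `NodeOK` for 446's nodes** -/
theorem nodeOK_of_nod (hLv : Levels Φ T f κp μ κ3 Zl m0 κc L) (hμ : 0 < μ) (hκp : 0 ≤ κp) {s : ℝ}
    (hs : 0 < s) (hs1 : s < 1) (hκs : κp ≤ s / 4) {c : Φ.F} {N : ℕ} (hN : 0 < N)
    (hm0 : ∀ a, (Pc Φ.F a ∩ Pc Φ.F c).Nonempty → N ≤ m0 a ∧ 8 / s ≤ m0 a)
    (hfin : ∀ a, {j : JJ Φ L | j.1 = a}.Finite) {kap : Φ.F → ℕ} {κf : ℝ} (hκf : κf ≤ 2)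
    {n : Φ.F → ℕ → ℝ} (hn : Nod N (mm (fin_copies (Rk κc kap) hfin))
      (NNt (fun j : JJ Φ L => j.1) κc kap (fun j => j.2.1) N) κf n) :
    Crb_609.NodeOK Φ (mm (fin_copies (Rk κc kap) hfin)) s c N n where
  M0 := hN
  sm := hn.mono
  z0 := hn.zero
  nm := hn.top
  near := by
    intro a ha
    obtain ⟨h1, h2⟩ := hm0 a ha
    have hN' : (0 : ℝ) < N := by exact_mod_cast hN
    have hcard : (m0 a : ℝ) ≤ (L a).card := by exact_mod_cast hLv.large a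
    have hN1 : N ≤ (L a).card := h1.trans (hLv.large a)
    have hpos : 0 < (L a).card := lv_pos hLv a
    have h8 : 8 / s ≤ (L a).card := h2.trans hcard
    have h8' : 8 ≤ s * (L a).card := by rwa [div_le_iff₀ hs, mul_comm] at h8
    have hpos' : (0 : ℝ) < (L a).card := by exact_mod_cast hpos
    have hR1 : (1 : ℝ) ≤ Rk κc kap a := by exact_mod_cast Rk_pos κc kap a
    have hinj : ∀ j j' : JJ Φ L, j.1 = j'.1 → j.2.1 = j'.2.1 → j = j' := jj_inj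
    have hsur : ∀ a, ∀ r ∈ L a, ∃ j : JJ Φ L, j.1 = a ∧ j.2.1 = r := fun a r hr =>
      ⟨⟨a, r, hr⟩, rfl, rfl⟩
    have hm : (mm (fin_copies (Rk κc kap) hfin) a : ℝ) = Rk κc kap a * (L a).card := by
      rw [SkB_662.mm_eq (Rk κc kap) hfin a, mm_card hfin (fun j => j.2.2) hinj hsur a]
      push_cast
      ring
    have hmL : ((L a).card : ℝ) ≤ mm (fin_copies (Rk κc kap) hfin) a := by
      rw [hm]; nlinarith
    refine ⟨fun i _ => ?_, fun j hj => ?_, ?_⟩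
    · have h5 := nod_step (κc := κc) (kap := kap) hfin (fun j : JJ Φ L => j.2.2) hinj hsur hκp a
        (hLv.dens a) hN hN1 hn i
      refine h5.trans ?_
      rw [div_le_div_iff_of_pos_right hN']
      have : (2 + κp) ≤ 4 := by linarith
      have h6 : (0 : ℝ) ≤ mm (fin_copies (Rk κc kap) hfin) a := Nat.cast_nonneg _
      exact mul_le_mul_of_nonneg_right this h6
    · have h5 := nod_close (κc := κc) (kap := kap) hfin (fun j : JJ Φ L => j.2.2)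
        (fun j => lv_mem hLv hμ j) hinj hsur hκp a hpos (hLv.dens a) hN hκf hn hj
      refine h5.trans ?_
      have h6 : 2 / ((L a).card : ℝ) ≤ s / 4 := by
        rw [div_le_iff₀ hpos']; linarith
      linarith
    · have h6 := mul_le_mul_of_nonneg_left hmL (by linarith : (0 : ℝ) ≤ s / 2)
      linarith

section front

variable [Nonempty T3.Cell] {hH : ∀ k, CoreH T3 (KK k)}
    {hdis : ∀ k k', k ≠ k' → Disjoint (KK k) (KK k')} {hne : ∃ c, OutK T3 KK c}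
    {Qd : Quads (ι3 ⊕ Ti X) Φ.F (Init_543.QK (Pc Φ.F))}
    {s₀ : GSt (mK fr3 hH hdis) (fun j : JJ Φ L => j.1)} {far₀ : JJ Φ L → Set E3}
    {Gc : Φ.F → Set E3} {Zc : Φ.F → Set (QK (belK T3 KK))}
    {lam₀ : JJ Φ L → QK (belK T3 KK) → ZMod 2} {v₀ v₁ : Φ.F → QK (belK T3 KK)}

/-- 446's `CoresR` for given nodes -/
theorem Front.coresR_nod (hLa : IsOpen La) (hL : Lay Φ T X J0 Jt T3 KK c3)
    (hC : Cores Φ T f κ1 κ2 X J0 Jt V ct A lam z θ φ) (hW : Words Φ T f X ct A lam z M L)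
    (h : Front T f J0 Jt V ct c3 hH hdis hne Qd s₀ far₀ Gc Zc lam₀ v₀ v₁)
    (hfin : ∀ a, {j : JJ Φ L | j.1 = a}.Finite) {kap : Φ.F → ℕ} {κf : ℝ}
    {n : Φ.F → Φ.F → ℕ → ℝ}
    (hn : ∀ c ∈ X, Nod (M c) (mm (fin_copies (Rk κc kap) hfin))
      (NNt (fun j : JJ Φ L => j.1) κc kap (fun j => j.2.1) (M c)) κf (n c)) :
    CoresR Φ T3 f κ1 κ2 (Lp c3 ct hH hdis hne) (kp T3 KK c3 ct) Qd κc s₀
      (fun a => {v | v.1 ∈ Zc a}) (fun j v => lam₀ j v.1)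
      (fun a => sv (pO T3 KK c3 ct) (pO_ne hne) (v₀ a)) kap X (fun c => c3 (ct c)) A lam z M
      (fun j => j.2.1) κf n hfin where
  ex := fun c hc => exact3 hL hC hc
  gr := fun c hc => grid3 hL hC hW hc
  wd := fun c hc => cw3 hL hC hW hc
  st := fun c hc => Front.coreS hL hC h hc
  nd := hn
  disj := by
    intro c hc c' hc' hcc
    show Disjoint (P (T3.H (c3 (ct c)))) (P (T3.H (c3 (ct c'))))
    rw [keep_ct hL hC hc, keep_ct hL hC hc']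
    exact core_disj hLa hC hc hc' hcc

open Classical in
/-- **all exact cores of the seam** -/
theorem Front.coresR (hLa : IsOpen La) (hL : Lay Φ T X J0 Jt T3 KK c3)
    (hC : Cores Φ T f κ1 κ2 X J0 Jt V ct A lam z θ φ) (hW : Words Φ T f X ct A lam z M L)
    (hLv : Levels Φ T f κp μ κ3 Zl m0 κc L) (hμ : 0 < μ)
    (h : Front T f J0 Jt V ct c3 hH hdis hne Qd s₀ far₀ Gc Zc lam₀ v₀ v₁)
    (hfin : ∀ a, {j : JJ Φ L | j.1 = a}.Finite) (kap : Φ.F → ℕ) {κf : ℝ} (hκf : 0 < κf) :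
    ∃ n : Φ.F → Φ.F → ℕ → ℝ,
      CoresR Φ T3 f κ1 κ2 (Lp c3 ct hH hdis hne) (kp T3 KK c3 ct) Qd κc s₀
        (fun a => {v | v.1 ∈ Zc a}) (fun j v => lam₀ j v.1)
        (fun a => sv (pO T3 KK c3 ct) (pO_ne hne) (v₀ a)) kap X (fun c => c3 (ct c)) A lam z M
        (fun j => j.2.1) κf n hfin := by
  have h1 : ∀ c : Φ.F, ∃ n : Φ.F → ℕ → ℝ, c ∈ X → Nod (M c) (mm (fin_copies (Rk κc kap) hfin))
      (NNt (fun j : JJ Φ L => j.1) κc kap (fun j => j.2.1) (M c)) κf n := by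
    intro c
    by_cases hc : c ∈ X
    · obtain ⟨n, hn⟩ := exists_nodF hLv hμ hfin kap hκf (hW.grid c hc).1
      exact ⟨n, fun _ => hn⟩
    · exact ⟨fun _ _ => 0, fun h => absurd h hc⟩
  choose n hn using h1
  exact ⟨n, Front.coresR_nod hLa hL hC hW h hfin hn⟩

/-- **all exact cores of the seam, with 609's `NodeOK` for the same nodes** -/
theorem Front.coresR_nodeOK (hLa : IsOpen La) (hL : Lay Φ T X J0 Jt T3 KK c3)
    (hC : Cores Φ T f κ1 κ2 X J0 Jt V ct A lam z θ φ) (hW : Words Φ T f X ct A lam z M L)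
    (hLv : Levels Φ T f κp μ κ3 Zl m0 κc L) (hμ : 0 < μ)
    (h : Front T f J0 Jt V ct c3 hH hdis hne Qd s₀ far₀ Gc Zc lam₀ v₀ v₁)
    (hfin : ∀ a, {j : JJ Φ L | j.1 = a}.Finite) (kap : Φ.F → ℕ) {κf : ℝ} (hκf : 0 < κf)
    (hκf2 : κf ≤ 2) (hκp : 0 ≤ κp) {s : ℝ} (hs : 0 < s) (hs1 : s < 1) (hκs : κp ≤ s / 4)
    (hm0 : ∀ c ∈ X, ∀ a, (Pc Φ.F a ∩ Pc Φ.F c).Nonempty → M c ≤ m0 a ∧ 8 / s ≤ m0 a) :
    ∃ n : Φ.F → Φ.F → ℕ → ℝ,
      CoresR Φ T3 f κ1 κ2 (Lp c3 ct hH hdis hne) (kp T3 KK c3 ct) Qd κc s₀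
        (fun a => {v | v.1 ∈ Zc a}) (fun j v => lam₀ j v.1)
        (fun a => sv (pO T3 KK c3 ct) (pO_ne hne) (v₀ a)) kap X (fun c => c3 (ct c)) A lam z M
        (fun j => j.2.1) κf n hfin ∧
      ∀ c ∈ X, Crb_609.NodeOK Φ (mm (fin_copies (Rk κc kap) hfin)) s c (M c) (n c) := by
  obtain ⟨n, hn⟩ := Front.coresR hLa hL hC hW hLv hμ h hfin kap hκf
  exact ⟨n, hn, fun c hc => nodeOK_of_nod hLv hμ hκp hs hs1 hκs (hW.grid c hc).1 (hm0 c hc) hfin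
    hκf2 (hn.nd c hc)⟩

end front

end Crest.Agent.R096.Onb_63
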