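import Crest.Agent.R096.Ecm8_446
import Crest.Agent.R096.Ecm9_446
import Crest.Agent.R096.Onb3_63
import Crest.Agent.R096.Frn2_337
import Crest.Agent.R96.Nu8_199

/-!
# R096 (row 96), BASE-DISC, part 10 (helper446): the base of all exact cores over 337's seam

`base_F` : `base_R` over 337's `Lp` (the complex and the boundaries of the cells supplied), from 63's
`CoresR`.
-/

set_option autoImplicit false
set_option linter.unusedSectionVars false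
set_option linter.unusedVariables false
set_option linter.style.longLine false

open Set Relation Module

namespace Crest.Agent.R096.Ecm_446

open Crest.Agent.R096.Brk1_582 Crest.Agent.R096.Brk2_582 Crest.Agent.R096.Brk3_582
open Crest.Agent.R096.Brk5_582 Crest.Agent.R096.Brk6_582 Crest.Agent.R096.Bsp_628
open Crest.Agent.R096.St_147 Crest.Agent.R096.Seq_213 Crest.Agent.R096.Seq_213.GSt
open Crest.Agent.R096.Lm_117 Crest.Agent.R096.Ac_117 Crest.Agent.R096.Msh_715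
open Crest.Agent.R096.Cp_298 Crest.Agent.R096.Gm_298 Crest.Agent.R096.Gl_422
open Crest.Agent.R096.SkB_662 Crest.Agent.R096.Cpo_642 Crest.Agent.R096.Mg_441
open Crest.Agent.R096.Agl5_543 Crest.Agent.R096.Ori_543
open Crest.Agent.R096.Init_543 (JJ fr3)
open Crest.Agent.R096.SkC1_961 (E3 Hom3 FoamD Cfg th)
open Crest.Agent.R096.Mbf_337 (KJ Cores Words Exact Levels)
open Crest.Agent.R096.Frn_337 Crest.Agent.R096.Onb_63
open Crest.Agent.R096.Ce_537 Crest.Agent.R096.Bd_416 Crest.Agent.R096.Xp_537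
open Crest.Agent.R096.Grd_714 Crest.Agent.R096.Bin_181 Crest.Agent.R096.Be_416
open Crest.Agent.R096.Cin_181
open Crest.Agent.R096.Fin_147 (gr)
open Crest.Agent.R96.Nu3_199 (ri)

/-- the boundary of a cell of a skeleton made of cells of a tiling -/
theorem bdS_onT {E : Type} [NormedAddCommGroup E] [NormedSpace ℝ E] [FiniteDimensional ℝ E]
    {Om : Set E} {ι : Type} {T : Tiling Om ι} {Q : Type} [PartialOrder Q] {dim : Q → ℕ}
    {L : Sk E Q dim} {κ : Q → T.Cell} (hT : OnT T L κ) (q : Q) :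
    bdS (fun q => (κ q).set) q = (κ q).set \ ri (κ q).set := by
  rw [← R96.Nu8_199.bdS_cell (κ q)]
  ext x
  simp only [bdS, mem_iUnion, exists_prop]
  constructor
  · rintro ⟨p, hp, hx⟩
    refine ⟨κ p, lt_of_le_of_ne (hT.mono p q hp.le) fun e => ?_, hx⟩
    have h1 := L.dim_lt p q hp
    rw [← hT.dim p, ← hT.dim q, e] at h1
    exact lt_irrefl _ h1
  · rintro ⟨j, hj, hx⟩
    have hj' : j < κ q := hj
    obtain ⟨p, hp, hpj⟩ := hT.down q j hj'.le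
    refine ⟨p, lt_of_le_of_ne hp ?_, by rw [hpj]; exact hx⟩
    rintro rfl
    rw [hpj] at hj'
    exact lt_irrefl _ hj'

section seam

variable {δ κ0 R c0 : ℝ} {La Om : Set E3} {ι : Type}
variable {Φ : FoamD δ κ0 R c0 La} {T : Tiling Om ι} {f : E3 → E3} {κ1 κ2 : ℝ} {X : Set Φ.F}
  {J0 Jt V : Φ.F → Set ι} {ct : Φ.F → ι} {A : Φ.F → E3 ≃ᵃ[ℝ] E3} {lam : Φ.F → ℝ} {z : Φ.F → E3}
  {θ : Φ.F → E3 → E3} {φ : Φ.F → E3 → ℝ} {M : Φ.F → ℕ}
  {ι3 : Type} {T3 : Tiling Om ι3} {KK : Ti X → Set E3} {c3 : ι → ι3}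
variable [Nonempty T3.Cell] {hH : ∀ k, CoreH T3 (KK k)}
    {hdis : ∀ k k', k ≠ k' → Disjoint (KK k) (KK k')} {hne : ∃ c, OutK T3 KK c}
    {Lv : Φ.F → Finset ℝ} {Qd : Quads (ι3 ⊕ Ti X) Φ.F (Init_543.QK (Pc Φ.F))}
    {s₀ : GSt (mK fr3 hH hdis) (fun j : JJ Φ Lv => j.1)} {far₀ : JJ Φ Lv → Set E3}
    {Gc : Φ.F → Set E3} {Zc : Φ.F → Set (QK (belK T3 KK))}
    {lam₀ : JJ Φ Lv → QK (belK T3 KK) → ZMod 2} {v₀ v₁ : Φ.F → QK (belK T3 KK)}
    {κw : Φ.F → ℕ} {hfin : ∀ a, {j : JJ Φ Lv | j.1 = a}.Finite} {kap : Φ.F → ℕ}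
    {s : GSt (mK fr3 hH hdis) (fam' (fun j : JJ Φ Lv => j.1) (Rk κw kap))}
    {far : Nm' (fun j : JJ Φ Lv => j.1) (Rk κw kap) → Set E3} {β : E3 → E3}
    {lm : Nm' (fun j : JJ Φ Lv => j.1) (Rk κw kap) →
      {c : QK (belK T3 KK) // pO T3 KK c3 ct c} → ZMod 2}
    {κb : ℝ} {n : Φ.F → Φ.F → ℕ → ℝ}

theorem setK_kp : (fun q : {c : QK (belK T3 KK) // pO T3 KK c3 ct c} => setK T3 KK q.1) =
    fun q => (kp T3 KK c3 ct q).set := funext fun q => celK_set _ q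

/-- **THE BASE OF ALL EXACT CORES OVER THE SEAM** -/
theorem base_F (hLa : IsOpen La) (hδ : 0 < δ) (hR : 0 < R) (hL : Lay Φ T X J0 Jt T3 KK c3)
    (hC : Cores Φ T f κ1 κ2 X J0 Jt V ct A lam z θ φ)
    (h : Front T f J0 Jt V ct c3 hH hdis hne Qd s₀ far₀ Gc Zc lam₀ v₀ v₁)
    (hκw : ∀ m, {c | κw c ≤ m}.Finite)
    (hO : StO (Lp c3 ct hH hdis hne) (oriK fr3 hH hdis) (fun c => tauK T3 KK c.1) (RelM T3)
      (lmK fr3 hH hdis hne).W1 Qd κw s₀ far₀ (fun c => {v | v.1 ∈ Zc c})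
      (fun j v => lam₀ j v.1) (fun c => sv (pO T3 KK c3 ct) (pO_ne hne) (v₀ c))
      (fun c => sv (pO T3 KK c3 ct) (pO_ne hne) (v₁ c)) hfin kap s far β lm)
    (hne' : ∀ c : Φ.F, (Pc Φ.F c).Nonempty) {hf1 : ∀ a, {j | hO.cmb.fam j = a}.Finite}
    (hm : ∀ a, 0 < mm hf1 a) (ht : ∀ j : JJ Φ Lv, j.2.1 ≤ 1) (hκ : 0 < κb ∧ κb < 1)
    (HR : CoresR Φ T3 f κ1 κ2 (Lp c3 ct hH hdis hne) (kp T3 KK c3 ct) Qd κw s₀
      (fun a => {v | v.1 ∈ Zc a}) (fun j v => lam₀ j v.1)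
      (fun a => sv (pO T3 KK c3 ct) (pO_ne hne) (v₀ a)) kap X (fun c => c3 (ct c)) A lam z M
      (fun j => j.2.1) κb n hfin) :
    ∃ (g0 : Gd E3 (Nm' (fun j : JJ Φ Lv => j.1) (Rk κw kap))) (P0 : ∀ q, hO.cmb.I q → Set E3)
      (c0 : ∀ q, hO.cmb.I q → E3 → ℝ),
      BaseC hO.cmb (fun q => setK T3 KK q.1) (wts κw kap (fun j : JJ Φ Lv => j.1)) (Kbase 3 δ R κb)
        (⋃ c : X, Dk (c3 (ct c)) (kp T3 KK c3 ct)) g0 P0 c0 ∧
      ∀ c (hc : c ∈ X), ∀ x ∈ frontier (P (T.H (ct c))),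
        EqAt (ekS (gr Φ hLa hne' hm) (bc (F := Φ.F)) κb (.top c) hO.cmb.fam
          (nr (Lp c3 ct hH hdis hne) s lm hO.fin1)
          ((thC hLa (hC.exact_ c hc) (m' := fun _ => M c) fun _ => (HR.gr c hc).1).trans
            (rcR (HR.nd c hc).mono (HR.nd c hc).zero (HR.nd c hc).top (foamΦ hLa Φ) (quadsΦ Φ)
              (fun _ => (HR.gr c hc).1) hm c))) g0 x ∧
        ∃ q ∈ Dk (c3 (ct c)) (kp T3 KK c3 ct), x ∈ setK T3 KK q.1 ∧
          setK T3 KK q.1 ⊆ frontier (P (T.H (ct c))) ∧ IsClosed (setK T3 KK q.1) := by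
  have hT : OnT T3 (Lp c3 ct hH hdis hne).toSk (kp T3 KK c3 ct) := onT_Lp
  obtain ⟨g0, P0, c0, h1, h2⟩ := base_R (h.stI hκw) hO hLa hδ hR hT
    (Ω := Om ∩ Fin_147.Xout (Kcs T KK ct)) (by rw [← setK_kp]; exact cplxF hC hL)
    (bdS_onT hT) hne' hm ht hκ (fun a => .top a) HR
  refine ⟨g0, P0, c0, ?_, fun c hc x hx => ?_⟩
  · rw [setK_kp]; exact h1
  · have hx' : x ∈ frontier (P (T3.H (c3 (ct c)))) := by rw [keep_ct hL hC hc]; exact hx
    obtain ⟨h3, q, hq, h4, h5, h6⟩ := h2 ⟨c, hc⟩ x hx'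
    refine ⟨?_, q, hq, ?_, ?_, ?_⟩
    · exact h3
    · rw [celK_set]; exact h4
    · rw [celK_set, ← keep_ct hL hC hc]; exact h5
    · rw [celK_set]; exact h6

end seam

end Crest.Agent.R096.Ecm_446
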