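import Crest.Agent.R096.Mg2_441
import Crest.Agent.R096.Bin3_181

/-!
# R096 (row 96), BASE-DISC, part 1 (helper446): the discrete hypotheses of `Bin_181.inv_base` from
* `V` : labels of the vertices of `bd K_c`,
* `one` : one piece per sheet and cell,
* `Ord` : the order of the sheets of a family (441).
Everything here is about an arbitrary `Cmb` (tilings, merged meshes, ...).
-/

set_option autoImplicit false
set_option linter.unusedSectionVars false

open Set Relation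

namespace Crest.Agent.R096.Ecm_446

open Crest.Agent.R096.Ce_537 Crest.Agent.R096.Bd_416 Crest.Agent.R096.Mg_441
open Crest.Agent.R096.Bin_181

section comb

variable {Q : Type} [PartialOrder Q] {dim : Q → ℕ} {J Fam : Type} {I : Type*}
  (Cm : Cmb Q dim J Fam) (D : Set Q) (fa : J → I) (lv : J → ℕ) (N : Q → I → ℕ)
  (L H : Q → I → ℕ)

/-- **exact cells**: a down-closed set `D` of cells whose vertices `v` have exact level coordinates
`N v a` (`lv j < N v a` iff the vertex lies outside the sheet `j` of direction `a`), `L q`, `H q` =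
minimum and maximum over the vertices of `q`, and one piece per sheet and cell. -/
structure Exa : Prop where
  dn : ∀ q ∈ D, ∀ p < q, p ∈ D
  hfam : ∀ j j', Cm.fam j = Cm.fam j' → fa j = fa j'
  V : ∀ v ∈ D, dim v = 0 → ∀ j, Cm.Lab j v = 1 ↔ lv j < N v (fa j)
  one : ∀ q ∈ D, ∀ x x' : Cm.I q, Cm.col q x = Cm.col q x' → x = x'
  bd : ∀ q ∈ D, ∀ v ≤ q, dim v = 0 → ∀ a, L q a ≤ N v a ∧ N v a ≤ H q a
  lo : ∀ q ∈ D, ∀ a, ∃ v ≤ q, dim v = 0 ∧ N v a = L q a
  hi : ∀ q ∈ D, ∀ a, ∃ v ≤ q, dim v = 0 ∧ N v a = H q a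

/-- the order of the sheets with natural levels -/
def OrdN : Prop :=
  ∀ j j', j ≠ j' → Cm.fam j = Cm.fam j' → ∀ X : Σ q, Cm.I q, Cm.col X.1 X.2 = j →
    (lbl Cm X.1 X.2 j' = 1 ↔ lv j' < lv j)

variable {Cm D fa lv N L H}

/-- without pieces the label is constant -/
lemma lab_le {q : Q} {j : J} (hj : ∀ x : Cm.I q, Cm.col q x ≠ j) {v : Q} (hv : v ≤ q) :
    Cm.Lab j v = Cm.Lab j q := by
  classical
  rcases hv.eq_or_lt with rfl | h
  · rfl
  · rw [Cm.lab_eq h j, Finset.sum_eq_zero, add_zero]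
    intro x hx
    exact absurd (Finset.mem_filter.1 hx).2 (hj x)

namespace Exa

variable (h : Exa Cm D fa lv N L H)
include h

theorem ex : ∀ q ∈ D, ∀ j, L q (fa j) ≤ lv j → lv j < H q (fa j) → ∃ x, Cm.col q x = j := by
  intro q hq j h1 h2
  by_contra hno
  push Not at hno
  obtain ⟨u, hu, hu0, eu⟩ := h.lo q hq (fa j)
  obtain ⟨v, hv, hv0, ev⟩ := h.hi q hq (fa j)
  have hD : ∀ w ≤ q, w ∈ D := fun w hw => by
    rcases hw.eq_or_lt with rfl | h'
    · exact hq
    · exact h.dn q hq w h'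
  have e1 := lab_le hno hu
  have e2 := lab_le hno hv
  have h3 : Cm.Lab j v = 1 := (h.V v (hD v hv) hv0 j).2 (by rw [ev]; exact h2)
  have h4 : Cm.Lab j u = 1 := by rw [e1, ← e2]; exact h3
  have h5 := (h.V u (hD u hu) hu0 j).1 h4
  omega

theorem mem_of_le {q w : Q} (hq : q ∈ D) (hw : w ≤ q) : w ∈ D := by
  rcases hw.eq_or_lt with rfl | h'
  · exact hq
  · exact h.dn q hq w h'

theorem lab1 : ∀ q ∈ D, ∀ j, (∀ x, Cm.col q x ≠ j) → lv j < L q (fa j) → Cm.Lab j q = 1 := by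
  intro q hq j hno h1
  obtain ⟨u, hu, hu0, eu⟩ := h.lo q hq (fa j)
  rw [← lab_le hno hu]
  exact (h.V u (h.mem_of_le hq hu) hu0 j).2 (by rw [eu]; exact h1)

theorem lab0' : ∀ q ∈ D, ∀ j, (∀ x, Cm.col q x ≠ j) → H q (fa j) ≤ lv j → Cm.Lab j q = 0 := by
  intro q hq j hno h1
  obtain ⟨u, hu, hu0, eu⟩ := h.hi q hq (fa j)
  rw [← lab_le hno hu]
  rcases z2 (Cm.Lab j u) with h2 | h2
  · exact h2
  · have := (h.V u (h.mem_of_le hq hu) hu0 j).1 h2
    omega

theorem sd (hO : OrdN Cm lv) : ∀ q ∈ D, ∀ x x', x ≠ x' →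
    Cm.fam (Cm.col q x) = Cm.fam (Cm.col q x') →
      Cm.side q x x' = Cm.Lab (Cm.col q x') q +
        if lv (Cm.col q x') < lv (Cm.col q x) then 1 else 0 := by
  classical
  intro q hq x x' hne hf
  have hcol : Cm.col q x ≠ Cm.col q x' := fun e => hne (h.one q hq x x' e)
  have h1 := hO (Cm.col q x) (Cm.col q x') hcol hf ⟨q, x⟩ rfl
  have h2 : lbl Cm q x (Cm.col q x') = Cm.Lab (Cm.col q x') q + Cm.side q x x' := by
    unfold lbl
    congr 1
    rw [Finset.sum_eq_single x']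
    · intro y hy hyx
      exact absurd (h.one q hq y x' (Finset.mem_filter.1 hy).2) hyx
    · intro hx'
      exact absurd (by simp) hx'
  have h3 : lbl Cm q x (Cm.col q x') =
      if lv (Cm.col q x') < lv (Cm.col q x) then 1 else 0 := by
    split_ifs with h4
    · exact h1.2 h4
    · rcases z2 (lbl Cm q x (Cm.col q x')) with h5 | h5
      · exact h5
      · exact absurd (h1.1 h5) h4
  rw [← h3, h2]
  have e : ∀ a b : ZMod 2, b = a + (a + b) := by decide
  exact e _ _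

end Exa

/-- natural numbers of the sheets -/
theorem ordN_num {hfin : ∀ a, {j | Cm.fam j = a}.Finite} {ℓ : J → ℝ} (hO : Ord Cm ℓ)
    (hℓ : ∀ j j', j ≠ j' → Cm.fam j = Cm.fam j' → ℓ j ≠ ℓ j') :
    OrdN Cm (fun j => num (C := Cm) hfin ℓ j) := by
  intro j j' hne hf X hX
  rw [hO j j' hne hf X hX]
  constructor
  · intro h1
    exact num_lt_num hfin hf.symm h1
  · intro h1
    rcases lt_or_gt_of_ne (hℓ j j' hne hf) with h2 | h2
    · have := num_lt_num hfin hf h2
      exact absurd h1 (by simp only; omega)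
    · exact h2

/-- **vertex labels**: the sheets of a family with label `1` at `v` are an initial segment -/
theorem lab_num {hfin : ∀ a, {j | Cm.fam j = a}.Finite} {ℓ : J → ℝ}
    (hℓ : ∀ j j', j ≠ j' → Cm.fam j = Cm.fam j' → ℓ j ≠ ℓ j') {v : Q}
    (hv : ∀ j j', Cm.fam j = Cm.fam j' → ℓ j' < ℓ j → Cm.Lab j v = 1 → Cm.Lab j' v = 1) (j : J) :
    Cm.Lab j v = 1 ↔ num (C := Cm) hfin ℓ j < {j' | Cm.fam j' = Cm.fam j ∧ Cm.Lab j' v = 1}.ncard := by
  classical
  have hS : {j' | Cm.fam j' = Cm.fam j ∧ Cm.Lab j' v = 1} =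
      (((sh hfin (Cm.fam j)).filter fun j' => Cm.Lab j' v = 1 : Finset J) : Set J) := by
    ext j'
    rw [Finset.mem_coe, Finset.mem_filter, mem_sh]
    rfl
  rw [hS, Set.ncard_coe_finset]
  unfold num
  constructor
  · intro h1
    refine Finset.card_lt_card ?_
    rw [Finset.ssubset_iff_of_subset]
    · exact ⟨j, Finset.mem_filter.2 ⟨(mem_sh hfin).2 rfl, h1⟩,
        fun h => lt_irrefl _ (Finset.mem_filter.1 h).2⟩
    · intro i hi
      rw [Finset.mem_filter] at hi ⊢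
      exact ⟨hi.1, hv j i ((mem_sh hfin).1 hi.1).symm hi.2 h1⟩
  · intro h1
    by_contra h2
    refine absurd h1 (not_lt.2 (Finset.card_le_card ?_))
    intro i hi
    rw [Finset.mem_filter] at hi ⊢
    refine ⟨hi.1, ?_⟩
    have hf := (mem_sh hfin).1 hi.1
    have hne : i ≠ j := by rintro rfl; exact h2 hi.2
    rcases lt_or_gt_of_ne (hℓ i j hne hf) with h3 | h3
    · exact h3
    · exact absurd (hv i j hf h3 hi.2) h2

end comb

/-! ### `Inv` -/

section inv

open Crest.Agent.R096.Xp_537 Crest.Agent.R096.Brk1_582 Crest.Agent.R096.Brk2_582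
open Crest.Agent.R096.Brk6_582 Crest.Agent.R096.Grd_714

variable {E : Type*} [NormedAddCommGroup E] [NormedSpace ℝ E] {I : Type*}
variable {b : Set I → E} {P : I → Set E} {m : I → ℕ}
variable {W : Type*} [NormedAddCommGroup W] [NormedSpace ℝ W] {Q : Type} [PartialOrder Q]
  {dim : Q → ℕ} {J Fam : Type} {Cm : Cmb Q dim J Fam} {K : Q → Set W} {D : Set Q}
variable {La : Set E} [CompleteSpace E] [FiniteDimensional ℝ E] (F : Foam La P b 4)
  (hQ : Quads P b) (hne : ∀ c, (P c).Nonempty) (hm : ∀ c, 0 < m c)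
variable {κ : ℝ} (hκ : 0 < κ ∧ κ < 1) (c : Cel P m) {fa : J → I} {lv : J → ℕ} {S : Set W}
  {T : Set E} (e : PLEquiv S T)

include hκ in
/-- **BASE-INV from exact cells** -/
theorem Exa.inv (hinj : ∀ j j', fa j = fa j' → lv j = lv j' → j = j')
    (sub : ∀ {p q : Q}, p < q → q ∈ D → K p ⊆ K q)
    (hKc : ∀ q ∈ D, IsClosed (K q)) (hKS : ∀ q ∈ D, K q ⊆ S) {N : Q → I → ℕ} {L H : Q → I → ℕ}
    (hKe : ∀ q ∈ D, e.f '' K q = bxS P b m (L q) (H q)) (h0 : ∀ q ∈ D, ∃ c0, H q c0 = 0)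
    (h : Exa Cm D fa lv N L H) (hO : OrdN Cm lv) :
    Inv Cm K D (ekS (grid F hQ hne hm) b κ c fa lv e)
      (fun q x => K q ∩ (ekS (grid F hQ hne hm) b κ c fa lv e).B (Cm.col q x))
      (fun q x z => sg (Cm.Lab (Cm.col q x) q) *
        ((ekS (grid F hQ hne hm) b κ c fa lv e).G (Cm.col q x) z - 1/2)) :=
  inv_base F hQ hne hm hκ c fa lv e hinj h.dn sub hKc hKS L H hKe h0 h.one h.ex h.hfam h.lab1
    h.lab0' (h.sd hO)

end inv

end Crest.Agent.R096.Ecm_446
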