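import Crest.Agent.R096.Mg2_441
import Crest.Agent.R096.Lm5_117

/-!
# R096 (row 96), MERGE (helper441), part 5: Mg3_441 over the labelled meshes `LM` of helper117

* `lbl_cmb`   : the label of a piece is the (extended) label of any of its points;
* `connC_cmb` : connected sheets have connected pieces;
* `ord_cmb`   : order of the sheets of a family from one point of every sheet.
-/

set_option autoImplicit false
set_option linter.unusedSectionVars false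

open Set Relation

namespace Crest.Agent.R096.MgL_441

open Crest.Agent.R096.St_147 Crest.Agent.R096.Seq_213
  Crest.Agent.R096.Bd_416 Crest.Agent.R096.Mg_441 Crest.Agent.R096.Lm_117

variable {ι Φ W Q J Cc : Type} {M : MeshC ι Φ W} [PartialOrder Q] {dim : Q → ℕ}
variable {L : LM M Q dim} {fam : J → Cc} {s : GSt M fam}
variable (h : LF L s) (Lam : J → Q → ZMod 2) (hLam : ∀ j c, L.toSk.XL (gP s j) (Lam j) c)

/-- **the label of a piece is the label of any of its points** -/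
theorem lbl_cmb {c : Q} {x : Pc L s c} {w : W} (hw : w ∈ pts h c x) {j' : J}
    (hne : j' ≠ pcol L s c x) (hf : fam (pcol L s c x) = fam j') :
    lbl (cmb h Lam hLam) c x j' = L.toSk.ext (gP s j') (Lam j') w := by
  classical
  have := h.pc c
  let _ : Fintype (Pc L s c) := Fintype.ofFinite _
  have hwI := (pts_in hw).2
  have hm : ∀ w ∈ L.toSk.In c, (w ∈ gP s j' ↔
      ∃ y ∈ Finset.univ.filter (fun x : Pc L s c => pcol L s c x = j'), w ∈ pts h c y) := by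
    intro w hw
    rw [mem_gP]
    constructor
    · rintro ⟨h4, h5⟩
      exact ⟨Quot.mk _ ⟨w, h4, hw⟩, Finset.mem_filter.2 ⟨Finset.mem_univ _, h5⟩,
        mem_pts.2 ⟨_, rfl⟩⟩
    · rintro ⟨x, hx, hwx⟩
      exact ⟨(pts_in hwx).1, by rw [← pcol_pts hwx]; exact (Finset.mem_filter.1 hx).2⟩
  have hx2 := xl_sum (h := h) (c := c) (Y0 := gP s j') _ hm
  have h4 := (hLam j' c).unique_ext hx2 (fun _ _ => Iff.rfl) (bv_le L.toSk c) (bv_dim L.toSk c) hwI
  have h5 : ∑ x : Pc L s c with pcol L s c x = j', nl h c x (bv L.toSk c) = 0 :=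
    Finset.sum_eq_zero fun y _ => nl_bv h c y
  rw [ext_sum _ hm hwI, h5, add_zero] at h4
  have h6 : lbl (cmb h Lam hLam) c x j' =
      Lam j' (bv L.toSk c) + ∑ x' : Pc L s c with pcol L s c x' = j', nlw h c x' (rep h x) := by
    unfold lbl
    congr 1
  have h7 : ∑ x' : Pc L s c with pcol L s c x' = j', nlw h c x' (rep h x)
      = ∑ x' : Pc L s c with pcol L s c x' = j', nlw h c x' w := by
    refine Finset.sum_congr rfl fun x' hx' => ?_
    have hx'' := (Finset.mem_filter.1 hx').2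
    refine side_const (h := h) ?_ (by rw [hx'']; exact hf) (rep_mem h x) hw
    rintro rfl
    exact hne hx''.symm
  rw [h6, h7, ← h4]
  have e : ∀ a b : ZMod 2, a + b + b = a := by decide
  exact e _ _

/-- the piece of a point in a cell -/
def pp (c : Q) {w : W} (hw : w ∈ s.P ∧ w ∈ L.toSk.In c) : Σ q, (cmb h Lam hLam).I q :=
  ⟨c, (Quot.mk _ ⟨w, hw⟩ : Pc L s c)⟩

theorem pp_le {c d : Q} (hcd : c ≤ d) {w : W} (hw : w ∈ s.P ∧ w ∈ L.toSk.In c)
    (hw' : w ∈ s.P ∧ w ∈ L.toSk.In d) :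
    EqvGen (Stp (cmb h Lam hLam)) (pp h Lam hLam c hw) (pp h Lam hLam d hw') := by
  rcases hcd.eq_or_lt with rfl | hlt
  · exact EqvGen.refl _
  · exact EqvGen.rel _ _ (Stp.mk (C := cmb h Lam hLam) hlt (Quot.mk _ ⟨w, hw⟩ : Pc L s c))

theorem pp_two {c d : Q} {w : W} (hw : w ∈ s.P ∧ w ∈ L.toSk.In c)
    (hw' : w ∈ s.P ∧ w ∈ L.toSk.In d) :
    EqvGen (Stp (cmb h Lam hLam)) (pp h Lam hLam c hw) (pp h Lam hLam d hw') := by
  have h1 : w ∈ s.P ∧ w ∈ L.toSk.In (L.ed w) := ⟨hw.1, hw.2.1, le_rfl⟩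
  exact EqvGen.trans _ _ _ (EqvGen.symm _ _ (pp_le h Lam hLam hw.2.2 h1 hw))
    (pp_le h Lam hLam hw'.2.2 h1 hw')

theorem pp_mu {F : Φ} {w : W} (hw : w ∈ s.P ∧ w ∈ L.toSk.In (L.cf F))
    (hw' : s.mu F w ∈ s.P ∧ s.mu F w ∈ L.toSk.In (L.cf F)) :
    pp h Lam hLam (L.cf F) hw = pp h Lam hLam (L.cf F) hw' := by
  unfold pp
  congr 1
  exact Quot.sound ⟨F, le_rfl, on_of_in hw.2, rfl⟩

/-- **connected sheets have connected pieces** -/
theorem connC_cmb {j : J} (hconn : s.Conn j) : ConnC (cmb h Lam hLam) j := by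
  rintro ⟨c, x⟩ ⟨d, y⟩ hx hy
  obtain ⟨⟨w, hw⟩, rfl⟩ := Quot.exists_rep (r := Rel L s c) x
  obtain ⟨⟨w', hw'⟩, rfl⟩ := Quot.exists_rep (r := Rel L s d) y
  have hwj : s.lab w = j := hx
  have hwj' : s.lab w' = j := hy
  have key := hconn.2 {u | ∀ (e : Q) (hu : u ∈ s.P ∧ u ∈ L.toSk.In e),
    EqvGen (Stp (cmb h Lam hLam)) (pp h Lam hLam c hw) (pp h Lam hLam e hu)} ?_ w
    (fun e hu => pp_two h Lam hLam hw hu) hw.1 hwj w' hw'.1 hwj'
  · exact key d hw'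
  · intro F u hu hat _ e hmu
    have hm := s.mu_mem hat.1 hat.2
    have hu1 : u ∈ s.P ∧ u ∈ L.toSk.In (L.cf F) := ⟨hat.1, (L.on_iff F u).1 hat.2⟩
    have hm1 : s.mu F u ∈ s.P ∧ s.mu F u ∈ L.toSk.In (L.cf F) := ⟨hm.1, (L.on_iff F _).1 hm.2⟩
    refine EqvGen.trans _ _ _ (hu (L.cf F) hu1) ?_
    rw [pp_mu h Lam hLam hu1 hm1]
    exact pp_two h Lam hLam hm1 hmu

/-- **order of the sheets of a family** from one point of every sheet -/
theorem ord_cmb (hW : ∀ w ∈ s.P, w ∈ L.W1) (hconn : ∀ j, s.Conn j) {ℓ : J → ℝ}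
    (hlev : ∀ j j', j ≠ j' → fam j = fam j' →
      ∃ w ∈ s.P, s.lab w = j ∧ (L.toSk.ext (gP s j') (Lam j') w = 1 ↔ ℓ j' < ℓ j)) :
    Ord (cmb h Lam hLam) ℓ := by
  refine ord_of _ (fun j => connC_cmb h Lam hLam (hconn j)) ?_
  intro j j' hne hf
  obtain ⟨w, hw, hwj, e⟩ := hlev j j' hne hf
  have h2 : w ∈ s.P ∧ w ∈ L.toSk.In (L.ed w) := ⟨hw, hW w hw, le_rfl⟩
  refine ⟨pp h Lam hLam (L.ed w) h2, hwj, ?_⟩
  have h4 : lbl (cmb h Lam hLam) (L.ed w) (Quot.mk _ ⟨w, h2⟩ : Pc L s (L.ed w)) j' =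
      L.toSk.ext (gP s j') (Lam j') w :=
    lbl_cmb h Lam hLam (mem_pts.2 ⟨h2, rfl⟩) (by show j' ≠ s.lab w; rw [hwj]; exact hne.symm)
      (by show fam (s.lab w) = fam j'; rw [hwj]; exact hf)
  rw [← e, ← h4]
  exact Iff.rfl

end Crest.Agent.R096.MgL_441
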