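import Crest.Agent.R096.On2_441
import Crest.Agent.R096.Mg5_441
import Crest.Agent.R096.Gl3_422

/-!
# R096 (row 96), NO-LABELS (helper441), part 3: from 422's labels to 416 / 537's labels

422's labels are `1` deep inside (near the brick) and `0` far away; the functions `s_a` of the foam
are `0` on the brick and `1` far away.  So the labels of the discrete input are `Lf lam = lam + 1`.

* `xlf`       : they are labels;
* `ordF`      : order of the sheets, `ℓ = - rk`;
* `num_add`   : number of a sheet = (number of sheets) - 1 - rk;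
* `pt_final`  : position of the points of the final state;
* `ex_out`    : (K4) for a cell of the final mesh.
-/

set_option autoImplicit false
set_option linter.unusedSectionVars false

open Set Relation

namespace Crest.Agent.R096.On_441

open Crest.Agent.R096.St_147 Crest.Agent.R096.Seq_213 Crest.Agent.R096.Seq_213.GSt
  Crest.Agent.R096.Bd_416 Crest.Agent.R096.Mg_441 Crest.Agent.R096.Lm_117
  Crest.Agent.R096.Grd_714 Crest.Agent.R096.Cp_298 Crest.Agent.R096.Gl_422

variable {ι Φ W Q J J1 Cc Kq : Type} {M : MeshC ι Φ W} [PartialOrder Q] {dim : Q → ℕ}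
variable {L : LM M Q dim} {fam : J → Cc} {fam1 : J1 → Cc}

/-- labels which are `0` inside and `1` far away -/
def Lf (lam : J1 → Q → ZMod 2) (j : J1) (v : Q) : ZMod 2 := lam j v + 1

theorem gp_eq (s : GSt M fam1) (j : J1) : gP s j = gp s j := by
  ext w
  rw [mem_gP, mem_gp]

theorem xlf {s : GSt M fam1} {lam : J1 → Q → ZMod 2} (h : ∀ j, GLab L (gp s j) (lam j)) :
    ∀ j c, L.toSk.XL (gP s j) (Lf lam j) c := by
  intro j c
  rw [gp_eq]
  exact ((h j).xl c).add_const 1

theorem extf {s : GSt M fam1} {lam : J1 → Q → ZMod 2} (j : J1) (w : W) :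
    L.toSk.ext (gP s j) (Lf lam j) w = L.toSk.ext (gp s j) (lam j) w + 1 := by
  rw [gp_eq]
  unfold Sk.ext Lf
  ring

section out

variable {Qd : Quads ι Cc Kq} {s : GSt M fam1} {Z : Cc → Set Q} {p : J1 → J}
  {lam₀ : J → Q → ZMod 2} {v₀ v₁ : Cc → Q} {lam : J1 → Q → ZMod 2}

/-- **order of the sheets with the flipped labels** -/
theorem ordF (D : LabOut L Qd s Z p lam₀ v₀ v₁ lam) (hLF : LF L s)
    (hfin : ∀ a, {j | fam1 j = a}.Finite) :
    Ord (cmb hLF (Lf lam) (xlf D.lab)) (fun j => -(rk L s lam hfin j : ℝ)) := by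
  refine MgL_441.ord_cmb hLF (Lf lam) (xlf D.lab) D.on D.conn ?_
  intro j j' hne hf
  obtain ⟨w, hw, hl, e⟩ := D.hlev hfin j j' hne hf
  refine ⟨w, hw, hl, ?_⟩
  have hinj : rk L s lam hfin j ≠ rk L s lam hfin j' := fun h' => hne (D.rk_inj hfin hf h')
  rw [extf]
  have e1 : ∀ a : ZMod 2, a + 1 = 1 ↔ ¬ a = 1 := by decide
  rw [e1, e]
  constructor
  · intro h1
    have h2 : (rk L s lam hfin j : ℝ) ≠ rk L s lam hfin j' := fun h' => hinj (by exact_mod_cast h')
    have h4 : (rk L s lam hfin j : ℝ) ≤ rk L s lam hfin j' := not_lt.1 h1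
    have h5 := lt_of_le_of_ne h4 h2
    linarith
  · intro h1 h2
    linarith

/-- the levels of different sheets of a family are different -/
theorem ordF_ne (D : LabOut L Qd s Z p lam₀ v₀ v₁ lam) (hfin : ∀ a, {j | fam1 j = a}.Finite) :
    ∀ j j', j ≠ j' → fam1 j = fam1 j' →
      (-(rk L s lam hfin j : ℝ)) ≠ -(rk L s lam hfin j' : ℝ) := by
  intro j j' hne hf h
  apply hne
  refine D.rk_inj hfin hf ?_
  have h1 : (rk L s lam hfin j : ℝ) = rk L s lam hfin j' := neg_injective h
  exact_mod_cast h1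

/-- **number of a sheet**: the outermost sheet (`rk = 0`) is the last one -/
theorem num_add (D : LabOut L Qd s Z p lam₀ v₀ v₁ lam) (hLF : LF L s)
    (hfin : ∀ a, {j | fam1 j = a}.Finite) (j : J1) :
    Mg_441.num (C := cmb hLF (Lf lam) (xlf D.lab)) hfin (fun j => -(rk L s lam hfin j : ℝ)) j
      + (rk L s lam hfin j + 1) = mm hfin (fam1 j) := by
  classical
  have hlt : ∀ i ∈ sh hfin (fam1 j), rk L s lam hfin i < mm hfin (fam1 j) := by
    intro i hi
    have h1 := rk_lt (L := L) (s := s) (lam := lam) hfin i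
    have h2 : (sib hfin i).card = mm hfin (fam1 j) := by
      unfold mm
      congr 1
      ext k
      rw [mem_sib, mem_sh, (mem_sh hfin).1 hi]
    omega
  have hinj : Set.InjOn (rk L s lam hfin) (sh hfin (fam1 j)) := by
    intro i hi i' hi' h
    have h1 := (mem_sh hfin).1 hi
    have h2 := (mem_sh hfin).1 hi'
    exact D.rk_inj hfin (h1.trans h2.symm) h
  -- `rk` is a bijection of the family onto `0 .. m - 1`
  have himg : (sh hfin (fam1 j)).image (rk L s lam hfin) = Finset.range (mm hfin (fam1 j)) := by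
    apply Finset.eq_of_subset_of_card_le
    · intro k hk
      obtain ⟨i, hi, rfl⟩ := Finset.mem_image.1 hk
      exact Finset.mem_range.2 (hlt i hi)
    · rw [Finset.card_range, Finset.card_image_of_injOn hinj]
      exact le_rfl
  have hj : j ∈ sh hfin (fam1 j) := (mem_sh hfin).2 rfl
  have h1 : Mg_441.num (C := cmb hLF (Lf lam) (xlf D.lab)) hfin (fun j => -(rk L s lam hfin j : ℝ)) j =
      ((sh hfin (fam1 j)).filter fun i => rk L s lam hfin j < rk L s lam hfin i).card := by
    unfold Mg_441.num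
    show ((sh hfin (fam1 j)).filter fun i =>
      -(rk L s lam hfin i : ℝ) < -(rk L s lam hfin j : ℝ)).card = _
    congr 1
    ext i
    rw [Finset.mem_filter, Finset.mem_filter, neg_lt_neg_iff, Nat.cast_lt]
  have h2 : ((sh hfin (fam1 j)).filter fun i => rk L s lam hfin j < rk L s lam hfin i).card =
      ((Finset.range (mm hfin (fam1 j))).filter fun k => rk L s lam hfin j < k).card := by
    rw [← himg, Finset.filter_image, Finset.card_image_of_injOn]
    exact hinj.mono (fun i hi => (Finset.mem_filter.1 hi).1)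
  have h4 : ((Finset.range (mm hfin (fam1 j))).filter fun k => rk L s lam hfin j < k) =
      Finset.Ico (rk L s lam hfin j + 1) (mm hfin (fam1 j)) := by
    ext k
    rw [Finset.mem_filter, Finset.mem_range, Finset.mem_Ico]
    omega
  have h5 := hlt j hj
  rw [h1, h2, h4, Nat.card_Ico]
  omega

end out

/-- **position of the points of the final state** in a cell `q`: from the initial state and the
active quads -/
theorem pt_final {O : Ori M} {Qd : Quads ι Cc Kq} {Rel : W → W → Prop} {s₀ : GSt M fam}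
    {far₀ : J → Set W} {σ₀ : W → ZMod 2} {p : J1 → J} {m : J1 → ℕ} {s : GSt M fam1}
    {far : J1 → Set W} {β : W → W} (h : Cps O Qd Rel s₀ far₀ σ₀ p m s far β)
    (hp : ∀ j, fam (p j) = fam1 j) (hI₀ : s₀.Inv Qd far₀) (hI : s.Inv Qd far) {q : ι}
    {good : Cc → Prop} (h0 : ∀ F, q ∈ M.side F → ∀ w ∈ s₀.P, w ∈ M.On F → good (fam (s₀.lab w)))
    (hact : ∀ k, q ∈ Qd.Act k → ∀ c, Qd.In k c → good c) {F : Φ} (hq : q ∈ M.side F) {x : W}
    (hx : x ∈ s.P) (hxF : x ∈ M.On F) : good (fam1 (s.lab x)) := by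
  rcases h.nm hp hI₀ hI hx with ⟨-, h2⟩ | ⟨k, h1, h2, -⟩
  · have h4 := h0 F hq _ (h.mem hx) ((h.on F hx).1 hxF)
    rwa [h2, hp] at h4
  · exact hact k (h1.2 F hxF q hq) _ h2

section k4

variable {Qd : Quads ι Cc Kq} {s : GSt M fam1} {Z : Cc → Set Q} {p : J1 → J}
  {lam₀ : J → Q → ZMod 2} {v₀ v₁ : Cc → Q} {lam : J1 → Q → ZMod 2}
variable {E' : Type*} [NormedAddCommGroup E'] [NormedSpace ℝ E'] {Pf : Cc → Set E'}

/-- **(K4) for a cell of the final mesh.** `y a = 0` (near the brick `a`): a vertex of the cell is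
joined with the deep vertex by frozen 1-cells and has the original label `1` (or directly the final
label `1`); `y a = 1`: a vertex of the cell has label `0` (e.g. it lies in `Z a`). -/
theorem ex_out (D : LabOut L Qd s Z p lam₀ v₀ v₁ lam) (hLF : LF L s) {c : Q} {y : Cc → ℝ}
    (hy : y ∈ K2 Pf)
    (hpt : ∀ w ∈ s.P, w ∈ L.toSk.In c → 0 < y (fam1 (s.lab w)) ∧ y (fam1 (s.lab w)) < 1)
    (h0 : ∀ j, y (fam1 j) = 0 → ∃ v ≤ c, dim v = 0 ∧ (lam j v = 1 ∨
      (ReflTransGen (Ed L {e | FrE L Qd (fam1 j) e}) (v₀ (fam1 j)) v ∧ lam₀ (p j) v = 1)))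
    (h1 : ∀ j, y (fam1 j) = 1 → ∃ v ≤ c, dim v = 0 ∧ (lam j v = 0 ∨ v ∈ Z (fam1 j) ∨
      (ReflTransGen (Ed L {e | FrE L Qd (fam1 j) e}) (v₀ (fam1 j)) v ∧ lam₀ (p j) v = 0))) :
    Ex (cmb hLF (Lf lam) (xlf D.lab)) Pf c y := by
  refine ex_of hLF (Lf lam) (xlf D.lab) hy hpt ?_ ?_
  · intro j hj
    obtain ⟨v, h2, h3, h4⟩ := h0 j hj
    have h5 : lam j v = 1 := by
      rcases h4 with h4 | ⟨h4, h6⟩
      · exact h4
      · rw [D.frz j v h4, h6]
    refine ⟨v, h2, h3, ?_⟩
    show lam j v + 1 = 0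
    rw [h5]; decide
  · intro j hj
    obtain ⟨v, h2, h3, h4⟩ := h1 j hj
    have h5 : lam j v = 0 := by
      rcases h4 with h4 | h4 | ⟨h4, h6⟩
      · exact h4
      · exact D.far j v h4
      · rw [D.frz j v h4, h6]
    refine ⟨v, h2, h3, ?_⟩
    show lam j v + 1 = 1
    rw [h5, zero_add]

end k4

end Crest.Agent.R096.On_441
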