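import Crest.Agent.R096.Ecm1_446
import Crest.Agent.R096.Mg5_441
import Crest.Agent.R096.Gl3_422
import Crest.Agent.R096.On3_441

/-!
# R096 (row 96), BASE-DISC, part 2 (helper446): exact cells of a state over a labelled mesh

`s : GSt M fam` over `L : LM M Q dim` (117), labels `lam` with 422's `Lbd`; `Dc` = down-closed set of
cells of dimension `≤ 2` (the cells of `bd K_c`).
* `ordN_lbd`  : order of the sheets (`lv = rk`);
* `lab_rk`    : labels of the vertices by `rk`;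
* `one_pts`   : one piece per sheet and cell from `E1` (at most one point of a sheet on a 1-cell) and
                `F1` (at most two points of a sheet on a 2-cell);
* `exa_state` : `Exa`.
* `E1_final`, `F1_final`, `exa_final` : for a later state with copies (298, 422).
-/

set_option autoImplicit false
set_option linter.unusedSectionVars false

open Set Relation

namespace Crest.Agent.R096.Ecm_446

open Crest.Agent.R096.St_147 Crest.Agent.R096.Seq_213 Crest.Agent.R096.Seq_213.GSt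
  Crest.Agent.R096.Lm_117 Crest.Agent.R096.Ac_117 Crest.Agent.R096.Cp_298
  Crest.Agent.R096.Gl_422
open Crest.Agent.R096.Bd_416 (Cmb)
open Crest.Agent.R096.Mg_441 (Ord mm sh mem_sh)
open Crest.Agent.R096.On_441 (Lf xlf)

variable {ι Φ W Q : Type} [PartialOrder Q] {dim : Q → ℕ} {M : MeshC ι Φ W}
variable {J J1 C K : Type} {fam : J → C} {fam1 : J1 → C} {L : LM M Q dim} {s : GSt M fam}
  {lam : J → Q → ZMod 2}

theorem gp_eq (s : GSt M fam) (j : J) : gp s j = gP s j := by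
  ext w; rw [mem_gp, mem_gP]

theorem glab_xl (hl : ∀ j, GLab L (gp s j) (lam j)) : ∀ j c, L.toSk.XL (gP s j) (lam j) c :=
  fun j c => by rw [← gp_eq]; exact (hl j).xl c

/-- **order of the sheets** -/
theorem ordN_lbd (hLF : LF L s) (hl : ∀ j, GLab L (gp s j) (lam j)) (hW : ∀ w ∈ s.P, w ∈ L.W1)
    (hc : ∀ j, s.Conn j) (hb : ∀ j, ∃ v₀ v₁, Lbd L s (fam j) lam v₀ v₁)
    (hfin : ∀ a, {j | fam j = a}.Finite) :
    OrdN (cmb hLF lam (glab_xl hl)) (rk L s lam hfin) := by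
  have h1 : Ord (cmb hLF lam (glab_xl hl)) (fun j => (rk L s lam hfin j : ℝ)) := by
    refine MgL_441.ord_cmb hLF lam (glab_xl hl) hW hc ?_
    intro j j' hne hf
    obtain ⟨⟨w, hw, hwl⟩, -⟩ := hc j
    obtain ⟨v₀, v₁, B⟩ := hb j
    refine ⟨w, hw, hwl, ?_⟩
    rw [← gp_eq, B.ext_iff hfin rfl hf.symm hne hw hwl, Nat.cast_lt]
  intro j j' hne hf X hX
  rw [h1 j j' hne hf X hX, Nat.cast_lt]

/-- **labels of the vertices** by the number of the sheets -/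
theorem lab_rk {j : J} {v₀ v₁ : Q} (B : Lbd L s (fam j) lam v₀ v₁)
    (hfin : ∀ a, {j | fam j = a}.Finite) {Z : Set Q} {v : Q} (hv : ReflTransGen (Ed L Z) v v₁) :
    lam j v = 1 ↔ rk L s lam hfin j < {j' | fam j' = fam j ∧ lam j' v = 1}.ncard := by
  classical
  have hS : {j' | fam j' = fam j ∧ lam j' v = 1} =
      (((sib hfin j).filter fun j' => lam j' v = 1 : Finset J) : Set J) := by
    ext j'
    rw [Finset.mem_coe, Finset.mem_filter, mem_sib]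
    rfl
  rw [hS, Set.ncard_coe_finset]
  unfold rk ord
  constructor
  · intro h1
    refine Finset.card_lt_card ?_
    rw [Finset.ssubset_iff_of_subset]
    · exact ⟨j, Finset.mem_filter.2 ⟨mem_sib.2 rfl, h1⟩,
        fun h => (Finset.mem_filter.1 h).2.1 rfl⟩
    · intro i hi
      obtain ⟨h2, h3, h4⟩ := Finset.mem_filter.1 hi
      exact Finset.mem_filter.2 ⟨h2, B.mono rfl (mem_sib.1 h2) h3.symm h4 hv h1⟩
  · intro h1
    by_contra h2
    refine absurd h1 (not_lt.2 (Finset.card_le_card ?_))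
    intro i hi
    obtain ⟨h3, h4⟩ := Finset.mem_filter.1 hi
    have hne : i ≠ j := by rintro rfl; exact h2 h4
    refine Finset.mem_filter.2 ⟨h3, hne, ?_⟩
    rcases B.tri rfl (mem_sib.1 h3) hne.symm with ⟨h5, -⟩ | ⟨h5, -⟩
    · exact h5
    · exact absurd (B.mono (mem_sib.1 h3) rfl hne h5 hv h4) h2

/-! ### one piece per sheet and cell -/

/-- at most one point of every sheet on the 1-cells of `Dc` -/
def E1 (L : LM M Q dim) (s : GSt M fam) (Dc : Set Q) : Prop :=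
  ∀ e ∈ Dc, dim e = 1 → ∀ w w', w ∈ s.P → w' ∈ s.P → w ∈ L.toSk.On1 e → w' ∈ L.toSk.On1 e →
    s.lab w = s.lab w' → w = w'

/-- at most two points of every sheet on the 2-cells of `Dc` -/
def F1 (L : LM M Q dim) (s : GSt M fam) (Dc : Set Q) : Prop :=
  ∀ q ∈ Dc, dim q = 2 → ∀ w₁ w₂ w₃, w₁ ∈ s.P → w₂ ∈ s.P → w₃ ∈ s.P → w₁ ∈ L.toSk.In q →
    w₂ ∈ L.toSk.In q → w₃ ∈ L.toSk.In q → s.lab w₁ = s.lab w₂ → s.lab w₁ = s.lab w₃ →
      w₁ = w₂ ∨ w₁ = w₃ ∨ w₂ = w₃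

theorem in_edge {e : Q} (he : dim e = 1) {w : W} (hw : w ∈ L.toSk.In e) : w ∈ L.toSk.On1 e :=
  ⟨hw.1, eq_of_dim L.toSk hw.2 (by rw [he, L.ed_dim w hw.1])⟩

/-- **one piece per sheet and cell** -/
theorem one_pts (hLF : LF L s) (hX : ∀ j c, L.toSk.XL (gP s j) (lam j) c) {Dc : Set Q}
    (hd : ∀ q ∈ Dc, dim q ≤ 2) (hcf : ∀ q ∈ Dc, dim q = 2 → ∃ F, L.cf F = q)
    (h1 : E1 L s Dc) (h2 : F1 L s Dc) :
    ∀ q ∈ Dc, ∀ x x' : (cmb hLF lam hX).I q,
      (cmb hLF lam hX).col q x = (cmb hLF lam hX).col q x' → x = x' := by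
  intro q hq x x' hcol
  have hx : ∀ x : Pc L s q, ∃ w, w ∈ pts hLF q x := fun x => pts_ne x
  obtain ⟨w, hw⟩ := hx x
  obtain ⟨w', hw'⟩ := hx x'
  have e1 : s.lab w = s.lab w' := by
    rw [← pcol_pts hw, ← pcol_pts hw']; exact hcol
  have i1 := pts_in hw
  have i2 := pts_in hw'
  have hdim := hd q hq
  have hge : 1 ≤ dim q := by
    have := dim_le' L.toSk i1.2.2
    rw [L.ed_dim w i1.2.1] at this
    exact this
  rcases (show dim q = 1 ∨ dim q = 2 by omega) with h | h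
  · have := h1 q hq h w w' i1.1 i2.1 (in_edge h i1.2) (in_edge h i2.2) e1
    subst this
    exact pts_disj hw hw'
  · obtain ⟨F, rfl⟩ := hcf q hq h
    have hwF : w ∈ M.On F := on_of_in i1.2
    have hm := mu_pts hw le_rfl hwF
    have i3 := pts_in hm
    rcases h2 _ hq h w (s.mu F w) w' i1.1 i3.1 i2.1 i1.2 i3.2 i2.2
      (s.mu_lab i1.1 hwF).symm e1 with h3 | h3 | h3
    · exact absurd h3.symm (s.mu_ne i1.1 hwF)
    · subst h3; exact pts_disj hw hw'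
    · rw [h3] at hm; exact pts_disj hm hw'

/-- the number of the sheets of the family `a` up to the height `i` -/
noncomputable def cnt (fam : J → C) (τ : J → ℝ) (a : C) (i : ℕ) : ℕ :=
  {j | fam j = a ∧ τ j ≤ i}.ncard

theorem cnt_mono (hfin : ∀ a, {j | fam j = a}.Finite) (τ : J → ℝ) (a : C) :
    Monotone (cnt fam τ a) := by
  intro i i' h
  unfold cnt
  refine Set.ncard_le_ncard ?_ ((hfin a).subset fun j hj => hj.1)
  rintro j ⟨h1, h2⟩
  exact ⟨h1, h2.trans (by exact_mod_cast h)⟩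

theorem cnt_zero {τ : J → ℝ} (hτ : ∀ j, 0 < τ j) (a : C) : cnt fam τ a 0 = 0 := by
  unfold cnt
  have : {j | fam j = a ∧ τ j ≤ ((0 : ℕ) : ℝ)} = ∅ := by
    ext j
    simp only [mem_ofPred_eq, mem_empty_iff_false, iff_false, not_and, not_le, Nat.cast_zero]
    exact fun _ => hτ j
  rw [this, ncard_empty]

/-- above all levels: all sheets of the family -/
theorem cnt_top {τ : J → ℝ} {M : ℕ} (hτ : ∀ j, τ j ≤ M) (a : C) :
    cnt fam τ a M = {j | fam j = a}.ncard := by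
  unfold cnt
  congr 1
  ext j
  exact ⟨fun h => h.1, fun h => ⟨h, hτ j⟩⟩

/-- **exact cells of a state**: `u v a` = height of the vertex `v` in direction `a`, `lo q a`,
`hi q a` = smallest and largest height of the vertices of `q`. -/
theorem exa_state (hLF : LF L s) (hl : ∀ j, GLab L (gp s j) (lam j)) {Dc : Set Q}
    (hdn : ∀ q ∈ Dc, ∀ p < q, p ∈ Dc)
    (hd : ∀ q ∈ Dc, dim q ≤ 2) (hcf : ∀ q ∈ Dc, dim q = 2 → ∃ F, L.cf F = q)
    (h1 : E1 L s Dc) (h2 : F1 L s Dc) (hfin : ∀ a, {j | fam j = a}.Finite)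
    (hb : ∀ j, ∃ v₀ v₁, Lbd L s (fam j) lam v₀ v₁ ∧
      ∀ v ∈ Dc, dim v = 0 → (∃ Z : Set Q, ReflTransGen (Ed L Z) v v₁) ∨
        ∀ j', fam j' = fam j → lam j' v = 1)
    (τ : J → ℝ) (u lo hi : Q → C → ℕ)
    (hV : ∀ v ∈ Dc, dim v = 0 → ∀ j, lam j v = 1 ↔ τ j ≤ u v (fam j))
    (hbd : ∀ q ∈ Dc, ∀ v ≤ q, dim v = 0 → ∀ a, lo q a ≤ u v a ∧ u v a ≤ hi q a)
    (hlo : ∀ q ∈ Dc, ∀ a, ∃ v ≤ q, dim v = 0 ∧ u v a = lo q a)
    (hhi : ∀ q ∈ Dc, ∀ a, ∃ v ≤ q, dim v = 0 ∧ u v a = hi q a) :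
    Exa (cmb hLF lam (glab_xl hl)) Dc fam (rk L s lam hfin)
      (fun v a => cnt fam τ a (u v a)) (fun q a => cnt fam τ a (lo q a))
      (fun q a => cnt fam τ a (hi q a)) where
  dn := hdn
  hfam := fun _ _ h => h
  V := by
    intro v hv hv0 j
    obtain ⟨v₀, v₁, B, hp⟩ := hb j
    have e : (cmb hLF lam (glab_xl hl)).Lab j v = lam j v := by
      show lam j (bv L.toSk v) = _
      rw [bv_vertex _ hv0]
    have e1 : lam j v = 1 ↔
        rk L s lam hfin j < {j' | fam j' = fam j ∧ lam j' v = 1}.ncard := by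
      rcases hp v hv hv0 with ⟨Z, hZ⟩ | hall
      · exact lab_rk B hfin hZ
      · have h5 : {j' | fam j' = fam j ∧ lam j' v = 1} =
            ((sib hfin j : Finset J) : Set J) := by
          ext j'
          rw [Finset.mem_coe, mem_sib]
          exact ⟨fun h => h.1, fun h => ⟨h, hall j' h⟩⟩
        rw [h5, Set.ncard_coe_finset]
        exact ⟨fun _ => rk_lt hfin j, fun _ => hall j rfl⟩
    rw [e, e1]
    have e2 : {j' | fam j' = fam j ∧ lam j' v = 1} =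
        {j' | fam j' = fam j ∧ τ j' ≤ (u v (fam j) : ℝ)} := by
      ext j'
      constructor
      · rintro ⟨h3, h4⟩
        exact ⟨h3, by rw [← h3]; exact (hV v hv hv0 j').1 h4⟩
      · rintro ⟨h3, h4⟩
        exact ⟨h3, (hV v hv hv0 j').2 (by rw [h3]; exact h4)⟩
    rw [e2]
    rfl
  one := one_pts hLF (glab_xl hl) hd hcf h1 h2
  bd := fun q hq v hv hv0 a => ⟨cnt_mono hfin τ a (hbd q hq v hv hv0 a).1,
    cnt_mono hfin τ a (hbd q hq v hv hv0 a).2⟩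
  lo := fun q hq a => by
    obtain ⟨v, h3, h4, h5⟩ := hlo q hq a
    exact ⟨v, h3, h4, by rw [h5]⟩
  hi := fun q hq a => by
    obtain ⟨v, h3, h4, h5⟩ := hhi q hq a
    exact ⟨v, h3, h4, by rw [h5]⟩

/-! ### the final state -/

section cps

variable {O : Ori M} {Qd : Quads ι C K} {Rel : W → W → Prop} {s₀ : GSt M fam}
  {far₀ : J → Set W} {σ₀ : W → ZMod 2} {p : J1 → J} {m : J1 → ℕ} {s : GSt M fam1}
  {far : J1 → Set W} {β : W → W}

variable (h : Cps O Qd Rel s₀ far₀ σ₀ p m s far β)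
  (hR : ∀ x w, Rel x w → w ∈ L.W1 → x ∈ L.W1 ∧ L.ed x = L.ed w)
  (hP0 : ∀ w ∈ s₀.P, w ∈ L.W1) (hp : ∀ j, fam (p j) = fam1 j) (hI₀ : s₀.Inv Qd far₀)
  (hI : s.Inv Qd far) {Dc : Set Q}
  (hfr : ∀ e ∈ Dc, dim e = 1 → ∀ j : J1, FrE L Qd (fam1 j) e)
include h hR hP0 hp hI₀ hI hfr

theorem E1_final (h1 : E1 L s₀ Dc) : E1 L s Dc := by
  intro e he he1 w w' hw hw' hwe hwe' hl
  have hb := bij_final h hR hP0 hp hI₀ hI (hfr e he he1 (s.lab w))
  have a := hb.mapsTo ⟨hw, rfl, hwe⟩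
  have a' := hb.mapsTo ⟨hw', hl.symm, hwe'⟩
  exact hb.injOn ⟨hw, rfl, hwe⟩ ⟨hw', hl.symm, hwe'⟩
    (h1 e he he1 _ _ a.1 a'.1 a.2.2 a'.2.2 (a.2.1.trans a'.2.1.symm))

theorem F1_final (hdn : ∀ q ∈ Dc, ∀ p < q, p ∈ Dc) (h2 : F1 L s₀ Dc) : F1 L s Dc := by
  intro q hq hq2 w₁ w₂ w₃ a₁ a₂ a₃ i₁ i₂ i₃ l₂ l₃
  have hmem : ∀ w : W, w ∈ s.P → w ∈ L.toSk.In q → L.ed w ∈ Dc ∧ dim (L.ed w) = 1 := by
    intro w hw hi
    refine ⟨?_, L.ed_dim w hi.1⟩
    rcases hi.2.eq_or_lt with h' | h'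
    · rw [h']; exact hq
    · exact hdn q hq _ h'
  have key : ∀ w : W, w ∈ s.P → w ∈ L.toSk.In q → s.lab w = s.lab w₁ →
      β w ∈ s₀.P ∧ s₀.lab (β w) = p (s.lab w₁) ∧ β w ∈ L.toSk.In q ∧ L.ed (β w) = L.ed w := by
    intro w hw hi hl
    obtain ⟨m1, m2⟩ := hmem w hw hi
    have hb := bij_final h hR hP0 hp hI₀ hI (hfr _ m1 m2 (s.lab w₁))
    have a := hb.mapsTo ⟨hw, hl, hi.1, rfl⟩
    exact ⟨a.1, a.2.1, ⟨a.2.2.1, by rw [a.2.2.2]; exact hi.2⟩, a.2.2.2⟩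
  have inj : ∀ w w' : W, w ∈ s.P → w' ∈ s.P → w ∈ L.toSk.In q → w' ∈ L.toSk.In q →
      s.lab w = s.lab w₁ → s.lab w' = s.lab w₁ → β w = β w' → w = w' := by
    intro w w' hw hw' hi hi' hl hl' e
    obtain ⟨m1, m2⟩ := hmem w hw hi
    have hb := bij_final h hR hP0 hp hI₀ hI (hfr _ m1 m2 (s.lab w₁))
    have e1 : L.ed w' = L.ed w := by
      rw [← (key w' hw' hi' hl').2.2.2, ← (key w hw hi hl).2.2.2, e]
    exact hb.injOn ⟨hw, hl, hi.1, rfl⟩ ⟨hw', hl', hi'.1, e1⟩ e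
  have k₁ := key w₁ a₁ i₁ rfl
  have k₂ := key w₂ a₂ i₂ l₂.symm
  have k₃ := key w₃ a₃ i₃ l₃.symm
  rcases h2 q hq hq2 _ _ _ k₁.1 k₂.1 k₃.1 k₁.2.2.1 k₂.2.2.1 k₃.2.2.1
    (k₁.2.1.trans k₂.2.1.symm) (k₁.2.1.trans k₃.2.1.symm) with e | e | e
  · exact Or.inl (inj _ _ a₁ a₂ i₁ i₂ rfl l₂.symm e)
  · exact Or.inr (Or.inl (inj _ _ a₁ a₃ i₁ i₃ rfl l₃.symm e))
  · exact Or.inr (Or.inr (inj _ _ a₂ a₃ i₂ i₃ l₂.symm l₃.symm e))

end cps

/-! ### labels `1` outside (far from the hole of the family): 441's `Lf lam = lam + 1` -/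

theorem z_Lf {a : ZMod 2} : a + 1 = 1 ↔ a = 0 := by revert a; decide

theorem glab_Lf (hl : ∀ j, GLab L (gp s j) (lam j)) : ∀ j, GLab L (gp s j) (Lf lam j) := by
  intro j e he
  rw [← hl j e he]
  have e4 : ∀ a b : ZMod 2, (a + 1) + (b + 1) = a + b := by decide
  exact e4 _ _

theorem lbd_Lf {c : C} {v₀ v₁ : Q} (B : Lbd L s c lam v₀ v₁) : Lbd L s c (Lf lam) v₁ v₀ where
  conn := B.conn
  lab := fun j hj e he => by
    rw [← B.lab j hj e he]
    have e4 : ∀ a b : ZMod 2, (a + 1) + (b + 1) = a + b := by decide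
    exact e4 _ _
  one := fun j hj => z_Lf.2 (B.zero j hj)
  zero := fun j hj => by
    show lam j v₀ + 1 = 0
    rw [B.one j hj]; decide
  path := by
    obtain ⟨Z, hZ⟩ := B.path
    exact ⟨Z, path_symm hZ⟩

/-! ### the numbers of the sheets -/

theorem sib_card (hfin : ∀ a, {j | fam j = a}.Finite) (j : J) :
    (sib hfin j).card = mm hfin (fam j) := rfl

theorem ncard_mm (hfin : ∀ a, {j | fam j = a}.Finite) (a : C) :
    {j | fam j = a}.ncard = mm hfin a := by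
  have : {j | fam j = a} = ((sh hfin a : Finset J) : Set J) := by
    ext k
    rw [Finset.mem_coe, mem_sh]
    rfl
  rw [this, Set.ncard_coe_finset]
  rfl

theorem rk_hinj (hb : ∀ j, ∃ v₀ v₁, Lbd L s (fam j) lam v₀ v₁)
    (hfin : ∀ a, {j | fam j = a}.Finite) : ∀ j j', fam j = fam j' →
      rk L s lam hfin j = rk L s lam hfin j' → j = j' := by
  intro j j' hf h
  obtain ⟨v₀, v₁, B⟩ := hb j
  exact B.rk_inj hfin rfl hf.symm h

theorem rk_hlt (hfin : ∀ a, {j | fam j = a}.Finite) (j : J) :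
    rk L s lam hfin j < mm hfin (fam j) := by
  rw [← sib_card]
  exact rk_lt hfin j

theorem rk_hsur (hb : ∀ j, ∃ v₀ v₁, Lbd L s (fam j) lam v₀ v₁)
    (hfin : ∀ a, {j | fam j = a}.Finite) : ∀ a k, k < mm hfin a →
      ∃ j, fam j = a ∧ rk L s lam hfin j = k := by
  classical
  intro a k hk
  have hinj : Set.InjOn (rk L s lam hfin) (sh hfin a) := by
    intro i hi i' hi' h
    have h1 := (mem_sh hfin).1 hi
    have h2 := (mem_sh hfin).1 hi'
    exact rk_hinj hb hfin i i' (h1.trans h2.symm) h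
  have himg : (sh hfin a).image (rk L s lam hfin) = Finset.range (mm hfin a) := by
    apply Finset.eq_of_subset_of_card_le
    · intro k hk
      obtain ⟨i, hi, rfl⟩ := Finset.mem_image.1 hk
      rw [Finset.mem_range, ← (mem_sh hfin).1 hi]
      exact rk_hlt hfin i
    · rw [Finset.card_range, Finset.card_image_of_injOn hinj]
      exact le_rfl
  have h1 : k ∈ (sh hfin a).image (rk L s lam hfin) := by
    rw [himg]; exact Finset.mem_range.2 hk
  obtain ⟨j, hj, e⟩ := Finset.mem_image.1 h1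
  exact ⟨j, (mem_sh hfin).1 hj, e⟩

/-- **every piece of a cell has its number strictly inside the range of the cell** -/
theorem rng_of_exa (hLF : LF L s) (hX : ∀ j c, L.toSk.XL (gP s j) (lam j) c) {Dc : Set Q}
    (h1 : E1 L s Dc) {lv : J → ℕ} {N Lq Hq : Q → C → ℕ}
    (X : Exa (cmb hLF lam hX) Dc fam lv N Lq Hq) :
    ∀ q ∈ Dc, ∀ x : (cmb hLF lam hX).I q,
      Lq q (fam ((cmb hLF lam hX).col q x)) ≤ lv ((cmb hLF lam hX).col q x) ∧
      lv ((cmb hLF lam hX).col q x) < Hq q (fam ((cmb hLF lam hX).col q x)) := by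
  intro q hq x
  obtain ⟨w, hw⟩ : ∃ w, w ∈ pts hLF q (x : Pc L s q) := pts_ne _
  have i1 := pts_in hw
  have hcol : (cmb hLF lam hX).col q x = s.lab w := pcol_pts hw
  rw [hcol]
  set j := s.lab w with hj
  have he : dim (L.ed w) = 1 := L.ed_dim w i1.2.1
  have heq : L.ed w ≤ q := i1.2.2
  have heD : L.ed w ∈ Dc := X.mem_of_le hq heq
  have hn : nW (gP s j) (L.toSk.On1 (L.ed w)) = 1 := by
    refine nW_one (p := w) (mem_gP.2 ⟨i1.1, rfl⟩) ⟨i1.2.1, rfl⟩ fun w' hw' hwe' => ?_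
    obtain ⟨a1, a2⟩ := mem_gP.1 hw'
    exact h1 _ heD he w' w a1 i1.1 hwe' ⟨i1.2.1, rfl⟩ (a2.trans hj)
  have h2 := hX j (L.ed w) (L.ed w) le_rfl he
  rw [hn] at h2
  have key : ∀ b : Bool, lam j (L.en (L.ed w) b) = 1 ↔
      lv j < N (L.en (L.ed w) b) (fam j) := by
    intro b
    have hle : L.en (L.ed w) b ≤ q := (L.en_lt _ he b).le.trans heq
    have h0 := L.en_dim _ he b
    have h3 := X.V _ (X.mem_of_le hq hle) h0 j
    have e : (cmb hLF lam hX).Lab j (L.en (L.ed w) b) = lam j (L.en (L.ed w) b) := by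
      show lam j (bv L.toSk _) = _
      rw [bv_vertex _ h0]
    rw [← h3, e]
  have hbd : ∀ b : Bool, Lq q (fam j) ≤ N (L.en (L.ed w) b) (fam j) ∧
      N (L.en (L.ed w) b) (fam j) ≤ Hq q (fam j) := fun b =>
    X.bd q hq _ ((L.en_lt _ he b).le.trans heq) (L.en_dim _ he b) (fam j)
  have e4 : ∀ a b : ZMod 2, a + b = 1 → (a = 1 ∧ b ≠ 1) ∨ (a ≠ 1 ∧ b = 1) := by decide
  rcases e4 _ _ h2 with ⟨g1, g2⟩ | ⟨g1, g2⟩
  · rw [key] at g1
    rw [Ne, key] at g2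
    have := hbd false
    have := hbd true
    omega
  · rw [Ne, key] at g1
    rw [key] at g2
    have := hbd false
    have := hbd true
    omega

section fin

variable {O : Ori M} {Qd : Quads ι C K} {Rel : W → W → Prop} {s₀ : GSt M fam}
  {far₀ : J → Set W} {σ₀ : W → ZMod 2} {p : J1 → J} {m : J1 → ℕ} {s : GSt M fam1}
  {far : J1 → Set W} {β : W → W} {Z : C → Set Q} {lam₀ : J → Q → ZMod 2} {v₀ v₁ : C → Q}
  {lam : J1 → Q → ZMod 2}

/-- the number of a sheet: number of the sheets of its family which are nearer to the hole -/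
noncomputable def nr (L : LM M Q dim) (s : GSt M fam1) (lam : J1 → Q → ZMod 2)
    (hfin : ∀ a, {j | fam1 j = a}.Finite) (j : J1) : ℕ := rk L s (Lf lam) hfin j

theorem lbd_out (D : LabOut L Qd s Z p lam₀ v₀ v₁ lam) (j : J1) :
    ∃ v₀ v₁, Lbd L s (fam1 j) (Lf lam) v₀ v₁ := ⟨_, _, lbd_Lf (D.lbd j)⟩

theorem nr_hinj (D : LabOut L Qd s Z p lam₀ v₀ v₁ lam) (hfin : ∀ a, {j | fam1 j = a}.Finite) :
    ∀ j j', fam1 j = fam1 j' → nr L s lam hfin j = nr L s lam hfin j' → j = j' :=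
  rk_hinj (lbd_out D) hfin

theorem nr_hlt (hfin : ∀ a, {j | fam1 j = a}.Finite) (j : J1) :
    nr L s lam hfin j < mm hfin (fam1 j) := rk_hlt hfin j

theorem nr_hsur (D : LabOut L Qd s Z p lam₀ v₀ v₁ lam) (hfin : ∀ a, {j | fam1 j = a}.Finite) :
    ∀ a k, k < mm hfin a → ∃ j, fam1 j = a ∧ nr L s lam hfin j = k :=
  rk_hsur (lbd_out D) hfin

/-- order of the final sheets -/
theorem ordN_final (D : LabOut L Qd s Z p lam₀ v₀ v₁ lam) (hLF : LF L s)
    (hfin : ∀ a, {j | fam1 j = a}.Finite) :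
    OrdN (cmb hLF (Lf lam) (xlf D.lab)) (nr L s lam hfin) :=
  ordN_lbd hLF (glab_Lf D.lab) D.on D.conn (lbd_out D) hfin

/-- **exact cells of the final state** (labels `1` outside).  Inputs on the initial state: `E1`, `F1`
and `hV` (a vertex of `Dc` lies outside the sheet `j` iff its height is at least `τ j`). -/
theorem exa_final (h : Cps O Qd Rel s₀ far₀ σ₀ p m s far β)
    (hR : ∀ x w, Rel x w → w ∈ L.W1 → x ∈ L.W1 ∧ L.ed x = L.ed w)
    (hP0 : ∀ w ∈ s₀.P, w ∈ L.W1) (hp : ∀ j, fam (p j) = fam1 j) (hI₀ : s₀.Inv Qd far₀)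
    (hI : s.Inv Qd far) (D : LabOut L Qd s Z p lam₀ v₀ v₁ lam) (hLF : LF L s) {Dc : Set Q}
    (hdn : ∀ q ∈ Dc, ∀ p < q, p ∈ Dc) (hd : ∀ q ∈ Dc, dim q ≤ 2)
    (hcf : ∀ q ∈ Dc, dim q = 2 → ∃ F, L.cf F = q)
    (hfr : ∀ e ∈ Dc, dim e = 1 → ∀ j : J1, FrE L Qd (fam1 j) e)
    (hpath : ∀ v ∈ Dc, dim v = 0 → ∀ j : J1,
      ReflTransGen (Ed L {e | FrE L Qd (fam1 j) e}) (v₀ (fam1 j)) v ∨
        (v ∈ Z (fam1 j) ∧ ∀ j' : J1, fam1 j' = fam1 j → lam₀ (p j') v = 0))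
    (h1 : E1 L s₀ Dc) (h2 : F1 L s₀ Dc) (hfin : ∀ a, {j | fam1 j = a}.Finite)
    (τ : J → ℝ) (u lo hi : Q → C → ℕ)
    (hV : ∀ v ∈ Dc, dim v = 0 → ∀ j, lam₀ j v = 0 ↔ τ j ≤ u v (fam j))
    (hbd : ∀ q ∈ Dc, ∀ v ≤ q, dim v = 0 → ∀ a, lo q a ≤ u v a ∧ u v a ≤ hi q a)
    (hlo : ∀ q ∈ Dc, ∀ a, ∃ v ≤ q, dim v = 0 ∧ u v a = lo q a)
    (hhi : ∀ q ∈ Dc, ∀ a, ∃ v ≤ q, dim v = 0 ∧ u v a = hi q a) :
    Exa (cmb hLF (Lf lam) (xlf D.lab)) Dc fam1 (nr L s lam hfin)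
      (fun v a => cnt fam1 (fun j => τ (p j)) a (u v a))
      (fun q a => cnt fam1 (fun j => τ (p j)) a (lo q a))
      (fun q a => cnt fam1 (fun j => τ (p j)) a (hi q a)) := by
  refine exa_state hLF (glab_Lf D.lab) hdn hd hcf
    (E1_final h hR hP0 hp hI₀ hI hfr h1) (F1_final h hR hP0 hp hI₀ hI hfr hdn h2) hfin
    (fun j => ⟨v₁ (fam1 j), v₀ (fam1 j), lbd_Lf (D.lbd j), fun v hv hv0 => ?_⟩)
    (fun j => τ (p j)) u lo hi ?_ hbd hlo hhi
  · rcases hpath v hv hv0 j with h5 | ⟨h5, -⟩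
    · exact Or.inl ⟨_, path_symm h5⟩
    · refine Or.inr fun j' hj' => ?_
      show lam j' v + 1 = 1
      rw [z_Lf]
      exact D.far j' v (by rw [hj']; exact h5)
  · intro v hv hv0 j
    show lam j v + 1 = 1 ↔ _
    have h6 : lam j v = lam₀ (p j) v := by
      rcases hpath v hv hv0 j with h5 | ⟨h5, h7⟩
      · exact D.frz j v h5
      · rw [D.far j v h5, h7 j rfl]
    rw [z_Lf, h6, hV v hv hv0 (p j), hp]

end fin

end Crest.Agent.R096.Ecm_446
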