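import Crest.Agent.R096.Mou3_324
import Crest.Agent.R096.Pmc6_112
import Crest.Agent.R096.Ea0_961

/-!
# Row 96 (S0127), helper746.  EA-D, part 3 (**outer class**): the energy of `D'` off the shrunk blocks
`Nm M` (324), for `EaX_766.EA` (cores) and for `Ea0_961.EA0` (blocks and layers).
-/

set_option autoImplicit false
set_option linter.style.longLine false

open MeasureTheory Set Filter Metric
open scoped Topology ENNReal

namespace Crest.Agent.R096.Eds_746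

open Crest.Agent.R096.Msh_715 Crest.Agent.R096.Cut_874 Crest.Agent.R096.Msh_810
  Crest.Agent.R096.Mal_874
open Crest.Agent.R096.Bsp_628 Crest.Agent.R096.Brk5_582
open Crest.Agent.R096.SkC1_961 (E3)
open Crest.Agent.R096.Bxs_627 (ctr)
open Crest.Agent.R96.Push_899 Crest.Agent.R96.EaP_899
open Crest.Agent.R096.Mou_324 (Nm isOpen_Nm)
open Crest.Agent.R096.EaX_766 (cbx lin Kor)
open Crest.Agent.R096.Ea0_961 (Ly)
open Crest.Agent.R96.En10_199 (P3)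

noncomputable section

/-- a segment from a point of a closed set to a point off it meets the frontier -/
theorem exists_frontier_seg {E : Type*} [NormedAddCommGroup E] [NormedSpace ℝ E] {N : Set E}
    (hN : IsClosed N) {x y : E} (hx : x ∈ N) (hy : y ∉ N) :
    ∃ t ∈ Icc (0:ℝ) 1, x + t • (y - x) ∈ frontier N := by
  by_contra hcon
  push Not at hcon
  have hc : IsPreconnected ((fun t : ℝ => x + t • (y - x)) '' Icc (0:ℝ) 1) :=
    (isPreconnected_Icc).image _ (by fun_prop)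
  have h1 := hc (interior N) Nᶜ isOpen_interior hN.isOpen_compl (by
    rintro _ ⟨t, ht, rfl⟩
    by_cases h : x + t • (y - x) ∈ N
    · left
      by_contra h2
      exact hcon t ht ⟨subset_closure h, h2⟩
    · exact Or.inr h)
    ⟨x, ⟨0, by simp, by simp⟩, by
      by_contra h2
      exact hcon 0 (by simp) (by simpa using ⟨subset_closure hx, h2⟩)⟩
    ⟨y, ⟨1, by simp, by simp⟩, hy⟩
  obtain ⟨z, -, h2, h3⟩ := h1
  exact h3 (interior_subset h2)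

section md

variable {J : Type} (M : MD E3 3 J)

/-- points which stay in the block under all shifts of twice the room -/
theorem mem_Nm_of {j : J} {x : E3} (h : ∀ s, ‖M.φ s‖ ≤ 2 * M.r j → x - s ∈ (M.Q j).N) :
    x ∈ Nm M := by
  refine mem_iUnion.2 ⟨j, ?_⟩
  rw [mem_interior_iff_mem_nhds]
  have h1 : ∀ᶠ x' in 𝓝 x, ‖M.φ (x - x')‖ < M.r j := by
    have hc : Continuous fun x' => ‖M.φ (x - x')‖ := by fun_prop
    have h0 : ‖M.φ (x - x)‖ < M.r j := by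
      rw [sub_self, map_zero, norm_zero]
      exact M.r_pos j
    exact hc.continuousAt.eventually_lt continuousAt_const h0
  filter_upwards [h1] with x' hx' s hs
  have e1 : x' - s = x - (s + (x - x')) := by abel
  rw [e1]
  apply h
  rw [map_add]
  exact (norm_add_le _ _).trans (by linarith)

theorem mem_N_of_Nm {x : E3} (hx : x ∈ Nm M) : ∃ j, x ∈ (M.Q j).N := by
  obtain ⟨j, hj⟩ := mem_iUnion.1 hx
  refine ⟨j, ?_⟩
  have h1 := interior_subset hj 0 (by rw [map_zero, norm_zero]; exact (M.r_pos j).le)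
  simpa using h1

/-- **the points of a block off `Nm` are near the wall** -/
theorem near_wall {j : J} {x : E3} (hx : x ∈ (M.Q j).N) (hn : x ∉ Nm M) {b b' : ℝ} (hbb : b < b')
    (hr : ∀ s, ‖M.φ s‖ ≤ M.r j → ‖(M.Q j).ψ s‖ ≤ b) :
    ∃ z ∈ frontier (M.Q j).N, ‖(M.Q j).ψ x - (M.Q j).ψ z‖ ≤ b' := by
  by_contra hcon
  push Not at hcon
  apply hn
  refine mem_iUnion.2 ⟨j, ?_⟩
  rw [mem_interior_iff_mem_nhds]
  have h1 : ∀ᶠ x' in 𝓝 x, ‖(M.Q j).ψ (x' - x)‖ < b' - b := by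
    have hc : Continuous fun x' => ‖(M.Q j).ψ (x' - x)‖ := by fun_prop
    have h0 : ‖(M.Q j).ψ (x - x)‖ < b' - b := by
      rw [sub_self, map_zero, norm_zero]
      linarith
    exact hc.continuousAt.eventually_lt continuousAt_const h0
  filter_upwards [h1] with x' hx' s hs
  by_contra hns
  obtain ⟨t, ht, hz⟩ := exists_frontier_seg (M.Q j).isCompact_N.isClosed hx hns
  refine absurd ?_ (not_le.2 (hcon _ hz))
  have e1 : (M.Q j).ψ x - (M.Q j).ψ (x + t • (x' - s - x)) =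
      -(t • ((M.Q j).ψ (x' - x) - (M.Q j).ψ s)) := by
    rw [← map_sub, ← map_sub, ← map_smul, ← map_neg]
    congr 1
    module
  rw [e1, norm_neg, norm_smul, Real.norm_of_nonneg ht.1]
  have h2 : ‖(M.Q j).ψ (x' - x) - (M.Q j).ψ s‖ ≤ b' := by
    refine (norm_sub_le _ _).trans ?_
    have := hr s hs
    linarith
  calc t * ‖(M.Q j).ψ (x' - x) - (M.Q j).ψ s‖ ≤ 1 * b' :=
        mul_le_mul ht.2 h2 (norm_nonneg _) zero_le_one
    _ = b' := one_mul _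

end md

section foam

variable {δ κ0 : ℝ} {La Om : Set E3} {F : Set (Bx (Fin 3))}

/-- points near the affine image in the box of ratio `1 + 2 κ2` are mapped into the open brick -/
theorem mem_brk_of_near (bf : BoxFoam La F δ κ0) {c : F} {f : E3 → E3} {A : E3 ≃ᵃ[ℝ] E3}
    {lam κ1 κ2 : ℝ} (hlam : 0 < lam) (hκ1 : 0 ≤ κ1) (hlt : (1 / 2 + κ2) * lam + κ1 * κ0 * lam < 1 / 2)
    {x : E3} (hx : A x ∈ cbx c.1 ((1 + 2 * κ2) * lam)) (hfx : ‖f x - A x‖ ≤ κ1 * (lam * c.1.sz)) :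
    f x ∈ (brk' bf c).I := by
  intro k
  have h1 := hx k
  have h2 : |f x k - A x k| ≤ κ1 * (lam * c.1.sz) := by
    have h3 := norm_le_pi_norm (f x - A x) k
    rw [Pi.sub_apply, Real.norm_eq_abs] at h3
    exact h3.trans hfx
  have h3 := bf.asp _ c.2 k
  have h4 := Bx.side_pos (bf.pos _ c.2) k
  have h5 : κ1 * (lam * c.1.sz) ≤ κ1 * (lam * (κ0 * c.1.side k)) := by gcongr
  have h6 : |f x k - ctr c.1 k| < c.1.side k / 2 := by
    have h7 : |f x k - ctr c.1 k| ≤ |f x k - A x k| + |A x k - ctr c.1 k| := by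
      have := abs_sub_le (f x k) (A x k) (ctr c.1 k)
      exact this
    have h8 : (1 + 2 * κ2) * lam * c.1.side k / 2 + κ1 * (lam * (κ0 * c.1.side k)) =
        ((1 / 2 + κ2) * lam + κ1 * κ0 * lam) * c.1.side k := by ring
    have h9 : ((1 / 2 + κ2) * lam + κ1 * κ0 * lam) * c.1.side k < 1 / 2 * c.1.side k :=
      mul_lt_mul_of_pos_right hlt h4
    linarith
  have h10 := abs_lt.1 h6
  have e1 : ctr c.1 k = (c.1.lo k + c.1.hi k) / 2 := rfl
  have e2 : c.1.side k = c.1.hi k - c.1.lo k := rfl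
  rw [e1, e2] at h10
  show c.1.lo k < f x k ∧ f x k < c.1.hi k
  constructor <;> linarith [h10.1, h10.2]

variable {X : Set F} (M : MD E3 3 X)

/-- **OUTER, general**: off `Nm` the energy of `D'` is controlled by the energy of `D` -/
theorem outer_sat (bf : BoxFoam La F δ κ0) {f : E3 → E3} {D D' : E3 → E3 →L[ℝ] E3} {p : ℝ} {K : ℝ≥0∞}
    (hO : IsOpen Om)
    (hS : ∀ S ⊆ Om, MeasurableSet S →
      (∀ c, c ∉ X → (∀ x ∈ Om, f x ∈ (brk' bf c).I → x ∈ S) ∨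
        (∀ x ∈ Om, f x ∈ (brk' bf c).I → x ∉ S)) →
      (∫⁻ x in S, ‖D' x‖ₑ ^ p) ≤ K * (∫⁻ x in S, ‖D x‖ₑ ^ p))
    (hroom : ∀ j : X, ∀ x ∈ (M.Q j).N, f x ∈ (brk' bf j.1).I) :
    (∫⁻ x in Om \ Nm M, ‖D' x‖ₑ ^ p) ≤ K * (∫⁻ x in Om \ Nm M, ‖D x‖ₑ ^ p) := by
  refine hS _ sdiff_subset (hO.measurableSet.diff (isOpen_Nm M).measurableSet) fun c hc => ?_
  left
  intro x hx hfx
  refine ⟨hx, fun hn => ?_⟩
  obtain ⟨j, hj⟩ := mem_N_of_Nm M hn
  have h1 := hroom j x hj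
  have hne : (c : F) ≠ j.1 := fun h => hc (by rw [h]; exact j.2)
  refine (foam0' bf).disj c j.1 hne (f x) ?_ h1
  intro k
  exact ⟨(hfx k).1.le, (hfx k).2.le⟩

/-- **OUTER for `EaX_766.EA`**: the cores lie in `Nm` -/
theorem outer_X {D : E3 → E3 →L[ℝ] E3} {p : ℝ} {A : F → E3 ≃ᵃ[ℝ] E3} {lam : F → ℝ}
    (hK : ∀ j : X, ∀ x ∈ Kor F A lam j.1, ∀ s, ‖M.φ s‖ ≤ 2 * M.r j → x - s ∈ (M.Q j).N) :
    (∫⁻ x in Om \ Nm M, ‖D x‖ₑ ^ p) ≤ ∫⁻ x in Om \ ⋃ c ∈ X, Kor F A lam c, (1 + ‖D x‖ₑ ^ p) := by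
  refine (lintegral_mono_set ?_).trans (lintegral_mono fun x => le_add_self)
  rintro x ⟨hx, hn⟩
  refine ⟨hx, fun h => hn ?_⟩
  obtain ⟨c, hc, hxc⟩ := mem_iUnion₂.1 h
  exact mem_Nm_of M (j := ⟨c, hc⟩) fun s hs => hK ⟨c, hc⟩ x hxc s hs

/-- **OUTER for `Ea0_961.EA0`**: blocks and layers -/
theorem outer_0 (hF : F.Countable) {D : E3 → E3 →L[ℝ] E3} {p : ℝ} {Q : F → CB E3 3} {k0 : F → ℕ}
    (hQ : ∀ j : X, M.Q j = Q j.1)
    (hr : ∀ j : X, ∀ s, ‖M.φ s‖ ≤ M.r j → ‖(Q j.1).ψ s‖ ≤ 19 / 2 ^ (k0 j.1)) :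
    (∫⁻ x in Om \ Nm M, ‖D x‖ₑ ^ p) ≤ (∫⁻ x in Om \ ⋃ c ∈ X, (Q c).N, (1 + ‖D x‖ₑ ^ p)) +
      ∑' c : X, ∫⁻ x in Ly (Q c) (k0 c), (1 + ‖D x‖ₑ ^ p) := by
  have : Countable F := hF.to_subtype
  have hsub : Om \ Nm M ⊆ (Om \ ⋃ c ∈ X, (Q c).N) ∪ ⋃ c : X, Ly (Q c) (k0 c) := by
    rintro x ⟨hx, hn⟩
    by_cases h : x ∈ ⋃ c ∈ X, (Q c).N
    · right
      obtain ⟨c, hc, hxc⟩ := mem_iUnion₂.1 h
      refine mem_iUnion.2 ⟨⟨c, hc⟩, ?_⟩
      have h1 : x ∈ (M.Q ⟨c, hc⟩).N := by rw [hQ]; exact hxc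
      obtain ⟨z, hz, hzx⟩ := near_wall M h1 hn (b := 19 / 2 ^ (k0 c)) (b' := 20 / 2 ^ (k0 c))
        (by
          apply div_lt_div_of_pos_right _ (by positivity)
          norm_num) (fun s hs => by
          have := hr ⟨c, hc⟩ s hs
          rw [hQ]; exact this)
      rw [hQ] at hz hzx
      exact ⟨z, hz, hzx⟩
    · exact Or.inl ⟨hx, h⟩
  calc (∫⁻ x in Om \ Nm M, ‖D x‖ₑ ^ p) ≤ ∫⁻ x in Om \ Nm M, (1 + ‖D x‖ₑ ^ p) :=
        lintegral_mono fun x => le_add_self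
    _ ≤ ∫⁻ x in (Om \ ⋃ c ∈ X, (Q c).N) ∪ ⋃ c : X, Ly (Q c) (k0 c), (1 + ‖D x‖ₑ ^ p) :=
        lintegral_mono_set hsub
    _ ≤ (∫⁻ x in Om \ ⋃ c ∈ X, (Q c).N, (1 + ‖D x‖ₑ ^ p)) +
        ∫⁻ x in ⋃ c : X, Ly (Q c) (k0 c), (1 + ‖D x‖ₑ ^ p) := lintegral_union_le _ _ _
    _ ≤ _ := by
        gcongr
        exact lintegral_iUnion_le _ _

/-- **the mean of the outer class**: from the mean inequality `≤ Cq * I * vol A` a number `m ≠ 0` with
`mean ≤ m vol A` and `c * (lam * m) ≤ c * lam * Cq * I + ε` -/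
theorem exists_mow {I Cq c lam ε : ℝ≥0∞} (hε : ε ≠ 0) (hc : c ≠ ∞) (hl : lam ≠ ∞) :
    ∃ m : ℝ≥0∞, m ≠ 0 ∧ Cq * I ≤ m ∧ c * (lam * m) ≤ c * lam * Cq * I + ε := by
  have h1 : c * lam + 1 ≠ ∞ :=
    ENNReal.add_ne_top.2 ⟨ENNReal.mul_ne_top hc hl, ENNReal.one_ne_top⟩
  have h2 : c * lam + 1 ≠ 0 := by simp
  have h3 : ε / (c * lam + 1) ≠ 0 := by
    rw [Ne, ENNReal.div_eq_zero_iff, not_or]
    exact ⟨hε, h1⟩
  refine ⟨Cq * I + ε / (c * lam + 1), ?_, le_self_add, ?_⟩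
  · intro h
    exact h3 (add_eq_zero.1 h).2
  · calc c * (lam * (Cq * I + ε / (c * lam + 1)))
        = c * lam * Cq * I + c * lam * (ε / (c * lam + 1)) := by ring
      _ ≤ c * lam * Cq * I + (c * lam + 1) * (ε / (c * lam + 1)) := by
          gcongr
          exact le_self_add
      _ ≤ c * lam * Cq * I + ε := by
          gcongr
          exact ENNReal.mul_div_le

end foam

end

end Crest.Agent.R096.Eds_746
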