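import Crest.Agent.R096.Ce1_537
import Crest.Agent.R096.Str1_696

/-!
Row 96 (S0127), helper57, leaf HR2 of 663 #9825: **locally finite products** of (PL) homeomorphisms
`χ c` supported in pairwise disjoint balls `ball (a c) (r c) ⊆ Om`, locally finite in `Om`:
`prodX χ`, homeomorphism of `Om`, `LocPL` of `g ∘ prodX χ`, splitting of energy integrals.
-/

set_option autoImplicit false
set_option linter.style.longLine false
set_option linter.unusedSectionVars false

open MeasureTheory Set Filter Topology Metric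
open scoped ENNReal

namespace Crest.Agent.R096.Eh_57

open Crest.Agent.R096.Ce_537 Crest.Agent.R096.Str_696

section Prod

variable {E : Type*} [NormedAddCommGroup E] [NormedSpace ℝ E] {κ : Type*}

/-- the product of the homeomorphisms `χ c` (disjoint supports) -/
noncomputable def prodX (χ : κ → E ≃ₜ E) (x : E) : E := x + ∑ᶠ c, (χ c x - x)

/-- the supports: `χ c` is the identity off the ball, balls pairwise disjoint -/
structure Sup (a : κ → E) (r : κ → ℝ) (χ : κ → E ≃ₜ E) : Prop where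
  id_ : ∀ c x, x ∉ ball (a c) (r c) → χ c x = x
  dis : ∀ c c', c ≠ c' → Disjoint (ball (a c) (r c)) (ball (a c') (r c'))

/-- local finiteness in `Om` -/
def LF (a : κ → E) (r : κ → ℝ) (Om : Set E) : Prop :=
  ∀ x ∈ Om, ∃ V ∈ 𝓝 x, {c | (ball (a c) (r c) ∩ V).Nonempty}.Finite

variable {a : κ → E} {r : κ → ℝ} {χ : κ → E ≃ₜ E} {Om : Set E}

namespace Sup

lemma maps (h : Sup a r χ) {c : κ} {x : E} (hx : x ∈ ball (a c) (r c)) :
    χ c x ∈ ball (a c) (r c) := by
  by_contra h1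
  have h2 := h.id_ c _ h1
  have h3 := (χ c).injective h2
  rw [h3] at h1
  exact h1 hx

lemma symm_id (h : Sup a r χ) {c : κ} {x : E} (hx : x ∉ ball (a c) (r c)) :
    (χ c).symm x = x := by
  rw [Homeomorph.symm_apply_eq]
  exact (h.id_ c x hx).symm

lemma symm (h : Sup a r χ) : Sup a r (fun c => (χ c).symm) :=
  ⟨fun _ _ hx => h.symm_id hx, h.dis⟩

lemma eq_in (h : Sup a r χ) {c : κ} {x : E} (hx : x ∈ ball (a c) (r c)) :
    prodX χ x = χ c x := by
  unfold prodX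
  rw [finsum_eq_single _ c]
  · abel
  · intro c' hc'
    rw [h.id_ c' x (fun h1 => (Set.disjoint_left.1 (h.dis c' c hc') h1) hx), sub_self]

lemma eq_out (h : Sup a r χ) {x : E} (hx : ∀ c, x ∉ ball (a c) (r c)) :
    prodX χ x = x := by
  unfold prodX
  rw [finsum_eq_zero_of_forall_eq_zero, add_zero]
  intro c
  rw [h.id_ c x (hx c), sub_self]

lemma left_inv (h : Sup a r χ) (x : E) : prodX (fun c => (χ c).symm) (prodX χ x) = x := by
  by_cases hx : ∃ c, x ∈ ball (a c) (r c)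
  · obtain ⟨c, hc⟩ := hx
    rw [h.eq_in hc, h.symm.eq_in (h.maps hc), Homeomorph.symm_apply_apply]
  · push Not at hx
    rw [h.eq_out hx, h.symm.eq_out hx]

lemma right_inv (h : Sup a r χ) (x : E) : prodX χ (prodX (fun c => (χ c).symm) x) = x :=
  h.symm.left_inv x

lemma prod_mem_ball (h : Sup a r χ) {c : κ} {x : E} (hx : x ∈ ball (a c) (r c)) :
    prodX χ x ∈ ball (a c) (r c) := by
  rw [h.eq_in hx]; exact h.maps hx

/-- the product maps `Om` to itself -/
lemma mapsTo (h : Sup a r χ) (hs : ∀ c, ball (a c) (r c) ⊆ Om) : MapsTo (prodX χ) Om Om := by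
  intro x hx
  by_cases hx' : ∃ c, x ∈ ball (a c) (r c)
  · obtain ⟨c, hc⟩ := hx'
    exact hs c (h.prod_mem_ball hc)
  · push Not at hx'
    rwa [h.eq_out hx']

/-- finitely many factors near a point of `Om` -/
lemma eq_sum (h : Sup a r χ) {V : Set E} {S : Finset κ}
    (hS : ∀ c, (ball (a c) (r c) ∩ V).Nonempty → c ∈ S) {y : E} (hy : y ∈ V) :
    prodX χ y = y + ∑ c ∈ S, (χ c y - y) := by
  unfold prodX
  rw [finsum_eq_sum_of_support_subset]
  intro c hc
  by_contra hc'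
  apply hc
  have : y ∉ ball (a c) (r c) := fun h1 => hc' (hS c ⟨y, h1, hy⟩)
  simp only [h.id_ c y this, sub_self]

lemma continuousAt (h : Sup a r χ) (hl : LF a r Om) {x : E} (hx : x ∈ Om) :
    ContinuousAt (prodX χ) x := by
  obtain ⟨V, hV, hf⟩ := hl x hx
  have h1 : prodX χ =ᶠ[𝓝 x] fun y => y + ∑ c ∈ hf.toFinset, (χ c y - y) := by
    filter_upwards [hV] with y hy
    exact h.eq_sum (fun c hc => by simpa using hc) hy
  refine ContinuousAt.congr ?_ h1.symm
  have : Continuous fun y => y + ∑ c ∈ hf.toFinset, (χ c y - y) :=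
    continuous_id.add (continuous_finsetSum _ fun c _ => (χ c).continuous.sub continuous_id)
  exact this.continuousAt

lemma continuousOn (h : Sup a r χ) (hl : LF a r Om) : ContinuousOn (prodX χ) Om :=
  fun _ hx => (h.continuousAt hl hx).continuousWithinAt

/-- distance moved -/
lemma dist_le (h : Sup a r χ) {c : κ} {x : E} (hx : x ∈ ball (a c) (r c)) :
    ‖prodX χ x - x‖ ≤ 2 * r c := by
  have h1 := h.prod_mem_ball hx
  have h2 : dist (prodX χ x) x ≤ dist (prodX χ x) (a c) + dist x (a c) := dist_triangle_right _ _ _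
  rw [← dist_eq_norm]
  rw [mem_ball] at h1 hx
  linarith

end Sup

/-- `prodX` takes near every point of `Om` finitely many affine values -/
lemma locPL_prod (h : Sup a r χ) (hl : LF a r Om) (hO : IsOpen Om)
    (hpl : ∀ c, PLOn (χ c) univ) : LocPL (prodX χ) Om := by
  classical
  intro x hx
  obtain ⟨V, hV, hf⟩ := hl x hx
  obtain ⟨ρ, hρ, hρV⟩ := Metric.mem_nhds_iff.1 (Filter.inter_mem hV (hO.mem_nhds hx))
  choose S hS using fun c => (hpl c).2
  refine ⟨ρ, hρ, insert (AffineMap.id ℝ E) (hf.toFinset.biUnion S), ?_, ?_⟩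
  · exact (h.continuousOn hl).mono (fun y hy => (hρV hy).2)
  · intro y hy
    by_cases hy' : ∃ c, y ∈ ball (a c) (r c)
    · obtain ⟨c, hc⟩ := hy'
      obtain ⟨g, hg, e⟩ := hS c y (mem_univ _)
      refine ⟨g, ?_, ?_⟩
      · refine Finset.mem_insert_of_mem (Finset.mem_biUnion.2 ⟨c, ?_, hg⟩)
        rw [Set.Finite.mem_toFinset]
        exact ⟨y, hc, (hρV hy).1⟩
      · rw [h.eq_in hc, e]
    · push Not at hy'
      exact ⟨AffineMap.id ℝ E, Finset.mem_insert_self _ _, by rw [h.eq_out hy']; simp⟩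

/-- composition of locally PL maps -/
lemma locPL_comp {F G : Type*} [NormedAddCommGroup F] [NormedSpace ℝ F] [NormedAddCommGroup G]
    [NormedSpace ℝ G] {φ : E → F} {g : F → G} {U : Set E} {W : Set F}
    (hφ : LocPL φ U) (hg : LocPL g W) (hm : MapsTo φ U W) : LocPL (fun x => g (φ x)) U := by
  classical
  intro x hx
  obtain ⟨r₁, hr₁, S₁, c₁, s₁⟩ := hφ x hx
  obtain ⟨r₂, hr₂, S₂, c₂, s₂⟩ := hg (φ x) (hm hx)
  have hc : ContinuousAt φ x := (c₁ x (mem_ball_self hr₁)).continuousAt (ball_mem_nhds x hr₁)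
  have h1 : φ ⁻¹' ball (φ x) r₂ ∈ 𝓝 x := hc (ball_mem_nhds _ hr₂)
  obtain ⟨ρ, hρ, hρV⟩ := Metric.mem_nhds_iff.1 (Filter.inter_mem h1 (ball_mem_nhds x hr₁))
  refine ⟨ρ, hρ, Finset.image₂ (fun g₂ g₁ => AffineMap.comp g₂ g₁) S₂ S₁, ?_, ?_⟩
  · exact c₂.comp (c₁.mono fun y hy => (hρV hy).2) (fun y hy => (hρV hy).1)
  · intro y hy
    obtain ⟨g₁, hg₁, e₁⟩ := s₁ y (hρV hy).2
    obtain ⟨g₂, hg₂, e₂⟩ := s₂ (φ y) (hρV hy).1
    refine ⟨g₂.comp g₁, Finset.mem_image₂.2 ⟨g₂, hg₂, g₁, hg₁, rfl⟩, ?_⟩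
    rw [AffineMap.comp_apply, ← e₁, ← e₂]

/-- **`LocPL` of the composition with the product** -/
theorem locPL_comp_prod {G : Type*} [NormedAddCommGroup G] [NormedSpace ℝ G]
    (h : Sup a r χ) (hl : LF a r Om) (hO : IsOpen Om) (hs : ∀ c, ball (a c) (r c) ⊆ Om)
    (hpl : ∀ c, PLOn (χ c) univ) {g : E → G} (hg : LocPL g Om) :
    LocPL (fun x => g (prodX χ x)) Om :=
  locPL_comp (locPL_prod h hl hO hpl) hg (h.mapsTo hs)

/-- **homeomorphism**: if `g` is a homeomorphism of `Om` onto `La` so is `g ∘ prodX χ`. -/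
theorem homeo_comp_prod {G : Type*} [TopologicalSpace G] {La : Set G}
    (h : Sup a r χ) (hl : LF a r Om) (hs : ∀ c, ball (a c) (r c) ⊆ Om) {g : E → G}
    (hg : ∃ gi : G → E, MapsTo g Om La ∧ MapsTo gi La Om ∧ (∀ x ∈ Om, gi (g x) = x) ∧
      (∀ y ∈ La, g (gi y) = y) ∧ ContinuousOn g Om ∧ ContinuousOn gi La) :
    ∃ gi : G → E, MapsTo (fun x => g (prodX χ x)) Om La ∧ MapsTo gi La Om ∧
      (∀ x ∈ Om, gi (g (prodX χ x)) = x) ∧ (∀ y ∈ La, g (prodX χ (gi y)) = y) ∧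
      ContinuousOn (fun x => g (prodX χ x)) Om ∧ ContinuousOn gi La := by
  obtain ⟨gi, m1, m2, l1, l2, c1, c2⟩ := hg
  refine ⟨fun y => prodX (fun c => (χ c).symm) (gi y), ?_, ?_, ?_, ?_, ?_, ?_⟩
  · exact m1.comp (h.mapsTo hs)
  · exact (h.symm.mapsTo hs).comp m2
  · intro x hx
    show prodX (fun c => (χ c).symm) (gi (g (prodX χ x))) = x
    rw [l1 _ (h.mapsTo hs hx), h.left_inv]
  · intro y hy
    show g (prodX χ (prodX (fun c => (χ c).symm) (gi y))) = y
    rw [h.right_inv, l2 y hy]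
  · exact c1.comp (h.continuousOn hl) (h.mapsTo hs)
  · exact (h.symm.continuousOn hl).comp c2 m2

/-- near a point of the ball `c` the product is `χ c` -/
lemma eventuallyEq_in (h : Sup a r χ) {c : κ} {x : E} (hx : x ∈ ball (a c) (r c)) :
    prodX χ =ᶠ[𝓝 x] χ c := by
  filter_upwards [isOpen_ball.mem_nhds hx] with y hy
  exact h.eq_in hy

/-- near a point of `Om` off the closed balls the product is the identity -/
lemma eventuallyEq_out (h : Sup a r χ) (hl : LF a r Om) {x : E}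
    (hx : x ∈ Om) (hx' : ∀ c, x ∉ closedBall (a c) (r c)) : prodX χ =ᶠ[𝓝 x] id := by
  obtain ⟨V, hV, hf⟩ := hl x hx
  have h1 : ∀ᶠ y in 𝓝 x, ∀ c ∈ hf.toFinset, y ∉ closedBall (a c) (r c) := by
    rw [Filter.eventually_all_finset]
    intro c _
    exact isClosed_closedBall.isOpen_compl.mem_nhds (hx' c)
  filter_upwards [hV, h1] with y hy hy1
  refine h.eq_out fun c hc => ?_
  refine hy1 c ?_ (ball_subset_closedBall hc)
  rw [Set.Finite.mem_toFinset]
  exact ⟨y, hc, hy⟩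

/-- the index set of a locally finite family of nonempty balls in `Om` is countable -/
lemma countable_of_lf [SecondCountableTopology E] (hl : LF a r Om) (hr : ∀ c, 0 < r c)
    (hs : ∀ c, ball (a c) (r c) ⊆ Om) : Countable κ := by
  classical
  choose! V hV hf using hl
  obtain ⟨t, ht, htc, htU⟩ := TopologicalSpace.countable_cover_nhdsWithin
    (f := fun x => V x) (s := Om) (fun x hx => mem_nhdsWithin_of_mem_nhds (hV x hx))
  have : (univ : Set κ) ⊆ ⋃ x ∈ t, {c | (ball (a c) (r c) ∩ V x).Nonempty} := by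
    intro c _
    have h1 : a c ∈ Om := hs c (mem_ball_self (hr c))
    obtain ⟨x, hx, hx'⟩ := mem_iUnion₂.1 (htU h1)
    exact mem_iUnion₂.2 ⟨x, hx, ⟨a c, mem_ball_self (hr c), hx'⟩⟩
  have h2 : (⋃ x ∈ t, {c | (ball (a c) (r c) ∩ V x).Nonempty}).Countable :=
    htc.biUnion fun x hx => (hf x (ht hx)).countable
  exact Set.countable_univ_iff.1 (h2.mono this)

end Prod

section Energy

variable {E : Type*} [NormedAddCommGroup E] [NormedSpace ℝ E] [FiniteDimensional ℝ E]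
  [Nontrivial E] [MeasurableSpace E] [BorelSpace E] {κ : Type*} {a : κ → E} {r : κ → ℝ}
  {χ : κ → E ≃ₜ E} {Om : Set E}

/-- **splitting of a local functional** (`W u x` depends only on the germ of `u` at `x`). -/
theorem lintegral_prod {G : Type*} (m : Measure E) [m.IsAddHaarMeasure]
    (h : Sup a r χ) (hl : LF a r Om) (hO : IsOpen Om) (hr : ∀ c, 0 < r c)
    (hs : ∀ c, ball (a c) (r c) ⊆ Om) (W : (E → G) → E → ℝ≥0∞)
    (hW : ∀ (u v : E → G) (x : E), u =ᶠ[𝓝 x] v → W u x = W v x) (g : E → G) :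
    ∫⁻ x in Om, W (fun y => g (prodX χ y)) x ∂m =
      ∫⁻ x in Om \ ⋃ c, closedBall (a c) (r c), W g x ∂m +
      ∑' c, ∫⁻ x in ball (a c) (r c), W (fun y => g (χ c y)) x ∂m := by
  classical
  have : Countable κ := countable_of_lf hl hr hs
  set N : Set E := ⋃ c, sphere (a c) (r c) with hN
  have hN0 : m N = 0 := by
    rw [hN, measure_iUnion_null_iff]
    exact fun c => Measure.addHaar_sphere m (a c) (r c)
  set O1 : Set E := Om \ ⋃ c, closedBall (a c) (r c) with hO1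
  set O2 : Set E := ⋃ c, ball (a c) (r c) with hO2
  have hm1 : MeasurableSet O1 :=
    hO.measurableSet.diff (MeasurableSet.iUnion fun c => isClosed_closedBall.measurableSet)
  have hm2 : MeasurableSet O2 := MeasurableSet.iUnion fun c => isOpen_ball.measurableSet
  have hd : Disjoint O1 O2 := by
    rw [Set.disjoint_left]
    intro x h1 h2
    obtain ⟨c, hc⟩ := mem_iUnion.1 h2
    exact h1.2 (mem_iUnion.2 ⟨c, ball_subset_closedBall hc⟩)
  have hae : Om =ᵐ[m] (O1 ∪ O2 : Set E) := by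
    have h1 : ∀ᵐ x ∂m, x ∉ N := measure_eq_zero_iff_ae_notMem.1 hN0
    filter_upwards [h1] with x hx
    apply propext
    constructor
    · intro hxO
      by_cases hc : ∃ c, x ∈ closedBall (a c) (r c)
      · obtain ⟨c, hc⟩ := hc
        right
        refine mem_iUnion.2 ⟨c, ?_⟩
        rcases (mem_closedBall.1 hc).lt_or_eq with h2 | h2
        · exact h2
        · exact absurd (mem_iUnion.2 ⟨c, h2⟩) hx
      · left
        exact ⟨hxO, fun h2 => hc (mem_iUnion.1 h2)⟩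
    · rintro (h2 | h2)
      · exact h2.1
      · obtain ⟨c, hc⟩ := mem_iUnion.1 h2
        exact hs c hc
  rw [setLIntegral_congr hae, lintegral_union hm2 hd]
  congr 1
  · refine setLIntegral_congr_fun hm1 ?_
    intro x hx
    have h1 := eventuallyEq_out h hl hx.1 (fun c hc => hx.2 (mem_iUnion.2 ⟨c, hc⟩))
    refine hW _ _ x ?_
    filter_upwards [h1] with y hy
    rw [hy, id]
  · rw [hO2, lintegral_iUnion (fun c => isOpen_ball.measurableSet)
      (fun c c' hcc => h.dis c c' hcc)]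
    refine tsum_congr fun c => setLIntegral_congr_fun isOpen_ball.measurableSet ?_
    intro x hx
    refine hW _ _ x ?_
    filter_upwards [eventuallyEq_in h hx] with y hy
    rw [hy]

/-- splitting for the energy against a fixed field `D` -/
theorem lintegral_fderiv_prod {G : Type*} [NormedAddCommGroup G] [NormedSpace ℝ G]
    (m : Measure E) [m.IsAddHaarMeasure]
    (h : Sup a r χ) (hl : LF a r Om) (hO : IsOpen Om) (hr : ∀ c, 0 < r c)
    (hs : ∀ c, ball (a c) (r c) ⊆ Om) (p : ℝ) (D : E → E →L[ℝ] G) (g : E → G) :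
    ∫⁻ x in Om, ‖fderiv ℝ (fun y => g (prodX χ y)) x - D x‖ₑ ^ p ∂m =
      ∫⁻ x in Om \ ⋃ c, closedBall (a c) (r c), ‖fderiv ℝ g x - D x‖ₑ ^ p ∂m +
      ∑' c, ∫⁻ x in ball (a c) (r c), ‖fderiv ℝ (fun y => g (χ c y)) x - D x‖ₑ ^ p ∂m := by
  refine lintegral_prod m h hl hO hr hs (fun u x => ‖fderiv ℝ u x - D x‖ₑ ^ p) ?_ g
  intro u v x huv
  simp only [huv.fderiv_eq]

/-- splitting for the energy -/
theorem lintegral_fderiv_prod' {G : Type*} [NormedAddCommGroup G] [NormedSpace ℝ G]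
    (m : Measure E) [m.IsAddHaarMeasure]
    (h : Sup a r χ) (hl : LF a r Om) (hO : IsOpen Om) (hr : ∀ c, 0 < r c)
    (hs : ∀ c, ball (a c) (r c) ⊆ Om) (p : ℝ) (g : E → G) :
    ∫⁻ x in Om, ‖fderiv ℝ (fun y => g (prodX χ y)) x‖ₑ ^ p ∂m =
      ∫⁻ x in Om \ ⋃ c, closedBall (a c) (r c), ‖fderiv ℝ g x‖ₑ ^ p ∂m +
      ∑' c, ∫⁻ x in ball (a c) (r c), ‖fderiv ℝ (fun y => g (χ c y)) x‖ₑ ^ p ∂m := by
  refine lintegral_prod m h hl hO hr hs (fun u x => ‖fderiv ℝ u x‖ₑ ^ p) ?_ g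
  intro u v x huv
  simp only [huv.fderiv_eq]

/-- **HR2, all in one** (`E = F = Fin 3 → ℝ` : the first clause is `SkC1_961.Hom3`). -/
theorem loc_fin_product {La : Set E} (m : Measure E) [m.IsAddHaarMeasure]
    (h : Sup a r χ) (hl : LF a r Om) (hO : IsOpen Om) (hr : ∀ c, 0 < r c)
    (hs : ∀ c, ball (a c) (r c) ⊆ Om) (hpl : ∀ c, PLOn (χ c) univ) {g : E → E}
    (hg : ∃ gi : E → E, MapsTo g Om La ∧ MapsTo gi La Om ∧ (∀ x ∈ Om, gi (g x) = x) ∧
      (∀ y ∈ La, g (gi y) = y) ∧ ContinuousOn g Om ∧ ContinuousOn gi La)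
    (hgp : LocPL g Om) (p : ℝ) (D : E → E →L[ℝ] E) :
    ∃ X : E → E, (∃ gi : E → E, MapsTo (fun x => g (X x)) Om La ∧ MapsTo gi La Om ∧
        (∀ x ∈ Om, gi (g (X x)) = x) ∧ (∀ y ∈ La, g (X (gi y)) = y) ∧
        ContinuousOn (fun x => g (X x)) Om ∧ ContinuousOn gi La) ∧
      LocPL (fun x => g (X x)) Om ∧ MapsTo X Om Om ∧
      (∀ c, ∀ x ∈ ball (a c) (r c), X x = χ c x ∧ X x ∈ ball (a c) (r c) ∧ X =ᶠ[𝓝 x] χ c) ∧
      (∀ x, (∀ c, x ∉ ball (a c) (r c)) → X x = x) ∧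
      (∀ x ∈ Om, (∀ c, x ∉ closedBall (a c) (r c)) → X =ᶠ[𝓝 x] id) ∧
      ∫⁻ x in Om, ‖fderiv ℝ (fun y => g (X y)) x - D x‖ₑ ^ p ∂m =
        ∫⁻ x in Om \ ⋃ c, closedBall (a c) (r c), ‖fderiv ℝ g x - D x‖ₑ ^ p ∂m +
        ∑' c, ∫⁻ x in ball (a c) (r c), ‖fderiv ℝ (fun y => g (χ c y)) x - D x‖ₑ ^ p ∂m :=
  ⟨prodX χ, homeo_comp_prod h hl hs hg, locPL_comp_prod h hl hO hs hpl hgp, h.mapsTo hs,
    fun _ _ hx => ⟨h.eq_in hx, h.prod_mem_ball hx, eventuallyEq_in h hx⟩,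
    fun _ hx => h.eq_out hx, fun _ hx hx' => eventuallyEq_out h hl hx hx',
    lintegral_fderiv_prod m h hl hO hr hs p D g⟩

end Energy

end Crest.Agent.R096.Eh_57
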