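import Crest.Agent.R096.Eln2_812
import Crest.Agent.R096.Rmt4_816
import Crest.Agent.R096.Gsc3_476
import Crest.Agent.R096.Cob11_622
import Crest.Agent.R96.Eld1_538

/-!
# Row 96 (helper812), p ≤ 2: (EL), composition, part 1: the geometry of the three classes with neighbours

`K1` = outer tiles far from the walls, `K2` = `Cl2 h r`, `K3` = tiles of the blocks not in `K2`.
-/

set_option autoImplicit false
set_option linter.unusedSectionVars false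
set_option linter.style.longLine false

open MeasureTheory Set Filter Metric Module
open scoped ENNReal NNReal Topology

namespace Crest.Agent.R096.Elc_812

open Crest.AnalysisR.VecCalc3
open Crest.Agent.R096.Msh_715 (Tiling P I)
open Crest.Agent.R096.Mal_874 (CB)
open Crest.Agent.R096.Ca_855
open Crest.Agent.R096.Rmt_816 (Bj Cl2 Cl3 diam2 norm_D0)
open Crest.Agent.R096.Gsc_476 (Bk_eq near_wall_outT outer_orT same_blockT)
open Crest.Agent.R096.Eln_812 (WL layer_tr)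
open Crest.Agent.R96.Eld_538 (Cl1)
open Crest.Agent.R96.Coarse_538 (Dt)
open Crest.Agent.R96.En10_199 (P3)

variable {Om W : Set R3} {ρ₀ : R3 → ℝ} {J : Type} {Qb : J → CB R3 3} {k0 : ℕ} {σ : ℝ}
  [Finite J] {κ : ℝ} {Bs Nn : ℕ}

/-- two tiles touch -/
def Tch (h : MIn Om W ρ₀ Qb k0 σ) (a : R3) (k i : h.ιT a) : Prop :=
  (P ((h.T a).H k) ∩ P ((h.T a).H i)).Nonempty

section

variable (h : MIn Om W ρ₀ Qb k0 σ) {a : R3}

include h in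
theorem frontier_psi (ha : ‖a‖ ≤ σ / 8) {j : J} {z : R3} (hz : z ∈ frontier ((Qb j).tr a).N) :
    (Qb j).ψ z ∈ (Bj h a j).W := by
  rw [← Bk_eq h ha j, (h.M.Bk (fun _ => h.cl a) j).frontier_N] at hz
  exact hz

/-- near a point of the wall -/
theorem cl2_of_wall (ha : ‖a‖ ≤ σ / 8) {r : ℝ} {j : J} {i : h.ιT a} {y z : R3}
    (hy : y ∈ P ((h.T a).H i)) (hz : z ∈ frontier ((Qb j).tr a).N)
    (hyz : ‖(Qb j).ψ y - (Qb j).ψ z‖ ≤ r / 2 ^ k0) : Cl2 h r a i := by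
  refine ⟨j, y, hy, (infDist_le_dist_of_mem (frontier_psi h ha hz)).trans ?_⟩
  rw [dist_eq_norm]
  exact hyz

include h in
/-- the distance to the wall is attained -/
theorem wall_of_infDist (ha : ‖a‖ ≤ σ / 8) {d : ℝ} {j : J} {y : R3}
    (hy : infDist ((Qb j).ψ y) (Bj h a j).W ≤ d) :
    ∃ z ∈ frontier ((Qb j).tr a).N, ‖(Qb j).ψ y - (Qb j).ψ z‖ ≤ d := by
  have hWc : IsCompact (Bj h a j).W := by
    have h1 := (Bj h a j).frontier_N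
    have h2 : IsCompact (frontier (Bj h a j).N) :=
      (Bj h a j).isCompact_N.of_isClosed_subset isClosed_frontier (Bj h a j).frontier_sub
    have h3 : (Bj h a j).W = (Bj h a j).ψ '' frontier (Bj h a j).N := by
      rw [h1, image_preimage_eq _ (Bj h a j).ψ.surjective]
    rw [h3]
    exact h2.image (Bj h a j).ψ.continuous
  obtain ⟨w, hw, e⟩ := hWc.exists_infDist_eq_dist (Bj h a j).W_ne ((Qb j).ψ y)
  have h5 : (Qb j).ψ.symm w ∈ frontier (Bj h a j).N := by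
    rw [(Bj h a j).frontier_N, mem_preimage]
    show (Qb j).ψ ((Qb j).ψ.symm w) ∈ _
    rw [ContinuousLinearEquiv.apply_symm_apply]
    exact hw
  refine ⟨(Qb j).ψ.symm w, ?_, ?_⟩
  · rw [← Bk_eq h ha j]
    exact h5
  · rw [ContinuousLinearEquiv.apply_symm_apply, ← dist_eq_norm, ← e]
    exact hy

/-- **every tile is in one of the classes** -/
theorem tri (hκ : 0 < κ) (hb : ∀ j, MIn.BQ κ Bs Nn (Qb j) k0) (ha : ‖a‖ ≤ σ / 8) {r : ℝ}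
    (hr : 32 * κ⁻¹ ≤ r) (i : h.ιT a) (h2 : ¬ Cl2 h r a i) (h3 : ¬ Cl3 h a i) : Cl1 h 4 a i := by
  refine ⟨fun j hj => h3 ⟨j, hj⟩, fun j x hx z hz => ?_⟩
  by_contra hcon
  push Not at hcon
  have hz' : z ∈ frontier ((Qb j).tr a).N := by rw [← Bk_eq h ha j]; exact hz
  have hi : 0 < κ⁻¹ := inv_pos.2 hκ
  have hp : (0:ℝ) < 2 ^ k0 := by positivity
  refine h2 (cl2_of_wall h ha hx hz' ?_)
  have h4 := dist_le_P3s x z
  have h5 := ((hb j).cnd (x - z)).2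
  rw [map_sub, ← dist_eq_norm x z] at h5
  calc ‖(Qb j).ψ x - (Qb j).ψ z‖ ≤ 4 * κ⁻¹ * dist x z := h5
    _ ≤ 4 * κ⁻¹ * (2 * (4 / 2 ^ k0)) := by
        gcongr
        exact h4.trans (mul_le_mul_of_nonneg_left hcon (by norm_num))
    _ = 32 * κ⁻¹ / 2 ^ k0 := by ring
    _ ≤ r / 2 ^ k0 := by gcongr

/-- a far outer tile does not meet the blocks -/
theorem far_off (ha : ‖a‖ ≤ σ / 8) {k : h.ιT a} (hk : Cl1 h 4 a k) (j : J) :
    Disjoint (P ((h.T a).H k)) ((Qb j).tr a).N := by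
  rw [Set.disjoint_left]
  intro y hy hyN
  have hN : ¬ P ((h.T a).H k) ⊆ ((Qb j).tr a).N := by
    rw [← Bk_eq h ha j]
    exact hk.1 j
  obtain ⟨-, z, hz, hzP, -, -⟩ := near_wall_outT h ha hN ⟨y, hy, hyN⟩ hy
  have hz' : z ∈ frontier (Bj h a j).N := by
    show z ∈ frontier (h.M.Bk (fun _ => h.cl a) j).N
    rw [Bk_eq h ha j]
    exact hz
  have h1 := hk.2 j z hzP z hz'
  rw [dist_self] at h1
  have : (0:ℝ) < 4 / 2 ^ k0 := by positivity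
  linarith

/-- **neighbours of class (1) are outer tiles** -/
theorem nb1 (ha : ‖a‖ ≤ σ / 8) {k i : h.ιT a} (hk : Cl1 h 4 a k) (hki : Tch h a k i) (j : J) :
    ¬ P ((h.T a).H i) ⊆ (Bj h a j).N := by
  obtain ⟨y, hy, hy'⟩ := hki
  intro hc
  refine Set.disjoint_left.1 (far_off h ha hk j) hy ?_
  rw [← Bk_eq h ha j]
  exact hc hy'

/-- **neighbours of class (2)** -/
theorem nb2 (hκ : 0 < κ) (hκ1 : κ ≤ 1) (hb : ∀ j, MIn.BQ κ Bs Nn (Qb j) k0) {r : ℝ} (hr : 7 ≤ r)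
    (hsm : 4 * κ⁻¹ * (r / 2 ^ k0) < σ / 8) {k i : h.ιT a} (hk : Cl2 h r a k)
    (hki : Tch h a k i) : Cl2 h (r * (1 + 16 * κ⁻¹ ^ 2 * max 1 (Bs:ℝ))) a i := by
  have hd := diam2 h hκ hκ1 hb hr hsm hk
  obtain ⟨j, y, hy, hyW⟩ := hk
  obtain ⟨y0, h0, h0'⟩ := hki
  have hi : 0 < κ⁻¹ := inv_pos.2 hκ
  refine ⟨j, y0, h0', ?_⟩
  have h1 : infDist ((Qb j).ψ y0) (Bj h a j).W ≤
      infDist ((Qb j).ψ y) (Bj h a j).W + dist ((Qb j).ψ y0) ((Qb j).ψ y) :=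
    infDist_le_infDist_add_dist
  have h2 := ((hb j).cnd (y0 - y)).2
  rw [map_sub] at h2
  have h3 := hd y0 h0 y hy
  have h4 : ‖(Qb j).ψ y0 - (Qb j).ψ y‖ ≤
      4 * κ⁻¹ * (4 * κ⁻¹ * max 1 (Bs:ℝ) * (r / 2 ^ k0)) :=
    h2.trans (mul_le_mul_of_nonneg_left h3 (by positivity))
  rw [dist_eq_norm] at h1
  have e : r * (1 + 16 * κ⁻¹ ^ 2 * max 1 (Bs:ℝ)) / 2 ^ k0 =
      r / 2 ^ k0 + 4 * κ⁻¹ * (4 * κ⁻¹ * max 1 (Bs:ℝ) * (r / 2 ^ k0)) := by ring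
  rw [e]
  linarith

/-- **the tiles of class (2) are in the layer** -/
theorem cl2_WL (hκ : 0 < κ) (hκ1 : κ ≤ 1) (hb : ∀ j, MIn.BQ κ Bs Nn (Qb j) k0) {r : ℝ} (hr : 7 ≤ r)
    (hsm : 4 * κ⁻¹ * (r / 2 ^ k0) < σ / 8) (ha : a ∈ Dt (1 / 2 ^ k0)) {i : h.ιT a}
    (hi : Cl2 h r a i) :
    P ((h.T a).H i) ⊆ WL Qb k0 (r * (1 + 16 * κ⁻¹ ^ 2 * max 1 (Bs:ℝ)) + 8 * κ⁻¹) := by
  have ha' := (norm_D0 h a ha).le
  have hd := diam2 h hκ hκ1 hb hr hsm hi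
  obtain ⟨j, y, hy, hyW⟩ := hi
  obtain ⟨z, hz, hyz⟩ := wall_of_infDist h ha' hyW
  have hii : 0 < κ⁻¹ := inv_pos.2 hκ
  intro x hx
  have h2 := ((hb j).cnd (x - y)).2
  rw [map_sub] at h2
  have h3 := hd x hx y hy
  have h4 : ‖(Qb j).ψ x - (Qb j).ψ y‖ ≤
      4 * κ⁻¹ * (4 * κ⁻¹ * max 1 (Bs:ℝ) * (r / 2 ^ k0)) :=
    h2.trans (mul_le_mul_of_nonneg_left h3 (by positivity))
  have h5 : ‖(Qb j).ψ x - (Qb j).ψ z‖ ≤ r * (1 + 16 * κ⁻¹ ^ 2 * max 1 (Bs:ℝ)) / 2 ^ k0 := by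
    have h6 := norm_sub_le_norm_sub_add_norm_sub ((Qb j).ψ x) ((Qb j).ψ y) ((Qb j).ψ z)
    have e : r * (1 + 16 * κ⁻¹ ^ 2 * max 1 (Bs:ℝ)) / 2 ^ k0 =
      r / 2 ^ k0 + 4 * κ⁻¹ * (4 * κ⁻¹ * max 1 (Bs:ℝ) * (r / 2 ^ k0)) := by ring
    rw [e]
    linarith
  have hna : ‖a‖ ≤ 2 / 2 ^ k0 := by
    have := Rmt_816.norm_Dt (s := 1 / 2 ^ k0) (by positivity) ha
    calc ‖a‖ ≤ 2 * (1 / 2 ^ k0) := this
      _ = _ := by ring
  have h7 := Eln_812.psi_le (Q := Qb j) hκ (fun v => ((hb j).cnd v).2) hna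
  have h8 := layer_tr (Q := Qb j) h7 (r := r * (1 + 16 * κ⁻¹ ^ 2 * max 1 (Bs:ℝ)) / 2 ^ k0)
    ⟨z, hz, h5⟩
  refine mem_iUnion.2 ⟨j, ?_⟩
  rwa [← add_div] at h8

/-- **neighbours of the tiles of a block which are not near the wall** -/
theorem nb3 (hκ : 0 < κ) (hb : ∀ j, MIn.BQ κ Bs Nn (Qb j) k0) (ha : ‖a‖ ≤ σ / 8) {r : ℝ}
    (hr : 32 * κ⁻¹ ≤ r) {k i : h.ιT a} (h2 : ¬ Cl2 h r a k) {j : J}
    (hk : P ((h.T a).H k) ⊆ ((Qb j).tr a).N) (hki : Tch h a k i) :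
    P ((h.T a).H i) ⊆ ((Qb j).tr a).N := by
  by_contra hc
  obtain ⟨y, hy, hy'⟩ := hki
  obtain ⟨-, z, hz, -, -, hyz⟩ := near_wall_outT h ha hc ⟨y, hy', hk hy⟩ hy'
  have hi : 0 < κ⁻¹ := inv_pos.2 hκ
  refine h2 (cl2_of_wall h ha hy hz ?_)
  have h5 := ((hb j).cnd (y - z)).2
  rw [map_sub] at h5
  calc ‖(Qb j).ψ y - (Qb j).ψ z‖ ≤ 4 * κ⁻¹ * ‖y - z‖ := h5
    _ ≤ 4 * κ⁻¹ * (2 / 2 ^ k0) := by gcongr
    _ = 8 * κ⁻¹ / 2 ^ k0 := by ring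
    _ ≤ r / 2 ^ k0 := by
        gcongr
        linarith

/-- **neighbours of class (1) do not meet the blocks** -/
theorem nb1_off (ha : ‖a‖ ≤ σ / 8) {k i : h.ιT a} (hk : Cl1 h 4 a k) (hki : Tch h a k i) (j : J) :
    Disjoint (P ((h.T a).H i)) ((Qb j).tr a).N := by
  rw [Set.disjoint_left]
  intro y hy hyN
  have hN : ¬ P ((h.T a).H i) ⊆ ((Qb j).tr a).N := by
    rw [← Bk_eq h ha j]
    exact nb1 h ha hk hki j
  obtain ⟨y0, h0, h0'⟩ := hki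
  obtain ⟨-, z, hz, -, h1, -⟩ := near_wall_outT h ha hN ⟨y, hy, hyN⟩ h0'
  have hz' : z ∈ frontier (Bj h a j).N := by
    show z ∈ frontier (h.M.Bk (fun _ => h.cl a) j).N
    rw [Bk_eq h ha j]
    exact hz
  have h2 := hk.2 j y0 h0 z hz'
  rw [← dist_eq_norm] at h1
  have h3 : (1:ℝ) / 2 ^ k0 ≤ 4 / 2 ^ k0 := by gcongr; norm_num
  linarith

end

/-- the core with one more layer -/
def Zc (Q : CB R3 3) : Set R3 :=
  Q.ψ ⁻¹' Icc (fun l => Q.a' l + (Q.S.lo l - 1) / 2 ^ Q.kc) (fun l => Q.a' l + (Q.S.hi l + 1) / 2 ^ Q.kc)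

theorem isClosed_Zc (Q : CB R3 3) : IsClosed (Zc Q) := isClosed_Icc.preimage Q.ψ.continuous

theorem coord_le {Q : CB R3 3} {v : R3} (hv : ‖Q.ψ v‖ ≤ 1 / 2 ^ Q.kc) (l : Fin 3) :
    |Q.ψ v l| ≤ 1 / 2 ^ Q.kc :=
  ((Real.norm_eq_abs _).symm.le.trans (norm_le_pi_norm _ l)).trans hv

theorem Kc_sub_Zc {Q : CB R3 3} {v : R3} (hv : ‖Q.ψ v‖ ≤ 1 / 2 ^ Q.kc) : (Q.tr v).Kc ⊆ Zc Q := by
  intro y hy
  rw [CB.mem_Kc_tr, Ksh_372.Kc_eq, mem_preimage, map_sub] at hy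
  rw [Zc, mem_preimage]
  constructor
  · intro l
    have h3 := hy.1 l
    have h4 := abs_le.1 (coord_le hv l)
    simp only [Pi.sub_apply] at h3
    simp only [sub_div]
    linarith [h4.1]
  · intro l
    have h3 := hy.2 l
    have h4 := abs_le.1 (coord_le hv l)
    simp only [Pi.sub_apply] at h3
    simp only [add_div]
    linarith [h4.2]

theorem Zc_sub_N {Q : CB R3 3} {v : R3} (hv : ‖Q.ψ v‖ ≤ 1 / 2 ^ Q.kc) : Zc Q ⊆ (Q.tr v).N := by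
  intro y hy
  have hp : (0:ℝ) < 2 ^ Q.kc := by positivity
  have hw : (10:ℝ) ≤ Q.w := by
    have h1 := Q.hw
    have h2 := Q.S.t0
    have : (10 : ℤ) ≤ Q.w := by omega
    exact_mod_cast this
  have hw' : 2 / 2 ^ Q.kc ≤ (Q.w:ℝ) / 2 ^ Q.kc := by gcongr; linarith
  have e2 : (2:ℝ) / 2 ^ Q.kc = 1 / 2 ^ Q.kc + 1 / 2 ^ Q.kc := by ring
  rw [CB.mem_N_tr, Vly_186.N_eq, mem_preimage, map_sub]
  rw [Zc, mem_preimage] at hy
  constructor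
  · intro l
    have h3 := hy.1 l
    have h4 := abs_le.1 (coord_le hv l)
    have e : (Q.al l : ℝ) = Q.S.lo l - Q.w := by simp [CB.al]
    simp only [Pi.sub_apply]
    simp only [e, sub_div] at h3 ⊢
    linarith [h4.2]
  · intro l
    have h3 := hy.2 l
    have h4 := abs_le.1 (coord_le hv l)
    have e : (Q.be l : ℝ) = Q.S.hi l + Q.w := by simp [CB.be]
    simp only [Pi.sub_apply]
    simp only [e, add_div] at h3 ⊢
    linarith [h4.1]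

/-- the deterministic set of class (1) -/
def E1 (Om : Set R3) (Qb : J → CB R3 3) : Set R3 := Om \ ⋃ j, Zc (Qb j)

theorem meas_E1 (hOm : IsOpen Om) : MeasurableSet (E1 Om Qb) :=
  hOm.measurableSet.diff (isClosed_iUnion_of_finite fun j => isClosed_Zc (Qb j)).measurableSet

theorem E1_sub_Kc {a : R3} (hv : ∀ j, ‖(Qb j).ψ a‖ ≤ 1 / 2 ^ (Qb j).kc) (JQ : Set J) :
    E1 Om Qb ⊆ Om \ ⋃ j ∈ JQ, ((Qb j).tr a).Kc := by
  rintro y ⟨hy, hy'⟩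
  refine ⟨hy, fun hc => hy' ?_⟩
  obtain ⟨j, -, hj⟩ := mem_iUnion₂.1 hc
  exact mem_iUnion.2 ⟨j, Kc_sub_Zc (hv j) hj⟩

theorem nb1_E1 (h : MIn Om W ρ₀ Qb k0 σ) {a : R3} (ha : ‖a‖ ≤ σ / 8)
    (hv : ∀ j, ‖(Qb j).ψ a‖ ≤ 1 / 2 ^ (Qb j).kc) {k i : h.ιT a} (hk : Cl1 h 4 a k)
    (hki : Tch h a k i) : P ((h.T a).H i) ⊆ E1 Om Qb := by
  intro y hy
  refine ⟨(h.T a).sub i hy, fun hc => ?_⟩
  obtain ⟨j, hj⟩ := mem_iUnion.1 hc
  exact Set.disjoint_left.1 (nb1_off h ha hk hki j) hy (Zc_sub_N (hv j) hj)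

end Crest.Agent.R096.Elc_812
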