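import Crest.Agent.R096.Elc1_812

/-!
# Row 96 (helper812), p ≤ 2: **(EL), composition**: `elP_of : Cls1 → Cls2 → Cls3 → Pas_753.ElP p Els`
-/

set_option autoImplicit false
set_option linter.unusedSectionVars false
set_option linter.style.longLine false

open MeasureTheory Set Filter Metric Module
open scoped ENNReal NNReal Topology

namespace Crest.Agent.R096.Elc_812

open Crest.AnalysisR.VecCalc3 Crest.AnalysisR.Sobolev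
open Crest.Agent.R096.Mal_874 (CB)
open Crest.Agent.R096.Sk_962 (SH)
open Crest.Agent.R096.Br_695 (En)
open Crest.Agent.R096.Pin_753 (BlkP)
open Crest.Agent.R096.Msh_715 (Tiling P I)
open Crest.Agent.R096.Ca_855
open Crest.Agent.R096.Rmt_816 (Bj Cl2 Cl3 diam2 norm_D0)
open Crest.Agent.R096.Gsc_476 (Bk_eq)
open Crest.Agent.R096.Eln_812 (WL el_num RM_zero pw_disj isClosed_WL psi_le N_tr_sub_cel)
open Crest.Agent.R96.Acl_392 Crest.Agent.R96.Lu_538 Crest.Agent.R96.Intr_538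
open Crest.Agent.R96.Poi_392 Crest.Agent.R96.Coarse_538
open Crest.Agent.R96.Eld_538 (Cl1 Cls1 Cls2 Cls3 Els AdE)

/-- **numeric half**, any measurable set of class (1) -/
theorem el_num4 {p : ℝ} (hp : 1 ≤ p) (hp2 : p ≤ 2) {Om La : Set R3} {f : R3 → R3}
    {G : Fin 3 → R3 → R3} (hOm : IsOpen Om) (hOmb : Bornology.IsBounded Om) (H : SH p Om La f G)
    {κ τ c1 r C1 n1 C2 n2 e₀ : ℝ} (hκ : 0 < κ) (hτ : 0 < τ) (hτ1 : τ ≤ 1 / 4)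
    (hc1 : 0 < c1) (hr : 0 ≤ r) (hC1 : 0 < C1) (hn1 : 0 < n1) (hC2 : 0 < C2)
    (hn2 : 0 < n2) (he₀ : 0 < e₀) :
    ∃ θ0 : ℝ, 0 < θ0 ∧ 2 * θ0 ≤ τ ∧ 8 * κ⁻¹ * θ0 ≤ c1 ∧
    ∀ (C3 n3 nc1 nc2 nc3 : ℝ), 0 < C3 → 0 < n3 → 0 < nc1 → 0 < nc2 → 0 < nc3 →
    ∃ e1 : ℝ, 0 < e1 ∧ ∃ δE : ℝ, 0 < δE ∧ ∀ s : ℝ, 0 < s → ∀ (a₀ : R3) (Q₀ : Finset (Fin 3 → ℤ))
      (L : (Fin 3 → ℤ) → R3 →L[ℝ] R3), (∀ k ∈ Q₀, ‖L k‖ ≤ κ⁻¹) →
      (∀ k ∈ Q₀, cel Cb (vt (2 * s) a₀ k) s ⊆ Om) →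
      (∑ k ∈ Q₀, ∫⁻ x in cel Cb (vt (2 * s) a₀ k) s, ‖Gmat G x - L k‖ₑ ^ p) ≤
        ENNReal.ofReal e1 →
      ∀ (J : Type) [Finite J] (kk : J → Fin 3 → ℤ) (Qb : J → CB R3 3) (k0 : ℕ),
      (∀ j, kk j ∈ Q₀) → (∀ j v, κ / 4 * ‖v‖ ≤ ‖(Qb j).ψ v‖) →
      (∀ j, c1 * s ≤ 1 / 2 ^ (Qb j).kc) → 1 / 2 ^ k0 ≤ θ0 * s →
      (∀ j, (Qb j).N ⊆ cel Cb (vt (2 * s) a₀ (kk j)) ((1 - τ) * s)) →
      (Pairwise fun i j => Disjoint (Qb i).N (Qb j).N) →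
      ∀ μ1 μ2 μ3 : R3 → Measure R3, RM (Dt (1 / 2 ^ k0)) (ENNReal.ofReal n1) μ1 →
      RM (Dt (1 / 2 ^ k0)) (ENNReal.ofReal n2) μ2 → RM (Dt (1 / 2 ^ k0)) (ENNReal.ofReal n3) μ3 →
      (∀ a ∈ Dt (1 / 2 ^ k0), ∀ k : Fin 3 → ℤ,
        μ1 a (cel Cb (vt (2 * s) a₀ k) s) ≤ ENNReal.ofReal (nc1 * (2 * s) ^ 3) ∧
        μ2 a (cel Cb (vt (2 * s) a₀ k) s) ≤ ENNReal.ofReal (nc2 * (2 * s) ^ 3) ∧
        μ3 a (cel Cb (vt (2 * s) a₀ k) s) ≤ ENNReal.ofReal (nc3 * (2 * s) ^ 3)) →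
      ∀ E1 : Set R3, MeasurableSet E1 → E1 ⊆ Om →
      ∃ B2 : Set R3, volume B2 ≤ ENNReal.ofReal (1 / 2) * volume (Dt (1 / 2 ^ k0)) ∧
      ∀ a ∈ Dt (1 / 2 ^ k0), a ∉ B2 →
        (∀ S : Set R3, S ⊆ E1 →
          ENNReal.ofReal C1 * (∫⁻ y in S, En p G y ∂μ1 a) ≤
            ENNReal.ofReal (14 * n1 * C1) * (∫⁻ y in E1, En p G y) + ENNReal.ofReal e₀) ∧
        (∀ S : Set R3, S ⊆ WL Qb k0 r →
          ENNReal.ofReal C2 * (∫⁻ y in S, En p G y ∂μ2 a) ≤ ENNReal.ofReal e₀) ∧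
        (∀ Q ⊆ Q₀, ((Q₀ \ Q).card : ℝ) * (2 * s) ^ 3 ≤ δE →
          ∀ S : Set R3, S ⊆ ⋃ k ∈ Q₀ \ Q, cel Cb (vt (2 * s) a₀ k) s →
          ENNReal.ofReal C3 * (∫⁻ y in S, En p G y ∂μ3 a) ≤ ENNReal.ofReal e₀) := by
  classical
  have hvol : volume Om ≠ ∞ := hOmb.measure_lt_top.ne
  obtain ⟨θ', hθ', H0⟩ := el_num hp hp2 hOm hvol H hκ hτ (by linarith : τ < 1) hc1 hr hC1 hn1 hC2
    hn2 he₀
  have hκi : 0 < κ⁻¹ := inv_pos.2 hκ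
  refine ⟨min θ' (min (τ / 2) (c1 / (8 * κ⁻¹))), by positivity, ?_, ?_, ?_⟩
  · have := (min_le_right θ' (min (τ / 2) (c1 / (8 * κ⁻¹)))).trans (min_le_left _ _)
    linarith
  · have := (min_le_right θ' (min (τ / 2) (c1 / (8 * κ⁻¹)))).trans (min_le_right _ _)
    rwa [le_div_iff₀' (by positivity)] at this
  intro C3 n3 nc1 nc2 nc3 hC3 hn3 hnc1 hnc2 hnc3
  obtain ⟨e1, he1, δE, hδE, H1⟩ := H0 C3 n3 nc1 nc2 nc3 hC3 hn3 hnc1 hnc2 hnc3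
  refine ⟨e1, he1, δE, hδE, fun s hs a₀ Q₀ L hL hcO hdev J _ kk Qb k0 hkk hψ hkc hk0 hN hdis
    μ1 μ2 μ3 r1 r2 r3 hcnt E1 hE1 hE1O => ?_⟩
  have hp0 : (0 : ℝ) < 1 / 2 ^ k0 := by positivity
  obtain ⟨B2, hB2, HB⟩ := H1 s hs a₀ Q₀ L hL hcO hdev J kk Qb k0 hkk hψ hkc
    (hk0.trans (mul_le_mul_of_nonneg_right (min_le_left _ _) hs.le)) hN hdis
    (Dt (1 / 2 ^ k0)) (meas_Dt _)
    (by
      rw [vol_Dt hp0]
      exact (ENNReal.ofReal_pos.2 (by positivity)).ne')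
    (by rw [vol_Dt hp0]; exact ENNReal.ofReal_ne_top)
    μ1 (fun _ => 0) μ2 (fun _ => 0) μ3 (fun _ => 0) r1 (RM_zero _ _) r2 (RM_zero _ _) r3
    (RM_zero _ _)
    (fun a ha k => by
      obtain ⟨q1, q2, q3⟩ := hcnt a ha k
      exact ⟨q1, by simp, q2, by simp, q3, by simp⟩)
    E1 hE1 hE1O
  refine ⟨B2, hB2, fun a ha haB => ?_⟩
  obtain ⟨q1, q2, q3⟩ := HB a ha haB
  exact ⟨fun S hS => (q1 S hS).1, fun S hS => (q2 S hS).1,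
    fun Q _ hc S hS => (q3 (Q₀ \ Q) Finset.sdiff_subset hc S hS).1⟩

/-- weights of a class -/
theorem cls_sum {ι : Type*} (K : Finset ι) {cf : ι → ℝ} {Jf : ι → ℝ≥0∞} {β C C0 : ℝ} {I0 : ℝ≥0∞}
    (hβ : ∀ k ∈ K, cf k ≤ β) (hβ0 : 0 ≤ β) (hC0 : β * C ≤ C0)
    (hsum : ∑ k ∈ K, Jf k ≤ ENNReal.ofReal C * I0) :
    ∑ k ∈ K, ENNReal.ofReal (cf k) * Jf k ≤ ENNReal.ofReal C0 * I0 := by
  calc ∑ k ∈ K, ENNReal.ofReal (cf k) * Jf k ≤ ∑ k ∈ K, ENNReal.ofReal β * Jf k :=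
        Finset.sum_le_sum fun k hk => mul_le_mul' (ENNReal.ofReal_le_ofReal (hβ k hk)) le_rfl
    _ = ENNReal.ofReal β * ∑ k ∈ K, Jf k := (Finset.mul_sum _ _ _).symm
    _ ≤ ENNReal.ofReal β * (ENNReal.ofReal C * I0) := mul_le_mul' le_rfl hsum
    _ = ENNReal.ofReal (β * C) * I0 := by
        rw [← mul_assoc, ← ENNReal.ofReal_mul hβ0]
    _ ≤ _ := mul_le_mul' (ENNReal.ofReal_le_ofReal hC0) le_rfl

theorem CB_le {p : ℝ} (hp : 0 ≤ p) {K K' m m' : ℝ≥0} (hK : K ≤ K') (h : m ≤ m') :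
    Cob_622.CB p K m ≤ Cob_622.CB p K' m' := by
  refine (Cob_622.CB_mono hp h).trans ?_
  have h4 := Sq_55.T2_nonneg p m'
  have h5 := Sq_55.T3_nonneg p m'
  have h6 : 0 ≤ 1 + Sq_55.T2 p m' := by linarith
  have hK' : (K:ℝ) ≤ K' := by exact_mod_cast hK
  unfold Cob_622.CB
  gcongr

theorem CB_nn {p : ℝ} {K m : ℝ≥0} : 0 ≤ Cob_622.CB p K m := by
  have h4 := Sq_55.T2_nonneg p m
  have h5 := Sq_55.T3_nonneg p m
  have h6 : 0 ≤ 1 + Sq_55.T2 p m := by linarith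
  unfold Cob_622.CB
  positivity


set_option maxHeartbeats 1600000 in
/-- **(EL) FROM THE THREE CLASS STATEMENTS** -/
theorem elP_of {p : ℝ} (hp : 1 ≤ p) (hp2 : p ≤ 2) (h1 : Cls1) (h2 : Cls2) (h3 : Cls3) :
    Pas_753.ElP p Els := by
  classical
  intro mU
  obtain ⟨C1', n1, nc1, hC1', hn1, hnc1, H1⟩ := h1 mU
  have hp0 : 0 ≤ p := by linarith
  obtain ⟨C1, hC1, hC1e⟩ : ∃ C1 : ℝ, 0 < C1 ∧ Cob_622.CB p 2 mU * C1' ≤ C1 := by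
    have := mul_nonneg (CB_nn (p := p) (K := 2) (m := mU)) hC1'.le
    exact ⟨Cob_622.CB p 2 mU * C1' + 1, by linarith, by linarith⟩
  refine ⟨Real.toNNReal (14 * n1 * C1), ?_⟩
  intro Om La f G hOm hOmb H κ τ c1 c2 hh Rl e₀ mN Bs Nn hκ hκ1 hτ hτ1 hc1 hc2 hhh hRl he₀
  have hκi : 0 < κ⁻¹ := inv_pos.2 hκ
  obtain ⟨r, hr7, hrR, hrκ⟩ : ∃ r : ℝ, 7 ≤ r ∧ Rl ≤ r ∧ 32 * κ⁻¹ ≤ r :=
    ⟨max 7 (max Rl (32 * κ⁻¹)), le_max_left _ _, (le_max_left _ _).trans (le_max_right _ _),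
      (le_max_right _ _).trans (le_max_right _ _)⟩
  obtain ⟨C2', n2, nc2, θ, hC2', hn2, hnc2, hθ, H2⟩ := h2 κ r mN Bs Nn hκ hκ1 hr7
  have hβ2 : 0 ≤ Cob_622.CB p 2 mN := CB_nn
  obtain ⟨C2, hC2, hC2e⟩ : ∃ C2 : ℝ, 0 < C2 ∧ Cob_622.CB p 2 mN * C2' ≤ C2 := by
    have := mul_nonneg hβ2 hC2'.le
    exact ⟨Cob_622.CB p 2 mN * C2' + 1, by linarith, by linarith⟩
  obtain ⟨A, hA⟩ : ∃ A : ℝ, A = 1 + 16 * κ⁻¹ ^ 2 * max 1 (Bs:ℝ) := ⟨_, rfl⟩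
  have hA1 : 1 ≤ A := by
    have : 0 ≤ 16 * κ⁻¹ ^ 2 * max 1 (Bs:ℝ) := by positivity
    linarith
  have hr0 : 0 < r := by linarith
  obtain ⟨r1, hr1⟩ : ∃ r1 : ℝ, r1 = r * A := ⟨_, rfl⟩
  have hrr1 : r ≤ r1 := by rw [hr1]; exact le_mul_of_one_le_right hr0.le hA1
  have hr10 : 0 < r1 := hr0.trans_le hrr1
  obtain ⟨r2, hr2⟩ : ∃ r2 : ℝ, r2 = r1 * A + 8 * κ⁻¹ := ⟨_, rfl⟩
  have hr20 : 0 ≤ r2 := by rw [hr2]; positivity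
  have he3 : 0 < e₀ / 3 := by positivity
  obtain ⟨θ', hθ', hθ'τ, hθ'c, HN⟩ := el_num4 hp hp2 hOm hOmb H hκ hτ hτ1 hc1 hr20 hC1 hn1 hC2 hn2
    he3
  obtain ⟨θ0, hθ0, t1, t2, t3⟩ : ∃ θ0 : ℝ, 0 < θ0 ∧ θ0 ≤ θ' ∧ θ0 ≤ θ * c2 ∧
      θ0 ≤ c2 / (64 * κ⁻¹ * r1) :=
    ⟨min θ' (min (θ * c2) (c2 / (64 * κ⁻¹ * r1))), by positivity, min_le_left _ _,
      (min_le_right _ _).trans (min_le_left _ _), (min_le_right _ _).trans (min_le_right _ _)⟩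
  refine ⟨θ0, hθ0, ?_⟩
  intro θ1 hθ1 W ρ₀ hWO hWc hρ1 hρ2 hρ3 hρ4 hρ5
  obtain ⟨C3', n3, nc3, hC3', hn3, hnc3, H3⟩ := h3 κ (hh / θ1) hh mN Bs Nn hκ hκ1
    (by positivity) hhh
  obtain ⟨C3, hC3, hC3e⟩ : ∃ C3 : ℝ, 0 < C3 ∧ Cob_622.CB p 2 mN * C3' ≤ C3 := by
    have := mul_nonneg hβ2 hC3'.le
    exact ⟨Cob_622.CB p 2 mN * C3' + 1, by linarith, by linarith⟩
  obtain ⟨e1, he1, δE, hδE, HN1⟩ := HN C3 n3 nc1 nc2 nc3 hC3 hn3 hnc1 hnc2 hnc3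
  refine ⟨e1, δE, 1, he1, hδE, one_pos, ?_⟩
  intro s hs _ a₀ Q₀ L hL hcW hdev J _ kk Qb k0 hkk hB hsep hlo hk0 h
  have hbq : ∀ j, MIn.BQ κ Bs Nn (Qb j) k0 := fun j => MIn.bq_of_blkP (hB j)
  have hpk : (0:ℝ) < 1 / 2 ^ k0 := by positivity
  have hk0θ : 1 / 2 ^ k0 ≤ θ * (c2 * s) := by
    refine hk0.trans ?_
    rw [← mul_assoc]
    gcongr
  have hk0' : 1 / 2 ^ k0 ≤ θ' * s := hk0.trans (by gcongr)
  have hks : 1 / 2 ^ k0 ≤ s := by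
    refine hk0'.trans ?_
    have : θ' ≤ 1 := by linarith
    calc θ' * s ≤ 1 * s := by gcongr
      _ = s := one_mul s
  have hsm1 : 4 * κ⁻¹ * (r1 / 2 ^ k0) < c2 * s / 8 := by
    rw [le_div_iff₀ (by positivity)] at t3
    calc 4 * κ⁻¹ * (r1 / 2 ^ k0) = 4 * κ⁻¹ * r1 * (1 / 2 ^ k0) := by ring
      _ ≤ 4 * κ⁻¹ * r1 * (θ0 * s) := by gcongr
      _ = θ0 * (64 * κ⁻¹ * r1) * s / 16 := by ring
      _ ≤ c2 * s / 16 := by gcongr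
      _ < c2 * s / 8 := by
        have := mul_pos hc2 hs
        linarith
  have hsm : 4 * κ⁻¹ * (r / 2 ^ k0) < c2 * s / 8 := by
    refine lt_of_le_of_lt ?_ hsm1
    gcongr
  obtain ⟨μ1, rm1, cnt1, K1H⟩ := H1 h
  obtain ⟨μ2, rm2, cnt2, K2H⟩ := H2 h hbq hk0θ
  obtain ⟨μ3, rm3, cnt3, K3H⟩ := H3 h hbq (fun j => by
    refine (hB j).cellU.trans ?_
    calc hh * s = hh / θ1 * (θ1 * s) := by field_simp
      _ ≤ _ := by gcongr)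
  obtain ⟨B2, hB2, HB⟩ := HN1 s hs a₀ Q₀ L (fun k hk => (hL k hk).2)
    (fun k hk => (hcW k hk).trans hWO) hdev J kk Qb k0 hkk (fun j v => ((hB j).cnd v).1)
    (fun j => (hB j).cellL) hk0' (fun j => (hB j).sub) (pw_disj hc2 hs hsep) μ1 μ2 μ3 rm1 rm2 rm3
    (fun a ha k => ⟨cnt1 a ha _ s hks, cnt2 a ha _ s hks,
      cnt3 a ha _ s hs hks fun j => (hB j).cellU⟩)
    (E1 Om Qb) (meas_E1 hOm) sdiff_subset
  refine ⟨B2, hB2, fun a ha haB Q hQ hQc => ?_⟩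
  obtain ⟨q1, q2, q3⟩ := HB a ha haB
  have ha' : ‖a‖ ≤ c2 * s / 8 := (norm_D0 h a ha).le
  have hna : ‖a‖ ≤ 2 / 2 ^ k0 := by
    have := Rmt_816.norm_Dt (s := 1 / 2 ^ k0) (by positivity) ha
    calc ‖a‖ ≤ 2 * (1 / 2 ^ k0) := this
      _ = _ := by ring
  have hnaτ : ‖a‖ ≤ τ * s := by
    calc ‖a‖ ≤ 2 * (1 / 2 ^ k0) := hna.trans (le_of_eq (by ring))
      _ ≤ 2 * (θ' * s) := by gcongr
      _ = 2 * θ' * s := by ring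
      _ ≤ τ * s := by gcongr
  have hψa : ∀ j, ‖(Qb j).ψ a‖ ≤ 1 / 2 ^ (Qb j).kc := fun j => by
    refine (psi_le (Q := Qb j) hκ (fun v => ((hbq j).cnd v).2) hna).trans
      (le_trans ?_ (hB j).cellL)
    calc 8 * κ⁻¹ / 2 ^ k0 = 8 * κ⁻¹ * (1 / 2 ^ k0) := by ring
      _ ≤ 8 * κ⁻¹ * (θ' * s) := by gcongr
      _ = 8 * κ⁻¹ * θ' * s := by ring
      _ ≤ c1 * s := by gcongr
  intro s' pr c R ρ m X D hA' K hK
  -- the coefficients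
  have cf2 : ∀ k : s', Cob_622.CB p K (X.m k) ≤ Cob_622.CB p 2 mN := fun k =>
    CB_le hp0 hK (by rw [hA'.sys.em]; exact hA'.mle k k.2)
  have cf1 : ∀ k : s', Cl1 h 4 a k → Cob_622.CB p K (X.m k) ≤ Cob_622.CB p 2 mU := fun k hk =>
    CB_le hp0 hK (by rw [hA'.sys.em]; exact hA'.mleU k k.2 hk)
  have hW2 := (isClosed_WL Qb k0 r2).measurableSet
  -- the class near the walls
  have c2s : ∀ K2 : Finset s', (∀ k ∈ K2, Cl2 h r a k) →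
      ∑ k ∈ K2, ENNReal.ofReal (Cob_622.CB p K (X.m k)) * D.J k ≤ ENNReal.ofReal (e₀ / 3) := by
    intro K2 hK2
    refine (cls_sum K2 (fun k _ => cf2 k) hβ2 hC2e
      (K2H p G mU a ha s' pr c R ρ m X D hA' K2 hK2 (WL Qb k0 r2) hW2 ?_)).trans (q2 _ le_rfl)
    intro k hk i hki
    have e1 := nb2 h hκ hκ1 hbq hr7 hsm (hK2 k hk) hki
    rw [← hA, ← hr1] at e1
    have e2 := cl2_WL h hκ hκ1 hbq (hr7.trans hrr1) hsm1 ha e1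
    rwa [← hA, ← hr2] at e2
  refine ⟨fun s₁ hs₁ => ?_, fun s₂ hs₂ => ?_⟩
  · have c1s : ∀ K1 : Finset s', (∀ k ∈ K1, Cl1 h 4 a k) →
        ∑ k ∈ K1, ENNReal.ofReal (Cob_622.CB p K (X.m k)) * D.J k ≤
          ENNReal.ofReal (14 * n1 * C1) * (∫⁻ y in E1 Om Qb, En p G y) +
            ENNReal.ofReal (e₀ / 3) := by
      intro K1 hK1
      exact (cls_sum K1 (fun k hk => cf1 k (hK1 k hk)) CB_nn hC1e
        (K1H p G mN a ha s' pr c R ρ m X D hA' K1 hK1 (E1 Om Qb) (meas_E1 hOm)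
          (fun k hk i hki => nb1_E1 h ha' hψa (hK1 k hk) hki))).trans (q1 _ le_rfl)
    have c3s : ∀ K3 : Finset s', K3 ⊆ s₁ → (∀ k ∈ K3, ¬ Cl2 h r a k ∧ Cl3 h a k) →
        ∑ k ∈ K3, ENNReal.ofReal (Cob_622.CB p K (X.m k)) * D.J k ≤ ENNReal.ofReal (e₀ / 3) := by
      intro K3 hK3 hK3'
      have key : ∀ k ∈ K3, ∃ j, kk j ∈ Q₀ \ Q ∧
          ∀ i : h.ιT a, (P ((h.T a).H k) ∩ P ((h.T a).H i)).Nonempty →
            P ((h.T a).H i) ⊆ ((Qb j).tr a).N := by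
        intro k hk
        obtain ⟨n2', j, hj⟩ := hK3' k hk
        have hj' : P ((h.T a).H k) ⊆ ((Qb j).tr a).N := by
          rw [← Bk_eq h ha' j]
          exact hj
        refine ⟨j, Finset.mem_sdiff.2 ⟨hkk j, fun hc => hs₁ k (hK3 hk) j hc hj'⟩, fun i hki => ?_⟩
        exact nb3 h hκ hbq ha' hrκ n2' hj' hki
      refine (cls_sum K3 (fun k _ => cf2 k) hβ2 hC3e
        (K3H p G mU a ha s' pr c R ρ m X D hA' K3 ?_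
          (⋃ k ∈ Q₀ \ Q, cel Cb (vt (2 * s) a₀ k) s) ?_ ?_)).trans (q3 Q hQ hQc _ le_rfl)
      · intro k hk
        obtain ⟨j, -, hj⟩ := key k hk
        refine ⟨(hK3' k hk).2, fun i hki => ⟨j, ?_⟩⟩
        have := hj i hki
        rw [← Bk_eq h ha' j] at this
        exact this
      · exact Finset.measurableSet_biUnion _ fun k _ => (isClosed_cel _ _).measurableSet
      · intro k hk i hki
        obtain ⟨j, hjQ, hj⟩ := key k hk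
        exact ((hj i hki).trans
          (N_tr_sub_cel hs (by linarith) hnaτ (hB j).sub)).trans
            (subset_iUnion₂_of_subset (kk j) hjQ le_rfl)
    have hsum : ∑ k ∈ s₁, ENNReal.ofReal (Cob_622.CB p K (X.m k)) * D.J k =
        ∑ k ∈ s₁.filter (fun k : s' => Cl2 h r a k.1),
            ENNReal.ofReal (Cob_622.CB p K (X.m k)) * D.J k +
          (∑ k ∈ (s₁.filter fun k : s' => ¬ Cl2 h r a k.1).filter (fun k : s' => Cl3 h a k.1),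
            ENNReal.ofReal (Cob_622.CB p K (X.m k)) * D.J k +
          ∑ k ∈ (s₁.filter fun k : s' => ¬ Cl2 h r a k.1).filter (fun k : s' => ¬ Cl3 h a k.1),
            ENNReal.ofReal (Cob_622.CB p K (X.m k)) * D.J k) := by
      rw [Finset.sum_filter_add_sum_filter_not, Finset.sum_filter_add_sum_filter_not]
    rw [hsum]
    have b2 := c2s (s₁.filter (fun k : s' => Cl2 h r a k.1)) (fun k hk => (Finset.mem_filter.1 hk).2)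
    have b3 := c3s ((s₁.filter fun k : s' => ¬ Cl2 h r a k.1).filter (fun k : s' => Cl3 h a k.1))
      ((Finset.filter_subset _ _).trans (Finset.filter_subset _ _)) (fun k hk =>
        ⟨(Finset.mem_filter.1 (Finset.mem_filter.1 hk).1).2, (Finset.mem_filter.1 hk).2⟩)
    have b1 := c1s ((s₁.filter fun k : s' => ¬ Cl2 h r a k.1).filter (fun k : s' => ¬ Cl3 h a k.1))
      (fun k hk => tri h hκ hbq ha' hrκ k
        (Finset.mem_filter.1 (Finset.mem_filter.1 hk).1).2 (Finset.mem_filter.1 hk).2)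
    have hE : ∫⁻ y in E1 Om Qb, En p G y ≤
        ∫⁻ y in Om \ ⋃ j ∈ {j | kk j ∈ Q}, ((Qb j).tr a).Kc, En p G y :=
      lintegral_mono_set (E1_sub_Kc hψa _)
    have e3 : ENNReal.ofReal e₀ =
        ENNReal.ofReal (e₀ / 3) + ENNReal.ofReal (e₀ / 3) + ENNReal.ofReal (e₀ / 3) := by
      rw [← ENNReal.ofReal_add he3.le he3.le, ← ENNReal.ofReal_add (by positivity) he3.le]
      congr 1
      ring
    rw [e3]
    calc _ ≤ ENNReal.ofReal (e₀ / 3) + (ENNReal.ofReal (e₀ / 3) +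
          (ENNReal.ofReal (14 * n1 * C1) * (∫⁻ y in E1 Om Qb, En p G y) +
            ENNReal.ofReal (e₀ / 3))) := add_le_add b2 (add_le_add b3 b1)
      _ ≤ ENNReal.ofReal (e₀ / 3) + (ENNReal.ofReal (e₀ / 3) +
          (ENNReal.ofReal (14 * n1 * C1) *
            (∫⁻ y in Om \ ⋃ j ∈ {j | kk j ∈ Q}, ((Qb j).tr a).Kc, En p G y) +
            ENNReal.ofReal (e₀ / 3))) := by gcongr
      _ = ENNReal.ofReal (14 * n1 * C1) *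
            (∫⁻ y in Om \ ⋃ j ∈ {j | kk j ∈ Q}, ((Qb j).tr a).Kc, En p G y) +
          (ENNReal.ofReal (e₀ / 3) + ENNReal.ofReal (e₀ / 3) + ENNReal.ofReal (e₀ / 3)) := by ring
  · refine (c2s s₂ fun k hk => ?_).trans (ENNReal.ofReal_le_ofReal (by linarith))
    obtain ⟨j, -, x, hx, z, hz, hxz⟩ := hs₂ k hk
    exact cl2_of_wall h ha' hx hz (hxz.trans (by gcongr))

end Crest.Agent.R096.Elc_812
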