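/-
helper565, row 96, p ≤ 2, (EL): `cls1 : Cls1` = the class statement (1) of 538's energy list over
`outer_J` (Elf3).
-/
import Mathlib
import Crest.Agent.R096.Elf3_565
import Crest.Agent.R096.Gsc3_476
import Crest.Agent.R96.Eld1_538

set_option autoImplicit false
set_option linter.unusedSectionVars false
set_option linter.style.longLine false
set_option maxHeartbeats 400000

open MeasureTheory Set Metric
open scoped ENNReal NNReal

namespace Crest.Agent.R096.Elf_565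

open Crest.AnalysisR.VecCalc3 (R3)
open Crest.Agent.R096.Msh_715 Crest.Agent.R096.Msh_715.Tiling Crest.Agent.R096.Mal_874
open Crest.Agent.R096.Msb_432 Crest.Agent.R096.Msh_810 Crest.Agent.R096.Cut_874
open Crest.Agent.R096.Fce_793 (pt)
open Crest.Agent.R96.Rmo_538 (Zg mem_Zg hs hs_pos muO)
open Crest.Agent.R096.Sq_55 (E3 w2 Sys FaceOf)
open Crest.Agent.R096.Cob_622 (EF)
open Crest.Agent.R096.Efi_296
open Crest.Agent.R096.Muf_812 (muOF muE xF eF sF wF rm_muE muE_cel)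
open Crest.Agent.R96.Els_538
open Crest.Agent.R096.Ca_855 (MIn dist_le_P3s)
open Crest.Agent.R96.En10_199 (P3)
open Crest.Agent.R096.Rmt_816 (Bj norm_D0)
open Crest.Agent.R96.Eld_538 (Cl1 AdE Cls1)
open Crest.Agent.R096.Onf_802 (ON)

noncomputable section

section gen

variable {J : Type*} {M : MD R3 3 J} {k : J → ℕ} {hk : M.Sc k} {a : R3} {v : J → R3}
  {hv : M.Adm v}

/-- `outer_J` with another name of the domain and of the base point -/
theorem outer_J' (hS : Std M) {K0 : ℕ} (hK0 : ∀ y, M.D0.ρ y ≤ M.D0.C / 2 ^ K0) (hC : 2 ≤ M.D0.C)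
    {b : Fin 3 → ℝ} (hb : b = M.φ a) {Om1 : Set R3} (hd : M.φ ⁻¹' M.D0.Om = Om1)
    {s : Finset (SIx M hk b hv)} {pr : (Te (reOm (meshS M hk b hv) hd)).Cell → Prop}
    {X : Sys s (reps (Te (reOm (meshS M hk b hv) hd)) s pr)} {Om' : Set R3} {g : R3 → ℝ≥0∞}
    (D : EF X Om' g (EgS (Te (reOm (meshS M hk b hv) hd)) s)
      (FcS (Te (reOm (meshS M hk b hv) hd)) s pr)) {c : SIx M hk b hv → E3}
    (hc : ∀ i, c i ∈ I ((Te (reOm (meshS M hk b hv) hd)).H i))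
    (hXF : ∀ x : reps (Te (reOm (meshS M hk b hv) hd)) s pr,
      FaceOf (Te (reOm (meshS M hk b hv) hd)) c (x : E3) (X.F x))
    (hXP : ∀ t : s, (X.C t).P = P ((Te (reOm (meshS M hk b hv) hd)).H t))
    (hfc : ∀ b, D.fc b = w2 '' b.1.set)
    (hrE : ∀ x, D.rimE x = rimS (Te (reOm (meshS M hk b hv) hd)) s (x : E3))
    (hEe : ∀ e : EgS (Te (reOm (meshS M hk b hv) hd)) s, ∀ y w : R3,
      w2 '' e.1.set = segment ℝ y (y + w) →
      D.Ee e ≤ ENNReal.ofReal (64 * ‖w‖) * ∫⁻ σ in Ioc (0:ℝ) 1, g (y + σ • w)) {CE : ℝ≥0∞}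
    (hEf : ∀ (f : FcS (Te (reOm (meshS M hk b hv) hd)) s pr) (e' : Fin 2 → R3) (x' : R3)
      (Q' : Set (ℝ × ℝ)), (∀ i, ‖e' i‖ = 1) → inner ℝ (e' 0) (e' 1) = 0 → MeasurableSet Q' →
      w2 '' f.1.set = pt e' x' '' Q' → D.Ef f ≤ CE * ∫⁻ w in Q', g (pt e' x' w))
    {K : Finset s} (hK : ∀ t ∈ K, Far M hk b hv t) {r : s → ℝ≥0}
    (hr : ∀ t ∈ K, ∀ x : reps (Te (reOm (meshS M hk b hv) hd)) s pr,
      (t : SIx M hk b hv) ∈ (Te (reOm (meshS M hk b hv) hd)).at_ (x : E3) → (X.F x).ρ ≤ r t)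
    {S : Set R3} (hSm : MeasurableSet S)
    (hKS : ∀ t ∈ K, ∀ t' : SIx M hk b hv, (P ((meshS M hk b hv).H t) ∩
      P ((meshS M hk b hv).H t')).Nonempty → P ((meshS M hk b hv).H t') ⊆ S)
    {Λ : ℝ≥0}
    (hR : ∀ t ∈ K, ∀ p, (t : SIx M hk b hv) = oS M hk b hv p →
      ((X.C t).R : ℝ) ≤ Λ * (1 / 2 ^ (p.1.par.1.1.k + 1)) ∧
      (r t : ℝ) ≤ Λ * (1 / 2 ^ (p.1.par.1.1.k + 1))) :
    ∑ t ∈ K, D.J t ≤ (1580544 * (Λ:ℝ≥0∞) ^ 2 + 384 * Λ * CE) *
      ∫⁻ y in S, g y ∂(muE M.φ (Dw M k) K0 a) := by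
  subst hb
  subst hd
  exact outer_J hS hK0 hC D hc hXF hXP hfc hrE hEe hEf hK hr hSm hKS hR

end gen

section cls

variable {Om W : Set R3} {ρ₀ : R3 → ℝ} {J : Type} [Finite J] {Qb : J → CB R3 3} {k0 : ℕ} {σ : ℝ}
  (h : MIn Om W ρ₀ Qb k0 σ)

theorem std_M : Std h.M := fun _ _ => rfl

theorem rho_M (y : Fin 3 → ℝ) : h.M.D0.ρ y ≤ h.M.D0.C / 2 ^ k0 := by
  show h.D0.ρ y ≤ 6 / 2 ^ k0
  rw [h.D0_ρ]
  exact min_le_right _ _

theorem C_M : h.M.D0.C = 6 := rfl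

/-- a tile of class (1) is a far outer piece -/
theorem far_of_cl1 {a : R3} {r : ℝ} (hr : 2 ≤ r) {t : h.ιT a} (ht : Cl1 h r a t) :
    Far h.M h.sc (0 + h.M.φ (h.cl a)) (h.adm a) t := by
  constructor
  · rcases Crest.Agent.R096.Gsc_476.outer_or h.M h.sc (0 + h.M.φ (h.cl a)) (h.adm a) t with
      ⟨p, hp, h1⟩ | ⟨j, hj⟩
    · exact ⟨p, h1⟩
    · exact absurd hj (ht.1 j)
  · intro j x hx y hy
    refine lt_of_le_of_lt ?_ (ht.2 j x hx y hy)
    exact div_le_div_of_nonneg_right hr (by positivity)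

/-- the diameter of a far outer tile -/
theorem diam_far {J : Type*} {M : MD R3 3 J} {k : J → ℕ} {hk : M.Sc k} {a : Fin 3 → ℝ} {v : J → R3}
    {hv : M.Adm v} (hφ : ∀ x y : R3, dist x y ≤ 2 * dist (M.φ x) (M.φ y)) {t : SIx M hk a hv}
    (ht : Far M hk a hv t) {p : M.OIx hk a hv} (hp : t = oS M hk a hv p) {y y' : R3}
    (hy : y ∈ P ((meshS M hk a hv).H t)) (hy' : y' ∈ P ((meshS M hk a hv).H t)) :
    ‖y - y'‖ ≤ 4 * (1 / 2 ^ (p.1.par.1.1.k + 1)) := by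
  obtain ⟨q, hq, hR⟩ := touch_far ht hy hy
  have hpq : p = q := by
    have h1 : oS M hk a hv p = oS M hk a hv q := hp.symm.trans hq
    unfold oS at h1
    simpa using h1
  subst hpq
  rw [hq, hR.P_eq] at hy hy'
  have h1 : dist (M.φ y) (M.φ y') ≤ 1 / 2 ^ p.1.par.1.1.k := by
    rw [dist_pi_le_iff (by positivity)]
    intro i
    have g1 := mem_Cu.1 hy i
    have g2 := mem_Cu.1 hy' i
    unfold ps at g1 g2
    rw [Real.dist_eq, abs_le, le_div_iff₀ (by positivity), ← neg_div,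
      div_le_iff₀ (by positivity)]
    constructor <;> nlinarith [g1.1, g1.2, g2.1, g2.2]
  rw [← dist_eq_norm]
  have h2 := hφ y y'
  have e : (4:ℝ) * (1 / 2 ^ (p.1.par.1.1.k + 1)) = 2 * (1 / 2 ^ p.1.par.1.1.k) := by
    rw [pow_succ]; field_simp; norm_num
  rw [e]
  linarith

end cls

/-- **CLASS STATEMENT (1)** of the energy list -/
theorem cls1 : Cls1 := by
  intro mU
  set Λ : ℝ≥0 := 4 * (mU + mU ^ 2) with hΛ
  refine ⟨(1580544 * Λ ^ 2 + 384 * Λ * 64 : ℝ≥0) + 1, 36, 144, by positivity, by norm_num,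
    by norm_num, ?_⟩
  intro Om W ρ₀ J _ Qb k0 σ h
  refine ⟨fun a => muE h.M.φ (Dw h.M (fun _ => k0)) k0 a, ?_, ?_, ?_⟩
  · have h1 := rm_muE h.M.φ (Dw h.M (fun _ => k0)) k0
    rw [show (ENNReal.ofReal 36) = 36 by norm_num, one_div]
    exact h1
  · intro a _ z s' hs'
    have hpos : (0:ℝ) < 1 / 2 ^ k0 := by positivity
    refine muE_cel (std_M h) (D := Dw h.M (fun _ => k0)) (le_refl (6:ℝ)) a z (hpos.trans_le hs') ?_
    rwa [← one_div]
  · intro p G mN a ha s pr c R ρ m X D hA K hK S hSm hKS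
    have ha8 : ‖a‖ ≤ σ / 8 := (norm_D0 h a ha).le
    have hcl : h.cl a = a := h.cl_eq ha8
    have hFar : ∀ t ∈ K, Far h.M h.sc (0 + h.M.φ (h.cl a)) (h.adm a) (t : h.ιT a) :=
      fun t ht => far_of_cl1 h (by norm_num) (hK t ht)
    have hRt : ∀ t ∈ K, ∀ p, (t : h.ιT a) = oS h.M h.sc (0 + h.M.φ (h.cl a)) (h.adm a) p →
        (R t : ℝ) ≤ mU * (4 * (1 / 2 ^ (p.1.par.1.1.k + 1))) := by
      intro t ht p hp
      obtain ⟨y, hy, y', hy', h1⟩ := hA.RdU t t.2 (hK t ht)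
      refine h1.trans ?_
      have h2 := diam_far (M := h.M) (fun x y => dist_le_P3s x y) (hFar t ht) hp hy hy'
      gcongr
    have hr' : ∀ t ∈ K, ∀ x : reps (Te (h.T a)) s pr, (t : h.ιT a) ∈ (Te (h.T a)).at_ (x : E3) →
        (X.F x).ρ ≤ mU * R t := by
      intro t ht x hx
      rw [hA.sys.eρ]
      refine (hA.ρle x x.2 t t.2 hx).trans ?_
      have := hA.mleU t t.2 (hK t ht)
      gcongr
    have hR' : ∀ t ∈ K, ∀ p, (t : h.ιT a) = oS h.M h.sc (0 + h.M.φ (h.cl a)) (h.adm a) p →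
        ((X.C t).R : ℝ) ≤ Λ * (1 / 2 ^ (p.1.par.1.1.k + 1)) ∧
        ((mU * R t : ℝ≥0) : ℝ) ≤ Λ * (1 / 2 ^ (p.1.par.1.1.k + 1)) := by
      intro t ht p hp
      have h1 := hRt t ht p hp
      rw [hA.sys.eR]
      have h0 : (0:ℝ) ≤ mU := NNReal.coe_nonneg _
      have h2 : (0:ℝ) < 1 / 2 ^ (p.1.par.1.1.k + 1) := by positivity
      have e : (Λ:ℝ) = 4 * (mU + mU ^ 2) := by rw [hΛ]; push_cast; ring
      rw [e]
      constructor
      · nlinarith [mul_nonneg (mul_nonneg h0 h0) h2.le]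
      · push_cast
        have h3 : (mU:ℝ) * R t ≤ mU * (mU * (4 * (1 / 2 ^ (p.1.par.1.1.k + 1)))) :=
          mul_le_mul_of_nonneg_left h1 h0
        nlinarith [mul_nonneg h0 h2.le]
    have key := outer_J' (M := h.M) (hk := h.sc) (hv := h.adm a) (a := a) (std_M h) (rho_M h)
      (by rw [C_M]; norm_num) (b := 0 + h.M.φ (h.cl a)) (by rw [zero_add, hcl]) h.dom
      (s := s) (pr := pr) (X := X) D (c := c) hA.sys.c_mem hA.sys.F hA.sys.eP hA.fc hA.rim hA.Ee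
      (CE := 64) (fun f e' x' Q' h1 h2 h3 h4 => hA.Ef f e' x' Q' ⟨h1 0, h1 1, h2⟩ h3 h4)
      (K := K) hFar (r := fun t => mU * R t.1) hr' hSm hKS (Λ := Λ) hR'
    refine key.trans (mul_le_mul' ?_ le_rfl)
    rw [ENNReal.ofReal_add (by positivity) (by norm_num), ENNReal.ofReal_coe_nnreal]
    refine le_trans (le_of_eq ?_) le_self_add
    push_cast
    ring

end

end Crest.Agent.R096.Elf_565
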