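/-
helper565, row 96, p ≤ 2: (EL) closed: `elP : ElP p Els`.
-/
import Crest.Agent.R096.Elf4_565
import Crest.Agent.R096.Elc2_812
import Crest.Agent.R096.Rmt6_816

set_option autoImplicit false

namespace Crest.Agent.R096.Elf_565

/-- **THE ENERGY LIST** (EL) of 753's `preIN_frame` -/
theorem elP {p : ℝ} (hp : 1 ≤ p) (hp2 : p ≤ 2) :
    Crest.Agent.R096.Pas_753.ElP p Crest.Agent.R96.Eld_538.Els :=
  Crest.Agent.R096.Elc_812.elP_of hp hp2 cls1 Crest.Agent.R096.Rmt_816.cls2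
    Crest.Agent.R096.Rmt_816.cls3

end Crest.Agent.R096.Elf_565
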