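import Crest.Agent.R096.Br2_695
import Crest.Agent.R96.Intr24_538

/-!
Row 96 (S0127), helper372.  Leaf [NEAR-AFF] of helper753 (`PreIN p`): on the good cubes, where
`Gmat G` is `L^p`-close to the linear maps `L k`, the energy `∫ (1 + En p G)` over a measurable set `E`
is at most `(1 + 6 κ^{-p}) volume E + 6 e1`.
-/

set_option autoImplicit false
set_option linter.unusedSectionVars false
set_option linter.style.longLine false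

open MeasureTheory Set Filter Topology Metric
open scoped ENNReal NNReal

namespace Crest.Agent.R096.Naf_372

open Crest.AnalysisR.VecCalc3 Crest.AnalysisR.Sobolev
open Crest.Agent.R096.Br_695 (En)
open Crest.Agent.R96.Lu_538 (Gmat norm_row_le)
open Crest.Agent.R96.Intr_538 (cel isCompact_cel)
open Crest.Agent.R96.Coarse_538 (vt Cb ref_Cb)

noncomputable section

/-- union bound without any measurability of the functions -/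
theorem lint_cover {X ι : Type*} [MeasurableSpace X] {μ : Measure X} (Q : Finset ι) {U : ι → Set X}
    (hU : ∀ k ∈ Q, MeasurableSet (U k)) {f : X → ℝ≥0∞} {g : ι → X → ℝ≥0∞} {A : ℝ≥0∞}
    (h : ∀ k ∈ Q, ∀ x ∈ U k, f x ≤ A + g k x) {E : Set X} (hE : MeasurableSet E) :
    ∫⁻ x in E ∩ ⋃ k ∈ Q, U k, f x ∂μ ≤
      A * μ (E ∩ ⋃ k ∈ Q, U k) + ∑ k ∈ Q, ∫⁻ x in E ∩ U k, g k x ∂μ := by
  classical
  induction Q using Finset.induction_on with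
  | empty => simp
  | insert a Q ha ih =>
    have hUa := hU a (Finset.mem_insert_self _ _)
    have hUQ : ∀ k ∈ Q, MeasurableSet (U k) := fun k hk => hU k (Finset.mem_insert_of_mem hk)
    have ih' := ih hUQ fun k hk => h k (Finset.mem_insert_of_mem hk)
    have hW : MeasurableSet (⋃ k ∈ Q, U k) := Finset.measurableSet_biUnion Q hUQ
    have h1 : E ∩ ⋃ k ∈ insert a Q, U k =
        (E ∩ ⋃ k ∈ Q, U k) ∪ ((E ∩ U a) \ ⋃ k ∈ Q, U k) := by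
      rw [Finset.set_biUnion_insert]
      ext x
      simp only [mem_inter_iff, mem_union, Set.mem_sdiff]
      tauto
    have hd : Disjoint (E ∩ ⋃ k ∈ Q, U k) ((E ∩ U a) \ ⋃ k ∈ Q, U k) :=
      Set.disjoint_left.2 fun x hx hx' => hx'.2 hx.2
    have hm : MeasurableSet ((E ∩ U a) \ ⋃ k ∈ Q, U k) := (hE.inter hUa).diff hW
    rw [h1, lintegral_union hm hd, measure_union hd hm, Finset.sum_insert ha]
    have h2 : ∫⁻ x in (E ∩ U a) \ ⋃ k ∈ Q, U k, f x ∂μ ≤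
        A * μ ((E ∩ U a) \ ⋃ k ∈ Q, U k) + ∫⁻ x in E ∩ U a, g a x ∂μ := by
      calc ∫⁻ x in (E ∩ U a) \ ⋃ k ∈ Q, U k, f x ∂μ
          ≤ ∫⁻ x in (E ∩ U a) \ ⋃ k ∈ Q, U k, (A + g a x) ∂μ :=
            setLIntegral_mono' hm fun x hx => h a (Finset.mem_insert_self _ _) x hx.1.2
        _ = A * μ ((E ∩ U a) \ ⋃ k ∈ Q, U k) + ∫⁻ x in (E ∩ U a) \ ⋃ k ∈ Q, U k, g a x ∂μ := by
            rw [lintegral_add_left measurable_const, lintegral_const, Measure.restrict_apply_univ]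
        _ ≤ _ := by
            gcongr
            exact sdiff_subset
    calc (∫⁻ x in E ∩ ⋃ k ∈ Q, U k, f x ∂μ) + ∫⁻ x in (E ∩ U a) \ ⋃ k ∈ Q, U k, f x ∂μ
        ≤ (A * μ (E ∩ ⋃ k ∈ Q, U k) + ∑ k ∈ Q, ∫⁻ x in E ∩ U k, g k x ∂μ) +
          (A * μ ((E ∩ U a) \ ⋃ k ∈ Q, U k) + ∫⁻ x in E ∩ U a, g a x ∂μ) := add_le_add ih' h2
      _ = _ := by ring

/-- pointwise: the energy density against the distance to a linear map -/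
theorem en_le {p : ℝ} (hp1 : 1 ≤ p) (hp2 : p ≤ 2) (G : Fin 3 → R3 → R3) (x : R3)
    (L : R3 →L[ℝ] R3) :
    En p G x ≤ 6 * ‖L‖ₑ ^ p + 6 * ‖Gmat G x - L‖ₑ ^ p := by
  have hp0 : 0 ≤ p := by linarith
  have h1 : ∀ j : Fin 3, ‖G j x‖ₑ ^ p ≤ ‖Gmat G x‖ₑ ^ p := fun j =>
    ENNReal.rpow_le_rpow (by
      rw [← ofReal_norm, ← ofReal_norm]
      exact ENNReal.ofReal_le_ofReal (norm_row_le (fun j => G j x) j)) hp0
  have h2 : ‖Gmat G x‖ₑ ≤ ‖L‖ₑ + ‖Gmat G x - L‖ₑ := by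
    rw [← ofReal_norm, ← ofReal_norm, ← ofReal_norm,
      ← ENNReal.ofReal_add (norm_nonneg _) (norm_nonneg _)]
    apply ENNReal.ofReal_le_ofReal
    calc ‖Gmat G x‖ = ‖L + (Gmat G x - L)‖ := by congr 1; abel
      _ ≤ _ := norm_add_le _ _
  have h3 : ‖Gmat G x‖ₑ ^ p ≤ 2 * (‖L‖ₑ ^ p + ‖Gmat G x - L‖ₑ ^ p) := by
    calc ‖Gmat G x‖ₑ ^ p ≤ (‖L‖ₑ + ‖Gmat G x - L‖ₑ) ^ p := ENNReal.rpow_le_rpow h2 hp0
      _ ≤ 2 ^ (p - 1) * (‖L‖ₑ ^ p + ‖Gmat G x - L‖ₑ ^ p) :=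
        ENNReal.rpow_add_le_mul_rpow_add_rpow _ _ hp1
      _ ≤ 2 * (‖L‖ₑ ^ p + ‖Gmat G x - L‖ₑ ^ p) := by
        gcongr
        calc (2:ℝ≥0∞) ^ (p - 1) ≤ 2 ^ (1:ℝ) :=
              ENNReal.rpow_le_rpow_of_exponent_le (by norm_num) (by linarith)
          _ = 2 := ENNReal.rpow_one _
  calc En p G x = ∑ j : Fin 3, ‖G j x‖ₑ ^ p := rfl
    _ ≤ ∑ _j : Fin 3, ‖Gmat G x‖ₑ ^ p := Finset.sum_le_sum fun j _ => h1 j
    _ = 3 * ‖Gmat G x‖ₑ ^ p := by simp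
    _ ≤ 3 * (2 * (‖L‖ₑ ^ p + ‖Gmat G x - L‖ₑ ^ p)) := by gcongr
    _ = _ := by ring

/-- **[NEAR-AFF]**, any closed (measurable) cells `U k` -/
theorem near_aff_gen {p : ℝ} (hp1 : 1 ≤ p) (hp2 : p ≤ 2) {κ e1 : ℝ} (hκ : 0 < κ)
    {ι : Type*} {G : Fin 3 → R3 → R3} (Q₀ : Finset ι) {U : ι → Set R3}
    (hU : ∀ k ∈ Q₀, MeasurableSet (U k)) {L : ι → R3 →L[ℝ] R3} (hL : ∀ k ∈ Q₀, ‖L k‖ ≤ κ⁻¹)
    (he : (∑ k ∈ Q₀, ∫⁻ x in U k, ‖Gmat G x - L k‖ₑ ^ p) ≤ ENNReal.ofReal e1)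
    {E : Set R3} (hE : MeasurableSet E) (hEs : E ⊆ ⋃ k ∈ Q₀, U k) :
    ∫⁻ x in E, (1 + En p G x) ≤
      ENNReal.ofReal (6 * (1 + κ⁻¹ ^ p)) * volume E + ENNReal.ofReal (6 * e1) := by
  have hp0 : 0 ≤ p := by linarith
  have hκ0 : (0:ℝ) < κ⁻¹ := inv_pos.2 hκ
  have h6 : ENNReal.ofReal (6 * (1 + κ⁻¹ ^ p)) = 6 + 6 * ENNReal.ofReal (κ⁻¹) ^ p := by
    rw [ENNReal.ofReal_mul (by norm_num), ENNReal.ofReal_add (by norm_num) (by positivity),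
      ENNReal.ofReal_rpow_of_pos hκ0, ENNReal.ofReal_one]
    norm_num
    ring
  have h0 := lint_cover (μ := (volume : Measure R3)) Q₀ hU (f := fun x => 1 + En p G x)
    (g := fun k x => 6 * ‖Gmat G x - L k‖ₑ ^ p) (A := ENNReal.ofReal (6 * (1 + κ⁻¹ ^ p)))
    (by
      intro k hk x _
      have h1 := en_le hp1 hp2 G x (L k)
      have h2 : ‖L k‖ₑ ^ p ≤ ENNReal.ofReal (κ⁻¹) ^ p :=
        ENNReal.rpow_le_rpow (by
          rw [← ofReal_norm]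
          exact ENNReal.ofReal_le_ofReal (hL k hk)) hp0
      calc 1 + En p G x ≤ 1 + (6 * ‖L k‖ₑ ^ p + 6 * ‖Gmat G x - L k‖ₑ ^ p) := by gcongr
        _ ≤ 6 + (6 * ENNReal.ofReal (κ⁻¹) ^ p + 6 * ‖Gmat G x - L k‖ₑ ^ p) := by
          gcongr
          norm_num
        _ = _ := by rw [h6]; ring) hE
  have h1 : E ∩ ⋃ k ∈ Q₀, U k = E := inter_eq_left.2 hEs
  rw [h1] at h0
  refine h0.trans ?_
  gcongr
  calc ∑ k ∈ Q₀, ∫⁻ x in E ∩ U k, 6 * ‖Gmat G x - L k‖ₑ ^ p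
      ≤ ∑ k ∈ Q₀, 6 * ∫⁻ x in U k, ‖Gmat G x - L k‖ₑ ^ p := by
        refine Finset.sum_le_sum fun k _ => ?_
        rw [← lintegral_const_mul' _ _ (by norm_num)]
        exact lintegral_mono_set inter_subset_right
    _ = 6 * ∑ k ∈ Q₀, ∫⁻ x in U k, ‖Gmat G x - L k‖ₑ ^ p := by rw [Finset.mul_sum]
    _ ≤ 6 * ENNReal.ofReal e1 := by gcongr
    _ = ENNReal.ofReal (6 * e1) := by
        rw [ENNReal.ofReal_mul (by norm_num)]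
        norm_num

/-- **[NEAR-AFF]** for the closed cubes `cel Cb (z k) s` -/
theorem near_aff {p : ℝ} (hp1 : 1 ≤ p) (hp2 : p ≤ 2) {κ e1 s : ℝ} (hκ : 0 < κ)
    {G : Fin 3 → R3 → R3} {Q₀ : Finset (Fin 3 → ℤ)} {z : (Fin 3 → ℤ) → R3}
    {L : (Fin 3 → ℤ) → R3 →L[ℝ] R3} (hL : ∀ k ∈ Q₀, ‖L k‖ ≤ κ⁻¹)
    (he : (∑ k ∈ Q₀, ∫⁻ x in cel Cb (z k) s, ‖Gmat G x - L k‖ₑ ^ p) ≤ ENNReal.ofReal e1)
    {E : Set R3} (hE : MeasurableSet E) (hEs : E ⊆ ⋃ k ∈ Q₀, cel Cb (z k) s) :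
    ∫⁻ x in E, (1 + En p G x) ≤
      ENNReal.ofReal (6 * (1 + κ⁻¹ ^ p)) * volume E + ENNReal.ofReal (6 * e1) :=
  near_aff_gen hp1 hp2 hκ Q₀
    (fun k _ => (isCompact_cel ref_Cb.cpt (z k) s).isClosed.measurableSet) hL he hE hEs

/-- the same with `PreIN`'s bounds on `L k` -/
theorem near_aff' {p : ℝ} (hp1 : 1 ≤ p) (hp2 : p ≤ 2) {κ e1 s : ℝ} (hκ : 0 < κ)
    {G : Fin 3 → R3 → R3} {Q₀ Q : Finset (Fin 3 → ℤ)} (hQ : Q ⊆ Q₀) {z : (Fin 3 → ℤ) → R3}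
    {L : (Fin 3 → ℤ) → R3 →L[ℝ] R3} (hL : ∀ k ∈ Q₀, (∀ v, κ * ‖v‖ ≤ ‖L k v‖) ∧ ‖L k‖ ≤ κ⁻¹)
    (he : (∑ k ∈ Q₀, ∫⁻ x in cel Cb (z k) s, ‖Gmat G x - L k‖ₑ ^ p) ≤ ENNReal.ofReal e1)
    {E : Set R3} (hE : MeasurableSet E) (hEs : E ⊆ ⋃ k ∈ Q, cel Cb (z k) s) :
    ∫⁻ x in E, (1 + En p G x) ≤
      ENNReal.ofReal (6 * (1 + κ⁻¹ ^ p)) * volume E + ENNReal.ofReal (6 * e1) :=
  near_aff hp1 hp2 hκ (fun k hk => (hL k hk).2) he hE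
    (hEs.trans (iUnion₂_subset fun k hk => subset_iUnion₂ (s := fun k (_ : k ∈ Q₀) =>
      cel Cb (z k) s) k (hQ hk)))

end

end Crest.Agent.R096.Naf_372
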