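import Crest.Agent.R096.Pin1_753

/-!
# Row 96 (S0127), helper186: [VOL-LY] of 753 #11357

Volume of the layer of width `r / 2 ^ k0` (in the coordinates of the frame) at the wall of a core
block: a small fraction of the volume of the block.
-/

set_option autoImplicit false
set_option linter.style.longLine false

open MeasureTheory Set Filter Topology Metric
open scoped ENNReal NNReal Pointwise

namespace Crest.Agent.R096.Vly_186

open Crest.AnalysisR.VecCalc3
open Crest.Agent.R096.Msh_715 Crest.Agent.R096.Mal_874 Crest.Agent.R096.Msh_810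

/-- product of a small and two large factors -/
theorem prod_ite (l : Fin 3) (A B : ℝ) : (∏ m : Fin 3, if m = l then A else B) = A * B ^ 2 := by
  rw [Fin.prod_univ_three]
  fin_cases l <;> simp <;> ring

/-- volume of a box with sides `≤ c m * (q m - p m)` -/
theorem vol_le {p q a b c : Fin 3 → ℝ} (hc : ∀ m, 0 ≤ c m)
    (h : ∀ m, b m - a m ≤ c m * (q m - p m)) :
    volume (Icc a b) ≤ ENNReal.ofReal (∏ m, c m) * volume (Icc p q) := by
  rw [Real.volume_Icc_pi, Real.volume_Icc_pi, ENNReal.ofReal_prod_of_nonneg fun m _ => hc m,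
    ← Finset.prod_mul_distrib]
  refine Finset.prod_le_prod' fun m _ => ?_
  rw [← ENNReal.ofReal_mul (hc m)]
  exact ENNReal.ofReal_le_ofReal (h m)

/-- **the layer at the boundary of a box** -/
theorem vol_layer {p q : Fin 3 → ℝ} {δ η : ℝ} (hη : 0 < η) (hδ : 0 ≤ δ) (h : ∀ l, η ≤ q l - p l) :
    volume {x : Fin 3 → ℝ | (∀ l, p l - δ ≤ x l ∧ x l ≤ q l + δ) ∧
      ∃ l, |x l - p l| ≤ δ ∨ |x l - q l| ≤ δ} ≤
    ENNReal.ofReal (48 * (δ / η) * (1 + δ / η) ^ 2) * volume (Icc p q) := by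
  set t : ℝ := δ / η with ht
  have ht0 : 0 ≤ t := by positivity
  have hδt : δ = t * η := by rw [ht]; field_simp
  let S1 : Fin 3 → Set (Fin 3 → ℝ) := fun l =>
    Icc (fun m => if m = l then p m - δ else p m - δ) (fun m => if m = l then p m + δ else q m + δ)
  let S2 : Fin 3 → Set (Fin 3 → ℝ) := fun l =>
    Icc (fun m => if m = l then q m - δ else p m - δ) (fun m => if m = l then q m + δ else q m + δ)
  have hsub : {x : Fin 3 → ℝ | (∀ l, p l - δ ≤ x l ∧ x l ≤ q l + δ) ∧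
      ∃ l, |x l - p l| ≤ δ ∨ |x l - q l| ≤ δ} ⊆ ⋃ l, (S1 l ∪ S2 l) := by
    rintro x ⟨hx, l, hl⟩
    rw [mem_iUnion]
    refine ⟨l, ?_⟩
    rcases hl with hl | hl
    · left
      rw [abs_le] at hl
      constructor
      · intro m
        simp only [ite_self]
        exact (hx m).1
      · intro m
        show x m ≤ if m = l then p m + δ else q m + δ
        split_ifs with hm
        · subst hm; linarith [hl.2]
        · exact (hx m).2
    · right
      rw [abs_le] at hl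
      constructor
      · intro m
        show (if m = l then q m - δ else p m - δ) ≤ x m
        split_ifs with hm
        · subst hm; linarith [hl.1]
        · exact (hx m).1
      · intro m
        simp only [ite_self]
        exact (hx m).2
  have hc : ∀ l m : Fin 3, 0 ≤ (if m = l then 2 * t else 1 + 2 * t) := by
    intro l m; split_ifs <;> positivity
  have hL : ∀ m, δ ≤ t * (q m - p m) := by
    intro m
    rw [hδt]
    exact mul_le_mul_of_nonneg_left (h m) ht0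
  have b1 : ∀ l, volume (S1 l) ≤ ENNReal.ofReal (2 * t * (1 + 2 * t) ^ 2) * volume (Icc p q) := by
    intro l
    rw [← prod_ite l (2 * t) (1 + 2 * t)]
    refine vol_le (hc l) fun m => ?_
    have := hL m
    simp only [ite_self]
    split_ifs <;> linarith
  have b2 : ∀ l, volume (S2 l) ≤ ENNReal.ofReal (2 * t * (1 + 2 * t) ^ 2) * volume (Icc p q) := by
    intro l
    rw [← prod_ite l (2 * t) (1 + 2 * t)]
    refine vol_le (hc l) fun m => ?_
    have := hL m
    simp only [ite_self]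
    split_ifs <;> linarith
  calc volume {x : Fin 3 → ℝ | (∀ l, p l - δ ≤ x l ∧ x l ≤ q l + δ) ∧
      ∃ l, |x l - p l| ≤ δ ∨ |x l - q l| ≤ δ} ≤ volume (⋃ l, (S1 l ∪ S2 l)) := measure_mono hsub
    _ ≤ ∑ l, volume (S1 l ∪ S2 l) := measure_iUnion_fintype_le _ _
    _ ≤ ∑ _l : Fin 3, (2 * (ENNReal.ofReal (2 * t * (1 + 2 * t) ^ 2) * volume (Icc p q))) := by
        refine Finset.sum_le_sum fun l _ => ?_
        refine (measure_union_le _ _).trans ?_
        rw [two_mul]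
        exact add_le_add (b1 l) (b2 l)
    _ = ENNReal.ofReal (12 * t * (1 + 2 * t) ^ 2) * volume (Icc p q) := by
        rw [Finset.sum_const, Finset.card_univ, Fintype.card_fin, nsmul_eq_mul, ← mul_assoc,
          ← mul_assoc]
        congr 1
        have e : (12 * t * (1 + 2 * t) ^ 2 : ℝ) = 6 * (2 * t * (1 + 2 * t) ^ 2) := by ring
        rw [e, ENNReal.ofReal_mul (by norm_num : (0:ℝ) ≤ 6)]
        congr 1
        rw [show (6 : ℝ) = ((6 : ℕ) : ℝ) by norm_num, ENNReal.ofReal_natCast]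
        norm_num
    _ ≤ ENNReal.ofReal (48 * t * (1 + t) ^ 2) * volume (Icc p q) := by
        refine mul_le_mul_left ?_ _
        refine ENNReal.ofReal_le_ofReal ?_
        nlinarith [mul_nonneg ht0 ht0, mul_nonneg (mul_nonneg ht0 ht0) ht0]

/-- comparison of volumes in the coordinates of a linear frame -/
theorem vol_frame (ψ : R3 ≃L[ℝ] (Fin 3 → ℝ)) {S1 S2 : Set (Fin 3 → ℝ)} (h1 : MeasurableSet S1)
    (h2 : MeasurableSet S2) {K : ℝ≥0∞} (h : volume S1 ≤ K * volume S2) :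
    volume (ψ ⁻¹' S1) ≤ K * volume (ψ ⁻¹' S2) := by
  have hm : Measurable ψ := ψ.continuous.measurable
  have hH : (Measure.map ψ (volume : Measure R3)).IsAddHaarMeasure :=
    ψ.isAddHaarMeasure_map volume
  have e := Measure.isAddLeftInvariant_eq_smul (Measure.map ψ (volume : Measure R3))
    (volume : Measure (Fin 3 → ℝ))
  have k1 := Measure.map_apply (μ := (volume : Measure R3)) hm h1
  have k2 := Measure.map_apply (μ := (volume : Measure R3)) hm h2
  rw [← k1, ← k2, e, Measure.smul_apply, Measure.smul_apply]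
  simp only [ENNReal.smul_def, smul_eq_mul]
  calc _ ≤ _ := mul_le_mul_right h _
    _ = _ := by ring

theorem N_eq (Q : CB R3 3) :
    Q.N = Q.ψ ⁻¹' Icc (fun l => Q.a' l + Q.al l / 2 ^ Q.kc) (fun l => Q.a' l + Q.be l / 2 ^ Q.kc) := by
  have hk : (0 : ℝ) < 2 ^ Q.kc := by positivity
  ext y
  show Q.ψ y ∈ pc Q.a' Q.kc (bx Q.al Q.be) ↔ _
  rw [mem_pc_bx Q.al_lt, mem_preimage, mem_Icc, Pi.le_def, Pi.le_def]
  unfold ps
  constructor
  · intro h
    constructor
    · intro l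
      have := (h l).1
      rw [← sub_nonneg] at this ⊢
      have e : Q.ψ y l - (Q.a' l + Q.al l / 2 ^ Q.kc) =
          (2 ^ Q.kc * (Q.ψ y l - Q.a' l) - Q.al l) / 2 ^ Q.kc := by field_simp; ring
      rw [e]
      positivity
    · intro l
      have := (h l).2
      rw [← sub_nonneg] at this ⊢
      have e : (Q.a' l + Q.be l / 2 ^ Q.kc) - Q.ψ y l =
          (Q.be l - 2 ^ Q.kc * (Q.ψ y l - Q.a' l)) / 2 ^ Q.kc := by field_simp; ring
      rw [e]
      positivity
  · rintro ⟨h1, h2⟩ l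
    constructor
    · have := h1 l
      rw [← sub_nonneg] at this ⊢
      have e : (2 ^ Q.kc * (Q.ψ y l - Q.a' l) - Q.al l : ℝ) =
          (Q.ψ y l - (Q.a' l + Q.al l / 2 ^ Q.kc)) * 2 ^ Q.kc := by field_simp; ring
      rw [e]
      positivity
    · have := h2 l
      rw [← sub_nonneg] at this ⊢
      have e : (Q.be l - 2 ^ Q.kc * (Q.ψ y l - Q.a' l) : ℝ) =
          ((Q.a' l + Q.be l / 2 ^ Q.kc) - Q.ψ y l) * 2 ^ Q.kc := by field_simp; ring
      rw [e]
      positivity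

/-- the layer set of a box is measurable -/
theorem meas_layer (p q : Fin 3 → ℝ) (δ : ℝ) :
    MeasurableSet {x : Fin 3 → ℝ | (∀ l, p l - δ ≤ x l ∧ x l ≤ q l + δ) ∧
      ∃ l, |x l - p l| ≤ δ ∨ |x l - q l| ≤ δ} := by
  have e : {x : Fin 3 → ℝ | (∀ l, p l - δ ≤ x l ∧ x l ≤ q l + δ) ∧
      ∃ l, |x l - p l| ≤ δ ∨ |x l - q l| ≤ δ} =
      (⋂ l, {x : Fin 3 → ℝ | p l - δ ≤ x l} ∩ {x | x l ≤ q l + δ}) ∩
      ⋃ l, {x : Fin 3 → ℝ | |x l - p l| ≤ δ} ∪ {x | |x l - q l| ≤ δ} := by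
    ext x
    simp only [mem_ofPred_eq, mem_inter_iff, mem_iInter, mem_iUnion, mem_union]
  rw [e]
  refine MeasurableSet.inter (MeasurableSet.iInter fun l => ?_) (MeasurableSet.iUnion fun l => ?_)
  · exact (measurableSet_le measurable_const (measurable_pi_apply l)).inter
      (measurableSet_le (measurable_pi_apply l) measurable_const)
  · have m1 : Continuous fun x : Fin 3 → ℝ => |x l - p l| := by fun_prop
    have m2 : Continuous fun x : Fin 3 → ℝ => |x l - q l| := by fun_prop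
    exact (measurableSet_le m1.measurable measurable_const).union
      (measurableSet_le m2.measurable measurable_const)

/-- **[VOL-LY]: the layer at the wall of a block has a small fraction of the volume of the block** -/
theorem vol_ly (Q : CB R3 3) {r θ c1 s : ℝ} {k0 : ℕ} (hr : 0 ≤ r) (hc1 : 0 < c1) (hs : 0 < s)
    (h1 : c1 * s ≤ 1 / 2 ^ Q.kc) (h2 : 1 / 2 ^ k0 ≤ θ * s) :
    volume {y | ∃ z ∈ frontier Q.N, ‖Q.ψ y - Q.ψ z‖ ≤ r / 2 ^ k0} ≤
      ENNReal.ofReal (48 * (r * θ / c1) * (1 + r * θ / c1) ^ 2) * volume Q.N := by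
  have hkc : (0 : ℝ) < 2 ^ Q.kc := by positivity
  have hk0 : (0 : ℝ) < 2 ^ k0 := by positivity
  set p : Fin 3 → ℝ := fun l => Q.a' l + Q.al l / 2 ^ Q.kc with hp
  set q : Fin 3 → ℝ := fun l => Q.a' l + Q.be l / 2 ^ Q.kc with hq
  set δ : ℝ := r / 2 ^ k0 with hδ
  set η : ℝ := 1 / 2 ^ Q.kc with hη
  have hη0 : 0 < η := by positivity
  have hδ0 : 0 ≤ δ := by positivity
  have hpq : ∀ l, η ≤ q l - p l := by
    intro l
    have h3 : ((Q.al l + 1 : ℤ) : ℝ) ≤ Q.be l := by exact_mod_cast Q.al_lt l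
    push_cast at h3
    have e : q l - p l = ((Q.be l : ℝ) - Q.al l) / 2 ^ Q.kc := by rw [hp, hq]; ring
    rw [e, hη]
    exact div_le_div_of_nonneg_right (by linarith) hkc.le
  have hN : Q.N = Q.ψ ⁻¹' Icc p q := N_eq Q
  have hsub : {y | ∃ z ∈ frontier Q.N, ‖Q.ψ y - Q.ψ z‖ ≤ δ} ⊆
      Q.ψ ⁻¹' {x : Fin 3 → ℝ | (∀ l, p l - δ ≤ x l ∧ x l ≤ q l + δ) ∧
      ∃ l, |x l - p l| ≤ δ ∨ |x l - q l| ≤ δ} := by
    rintro y ⟨z, hz, hyz⟩
    have hzN : z ∈ Q.N := Q.frontier_sub hz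
    rw [hN, mem_preimage, mem_Icc] at hzN
    have hl : ∀ l, |Q.ψ y l - Q.ψ z l| ≤ δ := by
      intro l
      have := (norm_le_pi_norm (Q.ψ y - Q.ψ z) l).trans hyz
      rwa [Pi.sub_apply, Real.norm_eq_abs] at this
    rw [Q.frontier_N, mem_preimage] at hz
    obtain ⟨l, hl'⟩ := of_mem_frontier_bx Q.al_lt hz
    refine ⟨fun m => ?_, l, ?_⟩
    · have a1 := hzN.1 m
      have a2 := hzN.2 m
      have a3 := abs_le.1 (hl m)
      constructor <;> linarith [a3.1, a3.2]
    · unfold ps at hl'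
      rcases hl' with hl' | hl'
      · left
        have e : Q.ψ z l = p l := by
          rw [hp]
          simp only
          rw [← hl']
          field_simp
          ring
        rw [← e]
        exact hl l
      · right
        have e : Q.ψ z l = q l := by
          rw [hq]
          simp only
          rw [← hl']
          field_simp
          ring
        rw [← e]
        exact hl l
  have hfr : δ / η ≤ r * θ / c1 := by
    rw [div_le_div_iff₀ hη0 hc1, hδ]
    have k1 : r / 2 ^ k0 ≤ r * (θ * s) := by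
      rw [div_eq_mul_one_div]
      exact mul_le_mul_of_nonneg_left h2 hr
    have hθ : 0 ≤ θ := by
      have : 0 < θ * s := lt_of_lt_of_le (by positivity) h2
      exact (pos_of_mul_pos_left this hs.le).le
    calc r / 2 ^ k0 * c1 ≤ r * (θ * s) * c1 := mul_le_mul_of_nonneg_right k1 hc1.le
      _ = r * θ * (c1 * s) := by ring
      _ ≤ r * θ * η := mul_le_mul_of_nonneg_left h1 (by positivity)
  have hδη : 0 ≤ δ / η := by positivity
  calc volume {y | ∃ z ∈ frontier Q.N, ‖Q.ψ y - Q.ψ z‖ ≤ δ} ≤ _ := measure_mono hsub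
    _ ≤ ENNReal.ofReal (48 * (δ / η) * (1 + δ / η) ^ 2) * volume (Q.ψ ⁻¹' Icc p q) :=
        vol_frame Q.ψ (meas_layer p q δ) measurableSet_Icc (vol_layer hη0 hδ0 hpq)
    _ ≤ ENNReal.ofReal (48 * (r * θ / c1) * (1 + r * θ / c1) ^ 2) * volume Q.N := by
        rw [← hN]
        refine mul_le_mul_left ?_ _
        refine ENNReal.ofReal_le_ofReal ?_
        have k0' : 0 ≤ r * θ / c1 := hδη.trans hfr
        gcongr

open Crest.Agent.R096.Pin_753 in
/-- the layer `Ly` of the block -/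
theorem vol_Ly (Q : CB R3 3) {θ c1 s : ℝ} {k0 : ℕ} (hc1 : 0 < c1) (hs : 0 < s)
    (h1 : c1 * s ≤ 1 / 2 ^ Q.kc) (h2 : 1 / 2 ^ k0 ≤ θ * s) :
    volume (Ly Q k0) ≤
      ENNReal.ofReal (48 * (40 * θ / c1) * (1 + 40 * θ / c1) ^ 2) * volume Q.N :=
  vol_ly Q (by norm_num) hc1 hs h1 h2

/-- the volume of a block is invariant under translations -/
theorem vol_N_tr (Q : CB R3 3) (a : R3) : volume (Q.tr a).N = volume Q.N := by
  have e : (Q.tr a).N = (fun y => y + (-a)) ⁻¹' Q.N := by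
    ext y
    rw [mem_preimage, ← sub_eq_add_neg]
    exact Q.mem_N_tr a y
  rw [e]
  exact measure_preimage_add_right _ _ _

/-- the layer is inside a `ψ`-neighbourhood; measurable -/
theorem isClosed_ly (Q : CB R3 3) (δ : ℝ) :
    IsClosed {y | ∃ z ∈ frontier Q.N, ‖Q.ψ y - Q.ψ z‖ ≤ δ} := by
  have hc : IsCompact (frontier Q.N) :=
    Q.isCompact_N.of_isClosed_subset isClosed_frontier Q.frontier_sub
  have e : {y | ∃ z ∈ frontier Q.N, ‖Q.ψ y - Q.ψ z‖ ≤ δ} =
      Q.ψ ⁻¹' ((Q.ψ '' frontier Q.N) + closedBall 0 δ) := by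
    ext y
    rw [mem_preimage, Set.mem_add]
    constructor
    · rintro ⟨z, hz, h⟩
      exact ⟨Q.ψ z, ⟨z, hz, rfl⟩, Q.ψ y - Q.ψ z, by rwa [mem_closedBall_zero_iff], by abel⟩
    · rintro ⟨_, ⟨z, hz, rfl⟩, w, hw, h⟩
      refine ⟨z, hz, ?_⟩
      rw [mem_closedBall_zero_iff] at hw
      have : Q.ψ y - Q.ψ z = w := by rw [← h]; abel
      rwa [this]
  rw [e]
  exact ((hc.image Q.ψ.continuous).add (isCompact_closedBall _ _)).isClosed.preimage
    Q.ψ.continuous

/-- **sum over disjoint blocks** -/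
theorem sum_ly {J : Type*} [Finite J] (Q : J → CB R3 3) {r θ c1 s : ℝ} {k0 : ℕ} (hr : 0 ≤ r)
    (hc1 : 0 < c1) (hs : 0 < s) (h1 : ∀ j, c1 * s ≤ 1 / 2 ^ (Q j).kc) (h2 : 1 / 2 ^ k0 ≤ θ * s)
    (hd : Pairwise fun i j => Disjoint (Q i).N (Q j).N) {Om : Set R3} (hO : ∀ j, (Q j).N ⊆ Om) :
    (∑' j, volume {y | ∃ z ∈ frontier (Q j).N, ‖(Q j).ψ y - (Q j).ψ z‖ ≤ r / 2 ^ k0}) ≤
      ENNReal.ofReal (48 * (r * θ / c1) * (1 + r * θ / c1) ^ 2) * volume Om := by
  calc (∑' j, volume {y | ∃ z ∈ frontier (Q j).N, ‖(Q j).ψ y - (Q j).ψ z‖ ≤ r / 2 ^ k0})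
      ≤ ∑' j, ENNReal.ofReal (48 * (r * θ / c1) * (1 + r * θ / c1) ^ 2) * volume (Q j).N :=
        ENNReal.tsum_le_tsum fun j => vol_ly (Q j) hr hc1 hs (h1 j) h2
    _ = ENNReal.ofReal (48 * (r * θ / c1) * (1 + r * θ / c1) ^ 2) * ∑' j, volume (Q j).N :=
        ENNReal.tsum_mul_left
    _ = ENNReal.ofReal (48 * (r * θ / c1) * (1 + r * θ / c1) ^ 2) * volume (⋃ j, (Q j).N) := by
        rw [measure_iUnion hd fun j => (Q j).isCompact_N.measurableSet]
    _ ≤ _ := mul_le_mul_right (measure_mono (iUnion_subset hO)) _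

/-- the same, for the union -/
theorem vol_iUnion_ly {J : Type*} [Finite J] (Q : J → CB R3 3) {r θ c1 s : ℝ} {k0 : ℕ}
    (hr : 0 ≤ r) (hc1 : 0 < c1) (hs : 0 < s) (h1 : ∀ j, c1 * s ≤ 1 / 2 ^ (Q j).kc)
    (h2 : 1 / 2 ^ k0 ≤ θ * s) (hd : Pairwise fun i j => Disjoint (Q i).N (Q j).N) {Om : Set R3}
    (hO : ∀ j, (Q j).N ⊆ Om) :
    volume (⋃ j, {y | ∃ z ∈ frontier (Q j).N, ‖(Q j).ψ y - (Q j).ψ z‖ ≤ r / 2 ^ k0}) ≤
      ENNReal.ofReal (48 * (r * θ / c1) * (1 + r * θ / c1) ^ 2) * volume Om :=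
  (measure_iUnion_le _).trans (sum_ly Q hr hc1 hs h1 h2 hd hO)

open Crest.Agent.R096.Pin_753 in
/-- **sum over disjoint blocks, the translated layers `Ly`** -/
theorem sum_Ly_tr {J : Type*} [Finite J] (Q : J → CB R3 3) (a : R3) {θ c1 s : ℝ} {k0 : ℕ}
    (hc1 : 0 < c1) (hs : 0 < s) (h1 : ∀ j, c1 * s ≤ 1 / 2 ^ (Q j).kc) (h2 : 1 / 2 ^ k0 ≤ θ * s)
    (hd : Pairwise fun i j => Disjoint (Q i).N (Q j).N) {Om : Set R3} (hO : ∀ j, (Q j).N ⊆ Om) :
    (∑' j, volume (Ly ((Q j).tr a) k0)) ≤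
      ENNReal.ofReal (48 * (40 * θ / c1) * (1 + 40 * θ / c1) ^ 2) * volume Om := by
  calc (∑' j, volume (Ly ((Q j).tr a) k0))
      ≤ ∑' j, ENNReal.ofReal (48 * (40 * θ / c1) * (1 + 40 * θ / c1) ^ 2) * volume (Q j).N := by
        refine ENNReal.tsum_le_tsum fun j => ?_
        rw [← vol_N_tr (Q j) a]
        exact vol_Ly ((Q j).tr a) hc1 hs (h1 j) h2
    _ = ENNReal.ofReal (48 * (40 * θ / c1) * (1 + 40 * θ / c1) ^ 2) * ∑' j, volume (Q j).N :=
        ENNReal.tsum_mul_left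
    _ = ENNReal.ofReal (48 * (40 * θ / c1) * (1 + 40 * θ / c1) ^ 2) *
        volume (⋃ j, (Q j).N) := by
        rw [measure_iUnion hd fun j => (Q j).isCompact_N.measurableSet]
    _ ≤ _ := mul_le_mul_right (measure_mono (iUnion_subset hO)) _

end Crest.Agent.R096.Vly_186
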