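import Crest.Agent.R096.End1_812
import Crest.Agent.R096.Naf1_372
import Crest.Agent.R096.Vly1_186
import Crest.Agent.R096.Pe1_622

/-!
# Row 96 (helper812), p ≤ 2: (EL) of 753 #11736, numeric half

Three classes of tiles (1 = outer, universal constants; 2 = near the walls; 3 = blocks), each with a
random measure for the edges (`μ`) and one for the faces (`μ'`).  One bad set, order of the constants
`θ0`; `C3 n3` and the counts; `e1`, `δE`.
-/

set_option autoImplicit false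
set_option linter.unusedSectionVars false
set_option linter.style.longLine false

open MeasureTheory Set Filter Metric Module
open scoped ENNReal NNReal Topology

namespace Crest.Agent.R096.Eln_812

open Crest.AnalysisR.VecCalc3 Crest.AnalysisR.Sobolev
open Crest.Agent.R096.Mal_874 (CB)
open Crest.Agent.R096.Sk_962 (SH)
open Crest.Agent.R096.Br_695 (En)
open Crest.Agent.R96.Acl_392 Crest.Agent.R96.Lu_538 Crest.Agent.R96.Intr_538
open Crest.Agent.R96.Poi_392 Crest.Agent.R96.Coarse_538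

/-- the layer of width `r / 2 ^ k0` at all the walls -/
def WL {J : Type*} (Qb : J → CB R3 3) (k0 : ℕ) (r : ℝ) : Set R3 :=
  ⋃ j, {y | ∃ z ∈ frontier (Qb j).N, ‖(Qb j).ψ y - (Qb j).ψ z‖ ≤ r / 2 ^ k0}

theorem isClosed_WL {J : Type*} [Finite J] (Qb : J → CB R3 3) (k0 : ℕ) (r : ℝ) :
    IsClosed (WL Qb k0 r) := isClosed_iUnion_of_finite fun j => Vly_186.isClosed_ly (Qb j) _

/-- the layers are inside the good cubes -/
theorem WL_sub {J : Type*} {Qb : J → CB R3 3} {k0 : ℕ} {r κ θ0 τ s : ℝ} (hκ : 0 < κ) (hs : 0 < s)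
    (hτ1 : τ < 1) (hr : 0 ≤ r) {Q₀ : Finset (Fin 3 → ℤ)} {z : (Fin 3 → ℤ) → R3} {kk : J → Fin 3 → ℤ}
    (hkk : ∀ j, kk j ∈ Q₀) (hψ : ∀ j v, κ / 4 * ‖v‖ ≤ ‖(Qb j).ψ v‖)
    (hk0 : 1 / 2 ^ k0 ≤ θ0 * s) (hθ : r * θ0 ≤ κ / 4 * τ)
    (hN : ∀ j, (Qb j).N ⊆ cel Cb (z (kk j)) ((1 - τ) * s)) :
    WL Qb k0 r ⊆ ⋃ k ∈ Q₀, cel Cb (z k) s := by
  intro y hy
  obtain ⟨j, w, hw, hyw⟩ := mem_iUnion.1 hy
  refine mem_iUnion₂.2 ⟨kk j, hkk j, ?_⟩
  have h1 := hN j ((Qb j).frontier_sub hw)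
  have h2 : 0 < (1 - τ) * s := mul_pos (sub_pos.2 hτ1) hs
  rw [mem_cel hs]
  intro i
  have h3 := (mem_cel h2).1 h1 i
  have h4 := hψ j (y - w)
  rw [map_sub] at h4
  have h5 : r / 2 ^ k0 ≤ κ / 4 * (τ * s) := by
    calc r / 2 ^ k0 = r * (1 / 2 ^ k0) := by ring
      _ ≤ r * (θ0 * s) := by gcongr
      _ = r * θ0 * s := by ring
      _ ≤ κ / 4 * τ * s := by gcongr
      _ = _ := by ring
  have h6 : ‖y - w‖ ≤ τ * s := le_of_mul_le_mul_left ((h4.trans hyw).trans h5) (by positivity)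
  have h7 := PiLp.norm_apply_le (y - w) i
  rw [PiLp.sub_apply, Real.norm_eq_abs] at h7
  have h8 := abs_add_le (y i - w i) (w i - z (kk j) i)
  rw [show y i - w i + (w i - z (kk j) i) = y i - z (kk j) i by ring] at h8
  linarith

/-- the integrals over subsets of `Om` -/
theorem int_ind {Om S : Set R3} (hOm : IsOpen Om) (hS : S ⊆ Om) (g : R3 → ℝ≥0∞) (μ : Measure R3) :
    ∫⁻ y in S, Om.indicator g y ∂μ = ∫⁻ y in S, g y ∂μ := by
  rw [setLIntegral_indicator hOm.measurableSet, inter_eq_right.2 hS]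

theorem aem_ind {p : ℝ} {Om La : Set R3} {f : R3 → R3} {G : Fin 3 → R3 → R3} (hOm : IsOpen Om)
    (H : SH p Om La f G) : AEMeasurable (Om.indicator (En p G)) volume := by
  rw [aemeasurable_indicator_iff hOm.measurableSet]
  have h : ∀ j : Fin 3, AEMeasurable (fun x => ‖G j x‖ₑ ^ p) (volume.restrict Om) := fun j =>
    (H.memG j).1.enorm.pow_const p
  exact Finset.aemeasurable_fun_sum _ fun j _ => h j

/-- the numbers of the wall class -/
theorem wall_num {A θ0 e1 C e₀ εE V K : ℝ} (h1 : C * (K * V) * θ0 ≤ e₀ / 3)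
    (h2 : C * A * e1 ≤ e₀ / 3) (h3 : C * εE ≤ e₀ / 3) : C * (K * θ0 * V + A * e1 + εE) ≤ e₀ := by
  nlinarith

set_option maxHeartbeats 1000000 in
/-- **(EL), numeric half** -/
theorem el_num {p : ℝ} (hp : 1 ≤ p) (hp2 : p ≤ 2) {Om La : Set R3} {f : R3 → R3}
    {G : Fin 3 → R3 → R3} (hOm : IsOpen Om) (hvol : volume Om ≠ ∞) (H : SH p Om La f G)
    {κ τ c1 r C1 n1 C2 n2 e₀ : ℝ} (hκ : 0 < κ) (hτ : 0 < τ) (hτ1 : τ < 1) (hc1 : 0 < c1)
    (hr : 0 ≤ r) (hC1 : 0 < C1) (hn1 : 0 < n1) (hC2 : 0 < C2) (hn2 : 0 < n2) (he₀ : 0 < e₀) :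
    ∃ θ0 : ℝ, 0 < θ0 ∧ ∀ C3 n3 nc1 nc2 nc3 : ℝ, 0 < C3 → 0 < n3 → 0 < nc1 → 0 < nc2 → 0 < nc3 →
    ∃ e1 : ℝ, 0 < e1 ∧ ∃ δE : ℝ, 0 < δE ∧ ∀ s : ℝ, 0 < s → ∀ (a₀ : R3) (Q₀ : Finset (Fin 3 → ℤ))
      (L : (Fin 3 → ℤ) → R3 →L[ℝ] R3), (∀ k ∈ Q₀, ‖L k‖ ≤ κ⁻¹) →
      (∀ k ∈ Q₀, cel Cb (vt (2 * s) a₀ k) s ⊆ Om) →
      (∑ k ∈ Q₀, ∫⁻ x in cel Cb (vt (2 * s) a₀ k) s, ‖Gmat G x - L k‖ₑ ^ p) ≤
        ENNReal.ofReal e1 →
      ∀ (J : Type) [Finite J] (kk : J → Fin 3 → ℤ) (Qb : J → CB R3 3) (k0 : ℕ),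
      (∀ j, kk j ∈ Q₀) → (∀ j v, κ / 4 * ‖v‖ ≤ ‖(Qb j).ψ v‖) →
      (∀ j, c1 * s ≤ 1 / 2 ^ (Qb j).kc) → 1 / 2 ^ k0 ≤ θ0 * s →
      (∀ j, (Qb j).N ⊆ cel Cb (vt (2 * s) a₀ (kk j)) ((1 - τ) * s)) →
      (Pairwise fun i j => Disjoint (Qb i).N (Qb j).N) →
      ∀ D : Set R3, MeasurableSet D → volume D ≠ 0 → volume D ≠ ∞ →
      ∀ μ1 μ1' μ2 μ2' μ3 μ3' : R3 → Measure R3,
      RM D (ENNReal.ofReal n1) μ1 → RM D (ENNReal.ofReal n1) μ1' →
      RM D (ENNReal.ofReal n2) μ2 → RM D (ENNReal.ofReal n2) μ2' →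
      RM D (ENNReal.ofReal n3) μ3 → RM D (ENNReal.ofReal n3) μ3' →
      (∀ a ∈ D, ∀ k : Fin 3 → ℤ,
        μ1 a (cel Cb (vt (2 * s) a₀ k) s) ≤ ENNReal.ofReal (nc1 * (2 * s) ^ 3) ∧
        μ1' a (cel Cb (vt (2 * s) a₀ k) s) ≤ ENNReal.ofReal (nc1 * (2 * s) ^ 3) ∧
        μ2 a (cel Cb (vt (2 * s) a₀ k) s) ≤ ENNReal.ofReal (nc2 * (2 * s) ^ 3) ∧
        μ2' a (cel Cb (vt (2 * s) a₀ k) s) ≤ ENNReal.ofReal (nc2 * (2 * s) ^ 3) ∧
        μ3 a (cel Cb (vt (2 * s) a₀ k) s) ≤ ENNReal.ofReal (nc3 * (2 * s) ^ 3) ∧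
        μ3' a (cel Cb (vt (2 * s) a₀ k) s) ≤ ENNReal.ofReal (nc3 * (2 * s) ^ 3)) →
      ∀ E1 : Set R3, MeasurableSet E1 → E1 ⊆ Om →
      ∃ B2 : Set R3, volume B2 ≤ ENNReal.ofReal (1 / 2) * volume D ∧ ∀ a ∈ D, a ∉ B2 →
        (∀ S : Set R3, S ⊆ E1 →
          ENNReal.ofReal C1 * (∫⁻ y in S, En p G y ∂μ1 a) ≤
            ENNReal.ofReal (14 * n1 * C1) * (∫⁻ y in E1, En p G y) + ENNReal.ofReal e₀ ∧
          ENNReal.ofReal C1 * (∫⁻ y in S, En p G y ∂μ1' a) ≤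
            ENNReal.ofReal (14 * n1 * C1) * (∫⁻ y in E1, En p G y) + ENNReal.ofReal e₀) ∧
        (∀ S : Set R3, S ⊆ WL Qb k0 r →
          ENNReal.ofReal C2 * (∫⁻ y in S, En p G y ∂μ2 a) ≤ ENNReal.ofReal e₀ ∧
          ENNReal.ofReal C2 * (∫⁻ y in S, En p G y ∂μ2' a) ≤ ENNReal.ofReal e₀) ∧
        (∀ Z : Finset (Fin 3 → ℤ), Z ⊆ Q₀ → (Z.card : ℝ) * (2 * s) ^ 3 ≤ δE →
          ∀ S : Set R3, S ⊆ ⋃ k ∈ Z, cel Cb (vt (2 * s) a₀ k) s →
          ENNReal.ofReal C3 * (∫⁻ y in S, En p G y ∂μ3 a) ≤ ENNReal.ofReal e₀ ∧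
          ENNReal.ofReal C3 * (∫⁻ y in S, En p G y ∂μ3' a) ≤ ENNReal.ofReal e₀) := by
  classical
  have hp0 : 0 < p := by linarith
  have hκi : 0 < κ⁻¹ := inv_pos.2 hκ
  set V : ℝ := (volume Om).toReal with hV
  have hVO : volume Om = ENNReal.ofReal V := (ENNReal.ofReal_toReal hvol).symm
  have hV0 : 0 ≤ V := ENNReal.toReal_nonneg
  set A0 : ℝ := 6 * (1 + κ⁻¹ ^ p) with hA0
  have hA00 : 0 < A0 := by positivity
  set K0 : ℝ := A0 * (192 * (r / c1)) with hK0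
  have hK00 : 0 ≤ K0 := by positivity
  set A : ℝ := C2 * (14 * n2) * (K0 * V) with hA
  have hA' : 0 ≤ A := by positivity
  obtain ⟨θ0, hθ0, hθ1, hθ2, hθ3⟩ : ∃ θ0 : ℝ, 0 < θ0 ∧ r * θ0 ≤ κ / 4 * τ ∧ r * θ0 / c1 ≤ 1 ∧
      A * θ0 ≤ e₀ / 3 := by
    refine ⟨min (κ / 4 * τ / (r + 1)) (min (c1 / (r + 1)) (e₀ / 3 / (A + 1))), by positivity,
      ?_, ?_, ?_⟩
    · calc r * _ ≤ r * (κ / 4 * τ / (r + 1)) := by gcongr; exact min_le_left _ _
        _ = κ / 4 * τ * (r / (r + 1)) := by ring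
        _ ≤ κ / 4 * τ * 1 := by
          gcongr
          rw [div_le_one (by positivity)]
          linarith
        _ = _ := mul_one _
    · rw [div_le_one hc1]
      calc r * _ ≤ r * (c1 / (r + 1)) := by
            gcongr; exact (min_le_right _ _).trans (min_le_left _ _)
        _ = c1 * (r / (r + 1)) := by ring
        _ ≤ c1 * 1 := by
          gcongr
          rw [div_le_one (by positivity)]
          linarith
        _ = _ := mul_one _
    · calc A * _ ≤ A * (e₀ / 3 / (A + 1)) := by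
            gcongr; exact (min_le_right _ _).trans (min_le_right _ _)
        _ = e₀ / 3 * (A / (A + 1)) := by ring
        _ ≤ e₀ / 3 * 1 := by
          gcongr
          rw [div_le_one (by positivity)]
          linarith
        _ = _ := mul_one _
  refine ⟨θ0, hθ0, fun C3 n3 nc1 nc2 nc3 hC3 hn3 hnc1 hnc2 hnc3 => ?_⟩
  set εE : ℝ := e₀ / 3 / (C1 + C2 + C3) with hεE
  have hεE0 : 0 < εE := by positivity
  have hε1 : C1 * εE ≤ e₀ / 3 := by
    rw [hεE, mul_div_assoc', div_le_iff₀ (by positivity)]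
    nlinarith
  have hε2 : C2 * εE ≤ e₀ / 3 := by
    rw [hεE, mul_div_assoc', div_le_iff₀ (by positivity)]
    nlinarith
  have hε3 : C3 * εE ≤ e₀ / 3 := by
    rw [hεE, mul_div_assoc', div_le_iff₀ (by positivity)]
    nlinarith
  set e1 : ℝ := e₀ / 3 / (C2 * (14 * n2) * 6) with he1
  have he10 : 0 < e1 := by positivity
  have he1' : C2 * (14 * n2) * 6 * e1 = e₀ / 3 := by
    rw [he1]; field_simp
  have hg := aem_ind hOm H
  have hgi : ∫⁻ y, Om.indicator (En p G) y ≠ ∞ := by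
    rw [lintegral_indicator hOm.measurableSet]
    exact Pe_622.en_finite hp0 H
  obtain ⟨δE, hδE, HE⟩ := End_812.energies_half (m := 6) (g := fun _ => Om.indicator (En p G))
    (fun _ => hg) (fun _ => hgi) (nE := ![n1, n1, n2, n2, n3, n3])
    (ncE := ![nc1, nc1, nc2, nc2, nc3, nc3]) (εE := εE)
    (by intro l; fin_cases l <;> simpa) (by intro l; fin_cases l <;> simpa) hεE0
  refine ⟨e1, he10, δE, hδE, ?_⟩
  intro s hs a₀ Q₀ L hL hcO hdev J _ kk Qb k0 hkk hψ hkc hk0 hN hdis D hD hD0 hDt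
    μ1 μ1' μ2 μ2' μ3 μ3' r1 r1' r2 r2' r3 r3' hcnt E1 hE1 hE1O
  have hWm := (isClosed_WL Qb k0 r).measurableSet
  have hWs := WL_sub (z := vt (2 * s) a₀) hκ hs hτ1 hr hkk hψ hk0 hθ1 hN
  have hWO : WL Qb k0 r ⊆ Om := hWs.trans (iUnion₂_subset hcO)
  obtain ⟨B2, hB2, HB⟩ := HE s hs a₀ ![μ1, μ1', μ2, μ2', μ3, μ3'] D hD hD0 hDt
    (by intro l; fin_cases l <;> simpa)
    (by
      intro l a ha k
      obtain ⟨q1, q2, q3, q4, q5, q6⟩ := hcnt a ha k
      fin_cases l <;> simpa)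
    ![E1, E1, WL Qb k0 r, WL Qb k0 r, ∅, ∅]
    (by intro l; fin_cases l <;> simp [hE1, hWm])
  -- the energy of the layer
  have hwall : ENNReal.ofReal (14 * n2) * (∫⁻ y in WL Qb k0 r, Om.indicator (En p G) y) ≤
      ENNReal.ofReal ((14 * n2) * (K0 * θ0 * V + 6 * e1)) := by
    rw [int_ind hOm hWO, ENNReal.ofReal_mul (p := 14 * n2) (q := K0 * θ0 * V + 6 * e1)
      (by positivity)]
    refine mul_le_mul' le_rfl ?_
    calc ∫⁻ y in WL Qb k0 r, En p G y ≤ ∫⁻ y in WL Qb k0 r, (1 + En p G y) :=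
          lintegral_mono fun y => le_add_self
      _ ≤ ENNReal.ofReal A0 * volume (WL Qb k0 r) + ENNReal.ofReal (6 * e1) :=
          Naf_372.near_aff hp hp2 hκ hL hdev hWm hWs
      _ ≤ ENNReal.ofReal A0 * (ENNReal.ofReal (192 * (r / c1) * θ0) * volume Om) +
          ENNReal.ofReal (6 * e1) := by
          gcongr
          have hNO : ∀ j, (Qb j).N ⊆ Om := fun j => (hN j).trans (Subset.trans (by
            intro y hy
            rw [mem_cel hs]
            have h2 : 0 < (1 - τ) * s := mul_pos (sub_pos.2 hτ1) hs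
            intro i
            have := (mem_cel h2).1 hy i
            nlinarith) (hcO _ (hkk j)))
          refine (Vly_186.vol_iUnion_ly Qb hr hc1 hs hkc hk0 hdis hNO).trans
            (mul_le_mul' (ENNReal.ofReal_le_ofReal ?_) le_rfl)
          have hx0 : 0 ≤ r * θ0 / c1 := by positivity
          have hx2 : (1 + r * θ0 / c1) ^ 2 ≤ 4 := by nlinarith
          calc 48 * (r * θ0 / c1) * (1 + r * θ0 / c1) ^ 2 ≤ 48 * (r * θ0 / c1) * 4 := by gcongr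
            _ = _ := by ring
      _ = ENNReal.ofReal (K0 * θ0 * V + 6 * e1) := by
          rw [hVO, ← ENNReal.ofReal_mul (by positivity), ← ENNReal.ofReal_mul (by positivity),
            ← ENNReal.ofReal_add (by positivity) (by positivity)]
          congr 1
          rw [hK0]
          ring
  refine ⟨B2, hB2, fun a ha haB => ⟨fun S hS => ?_, fun S hS => ?_, fun Z hZ hZc S hS => ?_⟩⟩
  · have hSO : S ⊆ Om := hS.trans hE1O
    have key : ∀ μ : Measure R3, ∫⁻ y in E1, Om.indicator (En p G) y ∂μ ≤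
        ENNReal.ofReal (2 * ((6:ℕ) + 1) * n1) * (∫⁻ y in E1, Om.indicator (En p G) y) +
          ENNReal.ofReal εE →
        ENNReal.ofReal C1 * (∫⁻ y in S, En p G y ∂μ) ≤
          ENNReal.ofReal (14 * n1 * C1) * (∫⁻ y in E1, En p G y) + ENNReal.ofReal e₀ := by
      intro μ hμ
      rw [int_ind hOm hE1O, int_ind hOm hE1O] at hμ
      calc ENNReal.ofReal C1 * (∫⁻ y in S, En p G y ∂μ)
          ≤ ENNReal.ofReal C1 * (∫⁻ y in E1, En p G y ∂μ) := by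
            gcongr
        _ ≤ ENNReal.ofReal C1 * (ENNReal.ofReal (2 * ((6:ℕ) + 1) * n1) * (∫⁻ y in E1, En p G y) +
              ENNReal.ofReal εE) := by gcongr
        _ = ENNReal.ofReal (14 * n1 * C1) * (∫⁻ y in E1, En p G y) +
              ENNReal.ofReal (C1 * εE) := by
            rw [mul_add, ← mul_assoc, ← ENNReal.ofReal_mul hC1.le, ← ENNReal.ofReal_mul hC1.le]
            congr 3
            push_cast
            ring
        _ ≤ _ := by
            gcongr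
            linarith
    have hl0 := HB a ha haB 0 ∅ (by simp [hδE.le])
    have hl1 := HB a ha haB 1 ∅ (by simp [hδE.le])
    simp only [Finset.notMem_empty, iUnion_of_empty, iUnion_empty, union_empty] at hl0 hl1
    exact ⟨key _ hl0, key _ hl1⟩
  · have key : ∀ μ : Measure R3, ∫⁻ y in WL Qb k0 r, Om.indicator (En p G) y ∂μ ≤
        ENNReal.ofReal (2 * ((6:ℕ) + 1) * n2) * (∫⁻ y in WL Qb k0 r, Om.indicator (En p G) y) +
          ENNReal.ofReal εE →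
        ENNReal.ofReal C2 * (∫⁻ y in S, En p G y ∂μ) ≤ ENNReal.ofReal e₀ := by
      intro μ hμ
      rw [int_ind hOm hWO (En p G) μ] at hμ
      calc ENNReal.ofReal C2 * (∫⁻ y in S, En p G y ∂μ)
          ≤ ENNReal.ofReal C2 * (∫⁻ y in WL Qb k0 r, En p G y ∂μ) := by
            gcongr
        _ ≤ ENNReal.ofReal C2 * (ENNReal.ofReal (2 * ((6:ℕ) + 1) * n2) *
              (∫⁻ y in WL Qb k0 r, Om.indicator (En p G) y) + ENNReal.ofReal εE) := by gcongr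
        _ ≤ ENNReal.ofReal C2 * (ENNReal.ofReal ((14 * n2) * (K0 * θ0 * V + 6 * e1)) +
              ENNReal.ofReal εE) := by
            gcongr
            have e : (2 * (((6:ℕ) : ℝ) + 1) * n2) = 14 * n2 := by push_cast; ring
            rw [e]
            exact hwall
        _ = ENNReal.ofReal (C2 * ((14 * n2) * (K0 * θ0 * V + 6 * e1) + εE)) := by
            rw [← ENNReal.ofReal_add (by positivity) hεE0.le, ← ENNReal.ofReal_mul hC2.le]
        _ ≤ _ := by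
            apply ENNReal.ofReal_le_ofReal
            have e : C2 * ((14 * n2) * (K0 * θ0 * V + 6 * e1) + εE) =
              A * θ0 + C2 * (14 * n2) * 6 * e1 + C2 * εE := by rw [hA]; ring
            rw [e]
            linarith
    have hl0 := HB a ha haB 2 ∅ (by simp [hδE.le])
    have hl1 := HB a ha haB 3 ∅ (by simp [hδE.le])
    simp only [Finset.notMem_empty, iUnion_of_empty, iUnion_empty, union_empty] at hl0 hl1
    exact ⟨key _ hl0, key _ hl1⟩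
  · have hZO : (⋃ k ∈ Z, cel Cb (vt (2 * s) a₀ k) s) ⊆ Om :=
      iUnion₂_subset fun k hk => hcO k (hZ hk)
    have key : ∀ μ : Measure R3, ∫⁻ y in ⋃ k ∈ Z, cel Cb (vt (2 * s) a₀ k) s,
          Om.indicator (En p G) y ∂μ ≤ ENNReal.ofReal εE →
        ENNReal.ofReal C3 * (∫⁻ y in S, En p G y ∂μ) ≤ ENNReal.ofReal e₀ := by
      intro μ hμ
      rw [int_ind hOm hZO (En p G) μ] at hμ
      calc ENNReal.ofReal C3 * (∫⁻ y in S, En p G y ∂μ)
          ≤ ENNReal.ofReal C3 * (∫⁻ y in ⋃ k ∈ Z, cel Cb (vt (2 * s) a₀ k) s, En p G y ∂μ) := by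
            gcongr
        _ ≤ ENNReal.ofReal C3 * ENNReal.ofReal εE := by gcongr
        _ = ENNReal.ofReal (C3 * εE) := (ENNReal.ofReal_mul hC3.le).symm
        _ ≤ _ := by
            apply ENNReal.ofReal_le_ofReal
            linarith
    have hl0 := HB a ha haB 4 Z hZc
    have hl1 := HB a ha haB 5 Z hZc
    have e0 : (![E1, E1, WL Qb k0 r, WL Qb k0 r, ∅, ∅] : Fin 6 → Set R3) 4 = ∅ := rfl
    have e1 : (![E1, E1, WL Qb k0 r, WL Qb k0 r, ∅, ∅] : Fin 6 → Set R3) 5 = ∅ := rfl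
    simp only [e0, e1, empty_union, Measure.restrict_empty, lintegral_zero_measure, mul_zero,
      zero_add] at hl0 hl1
    exact ⟨key _ hl0, key _ hl1⟩

end Crest.Agent.R096.Eln_812
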