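import Crest.Agent.R096.Mal14_874

/-!
Row 96 (S0127), helper372.  Leaf (5) of 695 #11580: `Kc_diff` ([KSH], the core of a shifted block),
`N_diff` ([NLY], the block minus the shifted block lies in the layer at the wall), `exists_rat`
(rational positions are dense), for `CB E n`.
-/

set_option autoImplicit false

open MeasureTheory Set Filter Topology Metric
open scoped ENNReal NNReal

namespace Crest.Agent.R096.Ksh_372

open Crest.Agent.R096.Msh_715 Crest.Agent.R096.Mal_874 Crest.Agent.R096.Msh_810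

/-! ### shifted coordinate boxes -/

section box

variable {n : ℕ}

/-- a slab of a box -/
theorem slab_le {P Q : Fin n → ℝ} {T : Set ℝ} {l : Fin n} {ρ w : ℝ} (hw : 0 < w)
    (hl : w ≤ Q l - P l) (hT : volume T ≤ ENNReal.ofReal ρ) :
    volume ({x : Fin n → ℝ | x ∈ Icc P Q ∧ x l ∈ T}) ≤ ENNReal.ofReal (ρ / w) * volume (Icc P Q) := by
  classical
  have h1 : {x : Fin n → ℝ | x ∈ Icc P Q ∧ x l ∈ T} ⊆
      Set.pi univ (fun i => if i = l then T else Icc (P i) (Q i)) := by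
    rintro x ⟨hx, hxT⟩ i -
    by_cases h : i = l
    · subst h; simpa using hxT
    · simp only [h, if_false]
      exact ⟨hx.1 i, hx.2 i⟩
  have h2 : volume (Icc P Q) = ∏ i, volume (Icc (P i) (Q i)) := by
    rw [← Set.pi_univ_Icc, volume_pi_pi]
  refine (measure_mono h1).trans ?_
  rw [volume_pi_pi, h2, ← Finset.mul_prod_erase _ _ (Finset.mem_univ l),
    ← Finset.mul_prod_erase Finset.univ (fun i => volume (Icc (P i) (Q i))) (Finset.mem_univ l),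
    ← mul_assoc]
  have h3 : ∏ x ∈ Finset.univ.erase l, volume (if x = l then T else Icc (P x) (Q x)) =
      ∏ x ∈ Finset.univ.erase l, volume (Icc (P x) (Q x)) := by
    refine Finset.prod_congr rfl fun i hi => ?_
    rw [if_neg (Finset.ne_of_mem_erase hi)]
  rw [h3]
  refine mul_le_mul_left ?_ _
  simp only [if_true]
  refine hT.trans ?_
  rw [Real.volume_Icc]
  calc ENNReal.ofReal ρ = ENNReal.ofReal (ρ / w) * ENNReal.ofReal w := by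
        rw [← ENNReal.ofReal_mul' hw.le, div_mul_cancel₀ _ hw.ne']
    _ ≤ _ := mul_le_mul_right (ENNReal.ofReal_le_ofReal hl) _

/-- **a box minus the shifted box** -/
theorem box_diff {P Q e : Fin n → ℝ} {ρ w : ℝ} (hw : 0 < w) (hl : ∀ l, w ≤ Q l - P l)
    (he : ∀ l, |e l| ≤ ρ) :
    volume (Icc P Q \ Icc (P + e) (Q + e)) ≤ ENNReal.ofReal (n * ρ / w) * volume (Icc P Q) := by
  classical
  rcases Nat.eq_zero_or_pos n with hn | hn
  · subst hn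
    have : Icc P Q \ Icc (P + e) (Q + e) = ∅ := by
      rw [Set.sdiff_eq_empty]
      intro x _
      exact ⟨fun i => i.elim0, fun i => i.elim0⟩
    rw [this]; simp
  have hρ : 0 ≤ ρ := (abs_nonneg _).trans (he ⟨0, hn⟩)
  set T : Fin n → Set ℝ := fun l => if 0 ≤ e l then Icc (P l) (P l + e l) else Icc (Q l + e l) (Q l)
    with hT
  have h1 : Icc P Q \ Icc (P + e) (Q + e) ⊆ ⋃ l, {x : Fin n → ℝ | x ∈ Icc P Q ∧ x l ∈ T l} := by
    rintro x ⟨hx, hx'⟩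
    have : ∃ l, ¬ (P l + e l ≤ x l ∧ x l ≤ Q l + e l) := by
      by_contra hcon
      push Not at hcon
      exact hx' ⟨fun l => (hcon l).1, fun l => (hcon l).2⟩
    obtain ⟨l, hl'⟩ := this
    rw [mem_iUnion]
    refine ⟨l, hx, ?_⟩
    rw [not_and_or] at hl'
    have a1 := hx.1 l
    have a2 := hx.2 l
    rw [hT]
    by_cases h0 : 0 ≤ e l
    · simp only [h0, if_true]
      rcases hl' with h | h
      · exact ⟨a1, (not_le.1 h).le⟩
      · exact absurd (a2.trans (by linarith)) h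
    · simp only [h0, if_false]
      rcases hl' with h | h
      · exact absurd (le_trans (by linarith) a1) h
      · exact ⟨(not_le.1 h).le, a2⟩
  have h2 : ∀ l, volume (T l) ≤ ENNReal.ofReal ρ := by
    intro l
    have a := he l
    rw [hT]
    by_cases h0 : 0 ≤ e l
    · simp only [h0, if_true]
      rw [Real.volume_Icc]
      refine ENNReal.ofReal_le_ofReal ?_
      rw [abs_of_nonneg h0] at a
      linarith
    · simp only [h0, if_false]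
      rw [Real.volume_Icc]
      refine ENNReal.ofReal_le_ofReal ?_
      rw [abs_of_neg (not_le.1 h0)] at a
      linarith
  calc volume (Icc P Q \ Icc (P + e) (Q + e))
      ≤ volume (⋃ l, {x : Fin n → ℝ | x ∈ Icc P Q ∧ x l ∈ T l}) := measure_mono h1
    _ ≤ ∑ l, volume {x : Fin n → ℝ | x ∈ Icc P Q ∧ x l ∈ T l} := measure_iUnion_fintype_le _ _
    _ ≤ ∑ _l : Fin n, ENNReal.ofReal (ρ / w) * volume (Icc P Q) :=
        Finset.sum_le_sum fun l _ => slab_le hw (hl l) (h2 l)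
    _ = ENNReal.ofReal (n * ρ / w) * volume (Icc P Q) := by
        rw [Finset.sum_const, Finset.card_univ, Fintype.card_fin, nsmul_eq_mul, ← mul_assoc]
        congr 1
        rw [mul_div_assoc, ENNReal.ofReal_mul (Nat.cast_nonneg _), ENNReal.ofReal_natCast]

end box

/-! ### cores -/

section core

variable {n : ℕ} {E : Type*} [NormedAddCommGroup E] [NormedSpace ℝ E]

/-- the core is a coordinate box -/
theorem Kc_eq (Q : CB E n) : Q.Kc = Q.ψ ⁻¹' Icc (fun l => Q.a' l + Q.S.lo l / 2 ^ Q.kc)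
    (fun l => Q.a' l + Q.S.hi l / 2 ^ Q.kc) := by
  have hp : (0 : ℝ) < 2 ^ Q.kc := by positivity
  ext y
  rw [mem_preimage, Set.mem_Icc, Pi.le_def, Pi.le_def, ← forall_and]
  show (∀ l, (Q.S.lo l : ℝ) ≤ ps Q.a' Q.kc (Q.ψ y) l ∧ ps Q.a' Q.kc (Q.ψ y) l ≤ Q.S.hi l) ↔ _
  refine forall_congr' fun l => ?_
  unfold ps
  refine and_congr ?_ ?_
  · rw [← le_sub_iff_add_le', div_le_iff₀' hp]
  · rw [← sub_le_iff_le_add', le_div_iff₀' hp]

variable [MeasurableSpace E] [BorelSpace E] (μ : Measure E) [μ.IsAddHaarMeasure]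

/-- **[KSH]**, any dimension, any Haar measure -/
theorem Kc_diff_gen (Q : CB E n) {v v' : E} {ρ w : ℝ} (h : ‖Q.ψ (v - v')‖ ≤ ρ)
    (hl : ∀ l, w ≤ ((Q.S.hi l : ℝ) - Q.S.lo l) / 2 ^ Q.kc) (hw : 0 < w) :
    μ ((Q.tr v).Kc \ (Q.tr v').Kc) ≤ ENNReal.ofReal (n * ρ / w) * μ (Q.tr v).Kc := by
  have hH : (μ.map Q.ψ).IsAddHaarMeasure := Q.ψ.isAddHaarMeasure_map μ
  set c := (μ.map Q.ψ).addHaarScalarFactor (volume : Measure (Fin n → ℝ)) with hc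
  have h1 : μ.map Q.ψ = c • (volume : Measure (Fin n → ℝ)) :=
    Measure.isAddLeftInvariant_eq_smul _ _
  have h2 : ∀ s : Set (Fin n → ℝ), μ (Q.ψ ⁻¹' s) = c * volume s := by
    intro s
    have h3 := Q.ψ.toHomeomorph.toMeasurableEquiv.map_apply (μ := μ) s
    have h4 : (μ.map Q.ψ) s = μ (Q.ψ ⁻¹' s) := h3
    rw [← h4, h1]
    rfl
  have e1 : (Q.tr v).Kc = Q.ψ ⁻¹' Icc (fun l => (Q.a' + Q.ψ v) l + Q.S.lo l / 2 ^ Q.kc)
    (fun l => (Q.a' + Q.ψ v) l + Q.S.hi l / 2 ^ Q.kc) := Kc_eq (Q.tr v)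
  have e2 : (Q.tr v').Kc = Q.ψ ⁻¹' Icc (fun l => (Q.a' + Q.ψ v') l + Q.S.lo l / 2 ^ Q.kc)
    (fun l => (Q.a' + Q.ψ v') l + Q.S.hi l / 2 ^ Q.kc) := Kc_eq (Q.tr v')
  have e3 : (fun l => (Q.a' + Q.ψ v') l + Q.S.lo l / 2 ^ Q.kc) =
      (fun l => (Q.a' + Q.ψ v) l + Q.S.lo l / 2 ^ Q.kc) + Q.ψ (v' - v) := by
    funext l
    rw [map_sub]
    simp only [Pi.add_apply, Pi.sub_apply]
    ring
  have e4 : (fun l => (Q.a' + Q.ψ v') l + Q.S.hi l / 2 ^ Q.kc) =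
      (fun l => (Q.a' + Q.ψ v) l + Q.S.hi l / 2 ^ Q.kc) + Q.ψ (v' - v) := by
    funext l
    rw [map_sub]
    simp only [Pi.add_apply, Pi.sub_apply]
    ring
  rw [e1, e2, ← preimage_sdiff, h2, h2, e3, e4, mul_left_comm]
  refine mul_le_mul_right (box_diff hw (fun l => ?_) (fun l => ?_)) _
  · have := hl l
    have e : (Q.a' + Q.ψ v) l + (Q.S.hi l : ℝ) / 2 ^ Q.kc - ((Q.a' + Q.ψ v) l +
        (Q.S.lo l : ℝ) / 2 ^ Q.kc) = ((Q.S.hi l : ℝ) - Q.S.lo l) / 2 ^ Q.kc := by ring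
    rw [e]
    exact this
  · have h5 : ‖Q.ψ (v' - v)‖ ≤ ρ := by
      rw [← neg_sub v v', map_neg, norm_neg]
      exact h
    exact (norm_le_pi_norm (Q.ψ (v' - v)) l).trans h5

end core

/-! ### the block minus the shifted block -/

section wall

variable {n : ℕ} {E : Type*} [NormedAddCommGroup E] [NormedSpace ℝ E]

/-- **[NLY]**, any distance -/
theorem N_diff_gen (Q : CB E n) {v v' : E} {r : ℝ} (h : ‖Q.ψ (v - v')‖ ≤ r) :
    (Q.tr v).N \ (Q.tr v').N ⊆ {y | ∃ z ∈ frontier (Q.tr v).N, ‖Q.ψ y - Q.ψ z‖ ≤ r} := by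
  rintro y ⟨hy, hy'⟩
  have h1 : y + (v - v') ∉ (Q.tr v).N := by
    rw [CB.mem_N_tr] at hy' ⊢
    have e : y + (v - v') - v = y - v' := by abel
    rwa [e]
  have hpre : IsPreconnected (segment ℝ y (y + (v - v'))) := (convex_segment _ _).isPreconnected
  obtain ⟨z, hz, hz'⟩ : (segment ℝ y (y + (v - v')) ∩ frontier (Q.tr v).N).Nonempty := by
    by_contra hcon
    rw [Set.not_nonempty_iff_eq_empty] at hcon
    have hcl : IsClosed (Q.tr v).N := (Q.tr v).isCompact_N.isClosed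
    have hin : ∀ x ∈ segment ℝ y (y + (v - v')), x ∈ (Q.tr v).N → x ∈ interior (Q.tr v).N := by
      intro x hx hxN
      by_contra hx'
      have h2 : x ∈ segment ℝ y (y + (v - v')) ∩ frontier (Q.tr v).N := by
        rw [hcl.frontier_eq]
        exact ⟨hx, hxN, hx'⟩
      rw [hcon] at h2
      exact h2
    obtain ⟨x, -, hx1, hx2⟩ := hpre (interior (Q.tr v).N) (Q.tr v).Nᶜ isOpen_interior
      hcl.isOpen_compl
      (fun x hx => by
        by_cases hxN : x ∈ (Q.tr v).N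
        · exact Or.inl (hin x hx hxN)
        · exact Or.inr hxN)
      ⟨y, left_mem_segment _ _ _, hin y (left_mem_segment _ _ _) hy⟩
      ⟨_, right_mem_segment _ _ _, h1⟩
    exact hx2 (interior_subset hx1)
  refine ⟨z, hz', ?_⟩
  rw [segment_eq_image'] at hz
  obtain ⟨t, ht, rfl⟩ := hz
  rw [← map_sub]
  have e : y - (y + t • (y + (v - v') - y)) = -(t • (v - v')) := by
    rw [add_sub_cancel_left]; abel
  rw [e, map_neg, norm_neg, map_smul, norm_smul, Real.norm_of_nonneg ht.1]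
  refine le_trans (mul_le_of_le_one_left (norm_nonneg _) ht.2) h

/-- **[NLY]**, the literal of #11580 -/
theorem N_diff (Q : CB E n) {v v' : E} {k0 : ℕ} (h : ‖Q.ψ (v - v')‖ ≤ 40 / 2 ^ k0) :
    (Q.tr v).N \ (Q.tr v').N ⊆
      {y | ∃ z ∈ frontier (Q.tr v).N, ‖Q.ψ y - Q.ψ z‖ ≤ 40 / 2 ^ k0} :=
  N_diff_gen Q h

end wall

/-! ### [KSH] in dimension 3 -/

section three

variable {E : Type*} [NormedAddCommGroup E] [NormedSpace ℝ E] [MeasureSpace E] [BorelSpace E]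
  [(volume : Measure E).IsAddHaarMeasure]

/-- **[KSH]**, the literal of #11580: for `CB R3 3` and `CB E3 3` -/
theorem Kc_diff (Q : CB E 3) {v v' : E} {ρ w : ℝ} (h : ‖Q.ψ (v - v')‖ ≤ ρ)
    (hl : ∀ l, w ≤ ((Q.S.hi l : ℝ) - Q.S.lo l) / 2 ^ Q.kc) (hw : 0 < w) :
    volume ((Q.tr v).Kc \ (Q.tr v').Kc) ≤ ENNReal.ofReal (3 * ρ / w) * volume (Q.tr v).Kc := by
  have := Kc_diff_gen volume Q h hl hw
  simpa using this

end three

example (Q : CB (Fin 3 → ℝ) 3) {v v' : Fin 3 → ℝ} {ρ w : ℝ} (h : ‖Q.ψ (v - v')‖ ≤ ρ)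
    (hl : ∀ l, w ≤ ((Q.S.hi l : ℝ) - Q.S.lo l) / 2 ^ Q.kc) (hw : 0 < w) :
    volume ((Q.tr v).Kc \ (Q.tr v').Kc) ≤ ENNReal.ofReal (3 * ρ / w) * volume (Q.tr v).Kc :=
  Kc_diff Q h hl hw

example (Q : CB (EuclideanSpace ℝ (Fin 3)) 3) {v v' : EuclideanSpace ℝ (Fin 3)} {ρ w : ℝ}
    (h : ‖Q.ψ (v - v')‖ ≤ ρ)
    (hl : ∀ l, w ≤ ((Q.S.hi l : ℝ) - Q.S.lo l) / 2 ^ Q.kc) (hw : 0 < w) :
    volume ((Q.tr v).Kc \ (Q.tr v').Kc) ≤ ENNReal.ofReal (3 * ρ / w) * volume (Q.tr v).Kc :=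
  Kc_diff Q h hl hw

/-! ### rational positions -/

section rat

variable {n : ℕ}

/-- dyadic points are dense -/
theorem exists_dyadic (ψ : (Fin n → ℝ) ≃L[ℝ] (Fin n → ℝ)) (a : Fin n → ℝ) {r : ℝ} (hr : 0 < r) :
    ∃ (κ : ℕ) (b : Fin n → ℝ), (∀ l, ∃ z : ℤ, 2 ^ κ * b l = z) ∧ ‖ψ (b - a)‖ ≤ r := by
  obtain ⟨κ, hκ⟩ : ∃ κ : ℕ, ‖(ψ : (Fin n → ℝ) →L[ℝ] (Fin n → ℝ))‖ / 2 ^ κ ≤ r := by
    obtain ⟨κ, hκ⟩ := exists_nat_gt (‖(ψ : (Fin n → ℝ) →L[ℝ] (Fin n → ℝ))‖ / r)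
    refine ⟨κ, ?_⟩
    have h5 : (κ : ℝ) ≤ 2 ^ κ := by exact_mod_cast Nat.lt_two_pow_self.le
    rw [div_lt_iff₀ hr] at hκ
    rw [div_le_iff₀ (by positivity)]
    nlinarith
  have hp : (0 : ℝ) < 2 ^ κ := by positivity
  refine ⟨κ, fun l => ⌊2 ^ κ * a l⌋ / 2 ^ κ, fun l => ⟨⌊2 ^ κ * a l⌋, by field_simp⟩, ?_⟩
  have h1 : ‖(fun l => (⌊2 ^ κ * a l⌋ : ℝ) / 2 ^ κ) - a‖ ≤ 1 / 2 ^ κ := by
    rw [pi_norm_le_iff_of_nonneg (by positivity)]
    intro l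
    rw [Pi.sub_apply, Real.norm_eq_abs, abs_le]
    have h2 := Int.floor_le (2 ^ κ * a l)
    have h3 := Int.lt_floor_add_one (2 ^ κ * a l)
    constructor
    · have : (2 ^ κ * a l - 1) / 2 ^ κ ≤ (⌊2 ^ κ * a l⌋ : ℝ) / 2 ^ κ :=
        div_le_div_of_nonneg_right (by linarith) hp.le
      have e : (2 ^ κ * a l - 1) / 2 ^ κ = a l - 1 / 2 ^ κ := by field_simp
      linarith
    · have : (⌊2 ^ κ * a l⌋ : ℝ) / 2 ^ κ ≤ (2 ^ κ * a l) / 2 ^ κ :=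
        div_le_div_of_nonneg_right h2 hp.le
      have e : (2 ^ κ * a l) / 2 ^ κ = a l := by field_simp
      have : (0 : ℝ) < 1 / 2 ^ κ := by positivity
      linarith
  refine ((ψ : (Fin n → ℝ) →L[ℝ] (Fin n → ℝ)).le_opNorm _).trans ?_
  refine le_trans (mul_le_mul_of_nonneg_left h1 (norm_nonneg _)) ?_
  rw [mul_one_div]
  exact hκ

/-- **rational positions are dense**: any `r > 0` -/
theorem exists_rat_gen (Q : CB (Fin n → ℝ) n) (a : Fin n → ℝ) {d : ℕ} {B : Fin n → Fin n → ℤ}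
    (hB : Rt (ContinuousLinearEquiv.refl ℝ (Fin n → ℝ)) Q.ψ B d)
    (ha : ∃ κ : ℕ, ∀ m, ∃ z : ℤ, 2 ^ κ * (d : ℝ) * Q.a' m = z) {r : ℝ} (hr : 0 < r) :
    ∃ a'' : Fin n → ℝ, ‖Q.ψ (a'' - a)‖ ≤ r ∧
      ∃ κ : ℕ, ∀ m, ∃ z : ℤ, 2 ^ κ * (d : ℝ) * (Q.tr a'').a' m = z := by
  obtain ⟨κ, b, hb, hba⟩ := exists_dyadic Q.ψ a hr
  obtain ⟨κ', ha⟩ := ha
  choose z hz using hb
  refine ⟨b, hba, κ' + κ, fun m => ?_⟩
  obtain ⟨c, hc⟩ := ha m
  have h1 := hB b m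
  refine ⟨2 ^ κ * c + 2 ^ κ' * ∑ l, B m l * z l, ?_⟩
  have e1 : (2 : ℝ) ^ κ * ((d : ℝ) * Q.ψ b m) = ((∑ l, B m l * z l : ℤ) : ℝ) := by
    rw [h1, Finset.mul_sum]
    push_cast
    refine Finset.sum_congr rfl fun l _ => ?_
    rw [← hz l]
    show (2 : ℝ) ^ κ * ((B m l : ℝ) * b l) = _
    ring
  show (2 : ℝ) ^ (κ' + κ) * (d : ℝ) * (Q.a' m + Q.ψ b m) = _
  have e2 : (2 : ℝ) ^ (κ' + κ) * (d : ℝ) * (Q.a' m + Q.ψ b m) =
      2 ^ κ * (2 ^ κ' * (d : ℝ) * Q.a' m) + 2 ^ κ' * (2 ^ κ * ((d : ℝ) * Q.ψ b m)) := by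
    rw [pow_add]; ring
  rw [e2, e1, hc]
  push_cast
  ring

/-- **rational positions**, the literal of #11580 -/
theorem exists_rat (Q : CB (Fin 3 → ℝ) 3) (k0 : ℕ) (a : Fin 3 → ℝ) {d : ℕ}
    {B : Fin 3 → Fin 3 → ℤ} (hB : Rt (ContinuousLinearEquiv.refl ℝ (Fin 3 → ℝ)) Q.ψ B d)
    (ha : ∃ κ : ℕ, ∀ m, ∃ z : ℤ, 2 ^ κ * (d : ℝ) * Q.a' m = z) :
    ∃ a'' : Fin 3 → ℝ, ‖Q.ψ (a'' - a)‖ ≤ 1 / (20 * 2 ^ k0) ∧
      ∃ κ : ℕ, ∀ m, ∃ z : ℤ, 2 ^ κ * (d : ℝ) * (Q.tr a'').a' m = z :=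
  exists_rat_gen Q a hB ha (by positivity)

end rat

end Crest.Agent.R096.Ksh_372
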