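import Crest.Agent.R096.Eln1_812
import Crest.Agent.R096.Ksh1_372
import Crest.Agent.R096.Pas4_753

/-!
# Row 96 (helper812), p ≤ 2: (EL), numeric half in the letters of `Pas_753.ElP`, and the geometry of the
sets of the three classes

* `el_num3` : one random measure per class on `Dt (1 / 2 ^ k0)`, hypotheses of `ElP` verbatim;
* `Kc_tr_sub`, `not_mem_N_of_far`, `layer_tr`, `N_tr_sub_cel`, `E1` : the deterministic sets.
-/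

set_option autoImplicit false
set_option linter.unusedSectionVars false
set_option linter.style.longLine false

open MeasureTheory Set Filter Metric Module
open scoped ENNReal NNReal Topology

namespace Crest.Agent.R096.Eln_812

open Crest.AnalysisR.VecCalc3 Crest.AnalysisR.Sobolev
open Crest.Agent.R096.Mal_874 (CB)
open Crest.Agent.R096.Sk_962 (SH)
open Crest.Agent.R096.Br_695 (En)
open Crest.Agent.R096.Pin_753 (BlkP)
open Crest.Agent.R96.Acl_392 Crest.Agent.R96.Lu_538 Crest.Agent.R96.Intr_538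
open Crest.Agent.R96.Poi_392 Crest.Agent.R96.Coarse_538

theorem RM_zero (D : Set R3) (n : ℝ≥0∞) : RM D n fun _ => (0 : Measure R3) := by
  constructor
  · intro F hF
    simp
  · intro F hF
    simp

section geo

variable {Q : CB R3 3} {κ a : ℝ} {v : R3}

/-- `‖ψ v‖ ≤ 4 κ⁻¹ ‖v‖ ≤ 8 κ⁻¹ / 2 ^ k0` -/
theorem psi_le {κ : ℝ} (hκ : 0 < κ) (h : ∀ v, ‖Q.ψ v‖ ≤ 4 * κ⁻¹ * ‖v‖) {k0 : ℕ} {v : R3}
    (hv : ‖v‖ ≤ 2 / 2 ^ k0) : ‖Q.ψ v‖ ≤ 8 * κ⁻¹ / 2 ^ k0 := by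
  have hi : 0 < κ⁻¹ := inv_pos.2 hκ
  refine (h v).trans ((mul_le_mul_of_nonneg_left hv (by positivity)).trans (le_of_eq ?_))
  ring

/-- the shifted core is inside the block -/
theorem Kc_tr_sub {v : R3} (hv : ‖Q.ψ v‖ ≤ Q.w / 2 ^ Q.kc) : (Q.tr v).Kc ⊆ Q.N := by
  intro y hy
  rw [CB.mem_Kc_tr, Ksh_372.Kc_eq] at hy
  rw [Vly_186.N_eq]
  have hp : (0 : ℝ) < 2 ^ Q.kc := by positivity
  have h1 : Q.ψ (y - v) = Q.ψ y - Q.ψ v := map_sub _ _ _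
  rw [mem_preimage, h1] at hy
  have h2 : ∀ l, |Q.ψ v l| ≤ Q.w / 2 ^ Q.kc := fun l =>
    ((Real.norm_eq_abs _).symm.le.trans (norm_le_pi_norm _ l)).trans hv
  constructor
  · intro l
    have h3 := hy.1 l
    have h4 := abs_le.1 (h2 l)
    have e : (Q.al l : ℝ) = Q.S.lo l - Q.w := by simp [CB.al]
    simp only [Pi.sub_apply] at h3
    simp only [e, sub_div]
    linarith [h4.1]
  · intro l
    have h3 := hy.2 l
    have h4 := abs_le.1 (h2 l)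
    have e : (Q.be l : ℝ) = Q.S.hi l + Q.w := by simp [CB.be]
    simp only [Pi.sub_apply] at h3
    simp only [e, add_div]
    linarith [h4.2]

theorem w_ge (Q : CB R3 3) (ht : 0 ≤ Q.S.t) : (1 : ℝ) ≤ Q.w := by
  have h1 := Q.hw
  have : (1 : ℤ) ≤ Q.w := by omega
  exact_mod_cast this

/-- a point outside the shifted block and far from its wall is outside the block -/
theorem not_mem_N_of_far {v : R3} {y : R3} (hy : y ∉ (Q.tr v).N)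
    (hfar : ∀ z ∈ frontier (Q.tr v).N, ‖v‖ < dist y z) : y ∉ Q.N := by
  intro hyN
  have hyN' : y + v ∈ (Q.tr v).N := by
    rw [CB.mem_N_tr, add_sub_cancel_right]; exact hyN
  have hcl : IsClosed (Q.tr v).N := (Q.tr v).isCompact_N.isClosed
  have hpre : IsPreconnected (segment ℝ y (y + v)) := (convex_segment _ _).isPreconnected
  obtain ⟨z, hz, hz'⟩ : (segment ℝ y (y + v) ∩ frontier (Q.tr v).N).Nonempty := by
    by_contra hcon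
    rw [Set.not_nonempty_iff_eq_empty] at hcon
    have hin : ∀ x ∈ segment ℝ y (y + v), x ∈ (Q.tr v).N → x ∈ interior (Q.tr v).N := by
      intro x hx hxN
      by_contra hx'
      have h2 : x ∈ segment ℝ y (y + v) ∩ frontier (Q.tr v).N := by
        rw [hcl.frontier_eq]
        exact ⟨hx, hxN, hx'⟩
      rw [hcon] at h2
      exact h2
    obtain ⟨x, -, hx1, hx2⟩ := hpre (interior (Q.tr v).N) (Q.tr v).Nᶜ isOpen_interior
      hcl.isOpen_compl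
      (fun x hx => by
        by_cases hxN : x ∈ (Q.tr v).N
        · exact Or.inl (hin x hx hxN)
        · exact Or.inr hxN)
      ⟨_, right_mem_segment _ _ _, hin _ (right_mem_segment _ _ _) hyN'⟩
      ⟨y, left_mem_segment _ _ _, hy⟩
    exact hx2 (interior_subset hx1)
  have h3 := hfar z hz'
  rw [segment_eq_image'] at hz
  obtain ⟨t, ht, rfl⟩ := hz
  have e : dist y (y + t • (y + v - y)) = t * ‖v‖ := by
    rw [add_sub_cancel_left, dist_self_add_right, norm_smul, Real.norm_of_nonneg ht.1]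
  rw [e] at h3
  have := mul_le_of_le_one_left (norm_nonneg v) ht.2
  linarith

/-- the layers at the shifted wall are in the layers at the wall -/
theorem layer_tr {v : R3} {r r' : ℝ} (hv : ‖Q.ψ v‖ ≤ r') :
    {y | ∃ z ∈ frontier (Q.tr v).N, ‖Q.ψ y - Q.ψ z‖ ≤ r} ⊆
      {y | ∃ z ∈ frontier Q.N, ‖Q.ψ y - Q.ψ z‖ ≤ r + r'} := by
  rintro y ⟨z, hz, hyz⟩
  rw [CB.frontier_N_tr] at hz
  refine ⟨z - v, hz, ?_⟩
  have e : Q.ψ y - Q.ψ (z - v) = (Q.ψ y - Q.ψ z) + Q.ψ v := by rw [map_sub]; abel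
  rw [e]
  exact (norm_add_le _ _).trans (add_le_add hyz hv)

/-- the shifted block is inside the cell -/
theorem N_tr_sub_cel {v z0 : R3} {s τ : ℝ} (hs : 0 < s) (hτ1 : τ < 1) (hv : ‖v‖ ≤ τ * s)
    (hN : Q.N ⊆ cel Cb z0 ((1 - τ) * s)) : (Q.tr v).N ⊆ cel Cb z0 s := by
  intro y hy
  rw [CB.mem_N_tr] at hy
  have h2 : 0 < (1 - τ) * s := mul_pos (sub_pos.2 hτ1) hs
  have h3 := (mem_cel h2).1 (hN hy)
  rw [mem_cel hs]
  intro i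
  have h4 := h3 i
  have h5 := PiLp.norm_apply_le v i
  rw [Real.norm_eq_abs] at h5
  rw [PiLp.sub_apply] at h4
  have h6 := abs_add_le (y i - v i - z0 i) (v i)
  rw [show y i - v i - z0 i + v i = y i - z0 i by ring] at h6
  linarith

end geo

/-- the deterministic set of class (1): `Om` off the blocks -/
def E1 {J : Type*} (Om : Set R3) (Qb : J → CB R3 3) : Set R3 := Om \ ⋃ j, (Qb j).N

theorem meas_E1 {J : Type*} [Finite J] {Om : Set R3} (hOm : IsOpen Om) (Qb : J → CB R3 3) :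
    MeasurableSet (E1 Om Qb) :=
  hOm.measurableSet.diff
    (isClosed_iUnion_of_finite fun j => (Qb j).isCompact_N.isClosed).measurableSet

theorem E1_sub_Kc {J : Type*} {Om : Set R3} {Qb : J → CB R3 3} {a : R3}
    (h : ∀ j, ‖(Qb j).ψ a‖ ≤ (Qb j).w / 2 ^ (Qb j).kc) :
    E1 Om Qb ⊆ Om \ ⋃ j, ((Qb j).tr a).Kc := by
  rintro y ⟨hy, hy'⟩
  refine ⟨hy, fun hc => hy' ?_⟩
  obtain ⟨j, hj⟩ := mem_iUnion.1 hc
  exact mem_iUnion.2 ⟨j, Kc_tr_sub (h j) hj⟩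

theorem pw_disj {J : Type*} {Qb : J → CB R3 3} {c2 s : ℝ} (hc2 : 0 < c2) (hs : 0 < s)
    (h : ∀ i j, i ≠ j → ∀ x ∈ (Qb i).N, ∀ y ∈ (Qb j).N, c2 * s ≤ dist x y) :
    Pairwise fun i j => Disjoint (Qb i).N (Qb j).N := by
  intro i j hij
  rw [Set.disjoint_left]
  intro x hx hx'
  have := h i j hij x hx x hx'
  rw [dist_self] at this
  have := mul_pos hc2 hs
  linarith

/-- **(EL), numeric half in the letters of `ElP`**, one random measure per class -/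
theorem el_num3 {p : ℝ} (hp : 1 ≤ p) (hp2 : p ≤ 2) {Om La : Set R3} {f : R3 → R3}
    {G : Fin 3 → R3 → R3} (hOm : IsOpen Om) (hOmb : Bornology.IsBounded Om) (H : SH p Om La f G)
    {κ τ c1 c2 hh r C1 n1 C2 n2 e₀ : ℝ} {Bs Nn : ℕ} (hκ : 0 < κ) (hτ : 0 < τ) (hτ1 : τ ≤ 1 / 4)
    (hc1 : 0 < c1) (hc2 : 0 < c2) (hr : 0 ≤ r) (hC1 : 0 < C1) (hn1 : 0 < n1) (hC2 : 0 < C2)
    (hn2 : 0 < n2) (he₀ : 0 < e₀) :
    ∃ θ0 : ℝ, 0 < θ0 ∧ 2 * θ0 ≤ τ ∧ 8 * κ⁻¹ * θ0 ≤ c1 ∧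
    ∀ (θ1 C3 n3 nc1 nc2 nc3 : ℝ), 0 < C3 → 0 < n3 → 0 < nc1 → 0 < nc2 → 0 < nc3 →
    ∃ e1 : ℝ, 0 < e1 ∧ ∃ δE : ℝ, 0 < δE ∧ ∀ s : ℝ, 0 < s → ∀ (a₀ : R3) (Q₀ : Finset (Fin 3 → ℤ))
      (L : (Fin 3 → ℤ) → R3 →L[ℝ] R3), (∀ k ∈ Q₀, (∀ v, κ * ‖v‖ ≤ ‖L k v‖) ∧ ‖L k‖ ≤ κ⁻¹) →
      (∀ k ∈ Q₀, cel Cb (vt (2 * s) a₀ k) s ⊆ Om) →
      (∑ k ∈ Q₀, ∫⁻ x in cel Cb (vt (2 * s) a₀ k) s, ‖Gmat G x - L k‖ₑ ^ p) ≤
        ENNReal.ofReal e1 →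
      ∀ (J : Type) [Finite J] (kk : J → Fin 3 → ℤ) (Qb : J → CB R3 3) (k0 : ℕ),
      (∀ j, kk j ∈ Q₀) →
      (∀ j, BlkP κ s τ hh c1 θ0 θ1 Bs Nn (vt (2 * s) a₀ (kk j)) (Qb j) k0) →
      (∀ i j, i ≠ j → ∀ x ∈ (Qb i).N, ∀ y ∈ (Qb j).N, c2 * s ≤ dist x y) →
      1 / 2 ^ k0 ≤ θ0 * s →
      ∀ μ1 μ2 μ3 : R3 → Measure R3, RM (Dt (1 / 2 ^ k0)) (ENNReal.ofReal n1) μ1 →
      RM (Dt (1 / 2 ^ k0)) (ENNReal.ofReal n2) μ2 → RM (Dt (1 / 2 ^ k0)) (ENNReal.ofReal n3) μ3 →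
      (∀ a ∈ Dt (1 / 2 ^ k0), ∀ k : Fin 3 → ℤ,
        μ1 a (cel Cb (vt (2 * s) a₀ k) s) ≤ ENNReal.ofReal (nc1 * (2 * s) ^ 3) ∧
        μ2 a (cel Cb (vt (2 * s) a₀ k) s) ≤ ENNReal.ofReal (nc2 * (2 * s) ^ 3) ∧
        μ3 a (cel Cb (vt (2 * s) a₀ k) s) ≤ ENNReal.ofReal (nc3 * (2 * s) ^ 3)) →
      ∃ B2 : Set R3, volume B2 ≤ ENNReal.ofReal (1 / 2) * volume (Dt (1 / 2 ^ k0)) ∧
      ∀ a ∈ Dt (1 / 2 ^ k0), a ∉ B2 →
        (∀ S : Set R3, S ⊆ E1 Om Qb →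
          ENNReal.ofReal C1 * (∫⁻ y in S, En p G y ∂μ1 a) ≤
            ENNReal.ofReal (14 * n1 * C1) * (∫⁻ y in E1 Om Qb, En p G y) + ENNReal.ofReal e₀) ∧
        (∀ S : Set R3, S ⊆ WL Qb k0 r →
          ENNReal.ofReal C2 * (∫⁻ y in S, En p G y ∂μ2 a) ≤ ENNReal.ofReal e₀) ∧
        (∀ Q ⊆ Q₀, ((Q₀ \ Q).card : ℝ) * (2 * s) ^ 3 ≤ δE →
          ∀ S : Set R3, S ⊆ ⋃ k ∈ Q₀ \ Q, cel Cb (vt (2 * s) a₀ k) s →
          ENNReal.ofReal C3 * (∫⁻ y in S, En p G y ∂μ3 a) ≤ ENNReal.ofReal e₀) := by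
  classical
  have hvol : volume Om ≠ ∞ := hOmb.measure_lt_top.ne
  obtain ⟨θ', hθ', H0⟩ := el_num hp hp2 hOm hvol H hκ hτ (by linarith : τ < 1) hc1 hr hC1 hn1 hC2
    hn2 he₀
  have hκi : 0 < κ⁻¹ := inv_pos.2 hκ
  refine ⟨min θ' (min (τ / 2) (c1 / (8 * κ⁻¹))), by positivity, ?_, ?_, ?_⟩
  · have := (min_le_right θ' (min (τ / 2) (c1 / (8 * κ⁻¹)))).trans (min_le_left _ _)
    linarith
  · have := (min_le_right θ' (min (τ / 2) (c1 / (8 * κ⁻¹)))).trans (min_le_right _ _)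
    rwa [le_div_iff₀' (by positivity)] at this
  intro θ1 C3 n3 nc1 nc2 nc3 hC3 hn3 hnc1 hnc2 hnc3
  obtain ⟨e1, he1, δE, hδE, H1⟩ := H0 C3 n3 nc1 nc2 nc3 hC3 hn3 hnc1 hnc2 hnc3
  refine ⟨e1, he1, δE, hδE, fun s hs a₀ Q₀ L hL hcO hdev J _ kk Qb k0 hkk hB hsep hk0 μ1 μ2 μ3
    r1 r2 r3 hcnt => ?_⟩
  have hp0 : (0 : ℝ) < 1 / 2 ^ k0 := by positivity
  obtain ⟨B2, hB2, HB⟩ := H1 s hs a₀ Q₀ L (fun k hk => (hL k hk).2) hcO hdev J kk Qb k0 hkk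
    (fun j v => ((hB j).cnd v).1) (fun j => (hB j).cellL)
    (hk0.trans (mul_le_mul_of_nonneg_right (min_le_left _ _) hs.le)) (fun j => (hB j).sub)
    (pw_disj hc2 hs hsep) (Dt (1 / 2 ^ k0)) (meas_Dt _)
    (by
      rw [vol_Dt hp0]
      exact (ENNReal.ofReal_pos.2 (by positivity)).ne')
    (by rw [vol_Dt hp0]; exact ENNReal.ofReal_ne_top)
    μ1 (fun _ => 0) μ2 (fun _ => 0) μ3 (fun _ => 0) r1 (RM_zero _ _) r2 (RM_zero _ _) r3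
    (RM_zero _ _)
    (fun a ha k => by
      obtain ⟨q1, q2, q3⟩ := hcnt a ha k
      exact ⟨q1, by simp, q2, by simp, q3, by simp⟩)
    (E1 Om Qb) (meas_E1 hOm Qb) sdiff_subset
  refine ⟨B2, hB2, fun a ha haB => ?_⟩
  obtain ⟨q1, q2, q3⟩ := HB a ha haB
  exact ⟨fun S hS => (q1 S hS).1, fun S hS => (q2 S hS).1,
    fun Q _ hc S hS => (q3 (Q₀ \ Q) Finset.sdiff_subset hc S hS).1⟩

end Crest.Agent.R096.Eln_812
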