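import Crest.Agent.R096.Pmc2_112

/-!
# Row 96 (S0127), helper819.  EA0, leaf [E14]: the energy of the edges restricted to a set of tiles

`EE_leO`: 112's `EE_le` for any set `O` of ordinary tiles whose classes are in `S`;
`EE_leQ`: the form for `Res.energyQ` (`O = Ord V ∩ Q`).
-/

set_option autoImplicit false
set_option linter.style.longLine false

open MeasureTheory Set Filter Metric
open scoped Topology ENNReal

namespace Crest.Agent.R096.Elq_819

open Crest.Agent.R096.Msh_715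
open Crest.Agent.R096.SkC1_961 (E3 Cfg FoamD)
open Crest.Agent.R096.Ls_222 (Edg ea ev eIn)
open Crest.Agent.R096.Ea_713 (lin)
open Crest.Agent.R96.Pm_199
open Crest.Agent.R96.Sg1_199 (li sgm)
open Crest.Agent.R96.Sg3_199 (EnF)
open Crest.Agent.R96.EaCore_348 (bt EE Ord)
open Crest.Agent.R096.Pmc_112 (norm_lin_le)

noncomputable section

variable {Om : Set E3} {F J : Type}

/-- **the energy of a set `O` of ordinary tiles of one mesh and the classes in `S`** -/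
theorem EE_leO (M : MF Om F J) {C : Set (Set E3) → ℝ} (hC0 : ∀ 𝒦, 0 ≤ C 𝒦) {Cm : M.κ → ℝ}
    (hC : ∀ k, ∀ 𝒦 ∈ M.Sh k, C 𝒦 ≤ Cm k) (G : E3 → E3 → ℝ≥0∞) (K : ℝ≥0∞) {p : ℝ} (hp : 0 ≤ p)
    {a : E3} {w : J → E3} (h : M.Ok a w) {O : Set (M.md a w h).ι} {S : Set M.κ}
    (hO : ∀ i ∈ O, (M.md a w h).Ord i ∧ M.cl (M.pot a w h i) ∈ S) :
    EE C (M.md a w h).T (M.md a w h).fr O (fun e => K * le G e) p ≤
      ∑' k : S, (ENNReal.ofReal (Cm k) * K) ^ p * M.EnT G p a w h k := by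
  classical
  set T := (M.md a w h).T with hT
  set fr := (M.md a w h).fr with hfr
  have key : ∀ i : O, bt C T fr i.1 * ∑ e ∈ eIn T i.1, K * le G e ≤
      (ENNReal.ofReal (Cm (M.cl (M.pot a w h i.1))) * K) *
        (ENNReal.ofReal (M.β (M.pot a w h i.1)) * ∑ e ∈ eIn T i.1, le G e) := by
    intro i
    have h1 := M.shp a w h i.1 (hO i.1 i.2).1
    obtain ⟨h2, h3⟩ := norm_lin_le (M.frn a w h i.1 (hO i.1 i.2).1)
    rw [← Finset.mul_sum]
    have h4 : bt C T fr i.1 ≤ ENNReal.ofReal (Cm (M.cl (M.pot a w h i.1))) *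
        ENNReal.ofReal (M.β (M.pot a w h i.1)) := by
      unfold bt
      rw [← ENNReal.ofReal_mul ((hC0 _).trans (hC _ _ h1))]
      exact ENNReal.ofReal_le_ofReal (mul_le_mul (hC _ _ h1) h3 (norm_nonneg _)
        ((hC0 _).trans (hC _ _ h1)))
    calc bt C T fr i.1 * (K * ∑ e ∈ eIn T i.1, le G e)
        ≤ (ENNReal.ofReal (Cm (M.cl (M.pot a w h i.1))) *
            ENNReal.ofReal (M.β (M.pot a w h i.1))) * (K * ∑ e ∈ eIn T i.1, le G e) :=
          mul_le_mul' h4 le_rfl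
      _ = _ := by ring
  -- the class of a tile
  set c : O → S := fun i => ⟨M.cl (M.pot a w h i.1), (hO i.1 i.2).2⟩ with hc
  have e1 : ∑' i : O, volume (P (T.H i.1)) *
      ((ENNReal.ofReal (Cm (M.cl (M.pot a w h i.1))) * K) *
        (ENNReal.ofReal (M.β (M.pot a w h i.1)) * ∑ e ∈ eIn T i.1, le G e)) ^ p =
      ∑' (k : S) (i : {i : O // c i = k}), volume (P (T.H i.1.1)) *
      ((ENNReal.ofReal (Cm (M.cl (M.pot a w h i.1.1))) * K) *
        (ENNReal.ofReal (M.β (M.pot a w h i.1.1)) * ∑ e ∈ eIn T i.1.1, le G e)) ^ p := by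
    rw [← ENNReal.tsum_sigma' (f := fun q : Σ k : S, {i : O // c i = k} =>
      volume (P (T.H q.2.1.1)) *
      ((ENNReal.ofReal (Cm (M.cl (M.pot a w h q.2.1.1))) * K) *
        (ENNReal.ofReal (M.β (M.pot a w h q.2.1.1)) * ∑ e ∈ eIn T q.2.1.1, le G e)) ^ p)]
    exact ((Equiv.sigmaFiberEquiv c).tsum_eq
      (fun i : O => volume (P (T.H i.1)) *
      ((ENNReal.ofReal (Cm (M.cl (M.pot a w h i.1))) * K) *
        (ENNReal.ofReal (M.β (M.pot a w h i.1)) * ∑ e ∈ eIn T i.1, le G e)) ^ p)).symm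
  calc EE C T fr O (fun e => K * le G e) p
      ≤ ∑' i : O, volume (P (T.H i.1)) *
      ((ENNReal.ofReal (Cm (M.cl (M.pot a w h i.1))) * K) *
        (ENNReal.ofReal (M.β (M.pot a w h i.1)) * ∑ e ∈ eIn T i.1, le G e)) ^ p :=
        ENNReal.tsum_le_tsum fun i => mul_le_mul' le_rfl (ENNReal.rpow_le_rpow (key i) hp)
    _ = _ := e1
    _ ≤ ∑' k : S, (ENNReal.ofReal (Cm k) * K) ^ p * M.EnT G p a w h k := by
        refine ENNReal.tsum_le_tsum fun k => ?_
        unfold MF.EnT EnF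
        rw [← ENNReal.tsum_mul_left]
        have hk : ∀ i : {i : O // c i = k}, M.cl (M.pot a w h i.1.1) = k.1 := fun i =>
          congrArg Subtype.val i.2
        refine le_trans (le_of_eq ?_) (ENNReal.tsum_comp_le_tsum_of_injective
          (f := fun i : {i : O // c i = k} =>
            (⟨i.1.1, (hO i.1.1 i.1.2).1, hk i⟩ :
              {i // (M.md a w h).Ord i ∧ M.cl (M.pot a w h i) = k.1}))
          (fun i j hij => by
            have h5 := congrArg Subtype.val hij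
            exact Subtype.ext (Subtype.ext h5)) _)
        refine tsum_congr fun i => ?_
        simp only [hk i]
        rw [ENNReal.mul_rpow_of_nonneg _ _ hp]
        ring

/-- **[E14] `EE_leQ`**: the form for `Res.energyQ` -/
theorem EE_leQ (M : MF Om F J) {C : Set (Set E3) → ℝ} (hC0 : ∀ 𝒦, 0 ≤ C 𝒦) {Cm : M.κ → ℝ}
    (hC : ∀ k, ∀ 𝒦 ∈ M.Sh k, C 𝒦 ≤ Cm k) (G : E3 → E3 → ℝ≥0∞) (K : ℝ≥0∞) {p : ℝ} (hp : 0 ≤ p)
    {a : E3} {w : J → E3} (h : M.Ok a w) {Q : Set (M.md a w h).ι} {S : Set M.κ}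
    (hQ : ∀ i ∈ Q, (M.md a w h).Ord i → M.cl (M.pot a w h i) ∈ S) :
    EE C (M.md a w h).T (M.md a w h).fr ({i | (M.md a w h).Ord i} ∩ Q) (fun e => K * le G e) p ≤
      ∑' k : S, (ENNReal.ofReal (Cm k) * K) ^ p * M.EnT G p a w h k :=
  EE_leO M hC0 hC G K hp h fun i hi => ⟨hi.1, hQ i hi.2 hi.1⟩

end

end Crest.Agent.R096.Elq_819
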