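import Crest.Agent.R096.Elc2_812
import Crest.Agent.R096.Rmt6_816
import Crest.Agent.R96.Cl1a_538

/-!
Row 96 (S0127), helper816.  (EL): the energy list is closed.
-/

namespace Crest.Agent.R096.Rmt_816

/-- **(EL)** -/
theorem elP {p : ℝ} (hp : 1 ≤ p) (hp2 : p ≤ 2) : Pas_753.ElP p R96.Eld_538.Els :=
  Elc_812.elP_of hp hp2 R96.Eld_538.cls1 cls2 cls3

end Crest.Agent.R096.Rmt_816
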