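import Crest.Agent.R096.Enx1_766
import Crest.Agent.R096.Np2_962

/-!
Row 96 (S0127), helper766.  **ENERGY OF THE BLOCKS, NO0, `p ≥ 3`** (`Bmd_798.ExBlkN`): the block energies of
`Eau_365.block_en0` are at most a constant times the terms of `Np_962.Front3.cs`.
-/

set_option autoImplicit false
set_option linter.style.longLine false
set_option linter.unusedSectionVars false
set_option linter.unusedVariables false

open MeasureTheory Set Filter Topology Metric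
open scoped ENNReal NNReal

namespace Crest.Agent.R096.Enn_766

open Crest.Agent.R096.SkC1_961 (E3 Hom3 FoamD)
open Crest.Agent.R096.Er_594 (SH3)
open Crest.Agent.R096.Bsp_628 Crest.Agent.R096.Brk5_582
open Crest.Agent.R096.Bxs_627 (ctr CoriE)
open Crest.Agent.R096.EaX_766 (lin cbx ExIn Kor RatA)
open Crest.Agent.R096.Acc_365 (K1 K2 exin_mass inner_one gd_lp volume_K2_grow volume_K2 two_rpow)
open Crest.Agent.R096.Exa_365
open Crest.Agent.R096.Enx_766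

noncomputable section

variable {p : ℝ} {Om La : Set E3} {f : E3 → E3} {D D' : E3 → E3 →L[ℝ] E3} {o : E3} {u : ℝ}
  {A : E3 ≃ᵃ[ℝ] E3} {Q : Bx (Fin 3)} {lam κ0 κ1 κ2 : ℝ}

/-- volume of the enlarged box -/
theorem vol_box_le (hQ : Q.Pos) (hl : 0 ≤ lam) (hκ2 : 0 ≤ κ2) (hκ2' : κ2 ≤ 1 / 4) {S : Set E3}
    (hS : S ⊆ A ⁻¹' cbx Q ((1 + 2 * κ2) * lam)) : volume S ≤ 4 * volume (A ⁻¹' cbx Q lam) := by
  have h1 := volume_K2_grow (A := A) hQ hl (θ := 2 * κ2) (by positivity) 0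
  rw [volume_K2] at h1
  calc volume S ≤ volume (K1 A Q ((1 + 2 * κ2) * lam)) := measure_mono hS
    _ = ENNReal.ofReal ((1 + 2 * κ2) ^ 3) * volume (K1 A Q lam) := h1
    _ ≤ 4 * volume (K1 A Q lam) := by
        gcongr
        have h4 : (4 : ℝ≥0∞) = ENNReal.ofReal 4 := by norm_num
        rw [h4]
        apply ENNReal.ofReal_le_ofReal
        have h5 : 1 + 2 * κ2 ≤ 3 / 2 := by linarith
        calc (1 + 2 * κ2) ^ 3 ≤ (3 / 2) ^ 3 := by gcongr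
          _ ≤ 4 := by norm_num

/-- the energy of `D ∘ (lin A)⁻¹` on a part of the collar -/
theorem comp_energy_le (hp : 1 ≤ p) (hκ1 : 0 ≤ κ1) (hκ10 : κ1 * κ0 ^ 3 ≤ 1) (hQ : Q.Pos)
    (hl : 0 ≤ lam) (hκ : ∀ k, Q.sz ≤ κ0 * Q.side k) (hκ2 : 0 ≤ κ2) (hκ2' : κ2 ≤ 1 / 4)
    (hE : ExIn p Om f D o u κ1 κ2 Q A lam) {S : Set E3}
    (hSV : S ⊆ A ⁻¹' cbx Q ((1 + 2 * κ2) * lam)) :
    ∫⁻ x in S, ‖(D x).comp (lin A.symm)‖ₑ ^ p ≤
      (2:ℝ≥0∞) ^ (p - 1) * (5 * volume (A ⁻¹' cbx Q lam)) := by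
  have hp0 : 0 ≤ p := zero_le_one.trans hp
  have h2p : (2:ℝ≥0∞) ^ (p - 1) ≠ ∞ := ENNReal.rpow_ne_top_of_nonneg (by linarith) (by norm_num)
  have hg := gd_lp (p := p) (Om := Om) (f := f) (D := D) hκ1 hQ hl hκ hE hSV
  calc ∫⁻ x in S, ‖(D x).comp (lin A.symm)‖ₑ ^ p
      ≤ ∫⁻ x in S, (2:ℝ≥0∞) ^ (p - 1) * (1 + Gd A D x ^ p) := by
        refine lintegral_mono fun x => ?_
        have h3 : ‖(D x).comp (lin A.symm)‖ₑ ≤ 1 + Gd A D x := by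
          have h5 := enorm_add_le (ContinuousLinearMap.id ℝ E3)
            ((D x).comp (lin A.symm) - ContinuousLinearMap.id ℝ E3)
          have h6 : ContinuousLinearMap.id ℝ E3 +
              ((D x).comp (lin A.symm) - ContinuousLinearMap.id ℝ E3) =
              (D x).comp (lin A.symm) := by abel
          rw [h6] at h5
          refine h5.trans (add_le_add ?_ le_rfl)
          rw [← ofReal_norm, ← ENNReal.ofReal_one]
          exact ENNReal.ofReal_le_ofReal ContinuousLinearMap.norm_id_le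
        calc ‖(D x).comp (lin A.symm)‖ₑ ^ p ≤ (1 + Gd A D x) ^ p := ENNReal.rpow_le_rpow h3 hp0
          _ ≤ 2 ^ (p - 1) * ((1:ℝ≥0∞) ^ p + Gd A D x ^ p) :=
            ENNReal.rpow_add_le_mul_rpow_add_rpow _ _ hp
          _ = _ := by rw [ENNReal.one_rpow]
    _ = 2 ^ (p - 1) * (volume S + ∫⁻ x in S, Gd A D x ^ p) := by
        rw [lintegral_const_mul' _ _ h2p, lintegral_add_left measurable_const, setLIntegral_const,
          one_mul]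
    _ ≤ 2 ^ (p - 1) * (4 * volume (A ⁻¹' cbx Q lam) + 1 * volume (A ⁻¹' cbx Q lam)) := by
        gcongr
        · exact vol_box_le hQ hl hκ2 hκ2' hSV
        · refine hg.trans ?_
          gcongr
          · rw [← ENNReal.ofReal_one]
            exact ENNReal.ofReal_le_ofReal hκ10
          · exact le_rfl
    _ = _ := by ring

/-- the constant of the block energies -/
def KBN (p : ℝ) (C4 K3 : ℝ≥0∞) (Kq : ℝ) : ℝ≥0∞ :=
  C4 * (ENNReal.ofReal Kq * 2) ^ p * 4 + 8 * (K3 * (ENNReal.ofReal Kq ^ p * (2 ^ (p - 1) * 5)))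

theorem KBN_ne_top (hp : 1 ≤ p) {C4 K3 : ℝ≥0∞} (h4 : C4 ≠ ∞) (h3 : K3 ≠ ∞) (Kq : ℝ) :
    KBN p C4 K3 Kq ≠ ∞ := by
  have hp0 : 0 ≤ p := zero_le_one.trans hp
  unfold KBN
  refine ENNReal.add_ne_top.2 ⟨?_, ?_⟩
  · exact ENNReal.mul_ne_top (ENNReal.mul_ne_top h4 (ENNReal.rpow_ne_top_of_nonneg hp0
      (ENNReal.mul_ne_top ENNReal.ofReal_ne_top (by norm_num)))) (by norm_num)
  · exact ENNReal.mul_ne_top (by norm_num) (ENNReal.mul_ne_top h3 (ENNReal.mul_ne_top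
      (ENNReal.rpow_ne_top_of_nonneg hp0 ENNReal.ofReal_ne_top)
      (ENNReal.mul_ne_top (ENNReal.rpow_ne_top_of_nonneg (by linarith) (by norm_num))
        (by norm_num))))

/-- **one block**: the right-hand side of `Eau_365.block_en0` (`η ≤ 1`, `Kq / lam` for the push) is at
most `KBN` times the term of `Front3.cs` -/
theorem block_le (hp : 1 ≤ p) (hκ1 : 0 ≤ κ1) (hκ10 : κ1 * κ0 ^ 3 ≤ 1) (hQ : Q.Pos)
    (hl : 0 < lam) (hκ : ∀ k, Q.sz ≤ κ0 * Q.side k) (hκ2 : 0 ≤ κ2) (hκ2' : κ2 ≤ 1 / 4)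
    (hE : ExIn p Om f D o u κ1 κ2 Q A lam) {S N' : Set E3} (hS : MeasurableSet S)
    (hSV : S ⊆ A ⁻¹' cbx Q ((1 + 2 * κ2) * lam)) (hN : N' ⊆ A ⁻¹' cbx Q ((1 + 2 * κ2) * lam))
    {Kq η : ℝ} (hKq : 0 ≤ Kq) (hη : η ≤ 1) (hD' : ∀ᵐ x, x ∈ S → ∀ v, ‖D' x v‖ ≤ Kq / lam * ‖D x v‖)
    (C4 K3 : ℝ≥0∞) :
    C4 * (ENNReal.ofReal (Kq / lam) * (1 + ENNReal.ofReal η ^ (1 / p))) ^ p * ‖lin A‖ₑ ^ p *
        volume N' +
      8 * (K3 * (‖lin A‖ₑ ^ p * ∫⁻ z in S, ‖(D' z).comp (lin A.symm)‖ₑ ^ p)) ≤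
      KBN p C4 K3 Kq * (ENNReal.ofReal ((1 / lam * ‖lin A‖) ^ p) * volume (A ⁻¹' cbx Q lam)) := by
  have hp0 : 0 ≤ p := zero_le_one.trans hp
  set V := volume (A ⁻¹' cbx Q lam) with hV
  have h1 : ENNReal.ofReal (Kq / lam) = ENNReal.ofReal (1 / lam) * ENNReal.ofReal Kq := by
    rw [← ENNReal.ofReal_mul (by positivity)]
    congr 1
    ring
  have h2 : (1:ℝ≥0∞) + ENNReal.ofReal η ^ (1 / p) ≤ 2 := by
    have h3 : ENNReal.ofReal η ^ (1 / p) ≤ 1 := by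
      refine (ENNReal.rpow_le_rpow (ENNReal.ofReal_le_ofReal hη) (by positivity)).trans ?_
      rw [ENNReal.ofReal_one, ENNReal.one_rpow]
    calc (1:ℝ≥0∞) + ENNReal.ofReal η ^ (1 / p) ≤ 1 + 1 := by gcongr
      _ = 2 := by norm_num
  have h4 : ENNReal.ofReal ((1 / lam * ‖lin A‖) ^ p) =
      ENNReal.ofReal (1 / lam) ^ p * ‖lin A‖ₑ ^ p := by
    rw [← ENNReal.ofReal_rpow_of_nonneg (by positivity) hp0, ENNReal.ofReal_mul (by positivity),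
      ENNReal.mul_rpow_of_nonneg _ _ hp0, ofReal_norm]
  have h5 : (∫⁻ z in S, ‖(D' z).comp (lin A.symm)‖ₑ ^ p) ≤
      (ENNReal.ofReal (1 / lam) * ENNReal.ofReal Kq) ^ p * (2 ^ (p - 1) * (5 * V)) := by
    refine (dcomp_le hS (by positivity) hp0 hD' _).trans ?_
    rw [h1]
    gcongr
    exact comp_energy_le hp hκ1 hκ10 hQ hl.le hκ hκ2 hκ2' hE hSV
  have h6 : volume N' ≤ 4 * V := vol_box_le hQ hl.le hκ2 hκ2' hN
  calc _ ≤ C4 * (ENNReal.ofReal (1 / lam) * ENNReal.ofReal Kq * 2) ^ p * ‖lin A‖ₑ ^ p * (4 * V) +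
      8 * (K3 * (‖lin A‖ₑ ^ p *
        ((ENNReal.ofReal (1 / lam) * ENNReal.ofReal Kq) ^ p * (2 ^ (p - 1) * (5 * V))))) := by
        rw [h1]
        gcongr
    _ = _ := by
        rw [h4, mul_assoc (ENNReal.ofReal (1 / lam)) (ENNReal.ofReal Kq) 2,
          ENNReal.mul_rpow_of_nonneg (ENNReal.ofReal (1 / lam)) (ENNReal.ofReal Kq * 2) hp0,
          ENNReal.mul_rpow_of_nonneg (ENNReal.ofReal (1 / lam)) (ENNReal.ofReal Kq) hp0]
        unfold KBN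
        ring

/-- **the sum over all bricks** (blocks indexed by the subtype `univ`) -/
theorem sum_blocks {F : Type} {B : ↥(Set.univ : Set F) → ℝ≥0∞} {t : F → ℝ≥0∞} {KB e : ℝ≥0∞}
    (hB : ∀ j : ↥(Set.univ : Set F), B j ≤ KB * t j.1) (hs : ∑' c : F, t c ≤ e) :
    ∑' j, B j ≤ KB * e := by
  calc ∑' j, B j ≤ ∑' j : ↥(Set.univ : Set F), KB * t j.1 := ENNReal.tsum_le_tsum hB
    _ = KB * ∑' j : ↥(Set.univ : Set F), t j.1 := ENNReal.tsum_mul_left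
    _ = KB * ∑' c : F, t c := by rw [tsum_univ t]
    _ ≤ KB * e := by gcongr

/-- **`Σ B ≤ KB εf' vol Om`** of `Bmd_798.ExBlkN`, from `Front3` -/
theorem sum_front3 {q : ℕ} {s : Fin 3 → ℝ} {ε ε' : ℝ≥0∞} {Om La : Set E3} {f : E3 → E3}
    {M ρ0 h : ℝ} {a : Fin 3 → ℝ} {κ1 κ2 lam0 : ℝ}
    {Φ : FoamD (Dic6_582.dF q) (Dic6_582.kF q) 6 (Npr_582.cN q) La}
    {lam : Φ.F → ℝ} {A : Φ.F → E3 ≃ᵃ[ℝ] E3} {f1 : E3 → E3} {D1 : E3 → E3 →L[ℝ] E3} {X HH : Set E3}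
    {g : Φ.F → Fin 3 → E3 → ℝ}
    (H : Np_962.Front3 p q s ε ε' Om La f M ρ0 h a κ1 κ2 lam0 Φ lam A f1 D1 X HH g)
    {B : ↥(Set.univ : Set Φ.F) → ℝ≥0∞} {KB : ℝ≥0∞}
    (hB : ∀ j : ↥(Set.univ : Set Φ.F), B j ≤ KB * (ENNReal.ofReal ((1 / lam j.1 * ‖lin (A j.1)‖) ^ p) *
      volume (A j.1 ⁻¹' cbx j.1.1 (lam j.1)))) : ∑' j, B j ≤ KB * ε' * volume Om := by
  rw [mul_assoc]
  exact sum_blocks (t := fun c : Φ.F => ENNReal.ofReal ((1 / lam c * ‖lin (A c)‖) ^ p) *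
    volume (A c ⁻¹' cbx c.1 (lam c))) hB H.cs

end

end Crest.Agent.R096.Enn_766
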