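import Crest.Agent.R096.Yl1_471

/-!
# Row 96, DOORS, (NE) (helper527): the barrier in the layers over a region with traces

`X` closed under the chords of the name `i` on the vertical faces over the edges `B` (471's `Vcl`).

* `MonT`    : the points of `D` (= trace points) never come back;
* `up`      : a trace point `hp j w` over `B` is joined straight up with `w`;
* `updown`  : a point of `X` in the layers over `B` is joined with a point of the level `0` or with
              a point of the boundary of the shrunk core;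
* `par_face`: the parity of `X` on a vertical face;
* `entry`   : **if all points of the level `0` over `B` are in `X` and there is a path in `B` from a
              vertex of label `1` to a vertex of label `0`, both never moving, then `X` has a point
              on the boundary of the shrunk core**.
-/

set_option autoImplicit false
set_option linter.unusedSectionVars false
set_option linter.style.longLine false

open Set Module
open scoped Classical

namespace Crest.Agent.R096.Ent_527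

open Crest.Agent.R096.Msh_715 Crest.Agent.R096.Agl5_543 Crest.Agent.R096.St_147
  Crest.Agent.R096.Seq_213 Crest.Agent.R096.Door_501 Crest.Agent.R096.Sla_184
  Crest.Agent.R096.Twr_438 Crest.Agent.R096.Exa_560 Crest.Agent.R096.Ess3_95
  Crest.Agent.R096.Ess4_95 Crest.Agent.R096.Dfi_539 Crest.Agent.R096.Dfi_471
  Crest.Agent.R096.Yl_471
open Crest.Agent.R096.Sla_184.Sla (hf vf old tg F0 Fn Out OnS InL In)

variable {E : Type} [NormedAddCommGroup E] [NormedSpace ℝ E] [FiniteDimensional ℝ E]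
variable {Om : Set E} {ι : Type} {T : Tiling Om ι} {κ : Type} {S : Sla T κ}
  {h3 : finrank ℝ E = 3} {J C : Type} {fam : J → C}

variable {s : GSt (S.m0 h3) fam} {Tw : Twrs (S.sh h3) S.n s} {l0 : E → J}
  {c : κ} {a : C} {j : ℕ} {i : J} {w x : E} {B : Set (S.Ed c)} {D D' X : Set E}

/-- **(MONT)**: the points of `D` never come back -/
def MonT (Tw : Twrs (S.sh h3) S.n s) (c : κ) (a : C) (D : Set E) : Prop :=
  ∀ j, ∀ w ∈ ((Tw.tw c a).pat (j + 1)).P, w ∈ D → w ∈ ((Tw.tw c a).pat j).P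

/-- **straight up** -/
theorem up (hmon : MonT Tw c a D) (hX : Vcl Tw l0 c B i X) {e : S.Ed c} (he : e ∈ B)
    (hw : w ∈ e.1.opn) (hwD : w ∈ D) : ∀ {j : ℕ}, j ≤ S.n c → w ∈ ((Tw.tw c a).pat j).P →
      S.hp c j w ∈ X → (s2 S h3 Tw l0).lab (S.hp c j w) = i →
      w ∈ ((Tw.tw c a).pat 0).P ∧ w ∈ X ∧ (s2 S h3 Tw l0).lab w = i := by
  intro j
  induction j with
  | zero =>
    intro _ h1 h2 h4
    rw [Sla.hp_zero] at h2 h4
    exact ⟨h1, h2, h4⟩
  | succ j ih =>
    intro hj h1 h2 h4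
    have hj' : j < S.n c := by omega
    have g1 := hmon j w h1 hwD
    have hF : S.hp c (j + 1) w ∈ (S.mn h3).On (vf h3 e j) :=
      (Sla.on_vf_hp hj hj' hw).2 ⟨rfl, Or.inr rfl⟩
    have hx : (Sum.inr (Sum.inl w) : (S.sh h3 c).Pnt) ∈ ((Tw.tw c a).mv j).P' :=
      ((Tw.tw c a).mv j).bot_mem_P'.2 (Twrs.mem_B.2 h1)
    have hxF : (Sum.inr (Sum.inl w) : (S.sh h3 c).Pnt) ∈ (S.sh h3 c).On (Sum.inr (Sum.inr e)) :=
      (S.sh h3 c).bot_mem_vert.2 hw
    have hmu : (s2 S h3 Tw l0).mu (vf h3 e j) (S.hp c (j + 1) w) = S.hp c j w := by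
      have h5 := mu_vf (l0 := l0) hj' hx hxF
      rw [Move.mu'_vert_nqe _ _ (((Tw.tw c a).mv j).bot_not_qe g1)] at h5
      exact h5
    have hP := mem_hp (l0 := l0) hj h1
    have h6 := hX e he j hj' _ h2 hP h4 hF
    rw [hmu] at h6
    have h7 := (s2 S h3 Tw l0).mu_lab hP hF
    rw [hmu, h4] at h7
    exact ih hj'.le g1 h6 h7

/-- the two ends of a walk in the layers -/
def Ends (Tw : Twrs (S.sh h3) S.n s) (l0 : E → J) (c : κ) (a : C) (B : Set (S.Ed c)) (i : J)
    (X : Set E) : Prop :=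
  (∃ e ∈ B, ∃ w, w ∈ e.1.opn ∧ w ∈ ((Tw.tw c a).pat 0).P ∧ w ∈ X ∧
    (s2 S h3 Tw l0).lab w = i) ∨
  ∃ e ∈ B, ∃ w, w ∈ e.1.opn ∧ w ∈ ((Tw.tw c a).pat (S.n c)).P ∧ S.hp c (S.n c) w ∈ X ∧
    (s2 S h3 Tw l0).lab (S.hp c (S.n c) w) = i

theorem ends_hp (hmon : Mon Tw c a D) (hmonT : MonT Tw c a D')
    (hD : ∀ j, ∀ w ∈ ((Tw.tw c a).pat j).P, w ∈ D ∨ w ∈ D') (hX : Vcl Tw l0 c B i X) {e : S.Ed c}
    (he : e ∈ B) (hw : w ∈ e.1.opn) (hj : j ≤ S.n c) (hwP : w ∈ ((Tw.tw c a).pat j).P)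
    (hwX : S.hp c j w ∈ X) (hl : (s2 S h3 Tw l0).lab (S.hp c j w) = i) :
    Ends Tw l0 c a B i X := by
  rcases hD j w hwP with h | h
  · obtain ⟨h1, h2, h4⟩ := down hmon hX he hw h hj hwP hwX hl
    exact Or.inr ⟨e, he, w, hw, h1, h2, h4⟩
  · obtain ⟨h1, h2, h4⟩ := up hmonT hX he hw h hj hwP hwX hl
    exact Or.inl ⟨e, he, w, hw, h1, h2, h4⟩

/-- a vertical point of the layer `j` -/
theorem ends_vp (hmon : Mon Tw c a D) (hmonT : MonT Tw c a D')
    (hD : ∀ j, ∀ w ∈ ((Tw.tw c a).pat j).P, w ∈ D ∨ w ∈ D') (hX : Vcl Tw l0 c B i X)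
    (hj : j < S.n c) {v v' : S.Vx c} (hw : Relation.ReflTransGen (Stp S h3 c B) v v')
    (hv' : v' ∉ ((Tw.tw c a).mv j).Qv) (hv : v ∈ ((Tw.tw c a).mv j).Qv)
    (hvX : S.vc c v.1 j ∈ X) (hl : (s2 S h3 Tw l0).lab (S.vc c v.1 j) = i) :
    Ends Tw l0 c a B i X := by
  induction hw using Relation.ReflTransGen.head_induction_on with
  | refl => exact absurd hv hv'
  | @head v v1 h1 _ ih =>
    obtain ⟨e, he, b, hb, hb'⟩ := h1
    have hF : S.vc c v.1 j ∈ (S.mn h3).On (vf h3 e j) := (Sla.on_vf_vp hj hj).2 ⟨rfl, b, hb⟩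
    have hx : (Sum.inr (Sum.inr v) : (S.sh h3 c).Pnt) ∈ ((Tw.tw c a).mv j).P' :=
      ((Tw.tw c a).mv j).vert_mem_P'.2 hv
    have hq : (Sum.inr (Sum.inr v) : (S.sh h3 c).Pnt) ∈ ((Tw.tw c a).mv j).qe :=
      ((Tw.tw c a).mv j).vert_mem_qe.2 hv
    have hxF : (Sum.inr (Sum.inr v) : (S.sh h3 c).Pnt) ∈ (S.sh h3 c).On (Sum.inr (Sum.inr e)) :=
      Or.inr (Or.inr ⟨b, by rw [hb]⟩)
    have hpr := ((Tw.tw c a).mv j).pr_spec ((Tw.tw c a).par j) e _
      (((Tw.tw c a).mv j).mem_qon.2 ⟨hq, hxF⟩)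
    have hmu := mu_vf (l0 := l0) hj hx hxF
    rw [Move.mu'_vert_qe _ _ hq] at hmu
    have hP := mem_vp (l0 := l0) hj hv
    have h6 := hX e he j hj _ hvX hP hl hF
    have h7 := (s2 S h3 Tw l0).mu_lab hP hF
    have e1 : Twrs.emb (S.cols h3) c j (Sum.inr (Sum.inr v)) = S.vc c v.1 j := rfl
    rw [e1] at hmu
    rw [hmu] at h6 h7
    rw [hl] at h7
    obtain ⟨g1, g2, -, -, -⟩ := hpr
    obtain ⟨y, hy⟩ : ∃ y, y = ((Tw.tw c a).mv j).pr ((Tw.tw c a).par j) e
      (Sum.inr (Sum.inr v)) := ⟨_, rfl⟩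
    rw [← hy] at g1 g2 h6 h7
    obtain ⟨g3, g4⟩ := ((Tw.tw c a).mv j).mem_qon.1 g1
    rcases y with w | w | v''
    · -- a top point
      obtain ⟨p1, -, -⟩ := ((Tw.tw c a).mv j).top_mem_qe.1 g3
      have p4 : w ∈ e.1.opn := (S.sh h3 c).top_mem_vert.1 g4
      exact ends_hp hmon hmonT hD hX he p4 hj.le p1 h6 h7
    · -- a bottom point
      obtain ⟨p1, -⟩ := ((Tw.tw c a).mv j).bot_mem_qe.1 g3
      have p4 : w ∈ e.1.opn := (S.sh h3 c).bot_mem_vert.1 g4
      exact ends_hp hmon hmonT hD hX he p4 (show j + 1 ≤ S.n c by omega) (Twrs.mem_B.1 p1) h6 h7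
    · -- the other end of the edge
      have p1 := ((Tw.tw c a).mv j).vert_mem_qe.1 g3
      have p2 : v'' = v1 := by
        rcases g4 with ⟨_, _, h⟩ | ⟨_, _, h⟩ | ⟨b', h⟩
        · cases h
        · cases h
        · have h8 : v'' = (S.sh h3 c).en e b' := Sum.inr.inj (Sum.inr.inj h)
          have h9 : b' = !b := by
            by_contra hne
            have h10 : b' = b := by
              cases b <;> cases b' <;> simp_all
            rw [h10, hb] at h8
            exact g2 (by rw [h8])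
          rw [h8, h9, hb']
      rw [p2] at p1 h6 h7
      exact ih p1 h6 h7

/-! ### parity -/

/-- number (mod 2) of the points of `X` of the name `i` on the level `j` of the edge `e` -/
noncomputable def nA (Tw : Twrs (S.sh h3) S.n s) (l0 : E → J) (c : κ) (a : C) (i : J) (X : Set E)
    (j : ℕ) (e : S.Ed c) : ZMod 2 :=
  ∑ w ∈ ((Tw.tw c a).pat j).P,
    if w ∈ e.1.opn ∧ S.hp c j w ∈ X ∧ (s2 S h3 Tw l0).lab (S.hp c j w) = i then 1 else 0

/-- the vertical point over `v` in the layer `j` is in `X` -/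
noncomputable def nV (Tw : Twrs (S.sh h3) S.n s) (l0 : E → J) (c : κ) (a : C) (i : J) (X : Set E)
    (j : ℕ) (v : S.Vx c) : ZMod 2 :=
  if v ∈ ((Tw.tw c a).mv j).Qv ∧ S.vc c v.1 j ∈ X ∧ (s2 S h3 Tw l0).lab (S.vc c v.1 j) = i
  then 1 else 0

/-- **parity on a vertical face** -/
theorem par_face (hX : Vcl Tw l0 c B i X) {e : S.Ed c} (he : e ∈ B) (hj : j < S.n c) :
    nA Tw l0 c a i X j e + nA Tw l0 c a i X (j + 1) e + nV Tw l0 c a i X j ((S.sh h3 c).en e false) +
      nV Tw l0 c a i X j ((S.sh h3 c).en e true) = 0 := by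
  let m := (Tw.tw c a).mv j
  let em : (S.sh h3 c).Pnt → E := Twrs.emb (S.cols h3) c j
  let Pr : (S.sh h3 c).Pnt → Prop := fun x =>
    x ∈ (S.sh h3 c).On (Sum.inr (Sum.inr e)) ∧ em x ∈ X ∧ (s2 S h3 Tw l0).lab (em x) = i
  -- points of the layer are points of the state
  have hmem : ∀ x ∈ m.P', x ∈ (S.sh h3 c).On (Sum.inr (Sum.inr e)) →
      em x ∈ (s2 S h3 Tw l0).P ∧ em x ∈ (S.mn h3).On (vf h3 e j) := by
    intro x hx hxF
    refine ⟨?_, ?_⟩
    · rcases x with w | w | v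
      · exact mem_hp (l0 := l0) hj.le (m.top_mem_P'.1 hx)
      · exact mem_hp (l0 := l0) (show j + 1 ≤ S.n c by omega) (Twrs.mem_B.1 (m.bot_mem_P'.1 hx))
      · exact mem_vp (l0 := l0) hj (m.vert_mem_P'.1 hx)
    · rcases x with w | w | v
      · exact (Sla.on_vf_hp hj.le hj ((S.sh h3 c).top_mem_vert.1 hxF)).2 ⟨rfl, Or.inl rfl⟩
      · exact (Sla.on_vf_hp (show j + 1 ≤ S.n c by omega) hj
          ((S.sh h3 c).bot_mem_vert.1 hxF)).2 ⟨rfl, Or.inr rfl⟩
      · exact (Sla.on_vf_vp hj hj).2 ⟨rfl, (S.sh h3 c).vert_mem_vert.1 hxF⟩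
  -- the sum over all points is 0
  have h0 : ∑ x ∈ m.P'.filter Pr, (1 : ZMod 2) = 0 := by
    refine Finset.sum_involution
      (fun x _ => m.mu' ((Tw.tw c a).par j) (Sum.inr (Sum.inr e)) x) (fun x hx => by decide)
      (fun x hx _ => ?_) (fun x hx => ?_) (fun x hx => ?_)
    · obtain ⟨h1, h2, -⟩ := Finset.mem_filter.1 hx
      exact m.mu'_ne (F := Sum.inr (Sum.inr e)) ((Tw.tw c a).par j) h1 h2
    · obtain ⟨h1, h2, h4, h5⟩ := Finset.mem_filter.1 hx
      obtain ⟨g1, g2⟩ := m.mu'_mem (F := Sum.inr (Sum.inr e)) ((Tw.tw c a).par j) h1 h2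
      obtain ⟨k1, k2⟩ := hmem x h1 h2
      have h6 := hX e he j hj _ h4 k1 h5 k2
      have h7 := (s2 S h3 Tw l0).mu_lab k1 k2
      have h8 : (s2 S h3 Tw l0).mu (vf h3 e j) (em x) =
          em (m.mu' ((Tw.tw c a).par j) (Sum.inr (Sum.inr e)) x) := mu_vf (l0 := l0) hj h1 h2
      rw [h8] at h6 h7
      exact Finset.mem_filter.2 ⟨g1, g2, h6, h7.trans h5⟩
    · obtain ⟨h1, h2, -⟩ := Finset.mem_filter.1 hx
      exact m.mu'_mu' (F := Sum.inr (Sum.inr e)) ((Tw.tw c a).par j) h1 h2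
  rw [Finset.sum_filter] at h0
  -- split
  have hP' : m.P' = (((Tw.tw c a).pat j).P.image (S.sh h3 c).top) ∪
      ((m.B.image (S.sh h3 c).bot) ∪ (m.Qv.image (S.sh h3 c).vert)) := by
    apply Finset.ext
    intro x
    rw [Finset.mem_union, Finset.mem_union, Finset.mem_image, Finset.mem_image, Finset.mem_image]
    rcases x with w | w | v
    · constructor
      · intro h
        exact Or.inl ⟨w, m.top_mem_P'.1 h, rfl⟩
      · rintro (⟨w', h, h'⟩ | ⟨w', h, h'⟩ | ⟨w', h, h'⟩)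
        · cases h'
          exact m.top_mem_P'.2 h
        · cases h'
        · cases h'
    · constructor
      · intro h
        exact Or.inr (Or.inl ⟨w, m.bot_mem_P'.1 h, rfl⟩)
      · rintro (⟨w', h, h'⟩ | ⟨w', h, h'⟩ | ⟨w', h, h'⟩)
        · cases h'
        · cases h'
          exact m.bot_mem_P'.2 h
        · cases h'
    · constructor
      · intro h
        exact Or.inr (Or.inr ⟨v, m.vert_mem_P'.1 h, rfl⟩)
      · rintro (⟨w', h, h'⟩ | ⟨w', h, h'⟩ | ⟨w', h, h'⟩)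
        · cases h'
        · cases h'
        · cases h'
          exact m.vert_mem_P'.2 h
  have hd1 : Disjoint (((Tw.tw c a).pat j).P.image (S.sh h3 c).top)
      ((m.B.image (S.sh h3 c).bot) ∪ (m.Qv.image (S.sh h3 c).vert)) := by
    rw [Finset.disjoint_left]
    intro x hx hx'
    obtain ⟨w, -, rfl⟩ := Finset.mem_image.1 hx
    rcases Finset.mem_union.1 hx' with h | h
    · obtain ⟨w', -, h'⟩ := Finset.mem_image.1 h
      cases h'
    · obtain ⟨w', -, h'⟩ := Finset.mem_image.1 h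
      cases h'
  have hd2 : Disjoint (m.B.image (S.sh h3 c).bot) (m.Qv.image (S.sh h3 c).vert) := by
    rw [Finset.disjoint_left]
    intro x hx hx'
    obtain ⟨w, -, rfl⟩ := Finset.mem_image.1 hx
    obtain ⟨w', -, h'⟩ := Finset.mem_image.1 hx'
    cases h'
  rw [hP', Finset.sum_union hd1, Finset.sum_union hd2,
    Finset.sum_image (fun x _ y _ h => Sum.inl.inj h),
    Finset.sum_image (fun x _ y _ h => Sum.inl.inj (Sum.inr.inj h)),
    Finset.sum_image (fun x _ y _ h => Sum.inr.inj (Sum.inr.inj h))] at h0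
  have e1 : (∑ w ∈ ((Tw.tw c a).pat j).P, if Pr ((S.sh h3 c).top w) then (1 : ZMod 2) else 0) =
      nA Tw l0 c a i X j e := by
    unfold nA
    refine Finset.sum_congr rfl fun w _ => if_congr ?_ rfl rfl
    show (_ ∧ _ ∧ _) ↔ _
    rw [(S.sh h3 c).top_mem_vert]
    exact Iff.rfl
  have e2 : (∑ w ∈ m.B, if Pr ((S.sh h3 c).bot w) then (1 : ZMod 2) else 0) =
      nA Tw l0 c a i X (j + 1) e := by
    unfold nA
    have hBP : m.B = ((Tw.tw c a).pat (j + 1)).P := Finset.ext fun w => Twrs.mem_B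
    rw [hBP]
    refine Finset.sum_congr rfl fun w _ => if_congr ?_ rfl rfl
    show (_ ∧ _ ∧ _) ↔ _
    rw [(S.sh h3 c).bot_mem_vert]
    exact Iff.rfl
  have e3 : (∑ v ∈ m.Qv, if Pr ((S.sh h3 c).vert v) then (1 : ZMod 2) else 0) =
      nV Tw l0 c a i X j ((S.sh h3 c).en e false) + nV Tw l0 c a i X j ((S.sh h3 c).en e true) := by
    have hne := (S.sh h3 c).en_ne e
    have h1 : ∀ v ∈ m.Qv, (if Pr ((S.sh h3 c).vert v) then (1 : ZMod 2) else 0) =
        (if v = (S.sh h3 c).en e false then nV Tw l0 c a i X j ((S.sh h3 c).en e false) else 0) +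
        (if v = (S.sh h3 c).en e true then nV Tw l0 c a i X j ((S.sh h3 c).en e true) else 0) := by
      intro v hv
      have hiff : Pr ((S.sh h3 c).vert v) ↔ (∃ b, v = (S.sh h3 c).en e b) ∧
          S.vc c v.1 j ∈ X ∧ (s2 S h3 Tw l0).lab (S.vc c v.1 j) = i := by
        show (_ ∧ _ ∧ _) ↔ _
        rw [(S.sh h3 c).vert_mem_vert]
        constructor
        · rintro ⟨⟨b, hb⟩, h⟩; exact ⟨⟨b, hb.symm⟩, h⟩
        · rintro ⟨⟨b, hb⟩, h⟩; exact ⟨⟨b, hb.symm⟩, h⟩
      rw [if_congr hiff rfl rfl]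
      by_cases hf : v = (S.sh h3 c).en e false
      · have ht : v ≠ (S.sh h3 c).en e true := fun h => hne (hf.symm.trans h)
        rw [if_pos hf, if_neg ht, add_zero, ← hf]
        unfold nV
        refine if_congr ?_ rfl rfl
        exact ⟨fun h => ⟨hv, h.2⟩, fun h => ⟨⟨false, hf⟩, h.2⟩⟩
      · by_cases ht : v = (S.sh h3 c).en e true
        · rw [if_neg hf, if_pos ht, zero_add, ← ht]
          unfold nV
          refine if_congr ?_ rfl rfl
          exact ⟨fun h => ⟨hv, h.2⟩, fun h => ⟨⟨true, ht⟩, h.2⟩⟩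
        · rw [if_neg hf, if_neg ht, add_zero, if_neg]
          rintro ⟨⟨b, hb⟩, -⟩
          cases b
          · exact hf hb
          · exact ht hb
    rw [Finset.sum_congr rfl h1, Finset.sum_add_distrib, Finset.sum_ite_eq', Finset.sum_ite_eq']
    congr 1
    · split_ifs with h
      · rfl
      · unfold nV
        rw [if_neg fun h' => h h'.1]
    · split_ifs with h
      · rfl
      · unfold nV
        rw [if_neg fun h' => h h'.1]
  rw [e1, e2, e3] at h0
  rw [← h0]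
  ring

/-- **telescoping** -/
theorem par_edge (hX : Vcl Tw l0 c B i X) {e : S.Ed c} (he : e ∈ B) : ∀ k, k ≤ S.n c →
    nA Tw l0 c a i X 0 e + nA Tw l0 c a i X k e +
      (∑ j ∈ Finset.range k, nV Tw l0 c a i X j ((S.sh h3 c).en e false)) +
      (∑ j ∈ Finset.range k, nV Tw l0 c a i X j ((S.sh h3 c).en e true)) = 0 := by
  intro k
  induction k with
  | zero =>
    intro _
    rw [Finset.range_zero, Finset.sum_empty, Finset.sum_empty, add_zero, add_zero]
    exact CharTwo.add_self_eq_zero _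
  | succ k ih =>
    intro hk
    have h1 := ih (by omega)
    have h2 := par_face (a := a) hX he (show k < S.n c by omega)
    rw [Finset.sum_range_succ, Finset.sum_range_succ]
    have h4 := CharTwo.add_self_eq_zero (nA Tw l0 c a i X k e)
    linear_combination h1 + h2 - h4

/-- number (mod 2) of the vertical points of `X` over `v` -/
noncomputable def Lam (Tw : Twrs (S.sh h3) S.n s) (l0 : E → J) (c : κ) (a : C) (i : J) (X : Set E)
    (v : S.Vx c) : ZMod 2 := ∑ j ∈ Finset.range (S.n c), nV Tw l0 c a i X j v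

/-- number (mod 2) of the points of the name `i` of the level `0` on the edge `e` -/
noncomputable def nT (Tw : Twrs (S.sh h3) S.n s) (c : κ) (a : C) (i : J) (e : S.Ed c) : ZMod 2 :=
  ∑ w ∈ ((Tw.tw c a).pat 0).P, if w ∈ e.1.opn ∧ s.lab w = i then 1 else 0

/-- **ENTRY** -/
theorem entry (hX : Vcl Tw l0 c B i X)
    (hall : ∀ e ∈ B, ∀ w ∈ ((Tw.tw c a).pat 0).P, w ∈ e.1.opn → s.lab w = i → w ∈ X)
    {ℓ : S.Vx c → ZMod 2} (hℓ : ∀ e ∈ B, ℓ ((S.sh h3 c).en e false) + ℓ ((S.sh h3 c).en e true) =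
      nT Tw c a i e) {v v' : S.Vx c} (hp : Relation.ReflTransGen (Stp S h3 c B) v v')
    (hv : ∀ j, v ∉ ((Tw.tw c a).mv j).Qv) (hv' : ∀ j, v' ∉ ((Tw.tw c a).mv j).Qv)
    (hne : ℓ v ≠ ℓ v') :
    ∃ e ∈ B, ∃ w, w ∈ e.1.opn ∧ w ∈ ((Tw.tw c a).pat (S.n c)).P ∧ S.hp c (S.n c) w ∈ X ∧
      (s2 S h3 Tw l0).lab (S.hp c (S.n c) w) = i := by
  by_contra hcon
  push Not at hcon
  have hn : ∀ e ∈ B, nA Tw l0 c a i X (S.n c) e = 0 := by
    intro e he
    unfold nA
    refine Finset.sum_eq_zero fun w hw => if_neg ?_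
    rintro ⟨h1, h2, h4⟩
    exact hcon e he w h1 hw h2 h4
  have h0 : ∀ e ∈ B, nA Tw l0 c a i X 0 e = nT Tw c a i e := by
    intro e he
    unfold nA nT
    refine Finset.sum_congr rfl fun w hw => if_congr ?_ rfl rfl
    rw [Sla.hp_zero, lab_old ((Tw.P0 c a w).1 hw).1]
    exact ⟨fun h => ⟨h.1, h.2.2⟩, fun h => ⟨h.1, hall e he w hw h.1 h.2, h.2⟩⟩
  have hstep : ∀ e ∈ B, Lam Tw l0 c a i X ((S.sh h3 c).en e false) + ℓ ((S.sh h3 c).en e false) =
      Lam Tw l0 c a i X ((S.sh h3 c).en e true) + ℓ ((S.sh h3 c).en e true) := by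
    intro e he
    have h1 := par_edge (a := a) hX he (S.n c) le_rfl
    rw [hn e he, h0 e he, add_zero, ← hℓ e he] at h1
    unfold Lam
    have h2 := CharTwo.add_self_eq_zero
      (∑ j ∈ Finset.range (S.n c), nV Tw l0 c a i X j ((S.sh h3 c).en e true))
    have h4 := CharTwo.add_self_eq_zero (ℓ ((S.sh h3 c).en e true))
    linear_combination h1 - h2 - h4
  have key : Lam Tw l0 c a i X v + ℓ v = Lam Tw l0 c a i X v' + ℓ v' := by
    clear hv hv' hne
    induction hp with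
    | refl => rfl
    | @tail x y _ hs ih =>
      rw [ih]
      obtain ⟨e, he, b, rfl, rfl⟩ := hs
      cases b
      · exact hstep e he
      · exact (hstep e he).symm
  have hz : ∀ v : S.Vx c, (∀ j, v ∉ ((Tw.tw c a).mv j).Qv) → Lam Tw l0 c a i X v = 0 := by
    intro v hv
    unfold Lam
    refine Finset.sum_eq_zero fun j _ => ?_
    unfold nV
    exact if_neg fun h => hv j h.1
  rw [hz v hv, hz v' hv', zero_add, zero_add] at key
  exact hne key

end Crest.Agent.R096.Ent_527
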