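import Crest.Agent.R096.Eau5b_365
import Crest.Agent.R096.Eds6_746
import Crest.Agent.R096.Enx1_766
import Crest.Agent.R096.Eax3_481
import Crest.Agent.R096.Pgn8_112
import Crest.Agent.R096.Ucm1_374
import Crest.Agent.R096.Mdd13_360

/-!
# Row 96 (S0127), EaX (helper360): insurance composition of `PreX`, part 1: numbers, one block
-/

set_option autoImplicit false
set_option linter.style.longLine false
set_option linter.unusedSectionVars false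
set_option linter.unusedVariables false

open MeasureTheory Set Filter Topology Metric
open scoped ENNReal NNReal

namespace Crest.Agent.R096.Epx_360

open Crest.Agent.R096.Msh_715 Crest.Agent.R096.Mal_874 Crest.Agent.R096.Ncl_476
  Crest.Agent.R096.Msh_810 Crest.Agent.R096.Ine_222 Crest.Agent.R096.Mfi_290
open Crest.Agent.R096.SkC1_961 (E3 Hom3 FoamD)
open Crest.Agent.R096.Er_594 (SH3)
open Crest.Agent.R096.Bsp_628 Crest.Agent.R096.Brk5_582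
open Crest.Agent.R096.Bxs_627 (ctr)
open Crest.Agent.R096.EaX_766 (lin cbx ExIn Kor RatA)
open Crest.Agent.R096.Exa_365 Crest.Agent.R096.Acc_365
open Crest.Agent.R096.Ls_222 (Edg ea ev eIn mem_eIn sgm_edg ev_ne)
open Crest.Agent.R096.Pmc_112 (Gd' Kl)
open Crest.Agent.R096.Eds_746 (EB)
open Crest.Agent.R096.Exg_766 (Sx XG)
open Crest.Agent.R096.Eau_365 (BkX)
open Crest.Agent.R096.Mfa_880 (QU)
open Crest.Agent.R96.Wm4_748 (K3)
open Crest.Agent.R96.Sg1_199 (li sgm)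

noncomputable section

/-! ### numbers -/

/-- the constant of the block energies -/
def KB5 (p : ℝ) (Kw : ℝ≥0∞) (Bn : ℕ) (R0 KQ' : ℝ) : ℝ≥0∞ :=
  Kw * (8 * (K3 p (Mfb_290.nE Bn R0) 2 1 1 181 * ENNReal.ofReal KQ' ^ p))

def KB6 (p : ℝ) (Kw : ℝ≥0∞) (C4 : ℝ≥0) (KQ' : ℝ) : ℝ≥0∞ :=
  Kw * (C4 * (ENNReal.ofReal KQ' * 2) ^ p)

theorem KB5_ne_top {p : ℝ} (hp : 0 ≤ p) {Kw : ℝ≥0∞} (hKw : Kw ≠ ∞) (Bn : ℕ) (R0 KQ' : ℝ) :
    KB5 p Kw Bn R0 KQ' ≠ ∞ := by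
  unfold KB5
  refine ENNReal.mul_ne_top hKw (ENNReal.mul_ne_top (by norm_num) (ENNReal.mul_ne_top ?_ ?_))
  · exact Crest.Agent.R96.Wm4_748.K3_ne_top hp (by norm_num)
  · exact ENNReal.rpow_ne_top_of_nonneg hp ENNReal.ofReal_ne_top

theorem KB6_ne_top {p : ℝ} (hp : 0 ≤ p) {Kw : ℝ≥0∞} (hKw : Kw ≠ ∞) (C4 : ℝ≥0) (KQ' : ℝ) :
    KB6 p Kw C4 KQ' ≠ ∞ := by
  unfold KB6
  refine ENNReal.mul_ne_top hKw (ENNReal.mul_ne_top ENNReal.coe_ne_top ?_)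
  exact ENNReal.rpow_ne_top_of_nonneg hp (ENNReal.mul_ne_top ENNReal.ofReal_ne_top (by norm_num))

/-- choice of `η` -/
theorem exists_eta {p : ℝ} (hp : 1 ≤ p) {κw : ℝ} (hκw : 0 < κw) : ∃ η : ℝ, 0 < η ∧ η ≤ 1 ∧
    (ENNReal.ofReal η ^ (1 / p)).toReal ≤ κw := by
  have hp0 : 0 < p := by linarith
  refine ⟨min 1 (κw ^ p), lt_min one_pos (Real.rpow_pos_of_pos hκw p), min_le_left _ _, ?_⟩
  have h0 : 0 < min 1 (κw ^ p) := lt_min one_pos (Real.rpow_pos_of_pos hκw p)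
  rw [ENNReal.ofReal_rpow_of_nonneg h0.le (by positivity), ENNReal.toReal_ofReal (by positivity)]
  calc (min 1 (κw ^ p)) ^ (1 / p) ≤ (κw ^ p) ^ (1 / p) := by
        gcongr
        exact min_le_right _ _
    _ = κw := by
        rw [← Real.rpow_mul hκw.le, mul_one_div_cancel hp0.ne', Real.rpow_one]

theorem eta_two {p : ℝ} (hp : 1 ≤ p) {η : ℝ} (hη : η ≤ 1) :
    1 + ENNReal.ofReal η ^ (1 / p) ≤ 2 := by
  have h1 : ENNReal.ofReal η ^ (1 / p) ≤ 1 := by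
    refine ENNReal.rpow_le_one ?_ (by positivity)
    rw [← ENNReal.ofReal_one]
    exact ENNReal.ofReal_le_ofReal hη
  calc 1 + ENNReal.ofReal η ^ (1 / p) ≤ 1 + 1 := add_le_add le_rfl h1
    _ = 2 := by norm_num

/-! ### one block -/

/-- the tile sets of the block, off the core, inside the collar -/
theorem nk_sub {F : Set (Bx (Fin 3))} {A : F → E3 ≃ᵃ[ℝ] E3} {lam : F → ℝ} {θ κ3 κ4 : ℝ} {c : F}
    {m Bn : ℕ} {R0 : ℝ} {Q : CB E3 3} (hQ : c.1.Pos) (hl : 0 < lam c) (hθ : 0 < θ) (h34 : κ4 ≤ κ3)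
    (hB : BkX F c (A c) ((1 + θ) * lam c) κ4 m Bn R0 Q) :
    Q.N \ Q.Kc ⊆ Sx F A lam θ κ3 c := by
  rintro x ⟨hx, hx'⟩
  refine ⟨?_, fun h => hx' ?_⟩
  · refine Crest.Agent.R096.Acc_365.cbx_mono hQ ?_ (hB.N hx)
    have h1 : 0 < (1 + θ) * lam c := by positivity
    nlinarith
  · rw [hB.Kc]
    refine Crest.Agent.R096.Acc_365.cbx_mono hQ ?_ h
    nlinarith [mul_pos hθ hl]

/-- **one block**: the good set and the energy of all classes against the collar `Sx` -/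
theorem block_x {p : ℝ} (hp : 1 ≤ p) (Bn : ℕ) {R0 : ℝ} (hR0 : 1 ≤ R0) (hBn : 1 ≤ Bn) :
    ∃ C4 : ℝ≥0, ∀ {Om La : Set E3} {f : E3 → E3} {D D' : E3 → E3 →L[ℝ] E3}, IsOpen Om →
      SH3 p Om La f D → (∀ v, Measurable fun z => D' z v) →
      ∀ {o : E3} {u κ0 κ1 κ2 κ3 κ1' θ : ℝ} {F : Set (Bx (Fin 3))} {X : Set F}
      {A : F → E3 ≃ᵃ[ℝ] E3} {lam : F → ℝ}, XG p Om f D o u κ0 κ1 κ2 κ3 κ1' θ F X A lam →
      ∀ {c : F}, c ∈ X → 0 < lam c → c.1.Pos → (∀ k, c.1.sz ≤ κ0 * c.1.side k) → 0 ≤ κ0 →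
      ∀ {κ4 : ℝ} {m : ℕ} {Q : CB E3 3}, 0 < m → BkX F c (A c) ((1 + θ) * lam c) κ4 m Bn R0 Q →
      ∀ {ρ0 : ℝ} {k0 : ℕ} (hk : Q.kc ≤ k0), 0 < ρ0 → 4 * (1 / 2 ^ k0) ≤ m * ρ0 →
      κ4 + ρ0 * κ0 ≤ κ3 → κ3 ≤ 3 / 4 * κ2 → 0 < θ → 2 * ρ0 * κ0 * (1 + θ) < θ →
      ∀ {NC : ℕ}, (EB Q k0 hk).Finite → (EB Q k0 hk).ncard ≤ NC → ∀ {η : ℝ}, 0 < η → η ≤ 1 →
      0 ≤ κ1 → (NC : ℝ) * κ1 ≤ (1 / 4) * η * ρ0 ^ 3 →
      ∀ {Kq : ℝ}, 0 ≤ Kq → (∀ᵐ x, x ∈ Sx F A lam θ κ3 c → ∀ v, ‖D' x v‖ ≤ Kq * ‖D x v‖) →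
      ∀ Kw : ℝ≥0∞, ∃ G : Set E3, MeasurableSet G ∧
        G ⊆ Wt (A c) (ρ0 * ((1 + θ) * lam c * c.1.sz)) ∧ volume G ≠ 0 ∧ ∀ w ∈ G,
        GoodW p Om f D (A c)
          (fun e : {e // e ∈ eIn (Q.T k0 hk) (Q.cix k0 hk)} => ea e.1) (fun e => ev e.1)
          (ENNReal.ofReal η) w ∧
        ∀ {J : Type} (M : MD E3 3 J) (Y : RD M) (j : J) (w0 s : E3), M.Q j = Q.tr w0 →
          w0 + s = w → Y.B j ≤ Bn → Y.R j ≤ R0 →
          ∀ (kk : J → ℕ) (hkk : ∀ j, (M.Q j).kc ≤ kk j), kk j = k0 →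
          ∑' c', Kw * (QU M Y kk hkk j).EnC (Gd' D') p c' s ≤
            KB5 p Kw Bn R0 Kq * (‖lin (A c)‖ₑ ^ p *
              ∫⁻ x in Sx F A lam θ κ3 c, ‖(D x).comp (lin (A c).symm)‖ₑ ^ p) +
            KB6 p Kw C4 Kq * (‖lin (A c)‖ₑ ^ p * volume (Sx F A lam θ κ3 c)) := by
  obtain ⟨C4, hC4, H⟩ := Crest.Agent.R096.Eau_365.block_en0 hp Bn hR0 hBn
  refine ⟨C4, ?_⟩
  intro Om La f D D' hO h hDm o u κ0 κ1 κ2 κ3 κ1' θ F X A lam hG c hc hl hQ hasp hκ0 κ4 m Q hm hB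
    ρ0 k0 hk hρ0 hdk h34 h3 hθ hρθ NC hfin hcard η hη hη1 hκ1 hNC Kq hKq hD' Kw
  have hp0 : 0 ≤ p := by linarith
  obtain ⟨s, hs, hs1, hψ⟩ := hB.psi
  have hm' : (0:ℝ) < m := by exact_mod_cast hm
  have hsz := Bx.sz_pos hQ
  have hlp := hG.lpos c hc
  set L : ℝ := (1 + θ) * lam c * c.1.sz with hL
  have hL0 : 0 < L := by positivity
  set ρ : ℝ := ρ0 * L with hρ
  have hρp : 0 < ρ := by positivity
  have hρk : ∀ k, ρ ≤ ρ0 * κ0 * ((1 + θ) * lam c * c.1.side k) := by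
    intro k
    calc ρ = ρ0 * ((1 + θ) * lam c * c.1.sz) := rfl
      _ ≤ ρ0 * ((1 + θ) * lam c * (κ0 * c.1.side k)) := by gcongr; exact hasp k
      _ = _ := by ring
  have hρκ : 0 ≤ ρ0 * κ0 := by positivity
  have hS := hG.hS c hc
  have hsρ : s * (1 / 2 ^ k0) ≤ ρ := by
    have h1 : m * (s * (1 / 2 ^ k0)) ≤ m * ρ := by
      calc m * (s * (1 / 2 ^ k0)) = (m * s) * (1 / 2 ^ k0) := by ring
        _ ≤ 4 * L * (1 / 2 ^ k0) := by gcongr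
        _ = 4 * (1 / 2 ^ k0) * L := by ring
        _ ≤ m * ρ0 * L := by gcongr
        _ = m * ρ := by rw [hρ]; ring
    exact le_of_mul_le_mul_left h1 hm'
  have hroom : ∀ k, (1 + 2 * κ4) * ((1 + θ) * lam c) * c.1.side k / 2 + ρ ≤
      (1 + 2 * (3 / 4 * κ2)) * ((1 + θ) * lam c) * c.1.side k / 2 := by
    intro k
    have h1 := hρk k
    have hsk := Bx.side_pos hQ k
    have h2 : 0 < (1 + θ) * lam c * c.1.side k := by positivity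
    have h4 : (κ4 + ρ0 * κ0) * ((1 + θ) * lam c * c.1.side k) ≤
        3 / 4 * κ2 * ((1 + θ) * lam c * c.1.side k) :=
      mul_le_mul_of_nonneg_right (h34.trans h3) h2.le
    nlinarith
  have hκ1' : 0 ≤ κ1 * L ^ 3 := by positivity
  have hNC' : (NC : ℝ) * (κ1 * L ^ 3) ≤ (1 / 4) * η * ρ ^ 3 := by
    calc (NC : ℝ) * (κ1 * L ^ 3) = (NC * κ1) * L ^ 3 := by ring
      _ ≤ (1 / 4 * η * ρ0 ^ 3) * L ^ 3 := by gcongr
      _ = _ := by rw [hρ]; ring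
  have hSA : ∀ y ∈ Q.N, y ∉ interior Q.Kc → ∀ v ∈ Wt (A c) ρ, y + v ∈ Sx F A lam θ κ3 c := by
    intro y hy hyK v hv
    refine Crest.Agent.R096.Exg_766.tile_sub (κ4 := κ4) (t := 2 * (ρ0 * κ0)) (S := {y}) hQ hl ?_ ?_
      ?_ (by linarith) hθ (by linarith) y (mem_singleton y)
    · intro z hz
      rw [mem_singleton_iff] at hz
      rw [hz]
      exact hB.N hy
    · rw [disjoint_singleton_left]
      have := hB.Kc
      unfold Crest.Agent.R096.Acc_365.K1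
      rw [← this]
      exact hyK
    · intro k
      have h1 := hρk k
      have h2 : 0 ≤ lin (A c) v k := hv.1 k
      have h3 : lin (A c) v k ≤ ρ := hv.2 k
      rw [abs_of_nonneg h2]
      linarith
  obtain ⟨G, g1, g2, g3, g4⟩ := H hO h (hG.ex c hc) (μ := (1 + 2 * κ4) * ((1 + θ) * lam c)) hs hψ
    hB.N hB.bnd hB.size hk hρp hsρ hroom hfin hcard hη hκ1' hNC' hDm hKq hS hD' hSA
  refine ⟨G, g1, g2, g3, fun w hw => ?_⟩
  obtain ⟨g5, g6⟩ := g4 w hw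
  refine ⟨?_, ?_⟩
  · exact Crest.Agent.R096.Eds_746.goodW_comp g5
      (fun e : {e // e ∈ eIn (Q.T k0 hk) (Q.cix k0 hk)} =>
        (⟨e.1, Crest.Agent.R096.Eds_746.core_sub_EB Q k0 hk e.2⟩ : EB Q k0 hk))
  · intro J M Y j w0 s' hMQ hws hYB hYR kk hkk hkj
    subst hkj
    rw [ENNReal.tsum_mul_left]
    have h1 := g6 M Y j w0 s' hMQ hws hYB hYR (hkk j) (Uni_663.KU (Mfi_290.QI M Y j (kk j) (hkk j)))
      {0} (Uni_663.KU_countable _) (countable_singleton 0)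
    have h2 : volume (Q.N \ Q.Kc) ≤ volume (Sx F A lam θ κ3 c) :=
      measure_mono (nk_sub hQ hl hθ (by linarith) hB)
    have h3' := Crest.Agent.R096.Enx_766.dcomp_le (p := p) hS hKq hp0 hD' (lin (A c).symm)
    have h4 := eta_two hp hη1
    calc Kw * ∑' c', (QU M Y kk hkk j).EnC (Gd' D') p c' s'
        ≤ Kw * (C4 * (ENNReal.ofReal Kq * (1 + ENNReal.ofReal η ^ (1 / p))) ^ p * ‖lin (A c)‖ₑ ^ p *
              volume (Q.N \ Q.Kc) +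
            8 * (K3 p (Mfb_290.nE Bn R0) 2 1 1 181 *
              (‖lin (A c)‖ₑ ^ p * ∫⁻ z in Sx F A lam θ κ3 c,
                ‖(D' z).comp (lin (A c).symm)‖ₑ ^ p))) := mul_le_mul' le_rfl h1
      _ ≤ Kw * (C4 * (ENNReal.ofReal Kq * 2) ^ p * ‖lin (A c)‖ₑ ^ p *
              volume (Sx F A lam θ κ3 c) +
            8 * (K3 p (Mfb_290.nE Bn R0) 2 1 1 181 *
              (‖lin (A c)‖ₑ ^ p * (ENNReal.ofReal Kq ^ p * ∫⁻ z in Sx F A lam θ κ3 c,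
                ‖(D z).comp (lin (A c).symm)‖ₑ ^ p)))) := by gcongr
      _ = _ := by unfold KB5 KB6; ring

end

end Crest.Agent.R096.Epx_360
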