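import Crest.Agent.R096.Epx1_360

/-!
# Row 96 (S0127), EaX (helper360): insurance composition of `PreX`, part 2: **`preX`**
-/

set_option autoImplicit false
set_option linter.style.longLine false
set_option linter.unusedSectionVars false
set_option linter.unusedVariables false

open MeasureTheory Set Filter Topology Metric
open scoped ENNReal NNReal

namespace Crest.Agent.R096.Epx_360

open Crest.Agent.R096.Msh_715 Crest.Agent.R096.Mal_874 Crest.Agent.R096.Ncl_476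
  Crest.Agent.R096.Msh_810 Crest.Agent.R096.Ine_222 Crest.Agent.R096.Mfi_290
open Crest.Agent.R096.SkC1_961 (E3 Hom3 FoamD)
open Crest.Agent.R096.Er_594 (SH3)
open Crest.Agent.R096.Bsp_628 Crest.Agent.R096.Brk5_582
open Crest.Agent.R096.Bxs_627 (ctr zz)
open Crest.Agent.R096.EaX_766 (lin cbx ExIn Kor RatA)
open Crest.Agent.R096.Exa_365 Crest.Agent.R096.Acc_365
open Crest.Agent.R096.Ls_222 (Edg ea ev eIn mem_eIn sgm_edg ev_ne)
open Crest.Agent.R096.Pmc_112 (Gd' Kl)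
open Crest.Agent.R096.Eds_746 (EB KD KD_lt_top ea_push_dir)
open Crest.Agent.R096.Exg_766 (Sx XG)
open Crest.Agent.R096.Eau_365 (BkX PreX)
open Crest.Agent.R096.Eax_481 (lx)
open Crest.Agent.R096.Mfa_880 (QU BxM)
open Crest.Agent.R096.Pgn_112 (COu COu_ne_top)
open Crest.Agent.R096.Eaz_663 (KC exists_KC)
open Crest.Agent.R96.EaP_899 (KQ KQ_nonneg)
open Crest.Agent.R96.Wm4_748 (K3)
open Crest.Agent.R96.Sg1_199 (li sgm)
open Crest.Agent.R096.Fns_360 (trA)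

noncomputable section

/-- the numbers of `PreX` after `m` -/
theorem exists_rho {κ0 κ κw κ3 θ : ℝ} (hκ0 : 1 ≤ κ0) (hκ : 0 < κ) (hκw : 0 < κw) (hκ3 : 0 < κ3)
    (hθ : 0 < θ) (hθ1 : θ ≤ 1) {m : ℕ} (hm : 0 < m) :
    ∃ (τ τ1 ρ0 : ℝ) (dk : ℕ), 0 < τ ∧ 0 < τ1 ∧ 0 < ρ0 ∧ τ1 = 2 * ρ0 * κ0 ∧ τ ≤ κ / 3 ∧ τ1 ≤ κ / 3 ∧
      τ ≤ κw / 3 ∧ τ1 ≤ κw / 3 ∧ κ3 / 2 + τ1 < κ3 ∧ (τ1 + 2 * τ) * (1 + θ) ≤ θ / 2 ∧
      τ1 * (1 + θ) < θ ∧ 4 * (1 / 2 ^ (3 + dk)) ≤ m * ρ0 := by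
  set τ : ℝ := min (min (κ / 3) (κw / 3)) (θ / 16) with hτd
  set τ1 : ℝ := min (κ3 / 4) τ with hτ1d
  have hτ : 0 < τ := lt_min (lt_min (by positivity) (by positivity)) (by positivity)
  have hτ1 : 0 < τ1 := lt_min (by positivity) hτ
  have h1 : τ ≤ κ / 3 := (min_le_left _ _).trans (min_le_left _ _)
  have h2 : τ ≤ κw / 3 := (min_le_left _ _).trans (min_le_right _ _)
  have h3 : τ ≤ θ / 16 := min_le_right _ _
  have h4 : τ1 ≤ τ := min_le_right _ _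
  have h5 : τ1 ≤ κ3 / 4 := min_le_left _ _
  have hκ00 : 0 < κ0 := by linarith
  have hm' : (0:ℝ) < m := by exact_mod_cast hm
  have hρ : 0 < τ1 / (2 * κ0) := by positivity
  obtain ⟨n, hn⟩ := exists_pow_lt_of_lt_one (show 0 < m * (τ1 / (2 * κ0)) / 4 by positivity)
    (show (1 / 2 : ℝ) < 1 by norm_num)
  refine ⟨τ, τ1, τ1 / (2 * κ0), n, hτ, hτ1, hρ, by field_simp, h1, h4.trans h1, h2, h4.trans h2,
    by linarith, by nlinarith, by nlinarith, ?_⟩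
  have h6 : (1 : ℝ) / 2 ^ (3 + n) ≤ (1 / 2) ^ n := by
    rw [one_div_pow]
    refine one_div_le_one_div_of_le (by positivity) ?_
    exact pow_le_pow_right₀ (by norm_num) (by omega)
  linarith

/-- choice of `κ1` -/
theorem exists_kap1 {a b c d : ℝ} (ha : 0 < a) (hb : 0 < b) (hc : 0 < c) (hd : 0 < d) (NC : ℕ) :
    ∃ κ1 : ℝ, 0 < κ1 ∧ κ1 ≤ a ∧ κ1 ≤ b ∧ κ1 ≤ c ∧ (NC : ℝ) * κ1 ≤ d := by
  have hN : (0:ℝ) < (NC : ℝ) + 1 := by positivity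
  refine ⟨min (min a b) (min c (d / (NC + 1))), lt_min (lt_min ha hb) (lt_min hc (by positivity)),
    (min_le_left _ _).trans (min_le_left _ _), (min_le_left _ _).trans (min_le_right _ _),
    (min_le_right _ _).trans (min_le_left _ _), ?_⟩
  calc (NC : ℝ) * min (min a b) (min c (d / (NC + 1))) ≤ NC * (d / (NC + 1)) := by
        gcongr
        exact (min_le_right _ _).trans (min_le_right _ _)
    _ ≤ d := by
        rw [mul_div_assoc', div_le_iff₀ hN]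
        nlinarith

/-- **`PreX p`** -/
theorem preX {p : ℝ} (hp : 1 ≤ p) : PreX p := by
  classical
  intro δ κ0 R c0 κ2 Md hδ hκ0 hR hc0 hcκ hκ2 hκ2' hMd C hC
  have hp0 : 0 < p := by linarith
  have hκ00 : 0 < κ0 := by linarith
  obtain ⟨Bn, R0, hBn, hR0, HB⟩ := Crest.Agent.R096.Mdd_360.exists_bkX hR hMd
  obtain ⟨Km, hKm1, hKm⟩ := Crest.Agent.R096.Ucm1_374.exists_bound C Bn R0
  obtain ⟨C4, HE⟩ := block_x hp Bn hR0 hBn
  set Kw : ℝ≥0∞ := (ENNReal.ofReal Km * Kl δ R) ^ p with hKw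
  have hKwt : Kw ≠ ∞ := ENNReal.rpow_ne_top_of_nonneg hp0.le
    (ENNReal.mul_ne_top ENNReal.ofReal_ne_top ENNReal.ofReal_ne_top)
  set K5 := KB5 p Kw Bn R0 (KQ κ0 c0) with hK5
  set K6 := KB6 p Kw C4 (KQ κ0 c0) with hK6
  set KK : ℝ≥0∞ := K5 * ENNReal.ofReal (4 ^ p) + K6 * 2 ^ (p - 1) with hKK
  have hKKt : KK ≠ ∞ := by
    refine ENNReal.add_ne_top.2 ⟨ENNReal.mul_ne_top (KB5_ne_top hp0.le hKwt _ _ _)
      ENNReal.ofReal_ne_top, ENNReal.mul_ne_top (KB6_ne_top hp0.le hKwt _ _) ?_⟩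
    exact ENNReal.rpow_ne_top_of_nonneg (by linarith) (by norm_num)
  obtain ⟨C1, hC1⟩ := Crest.Agent.R096.Enx_766.exists_C1 (a := Kw) (CO := COu p)
    (Ko := KD κ0 c0 p) (K := KK) hKwt (COu_ne_top hp0.le) (KD_lt_top κ0 c0 hp0.le).ne hKKt
  refine ⟨C1, ?_⟩
  intro κp κ1' E lam2 hκp hκp1 hκ1' hκ12 hE hlam2 θ hθ0 hθ2
  have hθ1 : (θ : ℝ) ≤ 1 := by linarith
  -- numbers
  obtain ⟨κ, hKC⟩ := exists_KC δ R c0 (κ0 := κ0) (κ2 := κ2 / 2) (lam1 := lam2) (κm := κ1') hκ00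
    (by positivity) hlam2 hκ1'
  have hκ := hKC.pos
  obtain ⟨κ3, hκ3, hκ3', hκ3l⟩ := Crest.Agent.R096.Exg_766.exists_k3 hlam2 hκ2
  obtain ⟨m0, hm0, HB⟩ := HB (κ3 / 2) (by positivity)
  set m : ℕ := max m0 ⌈R0 / (2 * κ)⌉₊ with hmd
  have hm : 0 < m := hm0.trans_le (le_max_left _ _)
  have hm' : (0:ℝ) < m := by exact_mod_cast hm
  have hηm : R0 / (2 * m) ≤ κ := by
    have h1 : R0 / (2 * κ) ≤ m := (Nat.le_ceil _).trans (by exact_mod_cast le_max_right _ _)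
    rw [div_le_iff₀ (by positivity)] at h1 ⊢
    linarith
  obtain ⟨Nb, HB⟩ := HB m (le_max_left _ _)
  obtain ⟨κw, hκw, HW⟩ := Crest.Agent.R096.Eax_481.words_eax hδ hκ0 hR hκp hc0 hlam2 hm
  obtain ⟨η, hη, hη1, hηw⟩ := exists_eta hp hκw
  obtain ⟨τ, τ1, ρ0, dk, hτ, hτ1, hρ0, hτρ, t1, t2, t3, t4, t5, t6, t7, t8⟩ :=
    exists_rho hκ0 hκ hκw hκ3 hθ0 hθ1 hm
  set Bs : ℕ := max Bn ⌈R0⌉₊ with hBs
  obtain ⟨NC, HNC⟩ := Crest.Agent.R096.Eds_746.card_EB (Bs := Bs) (hBn.trans (le_max_left _ _))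
    (Nb : ℝ) (Nat.cast_nonneg _) dk
  obtain ⟨κE, hκE, HκE⟩ := Crest.Agent.R096.Enx_766.exists_κ1E hKKt hE hκ00
  obtain ⟨κK, hκK, HκK⟩ := Crest.Agent.R096.Exg_766.exists_k1 hκ00 hκ2 hκ1' hκ3l
  obtain ⟨κ1, hκ1, k1, k2, k3, k4⟩ := exists_kap1 hκE hκK
    (show 0 < min (κ / 3) (κw / 3) from lt_min (by positivity) (by positivity))
    (show 0 < (1 / 4) * η * ρ0 ^ 3 by positivity) NC
  have k3a : κ1 ≤ κ / 3 := k3.trans (min_le_left _ _)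
  have k3b : κ1 ≤ κw / 3 := k3.trans (min_le_right _ _)
  refine ⟨κ1, hκ1, ?_⟩
  intro Om La f D hO hOb hOc hLa hLb hLc hSH o u hu F bf cmp hDy hst X hpX A lam hlam hEx ε hε
  have hf1 : ContinuousOn f Om := by
    obtain ⟨g, h1, h2, h3, h4, h5, h6⟩ := hSH.homeo
    exact h5
  have hl0 : ∀ c ∈ X, 0 < lam c := fun c hc => hc0.trans_le (hlam c hc).1
  have hlx0 : ∀ c ∈ X, c0 ≤ lx θ lam c := by
    intro c hc
    have h1 := (hlam c hc).1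
    have h2 := hl0 c hc
    show c0 ≤ (1 + θ) * lam c
    nlinarith
  have hlx2 : ∀ c ∈ X, lx θ lam c ≤ lam2 := fun c hc => (hlam c hc).2.1
  have G : XG p Om f D o u κ0 κ1 κ2 κ3 κ1' θ F X A lam :=
    Crest.Agent.R096.Exg_766.exg hLa hSH.homeo bf hκ00 hκ2 hκ2' hκ3 hκ3' (HκK κ1 hκ1 k2) hθ0 hθ2
      hc0 (fun c hc => ⟨(hlam c hc).1, (hlam c hc).2.1⟩) hEx
  -- the push
  obtain ⟨zc, H, hz, -, D', -, hDm, hD0, hDv, hDae, -, hDS⟩ := ea_push_dir hp0 hκ0 hc0 hcκ hO hLa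
    hSH.homeo hSH.vwd bf cmp X hpX (lx θ lam) hlx0
    (fun c hc => (hlx2 c hc).trans_lt hlam2) (N := ∅) measure_empty
  have hDae' : ∀ᵐ x, (∀ c, f x ∈ (Crest.Agent.R96.Push_899.coreBF
      (Crest.Agent.R96.Push_899.brk' bf c) (zc c)).I → c ∈ X) →
      ∀ v, ‖D' x v‖ ≤ KQ κ0 c0 * ‖D x v‖ := by
    filter_upwards [hDae] with x hx hxc v
    by_cases hxO : x ∈ Crest.Agent.R096.Der_764.OmH (Crest.Agent.R96.EaP_899.fX bf cmp H) f Om
    · exact hx hxO hxc v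
    · rw [hD0 x hxO]
      simp only [zero_apply, norm_zero]
      exact mul_nonneg (KQ_nonneg hκ0) (norm_nonneg _)
  -- the blocks
  obtain ⟨Q0, hQ0⟩ := HB hLa bf cmp hu hDy X A (lx θ lam) fun c hc => by
    refine ⟨hc0.trans_le (hlx0 c hc), ?_, (hEx c hc).rat⟩
    obtain ⟨q, hq⟩ := (hlam c hc).2.2
    exact ⟨(1 + θ) * q, by show (1 + (θ : ℝ)) * lam c = _; rw [hq]; push_cast; ring⟩
  have hB : ∀ c ∈ X, BkX F c (A c) ((1 + θ) * lam c) (κ3 / 2) m Bn R0 (Q0 c) :=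
    fun c hc => (hQ0 c hc).1
  obtain ⟨x, Rz, hInB, hRz, r, hr0, hr1, HG⟩ := Crest.Agent.R096.Eax_481.eax_gen hp hO hLa hSH hδ
    hκ0 (by linarith) bf cmp hκ2' hκ1.le hKC hlam2 hτ1.le hτ (by linarith) t5 hm hR0 hBn hηm hlx2
    G hB H
  -- the good sets
  have hkc : ∀ c : X, (Q0 c.1).kc ≤ 3 + dk := fun c => by rw [(hB c c.2).kc]; omega
  have hgood : ∀ c : X, ∃ Gc : Set E3, MeasurableSet Gc ∧
        Gc ⊆ Wt (A c) (ρ0 * ((1 + θ) * lam c * c.1.1.sz)) ∧ volume Gc ≠ 0 ∧ ∀ w ∈ Gc,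
        GoodW p Om f D (A c)
          (fun e : {e // e ∈ eIn ((Q0 c.1).T (3 + dk) (hkc c)) ((Q0 c.1).cix (3 + dk) (hkc c))} =>
            ea e.1) (fun e => ev e.1)
          (ENNReal.ofReal η) w ∧
        ∀ {J : Type} (M : MD E3 3 J) (Y : RD M) (j : J) (w0 s : E3), M.Q j = (Q0 c.1).tr w0 →
          w0 + s = w → Y.B j ≤ Bn → Y.R j ≤ R0 →
          ∀ (kk : J → ℕ) (hkk : ∀ j, (M.Q j).kc ≤ kk j), kk j = 3 + dk →
          ∑' c', Kw * (QU M Y kk hkk j).EnC (Gd' D') p c' s ≤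
            K5 * (‖lin (A c)‖ₑ ^ p *
              ∫⁻ x in Sx F A lam θ κ3 c, ‖(D x).comp (lin (A c).symm)‖ₑ ^ p) +
            K6 * (‖lin (A c)‖ₑ ^ p * volume (Sx F A lam θ κ3 c)) := by
    intro c
    have hb := hB c c.2
    obtain ⟨n1, n2⟩ := HNC (Q0 c.1) (3 + dk) (hkc c) (by rw [hb.kc])
      (fun i q hq l => (hb.bnd i q hq l).trans (by exact_mod_cast le_max_left _ _))
      (fun i hi v hv w hw l => (hb.size i hi v hv w hw l).trans ((Nat.le_ceil R0).trans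
        (by exact_mod_cast le_max_right _ _)))
      (fun l => by
        have := (hQ0 c c.2).2 l
        exact_mod_cast this)
    exact HE hO hSH hDm G c.2 (hl0 c c.2) (bf.pos _ c.1.2) (bf.asp _ c.1.2) hκ00.le hm hb
      (hkc c) hρ0 t8 (by nlinarith) hκ3' hθ0 (by rw [← hτρ]; exact t7) n1 n2 hη hη1 hκ1.le k4
      (KQ_nonneg hκ0) (Crest.Agent.R096.Enx_766.ae_dir bf hz hDae' c.2
        (fun y hy => G.vimg c c.2 y hy.1)) Kw
  choose Gs hGs1 hGs2 hGs3 hGs4 using hgood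
  -- the pre-translations
  have hw0 : ∀ c : X, ∃ (w0 : E3) (κ' : ℕ),
      w0 ∈ Crest.Agent.R96.Gj_872.Dy (ContinuousLinearEquiv.refl ℝ E3) κ' ∧
      (‖lin (A c) w0‖ ≤ τ1 * ((1 + θ) * lam c * c.1.1.sz) ∧
          ∀ k, |lin (A c) w0 k| ≤ τ1 * ((1 + θ) * lam c * c.1.1.side k)) ∧
      volume {s : E3 | ‖s‖ ≤ r c ∧ w0 + s ∈ Gs c} ≠ 0 := by
    intro c
    have hsz := Bx.sz_pos (bf.pos _ c.1.2)
    have hlp := G.lpos c c.2
    set ρ : ℝ := ρ0 * ((1 + θ) * lam c * c.1.1.sz) with hρ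
    have hρp : 0 < ρ := by positivity
    obtain ⟨w0, κ', h1, ⟨y, hy, h2⟩, h3⟩ := Crest.Agent.R096.Eau_365.exists_w0 (hGs3 c) (hr0 c)
      (show 0 < ρ / (‖lin (A c)‖ + 1) by positivity)
    have h4 : ‖lin (A c) (w0 - y)‖ ≤ ρ := by
      refine ((lin (A c) : E3 →L[ℝ] E3).le_opNorm (w0 - y)).trans ?_
      rw [lt_div_iff₀ (by positivity)] at h2
      have := norm_nonneg (w0 - y)
      nlinarith [norm_nonneg (lin (A c) : E3 →L[ℝ] E3)]
    have h5 : ∀ k, |lin (A c) w0 k| ≤ 2 * ρ := by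
      intro k
      have h6 : |lin (A c) y k| ≤ ρ := by
        have h7 := (hGs2 c hy).1 k
        have h8 := (hGs2 c hy).2 k
        have h9 : 0 ≤ lin (A c) y k := h7
        rw [abs_of_nonneg h9]
        exact h8
      have h7 : |lin (A c) (w0 - y) k| ≤ ρ := (norm_le_pi_norm _ k).trans h4
      have h8 : lin (A c) w0 k = lin (A c) y k + lin (A c) (w0 - y) k := by
        rw [map_sub, Pi.sub_apply]; ring
      rw [h8]
      exact (abs_add_le _ _).trans (by linarith)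
    refine ⟨w0, κ', h1, ⟨?_, fun k => ?_⟩, h3⟩
    · rw [pi_norm_le_iff_of_nonneg (by positivity)]
      intro k
      rw [Real.norm_eq_abs]
      refine (h5 k).trans ?_
      rw [hρ, hτρ]
      have h6 : 0 < (1 + θ) * lam c * c.1.1.sz := by positivity
      have h7 : ρ0 * ((1 + θ) * lam c * c.1.1.sz) ≤ ρ0 * κ0 * ((1 + θ) * lam c * c.1.1.sz) := by
        have : ρ0 ≤ ρ0 * κ0 := by nlinarith
        exact mul_le_mul_of_nonneg_right this h6.le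
      linarith
    · refine (h5 k).trans ?_
      rw [hρ, hτρ]
      have h6 := bf.asp _ c.1.2 k
      have h7 : (1 + θ) * lam c * c.1.1.sz ≤ (1 + θ) * lam c * (κ0 * c.1.1.side k) :=
        mul_le_mul_of_nonneg_left h6 hlp.le
      have h8 : ρ0 * ((1 + θ) * lam c * c.1.1.sz) ≤ ρ0 * ((1 + θ) * lam c * (κ0 * c.1.1.side k)) :=
        mul_le_mul_of_nonneg_left h7 hρ0.le
      nlinarith
  choose w0' κd' hw1 hw2 hw3 using hw0
  set w0 : F → E3 := fun c => if h : c ∈ X then w0' ⟨c, h⟩ else 0 with hw0d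
  have hw0e : ∀ c (hc : c ∈ X), w0 c = w0' ⟨c, hc⟩ := fun c hc => by
    simp only [hw0d]
    rw [dif_pos hc]
  set Gd : X → Set E3 := fun c => {s : E3 | ‖s‖ ≤ r c ∧ w0' c + s ∈ Gs c} with hGd
  obtain ⟨M, Y, κd, Zd, m1, m2, m3, m4, m5, m6, m7, m8, m9, m10, m11⟩ := HG w0
    (fun c hc => ⟨κd' ⟨c, hc⟩, by rw [hw0e c hc]; exact hw1 ⟨c, hc⟩⟩)
    (fun c hc => by rw [hw0e c hc]; exact hw2 ⟨c, hc⟩)
  have hMQ : ∀ c : X, M.Q c = (Q0 c.1).tr (w0' c) := fun c => by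
    rw [m3]
    show (Q0 c.1).tr (w0 c.1) = _
    rw [hw0e c.1 c.2]
  have hkM : ∀ j, (M.Q j).kc ≤ 3 + dk := fun j => by
    rw [hMQ j]
    exact hkc j
  set Bj : X → ℝ≥0∞ := fun c => K5 * (‖lin (A c)‖ₑ ^ p *
              ∫⁻ x in Sx F A lam θ κ3 c, ‖(D x).comp (lin (A c).symm)‖ₑ ^ p) +
            K6 * (‖lin (A c)‖ₑ ^ p * volume (Sx F A lam θ κ3 c)) with hBj
  have hGW : ∀ c : X, ∀ v ∈ Gd c, GoodW p Om f D (A c)
        (fun e : {e // e ∈ eIn ((Q0 c.1).T (3 + dk) (hkc c)) ((Q0 c.1).cix (3 + dk) (hkc c))} =>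
          ea e.1) (fun e => ev e.1) (ENNReal.ofReal η) (w0 c + v) := by
    intro c v hv
    rw [hw0e c.1 c.2]
    exact (hGs4 c _ hv.2).1
  have hcl : ∀ c : X, ∀ v ∈ Gd c, ∀ y ∈ ((M.Q c).tr v).N,
        ‖f y - A c y‖ + ‖lin (A c) (w0 c + v)‖ ≤ κw * (lx θ lam c * c.1.1.sz) := by
    intro c v hv y hy
    obtain ⟨h1, h2, h3⟩ := m10 c v hv.1 y hy
    have hsz := Bx.sz_pos (bf.pos _ c.1.2)
    have hlp := G.lpos c c.2
    have h4 : ‖lin (A c) (w0 c)‖ ≤ τ1 * ((1 + θ) * lam c * c.1.1.sz) := by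
      rw [hw0e c.1 c.2]; exact (hw2 c).1
    refine (Crest.Agent.R096.Eax_481.hcl_of (Om := Om) h3 h4 (hr1 c v hv.1).1).trans ?_
    refine mul_le_mul_of_nonneg_right (by linarith) (by positivity)
  have hG2 := m11 p κp D' (fun _ => m) (fun _ => 3 + dk) hkM Gd
    (fun j c => (ENNReal.ofReal Km * Kl δ R) ^ p) Bj (fun j v hv => hv.1)
    (fun j => Crest.Agent.R096.Eau_365.measurable_Gd (hGs1 j) (r j) (w0' j)) hw3
    (fun v hv D0 hC0 hD0' => HW La Om hLa F bf cmp c0 X (lx θ lam) zc H f p hp hf1 D κ1' (κ2 / 2)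
      (by positivity) (fun c hc => ⟨hlx0 c hc, hlx2 c hc⟩) A (κ3 / 2) Bn R0 Q0 hB
      (fun _ => 3 + dk) hkc (ENNReal.ofReal η) ENNReal.ofReal_ne_top hηw w0 M m2 m3 Gd hGW hcl v hv
      D0 hC0 hD0')
    (fun j s hs => (hGs4 j _ hs.2).2 M Y j (w0' j) s (hMQ j) rfl (m5 j).le (m6 j).le _ hkM rfl)
  have hfin : ∫⁻ x in Om, ‖D' x‖ₑ ^ p ≠ ∞ := by
    have h1 := hDS Om subset_rfl hO.measurableSet (fun c _ => Or.inl fun x hx _ => hx)
    exact (h1.trans_lt (ENNReal.mul_lt_top (KD_lt_top κ0 c0 hp0.le)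
      (lt_top_iff_ne_top.2 hSH.energy))).ne
  have hout := Crest.Agent.R096.Pgn_112.pre_gen (Cs := Km) (Cm := fun _ _ => Km) hO hOc.nonempty hLa
    hδ (by linarith) hSH.homeo hSH hDm hDv hfin hp hκp hκp1 (by positivity) hκ12 (C := C)
    (fun 𝒦 => (hC 𝒦).le) (fun 𝒦 h => hKm 𝒦 (Or.inl h))
    (fun j c 𝒦 h => hKm 𝒦 (Crest.Agent.R096.Ucm1_374.qSh_LB Y j _ (hkM j) (m5 j).le (m6 j).le c h))
    m2 hG2 hε (εb := fun _ => 1) (fun _ => one_ne_zero)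
  have hsh : ∀ c : X, ∀ v ∈ Gd c, ∀ k,
      |lin (A c) (w0 c + v) k| ≤ θ * (lam c * c.1.1.side k) / 2 := by
    intro c v hv k
    have hsk := Bx.side_pos (bf.pos _ c.1.2) k
    have hl := hl0 c c.2
    have h1 : |lin (A c) (w0 c) k| ≤ τ1 * ((1 + θ) * lam c * c.1.1.side k) := by
      rw [hw0e c.1 c.2]; exact (hw2 c).2 k
    have h2 := (hr1 c v hv.1).2 k
    rw [map_add, Pi.add_apply]
    refine (abs_add_le _ _).trans ((add_le_add h1 h2).trans ?_)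
    have h3 : 0 < lam c * c.1.1.side k := by positivity
    have h4 : (τ1 + 2 * τ) * (1 + θ) * (lam c * c.1.1.side k) ≤
        θ / 2 * (lam c * c.1.1.side k) := mul_le_mul_of_nonneg_right t6 h3.le
    have h5 : 0 ≤ τ * ((1 + θ) * (lam c * c.1.1.side k)) := by positivity
    nlinarith
  refine Crest.Agent.R096.Eax_481.preMesh_gen (Cs := Km) (B := Bj) (Gd := Gd) le_rfl hpX m3
    (fun c hc => (hB c hc).Kc) hsh (by rw [m7, m8]; exact hInB) (by rw [m8]; exact hRz) ?_ hout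
  intro y hy
  refine Crest.Agent.R096.Enx_766.pre_energy hy
    (Crest.Agent.R096.Enx_766.outer_le (τ := τ) (τ1 := τ1) (θ := θ) bf hO hθ0.le
      (fun c hc => (hl0 c hc).le) hDS M m1 (Q0 := fun c : X => Q0 c.1) (w0 := w0') hMQ
      (fun c => (hB c c.2).Kc) (fun c k => (hw2 c).2 k)
      (fun c s hs => (hr1 c s (by rw [← m4]; exact hs)).2) t6
      (fun c x hx => G.vimg c c.2 x (m9 c (self_subset_cthickening _ hx)))
      (fun j => ?_) (fun j => subset_rfl))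
    (Crest.Agent.R096.Enx_766.inner_sum2 hp hSH hκ1.le bf.countable (fun c _ => bf.pos _ c.2)
      (fun c hc => (hl0 c hc).le) (fun c _ => bf.asp _ c.2) hEx G.hS G.hSV G.hSd G.hSK
      (Fn := Bj) (K5 := K5) (K6 := K6) fun c => le_rfl)
    (HκE κ1 hκ1 k1) hC1
  show ‖M.φ 0‖ ≤ M.r j
  rw [map_zero, norm_zero, m4]
  exact (hr0 j).le

end

end Crest.Agent.R096.Epx_360
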