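import Mathlib
import Crest.Agent.R096.Sk0_962
import Crest.Agent.R96.Acl3_392
import Crest.Agent.R96.Sob5_199

/-!
Row 96 (S0127), helper962.  SKEL96, analysis part: locally Lipschitz and locally PL maps have
weak gradients, the extension by zero (LOCALITY).
-/

set_option autoImplicit false
set_option linter.unusedSectionVars false
set_option linter.style.longLine false

open MeasureTheory Set Filter Topology Metric
open scoped ENNReal Gradient NNReal ContDiff
open Crest.AnalysisR.VecCalc3 Crest.AnalysisR.Sobolev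
open Crest.Agent.R096.Str_696 (LocPL)
open Crest.Agent.R96.Acl_392

namespace Crest.Agent.R096.Sk_962

noncomputable section

/-! ### selections are Lipschitz -/

section Sel

variable {E F : Type*} [NormedAddCommGroup E] [NormedSpace ℝ E]
  [NormedAddCommGroup F] [NormedSpace ℝ F]

/-- one dimensional case -/
theorem sel_one {φ : ℝ → F} {ι : Type*} (S : Finset ι) (a b : ι → F) {M : ℝ}
    (hM : ∀ i ∈ S, ‖b i‖ ≤ M) (hc : ContinuousOn φ (Icc 0 1))
    (hs : ∀ t ∈ Icc (0 : ℝ) 1, ∃ i ∈ S, φ t = a i + t • b i) : ‖φ 1 - φ 0‖ ≤ M := by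
  have hcl : IsClosed ({t : ℝ | ‖φ t - φ 0‖ ≤ M * t} ∩ Icc 0 1) := by
    have h1 : ContinuousOn (fun t => ‖φ t - φ 0‖ - M * t) (Icc (0 : ℝ) 1) := by
      apply ContinuousOn.sub
      · exact (hc.sub continuousOn_const).norm
      · fun_prop
    have h2 := h1.preimage_isClosed_of_isClosed isClosed_Icc (isClosed_Iic (a := (0 : ℝ)))
    convert h2 using 1
    ext t
    simp only [mem_inter_iff, mem_ofPred_eq, mem_preimage, mem_Iic, sub_nonpos]
    tauto
  have h0 : (0 : ℝ) ∈ {t : ℝ | ‖φ t - φ 0‖ ≤ M * t} := by simp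
  have key := hcl.Icc_subset_of_forall_exists_gt h0 (fun t ht y hy => ?_)
  · have := key (right_mem_Icc.2 zero_le_one)
    simpa using this
  · obtain ⟨ht1, ht2⟩ := ht
    simp only [mem_ofPred_eq] at ht1
    have hy' : t < min y 1 := lt_min hy ht2.2
    -- frequently the same index to the right of `t`
    have hfreq : ∃ i ∈ S, ∃ᶠ s in 𝓝[>] t, φ s = a i + s • b i := by
      by_contra hcon
      push Not at hcon
      have h1 : ∀ᶠ s in 𝓝[>] t, ∀ i ∈ S, φ s ≠ a i + s • b i := by
        rw [eventually_all_finset]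
        intro i hi
        exact hcon i hi
      have h2 : ∀ᶠ s in 𝓝[>] t, s ∈ Ioo t (min y 1) := Ioo_mem_nhdsGT hy'
      obtain ⟨s, h3, h4⟩ := (h1.and h2).exists
      obtain ⟨i, hi, hi'⟩ := hs s ⟨ht2.1.trans h4.1.le, (h4.2.trans_le (min_le_right _ _)).le⟩
      exact h3 i hi hi'
    obtain ⟨i, hi, hfr⟩ := hfreq
    have htc : φ t = a i + t • b i := by
      have h1 : ContinuousWithinAt φ (Ioi t) t := by
        have h2 : ContinuousWithinAt φ (Icc 0 1) t := hc t ⟨ht2.1, ht2.2.le⟩
        refine h2.mono_of_mem_nhdsWithin ?_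
        refine mem_of_superset (Ioo_mem_nhdsGT ht2.2) (fun s hs => ⟨ht2.1.trans hs.1.le, hs.2.le⟩)
      have h2 : Tendsto (fun s => φ s - (a i + s • b i)) (𝓝[>] t) (𝓝 (φ t - (a i + t • b i))) := by
        apply Tendsto.sub h1
        have : Continuous fun s : ℝ => a i + s • b i := by fun_prop
        exact this.continuousWithinAt.tendsto
      have h3 : ∃ᶠ s in 𝓝[>] t, φ s - (a i + s • b i) ∈ ({0} : Set F) := by
        refine hfr.mono (fun s hs => ?_)
        simp [hs]
      have h4 := isClosed_singleton.mem_of_frequently_of_tendsto h3 h2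
      simpa [sub_eq_zero] using h4
    have h2 : ∀ᶠ s in 𝓝[>] t, s ∈ Ioo t (min y 1) := Ioo_mem_nhdsGT hy'
    obtain ⟨s, hs1, hs2⟩ := (hfr.and_eventually h2).exists
    refine ⟨s, ?_, hs2.1, (hs2.2.trans_le (min_le_left _ _)).le⟩
    simp only [mem_ofPred_eq]
    have h3 : φ s - φ 0 = (φ t - φ 0) + (s - t) • b i := by
      rw [hs1, htc, sub_smul]; abel
    have hst : 0 < s - t := by linarith [hs2.1]
    calc ‖φ s - φ 0‖ ≤ ‖φ t - φ 0‖ + ‖(s - t) • b i‖ := by rw [h3]; exact norm_add_le _ _
      _ ≤ M * t + (s - t) * M := by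
          rw [norm_smul, Real.norm_eq_abs, abs_of_pos hst]
          exact add_le_add ht1 (mul_le_mul_of_nonneg_left (hM i hi) hst.le)
      _ = M * s := by ring

/-- a continuous selection of finitely many affine maps on a convex set is Lipschitz. -/
theorem lipschitzOn_of_sel [FiniteDimensional ℝ E] {h : E → F} {s : Set E} (hs : Convex ℝ s)
    (hc : ContinuousOn h s) {S : Finset (E →ᵃ[ℝ] F)} (hsel : ∀ y ∈ s, ∃ g ∈ S, h y = g y) :
    ∃ C : ℝ≥0, LipschitzOnWith C h s := by
  classical
  -- the linear parts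
  set L : (E →ᵃ[ℝ] F) → (E →L[ℝ] F) := fun g => LinearMap.toContinuousLinearMap g.linear with hL
  set M : ℝ≥0 := ∑ g ∈ S, ‖L g‖₊ with hMdef
  have hM : ∀ g ∈ S, ‖L g‖ ≤ M := by
    intro g hg
    have h1 : ‖L g‖₊ ≤ M := Finset.single_le_sum (f := fun g => ‖L g‖₊) (fun _ _ => zero_le) hg
    exact_mod_cast h1
  refine ⟨M, LipschitzOnWith.of_dist_le_mul fun y hy z hz => ?_⟩
  set φ : ℝ → F := fun t => h (z + t • (y - z)) with hφ
  have hmem : ∀ t ∈ Icc (0 : ℝ) 1, z + t • (y - z) ∈ s := by
    intro t ht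
    exact hs.add_smul_sub_mem hz hy ht
  have h1 := sel_one (φ := φ) S (fun g => g z) (fun g => L g (y - z)) (M := M * ‖y - z‖)
    (fun g hg => ((L g).le_opNorm _).trans (mul_le_mul_of_nonneg_right (hM g hg) (norm_nonneg _)))
    (hc.comp (by fun_prop) hmem) (fun t ht => by
      obtain ⟨g, hg, hg'⟩ := hsel _ (hmem t ht)
      refine ⟨g, hg, ?_⟩
      simp only [hφ, hg', hL, LinearMap.coe_toContinuousLinearMap']
      have h2 : g (z + t • (y - z)) = g z + g.linear (t • (y - z)) := by
        have := g.map_vadd z (t • (y - z))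
        simp only [vadd_eq_add] at this
        rw [add_comm z, this, add_comm]
      rw [h2, map_smul])
  simp only [hφ, one_smul, zero_smul, add_zero, add_sub_cancel] at h1
  rw [dist_eq_norm, dist_eq_norm]
  exact h1

/-- locally PL maps are locally Lipschitz -/
theorem LocPL.lip [FiniteDimensional ℝ E] {h : E → F} {Ω : Set E} (H : LocPL h Ω) {x : E}
    (hx : x ∈ Ω) : ∃ r : ℝ, 0 < r ∧ ∃ C : ℝ≥0, LipschitzOnWith C h (ball x r) := by
  obtain ⟨r, hr, S, hc, hsel⟩ := H x hx
  exact ⟨r, hr, lipschitzOn_of_sel (convex_ball x r) hc hsel⟩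

end Sel

/-! ### locally Lipschitz functions have weak derivatives -/

section WeakDer

variable {E : Type*} [NormedAddCommGroup E] [NormedSpace ℝ E] [FiniteDimensional ℝ E]
  [MeasurableSpace E] [BorelSpace E] {μ : Measure E} [μ.IsAddHaarMeasure]
  {F : Type*} [NormedAddCommGroup F] [NormedSpace ℝ F]

/-- `u` is locally Lipschitz on the open set `Ω` -/
def LL (u : E → F) (Ω : Set E) : Prop :=
  ∀ x ∈ Ω, ∃ r : ℝ, 0 < r ∧ ∃ C : ℝ≥0, LipschitzOnWith C u (ball x r)

theorem LL.mono {u : E → F} {Ω Ω' : Set E} (h : LL u Ω) (hs : Ω' ⊆ Ω) : LL u Ω' :=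
  fun x hx => h x (hs hx)

theorem LL.continuousOn {u : E → F} {Ω : Set E} (h : LL u Ω) : ContinuousOn u Ω := by
  intro x hx
  obtain ⟨r, hr, C, hC⟩ := h x hx
  exact (hC.continuousOn.continuousAt (ball_mem_nhds x hr)).continuousWithinAt

theorem LL.locallyLipschitzOn {u : E → F} {Ω : Set E} (h : LL u Ω) : LocallyLipschitzOn Ω u := by
  intro x hx
  obtain ⟨r, hr, C, hC⟩ := h x hx
  exact ⟨C, ball x r ∩ Ω, inter_mem (mem_nhdsWithin_of_mem_nhds (ball_mem_nhds x hr))
    self_mem_nhdsWithin, hC.mono inter_subset_left⟩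

theorem LL.ae_diff [FiniteDimensional ℝ F] {u : E → F} {Ω : Set E} (h : LL u Ω) :
    ∀ᵐ x ∂μ, x ∈ Ω → DifferentiableAt ℝ u x := by
  have key : μ {x | x ∈ Ω ∧ ¬ DifferentiableAt ℝ u x} = 0 := by
    apply measure_null_of_locally_null
    rintro x ⟨hx, -⟩
    obtain ⟨r, hr, C, hC⟩ := h x hx
    refine ⟨ball x r ∩ {x | x ∈ Ω ∧ ¬ DifferentiableAt ℝ u x},
      inter_mem (mem_nhdsWithin_of_mem_nhds (ball_mem_nhds x hr)) self_mem_nhdsWithin, ?_⟩
    have h1 := hC.ae_differentiableWithinAt_of_mem (μ := μ)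
    refine measure_mono_null ?_ h1
    rintro y ⟨hy, -, hy2⟩
    simp only [mem_compl_iff, mem_ofPred_eq, Classical.not_imp]
    exact ⟨hy, fun hd => hy2 (hd.differentiableAt (isOpen_ball.mem_nhds hy))⟩
  rw [ae_iff]
  convert key using 2
  ext x
  simp [Classical.not_imp]

theorem wd_of_lip {u : E → ℝ} {C : ℝ≥0} (hu : LipschitzWith C u) (e : E) :
    WD univ μ u (fun x => fderiv ℝ u x e) e := by
  have hmeas : Measurable (fun x => fderiv ℝ u x e) := measurable_fderiv_apply_const ℝ u e
  have hbd : ∀ x, ‖fderiv ℝ u x e‖ ≤ C * ‖e‖ := fun x =>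
    ((fderiv ℝ u x).le_opNorm e).trans
      (mul_le_mul_of_nonneg_right (norm_fderiv_le_of_lipschitz ℝ hu) (norm_nonneg _))
  refine ⟨hu.continuous.locallyIntegrable.locallyIntegrableOn _, ?_, fun φ hφ hc _ => ?_⟩
  · apply LocallyIntegrable.locallyIntegrableOn
    refine (locallyIntegrable_const (C * ‖e‖ : ℝ)).mono hmeas.aestronglyMeasurable ?_
    filter_upwards with x
    rw [Real.norm_of_nonneg (by positivity : (0:ℝ) ≤ C * ‖e‖)]
    exact hbd x
  · obtain ⟨D, hD⟩ := (hφ.of_le (m := 1) (by exact_mod_cast le_top)).lipschitzWith_of_hasCompactSupport hc (by simp)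
    have h1 := hu.integral_lineDeriv_mul_eq (μ := μ) hD hc e
    have h2 : ∀ x, lineDeriv ℝ φ x (-e) * u x = -(u x * fderiv ℝ φ x e) := by
      intro x
      rw [((hφ.differentiable (by simp)) x).lineDeriv_eq_fderiv, map_neg]
      ring
    simp_rw [h2] at h1
    rw [integral_neg] at h1
    have h3 : ∫ x, lineDeriv ℝ u x e * φ x ∂μ = ∫ x, fderiv ℝ u x e * φ x ∂μ := by
      apply integral_congr_ae
      filter_upwards [hu.ae_differentiableAt (μ := μ)] with x hx
      rw [hx.lineDeriv_eq_fderiv]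
    rw [h3] at h1
    linarith

theorem wd_of_LL {u : E → ℝ} {Ω : Set E} (hΩ : IsOpen Ω) (hu : LL u Ω) (e : E) :
    WD Ω μ u (fun x => fderiv ℝ u x e) e := by
  apply Crest.Agent.R96.Sob4_199.wd_of_compacts hΩ
  intro K hK hKc
  obtain ⟨Ω', h1, h2, h3, h4⟩ := Crest.Agent.R96.Sob4_199.exists_nhd hΩ hKc hK
  have h5 : LocallyLipschitzOn (closure Ω') u := (hu.mono h4).locallyLipschitzOn
  obtain ⟨C, hC⟩ := Crest.Agent.R96.Sob5_199.exists_lipschitzOn h3 h5
  obtain ⟨u', hu', heq⟩ := hC.extend_real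
  have h6 := Crest.Agent.R96.Sob2_199.wd_mono (wd_of_lip (μ := μ) hu' e) (subset_univ Ω')
  refine ⟨Ω', h2, Crest.Agent.R96.Sob2_199.wd_congr h1 h6 ?_ ?_⟩
  · exact Eventually.of_forall fun x hx => (heq (subset_closure hx)).symm
  · refine Eventually.of_forall fun x hx => ?_
    have : u' =ᶠ[𝓝 x] u := by
      filter_upwards [h1.mem_nhds hx] with y hy
      exact (heq (subset_closure hy)).symm
    rw [this.fderiv_eq]

end WeakDer

/-! ### the extension by zero -/

section ZeroExt

/-- a smooth step: `0` for `t ≤ 1/2`, `1` for `1 ≤ t`. -/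
def step (t : ℝ) : ℝ := Real.smoothTransition (2 * t - 1)

theorem step_contDiff : ContDiff ℝ ∞ step :=
  Real.smoothTransition.contDiff.comp ((contDiff_const.mul contDiff_id).sub contDiff_const)

theorem step_zero {t : ℝ} (ht : t ≤ 1 / 2) : step t = 0 :=
  Real.smoothTransition.zero_of_nonpos (by linarith)

theorem step_one {t : ℝ} (ht : 1 ≤ t) : step t = 1 :=
  Real.smoothTransition.one_of_one_le (by linarith)

theorem step_nonneg (t : ℝ) : 0 ≤ step t := Real.smoothTransition.nonneg _

theorem step_le_one (t : ℝ) : step t ≤ 1 := Real.smoothTransition.le_one _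

theorem step_deriv_zero {t : ℝ} (ht : 1 < t) : deriv step t = 0 := by
  have : step =ᶠ[𝓝 t] fun _ => 1 := by
    filter_upwards [lt_mem_nhds ht] with s hs using step_one hs.le
  rw [this.deriv_eq, deriv_const]

theorem step_deriv_bound : ∃ M : ℝ, 0 ≤ M ∧ ∀ t, 0 ≤ t → |deriv step t| ≤ M := by
  have h1 : Continuous (deriv step) := step_contDiff.continuous_deriv (by simp)
  obtain ⟨M, hM⟩ := isCompact_Icc.exists_bound_of_continuousOn (s := Icc (0:ℝ) 1) h1.continuousOn
  refine ⟨max M 0, le_max_right _ _, fun t ht => ?_⟩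
  rcases le_or_gt t 1 with h | h
  · exact (hM t ⟨ht, h⟩).trans (le_max_left _ _)
  · rw [step_deriv_zero h]; simp

variable {E : Type*} [NormedAddCommGroup E] [NormedSpace ℝ E] [FiniteDimensional ℝ E]
  [MeasurableSpace E] [BorelSpace E] {μ : Measure E} [μ.IsAddHaarMeasure]

/-- the cut-off -/
def cutf (D : Set E) (ρ : E → ℝ) (k : ℕ) : E → ℝ := D.indicator fun x => step ((k:ℝ) * ρ x)

variable {D : Set E} {ρ : E → ℝ}

theorem cutf_zero_near (hfr : ∀ x ∈ frontier D, ρ x = 0) (hρ : Continuous ρ) (k : ℕ) {x : E}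
    (hx : x ∉ interior D) : cutf D ρ k =ᶠ[𝓝 x] fun _ => 0 := by
  by_cases hc : x ∈ closure D
  · have h0 : ρ x = 0 := hfr x ⟨hc, hx⟩
    have h1 : ∀ᶠ y in 𝓝 x, (k:ℝ) * ρ y < 1 / 2 := by
      have h2 : ContinuousAt (fun y => (k:ℝ) * ρ y) x := (continuous_const.mul hρ).continuousAt
      apply h2.eventually_lt_const
      show (k:ℝ) * ρ x < 1 / 2
      rw [h0]; norm_num
    filter_upwards [h1] with y hy
    simp only [cutf, indicator]
    split_ifs
    · exact step_zero hy.le
    · rfl
  · have h1 : (closure D)ᶜ ∈ 𝓝 x := isClosed_closure.isOpen_compl.mem_nhds hc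
    filter_upwards [h1] with y hy
    exact indicator_of_notMem (fun h => hy (subset_closure h)) _

theorem cutf_eq_near (hD : IsOpen D) (k : ℕ) {x : E} (hx : x ∈ D) :
    cutf D ρ k =ᶠ[𝓝 x] fun y => step ((k:ℝ) * ρ y) := by
  filter_upwards [hD.mem_nhds hx] with y hy
  exact indicator_of_mem hy _

theorem cutf_contDiff (hD : IsOpen D) (hρ : ContDiff ℝ ∞ ρ) (hfr : ∀ x ∈ frontier D, ρ x = 0)
    (k : ℕ) : ContDiff ℝ ∞ (cutf D ρ k) := by
  rw [contDiff_iff_contDiffAt]
  intro x
  by_cases hx : x ∈ D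
  · have h1 : ContDiff ℝ ∞ (fun y => step ((k:ℝ) * ρ y)) :=
      step_contDiff.comp (contDiff_const.mul hρ)
    exact h1.contDiffAt.congr_of_eventuallyEq (cutf_eq_near hD k hx)
  · rw [← hD.interior_eq] at hx
    exact contDiffAt_const.congr_of_eventuallyEq (cutf_zero_near hfr hρ.continuous k hx)

theorem cutf_tsupport (hD : IsOpen D) (hρ : Continuous ρ) (hfr : ∀ x ∈ frontier D, ρ x = 0)
    (k : ℕ) : tsupport (cutf D ρ k) ⊆ D := by
  intro x hx
  by_contra hxD
  rw [← hD.interior_eq] at hxD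
  have := cutf_zero_near hfr hρ k hxD
  exact (notMem_tsupport_iff_eventuallyEq.2 this) hx

theorem cutf_compact (hD : IsOpen D) (hDb : Bornology.IsBounded D) (hρ : Continuous ρ)
    (hfr : ∀ x ∈ frontier D, ρ x = 0) (k : ℕ) : HasCompactSupport (cutf D ρ k) :=
  Metric.isCompact_of_isClosed_isBounded (isClosed_tsupport _)
    (hDb.subset (cutf_tsupport hD hρ hfr k))

/-- **extension by zero** of a function with a weak derivative on `D`, dominated by `C ρ`. -/
theorem wd_zero_ext (hD : IsOpen D) (hDb : Bornology.IsBounded D) (hρ : ContDiff ℝ ∞ ρ)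
    (hpos : ∀ x ∈ D, 0 < ρ x) (hfr : ∀ x ∈ frontier D, ρ x = 0) {w h : E → ℝ} {e : E}
    (H : WD D μ w h e) {C : ℝ} (hw : ∀ x ∈ D, |w x| ≤ C * ρ x) (hint : IntegrableOn h D μ) :
    WD univ μ (D.indicator w) (D.indicator h) e := by
  have hDm := hD.measurableSet
  have hDfin : μ D ≠ ⊤ := hDb.measure_lt_top.ne
  have hcomp : IsCompact (closure D) := hDb.isCompact_closure
  -- bound of `ρ` and its derivative on `D`
  obtain ⟨Mρ, hMρ⟩ := hcomp.exists_bound_of_continuousOn hρ.continuous.continuousOn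
  have hdρ : Continuous (fun x => fderiv ℝ ρ x e) :=
    (hρ.continuous_fderiv (by simp)).clm_apply continuous_const
  obtain ⟨Md, hMd⟩ := hcomp.exists_bound_of_continuousOn hdρ.continuousOn
  have hMd0 : ∀ x ∈ D, |fderiv ℝ ρ x e| ≤ |Md| := fun x hx =>
    (hMd x (subset_closure hx)).trans (le_abs_self _)
  obtain ⟨Ms, hMs0, hMs⟩ := step_deriv_bound
  have hwb : ∀ x ∈ D, |w x| ≤ |C| * |Mρ| := by
    intro x hx
    refine (hw x hx).trans ?_
    have h1 : ρ x ≤ |Mρ| := ((le_abs_self _).trans (hMρ x (subset_closure hx))).trans (le_abs_self _)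
    calc C * ρ x ≤ |C| * ρ x := mul_le_mul_of_nonneg_right (le_abs_self _) (hpos x hx).le
      _ ≤ |C| * |Mρ| := mul_le_mul_of_nonneg_left h1 (abs_nonneg _)
  have hwm : AEStronglyMeasurable w (μ.restrict D) := H.lv.aestronglyMeasurable
  have hwi : IntegrableOn w D μ := by
    have : IsFiniteMeasure (μ.restrict D) :=
      ⟨by rw [Measure.restrict_apply_univ]; exact hDfin.lt_top⟩
    refine Integrable.of_bound hwm (|C| * |Mρ|) ?_
    rw [ae_restrict_iff' hDm]
    exact Eventually.of_forall hwb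
  have hwI : Integrable (D.indicator w) μ := hwi.integrable_indicator hDm
  have hhI : Integrable (D.indicator h) μ := hint.integrable_indicator hDm
  refine ⟨hwI.locallyIntegrable.locallyIntegrableOn _, hhI.locallyIntegrable.locallyIntegrableOn _,
    fun φ hφ hc _ => ?_⟩
  have hdφ : Continuous (fun x => fderiv ℝ φ x e) :=
    (hφ.continuous_fderiv (by simp)).clm_apply continuous_const
  obtain ⟨B, hB⟩ := hφ.continuous.bounded_above_of_compact_support hc
  obtain ⟨B', hB'⟩ := hdφ.bounded_above_of_compact_support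
    (Crest.Agent.R96.Sob2_199.compact_dir hc e)
  have hB0 : 0 ≤ B := (norm_nonneg _).trans (hB 0)
  have hB'0 : 0 ≤ B' := (norm_nonneg _).trans (hB' 0)
  -- the derivative of the cut-off
  have hcd : ∀ k x, x ∈ D → fderiv ℝ (cutf D ρ k) x e =
      deriv step ((k:ℝ) * ρ x) * ((k:ℝ) * fderiv ℝ ρ x e) := by
    intro k x hx
    rw [(cutf_eq_near hD k hx).fderiv_eq]
    have h1 : HasFDerivAt (fun y => (k:ℝ) * ρ y) ((k:ℝ) • fderiv ℝ ρ x) x :=
      ((hρ.differentiable (by simp)) x).hasFDerivAt.const_mul (k:ℝ)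
    have h2 : HasDerivAt step (deriv step ((k:ℝ) * ρ x)) ((k:ℝ) * ρ x) :=
      ((step_contDiff.differentiable (by simp)) _).hasDerivAt
    have h3 := h2.comp_hasFDerivAt x h1
    have h4 : fderiv ℝ (fun y => step ((k:ℝ) * ρ y)) x =
        deriv step ((k:ℝ) * ρ x) • ((k:ℝ) • fderiv ℝ ρ x) := h3.fderiv
    rw [h4]
    simp
  -- the two sequences
  set a : ℕ → E → ℝ := fun k x => D.indicator w x * fderiv ℝ (fun y => φ y * cutf D ρ k y) x e with ha
  set b : ℕ → E → ℝ := fun k x => D.indicator h x * (φ x * cutf D ρ k x) with hb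
  have hprod : ∀ k x, fderiv ℝ (fun y => φ y * cutf D ρ k y) x e =
      φ x * fderiv ℝ (cutf D ρ k) x e + cutf D ρ k x * fderiv ℝ φ x e := by
    intro k x
    rw [fderiv_fun_mul ((hφ.differentiable (by simp)) x)
      (((cutf_contDiff hD hρ hfr k).differentiable (by simp)) x)]
    simp
  have hid : ∀ k, ∫ x, a k x ∂μ = - ∫ x, b k x ∂μ := by
    intro k
    have h1 : ContDiff ℝ ∞ (fun y => φ y * cutf D ρ k y) := hφ.mul (cutf_contDiff hD hρ hfr k)
    have h2 : HasCompactSupport (fun y => φ y * cutf D ρ k y) :=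
      (cutf_compact hD hDb hρ.continuous hfr k).mul_left
    have h3 : tsupport (fun y => φ y * cutf D ρ k y) ⊆ D :=
      (tsupport_mul_subset_right).trans (cutf_tsupport hD hρ.continuous hfr k)
    have h4 := H.weak _ h1 h2 h3
    have e1 : ∫ x, a k x ∂μ = ∫ x, w x * fderiv ℝ (fun y => φ y * cutf D ρ k y) x e ∂μ := by
      congr 1
      funext x
      by_cases hx : x ∈ D
      · simp only [ha, indicator_of_mem hx]
      · have : fderiv ℝ (fun y => φ y * cutf D ρ k y) x e = 0 := by
          have h5 : x ∉ tsupport (fun x => fderiv ℝ (fun y => φ y * cutf D ρ k y) x e) := fun h' =>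
            hx (h3 (Crest.Agent.R96.Sob2_199.tsupport_dir _ e h'))
          exact image_eq_zero_of_notMem_tsupport
            (f := fun x => fderiv ℝ (fun y => φ y * cutf D ρ k y) x e) h5
        simp only [ha, this, mul_zero]
    have e2 : ∫ x, b k x ∂μ = ∫ x, h x * (φ x * cutf D ρ k x) ∂μ := by
      congr 1
      funext x
      by_cases hx : x ∈ D
      · simp only [hb, indicator_of_mem hx]
      · have : cutf D ρ k x = 0 := indicator_of_notMem hx _
        simp only [hb, this, mul_zero]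
    rw [e1, e2, h4]
  -- pointwise: eventually the cut-off is one near `x`
  have hev : ∀ x ∈ D, ∀ᶠ k : ℕ in atTop, 1 < (k:ℝ) * ρ x := by
    intro x hx
    have h1 : Tendsto (fun k : ℕ => (k:ℝ) * ρ x) atTop atTop :=
      tendsto_natCast_atTop_atTop.atTop_mul_const (hpos x hx)
    exact h1.eventually_gt_atTop 1
  have hcut1 : ∀ k x, |cutf D ρ k x| ≤ 1 := by
    intro k x
    simp only [cutf, indicator]
    split_ifs
    · rw [abs_of_nonneg (step_nonneg _)]; exact step_le_one _
    · simp
  have hmeask : ∀ k, Continuous (cutf D ρ k) := fun k => (cutf_contDiff hD hρ hfr k).continuous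
  have hta : Tendsto (fun k => ∫ x, a k x ∂μ) atTop (𝓝 (∫ x, D.indicator w x * fderiv ℝ φ x e ∂μ)) := by
    refine tendsto_integral_of_dominated_convergence
      (D.indicator fun _ => |C| * |Mρ| * B' + |C| * (B * (Ms * |Md|))) ?_ ?_ ?_ ?_
    · intro k
      have h1 : Continuous (fun x => fderiv ℝ (fun y => φ y * cutf D ρ k y) x e) :=
        ((hφ.mul (cutf_contDiff hD hρ hfr k)).continuous_fderiv (by simp)).clm_apply
          continuous_const
      exact hwI.aestronglyMeasurable.mul h1.aestronglyMeasurable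
    · exact (integrableOn_const hDfin).integrable_indicator hDm
    · intro k
      refine Eventually.of_forall fun x => ?_
      by_cases hx : x ∈ D
      · simp only [ha, indicator_of_mem hx, hprod, hcd k x hx, Real.norm_eq_abs]
        have hk0 : 0 ≤ (k:ℝ) * ρ x := mul_nonneg (Nat.cast_nonneg _) (hpos x hx).le
        have t1 : |w x * (cutf D ρ k x * fderiv ℝ φ x e)| ≤ |C| * |Mρ| * B' := by
          rw [abs_mul, abs_mul]
          have q2 : |fderiv ℝ φ x e| ≤ B' := hB' x
          have q3 : |cutf D ρ k x| * |fderiv ℝ φ x e| ≤ 1 * B' :=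
            mul_le_mul (hcut1 k x) q2 (abs_nonneg _) zero_le_one
          rw [one_mul] at q3
          exact mul_le_mul (hwb x hx) q3 (by positivity) (by positivity)
        have t2 : |w x * (φ x * (deriv step ((k:ℝ) * ρ x) * ((k:ℝ) * fderiv ℝ ρ x e)))| ≤
            |C| * (B * (Ms * |Md|)) := by
          rcases le_or_gt ((k:ℝ) * ρ x) 1 with h1 | h1
          · have q1 : |w x| ≤ |C| * ρ x := (hw x hx).trans
              (mul_le_mul_of_nonneg_right (le_abs_self _) (hpos x hx).le)
            have q2 : |φ x| ≤ B := hB x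
            have q3 := hMs _ hk0
            have q4 := hMd0 x hx
            have q5 : |w x| * (k:ℝ) ≤ |C| := by
              calc |w x| * (k:ℝ) ≤ (|C| * ρ x) * k :=
                    mul_le_mul_of_nonneg_right q1 (Nat.cast_nonneg _)
                _ = |C| * ((k:ℝ) * ρ x) := by ring
                _ ≤ |C| * 1 := mul_le_mul_of_nonneg_left h1 (abs_nonneg _)
                _ = |C| := mul_one _
            have q6 : |φ x| * (|deriv step ((k:ℝ) * ρ x)| * |fderiv ℝ ρ x e|) ≤
                B * (Ms * |Md|) :=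
              mul_le_mul q2 (mul_le_mul q3 q4 (abs_nonneg _) hMs0) (by positivity) hB0
            calc |w x * (φ x * (deriv step ((k:ℝ) * ρ x) * ((k:ℝ) * fderiv ℝ ρ x e)))|
                = (|w x| * k) * (|φ x| * (|deriv step ((k:ℝ) * ρ x)| * |fderiv ℝ ρ x e|)) := by
                  rw [abs_mul, abs_mul, abs_mul, abs_mul,
                    abs_of_nonneg (show (0:ℝ) ≤ (k:ℝ) from Nat.cast_nonneg k)]
                  ring
              _ ≤ |C| * (B * (Ms * |Md|)) :=
                  mul_le_mul q5 q6 (by positivity) (abs_nonneg _)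
          · rw [step_deriv_zero h1]
            simp only [zero_mul, mul_zero, abs_zero]
            positivity
        calc |w x * (φ x * (deriv step ((k:ℝ) * ρ x) * ((k:ℝ) * fderiv ℝ ρ x e)) +
              cutf D ρ k x * fderiv ℝ φ x e)|
            ≤ |w x * (φ x * (deriv step ((k:ℝ) * ρ x) * ((k:ℝ) * fderiv ℝ ρ x e)))| +
              |w x * (cutf D ρ k x * fderiv ℝ φ x e)| := by
                rw [mul_add]; exact abs_add_le _ _
          _ ≤ |C| * |Mρ| * B' + |C| * (B * (Ms * |Md|)) := by linarith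
      · simp only [ha, indicator_of_notMem hx, zero_mul, norm_zero, le_refl]
    · refine Eventually.of_forall fun x => ?_
      by_cases hx : x ∈ D
      · apply tendsto_const_nhds.congr'
        filter_upwards [hev x hx] with k hk
        simp only [ha, hprod, hcd k x hx, step_deriv_zero hk, zero_mul, mul_zero, zero_add]
        have : cutf D ρ k x = 1 := by
          simp only [cutf, indicator_of_mem hx, step_one hk.le]
        rw [this, one_mul]
      · simp only [ha, indicator_of_notMem hx, zero_mul]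
        exact tendsto_const_nhds
  have htb : Tendsto (fun k => ∫ x, b k x ∂μ) atTop (𝓝 (∫ x, D.indicator h x * φ x ∂μ)) := by
    refine tendsto_integral_of_dominated_convergence (fun x => ‖D.indicator h x‖ * B) ?_ ?_ ?_ ?_
    · intro k
      exact hhI.aestronglyMeasurable.mul
        (hφ.continuous.mul (hmeask k)).aestronglyMeasurable
    · exact hhI.norm.mul_const B
    · intro k
      refine Eventually.of_forall fun x => ?_
      simp only [hb, norm_mul]
      refine mul_le_mul_of_nonneg_left ?_ (norm_nonneg _)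
      have h1 : ‖φ x‖ * ‖cutf D ρ k x‖ ≤ B * 1 :=
        mul_le_mul (hB x) (hcut1 k x) (norm_nonneg _) hB0
      simpa using h1
    · refine Eventually.of_forall fun x => ?_
      by_cases hx : x ∈ D
      · apply tendsto_const_nhds.congr'
        filter_upwards [hev x hx] with k hk
        have : cutf D ρ k x = 1 := by
          simp only [cutf, indicator_of_mem hx, step_one hk.le]
        simp only [hb, this, mul_one]
      · simp only [hb, indicator_of_notMem hx, zero_mul]
        exact tendsto_const_nhds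
  have h1 := htb.neg
  simp only [← hid] at h1
  exact tendsto_nhds_unique hta h1

end ZeroExt

end

end Crest.Agent.R096.Sk_962
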