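import Mathlib
import Crest.Agent.R096.Sk1_962

/-!
Row 96 (S0127), helper962.  SKEL96: the gradient of a locally PL map, patching a Sobolev
homeomorphism on an open set `D` with compact closure (LOCALITY FACT).
-/

set_option autoImplicit false
set_option linter.unusedSectionVars false
set_option linter.style.longLine false

open MeasureTheory Set Filter Topology Metric
open scoped ENNReal Gradient NNReal ContDiff
open Crest.AnalysisR.VecCalc3 Crest.AnalysisR.Sobolev
open Crest.Agent.R096.Str_696 (LocPL)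
open Crest.Agent.R96.Acl_392

namespace Crest.Agent.R096.Sk_962

noncomputable section

/-! ### weak gradients -/

theorem setInt_eq {Ω : Set R3} {v φ : R3 → ℝ} (hs : tsupport φ ⊆ Ω) :
    ∫ x in Ω, v x * φ x = ∫ x, v x * φ x := by
  apply setIntegral_eq_integral_of_forall_compl_eq_zero
  intro x hx
  rw [image_eq_zero_of_notMem_tsupport (fun h => hx (hs h)), mul_zero]

/-- directional weak derivatives in the coordinate directions give the weak gradient -/
theorem grad_of_wd {Ω : Set R3} {v : R3 → ℝ} {G : R3 → R3}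
    (hG : LocallyIntegrableOn G Ω)
    (h : ∀ i : Fin 3, WD Ω volume v (fun x => G x i) (EuclideanSpace.single i 1)) :
    HasWeakGradOn Ω v G := by
  refine ⟨(h 0).lv, hG, fun φ hφ hc hs i => ?_⟩
  have h1 := (h i).weak φ hφ hc hs
  have h2 : ∫ x in Ω, v x * pderiv φ i x = ∫ x, v x * pderiv φ i x :=
    setInt_eq ((Crest.Agent.R96.Sob2_199.tsupport_dir φ _).trans hs)
  have h3 : ∫ x in Ω, G x i * φ x = ∫ x, G x i * φ x := setInt_eq hs
  rw [h2, h3]
  exact h1

theorem inner_single (a : R3) (i : Fin 3) : inner ℝ a (EuclideanSpace.single i (1:ℝ)) = a i := by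
  simp [EuclideanSpace.inner_single_right]

theorem wd_coord {Ω : Set R3} (hΩ : IsOpen Ω) {v : R3 → ℝ} {G : R3 → R3}
    (h : HasWeakGradOn Ω v G) (i : Fin 3) :
    WD Ω volume v (fun x => G x i) (EuclideanSpace.single i 1) := by
  have := wd_of_grad hΩ h (EuclideanSpace.single i 1)
  simpa only [inner_single] using this

/-! ### the gradient of a locally Lipschitz map -/

theorem measurable_gradient (u : R3 → ℝ) : Measurable (fun x => ∇ u x) := by
  have h1 : Measurable (fderiv ℝ u) := measurable_fderiv ℝ u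
  exact (InnerProductSpace.toDual ℝ R3).symm.continuous.measurable.comp h1

theorem measurable_Gr (g : R3 → R3) (j : Fin 3) : Measurable (Gr g j) :=
  measurable_gradient _

theorem gradient_apply (u : R3 → ℝ) (x e : R3) : inner ℝ (∇ u x) e = fderiv ℝ u x e := by
  simp [gradient]

theorem norm_gradient (u : R3 → ℝ) (x : R3) : ‖∇ u x‖ = ‖fderiv ℝ u x‖ := by
  simp [gradient]

theorem LL.comp_apply {g : R3 → R3} {Ω : Set R3} (h : LL g Ω) (j : Fin 3) :
    LL (fun x => g x j) Ω := by
  intro x hx
  obtain ⟨r, hr, C, hC⟩ := h x hx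
  refine ⟨r, hr, C, ?_⟩
  apply LipschitzOnWith.of_dist_le_mul
  intro y hy z hz
  refine le_trans ?_ (hC.dist_le_mul y hy z hz)
  rw [Real.dist_eq, dist_eq_norm]
  have h1 := EuclideanSpace.norm_eq (g y - g z)
  rw [h1]
  apply Real.le_sqrt_of_sq_le
  rw [sq_abs]
  have h2 : (g y j - g z j) ^ 2 = ‖(g y - g z) j‖ ^ 2 := by
    simp
  rw [h2]
  exact Finset.single_le_sum (f := fun i => ‖(g y - g z) i‖ ^ 2) (fun i _ => by positivity)
    (Finset.mem_univ j)

theorem locInt_gradient {u : R3 → ℝ} {Ω : Set R3} (h : LL u Ω) :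
    LocallyIntegrableOn (fun x => ∇ u x) Ω := by
  intro x hx
  obtain ⟨r, hr, C, hC⟩ := h x hx
  refine ⟨ball x r ∩ Ω, inter_mem (mem_nhdsWithin_of_mem_nhds (ball_mem_nhds x hr))
    self_mem_nhdsWithin, ?_⟩
  have hfin : volume (ball x r) ≠ ⊤ := measure_ball_lt_top.ne
  have : IsFiniteMeasure (volume.restrict (ball x r)) :=
    ⟨by rw [Measure.restrict_apply_univ]; exact hfin.lt_top⟩
  refine IntegrableOn.mono_set (t := ball x r) ?_ inter_subset_left
  refine Integrable.of_bound (measurable_gradient u).aestronglyMeasurable (C : ℝ) ?_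
  rw [ae_restrict_iff' measurableSet_ball]
  refine Eventually.of_forall fun y hy => ?_
  rw [norm_gradient]
  exact norm_fderiv_le_of_lipschitzOn ℝ (isOpen_ball.mem_nhds hy) hC

/-- **the weak gradient of a locally Lipschitz function is its gradient** -/
theorem grad_of_LL {u : R3 → ℝ} {Ω : Set R3} (hΩ : IsOpen Ω) (h : LL u Ω) :
    HasWeakGradOn Ω u (fun x => ∇ u x) := by
  refine grad_of_wd (locInt_gradient h) fun i => ?_
  have h1 := wd_of_LL (μ := volume) hΩ h (EuclideanSpace.single i (1:ℝ))
  convert h1 using 2 with x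
  rw [← gradient_apply, inner_single]

theorem LocPL.LL {g : R3 → R3} {Ω : Set R3} (h : LocPL g Ω) : LL g Ω := fun _ hx => LocPL.lip h hx

theorem LocPL.wg {g : R3 → R3} {Ω : Set R3} (hΩ : IsOpen Ω) (h : LocPL g Ω) (j : Fin 3) :
    HasWeakGradOn Ω (fun x => g x j) (Gr g j) :=
  grad_of_LL hΩ ((LocPL.LL h).comp_apply j)

/-! ### patching homeomorphisms -/

/-- `g` on `D`, `f` elsewhere -/
def pw {β : Type*} (D : Set R3) (g f : R3 → β) (x : R3) : β :=
  open Classical in if x ∈ D then g x else f x

theorem pw_mem {β : Type*} {D : Set R3} {g f : R3 → β} {x : R3} (hx : x ∈ D) :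
    pw D g f x = g x := by simp [pw, hx]

theorem pw_notMem {β : Type*} {D : Set R3} {g f : R3 → β} {x : R3} (hx : x ∉ D) :
    pw D g f x = f x := by simp [pw, hx]

theorem image_eq_inter {f finv : R3 → R3} {Om La D : Set R3}
    (h1 : MapsTo f Om La) (_h2 : MapsTo finv La Om) (h3 : ∀ x ∈ Om, finv (f x) = x)
    (h4 : ∀ y ∈ La, f (finv y) = y) (hDO : D ⊆ Om) : f '' D = La ∩ finv ⁻¹' D := by
  ext z
  constructor
  · rintro ⟨x, hx, rfl⟩
    refine ⟨h1 (hDO hx), ?_⟩
    rw [mem_preimage, h3 x (hDO hx)]
    exact hx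
  · rintro ⟨hz, hz'⟩
    exact ⟨finv z, hz', h4 z hz⟩

theorem patch_homeo {f g : R3 → R3} {Om La D : Set R3} (hOm : IsOpen Om) (hLa : IsOpen La)
    (H : IsHomeomorphOn f Om La) (hD : IsOpen D) (hDb : Bornology.IsBounded D)
    (hDO : closure D ⊆ Om) (hg : IsHomeomorphOn g D (f '' D)) {β : R3 → ℝ} (hβ : Continuous β)
    (hfr : ∀ x ∈ frontier D, β x = 0) (hc : ∀ x ∈ D, ‖g x - f x‖ ≤ β x) :
    IsHomeomorphOn (pw D g f) Om La := by
  classical
  obtain ⟨finv, h1, h2, h3, h4, h5, h6⟩ := H
  obtain ⟨ginv, k1, k2, k3, k4, k5, k6⟩ := hg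
  have hDO' : D ⊆ Om := subset_closure.trans hDO
  have himg : f '' D = La ∩ finv ⁻¹' D := image_eq_inter h1 h2 h3 h4 hDO'
  have himo : IsOpen (f '' D) := by
    rw [himg]; exact h6.isOpen_inter_preimage hLa hD
  have himLa : f '' D ⊆ La := by rw [himg]; exact inter_subset_left
  set f1 : R3 → R3 := pw D g f with hf1
  set finv1 : R3 → R3 := fun z => if z ∈ f '' D then ginv z else finv z with hfinv1
  have m1 : MapsTo f1 Om La := by
    intro x hx
    by_cases hxD : x ∈ D
    · rw [hf1, pw_mem hxD]; exact himLa (k1 hxD)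
    · rw [hf1, pw_notMem hxD]; exact h1 hx
  have m2 : MapsTo finv1 La Om := by
    intro z hz
    by_cases hzD : z ∈ f '' D
    · simp only [hfinv1, if_pos hzD]; exact hDO' (k2 hzD)
    · simp only [hfinv1, if_neg hzD]; exact h2 hz
  have m3 : ∀ x ∈ Om, finv1 (f1 x) = x := by
    intro x hx
    by_cases hxD : x ∈ D
    · rw [hf1, pw_mem hxD]
      simp only [hfinv1, if_pos (k1 hxD)]
      exact k3 x hxD
    · rw [hf1, pw_notMem hxD]
      have : f x ∉ f '' D := by
        rw [himg]
        rintro ⟨-, h⟩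
        rw [mem_preimage, h3 x hx] at h
        exact hxD h
      simp only [hfinv1, if_neg this]
      exact h3 x hx
  have hnot : ∀ z ∈ La, z ∉ f '' D → finv z ∉ D := by
    intro z hz hzD h
    exact hzD (by rw [himg]; exact ⟨hz, h⟩)
  have m4 : ∀ z ∈ La, f1 (finv1 z) = z := by
    intro z hz
    by_cases hzD : z ∈ f '' D
    · simp only [hfinv1, if_pos hzD, hf1, pw_mem (k2 hzD)]
      exact k4 z hzD
    · simp only [hfinv1, if_neg hzD, hf1, pw_notMem (hnot z hz hzD)]
      exact h4 z hz
  have c1 : ∀ x ∈ Om, ContinuousAt f1 x := by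
    intro x hx
    by_cases hxD : x ∈ D
    · have e1 : ContinuousAt g x := k5.continuousAt (hD.mem_nhds hxD)
      refine e1.congr ?_
      filter_upwards [hD.mem_nhds hxD] with y hy using (pw_mem hy).symm
    · have e1 : ContinuousAt f x := h5.continuousAt (hOm.mem_nhds hx)
      have e2 : Tendsto (fun y => D.indicator β y) (𝓝 x) (𝓝 0) := by
        by_cases hcl : x ∈ closure D
        · have hx0 : β x = 0 := hfr x ⟨hcl, by rwa [hD.interior_eq]⟩
          have e3 : Tendsto (fun y => |β y|) (𝓝 x) (𝓝 0) := by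
            have := hβ.abs.continuousAt (x := x)
            rw [ContinuousAt, hx0, abs_zero] at this
            exact this
          refine squeeze_zero_norm (fun y => ?_) e3
          by_cases hy : y ∈ D
          · rw [indicator_of_mem hy, Real.norm_eq_abs]
          · rw [indicator_of_notMem hy, norm_zero]; exact abs_nonneg _
        · apply tendsto_const_nhds.congr'
          filter_upwards [isClosed_closure.isOpen_compl.mem_nhds hcl] with y hy
          exact (indicator_of_notMem (fun h => hy (subset_closure h)) _).symm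
      have e3 : Tendsto (fun y => f1 y - f y) (𝓝 x) (𝓝 0) := by
        refine squeeze_zero_norm (fun y => ?_) e2
        by_cases hy : y ∈ D
        · rw [hf1, pw_mem hy, indicator_of_mem hy]; exact hc y hy
        · rw [hf1, pw_notMem hy, indicator_of_notMem hy, sub_self, norm_zero]
      have e4 := e3.add e1.tendsto
      simp only [sub_add_cancel, zero_add] at e4
      rw [ContinuousAt]
      have e5 : f1 x = f x := pw_notMem hxD
      rw [e5]
      exact e4
  have c2 : ContinuousOn finv1 La := by
    intro z hz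
    apply ContinuousAt.continuousWithinAt
    by_cases hzD : z ∈ f '' D
    · have e1 : ContinuousAt ginv z := k6.continuousAt (himo.mem_nhds hzD)
      refine e1.congr ?_
      filter_upwards [himo.mem_nhds hzD] with y hy
      simp only [hfinv1, if_pos hy]
    · have hz1 : finv1 z = finv z := by simp only [hfinv1, if_neg hzD]
      rw [ContinuousAt, hz1]
      simp only [hfinv1]
      apply Tendsto.if
      · have hcomp : IsCompact (closure D) := hDb.isCompact_closure
        refine hcomp.tendsto_nhds_of_unique_mapClusterPt ?_ ?_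
        · rw [eventually_inf_principal]
          exact Eventually.of_forall fun y hy => subset_closure (k2 hy)
        · intro y hy hcl
          have e1 : MapClusterPt (f1 y) (𝓝 z ⊓ 𝓟 {x | x ∈ f '' D}) (f1 ∘ ginv) :=
            hcl.continuousAt_comp (c1 y (hDO hy))
          have e2 : Tendsto (f1 ∘ ginv) (𝓝 z ⊓ 𝓟 {x | x ∈ f '' D}) (𝓝 z) := by
            have e3 : Tendsto id (𝓝 z ⊓ 𝓟 {x | x ∈ f '' D}) (𝓝 z) := tendsto_id.mono_left inf_le_left
            refine e3.congr' ?_
            rw [EventuallyEq, eventually_inf_principal]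
            refine Eventually.of_forall fun w hw => ?_
            simp only [id, Function.comp, hf1, pw_mem (k2 hw)]
            exact (k4 w hw).symm
          have e3 : f1 y = z := by
            have e0 : ClusterPt (f1 y) (map (f1 ∘ ginv) (𝓝 z ⊓ 𝓟 {x | x ∈ f '' D})) := e1
            have e4 : ClusterPt (f1 y) (𝓝 z) := ClusterPt.mono e0 e2
            exact eq_of_nhds_neBot e4
          rw [← hz1, ← e3, m3 y (hDO hy)]
      · exact (h6.continuousAt (hLa.mem_nhds hz)).tendsto.mono_left inf_le_left
  exact ⟨finv1, m1, m2, m3, m4, fun x hx => (c1 x hx).continuousWithinAt, c2⟩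

/-! ### patching Sobolev homeomorphisms -/

theorem memLp_pw {F : Type*} [NormedAddCommGroup F] {q : ℝ≥0∞} {Om D : Set R3}
    (hD : MeasurableSet D) (hDO : D ⊆ Om) {a b : R3 → F} (ha : MemLp a q (volume.restrict D))
    (hb : MemLp b q (volume.restrict Om)) : MemLp (pw D a b) q (volume.restrict Om) := by
  have h1 : MemLp (D.indicator a) q (volume.restrict Om) := by
    rw [memLp_indicator_iff_restrict hD, Measure.restrict_restrict_of_subset hDO]
    exact ha
  have h2 : MemLp (Dᶜ.indicator b) q (volume.restrict Om) := hb.indicator hD.compl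
  refine (h1.add h2).ae_eq (Eventually.of_forall fun x => ?_)
  by_cases hx : x ∈ D
  · simp [pw_mem hx, hx]
  · simp [pw_notMem hx, hx]

theorem SH.patch {p : ℝ} (hp : 1 ≤ p) {Om La D : Set R3} {f g : R3 → R3}
    {G : Fin 3 → R3 → R3} (hOm : IsOpen Om) (hOmb : Bornology.IsBounded Om) (hLa : IsOpen La)
    (hLab : Bornology.IsBounded La) (H : SH p Om La f G) (hD : IsOpen D)
    (hDO : closure D ⊆ Om) {ρ : R3 → ℝ} (hρ : ContDiff ℝ ∞ ρ) (hpos : ∀ x ∈ D, 0 < ρ x)
    (hfr : ∀ x ∈ frontier D, ρ x = 0) (hg : IsHomeomorphOn g D (f '' D)) (hPL : LocPL g D)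
    {C : ℝ} (hc : ∀ x ∈ D, ‖g x - f x‖ ≤ C * ρ x)
    (hE : ∀ j, MemLp (Gr g j) (ENNReal.ofReal p) (volume.restrict D)) :
    SH p Om La (pw D g f) (fun j => pw D (Gr g j) (G j)) := by
  have hDO' : D ⊆ Om := subset_closure.trans hDO
  have hDb : Bornology.IsBounded D := hOmb.subset hDO'
  have hDm := hD.measurableSet
  have hfinO : IsFiniteMeasure (volume.restrict Om) :=
    ⟨by rw [Measure.restrict_apply_univ]; exact hOmb.measure_lt_top⟩
  have hfinD : IsFiniteMeasure (volume.restrict D) :=
    ⟨by rw [Measure.restrict_apply_univ]; exact hDb.measure_lt_top⟩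
  have hp1 : 1 ≤ ENNReal.ofReal p := by
    rw [ENNReal.one_le_ofReal]; exact hp
  have hhom : IsHomeomorphOn (pw D g f) Om La :=
    patch_homeo hOm hLa H.homeo hD hDb hDO hg (β := fun x => C * ρ x)
      (continuous_const.mul hρ.continuous) (fun x hx => by simp [hfr x hx]) hc
  have hmemG : ∀ j, MemLp (pw D (Gr g j) (G j)) (ENNReal.ofReal p) (volume.restrict Om) :=
    fun j => memLp_pw hDm hDO' (hE j) (H.memG j)
  refine ⟨hhom, ?_, fun j => ?_, hmemG⟩
  · obtain ⟨finv1, m1, -, -, -, c1, -⟩ := hhom
    obtain ⟨B, hB⟩ := hLab.exists_norm_le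
    refine MemLp.of_bound (c1.aestronglyMeasurable hOm.measurableSet) B ?_
    rw [ae_restrict_iff' hOm.measurableSet]
    exact Eventually.of_forall fun x hx => hB _ (m1 hx)
  · have hloc : LocallyIntegrableOn (pw D (Gr g j) (G j)) Om := by
      have h1 : IntegrableOn (pw D (Gr g j) (G j)) Om := (hmemG j).integrable hp1
      exact h1.locallyIntegrableOn
    refine grad_of_wd hloc fun i => ?_
    have w1 := wd_coord hOm (H.wg j) i
    have w2 : WD D volume (fun x => g x j - f x j) (fun x => Gr g j x i - G j x i)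
        (EuclideanSpace.single i 1) :=
      Crest.Agent.R96.Sob2_199.wd_sub (wd_coord hD (LocPL.wg hD hPL j) i)
        (Crest.Agent.R96.Sob2_199.wd_mono w1 hDO')
    have hint : IntegrableOn (fun x => Gr g j x i - G j x i) D := by
      have h1 : Integrable (Gr g j) (volume.restrict D) := (hE j).integrable hp1
      have h2 : Integrable (G j) (volume.restrict D) :=
        ((H.memG j).mono_measure (Measure.restrict_mono hDO' le_rfl)).integrable hp1
      exact (EuclideanSpace.proj (𝕜 := ℝ) i).integrable_comp (h1.sub h2)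
    have w3 := wd_zero_ext hD hDb hρ hpos hfr w2 (C := C) (fun x hx => by
      refine le_trans ?_ (hc x hx)
      have h1 := PiLp.norm_apply_le (g x - f x) j
      simpa using h1) hint
    have w4 := Crest.Agent.R96.Sob2_199.wd_add w1
      (Crest.Agent.R96.Sob2_199.wd_mono w3 (subset_univ Om))
    convert w4 using 2 with x x
    · by_cases hx : x ∈ D
      · simp [pw_mem hx, hx]
      · simp [pw_notMem hx, hx]
    · by_cases hx : x ∈ D
      · simp [pw_mem hx, hx]
      · simp [pw_notMem hx, hx]

end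

end Crest.Agent.R096.Sk_962
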