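import Crest.Agent.R096.Er1_594
import Crest.Agent.R096.Sk2_962

/-!
Row 96 (S0127), helper594.  **(R3) of 663 #9825**, part 2: the derivative. `D3 G x` = the matrix with
the rows `G j (P3 x)`, as a continuous linear map of `E3`; `row L j` = the `j`-th row of `L`.
-/

set_option autoImplicit false
set_option linter.unusedSectionVars false
set_option linter.style.longLine false

open MeasureTheory Set Filter Topology Metric
open scoped ENNReal Gradient NNReal
open Crest.AnalysisR.VecCalc3 Crest.AnalysisR.Sobolev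
open Crest.Agent.R096.Str_696 (LocPL)
open Crest.Agent.R096.Sk_962 (SH Gr LL LL.ae_diff LocPL.lip)
open Crest.Agent.R96.Lu_538 (Gmat Gmat_apply gmatL gmatL_apply aesm_Gmat)
open Crest.Agent.R096.DetN_663 (Gmat_Gr)
open Crest.Agent.R96.En10_199 (P3 P3_mp P3_apply Di vwd_of_grad wd_comp_equiv P3_symm_single)
open Crest.Agent.R096.SkC1_961 (E3 Hom3)
open Crest.Agent.R96.Sob4_199 (VWD)
open Crest.Agent.R096.Sk4_663 (Zd lintegral_of_memLp memLp_of_lintegral)

namespace Crest.Agent.R096.Er_594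

noncomputable section

/-- the `j`-th row of `L` -/
def row (L : E3 →L[ℝ] E3) (j : Fin 3) : R3 := WithLp.toLp 2 fun i => L (Pi.single i 1) j

theorem row_apply (L : E3 →L[ℝ] E3) (j i : Fin 3) : row L j i = L (Pi.single i 1) j := rfl

theorem inner_row (L : E3 →L[ℝ] E3) (j : Fin 3) (v : E3) : inner ℝ (row L j) (P3 v) = L v j := by
  have h1 : v = ∑ i, v i • (Pi.single i (1:ℝ) : E3) := by
    funext k
    simp [Finset.sum_apply, Pi.single_apply]
  conv_rhs => rw [h1]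
  rw [map_sum, Finset.sum_apply, PiLp.inner_apply]
  refine Finset.sum_congr rfl fun i _ => ?_
  rw [map_smul, Pi.smul_apply, row_apply, P3_apply, smul_eq_mul]
  simp

theorem row_sub (L M : E3 →L[ℝ] E3) (j : Fin 3) : row (L - M) j = row L j - row M j := by
  ext i; simp [row_apply]

theorem row_zero (j : Fin 3) : row 0 j = 0 := by ext i; simp [row_apply]

theorem norm_row_le (L : E3 →L[ℝ] E3) (j : Fin 3) : ‖row L j‖ ≤ ‖L‖ := by
  by_cases h0 : row L j = 0
  · rw [h0, norm_zero]; exact norm_nonneg _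
  · have h1 := inner_row L j (P3.symm (row L j))
    rw [P3.apply_symm_apply, real_inner_self_eq_norm_sq] at h1
    have h2 : |L (P3.symm (row L j)) j| ≤ ‖L‖ * ‖row L j‖ := by
      calc |L (P3.symm (row L j)) j| ≤ ‖L (P3.symm (row L j))‖ := by
            rw [← Real.norm_eq_abs]; exact norm_le_pi_norm (L (P3.symm (row L j))) j
        _ ≤ ‖L‖ * ‖P3.symm (row L j)‖ := L.le_opNorm _
        _ ≤ ‖L‖ * ‖row L j‖ := by gcongr; exact norm_P3_symm_le _
    rw [← h1, abs_of_nonneg (by positivity)] at h2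
    have h3 : 0 < ‖row L j‖ := norm_pos_iff.2 h0
    nlinarith

theorem exists_row (L : E3 →L[ℝ] E3) : ∃ j, ‖L‖ ≤ 2 * ‖row L j‖ := by
  obtain ⟨j, -, hj⟩ := Finset.exists_max_image Finset.univ (fun j => ‖row L j‖)
    ⟨0, Finset.mem_univ _⟩
  refine ⟨j, L.opNorm_le_bound (by positivity) fun v => ?_⟩
  rw [pi_norm_le_iff_of_nonneg (by positivity)]
  intro i
  rw [← inner_row, Real.norm_eq_abs]
  calc |inner ℝ (row L i) (P3 v)| ≤ ‖row L i‖ * ‖P3 v‖ := abs_real_inner_le_norm _ _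
    _ ≤ ‖row L j‖ * (2 * ‖v‖) := by
        gcongr
        · exact hj i (Finset.mem_univ _)
        · exact norm_P3_le v
    _ = 2 * ‖row L j‖ * ‖v‖ := by ring

theorem enorm_row_le (L : E3 →L[ℝ] E3) (j : Fin 3) : ‖row L j‖ₑ ≤ ‖L‖ₑ := by
  rw [← ofReal_norm, ← ofReal_norm]
  exact ENNReal.ofReal_le_ofReal (norm_row_le L j)

/-- **rows ≤ operator norm** -/
theorem sum_row_le (L : E3 →L[ℝ] E3) {p : ℝ} (hp : 0 ≤ p) :
    ∑ j, ‖row L j‖ₑ ^ p ≤ 3 * ‖L‖ₑ ^ p := by
  calc ∑ j, ‖row L j‖ₑ ^ p ≤ ∑ _j : Fin 3, ‖L‖ₑ ^ p :=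
        Finset.sum_le_sum fun j _ => ENNReal.rpow_le_rpow (enorm_row_le L j) hp
    _ = 3 * ‖L‖ₑ ^ p := by
        rw [Finset.sum_const, Finset.card_univ, Fintype.card_fin, nsmul_eq_mul]; norm_num

/-- **operator norm ≤ rows** -/
theorem le_sum_row (L : E3 →L[ℝ] E3) {p : ℝ} (hp : 0 ≤ p) :
    ‖L‖ₑ ^ p ≤ 2 ^ p * ∑ j, ‖row L j‖ₑ ^ p := by
  obtain ⟨j, hj⟩ := exists_row L
  have h1 : ‖L‖ₑ ≤ 2 * ‖row L j‖ₑ := by
    rw [← ofReal_norm, ← ofReal_norm]
    refine (ENNReal.ofReal_le_ofReal hj).trans (le_of_eq ?_)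
    rw [ENNReal.ofReal_mul (by norm_num)]
    norm_num
  calc ‖L‖ₑ ^ p ≤ (2 * ‖row L j‖ₑ) ^ p := ENNReal.rpow_le_rpow h1 hp
    _ = 2 ^ p * ‖row L j‖ₑ ^ p := ENNReal.mul_rpow_of_nonneg _ _ hp
    _ ≤ 2 ^ p * ∑ j, ‖row L j‖ₑ ^ p := by
        gcongr
        exact Finset.single_le_sum (f := fun j => ‖row L j‖ₑ ^ p) (fun _ _ => zero_le)
          (Finset.mem_univ j)

/-! ### the matrix of the weak gradients -/

/-- the derivative of `e3 f`, for `f` with weak gradients `G j` -/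
def D3 (G : Fin 3 → R3 → R3) (x : E3) : E3 →L[ℝ] E3 :=
  (P3.symm : R3 →L[ℝ] E3).comp ((Gmat G (P3 x)).comp (P3 : E3 →L[ℝ] R3))

theorem D3_apply (G : Fin 3 → R3 → R3) (x v : E3) (j : Fin 3) :
    D3 G x v j = inner ℝ (G j (P3 x)) (P3 v) := rfl

theorem P3_single (i : Fin 3) : P3 (Pi.single i (1:ℝ)) = EuclideanSpace.single i (1:ℝ) := by
  rw [← P3_symm_single, P3.apply_symm_apply]

theorem row_D3 (G : Fin 3 → R3 → R3) (x : E3) (j : Fin 3) : row (D3 G x) j = G j (P3 x) := by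
  ext i
  rw [row_apply, D3_apply, P3_single, EuclideanSpace.inner_single_right]
  simp

theorem D3_single (G : Fin 3 → R3 → R3) (x : E3) (i : Fin 3) :
    P3 (D3 G x (Pi.single i 1)) = Di G i (P3 x) := by
  ext j
  rw [P3_apply, ← row_apply, row_D3]
  rfl

/-- the linear map with given rows -/
def ofRows (a : Fin 3 → R3) : E3 →L[ℝ] E3 :=
  (P3.symm : R3 →L[ℝ] E3).comp ((gmatL a).comp (P3 : E3 →L[ℝ] R3))

theorem D3_eq (G : Fin 3 → R3 → R3) (x : E3) : D3 G x = ofRows fun j => G j (P3 x) := rfl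

theorem row_ofRows (a : Fin 3 → R3) (j : Fin 3) : row (ofRows a) j = a j := by
  ext i
  change inner ℝ (a j) (P3 (Pi.single i 1)) = _
  rw [P3_single, EuclideanSpace.inner_single_right]
  simp

theorem ofRows_row (L : E3 →L[ℝ] E3) : ofRows (row L) = L := by
  ext1 v
  funext j
  change inner ℝ (row L j) (P3 v) = _
  exact inner_row L j v

theorem ofRows_sub (a b : Fin 3 → R3) : ofRows (fun j => a j - b j) = ofRows a - ofRows b := by
  ext1 v
  funext j
  change inner ℝ (a j - b j) (P3 v) = inner ℝ (a j) (P3 v) - inner ℝ (b j) (P3 v)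
  rw [inner_sub_left]

theorem det_conj' (A : E3 ≃ₗ[ℝ] R3) (M : R3 →ₗ[ℝ] R3) :
    LinearMap.det ((A.symm : R3 →ₗ[ℝ] E3) ∘ₗ M ∘ₗ (A : E3 →ₗ[ℝ] R3)) = LinearMap.det M := by
  have := LinearMap.det_conj M A.symm
  simpa using this

theorem det_ofRows (a : Fin 3 → R3) : (ofRows a).det = (gmatL a).det :=
  det_conj' P3.toLinearEquiv (gmatL a : R3 →ₗ[ℝ] R3)

theorem det_D3 (G : Fin 3 → R3 → R3) (x : E3) : (D3 G x).det = (Gmat G (P3 x)).det :=
  det_ofRows _

/-- the singular set -/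
theorem pre_Zd (G : Fin 3 → R3 → R3) : P3 ⁻¹' Zd G = {x | (D3 G x).det = 0} := by
  ext x
  simp only [mem_preimage, Zd, mem_ofPred_eq, det_D3]

/-! ### classical derivatives -/

/-- **the gradients of `r3 g` are the rows of the derivative of `g`** -/
theorem Gr_r3 {g : E3 → E3} {y : R3} (hd : DifferentiableAt ℝ g (P3.symm y)) (j : Fin 3) :
    Gr (r3 g) j y = row (fderiv ℝ g (P3.symm y)) j := by
  have h1 : HasFDerivAt (r3 g) ((P3 : E3 →L[ℝ] R3).comp
      ((fderiv ℝ g (P3.symm y)).comp (P3.symm : R3 →L[ℝ] E3))) y := by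
    have h2 := hd.hasFDerivAt.comp y (P3.symm : R3 →L[ℝ] E3).hasFDerivAt
    exact (P3 : E3 →L[ℝ] R3).hasFDerivAt.comp y h2
  have h3 := Gmat_Gr h1.differentiableAt
  rw [h1.fderiv] at h3
  ext i
  have h4 : Gmat (Gr (r3 g)) y (EuclideanSpace.single i 1) j = Gr (r3 g) j y i := by
    rw [Gmat_apply, EuclideanSpace.inner_single_right]; simp
  rw [← h4, h3, row_apply]
  simp only [ContinuousLinearMap.comp_apply, ContinuousLinearEquiv.coe_coe]
  rw [P3_symm_single]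
  rfl

theorem fderiv_e3 {f : R3 → R3} {x : E3} (hd : DifferentiableAt ℝ f (P3 x)) :
    fderiv ℝ (e3 f) x = D3 (Gr f) x := by
  have h1 : HasFDerivAt (e3 f) ((P3.symm : R3 →L[ℝ] E3).comp
      ((fderiv ℝ f (P3 x)).comp (P3 : E3 →L[ℝ] R3))) x := by
    have h2 := hd.hasFDerivAt.comp x (P3 : E3 →L[ℝ] R3).hasFDerivAt
    exact (P3.symm : R3 →L[ℝ] E3).hasFDerivAt.comp x h2
  rw [h1.fderiv, D3, Gmat_Gr hd]

/-- locally PL maps are differentiable almost everywhere (any finite-dimensional spaces) -/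
theorem ae_diff_locPL {E F : Type*} [NormedAddCommGroup E] [NormedSpace ℝ E]
    [FiniteDimensional ℝ E] [MeasurableSpace E] [BorelSpace E] {μ : Measure E}
    [μ.IsAddHaarMeasure] [NormedAddCommGroup F] [NormedSpace ℝ F] [FiniteDimensional ℝ F]
    {g : E → F} {Om : Set E} (h : LocPL g Om) :
    ∀ᵐ x ∂μ, x ∈ Om → DifferentiableAt ℝ g x :=
  LL.ae_diff (fun _ hx => LocPL.lip h hx)

end

end Crest.Agent.R096.Er_594
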