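import Crest.Agent.R096.Er3_594

/-!
Row 96 (S0127), helper594.  **(R3) of 663 #9825**, part 4: `NO3 p → NO0 p`; energies with values in the
reals of the converse direction (`E3` to `R3`).
-/

set_option autoImplicit false
set_option linter.unusedSectionVars false
set_option linter.style.longLine false

open MeasureTheory Set Filter Topology Metric
open scoped ENNReal Gradient NNReal
open Crest.AnalysisR.VecCalc3 Crest.AnalysisR.Sobolev
open Crest.Agent.R096.Str_696 (LocPL)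
open Crest.Agent.R096.Sk_962 (SH Gr Q0 Qc0 dg)
open Crest.Agent.R96.Lu_538 (Gmat Gmat_apply gmatL gmatL_apply aesm_Gmat)
open Crest.Agent.R96.En10_199 (P3 P3_mp P3_apply Di vwd_of_grad wd_comp_equiv P3_symm_single)
open Crest.Agent.R096.SkC1_961 (E3 Hom3)
open Crest.Agent.R96.Sob4_199 (VWD)
open Crest.Agent.R096.Sk4_663 (Zd BFs NO0 lintegral_of_memLp memLp_of_lintegral)

namespace Crest.Agent.R096.Er_594

noncomputable section

theorem e3_image (f : R3 → R3) (A : Set R3) : e3 f '' (P3 ⁻¹' A) = P3 ⁻¹' (f '' A) := by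
  ext x
  constructor
  · rintro ⟨y, hy, rfl⟩
    change P3 (e3 f y) ∈ f '' A
    rw [P3_e3]
    exact ⟨P3 y, hy, rfl⟩
  · rintro ⟨y, hy, hxy⟩
    refine ⟨P3.symm y, ?_, ?_⟩
    · change P3 (P3.symm y) ∈ A
      rwa [P3.apply_symm_apply]
    · apply P3.injective
      rw [P3_e3, P3.apply_symm_apply, hxy]

theorem r3_image (g : E3 → E3) (A : Set E3) : r3 g '' (P3.symm ⁻¹' A) = P3.symm ⁻¹' (g '' A) := by
  ext x
  constructor
  · rintro ⟨y, hy, rfl⟩
    change P3.symm (P3 (g (P3.symm y))) ∈ g '' A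
    rw [P3.symm_apply_apply]
    exact ⟨P3.symm y, hy, rfl⟩
  · rintro ⟨y, hy, hxy⟩
    refine ⟨P3 y, ?_, ?_⟩
    · change P3.symm (P3 y) ∈ A
      rwa [P3.symm_apply_apply]
    · rw [r3_P3, hxy, P3.apply_symm_apply]

theorem frontier_pre (A : Set R3) : frontier (P3 ⁻¹' A) = P3 ⁻¹' frontier A :=
  (P3.toHomeomorph.preimage_frontier A).symm

theorem closure_pre (A : Set R3) : closure (P3 ⁻¹' A) = P3 ⁻¹' closure A :=
  (P3.toHomeomorph.preimage_closure A).symm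

/-- closeness at a boundary point, from `E3` to `R3` -/
theorem tendsto_r3 {g : E3 → E3} {f : R3 → R3} {A : Set R3} {z : R3}
    (h : Tendsto (fun x => g x - e3 f x) (𝓝[P3 ⁻¹' A] (P3.symm z)) (𝓝 0)) :
    Tendsto (fun y => r3 g y - f y) (𝓝[A] z) (𝓝 0) := by
  have h1 : Tendsto P3.symm (𝓝[A] z) (𝓝[P3 ⁻¹' A] (P3.symm z)) := by
    apply tendsto_nhdsWithin_iff.2
    refine ⟨P3.symm.continuous.continuousAt.mono_left nhdsWithin_le_nhds, ?_⟩
    filter_upwards [self_mem_nhdsWithin] with y hy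
    change P3 (P3.symm y) ∈ A
    rwa [P3.apply_symm_apply]
  have h2 := (P3.continuous.tendsto 0).comp (h.comp h1)
  rw [map_zero] at h2
  refine h2.congr fun y => ?_
  change P3 (g (P3.symm y) - e3 f (P3.symm y)) = P3 (g (P3.symm y)) - f y
  rw [map_sub, P3_e3, P3.apply_symm_apply]

/-- **`NO3 p → NO0 p`** -/
theorem no0_of {p : ℝ} (hp : 1 ≤ p) (H : NO3 p) : NO0 p := by
  have hp0 : 0 ≤ p := by linarith
  intro s hs hs2 e he
  obtain ⟨d, hd, hH⟩ := H s hs hs2 (e / 3) (by positivity)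
  have h2p : (0:ℝ) < 2 ^ p := Real.rpow_pos_of_pos (by norm_num) p
  have h2p1 : (1:ℝ) ≤ 2 ^ p := Real.one_le_rpow (by norm_num) hp0
  have h2e : (2:ℝ≥0∞) ^ p = ENNReal.ofReal (2 ^ p) := by
    rw [← ENNReal.ofReal_rpow_of_nonneg (by norm_num) hp0]; norm_num
  refine ⟨d / 2 ^ p, by positivity, ?_⟩
  intro U W f G hU hUb hUc hW hWb hWc hQ hf hG hZ
  have hd1 : (2:ℝ≥0∞) ^ p * ENNReal.ofReal (d / 2 ^ p) = ENNReal.ofReal d := by
    rw [h2e, ← ENNReal.ofReal_mul h2p.le, mul_div_cancel₀ _ h2p.ne']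
  obtain ⟨g, g1, g2, g3, g4⟩ := hH (P3 ⁻¹' U) (P3 ⁻¹' W) (e3 f) (D3 G) (isOpen_pre hU)
    (isBounded_pre hUb) (isConnected_pre hUc) (isOpen_pre hW) (isBounded_pre hWb)
    (isConnected_pre hWc) (preimage_mono hQ) (sh3_of hp hU hf) (by
      have h1 := energy_D3_sub_le G (fun j _ => dg s j) Q0 hp0
      refine h1.trans ?_
      calc (2:ℝ≥0∞) ^ p * ∫⁻ y in Q0, ∑ j, ‖G j y - dg s j‖ₑ ^ p
          ≤ 2 ^ p * ENNReal.ofReal (d / 2 ^ p) := by gcongr
        _ = ENNReal.ofReal d := hd1) (by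
      have h1 : Qo \ {x | (D3 G x).det = 0} = P3 ⁻¹' (Q0 \ Zd G) := by
        rw [← pre_Zd]; rfl
      rw [h1, vol_P3]
      refine hZ.trans (ENNReal.ofReal_le_ofReal ?_)
      rw [div_le_iff₀ h2p]
      nlinarith)
  have hi : e3 f '' Qo = P3 ⁻¹' (f '' Q0) := e3_image f Q0
  rw [hi] at g1
  have hQo : IsOpen Q0 := Sk4_663.isOpen_Q0
  refine ⟨r3 g, homeo_of (Om := Q0) g1, locPL_r3 (Om := Q0) g2, ?_, ?_⟩
  · intro z hz
    refine tendsto_r3 (A := Q0) (g3 _ ?_)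
    change P3.symm z ∈ frontier (P3 ⁻¹' Q0)
    rw [frontier_pre]
    change P3 (P3.symm z) ∈ frontier Q0
    rwa [P3.apply_symm_apply]
  · refine (energy_sub_le (Om := Q0) hQo g2 subset_rfl hp0 (fun j _ => dg s j)).trans ?_
    calc 3 * ∫⁻ x in P3 ⁻¹' Q0, ‖fderiv ℝ g x - D3 (fun j _ => dg s j) x‖ₑ ^ p
        ≤ 3 * ENNReal.ofReal (e / 3) := by gcongr; exact g4
      _ = ENNReal.ofReal e := by
          rw [show (3:ℝ≥0∞) = ENNReal.ofReal 3 by norm_num, ← ENNReal.ofReal_mul (by norm_num)]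
          congr 1; ring

/-! ### from `E3` to `R3`: all data of `SH` for `r3 g`, `g` given on `E3` -/

theorem lint_P3_symm (R : Set E3) (F : E3 → ℝ≥0∞) :
    ∫⁻ x in R, F x = ∫⁻ y in P3.symm ⁻¹' R, F (P3.symm y) := by
  rw [lint_P3 (P3.symm ⁻¹' R) (fun y => F (P3.symm y)), symm_pre]
  simp only [P3.symm_apply_apply]

theorem isOpen_symm_pre {Om : Set E3} (h : IsOpen Om) : IsOpen (P3.symm ⁻¹' Om) :=
  h.preimage P3.symm.continuous

theorem isBounded_symm_pre {Om : Set E3} (h : Bornology.IsBounded Om) :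
    Bornology.IsBounded (P3.symm ⁻¹' Om) := by
  have h1 : P3.symm ⁻¹' Om = P3 '' Om := by
    ext y
    constructor
    · intro hy; exact ⟨P3.symm y, hy, by simp⟩
    · rintro ⟨x, hx, rfl⟩; simpa using hx
  rw [h1]
  exact (P3 : E3 →L[ℝ] R3).lipschitz.isBounded_image h

theorem isConnected_symm_pre {Om : Set E3} (h : IsConnected Om) :
    IsConnected (P3.symm ⁻¹' Om) := by
  have h1 : P3.symm ⁻¹' Om = P3 '' Om := by
    ext y
    constructor
    · intro hy; exact ⟨P3.symm y, hy, by simp⟩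
    · rintro ⟨x, hx, rfl⟩; simpa using hx
  rw [h1]
  exact h.image _ P3.continuous.continuousOn

end

end Crest.Agent.R096.Er_594
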