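/-
helper647, row 96, EA0, leaf [E2] RAT of 348 #11167: rational data of the mesh from the net of `Blk`.
-/
import Crest.Agent.R096.Ea0_961
import Crest.Agent.R096.Mfa3_880

set_option autoImplicit false
set_option linter.style.longLine false

open MeasureTheory Set Filter Topology Metric
open scoped ENNReal NNReal

namespace Crest.Agent.R096.Erat_647

open Crest.Agent.R096.Msh_715 Crest.Agent.R096.Msh_810 Crest.Agent.R096.Cut_874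
  Crest.Agent.R096.Mal_874
open Crest.Agent.R096.SkC1_961 (E3)
open Crest.Agent.R096.Bsp_628 Crest.Agent.R096.Brk1_582
open Crest.Agent.R096.Ea0_961 (Blk)

noncomputable section

/-- `c = max 1 ‖ψ⁻¹‖` compares the two frames -/
theorem cn_symm (ψ : E3 ≃L[ℝ] (Fin 3 → ℝ)) :
    Cn (ContinuousLinearEquiv.refl ℝ E3) ψ (max 1 ‖(ψ.symm : (Fin 3 → ℝ) →L[ℝ] E3)‖) := by
  intro x y
  have e : (ContinuousLinearEquiv.refl ℝ E3) x - (ContinuousLinearEquiv.refl ℝ E3) y =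
      (ψ.symm : (Fin 3 → ℝ) →L[ℝ] E3) (ψ x - ψ y) := by
    rw [← map_sub ψ]
    simp
  rw [dist_eq_norm, dist_eq_norm, e]
  refine ((ψ.symm : (Fin 3 → ℝ) →L[ℝ] E3).le_opNorm _).trans ?_
  exact mul_le_mul_of_nonneg_right (le_max_right _ _) (norm_nonneg _)

/-- **[E2], abstract form** -/
theorem exists_rd {J : Type*} (M : MD E3 3 J) (hφ : M.φ = ContinuousLinearEquiv.refl ℝ E3)
    {Bs Nn : ℕ} (hBs : 1 ≤ Bs)
    (net : ∀ j, ∃ (d : ℕ) (B : Fin 3 → Fin 3 → ℤ), 0 < d ∧ d ≤ Nn ∧ (∀ i l, |B i l| ≤ Nn) ∧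
      Rt (ContinuousLinearEquiv.refl ℝ E3) (M.Q j).ψ B d ∧
      ∃ κ : ℕ, ∀ m, ∃ z : ℤ, 2 ^ κ * (d : ℝ) * (M.Q j).a' m = z)
    (hB : ∀ j i, ∀ p ∈ (M.Q j).S.GG i, ∀ l, |p.1 l| ≤ Bs)
    (hR : ∀ j i, i ≠ (M.Q j).S.core → ∀ v ∈ ZP ((M.Q j).S.GG i), ∀ w ∈ ZP ((M.Q j).S.GG i), ∀ l,
      |w l - v l| ≤ Bs) :
    ∃ (Xr : RD M) (κ : J → ℕ),
      (∀ j, Xr.B j = Bs ∧ Xr.R j = Bs ∧ Xr.d j ≤ Nn ∧ (∀ i l, |Xr.A j i l| ≤ Nn) ∧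
        Xr.c j = max 1 ‖((M.Q j).ψ.symm : (Fin 3 → ℝ) →L[ℝ] E3)‖) ∧
      ∀ j m, ∃ z : ℤ, 2 ^ κ j * (Xr.d j : ℝ) * (M.Q j).a' m = z := by
  choose d B hd hdN hBN hRt κ hκ using net
  refine ⟨{ A := B, d := d, dpos := hd, rat := fun j => ?_,
            c := fun j => max 1 ‖((M.Q j).ψ.symm : (Fin 3 → ℝ) →L[ℝ] E3)‖,
            c1 := fun j => le_max_left _ _, cn := fun j => ?_, B := fun _ => Bs, B1 := fun _ => hBs,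
            hB := hB, R := fun _ => (Bs : ℝ), R1 := fun _ => by exact_mod_cast hBs,
            hR := fun j i hi u hu v hv l => hR j i hi u hu v hv l }, κ, fun j => ?_, hκ⟩
  · rw [hφ]; exact hRt j
  · rw [hφ]; exact cn_symm _
  · exact ⟨rfl, rfl, hdN j, hBN j, rfl⟩

/-- **[E2] from `Blk`** (`M.Q j = Q j.1`): rational data `Xr` with `B = R = Bs`, net number `Nn`,
`c = max 1 ‖ψ⁻¹‖`, and the scales `κ` of 880's `RW`. -/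
theorem rd_of_blk {F : Set (Bx (Fin 3))} {u Cc κ2 κt : ℝ} {Bs Mm Nn : ℕ} (hBs : 1 ≤ Bs)
    {X : Set F} {A : F → E3 ≃ᵃ[ℝ] E3} {lam : F → ℝ} {Q : F → CB E3 3} {k0 : F → ℕ}
    {hk : ∀ c, (Q c).kc ≤ k0 c}
    (hb : ∀ c ∈ X, Blk F u Cc κ2 κt Bs Mm Nn c (A c) (lam c) (Q c) (k0 c) (hk c))
    (M : MD E3 3 ↥X) (hφ : M.φ = ContinuousLinearEquiv.refl ℝ E3) (hQ : ∀ j, M.Q j = Q j.1) :
    ∃ (Xr : RD M) (κ : X → ℕ),
      (∀ j, Xr.B j = Bs ∧ Xr.R j = Bs ∧ Xr.d j ≤ Nn ∧ (∀ i l, |Xr.A j i l| ≤ Nn) ∧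
        Xr.c j = max 1 ‖((M.Q j).ψ.symm : (Fin 3 → ℝ) →L[ℝ] E3)‖) ∧
      ∀ j m, ∃ z : ℤ, 2 ^ κ j * (Xr.d j : ℝ) * (M.Q j).a' m = z := by
  refine exists_rd M hφ hBs (fun j => ?_) (fun j => ?_) fun j => ?_
  · rw [hQ j]; exact (hb j.1 j.2).net
  · rw [hQ j]; exact (hb j.1 j.2).hB
  · rw [hQ j]; exact (hb j.1 j.2).hR

/-- the scale `κ` and grid offsets give 880's `RW` -/
theorem rw_of {J : Type*} {M : MD E3 3 J} (hφ : M.φ = ContinuousLinearEquiv.refl ℝ E3)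
    (Xr : RD M) {κ k : J → ℕ} {W : J → Set E3}
    (h0 : ∀ j m, ∃ z : ℤ, 2 ^ κ j * (Xr.d j : ℝ) * (M.Q j).a' m = z) (hk : ∀ j, κ j ≤ k j)
    (hW : ∀ j, ∀ w ∈ W j, ∀ l, ∃ z : ℤ, 2 ^ k j * w l = z) : Nonempty (Mfa_880.RW Xr k W) := by
  refine ⟨{ κ := k, hκ := fun _ => le_rfl, h0 := fun j m => ?_, hW := fun j w hw l => ?_ }⟩
  · obtain ⟨z, hz⟩ := h0 j m
    refine ⟨2 ^ (k j - κ j) * z, ?_⟩
    push_cast
    rw [← hz, ← mul_assoc, ← mul_assoc, ← pow_add, Nat.sub_add_cancel (hk j)]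
  · obtain ⟨z, hz⟩ := hW j w hw l
    refine ⟨z, ?_⟩
    rw [hφ]
    exact hz

end

end Crest.Agent.R096.Erat_647
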