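/-
helper922, row 96, EDG-RAT part 1: if every inequality of every tile of a tiling is rational relative to
the shift `a`, all vertices lie in `a + ℚ^n` and all 1-cells belong to one countable family of shifted
segments.
-/
import Mathlib
import Crest.Agent.R096.Msh2_715
import Crest.Agent.R096.Ls4_222

set_option autoImplicit false
set_option linter.unusedSectionVars false

open Set

namespace Crest.Agent.R096.Erp_922

open Crest.Agent.R096.Msh_715 Crest.Agent.R096.Ls_222
open Crest.Agent.R96.Sg1_199 (sgm)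

noncomputable section

/-! ### linear algebra over `ℚ` -/

/-- a real vector which is the unique solution of a rational linear system is rational -/
theorem rat_of_unique {n : ℕ} (S : Set ((Fin n → ℚ) × ℚ)) (x : Fin n → ℝ)
    (hx : ∀ p ∈ S, ∑ l, (p.1 l : ℝ) * x l = p.2)
    (hu : ∀ v : Fin n → ℝ, (∀ p ∈ S, ∑ l, (p.1 l : ℝ) * v l = 0) → v = 0) :
    ∃ q : Fin n → ℚ, ∀ l, x l = q l := by
  classical
  -- the rational span of the normals
  set W : Submodule ℚ (Fin n → ℚ) := Submodule.span ℚ (Prod.fst '' S) with hW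
  have hWtop : W = ⊤ := by
    by_contra hne
    obtain ⟨f, hf0, hf⟩ := Submodule.exists_le_ker_of_lt_top W (lt_top_iff_ne_top.2 hne)
    apply hf0
    -- the vector of `f`
    have hrep : ∀ w : Fin n → ℚ, f w = ∑ l, w l * f (Pi.single l 1) := by
      intro w
      conv_lhs => rw [← (Pi.basisFun ℚ (Fin n)).sum_repr w]
      simp [map_sum, Pi.basisFun_apply]
    have hv := hu (fun l => ((f (Pi.single l 1) : ℚ) : ℝ)) (by
      intro p hp
      have h1 : f p.1 = 0 := by
        have : p.1 ∈ LinearMap.ker f := hf (Submodule.subset_span ⟨p, hp, rfl⟩)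
        simpa using this
      rw [hrep] at h1
      exact_mod_cast h1)
    apply LinearMap.pi_ext'
    intro l
    ext
    have := congrFun hv l
    simpa using this
  -- every coordinate functional is a rational combination of the normals
  have key : ∀ w ∈ W, ∃ t : ℚ, ∑ l, (w l : ℝ) * x l = t := by
    intro w hw
    induction hw using Submodule.span_induction with
    | mem w hw =>
      obtain ⟨p, hp, rfl⟩ := hw
      exact ⟨p.2, hx p hp⟩
    | zero => exact ⟨0, by simp⟩
    | add u v _ _ hu hv =>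
      obtain ⟨s, hs⟩ := hu
      obtain ⟨t, ht⟩ := hv
      refine ⟨s + t, ?_⟩
      push_cast
      rw [← hs, ← ht, ← Finset.sum_add_distrib]
      refine Finset.sum_congr rfl fun l _ => ?_
      simp only [Pi.add_apply, Rat.cast_add]
      ring
    | smul c v _ hv =>
      obtain ⟨t, ht⟩ := hv
      refine ⟨c * t, ?_⟩
      push_cast
      rw [← ht, Finset.mul_sum]
      refine Finset.sum_congr rfl fun l _ => ?_
      simp only [Pi.smul_apply, smul_eq_mul, Rat.cast_mul]
      ring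
  choose t ht using fun l : Fin n => key (Pi.single l 1) (by rw [hWtop]; trivial)
  refine ⟨t, fun l => ?_⟩
  rw [← ht l]
  rw [Finset.sum_eq_single l]
  · simp
  · intro b _ hb
    simp [Pi.single_eq_of_ne hb]
  · simp

variable {E : Type*} [NormedAddCommGroup E] [NormedSpace ℝ E] {n : ℕ}

/-- the inequality `h` is rational relative to the shift `a`, in the frame `φ` -/
def RatH (φ : E ≃L[ℝ] (Fin n → ℝ)) (a : Fin n → ℝ) (h : (E →L[ℝ] ℝ) × ℝ) : Prop :=
  ∃ (c : ℝ) (ν : Fin n → ℚ) (t : ℚ), (∀ y, h.1 y = c * ∑ l, (ν l : ℝ) * φ y l) ∧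
    h.2 = c * (∑ l, (ν l : ℝ) * a l + t)

/-- the equation of a rational inequality -/
theorem RatH.eqn {φ : E ≃L[ℝ] (Fin n → ℝ)} {a : Fin n → ℝ} {h : (E →L[ℝ] ℝ) × ℝ}
    (hR : RatH φ a h) : ∃ (ν : Fin n → ℚ) (t : ℚ),
      (∀ y, h.1 y = h.2 → ∑ l, (ν l : ℝ) * (φ y l - a l) = t) ∧
      ∀ v, ∑ l, (ν l : ℝ) * φ v l = 0 → h.1 v = 0 := by
  obtain ⟨c, ν, t, h1, h2⟩ := hR
  by_cases hc : c = 0
  · refine ⟨0, 0, fun y _ => by simp, fun v _ => by rw [h1, hc, zero_mul]⟩
  · refine ⟨ν, t, fun y hy => ?_, fun v hv => by rw [h1, hv, mul_zero]⟩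
    rw [h1, h2] at hy
    have h3 := mul_left_cancel₀ hc hy
    simp only [mul_sub, Finset.sum_sub_distrib]
    linarith

variable {Om : Set E} {ι : Type*}

/-- **the vertices are rational relative to `a`** -/
theorem rat_vertex [FiniteDimensional ℝ E] (T : Tiling Om ι) (φ : E ≃L[ℝ] (Fin n → ℝ))
    (a : Fin n → ℝ) {x : E} (hR : ∀ i ∈ T.at_ x, ∀ h ∈ T.H i, h.1 x = h.2 → RatH φ a h)
    (hd : T.dim x = 0) : ∃ q : Fin n → ℚ, ∀ l, φ x l = a l + q l := by
  classical
  have hV := T.dim_eq_zero_iff.1 hd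
  let A : Type _ := {p : ι × ((E →L[ℝ] ℝ) × ℝ) // p.1 ∈ T.at_ x ∧ p.2 ∈ T.H p.1 ∧ p.2.1 x = p.2.2}
  have hA : ∀ p : A, RatH φ a p.1.2 := fun p => hR p.1.1 p.2.1 p.1.2 p.2.2.1 p.2.2.2
  choose ν t h1 h2 using fun p : A => (hA p).eqn
  obtain ⟨q, hq⟩ := rat_of_unique (range fun p : A => (ν p, t p)) (fun l => φ x l - a l)
    (by
      rintro _ ⟨p, rfl⟩
      exact h1 p x p.2.2.2)
    (by
      intro v hv
      have h3 : φ.symm v ∈ T.V x := by
        intro i hi h hh e
        have := h2 ⟨(i, h), hi, hh, e⟩ (φ.symm v) (by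
          have := hv _ ⟨⟨(i, h), hi, hh, e⟩, rfl⟩
          simpa using this)
        exact this
      rw [hV, Submodule.mem_bot] at h3
      have := congrArg φ h3
      simpa using this)
  exact ⟨q, fun l => by linarith [hq l]⟩

/-- a rational vector as a vector of `E` -/
def rv (φ : E ≃L[ℝ] (Fin n → ℝ)) (q : Fin n → ℚ) : E := φ.symm fun l => (q l : ℝ)

theorem rat_vertex' [FiniteDimensional ℝ E] (T : Tiling Om ι) (φ : E ≃L[ℝ] (Fin n → ℝ))
    (a : Fin n → ℝ) {x : E} (hR : ∀ i ∈ T.at_ x, ∀ h ∈ T.H i, h.1 x = h.2 → RatH φ a h)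
    (hd : T.dim x = 0) : ∃ q : Fin n → ℚ, x = rv φ q + φ.symm a := by
  obtain ⟨q, hq⟩ := rat_vertex T φ a hR hd
  refine ⟨q, ?_⟩
  apply φ.injective
  rw [rv, map_add, φ.apply_symm_apply, φ.apply_symm_apply]
  funext l
  rw [Pi.add_apply, hq l]
  ring

/-- **every 1-cell belongs to the countable family of segments with rational ends relative to `a`** -/
theorem edg_rat [FiniteDimensional ℝ E] (T : Tiling Om ι) (φ : E ≃L[ℝ] (Fin n → ℝ))
    (a : Fin n → ℝ) (hR : ∀ i, ∀ h ∈ T.H i, RatH φ a h) (e : Edg T) :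
    ∃ p q : Fin n → ℚ, q ≠ 0 ∧ ea e = rv φ p + φ.symm a ∧ ev e = rv φ q := by
  obtain ⟨p, hp⟩ := rat_vertex' T φ a (fun i _ h hh _ => hR i h hh) (dim_ea e)
  obtain ⟨p', hp'⟩ := rat_vertex' T φ a (fun i _ h hh _ => hR i h hh) (dim_eb e)
  have hev : ev e = rv φ (p' - p) := by
    have : ev e = (ea e + ev e) - ea e := by abel
    rw [this, hp', hp]
    apply φ.injective
    simp only [rv, map_sub, map_add, φ.apply_symm_apply]
    funext l
    simp
  refine ⟨p, p' - p, ?_, hp, hev⟩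
  intro h0
  apply ev_ne e
  rw [hev, h0]
  simp [rv]
  rfl

end

end Crest.Agent.R096.Erp_922
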