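/-
helper922, row 96, EDG-RAT part 2: the inequalities of the aligned mesh (874 `MD.mesh`) are rational
relative to the shift `a`; hence all its 1-cells belong to one countable family of shifted segments.
-/
import Crest.Agent.R096.Erp1_922
import Crest.Agent.R096.Mal15_874

set_option autoImplicit false
set_option linter.unusedSectionVars false

open Set

namespace Crest.Agent.R096.Erp_922

open Crest.Agent.R096.Msh_715 Crest.Agent.R096.Ls_222 Crest.Agent.R096.Mal_874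
open Crest.Agent.R096.Cut_874 Crest.Agent.R096.Msh_810
open Crest.Agent.R96.Sg1_199 (sgm)

noncomputable section

variable {E : Type*} [NormedAddCommGroup E] [NormedSpace ℝ E] {n : ℕ}

theorem RatH.opp {φ : E ≃L[ℝ] (Fin n → ℝ)} {a : Fin n → ℝ} {h : (E →L[ℝ] ℝ) × ℝ}
    (hR : RatH φ a h) : RatH φ a (opp h) := by
  obtain ⟨c, ν, t, h1, h2⟩ := hR
  refine ⟨-c, ν, t, fun y => ?_, ?_⟩
  · show (-h.1) y = _
    rw [neg_apply, h1]
    ring
  · show -h.2 = _
    rw [h2]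
    ring

theorem ratH_co (φ : E ≃L[ℝ] (Fin n → ℝ)) (a : Fin n → ℝ) (m : Fin n) (q : ℚ) :
    RatH φ a (co φ m, a m + q) := by
  classical
  refine ⟨1, Pi.single m 1, q, fun y => ?_, ?_⟩
  · rw [Finset.sum_eq_single m]
    · simp
    · intro b _ hb
      simp [Pi.single_eq_of_ne hb]
    · simp
  · rw [Finset.sum_eq_single m]
    · simp
    · intro b _ hb
      simp [Pi.single_eq_of_ne hb]
    · simp

/-- change of the frame -/
theorem RatH.trans {φ ψ : E ≃L[ℝ] (Fin n → ℝ)} {A : Fin n → Fin n → ℤ} {d : ℕ} (hd : 0 < d)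
    (hA : Rt φ ψ A d) {a a0 : Fin n → ℝ} {v : E} (h0 : ∀ m, ∃ q : ℚ, a0 m = q)
    (hv : ∀ l, ∃ q : ℚ, φ v l - a l = q) {h : (E →L[ℝ] ℝ) × ℝ} (hR : RatH ψ (a0 + ψ v) h) :
    RatH φ a h := by
  obtain ⟨c, ν, t, h1, h2⟩ := hR
  choose q hq using h0
  choose s hs using hv
  have hd' : (d : ℝ) ≠ 0 := by exact_mod_cast hd.ne'
  have hψ : ∀ y m, ψ y m = ∑ l, ((A m l : ℝ) / d) * φ y l := by
    intro y m
    have h1 := hA y m
    have e : ∑ l, (A m l : ℝ) / d * φ y l = (∑ l, (A m l : ℝ) * φ y l) / d := by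
      rw [Finset.sum_div]
      exact Finset.sum_congr rfl fun l _ => by ring
    rw [e, ← h1]
    field_simp
  -- the new vector
  let μ : Fin n → ℚ := fun l => ∑ m, ν m * (A m l / d)
  have hμ : ∀ w : Fin n → ℝ, ∑ l, (μ l : ℝ) * w l = ∑ m, (ν m : ℝ) * ∑ l, ((A m l : ℝ) / d) * w l := by
    intro w
    simp only [μ, Rat.cast_sum, Rat.cast_mul, Rat.cast_div, Rat.cast_intCast, Rat.cast_natCast,
      Finset.sum_mul, Finset.mul_sum]
    rw [Finset.sum_comm]
    refine Finset.sum_congr rfl fun m _ => Finset.sum_congr rfl fun l _ => by ring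
  refine ⟨c, μ, ∑ l, μ l * s l + ∑ m, ν m * q m + t, fun y => ?_, ?_⟩
  · rw [h1, hμ]
    congr 1
    exact Finset.sum_congr rfl fun m _ => by rw [hψ]
  · rw [h2]
    congr 1
    push_cast
    have e1 : ∑ l, (μ l : ℝ) * (s l : ℝ) = ∑ l, (μ l : ℝ) * φ v l - ∑ l, (μ l : ℝ) * a l := by
      rw [← Finset.sum_sub_distrib]
      refine Finset.sum_congr rfl fun l _ => ?_
      rw [← hs l]
      ring
    have e2 : ∑ l, (μ l : ℝ) * φ v l = ∑ m, (ν m : ℝ) * ψ v m := by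
      rw [hμ]
      exact Finset.sum_congr rfl fun m _ => by rw [hψ]
    have e3 : ∑ l, (ν l : ℝ) * (a0 + ψ v) l = ∑ m, (ν m : ℝ) * (q m : ℝ) + ∑ m, (ν m : ℝ) * ψ v m := by
      rw [← Finset.sum_add_distrib]
      refine Finset.sum_congr rfl fun m _ => ?_
      rw [Pi.add_apply, hq m]
      ring
    rw [e1, e2, e3]
    ring

/-- the inequalities of the graded cubes -/
theorem ratH_hc (φ : E ≃L[ℝ] (Fin n → ℝ)) (a : Fin n → ℝ) (k : ℕ) (z : Fin n → ℤ) :
    ∀ h ∈ Hc φ a k z, RatH φ a h := by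
  rw [forall_Hc]
  intro i
  constructor
  · have h1 := ratH_co φ a i (((z i : ℚ) + 1) / 2 ^ k)
    push_cast at h1
    exact h1
  · have h1 := (ratH_co φ a i ((z i : ℚ) / 2 ^ k)).opp
    push_cast at h1
    exact h1

/-- integer inequalities -/
theorem ratH_iq (ψ : E ≃L[ℝ] (Fin n → ℝ)) (a' : Fin n → ℝ) (k : ℕ) (p : (Fin n → ℤ) × ℤ) :
    RatH ψ a' (iq ψ a' k p) := by
  refine ⟨1, fun l => p.1 l, p.2 / 2 ^ k, fun y => ?_, ?_⟩
  · show (∑ m, (p.1 m : ℝ) • co ψ m) y = _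
    rw [sum_apply]
    simp
  · show dt (Mal_874.rv p.1) a' + p.2 / 2 ^ k = _
    unfold dt Mal_874.rv
    push_cast
    ring

section mesh

variable {J : Type*} {M : MD E n J} [NeZero n] {k : J → ℕ} (hk : M.Sc k) (a : Fin n → ℝ)
  {v : J → E} (hv : M.Adm v)

/-- **the inequalities of the aligned mesh are rational relative to `a`** -/
theorem ratH_mesh (X : RD M) (h0 : ∀ j m, ∃ q : ℚ, (M.Q j).a' m = q)
    (hq : ∀ j l, ∃ q : ℚ, M.φ (v j) l - a l = q) :
    ∀ t, ∀ h ∈ (M.mesh hk a hv).H t, RatH M.φ a h := by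
  -- everything in the frame of a block
  have hb : ∀ j, ∀ h : (E →L[ℝ] ℝ) × ℝ, RatH (M.Q j).ψ ((M.Q j).a' + (M.Q j).ψ (v j)) h →
      RatH M.φ a h := fun j h hh => hh.trans (X.dpos j) (X.rat j) (h0 j) (hq j)
  rintro (p | ⟨j, i⟩) h hh
  · -- outer pieces
    have h1 : h ∈ cutH ((M.ad hk a hv).T0.H p.1.1.1) (AF (M.ad hk a hv).T0 (M.ad hk a hv).ψ
      (M.ad hk a hv).a' (M.ad hk a hv).κ (M.ad hk a hv).Z p.1.1.1) p.1.1.2 := hh
    have hA : ∀ g ∈ AF (M.ad hk a hv).T0 (M.ad hk a hv).ψ (M.ad hk a hv).a' (M.ad hk a hv).κ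
        (M.ad hk a hv).Z p.1.1.1, RatH M.φ a g := by
      intro g hg
      obtain ⟨j, -, m, t, rfl, -⟩ := of_mem_AF hg
      apply hb j
      have h2 := ratH_co (M.Q j).ψ ((M.Q j).a' + (M.Q j).ψ (v j)) m ((t : ℚ) / 2 ^ (M.Q j).kc)
      push_cast at h2
      exact h2
    rcases mem_cutH.1 h1 with h2 | h2 | ⟨g, hg, -, rfl⟩
    · exact ratH_hc M.φ a _ _ h h2
    · exact hA h (p.1.2.1 h2)
    · exact (hA g hg).opp
  · -- inner tiles
    apply hb j
    obtain ⟨i, hi⟩ := i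
    have h1 : h ∈ ((M.Bk v j).T (k j) (hk.kc j)).H i := hh
    rcases i with i | i
    · rw [CB.T_inl] at h1
      exact ratH_hc _ _ _ _ h h1
    · rw [CB.T_inr] at h1
      classical
      unfold iH at h1
      rw [Finset.mem_image] at h1
      obtain ⟨p, -, rfl⟩ := h1
      exact ratH_iq _ _ _ p

/-- the same, from the positions `RP` -/
theorem ratH_mesh' (X : RD M) (Y : RP X a v k) :
    ∀ t, ∀ h ∈ (M.mesh hk a hv).H t, RatH M.φ a h := by
  refine ratH_mesh hk a hv X (fun j m => ?_) (fun j l => ?_)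
  · obtain ⟨c, hc⟩ := Y.h0 j m
    refine ⟨c / (2 ^ Y.κ j * X.d j), ?_⟩
    have hd : (X.d j : ℝ) ≠ 0 := by exact_mod_cast (X.dpos j).ne'
    push_cast
    rw [← hc]
    field_simp
  · obtain ⟨z, hz⟩ := Y.hv j l
    refine ⟨z / 2 ^ Y.κ j, ?_⟩
    push_cast
    rw [← hz]
    field_simp

variable [FiniteDimensional ℝ E]

/-- **(E1): all 1-cells of the aligned mesh belong to one countable family of shifted segments** -/
theorem edg_mesh (X : RD M) (Y : RP X a v k) (e : Edg (M.mesh hk a hv)) :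
    ∃ p q : Fin n → ℚ, q ≠ 0 ∧ ea e = rv M.φ p + M.φ.symm a ∧ ev e = rv M.φ q :=
  edg_rat _ M.φ a (ratH_mesh' hk a hv X Y) e

end mesh

end

end Crest.Agent.R096.Erp_922
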