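import Crest.Agent.R096.Ls4_222

/-!
Row 96 (S0127), helper479.  NO0-PRE3, leaf [B3] of 962 #11186: **errors on the edges** of a tiling.
-/

set_option autoImplicit false
set_option linter.unusedSectionVars false

open MeasureTheory Set Filter
open scoped Topology ENNReal NNReal

namespace Crest.Agent.R096.Err_479

open Crest.Agent.R096.Msh_715 Crest.Agent.R096.Ls_222

variable {E : Type*} [NormedAddCommGroup E] [NormedSpace ℝ E] [FiniteDimensional ℝ E]
  {Om : Set E} {ι : Type*}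

theorem countable_ix (T : Tiling Om ι) : Countable ι := by
  have h1 : (univ : Set ι).Countable := by
    refine Set.PairwiseDisjoint.countable_of_isOpen (s := fun i => I (T.H i)) (a := univ) ?_
      (fun i _ => isOpen_I _) (fun i _ => T.ne i)
    intro i _ j _ hij
    exact T.dis i j hij
  exact countable_univ_iff.1 h1

/-- a small number for one tile -/
theorem exists_small {p : ℝ} (hp : 1 ≤ p) {u δ : ℝ≥0∞} (hu : u ≠ ∞) (hδ : 0 < δ) (n : ℕ) :
    ∃ t : ℝ≥0∞, 0 < t ∧ t ≠ ∞ ∧ ∀ x : ℝ≥0∞, x ≤ n * t → u * x ^ p ≤ δ := by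
  have hu1 : u + 1 ≠ ∞ := by simp [hu]
  have hu0 : u + 1 ≠ 0 := by simp
  have hn1 : (n : ℝ≥0∞) + 1 ≠ ∞ := by simp
  have hn0 : (n : ℝ≥0∞) + 1 ≠ 0 := by simp
  set s : ℝ≥0∞ := min 1 (δ / (u + 1)) with hs
  have hs0 : 0 < s := lt_min one_pos (ENNReal.div_pos hδ.ne' hu1)
  have hs1 : s ≤ 1 := min_le_left _ _
  have hsT : s ≠ ∞ := ne_top_of_le_ne_top ENNReal.one_ne_top hs1
  refine ⟨s / (n + 1), ENNReal.div_pos hs0.ne' hn1, ENNReal.div_ne_top hsT hn0, ?_⟩
  intro x hx
  have hxs : x ≤ s := by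
    refine hx.trans ?_
    calc (n : ℝ≥0∞) * (s / (n + 1)) ≤ (n + 1) * (s / (n + 1)) := by
          gcongr; exact le_self_add
      _ ≤ s := ENNReal.mul_div_le
  have hx1 : x ≤ 1 := hxs.trans hs1
  have h1 : x ^ p ≤ x := by
    calc x ^ p ≤ x ^ (1 : ℝ) := ENNReal.rpow_le_rpow_of_exponent_ge hx1 hp
      _ = x := ENNReal.rpow_one x
  calc u * x ^ p ≤ (u + 1) * (δ / (u + 1)) := by
        refine mul_le_mul' le_self_add ?_
        exact h1.trans (hxs.trans (min_le_right _ _))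
    _ ≤ δ := ENNReal.mul_div_le

/-- **[B3] ERRORS** (962 #11186): errors of the edges, below a given bound, whose contribution to a
weighted sum of `p`-th powers over the tiles is as small as we like -/
theorem exists_err (T : Tiling Om ι) (A : Set ι) {p : ℝ} (hp : 1 ≤ p) {u : ι → ℝ≥0∞}
    (hu : ∀ i, u i ≠ ∞) {δ : ℝ≥0∞} (hδ : δ ≠ 0) {b : Edg T → ℝ≥0∞} (hb : ∀ e, b e ≠ 0) :
    ∃ err : Edg T → ℝ≥0∞, (∀ e, err e ≠ 0) ∧ (∀ e, err e ≤ b e) ∧ (∀ e, err e ≠ ∞) ∧
      ∑' i : A, u i * (∑ e ∈ eIn T i, err e) ^ p ≤ δ := by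
  classical
  have hι : Countable ι := countable_ix T
  obtain ⟨d, hd0, hd⟩ := ENNReal.exists_pos_sum_of_countable' hδ ι
  choose t ht0 htT ht using fun i => exists_small hp (hu i) (hd0 i) (eIn T i).card
  let err : Edg T → ℝ≥0∞ := fun e =>
    min (b e) (min 1 ((finite_tiles_edg e).toFinset.inf t))
  have herr : ∀ i, ∀ e ∈ eIn T i, err e ≤ t i := by
    intro i e he
    refine (min_le_right _ _).trans ((min_le_right _ _).trans ?_)
    exact Finset.inf_le (by simpa using he)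
  refine ⟨err, fun e => ?_, fun e => min_le_left _ _, fun e => ?_, ?_⟩
  · have h1 : 0 < (finite_tiles_edg e).toFinset.inf t := by
      rw [Finset.lt_inf_iff ENNReal.zero_lt_top]
      exact fun i _ => ht0 i
    exact (lt_min (pos_iff_ne_zero.2 (hb e)) (lt_min one_pos h1)).ne'
  · exact ne_top_of_le_ne_top ENNReal.one_ne_top ((min_le_right _ _).trans (min_le_left _ _))
  · calc ∑' i : A, u i * (∑ e ∈ eIn T i, err e) ^ p ≤ ∑' i : A, d i := by
          refine ENNReal.tsum_le_tsum fun i => ht i _ ?_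
          calc ∑ e ∈ eIn T i, err e ≤ ∑ _e ∈ eIn T i, t i :=
                Finset.sum_le_sum fun e he => herr i e he
            _ = (eIn T i).card * t i := by rw [Finset.sum_const, nsmul_eq_mul]
      _ ≤ ∑' i, d i := ENNReal.tsum_comp_le_tsum_of_injective Subtype.val_injective d
      _ ≤ δ := hd.le

end Crest.Agent.R096.Err_479
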