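import Crest.Agent.R096.Main3_4
import Crest.Agent.R096.Cel3_715

/-!
# Row 96, DOORS, (E-S) of helper501 #10111 (helper95), part 1: the cochain of one curve

`exact_inside` : a cochain which is exact on every 2-cell near a compact set `S` with trivial
torsors has one potential on all tiles inside `S`.
`curve_eq` : the abstract equality `lbl v₀ + lbl v₁ = Ψ d + Ψ root`.
-/

set_option autoImplicit false

open Set Topology Filter Metric Module
open scoped Classical

namespace Crest.Agent.R096.Ess1_95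

open Crest.Agent.R096.Msh_715 Crest.Agent.R096.Coh_184 Crest.Agent.R096.Lab_184
  Crest.Agent.R096.Main_4

variable {E : Type*} [NormedAddCommGroup E] [NormedSpace ℝ E] [FiniteDimensional ℝ E]
variable {Om : Set E} {ι : Type*} {T : Tiling Om ι}

/-- **potentials on all tiles inside a compact set with trivial torsors** (no condition at the
frontier) -/
theorem exact_inside {A : Type*} [AddCommGroup A] (h3 : finrank ℝ E = 3) {S : Set E}
    (hS : IsCompact S) (hSO : S ⊆ Om) (ht : TrivF A S) {κ : E → E → E → A}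
    (h2 : ∀ q, (P (T.H q) ∩ S).Nonempty → ∀ x ∈ P (T.H q), T.dim x = 2 →
      ∃ ψ : E → A, T.Exact κ ψ (T.cc x)) :
    ∃ ψ : E → A, ∀ q, P (T.H q) ⊆ S → T.Exact κ ψ (P (T.H q)) := by
  classical
  have hloc : ∀ q, ∃ ψ : E → A, (P (T.H q) ∩ S).Nonempty → T.Exact κ ψ (P (T.H q)) := by
    intro q
    by_cases hq : (P (T.H q) ∩ S).Nonempty
    · obtain ⟨ψ, hψ⟩ := T.exact_tile h3 q (h2 q hq)
      exact ⟨ψ, fun _ => hψ⟩
    · exact ⟨fun _ => 0, fun h => (hq h).elim⟩
  choose ψ hψ using hloc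
  have hvert : ∀ x ∈ Om, ∃ v ∈ T.cc x, T.dim v = 0 := fun x hx => T.exists_vertex hx
  choose! g hg hg0 using hvert
  have hgv : ∀ v ∈ Om, T.dim v = 0 → g v = v := by
    intro v hv hv0
    have h1 := hg v hv
    rw [T.cc_eq_singleton (T.dim_eq_zero_iff.1 hv0), mem_singleton_iff] at h1
    exact h1
  have hfin := T.finite_tiles hS hSO
  have : Finite {q // (P (T.H q) ∩ S).Nonempty} := hfin
  have hcoc : Coc (fun q : {q // (P (T.H q) ∩ S).Nonempty} => P (T.H q.1))
      (fun i j x => ψ i.1 (g x) - ψ j.1 (g x)) S := by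
    refine ⟨fun q => isClosed_P _, ?_, fun i j => ?_, fun i j k x _ _ _ _ => by abel⟩
    · intro x hx
      obtain ⟨q, hq⟩ := T.cov x (hSO hx)
      exact mem_iUnion.2 ⟨⟨q, x, hq, hx⟩, hq⟩
    · rintro x ⟨⟨hxi, hxj⟩, hxS⟩
      have hxO := T.sub i.1 hxi
      have h1 : ∀ᶠ y in 𝓝[P (T.H i.1) ∩ P (T.H j.1) ∩ S] x, y ∈ Om ∧ x ∈ T.cc y :=
        (T.eventually_mem_cc hxO).filter_mono nhdsWithin_le_nhds
      filter_upwards [h1, self_mem_nhdsWithin] with y hy hyC
      have h2 : T.EdgeConst (fun v => ψ i.1 v - ψ j.1 v) (T.cc y) :=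
        Tiling.Exact.edgeConst T ((hψ i.1 i.2).mono T (T.cc_sub_tile hyC.1.1))
          ((hψ j.1 j.2).mono T (T.cc_sub_tile hyC.1.2))
      exact T.const_cell hy.1 h2 (g y) (hg y hy.1) (g x) (T.cc_sub_of_mem hy.2 (hg x hxO))
        (hg0 y hy.1) (hg0 x hxO)
  obtain ⟨χ, hχ, hχd⟩ := (ht.all {q // (P (T.H q) ∩ S).Nonempty}) _ _ hcoc
  let Ψ : E → A := fun v => if h : (∃ q : {q // (P (T.H q) ∩ S).Nonempty}, v ∈ P (T.H q.1)) ∧
    v ∈ S ∧ T.dim v = 0 then ψ h.1.choose.1 v - χ h.1.choose v else 0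
  have hΨ : ∀ (q : {q // (P (T.H q) ∩ S).Nonempty}) (v : E), v ∈ P (T.H q.1) → v ∈ S →
      T.dim v = 0 → Ψ v = ψ q.1 v - χ q v := by
    intro q v hq hv hv0
    have h : (∃ q : {q // (P (T.H q) ∩ S).Nonempty}, v ∈ P (T.H q.1)) ∧ v ∈ S ∧ T.dim v = 0 :=
      ⟨⟨q, hq⟩, hv, hv0⟩
    have e1 : Ψ v = ψ h.1.choose.1 v - χ h.1.choose v := dif_pos h
    have h1 : χ h.1.choose v - χ q v = ψ h.1.choose.1 (g v) - ψ q.1 (g v) :=
      hχd h.1.choose q v h.1.choose_spec hq hv
    rw [hgv v (hSO hv) hv0] at h1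
    rw [e1]
    rw [sub_eq_sub_iff_add_eq_add] at h1 ⊢
    rw [add_comm (ψ q.1 v)]; exact h1.symm
  refine ⟨Ψ, fun q hqS e he he1 a b hab => ?_⟩
  have heO := T.sub q he
  obtain ⟨ha0, hb0, hae, hbe, -⟩ := T.dim_ends heO he1 hab
  have haq := T.cc_sub_tile (i := q) he hae
  have hbq := T.cc_sub_tile (i := q) he hbe
  have hne : (P (T.H q) ∩ S).Nonempty := ⟨a, haq, hqS haq⟩
  rw [hΨ ⟨q, hne⟩ a haq (hqS haq) ha0, hΨ ⟨q, hne⟩ b hbq (hqS hbq) hb0,
    ← hψ q hne e he he1 a b hab]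
  have hχab : χ ⟨q, hne⟩ a = χ ⟨q, hne⟩ b := by
    have hsub : P (T.H q) ⊆ P (T.H q) ∩ S := fun y hy => ⟨hy, hqS hy⟩
    exact ((hχ ⟨q, hne⟩).mono hsub).eq_of_preconnected (convex_P _).isPreconnected haq hbq
  rw [hχab]; abel

/-! ### cells and a closed set whose frontier is a subcomplex -/

/-- `K` is closed and its frontier is a union of closed cells -/
structure SubK (T : Tiling Om ι) (K : Set E) : Prop where
  cl : IsClosed K
  fr : ∀ x ∈ frontier K, T.cc x ⊆ frontier K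

namespace SubK

variable {K : Set E} (hK : SubK T K)
include hK

omit [FiniteDimensional ℝ E] in
/-- a closed cell which meets the interior of `K` lies in `K` (its open cell in the interior) -/
theorem sub_of_meet {x : E} (hx : x ∈ Om) (h : (T.cc x ∩ interior K).Nonempty) :
    T.oc x ⊆ interior K ∧ T.cc x ⊆ K := by
  obtain ⟨y, hy, hyK⟩ := h
  have h1 : (T.oc x ∩ interior K).Nonempty := by
    rw [← T.closure_oc x] at hy
    obtain ⟨z, hz1, hz2⟩ := mem_closure_iff.1 hy _ isOpen_interior hyK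
    exact ⟨z, hz2, hz1⟩
  have h2 : T.oc x ∩ frontier K = ∅ := by
    rw [eq_empty_iff_forall_notMem]
    rintro z ⟨hz1, hz2⟩
    have h3 := hK.fr z hz2
    rw [T.cc_eq_of_mem_oc hx hz1] at h3
    have h4 := h3 hy
    rw [hK.cl.frontier_eq] at h4
    exact h4.2 hyK
  have h3 : T.oc x ⊆ interior K := by
    have hcov : T.oc x ⊆ interior K ∪ Kᶜ := by
      intro z hz
      by_cases hzK : z ∈ K
      · left
        by_contra hzi
        have : z ∈ T.oc x ∩ frontier K := ⟨hz, by rw [hK.cl.frontier_eq]; exact ⟨hzK, hzi⟩⟩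
        rw [h2] at this; exact this
      · right; exact hzK
    exact (T.convex_oc x).isPreconnected.subset_left_of_subset_union isOpen_interior
      hK.cl.isOpen_compl (disjoint_compl_right.mono_left interior_subset) hcov h1
  refine ⟨h3, ?_⟩
  rw [← T.closure_oc x]
  exact closure_minimal (h3.trans interior_subset) hK.cl

omit [FiniteDimensional ℝ E] in
/-- the three kinds of cells -/
theorem meet_iff {x : E} (hx : x ∈ Om) :
    (T.cc x ∩ interior K).Nonempty ↔ T.cc x ⊆ K ∧ ¬ T.cc x ⊆ frontier K := by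
  constructor
  · intro h
    refine ⟨(hK.sub_of_meet hx h).2, fun h1 => ?_⟩
    obtain ⟨y, hy, hyK⟩ := h
    have h2 := h1 hy
    rw [hK.cl.frontier_eq] at h2
    exact h2.2 hyK
  · rintro ⟨h1, h2⟩
    obtain ⟨y, hy, hyf⟩ := not_subset.1 h2
    refine ⟨y, hy, ?_⟩
    by_contra h3
    exact hyf (by rw [hK.cl.frontier_eq]; exact ⟨h1 hy, h3⟩)

end SubK

/-- an inner cell of `K` -/
def Inn (T : Tiling Om ι) (K : Set E) (x : E) : Prop := (T.cc x ∩ interior K).Nonempty

omit [FiniteDimensional ℝ E] in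
theorem Inn.mono {K : Set E} {x y : E} (h : Inn T K y) (hy : y ∈ T.cc x) : Inn T K x := by
  obtain ⟨z, hz, hzK⟩ := h
  exact ⟨z, T.cc_sub_of_mem hy hz, hzK⟩

/-! ### the cochain of one curve -/

/-- points of `Q` on the cell of `e`, weighted by `Ψ`, and on the inner cells of `K` the coboundary
of `lbl` -/
noncomputable def kapE (T : Tiling Om ι) (K : Set E) (Q : Finset E) (Ψ lbl : E → ZMod 2) :
    E → E → E → ZMod 2 :=
  fun e a b => (∑ w ∈ Q.filter (· ∈ T.cc e), Ψ w) + if Inn T K e then lbl a + lbl b else 0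

omit [NormedAddCommGroup E] [NormedSpace ℝ E] [FiniteDimensional ℝ E] in
/-- a weight on the points as an even pattern -/
theorem ncard_weight {Q : Finset E} {g : E → ZMod 2} {C : Set E} :
    ((((Q.filter (fun w => g w = 1) : Finset E) : Set E) ∩ C).ncard : ZMod 2) =
      ∑ w ∈ Q.filter (· ∈ C), g w := by
  have h1 : (((Q.filter (fun w => g w = 1) : Finset E) : Set E) ∩ C) =
      (((Q.filter (· ∈ C)).filter (fun w => g w = 1) : Finset E) : Set E) := by
    ext u
    simp only [Finset.coe_filter, Finset.mem_filter, mem_inter_iff, mem_ofPred_eq]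
    tauto
  rw [h1, Set.ncard_coe_finset, Finset.card_eq_sum_ones, Nat.cast_sum, Finset.sum_filter]
  refine Finset.sum_congr rfl fun w _ => ?_
  have : ∀ a : ZMod 2, (if a = 1 then ((1 : ℕ) : ZMod 2) else 0) = a := by decide
  exact this (g w)

/-- a weight with sum zero on a 2-cell has a potential there -/
theorem exact_weight {Q : Finset E} (hQ1 : ∀ w ∈ Q, T.dim w = 1) {g : E → ZMod 2} {x : E}
    (hx : x ∈ Om) (hd : T.dim x = 2) (h0 : ∑ w ∈ Q.filter (· ∈ T.cc x), g w = 0) :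
    ∃ lam : E → ZMod 2, ∀ e ∈ T.cc x, T.dim e = 1 → ∀ a b : E, T.cc e = segment ℝ a b →
      lam a + lam b = ∑ w ∈ Q.filter (· ∈ T.cc e), g w := by
  obtain ⟨lam, hlam⟩ := exact_cell2 (T := T) (Q := Q.filter (fun w => g w = 1))
    (fun w hw => hQ1 w (Finset.mem_filter.1 hw).1) hx hd (by
      rw [← ZMod.natCast_eq_zero_iff_even, ncard_weight]; exact h0)
  refine ⟨lam, fun e he h1 a b hab => ?_⟩
  rw [exact_kap_iff.1 hlam e he h1 a b hab, ncard_weight]

/-- **the cochain of one curve is exact on every 2-cell** -/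
theorem exact_kapE {K : Set E} (hK : SubK T K) {Q : Finset E} (hQ1 : ∀ w ∈ Q, T.dim w = 1)
    {Ψ γ lbl : E → ZMod 2} (hγ : ∀ w ∈ Q, w ∉ frontier K → γ w = 0) {x : E} (hx : x ∈ Om)
    (hd : T.dim x = 2)
    (hl : ∀ e ∈ T.cc x, T.dim e = 1 → T.cc e ⊆ frontier K → ∀ a b : E, T.cc e = segment ℝ a b →
      lbl a + lbl b = ∑ w ∈ Q.filter (· ∈ T.cc e), γ w)
    (ho : ¬ Inn T K x → ∑ w ∈ Q.filter (· ∈ T.cc x), Ψ w = 0)
    (hi : Inn T K x → ∑ w ∈ Q.filter (· ∈ T.cc x), (Ψ w + γ w) = 0) :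
    ∃ ψ : E → ZMod 2, T.Exact (kapE T K Q Ψ lbl) ψ (T.cc x) := by
  by_cases hinn : Inn T K x
  · obtain ⟨lam, hlam⟩ := exact_weight hQ1 hx hd (hi hinn)
    refine ⟨fun v => lam v + lbl v, fun e he h1 a b hab => ?_⟩
    have heO := T.cc_sub_Om hx he
    have e1 := hlam e he h1 a b hab
    rw [Finset.sum_add_distrib] at e1
    have hxK := (hK.sub_of_meet hx hinn).2
    have heK : T.cc e ⊆ K := (T.cc_sub_of_mem he).trans hxK
    rw [CharTwo.sub_eq_add]
    show lam a + lbl a + (lam b + lbl b) = _ + if Inn T K e then lbl a + lbl b else 0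
    by_cases hei : Inn T K e
    · rw [if_pos hei]
      -- no point of the curve on an inner edge
      have h4 : ∑ w ∈ Q.filter (· ∈ T.cc e), γ w = 0 := by
        refine Finset.sum_eq_zero fun w hw => ?_
        obtain ⟨hwQ, hwe⟩ := Finset.mem_filter.1 hw
        refine hγ w hwQ fun hwf => ?_
        have h5 : w ∈ T.oc e := Tiling.cl_eq_of_dim1 heO h1 hwe (hQ1 w hwQ)
        have h6 := (hK.sub_of_meet heO hei).1 h5
        rw [hK.cl.frontier_eq] at hwf
        exact hwf.2 h6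
      rw [h4, add_zero] at e1
      rw [← e1]; ring
    · rw [if_neg hei, add_zero]
      have hef : T.cc e ⊆ frontier K := by
        by_contra hcon
        exact hei ((hK.meet_iff heO).2 ⟨heK, hcon⟩)
      have e2 := hl e he h1 hef a b hab
      have e3 : ∀ p q r s t u : ZMod 2, p + q = t + u → r + s = u → p + r + (q + s) = t := by
        decide
      exact e3 _ _ _ _ _ _ e1 e2
  · obtain ⟨lam, hlam⟩ := exact_weight hQ1 hx hd (ho hinn)
    refine ⟨lam, fun e he h1 a b hab => ?_⟩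
    have hei : ¬ Inn T K e := fun h => hinn (h.mono he)
    rw [CharTwo.sub_eq_add]
    show lam a + lam b = _ + if Inn T K e then lbl a + lbl b else 0
    rw [if_neg hei, add_zero]
    exact hlam e he h1 a b hab

/-! ### paths -/

omit [FiniteDimensional ℝ E] in
theorem const_path {φ : E → ZMod 2} {W : Set ι}
    (h : ∀ i ∈ W, ∀ e ∈ P (T.H i), T.dim e = 1 → ∀ a b : E, T.cc e = segment ℝ a b → φ a = φ b)
    {v w : E} (hp : Relation.ReflTransGen (Edg T W) v w) : φ v = φ w := by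
  induction hp with
  | refl => rfl
  | tail _ hs ih =>
    obtain ⟨e, _, h2, h3, i, h4, h5⟩ := hs
    exact ih.trans (h i h4 e h5 h2 _ _ h3)

theorem const_VM {φ : E → ZMod 2} {L : Set E} (hL : IsPreconnected L) (hLO : L ⊆ Om)
    (h : ∀ i, (P (T.H i) ∩ L).Nonempty → ∀ e ∈ P (T.H i), T.dim e = 1 → ∀ a b : E,
      T.cc e = segment ℝ a b → φ a = φ b) {v w : E} (hv : v ∈ VM T L) (hw : w ∈ VM T L) :
    φ v = φ w :=
  const_path (W := {i | (P (T.H i) ∩ L).Nonempty}) (fun i hi => h i hi)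
    (edg_VM hL hLO hv hw)

/-- **THE ABSTRACT EQUALITY (E-S)**.
`S` compact with trivial torsors; `K` closed, frontier a subcomplex; `Q` the points of the sheet,
`lam` its label, `Ψ` the potential and `γ` the indicator of the curve, `lbl` the label of the curve
on the vertices of `frontier K`.
`L₀` / `L₁` : connected sets from deep inside to far outside on the low / high side, without points
of the sheet, where the label of the curve is `l₀` / `l₁`; `Dp` a connected set deep inside with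
`Ψ = a`, `Fp` a connected set outside with `Ψ = b`. -/
theorem curve_eq (h3 : finrank ℝ E = 3) {S : Set E} (hS : IsCompact S) (hSO : S ⊆ Om)
    (ht : TrivF (ZMod 2) S) {K : Set E} (hK : SubK T K) {Q : Finset E}
    (hQ1 : ∀ w ∈ Q, T.dim w = 1) {Ψ γ lbl lam : E → ZMod 2} (hlam : IsLab T Q lam)
    (hγ : ∀ w ∈ Q, w ∉ frontier K → γ w = 0) (hlbl : ∀ v, v ∉ frontier K → lbl v = 0)
    (hl : ∀ q, (P (T.H q) ∩ S).Nonempty → ∀ e ∈ P (T.H q), T.dim e = 1 → T.cc e ⊆ frontier K →
      ∀ a b : E, T.cc e = segment ℝ a b → lbl a + lbl b = ∑ w ∈ Q.filter (· ∈ T.cc e), γ w)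
    (ho : ∀ q, (P (T.H q) ∩ S).Nonempty → ∀ x ∈ P (T.H q), T.dim x = 2 → ¬ Inn T K x →
      ∑ w ∈ Q.filter (· ∈ T.cc x), Ψ w = 0)
    (hi : ∀ q, (P (T.H q) ∩ S).Nonempty → ∀ x ∈ P (T.H q), T.dim x = 2 → Inn T K x →
      ∑ w ∈ Q.filter (· ∈ T.cc x), (Ψ w + γ w) = 0)
    {L : Bool → Set E} {l : Bool → ZMod 2} (hL : ∀ c, IsPreconnected (L c)) (hLO : ∀ c, L c ⊆ Om)
    (hLS : ∀ c i, (P (T.H i) ∩ L c).Nonempty → P (T.H i) ⊆ S)
    (hLQ : ∀ c i, (P (T.H i) ∩ L c).Nonempty → ∀ u ∈ Q, u ∉ P (T.H i))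
    (hLl : ∀ c, ∀ v ∈ VM T (L c), v ∈ frontier K → lbl v = l c)
    {Dp Fp : Set E} (hD : IsPreconnected Dp) (hDO : Dp ⊆ Om)
    (hDS : ∀ i, (P (T.H i) ∩ Dp).Nonempty → P (T.H i) ⊆ S)
    (hDK : ∀ i, (P (T.H i) ∩ Dp).Nonempty → P (T.H i) ⊆ interior K)
    {a b : ZMod 2} (hDa : ∀ i, (P (T.H i) ∩ Dp).Nonempty → ∀ w ∈ Q, w ∈ P (T.H i) → Ψ w = a)
    (hF : IsPreconnected Fp) (hFO : Fp ⊆ Om)
    (hFS : ∀ i, (P (T.H i) ∩ Fp).Nonempty → P (T.H i) ⊆ S)
    (hFK : ∀ i, (P (T.H i) ∩ Fp).Nonempty → P (T.H i) ∩ K = ∅)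
    (hFb : ∀ i, (P (T.H i) ∩ Fp).Nonempty → ∀ w ∈ Q, w ∈ P (T.H i) → Ψ w = b)
    {d f : Bool → E} (hd : ∀ c, d c ∈ VM T (L c) ∧ d c ∈ VM T Dp)
    (hf : ∀ c, f c ∈ VM T (L c) ∧ f c ∈ VM T Fp) (hne : lam (d true) + lam (d false) = 1) :
    l true + l false = a + b := by
  obtain ⟨ψ, hψ⟩ := exact_inside (T := T) h3 hS hSO ht (κ := kapE T K Q Ψ lbl)
    (fun q hq x hx hd2 => exact_kapE hK hQ1 hγ (T.sub q hx) hd2
      (fun e he h1 hef a b hab => hl q hq e (T.cc_sub_tile (i := q) hx he) h1 hef a b hab)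
      (ho q hq x hx hd2) (hi q hq x hx hd2))
  have hlab : ∀ {i} {e : E}, e ∈ P (T.H i) → T.dim e = 1 → ∀ a b : E, T.cc e = segment ℝ a b →
      lam a + lam b = ((Q.filter (· ∈ T.cc e)).card : ZMod 2) := by
    intro i e he h1 a b hab
    have := hlam e (T.sub i he) h1 a b hab
    convert this
  -- along the rays
  have hray : ∀ c, ∀ v ∈ VM T (L c), ∀ w ∈ VM T (L c),
      ψ v + (if v ∈ interior K then l c else 0) = ψ w + if w ∈ interior K then l c else 0 := by
    intro c v hv w hw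
    refine const_VM (φ := fun v => ψ v + if v ∈ interior K then l c else 0) (hL c) (hLO c)
      ?_ hv hw
    intro i hi e he h1 a b hab
    have heO := T.sub i he
    obtain ⟨ha0, hb0, hae, hbe, -⟩ := T.dim_ends heO h1 hab
    have hai := T.cc_sub_tile (i := i) he hae
    have hbi := T.cc_sub_tile (i := i) he hbe
    have haV : a ∈ VM T (L c) := ⟨ha0, i, hi, hai⟩
    have hbV : b ∈ VM T (L c) := ⟨hb0, i, hi, hbi⟩
    have h4 := hψ i (hLS c i hi) e he h1 a b hab
    have h5 : Q.filter (· ∈ T.cc e) = ∅ := by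
      rw [Finset.filter_eq_empty_iff]
      exact fun u hu hue => hLQ c i hi u hu (T.cc_sub_tile (i := i) he hue)
    have h6 : kapE T K Q Ψ lbl e a b = if Inn T K e then lbl a + lbl b else 0 := by
      show (∑ w ∈ Q.filter (· ∈ T.cc e), Ψ w) + _ = _
      rw [h5, Finset.sum_empty, zero_add]
    rw [h6, CharTwo.sub_eq_add] at h4
    show ψ a + (if a ∈ interior K then l c else 0) = ψ b + if b ∈ interior K then l c else 0
    have h7 : ∀ v, v ∈ T.cc e → v ∈ VM T (L c) → Inn T K e →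
        lbl v + (if v ∈ interior K then l c else 0) = l c := by
      intro v hve hvV hin
      have hvK := (hK.sub_of_meet heO hin).2 hve
      by_cases hvi : v ∈ interior K
      · rw [if_pos hvi, hlbl v (fun h => by rw [hK.cl.frontier_eq] at h; exact h.2 hvi), zero_add]
      · rw [if_neg hvi, add_zero]
        exact hLl c v hvV (by rw [hK.cl.frontier_eq]; exact ⟨hvK, hvi⟩)
    have e3 : ∀ p q r s t u m : ZMod 2, p + q = r + s → r + t = m → s + u = m → p + t = q + u := by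
      decide
    by_cases hin : Inn T K e
    · rw [if_pos hin] at h4
      exact e3 _ _ _ _ _ _ _ h4 (h7 a hae haV hin) (h7 b hbe hbV hin)
    · rw [if_neg hin] at h4
      have ha : a ∉ interior K := fun h => hin ⟨a, hae, h⟩
      have hb : b ∉ interior K := fun h => hin ⟨b, hbe, h⟩
      rw [if_neg ha, if_neg hb, add_zero, add_zero]
      exact CharTwo.add_eq_zero.1 h4
  -- deep inside
  have hdeep : ∀ v ∈ VM T Dp, ∀ w ∈ VM T Dp, ψ v + a * lam v = ψ w + a * lam w := by
    intro v hv w hw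
    refine const_VM (φ := fun v => ψ v + a * lam v) hD hDO ?_ hv hw
    intro i hi e he h1 p q hpq
    have heO := T.sub i he
    obtain ⟨hp0, hq0, hpe, hqe, -⟩ := T.dim_ends heO h1 hpq
    have h4 := hψ i (hDS i hi) e he h1 p q hpq
    have hpi := hDK i hi (T.cc_sub_tile (i := i) he hpe)
    have hqi := hDK i hi (T.cc_sub_tile (i := i) he hqe)
    have h6 : kapE T K Q Ψ lbl e p q = a * ((Q.filter (· ∈ T.cc e)).card : ZMod 2) := by
      show (∑ w ∈ Q.filter (· ∈ T.cc e), Ψ w) + (if Inn T K e then lbl p + lbl q else 0) = _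
      rw [hlbl p (fun h => by rw [hK.cl.frontier_eq] at h; exact h.2 hpi),
        hlbl q (fun h => by rw [hK.cl.frontier_eq] at h; exact h.2 hqi), add_zero, ite_self,
        add_zero, Finset.sum_congr rfl (fun w hw => hDa i hi w (Finset.mem_filter.1 hw).1
          (T.cc_sub_tile (i := i) he (Finset.mem_filter.1 hw).2)), Finset.sum_const, nsmul_eq_mul,
        mul_comm]
    rw [h6, ← hlab he h1 p q hpq, CharTwo.sub_eq_add] at h4
    show ψ p + a * lam p = ψ q + a * lam q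
    have e3 : ∀ p q r s t : ZMod 2, p + q = r * (s + t) → p + r * s = q + r * t := by decide
    exact e3 _ _ _ _ _ h4
  -- far outside
  have hfar : ∀ v ∈ VM T Fp, ∀ w ∈ VM T Fp, ψ v + b * lam v = ψ w + b * lam w := by
    intro v hv w hw
    refine const_VM (φ := fun v => ψ v + b * lam v) hF hFO ?_ hv hw
    intro i hi e he h1 p q hpq
    have heO := T.sub i he
    have h4 := hψ i (hFS i hi) e he h1 p q hpq
    have hin : ¬ Inn T K e := by
      rintro ⟨z, hz, hzK⟩
      have : z ∈ P (T.H i) ∩ K := ⟨T.cc_sub_tile (i := i) he hz, interior_subset hzK⟩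
      rw [hFK i hi] at this; exact this
    have h6 : kapE T K Q Ψ lbl e p q = b * ((Q.filter (· ∈ T.cc e)).card : ZMod 2) := by
      show (∑ w ∈ Q.filter (· ∈ T.cc e), Ψ w) + (if Inn T K e then lbl p + lbl q else 0) = _
      rw [if_neg hin, add_zero, Finset.sum_congr rfl (fun w hw => hFb i hi w
          (Finset.mem_filter.1 hw).1 (T.cc_sub_tile (i := i) he (Finset.mem_filter.1 hw).2)),
          Finset.sum_const, nsmul_eq_mul, mul_comm]
    rw [h6, ← hlab he h1 p q hpq, CharTwo.sub_eq_add] at h4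
    show ψ p + b * lam p = ψ q + b * lam q
    have e3 : ∀ p q r s t : ZMod 2, p + q = r * (s + t) → p + r * s = q + r * t := by decide
    exact e3 _ _ _ _ _ h4
  -- the label is constant along the rays
  have hlamL : ∀ c, lam (d c) = lam (f c) := fun c =>
    hlam.const_geom (hL c) (hLO c) (hLQ c) (hd c).1 (hf c).1
  have hdi : ∀ c, d c ∈ interior K := by
    intro c
    obtain ⟨_, i, hi, hdi⟩ := (hd c).2
    exact hDK i hi hdi
  have hfi : ∀ c, f c ∉ interior K := by
    intro c hc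
    obtain ⟨_, i, hi, hfi⟩ := (hf c).2
    have : f c ∈ P (T.H i) ∩ K := ⟨hfi, interior_subset hc⟩
    rw [hFK i hi] at this; exact this
  have r1 := hray true _ (hd true).1 _ (hf true).1
  have r0 := hray false _ (hd false).1 _ (hf false).1
  rw [if_pos (hdi _), if_neg (hfi _), add_zero] at r1 r0
  have r2 := hdeep _ (hd true).2 _ (hd false).2
  have r3 := hfar _ (hf true).2 _ (hf false).2
  rw [← hlamL, ← hlamL] at r3
  have two : (2 : ZMod 2) = 0 := rfl
  linear_combination r1 + r0 + r3 - r2 + (b - a) * hne +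
    (ψ (f false) - ψ (d false) - lam (d true) * (b - a) - a) * two

end Crest.Agent.R096.Ess1_95
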