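import Crest.Agent.R096.Door3_501

/-!
# Row 96, DOORS (QP), part 1 (helper106): sums mod 2 on the boundary sphere of a cell

* `Shell.EF`, `Shell.vsum`, `Shell.wsum`, `Shell.hsum` : sums over the edges of a face.
* `Shell.Sph`  : `H¹ = 0` of the sphere.
* `Shell.Con`  : the 1-skeleton of the sphere is connected.
* `Shell.Circ` : the boundary of a face of `k` is a circle and `pos F` is its cut open order.
-/

set_option autoImplicit false

namespace Crest.Agent.R096.Qp_106

open Crest.Agent.R096.St_147 Crest.Agent.R096.Door_501 Classical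

theorem zz_self : ∀ a : ZMod 2, a + a = 0 := by decide

theorem zz_add (a b : ZMod 2) (h : a = b) : a + b = 0 := by rw [h]; exact zz_self b

theorem zz_eq : ∀ a b : ZMod 2, a + b = 0 → a = b := by decide

theorem zz_swap : ∀ a b c d : ZMod 2, a + b = c + d → a + c = b + d := by decide

theorem zz_ite : ∀ a : ZMod 2, a = if a = 1 then 1 else 0 := by decide

theorem sum_eq_card {X : Type} (T : Finset X) (ε : X → ZMod 2) :
    ∑ w ∈ T, ε w = ((T.filter fun w => ε w = 1).card : ZMod 2) := by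
  rw [Finset.card_filter]
  push_cast
  exact Finset.sum_congr rfl fun w _ => zz_ite _

theorem even_of_sum {X : Type} {T : Finset X} {ε : X → ZMod 2} (h : ∑ w ∈ T, ε w = 0) :
    Even (T.filter fun w => ε w = 1).card := by
  rw [sum_eq_card] at h
  exact (ZMod.natCast_eq_zero_iff_even).1 h

theorem nsmul_even {n : ℕ} (h : Even n) (a : ZMod 2) : n • a = 0 := by
  rw [nsmul_eq_mul, (ZMod.natCast_eq_zero_iff_even).2 h, zero_mul]

/-- an invariant function of a fixed point free involution has sum zero -/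
theorem sum_inv {X : Type} (T : Finset X) (f : X → ZMod 2) (σ : X → X)
    (h1 : ∀ x ∈ T, σ x ∈ T) (h2 : ∀ x ∈ T, σ x ≠ x) (h3 : ∀ x ∈ T, σ (σ x) = x)
    (h4 : ∀ x ∈ T, f (σ x) = f x) : ∑ x ∈ T, f x = 0 := by
  refine Finset.sum_involution (fun x _ => σ x) ?_ ?_ ?_ ?_
  · intro x hx
    rw [h4 x hx]; exact zz_self _
  · intro x hx _
    exact h2 x hx
  · intro x hx
    exact h1 x hx
  · intro x hx
    exact h3 x hx

variable {ι Φ W : Type} {M : MeshC ι Φ W} {k : ι} {Vx Ed : Type}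

end Crest.Agent.R096.Qp_106

namespace Crest.Agent.R096.Door_501.Shell

open Crest.Agent.R096.St_147 Crest.Agent.R096.Door_501 Crest.Agent.R096.Qp_106 Classical

variable {ι Φ W : Type} {M : MeshC ι Φ W} {k : ι} {Vx Ed : Type} (S : Shell M k Vx Ed)

/-- the edges of the face `F` -/
noncomputable def EF [Fintype Ed] (F : Φ) : Finset Ed :=
  Finset.univ.filter fun e => ∃ b, S.fc e b = F

theorem mem_EF [Fintype Ed] {F : Φ} {e : Ed} : e ∈ S.EF F ↔ ∃ b, S.fc e b = F := by
  simp [EF]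

/-- `H¹ = 0` of the boundary sphere -/
def Sph [Fintype Ed] : Prop := ∀ c : Ed → ZMod 2,
  (∀ F, k ∈ M.side F → ∑ e ∈ S.EF F, c e = 0) →
  ∃ ψ : Vx → ZMod 2, ∀ e, c e = ψ (S.en e false) + ψ (S.en e true)

/-- the 1-skeleton of the boundary sphere is connected -/
def Con : Prop := ∀ X : Set Vx, (∀ e, S.en e false ∈ X ↔ S.en e true ∈ X) →
  ∀ e b e' b', S.en e b ∈ X → S.en e' b' ∈ X

/-- the number (mod 2) of points of `y` on `∂F` at positions `< r` -/
noncomputable def cnt (_S : Shell M k Vx Ed) (F : Φ) (y : Finset W) (r : ℝ) : ZMod 2 :=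
  ((y.filter fun v => M.pos F v < r).card : ZMod 2)

/-- the boundary of every face of `k` is a circle, `M.pos F` is its cut open order -/
structure Circ : Prop where
  circ : ∀ F, k ∈ M.side F → ∃ pv : Vx → ℝ,
    (∀ e, (∃ b, S.fc e b = F) → ∀ y : Finset W, (∀ w ∈ y, w ∈ M.On F) → Even y.card →
      S.cnt F y (pv (S.en e false)) + S.cnt F y (pv (S.en e true)) =
        ((y.filter fun w => w ∈ S.OnE e).card : ZMod 2)) ∧
    (∀ e, (∃ b, S.fc e b = F) → ∀ x ∈ S.OnE e, ∃ ε : ZMod 2,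
      ∀ y : Finset W, (∀ w ∈ y, w ∈ M.On F) → Even y.card →
      S.cnt F y (pv (S.en e false)) + S.cnt F y (M.pos F x) =
        ((y.filter fun w => w ∈ S.OnE e ∧ S.t w < S.t x).card : ZMod 2) +
          (if x ∈ y then ε else 0))
  vconn : ∀ F, k ∈ M.side F → ∀ X : Set Vx,
    (∀ e, (∃ b, S.fc e b = F) → (S.en e false ∈ X ↔ S.en e true ∈ X)) →
    ∀ e, (∃ b, S.fc e b = F) → ∀ b, S.en e b ∈ X → ∀ e', (∃ b, S.fc e' b = F) → ∀ b', S.en e' b' ∈ X

/-- every vertex lies on zero or two edges of a face -/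
theorem vsum [Fintype Ed] (F : Φ) (f : Vx → ZMod 2) :
    ∑ e ∈ S.EF F, (f (S.en e false) + f (S.en e true)) = 0 := by
  have h1 : ∑ e ∈ S.EF F, (f (S.en e false) + f (S.en e true)) =
      ∑ p ∈ S.EF F ×ˢ (Finset.univ : Finset Bool), f (S.en p.1 p.2) := by
    rw [Finset.sum_product]
    refine Finset.sum_congr rfl fun e _ => ?_
    rw [Fintype.sum_bool, add_comm]
  rw [h1, Finset.sum_comp f (fun p : Ed × Bool => S.en p.1 p.2)]
  refine Finset.sum_eq_zero fun v _ => ?_
  apply nsmul_even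
  have h2 : ((S.EF F ×ˢ (Finset.univ : Finset Bool)).filter fun p => S.en p.1 p.2 = v).card =
      {e | (∃ b, S.fc e b = F) ∧ ∃ b, S.en e b = v}.ncard := by
    have h3 : {e | (∃ b, S.fc e b = F) ∧ ∃ b, S.en e b = v} =
        ((((S.EF F ×ˢ (Finset.univ : Finset Bool)).filter fun p => S.en p.1 p.2 = v).image
          Prod.fst : Finset Ed) : Set Ed) := by
      ext e
      simp only [Set.mem_ofPred_eq, Finset.coe_image, Set.mem_image, Finset.mem_coe,
        Finset.mem_filter, Finset.mem_product, Finset.mem_univ, and_true, mem_EF]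
      constructor
      · rintro ⟨h4, b, h5⟩
        exact ⟨(e, b), ⟨h4, h5⟩, rfl⟩
      · rintro ⟨p, ⟨h4, h5⟩, rfl⟩
        exact ⟨h4, p.2, h5⟩
    rw [h3, Set.ncard_coe_finset, Finset.card_image_of_injOn]
    intro p hp q hq hpq
    have hp' := (Finset.mem_filter.1 (Finset.mem_coe.1 hp)).2
    have hq' := (Finset.mem_filter.1 (Finset.mem_coe.1 hq)).2
    obtain ⟨e, b⟩ := p
    obtain ⟨e', b'⟩ := q
    simp only at hpq hp' hq'
    subst hpq
    have : b = b' := by
      by_contra hb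
      have h6 : S.en e b = S.en e b' := hp'.trans hq'.symm
      cases b <;> cases b'
      · exact hb rfl
      · exact S.en_ne e h6
      · exact S.en_ne e h6.symm
      · exact hb rfl
    rw [this]
  rw [h2]
  rcases S.vdeg F v with h | h
  · rw [h]; exact Even.zero
  · rw [h]; exact even_two

/-- the points on a face, edge by edge -/
theorem wsum [Fintype Ed] {F : Φ} (hF : k ∈ M.side F) (D : Finset W) (f : W → ZMod 2) :
    ∑ e ∈ S.EF F, ∑ w ∈ D.filter (fun w => w ∈ S.OnE e), f w =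
      ∑ w ∈ D.filter (fun w => w ∈ M.On F), f w := by
  have h1 : D.filter (fun w => w ∈ M.On F) =
      (S.EF F).biUnion (fun e => D.filter (fun w => w ∈ S.OnE e)) := by
    ext w
    simp only [Finset.mem_filter, Finset.mem_biUnion, mem_EF]
    constructor
    · rintro ⟨h1, h2⟩
      obtain ⟨e, b, h3, h4⟩ := (S.onE hF).1 h2
      exact ⟨e, ⟨b, h3⟩, h1, h4⟩
    · rintro ⟨e, ⟨b, h3⟩, h1, h4⟩
      exact ⟨h1, (S.onE hF).2 ⟨e, b, h3, h4⟩⟩
  rw [h1, Finset.sum_biUnion]
  intro e _ e' _ hne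
  rw [Function.onFun, Finset.disjoint_left]
  intro w h2 h3
  exact hne (S.onE_disj (Finset.mem_filter.1 h2).2 (Finset.mem_filter.1 h3).2)

/-- the faces of `k` which have an edge -/
noncomputable def FS [Fintype Ed] : Finset Φ :=
  (Finset.univ : Finset (Ed × Bool)).image (fun p => S.fc p.1 p.2)

theorem mem_FS [Fintype Ed] {F : Φ} (h : F ∈ S.FS) : k ∈ M.side F := by
  obtain ⟨p0, _, hp0⟩ := Finset.mem_image.1 h
  rw [← hp0]; exact S.fc_side p0.1 p0.2

theorem FS_of [Fintype Ed] (e : Ed) (b : Bool) : S.fc e b ∈ S.FS :=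
  Finset.mem_image.2 ⟨(e, b), Finset.mem_univ _, rfl⟩

/-- sum over the pairs (face of `k`, edge) -/
theorem esum [Fintype Ed] (h : Φ → Ed → ZMod 2) :
    ∑ e : Ed, (h (S.fc e false) e + h (S.fc e true) e) = ∑ F ∈ S.FS, ∑ e ∈ S.EF F, h F e := by
  have h1 : ∑ e : Ed, (h (S.fc e false) e + h (S.fc e true) e) =
      ∑ p : Ed × Bool, h (S.fc p.1 p.2) p.1 := by
    rw [Fintype.sum_prod_type]
    refine Finset.sum_congr rfl fun e _ => ?_
    rw [Fintype.sum_bool, add_comm]
  rw [h1, ← Finset.sum_fiberwise_of_maps_to (t := S.FS)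
    (g := fun p : Ed × Bool => S.fc p.1 p.2) (fun p hp => Finset.mem_image_of_mem _ hp)]
  refine Finset.sum_congr rfl fun F hF => ?_
  refine Finset.sum_bij (fun p _ => p.1) ?_ ?_ ?_ ?_
  · intro p hp
    exact S.mem_EF.2 ⟨p.2, (Finset.mem_filter.1 hp).2⟩
  · intro p hp q hq hpq
    have hp' := (Finset.mem_filter.1 hp).2
    have hq' := (Finset.mem_filter.1 hq).2
    obtain ⟨e, b⟩ := p
    obtain ⟨e', b'⟩ := q
    simp only at hpq hp' hq'
    subst hpq
    have : b = b' := by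
      by_contra hb
      have h6 : S.fc e b = S.fc e b' := hp'.trans hq'.symm
      cases b <;> cases b'
      · exact hb rfl
      · exact S.fc_ne e h6
      · exact S.fc_ne e h6.symm
      · exact hb rfl
    rw [this]
  · intro e he
    obtain ⟨b, hb⟩ := S.mem_EF.1 he
    exact ⟨(e, b), Finset.mem_filter.2 ⟨Finset.mem_univ _, hb⟩, rfl⟩
  · intro p hp
    rw [(Finset.mem_filter.1 hp).2]

/-- sum over the pairs (face of `k`, point), edge by edge -/
theorem hsum [Fintype Ed] (D : Finset W) (h : Φ → W → ZMod 2) :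
    ∑ e : Ed, ∑ w ∈ D.filter (fun w => w ∈ S.OnE e), (h (S.fc e false) w + h (S.fc e true) w) =
      ∑ F ∈ S.FS, ∑ w ∈ D.filter (fun w => w ∈ M.On F), h F w := by
  have h1 := S.esum (fun F e => ∑ w ∈ D.filter (fun w => w ∈ S.OnE e), h F w)
  have h2 : ∑ e : Ed, ∑ w ∈ D.filter (fun w => w ∈ S.OnE e),
      (h (S.fc e false) w + h (S.fc e true) w) =
      ∑ e : Ed, ((∑ w ∈ D.filter (fun w => w ∈ S.OnE e), h (S.fc e false) w) +
        ∑ w ∈ D.filter (fun w => w ∈ S.OnE e), h (S.fc e true) w) :=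
    Finset.sum_congr rfl fun e _ => Finset.sum_add_distrib
  rw [h2, h1]
  exact Finset.sum_congr rfl fun F hF => S.wsum (S.mem_FS hF) D (h F)

/-- if the points are paired on every face and `h` is invariant, the sum is zero -/
theorem hsum_inv [Fintype Ed] (D : Finset W) (h : Φ → W → ZMod 2) (nu : Φ → W → W)
    (h1 : ∀ F w, k ∈ M.side F → w ∈ D → w ∈ M.On F → nu F w ∈ D ∧ nu F w ∈ M.On F)
    (h2 : ∀ F w, k ∈ M.side F → w ∈ D → w ∈ M.On F → nu F w ≠ w)
    (h3 : ∀ F w, k ∈ M.side F → w ∈ D → w ∈ M.On F → nu F (nu F w) = w)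
    (h4 : ∀ F w, k ∈ M.side F → w ∈ D → w ∈ M.On F → h F (nu F w) = h F w) :
    ∑ e : Ed, ∑ w ∈ D.filter (fun w => w ∈ S.OnE e),
      (h (S.fc e false) w + h (S.fc e true) w) = 0 := by
  rw [S.hsum]
  refine Finset.sum_eq_zero fun F hF => ?_
  have hFk : k ∈ M.side F := S.mem_FS hF
  refine sum_inv _ _ (nu F) ?_ ?_ ?_ ?_
  · intro w hw
    obtain ⟨g1, g2⟩ := Finset.mem_filter.1 hw
    exact Finset.mem_filter.2 (h1 F w hFk g1 g2)
  · intro w hw
    obtain ⟨g1, g2⟩ := Finset.mem_filter.1 hw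
    exact h2 F w hFk g1 g2
  · intro w hw
    obtain ⟨g1, g2⟩ := Finset.mem_filter.1 hw
    exact h3 F w hFk g1 g2
  · intro w hw
    obtain ⟨g1, g2⟩ := Finset.mem_filter.1 hw
    exact h4 F w hFk g1 g2

/-- weighted form of `Circ`: for a weight `ε` with sum zero on the points `D` of `∂F` the running
sums `R r = ∑ (positions < r) ε` satisfy the same relations -/
theorem Circ.weighted {S : Shell M k Vx Ed} (hc : S.Circ) {F : Φ} (hF : k ∈ M.side F) :
    ∃ (pv : Vx → ℝ) (o : W → ZMod 2), ∀ (D : Finset W) (ε : W → ZMod 2),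
      (∀ w ∈ D, w ∈ M.On F) → ∑ w ∈ D, ε w = 0 →
      (∀ e, (∃ b, S.fc e b = F) →
        (∑ w ∈ D.filter (fun w => M.pos F w < pv (S.en e false)), ε w) +
        (∑ w ∈ D.filter (fun w => M.pos F w < pv (S.en e true)), ε w) =
          ∑ w ∈ D.filter (fun w => w ∈ S.OnE e), ε w) ∧
      (∀ e, (∃ b, S.fc e b = F) → ∀ x ∈ S.OnE e, x ∈ D →
        (∑ w ∈ D.filter (fun w => M.pos F w < pv (S.en e false)), ε w) +
        (∑ w ∈ D.filter (fun w => M.pos F w < M.pos F x), ε w) =
          (∑ w ∈ D.filter (fun w => w ∈ S.OnE e ∧ S.t w < S.t x), ε w) + o x * ε x) := by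
  obtain ⟨pv, hpv1, hpv2⟩ := hc.circ F hF
  have hch : ∀ x, ∃ o : ZMod 2, ∀ e, (∃ b, S.fc e b = F) → x ∈ S.OnE e →
      ∀ y : Finset W, (∀ w ∈ y, w ∈ M.On F) → Even y.card →
      S.cnt F y (pv (S.en e false)) + S.cnt F y (M.pos F x) =
        ((y.filter fun w => w ∈ S.OnE e ∧ S.t w < S.t x).card : ZMod 2) +
          (if x ∈ y then o else 0) := by
    intro x
    by_cases hx : ∃ e, (∃ b, S.fc e b = F) ∧ x ∈ S.OnE e
    · obtain ⟨e, he, hxe⟩ := hx
      obtain ⟨o, ho⟩ := hpv2 e he x hxe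
      refine ⟨o, fun e' he' hxe' => ?_⟩
      rw [S.onE_disj hxe' hxe]
      exact ho
    · exact ⟨0, fun e he hxe => (hx ⟨e, he, hxe⟩).elim⟩
  choose o ho using hch
  refine ⟨pv, o, fun D ε hD hsum => ?_⟩
  have hy1 : ∀ w ∈ D.filter (fun w => ε w = 1), w ∈ M.On F := fun w hw =>
    hD w (Finset.mem_filter.1 hw).1
  have hy2 : Even (D.filter (fun w => ε w = 1)).card := even_of_sum hsum
  have key : ∀ r, ∑ w ∈ D.filter (fun w => M.pos F w < r), ε w =
      S.cnt F (D.filter (fun w => ε w = 1)) r := by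
    intro r
    rw [sum_eq_card]
    unfold cnt
    congr 2
    ext w
    simp only [Finset.mem_filter]
    tauto
  constructor
  · intro e he
    rw [key, key, hpv1 e he _ hy1 hy2, sum_eq_card]
    congr 2
    ext w
    simp only [Finset.mem_filter]
    tauto
  · intro e he x hx hxD
    rw [key, key, ho x e he hx _ hy1 hy2, sum_eq_card]
    congr 1
    · congr 2
      ext w
      simp only [Finset.mem_filter]
      tauto
    · have h5 : ∀ a b : ZMod 2, (if a = 1 then b else 0) = b * a := by decide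
      rw [← h5]
      refine if_congr ?_ rfl rfl
      rw [Finset.mem_filter]
      exact ⟨fun h => h.2, fun h => ⟨hxD, h⟩⟩

end Crest.Agent.R096.Door_501.Shell
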