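import Crest.Agent.R096.Mrg5_715
import Crest.Agent.R096.Qp1_106
import Crest.Agent.R096.Spm2_662

/-!
# R096 (row 96): the shell of a core satisfies `Sph`, `Con`, `Circ` of helper106 (helper715)
-/

set_option autoImplicit false

open Set Metric Filter Topology Module
open scoped Classical

namespace Crest.Agent.R096.Msh_715

open St_147 Agl5_543 Coh_184

section Eps

open Crest.Agent.R096.Agl1_543 Crest.Agent.R096.Pat5_543 Crest.Agent.R096.Spm_662
  Crest.Agent.R096.Ac_117 Crest.Agent.R096.Lab_184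

variable {E : Type} [NormedAddCommGroup E] [NormedSpace ℝ E] [FiniteDimensional ℝ E]
  {Om : Set E} {ι : Type} {T : Tiling Om ι}

/-- counting from an end point `a` to `w` (662's `exists_eps` for any end point) -/
theorem exists_epsA (F : C2 T) {w a : E} (hw : w ∈ F.On) (h1 : T.dim a = 0) (h3 : a ≠ w)
    (h4 : segment ℝ a w ⊆ T.cc w) :
    ∃ ε : ZMod 2, ∀ (h3 : Module.finrank ℝ E = 3) (y : Finset E), Even (yF y F).card →
      cntP (meshC T h3) y F (F.pos a) + cntP (meshC T h3) y F (F.pos w) =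
        ((y.filter (fun v => v ∈ segment ℝ a w ∧ T.dim v = 1)).card : ZMod 2) +
          (if w ∈ y then ε else 0) := by
  have hwO : w ∈ Om := F.set_sub hw.1
  have hJ : segment ℝ a w ⊆ F.bd := h4.trans (cc_sub_bd F hw)
  have hop : segment ℝ a w \ {a, w} = openSegment ℝ a w := by
    rw [← insert_endpoints_openSegment]
    ext v
    simp only [Set.mem_sdiff, mem_insert_iff, mem_singleton_iff]
    constructor
    · rintro ⟨h7 | h7 | h7, h8⟩
      · exact absurd (Or.inl h7) h8
      · exact absurd (Or.inr h7) h8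
      · exact h7
    · intro h7
      refine ⟨Or.inr (Or.inr h7), ?_⟩
      rintro (rfl | rfl)
      · exact h3 (left_mem_openSegment_iff.1 h7)
      · exact h3 (right_mem_openSegment_iff.1 h7)
  obtain ⟨ε, hε⟩ := arc_count_end (loop_gam F) h3 (convex_segment _ _).isPreconnected
    (left_mem_segment ℝ _ _) (right_mem_segment ℝ _ _) hJ
    (by rw [hop]; exact (convex_openSegment _ _).isPreconnected)
  refine ⟨ε + 1, fun hfr y he => ?_⟩
  have ha : a ∉ yF y F := fun h => by
    have := (mem_yF.1 h).2.2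
    omega
  have hwy : w ∈ yF y F ↔ w ∈ y := by
    rw [mem_yF]
    exact ⟨fun h => h.1, fun h => ⟨h, hw⟩⟩
  have e1 := hε (yF y F) (yF_sub y F) he ha
  rw [cntP_eq hfr y F he (hJ (left_mem_segment ℝ _ _)),
    cntP_eq hfr y F he (hJ (right_mem_segment ℝ _ _)), if_neg ha, add_zero, ← add_assoc, e1]
  have e2 : ((yF y F).filter (· ∈ segment ℝ a w)) =
      y.filter (fun v => v ∈ segment ℝ a w ∧ T.dim v = 1) := by
    ext v
    rw [Finset.mem_filter, Finset.mem_filter, mem_yF]
    constructor
    · rintro ⟨⟨h6, h7⟩, h8⟩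
      exact ⟨h6, h8, h7.2⟩
    · rintro ⟨h6, h7, h8⟩
      exact ⟨⟨h6, F.bd_sub (hJ h7), h8⟩, h7⟩
  rw [e2, if_congr hwy rfl rfl, if_congr hwy rfl rfl, add_assoc]
  congr 1
  by_cases h6 : w ∈ y
  · rw [if_pos h6, if_pos h6, if_pos h6]
  · rw [if_neg h6, if_neg h6, if_neg h6, add_zero]

end Eps

section ShellProps

variable {E : Type} [NormedAddCommGroup E] [NormedSpace ℝ E] [FiniteDimensional ℝ E]
variable {Om : Set E} {ι : Type} {T : Tiling Om ι} {κ : Type} {Kc : κ → Set E}

/-- the shell of a core (from `CoreH`) -/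
noncomputable abbrev shellH (h3 : finrank ℝ E = 3) (hH : ∀ c, CoreH T (Kc c))
    (hdis : ∀ c c', c ≠ c' → Disjoint (Kc c) (Kc c')) (c : κ) :=
  shellK T h3 Kc (fun c => (hH c).core) (fun c => (hH c).sub) (fun c => (hH c).cc) hdis c (hH c).pc

variable {h3 : finrank ℝ E = 3} {hH : ∀ c, CoreH T (Kc c)}
  {hdis : ∀ c c', c ≠ c' → Disjoint (Kc c) (Kc c')}

theorem fcS_iff {c : κ} (e : EdK T Kc c)
    {F : {F : C2 T // ¬ (((meshC T h3).side F).map (piK T Kc)).IsDiag}}
    (hF : F.1.set ⊆ frontier (Kc c)) :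
    (∃ b, (shellH h3 hH hdis c).fc e b = F) ↔ e.1.set ⊆ F.1.set := by
  have h1 := fcK_iff (h3 := h3) (hK := fun c => (hH c).core) (hKO := fun c => (hH c).sub)
    (hs := fun c => (hH c).cc) e F.1
  constructor
  · rintro ⟨b, hb⟩
    exact (h1.2 ⟨b, congrArg Subtype.val hb⟩).2
  · intro h
    obtain ⟨b, hb⟩ := h1.1 ⟨hF, h⟩
    exact ⟨b, Subtype.ext hb⟩

/-- **`Sph`** -/
theorem shellH_sph (c : κ) [Fintype (EdK T Kc c)] : (shellH h3 hH hdis c).Sph := by
  intro k hk
  obtain ⟨ψ, hψ⟩ := exactK hH h3 c k (by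
    intro F
    have hF := (face_iff h3 (fun c => (hH c).core) (fun c => (hH c).sub) (fun c => (hH c).cc) hdis
      F.1 c).1 F.2
    rw [← Finset.sum_filter]
    refine Eq.trans (Finset.sum_congr ?_ fun _ _ => rfl) (hk ⟨F.1, hF.1⟩ hF.2)
    ext e
    rw [Finset.mem_filter, Door_501.Shell.mem_EF, fcS_iff e (F := ⟨F.1, hF.1⟩) F.2]
    exact ⟨fun h => h.2, fun h => ⟨Finset.mem_univ _, h⟩⟩)
  exact ⟨ψ, hψ⟩

/-- **`Con`** -/
theorem shellH_con (c : κ) : (shellH h3 hH hdis c).Con := by
  intro X hX e b e' b' h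
  have h1 := con_VxK hH c (fun v => v ∈ X) (fun g => propext (hX g)) (endK e b) (endK e' b')
  exact h1 ▸ h

/-- **`Circ`** -/
theorem shellH_circ (c : κ) : (shellH h3 hH hdis c).Circ where
  circ := by
    rintro ⟨F, hF⟩ hk
    have hFs : F.set ⊆ frontier (Kc c) := (face_iff h3 (fun c => (hH c).core)
      (fun c => (hH c).sub) (fun c => (hH c).cc) hdis F c).2 ⟨hF, hk⟩
    refine ⟨fun v => F.pos v.1, ?_, ?_⟩
    · intro e he y hy hev
      have heF : e.1.set ⊆ F.set := (fcS_iff e (F := ⟨F, hF⟩) hFs).1 he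
      have hyF : Spm_662.yF y F = y := by
        ext v
        rw [Spm_662.mem_yF]
        exact ⟨fun h => h.1, fun h => ⟨h, hy v h⟩⟩
      have h1 := Spm_662.cntP_edge h3 y F (by rw [hyF]; exact hev) (e := e.1.pt)
        (heF (e.1.opn_sub (T.self_mem_oc _))) e.2.1 (by rw [← e.1.set_eq]; exact seg_endK e)
      have h2 : ∀ r, (shellH h3 hH hdis c).cnt ⟨F, hF⟩ y r =
          Ac_117.cntP (meshC T h3) y F r := by
        intro r
        have : (y.filter fun v => F.pos v < r) =
            y.filter (fun v => v ∈ (meshC T h3).On F ∧ (meshC T h3).pos F v < r) :=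
          Finset.filter_congr fun v hv => ⟨fun h => ⟨hy v hv, h⟩, fun h => h.2⟩
        show ((y.filter fun v => F.pos v < r).card : ZMod 2) = _
        rw [this]; rfl
      rw [h2, h2]
      refine h1.trans ?_
      congr 2
      refine Finset.filter_congr fun v hv => ?_
      show (v ∈ T.cc e.1.pt ∧ T.dim v = 1) ↔ v ∈ e.1.opn
      constructor
      · rintro ⟨h4, h5⟩
        exact Tiling.cl_eq_of_dim1 e.1.pt_mem e.2.1 h4 h5
      · intro h4
        exact ⟨by rw [← e.1.set_eq]; exact e.1.opn_sub h4,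
          (T.dim_eq_of_mem_oc e.1.pt_mem h4).trans e.2.1⟩
    · intro e he x hx
      have heF : e.1.set ⊆ F.set := (fcS_iff e (F := ⟨F, hF⟩) hFs).1 he
      have hx' : x ∈ e.1.opn := hx
      have hdx : T.dim x = 1 := (T.dim_eq_of_mem_oc e.1.pt_mem hx').trans e.2.1
      have hxF : x ∈ F.On := ⟨heF (e.1.opn_sub hx'), hdx⟩
      have hccx : T.cc x = e.1.set := by
        rw [e.1.set_eq]; exact T.cc_eq_of_mem_oc e.1.pt_mem hx'
      obtain ⟨hne, hset, hopn, ha0, hb0, ham, hbm⟩ := lft_rgt e.2.1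
      have hax : lft e.1 ≠ x := fun h => by rw [h, hdx] at ha0; exact one_ne_zero ha0
      have hseg : segment ℝ (lft e.1) x ⊆ T.cc x := by
        rw [hccx]
        have hconv : Convex ℝ e.1.set := by rw [hset]; exact convex_segment _ _
        exact hconv.segment_subset ham (e.1.opn_sub hx')
      obtain ⟨ε, hε⟩ := exists_epsA F hxF ha0 hax hseg
      refine ⟨ε + 1, fun y hy hev => ?_⟩
      have hyF : Spm_662.yF y F = y := by
        ext v
        rw [Spm_662.mem_yF]
        exact ⟨fun h => h.1, fun h => ⟨h, hy v h⟩⟩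
      have h1 := hε h3 y (by rw [hyF]; exact hev)
      have h2 : ∀ r, (shellH h3 hH hdis c).cnt ⟨F, hF⟩ y r =
          Ac_117.cntP (meshC T h3) y F r := by
        intro r
        have : (y.filter fun v => F.pos v < r) =
            y.filter (fun v => v ∈ (meshC T h3).On F ∧ (meshC T h3).pos F v < r) :=
          Finset.filter_congr fun v hv => ⟨fun h => ⟨hy v hv, h⟩, fun h => h.2⟩
        show ((y.filter fun v => F.pos v < r).card : ZMod 2) = _
        rw [this]; rfl
      rw [h2, h2]
      refine h1.trans ?_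
      obtain ⟨tx, htx, hxeq⟩ := exists_par e.2.1 hx'
      have hpx : par T x = tx := by rw [hxeq]; exact (par_eq e.2.1 htx).2
      have key : ∀ v, (v ∈ segment ℝ (lft e.1) x ∧ T.dim v = 1) ↔
          ((v ∈ e.1.opn ∧ par T v < par T x) ∨ v = x) := by
        intro v
        constructor
        · rintro ⟨h4, h5⟩
          rw [segment_eq_image'] at h4
          obtain ⟨s, ⟨hs0, hs1⟩, hv⟩ := h4
          have hv : lft e.1 + s • (x - lft e.1) = v := hv
          subst hv
          have hs0' : 0 < s := by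
            rcases hs0.lt_or_eq with h | h
            · exact h
            · exfalso
              rw [← h, zero_smul, add_zero, ha0] at h5
              exact zero_ne_one h5
          rcases hs1.lt_or_eq with h | h
          · left
            have e1 : lft e.1 + s • (x - lft e.1) = lft e.1 + (s * tx) • (rgt e.1 - lft e.1) := by
              rw [hxeq, add_sub_cancel_left, smul_smul]
            have hst : s * tx ∈ Ioo (0 : ℝ) 1 :=
              ⟨mul_pos hs0' htx.1, by nlinarith [htx.1, htx.2]⟩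
            rw [e1]
            refine ⟨(par_eq e.2.1 hst).1, ?_⟩
            rw [(par_eq e.2.1 hst).2, hpx]
            nlinarith [htx.1]
          · right
            rw [h, one_smul]; abel
        · rintro (⟨h4, h5⟩ | rfl)
          · obtain ⟨s, hs, rfl⟩ := exists_par e.2.1 h4
            rw [(par_eq e.2.1 hs).2, hpx] at h5
            refine ⟨?_, (T.dim_eq_of_mem_oc e.1.pt_mem h4).trans e.2.1⟩
            rw [segment_eq_image']
            refine ⟨s / tx, ⟨div_nonneg hs.1.le htx.1.le, (div_le_one htx.1).2 h5.le⟩, ?_⟩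
            show lft e.1 + (s / tx) • (x - lft e.1) = _
            rw [hxeq, add_sub_cancel_left, smul_smul, div_mul_cancel₀ _ htx.1.ne']
          · exact ⟨right_mem_segment ℝ _ _, hdx⟩
      have hcard : ((y.filter (fun v => v ∈ segment ℝ (lft e.1) x ∧ T.dim v = 1)).card : ZMod 2) =
          ((y.filter fun w => w ∈ e.1.opn ∧ par T w < par T x).card : ZMod 2) +
            (if x ∈ y then 1 else 0) := by
        have e1 : y.filter (fun v => v ∈ segment ℝ (lft e.1) x ∧ T.dim v = 1) =
            (y.filter fun w => w ∈ e.1.opn ∧ par T w < par T x) ∪ y.filter (fun w => w = x) := by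
          rw [← Finset.filter_or]
          exact Finset.filter_congr fun v _ => key v
        have hdisj : Disjoint (y.filter fun w => w ∈ e.1.opn ∧ par T w < par T x)
            (y.filter (fun w => w = x)) := by
          rw [Finset.disjoint_filter]
          rintro v _ ⟨_, h4⟩ rfl
          exact lt_irrefl _ h4
        rw [e1, Finset.card_union_of_disjoint hdisj, Nat.cast_add]
        congr 1
        by_cases h6 : x ∈ y
        · have e3 : y.filter (fun w => w = x) = {x} := by
            ext w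
            rw [Finset.mem_filter, Finset.mem_singleton]
            exact ⟨fun h => h.2, fun h => ⟨h ▸ h6, h⟩⟩
          rw [if_pos h6, e3, Finset.card_singleton, Nat.cast_one]
        · have e3 : y.filter (fun w => w = x) = ∅ := by
            rw [Finset.filter_eq_empty_iff]
            intro w hw h
            exact h6 (h ▸ hw)
          rw [if_neg h6, e3, Finset.card_empty, Nat.cast_zero]
      rw [hcard, add_assoc]
      congr 1
      by_cases h6 : x ∈ y
      · rw [if_pos h6, if_pos h6, if_pos h6, add_comm]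
      · rw [if_neg h6, if_neg h6, if_neg h6, add_zero]
  vconn := by
    rintro ⟨F, hF⟩ hk X hX e he b hb e' he' b'
    have hFs : F.set ⊆ frontier (Kc c) := (face_iff h3 (fun c => (hH c).core)
      (fun c => (hH c).sub) (fun c => (hH c).cc) hdis F c).2 ⟨hF, hk⟩
    have heF : e.1.set ⊆ F.set := (fcS_iff e (F := ⟨F, hF⟩) hFs).1 he
    have heF' : e'.1.set ⊆ F.set := (fcS_iff e' (F := ⟨F, hF⟩) hFs).1 he'
    let φ' : E → Prop := fun x => ∃ h : T.dim x = 0 ∧ x ∈ frontier (Kc c), (⟨x, h⟩ : VxK T Kc c) ∈ X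
    have hφ' : ∀ v : VxK T Kc c, φ' v.1 ↔ v ∈ X := fun v =>
      ⟨fun ⟨_, h⟩ => h, fun h => ⟨v.2, h⟩⟩
    have h1 := T.const_cell (φ := φ') F.pt_mem (by
      intro g hg h1 p q hpq
      have hgF : g ∈ F.set := by rw [F.set_eq]; exact hg
      have hgO := F.set_sub hgF
      have hset : (T.cl hgO).set = T.cc g := T.cl_set hgO
      have hsubF : (T.cl hgO).set ⊆ F.set := by
        rw [hset, F.set_eq]; exact T.cc_sub_of_mem hg
      set G : EdK T Kc c := ⟨T.cl hgO, (T.dim_cl hgO).trans h1, hsubF.trans hFs⟩ with hG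
      obtain ⟨ha0, hb0, hae, hbe, hne⟩ := T.dim_ends hgO h1 hpq
      have hae' : p ∈ G.1.set := by show p ∈ (T.cl hgO).set; rw [hset]; exact hae
      have hbe' : q ∈ G.1.set := by show q ∈ (T.cl hgO).set; rw [hset]; exact hbe
      have haF : p ∈ frontier (Kc c) := hFs (hsubF hae')
      have hbF : q ∈ frontier (Kc c) := hFs (hsubF hbe')
      obtain ⟨i, hi⟩ := (endK_iff G ⟨p, ha0, haF⟩).2 hae'
      obtain ⟨j, hj⟩ := (endK_iff G ⟨q, hb0, hbF⟩).2 hbe'
      have hXG : endK G false ∈ X ↔ endK G true ∈ X :=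
        hX G ((fcS_iff G (F := ⟨F, hF⟩) hFs).2 hsubF)
      have e1 : φ' p ↔ endK G i ∈ X := by rw [hi]; exact hφ' ⟨p, ha0, haF⟩
      have e2 : φ' q ↔ endK G j ∈ X := by rw [hj]; exact hφ' ⟨q, hb0, hbF⟩
      show φ' p = φ' q
      refine propext (e1.trans (Iff.trans ?_ e2.symm))
      cases i <;> cases j
      · exact Iff.rfl
      · exact hXG
      · exact hXG.symm
      · exact Iff.rfl) (endK e b).1 (by
        rw [← F.set_eq]; exact heF ((endK_iff e _).1 ⟨b, rfl⟩)) (endK e' b').1 (by
        rw [← F.set_eq]; exact heF' ((endK_iff e' _).1 ⟨b', rfl⟩)) (endK e b).2.1 (endK e' b').2.1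
    exact (hφ' _).1 (h1 ▸ (hφ' _).2 hb)

end ShellProps

end Crest.Agent.R096.Msh_715
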