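import Crest.Agent.R096.Ess1_95
import Crest.Agent.R096.Lab6_184
import Crest.Agent.R096.Mrg6_715
import Crest.Agent.R096.Door10_501

/-!
# Row 96, DOORS, (E-S) (helper95), part 2: the equality for a sheet of a global state and a core

`ess_gst`   : `curve_eq` for `s : GSt (meshC T h3) fam`, a merged cell `k` of `π` and 501's `Psi`;
`ess_shell` : the same with labels on the vertices of 715's shell of a core.
-/

set_option autoImplicit false

open Set Topology Filter Metric Module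
open scoped Classical

namespace Crest.Agent.R096.Ess2_95

open Crest.Agent.R096.Msh_715 Crest.Agent.R096.Coh_184 Crest.Agent.R096.Lab_184
  Crest.Agent.R096.Main_4 Crest.Agent.R096.Ess1_95 Crest.Agent.R096.Agl5_543
  Crest.Agent.R096.Seq_213 Crest.Agent.R096.St_147 Crest.Agent.R096.Door_501

variable {E : Type} [NormedAddCommGroup E] [NormedSpace ℝ E] [FiniteDimensional ℝ E]
variable {Om : Set E} {ι : Type} {T : Tiling Om ι} {ι' J C : Type} {fam : J → C}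

/-- a 2-cell is inner iff both its tiles are inside -/
theorem inn_iff_sides (h3 : finrank ℝ E = 3) {K : Set E} (hK : Core K) (hKO : K ⊆ Om)
    (hs : ∀ x ∈ frontier K, T.cc x ⊆ frontier K) (F : C2 T) :
    Inn T K F.pt ↔ ∀ q ∈ F.side h3, P (T.H q) ⊆ K := by
  constructor
  · rintro ⟨y, hy, hyK⟩ q hq
    rw [← F.set_eq] at hy
    exact T.sub_of_mem_interior hK.closed hs (C2.sub_tile (h3 := h3) hq hy) hyK
  · intro h
    have hs' : SubK T K := ⟨hK.closed, hs⟩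
    have hne : ∃ q, q ∈ F.side h3 := by
      induction F.side h3 using Sym2.ind with
      | _ x y => exact ⟨x, Sym2.mem_mk_left _ _⟩
    obtain ⟨q, hq⟩ := hne
    rw [Inn, hs'.meet_iff F.pt_mem, ← F.set_eq]
    refine ⟨(C2.sub_tile (h3 := h3) hq).trans (h q hq), fun hf => ?_⟩
    obtain ⟨_, q', hq', hqK⟩ := (T.sub_frontier_iff h3 hK hKO hs F).1 hf
    exact hqK (h q' hq')

omit [FiniteDimensional ℝ E] in
theorem inn_congr {K : Set E} {x y : E} (h : T.cc x = T.cc y) : Inn T K x ↔ Inn T K y := by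
  unfold Inn; rw [h]

section gst

variable {h3 : finrank ℝ E = 3} {s : GSt (meshC T h3) fam} {j : J}

/-- a weight which is constant along the chords of a face has sum zero on this face -/
theorem sum_pair (hon : ∀ w ∈ s.P, s.lab w = j → T.dim w = 1) {g : E → ZMod 2} {F : C2 T}
    (hg : ∀ w, s.At F w → s.lab w = j → g (s.mu F w) = g w) :
    ∑ w ∈ (gPts s j).filter (· ∈ F.set), g w = 0 := by
  have hmem : ∀ w ∈ (gPts s j).filter (· ∈ F.set), s.At F w ∧ s.lab w = j := by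
    intro w hw
    obtain ⟨h1, h2⟩ := Finset.mem_filter.1 hw
    obtain ⟨h4, h5⟩ := mem_gPts.1 h1
    exact ⟨⟨h4, h2, hon w h4 h5⟩, h5⟩
  refine Finset.sum_involution (fun w _ => s.mu F w) (fun w hw => ?_) (fun w hw _ => ?_)
    (fun w hw => ?_) (fun w hw => ?_)
  · obtain ⟨h1, h2⟩ := hmem w hw
    rw [hg w h1 h2]; exact CharTwo.add_self_eq_zero _
  · obtain ⟨h1, h2⟩ := hmem w hw
    exact s.mu_ne h1.1 h1.2
  · obtain ⟨h1, h2⟩ := hmem w hw
    obtain ⟨h4, h5⟩ := s.mu_mem h1.1 h1.2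
    exact Finset.mem_filter.2 ⟨mem_gPts.2 ⟨h4, (s.mu_lab h1.1 h1.2).trans h2⟩, h5.1⟩
  · obtain ⟨h1, h2⟩ := hmem w hw
    exact s.mu_mu h1.1 h1.2

/-- **(E-S) for a sheet of a global state** -/
theorem ess_gst (hon : ∀ w ∈ s.P, s.lab w = j → T.dim w = 1) {K : Set E} (hK : Core K)
    (hKO : K ⊆ Om) (hs : ∀ x ∈ frontier K, T.cc x ⊆ frontier K) {π : ι → ι'} {k : ι'}
    (hπ : ∀ q, π q = k ↔ P (T.H q) ⊆ K) {γ : Set E} {Ψ : E → ZMod 2} (hΨ : Psi s π j k γ Ψ)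
    (hγ : ∀ w ∈ γ, w ∈ frontier K) {lbl lam : E → ZMod 2} (hlam : IsLab T (gPts s j) lam)
    (hlbl : ∀ v, v ∉ frontier K → lbl v = 0)
    (hl : ∀ e ∈ frontier K, T.dim e = 1 → ∀ a b : E, T.cc e = segment ℝ a b →
      lbl a + lbl b = (((gPts s j).filter (fun w => w ∈ γ ∧ w ∈ T.cc e)).card : ZMod 2))
    {S : Set E} (hS : IsCompact S) (hSO : S ⊆ Om) (ht : TrivF (ZMod 2) S)
    {L : Bool → Set E} {l : Bool → ZMod 2} (hL : ∀ c, IsPreconnected (L c)) (hLO : ∀ c, L c ⊆ Om)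
    (hLS : ∀ c i, (P (T.H i) ∩ L c).Nonempty → P (T.H i) ⊆ S)
    (hLQ : ∀ c i, (P (T.H i) ∩ L c).Nonempty → ∀ u ∈ s.P, s.lab u = j → u ∉ P (T.H i))
    (hLl : ∀ c, ∀ v ∈ VM T (L c), v ∈ frontier K → lbl v = l c)
    {Dp Fp : Set E} (hD : IsPreconnected Dp) (hDO : Dp ⊆ Om)
    (hDS : ∀ i, (P (T.H i) ∩ Dp).Nonempty → P (T.H i) ⊆ S)
    (hDK : ∀ i, (P (T.H i) ∩ Dp).Nonempty → P (T.H i) ⊆ interior K)
    {a b : ZMod 2} (hDa : ∀ i, (P (T.H i) ∩ Dp).Nonempty → ∀ w ∈ s.P, s.lab w = j →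
      w ∈ P (T.H i) → Ψ w = a)
    (hF : IsPreconnected Fp) (hFO : Fp ⊆ Om)
    (hFS : ∀ i, (P (T.H i) ∩ Fp).Nonempty → P (T.H i) ⊆ S)
    (hFK : ∀ i, (P (T.H i) ∩ Fp).Nonempty → P (T.H i) ∩ K = ∅)
    (hFb : ∀ i, (P (T.H i) ∩ Fp).Nonempty → ∀ w ∈ s.P, s.lab w = j → w ∈ P (T.H i) → Ψ w = b)
    {d f : Bool → E} (hd : ∀ c, d c ∈ VM T (L c) ∧ d c ∈ VM T Dp)
    (hf : ∀ c, f c ∈ VM T (L c) ∧ f c ∈ VM T Fp) (hne : lam (d true) + lam (d false) = 1) :
    l true + l false = a + b := by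
  have hsub : SubK T K := ⟨hK.closed, hs⟩
  have hQ1 : ∀ w ∈ gPts s j, T.dim w = 1 := fun w hw =>
    hon w (mem_gPts.1 hw).1 (mem_gPts.1 hw).2
  have hInn : ∀ x (hx : x ∈ Om) (hd2 : T.dim x = 2), Inn T K x ↔
      InF (meshC T h3) π k (mk2 T hx hd2) := by
    intro x hx hd2
    rw [inn_congr (y := (mk2 T hx hd2).pt) (by rw [← (mk2 T hx hd2).set_eq]; rfl),
      inn_iff_sides h3 hK hKO hs (mk2 T hx hd2)]
    exact forall_congr' fun q => imp_congr Iff.rfl (hπ q).symm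
  refine curve_eq (T := T) h3 hS hSO ht hsub hQ1 hlam (Ψ := Ψ)
    (γ := fun w => if w ∈ γ then 1 else 0) (lbl := lbl) ?_ hlbl ?_ ?_ ?_ hL hLO hLS
    (fun c i hi u hu => hLQ c i hi u (mem_gPts.1 hu).1 (mem_gPts.1 hu).2) hLl hD hDO hDS hDK
    (fun i hi w hw => hDa i hi w (mem_gPts.1 hw).1 (mem_gPts.1 hw).2) hF hFO hFS hFK
    (fun i hi w hw => hFb i hi w (mem_gPts.1 hw).1 (mem_gPts.1 hw).2) hd hf hne
  · intro w _ hwf
    exact if_neg fun h => hwf (hγ w h)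
  · intro q _ e he h1 hef a b hab
    rw [hl e (hef (T.self_mem_cc e)) h1 a b hab, Finset.card_eq_sum_ones, Nat.cast_sum,
      ← Finset.sum_filter, Finset.filter_filter, Nat.cast_one]
    refine Finset.sum_congr ?_ fun _ _ => rfl
    ext w
    simp only [Finset.mem_filter]
    tauto
  · intro q _ x hx hd2 hin
    have hxO := T.sub q hx
    have h1 := sum_pair (s := s) (j := j) hon (g := Ψ) (F := mk2 T hxO hd2)
      (fun w hw hlw => hΨ.out hw hlw (fun h => hin ((hInn x hxO hd2).2 h)))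
    exact h1
  · intro q _ x hx hd2 hin
    have hxO := T.sub q hx
    have h1 := sum_pair (s := s) (j := j) hon (g := fun w => Ψ w + if w ∈ γ then 1 else 0)
      (F := mk2 T hxO hd2) (fun w hw hlw => by
        have h2 := hΨ (mk2 T hxO hd2) w hw hlw
        rw [if_pos ((hInn x hxO hd2).1 hin)] at h2
        have e3 : ∀ p q r t : ZMod 2, p + q = r + t → q + t = p + r := by decide
        exact e3 _ _ _ _ h2)
    exact h1

end gst

/-! ### labels on the shell of a core -/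

section shell

variable {κ : Type} {Kc : κ → Set E} {h3 : finrank ℝ E = 3} {hH : ∀ c, CoreH T (Kc c)}
  {hdis : ∀ c c', c ≠ c' → Disjoint (Kc c) (Kc c')}
variable {s : GSt (meshC T h3) fam} {j : J} {c : κ}

/-- extension by zero of a function on the vertices of the core -/
noncomputable def ext0 (A : VxK T Kc c → ZMod 2) (v : E) : ZMod 2 :=
  if h : T.dim v = 0 ∧ v ∈ frontier (Kc c) then A ⟨v, h⟩ else 0

omit [FiniteDimensional ℝ E] in
theorem ext0_eq (A : VxK T Kc c → ZMod 2) (v : VxK T Kc c) : ext0 A v.1 = A v :=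
  dif_pos v.2

/-- **(E-S) for the shell of a core** : `y` = the points of the curve, `A` = its labels -/
theorem ess_shell (hon : ∀ w ∈ s.P, s.lab w = j → T.dim w = 1) {y : Finset E} {Ψ : E → ZMod 2}
    (hΨ : Psi s (piK T Kc) j (Sum.inr c) (y : Set E) Ψ)
    (hy : ∀ w ∈ y, w ∈ s.P ∧ s.lab w = j ∧ w ∈ frontier (Kc c))
    {A : VxK T Kc c → ZMod 2}
    (hA : ∀ e : EdK T Kc c, A ((shellH h3 hH hdis c).en e false) +
      A ((shellH h3 hH hdis c).en e true) =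
        ((y.filter fun w => w ∈ (shellH h3 hH hdis c).OnE e).card : ZMod 2))
    {lam : E → ZMod 2} (hlam : IsLab T (gPts s j) lam)
    {S : Set E} (hS : IsCompact S) (hSO : S ⊆ Om) (ht : TrivF (ZMod 2) S)
    {L : Bool → Set E} {l : Bool → ZMod 2} (hL : ∀ c, IsPreconnected (L c)) (hLO : ∀ c, L c ⊆ Om)
    (hLS : ∀ c i, (P (T.H i) ∩ L c).Nonempty → P (T.H i) ⊆ S)
    (hLQ : ∀ c i, (P (T.H i) ∩ L c).Nonempty → ∀ u ∈ s.P, s.lab u = j → u ∉ P (T.H i))
    (hLl : ∀ c', ∀ v : VxK T Kc c, v.1 ∈ VM T (L c') → A v = l c')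
    {Dp Fp : Set E} (hD : IsPreconnected Dp) (hDO : Dp ⊆ Om)
    (hDS : ∀ i, (P (T.H i) ∩ Dp).Nonempty → P (T.H i) ⊆ S)
    (hDK : ∀ i, (P (T.H i) ∩ Dp).Nonempty → P (T.H i) ⊆ interior (Kc c))
    {a b : ZMod 2} (hDa : ∀ i, (P (T.H i) ∩ Dp).Nonempty → ∀ w ∈ s.P, s.lab w = j →
      w ∈ P (T.H i) → Ψ w = a)
    (hF : IsPreconnected Fp) (hFO : Fp ⊆ Om)
    (hFS : ∀ i, (P (T.H i) ∩ Fp).Nonempty → P (T.H i) ⊆ S)
    (hFK : ∀ i, (P (T.H i) ∩ Fp).Nonempty → P (T.H i) ∩ Kc c = ∅)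
    (hFb : ∀ i, (P (T.H i) ∩ Fp).Nonempty → ∀ w ∈ s.P, s.lab w = j → w ∈ P (T.H i) → Ψ w = b)
    {d f : Bool → E} (hd : ∀ c, d c ∈ VM T (L c) ∧ d c ∈ VM T Dp)
    (hf : ∀ c, f c ∈ VM T (L c) ∧ f c ∈ VM T Fp) (hne : lam (d true) + lam (d false) = 1) :
    l true + l false = a + b := by
  obtain ⟨γ, hγ⟩ : ∃ γ : Set E, ∀ w, w ∈ γ ↔ w ∈ y := ⟨(y : Set E), fun w => Finset.mem_coe⟩
  have hγ' : (y : Set E) = γ := Set.ext fun w => Finset.mem_coe.trans (hγ w).symm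
  rw [hγ'] at hΨ
  refine ess_gst (s := s) (j := j) hon (hH c).core (hH c).sub (hH c).cc (π := piK T Kc)
    (k := Sum.inr c) (fun q => piK_inr hdis) hΨ (fun w hw => (hy w ((hγ w).1 hw)).2.2)
    (lbl := ext0 A) hlam ?_ ?_ hS hSO ht hL hLO hLS hLQ ?_ hD hDO hDS hDK hDa hF hFO hFS hFK hFb
    hd hf hne
  · intro v hv
    exact dif_neg fun h => hv h.2
  · intro e he h1 p q hpq
    have heO : e ∈ Om := (hH c).sub ((hH c).core.closed.frontier_subset he)
    set e' : EdK T Kc c := edK T Kc (fun c => (hH c).cc) heO he h1 with he'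
    have hset : e'.1.set = T.cc e := rfl
    have h5 := hA e'
    have hends := T.dim_ends heO h1 hpq
    obtain ⟨hp0, hq0, hpe, hqe, -⟩ := hends
    have hpf := (hH c).cc e he hpe
    have hqf := (hH c).cc e he hqe
    have hpne : p ≠ q := (Lab_184.ends_of_segment heO h1 hpq).1
    -- the two ends of the edge are `p` and `q`
    have hen : ∀ bb, ((shellH h3 hH hdis c).en e' bb) = endK e' bb := fun _ => rfl
    rw [hen, hen] at h5
    have m0 := (endK_iff e' (⟨p, hp0, hpf⟩ : VxK T Kc c)).2 hpe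
    have m1 := (endK_iff e' (⟨q, hq0, hqf⟩ : VxK T Kc c)).2 hqe
    have e1 : ext0 A p = A ⟨p, hp0, hpf⟩ := dif_pos ⟨hp0, hpf⟩
    have e2 : ext0 A q = A ⟨q, hq0, hqf⟩ := dif_pos ⟨hq0, hqf⟩
    have hsum : ext0 A p + ext0 A q = A (endK e' false) + A (endK e' true) := by
      obtain ⟨b0, hb0⟩ := m0
      obtain ⟨b1, hb1⟩ := m1
      rw [e1, e2, ← hb0, ← hb1]
      have hbb : b0 ≠ b1 := by
        rintro rfl
        apply hpne
        have := hb0.symm.trans hb1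
        exact congrArg Subtype.val this
      cases b0 <;> cases b1
      · exact absurd rfl hbb
      · rfl
      · exact add_comm _ _
      · exact absurd rfl hbb
    rw [hsum, h5]
    show (((y.filter fun w => w ∈ (shellH h3 hH hdis c).OnE e').card : ℕ) : ZMod 2) = _
    congr 2
    ext w
    have hOn : w ∈ (shellH h3 hH hdis c).OnE e' ↔ w ∈ T.oc e := by
      show w ∈ e'.1.opn ↔ _
      rw [show e'.1.opn = (T.cl heO).opn from rfl, T.opn_cl heO]
    constructor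
    · intro hh
      obtain ⟨h6, h7⟩ := Finset.mem_filter.1 hh
      obtain ⟨g1, g2, _⟩ := hy w h6
      exact Finset.mem_filter.2 ⟨mem_gPts.2 ⟨g1, g2⟩, (hγ w).2 h6,
        T.oc_sub_cc e (hOn.1 h7)⟩
    · intro hh
      obtain ⟨h6, h7, h8⟩ := Finset.mem_filter.1 hh
      obtain ⟨g1, g2⟩ := mem_gPts.1 h6
      exact Finset.mem_filter.2 ⟨(hγ w).1 h7,
        hOn.2 (Tiling.cl_eq_of_dim1 heO h1 h8 (hon w g1 g2))⟩
  · intro c' v hv hvf
    have h0 : T.dim v = 0 := hv.1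
    have e1 : ext0 A v = A ⟨v, h0, hvf⟩ := dif_pos ⟨h0, hvf⟩
    rw [e1]
    exact hLl c' ⟨v, h0, hvf⟩ hv

end shell

end Crest.Agent.R096.Ess2_95
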