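import Crest.Agent.R096.Mrg5_715
import Crest.Agent.R096.Cel1_715

/-!
# R096 (row 96), DOORS-SIGC: paths of 1-cells on the surface of a core (helper838)

`Z` a preconnected subset of the frontier of `K`: two vertices of two 2-cells of the frontier which
meet `Z` are joined by 1-cells of 2-cells of the frontier which meet `Z`.
-/

set_option autoImplicit false

open Set Metric Filter Topology Module
open scoped Classical

namespace Crest.Agent.R096.Sgc1_838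

open Msh_715 St_147 Agl5_543 Coh_184

section Gen

variable {E : Type*} [NormedAddCommGroup E] [NormedSpace ℝ E] [FiniteDimensional ℝ E]
variable {Om : Set E} {ι : Type*} (T : Tiling Om ι)

/-- the union of the 2-cells of the frontier of `K` which meet `Z` -/
def Cov (K Z : Set E) : Set E :=
  {x | ∃ y ∈ frontier K, T.dim y = 2 ∧ (T.cc y ∩ Z).Nonempty ∧ x ∈ T.cc y}

omit [FiniteDimensional ℝ E] in
theorem Cov_sub_Om {K Z : Set E} (hKf : frontier K ⊆ Om) : Cov T K Z ⊆ Om := by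
  rintro x ⟨y, hy, -, -, hx⟩
  exact T.cc_sub_Om (hKf hy) hx

omit [FiniteDimensional ℝ E] in
theorem Cov_cc {K Z : Set E} : ∀ x ∈ Cov T K Z, T.cc x ⊆ Cov T K Z := by
  rintro x ⟨y, hy, h2, hZ, hx⟩ w hw
  exact ⟨y, hy, h2, hZ, T.cc_sub_of_mem hx hw⟩

omit [FiniteDimensional ℝ E] in
theorem sub_Cov {K Z : Set E} (h2 : ∀ x ∈ frontier K, ∃ y ∈ frontier K, T.dim y = 2 ∧ x ∈ T.cc y)
    (hZK : Z ⊆ frontier K) : Z ⊆ Cov T K Z := by
  intro x hx
  obtain ⟨y, hy, hy2, hxy⟩ := h2 x (hZK hx)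
  exact ⟨y, hy, hy2, ⟨x, hxy, hx⟩, hxy⟩

omit [FiniteDimensional ℝ E] in
theorem isPreconnected_Cov {K Z : Set E}
    (h2 : ∀ x ∈ frontier K, ∃ y ∈ frontier K, T.dim y = 2 ∧ x ∈ T.cc y)
    (hZ : IsPreconnected Z) (hZK : Z ⊆ frontier K) : IsPreconnected (Cov T K Z) := by
  rcases Z.eq_empty_or_nonempty with rfl | ⟨z0, hz0⟩
  · have : Cov T K (∅ : Set E) = ∅ := by
      rw [Set.eq_empty_iff_forall_notMem]
      rintro x ⟨y, -, -, ⟨w, -, hw⟩, -⟩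
      exact hw
    rw [this]
    exact isPreconnected_empty
  · refine isPreconnected_of_forall z0 ?_
    rintro x ⟨y, hy, hy2, ⟨w, hwy, hwZ⟩, hx⟩
    refine ⟨Z ∪ T.cc y, ?_, Or.inl hz0, Or.inr hx, ?_⟩
    · rintro a (ha | ha)
      · exact sub_Cov T h2 hZK ha
      · exact ⟨y, hy, hy2, ⟨w, hwy, hwZ⟩, ha⟩
    · exact IsPreconnected.union w hwZ hwy hZ (T.convex_cc y).isPreconnected

/-- a 1-cell (with ends `a`, `b`) of a 2-cell of the frontier of `K` which meets `Z` -/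
abbrev Stp (K Z : Set E) (a b : E) : Prop :=
  ∃ y ∈ frontier K, T.dim y = 2 ∧ (T.cc y ∩ Z).Nonempty ∧
    ∃ w ∈ T.cc y, T.dim w = 1 ∧ T.cc w = segment ℝ a b

/-- **SIG**: vertices of 2-cells of the frontier which meet the preconnected set `Z` are joined by
1-cells of such 2-cells -/
theorem sig_path {K : Set E} (hK : IsCompact K) (hKO : K ⊆ Om)
    (hcc : ∀ x ∈ frontier K, T.cc x ⊆ frontier K)
    (h2 : ∀ x ∈ frontier K, ∃ y ∈ frontier K, T.dim y = 2 ∧ x ∈ T.cc y)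
    {Z : Set E} (hZ : IsPreconnected Z) (hZK : Z ⊆ frontier K) {v v' y y' : E}
    (hy : y ∈ frontier K) (hy2 : T.dim y = 2) (hyZ : (T.cc y ∩ Z).Nonempty) (hv : v ∈ T.cc y)
    (hv0 : T.dim v = 0)
    (hy' : y' ∈ frontier K) (hy2' : T.dim y' = 2) (hyZ' : (T.cc y' ∩ Z).Nonempty)
    (hv' : v' ∈ T.cc y') (hv0' : T.dim v' = 0) :
    Relation.ReflTransGen (fun a b => ∃ y ∈ frontier K, T.dim y = 2 ∧ (T.cc y ∩ Z).Nonempty ∧
      ∃ w ∈ T.cc y, T.dim w = 1 ∧ T.cc w = segment ℝ a b) v v' := by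
  have _ := hcc
  have hKf : frontier K ⊆ Om := hK.isClosed.frontier_subset.trans hKO
  have h1 := T.const_of_preconnected (φ := fun z => Relation.ReflTransGen (Stp T K Z) v z)
    (isPreconnected_Cov T h2 hZ hZK) (Cov_sub_Om T hKf) (Cov_cc T)
    (fun e he h1 a b hab => by
      obtain ⟨u, hu, hu2, huZ, heu⟩ := he
      have hs : Stp T K Z a b := ⟨u, hu, hu2, huZ, e, heu, h1, hab⟩
      have hs' : Stp T K Z b a := ⟨u, hu, hu2, huZ, e, heu, h1, by rw [hab, segment_symm]⟩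
      exact propext ⟨fun h => h.tail hs, fun h => h.tail hs'⟩)
    v ⟨y, hy, hy2, hyZ, hv⟩ v' ⟨y', hy', hy2', hyZ', hv'⟩ hv0 hv0'
  have h3 : Relation.ReflTransGen (Stp T K Z) v v := Relation.ReflTransGen.refl
  exact (show (Relation.ReflTransGen (Stp T K Z) v v) = Relation.ReflTransGen (Stp T K Z) v v'
    from h1) ▸ h3

/-- a label which is constant along these 1-cells is constant -/
theorem sig_const {A : Type*} {K : Set E} (hK : IsCompact K) (hKO : K ⊆ Om)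
    (hcc : ∀ x ∈ frontier K, T.cc x ⊆ frontier K)
    (h2 : ∀ x ∈ frontier K, ∃ y ∈ frontier K, T.dim y = 2 ∧ x ∈ T.cc y)
    {Z : Set E} (hZ : IsPreconnected Z) (hZK : Z ⊆ frontier K) {lbl : E → A}
    (hl : ∀ y ∈ frontier K, T.dim y = 2 → (T.cc y ∩ Z).Nonempty → ∀ w ∈ T.cc y, T.dim w = 1 →
      ∀ a b : E, T.cc w = segment ℝ a b → lbl a = lbl b) {v v' y y' : E}
    (hy : y ∈ frontier K) (hy2 : T.dim y = 2) (hyZ : (T.cc y ∩ Z).Nonempty) (hv : v ∈ T.cc y)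
    (hv0 : T.dim v = 0)
    (hy' : y' ∈ frontier K) (hy2' : T.dim y' = 2) (hyZ' : (T.cc y' ∩ Z).Nonempty)
    (hv' : v' ∈ T.cc y') (hv0' : T.dim v' = 0) : lbl v = lbl v' := by
  have h := sig_path T hK hKO hcc h2 hZ hZK hy hy2 hyZ hv hv0 hy' hy2' hyZ' hv' hv0'
  clear hv' hv0'
  induction h with
  | refl => rfl
  | tail _ hs ih =>
    obtain ⟨u, hu, hu2, huZ, w, hw, hw1, hab⟩ := hs
    exact ih.trans (hl u hu hu2 huZ w hw hw1 _ _ hab)

/-- the `ZMod 2` form: `lbl a + lbl b = 0` along the 1-cells of the 2-cells which meet `Z` -/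
theorem sig_lbl {K : Set E} (hK : IsCompact K) (hKO : K ⊆ Om)
    (hcc : ∀ x ∈ frontier K, T.cc x ⊆ frontier K)
    (h2 : ∀ x ∈ frontier K, ∃ y ∈ frontier K, T.dim y = 2 ∧ x ∈ T.cc y)
    {Z : Set E} (hZ : IsPreconnected Z) (hZK : Z ⊆ frontier K) {lbl : E → ZMod 2}
    (hl : ∀ y ∈ frontier K, T.dim y = 2 → (T.cc y ∩ Z).Nonempty → ∀ w ∈ T.cc y, T.dim w = 1 →
      ∀ a b : E, T.cc w = segment ℝ a b → lbl a + lbl b = 0) {v v' y y' : E}
    (hy : y ∈ frontier K) (hy2 : T.dim y = 2) (hyZ : (T.cc y ∩ Z).Nonempty) (hv : v ∈ T.cc y)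
    (hv0 : T.dim v = 0)
    (hy' : y' ∈ frontier K) (hy2' : T.dim y' = 2) (hyZ' : (T.cc y' ∩ Z).Nonempty)
    (hv' : v' ∈ T.cc y') (hv0' : T.dim v' = 0) : lbl v = lbl v' :=
  sig_const T hK hKO hcc h2 hZ hZK (fun y hy h2 hZ w hw h1 a b hab =>
    CharTwo.add_eq_zero.1 (hl y hy h2 hZ w hw h1 a b hab)) hy hy2 hyZ hv hv0 hy' hy2' hyZ' hv' hv0'

/-- the two 2-cells carry base points of `Z`: version with points `z`, `z'` of `Z` -/
theorem sig_lbl_pt {K : Set E} (hK : IsCompact K) (hKO : K ⊆ Om)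
    (hcc : ∀ x ∈ frontier K, T.cc x ⊆ frontier K)
    (h2 : ∀ x ∈ frontier K, ∃ y ∈ frontier K, T.dim y = 2 ∧ x ∈ T.cc y)
    {Z : Set E} (hZ : IsPreconnected Z) (hZK : Z ⊆ frontier K) {lbl : E → ZMod 2}
    (hl : ∀ y ∈ frontier K, T.dim y = 2 → (T.cc y ∩ Z).Nonempty → ∀ w ∈ T.cc y, T.dim w = 1 →
      ∀ a b : E, T.cc w = segment ℝ a b → lbl a + lbl b = 0) {v v' z z' : E}
    (hz : z ∈ Z) (hz' : z' ∈ Z) (hv : v ∈ T.cc z) (hv' : v' ∈ T.cc z')
    (hv0 : T.dim v = 0) (hv0' : T.dim v' = 0) : lbl v = lbl v' := by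
  obtain ⟨y, hy, hy2, hzy⟩ := h2 z (hZK hz)
  obtain ⟨y', hy', hy2', hzy'⟩ := h2 z' (hZK hz')
  exact sig_lbl T hK hKO hcc h2 hZ hZK hl hy hy2 ⟨z, hzy, hz⟩ (T.cc_sub_of_mem hzy hv) hv0
    hy' hy2' ⟨z', hzy', hz'⟩ (T.cc_sub_of_mem hzy' hv') hv0'

end Gen

section Surface

variable {E : Type} [NormedAddCommGroup E] [NormedSpace ℝ E] [FiniteDimensional ℝ E]
variable {Om : Set E} {ι : Type} {T : Tiling Om ι}

/-- **(h2) for a core**: every point of the frontier is on a 2-cell of the frontier -/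
theorem coreH_face (h3 : finrank ℝ E = 3) {K : Set E} (hH : CoreH T K) :
    ∀ x ∈ frontier K, ∃ y ∈ frontier K, T.dim y = 2 ∧ x ∈ T.cc y := by
  intro x hx
  obtain ⟨F, hF, hxF⟩ := exists_face (T := T) (κ := Unit) (Kc := fun _ => K) h3 (fun _ => hH)
    (c := ()) hx
  refine ⟨F.pt, hF (F.1.opn_sub (T.self_mem_oc _)), F.dim_pt, ?_⟩
  rw [← F.set_eq]
  exact hxF

/-- `sig_path` for a core -/
theorem sig_pathH (h3 : finrank ℝ E = 3) {K : Set E} (hH : CoreH T K)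
    {Z : Set E} (hZ : IsPreconnected Z) (hZK : Z ⊆ frontier K) {v v' y y' : E}
    (hy : y ∈ frontier K) (hy2 : T.dim y = 2) (hyZ : (T.cc y ∩ Z).Nonempty) (hv : v ∈ T.cc y)
    (hv0 : T.dim v = 0)
    (hy' : y' ∈ frontier K) (hy2' : T.dim y' = 2) (hyZ' : (T.cc y' ∩ Z).Nonempty)
    (hv' : v' ∈ T.cc y') (hv0' : T.dim v' = 0) :
    Relation.ReflTransGen (fun a b => ∃ y ∈ frontier K, T.dim y = 2 ∧ (T.cc y ∩ Z).Nonempty ∧
      ∃ w ∈ T.cc y, T.dim w = 1 ∧ T.cc w = segment ℝ a b) v v' :=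
  sig_path T hH.cpt hH.sub hH.cc (coreH_face h3 hH) hZ hZK hy hy2 hyZ hv hv0 hy' hy2' hyZ' hv' hv0'

/-- `sig_lbl` for a core -/
theorem sig_lblH (h3 : finrank ℝ E = 3) {K : Set E} (hH : CoreH T K)
    {Z : Set E} (hZ : IsPreconnected Z) (hZK : Z ⊆ frontier K) {lbl : E → ZMod 2}
    (hl : ∀ y ∈ frontier K, T.dim y = 2 → (T.cc y ∩ Z).Nonempty → ∀ w ∈ T.cc y, T.dim w = 1 →
      ∀ a b : E, T.cc w = segment ℝ a b → lbl a + lbl b = 0) {v v' y y' : E}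
    (hy : y ∈ frontier K) (hy2 : T.dim y = 2) (hyZ : (T.cc y ∩ Z).Nonempty) (hv : v ∈ T.cc y)
    (hv0 : T.dim v = 0)
    (hy' : y' ∈ frontier K) (hy2' : T.dim y' = 2) (hyZ' : (T.cc y' ∩ Z).Nonempty)
    (hv' : v' ∈ T.cc y') (hv0' : T.dim v' = 0) : lbl v = lbl v' :=
  sig_lbl T hH.cpt hH.sub hH.cc (coreH_face h3 hH) hZ hZK hl hy hy2 hyZ hv hv0
    hy' hy2' hyZ' hv' hv0'

/-- every 2-cell has a vertex, and the vertices of the cells through `z` lie in the frontier -/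
theorem exists_vtx {K : Set E} (hH : CoreH T K) {z : E} (hz : z ∈ frontier K) :
    ∃ v ∈ T.cc z, T.dim v = 0 ∧ v ∈ frontier K := by
  obtain ⟨v, hv, hv0⟩ := T.exists_vertex (hH.sub (hH.cpt.isClosed.frontier_subset hz))
  exact ⟨v, hv, hv0, hH.cc z hz hv⟩

end Surface

end Crest.Agent.R096.Sgc1_838
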