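import Crest.Agent.R096.Ess2_95
import Crest.Agent.R096.Twr9_438
import Crest.Agent.R096.Sps4_333
import Crest.Agent.R096.Sgc1_838

/-!
# Row 96, DOORS, (E-S) (helper95), part 3: CARRY for the truthful state; the trace and its curves

* `Car s j Sj`   : points of the sheet `j` in a connected subset `G` of the level set `Sj` are joined
  by chords on faces of tiles which meet `G`;
* `car_gmain`    : it holds for the main state of a family of regular levels with trivial torsors;
* `comp_crv`     : the components of the trace of the outer state are 501's curves `crv`.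
-/

set_option autoImplicit false

open Set Topology Filter Metric Module
open scoped Classical

namespace Crest.Agent.R096.Ess3_95

open Crest.Agent.R096.Msh_715 Crest.Agent.R096.Coh_184 Crest.Agent.R096.Lab_184
  Crest.Agent.R096.Main_4 Crest.Agent.R096.Agl4_543 Crest.Agent.R096.Agl5_543
  Crest.Agent.R096.Agl6_543 Crest.Agent.R096.Ginv_543 Crest.Agent.R096.Jn_890
  Crest.Agent.R096.Seq_213 Crest.Agent.R096.St_147 Crest.Agent.R096.Door_501
  Crest.Agent.R096.Twr_438 Crest.Agent.R096.Ess1_95

section car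

variable {E : Type} [NormedAddCommGroup E] [NormedSpace ℝ E] [FiniteDimensional ℝ E]
variable {Om : Set E} {ι : Type} {T : Tiling Om ι} {J C : Type} {fam : J → C}
variable {h3 : finrank ℝ E = 3}

/-- one step along a chord of a face of a tile which meets `G` -/
def GSt1 (s : GSt (meshC T h3) fam) (G : Set E) (a b : E) : Prop :=
  ∃ F : C2 T, (∃ q ∈ F.side h3, (P (T.H q) ∩ G).Nonempty) ∧ s.At F a ∧ b = s.mu F a

/-- chord paths of the sheet `j` along connected subsets of `Sj` -/
def Car (s : GSt (meshC T h3) fam) (j : J) (Sj : Set E) : Prop :=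
  ∀ G : Set E, IsPreconnected G → G ⊆ Sj → ∀ w ∈ G, ∀ w' ∈ G, w ∈ s.P → s.lab w = j → w' ∈ s.P →
    s.lab w' = j → Relation.ReflTransGen (GSt1 s G) w w'

variable {u : J → E → ℝ} {lv : J → ℝ} {S : J → Set E} [Nonempty J]

/-- **CARRY for the main state** -/
theorem car_gmain (h : GFam T u lv S fam) {b : J → E} (hb : ∀ j, b j ∈ S j ∧ T.dim (b j) ≤ 1)
    (j : J) (ht : TrivF (ZMod 2) (S j)) : Car (gmain (h.gst h3) b) j (S j) := by
  intro G hG hGS w hw w' hw' hwP hwl hw'P hw'l
  set P : Finset E := ((h.lev j).finite_P h3).toFinset with hPdef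
  have hP : ∀ x, x ∈ P ↔ x ∈ S j ∧ T.dim x ≤ 1 := fun x => Set.Finite.mem_toFinset _
  have hbj : b j ∈ P := (hP _).2 (hb j)
  have hbb : ∀ i, b i ∈ (h.gst h3).P ∧ (h.gst h3).lab (b i) = i := fun i =>
    ⟨⟨i, (hb i).1, (hb i).2⟩, h.lab_eq (hb i).1 (hb i).2⟩
  have hcls : ∀ x, x ∈ (gmain (h.gst h3) b).P → (gmain (h.gst h3) b).lab x = j →
      x ∈ cls T (S j) P (b j) := by
    rintro x ⟨_, i, hi⟩ hxl
    have h1 := (gcomp_lab hbb hi).2
    have h2 : (h.gst h3).lab x = j := hxl
    rw [h2] at h1
    subst h1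
    exact (reflTransGen_gstep_iff h h3 hP hbj).1 hi
  have hxc := hcls w hwP hwl
  have hyc := hcls w' hw'P hw'l
  have hpath : Relation.ReflTransGen (Step (S j) (fun i => Msh_715.P (T.H i)) P) w w' := by
    have h1 := (mem_cls.1 hxc).2
    have h2 := (mem_cls.1 hyc).2
    have hsym : ∀ x y, Relation.ReflTransGen (St T (S j) P) x y →
        Relation.ReflTransGen (St T (S j) P) y x := by
      intro x y hxy
      induction hxy with
      | refl => exact .refl
      | tail _ hs ih => exact Relation.ReflTransGen.head (Step.symm hs) ih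
    exact (hsym _ _ h1).trans h2
  have hSH := (h.lev j).sheetHyp h3 hP
  have hGW : G ⊆ un (fun i => Msh_715.P (T.H i)) {i | (Msh_715.P (T.H i) ∩ G).Nonempty} ∩ S j := by
    intro x hx
    refine ⟨?_, hGS hx⟩
    obtain ⟨i, hi⟩ := T.cov x ((h.lev j).sub (hGS hx))
    exact mem_un.2 ⟨i, ⟨x, hi, hx⟩, hi⟩
  have hin := Spp_333.carry_fin hSH (ht.all Bool) {i | (Msh_715.P (T.H i) ∩ G).Nonempty} hG hGW hw
    hw' hpath
  -- every step is a chord of the state
  have key : ∀ x, Relation.ReflTransGen (InStep (S j) (fun i => Msh_715.P (T.H i)) P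
      {i | (Msh_715.P (T.H i) ∩ G).Nonempty}) w x →
      Relation.ReflTransGen (GSt1 (gmain (h.gst h3) b) G) w x ∧ x ∈ (gmain (h.gst h3) b).P ∧
        x ∈ S j := by
    intro x hx
    induction hx with
    | refl => exact ⟨.refl, hwP, hGS hw⟩
    | @tail y z _ hs ih =>
      obtain ⟨i1, i2, i3⟩ := ih
      by_cases hyz : y = z
      · rw [← hyz]; exact ⟨i1, i2, i3⟩
      · obtain ⟨q, hq, q', hch⟩ := hs
        obtain ⟨x0, hx0, hd, hat, hcc⟩ := (h.lev j).chord_cell h3 hP (Ne.symm hyz) hch
        set F : C2 T := mk2 T hx0 hd with hFdef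
        have hFset : F.set = T.cc x0 := rfl
        have ha := (hP y).1 hch.left
        have hb' := (hP z).1 hch.right
        have haF : y ∈ F.On := by
          refine ⟨by rw [hFset, hcc]; exact hch.mem.2, ?_⟩
          have := (h.lev j).vert y ha.1
          have := ha.2
          omega
        have hbF : z ∈ F.On := by
          refine ⟨by rw [hFset, hcc]; exact hch.mem_right.2, ?_⟩
          have := (h.lev j).vert z hb'.1
          have := hb'.2
          omega
        have hlab : labf S y = j := h.lab_eq ha.1 ha.2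
        have hmu : z = h.mu h3 F y := by
          refine (h.mu_spec h3 ⟨j, ha⟩ haF).2 z (Ne.symm hyz) (by rw [hlab]; exact hb'.1) hbF ?_
          rw [hlab, hFset, hcc]
          exact hch.conn
        have hAt : (gmain (h.gst h3) b).At F y := ⟨i2, haF⟩
        have hq' : q ∈ F.side h3 := by
          have hFpt : F.pt ∈ T.oc x0 := T.pt_cl hx0
          rw [C2.mem_side, T.at_eq_of_mem_oc hx0 hFpt, hat]
          exact Or.inl rfl
        refine ⟨i1.tail ⟨F, ⟨q, hq', hq⟩, hAt, hmu⟩, ?_, hb'.1⟩
        rw [hmu]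
        exact ((gmain (h.gst h3) b).mu_mem hAt.1 hAt.2).1
  exact (key w' hin).1

end car

/-! ### the trace of the outer state -/

section tr

variable {E : Type} [NormedAddCommGroup E] [NormedSpace ℝ E] [FiniteDimensional ℝ E]
variable {Om : Set E} {ι : Type} {T : Tiling Om ι} {J C : Type} {fam : J → C}
variable {κ : Type} {Kc : κ → Set E} {h3 : finrank ℝ E = 3} (hH : ∀ c, CoreH T (Kc c))
  (hdis : ∀ c c', c ≠ c' → Disjoint (Kc c) (Kc c'))

/-- the outer state on the mesh with giant cells -/
noncomputable abbrev outK (s : GSt (meshC T h3) fam) (r : J → E) :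
    GSt (meshK T h3 Kc (fun c => (hH c).core) (fun c => (hH c).cc) hdis) fam :=
  outer s (piK T Kc) (connAt_piK h3 (fun c => (hH c).core) (fun c => (hH c).cc) hdis) r

/-- the trace of the sheets of the family `a` on the sphere of the core `c` -/
noncomputable abbrev trc (s : GSt (meshC T h3) fam) (r : J → E) (c : κ) (a : C) :
    St (shellH h3 hH hdis c).sph (fun _ : J => true) :=
  trace (shellH h3 hH hdis c) (outK hH hdis s r) a

variable {hH hdis} {s : GSt (meshC T h3) fam} {r : J → E} {c : κ} {a : C}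

theorem mem_trc {w : E} : w ∈ (trc hH hdis s r c a).P ↔ (w ∈ s.P ∧
    Relation.ReflTransGen (OStep s (piK T Kc)) (r (s.lab w)) w) ∧ fam (s.lab w) = a ∧
    ∃ e, w ∈ (shellH h3 hH hdis c).OnE e := mem_trace

theorem onE_fr {e : EdK T Kc c} {w : E} (hw : w ∈ (shellH h3 hH hdis c).OnE e) :
    w ∈ frontier (Kc c) := e.2.2 (e.1.opn_sub hw)

/-- the components of the trace are 501's curves -/
theorem mem_comp_crv {w x : E} (hw : w ∈ (trc hH hdis s r c a).P) :
    x ∈ comp true (trc hH hdis s r c a) w ↔ x ∈ crv s (piK T Kc) (Sum.inr c) w := by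
  constructor
  · intro h
    have h1 := (mem_comp.1 h).2
    clear h
    induction h1 with
    | refl => exact Relation.ReflTransGen.refl
    | @tail y z _ hs ih =>
      obtain ⟨G, _, hy, hyG, rfl⟩ := hs
      refine Relation.ReflTransGen.tail ih ⟨G.1.1, ⟨G.1.2, mem_map_iff.1 G.2⟩, ?_, hyG, rfl⟩
      exact (mem_trc.1 hy).1.1
  · intro h
    have key : x ∈ (trc hH hdis s r c a).P ∧ Rch true (trc hH hdis s r c a) w x := by
      have h1 : Relation.ReflTransGen (FStep s (piK T Kc) (Sum.inr c)) w x := h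
      clear h
      induction h1 with
      | refl => exact ⟨hw, Relation.ReflTransGen.refl⟩
      | @tail y z _ hs ih =>
        obtain ⟨i1, i2⟩ := ih
        obtain ⟨F, hF, hy, hyF, rfl⟩ := hs
        let F' : {F : C2 T // ¬ (((meshC T h3).side F).map (piK T Kc)).IsDiag} := ⟨F, hF.1⟩
        let G : (shellH h3 hH hdis c).Fk := ⟨F', mem_map_iff.2 hF.2⟩
        have h2 := (trc hH hdis s r c a).mu_mem (F := G) i1 hyF
        exact ⟨h2.1, i2.tail ⟨G, Shell.mem_bool_side _, i1, hyF, rfl⟩⟩
    exact mem_comp.2 key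

end tr

end Crest.Agent.R096.Ess3_95
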