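import Crest.Agent.R096.Ess3_95

/-!
# Row 96, DOORS, (E-S) (helper95), part 4: **exactly one essential curve** (`conn_s`, `ex_s` of 438)

`EG s j Sj Kc c v0 v1 r` : the geometric input (sets only) for the sheet `j` and the core `c`.
`ess_unique'`, `ess_exists'` : the curves of the outer state on the sphere of the core which separate
`v0` and `v1` are exactly one.
-/

set_option autoImplicit false

open Set Topology Filter Metric Module
open scoped Classical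

namespace Crest.Agent.R096.Ess4_95

open Crest.Agent.R096.Msh_715 Crest.Agent.R096.Coh_184 Crest.Agent.R096.Lab_184
  Crest.Agent.R096.Main_4 Crest.Agent.R096.Agl5_543
  Crest.Agent.R096.Seq_213 Crest.Agent.R096.St_147 Crest.Agent.R096.Door_501
  Crest.Agent.R096.Twr_438 Crest.Agent.R096.Ess1_95 Crest.Agent.R096.Ess2_95
  Crest.Agent.R096.Ess3_95

variable {E : Type} [NormedAddCommGroup E] [NormedSpace ℝ E] [FiniteDimensional ℝ E]
variable {Om : Set E} {ι : Type} {T : Tiling Om ι} {J C : Type} {fam : J → C}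
variable {κ : Type} {Kc : κ → Set E} {h3 : finrank ℝ E = 3}

/-- **geometric input** for the sheet `j` (level set `Sj`, root `r`) and the core `c`; `v0`, `v1` =
vertices of the sphere of the core below / above the sheet. -/
structure EG (s : GSt (meshC T h3) fam) (j : J) (Sj : Set E) (Kc : κ → Set E) (c : κ)
    (v0 v1 : VxK T Kc c) (r : E) where
  /-- label of the sheet -/
  lam : E → ZMod 2
  hlam : IsLab T (gPts s j) lam
  /-- a compact set with trivial torsors around the core -/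
  S0 : Set E
  S0c : IsCompact S0
  S0O : S0 ⊆ Om
  S0t : TrivF (ZMod 2) S0
  /-- connected sets below (`false`) and above (`true`) the sheet, through the sphere of the core -/
  L : Bool → Set E
  Lc : ∀ i, IsPreconnected (L i)
  LO : ∀ i, L i ⊆ Om
  LS : ∀ i q, (P (T.H q) ∩ L i).Nonempty → P (T.H q) ⊆ S0
  Ln : ∀ i q, (P (T.H q) ∩ L i).Nonempty → ∀ u ∈ s.P, s.lab u = j → u ∉ P (T.H q)
  Ll : ∃ v ∈ VM T (L true), ∃ v' ∈ VM T (L false), lam v + lam v' = 1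
  /-- connected subsets of the sphere of the core below and above the sheet -/
  Z : Bool → Set E
  Zc : ∀ i, IsPreconnected (Z i)
  Zf : ∀ i, Z i ⊆ frontier (Kc c)
  Zn : ∀ i q, (P (T.H q) ∩ Z i).Nonempty → ∀ u ∈ s.P, s.lab u = j → u ∉ P (T.H q)
  LZ : ∀ i, ∀ v ∈ VM T (L i), v ∈ frontier (Kc c) → v ∈ Z i
  Z0 : v0.1 ∈ Z false
  Z1 : v1.1 ∈ Z true
  /-- a connected set deep inside the core -/
  D : Set E
  Dc : IsPreconnected D
  DO : D ⊆ Om
  DS : ∀ q, (P (T.H q) ∩ D).Nonempty → P (T.H q) ⊆ S0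
  DK : ∀ q, (P (T.H q) ∩ D).Nonempty → P (T.H q) ⊆ interior (Kc c)
  LD : ∀ i, (L i ∩ D).Nonempty
  /-- a connected set outside the core -/
  F : Set E
  Fc : IsPreconnected F
  FO : F ⊆ Om
  FS : ∀ q, (P (T.H q) ∩ F).Nonempty → P (T.H q) ⊆ S0
  FK : ∀ q, (P (T.H q) ∩ F).Nonempty → P (T.H q) ∩ Kc c = ∅
  LF : ∀ i, (L i ∩ F).Nonempty
  /-- the part of the sheet deep inside the core -/
  Gd : Set E
  Gdc : IsPreconnected Gd
  GdS : Gd ⊆ Sj
  GdK : ∀ q, (P (T.H q) ∩ Gd).Nonempty → P (T.H q) ⊆ interior (Kc c)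
  GdD : ∀ q, (P (T.H q) ∩ D).Nonempty → ∀ w ∈ s.P, s.lab w = j → w ∈ P (T.H q) → w ∈ Gd
  /-- the part of the sheet outside the core -/
  Go : Set E
  Goc : IsPreconnected Go
  GoS : Go ⊆ Sj
  GoK : ∀ q, (P (T.H q) ∩ Go).Nonempty → ¬ P (T.H q) ⊆ Kc c
  GoF : ∀ q, (P (T.H q) ∩ F).Nonempty → ∀ w ∈ s.P, s.lab w = j → w ∈ P (T.H q) → w ∈ Go
  Gor : r ∈ Go
  /-- connected parts of the sheet from the root into the core, outside every other core -/
  Gx : κ → Set E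
  Gxc : ∀ c', c' ≠ c → IsPreconnected (Gx c')
  GxS : ∀ c', c' ≠ c → Gx c' ⊆ Sj
  Gxr : ∀ c', c' ≠ c → r ∈ Gx c'
  Gxd : ∀ c', c' ≠ c → Gd ⊆ Gx c'
  GxK : ∀ c', c' ≠ c → ∀ q, (P (T.H q) ∩ Gx c').Nonempty → ¬ P (T.H q) ⊆ Kc c'

section

variable {hH : ∀ c, CoreH T (Kc c)} {hdis : ∀ c c', c ≠ c' → Disjoint (Kc c) (Kc c')}
variable {s : GSt (meshC T h3) fam} {j : J} {Sj : Set E} {c : κ} {v0 v1 : VxK T Kc c}

theorem psi_ireach (hdis : ∀ c c', c ≠ c' → Disjoint (Kc c) (Kc c'))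
    (hcl : IsClosed (Kc c)) (hcar : Car s j Sj)
    {Gd : Set E} (Gdc : IsPreconnected Gd) (GdS : Gd ⊆ Sj)
    (GdK : ∀ q, (P (T.H q) ∩ Gd).Nonempty → P (T.H q) ⊆ interior (Kc c)) (hO : Sj ⊆ Om)
    {w₀ : E} {Ψ : E → ZMod 2}
    (hΨ : Psi s (piK T Kc) j (Sum.inr c) (crv s (piK T Kc) (Sum.inr c) w₀) Ψ)
    (hfr : ∀ w ∈ crv s (piK T Kc) (Sum.inr c) w₀, w ∈ frontier (Kc c)) {d w : E} (hd : d ∈ Gd)
    (hdP : d ∈ s.P) (hdl : s.lab d = j) (hw : w ∈ Gd) (hwP : w ∈ s.P) (hwl : s.lab w = j) :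
    Ψ w = Ψ d := by
  have hnf : ∀ x ∈ Gd, x ∉ crv s (piK T Kc) (Sum.inr c) w₀ := by
    intro x hx hxc
    obtain ⟨q, hq⟩ := T.cov x (hO (GdS hx))
    have h1 := GdK q ⟨x, hq, hx⟩ hq
    have h2 := hfr x hxc
    rw [hcl.frontier_eq] at h2
    exact h2.2 h1
  have hpath := hcar Gd Gdc GdS d hd w hw hdP hdl hwP hwl
  have hI : Relation.ReflTransGen (IStep s (piK T Kc) (Sum.inr c)) d w := by
    clear hwP hwl hw
    induction hpath with
    | refl => exact .refl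
    | tail _ hs ih =>
      obtain ⟨F, ⟨q, hq, hqG⟩, hAt, rfl⟩ := hs
      exact ih.tail ⟨F, ⟨q, hq, (piK_inr hdis).2 ((GdK q hqG).trans interior_subset)⟩, hAt.1,
        hAt.2, rfl⟩
  have h1 := hΨ.ireach (fun _ _ hF hw hl => crv_mu hF hw.1 hw.2) hdl hI
  rw [if_neg (hnf w hw), if_neg (hnf d hd), add_zero, add_zero] at h1
  exact h1

theorem psi_nreach (hdis : ∀ c c', c ≠ c' → Disjoint (Kc c) (Kc c'))
    (hcar : Car s j Sj) {Go : Set E} (Goc : IsPreconnected Go) (GoS : Go ⊆ Sj)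
    (GoK : ∀ q, (P (T.H q) ∩ Go).Nonempty → ¬ P (T.H q) ⊆ Kc c) {d w : E} (hd : d ∈ Go)
    (hdP : d ∈ s.P) (hdl : s.lab d = j) (hw : w ∈ Go) (hwP : w ∈ s.P) (hwl : s.lab w = j) :
    Relation.ReflTransGen (NStep s (piK T Kc) (Sum.inr c)) d w := by
  have hpath := hcar Go Goc GoS d hd w hw hdP hdl hwP hwl
  clear hwP hwl hw
  induction hpath with
  | refl => exact .refl
  | tail _ hs ih =>
    obtain ⟨F, ⟨q, hq, hqG⟩, hAt, rfl⟩ := hs
    exact ih.tail ⟨F, fun h => GoK q hqG ((piK_inr hdis).1 (h q hq)), hAt.1, hAt.2, rfl⟩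

theorem trc_fr {r : J → E} {a : C} {w : E} (hw : w ∈ (trc hH hdis s r c a).P) :
    ∀ x ∈ crv s (piK T Kc) (Sum.inr c) w, x ∈ frontier (Kc c) := by
  intro x hx
  have h1 := (mem_comp.1 ((mem_comp_crv hw).2 hx)).1
  obtain ⟨e, he⟩ := (mem_trc.1 h1).2.2
  exact onE_fr he

theorem ext0_sum (A : VxK T Kc c → ZMod 2) {y : Finset E}
    (hA : ∀ e : EdK T Kc c, A ((shellH h3 hH hdis c).en e false) +
      A ((shellH h3 hH hdis c).en e true) =
        ((y.filter fun w => w ∈ (shellH h3 hH hdis c).OnE e).card : ZMod 2)) {e : E}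
    (he : e ∈ frontier (Kc c)) (h1 : T.dim e = 1) {p q : E} (hpq : T.cc e = segment ℝ p q)
    (hno : ∀ w ∈ y, w ∉ T.cc e) : ext0 A p + ext0 A q = 0 := by
  have heO : e ∈ Om := (hH c).sub ((hH c).core.closed.frontier_subset he)
  set e' : EdK T Kc c := edK T Kc (fun c => (hH c).cc) heO he h1 with he'
  have h5 := hA e'
  obtain ⟨hp0, hq0, hpe, hqe, -⟩ := T.dim_ends heO h1 hpq
  have hpf := (hH c).cc e he hpe
  have hqf := (hH c).cc e he hqe
  have hpne : p ≠ q := (Lab_184.ends_of_segment heO h1 hpq).1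
  have hen : ∀ bb, ((shellH h3 hH hdis c).en e' bb) = endK e' bb := fun _ => rfl
  rw [hen, hen] at h5
  have m0 := (endK_iff e' (⟨p, hp0, hpf⟩ : VxK T Kc c)).2 hpe
  have m1 := (endK_iff e' (⟨q, hq0, hqf⟩ : VxK T Kc c)).2 hqe
  have e1 : ext0 A p = A ⟨p, hp0, hpf⟩ := dif_pos ⟨hp0, hpf⟩
  have e2 : ext0 A q = A ⟨q, hq0, hqf⟩ := dif_pos ⟨hq0, hqf⟩
  have hsum : ext0 A p + ext0 A q = A (endK e' false) + A (endK e' true) := by
    obtain ⟨b0, hb0⟩ := m0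
    obtain ⟨b1, hb1⟩ := m1
    rw [e1, e2, ← hb0, ← hb1]
    have hbb : b0 ≠ b1 := by
      rintro rfl
      exact hpne (congrArg Subtype.val (hb0.symm.trans hb1))
    cases b0 <;> cases b1
    · exact absurd rfl hbb
    · rfl
    · exact add_comm _ _
    · exact absurd rfl hbb
  rw [hsum, h5, Finset.card_eq_zero.2, Nat.cast_zero]
  rw [Finset.filter_eq_empty_iff]
  intro w hw hwe
  refine hno w hw ?_
  have hwe' : w ∈ e'.1.opn := hwe
  have h6 := e'.1.opn_sub hwe'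
  have hset : e'.1.set = T.cc e := rfl
  rwa [hset] at h6

/-- **(E-S) for the curves of the outer state** -/
theorem lbl_psi [Fintype (EdK T Kc c)] {r : J → E} {a : C} (hcar : Car s j Sj) (hSO : Sj ⊆ Om)
    (hon : ∀ w ∈ s.P, s.lab w = j → T.dim w = 1) (g : EG s j Sj Kc c v0 v1 (r j))
    (hrP : r j ∈ s.P) (hrl : s.lab (r j) = j) {w : E} (hw : w ∈ (trc hH hdis s r c a).P)
    (hwl : s.lab w = j) {Ψ : E → ZMod 2}
    (hΨ : Psi s (piK T Kc) j (Sum.inr c) (crv s (piK T Kc) (Sum.inr c) w) Ψ) {d : E}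
    (hd : d ∈ g.Gd) (hdP : d ∈ s.P) (hdl : s.lab d = j) :
    lbl (shellH h3 hH hdis c).sphSh v0 (comp true (trc hH hdis s r c a) w) v1 = Ψ d + Ψ (r j) := by
  set y : Finset E := comp true (trc hH hdis s r c a) w with hy
  have hyc : (y : Set E) = crv s (piK T Kc) (Sum.inr c) w := by
    ext x
    rw [Finset.mem_coe]
    exact mem_comp_crv hw
  have hsph := (shellH h3 hH hdis c).sphSh_Sph (shellH_sph (h3 := h3) (hH := hH) (hdis := hdis) c)
  have hP : ∀ x ∈ (trc hH hdis s r c a).P, ∃ e, x ∈ (shellH h3 hH hdis c).sphSh.OnE e :=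
    fun x hx => (mem_trc.1 hx).2.2
  obtain ⟨hA, hA0⟩ := lbl_spec hsph (cc (shellH h3 hH hdis c).sphSh (trc hH hdis s r c a) hP w) v0
  set A := lbl (shellH h3 hH hdis c).sphSh v0
    (cc (shellH h3 hH hdis c).sphSh (trc hH hdis s r c a) hP w).C with hAdef
  have hA' : ∀ e : EdK T Kc c, A ((shellH h3 hH hdis c).en e false) +
      A ((shellH h3 hH hdis c).en e true) =
        ((y.filter fun w => w ∈ (shellH h3 hH hdis c).OnE e).card : ZMod 2) := hA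
  have hyP : ∀ x ∈ y, x ∈ s.P ∧ s.lab x = j ∧ x ∈ frontier (Kc c) := by
    intro x hx
    obtain ⟨h1, h2⟩ := mem_comp.1 hx
    refine ⟨(mem_trc.1 h1).1.1, ?_, ?_⟩
    · have h3 : s.lab x = s.lab w := h2.lab
      rw [h3, hwl]
    · obtain ⟨e, he⟩ := (mem_trc.1 h1).2.2
      exact onE_fr he
  -- the label is constant on the sets `Z`
  have hZl : ∀ i, ∀ x ∈ g.Z i, ∀ x' ∈ g.Z i, T.dim x = 0 → T.dim x' = 0 →
      ext0 A x = ext0 A x' := by
    intro i x hx x' hx' h0 h0'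
    obtain ⟨z, hz, hz2, hxz⟩ := Sgc1_838.coreH_face h3 (hH c) x (g.Zf i hx)
    obtain ⟨z', hz', hz2', hxz'⟩ := Sgc1_838.coreH_face h3 (hH c) x' (g.Zf i hx')
    refine Sgc1_838.sig_lblH h3 (hH c) (g.Zc i) (g.Zf i) (lbl := ext0 A) ?_ hz hz2 ⟨x, hxz, hx⟩ hxz
      h0 hz' hz2' ⟨x', hxz', hx'⟩ hxz' h0'
    intro t ht ht2 htZ e he he1 p q hpq
    refine ext0_sum A hA' ((hH c).cc t ht he) he1 hpq ?_
    intro u hu hue
    obtain ⟨zz, hzz, hzzZ⟩ := htZ
    have htO : t ∈ Om := (hH c).sub ((hH c).core.closed.frontier_subset ht)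
    obtain ⟨q0, hq0⟩ := T.cov t htO
    have h7 : T.cc t ⊆ P (T.H q0) := T.cc_sub_tile hq0
    exact g.Zn i q0 ⟨zz, h7 hzz, hzzZ⟩ u (hyP u hu).1 (hyP u hu).2.1
      (h7 ((T.cc_sub_of_mem he) hue))
  choose dd hdL hdD using fun i => g.LD i
  choose ff hfL hfF using fun i => g.LF i
  have hvd : ∀ i, ∃ v, v ∈ VM T (g.L i) ∧ v ∈ VM T g.D := by
    intro i
    obtain ⟨q, hq⟩ := T.cov (dd i) (g.LO i (hdL i))
    obtain ⟨v, hv, hv0⟩ := exists_vertex_tile hq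
    exact ⟨v, mem_VM hq (hdL i) hv hv0, mem_VM hq (hdD i) hv hv0⟩
  have hvf : ∀ i, ∃ v, v ∈ VM T (g.L i) ∧ v ∈ VM T g.F := by
    intro i
    obtain ⟨q, hq⟩ := T.cov (ff i) (g.LO i (hfL i))
    obtain ⟨v, hv, hv0⟩ := exists_vertex_tile hq
    exact ⟨v, mem_VM hq (hfL i) hv hv0, mem_VM hq (hfF i) hv hv0⟩
  choose vd hvd using hvd
  choose vf hvf using hvf
  have hlamc : ∀ i, ∀ v ∈ VM T (g.L i), ∀ v' ∈ VM T (g.L i), g.lam v = g.lam v' := by
    intro i v hv v' hv'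
    refine g.hlam.const_geom (g.Lc i) (g.LO i) (fun q hq u hu => ?_) hv hv'
    exact g.Ln i q hq u (mem_gPts.1 hu).1 (mem_gPts.1 hu).2
  have hne : g.lam (vd true) + g.lam (vd false) = 1 := by
    obtain ⟨v, hv, v', hv', h1⟩ := g.Ll
    rw [hlamc true _ (hvd true).1 v hv, hlamc false _ (hvd false).1 v' hv']
    exact h1
  have hrGo := g.Gor
  have key := ess_shell (s := s) (j := j) (c := c) (h3 := h3) (hH := hH) (hdis := hdis) hon
    (y := y) (Ψ := Ψ) (by rw [hyc]; exact hΨ) hyP hA' g.hlam g.S0c g.S0O g.S0t (L := g.L)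
    (l := fun i => if i then A v1 else A v0) g.Lc g.LO g.LS g.Ln (by
      intro i v hv
      have hvZ := g.LZ i v.1 hv v.2.2
      cases i
      · have h1 := hZl false v.1 hvZ v0.1 g.Z0 v.2.1 v0.2.1
        rw [ext0_eq, ext0_eq] at h1
        exact h1
      · have h1 := hZl true v.1 hvZ v1.1 g.Z1 v.2.1 v1.2.1
        rw [ext0_eq, ext0_eq] at h1
        exact h1) g.Dc g.DO g.DS g.DK (a := Ψ d) (b := Ψ (r j))
    (fun q hq x hx hxl hxq => psi_ireach hdis (hH c).core.closed hcar g.Gdc g.GdS g.GdK hSO hΨ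
      (trc_fr hw) hd hdP hdl (g.GdD q hq x hx hxl hxq) hx hxl)
    g.Fc g.FO g.FS g.FK
    (fun q hq x hx hxl hxq => hΨ.nreach hrl (psi_nreach hdis hcar g.Goc g.GoS g.GoK hrGo hrP hrl
      (g.GoF q hq x hx hxl hxq) hx hxl)) (d := vd) (f := vf) hvd hvf hne
  simp only [if_true, Bool.false_eq_true, if_false] at key
  rw [hA0, add_zero] at key
  exact key

/-- a point of the sheet deep inside the core -/
theorem exists_deep (r : E) (g : EG s j Sj Kc c v0 v1 r) :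
    ∃ d ∈ g.Gd, d ∈ s.P ∧ s.lab d = j := by
  choose dd hdL hdD using fun i => g.LD i
  have hvd : ∀ i, ∃ v, v ∈ VM T (g.L i) ∧ v ∈ VM T g.D := by
    intro i
    obtain ⟨q, hq⟩ := T.cov (dd i) (g.LO i (hdL i))
    obtain ⟨v, hv, hv0⟩ := exists_vertex_tile hq
    exact ⟨v, mem_VM hq (hdL i) hv hv0, mem_VM hq (hdD i) hv hv0⟩
  choose vd hvd using hvd
  have hlamc : ∀ i, ∀ v ∈ VM T (g.L i), ∀ v' ∈ VM T (g.L i), g.lam v = g.lam v' := by
    intro i v hv v' hv'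
    refine g.hlam.const_geom (g.Lc i) (g.LO i) (fun q hq u hu => ?_) hv hv'
    exact g.Ln i q hq u (mem_gPts.1 hu).1 (mem_gPts.1 hu).2
  have hne : g.lam (vd true) ≠ g.lam (vd false) := by
    obtain ⟨v, hv, v', hv', h1⟩ := g.Ll
    rw [hlamc true _ (hvd true).1 v hv, hlamc false _ (hvd false).1 v' hv']
    intro h
    rw [h, CharTwo.add_self_eq_zero] at h1
    exact zero_ne_one h1
  obtain ⟨q, hq, u, hu, huq⟩ := g.hlam.reach_geom g.Dc g.DO (hvd true).2 (hvd false).2 hne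
  exact ⟨u, g.GdD q hq u (mem_gPts.1 hu).1 (mem_gPts.1 hu).2 huq, (mem_gPts.1 hu).1,
    (mem_gPts.1 hu).2⟩

/-- **at most one essential curve** -/
theorem ess_unique' [Fintype (EdK T Kc c)] {r : J → E} {a : C} (hcar : Car s j Sj)
    (hSO : Sj ⊆ Om) (hon : ∀ w ∈ s.P, s.lab w = j → T.dim w = 1) (hs1 : s.H1 j) (hsc : s.Conn j)
    (g : EG s j Sj Kc c v0 v1 (r j)) (hrP : r j ∈ s.P) (hrl : s.lab (r j) = j) {w w' : E}
    (hw : w ∈ (trc hH hdis s r c a).P) (hwl : s.lab w = j) (hw' : w' ∈ (trc hH hdis s r c a).P)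
    (hwl' : s.lab w' = j)
    (h1 : lbl (shellH h3 hH hdis c).sphSh v0 (comp true (trc hH hdis s r c a) w) v1 = 1)
    (h2 : lbl (shellH h3 hH hdis c).sphSh v0 (comp true (trc hH hdis s r c a) w') v1 = 1) :
    w' ∈ comp true (trc hH hdis s r c a) w := by
  obtain ⟨d, hd, hdP, hdl⟩ := exists_deep (r j) g
  obtain ⟨Ψ, hΨ⟩ := exists_psi_crv (π := piK T Kc) hs1 (Sum.inr c) w
  obtain ⟨Ψ', hΨ'⟩ := exists_psi_crv (π := piK T Kc) hs1 (Sum.inr c) w'
  have e1 := lbl_psi hcar hSO hon g hrP hrl hw hwl hΨ hd hdP hdl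
  have e2 := lbl_psi hcar hSO hon g hrP hrl hw' hwl' hΨ' hd hdP hdl
  rw [h1] at e1
  rw [h2] at e2
  have key : ∀ x y : ZMod 2, 1 = x + y → x ≠ y := by decide
  have r1 := (mem_trc.1 hw).1.2
  have r2 := (mem_trc.1 hw').1.2
  rw [hwl] at r1
  rw [hwl'] at r2
  exact (mem_comp_crv hw).2 (ess_unique hsc hrP hrl hdP hdl r1 r2 hΨ hΨ' (key _ _ e1)
    (key _ _ e2))

/-- **at least one essential curve** -/
theorem ess_exists' [Fintype (EdK T Kc c)] {r : J → E} (hcar : Car s j Sj)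
    (hSO : Sj ⊆ Om) (hon : ∀ w ∈ s.P, s.lab w = j → T.dim w = 1) (hs1 : s.H1 j) (hsc : s.Conn j)
    (g : EG s j Sj Kc c v0 v1 (r j)) (hrP : r j ∈ s.P) (hrl : s.lab (r j) = j) :
    ∃ w ∈ (trc hH hdis s r c (fam j)).P, s.lab w = j ∧
      lbl (shellH h3 hH hdis c).sphSh v0 (comp true (trc hH hdis s r c (fam j)) w) v1 = 1 := by
  obtain ⟨d, hd, hdP, hdl⟩ := exists_deep (r j) g
  -- no tile at the root is in a core
  have hrO : r j ∈ Om := hSO (g.GoS g.Gor)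
  have hroot : ∀ q, r j ∈ P (T.H q) → ∀ c', ¬ P (T.H q) ⊆ Kc c' := by
    intro q hq c' h
    by_cases hc : c' = c
    · subst hc
      exact g.GoK q ⟨_, hq, g.Gor⟩ h
    · exact g.GxK c' hc q ⟨_, hq, g.Gxr c' hc⟩ h
  -- no face is inside a single tile
  have hinl : ∀ (F : C2 T) (q : ι), ¬ InF (meshC T h3) (piK T Kc) (Sum.inl q) F := by
    intro F q h
    obtain ⟨x, h7, h8, -⟩ := F.exists_side h3
    have e1 : x.1 ∈ (meshC T h3).side F := by
      show x.1 ∈ F.side h3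
      rw [C2.mem_side, h8]; exact Or.inl rfl
    have e2 : x.2 ∈ (meshC T h3).side F := by
      show x.2 ∈ F.side h3
      rw [C2.mem_side, h8]; exact Or.inr rfl
    exact h7 ((piK_inl.1 (h _ e1)).1.trans (piK_inl.1 (h _ e2)).1.symm)
  have hrF : ∃ F, ¬ (((meshC T h3).side F).map (piK T Kc)).IsDiag ∧
      r j ∈ (meshC T h3).On F := by
    obtain ⟨q, hq⟩ := T.cov (r j) hrO
    obtain ⟨x₁, hx1, x₂, hx2, hd1, hd2, hq1, hq2, hw1, hw2, hne, huniq⟩ :=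
      Agl3_543.two_cells T h3 hrO (hon _ hrP hrl) (show q ∈ T.at_ (r j) from hq)
    have hOn : r j ∈ (mk2 T hx1 hd1).On := ⟨hw1, hon _ hrP hrl⟩
    refine ⟨mk2 T hx1 hd1, ?_, hOn⟩
    rw [diag_iff]
    rintro ⟨k, hk⟩
    rcases k with q' | c'
    · exact hinl _ _ hk
    · obtain ⟨q', hq'⟩ := exists_side (meshC T h3) (mk2 T hx1 hd1)
      exact hroot q' (C2.sub_tile (h3 := h3) hq' hOn.1) c' ((piK_inr hdis).1 (hk q' hq'))
  -- the deep point has no outer chord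
  have hdO : d ∈ Om := hSO (g.GdS hd)
  have hd0 : ¬ Relation.ReflTransGen (OStep s (piK T Kc)) (r j) d := by
    intro h
    rcases Relation.ReflTransGen.cases_tail h with h | ⟨z, _, h⟩
    · obtain ⟨q, hq⟩ := T.cov d hdO
      have h1 := g.GdK q ⟨d, hq, hd⟩
      rw [h] at hq
      exact hroot q hq c (h1.trans interior_subset)
    · obtain ⟨F, hF, hz, hzF, rfl⟩ := h
      apply hF
      rw [diag_iff]
      refine ⟨Sum.inr c, fun q hq => (piK_inr hdis).2 ?_⟩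
      have h1 := (s.mu_mem hz hzF).2
      exact (g.GdK q ⟨_, C2.sub_tile (h3 := h3) hq h1.1, hd⟩).trans interior_subset
  have hk : ∀ k', k' ≠ Sum.inr c →
      Relation.ReflTransGen (NStep s (piK T Kc) k') (r j) d := by
    intro k' hk'
    rcases k' with q | c'
    · refine hsc.2 {x | Relation.ReflTransGen (NStep s (piK T Kc) (Sum.inl q)) (r j) x} ?_ (r j)
        Relation.ReflTransGen.refl hrP hrl d hdP hdl
      intro F x hx hAt _
      exact Relation.ReflTransGen.tail hx ⟨F, hinl F q, hAt.1, hAt.2, rfl⟩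
    · have hne : c' ≠ c := fun h => hk' (by rw [h])
      exact psi_nreach hdis hcar (g.Gxc c' hne) (g.GxS c' hne) (g.GxK c' hne) (g.Gxr c' hne) hrP
        hrl (g.Gxd c' hne hd) hdP hdl
  obtain ⟨w0, h1, ⟨F, hF, hwF⟩, h2⟩ := ess_exists hs1 hsc hrP hrl hrF hdP hdl hd0 (Sum.inr c) hk
  have hw0 : w0 ∈ s.P ∧ s.lab w0 = j := by
    refine ⟨?_, (oreach_lab h1).trans hrl⟩
    rcases Relation.ReflTransGen.cases_tail h1 with h | ⟨z, _, h⟩
    · rw [h]; exact hrP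
    · exact h.mem.1
  have hwt : w0 ∈ (trc hH hdis s r c (fam j)).P := by
    refine mem_trc.2 ⟨⟨hw0.1, ?_⟩, by rw [hw0.2], ?_⟩
    · rw [hw0.2]; exact h1
    · let F' : {F : C2 T // ¬ (((meshC T h3).side F).map (piK T Kc)).IsDiag} := ⟨F, hF.1⟩
      obtain ⟨e, _, _, he⟩ := ((shellH h3 hH hdis c).onE (F := F') (mem_map_iff.2 hF.2)).1
        (show w0 ∈ _ from hwF)
      exact ⟨e, he⟩
  obtain ⟨Ψ, hΨ⟩ := exists_psi_crv (π := piK T Kc) hs1 (Sum.inr c) w0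
  have e1 := lbl_psi hcar hSO hon g hrP hrl hwt hw0.2 hΨ hd hdP hdl
  refine ⟨w0, hwt, hw0.2, ?_⟩
  rw [e1]
  have key : ∀ x y : ZMod 2, x ≠ y → x + y = 1 := by decide
  exact key _ _ (h2 Ψ hΨ)

/-- **`conn_s`** of 438's `Tgt` for the essential part of the trace -/
theorem conn_s [Fintype (EdK T Kc c)] {r : J → E} {a : C} {Sf : J → Set E}
    (hcar : ∀ j, fam j = a → Car s j (Sf j))
    (hSO : ∀ j, fam j = a → Sf j ⊆ Om) (hon : ∀ w ∈ s.P, T.dim w = 1)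
    (hs1 : ∀ j, fam j = a → s.H1 j) (hsc : ∀ j, fam j = a → s.Conn j)
    (hr : ∀ j, fam j = a → r j ∈ s.P ∧ s.lab (r j) = j)
    (g : ∀ j, fam j = a → EG s j (Sf j) Kc c v0 v1 (r j)) :
    ∀ w ∈ (essSt (shellH h3 hH hdis c) v0 v1 (trc hH hdis s r c a)).P,
      ∀ w' ∈ (essSt (shellH h3 hH hdis c) v0 v1 (trc hH hdis s r c a)).P,
        (essSt (shellH h3 hH hdis c) v0 v1 (trc hH hdis s r c a)).lab w' =
          (essSt (shellH h3 hH hdis c) v0 v1 (trc hH hdis s r c a)).lab w →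
        w' ∈ comp true (essSt (shellH h3 hH hdis c) v0 v1 (trc hH hdis s r c a)) w := by
  intro w hw w' hw' hl
  rw [comp_ess hw]
  obtain ⟨h1, h2⟩ := mem_ess.1 hw
  obtain ⟨h1', h2'⟩ := mem_ess.1 hw'
  have hl' : s.lab w' = s.lab w := hl
  have hf : fam (s.lab w) = a := (mem_trc.1 h1).2.1
  exact ess_unique' (hcar _ hf) (hSO _ hf) (fun x hx _ => hon x hx) (hs1 _ hf) (hsc _ hf) (g _ hf)
    (hr _ hf).1 (hr _ hf).2 h1 rfl h1' hl' h2 h2'

/-- **`ex_s`** -/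
theorem ex_s [Fintype (EdK T Kc c)] {r : J → E} {a : C} {Sf : J → Set E}
    (hcar : ∀ j, fam j = a → Car s j (Sf j))
    (hSO : ∀ j, fam j = a → Sf j ⊆ Om) (hon : ∀ w ∈ s.P, T.dim w = 1)
    (hs1 : ∀ j, fam j = a → s.H1 j) (hsc : ∀ j, fam j = a → s.Conn j)
    (hr : ∀ j, fam j = a → r j ∈ s.P ∧ s.lab (r j) = j)
    (g : ∀ j, fam j = a → EG s j (Sf j) Kc c v0 v1 (r j)) :
    ∀ j, fam j = a → ∃ w ∈ (essSt (shellH h3 hH hdis c) v0 v1 (trc hH hdis s r c a)).P,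
      (essSt (shellH h3 hH hdis c) v0 v1 (trc hH hdis s r c a)).lab w = j := by
  intro j hf
  obtain ⟨w, hw, hwl, h1⟩ := ess_exists' (hH := hH) (hdis := hdis) (hcar _ hf) (hSO _ hf)
    (fun x hx _ => hon x hx) (hs1 _ hf) (hsc _ hf) (g _ hf) (hr _ hf).1 (hr _ hf).2
  rw [hf] at hw h1
  exact ⟨w, mem_ess.2 ⟨hw, h1⟩, hwl⟩

end

end Crest.Agent.R096.Ess4_95
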