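import Crest.Agent.R096.Ess5_95
import Crest.Agent.R096.Exa7_560

/-!
# Row 96, DOORS, (E-S) (helper95), part 6: **`EG` from the literal data of the machine**

`exists_EG` : for 543's truthful state `st0 hG bp`, a tiny core `c`, a sheet `j` of a neighbour.
-/

set_option autoImplicit false
set_option linter.unusedSectionVars false

open Set Topology Filter Metric Module
open scoped Classical

namespace Crest.Agent.R096.Ess6_95

open Crest.Agent.R096.Msh_715 Crest.Agent.R096.Coh_184 Crest.Agent.R096.Bsp_628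
  Crest.Agent.R096.Brk1_582 Crest.Agent.R096.Brk2_582 Crest.Agent.R096.Brk3_582
  Crest.Agent.R096.Brk5_582 Crest.Agent.R096.Init_543 Crest.Agent.R096.Mbf_337
  Crest.Agent.R96.Push_899 Crest.Agent.R096.Ess1_95 Crest.Agent.R096.Ess4_95
  Crest.Agent.R096.Ess5_95 Crest.Agent.R096.Lab_184 Crest.Agent.R096.Main_4
  Crest.Agent.R096.Exa_560 Crest.Agent.R096.Agl5_543 Crest.Agent.R096.Agl6_543

open Crest.Agent.R096.SkC1_961 (E3 Hom3 IsPush FoamD)
open Crest.Agent.R096.Ce_537 (PLEquiv IsBall)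

section pre

variable {δ κ0 R c0 : ℝ} {La Om : Set E3} {ι : Type} {Φ : FoamD δ κ0 R c0 La}
  {T : Tiling Om ι} {f g : E3 → E3} {κ1 κ2 : ℝ} {X : Set Φ.F} {J0 J V : Φ.F → Set ι}
  {ct ct' : Φ.F → ι} {A : Φ.F → E3 ≃ᵃ[ℝ] E3} {lam : Φ.F → ℝ} {z : Φ.F → E3}
  {θ : Φ.F → E3 → E3} {φ : Φ.F → E3 → ℝ} {r₀ : Φ.F → ℝ}

/-- the tiles near the hole lie over the open brick -/
theorem inside_J0 (hC : Cores Φ T f κ1 κ2 X J0 J V ct A lam z θ φ) {c : Φ.F} {q : ι}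
    (hq : q ∈ J0 c) {x : E3} (hx : x ∈ P (T.H q)) : ∀ k, c.1.lo k < f x k ∧ f x k < c.1.hi k := by
  by_cases hc : c ∈ X
  · obtain ⟨h1, -, -⟩ := hC.one c hc
    rw [h1, mem_singleton_iff] at hq
    subst hq
    exact (hC.exact_ c hc).inside x hx
  · have hT := hC.tiny c hc
    exact hT.inside x (mem_biUnion (x := q) (hT.sub (hT.sub0 hq)) hx)

/-- a point over the open brick `c` off `J0 c` is in no tile of `⋃ J0` -/
theorem not_KorJ (hLa : IsOpen La) (hC : Cores Φ T f κ1 κ2 X J0 J V ct A lam z θ φ) {c : Φ.F}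
    {q : ι} (hq : q ∉ J0 c) {x : E3} (hx : x ∈ P (T.H q))
    (hfx : ∀ k, c.1.lo k < f x k ∧ f x k < c.1.hi k) : q ∉ KorJ Φ J0 := by
  rintro ⟨c', hq'⟩
  have h1 := inside_J0 hC hq' hx
  have h2 : c' = c := only_brick hLa hfx (d := c') ⟨fun k => (h1 k).1.le, fun k => (h1 k).2.le⟩
  exact hq (h2 ▸ hq')

/-- `Psi` maps the brick without the hole into the frontier -/
theorem Psi_fr (hLa : IsOpen La) {c : Φ.F} {ρ : ℝ} (hG : GA Φ c ρ)
    (hpt : (Φ.B c).lo = (Φ.B c).hi) {y : E3} (hy : y ∈ c.1.set) (h : 0 < ga Φ c y) :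
    Φ.Psi y ∈ Pc Φ.F c ∧ ∃ d, d ≠ c ∧ Φ.Psi y ∈ Pc Φ.F d := by
  have hH : y ∉ (Φ.B c).S := by
    intro hS
    have h1 : y = (Φ.B c).lo := by
      funext k
      have h2 := hS k
      exact le_antisymm (by rw [hpt]; exact h2.2) h2.1
    rw [h1, hG.zero] at h
    exact lt_irrefl _ h
  have h2 := (raysF Φ hLa).pu_mem c y ⟨hy, hH⟩
  rw [Psi_eq Φ hLa hy]
  exact ⟨h2.1, h2.2⟩

/-- the level functions of INIT are the levels of the machine near a tiny core -/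
theorem vF_eq (hLa : IsOpen La) (hC : Cores Φ T f κ1 κ2 X J0 J V ct A lam z θ φ)
    (hI : InitR Φ T f g J0 ct' r₀) {c : Φ.F} {ρ1 : ℝ}
    (hj0 : ∀ x ∈ KJ T (J0 c), ga Φ c (f x) < ρ1) {x : E3} (hx : x ∈ Om)
    (hfx : ∀ k, c.1.lo k < f x k ∧ f x k < c.1.hi k) (h1 : ρ1 ≤ ga Φ c (f x)) (a : Φ.F) :
    vF Φ r₀ f a x = Φ.lev a (f x) := by
  refine hI.v_eq Φ hLa hx (fun c' hxI => ?_) a
  have h2 := I_sub_P _ hxI
  by_cases hcc : c' = c
  · subst hcc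
    have h3 := hj0 x (mem_biUnion (x := ct' c') (hI.ct c') h2)
    linarith
  · have h3 := inside_J0 hC (hI.ct c') h2
    exact hcc (only_brick hLa hfx (d := c') ⟨fun k => (h3 k).1.le, fun k => (h3 k).2.le⟩)

/-- the cap of INIT lies over `{ga < ρ1}` -/
theorem cap_lt (hc : ∀ c : Φ.F, c.1.set ⊆ La) (hI : InitR Φ T f g J0 ct' r₀) {c : Φ.F} {ρ1 r : ℝ}
    (hj0 : ∀ x ∈ KJ T (J0 c), ga Φ c (f x) < ρ1) (hr : ρ1 ≤ r) {y : E3} (hy : y ∈ c.1.set)
    (h : rdF Φ c y < r₀ c) : ga Φ c y < r := by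
  have hyL := hc c hy
  have h1 : g y ∈ Msh_715.I (T.H (ct' c)) := by
    by_contra hno
    have h2 := hI.out c (g y) (hI.hm.gm hyL) (by rw [hI.hm.fg y hyL]; exact hy) hno
    rw [hI.hm.fg y hyL] at h2
    linarith
  have h3 := hj0 (g y) (mem_biUnion (x := ct' c) (hI.ct c) (I_sub_P _ h1))
  rw [hI.hm.fg y hyL] at h3
  linarith

end pre

end Crest.Agent.R096.Ess6_95
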