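import Crest.Agent.R096.Exc1_965

/-! Row 96 (helper163), DOORS-ESS-TARGET, part 1: the boundary of a box minus a rectangle of one
face (closed rectangle, or its relative interior) is preconnected -/

set_option autoImplicit false
set_option linter.unusedSectionVars false
set_option linter.style.haveILetI false

open Set Topology Filter

namespace Crest.Agent.R096.Etg_163

open Crest.Agent.R096.Brk1_582 Crest.Agent.R096.Brk2_582
open Crest.Agent.R096.Bsp_628 Crest.Agent.R096.Brk3_582 Crest.Agent.R096.Vb_965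
open Crest.Agent.R096.Exc_965

/-- every point joined inside `S` to a preconnected subset -/
theorem preconn_of_core {X : Type*} [TopologicalSpace X] {S B : Set X} (hB : IsPreconnected B)
    (hBS : B ⊆ S) (hBn : B.Nonempty)
    (h : ∀ q ∈ S, ∃ T ⊆ S, q ∈ T ∧ (T ∩ B).Nonempty ∧ IsPreconnected T) : IsPreconnected S := by
  obtain ⟨x0, hx0⟩ := hBn
  refine isPreconnected_of_forall x0 fun q hq => ?_
  obtain ⟨T, hTS, hqT, ⟨z, hzT, hzB⟩, hT⟩ := h q hq
  exact ⟨B ∪ T, union_subset hBS hTS, Or.inl hx0, Or.inr hqT, hB.union z hzB hzT hT⟩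

section box

variable {κ : Type*} [DecidableEq κ]

/-- moving one coordinate along a segment -/
theorem path_update {S : Set (κ → ℝ)} {q : κ → ℝ} {j : κ} {e : ℝ}
    (h : ∀ x ∈ uIcc (q j) e, Function.update q j x ∈ S) :
    ∃ T ⊆ S, q ∈ T ∧ Function.update q j e ∈ T ∧ IsPreconnected T := by
  refine ⟨(fun x => Function.update q j x) '' uIcc (q j) e, ?_, ?_, ?_, ?_⟩
  · rintro _ ⟨x, hx, rfl⟩; exact h x hx
  · exact ⟨q j, left_mem_uIcc, Function.update_eq_self j q⟩
  · exact ⟨e, right_mem_uIcc, rfl⟩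
  · have hc : Continuous fun x : ℝ => Function.update q j x :=
      (continuous_const (y := q)).update j continuous_id
    exact isPreconnected_uIcc.image _ hc.continuousOn

theorem update_mem_Icc {lo hi q : κ → ℝ} (hq : q ∈ Icc lo hi) {j : κ} {x : ℝ} (h1 : lo j ≤ x)
    (h2 : x ≤ hi j) : Function.update q j x ∈ Icc lo hi := by
  constructor
  · intro k
    by_cases hk : k = j
    · subst hk; simpa using h1
    · rw [Function.update_of_ne hk]; exact hq.1 k
  · intro k
    by_cases hk : k = j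
    · subst hk; simpa using h2
    · rw [Function.update_of_ne hk]; exact hq.2 k

theorem uIcc_le {lo hi q : κ → ℝ} (hq : q ∈ Icc lo hi) {j : κ} {e x : ℝ} (h1 : lo j ≤ e)
    (h2 : e ≤ hi j) (hx : x ∈ uIcc (q j) e) : lo j ≤ x ∧ x ≤ hi j := by
  have h3 := hq.1 j
  have h4 := hq.2 j
  rcases mem_uIcc.1 hx with h | h
  · exact ⟨h3.trans h.1, h.2.trans h2⟩
  · exact ⟨h1.trans h.1, h.2.trans h4⟩

/-- **a part `S` of the boundary of a box which contains everything off the face `{q i = τ}`, and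
all points of which in this face can be moved inside `S` to the boundary of the face, is
preconnected** -/
theorem box_conn {lo hi : κ → ℝ} (hlt : ∀ k, lo k < hi k) {i : κ} {τ β : ℝ}
    (hτ : (τ = hi i ∧ β = lo i) ∨ (τ = lo i ∧ β = hi i)) {S : Set (κ → ℝ)}
    (hS : S ⊆ Icc lo hi)
    (h1 : ∀ q ∈ Icc lo hi, q i ≠ τ → (q i = β ∨ ∃ j, j ≠ i ∧ (q j = lo j ∨ q j = hi j)) → q ∈ S)
    (h1' : ∀ q ∈ S, q i ≠ τ → (q i = β ∨ ∃ j, j ≠ i ∧ (q j = lo j ∨ q j = hi j)))
    (h2 : ∀ q ∈ S, q i = τ → ∃ j, j ≠ i ∧ ∃ e, (e = lo j ∨ e = hi j) ∧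
      ∀ x ∈ uIcc (q j) e, Function.update q j x ∈ S) :
    IsPreconnected S ∧ S.Nonempty := by
  have hi0 := hlt i
  have hne : β ≠ τ := by
    rcases hτ with ⟨h, h'⟩ | ⟨h, h'⟩ <;> rw [h, h']
    · exact hi0.ne
    · exact hi0.ne'
  have hβ : lo i ≤ β ∧ β ≤ hi i := by
    rcases hτ with ⟨-, h'⟩ | ⟨-, h'⟩ <;> rw [h']
    · exact ⟨le_rfl, hi0.le⟩
    · exact ⟨hi0.le, le_rfl⟩
  set B : Set (κ → ℝ) := {q | q ∈ Icc lo hi ∧ q i = β} with hBdef
  have hBconv : Convex ℝ B := by
    have h3 : Convex ℝ {q : κ → ℝ | q i = β} := by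
      have := (convex_singleton (𝕜 := ℝ) β).linear_preimage (LinearMap.proj (R := ℝ) (φ := fun _ : κ => ℝ) i)
      exact this
    exact (convex_Icc lo hi).inter h3
  have hBS : B ⊆ S := fun q hq => h1 q hq.1 (by rw [hq.2]; exact hne) (Or.inl hq.2)
  have hlo : lo ∈ Icc lo hi := ⟨le_rfl, fun k => (hlt k).le⟩
  have hBn : B.Nonempty := ⟨Function.update lo i β, update_mem_Icc hlo hβ.1 hβ.2, by simp⟩
  -- moving `q i` to `β`
  have down : ∀ q ∈ S, (q i = β ∨ ∃ j, j ≠ i ∧ (q j = lo j ∨ q j = hi j)) →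
      ∃ T ⊆ S, q ∈ T ∧ (T ∩ B).Nonempty ∧ IsPreconnected T := by
    intro q hq hex
    have hqI := hS hq
    obtain ⟨T, hT1, hT2, hT3, hT4⟩ := path_update (S := S) (q := q) (j := i) (e := β) (by
      intro x hx
      have hx1 := uIcc_le hqI hβ.1 hβ.2 hx
      by_cases hxτ : x = τ
      · have hqτ : q i = τ := by
          have h5 := hqI.1 i
          have h6 := hqI.2 i
          rcases mem_uIcc.1 hx with h4 | h4 <;> rcases hτ with ⟨h7, h8⟩ | ⟨h7, h8⟩
          · exfalso; apply hne; apply le_antisymm <;> linarith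
          · linarith
          · linarith
          · exfalso; apply hne; apply le_antisymm <;> linarith
        rw [hxτ, ← hqτ, Function.update_eq_self]
        exact hq
      · refine h1 _ (update_mem_Icc hqI hx1.1 hx1.2) (by simpa using hxτ) ?_
        rcases hex with h3 | ⟨j, hj, h3⟩
        · left
          rw [h3, uIcc_self, mem_singleton_iff] at hx
          simp [hx]
        · right
          refine ⟨j, hj, ?_⟩
          rw [Function.update_of_ne hj]; exact h3)
    exact ⟨T, hT1, hT2, ⟨_, hT3, update_mem_Icc hqI hβ.1 hβ.2, by simp⟩, hT4⟩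
  refine ⟨preconn_of_core hBconv.isPreconnected hBS hBn fun q hq => ?_, hBn.mono hBS⟩
  by_cases hqτ : q i = τ
  · obtain ⟨j, hj, e, he, hpath⟩ := h2 q hq hqτ
    obtain ⟨T, hT1, hT2, hT3, hT4⟩ := path_update hpath
    obtain ⟨T', hT1', hT2', hT3', hT4'⟩ := down (Function.update q j e) (hT1 hT3)
      (Or.inr ⟨j, hj, by simpa using he⟩)
    refine ⟨T ∪ T', union_subset hT1 hT1', Or.inl hT2, ?_, hT4.union _ hT3 hT2' hT4'⟩
    exact hT3'.mono (inter_subset_inter_left _ subset_union_right)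
  · exact down q hq (h1' q hq hqτ)

end box

section foam

variable {κ : Type*} [Fintype κ] [Nonempty κ] {La : Set (κ → ℝ)} {F : Set (Bx κ)} {δ κ0 : ℝ}

theorem interior_bx {Q : Bx κ} {y : κ → ℝ} :
    y ∈ interior Q.set ↔ ∀ i, Q.lo i < y i ∧ y i < Q.hi i := by
  unfold Bx.set
  rw [← Set.pi_univ_Icc, interior_pi_set finite_univ]
  simp [interior_Icc]

/-- the points of a brick in other bricks: one coordinate is extreme -/
theorem wall_bx (BF : BoxFoam La F δ κ0) (hLa : IsOpen La) {c : F} {y : κ → ℝ}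
    (hy : y ∈ Pc F c) : (∃ d : F, d ≠ c ∧ y ∈ Pc F d) ↔ ∃ k, y k = c.1.lo k ∨ y k = c.1.hi k := by
  have hF := foam BF hLa
  have h1 := frontier_cell hF c
  rw [Lset_zero hF, (hF.cpt c).isClosed.frontier_eq] at h1
  have h2 := Set.ext_iff.1 h1 y
  have h3 : y ∈ interior (Pc F c) ↔ ∀ i, c.1.lo i < y i ∧ y i < c.1.hi i := interior_bx
  have hyb := Bx.mem_set.1 hy
  constructor
  · rintro ⟨c', h4, h5⟩
    by_contra hno
    push Not at hno
    exact (h2.2 ⟨hy, c', h4, h5⟩).2 (h3.2 fun i => ⟨lt_of_le_of_ne (hyb i).1 (Ne.symm (hno i).1),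
      lt_of_le_of_ne (hyb i).2 (hno i).2⟩)
  · rintro ⟨k, hk⟩
    refine (h2.1 ⟨hy, fun h4 => ?_⟩).2
    have h5 := h3.1 h4 k
    rcases hk with h | h
    · rw [h] at h5; exact lt_irrefl _ h5.1
    · rw [h] at h5; exact lt_irrefl _ h5.2

/-- the direction in which two neighbouring bricks touch -/
theorem pair_dir (BF : BoxFoam La F δ κ0) {a c : F} (hac : a ≠ c)
    (hne : (Pc F a ∩ Pc F c).Nonempty) :
    ∃ k, c.1.lo k = a.1.hi k ∨ a.1.lo k = c.1.hi k := by
  obtain ⟨y, hy, hy'⟩ := hne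
  obtain ⟨k, hk⟩ := opp_of_pair BF hac hy hy'
  refine ⟨k, ?_⟩
  rcases hk with ⟨h1, h2⟩ | ⟨h1, h2⟩
  · left; linarith
  · right; linarith

/-- **(B2) the boundary of the brick `c` minus the closed brick `a`** -/
theorem preconn_off (BF : BoxFoam La F δ κ0) (hLa : IsOpen La) {a c : F} (hac : a ≠ c)
    (hne : (Pc F a ∩ Pc F c).Nonempty) :
    IsPreconnected {q | q ∈ Pc F c ∧ (∃ d, d ≠ c ∧ q ∈ Pc F d) ∧ q ∉ Pc F a} ∧
      {q | q ∈ Pc F c ∧ (∃ d, d ≠ c ∧ q ∈ Pc F d) ∧ q ∉ Pc F a}.Nonempty := by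
  classical
  obtain ⟨i, hi⟩ := pair_dir BF hac hne
  have hposa := BF.pos _ a.2
  have hposc := BF.pos _ c.2
  -- the contact value
  obtain ⟨τ, β, hτβ, htouch, hτa⟩ : ∃ τ β : ℝ, ((τ = c.1.hi i ∧ β = c.1.lo i) ∨
      (τ = c.1.lo i ∧ β = c.1.hi i)) ∧ (∀ q, q ∈ Pc F a → q ∈ Pc F c → q i = τ) ∧
      a.1.lo i ≤ τ ∧ τ ≤ a.1.hi i := by
    rcases hi with hi | hi
    · refine ⟨c.1.lo i, c.1.hi i, Or.inr ⟨rfl, rfl⟩, fun q h1 h2 => ?_, ?_, ?_⟩
      · have h3 := Bx.mem_set.1 h1 i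
        have h4 := Bx.mem_set.1 h2 i
        linarith
      · rw [hi]; exact (hposa i).le
      · rw [hi]
    · refine ⟨c.1.hi i, c.1.lo i, Or.inl ⟨rfl, rfl⟩, fun q h1 h2 => ?_, ?_, ?_⟩
      · have h3 := Bx.mem_set.1 h1 i
        have h4 := Bx.mem_set.1 h2 i
        linarith
      · rw [← hi]
      · rw [← hi]; exact (hposa i).le
  have hτext : τ = c.1.lo i ∨ τ = c.1.hi i := by
    rcases hτβ with h | h
    · exact Or.inr h.1
    · exact Or.inl h.1
  refine box_conn (lo := c.1.lo) (hi := c.1.hi) hposc hτβ (fun q hq => hq.1) ?_ ?_ ?_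
  · intro q hq hqτ hex
    refine ⟨hq, (wall_bx BF hLa hq).2 ?_, fun ha => hqτ (htouch q ha hq)⟩
    rcases hex with h | ⟨j, -, h⟩
    · refine ⟨i, ?_⟩
      rcases hτβ with h' | h'
      · left; rw [h, h'.2]
      · right; rw [h, h'.2]
    · exact ⟨j, h⟩
  · rintro q ⟨hq, hw, -⟩ hqτ
    obtain ⟨k, hk⟩ := (wall_bx BF hLa hq).1 hw
    by_cases hki : k = i
    · subst hki
      left
      rcases hτβ with h' | h' <;> rcases hk with h | h
      · rw [h, h'.2]
      · exact absurd (h.trans h'.1.symm) hqτ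
      · exact absurd (h.trans h'.1.symm) hqτ
      · rw [h, h'.2]
    · exact Or.inr ⟨k, hki, hk⟩
  · rintro q ⟨hq, hw, hqa⟩ hqτ
    have hqb := Bx.mem_set.1 hq
    obtain ⟨j, hj⟩ : ∃ j, q j < a.1.lo j ∨ a.1.hi j < q j := by
      by_contra hno
      push Not at hno
      exact hqa (Bx.mem_set.2 hno)
    have hji : j ≠ i := by
      rintro rfl
      rcases hj with h | h <;> linarith [hτa.1, hτa.2]
    have hwall : ∀ x, c.1.lo j ≤ x → x ≤ c.1.hi j →
        Function.update q j x ∈ Pc F c ∧ ∃ d, d ≠ c ∧ Function.update q j x ∈ Pc F d := by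
      intro x h1 h2
      have h3 : Function.update q j x ∈ Pc F c := update_mem_Icc hq h1 h2
      refine ⟨h3, (wall_bx BF hLa h3).2 ⟨i, ?_⟩⟩
      rw [Function.update_of_ne hji.symm, hqτ]; exact hτext
    rcases hj with hj | hj
    · refine ⟨j, hji, c.1.lo j, Or.inl rfl, fun x hx => ?_⟩
      rw [uIcc_of_ge (hqb j).1] at hx
      obtain ⟨h1, h2⟩ := hwall x hx.1 (hx.2.trans (hqb j).2)
      refine ⟨h1, h2, fun h => ?_⟩
      have h3 := (Bx.mem_set.1 h j).1
      rw [Function.update_self] at h3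
      linarith [hx.2]
    · refine ⟨j, hji, c.1.hi j, Or.inr rfl, fun x hx => ?_⟩
      rw [uIcc_of_le (hqb j).2] at hx
      obtain ⟨h1, h2⟩ := hwall x ((hqb j).1.trans hx.1) hx.2
      refine ⟨h1, h2, fun h => ?_⟩
      have h3 := (Bx.mem_set.1 h j).2
      rw [Function.update_self] at h3
      linarith [hx.1]

/-- **(B1) the boundary of the brick `a` minus the relative interior of the facet with `c`** -/
theorem preconn_off2 (BF : BoxFoam La F δ κ0) (hLa : IsOpen La) {a c : F} (hac : a ≠ c)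
    (hne : (Pc F a ∩ Pc F c).Nonempty) :
    IsPreconnected {q | q ∈ Pc F a ∧ ∃ d, d ≠ a ∧ d ≠ c ∧ q ∈ Pc F d} ∧
      {q | q ∈ Pc F a ∧ ∃ d, d ≠ a ∧ d ≠ c ∧ q ∈ Pc F d}.Nonempty := by
  classical
  obtain ⟨i, hi⟩ := pair_dir BF hac hne
  have hposa := BF.pos _ a.2
  have hposc := BF.pos _ c.2
  have hfinA : ({a, c} : Set F).Finite := by simp
  have hneA : ({a, c} : Set F).Nonempty := ⟨a, by simp⟩
  obtain ⟨τ, β, hτβ, htouch⟩ : ∃ τ β : ℝ, ((τ = a.1.hi i ∧ β = a.1.lo i) ∨
      (τ = a.1.lo i ∧ β = a.1.hi i)) ∧ (∀ q, q ∈ Pc F a → q ∈ Pc F c → q i = τ) := by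
    rcases hi with hi | hi
    · refine ⟨a.1.hi i, a.1.lo i, Or.inl ⟨rfl, rfl⟩, fun q h1 h2 => ?_⟩
      have h3 := Bx.mem_set.1 h1 i
      have h4 := Bx.mem_set.1 h2 i
      linarith
    · refine ⟨a.1.lo i, a.1.hi i, Or.inr ⟨rfl, rfl⟩, fun q h1 h2 => ?_⟩
      have h3 := Bx.mem_set.1 h1 i
      have h4 := Bx.mem_set.1 h2 i
      linarith
  have hdeg : loA ({a, c} : Set F) i = hiA ({a, c} : Set F) i := by
    obtain ⟨y, hy, hy'⟩ := hne
    have hyA : y ∈ fc (Pc F) ({a, c} : Set F) := by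
      rw [mem_fc]; rintro x (rfl | rfl) <;> assumption
    have h1 := (mem_fc_iff hfinA hneA).1 hyA i
    have h2 := (exists_loA hfinA hneA i).2
    have h3 := (exists_hiA hfinA hneA i).2
    have h4 := h2 a (by simp)
    have h5 := h2 c (by simp)
    have h6 := h3 a (by simp)
    have h7 := h3 c (by simp)
    rcases hi with hi | hi <;> linarith
  have hτext : τ = a.1.lo i ∨ τ = a.1.hi i := by
    rcases hτβ with h | h
    · exact Or.inr h.1
    · exact Or.inl h.1
  have hin : ∀ q, q ∈ Pc F a → (∃ k, q k = a.1.lo k ∨ q k = a.1.hi k) → q ∉ Pc F c →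
      q ∈ {q | q ∈ Pc F a ∧ ∃ d, d ≠ a ∧ d ≠ c ∧ q ∈ Pc F d} := by
    intro q h1 h2 h3
    obtain ⟨d, hd, hd'⟩ := (wall_bx BF hLa h1).2 h2
    refine ⟨h1, d, hd, ?_, hd'⟩
    rintro rfl
    exact h3 hd'
  refine box_conn (lo := a.1.lo) (hi := a.1.hi) hposa hτβ (fun q hq => hq.1) ?_ ?_ ?_
  · intro q hq hqτ hex
    refine hin q hq ?_ fun ha => hqτ (htouch q hq ha)
    rcases hex with h | ⟨j, -, h⟩
    · refine ⟨i, ?_⟩
      rcases hτβ with h' | h'
      · left; rw [h, h'.2]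
      · right; rw [h, h'.2]
    · exact ⟨j, h⟩
  · rintro q ⟨hq, d, hd, -, hd'⟩ hqτ
    obtain ⟨k, hk⟩ := (wall_bx BF hLa hq).1 ⟨d, hd, hd'⟩
    by_cases hki : k = i
    · subst hki
      left
      rcases hτβ with h' | h' <;> rcases hk with h | h
      · rw [h, h'.2]
      · exact absurd (h.trans h'.1.symm) hqτ
      · exact absurd (h.trans h'.1.symm) hqτ
      · rw [h, h'.2]
    · exact Or.inr ⟨k, hki, hk⟩
  · rintro q ⟨hq, d, hda, hdc, hd⟩ hqτ
    have hqS : q ∈ {q | q ∈ Pc F a ∧ ∃ d, d ≠ a ∧ d ≠ c ∧ q ∈ Pc F d} := ⟨hq, d, hda, hdc, hd⟩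
    have hqb := Bx.mem_set.1 hq
    -- moving a coordinate `j ≠ i` to a value outside the range of `c`
    have mvj : ∀ j, j ≠ i → ∀ x, a.1.lo j ≤ x → x ≤ a.1.hi j → (x < c.1.lo j ∨ c.1.hi j < x) →
        Function.update q j x ∈ {q | q ∈ Pc F a ∧ ∃ d, d ≠ a ∧ d ≠ c ∧ q ∈ Pc F d} := by
      intro j hji x h1 h2 h3
      refine hin _ (update_mem_Icc hq h1 h2) ⟨i, ?_⟩ fun h => ?_
      · rw [Function.update_of_ne hji.symm, hqτ]; exact hτext
      · have h4 := Bx.mem_set.1 h j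
        rw [Function.update_self] at h4
        rcases h3 with h3 | h3 <;> linarith
    by_cases hqc : q ∈ Pc F c
    · -- the relative boundary of the facet
      have hyA : q ∈ fc (Pc F) ({a, c} : Set F) := by
        rw [mem_fc]; rintro x (rfl | rfl) <;> assumption
      have hact : act (Pc F) q ≠ {a, c} := by
        intro h
        have h1 : d ∈ act (Pc F) q := hd
        rw [h] at h1
        rcases h1 with h2 | h2
        · exact hda h2
        · exact hdc h2
      obtain ⟨k, hk, hqk⟩ := (mem_relbd BF hLa hfinA hneA hyA).1 hact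
      have hki : k ≠ i := by rintro rfl; exact hk hdeg
      rcases hqk with hqk | hqk
      · refine ⟨k, hki, a.1.lo k, Or.inl rfl, fun x hx => ?_⟩
        rw [uIcc_of_ge (hqb k).1] at hx
        rcases hx.2.eq_or_lt with h | h
        · rw [h, Function.update_eq_self]; exact hqS
        · obtain ⟨⟨e, he, he'⟩, -⟩ := exists_loA hfinA hneA k
          rcases he with rfl | he
          · exfalso; linarith [hx.1]
          · rw [mem_singleton_iff] at he; subst he
            exact mvj k hki x hx.1 (hx.2.trans (hqb k).2) (Or.inl (by linarith))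
      · refine ⟨k, hki, a.1.hi k, Or.inr rfl, fun x hx => ?_⟩
        rw [uIcc_of_le (hqb k).2] at hx
        rcases hx.1.eq_or_lt with h | h
        · rw [← h, Function.update_eq_self]; exact hqS
        · obtain ⟨⟨e, he, he'⟩, -⟩ := exists_hiA hfinA hneA k
          rcases he with rfl | he
          · exfalso; linarith [hx.2]
          · rw [mem_singleton_iff] at he; subst he
            exact mvj k hki x ((hqb k).1.trans hx.1) hx.2 (Or.inr (by linarith))
    · obtain ⟨j, hj⟩ : ∃ j, q j < c.1.lo j ∨ c.1.hi j < q j := by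
        by_contra hno
        push Not at hno
        exact hqc (Bx.mem_set.2 hno)
      have hji : j ≠ i := by
        rintro rfl
        have h4 := hposc j
        have h5 := hposa j
        obtain ⟨y, hy, hy'⟩ := hne
        have h6 := htouch y hy hy'
        have h7 := Bx.mem_set.1 hy' j
        rcases hj with h | h <;> linarith
      rcases hj with hj | hj
      · refine ⟨j, hji, a.1.lo j, Or.inl rfl, fun x hx => ?_⟩
        rw [uIcc_of_ge (hqb j).1] at hx
        exact mvj j hji x hx.1 (hx.2.trans (hqb j).2) (Or.inl (lt_of_le_of_lt hx.2 hj))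
      · refine ⟨j, hji, a.1.hi j, Or.inr rfl, fun x hx => ?_⟩
        rw [uIcc_of_le (hqb j).2] at hx
        exact mvj j hji x ((hqb j).1.trans hx.1) hx.2 (Or.inr (lt_of_lt_of_le hj hx.1))

end foam

end Crest.Agent.R096.Etg_163
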