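import Crest.Agent.R096.Etg1_163

/-! Row 96 (helper163), DOORS-ESS-TARGET, part 2: level sets of `s_a` on the boundary of the
cell `c`, in the cell `c`, and outside the cell `c` -/

set_option autoImplicit false
set_option linter.unusedSectionVars false
set_option linter.style.haveILetI false

open Set Topology Filter

namespace Crest.Agent.R096.Etg_163

open Crest.Agent.R096.Brk1_582 Crest.Agent.R096.Brk2_582
open Crest.Agent.R096.Bsp_628 Crest.Agent.R096.Brk3_582 Crest.Agent.R096.Vb_965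
open Crest.Agent.R096.Exc_965

section foam

variable {E : Type*} [NormedAddCommGroup E] [NormedSpace ℝ E] [CompleteSpace E] {I : Type*}
variable {La : Set E} {P : I → Set E} {b : Set I → E} {N : ℕ}

/-- the part `{s_a ≤ t}` of the boundary of the cell `c` -/
def Dle (P : I → Set E) (b : Set I → E) (c a : I) (t : ℝ) : Set E :=
  {q | q ∈ P c ∧ (∃ d, d ≠ c ∧ q ∈ P d) ∧ sc P b q a ≤ t}

/-- the part `{t ≤ s_a}` of the boundary of the cell `c` -/
def Dge (P : I → Set E) (b : Set I → E) (c a : I) (t : ℝ) : Set E :=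
  {q | q ∈ P c ∧ (∃ d, d ≠ c ∧ q ∈ P d) ∧ t ≤ sc P b q a}

/-- the level `t` of `s_a` in the cell `c` -/
def Dlv (P : I → Set E) (b : Set I → E) (c a : I) (t : ℝ) : Set E :=
  {q | q ∈ P c ∧ sc P b q a = t}

/-- the level `t` of `s_a` outside the (open) cell `c` -/
def Dout (La : Set E) (P : I → Set E) (b : Set I → E) (c a : I) (t : ℝ) : Set E :=
  {q | q ∈ La ∧ sc P b q a = t ∧ ∃ d, d ≠ c ∧ q ∈ P d}

variable (F : Foam La P b N) {c a : I} {t : ℝ}
include F

theorem frontier_eq (c : I) : frontier (P c) = {q | q ∈ P c ∧ ∃ d, d ≠ c ∧ q ∈ P d} := by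
  rw [frontier_cell F, Lset_zero F]

theorem isCompact_frontier' (c : I) : IsCompact {q | q ∈ P c ∧ ∃ d, d ≠ c ∧ q ∈ P d} := by
  rw [← frontier_eq F, frontier_cell F]
  exact isCompact_Lset_zero F c

theorem isCompact_Dle : IsCompact (Dle P b c a t) := by
  have h1 := isCompact_frontier' F c
  have h2 : {q | q ∈ P c ∧ ∃ d, d ≠ c ∧ q ∈ P d} ⊆ La := fun q hq => F.sub c hq.1
  have h3 : Dle P b c a t = {q | q ∈ P c ∧ ∃ d, d ≠ c ∧ q ∈ P d} ∩
      (fun y => sc P b y a) ⁻¹' Iic t := by
    ext q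
    exact ⟨fun h => ⟨⟨h.1, h.2.1⟩, h.2.2⟩, fun h => ⟨h.1.1, h.1.2, h.2⟩⟩
  rw [h3]
  exact h1.of_isClosed_subset (((continuousOn_sc_apply F a).mono h2).preimage_isClosed_of_isClosed
    h1.isClosed isClosed_Iic) inter_subset_left

theorem isCompact_Dge : IsCompact (Dge P b c a t) := by
  have h1 := isCompact_frontier' F c
  have h2 : {q | q ∈ P c ∧ ∃ d, d ≠ c ∧ q ∈ P d} ⊆ La := fun q hq => F.sub c hq.1
  have h3 : Dge P b c a t = {q | q ∈ P c ∧ ∃ d, d ≠ c ∧ q ∈ P d} ∩
      (fun y => sc P b y a) ⁻¹' Ici t := by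
    ext q
    exact ⟨fun h => ⟨⟨h.1, h.2.1⟩, h.2.2⟩, fun h => ⟨h.1.1, h.1.2, h.2⟩⟩
  rw [h3]
  exact h1.of_isClosed_subset (((continuousOn_sc_apply F a).mono h2).preimage_isClosed_of_isClosed
    h1.isClosed isClosed_Ici) inter_subset_left

theorem isCompact_Dlv : IsCompact (Dlv P b c a t) := by
  have h3 : Dlv P b c a t = P c ∩ (fun y => sc P b y a) ⁻¹' {t} := by
    ext q
    exact ⟨fun h => ⟨h.1, h.2⟩, fun h => ⟨h.1, h.2⟩⟩
  rw [h3]
  exact (F.cpt c).of_isClosed_subset (((continuousOn_sc_apply F a).mono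
    (F.sub c)).preimage_isClosed_of_isClosed (F.cpt c).isClosed isClosed_singleton)
    inter_subset_left

/-- **(g4), lower part** -/
theorem preconn_Dle (hac : a ≠ c) (hne : (P a ∩ P c).Nonempty) (ht0 : 0 ≤ t) (ht1 : t < 1) :
    IsPreconnected (Dle P b c a t) ∧ (Dle P b c a t).Nonempty := by
  classical
  have hB : Convex ℝ (P a ∩ P c) := (F.cvx a).inter (F.cvx c)
  have hBS : P a ∩ P c ⊆ Dle P b c a t := by
    rintro q ⟨h1, h2⟩
    refine ⟨h2, ⟨a, hac, h1⟩, ?_⟩
    rw [(F.sc_eq_zero (F.sub a h1)).2 h1]; exact ht0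
  refine ⟨preconn_of_core hB.isPreconnected hBS hne fun q hq => ?_, hne.mono hBS⟩
  obtain ⟨hqc, ⟨d, hdc, hqd⟩, hqt⟩ := hq
  have hqL := F.sub c hqc
  set u := sc P b q with hu
  have huK : u ∈ K P := F.sc_mem_K hqL
  have hs0 : 0 ≤ u a := F.sc_nonneg hqL a
  have huc : u c = 0 := (F.sc_eq_zero hqL).2 hqc
  have hud : u d = 0 := (F.sc_eq_zero hqL).2 hqd
  have hK : ∀ x ∈ Icc (0 : ℝ) (u a), Function.update u a x ∈ K P := fun x hx =>
    update_mem_K huK (lt_of_le_of_lt hqt ht1) ⟨c, hac.symm, huc⟩ hx.1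
      (lt_of_le_of_lt (hx.2.trans hqt) ht1)
  refine ⟨(fun x => T b (Function.update u a x)) '' Icc (0 : ℝ) (u a), ?_, ?_, ?_, ?_⟩
  · rintro _ ⟨x, hx, rfl⟩
    have hL := F.T_mem_La (hK x hx)
    have hsc := F.sc_T (hK x hx)
    refine ⟨?_, ?_, ?_⟩
    · rw [← F.sc_eq_zero hL, hsc, Function.update_of_ne hac.symm]; exact huc
    · by_cases hda : d = a
      · refine ⟨a, hac, ?_⟩
        rw [← F.sc_eq_zero hL, hsc, Function.update_self]
        have : u a = 0 := hda ▸ hud
        rw [this] at hx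
        exact le_antisymm hx.2 hx.1
      · refine ⟨d, hdc, ?_⟩
        rw [← F.sc_eq_zero hL, hsc, Function.update_of_ne hda]; exact hud
    · show sc P b (T b (Function.update u a x)) a ≤ t
      rw [hsc, Function.update_self]
      exact hx.2.trans hqt
  · refine ⟨u a, ⟨hs0, le_rfl⟩, ?_⟩
    show T b (Function.update u a (u a)) = q
    rw [Function.update_eq_self, hu, F.T_sc hqL]
  · have h0 : (0 : ℝ) ∈ Icc (0 : ℝ) (u a) := ⟨le_rfl, hs0⟩
    have hL := F.T_mem_La (hK 0 h0)
    have hsc := F.sc_T (hK 0 h0)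
    refine ⟨_, ⟨0, h0, rfl⟩, ?_, ?_⟩
    · show T b (Function.update u a 0) ∈ P a
      rw [← F.sc_eq_zero hL, hsc, Function.update_self]
    · show T b (Function.update u a 0) ∈ P c
      rw [← F.sc_eq_zero hL, hsc, Function.update_of_ne hac.symm]; exact huc
  · refine isPreconnected_Icc.image _ ((continuousOn_T F).comp ?_ hK)
    have hc : Continuous fun x : ℝ => Function.update u a x :=
      (continuous_const (y := u)).update a continuous_id
    exact hc.continuousOn

/-- **(g4), upper part**, from the boundary of `c` minus the cell `a` -/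
theorem preconn_Dge_of (hac : a ≠ c) (ht0 : 0 < t) (ht1 : t < 1)
    (h : IsPreconnected {q | q ∈ P c ∧ (∃ d, d ≠ c ∧ q ∈ P d) ∧ q ∉ P a})
    (hn : {q | q ∈ P c ∧ (∃ d, d ≠ c ∧ q ∈ P d) ∧ q ∉ P a}.Nonempty) :
    IsPreconnected (Dge P b c a t) ∧ (Dge P b c a t).Nonempty := by
  classical
  set S := {q | q ∈ P c ∧ (∃ d, d ≠ c ∧ q ∈ P d) ∧ q ∉ P a} with hS
  let r : E → E := fun q => T b (Function.update (sc P b q) a (max t (sc P b q a)))
  have hSL : S ⊆ La := fun q hq => F.sub c hq.1
  have hK : ∀ q ∈ S, Function.update (sc P b q) a (max t (sc P b q a)) ∈ K P := by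
    rintro q ⟨hqc, -, -⟩
    have hqL := F.sub c hqc
    rcases (F.sc_le_one hqL a).eq_or_lt with h1 | h1
    · have h2 : max t (sc P b q a) = sc P b q a := max_eq_right (by rw [h1]; exact ht1.le)
      rw [h2, Function.update_eq_self]
      exact F.sc_mem_K hqL
    · exact update_mem_K (F.sc_mem_K hqL) h1 ⟨c, hac.symm, (F.sc_eq_zero hqL).2 hqc⟩
        (ht0.le.trans (le_max_left _ _)) (max_lt ht1 h1)
  have hcont : ContinuousOn r S := by
    refine (continuousOn_T F).comp ?_ hK
    have h1 : ContinuousOn (sc P b) S := (continuousOn_sc F).mono hSL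
    have h2 : ContinuousOn (fun q => max t (sc P b q a)) S := by
      have h3 : ContinuousOn (fun q => sc P b q a) S := (continuousOn_sc_apply F a).mono hSL
      intro q hq
      exact (continuousWithinAt_const (b := t)).max (h3 q hq)
    have h4 : Continuous fun p : (I → ℝ) × ℝ => Function.update p.1 a p.2 :=
      continuous_fst.update a continuous_snd
    exact h4.comp_continuousOn (h1.prodMk h2)
  have himg : r '' S = Dge P b c a t := by
    ext p
    constructor
    · rintro ⟨q, hq, rfl⟩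
      have hL := F.T_mem_La (hK q hq)
      have hsc := F.sc_T (hK q hq)
      obtain ⟨hqc, ⟨d, hdc, hqd⟩, hqa⟩ := hq
      have hqL := F.sub c hqc
      have hda : d ≠ a := by rintro rfl; exact hqa hqd
      refine ⟨?_, ⟨d, hdc, ?_⟩, ?_⟩
      · rw [← F.sc_eq_zero hL, hsc, Function.update_of_ne hac.symm]
        exact (F.sc_eq_zero hqL).2 hqc
      · rw [← F.sc_eq_zero hL, hsc, Function.update_of_ne hda]
        exact (F.sc_eq_zero hqL).2 hqd
      · show t ≤ sc P b (T b (Function.update (sc P b q) a (max t (sc P b q a)))) a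
        rw [hsc, Function.update_self]; exact le_max_left _ _
    · rintro ⟨hpc, hpd, hpt⟩
      have hpL := F.sub c hpc
      refine ⟨p, ⟨hpc, hpd, fun hpa => ?_⟩, ?_⟩
      · rw [(F.sc_eq_zero hpL).2 hpa] at hpt
        exact absurd hpt (not_le.2 ht0)
      · show T b (Function.update (sc P b p) a (max t (sc P b p a))) = p
        rw [max_eq_right hpt, Function.update_eq_self, F.T_sc hpL]
  rw [← himg]
  exact ⟨h.image r hcont, hn.image r⟩

/-- the disc in the cell `c` is the radial image of the part `{s_a ≤ t}` of the boundary -/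
theorem preconn_Dlv (hac : a ≠ c) (hne : (P a ∩ P c).Nonempty) (ht0 : 0 ≤ t) (ht1 : t < 1) :
    IsPreconnected (Dlv P b c a t) ∧ (Dlv P b c a t).Nonempty := by
  classical
  obtain ⟨h1, h2⟩ := preconn_Dle F (t := t) hac hne ht0 ht1
  let r : E → E := fun q => b {c} + ((1 - t) / (1 - sc P b q a)) • (q - b {c})
  have hcne : (P c).Nonempty := hne.mono inter_subset_right
  have hden : ∀ q ∈ Dle P b c a t, 0 < 1 - sc P b q a ∧
      0 ≤ (1 - t) / (1 - sc P b q a) ∧ (1 - t) / (1 - sc P b q a) ≤ 1 := by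
    rintro q ⟨-, -, hq⟩
    have h3 : 0 < 1 - sc P b q a := by linarith
    refine ⟨h3, div_nonneg (by linarith) h3.le, ?_⟩
    rw [div_le_one h3]; linarith
  have hsub : Dle P b c a t ⊆ La := fun q hq => F.sub c hq.1
  have hcont : ContinuousOn r (Dle P b c a t) := by
    have h3 : ContinuousOn (fun q => sc P b q a) (Dle P b c a t) :=
      (continuousOn_sc_apply F a).mono hsub
    have h4 : ContinuousOn (fun q => (1 - t) / (1 - sc P b q a)) (Dle P b c a t) :=
      continuousOn_const.div (continuousOn_const.sub h3) fun q hq => (hden q hq).1.ne'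
    exact continuousOn_const.add (h4.smul (continuousOn_id.sub continuousOn_const))
  have hac' : a ∉ ({c} : Set I) := fun h => hac h
  have himg : r '' Dle P b c a t = Dlv P b c a t := by
    ext p
    constructor
    · rintro ⟨q, hq, rfl⟩
      obtain ⟨h3, h4, h5⟩ := hden q hq
      have hqc : q ∈ fc P {c} := by simpa [fc] using hq.1
      have hbc : b {c} ∈ P c := (cell_nonempty_of_b F hcne).1
      refine ⟨(F.cvx c).add_smul_sub_mem hbc hq.1 ⟨h4, h5⟩, ?_⟩
      show sc P b (b {c} + ((1 - t) / (1 - sc P b q a)) • (q - b {c})) a = t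
      rw [F.sc_ray' (singleton_nonempty c) hqc h4 h5 hac']
      field_simp
      ring
    · rintro ⟨hpc, hpt⟩
      have hpL := F.sub c hpc
      by_cases hw : ∃ d, d ≠ c ∧ p ∈ P d
      · refine ⟨p, ⟨hpc, hw, hpt.le⟩, ?_⟩
        show b {c} + ((1 - t) / (1 - sc P b p a)) • (p - b {c}) = p
        rw [hpt, div_self (by linarith), one_smul, add_sub_cancel]
      · push Not at hw
        have hact : act P p = {c} := by
          ext d
          constructor
          · intro hd
            by_contra hdc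
            exact hw d hdc hd
          · intro hd; rw [mem_singleton_iff.1 hd]; exact hpc
        have hpb : p ≠ b (act P p) := by
          rw [hact]
          intro h
          have h3 := F.sc_b (singleton_nonempty c) (A := {c}) (by simpa [fc] using hcne) a
          rw [← h, hpt, if_neg hac'] at h3
          linarith
        obtain ⟨z, hz, l0, hl0, hzact, hpz⟩ := F.exists_exit hpL hpb
        rw [hact] at hz hzact hpz
        have hzc : z ∈ P c := by simpa [fc] using hz
        have hz2 : ∃ d, d ≠ c ∧ z ∈ P d := by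
          by_contra hno
          push Not at hno
          apply hzact
          ext e
          exact ⟨fun h => by by_contra hne; exact hno e hne h,
            fun h => by rw [mem_singleton_iff.1 h]; exact hzc⟩
        have h3 := F.sc_ray' (singleton_nonempty c) hz hl0.1.le hl0.2.le hac'
        rw [← hpz, hpt] at h3
        have h4 : l0 * (1 - sc P b z a) = 1 - t := by linarith
        have h5 : 0 < 1 - sc P b z a := by
          by_contra h6
          push Not at h6
          nlinarith [hl0.1]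
        refine ⟨z, ⟨hzc, hz2, ?_⟩, ?_⟩
        · nlinarith [hl0.1, hl0.2]
        · show b {c} + ((1 - t) / (1 - sc P b z a)) • (z - b {c}) = p
          rw [← h4, mul_div_assoc, div_self h5.ne', mul_one, ← hpz]
  rw [← himg]
  exact ⟨h1.image r hcont, h2.image r⟩

/-- the level outside the cell `c` is the image of the boundary of `a` minus the open facet -/
theorem preconn_Dout_of (hac : a ≠ c) (ht0 : 0 < t) (ht1 : t < 1)
    (h : IsPreconnected {q | q ∈ P a ∧ ∃ d, d ≠ a ∧ d ≠ c ∧ q ∈ P d})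
    (hn : {q | q ∈ P a ∧ ∃ d, d ≠ a ∧ d ≠ c ∧ q ∈ P d}.Nonempty) :
    IsPreconnected (Dout La P b c a t) ∧ (Dout La P b c a t).Nonempty := by
  classical
  set S := {q | q ∈ P a ∧ ∃ d, d ≠ a ∧ d ≠ c ∧ q ∈ P d} with hS
  have hSL : S ⊆ Lset La P b a 0 := by
    rintro q ⟨h1, d, h2, h3, h4⟩
    rw [Lset_zero F]
    exact ⟨h1, d, h2, h4⟩
  have himg : mv P b a t '' S = Dout La P b c a t := by
    apply Subset.antisymm
    · rintro _ ⟨q, hq, rfl⟩
      have hqL := hSL hq
      have h1 := sc_mv F one_pos ht0.le ht1 hqL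
      have h2 := mv_mem F one_pos ht0.le ht1 hqL
      obtain ⟨hqa, d, hda, hdc, hd⟩ := hq
      refine ⟨h2.1, h2.2.1, d, hdc, ?_⟩
      rw [← F.sc_eq_zero h2.1, h1, Function.update_of_ne hda]
      exact (F.sc_eq_zero hqL.1).2 hd
    · rintro q ⟨hqLa, hqt, d, hdc, hd⟩
      have hqL := mem_Lset_of_pos F ht0.ne' hqLa hqt
      have h1 := sc_mv F ht1 le_rfl one_pos hqL
      have h2 := mv_mem F ht1 le_rfl one_pos hqL
      have hda : d ≠ a := by
        rintro rfl
        rw [(F.sc_eq_zero hqLa).2 hd] at hqt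
        exact ht0.ne hqt
      refine ⟨mv P b a 0 q, ⟨?_, d, hda, hdc, ?_⟩, mv_mv F ht1 le_rfl one_pos hqL⟩
      · rw [← F.sc_eq_zero h2.1, h1, Function.update_self]
      · rw [← F.sc_eq_zero h2.1, h1, Function.update_of_ne hda]
        exact (F.sc_eq_zero hqLa).2 hd
  rw [← himg]
  exact ⟨h.image _ ((continuousOn_mv F one_pos ht0.le ht1).mono hSL), hn.image _⟩

end foam

section box

variable {κ : Type*} [Fintype κ] [Nonempty κ] {La : Set (κ → ℝ)} {F : Set (Bx κ)} {δ κ0 : ℝ}
variable {a c : F} {t : ℝ}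

/-- **(g4) upper part for brick foams** -/
theorem preconn_Dge (BF : BoxFoam La F δ κ0) (hLa : IsOpen La) (hac : a ≠ c)
    (hne : (Pc F a ∩ Pc F c).Nonempty) (ht0 : 0 < t) (ht1 : t < 1) :
    IsPreconnected (Dge (Pc F) (bc (F := F)) c a t) ∧ (Dge (Pc F) (bc (F := F)) c a t).Nonempty :=
  preconn_Dge_of (foam BF hLa) hac ht0 ht1 (preconn_off BF hLa hac hne).1
    (preconn_off BF hLa hac hne).2

/-- the level sphere of `a` minus the open brick `c` -/
theorem preconn_Dout (BF : BoxFoam La F δ κ0) (hLa : IsOpen La) (hac : a ≠ c)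
    (hne : (Pc F a ∩ Pc F c).Nonempty) (ht0 : 0 < t) (ht1 : t < 1) :
    IsPreconnected (Dout La (Pc F) (bc (F := F)) c a t) ∧
      (Dout La (Pc F) (bc (F := F)) c a t).Nonempty :=
  preconn_Dout_of (foam BF hLa) hac ht0 ht1 (preconn_off2 BF hLa hac hne).1
    (preconn_off2 BF hLa hac hne).2

end box

end Crest.Agent.R096.Etg_163
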