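import Crest.Agent.R096.Vb10_965
import Crest.Agent.R096.Init2_543
import Crest.Agent.R096.Vb2_965

/-! Row 96, P1-TRIV (helper965), part 11: `Ret` (543) for the foam of 961 -/

set_option autoImplicit false
set_option linter.unusedSectionVars false
set_option linter.style.haveILetI false

open Set Topology Filter

namespace Crest.Agent.R096.Vb_965

open Crest.Agent.R096.Coh_184 Crest.Agent.R096.Brk1_582 Crest.Agent.R096.Brk2_582
open Crest.Agent.R096.Bsp_628 Crest.Agent.R096.Brk3_582 Crest.Agent.R096.Init_543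
open Crest.Agent.R96.Push_899 Crest.Agent.R096.SkC1_961

section gen

variable {V : Type*} [NormedAddCommGroup V] [NormedSpace ℝ V] [CompleteSpace V] {I : Type*}
variable {La : Set V} {P : I → Set V} {b : Set I → V} {N : ℕ} {Ψ : V → V} {μ : V → ℝ} {ε : ℝ}

theorem RR_centre (F : Foam La P b N) (hp : Push La P Ψ μ) (hε : 0 < ε) (hε1 : ε ≤ 1) {d : I}
    {y : V} (hd : y ∈ P d) (h : μ y = 0) : RR P b Ψ μ ε y = b {d} := by
  rw [RR_eq F hp hε hε1 hd]
  have : rr μ ε y = 0 := by unfold rr; rw [h]; simp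
  unfold Rd; rw [this]; simp

/-- the fibre over a centre is the hole -/
theorem fibreR_centre (F : Foam La P b N) (hp : Push La P Ψ μ) (hε : 0 < ε) (hε1 : ε ≤ 1) {d : I}
    (hd : (P d).Nonempty) : La ∩ RR P b Ψ μ ε ⁻¹' {b {d}} = {y ∈ P d | μ y = 0} := by
  ext y
  constructor
  · rintro ⟨hy, h⟩
    have h' : RR P b Ψ μ ε y = b {d} := h
    obtain ⟨e, he⟩ := F.cov y hy
    have h1 := RR_mem F hp hε hε1 he
    rw [h'] at h1
    have hed : e = d := (cell_nonempty_of_b F hd).2 e h1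
    subst hed
    exact ⟨he, RR_eq_b_iff F hp hε hε1 he h'⟩
  · rintro ⟨hy, h⟩
    exact ⟨F.sub d hy, RR_centre F hp hε hε1 hy h⟩

/-- **`RR` is a monotone retraction** -/
theorem ret_RR [FiniteDimensional ℝ V] (F : Foam La P b N) (hp : Push La P Ψ μ) (hε : 0 < ε)
    (hε1 : ε ≤ 1) (hcell : ∀ d, (P d).Nonempty)
    (hc : ∀ d, ({y ∈ P d | μ y = 0}).Nonempty ∧
      IsPreconnected {y ∈ P d | μ y = 0} ∧ TrivF (ZMod 2) {y ∈ P d | μ y = 0}) :
    Ret La P (RR P b Ψ μ ε) := by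
  have key : ∀ y ∈ La, (La ∩ RR P b Ψ μ ε ⁻¹' {y}).Nonempty ∧
      IsPreconnected (La ∩ RR P b Ψ μ ε ⁻¹' {y}) ∧ TrivF (ZMod 2) (La ∩ RR P b Ψ μ ε ⁻¹' {y}) := by
    intro y hy
    by_cases h : ∃ d, y = b {d}
    · obtain ⟨d, rfl⟩ := h
      rw [fibreR_centre F hp hε hε1 (hcell d)]
      exact hc d
    · push Not at h
      exact fibreR_spec F hp hε hε1 hy h
  exact ⟨continuousOn_RR F hp hε hε1, fun c y hy => RR_mem F hp hε hε1 hy,
    fun y hy => (key y hy).1, fun y hy => (key y hy).2.1, fun y hy => (key y hy).2.2⟩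

end gen

/-! ### `FoamD` -/

variable {δ κ0 R c0 : ℝ} {La : Set E3} (Φ : FoamD δ κ0 R c0 La) {e : Φ.F → ℝ}

theorem hole_sub (c : Φ.F) : (Φ.B c).S ⊆ c.1.set := by
  have key : ∀ {Q C : Box (Fin 3)}, Nest C Q → C.S ⊆ Q.S := fun h y hy i =>
    ⟨(h.lo i).le.trans (hy i).1, (hy i).2.trans (h.hi i).le⟩
  intro y hy
  rw [← mem_qb Φ]
  rcases Φ.push c with ⟨P, κ, ρ, hS, -⟩ | ⟨P, κ, ρ, C, hS, hI, -⟩
  · exact key hS.nest hy
  · exact key hS.nest (key hI.nest hy)

theorem isCompact_S (B : Box (Fin 3)) : IsCompact B.S := by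
  have : B.S = Icc B.lo B.hi := by
    ext y; exact ⟨fun h => ⟨fun i => (h i).1, fun i => (h i).2⟩, fun h i => ⟨h.1 i, h.2 i⟩⟩
  rw [this]; exact isCompact_Icc

theorem convex_S (B : Box (Fin 3)) : Convex ℝ B.S := by
  have : B.S = Icc B.lo B.hi := by
    ext y; exact ⟨fun h => ⟨fun i => (h i).1, fun i => (h i).2⟩, fun h i => ⟨h.1 i, h.2 i⟩⟩
  rw [this]; exact convex_Icc _ _

theorem trivF_S {A : Type*} [AddCommGroup A] (B : Box (Fin 3)) : TrivF A B.S :=
  fun _ => trivAll_convex' (isCompact_S B) (convex_S B)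

/-- **`RE Φ e` is a monotone retraction of the foam (543's `Ret`)** -/
theorem retE (hLa : IsOpen La) (he : ∀ c, 0 < e c) (he1 : ∀ c, e c < 1) :
    Ret La (Pc Φ.F) (RE Φ e) := by
  refine ret_RR (Brk3_582.foam Φ.bf hLa) (pushE Φ hLa he he1) (by norm_num) (by norm_num)
    (cell_nonempty Φ) fun d => ?_
  have h1 : {y ∈ Pc Φ.F d | muE Φ e y = 0} = (Φ.B d).S := by
    ext y
    have key : ∀ y ∈ Pc Φ.F d, muE Φ e y = 0 ↔ y ∈ (Φ.B d).S := by
      intro y hy
      have h2 := mue_pos (Brk3_582.foam Φ.bf hLa) (pushD Φ hLa) he he1 (c := d) hy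
      have h3 := muD_pos Φ hLa (c := d) hy
      have h4 := ((pushE Φ hLa he he1).mu_mem y (Φ.bf.sub d.1 d.2 hy)).1
      constructor
      · intro h
        by_contra hno
        have : 0 < muE Φ e y := h2.2 (h3.2 hno)
        rw [h] at this
        exact lt_irrefl _ this
      · intro h
        by_contra hno
        have : 0 < muE Φ e y := lt_of_le_of_ne h4 (Ne.symm hno)
        exact h3.1 (h2.1 this) h
    exact ⟨fun h => (key y h.1).1 h.2, fun h => ⟨hole_sub Φ d h, (key y (hole_sub Φ d h)).2 h⟩⟩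
  rw [h1]
  exact ⟨⟨(Φ.B d).lo, fun i => ⟨le_rfl, (Φ.B d).le i⟩⟩, (convex_S _).isPreconnected, trivF_S _⟩

/-- `Hm` (543) from `Hom3` (961) -/
theorem exists_hm3 {f : E3 → E3} {Om : Set E3} (hf : Hom3 f Om La) :
    ∃ g : E3 → E3, Hm f g Om La := by
  obtain ⟨g, h1, h2, h3, h4, h5, h6⟩ := hf
  exact ⟨g, by constructor <;> assumption⟩

end Crest.Agent.R096.Vb_965
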