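import Crest.Agent.R096.Etg2_163
import Crest.Agent.R096.Vb11_965

/-! Row 96 (helper163), DOORS-ESS-TARGET, part 3: the target sets (g1)-(g4) of helper501, abstractly
for pushes and for the foam `FoamD` of 961 (gauge `muD`, thresholds `e c`), and their pull-backs -/

set_option autoImplicit false
set_option linter.unusedSectionVars false
set_option linter.style.haveILetI false

open Set Topology Filter

namespace Crest.Agent.R096.Etg_163

open Crest.Agent.R096.Coh_184 Crest.Agent.R096.Brk1_582 Crest.Agent.R096.Brk2_582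
open Crest.Agent.R096.Bsp_628 Crest.Agent.R096.Brk3_582 Crest.Agent.R096.Vb_965
open Crest.Agent.R096.Exc_965 Crest.Agent.R96.Push_899 Crest.Agent.R096.SkC1_961

section push

variable {E : Type*} [NormedAddCommGroup E] [NormedSpace ℝ E] [CompleteSpace E] {I : Type*}
variable {La : Set E} {P : I → Set E} {b : Set I → E} {N : ℕ} {Ψ : E → E} {μ : E → ℝ} {ε : ℝ}
variable (F : Foam La P b N) (hp : Push La P Ψ μ) {c a : I} {t m m' : ℝ}
include F hp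

/-- the part of the arc over a wall point between two gauges -/
theorem arc_between (hm : 0 < m) (hmm : m ≤ m') (hm' : m' ≤ 1) {q : E} {d : I} (hdc : d ≠ c)
    (hq : q ∈ P c) (hqd : q ∈ P d) :
    IsPreconnected {y | y ∈ P c ∧ Ψ y = q ∧ m ≤ μ y ∧ μ y ≤ m'} ∧
      ({y | y ∈ P c ∧ Ψ y = q ∧ m ≤ μ y ∧ μ y ≤ m'}).Nonempty := by
  have h1 : {y | y ∈ P c ∧ Ψ y = q ∧ m ≤ μ y ∧ μ y ≤ m'} = arcF P Ψ μ m q c ∩ μ ⁻¹' Iic m' := by
    ext y
    exact ⟨fun h => ⟨⟨h.1, h.2.1, h.2.2.1⟩, h.2.2.2⟩, fun h => ⟨h.1.1, h.1.2.1, h.1.2.2, h.2⟩⟩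
  have h0 := isCompact_arcF F hp hm q c
  have hμ : ContinuousOn μ (arcF P Ψ μ m q c) := hp.mu_cont.mono fun y hy => F.sub c hy.1
  have hK : IsCompact {y | y ∈ P c ∧ Ψ y = q ∧ m ≤ μ y ∧ μ y ≤ m'} := by
    rw [h1]
    exact h0.of_isClosed_subset (hμ.preimage_isClosed_of_isClosed h0.isClosed isClosed_Iic)
      inter_subset_left
  refine ⟨(arc_of_injOn (A := ℤ) hK (hp.mu_cont.mono fun y hy => F.sub c hy.1) (a := m) (b := m')
    ?_ ?_).1, ?_⟩
  · intro y hy z hz h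
    exact hp.inj c y hy.1 z hz.1 (hm.trans_le hy.2.2.1) h (hy.2.1.trans hz.2.1.symm)
  · ext s
    constructor
    · rintro ⟨y, hy, rfl⟩
      exact hy.2.2
    · intro hs
      obtain ⟨y, hy, h2, h3⟩ := hp.surj c d hdc q hq hqd s ⟨hm.trans_le hs.1, hs.2.trans hm'⟩
      exact ⟨y, ⟨hy, h2, h3 ▸ hs.1, h3 ▸ hs.2⟩, h3⟩
  · obtain ⟨y, hy, h2, h3⟩ := hp.surj c d hdc q hq hqd m ⟨hm, hmm.trans hm'⟩
    exact ⟨y, hy, h2, h3.ge, h3 ▸ hmm⟩

/-- **(g3), abstract**: the shell over a part `D` of the boundary of the cell `c` -/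
theorem preconn_shell (hm : 0 < m) (hmm : m ≤ m') (hm' : m' ≤ 1) {D : Set E}
    (hDs : ∀ q ∈ D, q ∈ P c ∧ ∃ d, d ≠ c ∧ q ∈ P d) (hDc : IsCompact D) (hD : IsPreconnected D) :
    IsPreconnected {y | y ∈ P c ∧ Ψ y ∈ D ∧ m ≤ μ y ∧ μ y ≤ m'} ∧
      IsCompact {y | y ∈ P c ∧ Ψ y ∈ D ∧ m ≤ μ y ∧ μ y ≤ m'} ∧
      (D.Nonempty → ({y | y ∈ P c ∧ Ψ y ∈ D ∧ m ≤ μ y ∧ μ y ≤ m'}).Nonempty) := by
  set S := {y | y ∈ P c ∧ Ψ y ∈ D ∧ m ≤ μ y ∧ μ y ≤ m'} with hS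
  have hμ : ContinuousOn μ (P c) := hp.mu_cont.mono (F.sub c)
  have h1 : IsCompact (P c ∩ μ ⁻¹' Icc m m') :=
    (F.cpt c).of_isClosed_subset (hμ.preimage_isClosed_of_isClosed (F.cpt c).isClosed
      isClosed_Icc) inter_subset_left
  have h2 : ContinuousOn Ψ (P c ∩ μ ⁻¹' Icc m m') :=
    hp.cont.mono fun y hy => ⟨F.sub c hy.1, hm.trans_le hy.2.1⟩
  have h3 : S = (P c ∩ μ ⁻¹' Icc m m') ∩ Ψ ⁻¹' D := by
    ext y
    exact ⟨fun h => ⟨⟨h.1, h.2.2⟩, h.2.1⟩, fun h => ⟨h.1.1, h.2, h.1.2⟩⟩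
  have hK : IsCompact S := by
    rw [h3]
    exact h1.of_isClosed_subset (h2.preimage_isClosed_of_isClosed h1.isClosed hDc.isClosed)
      inter_subset_left
  have hfib : ∀ q ∈ D, S ∩ Ψ ⁻¹' {q} = {y | y ∈ P c ∧ Ψ y = q ∧ m ≤ μ y ∧ μ y ≤ m'} := by
    intro q hq
    ext y
    refine ⟨fun h => ⟨h.1.1, h.2, h.1.2.2⟩, fun h => ⟨⟨h.1, ?_, h.2.2⟩, h.2.1⟩⟩
    rw [h.2.1]; exact hq
  have himg : Ψ '' S = D := by
    ext q
    constructor
    · rintro ⟨y, hy, rfl⟩; exact hy.2.1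
    · intro hq
      obtain ⟨hqc, d, hdc, hqd⟩ := hDs q hq
      obtain ⟨y, hy⟩ := (arc_between F hp hm hmm hm' hdc hqc hqd).2
      exact ⟨y, ⟨hy.1, by rw [hy.2.1]; exact hq, hy.2.2⟩, hy.2.1⟩
  refine ⟨preconn_of_fibres hK (h2.mono (by rw [h3]; exact inter_subset_left)) himg ?_ hD, hK, ?_⟩
  · intro q hq
    obtain ⟨hqc, d, hdc, hqd⟩ := hDs q hq
    rw [hfib q hq]
    exact (arc_between F hp hm hmm hm' hdc hqc hqd).1
  · rintro ⟨q, hq⟩
    rw [← himg] at hq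
    obtain ⟨y, hy, -⟩ := hq
    exact ⟨y, hy⟩

variable (hε : 0 < ε) (hε1 : ε ≤ 1)
include hε hε1

/-- a point over a wall point -/
theorem wall_inv {y q : E} {e e' : I} (hy : y ∈ La) (hyq : RR P b Ψ μ ε y = q) (hne : e' ≠ e)
    (he : q ∈ P e) (he' : q ∈ P e') : Ψ y = q ∧ ε ≤ μ y := by
  have h : y ∈ {y ∈ La | RR P b Ψ μ ε y = q} := ⟨hy, hyq⟩
  rw [fibreR_wall F hp hε hε1 hne he he'] at h
  obtain ⟨d, -, -, hΨ, hm⟩ := mem_iUnion₂.1 h
  exact ⟨hΨ, hm⟩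

/-- the open inner part `{μ < m}` of the cell `c` -/
theorem isOpen_inner (hm : m ≤ 1) : IsOpen {y | y ∈ P c ∧ μ y < m} := by
  rw [isOpen_iff_mem_nhds]
  rintro y ⟨hy, hym⟩
  have hyL := F.sub c hy
  have h1 : ∀ d, y ∈ P d → d = c := by
    intro d hd
    by_contra hne
    have := (hp.wall c d hne y hy hd).1
    linarith
  have h2 : ∀ᶠ z in 𝓝 y, μ z < m :=
    (hp.mu_cont.continuousAt (F.op.mem_nhds hyL)).eventually_lt_const hym
  filter_upwards [only_cell_nhds F hyL h1, h2] with z h3 h4 using ⟨h3, h4⟩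

/-- **(g1), abstract**: the part of the sheet over `D` outside `{μ < m}` of the cell `c` -/
theorem preconn_outer (hεm : ε ≤ m) (hm : m ≤ 1) {L D : Set E} (hL : IsCompact L) (hLL : L ⊆ La)
    (hD : D = {q | q ∈ L ∧ ∃ d, d ≠ c ∧ q ∈ P d})
    (hfull : ∀ q ∈ D, q ∉ P c → IsPreconnected {y ∈ La | RR P b Ψ μ ε y = q} ∧
      ({y ∈ La | RR P b Ψ μ ε y = q}).Nonempty) (hDp : IsPreconnected D) :
    IsPreconnected {y | y ∈ La ∧ RR P b Ψ μ ε y ∈ L ∧ (y ∈ P c → m ≤ μ y)} ∧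
      IsCompact {y | y ∈ La ∧ RR P b Ψ μ ε y ∈ L ∧ (y ∈ P c → m ≤ μ y)} ∧
      (D.Nonempty → {y | y ∈ La ∧ RR P b Ψ μ ε y ∈ L ∧ (y ∈ P c → m ≤ μ y)}.Nonempty) := by
  classical
  set S := {y | y ∈ La ∧ RR P b Ψ μ ε y ∈ L ∧ (y ∈ P c → m ≤ μ y)} with hS
  have h0 := isCompact_RR F hp hε hε1 hL hLL
  have h1 : S = {y ∈ La | RR P b Ψ μ ε y ∈ L} ∩ {y | y ∈ P c ∧ μ y < m}ᶜ := by
    ext y
    constructor
    · rintro ⟨h2, h3, h4⟩
      refine ⟨⟨h2, h3⟩, fun h5 => ?_⟩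
      exact absurd (h4 h5.1) (not_le.2 h5.2)
    · rintro ⟨⟨h2, h3⟩, h4⟩
      refine ⟨h2, h3, fun h5 => ?_⟩
      by_contra h6
      exact h4 ⟨h5, not_le.1 h6⟩
  have hK : IsCompact S := by
    rw [h1]
    exact h0.inter_right (isOpen_inner F hp hε hε1 hm).isClosed_compl
  have himg : RR P b Ψ μ ε '' S = D := by
    ext q
    constructor
    · rintro ⟨y, ⟨hy, hyL, hyc⟩, rfl⟩
      rw [hD]
      refine ⟨hyL, ?_⟩
      obtain ⟨d, hd⟩ := F.cov y hy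
      by_cases hdc : d = c
      · subst hdc
        have h2 := hyc hd
        have h3 : 0 < μ y := hε.trans_le (hεm.trans h2)
        obtain ⟨-, d', h4, h5⟩ := hp.mem d y hd h3
        refine ⟨d', h4, ?_⟩
        rw [RR_eq_Psi F hp hε hε1 hy (hεm.trans h2)]
        exact h5
      · exact ⟨d, hdc, RR_mem F hp hε hε1 hd⟩
    · intro hq
      have hq' := hq
      rw [hD] at hq'
      obtain ⟨hqL, d, hdc, hqd⟩ := hq'
      by_cases hqc : q ∈ P c
      · refine ⟨q, ⟨F.sub c hqc, ?_, fun _ => ?_⟩, RR_wall F hp hε hε1 hdc hqc hqd⟩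
        · rw [RR_wall F hp hε hε1 hdc hqc hqd]; exact hqL
        · rw [(hp.wall c d hdc q hqc hqd).1]; exact hm
      · obtain ⟨y, hy, hyq⟩ := (hfull q hq hqc).2
        refine ⟨y, ⟨hy, by rw [hyq]; exact hqL, fun hyc => ?_⟩, hyq⟩
        exact absurd (by rw [← hyq]; exact RR_mem F hp hε hε1 hyc) hqc
  refine ⟨preconn_of_fibres hK ((continuousOn_RR F hp hε hε1).mono fun y hy => hy.1) himg ?_ hDp,
    hK, ?_⟩
  · intro q hq
    have hq' := hq
    rw [hD] at hq'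
    obtain ⟨hqL, d, hdc, hqd⟩ := hq'
    by_cases hqc : q ∈ P c
    · -- a star of arcs with centre `q`
      have hqS : q ∈ S ∩ RR P b Ψ μ ε ⁻¹' {q} := by
        have h2 := RR_wall F hp hε hε1 hdc hqc hqd
        refine ⟨⟨F.sub c hqc, by rw [h2]; exact hqL, fun _ => ?_⟩, h2⟩
        rw [(hp.wall c d hdc q hqc hqd).1]; exact hm
      refine preconn_of_core (B := {q}) isPreconnected_singleton (singleton_subset_iff.2 hqS)
        (singleton_nonempty q) ?_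
      rintro y ⟨⟨hy, hyL, hyc⟩, hyq⟩
      have hyq' : RR P b Ψ μ ε y = q := hyq
      obtain ⟨hΨ, hεy⟩ := wall_inv F hp hε hε1 hy hyq' hdc hqc hqd
      obtain ⟨e1, he1⟩ := F.cov y hy
      have hqe1 : q ∈ P e1 := by rw [← hyq']; exact RR_mem F hp hε hε1 he1
      set m1 : ℝ := if e1 = c then m else ε with hm1
      have hm1ε : ε ≤ m1 := by
        rw [hm1]; split_ifs
        · exact hεm
        · exact le_rfl
      have hm10 : 0 < m1 := hε.trans_le hm1ε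
      have hm11 : m1 ≤ 1 := by
        rw [hm1]; split_ifs
        · exact hm
        · exact hε1
      obtain ⟨e', hne', hqe'⟩ : ∃ e', e' ≠ e1 ∧ q ∈ P e' := by
        by_cases h : c = e1
        · exact ⟨d, by rw [← h]; exact hdc, hqd⟩
        · exact ⟨c, h, hqc⟩
      refine ⟨arcF P Ψ μ m1 q e1, ?_, ⟨he1, hΨ, ?_⟩, ⟨q, ⟨hqe1, ?_, ?_⟩, rfl⟩,
        (arcF_spec (A := ℤ) F hp hm10 hne' hqe1 hqe').1⟩
      · rintro z ⟨hz1, hz2, hz3⟩
        have hzL := F.sub e1 hz1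
        have hRz : RR P b Ψ μ ε z = q := by
          rw [RR_eq_Psi F hp hε hε1 hzL (hm1ε.trans hz3), hz2]
        refine ⟨⟨hzL, by rw [hRz]; exact hqL, fun hzc => ?_⟩, hRz⟩
        by_cases h : e1 = c
        · rw [hm1, if_pos h] at hz3; exact hz3
        · rw [(hp.wall c e1 h z hzc hz1).1]; exact hm
      · by_cases h : e1 = c
        · rw [hm1, if_pos h]
          exact hyc (h ▸ he1)
        · rw [hm1, if_neg h]; exact hεy
      · exact (hp.wall e1 e' hne' q hqe1 hqe').2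
      · rw [(hp.wall e1 e' hne' q hqe1 hqe').1]; exact hm11
    · have h2 : S ∩ RR P b Ψ μ ε ⁻¹' {q} = {y ∈ La | RR P b Ψ μ ε y = q} := by
        ext y
        constructor
        · rintro ⟨⟨hy, -, -⟩, hyq⟩; exact ⟨hy, hyq⟩
        · rintro ⟨hy, hyq⟩
          refine ⟨⟨hy, by rw [hyq]; exact hqL, fun hyc => ?_⟩, hyq⟩
          exact absurd (by rw [← hyq]; exact RR_mem F hp hε hε1 hyc) hqc
      rw [h2]
      exact (hfull q hq hqc).1
  · rintro ⟨q, hq⟩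
    rw [← himg] at hq
    obtain ⟨y, hy, -⟩ := hq
    exact ⟨y, hy⟩

/-- **(g2), abstract**: the part over `D` of the inner part `{μ ≤ m}` of the cell `c` -/
theorem preconn_inner (hεm : ε ≤ m) (hm : m ≤ 1) {D : Set E} (hDc : IsCompact D)
    (hDP : D ⊆ P c) (hbD : b {c} ∉ D) (hDp : IsPreconnected D) :
    IsPreconnected {y | y ∈ P c ∧ RR P b Ψ μ ε y ∈ D ∧ μ y ≤ m} ∧
      IsCompact {y | y ∈ P c ∧ RR P b Ψ μ ε y ∈ D ∧ μ y ≤ m} ∧
      (D.Nonempty → {y | y ∈ P c ∧ RR P b Ψ μ ε y ∈ D ∧ μ y ≤ m}.Nonempty) := by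
  classical
  set S := {y | y ∈ P c ∧ RR P b Ψ μ ε y ∈ D ∧ μ y ≤ m} with hS
  have hμ : ContinuousOn μ (P c) := hp.mu_cont.mono (F.sub c)
  have hR : ContinuousOn (RR P b Ψ μ ε) (P c) := (continuousOn_RR F hp hε hε1).mono (F.sub c)
  have h1 : S = (P c ∩ RR P b Ψ μ ε ⁻¹' D) ∩ (P c ∩ μ ⁻¹' Iic m) := by
    ext y
    exact ⟨fun h => ⟨⟨h.1, h.2.1⟩, h.1, h.2.2⟩, fun h => ⟨h.1.1, h.1.2, h.2.2⟩⟩
  have hK : IsCompact S := by
    rw [h1]
    exact ((F.cpt c).of_isClosed_subset (hR.preimage_isClosed_of_isClosed (F.cpt c).isClosed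
      hDc.isClosed) inter_subset_left).inter_right
      (hμ.preimage_isClosed_of_isClosed (F.cpt c).isClosed isClosed_Iic)
  -- interior points
  have hint : ∀ q ∈ D, (∀ d, q ∈ P d → d = c) → ∃ y0, {y ∈ La | RR P b Ψ μ ε y = q} = {y0} := by
    intro q hq hone
    exact fibreR_cell F hp hε hε1 (hDP hq) hone fun h => hbD (h ▸ hq)
  have himg : RR P b Ψ μ ε '' S = D := by
    ext q
    constructor
    · rintro ⟨y, hy, rfl⟩; exact hy.2.1
    · intro hq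
      by_cases hw : ∃ d, d ≠ c ∧ q ∈ P d
      · obtain ⟨d, hdc, hqd⟩ := hw
        obtain ⟨y, hy, h2, h3⟩ := hp.surj c d hdc q (hDP hq) hqd ε ⟨hε, hε1⟩
        have h4 : RR P b Ψ μ ε y = q := by
          rw [RR_eq_Psi F hp hε hε1 (F.sub c hy) h3.ge, h2]
        exact ⟨y, ⟨hy, by rw [h4]; exact hq, by rw [h3]; exact hεm⟩, h4⟩
      · push Not at hw
        have hone : ∀ d, q ∈ P d → d = c := fun d hd => by
          by_contra h; exact hw d h hd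
        obtain ⟨y0, hy0⟩ := hint q hq hone
        have h2 : y0 ∈ {y ∈ La | RR P b Ψ μ ε y = q} := by rw [hy0]; rfl
        obtain ⟨h3, h4⟩ := h2
        obtain ⟨d, hd⟩ := F.cov y0 h3
        have hdc : d = c := hone d (by rw [← h4]; exact RR_mem F hp hε hε1 hd)
        subst hdc
        refine ⟨y0, ⟨hd, by rw [h4]; exact hq, ?_⟩, h4⟩
        by_contra h5
        push Not at h5
        have h6 : ε ≤ μ y0 := hεm.trans h5.le
        obtain ⟨-, d', h7, h8⟩ := hp.mem d y0 hd (hε.trans_le h6)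
        rw [RR_eq_Psi F hp hε hε1 h3 h6] at h4
        rw [h4] at h8
        exact h7 (hone d' h8)
  refine ⟨preconn_of_fibres hK (hR.mono fun y hy => hy.1) himg ?_ hDp, hK, ?_⟩
  · intro q hq
    by_cases hw : ∃ d, d ≠ c ∧ q ∈ P d
    · obtain ⟨d, hdc, hqd⟩ := hw
      have h2 : S ∩ RR P b Ψ μ ε ⁻¹' {q} = {y | y ∈ P c ∧ Ψ y = q ∧ ε ≤ μ y ∧ μ y ≤ m} := by
        ext y
        constructor
        · rintro ⟨⟨hy, -, hym⟩, hyq⟩
          obtain ⟨h3, h4⟩ := wall_inv F hp hε hε1 (F.sub c hy) hyq hdc (hDP hq) hqd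
          exact ⟨hy, h3, h4, hym⟩
        · rintro ⟨hy, h3, h4, hym⟩
          have h5 : RR P b Ψ μ ε y = q := by rw [RR_eq_Psi F hp hε hε1 (F.sub c hy) h4, h3]
          exact ⟨⟨hy, by rw [h5]; exact hq, hym⟩, h5⟩
      rw [h2]
      exact (arc_between F hp hε hεm hm hdc (hDP hq) hqd).1
    · push Not at hw
      have hone : ∀ d, q ∈ P d → d = c := fun d hd => by
        by_contra h; exact hw d h hd
      obtain ⟨y0, hy0⟩ := hint q hq hone
      refine Set.Subsingleton.isPreconnected fun y hy z hz => ?_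
      have h3 : y ∈ ({y0} : Set E) := by rw [← hy0]; exact ⟨F.sub c hy.1.1, hy.2⟩
      have h4 : z ∈ ({y0} : Set E) := by rw [← hy0]; exact ⟨F.sub c hz.1.1, hz.2⟩
      rw [mem_singleton_iff.1 h3, mem_singleton_iff.1 h4]
  · rintro ⟨q, hq⟩
    rw [← himg] at hq
    obtain ⟨y, hy, -⟩ := hq
    exact ⟨y, hy⟩

end push

end Crest.Agent.R096.Etg_163
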