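import Crest.Agent.R096.Etg4_163
import Crest.Agent.R096.Pse2_316

/-! Row 96 (helper163), DOORS-ESS-TARGET, part 5: **the gauge of a push can be changed in one cell
with straight rays near the centre** such that it is the Minkowski gauge `Ng z (P c)` of the cell
near the centre -/

set_option autoImplicit false
set_option linter.unusedSectionVars false
set_option linter.style.haveILetI false

open Set Topology Filter

namespace Crest.Agent.R096.Etg_163

open Crest.Agent.R096.Brk1_582 Crest.Agent.R096.Brk2_582 Crest.Agent.R096.Sphg_316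
open Crest.Agent.R096.Bsp_628 Crest.Agent.R096.Brk3_582 Crest.Agent.R096.Vb_965

section straight

variable {E : Type*} [NormedAddCommGroup E] [NormedSpace ℝ E] [CompleteSpace E] {I : Type*}
variable {La : Set E} {P : I → Set E} {b : Set I → E} {N : ℕ} {Ψ : E → E} {μ : E → ℝ}

/-- straight rays of `Ψ` in the cell `c` up to the radius `r` -/
structure Str (P : I → Set E) (Ψ : E → E) (μ : E → ℝ) (c : I) (z : E) (r : ℝ) : Prop where
  bod : Bod z (P c)
  zero : ∀ y ∈ P c, μ y = 0 ↔ y = z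
  r0 : 0 < r
  r1 : r < 1
  ray : ∀ y, y ≠ z → Ng z (P c) y ≤ r → Ψ y = Ψ (z + (r / Ng z (P c) y) • (y - z))

open Classical in
/-- the point of radius `r` over the wall point `q` -/
noncomputable def rp (P : I → Set E) (Ψ : E → E) (c : I) (z : E) (r : ℝ) (q : E) : E :=
  if h : ∃ w, Ng z (P c) w = r ∧ Ψ w = q then h.choose else z

open Classical in
/-- **the new gauge** -/
noncomputable def mus (P : I → Set E) (Ψ : E → E) (μ : E → ℝ) (c : I) (z : E) (r : ℝ) (y : E) :
    ℝ :=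
  if y ∈ P c then
    if Ng z (P c) y ≤ r then Ng z (P c) y
    else r + (1 - r) * ((μ y - μ (rp P Ψ c z r (Ψ y))) / (1 - μ (rp P Ψ c z r (Ψ y))))
  else μ y

variable (F : Foam La P b N) (hp : Push La P Ψ μ) {c : I} {z : E} {r : ℝ}
variable (S : Str P Ψ μ c z r)
include F hp S

theorem pos_of {y : E} (hy : y ∈ P c) (h : y ≠ z) : 0 < μ y :=
  lt_of_le_of_ne (hp.mu_mem y (F.sub c hy)).1 fun h0 => h ((S.zero y hy).1 h0.symm)

theorem ne_of {y : E} (hy : y ∈ P c) (h : 0 < μ y) : y ≠ z := fun h0 =>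
  h.ne' ((S.zero y hy).2 h0)

theorem mem_of_Ng {y : E} (h : Ng z (P c) y ≤ r) : y ∈ P c := S.bod.le_sub S.r1.le h

theorem ray_pt {w : E} (hw : Ng z (P c) w = r) {s : ℝ} (hs : 0 < s) (hs1 : s ≤ 1) :
    Ng z (P c) (z + s • (w - z)) = s * r ∧ Ψ (z + s • (w - z)) = Ψ w ∧
      z + s • (w - z) ∈ P c ∧ 0 < μ (z + s • (w - z)) := by
  have h1 : Ng z (P c) (z + s • (w - z)) = s * r := by rw [Ng_ray z _ hs.le, hw]
  have h0 : 0 < Ng z (P c) (z + s • (w - z)) := by rw [h1]; exact mul_pos hs S.r0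
  have h2 : Ng z (P c) (z + s • (w - z)) ≤ r := by
    rw [h1]; nlinarith [S.r0]
  have h3 : z + s • (w - z) ≠ z := S.bod.pos.1 h0
  have h4 := mem_of_Ng F hp S h2
  refine ⟨h1, ?_, h4, pos_of F hp S h4 h3⟩
  rw [S.ray _ h3 h2, h1, ray_ray]
  have : r / (s * r) * s = 1 := by field_simp [S.r0.ne', hs.ne']
  rw [this, ray_one]

theorem mu_strict {w : E} (hw : Ng z (P c) w = r) :
    StrictMonoOn (fun s : ℝ => μ (z + s • (w - z))) (Icc 0 1) := by
  have hz : z ∈ P c := interior_subset S.bod.int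
  have hmem : ∀ s ∈ Icc (0 : ℝ) 1, z + s • (w - z) ∈ P c := by
    intro s hs
    rcases hs.1.eq_or_lt with h | h
    · rw [← h, zero_smul, add_zero]; exact hz
    · exact (ray_pt F hp S hw h hs.2).2.2.1
  have hc : ContinuousOn (fun s : ℝ => μ (z + s • (w - z))) (Icc 0 1) :=
    hp.mu_cont.comp (by fun_prop) fun s hs => F.sub c (hmem s hs)
  have hz0 : μ (z + (0 : ℝ) • (w - z)) = 0 := by
    rw [zero_smul, add_zero]; exact (S.zero z hz).2 rfl
  have hinj : InjOn (fun s : ℝ => μ (z + s • (w - z))) (Icc 0 1) := by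
    intro s hs t ht hst
    have hst' : μ (z + s • (w - z)) = μ (z + t • (w - z)) := hst
    rcases hs.1.eq_or_lt with h | h
    · rcases ht.1.eq_or_lt with h' | h'
      · rw [← h, ← h']
      · rw [← h, hz0] at hst'
        exact absurd hst' (ray_pt F hp S hw h' ht.2).2.2.2.ne
    · rcases ht.1.eq_or_lt with h' | h'
      · rw [← h', hz0] at hst'
        exact absurd hst' (ray_pt F hp S hw h hs.2).2.2.2.ne'
      · obtain ⟨a1, a2, a3, a4⟩ := ray_pt F hp S hw h hs.2
        obtain ⟨b1, b2, b3, b4⟩ := ray_pt F hp S hw h' ht.2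
        have h5 := hp.inj c _ a3 _ b3 a4 hst' (a2.trans b2.symm)
        rw [h5, b1] at a1
        exact (mul_right_cancel₀ S.r0.ne' a1).symm
  rcases hc.strictMonoOn_of_injOn_Icc' zero_le_one hinj with h | h
  · exact h
  · exfalso
    have h1 := h (left_mem_Icc.2 zero_le_one) (right_mem_Icc.2 zero_le_one) one_pos
    have h2 := (ray_pt F hp S hw one_pos le_rfl).2.2.2
    have h3 : μ (z + (1 : ℝ) • (w - z)) < μ (z + (0 : ℝ) • (w - z)) := h1
    rw [hz0] at h3
    linarith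

/-- the points below `w` on its fibre are on the straight ray -/
theorem eq_pt_of_le {w y : E} (hw : Ng z (P c) w = r) (hy : y ∈ P c) (hm : 0 < μ y)
    (hΨ : Ψ y = Ψ w) (hle : μ y ≤ μ w) : ∃ s : ℝ, 0 < s ∧ s ≤ 1 ∧ y = z + s • (w - z) := by
  have hz : z ∈ P c := interior_subset S.bod.int
  have hs := mu_strict F hp S hw
  have hmem : ∀ s ∈ Icc (0 : ℝ) 1, z + s • (w - z) ∈ P c := by
    intro s hs
    rcases hs.1.eq_or_lt with h | h
    · rw [← h, zero_smul, add_zero]; exact hz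
    · exact (ray_pt F hp S hw h hs.2).2.2.1
  have hc : ContinuousOn (fun s : ℝ => μ (z + s • (w - z))) (Icc 0 1) :=
    hp.mu_cont.comp (by fun_prop) fun s hs => F.sub c (hmem s hs)
  have hz0 : μ (z + (0 : ℝ) • (w - z)) = 0 := by
    rw [zero_smul, add_zero]; exact (S.zero z hz).2 rfl
  have h1 : μ (z + (1 : ℝ) • (w - z)) = μ w := by rw [ray_one]
  have h2 : μ y ∈ Icc (μ (z + (0 : ℝ) • (w - z))) (μ (z + (1 : ℝ) • (w - z))) := by
    rw [hz0, h1]; exact ⟨hm.le, hle⟩
  obtain ⟨s, hs1, hs2⟩ := intermediate_value_Icc zero_le_one hc h2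
  have hs2' : μ (z + s • (w - z)) = μ y := hs2
  have hs0 : 0 < s := by
    rcases hs1.1.eq_or_lt with h | h
    · rw [← h, hz0] at hs2'
      exact absurd hs2' hm.ne
    · exact h
  obtain ⟨a1, a2, a3, a4⟩ := ray_pt F hp S hw hs0 hs1.2
  exact ⟨s, hs0, hs1.2, hp.inj c y hy _ a3 hm hs2'.symm (hΨ.trans a2.symm)⟩

theorem ring_inj {w w' : E} (hw : Ng z (P c) w = r) (hw' : Ng z (P c) w' = r)
    (h : Ψ w = Ψ w') : w = w' := by
  have key : ∀ {w w' : E}, Ng z (P c) w = r → Ng z (P c) w' = r → Ψ w = Ψ w' → μ w ≤ μ w' →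
      w = w' := by
    intro w w' hw hw' h hle
    have h1 := mem_of_Ng F hp S hw.le
    have h2 : 0 < μ w := pos_of F hp S h1 (S.bod.pos.1 (by rw [hw]; exact S.r0))
    obtain ⟨s, hs0, hs1, he⟩ := eq_pt_of_le F hp S hw' h1 h2 h hle
    have h3 := (ray_pt F hp S hw' hs0 hs1).1
    rw [← he, hw] at h3
    have h4 : s = 1 := by
      have := S.r0
      have h5 : (1 - s) * r = 0 := by linarith
      rcases mul_eq_zero.1 h5 with h6 | h6
      · linarith
      · exact absurd h6 this.ne'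
    rw [he, h4, ray_one]
  rcases le_total (μ w) (μ w') with h1 | h1
  · exact key hw hw' h h1
  · exact (key hw' hw h.symm h1).symm

/-- a point of radius `≤ r` is on the straight ray of the ring point of its fibre -/
theorem eq_pt {w y : E} (hw : Ng z (P c) w = r) (hyz : y ≠ z) (hy : Ng z (P c) y ≤ r)
    (hΨ : Ψ y = Ψ w) : y = z + (Ng z (P c) y / r) • (w - z) := by
  have h0 : 0 < Ng z (P c) y := S.bod.pos.2 hyz
  have h1 : Ng z (P c) (z + (r / Ng z (P c) y) • (y - z)) = r := by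
    rw [Ng_ray z _ (div_nonneg S.r0.le h0.le), div_mul_cancel₀ _ h0.ne']
  have h2 := ring_inj F hp S h1 hw ((S.ray y hyz hy).symm.trans hΨ)
  rw [← h2, ray_ray]
  have : Ng z (P c) y / r * (r / Ng z (P c) y) = 1 := by field_simp [S.r0.ne', h0.ne']
  rw [this, ray_one]

theorem Ng_le_iff {w y : E} (hw : Ng z (P c) w = r) (hy : y ∈ P c) (hm : 0 < μ y)
    (hΨ : Ψ y = Ψ w) : Ng z (P c) y ≤ r ↔ μ y ≤ μ w := by
  constructor
  · intro h
    have hyz := ne_of F hp S hy hm
    have h0 : 0 < Ng z (P c) y := S.bod.pos.2 hyz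
    have h1 := eq_pt F hp S hw hyz h hΨ
    have h2 : Ng z (P c) y / r ∈ Icc (0 : ℝ) 1 :=
      ⟨div_nonneg h0.le S.r0.le, (div_le_one S.r0).2 h⟩
    have h3 := (mu_strict F hp S hw).monotoneOn h2 (right_mem_Icc.2 zero_le_one) h2.2
    have h4 : μ (z + (Ng z (P c) y / r) • (w - z)) ≤ μ (z + (1 : ℝ) • (w - z)) := h3
    rwa [← h1, ray_one] at h4
  · intro h
    obtain ⟨s, hs0, hs1, he⟩ := eq_pt_of_le F hp S hw hy hm hΨ h
    rw [he, (ray_pt F hp S hw hs0 hs1).1]
    nlinarith [S.r0]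

/-- a wall point has gauge one -/
theorem Ng_wall {d : I} {q : E} (hdc : d ≠ c) (hq : q ∈ P c) (hqd : q ∈ P d) :
    Ng z (P c) q = 1 := by
  rw [S.bod.eq_one_iff, frontier_eq F c]
  exact ⟨hq, d, hdc, hqd⟩

theorem exists_ring {d : I} {q : E} (hdc : d ≠ c) (hq : q ∈ P c) (hqd : q ∈ P d) :
    ∃ w, Ng z (P c) w = r ∧ Ψ w = q := by
  have hK : IsCompact (P c ∩ {y | r ≤ Ng z (P c) y}) :=
    (F.cpt c).inter_right (isClosed_le continuous_const S.bod.continuous)
  have hne : (P c ∩ {y | r ≤ Ng z (P c) y}).Nonempty :=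
    ⟨q, hq, by
      show r ≤ Ng z (P c) q
      rw [Ng_wall F hp S hdc hq hqd]; exact S.r1.le⟩
  obtain ⟨y0, hy0, hmin⟩ := hK.exists_isMinOn hne
    (hp.mu_cont.mono fun y hy => F.sub c hy.1)
  have hpos : 0 < μ y0 := pos_of F hp S hy0.1 (S.bod.pos.1 (S.r0.trans_le hy0.2))
  obtain ⟨y, hy, h1, h2⟩ := hp.surj c d hdc q hq hqd (min 1 (μ y0 / 2))
    ⟨lt_min one_pos (by positivity), min_le_left _ _⟩
  have hyr : Ng z (P c) y < r := by
    by_contra h
    have h3 : μ y0 ≤ μ y := hmin ⟨hy, not_lt.1 h⟩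
    rw [h2] at h3
    have h4 := min_le_right 1 (μ y0 / 2)
    linarith
  have hm : 0 < μ y := by rw [h2]; exact lt_min one_pos (by positivity)
  have hyz := ne_of F hp S hy hm
  have h0 : 0 < Ng z (P c) y := S.bod.pos.2 hyz
  refine ⟨z + (r / Ng z (P c) y) • (y - z), ?_, ?_⟩
  · rw [Ng_ray z _ (div_nonneg S.r0.le h0.le), div_mul_cancel₀ _ h0.ne']
  · rw [← S.ray y hyz hyr.le, h1]

theorem rp_spec {d : I} {q : E} (hdc : d ≠ c) (hq : q ∈ P c) (hqd : q ∈ P d) :
    Ng z (P c) (rp P Ψ c z r q) = r ∧ Ψ (rp P Ψ c z r q) = q := by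
  have h := exists_ring F hp S hdc hq hqd
  unfold rp
  rw [dif_pos h]
  exact h.choose_spec

theorem rp_Psi {w : E} (hw : Ng z (P c) w = r) : rp P Ψ c z r (Ψ w) = w := by
  have h : ∃ w', Ng z (P c) w' = r ∧ Ψ w' = Ψ w := ⟨w, hw, rfl⟩
  unfold rp
  rw [dif_pos h]
  exact ring_inj F hp S h.choose_spec.1 hw h.choose_spec.2

/-- the wall -/
theorem continuousOn_rp :
    ContinuousOn (rp P Ψ c z r) {q | q ∈ P c ∧ ∃ d, d ≠ c ∧ q ∈ P d} := by
  rw [continuousOn_iff_isClosed]
  intro K hK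
  have h1 : IsCompact ({y | Ng z (P c) y = r} ∩ K) := (S.bod.isCompact_eq r).inter_right hK
  have h2 : ContinuousOn Ψ ({y | Ng z (P c) y = r} ∩ K) := by
    refine hp.cont.mono ?_
    rintro y ⟨hy, -⟩
    have hy' : Ng z (P c) y = r := hy
    have h3 := mem_of_Ng F hp S hy'.le
    refine ⟨F.sub c h3, pos_of F hp S h3 (S.bod.pos.1 ?_)⟩
    rw [hy']; exact S.r0
  refine ⟨Ψ '' ({y | Ng z (P c) y = r} ∩ K), (h1.image_of_continuousOn h2).isClosed, ?_⟩
  ext q
  constructor
  · rintro ⟨h3, h4⟩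
    obtain ⟨hq, d, hdc, hqd⟩ := id h4
    obtain ⟨h5, h6⟩ := rp_spec F hp S hdc hq hqd
    exact ⟨⟨rp P Ψ c z r q, ⟨h5, h3⟩, h6⟩, h4⟩
  · rintro ⟨⟨w, ⟨h3, h4⟩, rfl⟩, h5⟩
    refine ⟨?_, h5⟩
    show rp P Ψ c z r (Ψ w) ∈ K
    rw [rp_Psi F hp S h3]; exact h4

/-- the ring point has `μ < 1` -/
theorem mu_ring_lt {w : E} (hw : Ng z (P c) w = r) : μ w < 1 := by
  have h1 := mem_of_Ng F hp S hw.le
  have h0 : 0 < μ w := pos_of F hp S h1 (S.bod.pos.1 (by rw [hw]; exact S.r0))
  refine lt_of_le_of_ne (hp.mu_mem w (F.sub c h1)).2 fun h => ?_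
  obtain ⟨h2, d, hdc, h3⟩ := hp.mem c w h1 h0
  obtain ⟨h4, h5⟩ := hp.wall c d hdc (Ψ w) h2 h3
  have h6 := hp.inj c w h1 (Ψ w) h2 h0 (h.trans h4.symm) h5.symm
  have h7 := Ng_wall F hp S hdc h2 h3
  rw [← h6, hw] at h7
  exact S.r1.ne h7

/-- facts on a point of the cell off the small body -/
theorem big {y : E} (hy : y ∈ P c) (h : r < Ng z (P c) y) :
    0 < μ y ∧ μ (rp P Ψ c z r (Ψ y)) < μ y ∧ μ (rp P Ψ c z r (Ψ y)) < 1 ∧
      mus P Ψ μ c z r y =
        r + (1 - r) * ((μ y - μ (rp P Ψ c z r (Ψ y))) / (1 - μ (rp P Ψ c z r (Ψ y)))) ∧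
      r < mus P Ψ μ c z r y ∧ mus P Ψ μ c z r y ≤ 1 := by
  have h0 : 0 < μ y := pos_of F hp S hy (S.bod.pos.1 (S.r0.trans h))
  obtain ⟨h2, d, hdc, h3⟩ := hp.mem c y hy h0
  obtain ⟨h5, h6⟩ := rp_spec F hp S hdc h2 h3
  have h7 : μ (rp P Ψ c z r (Ψ y)) < μ y := by
    by_contra h8
    exact absurd ((Ng_le_iff F hp S h5 hy h0 h6.symm).2 (not_lt.1 h8)) (not_le.2 h)
  have h9 := mu_ring_lt F hp S h5
  have h10 : mus P Ψ μ c z r y =
      r + (1 - r) * ((μ y - μ (rp P Ψ c z r (Ψ y))) / (1 - μ (rp P Ψ c z r (Ψ y)))) := by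
    unfold mus; rw [if_pos hy, if_neg (not_le.2 h)]
  have hy1 := (hp.mu_mem y (F.sub c hy)).2
  have h11 : 0 < (μ y - μ (rp P Ψ c z r (Ψ y))) / (1 - μ (rp P Ψ c z r (Ψ y))) :=
    div_pos (by linarith) (by linarith)
  have h12 : (μ y - μ (rp P Ψ c z r (Ψ y))) / (1 - μ (rp P Ψ c z r (Ψ y))) ≤ 1 := by
    rw [div_le_one (by linarith)]; linarith
  have hr1 := S.r1
  refine ⟨h0, h7, h9, h10, ?_, ?_⟩
  · rw [h10]
    have := mul_pos (sub_pos.2 hr1) h11
    linarith
  · rw [h10]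
    have := mul_le_mul_of_nonneg_left h12 (sub_pos.2 hr1).le
    linarith

theorem small {y : E} (h : Ng z (P c) y ≤ r) : mus P Ψ μ c z r y = Ng z (P c) y := by
  unfold mus; rw [if_pos (mem_of_Ng F hp S h), if_pos h]

theorem le_mus_iff {y : E} (hy : y ∈ P c) {s : ℝ} (hs : s ≤ r) :
    s ≤ mus P Ψ μ c z r y ↔ s ≤ Ng z (P c) y := by
  rcases le_or_gt (Ng z (P c) y) r with h | h
  · rw [small F hp S h]
  · have h1 := (big F hp S hy h).2.2.2.2.1
    exact ⟨fun _ => hs.trans h.le, fun _ => hs.trans h1.le⟩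

theorem mus_le_iff {y : E} (hy : y ∈ P c) {s : ℝ} (hs : s ≤ r) :
    mus P Ψ μ c z r y ≤ s ↔ Ng z (P c) y ≤ s := by
  rcases le_or_gt (Ng z (P c) y) r with h | h
  · rw [small F hp S h]
  · have h1 := (big F hp S hy h).2.2.2.2.1
    exact ⟨fun h2 => absurd (h2.trans hs) (not_le.2 h1),
      fun h2 => absurd (h2.trans hs) (not_le.2 h)⟩

theorem mus_wall {d : I} {q : E} (hdc : d ≠ c) (hq : q ∈ P c) (hqd : q ∈ P d) :
    mus P Ψ μ c z r q = 1 := by
  have h1 := Ng_wall F hp S hdc hq hqd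
  have h2 := big F hp S hq (by rw [h1]; exact S.r1)
  rw [h2.2.2.2.1, (hp.wall c d hdc q hq hqd).1, div_self (by linarith [h2.2.2.1])]
  ring

theorem mus_other {d : I} {y : E} (hdc : d ≠ c) (hy : y ∈ P d) : mus P Ψ μ c z r y = μ y := by
  by_cases h : y ∈ P c
  · rw [mus_wall F hp S hdc h hy, (hp.wall c d hdc y h hy).1]
  · unfold mus; rw [if_neg h]

theorem continuousOn_mus_cell : ContinuousOn (mus P Ψ μ c z r) (P c) := by
  have h1 : P c = {y | Ng z (P c) y ≤ r} ∪ (P c ∩ {y | r ≤ Ng z (P c) y}) := by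
    ext y
    constructor
    · intro hy
      rcases le_total (Ng z (P c) y) r with h | h
      · exact Or.inl h
      · exact Or.inr ⟨hy, h⟩
    · rintro (h | h)
      · exact mem_of_Ng F hp S h
      · exact h.1
  rw [h1]
  refine ContinuousOn.union_of_isClosed ?_ ?_ (isClosed_le S.bod.continuous continuous_const)
    ((F.cpt c).isClosed.inter (isClosed_le continuous_const S.bod.continuous))
  · exact S.bod.continuous.continuousOn.congr fun y hy => small F hp S hy
  · have h2 : ∀ y ∈ P c ∩ {y | r ≤ Ng z (P c) y}, mus P Ψ μ c z r y =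
        r + (1 - r) * ((μ y - μ (rp P Ψ c z r (Ψ y))) / (1 - μ (rp P Ψ c z r (Ψ y)))) := by
      rintro y ⟨hy, hr⟩
      rcases (show r ≤ Ng z (P c) y from hr).eq_or_lt with h | h
      · rw [small F hp S h.symm.le, rp_Psi F hp S h.symm, sub_self, zero_div, mul_zero, add_zero]
        exact h.symm
      · exact (big F hp S hy h).2.2.2.1
    have h3 : ∀ y ∈ P c ∩ {y | r ≤ Ng z (P c) y}, 0 < μ y := by
      rintro y ⟨hy, hr⟩
      exact pos_of F hp S hy (S.bod.pos.1 (S.r0.trans_le hr))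
    have h4 : ContinuousOn Ψ (P c ∩ {y | r ≤ Ng z (P c) y}) :=
      hp.cont.mono fun y hy => ⟨F.sub c hy.1, h3 y hy⟩
    have h5 : ContinuousOn (fun y => rp P Ψ c z r (Ψ y)) (P c ∩ {y | r ≤ Ng z (P c) y}) :=
      (continuousOn_rp F hp S).comp h4 fun y hy => hp.mem c y hy.1 (h3 y hy)
    have h6 : ContinuousOn μ (P c ∩ {y | r ≤ Ng z (P c) y}) :=
      hp.mu_cont.mono fun y hy => F.sub c hy.1
    have h7 : ∀ y ∈ P c ∩ {y | r ≤ Ng z (P c) y}, Ng z (P c) (rp P Ψ c z r (Ψ y)) = r := by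
      intro y hy
      obtain ⟨a1, d, a2, a3⟩ := hp.mem c y hy.1 (h3 y hy)
      exact (rp_spec F hp S a2 a1 a3).1
    have h8 : ContinuousOn (fun y => μ (rp P Ψ c z r (Ψ y))) (P c ∩ {y | r ≤ Ng z (P c) y}) :=
      hp.mu_cont.comp h5 fun y hy => F.sub c (mem_of_Ng F hp S (h7 y hy).le)
    refine ContinuousOn.congr ?_ h2
    refine continuousOn_const.add (continuousOn_const.mul ((h6.sub h8).div
      (continuousOn_const.sub h8) fun y hy => ?_))
    have := mu_ring_lt F hp S (h7 y hy)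
    linarith

/-- **the new gauge is the gauge of a push** -/
theorem push_mus : Push La P Ψ (mus P Ψ μ c z r) := by
  classical
  have hpos : ∀ y ∈ La, 0 < mus P Ψ μ c z r y → 0 < μ y := by
    intro y hy h
    by_cases hc : y ∈ P c
    · rcases le_or_gt (Ng z (P c) y) r with h1 | h1
      · rw [small F hp S h1] at h
        exact pos_of F hp S hc (S.bod.pos.1 h)
      · exact (big F hp S hc h1).1
    · unfold mus at h
      rwa [if_neg hc] at h
  refine ⟨?_, ?_, ?_, ?_, ?_, ?_, ?_⟩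
  · refine glue_cont F Subset.rfl
      (gc := fun d => if d = c then mus P Ψ μ c z r else μ) (fun d y hy => ?_) fun d => ?_
    · by_cases h : d = c
      · simp only [if_pos h]
      · simp only [if_neg h]
        exact mus_other F hp S h hy
    · by_cases h : d = c
      · subst h
        simp only [if_true]
        exact (continuousOn_mus_cell F hp S).mono inter_subset_left
      · simp only [if_neg h]
        exact hp.mu_cont.mono inter_subset_right
  · intro y hy
    by_cases hc : y ∈ P c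
    · rcases le_or_gt (Ng z (P c) y) r with h1 | h1
      · rw [small F hp S h1]
        exact ⟨Ng_nonneg _ _ _, h1.trans S.r1.le⟩
      · have h2 := big F hp S hc h1
        exact ⟨(S.r0.trans h2.2.2.2.2.1).le, h2.2.2.2.2.2⟩
    · unfold mus
      rw [if_neg hc]
      exact hp.mu_mem y hy
  · intro d d' hne y hy hy'
    refine ⟨?_, (hp.wall d d' hne y hy hy').2⟩
    by_cases h : d = c
    · subst h
      exact mus_wall F hp S hne hy hy'
    · rw [mus_other F hp S h hy]
      exact (hp.wall d d' hne y hy hy').1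
  · exact hp.cont.mono fun y hy => ⟨hy.1, hpos y hy.1 hy.2⟩
  · exact fun d y hy h => hp.mem d y hy (hpos y (F.sub d hy) h)
  · intro d y hy y' hy' h0 hm hΨ
    by_cases hd : d = c
    · subst hd
      rcases le_or_gt (Ng z (P d) y) r with h1 | h1
      · rcases le_or_gt (Ng z (P d) y') r with h2 | h2
        · rw [small F hp S h1, small F hp S h2] at hm
          rw [small F hp S h1] at h0
          have hyz := S.bod.pos.1 h0
          have hyz' := S.bod.pos.1 (hm ▸ h0)
          have h3 : Ng z (P d) (z + (r / Ng z (P d) y) • (y - z)) = r := by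
            rw [Ng_ray z _ (div_nonneg S.r0.le h0.le), div_mul_cancel₀ _ h0.ne']
          have h4 := S.ray y hyz h1
          rw [eq_pt F hp S h3 hyz h1 h4, eq_pt F hp S h3 hyz' h2 (hΨ.symm.trans h4), hm]
        · exfalso
          have h3 := (big F hp S hy' h2).2.2.2.2.1
          rw [← hm, small F hp S h1] at h3
          linarith
      · rcases le_or_gt (Ng z (P d) y') r with h2 | h2
        · exfalso
          have h3 := (big F hp S hy h1).2.2.2.2.1
          rw [hm, small F hp S h2] at h3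
          linarith
        · obtain ⟨a1, a2, a3, a4, -⟩ := big F hp S hy h1
          obtain ⟨b1, b2, b3, b4, -⟩ := big F hp S hy' h2
          rw [a4, b4, ← hΨ] at hm
          rw [← hΨ] at b2 b3
          have hr := sub_pos.2 S.r1
          have h5 : (μ y - μ (rp P Ψ d z r (Ψ y))) / (1 - μ (rp P Ψ d z r (Ψ y))) =
              (μ y' - μ (rp P Ψ d z r (Ψ y))) / (1 - μ (rp P Ψ d z r (Ψ y))) :=
            mul_left_cancel₀ hr.ne' (add_left_cancel hm)
          rw [div_left_inj' (by linarith)] at h5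
          exact hp.inj d y hy y' hy' a1 (by linarith) hΨ
    · rw [mus_other F hp S hd hy] at h0 hm
      rw [mus_other F hp S hd hy'] at hm
      exact hp.inj d y hy y' hy' h0 hm hΨ
  · intro d d' hne q hq hq' m hm
    by_cases hd : d = c
    · subst hd
      obtain ⟨h1, h2⟩ := rp_spec F hp S hne hq hq'
      set w := rp P Ψ d z r q with hw
      rcases le_or_gt m r with h3 | h3
      · have h4 : 0 < m / r := div_pos hm.1 S.r0
        have h5 : m / r ≤ 1 := (div_le_one S.r0).2 h3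
        obtain ⟨a1, a2, a3, a4⟩ := ray_pt F hp S h1 h4 h5
        rw [div_mul_cancel₀ _ S.r0.ne'] at a1
        exact ⟨_, a3, a2.trans h2, by rw [small F hp S (by rw [a1]; exact h3), a1]⟩
      · have hr := sub_pos.2 S.r1
        have h4 := mu_ring_lt F hp S h1
        have hw0 : 0 ≤ μ w := (hp.mu_mem w (F.sub d (mem_of_Ng F hp S h1.le))).1
        have h5 : 0 < (m - r) / (1 - r) := div_pos (by linarith) hr
        have h6 : (m - r) / (1 - r) ≤ 1 := by rw [div_le_one hr]; linarith [hm.2]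
        obtain ⟨y, hy, h7, h8⟩ := hp.surj d d' hne q hq hq'
          (μ w + (m - r) / (1 - r) * (1 - μ w))
          ⟨by nlinarith [mul_pos h5 (sub_pos.2 h4)],
            by nlinarith [mul_le_mul_of_nonneg_right h6 (sub_pos.2 h4).le]⟩
        have h9 : 0 < μ y := by rw [h8]; nlinarith [mul_pos h5 (sub_pos.2 h4)]
        have h10 : r < Ng z (P d) y := by
          by_contra h11
          have h12 := (Ng_le_iff F hp S h1 hy h9 (h7.trans h2.symm)).1 (not_lt.1 h11)
          rw [h8] at h12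
          nlinarith [mul_pos h5 (sub_pos.2 h4)]
        refine ⟨y, hy, h7, ?_⟩
        rw [(big F hp S hy h10).2.2.2.1, h7, ← hw, h8]
        have h13 : 1 - μ w ≠ 0 := by linarith
        field_simp
        ring
    · obtain ⟨y, hy, h1, h2⟩ := hp.surj d d' hne q hq hq' m hm
      exact ⟨y, hy, h1, by rw [mus_other F hp S hd hy]; exact h2⟩

end straight

end Crest.Agent.R096.Etg_163
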