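import Crest.Agent.R096.Etg5_163

/-! Row 96 (helper163), DOORS-ESS-TARGET, part 6: the target sets (g1)-(g3) with 337's gauge `gau`
of a brick with a point hole (`RayTo`), and their pull-backs to `Om` -/

set_option autoImplicit false
set_option linter.unusedSectionVars false
set_option linter.style.haveILetI false

open Set Topology Filter

namespace Crest.Agent.R096.Etg_163

open Crest.Agent.R096.Coh_184 Crest.Agent.R096.Brk1_582 Crest.Agent.R096.Brk2_582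
open Crest.Agent.R096.Bsp_628 Crest.Agent.R096.Brk3_582 Crest.Agent.R096.Vb_965
open Crest.Agent.R096.Exc_965 Crest.Agent.R96.Push_899 Crest.Agent.R096.SkC1_961
open Crest.Agent.R096.Sphg_316
open Crest.Agent.R096.Pse_316 (gau_eq bod_brick)

section inner

variable {E : Type*} [NormedAddCommGroup E] [NormedSpace ℝ E] [CompleteSpace E] {I : Type*}
variable {La : Set E} {P : I → Set E} {b : Set I → E} {N : ℕ} {Ψ : E → E} {μ : E → ℝ} {ε : ℝ}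
variable {c : I} {z : E} {r ρ : ℝ}

theorem Str.mono (S : Str P Ψ μ c z r) (h0 : 0 < ρ) (h : ρ ≤ r) : Str P Ψ μ c z ρ where
  bod := S.bod
  zero := S.zero
  r0 := h0
  r1 := h.trans_lt S.r1
  ray y hy hyρ := by
    have hg : 0 < Ng z (P c) y := S.bod.pos.2 hy
    have h1 : Ng z (P c) (z + (ρ / Ng z (P c) y) • (y - z)) = ρ := by
      rw [Ng_ray z _ (div_nonneg h0.le hg.le), div_mul_cancel₀ _ hg.ne']
    have h2 : z + (ρ / Ng z (P c) y) • (y - z) ≠ z := S.bod.pos.1 (by rw [h1]; exact h0)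
    rw [S.ray y hy (hyρ.trans h), S.ray _ h2 (by rw [h1]; exact h), h1, ray_ray]
    congr 3
    field_simp [h0.ne', hg.ne']

variable (F : Foam La P b N) (hp : Push La P Ψ μ) (S : Str P Ψ μ c z r)
include F hp S

/-- **(g2), abstract**, for the gauge `Ng z (P c)` -/
theorem preconn_inner_str (hε : 0 < ε) (hε1 : ε ≤ 1) (h0 : 0 < ρ) (hρ : ρ ≤ r)
    (hcap : ∀ y ∈ P c, μ y < ε → Ng z (P c) y < ρ) {D : Set E} (hDc : IsCompact D)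
    (hDP : D ⊆ P c) (hbD : b {c} ∉ D) (hDp : IsPreconnected D) :
    IsPreconnected {y | y ∈ P c ∧ RR P b Ψ μ ε y ∈ D ∧ Ng z (P c) y ≤ ρ} ∧
      IsCompact {y | y ∈ P c ∧ RR P b Ψ μ ε y ∈ D ∧ Ng z (P c) y ≤ ρ} ∧
      (D.Nonempty → {y | y ∈ P c ∧ RR P b Ψ μ ε y ∈ D ∧ Ng z (P c) y ≤ ρ}.Nonempty) := by
  classical
  have S' := S.mono h0 hρ
  set T := {y | y ∈ P c ∧ RR P b Ψ μ ε y ∈ D ∧ Ng z (P c) y ≤ ρ} with hT
  have hR : ContinuousOn (RR P b Ψ μ ε) (P c) := (continuousOn_RR F hp hε hε1).mono (F.sub c)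
  have h1 : T = (P c ∩ RR P b Ψ μ ε ⁻¹' D) ∩ {y | Ng z (P c) y ≤ ρ} := by
    ext y
    exact ⟨fun h => ⟨⟨h.1, h.2.1⟩, h.2.2⟩, fun h => ⟨h.1.1, h.1.2, h.2⟩⟩
  have hK : IsCompact T := by
    rw [h1]
    exact ((F.cpt c).of_isClosed_subset (hR.preimage_isClosed_of_isClosed (F.cpt c).isClosed
      hDc.isClosed) inter_subset_left).inter_right
      (isClosed_le S.bod.continuous continuous_const)
  have hint : ∀ q ∈ D, (∀ d, q ∈ P d → d = c) → ∃ y0, {y ∈ La | RR P b Ψ μ ε y = q} = {y0} := by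
    intro q hq hone
    exact fibreR_cell F hp hε hε1 (hDP hq) hone fun h => hbD (h ▸ hq)
  -- the ring point of radius ρ over a wall point
  have hw : ∀ q ∈ P c, ∀ d, d ≠ c → q ∈ P d → ∃ w, Ng z (P c) w = ρ ∧ Ψ w = q ∧ ε ≤ μ w ∧
      μ w ≤ 1 ∧ w ∈ P c := by
    intro q hq d hdc hqd
    obtain ⟨w, hw1, hw2⟩ := exists_ring F hp S' hdc hq hqd
    have hwc := mem_of_Ng F hp S' hw1.le
    refine ⟨w, hw1, hw2, ?_, (mu_ring_lt F hp S' hw1).le, hwc⟩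
    by_contra h
    have := hcap w hwc (not_le.1 h)
    rw [hw1] at this
    exact lt_irrefl _ this
  have himg : RR P b Ψ μ ε '' T = D := by
    ext q
    constructor
    · rintro ⟨y, hy, rfl⟩; exact hy.2.1
    · intro hq
      by_cases hwq : ∃ d, d ≠ c ∧ q ∈ P d
      · obtain ⟨d, hdc, hqd⟩ := hwq
        obtain ⟨w, h2, h3, h4, h5, h6⟩ := hw q (hDP hq) d hdc hqd
        have h7 : RR P b Ψ μ ε w = q := by
          rw [RR_eq_Psi F hp hε hε1 (F.sub c h6) h4, h3]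
        exact ⟨w, ⟨h6, by rw [h7]; exact hq, h2.le⟩, h7⟩
      · push Not at hwq
        have hone : ∀ d, q ∈ P d → d = c := fun d hd => by
          by_contra h; exact hwq d h hd
        obtain ⟨y0, hy0⟩ := hint q hq hone
        have h2 : y0 ∈ {y ∈ La | RR P b Ψ μ ε y = q} := by rw [hy0]; rfl
        obtain ⟨h3, h4⟩ := h2
        obtain ⟨d, hd⟩ := F.cov y0 h3
        have hdc : d = c := hone d (by rw [← h4]; exact RR_mem F hp hε hε1 hd)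
        subst hdc
        have h5 : μ y0 < ε := by
          by_contra h5
          have h6 := not_lt.1 h5
          obtain ⟨-, d', h7, h8⟩ := hp.mem d y0 hd (hε.trans_le h6)
          rw [RR_eq_Psi F hp hε hε1 h3 h6] at h4
          rw [h4] at h8
          exact h7 (hone d' h8)
        exact ⟨y0, ⟨hd, by rw [h4]; exact hq, (hcap y0 hd h5).le⟩, h4⟩
  refine ⟨preconn_of_fibres hK (hR.mono fun y hy => hy.1) himg ?_ hDp, hK, ?_⟩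
  · intro q hq
    by_cases hwq : ∃ d, d ≠ c ∧ q ∈ P d
    · obtain ⟨d, hdc, hqd⟩ := hwq
      obtain ⟨w, h2, h3, h4, h5, h6⟩ := hw q (hDP hq) d hdc hqd
      have h7 : T ∩ RR P b Ψ μ ε ⁻¹' {q} =
          {y | y ∈ P c ∧ Ψ y = q ∧ ε ≤ μ y ∧ μ y ≤ μ w} := by
        ext y
        constructor
        · rintro ⟨⟨hy, -, hyρ⟩, hyq⟩
          obtain ⟨h8, h9⟩ := wall_inv F hp hε hε1 (F.sub c hy) hyq hdc (hDP hq) hqd
          exact ⟨hy, h8, h9, (Ng_le_iff F hp S' h2 hy (hε.trans_le h9) (h8.trans h3.symm)).1 hyρ⟩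
        · rintro ⟨hy, h8, h9, h10⟩
          have h11 : RR P b Ψ μ ε y = q := by rw [RR_eq_Psi F hp hε hε1 (F.sub c hy) h9, h8]
          exact ⟨⟨hy, by rw [h11]; exact hq,
            (Ng_le_iff F hp S' h2 hy (hε.trans_le h9) (h8.trans h3.symm)).2 h10⟩, h11⟩
      rw [h7]
      exact (arc_between F hp hε h4 h5 hdc (hDP hq) hqd).1
    · push Not at hwq
      have hone : ∀ d, q ∈ P d → d = c := fun d hd => by
        by_contra h; exact hwq d h hd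
      obtain ⟨y0, hy0⟩ := hint q hq hone
      refine Set.Subsingleton.isPreconnected fun y hy z hz => ?_
      have h3 : y ∈ ({y0} : Set E) := by rw [← hy0]; exact ⟨F.sub c hy.1.1, hy.2⟩
      have h4 : z ∈ ({y0} : Set E) := by rw [← hy0]; exact ⟨F.sub c hz.1.1, hz.2⟩
      rw [mem_singleton_iff.1 h3, mem_singleton_iff.1 h4]
  · rintro ⟨q, hq⟩
    rw [← himg] at hq
    obtain ⟨y, hy, -⟩ := hq
    exact ⟨y, hy⟩

/-- **(g3), abstract**, for the gauge `Ng z (P c)` -/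
theorem preconn_shell_str {ρ' : ℝ} (h0 : 0 < ρ) (hρρ : ρ ≤ ρ') (hρ' : ρ' ≤ r) {D : Set E}
    (hDs : ∀ q ∈ D, q ∈ P c ∧ ∃ d, d ≠ c ∧ q ∈ P d) (hDc : IsCompact D) (hD : IsPreconnected D) :
    IsPreconnected {y | y ∈ P c ∧ Ψ y ∈ D ∧ ρ ≤ Ng z (P c) y ∧ Ng z (P c) y ≤ ρ'} ∧
      IsCompact {y | y ∈ P c ∧ Ψ y ∈ D ∧ ρ ≤ Ng z (P c) y ∧ Ng z (P c) y ≤ ρ'} ∧
      (D.Nonempty → {y | y ∈ P c ∧ Ψ y ∈ D ∧ ρ ≤ Ng z (P c) y ∧ Ng z (P c) y ≤ ρ'}.Nonempty) := by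
  have h1 : {y | y ∈ P c ∧ Ψ y ∈ D ∧ ρ ≤ Ng z (P c) y ∧ Ng z (P c) y ≤ ρ'} =
      {y | y ∈ P c ∧ Ψ y ∈ D ∧ ρ ≤ mus P Ψ μ c z r y ∧ mus P Ψ μ c z r y ≤ ρ'} := by
    ext y
    constructor
    · rintro ⟨h2, h3, h4, h5⟩
      exact ⟨h2, h3, (le_mus_iff F hp S h2 (hρρ.trans hρ')).2 h4, (mus_le_iff F hp S h2 hρ').2 h5⟩
    · rintro ⟨h2, h3, h4, h5⟩
      exact ⟨h2, h3, (le_mus_iff F hp S h2 (hρρ.trans hρ')).1 h4, (mus_le_iff F hp S h2 hρ').1 h5⟩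
  rw [h1]
  exact preconn_shell F (push_mus F hp S) h0 hρρ (hρ'.trans S.r1.le) hDs hDc hD

end inner

/-! ### `FoamD` -/

section foamd

variable {δ κ0 R c0 : ℝ} {La : Set E3} (Φ : FoamD δ κ0 R c0 La) {e : Φ.F → ℝ}
variable {a c : Φ.F} {t ρ ρ' r : ℝ}

/-- the gauge of the brick `c` about its point hole (337's `gau`, 539's `ga`) -/
noncomputable abbrev gg (c : Φ.F) (y : E3) : ℝ := Mbf_337.gau c.1 (Φ.B c).lo y

theorem gg_eq (c : Φ.F) (y : E3) : gg Φ c y = Ng (Φ.B c).lo (Pc Φ.F c) y := gau_eq c.1 _ y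

theorem mem_pt {c : Φ.F} (hpt : (Φ.B c).lo = (Φ.B c).hi) {y : E3} :
    y ∈ (Φ.B c).S ↔ y = (Φ.B c).lo := by
  constructor
  · intro h
    ext k
    exact le_antisymm (((h k).2).trans (by rw [hpt])) (h k).1
  · rintro rfl k
    exact ⟨le_rfl, (Φ.B c).le k⟩

theorem str_of (hLa : IsOpen La) (hpt : (Φ.B c).lo = (Φ.B c).hi) (hr0 : 0 < r) (hr1 : r < 1)
    (hray : Mbf_337.RayTo Φ c r) : Str (Pc Φ.F) Φ.Psi (muD Φ) c (Φ.B c).lo r where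
  bod := bod_brick Φ c hpt
  zero y hy := by
    have h1 := muD_pos Φ hLa (c := c) hy
    have h2 := ((pushD Φ hLa).mu_mem y (Φ.bf.sub c.1 c.2 hy)).1
    rw [mem_pt Φ hpt] at h1
    constructor
    · intro h
      by_contra h3
      exact (h1.2 h3).ne' h
    · intro h
      by_contra h3
      exact h1.1 (lt_of_le_of_ne h2 (Ne.symm h3)) h
  r0 := hr0
  r1 := hr1
  ray y hy hyr := by
    rw [← gg_eq] at hyr ⊢
    exact hray y hy hyr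

/-- thresholds with the caps in a given neighbourhood of the hole -/
theorem exists_cap (hLa : IsOpen La) (hpt : (Φ.B c).lo = (Φ.B c).hi) {U : Set E3}
    (hU : U ∈ 𝓝 (Φ.B c).lo) : ∃ e0 : ℝ, 0 < e0 ∧ e0 < 1 ∧
      ∀ y ∈ c.1.set, muD Φ y < e0 → y ∈ U := by
  have F := Brk3_582.foam Φ.bf hLa
  obtain ⟨V, hVU, hVo, hV⟩ := mem_nhds_iff.1 hU
  have hK : IsCompact (Pc Φ.F c ∩ Vᶜ) := (F.cpt c).inter_right hVo.isClosed_compl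
  rcases (Pc Φ.F c ∩ Vᶜ).eq_empty_or_nonempty with h | h
  · refine ⟨1 / 2, by norm_num, by norm_num, fun y hy _ => hVU ?_⟩
    by_contra h2
    have : y ∈ Pc Φ.F c ∩ Vᶜ := ⟨hy, h2⟩
    rw [h] at this
    exact this
  · obtain ⟨y0, hy0, hmin⟩ := hK.exists_isMinOn h
      ((pushD Φ hLa).mu_cont.mono fun y hy => F.sub c hy.1)
    have h1 : 0 < muD Φ y0 := by
      rw [muD_pos Φ hLa (c := c) hy0.1, mem_pt Φ hpt]
      intro h2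
      exact hy0.2 (h2 ▸ hV)
    refine ⟨min (muD Φ y0) (1 / 2), lt_min h1 (by norm_num),
      (min_le_right _ _).trans_lt (by norm_num), fun y hy hlt => hVU ?_⟩
    by_contra h2
    have h3 : muD Φ y0 ≤ muD Φ y := hmin ⟨hy, h2⟩
    have h4 := min_le_left (muD Φ y0) (1 / 2)
    linarith

/-- thresholds with the caps in `{gau < ρ}` -/
theorem exists_cap_gau (hLa : IsOpen La) (hpt : (Φ.B c).lo = (Φ.B c).hi) (h0 : 0 < ρ) :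
    ∃ e0 : ℝ, 0 < e0 ∧ e0 < 1 ∧ ∀ y ∈ c.1.set, muD Φ y < e0 → gg Φ c y < ρ := by
  have hb := bod_brick Φ c hpt
  have h1 : {y | Ng (Φ.B c).lo (Pc Φ.F c) y < ρ} ∈ 𝓝 (Φ.B c).lo := by
    refine (hb.isOpen_lt ρ).mem_nhds ?_
    show Ng (Φ.B c).lo (Pc Φ.F c) (Φ.B c).lo < ρ
    rw [Ng_self]; exact h0
  obtain ⟨e0, h2, h3, h4⟩ := exists_cap Φ hLa hpt h1
  exact ⟨e0, h2, h3, fun y hy h => by rw [gg_eq]; exact h4 y hy h⟩

/-- the gauge balls are compact, convex, in the brick -/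
theorem ball_gau (hpt : (Φ.B c).lo = (Φ.B c).hi) (ρ : ℝ) :
    IsCompact {y | gg Φ c y ≤ ρ} ∧ Convex ℝ {y | gg Φ c y ≤ ρ} ∧
      (ρ ≤ 1 → {y | gg Φ c y ≤ ρ} ⊆ c.1.set) := by
  have hb := bod_brick Φ c hpt
  have h1 : {y | gg Φ c y ≤ ρ} = {y | Ng (Φ.B c).lo (Pc Φ.F c) y ≤ ρ} := by
    ext y
    show gg Φ c y ≤ ρ ↔ _
    rw [gg_eq]; rfl
  rw [h1]
  exact ⟨hb.isCompact_le ρ, hb.convex_le ρ, fun h => hb.le_sub h⟩

/-! ### (g3) -/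

section g3

variable (hLa : IsOpen La) (hpt : (Φ.B c).lo = (Φ.B c).hi) (hr1 : r < 1)
  (hray : Mbf_337.RayTo Φ c r) (h0 : 0 < ρ) (hρρ : ρ ≤ ρ') (hρ' : ρ' ≤ r)
include hLa hpt hr1 hray h0 hρρ hρ'

theorem shell_gen {D : Set E3} (hDs : ∀ q ∈ D, q ∈ Pc Φ.F c ∧ ∃ d, d ≠ c ∧ q ∈ Pc Φ.F d)
    (hDc : IsCompact D) (hD : IsPreconnected D) :
    IsPreconnected {y | y ∈ c.1.set ∧ Φ.Psi y ∈ D ∧ ρ ≤ gg Φ c y ∧ gg Φ c y ≤ ρ'} ∧
      IsCompact {y | y ∈ c.1.set ∧ Φ.Psi y ∈ D ∧ ρ ≤ gg Φ c y ∧ gg Φ c y ≤ ρ'} ∧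
      (D.Nonempty →
        {y | y ∈ c.1.set ∧ Φ.Psi y ∈ D ∧ ρ ≤ gg Φ c y ∧ gg Φ c y ≤ ρ'}.Nonempty) := by
  have S := str_of Φ hLa hpt (h0.trans_le (hρρ.trans hρ')) hr1 hray
  have h1 : {y | y ∈ c.1.set ∧ Φ.Psi y ∈ D ∧ ρ ≤ gg Φ c y ∧ gg Φ c y ≤ ρ'} =
      {y | y ∈ Pc Φ.F c ∧ Φ.Psi y ∈ D ∧ ρ ≤ Ng (Φ.B c).lo (Pc Φ.F c) y ∧
        Ng (Φ.B c).lo (Pc Φ.F c) y ≤ ρ'} := by
    ext y
    show y ∈ c.1.set ∧ Φ.Psi y ∈ D ∧ ρ ≤ gg Φ c y ∧ gg Φ c y ≤ ρ' ↔ _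
    rw [gg_eq]; rfl
  rw [h1]
  exact preconn_shell_str (Brk3_582.foam Φ.bf hLa) (pushD Φ hLa) S h0 hρρ hρ' hDs hDc hD

theorem wall_of {y : E3} (hy : y ∈ c.1.set) (h : ρ ≤ gg Φ c y) :
    Φ.Psi y ∈ Pc Φ.F c ∧ ∃ d, d ≠ c ∧ Φ.Psi y ∈ Pc Φ.F d := by
  have S := str_of Φ hLa hpt (h0.trans_le (hρρ.trans hρ')) hr1 hray
  rw [gg_eq] at h
  exact (pushD Φ hLa).mem c y hy (pos_of (Brk3_582.foam Φ.bf hLa) (pushD Φ hLa) S hy
    (S.bod.pos.1 (h0.trans_le h)))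

/-- **the full shell** `{ρ ≤ gau ≤ ρ'}` (with `ρ = ρ'`: the sphere) -/
theorem shell_all_gau :
    IsPreconnected {y | y ∈ c.1.set ∧ ρ ≤ gg Φ c y ∧ gg Φ c y ≤ ρ'} ∧
      IsCompact {y | y ∈ c.1.set ∧ ρ ≤ gg Φ c y ∧ gg Φ c y ≤ ρ'} := by
  have F := Brk3_582.foam Φ.bf hLa
  have h3 : Module.finrank ℝ E3 = 3 := by simp [E3]
  have hD := isPreconnected_Lset F h3 (cell_nonempty Φ c) le_rfl one_pos
  have hDc := isCompact_Lset F c le_rfl one_pos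
  rw [Lset_zero F] at hD hDc
  obtain ⟨g1, g2, g3⟩ := shell_gen Φ hLa hpt hr1 hray h0 hρρ hρ' (fun q hq => hq) hDc hD
  have h1 : {y | y ∈ c.1.set ∧ ρ ≤ gg Φ c y ∧ gg Φ c y ≤ ρ'} =
      {y | y ∈ c.1.set ∧ Φ.Psi y ∈ {q | q ∈ Pc Φ.F c ∧ ∃ d, d ≠ c ∧ q ∈ Pc Φ.F d} ∧
        ρ ≤ gg Φ c y ∧ gg Φ c y ≤ ρ'} := by
    ext y
    exact ⟨fun h => ⟨h.1, wall_of Φ hLa hpt hr1 hray h0 hρρ hρ' h.1 h.2.1, h.2⟩,
      fun h => ⟨h.1, h.2.2⟩⟩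
  rw [h1]
  exact ⟨g1, g2⟩

variable (hac : a ≠ c) (hne : (a.1.set ∩ c.1.set).Nonempty)
include hac hne

/-- **(g3), lower part** -/
theorem shell_le_gau (ht0 : 0 ≤ t) (ht1 : t < 1) :
    IsPreconnected {y | y ∈ c.1.set ∧ Φ.lev a y ≤ t ∧ ρ ≤ gg Φ c y ∧ gg Φ c y ≤ ρ'} ∧
      IsCompact {y | y ∈ c.1.set ∧ Φ.lev a y ≤ t ∧ ρ ≤ gg Φ c y ∧ gg Φ c y ≤ ρ'} ∧
      {y | y ∈ c.1.set ∧ Φ.lev a y ≤ t ∧ ρ ≤ gg Φ c y ∧ gg Φ c y ≤ ρ'}.Nonempty := by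
  have F := Brk3_582.foam Φ.bf hLa
  have h3 := preconn_Dle F (a := a) (c := c) hac hne ht0 ht1
  obtain ⟨g1, g2, g3⟩ := shell_gen Φ hLa hpt hr1 hray h0 hρρ hρ'
    (D := Dle (Pc Φ.F) (bc (F := Φ.F)) c a t) (fun q hq => ⟨hq.1, hq.2.1⟩) (isCompact_Dle F) h3.1
  have h1 : {y | y ∈ c.1.set ∧ Φ.lev a y ≤ t ∧ ρ ≤ gg Φ c y ∧ gg Φ c y ≤ ρ'} =
      {y | y ∈ c.1.set ∧ Φ.Psi y ∈ Dle (Pc Φ.F) (bc (F := Φ.F)) c a t ∧ ρ ≤ gg Φ c y ∧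
        gg Φ c y ≤ ρ'} := by
    ext y
    constructor
    · rintro ⟨h2, h4, h5⟩
      obtain ⟨h6, h7⟩ := wall_of Φ hLa hpt hr1 hray h0 hρρ hρ' h2 h5.1
      exact ⟨h2, ⟨h6, h7, h4⟩, h5⟩
    · rintro ⟨h2, h4, h5⟩
      exact ⟨h2, h4.2.2, h5⟩
  rw [h1]
  exact ⟨g1, g2, g3 h3.2⟩

/-- **(g3), upper part** -/
theorem shell_ge_gau (ht0 : 0 < t) (ht1 : t < 1) :
    IsPreconnected {y | y ∈ c.1.set ∧ t ≤ Φ.lev a y ∧ ρ ≤ gg Φ c y ∧ gg Φ c y ≤ ρ'} ∧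
      IsCompact {y | y ∈ c.1.set ∧ t ≤ Φ.lev a y ∧ ρ ≤ gg Φ c y ∧ gg Φ c y ≤ ρ'} ∧
      {y | y ∈ c.1.set ∧ t ≤ Φ.lev a y ∧ ρ ≤ gg Φ c y ∧ gg Φ c y ≤ ρ'}.Nonempty := by
  have F := Brk3_582.foam Φ.bf hLa
  have h3 := preconn_Dge Φ.bf hLa (a := a) (c := c) hac hne ht0 ht1
  obtain ⟨g1, g2, g3⟩ := shell_gen Φ hLa hpt hr1 hray h0 hρρ hρ'
    (D := Dge (Pc Φ.F) (bc (F := Φ.F)) c a t) (fun q hq => ⟨hq.1, hq.2.1⟩) (isCompact_Dge F) h3.1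
  have h1 : {y | y ∈ c.1.set ∧ t ≤ Φ.lev a y ∧ ρ ≤ gg Φ c y ∧ gg Φ c y ≤ ρ'} =
      {y | y ∈ c.1.set ∧ Φ.Psi y ∈ Dge (Pc Φ.F) (bc (F := Φ.F)) c a t ∧ ρ ≤ gg Φ c y ∧
        gg Φ c y ≤ ρ'} := by
    ext y
    constructor
    · rintro ⟨h2, h4, h5⟩
      obtain ⟨h6, h7⟩ := wall_of Φ hLa hpt hr1 hray h0 hρρ hρ' h2 h5.1
      exact ⟨h2, ⟨h6, h7, h4⟩, h5⟩
    · rintro ⟨h2, h4, h5⟩
      exact ⟨h2, h4.2.2, h5⟩
  rw [h1]
  exact ⟨g1, g2, g3 h3.2⟩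

/-- **the annulus of the sheet** -/
theorem annulus_gau (ht0 : 0 < t) (ht1 : t < 1) :
    IsPreconnected {y | y ∈ c.1.set ∧ Φ.lev a y = t ∧ ρ ≤ gg Φ c y ∧ gg Φ c y ≤ ρ'} ∧
      IsCompact {y | y ∈ c.1.set ∧ Φ.lev a y = t ∧ ρ ≤ gg Φ c y ∧ gg Φ c y ≤ ρ'} ∧
      {y | y ∈ c.1.set ∧ Φ.lev a y = t ∧ ρ ≤ gg Φ c y ∧ gg Φ c y ≤ ρ'}.Nonempty := by
  have F := Brk3_582.foam Φ.bf hLa
  have h3 := isPreconnected_ring Φ.bf hLa (c := c) (a := a) (t := t) (by simp) hac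
    (by rw [inter_comm]; exact hne) ht0 ht1
  have hr : ∀ q, q ∈ ring (Pc Φ.F) (bc (F := Φ.F)) c a t ↔
      (q ∈ Pc Φ.F c ∧ ∃ d, d ≠ c ∧ q ∈ Pc Φ.F d) ∧ sc (Pc Φ.F) (bc (F := Φ.F)) q a = t := by
    intro q
    rw [ring_eq_frontier F, frontier_eq F c]
    exact Iff.rfl
  obtain ⟨g1, g2, g3⟩ := shell_gen Φ hLa hpt hr1 hray h0 hρρ hρ'
    (D := ring (Pc Φ.F) (bc (F := Φ.F)) c a t) (fun q hq => ((hr q).1 hq).1)
    (isCompact_ring F) h3.1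
  have h1 : {y | y ∈ c.1.set ∧ Φ.lev a y = t ∧ ρ ≤ gg Φ c y ∧ gg Φ c y ≤ ρ'} =
      {y | y ∈ c.1.set ∧ Φ.Psi y ∈ ring (Pc Φ.F) (bc (F := Φ.F)) c a t ∧ ρ ≤ gg Φ c y ∧
        gg Φ c y ≤ ρ'} := by
    ext y
    constructor
    · rintro ⟨h2, h4, h5⟩
      exact ⟨h2, (hr _).2 ⟨wall_of Φ hLa hpt hr1 hray h0 hρρ hρ' h2 h5.1, h4⟩, h5⟩
    · rintro ⟨h2, h4, h5⟩
      exact ⟨h2, ((hr _).1 h4).2, h5⟩
  rw [h1]
  exact ⟨g1, g2, g3 h3.2⟩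

end g3

/-! ### (g1), (g2) -/

section g12

omit Φ in
/-- the formula of `RR` after a change of the gauge -/
theorem RR_mue {E : Type*} [NormedAddCommGroup E] [NormedSpace ℝ E] [CompleteSpace E]
    {I : Type*} {La : Set E} {P : I → Set E} {b : Set I → E} {N : ℕ} {Ψ : E → E} {μ : E → ℝ}
    (F : Foam La P b N) (hp : Push La P Ψ μ) {e : I → ℝ} (he : ∀ c, 0 < e c)
    (he1 : ∀ c, e c < 1) {d : I} {y : E} (hy : y ∈ P d) :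
    RR P b Ψ (mue P μ e) (1 / 2) y = b {d} + min 1 (μ y / e d) • (Ψ y - b {d}) := by
  rw [RR_eq F (Push.reparam F hp he he1) (by norm_num) (by norm_num) (d := d) hy]
  unfold Rd rr
  rw [mue_eq F hp he he1 (c := d) hy, two_mul_phi (he d) (he1 d)]

variable (hLa : IsOpen La) (he : ∀ c, 0 < e c) (he1 : ∀ c, e c < 1)
  (hpt : (Φ.B c).lo = (Φ.B c).hi) (hr1 : r < 1) (hray : Mbf_337.RayTo Φ c r)
  (h0 : 0 < ρ) (hρ : ρ ≤ r) (hcap : ∀ y ∈ c.1.set, muD Φ y < e c → gg Φ c y < ρ)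
  (hac : a ≠ c) (hne : (a.1.set ∩ c.1.set).Nonempty)
include hLa he he1 hpt hr1 hray h0 hρ hcap hac hne

/-- **(g1)**: the sheet of `a` outside `{gau < ρ}` of the brick `c` -/
theorem outer_gau (ht0 : 0 < t) (ht1 : t < 1) :
    IsPreconnected {y | y ∈ La ∧ vE Φ e a y = t ∧ (y ∈ c.1.set → ρ ≤ gg Φ c y)} ∧
      IsCompact {y | y ∈ La ∧ vE Φ e a y = t ∧ (y ∈ c.1.set → ρ ≤ gg Φ c y)} ∧
      {y | y ∈ La ∧ vE Φ e a y = t ∧ (y ∈ c.1.set → ρ ≤ gg Φ c y)}.Nonempty := by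
  classical
  have F := Brk3_582.foam Φ.bf hLa
  have S := str_of Φ hLa hpt (h0.trans_le hρ) hr1 hray
  have hp' := push_mus F (pushD Φ hLa) S
  set μ' := mus (Pc Φ.F) Φ.Psi (muD Φ) c (Φ.B c).lo r with hμ'
  have hr0 : ρ < 1 := hρ.trans_lt hr1
  set e' : Φ.F → ℝ := Function.update e c ρ with he'
  have hec : e' c = ρ := Function.update_self ..
  have hed : ∀ d, d ≠ c → e' d = e d := fun d hd => Function.update_of_ne hd ..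
  have hpos' : ∀ d, 0 < e' d := by
    intro d
    by_cases h : d = c
    · rw [h, hec]; exact h0
    · rw [hed d h]; exact he d
  have hlt' : ∀ d, e' d < 1 := by
    intro d
    by_cases h : d = c
    · rw [h, hec]; exact hr0
    · rw [hed d h]; exact he1 d
  have hpE := Push.reparam F hp' hpos' hlt'
  have hε : (0 : ℝ) < 1 / 2 := by norm_num
  have hε1 : (1 / 2 : ℝ) ≤ 1 := by norm_num
  have hhalf : ∀ y ∈ Pc Φ.F c, 1 / 2 ≤ mue (Pc Φ.F) μ' e' y ↔ ρ ≤ gg Φ c y := by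
    intro y hy
    rw [mue_half_le F hp' hpos' hlt' hy, hec, hμ', le_mus_iff F (pushD Φ hLa) S hy hρ, gg_eq]
  have key : ∀ y ∈ La, (y ∈ c.1.set → ρ ≤ gg Φ c y) →
      RR (Pc Φ.F) (bc (F := Φ.F)) Φ.Psi (mue (Pc Φ.F) μ' e') (1 / 2) y = RE Φ e y := by
    intro y hy h
    by_cases hc : y ∈ c.1.set
    · have h1 : e c ≤ muD Φ y := by
        by_contra h2
        exact absurd (hcap y hc (not_le.1 h2)) (not_lt.2 (h hc))
      rw [RE_eq_Psi Φ hLa he he1 hc h1]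
      exact RR_eq_Psi F hpE hε hε1 hy ((hhalf y hc).2 (h hc))
    · obtain ⟨d, hd⟩ := F.cov y hy
      have hdc : d ≠ c := by rintro rfl; exact hc hd
      rw [RR_mue F hp' hpos' hlt' hd, RE_eq Φ hLa he he1 (c := d) hd, hed d hdc, hμ',
        mus_other F (pushD Φ hLa) S hdc hd]
  have hL := isCompact_Lset F a ht0.le ht1
  have hb := b_not_mem_Lset F hpE hε hε1 (a := a) ht0 ht1 (cell_nonempty Φ)
  have h1 : {y | y ∈ La ∧ vE Φ e a y = t ∧ (y ∈ c.1.set → ρ ≤ gg Φ c y)} =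
      {y | y ∈ La ∧ RR (Pc Φ.F) (bc (F := Φ.F)) Φ.Psi (mue (Pc Φ.F) μ' e') (1 / 2) y ∈
        Lset La (Pc Φ.F) (bc (F := Φ.F)) a t ∧
        (y ∈ Pc Φ.F c → 1 / 2 ≤ mue (Pc Φ.F) μ' e' y)} := by
    ext y
    rw [Lset_eq_of_pos F ht0.ne']
    constructor
    · rintro ⟨h2, h3, h4⟩
      refine ⟨h2, ⟨RR_mem_La F hpE hε hε1 h2, ?_⟩, fun h5 => (hhalf y h5).2 (h4 h5)⟩
      show sc (Pc Φ.F) (bc (F := Φ.F)) (RR (Pc Φ.F) (bc (F := Φ.F)) Φ.Psi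
        (mue (Pc Φ.F) μ' e') (1 / 2) y) a = t
      rw [key y h2 h4]; exact h3
    · rintro ⟨h2, h3, h4⟩
      have h5 : y ∈ c.1.set → ρ ≤ gg Φ c y := fun h6 => (hhalf y h6).1 (h4 h6)
      refine ⟨h2, ?_, h5⟩
      have h6 := h3.2
      rw [key y h2 h5] at h6
      exact h6
  have hD : Dout La (Pc Φ.F) (bc (F := Φ.F)) c a t =
      {q | q ∈ Lset La (Pc Φ.F) (bc (F := Φ.F)) a t ∧ ∃ d, d ≠ c ∧ q ∈ Pc Φ.F d} := by
    ext q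
    rw [Lset_eq_of_pos F ht0.ne']
    exact ⟨fun h => ⟨⟨h.1, h.2.1⟩, h.2.2⟩, fun h => ⟨h.1.1, h.1.2, h.2⟩⟩
  have h3 := preconn_Dout Φ.bf hLa (a := a) (c := c) hac hne ht0 ht1
  rw [h1]
  obtain ⟨g1, g2, g3⟩ := preconn_outer F hpE (c := c) hε hε1 le_rfl hε1 hL (fun q hq => hq.1) hD
    (fun q hq _ => by
      rw [hD] at hq
      have h5 := fibreR_spec (A := ℤ) F hpE hε hε1 hq.1.1 fun d h => hb d (h ▸ hq.1)
      exact ⟨h5.2.1, h5.1⟩) h3.1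
  exact ⟨g1, g2, g3 h3.2⟩

/-- **(g2)**: the part of the sheet of `a` in `{gau ≤ ρ}` of the brick `c` -/
theorem inner_gau (ht0 : 0 ≤ t) (ht1 : t < 1) :
    IsPreconnected {y | y ∈ c.1.set ∧ vE Φ e a y = t ∧ gg Φ c y ≤ ρ} ∧
      IsCompact {y | y ∈ c.1.set ∧ vE Φ e a y = t ∧ gg Φ c y ≤ ρ} ∧
      {y | y ∈ c.1.set ∧ vE Φ e a y = t ∧ gg Φ c y ≤ ρ}.Nonempty := by
  classical
  have F := Brk3_582.foam Φ.bf hLa
  have hp := pushE Φ hLa he he1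
  have S := str_of Φ hLa hpt (h0.trans_le hρ) hr1 hray
  have S' : Str (Pc Φ.F) Φ.Psi (muE Φ e) c (Φ.B c).lo r := by
    refine ⟨S.bod, fun y hy => ?_, S.r0, S.r1, S.ray⟩
    rw [← S.zero y hy]
    have h1 := mue_pos F (pushD Φ hLa) he he1 (c := c) hy
    have h2 := (hp.mu_mem y (F.sub c hy)).1
    have h3 := ((pushD Φ hLa).mu_mem y (F.sub c hy)).1
    constructor
    · intro h
      by_contra h4
      exact (h1.2 (lt_of_le_of_ne h3 (Ne.symm h4))).ne' h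
    · intro h
      by_contra h4
      exact (h1.1 (lt_of_le_of_ne h2 (Ne.symm h4))).ne' h
  have hε : (0 : ℝ) < 1 / 2 := by norm_num
  have hε1 : (1 / 2 : ℝ) ≤ 1 := by norm_num
  have h1 : {y | y ∈ c.1.set ∧ vE Φ e a y = t ∧ gg Φ c y ≤ ρ} =
      {y | y ∈ Pc Φ.F c ∧ RR (Pc Φ.F) (bc (F := Φ.F)) Φ.Psi (muE Φ e) (1 / 2) y ∈
        Dlv (Pc Φ.F) (bc (F := Φ.F)) c a t ∧ Ng (Φ.B c).lo (Pc Φ.F c) y ≤ ρ} := by
    ext y
    constructor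
    · rintro ⟨h2, h3, h4⟩
      rw [gg_eq] at h4
      exact ⟨h2, ⟨RR_mem F hp hε hε1 (d := c) h2, h3⟩, h4⟩
    · rintro ⟨h2, h3, h4⟩
      rw [← gg_eq] at h4
      exact ⟨h2, h3.2, h4⟩
  have h3 := preconn_Dlv F (a := a) (c := c) hac hne ht0 ht1
  have hb : bc (F := Φ.F) {c} ∉ Dlv (Pc Φ.F) (bc (F := Φ.F)) c a t := by
    intro h
    have h4 := F.sc_b (singleton_nonempty c) (A := {c}) (by simpa [fc] using cell_nonempty Φ c) a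
    rw [h.2] at h4
    rw [if_neg (by simpa using hac)] at h4
    exact ht1.ne h4
  rw [h1]
  obtain ⟨g1, g2, g3⟩ := preconn_inner_str F hp S' hε hε1 h0 hρ (fun y hy h => by
      rw [← gg_eq]
      refine hcap y hy ?_
      by_contra h4
      exact absurd ((muE_half_le Φ hLa he he1 (c := c) hy).2 (not_lt.1 h4)) (not_le.2 h))
    (isCompact_Dlv F) (fun q hq => hq.1) hb h3.1
  exact ⟨g1, g2, g3 h3.2⟩

end g12

end foamd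

end Crest.Agent.R096.Etg_163
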