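import Crest.Agent.R096.Etg6_163
import Crest.Agent.R096.Init8_543

/-! Row 96 (helper163), DOORS-ESS-TARGET, part 8: the outer part of a sheet for 543's retraction `RF`
(rays `rdF`), outside a ball of the straight gauge of a tiny brick: 95's (G4) -/

set_option autoImplicit false
set_option linter.unusedSectionVars false
set_option linter.style.haveILetI false

open Set Topology Filter

namespace Crest.Agent.R096.Etg_163

open Crest.Agent.R096.Coh_184 Crest.Agent.R096.Brk1_582 Crest.Agent.R096.Brk2_582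
open Crest.Agent.R096.Bsp_628 Crest.Agent.R096.Brk3_582
open Crest.Agent.R096.Vb_965 (Push preconn_of_fibres isCompact_Lset isPreconnected_Lset
  frontier_cell glue_cont)
open Crest.Agent.R96.Push_899 Crest.Agent.R096.SkC1_961 Crest.Agent.R096.Sphg_316
open Crest.Agent.R096.Init_543

section rays

variable {V : Type*} [NormedAddCommGroup V] [NormedSpace ℝ V] [FiniteDimensional ℝ V]
  [CompleteSpace V] {I : Type*}
variable {La : Set V} {P : I → Set V} {b : Set I → V} {N : ℕ} {Ho : I → Set V} {pu : I → V → V}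
  {rad : I → V → ℝ} {ray : I → V → ℝ → V} {Ψ : V → V}

open Classical in
/-- the gauge of a foam with rays -/
noncomputable def mf (P : I → Set V) (rad : I → V → ℝ) (y : V) : ℝ :=
  if h : ∃ c, y ∈ P c then max 0 (rad h.choose y) else 1

variable (F : Foam La P b N) (hR : Rays P Ho pu rad ray) (hΨ : ∀ c, ∀ y ∈ P c, Ψ y = pu c y)
include F hR hΨ

omit F hΨ in
theorem mf_eq {c : I} {y : V} (hy : y ∈ P c) : mf P rad y = max 0 (rad c y) := by
  classical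
  have h : ∃ c, y ∈ P c := ⟨c, hy⟩
  unfold mf
  rw [dif_pos h]
  by_cases hc : h.choose = c
  · rw [hc]
  · rw [rad_bd hR (bd_of_two hc h.choose_spec hy), rad_bd hR (bd_of_two (Ne.symm hc) hy
      h.choose_spec)]

omit F hΨ in
theorem mf_pos {c : I} {y : V} (hy : y ∈ P c) (h : 0 < mf P rad y) :
    y ∉ Ho c ∧ mf P rad y = rad c y := by
  rw [mf_eq hR hy] at h ⊢
  have h1 : 0 < rad c y := by
    by_contra h2
    rw [max_eq_left (not_lt.1 h2)] at h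
    exact lt_irrefl _ h
  exact ⟨fun h2 => absurd (hR.rad_hole c y h2) (not_le.2 h1), max_eq_right h1.le⟩

omit F hΨ in
theorem mf_of {c : I} {y : V} (hy : y ∈ P c) (h : y ∉ Ho c) :
    mf P rad y = rad c y ∧ 0 < mf P rad y ∧ mf P rad y ≤ 1 := by
  have h1 := hR.rad_mem c y ⟨hy, h⟩
  rw [mf_eq hR hy, max_eq_right h1.1.le]
  exact ⟨rfl, h1.1, h1.2⟩

/-- **rays give a push** -/
theorem push_of_rays : Push La P Ψ (mf P rad) := by
  refine ⟨?_, ?_, ?_, ?_, ?_, ?_, ?_⟩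
  · exact glue_cont F Subset.rfl (gc := fun c y => max 0 (rad c y))
      (fun c y hy => mf_eq hR hy) fun c =>
        (continuousOn_const (c := (0 : ℝ))).sup ((hR.crad c).mono inter_subset_left)
  · intro y hy
    obtain ⟨c, hc⟩ := F.cov y hy
    by_cases h : y ∈ Ho c
    · rw [mf_eq hR hc, max_eq_left (hR.rad_hole c y h)]
      exact ⟨le_rfl, zero_le_one⟩
    · have := mf_of hR hc h
      exact ⟨this.2.1.le, this.2.2⟩
  · intro c c' hne y hy hy'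
    have hb : y ∈ Bd P c := ⟨hy, c', hne, hy'⟩
    have h1 := mf_of hR hy (not_hole hR hb).2
    rw [rad_bd hR hb] at h1
    exact ⟨h1.1, by rw [hΨ c y hy, pu_bd hR hb]⟩
  · refine glue_cont F inter_subset_left (gc := pu) (fun c y hy => hΨ c y hy) fun c => ?_
    refine (hR.cpu c).mono ?_
    rintro y ⟨hy, -, h⟩
    exact ⟨hy, (mf_pos hR hy h).1⟩
  · intro c y hy h
    have h1 := hR.pu_mem c y ⟨hy, (mf_pos hR hy h).1⟩
    rw [hΨ c y hy]
    exact h1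
  · intro c y hy z hz h0 hm hpsi
    have h1 := mf_pos hR hy h0
    have h2 := mf_pos hR hz (hm ▸ h0)
    rw [hΨ c y hy, hΨ c z hz] at hpsi
    rw [← hR.ray_pu c y ⟨hy, h1.1⟩, ← hR.ray_pu c z ⟨hz, h2.1⟩, hpsi, ← h1.2, ← h2.2, hm]
  · intro c c' hne p hp hp' m hm
    have hb : p ∈ Bd P c := ⟨hp, c', hne, hp'⟩
    have h1 := hR.ray_mem c p hb m hm
    refine ⟨ray c p m, h1.1, ?_, ?_⟩
    · rw [hΨ c _ h1.1, hR.pu_ray c p hb m hm]
    · rw [(mf_of hR h1.1 h1.2).1, hR.rad_ray c p hb m hm]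

omit [FiniteDimensional ℝ V] hR hΨ in
/-- the gauge is monotone along the fibres -/
theorem Ng_mono {μ : V → ℝ} (hp : Push La P Ψ μ) {c : I} {z : V} {ρ : ℝ} (S : Str P Ψ μ c z ρ)
    {y y' : V} (hy : y ∈ P c) (hy' : y' ∈ P c) (h0 : 0 < μ y) (hm : μ y ≤ μ y') (hpsi : Ψ y = Ψ y')
    (h : ρ ≤ Ng z (P c) y) : ρ ≤ Ng z (P c) y' := by
  by_contra hlt
  have hlt' := not_le.1 hlt
  obtain ⟨h1, d, hd, h2⟩ := hp.mem c y hy h0
  obtain ⟨w, hw1, hw2⟩ := exists_ring F hp S hd h1 h2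
  have h3 := (Ng_le_iff F hp S hw1 hy' (h0.trans_le hm) (hpsi.symm.trans hw2.symm)).1 hlt'.le
  have h4 := (Ng_le_iff F hp S hw1 hy h0 hw2.symm).2 (hm.trans h3)
  have h5 : Ng z (P c) y = ρ := le_antisymm h4 h
  have h6 := ring_inj F hp S h5 hw1 hw2.symm
  have h7 : μ y' = μ y := le_antisymm (by rw [h6]; exact h3) hm
  have h8 := hp.inj c y hy y' hy' h0 h7.symm hpsi
  rw [← h8, h5] at hlt'
  exact lt_irrefl _ hlt'

/-- **the part of the sheet outside a gauge ball of the cell `c`** -/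
theorem preconn_outer_rays {r₀ : I → ℝ} (h0 : ∀ c, 0 < r₀ c) (h1 : ∀ c, r₀ c ≤ 1) {c : I} {z : V}
    {ρ : ℝ} (S : Str P Ψ (mf P rad) c z ρ)
    (hcap : ∀ y ∈ P c, rad c y < r₀ c → Ng z (P c) y < ρ) {L D : Set V} (hL : IsCompact L)
    (hLL : L ⊆ La) (hD : D = {q | q ∈ L ∧ ∃ d, d ≠ c ∧ q ∈ P d}) (hDp : IsPreconnected D) :
    IsPreconnected {y | y ∈ La ∧ RR P b pu rad r₀ y ∈ L ∧ (y ∈ P c → ρ ≤ Ng z (P c) y)} ∧
      IsCompact {y | y ∈ La ∧ RR P b pu rad r₀ y ∈ L ∧ (y ∈ P c → ρ ≤ Ng z (P c) y)} ∧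
      (D.Nonempty →
        {y | y ∈ La ∧ RR P b pu rad r₀ y ∈ L ∧ (y ∈ P c → ρ ≤ Ng z (P c) y)}.Nonempty) := by
  classical
  have hret := ret_of_rays (b := b) F hR h0 h1
  have hp := push_of_rays F hR hΨ
  set X := {y | y ∈ La ∧ RR P b pu rad r₀ y ∈ L ∧ (y ∈ P c → ρ ≤ Ng z (P c) y)} with hX
  have hop : IsOpen {y | Ng z (P c) y < ρ} := S.bod.isOpen_lt ρ
  have hX1 : X = rpre La (RR P b pu rad r₀) L ∩ {y | Ng z (P c) y < ρ}ᶜ := by
    ext y
    constructor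
    · rintro ⟨h2, h3, h4⟩
      refine ⟨⟨h2, h3⟩, fun h5 => ?_⟩
      exact absurd (h4 (mem_of_Ng F hp S (show Ng z (P c) y < ρ from h5).le))
        (not_le.2 (show Ng z (P c) y < ρ from h5))
    · rintro ⟨⟨h2, h3⟩, h4⟩
      exact ⟨h2, h3, fun _ => not_lt.1 h4⟩
  have hK : IsCompact X := by
    rw [hX1]
    exact (hret.isCompact_pre F hL hLL).inter_right hop.isClosed_compl
  -- wall points
  have hfix : ∀ {q : V} {d : I}, d ≠ c → q ∈ P c → q ∈ P d → RR P b pu rad r₀ q = q := by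
    intro q d hdc hqc hqd
    have hb : q ∈ Bd P c := ⟨hqc, d, hdc, hqd⟩
    rw [RR_pu hR h0 h1 hqc (by rw [rad_bd hR hb]; exact h1 c), pu_bd hR hb]
  have himg : RR P b pu rad r₀ '' X = D := by
    ext q
    constructor
    · rintro ⟨y, ⟨hy, hyL, hyc⟩, rfl⟩
      rw [hD]
      refine ⟨hyL, ?_⟩
      obtain ⟨d, hd⟩ := F.cov y hy
      by_cases hdc : d = c
      · subst hdc
        have h2 : r₀ d ≤ rad d y := by
          by_contra h3
          exact absurd (hcap y hd (not_le.1 h3)) (not_lt.2 (hyc hd))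
        have h3 : y ∉ Ho d := fun h4 => by
          have := hR.rad_hole d y h4
          linarith [h0 d]
        rw [RR_pu hR h0 h1 hd h2]
        exact (hR.pu_mem d y ⟨hd, h3⟩).2
      · exact ⟨d, hdc, hret.cell d hd⟩
    · intro hq
      have hq' := hq
      rw [hD] at hq'
      obtain ⟨hqL, d, hdc, hqd⟩ := hq'
      by_cases hqc : q ∈ P c
      · refine ⟨q, ⟨F.sub c hqc, ?_, fun _ => ?_⟩, hfix hdc hqc hqd⟩
        · rw [hfix hdc hqc hqd]; exact hqL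
        · rw [Ng_wall F hp S hdc hqc hqd]; exact S.r1.le
      · obtain ⟨y, hy, hyq⟩ := hret.surj q (hLL hqL)
        refine ⟨y, ⟨hy, by rw [hyq]; exact hqL, fun hyc => ?_⟩, hyq⟩
        exact absurd (by rw [← hyq]; exact hret.cell c hyc) hqc
  refine ⟨preconn_of_fibres hK (hret.cont.mono fun y hy => hy.1) himg ?_ hDp, hK, ?_⟩
  · intro q hq
    have hq' := hq
    rw [hD] at hq'
    obtain ⟨hqL, d, hdc, hqd⟩ := hq'
    by_cases hqc : q ∈ P c
    · have hqX : q ∈ X ∩ RR P b pu rad r₀ ⁻¹' {q} := by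
        have h2 := hfix hdc hqc hqd
        refine ⟨⟨F.sub c hqc, by rw [h2]; exact hqL, fun _ => ?_⟩, h2⟩
        rw [Ng_wall F hp S hdc hqc hqd]; exact S.r1.le
      refine preconn_of_core (B := {q}) isPreconnected_singleton (singleton_subset_iff.2 hqX)
        (singleton_nonempty q) ?_
      rintro y ⟨⟨hy, hyL, hyc⟩, hyq⟩
      have hyq' : RR P b pu rad r₀ y = q := hyq
      obtain ⟨e1, he1⟩ := F.cov y hy
      have hqe1 : q ∈ P e1 := by rw [← hyq']; exact hret.cell e1 he1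
      obtain ⟨e', hne, hqe'⟩ : ∃ e', e' ≠ e1 ∧ q ∈ P e' := by
        by_cases h : c = e1
        · exact ⟨d, by rw [← h]; exact hdc, hqd⟩
        · exact ⟨c, h, hqc⟩
      have hqb : q ∈ Bd P e1 := ⟨hqe1, e', hne, hqe'⟩
      obtain ⟨hyH, hyr⟩ := rad_ge_of_bd F hR h0 h1 he1 hne (by rw [hyq']; exact hqe')
      have hpuy : pu e1 y = q := by rw [← RR_pu hR h0 h1 he1 hyr, hyq']
      have hry := hR.rad_mem e1 y ⟨he1, hyH⟩
      have hsub : Icc (rad e1 y) 1 ⊆ Ioc (0 : ℝ) 1 := fun s hs => ⟨hry.1.trans_le hs.1, hs.2⟩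
      refine ⟨ray e1 q '' Icc (rad e1 y) 1, ?_, ⟨rad e1 y, ⟨le_rfl, hry.2⟩, ?_⟩,
        ⟨q, ⟨1, ⟨hry.2, le_rfl⟩, hR.ray_one e1 q hqb⟩, rfl⟩,
        isPreconnected_Icc.image _ ((hR.cray e1 q hqb).mono hsub)⟩
      · rintro _ ⟨s, hs, rfl⟩
        have h5 := hR.ray_mem e1 q hqb s (hsub hs)
        have h6 := hR.rad_ray e1 q hqb s (hsub hs)
        have h7 := hR.pu_ray e1 q hqb s (hsub hs)
        have h8 : RR P b pu rad r₀ (ray e1 q s) = q := by
          rw [RR_pu hR h0 h1 h5.1 (by rw [h6]; exact hyr.trans hs.1), h7]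
        refine ⟨⟨F.sub e1 h5.1, by rw [h8]; exact hqL, fun hzc => ?_⟩, h8⟩
        by_cases h : e1 = c
        · subst h
          have m1 := mf_of hR he1 hyH
          have m2 := mf_of hR h5.1 h5.2
          refine Ng_mono F hp S he1 h5.1 m1.2.1 ?_ ?_ (hyc he1)
          · rw [m1.1, m2.1, h6]; exact hs.1
          · rw [hΨ e1 y he1, hΨ e1 _ h5.1, h7, hpuy]
        · rw [Ng_wall F hp S h hzc h5.1]; exact S.r1.le
      · rw [← hpuy]; exact hR.ray_pu e1 y ⟨he1, hyH⟩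
    · have h2 : X ∩ RR P b pu rad r₀ ⁻¹' {q} = La ∩ RR P b pu rad r₀ ⁻¹' {q} := by
        ext y
        constructor
        · rintro ⟨⟨hy, -, -⟩, hyq⟩; exact ⟨hy, hyq⟩
        · rintro ⟨hy, hyq⟩
          have hyq' : RR P b pu rad r₀ y = q := hyq
          refine ⟨⟨hy, by rw [hyq']; exact hqL, fun hyc => ?_⟩, hyq⟩
          exact absurd (by rw [← hyq']; exact hret.cell c hyc) hqc
      rw [h2]
      exact hret.conn q (hLL hqL)
  · rintro ⟨q, hq⟩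
    rw [← himg] at hq
    obtain ⟨y, hy, -⟩ := hq
    exact ⟨y, hy⟩

end rays

/-! ### `FoamD` -/

section foamd

variable {δ κ0 R c0 : ℝ} {La : Set E3} (Φ : FoamD δ κ0 R c0 La) {r₀ : Φ.F → ℝ}
variable {a c : Φ.F} {t ρ r : ℝ}

theorem str_rays (hLa : IsOpen La) (hpt : (Φ.B c).lo = (Φ.B c).hi) (hr0 : 0 < r) (hr1 : r < 1)
    (hray : Mbf_337.RayTo Φ c r) :
    Str (Pc Φ.F) Φ.Psi (mf (Pc Φ.F) (rdF Φ)) c (Φ.B c).lo r := by
  have S := str_of Φ hLa hpt hr0 hr1 hray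
  refine ⟨S.bod, fun y hy => ?_, S.r0, S.r1, S.ray⟩
  have hR := raysF Φ hLa
  rw [← mem_pt Φ hpt]
  constructor
  · intro h
    by_contra h2
    exact (mf_of hR hy h2).2.1.ne' h
  · intro h
    rw [mf_eq hR hy, max_eq_left (hR.rad_hole c y h)]

/-- **95's (G4)**: the level of `a` for 543's retraction, outside `{gau < ρ}` of the brick `c`,
for every `a` -/
theorem outer_rf (hLa : IsOpen La) (h0 : ∀ c, 0 < r₀ c) (h1 : ∀ c, r₀ c ≤ 1)
    (hpt : (Φ.B c).lo = (Φ.B c).hi) (hr1 : r < 1) (hray : Mbf_337.RayTo Φ c r)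
    (hρ0 : 0 < ρ) (hρ : ρ ≤ r) (hcap : ∀ y ∈ c.1.set, rdF Φ c y < r₀ c → gg Φ c y < ρ) (a : Φ.F)
    (ht0 : 0 < t) (ht1 : t < 1) :
    IsPreconnected {y | y ∈ La ∧ sc (Pc Φ.F) (bc (F := Φ.F)) (RF Φ r₀ y) a = t ∧
        (y ∈ c.1.set → ρ ≤ gg Φ c y)} ∧
      IsCompact {y | y ∈ La ∧ sc (Pc Φ.F) (bc (F := Φ.F)) (RF Φ r₀ y) a = t ∧
        (y ∈ c.1.set → ρ ≤ gg Φ c y)} := by
  classical
  have F := Brk3_582.foam Φ.bf hLa
  have hR := raysF Φ hLa
  have hret := retF Φ hLa h0 h1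
  have h3 : Module.finrank ℝ E3 = 3 := by simp [E3]
  have hL := isCompact_Lset F a ht0.le ht1
  have hLp := isPreconnected_Lset F h3 (Vb_965.cell_nonempty Φ a) ht0.le ht1
  have hLL : Lset La (Pc Φ.F) (bc (F := Φ.F)) a t ⊆ La := fun q hq => hq.1
  have hpsi : ∀ c, ∀ y ∈ Pc Φ.F c, Φ.Psi y = Φ.pu c y := fun c y hy => Psi_eq Φ hLa hy
  by_cases hn : a ≠ c ∧ (a.1.set ∩ c.1.set).Nonempty
  · have S := (str_rays Φ hLa hpt (hρ0.trans_le hρ) hr1 hray).mono hρ0 hρ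
    have hD : Dout La (Pc Φ.F) (bc (F := Φ.F)) c a t =
        {q | q ∈ Lset La (Pc Φ.F) (bc (F := Φ.F)) a t ∧ ∃ d, d ≠ c ∧ q ∈ Pc Φ.F d} := by
      ext q
      rw [Lset_eq_of_pos F ht0.ne']
      exact ⟨fun h => ⟨⟨h.1, h.2.1⟩, h.2.2⟩, fun h => ⟨h.1.1, h.1.2, h.2⟩⟩
    have h4 := preconn_Dout Φ.bf hLa (a := a) (c := c) hn.1 hn.2 ht0 ht1
    obtain ⟨g1, g2, -⟩ := preconn_outer_rays (b := bc (F := Φ.F)) F hR hpsi h0 h1 S
      (fun y hy h => by rw [← gg_eq]; exact hcap y hy h) hL hLL hD h4.1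
    have h5 : {y | y ∈ La ∧ sc (Pc Φ.F) (bc (F := Φ.F)) (RF Φ r₀ y) a = t ∧
        (y ∈ c.1.set → ρ ≤ gg Φ c y)} =
        {y | y ∈ La ∧ RR (Pc Φ.F) (bc (F := Φ.F)) Φ.pu (rdF Φ) r₀ y ∈
          Lset La (Pc Φ.F) (bc (F := Φ.F)) a t ∧
          (y ∈ Pc Φ.F c → ρ ≤ Ng (Φ.B c).lo (Pc Φ.F c) y)} := by
      ext y
      rw [Lset_eq_of_pos F ht0.ne']
      constructor
      · rintro ⟨h6, h7, h8⟩
        exact ⟨h6, ⟨hret.mapsTo F h6, h7⟩, fun h9 => by rw [← gg_eq]; exact h8 h9⟩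
      · rintro ⟨h6, h7, h8⟩
        exact ⟨h6, h7.2, fun h9 => by rw [gg_eq]; exact h8 h9⟩
    rw [h5]
    exact ⟨g1, g2⟩
  · -- no point of the level in the brick `c`
    have hno : ∀ y ∈ c.1.set, sc (Pc Φ.F) (bc (F := Φ.F)) (RF Φ r₀ y) a ≠ t := by
      intro y hy h
      have h4 : RF Φ r₀ y ∈ Pc Φ.F c := hret.cell c hy
      have h5 := F.sub c h4
      have h6 : sc (Pc Φ.F) (bc (F := Φ.F)) (RF Φ r₀ y) c = 0 := (F.sc_eq_zero h5).2 h4
      by_cases hac : a = c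
      · rw [hac, h6] at h; exact ht0.ne h
      · refine hn ⟨hac, ?_⟩
        obtain ⟨p, hp⟩ := (F.sc_mem_K h5).2.2
        have h7 := mem_iInter₂.1 hp
        exact ⟨p, h7 a (by show sc _ _ _ a < 1; rw [h]; exact ht1),
          h7 c (by show sc _ _ _ c < 1; rw [h6]; exact one_pos)⟩
    have h5 : {y | y ∈ La ∧ sc (Pc Φ.F) (bc (F := Φ.F)) (RF Φ r₀ y) a = t ∧
        (y ∈ c.1.set → ρ ≤ gg Φ c y)} =
        rpre La (RF Φ r₀) (Lset La (Pc Φ.F) (bc (F := Φ.F)) a t) := by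
      ext y
      rw [Lset_eq_of_pos F ht0.ne']
      constructor
      · rintro ⟨h6, h7, -⟩
        exact ⟨h6, hret.mapsTo F h6, h7⟩
      · rintro ⟨h6, h7⟩
        exact ⟨h6, h7.2, fun h9 => absurd h7.2 (hno y h9)⟩
    rw [h5]
    exact ⟨hret.preconn_pre F hL hLL hLp, hret.isCompact_pre F hL hLL⟩

end foamd

end Crest.Agent.R096.Etg_163
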