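import Mathlib

/-!
# One-step exchange on finite Z/2 cell complexes, part 1

Definitions (`Sys`, `Cur`), laminarity of the inner discs, regions.
-/

set_option autoImplicit false

namespace Crest.Agent.R096.Ex_422

open Finset Classical

/-- A finite two-dimensional complex (tiles `F`, edges `E`, vertices `V`) with a family of
closed sheets `S i`, each of one of two colours. -/
structure Sys (V E F I : Type*) where
  bF : F → Finset E
  bE : E → Finset V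
  two : ∀ e, (bE e).card = 2
  col : I → Bool
  S : I → Set F
  disj : ∀ {i j : I} {f : F}, f ∈ S i → f ∈ S j → i = j
  dd : ∀ {i : I} {f : F}, f ∈ S i → ∀ ψ : V → ZMod 2, ∑ e ∈ bF f, ∑ v ∈ bE e, ψ v = 0
  man : ∀ {i : I} {e : E} {f : F}, f ∈ S i → e ∈ bF f →
    ∃ g ∈ S i, g ≠ f ∧ e ∈ bF g ∧ ∀ h ∈ S i, e ∈ bF h → h = f ∨ h = g
  conn : ∀ (i : I) (X : Set F), X ⊆ S i →
    (∀ e, ∀ f ∈ X, e ∈ bF f → ∀ g ∈ S i, e ∈ bF g → g ∈ X) → X = ∅ ∨ X = S i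
  link : ∀ (i : I) (v : V) (X : Set F), X ⊆ S i →
    (∀ e, v ∈ bE e → ∀ f ∈ X, e ∈ bF f → ∀ g ∈ S i, e ∈ bF g → g ∈ X) →
    ∀ f ∈ X, (∃ e ∈ bF f, v ∈ bE e) → ∀ g ∈ S i, (∃ e ∈ bF g, v ∈ bE e) → g ∈ X
  h1 : ∀ (i : I) (κ : E → ZMod 2), (∀ f ∈ S i, ∑ e ∈ bF f, κ e = 0) →
    ∃ ψ : V → ZMod 2, ∀ f ∈ S i, ∀ e ∈ bF f, κ e = ∑ v ∈ bE e, ψ v
  sep : ∀ {i j : I} {f g : F} {v : V}, f ∈ S i → g ∈ S j → (∃ e ∈ bF f, v ∈ bE e) →
    (∃ e ∈ bF g, v ∈ bE e) → col i = col j → i = j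

variable {V E F I Γ : Type*}

/-- the tile `f` contains the vertex `v` -/
def Sys.At (K : Sys V E F I) (f : F) (v : V) : Prop := ∃ e ∈ K.bF f, v ∈ K.bE e

/-- The superfluous closed double curves. -/
structure Cur (K : Sys V E F I) (Γ : Type*) where
  c : Γ → Finset E
  ne : ∀ γ, (c γ).Nonempty
  deg : ∀ γ v, (∃ e ∈ c γ, v ∈ K.bE e) → ∃ e₁ ∈ c γ, ∃ e₂ ∈ c γ, e₁ ≠ e₂ ∧ v ∈ K.bE e₁ ∧
    v ∈ K.bE e₂ ∧ ∀ e ∈ c γ, v ∈ K.bE e → e = e₁ ∨ e = e₂
  cir : ∀ γ (P : V → Prop), (∀ e ∈ c γ, ∀ v ∈ K.bE e, ∀ w ∈ K.bE e, P v → P w) →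
    ∀ e ∈ c γ, ∀ v ∈ K.bE e, P v → ∀ e' ∈ c γ, ∀ w ∈ K.bE e', P w
  prim : ∀ γ (κ : E → ZMod 2), ∑ e ∈ c γ, κ e = 0 →
    ∃ ψ : V → ZMod 2, ∀ e ∈ c γ, κ e = ∑ v ∈ K.bE e, ψ v
  vdisj : ∀ {γ δ : Γ} {e e' : E} {v : V}, e ∈ c γ → e' ∈ c δ → v ∈ K.bE e → v ∈ K.bE e' → γ = δ
  s : Bool → Γ → I
  scol : ∀ x γ, K.col (s x γ) = x
  D : Bool → Γ → Set F
  Dsub : ∀ x γ, D x γ ⊆ K.S (s x γ)
  Dbd : ∀ {x : Bool} {γ : Γ} {e : E} {f g : F}, f ∈ K.S (s x γ) → g ∈ K.S (s x γ) → f ≠ g →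
    e ∈ K.bF f → e ∈ K.bF g → (e ∈ c γ ↔ ¬ (f ∈ D x γ ↔ g ∈ D x γ))
  Don : ∀ x γ, ∀ e ∈ c γ, ∃ f ∈ K.S (s x γ), e ∈ K.bF f
  root : I → F
  root_mem : ∀ i, root i ∈ K.S i
  root_out : ∀ x γ, root (s x γ) ∉ D x γ
  dbl : ∀ {γ : Γ} {e e' : E} {v : V} {f g : F} {i j : I}, f ∈ K.S i → g ∈ K.S j →
    K.col i ≠ K.col j → e ∈ K.bF f → e ∈ K.bF g → v ∈ K.bE e → e' ∈ c γ → v ∈ K.bE e' → e ∈ c γ
  ess : ∀ {v : V} {f g : F} {i j : I}, f ∈ K.S i → g ∈ K.S j →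
    K.col i ≠ K.col j → K.At f v → K.At g v → (∀ γ, ∀ e ∈ c γ, v ∉ K.bE e) → ∀ x γ, f ∉ D x γ

/-- the vertex `v` lies on the curve `γ` -/
def Cur.On {K : Sys V E F I} (C : Cur K Γ) (γ : Γ) (v : V) : Prop := ∃ e ∈ C.c γ, v ∈ K.bE e

/-- the edge `e` lies on some curve -/
def Cur.Dbl {K : Sys V E F I} (C : Cur K Γ) (e : E) : Prop := ∃ γ, e ∈ C.c γ

section

variable {K : Sys V E F I} (C : Cur K Γ)

theorem Cur.on_unique {γ δ : Γ} {v : V} (h : C.On γ v) (h' : C.On δ v) : γ = δ := by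
  obtain ⟨e, he, hv⟩ := h
  obtain ⟨e', he', hv'⟩ := h'
  exact C.vdisj he he' hv hv'

theorem Sys.exists_end (K : Sys V E F I) (e : E) : ∃ v, v ∈ K.bE e := by
  have := K.two e
  exact (Finset.card_pos.1 (by omega))

/-- in its own sheet an edge of `γ` has exactly one inner and one outer tile -/
theorem Cur.exists_io (x : Bool) {γ : Γ} {e : E} (he : e ∈ C.c γ) :
    ∃ f ∈ C.D x γ, ∃ g ∈ K.S (C.s x γ), g ∉ C.D x γ ∧ f ≠ g ∧ e ∈ K.bF f ∧ e ∈ K.bF g ∧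
      ∀ h ∈ K.S (C.s x γ), e ∈ K.bF h → h = f ∨ h = g := by
  obtain ⟨f, hf, hef⟩ := C.Don x γ e he
  obtain ⟨g, hg, hgf, heg, hall⟩ := K.man hf hef
  have hb := (C.Dbd hf hg (Ne.symm hgf) hef heg).1 he
  by_cases h1 : f ∈ C.D x γ
  · have h2 : g ∉ C.D x γ := fun h2 => hb ⟨fun _ => h2, fun _ => h1⟩
    exact ⟨f, h1, g, hg, h2, Ne.symm hgf, hef, heg, hall⟩
  · have h2 : g ∈ C.D x γ := by
      by_contra h2
      exact hb ⟨fun h => absurd h h1, fun h => absurd h h2⟩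
    exact ⟨g, h2, f, hf, h1, hgf, heg, hef, fun h hh he => (hall h hh he).symm⟩

/-- tiles of a sheet at an edge off `γ` are on the same side of `γ` -/
theorem Cur.same_edge {x : Bool} {γ : Γ} {e : E} {f g : F} (hf : f ∈ K.S (C.s x γ))
    (hg : g ∈ K.S (C.s x γ)) (hef : e ∈ K.bF f) (heg : e ∈ K.bF g) (he : e ∉ C.c γ) :
    f ∈ C.D x γ ↔ g ∈ C.D x γ := by
  by_cases h : f = g
  · rw [h]
  · by_contra hn
    exact he ((C.Dbd hf hg h hef heg).2 hn)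

/-- tiles of a sheet at a vertex off `γ` are on the same side of `γ` -/
theorem Cur.same_vert {x : Bool} {γ : Γ} {v : V} {f g : F} (hf : f ∈ K.S (C.s x γ))
    (hg : g ∈ K.S (C.s x γ)) (hfv : K.At f v) (hgv : K.At g v) (hv : ¬ C.On γ v)
    (h : f ∈ C.D x γ) : g ∈ C.D x γ := by
  refine K.link (C.s x γ) v (C.D x γ) (C.Dsub x γ) ?_ f h hfv g hg hgv
  intro e hve f' hf' hef' g' hg' heg'
  have he : e ∉ C.c γ := fun he => hv ⟨e, he, hve⟩
  exact (C.same_edge (C.Dsub x γ hf') hg' hef' heg' he).1 hf'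

/-- the tiles of the sheet at the vertices of `γ` are on one side of another curve `δ` -/
theorem Cur.same_curve {x : Bool} {γ δ : Γ} (hne : γ ≠ δ) (hs : C.s x γ = C.s x δ)
    {v w : V} (hv : C.On γ v) (hw : C.On γ w) {f g : F} (hf : f ∈ K.S (C.s x γ))
    (hg : g ∈ K.S (C.s x γ)) (hfv : K.At f v) (hgw : K.At g w)
    (h : f ∈ C.D x δ) : g ∈ C.D x δ := by
  have hoff : ∀ u, C.On γ u → ¬ C.On δ u := fun u hu hu' => hne (C.on_unique hu hu')
  set P : V → Prop := fun u => ∀ g ∈ K.S (C.s x γ), K.At g u → g ∈ C.D x δ with hP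
  have hPv : P v := by
    intro g' hg' hgv'
    exact C.same_vert (by rw [← hs]; exact hf) (by rw [← hs]; exact hg') hfv hgv' (hoff v hv) h
  obtain ⟨e₁, he₁, hve₁⟩ := hv
  obtain ⟨e₂, he₂, hwe₂⟩ := hw
  have key := C.cir γ P ?_ e₁ he₁ v hve₁ hPv e₂ he₂ w hwe₂
  · exact key g hg hgw
  · intro e he u hu u' hu' hPu
    intro g' hg' hgu'
    obtain ⟨t, ht, htu⟩ := C.Don x γ e he
    have h1 : t ∈ C.D x δ := hPu t ht ⟨e, htu, hu⟩
    exact C.same_vert (by rw [← hs]; exact ht) (by rw [← hs]; exact hg') ⟨e, htu, hu'⟩ hgu'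
      (hoff u' ⟨e, he, hu'⟩) h1

/-- `γ` is inside `δ` (colour `x`) -/
def Cur.Ins (C : Cur K Γ) (x : Bool) (γ δ : Γ) : Prop :=
  ∀ v, C.On γ v → ∀ f ∈ K.S (C.s x γ), K.At f v → f ∈ C.D x δ

theorem Cur.exists_on (γ : Γ) : ∃ v, C.On γ v := by
  obtain ⟨e, he⟩ := C.ne γ
  obtain ⟨v, hv⟩ := K.exists_end e
  exact ⟨v, e, he, hv⟩

theorem Cur.ins_or {x : Bool} {γ δ : Γ} (hne : γ ≠ δ) (hs : C.s x γ = C.s x δ) :
    C.Ins x γ δ ∨ ∀ v, C.On γ v → ∀ f ∈ K.S (C.s x γ), K.At f v → f ∉ C.D x δ := by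
  by_cases h : ∃ v, C.On γ v ∧ ∃ f ∈ K.S (C.s x γ), K.At f v ∧ f ∈ C.D x δ
  · obtain ⟨v, hv, f, hf, hfv, hfD⟩ := h
    exact Or.inl fun w hw g hg hgw => C.same_curve hne hs hv hw hf hg hfv hgw hfD
  · right
    intro v hv f hf hfv hfD
    exact h ⟨v, hv, f, hf, hfv, hfD⟩

/-- a set of tiles of a sheet without boundary which misses the root is empty -/
theorem Cur.empty_of_closed (i : I) (X : Set F) (hX : X ⊆ K.S i)
    (h : ∀ e, ∀ f ∈ X, e ∈ K.bF f → ∀ g ∈ K.S i, e ∈ K.bF g → g ∈ X) (hr : C.root i ∉ X) :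
    X = ∅ := by
  rcases K.conn i X hX h with h1 | h1
  · exact h1
  · exact absurd (h1 ▸ C.root_mem i) hr

theorem Cur.exists_mem_D (x : Bool) (γ : Γ) : ∃ f, f ∈ C.D x γ := by
  obtain ⟨e, he⟩ := C.ne γ
  obtain ⟨f, hf, -⟩ := C.exists_io x he
  exact ⟨f, hf⟩

/-- not both inside each other -/
theorem Cur.not_ins_ins {x : Bool} {γ δ : Γ} (hne : γ ≠ δ) (hs : C.s x γ = C.s x δ)
    (h : C.Ins x γ δ) (h' : C.Ins x δ γ) : False := by
  have hU : C.D x γ ∪ C.D x δ = ∅ := by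
    refine C.empty_of_closed (C.s x γ) _ ?_ ?_ ?_
    · rintro f (hf | hf)
      · exact C.Dsub x γ hf
      · rw [hs]; exact C.Dsub x δ hf
    · rintro e f hf hef g hg heg
      have hfS : f ∈ K.S (C.s x γ) := by
        rcases hf with hf | hf
        · exact C.Dsub x γ hf
        · rw [hs]; exact C.Dsub x δ hf
      by_cases h1 : e ∈ C.c γ
      · obtain ⟨v, hv⟩ := K.exists_end e
        exact Or.inr (h v ⟨e, h1, hv⟩ g hg ⟨e, heg, hv⟩)
      by_cases h2 : e ∈ C.c δ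
      · obtain ⟨v, hv⟩ := K.exists_end e
        exact Or.inl (h' v ⟨e, h2, hv⟩ g (by rw [← hs]; exact hg) ⟨e, heg, hv⟩)
      rcases hf with hf | hf
      · exact Or.inl ((C.same_edge hfS hg hef heg h1).1 hf)
      · exact Or.inr ((C.same_edge (by rw [← hs]; exact hfS) (by rw [← hs]; exact hg) hef heg
          h2).1 hf)
    · rintro (hr | hr)
      · exact C.root_out x γ hr
      · rw [hs] at hr; exact C.root_out x δ hr
  obtain ⟨f, hf⟩ := C.exists_mem_D x γ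
  have : f ∈ C.D x γ ∪ C.D x δ := Or.inl hf
  rw [hU] at this
  exact this

/-- inside ==> contained -/
theorem Cur.sub_of_ins {x : Bool} {γ δ : Γ} (hne : γ ≠ δ) (hs : C.s x γ = C.s x δ)
    (h : C.Ins x γ δ) : C.D x γ ⊆ C.D x δ := by
  have h' : ∀ v, C.On δ v → ∀ f ∈ K.S (C.s x δ), K.At f v → f ∉ C.D x γ := by
    rcases C.ins_or (Ne.symm hne) hs.symm with h1 | h1
    · exact (C.not_ins_ins hne hs h h1).elim
    · exact h1
  have hU : C.D x γ \ C.D x δ = ∅ := by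
    refine C.empty_of_closed (C.s x γ) _ ?_ ?_ ?_
    · rintro f ⟨hf, -⟩
      exact C.Dsub x γ hf
    · rintro e f ⟨hf, hfn⟩ hef g hg heg
      have hfS : f ∈ K.S (C.s x γ) := C.Dsub x γ hf
      by_cases h1 : e ∈ C.c γ
      · obtain ⟨v, hv⟩ := K.exists_end e
        exact absurd (h v ⟨e, h1, hv⟩ f hfS ⟨e, hef, hv⟩) hfn
      by_cases h2 : e ∈ C.c δ
      · obtain ⟨v, hv⟩ := K.exists_end e
        exact absurd hf (h' v ⟨e, h2, hv⟩ f (by rw [← hs]; exact hfS) ⟨e, hef, hv⟩)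
      refine ⟨(C.same_edge hfS hg hef heg h1).1 hf, fun hgD => hfn ?_⟩
      exact (C.same_edge (by rw [← hs]; exact hfS) (by rw [← hs]; exact hg) hef heg h2).2 hgD
    · rintro ⟨hr, -⟩
      exact C.root_out x γ hr
  intro f hf
  by_contra hn
  have : f ∈ C.D x γ \ C.D x δ := ⟨hf, hn⟩
  rw [hU] at this
  exact this

/-- laminar -/
theorem Cur.laminar {x : Bool} {γ δ : Γ} {f : F} (hγ : f ∈ C.D x γ) (hδ : f ∈ C.D x δ) :
    C.D x γ ⊆ C.D x δ ∨ C.D x δ ⊆ C.D x γ := by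
  by_cases hne : γ = δ
  · subst hne; exact Or.inl (fun _ h => h)
  have hs : C.s x γ = C.s x δ := K.disj (C.Dsub x γ hγ) (C.Dsub x δ hδ)
  rcases C.ins_or hne hs with h1 | h1
  · exact Or.inl (C.sub_of_ins hne hs h1)
  rcases C.ins_or (Ne.symm hne) hs.symm with h2 | h2
  · exact Or.inr (C.sub_of_ins (Ne.symm hne) hs.symm h2)
  exfalso
  have hU : C.D x γ ∩ C.D x δ = ∅ := by
    refine C.empty_of_closed (C.s x γ) _ ?_ ?_ ?_
    · rintro f ⟨hf, -⟩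
      exact C.Dsub x γ hf
    · rintro e f ⟨hf, hfδ⟩ hef g hg heg
      have hfS : f ∈ K.S (C.s x γ) := C.Dsub x γ hf
      by_cases h3 : e ∈ C.c γ
      · obtain ⟨v, hv⟩ := K.exists_end e
        exact absurd hfδ (h1 v ⟨e, h3, hv⟩ f hfS ⟨e, hef, hv⟩)
      by_cases h4 : e ∈ C.c δ
      · obtain ⟨v, hv⟩ := K.exists_end e
        exact absurd hf (h2 v ⟨e, h4, hv⟩ f (by rw [← hs]; exact hfS) ⟨e, hef, hv⟩)
      exact ⟨(C.same_edge hfS hg hef heg h3).1 hf,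
        (C.same_edge (by rw [← hs]; exact hfS) (by rw [← hs]; exact hg) hef heg h4).1 hfδ⟩
    · rintro ⟨hr, -⟩
      exact C.root_out x γ hr
  have : f ∈ C.D x γ ∩ C.D x δ := ⟨hγ, hδ⟩
  rw [hU] at this
  exact this

theorem Cur.eq_of_D_eq {x : Bool} {γ δ : Γ} (h : C.D x γ = C.D x δ) : γ = δ := by
  obtain ⟨e, he⟩ := C.ne γ
  obtain ⟨f, hf, g, hg, hgn, hfg, hef, heg, -⟩ := C.exists_io x he
  have hs : C.s x γ = C.s x δ := K.disj (C.Dsub x γ hf) (C.Dsub x δ (h ▸ hf))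
  have h1 : e ∈ C.c δ := by
    refine (C.Dbd (x := x) (γ := δ) (by rw [← hs]; exact C.Dsub x γ hf) (by rw [← hs]; exact hg)
      hfg hef heg).2 ?_
    intro h2
    rw [h] at hf hgn
    exact hgn (h2.1 hf)
  obtain ⟨v, hv⟩ := K.exists_end e
  exact C.vdisj he h1 hv hv

/-- the colour of a tile in `D x γ` is `x` -/
theorem Cur.col_eq {x : Bool} {γ : Γ} {f : F} {i : I} (h : f ∈ C.D x γ) (hf : f ∈ K.S i) :
    i = C.s x γ ∧ K.col i = x := by
  have h1 : i = C.s x γ := K.disj hf (C.Dsub x γ h)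
  exact ⟨h1, by rw [h1]; exact C.scol x γ⟩

/-- the nodes: roots (sheets) and pairs (colour, curve) -/
abbrev Nd (I Γ : Type*) := I ⊕ (Bool × Γ)

/-- the region of a node -/
def Cur.Rg (C : Cur K Γ) : Nd I Γ → Set F
  | Sum.inl i => {f | f ∈ K.S i ∧ ∀ x γ, f ∉ C.D x γ}
  | Sum.inr (x, γ) => {f | f ∈ C.D x γ ∧ ∀ δ, f ∈ C.D x δ → C.D x γ ⊆ C.D x δ}

theorem Cur.rg_unique {f : F} {ν μ : Nd I Γ} (hν : f ∈ C.Rg ν) (hμ : f ∈ C.Rg μ) : ν = μ := by
  rcases ν with i | ⟨x, γ⟩ <;> rcases μ with j | ⟨y, δ⟩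
  · rw [K.disj hν.1 hμ.1]
  · exact absurd hμ.1 (hν.2 y δ)
  · exact absurd hν.1 (hμ.2 x γ)
  · have hx : x = y := by
      have h1 := (C.col_eq hν.1 (C.Dsub y δ hμ.1)).2
      rw [C.scol] at h1
      exact h1.symm
    subst hx
    have h2 : C.D x γ = C.D x δ := Set.Subset.antisymm (hν.2 δ hμ.1) (hμ.2 γ hν.1)
    rw [C.eq_of_D_eq h2]

theorem Cur.exists_rg [Finite Γ] {i : I} {f : F} (hf : f ∈ K.S i) : ∃ ν, f ∈ C.Rg ν := by
  by_cases h : ∃ x γ, f ∈ C.D x γ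
  · obtain ⟨x, γ, hγ⟩ := h
    -- choose a minimal one among those containing `f`
    obtain ⟨δ, hδ, hmin⟩ := Set.Finite.exists_minimalFor (fun δ => C.D x δ) {δ | f ∈ C.D x δ}
      (Set.toFinite _) ⟨γ, hγ⟩
    refine ⟨Sum.inr (x, δ), hδ, fun ε hε => ?_⟩
    rcases C.laminar hδ hε with h1 | h1
    · exact h1
    · exact hmin hε h1
  · exact ⟨Sum.inl i, hf, fun x γ hγ => h ⟨x, γ, hγ⟩⟩

/-- same membership ==> same region -/
theorem Cur.rg_congr {i : I} {f g : F} (hf : f ∈ K.S i) (hg : g ∈ K.S i)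
    (h : ∀ x γ, f ∈ C.D x γ ↔ g ∈ C.D x γ) {ν : Nd I Γ} (hν : f ∈ C.Rg ν) : g ∈ C.Rg ν := by
  rcases ν with j | ⟨x, γ⟩
  · have hij : i = j := K.disj hf hν.1
    subst hij
    exact ⟨hg, fun x γ hγ => hν.2 x γ ((h x γ).2 hγ)⟩
  · exact ⟨(h x γ).1 hν.1, fun δ hδ => hν.2 δ ((h x δ).2 hδ)⟩

/-- tiles of a sheet at an edge off the curves are in the same region -/
theorem Cur.rg_edge {i : I} {f g : F} {e : E} (hf : f ∈ K.S i) (hg : g ∈ K.S i)
    (hef : e ∈ K.bF f) (heg : e ∈ K.bF g) (he : ¬ C.Dbl e) {ν : Nd I Γ}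
    (hν : f ∈ C.Rg ν) : g ∈ C.Rg ν := by
  refine C.rg_congr hf hg (fun x γ => ?_) hν
  have he' : e ∉ C.c γ := fun h => he ⟨γ, h⟩
  constructor
  · intro h
    have hi := (C.col_eq h hf).1
    subst hi
    exact (C.same_edge hf hg hef heg he').1 h
  · intro h
    have hi := (C.col_eq h hg).1
    subst hi
    exact (C.same_edge hf hg hef heg he').2 h

/-- tiles of a sheet at a vertex off the curves are in the same region -/
theorem Cur.rg_vert {i : I} {f g : F} {v : V} (hf : f ∈ K.S i) (hg : g ∈ K.S i)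
    (hfv : K.At f v) (hgv : K.At g v) (hv : ∀ γ, ¬ C.On γ v) {ν : Nd I Γ}
    (hν : f ∈ C.Rg ν) : g ∈ C.Rg ν := by
  refine C.rg_congr hf hg (fun x γ => ?_) hν
  constructor
  · intro h
    have hi := (C.col_eq h hf).1
    subst hi
    exact C.same_vert hf hg hfv hgv (hv γ) h
  · intro h
    have hi := (C.col_eq h hg).1
    subst hi
    exact C.same_vert hg hf hgv hfv (hv γ) h

/-- a tile of a sheet at a vertex of `γ` lies in the sheet `s x γ` of its colour -/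
theorem Cur.sheet_on {i : I} {f : F} {γ : Γ} {v : V} (hf : f ∈ K.S i) (hfv : K.At f v)
    (hv : C.On γ v) : i = C.s (K.col i) γ := by
  obtain ⟨e, he, hve⟩ := hv
  obtain ⟨g, hg, heg⟩ := C.Don (K.col i) γ e he
  exact K.sep hf hg hfv ⟨e, heg, hve⟩ (by rw [C.scol])

/-- inner tiles at `γ` are in the region of `γ` -/
theorem Cur.rg_in {x : Bool} {γ : Γ} {v : V} {f : F} (hf : f ∈ C.D x γ) (hfv : K.At f v)
    (hv : C.On γ v) : f ∈ C.Rg (Sum.inr (x, γ)) := by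
  refine ⟨hf, fun δ hδ => ?_⟩
  by_cases hne : γ = δ
  · subst hne; exact fun _ h => h
  have hs : C.s x γ = C.s x δ := K.disj (C.Dsub x γ hf) (C.Dsub x δ hδ)
  refine C.sub_of_ins hne hs ?_
  rcases C.ins_or hne hs with h1 | h1
  · exact h1
  · exact absurd hδ (h1 v hv f (C.Dsub x γ hf) hfv)

/-- all outer tiles at `γ` lie in one region -/
theorem Cur.exists_up [Finite Γ] (x : Bool) (γ : Γ) : ∃ ν : Nd I Γ, ∀ f ∈ K.S (C.s x γ),
    f ∉ C.D x γ → ∀ v, C.On γ v → K.At f v → f ∈ C.Rg ν := by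
  obtain ⟨e, he⟩ := C.ne γ
  obtain ⟨f₀, -, g₀, hg₀, hg₀n, -, -, heg, -⟩ := C.exists_io x he
  obtain ⟨ν, hν⟩ := C.exists_rg hg₀
  obtain ⟨w, hw⟩ := K.exists_end e
  refine ⟨ν, fun f hf hfn v hv hfv => ?_⟩
  refine C.rg_congr hg₀ hf (fun y δ => ?_) hν
  by_cases hne : γ = δ
  · subst hne
    by_cases hxy : x = y
    · subst hxy
      exact ⟨fun h => absurd h hg₀n, fun h => absurd h hfn⟩
    · have aux : ∀ t ∈ K.S (C.s x γ), t ∉ C.D y γ := by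
        intro t ht htD
        have h1 := (C.col_eq htD ht).2
        rw [C.scol] at h1
        exact hxy h1
      exact ⟨fun h => absurd h (aux _ hg₀), fun h => absurd h (aux _ hf)⟩
  · constructor
    · intro h
      have h1 := C.col_eq h hg₀
      have hxy : x = y := by
        have h2 := h1.2
        rw [C.scol] at h2
        exact h2
      subst hxy
      exact C.same_curve hne h1.1 ⟨e, he, hw⟩ hv hg₀ hf ⟨e, heg, hw⟩ hfv h
    · intro h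
      have h1 := C.col_eq h hf
      have hxy : x = y := by
        have h2 := h1.2
        rw [C.scol] at h2
        exact h2
      subst hxy
      exact C.same_curve hne h1.1 hv ⟨e, he, hw⟩ hf hg₀ hfv ⟨e, heg, hw⟩ h

/-- the outer region of `γ` in colour `x` -/
noncomputable def Cur.up [Finite Γ] (C : Cur K Γ) (x : Bool) (γ : Γ) : Nd I Γ :=
  Classical.choose (C.exists_up x γ)

theorem Cur.rg_out [Finite Γ] {x : Bool} {γ : Γ} {v : V} {f : F} (hf : f ∈ K.S (C.s x γ))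
    (hfn : f ∉ C.D x γ) (hfv : K.At f v) (hv : C.On γ v) : f ∈ C.Rg (C.up x γ) :=
  Classical.choose_spec (C.exists_up x γ) f hf hfn v hv hfv

/-- the parent of a node -/
noncomputable def Cur.par [Finite Γ] (C : Cur K Γ) : Nd I Γ → Option (Nd I Γ)
  | Sum.inl _ => none
  | Sum.inr (x, γ) => some (C.up (!x) γ)

/-- `Up ν μ`: the parent of `ν` is `μ` -/
def Cur.R [Finite Γ] (C : Cur K Γ) (ν μ : Nd I Γ) : Prop := C.par ν = some μ

/-- `Anc ν μ`: the chain of parents from `ν` meets `μ` -/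
def Cur.Anc [Finite Γ] (C : Cur K Γ) : Nd I Γ → Nd I Γ → Prop := Relation.ReflTransGen C.R

theorem Cur.r_unique [Finite Γ] {ν μ μ' : Nd I Γ} (h : C.R ν μ) (h' : C.R ν μ') : μ = μ' := by
  unfold Cur.R at h h'
  rw [h] at h'
  exact Option.some_injective _ h'

theorem Cur.r_inr [Finite Γ] (x : Bool) (γ : Γ) : C.R (Sum.inr (x, γ)) (C.up (!x) γ) := rfl

theorem Cur.not_r_inl [Finite Γ] {i : I} {μ : Nd I Γ} : ¬ C.R (Sum.inl i) μ := by
  intro h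
  simp [Cur.R, Cur.par] at h

theorem Cur.anc_inl [Finite Γ] {i : I} {μ : Nd I Γ} (h : C.Anc (Sum.inl i) μ) :
    μ = Sum.inl i := by
  rcases Relation.ReflTransGen.cases_head h with h1 | ⟨c, h1, -⟩
  · exact h1.symm
  · exact (C.not_r_inl h1).elim

theorem Cur.anc_total [Finite Γ] {ν μ μ' : Nd I Γ} (h : C.Anc ν μ) (h' : C.Anc ν μ') :
    C.Anc μ μ' ∨ C.Anc μ' μ :=
  Relation.ReflTransGen.total_of_right_unique (fun _ _ _ h h' => C.r_unique h h') h h'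

theorem Cur.anc_root_unique [Finite Γ] {ν : Nd I Γ} {i j : I} (h : C.Anc ν (Sum.inl i))
    (h' : C.Anc ν (Sum.inl j)) : i = j := by
  rcases C.anc_total h h' with h1 | h1
  · exact (Sum.inl_injective (C.anc_inl h1)).symm
  · exact Sum.inl_injective (C.anc_inl h1)

/-- an alive node is not above itself -/
theorem Cur.no_cycle [Finite Γ] {ν : Nd I Γ} {i : I} (h : C.Anc ν (Sum.inl i)) {μ : Nd I Γ}
    (hr : C.R ν μ) : ¬ C.Anc μ ν := by
  unfold Cur.Anc at h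
  induction h using Relation.ReflTransGen.head_induction_on generalizing μ with
  | refl => exact (C.not_r_inl hr).elim
  | head h1 h2 ih =>
    rename_i a c
    intro h3
    have hc : c = μ := C.r_unique h1 hr
    subst hc
    -- c above a, a's parent is c
    rcases Relation.ReflTransGen.cases_head h3 with h4 | ⟨d, h4, h5⟩
    · subst h4
      exact ih h1 Relation.ReflTransGen.refl
    · exact ih h4 (Relation.ReflTransGen.tail h5 hr)

end

end Crest.Agent.R096.Ex_422
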