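import Crest.Agent.R096.Ex0_914

/-!
# R096 (row 96), P2-GEN (EXIST), part 1 (helper914): lines, slabs, and the macros of slabs
-/

set_option autoImplicit false

open Set Metric Topology

namespace Crest.Agent.R096.Ex_914

open Msh_715 Gp_702

/-- a line `t ↦ A + t B` -/
abbrev Ln := E3 × E3

/-- point of a line at the height `t` -/
def pt (u : Ln) (t : ℝ) : E3 := u.1 + t • u.2

/-- `f` vanishes along `u` -/
def Al (f : Af) (u : Ln) : Prop := ∀ s, ev f (pt u s) = 0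

theorem Al.dir {f : Af} {u : Ln} (h : Al f u) : f.1 u.2 = 0 := by
  have h1 := h 1
  have h0 := h 0
  simp only [ev, pt, map_add, map_smul, smul_eq_mul] at h1 h0
  linarith

/-- horizontal-slab data -/
structure Slb (F : Finset Af) (L : Finset Ln) (K : ℝ) {σ : Type} (lo hi aw : σ → ℤ) (τ : σ → ℝ)
    (tw : σ → Prop) : Prop where
  a2 : ∀ u ∈ L, u.1 2 = 0
  b2 : ∀ u ∈ L, u.2 2 = 1
  aw4 : ∀ s, 4 ≤ aw s
  lt1 : ∀ s, (lo s : ℝ) < τ s
  lt2 : ∀ s, τ s < hi s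
  sep : ∀ s s', s ≠ s' → hi s ≤ lo s' ∨ hi s' ≤ lo s
  s2 : ∀ s, ∀ u ∈ L, ∀ v ∈ L, pt u (τ s) ≠ pt v (τ s) →
    4 * (aw s : ℝ) < ‖pt u (τ s) - pt v (τ s)‖
  s3 : ∀ s, ∀ u ∈ L, ∀ t : ℝ, lo s ≤ t → t ≤ hi s → ∀ j, j ≠ 2 →
    |pt u t j - pt u (τ s) j| ≤ aw s / 4
  s4 : ∀ s, ∀ f ∈ F, ∀ u ∈ L, ev f (pt u (τ s)) ≠ 0 → ∀ y : E3,
    (∀ j, j ≠ 2 → |y j - pt u (τ s) j| ≤ aw s + 1) → (lo s : ℝ) ≤ y 2 → y 2 ≤ hi s → ev f y ≠ 0
  adj : ∀ s s', hi s = lo s' → tw s ∨ tw s'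
  twm : ∀ s, tw s → ∀ s', aw s ≤ aw s'
  twf : ∀ s, tw s → ∀ f ∈ F, ∀ u ∈ L, ¬ Al f u → ∀ t : ℝ, lo s ≤ t → t ≤ hi s → ∀ y : E3, y 2 = t →
    (∀ j, j ≠ 2 → |y j - pt u t j| ≤ 2 * aw s) → ev f y ≠ 0
  cov : ∀ t : ℝ, |t| ≤ K → (∃ s, lo s < t ∧ t < hi s) ∨ (∃ s s', (hi s : ℝ) = t ∧ (lo s' : ℝ) = t)

/-- the macro of a slab around a line -/
noncomputable def box {σ : Type} (lo hi aw : σ → ℤ) (τ : σ → ℝ) (s : σ) (u : Ln) : Bx :=
  (fun j => if j = 2 then lo s else ⌊pt u (τ s) j⌋ - aw s,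
   fun j => if j = 2 then hi s else ⌊pt u (τ s) j⌋ + aw s)

/-- good macros, without the condition on the unit cubes -/
structure Mac0 (F : Finset Af) (M : Finset Bx) : Prop where
  nd : ∀ b ∈ M, ∀ j, b.1 j < b.2 j
  dis : ∀ b ∈ M, ∀ b' ∈ M, b ≠ b' → ∃ j, b.2 j ≤ b'.1 j ∨ b'.2 j ≤ b.1 j
  big : ∀ b ∈ M, ∃ z : E3, (∀ j, (b.1 j : ℝ) < z j ∧ z j < (b.2 j : ℝ)) ∧
    ∀ f ∈ F, (∃ y ∈ zcl b.1 b.2, ev f y = 0) → ev f z = 0
  pair : ∀ b ∈ M, ∀ b' ∈ M, b ≠ b' → (zcl b.1 b.2 ∩ zcl b'.1 b'.2).Nonempty →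
    ∃ j, ∃ z d : E3, (∀ i, i ≠ j → ((b.1 i : ℝ) < z i ∧ z i < (b.2 i : ℝ)) ∧
        ((b'.1 i : ℝ) < z i ∧ z i < (b'.2 i : ℝ))) ∧
      ((b.2 j = b'.1 j ∧ z j = (b.2 j : ℝ)) ∨ (b'.2 j = b.1 j ∧ z j = (b'.2 j : ℝ))) ∧ d j ≠ 0 ∧
      ∀ f ∈ F, (∃ y ∈ zcl b.1 b.2 ∩ zcl b'.1 b'.2, ev f y = 0) → ev f z = 0 ∧ f.1 d = 0
  triple : ∀ b ∈ M, ∀ b' ∈ M, ∀ b'' ∈ M, b ≠ b' → b' ≠ b'' → b ≠ b'' →
    zcl b.1 b.2 ∩ zcl b'.1 b'.2 ∩ zcl b''.1 b''.2 = ∅

section

variable {F : Finset Af} {L : Finset Ln} {K : ℝ} {σ : Type} {lo hi aw : σ → ℤ} {τ : σ → ℝ}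
  {tw : σ → Prop}

theorem pt_two (H : Slb F L K lo hi aw τ tw) {u : Ln} (hu : u ∈ L) (t : ℝ) : pt u t 2 = t := by
  simp [pt, H.a2 u hu, H.b2 u hu]

theorem Slb.lohi (H : Slb F L K lo hi aw τ tw) (s : σ) : lo s < hi s := by
  have := (H.lt1 s).trans (H.lt2 s)
  exact_mod_cast this

theorem box_fst {s : σ} {u : Ln} {j : Fin 3} (hj : j ≠ 2) :
    (box lo hi aw τ s u).1 j = ⌊pt u (τ s) j⌋ - aw s := if_neg hj
theorem box_snd {s : σ} {u : Ln} {j : Fin 3} (hj : j ≠ 2) :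
    (box lo hi aw τ s u).2 j = ⌊pt u (τ s) j⌋ + aw s := if_neg hj
theorem box_fst2 {s : σ} {u : Ln} : (box lo hi aw τ s u).1 2 = lo s := by simp [box]
theorem box_snd2 {s : σ} {u : Ln} : (box lo hi aw τ s u).2 2 = hi s := by simp [box]

theorem mem_box {s : σ} {u : Ln} {y : E3} :
    y ∈ zcl (box lo hi aw τ s u).1 (box lo hi aw τ s u).2 ↔
      (∀ j, j ≠ 2 → |y j - ⌊pt u (τ s) j⌋| ≤ aw s) ∧ (lo s : ℝ) ≤ y 2 ∧ y 2 ≤ hi s := by
  constructor
  · intro h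
    refine ⟨fun j hj => ?_, ?_, ?_⟩
    · have := h j
      rw [box_fst hj, box_snd hj] at this
      push_cast at this
      rw [abs_le]
      constructor <;> linarith [this.1, this.2]
    · have := (h 2).1
      rwa [box_fst2] at this
    · have := (h 2).2
      rwa [box_snd2] at this
  · rintro ⟨h1, h2, h3⟩ j
    by_cases hj : j = 2
    · subst hj
      rw [box_fst2, box_snd2]
      exact ⟨h2, h3⟩
    · have := abs_le.1 (h1 j hj)
      rw [box_fst hj, box_snd hj]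
      push_cast
      constructor <;> linarith [this.1, this.2]

theorem fl (a : ℝ) : 0 ≤ a - ⌊a⌋ ∧ a - ⌊a⌋ < 1 :=
  ⟨by linarith [Int.floor_le a], by linarith [Int.lt_floor_add_one a]⟩

/-- two lines which are different at the height `τ s` have far apart squares -/
theorem far (H : Slb F L K lo hi aw τ tw) {s : σ} {u v : Ln} (hu : u ∈ L) (hv : v ∈ L)
    (h : pt u (τ s) ≠ pt v (τ s)) : ∃ j, j ≠ 2 ∧ 4 * (aw s : ℝ) < |pt u (τ s) j - pt v (τ s) j| := by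
  by_contra hc
  push Not at hc
  have h1 := H.s2 s u hu v hv h
  have h2 : ‖pt u (τ s) - pt v (τ s)‖ ≤ 4 * (aw s : ℝ) := by
    rw [pi_norm_le_iff_of_nonneg (by have := H.aw4 s; positivity)]
    intro j
    by_cases hj : j = 2
    · subst hj
      have : (pt u (τ s) - pt v (τ s)) 2 = 0 := by
        rw [Pi.sub_apply, pt_two H hu, pt_two H hv, sub_self]
      rw [this, norm_zero]
      have := H.aw4 s
      positivity
    · exact hc j hj
  linarith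

/-- same slab: equal boxes or disjoint boxes -/
theorem same_slab (H : Slb F L K lo hi aw τ tw) {s : σ} {u v : Ln} (hu : u ∈ L) (hv : v ∈ L)
    (h : box lo hi aw τ s u ≠ box lo hi aw τ s v) :
    ∃ j, (box lo hi aw τ s u).2 j < (box lo hi aw τ s v).1 j ∨
      (box lo hi aw τ s v).2 j < (box lo hi aw τ s u).1 j := by
  have hne : pt u (τ s) ≠ pt v (τ s) := by
    intro he
    apply h
    unfold box
    rw [he]
  obtain ⟨j, hj, h1⟩ := far H hu hv hne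
  refine ⟨j, ?_⟩
  rw [box_fst hj, box_fst hj, box_snd hj, box_snd hj]
  have h2 := fl (pt u (τ s) j)
  have h3 := fl (pt v (τ s) j)
  have h4 : (4 : ℝ) ≤ aw s := by exact_mod_cast H.aw4 s
  rcases lt_abs.1 h1 with h5 | h5
  · right
    have : ((⌊pt v (τ s) j⌋ + aw s : ℤ) : ℝ) < ((⌊pt u (τ s) j⌋ - aw s : ℤ) : ℝ) := by
      push_cast; linarith [h2.1, h2.2, h3.1, h3.2]
    exact_mod_cast this
  · left
    have : ((⌊pt u (τ s) j⌋ + aw s : ℤ) : ℝ) < ((⌊pt v (τ s) j⌋ - aw s : ℤ) : ℝ) := by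
      push_cast; linarith [h2.1, h2.2, h3.1, h3.2]
    exact_mod_cast this

/-- the point of the line lies well inside the square of every slab through its height -/
theorem inside (H : Slb F L K lo hi aw τ tw) {s : σ} {u : Ln} (hu : u ∈ L) {t : ℝ}
    (h1 : (lo s : ℝ) ≤ t) (h2 : t ≤ hi s) {j : Fin 3} (hj : j ≠ 2) :
    |pt u t j - ⌊pt u (τ s) j⌋| ≤ aw s / 4 + 1 := by
  have h3 := H.s3 s u hu t h1 h2 j hj
  have h4 := fl (pt u (τ s) j)
  rw [abs_le] at h3 ⊢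
  constructor <;> linarith [h3.1, h3.2, h4.1, h4.2]

/-- the key lemma: a tower box and a box of another slab at a common height -/
theorem key (H : Slb F L K lo hi aw τ tw) {s s' : σ} (hs : tw s) {u v : Ln} (hu : u ∈ L)
    (hv : v ∈ L) {t : ℝ} (h1 : (lo s : ℝ) ≤ t) (h2 : t ≤ hi s) (h1' : (lo s' : ℝ) ≤ t)
    (h2' : t ≤ hi s') {y : E3}
    (hy : ∀ j, j ≠ 2 → |y j - ⌊pt u (τ s) j⌋| ≤ aw s)
    (hy' : ∀ j, j ≠ 2 → |y j - ⌊pt v (τ s') j⌋| ≤ aw s') :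
    pt u (τ s') = pt v (τ s') := by
  by_contra hne
  obtain ⟨j, hj, h5⟩ := far H hu hv hne
  have a1 := hy j hj
  have a2 := hy' j hj
  have a3 := inside H hu h1 h2 hj
  have a4 := H.s3 s' u hu t h1' h2' j hj
  have a5 := fl (pt v (τ s') j)
  have h4 : (4 : ℝ) ≤ aw s := by exact_mod_cast H.aw4 s
  have h6 : (aw s : ℝ) ≤ aw s' := by exact_mod_cast H.twm s hs s'
  rw [abs_le] at a1 a2 a3 a4
  have : |pt u (τ s') j - pt v (τ s') j| ≤ 4 * (aw s' : ℝ) := by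
    rw [abs_le]
    constructor <;> linarith [a1.1, a1.2, a2.1, a2.2, a3.1, a3.2, a4.1, a4.2, a5.1, a5.2]
  linarith

/-- planes through the common square contain the line -/
theorem key2 (H : Slb F L K lo hi aw τ tw) {s : σ} (hs : tw s) {u : Ln} (hu : u ∈ L) {t : ℝ}
    (h1 : (lo s : ℝ) ≤ t) (h2 : t ≤ hi s) {f : Af} (hf : f ∈ F) {y : E3} (hyt : y 2 = t)
    (hy : ∀ j, j ≠ 2 → |y j - ⌊pt u (τ s) j⌋| ≤ aw s) (h0 : ev f y = 0) : Al f u := by
  by_contra hc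
  refine H.twf s hs f hf u hu hc t h1 h2 y hyt (fun j hj => ?_) h0
  have a1 := hy j hj
  have a3 := inside H hu h1 h2 hj
  have h4 : (4 : ℝ) ≤ aw s := by exact_mod_cast H.aw4 s
  rw [abs_le] at a1 a3 ⊢
  constructor <;> linarith [a1.1, a1.2, a3.1, a3.2]

open Classical in
/-- the macros of a slab system -/
noncomputable def macs [Fintype σ] (L : Finset Ln) (lo hi aw : σ → ℤ) (τ : σ → ℝ) : Finset Bx :=
  (Finset.univ ×ˢ L).image fun p => box lo hi aw τ p.1 p.2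

theorem mem_macs [Fintype σ] {b : Bx} :
    b ∈ macs L lo hi aw τ ↔ ∃ s, ∃ u ∈ L, box lo hi aw τ s u = b := by
  classical
  simp only [macs, Finset.mem_image, Finset.mem_product, Finset.mem_univ, true_and, Prod.exists]

/-- two different macros which meet: consecutive slabs, one of them a tower slab -/
theorem meet_cases (H : Slb F L K lo hi aw τ tw) {s s' : σ} {u v : Ln} (hu : u ∈ L) (hv : v ∈ L)
    (hne : box lo hi aw τ s u ≠ box lo hi aw τ s' v) {y : E3}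
    (hy : y ∈ zcl (box lo hi aw τ s u).1 (box lo hi aw τ s u).2)
    (hy' : y ∈ zcl (box lo hi aw τ s' v).1 (box lo hi aw τ s' v).2) :
    s ≠ s' ∧ ((hi s = lo s' ∧ y 2 = hi s) ∨ (hi s' = lo s ∧ y 2 = hi s')) := by
  have hss : s ≠ s' := by
    rintro rfl
    obtain ⟨j, h | h⟩ := same_slab H hu hv hne
    · have h1 := (hy j).2.trans_lt (Int.cast_lt.2 h)
      linarith [(hy' j).1]
    · have h1 := (hy' j).2.trans_lt (Int.cast_lt.2 h)
      linarith [(hy j).1]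
  refine ⟨hss, ?_⟩
  rw [mem_box] at hy hy'
  rcases H.sep s s' hss with h | h
  · left
    have h1 : (hi s : ℝ) ≤ lo s' := by exact_mod_cast h
    have h2 : (hi s : ℝ) = lo s' := by linarith [hy.2.2, hy'.2.1]
    exact ⟨by exact_mod_cast h2, by linarith [hy.2.2, hy'.2.1]⟩
  · right
    have h1 : (hi s' : ℝ) ≤ lo s := by exact_mod_cast h
    have h2 : (hi s' : ℝ) = lo s := by linarith [hy'.2.2, hy.2.1]
    exact ⟨by exact_mod_cast h2, by linarith [hy'.2.2, hy.2.1]⟩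

/-- the pair condition, with a tower slab first -/
theorem pair_tower (H : Slb F L K lo hi aw τ tw) {s s' : σ} (hs : tw s) {u v : Ln} (hu : u ∈ L)
    (hv : v ∈ L) {t : ℝ} (h1 : (lo s : ℝ) ≤ t) (h2 : t ≤ hi s) (h1' : (lo s' : ℝ) ≤ t)
    (h2' : t ≤ hi s')
    (hint : ∀ y ∈ zcl (box lo hi aw τ s u).1 (box lo hi aw τ s u).2 ∩
      zcl (box lo hi aw τ s' v).1 (box lo hi aw τ s' v).2, y 2 = t)
    (hm : (zcl (box lo hi aw τ s u).1 (box lo hi aw τ s u).2 ∩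
      zcl (box lo hi aw τ s' v).1 (box lo hi aw τ s' v).2).Nonempty) :
    ∃ z d : E3, z 2 = t ∧ d 2 ≠ 0 ∧ (∀ i, i ≠ 2 →
      (((box lo hi aw τ s u).1 i : ℝ) < z i ∧ z i < ((box lo hi aw τ s u).2 i : ℝ)) ∧
      (((box lo hi aw τ s' v).1 i : ℝ) < z i ∧ z i < ((box lo hi aw τ s' v).2 i : ℝ))) ∧
      ∀ f ∈ F, (∃ y ∈ zcl (box lo hi aw τ s u).1 (box lo hi aw τ s u).2 ∩
        zcl (box lo hi aw τ s' v).1 (box lo hi aw τ s' v).2, ev f y = 0) →
        ev f z = 0 ∧ f.1 d = 0 := by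
  obtain ⟨y, hy, hy'⟩ := hm
  have hk : pt u (τ s') = pt v (τ s') :=
    key H hs hu hv h1 h2 h1' h2' (mem_box.1 hy).1 (mem_box.1 hy').1
  refine ⟨pt u t, u.2, pt_two H hu t, ?_, fun i hi' => ⟨?_, ?_⟩, ?_⟩
  · rw [H.b2 u hu]; exact one_ne_zero
  · rw [box_fst hi', box_snd hi']
    push_cast
    have a := abs_le.1 (inside H hu h1 h2 hi')
    have h4 : (4 : ℝ) ≤ aw s := by exact_mod_cast H.aw4 s
    constructor <;> linarith [a.1, a.2]
  · rw [box_fst hi', box_snd hi', ← hk]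
    push_cast
    have a := abs_le.1 (inside H hu h1' h2' hi')
    have h4 : (4 : ℝ) ≤ aw s' := by exact_mod_cast H.aw4 s'
    constructor <;> linarith [a.1, a.2]
  · rintro f hf ⟨y, hy, h0⟩
    have := key2 H hs hu h1 h2 hf (hint y hy) (mem_box.1 hy.1).1 h0
    exact ⟨this t, this.dir⟩

theorem mac0_of_slb [Fintype σ] (H : Slb F L K lo hi aw τ tw) : Mac0 F (macs L lo hi aw τ) where
  nd := by
    intro b hb j
    obtain ⟨s, u, hu, rfl⟩ := mem_macs.1 hb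
    by_cases hj : j = 2
    · subst hj
      rw [box_fst2, box_snd2]
      exact H.lohi s
    · rw [box_fst hj, box_snd hj]
      have := H.aw4 s
      omega
  dis := by
    intro b hb b' hb' hne
    obtain ⟨s, u, hu, rfl⟩ := mem_macs.1 hb
    obtain ⟨s', v, hv, rfl⟩ := mem_macs.1 hb'
    by_cases hss : s = s'
    · subst hss
      obtain ⟨j, h | h⟩ := same_slab H hu hv hne
      · exact ⟨j, Or.inl h.le⟩
      · exact ⟨j, Or.inr h.le⟩
    · refine ⟨2, ?_⟩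
      rw [box_fst2, box_fst2, box_snd2, box_snd2]
      exact H.sep s s' hss
  big := by
    intro b hb
    obtain ⟨s, u, hu, rfl⟩ := mem_macs.1 hb
    refine ⟨pt u (τ s), fun j => ?_, ?_⟩
    · by_cases hj : j = 2
      · subst hj
        rw [box_fst2, box_snd2, pt_two H hu]
        exact ⟨H.lt1 s, H.lt2 s⟩
      · rw [box_fst hj, box_snd hj]
        push_cast
        have a := fl (pt u (τ s) j)
        have h4 : (4 : ℝ) ≤ aw s := by exact_mod_cast H.aw4 s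
        constructor <;> linarith [a.1, a.2]
    · rintro f hf ⟨y, hy, h0⟩
      by_contra hc
      rw [mem_box] at hy
      refine H.s4 s f hf u hu hc y (fun j hj => ?_) hy.2.1 hy.2.2 h0
      have a1 := abs_le.1 (hy.1 j hj)
      have a := fl (pt u (τ s) j)
      rw [abs_le]
      constructor <;> linarith [a.1, a.2, a1.1, a1.2]
  pair := by
    intro b hb b' hb' hne hm
    obtain ⟨s, u, hu, rfl⟩ := mem_macs.1 hb
    obtain ⟨s', v, hv, rfl⟩ := mem_macs.1 hb'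
    have hlo := (H.lt1 s).trans (H.lt2 s)
    have hlo' := (H.lt1 s').trans (H.lt2 s')
    obtain ⟨y0, hy0, hy0'⟩ := hm
    obtain ⟨hss, h⟩ := meet_cases H hu hv hne hy0 hy0'
    have hint : ∀ y ∈ zcl (box lo hi aw τ s u).1 (box lo hi aw τ s u).2 ∩
        zcl (box lo hi aw τ s' v).1 (box lo hi aw τ s' v).2, y 2 = y0 2 := by
      rintro y ⟨hy, hy'⟩
      have e1 := (mem_box.1 hy).2
      have e2 := (mem_box.1 hy').2
      rcases h with ⟨h1, h2⟩ | ⟨h1, h2⟩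
      · have h1' : (hi s : ℝ) = lo s' := by exact_mod_cast h1
        rw [h2]; linarith [e1.2, e2.1]
      · have h1' : (hi s' : ℝ) = lo s := by exact_mod_cast h1
        rw [h2]; linarith [e2.2, e1.1]
    have e1 := (mem_box.1 hy0).2
    have e2 := (mem_box.1 hy0').2
    have hadj : tw s ∨ tw s' := by
      rcases h with ⟨h1, -⟩ | ⟨h1, -⟩
      · exact H.adj s s' h1
      · exact (H.adj s' s h1).symm
    refine ⟨2, ?_⟩
    rcases hadj with ht | ht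
    · obtain ⟨z, d, hz, hd, hzi, hF⟩ := pair_tower H ht hu hv e1.1 e1.2 e2.1 e2.2 hint ⟨y0, hy0, hy0'⟩
      refine ⟨z, d, fun i hi' => hzi i hi', ?_, hd, hF⟩
      rw [box_fst2, box_fst2, box_snd2, box_snd2, hz]
      rcases h with ⟨h1, h2⟩ | ⟨h1, h2⟩
      · exact Or.inl ⟨h1, h2⟩
      · exact Or.inr ⟨h1, h2⟩
    · have hc := inter_comm (zcl (box lo hi aw τ s u).1 (box lo hi aw τ s u).2)
        (zcl (box lo hi aw τ s' v).1 (box lo hi aw τ s' v).2)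
      obtain ⟨z, d, hz, hd, hzi, hF⟩ := pair_tower H ht hv hu e2.1 e2.2 e1.1 e1.2
        (by rw [← hc]; exact hint) ⟨y0, hy0', hy0⟩
      refine ⟨z, d, fun i hi' => ⟨(hzi i hi').2, (hzi i hi').1⟩, ?_, hd, by rw [hc]; exact hF⟩
      rw [box_fst2, box_fst2, box_snd2, box_snd2, hz]
      rcases h with ⟨h1, h2⟩ | ⟨h1, h2⟩
      · exact Or.inl ⟨h1, h2⟩
      · exact Or.inr ⟨h1, h2⟩
  triple := by
    intro b hb b' hb' b'' hb'' h12 h23 h13
    obtain ⟨s, u, hu, rfl⟩ := mem_macs.1 hb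
    obtain ⟨s', v, hv, rfl⟩ := mem_macs.1 hb'
    obtain ⟨s'', w, hw, rfl⟩ := mem_macs.1 hb''
    rw [eq_empty_iff_forall_notMem]
    rintro y ⟨⟨h1, h2⟩, h3⟩
    have e12 := (meet_cases H hu hv h12 h1 h2).2
    have e23 := (meet_cases H hv hw h23 h2 h3).2
    have e13 := (meet_cases H hu hw h13 h1 h3).2
    have l1 := H.lohi s
    have l2 := H.lohi s'
    have l3 := H.lohi s''
    rcases e12 with ⟨a1, a2⟩ | ⟨a1, a2⟩ <;> rcases e23 with ⟨b1, b2⟩ | ⟨b1, b2⟩ <;>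
      rcases e13 with ⟨c1, c2⟩ | ⟨c1, c2⟩ <;> omega

/-- the lines are covered by the interior of the union of the macros -/
theorem cover [Fintype σ] (H : Slb F L K lo hi aw τ tw) {u : Ln} (hu : u ∈ L) {t : ℝ}
    (ht : |t| ≤ K) : pt u t ∈ interior (⋃ b ∈ macs L lo hi aw τ, zcl b.1 b.2) := by
  rw [mem_interior]
  rcases H.cov t ht with ⟨s, h1, h2⟩ | ⟨s, s', h1, h2⟩
  · refine ⟨{y | (∀ j, j ≠ 2 → |y j - ⌊pt u (τ s) j⌋| < aw s) ∧ (lo s : ℝ) < y 2 ∧ y 2 < hi s},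
      ?_, ?_, ?_, ?_⟩
    · rintro y ⟨hy1, hy2, hy3⟩
      refine mem_iUnion₂.2 ⟨_, mem_macs.2 ⟨s, u, hu, rfl⟩, ?_⟩
      exact mem_box.2 ⟨fun j hj => (hy1 j hj).le, hy2.le, hy3.le⟩
    · simp only [ofPred_and, ofPred_forall]
      refine IsOpen.inter (isOpen_iInter_of_finite fun j => isOpen_iInter_of_finite fun _ => ?_)
        (IsOpen.inter ?_ ?_)
      · exact isOpen_lt (by fun_prop) continuous_const
      · exact isOpen_lt continuous_const (by fun_prop)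
      · exact isOpen_lt (by fun_prop) continuous_const
    · intro j hj
      have a := inside H hu h1.le h2.le hj
      have h4 : (4 : ℝ) ≤ aw s := by exact_mod_cast H.aw4 s
      linarith
    · rw [pt_two H hu]
      exact ⟨h1, h2⟩
  · have l1 : (lo s : ℝ) < hi s := (H.lt1 s).trans (H.lt2 s)
    have l2 : (lo s' : ℝ) < hi s' := (H.lt1 s').trans (H.lt2 s')
    refine ⟨{y | ((∀ j, j ≠ 2 → |y j - ⌊pt u (τ s) j⌋| < aw s) ∧
      (∀ j, j ≠ 2 → |y j - ⌊pt u (τ s') j⌋| < aw s')) ∧ (lo s : ℝ) < y 2 ∧ y 2 < hi s'},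
      ?_, ?_, ?_, ?_⟩
    · rintro y ⟨⟨hy1, hy1'⟩, hy2, hy3⟩
      by_cases hyt : y 2 ≤ t
      · refine mem_iUnion₂.2 ⟨_, mem_macs.2 ⟨s, u, hu, rfl⟩, ?_⟩
        exact mem_box.2 ⟨fun j hj => (hy1 j hj).le, hy2.le, by linarith⟩
      · refine mem_iUnion₂.2 ⟨_, mem_macs.2 ⟨s', u, hu, rfl⟩, ?_⟩
        exact mem_box.2 ⟨fun j hj => (hy1' j hj).le, by linarith, hy3.le⟩
    · simp only [ofPred_and, ofPred_forall]
      refine IsOpen.inter (IsOpen.inter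
        (isOpen_iInter_of_finite fun j => isOpen_iInter_of_finite fun _ => ?_)
        (isOpen_iInter_of_finite fun j => isOpen_iInter_of_finite fun _ => ?_))
        (IsOpen.inter ?_ ?_)
      · exact isOpen_lt (by fun_prop) continuous_const
      · exact isOpen_lt (by fun_prop) continuous_const
      · exact isOpen_lt continuous_const (by fun_prop)
      · exact isOpen_lt (by fun_prop) continuous_const
    · constructor
      · intro j hj
        have a := inside H hu (s := s) (t := t) (by linarith) (by linarith) hj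
        have h4 : (4 : ℝ) ≤ aw s := by exact_mod_cast H.aw4 s
        linarith
      · intro j hj
        have a := inside H hu (s := s') (t := t) (by linarith) (by linarith) hj
        have h4 : (4 : ℝ) ≤ aw s' := by exact_mod_cast H.aw4 s'
        linarith
    · rw [pt_two H hu]
      constructor <;> linarith

end

end Crest.Agent.R096.Ex_914
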