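import Crest.Agent.R096.Ex1_422

/-!
# One-step exchange on finite Z/2 cell complexes, part 2

Copies of edges and vertices on the curves, the new sheets, fans.
-/

set_option autoImplicit false

namespace Crest.Agent.R096.Ex_422

open Finset Classical

variable {V E F I Γ : Type*}

section

variable {K : Sys V E F I} (C : Cur K Γ)

/-- the colour of a tile -/
noncomputable def Sys.fc (K : Sys V E F I) (f : F) : Bool :=
  if ∃ i, f ∈ K.S i ∧ K.col i = true then true else false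

theorem Sys.fc_eq {K : Sys V E F I} {f : F} {i : I} (hf : f ∈ K.S i) : K.fc f = K.col i := by
  unfold Sys.fc
  split_ifs with h
  · obtain ⟨j, hj, hc⟩ := h
    rw [K.disj hf hj, hc]
  · cases hc : K.col i
    · rfl
    · exact absurd ⟨i, hf, hc⟩ h

/-- the copy of the tile `f` at `γ` : outer tiles of colour `x` and inner tiles of colour `!x`
are on the copy `x` -/
noncomputable def Cur.tc (C : Cur K Γ) (f : F) (γ : Γ) : Bool :=
  if f ∈ C.D (K.fc f) γ then !(K.fc f) else K.fc f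

theorem Cur.tc_in {x : Bool} {γ : Γ} {f : F} (hf : f ∈ C.D x γ) : C.tc f γ = !x := by
  have h1 : K.fc f = x := by rw [K.fc_eq (C.Dsub x γ hf), C.scol]
  unfold Cur.tc
  rw [h1, if_pos hf]

theorem Cur.tc_out {x : Bool} {γ : Γ} {f : F} (hf : f ∈ K.S (C.s x γ)) (hn : f ∉ C.D x γ) :
    C.tc f γ = x := by
  have h1 : K.fc f = x := by rw [K.fc_eq hf, C.scol]
  unfold Cur.tc
  rw [h1, if_neg hn]

/-- the copy of the tile at the edge -/
noncomputable def Cur.ec (C : Cur K Γ) (f : F) (e : E) : Bool :=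
  if h : C.Dbl e then C.tc f (Classical.choose h) else false

theorem Cur.edge_unique {γ δ : Γ} {e : E} (h : e ∈ C.c γ) (h' : e ∈ C.c δ) : γ = δ := by
  obtain ⟨v, hv⟩ := K.exists_end e
  exact C.vdisj h h' hv hv

theorem Cur.ec_dbl {γ : Γ} {e : E} (h : e ∈ C.c γ) (f : F) : C.ec f e = C.tc f γ := by
  have h1 : C.Dbl e := ⟨γ, h⟩
  unfold Cur.ec
  rw [dif_pos h1]
  have h2 : Classical.choose h1 = γ := C.edge_unique (Classical.choose_spec h1) h
  rw [h2]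

theorem Cur.ec_off {e : E} (h : ¬ C.Dbl e) (f : F) : C.ec f e = false := by
  unfold Cur.ec
  rw [dif_neg h]

/-- the copy of the tile at the vertex -/
noncomputable def Cur.vt (C : Cur K Γ) (f : F) (v : V) : Bool :=
  if h : ∃ γ, C.On γ v then C.tc f (Classical.choose h) else false

theorem Cur.vt_on {γ : Γ} {v : V} (h : C.On γ v) (f : F) : C.vt f v = C.tc f γ := by
  have h1 : ∃ γ, C.On γ v := ⟨γ, h⟩
  unfold Cur.vt
  rw [dif_pos h1]
  have h2 : Classical.choose h1 = γ := C.on_unique (Classical.choose_spec h1) h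
  rw [h2]

theorem Cur.vt_off {v : V} (h : ∀ γ, ¬ C.On γ v) (f : F) : C.vt f v = false := by
  unfold Cur.vt
  rw [dif_neg]
  rintro ⟨γ, hγ⟩
  exact h γ hγ

/-- the copy of the end `v` of the edge copy `(e, β)` -/
noncomputable def Cur.vc (C : Cur K Γ) (e : E) (β : Bool) (v : V) : Bool :=
  if C.Dbl e then β else
    if ∃ f i, f ∈ K.S i ∧ e ∈ K.bF f ∧ C.vt f v = true then true else false

theorem Cur.not_dbl_of_off {v : V} {e : E} (h : ∀ γ, ¬ C.On γ v) (hv : v ∈ K.bE e) :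
    ¬ C.Dbl e := fun ⟨γ, hγ⟩ => h γ ⟨e, hγ, hv⟩

/-- all tiles at an end `v` of a tile edge off the curves are on the same copy -/
theorem Cur.vt_eq {i j : I} {f g : F} {e : E} {v : V} (hf : f ∈ K.S i) (hg : g ∈ K.S j)
    (hef : e ∈ K.bF f) (heg : e ∈ K.bF g) (hv : v ∈ K.bE e) (he : ¬ C.Dbl e) :
    C.vt f v = C.vt g v := by
  by_cases h : ∃ γ, C.On γ v
  · obtain ⟨γ, hγ⟩ := h
    rw [C.vt_on hγ, C.vt_on hγ]
    have heγ : e ∉ C.c γ := fun h => he ⟨γ, h⟩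
    have hcol : K.col i = K.col j := by
      by_contra hne
      obtain ⟨e', he', hve'⟩ := hγ
      exact heγ (C.dbl hf hg hne hef heg hv he' hve')
    have hij : i = j := K.sep hf hg ⟨e, hef, hv⟩ ⟨e, heg, hv⟩ hcol
    subst hij
    have hi := C.sheet_on hf ⟨e, hef, hv⟩ hγ
    set x := K.col i with hx
    clear_value x
    subst hi
    have hs := C.same_edge hf hg hef heg heγ
    by_cases h1 : f ∈ C.D x γ
    · rw [C.tc_in h1, C.tc_in (hs.1 h1)]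
    · rw [C.tc_out hf h1, C.tc_out hg (fun h => h1 (hs.2 h))]
  · push Not at h
    rw [C.vt_off h, C.vt_off h]

theorem Cur.vc_eq {i : I} {f : F} {e : E} {v : V} (hf : f ∈ K.S i) (hef : e ∈ K.bF f)
    (hv : v ∈ K.bE e) : C.vc e (C.ec f e) v = C.vt f v := by
  unfold Cur.vc
  split_ifs with h1 h2
  · obtain ⟨γ, hγ⟩ := h1
    rw [C.ec_dbl hγ, C.vt_on ⟨e, hγ, hv⟩]
  · obtain ⟨g, j, hg, heg, hgv⟩ := h2
    rw [C.vt_eq hf hg hef heg hv h1, hgv]
  · cases h3 : C.vt f v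
    · rfl
    · exact absurd ⟨f, i, hf, hef, h3⟩ h2

theorem Cur.vc_dbl {e : E} (h : C.Dbl e) (β : Bool) (v : V) : C.vc e β v = β := by
  unfold Cur.vc
  rw [if_pos h]

/-- the new boundary of a tile -/
noncomputable def Cur.bF' (C : Cur K Γ) (f : F) : Finset (E × Bool) :=
  (K.bF f).map ⟨fun e => (e, C.ec f e), fun e e' h => (Prod.mk.inj h).1⟩

/-- the new ends of an edge copy -/
noncomputable def Cur.bE' (C : Cur K Γ) (e : E × Bool) : Finset (V × Bool) :=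
  (K.bE e.1).map ⟨fun v => (v, C.vc e.1 e.2 v), fun v v' h => (Prod.mk.inj h).1⟩

theorem Cur.mem_bF' {f : F} {e : E} {β : Bool} :
    (e, β) ∈ C.bF' f ↔ e ∈ K.bF f ∧ C.ec f e = β := by
  unfold Cur.bF'
  rw [Finset.mem_map]
  constructor
  · rintro ⟨e', he', h⟩
    obtain ⟨rfl, rfl⟩ := Prod.mk.inj h
    exact ⟨he', rfl⟩
  · rintro ⟨he, rfl⟩
    exact ⟨e, he, rfl⟩

theorem Cur.mem_bE' {e : E} {β β' : Bool} {v : V} :
    (v, β') ∈ C.bE' (e, β) ↔ v ∈ K.bE e ∧ C.vc e β v = β' := by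
  unfold Cur.bE'
  rw [Finset.mem_map]
  constructor
  · rintro ⟨v', hv', h⟩
    obtain ⟨rfl, rfl⟩ := Prod.mk.inj h
    exact ⟨hv', rfl⟩
  · rintro ⟨hv, rfl⟩
    exact ⟨v, hv, rfl⟩

/-- the new sheets -/
def Cur.S' [Finite Γ] (C : Cur K Γ) (i : I) : Set F :=
  {f | ∃ ν, f ∈ C.Rg ν ∧ C.Anc ν (Sum.inl i)}

/-- the old sheet of a node -/
def Cur.shN (C : Cur K Γ) : Nd I Γ → I
  | Sum.inl i => i
  | Sum.inr (x, γ) => C.s x γ

theorem Cur.rg_sub (ν : Nd I Γ) : C.Rg ν ⊆ K.S (C.shN ν) := by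
  rcases ν with i | ⟨x, γ⟩
  · exact fun f hf => hf.1
  · exact fun f hf => C.Dsub x γ hf.1

theorem Cur.mem_S'_iff [Finite Γ] {i : I} {f : F} {ν : Nd I Γ} (hf : f ∈ C.Rg ν) :
    f ∈ C.S' i ↔ C.Anc ν (Sum.inl i) := by
  constructor
  · rintro ⟨μ, hμ, h⟩
    rwa [C.rg_unique hf hμ]
  · exact fun h => ⟨ν, hf, h⟩

theorem Cur.exists_old [Finite Γ] {i : I} {f : F} (hf : f ∈ C.S' i) : ∃ p, f ∈ K.S p := by
  obtain ⟨ν, hν, -⟩ := hf
  exact ⟨_, C.rg_sub ν hν⟩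

theorem Cur.disj' [Finite Γ] {i j : I} {f : F} (hi : f ∈ C.S' i) (hj : f ∈ C.S' j) : i = j := by
  obtain ⟨ν, hν, h⟩ := hi
  exact C.anc_root_unique h ((C.mem_S'_iff hν).1 hj)

theorem Cur.root_mem' [Finite Γ] (i : I) : C.root i ∈ C.S' i := by
  refine ⟨Sum.inl i, ⟨C.root_mem i, fun x γ h => ?_⟩, Relation.ReflTransGen.refl⟩
  have h1 := (C.col_eq h (C.root_mem i)).1
  rw [h1] at h
  exact C.root_out x γ h

/-- a tile in no inner disc stays in its sheet -/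
theorem Cur.stay [Finite Γ] {i : I} {f : F} (hf : f ∈ K.S i) (h : ∀ x γ, f ∉ C.D x γ) :
    f ∈ C.S' i :=
  ⟨Sum.inl i, ⟨hf, h⟩, Relation.ReflTransGen.refl⟩

theorem Cur.inl_of [Finite Γ] {i p : I} {f : F} (hf : f ∈ C.S' i) (hp : f ∈ K.S p)
    (h : ∀ x γ, f ∉ C.D x γ) : i = p :=
  C.disj' hf (C.stay hp h)

theorem Cur.anc_up_iff [Finite Γ] {i : I} {x : Bool} {γ : Γ} :
    C.Anc (Sum.inr (x, γ)) (Sum.inl i) ↔ C.Anc (C.up (!x) γ) (Sum.inl i) := by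
  constructor
  · intro h
    rcases Relation.ReflTransGen.cases_head h with h1 | ⟨d, h1, h2⟩
    · exact absurd h1 (by simp)
    · rwa [← C.r_unique h1 (C.r_inr x γ)]
  · intro h
    exact Relation.ReflTransGen.head (C.r_inr x γ) h

/-- the pair of tiles at a copy of an edge of `γ` -/
theorem Cur.exists_pair [Finite Γ] {γ : Γ} {e : E} (he : e ∈ C.c γ) (β : Bool) :
    ∃ o n, o ∈ K.S (C.s β γ) ∧ o ∉ C.D β γ ∧ n ∈ C.D (!β) γ ∧ o ≠ n ∧ e ∈ K.bF o ∧ e ∈ K.bF n ∧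
      C.ec o e = β ∧ C.ec n e = β ∧ o ∈ C.Rg (C.up β γ) ∧ n ∈ C.Rg (Sum.inr (!β, γ)) ∧
      (∀ i, o ∈ C.S' i ↔ n ∈ C.S' i) ∧
      ∀ q h, h ∈ K.S q → e ∈ K.bF h → C.ec h e = β → h = o ∨ h = n := by
  obtain ⟨v, hv⟩ := K.exists_end e
  obtain ⟨n', hn', o, ho, hoD, hno, hen', heo, hallo⟩ := C.exists_io β he
  obtain ⟨n, hn, o', ho', hoD', hno', hen, heo', halln⟩ := C.exists_io (!β) he
  have hon : C.On γ v := ⟨e, he, hv⟩
  have h1 : o ∈ C.Rg (C.up β γ) := C.rg_out ho hoD ⟨e, heo, hv⟩ hon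
  have h2 : n ∈ C.Rg (Sum.inr (!β, γ)) := C.rg_in hn ⟨e, hen, hv⟩ hon
  refine ⟨o, n, ho, hoD, hn, ?_, heo, hen, ?_, ?_, h1, h2, ?_, ?_⟩
  · rintro rfl
    have h3 := K.disj ho (C.Dsub (!β) γ hn)
    have h4 := C.scol β γ
    rw [h3, C.scol] at h4
    cases β <;> simp at h4
  · rw [C.ec_dbl he, C.tc_out ho hoD]
  · rw [C.ec_dbl he, C.tc_in hn]
    simp
  · intro i
    rw [C.mem_S'_iff h1, C.mem_S'_iff h2, C.anc_up_iff, Bool.not_not]
  · intro q h hh heh hβ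
    rw [C.ec_dbl he] at hβ
    have hq := C.sheet_on hh ⟨e, heh, hv⟩ hon
    set x := K.col q with hx
    clear_value x
    subst hq
    by_cases hD : h ∈ C.D x γ
    · rw [C.tc_in hD] at hβ
      have hx2 : x = !β := by rw [← hβ]; simp
      subst hx2
      rcases halln h hh heh with h3 | h3
      · exact Or.inr h3
      · rw [h3] at hD
        exact absurd hD hoD'
    · rw [C.tc_out hh hD] at hβ
      subst hβ
      rcases hallo h hh heh with h3 | h3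
      · rw [h3] at hD
        exact absurd hn' hD
      · exact Or.inl h3

theorem Cur.dd' [Finite Γ] {i : I} {f : F} (hf : f ∈ C.S' i) (ψ : V × Bool → ZMod 2) :
    ∑ e ∈ C.bF' f, ∑ v ∈ C.bE' e, ψ v = 0 := by
  obtain ⟨p, hp⟩ := C.exists_old hf
  have h := K.dd hp (fun v => ψ (v, C.vt f v))
  rw [← h]
  unfold Cur.bF'
  rw [Finset.sum_map]
  refine Finset.sum_congr rfl fun e he => ?_
  unfold Cur.bE'
  rw [Finset.sum_map]
  refine Finset.sum_congr rfl fun v hv => ?_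
  change ψ (v, C.vc e (C.ec f e) v) = ψ (v, C.vt f v)
  rw [C.vc_eq hp he hv]

/-- two alive tiles of one new sheet at an edge off the curves lie in the same old sheet -/
theorem Cur.same_old [Finite Γ] {i p q : I} {f g : F} {v : V} (hf : f ∈ C.S' i)
    (hg : g ∈ C.S' i) (hp : f ∈ K.S p) (hq : g ∈ K.S q) (hfv : K.At f v) (hgv : K.At g v)
    (hv : ∀ γ, ¬ C.On γ v) : p = q := by
  by_cases hc : K.col p = K.col q
  · exact K.sep hp hq hfv hgv hc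
  · have hv' : ∀ γ, ∀ e ∈ C.c γ, v ∉ K.bE e := fun γ e he hve => hv γ ⟨e, he, hve⟩
    have h1 := C.ess hp hq hc hfv hgv hv'
    have h2 := C.ess hq hp (Ne.symm hc) hgv hfv hv'
    rw [← C.inl_of hf hp h1, ← C.inl_of hg hq h2]

theorem Cur.same_old_edge [Finite Γ] {i p q : I} {f g : F} {e : E} (hf : f ∈ C.S' i)
    (hg : g ∈ C.S' i) (hp : f ∈ K.S p) (hq : g ∈ K.S q) (hef : e ∈ K.bF f) (heg : e ∈ K.bF g)
    (he : ¬ C.Dbl e) : p = q := by
  obtain ⟨v, hv⟩ := K.exists_end e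
  by_cases hc : K.col p = K.col q
  · exact K.sep hp hq ⟨e, hef, hv⟩ ⟨e, heg, hv⟩ hc
  · refine C.same_old hf hg hp hq ⟨e, hef, hv⟩ ⟨e, heg, hv⟩ ?_
    rintro γ ⟨e', he', hve'⟩
    exact he ⟨γ, C.dbl hp hq hc hef heg hv he' hve'⟩

theorem Cur.man' [Finite Γ] {i : I} {e : E × Bool} {f : F} (hf : f ∈ C.S' i)
    (hef : e ∈ C.bF' f) :
    ∃ g ∈ C.S' i, g ≠ f ∧ e ∈ C.bF' g ∧ ∀ h ∈ C.S' i, e ∈ C.bF' h → h = f ∨ h = g := by
  obtain ⟨e, β⟩ := e
  obtain ⟨he, hβ⟩ := C.mem_bF'.1 hef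
  obtain ⟨p, hp⟩ := C.exists_old hf
  by_cases hd : C.Dbl e
  · obtain ⟨γ, hγ⟩ := hd
    obtain ⟨o, n, ho, hoD, hn, hne, heo, hen, hco, hcn, hRo, hRn, hS, hall⟩ := C.exists_pair hγ β
    rcases hall p f hp he hβ with h1 | h1
    · subst h1
      refine ⟨n, (hS i).1 hf, Ne.symm hne, C.mem_bF'.2 ⟨hen, hcn⟩, fun h hh heh => ?_⟩
      obtain ⟨heh1, heh2⟩ := C.mem_bF'.1 heh
      obtain ⟨q, hq⟩ := C.exists_old hh
      exact hall q h hq heh1 heh2
    · subst h1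
      refine ⟨o, (hS i).2 hf, hne, C.mem_bF'.2 ⟨heo, hco⟩, fun h hh heh => ?_⟩
      obtain ⟨heh1, heh2⟩ := C.mem_bF'.1 heh
      obtain ⟨q, hq⟩ := C.exists_old hh
      exact (hall q h hq heh1 heh2).symm
  · obtain ⟨g, hg, hgf, heg, hall⟩ := K.man hp he
    obtain ⟨ν, hν, hanc⟩ := hf
    have hgν : g ∈ C.Rg ν := C.rg_edge hp hg he heg hd hν
    refine ⟨g, ⟨ν, hgν, hanc⟩, hgf, C.mem_bF'.2 ⟨heg, ?_⟩, fun h hh heh => ?_⟩
    · rw [← hβ, C.ec_off hd, C.ec_off hd]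
    · obtain ⟨heh1, -⟩ := C.mem_bF'.1 heh
      obtain ⟨q, hq⟩ := C.exists_old hh
      have hpq : p = q := C.same_old_edge ⟨ν, hν, hanc⟩ hh hp hq he heh1 hd
      exact hall h (by rw [hpq]; exact hq) heh1

theorem Cur.at'_iff {i : I} {f : F} (hf : f ∈ K.S i) {v : V} {β : Bool} :
    (∃ e ∈ C.bF' f, (v, β) ∈ C.bE' e) ↔ K.At f v ∧ C.vt f v = β := by
  constructor
  · rintro ⟨⟨e, β'⟩, he, hv⟩
    obtain ⟨he1, he2⟩ := C.mem_bF'.1 he
    obtain ⟨hv1, hv2⟩ := C.mem_bE'.1 hv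
    refine ⟨⟨e, he1, hv1⟩, ?_⟩
    rw [← hv2, ← he2, C.vc_eq hf he1 hv1]
  · rintro ⟨⟨e, he, hv⟩, hβ⟩
    refine ⟨(e, C.ec f e), C.mem_bF'.2 ⟨he, rfl⟩, C.mem_bE'.2 ⟨hv, ?_⟩⟩
    rw [C.vc_eq hf he hv, hβ]

/-- the two possibilities for a tile at a vertex copy on `γ` -/
theorem Cur.copy_cases {p : I} {f : F} {γ : Γ} {v : V} {β : Bool} (hp : f ∈ K.S p)
    (hfv : K.At f v) (hv : C.On γ v) (hβ : C.vt f v = β) :
    (f ∈ K.S (C.s β γ) ∧ f ∉ C.D β γ) ∨ f ∈ C.D (!β) γ := by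
  have hq := C.sheet_on hp hfv hv
  rw [C.vt_on hv] at hβ
  set x := K.col p with hx
  clear_value x
  subst hq
  by_cases hD : f ∈ C.D x γ
  · right
    rw [C.tc_in hD] at hβ
    rw [← hβ]
    simpa using hD
  · left
    rw [C.tc_out hp hD] at hβ
    subst hβ
    exact ⟨hp, hD⟩

theorem Cur.sep_strong [Finite Γ] {i j : I} {f g : F} {γ : Γ} {v : V} (hf : f ∈ C.S' i)
    (hg : g ∈ C.S' j) (hfv : K.At f v) (hgv : K.At g v) (h : C.vt f v = C.vt g v)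
    (hv : C.On γ v) : i = j := by
  obtain ⟨p, hp⟩ := C.exists_old hf
  obtain ⟨q, hq⟩ := C.exists_old hg
  set β := C.vt g v with hβ
  have key : ∀ {k : I} {t : F}, t ∈ C.S' k → K.At t v →
      ((t ∈ K.S (C.s β γ) ∧ t ∉ C.D β γ) ∨ t ∈ C.D (!β) γ) → C.Anc (C.up β γ) (Sum.inl k) := by
    rintro k t ht htv (⟨h1, h2⟩ | h1)
    · exact (C.mem_S'_iff (C.rg_out h1 h2 htv hv)).1 ht
    · have h2 := (C.mem_S'_iff (C.rg_in h1 htv hv)).1 ht
      rw [C.anc_up_iff] at h2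
      simpa using h2
  exact C.anc_root_unique (key hf hfv (C.copy_cases hp hfv hv h))
    (key hg hgv (C.copy_cases hq hgv hv hβ.symm))

theorem Cur.sep' [Finite Γ] {i j : I} {f g : F} {v : V × Bool} (hf : f ∈ C.S' i)
    (hg : g ∈ C.S' j) (hfv : ∃ e ∈ C.bF' f, v ∈ C.bE' e) (hgv : ∃ e ∈ C.bF' g, v ∈ C.bE' e)
    (hc : K.col i = K.col j) : i = j := by
  obtain ⟨v, β⟩ := v
  obtain ⟨p, hp⟩ := C.exists_old hf
  obtain ⟨q, hq⟩ := C.exists_old hg
  obtain ⟨hf1, hf2⟩ := (C.at'_iff hp).1 hfv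
  obtain ⟨hg1, hg2⟩ := (C.at'_iff hq).1 hgv
  by_cases h : ∃ γ, C.On γ v
  · obtain ⟨γ, hγ⟩ := h
    exact C.sep_strong hf hg hf1 hg1 (by rw [hf2, hg2]) hγ
  · push Not at h
    by_cases hpq : K.col p = K.col q
    · have hpq' : p = q := K.sep hp hq hf1 hg1 hpq
      subst hpq'
      obtain ⟨ν, hν, hanc⟩ := hf
      have hgν := C.rg_vert hp hq hf1 hg1 h hν
      exact C.anc_root_unique hanc ((C.mem_S'_iff hgν).1 hg)
    · have hv' : ∀ γ, ∀ e ∈ C.c γ, v ∉ K.bE e := fun γ e he hve => h γ ⟨e, he, hve⟩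
      have h1 := C.inl_of hf hp (C.ess hp hq hpq hf1 hg1 hv')
      have h2 := C.inl_of hg hq (C.ess hq hp (Ne.symm hpq) hg1 hf1 hv')
      rw [h1, h2] at hc
      exact absurd hc hpq

/-- parity of the boundary of a set of tiles at a vertex -/
theorem Sys.par2 [Finite F] (K : Sys V E F I) {p : I} {Y : Set F} (hY : Y ⊆ K.S p) {v : V}
    {e₁ e₂ : E} (hne : e₁ ≠ e₂) (hv₁ : v ∈ K.bE e₁) (hv₂ : v ∈ K.bE e₂)
    (hcl : ∀ e, v ∈ K.bE e → e ≠ e₁ → e ≠ e₂ → ∀ f ∈ Y, e ∈ K.bF f → ∀ g ∈ K.S p, e ∈ K.bF g →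
      g ∈ Y)
    (h₁ : ∃ f ∈ Y, e₁ ∈ K.bF f ∧ ∃ g ∈ K.S p, e₁ ∈ K.bF g ∧ g ∉ Y) :
    ∃ f ∈ Y, e₂ ∈ K.bF f ∧ ∃ g ∈ K.S p, e₂ ∈ K.bF g ∧ g ∉ Y := by
  have := Fintype.ofFinite F
  by_contra hcon
  set Yf : Finset F := Finset.univ.filter (fun f => f ∈ Y) with hYf
  set U : Finset E := Finset.univ.biUnion K.bF with hU
  have hmU : ∀ f, ∀ e ∈ K.bF f, e ∈ U := fun f e he =>
    Finset.mem_biUnion.2 ⟨f, Finset.mem_univ f, he⟩
  set n : E → ZMod 2 := fun e => ∑ f ∈ Yf, if e ∈ K.bF f ∧ v ∈ K.bE e then 1 else 0 with hn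
  -- total sum
  have htot : ∑ e ∈ U, n e = 0 := by
    rw [hn, Finset.sum_comm]
    refine Finset.sum_eq_zero fun f hf => ?_
    have hfY : f ∈ Y := by simpa [hYf] using hf
    have h := K.dd (hY hfY) (fun u => if u = v then 1 else 0)
    refine Eq.trans ?_ h
    have h2 : ∀ e, ∑ u ∈ K.bE e, (if u = v then (1 : ZMod 2) else 0) =
        if v ∈ K.bE e then 1 else 0 := by
      intro e
      rw [Finset.sum_ite_eq']
    simp_rw [h2]
    have h5 : ∑ e ∈ U, (if e ∈ K.bF f ∧ v ∈ K.bE e then (1 : ZMod 2) else 0) =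
        ∑ e ∈ K.bF f, (if e ∈ K.bF f ∧ v ∈ K.bE e then (1 : ZMod 2) else 0) := by
      symm
      refine Finset.sum_subset (fun e he => hmU f e he) (fun e _ he => ?_)
      rw [if_neg (fun h => he h.1)]
    rw [h5]
    refine Finset.sum_congr rfl fun e he => ?_
    by_cases h6 : v ∈ K.bE e
    · rw [if_pos ⟨he, h6⟩, if_pos h6]
    · rw [if_neg (fun h => h6 h.2), if_neg h6]
  -- closed edges contribute zero
  have hzero : ∀ e, v ∈ K.bE e → (∀ f ∈ Y, e ∈ K.bF f → ∀ g ∈ K.S p, e ∈ K.bF g → g ∈ Y) →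
      n e = 0 := by
    intro e hve hc
    by_cases hex : ∃ f ∈ Y, e ∈ K.bF f
    · obtain ⟨f, hf, hef⟩ := hex
      obtain ⟨g, hg, hgf, heg, hall⟩ := K.man (hY hf) hef
      have hgY : g ∈ Y := hc f hf hef g hg heg
      have h3 : Yf.filter (fun f => e ∈ K.bF f ∧ v ∈ K.bE e) = {f, g} := by
        ext h
        simp only [Finset.mem_filter, Finset.mem_insert, Finset.mem_singleton, hYf,
          Finset.mem_univ, true_and]
        constructor
        · rintro ⟨h4, h5, -⟩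
          exact hall h (hY h4) h5
        · rintro (rfl | rfl)
          · exact ⟨hf, hef, hve⟩
          · exact ⟨hgY, heg, hve⟩
      simp only [hn]
      rw [← Finset.sum_filter, h3, Finset.sum_pair (Ne.symm hgf)]
      decide
    · simp only [hn]
      refine Finset.sum_eq_zero fun f hf => ?_
      have hfY : f ∈ Y := by simpa [hYf] using hf
      rw [if_neg]
      rintro ⟨h3, -⟩
      exact hex ⟨f, hfY, h3⟩
  have hn2 : n e₂ = 0 := by
    refine hzero e₂ hv₂ fun f hf hef g hg heg => ?_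
    by_contra hgY
    exact hcon ⟨f, hf, hef, g, hg, heg, hgY⟩
  have hn1 : n e₁ = 1 := by
    obtain ⟨f, hf, hef, g, hg, heg, hgY⟩ := h₁
    have hgf : g ≠ f := fun h => hgY (h ▸ hf)
    obtain ⟨g', hg', hgf', heg', hall⟩ := K.man (hY hf) hef
    have hgg : g = g' := by
      rcases hall g hg heg with h | h
      · exact absurd h hgf
      · exact h
    subst hgg
    have h3 : Yf.filter (fun f => e₁ ∈ K.bF f ∧ v ∈ K.bE e₁) = {f} := by
      ext h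
      simp only [Finset.mem_filter, Finset.mem_singleton, hYf, Finset.mem_univ, true_and]
      constructor
      · rintro ⟨h4, h5, -⟩
        rcases hall h (hY h4) h5 with h6 | h6
        · exact h6
        · rw [h6] at h4; exact absurd h4 hgY
      · rintro rfl
        exact ⟨hf, hef, hv₁⟩
    simp only [hn]
    rw [← Finset.sum_filter, h3, Finset.sum_singleton]
  have hn0 : ∀ e ∈ U, e ≠ e₁ → n e = 0 := by
    intro e _ he1
    by_cases he2 : e = e₂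
    · rw [he2]; exact hn2
    by_cases hve : v ∈ K.bE e
    · exact hzero e hve (hcl e hve he1 he2)
    · simp only [hn]
      exact Finset.sum_eq_zero fun f _ => if_neg (fun h => hve h.2)
  have he1U : e₁ ∈ U := by
    obtain ⟨f, -, hef, -⟩ := h₁
    exact hmU f e₁ hef
  rw [Finset.sum_eq_single_of_mem e₁ he1U hn0, hn1] at htot
  exact one_ne_zero htot

/-- fan lemma -/
theorem Cur.fan [Finite F] {p : I} {γ : Γ} {v : V} (hv : C.On γ v) {T : Set F}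
    (hTS : T ⊆ K.S p)
    (hT : ∀ e, v ∈ K.bE e → ∀ f ∈ K.S p, e ∈ K.bF f → ∀ g ∈ K.S p, e ∈ K.bF g → f ≠ g →
      (e ∈ C.c γ ↔ ¬ (f ∈ T ↔ g ∈ T)))
    (hsheet : ∀ e ∈ C.c γ, ∃ f ∈ K.S p, e ∈ K.bF f)
    {Y : Set F} (hYT : Y ⊆ T)
    (hcl : ∀ e, v ∈ K.bE e → e ∉ C.c γ → ∀ f ∈ Y, e ∈ K.bF f → ∀ g ∈ K.S p, e ∈ K.bF g → g ∈ Y)
    {f : F} (hf : f ∈ Y) (hfv : K.At f v) {g : F} (hg : g ∈ T) (hgv : K.At g v) : g ∈ Y := by
  obtain ⟨e₁, he₁, e₂, he₂, hne, hv₁, hv₂, hall⟩ := C.deg γ v hv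
  -- the tile of T at an edge of γ
  have htile : ∀ e ∈ C.c γ, v ∈ K.bE e → ∃ t ∈ T, ∃ u ∈ K.S p, u ∉ T ∧ e ∈ K.bF t ∧ e ∈ K.bF u ∧
      ∀ h ∈ K.S p, e ∈ K.bF h → h = t ∨ h = u := by
    intro e he hve
    obtain ⟨a, ha, hea⟩ := hsheet e he
    obtain ⟨b, hb, hba, heb, hab⟩ := K.man ha hea
    have h1 := (hT e hve a ha hea b hb heb (Ne.symm hba)).1 he
    by_cases haT : a ∈ T
    · have hbT : b ∉ T := fun h => h1 ⟨fun _ => h, fun _ => haT⟩
      exact ⟨a, haT, b, hb, hbT, hea, heb, hab⟩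
    · have hbT : b ∈ T := by
        by_contra h
        exact h1 ⟨fun h' => absurd h' haT, fun h' => absurd h' h⟩
      exact ⟨b, hbT, a, ha, haT, heb, hea, fun h hh he => (hab h hh he).symm⟩
  have hstep : ∀ e e', e ∈ C.c γ → e' ∈ C.c γ → v ∈ K.bE e → v ∈ K.bE e' → e ≠ e' →
      (∀ h ∈ C.c γ, v ∈ K.bE h → h = e ∨ h = e') →
      (∃ t ∈ Y, e ∈ K.bF t) → ∃ t ∈ Y, e' ∈ K.bF t := by
    rintro e e' he he' hve hve' hnee hall' ⟨t, ht, het⟩
    obtain ⟨t₁, ht₁, u₁, hu₁, hu₁T, het₁, heu₁, -⟩ := htile e he hve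
    obtain ⟨t', ht', het', -⟩ := K.par2 (hYT.trans hTS) hnee hve hve' (fun e'' hve'' h1 h2 =>
      hcl e'' hve'' (fun h3 => by
        rcases hall' e'' h3 hve'' with h4 | h4
        · exact h1 h4
        · exact h2 h4)) ⟨t, ht, het, u₁, hu₁, heu₁, fun h => hu₁T (hYT h)⟩
    exact ⟨t', ht', het'⟩
  by_cases hcase : ∃ t ∈ Y, e₁ ∈ K.bF t
  · have hcase2 := hstep e₁ e₂ he₁ he₂ hv₁ hv₂ hne hall hcase
    have hY : ∀ e ∈ C.c γ, v ∈ K.bE e → ∃ t ∈ Y, e ∈ K.bF t := by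
      intro e he hve
      rcases hall e he hve with h | h
      · rw [h]; exact hcase
      · rw [h]; exact hcase2
    -- tiles of T at such an edge are in Y
    have hTY : ∀ e ∈ C.c γ, v ∈ K.bE e → ∀ h ∈ T, e ∈ K.bF h → h ∈ Y := by
      intro e he hve h hh heh
      obtain ⟨t, ht, het⟩ := hY e he hve
      obtain ⟨t₁, ht₁, u₁, hu₁, hu₁T, het₁, heu₁, hall₁⟩ := htile e he hve
      have h1 : t = t₁ := by
        rcases hall₁ t (hTS (hYT ht)) het with h1 | h1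
        · exact h1
        · exact absurd (h1 ▸ hYT ht) hu₁T
      have h2 : h = t₁ := by
        rcases hall₁ h (hTS hh) heh with h2 | h2
        · exact h2
        · exact absurd (h2 ▸ hh) hu₁T
      rw [h2, ← h1]; exact ht
    have hlink := K.link p v (Y ∪ (K.S p \ T)) ?_ ?_ f (Or.inl hf) hfv g (hTS hg) hgv
    · rcases hlink with h | h
      · exact h
      · exact absurd hg h.2
    · rintro h (hh | hh)
      · exact hTS (hYT hh)
      · exact hh.1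
    · intro e hve a ha hea b hb heb
      by_cases he : e ∈ C.c γ
      · by_cases hbT : b ∈ T
        · exact Or.inl (hTY e he hve b hbT heb)
        · exact Or.inr ⟨hb, hbT⟩
      · rcases ha with ha | ha
        · exact Or.inl (hcl e hve he a ha hea b hb heb)
        · refine Or.inr ⟨hb, fun hbT => ?_⟩
          by_cases hab : a = b
          · exact ha.2 (hab ▸ hbT)
          · exact he ((hT e hve a ha.1 hea b hb heb hab).2 (fun h => ha.2 (h.2 hbT)))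
  · have hcase2 : ¬ ∃ t ∈ Y, e₂ ∈ K.bF t := fun h =>
      hcase (hstep e₂ e₁ he₂ he₁ hv₂ hv₁ (Ne.symm hne) (fun h hh hv => (hall h hh hv).symm) h)
    exfalso
    obtain ⟨t₁, ht₁, u₁, hu₁, hu₁T, het₁, heu₁, -⟩ := htile e₁ he₁ hv₁
    have hlink := K.link p v Y (hYT.trans hTS) ?_ f hf hfv u₁ hu₁ ⟨e₁, heu₁, hv₁⟩
    · exact hu₁T (hYT hlink)
    · intro e hve a ha hea b hb heb
      by_cases he : e ∈ C.c γ
      · exfalso
        rcases hall e he hve with h | h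
        · exact hcase ⟨a, ha, h ▸ hea⟩
        · exact hcase2 ⟨a, ha, h ▸ hea⟩
      · exact hcl e hve he a ha hea b hb heb

/-- the side conditions of `fan` for the two sides of a curve -/
theorem Cur.fan_in [Finite F] {x : Bool} {γ : Γ} {v : V} (hv : C.On γ v) {Y : Set F}
    (hYT : Y ⊆ C.D x γ)
    (hcl : ∀ e, v ∈ K.bE e → e ∉ C.c γ → ∀ f ∈ Y, e ∈ K.bF f → ∀ g ∈ K.S (C.s x γ),
      e ∈ K.bF g → g ∈ Y)
    {f : F} (hf : f ∈ Y) (hfv : K.At f v) {g : F} (hg : g ∈ C.D x γ) (hgv : K.At g v) :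
    g ∈ Y :=
  C.fan (p := C.s x γ) hv (C.Dsub x γ)
    (fun _ _ _ hf hef _ hg heg hne => C.Dbd hf hg hne hef heg) (C.Don x γ) hYT hcl hf hfv hg hgv

theorem Cur.fan_out [Finite F] {x : Bool} {γ : Γ} {v : V} (hv : C.On γ v) {Y : Set F}
    (hYT : Y ⊆ K.S (C.s x γ) \ C.D x γ)
    (hcl : ∀ e, v ∈ K.bE e → e ∉ C.c γ → ∀ f ∈ Y, e ∈ K.bF f → ∀ g ∈ K.S (C.s x γ),
      e ∈ K.bF g → g ∈ Y)
    {f : F} (hf : f ∈ Y) (hfv : K.At f v) {g : F} (hg : g ∈ K.S (C.s x γ) \ C.D x γ)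
    (hgv : K.At g v) : g ∈ Y := by
  refine C.fan (p := C.s x γ) hv (T := K.S (C.s x γ) \ C.D x γ) (fun _ h => h.1)
    (fun e _ f hf hef g hg heg hne => ?_) (C.Don x γ) hYT hcl hf hfv hg hgv
  rw [C.Dbd hf hg hne hef heg]
  constructor
  · intro h h'
    refine h ⟨fun h1 => ?_, fun h1 => ?_⟩
    · by_contra h2
      exact (h'.2 ⟨hg, h2⟩).2 h1
    · by_contra h2
      exact (h'.1 ⟨hf, h2⟩).2 h1
  · intro h h'
    exact h ⟨fun h1 => ⟨hg, fun h2 => h1.2 (h'.2 h2)⟩, fun h1 => ⟨hf, fun h2 => h1.2 (h'.1 h2)⟩⟩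

end

end Crest.Agent.R096.Ex_422
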