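import Crest.Agent.R096.Ex1_914

/-!
# R096 (row 96), P2-GEN (EXIST), part 2 (helper914): the slab system
-/

set_option autoImplicit false

open Set Metric Topology

namespace Crest.Agent.R096.Ex_914

open Msh_715 Gp_702

open Classical in
/-- scaled lines -/
noncomputable def sclL (N : ℕ) (L : Finset Ln) : Finset Ln := L.image fun u => ((N : ℝ) • u.1, u.2)

theorem mem_sclL {N : ℕ} {L : Finset Ln} {v : Ln} :
    v ∈ sclL N L ↔ ∃ u ∈ L, ((N : ℝ) • u.1, u.2) = v := by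
  classical
  simp [sclL]

theorem mem_scl {N : ℕ} {F : Finset Af} {g : Af} :
    g ∈ scl N F ↔ ∃ f ∈ F, (f.1, (N : ℝ) * f.2) = g := by
  classical
  simp [scl]

theorem pt_scl {N : ℕ} (hN : 0 < N) (u : Ln) (t : ℝ) :
    pt ((N : ℝ) • u.1, u.2) t = (N : ℝ) • pt u (t / N) := by
  have : (N : ℝ) ≠ 0 := by exact_mod_cast hN.ne'
  simp only [pt, smul_add, smul_smul]
  rw [mul_div_cancel₀ _ this]

theorem ev_pt_scl {N : ℕ} (hN : 0 < N) (f : Af) (u : Ln) (t : ℝ) :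
    ev (f.1, (N : ℝ) * f.2) (pt ((N : ℝ) • u.1, u.2) t) = N * ev f (pt u (t / N)) := by
  rw [pt_scl hN, ev_scl]

/-- parameters -/
structure Prm (F : Finset Af) (L : Finset Ln) (Z : Finset ℝ) (K R C ρ : ℝ) (G a a' : ℕ) :
    Prop where
  C1 : 1 ≤ C
  hf : ∀ f ∈ F, ‖f.1‖ ≤ C
  hu : ∀ u ∈ L, ‖u.2‖ ≤ C
  w1 : ∀ z ∈ Z, ∀ u ∈ L, ∀ v ∈ L, pt u z ≠ pt v z → 8 * (a : ℝ) < G * ‖pt u z - pt v z‖
  w2 : ∀ z ∈ Z, ∀ f ∈ F, ∀ u ∈ L, ev f (pt u z) ≠ 0 → 8 * C * (a : ℝ) < G * |ev f (pt u z)|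
  w3 : ∀ z ∈ Z, ∀ z' ∈ Z, z < z' → 8 * (a : ℝ) < G * (z' - z)
  ρ0 : 0 < ρ
  ρa : 16 * C * (ρ * G) ≤ a
  t1 : ∀ t, |t| ≤ R → (∀ z ∈ Z, ρ ≤ |t - z|) → ∀ u ∈ L, ∀ v ∈ L, pt u t ≠ pt v t →
    8 * (a' : ℝ) < G * ‖pt u t - pt v t‖
  t2 : ∀ t, |t| ≤ R → (∀ z ∈ Z, ρ ≤ |t - z|) → ∀ f ∈ F, ∀ u ∈ L, ¬ Al f u →
    8 * C * (a' : ℝ) < G * |ev f (pt u t)|
  a8 : 8 * C ≤ a'
  aa : a' ≤ a
  hR : |K| + 1 ≤ R
  G4 : 4 ≤ G

section

variable {F : Finset Af} {L : Finset Ln} {Z : Finset ℝ} {K R C ρ : ℝ} {G a a' : ℕ}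

theorem norm_sub_le {x y : E3} {r r' : ℝ} (h : ∀ j, j ≠ 2 → |y j - x j| ≤ r) (h2 : |y 2 - x 2| ≤ r')
    (hr : 0 ≤ r) (_hr' : 0 ≤ r') : ‖y - x‖ ≤ max r r' := by
  rw [pi_norm_le_iff_of_nonneg (le_max_of_le_left hr)]
  intro j
  by_cases hj : j = 2
  · subst hj; exact h2.trans (le_max_right _ _)
  · exact (h j hj).trans (le_max_left _ _)

/-- a function does not vanish near a point where it is large -/
theorem ev_ne {f : Af} (hf : ‖f.1‖ ≤ C) {x y : E3} {r : ℝ} (hr : ‖y - x‖ ≤ r) (hC : 0 ≤ C)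
    (h : C * r < |ev f x|) : ev f y ≠ 0 := by
  intro h0
  have h1 : f.1 (y - x) = ev f y - ev f x := by simp only [ev, map_sub]; ring
  have h2 : |f.1 (y - x)| ≤ C * r :=
    (f.1.le_opNorm _).trans (mul_le_mul hf hr (norm_nonneg _) hC)
  rw [h1, h0, zero_sub, abs_neg] at h2
  linarith

/-- vertex slabs -/
noncomputable def vlo (ρ : ℝ) (G : ℕ) (z : ℝ) : ℤ := ⌊(z - ρ) * G⌋
noncomputable def vhi (ρ : ℝ) (G : ℕ) (z : ℝ) : ℤ := ⌈(z + ρ) * G⌉

theorem vlo_le (z : ℝ) : (vlo ρ G z : ℝ) ≤ (z - ρ) * G := Int.floor_le _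
theorem vlo_gt (z : ℝ) : (z - ρ) * G - 1 < vlo ρ G z := by
  have := Int.lt_floor_add_one ((z - ρ) * (G : ℝ)); unfold vlo; linarith
theorem vhi_ge (z : ℝ) : (z + ρ) * G ≤ vhi ρ G z := Int.le_ceil _
theorem vhi_lt (z : ℝ) : (vhi ρ G z : ℝ) < (z + ρ) * G + 1 := Int.ceil_lt_add_one _

/-- tower indices -/
def Tow (Z : Finset ℝ) (ρ : ℝ) (G : ℕ) (B k : ℤ) : Prop :=
  (-B ≤ k ∧ k ≤ B) ∧ ∀ z ∈ Z, vhi ρ G z ≤ k ∨ k + 1 ≤ vlo ρ G z

theorem tow_height (H : Prm F L Z K R C ρ G a a') {B k : ℤ} (hB : (B : ℝ) + 1 ≤ R * G)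
    (hk : Tow Z ρ G B k) {t : ℝ} (h1 : (k : ℝ) ≤ t) (h2 : t ≤ k + 1) :
    |t / G| ≤ R ∧ ∀ z ∈ Z, ρ ≤ |t / G - z| := by
  have hG : (0 : ℝ) < G := by
    have : (4 : ℝ) ≤ G := by exact_mod_cast H.G4
    linarith
  constructor
  · have a1 : (-B : ℝ) ≤ k := by exact_mod_cast hk.1.1
    have a2 : (k : ℝ) ≤ B := by exact_mod_cast hk.1.2
    rw [abs_div, abs_of_pos hG, div_le_iff₀ hG, abs_le]
    constructor <;> linarith
  · intro z hz
    rcases hk.2 z hz with h | h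
    · have h3 : (vhi ρ G z : ℝ) ≤ k := by exact_mod_cast h
      have h4 := vhi_ge (ρ := ρ) (G := G) z
      have h5 : z + ρ ≤ t / G := by rw [le_div_iff₀ hG]; linarith
      exact le_trans (by linarith) (le_abs_self _)
    · have h3 : (k : ℝ) + 1 ≤ vlo ρ G z := by exact_mod_cast h
      have h4 := vlo_le (ρ := ρ) (G := G) z
      have h5 : t / G ≤ z - ρ := by rw [div_le_iff₀ hG]; linarith
      rw [abs_sub_comm]
      exact le_trans (by linarith) (le_abs_self _)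

theorem Prm.pos (H : Prm F L Z K R C ρ G a a') : (0 : ℝ) < G := by
  have : (4 : ℝ) ≤ G := by exact_mod_cast H.G4
  linarith

theorem Prm.a'8 (H : Prm F L Z K R C ρ G a a') : (8 : ℝ) ≤ a' := by
  linarith [H.a8, H.C1]

theorem Prm.aa' (H : Prm F L Z K R C ρ G a a') : (a' : ℝ) ≤ a := by exact_mod_cast H.aa

theorem Prm.ρG (H : Prm F L Z K R C ρ G a a') : ρ * G ≤ a / 16 := by
  have h1 := H.ρa
  have h2 : 0 < ρ * G := mul_pos H.ρ0 H.pos
  nlinarith [H.C1]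

theorem Prm.CρG (H : Prm F L Z K R C ρ G a a') : C * (ρ * G) ≤ a / 16 := by
  linarith [H.ρa]

theorem vv (H : Prm F L Z K R C ρ G a a') {z z' : ℝ} (hz : z ∈ Z) (hz' : z' ∈ Z) (h : z < z') :
    vhi ρ G z < vlo ρ G z' := by
  have h1 := H.w3 z hz z' hz' h
  have h2 := vhi_lt (ρ := ρ) (G := G) z
  have h3 := vlo_gt (ρ := ρ) (G := G) z'
  have h4 := H.ρG
  have h5 := H.a'8
  have h6 := H.aa'
  have : (vhi ρ G z : ℝ) < vlo ρ G z' := by nlinarith
  exact_mod_cast this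

/-- displacement along a scaled line -/
theorem disp (H : Prm F L Z K R C ρ G a a') {u : Ln} (hu : u ∈ sclL G L) (t t' : ℝ) (j : Fin 3) :
    |pt u t j - pt u t' j| ≤ C * |t - t'| := by
  obtain ⟨v, hv, rfl⟩ := mem_sclL.1 hu
  have h1 : pt ((G : ℝ) • v.1, v.2) t j - pt ((G : ℝ) • v.1, v.2) t' j = (t - t') * v.2 j := by
    simp only [pt, Pi.add_apply, Pi.smul_apply, smul_eq_mul]; ring
  rw [h1, abs_mul, mul_comm]
  exact mul_le_mul_of_nonneg_right ((norm_le_pi_norm v.2 j).trans (H.hu v hv)) (abs_nonneg _)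

/-- index type -/
def Sg (Z : Finset ℝ) (ρ : ℝ) (G : ℕ) (B : ℤ) : Type :=
  {z : ℝ // z ∈ Z} ⊕ {k : ℤ // Tow Z ρ G B k}

noncomputable instance (B : ℤ) : Fintype (Sg Z ρ G B) := by
  classical
  haveI : Finite {k : ℤ // Tow Z ρ G B k} := by
    have h1 : {k : ℤ | Tow Z ρ G B k}.Finite := (Set.finite_Icc (-B) B).subset fun k hk => hk.1
    exact h1.to_subtype
  haveI : Finite (Sg Z ρ G B) := inferInstanceAs (Finite ({z : ℝ // z ∈ Z} ⊕ {k : ℤ // Tow Z ρ G B k}))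
  exact Fintype.ofFinite _

noncomputable def slo (Z : Finset ℝ) (ρ : ℝ) (G : ℕ) (B : ℤ) : Sg Z ρ G B → ℤ :=
  Sum.elim (fun z => vlo ρ G z.1) (fun k => k.1)
noncomputable def shi (Z : Finset ℝ) (ρ : ℝ) (G : ℕ) (B : ℤ) : Sg Z ρ G B → ℤ :=
  Sum.elim (fun z => vhi ρ G z.1) (fun k => k.1 + 1)
noncomputable def saw (Z : Finset ℝ) (ρ : ℝ) (G a a' : ℕ) (B : ℤ) : Sg Z ρ G B → ℤ :=
  Sum.elim (fun _ => (a : ℤ)) (fun _ => (a' : ℤ))
noncomputable def sta (Z : Finset ℝ) (ρ : ℝ) (G : ℕ) (B : ℤ) : Sg Z ρ G B → ℝ :=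
  Sum.elim (fun z => G * z.1) (fun k => k.1 + 1 / 2)
def stw (Z : Finset ℝ) (ρ : ℝ) (G : ℕ) (B : ℤ) : Sg Z ρ G B → Prop :=
  Sum.elim (fun _ => False) (fun _ => True)

theorem exists_slab {B k : ℤ} (hk : -B ≤ k ∧ k ≤ B) :
    ∃ s : Sg Z ρ G B, slo Z ρ G B s ≤ k ∧ k + 1 ≤ shi Z ρ G B s := by
  by_cases h : ∀ z ∈ Z, vhi ρ G z ≤ k ∨ k + 1 ≤ vlo ρ G z
  · exact ⟨Sum.inr ⟨k, hk, h⟩, le_refl _, le_refl _⟩
  · push Not at h
    obtain ⟨z, hz, h1, h2⟩ := h
    exact ⟨Sum.inl ⟨z, hz⟩, by show vlo ρ G z ≤ k; omega, by show k + 1 ≤ vhi ρ G z; omega⟩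

theorem slb_of_prm (H : Prm F L Z K R C ρ G a a') (a2 : ∀ u ∈ L, u.1 2 = 0)
    (b2 : ∀ u ∈ L, u.2 2 = 1) {B : ℤ} (hB : (B : ℝ) + 1 ≤ R * G) (hB' : G * K + 2 ≤ B) :
    Slb (scl G F) (sclL G L) (G * K + 1) (slo Z ρ G B) (shi Z ρ G B) (saw Z ρ G a a' B)
      (sta Z ρ G B) (stw Z ρ G B) := by
  have hG := H.pos
  have hGn : 0 < G := by exact_mod_cast hG
  have hC0 : 0 ≤ C := by linarith [H.C1]
  have h8 := H.a'8
  have haa := H.aa'
  have hρG := H.ρG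
  have hCρG := H.CρG
  have hρG0 : 0 < ρ * G := mul_pos H.ρ0 hG
  have ha8 : (8 : ℝ) ≤ a := h8.trans haa
  have hCa' : C ≤ a' / 8 := by linarith [H.a8]
  have hCa : C ≤ a / 8 := by linarith
  have hL2 : ∀ u ∈ sclL G L, ∀ t, pt u t 2 = t := by
    intro u hu t
    obtain ⟨v, hv, rfl⟩ := mem_sclL.1 hu
    simp [pt, a2 v hv, b2 v hv]
  have hlh : ∀ s, (slo Z ρ G B s : ℝ) < sta Z ρ G B s ∧ sta Z ρ G B s < shi Z ρ G B s := by
    rintro (z | k)
    · have h1 := vlo_le (ρ := ρ) (G := G) z.1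
      have h2 := vhi_ge (ρ := ρ) (G := G) z.1
      refine ⟨?_, ?_⟩
      · show (vlo ρ G z.1 : ℝ) < G * z.1
        nlinarith
      · show G * z.1 < (vhi ρ G z.1 : ℝ)
        nlinarith
    · refine ⟨?_, ?_⟩
      · show (k.1 : ℝ) < k.1 + 1 / 2
        linarith
      · show (k.1 : ℝ) + 1 / 2 < ((k.1 + 1 : ℤ) : ℝ)
        push_cast; linarith
  have hsep : ∀ s s', s ≠ s' → shi Z ρ G B s ≤ slo Z ρ G B s' ∨ shi Z ρ G B s' ≤ slo Z ρ G B s := by
    rintro (z | k) (z' | k') hne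
    · have hzz : z.1 ≠ z'.1 := fun h => hne (congrArg Sum.inl (Subtype.ext h))
      rcases lt_or_gt_of_ne hzz with h | h
      · exact Or.inl (vv H z.2 z'.2 h).le
      · exact Or.inr (vv H z'.2 z.2 h).le
    · rcases k'.2.2 z.1 z.2 with h | h
      · exact Or.inl h
      · exact Or.inr h
    · rcases k.2.2 z'.1 z'.2 with h | h
      · exact Or.inr h
      · exact Or.inl h
    · have hkk : k.1 ≠ k'.1 := fun h => hne (congrArg Sum.inr (Subtype.ext h))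
      rcases lt_or_gt_of_ne hkk with h | h
      · exact Or.inl h
      · exact Or.inr h
  refine
    { a2 := ?_, b2 := ?_, aw4 := ?_, lt1 := fun s => (hlh s).1, lt2 := fun s => (hlh s).2,
      sep := hsep, s2 := ?_, s3 := ?_, s4 := ?_, adj := ?_, twm := ?_, twf := ?_, cov := ?_ }
  · intro u hu
    obtain ⟨v, hv, rfl⟩ := mem_sclL.1 hu
    simp [a2 v hv]
  · intro u hu
    obtain ⟨v, hv, rfl⟩ := mem_sclL.1 hu
    exact b2 v hv
  · rintro (z | k)
    · show (4 : ℤ) ≤ a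
      have : (4 : ℝ) ≤ a := by linarith
      exact_mod_cast this
    · show (4 : ℤ) ≤ a'
      have : (4 : ℝ) ≤ a' := by linarith
      exact_mod_cast this
  · rintro (z | k) u hu v hv hne
    · obtain ⟨u', hu', rfl⟩ := mem_sclL.1 hu
      obtain ⟨v', hv', rfl⟩ := mem_sclL.1 hv
      have e : sta Z ρ G B (Sum.inl z) / G = z.1 := by
        show G * z.1 / G = z.1
        field_simp
      rw [pt_scl hGn, pt_scl hGn, e] at hne ⊢
      have h1 := H.w1 z.1 z.2 u' hu' v' hv' (fun h => hne (by rw [h]))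
      rw [← smul_sub, norm_smul, Real.norm_of_nonneg hG.le]
      show 4 * ((a : ℤ) : ℝ) < _
      push_cast
      linarith
    · obtain ⟨u', hu', rfl⟩ := mem_sclL.1 hu
      obtain ⟨v', hv', rfl⟩ := mem_sclL.1 hv
      obtain ⟨e1, e2⟩ := tow_height H hB k.2 (t := sta Z ρ G B (Sum.inr k))
        (hlh (Sum.inr k)).1.le (by have := (hlh (Sum.inr k)).2.le; simpa [shi] using this)
      rw [pt_scl hGn, pt_scl hGn] at hne ⊢
      have h1 := H.t1 _ e1 e2 u' hu' v' hv' (fun h => hne (by rw [h]))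
      rw [← smul_sub, norm_smul, Real.norm_of_nonneg hG.le]
      show 4 * ((a' : ℤ) : ℝ) < _
      push_cast
      linarith
  · rintro (z | k) u hu t h1 h2 j hj
    · have h3 := disp H hu t (sta Z ρ G B (Sum.inl z)) j
      have h4 : |t - sta Z ρ G B (Sum.inl z)| ≤ ρ * G + 1 := by
        have e1 : (vlo ρ G z.1 : ℝ) ≤ t := h1
        have e2 : t ≤ (vhi ρ G z.1 : ℝ) := h2
        have e3 := vlo_gt (ρ := ρ) (G := G) z.1
        have e4 := vhi_lt (ρ := ρ) (G := G) z.1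
        show |t - G * z.1| ≤ _
        rw [abs_le]
        constructor <;> nlinarith
      have h5 : C * |t - sta Z ρ G B (Sum.inl z)| ≤ C * (ρ * G + 1) :=
        mul_le_mul_of_nonneg_left h4 hC0
      show _ ≤ ((a : ℤ) : ℝ) / 4
      push_cast
      nlinarith
    · have h3 := disp H hu t (sta Z ρ G B (Sum.inr k)) j
      have h4 : |t - sta Z ρ G B (Sum.inr k)| ≤ 1 := by
        have e1 : (k.1 : ℝ) ≤ t := h1
        have e2 : t ≤ ((k.1 + 1 : ℤ) : ℝ) := h2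
        push_cast at e2
        show |t - (k.1 + 1 / 2)| ≤ _
        rw [abs_le]
        constructor <;> linarith
      have h5 : C * |t - sta Z ρ G B (Sum.inr k)| ≤ C * 1 := mul_le_mul_of_nonneg_left h4 hC0
      show _ ≤ ((a' : ℤ) : ℝ) / 4
      push_cast
      linarith
  · rintro (z | k) f' hf' u hu hne y hy hy1 hy2
    · obtain ⟨f, hf, rfl⟩ := mem_scl.1 hf'
      have e : sta Z ρ G B (Sum.inl z) / G = z.1 := by
        show G * z.1 / G = z.1
        field_simp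
      obtain ⟨v, hv, hvu⟩ := mem_sclL.1 hu
      have h0 : ev (f.1, (G : ℝ) * f.2) (pt u (sta Z ρ G B (Sum.inl z))) = G * ev f (pt v z.1) := by
        rw [← hvu, ev_pt_scl hGn, e]
      rw [h0] at hne
      have h1 := H.w2 z.1 z.2 f hf v hv (right_ne_zero_of_mul hne)
      have hn : ‖y - pt u (sta Z ρ G B (Sum.inl z))‖ ≤ max ((a : ℝ) + 1) (ρ * G + 1) := by
        refine norm_sub_le (fun j hj => ?_) ?_ (by positivity) (by positivity)
        · have := hy j hj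
          simpa [saw] using this
        · rw [hL2 u hu]
          have e1 : (vlo ρ G z.1 : ℝ) ≤ y 2 := hy1
          have e2 : y 2 ≤ (vhi ρ G z.1 : ℝ) := hy2
          have e3 := vlo_gt (ρ := ρ) (G := G) z.1
          have e4 := vhi_lt (ρ := ρ) (G := G) z.1
          show |y 2 - G * z.1| ≤ _
          rw [abs_le]
          constructor <;> nlinarith
      refine ev_ne (f := (f.1, (G : ℝ) * f.2)) (C := C) (H.hf f hf) (hn.trans (max_le (by linarith) (by linarith :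
        ρ * G + 1 ≤ 2 * (a : ℝ)))) hC0 ?_
      rw [h0, abs_mul, abs_of_pos hG]
      nlinarith [mul_nonneg hC0 (by linarith : (0 : ℝ) ≤ a)]
    · obtain ⟨f, hf, rfl⟩ := mem_scl.1 hf'
      obtain ⟨v, hv, hvu⟩ := mem_sclL.1 hu
      obtain ⟨e1, e2⟩ := tow_height H hB k.2 (t := sta Z ρ G B (Sum.inr k))
        (hlh (Sum.inr k)).1.le (by have := (hlh (Sum.inr k)).2.le; simpa [shi] using this)
      have h0 : ev (f.1, (G : ℝ) * f.2) (pt u (sta Z ρ G B (Sum.inr k))) =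
          G * ev f (pt v (sta Z ρ G B (Sum.inr k) / G)) := by
        rw [← hvu, ev_pt_scl hGn]
      rw [h0] at hne
      have h1 := H.t2 _ e1 e2 f hf v hv (fun h => right_ne_zero_of_mul hne (h _))
      have hn : ‖y - pt u (sta Z ρ G B (Sum.inr k))‖ ≤ max ((a' : ℝ) + 1) 1 := by
        refine norm_sub_le (fun j hj => ?_) ?_ (by positivity) (by positivity)
        · have := hy j hj
          simpa [saw] using this
        · rw [hL2 u hu]
          have e1 : (k.1 : ℝ) ≤ y 2 := hy1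
          have e2 : y 2 ≤ ((k.1 + 1 : ℤ) : ℝ) := hy2
          push_cast at e2
          show |y 2 - (k.1 + 1 / 2)| ≤ _
          rw [abs_le]
          constructor <;> linarith
      refine ev_ne (f := (f.1, (G : ℝ) * f.2)) (C := C) (H.hf f hf) (hn.trans (max_le (by linarith) (by linarith :
        (1 : ℝ) ≤ 2 * (a' : ℝ)))) hC0 ?_
      rw [h0, abs_mul, abs_of_pos hG]
      nlinarith [mul_nonneg hC0 (by linarith : (0 : ℝ) ≤ a')]
  · rintro (z | k) (z' | k') h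
    · exfalso
      have h' : vhi ρ G z.1 = vlo ρ G z'.1 := h
      rcases lt_trichotomy z.1 z'.1 with h1 | h1 | h1
      · have := vv H z.2 z'.2 h1
        omega
      · have h2 := hlh (Sum.inl z)
        have h3 : (vlo ρ G z.1 : ℝ) < vhi ρ G z.1 := h2.1.trans h2.2
        have h4 : vlo ρ G z.1 < vhi ρ G z.1 := by exact_mod_cast h3
        rw [← h1] at h'
        omega
      · have h2 := vv H z'.2 z.2 h1
        have h3 := hlh (Sum.inl z)
        have h4 : (vlo ρ G z.1 : ℝ) < vhi ρ G z.1 := h3.1.trans h3.2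
        have h4' : vlo ρ G z.1 < vhi ρ G z.1 := by exact_mod_cast h4
        have h5 := hlh (Sum.inl z')
        have h6 : (vlo ρ G z'.1 : ℝ) < vhi ρ G z'.1 := h5.1.trans h5.2
        have h6' : vlo ρ G z'.1 < vhi ρ G z'.1 := by exact_mod_cast h6
        omega
    · exact Or.inr trivial
    · exact Or.inl trivial
    · exact Or.inl trivial
  · rintro (z | k) hs (z' | k')
    · exact hs.elim
    · exact hs.elim
    · show (a' : ℤ) ≤ a
      exact_mod_cast H.aa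
    · exact le_refl _
  · rintro (z | k) hs f' hf' u hu hne t h1 h2 y hyt hy
    · exact hs.elim
    · obtain ⟨f, hf, rfl⟩ := mem_scl.1 hf'
      obtain ⟨v, hv, hvu⟩ := mem_sclL.1 hu
      have h2' : t ≤ (k.1 : ℝ) + 1 := by
        have : t ≤ ((k.1 + 1 : ℤ) : ℝ) := h2
        simpa using this
      obtain ⟨e1, e2⟩ := tow_height H hB k.2 (t := t) h1 h2'
      have h0 : ev (f.1, (G : ℝ) * f.2) (pt u t) = G * ev f (pt v (t / G)) := by
        rw [← hvu, ev_pt_scl hGn]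
      have hne' : ¬ Al f v := by
        intro hA
        apply hne
        intro s
        rw [← hvu, ev_pt_scl hGn, hA, mul_zero]
      have h1' := H.t2 _ e1 e2 f hf v hv hne'
      have hn : ‖y - pt u t‖ ≤ max (2 * (a' : ℝ)) 0 := by
        refine norm_sub_le (fun j hj => ?_) ?_ (by positivity) le_rfl
        · have := hy j hj
          simpa [saw] using this
        · rw [hL2 u hu, hyt, sub_self, abs_zero]
      refine ev_ne (f := (f.1, (G : ℝ) * f.2)) (C := C) (H.hf f hf) (hn.trans (max_le le_rfl (by linarith :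
        (0 : ℝ) ≤ 2 * (a' : ℝ)))) hC0 ?_
      rw [h0, abs_mul, abs_of_pos hG]
      have : 0 < C * (a' : ℝ) := mul_pos (by linarith [H.C1]) (by linarith)
      nlinarith
  · intro t ht
    rw [abs_le] at ht
    -- the unit intervals below and above `t`
    have f1 := Int.floor_le t
    have f2 := Int.lt_floor_add_one t
    have c1 := Int.le_ceil t
    have c2 := Int.ceil_lt_add_one t
    have hk2 : -B ≤ ⌊t⌋ ∧ ⌊t⌋ ≤ B := by
      constructor
      · have : (-B : ℝ) ≤ ⌊t⌋ := by linarith [ht.1]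
        exact_mod_cast this
      · have : (⌊t⌋ : ℝ) ≤ B := by linarith [ht.2]
        exact_mod_cast this
    have hk1 : -B ≤ ⌈t⌉ - 1 ∧ ⌈t⌉ - 1 ≤ B := by
      constructor
      · have : (-B : ℝ) ≤ (⌈t⌉ - 1 : ℤ) := by push_cast; linarith [ht.1]
        exact_mod_cast this
      · have : ((⌈t⌉ - 1 : ℤ) : ℝ) ≤ B := by push_cast; linarith [ht.2]
        exact_mod_cast this
    obtain ⟨s1, h11, h12⟩ := exists_slab (Z := Z) (ρ := ρ) (G := G) hk1
    obtain ⟨s2, h21, h22⟩ := exists_slab (Z := Z) (ρ := ρ) (G := G) hk2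
    have g11 : (slo Z ρ G B s1 : ℝ) ≤ ⌈t⌉ - 1 := by exact_mod_cast h11
    have g12 : (⌈t⌉ : ℝ) ≤ shi Z ρ G B s1 := by
      have : ⌈t⌉ ≤ shi Z ρ G B s1 := by omega
      exact_mod_cast this
    have g21 : (slo Z ρ G B s2 : ℝ) ≤ ⌊t⌋ := by exact_mod_cast h21
    have g22 : (⌊t⌋ : ℝ) + 1 ≤ shi Z ρ G B s2 := by exact_mod_cast h22
    by_cases e1 : t < shi Z ρ G B s1
    · exact Or.inl ⟨s1, by linarith, e1⟩
    · by_cases e2 : (slo Z ρ G B s2 : ℝ) < t
      · exact Or.inl ⟨s2, e2, by linarith⟩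
      · exact Or.inr ⟨s1, s2, by linarith, by linarith⟩

end

end Crest.Agent.R096.Ex_914
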