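import Crest.Agent.R096.Ex2_422

/-!
# One-step exchange on finite Z/2 cell complexes, part 3

Regions are connected; CONN and LINK of the new sheets.
-/

set_option autoImplicit false

namespace Crest.Agent.R096.Ex_422

open Finset Classical

variable {V E F I Γ : Type*}

section

variable {K : Sys V E F I} (C : Cur K Γ)

/-- the tiles of a region have the same membership in all inner discs -/
theorem Cur.rg_same {ν : Nd I Γ} {f g : F} (hf : f ∈ C.Rg ν) (hg : g ∈ C.Rg ν) {x : Bool}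
    {γ : Γ} (h : f ∈ C.D x γ) : g ∈ C.D x γ := by
  rcases ν with i | ⟨y, δ⟩
  · exact absurd h (hf.2 x γ)
  · have hxy : x = y := by
      have h1 := (C.col_eq h (C.Dsub y δ hf.1)).2
      rw [C.scol] at h1
      exact h1.symm
    subst hxy
    exact hf.2 γ h hg.1

/-- the outer region of `γ` is disjoint from the inner disc -/
theorem Cur.up_disj [Finite Γ] {x : Bool} {γ : Γ} {f : F} (hf : f ∈ C.Rg (C.up x γ)) :
    f ∉ C.D x γ := by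
  obtain ⟨e, he⟩ := C.ne γ
  obtain ⟨v, hv⟩ := K.exists_end e
  obtain ⟨-, -, o, ho, hoD, -, -, heo, -⟩ := C.exists_io x he
  have h1 : o ∈ C.Rg (C.up x γ) := C.rg_out ho hoD ⟨e, heo, hv⟩ ⟨e, he, hv⟩
  exact fun h => hoD (C.rg_same hf h1 h)

/-- the node of the side `b` of the curve `δ` in colour `x` : `true` = inner -/
noncomputable def Cur.sd [Finite Γ] (C : Cur K Γ) (x : Bool) (δ : Γ) : Bool → Nd I Γ
  | true => Sum.inr (x, δ)
  | false => C.up x δ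

/-- the side `b` -/
def Cur.SD (C : Cur K Γ) (x : Bool) (δ : Γ) : Bool → Set F
  | true => C.D x δ
  | false => K.S (C.s x δ) \ C.D x δ

theorem Cur.sd_sub [Finite Γ] {x : Bool} {δ : Γ} {b : Bool} {v : V} {f : F}
    (hf : f ∈ C.SD x δ b) (hfv : K.At f v) (hv : C.On δ v) : f ∈ C.Rg (C.sd x δ b) := by
  cases b
  · exact C.rg_out hf.1 hf.2 hfv hv
  · exact C.rg_in hf hfv hv

theorem Cur.sd_at [Finite Γ] {x : Bool} {δ : Γ} {b : Bool} {f : F}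
    (hf : f ∈ C.Rg (C.sd x δ b)) (hfS : f ∈ K.S (C.s x δ)) : f ∈ C.SD x δ b := by
  cases b
  · exact ⟨hfS, C.up_disj hf⟩
  · exact hf.1

theorem Cur.SD_or {x : Bool} {δ : Γ} (b : Bool) {f : F} (hf : f ∈ K.S (C.s x δ)) :
    f ∈ C.SD x δ b ∨ f ∈ C.SD x δ (!b) := by
  cases b
  · by_cases h : f ∈ C.D x δ
    · exact Or.inr h
    · exact Or.inl ⟨hf, h⟩
  · by_cases h : f ∈ C.D x δ
    · exact Or.inl h
    · exact Or.inr ⟨hf, h⟩

theorem Cur.SD_not {x : Bool} {δ : Γ} {b : Bool} {f : F} (h : f ∈ C.SD x δ b) :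
    f ∉ C.SD x δ (!b) := by
  cases b
  · exact h.2
  · exact fun h' => h'.2 h

theorem Cur.SD_sub {x : Bool} {δ : Γ} {b : Bool} : C.SD x δ b ⊆ K.S (C.s x δ) := by
  cases b
  · exact fun f hf => hf.1
  · exact C.Dsub x δ

theorem Cur.SD_fan [Finite F] {x : Bool} {γ : Γ} {b : Bool} {v : V} (hv : C.On γ v) {Y : Set F}
    (hYT : Y ⊆ C.SD x γ b)
    (hcl : ∀ e, v ∈ K.bE e → e ∉ C.c γ → ∀ f ∈ Y, e ∈ K.bF f → ∀ g ∈ K.S (C.s x γ),
      e ∈ K.bF g → g ∈ Y)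
    {f : F} (hf : f ∈ Y) (hfv : K.At f v) {g : F} (hg : g ∈ C.SD x γ b) (hgv : K.At g v) :
    g ∈ Y := by
  cases b
  · exact C.fan_out hv hYT hcl hf hfv hg hgv
  · exact C.fan_in hv hYT hcl hf hfv hg hgv

theorem Cur.SD_bd {x : Bool} {γ : Γ} {b : Bool} {e : E} {f g : F}
    (hf : f ∈ C.SD x γ b) (hg : g ∈ C.SD x γ (!b)) (hef : e ∈ K.bF f) (heg : e ∈ K.bF g) :
    e ∈ C.c γ := by
  have hne : f ≠ g := by
    rintro rfl
    exact C.SD_not hf hg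
  cases b
  · exact (C.Dbd hf.1 (C.Dsub x γ hg) hne hef heg).2 (fun h => hf.2 (h.2 hg))
  · exact (C.Dbd (C.Dsub x γ hf) hg.1 hne hef heg).2 (fun h => hg.2 (h.1 hf))

theorem Cur.SD_same {x : Bool} {γ : Γ} {b : Bool} {e : E} (he : e ∈ C.c γ) {f g : F}
    (hf : f ∈ C.SD x γ b) (hg : g ∈ C.SD x γ b) (hef : e ∈ K.bF f) (heg : e ∈ K.bF g) :
    f = g := by
  by_contra hne
  cases b
  · exact (C.Dbd hf.1 hg.1 hne hef heg).1 he ⟨fun h => absurd h hf.2, fun h => absurd h hg.2⟩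
  · exact (C.Dbd (C.Dsub x γ hf) (C.Dsub x γ hg) hne hef heg).1 he ⟨fun _ => hg, fun _ => hf⟩

theorem Cur.SD_tile {x : Bool} {γ : Γ} (b : Bool) {e : E} (he : e ∈ C.c γ) :
    ∃ t ∈ C.SD x γ b, e ∈ K.bF t := by
  obtain ⟨f, hf, g, hg, hgD, -, hef, heg, -⟩ := C.exists_io x he
  cases b
  · exact ⟨g, ⟨hg, hgD⟩, heg⟩
  · exact ⟨f, hf, hef⟩

theorem Cur.sd_sheet [Finite Γ] {x : Bool} {γ : Γ} (b : Bool) :
    C.shN (C.sd x γ b) = C.s x γ := by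
  obtain ⟨e, he⟩ := C.ne γ
  obtain ⟨v, hv⟩ := K.exists_end e
  obtain ⟨t, ht, het⟩ := C.SD_tile (x := x) b he
  have h1 := C.rg_sub _ (C.sd_sub ht ⟨e, het, hv⟩ ⟨e, he, hv⟩)
  exact K.disj h1 (C.SD_sub ht)

/-- regions are connected, even without the edges of the curves -/
theorem Cur.rg_conn [Finite Γ] [Finite F] {ν : Nd I Γ} {Y : Set F} (hY : Y ⊆ C.Rg ν)
    (hcl : ∀ e, ¬ C.Dbl e → ∀ f ∈ Y, e ∈ K.bF f → ∀ g ∈ C.Rg ν, e ∈ K.bF g → g ∈ Y)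
    (hne : Y.Nonempty) : C.Rg ν ⊆ Y := by
  set p := C.shN ν with hp
  -- constancy along the curves
  have hconst : ∀ (x : Bool) (δ : Γ) (b : Bool), ν = C.sd x δ b →
      ∀ e ∈ C.c δ, ∀ f ∈ Y, e ∈ K.bF f → ∀ e' ∈ C.c δ, ∀ w ∈ K.bE e', ∀ g ∈ C.SD x δ b,
      K.At g w → g ∈ Y := by
    intro x δ b hν e he f hf hef e' he' w hw g hg hgw
    have hps : p = C.s x δ := by rw [hp, hν, C.sd_sheet]
    have hYS : Y ⊆ C.SD x δ b := by
      intro h hh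
      have h1 := hY hh
      refine C.sd_at (hν ▸ h1) ?_
      rw [← hps]
      exact C.rg_sub ν h1
    have hfan : ∀ u, C.On δ u → ∀ t ∈ Y, K.At t u → ∀ t' ∈ C.SD x δ b, K.At t' u → t' ∈ Y := by
      intro u hu t ht htu t' ht' htu'
      refine C.SD_fan hu hYS ?_ ht htu ht' htu'
      intro e₁ hue₁ he₁ a ha hea a' ha' hea'
      have hnd : ¬ C.Dbl e₁ := by
        rintro ⟨δ', hδ'⟩
        have : δ = δ' := C.on_unique hu ⟨e₁, hδ', hue₁⟩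
        exact he₁ (this ▸ hδ')
      have hap : a ∈ K.S p := C.rg_sub ν (hY ha)
      exact hcl e₁ hnd a ha hea a'
        (C.rg_edge hap (by rw [hps]; exact ha') hea hea' hnd (hY ha)) hea'
    set P : V → Prop := fun u => ∀ t ∈ C.SD x δ b, K.At t u → t ∈ Y with hP
    obtain ⟨v, hv⟩ := K.exists_end e
    have hPv : P v := fun t ht htv => hfan v ⟨e, he, hv⟩ f hf ⟨e, hef, hv⟩ t ht htv
    have key := C.cir δ P ?_ e he v hv hPv e' he' w hw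
    · exact key g hg hgw
    · intro e₁ he₁ u hu u' hu' hPu
      intro t ht htu'
      obtain ⟨t₁, ht₁, het₁⟩ := C.SD_tile (x := x) b he₁
      exact hfan u' ⟨e₁, he₁, hu'⟩ t₁ (hPu t₁ ht₁ ⟨e₁, het₁, hu⟩) ⟨e₁, het₁, hu'⟩ t ht htu'
  set Z : Set F := {f | f ∈ K.S p ∧ (f ∈ Y ∨ ∃ x δ b, ν = C.sd x δ b ∧
    (∃ e ∈ C.c δ, ∃ t ∈ Y, e ∈ K.bF t) ∧ f ∈ C.SD x δ (!b))} with hZ
  have hclosed : ∀ e, ∀ f ∈ Z, e ∈ K.bF f → ∀ g ∈ K.S p, e ∈ K.bF g → g ∈ Z := by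
    rintro e f ⟨hfp, hf | ⟨x, δ, b, hν, ⟨e₀, he₀, t₀, ht₀, het₀⟩, hf⟩⟩ hef g hg heg
    · by_cases hd : C.Dbl e
      · obtain ⟨δ, hδ⟩ := hd
        obtain ⟨v, hv⟩ := K.exists_end e
        have hon : C.On δ v := ⟨e, hδ, hv⟩
        have hs := C.sheet_on hfp ⟨e, hef, hv⟩ hon
        set x := K.col p with hx
        have hfS : f ∈ K.S (C.s x δ) := by rw [← hs]; exact hfp
        have hgS : g ∈ K.S (C.s x δ) := by rw [← hs]; exact hg
        -- the side of f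
        have hside : ∃ b, f ∈ C.SD x δ b := by
          rcases C.SD_or true hfS with h | h
          · exact ⟨_, h⟩
          · exact ⟨_, h⟩
        obtain ⟨b, hb⟩ := hside
        have hν : ν = C.sd x δ b := C.rg_unique (hY hf) (C.sd_sub hb ⟨e, hef, hv⟩ hon)
        rcases C.SD_or b hgS with h | h
        · have : f = g := C.SD_same hδ hb h hef heg
          exact ⟨hg, Or.inl (this ▸ hf)⟩
        · exact ⟨hg, Or.inr ⟨x, δ, b, hν, ⟨e, hδ, f, hf, hef⟩, h⟩⟩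
      · exact ⟨hg, Or.inl (hcl e hd f hf hef g (C.rg_edge hfp hg hef heg hd (hY hf)) heg)⟩
    · have hps : p = C.s x δ := by rw [hp, hν, C.sd_sheet]
      have hgS : g ∈ K.S (C.s x δ) := by rw [← hps]; exact hg
      rcases C.SD_or b hgS with h | h
      · have heδ : e ∈ C.c δ := C.SD_bd h hf heg hef
        obtain ⟨v, hv⟩ := K.exists_end e
        exact ⟨hg, Or.inl (hconst x δ b hν e₀ he₀ t₀ ht₀ het₀ e heδ v hv g h ⟨e, heg, hv⟩)⟩
      · exact ⟨hg, Or.inr ⟨x, δ, b, hν, ⟨e₀, he₀, t₀, ht₀, het₀⟩, h⟩⟩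
  obtain ⟨f₀, hf₀⟩ := hne
  rcases K.conn p Z (fun f hf => hf.1) hclosed with h | h
  · exfalso
    have : f₀ ∈ Z := ⟨C.rg_sub ν (hY hf₀), Or.inl hf₀⟩
    rw [h] at this
    exact this
  · intro g hg
    have hgZ : g ∈ Z := by rw [h]; exact C.rg_sub ν hg
    rcases hgZ.2 with h1 | ⟨x, δ, b, hν, -, hgO⟩
    · exact h1
    · exfalso
      have h2 : g ∈ C.SD x δ b := C.sd_at (hν ▸ hg) (C.SD_sub hgO)
      exact C.SD_not h2 hgO

/-- the tiles of the inner disc and of the parent region at a copy of an edge -/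
theorem Cur.exists_child_pair [Finite Γ] (x : Bool) (γ : Γ) :
    ∃ ε : E × Bool, ∃ o ∈ C.Rg (C.up (!x) γ), ∃ n ∈ C.Rg (Sum.inr (x, γ)),
      ε ∈ C.bF' o ∧ ε ∈ C.bF' n := by
  obtain ⟨e, he⟩ := C.ne γ
  obtain ⟨o, n, -, -, -, -, heo, hen, hco, hcn, hRo, hRn, -, -⟩ := C.exists_pair he (!x)
  refine ⟨(e, !x), o, hRo, n, ?_, C.mem_bF'.2 ⟨heo, hco⟩, C.mem_bF'.2 ⟨hen, hcn⟩⟩
  rwa [Bool.not_not] at hRn

/-- the new sheets are connected -/
theorem Cur.conn' [Finite Γ] [Finite F] (i : I) (X : Set F) (hX : X ⊆ C.S' i)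
    (hcl : ∀ e, ∀ f ∈ X, e ∈ C.bF' f → ∀ g ∈ C.S' i, e ∈ C.bF' g → g ∈ X) :
    X = ∅ ∨ X = C.S' i := by
  -- regions are full or empty
  have hfull : ∀ ν : Nd I Γ, C.Anc ν (Sum.inl i) → (∃ f ∈ X, f ∈ C.Rg ν) → C.Rg ν ⊆ X := by
    rintro ν hν ⟨f, hfX, hfν⟩
    have h := C.rg_conn (Y := X ∩ C.Rg ν) (fun f hf => hf.2) ?_ ⟨f, hfX, hfν⟩
    · exact fun g hg => (h hg).1
    · rintro e hd a ⟨haX, haν⟩ hea b hb heb
      refine ⟨hcl (e, false) a haX (C.mem_bF'.2 ⟨hea, C.ec_off hd a⟩) b ⟨ν, hb, hν⟩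
        (C.mem_bF'.2 ⟨heb, C.ec_off hd b⟩), hb⟩
  by_cases hne : X = ∅
  · exact Or.inl hne
  right
  obtain ⟨f₀, hf₀⟩ := Set.nonempty_iff_ne_empty.2 hne
  obtain ⟨ν₀, hν₀, hanc₀⟩ := hX hf₀
  have hup : ∀ ν : Nd I Γ, C.Anc ν (Sum.inl i) → C.Rg ν ⊆ X → C.Rg (Sum.inl i) ⊆ X := by
    intro ν hν
    unfold Cur.Anc at hν
    induction hν using Relation.ReflTransGen.head_induction_on with
    | refl => exact fun h => h
    | head h1 h2 ih =>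
      rename_i a c
      intro ha
      apply ih
      rcases a with j | ⟨x, γ⟩
      · exact (C.not_r_inl h1).elim
      · have hc : c = C.up (!x) γ := C.r_unique h1 (C.r_inr x γ)
        subst hc
        obtain ⟨ε, o, ho, n, hn, hεo, hεn⟩ := C.exists_child_pair x γ
        exact hfull _ h2 ⟨o, hcl ε n (ha hn) hεn o ⟨_, ho, h2⟩ hεo, ho⟩
  have hroot : C.Rg (Sum.inl i) ⊆ X := hup ν₀ hanc₀ (hfull ν₀ hanc₀ ⟨f₀, hf₀, hν₀⟩)
  have hdown : ∀ ν : Nd I Γ, C.Anc ν (Sum.inl i) → C.Rg ν ⊆ X := by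
    intro ν hν
    unfold Cur.Anc at hν
    induction hν using Relation.ReflTransGen.head_induction_on with
    | refl => exact hroot
    | head h1 h2 ih =>
      rename_i a c
      rcases a with j | ⟨x, γ⟩
      · exact (C.not_r_inl h1).elim
      · have hc : c = C.up (!x) γ := C.r_unique h1 (C.r_inr x γ)
        subst hc
        obtain ⟨ε, o, ho, n, hn, hεo, hεn⟩ := C.exists_child_pair x γ
        have hanc : C.Anc (Sum.inr (x, γ)) (Sum.inl i) := Relation.ReflTransGen.head h1 h2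
        exact hfull _ hanc ⟨n, hcl ε o (ih ho) hεo n ⟨_, hn, hanc⟩ hεn, hn⟩
  refine Set.Subset.antisymm hX ?_
  rintro g ⟨ν, hg, hν⟩
  exact hdown ν hν hg

/-- LINK of the new sheets -/
theorem Cur.link' [Finite Γ] [Finite F] (i : I) (v : V × Bool) (X : Set F) (hX : X ⊆ C.S' i)
    (hcl : ∀ e, v ∈ C.bE' e → ∀ f ∈ X, e ∈ C.bF' f → ∀ g ∈ C.S' i, e ∈ C.bF' g → g ∈ X)
    (f : F) (hf : f ∈ X) (hfv : ∃ e ∈ C.bF' f, v ∈ C.bE' e) (g : F) (hg : g ∈ C.S' i)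
    (hgv : ∃ e ∈ C.bF' g, v ∈ C.bE' e) : g ∈ X := by
  obtain ⟨v, β⟩ := v
  obtain ⟨p, hp⟩ := C.exists_old (hX hf)
  obtain ⟨q, hq⟩ := C.exists_old hg
  obtain ⟨hf1, hf2⟩ := (C.at'_iff hp).1 hfv
  obtain ⟨hg1, hg2⟩ := (C.at'_iff hq).1 hgv
  by_cases hon : ∃ γ, C.On γ v
  · obtain ⟨γ, hγ⟩ := hon
    -- closedness across edges off `γ`
    have hoff : ∀ e, v ∈ K.bE e → e ∉ C.c γ → ∀ a ∈ X, ∀ r, a ∈ K.S r → C.vt a v = β →
        e ∈ K.bF a → ∀ b ∈ K.S r, e ∈ K.bF b → b ∈ X := by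
      intro e hve he a ha r har hav hea b hb heb
      have hnd : ¬ C.Dbl e := by
        rintro ⟨δ', hδ'⟩
        have : γ = δ' := C.on_unique hγ ⟨e, hδ', hve⟩
        exact he (this ▸ hδ')
      obtain ⟨ν, hν, hanc⟩ := hX ha
      have hbν := C.rg_edge har hb hea heb hnd hν
      refine hcl (e, false) (C.mem_bE'.2 ⟨hve, ?_⟩) a ha (C.mem_bF'.2 ⟨hea, C.ec_off hnd a⟩) b
        ⟨ν, hbν, hanc⟩ (C.mem_bF'.2 ⟨heb, C.ec_off hnd b⟩)
      have h1 := C.vc_eq har hea hve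
      rw [C.ec_off hnd] at h1
      rw [h1, hav]
    -- the two fans
    have hfan : ∀ (x b : Bool), (∀ t ∈ C.SD x γ b, C.vt t v = β) → ∀ t ∈ X, t ∈ C.SD x γ b →
        K.At t v → ∀ t' ∈ C.SD x γ b, K.At t' v → t' ∈ X := by
      intro x b hvt t ht htS htv t' ht' htv'
      refine (C.SD_fan (Y := X ∩ C.SD x γ b) hγ (fun _ h => h.2) ?_ ⟨ht, htS⟩ htv ht' htv').1
      rintro e hve he a ⟨haX, haS⟩ hea a' ha' hea'
      refine ⟨hoff e hve he a haX _ (C.SD_sub haS) (hvt a haS) hea a' ha' hea', ?_⟩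
      rcases C.SD_or b ha' with h | h
      · exact h
      · exact absurd (C.SD_bd haS h hea hea') he
    obtain ⟨e₁, he₁, hve₁⟩ := id hγ
    obtain ⟨o, n, ho, hoD, hn, -, heo, hen, hco, hcn, hRo, hRn, hS, -⟩ := C.exists_pair he₁ β
    have hvo : ∀ t ∈ C.SD β γ false, C.vt t v = β := by
      intro t ht
      rw [C.vt_on hγ, C.tc_out ht.1 ht.2]
    have hvn : ∀ t ∈ C.SD (!β) γ true, C.vt t v = β := by
      intro t ht
      rw [C.vt_on hγ, C.tc_in ht, Bool.not_not]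
    have hv1 : (v, β) ∈ C.bE' (e₁, β) := C.mem_bE'.2 ⟨hve₁, C.vc_dbl ⟨γ, he₁⟩ β v⟩
    have hon1 : o ∈ X → n ∈ X := fun h => hcl (e₁, β) hv1 o h (C.mem_bF'.2 ⟨heo, hco⟩) n
      ((hS i).1 (hX h)) (C.mem_bF'.2 ⟨hen, hcn⟩)
    have hon2 : n ∈ X → o ∈ X := fun h => hcl (e₁, β) hv1 n h (C.mem_bF'.2 ⟨hen, hcn⟩) o
      ((hS i).2 (hX h)) (C.mem_bF'.2 ⟨heo, hco⟩)
    have hoS : o ∈ C.SD β γ false := ⟨ho, hoD⟩
    have hnS : n ∈ C.SD (!β) γ true := hn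
    have hoX : o ∈ X := by
      rcases C.copy_cases hp hf1 hγ hf2 with h | h
      · exact hfan β false hvo f hf h hf1 o hoS ⟨e₁, heo, hve₁⟩
      · exact hon2 (hfan (!β) true hvn f hf h hf1 n hnS ⟨e₁, hen, hve₁⟩)
    rcases C.copy_cases hq hg1 hγ hg2 with h | h
    · exact hfan β false hvo o hoX hoS ⟨e₁, heo, hve₁⟩ g h hg1
    · exact hfan (!β) true hvn n (hon1 hoX) hnS ⟨e₁, hen, hve₁⟩ g h hg1
  · push Not at hon
    have hpq : p = q := C.same_old (hX hf) hg hp hq hf1 hg1 hon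
    subst hpq
    have hβ : β = false := by rw [← hf2, C.vt_off hon]
    subst hβ
    refine (K.link p v (X ∩ K.S p) (fun _ h => h.2) ?_ f ⟨hf, hp⟩ hf1 g hq hg1).1
    rintro e hve a ⟨haX, hap⟩ hea b hb heb
    have hnd : ¬ C.Dbl e := C.not_dbl_of_off hon hve
    obtain ⟨ν, hν, hanc⟩ := hX haX
    have hbν := C.rg_edge hap hb hea heb hnd hν
    refine ⟨hcl (e, false) (C.mem_bE'.2 ⟨hve, ?_⟩) a haX (C.mem_bF'.2 ⟨hea, C.ec_off hnd a⟩) b
      ⟨ν, hbν, hanc⟩ (C.mem_bF'.2 ⟨heb, C.ec_off hnd b⟩), hb⟩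
    have h1 := C.vc_eq hap hea hve
    rw [C.ec_off hnd, C.vt_off hon] at h1
    exact h1

end

end Crest.Agent.R096.Ex_422
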