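import Crest.Agent.R096.Ex2_914

/-!
# R096 (row 96), P2-GEN (EXIST), part 3 (helper914): choice of the parameters, `slabs`
-/

set_option autoImplicit false

open Set Metric Topology

namespace Crest.Agent.R096.Ex_914

open Msh_715 Gp_702

theorem exists_eps {ι : Type*} (s : Finset ι) (φ : ι → ℝ) :
    ∃ ε > 0, ∀ i ∈ s, 0 < φ i → ε < φ i := by
  classical
  induction s using Finset.induction_on with
  | empty => exact ⟨1, one_pos, by simp⟩
  | insert a s ha ih =>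
    obtain ⟨ε, h0, h1⟩ := ih
    by_cases h : 0 < φ a
    · refine ⟨min ε (φ a / 2), by positivity, fun i hi hp => ?_⟩
      rcases Finset.mem_insert.1 hi with rfl | hi
      · exact (min_le_right _ _).trans_lt (by linarith)
      · exact (min_le_left _ _).trans_lt (h1 i hi hp)
    · refine ⟨ε, h0, fun i hi hp => ?_⟩
      rcases Finset.mem_insert.1 hi with rfl | hi
      · exact absurd hp h
      · exact h1 i hi hp

/-- uniform positivity on a compact set, finitely many functions -/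
theorem exists_eps_on {ι : Type*} (s : Finset ι) {J : Set ℝ} (hJ : IsCompact J) (φ : ι → ℝ → ℝ)
    (hc : ∀ i ∈ s, Continuous (φ i)) (hp : ∀ i ∈ s, ∀ t ∈ J, 0 < φ i t) :
    ∃ ε > 0, ∀ i ∈ s, ∀ t ∈ J, ε < φ i t := by
  rcases J.eq_empty_or_nonempty with rfl | hne
  · exact ⟨1, one_pos, by simp⟩
  have h : ∀ i ∈ s, ∃ m > 0, ∀ t ∈ J, m ≤ φ i t := by
    intro i hi
    obtain ⟨t0, ht0, hmin⟩ := hJ.exists_isMinOn hne (hc i hi).continuousOn
    exact ⟨φ i t0, hp i hi t0 ht0, fun t ht => hmin ht⟩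
  choose! m hm0 hm using h
  obtain ⟨ε, h0, h1⟩ := exists_eps s m
  exact ⟨ε, h0, fun i hi t ht => (h1 i hi (hm0 i hi)).trans_le (hm i hi t ht)⟩

theorem pt_sub (u v : Ln) (t : ℝ) : pt u t - pt v t = (u.1 - v.1) + t • (u.2 - v.2) := by
  simp only [pt, smul_sub]; abel

/-- two different lines meet at most once -/
theorem meet_once {u v : Ln} (h : u ≠ v) : {t : ℝ | pt u t = pt v t}.Finite := by
  apply Set.Subsingleton.finite
  intro t ht s hs
  by_contra hne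
  apply h
  have h1 : (u.1 - v.1) + t • (u.2 - v.2) = 0 := by
    rw [← pt_sub]; exact sub_eq_zero.2 ht
  have h2 : (u.1 - v.1) + s • (u.2 - v.2) = 0 := by
    rw [← pt_sub]; exact sub_eq_zero.2 hs
  have h3 : (t - s) • (u.2 - v.2) = 0 := by
    have : (t - s) • (u.2 - v.2) =
      ((u.1 - v.1) + t • (u.2 - v.2)) - ((u.1 - v.1) + s • (u.2 - v.2)) := by
      rw [sub_smul]; abel
    rw [this, h1, h2, sub_self]
  have h4 : u.2 - v.2 = 0 := by
    rcases smul_eq_zero.1 h3 with h5 | h5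
    · exact absurd (sub_eq_zero.1 h5) hne
    · exact h5
  rw [h4, smul_zero, add_zero] at h1
  exact Prod.ext (sub_eq_zero.1 h1) (sub_eq_zero.1 h4)

theorem ev_pt (f : Af) (u : Ln) (t : ℝ) : ev f (pt u t) = ev f u.1 + t * f.1 u.2 := by
  simp only [ev, pt, map_add, map_smul, smul_eq_mul]; ring

theorem zero_once {f : Af} {u : Ln} (h : ¬ Al f u) : {t : ℝ | ev f (pt u t) = 0}.Finite := by
  apply Set.Subsingleton.finite
  intro t ht s hs
  by_contra hne
  apply h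
  have h1 : ev f u.1 + t * f.1 u.2 = 0 := by rw [← ev_pt]; exact ht
  have h2 : ev f u.1 + s * f.1 u.2 = 0 := by rw [← ev_pt]; exact hs
  have h3 : f.1 u.2 = 0 := by
    have : (t - s) * f.1 u.2 = 0 := by linarith
    rcases mul_eq_zero.1 this with h5 | h5
    · exact absurd (sub_eq_zero.1 h5) hne
    · exact h5
  intro r
  rw [ev_pt, h3, mul_zero, add_zero]
  rw [h3, mul_zero, add_zero] at h1
  exact h1

/-- the bad heights -/
theorem exists_bad (F : Finset Af) (L : Finset Ln) : ∃ Z : Finset ℝ,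
    (∀ u ∈ L, ∀ v ∈ L, u ≠ v → ∀ t, pt u t = pt v t → t ∈ Z) ∧
    (∀ f ∈ F, ∀ u ∈ L, ¬ Al f u → ∀ t, ev f (pt u t) = 0 → t ∈ Z) := by
  classical
  have h1 : (⋃ p ∈ (L ×ˢ L).filter (fun p => p.1 ≠ p.2), {t : ℝ | pt p.1 t = pt p.2 t}).Finite := by
    refine Set.Finite.biUnion (Finset.finite_toSet _) fun p hp => ?_
    exact meet_once (Finset.mem_filter.1 hp).2
  have h2 : (⋃ p ∈ (F ×ˢ L).filter (fun p => ¬ Al p.1 p.2), {t : ℝ | ev p.1 (pt p.2 t) = 0}).Finite := by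
    refine Set.Finite.biUnion (Finset.finite_toSet _) fun p hp => ?_
    exact zero_once (Finset.mem_filter.1 hp).2
  refine ⟨(h1.union h2).toFinset, fun u hu v hv hne t ht => ?_, fun f hf u hu hne t ht => ?_⟩
  · rw [Set.Finite.mem_toFinset]
    left
    exact mem_iUnion₂.2 ⟨(u, v), Finset.mem_filter.2 ⟨Finset.mem_product.2 ⟨hu, hv⟩, hne⟩, ht⟩
  · rw [Set.Finite.mem_toFinset]
    right
    exact mem_iUnion₂.2 ⟨(f, u), Finset.mem_filter.2 ⟨Finset.mem_product.2 ⟨hf, hu⟩, hne⟩, ht⟩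

theorem exists_prm (F : Finset Af) (L : Finset Ln) (K : ℝ) :
    ∃ (Z : Finset ℝ) (R C ρ : ℝ) (G a a' : ℕ), Prm F L Z K R C ρ G a a' := by
  classical
  obtain ⟨Z, hZ1, hZ2⟩ := exists_bad F L
  -- the constant C
  obtain ⟨C, hC1, hCf, hCu⟩ : ∃ C : ℝ, 1 ≤ C ∧ (∀ f ∈ F, ‖f.1‖ ≤ C) ∧ ∀ u ∈ L, ‖u.2‖ ≤ C := by
    refine ⟨1 + ∑ f ∈ F, ‖f.1‖ + ∑ u ∈ L, ‖u.2‖, ?_, ?_, ?_⟩
    · have h1 : 0 ≤ ∑ f ∈ F, ‖f.1‖ := Finset.sum_nonneg fun _ _ => norm_nonneg _
      have h2 : 0 ≤ ∑ u ∈ L, ‖u.2‖ := Finset.sum_nonneg fun _ _ => norm_nonneg _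
      linarith
    · intro f hf
      have h1 := Finset.single_le_sum (f := fun f : Af => ‖f.1‖) (fun i _ => norm_nonneg _) hf
      have h2 : 0 ≤ ∑ u ∈ L, ‖u.2‖ := Finset.sum_nonneg fun _ _ => norm_nonneg _
      linarith
    · intro u hu
      have h1 := Finset.single_le_sum (f := fun u : Ln => ‖u.2‖) (fun i _ => norm_nonneg _) hu
      have h2 : 0 ≤ ∑ f ∈ F, ‖f.1‖ := Finset.sum_nonneg fun _ _ => norm_nonneg _
      linarith
  have hC0 : 0 < C := by linarith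
  -- the vertex heights
  obtain ⟨e1, he1, h1⟩ := exists_eps (Z ×ˢ L ×ˢ L) (fun p => ‖pt p.2.1 p.1 - pt p.2.2 p.1‖)
  obtain ⟨e2, he2, h2⟩ := exists_eps (Z ×ˢ F ×ˢ L) (fun p => |ev p.2.1 (pt p.2.2 p.1)|)
  obtain ⟨e3, he3, h3⟩ := exists_eps (Z ×ˢ Z) (fun p => p.2 - p.1)
  obtain ⟨n1, hn1⟩ := exists_nat_gt (8 * C / min e1 (min e2 e3))
  have hmin : 0 < min e1 (min e2 e3) := lt_min he1 (lt_min he2 he3)
  have hn1p : (0 : ℝ) < n1 := lt_of_le_of_lt (by positivity) hn1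
  have hn1' : 8 * C < n1 * min e1 (min e2 e3) := by rwa [div_lt_iff₀ hmin] at hn1
  have k1 : 8 * C < n1 * e1 := hn1'.trans_le (mul_le_mul_of_nonneg_left (min_le_left _ _) hn1p.le)
  have k2 : 8 * C < n1 * e2 := hn1'.trans_le
    (mul_le_mul_of_nonneg_left ((min_le_right _ _).trans (min_le_left _ _)) hn1p.le)
  have k3 : 8 * C < n1 * e3 := hn1'.trans_le
    (mul_le_mul_of_nonneg_left ((min_le_right _ _).trans (min_le_right _ _)) hn1p.le)
  -- ρ, R and the compact set of heights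
  set ρ : ℝ := 1 / (16 * C * n1) with hρ
  have hρ0 : 0 < ρ := by positivity
  set R : ℝ := |K| + 1 with hR
  have hJc : IsCompact {t : ℝ | |t| ≤ R ∧ ∀ z ∈ Z, ρ ≤ |t - z|} := by
    refine (isCompact_Icc (a := -R) (b := R)).of_isClosed_subset ?_ ?_
    · rw [ofPred_and]
      refine IsClosed.inter (isClosed_le (by fun_prop) continuous_const) ?_
      simp only [ofPred_forall]
      exact isClosed_iInter fun z => isClosed_iInter fun _ =>
        isClosed_le continuous_const (by fun_prop)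
    · rintro t ⟨ht, -⟩
      exact abs_le.1 ht
  have hnot : ∀ t, (∀ z ∈ Z, ρ ≤ |t - z|) → t ∉ Z := by
    intro t ht htZ
    have := ht t htZ
    rw [sub_self, abs_zero] at this
    linarith
  obtain ⟨e4, he4, h4⟩ := exists_eps_on ((L ×ˢ L).filter fun p => p.1 ≠ p.2) hJc
    (fun p t => ‖pt p.1 t - pt p.2 t‖) (fun p _ => by unfold pt; fun_prop) (by
      rintro p hp t ⟨-, ht⟩
      obtain ⟨hp1, hp2⟩ := Finset.mem_filter.1 hp
      obtain ⟨hpa, hpb⟩ := Finset.mem_product.1 hp1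
      rw [norm_pos_iff, sub_ne_zero]
      exact fun h => hnot t ht (hZ1 _ hpa _ hpb hp2 t h))
  obtain ⟨e5, he5, h5⟩ := exists_eps_on ((F ×ˢ L).filter fun p => ¬ Al p.1 p.2) hJc
    (fun p t => |ev p.1 (pt p.2 t)|) (fun p _ => by unfold ev pt; fun_prop) (by
      rintro p hp t ⟨-, ht⟩
      obtain ⟨hp1, hp2⟩ := Finset.mem_filter.1 hp
      obtain ⟨hpa, hpb⟩ := Finset.mem_product.1 hp1
      rw [abs_pos]
      exact fun h => hnot t ht (hZ2 _ hpa _ hpb hp2 t h))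
  obtain ⟨n3, hn3⟩ := exists_nat_gt (max (n1 : ℝ) (8 * C / min e4 e5))
  have hmin' : 0 < min e4 e5 := lt_min he4 he5
  have hn3a : (n1 : ℝ) < n3 := (le_max_left _ _).trans_lt hn3
  have hn3p : (0 : ℝ) < n3 := hn1p.trans hn3a
  have hn3' : 8 * C < n3 * min e4 e5 := by
    have := (le_max_right _ _).trans_lt hn3
    rwa [div_lt_iff₀ hmin'] at this
  have k4 : 8 * C < n3 * e4 := hn3'.trans_le (mul_le_mul_of_nonneg_left (min_le_left _ _) hn3p.le)
  have k5 : 8 * C < n3 * e5 := hn3'.trans_le (mul_le_mul_of_nonneg_left (min_le_right _ _) hn3p.le)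
  obtain ⟨n4, hn4⟩ := exists_nat_gt (8 * C)
  have hn4p : (0 : ℝ) < n4 := by linarith
  have n1' : (1 : ℝ) ≤ n1 := by
    have : 0 < n1 := by exact_mod_cast hn1p
    exact_mod_cast this
  have n3' : (1 : ℝ) ≤ n3 := by linarith
  refine ⟨Z, R, C, ρ, n1 * n3 * n4, n3 * n4, n1 * n4, hC1, hCf, hCu, ?_, ?_, ?_, hρ0, ?_, ?_, ?_,
    ?_, ?_, le_refl _, ?_⟩
  · intro z hz u hu v hv hne
    have h := h1 (z, u, v) (Finset.mem_product.2 ⟨hz, Finset.mem_product.2 ⟨hu, hv⟩⟩)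
      (norm_pos_iff.2 (sub_ne_zero.2 hne))
    simp only at h
    push_cast
    have e : (8 : ℝ) ≤ 8 * C := by linarith
    have e' : 8 < n1 * ‖pt u z - pt v z‖ :=
      e.trans_lt (k1.trans_le (mul_le_mul_of_nonneg_left h.le hn1p.le))
    calc 8 * ((n3 : ℝ) * n4) < (n1 * ‖pt u z - pt v z‖) * (n3 * n4) :=
          mul_lt_mul_of_pos_right e' (mul_pos hn3p hn4p)
      _ = _ := by ring
  · intro z hz f hf u hu hne
    have h := h2 (z, f, u) (Finset.mem_product.2 ⟨hz, Finset.mem_product.2 ⟨hf, hu⟩⟩)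
      (abs_pos.2 hne)
    simp only at h
    push_cast
    have e' : 8 * C < n1 * |ev f (pt u z)| := k2.trans_le (mul_le_mul_of_nonneg_left h.le hn1p.le)
    calc 8 * C * ((n3 : ℝ) * n4) < (n1 * |ev f (pt u z)|) * (n3 * n4) :=
          mul_lt_mul_of_pos_right e' (mul_pos hn3p hn4p)
      _ = _ := by ring
  · intro z hz z' hz' hlt
    have h := h3 (z, z') (Finset.mem_product.2 ⟨hz, hz'⟩) (sub_pos.2 hlt)
    simp only at h
    push_cast
    have e : (8 : ℝ) ≤ 8 * C := by linarith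
    have e' : 8 < n1 * (z' - z) := e.trans_lt (k3.trans_le (mul_le_mul_of_nonneg_left h.le hn1p.le))
    calc 8 * ((n3 : ℝ) * n4) < (n1 * (z' - z)) * (n3 * n4) :=
          mul_lt_mul_of_pos_right e' (mul_pos hn3p hn4p)
      _ = _ := by ring
  · push_cast
    rw [hρ]
    apply le_of_eq
    field_simp
  · intro t ht hz u hu v hv hne
    have huv : u ≠ v := fun h => hne (by rw [h])
    have h := h4 (u, v) (Finset.mem_filter.2 ⟨Finset.mem_product.2 ⟨hu, hv⟩, huv⟩) t ⟨ht, hz⟩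
    simp only at h
    push_cast
    have e : (8 : ℝ) ≤ 8 * C := by linarith
    have e' : 8 < n3 * ‖pt u t - pt v t‖ :=
      e.trans_lt (k4.trans_le (mul_le_mul_of_nonneg_left h.le hn3p.le))
    calc 8 * ((n1 : ℝ) * n4) < (n3 * ‖pt u t - pt v t‖) * (n1 * n4) :=
          mul_lt_mul_of_pos_right e' (mul_pos hn1p hn4p)
      _ = _ := by ring
  · intro t ht hz f hf u hu hne
    have h := h5 (f, u) (Finset.mem_filter.2 ⟨Finset.mem_product.2 ⟨hf, hu⟩, hne⟩) t ⟨ht, hz⟩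
    simp only at h
    push_cast
    have e' : 8 * C < n3 * |ev f (pt u t)| := k5.trans_le (mul_le_mul_of_nonneg_left h.le hn3p.le)
    calc 8 * C * ((n1 : ℝ) * n4) < (n3 * |ev f (pt u t)|) * (n1 * n4) :=
          mul_lt_mul_of_pos_right e' (mul_pos hn1p hn4p)
      _ = _ := by ring
  · push_cast
    nlinarith
  · have : n1 < n3 := by exact_mod_cast hn3a
    exact Nat.mul_le_mul_right _ this.le
  · have h8 : (8 : ℝ) < n4 := by linarith
    have h9 : 8 < n4 := by exact_mod_cast h8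
    have h10 : 1 ≤ n1 := by exact_mod_cast n1'
    have h11 : 1 ≤ n3 := by exact_mod_cast n3'
    calc 4 ≤ 1 * 1 * n4 := by omega
      _ ≤ n1 * n3 * n4 := Nat.mul_le_mul_right _ (Nat.mul_le_mul h10 h11)

/-- **(L2)** -/
theorem slabs (F : Finset Af) (L : Finset Ln) (a2 : ∀ u ∈ L, u.1 2 = 0) (b2 : ∀ u ∈ L, u.2 2 = 1)
    (K : ℝ) : ∃ G : ℕ, 0 < G ∧ ∃ (σ : Type) (_ : Fintype σ) (lo hi aw : σ → ℤ) (τ : σ → ℝ)
      (tw : σ → Prop), Slb (scl G F) (sclL G L) (G * K + 1) lo hi aw τ tw := by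
  obtain ⟨Z, R, C, ρ, G, a, a', H⟩ := exists_prm F L K
  have hG := H.pos
  have hGn : 0 < G := by exact_mod_cast hG
  have h4 : (4 : ℝ) ≤ G := by exact_mod_cast H.G4
  set B : ℤ := ⌈(G : ℝ) * K⌉ + 2 with hBdef
  have c1 := Int.le_ceil ((G : ℝ) * K)
  have c2 := Int.ceil_lt_add_one ((G : ℝ) * K)
  have hB : (B : ℝ) + 1 ≤ R * G := by
    rw [hBdef]
    push_cast
    have h5 : K ≤ |K| := le_abs_self K
    have h6 := H.hR
    have h7 : (K + 1) * G ≤ R * G := mul_le_mul_of_nonneg_right (by linarith) hG.le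
    nlinarith
  have hB' : G * K + 2 ≤ B := by
    rw [hBdef]
    push_cast
    linarith
  exact ⟨G, hGn, Sg Z ρ G B, inferInstance, _, _, _, _, _, slb_of_prm H a2 b2 hB hB'⟩

end Crest.Agent.R096.Ex_914
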