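import Crest.Agent.R096.Ex3_422

/-!
# One-step exchange on finite Z/2 cell complexes, part 4

H1 of the new sheets.
-/

set_option autoImplicit false

namespace Crest.Agent.R096.Ex_422

open Finset Classical

variable {V E F I Γ : Type*}

/-- boundary sums -/
theorem sum_bd {F E : Type*} (N : Finset F) (b : F → Finset E) (κ : E → ZMod 2) (Bd : Finset E)
    (h1 : ∀ ε ∈ Bd, ∃ f, N.filter (fun g => ε ∈ b g) = {f})
    (h2 : ∀ ε, ε ∉ Bd → ∀ f ∈ N, ε ∈ b f →
      ∃ g, f ≠ g ∧ N.filter (fun g => ε ∈ b g) = {f, g}) :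
    ∑ f ∈ N, ∑ ε ∈ b f, κ ε = ∑ ε ∈ Bd, κ ε := by
  have h3 : ∑ f ∈ N, ∑ ε ∈ b f, κ ε =
      ∑ ε ∈ N.biUnion b, ∑ _f ∈ N.filter (fun g => ε ∈ b g), κ ε := by
    refine Finset.sum_comm' ?_
    intro f ε
    simp only [Finset.mem_filter, Finset.mem_biUnion]
    constructor
    · rintro ⟨h3, h4⟩
      exact ⟨⟨h3, h4⟩, f, h3, h4⟩
    · rintro ⟨⟨h3, h4⟩, -⟩
      exact ⟨h3, h4⟩
  rw [h3]
  have h4 : Bd ⊆ N.biUnion b := by
    intro ε hε
    obtain ⟨f, hf⟩ := h1 ε hε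
    have : f ∈ N.filter (fun g => ε ∈ b g) := by rw [hf]; exact Finset.mem_singleton_self f
    rw [Finset.mem_filter] at this
    exact Finset.mem_biUnion.2 ⟨f, this.1, this.2⟩
  symm
  refine Eq.trans ?_ (Finset.sum_subset h4 ?_)
  · refine Finset.sum_congr rfl fun ε hε => ?_
    obtain ⟨f, hf⟩ := h1 ε hε
    rw [hf, Finset.sum_singleton]
  · intro ε hε hn
    obtain ⟨f, hf, hfε⟩ := Finset.mem_biUnion.1 hε
    obtain ⟨g, hg, hfg⟩ := h2 ε hn f hf hfε
    rw [hfg, Finset.sum_pair hg]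
    exact CharTwo.add_self_eq_zero _

section

variable {K : Sys V E F I} (C : Cur K Γ)

/-- an alive node -/
def Cur.Alive [Finite Γ] (C : Cur K Γ) (i : I) (ν : Nd I Γ) : Prop := C.Anc ν (Sum.inl i)

/-- cocycle on a new sheet -/
def Cur.Coc [Finite Γ] (C : Cur K Γ) (i : I) (κ : E × Bool → ZMod 2) : Prop :=
  ∀ f ∈ C.S' i, ∑ e ∈ C.bF' f, κ e = 0

theorem Cur.sum_bF' (κ : E × Bool → ZMod 2) (f : F) :
    ∑ e ∈ C.bF' f, κ e = ∑ e ∈ K.bF f, κ (e, C.ec f e) := by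
  unfold Cur.bF'
  rw [Finset.sum_map]
  rfl

theorem Cur.sum_bE' (ψ : V × Bool → ZMod 2) (e : E × Bool) :
    ∑ v ∈ C.bE' e, ψ v = ∑ v ∈ K.bE e.1, ψ (v, C.vc e.1 e.2 v) := by
  unfold Cur.bE'
  rw [Finset.sum_map]
  rfl

/-- a cocycle of the new sheet has sum zero on every alive copy of a curve -/
theorem Cur.sum_cur [Finite Γ] [Finite F] {i : I} {κ : E × Bool → ZMod 2} (hκ : C.Coc i κ)
    {x : Bool} {γ : Γ} (ha : C.Anc (Sum.inr (x, γ)) (Sum.inl i)) :
    ∑ e ∈ C.c γ, κ (e, !x) = 0 := by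
  have := Fintype.ofFinite F
  set ν : Nd I Γ := Sum.inr (x, γ) with hν
  set N : Finset F := Finset.univ.filter (fun f => ∃ μ, f ∈ C.Rg μ ∧ C.Anc μ ν) with hN
  have hmN : ∀ {f : F} {μ : Nd I Γ}, f ∈ C.Rg μ → (f ∈ N ↔ C.Anc μ ν) := by
    intro f μ hf
    rw [hN, Finset.mem_filter]
    constructor
    · rintro ⟨-, μ', hμ', h⟩
      rwa [C.rg_unique hf hμ']
    · exact fun h => ⟨Finset.mem_univ f, μ, hf, h⟩
  have hNS : ∀ f ∈ N, f ∈ C.S' i := by
    intro f hf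
    obtain ⟨-, μ, hμ, h⟩ := Finset.mem_filter.1 hf
    exact ⟨μ, hμ, Relation.ReflTransGen.trans h ha⟩
  have hzero : ∑ f ∈ N, ∑ ε ∈ C.bF' f, κ ε = 0 :=
    Finset.sum_eq_zero fun f hf => hκ f (hNS f hf)
  have hmap : ∑ e ∈ C.c γ, κ (e, !x) =
      ∑ ε ∈ (C.c γ).map ⟨fun e => (e, !x), fun e e' h => (Prod.mk.inj h).1⟩, κ ε := by
    rw [Finset.sum_map]
    rfl
  rw [hmap, ← hzero]
  symm
  refine sum_bd N C.bF' κ _ ?_ ?_
  · rintro ε hε
    obtain ⟨e, he, rfl⟩ := Finset.mem_map.1 hε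
    obtain ⟨o, n, -, -, -, hne, heo, hen, hco, hcn, hRo, hRn, -, hall⟩ := C.exists_pair he (!x)
    rw [Bool.not_not] at hRn
    refine ⟨n, ?_⟩
    ext h
    simp only [Finset.mem_filter, Finset.mem_singleton]
    constructor
    · rintro ⟨h1, h2⟩
      obtain ⟨heh, hch⟩ := C.mem_bF'.1 h2
      obtain ⟨q, hq⟩ := C.exists_old (hNS h h1)
      rcases hall q h hq heh hch with h3 | h3
      · exfalso
        rw [h3] at h1
        exact C.no_cycle ha (C.r_inr x γ) ((hmN hRo).1 h1)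
      · exact h3
    · rintro rfl
      exact ⟨(hmN hRn).2 Relation.ReflTransGen.refl, C.mem_bF'.2 ⟨hen, hcn⟩⟩
  · rintro ⟨e, β⟩ hε f hf hfε
    obtain ⟨hef, hcf⟩ := C.mem_bF'.1 hfε
    obtain ⟨p, hp⟩ := C.exists_old (hNS f hf)
    by_cases hd : C.Dbl e
    · obtain ⟨δ, hδ⟩ := hd
      obtain ⟨o, n, ho, hoD, hn, hne, heo, hen, hco, hcn, hRo, hRn, hS, hall⟩ :=
        C.exists_pair hδ β
      have hon : o ∈ N ↔ n ∈ N := by
        rw [hmN hRo, hmN hRn]
        constructor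
        · intro h
          refine Relation.ReflTransGen.head (b := C.up β δ) ?_ h
          have := C.r_inr (!β) δ
          rwa [Bool.not_not] at this
        · intro h
          rcases Relation.ReflTransGen.cases_head h with h1 | ⟨d, h1, h2⟩
          · exfalso
            rw [hν] at h1
            have h2 := Prod.mk.inj (Sum.inr_injective h1)
            apply hε
            refine Finset.mem_map.2 ⟨e, by rw [← h2.2]; exact hδ, ?_⟩
            change (e, !x) = (e, β)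
            rw [← h2.1, Bool.not_not]
          · have h3 := C.r_inr (!β) δ
            rw [Bool.not_not] at h3
            rwa [← C.r_unique h1 h3]
      have hboth : o ∈ N ∧ n ∈ N := by
        rcases hall p f hp hef hcf with h | h
        · rw [h] at hf; exact ⟨hf, hon.1 hf⟩
        · rw [h] at hf; exact ⟨hon.2 hf, hf⟩
      have hfil : N.filter (fun g => (e, β) ∈ C.bF' g) = {o, n} := by
        ext h
        simp only [Finset.mem_filter, Finset.mem_insert, Finset.mem_singleton]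
        constructor
        · rintro ⟨h1, h2⟩
          obtain ⟨heh, hch⟩ := C.mem_bF'.1 h2
          obtain ⟨q, hq⟩ := C.exists_old (hNS h h1)
          exact hall q h hq heh hch
        · rintro (rfl | rfl)
          · exact ⟨hboth.1, C.mem_bF'.2 ⟨heo, hco⟩⟩
          · exact ⟨hboth.2, C.mem_bF'.2 ⟨hen, hcn⟩⟩
      rcases hall p f hp hef hcf with h | h
      · refine ⟨n, h ▸ hne, ?_⟩
        rw [h]
        convert hfil
      · refine ⟨o, h ▸ Ne.symm hne, ?_⟩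
        rw [h, Finset.pair_comm]
        convert hfil
    · obtain ⟨g, hg, hgf, heg, hall⟩ := K.man hp hef
      obtain ⟨-, μ, hμ, hanc⟩ := Finset.mem_filter.1 hf
      have hgμ : g ∈ C.Rg μ := C.rg_edge hp hg hef heg hd hμ
      refine ⟨g, Ne.symm hgf, ?_⟩
      ext h
      simp only [Finset.mem_filter, Finset.mem_insert, Finset.mem_singleton]
      constructor
      · rintro ⟨h1, h2⟩
        obtain ⟨heh, -⟩ := C.mem_bF'.1 h2
        obtain ⟨q, hq⟩ := C.exists_old (hNS h h1)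
        have hpq : p = q := C.same_old_edge (hNS f hf) (hNS h h1) hp hq hef heh hd
        exact hall h (by rw [hpq]; exact hq) heh
      · rintro (rfl | rfl)
        · exact ⟨hf, hfε⟩
        · refine ⟨(hmN hgμ).2 hanc, C.mem_bF'.2 ⟨heg, ?_⟩⟩
          rw [← hcf, C.ec_off hd, C.ec_off hd]

/-- primitives on the alive copies of the curves -/
theorem Cur.exists_theta [Finite Γ] [Finite F] {i : I} {κ : E × Bool → ZMod 2}
    (hκ : C.Coc i κ) : ∃ θ : Γ → Bool → V → ZMod 2, ∀ γ β,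
      C.Anc (C.up β γ) (Sum.inl i) → ∀ e ∈ C.c γ, κ (e, β) = ∑ v ∈ K.bE e, θ γ β v := by
  have h : ∀ (γ : Γ) (β : Bool), ∃ θ : V → ZMod 2, C.Anc (C.up β γ) (Sum.inl i) →
      ∀ e ∈ C.c γ, κ (e, β) = ∑ v ∈ K.bE e, θ v := by
    intro γ β
    by_cases ha : C.Anc (C.up β γ) (Sum.inl i)
    · have ha' : C.Anc (Sum.inr (!β, γ)) (Sum.inl i) := by
        rw [C.anc_up_iff, Bool.not_not]; exact ha
      have h1 := C.sum_cur hκ ha'
      rw [Bool.not_not] at h1
      obtain ⟨θ, hθ⟩ := C.prim γ (fun e => κ (e, β)) h1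
      exact ⟨θ, fun _ => hθ⟩
    · exact ⟨0, fun h => absurd h ha⟩
  choose θ hθ using h
  exact ⟨θ, hθ⟩

/-- the tile copy at a curve depends on the region only -/
theorem Cur.tc_rg {ν : Nd I Γ} {f g : F} (hf : f ∈ C.Rg ν) (hg : g ∈ C.Rg ν) (γ : Γ) :
    C.tc f γ = C.tc g γ := by
  have h1 : K.fc f = K.fc g := by
    rw [K.fc_eq (C.rg_sub ν hf), K.fc_eq (C.rg_sub ν hg)]
  unfold Cur.tc
  rw [h1]
  by_cases h : f ∈ C.D (K.fc g) γ
  · rw [if_pos h, if_pos (C.rg_same hf hg h)]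
  · rw [if_neg h, if_neg (fun h' => h (C.rg_same hg hf h'))]

/-- the region of a tile at a curve, via its copy -/
theorem Cur.anc_tc [Finite Γ] {i : I} {ν : Nd I Γ} {f : F} {γ : Γ} {v : V} (hf : f ∈ C.Rg ν)
    (ha : C.Anc ν (Sum.inl i)) (hfv : K.At f v) (hv : C.On γ v) :
    C.Anc (C.up (C.tc f γ) γ) (Sum.inl i) := by
  have hfS : f ∈ C.S' i := ⟨ν, hf, ha⟩
  have hvt : C.vt f v = C.tc f γ := C.vt_on hv f
  rcases C.copy_cases (C.rg_sub ν hf) hfv hv hvt with h | h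
  · exact (C.mem_S'_iff (C.rg_out h.1 h.2 hfv hv)).1 hfS
  · have h2 := (C.mem_S'_iff (C.rg_in h hfv hv)).1 hfS
    rwa [C.anc_up_iff, Bool.not_not] at h2

/-- primitives on the regions -/
theorem Cur.exists_psi [Finite Γ] [Finite F] {i : I} {κ : E × Bool → ZMod 2}
    (hκ : C.Coc i κ) : ∃ ψ : Nd I Γ → V → ZMod 2, ∀ ν, C.Anc ν (Sum.inl i) → ∀ f ∈ C.Rg ν,
      ∀ e ∈ K.bF f, κ (e, C.ec f e) = ∑ v ∈ K.bE e, ψ ν v := by
  obtain ⟨θ, hθ⟩ := C.exists_theta hκ
  have h : ∀ ν : Nd I Γ, ∃ ψ : V → ZMod 2, C.Anc ν (Sum.inl i) → ∀ f ∈ C.Rg ν,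
      ∀ e ∈ K.bF f, κ (e, C.ec f e) = ∑ v ∈ K.bE e, ψ v := by
    intro ν
    by_cases hne : C.Anc ν (Sum.inl i) ∧ ∃ f₀, f₀ ∈ C.Rg ν
    · obtain ⟨ha, f₀, hf₀⟩ := hne
      set p := C.shN ν with hp
      set Θ : V → ZMod 2 := fun v =>
        if h : ∃ γ, C.On γ v then θ (Classical.choose h) (C.tc f₀ (Classical.choose h)) v else 0
        with hΘ
      have hΘon : ∀ {γ : Γ} {v : V}, C.On γ v → Θ v = θ γ (C.tc f₀ γ) v := by
        intro γ v hv
        have h1 : ∃ γ, C.On γ v := ⟨γ, hv⟩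
        simp only [hΘ]
        rw [dif_pos h1]
        have h2 : Classical.choose h1 = γ := C.on_unique (Classical.choose_spec h1) hv
        rw [h2]
      set κ₁ : E → ZMod 2 := fun e =>
        if h : ∃ f ∈ C.Rg ν, e ∈ K.bF f then κ (e, C.ec (Classical.choose h) e)
        else ∑ v ∈ K.bE e, Θ v with hκ₁
      -- on edges of the region
      have hin : ∀ f ∈ C.Rg ν, ∀ e ∈ K.bF f, κ₁ e = κ (e, C.ec f e) := by
        intro f hf e he
        have h1 : ∃ f ∈ C.Rg ν, e ∈ K.bF f := ⟨f, hf, he⟩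
        simp only [hκ₁]
        rw [dif_pos h1]
        obtain ⟨h2, h3⟩ := Classical.choose_spec h1
        set g := Classical.choose h1
        congr 2
        by_cases hd : C.Dbl e
        · obtain ⟨δ, hδ⟩ := hd
          rw [C.ec_dbl hδ, C.ec_dbl hδ]
          exact C.tc_rg h2 hf δ
        · rw [C.ec_off hd, C.ec_off hd]
      -- curve edges at the region
      have hcurve : ∀ f ∈ C.Rg ν, ∀ e ∈ K.bF f, C.Dbl e → κ₁ e = ∑ v ∈ K.bE e, Θ v := by
        rintro f hf e he ⟨δ, hδ⟩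
        rw [hin f hf e he, C.ec_dbl hδ]
        obtain ⟨v, hv⟩ := K.exists_end e
        have h1 := C.anc_tc hf ha ⟨e, he, hv⟩ ⟨e, hδ, hv⟩
        rw [hθ δ _ h1 e hδ]
        refine Finset.sum_congr rfl fun u hu => ?_
        rw [hΘon ⟨e, hδ, hu⟩, C.tc_rg hf hf₀ δ]
      have hcoc : ∀ f ∈ K.S p, ∑ e ∈ K.bF f, κ₁ e = 0 := by
        intro f hf
        by_cases hfν : f ∈ C.Rg ν
        · have h1 := hκ f ⟨ν, hfν, ha⟩
          rw [C.sum_bF'] at h1
          rw [← h1]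
          exact Finset.sum_congr rfl fun e he => hin f hfν e he
        · rw [← K.dd hf Θ]
          refine Finset.sum_congr rfl fun e he => ?_
          by_cases h1 : ∃ g ∈ C.Rg ν, e ∈ K.bF g
          · obtain ⟨g, hg, heg⟩ := h1
            refine hcurve g hg e heg ?_
            by_contra hd
            exact hfν (C.rg_edge (C.rg_sub ν hg) hf heg he hd hg)
          · simp only [hκ₁]
            rw [dif_neg h1]
      obtain ⟨ψ, hψ⟩ := K.h1 p κ₁ hcoc
      refine ⟨ψ, fun _ f hf e he => ?_⟩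
      rw [← hin f hf e he]
      exact hψ f (C.rg_sub ν hf) e he
    · refine ⟨0, fun ha f hf => ?_⟩
      exact absurd ⟨ha, f, hf⟩ hne
  choose ψ hψ using h
  exact ⟨ψ, hψ⟩

/-- the primitives of a region and of its parent differ by a constant along the curve -/
theorem Cur.exists_t [Finite Γ] {i : I} {κ : E × Bool → ZMod 2} {ψ : Nd I Γ → V → ZMod 2}
    (hψ : ∀ ν, C.Anc ν (Sum.inl i) → ∀ f ∈ C.Rg ν,
      ∀ e ∈ K.bF f, κ (e, C.ec f e) = ∑ v ∈ K.bE e, ψ ν v) :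
    ∃ t : Bool × Γ → ZMod 2, ∀ x γ, C.Anc (Sum.inr (x, γ)) (Sum.inl i) → ∀ v, C.On γ v →
      ψ (Sum.inr (x, γ)) v + ψ (C.up (!x) γ) v = t (x, γ) := by
  have h : ∀ y : Bool × Γ, ∃ t : ZMod 2, C.Anc (Sum.inr (y.1, y.2)) (Sum.inl i) → ∀ v,
      C.On y.2 v → ψ (Sum.inr (y.1, y.2)) v + ψ (C.up (!y.1) y.2) v = t := by
    rintro ⟨x, γ⟩
    obtain ⟨v₀, e₀, he₀, hv₀⟩ := C.exists_on γ
    refine ⟨ψ (Sum.inr (x, γ)) v₀ + ψ (C.up (!x) γ) v₀, fun ha v hv => ?_⟩
    obtain ⟨e', he', hv'⟩ := hv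
    have ha' : C.Anc (C.up (!x) γ) (Sum.inl i) := (C.anc_up_iff).1 ha
    refine C.cir γ (fun u => ψ (Sum.inr (x, γ)) u + ψ (C.up (!x) γ) u =
      ψ (Sum.inr (x, γ)) v₀ + ψ (C.up (!x) γ) v₀) ?_ e₀ he₀ v₀ hv₀ rfl e' he' v hv'
    intro e he u hu w hw huv
    obtain ⟨o, n, -, -, -, -, heo, hen, hco, hcn, hRo, hRn, -, -⟩ := C.exists_pair he (!x)
    rw [Bool.not_not] at hRn
    have h1 := hψ _ ha' o hRo e heo
    have h2 := hψ _ ha n hRn e hen
    rw [hco] at h1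
    rw [hcn, h1] at h2
    rw [← huv]
    by_cases huw : u = w
    · rw [huw]
    · have hpair : K.bE e = {u, w} := by
        symm
        refine Finset.eq_of_subset_of_card_le ?_ ?_
        · intro z hz
          rw [Finset.mem_insert, Finset.mem_singleton] at hz
          rcases hz with rfl | rfl
          · exact hu
          · exact hw
        · rw [K.two e, Finset.card_pair huw]
      rw [hpair, Finset.sum_pair huw, Finset.sum_pair huw] at h2
      -- h2 : ψ_up u + ψ_up w = ψ_in u + ψ_in w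
      have aux : ∀ a b c d : ZMod 2, a + b = c + d → d + b = c + a := by decide
      exact aux _ _ _ _ h2
  choose t ht using h
  exact ⟨t, fun x γ => ht (x, γ)⟩

/-- sums along the parent chains -/
theorem Cur.exists_tau [Finite Γ] (i : I) (t : Bool × Γ → ZMod 2) :
    ∃ τ : Nd I Γ → ZMod 2, ∀ x γ, C.Anc (Sum.inr (x, γ)) (Sum.inl i) →
      τ (Sum.inr (x, γ)) = t (x, γ) + τ (C.up (!x) γ) := by
  have := Fintype.ofFinite Γ
  refine ⟨fun ν => ∑ y : Bool × Γ, if C.Anc ν (Sum.inr y) then t y else 0, fun x γ ha => ?_⟩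
  have h1 : ∀ y : Bool × Γ, (if C.Anc (Sum.inr (x, γ)) (Sum.inr y) then t y else 0) =
      (if y = (x, γ) then t y else 0) +
        (if C.Anc (C.up (!x) γ) (Sum.inr y) then t y else 0) := by
    intro y
    by_cases hy : y = (x, γ)
    · subst hy
      have h2 := C.no_cycle ha (C.r_inr x γ)
      have h3 : C.Anc (Sum.inr (x, γ)) (Sum.inr (x, γ)) := Relation.ReflTransGen.refl
      rw [if_pos h3, if_pos rfl, if_neg h2, add_zero]
    · have h2 : C.Anc (Sum.inr (x, γ)) (Sum.inr y) ↔ C.Anc (C.up (!x) γ) (Sum.inr y) := by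
        constructor
        · intro h
          rcases Relation.ReflTransGen.cases_head h with h3 | ⟨d, h3, h4⟩
          · exact absurd (Sum.inr_injective h3).symm hy
          · rwa [← C.r_unique h3 (C.r_inr x γ)]
        · exact fun h => Relation.ReflTransGen.head (C.r_inr x γ) h
      rw [if_neg hy, zero_add]
      by_cases h3 : C.Anc (Sum.inr (x, γ)) (Sum.inr y)
      · rw [if_pos h3, if_pos (h2.1 h3)]
      · rw [if_neg h3, if_neg (fun h => h3 (h2.2 h))]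
  simp only
  rw [Finset.sum_congr rfl (fun y _ => h1 y), Finset.sum_add_distrib, Finset.sum_ite_eq']
  simp

/-- H1 of the new sheets -/
theorem Cur.h1' [Finite Γ] [Finite F] (i : I) (κ : E × Bool → ZMod 2) (hκ : C.Coc i κ) :
    ∃ Ψ : V × Bool → ZMod 2, ∀ f ∈ C.S' i, ∀ e ∈ C.bF' f, κ e = ∑ v ∈ C.bE' e, Ψ v := by
  obtain ⟨ψ, hψ⟩ := C.exists_psi hκ
  obtain ⟨t, ht⟩ := C.exists_t hψ
  obtain ⟨τ, hτ⟩ := C.exists_tau i t
  -- well-definedness
  have hwd : ∀ (v : V) (ν μ : Nd I Γ) (f g : F), f ∈ C.Rg ν → g ∈ C.Rg μ →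
      C.Anc ν (Sum.inl i) → C.Anc μ (Sum.inl i) → K.At f v → K.At g v → C.vt f v = C.vt g v →
      ψ ν v + τ ν = ψ μ v + τ μ := by
    intro v ν μ f g hf hg hν hμ hfv hgv hvt
    by_cases hon : ∃ γ, C.On γ v
    · obtain ⟨γ, hγ⟩ := hon
      set β := C.vt g v with hβ
      -- the key equality
      have hkey : C.Anc (C.up β γ) (Sum.inl i) →
          ψ (Sum.inr (!β, γ)) v + τ (Sum.inr (!β, γ)) = ψ (C.up β γ) v + τ (C.up β γ) := by
        intro ha
        have ha' : C.Anc (Sum.inr (!β, γ)) (Sum.inl i) := by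
          rw [C.anc_up_iff, Bool.not_not]; exact ha
        have h1 := ht (!β) γ ha' v hγ
        have h2 := hτ (!β) γ ha'
        rw [Bool.not_not] at h1 h2
        rw [h2, ← h1]
        have aux : ∀ a b c : ZMod 2, a + (a + b + c) = b + c := by decide
        exact aux _ _ _
      have hanc : C.Anc (C.up β γ) (Sum.inl i) := by
        have := C.anc_tc hg hμ hgv hγ
        rwa [← C.vt_on hγ, ← hβ] at this
      have hval : ∀ (ρ : Nd I Γ) (a : F), a ∈ C.Rg ρ → K.At a v → C.vt a v = β →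
          ψ ρ v + τ ρ = ψ (C.up β γ) v + τ (C.up β γ) := by
        intro ρ a ha hav hvt
        rcases C.copy_cases (C.rg_sub ρ ha) hav hγ hvt with h | h
        · rw [C.rg_unique ha (C.rg_out h.1 h.2 hav hγ)]
        · rw [C.rg_unique ha (C.rg_in h hav hγ)]
          exact hkey hanc
      rw [hval ν f hf hfv hvt, hval μ g hg hgv rfl]
    · push Not at hon
      have hpq := C.same_old ⟨ν, hf, hν⟩ ⟨μ, hg, hμ⟩ (C.rg_sub ν hf) (C.rg_sub μ hg) hfv hgv hon
      have hgS := C.rg_sub μ hg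
      rw [← hpq] at hgS
      have h1 := C.rg_vert (C.rg_sub ν hf) hgS hfv hgv hon hf
      rw [C.rg_unique h1 hg]
  set Ψ : V × Bool → ZMod 2 := fun w =>
    if h : ∃ a : Nd I Γ × F, a.2 ∈ C.Rg a.1 ∧ C.Anc a.1 (Sum.inl i) ∧ K.At a.2 w.1 ∧
      C.vt a.2 w.1 = w.2 then ψ (Classical.choose h).1 w.1 + τ (Classical.choose h).1 else 0
    with hΨ
  refine ⟨Ψ, ?_⟩
  rintro f ⟨ν, hf, hν⟩ ⟨e, β⟩ hε
  obtain ⟨he, hβ⟩ := C.mem_bF'.1 hε
  subst hβ
  rw [hψ ν hν f hf e he, C.sum_bE']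
  have hval : ∀ v ∈ K.bE e, Ψ (v, C.vc e (C.ec f e) v) = ψ ν v + τ ν := by
    intro v hv
    rw [C.vc_eq (C.rg_sub ν hf) he hv]
    have h1 : ∃ a : Nd I Γ × F, a.2 ∈ C.Rg a.1 ∧ C.Anc a.1 (Sum.inl i) ∧ K.At a.2 v ∧
      C.vt a.2 v = C.vt f v := ⟨(ν, f), hf, hν, ⟨e, he, hv⟩, rfl⟩
    simp only [hΨ]
    rw [dif_pos h1]
    obtain ⟨h2, h3, h4, h5⟩ := Classical.choose_spec h1
    exact hwd v _ ν _ f h2 hf h3 hν h4 ⟨e, he, hv⟩ h5
  change _ = ∑ v ∈ K.bE e, Ψ (v, C.vc e (C.ec f e) v)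
  rw [Finset.sum_congr rfl hval, Finset.sum_add_distrib, Finset.sum_const, K.two e]
  have h2 : (2 : ℕ) • τ ν = 0 := by
    rw [two_nsmul]
    exact CharTwo.add_self_eq_zero _
  rw [h2, add_zero]

end

end Crest.Agent.R096.Ex_422
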