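import Crest.Agent.R096.Ex4_422

/-!
# One-step exchange on finite Z/2 cell complexes, part 5

The exchanged system as a term, its double points, its weights.
-/

set_option autoImplicit false

namespace Crest.Agent.R096.Ex_422

open Finset Classical

variable {V E F I Γ : Type*}

section

variable {K : Sys V E F I} (C : Cur K Γ)

/-- **THE EXCHANGED SYSTEM.** Same tiles, same names and colours of the sheets; every edge and
every vertex on a curve is doubled. -/
noncomputable def Cur.ex [Finite Γ] [Finite F] (C : Cur K Γ) : Sys (V × Bool) (E × Bool) F I where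
  bF := C.bF'
  bE := C.bE'
  two := fun e => by
    unfold Cur.bE'
    rw [Finset.card_map]
    exact K.two e.1
  col := K.col
  S := C.S'
  disj := C.disj'
  dd := C.dd'
  man := C.man'
  conn := C.conn'
  link := C.link'
  h1 := C.h1'
  sep := C.sep'

variable [Finite Γ] [Finite F]

@[simp] theorem Cur.ex_col : C.ex.col = K.col := rfl

theorem Cur.ex_bF {f : F} {e : E} {β : Bool} :
    (e, β) ∈ C.ex.bF f ↔ e ∈ K.bF f ∧ C.ec f e = β := C.mem_bF'

theorem Cur.ex_bE {e : E} {β β' : Bool} {v : V} :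
    (v, β') ∈ C.ex.bE (e, β) ↔ v ∈ K.bE e ∧ C.vc e β v = β' := C.mem_bE'

theorem Cur.ex_at {i : I} {f : F} (hf : f ∈ K.S i) {v : V} {β : Bool} :
    C.ex.At f (v, β) ↔ K.At f v ∧ C.vt f v = β := C.at'_iff hf

/-- every tile of a new sheet is a tile of an old sheet -/
theorem Cur.ex_old {i : I} {f : F} (hf : f ∈ C.ex.S i) : ∃ p, f ∈ K.S p := C.exists_old hf

/-- a tile in no inner disc stays in its sheet -/
theorem Cur.ex_stay {i : I} {f : F} (hf : f ∈ K.S i) (h : ∀ x γ, f ∉ C.D x γ) : f ∈ C.ex.S i :=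
  C.stay hf h

theorem Cur.ex_root (i : I) : C.root i ∈ C.ex.S i := C.root_mem' i

/-- **DOUBLE POINTS.** Tiles of two different new sheets with a common new vertex: the vertex is
on no curve, the tiles are in no inner disc and in the old sheets of the same names. -/
theorem Cur.ex_dbl {i j : I} {f g : F} {v : V} {β : Bool} (hij : i ≠ j) (hf : f ∈ C.ex.S i)
    (hg : g ∈ C.ex.S j) (hfv : C.ex.At f (v, β)) (hgv : C.ex.At g (v, β)) :
    (∀ γ, ¬ C.On γ v) ∧ f ∈ K.S i ∧ g ∈ K.S j ∧ (∀ x γ, f ∉ C.D x γ) ∧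
      (∀ x γ, g ∉ C.D x γ) := by
  obtain ⟨p, hp⟩ := C.exists_old hf
  obtain ⟨q, hq⟩ := C.exists_old hg
  obtain ⟨hf1, hf2⟩ := (C.at'_iff hp).1 hfv
  obtain ⟨hg1, hg2⟩ := (C.at'_iff hq).1 hgv
  have hoff : ∀ γ, ¬ C.On γ v := by
    intro γ hγ
    exact hij (C.sep_strong hf hg hf1 hg1 (by rw [hf2, hg2]) hγ)
  have hv' : ∀ γ, ∀ e ∈ C.c γ, v ∉ K.bE e := fun γ e he hve => hoff γ ⟨e, he, hve⟩
  by_cases hpq : K.col p = K.col q
  · exfalso
    have hpq' : p = q := K.sep hp hq hf1 hg1 hpq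
    subst hpq'
    obtain ⟨ν, hν, hanc⟩ := hf
    have hgν := C.rg_vert hp hq hf1 hg1 hoff hν
    exact hij (C.anc_root_unique hanc ((C.mem_S'_iff hgν).1 hg))
  · have h1 := C.ess hp hq hpq hf1 hg1 hv'
    have h2 := C.ess hq hp (Ne.symm hpq) hg1 hf1 hv'
    have h3 := C.inl_of hf hp h1
    have h4 := C.inl_of hg hq h2
    subst h3
    subst h4
    exact ⟨hoff, hp, hq, h1, h2⟩

/-- new sheets at a vertex off the curves: the map 'new sheet ↦ old sheet of its tile' is well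
defined and injective -/
theorem Cur.ex_vert {i j p : I} {f g : F} {v : V} (hv : ∀ γ, ¬ C.On γ v)
    (hf : f ∈ C.ex.S i) (hg : g ∈ C.ex.S j) (hp : f ∈ K.S p) (hq : g ∈ K.S p)
    (hfv : K.At f v) (hgv : K.At g v) : i = j := by
  obtain ⟨ν, hν, hanc⟩ := hf
  have hgν := C.rg_vert hp hq hfv hgv hv hν
  exact C.anc_root_unique hanc ((C.mem_S'_iff hgν).1 hg)

theorem Cur.ex_vert_inj {i p q : I} {f g : F} {v : V} (hv : ∀ γ, ¬ C.On γ v)
    (hf : f ∈ C.ex.S i) (hg : g ∈ C.ex.S i) (hp : f ∈ K.S p) (hq : g ∈ K.S q)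
    (hfv : K.At f v) (hgv : K.At g v) : p = q :=
  C.same_old hf hg hp hq hfv hgv hv

/-- **WEIGHTS.** At a vertex off the curves there are at most as many new sheets as old ones. -/
theorem Cur.ex_card {v : V} (hv : ∀ γ, ¬ C.On γ v) [Finite I] :
    {i | ∃ f ∈ C.ex.S i, K.At f v}.ncard ≤ {i | ∃ f ∈ K.S i, K.At f v}.ncard := by
  have hex : ∀ i ∈ {i | ∃ f ∈ C.ex.S i, K.At f v}, ∃ p ∈ {i | ∃ f ∈ K.S i, K.At f v},
      ∃ f ∈ C.ex.S i, f ∈ K.S p ∧ K.At f v := by
    rintro i ⟨f, hf, hfv⟩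
    obtain ⟨p, hp⟩ := C.exists_old hf
    exact ⟨p, ⟨f, hp, hfv⟩, f, hf, hp, hfv⟩
  choose! φ hφ using hex
  refine Set.ncard_le_ncard_of_injOn φ (fun i hi => (hφ i hi).1) ?_ (Set.toFinite _)
  intro i hi j hj hij
  obtain ⟨-, f, hf, hfp, hfv⟩ := hφ i hi
  obtain ⟨-, g, hg, hgp, hgv⟩ := hφ j hj
  rw [← hij] at hgp
  exact C.ex_vert hv hf hg hfp hgp hfv hgv

end

end Crest.Agent.R096.Ex_422
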