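import Crest.Agent.R096.Ex5_422
import Crest.Agent.R096.Coh4_184

/-!
# One-step exchange on finite Z/2 cell complexes, part 6

Constructor of `Cur`: inner discs and primitives by duality.
-/

set_option autoImplicit false

namespace Crest.Agent.R096.Ex_422

open Finset Classical

variable {V E F I Γ : Type*}

theorem sum_ite_mem' {E : Type*} [Fintype E] (c : Finset E) (κ : E → ZMod 2) :
    ∑ e, (if e ∈ c then (1 : ZMod 2) else 0) * κ e = ∑ e ∈ c, κ e := by
  have h : ∀ e, (if e ∈ c then (1 : ZMod 2) else 0) * κ e = if e ∈ c then κ e else 0 := by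
    intro e
    split_ifs
    · rw [one_mul]
    · rw [zero_mul]
  rw [Finset.sum_congr rfl fun e _ => h e, ← Finset.sum_filter]
  congr 1
  ext e
  simp

/-- an even set of edges of a sheet with `H1` bounds a set of tiles missing a given tile -/
theorem Sys.exists_disc [Finite V] [Finite E] [Finite F] (K : Sys V E F I) (p : I)
    (c : Finset E) (on : ∀ e ∈ c, ∃ f ∈ K.S p, e ∈ K.bF f)
    (even : ∀ v, ∑ e ∈ c, (if v ∈ K.bE e then (1 : ZMod 2) else 0) = 0) {r : F}
    (hr : r ∈ K.S p) :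
    ∃ D : Set F, D ⊆ K.S p ∧ r ∉ D ∧ ∀ {e : E} {f g : F}, f ∈ K.S p → g ∈ K.S p → f ≠ g →
      e ∈ K.bF f → e ∈ K.bF g → (e ∈ c ↔ ¬ (f ∈ D ↔ g ∈ D)) := by
  have := Fintype.ofFinite V
  have := Fintype.ofFinite E
  have := Fintype.ofFinite F
  obtain ⟨w, hw0, hw⟩ := Coh_184.homology_of_cohomology (K := ZMod 2)
    (fun (f : F) (e : E) => if e ∈ K.bF f then (1 : ZMod 2) else 0)
    (fun (e : E) (v : V) => if v ∈ K.bE e then (1 : ZMod 2) else 0)
    (fun f => f ∈ K.S p) (fun e => ∃ f ∈ K.S p, e ∈ K.bF f)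
    (by
      intro κ hκ
      obtain ⟨ψ, hψ⟩ := K.h1 p κ (fun f hf => by
        have := hκ f hf
        rwa [sum_ite_mem'] at this)
      refine ⟨ψ, ?_⟩
      rintro e ⟨f, hf, he⟩
      rw [sum_ite_mem']
      exact hψ f hf e he)
    (fun e => if e ∈ c then 1 else 0)
    (by
      intro e he
      rw [if_neg]
      exact fun h => he (on e h))
    (by
      intro v
      rw [sum_ite_mem']
      exact even v)
  refine ⟨{f | f ∈ K.S p ∧ w f ≠ w r}, fun f hf => hf.1, fun h => h.2 rfl, ?_⟩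
  intro e f g hf hg hfg hef heg
  have h1 : ∑ h, w h * (if e ∈ K.bF h then (1 : ZMod 2) else 0) = w f + w g := by
    obtain ⟨g', hg', hgf', heg', hall⟩ := K.man hf hef
    have hgg : g = g' := by
      rcases hall g hg heg with h | h
      · exact absurd h.symm hfg
      · exact h
    subst hgg
    rw [← Finset.sum_pair hfg]
    symm
    refine Eq.trans ?_ (Finset.sum_subset (Finset.subset_univ ({f, g} : Finset F)) ?_)
    · refine Finset.sum_congr rfl fun h hh => ?_
      rw [Finset.mem_insert, Finset.mem_singleton] at hh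
      rcases hh with rfl | rfl
      · rw [if_pos hef, mul_one]
      · rw [if_pos heg, mul_one]
    · intro h _ hh
      by_cases heh : e ∈ K.bF h
      · by_cases hhS : h ∈ K.S p
        · exfalso
          apply hh
          rw [Finset.mem_insert, Finset.mem_singleton]
          exact hall h hhS heh
        · rw [hw0 h hhS, zero_mul]
      · rw [if_neg heh, mul_zero]
  have h2 := hw e
  rw [h1] at h2
  have h3 : (e ∈ c) ↔ w f + w g = 1 := by
    rw [← h2]
    constructor
    · intro h; rw [if_pos h]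
    · intro h
      by_contra hn
      rw [if_neg hn] at h
      exact zero_ne_one h
  rw [h3]
  simp only [Set.mem_ofPred_eq, hf, hg, true_and]
  generalize w f = a
  generalize w g = b
  generalize w r = d
  revert a b d
  decide

/-- primitives on a cycle -/
theorem Sys.exists_prim [Finite V] [Finite E] (K : Sys V E F I) (c : Finset E)
    (deg : ∀ v, (∃ e ∈ c, v ∈ K.bE e) → ∃ e₁ ∈ c, ∃ e₂ ∈ c, e₁ ≠ e₂ ∧ v ∈ K.bE e₁ ∧
      v ∈ K.bE e₂ ∧ ∀ e ∈ c, v ∈ K.bE e → e = e₁ ∨ e = e₂)
    (cir : ∀ P : V → Prop, (∀ e ∈ c, ∀ v ∈ K.bE e, ∀ w ∈ K.bE e, P v → P w) →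
      ∀ e ∈ c, ∀ v ∈ K.bE e, P v → ∀ e' ∈ c, ∀ w ∈ K.bE e', P w)
    (κ : E → ZMod 2) (hκ : ∑ e ∈ c, κ e = 0) :
    ∃ ψ : V → ZMod 2, ∀ e ∈ c, κ e = ∑ v ∈ K.bE e, ψ v := by
  have := Fintype.ofFinite V
  have := Fintype.ofFinite E
  obtain ⟨ψ, hψ⟩ := Coh_184.exact_of_kills (K := ZMod 2)
    (fun (e : E) (v : V) => if v ∈ K.bE e then (1 : ZMod 2) else 0)
    (fun e => e ∈ c) κ (by
      intro z hz0 hz
      have h1 : ∀ v e e', e ∈ c → e' ∈ c → v ∈ K.bE e → v ∈ K.bE e' → z e = z e' := by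
        intro v e e' he he' hve hve'
        obtain ⟨e₁, he₁, e₂, he₂, hne, hv₁, hv₂, hall⟩ := deg v ⟨e, he, hve⟩
        have h2 := hz v
        have h3 : ∑ e, z e * (if v ∈ K.bE e then (1 : ZMod 2) else 0) = z e₁ + z e₂ := by
          rw [← Finset.sum_pair hne]
          symm
          refine Eq.trans ?_ (Finset.sum_subset (Finset.subset_univ ({e₁, e₂} : Finset E)) ?_)
          · refine Finset.sum_congr rfl fun h hh => ?_
            rw [Finset.mem_insert, Finset.mem_singleton] at hh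
            rcases hh with rfl | rfl
            · rw [if_pos hv₁, mul_one]
            · rw [if_pos hv₂, mul_one]
          · intro h _ hh
            by_cases hc : h ∈ c
            · by_cases hvh : v ∈ K.bE h
              · exfalso
                apply hh
                rw [Finset.mem_insert, Finset.mem_singleton]
                exact hall h hc hvh
              · rw [if_neg hvh, mul_zero]
            · rw [hz0 h hc, zero_mul]
        rw [h3] at h2
        have h4 : z e₁ = z e₂ := by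
          have aux : ∀ a b : ZMod 2, a + b = 0 → a = b := by decide
          exact aux _ _ h2
        rcases hall e he hve with h | h <;> rcases hall e' he' hve' with h' | h' <;>
          rw [h, h'] <;> first | rfl | exact h4 | exact h4.symm
      by_cases hne : ∃ e₀ ∈ c, z e₀ = 1
      · obtain ⟨e₀, he₀, hz₀⟩ := hne
        obtain ⟨v₀, hv₀⟩ := K.exists_end e₀
        have h5 := cir (fun v => ∀ e ∈ c, v ∈ K.bE e → z e = 1) (by
          intro e he v hv w hw hP e' he' hwe'
          rw [← hP e he hv]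
          exact h1 w e' e he' he hwe' hw) e₀ he₀ v₀ hv₀ (by
            intro e he hve
            rw [← hz₀]
            exact h1 v₀ e e₀ he he₀ hve hv₀)
        have h6 : ∀ e ∈ c, z e = 1 := by
          intro e he
          obtain ⟨v, hv⟩ := K.exists_end e
          exact h5 e he v hv e he hv
        rw [← hκ]
        symm
        refine Eq.trans ?_ (Finset.sum_subset (Finset.subset_univ c) ?_)
        · exact Finset.sum_congr rfl fun e he => by rw [h6 e he, one_mul]
        · intro e _ he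
          rw [hz0 e he, zero_mul]
      · refine Finset.sum_eq_zero fun e _ => ?_
        have h5 : z e = 0 := by
          by_cases he : e ∈ c
          · have h6 : z e ≠ 1 := fun h => hne ⟨e, he, h⟩
            have aux : ∀ a : ZMod 2, a ≠ 1 → a = 0 := by decide
            exact aux _ h6
          · exact hz0 e he
        rw [h5, zero_mul])
  refine ⟨ψ, fun e he => ?_⟩
  rw [hψ e he, sum_ite_mem']

/-- **CONSTRUCTOR of `Cur`**: closed curves (components of a 2-regular graph of edges), each on a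
sheet of each colour, no vertex off the curves on two colours. Inner discs and primitives are
produced by duality. -/
theorem exists_cur [Finite V] [Finite E] [Finite F] (K : Sys V E F I) (c : Γ → Finset E)
    (ne : ∀ γ, (c γ).Nonempty)
    (deg : ∀ γ v, (∃ e ∈ c γ, v ∈ K.bE e) → ∃ e₁ ∈ c γ, ∃ e₂ ∈ c γ, e₁ ≠ e₂ ∧ v ∈ K.bE e₁ ∧
      v ∈ K.bE e₂ ∧ ∀ e ∈ c γ, v ∈ K.bE e → e = e₁ ∨ e = e₂)
    (cir : ∀ γ (P : V → Prop), (∀ e ∈ c γ, ∀ v ∈ K.bE e, ∀ w ∈ K.bE e, P v → P w) →
      ∀ e ∈ c γ, ∀ v ∈ K.bE e, P v → ∀ e' ∈ c γ, ∀ w ∈ K.bE e', P w)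
    (vdisj : ∀ {γ δ : Γ} {e e' : E} {v : V}, e ∈ c γ → e' ∈ c δ → v ∈ K.bE e → v ∈ K.bE e' →
      γ = δ)
    (s : Bool → Γ → I) (scol : ∀ x γ, K.col (s x γ) = x)
    (on : ∀ x γ, ∀ e ∈ c γ, ∃ f ∈ K.S (s x γ), e ∈ K.bF f)
    (root : I → F) (root_mem : ∀ i, root i ∈ K.S i)
    (dbl : ∀ {γ : Γ} {e e' : E} {v : V} {f g : F} {i j : I}, f ∈ K.S i → g ∈ K.S j →
      K.col i ≠ K.col j → e ∈ K.bF f → e ∈ K.bF g → v ∈ K.bE e → e' ∈ c γ → v ∈ K.bE e' →
      e ∈ c γ)
    (ess : ∀ {v : V} {f g : F} {i j : I}, f ∈ K.S i → g ∈ K.S j →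
      K.col i ≠ K.col j → K.At f v → K.At g v → ∃ γ, ∃ e ∈ c γ, v ∈ K.bE e) :
    ∃ C : Cur K Γ, C.c = c ∧ C.s = s ∧ C.root = root := by
  have hD : ∀ (x : Bool) (γ : Γ), ∃ D : Set F, D ⊆ K.S (s x γ) ∧ root (s x γ) ∉ D ∧
      ∀ {e : E} {f g : F}, f ∈ K.S (s x γ) → g ∈ K.S (s x γ) → f ≠ g →
      e ∈ K.bF f → e ∈ K.bF g → (e ∈ c γ ↔ ¬ (f ∈ D ↔ g ∈ D)) := by
    intro x γ
    refine K.exists_disc (s x γ) (c γ) (on x γ) ?_ (root_mem _)
    intro v
    by_cases hv : ∃ e ∈ c γ, v ∈ K.bE e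
    · obtain ⟨e₁, he₁, e₂, he₂, hne, hv₁, hv₂, hall⟩ := deg γ v hv
      rw [← Finset.sum_filter]
      have h1 : (c γ).filter (fun e => v ∈ K.bE e) = {e₁, e₂} := by
        ext e
        simp only [Finset.mem_filter, Finset.mem_insert, Finset.mem_singleton]
        constructor
        · rintro ⟨h1, h2⟩
          exact hall e h1 h2
        · rintro (rfl | rfl)
          · exact ⟨he₁, hv₁⟩
          · exact ⟨he₂, hv₂⟩
      rw [h1, Finset.sum_pair hne]
      decide
    · refine Finset.sum_eq_zero fun e he => ?_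
      rw [if_neg (fun h => hv ⟨e, he, h⟩)]
  choose D Dsub Droot Dbd using hD
  exact ⟨{
    c := c
    ne := ne
    deg := deg
    cir := cir
    prim := fun γ κ hκ => K.exists_prim (c γ) (deg γ) (cir γ) κ hκ
    vdisj := vdisj
    s := s
    scol := scol
    D := D
    Dsub := Dsub
    Dbd := fun {x γ e f g} hf hg hne hef heg => Dbd x γ hf hg hne hef heg
    Don := on
    root := root
    root_mem := root_mem
    root_out := Droot
    dbl := dbl
    ess := fun hf hg hc hfv hgv hv _ _ _ => by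
      obtain ⟨γ, e, he, hve⟩ := ess hf hg hc hfv hgv
      exact hv γ e he hve }, rfl, rfl, rfl⟩

/-- tiles which are connected to the root without crossing the curves are in no inner disc -/
theorem Cur.mark_out {K : Sys V E F I} (C : Cur K Γ) (i : I) (M : Set F) (hM : M ⊆ K.S i)
    (hr : C.root i ∈ M)
    (hcon : ∀ X : Set F, X ⊆ M → (∀ e, ¬ C.Dbl e → ∀ f ∈ X, e ∈ K.bF f → ∀ g ∈ M,
      e ∈ K.bF g → g ∈ X) → X = ∅ ∨ X = M) {f : F} (hf : f ∈ M) (x : Bool) (γ : Γ) :
    f ∉ C.D x γ := by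
  intro hfD
  have hi := (C.col_eq hfD (hM hf)).1
  have key : M ∩ C.D x γ = ∅ ∨ M ∩ C.D x γ = M := by
    refine hcon (M ∩ C.D x γ) (fun _ h => h.1) ?_
    rintro e he a ⟨haM, haD⟩ hea b hb heb
    refine ⟨hb, ?_⟩
    have haS : a ∈ K.S (C.s x γ) := hi ▸ hM haM
    have hbS : b ∈ K.S (C.s x γ) := hi ▸ hM hb
    exact (C.same_edge haS hbS hea heb (fun h => he ⟨γ, h⟩)).1 haD
  rcases key with h | h
  · have h2 : f ∈ M ∩ C.D x γ := ⟨hf, hfD⟩
    rw [h] at h2
    exact h2
  · have h1 : C.root i ∈ M ∩ C.D x γ := by rw [h]; exact hr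
    have h2 := h1.2
    have h3 := C.root_out x γ
    rw [← hi] at h3
    exact h3 h2

end Crest.Agent.R096.Ex_422
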