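import Crest.Agent.R096.Mbf_337
import Crest.Agent.R096.Exc1_965

/-!
# R096 (row 96), DOORS / EXA (helper333), part d1: the levels of `s_a ∘ θ` on the boundary of a tiny
core

`θ` = a PL equivalence of `S = frontier K` with the boundary of the brick `c` (clause `bij` of
`Mbf_337.Tiny`).

* `lev_conn`   : `{x ∈ S | s_a (θ x) = t}` is connected;
* `quad_pt`    : for every quad `{a, a', c, d}` exactly one point of `S` over `P d` with the given
                 values of `s_a ∘ θ`, `s_a' ∘ θ`;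
* `cross_quad` : every crossing point of two levels lies over exactly one `P d`, `{a, a', c, d}` is a
                 quad.
-/

set_option autoImplicit false
set_option linter.unusedSectionVars false

open Set Topology Filter

namespace Crest.Agent.R096.Exd_333

open Crest.Agent.R096.Brk1_582 Crest.Agent.R096.Brk2_582 Crest.Agent.R096.Bsp_628
open Crest.Agent.R096.Brk3_582 Crest.Agent.R096.Vb_965 Crest.Agent.R096.Exc_965
open Crest.Agent.R096.SkC1_961 (E3 FoamD)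
open Crest.Agent.R096.Ce_537 (PLEquiv IsBall)
open Crest.Agent.R096.Mbf_337

variable {δ κ0 R c0 : ℝ} {La : Set E3} (Φ : FoamD δ κ0 R c0 La) (hLa : IsOpen La)

include hLa in
/-- the foam of `Φ` -/
theorem foamΦ : Foam La (Pc Φ.F) (bc (F := Φ.F)) 4 := foam Φ.bf hLa

variable {Φ} {c a a' d : Φ.F} {S : Set E3} {θ : E3 → E3} {s t : ℝ}

/-- the level set is the preimage of the ring -/
theorem lev_eq (hLa : IsOpen La) (e : PLEquiv S (frontier c.1.set)) (he : ∀ x ∈ S, e.f x = θ x) :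
    {x | x ∈ S ∧ sb Φ (θ x) a = t} = e.g '' ring (Pc Φ.F) (bc (F := Φ.F)) c a t := by
  rw [ring_eq_frontier (foamΦ Φ hLa)]
  ext x
  constructor
  · rintro ⟨h1, h2⟩
    refine ⟨e.f x, ⟨e.mf h1, ?_⟩, e.li x h1⟩
    rw [he x h1]; exact h2
  · rintro ⟨q, ⟨h1, h2⟩, rfl⟩
    refine ⟨e.mg h1, ?_⟩
    rw [← he _ (e.mg h1), e.ri q h1]; exact h2

/-- **(E1)** the levels of `s_a ∘ θ` are connected -/
theorem lev_conn (hLa : IsOpen La) (e : PLEquiv S (frontier c.1.set))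
    (he : ∀ x ∈ S, e.f x = θ x) (hac : a ≠ c) (hne : (Pc Φ.F c ∩ Pc Φ.F a).Nonempty)
    (ht0 : 0 < t) (ht1 : t < 1) :
    IsPreconnected {x | x ∈ S ∧ sb Φ (θ x) a = t} ∧ {x | x ∈ S ∧ sb Φ (θ x) a = t}.Nonempty := by
  obtain ⟨h1, h2⟩ := isPreconnected_ring (F := Φ.F) Φ.bf hLa (by simp) hac hne ht0 ht1
  rw [lev_eq hLa e he]
  refine ⟨h1.image _ (e.pg.1.mono fun q hq => ?_), h2.image _⟩
  rw [ring_eq_frontier (foamΦ Φ hLa)] at hq
  exact hq.1

/-- the levels are compact -/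
theorem lev_cpt (hLa : IsOpen La) (e : PLEquiv S (frontier c.1.set))
    (he : ∀ x ∈ S, e.f x = θ x) : IsCompact {x | x ∈ S ∧ sb Φ (θ x) a = t} := by
  rw [lev_eq hLa e he]
  refine (isCompact_ring (foamΦ Φ hLa)).image_of_continuousOn (e.pg.1.mono fun q hq => ?_)
  rw [ring_eq_frontier (foamΦ Φ hLa)] at hq
  exact hq.1

/-- **(E2), existence and uniqueness over one quad** -/
theorem quad_pt (hLa : IsOpen La) (e : PLEquiv S (frontier c.1.set))
    (he : ∀ x ∈ S, e.f x = θ x) (haa : a ≠ a') (hac : a ≠ c) (hac' : a' ≠ c) (hdc : d ≠ c)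
    (had : a ≠ d) (had' : a' ≠ d)
    (hne : (Pc Φ.F a ∩ Pc Φ.F a' ∩ Pc Φ.F c ∩ Pc Φ.F d).Nonempty)
    (hs0 : 0 ≤ s) (hs1 : s < 1) (ht0 : 0 ≤ t) (ht1 : t < 1) :
    ∃! x, x ∈ S ∧ θ x ∈ Pc Φ.F d ∧ sb Φ (θ x) a = s ∧ sb Φ (θ x) a' = t := by
  have F := foamΦ Φ hLa
  have hcard : (insert a (insert a' ({c, d} : Set Φ.F))).ncard = 4 := by
    rw [ncard_insert_of_notMem, ncard_insert_of_notMem, ncard_pair hdc.symm]
    · simp [hac', had']
    · simp [haa, hac, had]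
  obtain ⟨y, ⟨⟨hya, hya'⟩, hyc⟩, hyd⟩ := hne
  obtain ⟨q, ⟨hq1, hq2, hq3, hq4⟩, hqu⟩ := quad_point F (a := a) (a' := a') (Z := {c, d})
    ⟨c, by simp⟩ hcard ⟨y, by
      rw [mem_fc]
      rintro x (rfl | rfl | rfl | rfl)
      · exact hya
      · exact hya'
      · exact hyc
      · exact hyd⟩ haa (by simp [hac, had]) (by simp [hac', had']) hs0 hs1 ht0 ht1
  have hqf : q ∈ frontier c.1.set := by
    have h5 : q ∈ frontier (Pc Φ.F c) := by
      rw [frontier_cell F, Lset_zero F]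
      exact ⟨hq2 c (by simp), d, hdc, hq2 d (by simp)⟩
    exact h5
  have hg := e.mg hqf
  refine ⟨e.g q, ⟨hg, ?_, ?_, ?_⟩, ?_⟩
  · rw [← he _ hg, e.ri q hqf]; exact hq2 d (by simp)
  · rw [← he _ hg, e.ri q hqf]; exact hq3
  · rw [← he _ hg, e.ri q hqf]; exact hq4
  · rintro x ⟨h1, h2, h3, h4⟩
    have hxf : θ x ∈ frontier c.1.set := by rw [← he x h1]; exact e.mf h1
    have hxc : θ x ∈ Pc Φ.F c := (F.cpt c).isClosed.frontier_subset hxf
    have h5 := hqu (θ x) ⟨F.sub c hxc, by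
      rintro z (rfl | rfl)
      · exact hxc
      · exact h2, h3, h4⟩
    rw [← h5, ← he x h1, e.li x h1]

/-- **every crossing point lies over exactly one other cell `d`, and `{a, a', c, d}` is a quad** -/
theorem cross_quad (hLa : IsOpen La) (e : PLEquiv S (frontier c.1.set))
    (he : ∀ x ∈ S, e.f x = θ x) (haa : a ≠ a') (hac : a ≠ c) (hac' : a' ≠ c)
    (hs0 : 0 < s) (hs1 : s < 1) (ht0 : 0 < t) (ht1 : t < 1) {x : E3} (hx : x ∈ S)
    (h1 : sb Φ (θ x) a = s) (h2 : sb Φ (θ x) a' = t) :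
    ∃! d, d ≠ c ∧ θ x ∈ Pc Φ.F d := by
  have F := foamΦ Φ hLa
  have hxf : θ x ∈ frontier (Pc Φ.F c) := by rw [← he x hx]; exact e.mf hx
  have r1 : θ x ∈ ring (Pc Φ.F) (bc (F := Φ.F)) c a s := by
    rw [ring_eq_frontier F]; exact ⟨hxf, h1⟩
  have r2 : θ x ∈ ring (Pc Φ.F) (bc (F := Φ.F)) c a' t := by
    rw [ring_eq_frontier F]; exact ⟨hxf, h2⟩
  exact ring_inter F le_rfl hac hac' haa hs0 hs1 ht0 ht1 r1 r2

/-- the four cells of a crossing point form a quad -/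
theorem quad_ne (hLa : IsOpen La) (e : PLEquiv S (frontier c.1.set))
    (he : ∀ x ∈ S, e.f x = θ x) (hs0 : 0 < s) (hs1 : s < 1) (ht0 : 0 < t) (ht1 : t < 1) {x : E3}
    (hx : x ∈ S) (h1 : sb Φ (θ x) a = s) (h2 : sb Φ (θ x) a' = t) (hd : θ x ∈ Pc Φ.F d) :
    a ≠ d ∧ a' ≠ d ∧ (Pc Φ.F a ∩ Pc Φ.F a' ∩ Pc Φ.F c ∩ Pc Φ.F d).Nonempty := by
  have F := foamΦ Φ hLa
  have hxf : θ x ∈ frontier (Pc Φ.F c) := by rw [← he x hx]; exact e.mf hx
  have hxc : θ x ∈ Pc Φ.F c := (F.cpt c).isClosed.frontier_subset hxf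
  have hxL := F.sub c hxc
  have h0c := (F.sc_eq_zero hxL).2 hxc
  have h0d := (F.sc_eq_zero hxL).2 hd
  have h1' : sc (Pc Φ.F) (bc (F := Φ.F)) (θ x) a = s := h1
  have h2' : sc (Pc Φ.F) (bc (F := Φ.F)) (θ x) a' = t := h2
  refine ⟨?_, ?_, ?_⟩
  · rintro rfl; rw [h1'] at h0d; exact hs0.ne' h0d
  · rintro rfl; rw [h2'] at h0d; exact ht0.ne' h0d
  · obtain ⟨y, hy⟩ := (F.sc_mem_K hxL).2.2
    rw [mem_fc] at hy
    refine ⟨y, ⟨⟨hy a ?_, hy a' ?_⟩, hy c ?_⟩, hy d ?_⟩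
    · show sc _ _ (θ x) a < 1
      rw [h1']; exact hs1
    · show sc _ _ (θ x) a' < 1
      rw [h2']; exact ht1
    · show sc _ _ (θ x) c < 1
      rw [h0c]; exact one_pos
    · show sc _ _ (θ x) d < 1
      rw [h0d]; exact one_pos

end Crest.Agent.R096.Exd_333
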