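import Crest.Agent.R096.Exa4_560
import Crest.Agent.R096.Exd1_333

/-!
# R096 (row 96), DOORS / EXA (helper333), part d2: exactly one interlaced pair PER QUAD

(`Exa4_560.exa_cross` asks for one crossing point on the whole sphere; two closed curves on a sphere
cross an even number of times.)

* `exa_cross_on`   : one crossing point in the set `A` of faces ⟹ exactly one interlaced pair on the
                     faces of `A`;
* `exa_cross_quad` : the instance `u = s_a ∘ θ`, `u' = s_a' ∘ θ`, `A` = the faces of the quad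
                     `{a, a', c, d}`;
* `exa_cross_nc`   : no interlaced pair on a face without crossing point.
-/

set_option autoImplicit false
set_option linter.unusedSectionVars false

open Set Metric Module
open scoped Classical

namespace Crest.Agent.R096.Exd_333

open Crest.Agent.R096.Msh_715 Crest.Agent.R096.Agl5_543 Crest.Agent.R096.St_147
  Crest.Agent.R096.Lac_441 Crest.Agent.R096.Twr_438 Crest.Agent.R096.Exa_560

variable {E : Type} [NormedAddCommGroup E] [NormedSpace ℝ E] [FiniteDimensional ℝ E]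
variable {Om : Set E} {ι : Type} {T : Tiling Om ι}
variable {κ : Type} {Kc : κ → Set E} {J : Type}
variable {h3 : finrank ℝ E = 3} {hH : ∀ c, CoreH T (Kc c)}
  {hdis : ∀ c c', c ≠ c' → Disjoint (Kc c) (Kc c')} {c : κ}

section

variable [Nonempty J] (L : Lev T (frontier (Kc c)) J) {j : J}
variable {J' : Type} [Nonempty J'] (L' : Lev T (frontier (Kc c)) J') {j' : J'}

/-- the names `j`, `j'` have an interlaced pair on the face `G` -/
def Pair (h3 : finrank ℝ E = 3) (hH : ∀ c, CoreH T (Kc c))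
    (hdis : ∀ c c', c ≠ c' → Disjoint (Kc c) (Kc c')) (L : Lev T (frontier (Kc c)) J)
    (L' : Lev T (frontier (Kc c)) J') (j : J) (j' : J') (G : (shellH h3 hH hdis c).Fk) : Prop :=
  ∃ w x, w ∈ (exa h3 hH hdis L).P ∧
      w ∈ (shellH h3 hH hdis c).sph.On G ∧ (exa h3 hH hdis L).lab w = j ∧
      x ∈ (exa h3 hH hdis L').P ∧ x ∈ (shellH h3 hH hdis c).sph.On G ∧
      (exa h3 hH hdis L').lab x = j' ∧
      (shellH h3 hH hdis c).sph.Lace G w ((exa h3 hH hdis L).mu G w) x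
        ((exa h3 hH hdis L').mu G x)

/-- an interlaced pair on a face has a crossing point -/
theorem Pair.point
    (hgen : ∀ y ∈ frontier (Kc c), T.dim y = 1 → L.u y = L.lv j → L'.u y ≠ L'.lv j')
    {G : (shellH h3 hH hdis c).Fk} (h : Pair h3 hH hdis L L' j j' G) :
    ∃ z ∈ G.1.1.set, L.u z = L.lv j ∧ L'.u z = L'.lv j' := by
  obtain ⟨w, x, hw, hwG, hwj, hx, hxG, hxj, hl⟩ := h
  exact (exa_lace L L' hw hwG hwj hx hxG hxj hgen).1 hl

/-- a crossing point in a face gives an interlaced pair -/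
theorem pair_of_point (hj : j ∈ L.J0) (hj' : j' ∈ L'.J0)
    (hgen : ∀ y ∈ frontier (Kc c), T.dim y = 1 → L.u y = L.lv j → L'.u y ≠ L'.lv j')
    {G : (shellH h3 hH hdis c).Fk} {z : E} (hz : z ∈ G.1.1.set) (h1 : L.u z = L.lv j)
    (h2 : L'.u z = L'.lv j') : Pair h3 hH hdis L L' j j' G := by
  have hF : G.1.1.set ⊆ frontier (Kc c) := fk_sub G
  obtain ⟨p, _, _, hp, _, hpj, _⟩ := L.face hF hj hz h1
  obtain ⟨q, _, _, hq, _, hqj, _⟩ := L'.face hF hj' hz h2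
  have hp' : p ∈ (exa h3 hH hdis L).P := (mem_P L).2 ⟨hF hp.1, hp.2, j, hj, hpj⟩
  have hq' : q ∈ (exa h3 hH hdis L').P := (mem_P L').2 ⟨hF hq.1, hq.2, j', hj', hqj⟩
  exact ⟨p, q, hp', hp, lab_of L hj hpj, hq', hq, lab_of L' hj' hqj,
    (exa_lace (G := G) L L' hp' hp (lab_of L hj hpj) hq' hq (lab_of L' hj' hqj) hgen).2
      ⟨z, hz, h1, h2⟩⟩

/-- **(E2) exactly one interlaced pair on the faces of `A`** -/
theorem exa_cross_on (hj : j ∈ L.J0) (hj' : j' ∈ L'.J0)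
    (hgen : ∀ y ∈ frontier (Kc c), T.dim y = 1 → L.u y = L.lv j → L'.u y ≠ L'.lv j')
    (A : Set (shellH h3 hH hdis c).Fk)
    (hz : ∃! z, (∃ G ∈ A, z ∈ G.1.1.set) ∧ L.u z = L.lv j ∧ L'.u z = L'.lv j') :
    ∃! G : (shellH h3 hH hdis c).Fk, G ∈ A ∧ Pair h3 hH hdis L L' j j' G := by
  obtain ⟨z, ⟨⟨G, hGA, hzG⟩, hz2, hz3⟩, hzu⟩ := hz
  have hzS : z ∈ frontier (Kc c) := fk_sub G hzG
  have hdz : ¬ T.dim z ≤ 1 := by
    intro h
    have h0 : T.dim z ≠ 0 := fun h0 => L.vert z hzS h0 j hj hz2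
    exact hgen z hzS (by omega) hz2 hz3
  refine ⟨G, ⟨hGA, pair_of_point L L' hj hj' hgen hzG hz2 hz3⟩, ?_⟩
  rintro G' ⟨hG'A, hG'⟩
  obtain ⟨z', hz'G, hz'1, hz'2⟩ := hG'.point L L' hgen
  have hzz : z' = z := hzu z' ⟨⟨G', hG'A, hz'G⟩, hz'1, hz'2⟩
  subst hzz
  apply Subtype.ext
  apply Subtype.ext
  by_contra hne
  exact hdz (Lev.dim_inter hne hz'G hzG)

end

/-! ### the levels of `s_a ∘ θ` -/

section quad

open Crest.Agent.R096.Brk1_582 Crest.Agent.R096.Brk2_582 Crest.Agent.R096.Bsp_628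
open Crest.Agent.R096.Brk3_582
open Crest.Agent.R096.SkC1_961 (E3 FoamD)
open Crest.Agent.R096.Ce_537 (PLEquiv IsBall)
open Crest.Agent.R096.Mbf_337

variable {δ κ0 R c0 : ℝ} {La Om' : Set E3} {Φ : FoamD δ κ0 R c0 La} {ι' : Type}
variable {T' : Tiling Om' ι'} {κ' : Type} {Kc' : κ' → Set E3} {h3' : finrank ℝ E3 = 3}
  {hH' : ∀ c, CoreH T' (Kc' c)} {hdis' : ∀ c c', c ≠ c' → Disjoint (Kc' c) (Kc' c')} {q : κ'}
variable {J1 J2 : Type} [Nonempty J1] [Nonempty J2]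

/-- **(E2) for the quad `{a, a', c, d}`**: `A` = a set of faces which contains the crossing point
over `P d` and no crossing point over another cell -/
theorem exa_cross_quad (hLa : IsOpen La) {c a a' d : Φ.F} {θ : E3 → E3}
    (e : PLEquiv (frontier (Kc' q)) (frontier c.1.set)) (he : ∀ x ∈ frontier (Kc' q), e.f x = θ x)
    (haa : a ≠ a') (hac : a ≠ c) (hac' : a' ≠ c) (hdc : d ≠ c) (had : a ≠ d) (had' : a' ≠ d)
    (hne : (Pc Φ.F a ∩ Pc Φ.F a' ∩ Pc Φ.F c ∩ Pc Φ.F d).Nonempty)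
    (L : Lev T' (frontier (Kc' q)) J1) (L' : Lev T' (frontier (Kc' q)) J2)
    (hu : ∀ x ∈ frontier (Kc' q), L.u x = sb Φ (θ x) a)
    (hu' : ∀ x ∈ frontier (Kc' q), L'.u x = sb Φ (θ x) a')
    {j : J1} {j' : J2} (hj : j ∈ L.J0) (hj' : j' ∈ L'.J0) (hs0 : 0 ≤ L.lv j) (hs1 : L.lv j < 1)
    (ht0 : 0 ≤ L'.lv j') (ht1 : L'.lv j' < 1)
    (hgen : ∀ y ∈ frontier (Kc' q), T'.dim y = 1 → L.u y = L.lv j → L'.u y ≠ L'.lv j')
    (A : Set (shellH h3' hH' hdis' q).Fk)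
    (hA : ∀ x ∈ frontier (Kc' q), θ x ∈ Pc Φ.F d → L.u x = L.lv j → L'.u x = L'.lv j' →
      ∃ G ∈ A, x ∈ G.1.1.set)
    (hA' : ∀ G ∈ A, ∀ x ∈ G.1.1.set, L.u x = L.lv j → L'.u x = L'.lv j' → θ x ∈ Pc Φ.F d) :
    ∃! G : (shellH h3' hH' hdis' q).Fk, G ∈ A ∧ Pair h3' hH' hdis' L L' j j' G := by
  refine exa_cross_on L L' hj hj' hgen A ?_
  obtain ⟨x, ⟨hx, hxd, hxa, hxa'⟩, hxu⟩ := quad_pt hLa e he haa hac hac' hdc had had' hne hs0 hs1
    ht0 ht1
  have h1 : L.u x = L.lv j := by rw [hu x hx, hxa]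
  have h2 : L'.u x = L'.lv j' := by rw [hu' x hx, hxa']
  refine ⟨x, ⟨hA x hx hxd h1 h2, h1, h2⟩, ?_⟩
  rintro y ⟨⟨G, hG, hyG⟩, hy1, hy2⟩
  have hyS : y ∈ frontier (Kc' q) := fk_sub G hyG
  exact hxu y ⟨hyS, hA' G hG y hyG hy1 hy2, by rw [← hu y hyS, hy1], by rw [← hu' y hyS, hy2]⟩

end quad

end Crest.Agent.R096.Exd_333
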