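import Crest.Agent.R096.Exa10_560
import Crest.Agent.R096.Door9_501
import Crest.Agent.R096.SkB1d_662
import Crest.Agent.R096.Exd2_333

/-!
# R096 (row 96), DOORS / EXA part 11 (helper560): 662's `One` and `Two` for the state with layers

* `EndsIn T d` : the towers end in the patterns `d`.
* `one_bot`    : `One` on the faces of the shrunk core.
* `two_bot`    : `Two` on the faces of the shrunk core.
* `exa_one`, `exa_two` : the same for the exact patterns.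
-/

set_option autoImplicit false
set_option linter.unusedSectionVars false
set_option linter.style.longLine false

open Set Metric Module
open scoped Classical

namespace Crest.Agent.R096.Exa_560

open Crest.Agent.R096.Msh_715 Crest.Agent.R096.St_147 Crest.Agent.R096.Seq_213
  Crest.Agent.R096.Twr_438 Crest.Agent.R096.Door_501 Crest.Agent.R096.SkB_662

section towers

variable {ι Φ ι0 Φ0 W J C : Type} {M : MeshC ι Φ W} {M0 : MeshC ι0 Φ0 W} {κ : Type} {k0 : κ → ι0}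
  {kk : κ → ι} {Vx Ed : κ → Type} {S : ∀ c, Shell M0 (k0 c) (Vx c) (Ed c)} {n : κ → ℕ}
  {fam : J → C} {s : GSt M0 fam} {Z : Cols M M0 k0 kk S n} {T : Twrs S n s}
  {d : ∀ c (_ : C), St (S c).sph (fun _ : J => true)} {l0 : W → J}

/-- the towers end in the patterns `d` (438 `exists_twrs`) -/
def EndsIn (T : Twrs S n s) (d : ∀ c (_ : C), St (S c).sph (fun _ : J => true)) : Prop :=
  ∀ c a, ((T.tw c a).pat (n c)).P = (d c a).P ∧
    (∀ w ∈ (d c a).P, ((T.tw c a).pat (n c)).lab w = (d c a).lab w) ∧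
    ∀ F, ∀ w ∈ (d c a).P, w ∈ (S c).sph.On F → ((T.tw c a).pat (n c)).mu F w = (d c a).mu F w

variable (hT : EndsIn T d)

include hT

theorem EndsIn.fam_eq {c : κ} {a : C} {u : W} (hu : u ∈ (d c a).P) : fam ((d c a).lab u) = a := by
  obtain ⟨h1, h2, _⟩ := hT c a
  rw [← h2 u hu]
  exact T.labj (by rw [h1]; exact hu)

theorem EndsIn.mem {c : κ} {a : C} {u : W} (hu : u ∈ (d c a).P) :
    (Z.cl c).hp (n c) u ∈ ((Twrs.rel Z T).st l0).P ∧
      ((Twrs.rel Z T).st l0).lab ((Z.cl c).hp (n c) u) = (d c a).lab u := by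
  obtain ⟨h1, h2, _⟩ := hT c a
  have h := Twrs.bot_P (Z := Z) (T := T) (c := c) (a := a) (u := u) (by rw [h1]; exact hu) l0
  rw [h2 u hu] at h
  exact h

theorem EndsIn.mu {c : κ} {a : C} {u : W} {G : (S c).Fk} (hu : u ∈ (d c a).P)
    (hG : u ∈ (S c).sph.On G) :
    ((Twrs.rel Z T).st l0).mu ((Z.cl c).hf G (n c)) ((Z.cl c).hp (n c) u) =
      (Z.cl c).hp (n c) ((d c a).mu G u) := by
  obtain ⟨h1, _, h3⟩ := hT c a
  have h := Twrs.bot_mu (Z := Z) (T := T) (c := c) (a := a) (u := u) (G := G)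
    (by rw [h1]; exact hu) hG l0
  rw [h3 G u hu hG] at h
  exact h

theorem EndsIn.at_ {c : κ} {a : C} {u : W} {G : (S c).Fk} (hu : u ∈ (d c a).P)
    (hG : u ∈ (S c).sph.On G) :
    ((Twrs.rel Z T).st l0).At ((Z.cl c).hf G (n c)) ((Z.cl c).hp (n c) u) :=
  ⟨(hT.mem hu).1, ((Z.cl c).on_hf le_rfl).2 ⟨u, hG, rfl⟩⟩

/-- points on the faces of the shrunk core -/
theorem EndsIn.cases {c : κ} {w : W} {G : (S c).Fk}
    (h : ((Twrs.rel Z T).st l0).At ((Z.cl c).hf G (n c)) w) :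
    ∃ u ∈ (d c (fam (((Twrs.rel Z T).st l0).lab w))).P, u ∈ (S c).sph.On G ∧
      w = (Z.cl c).hp (n c) u ∧
      (d c (fam (((Twrs.rel Z T).st l0).lab w))).lab u = ((Twrs.rel Z T).st l0).lab w := by
  obtain ⟨a, u, h1, h2, rfl⟩ := Twrs.bot_cases h.1 h.2
  obtain ⟨g1, g2, _⟩ := hT c a
  rw [g1] at h1
  obtain ⟨_, e2⟩ := hT.mem (Z := Z) (l0 := l0) h1
  rw [e2, hT.fam_eq h1]
  exact ⟨u, h1, h2, rfl, rfl⟩

omit hT in
/-- the faces of the shrunk core -/
theorem kk_iff {c : κ} {F : Φ} : kk c ∈ M.side F ↔ ∃ G, F = (Z.cl c).hf G (n c) := by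
  constructor
  · exact fun h => (Z.cl c).faces_kk h
  · rintro ⟨G, rfl⟩
    have hn := (Z.cl c).npos
    have h4 : (n c - 1) + 1 = n c := by omega
    rw [(Z.cl c).side_bot G h4]
    exact Sym2.mem_mk_right _ _

/-- **(E1) on the shrunk core** -/
theorem one_bot {c : κ} {j : J} (hc : ∀ w ∈ (d c (fam j)).P, ∀ w' ∈ (d c (fam j)).P,
    (d c (fam j)).lab w = j → (d c (fam j)).lab w' = j → w' ∈ comp true (d c (fam j)) w) :
    One ((Twrs.rel Z T).st l0) {F | kk c ∈ M.side F} j := by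
  intro X hX F w F' w' hF hF' hw hw' hl hl' hwX
  obtain ⟨G, rfl⟩ := (kk_iff (Z := Z)).1 hF
  obtain ⟨G', rfl⟩ := (kk_iff (Z := Z)).1 hF'
  obtain ⟨u, hu, huG, rfl, hul⟩ := hT.cases hw
  obtain ⟨u', hu', huG', rfl, hul'⟩ := hT.cases hw'
  rw [hl] at hu hul
  rw [hl'] at hu' hul'
  have hcomp := (mem_comp.1 (hc u hu u' hu' hul hul')).2
  have key : ∀ v, Rch true (d c (fam j)) u v →
      v ∈ (d c (fam j)).P ∧ (d c (fam j)).lab v = j ∧ (Z.cl c).hp (n c) v ∈ X := by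
    intro v hv
    induction hv with
    | refl => exact ⟨hu, hul, hwX⟩
    | tail _ hs ih =>
      obtain ⟨g1, g2, g3⟩ := ih
      obtain ⟨H, _, k2, k3, rfl⟩ := hs
      refine ⟨((d c (fam j)).mu_mem k2 k3).1, ((d c (fam j)).mu_lab k2 k3).trans g2, ?_⟩
      have h1 := hX ((Z.cl c).hf H (n c)) _ ((kk_iff (Z := Z)).2 ⟨H, rfl⟩) g3
        (hT.at_ k2 k3) (by rw [(hT.mem g1).2]; exact g2)
      rw [hT.mu k2 k3] at h1
      exact h1
  exact (key u' hcomp).2.2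

omit hT in
theorem low_exists {fam : J → C} {s : GSt M fam} {F : Φ} {w : W} (h : s.At F w) :
    ∃ x, s.At F x ∧ s.lab x = s.lab w ∧ (x = w ∨ x = s.mu F w) ∧
      M.pos F x < M.pos F (s.mu F x) ∧ ∀ y z, M.Lace F x (s.mu F x) y z ↔
        M.Lace F w (s.mu F w) y z := by
  have hmu := s.mu_mem h.1 h.2
  have hne : M.pos F w ≠ M.pos F (s.mu F w) := fun e =>
    s.mu_ne h.1 h.2 (M.pos_inj F h.2 hmu.2 e).symm
  rcases lt_or_gt_of_ne hne with h1 | h1
  · exact ⟨w, h, rfl, Or.inl rfl, h1, fun _ _ => Iff.rfl⟩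
  · refine ⟨s.mu F w, hmu, s.mu_lab h.1 h.2, Or.inr rfl, ?_, fun y z => ?_⟩
    · rw [s.mu_mu h.1 h.2]; exact h1
    · rw [s.mu_mu h.1 h.2, lace_swap_left]

omit hT in
theorem low_unique {fam : J → C} {s : GSt M fam} {F : Φ} {w x : W} (hw : s.At F w)
    (h1 : M.pos F w < M.pos F (s.mu F w)) (h2 : M.pos F x < M.pos F (s.mu F x))
    (h : x = w ∨ x = s.mu F w) : x = w := by
  rcases h with h | h
  · exact h
  · rw [h, s.mu_mu hw.1 hw.2] at h2
    exact absurd h1 (not_lt.2 h2.le)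

/-- the names `j`, `j'` have an interlaced pair on the face `G` of the sphere -/
def PairD (d : ∀ c (_ : C), St (S c).sph (fun _ : J => true)) (fam : J → C) (c : κ) (j j' : J)
    (G : (S c).Fk) : Prop :=
  ∃ w x, w ∈ (d c (fam j)).P ∧ w ∈ (S c).sph.On G ∧ (d c (fam j)).lab w = j ∧
    x ∈ (d c (fam j')).P ∧ x ∈ (S c).sph.On G ∧ (d c (fam j')).lab x = j' ∧
    (S c).sph.Lace G w ((d c (fam j)).mu G w) x ((d c (fam j')).mu G x)

/-- different families have no common point -/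
theorem EndsIn.ne {c : κ} {a b : C} (hab : a ≠ b) {u v : W} (hu : u ∈ (d c a).P)
    (hv : v ∈ (d c b).P) : u ≠ v := by
  rintro rfl
  refine hab (T.dis (c := c) (j := n c) (w := u) ?_ ?_)
  · rw [(hT c a).1]; exact hu
  · rw [(hT c b).1]; exact hv

/-- the pair on the copy of the face -/
theorem EndsIn.lace {c : κ} {a b : C} (hab : a ≠ b) {G : (S c).Fk} {u v : W} (hu : u ∈ (d c a).P)
    (huG : u ∈ (S c).sph.On G) (hv : v ∈ (d c b).P) (hvG : v ∈ (S c).sph.On G) :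
    M.Lace ((Z.cl c).hf G (n c)) ((Z.cl c).hp (n c) u)
      (((Twrs.rel Z T).st l0).mu ((Z.cl c).hf G (n c)) ((Z.cl c).hp (n c) u))
      ((Z.cl c).hp (n c) v)
      (((Twrs.rel Z T).st l0).mu ((Z.cl c).hf G (n c)) ((Z.cl c).hp (n c) v)) ↔
    (S c).sph.Lace G u ((d c a).mu G u) v ((d c b).mu G v) := by
  rw [hT.mu hu huG, hT.mu hv hvG]
  have mu1 := (d c a).mu_mem hu huG
  have mu2 := (d c b).mu_mem hv hvG
  exact (Z.cl c).lace_hf le_rfl huG mu1.2 hvG mu2.2 ((d c a).mu_ne hu huG).symm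
    ((d c b).mu_ne hv hvG).symm (hT.ne hab hu hv) (hT.ne hab hu mu2.1) (hT.ne hab mu1.1 hv)
    (hT.ne hab mu1.1 mu2.1)

/-- **(E2) on the shrunk core**: exactly one double point on the faces which touch `A` -/
theorem two_bot {c : κ} {j j' : J} (hjj : fam j ≠ fam j') {A : Set ι}
    (hone : ∀ i, (i = j ∨ i = j') → ∀ G, ∀ u ∈ (d c (fam i)).P, ∀ v ∈ (d c (fam i)).P,
      u ∈ (S c).sph.On G → v ∈ (S c).sph.On G → (d c (fam i)).lab u = i →
      (d c (fam i)).lab v = i → v = u ∨ v = (d c (fam i)).mu G u)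
    (hu : ∃! G : (S c).Fk, Tch M A ((Z.cl c).hf G (n c)) ∧ PairD d fam c j j' G) :
    Two ((Twrs.rel Z T).st l0) A {kk c} j j' := by
  obtain ⟨G, ⟨hGA, w, x, hw, hwG, hwl, hx, hxG, hxl, hL⟩, hun⟩ := hu
  have aw := hT.at_ (Z := Z) (l0 := l0) hw hwG
  have ax := hT.at_ (Z := Z) (l0 := l0) hx hxG
  have lw := (hT.mem (Z := Z) (l0 := l0) hw).2
  have lx := (hT.mem (Z := Z) (l0 := l0) hx).2
  rw [hwl] at lw
  rw [hxl] at lx
  have hL' := (hT.lace (Z := Z) (l0 := l0) hjj hw hwG hx hxG).2 hL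
  obtain ⟨w1, g1, g2, g3, g4, g5⟩ := low_exists aw
  obtain ⟨x1, k1, k2, k3, k4, k5⟩ := low_exists ax
  rw [lw] at g2
  rw [lx] at k2
  have hne1 : w1 ≠ x1 := fun h => hjj (by rw [← g2, ← k2, h])
  have hside : kk c ∈ M.side ((Z.cl c).hf G (n c)) := (kk_iff (Z := Z)).2 ⟨G, rfl⟩
  have hL1 : M.Lace ((Z.cl c).hf G (n c)) w1
      (((Twrs.rel Z T).st l0).mu ((Z.cl c).hf G (n c)) w1) x1
      (((Twrs.rel Z T).st l0).mu ((Z.cl c).hf G (n c)) x1) := by
    rw [g5]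
    rcases k3 with h | h
    · rw [h]; exact hL'
    · rw [h, ((Twrs.rel Z T).st l0).mu_mu ax.1 ax.2, lace_swap_right]; exact hL'
  refine ⟨(_, w1, x1), ⟨⟨g1, k1, g2, k2, g4, k4, hL1⟩, hGA, kk c, hside, rfl⟩, ?_⟩
  rintro ⟨F, y, z⟩ ⟨hX, hA, q, hq, hqB⟩
  simp only at hX hA hq
  have hqB' : q = kk c := hqB
  rw [hqB'] at hq
  obtain ⟨G', rfl⟩ := (kk_iff (Z := Z)).1 hq
  have hly : ((Twrs.rel Z T).st l0).lab y = j := hX.lx
  have hlz : ((Twrs.rel Z T).st l0).lab z = j' := hX.ly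
  obtain ⟨y0, m1, m2, rfl, m4⟩ := hT.cases hX.ax
  obtain ⟨z0, p1, p2, rfl, p4⟩ := hT.cases hX.ay
  rw [hly] at m1 m4
  rw [hlz] at p1 p4
  have hLy : (S c).sph.Lace G' y0 ((d c (fam j)).mu G' y0) z0 ((d c (fam j')).mu G' z0) :=
    (hT.lace (Z := Z) (l0 := l0) hjj m1 m2 p1 p2).1 hX.lace
  have hGG : G' = G := hun G' ⟨hA, y0, z0, m1, m2, m4, p1, p2, p4, hLy⟩
  subst hGG
  have ey : (Z.cl c).hp (n c) y0 = w1 := by
    refine low_unique g1 g4 hX.px ?_
    have h1 := hone j (Or.inl rfl) G' w hw y0 m1 hwG m2 hwl m4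
    have h2 : (Z.cl c).hp (n c) y0 = (Z.cl c).hp (n c) w ∨ (Z.cl c).hp (n c) y0 =
        ((Twrs.rel Z T).st l0).mu ((Z.cl c).hf G' (n c)) ((Z.cl c).hp (n c) w) := by
      rw [hT.mu hw hwG]
      rcases h1 with h | h
      · left; rw [h]
      · right; rw [h]
    rcases g3 with h | h
    · rw [h]; exact h2
    · rw [h, ((Twrs.rel Z T).st l0).mu_mu aw.1 aw.2]; exact h2.symm
  have ez : (Z.cl c).hp (n c) z0 = x1 := by
    refine low_unique k1 k4 hX.py ?_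
    have h1 := hone j' (Or.inr rfl) G' x hx z0 p1 hxG p2 hxl p4
    have h2 : (Z.cl c).hp (n c) z0 = (Z.cl c).hp (n c) x ∨ (Z.cl c).hp (n c) z0 =
        ((Twrs.rel Z T).st l0).mu ((Z.cl c).hf G' (n c)) ((Z.cl c).hp (n c) x) := by
      rw [hT.mu hx hxG]
      rcases h1 with h | h
      · left; rw [h]
      · right; rw [h]
    rcases k3 with h | h
    · rw [h]; exact h2
    · rw [h, ((Twrs.rel Z T).st l0).mu_mu ax.1 ax.2]; exact h2.symm
  rw [ey, ez]

end towers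

section exact

open Crest.Agent.R096.Agl5_543 Crest.Agent.R096.Exd_333

variable {E : Type} [NormedAddCommGroup E] [NormedSpace ℝ E] [FiniteDimensional ℝ E]
variable {Om : Set E} {ι0 : Type} {T0 : Tiling Om ι0} {κ : Type} {Kc : κ → Set E}
  {h3 : finrank ℝ E = 3} {hH : ∀ c, CoreH T0 (Kc c)}
  {hdis : ∀ c c', c ≠ c' → Disjoint (Kc c) (Kc c')}
variable {ι Φ J C : Type} [Nonempty J] {M : MeshC ι Φ E} {kk : κ → ι} {n : κ → ℕ} {fam : J → C}
  {s : GSt (meshH h3 hH hdis) fam}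
  {Z : Cols M (meshH h3 hH hdis) (fun c => Sum.inr c) kk (fun k => shellH h3 hH hdis k) n}
  {T : Twrs (fun k => shellH h3 hH hdis k) n s} {L : ∀ k, C → Lev T0 (frontier (Kc k)) J}
  {l0 : E → J}

/-- **(E1) for the exact patterns** -/
theorem exa_one (hT : EndsIn T (fun k a => exa h3 hH hdis (L k a))) {c : κ} {j : J}
    (hc : j ∈ (L c (fam j)).J0 → IsPreconnected {x | x ∈ frontier (Kc c) ∧
      (L c (fam j)).u x = (L c (fam j)).lv j}) :
    One ((Twrs.rel Z T).st l0) {F | kk c ∈ M.side F} j := by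
  refine one_bot hT ?_
  intro w hw w' hw' hl hl'
  have hj : j ∈ (L c (fam j)).J0 := by
    have := (exa_lab (L c (fam j)) hw).1
    rwa [hl] at this
  exact exa_comp (L c (fam j)) hj (hc hj) hw hl hw' hl'

/-- **(E2) for the exact patterns** -/
theorem exa_two (hT : EndsIn T (fun k a => exa h3 hH hdis (L k a))) {c : κ} {j j' : J}
    (hjj : fam j ≠ fam j') {A : Set ι}
    (hu : ∃! G : (shellH h3 hH hdis c).Fk, G ∈ {G | Tch M A ((Z.cl c).hf G (n c))} ∧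
      Pair h3 hH hdis (L c (fam j)) (L c (fam j')) j j' G) :
    Two ((Twrs.rel Z T).st l0) A {kk c} j j' := by
  refine two_bot hT hjj ?_ hu
  intro i _ G u hu v hv huG hvG hul hvl
  obtain ⟨g1, g2⟩ := exa_lab (L c (fam i)) hu
  obtain ⟨_, g4⟩ := exa_lab (L c (fam i)) hv
  rw [hul] at g1 g2
  rw [hvl] at g4
  exact ((L c (fam i)).mu_spec (fk_sub G) g1 huG g2).2.2.2.1 v (G.1.1.on_sub_bd hvG) g4

end exact

end Crest.Agent.R096.Exa_560
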