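import Crest.Agent.R096.Exa11_560
import Crest.Agent.R096.Init3_543
import Crest.Agent.R096.Vb9_965

/-!
# R096 (row 96), DOORS / EXA part 12 (helper560): (E2) at the tiny cores for the real active cells

`Q : QK (Pc Φ.F)` a quad with `c ∈ Q.Z`; active tiles = tiles with a point over
`lev b ∈ [s, 1 - s]` (`b ∈ Q.B`), `lev e = 0` (`e ∈ Q.Z`) (543 `mem_act_iff`).
* `tiny_psi`  : on the tiles of `V \ J0` at the frontier the push is defined.
* `tiny_hA`   : over the double point the tile is active.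
* `tiny_hA'`  : on an active tile the frontier is mapped into `P d`.
* `tiny_two`  : 662's `Two` at the shrunk tiny core, for the state after the towers.
-/

set_option autoImplicit false
set_option linter.unusedSectionVars false
set_option linter.style.longLine false

open Set Metric Module
open scoped Classical

namespace Crest.Agent.R096.Exa_560

open Crest.Agent.R096.Msh_715 Crest.Agent.R096.Agl5_543 Crest.Agent.R096.St_147
open Crest.Agent.R096.Twr_438 Crest.Agent.R096.Door_501 Crest.Agent.R096.Seq_213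
open Crest.Agent.R096.Brk1_582 Crest.Agent.R096.Brk2_582 Crest.Agent.R096.Brk3_582
open Crest.Agent.R096.Bsp_628 Crest.Agent.R096.Init_543
open Crest.Agent.R096.Mbf_337 (sb KJ Tiny gau)
open Crest.Agent.R096.SkC1_961 (E3 FoamD)
open Crest.Agent.R096.Ce_537 (PLEquiv IsBall)
open Crest.Agent.R096.SkB_662

variable {δ κ0 R c0 : ℝ} {La Om : Set E3} {ι : Type} {Φ : FoamD δ κ0 R c0 La} {T : Tiling Om ι}
  {f : E3 → E3} {κ1 : ℝ}

section one

variable {c : Φ.F} {J0 J V : Set ι} {θ : E3 → E3} {φ : E3 → ℝ}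

theorem gau_self {c : Bx (Fin 3)} {p : E3} (hp : ∀ k, c.lo k ≤ p k ∧ p k ≤ c.hi k) :
    gau c p p = 0 := by
  have h : {r : ℝ | 0 < r ∧ ∀ k, r⁻¹ * (p k - p k) + p k ∈ Icc (c.lo k) (c.hi k)} = Ioi 0 := by
    ext r
    constructor
    · exact fun h => h.1
    · intro h
      refine ⟨h, fun k => ?_⟩
      rw [sub_self, mul_zero, zero_add]
      exact hp k
  unfold gau
  rw [h, csInf_Ioi]

/-- the push is defined on the tiles of `V \ J0` at the frontier -/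
theorem tiny_psi (hLa : IsOpen La) (H : Tiny Φ T f κ1 c J0 J V θ φ) {q : ι} {x1 x : E3}
    (hx1 : x1 ∈ frontier (KJ T J)) (hq1 : x1 ∈ P (T.H q)) (hx : x ∈ P (T.H q)) :
    Φ.Psi (f x) ∈ Pc Φ.F c ∧ ∃ e, e ≠ c ∧ Φ.Psi (f x) ∈ Pc Φ.F e := by
  obtain ⟨ρ1, ρ2, ρ3, ρ4, d, hd, hdk, h1, h12, h23, h34, h4, hray, hJ0, hfr, hV, hosc, hth⟩ :=
    H.room
  obtain ⟨g1, g2⟩ := hfr x1 hx1
  have hqV : q ∈ V := hV q ⟨x1, hq1, by linarith⟩
  have hq0 : q ∉ J0 := by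
    intro h
    have := hJ0 x1 (mem_iUnion₂.2 ⟨q, h, hq1⟩)
    linarith
  have h5 := (abs_le.1 (hosc q hqV hq0 x hx x1 hq1).1).1
  have hin := H.inside x (mem_iUnion₂.2 ⟨q, hqV, hx⟩)
  have hfx : f x ∈ Pc Φ.F c := ⟨fun k => (hin k).1.le, fun k => (hin k).2.le⟩
  refine (Vb_965.pushD Φ hLa).mem c (f x) hfx ((Vb_965.muD_pos Φ hLa hfx).2 ?_)
  intro hS
  have he : f x = (Φ.B c).lo := by
    funext k
    have h6 := hS k
    have h7 : (Φ.B c).hi k = (Φ.B c).lo k := by rw [H.pt]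
    exact le_antisymm (by rw [← h7]; exact h6.2) h6.1
  have h8 : gau c.1 (Φ.B c).lo (f x) = 0 := by
    rw [he]
    refine gau_self fun k => ?_
    rw [← he]
    exact ⟨(hin k).1.le, (hin k).2.le⟩
  rw [h8] at h5
  linarith

/-- the coordinates which are `< 1` -/
theorem lt_one_sub (hLa : IsOpen La) {Q : QK (Pc Φ.F)} {y : E3} (hy : y ∈ La)
    (hB : ∀ b ∈ Q.B, sb Φ y b < 1) (hZ : ∀ e ∈ Q.Z, sb Φ y e < 1) {e : Φ.F}
    (he : sb Φ y e < 1) : e ∈ Q.B ∪ Q.Z := by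
  have FF := foam Φ.bf hLa
  have hsub : Q.B ∪ Q.Z ⊆ {e | sb Φ y e < 1} := by
    rintro e (h | h)
    · exact hB e h
    · exact hZ e h
  have h1 : ({e | sb Φ y e < 1} : Set Φ.F).ncard ≤ 4 := by
    have := FF.sc_lt_one_ncard hy
    rw [Fintype.card_fin] at this
    exact this
  have h2 : Q.B ∪ Q.Z = {e | sb Φ y e < 1} :=
    Set.eq_of_subset_of_ncard_le hsub (by rw [Q.card_union]; exact h1) (FF.sc_lt_one_finite hy)
  rw [h2]; exact he

theorem mem_Z_iff {Q : QK (Pc Φ.F)} {c d e : Φ.F} (hc : c ∈ Q.Z) (hd : d ∈ Q.Z) (hcd : d ≠ c)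
    (he : e ∈ Q.Z) (hec : e ≠ c) : e = d := by
  have h1 : ({c, d} : Set Φ.F) = Q.Z := by
    refine Set.eq_of_subset_of_ncard_le ?_ ?_ Q.finZ
    · rintro x (rfl | rfl)
      · exact hc
      · exact hd
    · rw [Q.cZ, ncard_pair hcd.symm]
  rw [← h1] at he
  rcases he with h | h
  · exact absurd h hec
  · exact h

/-- **(hA)** over the double point the tile is active (`x` itself is the point) -/
theorem tiny_hA (hLa : IsOpen La) (hδ : 0 < δ) (hR : 0 < R) (H : Tiny Φ T f κ1 c J0 J V θ φ)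
    {Q : QK (Pc Φ.F)} {d : Φ.F} (hc : c ∈ Q.Z) (hd : d ∈ Q.Z) (hcd : d ≠ c) {s A B : ℝ}
    (hκ : Cn δ R * κ1 < 1) (hA : s + Cn δ R * κ1 ≤ A) (hA0 : Cn δ R * κ1 < A)
    (hB : B + Cn δ R * κ1 ≤ 1 - s) (hB1 : B < 1) {x : E3} (hx : x ∈ frontier (KJ T J))
    (hxd : θ x ∈ Pc Φ.F d) (hb : ∀ b ∈ Q.B, A ≤ sb Φ (θ x) b ∧ sb Φ (θ x) b ≤ B) :
    (∀ b ∈ Q.B, Φ.lev b (f x) ∈ Icc s (1 - s)) ∧ ∀ e ∈ Q.Z, Φ.lev e (f x) = 0 := by
  have FF := foam Φ.bf hLa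
  have hthc := th_mem' H hx
  have hthL : θ x ∈ La := FF.sub c hthc
  have hn := fun a => abs_le.1 (tiny_near hLa hδ hR hκ H hx a)
  refine ⟨fun b hb' => ?_, ?_⟩
  · obtain ⟨h1, h2⟩ := hb b hb'
    have h3 := hn b
    exact ⟨by linarith [h3.2], by linarith [h3.1]⟩
  · have hxK : x ∈ KJ T J := fr_sub H hx
    obtain ⟨q, hq, hxq⟩ := mem_iUnion₂.1 hxK
    obtain ⟨hpc, e', he'c, hpe'⟩ := tiny_psi hLa H hx hxq hxq
    have hZ : ∀ e ∈ Q.Z, sb Φ (θ x) e = 0 := by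
      intro e he
      by_cases h : e = c
      · rw [h]; exact tiny_c hLa H hx
      · rw [mem_Z_iff hc hd hcd he h]
        exact (FF.sc_eq_zero hthL).2 hxd
    have h0 : Φ.lev e' (f x) = 0 := (FF.sc_eq_zero (FF.sub c hpc)).2 hpe'
    have h1 : sb Φ (θ x) e' ≤ Cn δ R * κ1 := by
      have := (hn e').2
      rw [h0] at this
      linarith
    have h2 : e' ∈ Q.B ∪ Q.Z := lt_one_sub hLa hthL (fun b hb' => (hb b hb').2.trans_lt hB1)
      (fun e he => by rw [hZ e he]; exact one_pos) (h1.trans_lt hκ)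
    have h3 : e' ∈ Q.Z := by
      rcases h2 with h2 | h2
      · have := (hb e' h2).1
        linarith
      · exact h2
    have h4 : e' = d := mem_Z_iff hc hd hcd h3 he'c
    subst h4
    intro e he
    by_cases h : e = c
    · rw [h]; exact (FF.sc_eq_zero (FF.sub c hpc)).2 hpc
    · rw [mem_Z_iff hc hd hcd he h]; exact h0

/-- **(hA')** on an active tile the frontier is mapped into `P d` -/
theorem tiny_hA' (hLa : IsOpen La) (hδ : 0 < δ) (hR : 0 < R) (H : Tiny Φ T f κ1 c J0 J V θ φ)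
    {Q : QK (Pc Φ.F)} {d : Φ.F} (hc : c ∈ Q.Z) (hd : d ∈ Q.Z) (hcd : d ≠ c) {s : ℝ}
    (hκ : Cn δ R * κ1 < 1) (hs : (Cn δ R + 1) * κ1 < s) (hs1 : s ≤ 1 / 2) {q : ι} {x x0 : E3}
    (hx : x ∈ frontier (KJ T J)) (hxq : x ∈ P (T.H q)) (hx0 : x0 ∈ P (T.H q))
    (hb : ∀ b ∈ Q.B, Φ.lev b (f x0) ∈ Icc s (1 - s)) (hz : ∀ e ∈ Q.Z, Φ.lev e (f x0) = 0) :
    θ x ∈ Pc Φ.F d := by
  have FF := foam Φ.bf hLa
  have hC := Cn_nonneg hδ hR
  obtain ⟨dd, hdd, hdk, hosc⟩ := tiny_tile H hx hxq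
  have hs0 : 0 < s := by
    have h1 : 0 ≤ (Cn δ R + 1) * κ1 := mul_nonneg (by linarith) (hdd.le.trans hdk)
    linarith
  have h1 : θ x ∈ frontier c.1.set := th_mem H hx
  rw [frontier_c Φ hLa c] at h1
  obtain ⟨hthc, e, hec, hthe⟩ := h1
  have hthL : θ x ∈ La := FF.sub c hthc
  have h2 : sb Φ (θ x) e = 0 := (FF.sc_eq_zero hthL).2 hthe
  have h3 := (abs_le.1 (tiny_near hLa hδ hR hκ H hx e)).1
  have h4 := (abs_le.1 (hosc x0 hx0 x hxq e)).2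
  have h5 : Φ.lev e (f x0) < s := by
    rw [h2] at h3
    have : (Cn δ R + 1) * κ1 = Cn δ R * κ1 + κ1 := by ring
    linarith
  obtain ⟨hpc, _⟩ := tiny_psi hLa H hx hxq hx0
  have h6 : e ∈ Q.B ∪ Q.Z := by
    refine lt_one_sub hLa (y := Φ.Psi (f x0)) (FF.sub c hpc) (fun b hb' => ?_) (fun e he => ?_) ?_
    · have : Φ.lev b (f x0) ≤ 1 - s := (hb b hb').2
      exact this.trans_lt (by linarith)
    · have : Φ.lev e (f x0) = 0 := hz e he
      exact this.trans_lt one_pos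
    · exact h5.trans (by linarith)
  have h7 : e ∈ Q.Z := by
    rcases h6 with h6 | h6
    · have := (hb e h6).1
      exact absurd h5 (not_lt.2 this)
    · exact h6
  rw [← mem_Z_iff hc hd hcd h7 hec]
  exact hthe

end one

section two

open Crest.Agent.R096.Exd_333

variable {κ : Type} {cf : κ → Φ.F} {J0 J V : κ → Set ι} {θ : κ → E3 → E3} {φ : κ → E3 → ℝ}
  {h3 : finrank ℝ E3 = 3} {hH : ∀ k, CoreH T (KJ T (J k))}
  {hdis : ∀ c c', c ≠ c' → Disjoint (KJ T (J c)) (KJ T (J c'))}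
  {ι' Φ' JJ C : Type} [Nonempty JJ] {M : MeshC ι' Φ' E3} {kk : κ → ι'} {n : κ → ℕ} {fam : JJ → C}
  {s : GSt (meshH h3 hH hdis) fam}
  {Z : Cols M (meshH h3 hH hdis) (fun c => Sum.inr c) kk (fun k => shellH h3 hH hdis k) n}
  {Tw : Twrs (fun k => shellH h3 hH hdis k) n s} {L : ∀ k, C → Lev T (frontier (KJ T (J k))) JJ}
  {l0 : E3 → JJ}

/-- the face of the shell of a 2-cell of the frontier -/
theorem exists_fk {m : κ} {F : C2 T} (hF : F.set ⊆ frontier (KJ T (J m))) :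
    ∃ G : (shellH h3 hH hdis m).Fk, G.1.1 = F := by
  have h := (face_iff h3 (fun c => (hH c).core) (fun c => (hH c).sub) (fun c => (hH c).cc) hdis
    F m).1 hF
  exact ⟨⟨⟨F, h.1⟩, h.2⟩, rfl⟩

/-- the inner tile of a face of the shell -/
theorem exists_inner {m : κ} (G : (shellH h3 hH hdis m).Fk) :
    ∃ q ∈ G.1.1.side h3, P (T.H q) ⊆ KJ T (J m) :=
  ((T.sub_frontier_iff h3 (hH m).core (hH m).sub (hH m).cc G.1.1).1 (fk_sub G)).1

/-- **(E2) at the tiny core `m`** for the quad `Q` with `cf m ∈ Q.Z`; `A'` = the active cells, over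
the inner tiles with a point over the quad -/
theorem tiny_two (hLa : IsOpen La) (hδ : 0 < δ) (hR : 0 < R)
    (hT : EndsIn Tw (fun k a => exa h3 hH hdis (L k a))) {m : κ}
    (H : Tiny Φ T f κ1 (cf m) (J0 m) (J m) (V m) (θ m) (φ m)) {Q : QK (Pc Φ.F)}
    (hc : cf m ∈ Q.Z) {a a' : Φ.F} (ha : a ∈ Q.B) (ha' : a' ∈ Q.B) (haa : a ≠ a') {j j' : JJ}
    (hfam : fam j ≠ fam j') (hu : ∀ x ∈ frontier (KJ T (J m)), (L m (fam j)).u x = sb Φ (θ m x) a)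
    (hu' : ∀ x ∈ frontier (KJ T (J m)), (L m (fam j')).u x = sb Φ (θ m x) a')
    (hj : j ∈ (L m (fam j)).J0) (hj' : j' ∈ (L m (fam j')).J0) {s₁ A B : ℝ}
    (hκ : Cn δ R * κ1 < 1) (hs : (Cn δ R + 1) * κ1 < s₁) (hs1 : s₁ ≤ 1 / 2)
    (hA : s₁ + Cn δ R * κ1 ≤ A) (hA0 : Cn δ R * κ1 < A) (hB : B + Cn δ R * κ1 ≤ 1 - s₁)
    (hB1 : B < 1) (hA1 : 0 ≤ A)
    (hlv : A < (L m (fam j)).lv j ∧ (L m (fam j)).lv j < B)
    (hlv' : A < (L m (fam j')).lv j' ∧ (L m (fam j')).lv j' < B)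
    (hgen : ∀ y ∈ frontier (KJ T (J m)), T.dim y = 1 → (L m (fam j)).u y = (L m (fam j)).lv j →
      (L m (fam j')).u y ≠ (L m (fam j')).lv j') {A' : Set ι'}
    (hAct : ∀ (G : (shellH h3 hH hdis m).Fk) (q : ι), q ∈ G.1.1.side h3 →
      P (T.H q) ⊆ KJ T (J m) → (Tch M A' ((Z.cl m).hf G (n m)) ↔ ∃ x ∈ P (T.H q),
        (∀ b ∈ Q.B, Φ.lev b (f x) ∈ Icc s₁ (1 - s₁)) ∧ ∀ e ∈ Q.Z, Φ.lev e (f x) = 0)) :
    Two ((Twrs.rel Z Tw).st l0) A' {kk m} j j' := by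
  refine exa_two hT hfam ?_
  -- the second cell
  obtain ⟨d, hd, hcd⟩ : ∃ d ∈ Q.Z, d ≠ cf m := by
    by_contra hcon
    push Not at hcon
    have : Q.Z ⊆ {cf m} := fun e he => hcon e he
    have h1 := ncard_le_ncard this (by simp)
    rw [Q.cZ, ncard_singleton] at h1
    omega
  have hB2 : ∀ b ∈ Q.B, b = a ∨ b = a' := by
    intro b hb
    have h1 : ({a, a'} : Set Φ.F) = Q.B := by
      refine Set.eq_of_subset_of_ncard_le ?_ ?_ Q.finB
      · rintro x (rfl | rfl)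
        · exact ha
        · exact ha'
      · rw [Q.cB, ncard_pair haa]
    rw [← h1] at hb
    exact hb
  have hdj : ∀ b ∈ Q.B, ∀ e ∈ Q.Z, b ≠ e := fun b hb e he h =>
    (Set.disjoint_left.1 Q.dis hb) (h ▸ he)
  obtain ⟨y0, hy0⟩ := Q.ne
  have hy0' := mem_fc.1 hy0
  obtain ⟨e, he⟩ := H.bij
  have hne : (Pc Φ.F a ∩ Pc Φ.F a' ∩ Pc Φ.F (cf m) ∩ Pc Φ.F d).Nonempty :=
    ⟨y0, ⟨⟨hy0' a (Or.inl ha), hy0' a' (Or.inl ha')⟩, hy0' _ (Or.inr hc)⟩, hy0' d (Or.inr hd)⟩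
  refine exa_cross_quad (T' := T) (Kc' := fun k => KJ T (J k)) (h3' := h3) (hH' := hH)
    (hdis' := hdis) (q := m) (θ := θ m) (c := cf m) (d := d) (a := a) (a' := a') hLa e he haa
    (hdj a ha _ hc) (hdj a' ha' _ hc) hcd (hdj a ha d hd) (hdj a' ha' d hd) hne
    (L m (fam j)) (L m (fam j')) hu hu' hj hj' (hA1.trans hlv.1.le)
    (hlv.2.trans hB1) (hA1.trans hlv'.1.le) (hlv'.2.trans hB1) hgen
    {G | Tch M A' ((Z.cl m).hf G (n m))} ?_ ?_
  · intro x hx hxd h1 h2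
    obtain ⟨F, hF, hxF⟩ := (sgd h3 hH m).cov x hx
    obtain ⟨G, hG⟩ := exists_fk (h3 := h3) (hH := hH) (hdis := hdis) hF
    refine ⟨G, ?_, by rw [hG]; exact hxF⟩
    obtain ⟨q, hq, hqK⟩ := exists_inner G
    have hxq : x ∈ P (T.H q) := (C2.sub_tile (h3 := h3) hq) (by rw [hG]; exact hxF)
    refine (hAct G q hq hqK).2 ⟨x, hxq, ?_⟩
    refine tiny_hA hLa hδ hR H hc hd hcd hκ hA hA0 hB hB1 hx hxd ?_
    intro b hb
    rcases hB2 b hb with rfl | rfl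
    · rw [← hu x hx, h1]; exact ⟨hlv.1.le, hlv.2.le⟩
    · rw [← hu' x hx, h2]; exact ⟨hlv'.1.le, hlv'.2.le⟩
  · intro G hG x hxG _ _
    obtain ⟨q, hq, hqK⟩ := exists_inner G
    obtain ⟨x0, hx0, h1, h2⟩ := (hAct G q hq hqK).1 hG
    exact tiny_hA' hLa hδ hR H hc hd hcd hκ hs hs1 (fk_sub G hxG)
      ((C2.sub_tile (h3 := h3) hq) hxG) hx0 h1 h2

end two

end Crest.Agent.R096.Exa_560
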