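import Crest.Agent.R096.Lac1_441
import Crest.Agent.R096.Mrg5_715

/-!
# R096 (row 96), DOORS / EXA part 1 (helper560): level lines in a 2-cell of a tiling

* `exists_pair`  : an affine function on a 2-cell `F` which is not `c` at the vertices and is `c`
  at a boundary point is `c` at exactly two boundary points `p, q`, and on `F` exactly on `[p, q]`.
* `lace_level`   : `p, q` separate `x, y` on `F.bd` iff `g - c` has different signs at `x, y`.
-/

set_option autoImplicit false

open Set Metric Module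
open scoped Classical

namespace Crest.Agent.R096.Exa_560

open Crest.Agent.R096.Msh_715 Crest.Agent.R096.Agl5_543 Crest.Agent.R096.St_147
  Crest.Agent.R096.Lac_441

variable {E : Type} [NormedAddCommGroup E] [NormedSpace ℝ E]
variable {Om : Set E} {ι : Type} {T : Tiling Om ι}

/-- a point strictly inside -/
theorem comb_oc {x y z : E} (hz : z ∈ T.oc x) (hy : y ∈ T.cc x) {t : ℝ} (h0 : 0 < t)
    (h1 : t ≤ 1) : t • z + (1 - t) • y ∈ T.oc x := by
  intro i hi h hh
  obtain ⟨a1, a2⟩ := hz i hi h hh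
  obtain ⟨b1, b2⟩ := hy i hi h hh
  rw [map_add, map_smul, map_smul, smul_eq_mul, smul_eq_mul]
  have key : t * h.1 z + (1 - t) * h.1 y ≤ h.2 := by
    nlinarith [mul_nonneg h0.le (sub_nonneg.2 a1), mul_nonneg (sub_nonneg.2 h1) (sub_nonneg.2 b1)]
  refine ⟨key, ⟨fun e => ?_, fun e => ?_⟩⟩
  · refine a2.1 (le_antisymm a1 ?_)
    by_contra hlt
    push Not at hlt
    nlinarith [mul_pos h0 (sub_pos.2 hlt), mul_nonneg (sub_nonneg.2 h1) (sub_nonneg.2 b1)]
  · rw [a2.2 e, b2 e]; ring

/-- affine functions on combinations -/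
theorem aff_comb (g : E →ᵃ[ℝ] ℝ) (t : ℝ) (x y : E) :
    g (t • x + (1 - t) • y) = t * g x + (1 - t) * g y := by
  have := Convex.combo_affine_apply (f := g) (x := x) (y := y) (a := t) (b := 1 - t) (by ring)
  rw [this, smul_eq_mul, smul_eq_mul]

/-- along a direction on which the linear part vanishes -/
theorem aff_dir (g : E →ᵃ[ℝ] ℝ) {v : E} (hv : g.linear v = 0) (z : E) (t : ℝ) :
    g (z + t • v) = g z := by
  have h := g.map_vadd z (t • v)
  rw [map_smul, hv, smul_zero, vadd_eq_add, vadd_eq_add, zero_add, add_comm] at h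
  exact h

theorem compact_segment (x y : E) : IsCompact (segment ℝ x y) := by
  rw [segment_eq_image_lineMap]
  exact isCompact_Icc.image (AffineMap.lineMap_continuous)

theorem aff_sub (g : E →ᵃ[ℝ] ℝ) (y z : E) : g.linear (y - z) = g y - g z := by
  have := g.linearMap_vsub y z
  rw [vsub_eq_sub, vsub_eq_sub] at this
  exact this

section level

variable [FiniteDimensional ℝ E] (F : C2 T) (g : E →ᵃ[ℝ] ℝ) {c : ℝ}

/-- a boundary point of level `c`: points above and below -/
theorem exists_up_down (hv : ∀ v ∈ F.set, T.dim v = 0 → g v ≠ c) {y : E} (hy : y ∈ F.bd)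
    (hyc : g y = c) : T.dim y = 1 ∧ (∃ a ∈ F.set, c < g a) ∧ ∃ a ∈ F.set, g a < c := by
  have hyF := F.bd_sub hy
  have h1 := (F.mem_bd_iff hyF).1 hy
  have hd : T.dim y = 1 := by
    have h0 : T.dim y ≠ 0 := fun h => hv y hyF h hyc
    omega
  have hyO := F.set_sub hyF
  have hcc : T.cc y ⊆ F.set := by
    rw [F.set_eq] at hyF ⊢; exact T.cc_sub_of_mem hyF
  obtain ⟨a, b, hab, hcy, hoy, ha0, hb0, ha, hb⟩ := T.edge_eq hyO hd
  have hya : y ∈ openSegment ℝ a b := by rw [← hoy]; exact T.self_mem_oc y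
  obtain ⟨s, t, hs, ht, hst, hy'⟩ := hya
  have e1 : t = 1 - s := by linarith
  rw [e1] at hy'
  have h2 := aff_comb g s a b
  rw [hy', hyc] at h2
  have hga := hv a (hcc ha) ha0
  have hgb := hv b (hcc hb) hb0
  refine ⟨hd, ?_⟩
  rcases lt_or_gt_of_ne hga with h3 | h3
  · rcases lt_or_gt_of_ne hgb with h4 | h4
    · exfalso
      nlinarith [mul_pos hs (sub_pos.2 h3), mul_pos (show 0 < 1 - s by linarith) (sub_pos.2 h4)]
    · exact ⟨⟨b, hcc hb, h4⟩, a, hcc ha, h3⟩
  · rcases lt_or_gt_of_ne hgb with h4 | h4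
    · exact ⟨⟨a, hcc ha, h3⟩, b, hcc hb, h4⟩
    · exfalso
      nlinarith [mul_pos hs (sub_pos.2 h3), mul_pos (show 0 < 1 - s by linarith) (sub_pos.2 h4)]

omit [FiniteDimensional ℝ E] in
/-- **the two boundary points of a level** -/
theorem exists_pair (hu : ∃ a ∈ F.set, c < g a) (hd : ∃ a ∈ F.set, g a < c) :
    ∃ p q : E, p ≠ q ∧ p ∈ F.bd ∧ q ∈ F.bd ∧ g p = c ∧ g q = c ∧
      (∀ w ∈ F.bd, g w = c → w = p ∨ w = q) ∧ (∀ w ∈ F.set, g w = c → w ∈ segment ℝ p q) := by
  obtain ⟨a, ha, hau⟩ := hu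
  obtain ⟨b, hb, hbd⟩ := hd
  set x := F.pt with hx
  have hxO : x ∈ Om := F.pt_mem
  rw [F.set_eq] at ha hb
  -- an interior point of level `c`
  obtain ⟨z, hz, hzc⟩ : ∃ z ∈ T.oc x, g z = c := by
    have hxo := T.self_mem_oc x
    rcases le_or_gt c (g x) with h | h
    · have h1 : 0 < g x - g b := by linarith
      refine ⟨_, comb_oc hxo hb (t := (c - g b) / (g x - g b)) (div_pos (by linarith) h1)
        ((div_le_one h1).2 (by linarith)), ?_⟩
      rw [aff_comb]; field_simp; ring
    · have h1 : 0 < g a - g x := by linarith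
      refine ⟨_, comb_oc hxo ha (t := (g a - c) / (g a - g x)) (div_pos (by linarith) h1)
        ((div_le_one h1).2 (by linarith)), ?_⟩
      rw [aff_comb]; field_simp; ring
  have hzO : z ∈ Om := T.cc_sub_Om hxO (T.oc_sub_cc x hz)
  have hcc : T.cc z = T.cc x := T.cc_eq_of_mem_oc hxO hz
  have hoc : T.oc z = T.oc x := T.oc_eq_of_mem hxO hz
  have hV : finrank ℝ (T.V z) = 2 := by
    rw [T.V_eq_of_mem_oc hxO hz]; exact F.dim_pt
  -- a direction of constant level
  have hdV : a - z ∈ T.V z := T.sub_mem_V (by rw [hcc]; exact ha)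
  have hgd : g.linear (a - z) = g a - c := by rw [aff_sub, hzc]
  have hd0 : a - z ≠ 0 := by
    intro h
    rw [h, map_zero] at hgd
    linarith
  obtain ⟨w0, hw0, hspan, hind⟩ := exists_second hV hdV hd0
  set v : E := w0 - (g.linear w0 / g.linear (a - z)) • (a - z) with hvdef
  have hgpos : g.linear (a - z) ≠ 0 := by rw [hgd]; linarith
  have hvV : v ∈ T.V z := (T.V z).sub_mem hw0 ((T.V z).smul_mem _ hdV)
  have hgv : g.linear v = 0 := by
    rw [hvdef, map_sub, map_smul, smul_eq_mul, div_mul_cancel₀ _ hgpos, sub_self]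
  have hv0 : v ≠ 0 := by
    intro h
    have := hind (-(g.linear w0 / g.linear (a - z))) 1 (by
      rw [one_smul, neg_smul, neg_add_eq_sub]; exact h)
    exact one_ne_zero this.2
  have hpar : ∀ w ∈ T.cc x, g w = c → ∃ t : ℝ, w = z + t • v := by
    intro w hw hwc
    have h1 : w - z ∈ T.V z := T.sub_mem_V (by rw [hcc]; exact hw)
    obtain ⟨α, β, hαβ⟩ := hspan _ h1
    have h2 : w - z = (α + β * (g.linear w0 / g.linear (a - z))) • (a - z) + β • v := by
      rw [hαβ, hvdef]; module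
    have h3 : g.linear (w - z) = 0 := by rw [aff_sub, hwc, hzc, sub_self]
    rw [h2, map_add, map_smul, map_smul, hgv, smul_zero, add_zero, smul_eq_mul] at h3
    have h4 := (mul_eq_zero.1 h3).resolve_right hgpos
    rw [h4, zero_smul, zero_add] at h2
    exact ⟨β, by rw [← h2]; abel⟩
  obtain ⟨t1, ht1, h1a, h1b, h1c⟩ := T.exists_exit hzO hvV hv0
  obtain ⟨t2, ht2, h2a, h2b, h2c⟩ := T.exists_exit hzO ((T.V z).neg_mem hvV) (neg_ne_zero.2 hv0)
  rw [hcc] at h1a h2a
  rw [hoc] at h1b h2b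
  have hbd : ∀ w, w ∈ F.bd ↔ w ∈ T.cc x ∧ w ∉ T.oc x := by
    intro w; rw [F.bd_eq]; rfl
  have hneg : ∀ t : ℝ, z + t • (-v) = z + (-t) • v := by
    intro t; rw [smul_neg, neg_smul]
  -- beyond the exit nothing is in the cell
  have hmax : ∀ t : ℝ, z + t • v ∈ T.cc x → t ≤ t1 := by
    intro t ht
    by_contra hcon
    push Not at hcon
    apply h1b
    have ht0 : 0 < t := by linarith
    have := comb_oc hz ht (t := 1 - t1 / t) (by rw [sub_pos]; exact (div_lt_one ht0).2 hcon)
      (by have : 0 ≤ t1 / t := by positivity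
          linarith)
    have e : (1 - t1 / t) • z + (1 - (1 - t1 / t)) • (z + t • v) = z + t1 • v := by
      rw [smul_add, ← add_assoc, ← add_smul, smul_smul]
      have e1 : 1 - t1 / t + (1 - (1 - t1 / t)) = 1 := by ring
      have e2 : (1 - (1 - t1 / t)) * t = t1 := by field_simp; ring
      rw [e1, e2, one_smul]
    rw [e] at this
    exact this
  have hmin : ∀ t : ℝ, z + t • v ∈ T.cc x → -t2 ≤ t := by
    intro t ht
    by_contra hcon
    push Not at hcon
    apply h2b
    have ht0 : t < 0 := by linarith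
    have hq : 0 < -t := by linarith
    have := comb_oc hz ht (t := 1 - t2 / (-t)) (by rw [sub_pos]; exact (div_lt_one hq).2 (by linarith))
      (by have : 0 ≤ t2 / (-t) := by positivity
          linarith)
    have e : (1 - t2 / (-t)) • z + (1 - (1 - t2 / (-t))) • (z + t • v) = z + t2 • (-v) := by
      rw [hneg, smul_add, ← add_assoc, ← add_smul, smul_smul]
      have e1 : 1 - t2 / (-t) + (1 - (1 - t2 / (-t))) = 1 := by ring
      have e2 : (1 - (1 - t2 / (-t))) * t = -t2 := by
        rw [sub_sub_cancel, div_neg, neg_mul, div_mul_cancel₀ _ ht0.ne]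
      rw [e1, e2, one_smul]
    rw [e] at this
    exact this
  have hin : ∀ t : ℝ, -t2 < t → t < t1 → z + t • v ∈ T.oc x := by
    intro t h1 h2
    rcases le_or_gt 0 t with h | h
    · rw [← hoc]; exact h1c t h h2
    · have := h2c (-t) (by linarith) (by linarith)
      rw [hneg, neg_neg, hoc] at this
      exact this
  refine ⟨z + t1 • v, z + t2 • (-v), ?_, (hbd _).2 ⟨h1a, h1b⟩, (hbd _).2 ⟨h2a, h2b⟩,
    by rw [aff_dir g hgv, hzc], by rw [hneg, aff_dir g hgv, hzc], ?_, ?_⟩
  · intro h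
    rw [hneg, add_right_inj] at h
    have : (t1 - -t2) • v = 0 := by rw [sub_smul, h, sub_self]
    rcases smul_eq_zero.1 this with h' | h'
    · linarith
    · exact hv0 h'
  · intro w hw hwc
    obtain ⟨hw1, hw2⟩ := (hbd w).1 hw
    obtain ⟨t, rfl⟩ := hpar w hw1 hwc
    rcases (hmax t hw1).lt_or_eq with h | h
    · rcases (hmin t hw1).lt_or_eq with h' | h'
      · exact absurd (hin t h' h) hw2
      · right; rw [hneg, h']
    · left; rw [h]
  · intro w hw hwc
    rw [F.set_eq] at hw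
    obtain ⟨t, rfl⟩ := hpar w hw hwc
    have ha1 := hmax t hw
    have ha2 := hmin t hw
    have hd : 0 < t1 + t2 := by linarith
    refine ⟨(t + t2) / (t1 + t2), (t1 - t) / (t1 + t2), div_nonneg (by linarith) hd.le,
      div_nonneg (by linarith) hd.le, by field_simp; ring, ?_⟩
    rw [hneg, smul_add, smul_add, smul_smul, smul_smul, add_add_add_comm, ← add_smul, ← add_smul]
    have e1 : (t + t2) / (t1 + t2) + (t1 - t) / (t1 + t2) = 1 := by field_simp; ring
    have e2 : (t + t2) / (t1 + t2) * t1 + (t1 - t) / (t1 + t2) * -t2 = t := by field_simp; ring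
    rw [e1, e2, one_smul]

/-- **`Lace` of a level line** -/
theorem lace_level (h3 : finrank ℝ E = 3) {p q x y : E} (hp : p ∈ F.bd) (hq : q ∈ F.bd)
    (hpc : g p = c) (hqc : g q = c) (hall : ∀ w ∈ F.bd, g w = c → w = p ∨ w = q) (hx : x ∈ F.bd)
    (hy : y ∈ F.bd) (hxc : g x ≠ c) (hyc : g y ≠ c) :
    (meshC T h3).Lace F p q x y ↔ (g x < c ∧ c < g y) ∨ (g y < c ∧ c < g x) := by
  have hcont : Continuous g := g.continuous_of_finiteDimensional
  have hpx : p ≠ x := fun h => hxc (by rw [← h]; exact hpc)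
  have hpy : p ≠ y := fun h => hyc (by rw [← h]; exact hpc)
  have hqx : q ≠ x := fun h => hxc (by rw [← h]; exact hqc)
  have hqy : q ≠ y := fun h => hyc (by rw [← h]; exact hqc)
  constructor
  · intro hl
    by_contra hcon
    -- the segments `[p,q]` and `[x,y]` are disjoint
    have hconv : Convex ℝ F.set := by rw [F.set_eq]; exact T.convex_cc _
    have hmeet := F.meet_of_lace (K := segment ℝ p q) (K' := segment ℝ x y)
      (convex_segment p q).isPreconnected (convex_segment x y).isPreconnected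
      (compact_segment p q) (compact_segment x y)
      (hconv.segment_subset (F.bd_sub hp) (F.bd_sub hq))
      (hconv.segment_subset (F.bd_sub hx) (F.bd_sub hy)) hp hq hx hy hpx hpy hqx hqy
      (left_mem_segment ℝ p q) (right_mem_segment ℝ p q) (left_mem_segment ℝ x y)
      (right_mem_segment ℝ x y) hl
    obtain ⟨w, ⟨s, t, hs, ht, hst, rfl⟩, ⟨s', t', hs', ht', hst', he⟩⟩ := hmeet
    have e1 : t = 1 - s := by linarith
    have e2 : t' = 1 - s' := by linarith
    rw [e1, e2] at he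
    have h1 := aff_comb g s p q
    have h2 := aff_comb g s' x y
    rw [he, h1, hpc, hqc] at h2
    rcases lt_or_gt_of_ne hxc with h4 | h4 <;> rcases lt_or_gt_of_ne hyc with h5 | h5
    · rw [e2] at ht'
      nlinarith [mul_nonneg hs' (sub_nonneg.2 h4.le), mul_nonneg ht' (sub_nonneg.2 h5.le),
        mul_pos (sub_pos.2 h4) (sub_pos.2 h5)]
    · exact hcon (Or.inl ⟨h4, h5⟩)
    · exact hcon (Or.inr ⟨h5, h4⟩)
    · rw [e2] at ht'
      nlinarith [mul_nonneg hs' (sub_nonneg.2 h4.le), mul_nonneg ht' (sub_nonneg.2 h5.le),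
        mul_pos (sub_pos.2 h4) (sub_pos.2 h5)]
  · intro hsgn
    rw [lace_iff h3 F hp hq hx hy hpx hpy hqx hqy]
    rintro ⟨K, hK, hKF, hpK, hqK, hxK, hyK⟩
    have himg := hK.image g hcont.continuousOn
    have hord := himg.ordConnected
    have hcK : c ∈ g '' K := by
      rcases hsgn with ⟨h1, h2⟩ | ⟨h1, h2⟩
      · exact hord.out ⟨x, hxK, rfl⟩ ⟨y, hyK, rfl⟩ ⟨h1.le, h2.le⟩
      · exact hord.out ⟨y, hyK, rfl⟩ ⟨x, hxK, rfl⟩ ⟨h1.le, h2.le⟩
    obtain ⟨w, hwK, hwc⟩ := hcK
    rcases hall w (hKF hwK) hwc with rfl | rfl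
    · exact hpK hwK
    · exact hqK hwK

end level

end Crest.Agent.R096.Exa_560
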