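import Crest.Agent.R096.Exa1_365

/-!
Row 96 (S0127), helper365.  **EXIN-AVG**, part 2: consequences of `GoodW` on one segment: `NearSeg`
(124) with small integrated defect, and the energy of the segment; volumes of cubes of translates in the
coordinates `A`; the version for `ExIn`.
-/

set_option autoImplicit false
set_option linter.style.longLine false
set_option linter.unusedSectionVars false

open MeasureTheory Set Filter Topology Metric
open scoped ENNReal NNReal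

namespace Crest.Agent.R096.Exa_365

open Crest.AnalysisR.VecCalc3 Crest.AnalysisR.Sobolev
open Crest.Agent.R096.SkC1_961 (E3 Hom3)
open Crest.Agent.R096.Er_594 (SH3)
open Crest.Agent.R096.Bsp_628 Crest.Agent.R096.Brk5_582
open Crest.Agent.R096.Bxs_627 (ctr)
open Crest.Agent.R096.EaX_766 (lin cbx ExIn)
open Crest.Agent.R96.Acl_392 Crest.Agent.R96.Sob4_199 Crest.Agent.R96.Sg1_199
open Crest.Agent.R96.Sg2_199 Crest.Agent.R96.Sg5_199 Crest.Agent.R96.En10_199
open Crest.Agent.R096.Core_124 (NearSeg)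

noncomputable section

variable {p : ℝ} {Om La : Set E3} {f : E3 → E3} {D : E3 → E3 →L[ℝ] E3} {A : E3 ≃ᵃ[ℝ] E3}

theorem lin_symm_apply (A : E3 ≃ᵃ[ℝ] E3) (v : E3) : lin A.symm (lin A v) = v := by
  unfold lin
  simp only [LinearMap.coe_toContinuousLinearMap']
  exact A.linear.symm_apply_apply v

theorem lin_apply_symm (A : E3 ≃ᵃ[ℝ] E3) (v : E3) : lin A (lin A.symm v) = v := by
  unfold lin
  simp only [LinearMap.coe_toContinuousLinearMap']
  exact A.linear.apply_symm_apply v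

theorem aff_add (A : E3 ≃ᵃ[ℝ] E3) (x v : E3) : A (x + v) = A x + lin A v := by
  have h : lin A v = A.linear v := rfl
  rw [h]
  have := A.map_vadd x v
  simp only [vadd_eq_add] at this
  rw [add_comm x v, this, add_comm]

/-- the defect in the direction `v`, from the relative defect -/
theorem defect_le (A : E3 ≃ᵃ[ℝ] E3) (D : E3 → E3 →L[ℝ] E3) (y v : E3) :
    ‖D y v - lin A v‖ₑ ≤ Gd A D y * ‖lin A v‖ₑ := by
  have h1 : D y v - lin A v = ((D y).comp (lin A.symm) - ContinuousLinearMap.id ℝ E3) (lin A v) := by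
    rw [ContinuousLinearMap.sub_apply, ContinuousLinearMap.comp_apply, lin_symm_apply,
      ContinuousLinearMap.id_apply]
  rw [h1]
  exact ContinuousLinearMap.le_opENorm _ _

theorem dir_le (A : E3 ≃ᵃ[ℝ] E3) (D : E3 → E3 →L[ℝ] E3) (y v : E3) :
    ‖D y v‖ₑ ≤ (1 + Gd A D y) * ‖lin A v‖ₑ := by
  have h1 := defect_le A D y v
  calc ‖D y v‖ₑ = ‖lin A v + (D y v - lin A v)‖ₑ := by congr 1; abel
    _ ≤ ‖lin A v‖ₑ + ‖D y v - lin A v‖ₑ := enorm_add_le _ _
    _ ≤ ‖lin A v‖ₑ + Gd A D y * ‖lin A v‖ₑ := by gcongr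
    _ = _ := by ring

section one

variable {J : Type*} {x v : J → E3} {η : ℝ≥0∞} {w : E3}

theorem GoodW.aem_Gd (h : GoodW p Om f D A x v η w) (j : J) :
    AEMeasurable (fun τ : ℝ => Gd A D (x j + w + τ • v j)) (volume.restrict (Icc (0:ℝ) 1)) := by
  have h1 : Continuous fun L : E3 →L[ℝ] E3 => L.comp (lin A.symm) - ContinuousLinearMap.id ℝ E3 := by
    fun_prop
  exact (h1.comp_aestronglyMeasurable (h.ms j)).enorm

/-- mean of the relative defect -/
theorem GoodW.li_Gd (h : GoodW p Om f D A x v η w) (hp : 1 ≤ p) (j : J) :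
    li (Gd A D) (x j + w) (v j) ≤ η ^ (1 / p) := by
  have hp0 : 0 < p := zero_lt_one.trans_le hp
  have h1 := h.sm j
  unfold li at h1 ⊢
  have h2 : ∫⁻ τ in Icc (0:ℝ) 1, Gd A D (x j + w + τ • v j) ≤
      (∫⁻ τ in Icc (0:ℝ) 1, Gd A D (x j + w + τ • v j) ^ p) ^ (1 / p) := by
    rcases eq_or_lt_of_le hp with hp1 | hp1
    · rw [← hp1]
      simp
    · have h3 := ENNReal.lintegral_mul_le_Lp_mul_Lq (volume.restrict (Icc (0:ℝ) 1))
        (Real.HolderConjugate.conjExponent hp1) (h.aem_Gd j) (aemeasurable_const (b := (1:ℝ≥0∞)))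
      simp only [Pi.mul_apply, mul_one, ENNReal.one_rpow, lintegral_const, MeasurableSet.univ,
        Measure.restrict_apply, univ_inter, Real.volume_Icc, sub_zero, ENNReal.ofReal_one] at h3
      exact h3
  exact h2.trans (ENNReal.rpow_le_rpow h1 (by positivity))

/-- the energy of the segment -/
theorem GoodW.energy (h : GoodW p Om f D A x v η w) (hp : 1 ≤ p) (j : J) :
    ∫⁻ τ in Icc (0:ℝ) 1, ‖D (x j + w + τ • v j) (v j)‖ₑ ^ p ≤
      (2:ℝ≥0∞) ^ (p - 1) * (1 + η) * ‖lin A (v j)‖ₑ ^ p := by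
  have hp0 : 0 ≤ p := zero_le_one.trans hp
  have h1 : ∀ τ : ℝ, ‖D (x j + w + τ • v j) (v j)‖ₑ ^ p ≤
      ((2:ℝ≥0∞) ^ (p - 1) * ‖lin A (v j)‖ₑ ^ p) * (1 + Gd A D (x j + w + τ • v j) ^ p) := by
    intro τ
    calc ‖D (x j + w + τ • v j) (v j)‖ₑ ^ p
        ≤ ((1 + Gd A D (x j + w + τ • v j)) * ‖lin A (v j)‖ₑ) ^ p :=
          ENNReal.rpow_le_rpow (dir_le A D _ _) hp0
      _ = (1 + Gd A D (x j + w + τ • v j)) ^ p * ‖lin A (v j)‖ₑ ^ p :=
          ENNReal.mul_rpow_of_nonneg _ _ hp0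
      _ ≤ ((2:ℝ≥0∞) ^ (p - 1) * (1 ^ p + Gd A D (x j + w + τ • v j) ^ p)) * ‖lin A (v j)‖ₑ ^ p := by
          gcongr
          exact ENNReal.rpow_add_le_mul_rpow_add_rpow _ _ hp
      _ = _ := by rw [ENNReal.one_rpow]; ring
  have hfin : (2:ℝ≥0∞) ^ (p - 1) * ‖lin A (v j)‖ₑ ^ p ≠ ∞ :=
    ENNReal.mul_ne_top (ENNReal.rpow_ne_top_of_nonneg (by linarith) (by norm_num))
      (ENNReal.rpow_ne_top_of_nonneg hp0 enorm_ne_top)
  calc ∫⁻ τ in Icc (0:ℝ) 1, ‖D (x j + w + τ • v j) (v j)‖ₑ ^ p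
      ≤ ∫⁻ τ in Icc (0:ℝ) 1, ((2:ℝ≥0∞) ^ (p - 1) * ‖lin A (v j)‖ₑ ^ p) *
          (1 + Gd A D (x j + w + τ • v j) ^ p) := lintegral_mono fun τ => h1 τ
    _ = ((2:ℝ≥0∞) ^ (p - 1) * ‖lin A (v j)‖ₑ ^ p) *
          (1 + ∫⁻ τ in Icc (0:ℝ) 1, Gd A D (x j + w + τ • v j) ^ p) := by
        rw [lintegral_const_mul' _ _ hfin, lintegral_add_left measurable_const]
        simp
    _ ≤ ((2:ℝ≥0∞) ^ (p - 1) * ‖lin A (v j)‖ₑ ^ p) * (1 + η) := by
        gcongr
        exact h.sm j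
    _ = _ := by ring

/-- **`NearSeg` (124) on every segment of the family** -/
theorem GoodW.nearSeg (h : GoodW p Om f D A x v η w) (hp : 1 ≤ p) (hη : η ≠ ∞)
    (hf : ContinuousOn f Om) (j : J) (hsub : sgm (x j + w) (v j) ⊆ Om) {ε : ℝ}
    (hcl : ∀ y ∈ sgm (x j + w) (v j), ‖f y - A y‖ ≤ ε) :
    NearSeg (fun τ : ℝ => f (x j + w + τ • v j))
      (fun τ : ℝ => ‖D (x j + w + τ • v j) (v j) - lin A (v j)‖) (A (x j + w)) (lin A (v j)) ε ∧
    ∫ τ in (0:ℝ)..1, ‖D (x j + w + τ • v j) (v j) - lin A (v j)‖ ≤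
      (η ^ (1 / p)).toReal * ‖lin A (v j)‖ := by
  have hp0 : 0 < p := zero_lt_one.trans_le hp
  have hηp : η ^ (1 / p) ≠ ∞ := ENNReal.rpow_ne_top_of_nonneg (by positivity) hη
  have hc : Continuous fun τ : ℝ => x j + w + τ • v j := by fun_prop
  have hms : AEStronglyMeasurable (fun τ : ℝ => D (x j + w + τ • v j) (v j) - lin A (v j))
      (volume.restrict (Icc (0:ℝ) 1)) := by
    have h1 : Continuous fun L : E3 →L[ℝ] E3 => L (v j) - lin A (v j) := by fun_prop
    exact h1.comp_aestronglyMeasurable (h.ms j)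
  have hle : ∫⁻ τ in Icc (0:ℝ) 1, ‖D (x j + w + τ • v j) (v j) - lin A (v j)‖ₑ ≤
      η ^ (1 / p) * ‖lin A (v j)‖ₑ := by
    calc ∫⁻ τ in Icc (0:ℝ) 1, ‖D (x j + w + τ • v j) (v j) - lin A (v j)‖ₑ
        ≤ ∫⁻ τ in Icc (0:ℝ) 1, Gd A D (x j + w + τ • v j) * ‖lin A (v j)‖ₑ :=
          lintegral_mono fun τ => defect_le A D _ _
      _ = li (Gd A D) (x j + w) (v j) * ‖lin A (v j)‖ₑ := by
          rw [lintegral_mul_const' _ _ enorm_ne_top]; rfl
      _ ≤ _ := by gcongr; exact h.li_Gd hp j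
  have hne : η ^ (1 / p) * ‖lin A (v j)‖ₑ ≠ ∞ := ENNReal.mul_ne_top hηp enorm_ne_top
  have hint : IntegrableOn (fun τ : ℝ => D (x j + w + τ • v j) (v j) - lin A (v j)) (Icc (0:ℝ) 1) :=
    ⟨hms, hle.trans_lt hne.lt_top⟩
  have hintn : IntegrableOn (fun τ : ℝ => ‖D (x j + w + τ • v j) (v j) - lin A (v j)‖)
      (Icc (0:ℝ) 1) := hint.norm
  have hii : IntervalIntegrable (fun τ : ℝ => ‖D (x j + w + τ • v j) (v j) - lin A (v j)‖) volume 0 1 :=
    (intervalIntegrable_iff_integrableOn_Icc_of_le zero_le_one).2 hintn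
  refine ⟨⟨?_, hii, fun t _ => norm_nonneg _, ?_, ?_⟩, ?_⟩
  · refine hf.comp hc.continuousOn ?_
    intro τ hτ
    exact hsub ⟨τ, hτ, rfl⟩
  · intro s hs t ht hst
    have hnn : 0 ≤ ∫ τ in s..t, ‖D (x j + w + τ • v j) (v j) - lin A (v j)‖ :=
      intervalIntegral.integral_nonneg hst fun _ _ => norm_nonneg _
    have hst1 : Icc s t ⊆ Icc (0:ℝ) 1 := Icc_subset_Icc hs.1 ht.2
    rw [pi_norm_le_iff_of_nonneg hnn]
    intro i
    obtain ⟨hi1, hi2⟩ := h.ac i j s t hst (fun τ hτ => hsub ⟨τ, hst1 hτ, rfl⟩)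
    have h3 : (f (x j + w + t • v j) - f (x j + w + s • v j) - (t - s) • lin A (v j)) i =
        ∫ τ in s..t, (D (x j + w + τ • v j) (v j) - lin A (v j)) i := by
      have h4 : ∫ τ in s..t, (D (x j + w + τ • v j) (v j) - lin A (v j)) i =
          (∫ τ in s..t, D (x j + w + τ • v j) (v j) i) - ∫ _τ in s..t, (lin A (v j)) i := by
        have h5 : IntervalIntegrable (fun τ : ℝ => D (x j + w + τ • v j) (v j) i) volume s t :=
          (intervalIntegrable_iff_integrableOn_Icc_of_le hst).2 hi1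
        rw [← intervalIntegral.integral_sub h5 intervalIntegrable_const]
        rfl
      rw [h4, ← hi2, intervalIntegral.integral_const]
      simp only [Pi.sub_apply, Pi.smul_apply]
    rw [h3, Real.norm_eq_abs]
    refine (intervalIntegral.abs_integral_le_integral_abs hst).trans ?_
    have h6 : IntervalIntegrable (fun τ : ℝ => ‖D (x j + w + τ • v j) (v j) - lin A (v j)‖) volume s t :=
      (intervalIntegrable_iff_integrableOn_Icc_of_le hst).2 (hintn.mono_set hst1)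
    have h7 : IntervalIntegrable (fun τ : ℝ => |(D (x j + w + τ • v j) (v j) - lin A (v j)) i|)
        volume s t := by
      have h8 : IntegrableOn (fun τ : ℝ => (D (x j + w + τ • v j) (v j) - lin A (v j)) i) (Icc s t) := by
        refine ⟨?_, ?_⟩
        · exact ((continuous_apply i).comp_aestronglyMeasurable hms).mono_measure
            (Measure.restrict_mono hst1 le_rfl)
        · have h9 := (hint.mono_set hst1).2
          refine lt_of_le_of_lt (lintegral_mono fun τ => ?_) h9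
          have h10 : ‖(D (x j + w + τ • v j) (v j) - lin A (v j)) i‖ ≤
              ‖D (x j + w + τ • v j) (v j) - lin A (v j)‖ := norm_le_pi_norm _ i
          exact enorm_le_iff_norm_le.2 h10
      have h11 := h8.norm
      exact (intervalIntegrable_iff_integrableOn_Icc_of_le hst).2 h11
    refine intervalIntegral.integral_mono_on hst h7 h6 fun τ _ => ?_
    have h10 : ‖(D (x j + w + τ • v j) (v j) - lin A (v j)) i‖ ≤
        ‖D (x j + w + τ • v j) (v j) - lin A (v j)‖ := norm_le_pi_norm _ i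
    rwa [Real.norm_eq_abs] at h10
  · intro t ht
    have h1 := hcl (x j + w + t • v j) ⟨t, ht, rfl⟩
    have h2 : A (x j + w + t • v j) = A (x j + w) + t • lin A (v j) := by
      rw [aff_add, map_smul]
    rwa [h2] at h1
  · have h1 : ∫ τ in (0:ℝ)..1, ‖D (x j + w + τ • v j) (v j) - lin A (v j)‖ =
        (∫⁻ τ in Icc (0:ℝ) 1, ‖D (x j + w + τ • v j) (v j) - lin A (v j)‖ₑ).toReal := by
      rw [intervalIntegral.integral_of_le zero_le_one, ← integral_Icc_eq_integral_Ioc]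
      exact integral_norm_eq_lintegral_enorm hms
    rw [h1]
    have h2 := ENNReal.toReal_mono hne hle
    rwa [ENNReal.toReal_mul, toReal_enorm] at h2

end one

end

end Crest.Agent.R096.Exa_365
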