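import Crest.Agent.R096.Exa1_560

/-!
# R096 (row 96), DOORS / EXA part 2 (helper560): levels of a function on a surface of 2-cells

* `SgD T Sg`   : `Sg` is a compact union of 2-cells.
* `Lev T Sg J` : a function `u` on `Sg`, affine on the 2-cells, and finitely many levels which
  are different from the values at the vertices.
* `Lev.PS`     : the points of the levels on the 1-cells (finite), `Lev.mu` the partner on a 2-cell.
* `Lev.conn`   : a connected level is one chain of partners.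
-/

set_option autoImplicit false
set_option linter.unusedSectionVars false

open Set Metric Module
open scoped Classical

namespace Crest.Agent.R096.Exa_560

open Crest.Agent.R096.Msh_715 Crest.Agent.R096.Agl5_543 Crest.Agent.R096.St_147
  Crest.Agent.R096.Lac_441

variable {E : Type} [NormedAddCommGroup E] [NormedSpace ℝ E] [FiniteDimensional ℝ E]
variable {Om : Set E} {ι : Type} {T : Tiling Om ι} {Sg : Set E} {J : Type}

/-- a compact union of 2-cells -/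
structure SgD (T : Tiling Om ι) (Sg : Set E) : Prop where
  cpt : IsCompact Sg
  sub : Sg ⊆ Om
  cc : ∀ x ∈ Sg, T.cc x ⊆ Sg
  cov : ∀ x ∈ Sg, ∃ F : C2 T, F.set ⊆ Sg ∧ x ∈ F.set

/-- levels of a function on `Sg` -/
structure Lev (T : Tiling Om ι) (Sg : Set E) (J : Type) where
  u : E → ℝ
  aff : ∀ F : C2 T, F.set ⊆ Sg → ∃ g : E →ᵃ[ℝ] ℝ, EqOn u g F.set
  J0 : Finset J
  lv : J → ℝ
  inj : ∀ i ∈ J0, ∀ j ∈ J0, lv i = lv j → i = j
  vert : ∀ v ∈ Sg, T.dim v = 0 → ∀ j ∈ J0, u v ≠ lv j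

namespace Lev

variable (L : Lev T Sg J)

/-- an interior point of the 2-cell -/
theorem mem_bd_of_dim {F : C2 T} {x : E} (hx : x ∈ F.set) : x ∈ F.bd ↔ T.dim x ≤ 1 :=
  F.mem_bd_iff hx

/-- points above and below a level which is attained -/
theorem up_down {F : C2 T} (hF : F.set ⊆ Sg) {g : E →ᵃ[ℝ] ℝ} (hg : EqOn L.u g F.set) {j : J}
    (hj : j ∈ L.J0) {x : E} (hx : x ∈ F.set) (hxj : L.u x = L.lv j) :
    (∃ a ∈ F.set, L.lv j < g a) ∧ ∃ a ∈ F.set, g a < L.lv j := by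
  have hv : ∀ v ∈ F.set, T.dim v = 0 → g v ≠ L.lv j := by
    intro v hv h0
    rw [← hg hv]
    exact L.vert v (hF hv) h0 j hj
  have hxg : g x = L.lv j := by rw [← hg hx, hxj]
  by_cases hb : x ∈ F.bd
  · obtain ⟨_, h1, h2⟩ := exists_up_down F g hv hb hxg
    exact ⟨h1, h2⟩
  · -- an interior point
    have hxo : x ∈ F.1.opn := by
      by_contra h
      exact hb ⟨hx, h⟩
    obtain ⟨v, hv1, hv0⟩ := T.exists_vertex F.pt_mem
    rw [← F.set_eq] at hv1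
    have hne := hv v hv1 hv0
    have hxO := F.set_sub hx
    have hocc : T.oc x = F.1.opn := T.oc_eq_of_mem F.pt_mem hxo
    have hccx : T.cc x = T.cc F.pt := T.cc_eq_of_mem_oc F.pt_mem hxo
    have hvV : x - v ∈ T.V x := by
      have h1 : v - x ∈ T.V x := T.sub_mem_V (by rw [hccx, ← F.set_eq]; exact hv1)
      have := (T.V x).neg_mem h1
      rwa [neg_sub] at this
    have hxv : x - v ≠ 0 := by
      intro h
      apply hne
      rw [← sub_eq_zero.1 h]; exact hxg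
    obtain ⟨t, ht, ha, _, _⟩ := T.exists_exit hxO hvV hxv
    rw [hccx, ← F.set_eq] at ha
    -- the opposite point
    have hlin : g.linear (x - v) = L.lv j - g v := by rw [aff_sub, hxg]
    have hval : g (x + t • (x - v)) = L.lv j + t * (L.lv j - g v) := by
      have h := g.map_vadd x (t • (x - v))
      rw [map_smul, hlin, vadd_eq_add, vadd_eq_add, add_comm (t • (x - v)), hxg,
        smul_eq_mul] at h
      rw [h]; ring
    rcases lt_or_gt_of_ne hne with h | h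
    · refine ⟨⟨_, ha, ?_⟩, v, hv1, h⟩
      rw [hval]
      nlinarith [mul_pos ht (sub_pos.2 h)]
    · refine ⟨⟨v, hv1, h⟩, _, ha, ?_⟩
      rw [hval]
      nlinarith [mul_pos ht (sub_pos.2 h)]

/-- **the level in a 2-cell** -/
theorem face {F : C2 T} (hF : F.set ⊆ Sg) {j : J} (hj : j ∈ L.J0) {x : E} (hx : x ∈ F.set)
    (hxj : L.u x = L.lv j) :
    ∃ p q : E, p ≠ q ∧ p ∈ F.On ∧ q ∈ F.On ∧ L.u p = L.lv j ∧ L.u q = L.lv j ∧
      (∀ w ∈ F.bd, L.u w = L.lv j → w = p ∨ w = q) ∧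
      (∀ w ∈ F.set, L.u w = L.lv j → w ∈ segment ℝ p q) := by
  obtain ⟨g, hg⟩ := L.aff F hF
  obtain ⟨hu, hd⟩ := L.up_down hF hg hj hx hxj
  obtain ⟨p, q, hpq, hp, hq, hgp, hgq, hb, hs⟩ := exists_pair F g hu hd
  have hup : L.u p = L.lv j := by rw [hg (F.bd_sub hp), hgp]
  have huq : L.u q = L.lv j := by rw [hg (F.bd_sub hq), hgq]
  have hdim : ∀ y ∈ F.bd, L.u y = L.lv j → y ∈ F.On := by
    intro y hy hyj
    refine ⟨F.bd_sub hy, ?_⟩
    have h1 := (F.mem_bd_iff (F.bd_sub hy)).1 hy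
    have h0 : T.dim y ≠ 0 := fun h => L.vert y (hF (F.bd_sub hy)) h j hj hyj
    omega
  exact ⟨p, q, hpq, hdim p hp hup, hdim q hq huq, hup, huq,
    fun w hw hwj => hb w hw (by rw [← hg (F.bd_sub hw)]; exact hwj),
    fun w hw hwj => hs w hw (by rw [← hg hw]; exact hwj)⟩

/-- the partner on the 2-cell `F` -/
noncomputable def mu (F : C2 T) (w : E) : E :=
  if h : ∃ w', w' ≠ w ∧ w' ∈ F.On ∧ L.u w' = L.u w then h.choose else w

/-- **partners** -/
theorem mu_spec {F : C2 T} (hF : F.set ⊆ Sg) {j : J} (hj : j ∈ L.J0) {w : E} (hw : w ∈ F.On)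
    (hwj : L.u w = L.lv j) :
    L.mu F w ≠ w ∧ L.mu F w ∈ F.On ∧ L.u (L.mu F w) = L.lv j ∧
      (∀ y ∈ F.bd, L.u y = L.lv j → y = w ∨ y = L.mu F w) ∧
      (∀ y ∈ F.set, L.u y = L.lv j → y ∈ segment ℝ w (L.mu F w)) := by
  obtain ⟨p, q, hpq, hp, hq, hup, huq, hb, hs⟩ := L.face hF hj hw.1 hwj
  have hex : ∃ w', w' ≠ w ∧ w' ∈ F.On ∧ L.u w' = L.u w := by
    rcases hb w (F.on_sub_bd hw) hwj with rfl | rfl
    · exact ⟨q, hpq.symm, hq, huq.trans hup.symm⟩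
    · exact ⟨p, hpq, hp, hup.trans huq.symm⟩
  have hmu : L.mu F w = hex.choose := dif_pos hex
  obtain ⟨h1, h2, h3⟩ := hex.choose_spec
  rw [← hmu] at h1 h2 h3
  have h4 : L.u (L.mu F w) = L.lv j := h3.trans hwj
  refine ⟨h1, h2, h4, ?_⟩
  have h5 := hb _ (F.on_sub_bd h2) h4
  rcases hb w (F.on_sub_bd hw) hwj with hwp | hwq
  · have hq' : L.mu F w = q := by
      rcases h5 with h | h
      · exact absurd (h.trans hwp.symm) h1
      · exact h
    rw [hq', hwp]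
    exact ⟨hb, hs⟩
  · have hp' : L.mu F w = p := by
      rcases h5 with h | h
      · exact h
      · exact absurd (h.trans hwq.symm) h1
    rw [hp', hwq]
    refine ⟨fun y hy h => (hb y hy h).symm, fun y hy h => ?_⟩
    rw [segment_symm]
    exact hs y hy h

theorem mu_mu {F : C2 T} (hF : F.set ⊆ Sg) {j : J} (hj : j ∈ L.J0) {w : E} (hw : w ∈ F.On)
    (hwj : L.u w = L.lv j) : L.mu F (L.mu F w) = w := by
  obtain ⟨h1, h2, h3, h4, _⟩ := L.mu_spec hF hj hw hwj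
  obtain ⟨h1', h2', h3', h4', _⟩ := L.mu_spec hF hj h2 h3
  rcases h4 _ (F.on_sub_bd h2') h3' with h | h
  · exact h
  · exact absurd h h1'

/-- the points of the pattern -/
def PS : Set E := {w | w ∈ Sg ∧ T.dim w = 1 ∧ ∃ j ∈ L.J0, L.u w = L.lv j}

/-- the name of a point -/
noncomputable def lab [Nonempty J] (w : E) : J :=
  if h : ∃ j ∈ L.J0, L.u w = L.lv j then h.choose else Classical.arbitrary J

theorem lab_spec [Nonempty J] {w : E} (h : ∃ j ∈ L.J0, L.u w = L.lv j) :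
    L.lab w ∈ L.J0 ∧ L.u w = L.lv (L.lab w) := by
  unfold lab
  rw [dif_pos h]
  exact h.choose_spec

theorem lab_eq [Nonempty J] {w : E} {j : J} (hj : j ∈ L.J0) (h : L.u w = L.lv j) :
    L.lab w = j := by
  obtain ⟨h1, h2⟩ := L.lab_spec ⟨j, hj, h⟩
  exact L.inj _ h1 _ hj (h2.symm.trans h)

/-- at most one point of a level on a 1-cell -/
theorem edge_inj (hS : SgD T Sg) {j : J} (hj : j ∈ L.J0) {w w' : E} (hw : w ∈ Sg)
    (hd : T.dim w = 1) (hwj : L.u w = L.lv j) (hw' : w' ∈ Sg) (hd' : T.dim w' = 1)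
    (hwj' : L.u w' = L.lv j) (hcc : T.cc w = T.cc w') : w = w' := by
  have hwO := hS.sub hw
  obtain ⟨F, hF, hwF⟩ := hS.cov w hw
  obtain ⟨g, hg⟩ := L.aff F hF
  have hccF : T.cc w ⊆ F.set := by
    rw [F.set_eq] at hwF ⊢; exact T.cc_sub_of_mem hwF
  obtain ⟨a, b, hab, hcy, hoy, ha0, hb0, ha, hb⟩ := T.edge_eq hwO hd
  have hwo : w ∈ openSegment ℝ a b := by rw [← hoy]; exact T.self_mem_oc w
  have hwo' : w' ∈ openSegment ℝ a b := by
    rw [← hoy]
    have h1 : w' ∈ T.cc w := by rw [hcc]; exact T.self_mem_cc w'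
    by_contra hn
    have := T.dim_lt h1 hn
    omega
  have hga : g a ≠ L.lv j := by
    rw [← hg (hccF ha)]; exact L.vert a (hF (hccF ha)) ha0 j hj
  have hgb : g b ≠ L.lv j := by
    rw [← hg (hccF hb)]; exact L.vert b (hF (hccF hb)) hb0 j hj
  have hgw : g w = L.lv j := by rw [← hg hwF, hwj]
  have hgw' : g w' = L.lv j := by
    rw [← hg (hccF (by rw [hcc]; exact T.self_mem_cc w')), hwj']
  obtain ⟨s, t, hs, ht, hst, rfl⟩ := hwo
  obtain ⟨s', t', hs', ht', hst', rfl⟩ := hwo'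
  have e1 : t = 1 - s := by linarith
  have e2 : t' = 1 - s' := by linarith
  subst e1 e2
  rw [aff_comb] at hgw hgw'
  have hne : g a - g b ≠ 0 := by
    intro h
    apply hgb
    have : g a = g b := sub_eq_zero.1 h
    rw [this] at hgw
    linarith
  have hss : s = s' := by
    have : (s - s') * (g a - g b) = 0 := by linarith
    rcases mul_eq_zero.1 this with h | h
    · linarith
    · exact absurd h hne
  rw [hss]

theorem finite_PS (hS : SgD T Sg) : L.PS.Finite := by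
  have hfin := T.finite_cells hS.cpt hS.sub
  rcases isEmpty_or_nonempty J with hJ | hJ
  · refine Set.finite_empty.subset ?_
    rintro w ⟨_, _, j, _⟩
    exact hJ.elim j
  refine Set.Finite.of_finite_image (f := fun w => (T.cc w, L.lab w))
    ((hfin.prod L.J0.finite_toSet).subset ?_) ?_
  · rintro _ ⟨w, ⟨hw, hd, hj⟩, rfl⟩
    exact ⟨⟨⟨w, hS.sub hw, rfl⟩, w, T.self_mem_cc w, hw⟩, (L.lab_spec hj).1⟩
  · rintro w ⟨hw, hd, hj⟩ w' ⟨hw', hd', hj'⟩ he
    have h1 : T.cc w = T.cc w' := congrArg Prod.fst he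
    have h2 : L.lab w = L.lab w' := congrArg Prod.snd he
    obtain ⟨h3, h4⟩ := L.lab_spec hj
    obtain ⟨h5, h6⟩ := L.lab_spec hj'
    rw [← h2] at h6
    exact L.edge_inj hS h3 hw hd h4 hw' hd' h6 h1

/-- the 2-cells of `Sg` -/
theorem finite_faces (hS : SgD T Sg) : {F : C2 T | F.set ⊆ Sg}.Finite := by
  have hfin := T.finite_cells hS.cpt hS.sub
  refine Set.Finite.of_finite_image (f := fun F : C2 T => F.set) (hfin.subset ?_)
    (fun F _ G _ h => C2.ext h)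
  rintro _ ⟨F, hF, rfl⟩
  exact ⟨F.1.2, F.pt, F.1.opn_sub (T.self_mem_oc _), hF (F.1.opn_sub (T.self_mem_oc _))⟩

/-- the level in a 2-cell is closed -/
theorem isClosed_face {F : C2 T} (hF : F.set ⊆ Sg) (c : ℝ) :
    IsClosed {x | x ∈ F.set ∧ L.u x = c} := by
  obtain ⟨g, hg⟩ := L.aff F hF
  have h1 : {x | x ∈ F.set ∧ L.u x = c} = F.set ∩ g ⁻¹' {c} := by
    ext x
    constructor
    · rintro ⟨h1, h2⟩
      exact ⟨h1, by rw [mem_preimage, mem_singleton_iff, ← hg h1]; exact h2⟩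
    · rintro ⟨h1, h2⟩
      exact ⟨h1, by rw [hg h1]; exact h2⟩
  rw [h1]
  refine IsClosed.inter ?_ (isClosed_singleton.preimage g.continuous_of_finiteDimensional)
  rw [F.set_eq]; exact T.isClosed_cc _

/-- the intersection of two 2-cells has dimension at most one -/
theorem dim_inter {F G : C2 T} (hFG : F ≠ G) {x : E} (h1 : x ∈ F.set) (h2 : x ∈ G.set) :
    T.dim x ≤ 1 := by
  by_contra h
  push Not at h
  have hO := F.set_sub h1
  have key : ∀ G : C2 T, x ∈ G.set → G.1 = T.cl hO := by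
    intro G hG
    apply T.eq_cl hO
    show x ∈ T.oc G.pt
    by_contra hn
    rw [G.set_eq] at hG
    have := T.dim_lt hG hn
    rw [G.dim_pt] at this
    omega
  exact hFG (Subtype.ext ((key F h1).trans (key G h2).symm))

/-- **(E1) a connected level is one chain** -/
theorem conn (hS : SgD T Sg) {j : J} (hj : j ∈ L.J0)
    (hc : IsPreconnected {x | x ∈ Sg ∧ L.u x = L.lv j}) (X : Set E)
    (hX : ∀ F : C2 T, F.set ⊆ Sg → ∀ w ∈ F.On, L.u w = L.lv j → w ∈ X → L.mu F w ∈ X)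
    {w w' : E} (hw : w ∈ Sg) (hd : T.dim w = 1) (hwj : L.u w = L.lv j) (hwX : w ∈ X)
    (hw' : w' ∈ Sg) (hd' : T.dim w' = 1) (hwj' : L.u w' = L.lv j) : w' ∈ X := by
  by_contra hcon
  set A1 : Set (C2 T) := {F | F.set ⊆ Sg ∧ ∃ p ∈ F.On, L.u p = L.lv j ∧ p ∈ X} with hA1
  set A2 : Set (C2 T) := {F | F.set ⊆ Sg ∧ ∃ p ∈ F.On, L.u p = L.lv j ∧ p ∉ X} with hA2
  have hfin := finite_faces (T := T) hS
  have hU1 : IsClosed (⋃ F ∈ A1, {x | x ∈ F.set ∧ L.u x = L.lv j}) :=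
    (hfin.subset fun F hF => hF.1).isClosed_biUnion fun F hF => L.isClosed_face hF.1 _
  have hU2 : IsClosed (⋃ F ∈ A2, {x | x ∈ F.set ∧ L.u x = L.lv j}) :=
    (hfin.subset fun F hF => hF.1).isClosed_biUnion fun F hF => L.isClosed_face hF.1 _
  -- all points of the level in a cell of `A1` are in `X`
  have hall1 : ∀ F ∈ A1, ∀ y ∈ F.On, L.u y = L.lv j → y ∈ X := by
    rintro F ⟨hF, p, hp, hpj, hpX⟩ y hy hyj
    rcases (L.mu_spec hF hj hp hpj).2.2.2.1 y (F.on_sub_bd hy) hyj with rfl | rfl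
    · exact hpX
    · exact hX F hF p hp hpj hpX
  have hall2 : ∀ F ∈ A2, ∀ y ∈ F.On, L.u y = L.lv j → y ∉ X := by
    rintro F ⟨hF, p, hp, hpj, hpX⟩ y hy hyj hyX
    rcases (L.mu_spec hF hj hy hyj).2.2.2.1 p (F.on_sub_bd hp) hpj with rfl | rfl
    · exact hpX hyX
    · exact hpX (hX F hF y hy hyj hyX)
  have hcov : {x | x ∈ Sg ∧ L.u x = L.lv j} ⊆ (⋃ F ∈ A1, {x | x ∈ F.set ∧ L.u x = L.lv j}) ∪
      ⋃ F ∈ A2, {x | x ∈ F.set ∧ L.u x = L.lv j} := by
    rintro x ⟨hx, hxj⟩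
    obtain ⟨F, hF, hxF⟩ := hS.cov x hx
    obtain ⟨p, q, _, hp, _, hpj, _⟩ := L.face hF hj hxF hxj
    by_cases hpX : p ∈ X
    · exact Or.inl (mem_biUnion (show F ∈ A1 from ⟨hF, p, hp, hpj, hpX⟩) ⟨hxF, hxj⟩)
    · exact Or.inr (mem_biUnion (show F ∈ A2 from ⟨hF, p, hp, hpj, hpX⟩) ⟨hxF, hxj⟩)
  have hn1 : ({x | x ∈ Sg ∧ L.u x = L.lv j} ∩
      ⋃ F ∈ A1, {x | x ∈ F.set ∧ L.u x = L.lv j}).Nonempty := by
    obtain ⟨F, hF, hxF⟩ := hS.cov w hw
    exact ⟨w, ⟨hw, hwj⟩, mem_biUnion (show F ∈ A1 from ⟨hF, w, ⟨hxF, hd⟩, hwj, hwX⟩) ⟨hxF, hwj⟩⟩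
  have hn2 : ({x | x ∈ Sg ∧ L.u x = L.lv j} ∩
      ⋃ F ∈ A2, {x | x ∈ F.set ∧ L.u x = L.lv j}).Nonempty := by
    obtain ⟨F, hF, hxF⟩ := hS.cov w' hw'
    exact ⟨w', ⟨hw', hwj'⟩,
      mem_biUnion (show F ∈ A2 from ⟨hF, w', ⟨hxF, hd'⟩, hwj', hcon⟩) ⟨hxF, hwj'⟩⟩
  obtain ⟨y, ⟨hyS, hyj⟩, hy1, hy2⟩ := (isPreconnected_closed_iff.1 hc) _ _ hU1 hU2 hcov hn1 hn2
  rw [mem_iUnion₂] at hy1 hy2
  obtain ⟨F, hF1, hyF, _⟩ := hy1
  obtain ⟨G, hG2, hyG, _⟩ := hy2
  by_cases hFG : F = G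
  · subst hFG
    obtain ⟨hF, p, hp, hpj, hpX⟩ := hF1
    exact hall2 F hG2 p hp hpj hpX
  · have h1 := dim_inter hFG hyF hyG
    have h0 : T.dim y ≠ 0 := fun h => L.vert y hyS h j hj hyj
    have hd1 : T.dim y = 1 := by omega
    exact hall2 G hG2 y ⟨hyG, hd1⟩ hyj (hall1 F hF1 y ⟨hyF, hd1⟩ hyj)

end Lev

end Crest.Agent.R096.Exa_560
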