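import Crest.Agent.R096.Qp4_106
import Crest.Agent.R096.Door5_501

/-!
# Row 96, DOORS (helper106), part 5: constructors of moves.

* `Shell.par e y`     : number mod 2 of the points of `y` on the edge `e`;
* `Shell.bel y e x`   : number mod 2 of the points of `y` on `e` below `x`;
* `MvD S s`           : move data: an old closed connected curve `C` (name `i0`) is replaced by a
                        new one `D` (maybe empty); `q` = labels of the region between them;
* `MvD.move`, `MvD.par`, `MvD.tc`, `MvD.nl`, `MvD.qp`, `MvD.qc_death`, `MvD.qc_slide`.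
-/

set_option autoImplicit false

namespace Crest.Agent.R096.Door_501

open Crest.Agent.R096.St_147 Crest.Agent.R096.Qp_106 Classical

variable {ι Φ W : Type} {M : MeshC ι Φ W} {k : ι} {Vx Ed : Type} {I : Type} {col : I → Bool}

namespace Shell

variable (S : Shell M k Vx Ed)

/-- number mod 2 of the points of `y` on the edge `e` -/
noncomputable def par (y : Finset W) (e : Ed) : ZMod 2 :=
  ((y.filter fun w => w ∈ S.OnE e).card : ZMod 2)

/-- number mod 2 of the points of `y` on the edge `e` below the point `x` -/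
noncomputable def bel (y : Finset W) (e : Ed) (x : W) : ZMod 2 :=
  ((y.filter fun w => w ∈ S.OnE e ∧ S.t w < S.t x).card : ZMod 2)

/-- a closed pattern has labels -/
theorem labels [Fintype Ed] (hS : S.Sph) (y : Finset W) (nu : Φ → W → W)
    (h1 : ∀ F w, k ∈ M.side F → w ∈ y → w ∈ M.On F → nu F w ∈ y ∧ nu F w ∈ M.On F)
    (h2 : ∀ F w, k ∈ M.side F → w ∈ y → w ∈ M.On F → nu F w ≠ w)
    (h3 : ∀ F w, k ∈ M.side F → w ∈ y → w ∈ M.On F → nu F (nu F w) = w) :
    ∃ a : Vx → ZMod 2, ∀ e, a (S.en e false) + a (S.en e true) = S.par y e := by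
  obtain ⟨a, ha⟩ := hS (S.par y) (by
    intro F hF
    have h4 : ∀ e, S.par y e = ∑ w ∈ y.filter (fun w => w ∈ S.OnE e), (1 : ZMod 2) := by
      intro e
      rw [Finset.sum_const, nsmul_eq_mul, mul_one]
      rfl
    rw [Finset.sum_congr rfl fun e _ => h4 e, S.wsum hF]
    refine sum_inv _ _ (nu F) ?_ ?_ ?_ ?_
    · intro x hx
      obtain ⟨a1, a2⟩ := Finset.mem_filter.1 hx
      exact Finset.mem_filter.2 (h1 F x hF a1 a2)
    · intro x hx
      obtain ⟨a1, a2⟩ := Finset.mem_filter.1 hx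
      exact h2 F x hF a1 a2
    · intro x hx
      obtain ⟨a1, a2⟩ := Finset.mem_filter.1 hx
      exact h3 F x hF a1 a2
    · intro x _
      rfl)
  exact ⟨a, fun e => (ha e).symm⟩

/-- two labels differ by a constant -/
theorem labels_unique (hC : S.Con) (a b : Vx → ZMod 2)
    (h : ∀ e, a (S.en e false) + a (S.en e true) = b (S.en e false) + b (S.en e true)) :
    ∃ c, ∀ e j, a (S.en e j) = b (S.en e j) + c := by
  by_cases hne : Nonempty Ed
  · obtain ⟨e0⟩ := hne
    refine ⟨a (S.en e0 false) + b (S.en e0 false), fun e j => ?_⟩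
    have h1 := hC {v | a v = b v + (a (S.en e0 false) + b (S.en e0 false))} (by
      intro e
      show a (S.en e false) = _ ↔ a (S.en e true) = _
      have h2 := h e
      have y : ∀ p q r s c : ZMod 2, p + q = r + s → (p = r + c ↔ q = s + c) := by decide
      exact y _ _ _ _ _ h2) e0 false e j (by
      show a (S.en e0 false) = b (S.en e0 false) + (a (S.en e0 false) + b (S.en e0 false))
      have y : ∀ p q : ZMod 2, p = q + (p + q) := by decide
      exact y _ _)
    exact h1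
  · exact ⟨0, fun e => (hne ⟨e⟩).elim⟩

/-- the vertices (on edges) with label one -/
noncomputable def vset [Fintype Ed] (q : Vx → ZMod 2) : Finset Vx :=
  ((Finset.univ : Finset (Ed × Bool)).filter fun p => q (S.en p.1 p.2) = 1).image
    fun p => S.en p.1 p.2

theorem mem_vset [Fintype Ed] {q : Vx → ZMod 2} {v : Vx} :
    v ∈ S.vset q ↔ q v = 1 ∧ ∃ e b, S.en e b = v := by
  unfold vset
  rw [Finset.mem_image]
  constructor
  · rintro ⟨p, hp, rfl⟩
    exact ⟨(Finset.mem_filter.1 hp).2, p.1, p.2, rfl⟩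
  · rintro ⟨h, e, b, rfl⟩
    exact ⟨(e, b), Finset.mem_filter.2 ⟨Finset.mem_univ _, h⟩, rfl⟩

theorem en_mem_vset [Fintype Ed] {q : Vx → ZMod 2} {e : Ed} {b : Bool} :
    S.en e b ∈ S.vset q ↔ q (S.en e b) = 1 := by
  rw [mem_vset]
  exact ⟨fun h => h.1, fun h => ⟨h, e, b, rfl⟩⟩

end Shell

/-- Move data: the old closed connected curve `C` is replaced by the closed pattern `D` (maybe
empty, all of its points are new); `q` = labels of the region between them. -/
structure MvD (S : Shell M k Vx Ed) (s : St M col) where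
  i0 : I
  C : Finset W
  D : Finset W
  nuD : Φ → W → W
  q : Vx → ZMod 2
  C_P : ∀ {w}, w ∈ C → w ∈ s.P
  C_lab : ∀ {w}, w ∈ C → s.lab w = i0
  C_on : ∀ {w}, w ∈ C → ∃ e, w ∈ S.OnE e
  C_mu : ∀ {F w}, k ∈ M.side F → w ∈ C → w ∈ M.On F → s.mu F w ∈ C
  C_conn : ∀ X : Set W, (∀ F w, k ∈ M.side F → w ∈ M.On F → w ∈ C → w ∈ X → s.mu F w ∈ X) →
    ∀ w ∈ X, w ∈ C → ∀ w' ∈ C, w' ∈ X
  C_ne : C.Nonempty
  D_new : ∀ {w}, w ∈ D → w ∉ s.P
  D_on : ∀ {w}, w ∈ D → ∃ e, w ∈ S.OnE e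
  D_mem : ∀ {F w}, k ∈ M.side F → w ∈ D → w ∈ M.On F → nuD F w ∈ D ∧ nuD F w ∈ M.On F
  D_ne : ∀ {F w}, k ∈ M.side F → w ∈ D → w ∈ M.On F → nuD F w ≠ w
  D_inv : ∀ {F w}, k ∈ M.side F → w ∈ D → w ∈ M.On F → nuD F (nuD F w) = w
  D_nc : ∀ {F w x}, k ∈ M.side F → w ∈ D → w ∈ M.On F → x ∈ D → x ∈ M.On F → x ≠ w →
    x ≠ nuD F w → ¬ M.Lace F w (nuD F w) x (nuD F x)
  /-- a new chord does not interlace the old chords of the same colour (including `C`) -/
  D_old : ∀ {F w x}, k ∈ M.side F → w ∈ D → w ∈ M.On F → x ∈ s.P → x ∈ M.On F →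
    col (s.lab x) = col i0 →
    ¬ M.Lace F w (nuD F w) x (s.mu F x) ∧ ¬ M.Lace F x (s.mu F x) w (nuD F w)
  q_edge : ∀ e, q (S.en e false) + q (S.en e true) = S.par C e + S.par D e
  /-- no old point of the same colour in the region, except `C` -/
  free : ∀ {e x}, x ∈ S.OnE e → x ∈ s.P → x ∉ C → col (s.lab x) = col i0 →
    q (S.en e false) + S.bel C e x + S.bel D e x = 0

namespace MvD

variable {S : Shell M k Vx Ed} {s : St M col} (d : MvD S s)

/-- the new pattern -/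
noncomputable def B : Finset W := ((s.P.filter fun w => ∃ e, w ∈ S.OnE e) \ d.C) ∪ d.D

theorem mem_B {w : W} : w ∈ d.B ↔ (w ∈ s.P ∧ (∃ e, w ∈ S.OnE e) ∧ w ∉ d.C) ∨ w ∈ d.D := by
  unfold B
  rw [Finset.mem_union, Finset.mem_sdiff, Finset.mem_filter]
  tauto

/-- new partners -/
noncomputable def mu0 (F : Φ) (w : W) : W := if w ∈ d.D then d.nuD F w else s.mu F w

/-- new names -/
noncomputable def lab0 (w : W) : I := if w ∈ d.D then d.i0 else s.lab w

theorem mu0_D {F : Φ} {w : W} (h : w ∈ d.D) : d.mu0 F w = d.nuD F w := if_pos h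

theorem mu0_P {F : Φ} {w : W} (h : w ∉ d.D) : d.mu0 F w = s.mu F w := if_neg h

theorem lab0_D {w : W} (h : w ∈ d.D) : d.lab0 w = d.i0 := if_pos h

theorem lab0_P {w : W} (h : w ∉ d.D) : d.lab0 w = s.lab w := if_neg h

theorem not_D {w : W} (h : w ∈ s.P) : w ∉ d.D := fun h' => d.D_new h' h

theorem mu_not_C {F : Φ} {w : W} (hF : k ∈ M.side F) (hw : w ∈ s.P) (hwF : w ∈ M.On F)
    (h : w ∉ d.C) : s.mu F w ∉ d.C := by
  intro h1
  have h2 := s.mu_mem hw hwF
  have h3 := d.C_mu hF h1 h2.2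
  rw [s.mu_mu hw hwF] at h3
  exact h h3

/-- the move -/
noncomputable def move [Fintype Ed] : Move S s where
  i0 := d.i0
  B := d.B
  lab0 := d.lab0
  mu0 := d.mu0
  B_on := by
    intro w hw
    rcases d.mem_B.1 hw with ⟨_, h, _⟩ | h
    · exact h
    · exact d.D_on h
  mem := by
    intro F w hF hw hwF
    by_cases h : w ∈ d.D
    · rw [d.mu0_D h]
      have h1 := d.D_mem hF h hwF
      exact ⟨d.mem_B.2 (Or.inr h1.1), h1.2⟩
    · rw [d.mu0_P h]
      rcases d.mem_B.1 hw with ⟨h1, h2, h3⟩ | h1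
      · have h4 := s.mu_mem h1 hwF
        obtain ⟨e, _, _, he⟩ := (S.onE hF).1 h4.2
        exact ⟨d.mem_B.2 (Or.inl ⟨h4.1, ⟨e, he⟩, d.mu_not_C hF h1 hwF h3⟩), h4.2⟩
      · exact (h h1).elim
  ne := by
    intro F w hF hw hwF
    by_cases h : w ∈ d.D
    · rw [d.mu0_D h]; exact d.D_ne hF h hwF
    · rw [d.mu0_P h]
      rcases d.mem_B.1 hw with ⟨h1, _⟩ | h1
      · exact s.mu_ne h1 hwF
      · exact (h h1).elim
  inv := by
    intro F w hF hw hwF
    by_cases h : w ∈ d.D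
    · rw [d.mu0_D h, d.mu0_D (d.D_mem hF h hwF).1]; exact d.D_inv hF h hwF
    · rw [d.mu0_P h]
      rcases d.mem_B.1 hw with ⟨h1, _⟩ | h1
      · rw [d.mu0_P (d.not_D (s.mu_mem h1 hwF).1)]
        exact s.mu_mu h1 hwF
      · exact (h h1).elim
  lab := by
    intro F w hF hw hwF
    by_cases h : w ∈ d.D
    · rw [d.mu0_D h, d.lab0_D h, d.lab0_D (d.D_mem hF h hwF).1]
    · rw [d.mu0_P h, d.lab0_P h]
      rcases d.mem_B.1 hw with ⟨h1, _⟩ | h1
      · rw [d.lab0_P (d.not_D (s.mu_mem h1 hwF).1)]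
        exact s.mu_lab h1 hwF
      · exact (h h1).elim
  nc := by
    intro F w x hF hw hwF hx hxF hc h1 h2
    by_cases hwD : w ∈ d.D <;> by_cases hxD : x ∈ d.D
    · rw [d.mu0_D hwD] at h2 ⊢
      rw [d.mu0_D hxD]
      exact d.D_nc hF hwD hwF hxD hxF h1 h2
    · rw [d.mu0_D hwD, d.mu0_P hxD]
      rw [d.lab0_D hwD, d.lab0_P hxD] at hc
      rcases d.mem_B.1 hx with ⟨h3, _⟩ | h3
      · exact (d.D_old hF hwD hwF h3 hxF hc.symm).1
      · exact (hxD h3).elim
    · rw [d.mu0_P hwD, d.mu0_D hxD]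
      rw [d.lab0_P hwD, d.lab0_D hxD] at hc
      rcases d.mem_B.1 hw with ⟨h3, _⟩ | h3
      · exact (d.D_old hF hxD hxF h3 hwF hc).2
      · exact (hwD h3).elim
    · rw [d.mu0_P hwD] at h2 ⊢
      rw [d.mu0_P hxD]
      rw [d.lab0_P hwD, d.lab0_P hxD] at hc
      rcases d.mem_B.1 hw with ⟨h3, _⟩ | h3
      · rcases d.mem_B.1 hx with ⟨h4, _⟩ | h4
        · exact s.nc h3 hwF h4 hxF hc h1 h2
        · exact (hxD h4).elim
      · exact (hwD h3).elim
  same_lab := fun h _ => d.lab0_P (d.not_D h)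
  same_mu := fun _ _ h _ => d.mu0_P (d.not_D h)
  dif_top := by
    intro e w he hP hB
    by_contra h
    apply hB
    refine d.mem_B.2 (Or.inl ⟨hP, ⟨e, he⟩, fun hC => h (d.C_lab hC)⟩)
  dif_bot := by
    intro w hB hP
    rcases d.mem_B.1 hB with ⟨h3, _⟩ | h3
    · exact (hP h3).elim
    · exact d.lab0_D h3
  Qv := S.vset d.q

theorem disj : Disjoint d.C d.D := by
  rw [Finset.disjoint_left]
  exact fun w h1 h2 => d.not_D (d.C_P h1) h2

variable [Fintype Ed]

theorem move_B {w : W} : w ∈ d.move.B ↔ (w ∈ s.P ∧ (∃ e, w ∈ S.OnE e) ∧ w ∉ d.C) ∨ w ∈ d.D :=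
  d.mem_B

/-- the points of the boundary curves are `C ∪ D` -/
theorem mem_top {w : W} : (w ∈ s.P ∧ w ∉ d.move.B ∧ ∃ e, w ∈ S.OnE e) ↔ w ∈ d.C := by
  constructor
  · rintro ⟨h1, h2, h3⟩
    by_contra h
    exact h2 (d.move_B.2 (Or.inl ⟨h1, h3, h⟩))
  · intro h
    refine ⟨d.C_P h, fun h' => ?_, d.C_on h⟩
    rcases d.move_B.1 h' with ⟨_, _, h3⟩ | h3
    · exact h3 h
    · exact d.not_D (d.C_P h) h3

theorem mem_bot {w : W} : (w ∈ d.move.B ∧ w ∉ s.P) ↔ w ∈ d.D := by
  constructor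
  · rintro ⟨h1, h2⟩
    rcases d.move_B.1 h1 with ⟨h3, _⟩ | h3
    · exact (h2 h3).elim
    · exact h3
  · intro h
    exact ⟨d.move_B.2 (Or.inr h), d.D_new h⟩

theorem top_qe {w : W} : S.top w ∈ d.move.qe ↔ w ∈ d.C := by
  rw [Move.top_mem_qe]; exact d.mem_top

theorem bot_qe {w : W} : S.bot w ∈ d.move.qe ↔ w ∈ d.D := by
  rw [Move.bot_mem_qe]; exact d.mem_bot

theorem vert_qe {v : Vx} : S.vert v ∈ d.move.qe ↔ d.q v = 1 ∧ ∃ e b, S.en e b = v := by
  rw [Move.vert_mem_qe]; exact S.mem_vset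

theorem mem_Dp {w : W} : w ∈ d.move.Dp ↔ w ∈ d.C ∨ w ∈ d.D := by
  rw [Move.mem_Dp, d.mem_top, d.mem_bot]

theorem Dp_eq : d.move.Dp = d.C ∪ d.D := by
  ext w
  rw [d.mem_Dp, Finset.mem_union]

theorem card_Dp (p : W → Prop) [DecidablePred p] : ((d.move.Dp.filter p).card : ZMod 2) =
    ((d.C.filter p).card : ZMod 2) + ((d.D.filter p).card : ZMod 2) := by
  rw [d.Dp_eq, Finset.filter_union, Finset.card_union_of_disjoint]
  · push_cast
    rfl
  · exact Finset.disjoint_filter_filter d.disj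

theorem vq_one {v : Vx} (h : ∃ e b, S.en e b = v) : d.move.vq (fun _ => 1) v = d.q v := by
  have y : ∀ a : ZMod 2, (if a = 1 then (1 : ZMod 2) else 0) = a := by decide
  rw [← y (d.q v)]
  unfold Move.vq
  refine if_congr ?_ rfl rfl
  show v ∈ S.vset d.q ↔ _
  rw [S.mem_vset]
  exact ⟨fun h' => h'.1, fun h' => ⟨h', h⟩⟩

/-- **(Par)** -/
theorem par : d.move.Par := by
  constructor
  · intro e
    have h1 := d.move.sum_qon e (fun _ => (1 : ZMod 2))
    rw [Finset.sum_const, nsmul_eq_mul, mul_one, Finset.sum_const, nsmul_eq_mul, mul_one,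
      d.card_Dp, d.vq_one ⟨e, false, rfl⟩, d.vq_one ⟨e, true, rfl⟩, d.q_edge e] at h1
    apply (ZMod.natCast_eq_zero_iff_even).1
    rw [h1]
    exact zz_self _
  · intro e w hwe hwP hwB hcol
    have hwC : w ∉ d.C := fun h => (d.mem_top.2 h).2.1 hwB
    have h1 := d.free hwe hwP hwC hcol
    apply (ZMod.natCast_eq_zero_iff_even).1
    have h2 : ((d.move.qon e).filter fun x => S.tau e x < S.t w).card =
        ∑ x ∈ d.move.qon e, if S.tau e x < S.t w then 1 else 0 := Finset.card_filter _ _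
    rw [h2]
    push_cast
    rw [d.move.sum_qon e (fun x => if S.tau e x < S.t w then (1 : ZMod 2) else 0)]
    have h3 : d.move.vq (fun x => if S.tau e x < S.t w then (1 : ZMod 2) else 0)
        (S.en e false) = d.q (S.en e false) := by
      rw [← d.vq_one ⟨e, false, rfl⟩]
      unfold Move.vq
      refine if_congr Iff.rfl ?_ rfl
      show (if S.tau e (S.vert (S.en e false)) < S.t w then (1 : ZMod 2) else 0) = 1
      rw [if_pos]
      have h4 : S.tau e (S.vert (S.en e false)) = -1 / 2 := by simp [Shell.tau]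
      rw [h4]
      have := S.t_pos hwe
      linarith
    have h5 : d.move.vq (fun x => if S.tau e x < S.t w then (1 : ZMod 2) else 0)
        (S.en e true) = 0 := by
      unfold Move.vq
      show (if S.en e true ∈ d.move.Qv then
        (if S.tau e (S.vert (S.en e true)) < S.t w then (1 : ZMod 2) else 0) else 0) = 0
      rw [if_neg (c := S.tau e (S.vert (S.en e true)) < S.t w), ite_self]
      have h4 : S.tau e (S.vert (S.en e true)) = 3 / 2 := by
        simp [Shell.tau, (S.en_ne e).symm]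
      rw [h4]
      have := S.t_lt hwe
      intro h6
      linarith
    rw [h3, h5, add_zero]
    have h6 : ∑ x ∈ d.move.Dp.filter (fun w => w ∈ S.OnE e),
        (if S.tau e (d.move.pt x) < S.t w then (1 : ZMod 2) else 0) =
        S.bel d.C e w + S.bel d.D e w := by
      rw [← Finset.sum_filter, Finset.sum_const, nsmul_eq_mul, mul_one]
      have h7 : (d.move.Dp.filter (fun w => w ∈ S.OnE e)).filter
          (fun x => S.tau e (d.move.pt x) < S.t w) =
          d.move.Dp.filter (fun x => x ∈ S.OnE e ∧ S.t x < S.t w) := by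
        ext x
        simp only [Finset.mem_filter, Move.tau_pt]
        tauto
      rw [h7]
      exact d.card_Dp _
    rw [h6, add_comm, ← add_assoc]
    exact h1

/-- **(TC)** -/
theorem tc : d.move.TC := by
  intro X hX w hwX h1 h2 h3 w' h4 h5 h6
  refine d.C_conn X (fun F u g1 g2 g3 g4 => ?_) w hwX (d.mem_top.1 ⟨h1, h2, h3⟩) w'
    (d.mem_top.1 ⟨h4, h5, h6⟩)
  obtain ⟨g5, g6, g7⟩ := d.mem_top.2 g3
  exact hX F u g1 g2 g5 g6 g4

/-- **(NL)** -/
theorem nl : d.move.NL := by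
  intro F w x hF h1 h2 h3 h4 h5 h6
  have hx : x ∈ d.D := d.mem_bot.1 ⟨h4, h5⟩
  obtain ⟨e, _, _, he⟩ := (S.onE hF).1 h3
  have hw : w ∈ d.C := d.mem_top.1 ⟨h1, h2, e, he⟩
  have h7 := d.D_old hF hx h6 h1 h3 (by rw [d.C_lab hw])
  have h8 : d.move.mu0 F x = d.nuD F x := d.mu0_D hx
  rw [h8]
  exact ⟨h7.2, h7.1⟩

/-- **(QP)** -/
theorem qp (hS : S.Sph) (hC : S.Circ) : d.move.QP d.par :=
  d.move.qp d.par hS hC d.tc d.nl

end MvD

end Crest.Agent.R096.Door_501
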