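import Crest.Agent.R096.Twr2_438
import Crest.Agent.R096.Qp5_106

/-!
# Row 96, DOORS-TOWER, part 3 (helper438): chord components of a pattern, canonical labels,
minimal discs.
-/

set_option autoImplicit false

namespace Crest.Agent.R096.Twr_438

open Crest.Agent.R096.St_147 Crest.Agent.R096.Door_501 Crest.Agent.R096.Qp_106 Classical

variable {ι Φ W : Type} {M : MeshC ι Φ W} {k : ι} {Vx Ed : Type} {S : Shell M k Vx Ed}
variable {I : Type} {col : I → Bool}

/-- one step along a chord on a face of `k` -/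
def CStep (k : ι) (s : St M col) (w w' : W) : Prop :=
  ∃ F, k ∈ M.side F ∧ w ∈ s.P ∧ w ∈ M.On F ∧ w' = s.mu F w

theorem CStep.mem {s : St M col} {w w' : W} (h : CStep k s w w') : w ∈ s.P ∧ w' ∈ s.P := by
  obtain ⟨F, _, h2, h3, rfl⟩ := h
  exact ⟨h2, (s.mu_mem h2 h3).1⟩

theorem CStep.lab {s : St M col} {w w' : W} (h : CStep k s w w') : s.lab w' = s.lab w := by
  obtain ⟨F, _, h2, h3, rfl⟩ := h
  exact s.mu_lab h2 h3

theorem CStep.symm {s : St M col} {w w' : W} (h : CStep k s w w') : CStep k s w' w := by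
  obtain ⟨F, h1, h2, h3, rfl⟩ := h
  exact ⟨F, h1, (s.mu_mem h2 h3).1, (s.mu_mem h2 h3).2, (s.mu_mu h2 h3).symm⟩

/-- reachability along chords -/
def Rch (k : ι) (s : St M col) (w w' : W) : Prop := Relation.ReflTransGen (CStep k s) w w'

theorem Rch.symm {s : St M col} {w w' : W} (h : Rch k s w w') : Rch k s w' w := by
  induction h with
  | refl => exact Relation.ReflTransGen.refl
  | tail _ h2 ih => exact Relation.ReflTransGen.head h2.symm ih

theorem Rch.trans {s : St M col} {a b c : W} (h : Rch k s a b) (h' : Rch k s b c) : Rch k s a c :=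
  Relation.ReflTransGen.trans h h'

theorem Rch.mem {s : St M col} {w w' : W} (h : Rch k s w w') (hw : w ∈ s.P) : w' ∈ s.P := by
  induction h with
  | refl => exact hw
  | tail _ h2 _ => exact h2.mem.2

theorem Rch.lab {s : St M col} {w w' : W} (h : Rch k s w w') : s.lab w' = s.lab w := by
  induction h with
  | refl => rfl
  | tail _ h2 ih => exact h2.lab.trans ih

/-- the component of `w` -/
noncomputable def comp (k : ι) (s : St M col) (w : W) : Finset W :=
  s.P.filter fun x => Rch k s w x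

theorem mem_comp {s : St M col} {w x : W} : x ∈ comp k s w ↔ x ∈ s.P ∧ Rch k s w x :=
  Finset.mem_filter

theorem self_mem {s : St M col} {w : W} (h : w ∈ s.P) : w ∈ comp k s w :=
  mem_comp.2 ⟨h, Relation.ReflTransGen.refl⟩

theorem comp_mu {s : St M col} {w x : W} {F : Φ} (hF : k ∈ M.side F) (hx : x ∈ comp k s w)
    (hxF : x ∈ M.On F) : s.mu F x ∈ comp k s w := by
  obtain ⟨h1, h2⟩ := mem_comp.1 hx
  exact mem_comp.2 ⟨(s.mu_mem h1 hxF).1, Relation.ReflTransGen.tail h2 ⟨F, hF, h1, hxF, rfl⟩⟩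

theorem comp_eq {s : St M col} {w x : W} (hx : x ∈ comp k s w) : comp k s x = comp k s w := by
  obtain ⟨_, h2⟩ := mem_comp.1 hx
  ext y
  rw [mem_comp, mem_comp]
  exact ⟨fun h => ⟨h.1, h2.trans h.2⟩, fun h => ⟨h.1, h2.symm.trans h.2⟩⟩

theorem comp_disj {s : St M col} {w x : W} (hx : x ∈ s.P) (h : x ∉ comp k s w) :
    Disjoint (comp k s x) (comp k s w) := by
  rw [Finset.disjoint_left]
  intro y h1 h2
  apply h
  rw [← comp_eq h2, comp_eq h1]
  exact self_mem hx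

/-- the component as a curve -/
noncomputable def cc (S : Shell M k Vx Ed) (s : St M col) (hs : ∀ w ∈ s.P, ∃ e, w ∈ S.OnE e)
    (w : W) : Crv S where
  C := comp k s w
  mu := s.mu
  on := fun h => hs _ (mem_comp.1 h).1
  mem := fun hF h hwF => ⟨comp_mu hF h hwF, (s.mu_mem (mem_comp.1 h).1 hwF).2⟩
  ne := fun _ h hwF => s.mu_ne (mem_comp.1 h).1 hwF
  inv := fun _ h hwF => s.mu_mu (mem_comp.1 h).1 hwF

theorem conn_comp {s : St M col} {w : W} (X : Set W)
    (hX : ∀ F x, k ∈ M.side F → x ∈ M.On F → x ∈ comp k s w → x ∈ X → s.mu F x ∈ X) :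
    ∀ x ∈ X, x ∈ comp k s w → ∀ y ∈ comp k s w, y ∈ X := by
  intro x hxX hx y hy
  obtain ⟨_, h2⟩ := mem_comp.1 hx
  obtain ⟨_, h4⟩ := mem_comp.1 hy
  have h5 : Rch k s x y := h2.symm.trans h4
  have h6 : ∀ z, Rch k s x z → z ∈ X ∧ z ∈ comp k s w := by
    intro z hz
    induction hz with
    | refl => exact ⟨hxX, hx⟩
    | tail _ h2 ih =>
      obtain ⟨F, g1, g2, g3, rfl⟩ := h2
      exact ⟨hX F _ g1 g3 ih.2 ih.1, comp_mu g1 ih.2 g3⟩
  exact (h6 y h5).1

theorem cn_cc {s : St M col} (hs : ∀ w ∈ s.P, ∃ e, w ∈ S.OnE e) (w : W) : Cn (cc S s hs w) :=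
  fun X hX x hxX hx y hy => conn_comp (k := k) (s := s) (w := w) X hX x hxX hx y hy

theorem nlc_cc {s : St M col} (hcol : ∀ i j : I, col i = col j)
    (hs : ∀ w ∈ s.P, ∃ e, w ∈ S.OnE e) {w x : W} (hd : Disjoint (comp k s w) (comp k s x)) :
    NLC (cc S s hs w) (cc S s hs x) := by
  intro F a b hF ha haF hb hbF
  have ha' : a ∈ comp k s w := ha
  have hb' : b ∈ comp k s x := hb
  refine s.nc (mem_comp.1 ha').1 haF (mem_comp.1 hb').1 hbF (hcol _ _) ?_ ?_
  · rintro rfl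
    exact Finset.disjoint_left.1 hd ha' hb'
  · rintro rfl
    exact Finset.disjoint_left.1 hd (comp_mu hF ha' haF) hb'

/-- canonical label of a closed set of points, `0` at `v0` -/
noncomputable def lbl (S : Shell M k Vx Ed) (v0 : Vx) (C : Finset W) : Vx → ZMod 2 :=
  if h : ∃ a : Vx → ZMod 2, (∀ e, a (S.en e false) + a (S.en e true) = S.par C e) ∧ a v0 = 0
  then h.choose else 0

theorem lbl_spec [Fintype Ed] (hS : S.Sph) (A : Crv S) (v0 : Vx) :
    IsLab A (lbl S v0 A.C) ∧ lbl S v0 A.C v0 = 0 := by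
  have h : ∃ a : Vx → ZMod 2, (∀ e, a (S.en e false) + a (S.en e true) = S.par A.C e) ∧
      a v0 = 0 := by
    obtain ⟨a, h1, h2⟩ := exists_lab hS A v0
    exact ⟨a, h1, h2⟩
  unfold lbl
  rw [dif_pos h]
  exact h.choose_spec

/-- the side of the point `x` with respect to `C` -/
noncomputable def sd (S : Shell M k Vx Ed) (v0 : Vx) (C : Finset W) (x : W) : ZMod 2 :=
  if h : ∃ e, x ∈ S.OnE e then lbl S v0 C (S.en h.choose false) + S.bel C h.choose x else 0

theorem sd_eq (v0 : Vx) (C : Finset W) {e : Ed} {x : W} (hx : x ∈ S.OnE e) :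
    sd S v0 C x = lbl S v0 C (S.en e false) + S.bel C e x := by
  have h : ∃ e, x ∈ S.OnE e := ⟨e, hx⟩
  unfold sd
  rw [dif_pos h]
  have h1 : h.choose = e := S.onE_disj h.choose_spec hx
  rw [h1]

theorem sd_val (A : Crv S) (v0 : Vx) {e : Ed} {x : W} (hx : x ∈ S.OnE e) :
    sd S v0 A.C x = val A (lbl S v0 A.C) e (S.t x) := sd_eq v0 A.C hx

/-- a connected curve lies on one side -/
theorem sd_const [Fintype Ed] (hS : S.Sph) (hC : S.Circ) (v0 : Vx) (A B : Crv S) (hcn : Cn A)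
    (hd : Disjoint A.C B.C) (hNL : NLC A B) : ∃ p : ZMod 2, ∀ x ∈ A.C, sd S v0 B.C x = p := by
  obtain ⟨p, hp⟩ := side_const hC A B hcn hd hNL (lbl_spec hS B v0).1
  refine ⟨p, fun x hx => ?_⟩
  obtain ⟨e, he⟩ := A.on hx
  rw [sd_val B v0 he]
  exact hp e x he hx

/-- **product rule** with canonical labels -/
theorem sd_rule [Fintype Ed] (hS : S.Sph) (hCon : S.Con) {v0 : Vx}
    (hv0 : ∃ e b, S.en e b = v0) (A B : Crv S) (hd : Disjoint A.C B.C) {p q : ZMod 2}
    (hp : ∀ x ∈ A.C, sd S v0 B.C x = p) (hq : ∀ x ∈ B.C, sd S v0 A.C x = q) :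
    (∀ x, sd S v0 A.C x * sd S v0 B.C x = p * sd S v0 A.C x + q * sd S v0 B.C x) ∧
    (∀ v, (∃ e b, S.en e b = v) → lbl S v0 A.C v * lbl S v0 B.C v =
      p * lbl S v0 A.C v + q * lbl S v0 B.C v) := by
  obtain ⟨ha, ha0⟩ := lbl_spec hS A v0
  obtain ⟨hb, hb0⟩ := lbl_spec hS B v0
  obtain ⟨h1, h2⟩ := prod_rule hCon A B ha hb hv0 ha0 hb0 hd
    (fun e w hwe hw => by rw [← sd_val B v0 hwe]; exact hp w hw)
    (fun e w hwe hw => by rw [← sd_val A v0 hwe]; exact hq w hw)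
  constructor
  · intro x
    by_cases hx : ∃ e, x ∈ S.OnE e
    · obtain ⟨e, he⟩ := hx
      rw [sd_val A v0 he, sd_val B v0 he]
      exact h1 e _
    · unfold sd
      rw [dif_neg hx, dif_neg hx]
      have z : ∀ p q : ZMod 2, 0 * 0 = p * 0 + q * 0 := by decide
      exact z p q
  · rintro v ⟨e, b, rfl⟩
    exact h2 e b

theorem sd_not_both [Fintype Ed] (hS : S.Sph) (hCon : S.Con) {v0 : Vx}
    (hv0 : ∃ e b, S.en e b = v0) (A B : Crv S) (hd : Disjoint A.C B.C) (hA : A.C.Nonempty)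
    (hp : ∀ x ∈ A.C, sd S v0 B.C x = 1) (hq : ∀ x ∈ B.C, sd S v0 A.C x = 1) : False := by
  obtain ⟨ha, ha0⟩ := lbl_spec hS A v0
  obtain ⟨hb, hb0⟩ := lbl_spec hS B v0
  exact not_both hCon A B ha hb hv0 ha0 hb0 hd hA
    (fun e w hwe hw => by rw [← sd_val B v0 hwe]; exact hp w hw)
    (fun e w hwe hw => by rw [← sd_val A v0 hwe]; exact hq w hw)

end Crest.Agent.R096.Twr_438
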