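import Crest.Agent.R096.Exa2_560
import Crest.Agent.R096.Mrg6_715
import Crest.Agent.R096.Twr3_438

/-!
# R096 (row 96), DOORS / EXA part 3 (helper560): exact patterns on the boundary sphere of a core
-/

set_option autoImplicit false
set_option linter.unusedSectionVars false

open Set Metric Module
open scoped Classical

namespace Crest.Agent.R096.Exa_560

open Crest.Agent.R096.Msh_715 Crest.Agent.R096.Agl5_543 Crest.Agent.R096.St_147
  Crest.Agent.R096.Lac_441 Crest.Agent.R096.Twr_438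

/-- indicator in `ZMod 2` -/
noncomputable def ind (p : Prop) : ZMod 2 := if p then 1 else 0

theorem ind_add {p q : Prop} (h : p ↔ q) : ind p + ind q = 0 := by
  unfold ind
  by_cases hp : p
  · rw [if_pos hp, if_pos (h.1 hp)]; decide
  · rw [if_neg hp, if_neg (fun hq => hp (h.2 hq))]; decide

theorem ind_add_one {p q : Prop} (h : ¬ (p ↔ q)) : ind p + ind q = 1 := by
  unfold ind
  by_cases hp : p
  · rw [if_pos hp, if_neg (fun hq => h ⟨fun _ => hq, fun _ => hp⟩)]; decide
  · rw [if_neg hp, if_pos (by by_contra hq; exact h ⟨fun h' => absurd h' hp, fun h' => absurd h' hq⟩)]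
    decide

variable {E : Type} [NormedAddCommGroup E] [NormedSpace ℝ E] [FiniteDimensional ℝ E]
variable {Om : Set E} {ι : Type} {T : Tiling Om ι}

/-- counting the points of a level on the first part of a 1-cell -/
theorem count {e : T.Cell} (he : e.dim = 1) {u : E → ℝ} {u0 u1 c : ℝ}
    (hu : ∀ s ∈ Ioo (0 : ℝ) 1, u (lft e + s • (rgt e - lft e)) = (1 - s) * u0 + s * u1)
    (A : Finset E) (hA : ∀ w ∈ e.opn, w ∈ A ↔ u w = c) {r : ℝ} (hr0 : 0 < r) (hr1 : r ≤ 1)
    (h0 : u0 ≠ c) (hr : (1 - r) * u0 + r * u1 ≠ c) :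
    ((A.filter fun w => w ∈ e.opn ∧ par T w < r).card : ZMod 2) =
      ind (c < u0) + ind (c < (1 - r) * u0 + r * u1) := by
  have hmem : ∀ w, w ∈ A.filter (fun w => w ∈ e.opn ∧ par T w < r) ↔
      ∃ s ∈ Ioo (0 : ℝ) 1, s < r ∧ (1 - s) * u0 + s * u1 = c ∧
        w = lft e + s • (rgt e - lft e) := by
    intro w
    rw [Finset.mem_filter]
    constructor
    · rintro ⟨hw, hwe, hwr⟩
      obtain ⟨s, hs, rfl⟩ := exists_par he hwe
      rw [(par_eq he hs).2] at hwr
      have h1 := (hA _ hwe).1 hw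
      rw [hu s hs] at h1
      exact ⟨s, hs, hwr, h1, rfl⟩
    · rintro ⟨s, hs, hsr, h1, rfl⟩
      obtain ⟨h2, h3⟩ := par_eq he hs
      exact ⟨(hA _ h2).2 (by rw [hu s hs, h1]), h2, by rw [h3]; exact hsr⟩
  by_cases hsame : c < u0 ↔ c < (1 - r) * u0 + r * u1
  · rw [ind_add hsame]
    have hemp : A.filter (fun w => w ∈ e.opn ∧ par T w < r) = ∅ := by
      apply Finset.eq_empty_of_forall_notMem
      intro w hw
      obtain ⟨s, hs, hsr, h1, _⟩ := (hmem w).1 hw
      have h2 : (r - s) * u0 + s * ((1 - r) * u0 + r * u1) = r * c := by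
        have : (r - s) * u0 + s * ((1 - r) * u0 + r * u1) = r * ((1 - s) * u0 + s * u1) := by ring
        rw [this, h1]
      rcases lt_or_gt_of_ne h0 with h | h
      · have h' : (1 - r) * u0 + r * u1 < c := by
          rcases lt_or_gt_of_ne hr with h' | h'
          · exact h'
          · exact absurd (hsame.2 h') (not_lt.2 h.le)
        nlinarith [mul_pos hs.1 (sub_pos.2 h'), mul_pos (sub_pos.2 hsr) (sub_pos.2 h)]
      · have h' := hsame.1 h
        nlinarith [mul_pos hs.1 (sub_pos.2 h'), mul_pos (sub_pos.2 hsr) (sub_pos.2 h)]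
    rw [hemp, Finset.card_empty, Nat.cast_zero]
  · rw [ind_add_one hsame]
    have hne : u1 - u0 ≠ 0 := by
      intro h
      apply hsame
      have : u1 = u0 := by linarith
      rw [this]
      have e1 : (1 - r) * u0 + r * u0 = u0 := by ring
      rw [e1]
    have hs0 : 0 < (c - u0) / (u1 - u0) ∧ (c - u0) / (u1 - u0) < r := by
      rcases lt_or_gt_of_ne h0 with h | h
      · have h' : c < (1 - r) * u0 + r * u1 := by
          by_contra hn
          exact hsame ⟨fun h2 => absurd h2 (not_lt.2 h.le), fun h2 => absurd h2 hn⟩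
        have hpos : 0 < u1 - u0 := by
          by_contra hn
          push Not at hn
          nlinarith [mul_nonneg hr0.le (sub_nonneg.2 (sub_nonpos.1 hn))]
        refine ⟨div_pos (by linarith) hpos, ?_⟩
        rw [div_lt_iff₀ hpos]; nlinarith
      · have h' : (1 - r) * u0 + r * u1 < c := by
          rcases lt_or_gt_of_ne hr with h' | h'
          · exact h'
          · exact absurd ⟨fun _ => h', fun _ => h⟩ hsame
        have hneg : u1 - u0 < 0 := by
          by_contra hn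
          push Not at hn
          nlinarith [mul_nonneg hr0.le hn]
        refine ⟨div_pos_of_neg_of_neg (by linarith) hneg, ?_⟩
        rw [div_lt_iff_of_neg hneg]; nlinarith
    have hone : A.filter (fun w => w ∈ e.opn ∧ par T w < r) =
        {lft e + ((c - u0) / (u1 - u0)) • (rgt e - lft e)} := by
      ext w
      rw [hmem w, Finset.mem_singleton]
      constructor
      · rintro ⟨s, hs, hsr, h1, rfl⟩
        have : s = (c - u0) / (u1 - u0) := by
          rw [eq_div_iff hne]; linarith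
        rw [this]
      · rintro rfl
        refine ⟨_, ⟨hs0.1, hs0.2.trans_le hr1⟩, hs0.2, ?_, rfl⟩
        field_simp; ring
    rw [hone, Finset.card_singleton, Nat.cast_one]

section shell

variable {κ : Type} {Kc : κ → Set E} {J : Type}

/-- the frontier of a core is a union of 2-cells -/
theorem sgd (h3 : finrank ℝ E = 3) (hH : ∀ c, CoreH T (Kc c)) (c : κ) :
    SgD T (frontier (Kc c)) where
  cpt := (hH c).cpt.of_isClosed_subset isClosed_frontier (hH c).cpt.isClosed.frontier_subset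
  sub := (hH c).cpt.isClosed.frontier_subset.trans (hH c).sub
  cc := (hH c).cc
  cov := fun _ hx => exists_face h3 hH hx

variable {h3 : finrank ℝ E = 3} {hH : ∀ c, CoreH T (Kc c)}
  {hdis : ∀ c c', c ≠ c' → Disjoint (Kc c) (Kc c')} {c : κ}

theorem fk_sub (G : (shellH h3 hH hdis c).Fk) : G.1.1.set ⊆ frontier (Kc c) :=
  (face_iff h3 (fun c => (hH c).core) (fun c => (hH c).sub) (fun c => (hH c).cc) hdis G.1.1 c).2
    ⟨G.1.2, G.2⟩

variable (h3 hH hdis) in
/-- **the exact pattern of the levels** -/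
noncomputable def exa [Nonempty J] (L : Lev T (frontier (Kc c)) J) :
    St (shellH h3 hH hdis c).sph (fun _ : J => true) where
  P := (L.finite_PS (sgd h3 hH c)).toFinset
  lab := L.lab
  mu := fun G w => L.mu G.1.1 w
  mu_mem := by
    intro G w hw hwG
    rw [Set.Finite.mem_toFinset] at hw ⊢
    obtain ⟨hw1, hw2, j, hj, hwj⟩ := hw
    obtain ⟨_, h2, h4, _⟩ := L.mu_spec (fk_sub G) hj hwG hwj
    exact ⟨⟨fk_sub G h2.1, h2.2, j, hj, h4⟩, h2⟩
  mu_ne := by
    intro G w hw hwG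
    rw [Set.Finite.mem_toFinset] at hw
    obtain ⟨hw1, hw2, j, hj, hwj⟩ := hw
    exact (L.mu_spec (fk_sub G) hj hwG hwj).1
  mu_mu := by
    intro G w hw hwG
    rw [Set.Finite.mem_toFinset] at hw
    obtain ⟨hw1, hw2, j, hj, hwj⟩ := hw
    exact L.mu_mu (fk_sub G) hj hwG hwj
  mu_lab := by
    intro G w hw hwG
    rw [Set.Finite.mem_toFinset] at hw
    obtain ⟨hw1, hw2, j, hj, hwj⟩ := hw
    rw [L.lab_eq hj hwj, L.lab_eq hj (L.mu_spec (fk_sub G) hj hwG hwj).2.2.1]
  nc := by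
    intro G w x hw hwG hx hxG _ hxw hxm
    rw [Set.Finite.mem_toFinset] at hw hx
    obtain ⟨hw1, hw2, j, hj, hwj⟩ := hw
    obtain ⟨hx1, hx2, i, hi, hxi⟩ := hx
    obtain ⟨g, hg⟩ := L.aff G.1.1 (fk_sub G)
    obtain ⟨a1, a2, a3, a4, a5⟩ := L.mu_spec (fk_sub G) hj hwG hwj
    obtain ⟨b1, b2, b3, b4, b5⟩ := L.mu_spec (fk_sub G) hi hxG hxi
    have hij : L.lv i ≠ L.lv j := by
      intro h
      rcases a4 x (G.1.1.on_sub_bd hxG) (hxi.trans h) with h' | h'
      · exact hxw h'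
      · exact hxm h'
    intro hl
    have h5 := (lace_level G.1.1 g h3 (c := L.lv j) (G.1.1.on_sub_bd hwG) (G.1.1.on_sub_bd a2)
      (by rw [← hg hwG.1, hwj]) (by rw [← hg a2.1, a3])
      (fun y hy hyj => a4 y hy (by rw [hg (G.1.1.bd_sub hy)]; exact hyj))
      (G.1.1.on_sub_bd hxG) (G.1.1.on_sub_bd b2)
      (by rw [← hg hxG.1, hxi]; exact hij) (by rw [← hg b2.1, b3]; exact hij)).1 hl
    rw [← hg hxG.1, ← hg b2.1, hxi, b3] at h5
    rcases h5 with ⟨h6, h7⟩ | ⟨h6, h7⟩
    · exact lt_irrefl _ (h6.trans h7)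
    · exact lt_irrefl _ (h6.trans h7)

variable [Nonempty J] (L : Lev T (frontier (Kc c)) J)

theorem mem_P {w : E} : w ∈ (exa h3 hH hdis L).P ↔
    w ∈ frontier (Kc c) ∧ T.dim w = 1 ∧ ∃ j ∈ L.J0, L.u w = L.lv j :=
  Set.Finite.mem_toFinset _

theorem exa_lab {w : E} (hw : w ∈ (exa h3 hH hdis L).P) :
    (exa h3 hH hdis L).lab w ∈ L.J0 ∧ L.u w = L.lv ((exa h3 hH hdis L).lab w) :=
  L.lab_spec ((mem_P L).1 hw).2.2

theorem lab_of {w : E} {j : J} (hj : j ∈ L.J0) (h : L.u w = L.lv j) :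
    (exa h3 hH hdis L).lab w = j := L.lab_eq hj h

/-- every point lies on an edge -/
theorem exa_on {w : E} (hw : w ∈ (exa h3 hH hdis L).P) :
    ∃ e, w ∈ (shellH h3 hH hdis c).sphSh.OnE e := by
  obtain ⟨h1, h2, _⟩ := (mem_P L).1 hw
  have hO := (sgd h3 hH c).sub h1
  refine ⟨edK T Kc (fun c => (hH c).cc) hO h1 h2, ?_⟩
  show w ∈ (T.cl hO).opn
  rw [T.opn_cl hO]; exact T.self_mem_oc w

/-- **(E1)** -/
theorem exa_comp {j : J} (hj : j ∈ L.J0)
    (hc : IsPreconnected {x | x ∈ frontier (Kc c) ∧ L.u x = L.lv j}) {w w' : E}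
    (hw : w ∈ (exa h3 hH hdis L).P) (hwj : (exa h3 hH hdis L).lab w = j)
    (hw' : w' ∈ (exa h3 hH hdis L).P) (hwj' : (exa h3 hH hdis L).lab w' = j) :
    w' ∈ comp true (exa h3 hH hdis L) w := by
  rw [mem_comp]
  refine ⟨hw', ?_⟩
  obtain ⟨h1, h2, _⟩ := (mem_P L).1 hw
  obtain ⟨h1', h2', _⟩ := (mem_P L).1 hw'
  have h4 := (exa_lab L hw).2
  have h4' := (exa_lab L hw').2
  rw [hwj] at h4
  rw [hwj'] at h4'
  refine L.conn (sgd h3 hH c) hj hc {x | Rch true (exa h3 hH hdis L) w x} ?_ h1 h2 h4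
    Relation.ReflTransGen.refl h1' h2' h4'
  intro F hF x hx hxj hR
  have hR' : Rch true (exa h3 hH hdis L) w x := hR
  have hface := (face_iff h3 (fun c => (hH c).core) (fun c => (hH c).sub)
    (fun c => (hH c).cc) hdis F c).1 hF
  refine Relation.ReflTransGen.tail hR' ⟨⟨⟨F, hface.1⟩, hface.2⟩, ?_, ?_, hx, rfl⟩
  · exact Door_501.Shell.mem_bool_side true
  · exact (mem_P L).2 ⟨hF hx.1, hx.2, j, hj, hxj⟩

/-- the component of a point = all points of its name -/
theorem mem_comp_iff {j : J} (hj : j ∈ L.J0)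
    (hc : IsPreconnected {x | x ∈ frontier (Kc c) ∧ L.u x = L.lv j}) {w : E}
    (hw : w ∈ (exa h3 hH hdis L).P) (hwj : (exa h3 hH hdis L).lab w = j) (x : E) :
    x ∈ comp true (exa h3 hH hdis L) w ↔
      x ∈ frontier (Kc c) ∧ T.dim x = 1 ∧ L.u x = L.lv j := by
  constructor
  · intro hx
    obtain ⟨h1, h2⟩ := mem_comp.1 hx
    have h4 := h2.lab
    rw [hwj] at h4
    obtain ⟨g1, g2, _⟩ := (mem_P L).1 h1
    have := (exa_lab L h1).2
    rw [h4] at this
    exact ⟨g1, g2, this⟩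
  · rintro ⟨g1, g2, g3⟩
    exact exa_comp L hj hc hw hwj ((mem_P L).2 ⟨g1, g2, j, hj, g3⟩) (lab_of L hj g3)

end shell

end Crest.Agent.R096.Exa_560
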