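import Crest.Agent.R096.Exa3_560

/-!
# R096 (row 96), DOORS / EXA part 4 (helper560): labels, sides and crossings of exact patterns

* `exa_lbl`   : (E3) the label of the component of the name `j` is `[lv j < u v]`.
* `exa_sd`    : the side of a point `x` with respect to it is `[lv j < u x]`.
* `exa_nc`    : (c) chords with both ends on one side do not interlace with it.
* `exa_lace`  : (E2) two families interlace on a 2-cell iff their levels meet in it.
* `exa_cross` : one common point of the levels gives exactly one interlaced pair.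
-/

set_option autoImplicit false
set_option linter.unusedSectionVars false

open Set Metric Module
open scoped Classical

namespace Crest.Agent.R096.Exa_560

open Crest.Agent.R096.Msh_715 Crest.Agent.R096.Agl5_543 Crest.Agent.R096.St_147
  Crest.Agent.R096.Lac_441 Crest.Agent.R096.Twr_438

variable {E : Type} [NormedAddCommGroup E] [NormedSpace ℝ E] [FiniteDimensional ℝ E]
variable {Om : Set E} {ι : Type} {T : Tiling Om ι}
variable {κ : Type} {Kc : κ → Set E} {J : Type}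
variable {h3 : finrank ℝ E = 3} {hH : ∀ c, CoreH T (Kc c)}
  {hdis : ∀ c c', c ≠ c' → Disjoint (Kc c) (Kc c')} {c : κ}

theorem ind_false {p : Prop} (h : ¬ p) : ind p = 0 := if_neg h

theorem ind_true {p : Prop} (h : p) : ind p = 1 := if_pos h

/-- `u` is affine along the edges -/
theorem edge_aff (h3 : finrank ℝ E = 3) (hH : ∀ c, CoreH T (Kc c))
    (L : Lev T (frontier (Kc c)) J) (e : EdK T Kc c) (s : ℝ) (hs : s ∈ Icc (0 : ℝ) 1) :
    L.u (lft e.1 + s • (rgt e.1 - lft e.1)) = (1 - s) * L.u (lft e.1) + s * L.u (rgt e.1) := by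
  obtain ⟨_, hset, _, _, _, hl, hr⟩ := lft_rgt e.2.1
  have hpt : e.1.pt ∈ frontier (Kc c) := e.2.2 (e.1.opn_sub (T.self_mem_oc _))
  obtain ⟨F, hF, hpF⟩ := (sgd h3 hH c).cov _ hpt
  have hsub : e.1.set ⊆ F.set := by
    rw [e.1.set_eq]
    rw [F.set_eq] at hpF ⊢
    exact T.cc_sub_of_mem hpF
  obtain ⟨g, hg⟩ := L.aff F hF
  have e1 : lft e.1 + s • (rgt e.1 - lft e.1) = s • rgt e.1 + (1 - s) • lft e.1 := by
    module
  have hmem : lft e.1 + s • (rgt e.1 - lft e.1) ∈ e.1.set := by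
    rw [hset, segment_eq_image']
    exact ⟨s, hs, rfl⟩
  rw [hg (hsub hmem), hg (hsub hl), hg (hsub hr), e1, aff_comb]
  ring

section

variable [Nonempty J] (L : Lev T (frontier (Kc c)) J) {j : J} (hj : j ∈ L.J0)
  (hc : IsPreconnected {x | x ∈ frontier (Kc c) ∧ L.u x = L.lv j}) {w : E}
  (hw : w ∈ (exa h3 hH hdis L).P) (hwj : (exa h3 hH hdis L).lab w = j)

include hj hc hw hwj

/-- parity of the points on an edge -/
theorem exa_par (e : EdK T Kc c) :
    (shellH h3 hH hdis c).sphSh.par (comp true (exa h3 hH hdis L) w) e =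
      ind (L.lv j < L.u (lft e.1)) + ind (L.lv j < L.u (rgt e.1)) := by
  obtain ⟨_, _, _, hl0, hr0, hl, hr⟩ := lft_rgt e.2.1
  have h1 := count e.2.1 (u := L.u) (u0 := L.u (lft e.1)) (u1 := L.u (rgt e.1)) (c := L.lv j)
    (fun s hs => edge_aff h3 hH L e s ⟨hs.1.le, hs.2.le⟩) (comp true (exa h3 hH hdis L) w)
    (fun x hx => by
      rw [mem_comp_iff L hj hc hw hwj]
      exact ⟨fun h => h.2.2, fun h => ⟨e.2.2 (e.1.opn_sub hx),
        (T.dim_eq_of_mem_oc e.1.pt_mem hx).trans e.2.1, h⟩⟩) one_pos le_rfl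
    (L.vert _ (e.2.2 hl) hl0 j hj)
    (by rw [sub_self, zero_mul, zero_add, one_mul]; exact L.vert _ (e.2.2 hr) hr0 j hj)
  rw [sub_self, zero_mul, zero_add, one_mul] at h1
  rw [← h1]
  show (((comp true (exa h3 hH hdis L) w).filter fun x => x ∈ e.1.opn).card : ZMod 2) = _
  congr 2
  refine Finset.filter_congr fun x _ => ⟨fun h => ⟨h, ?_⟩, fun h => h.1⟩
  obtain ⟨s, hs, rfl⟩ := exists_par e.2.1 h
  rw [(par_eq e.2.1 hs).2]; exact hs.2

/-- **(E3) the label of the component of the name `j`** -/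
theorem exa_lbl' (v0 v : VxK T Kc c) :
    lbl (shellH h3 hH hdis c).sphSh v0 (comp true (exa h3 hH hdis L) w) v =
      ind (L.lv j < L.u v.1) + ind (L.lv j < L.u v0.1) := by
  have hspec : ∃ a : VxK T Kc c → ZMod 2, (∀ e, a ((shellH h3 hH hdis c).sphSh.en e false) +
      a ((shellH h3 hH hdis c).sphSh.en e true) =
      (shellH h3 hH hdis c).sphSh.par (comp true (exa h3 hH hdis L) w) e) ∧ a v0 = 0 := by
    refine ⟨fun v => ind (L.lv j < L.u v.1) + ind (L.lv j < L.u v0.1), fun e => ?_, ?_⟩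
    · rw [exa_par L hj hc hw hwj e]
      show ind (L.lv j < L.u (lft e.1)) + ind (L.lv j < L.u v0.1) +
        (ind (L.lv j < L.u (rgt e.1)) + ind (L.lv j < L.u v0.1)) = _
      have h2 : ∀ a b d : ZMod 2, a + d + (b + d) = a + b := by decide
      exact h2 _ _ _
    · exact ind_add Iff.rfl
  have hl : lbl (shellH h3 hH hdis c).sphSh v0 (comp true (exa h3 hH hdis L) w) =
      hspec.choose := dif_pos hspec
  obtain ⟨h1, h2⟩ := hspec.choose_spec
  rw [← hl] at h1 h2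
  set a := lbl (shellH h3 hH hdis c).sphSh v0 (comp true (exa h3 hH hdis L) w) with ha
  have hcon := con_VxK hH c (fun v => a v + ind (L.lv j < L.u v.1)) (by
    intro e
    have h5 := h1 e
    rw [exa_par L hj hc hw hwj e] at h5
    have h6 : ∀ p q r s : ZMod 2, p + q = r + s → p + r = q + s := by decide
    exact h6 _ _ _ _ h5) v v0
  have h7 : a v + ind (L.lv j < L.u v.1) = a v0 + ind (L.lv j < L.u v0.1) := hcon
  rw [h2] at h7
  have h8 : ∀ p q r : ZMod 2, p + q = 0 + r → p = q + r := by decide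
  exact h8 _ _ _ h7

theorem exa_lbl (v0 v : VxK T Kc c) (hv0 : ¬ L.lv j < L.u v0.1) :
    lbl (shellH h3 hH hdis c).sphSh v0 (comp true (exa h3 hH hdis L) w) v =
      if L.lv j < L.u v.1 then 1 else 0 := by
  rw [exa_lbl' L hj hc hw hwj v0 v, ind_false hv0, add_zero]
  rfl

/-- **the side of a point** -/
theorem exa_sd' (v0 : VxK T Kc c) {e : EdK T Kc c} {x : E} (hx : x ∈ e.1.opn)
    (hxj : L.u x ≠ L.lv j) :
    sd (shellH h3 hH hdis c).sphSh v0 (comp true (exa h3 hH hdis L) w) x =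
      ind (L.lv j < L.u x) + ind (L.lv j < L.u v0.1) := by
  obtain ⟨_, _, _, hl0, hr0, hl, hr⟩ := lft_rgt e.2.1
  have hx' : x ∈ (shellH h3 hH hdis c).sphSh.OnE e := hx
  rw [sd_eq v0 _ hx', exa_lbl' L hj hc hw hwj]
  obtain ⟨r, hr1, rfl⟩ := exists_par e.2.1 hx
  have hux := edge_aff h3 hH L e r ⟨hr1.1.le, hr1.2.le⟩
  have h1 := count e.2.1 (u := L.u) (u0 := L.u (lft e.1)) (u1 := L.u (rgt e.1)) (c := L.lv j)
    (fun s hs => edge_aff h3 hH L e s ⟨hs.1.le, hs.2.le⟩) (comp true (exa h3 hH hdis L) w)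
    (fun x hx => by
      rw [mem_comp_iff L hj hc hw hwj]
      exact ⟨fun h => h.2.2, fun h => ⟨e.2.2 (e.1.opn_sub hx),
        (T.dim_eq_of_mem_oc e.1.pt_mem hx).trans e.2.1, h⟩⟩) hr1.1 hr1.2.le
    (L.vert _ (e.2.2 hl) hl0 j hj) (by rw [← hux]; exact hxj)
  rw [← hux] at h1
  have h2 : (shellH h3 hH hdis c).sphSh.bel (comp true (exa h3 hH hdis L) w) e
      (lft e.1 + r • (rgt e.1 - lft e.1)) =
      ind (L.lv j < L.u (lft e.1)) + ind (L.lv j < L.u (lft e.1 + r • (rgt e.1 - lft e.1))) := by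
    rw [← h1]
    show (((comp true (exa h3 hH hdis L) w).filter fun x => x ∈ e.1.opn ∧
      par T x < par T (lft e.1 + r • (rgt e.1 - lft e.1))).card : ZMod 2) = _
    rw [(par_eq e.2.1 hr1).2]
  rw [h2]
  show ind (L.lv j < L.u (lft e.1)) + ind (L.lv j < L.u v0.1) + _ = _
  have h3 : ∀ a b d : ZMod 2, a + b + (a + d) = d + b := by decide
  exact h3 _ _ _

theorem exa_sd (v0 : VxK T Kc c) (hv0 : ¬ L.lv j < L.u v0.1) {e : EdK T Kc c} {x : E}
    (hx : x ∈ e.1.opn) (hxj : L.u x ≠ L.lv j) :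
    sd (shellH h3 hH hdis c).sphSh v0 (comp true (exa h3 hH hdis L) w) x =
      if L.lv j < L.u x then 1 else 0 := by
  rw [exa_sd' L hj hc hw hwj v0 hx hxj, ind_false hv0, add_zero]
  rfl

end

section

variable [Nonempty J] (L : Lev T (frontier (Kc c)) J) {j : J}

/-- **(c) chords with both ends on one side do not interlace with the pattern** -/
theorem exa_lace_iff {G : (shellH h3 hH hdis c).Fk} {w x y : E}
    (hw : w ∈ (exa h3 hH hdis L).P) (hwG : w ∈ (shellH h3 hH hdis c).sph.On G)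
    (hwj : (exa h3 hH hdis L).lab w = j) (hx : x ∈ (shellH h3 hH hdis c).sph.On G)
    (hy : y ∈ (shellH h3 hH hdis c).sph.On G) (hxj : L.u x ≠ L.lv j) (hyj : L.u y ≠ L.lv j) :
    (shellH h3 hH hdis c).sph.Lace G w ((exa h3 hH hdis L).mu G w) x y ↔
      ¬ (L.lv j < L.u x ↔ L.lv j < L.u y) := by
  obtain ⟨hj, hwj'⟩ := exa_lab L hw
  rw [hwj] at hj hwj'
  obtain ⟨g, hg⟩ := L.aff G.1.1 (fk_sub G)
  obtain ⟨a1, a2, a3, a4, a5⟩ := L.mu_spec (fk_sub G) hj hwG hwj'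
  have h5 := lace_level G.1.1 g h3 (c := L.lv j) (G.1.1.on_sub_bd hwG) (G.1.1.on_sub_bd a2)
    (by rw [← hg hwG.1, hwj']) (by rw [← hg a2.1, a3])
    (fun y hy hyj => a4 y hy (by rw [hg (G.1.1.bd_sub hy)]; exact hyj))
    (G.1.1.on_sub_bd hx) (G.1.1.on_sub_bd hy)
    (by rw [← hg hx.1]; exact hxj) (by rw [← hg hy.1]; exact hyj)
  rw [← hg hx.1, ← hg hy.1] at h5
  refine Iff.trans h5 ⟨?_, ?_⟩
  · rintro (⟨h6, h7⟩ | ⟨h6, h7⟩) h
    · exact lt_irrefl _ (h6.trans (h.2 h7))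
    · exact lt_irrefl _ (h6.trans (h.1 h7))
  · intro h
    by_cases h6 : L.lv j < L.u x
    · refine Or.inr ⟨lt_of_le_of_ne (not_lt.1 fun h7 => h ⟨fun _ => h7, fun _ => h6⟩) hyj, h6⟩
    · refine Or.inl ⟨lt_of_le_of_ne (not_lt.1 h6) hxj, ?_⟩
      by_contra h7
      exact h ⟨fun h8 => absurd h8 h6, fun h8 => absurd h8 h7⟩

theorem exa_nc {G : (shellH h3 hH hdis c).Fk} {w x y : E}
    (hw : w ∈ (exa h3 hH hdis L).P) (hwG : w ∈ (shellH h3 hH hdis c).sph.On G)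
    (hwj : (exa h3 hH hdis L).lab w = j) (hx : x ∈ (shellH h3 hH hdis c).sph.On G)
    (hy : y ∈ (shellH h3 hH hdis c).sph.On G) (hxj : L.u x ≠ L.lv j) (hyj : L.u y ≠ L.lv j)
    (h : L.lv j < L.u x ↔ L.lv j < L.u y) :
    ¬ (shellH h3 hH hdis c).sph.Lace G w ((exa h3 hH hdis L).mu G w) x y := by
  rw [exa_lace_iff L hw hwG hwj hx hy hxj hyj]
  exact not_not.2 h

variable {J' : Type} [Nonempty J'] (L' : Lev T (frontier (Kc c)) J') {j' : J'}

/-- **(E2) two families interlace on a 2-cell iff their levels meet in it** -/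
theorem exa_lace {G : (shellH h3 hH hdis c).Fk} {w x : E}
    (hw : w ∈ (exa h3 hH hdis L).P) (hwG : w ∈ (shellH h3 hH hdis c).sph.On G)
    (hwj : (exa h3 hH hdis L).lab w = j) (hx : x ∈ (exa h3 hH hdis L').P)
    (hxG : x ∈ (shellH h3 hH hdis c).sph.On G) (hxj' : (exa h3 hH hdis L').lab x = j')
    (hgen : ∀ y ∈ frontier (Kc c), T.dim y = 1 → L.u y = L.lv j → L'.u y ≠ L'.lv j') :
    (shellH h3 hH hdis c).sph.Lace G w ((exa h3 hH hdis L).mu G w) x
      ((exa h3 hH hdis L').mu G x) ↔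
      ∃ z ∈ G.1.1.set, L.u z = L.lv j ∧ L'.u z = L'.lv j' := by
  obtain ⟨hj', hxl⟩ := exa_lab L' hx
  rw [hxj'] at hj' hxl
  obtain ⟨b1, b2, b3, b4, b5⟩ := L'.mu_spec (fk_sub G) hj' hxG hxl
  have hxj : L.u x ≠ L.lv j := fun h => hgen x (fk_sub G hxG.1) hxG.2 h hxl
  have hyj : L.u ((exa h3 hH hdis L').mu G x) ≠ L.lv j := fun h =>
    hgen _ (fk_sub G b2.1) b2.2 h b3
  have hmu : (exa h3 hH hdis L').mu G x = L'.mu G.1.1 x := rfl
  rw [hmu] at hyj ⊢
  refine Iff.trans (exa_lace_iff L hw hwG hwj hxG b2 hxj hyj) ?_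
  obtain ⟨g, hg⟩ := L.aff G.1.1 (fk_sub G)
  obtain ⟨g', hg'⟩ := L'.aff G.1.1 (fk_sub G)
  have hconv : Convex ℝ G.1.1.set := by rw [G.1.1.set_eq]; exact T.convex_cc _
  constructor
  · intro h
    -- the point of the segment on the level
    have hd : L.u x - L.u (L'.mu G.1.1 x) ≠ 0 := by
      intro h0
      apply h
      rw [sub_eq_zero.1 h0]
    set r : ℝ := (L.lv j - L.u (L'.mu G.1.1 x)) / (L.u x - L.u (L'.mu G.1.1 x)) with hr
    have hr01 : 0 ≤ r ∧ r ≤ 1 := by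
      by_cases h6 : L.lv j < L.u x
      · have h7 : L.u (L'.mu G.1.1 x) < L.lv j :=
          lt_of_le_of_ne (not_lt.1 fun h7 => h ⟨fun _ => h7, fun _ => h6⟩) hyj
        have h8 : 0 < L.u x - L.u (L'.mu G.1.1 x) := by linarith
        exact ⟨div_nonneg (by linarith) h8.le, (div_le_one h8).2 (by linarith)⟩
      · have h6' : L.u x < L.lv j := lt_of_le_of_ne (not_lt.1 h6) hxj
        have h7 : L.lv j < L.u (L'.mu G.1.1 x) := by
          by_contra h7
          exact h ⟨fun h8 => absurd h8 h6, fun h8 => absurd h8 h7⟩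
        have h8 : L.u x - L.u (L'.mu G.1.1 x) < 0 := by linarith
        exact ⟨div_nonneg_of_nonpos (by linarith) h8.le, (div_le_one_of_neg h8).2 (by linarith)⟩
    have hz : r • x + (1 - r) • L'.mu G.1.1 x ∈ G.1.1.set :=
      hconv hxG.1 b2.1 hr01.1 (by linarith [hr01.2]) (by ring)
    refine ⟨_, hz, ?_, ?_⟩
    · rw [hg hz, aff_comb, ← hg hxG.1, ← hg b2.1, hr]
      field_simp; ring
    · rw [hg' hz, aff_comb, ← hg' hxG.1, ← hg' b2.1, hxl, b3]
      ring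
  · rintro ⟨z, hz, hz1, hz2⟩ h
    obtain ⟨s, t, hs, ht, hst, rfl⟩ := b5 z hz hz2
    have e1 : t = 1 - s := by linarith
    subst e1
    rw [hg hz, aff_comb, ← hg hxG.1, ← hg b2.1] at hz1
    by_cases h6 : L.lv j < L.u x
    · have h7 := h.1 h6
      nlinarith [mul_nonneg hs (sub_nonneg.2 h6.le), mul_nonneg ht (sub_nonneg.2 h7.le),
        mul_pos (sub_pos.2 h6) (sub_pos.2 h7)]
    · have h6' : L.u x < L.lv j := lt_of_le_of_ne (not_lt.1 h6) hxj
      have h7 : L.u (L'.mu G.1.1 x) < L.lv j :=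
        lt_of_le_of_ne (not_lt.1 fun h7 => h6 (h.2 h7)) hyj
      nlinarith [mul_nonneg hs (sub_nonneg.2 h6'.le), mul_nonneg ht (sub_nonneg.2 h7.le),
        mul_pos (sub_pos.2 h6') (sub_pos.2 h7)]

/-- **(E2) exactly one interlaced pair** -/
theorem exa_cross (hj : j ∈ L.J0) (hj' : j' ∈ L'.J0)
    (hgen : ∀ y ∈ frontier (Kc c), T.dim y = 1 → L.u y = L.lv j → L'.u y ≠ L'.lv j')
    (hz : ∃! z, z ∈ frontier (Kc c) ∧ L.u z = L.lv j ∧ L'.u z = L'.lv j') :
    ∃! G : (shellH h3 hH hdis c).Fk, ∃ w x, w ∈ (exa h3 hH hdis L).P ∧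
      w ∈ (shellH h3 hH hdis c).sph.On G ∧ (exa h3 hH hdis L).lab w = j ∧
      x ∈ (exa h3 hH hdis L').P ∧ x ∈ (shellH h3 hH hdis c).sph.On G ∧
      (exa h3 hH hdis L').lab x = j' ∧
      (shellH h3 hH hdis c).sph.Lace G w ((exa h3 hH hdis L).mu G w) x
        ((exa h3 hH hdis L').mu G x) := by
  obtain ⟨z, ⟨hz1, hz2, hz3⟩, hzu⟩ := hz
  obtain ⟨F, hF, hzF⟩ := (sgd h3 hH c).cov z hz1
  have hface := (face_iff h3 (fun c => (hH c).core) (fun c => (hH c).sub)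
    (fun c => (hH c).cc) hdis F c).1 hF
  have hdz : ¬ T.dim z ≤ 1 := by
    intro h
    have h0 : T.dim z ≠ 0 := fun h0 => L.vert z hz1 h0 j hj hz2
    exact hgen z hz1 (by omega) hz2 hz3
  refine ⟨⟨⟨F, hface.1⟩, hface.2⟩, ?_, ?_⟩
  · obtain ⟨p, _, _, hp, _, hpj, _⟩ := L.face hF hj hzF hz2
    obtain ⟨q, _, _, hq, _, hqj, _⟩ := L'.face hF hj' hzF hz3
    have hp' : p ∈ (exa h3 hH hdis L).P := (mem_P L).2 ⟨hF hp.1, hp.2, j, hj, hpj⟩
    have hq' : q ∈ (exa h3 hH hdis L').P := (mem_P L').2 ⟨hF hq.1, hq.2, j', hj', hqj⟩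
    refine ⟨p, q, hp', hp, lab_of L hj hpj, hq', hq, lab_of L' hj' hqj, ?_⟩
    exact (exa_lace (G := ⟨⟨F, hface.1⟩, hface.2⟩) L L' hp' hp (lab_of L hj hpj) hq' hq (lab_of L' hj' hqj) hgen).2
      ⟨z, hzF, hz2, hz3⟩
  · rintro G ⟨w, x, hw, hwG, hwj, hx, hxG, hxj, hl⟩
    obtain ⟨z', hz'G, hz'1, hz'2⟩ := (exa_lace L L' hw hwG hwj hx hxG hxj hgen).1 hl
    have hzz : z' = z := hzu z' ⟨fk_sub G hz'G, hz'1, hz'2⟩
    subst hzz
    apply Subtype.ext
    apply Subtype.ext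
    by_contra hne
    exact hdz (Lev.dim_inter hne hz'G hzF)

end

end Crest.Agent.R096.Exa_560
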