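import Mathlib

/-!
# Row 96, EXA-1 (helper560): generic levels of finitely many functions which are affine on
finitely many edges; helper776
-/

namespace Crest.Agent.R096.Exs_776

open Set

/-- an affine function on a segment which avoids the value `c` at both ends takes the value `c` at
most once. -/
theorem subsingleton_level {E : Type*} [NormedAddCommGroup E] [NormedSpace ℝ E] {a b : E}
    (g : E →ᵃ[ℝ] ℝ) {c : ℝ} (ha : g a ≠ c) :
    ({x | x ∈ segment ℝ a b ∧ g x = c} : Set E).Subsingleton := by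
  rintro x ⟨hx, hxc⟩ y ⟨hy, hyc⟩
  rw [segment_eq_image_lineMap] at hx hy
  obtain ⟨s, _, rfl⟩ := hx
  obtain ⟨t, _, rfl⟩ := hy
  rw [AffineMap.apply_lineMap] at hxc hyc
  rw [AffineMap.lineMap_apply_module] at hxc hyc
  simp only [smul_eq_mul] at hxc hyc
  by_cases hgab : g a = g b
  · exfalso
    apply ha
    rw [← hgab] at hxc
    linarith
  · have h1 : (s - t) * (g b - g a) = 0 := by linarith
    rcases mul_eq_zero.1 h1 with h | h
    · have : s = t := by linarith
      rw [this]
    · exfalso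
      apply hgab
      linarith

theorem exists_gen {E N : Type*} [NormedAddCommGroup E] [NormedSpace ℝ E] (N0 : Finset N)
    (u : N → E → ℝ) (I : N → Set ℝ) (hI : ∀ n ∈ N0, (I n).Infinite) {V : Set E} (hV : V.Finite)
    {Ed : Set (Set E)} (hEd : Ed.Finite)
    (hE : ∀ n ∈ N0, ∀ e ∈ Ed, ∃ a ∈ V, ∃ b ∈ V, e = segment ℝ a b ∧
      ∃ g : E →ᵃ[ℝ] ℝ, EqOn (u n) g e) :
    ∃ lv : N → ℝ, ∀ n ∈ N0, lv n ∈ I n ∧ (∀ v ∈ V, u n v ≠ lv n) ∧
      ∀ m ∈ N0, m ≠ n → ∀ e ∈ Ed, ∀ x ∈ e, u n x = lv n → u m x ≠ lv m := by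
  classical
  induction N0 using Finset.induction_on with
  | empty => exact ⟨fun _ => 0, fun n hn => absurd hn (Finset.notMem_empty n)⟩
  | insert n N1 hn ih =>
    obtain ⟨lv, hlv⟩ := ih (fun m hm => hI m (Finset.mem_insert_of_mem hm))
      (fun m hm => hE m (Finset.mem_insert_of_mem hm))
    -- the bad points on the edges
    have hfin1 : (⋃ e ∈ Ed, ⋃ m ∈ N1, {x | x ∈ e ∧ u m x = lv m} : Set E).Finite := by
      refine hEd.biUnion fun e he => ?_
      refine N1.finite_toSet.biUnion fun m hm => ?_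
      have hm' : m ∈ N1 := hm
      obtain ⟨a, ha, b, hb, rfl, g, hg⟩ := hE m (Finset.mem_insert_of_mem hm') e he
      have h2 := (hlv m hm').2.1 a ha
      have hga : g a ≠ lv m := by
        rw [← hg (left_mem_segment ℝ a b)]; exact h2
      refine ((subsingleton_level (a := a) (b := b) g hga).anti ?_).finite
      rintro x ⟨hx, hxl⟩
      exact ⟨hx, by rw [← hg hx]; exact hxl⟩
    have hfin : (u n '' V ∪ u n '' (⋃ e ∈ Ed, ⋃ m ∈ N1, {x | x ∈ e ∧ u m x = lv m})).Finite :=
      (hV.image _).union (hfin1.image _)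
    obtain ⟨c, hcI, hc⟩ := ((hI n (Finset.mem_insert_self n N1)).sdiff hfin).nonempty
    have hcV : ∀ v ∈ V, u n v ≠ c := fun v hv h => hc (Or.inl ⟨v, hv, h⟩)
    have hcE : ∀ e ∈ Ed, ∀ m ∈ N1, ∀ x ∈ e, u m x = lv m → u n x ≠ c := by
      intro e he m hm x hx h1 h2
      refine hc (Or.inr ⟨x, ?_, h2⟩)
      simp only [mem_iUnion]
      exact ⟨e, he, m, hm, hx, h1⟩
    have hne : ∀ m ∈ N1, m ≠ n := fun m hm h => hn (h ▸ hm)
    refine ⟨Function.update lv n c, fun k hk => ?_⟩
    rcases Finset.mem_insert.1 hk with rfl | hk1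
    · refine ⟨by simpa using hcI, by simpa using hcV, ?_⟩
      intro m hm hmk e he x hx h1 h2
      have hm' : m ∈ N1 := (Finset.mem_insert.1 hm).resolve_left hmk
      rw [Function.update_self] at h1
      rw [Function.update_of_ne hmk] at h2
      exact hcE e he m hm' x hx h2 h1
    · have hkn := hne k hk1
      rw [Function.update_of_ne hkn]
      refine ⟨(hlv k hk1).1, (hlv k hk1).2.1, ?_⟩
      intro m hm hmk e he x hx h1 h2
      rcases Finset.mem_insert.1 hm with rfl | hm1
      · rw [Function.update_self] at h2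
        exact hcE e he k hk1 x hx h1 h2
      · rw [Function.update_of_ne (hne m hm1)] at h2
        exact (hlv k hk1).2.2 m hm1 hmk e he x hx h1 h2

end Crest.Agent.R096.Exs_776
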