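import Crest.Agent.R096.Exa4_560
import Crest.Agent.R096.Exs1_776

/-!
# R096 (row 96), DOORS / EXA part 5 (helper560): generic increasing levels in a given interval

`exists_levs` : for finitely many names (sheets) of several families with functions `u a`, affine on
the 2-cells of `Sg`: levels in `(A, B)`, ordered as the given numbers `lvl`, off the vertices, and
different families have no common point on a 1-cell.
`common_unique`, `common_dim`, `common_face` : common points of two levels.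
-/

set_option autoImplicit false
set_option linter.unusedSectionVars false

open Set Metric Module
open scoped Classical

namespace Crest.Agent.R096.Exa_560

open Crest.Agent.R096.Msh_715 Crest.Agent.R096.Agl5_543 Crest.Agent.R096.St_147
  Crest.Agent.R096.Lac_441 Crest.Agent.R096.Twr_438

/-- increasing disjoint intervals in `(A, B)` -/
theorem exists_intervals {J : Type} (N0 : Finset J) (lvl : J → ℝ) {A B : ℝ} (hAB : A < B) :
    ∃ I : J → Set ℝ, (∀ j ∈ N0, (I j).Infinite) ∧ (∀ j ∈ N0, I j ⊆ Ioo A B) ∧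
      ∀ i ∈ N0, ∀ j ∈ N0, lvl i < lvl j → ∀ s ∈ I i, ∀ t ∈ I j, s < t := by
  set r : J → ℕ := fun j => (N0.filter fun i => lvl i < lvl j).card with hr
  set n : ℝ := (N0.card : ℝ) + 1 with hn
  have hn0 : 0 < n := by positivity
  set h : ℝ := (B - A) / n with hh
  have hh0 : 0 < h := div_pos (sub_pos.2 hAB) hn0
  have hrn : ∀ j, (r j : ℝ) + 1 ≤ n := by
    intro j
    have : (r j : ℝ) ≤ N0.card := by exact_mod_cast Finset.card_filter_le _ _
    linarith
  refine ⟨fun j => Ioo (A + r j * h) (A + (r j + 1) * h), fun j _ => ?_, fun j _ => ?_, ?_⟩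
  · exact Set.Ioo_infinite (by nlinarith)
  · intro t ht
    refine ⟨lt_of_le_of_lt ?_ ht.1, lt_of_lt_of_le ht.2 ?_⟩
    · have : 0 ≤ (r j : ℝ) * h := by positivity
      linarith
    · have h1 : (r j + 1) * h ≤ n * h := mul_le_mul_of_nonneg_right (hrn j) hh0.le
      have h2 : n * h = B - A := by rw [hh]; field_simp
      linarith
  · intro i hi j hj hij s hs t ht
    have hlt : r i + 1 ≤ r j := by
      have : (N0.filter fun k => lvl k < lvl i) ⊂ N0.filter fun k => lvl k < lvl j := by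
        rw [Finset.ssubset_iff_of_subset]
        · exact ⟨i, Finset.mem_filter.2 ⟨hi, hij⟩, fun hm => lt_irrefl _ (Finset.mem_filter.1 hm).2⟩
        · intro k hk
          have := Finset.mem_filter.1 hk
          exact Finset.mem_filter.2 ⟨this.1, this.2.trans hij⟩
      exact Finset.card_lt_card this
    have hlt' : (r i : ℝ) + 1 ≤ r j := by exact_mod_cast hlt
    have h1 : (r i + 1) * h ≤ r j * h := mul_le_mul_of_nonneg_right hlt' hh0.le
    have hs2 := hs.2
    have ht1 := ht.1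
    linarith

variable {E : Type} [NormedAddCommGroup E] [NormedSpace ℝ E] [FiniteDimensional ℝ E]
variable {Om : Set E} {ι : Type} {T : Tiling Om ι} {Sg : Set E} {J C : Type}

/-- **generic increasing levels of several families** -/
theorem exists_levs (hS : SgD T Sg) (fam : J → C) (lvl : J → ℝ) (N0 : Finset J) (u : C → E → ℝ)
    (haff : ∀ a, ∀ F : C2 T, F.set ⊆ Sg → ∃ g : E →ᵃ[ℝ] ℝ, EqOn (u a) g F.set)
    (hinj : ∀ i ∈ N0, ∀ j ∈ N0, fam i = fam j → lvl i = lvl j → i = j) {A B : ℝ} (hAB : A < B)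
    {Q : Set E} (hQ : Q.Finite) :
    ∃ L : C → Lev T Sg J, (∀ a, (L a).u = u a) ∧
      (∀ a j, j ∈ (L a).J0 ↔ j ∈ N0 ∧ fam j = a) ∧
      (∀ a, ∀ j ∈ (L a).J0, A < (L a).lv j ∧ (L a).lv j < B) ∧
      (∀ a, ∀ j ∈ (L a).J0, ∀ w ∈ Q, (L a).u w ≠ (L a).lv j) ∧
      (∀ a, ∀ i ∈ (L a).J0, ∀ j ∈ (L a).J0, (L a).lv i < (L a).lv j ↔ lvl i < lvl j) ∧
      ∀ a b, a ≠ b → ∀ i ∈ (L a).J0, ∀ j ∈ (L b).J0, ∀ y ∈ Sg, T.dim y = 1 →
        (L a).u y = (L a).lv i → (L b).u y ≠ (L b).lv j := by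
  obtain ⟨I, hI1, hI2, hI3⟩ := exists_intervals N0 lvl hAB
  have hfin := T.finite_cells hS.cpt hS.sub
  have hV : {v : E | v ∈ Sg ∧ T.dim v = 0}.Finite := by
    refine Set.Finite.of_finite_image (f := fun v => ({v} : Set E)) (hfin.subset ?_)
      (fun a _ b _ h => singleton_injective h)
    rintro _ ⟨v, ⟨hv, h0⟩, rfl⟩
    exact ⟨⟨v, hS.sub hv, (T.cc_eq_singleton (T.dim_eq_zero_iff.1 h0)).symm⟩, v, rfl, hv⟩
  have hEd : {e : Set E | ∃ x ∈ Sg, T.dim x = 1 ∧ e = T.cc x}.Finite := by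
    refine hfin.subset ?_
    rintro _ ⟨x, hx, _, rfl⟩
    exact ⟨⟨x, hS.sub hx, rfl⟩, x, T.self_mem_cc x, hx⟩
  obtain ⟨lv, hlv⟩ := Exs_776.exists_gen N0 (fun j => u (fam j)) I hI1 (hV.union hQ) hEd (by
    rintro j hj _ ⟨x, hx, hd, rfl⟩
    obtain ⟨a, b, hab, hcy, hoy, ha0, hb0, ha, hb⟩ := T.edge_eq (hS.sub hx) hd
    obtain ⟨F, hF, hxF⟩ := hS.cov x hx
    obtain ⟨g, hg⟩ := haff (fam j) F hF
    refine ⟨a, Or.inl ⟨hS.cc x hx ha, ha0⟩, b, Or.inl ⟨hS.cc x hx hb, hb0⟩, hcy, g, hg.mono ?_⟩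
    rw [F.set_eq] at hxF ⊢; exact T.cc_sub_of_mem hxF)
  have hord : ∀ i ∈ N0, ∀ j ∈ N0, fam i = fam j → (lv i < lv j ↔ lvl i < lvl j) := by
    intro i hi j hj hf
    rcases lt_trichotomy (lvl i) (lvl j) with h | h | h
    · exact ⟨fun _ => h, fun _ => hI3 i hi j hj h _ (hlv i hi).1 _ (hlv j hj).1⟩
    · have := hinj i hi j hj hf h
      subst this
      exact ⟨fun h' => absurd h' (lt_irrefl _), fun h' => absurd h' (lt_irrefl _)⟩
    · have h' := hI3 j hj i hi h _ (hlv j hj).1 _ (hlv i hi).1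
      exact ⟨fun h2 => absurd h2 (not_lt.2 h'.le), fun h2 => absurd h2 (not_lt.2 h.le)⟩
  refine ⟨fun a =>
    { u := u a
      aff := haff a
      J0 := N0.filter fun j => fam j = a
      lv := lv
      inj := ?_
      vert := ?_ }, fun a => rfl, fun a j => Finset.mem_filter, ?_, ?_, ?_, ?_⟩
  · intro i hi j hj h
    obtain ⟨hi1, hi2⟩ := Finset.mem_filter.1 hi
    obtain ⟨hj1, hj2⟩ := Finset.mem_filter.1 hj
    refine hinj i hi1 j hj1 (hi2.trans hj2.symm) ?_
    rcases lt_trichotomy (lvl i) (lvl j) with h' | h' | h'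
    · have := (hord i hi1 j hj1 (hi2.trans hj2.symm)).2 h'
      exact absurd h this.ne
    · exact h'
    · have := (hord j hj1 i hi1 (hj2.trans hi2.symm)).2 h'
      exact absurd h this.ne'
  · intro v hv h0 j hj
    obtain ⟨hj1, hj2⟩ := Finset.mem_filter.1 hj
    have := (hlv j hj1).2.1 v (Or.inl ⟨hv, h0⟩)
    rwa [hj2] at this
  · intro a j hj
    exact hI2 j (Finset.mem_filter.1 hj).1 (hlv j (Finset.mem_filter.1 hj).1).1
  · intro a j hj w hw
    obtain ⟨hj1, hj2⟩ := Finset.mem_filter.1 hj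
    have := (hlv j hj1).2.1 w (Or.inr hw)
    rwa [hj2] at this
  · intro a i hi j hj
    obtain ⟨hi1, hi2⟩ := Finset.mem_filter.1 hi
    obtain ⟨hj1, hj2⟩ := Finset.mem_filter.1 hj
    exact hord i hi1 j hj1 (hi2.trans hj2.symm)
  · intro a b hab i hi j hj y hy hd hya hyb
    obtain ⟨hi1, hi2⟩ := Finset.mem_filter.1 hi
    obtain ⟨hj1, hj2⟩ := Finset.mem_filter.1 hj
    have hne : j ≠ i := fun h => hab (by rw [← hi2, ← hj2, h])
    have h1 : u (fam i) y = lv i := by rw [hi2]; exact hya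
    have h2 : u (fam j) y = lv j := by rw [hj2]; exact hyb
    exact (hlv i hi1).2.2 j hj1 hne (T.cc y) ⟨y, hy, hd, rfl⟩ y (T.self_mem_cc y) h1 h2

namespace Lev

variable (L L' : Lev T Sg J)

/-- common points of two levels are interior points of 2-cells -/
theorem common_dim {j j' : J} (hj : j ∈ L.J0)
    (hgen : ∀ y ∈ Sg, T.dim y = 1 → L.u y = L.lv j → L'.u y ≠ L'.lv j') {z : E} (hz : z ∈ Sg)
    (h1 : L.u z = L.lv j) (h2 : L'.u z = L'.lv j') : ¬ T.dim z ≤ 1 := by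
  intro h
  have h0 : T.dim z ≠ 0 := fun h0 => L.vert z hz h0 j hj h1
  exact hgen z hz (by omega) h1 h2

/-- a common point lies in exactly one 2-cell -/
theorem common_face (hS : SgD T Sg) {j j' : J} (hj : j ∈ L.J0)
    (hgen : ∀ y ∈ Sg, T.dim y = 1 → L.u y = L.lv j → L'.u y ≠ L'.lv j') {z : E} (hz : z ∈ Sg)
    (h1 : L.u z = L.lv j) (h2 : L'.u z = L'.lv j') :
    ∃! F : C2 T, F.set ⊆ Sg ∧ z ∈ F.set := by
  obtain ⟨F, hF, hzF⟩ := hS.cov z hz
  refine ⟨F, ⟨hF, hzF⟩, ?_⟩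
  rintro G ⟨hG, hzG⟩
  by_contra hne
  exact L.common_dim L' hj hgen hz h1 h2 (dim_inter hne hzG hzF)

/-- a 2-cell contains at most one common point -/
theorem common_unique {F : C2 T} (hF : F.set ⊆ Sg) {j j' : J} (hj' : j' ∈ L'.J0)
    (hgen : ∀ y ∈ Sg, T.dim y = 1 → L.u y = L.lv j → L'.u y ≠ L'.lv j') {z z' : E}
    (hz : z ∈ F.set) (h1 : L.u z = L.lv j) (h2 : L'.u z = L'.lv j')
    (hz' : z' ∈ F.set) (h1' : L.u z' = L.lv j) (h2' : L'.u z' = L'.lv j') : z = z' := by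
  obtain ⟨p, q, hpq, hp, hq, hpj, hqj, hb, hs⟩ := L'.face hF hj' hz h2
  obtain ⟨g, hg⟩ := L.aff F hF
  obtain ⟨s, t, hs0, ht0, hst, rfl⟩ := hs z hz h2
  obtain ⟨s', t', hs0', ht0', hst', rfl⟩ := hs z' hz' h2'
  have e1 : t = 1 - s := by linarith
  have e2 : t' = 1 - s' := by linarith
  subst e1 e2
  rw [hg hz, aff_comb] at h1
  rw [hg hz', aff_comb] at h1'
  have hpne : g p ≠ L.lv j := by
    rw [← hg hp.1]
    exact fun h => hgen p (hF hp.1) hp.2 h hpj
  have hne : g p - g q ≠ 0 := by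
    intro h
    apply hpne
    have hpq' : g p = g q := sub_eq_zero.1 h
    rw [← hpq'] at h1
    linarith
  have : (s - s') * (g p - g q) = 0 := by linarith
  rcases mul_eq_zero.1 this with h | h
  · have : s = s' := by linarith
    rw [this]
  · exact absurd h hne

end Lev

end Crest.Agent.R096.Exa_560
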