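import Crest.Agent.R096.Bpn2_635
import Crest.Agent.R096.Mdd9_360
import Crest.Agent.R096.Mon1_664
import Crest.Agent.R096.Pgn6_112

/-!
Row 96 (S0127), NO0 for `p ≥ 3` (helper635): **(B1), (B2) and the trivial zones in the shape of 112's
`GenIn`** for the foam `fN`, all bricks exact, blocks `(Q0 c).tr (w0 c)` pre-translated by `w0 c`.

* **`exfineN`** : `Exact` and `FineX` for every admissible mesh over `M`;
* **`wordsN`** : the words; **`ZD0`** : no zones.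
-/

set_option autoImplicit false
set_option linter.unusedSectionVars false
set_option linter.style.longLine false
set_option linter.unusedVariables false

open Set Filter Topology Metric MeasureTheory
open scoped ENNReal

namespace Crest.Agent.R096.Gin_635

open Crest.Agent.R096.Bsp_628 Crest.Agent.R096.Brk1_582
open Crest.Agent.R096.Bxs_627 (zz ctr cb CoriE)
open Crest.Agent.R096.Brk3_582 Crest.Agent.R096.Brk5_582 Crest.Agent.R096.Core_124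
open Crest.Agent.R096.Msh_715 Crest.Agent.R096.Ls_222 Crest.Agent.R96.Sg1_199
open Crest.Agent.R096.SkC1_961 (E3 FoamD Hom3 th)
open Crest.Agent.R096.Mbf_337 (sb Cores Exact Words)
open Crest.Agent.R096.EaX_766 (lin cbx)
open Crest.Agent.R096.Exa_365 (GoodW)
open Crest.Agent.R096.Mal_874 Crest.Agent.R096.Msh_810
open Crest.Agent.R96.Pm_199 (Dec)
open Crest.Agent.R096.Fns_360 Crest.Agent.R096.Mdd_360
open Crest.Agent.R096.Wd_120 (CoreAt)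
open Crest.Agent.R096.Bxc1_635 Crest.Agent.R096.Fnn_635 Crest.Agent.R096.Bpn_635
open Crest.Agent.R96.Eam_466 (FineX FineT TLAt)
open Crest.Agent.R096.Pgn_112 (ZD WordsOk)
open Crest.Agent.R096.Tms_582 (Zones LocF)

noncomputable section

variable {La Om : Set E3} {f : E3 → E3} {F : Set (Bx (Fin 3))} {δ κ0 R c0 : ℝ} {X : Set F}

/-- the maps of the translated blocks -/
def AT (hX : ∀ c, c ∈ X) (A0 : F → E3 ≃ᵃ[ℝ] E3) (w0 : X → E3) : F → E3 ≃ᵃ[ℝ] E3 :=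
  fun c => trA (A0 c) (w0 ⟨c, hX c⟩)

/-- **`Exact` and `FineX` over `fN`**, blocks `(Q0 c).tr (w0 c)` -/
theorem exfineN (hX : ∀ c, c ∈ X) (hLa : IsOpen La) (hδ : 0 < δ) (hR : 0 < R)
    (bf : BoxFoam La F δ κ0) (cmp : Cmp F R) (hκ0 : 1 ≤ κ0) (hc : 0 < c0)
    (hc2 : c0 * (8 * κ0) ≤ 1) (lam : F → ℝ) (hl : ∀ c, 0 < lam c) (hl4 : ∀ c, lam c ≤ 1 / 4)
    {lam0 : ℝ} (h00 : 0 < lam0) (hl0 : ∀ c, lam0 ≤ lam c)
    {κ1f κ2f τ1 τ κ1 κ2 η : ℝ} (hκ1 : 0 ≤ κ1f) (hτ1 : 0 ≤ τ1) (hτ : 0 ≤ τ)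
    (h2 : κ2f ≤ 1 / 4) (hκ8 : (κ1f + τ1 + τ) * κ0 ≤ 1 / 8)
    (hκ12 : (κ1f + τ1 + τ) * κ0 ≤ κ2f - τ1 - τ) (n3 : κ1f + τ1 + τ ≤ κ1)
    (n4 : κ2 ≤ κ2f - τ1 - τ)
    {A0 : F → E3 ≃ᵃ[ℝ] E3} (hcor : ∀ c, CoriE Om f (A0 c) c.1 (lam c) κ1f κ2f)
    (M : MD E3 3 X) (hφ : M.φ = ContinuousLinearEquiv.refl ℝ E3) (hOmM : M.φ ⁻¹' M.D0.Om = Om)
    {Q0 : X → CB E3 3} {w0 : X → E3} (hMQ : M.Q = fun c => (Q0 c).tr (w0 c))
    (hK : ∀ c : X, (Q0 c).Kc = A0 c ⁻¹' cbx c.1.1 (lam c))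
    (hw : ∀ c : X, ‖(A0 c).linear (w0 c)‖ ≤ τ1 * (lam c * c.1.1.sz) ∧
      ∀ k, |(A0 c).linear (w0 c) k| ≤ τ1 * (lam c * c.1.1.side k))
    (hroom : ∀ c : X, cthickening (M.r c) (M.Q c).N ⊆ A0 c ⁻¹' cbx c.1.1 ((1 + 2 * κ2f) * lam c))
    (hsm : ∀ (c : X) (v : E3), ‖v‖ ≤ M.r c → ‖(A0 c).linear v‖ ≤ τ * (lam c * c.1.1.sz) ∧
      ∀ k, |(A0 c).linear v k| ≤ τ * (lam c * c.1.1.side k))
    (Y : RD M) {uA : X → ℝ} (huA0 : ∀ c, 0 ≤ uA c)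
    (huA : ∀ (c : X), ∀ x y, ‖A0 c y - A0 c x‖ ≤ uA c * dist ((Q0 c).ψ x) ((Q0 c).ψ y))
    (hη : ∀ c : X, uA c * (Y.R c / 2 ^ (Q0 c).kc) ≤ η * c.1.1.sz)
    (hε : KIT δ κ0 R c0 lam0 * (η + 2 * (κ1f + τ1 + τ)) ≤ κ1)
    {x : {c // c ∉ X} → E3} {Rz : {c // c ∉ X} → ℝ}
    (hF : ∀ y ∈ Om, FineS (fN bf cmp hκ0 hc hc2 lam hl hl4) f κ1
      (closedBall y (M.D0.ρ y) ∩ (Om ∩ offO f (O34 lam))))
    {k : X → ℕ} (hk : M.Sc k) (a : Fin 3 → ℝ) {v : X → E3} (hv : M.Adm v)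
    {ct0 : F → M.OIx hk a hv ⊕ Σ j, M.IIx hk a hv j}
    (hct0 : ∀ c : X, ct0 c.1 = Sum.inr ⟨c, M.core hk a hv c⟩) :
    (∀ c : X, Exact (fN bf cmp hκ0 hc hc2 lam hl hl4) (M.mesh hk a hv) f κ1 κ2 c.1
      (Sum.inr ⟨c, M.core hk a hv c⟩) (trA (AT hX A0 w0 c) (v c)) (lam c) (zz c.1.1 (lam c))) ∧
    FineX (fN bf cmp hκ0 hc hc2 lam hl hl4) (M.mesh hk a hv) f κ1 X ct0 x Rz := by
  have hκ0' : 0 < κ0 := by linarith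
  have e1 : ∀ c : F, A0 c = A0 c := fun c => rfl
  have hcor' : ∀ c : F, CoriE Om f (AT hX A0 w0 c) c.1 (lam c) (κ1f + τ1) (κ2f - τ1) := fun c =>
    cor_tr (hcor c) (hw ⟨c, hX c⟩)
  have himg0 : Img M Om f A0 lam κ1f := by
    refine img_gen bf (fun c _ => hl c) hκ1 (fun c _ => ?_) (fun c _ => hcor c) hroom
    have h3 : κ1f * κ0 ≤ 1 / 8 := by
      have h4 : 0 ≤ τ1 * κ0 := by positivity
      have h5 : 0 ≤ τ * κ0 := by positivity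
      nlinarith
    have h6 := hl c
    have h7 := hl4 c
    nlinarith
  have himg : Img M Om f (AT hX A0 w0) lam (κ1f + τ1) :=
    img_tr himg0 (w0 := fun c => w0 ⟨c, hX c⟩) fun c => (hw c).1
  have hsm' : Sm M (AT hX A0 w0) lam τ :=
    sm_tr (A := A0) hsm (fun c => w0 ⟨c, hX c⟩)
  have hK' : ∀ c : X, (M.Q c).Kc = AT hX A0 w0 c ⁻¹' cbx c.1.1 (lam c) := by
    intro c
    rw [hMQ]
    exact kc_tr (hK c) (w0 c)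
  have h := b1_N hX hLa hδ hR bf cmp hκ0 hc hc2 lam hl hl4 h00 hl0 (f := f) (κ1 := κ1f + τ1)
    (κ2 := κ2f - τ1) (τ := τ) (η := η) (ε := κ1) (by linarith) hτ (by
      have : 0 ≤ (κ1f + τ1 + τ) * κ0 := by positivity
      linarith) (by linarith) hκ8 hκ12 hcor' M hφ hOmM hK' himg hsm' Y huA0 (fun c x y => by
      rw [hMQ]
      exact uA_tr (huA c) (w0 c) x y) (fun c => by
      have h3 := hη c
      have h4 : (M.Q c).kc = (Q0 c).kc := by rw [hMQ]; rfl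
      rw [h4]
      exact h3) hε (x := x) (Rz := Rz) hF hk a hv hct0
  exact ⟨fun c => Mon_664.exact_mono (h.1 c) n3 n4, h.2⟩

/-- the condition on the data of a decoration in (B2) -/
def DecAt (hX : ∀ c, c ∈ X) (lam : F → ℝ) (A : F → E3 ≃ᵃ[ℝ] E3) (m : X → ℕ) (Q : X → CB E3 3)
    (v : X → E3) (D0 : Dec Om F) : Prop :=
  ∀ c : X, D0.lam c = lam c ∧ D0.z c = zz c.1.1 (lam c) ∧ D0.A c = trA (A c) (v c) ∧
    D0.M c = m c ∧ CoreAt D0.T (D0.ct c) ((Q c).tr (v c))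

/-- **(B2), blocks `(Q0 c).tr (w0 c)`, in the shape of `GenIn.words`** -/
theorem wordsN {δ κ0 R : ℝ} (hδ : 0 < δ) (hκ0 : 1 ≤ κ0) (hR : 1 ≤ R) {κp lam0 : ℝ} (hκp : 0 < κp)
    (h00 : 0 < lam0) (Mx : ℕ) :
    ∃ κw : ℝ, 0 < κw ∧ ∀ (La Om : Set E3), IsOpen La → ∀ (F : Set (Bx (Fin 3)))
      (bf : BoxFoam La F δ κ0) (cmp : Cmp F R) (c0 : ℝ) (hc : 0 < c0) (hc2 : c0 * (8 * κ0) ≤ 1)
      (lam : F → ℝ) (hl : ∀ c, 0 < lam c) (hl4 : ∀ c, lam c ≤ 1 / 4), (∀ c, lam0 ≤ lam c) →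
      ∀ (X : Set F) (hX : ∀ c, c ∈ X) (f : E3 → E3) (p : ℝ), 1 ≤ p → ContinuousOn f Om →
      ∀ (D : E3 → E3 →L[ℝ] E3) (κ1f κ2f τ1 τ κ1 κ2 : ℝ), κ1f + τ1 + τ ≤ κw →
      τ1 + τ ≤ κ2f → 0 ≤ κ2 →
      ∀ (A0 : F → E3 ≃ᵃ[ℝ] E3), (∀ c, CoriE Om f (A0 c) c.1 (lam c) κ1f κ2f) →
      ∀ (Q0 : X → CB E3 3) (k0 : X → ℕ) (hk : ∀ c, (Q0 c).kc ≤ k0 c) (w0 : X → E3) (Mc : X → ℕ)
      (η : ℝ≥0∞), (∀ c, Mc c ≤ Mx) →
      (∀ c : X, (Q0 c).Kc = A0 c ⁻¹' cbx c.1.1 (lam c)) →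
      (∀ c : X, ‖(A0 c).linear (w0 c)‖ ≤ τ1 * (lam c * c.1.1.sz) ∧
        ∀ k, |(A0 c).linear (w0 c) k| ≤ τ1 * (lam c * c.1.1.side k)) →
      (∀ c : X, 0 < Mc c ∧ ∀ x ∈ (Q0 c).Kc,
        x ∉ I (((Q0 c).T (k0 c) (hk c)).H ((Q0 c).cix (k0 c) (hk c))) →
        ((Q0 c).T (k0 c) (hk c)).cc x = {y | y ∈ (Q0 c).Kc ∧ ∀ a : F,
          (⌊Mc c * sc (Pc F) (bc (F := F)) (th (A0 c) (lam c) (zz c.1.1 (lam c)) x) a⌋₊ : ℝ) ≤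
            Mc c * sc (Pc F) (bc (F := F)) (th (A0 c) (lam c) (zz c.1.1 (lam c)) y) a ∧
          Mc c * sc (Pc F) (bc (F := F)) (th (A0 c) (lam c) (zz c.1.1 (lam c)) y) a ≤
            ⌈Mc c * sc (Pc F) (bc (F := F)) (th (A0 c) (lam c) (zz c.1.1 (lam c)) x) a⌉₊} ∧
        ((Q0 c).T (k0 c) (hk c)).dim x = {a : F |
          ⌊Mc c * sc (Pc F) (bc (F := F)) (th (A0 c) (lam c) (zz c.1.1 (lam c)) x) a⌋₊ <
          ⌈Mc c * sc (Pc F) (bc (F := F)) (th (A0 c) (lam c) (zz c.1.1 (lam c)) x) a⌉₊}.ncard) →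
      η ≠ ∞ → (η ^ (1 / p)).toReal ≤ κw →
      ∀ v : X → E3, (∀ c : X, ‖(A0 c).linear (v c)‖ ≤ τ * (lam c * c.1.1.sz) ∧
        ∀ k, |(A0 c).linear (v c) k| ≤ τ * (lam c * c.1.1.side k)) →
      (∀ c : X, GoodW p Om f D (A0 c)
        (fun e : {e // e ∈ eIn ((Q0 c).T (k0 c) (hk c)) ((Q0 c).cix (k0 c) (hk c))} => ea e.1)
        (fun e => ev e.1) η (w0 c + v c)) →
      ∀ D0 : Dec Om F, Cores (fN bf cmp hκ0 hc hc2 lam hl hl4) D0.T f κ1 κ2 X D0.J0 D0.J D0.V D0.ct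
        D0.A D0.lam D0.z D0.θ D0.φ →
      DecAt hX lam (AT hX A0 w0) Mc (fun c => (Q0 c).tr (w0 c)) v D0 →
      WordsOk (fN bf cmp hκ0 hc hc2 lam hl hl4) f κp (κp / 64) X D0 := by
  obtain ⟨κw, hκw, H⟩ := b2_NC hδ hκ0 hR hκp h00 Mx
  refine ⟨κw, hκw, ?_⟩
  intro La Om hLa F bf cmp c0 hc hc2 lam hl hl4 hl0 X hX f p hp hf D κ1f κ2f τ1 τ κ1 κ2 n1 n2 hκ2
    A0 hcor Q0 k0 hk w0 Mc η hM hK hw hgrid hη hηw v hv hgood D0 hC hD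
  have hcor' : ∀ c : X, CoriE Om f (trA (A0 c) (w0 c + v c)) c.1.1 (lam c) (κ1f + τ1 + τ)
      (κ2f - τ1 - τ) := by
    intro c
    have h1 : CoriE Om f (trA (A0 c) (w0 c)) c.1.1 (lam c) (κ1f + τ1) (κ2f - τ1) :=
      cor_tr (hcor c) (hw c)
    have h2 := cor_tr h1 (v := v c) (τ := τ) (by
      simp only [trA_linear]
      exact hv c)
    rwa [trA_trA] at h2
  refine H La Om hLa F bf cmp c0 hc hc2 lam hl hl4 hl0 X f p hp hf D κ1 κ2 (κp / 64) hκ2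
    (by positivity) Q0 k0 hk (fun c => A0 c) (fun c => w0 c + v c) Mc η hM hgrid hη hηw hgood D0 hC
    (fun c => ?_) (fun c x hx _ => ?_)
  · obtain ⟨h1, h2, h3, h4, h5⟩ := hD c
    refine ⟨h1, h2, ?_, h4, ?_⟩
    · rw [h3]
      exact trA_trA (A0 c) (w0 c) (v c)
    · have h6 : ((Q0 c).tr (w0 c)).tr (v c) = (Q0 c).tr (w0 c + v c) := Mdd_360.tr_tr _ _ _
      rw [← h6]
      exact h5
  · obtain ⟨h1, h2, h3, h4, h5⟩ := hD c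
    have h6 : ((Q0 c).tr (w0 c)).tr (v c) = (Q0 c).tr (w0 c + v c) := Mdd_360.tr_tr _ _ _
    have h7 : x ∈ ((Q0 c).tr (w0 c + v c)).Kc := by
      rw [← h6, ← h5.tile]
      exact hx
    have h8 : x ∈ trA (A0 c) (w0 c + v c) ⁻¹' cbx c.1.1 (lam c) := by
      rw [← kc_tr (hK c) (w0 c + v c)]
      exact h7
    have h9 : D0.A c = trA (A0 c) (w0 c + v c) := by
      rw [h3]
      exact trA_trA (A0 c) (w0 c) (v c)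
    have h10 := hl c
    rw [h9]
    refine ((hcor' c x (Or.inr fun k => ?_)).2).trans ?_
    · have h11 : |trA (A0 c) (w0 c + v c) x k - ctr c.1.1 k| ≤ lam c * c.1.1.side k / 2 := h8 k
      have h12 : 0 < c.1.1.side k := by
        have := bf.pos _ c.1.2 k
        show 0 < c.1.1.hi k - c.1.1.lo k
        linarith
      have h13 : 0 ≤ (κ2f - τ1 - τ) * (lam c * c.1.1.side k) := by
        refine mul_nonneg (by linarith) (by positivity)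
      linarith
    · have h14 := Bx.sz_pos (bf.pos _ c.1.2)
      gcongr

/-! ### no zones -/

/-- the empty zone data -/
def ZD0 (hX : ∀ c, c ∈ X) : ZD F X where
  x c := (c.2 (hX c.1)).elim
  R c := (c.2 (hX c.1)).elim
  k c := (c.2 (hX c.1)).elim
  Zc c := (c.2 (hX c.1)).elim
  κ c := (c.2 (hX c.1)).elim
  H c := (c.2 (hX c.1)).elim
  J0 c := (c.2 (hX c.1)).elim
  J c := (c.2 (hX c.1)).elim
  θ c := (c.2 (hX c.1)).elim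
  φ c := (c.2 (hX c.1)).elim

theorem zones_empty (hX : ∀ c, c ∈ X) {Om' : Set E3} {ι : Type} (T : Tiling Om' ι)
    (x : {c // c ∉ X} → E3) (R : {c // c ∉ X} → ℝ) (k : {c // c ∉ X} → ℕ) (w : {c // c ∉ X} → E3) :
    Zones T x R k w where
  R0 c := (c.2 (hX c.1)).elim
  sub c := (c.2 (hX c.1)).elim
  dis c := (c.2 (hX c.1)).elim
  lf y _ := ⟨1, one_pos, by
    have : IsEmpty {c // c ∉ X} := ⟨fun c => c.2 (hX c.1)⟩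
    exact Set.toFinite _⟩
  sm c := (c.2 (hX c.1)).elim
  w01 c := (c.2 (hX c.1)).elim
  lat c := (c.2 (hX c.1)).elim

/-- **`GenIn` for `fN`**, all bricks exact, blocks `(Q0 c).tr (w0 c)`; the good shifts `s ∈ Gd c` are those with
`GoodW` at the total shift `w0 c + s` and the block energy `en`. -/
theorem genInN {δ κ0 R : ℝ} (hδ : 0 < δ) (hκ0 : 1 ≤ κ0) (hR : 1 ≤ R) {κp lam0 : ℝ} (hκp : 0 < κp)
    (h00 : 0 < lam0) (Mx : ℕ) :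
    ∃ κw : ℝ, 0 < κw ∧ ∀ (La Om : Set E3), IsOpen La → ∀ (F : Set (Bx (Fin 3)))
      (bf : BoxFoam La F δ κ0) (cmp : Cmp F R) (c0 : ℝ) (hc : 0 < c0) (hc2 : c0 * (8 * κ0) ≤ 1)
      (lam : F → ℝ) (hl : ∀ c, 0 < lam c) (hl4 : ∀ c, lam c ≤ 1 / 4), (∀ c, lam0 ≤ lam c) →
      ∀ (X : Set F) (hX : ∀ c, c ∈ X) (f : E3 → E3) (p : ℝ), 1 ≤ p → ContinuousOn f Om →
      ∀ (Df : E3 → E3 →L[ℝ] E3) (κ1f κ2f τ1 τ κ1 κ2 η : ℝ), 0 ≤ κ1f → 0 ≤ τ1 → 0 ≤ τ →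
      κ2f ≤ 1 / 4 → (κ1f + τ1 + τ) * κ0 ≤ 1 / 8 → (κ1f + τ1 + τ) * κ0 ≤ κ2f - τ1 - τ →
      κ1f + τ1 + τ ≤ κ1 → κ2 ≤ κ2f - τ1 - τ → 0 ≤ κ2 → κ1f + τ1 + τ ≤ κw →
      KIT δ κ0 R c0 lam0 * (η + 2 * (κ1f + τ1 + τ)) ≤ κ1 →
      ∀ (A0 : F → E3 ≃ᵃ[ℝ] E3), (∀ c, CoriE Om f (A0 c) c.1 (lam c) κ1f κ2f) →
      ∀ (M : MD E3 3 X), M.φ = ContinuousLinearEquiv.refl ℝ E3 → M.φ ⁻¹' M.D0.Om = Om →
      ∀ (Q0 : X → CB E3 3) (kb : X → ℕ) (hkb : ∀ c, (Q0 c).kc ≤ kb c) (w0 : X → E3),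
      M.Q = (fun c => (Q0 c).tr (w0 c)) →
      (∀ c : X, (Q0 c).Kc = A0 c ⁻¹' cbx c.1.1 (lam c)) →
      (∀ c : X, ‖(A0 c).linear (w0 c)‖ ≤ τ1 * (lam c * c.1.1.sz) ∧
        ∀ k, |(A0 c).linear (w0 c) k| ≤ τ1 * (lam c * c.1.1.side k)) →
      (∀ c : X, cthickening (M.r c) (M.Q c).N ⊆ A0 c ⁻¹' cbx c.1.1 ((1 + 2 * κ2f) * lam c)) →
      (∀ (c : X) (v : E3), ‖v‖ ≤ M.r c → ‖(A0 c).linear v‖ ≤ τ * (lam c * c.1.1.sz) ∧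
        ∀ k, |(A0 c).linear v k| ≤ τ * (lam c * c.1.1.side k)) →
      ∀ (Y : RD M) (uA : X → ℝ), (∀ c, 0 ≤ uA c) →
      (∀ (c : X), ∀ x y, ‖A0 c y - A0 c x‖ ≤ uA c * dist ((Q0 c).ψ x) ((Q0 c).ψ y)) →
      (∀ c : X, uA c * (Y.R c / 2 ^ (Q0 c).kc) ≤ η * c.1.1.sz) →
      (∀ y ∈ Om, FineS (fN bf cmp hκ0 hc hc2 lam hl hl4) f κ1
        (closedBall y (M.D0.ρ y) ∩ (Om ∩ offO f (O34 lam)))) →
      ∀ (Mc : F → ℕ) (ηw : ℝ≥0∞), (∀ c : X, Mc c ≤ Mx) →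
      (∀ c : X, 0 < Mc c ∧ ∀ x ∈ (Q0 c).Kc,
        x ∉ I (((Q0 c).T (kb c) (hkb c)).H ((Q0 c).cix (kb c) (hkb c))) →
        ((Q0 c).T (kb c) (hkb c)).cc x = {y | y ∈ (Q0 c).Kc ∧ ∀ a : F,
          (⌊Mc c * sc (Pc F) (bc (F := F)) (th (A0 c) (lam c) (zz c.1.1 (lam c)) x) a⌋₊ : ℝ) ≤
            Mc c * sc (Pc F) (bc (F := F)) (th (A0 c) (lam c) (zz c.1.1 (lam c)) y) a ∧
          Mc c * sc (Pc F) (bc (F := F)) (th (A0 c) (lam c) (zz c.1.1 (lam c)) y) a ≤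
            ⌈Mc c * sc (Pc F) (bc (F := F)) (th (A0 c) (lam c) (zz c.1.1 (lam c)) x) a⌉₊} ∧
        ((Q0 c).T (kb c) (hkb c)).dim x = {a : F |
          ⌊Mc c * sc (Pc F) (bc (F := F)) (th (A0 c) (lam c) (zz c.1.1 (lam c)) x) a⌋₊ <
          ⌈Mc c * sc (Pc F) (bc (F := F)) (th (A0 c) (lam c) (zz c.1.1 (lam c)) x) a⌉₊}.ncard) →
      ηw ≠ ∞ → (ηw ^ (1 / p)).toReal ≤ κw →
      ∀ (D' : E3 → E3 →L[ℝ] E3) (k0 : X → ℕ) (hk0 : ∀ j, (M.Q j).kc ≤ k0 j) (κr : X → ℕ)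
      (Bx Gd : X → Set E3) (wt : ∀ j : X, Mfi_290.Pt (M.Q j) ⊕ ℕ → ℝ≥0∞) (B : X → ℝ≥0∞),
      (∀ j, Bx j ⊆ Mfa_880.BxM M j) → (∀ j, Gd j ⊆ Bx j) → (∀ j, MeasurableSet (Gd j)) →
      (∀ j, volume (Gd j) ≠ 0) →
      (∀ j m, ∃ c : ℤ, 2 ^ κr j * (Y.d j : ℝ) * (M.Q j).a' m = c) →
      (∀ c : X, ∀ s ∈ Gd c, GoodW p Om f Df (A0 c)
        (fun e : {e // e ∈ eIn ((Q0 c).T (kb c) (hkb c)) ((Q0 c).cix (kb c) (hkb c))} => ea e.1)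
        (fun e => ev e.1) ηw (w0 c + s)) →
      (∀ j, ∀ s ∈ Gd j, ∑' c, wt j c * (Mfa_880.QU M Y k0 hk0 j).EnC (Pmc_112.Gd' D') p c s ≤ B j) →
      Pgn_112.GenIn (fN bf cmp hκ0 hc hc2 lam hl hl4) f D' p κp κ1 κ2 X (AT hX A0 w0) lam
        (fun c => zz c.1 (lam c)) Mc M Y k0 hk0 κr Bx Gd wt B (ZD0 hX) := by
  obtain ⟨κw, hκw, H⟩ := wordsN hδ hκ0 hR hκp h00 Mx
  refine ⟨κw, hκw, ?_⟩
  intro La Om hLa F bf cmp c0 hc hc2 lam hl hl4 hl0 X hX f p hp hf Df κ1f κ2f τ1 τ κ1 κ2 η hκ1f hτ1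
    hτ h2 hκ8 hκ12 n3 n4 hκ2 n5 hε A0 hcor M hφ hOmM Q0 kb hkb w0 hMQ hK hw hroom hsm Y uA huA0 huA
    hη hF Mc ηw hMx hgrid hη1 hη2 D' k0 hk0 κr Bx Gd wt B hBx hGd hGm hG0 h0 hgood hen
  subst hOmM
  have hsum : τ1 + τ ≤ κ2f := by
    have : 0 ≤ (κ1f + τ1 + τ) * κ0 := by positivity
    linarith
  have hvr : ∀ (v : X → E3), (∀ j, v j ∈ Gd j) → ∀ j, ‖v j‖ ≤ M.r j := by
    intro v hv j
    have h1 : ‖M.φ (v j)‖ ≤ M.r j := hBx j (hGd j (hv j))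
    rw [hφ] at h1
    exact h1
  have EF : ∀ (k : X → ℕ) (hk : M.Sc k) (a : Fin 3 → ℝ) (v : X → E3) (hv : M.Adm v)
      (ct0 : F → M.OIx hk a hv ⊕ Σ j, M.IIx hk a hv j),
      (∀ c : X, ct0 c.1 = Sum.inr ⟨c, M.core hk a hv c⟩) → _ := fun k hk a v hv ct0 hct0 =>
    exfineN hX hLa hδ (by linarith : (0:ℝ) < R) bf cmp hκ0 hc hc2 lam hl hl4 h00 hl0 hκ1f hτ1 hτ h2
      hκ8 hκ12 n3 n4 hcor M hφ rfl hMQ hK hw hroom hsm Y huA0 huA hη hε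
      (x := (ZD0 hX).x) (Rz := (ZD0 hX).R) hF hk a hv hct0
  exact
    { φ := hφ
      Bxs := hBx
      Gds := hGd
      Gdm := hGm
      Gd0 := hG0
      h0 := h0
      ex := fun k hk a v hv _ => (EF k hk a v hv (fun c => Sum.inr ⟨⟨c, hX c⟩, M.core hk a hv ⟨c, hX c⟩⟩)
        fun c => rfl).1
      fine := fun k hk a v hv _ ct0 hct0 => (EF k hk a v hv ct0 hct0).2
      words := by
        intro v hv D0 hC hD
        exact H La _ hLa F bf cmp c0 hc hc2 lam hl hl4 hl0 X hX f p hp hf Df κ1f κ2f τ1 τ κ1 κ2 n5 hsum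
          hκ2 A0 hcor Q0 kb hkb w0 (fun c => Mc c) ηw hMx hK hw hgrid hη1 hη2 v
          (fun c => hsm c (v c) (hvr v hv c)) (fun c => hgood c (v c) (hv c)) D0 hC (fun c => by
            have h1 := hD c
            rw [hMQ] at h1
            exact h1)
      en := hen
      xO := fun c => (c.2 (hX c.1)).elim
      LF := ⟨fun c => (c.2 (hX c.1)).elim, fun c => (c.2 (hX c.1)).elim⟩
      tl := fun c => (c.2 (hX c.1)).elim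
      Z := ⟨fun _ => 0, fun k hk _ a v hv => zones_empty hX _ _ _ _ _⟩
      dis := fun c => (c.2 (hX c.1)).elim }

end

end Crest.Agent.R096.Gin_635
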