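import Crest.Agent.R096.Mdd13_360

/-!
Row 96 (S0127), helper360.  RESCALED BLOCKS (798 #11791): the same block with `kc = 3 + i` and the frame
`2⁻ⁱ ψ`, so that `‖ψ x‖ ≤ ‖x‖`.

* `blkDi` (`i = 0`: `blkD`), `blkDi_Kc, _ps, _N, _rt, _bnd, _size, _H`, `grid_blkDi`;
* `BlkXi` : the data of one block, `exists_blkXi` : for every `i : F → ℕ`;
* **`exists_blkXn`** : with `‖ψ x‖ ≤ ‖x‖`.
-/

set_option autoImplicit false
set_option linter.style.longLine false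
set_option linter.unusedSectionVars false

open MeasureTheory Set Filter Topology Metric

namespace Crest.Agent.R096.Mdd_360

open Crest.Agent.R096.Bsp_628 Crest.Agent.R096.Brk5_582 Crest.Agent.R096.Brk1_582
open Crest.Agent.R096.Brk2_582 Crest.Agent.R096.Brk3_582 Crest.Agent.R096.Grd_714
open Crest.Agent.R096.SkC1_961 (E3 FoamD Hom3 th)
open Crest.Agent.R096.EaX_766 (cbx RatA)
open Crest.Agent.R096.Bxs_627 (ctr zz)
open Crest.Agent.R096.Mal_874 Crest.Agent.R096.Msh_810 Crest.Agent.R096.Msh_715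
open Crest.Agent.R096.Mfi_290
open Crest.Agent.R096.Wd_120 (GridS CoreAt coreAt_T gridS_shell uc)

noncomputable section

section shell

variable {La : Set E3} {F : Set (Bx (Fin 3))} {δ κ0 : ℝ} {N : ℕ} {FF : Foam La (Pc F) (bc (F := F)) N}
  {h3 : Module.finrank ℝ (Fin 3 → ℝ) = 3} {c : F} {o : E3} {B : ℝ} (D : Fbr_628.BD FF h3 c o B)
  (hN : N ≤ 4) (BF : BoxFoam La F δ κ0) (hLa : IsOpen La) (hQ : Quads (Pc F) (bc (F := F)))
  {m : ℕ} (hm : 0 < m) {t : ℤ} (ht : 0 < t) (A : E3 ≃ᵃ[ℝ] E3) {lam : ℝ} (hl : 0 < lam) (i : ℕ)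

/-- the unit of the rescaled block -/
def uDi (m i : ℕ) : ℝ := 2 ^ (3 + i) * (D.w / m)

theorem uDi_eq (m i : ℕ) : uDi D m i = 2 ^ i * uD D m := by
  unfold uDi uD
  rw [pow_add]
  ring

theorem uDi_pos (hm : 0 < m) : 0 < uDi D m i := by
  rw [uDi_eq]
  exact mul_pos (by positivity) (uD_pos D hm)

/-- **the rescaled block of a brick** -/
def blkDi : CB E3 3 :=
  mkCB c.1 A hl (uDi_pos D i hm) (3 + i) (by omega) (D.shell hN BF hLa hQ hm t ht) (t + 10)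
    (le_refl (t + 10))

theorem blkDi_hS (l : Fin 3) : uDi D m i * (((D.shell hN BF hLa hQ hm t ht).hi l : ℝ) -
    (D.shell hN BF hLa hQ hm t ht).lo l) = 2 ^ (3 + i) * c.1.side l := by
  have h1 := blkD_hS D hN BF hLa hQ hm ht l
  rw [uDi_eq, pow_add, mul_assoc, h1]
  ring

theorem blkDi_Kc : (blkDi D hN BF hLa hQ hm ht A hl i).Kc = A ⁻¹' cbx c.1 lam :=
  mkCB_Kc _ _ _ _ _ _ _ _ _ (blkDi_hS D hN BF hLa hQ hm ht i)

theorem blkDi_ps (y : E3) (l : Fin 3) :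
    D.w / m * ps (blkDi D hN BF hLa hQ hm ht A hl i).a' (blkDi D hN BF hLa hQ hm ht A hl i).kc
      ((blkDi D hN BF hLa hQ hm ht A hl i).ψ y) l + o l =
    (A y l - (1 - lam) * ctr c.1 l) / lam := by
  have hm' : (0 : ℝ) < m := by exact_mod_cast hm
  have hw := D.w0
  unfold blkDi
  rw [mkCB_ps]
  have h1 := D.lo_eq hm l
  have e0 : ((D.shell hN BF hLa hQ hm t ht).lo l : ℝ) = D.lo m l := rfl
  rw [e0]
  have e1 : D.w / m * (D.lo m l : ℝ) = c.1.lo l - o l := by linarith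
  have e2 : ctr c.1 l - lam * c.1.side l / 2 = (1 - lam) * ctr c.1 l + lam * c.1.lo l := by
    change (c.1.lo l + c.1.hi l) / 2 - lam * (c.1.hi l - c.1.lo l) / 2 =
      (1 - lam) * ((c.1.lo l + c.1.hi l) / 2) + lam * c.1.lo l
    ring
  rw [mul_add, e1, e2]
  unfold uDi
  field_simp
  ring

theorem blkDi_N {κ : ℝ} (hκ : (t : ℝ) + 10 ≤ 2 * κ * m) :
    (blkDi D hN BF hLa hQ hm ht A hl i).N ⊆ A ⁻¹' cbx c.1 ((1 + 2 * κ) * lam) := by
  refine mkCB_N _ _ _ _ _ _ _ _ _ (blkDi_hS D hN BF hLa hQ hm ht i) fun l => ?_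
  have hm' : (0 : ℝ) < m := by exact_mod_cast hm
  have hw := D.w0
  have h1 := two_w_le D l
  have ht' : (0 : ℝ) < t := by exact_mod_cast ht
  have hκ0 : 0 < κ := by
    by_contra hcon
    push Not at hcon
    have : 2 * κ * m ≤ 0 := by nlinarith
    linarith
  unfold uDi
  push_cast
  have h2 : ((t : ℝ) + 10) * (D.w / m) ≤ κ * c.1.side l := by
    rw [mul_div_assoc', div_le_iff₀ hm']
    calc ((t : ℝ) + 10) * D.w ≤ 2 * κ * m * D.w := mul_le_mul_of_nonneg_right hκ hw.le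
      _ = κ * m * (2 * D.w) := by ring
      _ ≤ κ * m * c.1.side l := by gcongr
      _ = κ * c.1.side l * m := by ring
  have hp : (0 : ℝ) < 2 ^ (3 + i) := by positivity
  calc ((t : ℝ) + 10) * (2 ^ (3 + i) * (D.w / m)) = 2 ^ (3 + i) * (((t : ℝ) + 10) * (D.w / m)) := by ring
    _ ≤ 2 ^ (3 + i) * (κ * c.1.side l) := mul_le_mul_of_nonneg_left h2 hp.le
    _ = κ * (2 ^ (3 + i) * c.1.side l) := by ring

theorem blkDi_rt {uE Md : ℝ} (huE : 0 < uE) (hA : RatA o uE A) (hdy : Dy o uE Md c.1)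
    (hlq : ∃ q : ℚ, lam = q) :
    ∃ (Bm : Fin 3 → Fin 3 → ℤ) (d : ℕ), 0 < d ∧
      Rt (ContinuousLinearEquiv.refl ℝ E3) (blkDi D hN BF hLa hQ hm ht A hl i).ψ Bm d ∧
      ∀ l, ∃ z : ℤ, (d : ℝ) * (blkDi D hN BF hLa hQ hm ht A hl i).a' l = z := by
  refine mkCB_rt _ _ _ _ _ _ _ _ _ huE hA hdy hlq ?_
  obtain ⟨q, -, hq⟩ := bd_w_rat D huE hdy
  refine ⟨2 ^ (3 + i) * q / m, ?_⟩
  unfold uDi
  rw [hq]
  push_cast
  ring

theorem blkDi_bnd {Bn : ℕ} (h1 : 1 ≤ Bn) (hB : 4 * B ^ 2 ≤ Bn) :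
    ∀ j, ∀ p ∈ (blkDi D hN BF hLa hQ hm ht A hl i).S.GG j, ∀ l, |p.1 l| ≤ (Bn : ℤ) :=
  Fbr_628.BD.shell_bnd D hN BF hLa hQ h1 hB

theorem blkDi_size {R0 : ℝ} (hR : 8 * B ≤ R0) (htR : (t : ℝ) ≤ R0) :
    ∀ j, j ≠ (blkDi D hN BF hLa hQ hm ht A hl i).S.core →
      ∀ u ∈ ZP ((blkDi D hN BF hLa hQ hm ht A hl i).S.GG j),
      ∀ v ∈ ZP ((blkDi D hN BF hLa hQ hm ht A hl i).S.GG j), ∀ l, |v l - u l| ≤ R0 :=
  Fbr_628.BD.shell_size D hN BF hLa hQ hR htR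

theorem blkDi_H {Bc : ℕ} (hB : B ≤ Bc) {t0 : ℕ} (ht0 : t = t0) (l : Fin 3) :
    (blkDi D hN BF hLa hQ hm ht A hl i).S.hi l - (blkDi D hN BF hLa hQ hm ht A hl i).S.lo l +
      2 * (blkDi D hN BF hLa hQ hm ht A hl i).w ≤ HD m Bc t0 :=
  blkD_H D hN BF hLa hQ hm ht A hl hB ht0 l

/-- the exact map in the coordinates of the block -/
theorem th_blkDi (y : E3) : th A lam (zz c.1 lam) y =
    D.pt m (uc (blkDi D hN BF hLa hQ hm ht A hl i) y) := by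
  funext l
  have h1 := blkDi_ps D hN BF hLa hQ hm ht A hl i y l
  show (A y l - zz c.1 lam l) / lam = o l + D.w / m * _
  rw [add_comm (o l), h1]
  rfl

/-- **the clause `grid` for the tiling of the rescaled block** -/
theorem grid_blkDi (k : ℕ) (hk : (blkDi D hN BF hLa hQ hm ht A hl i).kc ≤ k) :
    ∀ x ∈ (blkDi D hN BF hLa hQ hm ht A hl i).Kc,
      x ∉ I (((blkDi D hN BF hLa hQ hm ht A hl i).T k hk).H
        ((blkDi D hN BF hLa hQ hm ht A hl i).cix k hk)) →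
      ((blkDi D hN BF hLa hQ hm ht A hl i).T k hk).cc x =
        {y | y ∈ (blkDi D hN BF hLa hQ hm ht A hl i).Kc ∧ ∀ a : F,
          (⌊m * sc (Pc F) (bc (F := F)) (th A lam (zz c.1 lam) x) a⌋₊ : ℝ) ≤
            m * sc (Pc F) (bc (F := F)) (th A lam (zz c.1 lam) y) a ∧
          m * sc (Pc F) (bc (F := F)) (th A lam (zz c.1 lam) y) a ≤
            ⌈m * sc (Pc F) (bc (F := F)) (th A lam (zz c.1 lam) x) a⌉₊} ∧
      ((blkDi D hN BF hLa hQ hm ht A hl i).T k hk).dim x =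
        {a : F | ⌊m * sc (Pc F) (bc (F := F)) (th A lam (zz c.1 lam) x) a⌋₊ <
          ⌈m * sc (Pc F) (bc (F := F)) (th A lam (zz c.1 lam) x) a⌉₊}.ncard := by
  intro x hx hn
  have hc := coreAt_T (blkDi D hN BF hLa hQ hm ht A hl i) k hk
  have h := hc.grid (gridS_shell D hN BF hLa hQ hm ht) (th_blkDi D hN BF hLa hQ hm ht A hl i) x
    (by rw [hc.tile]; exact hx) hn
  rw [hc.tile] at h
  exact h

end shell

/-! ### the data of one block -/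

/-- **rescaled block data of a brick** -/
structure BlkXi (F : Set (Bx (Fin 3))) (Bn : ℕ) (R0 : ℝ) (m H : ℕ) (κ : ℝ) (i : ℕ) (c : F)
    (A : E3 ≃ᵃ[ℝ] E3) (lam : ℝ) (Q : CB E3 3) : Prop where
  kc : Q.kc = 3 + i
  Kc : Q.Kc = A ⁻¹' cbx c.1 lam
  N : Q.N ⊆ A ⁻¹' cbx c.1 ((1 + 2 * κ) * lam)
  bnd : ∀ j, ∀ p ∈ Q.S.GG j, ∀ l, |p.1 l| ≤ (Bn : ℤ)
  size : ∀ j, j ≠ Q.S.core → ∀ v ∈ ZP (Q.S.GG j), ∀ w ∈ ZP (Q.S.GG j), ∀ l, |w l - v l| ≤ R0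
  H : ∀ l, Q.be l - Q.al l ≤ H
  psi : ∃ s : ℝ, 0 < s ∧ m * s ≤ 4 * (lam * c.1.sz) ∧ ∀ y, Q.ψ y = (2 ^ i * s)⁻¹ • A.linear y
  rt : ∃ (Bm : Fin 3 → Fin 3 → ℤ) (d : ℕ), 0 < d ∧
      Rt (ContinuousLinearEquiv.refl ℝ E3) Q.ψ Bm d ∧ ∀ l, ∃ z : ℤ, (d : ℝ) * Q.a' l = z
  grid : ∀ (k : ℕ) (hk : Q.kc ≤ k), ∀ x ∈ Q.Kc, x ∉ I ((Q.T k hk).H (Q.cix k hk)) →
      (Q.T k hk).cc x =
        {y | y ∈ Q.Kc ∧ ∀ a : F,
          (⌊m * sc (Pc F) (bc (F := F)) (th A lam (zz c.1 lam) x) a⌋₊ : ℝ) ≤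
            m * sc (Pc F) (bc (F := F)) (th A lam (zz c.1 lam) y) a ∧
          m * sc (Pc F) (bc (F := F)) (th A lam (zz c.1 lam) y) a ≤
            ⌈m * sc (Pc F) (bc (F := F)) (th A lam (zz c.1 lam) x) a⌉₊} ∧
      (Q.T k hk).dim x =
        {a : F | ⌊m * sc (Pc F) (bc (F := F)) (th A lam (zz c.1 lam) x) a⌋₊ <
          ⌈m * sc (Pc F) (bc (F := F)) (th A lam (zz c.1 lam) x) a⌉₊}.ncard

/-- `i = 0` -/
theorem BlkXi.bkX {F : Set (Bx (Fin 3))} {Bn : ℕ} {R0 : ℝ} {m H : ℕ} {κ : ℝ} {c : F}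
    {A : E3 ≃ᵃ[ℝ] E3} {lam : ℝ} {Q : CB E3 3} (h : BlkXi F Bn R0 m H κ 0 c A lam Q) :
    Eau_365.BkX F c A lam κ m Bn R0 Q where
  kc := h.kc
  Kc := h.Kc
  N := h.N
  psi := by
    obtain ⟨s, hs, h1, h2⟩ := h.psi
    refine ⟨s, hs, h1, fun y => ?_⟩
    rw [h2 y, pow_zero, one_mul]
    rfl
  rt := h.rt
  bnd := h.bnd
  size := h.size
  grid := h.grid

/-- the coordinates of the block against the map -/
theorem BlkXi.exists_uA {F : Set (Bx (Fin 3))} {Bn : ℕ} {R0 : ℝ} {m H : ℕ} {κ : ℝ} {i : ℕ} {c : F}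
    {A : E3 ≃ᵃ[ℝ] E3} {lam : ℝ} {Q : CB E3 3} (h : BlkXi F Bn R0 m H κ i c A lam Q) (hm : 0 < m) :
    ∃ uA : ℝ, 0 ≤ uA ∧ uA ≤ 2 ^ i * (4 / m * (lam * c.1.sz)) ∧
      ∀ x y, ‖A y - A x‖ ≤ uA * dist (Q.ψ x) (Q.ψ y) := by
  obtain ⟨s, hs, hs1, hs2⟩ := h.psi
  have hm' : (0:ℝ) < m := by exact_mod_cast hm
  have hp : (0:ℝ) < 2 ^ i * s := by positivity
  refine ⟨2 ^ i * s, hp.le, ?_, fun x y => ?_⟩
  · refine mul_le_mul_of_nonneg_left ?_ (by positivity)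
    rw [div_mul_eq_mul_div, le_div_iff₀ hm']
    linarith
  · rw [dist_eq_norm, ← map_sub Q.ψ, hs2, norm_smul, Real.norm_of_nonneg (inv_nonneg.2 hp.le),
      ← mul_assoc, mul_inv_cancel₀ hp.ne', one_mul, lin_dif, norm_sub_rev]

/-- **the rescaled blocks of the bricks of a dyadic box foam** -/
theorem exists_blkXi {δ κ0 R M : ℝ} (hR : 1 ≤ R) (hM : 0 < M) {m : ℕ} (hm : 0 < m) {κ : ℝ}
    (hκ : 11 ≤ 2 * κ * m) {La : Set E3} (hLa : IsOpen La) {F : Set (Bx (Fin 3))}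
    (bf : BoxFoam La F δ κ0) (cmp : Cmp F R) {o : E3} {u : ℝ} (hu : 0 < u)
    (hdy : ∀ C ∈ F, Dy o u M C) (X : Set F) (A : F → E3 ≃ᵃ[ℝ] E3) (lam : F → ℝ)
    (hX : ∀ c ∈ X, 0 < lam c ∧ (∃ q : ℚ, lam c = q) ∧ RatA o u (A c)) :
    ∃ s : F → ℝ, (∀ c, 0 < s c) ∧ ∀ i : F → ℕ, ∃ Q : F → CB E3 3,
      (∀ c ∈ X, BlkXi F (BnX R M) (R0X R M) m (HX R M m) κ (i c) c (A c) (lam c) (Q c)) ∧
      ∀ c ∈ X, ∀ y, (Q c).ψ y = (2 ^ i c * s c)⁻¹ • (A c).linear y := by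
  classical
  have h3 : Module.finrank ℝ (Fin 3 → ℝ) = 3 := by simp
  have hN : Fintype.card (Fin 3) + 1 ≤ 4 := by simp
  have hQ : Quads (Pc F) (bc (F := F)) := quads_box bf (by simp)
  have hB0 : 0 < BRM R M := by unfold BRM; positivity
  have hBn : 4 * BRM R M ^ 2 ≤ (BnX R M : ℝ) := by
    unfold BnX
    push_cast
    have := Nat.le_ceil (4 * BRM R M ^ 2)
    linarith
  have hBn1 : 1 ≤ BnX R M := by unfold BnX; omega
  have hm' : (0 : ℝ) < m := by exact_mod_cast hm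
  let D : ∀ c : F, Fbr_628.BD (foam bf hLa) h3 c o (BRM R M) := fun c =>
    (Fbr_628.exists_BD bf hLa hR cmp hu hM hdy (foam bf hLa) hN h3 c).some
  let ll : F → ℝ := fun c => if 0 < lam c then lam c else 1
  have hll : ∀ c, 0 < ll c := fun c => by
    by_cases h : 0 < lam c
    · simp only [ll, if_pos h]; exact h
    · simp only [ll, if_neg h]; exact one_pos
  refine ⟨fun c => ll c * uD (D c) m, fun c => mul_pos (hll c) (uD_pos (D c) hm), fun i => ?_⟩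
  refine ⟨fun c => blkDi (D c) hN bf hLa hQ hm one_pos (A c) (hll c) (i c), ?_, ?_⟩
  swap
  · intro c hc y
    have e : 2 ^ i c * (ll c * uD (D c) m) = ll c * uDi (D c) m (i c) := by
      rw [uDi_eq]; ring
    rw [e]
    rfl
  intro c hc
  obtain ⟨hl, hlq, hrat⟩ := hX c hc
  have hle : ll c = lam c := by simp only [ll, if_pos hl]
  have key : ∀ (x : ℝ) (hx : 0 < x), x = lam c → BlkXi F (BnX R M) (R0X R M) m (HX R M m) κ (i c) c
      (A c) (lam c) (blkDi (D c) hN bf hLa hQ hm one_pos (A c) hx (i c)) := by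
    rintro x hx rfl
    refine
      { kc := rfl
        Kc := blkDi_Kc (D c) hN bf hLa hQ hm one_pos (A c) hx (i c)
        N := blkDi_N (D c) hN bf hLa hQ hm one_pos (A c) hx (i c) (by push_cast; linarith)
        bnd := blkDi_bnd (D c) hN bf hLa hQ hm one_pos (A c) hx (i c) hBn1 hBn
        size := blkDi_size (D c) hN bf hLa hQ hm one_pos (A c) hx (i c) (by unfold R0X; linarith)
          (by unfold R0X; push_cast; linarith)
        H := fun l => ?_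
        psi := ⟨lam c * uD (D c) m, mul_pos hx (uD_pos (D c) hm), ?_, fun y => ?_⟩
        rt := blkDi_rt (D c) hN bf hLa hQ hm one_pos (A c) hx (i c) hu hrat (hdy _ c.2) hlq
        grid := fun k hk => grid_blkDi (D c) hN bf hLa hQ hm one_pos (A c) hx (i c) k hk }
    · have h1 := blkDi_H (D c) hN bf hLa hQ hm one_pos (A c) hx (i c) (Nat.le_ceil _)
        (t0 := 1) (by norm_num) l
      have h2 : HX R M m = HD m ⌈BRM R M⌉₊ 1 := rfl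
      rw [h2]
      unfold CB.be CB.al
      linarith
    · have h1 := two_w_le (D c) 0
      have h2 := Bx.side_le_sz c.1 0
      have e : m * (lam c * uD (D c) m) = 8 * (lam c * (D c).w) := by
        unfold uD
        field_simp
        ring
      rw [e]
      have h4 : lam c * (D c).w ≤ lam c * (c.1.sz / 2) :=
        mul_le_mul_of_nonneg_left (by linarith) hl.le
      linarith
    · have e : 2 ^ i c * (lam c * uD (D c) m) = lam c * uDi (D c) m (i c) := by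
        rw [uDi_eq]; ring
      rw [e]
      rfl
  exact key (ll c) (hll c) hle

/-- **blocks with `‖ψ x‖ ≤ ‖x‖`** (`BkX`-form constants: `Bn, R0` before `κ4`, `m0`, `Nb`) -/
theorem exists_blkXn {R Md : ℝ} (hR : 1 ≤ R) (hM : 0 < Md) :
    ∃ (Bn : ℕ) (R0 : ℝ), 1 ≤ Bn ∧ 1 ≤ R0 ∧ ∀ κ4 : ℝ, 0 < κ4 → ∃ m0 : ℕ, 0 < m0 ∧ ∀ m : ℕ, m0 ≤ m →
      ∃ Nb : ℕ, ∀ {δ κ0 : ℝ} {La : Set E3}, IsOpen La → ∀ {F : Set (Bx (Fin 3))},
        BoxFoam La F δ κ0 → Cmp F R → ∀ {o : E3} {u : ℝ}, 0 < u → (∀ C ∈ F, Dy o u Md C) →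
        ∀ (X : Set F) (A : F → E3 ≃ᵃ[ℝ] E3) (lam : F → ℝ),
          (∀ c ∈ X, 0 < lam c ∧ (∃ q : ℚ, lam c = q) ∧ RatA o u (A c)) →
          ∃ (i : F → ℕ) (Q : F → CB E3 3), ∀ c ∈ X,
            BlkXi F Bn R0 m Nb κ4 (i c) c (A c) (lam c) (Q c) ∧ ∀ y, ‖(Q c).ψ y‖ ≤ ‖y‖ := by
  have hB0 : 0 < BRM R Md := by unfold BRM; positivity
  refine ⟨BnX R Md, R0X R Md, by unfold BnX; omega, by unfold R0X; linarith, fun κ4 hκ4 => ?_⟩
  refine ⟨⌈11 / (2 * κ4)⌉₊ + 1, by omega, fun m hm => ⟨HX R Md m, ?_⟩⟩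
  intro δ κ0 La hLa F bf cmp o u hu hdy X A lam hX
  have hm0 : 0 < m := by omega
  have hκ : 11 ≤ 2 * κ4 * m := by
    have h1 : 11 / (2 * κ4) ≤ m := by
      refine (Nat.le_ceil _).trans ?_
      exact_mod_cast (by omega : ⌈11 / (2 * κ4)⌉₊ ≤ m)
    rw [div_le_iff₀ (by positivity)] at h1
    linarith
  obtain ⟨s, hs, hi⟩ := exists_blkXi hR hM hm0 hκ hLa bf cmp hu hdy X A lam hX
  choose L hL hLA using fun c => lin_le (A c)
  have hex : ∀ c : F, ∃ i : ℕ, L c / s c ≤ 2 ^ i := fun c => by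
    obtain ⟨i, hi⟩ := pow_unbounded_of_one_lt (L c / s c) (one_lt_two : (1:ℝ) < 2)
    exact ⟨i, hi.le⟩
  choose i hi' using hex
  obtain ⟨Q, hQ1, hQ2⟩ := hi i
  refine ⟨i, Q, fun c hc => ⟨hQ1 c hc, fun y => ?_⟩⟩
  have h0 := hs c
  have hp : (0:ℝ) < 2 ^ i c * s c := by positivity
  rw [hQ2 c hc, norm_smul, Real.norm_of_nonneg (inv_nonneg.2 hp.le), inv_mul_le_iff₀ hp]
  refine (hLA c y).trans (mul_le_mul_of_nonneg_right ?_ (norm_nonneg _))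
  have h1 := hi' c
  rw [div_le_iff₀ h0] at h1
  exact h1

end

end Crest.Agent.R096.Mdd_360
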