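import Crest.Agent.R096.Mfa7_880
import Crest.Agent.R096.Gno5_324

/-!
Row 96 (S0127), helper120, (M3) of 962 #11558 (`pre_genN`), part 1: the instance over the capped mesh
data `cap M c`: rational data, potential tiles (the inner ones and the wall ones do not see the cap),
means of the walls uniform in the cap.
-/

set_option autoImplicit false
set_option linter.style.longLine false
set_option linter.unusedSectionVars false

open MeasureTheory Set Filter Metric
open scoped Topology ENNReal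

namespace Crest.Agent.R096.Pgb_120

open Crest.Agent.R096.Msh_715 Crest.Agent.R096.Msh_810 Crest.Agent.R096.Cut_874
  Crest.Agent.R096.Mal_874
open Crest.Agent.R096.SkC1_961 (E3 Cfg)
open Crest.Agent.R096.Gno_324 (cap capD capD_Om)
open Crest.Agent.R096.Mfa_880
open Crest.Agent.R96.Pm_199
open Crest.Agent.R96.Wm5_72 (mean_QW mean_QWi)

noncomputable section

variable {J : Type} {M : MD E3 3 J}

/-- the rational data do not see the cap -/
def capX (X : RD M) (c : ℝ) (hc : 0 < c) : RD (cap M c hc) where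
  A := X.A
  d := X.d
  dpos := X.dpos
  rat := X.rat
  c := X.c
  c1 := X.c1
  cn := X.cn
  B := X.B
  B1 := X.B1
  hB := X.hB
  R := X.R
  R1 := X.R1
  hR := X.hR

variable (D : RD M) {c : ℝ} (hc : 0 < c)

theorem cap_Om : (cap M c hc).φ ⁻¹' (cap M c hc).D0.Om = M.φ ⁻¹' M.D0.Om := by
  show M.φ ⁻¹' (capD M.D0 c hc).Om = _
  rw [capD_Om]

/-! ### the tiles of the blocks -/

theorem coarse_cap (k0 : ℕ) (j : J) : Mfi_290.Coarse (cap M c hc) k0 j = Mfi_290.Coarse M k0 j := by
  funext t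
  rcases t with p | s <;> rfl

theorem sca_cap (j : J) : Mfi_290.sca (cap M c hc) j = Mfi_290.sca M j := by
  funext t
  rcases t with p | s <;> rfl

theorem qcl_cap (k0 : ℕ) (j : J) : Mfi_290.qcl (cap M c hc) k0 j = Mfi_290.qcl M k0 j := by
  funext t
  unfold Mfi_290.qcl
  rw [coarse_cap, sca_cap]
  rfl

theorem qAc_cap (j : J) : Mfi_290.qAc (cap M c hc) j = Mfi_290.qAc M j := by
  funext t
  rcases t with p | s <;> rfl

theorem qβ_cap (j : J) : Mfi_290.qβ (cap M c hc) j = Mfi_290.qβ M j := by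
  funext t
  rcases t with p | s <;> rfl

theorem qχ_cap (j : J) : Mfi_290.qχ (cap M c hc) j = Mfi_290.qχ M j := by
  funext t
  rcases t with p | s <;> rfl

theorem qfr_cap (j : J) : Mfi_290.qfr (cap M c hc) j = Mfi_290.qfr M j := by
  funext t
  rcases t with p | s <;> rfl

theorem qcf_cap (j : J) (k0 : ℕ) (hk0 : (M.Q j).kc ≤ k0) :
    Mfi_290.qcf (cap M c hc) j k0 hk0 = Mfi_290.qcf M j k0 hk0 := by
  funext t
  rcases t with p | s <;> rfl

theorem qSh_cap (j : J) (k0 : ℕ) (hk0 : (M.Q j).kc ≤ k0) :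
    Mfi_290.qSh (cap M c hc) (capX D c hc) j k0 hk0 = Mfi_290.qSh M D j k0 hk0 := by
  funext t
  rcases t with p | s
  · unfold Mfi_290.qSh
    rw [qcf_cap]
    rfl
  · rfl

theorem QI_cap (j : J) (k0 : ℕ) (hk0 : (M.Q j).kc ≤ k0) :
    Mfi_290.QI (cap M c hc) (capX D c hc) j k0 hk0 = Mfi_290.QI M D j k0 hk0 := by
  unfold Mfi_290.QI
  congr 1
  · exact qcl_cap hc k0 j
  · exact qAc_cap hc j
  · exact qβ_cap hc j
  · exact qSh_cap D hc j k0 hk0
  · exact qfr_cap hc j

/-- **the potential tiles of the blocks do not see the cap** -/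
theorem QU_cap (k0 : J → ℕ) (hk0 : ∀ j, (M.Q j).kc ≤ k0 j) (j : J) :
    QU (cap M c hc) (capX D c hc) k0 hk0 j = QU M D k0 hk0 j :=
  congrArg Uni_663.toPTU (QI_cap D hc j (k0 j) (hk0 j))

/-- **the inner cubes at the walls do not see the cap** -/
theorem QUw_cap (k : J → ℕ) {W : J → Set E3} (Wc : ∀ j, (W j).Countable) (j : J) :
    QUw (cap M c hc) (capX D c hc) k Wc j = QUw M D k Wc j := rfl

theorem acW_cap (k : J → ℕ) {W : J → Set E3} (r : ℝ) (t : Mou_324.TW W D) :
    Mou_324.acW k W (capX D c hc) r t = Mou_324.acW k W D r t := by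
  have h : (cap M c hc).φ ⁻¹' (cap M c hc).D0.Om = M.φ ⁻¹' M.D0.Om := cap_Om hc
  unfold Mou_324.acW
  rw [h]
  rfl

/-- **the outer tiles at the walls do not see the cap** -/
theorem QW_cap [Countable J] (k : J → ℕ) {W : J → Set E3} (Wc : ∀ j, (W j).Countable) (r : ℝ) :
    Mou_324.QW (M := cap M c hc) k Wc (capX D c hc) r = Mou_324.QW (M := M) k Wc D r := by
  unfold Mou_324.QW
  congr 1
  funext t
  exact acW_cap D hc k r t

end

end Crest.Agent.R096.Pgb_120
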