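import Crest.Agent.R096.Mdd14_360
import Crest.Agent.R096.Mdd15_360
import Crest.Agent.R096.Bpn1_635
import Crest.Agent.R096.Bmd5_798
import Crest.Agent.R096.Pgb1_120

/-!
Row 96 (S0127), helper360.  **MD + RD + (B1) OF `ExBlkN`** (798 #11856, 764): the mesh data of the
pre-translated rescaled blocks for the foam `ΦN`, rooms before the pre-translation, `Cores` and `Fine`
for every cap.
-/

set_option autoImplicit false
set_option linter.style.longLine false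
set_option linter.unusedSectionVars false

open MeasureTheory Set Filter Topology Metric

namespace Crest.Agent.R096.Mdd_360

open Crest.Agent.R096.Bsp_628 Crest.Agent.R096.Brk5_582 Crest.Agent.R096.Brk1_582
open Crest.Agent.R096.Brk2_582 Crest.Agent.R096.Brk3_582
open Crest.Agent.R096.SkC1_961 (E3 FoamD Hom3)
open Crest.Agent.R096.EaX_766 (cbx RatA lin)
open Crest.Agent.R096.Bxs_627 (ctr CoriE zz)
open Crest.Agent.R096.Mal_874 Crest.Agent.R096.Msh_810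
open Crest.Agent.R096.Fns_360
open Crest.Agent.R096.Bxc1_635 Crest.Agent.R096.Fnn_635
open Crest.Agent.R096.Dic6_582 (dF kF dF_pos)
open Crest.Agent.R096.Np_962 (ΦN Md cN_pos cN_le kF_one)
open Crest.Agent.R096.Npr_582 (cN)
open Crest.Agent.R096.Gno_324 (cap capD capD_Om)
open Crest.Agent.R096.Bmd_798 (UX ctu Av)
open Crest.Agent.R096.Mbf_337 (Cores Fine)
open Crest.Agent.R96.Gj_872 (Dy)

noncomputable section

/-- a set over the brick, for the translated map -/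
theorem sub_trA {A : E3 ≃ᵃ[ℝ] E3} {c : Bx (Fin 3)} {lam κ τ1 : ℝ} {S : Set E3}
    (hS : S ⊆ A ⁻¹' cbx c ((1 + 2 * κ) * lam)) {w : E3}
    (hw : ∀ k, |A.linear w k| ≤ τ1 * (lam * c.side k)) :
    S ⊆ trA A w ⁻¹' cbx c ((1 + 2 * (κ + τ1)) * lam) := by
  intro x hx k
  have h2 : |A x k - ctr c k| ≤ (1 + 2 * κ) * lam * c.side k / 2 := hS hx k
  show |trA A w x k - ctr c k| ≤ (1 + 2 * (κ + τ1)) * lam * c.side k / 2
  have h3 : trA A w x k = A x k - A.linear w k := by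
    have h4 := congrFun (trA_sub A w x) k
    simp only [Pi.sub_apply] at h4
    linarith
  rw [h3]
  have h5 : A x k - A.linear w k - ctr c k = (A x k - ctr c k) - A.linear w k := by ring
  rw [h5]
  refine (abs_sub _ _).trans ?_
  have := hw k
  linarith

section cf

variable {La Om : Set E3} {f : E3 → E3} {F : Set (Bx (Fin 3))} {δ κ0 R c0 : ℝ}

/-- **(B1) for every cap**, foam `fN` -/
theorem cf_capN (hLa : IsOpen La) (hδ : 0 < δ) (hR : 0 < R) (bf : BoxFoam La F δ κ0)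
    (cmp : Cmp F R) (hκ0 : 1 ≤ κ0) (hc : 0 < c0) (hc2 : c0 * (8 * κ0) ≤ 1) (lam : F → ℝ)
    (hl : ∀ c, 0 < lam c) (hl4 : ∀ c, lam c ≤ 1 / 4) {lam0 : ℝ} (h00 : 0 < lam0)
    (hl0 : ∀ c, lam0 ≤ lam c) {κ1 κ2 τ η ε κm : ℝ} (hκ1 : 0 ≤ κ1) (hτ : 0 < τ) (hτ2 : τ ≤ κ2)
    (h2 : κ2 ≤ 1 / 4) (hκ8 : (κ1 + τ) * κ0 ≤ 1 / 8) (hκ12 : (κ1 + τ) * κ0 ≤ κ2 - τ)
    (hκm : κ1 + τ ≤ κm)
    {A : F → E3 ≃ᵃ[ℝ] E3} (hcor : ∀ c, CoriE Om f (A c) c.1 (lam c) κ1 κ2)
    {M : MD E3 3 (UX F)} (hφ : M.φ = ContinuousLinearEquiv.refl ℝ E3) (hOmM : M.φ ⁻¹' M.D0.Om = Om)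
    (hK : ∀ j : UX F, (M.Q j).Kc = A j.1 ⁻¹' cbx j.1.1 (lam j.1))
    (hroom : ∀ j : UX F, cthickening (M.r j) (M.Q j).N ⊆
      A j.1 ⁻¹' cbx j.1.1 ((1 + 2 * κ2) * lam j.1))
    (hsm : ∀ (j : UX F) (v : E3), ‖v‖ ≤ M.r j → ‖(A j.1).linear v‖ ≤ τ * (lam j.1 * j.1.1.sz) ∧
        ∀ k, |(A j.1).linear v k| ≤ τ * (lam j.1 * j.1.1.side k)) (X : RD M)
    {uA : UX F → ℝ} (huA0 : ∀ j, 0 ≤ uA j)
    (huA : ∀ j : UX F, ∀ x y, ‖A j.1 y - A j.1 x‖ ≤ uA j * dist ((M.Q j).ψ x) ((M.Q j).ψ y))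
    (hη : ∀ j : UX F, uA j * (X.R j / 2 ^ (M.Q j).kc) ≤ η * j.1.1.sz)
    (hε : KIT δ κ0 R c0 lam0 * (η + 2 * (κ1 + τ)) ≤ ε)
    (hF : ∀ x ∈ Om, FineS (fN bf cmp hκ0 hc hc2 lam hl hl4) f ε
      (closedBall x (M.D0.ρ x) ∩ (Om ∩ offO f (O34 lam))))
    (c : ℝ) (hc' : 0 < c) (k : UX F → ℕ) (hk : (cap M c hc').Sc k) (a : Fin 3 → ℝ)
    (v : UX F → E3) (hv : (cap M c hc').Adm v) :
    Cores (fN bf cmp hκ0 hc hc2 lam hl hl4) ((cap M c hc').mesh hk a hv) f κm (κ2 - τ) univ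
      (fun b => {ctu (cap M c hc') hk a hv b}) (fun b => {ctu (cap M c hc') hk a hv b})
      (fun b => {ctu (cap M c hc') hk a hv b}) (ctu (cap M c hc') hk a hv) (Av A v) lam
      (fun c => zz c.1 (lam c)) (fun _ x => x) (fun _ _ => 0) ∧
    Fine (fN bf cmp hκ0 hc hc2 lam hl hl4) ((cap M c hc').mesh hk a hv) f ε
      (fun b => {ctu (cap M c hc') hk a hv b}) := by
  have h := cf_B (Equiv.Set.univ F) (cap M c hc') hk a hv hLa hδ hR bf cmp hκ0 hc hc2 lam hl hl4 h00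
    hl0 (f := f) (Om := Om) hκ1 hτ hτ2 h2 hκ8 hκ12 hcor hφ
    ((Pgb_120.cap_Om hc').trans hOmM) hK hroom hsm
    (Pgb_120.capX X c hc') huA0 huA hη hε (fun x hx => (hF x hx).mono (by
      refine inter_subset_inter_left _ (closedBall_subset_closedBall ?_)
      exact min_le_left _ _))
  refine ⟨?_, h.2⟩
  exact Pmc_112.cores_mono hκm h.1

end cf

theorem Md_pos {q : ℕ} (hq : 1 ≤ q) : 0 < Md q := by
  have : (1 : ℝ) ≤ q := by exact_mod_cast hq
  unfold Md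
  exact lt_max_of_lt_right (by linarith)

/-- **MD + RD + (B1) of `ExBlkN`.**  Constants: `Bn R0` after `q`; `m` (subdivisions), `Nb` (size), `κs`
(smallness of the closeness `κ1f`, of the pre-translations `τ1` and of the room `τ`) after `lam0, κ1`. -/
theorem mdN {q : ℕ} (hq : 1 ≤ q) : ∃ (Bn : ℕ) (R0 : ℝ), 1 ≤ Bn ∧ 1 ≤ R0 ∧
    ∀ lam0 κ1 : ℝ, 0 < lam0 → 0 < κ1 → κ1 * kF q ≤ 1 / 32 →
    ∃ (m Nb : ℕ) (κs : ℝ), 0 < m ∧ 0 < κs ∧ κs ≤ 1 / 256 ∧ κs ≤ κ1 ∧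
    ∀ κ1f τ1 τ : ℝ, 0 ≤ κ1f → κ1f ≤ κs → 0 ≤ τ1 → τ1 ≤ κs → 0 < τ → τ ≤ κs →
    ∀ (Om La : Set E3) (f1 : E3 → E3), IsOpen Om → IsOpen La → Hom3 f1 Om La →
    ∀ (h : ℝ) (al : Fin 3 → ℝ) (F : Set (Bx (Fin 3))) (bf : BoxFoam La F (dF q) (kF q))
      (cmp : Cmp F 6) (lam : F → ℝ) (hl : ∀ c, 0 < lam c) (hl4 : ∀ c, lam c ≤ 1 / 4)
      (A : F → E3 ≃ᵃ[ℝ] E3), 0 < h → (∀ Q ∈ F, Bsp_628.Dy al h (Md q) Q) →
      (∀ c, lam0 ≤ lam c ∧ ∃ r : ℚ, lam c = r) → (∀ c, RatA al h (A c)) →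
      (∀ c, CoriE Om f1 (A c) c.1 (lam c) κ1f (1 / 8)) →
    ∀ D0 : Dat 3, 6 ≤ D0.C → D0.Om = Om →
      (∀ u ∈ Om, FineS (ΦN bf cmp lam hl hl4) f1 κ1
        (closedBall u (D0.ρ u) ∩ (Om ∩ offO f1 (O34 lam)))) →
    ∃ (i : F → ℕ) (Q0 : F → CB E3 3),
      (∀ c, BlkXi F Bn R0 m Nb (1 / 64) (i c) c (A c) (lam c) (Q0 c)) ∧
      (∀ c y, ‖(Q0 c).ψ y‖ ≤ ‖y‖) ∧
      ∃ r : UX F → ℝ, (∀ j, 0 < r j) ∧
        (∀ (j : UX F) (v : E3), ‖v‖ ≤ r j → ‖(A j.1).linear v‖ ≤ τ * (lam j.1 * j.1.1.sz) ∧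
          ∀ k, |(A j.1).linear v k| ≤ τ * (lam j.1 * j.1.1.side k)) ∧
        ∀ w0 : F → E3, (∀ c : F, ‖(A c).linear (w0 c)‖ ≤ τ1 * (lam c * c.1.sz) ∧
            ∀ k, |(A c).linear (w0 c) k| ≤ τ1 * (lam c * c.1.side k)) →
          ∀ κw : F → ℕ, (∀ c, w0 c ∈ Dy (ContinuousLinearEquiv.refl ℝ E3) (κw c)) →
          ∃ (M : MD E3 3 (UX F)) (Y : RD M), M.φ = ContinuousLinearEquiv.refl ℝ E3 ∧ M.D0 = D0 ∧
            (M.Q = fun j => (Q0 j.1).tr (w0 j.1)) ∧ M.r = r ∧ M.φ ⁻¹' M.D0.Om = Om ∧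
            (Y.B = fun _ => Bn) ∧ (Y.R = fun _ => R0) ∧
            (∀ j l, ∃ z : ℤ, 2 ^ κw j.1 * (Y.d j : ℝ) * (M.Q j).a' l = z) ∧
            (∀ j x, ‖(M.Q j).ψ x‖ ≤ ‖x‖) ∧
            (∀ j, (M.Q j).N ⊆ A j.1 ⁻¹' cbx j.1.1 ((1 + 2 * (1 / 8)) * lam j.1)) ∧
            ∀ (c : ℝ) (hc : 0 < c) (k : UX F → ℕ) (hk : (cap M c hc).Sc k) (a : Fin 3 → ℝ)
              (v : UX F → E3) (hv : (cap M c hc).Adm v),
              Cores (ΦN bf cmp lam hl hl4) ((cap M c hc).mesh hk a hv) f1 κ1 (1 / 16) univ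
                (fun b => {ctu (cap M c hc) hk a hv b}) (fun b => {ctu (cap M c hc) hk a hv b})
                (fun b => {ctu (cap M c hc) hk a hv b}) (ctu (cap M c hc) hk a hv)
                (Av (fun c => trA (A c) (w0 c)) v) lam
                (fun c => zz c.1 (lam c)) (fun _ x => x) (fun _ _ => 0) ∧
              Fine (ΦN bf cmp lam hl hl4) ((cap M c hc).mesh hk a hv) f1 κ1
                (fun b => {ctu (cap M c hc) hk a hv b}) := by
  obtain ⟨Bn, R0, hBn, hR0, H⟩ := exists_blkXn (R := 6) (Md := Md q) (by norm_num) (Md_pos hq)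
  refine ⟨Bn, R0, hBn, hR0, fun lam0 κ1 hlam0 hκ1 hκ1F => ?_⟩
  obtain ⟨m0, hm0, H⟩ := H (1 / 64) (by norm_num)
  set K : ℝ := |KIT (dF q) (kF q) 6 (cN q) lam0| + 1 with hK
  have hK1 : 1 ≤ K := by
    have := abs_nonneg (KIT (dF q) (kF q) 6 (cN q) lam0)
    linarith
  have hK0 : 0 < K := by linarith
  set η : ℝ := κ1 / (4 * K) with hη
  have hη0 : 0 < η := by positivity
  set κe : ℝ := κ1 / (8 * K) with hκe
  have hκe0 : 0 < κe := by positivity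
  have hκeK : κe ≤ κ1 := by
    rw [hκe, div_le_iff₀ (by positivity)]
    nlinarith
  obtain ⟨m1, hm1⟩ := exists_nat_gt (R0 / (2 * η))
  set m : ℕ := max m0 m1 with hm
  have hmm0 : m0 ≤ m := le_max_left _ _
  have hmm1 : (m1 : ℝ) ≤ m := by exact_mod_cast le_max_right m0 m1
  have hmp : 0 < m := hm0.trans_le hmm0
  have hmp' : (0 : ℝ) < m := by exact_mod_cast hmp
  have hmη : R0 / (2 * m) ≤ η := by
    have h1 : R0 / (2 * η) ≤ m := hm1.le.trans hmm1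
    rw [div_le_iff₀ (by positivity)] at h1 ⊢
    linarith
  obtain ⟨Nb, H⟩ := H m hmm0
  set κs : ℝ := min (κe / 3) (1 / 256) with hκs
  have hκs0 : 0 < κs := lt_min (by positivity) (by norm_num)
  have hκse : κs ≤ κe / 3 := min_le_left _ _
  have hκs2 : κs ≤ 1 / 256 := min_le_right _ _
  refine ⟨m, Nb, κs, hmp, hκs0, hκs2, hκse.trans (by linarith), ?_⟩
  intro κ1f τ1 τ hκf0 hκf hτ10 hτ1 hτ0 hτ Om La f1 hOm hLa hf h al F bf cmp lam hl hl4 A hh hdy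
    hlam hrat hcor D0 hC hD hF
  have hκ0 : 1 ≤ kF q := kF_one q
  obtain ⟨i, Q0, hQ⟩ := H hLa bf cmp hh hdy univ A lam fun c _ => ⟨hl c, (hlam c).2, hrat c⟩
  have hQ1 : ∀ c, BlkXi F Bn R0 m Nb (1 / 64) (i c) c (A c) (lam c) (Q0 c) := fun c =>
    (hQ c (mem_univ c)).1
  have hQ2 : ∀ c y, ‖(Q0 c).ψ y‖ ≤ ‖y‖ := fun c => (hQ c (mem_univ c)).2
  refine ⟨i, Q0, hQ1, hQ2, ?_⟩
  have hsum : κ1f + τ1 + τ ≤ κe := by linarith
  have hgap : ∀ j : UX F, (1 / 2 + 1 / 32) * lam j.1 + κ1f * kF q * lam j.1 < 1 / 2 := by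
    intro j
    have h1 := hl j.1
    have h2 := hl4 j.1
    have h3 : κ1f * kF q ≤ 1 / 32 := by
      refine le_trans (mul_le_mul_of_nonneg_right ?_ (by linarith)) hκ1F
      linarith
    nlinarith
  have hcor3 : ∀ j : UX F, CoriE Om f1 (A j.1) j.1.1 (lam j.1) κ1f (1 / 32) := fun j =>
    Exg_766.cori_mono (hcor j.1) (bf.pos _ j.1.2) (hl j.1).le le_rfl (by norm_num)
  obtain ⟨r, hr0, -, hr2, -, hr⟩ := md_genU hOm hf bf (J := UX F) (b := fun j => j.1)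
    Subtype.val_injective (A := fun j => A j.1) (lam := fun j => lam j.1) (fun j => hl j.1)
    (κ1 := κ1f) (κ2 := 1 / 32) (κ3 := 1 / 64 + τ1) (τ := τ) (by linarith) hκf0 hτ0 hgap hcor3 hD hC
    (η := fun _ => 1) (fun _ => one_pos)
  refine ⟨r, hr0, hr2, fun w0 hw0 κw hκw => ?_⟩
  obtain ⟨M, h1, h2, h3, h4, h5, h6⟩ := hr (fun j : UX F => (Q0 j.1).tr (w0 j.1)) fun j =>
    n_tr_cbx (hQ1 j.1).N fun k => ((hw0 j.1).2 k).trans (le_of_eq (by ring))
  -- rational data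
  choose Bm d hd hrt ha using fun j : UX F => (hQ1 j.1).rt
  choose cc hcc hcn using fun j : UX F => exists_cn (ContinuousLinearEquiv.refl ℝ E3) (Q0 j.1).ψ
  obtain ⟨Y, -, -, -, hYB, hYR, hYc⟩ := exists_RD_tr M (Q0 := fun j : UX F => Q0 j.1)
    (w0 := fun j => w0 j.1) h3
    (κ0 := fun _ => 0) (κ := fun j => κw j.1) (fun _ => Nat.zero_le _) hd (by rw [h1]; exact hrt)
    (fun j l => by
      obtain ⟨z, hz⟩ := ha j l
      exact ⟨z, by rw [pow_zero, one_mul]; exact hz⟩)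
    (fun j l => by rw [h1]; exact hκw j.1 l) (fun _ => Bn) (fun _ => hBn)
    (fun j i p hp l => (hQ1 j.1).bnd i p hp l) (fun _ => R0) (fun _ => hR0)
    (fun j i hi u hu v hv l => (hQ1 j.1).size i hi u hu v hv l) (c := cc) hcc
    (by rw [h1]; exact hcn)
  refine ⟨M, Y, h1, h2, h3, h4, h5, hYB, hYR, hYc, ?_, ?_, ?_⟩
  · intro j x
    rw [h3]
    exact hQ2 j.1 x
  · intro j
    rw [h3]
    refine (n_tr_cbx (κ3 := 1 / 64 + τ1) (hQ1 j.1).N fun k => ((hw0 j.1).2 k).trans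
      (le_of_eq (by ring))).trans ?_
    refine preimage_mono (cbx_mono (bf.pos _ j.1.2) ?_)
    have := hl j.1
    nlinarith
  · intro c hc k hk a v hv
    choose uA huA0 huA1 huA using fun j : UX F => (hQ1 j.1).exists_uA hmp
    have hcf := cf_capN (Om := Om) (f := f1) (κ1 := κ1f + τ1) (κ2 := 1 / 16 + τ) (τ := τ) (η := η)
      (ε := κ1) (κm := κ1) hLa (dF_pos hq) (by norm_num : (0:ℝ) < 6) bf cmp (kF_one q) (cN_pos q)
      (cN_le q) lam hl hl4 hlam0 (fun c => (hlam c).1) (by linarith) hτ0 (by linarith)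
      (by linarith)
      (by
        have h7 : (κ1f + τ1 + τ) * kF q ≤ κ1 * kF q :=
          mul_le_mul_of_nonneg_right (by linarith) (by linarith)
        linarith)
      (by
        have h7 : (κ1f + τ1 + τ) * kF q ≤ κ1 * kF q :=
          mul_le_mul_of_nonneg_right (by linarith) (by linarith)
        linarith)
      (by linarith)
      (A := fun c => trA (A c) (w0 c))
      (fun c => by
        refine cor_tr' (hcor c) ((hw0 c).1.trans (le_of_eq (by ring))) fun k =>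
          ((hw0 c).2 k).trans ?_
        have h7 := hl c
        have h8 := Bx.side_pos (bf.pos _ c.2) k
        exact mul_le_mul_of_nonneg_right (by linarith) (by positivity))
      h1 h5
      (fun j => by
        rw [h3]
        exact kc_tr (hQ1 j.1).Kc (w0 j.1))
      (fun j => by
        refine (sub_trA (h6 j) (hw0 j.1).2).trans ?_
        refine preimage_mono (cbx_mono (bf.pos _ j.1.2) ?_)
        have := hl j.1
        nlinarith)
      (fun j v hv => by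
        simp only [trA_linear]
        rw [h4] at hv
        exact hr2 j v hv)
      Y (uA := uA) huA0
      (fun j x y => by
        rw [h3]
        exact uA_tr (huA j) (w0 j.1) x y)
      (fun j => by
        rw [hYR, h3]
        have e : ((Q0 j.1).tr (w0 j.1)).kc = 3 + i j.1 := (hQ1 j.1).kc
        rw [e]
        have h7 := huA1 j
        have h8 := Bx.sz_pos (bf.pos _ j.1.2)
        have h9 : lam j.1 ≤ 1 := (hl4 j.1).trans (by norm_num)
        have h10 := hl j.1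
        have h11 : 4 / m * (lam j.1 * j.1.1.sz) ≤ 4 / m * j.1.1.sz := by
          have : lam j.1 * j.1.1.sz ≤ j.1.1.sz := by nlinarith
          exact mul_le_mul_of_nonneg_left this (by positivity)
        have hp : (0:ℝ) < 2 ^ i j.1 := by positivity
        calc uA j * (R0 / 2 ^ (3 + i j.1))
            ≤ (2 ^ i j.1 * (4 / m * j.1.1.sz)) * (R0 / 2 ^ (3 + i j.1)) := by
              have : uA j ≤ 2 ^ i j.1 * (4 / m * j.1.1.sz) :=
                h7.trans (mul_le_mul_of_nonneg_left h11 hp.le)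
              gcongr
          _ = R0 / (2 * m) * j.1.1.sz := by
              rw [pow_add]
              field_simp
              ring
          _ ≤ η * j.1.1.sz := mul_le_mul_of_nonneg_right hmη h8.le)
      (by
        have h7 : KIT (dF q) (kF q) 6 (cN q) lam0 ≤ K := by
          have := le_abs_self (KIT (dF q) (kF q) 6 (cN q) lam0)
          linarith
        have h8 : 0 ≤ η + 2 * (κ1f + τ1 + τ) := by linarith
        calc KIT (dF q) (kF q) 6 (cN q) lam0 * (η + 2 * (κ1f + τ1 + τ))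
            ≤ K * (η + 2 * (κ1f + τ1 + τ)) := mul_le_mul_of_nonneg_right h7 h8
          _ ≤ K * (η + 2 * κe) := by gcongr
          _ = κ1 / 2 := by rw [hη, hκe]; field_simp; ring
          _ ≤ κ1 := by linarith)
      (by rw [h2]; exact hF) c hc k hk a v hv
    have e16 : (1 / 16 + τ - τ : ℝ) = 1 / 16 := by ring
    rw [e16] at hcf
    exact hcf

end

end Crest.Agent.R096.Mdd_360
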