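import Crest.Agent.R096.Pmc6_112
import Crest.Agent.R096.Bxc2_635
import Crest.Agent.R096.Np2_962
import Crest.Agent.R096.Pmc4_112

/-!
Row 96 (S0127), NO0 for `p ≥ 3` (helper635), leaf [X6] of 962's #11402: **the derivative of `Psi ∘ f`
for the foam `fN`** (= `Np_962.ΦN`; all bricks exact, concentric holes of ratio `lam c / 2`) as a
measurable field of linear maps, with the pointwise bound `KD κ0 c0 / lam c` over the brick `c` in every
direction (112's `ea_pushL` for `fN`).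
-/

set_option autoImplicit false
set_option linter.unusedSectionVars false
set_option linter.style.longLine false
set_option linter.unusedVariables false

open MeasureTheory Set Filter Topology
open scoped NNReal ENNReal

noncomputable section

namespace Crest.Agent.R096.Pdn_635

open Crest.Agent.R096.Bsp_628 Crest.Agent.R096.Brk5_582 Crest.Agent.R096.SkC1_961
open Crest.Agent.R096.Bxs_627 hiding E3
open Crest.Agent.R96.Push_899 hiding coreN
open Crest.Agent.R096.EaX_766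
open Crest.Agent.R096.Der_764 (OmH)
open Crest.Agent.R96.Acl_392 Crest.Agent.R96.Sob2_199 Crest.Agent.R96.Sob4_199
  Crest.Agent.R96.Sob5_199 Crest.Agent.R96.En10_199
open Crest.Agent.R096.PmcL_112 Crest.Agent.R096.Bxc1_635
open Crest.AnalysisR.VecCalc3 (R3)

variable {δ κ0 R c0 : ℝ} {La : Set E3} {F : Set (Bx (Fin 3))}

/-- the constant -/
def KD (κ0 c0 : ℝ) : ℝ := 18 * (2 / c0 ^ 2 + 72 * κ0)

theorem KD_nonneg (hκ : 1 ≤ κ0) : 0 ≤ KD κ0 c0 := by
  unfold KD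
  have : 0 ≤ κ0 := by linarith
  positivity

/-- **pointwise bound in every direction**: over the brick `c`, `‖∂_v (Psi ∘ f)‖ ≤ KD / lam c ‖∂_v f‖` -/
theorem dir_le_fN (bf : BoxFoam La F δ κ0) (cmp : Cmp F R) (hκ : 1 ≤ κ0) (hc : 0 < c0)
    (hc2 : c0 * (8 * κ0) ≤ 1) (lam : F → ℝ) (hl : ∀ c, 0 < lam c) (hl4 : ∀ c, lam c ≤ 1 / 4)
    {Om : Set E3} (hOm : IsOpen Om) (hLa : IsOpen La) {f : E3 → E3}
    {D D' : E3 → E3 →L[ℝ] E3} (hf : Hom3 f Om La)
    (hD : ∀ i, VWD Om volume (fun x => P3 (f x)) (fun x => P3 (D x (Pi.single i 1)))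
      (Pi.single i 1))
    (hD' : ∀ l, VWD (OmH (fN bf cmp hκ hc hc2 lam hl hl4) f Om) volume
      (fun x => P3 ((fN bf cmp hκ hc hc2 lam hl hl4).Psi (f x)))
      (fun x => P3 (D' x (Pi.single l 1))) (Pi.single l 1)) (v : E3) :
    ∀ᵐ x, x ∈ OmH (fN bf cmp hκ hc hc2 lam hl hl4) f Om →
      ∀ c : F, f x ∈ c.1.set → ‖D' x v‖ ≤ KD κ0 c0 / lam c * ‖D x v‖ := by
  obtain ⟨fi, hmap, -, -, -, hfc, -⟩ := id hf
  have hcount : Countable F := bf.countable.to_subtype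
  have hLE : IsOpen (LaE La) := isOpen_LaE hLa
  have hFC := foamN bf hκ hc hc2 lam hl hl4
  have hκ0 : 0 ≤ κ0 := by linarith
  set φ : E3 → R3 := fun x => P3 (f x) with hφd
  have hφ : ContinuousOn φ Om := P3.continuous.comp_continuousOn hfc
  have hOeq := fN_OmH bf cmp hκ hc hc2 lam hl hl4 hmap
  have hOO := hFC.isOpen_dom hLE hOm hφ
  have ha : ∀ (c : F) (i j : Fin 3), (brk' bf c).W i ≤ 4 * κ0 * (coreN bf c).W j := by
    intro c i j
    have h1 : (brk' bf c).W i ≤ κ0 * (brk' bf c).W j := asp' bf c i j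
    have h2 : (coreN bf c).W j = (brk' bf c).W j / 4 := coreBF_W (fun i => brk_pos bf c i) _ j
    rw [h2]
    linarith
  have h1 : VWD Om volume φ (fun x => P3 (D x v)) v := vwd_v hD v
  have h2 : VWD (Om ∩ φ ⁻¹' (Pun (LaE La) (holeN bf lam hl))) volume
      (fun x => Psi (brk' bf) (coreN bf) (holeN bf lam hl) (φ x))
      (fun x => P3 (D' x v)) v := by
    have h3 := vwd_v hD' v
    rw [hOeq] at h3
    exact Crest.Agent.R96.EaP_899.vwd_congr' hOO h3 fun x hx =>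
      fN_Psi' bf cmp hκ hc hc2 lam hl hl4 hmap hx.1
  filter_upwards [hFC.bound_off hLE hOm hφ h1 h2 (a := 4 * κ0) (by positivity) ha,
    hFC.bound_core hLE hOm hφ h1 h2 (fun _ _ => 4 * κ0) ha] with x g1 g2 hx c hxc
  rw [hOeq] at hx
  have hlc := hl c
  have hl1 : lam c ≤ 1 := (hl4 c).trans (by norm_num)
  have hn0 : 0 ≤ ‖(P3 (D x v) : R3)‖ := norm_nonneg _
  have hbig : 9 * (2 / c0 ^ 2 + 72 * κ0) ≤ 9 * (2 / c0 ^ 2 + 72 * κ0) / lam c := by
    rw [le_div_iff₀ hlc]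
    have : 0 ≤ 9 * (2 / c0 ^ 2 + 72 * κ0) := by positivity
    nlinarith
  have key : ‖(P3 (D' x v) : R3)‖ ≤ 9 * (2 / c0 ^ 2 + 72 * κ0) / lam c * ‖(P3 (D x v) : R3)‖ := by
    by_cases hcc : ∃ c₁, φ x ∈ IE (coreN bf c₁)
    · obtain ⟨c₁, hc₁⟩ := hcc
      have hce : c = c₁ := by
        refine hFC.core_unique (c := c₁) (c' := c) (IE_subset_SE _ hc₁) ?_
        exact fun i => Bx.mem_set.1 hxc i
      subst hce
      have g3 := g2 hx c hc₁
      have ht := hFC.tt_pos hx.2 c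
      have hW0 : ∀ i, 0 < (holeN bf lam hl c).W i := by
        intro i
        have h5 : (holeN bf lam hl c).W i = lam c / 2 * c.1.side i := by
          unfold holeN; rw [cb, hb_W]; rfl
        rw [h5]
        exact mul_pos (half_pos hlc) (Bx.side_pos (bf.pos _ c.2) i)
      have hmm : mm (coreN bf c) (holeN bf lam hl c) (co (φ x)) ≤ 1 / (2 * lam c) := by
        refine mm_le_of (hFC.inner c) (fun i => ?_) hW0 ht
        have h5 : (holeN bf lam hl c).W i = lam c / 2 * c.1.side i := by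
          unfold holeN; rw [cb, hb_W]; rfl
        have h6 : (coreN bf c).W i = c.1.side i / 4 := coreBF_W (fun i => brk_pos bf c i) _ i
        rw [h5, h6]
        apply le_of_eq
        field_simp
        ring
      have hmm0 := mm_pos (hFC.inner c) ht
      have key2 : ∀ i, |(P3 (D' x v) : R3) i| ≤ 108 * κ0 / lam c * ‖(P3 (D x v) : R3)‖ := by
        intro i
        refine (g3 i).trans ?_
        rw [← Finset.mul_sum]
        have h7 := sum_abs_le (P3 (D x v) : R3)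
        rw [Fintype.card_fin] at h7
        push_cast at h7
        calc 18 * mm (coreN bf c) (holeN bf lam hl c) (co (φ x)) *
            (4 * κ0 * ∑ i, |(P3 (D x v) : R3) i|)
            ≤ 18 * (1 / (2 * lam c)) * (4 * κ0 * (3 * ‖(P3 (D x v) : R3)‖)) := by
              apply mul_le_mul
              · linarith
              · exact mul_le_mul_of_nonneg_left h7 (by positivity)
              · exact mul_nonneg (by positivity) (Finset.sum_nonneg fun _ _ => abs_nonneg _)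
              · positivity
          _ = 108 * κ0 / lam c * ‖(P3 (D x v) : R3)‖ := by field_simp; ring
      calc ‖(P3 (D' x v) : R3)‖ ≤ ∑ i, |(P3 (D' x v) : R3) i| := norm_le_sum _
        _ ≤ ∑ _i : Fin 3, 108 * κ0 / lam c * ‖(P3 (D x v) : R3)‖ :=
            Finset.sum_le_sum fun i _ => key2 i
        _ = 324 * κ0 / lam c * ‖(P3 (D x v) : R3)‖ := by
            rw [Finset.sum_const, Finset.card_univ, Fintype.card_fin, nsmul_eq_mul]
            push_cast
            ring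
        _ ≤ 9 * (2 / c0 ^ 2 + 72 * κ0) / lam c * ‖(P3 (D x v) : R3)‖ := by
            apply mul_le_mul_of_nonneg_right _ hn0
            apply div_le_div_of_nonneg_right _ hlc.le
            have : 0 ≤ 2 / c0 ^ 2 := by positivity
            linarith
    · push Not at hcc
      refine (g1 hx hcc).trans ?_
      apply mul_le_mul_of_nonneg_right _ hn0
      refine le_trans (le_of_eq ?_) hbig
      rw [Fintype.card_fin]
      push_cast
      ring
  calc ‖D' x v‖ ≤ ‖(P3 (D' x v) : R3)‖ := norm_le_P3 _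
    _ ≤ 9 * (2 / c0 ^ 2 + 72 * κ0) / lam c * ‖(P3 (D x v) : R3)‖ := key
    _ ≤ 9 * (2 / c0 ^ 2 + 72 * κ0) / lam c * (2 * ‖D x v‖) :=
        mul_le_mul_of_nonneg_left (Er_594.norm_P3_le _) (by positivity)
    _ = KD κ0 c0 / lam c * ‖D x v‖ := by unfold KD; ring

/-- **[X6]: the derivative of `Psi ∘ f`, foam `fN`** -/
theorem push_fN_dir (bf : BoxFoam La F δ κ0) (cmp : Cmp F R) (hκ : 1 ≤ κ0) (hc : 0 < c0)
    (hc2 : c0 * (8 * κ0) ≤ 1) (lam : F → ℝ) (hl : ∀ c, 0 < lam c) (hl4 : ∀ c, lam c ≤ 1 / 4)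
    {Om : Set E3} (hOm : IsOpen Om) (hLa : IsOpen La) {f : E3 → E3}
    {D : E3 → E3 →L[ℝ] E3} (hf : Hom3 f Om La)
    (hD : ∀ i, VWD Om volume (fun x => P3 (f x)) (fun x => P3 (D x (Pi.single i 1)))
      (Pi.single i 1)) :
    ∃ D' : E3 → E3 →L[ℝ] E3,
      (∀ v, Measurable fun y => D' y v) ∧
      (∀ x, x ∉ OmH (fN bf cmp hκ hc hc2 lam hl hl4) f Om → D' x = 0) ∧
      (∀ l, VWD (OmH (fN bf cmp hκ hc hc2 lam hl hl4) f Om) volume
        (fun x => P3 ((fN bf cmp hκ hc hc2 lam hl hl4).Psi (f x)))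
        (fun x => P3 (D' x (Pi.single l 1))) (Pi.single l 1)) ∧
      (∀ᵐ x, ∀ c : F, f x ∈ c.1.set → ∀ v, ‖D' x v‖ ≤ KD κ0 c0 / lam c * ‖D x v‖) ∧
      (∀ᵐ x, ∀ c : F, f x ∈ c.1.set → ∀ v,
        Crest.Agent.R096.Pmc_112.Gd' D' v x ≤ ENNReal.ofReal (KD κ0 c0 / lam c) * ‖D x v‖ₑ) ∧
      (∀ᵐ x, ∀ c : F, f x ∈ c.1.set → ‖D' x‖ ≤ KD κ0 c0 / lam c * ‖D x‖) := by
  obtain ⟨fi, hmap, -, -, -, hfc, -⟩ := id hf
  have hcount : Countable F := bf.countable.to_subtype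
  have hLE : IsOpen (LaE La) := isOpen_LaE hLa
  have hFC := foamN bf hκ hc hc2 lam hl hl4
  set φ : E3 → R3 := fun x => P3 (f x) with hφd
  have hφ : ContinuousOn φ Om := P3.continuous.comp_continuousOn hfc
  have hOeq := fN_OmH bf cmp hκ hc hc2 lam hl hl4 hmap
  have hOO := hFC.isOpen_dom hLE hOm hφ
  have hOH : IsOpen (OmH (fN bf cmp hκ hc hc2 lam hl hl4) f Om) := by rw [hOeq]; exact hOO
  -- the weak derivatives
  have hex : ∀ l : Fin 3, ∃ D', VWD (OmH (fN bf cmp hκ hc hc2 lam hl hl4) f Om) volume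
      (fun x => P3 ((fN bf cmp hκ hc hc2 lam hl hl4).Psi (f x))) D' (Pi.single l 1) := by
    intro l
    rw [hOeq]
    have h1 : VWD (Om ∩ φ ⁻¹' (Pun (LaE La) (holeN bf lam hl))) volume φ
        (fun x => P3 (D x (Pi.single l 1))) (Pi.single l 1) := fun i =>
      wd_mono (hD l i) inter_subset_left
    obtain ⟨D', hD'⟩ := comp_exists hOO h1 (hφ.mono inter_subset_left)
      (S := Pun (LaE La) (holeN bf lam hl)) (fun x hx => hx.2) (hFC.locLip hLE)
    exact ⟨D', Crest.Agent.R96.EaP_899.vwd_congr' hOO hD' fun x hx =>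
      (fN_Psi' bf cmp hκ hc hc2 lam hl hl4 hmap hx.1).symm⟩
  choose D0 hD0 using hex
  obtain ⟨L, g1, g2, g3, g4⟩ := exists_ver hOH hD0
  have hK := KD_nonneg (c0 := c0) hκ
  have hptw : ∀ᵐ x, ∀ c : F, f x ∈ c.1.set → ∀ v, ‖L x v‖ ≤ KD κ0 c0 / lam c * ‖D x v‖ := by
    obtain ⟨s, hs1, hs2⟩ := TopologicalSpace.exists_countable_dense E3
    have h5 : ∀ᵐ x, ∀ v ∈ s, x ∈ OmH (fN bf cmp hκ hc hc2 lam hl hl4) f Om →
        ∀ c : F, f x ∈ c.1.set → ‖L x v‖ ≤ KD κ0 c0 / lam c * ‖D x v‖ :=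
      (ae_ball_iff hs1).2 fun v _ => dir_le_fN bf cmp hκ hc hc2 lam hl hl4 hOm hLa hf hD g4 v
    filter_upwards [h5] with x hx c hxc v
    by_cases hxO : x ∈ OmH (fN bf cmp hκ hc hc2 lam hl hl4) f Om
    · have hcl : IsClosed {v : E3 | ‖L x v‖ ≤ KD κ0 c0 / lam c * ‖D x v‖} :=
        isClosed_le (L x).continuous.norm (continuous_const.mul (D x).continuous.norm)
      have h6 : s ⊆ {v : E3 | ‖L x v‖ ≤ KD κ0 c0 / lam c * ‖D x v‖} := fun v hv =>
        hx v hv hxO c hxc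
      have h7 := hcl.closure_subset_iff.2 h6
      exact h7 (hs2 v)
    · rw [g2 x hxO, zero_apply, norm_zero]
      exact mul_nonneg (div_nonneg hK (hl c).le) (norm_nonneg _)
  refine ⟨L, g1, g2, g4, hptw, ?_, ?_⟩
  · filter_upwards [hptw] with x hx c hxc v
    have h1 := hx c hxc v
    unfold Crest.Agent.R096.Pmc_112.Gd'
    rw [← ofReal_norm, ← ofReal_norm, ← ENNReal.ofReal_mul (div_nonneg hK (hl c).le)]
    exact ENNReal.ofReal_le_ofReal h1
  · filter_upwards [hptw] with x hx c hxc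
    refine ContinuousLinearMap.opNorm_le_bound _
      (mul_nonneg (div_nonneg hK (hl c).le) (norm_nonneg _)) fun v => ?_
    refine (hx c hxc v).trans ?_
    rw [mul_assoc]
    exact mul_le_mul_of_nonneg_left ((D x).le_opNorm v) (div_nonneg hK (hl c).le)

/-- the constant for `Np_962.ΦN` -/
def Kq (q : ℕ) : ℝ := KD (Dic6_582.kF q) (Npr_582.cN q)

theorem Kq_nonneg (q : ℕ) : 0 ≤ Kq q := KD_nonneg (Np_962.kF_one q)

/-- **[X6] for `Np_962.ΦN`** and `f1` of `ExFront3` -/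
theorem push_PhiN {p : ℝ} {q : ℕ} {F : Set (Bx (Fin 3))}
    (bf : BoxFoam La F (Dic6_582.dF q) (Dic6_582.kF q)) (cmp : Cmp F 6) (lam : F → ℝ)
    (hl : ∀ c, 0 < lam c) (hl4 : ∀ c, lam c ≤ 1 / 4) {Om : Set E3} (hOm : IsOpen Om)
    (hLa : IsOpen La) {f : E3 → E3} {D : E3 → E3 →L[ℝ] E3} (hf : Er_594.SH3 p Om La f D) :
    ∃ D' : E3 → E3 →L[ℝ] E3,
      (∀ v, Measurable fun y => D' y v) ∧
      (∀ x, x ∉ OmH (Np_962.ΦN bf cmp lam hl hl4) f Om → D' x = 0) ∧
      (∀ l, VWD (OmH (Np_962.ΦN bf cmp lam hl hl4) f Om) volume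
        (fun x => P3 ((Np_962.ΦN bf cmp lam hl hl4).Psi (f x)))
        (fun x => P3 (D' x (Pi.single l 1))) (Pi.single l 1)) ∧
      (∀ᵐ x, ∀ c : F, f x ∈ c.1.set → ∀ v, ‖D' x v‖ ≤ Kq q / lam c * ‖D x v‖) ∧
      (∀ᵐ x, ∀ c : F, f x ∈ c.1.set → ∀ v,
        Crest.Agent.R096.Pmc_112.Gd' D' v x ≤ ENNReal.ofReal (Kq q / lam c) * ‖D x v‖ₑ) ∧
      (∀ᵐ x, ∀ c : F, f x ∈ c.1.set → ‖D' x‖ ≤ Kq q / lam c * ‖D x‖) :=
  push_fN_dir bf cmp (Np_962.kF_one q) (Np_962.cN_pos q) (Np_962.cN_le q) lam hl hl4 hOm hLa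
    hf.homeo hf.vwd

end Crest.Agent.R096.Pdn_635
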