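import Crest.Agent.R096.Enn1_766
import Crest.Agent.R096.Mdn1_360
import Crest.Agent.R096.Gin1_635
import Crest.Agent.R096.Eau5b_365
import Crest.Agent.R096.Eau2_365
import Crest.Agent.R096.Eds6_746
import Crest.Agent.R096.Pdn1_635

/-!
Row 96 (S0127), helper766.  **`ExBlkN p`** (`Bmd_798`), part 1: one brick (good set of translations, dyadic
pre-translation, energies).
-/

set_option autoImplicit false
set_option linter.style.longLine false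
set_option linter.unusedSectionVars false
set_option linter.unusedVariables false

open MeasureTheory Set Filter Topology Metric
open scoped ENNReal NNReal

namespace Crest.Agent.R096.Exb_766

open Crest.Agent.R096.Msh_715 Crest.Agent.R096.Mal_874 Crest.Agent.R096.Cut_874
  Crest.Agent.R096.Msh_810 Crest.Agent.R096.Ine_222 Crest.Agent.R096.Mfi_290
open Crest.Agent.R096.SkC1_961 (E3 Hom3 FoamD)
open Crest.Agent.R096.Er_594 (SH3)
open Crest.Agent.R096.Bsp_628 Crest.Agent.R096.Brk5_582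
open Crest.Agent.R096.Bxs_627 (ctr CoriE zz)
open Crest.Agent.R096.EaX_766 (lin cbx ExIn Kor RatA)
open Crest.Agent.R096.Exa_365 Crest.Agent.R096.Acc_365
open Crest.Agent.R096.Ls_222 (Edg ea ev eIn mem_eIn)
open Crest.Agent.R096.Pmc_112 (Gd')
open Crest.Agent.R096.Eds_746 (EB)
open Crest.Agent.R96.Wm4_748 (K3)
open Crest.Agent.R096.Mdd_360 (BlkXi)
open Crest.Agent.R096.Enn_766
open Crest.Agent.R96.Gj_872 (Dy)

noncomputable section

/-- **one brick of `Front3`** -/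
theorem one_brick {p : ℝ} (hp : 1 ≤ p) (Bn : ℕ) {R0 : ℝ} (hR0 : 1 ≤ R0) (hBn : 1 ≤ Bn) :
    ∃ C4 : ℝ≥0, ∀ {Om La : Set E3} {f : E3 → E3} {D : E3 → E3 →L[ℝ] E3}, IsOpen Om →
      SH3 p Om La f D → ∀ {δ κ0 : ℝ} {F : Set (Bx (Fin 3))} (bf : BoxFoam La F δ κ0), 1 ≤ κ0 →
      ∀ {o : E3} {u κ1f : ℝ} {c : F} {A : E3 ≃ᵃ[ℝ] E3} {lam : ℝ}, 0 < lam → lam ≤ 1 / 4 →
      ExIn p Om f D o u κ1f (1 / 8) c.1 A lam →
      ∀ {m Nb i : ℕ} {Q : CB E3 3}, 0 < m → BlkXi F Bn R0 m Nb (1 / 64) i c A lam Q →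
      ∀ {τ1 : ℝ}, 0 < τ1 → τ1 ≤ 1 / 256 → ∀ {dk : ℕ}, 2 * κ0 / τ1 ≤ 2 ^ dk →
      ∀ {k0 : ℕ} (hk : Q.kc ≤ k0), k0 = Q.kc + dk →
      ∀ {NC : ℕ}, (EB Q k0 hk).Finite → (EB Q k0 hk).ncard ≤ NC → ∀ {η : ℝ}, 0 < η → η ≤ 1 →
      0 ≤ κ1f → κ1f * κ0 ≤ 1 / 2 → κ1f * κ0 ^ 3 ≤ 1 →
      (NC : ℝ) * κ1f ≤ (1 / 4) * η * (τ1 / (2 * κ0)) ^ 3 →
      ∀ {D' : E3 → E3 →L[ℝ] E3}, (∀ v, Measurable fun z => D' z v) → ∀ {Kq : ℝ}, 0 ≤ Kq →
      (∀ᵐ x, f x ∈ c.1.set → ∀ v, ‖D' x v‖ ≤ Kq / lam * ‖D x v‖) →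
      ∀ {r : ℝ}, 0 < r →
      ∃ (w0 : E3) (κw : ℕ) (G : Set E3), w0 ∈ Dy (ContinuousLinearEquiv.refl ℝ E3) κw ∧
        (‖A.linear w0‖ ≤ τ1 * (lam * c.1.sz) ∧ ∀ k, |A.linear w0 k| ≤ τ1 * (lam * c.1.side k)) ∧
        MeasurableSet {s : E3 | ‖s‖ ≤ r ∧ w0 + s ∈ G} ∧
        volume {s : E3 | ‖s‖ ≤ r ∧ w0 + s ∈ G} ≠ 0 ∧
        ∀ w ∈ G, GoodW p Om f D A (fun e : EB Q k0 hk => ea e.1) (fun e => ev e.1)
            (ENNReal.ofReal η) w ∧
          ∀ {J : Type} (M : MD E3 3 J) (X : RD M) (j : J) (s : E3), M.Q j = Q.tr w0 →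
            w0 + s = w → X.B j ≤ Bn → X.R j ≤ R0 →
            ∀ (hk0 : (M.Q j).kc ≤ k0),
            ∑' c', (Uni_663.toPTU (QI M X j k0 hk0)).EnC (Gd' D') p c' s ≤
              KBN p C4 (K3 p (Mfb_290.nE Bn R0) 2 1 1 181) Kq *
                (ENNReal.ofReal ((1 / lam * ‖lin A‖) ^ p) * volume (A ⁻¹' cbx c.1 lam)) := by
  obtain ⟨C4, -, HE⟩ := Eau_365.block_en0 hp Bn hR0 hBn
  refine ⟨C4, ?_⟩
  intro Om La f D hO h δ κ0 F bf hκ0 o u κ1f c A lam hl hl4 hE m Nb i Q hm hB τ1 hτ1 hτ1' dk hdk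
    k0 hk hk0 NC hfin hcard η hη hη1 hκf hκf1 hκf3 hNC D' hDm Kq hKq hD' r hr
  have hpos : c.1.Pos := bf.pos _ c.2
  have hasp : ∀ k, c.1.sz ≤ κ0 * c.1.side k := fun k => bf.asp _ c.2 k
  have hsz : 0 < c.1.sz := Bx.sz_pos hpos
  have hκ0' : 0 < κ0 := by linarith
  set ρ0 : ℝ := τ1 / (2 * κ0) with hρ0
  have hρ00 : 0 < ρ0 := by positivity
  set ρ : ℝ := ρ0 * (lam * c.1.sz) with hρd
  have hρ : 0 < ρ := by positivity
  -- `ρ ≤ (τ1 / 2) lam side`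
  have hρs : ∀ k, ρ ≤ τ1 / 2 * (lam * c.1.side k) := by
    intro k
    have h1 : lam * c.1.sz ≤ lam * (κ0 * c.1.side k) := mul_le_mul_of_nonneg_left (hasp k) hl.le
    calc ρ ≤ ρ0 * (lam * (κ0 * c.1.side k)) := mul_le_mul_of_nonneg_left h1 hρ00.le
      _ = τ1 / 2 * (lam * c.1.side k) := by
        rw [hρ0]
        field_simp
  obtain ⟨s, hs, hs1, hs2⟩ := hB.psi
  have hs' : 0 < 2 ^ i * s := by positivity
  have hψ : ∀ y, Q.ψ y = (2 ^ i * s)⁻¹ • lin A y := fun y => hs2 y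
  have hm' : (1:ℝ) ≤ m := by exact_mod_cast hm
  have hscale : 2 ^ i * s * (1 / 2 ^ k0) ≤ ρ := by
    have e1 : (2:ℝ) ^ k0 = 8 * 2 ^ i * 2 ^ dk := by
      rw [hk0, hB.kc, pow_add, pow_add]
      norm_num
    have h2 : s ≤ 4 * (lam * c.1.sz) := by
      have : s ≤ m * s := le_mul_of_one_le_left hs.le hm'
      linarith
    have h3 : 1 / (2:ℝ) ^ dk ≤ ρ0 := by
      have h4 : 2 * κ0 / τ1 = 1 / ρ0 := by rw [hρ0, one_div_div]
      rw [h4] at hdk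
      rw [div_le_iff₀ (by positivity)]
      rw [div_le_iff₀ hρ00] at hdk
      linarith
    calc 2 ^ i * s * (1 / 2 ^ k0) = s / 8 * (1 / 2 ^ dk) := by
          rw [e1]
          field_simp
      _ ≤ (4 * (lam * c.1.sz)) / 8 * ρ0 := by gcongr
      _ ≤ ρ := by
        rw [hρd]
        have : 0 ≤ ρ0 * (lam * c.1.sz) := by positivity
        linarith
  set μ : ℝ := (1 + 2 * (1 / 64)) * lam with hμ
  have hroom : ∀ k, μ * c.1.side k / 2 + ρ ≤ (1 + 2 * (1 / 8 : ℝ)) * lam * c.1.side k / 2 := by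
    intro k
    have h1 := hρs k
    have h2 : 0 < lam * c.1.side k := mul_pos hl (Bx.side_pos hpos k)
    have h3 : τ1 / 2 * (lam * c.1.side k) ≤ 1 / 512 * (lam * c.1.side k) := by
      apply mul_le_mul_of_nonneg_right _ h2.le
      linarith
    rw [hμ]
    nlinarith
  have hNC' : (NC : ℝ) * (κ1f * (lam * c.1.sz) ^ 3) ≤ (1 / 4) * η * ρ ^ 3 := by
    have h1 : 0 ≤ (lam * c.1.sz) ^ 3 := by positivity
    calc (NC : ℝ) * (κ1f * (lam * c.1.sz) ^ 3) = ((NC : ℝ) * κ1f) * (lam * c.1.sz) ^ 3 := by ring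
      _ ≤ ((1 / 4) * η * ρ0 ^ 3) * (lam * c.1.sz) ^ 3 := mul_le_mul_of_nonneg_right hNC h1
      _ = _ := by rw [hρd]; ring
  set S : Set E3 := A ⁻¹' cbx c.1 ((1 + 2 * (1 / 8 : ℝ)) * lam) with hS
  have hSm : MeasurableSet S := measurableSet_K1 A c.1 _
  have hSD : ∀ᵐ x, x ∈ S → ∀ v, ‖D' x v‖ ≤ Kq / lam * ‖D x v‖ := by
    filter_upwards [hD'] with x hx hxS
    refine hx ?_
    have h1 := hE.cor x (Or.inr hxS)
    have h2 := Eds_746.mem_brk_of_near (κ2 := 1 / 8) bf hl hκf (by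
      have h3 : κ1f * κ0 * lam ≤ 1 / 2 * (1 / 4) := by
        refine mul_le_mul hκf1 hl4 hl.le (by norm_num)
      nlinarith) (x := x) hxS h1.2
    exact ⟨fun k => (h2 k).1.le, fun k => (h2 k).2.le⟩
  have hSA : ∀ y ∈ Q.N, y ∉ interior Q.Kc → ∀ v ∈ Wt A ρ, y + v ∈ S := by
    intro y hy _ v hv k
    have h1 : |A y k - ctr c.1 k| ≤ μ * c.1.side k / 2 := hB.N hy k
    have h2 : A (y + v) = A y + lin A v := aff_add A y v
    have h3 : 0 ≤ lin A v k := hv.1 k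
    have h4 : lin A v k ≤ ρ := hv.2 k
    have h5 := hroom k
    show |A (y + v) k - ctr c.1 k| ≤ _
    rw [h2, Pi.add_apply]
    rw [abs_le] at h1 ⊢
    constructor <;> linarith [h1.1, h1.2]
  obtain ⟨G, g1, g2, g3, g4⟩ := HE hO h hE hs' hψ hB.N hB.bnd hB.size hk hρ hscale hroom hfin hcard
    hη (by positivity) hNC' hDm (by positivity : 0 ≤ Kq / lam) hSm hSD hSA
  -- the dyadic pre-translation
  set dd : ℝ := ρ / (‖lin A‖ + 1) with hdd
  have hdd0 : 0 < dd := by positivity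
  obtain ⟨w0, κw, hw1, ⟨x, hxG, hwx⟩, hw2⟩ := Eau_365.exists_w0 g3 hr hdd0
  have hx := g2 hxG
  have hb1 : ‖lin A (w0 - x)‖ ≤ ρ := by
    calc ‖lin A (w0 - x)‖ ≤ ‖lin A‖ * ‖w0 - x‖ := (lin A).le_opNorm _
      _ ≤ (‖lin A‖ + 1) * dd := by
        refine mul_le_mul (by linarith) hwx.le (norm_nonneg _) (by positivity)
      _ = ρ := by rw [hdd]; field_simp
  have hb2 : ∀ k, |A.linear w0 k| ≤ 2 * ρ := by
    intro k
    have h1 : A.linear w0 k = lin A x k + lin A (w0 - x) k := by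
      have h2 : lin A w0 = lin A x + lin A (w0 - x) := by rw [← map_add]; congr 1; abel
      have h3 : A.linear w0 = lin A w0 := rfl
      rw [h3, h2, Pi.add_apply]
    have h4 : |lin A (w0 - x) k| ≤ ρ := by
      have h5 := norm_le_pi_norm (lin A (w0 - x)) k
      rw [Real.norm_eq_abs] at h5
      exact h5.trans hb1
    have h6 : |lin A x k| ≤ ρ := by
      rw [abs_of_nonneg (hx.1 k)]
      exact hx.2 k
    rw [h1]
    exact (abs_add_le _ _).trans (by linarith)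
  refine ⟨w0, κw, G, hw1, ⟨?_, fun k => ?_⟩, Eau_365.measurable_Gd g1 r w0, hw2, fun w hw => ?_⟩
  · rw [pi_norm_le_iff_of_nonneg (by positivity)]
    intro k
    rw [Real.norm_eq_abs]
    refine (hb2 k).trans ?_
    rw [hρd, hρ0]
    have h1 : τ1 / (2 * κ0) ≤ τ1 / 2 := by
      apply div_le_div_of_nonneg_left hτ1.le (by norm_num)
      linarith
    have h2 : 0 ≤ lam * c.1.sz := by positivity
    nlinarith [mul_le_mul_of_nonneg_right h1 h2]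
  · refine (hb2 k).trans ?_
    have := hρs k
    linarith
  · obtain ⟨g5, g6⟩ := g4 w hw
    refine ⟨g5, ?_⟩
    intro J M X j s' hMQ hws hXB hXR hk0'
    refine (g6 M X j w0 s' hMQ hws hXB hXR hk0' _ _ _ _).trans ?_
    refine block_le hp hκf hκf3 hpos hl hasp (by norm_num) (by norm_num) hE hSm (le_refl _) ?_ hKq
      hη1 hSD C4 (K3 p (Mfb_290.nE Bn R0) 2 1 1 181)
    intro y hy k
    have h1 : |A y k - ctr c.1 k| ≤ μ * c.1.side k / 2 := hB.N hy.1 k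
    refine h1.trans ?_
    have := hroom k
    linarith

end

end Crest.Agent.R096.Exb_766
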