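import Mathlib
import Crest.Agent.R096.Agl6_543

/-! # Interlacing of the ends of crossing level components (row 96, helper965)

`F` a two-dimensional cell, `u'` continuous on `F` with a regular level `c'` on the boundary.
A preconnected set `K` joining two boundary points with different signs of `u' - c'`, which meets
the level `c'` only in one component `β`, interlaces the two boundary points of `β`. -/

set_option autoImplicit false

open Set Filter Topology Metric

namespace Crest.Agent.R096.Exb_965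

open Crest.Agent.R096.Msh_715 Crest.Agent.R096.Pat4_543 Crest.Agent.R096.Pat5_543
  Crest.Agent.R096.Agl5_543

/-- no zero on a compact interval: no sign change -/
theorem sign_of_ne {f : ℝ → ℝ} {a b : ℝ} (hab : a ≤ b) (hf : ContinuousOn f (Icc a b))
    (h0 : ∀ t ∈ Icc a b, f t ≠ 0) : 0 < f a * f b := by
  have ha := h0 a (left_mem_Icc.2 hab)
  have hb := h0 b (right_mem_Icc.2 hab)
  rcases lt_or_gt_of_ne ha with h1 | h1 <;> rcases lt_or_gt_of_ne hb with h2 | h2
  · exact mul_pos_of_neg_of_neg h1 h2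
  · obtain ⟨t, ht, hft⟩ := intermediate_value_Icc hab hf ⟨h1.le, h2.le⟩
    exact absurd hft (h0 t ht)
  · obtain ⟨t, ht, hft⟩ := intermediate_value_Icc' hab hf ⟨h2.le, h1.le⟩
    exact absurd hft (h0 t ht)
  · exact mul_pos h1 h2

/-- **parity of sign changes** -/
theorem parity {f : ℝ → ℝ} (n : ℕ) : ∀ {a b : ℝ}, a < b → ContinuousOn f (Icc a b) → f a ≠ 0 →
    f b ≠ 0 → {t | t ∈ Ioo a b ∧ f t = 0}.Finite → {t | t ∈ Ioo a b ∧ f t = 0}.ncard = n →
    (∀ t ∈ Ioo a b, f t = 0 → ∃ δ > 0, ∀ s, 0 < s → s < δ → f (t - s) * f (t + s) < 0) →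
    (Odd n ↔ f a * f b < 0) := by
  induction n with
  | zero =>
    intro a b hab hf ha hb hfin hn _
    rw [ncard_eq_zero hfin] at hn
    have h0 : ∀ t ∈ Icc a b, f t ≠ 0 := by
      intro t ht h
      rcases eq_or_lt_of_le ht.1 with e | e
      · exact ha (by rw [e]; exact h)
      rcases eq_or_lt_of_le ht.2 with e' | e'
      · exact hb (by rw [← e']; exact h)
      have : t ∈ {t | t ∈ Ioo a b ∧ f t = 0} := ⟨⟨e, e'⟩, h⟩
      rw [hn] at this
      exact this
    have := sign_of_ne hab.le hf h0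
    constructor
    · intro h; exact absurd h (by decide)
    · intro h; exact absurd this (by linarith)
  | succ n ih =>
    intro a b hab hf ha hb hfin hn hsg
    set Z := {t | t ∈ Ioo a b ∧ f t = 0} with hZ
    have hne : Z.Nonempty := by
      rw [← ncard_pos hfin, hn]; omega
    obtain ⟨t₀, ht₀, hmax⟩ := Set.exists_max_image Z id hfin hne
    obtain ⟨δ, hδ, hd⟩ := hsg t₀ ht₀.1 ht₀.2
    -- the other zeros are at positive distance
    have hfin' : (Z \ {t₀}).Finite := hfin.subset sdiff_subset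
    have hnb : (Z \ {t₀})ᶜ ∈ 𝓝 t₀ := hfin'.isClosed.isOpen_compl.mem_nhds (by simp)
    obtain ⟨ε, hε, hball⟩ := Metric.mem_nhds_iff.1 hnb
    obtain ⟨s, hs0, hs⟩ : ∃ s > 0, s < min (min δ ε) (min (t₀ - a) (b - t₀)) := by
      refine ⟨min (min δ ε) (min (t₀ - a) (b - t₀)) / 2, ?_, ?_⟩
      · have h1 : 0 < t₀ - a := by linarith [ht₀.1.1]
        have h2 : 0 < b - t₀ := by linarith [ht₀.1.2]
        positivity
      · have h1 : 0 < t₀ - a := by linarith [ht₀.1.1]
        have h2 : 0 < b - t₀ := by linarith [ht₀.1.2]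
        have : 0 < min (min δ ε) (min (t₀ - a) (b - t₀)) := by positivity
        linarith
    have hsδ : s < δ := hs.trans_le ((min_le_left _ _).trans (min_le_left _ _))
    have hsε : s < ε := hs.trans_le ((min_le_left _ _).trans (min_le_right _ _))
    have hsa : s < t₀ - a := hs.trans_le ((min_le_right _ _).trans (min_le_left _ _))
    have hsb : s < b - t₀ := hs.trans_le ((min_le_right _ _).trans (min_le_right _ _))
    have hch := hd s hs0 hsδ
    -- the zeros left of `t₀ - s`
    have hset : {t | t ∈ Ioo a (t₀ - s) ∧ f t = 0} = Z \ {t₀} := by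
      ext t
      constructor
      · rintro ⟨⟨h1, h2⟩, h3⟩
        exact ⟨⟨⟨h1, by linarith [ht₀.1.2]⟩, h3⟩, fun h => by
          rw [mem_singleton_iff] at h; rw [h] at h2; linarith⟩
      · rintro ⟨⟨⟨h1, h2⟩, h3⟩, h4⟩
        refine ⟨⟨h1, ?_⟩, h3⟩
        by_contra h5
        push Not at h5
        have h6 : t ≤ t₀ := hmax t ⟨⟨h1, h2⟩, h3⟩
        have h7 : t ∈ ball t₀ ε := by
          rw [mem_ball, Real.dist_eq, abs_lt]; constructor <;> linarith
        exact hball h7 ⟨⟨⟨h1, h2⟩, h3⟩, h4⟩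
    have hc' : (Z \ {t₀}).ncard = n := by
      rw [ncard_sdiff_singleton_of_mem ht₀, hn]; rfl
    have h1 := ih (a := a) (b := t₀ - s) (by linarith)
      (hf.mono (Icc_subset_Icc le_rfl (by linarith [ht₀.1.2]))) ha
      (by intro h; rw [h] at hch; simp at hch)
      (by rw [hset]; exact hfin') (by rw [hset]; exact hc')
      (fun t ht h => hsg t ⟨ht.1, by linarith [ht.2, ht₀.1.2]⟩ h)
    have h2 : 0 < f (t₀ + s) * f b := by
      refine sign_of_ne (by linarith) (hf.mono (Icc_subset_Icc (by linarith [ht₀.1.1]) le_rfl)) ?_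
      intro t ht h
      rcases eq_or_lt_of_le ht.2 with e | e
      · exact hb (by rw [← e]; exact h)
      have h3 : t ≤ t₀ := hmax t ⟨⟨by linarith [ht.1, ht₀.1.1], e⟩, h⟩
      linarith [ht.1]
    rw [Nat.odd_add_one, h1]
    constructor
    · intro h
      have h3 : 0 < f a * f (t₀ - s) := by
        rcases lt_trichotomy (f a * f (t₀ - s)) 0 with h4 | h4 | h4
        · exact absurd h4 h
        · rcases mul_eq_zero.1 h4 with h5 | h5
          · exact absurd h5 ha
          · rw [h5] at hch; simp at hch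
        · exact h4
      by_contra h4
      push Not at h4
      nlinarith [mul_pos h3 h2, mul_nonneg_of_nonpos_of_nonpos hch.le
        (by linarith : -(f a * f b) ≤ 0)]
    · intro h h3
      nlinarith [mul_pos_of_neg_of_neg h h3, mul_pos_of_neg_of_neg h hch, mul_pos h2 h2]

variable {E : Type} [NormedAddCommGroup E] [NormedSpace ℝ E] [FiniteDimensional ℝ E]
variable {Om : Set E} {ι : Type} {T : Tiling Om ι}

/-- the boundary circle of a 2-cell -/
noncomputable def ci (F : C2 T) (t : ℝ) : E := F.par (Complex.exp ((t : ℝ) * Complex.I))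

theorem exp_sphere (t : ℝ) : Complex.exp ((t : ℝ) * Complex.I) ∈ sphere (0 : ℂ) 1 := by
  rw [mem_sphere_zero_iff_norm, Complex.norm_exp_ofReal_mul_I]

theorem ci_mem (F : C2 T) (t : ℝ) : ci F t ∈ F.bd := by
  rw [← F.isDisc.bd]; exact mem_image_of_mem _ (exp_sphere t)

theorem ci_pos (F : C2 T) {w : E} (hw : w ∈ F.bd) : ci F (F.pos w) = w := by
  unfold ci
  rw [F.exp_pos hw]
  exact (F.inv_mem (F.bd_sub hw)).2

theorem pos_ci (F : C2 T) {t : ℝ} (h1 : -Real.pi < t) (h2 : t ≤ Real.pi) : F.pos (ci F t) = t := by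
  unfold ci C2.pos
  rw [F.inv_par (sphere_subset_closedBall (exp_sphere t)), Complex.arg_exp_mul_I,
    toIocMod_eq_self]
  exact ⟨h1, by linarith⟩

theorem continuous_ci (F : C2 T) {u : E → ℝ} (hu : ContinuousOn u F.set) :
    Continuous fun t => u (ci F t) := by
  refine (F.isDisc.contComp hu).comp_continuous (by fun_prop) fun t => ?_
  exact sphere_subset_closedBall (exp_sphere t)

theorem sign_change (F : C2 T) {u : E → ℝ} {c : ℝ} (hu : ContinuousOn u F.set)
    (hr : RegOn u F.bd c) {t : ℝ} (ht : u (ci F t) - c = 0) :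
    ∃ δ > 0, ∀ s, 0 < s → s < δ → (u (ci F (t - s)) - c) * (u (ci F (t + s)) - c) < 0 := by
  have h1 := RegOn.signs (F.isDisc.contComp hu) (F.isDisc.reg hr)
    (mem_sphere_zero_iff_norm.1 (exp_sphere t)) (by
      have : u (ci F t) = c := by linarith
      exact this)
  have e1 : ∀ s : ℝ, Complex.exp ((t : ℝ) * Complex.I) * Complex.exp ((s : ℝ) * Complex.I)
      = Complex.exp (((t + s : ℝ) : ℂ) * Complex.I) := by
    intro s
    rw [← Complex.exp_add]
    push_cast
    ring_nf
  obtain ⟨δ, hδ, h2⟩ := h1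
  refine ⟨δ, hδ, fun s h0 hs => ?_⟩
  have e2 : ∀ s : ℝ, F.par (Complex.exp ((t : ℝ) * Complex.I) *
      Complex.exp ((s : ℝ) * Complex.I)) = ci F (t + s) := by
    intro s; rw [e1]; rfl
  rcases h2 with h2 | h2
  · obtain ⟨a, b⟩ := h2 s h0 hs
    rw [e2] at a b
    have : t + -s = t - s := by ring
    rw [this] at b
    exact mul_neg_of_neg_of_pos (by linarith) (by linarith)
  · obtain ⟨a, b⟩ := h2 s h0 hs
    rw [e2] at a b
    have : t + -s = t - s := by ring
    rw [this] at b
    exact mul_neg_of_pos_of_neg (by linarith) (by linarith)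

/-- `y` is between `w` and `v` on the boundary of `F` (cut open) -/
def Btw (F : C2 T) (w v y : E) : Prop :=
  (F.pos w < F.pos y ∧ F.pos y < F.pos v) ∨ (F.pos v < F.pos y ∧ F.pos y < F.pos w)

theorem Btw.symm {F : C2 T} {w v y : E} (h : Btw F w v y) : Btw F v w y := Or.symm h

theorem btw_comm {F : C2 T} {w v y : E} : Btw F w v y ↔ Btw F v w y := ⟨Btw.symm, Btw.symm⟩

/-- the level component of `y` -/
abbrev cmp (F : C2 T) (u : E → ℝ) (c : ℝ) (y : E) : Set E :=
  connectedComponentIn {x | x ∈ F.set ∧ u x = c} y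

/-- odd number of crossings between two boundary points of different sign -/
theorem odd_btw (F : C2 T) {u : E → ℝ} {c : ℝ} (hu : ContinuousOn u F.set)
    (hr : RegOn u F.bd c) {w v : E} (hw : w ∈ F.bd) (hv : v ∈ F.bd)
    (hs : (u w - c) * (u v - c) < 0) (hlt : F.pos w < F.pos v) :
    Odd {y | y ∈ F.bd ∧ u y = c ∧ Btw F w v y}.ncard := by
  set f : ℝ → ℝ := fun t => u (ci F t) - c with hf
  have hset : ci F '' {t | t ∈ Ioo (F.pos w) (F.pos v) ∧ f t = 0}
      = {y | y ∈ F.bd ∧ u y = c ∧ Btw F w v y} := by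
    ext y
    constructor
    · rintro ⟨t, ⟨ht, h0⟩, rfl⟩
      have h1 : F.pos (ci F t) = t :=
        pos_ci F ((F.neg_pi_lt_pos w).trans ht.1) (ht.2.le.trans (F.pos_le_pi v))
      refine ⟨ci_mem F t, ?_, Or.inl ?_⟩
      · simp only [hf] at h0; linarith
      · rw [h1]; exact ht
    · rintro ⟨h1, h2, h3⟩
      refine ⟨F.pos y, ⟨?_, ?_⟩, ci_pos F h1⟩
      · rcases h3 with h3 | h3
        · exact h3
        · exfalso; linarith [h3.1, h3.2]
      · simp only [hf]; rw [ci_pos F h1, h2, sub_self]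
  have hinj : InjOn (ci F) {t | t ∈ Ioo (F.pos w) (F.pos v) ∧ f t = 0} := by
    intro t ht t' ht' h
    have h1 := pos_ci F ((F.neg_pi_lt_pos w).trans ht.1.1) (ht.1.2.le.trans (F.pos_le_pi v))
    have h2 := pos_ci F ((F.neg_pi_lt_pos w).trans ht'.1.1) (ht'.1.2.le.trans (F.pos_le_pi v))
    rw [← h1, ← h2, h]
  have hfin : {t | t ∈ Ioo (F.pos w) (F.pos v) ∧ f t = 0}.Finite := by
    refine Set.Finite.of_finite_image (f := ci F) ?_ hinj
    rw [hset]
    exact hr.fin.subset fun y hy => ⟨hy.1, hy.2.1⟩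
  have hcard : {y | y ∈ F.bd ∧ u y = c ∧ Btw F w v y}.ncard
      = {t | t ∈ Ioo (F.pos w) (F.pos v) ∧ f t = 0}.ncard := by
    rw [← hset, hinj.ncard_image]
  have h0w : f (F.pos w) = u w - c := by simp only [hf]; rw [ci_pos F hw]
  have h0v : f (F.pos v) = u v - c := by simp only [hf]; rw [ci_pos F hv]
  rw [hcard, parity (f := f) _ hlt
    (((continuous_ci F hu).sub continuous_const).continuousOn) ?_ ?_ hfin rfl ?_]
  · rw [h0w, h0v]; exact hs
  · rw [h0w]; intro h; rw [h] at hs; simp at hs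
  · rw [h0v]; intro h; rw [h] at hs; simp at hs
  · intro t _ h
    exact sign_change F hu hr h

omit [NormedAddCommGroup E] [NormedSpace ℝ E] [FiniteDimensional ℝ E] in
/-- a finite set with an involution without fixed points has even cardinality -/
theorem even_of_invol {Y : Set E} (hfin : Y.Finite) (μ : E → E) (h1 : ∀ y ∈ Y, μ y ∈ Y)
    (h2 : ∀ y ∈ Y, μ (μ y) = y) (h3 : ∀ y ∈ Y, μ y ≠ y) : Even Y.ncard := by
  classical
  rw [ncard_eq_toFinset_card Y hfin]
  have h4 : ∑ _y ∈ hfin.toFinset, (1 : ZMod 2) = 0 := by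
    refine Finset.sum_involution (fun y _ => μ y) ?_ ?_ ?_ ?_
    · intro y _; decide
    · intro y hy _; exact h3 y (by simpa using hy)
    · intro y hy; simpa using h1 y (by simpa using hy)
    · intro y hy; exact h2 y (by simpa using hy)
  rw [Finset.sum_const, nsmul_eq_mul, mul_one] at h4
  exact (ZMod.natCast_eq_zero_iff_even).1 h4

omit [FiniteDimensional ℝ E] in
theorem isCompact_set_cell (F : C2 T) : IsCompact F.set := by
  rw [F.set_eq]; exact T.isCompact_cc F.pt_mem

theorem isCompact_connectedComponentIn_level (F : C2 T) {u : E → ℝ} {c : ℝ}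
    (hu : ContinuousOn u F.set) (y : E) : IsCompact (cmp F u c y) := by
  have h1 : IsCompact {x | x ∈ F.set ∧ u x = c} := by
    have h2 : IsClosed {x | x ∈ F.set ∧ u x = c} :=
      hu.preimage_isClosed_of_isClosed (isCompact_set_cell F).isClosed isClosed_singleton
    exact (isCompact_set_cell F).of_isClosed_subset h2 fun x hx => hx.1
  exact Crest.Agent.R096.Agl6_543.isCompact_component h1 y

/-- **crossing continua interlace their ends** -/
theorem lace_of_cross (F : C2 T) {u : E → ℝ} {c : ℝ} (hu : ContinuousOn u F.set)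
    (hr : RegOn u F.bd c) (hb : c ∉ BadF u F.set F.bd) {K : Set E} (hK : IsPreconnected K)
    (hKc : IsCompact K) (hKF : K ⊆ F.set) {w v x x' : E} (hw : w ∈ F.bd) (hv : v ∈ F.bd)
    (mw : w ∈ K) (mv : v ∈ K) (hs : (u w - c) * (u v - c) < 0) (hx : x ∈ F.bd) (hxc : u x = c)
    (hx' : x' ∈ F.bd) (hxx : x' ∈ cmp F u c x) (hne : x' ≠ x)
    (hKx : ∀ y ∈ K, u y = c → y ∈ cmp F u c x) :
    ¬ (Btw F w v x ↔ Btw F w v x') := by
  classical
  wlog hlt : F.pos w < F.pos v generalizing w v
  · have hlt' : F.pos v < F.pos w := by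
      refine lt_of_le_of_ne (not_lt.1 hlt) fun h => ?_
      have := F.pos_injOn hv hw h
      rw [this] at hs
      nlinarith [mul_self_nonneg (u w - c)]
    have := this hv hw mv mw (by rw [mul_comm]; exact hs) hlt'
    rw [btw_comm (y := x), btw_comm (y := x')]
    exact this
  intro hcon
  have hwc : u w ≠ c := by
    intro h; rw [h] at hs; simp at hs
  have hvc : u v ≠ c := by
    intro h; rw [h] at hs; simp at hs
  have hP : ∀ y, y ∈ F.bd ∧ u y = c → ∃ q, q ≠ y ∧ q ∈ F.bd ∧ q ∈ cmp F u c y ∧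
      ∀ q', q' ≠ y → q' ∈ F.bd → q' ∈ cmp F u c y → q' = q := by
    intro y hy
    obtain ⟨q, ⟨h1, h2, h3⟩, h4⟩ := F.isDisc.existsUnique_partner hu hb hr hy.1 hy.2
    exact ⟨q, h1, h2, h3, fun q' a b d => h4 q' ⟨a, b, d⟩⟩
  choose! μ hμ1 hμ2 hμ3 hμ4 using hP
  have hmemF : ∀ {y}, y ∈ F.bd → u y = c → y ∈ cmp F u c y := fun h1 h2 =>
    mem_connectedComponentIn ⟨F.bd_sub h1, h2⟩
  have hcomp : ∀ {y z}, z ∈ cmp F u c y → cmp F u c y = cmp F u c z := fun h =>
    connectedComponentIn_eq h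
  have hlev : ∀ {y z}, z ∈ cmp F u c y → u z = c := fun h => (connectedComponentIn_subset _ _ h).2
  have hinvol : ∀ y, y ∈ F.bd → u y = c → μ (μ y) = y := by
    intro y h1 h2
    have a := hμ3 y ⟨h1, h2⟩
    have b := hμ2 y ⟨h1, h2⟩
    refine (hμ4 (μ y) ⟨b, hlev a⟩ y (hμ1 y ⟨h1, h2⟩).symm h1 ?_).symm
    rw [← hcomp a]; exact hmemF h1 h2
  set Y := {y | y ∈ F.bd ∧ u y = c ∧ Btw F w v y} with hY
  have hodd := odd_btw F hu hr hw hv hs hlt
  have heven : Even Y.ncard := by
    refine even_of_invol (hr.fin.subset fun y hy => ⟨hy.1, hy.2.1⟩) μ ?_ ?_ ?_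
    · rintro y ⟨h1, h2, h3⟩
      have a := hμ3 y ⟨h1, h2⟩
      have b := hμ2 y ⟨h1, h2⟩
      refine ⟨b, hlev a, ?_⟩
      by_cases hyx : y ∈ cmp F u c x
      · by_cases e : y = x
        · have : μ y = x' := by
            rw [e]
            refine (hμ4 x ⟨hx, hxc⟩ x' hne hx' hxx).symm
          rw [this, ← hcon, ← e]; exact h3
        · have e1 : y = μ x := hμ4 x ⟨hx, hxc⟩ y e h1 hyx
          have e2 : x' = μ x := hμ4 x ⟨hx, hxc⟩ x' hne hx' hxx
          have e3 : y = x' := e1.trans e2.symm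
          rw [e1, hinvol x hx hxc, hcon, ← e3]; exact h3
      · have hdis : ¬ (K ∩ cmp F u c y).Nonempty := by
          rintro ⟨p, hp, hp'⟩
          have h5 := hKx p hp (hlev hp')
          apply hyx
          rw [hcomp h5, ← hcomp hp']
          exact hmemF h1 h2
        by_contra hnb
        refine hdis (F.meet_of_lace hK isPreconnected_connectedComponentIn hKc ?_ hKF ?_ hw hv h1 b
          ?_ ?_ ?_ ?_ mw mv (hmemF h1 h2) a ?_)
        · exact isCompact_connectedComponentIn_level F hu y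
        · exact fun z hz => (connectedComponentIn_subset _ _ hz).1
        · rintro rfl; exact hwc h2
        · intro h; exact hwc (h ▸ hlev a)
        · rintro rfl; exact hvc h2
        · intro h; exact hvc (h ▸ hlev a)
        · intro h; exact hnb (h.1 h3)
    · rintro y ⟨h1, h2, -⟩; exact hinvol y h1 h2
    · rintro y ⟨h1, h2, -⟩; exact hμ1 y ⟨h1, h2⟩
  exact (Nat.not_even_iff_odd.2 hodd) heven

end Crest.Agent.R096.Exb_965
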