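import Crest.Agent.R096.Gp0_702

/-! # R096 (row 96), P2-GEN, (EXIST): the field `con` of `Adapted` follows from `cen` and
`TwoSidedAt` at the apex. -/

set_option autoImplicit false

open Set Metric Topology Filter

namespace Crest.Agent.R096.Exl1_161

open Msh_715 Gp_702

/-- radial projection of a two-sided neighbourhood of the apex onto the boundary -/
theorem con_of_apex {E : Type*} [NormedAddCommGroup E] [NormedSpace ℝ E] [FiniteDimensional ℝ E]
    {K O S : Set E} (hK : IsCompact K) (hO : IsOpen O) (hKO : closure O = K)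
    (hOc : Convex ℝ O) {z : E} (hz : z ∈ O) (hzS : z ∈ S)
    (hcone : ∀ y ∈ K \ O, ∀ t : ℝ, 0 < t → t ≤ 1 → (z + t • (y - z) ∈ S ↔ y ∈ S))
    (h2 : Ax_914.TwoSidedAt S z) :
    ∃ P N : Set E, (K \ O) \ S = P ∪ N ∧ IsPreconnected P ∧ IsPreconnected N := by
  -- the translated body
  set s : Set E := (fun v => z + v) ⁻¹' K with hs
  have hcont : Continuous fun v : E => z + v := continuous_const.add continuous_id
  have hKc : Convex ℝ K := hKO ▸ hOc.closure
  have hsc : Convex ℝ s := by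
    have := hKc.translate_preimage_right z
    exact this
  have hOo : (fun v => z + v) ⁻¹' O ∈ 𝓝 (0 : E) :=
    (hO.preimage hcont).mem_nhds (by simpa using hz)
  have hOK : O ⊆ K := hKO ▸ subset_closure
  have hs0 : s ∈ 𝓝 (0 : E) := mem_of_superset hOo (preimage_mono hOK)
  have hscl : IsClosed s := hK.isClosed.preimage hcont
  have hint : interior s = (fun v => z + v) ⁻¹' O := by
    have h1 : interior s = (fun v => z + v) ⁻¹' interior K :=
      ((Homeomorph.addLeft z).preimage_interior K).symm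
    have h2 : interior K = O := by
      rw [← hKO, hOc.interior_closure_eq_interior_of_nonempty_interior
        (by rw [hO.interior_eq]; exact ⟨z, hz⟩), hO.interior_eq]
    rw [h1, h2]
  have hbdd : Bornology.IsVonNBounded ℝ s := by
    rw [NormedSpace.isVonNBounded_iff]
    obtain ⟨R, hR⟩ := hK.isBounded.exists_norm_le
    refine isBounded_iff_forall_norm_le.2 ⟨R + ‖z‖, fun v hv => ?_⟩
    have h1 := hR _ hv
    have h3 : v = (z + v) - z := by abel
    calc ‖v‖ = ‖(z + v) - z‖ := by rw [← h3]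
      _ ≤ ‖z + v‖ + ‖z‖ := norm_sub_le _ _
      _ ≤ R + ‖z‖ := by linarith
  have habs : Absorbent ℝ s := absorbent_nhds_zero hs0
  have hgc : Continuous (gauge s) := continuous_gauge hsc hs0
  have hgpos : ∀ v : E, v ≠ 0 → 0 < gauge s v := fun v hv => (gauge_pos habs hbdd).2 hv
  have hfr : ∀ v : E, gauge s v = 1 → z + v ∈ K \ O := by
    intro v hv
    have h1 : v ∈ frontier s := (gauge_eq_one_iff_mem_frontier hsc hs0).1 hv
    rw [hscl.frontier_eq, hint] at h1
    exact h1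
  have hfr' : ∀ w ∈ K \ O, gauge s (w - z) = 1 := by
    intro w hw
    refine (gauge_eq_one_iff_mem_frontier hsc hs0).2 ?_
    rw [hscl.frontier_eq, hint]
    refine ⟨?_, ?_⟩
    · show z + (w - z) ∈ K
      rw [add_sub_cancel]; exact hw.1
    · show ¬ z + (w - z) ∈ O
      rw [add_sub_cancel]; exact hw.2
  -- the projection
  let π : E → E := fun p => z + (gauge s (p - z))⁻¹ • (p - z)
  have hπc : ContinuousOn π {z}ᶜ := by
    have h1 : ContinuousOn (fun p : E => (gauge s (p - z))⁻¹) {z}ᶜ :=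
      (hgc.comp (continuous_id.sub continuous_const)).continuousOn.inv₀
        fun p hp => (hgpos _ (sub_ne_zero.2 hp)).ne'
    exact continuousOn_const.add (h1.smul (continuous_id.sub continuous_const).continuousOn)
  have hπK : ∀ p, p ≠ z → π p ∈ K \ O := by
    intro p hp
    apply hfr
    rw [gauge_smul_of_nonneg (inv_nonneg.2 (gauge_nonneg _)), smul_eq_mul,
      inv_mul_cancel₀ (hgpos _ (sub_ne_zero.2 hp)).ne']
  have hπz : ∀ p ∈ O, p ≠ z → ∃ t : ℝ, 0 < t ∧ t ≤ 1 ∧ p = z + t • (π p - z) := by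
    intro p hp hpz
    have h1 := hgpos _ (sub_ne_zero.2 hpz)
    refine ⟨gauge s (p - z), h1, ?_, ?_⟩
    · exact gauge_le_one_of_mem (show z + (p - z) ∈ K by rw [add_sub_cancel]; exact hOK hp)
    · show p = z + gauge s (p - z) • (z + (gauge s (p - z))⁻¹ • (p - z) - z)
      rw [add_sub_cancel_left, smul_smul, mul_inv_cancel₀ h1.ne', one_smul, add_sub_cancel]
  have hπray : ∀ w ∈ K \ O, ∀ t : ℝ, 0 < t → π (z + t • (w - z)) = w := by
    intro w hw t ht
    have h1 : z + t • (w - z) - z = t • (w - z) := add_sub_cancel_left _ _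
    show z + (gauge s (z + t • (w - z) - z))⁻¹ • (z + t • (w - z) - z) = w
    rw [h1, gauge_smul_of_nonneg ht.le, hfr' w hw, smul_eq_mul, mul_one, smul_smul,
      inv_mul_cancel₀ ht.ne', one_smul, add_sub_cancel]
  -- the two sides
  obtain ⟨r, hr, hrO⟩ := Metric.isOpen_iff.1 hO z hz
  obtain ⟨U, P, N, hU, -, -, hzU, hUr, hPc, hNc, -, hUPN, -, -⟩ := h2 r hr
  have hPN : P ∪ N ⊆ O \ S := by
    rw [← hUPN]
    exact fun p hp => ⟨hrO (hUr hp.1), hp.2⟩
  have hne : ∀ p ∈ P ∪ N, p ≠ z := fun p hp h => (hPN hp).2 (h ▸ hzS)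
  have hcon : ContinuousOn π (P ∪ N) := hπc.mono hne
  refine ⟨π '' P, π '' N, ?_, hPc.image _ (hcon.mono subset_union_left),
    hNc.image _ (hcon.mono subset_union_right)⟩
  rw [← image_union]
  apply Subset.antisymm
  · rintro w ⟨hw, hwS⟩
    have h1 : Tendsto (fun t : ℝ => z + t • (w - z)) (𝓝[>] 0) (𝓝 z) := by
      have h3 : Continuous fun t : ℝ => z + t • (w - z) := by fun_prop
      have h4 := h3.tendsto 0
      rw [zero_smul, add_zero] at h4
      exact h4.mono_left nhdsWithin_le_nhds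
    have h5 : ∀ᶠ t in 𝓝[>] (0 : ℝ), t < 1 :=
      (gt_mem_nhds (zero_lt_one' ℝ)).filter_mono nhdsWithin_le_nhds
    obtain ⟨t, ht1, ht2, ht0⟩ := ((h1.eventually (hU.mem_nhds hzU)).and
      (h5.and self_mem_nhdsWithin)).exists
    have ht0' : (0 : ℝ) < t := ht0
    refine ⟨z + t • (w - z), ?_, hπray w hw t ht0'⟩
    rw [← hUPN]
    exact ⟨ht1, fun h => hwS ((hcone w hw t ht0' ht2.le).1 h)⟩
  · rintro _ ⟨p, hp, rfl⟩
    have hpz := hne p hp
    obtain ⟨t, ht0, ht1, ht⟩ := hπz p (hPN hp).1 hpz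
    refine ⟨hπK p hpz, fun h => (hPN hp).2 ?_⟩
    rw [ht]
    exact (hcone _ (hπK p hpz) t ht0 ht1).2 h

variable {ι : Type} {T : Tiling (univ : Set E3) ι} {S : Set E3}

/-- **(con)** is a consequence of (cen) and `TwoSidedAt` -/
theorem con_of_cen (hcen : ∀ x, (T.cc x ∩ S).Nonempty → ∃ z ∈ T.oc x, z ∈ S ∧
    ∀ y ∈ T.cc x \ T.oc x, ∀ t : ℝ, 0 < t → t ≤ 1 → (z + t • (y - z) ∈ S ↔ y ∈ S))
    (hS : ∀ x ∈ S, Ax_914.TwoSidedAt S x) :
    ∀ x ∈ S, T.dim x = 3 → ∃ P N : Set E3, (T.cc x \ T.oc x) \ S = P ∪ N ∧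
      IsPreconnected P ∧ IsPreconnected N := by
  intro x hx hd
  have hV : T.V x = ⊤ := by
    apply Submodule.eq_top_of_finrank_eq
    rw [show Module.finrank ℝ (T.V x) = T.dim x from rfl, hd]
    simp
  obtain ⟨i, hi⟩ := (T.V_eq_top_iff (mem_univ x)).1 hV
  obtain ⟨z, hz, hzS, hcone⟩ := hcen x ⟨x, T.self_mem_cc x, hx⟩
  refine con_of_apex (T.isCompact_cc (mem_univ x)) ?_ (T.closure_oc x) (T.convex_oc x) hz hzS
    hcone (hS z hzS)
  rw [T.oc_eq_tile hi]
  exact isOpen_I _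

/-- `Adapted` without the field `con` -/
theorem adapted_of (cpt : IsCompact S) (vert : ∀ x ∈ S, T.dim x ≠ 0)
    (cen : ∀ x, (T.cc x ∩ S).Nonempty → ∃ z ∈ T.oc x, z ∈ S ∧
      ∀ y ∈ T.cc x \ T.oc x, ∀ t : ℝ, 0 < t → t ≤ 1 → (z + t • (y - z) ∈ S ↔ y ∈ S))
    (two : ∀ x ∈ S, T.dim x = 2 → ((T.cc x \ T.oc x) ∩ S).ncard = 2)
    (hS : ∀ x ∈ S, Ax_914.TwoSidedAt S x) : Adapted T S :=
  ⟨cpt, vert, cen, two, con_of_cen cen hS⟩

end Crest.Agent.R096.Exl1_161
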