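import Crest.Agent.R096.Exl1_161

/-! # R096 (row 96), P2-GEN, (EXIST): verification of `cen` and `two` on one cell:
two rays from the apex; plane without corners; half planes. -/

set_option autoImplicit false

open Set Metric Topology Filter

namespace Crest.Agent.R096.Exl2_161

open Msh_715 Gp_702

variable {ι : Type} {T : Tiling (univ : Set E3) ι} {S : Set E3}

/-- radial decomposition of a cell -/
theorem exists_rad {z y : E3} (hy : y ∈ T.cc z) (hne : y ≠ z) :
    ∃ w ∈ T.cc z \ T.oc z, ∃ t : ℝ, 0 < t ∧ t ≤ 1 ∧ y = z + t • (w - z) := by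
  have hv : y - z ∈ T.V z := T.sub_mem_V hy
  obtain ⟨t, ht, h1, h2, -⟩ := T.exists_exit (mem_univ z) hv (sub_ne_zero.2 hne)
  have h1t : 1 ≤ t := by
    by_contra h
    push Not at h
    apply h2
    have h3 := T.move_mem_oc hy (s := 1 - t) (by linarith) (by linarith)
    have e : y + (1 - t) • (z - y) = z + t • (y - z) := by module
    rwa [e] at h3
  refine ⟨z + t • (y - z), ⟨h1, h2⟩, t⁻¹, by positivity, inv_le_one_of_one_le₀ h1t, ?_⟩
  have e : z + t⁻¹ • (z + t • (y - z) - z) = z + (t⁻¹ * t) • (y - z) := by module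
  rw [e, inv_mul_cancel₀ ht.ne']; module

theorem rad_unique {z w w' : E3} (hw : w ∈ T.cc z \ T.oc z) (hw' : w' ∈ T.cc z \ T.oc z)
    {t t' : ℝ} (ht : 0 < t) (ht' : 0 < t') (h : z + t • (w - z) = z + t' • (w' - z)) :
    w = w' := by
  have key : ∀ {w w' : E3} {t t' : ℝ}, w ∈ T.cc z → w' ∉ T.oc z → 0 < t → 0 < t' → t ≤ t' →
      z + t • (w - z) = z + t' • (w' - z) → w = w' := by
    intro w w' t t' hw hw' ht ht' htt h
    have e1 : t • (w - z) = t' • (w' - z) := add_left_cancel h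
    have e2 : w' = z + (t / t') • (w - z) := by
      have : w' - z = (t / t') • (w - z) := by
        rw [div_eq_inv_mul, mul_smul, e1, smul_smul, inv_mul_cancel₀ ht'.ne', one_smul]
      rw [← this]; abel
    rcases eq_or_lt_of_le htt with e | e
    · rw [e, div_self ht'.ne', one_smul] at e2
      rw [e2]; abel
    · exfalso
      apply hw'
      have h3 : t / t' < 1 := (div_lt_one ht').2 e
      have h4 : 0 < t / t' := by positivity
      have h5 := T.move_mem_oc hw (s := 1 - t / t') (by linarith) (by linarith)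
      rw [e2]
      have e3 : z + (t / t') • (w - z) = w + (1 - t / t') • (z - w) := by module
      rw [e3]; exact h5
  rcases le_total t t' with h1 | h1
  · exact key hw.1 hw'.2 ht ht' h1 h
  · exact (key hw'.1 hw.2 ht' ht h1 h.symm).symm

/-- the boundary points on a ray are unique -/
theorem ray_unique {z u : E3} {s t : ℝ} (hs : 0 ≤ s) (ht : 0 < t)
    (h1 : z + s • u ∈ T.cc z \ T.oc z) (h2 : z + t • u ∈ T.cc z \ T.oc z) : s = t ∨ u = 0 := by
  rcases eq_or_lt_of_le hs with e | e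
  · exfalso
    rw [← e, zero_smul, add_zero] at h1
    exact h1.2 (T.self_mem_oc z)
  by_cases hu : u = 0
  · exact Or.inr hu
  left
  have h3 := rad_unique h1 h2 (t := s⁻¹) (t' := t⁻¹) (by positivity) (by positivity) (by
    rw [add_sub_cancel_left, add_sub_cancel_left, smul_smul, smul_smul,
      inv_mul_cancel₀ e.ne', inv_mul_cancel₀ ht.ne'])
  have h4 : (s - t) • u = 0 := by
    rw [sub_smul, sub_eq_zero]; exact add_left_cancel h3
  rcases smul_eq_zero.1 h4 with h5 | h5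
  · linarith
  · exact absurd h5 hu

/-- **two rays**: a cell which meets `S` in two rays from a point of the open cell -/
theorem two_of_rays {x z u₁ u₂ : E3} (hz : z ∈ T.oc x) (h1 : u₁ ∈ T.V x) (h2 : u₂ ∈ T.V x)
    (h10 : u₁ ≠ 0) (h20 : u₂ ≠ 0) (hne : ∀ s : ℝ, 0 < s → u₁ ≠ s • u₂)
    (hS : ∀ y ∈ T.cc x, y ∈ S ↔ ∃ s : ℝ, 0 ≤ s ∧ (y = z + s • u₁ ∨ y = z + s • u₂)) :
    ((T.cc x \ T.oc x) ∩ S).ncard = 2 := by
  have hc := T.cc_eq_of_mem_oc (mem_univ x) hz
  have ho := T.oc_eq_of_mem (mem_univ x) hz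
  have hV := T.V_eq_of_mem_oc (mem_univ x) hz
  rw [← hV] at h1 h2
  rw [← hc] at hS
  rw [← hc, ← ho]
  obtain ⟨t₁, ht₁, a1, a2, -⟩ := T.exists_exit (mem_univ z) h1 h10
  obtain ⟨t₂, ht₂, b1, b2, -⟩ := T.exists_exit (mem_univ z) h2 h20
  have hw : z + t₁ • u₁ ≠ z + t₂ • u₂ := by
    intro h
    have h3 : t₁ • u₁ = t₂ • u₂ := add_left_cancel h
    refine hne (t₁⁻¹ * t₂) (by positivity) ?_
    rw [mul_smul, ← h3, smul_smul, inv_mul_cancel₀ ht₁.ne', one_smul]
  have e : (T.cc z \ T.oc z) ∩ S = {z + t₁ • u₁, z + t₂ • u₂} := by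
    apply Subset.antisymm
    · rintro y ⟨hy, hyS⟩
      obtain ⟨s, hs, rfl | rfl⟩ := (hS y hy.1).1 hyS
      · rcases ray_unique hs ht₁ hy ⟨a1, a2⟩ with h | h
        · left; rw [h]
        · exact absurd h h10
      · rcases ray_unique hs ht₂ hy ⟨b1, b2⟩ with h | h
        · right; rw [h]; rfl
        · exact absurd h h20
    · rintro y (rfl | rfl)
      · exact ⟨⟨a1, a2⟩, (hS _ a1).2 ⟨t₁, ht₁.le, Or.inl rfl⟩⟩
      · exact ⟨⟨b1, b2⟩, (hS _ b1).2 ⟨t₂, ht₂.le, Or.inr rfl⟩⟩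
  rw [e]
  exact Set.ncard_pair hw

/-- **conical from rays**: `S` is a cone with vertex `z` on the cell -/
theorem cen_of_cone {x z : E3} (hz : z ∈ T.oc x) {C : Set E3}
    (hC : ∀ u ∈ C, ∀ s : ℝ, 0 < s → s • u ∈ C)
    (hS : ∀ y ∈ T.cc x, y ∈ S ↔ y - z ∈ C) :
    ∀ y ∈ T.cc x \ T.oc x, ∀ t : ℝ, 0 < t → t ≤ 1 → (z + t • (y - z) ∈ S ↔ y ∈ S) := by
  intro y hy t ht ht1
  have h1 : z + t • (y - z) ∈ T.cc x :=
    (T.convex_cc x).add_smul_sub_mem (T.oc_sub_cc x hz) hy.1 ⟨ht.le, ht1⟩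
  rw [hS _ h1, hS _ hy.1, add_sub_cancel_left]
  constructor
  · intro h
    have := hC _ h t⁻¹ (by positivity)
    rwa [smul_smul, inv_mul_cancel₀ ht.ne', one_smul] at this
  · intro h; exact hC _ h t ht

/-- the open cell contains a point of the plane if no vertex is on the plane -/
theorem exists_apex_plane {x : E3} (φ : E3 →L[ℝ] ℝ) (c : ℝ)
    (hv : ∀ v ∈ T.cc x, T.dim v = 0 → φ v ≠ c) (hne : ∃ y ∈ T.cc x, φ y = c) :
    ∃ z ∈ T.oc x, φ z = c := by
  -- a cell on one side of the plane has a vertex on the plane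
  have key : ∀ (ψ : E3 →L[ℝ] ℝ) (d : ℝ), (∀ v ∈ T.cc x, T.dim v = 0 → ψ v ≠ d) →
      (∃ y ∈ T.cc x, ψ y = d) → ∃ z ∈ T.oc x, ψ z < d := by
    intro ψ d hv hne
    by_contra hcon
    push Not at hcon
    have hcc : ∀ y ∈ T.cc x, d ≤ ψ y := by
      intro y hy
      rw [← T.closure_oc x] at hy
      have : closure (T.oc x) ⊆ {y | d ≤ ψ y} :=
        closure_minimal hcon (isClosed_le continuous_const ψ.continuous)
      exact this hy
    obtain ⟨y, hy, hyd⟩ := hne
    -- descend to a vertex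
    have hdesc : ∀ n : ℕ, ∀ y ∈ T.cc x, T.dim y = n → ψ y = d → False := by
      intro n
      induction n using Nat.strong_induction_on with
      | _ n ih =>
        intro y hy hdy hyd
        rcases Nat.eq_zero_or_pos n with h0 | h0
        · exact hv y hy (hdy.trans h0) hyd
        have hne : T.V y ≠ ⊥ := fun h => by
          have := T.dim_eq_zero_iff.2 h
          omega
        obtain ⟨v, hvm, hv0⟩ := Submodule.exists_mem_ne_zero_of_ne_bot hne
        -- ψ vanishes on v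
        obtain ⟨r, hr, hb⟩ := T.exists_ball_oc (mem_univ y)
        have hvn : 0 < ‖v‖ := norm_pos_iff.2 hv0
        have hsm : ∀ s : ℝ, |s| = r / (2 * ‖v‖) → d ≤ ψ (y + s • v) := by
          intro s hs
          apply hcc
          apply T.cc_sub_of_mem hy
          apply T.oc_sub_cc
          apply hb _ ((T.V y).smul_mem _ hvm)
          rw [norm_smul, Real.norm_eq_abs, hs]
          field_simp
          linarith
        have hpos : 0 < r / (2 * ‖v‖) := by positivity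
        have e1 := hsm (r / (2 * ‖v‖)) (abs_of_pos hpos)
        have e2 := hsm (-(r / (2 * ‖v‖))) (by rw [abs_neg, abs_of_pos hpos])
        rw [map_add, map_smul, hyd, smul_eq_mul] at e1 e2
        have hψv : ψ v = 0 := by
          have h3 : 0 ≤ (r / (2 * ‖v‖)) * ψ v := by linarith
          have h4 : (r / (2 * ‖v‖)) * ψ v ≤ 0 := by linarith
          have h5 : (r / (2 * ‖v‖)) * ψ v = 0 := le_antisymm h4 h3
          exact (mul_eq_zero.1 h5).resolve_left hpos.ne'
        obtain ⟨t, ht, h6, h7, -⟩ := T.exists_exit (mem_univ y) hvm hv0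
        have h8 := T.dim_lt h6 h7
        exact ih _ (hdy ▸ h8) _ (T.cc_sub_of_mem hy h6) rfl (by
          rw [map_add, map_smul, hyd, hψv, smul_zero, add_zero])
    exact hdesc _ y hy rfl hyd
  obtain ⟨z1, hz1, h1⟩ := key φ c hv hne
  obtain ⟨z2, hz2, h2⟩ := key (-φ) (-c) (fun v hv1 hv2 h => hv v hv1 hv2 (by simpa using h))
    (by obtain ⟨y, hy, hyc⟩ := hne; exact ⟨y, hy, by simpa using hyc⟩)
  have h2' : c < φ z2 := by simpa using h2
  have hpre : IsPreconnected (T.oc x) := (T.convex_oc x).isPreconnected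
  obtain ⟨z, hz, hzc⟩ := hpre.intermediate_value hz1 hz2 φ.continuous.continuousOn
    ⟨h1.le, h2'.le⟩
  exact ⟨z, hz, hzc⟩

/-- **(P)** plane without vertices of the cell: `cen` -/
theorem cen_of_plane {x : E3} (φ : E3 →L[ℝ] ℝ) (c : ℝ) (hS : ∀ y ∈ T.cc x, y ∈ S ↔ φ y = c)
    (hv : ∀ v ∈ T.cc x, T.dim v = 0 → v ∉ S) (hne : (T.cc x ∩ S).Nonempty) :
    ∃ z ∈ T.oc x, z ∈ S ∧
      ∀ y ∈ T.cc x \ T.oc x, ∀ t : ℝ, 0 < t → t ≤ 1 → (z + t • (y - z) ∈ S ↔ y ∈ S) := by
  obtain ⟨z, hz, hzc⟩ := exists_apex_plane (T := T) (x := x) φ c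
    (fun v hv1 hv2 h => hv v hv1 hv2 ((hS v hv1).2 h))
    (by obtain ⟨y, hy, hyS⟩ := hne; exact ⟨y, hy, (hS y hy).1 hyS⟩)
  refine ⟨z, hz, (hS z (T.oc_sub_cc x hz)).2 hzc, ?_⟩
  refine cen_of_cone hz (C := {u | φ u = 0}) (fun u hu s hs => ?_) (fun y hy => ?_)
  · show φ (s • u) = 0
    rw [map_smul, show φ u = 0 from hu, smul_zero]
  · rw [hS y hy, mem_ofPred_eq, map_sub, hzc, sub_eq_zero]

/-- **(P)** plane without vertices of the cell: `two` -/
theorem two_of_plane {x : E3} (φ : E3 →L[ℝ] ℝ) (c : ℝ) (hS : ∀ y ∈ T.cc x, y ∈ S ↔ φ y = c)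
    (hv : ∀ v ∈ T.cc x, T.dim v = 0 → v ∉ S) (hne : (T.cc x ∩ S).Nonempty)
    (hd : T.dim x = 2) : ((T.cc x \ T.oc x) ∩ S).ncard = 2 := by
  obtain ⟨z, hz, hzc⟩ := exists_apex_plane (T := T) (x := x) φ c
    (fun v hv1 hv2 h => hv v hv1 hv2 ((hS v hv1).2 h))
    (by obtain ⟨y, hy, hyS⟩ := hne; exact ⟨y, hy, (hS y hy).1 hyS⟩)
  -- the restriction of `φ` to the direction space
  let f : T.V x →ₗ[ℝ] ℝ := φ.toLinearMap.comp (T.V x).subtype
  have hf0 : f ≠ 0 := by
    intro h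
    obtain ⟨v, hv1, hv2⟩ := T.exists_vertex (mem_univ x)
    refine hv v hv1 hv2 ((hS v hv1).2 ?_)
    have h1 : v - z ∈ T.V x := T.sub_mem_V' hv1 (T.oc_sub_cc x hz)
    have h2 : f ⟨v - z, h1⟩ = 0 := by rw [h]; rfl
    have h3 : φ (v - z) = 0 := h2
    rw [map_sub, hzc, sub_eq_zero] at h3
    exact h3
  have hker : Module.finrank ℝ (LinearMap.ker f) = 1 := by
    have h1 := f.finrank_range_add_finrank_ker
    have h2 : Module.finrank ℝ (LinearMap.range f) = 1 := by
      rw [LinearMap.range_eq_top.2 (LinearMap.surjective hf0)]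
      simp
    have h3 : Module.finrank ℝ (T.V x) = 2 := hd
    omega
  obtain ⟨u, hu0, hu⟩ := finrank_eq_one_iff'.1 hker
  have huV : (u : T.V x).1 ∈ T.V x := (u : T.V x).2
  have hu0' : ((u : T.V x) : E3) ≠ 0 := by
    intro h
    apply hu0
    ext1; ext1; exact h
  have hφu : φ ((u : T.V x) : E3) = 0 := u.2
  refine two_of_rays (u₁ := ((u : T.V x) : E3)) (u₂ := -((u : T.V x) : E3)) hz huV
    ((T.V x).neg_mem huV) hu0' (neg_ne_zero.2 hu0') (fun s hs h => hu0' ?_) (fun y hy => ?_)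
  · have h1 : (1 + s) • ((u : T.V x) : E3) = 0 := by
      rw [add_smul, one_smul]
      nth_rewrite 1 [h]
      rw [smul_neg]; abel
    exact (smul_eq_zero.1 h1).resolve_left (by linarith)
  · rw [hS y hy]
    constructor
    · intro h
      have h1 : y - z ∈ T.V x := T.sub_mem_V' hy (T.oc_sub_cc x hz)
      have h2 : (⟨y - z, h1⟩ : T.V x) ∈ LinearMap.ker f := by
        show φ (y - z) = 0
        rw [map_sub, h, hzc, sub_self]
      obtain ⟨a, ha⟩ := hu ⟨_, h2⟩
      have h3 : y - z = a • ((u : T.V x) : E3) := by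
        have := congrArg (fun w : LinearMap.ker f => ((w : T.V x) : E3)) ha
        exact this.symm
      rcases le_total 0 a with h4 | h4
      · exact ⟨a, h4, Or.inl (by rw [← h3]; abel)⟩
      · refine ⟨-a, by linarith, Or.inr ?_⟩
        rw [smul_neg, neg_smul, neg_neg, ← h3]; abel
    · rintro ⟨s, -, rfl | rfl⟩
      · rw [map_add, map_smul, hφu, hzc, smul_zero, add_zero]
      · rw [map_add, map_smul, map_neg, hφu, hzc, neg_zero, smul_zero, add_zero]

end Crest.Agent.R096.Exl2_161
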