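import Crest.Agent.R096.Brk2_582
import Crest.Agent.R096.Ce1_537

/-!
# Row 96 (S0127), EXA-2 of helper560 (task 2464): the foam coordinates are PL on every closed cell

`plon_sc (F : Foam La P b N) (c a : I) : PLOn (fun y => sc P b y a) (P c)`.

On a chain `𝔄` of faces `T` of the convex weights `w` is `∑ w A • b A` (`T_U`), the barycentres of a
chain are affinely independent (`ker_zero`), so the coordinate is one of finitely many affine maps.
-/

set_option autoImplicit false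
set_option linter.unusedSectionVars false
set_option linter.style.longLine false

open Set Filter Topology MeasureTheory

namespace Crest.Agent.R096.Exs2_647

open Crest.Agent.R096.Brk1_582 Crest.Agent.R096.Brk2_582

variable {E : Type*} [NormedAddCommGroup E] [NormedSpace ℝ E] {I : Type*}

open Classical in
/-- the coordinates of the weights `w` on the chain `𝔄` -/
noncomputable def U (𝔄 : Finset (Set I)) (w : Set I → ℝ) (a : I) : ℝ :=
  ∑ A ∈ 𝔄, if a ∈ A then 0 else w A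

theorem U_nonneg {𝔄 : Finset (Set I)} {w : Set I → ℝ} (hw : ∀ A ∈ 𝔄, 0 ≤ w A) (a : I) :
    0 ≤ U 𝔄 w a := by
  classical
  refine Finset.sum_nonneg fun A hA => ?_
  split_ifs
  · exact le_rfl
  · exact hw A hA

theorem U_le {𝔄 : Finset (Set I)} {w : Set I → ℝ} (hw : ∀ A ∈ 𝔄, 0 ≤ w A) (a : I) :
    U 𝔄 w a ≤ ∑ A ∈ 𝔄, w A := by
  classical
  refine Finset.sum_le_sum fun A hA => ?_
  split_ifs
  · exact hw A hA
  · exact le_rfl

/-- greatest element of a nonempty finite chain -/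
theorem exists_top {𝔄 : Finset (Set I)} (hch : IsChain (· ⊆ ·) (𝔄 : Set (Set I)))
    (hne : 𝔄.Nonempty) : ∃ M ∈ 𝔄, ∀ A ∈ 𝔄, A ⊆ M := by
  obtain ⟨M, hM⟩ := 𝔄.exists_maximal hne
  refine ⟨M, hM.1, fun A hA => ?_⟩
  by_cases h : A = M
  · exact h.le
  · rcases hch (Finset.mem_coe.2 hA) (Finset.mem_coe.2 hM.1) h with h1 | h1
    · exact h1
    · exact hM.2 hA h1

/-- smallest element of a nonempty finite chain -/
theorem exists_bot {𝔄 : Finset (Set I)} (hch : IsChain (· ⊆ ·) (𝔄 : Set (Set I)))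
    (hne : 𝔄.Nonempty) : ∃ M ∈ 𝔄, ∀ A ∈ 𝔄, M ⊆ A := by
  obtain ⟨M, hM⟩ := 𝔄.exists_minimal hne
  refine ⟨M, hM.1, fun A hA => ?_⟩
  by_cases h : M = A
  · exact h.le
  · rcases hch (Finset.mem_coe.2 hM.1) (Finset.mem_coe.2 hA) h with h1 | h1
    · exact h1
    · exact hM.2 hA h1

/-- the step function of a chain with weights: integrability and integral -/
theorem integral_U [CompleteSpace E] (b : Set I → E) (w : Set I → ℝ) : ∀ (n : ℕ) (𝔄 : Finset (Set I)), 𝔄.card = n →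
    IsChain (· ⊆ ·) (𝔄 : Set (Set I)) → (∀ A ∈ 𝔄, 0 ≤ w A) →
    IntervalIntegrable (fun τ : ℝ => b {c | U 𝔄 w c ≤ τ}) volume 0 (∑ A ∈ 𝔄, w A) ∧
    ∫ τ in (0 : ℝ)..(∑ A ∈ 𝔄, w A), b {c | U 𝔄 w c ≤ τ} = ∑ A ∈ 𝔄, w A • b A := by
  classical
  intro n
  induction n with
  | zero =>
    intro 𝔄 h0 _ _
    rw [Finset.card_eq_zero] at h0
    subst h0
    simp
  | succ n ih =>
    intro 𝔄 hn hch hw
    have hne : 𝔄.Nonempty := by rw [← Finset.card_pos, hn]; exact Nat.succ_pos _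
    obtain ⟨M, hM, htop⟩ := exists_top hch hne
    set 𝔅 := 𝔄.erase M with h𝔅
    have hsub : 𝔅 ⊆ 𝔄 := Finset.erase_subset _ _
    have hBc : IsChain (· ⊆ ·) (𝔅 : Set (Set I)) := hch.mono (by exact_mod_cast hsub)
    have hBw : ∀ A ∈ 𝔅, 0 ≤ w A := fun A hA => hw A (hsub hA)
    obtain ⟨i1, i2⟩ := ih 𝔅 (by rw [h𝔅, Finset.card_erase_of_mem hM, hn]; rfl) hBc hBw
    set s := ∑ A ∈ 𝔅, w A with hs
    have hs0 : 0 ≤ s := Finset.sum_nonneg hBw
    have e0 : ∑ A ∈ 𝔄, w A = s + w M := by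
      rw [← Finset.insert_erase hM, Finset.sum_insert (Finset.notMem_erase _ _), add_comm]
    have e1 : ∀ c, U 𝔄 w c = U 𝔅 w c + (if c ∈ M then 0 else w M) := by
      intro c
      rw [U, U, ← Finset.insert_erase hM, Finset.sum_insert (Finset.notMem_erase _ _), add_comm]
    have hout : ∀ c, c ∉ M → U 𝔅 w c = s := by
      intro c hc
      rw [U, hs]
      refine Finset.sum_congr rfl fun A hA => ?_
      rw [if_neg fun h => hc (htop A (hsub hA) h)]
    have g1 : ∀ τ ∈ Ioo (0 : ℝ) s, {c | U 𝔄 w c ≤ τ} = {c | U 𝔅 w c ≤ τ} := by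
      intro τ hτ
      ext c
      simp only [mem_ofPred_eq, e1]
      by_cases hc : c ∈ M
      · simp [hc]
      · rw [if_neg hc, hout c hc]
        have := hw M hM
        constructor
        · intro h; linarith
        · intro h; exact absurd h (not_le.2 hτ.2)
    have g2 : ∀ τ ∈ Ioo s (s + w M), {c | U 𝔄 w c ≤ τ} = M := by
      intro τ hτ
      ext c
      simp only [mem_ofPred_eq, e1]
      by_cases hc : c ∈ M
      · simp only [hc, if_true, add_zero, iff_true]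
        exact (U_le hBw c).trans hτ.1.le
      · rw [if_neg hc, hout c hc]
        simp only [hc, iff_false, not_le]
        exact hτ.2
    have hwM := hw M hM
    have j1 : IntervalIntegrable (fun τ : ℝ => b {c | U 𝔄 w c ≤ τ}) volume 0 s := by
      refine i1.congr_uIoo fun τ hτ => ?_
      rw [uIoo_of_le hs0] at hτ
      simp only [g1 τ hτ]
    have j2 : IntervalIntegrable (fun τ : ℝ => b {c | U 𝔄 w c ≤ τ}) volume s (s + w M) := by
      refine (intervalIntegrable_const (c := b M)).congr_uIoo fun τ hτ => ?_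
      rw [uIoo_of_le (by linarith)] at hτ
      simp only [g2 τ hτ]
    rw [e0]
    refine ⟨j1.trans j2, ?_⟩
    have k1 : ∫ τ in (0 : ℝ)..s, b {c | U 𝔄 w c ≤ τ} = ∫ τ in (0 : ℝ)..s, b {c | U 𝔅 w c ≤ τ} :=
      intervalIntegral.integral_congr_Ioo_of_le hs0 (fun τ hτ => by simp only [g1 τ hτ])
    have k2 : ∫ τ in s..(s + w M), b {c | U 𝔄 w c ≤ τ} = ∫ _τ in s..(s + w M), b M :=
      intervalIntegral.integral_congr_Ioo_of_le (by linarith) (fun τ hτ => by simp only [g2 τ hτ])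
    rw [← intervalIntegral.integral_add_adjacent_intervals j1 j2, k1, k2, i2,
      intervalIntegral.integral_const, ← Finset.insert_erase hM,
      Finset.sum_insert (Finset.notMem_erase _ _), add_comm]
    congr 2
    ring

theorem T_U [CompleteSpace E] {b : Set I → E} {w : Set I → ℝ} {𝔄 : Finset (Set I)}
    (hch : IsChain (· ⊆ ·) (𝔄 : Set (Set I))) (hw : ∀ A ∈ 𝔄, 0 ≤ w A)
    (h1 : ∑ A ∈ 𝔄, w A = 1) : T b (U 𝔄 w) = ∑ A ∈ 𝔄, w A • b A := by
  have := (integral_U b w _ 𝔄 rfl hch hw).2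
  rw [h1] at this
  exact this

/-- chain of faces -/
structure Good (P : I → Set E) (𝔄 : Finset (Set I)) : Prop where
  chain : IsChain (· ⊆ ·) (𝔄 : Set (Set I))
  ne : ∀ A ∈ 𝔄, A.Nonempty
  fcn : ∀ A ∈ 𝔄, (fc P A).Nonempty

theorem U_mem_K {P : I → Set E} {𝔄 : Finset (Set I)} (hG : Good P 𝔄) {w : Set I → ℝ}
    (hw : ∀ A ∈ 𝔄, 0 ≤ w A) (h1 : ∑ A ∈ 𝔄, w A = 1) : U 𝔄 w ∈ K P := by
  classical
  have hne : 𝔄.Nonempty := by
    by_contra h
    rw [Finset.not_nonempty_iff_eq_empty] at h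
    subst h
    simp at h1
  refine ⟨fun c => ⟨U_nonneg hw c, h1 ▸ U_le hw c⟩, ?_, ?_⟩
  · obtain ⟨M, hM, hbot⟩ := exists_bot hG.chain hne
    obtain ⟨c, hc⟩ := hG.ne M hM
    refine ⟨c, Finset.sum_eq_zero fun A hA => ?_⟩
    rw [if_pos (hbot A hA hc)]
  · obtain ⟨M, hM, htop⟩ := exists_top hG.chain hne
    refine (hG.fcn M hM).mono (fc_anti fun c hc => ?_)
    by_contra hcM
    have hlt : U 𝔄 w c < 1 := hc
    have : U 𝔄 w c = 1 := by
      rw [← h1, U]
      refine Finset.sum_congr rfl fun A hA => ?_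
      rw [if_neg fun h => hcM (htop A hA h)]
    linarith

/-- a weight on a chain of nonempty sets is determined by the sums over the sets containing a
point -/
theorem zero_of_sums : ∀ (n : ℕ) (𝔄 : Finset (Set I)) (w : Set I → ℝ), 𝔄.card = n →
    IsChain (· ⊆ ·) (𝔄 : Set (Set I)) → (∀ A ∈ 𝔄, A.Nonempty) →
    (∀ a, U 𝔄 w a = ∑ A ∈ 𝔄, w A) → ∀ A ∈ 𝔄, w A = 0 := by
  classical
  intro n
  induction n with
  | zero =>
    intro 𝔄 w h0 _ _ _ A hA
    rw [Finset.card_eq_zero] at h0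
    subst h0
    simp at hA
  | succ n ih =>
    intro 𝔄 w hn hch hne' h
    have hne : 𝔄.Nonempty := by rw [← Finset.card_pos, hn]; exact Nat.succ_pos _
    obtain ⟨M, hM, htop⟩ := exists_top hch hne
    set 𝔅 := 𝔄.erase M with h𝔅
    have hsub : 𝔅 ⊆ 𝔄 := Finset.erase_subset _ _
    have hBc : IsChain (· ⊆ ·) (𝔅 : Set (Set I)) := hch.mono (by exact_mod_cast hsub)
    -- a point of `M` in no other member
    obtain ⟨a, haM, ha⟩ : ∃ a ∈ M, ∀ A ∈ 𝔅, a ∉ A := by
      by_cases hB : 𝔅.Nonempty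
      · obtain ⟨M', hM', htop'⟩ := exists_top hBc hB
        have h1 : M' ⊆ M := htop M' (hsub hM')
        have h2 : ¬ M ⊆ M' := fun h2 => (Finset.mem_erase.1 hM').1 (subset_antisymm h1 h2)
        obtain ⟨a, ha, ha'⟩ := not_subset.1 h2
        exact ⟨a, ha, fun A hA h => ha' (htop' A hA h)⟩
      · rw [Finset.not_nonempty_iff_eq_empty] at hB
        obtain ⟨a, ha⟩ := hne' M hM
        exact ⟨a, ha, fun A hA => by rw [hB] at hA; simp at hA⟩
    have hwM : w M = 0 := by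
      have h3 := h a
      rw [U, ← Finset.insert_erase hM, Finset.sum_insert (Finset.notMem_erase _ _),
        Finset.sum_insert (Finset.notMem_erase _ _), if_pos haM] at h3
      have h4 : (∑ A ∈ 𝔄.erase M, if a ∈ A then 0 else w A) = ∑ A ∈ 𝔄.erase M, w A :=
        Finset.sum_congr rfl fun A hA => if_neg (ha A hA)
      rw [h4] at h3
      linarith
    have hB := ih 𝔅 w (by rw [h𝔅, Finset.card_erase_of_mem hM, hn]; rfl) hBc
      (fun A hA => hne' A (hsub hA)) (fun c => by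
        have h3 := h c
        rw [U, ← Finset.insert_erase hM, Finset.sum_insert (Finset.notMem_erase _ _),
          Finset.sum_insert (Finset.notMem_erase _ _), hwM, ite_self, zero_add, zero_add] at h3
        exact h3)
    intro A hA
    by_cases hAM : A = M
    · rw [hAM]; exact hwM
    · exact hB A (Finset.mem_erase.2 ⟨hAM, hA⟩)

theorem U_add (𝔄 : Finset (Set I)) (v w : Set I → ℝ) (δ : ℝ) (a : I) :
    U 𝔄 (fun A => v A + δ * w A) a = U 𝔄 v a + δ * U 𝔄 w a := by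
  classical
  rw [U, U, U, Finset.mul_sum, ← Finset.sum_add_distrib]
  refine Finset.sum_congr rfl fun A _ => ?_
  split_ifs <;> simp

variable [CompleteSpace E]
variable {La : Set E} {P : I → Set E} {b : Set I → E} {N : ℕ}

/-- **the barycentres of a chain of faces are affinely independent** -/
theorem ker_zero (F : Foam La P b N) {𝔄 : Finset (Set I)} (hG : Good P 𝔄) {w : Set I → ℝ}
    (h0 : ∑ A ∈ 𝔄, w A = 0) (h1 : ∑ A ∈ 𝔄, w A • b A = 0) : ∀ A ∈ 𝔄, w A = 0 := by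
  classical
  by_cases hne : 𝔄.Nonempty
  swap
  · rw [Finset.not_nonempty_iff_eq_empty] at hne
    subst hne
    intro A hA; simp at hA
  have hn : (0 : ℝ) < 𝔄.card := by exact_mod_cast Finset.card_pos.2 hne
  set S := ∑ A ∈ 𝔄, |w A| with hS
  have hS0 : 0 ≤ S := Finset.sum_nonneg fun _ _ => abs_nonneg _
  set δ : ℝ := 1 / (𝔄.card * (1 + S)) with hδ
  have hδ0 : 0 < δ := by positivity
  let v : Set I → ℝ := fun _ => 1 / 𝔄.card
  have hv0 : ∀ A ∈ 𝔄, 0 ≤ v A := fun A _ => by positivity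
  have hv1 : ∑ A ∈ 𝔄, v A = 1 := by
    simp only [v, Finset.sum_const, nsmul_eq_mul]
    field_simp
  have hw0 : ∀ A ∈ 𝔄, 0 ≤ v A + δ * w A := by
    intro A hA
    have h2 : |w A| ≤ S := Finset.single_le_sum (f := fun A => |w A|) (fun _ _ => abs_nonneg _) hA
    have h3 : -(1 + S) ≤ w A := by
      have := neg_abs_le (w A)
      linarith
    have h4 : δ * (-(1 + S)) ≤ δ * w A := mul_le_mul_of_nonneg_left h3 hδ0.le
    have h5 : δ * (-(1 + S)) = - (1 / 𝔄.card) := by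
      rw [hδ]; field_simp
    simp only [v]
    linarith
  have hw1 : ∑ A ∈ 𝔄, (v A + δ * w A) = 1 := by
    rw [Finset.sum_add_distrib, ← Finset.mul_sum, h0, hv1]; simp
  have t1 := T_U (b := b) hG.chain hv0 hv1
  have t2 := T_U (b := b) (w := fun A => v A + δ * w A) hG.chain hw0 hw1
  have t3 : ∑ A ∈ 𝔄, (v A + δ * w A) • b A = ∑ A ∈ 𝔄, v A • b A := by
    have t4 : ∑ A ∈ 𝔄, (δ * w A) • b A = 0 := by
      simp only [mul_smul]
      rw [← Finset.smul_sum, h1, smul_zero]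
    rw [← add_zero (∑ A ∈ 𝔄, v A • b A), ← t4, ← Finset.sum_add_distrib]
    simp only [add_smul]
  have k1 := U_mem_K hG hv0 hv1
  have k2 := U_mem_K (w := fun A => v A + δ * w A) hG hw0 hw1
  have e : U 𝔄 (fun A => v A + δ * w A) = U 𝔄 v :=
    F.T_injOn k2 k1 (by rw [t1, t2, t3])
  refine zero_of_sums _ 𝔄 w rfl hG.chain hG.ne fun a => ?_
  have h6 := congrFun e a
  rw [U_add] at h6
  have h7 : δ * U 𝔄 w a = 0 := by linarith
  rw [h0]
  exact (mul_eq_zero.1 h7).resolve_left hδ0.ne'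

/-- an affine function with prescribed values at the barycentres of a chain of faces -/
theorem exists_affine (F : Foam La P b N) {𝔄 : Finset (Set I)} (hG : Good P 𝔄) (val : Set I → ℝ) :
    ∃ g : E →ᵃ[ℝ] ℝ, ∀ A ∈ 𝔄, g (b A) = val A := by
  classical
  let f : (𝔄 → ℝ) →ₗ[ℝ] E × ℝ :=
    { toFun := fun w => (∑ A : 𝔄, w A • b A, ∑ A : 𝔄, w A)
      map_add' := fun w w' => by
        simp only [Pi.add_apply, add_smul, Finset.sum_add_distrib, Prod.mk_add_mk]
      map_smul' := fun r w => by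
        simp only [Pi.smul_apply, smul_eq_mul, mul_smul, ← Finset.smul_sum, ← Finset.mul_sum,
          RingHom.id_apply, Prod.smul_mk] }
  have hf : LinearMap.ker f = ⊥ := by
    rw [LinearMap.ker_eq_bot']
    intro w hw
    have h1 : ∑ A : 𝔄, w A • b A = 0 := congrArg Prod.fst hw
    have h2 : ∑ A : 𝔄, w A = 0 := congrArg Prod.snd hw
    let w' : Set I → ℝ := fun A => if h : A ∈ 𝔄 then w ⟨A, h⟩ else 0
    have hw' : ∀ A : 𝔄, w' A = w A := fun A => by simp [w']
    have h3 := ker_zero F hG (w := w') (by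
      rw [← Finset.sum_coe_sort]; simpa only [hw'] using h2) (by
      rw [← Finset.sum_coe_sort]; simpa only [hw'] using h1)
    funext A
    rw [← hw' A, h3 A A.2]; rfl
  obtain ⟨g, hg⟩ := f.exists_leftInverse_of_injective hf
  have hgf : ∀ w, g (f w) = w := fun w => by
    have := LinearMap.congr_fun hg w
    simpa using this
  let φ : E × ℝ →ₗ[ℝ] ℝ := (∑ A : 𝔄, (val A) • (LinearMap.proj A : (𝔄 → ℝ) →ₗ[ℝ] ℝ)) ∘ₗ g
  refine ⟨(φ ∘ₗ LinearMap.inl ℝ E ℝ).toAffineMap + AffineMap.const ℝ E (φ (0, 1)), fun A hA => ?_⟩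
  have h4 : f (Pi.single ⟨A, hA⟩ 1) = (b A, 1) := by
    simp [f, Pi.single_apply, ite_smul]
  have h5 : φ (b A, 1) = val A := by
    simp only [φ, LinearMap.comp_apply]
    rw [← h4, hgf]
    simp [Pi.single_apply]
  have h6 : φ (b A, 0) + φ (0, 1) = φ (b A, 1) := by
    rw [← map_add]; simp
  simpa using h6.trans h5

/-! ### the weights of a point of the cube complex -/

/-- the chain of the sublevel sets -/
theorem exists_weights {u : I → ℝ} (hfin : {c | u c < 1}.Finite) (hu : ∀ c, 0 ≤ u c ∧ u c ≤ 1)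
    : ∃ (𝔄 : Finset (Set I)) (w : Set I → ℝ),
      IsChain (· ⊆ ·) (𝔄 : Set (Set I)) ∧ (∀ A ∈ 𝔄, {c | u c = 0} ⊆ A ∧ A ⊆ {c | u c < 1}) ∧
      (∀ A ∈ 𝔄, 0 ≤ w A) ∧ ∑ A ∈ 𝔄, w A = 1 ∧ u = U 𝔄 w := by
  classical
  have hsub : ∀ τ ∈ Ioo (0 : ℝ) 1, {c | u c = 0} ⊆ {c | u c ≤ τ} ∧ {c | u c ≤ τ} ⊆ {c | u c < 1} := by
    intro τ hτ
    refine ⟨fun c (hc : u c = 0) => ?_, fun c (hc : u c ≤ τ) => hc.trans_lt hτ.2⟩
    show u c ≤ τ
    rw [hc]; exact hτ.1.le
  have hf : ((fun τ : ℝ => {c | u c ≤ τ}) '' Ioo (0 : ℝ) 1).Finite := by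
    refine hfin.finite_subsets.subset ?_
    rintro _ ⟨τ, hτ, rfl⟩
    exact (hsub τ hτ).2
  let J : Set I → Set ℝ := fun A => {τ | τ ∈ Ioo (0 : ℝ) 1 ∧ {c | u c ≤ τ} = A}
  have hJm : ∀ A, MeasurableSet (J A) := by
    intro A
    refine OrdConnected.measurableSet ⟨?_⟩
    rintro x ⟨hx, hxA⟩ y ⟨hy, hyA⟩ z ⟨hz1, hz2⟩
    refine ⟨⟨hx.1.trans_le hz1, hz2.trans_lt hy.2⟩, subset_antisymm ?_ ?_⟩
    · rw [← hyA]; exact fun c (hc : u c ≤ z) => hc.trans hz2
    · rw [← hxA]; exact fun c (hc : u c ≤ x) => hc.trans hz1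
  have hJd : ∀ A B, A ≠ B → Disjoint (J A) (J B) := by
    intro A B hAB
    rw [Set.disjoint_left]
    rintro τ ⟨-, h1⟩ ⟨-, h2⟩
    exact hAB (h1.symm.trans h2)
  have hJt : ∀ A, volume (J A) ≠ ⊤ := fun A =>
    ((measure_mono (fun τ hτ => hτ.1)).trans_lt (by simp : volume (Ioo (0 : ℝ) 1) < ⊤)).ne
  -- the key count
  have key : ∀ (𝔅 : Finset (Set I)), ∑ A ∈ 𝔅, volume.real (J A) = volume.real (⋃ A ∈ 𝔅, J A) := by
    intro 𝔅
    rw [measureReal_biUnion_finset (fun A _ B _ h => hJd A B h) (fun A _ => hJm A)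
      (fun A _ => hJt A)]
  refine ⟨hf.toFinset, fun A => volume.real (J A), ?_, ?_, fun _ _ => measureReal_nonneg, ?_, ?_⟩
  · intro A hA B hB _
    simp only [Finite.coe_toFinset] at hA hB
    obtain ⟨x, -, rfl⟩ := hA
    obtain ⟨y, -, rfl⟩ := hB
    rcases le_total x y with h | h
    · exact Or.inl fun c (hc : u c ≤ x) => hc.trans h
    · exact Or.inr fun c (hc : u c ≤ y) => hc.trans h
  · intro A hA
    simp only [Finite.mem_toFinset] at hA
    obtain ⟨x, hx, rfl⟩ := hA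
    exact hsub x hx
  · rw [key]
    have : (⋃ A ∈ hf.toFinset, J A) = Ioo (0 : ℝ) 1 := by
      ext τ
      simp only [mem_iUnion, exists_prop, Finite.mem_toFinset]
      constructor
      · rintro ⟨A, -, h, -⟩; exact h
      · intro h; exact ⟨_, ⟨τ, h, rfl⟩, h, rfl⟩
    rw [this]
    simp
  · funext a
    have e1 : U hf.toFinset (fun A => volume.real (J A)) a =
        ∑ A ∈ hf.toFinset.filter (fun A => a ∉ A), volume.real (J A) := by
      rw [U, Finset.sum_filter]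
      refine Finset.sum_congr rfl fun A _ => ?_
      split_ifs <;> simp_all
    rw [e1, key]
    have : (⋃ A ∈ hf.toFinset.filter (fun A => a ∉ A), J A) = Ioo (0 : ℝ) (u a) := by
      ext τ
      simp only [mem_iUnion, exists_prop, Finset.mem_filter, Finite.mem_toFinset]
      constructor
      · rintro ⟨A, ⟨-, ha⟩, h, rfl⟩
        exact ⟨h.1, by simpa using ha⟩
      · intro h
        have h' : τ ∈ Ioo (0 : ℝ) 1 := ⟨h.1, h.2.trans_le (hu a).2⟩
        exact ⟨_, ⟨⟨τ, h', rfl⟩, by simpa using h.2⟩, h', rfl⟩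
    rw [this]
    simp [(hu a).1]

open Classical in
/-- the chosen affine function of a chain -/
noncomputable def G (b : Set I → E) (a : I) (𝔄 : Finset (Set I)) : E →ᵃ[ℝ] ℝ :=
  if h : ∃ g : E →ᵃ[ℝ] ℝ, ∀ A ∈ 𝔄, g (b A) = if a ∈ A then 0 else 1 then h.choose else 0

/-- the coordinate `a` at `y` is the affine function of the chain of `y` -/
theorem sc_eq_G (F : Foam La P b N) {y : E} (hy : y ∈ La) (a : I) :
    ∃ 𝔄 : Finset (Set I), (∀ A ∈ 𝔄, act P y ⊆ A ∧ (fc P A).Nonempty) ∧ sc P b y a = G b a 𝔄 y := by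
  classical
  have hK := F.sc_mem_K hy
  obtain ⟨𝔄, w, hch, hA, hw0, hw1, e⟩ := exists_weights (F.K_finite hK) hK.1
  have hact : act P y = {c | sc P b y c = 0} := F.act_eq hy
  have hfc : ∀ A ∈ 𝔄, (fc P A).Nonempty := fun A h => hK.2.2.mono (fc_anti (hA A h).2)
  have hG : Good P 𝔄 := ⟨hch, fun A h => (F.K_zero_nonempty hK).mono (hA A h).1, hfc⟩
  refine ⟨𝔄, fun A h => ⟨by rw [hact]; exact (hA A h).1, hfc A h⟩, ?_⟩
  have hex : ∃ g : E →ᵃ[ℝ] ℝ, ∀ A ∈ 𝔄, g (b A) = if a ∈ A then 0 else 1 :=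
    exists_affine F hG _
  have hg : ∀ A ∈ 𝔄, G b a 𝔄 (b A) = if a ∈ A then 0 else 1 := by
    rw [G, dif_pos hex]; exact hex.choose_spec
  set g := G b a 𝔄 with hgdef
  have hT : y = ∑ A ∈ 𝔄, w A • b A := by
    rw [← T_U hch hw0 hw1, ← e, F.T_sc hy]
  have hlin : ∀ z, g z = g.linear z + g 0 := fun z => by
    have := g.map_vadd 0 z
    simpa using this
  have h1 : g y = ∑ A ∈ 𝔄, w A * g (b A) := by
    conv_lhs => rw [hlin, hT, map_sum]
    simp only [map_smul, smul_eq_mul]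
    have h3 : ∑ A ∈ 𝔄, w A * g 0 = g 0 := by rw [← Finset.sum_mul, hw1, one_mul]
    calc ∑ A ∈ 𝔄, w A * g.linear (b A) + g 0
        = ∑ A ∈ 𝔄, w A * g.linear (b A) + ∑ A ∈ 𝔄, w A * g 0 := by rw [h3]
      _ = ∑ A ∈ 𝔄, w A * g (b A) := by
        rw [← Finset.sum_add_distrib]
        refine Finset.sum_congr rfl fun A _ => ?_
        rw [hlin (b A)]
        ring
  rw [h1]
  have h2 : sc P b y a = U 𝔄 w a := congrFun e a
  rw [h2, U]
  refine Finset.sum_congr rfl fun A hA' => ?_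
  rw [hg A hA']
  split_ifs <;> simp

/-- **the foam coordinates are PL on every closed cell** -/
theorem plon_sc (F : Foam La P b N) (c a : I) : Ce_537.PLOn (fun y => sc P b y a) (P c) := by
  classical
  refine ⟨(continuousOn_sc_apply F a).mono (F.sub c), ?_⟩
  have hC : {c' | (P c' ∩ P c).Nonempty}.Finite := finite_touch F c
  have hS : {𝔄 : Finset (Set I) | (𝔄 : Set (Set I)) ⊆ {A | A ⊆ {c' | (P c' ∩ P c).Nonempty}}}.Finite := by
    have h1 : {A : Set I | A ⊆ {c' | (P c' ∩ P c).Nonempty}}.Finite := hC.finite_subsets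
    have h2 := h1.finite_subsets
    exact h2.preimage Finset.coe_injective.injOn
  refine ⟨hS.toFinset.image (G b a), fun y hy => ?_⟩
  obtain ⟨𝔄, h1, h2⟩ := sc_eq_G F (F.sub c hy) a
  refine ⟨G b a 𝔄, Finset.mem_image.2 ⟨𝔄, ?_, rfl⟩, h2⟩
  rw [Finite.mem_toFinset]
  intro A hA c' hc'
  obtain ⟨h3, z, hz⟩ := h1 A hA
  exact ⟨z, mem_fc.1 hz c' hc', mem_fc.1 hz c (h3 hy)⟩

/-- the foam coordinates of a PL image of the boundary of a cell are PL -/
theorem plon_sc_th {E' : Type*} [NormedAddCommGroup E'] [NormedSpace ℝ E'] (F : Foam La P b N)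
    {K : Set E'} {c : I} (θ : Ce_537.PLEquiv K (frontier (P c))) (a : I) :
    Ce_537.PLOn (fun x => sc P b (θ.f x) a) K :=
  ((plon_sc F c a).mono (F.cpt c).isClosed.frontier_subset).comp θ.pf θ.mf

end Crest.Agent.R096.Exs2_647
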