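import Crest.Agent.R096.Ce1_537

/-!
# R096 (row 96), EXA-3 (560): a PL map is affine on every convex set which is not cut by finitely many
hyperplanes (helper260)
-/

set_option autoImplicit false

open Set Metric Filter Topology Module
open scoped Classical

namespace Crest.Agent.R096.Exs_260

variable {E F : Type*} [NormedAddCommGroup E] [NormedSpace ℝ E]
  [NormedAddCommGroup F] [NormedSpace ℝ F]

/-- a convex set which is on one side of finitely many hyperplanes has a point which is on such a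
hyperplane only if the whole set is -/
theorem exists_pt {Z : Set E} (hZ : Convex ℝ Z) (hne : Z.Nonempty)
    (G : Finset ((E →L[ℝ] ℝ) × ℝ)) :
    (∀ h ∈ G, (∀ z ∈ Z, h.1 z ≤ h.2) ∨ ∀ z ∈ Z, h.2 ≤ h.1 z) →
    ∃ z0 ∈ Z, ∀ h ∈ G, h.1 z0 = h.2 → ∀ z ∈ Z, h.1 z = h.2 := by
  induction G using Finset.induction_on with
  | empty =>
    intro _
    obtain ⟨z, hz⟩ := hne
    exact ⟨z, hz, by simp⟩
  | insert φ G _ ih =>
    intro hs
    obtain ⟨z1, hz1, h1⟩ := ih fun h hh => hs h (Finset.mem_insert_of_mem hh)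
    by_cases hφ : ∀ z ∈ Z, φ.1 z = φ.2
    · refine ⟨z1, hz1, fun h hh e => ?_⟩
      rcases Finset.mem_insert.1 hh with rfl | hh
      · exact hφ
      · exact h1 h hh e
    · push Not at hφ
      obtain ⟨z2, hz2, h2⟩ := hφ
      refine ⟨(1 / 2 : ℝ) • z1 + (1 / 2 : ℝ) • z2,
        hZ hz1 hz2 (by norm_num) (by norm_num) (by norm_num), fun h hh e => ?_⟩
      have e' : h.1 z1 + h.1 z2 = 2 * h.2 := by
        rw [map_add, map_smul, map_smul, smul_eq_mul, smul_eq_mul] at e
        linarith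
      have ez : h.1 z1 = h.2 ∧ h.1 z2 = h.2 := by
        rcases hs h hh with hc | hc
        · have a := hc z1 hz1
          have b := hc z2 hz2
          constructor <;> linarith
        · have a := hc z1 hz1
          have b := hc z2 hz2
          constructor <;> linarith
      rcases Finset.mem_insert.1 hh with rfl | hh
      · exact absurd ez.2 h2
      · exact h1 h hh ez.1

/-- **EXA-3**: a PL map is affine on every convex set which is not cut by finitely many
hyperplanes -/
theorem exists_planes [FiniteDimensional ℝ E] {K : Set E} {u : E → F} (hu : Ce_537.PLOn u K) :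
    ∃ D : Finset ((E →L[ℝ] ℝ) × ℝ), (∀ h ∈ D, h.1 ≠ 0) ∧ ∀ Z ⊆ K, Convex ℝ Z →
      (∀ h ∈ D, (∀ z ∈ Z, h.1 z ≤ h.2) ∨ ∀ z ∈ Z, h.2 ≤ h.1 z) →
      ∃ g : E →ᵃ[ℝ] F, EqOn u g Z := by
  obtain ⟨hc, S, hS⟩ := hu
  let b := Basis.ofVectorSpace ℝ F
  let e := finBasis ℝ E
  let l : (E →ᵃ[ℝ] F) × (E →ᵃ[ℝ] F) → Basis.ofVectorSpaceIndex ℝ F → E →L[ℝ] ℝ := fun p k =>
    LinearMap.toContinuousLinearMap ((b.coord k).comp (p.1.linear - p.2.linear))
  let c : (E →ᵃ[ℝ] F) × (E →ᵃ[ℝ] F) → Basis.ofVectorSpaceIndex ℝ F → ℝ := fun p k =>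
    -(b.repr (p.1 0 - p.2 0) k)
  let N : (E →ᵃ[ℝ] F) × (E →ᵃ[ℝ] F) → Finset (Basis.ofVectorSpaceIndex ℝ F) := fun p =>
    (b.repr (p.1 0 - p.2 0)).support ∪
      Finset.univ.biUnion fun j => (b.repr ((p.1.linear - p.2.linear) (e j))).support
  have hval : ∀ p k (x : E), b.repr (p.1 x - p.2 x) k = l p k x - c p k := by
    intro p k x
    have e1 : ∀ g : E →ᵃ[ℝ] F, g x = g.linear x + g 0 := by
      intro g
      have := g.map_vadd 0 x
      simpa using this
    have e2 : p.1 x - p.2 x = (p.1.linear - p.2.linear) x + (p.1 0 - p.2 0) := by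
      rw [e1 p.1, e1 p.2, LinearMap.sub_apply]
      abel
    rw [e2, map_add, Finsupp.add_apply]
    simp only [l, c, LinearMap.coe_toContinuousLinearMap', LinearMap.comp_apply, Basis.coord_apply]
    ring
  have hout : ∀ p k, k ∉ N p → ∀ x : E, b.repr (p.1 x - p.2 x) k = 0 := by
    intro p k hk x
    rw [Finset.mem_union, not_or] at hk
    obtain ⟨hk1, hk2⟩ := hk
    have hk3 : ∀ j, b.repr ((p.1.linear - p.2.linear) (e j)) k = 0 := by
      intro j
      by_contra hcon
      exact hk2 (Finset.mem_biUnion.2 ⟨j, Finset.mem_univ _, Finsupp.mem_support_iff.2 hcon⟩)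
    have hl : l p k = 0 := by
      ext y
      have : ((b.coord k).comp (p.1.linear - p.2.linear)) = 0 := by
        refine e.ext fun j => ?_
        simpa using hk3 j
      show ((b.coord k).comp (p.1.linear - p.2.linear)) y = 0
      rw [this]
      rfl
    rw [hval, hl]
    have : c p k = 0 := by
      simp only [c]
      rw [Finsupp.notMem_support_iff.1 hk1, neg_zero]
    rw [this]
    simp
  let D' : Finset ((E →L[ℝ] ℝ) × ℝ) := (S ×ˢ S).biUnion fun p => (N p).image fun k => (l p k, c p k)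
  refine ⟨D'.filter fun h => h.1 ≠ 0, fun h hh => (Finset.mem_filter.1 hh).2, ?_⟩
  intro Z hZK hZ hs
  rcases Z.eq_empty_or_nonempty with rfl | hne
  · exact ⟨AffineMap.const ℝ E 0, by simp⟩
  have hs' : ∀ h ∈ D', (∀ z ∈ Z, h.1 z ≤ h.2) ∨ ∀ z ∈ Z, h.2 ≤ h.1 z := by
    intro h hh
    by_cases h0 : h.1 = 0
    · rcases le_total 0 h.2 with h1 | h1
      · exact Or.inl fun z _ => by rw [h0]; simpa using h1
      · exact Or.inr fun z _ => by rw [h0]; simpa using h1
    · exact hs h (Finset.mem_filter.2 ⟨hh, h0⟩)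
  obtain ⟨z0, hz0, hz0'⟩ := exists_pt hZ hne D' hs'
  -- the good points
  let Z' : Set E := {z | z ∈ Z ∧ ∀ h ∈ D', h.1 z = h.2 → ∀ w ∈ Z, h.1 w = h.2}
  have hz0m : z0 ∈ Z' := ⟨hz0, hz0'⟩
  have hmix : ∀ z ∈ Z, ∀ w ∈ Z', ∀ s t : ℝ, 0 ≤ s → 0 < t → s + t = 1 → s • z + t • w ∈ Z' := by
    intro z hz w hw s t hs0 ht0 hst
    refine ⟨hZ hz hw.1 hs0 ht0.le hst, fun h hh eh => hw.2 h hh ?_⟩
    rw [map_add, map_smul, map_smul, smul_eq_mul, smul_eq_mul] at eh
    have e1 : s * (h.1 z - h.2) + t * (h.1 w - h.2) = 0 := by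
      have : h.2 = (s + t) * h.2 := by rw [hst, one_mul]
      nlinarith
    rcases hs' h hh with hc | hc
    · have a := hc z hz
      have b := hc w hw.1
      have a' : s * (h.1 z - h.2) ≤ 0 := mul_nonpos_of_nonneg_of_nonpos hs0 (by linarith)
      have b' : 0 ≤ t * (h.1 w - h.2) := by linarith
      have := nonneg_of_mul_nonneg_right b' ht0
      linarith
    · have a := hc z hz
      have b := hc w hw.1
      have a' : 0 ≤ s * (h.1 z - h.2) := mul_nonneg hs0 (by linarith)
      have b' : t * (h.1 w - h.2) ≤ 0 := by linarith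
      have := nonpos_of_mul_nonpos_right b' ht0
      linarith
  have hconv : Convex ℝ Z' := by
    intro z hz w hw s t hs0 ht0 hst
    rcases eq_or_lt_of_le ht0 with h | h
    · subst h
      have : s = 1 := by linarith
      subst this
      simpa using hz
    · exact hmix z hz.1 w hw s t hs0 h hst
  -- two maps of S which agree at a good point agree on Z
  have hagree : ∀ g ∈ S, ∀ g' ∈ S, ∀ z ∈ Z', g z = g' z → EqOn g g' Z := by
    intro g hg g' hg' z hz hzz w hw
    have : b.repr (g w - g' w) = 0 := by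
      ext k
      by_cases hk : k ∈ N (g, g')
      · have hm : (l (g, g') k, c (g, g') k) ∈ D' :=
          Finset.mem_biUnion.2 ⟨(g, g'), Finset.mem_product.2 ⟨hg, hg'⟩,
            Finset.mem_image.2 ⟨k, hk, rfl⟩⟩
        have h1 : l (g, g') k z = c (g, g') k := by
          have := hval (g, g') k z
          simp only [hzz, sub_self, map_zero, Finsupp.coe_zero, Pi.zero_apply] at this
          linarith
        have h2 := hz.2 _ hm h1 w hw
        have h3 := hval (g, g') k w
        simp only at h2 h3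
        rw [h3, h2]
        simp
      · exact hout (g, g') k hk w
    have h0 : g w - g' w = 0 := b.repr.map_eq_zero_iff.1 this
    exact sub_eq_zero.1 h0
  obtain ⟨g, hg, hgz⟩ := hS z0 (hZK hz0)
  refine ⟨g, ?_⟩
  have hcg : ∀ g : E →ᵃ[ℝ] F, Continuous g := fun g => AffineMap.continuous_of_finiteDimensional g
  have hcZ' : ContinuousOn u Z' := hc.mono fun z hz => hZK hz.1
  have hcr : Continuous (fun w : Z' => u w) := continuousOn_iff_continuous_domRestrict.1 hcZ'
  have : PreconnectedSpace Z' := isPreconnected_iff_preconnectedSpace.1 hconv.isPreconnected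
  let A : Set Z' := {w | u w = g w}
  have hAc : IsClosed A := isClosed_eq hcr ((hcg g).comp continuous_subtype_val)
  have hAeq : A = ⋂ g' ∈ (S.filter fun g' : E →ᵃ[ℝ] F => ¬ EqOn g' g Z), {w : Z' | u w ≠ g' w} := by
    ext w
    simp only [mem_iInter, Finset.mem_filter, mem_ofPred_eq, A]
    constructor
    · intro hw g' hg' e'
      exact hg'.2 (hagree g' hg'.1 g hg w.1 w.2 (by rw [← e', hw]))
    · intro hw
      obtain ⟨g'', hg'', e''⟩ := hS w.1 (hZK w.2.1)
      by_cases he : EqOn g'' g Z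
      · rw [e'', he w.2.1]
      · exact absurd e'' (hw g'' ⟨hg'', he⟩)
  have hAo : IsOpen A := by
    rw [hAeq]
    refine isOpen_biInter_finset fun g' _ => ?_
    exact isOpen_ne_fun hcr ((hcg g').comp continuous_subtype_val)
  have hAu : A = univ := IsClopen.eq_univ ⟨hAc, hAo⟩ ⟨⟨z0, hz0m⟩, hgz⟩
  have hZ' : ∀ w ∈ Z', u w = g w := by
    intro w hw
    have : (⟨w, hw⟩ : Z') ∈ A := by rw [hAu]; trivial
    exact this
  -- density
  intro z hz
  have hsub : Z' ⊆ {w | w ∈ Z} := fun w hw => hw.1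
  have hcl : z ∈ closure Z' := by
    have hcont : Continuous fun t : ℝ => (1 - t) • z + t • z0 := by fun_prop
    have h0 : (fun t : ℝ => (1 - t) • z + t • z0) 0 = z := by simp
    have ht : Tendsto (fun t : ℝ => (1 - t) • z + t • z0) (𝓝[>] 0) (𝓝 z) := by
      have := (hcont.tendsto 0).mono_left (nhdsWithin_le_nhds (s := Ioi (0 : ℝ)))
      simpa using this
    refine mem_closure_of_tendsto ht ?_
    have : Ioo (0 : ℝ) 1 ∈ 𝓝[>] (0 : ℝ) := Ioo_mem_nhdsGT one_pos
    filter_upwards [this] with t htt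
    exact hmix z hz z0 hz0m (1 - t) t (by linarith [htt.2]) htt.1 (by ring)
  have hne' : (𝓝[Z'] z).NeBot := mem_closure_iff_nhdsWithin_neBot.1 hcl
  have h1 : Tendsto u (𝓝[Z'] z) (𝓝 (u z)) :=
    (hc z (hZK hz)).mono_left (nhdsWithin_mono z fun w hw => hZK hw.1)
  have h2 : Tendsto g (𝓝[Z'] z) (𝓝 (g z)) := ((hcg g).tendsto z).mono_left nhdsWithin_le_nhds
  have h3 : Tendsto u (𝓝[Z'] z) (𝓝 (g z)) :=
    h2.congr' (eventually_nhdsWithin_of_forall fun w hw => (hZ' w hw).symm)
  exact tendsto_nhds_unique h1 h3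

end Crest.Agent.R096.Exs_260
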