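import Crest.Agent.R96.Eac1_348

/-!
Row 96 (S0127), helper961.  **[E15]**: energy of a set of ordinary tiles off the macro balls from
`Res.lip` (errors per tile, chosen before `g`): no global `ε`, so usable for infinitely many blocks.
-/

set_option autoImplicit false
set_option linter.style.longLine false

open Set Metric Filter Topology MeasureTheory Module
open scoped ENNReal NNReal

namespace Crest.Agent.R096.Ez_961

open Crest.Agent.R096.Msh_715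
open Crest.Agent.R096.SkC1_961 (FoamD Cfg NN Hom3 E3)
open Crest.Agent.R096.Mbf_337
open Crest.Agent.R096.Ls_222 (Edg eIn finite_tiles_edg)
open Crest.Agent.R96.EaCore_348 (bt EE Ord Res)

noncomputable section

variable {δ κ0 R c0 : ℝ} {La Om : Set E3} {ι : Type}

/-- pointwise bounds on tiles give energies -/
theorem lint_split {T : Tiling Om ι} {Q : Set ι} {h : E3 → ℝ≥0∞} {b η w : ι → ℝ≥0∞} {p : ℝ}
    (hp : 1 ≤ p) (hη : ∀ i, volume (P (T.H i)) * η i ^ p ≤ w i)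
    (hb : ∀ i ∈ Q, ∀ x ∈ I (T.H i), h x ≤ b i + η i) :
    ∫⁻ x in ⋃ i ∈ Q, P (T.H i), h x ^ p ≤
      2 ^ (p - 1) * (∑' i : Q, volume (P (T.H i.1)) * b i ^ p + ∑' i : Q, w i) := by
  have hp0 : 0 ≤ p := zero_le_one.trans hp
  have h1 := Crest.Agent.R096.Ea_713.lint_tiles volume T Q (w := fun x => h x ^ p)
    (c := fun i => (b i + η i) ^ p) fun i hi x hx => ENNReal.rpow_le_rpow (hb i hi x hx) hp0
  refine h1.trans ?_
  rw [← ENNReal.tsum_add, ← ENNReal.tsum_mul_left]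
  refine ENNReal.tsum_le_tsum fun i => ?_
  calc (b i + η i) ^ p * volume (P (T.H i.1))
      ≤ (2 ^ (p - 1) * (b i ^ p + η i ^ p)) * volume (P (T.H i.1)) :=
        mul_le_mul' (ENNReal.rpow_add_le_mul_rpow_add_rpow _ _ hp) le_rfl
    _ = 2 ^ (p - 1) * (volume (P (T.H i.1)) * b i ^ p + volume (P (T.H i.1)) * η i ^ p) := by ring
    _ ≤ _ := by
        gcongr
        exact hη i

/-- the errors per tile -/
theorem exists_eta0 (T : Tiling Om ι) {p : ℝ} (hp : 1 ≤ p) {w : ι → ℝ≥0∞} (hw : ∀ i, w i ≠ 0) :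
    ∃ η : ι → ℝ≥0∞, (∀ i, η i ≠ 0) ∧ ∀ i, volume (P (T.H i)) * η i ^ p ≤ w i := by
  have hp0 : 0 < p := lt_of_lt_of_le zero_lt_one hp
  have hv : ∀ i, volume (P (T.H i)) + 1 ≠ ∞ := fun i =>
    ENNReal.add_ne_top.2 ⟨(T.cpt i).measure_lt_top.ne, ENNReal.one_ne_top⟩
  refine ⟨fun i => (w i / (volume (P (T.H i)) + 1)) ^ (1 / p), fun i => ?_, fun i => ?_⟩
  · have h1 : 0 < w i / (volume (P (T.H i)) + 1) := ENNReal.div_pos (hw i) (hv i)
    exact (ENNReal.rpow_pos_of_nonneg h1 (by positivity)).ne'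
  · rw [← ENNReal.rpow_mul, one_div, inv_mul_cancel₀ hp0.ne', ENNReal.rpow_one]
    calc volume (P (T.H i)) * (w i / (volume (P (T.H i)) + 1))
        ≤ (volume (P (T.H i)) + 1) * (w i / (volume (P (T.H i)) + 1)) := by
          gcongr
          exact le_self_add
      _ ≤ w i := ENNReal.mul_div_le

/-- **[E15]** -/
theorem exists_eta {C0 : ℝ} {C : Set (Set E3) → ℝ} {e : ℝ} {Φ : FoamD δ κ0 R c0 La}
    {T : Tiling Om ι} {f : E3 → E3} {κv : ℝ} {X : Set Φ.F} {V : Φ.F → Set ι} {ct : Φ.F → ι}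
    {A : Φ.F → E3 ≃ᵃ[ℝ] E3} {lam : Φ.F → ℝ} {l : Edg T → ℝ≥0∞} {p : ℝ} (hp : 1 ≤ p) {ε : ℝ≥0∞}
    {fr : ι → E3 ≃ᵃ[ℝ] E3} {ρ' : E3 → ℝ} {κ : Type} {a : κ → E3} {R0 R1 : κ → ℝ}
    {w : ι → ℝ≥0∞} (hw : ∀ i, w i ≠ 0) :
    ∃ η : ι → ℝ≥0∞, (∀ i, η i ≠ 0) ∧ ∀ g : E3 → E3,
      Res C0 C e Φ T f κv X V ct A lam l p ε fr ρ' a R0 R1 η g →
      ∀ Q : Set ι, Q ⊆ Ord V → (∀ i ∈ Q, ∀ x ∈ I (T.H i), ∀ k, x ∉ closedBall (a k) (R1 k)) →
        ∫⁻ x in ⋃ i ∈ Q, P (T.H i), ‖fderiv ℝ g x‖ₑ ^ p ≤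
          2 ^ (p - 1) * (EE C T fr (Ord V ∩ Q) l p + ∑' i : Q, w i) := by
  obtain ⟨η, h1, h2⟩ := exists_eta0 T hp hw
  refine ⟨η, h1, fun g hg Q hQ hk => ?_⟩
  have h3 := lint_split (T := T) (Q := Q) (h := fun x => ‖fderiv ℝ g x‖ₑ)
    (b := fun i => bt C T fr i * ∑ e ∈ eIn T i, l e) hp h2
    fun i hi x hx => hg.lip i (hQ hi) x hx (hk i hi x hx)
  refine h3.trans ?_
  rw [inter_eq_right.2 hQ]
  exact le_rfl

/-- weights with small sums on disjoint sets -/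
theorem exists_w {κ : Type*} [Countable ι] {Qc : κ → Set ι} (hd : Pairwise (Function.onFun Disjoint Qc))
    {ε : κ → ℝ≥0∞} (hε : ∀ c, ε c ≠ 0) :
    ∃ w : ι → ℝ≥0∞, (∀ i, w i ≠ 0) ∧ ∀ c, ∑' i : Qc c, w i ≤ ε c := by
  classical
  obtain ⟨u, hu0, hu⟩ := ENNReal.exists_pos_sum_of_countable' (ε := 1) one_ne_zero ι
  set w : ι → ℝ≥0∞ := fun i => if h : ∃ c, i ∈ Qc c then u i * min (ε h.choose) 1 else 1 with hw
  refine ⟨w, fun i => ?_, fun c => ?_⟩
  · simp only [hw]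
    split_ifs with h
    · exact mul_ne_zero (hu0 i).ne' (lt_min (pos_iff_ne_zero.2 (hε _)) zero_lt_one).ne'
    · exact one_ne_zero
  · have h1 : ∀ i : Qc c, w i = u i * min (ε c) 1 := by
      intro i
      have h : ∃ c, i.1 ∈ Qc c := ⟨c, i.2⟩
      have h2 : h.choose = c := by
        by_contra hne
        exact Set.disjoint_left.1 (hd hne) h.choose_spec i.2
      simp only [hw]
      rw [dif_pos h, h2]
    calc ∑' i : Qc c, w i = ∑' i : Qc c, u i * min (ε c) 1 := tsum_congr h1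
      _ = (∑' i : Qc c, u i) * min (ε c) 1 := ENNReal.tsum_mul_right
      _ ≤ 1 * ε c := by
          refine mul_le_mul' ?_ (min_le_left _ _)
          exact (ENNReal.tsum_comp_le_tsum_of_injective Subtype.val_injective u).trans hu.le
      _ = ε c := one_mul _

end

end Crest.Agent.R096.Ez_961
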