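import Crest.Agent.R96.Wm4_748
import Crest.Agent.R096.Mfi5_290
import Crest.Agent.R096.Ea0_961

/-!
# Row 96, EA0 [Z4] (961 #11134): mean over the translations of the energy of the fine classes

Potential tiles of a block: 290's `QI M X j k0`.  `fine_mean` / `z4`: all classes `inr m` (cubes of scale
`m ≥ k0`, off the shell), `kc < k0`: mean over `Tw (Q j) k0` at most `CA * ∫⁻_Ly ‖D'‖^p`.
`inner_mean`: ALL classes of `QI` (shell, coarse and fine cubes), A-form of 365.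
-/

set_option autoImplicit false
set_option linter.unusedSectionVars false
set_option linter.unusedVariables false
set_option linter.style.longLine false

open MeasureTheory Set Filter Metric
open scoped Topology ENNReal NNReal

namespace Crest.Agent.R096.Ez4_748

open Crest.Agent.R096.Msh_715 Crest.Agent.R096.Msh_810 Crest.Agent.R096.Mal_874
open Crest.Agent.R096.SkC1_961 (E3)
open Crest.Agent.R96.Sg8_199 (Mu EnA)
open Crest.Agent.R96.Sg1_199 (sgm li)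
open Crest.Agent.R96.Wm_72 (Tw Mu_mono)
open Crest.Agent.R96.Wm3_748 Crest.Agent.R96.Wm4_748
open Crest.Agent.R096.Mfa_880 (PT)
open Crest.Agent.R096.Mfi_290
open Crest.Agent.R096.EaX_766 (lin)
open Crest.Agent.R096.Exa_365 (Wt)

noncomputable section

/-! ### general -/

section gen

variable {n : ℕ} {E : Type*} [NormedAddCommGroup E] [NormedSpace ℝ E]
  [FiniteDimensional ℝ E] [MeasurableSpace E] [BorelSpace E] {μ : Measure E} [μ.IsAddHaarMeasure]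

theorem tsum_supp {τ : Type*} (f : τ → ℝ≥0∞) (P : τ → Prop) (h : ∀ t, ¬ P t → f t = 0) :
    ∑' t, f t = ∑' t : {t // P t}, f t :=
  (tsum_subtype_eq_of_support_subset (s := {t | P t})
    (fun t ht => by_contra fun h' => ht (h t h'))).symm

/-- only the shifts in `B` matter -/
theorem EnA_inter {τ η : Type*} {Til Ac : τ → Set E} {Ed : τ → Finset η} {β : τ → ℝ≥0∞}
    {G : η → E → ℝ≥0∞} {x v : η → E} {p : ℝ} {B : Set E} {a : E} (ha : a ∈ B) :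
    EnA μ Til Ac Ed β G x v p a = EnA μ Til (fun t => Ac t ∩ B) Ed β G x v p a := by
  unfold EnA
  refine tsum_congr fun t => ?_
  by_cases h : a ∈ Ac t
  · rw [indicator_of_mem h, indicator_of_mem (show a ∈ Ac t ∩ B from ⟨h, ha⟩)]
  · rw [indicator_of_notMem h, indicator_of_notMem (fun h' => h h'.1)]

/-- only the tiles with a nonempty activity set matter -/
theorem EnA_supp {τ η : Type*} {Til Ac : τ → Set E} {Ed : τ → Finset η} {β : τ → ℝ≥0∞}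
    {G : η → E → ℝ≥0∞} {x v : η → E} {p : ℝ} {a : E} :
    EnA μ Til Ac Ed β G x v p a =
      EnA μ (fun t : {t // (Ac t).Nonempty} => Til t) (fun t => Ac t) (fun t => Ed t)
        (fun t => β t) G x v p a := by
  unfold EnA
  exact tsum_supp _ _ fun t h => indicator_of_notMem (fun h' => h ⟨a, h'⟩) _

/-- **mean over a set of shifts `B`**, hypotheses only for the tiles that are used -/
theorem mean_B (ψ : E ≃L[ℝ] (Fin n → ℝ)) {F : Type*} [NormedAddCommGroup F] [NormedSpace ℝ F]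
    [MeasurableSpace F] [BorelSpace F]
    {τ η : Type*} [Countable τ] {Til Ac : τ → Set E} (hAm : ∀ t, MeasurableSet (Ac t))
    {B : Set E} (hB : MeasurableSet B)
    (Ed : τ → Finset η) {m : ℕ} (hn : ∀ t, (Ac t ∩ B).Nonempty → (Ed t).card ≤ m) (x v : η → E)
    (hsub : ∀ t, ∀ j ∈ Ed t, sgm (x j) (v j) ⊆ Til t)
    {β : τ → ℝ≥0∞} (sc : τ → ℕ) {b R : ℝ} (hb : 0 ≤ b) (hR : 0 ≤ R)
    (hβ : ∀ t, (Ac t ∩ B).Nonempty →
      β t ≤ ENNReal.ofReal (b * 2 ^ sc t) * ‖(ψ : E →L[ℝ] (Fin n → ℝ))‖ₑ)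
    (hdiam : ∀ t, (Ac t ∩ B).Nonempty →
      ∀ y ∈ Til t, ∀ y' ∈ Til t, dist (ψ y') (ψ y) ≤ R / 2 ^ sc t)
    {D' : E → E →L[ℝ] F} (hD : ∀ w, Measurable fun z => D' z w)
    {S : Set E} (hS : MeasurableSet S) (hSA : ∀ t, ∀ y ∈ Til t, ∀ a ∈ Ac t ∩ B, y + a ∈ S)
    {M : ℝ≥0∞} (hM1 : M ≠ ∞) (hM : ∀ z ∈ S, Mu μ Til (fun t => Ac t ∩ B) z ≤ M) {p : ℝ}
    (hp : 1 ≤ p) :
    ∫⁻ a in B, EnA μ Til Ac Ed β (fun j z => ‖D' z (v j)‖ₑ) x v p a ∂μ ≤
      (m * (ENNReal.ofReal (b * R) * ‖(ψ : E →L[ℝ] (Fin n → ℝ))‖ₑ)) ^ p * M *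
        ∫⁻ z in S, ‖(D' z).comp (ψ.symm : (Fin n → ℝ) →L[ℝ] E)‖ₑ ^ p ∂μ := by
  rw [setLIntegral_congr_fun (g := fun a => EnA μ
    (fun t : {t // (Ac t ∩ B).Nonempty} => Til t) (fun t => Ac t ∩ B) (fun t => Ed t)
    (fun t => β t) (fun j z => ‖D' z (v j)‖ₑ) x v p a) hB
    (fun a ha => (EnA_inter ha).trans EnA_supp)]
  refine (setLIntegral_le_lintegral _ _).trans ?_
  refine mean_of_Mu (μ := μ) (Til := fun t : {t // (Ac t ∩ B).Nonempty} => Til t)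
    (Ac := fun t => Ac t ∩ B) ψ (fun t => (hAm t).inter hB) (fun t => Ed t)
    (fun t => hn t t.2) x v (fun t => hsub t) (fun t => sc t) hb hR (fun t => hβ t t.2)
    (fun t => hdiam t t.2) hD hS (fun t => hSA t) hM1 (fun z hz => ?_) hp
  refine le_trans ?_ (hM z hz)
  exact Mu_mono (μ := μ) (fun t : {t // (Ac t ∩ B).Nonempty} => t.1)
    Subtype.val_injective (fun t => rfl) (fun t => Subset.rfl) z

/-- multiplicity of inner cubes, conditional form -/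
theorem Mu_cubes_use [NeZero n] (Q : CB E n) {τ : Type*} {Til Ac : τ → Set E} (sc : τ → ℕ)
    (zc : τ → Fin n → ℤ) (hinj : ∀ t t', sc t = sc t' → zc t = zc t' → t = t')
    (hT : ∀ t, Til t = Tw Q.ψ Q.a' (sc t) (zc t)) {k0 : ℕ} {ρ : ℝ} (hρ : 0 ≤ ρ)
    (hA : ∀ t, ∀ b ∈ Ac t, ‖Q.ψ b‖ ≤ ρ ∧ k0 ≤ sc t ∧ (k0 < sc t → Nw Q (sc t) (zc t))) (x : E) :
    Mu μ Til Ac x ≤ ENNReal.ofReal (60 * n + 1) * μ (Q.ψ ⁻¹' closedBall 0 (ρ + 1 / 2 ^ k0)) := by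
  have h1 : Mu μ Til Ac x = Mu μ (fun t : {t // (Ac t).Nonempty} => Til t) (fun t => Ac t) x := by
    unfold Mu
    refine tsum_supp _ _ fun t h => indicator_of_notMem ?_ _
    rintro ⟨y, _, hb⟩
    exact h ⟨_, hb⟩
  rw [h1]
  exact Mu_cubes (μ := μ) Q (fun t : {t // (Ac t).Nonempty} => sc t) (fun t => zc t)
    (fun t t' h h' => Subtype.ext (hinj t t' h h')) (fun t => hT t)
    (fun t => (hA t _ t.2.some_mem).2.1) (fun t => (hA t _ t.2.some_mem).2.2) hρ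
    (fun t b hb => (hA t b hb).1) x

/-- near the wall, from `IsM` -/
theorem nw_of_isM (Q : CB E n) {k : ℕ} (hk : Q.kc ≤ k) {m : ℕ} {z : Fin n → ℤ}
    (h : IsM (Q.D k hk) ⟨m, z, Finset.univ⟩) (hm : Q.kc < m) : Nw Q m z :=
  nw_of_top Q hk ⟨⟨⟨m, z, Finset.univ⟩, h⟩, rfl⟩ hm

end gen

/-- the energy of a countable family of classes -/
theorem tsum_EnC {J : Type} (R : PT J) {κ' : Type*} (kk : κ' → R.κ) (G : E3 → E3 → ℝ≥0∞) (p : ℝ)
    (s : E3) : ∑' i, R.EnC G p (kk i) s =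
      EnA volume (fun q : Σ i, {t // R.cl t = kk i} => R.Til q.2) (fun q => R.Ac q.2)
        (fun q => R.Ed q.2) (fun q => ENNReal.ofReal (R.β q.2)) (fun j => G (R.v j)) R.x R.v p s := by
  unfold PT.EnC EnA
  rw [ENNReal.tsum_sigma']

/-! ### the fine classes of `QI` -/

section fine

variable {J : Type} (M : MD E3 3 J) (X : RD M) (j : J) (k0 : ℕ) (hk0 : (M.Q j).kc ≤ k0)

theorem of_qcl_inr {t : Pt (M.Q j)} {m : ℕ} (h : qcl M k0 j t = Sum.inr m) :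
    ∃ p : ℕ × (Fin 3 → ℤ), t = Sum.inl p ∧ p.1 = m ∧ k0 ≤ m := by
  classical
  unfold qcl at h
  by_cases hc : Coarse M k0 j t
  · rw [if_pos hc] at h
    cases h
  · rw [if_neg hc] at h
    have hm : sca M j t = m := Sum.inr.inj h
    rcases t with p | s
    · refine ⟨p, rfl, hm, ?_⟩
      have h1 : ¬ p.1 < k0 := fun h' => hc (Or.inl h')
      change p.1 = m at hm
      omega
    · exact absurd trivial hc

/-- corner of a potential cube -/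
def pz : Pt (M.Q j) → Fin 3 → ℤ
  | Sum.inl p => p.2
  | Sum.inr _ => 0

theorem qβ_le {p : ℕ × (Fin 3 → ℤ)} (h : (M.Q j).kc ≤ p.1) :
    ENNReal.ofReal (qβ M j (Sum.inl p)) ≤
      ENNReal.ofReal (2 * 2 ^ p.1) * ‖((M.Q j).ψ : E3 →L[ℝ] (Fin 3 → ℝ))‖ₑ := by
  classical
  have hN : (0 : ℝ) ≤ ‖((M.Q j).ψ : E3 →L[ℝ] (Fin 3 → ℝ))‖ := norm_nonneg _
  have h1 : qβ M j (Sum.inl p) ≤ 2 * 2 ^ p.1 * ‖((M.Q j).ψ : E3 →L[ℝ] (Fin 3 → ℝ))‖ := by
    unfold qβ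
    simp only []
    have h2 : (2 : ℝ) ^ (M.Q j).kc ≤ 2 ^ p.1 := pow_le_pow_right₀ (by norm_num) h
    have h3 : (0 : ℝ) < 2 ^ p.1 := by positivity
    split_ifs
    · rw [pow_succ, mul_comm (2 ^ p.1 : ℝ) 2]
    · exact mul_le_mul_of_nonneg_right (by linarith) hN
  rw [← ofReal_norm, ← ENNReal.ofReal_mul (by positivity)]
  exact ENNReal.ofReal_le_ofReal h1

/-- number of cells in the universal list -/
def nE : ℕ := (⋃₀ {c : Set (Set (Fin 3 → ℝ)) | c ∈ simL (N0 3) 1 2 ∧ c.Finite}).ncard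

/-- the cube of shifts in the frame -/
def Bt (Q : CB E3 3) (r : ℝ) : Set E3 := Q.ψ ⁻¹' Icc 0 (fun _ => r)

theorem measurableSet_Bt (Q : CB E3 3) (r : ℝ) : MeasurableSet (Bt Q r) :=
  Q.ψ.continuous.measurable measurableSet_Icc

theorem norm_of_Bt {Q : CB E3 3} {r : ℝ} (hr : 0 ≤ r) {w : E3} (hw : w ∈ Bt Q r) : ‖Q.ψ w‖ ≤ r := by
  obtain ⟨h1, h2⟩ := hw
  rw [pi_norm_le_iff_of_nonneg hr]
  intro i
  have h3 := h1 i
  have h4 := h2 i
  rw [Real.norm_eq_abs, abs_le]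
  simp only [Pi.zero_apply] at h3
  exact ⟨by linarith, h4⟩

/-- **FINE CLASSES** (scales `≥ k0 > kc`): mean over the cube of shifts of side `r` in the frame -/
theorem fine_mean (hlt : (M.Q j).kc < k0) {𝒦 : Set (Set E3)} {U : Set E3} (h𝒦 : 𝒦.Countable)
    (hU : U.Countable) {F : Type*} [NormedAddCommGroup F] [NormedSpace ℝ F] [MeasurableSpace F]
    [BorelSpace F] {D' : E3 → E3 →L[ℝ] F} (hD : ∀ w, Measurable fun z => D' z w) {r : ℝ}
    (hr : 0 ≤ r) {S : Set E3} (hS : MeasurableSet S) (hSL : Lyr (M.Q j) (15 / 2 ^ k0 + r) ⊆ S)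
    {p : ℝ} (hp : 1 ≤ p) :
    ∫⁻ v in Bt (M.Q j) r, ∑' m : ℕ, ((QI M X j k0 hk0).toPT 𝒦 U h𝒦 hU).EnC
        (fun w y => ‖D' y w‖ₑ) p (Sum.inr m) v ≤
      ((nE : ℝ≥0∞) * (ENNReal.ofReal (2 * 1) * ‖((M.Q j).ψ : E3 →L[ℝ] (Fin 3 → ℝ))‖ₑ)) ^ p *
        (181 * volume ((M.Q j).ψ ⁻¹' closedBall 0 (r + 1 / 2 ^ k0))) *
        ∫⁻ z in S, ‖(D' z).comp ((M.Q j).ψ.symm : (Fin 3 → ℝ) →L[ℝ] E3)‖ₑ ^ p := by
  set R : PT J := (QI M X j k0 hk0).toPT 𝒦 U h𝒦 hU with hR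
  have hc := R.cτ
  have h1 : ∀ v : E3, ∑' m : ℕ, R.EnC (fun w y => ‖D' y w‖ₑ) p (Sum.inr m) v =
      EnA volume (fun q : Σ m : ℕ, {t // R.cl t = Sum.inr m} => R.Til q.2) (fun q => R.Ac q.2)
        (fun q => R.Ed q.2) (fun q => ENNReal.ofReal (R.β q.2))
        (fun j y => ‖D' y (R.v j)‖ₑ) R.x R.v p v :=
    fun v => tsum_EnC R (fun m : ℕ => (Sum.inr m : Pt (M.Q j) ⊕ ℕ)) _ p v
  refine (le_of_eq (lintegral_congr fun v => h1 v)).trans ?_
  have key : ∀ q : Σ m : ℕ, {t // R.cl t = Sum.inr m}, ∃ p : ℕ × (Fin 3 → ℤ),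
      q.2.1 = Sum.inl p ∧ p.1 = q.1 ∧ k0 ≤ q.1 := fun q => of_qcl_inr M j k0 q.2.2
  have hM1 : (181 : ℝ≥0∞) * volume ((M.Q j).ψ ⁻¹' closedBall 0 (r + 1 / 2 ^ k0)) ≠ ∞ :=
    ENNReal.mul_ne_top (by simp) (((M.Q j).ψ.toHomeomorph.isCompact_preimage.2
      (isCompact_closedBall _ _)).measure_lt_top).ne
  have huse : ∀ q : Σ m : ℕ, {t // R.cl t = Sum.inr m}, (R.Ac q.2).Nonempty →
      Nw (M.Q j) q.1 (pz M j q.2.1) := by
    intro q hq
    obtain ⟨b, hb⟩ := hq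
    obtain ⟨⟨a1, a2⟩, h2, h3, h4⟩ := key q
    change b ∈ qAc M j q.2.1 at hb
    rw [h2] at hb ⊢
    obtain ⟨-, ⟨⟨k, hk, hI⟩, -⟩, -⟩ := hb
    change a1 = q.1 at h3
    rw [← h3] at h4 ⊢
    exact nw_of_isM (M.Q j) hk hI (by omega)
  have hTil : ∀ q : Σ m : ℕ, {t // R.cl t = Sum.inr m},
      R.Til q.2 = Tw (M.Q j).ψ (M.Q j).a' q.1 (pz M j q.2.1) := by
    intro q
    obtain ⟨⟨a1, a2⟩, h2, h3, h4⟩ := key q
    change til (M.Q j) q.2.1 = _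
    rw [h2]
    change a1 = q.1 at h3
    rw [← h3]
    rfl
  refine mean_B (μ := volume) (τ := Σ m : ℕ, {t // R.cl t = Sum.inr m})
    (Til := fun q => R.Til q.2) (Ac := fun q => R.Ac q.2) (M.Q j).ψ (fun q => R.Acm q.2)
    (measurableSet_Bt _ r) (fun q => R.Ed q.2) ?_ R.x R.v ?_
    (fun q => q.1) zero_le_two zero_le_one ?_ ?_ hD hS ?_ hM1 ?_ hp
  · intro q _
    refine (RT.card_Ed_le (QI M X j k0 hk0) 𝒦 U h𝒦 hU q.2.1).trans (le_of_eq ?_)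
    have h2 : (QI M X j k0 hk0).cl q.2.1 = Sum.inr q.1 := q.2.2
    rw [h2]
    rfl
  · intro q e he
    exact (R.sub q.2.1 e he).2
  · intro q _
    obtain ⟨⟨a1, a2⟩, h2, h3, h4⟩ := key q
    change a1 = q.1 at h3
    have h5 : R.β q.2.1 = qβ M j (Sum.inl (a1, a2)) := by
      change qβ M j q.2.1 = _
      rw [h2]
    rw [h5, ← h3]
    exact qβ_le M j (p := (a1, a2)) (by change (M.Q j).kc ≤ a1; omega)
  · intro q _ y hy y' hy'
    change y ∈ R.Til q.2 at hy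
    change y' ∈ R.Til q.2 at hy'
    rw [hTil q] at hy hy'
    have h3 := dist_le_of_mem_Cu (show (M.Q j).ψ y' ∈ Cu (M.Q j).a' q.1 (pz M j q.2.1) from hy')
      (show (M.Q j).ψ y ∈ Cu (M.Q j).a' q.1 (pz M j q.2.1) from hy)
    rw [le_div_iff₀' (by positivity)]
    exact h3
  · intro q y hy a ha
    change y ∈ R.Til q.2 at hy
    rw [hTil q] at hy
    obtain ⟨-, -, -, h4⟩ := key q
    exact hSL (add_mem_Lyr (M.Q j) h4 (huse q ⟨a, ha.1⟩) hy (norm_of_Bt hr ha.2))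
  · intro z _
    refine (Mu_cubes_use (μ := volume) (M.Q j) (fun q : Σ m : ℕ, {t // R.cl t = Sum.inr m} => q.1)
      (fun q => pz M j q.2.1) ?_ hTil (k0 := k0) hr ?_ z).trans (le_of_eq ?_)
    · intro q q' hq hz
      obtain ⟨⟨a1, a2⟩, h2, h3, h4⟩ := key q
      obtain ⟨⟨b1, b2⟩, h2', h3', h4'⟩ := key q'
      obtain ⟨m, t, ht⟩ := q
      obtain ⟨m', t', ht'⟩ := q'
      change m = m' at hq
      subst hq
      change t = _ at h2
      change t' = _ at h2'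
      subst h2 h2'
      change a1 = m at h3
      change b1 = m at h3'
      change a2 = b2 at hz
      subst h3 h3' hz
      rfl
    · intro q b hb
      exact ⟨norm_of_Bt hr hb.2, (key q).choose_spec.2.2, fun _ => huse q ⟨b, hb.1⟩⟩
    · congr 1
      norm_num

/-! ### EA0 -/

theorem Tw_eq_Bt (Q : CB E3 3) (k : ℕ) : Ea0_961.Tw Q k = Bt Q (1 / (10 * 2 ^ k)) := by
  ext w
  constructor
  · intro h
    exact ⟨fun l => (h l).1, fun l => (h l).2⟩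
  · intro h l
    exact ⟨h.1 l, h.2 l⟩

/-- points near the wall are in the layer of `EA0` -/
theorem Lyr_sub_Ly (Q : CB E3 3) (k : ℕ) {s : ℝ} (hs : s ≤ 20 / 2 ^ k) :
    Lyr Q s ⊆ Ea0_961.Ly Q k := by
  intro y hy
  have h1 : infDist (Q.ψ y) Q.W ≤ s := hy
  obtain ⟨w, hw, hd⟩ := (isClosed_frontier : IsClosed Q.W).exists_infDist_eq_dist Q.W_ne (Q.ψ y)
  refine ⟨Q.ψ.symm w, ?_, ?_⟩
  · rw [CB.frontier_N, mem_preimage, ContinuousLinearEquiv.apply_symm_apply]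
    exact hw
  · rw [ContinuousLinearEquiv.apply_symm_apply, ← dist_eq_norm, ← hd]
    exact h1.trans hs

theorem Ly_eq (Q : CB E3 3) (k : ℕ) : Ea0_961.Ly Q k = Lyr Q (20 / 2 ^ k) := by
  refine Subset.antisymm ?_ (Lyr_sub_Ly Q k le_rfl)
  rintro y ⟨z, hz, h⟩
  rw [CB.frontier_N] at hz
  have hz' : Q.ψ z ∈ Q.W := hz
  show infDist (Q.ψ y) Q.W ≤ _
  refine (infDist_le_dist_of_mem hz').trans ?_
  rw [dist_eq_norm]
  exact h

theorem measurableSet_Ly (Q : CB E3 3) (k : ℕ) : MeasurableSet (Ea0_961.Ly Q k) := by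
  rw [Ly_eq]
  exact (isClosed_Lyr Q _).measurableSet

end fine

end

end Crest.Agent.R096.Ez4_748
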