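import Crest.Agent.R096.Wk6_689

/-!
# R096 / P3 / FACE (7): the new state `newSt`, its double points, free chords
-/

set_option autoImplicit false

namespace Crest.Agent.R096.Wk_689
open St_147 Fx_689

variable {ι Φ W I : Type} {M : MeshC ι Φ W} {col : I → Bool} {s : St M col}
variable (G : Set s.Dbl) (inn : s.Dbl → Bool → Bool)

/-- names of the orbits after the exchange (`none` = discarded) and the kept points -/
structure Nm where
  P : Finset W
  sub : P ⊆ s.P
  lab : W → I
  nm : Orb G inn → Option I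
  /-- the name of a kept end point is the name of its orbit -/
  hnm : ∀ {F : Φ} {w : W} (h : s.At F w), w ∈ P → nm (orb G inn (ed h)) = some (lab w)
  /-- partners of kept points are kept -/
  mem : ∀ {F : Φ} {w : W}, s.At F w → w ∈ P → mu' G inn F w ∈ P
  /-- an unresolved double point lies on sheets with the old names (if they are kept) -/
  old : ∀ {z : s.Dbl}, z ∉ G → ∀ (x : Bool) (i : I), nm (lb G inn (abv z x)) = some i →
    i = s.lab (z.e x)

variable {G inn}

lemma orb_name {N : Nm G inn} {F : Φ} {w x : W} (hw : s.At F w) (hx : s.At F x) (hwP : w ∈ N.P)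
    (hxP : x ∈ N.P) (h : orb G inn (ed hw) = orb G inn (ed hx)) : N.lab w = N.lab x := by
  have h1 := N.hnm hw hwP
  rw [h, N.hnm hx hxP] at h1
  exact (Option.some.inj h1).symm

/-- the unresolved double point under an interlaced pair of kept points of any names: its colours
and names -/
lemma face_nm {N : Nm G inn} {F : Φ} {w x : W} (hw : s.At F w) (hx : s.At F x) (hwP : w ∈ N.P)
    (hxP : x ∈ N.P) (hne : orb G inn (ed hw) ≠ orb G inn (ed hx))
    (hl : M.Lace F w (mu' G inn F w) x (mu' G inn F x)) :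
    ∃ z : s.Dbl, z ∉ G ∧ z.F = F ∧
      ((lb G inn (abv z false) = orb G inn (ed hw) ∧ lb G inn (abv z true) = orb G inn (ed hx) ∧
          N.lab w = s.lab (z.e false) ∧ N.lab x = s.lab (z.e true)) ∨
        (lb G inn (abv z false) = orb G inn (ed hx) ∧
          lb G inn (abv z true) = orb G inn (ed hw) ∧
          N.lab x = s.lab (z.e false) ∧ N.lab w = s.lab (z.e true))) := by
  obtain ⟨z, hz, hF, h | h⟩ := face hw hx hne hl
  · refine ⟨z, hz, hF, Or.inl ⟨h.1, h.2, ?_, ?_⟩⟩
    · exact N.old hz false _ (by rw [h.1]; exact N.hnm hw hwP)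
    · exact N.old hz true _ (by rw [h.2]; exact N.hnm hx hxP)
  · refine ⟨z, hz, hF, Or.inr ⟨h.1, h.2, ?_, ?_⟩⟩
    · exact N.old hz false _ (by rw [h.1]; exact N.hnm hx hxP)
    · exact N.old hz true _ (by rw [h.2]; exact N.hnm hw hwP)

/-- **the new state** -/
noncomputable def newSt (N : Nm G inn) : St M col where
  P := N.P
  lab := N.lab
  mu := mu' G inn
  mu_mem {F w} h1 h2 :=
    ⟨N.mem ⟨N.sub h1, h2⟩ h1, (mu'_at G inn (F := F) (w := w) ⟨N.sub h1, h2⟩).2⟩
  mu_ne {F w} h1 h2 := mu'_ne (F := F) (w := w) ⟨N.sub h1, h2⟩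
  mu_mu {F w} h1 h2 := mu'_mu' (F := F) (w := w) ⟨N.sub h1, h2⟩
  mu_lab {F w} h1 h2 := by
    have hat : s.At F w := ⟨N.sub h1, h2⟩
    exact orb_name (mu'_at G inn hat) hat (N.mem hat h1) h1 (orb_mu' hat)
  nc {F w x} h1 h2 h3 h4 hc h5 h6 hl := by
    have hw : s.At F w := ⟨N.sub h1, h2⟩
    have hx : s.At F x := ⟨N.sub h3, h4⟩
    have hne : orb G inn (ed hw) ≠ orb G inn (ed hx) := by
      intro h
      rcases ((orb_ed_iff hw hx).1 h.symm).2 with h7 | h7
      · exact h5 h7
      · exact h6 h7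
    obtain ⟨z, -, -, h | h⟩ := face_nm hw hx h1 h3 hne hl
    · rw [h.2.2.1, h.2.2.2, z.colr, z.colr] at hc
      exact absurd hc (by decide)
    · rw [h.2.2.1, h.2.2.2, z.colr, z.colr] at hc
      exact absurd hc (by decide)

@[simp] lemma newSt_P (N : Nm G inn) : (newSt N).P = N.P := rfl
@[simp] lemma newSt_lab (N : Nm G inn) : (newSt N).lab = N.lab := rfl
@[simp] lemma newSt_mu (N : Nm G inn) : (newSt N).mu = mu' G inn := rfl

lemma newSt_at {N : Nm G inn} {F : Φ} {w : W} (h : (newSt N).At F w) : s.At F w :=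
  ⟨N.sub h.1, h.2⟩

/-- **double points of the new state**: over each of them there is an unresolved old one with the
same face, the same names, on the same orbits -/
theorem exists_old (N : Nm G inn) (z' : (newSt N).Dbl) :
    ∃ z : s.Dbl, z ∉ G ∧ z.F = z'.F ∧
      (∀ x, lb G inn (abv z x) = orb G inn (ed (newSt_at (z'.at_ x)))) ∧
      ∀ x, s.lab (z.e x) = (newSt N).lab (z'.e x) := by
  have hw := newSt_at (z'.at_ true)
  have hx := newSt_at (z'.at_ false)
  have c1 : col (N.lab (z'.e true)) = true := z'.colr true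
  have c2 : col (N.lab (z'.e false)) = false := z'.colr false
  have hne : orb G inn (ed hw) ≠ orb G inn (ed hx) := by
    intro h
    have := orb_name hw hx (z'.at_ true).1 (z'.at_ false).1 h
    rw [this, c2] at c1
    exact absurd c1 (by decide)
  obtain ⟨z, hz, hF, h | h⟩ := face_nm hw hx (z'.at_ true).1 (z'.at_ false).1 hne z'.lace
  · exfalso
    rw [h.2.2.1, z.colr] at c1
    exact absurd c1 (by decide)
  · refine ⟨z, hz, hF, ?_, ?_⟩
    · intro x
      cases x
      · exact h.1
      · exact h.2.1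
    · intro x
      cases x
      · exact h.2.2.1.symm
      · exact h.2.2.2.symm

/-- a choice of the old double point -/
noncomputable def od (N : Nm G inn) (z' : (newSt N).Dbl) : s.Dbl := (exists_old N z').choose

lemma od_not (N : Nm G inn) (z' : (newSt N).Dbl) : od N z' ∉ G :=
  (exists_old N z').choose_spec.1

lemma od_F (N : Nm G inn) (z' : (newSt N).Dbl) : (od N z').F = z'.F :=
  (exists_old N z').choose_spec.2.1

lemma od_lb (N : Nm G inn) (z' : (newSt N).Dbl) (x : Bool) :
    lb G inn (abv (od N z') x) = orb G inn (ed (newSt_at (z'.at_ x))) :=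
  (exists_old N z').choose_spec.2.2.1 x

lemma od_lab (N : Nm G inn) (z' : (newSt N).Dbl) (x : Bool) :
    s.lab ((od N z').e x) = (newSt N).lab (z'.e x) :=
  (exists_old N z').choose_spec.2.2.2 x

theorem od_inj (N : Nm G inn) : Function.Injective (od N) := by
  intro z1 z2 h
  have hF : z1.F = z2.F := by rw [← od_F N z1, h, od_F N z2]
  apply Dbl.ext' _ hF
  funext x
  have h1 := od_lb N z1 x
  have h2 := od_lb N z2 x
  rw [h, h2] at h1
  -- same orbit
  obtain ⟨-, h3⟩ := (orb_ed_iff (newSt_at (z1.at_ x)) (newSt_at (z2.at_ x))).1 h1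
  rcases h3 with h3 | h3
  · exact h3.symm
  · exfalso
    have l1 : M.pos z1.F (z1.e x) < M.pos z1.F (mu' G inn z1.F (z1.e x)) := z1.low x
    have l2 : M.pos z2.F (z2.e x) < M.pos z2.F (mu' G inn z2.F (z2.e x)) := z2.low x
    rw [h3, ← hF, mu'_mu' (newSt_at (z1.at_ x))] at l2
    exact lt_asymm l1 l2

/-- the number of double points drops -/
theorem card_lt (N : Nm G inn) (hG : G.Nonempty) :
    Nat.card (newSt N).Dbl < Nat.card s.Dbl := by
  classical
  obtain ⟨g, hg⟩ := hG
  have h1 : Nat.card (newSt N).Dbl ≤ Nat.card {z : s.Dbl // z ≠ g} := by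
    apply Nat.card_le_card_of_injective
      (fun z' : (newSt N).Dbl => (⟨od N z', fun h => od_not N z' (h ▸ hg)⟩ : {z : s.Dbl // z ≠ g}))
    intro a b h
    exact od_inj N (by simpa using h)
  have h2 : Nat.card {z : s.Dbl // z ≠ g} < Nat.card s.Dbl := by
    have := Fintype.ofFinite s.Dbl
    rw [Nat.card_eq_fintype_card, Nat.card_eq_fintype_card]
    exact Fintype.card_subtype_lt (x := g) (by simp)
  omega

/-- the orbit of a chord without points of `G` is this chord -/
lemma orb_chd {F : Φ} {w : W} (h : s.At F w)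
    (hG : ∀ z ∈ G, z.F = F → z.e (col (s.lab w)) ≠ s.lo F w) {d : Dart s}
    (hd : orb G inn d = orb G inn (ed h)) : d.x = col (s.lab w) ∧ chd d.p = (F, s.lo F w) := by
  have hstab : ∀ d : Dart s, (d.x = (ed h).x ∧ chd d.p = chd (ed h).p) →
      ((tt G inn d).x = (ed h).x ∧ chd (tt G inn d).p = chd (ed h).p) := by
    rintro d ⟨h1, h2⟩
    have h3 := chd_tt (inn := inn) (d := d) (G := G) (by
      intro z hz h4
      rw [h2, chd_ed h] at h4
      rw [h1, x_ed h] at h4
      simp only [Prod.mk.injEq] at h4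
      exact hG z hz h4.1 h4.2)
    exact ⟨h3.1.trans h1, h3.2.trans h2⟩
  have hc := orb_eq_iff.1 hd.symm
    (fun d => d.x = (ed h).x ∧ chd d.p = chd (ed h).p) (fun d hd => hd) hstab ⟨rfl, rfl⟩
  exact ⟨hc.1.trans (x_ed h), hc.2.trans (chd_ed h)⟩

/-- a free chord with kept ends is kept and stays free -/
theorem free_keep (N : Nm G inn) {F : Φ} {w : W} (h : s.At F w) (hf : s.Free F w) :
    (newSt N).mu F w = s.mu F w ∧ (newSt N).lo F w = s.lo F w ∧ (newSt N).Free F w := by
  have hG : ∀ z ∈ G, z.F = F → z.e (col (s.lab w)) ≠ s.lo F w := fun z _ hF => hf z hF _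
  have hmu : mu' G inn F w = s.mu F w := mu'_eq_mu h hG
  have hlo : (newSt N).lo F w = s.lo F w := by
    unfold St.lo
    rw [newSt_mu, hmu]
  refine ⟨hmu, hlo, ?_⟩
  intro z' hF x he
  rw [hlo] at he
  have h1 := od_lb N z' x
  have hat := newSt_at (z'.at_ x)
  have h2 : orb G inn (ed hat) = orb G inn (ed h) := by
    rw [orb_ed_iff h hat]
    refine ⟨hF, ?_⟩
    rw [hmu, he]
    unfold St.lo
    split_ifs
    · left; rfl
    · right; rfl
  have h3 : orb G inn (⟨x, abv (od N z') x, false⟩ : Dart s) = orb G inn (ed h) := h1.trans h2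
  have h4 := orb_chd h hG h3
  have h5 : ((od N z').F, (od N z').e x) = (F, s.lo F w) := h4.2
  simp only [Prod.mk.injEq] at h5
  exact hf (od N z') h5.1 x h5.2

/-- a chord without points of `G` with kept ends keeps its partner -/
theorem mu_keep (N : Nm G inn) {F : Φ} {w : W} (h : s.At F w)
    (hG : ∀ z ∈ G, z.F = F → z.e (col (s.lab w)) ≠ s.lo F w) :
    (newSt N).mu F w = s.mu F w := mu'_eq_mu h hG

end Crest.Agent.R096.Wk_689
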