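import Crest.Agent.R096.B1_422
import Crest.Agent.R096.Wk7_689

/-!
# R096 / P3D-F: the new state from the names of the orbits (`Nms`), the exchange step (helper422)
-/

set_option autoImplicit false

namespace Crest.Agent.R096.F_422

open Crest.Agent.R096.St_147 Crest.Agent.R096.Wk_689

variable {ι Φ W I : Type} {M : MeshC ι Φ W} {col : I → Bool} {s : St M col}
variable {Act : Set ι} {far : I → Set W} {G : Set s.Dbl} {inn : s.Dbl → Bool → Bool}
variable {nm : Dart s → Option I}

/-- the name of an orbit -/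
def nmO (N : Nms s G far inn nm) : Orb G inn → Option I :=
  Quot.lift nm (by
    rintro d d' (rfl | rfl)
    · exact (N.fl d).symm
    · exact (N.tt d).symm)

theorem nmO_orb (N : Nms s G far inn nm) (d : Dart s) : nmO N (orb G inn d) = nm d := rfl

/-- `w` is connected with the marked points of sheet `i` by new chords -/
def Joined (s : St M col) (G : Set s.Dbl) (inn : s.Dbl → Bool → Bool) (far : I → Set W) (i : I)
    (w : W) : Prop :=
  ∀ X : Set W, far i ⊆ X → (∀ F v, v ∈ X → s.At F v → mu' G inn F v ∈ X) → w ∈ X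

theorem joined_far {i : I} {w : W} (h : w ∈ far i) : Joined s G inn far i w :=
  fun _ hX _ => hX h

theorem joined_mu {i : I} {F : Φ} {w : W} (h : Joined s G inn far i w) (hA : s.At F w) :
    Joined s G inn far i (mu' G inn F w) :=
  fun X h1 h2 => h2 F w (h X h1 h2) hA

theorem joined_nm (N : Nms s G far inn nm) {i : I} {w : W} (hJ : Joined s G inn far i w)
    {F : Φ} (h : s.At F w) : nm (ed h) = some i := by
  refine hJ {v | ∀ F (h : s.At F v), nm (ed h) = some i} ?_ ?_ F h
  · intro v hv F h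
    exact N.far i F v h hv
  · intro F v hv h F' h'
    rw [N.cont F' F _ h' (mu'_at G inn h), ← nmO_orb N, orb_mu' h, nmO_orb N]
    exact hv F h

open Classical in
/-- the new name of a point -/
noncomputable def lab' (s : St M col) (nm : Dart s → Option I) (w : W) : I :=
  if h : ∃ F, s.At F w then (nm (ed h.choose_spec)).getD (s.lab w) else s.lab w

theorem joined_lab (hg : s.Good Act far) (N : Nms s G far inn nm) {i : I} {w : W}
    (hJ : Joined s G inn far i w) : lab' s nm w = i := by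
  classical
  by_cases h : ∃ F, s.At F w
  · unfold lab'
    rw [dif_pos h, joined_nm N hJ h.choose_spec]
    rfl
  · unfold lab'
    rw [dif_neg h]
    have h1 : w ∈ {v | v = w → v ∈ far i} := by
      refine hJ {v | v = w → v ∈ far i} (fun v hv _ => hv) ?_
      intro F v _ hA he
      exact (h ⟨F, he ▸ mu'_at G inn hA⟩).elim
    exact (hg.far_mem (h1 rfl)).2

open Classical in
/-- the data for 689's `newSt` -/
noncomputable def nmd (hg : s.Good Act far) (N : Nms s G far inn nm) : Nm G inn where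
  P := s.P.filter (fun w => Joined s G inn far (lab' s nm w) w)
  sub := Finset.filter_subset _ _
  lab := lab' s nm
  nm := nmO N
  hnm {F w} h hw := by
    rw [nmO_orb N]
    exact joined_nm N (Finset.mem_filter.1 hw).2 h
  mem {F w} h hw := by
    have h1 := joined_mu (Finset.mem_filter.1 hw).2 h
    rw [Finset.mem_filter]
    refine ⟨(mu'_at G inn h).1, ?_⟩
    rw [joined_lab hg N h1]
    exact h1
  old {z} hz x i h := by
    have h1 : nm (dz z x false) = some i := h
    rw [N.out z hz] at h1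
    exact (Option.some.inj h1).symm

theorem mem_nmd {hg : s.Good Act far} {N : Nms s G far inn nm} {w : W} :
    w ∈ (nmd hg N).P ↔ w ∈ s.P ∧ Joined s G inn far (lab' s nm w) w := by
  classical
  exact Finset.mem_filter

theorem far_lab (hg : s.Good Act far) (N : Nms s G far inn nm) {i : I} {w : W} (h : w ∈ far i) :
    lab' s nm w = i := joined_lab hg N (joined_far h)

theorem far_mem' (hg : s.Good Act far) (N : Nms s G far inn nm) {i : I} {w : W} (h : w ∈ far i) :
    w ∈ (nmd hg N).P := by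
  rw [mem_nmd]
  refine ⟨(hg.far_mem h).1, ?_⟩
  rw [far_lab hg N h]
  exact joined_far h

/-- the new state -/
noncomputable def nst (hg : s.Good Act far) (N : Nms s G far inn nm) : St M col :=
  newSt (nmd hg N)

theorem nst_P (hg : s.Good Act far) (N : Nms s G far inn nm) : (nst hg N).P = (nmd hg N).P := rfl
theorem nst_lab (hg : s.Good Act far) (N : Nms s G far inn nm) :
    (nst hg N).lab = lab' s nm := rfl
theorem nst_mu (hg : s.Good Act far) (N : Nms s G far inn nm) :
    (nst hg N).mu = mu' G inn := rfl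
theorem nst_at {hg : s.Good Act far} {N : Nms s G far inn nm} {F : Φ} {w : W}
    (h : (nst hg N).At F w) : s.At F w := newSt_at h

/-- no point of `G` on a frozen face -/
theorem frozen_not {A : s.Arcs Act} (hG : A.Closed G) {F : Φ} (hF : St.Frozen M Act F) :
    ∀ z ∈ G, z.F = F → False := by
  intro z hz hzF
  obtain ⟨q, hq, hqA⟩ := hF
  exact hqA (hG z hz q (hzF ▸ hq)).1

theorem mu_frozen {A : s.Arcs Act} (hG : A.Closed G) (hg : s.Good Act far)
    (N : Nms s G far inn nm) {F : Φ} {w : W} (hF : St.Frozen M Act F) (h : s.At F w) :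
    (nst hg N).mu F w = s.mu F w :=
  mu_keep (nmd hg N) h (fun z hz hzF => (frozen_not hG hF z hz hzF).elim)

/-- steps between marked points -/
theorem far_sub {A : s.Arcs Act} (hG : A.Closed G) (hg : s.Good Act far)
    (N : Nms s G far inn nm) (i : I) (X : Set W)
    (hX : ∀ F w, w ∈ X → w ∈ far i → (nst hg N).At F w → (nst hg N).mu F w ∈ far i →
      ((nst hg N).Free F w ∨ St.Frozen M Act F) → (nst hg N).mu F w ∈ X)
    (w : W) (hw : w ∈ X) (hwf : w ∈ far i) : far i ⊆ X := by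
  refine hg.far_conn i X ?_ w hw hwf
  intro F w hw hwf hA hmu hfr
  have hmw : (nst hg N).mu F w = s.mu F w := by
    rcases hfr with h | h
    · exact (free_keep (nmd hg N) hA h).1
    · exact mu_frozen hG hg N h hA
  rw [← hmw] at hmu ⊢
  refine hX F w hw hwf ⟨far_mem' hg N hwf, hA.2⟩ hmu ?_
  rcases hfr with h | h
  · exact Or.inl (free_keep (nmd hg N) hA h).2.2
  · exact Or.inr h

theorem conn' {A : s.Arcs Act} (hG : A.Closed G) (hg : s.Good Act far)
    (N : Nms s G far inn nm) (i : I) : (nst hg N).Conn i := by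
  obtain ⟨w₀, hw₀⟩ := hg.far_ne i
  refine ⟨⟨w₀, far_mem' hg N hw₀, far_lab hg N hw₀⟩, ?_⟩
  intro X hX w hw hwP hwi w' hw'P hw'i
  have hwP' := (mem_nmd (hg := hg) (N := N)).1 hwP
  have hw'P' := (mem_nmd (hg := hg) (N := N)).1 hw'P
  change lab' s nm w = i at hwi
  change lab' s nm w' = i at hw'i
  rw [hwi] at hwP'
  rw [hw'i] at hw'P'
  -- some marked point is in `X`
  have h1 : ∃ v ∈ far i, v ∈ X := by
    by_contra hcon
    have h2 : w ∈ {v | ¬ (v ∈ X ∧ v ∈ (nmd hg N).P ∧ lab' s nm v = i)} := by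
      refine hwP'.2 _ ?_ ?_
      · intro v hv hv'
        exact hcon ⟨v, hv, hv'.1⟩
      · intro F v hv hA hv'
        apply hv
        have hA' := mu'_at G inn hA
        have h3 : (nst hg N).mu F (mu' G inn F v) ∈ X :=
          hX F _ hv'.1 ⟨hv'.2.1, hA'.2⟩ hv'.2.2
        rw [nst_mu, mu'_mu' hA] at h3
        have h4 := (nmd hg N).mem hA' hv'.2.1
        rw [mu'_mu' hA] at h4
        refine ⟨h3, h4, ?_⟩
        have h5 := joined_mu (mem_nmd.1 hv'.2.1).2 hA'
        rw [mu'_mu' hA, hv'.2.2] at h5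
        exact joined_lab hg N h5
    exact h2 ⟨hw, hwP, hwi⟩
  obtain ⟨v, hvf, hvX⟩ := h1
  have h2 : far i ⊆ X := far_sub hG hg N i X
    (fun F w hw hwf hA _ _ => hX F w hw hA (far_lab hg N hwf)) v hvX hvf
  have h3 : w' ∈ {v | v ∈ X ∧ v ∈ (nmd hg N).P ∧ lab' s nm v = i} := by
    refine hw'P'.2 _ ?_ ?_
    · intro v hv
      exact ⟨h2 hv, far_mem' hg N hv, far_lab hg N hv⟩
    · intro F v hv hA
      refine ⟨hX F v hv.1 ⟨hv.2.1, hA.2⟩ hv.2.2, (nmd hg N).mem hA hv.2.1, ?_⟩
      have h5 := joined_mu (mem_nmd.1 hv.2.1).2 hA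
      rw [hv.2.2] at h5
      exact joined_lab hg N h5
  exact h3.1

open Classical in
/-- transport of a function on the new chords of sheet `i` to the darts -/
noncomputable def tf (hg : s.Good Act far) (N : Nms s G far inn nm) (i : I)
    (θ : Φ → W → ZMod 2) (d : Dart s) : ZMod 2 :=
  if h : ∃ p : Φ × W, ∃ h : s.At p.1 p.2, (p.2 ∈ (nmd hg N).P ∧ lab' s nm p.2 = i) ∧
    orb G inn d = orb G inn (ed h) then θ h.choose.1 h.choose.2 else 0

theorem sep' (hg : s.Good Act far) (N : Nms s G far inn nm) (i : I) : (nst hg N).Sep i := by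
  classical
  intro θ hθ1 hθ2
  -- kept status along a chord
  have hkeep : ∀ {F : Φ} {w : W} (h : s.At F w), (w ∈ (nmd hg N).P ∧ lab' s nm w = i) →
      (mu' G inn F w ∈ (nmd hg N).P ∧ lab' s nm (mu' G inn F w) = i) := by
    intro F w h hw
    refine ⟨(nmd hg N).mem h hw.1, ?_⟩
    have h5 := joined_mu (mem_nmd.1 hw.1).2 h
    rw [hw.2] at h5
    exact joined_lab hg N h5
  have ht : ∀ {F : Φ} {w : W} (h : s.At F w), (w ∈ (nmd hg N).P ∧ lab' s nm w = i) →
      ∀ d, orb G inn d = orb G inn (ed h) → tf hg N i θ d = θ F w := by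
    intro F w h hw d hd
    have hex : ∃ p : Φ × W, ∃ h : s.At p.1 p.2, (p.2 ∈ (nmd hg N).P ∧ lab' s nm p.2 = i) ∧
      orb G inn d = orb G inn (ed h) := ⟨(F, w), h, hw, hd⟩
    unfold tf
    rw [dif_pos hex]
    obtain ⟨h1, h2, h3⟩ := hex.choose_spec
    obtain ⟨hF, hw'⟩ := (orb_ed_iff h h1).1 (h3.symm.trans hd)
    rw [hF]
    rcases hw' with h4 | h4
    · rw [h4]
    · rw [h4]
      exact hθ1 F w ⟨hw.1, h.2⟩ hw.2
  have ht0 : ∀ d, (¬ ∃ p : Φ × W, ∃ h : s.At p.1 p.2,
      (p.2 ∈ (nmd hg N).P ∧ lab' s nm p.2 = i) ∧ orb G inn d = orb G inn (ed h)) →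
      tf hg N i θ d = 0 := by
    intro d hd
    unfold tf
    rw [dif_neg hd]
  have htcongr : ∀ d d', orb G inn d = orb G inn d' → tf hg N i θ d = tf hg N i θ d' := by
    intro d d' h
    by_cases hex : ∃ p : Φ × W, ∃ h : s.At p.1 p.2, (p.2 ∈ (nmd hg N).P ∧ lab' s nm p.2 = i) ∧
      orb G inn d = orb G inn (ed h)
    · obtain ⟨⟨F, w⟩, h1, h2, h3⟩ := hex
      rw [ht h1 h2 d h3, ht h1 h2 d' (h.symm.trans h3)]
    · rw [ht0 d hex, ht0 d' (by rw [← h]; exact hex)]
  have heven : St_147.Even (tf hg N i θ) := by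
    refine ⟨fun d => htcongr _ _ (orb_flip d), ?_⟩
    intro w hw
    by_cases hk : w ∈ (nmd hg N).P ∧ lab' s nm w = i
    · rw [← hθ2 w hk.1 hk.2]
      refine Finset.sum_congr rfl fun F hF => ?_
      have hA : s.At F w := ⟨hw, MeshC.mem_fs.1 hF⟩
      rw [edv_eq hA, ht hA hk _ rfl]
    · refine Finset.sum_eq_zero fun F hF => ?_
      have hA : s.At F w := ⟨hw, MeshC.mem_fs.1 hF⟩
      rw [edv_eq hA]
      apply ht0
      rintro ⟨⟨F', w'⟩, h1, h2, h3⟩
      obtain ⟨hF', hw'⟩ := (orb_ed_iff h1 hA).1 h3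
      apply hk
      rcases hw' with h4 | h4
      · rw [h4]; exact h2
      · rw [h4]; exact hkeep h1 h2
  obtain ⟨c, c1, c2, c3, c4⟩ := N.sep (tf hg N i θ) heven (fun d => htcongr _ _ (orb_tt d)) (by
    intro d hd
    apply ht0
    rintro ⟨⟨F, w⟩, h1, h2, h3⟩
    have h4 := congrArg (nmO N) h3
    rw [nmO_orb, nmO_orb, hd, joined_nm N (mem_nmd.1 h2.1).2 h1] at h4
    exact absurd h4 (by simp))
  refine ⟨fun q w => if hh : ∃ F, s.At F w ∧ q ∈ M.side F then c q (ed hh.choose_spec.1) else 0,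
    ?_, ?_⟩
  · intro q F w hq hA hi
    have hA₀ : s.At F w := nst_at hA
    have hA' : s.At F (mu' G inn F w) := mu'_at G inn hA₀
    have h1 : ∃ F, s.At F w ∧ q ∈ M.side F := ⟨F, hA₀, hq⟩
    have h2 : ∃ F', s.At F' (mu' G inn F w) ∧ q ∈ M.side F' := ⟨F, hA', hq⟩
    beta_reduce
    rw [nst_mu, dif_pos h1, dif_pos h2, c3 q _ F _ h1.choose_spec.1 hA₀ h1.choose_spec.2 hq,
      c3 q _ F _ h2.choose_spec.1 hA' h2.choose_spec.2 hq]
    have h3 := orb_eq_iff.1 (orb_mu' (G := G) (inn := inn) hA₀).symm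
      (fun d => c q d = c q (ed hA₀) ∧ nm d ≠ none ∧ q ∈ M.side (fc d)) ?_ ?_ ?_
    · exact h3.1
    · rintro d ⟨h4, h5, h6⟩
      exact ⟨(c1 q d).trans h4, by rw [N.fl]; exact h5, h6⟩
    · rintro d ⟨h4, h5, h6⟩
      exact ⟨(c2 q d h5 h6).trans h4, by rw [N.tt]; exact h5, by rw [fc_tt]; exact h6⟩
    · refine ⟨rfl, ?_, by rw [fc_ed]; exact hq⟩
      rw [joined_nm N ((mem_nmd (hg := hg) (N := N)).1 hA.1).2 hA₀]
      simp
  · intro F w q q' hqq hA hi
    have hA₀ : s.At F w := nst_at hA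
    have hq : q ∈ M.side F := hqq ▸ Sym2.mem_mk_left q q'
    have hq' : q' ∈ M.side F := hqq ▸ Sym2.mem_mk_right q q'
    have h1 : ∃ F, s.At F w ∧ q ∈ M.side F := ⟨F, hA₀, hq⟩
    have h2 : ∃ F, s.At F w ∧ q' ∈ M.side F := ⟨F, hA₀, hq'⟩
    beta_reduce
    rw [dif_pos h1, dif_pos h2, c3 q _ F _ h1.choose_spec.1 hA₀ h1.choose_spec.2 hq,
      c3 q' _ F _ h2.choose_spec.1 hA₀ h2.choose_spec.2 hq',
      ← c4 (ed hA₀) q q' (by rw [fc_ed]; exact hqq)]
    exact (ht hA₀ ⟨hA.1, hi⟩ _ rfl).symm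

/-- **the new state is good, simpler, with fewer double points** -/
theorem new_state {A : s.Arcs Act} (hG : A.Closed G) (hne : G.Nonempty) (hg : s.Good Act far)
    (N : Nms s G far inn nm) :
    ∃ s' : St M col, s'.Good Act far ∧ St.Le Act far s' s ∧ Nat.card s'.Dbl < Nat.card s.Dbl := by
  refine ⟨nst hg N, ?_, ?_, card_lt (nmd hg N) hne⟩
  · exact
    { h1 := fun i => B_422.h1_of_sep _ i (sep' hg N i)
      conn := conn' hG hg N
      far_mem := fun {i w} h => ⟨far_mem' hg N h, far_lab hg N h⟩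
      far_ne := hg.far_ne
      far_frozen := by
        intro F w hA hF
        have h1 := hg.far_frozen (nst_at hA) hF
        rw [nst_lab, far_lab hg N h1]
        exact h1
      far_conn := far_sub hG hg N }
  · exact
    { P_sub := (nmd hg N).sub
      frozen_P := fun F w hF hw => ⟨fun h => (nmd hg N).sub h, fun h =>
        far_mem' hg N (hg.far_frozen ⟨h, hw⟩ hF)⟩
      frozen_mu := fun F w hF hA => mu_frozen hG hg N hF hA
      free := fun F w hA _ _ hf =>
        ⟨(free_keep (nmd hg N) hA hf).1, (free_keep (nmd hg N) hA hf).2.2⟩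
      dbl := fun z => ⟨od (nmd hg N) z, od_F _ z, fun x => od_lab _ z x⟩ }

end Crest.Agent.R096.F_422
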