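/-
helper396, row 96, p = 2, leaf FACE (968 #9730 (3)), part (F1): energies of the fine dyadic grids
inside the faces of a translated cubical grid, average over the translations, Fatou.
-/
import Mathlib
import Crest.Agent.R96.Intr11_538

set_option autoImplicit false
set_option linter.unusedSectionVars false

open MeasureTheory Set Filter Metric
open scoped ENNReal NNReal Topology

namespace Crest.Agent.R096.Fac_396

open Crest.Agent.R96.Coarse_538 Crest.Agent.R96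

noncomputable section

/-- mesh of level `n` -/
def hh (t : ℝ) (n : ℕ) : ℝ := t / 2 ^ n

/-- the edge integral `∫_0^1 g` on the edge in direction `i` at the vertex `m` of `a + h ℤ³`
(arc length integral = `h *` this). -/
def ei (h : ℝ) (g : E3 → ℝ≥0∞) (a : E3) (m : Fin 3 → ℤ) (i : Fin 3) : ℝ≥0∞ :=
  ∫⁻ τ in Ioc (0:ℝ) 1, g (vt h a m + τ • (h • ed i))

/-- lower corners of the squares of level `n` of the face with lower corner `k` and normal `j` of
`a + t ℤ³` -/
def SqI (n : ℕ) (k : Fin 3 → ℤ) (j : Fin 3) : Finset (Fin 3 → ℤ) :=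
  Fintype.piFinset fun i => if i = j then {2 ^ n * k i} else Finset.Ico (2 ^ n * k i) (2 ^ n * (k i + 1))

/-- the sum over the four edges of the square with lower corner `m` and normal `j` -/
def rim4 (h : ℝ) (g : E3 → ℝ≥0∞) (a : E3) (m : Fin 3 → ℤ) (j : Fin 3) : ℝ≥0∞ :=
  ∑ i ∈ Finset.univ.erase j, ∑ l ∈ (Finset.univ.erase j).erase i,
    (ei h g a m i + ei h g a (m + Pi.single l 1) i)

/-- `h² * Σ_(squares of level n of the face) Σ_(4 edges) ∫_0^1 g` (`= h Σ Σ ∫_e g`). -/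
def EN (t : ℝ) (n : ℕ) (g : E3 → ℝ≥0∞) (a : E3) (k : Fin 3 → ℤ) (j : Fin 3) : ℝ≥0∞ :=
  ENNReal.ofReal (hh t n ^ 2) * ∑ m ∈ SqI n k j, rim4 (hh t n) g a m j

/-- the energy of the face `(k,j)` of `a + t ℤ³` -/
def EF (t : ℝ) (g : E3 → ℝ≥0∞) (a : E3) (k : Fin 3 → ℤ) (j : Fin 3) : ℝ≥0∞ :=
  liminf (fun n => EN t n g a k j) atTop

/-- the energy of all faces -/
def FE (t : ℝ) (g : E3 → ℝ≥0∞) (a : E3) : ℝ≥0∞ := ∑' k : Fin 3 → ℤ, ∑ j, EF t g a k j

theorem hh_pos {t : ℝ} (ht : 0 < t) (n : ℕ) : 0 < hh t n := by unfold hh; positivity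

theorem hh_mul (t : ℝ) (n : ℕ) : hh t n * 2 ^ n = t := by unfold hh; field_simp

theorem ihom_two (t : ℝ) (n : ℕ) (k : Fin 3 → ℤ) :
    ihom (hh t n) (fun i => 2 ^ n * k i) = ihom t k := by
  ext i
  rw [ihom_apply, ihom_apply]
  push_cast
  rw [← mul_assoc, hh_mul]

theorem vt_two (t : ℝ) (n : ℕ) (a : E3) (k m : Fin 3 → ℤ) :
    vt (hh t n) a ((fun i => 2 ^ n * k i) + m) = vt t a k + ihom (hh t n) m := by
  unfold vt
  rw [map_add, ihom_two, add_assoc]

theorem mem_SqI {n : ℕ} {k : Fin 3 → ℤ} {j : Fin 3} {m : Fin 3 → ℤ} :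
    m ∈ SqI n k j ↔ m j = 2 ^ n * k j ∧ ∀ i, i ≠ j → 2 ^ n * k i ≤ m i ∧ m i < 2 ^ n * (k i + 1) := by
  simp only [SqI, Fintype.mem_piFinset]
  constructor
  · intro h
    refine ⟨?_, fun i hi => ?_⟩
    · have := h j
      simpa using this
    · have := h i
      simpa [hi] using this
  · rintro ⟨h1, h2⟩ i
    by_cases hi : i = j
    · subst hi; simpa using h1
    · simpa [hi] using h2 i hi

theorem SqI_eq (n : ℕ) (k : Fin 3 → ℤ) (j : Fin 3) :
    SqI n k j = (SqI n 0 j).map (addLeftEmbedding (fun i => 2 ^ n * k i)) := by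
  ext m
  simp only [mem_SqI, Finset.mem_map, addLeftEmbedding_apply, Pi.zero_apply]
  constructor
  · rintro ⟨h1, h2⟩
    refine ⟨m - fun i => 2 ^ n * k i, ⟨?_, fun i hi => ?_⟩, by abel⟩
    · simp [h1]
    · have := h2 i hi
      simp only [Pi.sub_apply]
      constructor <;> [skip; skip] <;> nlinarith [this.1, this.2]
  · rintro ⟨m', ⟨h1, h2⟩, rfl⟩
    refine ⟨by simp [h1], fun i hi => ?_⟩
    have := h2 i hi
    simp only [Pi.add_apply]
    constructor <;> [skip; skip] <;> nlinarith [this.1, this.2]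

theorem card_SqI (n : ℕ) (k : Fin 3 → ℤ) (j : Fin 3) : (SqI n k j).card = (2 ^ n) ^ 2 := by
  unfold SqI
  rw [Fintype.card_piFinset]
  have h1 : ∀ i : Fin 3, (if i = j then ({2 ^ n * k i} : Finset ℤ)
      else Finset.Ico (2 ^ n * k i) (2 ^ n * (k i + 1))).card = if i = j then 1 else 2 ^ n := by
    intro i
    split_ifs
    · simp
    · rw [Int.card_Ico]
      have : (2:ℤ) ^ n * (k i + 1) - 2 ^ n * k i = ((2 ^ n : ℕ) : ℤ) := by push_cast; ring
      rw [this, Int.toNat_natCast]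
  simp only [h1]
  fin_cases j <;> simp [Fin.prod_univ_three] <;> ring

/-- the piece of the edge `i` at the offset `m` -/
def gam (h : ℝ) (m : Fin 3 → ℤ) (i : Fin 3) (τ : ℝ) : E3 := ihom h m + τ • (h • ed i)

theorem measurable_gam (h : ℝ) (m : Fin 3 → ℤ) (i : Fin 3) : Measurable (gam h m i) := by
  unfold gam; fun_prop

theorem ei_two (t : ℝ) (n : ℕ) (g : E3 → ℝ≥0∞) (a : E3) (k m : Fin 3 → ℤ) (i : Fin 3) :
    ei (hh t n) g a ((fun i => 2 ^ n * k i) + m) i =
      Grid_392.pc (volume.restrict (Ioc (0:ℝ) 1)) (gam (hh t n) m i) g (a + ihom t k) := by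
  unfold ei Grid_392.pc gam
  rw [vt_two]
  simp only [vt, add_assoc]

theorem aemeasurable_ei (h : ℝ) {g : E3 → ℝ≥0∞} (hg : AEMeasurable g volume)
    (m : Fin 3 → ℤ) (i : Fin 3) : AEMeasurable (fun a => ei h g a m i) volume := by
  have h1 := Grid_392.aemeasurable_pc (ν := volume.restrict (Ioc (0:ℝ) 1))
    (measurable_gam h m i) hg
  refine h1.congr (Eventually.of_forall fun a => ?_)
  simp only [ei, Grid_392.pc, gam, vt, add_assoc]

theorem tsum_ei {t : ℝ} (ht : 0 < t) (n : ℕ) (g : E3 → ℝ≥0∞) (a : E3) (m : Fin 3 → ℤ) (i : Fin 3) :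
    ∑' k : Fin 3 → ℤ, ei (hh t n) g a ((fun i => 2 ^ n * k i) + m) i =
      Grid_392.sk (lat t) (volume.restrict (Ioc (0:ℝ) 1)) (gam (hh t n) m i) g a := by
  simp only [ei_two]
  have h1 := (AddMonoidHom.ofInjective (ihom_inj ht)).toEquiv.tsum_eq
    (fun l : (ihom t).range => Grid_392.pc (volume.restrict (Ioc (0:ℝ) 1))
      (gam (hh t n) m i) g (a + (l : E3)))
  exact h1

theorem lint_tsum_ei {t : ℝ} (ht : 0 < t) (n : ℕ) {g : E3 → ℝ≥0∞} (hg : AEMeasurable g volume)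
    (m : Fin 3 → ℤ) (i : Fin 3) :
    ∫⁻ a in Dt t, ∑' k : Fin 3 → ℤ, ei (hh t n) g a ((fun i => 2 ^ n * k i) + m) i =
      ∫⁻ x, g x := by
  have h1 := Grid_392.lintegral_sk (isFD ht) (ν := volume.restrict (Ioc (0:ℝ) 1))
    (measurable_gam (hh t n) m i) hg
  have h2 : (volume.restrict (Ioc (0:ℝ) 1)) univ = 1 := by simp
  rw [h2, one_mul] at h1
  rw [← h1]
  apply lintegral_congr
  intro a
  exact tsum_ei ht n g a m i

theorem aemeasurable_rim4 (h : ℝ) {g : E3 → ℝ≥0∞} (hg : AEMeasurable g volume)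
    (m : Fin 3 → ℤ) (j : Fin 3) : AEMeasurable (fun a => rim4 h g a m j) volume := by
  unfold rim4
  refine Finset.aemeasurable_fun_sum _ fun i _ => Finset.aemeasurable_fun_sum _ fun l _ => ?_
  exact (aemeasurable_ei h hg m i).add (aemeasurable_ei h hg _ i)

theorem aemeasurable_EN (t : ℝ) (n : ℕ) {g : E3 → ℝ≥0∞} (hg : AEMeasurable g volume)
    (k : Fin 3 → ℤ) (j : Fin 3) : AEMeasurable (fun a => EN t n g a k j) volume := by
  unfold EN
  exact (Finset.aemeasurable_fun_sum _ fun m _ => aemeasurable_rim4 (hh t n) hg m j).const_mul _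

theorem aemeasurable_liminf {α : Type*} [MeasurableSpace α] {μ : Measure α} {f : ℕ → α → ℝ≥0∞}
    (hf : ∀ n, AEMeasurable (f n) μ) : AEMeasurable (fun a => liminf (fun n => f n a) atTop) μ := by
  refine ⟨fun a => liminf (fun n => (hf n).mk (f n) a) atTop,
    Measurable.liminf fun n => (hf n).measurable_mk, ?_⟩
  filter_upwards [ae_all_iff.2 fun n => (hf n).ae_eq_mk] with a ha
  simp only [ha]

theorem aemeasurable_EF (t : ℝ) {g : E3 → ℝ≥0∞} (hg : AEMeasurable g volume)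
    (k : Fin 3 → ℤ) (j : Fin 3) : AEMeasurable (fun a => EF t g a k j) volume := by
  unfold EF
  exact aemeasurable_liminf fun n => aemeasurable_EN t n hg k j

theorem aemeasurable_FE (t : ℝ) {g : E3 → ℝ≥0∞} (hg : AEMeasurable g volume) :
    AEMeasurable (FE t g) volume := by
  unfold FE
  exact AEMeasurable.tsum fun k => Finset.aemeasurable_fun_sum _ fun j _ => aemeasurable_EF t hg k j

theorem lint_sum {α ι : Type*} [MeasurableSpace α] {μ : Measure α} (s : Finset ι)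
    {F : ι → α → ℝ≥0∞} (hF : ∀ i ∈ s, AEMeasurable (F i) μ) {I : ℝ≥0∞}
    (hI : ∀ i ∈ s, ∫⁻ a, F i a ∂μ = I) : ∫⁻ a, ∑ i ∈ s, F i a ∂μ = s.card * I := by
  rw [lintegral_finsetSum' s hF, Finset.sum_congr rfl hI, Finset.sum_const, nsmul_eq_mul]

/-- the sum over all translates of the edge at the offset `m` -/
def TE (t : ℝ) (n : ℕ) (g : E3 → ℝ≥0∞) (m : Fin 3 → ℤ) (i : Fin 3) (a : E3) : ℝ≥0∞ :=
  ∑' k : Fin 3 → ℤ, ei (hh t n) g a ((fun i => 2 ^ n * k i) + m) i

theorem aemeasurable_TE (t : ℝ) (n : ℕ) {g : E3 → ℝ≥0∞} (hg : AEMeasurable g volume)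
    (m : Fin 3 → ℤ) (i : Fin 3) : AEMeasurable (TE t n g m i) volume :=
  AEMeasurable.tsum fun _ => aemeasurable_ei (hh t n) hg _ i

theorem lint_TE {t : ℝ} (ht : 0 < t) (n : ℕ) {g : E3 → ℝ≥0∞} (hg : AEMeasurable g volume)
    (m : Fin 3 → ℤ) (i : Fin 3) : ∫⁻ a in Dt t, TE t n g m i a = ∫⁻ x, g x :=
  lint_tsum_ei ht n hg m i

/-- the sum over all translates of the rim of the square at the offset `m` -/
def TR (t : ℝ) (n : ℕ) (g : E3 → ℝ≥0∞) (m : Fin 3 → ℤ) (j : Fin 3) (a : E3) : ℝ≥0∞ :=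
  ∑' k : Fin 3 → ℤ, rim4 (hh t n) g a ((fun i => 2 ^ n * k i) + m) j

theorem TR_eq (t : ℝ) (n : ℕ) (g : E3 → ℝ≥0∞) (m : Fin 3 → ℤ) (j : Fin 3) (a : E3) :
    TR t n g m j a = ∑ i ∈ Finset.univ.erase j, ∑ l ∈ (Finset.univ.erase j).erase i,
      (TE t n g m i a + TE t n g (m + Pi.single l 1) i a) := by
  unfold TR TE rim4
  rw [Summable.tsum_finsetSum fun _ _ => ENNReal.summable]
  refine Finset.sum_congr rfl fun i _ => ?_
  rw [Summable.tsum_finsetSum fun _ _ => ENNReal.summable]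
  refine Finset.sum_congr rfl fun l _ => ?_
  rw [ENNReal.tsum_add]
  congr 2
  funext k
  rw [add_assoc]

theorem card_e1 (j : Fin 3) : (Finset.univ.erase j).card = 2 := by
  rw [Finset.card_erase_of_mem (Finset.mem_univ _), Finset.card_univ, Fintype.card_fin]

theorem card_e2 (j i : Fin 3) (hi : i ∈ Finset.univ.erase j) :
    ((Finset.univ.erase j).erase i).card = 1 := by
  rw [Finset.card_erase_of_mem hi, card_e1]

theorem lint_TR0 {t : ℝ} (ht : 0 < t) (n : ℕ) {g : E3 → ℝ≥0∞} (hg : AEMeasurable g volume)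
    (m m' : Fin 3 → ℤ) (i : Fin 3) : ∫⁻ a in Dt t, (TE t n g m i a + TE t n g m' i a) =
      2 * ∫⁻ x, g x := by
  rw [lintegral_add_left' (aemeasurable_TE t n hg m i).restrict, lint_TE ht n hg, lint_TE ht n hg,
    two_mul]

theorem lint_TR1 {t : ℝ} (ht : 0 < t) (n : ℕ) {g : E3 → ℝ≥0∞} (hg : AEMeasurable g volume)
    (m : Fin 3 → ℤ) (j i : Fin 3) (hi : i ∈ Finset.univ.erase j) :
    ∫⁻ a in Dt t, ∑ l ∈ (Finset.univ.erase j).erase i,
      (TE t n g m i a + TE t n g (m + Pi.single l 1) i a) = 2 * ∫⁻ x, g x := by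
  have h := lint_sum (μ := volume.restrict (Dt t))
    (F := fun l a => TE t n g m i a + TE t n g (m + Pi.single l 1) i a) ((Finset.univ.erase j).erase i)
      (fun l _ => (aemeasurable_TE t n hg m i).restrict.add
        (aemeasurable_TE t n hg (m + Pi.single l 1) i).restrict)
      (fun l _ => lint_TR0 ht n hg m (m + Pi.single l 1) i)
  rw [card_e2 j i hi, Nat.cast_one, one_mul] at h
  exact h

theorem lint_TR {t : ℝ} (ht : 0 < t) (n : ℕ) {g : E3 → ℝ≥0∞} (hg : AEMeasurable g volume)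
    (m : Fin 3 → ℤ) (j : Fin 3) : ∫⁻ a in Dt t, TR t n g m j a = 4 * ∫⁻ x, g x := by
  have h := lint_sum (μ := volume.restrict (Dt t))
    (F := fun i a => ∑ l ∈ (Finset.univ.erase j).erase i,
      (TE t n g m i a + TE t n g (m + Pi.single l 1) i a)) (Finset.univ.erase j)
    (fun i _ => Finset.aemeasurable_fun_sum _ fun l _ => (aemeasurable_TE t n hg m i).restrict.add
        (aemeasurable_TE t n hg (m + Pi.single l 1) i).restrict)
    (fun i hi => lint_TR1 ht n hg m j i hi)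
  rw [card_e1] at h
  have h2 : ((2:ℕ) : ℝ≥0∞) * (2 * ∫⁻ x, g x) = 4 * ∫⁻ x, g x := by
    rw [← mul_assoc]
    congr 1
    norm_num
  rw [h2] at h
  rw [← h]
  exact lintegral_congr fun a => TR_eq t n g m j a

/-- the average of the energies of level `n` of the faces of normal `j` -/
theorem tsum_EN_one (t : ℝ) (n : ℕ) (g : E3 → ℝ≥0∞) (j : Fin 3) (a : E3) :
    ∑' k : Fin 3 → ℤ, EN t n g a k j = ENNReal.ofReal (hh t n ^ 2) *
      ∑ m ∈ SqI n 0 j, TR t n g m j a := by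
  unfold EN
  rw [ENNReal.tsum_mul_left]
  congr 1
  unfold TR
  rw [← Summable.tsum_finsetSum fun _ _ => ENNReal.summable]
  congr 1
  funext k
  rw [SqI_eq, Finset.sum_map]
  rfl

theorem lint_EN_one {t : ℝ} (ht : 0 < t) (n : ℕ) {g : E3 → ℝ≥0∞} (hg : AEMeasurable g volume)
    (j : Fin 3) :
    ∫⁻ a in Dt t, ∑' k : Fin 3 → ℤ, EN t n g a k j = 4 * ENNReal.ofReal (t ^ 2) * ∫⁻ x, g x := by
  simp only [tsum_EN_one]
  have hm : ∀ m : Fin 3 → ℤ, AEMeasurable (TR t n g m j) (volume.restrict (Dt t)) := fun m =>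
    (AEMeasurable.tsum fun k => aemeasurable_rim4 (hh t n) hg _ j).restrict
  rw [lintegral_const_mul'' _ (Finset.aemeasurable_fun_sum _ fun m _ => hm m),
    lint_sum (F := fun m a => TR t n g m j a) _ (fun m _ => hm m)
      (fun m _ => lint_TR ht n hg m j), card_SqI]
  have h2 : ENNReal.ofReal (hh t n ^ 2) * (((2 ^ n) ^ 2 : ℕ) : ℝ≥0∞) = ENNReal.ofReal (t ^ 2) := by
    rw [← ENNReal.ofReal_natCast, ← ENNReal.ofReal_mul (by positivity)]
    congr 1
    push_cast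
    rw [← mul_pow, hh_mul]
  rw [← mul_assoc, h2, ← mul_assoc, mul_comm (ENNReal.ofReal (t ^ 2)) 4]

theorem lint_EN {t : ℝ} (ht : 0 < t) (n : ℕ) {g : E3 → ℝ≥0∞} (hg : AEMeasurable g volume) :
    ∫⁻ a in Dt t, ∑' k : Fin 3 → ℤ, ∑ j, EN t n g a k j =
      12 * ENNReal.ofReal (t ^ 2) * ∫⁻ x, g x := by
  have h1 : ∀ a, ∑' k : Fin 3 → ℤ, ∑ j, EN t n g a k j = ∑ j, ∑' k : Fin 3 → ℤ, EN t n g a k j := by
    intro a
    rw [Summable.tsum_finsetSum fun _ _ => ENNReal.summable]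
  simp only [h1]
  rw [lint_sum (F := fun j a => ∑' k : Fin 3 → ℤ, EN t n g a k j) _
    (fun j _ => (AEMeasurable.tsum fun k => aemeasurable_EN t n hg k j).restrict)
    (fun j _ => lint_EN_one ht n hg j), ← mul_assoc, ← mul_assoc]
  congr 2
  simp only [Finset.card_univ, Fintype.card_fin]
  norm_num

/-- Fatou for sums -/
theorem tsum_liminf_le {κ : Type*} [Countable κ] (F : ℕ → κ → ℝ≥0∞) :
    ∑' k, liminf (fun n => F n k) atTop ≤ liminf (fun n => ∑' k, F n k) atTop := by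
  let _ : MeasurableSpace κ := ⊤
  have h1 := lintegral_liminf_le (μ := Measure.count) (f := F) (u := atTop)
    fun n => measurable_from_top
  simpa only [lintegral_count] using h1

/-- **average of the face energies (Fatou)** -/
theorem lint_FE {t : ℝ} (ht : 0 < t) {g : E3 → ℝ≥0∞} (hg : AEMeasurable g volume) :
    ∫⁻ a in Dt t, FE t g a ≤ 12 * ENNReal.ofReal (t ^ 2) * ∫⁻ x, g x := by
  have h0 : ∀ a, FE t g a ≤ liminf (fun n => ∑' k : Fin 3 → ℤ, ∑ j, EN t n g a k j) atTop := by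
    intro a
    have h1 : FE t g a = ∑' q : (Fin 3 → ℤ) × Fin 3, liminf (fun n => EN t n g a q.1 q.2) atTop := by
      rw [ENNReal.tsum_prod']
      unfold FE EF
      congr 1
      funext k
      rw [tsum_fintype]
    have h2 : ∀ n, ∑' k : Fin 3 → ℤ, ∑ j, EN t n g a k j =
        ∑' q : (Fin 3 → ℤ) × Fin 3, EN t n g a q.1 q.2 := by
      intro n
      rw [ENNReal.tsum_prod']
      congr 1
      funext k
      rw [tsum_fintype]
    simp only [h1, h2]
    exact tsum_liminf_le fun n (q : (Fin 3 → ℤ) × Fin 3) => EN t n g a q.1 q.2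
  calc ∫⁻ a in Dt t, FE t g a
      ≤ ∫⁻ a in Dt t, liminf (fun n => ∑' k : Fin 3 → ℤ, ∑ j, EN t n g a k j) atTop :=
        lintegral_mono h0
    _ ≤ liminf (fun n => ∫⁻ a in Dt t, ∑' k : Fin 3 → ℤ, ∑ j, EN t n g a k j) atTop := by
        apply lintegral_liminf_le'
        intro n
        exact (AEMeasurable.tsum fun k => Finset.aemeasurable_fun_sum _ fun j _ =>
          aemeasurable_EN t n hg k j).restrict
    _ = _ := by simp only [lint_EN ht _ hg, liminf_const]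

/-- Markov -/
theorem FE_markov {t : ℝ} (ht : 0 < t) {g : E3 → ℝ≥0∞} (hg : AEMeasurable g volume)
    {c : ℝ≥0∞} (hc0 : c ≠ 0) (hc1 : c ≠ ∞) :
    volume (Dt t ∩ {a | c ≤ FE t g a}) ≤ (12 * ENNReal.ofReal (t ^ 2) * ∫⁻ x, g x) / c := by
  have h1 := mul_meas_ge_le_lintegral₀ (aemeasurable_FE t hg).restrict (μ := volume.restrict (Dt t)) c
  rw [ENNReal.le_div_iff_mul_le (Or.inl hc0) (Or.inl hc1), mul_comm]
  refine le_trans (le_of_eq ?_) (h1.trans (lint_FE ht hg))
  rw [Measure.restrict_apply₀' (meas_Dt t).nullMeasurableSet, inter_comm]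

open Classical in
/-- for most translates few of the functionals `FE t (g j)` are large -/
theorem few_bad_FE {t : ℝ} (ht : 0 < t) {ι : Type*} (J : Finset ι) {g : ι → E3 → ℝ≥0∞}
    (hg : ∀ j ∈ J, AEMeasurable (g j) volume) {c : ι → ℝ≥0∞} (hc0 : ∀ j ∈ J, c j ≠ 0)
    (hc1 : ∀ j ∈ J, c j ≠ ∞) {m : ℝ≥0∞} (hm0 : m ≠ 0) (hm1 : m ≠ ∞) :
    ∃ B : Set E3, volume B ≤ (12 * ENNReal.ofReal (t ^ 2) * ∑ j ∈ J, (∫⁻ x, g j x) / c j) / m ∧
      ∀ a ∈ Dt t, a ∉ B → ((J.filter fun j => c j ≤ FE t (g j) a).card : ℝ≥0∞) ≤ m := by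
  set n : E3 → ℝ≥0∞ := fun a => ∑ j ∈ J, (c j)⁻¹ * FE t (g j) a with hn
  have hnm : AEMeasurable n volume :=
    Finset.aemeasurable_fun_sum _ fun j hj => (aemeasurable_FE t (hg j hj)).const_mul _
  have hint : ∫⁻ a in Dt t, n a ≤ 12 * ENNReal.ofReal (t ^ 2) * ∑ j ∈ J, (∫⁻ x, g j x) / c j := by
    rw [hn, lintegral_finsetSum' _ (fun j hj => ((aemeasurable_FE t (hg j hj)).const_mul _).restrict),
      Finset.mul_sum]
    apply Finset.sum_le_sum
    intro j hj
    rw [lintegral_const_mul' _ _ (ENNReal.inv_ne_top.2 (hc0 j hj)), ENNReal.div_eq_inv_mul]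
    calc (c j)⁻¹ * ∫⁻ a in Dt t, FE t (g j) a
        ≤ (c j)⁻¹ * (12 * ENNReal.ofReal (t ^ 2) * ∫⁻ x, g j x) := by
          gcongr
          exact lint_FE ht (hg j hj)
      _ = _ := by ring
  refine ⟨Dt t ∩ {a | m ≤ n a}, ?_, ?_⟩
  · have h1 := mul_meas_ge_le_lintegral₀ (hnm.restrict (s := Dt t)) m
    rw [Measure.restrict_apply₀' (meas_Dt t).nullMeasurableSet, inter_comm] at h1
    rw [ENNReal.le_div_iff_mul_le (Or.inl hm0) (Or.inl hm1), mul_comm]
    exact h1.trans hint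
  · intro a ha haB
    have h1 : n a < m := by
      by_contra h
      exact haB ⟨ha, not_lt.1 h⟩
    refine le_trans ?_ h1.le
    calc ((J.filter fun j => c j ≤ FE t (g j) a).card : ℝ≥0∞)
        = ∑ j ∈ J.filter fun j => c j ≤ FE t (g j) a, 1 := by
          rw [Finset.sum_const, nsmul_eq_mul, mul_one]
      _ ≤ ∑ j ∈ J.filter fun j => c j ≤ FE t (g j) a, (c j)⁻¹ * FE t (g j) a := by
          apply Finset.sum_le_sum
          intro j hj
          obtain ⟨hjJ, hi⟩ := Finset.mem_filter.1 hj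
          calc (1 : ℝ≥0∞) = (c j)⁻¹ * c j := (ENNReal.inv_mul_cancel (hc0 j hjJ) (hc1 j hjJ)).symm
            _ ≤ (c j)⁻¹ * FE t (g j) a := by gcongr
      _ ≤ n a := Finset.sum_le_sum_of_subset (Finset.filter_subset _ _)

/-- **numbers for the faces**: if the energy of all faces is `< c` then there are positive numbers
`E k j` with sum at most `c` which bound the energies of the faces for infinitely many levels. -/
theorem exists_E {t : ℝ} {g : E3 → ℝ≥0∞} {a : E3} {c : ℝ} (h : FE t g a < ENNReal.ofReal c) :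
    ∃ E : (Fin 3 → ℤ) → Fin 3 → ℝ, (∀ k j, 0 < E k j) ∧
      (∀ k j, ∃ᶠ n in atTop, EN t n g a k j < ENNReal.ofReal (E k j)) ∧
      ∑' k : Fin 3 → ℤ, ∑ j, ENNReal.ofReal (E k j) ≤ ENNReal.ofReal c := by
  set Q := (Fin 3 → ℤ) × Fin 3
  have hFE : FE t g a = ∑' q : Q, EF t g a q.1 q.2 := by
    rw [ENNReal.tsum_prod']
    unfold FE
    congr 1
    funext k
    rw [tsum_fintype]
  have hfin : ∀ q : Q, EF t g a q.1 q.2 ≠ ∞ := by
    intro q
    have h1 : EF t g a q.1 q.2 ≤ FE t g a := by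
      rw [hFE]
      exact ENNReal.le_tsum (f := fun q : Q => EF t g a q.1 q.2) q
    exact (h1.trans_lt (h.trans ENNReal.ofReal_lt_top)).ne
  have hd : ENNReal.ofReal c - FE t g a ≠ 0 := by
    rw [Ne, tsub_eq_zero_iff_le, not_le]
    exact h
  obtain ⟨δ, hδ0, hδ⟩ := ENNReal.exists_pos_sum_of_countable hd Q
  refine ⟨fun k j => (EF t g a k j).toReal + δ (k, j), ?_, ?_, ?_⟩
  · intro k j
    have := hδ0 (k, j)
    have h2 : (0:ℝ) ≤ (EF t g a k j).toReal := ENNReal.toReal_nonneg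
    have h3 : (0:ℝ) < δ (k, j) := by exact_mod_cast this
    positivity
  · intro k j
    have h1 : EF t g a k j < ENNReal.ofReal ((EF t g a k j).toReal + δ (k, j)) := by
      rw [ENNReal.ofReal_add ENNReal.toReal_nonneg (δ (k, j)).coe_nonneg,
        ENNReal.ofReal_toReal (hfin (k, j)), ENNReal.ofReal_coe_nnreal]
      apply ENNReal.lt_add_right (hfin (k, j))
      have := (hδ0 (k, j)).ne'
      exact_mod_cast this
    exact frequently_lt_of_liminf_lt (by isBoundedDefault) h1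
  · have h1 : ∑' k : Fin 3 → ℤ, ∑ j, ENNReal.ofReal ((EF t g a k j).toReal + δ (k, j)) =
        ∑' q : Q, ENNReal.ofReal ((EF t g a q.1 q.2).toReal + δ q) := by
      rw [ENNReal.tsum_prod']
      congr 1
      funext k
      rw [tsum_fintype]
    rw [h1]
    have h2 : ∀ q : Q, ENNReal.ofReal ((EF t g a q.1 q.2).toReal + δ q) =
        EF t g a q.1 q.2 + (δ q : ℝ≥0∞) := by
      intro q
      rw [ENNReal.ofReal_add ENNReal.toReal_nonneg (δ q).coe_nonneg,
        ENNReal.ofReal_toReal (hfin q), ENNReal.ofReal_coe_nnreal]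
    simp only [h2]
    rw [ENNReal.tsum_add, ← hFE]
    calc FE t g a + ∑' q : Q, (δ q : ℝ≥0∞) ≤ FE t g a + (ENNReal.ofReal c - FE t g a) := by
          gcongr
      _ = ENNReal.ofReal c := by rw [add_tsub_cancel_of_le h.le]

end

end Crest.Agent.R096.Fac_396
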