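import Mathlib

/-!
Row 96 (S0127), helper696.  (S3) FAN-EX, part 1: sign vectors of a finite essential family of
linear forms, the barycentric vertices `bb σ`, existence and uniqueness of the representation of a
vector as a nonnegative combination of the vertices of a chain of sign vectors.
-/

set_option autoImplicit false
set_option linter.unusedSectionVars false
set_option linter.style.longLine false

namespace Crest.Agent.R096.Fan_696

open Set Filter Topology
open scoped Classical

variable {E : Type*} [NormedAddCommGroup E] [NormedSpace ℝ E] {ι : Type*} [Fintype ι]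

/-- sign vector of `x`. -/
noncomputable def sv (l : ι → E →L[ℝ] ℝ) (x : E) : ι → SignType := fun i => SignType.sign (l i x)

/-- realised nonzero sign vectors. -/
def VV (l : ι → E →L[ℝ] ℝ) : Type _ := {σ : ι → SignType // ∃ x, x ≠ 0 ∧ sv l x = σ}

noncomputable instance (l : ι → E →L[ℝ] ℝ) : Fintype (VV l) :=
  inferInstanceAs (Fintype {σ : ι → SignType // ∃ x, x ≠ 0 ∧ sv l x = σ})

variable {l : ι → E →L[ℝ] ℝ}

/-- a point in the relative interior of the face `σ`. -/
noncomputable def bb (σ : VV l) : E := Classical.choose σ.2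

lemma bb_ne (σ : VV l) : bb σ ≠ 0 := (Classical.choose_spec σ.2).1

lemma sv_bb (σ : VV l) : sv l (bb σ) = σ.1 := (Classical.choose_spec σ.2).2

lemma sign_bb (σ : VV l) (i : ι) : SignType.sign (l i (bb σ)) = σ.1 i := congrFun (sv_bb σ) i

/-- face order. -/
def fle (τ σ : ι → SignType) : Prop := ∀ i, τ i = 0 ∨ τ i = σ i

lemma fle_refl (σ : ι → SignType) : fle σ σ := fun _ => Or.inr rfl

lemma fle_trans {ρ τ σ : ι → SignType} (h : fle ρ τ) (h' : fle τ σ) : fle ρ σ := by
  intro i
  rcases h i with h1 | h1
  · exact Or.inl h1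
  · rcases h' i with h2 | h2
    · exact Or.inl (h1.trans h2)
    · exact Or.inr (h1.trans h2)

lemma fle_antisymm {τ σ : ι → SignType} (h : fle τ σ) (h' : fle σ τ) : τ = σ := by
  funext i
  rcases h i with h1 | h1
  · rcases h' i with h2 | h2
    · rw [h1, h2]
    · exact h2.symm
  · exact h1

/-- number of nonzero signs. -/
noncomputable def nz (σ : ι → SignType) : ℕ := (Finset.univ.filter fun i => σ i ≠ 0).card

lemma nz_lt {τ σ : ι → SignType} (h : fle τ σ) (hne : τ ≠ σ) : nz τ < nz σ := by
  apply Finset.card_lt_card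
  rw [Finset.ssubset_iff_of_subset]
  · by_contra hcon
    push Not at hcon
    apply hne
    funext i
    rcases h i with h1 | h1
    · by_cases h2 : σ i = 0
      · rw [h1, h2]
      · exact absurd h1 (by simpa using hcon i (by simpa using h2))
    · exact h1
  · intro i hi
    simp only [Finset.mem_filter, Finset.mem_univ, true_and] at hi ⊢
    rcases h i with h1 | h1
    · exact absurd h1 hi
    · rwa [← h1]

lemma nz_le {τ σ : ι → SignType} (h : fle τ σ) : nz τ ≤ nz σ := by
  by_cases hne : τ = σ
  · rw [hne]
  · exact (nz_lt h hne).le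

/-- **Existence of the chain representation.** -/
lemma exists_rep (hess : ∀ x, (∀ i, l i x = 0) → x = 0) (n : ℕ) : ∀ x : E, nz (sv l x) ≤ n →
    ∃ (c : Finset (VV l)) (a : VV l → ℝ), (∀ σ ∈ c, ∀ τ ∈ c, fle σ.1 τ.1 ∨ fle τ.1 σ.1) ∧
      (∀ τ ∈ c, fle τ.1 (sv l x)) ∧ (∀ τ ∈ c, 0 < a τ) ∧ (∀ τ ∉ c, a τ = 0) ∧
      ∑ τ, a τ • bb τ = x := by
  induction n with
  | zero =>
    intro x hx
    have h0 : x = 0 := by
      apply hess
      intro i
      have h1 : (Finset.univ.filter fun i => sv l x i ≠ 0) = ∅ := Finset.card_eq_zero.1 (by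
        simpa [nz] using hx)
      by_contra hne
      have : i ∈ (Finset.univ.filter fun i => sv l x i ≠ 0) := by
        simp only [Finset.mem_filter, Finset.mem_univ, true_and, sv]
        simpa using hne
      rw [h1] at this
      simp at this
    subst h0
    exact ⟨∅, 0, by simp, by simp, by simp, by simp, by simp⟩
  | succ n ih =>
    intro x hx
    by_cases hx0 : x = 0
    · subst hx0
      exact ⟨∅, 0, by simp, by simp, by simp, by simp, by simp⟩
    set σ₀ : VV l := ⟨sv l x, x, hx0, rfl⟩ with hσ₀
    set b := bb σ₀ with hb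
    have hsb : ∀ i, SignType.sign (l i b) = SignType.sign (l i x) := fun i => sign_bb σ₀ i
    set I : Finset ι := Finset.univ.filter fun i => l i x ≠ 0 with hI
    have hIne : I.Nonempty := by
      by_contra hcon
      rw [Finset.not_nonempty_iff_eq_empty] at hcon
      apply hx0
      apply hess
      intro i
      by_contra hne
      have : i ∈ I := by simp [hI, hne]
      rw [hcon] at this
      simp at this
    set t : ℝ := I.inf' hIne (fun i => l i x / l i b) with ht
    have hq : ∀ i, l i x ≠ 0 → 0 < l i x / l i b := by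
      intro i hi
      rcases lt_or_gt_of_ne hi with h | h
      · have h1 : l i b < 0 := by
          rw [← sign_eq_neg_one_iff, hsb, sign_eq_neg_one_iff]; exact h
        exact div_pos_of_neg_of_neg h h1
      · have h1 : 0 < l i b := by
          rw [← sign_eq_one_iff, hsb, sign_eq_one_iff]; exact h
        exact div_pos h h1
    obtain ⟨i₀, hi₀, hti₀⟩ := Finset.exists_mem_eq_inf' hIne (fun i => l i x / l i b)
    have hi₀' : l i₀ x ≠ 0 := by simpa [hI] using hi₀
    have htpos : 0 < t := by
      rw [ht, hti₀]
      exact hq i₀ hi₀'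
    have hbne : ∀ i, l i x ≠ 0 → l i b ≠ 0 := by
      intro i hi hb0
      have := hq i hi
      rw [hb0, div_zero] at this
      exact lt_irrefl _ this
    set x' : E := x - t • b with hx'
    have hlx' : ∀ i, l i x' = l i x - t * l i b := by
      intro i; simp [hx']
    have hle : fle (sv l x') (sv l x) := by
      intro i
      simp only [sv]
      by_cases hi : l i x = 0
      · left
        have h1 : l i b = 0 := by
          rw [← sign_eq_zero_iff, hsb, sign_eq_zero_iff]; exact hi
        rw [sign_eq_zero_iff, hlx', hi, h1]; ring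
      · have h2 : t ≤ l i x / l i b := by
          rw [ht]
          exact Finset.inf'_le _ (by simp [hI, hi])
        have h3 : l i x' = (l i x / l i b - t) * l i b := by
          rw [hlx', sub_mul, div_mul_cancel₀ _ (hbne i hi)]
        rcases h2.eq_or_lt with h4 | h4
        · left
          rw [sign_eq_zero_iff, h3, ← h4]; ring
        · right
          rw [h3, sign_mul, sign_pos (by linarith), one_mul, hsb]
    have hne : sv l x' ≠ sv l x := by
      intro heq
      have h1 := congrFun heq i₀
      simp only [sv] at h1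
      have h2 : l i₀ x' = 0 := by
        rw [hlx', ht, hti₀]
        field_simp [hbne i₀ hi₀']
        ring
      rw [h2, sign_zero] at h1
      exact hi₀' (sign_eq_zero_iff.1 h1.symm)
    obtain ⟨c, a, hch, hcle, hpos, hoff, hsum⟩ := ih x' (by
      have := nz_lt hle hne
      omega)
    have hσc : σ₀ ∉ c := by
      intro hmem
      exact hne (fle_antisymm hle (hcle σ₀ hmem))
    refine ⟨insert σ₀ c, fun τ => a τ + if τ = σ₀ then t else 0, ?_, ?_, ?_, ?_, ?_⟩
    · intro σ hσ τ hτ
      rw [Finset.mem_insert] at hσ hτ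
      rcases hσ with rfl | hσ
      · rcases hτ with rfl | hτ
        · exact Or.inl (fle_refl _)
        · exact Or.inr (fle_trans (hcle τ hτ) hle)
      · rcases hτ with rfl | hτ
        · exact Or.inl (fle_trans (hcle σ hσ) hle)
        · exact hch σ hσ τ hτ
    · intro τ hτ
      rw [Finset.mem_insert] at hτ
      rcases hτ with rfl | hτ
      · exact fle_refl _
      · exact fle_trans (hcle τ hτ) hle
    · intro τ hτ
      rw [Finset.mem_insert] at hτ
      rcases hτ with rfl | hτ
      · simp only [if_true]
        rw [hoff _ hσc]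
        linarith
      · have : 0 < a τ := hpos τ hτ
        show 0 < a τ + if τ = σ₀ then t else 0
        split_ifs <;> linarith
    · intro τ hτ
      rw [Finset.mem_insert, not_or] at hτ
      show (a τ + if τ = σ₀ then t else 0) = 0
      rw [if_neg hτ.1, hoff τ hτ.2, add_zero]
    · simp only [add_smul, Finset.sum_add_distrib, hsum, ite_smul, zero_smul,
        Finset.sum_ite_eq', Finset.mem_univ, if_true]
      rw [hx', ← hb]
      abel

/-- chain support. -/
def Chs (a : VV l → ℝ) : Prop :=
  ∀ σ τ : VV l, a σ ≠ 0 → a τ ≠ 0 → fle σ.1 τ.1 ∨ fle τ.1 σ.1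

/-- **Top of a chain representation = sign vector of the sum.** -/
lemma exists_top {a : VV l → ℝ} (h0 : ∀ τ, 0 ≤ a τ) (hc : Chs a) (hne : a ≠ 0) :
    ∃ σ : VV l, 0 < a σ ∧ (∀ τ, a τ ≠ 0 → fle τ.1 σ.1) ∧ sv l (∑ τ, a τ • bb τ) = σ.1 := by
  set s : Finset (VV l) := Finset.univ.filter fun τ => a τ ≠ 0 with hs
  have hsne : s.Nonempty := by
    by_contra hcon
    rw [Finset.not_nonempty_iff_eq_empty] at hcon
    apply hne
    funext τ
    by_contra h
    have : τ ∈ s := by simp only [hs, Finset.mem_filter, Finset.mem_univ, true_and]; exact h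
    rw [hcon] at this
    simp at this
  obtain ⟨σ, hσ, hmax⟩ := s.exists_max_image (fun τ => nz τ.1) hsne
  have hσ0 : a σ ≠ 0 := by simpa [hs] using hσ
  have hσpos : 0 < a σ := lt_of_le_of_ne (h0 σ) (Ne.symm hσ0)
  have htop : ∀ τ, a τ ≠ 0 → fle τ.1 σ.1 := by
    intro τ hτ
    rcases hc τ σ hτ hσ0 with h | h
    · exact h
    · by_cases heq : σ.1 = τ.1
      · rw [heq]; exact fle_refl _
      · have h1 := nz_lt h heq
        have h2 := hmax τ (by simp [hs, hτ])
        omega
  refine ⟨σ, hσpos, htop, ?_⟩
  funext i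
  have hl : l i (∑ τ, a τ • bb τ) = ∑ τ, a τ * l i (bb τ) := by
    rw [map_sum]
    exact Finset.sum_congr rfl fun τ _ => by rw [map_smul, smul_eq_mul]
  have hterm : ∀ τ, a τ = 0 ∨ SignType.sign (l i (bb τ)) = 0 ∨
      SignType.sign (l i (bb τ)) = σ.1 i := by
    intro τ
    by_cases hτ : a τ = 0
    · exact Or.inl hτ
    · right
      rw [sign_bb]
      exact htop τ hτ i
  simp only [sv, hl]
  rcases hcase : σ.1 i with _ | _ | _
  · -- zero
    have : ∑ τ, a τ * l i (bb τ) = 0 := by
      apply Finset.sum_eq_zero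
      intro τ _
      rcases hterm τ with h | h | h
      · rw [h, zero_mul]
      · rw [sign_eq_zero_iff.1 h, mul_zero]
      · rw [hcase] at h
        have : l i (bb τ) = 0 := sign_eq_zero_iff.1 h
        rw [this, mul_zero]
    rw [this, sign_zero]; rfl
  · -- neg
    have hle : ∀ τ ∈ Finset.univ, a τ * l i (bb τ) ≤ 0 := by
      intro τ _
      rcases hterm τ with h | h | h
      · rw [h, zero_mul]
      · rw [sign_eq_zero_iff.1 h, mul_zero]
      · rw [hcase] at h
        have : l i (bb τ) < 0 := sign_eq_neg_one_iff.1 h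
        exact mul_nonpos_of_nonneg_of_nonpos (h0 τ) this.le
    have hlt : ∑ τ, a τ * l i (bb τ) < 0 := by
      refine Finset.sum_neg' hle ⟨σ, Finset.mem_univ _, ?_⟩
      have : l i (bb σ) < 0 := by
        rw [← sign_eq_neg_one_iff, sign_bb, hcase]; rfl
      exact mul_neg_of_pos_of_neg hσpos this
    rw [sign_neg hlt]; rfl
  · -- pos
    have hle : ∀ τ ∈ Finset.univ, 0 ≤ a τ * l i (bb τ) := by
      intro τ _
      rcases hterm τ with h | h | h
      · rw [h, zero_mul]
      · rw [sign_eq_zero_iff.1 h, mul_zero]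
      · rw [hcase] at h
        have : 0 < l i (bb τ) := sign_eq_one_iff.1 h
        exact mul_nonneg (h0 τ) this.le
    have hlt : 0 < ∑ τ, a τ * l i (bb τ) := by
      refine Finset.sum_pos' hle ⟨σ, Finset.mem_univ _, ?_⟩
      have : 0 < l i (bb σ) := by
        rw [← sign_eq_one_iff, sign_bb, hcase]; rfl
      exact mul_pos hσpos this
    rw [sign_pos hlt]; rfl

end Crest.Agent.R096.Fan_696
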