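import Crest.Agent.R096.Fan1_696

/-!
Row 96 (S0127), helper696.  (S3) FAN-EX, part 2: uniqueness of the chain representation,
linear independence of chains, density of the open cones of full chains: the complete simplicial fan.
-/

set_option autoImplicit false
set_option linter.unusedSectionVars false
set_option linter.style.longLine false

namespace Crest.Agent.R096.Fan_696

open Set Filter Topology
open scoped Classical

variable {E : Type*} [NormedAddCommGroup E] [NormedSpace ℝ E] {ι : Type*} [Fintype ι]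
variable {l : ι → E →L[ℝ] ℝ}

/-- subtract the multiple `s` of the vertex `σ`. -/
noncomputable def sb (a : VV l → ℝ) (σ : VV l) (s : ℝ) : VV l → ℝ :=
  fun τ => a τ - if τ = σ then s else 0

lemma sb_self (a : VV l → ℝ) (σ : VV l) (s : ℝ) : sb a σ s σ = a σ - s := by simp [sb]

lemma sb_ne (a : VV l → ℝ) {σ τ : VV l} (s : ℝ) (h : τ ≠ σ) : sb a σ s τ = a τ := by simp [sb, h]

lemma sum_sb (a : VV l → ℝ) (σ : VV l) (s : ℝ) :
    ∑ τ, sb a σ s τ • bb τ = ∑ τ, a τ • bb τ - s • bb σ := by
  simp only [sb, sub_smul, Finset.sum_sub_distrib, ite_smul, zero_smul, Finset.sum_ite_eq',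
    Finset.mem_univ, if_true]

/-- support. -/
noncomputable def sp (a : VV l → ℝ) : Finset (VV l) := Finset.univ.filter fun τ => a τ ≠ 0

lemma mem_sp {a : VV l → ℝ} {τ : VV l} : τ ∈ sp a ↔ a τ ≠ 0 := by simp [sp]

lemma sv_zero : sv l (0 : E) = fun _ => 0 := by
  funext i; simp [sv]

lemma sv_ne_zero (hess : ∀ x, (∀ i, l i x = 0) → x = 0) (σ : VV l) : σ.1 ≠ sv l (0 : E) := by
  intro h
  apply bb_ne σ
  apply hess
  intro i
  have h1 := sign_bb σ i
  rw [h] at h1
  simp only [sv, map_zero, sign_zero] at h1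
  exact sign_eq_zero_iff.1 h1

/-- **Uniqueness of the chain representation.** -/
lemma rep_unique (hess : ∀ x, (∀ i, l i x = 0) → x = 0) (n : ℕ) : ∀ a a' : VV l → ℝ,
    (∀ τ, 0 ≤ a τ) → (∀ τ, 0 ≤ a' τ) → Chs a → Chs a' →
    ∑ τ, a τ • bb τ = ∑ τ, a' τ • bb τ → (sp a).card + (sp a').card ≤ n → a = a' := by
  induction n with
  | zero =>
    intro a a' _ _ _ _ _ hn
    have h1 : sp a = ∅ := Finset.card_eq_zero.1 (by omega)
    have h2 : sp a' = ∅ := Finset.card_eq_zero.1 (by omega)
    funext τ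
    have e1 : a τ = 0 := by
      by_contra h
      have := mem_sp.2 h
      rw [h1] at this
      simp at this
    have e2 : a' τ = 0 := by
      by_contra h
      have := mem_sp.2 h
      rw [h2] at this
      simp at this
    rw [e1, e2]
  | succ n ih =>
    -- the main step, with `a σ ≤ a' σ`
    have key : ∀ (a a' : VV l → ℝ) (σ : VV l), (∀ τ, 0 ≤ a τ) → (∀ τ, 0 ≤ a' τ) → Chs a → Chs a' →
        ∑ τ, a τ • bb τ = ∑ τ, a' τ • bb τ → (sp a).card + (sp a').card ≤ n + 1 →
        0 < a σ → 0 < a' σ → (∀ τ, a τ ≠ 0 → fle τ.1 σ.1) → (∀ τ, a' τ ≠ 0 → fle τ.1 σ.1) →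
        a σ ≤ a' σ → a = a' := by
      intro a a' σ h0 h0' hc hc' hsum hn hσ hσ' htop htop' hle
      set s := a σ with hs
      have hr0 : ∀ τ, 0 ≤ sb a σ s τ := by
        intro τ
        by_cases h : τ = σ
        · subst h; rw [sb_self, hs]; simp
        · rw [sb_ne a s h]; exact h0 τ
      have hr0' : ∀ τ, 0 ≤ sb a' σ s τ := by
        intro τ
        by_cases h : τ = σ
        · subst h; rw [sb_self]; linarith
        · rw [sb_ne a' s h]; exact h0' τ
      have hsup : ∀ τ, sb a σ s τ ≠ 0 → a τ ≠ 0 := by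
        intro τ h
        by_cases h1 : τ = σ
        · subst h1; exact hσ.ne'
        · rwa [sb_ne a s h1] at h
      have hsup' : ∀ τ, sb a' σ s τ ≠ 0 → a' τ ≠ 0 := by
        intro τ h
        by_cases h1 : τ = σ
        · subst h1; exact hσ'.ne'
        · rwa [sb_ne a' s h1] at h
      have hrc : Chs (sb a σ s) := fun τ ρ h1 h2 => hc τ ρ (hsup τ h1) (hsup ρ h2)
      have hrc' : Chs (sb a' σ s) := fun τ ρ h1 h2 => hc' τ ρ (hsup' τ h1) (hsup' ρ h2)
      have hsum' : ∑ τ, sb a σ s τ • bb τ = ∑ τ, sb a' σ s τ • bb τ := by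
        rw [sum_sb, sum_sb, hsum]
      have hrσ : sb a σ s σ = 0 := by rw [sb_self, hs]; simp
      -- `a' σ = s`
      have hrσ' : sb a' σ s σ = 0 := by
        by_contra hne
        have hr'ne : sb a' σ s ≠ 0 := fun h => hne (by rw [h]; rfl)
        obtain ⟨σ₂, h2pos, h2top, h2sv⟩ := exists_top hr0' hrc' hr'ne
        have e1 : σ₂ = σ := by
          apply Subtype.ext
          exact fle_antisymm (htop' σ₂ (hsup' σ₂ h2pos.ne')) (h2top σ hne)
        by_cases hrz : sb a σ s = 0
        · rw [← hsum', hrz] at h2sv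
          apply sv_ne_zero hess σ₂
          rw [← h2sv]
          simp
        · obtain ⟨σ₁, h1pos, h1top, h1sv⟩ := exists_top hr0 hrc hrz
          rw [hsum', h2sv, e1] at h1sv
          have : σ₁ = σ := (Subtype.ext h1sv).symm
          rw [this, hrσ] at h1pos
          exact lt_irrefl _ h1pos
      have hsp : (sp (sb a σ s)).card < (sp a).card := by
        apply Finset.card_lt_card
        rw [Finset.ssubset_iff_of_subset]
        · exact ⟨σ, mem_sp.2 hσ.ne', fun h => mem_sp.1 h hrσ⟩
        · intro τ hτ; exact mem_sp.2 (hsup τ (mem_sp.1 hτ))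
      have hsp' : (sp (sb a' σ s)).card < (sp a').card := by
        apply Finset.card_lt_card
        rw [Finset.ssubset_iff_of_subset]
        · exact ⟨σ, mem_sp.2 hσ'.ne', fun h => mem_sp.1 h hrσ'⟩
        · intro τ hτ; exact mem_sp.2 (hsup' τ (mem_sp.1 hτ))
      have heq := ih _ _ hr0 hr0' hrc hrc' hsum' (by omega)
      funext τ
      by_cases h1 : τ = σ
      · subst h1
        rw [sb_self] at hrσ'
        linarith
      · have := congrFun heq τ
        rwa [sb_ne a s h1, sb_ne a' s h1] at this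
    intro a a' h0 h0' hc hc' hsum hn
    by_cases ha : a = 0
    · by_contra hne
      have ha' : a' ≠ 0 := fun h => hne (by rw [ha, h])
      obtain ⟨σ, -, -, hσ⟩ := exists_top h0' hc' ha'
      rw [← hsum, ha] at hσ
      apply sv_ne_zero hess σ
      rw [← hσ]; simp
    · by_cases ha' : a' = 0
      · exfalso
        obtain ⟨σ, -, -, hσ⟩ := exists_top h0 hc ha
        rw [hsum, ha'] at hσ
        apply sv_ne_zero hess σ
        rw [← hσ]; simp
      · obtain ⟨σ, hσ, htop, hsv⟩ := exists_top h0 hc ha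
        obtain ⟨σ', hσ', htop', hsv'⟩ := exists_top h0' hc' ha'
        have heq : σ' = σ := by
          apply Subtype.ext
          rw [← hsv', ← hsv, hsum]
        subst heq
        rcases le_total (a σ') (a' σ') with h | h
        · exact key a a' σ' h0 h0' hc hc' hsum hn hσ hσ' htop htop' h
        · exact (key a' a σ' h0' h0 hc' hc hsum.symm (by omega) hσ' hσ htop' htop h).symm

/-- chains. -/
def IsCh (c : Finset (VV l)) : Prop := ∀ σ ∈ c, ∀ τ ∈ c, fle σ.1 τ.1 ∨ fle τ.1 σ.1

lemma chs_of_isCh {c : Finset (VV l)} (hc : IsCh c) {a : VV l → ℝ} (h : ∀ τ ∉ c, a τ = 0) :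
    Chs a := by
  intro σ τ hσ hτ
  refine hc σ ?_ τ ?_
  · by_contra h1; exact hσ (h σ h1)
  · by_contra h1; exact hτ (h τ h1)

/-- linear independence of the vertices of a chain. -/
lemma chain_indep (hess : ∀ x, (∀ i, l i x = 0) → x = 0) {c : Finset (VV l)} (hc : IsCh c)
    {a : VV l → ℝ} (hoff : ∀ τ ∉ c, a τ = 0) (hsum : ∑ τ, a τ • bb τ = 0) : a = 0 := by
  have h1 : ∑ τ, (max (a τ) 0) • bb τ = ∑ τ, (max (-a τ) 0) • bb τ := by
    rw [← sub_eq_zero, ← Finset.sum_sub_distrib]
    refine Eq.trans (Finset.sum_congr rfl fun τ _ => ?_) hsum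
    rw [← sub_smul]
    congr 1
    rcases le_total (a τ) 0 with h | h
    · rw [max_eq_right h, max_eq_left (by linarith)]; ring
    · rw [max_eq_left h, max_eq_right (by linarith)]; ring
  have h2 := rep_unique hess _ (fun τ => max (a τ) 0) (fun τ => max (-a τ) 0)
    (fun τ => le_max_right _ _) (fun τ => le_max_right _ _)
    (chs_of_isCh hc fun τ hτ => by simp [hoff τ hτ])
    (chs_of_isCh hc fun τ hτ => by simp [hoff τ hτ]) h1 le_rfl
  funext τ
  have h3 := congrFun h2 τ
  rcases le_total (a τ) 0 with h | h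
  · rw [max_eq_right h, max_eq_left (by linarith)] at h3
    simp only [Pi.zero_apply]; linarith
  · rw [max_eq_left h, max_eq_right (by linarith)] at h3
    simp only [Pi.zero_apply]; linarith

lemma chain_linearIndependent (hess : ∀ x, (∀ i, l i x = 0) → x = 0) {c : Finset (VV l)}
    (hc : IsCh c) : LinearIndependent ℝ (fun τ : c => bb (τ : VV l)) := by
  rw [Fintype.linearIndependent_iff]
  intro g hg τ
  set a : VV l → ℝ := fun σ => if h : σ ∈ c then g ⟨σ, h⟩ else 0 with ha
  have h0 : a = 0 := by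
    apply chain_indep hess hc
    · intro σ hσ; simp [ha, hσ]
    · rw [← hg]
      have e1 : ∑ τ, a τ • bb τ = ∑ τ ∈ c, a τ • bb τ := by
        symm
        apply Finset.sum_subset (Finset.subset_univ _)
        intro σ _ hσ
        simp [ha, hσ]
      rw [e1, ← Finset.sum_coe_sort c]
      refine Finset.sum_congr rfl fun σ _ => ?_
      simp [ha]
  have h1 := congrFun h0 τ.1
  simpa [ha] using h1

end Crest.Agent.R096.Fan_696
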