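import Crest.Agent.R096.Fan2_696

/-!
Row 96 (S0127), helper696.  (S3) FAN-EX, part 3: the complete simplicial fan (full chains),
`exists_fan`: refines any finite set of linear forms.
-/

set_option autoImplicit false
set_option linter.unusedSectionVars false
set_option linter.style.longLine false

namespace Crest.Agent.R096.Fan_696

open Set Filter Topology Module
open scoped Classical

variable {E : Type*} [NormedAddCommGroup E] [NormedSpace ℝ E]

/-- a finite union of proper subspaces has empty interior. -/
lemma interior_biUnion_proper [FiniteDimensional ℝ E] {α : Type*} (C : Finset α)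
    (W : α → Submodule ℝ E) (hs : ∀ c ∈ C, W c ≠ ⊤) :
    interior (⋃ c ∈ C, (W c : Set E)) = ∅ := by
  induction C using Finset.induction_on with
  | empty => simp
  | insert c C _ ih =>
    rw [Finset.set_biUnion_insert]
    rw [interior_union_isClosed_of_interior_empty (Submodule.closed_of_finiteDimensional (W c))
      (ih fun c' hc' => hs c' (Finset.mem_insert_of_mem hc'))]
    by_contra hne
    exact hs c (Finset.mem_insert_self _ _)
      (Submodule.eq_top_of_nonempty_interior' (W c) (nonempty_iff_ne_empty.2 hne))

/-- nonnegative combination of the vectors of `c`. -/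
structure Rp {V : Type*} [Fintype V] (v : V → E) (c : Finset V) (a : V → ℝ) (x : E) : Prop where
  nonneg : ∀ i, 0 ≤ a i
  off : ∀ i ∉ c, a i = 0
  sum : ∑ i, a i • v i = x

/-- a basis cone is closed. -/
lemma isClosed_cone [FiniteDimensional ℝ E] {V : Type*} [Fintype V] {v : V → E} {c : Finset V}
    (hc : LinearIndependent ℝ (fun i : c => v i)) (hcard : c.card = finrank ℝ E) :
    IsClosed {x : E | ∃ a, Rp v c a x} := by
  by_cases hne : Nonempty c
  · have hcard' : Fintype.card c = finrank ℝ E := by simpa using hcard
    let B := basisOfLinearIndependentOfCardEqFinrank hc hcard'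
    have hB : ∀ i : c, B i = v i := fun i => by
      simp [B]
    have : {x : E | ∃ a, Rp v c a x} = ⋂ i : c, {x | 0 ≤ B.repr x i} := by
      ext x
      simp only [mem_ofPred_eq, mem_iInter]
      constructor
      · rintro ⟨a, ha⟩ i
        have hx : x = ∑ j : c, a j • B j := by
          rw [← ha.sum]
          have e1 : ∑ j, a j • v j = ∑ j ∈ c, a j • v j := by
            symm
            apply Finset.sum_subset (Finset.subset_univ _)
            intro j _ hj
            rw [ha.off j hj, zero_smul]
          rw [e1, ← Finset.sum_coe_sort c]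
          exact Finset.sum_congr rfl fun j _ => by rw [hB]
        have h2 : B.repr x i = a i := by
          rw [hx, B.repr_sum_self]
        rw [h2]; exact ha.nonneg _
      · intro h
        refine ⟨fun j => if hj : j ∈ c then B.repr x ⟨j, hj⟩ else 0, ?_, ?_, ?_⟩
        · intro j
          by_cases hj : j ∈ c
          · simp only [hj, dif_pos]; exact h _
          · simp [hj]
        · intro j hj; simp [hj]
        · have e1 : ∑ j, (if hj : j ∈ c then B.repr x ⟨j, hj⟩ else 0) • v j =
              ∑ j ∈ c, (if hj : j ∈ c then B.repr x ⟨j, hj⟩ else 0) • v j := by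
            symm
            apply Finset.sum_subset (Finset.subset_univ _)
            intro j _ hj
            simp [hj]
          rw [e1, ← Finset.sum_coe_sort c]
          conv_rhs => rw [← B.sum_repr x]
          refine Finset.sum_congr rfl fun j _ => ?_
          rw [hB]
          simp
    rw [this]
    refine isClosed_iInter fun i => ?_
    have hcont : Continuous fun x => B.repr x i := by
      have : (fun x => B.repr x i) = fun x => B.coord i x := by
        funext x; simp [Basis.coord_apply]
      rw [this]
      exact (B.coord i).continuous_of_finiteDimensional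
    exact isClosed_le continuous_const hcont
  · have hc0 : c = ∅ := by
      rw [Finset.eq_empty_iff_forall_notMem]
      intro i hi; exact hne ⟨⟨i, hi⟩⟩
    have h0 : finrank ℝ E = 0 := by rw [← hcard, hc0]; rfl
    have hsub : Subsingleton E := finrank_zero_iff.1 h0
    exact (Set.subsingleton_of_subsingleton).isClosed

variable {ι : Type*} [Fintype ι] {l : ι → E →L[ℝ] ℝ}

/-- full chains. -/
noncomputable def TT (l : ι → E →L[ℝ] ℝ) : Finset (Finset (VV l)) :=
  Finset.univ.filter fun c => IsCh c ∧ c.card = finrank ℝ E

lemma mem_TT {c : Finset (VV l)} : c ∈ TT l ↔ IsCh c ∧ c.card = finrank ℝ E := by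
  simp [TT]

/-- **Covering.** -/
theorem cover [FiniteDimensional ℝ E] (hess : ∀ x, (∀ i, l i x = 0) → x = 0) (x : E) :
    ∃ c ∈ TT l, ∃ a, Rp (bb (l := l)) c a x := by
  set U : Set E := ⋃ c ∈ TT l, {x : E | ∃ a, Rp (bb (l := l)) c a x} with hU
  have hUc : IsClosed U := by
    apply Set.Finite.isClosed_biUnion (Finset.finite_toSet _)
    intro c hc
    have hc' := mem_TT.1 hc
    exact isClosed_cone (chain_linearIndependent hess hc'.1) hc'.2
  obtain ⟨C, hC⟩ : ∃ C : Finset (Finset (VV l)), ∀ c, c ∈ C ↔ (IsCh c ∧ c.card < finrank ℝ E) :=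
    ⟨Finset.univ.filter fun c : Finset (VV l) => IsCh c ∧ c.card < finrank ℝ E, fun c => by simp⟩
  have hsub : Uᶜ ⊆ ⋃ c ∈ C, ((Submodule.span ℝ (bb (l := l) '' c) : Submodule ℝ E) : Set E) := by
    intro y hy
    obtain ⟨c, a, hch, -, hpos, hoff, hsum⟩ := exists_rep hess _ y le_rfl
    have hch' : IsCh c := hch
    have hli := chain_linearIndependent hess hch'
    have hcard : c.card ≤ finrank ℝ E := by
      simpa using hli.fintype_card_le_finrank
    have hlt : c.card < finrank ℝ E := by
      refine lt_of_le_of_ne hcard fun heq => hy ?_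
      simp only [hU, mem_iUnion]
      refine ⟨c, mem_TT.2 ⟨hch', heq⟩, a, ?_, hoff, hsum⟩
      intro i
      by_cases hi : i ∈ c
      · exact (hpos i hi).le
      · rw [hoff i hi]
    simp only [mem_iUnion]
    refine ⟨c, (hC c).2 ⟨hch', hlt⟩, ?_⟩
    · rw [SetLike.mem_coe, ← hsum]
      refine Submodule.sum_mem _ fun τ _ => ?_
      by_cases hτ : τ ∈ c
      · exact Submodule.smul_mem _ _ (Submodule.subset_span ⟨τ, hτ, rfl⟩)
      · rw [hoff τ hτ, zero_smul]; exact Submodule.zero_mem _
  have hint : interior (⋃ c ∈ C, ((Submodule.span ℝ (bb (l := l) '' c) : Submodule ℝ E) : Set E)) =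
      ∅ := by
    apply interior_biUnion_proper
    intro c hc htop
    have hc2 := (hC c).1 hc
    have h1 : finrank ℝ (Submodule.span ℝ (bb (l := l) '' c)) ≤ c.card := by
      have := finrank_span_finset_le_card (R := ℝ) (c.image (bb (l := l)))
      rw [Finset.coe_image] at this
      exact this.trans Finset.card_image_le
    rw [htop, finrank_top] at h1
    omega
  have hempty : Uᶜ = ∅ := by
    have : Uᶜ ⊆ interior (⋃ c ∈ C,
        ((Submodule.span ℝ (bb (l := l) '' c) : Submodule ℝ E) : Set E)) :=
      interior_maximal hsub hUc.isOpen_compl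
    rw [hint] at this
    exact subset_empty_iff.1 this
  have hx : x ∈ U := by
    by_contra h
    have : x ∈ Uᶜ := h
    rw [hempty] at this
    exact this
  simp only [hU, mem_iUnion] at hx
  obtain ⟨c, hc, hx⟩ := hx
  exact ⟨c, hc, hx⟩

/-- **FAN-EX.**  For every finite set `L` of linear forms there is a complete simplicial fan on
whose cones every form of `L` has constant sign. -/
theorem exists_fan [FiniteDimensional ℝ E] (L : Finset (E →L[ℝ] ℝ)) :
    ∃ (V : Type) (_ : Fintype V) (v : V → E) (T : Finset (Finset V)),
      (∀ c ∈ T, c.card = finrank ℝ E) ∧ (∀ x, ∃ c ∈ T, ∃ a, Rp v c a x) ∧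
      (∀ c ∈ T, ∀ c' ∈ T, ∀ a a' x, Rp v c a x → Rp v c' a' x → a = a') ∧
      (∀ c ∈ T, LinearIndependent ℝ (fun i : c => v i)) ∧
      (∀ i, v i ≠ 0) ∧
      (∀ c ∈ T, ∀ f ∈ L, (∀ i ∈ c, 0 ≤ f (v i)) ∨ (∀ i ∈ c, f (v i) ≤ 0)) := by
  set n := finrank ℝ E with hn
  let B : Basis (Fin n) ℝ E := finBasis ℝ E
  let e := L.equivFin
  let l : (Fin n ⊕ Fin L.card) → E →L[ℝ] ℝ := Sum.elim
    (fun j => LinearMap.toContinuousLinearMap (B.coord j)) (fun j => (e.symm j).1)
  have hess : ∀ x, (∀ i, l i x = 0) → x = 0 := by
    intro x hx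
    apply B.ext_elem_iff.2
    intro j
    have := hx (Sum.inl j)
    simp only [l, Sum.elim_inl, LinearMap.coe_toContinuousLinearMap', Basis.coord_apply] at this
    rw [this]; simp
  refine ⟨VV l, inferInstance, bb, TT l, fun c hc => (mem_TT.1 hc).2, cover hess, ?_,
    fun c hc => chain_linearIndependent hess (mem_TT.1 hc).1, bb_ne, ?_⟩
  · intro c hc c' hc' a a' x h h'
    exact rep_unique hess _ a a' h.nonneg h'.nonneg (chs_of_isCh (mem_TT.1 hc).1 h.off)
      (chs_of_isCh (mem_TT.1 hc').1 h'.off) (h.sum.trans h'.sum.symm) le_rfl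
  · intro c hc f hf
    have hch := (mem_TT.1 hc).1
    set i : Fin n ⊕ Fin L.card := Sum.inr (e ⟨f, hf⟩) with hi
    have hli : l i = f := by simp [l, hi]
    by_cases hex : ∃ σ ∈ c, 0 < f (bb σ)
    · left
      obtain ⟨σ, hσ, hpos⟩ := hex
      intro τ hτ
      have h1 : σ.1 i = 1 := by
        rw [← sign_bb, hli]; exact sign_pos hpos
      by_contra hneg
      push Not at hneg
      have h2 : τ.1 i = -1 := by
        rw [← sign_bb, hli]; exact sign_neg hneg
      rcases hch σ hσ τ hτ with h | h
      · rcases h i with h3 | h3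
        · rw [h1] at h3; exact absurd h3 (by decide)
        · rw [h1, h2] at h3; exact absurd h3 (by decide)
      · rcases h i with h3 | h3
        · rw [h2] at h3; exact absurd h3 (by decide)
        · rw [h1, h2] at h3; exact absurd h3 (by decide)
    · right
      push Not at hex
      exact hex

end Crest.Agent.R096.Fan_696
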