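import Mathlib

/-!
Row 96, P5-FANPATH (helper812): complete simplicial fans, dimension free.
-/

set_option autoImplicit false

open Module

namespace Crest.Agent.R096.Fp_812

/-- `a` are nonnegative coordinates of `x` in the cone over the cell `c` -/
structure Rep {V E : Type*} [Fintype V] [AddCommGroup E] [Module ℝ E]
    (v : V → E) (c : Finset V) (a : V → ℝ) (x : E) : Prop where
  nonneg : ∀ i, 0 ≤ a i
  off : ∀ i, i ∉ c → a i = 0
  sum : ∑ i, a i • v i = x

/-- a complete simplicial fan in `E`: finitely many cells, each with `finrank E` generators, every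
`x` lies in the cone of a cell and its coordinates are unique. -/
structure Fan (V E : Type*) [Fintype V] [AddCommGroup E] [Module ℝ E] where
  v : V → E
  T : Finset (Finset V)
  card : ∀ c ∈ T, c.card = finrank ℝ E
  cov : ∀ x : E, ∃ c ∈ T, ∃ a : V → ℝ, Rep v c a x
  uniq : ∀ c ∈ T, ∀ c' ∈ T, ∀ (a a' : V → ℝ) (x : E), Rep v c a x → Rep v c' a' x → a = a'

namespace Rep

variable {V E : Type*} [Fintype V] [AddCommGroup E] [Module ℝ E]
  {v : V → E} {c : Finset V} {a b : V → ℝ} {x y : E}

theorem add (ha : Rep v c a x) (hb : Rep v c b y) : Rep v c (a + b) (x + y) where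
  nonneg i := add_nonneg (ha.nonneg i) (hb.nonneg i)
  off i hi := by simp [ha.off i hi, hb.off i hi]
  sum := by simp [add_smul, Finset.sum_add_distrib, ha.sum, hb.sum]

theorem smul {t : ℝ} (ht : 0 ≤ t) (ha : Rep v c a x) : Rep v c (t • a) (t • x) where
  nonneg i := mul_nonneg ht (ha.nonneg i)
  off i hi := by simp [ha.off i hi]
  sum := by simp [mul_smul, ← Finset.smul_sum, ha.sum]

theorem self [DecidableEq V] {i : V} (hi : i ∈ c) : Rep v c (Pi.single i 1) (v i) where
  nonneg j := by
    by_cases h : j = i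
    · subst h; simp
    · simp [h]
  off j hj := by
    have : j ≠ i := fun h => hj (h ▸ hi)
    simp [this]
  sum := by
    rw [Finset.sum_eq_single i]
    · simp
    · intro j _ hj; simp [hj]
    · intro h; exact absurd (Finset.mem_univ _) h

end Rep

namespace Fan

variable {V E : Type*} [Fintype V] [AddCommGroup E] [Module ℝ E] (F : Fan V E)

/-- the cell of `x` (chosen) -/
noncomputable def cell (x : E) : Finset V := (F.cov x).choose

theorem cell_mem (x : E) : F.cell x ∈ F.T := (F.cov x).choose_spec.1

/-- the coordinates of `x` -/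
noncomputable def co (x : E) : V → ℝ := (F.cov x).choose_spec.2.choose

theorem co_rep (x : E) : Rep F.v (F.cell x) (F.co x) x := (F.cov x).choose_spec.2.choose_spec

theorem co_eq {c : Finset V} (hc : c ∈ F.T) {a : V → ℝ} {x : E} (h : Rep F.v c a x) :
    F.co x = a := F.uniq _ (F.cell_mem x) c hc _ _ x (F.co_rep x) h

/-- the cone over a cell -/
def cone (c : Finset V) : Set E := {x | ∃ a, Rep F.v c a x}

theorem mem_cone_iff {c : Finset V} (hc : c ∈ F.T) {x : E} :
    x ∈ F.cone c ↔ Rep F.v c (F.co x) x :=
  ⟨fun ⟨_, ha⟩ => by rw [F.co_eq hc ha]; exact ha, fun h => ⟨_, h⟩⟩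

theorem exists_cone (x : E) : ∃ c ∈ F.T, x ∈ F.cone c := ⟨_, F.cell_mem x, _, F.co_rep x⟩

/-- the map with `v i ↦ w i`, linear on every cell -/
noncomputable def map {G : Type*} [AddCommGroup G] [Module ℝ G] (w : V → G) (x : E) : G :=
  ∑ i, F.co x i • w i

theorem map_of_rep {G : Type*} [AddCommGroup G] [Module ℝ G] (w : V → G) {c : Finset V}
    (hc : c ∈ F.T) {a : V → ℝ} {x : E} (h : Rep F.v c a x) : F.map w x = ∑ i, a i • w i := by
  rw [map, F.co_eq hc h]

theorem map_v (x : E) : F.map F.v x = x := (F.co_rep x).sum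

theorem map_vertex {G : Type*} [AddCommGroup G] [Module ℝ G] [DecidableEq V] (w : V → G)
    {c : Finset V} (hc : c ∈ F.T) {i : V} (hi : i ∈ c) : F.map w (F.v i) = w i := by
  rw [F.map_of_rep w hc (Rep.self hi), Finset.sum_eq_single i]
  · simp
  · intro j _ hj; simp [hj]
  · intro h; exact absurd (Finset.mem_univ _) h

theorem map_smul {G : Type*} [AddCommGroup G] [Module ℝ G] (w : V → G) {t : ℝ} (ht : 0 ≤ t)
    (x : E) : F.map w (t • x) = t • F.map w x := by
  rw [F.map_of_rep w (F.cell_mem x) ((F.co_rep x).smul ht), map, Finset.smul_sum]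
  simp [mul_smul]

theorem map_add_of_cone {G : Type*} [AddCommGroup G] [Module ℝ G] (w : V → G) {c : Finset V}
    (hc : c ∈ F.T) {x y : E} (hx : x ∈ F.cone c) (hy : y ∈ F.cone c) :
    F.map w (x + y) = F.map w x + F.map w y := by
  rw [F.mem_cone_iff hc] at hx hy
  rw [F.map_of_rep w hc (hx.add hy), map, map, ← Finset.sum_add_distrib]
  simp [add_smul]

theorem map_sub_map {G : Type*} [AddCommGroup G] [Module ℝ G] (w w' : V → G) (x : E) :
    F.map w x - F.map w' x = F.map (w - w') x := by
  simp [map, smul_sub, Finset.sum_sub_distrib]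

/-- generators of a cell are independent -/
theorem li {c : Finset V} (hc : c ∈ F.T) : LinearIndependent ℝ (fun i : c => F.v i) := by
  classical
  rw [Fintype.linearIndependent_iff]
  intro g hg i
  -- a large multiple of the constant coordinates
  set M : ℝ := ∑ j, |g j| with hM
  have hM0 : 0 ≤ M := Finset.sum_nonneg fun j _ => abs_nonneg _
  have hgM : ∀ j, |g j| ≤ M := fun j =>
    Finset.single_le_sum (f := fun j => |g j|) (fun j _ => abs_nonneg _) (Finset.mem_univ j)
  let a : V → ℝ := fun j => if h : j ∈ c then M + g ⟨j, h⟩ else 0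
  let b : V → ℝ := fun j => if h : j ∈ c then M else 0
  have key : ∀ f : c → ℝ, ∑ j, (if h : j ∈ c then f ⟨j, h⟩ else 0) • F.v j
      = ∑ j : c, f j • F.v j := by
    intro f
    rw [← Finset.sum_subset (Finset.subset_univ c)]
    · rw [← Finset.sum_coe_sort]
      refine Finset.sum_congr rfl fun j _ => ?_
      simp
    · intro j _ hj; simp [hj]
  have ha : Rep F.v c a (∑ j : c, M • F.v j) := by
    refine ⟨fun j => ?_, fun j hj => by simp [a, hj], ?_⟩
    · by_cases h : j ∈ c
      · simp only [a, h, dif_pos]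
        have := neg_le_of_abs_le (hgM ⟨j, h⟩)
        linarith
      · simp [a, h]
    · have := key (fun j => M + g j)
      simp only [a]
      rw [this]
      simp only [add_smul, Finset.sum_add_distrib, hg, add_zero]
  have hb : Rep F.v c b (∑ j : c, M • F.v j) := by
    refine ⟨fun j => ?_, fun j hj => by simp [b, hj], ?_⟩
    · by_cases h : j ∈ c <;> simp [b, h, hM0]
    · exact key (fun _ => M)
  have := congrFun (F.uniq c hc c hc a b _ ha hb) i.1
  simp only [a, b, i.2, dif_pos] at this
  simpa using this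

end Fan

end Crest.Agent.R096.Fp_812
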