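import Crest.Agent.R096.Fan3_696
import Crest.Agent.R096.Str1_696
import Crest.Agent.R096.FpDefs_812

/-!
Row 96 (S0127), helper696.  (S2)+(S3): a conic selection of finitely many linear maps is linear on
every cone of a complete simplicial fan (812's `Fan`), which in addition refines any given finite
set of linear forms.
-/

set_option autoImplicit false
set_option linter.unusedSectionVars false
set_option linter.style.longLine false

namespace Crest.Agent.R096.Fan_696

open Set Filter Topology Module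
open scoped Classical
open Crest.Agent.R096

variable {E F : Type*} [NormedAddCommGroup E] [NormedSpace ℝ E]
  [NormedAddCommGroup F] [NormedSpace ℝ F]

/-- on a preconnected set on which different maps of `S` differ everywhere, a continuous selection
of `S` is one map of `S`. -/
lemma sel_const {X Y : Type*} [TopologicalSpace X] [TopologicalSpace Y] [T2Space Y]
    {C : Set X} (hC : IsPreconnected C) {S : Finset (X → Y)} (hS : ∀ A ∈ S, Continuous A)
    {H : X → Y} (hH : ContinuousOn H C) (hsel : ∀ x ∈ C, ∃ A ∈ S, H x = A x)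
    {A : X → Y} (hA : A ∈ S) (hne : ∀ B ∈ S, (∃ x ∈ C, B x ≠ A x) → ∀ x ∈ C, B x ≠ A x)
    {x₀ : X} (hx₀ : x₀ ∈ C) (h₀ : H x₀ = A x₀) : ∀ x ∈ C, H x = A x := by
  have hpc : PreconnectedSpace C := isPreconnected_iff_preconnectedSpace.1 hC
  have hHc : Continuous (fun x : C => H x) := continuousOn_iff_continuous_domRestrict.1 hH
  -- the coincidence set is clopen in `C`
  have h1 : IsClosed {x : C | H x = A x} :=
    isClosed_eq hHc ((hS A hA).comp continuous_subtype_val)
  set S' : Finset (X → Y) := S.filter fun B => ∃ x ∈ C, B x ≠ A x with hS'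
  have h2 : {x : C | H x = A x}ᶜ = ⋃ B ∈ S', {x : C | H x = B x} := by
    ext x
    simp only [mem_compl_iff, mem_ofPred_eq, mem_iUnion]
    constructor
    · intro hx
      obtain ⟨B, hB, hHB⟩ := hsel x x.2
      refine ⟨B, ?_, hHB⟩
      rw [hS', Finset.mem_filter]
      exact ⟨hB, x, x.2, fun h => hx (hHB.trans h)⟩
    · rintro ⟨B, hB, hHB⟩ hx
      rw [hS', Finset.mem_filter] at hB
      exact hne B hB.1 hB.2 x x.2 (hHB.symm.trans hx)
  have h3 : IsClosed ({x : C | H x = A x}ᶜ) := by
    rw [h2]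
    refine Set.Finite.isClosed_biUnion (Finset.finite_toSet _) fun B hB => ?_
    have hB' : B ∈ S := (Finset.mem_filter.1 (hS' ▸ (Finset.mem_coe.1 hB))).1
    exact isClosed_eq hHc ((hS B hB').comp continuous_subtype_val)
  have h4 : IsClopen {x : C | H x = A x} := ⟨h1, isClosed_compl_iff.1 h3⟩
  have h5 := h4.eq_univ ⟨⟨x₀, hx₀⟩, h₀⟩
  intro x hx
  have : (⟨x, hx⟩ : C) ∈ {x : C | H x = A x} := by rw [h5]; trivial
  exact this

/-- finitely many linear forms which separate the maps of `S`. -/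
lemma exists_forms [FiniteDimensional ℝ F] (S : Finset (E →L[ℝ] F)) :
    ∃ L : Finset (E →L[ℝ] ℝ), ∀ A ∈ S, ∀ B ∈ S, A ≠ B →
      ∃ f ∈ L, f ≠ 0 ∧ ∀ x, A x = B x → f x = 0 := by
  let b := finBasis ℝ F
  let co : Fin (finrank ℝ F) → F →L[ℝ] ℝ := fun j => LinearMap.toContinuousLinearMap (b.coord j)
  refine ⟨(S ×ˢ S ×ˢ (Finset.univ : Finset (Fin (finrank ℝ F)))).image
    fun q => (co q.2.2).comp (q.1 - q.2.1), ?_⟩
  intro A hA B hB hAB
  have : ∃ j, (co j).comp (A - B) ≠ 0 := by
    by_contra hcon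
    push Not at hcon
    apply hAB
    ext x
    apply b.ext_elem
    intro j
    have := congrArg (fun g : E →L[ℝ] ℝ => g x) (hcon j)
    simp only [ContinuousLinearMap.comp_apply, sub_apply, map_sub, zero_apply] at this
    have h2 : b.coord j (A x) = b.coord j (B x) := sub_eq_zero.1 this
    simpa [Basis.coord_apply] using h2
  obtain ⟨j, hj⟩ := this
  refine ⟨(co j).comp (A - B), ?_, hj, ?_⟩
  · rw [Finset.mem_image]
    exact ⟨(A, B, j), by simp [hA, hB], rfl⟩
  · intro x hx
    simp [hx]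

/-- **A conic selection is linear on every basis cone on which the separating forms have constant
sign.** -/
lemma conic_linear_on_cone [FiniteDimensional ℝ E] {H : E → F} {S : Finset (E →L[ℝ] F)}
    (hH : Str_696.Conic H S) {L : Finset (E →L[ℝ] ℝ)}
    (hL : ∀ A ∈ S, ∀ B ∈ S, A ≠ B → ∃ f ∈ L, f ≠ 0 ∧ ∀ x, A x = B x → f x = 0)
    {V : Type*} [Fintype V] {v : V → E} {c : Finset V} (hcard : c.card = finrank ℝ E)
    (hli : LinearIndependent ℝ (fun i : c => v i))
    (hsign : ∀ f ∈ L, (∀ i ∈ c, 0 ≤ f (v i)) ∨ (∀ i ∈ c, f (v i) ≤ 0)) :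
    ∃ A ∈ S, ∀ a x, Rp v c a x → H x = A x := by
  have hspan : Submodule.span ℝ (range fun i : c => v i) = ⊤ := by
    by_cases hne : Nonempty c
    · have hcard' : Fintype.card c = finrank ℝ E := by simpa using hcard
      exact hli.span_eq_top_of_card_eq_finrank hcard'
    · have hc0 : c = ∅ := by
        rw [Finset.eq_empty_iff_forall_notMem]
        intro i hi; exact hne ⟨⟨i, hi⟩⟩
      have h0 : finrank ℝ E = 0 := by rw [← hcard, hc0]; rfl
      have hsub : Subsingleton E := finrank_zero_iff.1 h0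
      exact Subsingleton.elim _ _
  -- a nonzero form has a nonzero value on a generator
  have hgen : ∀ f : E →L[ℝ] ℝ, f ≠ 0 → ∃ i ∈ c, f (v i) ≠ 0 := by
    intro f hf
    by_contra hcon
    push Not at hcon
    apply hf
    have : (f : E →ₗ[ℝ] ℝ) = 0 := by
      apply LinearMap.ext_on_range hspan
      intro i
      simpa using hcon i i.2
    ext x
    exact congrArg (fun g : E →ₗ[ℝ] ℝ => g x) this
  -- open cone
  set C : Set E := {x | ∃ a, Rp v c a x ∧ ∀ i ∈ c, 0 < a i} with hC
  have hconv : Convex ℝ C := by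
    rintro x ⟨a, ha, hpos⟩ y ⟨b, hb, hpos'⟩ s t hs ht hst
    refine ⟨fun i => s * a i + t * b i, ⟨?_, ?_, ?_⟩, ?_⟩
    · intro i; have := ha.nonneg i; have := hb.nonneg i; positivity
    · intro i hi; simp [ha.off i hi, hb.off i hi]
    · simp only [add_smul, mul_smul, Finset.sum_add_distrib, ← Finset.smul_sum, ha.sum, hb.sum]
    · intro i hi
      have h1 := hpos i hi
      have h2 := hpos' i hi
      rcases hs.eq_or_lt with h | h
      · have : t = 1 := by linarith
        rw [← h, this]; simpa using h2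
      · have : 0 < s * a i := mul_pos h h1
        have : 0 ≤ t * b i := mul_nonneg ht h2.le
        linarith
  -- the forms do not vanish on `C`
  have hval : ∀ f : E →L[ℝ] ℝ, ∀ a x, Rp v c a x → f x = ∑ i ∈ c, a i * f (v i) := by
    intro f a x h
    have e1 : ∑ i ∈ c, a i * f (v i) = ∑ i, a i * f (v i) := by
      apply Finset.sum_subset (Finset.subset_univ _)
      intro i _ hi
      rw [h.off i hi, zero_mul]
    rw [e1, ← h.sum, map_sum]
    exact Finset.sum_congr rfl fun i _ => by rw [map_smul, smul_eq_mul]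
  have hne : ∀ f ∈ L, f ≠ 0 → ∀ x ∈ C, f x ≠ 0 := by
    rintro f hf hf0 x ⟨a, ha, hpos⟩
    obtain ⟨i, hi, hi0⟩ := hgen f hf0
    rw [hval f a x ha]
    rcases hsign f hf with h | h
    · have : 0 < ∑ i ∈ c, a i * f (v i) := by
        refine Finset.sum_pos' (fun j hj => mul_nonneg (hpos j hj).le (h j hj)) ⟨i, hi, ?_⟩
        exact mul_pos (hpos i hi) (lt_of_le_of_ne (h i hi) (Ne.symm hi0))
      exact this.ne'
    · have : ∑ i ∈ c, a i * f (v i) < 0 := by
        refine Finset.sum_neg' (fun j hj => mul_nonpos_of_nonneg_of_nonpos (hpos j hj).le (h j hj))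
          ⟨i, hi, ?_⟩
        exact mul_neg_of_pos_of_neg (hpos i hi) (lt_of_le_of_ne (h i hi) hi0)
      exact this.ne
  -- the center
  set z : E := ∑ i ∈ c, v i with hz
  have hzC : z ∈ C := by
    refine ⟨fun i => if i ∈ c then 1 else 0, ⟨?_, ?_, ?_⟩, ?_⟩
    · intro i; split_ifs <;> norm_num
    · intro i hi; simp [hi]
    · simp only [ite_smul, one_smul, zero_smul, Finset.sum_ite_mem, Finset.univ_inter]; rfl
    · intro i hi; simp [hi]
  obtain ⟨A, hA, hHA⟩ := hH.sel z
  refine ⟨A, hA, ?_⟩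
  have hCA : ∀ x ∈ C, H x = A x := by
    have := sel_const (C := C) hconv.isPreconnected
      (S := S.image fun B : E →L[ℝ] F => (B : E → F)) (H := H) (A := A) ?_ hH.cont.continuousOn ?_
      (Finset.mem_image_of_mem _ hA) ?_ hzC hHA
    · exact this
    · intro B hB
      obtain ⟨B', -, rfl⟩ := Finset.mem_image.1 hB
      exact B'.continuous
    · intro x _
      obtain ⟨B, hB, hHB⟩ := hH.sel x
      exact ⟨B, Finset.mem_image_of_mem _ hB, hHB⟩
    · intro B hB hex x hx heq
      obtain ⟨B', hB', rfl⟩ := Finset.mem_image.1 hB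
      have hne' : B' ≠ A := by
        rintro rfl
        obtain ⟨y, -, hy⟩ := hex
        exact hy rfl
      obtain ⟨f, hf, hf0, hfz⟩ := hL B' hB' A hA hne'
      exact hne f hf hf0 x hx (hfz x heq)
  intro a x hx
  -- limit from the open cone
  have hmem : ∀ ε : ℝ, 0 < ε → x + ε • z ∈ C := by
    intro ε hε
    refine ⟨fun i => a i + if i ∈ c then ε else 0, ⟨?_, ?_, ?_⟩, ?_⟩
    · intro i
      have := hx.nonneg i
      split_ifs <;> linarith
    · intro i hi; simp [hi, hx.off i hi]
    · simp only [add_smul, Finset.sum_add_distrib, hx.sum, ite_smul, zero_smul,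
        Finset.sum_ite_mem, Finset.univ_inter, hz, Finset.smul_sum]
    · intro i hi
      have := hx.nonneg i
      simp only [hi, if_true]
      linarith
  have hlim1 : Tendsto (fun ε : ℝ => H (x + ε • z)) (𝓝[>] 0) (𝓝 (H x)) := by
    have : Continuous fun ε : ℝ => H (x + ε • z) :=
      hH.cont.comp (continuous_const.add (continuous_id.smul continuous_const))
    have h2 := this.tendsto 0
    simp only [zero_smul, add_zero] at h2
    exact h2.mono_left nhdsWithin_le_nhds
  have hlim2 : Tendsto (fun ε : ℝ => A (x + ε • z)) (𝓝[>] 0) (𝓝 (A x)) := by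
    have : Continuous fun ε : ℝ => A (x + ε • z) :=
      A.continuous.comp (continuous_const.add (continuous_id.smul continuous_const))
    have h2 := this.tendsto 0
    simp only [zero_smul, add_zero] at h2
    exact h2.mono_left nhdsWithin_le_nhds
  refine tendsto_nhds_unique hlim1 (hlim2.congr' ?_)
  filter_upwards [self_mem_nhdsWithin] with ε hε
  exact (hCA _ (hmem ε hε)).symm

lemma rep_iff {V : Type*} [Fintype V] {v : V → E} {c : Finset V} {a : V → ℝ} {x : E} :
    Fp_812.Rep v c a x ↔ Rp v c a x :=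
  ⟨fun h => ⟨h.nonneg, h.off, h.sum⟩, fun h => ⟨h.nonneg, h.off, h.sum⟩⟩

/-- **(S3) in 812's format.**  Every conic selection of finitely many linear maps is linear on the
cones of a complete simplicial fan which refines a given finite set of linear forms. -/
theorem exists_Fan [FiniteDimensional ℝ E] [FiniteDimensional ℝ F] {H : E → F}
    {S : Finset (E →L[ℝ] F)} (hH : Str_696.Conic H S) (L : Finset (E →L[ℝ] ℝ)) :
    ∃ (V : Type) (_ : Fintype V) (Φ : Fp_812.Fan V E),
      (∀ c ∈ Φ.T, ∃ A ∈ S, ∀ a x, Fp_812.Rep Φ.v c a x → H x = A x) ∧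
      (∀ c ∈ Φ.T, LinearIndependent ℝ (fun i : c => Φ.v i)) ∧
      (∀ i, Φ.v i ≠ 0) ∧
      (∀ c ∈ Φ.T, ∀ f ∈ L, (∀ i ∈ c, 0 ≤ f (Φ.v i)) ∨ (∀ i ∈ c, f (Φ.v i) ≤ 0)) := by
  obtain ⟨L', hL'⟩ := exists_forms S
  obtain ⟨V, hV, v, T, hcard, hcov, huniq, hli, hne, hsign⟩ := exists_fan (E := E) (L ∪ L')
  refine ⟨V, hV, ⟨v, T, hcard, ?_, ?_⟩, ?_, hli, hne, ?_⟩
  · intro x
    obtain ⟨c, hc, a, ha⟩ := hcov x
    exact ⟨c, hc, a, rep_iff.2 ha⟩
  · intro c hc c' hc' a a' x h h'
    exact huniq c hc c' hc' a a' x (rep_iff.1 h) (rep_iff.1 h')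
  · intro c hc
    obtain ⟨A, hA, hHA⟩ := conic_linear_on_cone hH hL' (hcard c hc) (hli c hc)
      (fun f hf => hsign c hc f (Finset.mem_union_right _ hf))
    exact ⟨A, hA, fun a x h => hHA a x (rep_iff.1 h)⟩
  · intro c hc f hf
    exact hsign c hc f (Finset.mem_union_left _ hf)

end Crest.Agent.R096.Fan_696
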