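import Crest.Agent.R096.Rel1_628
import Crest.Agent.R096.Grd8_714

/-!
# Row 96, FAN (helper628), part 1: the flags of a cell of a simple foam

For a cell `c` of a foam in dimension 3, a flag is `(a1, a2, a3)` with `fc P {c, a1, a2, a3} ≠ ∅`;
its three directions `b {c,a1} - b {c}`, .. are a basis, and `sc` is linear on its cone.
-/

set_option autoImplicit false
set_option linter.unusedSectionVars false

open Set

namespace Crest.Agent.R096.Fbr_628

open Crest.Agent.R096.Brk1_582 Crest.Agent.R096.Brk2_582 Crest.Agent.R096.Grd_714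

/-- a full flag of the cell `c` -/
structure Flg {E I : Type*} (P : I → Set E) (c : I) where
  a1 : I
  a2 : I
  a3 : I
  h1 : a1 ≠ c
  h2 : a2 ≠ c
  h3 : a3 ≠ c
  h12 : a1 ≠ a2
  h13 : a1 ≠ a3
  h23 : a2 ≠ a3
  ne : (fc P {c, a1, a2, a3}).Nonempty

/-- the other flag of the same quadrilateral -/
def Flg.sw {E I : Type*} {P : I → Set E} {c : I} (f : Flg P c) : Flg P c where
  a1 := f.a1
  a2 := f.a3
  a3 := f.a2
  h1 := f.h1
  h2 := f.h3
  h3 := f.h2
  h12 := f.h13
  h13 := f.h12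
  h23 := f.h23.symm
  ne := by
    have e : ({c, f.a1, f.a3, f.a2} : Set I) = {c, f.a1, f.a2, f.a3} := by
      ext x; simp only [mem_insert_iff, mem_singleton_iff]; tauto
    rw [e]; exact f.ne

section main

variable {E : Type*} [NormedAddCommGroup E] [NormedSpace ℝ E] [CompleteSpace E] {I : Type*}
variable {La : Set E} {P : I → Set E} {b : Set I → E} {N : ℕ} {c : I}

/-- the three directions of a flag -/
def dir (b : Set I → E) (f : Flg P c) : Fin 3 → E :=
  ![b {c, f.a1} - b {c}, b {c, f.a1, f.a2} - b {c}, b {c, f.a1, f.a2, f.a3} - b {c}]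

theorem Flg.ne2 (f : Flg P c) : (fc P {c, f.a1, f.a2}).Nonempty :=
  f.ne.mono (fc_anti (by intro x; simp only [mem_insert_iff, mem_singleton_iff]; tauto))

theorem Flg.ne1 (f : Flg P c) : (fc P {c, f.a1}).Nonempty :=
  f.ne.mono (fc_anti (by intro x; simp only [mem_insert_iff, mem_singleton_iff]; tauto))

theorem Flg.ne0 (f : Flg P c) : (fc P {c}).Nonempty :=
  f.ne.mono (fc_anti (by intro x; simp only [mem_insert_iff, mem_singleton_iff]; tauto))

/-- a point of the simplex of a flag -/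
def fpt (b : Set I → E) (f : Flg P c) (x y z : ℝ) : E :=
  b {c} + (x • dir b f 0 + y • dir b f 1 + z • dir b f 2)

variable (F : Foam La P b N)
include F

/-- **the coordinates on the simplex of a flag** -/
theorem sc_fpt (f : Flg P c) {x y z : ℝ} (hx : 0 ≤ x) (hy : 0 ≤ y) (hz : 0 ≤ z)
    (h : x + y + z ≤ 1) :
    sc P b (fpt b f x y z) c = 0 ∧ sc P b (fpt b f x y z) f.a1 = 1 - (x + y + z) ∧
      sc P b (fpt b f x y z) f.a2 = 1 - (y + z) ∧ sc P b (fpt b f x y z) f.a3 = 1 - z ∧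
      ∀ a, a ≠ c → a ≠ f.a1 → a ≠ f.a2 → a ≠ f.a3 → sc P b (fpt b f x y z) a = 1 := by
  classical
  let A : Fin 4 → Set I := ![{c}, {c, f.a1}, {c, f.a1, f.a2}, {c, f.a1, f.a2, f.a3}]
  let w : Fin 4 → ℝ := ![1 - (x + y + z), x, y, z]
  have hA : Monotone A := by
    refine Fin.monotone_iff_le_succ.2 fun i => ?_
    fin_cases i <;> (intro a ha; simp [A] at ha ⊢; tauto)
  have h0 : (A 0).Nonempty := ⟨c, by simp [A]⟩
  have hl : (fc P (A (Fin.last 3))).Nonempty := f.ne
  have hw : ∀ i, 0 ≤ w i := by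
    intro i
    fin_cases i
    · simp [w]; linarith
    · simpa [w] using hx
    · simpa [w] using hy
    · simpa [w] using hz
  have hs : ∑ i, w i = 1 := by simp [w, Fin.sum_univ_succ]; ring
  have e : ∑ i, w i • b (A i) = fpt b f x y z := by
    simp only [fpt, dir, w, A, Fin.sum_univ_succ, Fin.isValue, Matrix.cons_val_zero,
      Matrix.cons_val_succ, Matrix.cons_val_one, Matrix.cons_val, Finset.univ_unique,
      Fin.default_eq_zero, Matrix.cons_val_fin_one, Finset.sum_const, Finset.card_singleton,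
      one_smul]
    module
  have key : ∀ a, sc P b (fpt b f x y z) a = ∑ i, if a ∈ A i then 0 else w i := by
    intro a
    rw [← e]
    exact sc_chain F A hA h0 hl w hw hs a
  have n1 := f.h1
  have n2 := f.h2
  have n3 := f.h3
  have n12 := f.h12
  have n13 := f.h13
  have n23 := f.h23
  refine ⟨?_, ?_, ?_, ?_, fun a g1 g2 g3 g4 => ?_⟩
  · rw [key]; simp [A, w, Fin.sum_univ_succ]
  · rw [key]; simp [A, w, Fin.sum_univ_succ, n1]
  · rw [key]; simp [A, w, Fin.sum_univ_succ, n2, n12.symm]; ring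
  · rw [key]; simp [A, w, Fin.sum_univ_succ, n3, n13.symm, n23.symm]; ring
  · rw [key]; simp [A, w, Fin.sum_univ_succ, g1, g2, g3, g4]; ring

theorem li (f : Flg P c) : LinearIndependent ℝ (dir b f) := by
  rw [Fintype.linearIndependent_iff]
  intro g hg
  obtain ⟨ε, hε, hε1⟩ : ∃ ε > 0, ∀ i, |ε * g i| ≤ 1 / 16 := by
    obtain ⟨M, hM⟩ : ∃ M : ℝ, ∀ i, |g i| ≤ M :=
      ⟨|g 0| + |g 1| + |g 2|, fun i => by
        fin_cases i <;> simp <;> linarith [abs_nonneg (g 0), abs_nonneg (g 1), abs_nonneg (g 2)]⟩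
    have hM0 : 0 ≤ M := (abs_nonneg _).trans (hM 0)
    refine ⟨1 / (16 * (M + 1)), by positivity, fun i => ?_⟩
    rw [abs_mul, abs_of_pos (by positivity : (0:ℝ) < 1 / (16 * (M + 1))), div_mul_eq_mul_div, one_mul,
      div_le_iff₀ (by positivity)]
    have := hM i
    linarith
  have h4 : (1 / 4 : ℝ) + 1 / 4 + 1 / 4 ≤ 1 := by norm_num
  have e0 := abs_le.1 (hε1 0)
  have e1 := abs_le.1 (hε1 1)
  have e2 := abs_le.1 (hε1 2)
  obtain ⟨-, p1, p2, p3, -⟩ := sc_fpt F f (x := 1 / 4) (y := 1 / 4) (z := 1 / 4) (by norm_num)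
    (by norm_num) (by norm_num) h4
  obtain ⟨-, q1, q2, q3, -⟩ := sc_fpt F f (x := 1 / 4 + ε * g 0) (y := 1 / 4 + ε * g 1)
    (z := 1 / 4 + ε * g 2) (by linarith) (by linarith) (by linarith) (by linarith)
  have he : fpt b f (1 / 4 + ε * g 0) (1 / 4 + ε * g 1) (1 / 4 + ε * g 2) =
      fpt b f (1 / 4) (1 / 4) (1 / 4) := by
    have h5 : g 0 • dir b f 0 + g 1 • dir b f 1 + g 2 • dir b f 2 = 0 := by
      rw [← hg, Fin.sum_univ_three]
    unfold fpt
    have h6 : (1 / 4 + ε * g 0) • dir b f 0 + (1 / 4 + ε * g 1) • dir b f 1 +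
        (1 / 4 + ε * g 2) • dir b f 2 = ((1 / 4 : ℝ) • dir b f 0 + (1 / 4 : ℝ) • dir b f 1 +
        (1 / 4 : ℝ) • dir b f 2) + ε • (g 0 • dir b f 0 + g 1 • dir b f 1 + g 2 • dir b f 2) := by
      module
    rw [h6, h5, smul_zero, add_zero]
  rw [he] at q1 q2 q3
  have g2 : ε * g 2 = 0 := by linarith
  have g1 : ε * g 1 = 0 := by linarith
  have g0 : ε * g 0 = 0 := by linarith
  intro i
  fin_cases i
  · exact (mul_eq_zero.1 g0).resolve_left hε.ne'
  · exact (mul_eq_zero.1 g1).resolve_left hε.ne'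
  · exact (mul_eq_zero.1 g2).resolve_left hε.ne'

/-- the basis of a flag -/
noncomputable def bas (h3 : Module.finrank ℝ E = 3) (f : Flg P c) : Module.Basis (Fin 3) ℝ E :=
  basisOfLinearIndependentOfCardEqFinrank (li F f) (by rw [h3]; rfl)

omit F in
theorem fd_of (h3 : Module.finrank ℝ E = 3) : FiniteDimensional ℝ E :=
  Module.finite_of_finrank_pos (by rw [h3]; norm_num)

/-- the coordinate functionals of a flag -/
noncomputable def cf (h3 : Module.finrank ℝ E = 3) (f : Flg P c) (k : Fin 3) : E →L[ℝ] ℝ :=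
  haveI := fd_of h3
  LinearMap.toContinuousLinearMap ((bas F h3 f).coord k)

variable (h3 : Module.finrank ℝ E = 3)

theorem cf_apply (f : Flg P c) (k : Fin 3) (u : E) : cf F h3 f k u = (bas F h3 f).repr u k := rfl

theorem bas_eq (f : Flg P c) (k : Fin 3) : bas F h3 f k = dir b f k := by
  simp [bas]

theorem cf_sum (f : Flg P c) (u : E) :
    cf F h3 f 0 u • dir b f 0 + cf F h3 f 1 u • dir b f 1 + cf F h3 f 2 u • dir b f 2 = u := by
  have := (bas F h3 f).sum_repr u
  rw [Fin.sum_univ_three] at this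
  simpa only [bas_eq, cf_apply] using this

theorem cf_dir (f : Flg P c) (k l : Fin 3) : cf F h3 f k (dir b f l) = if l = k then 1 else 0 := by
  rw [cf_apply, ← bas_eq F h3, (bas F h3 f).repr_self, Finsupp.single_apply]

theorem cf_comb (f : Flg P c) (x y z : ℝ) :
    cf F h3 f 0 (x • dir b f 0 + y • dir b f 1 + z • dir b f 2) = x ∧
    cf F h3 f 1 (x • dir b f 0 + y • dir b f 1 + z • dir b f 2) = y ∧
    cf F h3 f 2 (x • dir b f 0 + y • dir b f 1 + z • dir b f 2) = z := by
  simp only [map_add, map_smul, cf_dir, smul_eq_mul]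
  refine ⟨?_, ?_, ?_⟩ <;> simp

/-- the gauge functional of a flag -/
noncomputable def wf (f : Flg P c) : E →L[ℝ] ℝ := cf F h3 f 0 + cf F h3 f 1 + cf F h3 f 2

theorem wf_apply (f : Flg P c) (u : E) :
    wf F h3 f u = cf F h3 f 0 u + cf F h3 f 1 u + cf F h3 f 2 u := rfl

theorem fpt_cf (f : Flg P c) (u : E) :
    fpt b f (cf F h3 f 0 u) (cf F h3 f 1 u) (cf F h3 f 2 u) = b {c} + u := by
  rw [fpt, cf_sum]

omit F in
theorem dir_sw_zero (f : Flg P c) : dir b f.sw 0 = dir b f 0 := rfl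

omit F in
theorem dir_sw_two (f : Flg P c) : dir b f.sw 2 = dir b f 2 := by
  have e : ({c, f.a1, f.a3, f.a2} : Set I) = {c, f.a1, f.a2, f.a3} := by
    ext x; simp only [mem_insert_iff, mem_singleton_iff]; tauto
  change b {c, f.a1, f.a3, f.a2} - b {c} = _
  rw [e]; rfl

/-- **the change of coordinates between the two flags of a quadrilateral** -/
theorem cf_sw (hQ : Quads P b) (f : Flg P c) : ∃ l m : ℝ, 0 ≤ l ∧ 0 < m ∧ l - m < 1 ∧ ∀ u,
    cf F h3 f.sw 0 u = cf F h3 f 0 u + l * cf F h3 f 1 u ∧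
    cf F h3 f.sw 1 u = -(m * cf F h3 f 1 u) ∧
    cf F h3 f.sw 2 u = cf F h3 f 2 u + (1 - l + m) * cf F h3 f 1 u := by
  have n1 := f.h1
  have n2 := f.h2
  have n3 := f.h3
  have n12 := f.h12
  have n13 := f.h13
  have n23 := f.h23
  have s1 : insert f.a3 (insert f.a2 {c, f.a1}) = ({c, f.a1, f.a2, f.a3} : Set I) := by
    ext x; simp only [mem_insert_iff, mem_singleton_iff]; tauto
  have s2 : insert f.a3 {c, f.a1} = ({c, f.a1, f.a3} : Set I) := by
    ext x; simp only [mem_insert_iff, mem_singleton_iff]; tauto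
  have s3 : insert f.a2 {c, f.a1} = ({c, f.a1, f.a2} : Set I) := by
    ext x; simp only [mem_insert_iff, mem_singleton_iff]; tauto
  obtain ⟨-, x, y, hx, hy, hxy, hv⟩ := hQ {c, f.a1} f.a2 f.a3 (ncard_pair n1.symm)
    (by simp [n2, n12.symm]) (by simp [n3, n13.symm]) n23 (by rw [s1]; exact f.ne)
  rw [s1, s2, s3] at hv
  refine ⟨(x + y - 1) / y, x / y, by apply div_nonneg <;> linarith, by positivity, ?_, fun u => ?_⟩
  · rw [← sub_div, div_lt_one hy]; linarith
  have hd : dir b f 1 = ((x + y - 1) / y) • dir b f.sw 0 + (-(x / y)) • dir b f.sw 1 +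
      (1 - (x + y - 1) / y + x / y) • dir b f.sw 2 := by
    have e0 : dir b f.sw 0 = b {c, f.a1} - b {c} := rfl
    have e1 : dir b f.sw 1 = b {c, f.a1, f.a3} - b {c} := rfl
    have e2 : dir b f.sw 2 = b {c, f.a1, f.a2, f.a3} - b {c} := dir_sw_two f
    have e3 : dir b f 1 = b {c, f.a1, f.a2} - b {c} := rfl
    rw [e0, e1, e2, e3]
    have h5 : b {c, f.a1, f.a2, f.a3} = b {c, f.a1} + (x • (b {c, f.a1, f.a3} - b {c, f.a1}) +
        y • (b {c, f.a1, f.a2} - b {c, f.a1})) := by rw [← hv]; abel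
    rw [h5]
    have hy' := hy.ne'
    match_scalars <;> (field_simp; ring)
  have hu : u = (cf F h3 f 0 u + (x + y - 1) / y * cf F h3 f 1 u) • dir b f.sw 0 +
      (-(x / y * cf F h3 f 1 u)) • dir b f.sw 1 +
      (cf F h3 f 2 u + (1 - (x + y - 1) / y + x / y) * cf F h3 f 1 u) • dir b f.sw 2 := by
    conv_lhs => rw [← cf_sum F h3 f u, hd, ← dir_sw_zero f, ← dir_sw_two f]
    module
  have := cf_comb F h3 f.sw (cf F h3 f 0 u + (x + y - 1) / y * cf F h3 f 1 u)
    (-(x / y * cf F h3 f 1 u)) (cf F h3 f 2 u + (1 - (x + y - 1) / y + x / y) * cf F h3 f 1 u)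
  rw [← hu] at this
  exact this

/-! ### the flags cover -/

theorem finite_flg (c : I) : Finite (Flg P c) := by
  classical
  have hfin := finite_touch F c
  set S := {a | (P a ∩ P c).Nonempty} with hS
  have : Finite S := hfin
  have hm : ∀ (f : Flg P c), f.a1 ∈ S ∧ f.a2 ∈ S ∧ f.a3 ∈ S := by
    intro f
    obtain ⟨y, hy⟩ := f.ne
    rw [mem_fc] at hy
    exact ⟨⟨y, hy _ (by simp), hy _ (by simp)⟩, ⟨y, hy _ (by simp), hy _ (by simp)⟩,
      ⟨y, hy _ (by simp), hy _ (by simp)⟩⟩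
  let g : Flg P c → S × S × S := fun f => (⟨f.a1, (hm f).1⟩, ⟨f.a2, (hm f).2.1⟩, ⟨f.a3, (hm f).2.2⟩)
  refine Finite.of_injective g fun f f' h => ?_
  simp only [g, Prod.mk.injEq, Subtype.mk.injEq] at h
  cases f; cases f'
  simp only [Flg.mk.injEq]
  exact h

/-- a ball around the centre is inside the cell -/
theorem exists_ball (c : I) (hc : (P c).Nonempty) : ∃ r > 0, Metric.ball (b {c}) r ⊆ P c := by
  have hfc : (fc P {c}).Nonempty := by
    obtain ⟨y, hy⟩ := hc
    exact ⟨y, by rw [mem_fc]; simpa using hy⟩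
  have h1 := F.act_b (singleton_nonempty c) hfc
  have hL : b {c} ∈ La := F.fc_sub_La (singleton_nonempty c) (F.mem _ (singleton_nonempty c) hfc)
  obtain ⟨r, hr, hf⟩ := F.lf _ hL
  obtain ⟨r', hr', hb⟩ := Metric.isOpen_iff.1 F.op _ hL
  have hcl : IsClosed (⋃ a ∈ {a | (P a ∩ Metric.ball (b {c}) r).Nonempty} \ {c}, P a) :=
    (hf.subset sdiff_subset).isClosed_biUnion fun a _ => (F.cpt a).isClosed
  have hn : b {c} ∉ ⋃ a ∈ {a | (P a ∩ Metric.ball (b {c}) r).Nonempty} \ {c}, P a := by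
    intro h
    obtain ⟨a, ha, hy⟩ := mem_iUnion₂.1 h
    have : a ∈ act P (b {c}) := hy
    rw [h1] at this
    exact ha.2 this
  obtain ⟨r2, hr2, hb2⟩ := Metric.isOpen_iff.1 hcl.isOpen_compl _ hn
  refine ⟨min r (min r' r2), lt_min hr (lt_min hr' hr2), fun y hy => ?_⟩
  have y1 := Metric.ball_subset_ball (min_le_left _ _) hy
  have y2 := Metric.ball_subset_ball ((min_le_right _ _).trans (min_le_left _ _)) hy
  have y3 := Metric.ball_subset_ball ((min_le_right _ _).trans (min_le_right _ _)) hy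
  obtain ⟨a, ha⟩ := F.cov y (hb y2)
  by_cases hac : a = c
  · rw [← hac]; exact ha
  · exfalso
    exact hb2 y3 (mem_iUnion₂.2 ⟨a, ⟨⟨y, ha, y1⟩, hac⟩, ha⟩)

/-- a point with full support lies in the simplex of a flag -/
theorem exists_of_full {f : Flg P c} {y : E} (hy : y ∈ P c)
    (hs : ∀ a, sc P b y a < 1 → a = c ∨ a = f.a1 ∨ a = f.a2 ∨ a = f.a3) :
    ∃ g : Flg P c, ∃ x1 x2 x3 : ℝ, 0 ≤ x1 ∧ 0 ≤ x2 ∧ 0 ≤ x3 ∧ y = fpt b g x1 x2 x3 := by
  have hyL := F.sub c hy
  have hK := F.sc_mem_K hyL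
  have h0 : sc P b y c = 0 := (F.sc_eq_zero hyL).2 hy
  set s := sc P b y with hsdef
  have hs01 : ∀ a, 0 ≤ s a ∧ s a ≤ 1 := fun a => hK.1 a
  -- sorted permutation
  obtain ⟨g, hg, l12, l23⟩ : ∃ g : Flg P c, (∀ a, s a < 1 → a = c ∨ a = g.a1 ∨ a = g.a2 ∨ a = g.a3) ∧
      s g.a1 ≤ s g.a2 ∧ s g.a2 ≤ s g.a3 := by
    have hperm : ∀ x1 x2 x3 : I, ({x1, x2, x3} : Set I) = {f.a1, f.a2, f.a3} → x1 ≠ x2 → x1 ≠ x3 →
        x2 ≠ x3 → s x1 ≤ s x2 → s x2 ≤ s x3 → ∃ g : Flg P c,
        (∀ a, s a < 1 → a = c ∨ a = g.a1 ∨ a = g.a2 ∨ a = g.a3) ∧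
        s g.a1 ≤ s g.a2 ∧ s g.a2 ≤ s g.a3 := by
      intro x1 x2 x3 hX n12 n13 n23 l1 l2
      have hmem : ∀ a, a ∈ ({x1, x2, x3} : Set I) ↔ a ∈ ({f.a1, f.a2, f.a3} : Set I) := fun a => by
        rw [hX]
      have hne : ∀ a ∈ ({x1, x2, x3} : Set I), a ≠ c := by
        intro a ha
        rw [hmem] at ha
        rcases ha with rfl | rfl | rfl
        · exact f.h1
        · exact f.h2
        · exact f.h3
      refine ⟨⟨x1, x2, x3, hne _ (by simp), hne _ (by simp), hne _ (by simp), n12, n13, n23, ?_⟩,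
        ?_, l1, l2⟩
      · have : ({c, x1, x2, x3} : Set I) = {c, f.a1, f.a2, f.a3} := by rw [hX]
        rw [this]; exact f.ne
      · intro a ha
        have := hs a ha
        by_cases hac : a = c
        · exact Or.inl hac
        · right
          have h2 : a ∈ ({f.a1, f.a2, f.a3} : Set I) := by
            simp only [mem_insert_iff, mem_singleton_iff]; tauto
          rw [← hmem] at h2
          simpa only [mem_insert_iff, mem_singleton_iff] using h2
    have c123 : ({f.a1, f.a3, f.a2} : Set I) = {f.a1, f.a2, f.a3} := by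
      ext; simp only [mem_insert_iff, mem_singleton_iff]; tauto
    have c213 : ({f.a2, f.a1, f.a3} : Set I) = {f.a1, f.a2, f.a3} := by
      ext; simp only [mem_insert_iff, mem_singleton_iff]; tauto
    have c231 : ({f.a2, f.a3, f.a1} : Set I) = {f.a1, f.a2, f.a3} := by
      ext; simp only [mem_insert_iff, mem_singleton_iff]; tauto
    have c312 : ({f.a3, f.a1, f.a2} : Set I) = {f.a1, f.a2, f.a3} := by
      ext; simp only [mem_insert_iff, mem_singleton_iff]; tauto
    have c321 : ({f.a3, f.a2, f.a1} : Set I) = {f.a1, f.a2, f.a3} := by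
      ext; simp only [mem_insert_iff, mem_singleton_iff]; tauto
    rcases le_total (s f.a1) (s f.a2) with u1 | u1 <;> rcases le_total (s f.a2) (s f.a3) with u2 | u2
    · exact hperm _ _ _ rfl f.h12 f.h13 f.h23 u1 u2
    · rcases le_total (s f.a1) (s f.a3) with u3 | u3
      · exact hperm _ _ _ c123 f.h13 f.h12 f.h23.symm u3 u2
      · exact hperm _ _ _ c312 f.h13.symm f.h23.symm f.h12 u3 u1
    · rcases le_total (s f.a1) (s f.a3) with u3 | u3
      · exact hperm _ _ _ c213 f.h12.symm f.h23 f.h13 u1 u3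
      · exact hperm _ _ _ c231 f.h23 f.h12.symm f.h13.symm u2 u3
    · exact hperm _ _ _ c321 f.h23.symm f.h13.symm f.h12.symm u2 u1
  refine ⟨g, s g.a2 - s g.a1, s g.a3 - s g.a2, 1 - s g.a3, by linarith, by linarith,
    by linarith [(hs01 g.a3).2], ?_⟩
  have hsum : s g.a2 - s g.a1 + (s g.a3 - s g.a2) + (1 - s g.a3) ≤ 1 := by
    linarith [(hs01 g.a1).1]
  obtain ⟨q0, q1, q2, q3, q4⟩ := sc_fpt F g (x := s g.a2 - s g.a1) (y := s g.a3 - s g.a2)
    (z := 1 - s g.a3) (by linarith) (by linarith) (by linarith [(hs01 g.a3).2]) hsum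
  set y' := fpt b g (s g.a2 - s g.a1) (s g.a3 - s g.a2) (1 - s g.a3) with hy'
  have heq : sc P b y' = s := by
    funext a
    by_cases a0 : a = c
    · subst a0; rw [q0, h0]
    by_cases a1 : a = g.a1
    · subst a1; rw [q1]; ring
    by_cases a2 : a = g.a2
    · subst a2; rw [q2]; ring
    by_cases a3 : a = g.a3
    · subst a3; rw [q3]; ring
    rw [q4 a a0 a1 a2 a3]
    by_contra h
    have := hg a (lt_of_le_of_ne (hs01 a).2 (Ne.symm h))
    tauto
  -- y' is in P c
  have hy'c : y' ∈ P c := by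
    have hm : ∀ A : Set I, c ∈ A → A ⊆ {c, g.a1, g.a2, g.a3} → b A ∈ P c := fun A hA hA' =>
      mem_fc.1 (F.mem A ⟨c, hA⟩ (g.ne.mono (fc_anti hA'))) c hA
    have h1 : y' = (1 - ((s g.a2 - s g.a1) + (s g.a3 - s g.a2) + (1 - s g.a3))) • b {c} +
        (s g.a2 - s g.a1) • b {c, g.a1} + (s g.a3 - s g.a2) • b {c, g.a1, g.a2} +
        (1 - s g.a3) • b {c, g.a1, g.a2, g.a3} := by
      rw [hy', fpt]
      simp only [dir, Matrix.cons_val_zero, Matrix.cons_val_one, Matrix.cons_val]
      module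
    rw [h1]
    have m0 := hm {c} (by simp) (by intro x; simp only [mem_insert_iff, mem_singleton_iff]; tauto)
    have m1 := hm {c, g.a1} (by simp)
      (by intro x; simp only [mem_insert_iff, mem_singleton_iff]; tauto)
    have m2 := hm {c, g.a1, g.a2} (by simp)
      (by intro x; simp only [mem_insert_iff, mem_singleton_iff]; tauto)
    have m3 := hm {c, g.a1, g.a2, g.a3} (by simp) subset_rfl
    have hcv := (F.cvx c).sum_mem (t := Finset.univ)
      (w := ![1 - ((s g.a2 - s g.a1) + (s g.a3 - s g.a2) + (1 - s g.a3)), s g.a2 - s g.a1,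
        s g.a3 - s g.a2, 1 - s g.a3])
      (z := ![b {c}, b {c, g.a1}, b {c, g.a1, g.a2}, b {c, g.a1, g.a2, g.a3}])
      (by
        intro i _
        have := (hs01 g.a1).1
        have := (hs01 g.a3).2
        fin_cases i <;> simp <;> linarith)
      (by simp [Fin.sum_univ_succ])
      (by
        intro i _
        fin_cases i <;> simp <;> assumption)
    simp only [Fin.sum_univ_succ, Matrix.cons_val_zero, Matrix.cons_val_succ,
      Finset.univ_unique, Fin.default_eq_zero, Matrix.cons_val_fin_one, Finset.sum_const,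
      Finset.card_singleton, one_smul] at hcv
    rw [← add_assoc, ← add_assoc] at hcv
    exact hcv
  rw [← F.T_sc hyL, ← F.T_sc (F.sub c hy'c), heq]

theorem mem_span_of_small {y : E} (hy : y ∈ P c) {a1 a2 : I}
    (hfc : (fc P {c, a1, a2}).Nonempty) (hs : ∀ a, sc P b y a < 1 → a = c ∨ a = a1 ∨ a = a2)
    (h12 : sc P b y a1 ≤ sc P b y a2) :
    y - b {c} ∈ Submodule.span ℝ {b {c, a1} - b {c}, b {c, a1, a2} - b {c}} := by
  classical
  have hyL := F.sub c hy
  have hK := F.sc_mem_K hyL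
  have h0 : sc P b y c = 0 := (F.sc_eq_zero hyL).2 hy
  set s := sc P b y with hsdef
  have hs01 : ∀ a, 0 ≤ s a ∧ s a ≤ 1 := fun a => hK.1 a
  let A : Fin 3 → Set I := ![{c}, {c, a1}, {c, a1, a2}]
  let w : Fin 3 → ℝ := ![s a1, s a2 - s a1, 1 - s a2]
  have hA : Monotone A := by
    refine Fin.monotone_iff_le_succ.2 fun i => ?_
    fin_cases i <;> (intro a ha; simp [A] at ha ⊢; tauto)
  have hw : ∀ i, 0 ≤ w i := by
    intro i
    have := (hs01 a1).1
    have := (hs01 a2).2
    fin_cases i <;> simp [w] <;> linarith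
  have hsum : ∑ i, w i = 1 := by simp [w, Fin.sum_univ_succ]
  set y' : E := ∑ i, w i • b (A i) with hy'
  have hkey : ∀ a, sc P b y' a = ∑ i, if a ∈ A i then 0 else w i := fun a =>
    sc_chain F A hA ⟨c, by simp [A]⟩ hfc w hw hsum a
  have hyc : y' ∈ P c := (F.cvx c).sum_mem (fun i _ => hw i) hsum fun i _ => by
    have hc : c ∈ A i := by fin_cases i <;> simp [A]
    exact mem_fc.1 (F.mem (A i) ⟨c, hc⟩ (hfc.mono (fc_anti (hA (Fin.le_last i))))) c hc
  have heq : sc P b y' = s := by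
    funext a
    rw [hkey]
    by_cases a0 : a = c
    · subst a0; simp [A, h0, Fin.sum_univ_succ]
    by_cases e1 : a = a1
    · subst e1; simp [A, w, Fin.sum_univ_succ, a0]
    by_cases e2 : a = a2
    · subst e2; simp [A, w, Fin.sum_univ_succ, a0, e1]
    have : s a = 1 := by
      by_contra h
      have := hs a (lt_of_le_of_ne (hs01 a).2 h)
      tauto
    rw [this]
    simp [A, w, Fin.sum_univ_succ, a0, e1, e2]
  have hyy : y = y' := by rw [← F.T_sc hyL, ← F.T_sc (F.sub c hyc), heq]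
  have h5 : y - b {c} = (s a2 - s a1) • (b {c, a1} - b {c}) +
      (1 - s a2) • (b {c, a1, a2} - b {c}) := by
    rw [hyy, hy']
    simp only [w, A, Fin.sum_univ_succ, Fin.isValue, Matrix.cons_val_zero,
      Matrix.cons_val_succ, Finset.univ_unique, Fin.default_eq_zero, Matrix.cons_val_fin_one,
      Finset.sum_const, Finset.card_singleton, one_smul]
    module
  rw [h5]
  exact add_mem (Submodule.smul_mem _ _ (Submodule.subset_span (by simp)))
    (Submodule.smul_mem _ _ (Submodule.subset_span (by simp)))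

/-- **the cones of the flags cover the space** -/
theorem exists_flag (hN : N ≤ 4) (c : I) (hc : (P c).Nonempty) (u : E) :
    ∃ f : Flg P c, ∀ k, 0 ≤ cf F h3 f k u := by
  classical
  by_contra hcon
  have := fd_of h3
  have := finite_flg F c
  obtain ⟨r, hr, hball⟩ := exists_ball F c hc
  set C : Set E := ⋃ f : Flg P c, {u | ∀ k, 0 ≤ cf F h3 f k u} with hC
  have hCc : IsClosed C := isClosed_iUnion_of_finite fun f => by
    have : {u | ∀ k, 0 ≤ cf F h3 f k u} = ⋂ k, {u | 0 ≤ cf F h3 f k u} := by ext; simp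
    rw [this]
    exact isClosed_iInter fun k => isClosed_le continuous_const (cf F h3 f k).continuous
  have huC : u ∉ C := by
    rw [hC]; simp only [mem_iUnion, mem_ofPred_eq]; exact hcon
  set V : Set E := Cᶜ ∩ Metric.ball 0 r with hV
  have hVo : IsOpen V := hCc.isOpen_compl.inter Metric.isOpen_ball
  have hVne : V.Nonempty := by
    have h1 : ‖u‖ + 1 > 0 := by positivity
    refine ⟨(r / (2 * (‖u‖ + 1))) • u, ?_, ?_⟩
    · intro h
      apply huC
      rw [hC] at h ⊢
      simp only [mem_iUnion, mem_ofPred_eq] at h ⊢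
      obtain ⟨f, hf⟩ := h
      refine ⟨f, fun k => ?_⟩
      have := hf k
      rw [map_smul, smul_eq_mul] at this
      exact nonneg_of_mul_nonneg_right this (by positivity)
    · rw [mem_ball_zero_iff, norm_smul, Real.norm_eq_abs, abs_of_pos (by positivity)]
      rw [div_mul_eq_mul_div, div_lt_iff₀ (by positivity)]
      have := norm_nonneg u
      nlinarith
  have hfin := finite_touch F c
  set S := {a | (P a ∩ P c).Nonempty} with hS
  have hsub : V ⊆ ⋃ p ∈ S ×ˢ S, (Submodule.span ℝ {b {c, p.1} - b {c}, b {c, p.1, p.2} - b {c}} :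
      Set E) := by
    rintro x ⟨hxC, hxr⟩
    set y := b {c} + x with hy
    have hyP : y ∈ P c := hball (by
      rw [Metric.mem_ball, dist_eq_norm, hy, add_sub_cancel_left]
      exact mem_ball_zero_iff.1 hxr)
    have hyL := F.sub c hyP
    have hK := F.sc_mem_K hyL
    have h0 : sc P b y c = 0 := (F.sc_eq_zero hyL).2 hyP
    set L := {a | sc P b y a < 1} with hL
    have hcL : c ∈ L := by rw [hL, mem_ofPred_eq, h0]; exact one_pos
    obtain ⟨z, hz⟩ := hK.2.2
    have hzL : z ∈ La := F.fc_sub_La ⟨c, hcL⟩ hz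
    have hLz : L ⊆ act P z := mem_fc'.1 hz
    have hLf : L.Finite := (F.finite_act hzL).subset hLz
    have hL4 : L.ncard ≤ 4 := (ncard_le_ncard hLz (F.finite_act hzL)).trans ((F.card z hzL).trans hN)
    have hSL : ∀ a ∈ L, a ∈ S := fun a ha => ⟨z, mem_fc.1 hz a ha, mem_fc.1 hz c hcL⟩
    have hD : (L \ {c}).ncard ≤ 3 := by
      have := ncard_sdiff_singleton_of_mem hcL
      omega
    have hyx : x = y - b {c} := by rw [hy, add_sub_cancel_left]
    have main : ∀ p q : I, p ∈ L → q ∈ L → (∀ a ∈ L, a = c ∨ a = p ∨ a = q) →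
        x ∈ ⋃ p ∈ S ×ˢ S, (Submodule.span ℝ {b {c, p.1} - b {c}, b {c, p.1, p.2} - b {c}} :
          Set E) := by
      intro p q hp hq hall
      rcases le_total (sc P b y p) (sc P b y q) with h | h
      · refine mem_iUnion₂.2 ⟨(p, q), ⟨hSL p hp, hSL q hq⟩, ?_⟩
        rw [hyx]
        exact mem_span_of_small F hyP ⟨z, fc_anti (A := {c, p, q}) (A' := L) (by
          rintro a (rfl | rfl | rfl) <;> assumption) hz⟩ hall h
      · refine mem_iUnion₂.2 ⟨(q, p), ⟨hSL q hq, hSL p hp⟩, ?_⟩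
        rw [hyx]
        exact mem_span_of_small F hyP ⟨z, fc_anti (A := {c, q, p}) (A' := L) (by
          rintro a (rfl | rfl | rfl) <;> assumption) hz⟩ (fun a ha => by
            have := hall a ha; tauto) h
    have hmemD : ∀ a, a ∈ L \ {c} ↔ a ∈ L ∧ a ≠ c := fun a => by simp
    have hD' : (L \ {c}).ncard = 0 ∨ (L \ {c}).ncard = 1 ∨ (L \ {c}).ncard = 2 ∨
        (L \ {c}).ncard = 3 := by omega
    rcases hD' with h | h | h | h
    · rw [ncard_eq_zero (hLf.subset sdiff_subset)] at h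
      refine main c c hcL hcL fun a ha => ?_
      by_contra hn
      have : a ∈ L \ {c} := (hmemD a).2 ⟨ha, fun e => hn (Or.inl e)⟩
      rw [h] at this
      exact this
    · obtain ⟨p, hp⟩ := ncard_eq_one.1 h
      have hpL : p ∈ L \ {c} := by rw [hp]; simp
      refine main p p hpL.1 hpL.1 fun a ha => ?_
      by_cases hac : a = c
      · exact Or.inl hac
      · have : a ∈ L \ {c} := (hmemD a).2 ⟨ha, hac⟩
        rw [hp] at this
        exact Or.inr (Or.inl this)
    · obtain ⟨p, q, -, hpq⟩ := ncard_eq_two.1 h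
      have hpL : p ∈ L \ {c} := by rw [hpq]; simp
      have hqL : q ∈ L \ {c} := by rw [hpq]; simp
      refine main p q hpL.1 hqL.1 fun a ha => ?_
      by_cases hac : a = c
      · exact Or.inl hac
      · have : a ∈ L \ {c} := (hmemD a).2 ⟨ha, hac⟩
        rw [hpq] at this
        exact Or.inr this
    · exfalso
      obtain ⟨p, q, t, n1, n2, n3, hpqt⟩ := ncard_eq_three.1 h
      have hpL : p ∈ L \ {c} := by rw [hpqt]; simp
      have hqL : q ∈ L \ {c} := by rw [hpqt]; simp
      have htL : t ∈ L \ {c} := by rw [hpqt]; simp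
      let f : Flg P c := ⟨p, q, t, hpL.2, hqL.2, htL.2, n1, n2, n3, ⟨z, fc_anti (A' := L) (by
        rintro a (rfl | rfl | rfl | rfl)
        · exact hcL
        · exact hpL.1
        · exact hqL.1
        · exact htL.1) hz⟩⟩
      obtain ⟨g, x1, x2, x3, e1, e2, e3, hyg⟩ := exists_of_full F (f := f) hyP (by
        intro a ha
        by_cases hac : a = c
        · exact Or.inl hac
        · have : a ∈ L \ {c} := (hmemD a).2 ⟨ha, hac⟩
          rw [hpqt] at this
          exact Or.inr this)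
      apply hxC
      rw [hC]
      refine mem_iUnion.2 ⟨g, fun k => ?_⟩
      have hx' : x = x1 • dir b g 0 + x2 • dir b g 1 + x3 • dir b g 2 := by
        rw [hyx, hyg, fpt, add_sub_cancel_left]
      have hc' := cf_comb F h3 g x1 x2 x3
      rw [← hx'] at hc'
      fin_cases k
      · show 0 ≤ cf F h3 g 0 x
        rw [hc'.1]; exact e1
      · show 0 ≤ cf F h3 g 1 x
        rw [hc'.2.1]; exact e2
      · show 0 ≤ cf F h3 g 2 x
        rw [hc'.2.2]; exact e3
  -- measure
  borelize E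
  have : ProperSpace E := FiniteDimensional.proper ℝ E
  let μ : MeasureTheory.Measure E := MeasureTheory.Measure.addHaar
  have h1 : 0 < μ V := hVo.measure_pos μ hVne
  have h2 : μ V = 0 := by
    refine MeasureTheory.measure_mono_null hsub ?_
    rw [MeasureTheory.measure_biUnion_null_iff (hfin.prod hfin).countable]
    rintro ⟨p, q⟩ -
    refine MeasureTheory.Measure.addHaar_submodule μ _ fun htop => ?_
    have h4 := finrank_span_finset_le_card (R := ℝ)
      ({b {c, p} - b {c}, b {c, p, q} - b {c}} : Finset E)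
    rw [Finset.coe_pair, Set.finrank] at h4
    simp only at htop
    rw [htop, finrank_top, h3] at h4
    have := (Finset.card_le_two (a := b {c, p} - b {c}) (b := b {c, p, q} - b {c}))
    omega
  exact h1.ne' h2

end main

end Crest.Agent.R096.Fbr_628
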