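import Crest.Agent.R096.Fbr1_628

/-!
# Row 96, FAN (helper628), part 2: the fan of a brick

The cones, with centre `b {c}`, over the cells `T ([j/M,(j+1)/M] × [i/M,(i+1)/M])` of the boundary of
the cell `c`: four linear inequalities `ineq F h3 t k u ≤ 0`; they cover, are disjoint, and the
functional `wf` is the gauge of `P c - b {c}`.
-/

set_option autoImplicit false
set_option linter.unusedSectionVars false

open Set

namespace Crest.Agent.R096.Fbr_628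

open Crest.Agent.R096.Brk1_582 Crest.Agent.R096.Brk2_582 Crest.Agent.R096.Grd_714

/-- the cells of the boundary: a flag and `j ≤ i`; on the diagonal the order of `a2, a3` is fixed -/
def Tc {E I : Type*} (P : I → Set E) (c : I) (M : ℕ) : Type _ :=
  {t : Flg P c × Fin M × Fin M // t.2.1 < t.2.2 ∨ (t.2.1 = t.2.2 ∧ WellOrderingRel t.1.a2 t.1.a3)}

section main

variable {E : Type*} [NormedAddCommGroup E] [NormedSpace ℝ E] [CompleteSpace E] {I : Type*}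
variable {La : Set E} {P : I → Set E} {b : Set I → E} {N : ℕ} {c : I}

theorem finite_Tc (F : Foam La P b N) (c : I) (M : ℕ) : Finite (Tc P c M) := by
  have := finite_flg F c
  unfold Tc
  infer_instance

variable (F : Foam La P b N) (h3 : Module.finrank ℝ E = 3)

theorem wf_sw (hQ : Quads P b) (f : Flg P c) (u : E) : wf F h3 f.sw u = wf F h3 f u := by
  obtain ⟨l, m, -, -, -, h⟩ := cf_sw F h3 hQ f
  obtain ⟨e0, e1, e2⟩ := h u
  rw [wf_apply, wf_apply, e0, e1, e2]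
  ring

/-- points of the cone of a flag, projected to the boundary -/
theorem proj_mem (f : Flg P c) {u : E} (h0 : 0 ≤ cf F h3 f 0 u) (h1 : 0 ≤ cf F h3 f 1 u)
    (h2 : 0 ≤ cf F h3 f 2 u) (hw : 0 < wf F h3 f u) :
    b {c} + (wf F h3 f u)⁻¹ • u ∈ fc P {c, f.a1} ∧
      sc P b (b {c} + (wf F h3 f u)⁻¹ • u) c = 0 ∧
      sc P b (b {c} + (wf F h3 f u)⁻¹ • u) f.a1 = 0 ∧
      sc P b (b {c} + (wf F h3 f u)⁻¹ • u) f.a2 = cf F h3 f 0 u / wf F h3 f u ∧
      sc P b (b {c} + (wf F h3 f u)⁻¹ • u) f.a3 = (cf F h3 f 0 u + cf F h3 f 1 u) / wf F h3 f u ∧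
      ∀ a, a ≠ c → a ≠ f.a1 → a ≠ f.a2 → a ≠ f.a3 →
        sc P b (b {c} + (wf F h3 f u)⁻¹ • u) a = 1 := by
  set w := wf F h3 f u with hwdef
  have hsum : cf F h3 f 0 u + cf F h3 f 1 u + cf F h3 f 2 u = w := (wf_apply F h3 f u).symm
  have hS : w⁻¹ * cf F h3 f 0 u + w⁻¹ * cf F h3 f 1 u + w⁻¹ * cf F h3 f 2 u = 1 := by
    rw [← mul_add, ← mul_add, hsum, inv_mul_cancel₀ hw.ne']
  have hi : 0 < w⁻¹ := inv_pos.2 hw
  have hpt : b {c} + w⁻¹ • u = fpt b f (w⁻¹ * cf F h3 f 0 u) (w⁻¹ * cf F h3 f 1 u)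
      (w⁻¹ * cf F h3 f 2 u) := by
    rw [← fpt_cf F h3 f]
    simp only [map_smul, smul_eq_mul]
  obtain ⟨q0, q1, q2, q3, q4⟩ := sc_fpt F f (mul_nonneg hi.le h0) (mul_nonneg hi.le h1)
    (mul_nonneg hi.le h2) hS.le
  rw [← hpt] at q0 q1 q2 q3 q4
  have hmem : b {c} + w⁻¹ • u ∈ fc P {c, f.a1} := by
    have hm : ∀ A : Set I, ({c, f.a1} : Set I) ⊆ A → A ⊆ {c, f.a1, f.a2, f.a3} →
        b A ∈ fc P {c, f.a1} := fun A hA hA' =>
      fc_anti hA (F.mem A ⟨c, hA (by simp)⟩ (f.ne.mono (fc_anti hA')))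
    have m1 := hm {c, f.a1} subset_rfl
      (by intro x; simp only [mem_insert_iff, mem_singleton_iff]; tauto)
    have m2 := hm {c, f.a1, f.a2}
      (by intro x; simp only [mem_insert_iff, mem_singleton_iff]; tauto)
      (by intro x; simp only [mem_insert_iff, mem_singleton_iff]; tauto)
    have m3 := hm {c, f.a1, f.a2, f.a3}
      (by intro x; simp only [mem_insert_iff, mem_singleton_iff]; tauto) subset_rfl
    have e : b {c} + w⁻¹ • u = (w⁻¹ * cf F h3 f 0 u) • b {c, f.a1} +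
        (w⁻¹ * cf F h3 f 1 u) • b {c, f.a1, f.a2} +
        (w⁻¹ * cf F h3 f 2 u) • b {c, f.a1, f.a2, f.a3} := by
      rw [hpt, fpt]
      simp only [dir, Matrix.cons_val_zero, Matrix.cons_val_one, Matrix.cons_val]
      have h5 : b {c} = (w⁻¹ * cf F h3 f 0 u + w⁻¹ * cf F h3 f 1 u + w⁻¹ * cf F h3 f 2 u) • b {c} := by
        rw [hS, one_smul]
      nth_rw 1 [h5]
      module
    rw [e]
    have := F.convex_fc (A := {c, f.a1}).sum_mem (t := Finset.univ)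
      (w := ![w⁻¹ * cf F h3 f 0 u, w⁻¹ * cf F h3 f 1 u, w⁻¹ * cf F h3 f 2 u])
      (z := ![b {c, f.a1}, b {c, f.a1, f.a2}, b {c, f.a1, f.a2, f.a3}])
      (by
        intro i _
        have t0 := mul_nonneg hi.le h0
        have t1 := mul_nonneg hi.le h1
        have t2 := mul_nonneg hi.le h2
        fin_cases i <;> simp <;> assumption)
      (by rw [Fin.sum_univ_three]; exact hS)
      (by
        intro i _
        fin_cases i <;> simp <;> assumption)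
    rw [Fin.sum_univ_three] at this
    exact this
  refine ⟨hmem, q0, ?_, ?_, ?_, q4⟩
  · rw [q1, hS]; ring
  · rw [q2, div_eq_inv_mul]
    linarith
  · rw [q3, div_eq_inv_mul, mul_add]
    linarith

/-- **the gauge functional of a flag is at most one on the cell** -/
theorem wf_le_one (f : Flg P c) {z : E} (hz : z ∈ P c) : wf F h3 f (z - b {c}) ≤ 1 := by
  by_contra hcon
  push Not at hcon
  -- an interior point of the triangle of `f`
  set q : E := (1 / 3 : ℝ) • dir b f 0 + (1 / 3 : ℝ) • dir b f 1 + (1 / 3 : ℝ) • dir b f 2 with hq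
  obtain ⟨c0, c1, c2⟩ := cf_comb F h3 f (1 / 3) (1 / 3) (1 / 3)
  rw [← hq] at c0 c1 c2
  set v : E := z - b {c} with hv
  -- a small step towards `z`
  obtain ⟨τ, hτ0, hτ1, k0, k1, k2⟩ : ∃ τ : ℝ, 0 < τ ∧ τ < 1 ∧ 0 ≤ cf F h3 f 0 ((1 - τ) • q + τ • v) ∧
      0 ≤ cf F h3 f 1 ((1 - τ) • q + τ • v) ∧ 0 ≤ cf F h3 f 2 ((1 - τ) • q + τ • v) := by
    set B : ℝ := |cf F h3 f 0 v| + |cf F h3 f 1 v| + |cf F h3 f 2 v| with hB
    have hB0 : 0 ≤ B := by positivity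
    have n0 := neg_abs_le (cf F h3 f 0 v)
    have n1 := neg_abs_le (cf F h3 f 1 v)
    have n2 := neg_abs_le (cf F h3 f 2 v)
    have a0 := abs_nonneg (cf F h3 f 0 v)
    have a1 := abs_nonneg (cf F h3 f 1 v)
    have a2 := abs_nonneg (cf F h3 f 2 v)
    refine ⟨1 / (6 * (B + 1)), by positivity, ?_, ?_, ?_, ?_⟩
    · rw [div_lt_one (by positivity)]; linarith
    all_goals
      have hτ : (0:ℝ) < 1 / (6 * (B + 1)) := by positivity
      have hτ' : 1 / (6 * (B + 1)) * (6 * (B + 1)) = 1 := by field_simp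
      simp only [map_add, map_smul, smul_eq_mul, c0, c1, c2]
      set τ := 1 / (6 * (B + 1))
    · nlinarith
    · nlinarith
    · nlinarith
  set u : E := (1 - τ) • q + τ • v with hu
  have hwu : 1 < wf F h3 f u := by
    have e1 : wf F h3 f q = 1 := by rw [wf_apply, c0, c1, c2]; norm_num
    have e2 : wf F h3 f u = (1 - τ) * 1 + τ * wf F h3 f v := by
      rw [hu, map_add, map_smul, map_smul, e1]; rfl
    rw [e2]
    nlinarith
  obtain ⟨hm, -⟩ := proj_mem F h3 f k0 k1 k2 (by linarith)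
  -- the point `b + u` is in the cell
  have hbc : b {c} + u ∈ P c := by
    have hq' : b {c} + q ∈ P c := by
      have e1 : wf F h3 f q = 1 := by rw [wf_apply, c0, c1, c2]; norm_num
      obtain ⟨h5, -⟩ := proj_mem F h3 f (u := q) (by rw [c0]; norm_num) (by rw [c1]; norm_num)
        (by rw [c2]; norm_num) (by rw [e1]; exact one_pos)
      rw [e1, inv_one, one_smul] at h5
      exact mem_fc.1 h5 c (by simp)
    have e : b {c} + u = (1 - τ) • (b {c} + q) + τ • z := by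
      rw [hu, hv]; module
    rw [e]
    exact (F.cvx c) hq' hz (by linarith) hτ0.le (by ring)
  -- contradiction with `rel`
  have hfc : b {c} + u ∈ fc P {c} := by rw [mem_fc]; simpa using hbc
  have hr := F.rel {c} (singleton_nonempty c) (b {c} + u) hfc (wf F h3 f u)⁻¹
    ⟨inv_nonneg.2 (by linarith), inv_lt_one_of_one_lt₀ hwu⟩
  rw [add_sub_cancel_left] at hr
  have h6 : f.a1 ∈ act P (b {c} + (wf F h3 f u)⁻¹ • u) := mem_fc.1 hm f.a1 (by simp)
  rw [hr] at h6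
  exact f.h1 h6

/-! ### the cones -/

variable {M : ℕ}

/-- the four inequalities of a cell: flag, coefficients of `cf 0`, `cf 1`, and of `wf` -/
noncomputable def dat (t : Tc P c M) : Fin 4 → Flg P c × ℤ × ℤ × ℤ :=
  if t.1.2.1 < t.1.2.2 then
    ![(t.1.1, 1, 0, (t.1.2.1 : ℕ) + 1), (t.1.1, -1, 0, -(t.1.2.1 : ℕ)),
      (t.1.1, 1, 1, (t.1.2.2 : ℕ) + 1), (t.1.1, -1, -1, -(t.1.2.2 : ℕ))]
  else
    ![(t.1.1, -1, 0, -(t.1.2.1 : ℕ)), (t.1.1, 1, 1, (t.1.2.1 : ℕ) + 1),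
      (t.1.1.sw, -1, 0, -(t.1.2.1 : ℕ)), (t.1.1.sw, 1, 1, (t.1.2.1 : ℕ) + 1)]

/-- the four functionals of a cell -/
noncomputable def ineq (t : Tc P c M) (k : Fin 4) : E →L[ℝ] ℝ :=
  (M : ℝ) • (((dat t k).2.1 : ℝ) • cf F h3 (dat t k).1 0 + ((dat t k).2.2.1 : ℝ) • cf F h3 (dat t k).1 1)
    - ((dat t k).2.2.2 : ℝ) • wf F h3 (dat t k).1

theorem ineq_apply (t : Tc P c M) (k : Fin 4) (u : E) : ineq F h3 t k u =
    M * ((dat t k).2.1 * cf F h3 (dat t k).1 0 u + (dat t k).2.2.1 * cf F h3 (dat t k).1 1 u) -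
      (dat t k).2.2.2 * wf F h3 (dat t k).1 u := rfl

theorem ineq_off {t : Tc P c M} (h : t.1.2.1 < t.1.2.2) (u : E) :
    ineq F h3 t 0 u = M * cf F h3 t.1.1 0 u - ((t.1.2.1 : ℕ) + 1) * wf F h3 t.1.1 u ∧
    ineq F h3 t 1 u = (t.1.2.1 : ℕ) * wf F h3 t.1.1 u - M * cf F h3 t.1.1 0 u ∧
    ineq F h3 t 2 u = M * (cf F h3 t.1.1 0 u + cf F h3 t.1.1 1 u) -
      ((t.1.2.2 : ℕ) + 1) * wf F h3 t.1.1 u ∧
    ineq F h3 t 3 u = (t.1.2.2 : ℕ) * wf F h3 t.1.1 u -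
      M * (cf F h3 t.1.1 0 u + cf F h3 t.1.1 1 u) := by
  simp only [ineq_apply, dat, if_pos h, Matrix.cons_val_zero, Matrix.cons_val_one, Matrix.cons_val]
  refine ⟨?_, ?_, ?_, ?_⟩ <;> (push_cast; ring)

theorem ineq_diag {t : Tc P c M} (h : ¬ t.1.2.1 < t.1.2.2) (u : E) :
    ineq F h3 t 0 u = (t.1.2.1 : ℕ) * wf F h3 t.1.1 u - M * cf F h3 t.1.1 0 u ∧
    ineq F h3 t 1 u = M * (cf F h3 t.1.1 0 u + cf F h3 t.1.1 1 u) -
      ((t.1.2.1 : ℕ) + 1) * wf F h3 t.1.1 u ∧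
    ineq F h3 t 2 u = (t.1.2.1 : ℕ) * wf F h3 t.1.1.sw u - M * cf F h3 t.1.1.sw 0 u ∧
    ineq F h3 t 3 u = M * (cf F h3 t.1.1.sw 0 u + cf F h3 t.1.1.sw 1 u) -
      ((t.1.2.1 : ℕ) + 1) * wf F h3 t.1.1.sw u := by
  simp only [ineq_apply, dat, if_neg h, Matrix.cons_val_zero, Matrix.cons_val_one, Matrix.cons_val]
  refine ⟨?_, ?_, ?_, ?_⟩ <;> (push_cast; ring)

omit [CompleteSpace E] in
theorem diag_eq {t : Tc P c M} (h : ¬ t.1.2.1 < t.1.2.2) :
    t.1.2.1 = t.1.2.2 ∧ WellOrderingRel t.1.1.a2 t.1.1.a3 := t.2.resolve_left h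

/-- a cell as seen from a flag: closed (`≤`) form -/
theorem cone_cases (hQ : Quads P b) {t : Tc P c M} {u : E} (h : ∀ k, ineq F h3 t k u ≤ 0) :
    ∃ g : Flg P c, (g = t.1.1 ∨ g = t.1.1.sw ∧ t.1.2.1 = t.1.2.2) ∧
      wf F h3 t.1.1 u = wf F h3 g u ∧ 0 ≤ cf F h3 g 0 u ∧ 0 ≤ cf F h3 g 1 u ∧ 0 ≤ cf F h3 g 2 u ∧
      (t.1.2.1 : ℕ) * wf F h3 g u ≤ M * cf F h3 g 0 u ∧
      M * cf F h3 g 0 u ≤ ((t.1.2.1 : ℕ) + 1) * wf F h3 g u ∧
      (t.1.2.2 : ℕ) * wf F h3 g u ≤ M * (cf F h3 g 0 u + cf F h3 g 1 u) ∧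
      M * (cf F h3 g 0 u + cf F h3 g 1 u) ≤ ((t.1.2.2 : ℕ) + 1) * wf F h3 g u := by
  have hM : (0 : ℝ) < M := by
    have := t.1.2.1.pos
    exact_mod_cast this
  have hj : (((t.1.2.1 : ℕ) : ℝ)) + 1 ≤ M := by exact_mod_cast t.1.2.1.2
  have hi : (((t.1.2.2 : ℕ) : ℝ)) + 1 ≤ M := by exact_mod_cast t.1.2.2.2
  have hj0 : (0 : ℝ) ≤ (t.1.2.1 : ℕ) := Nat.cast_nonneg _
  by_cases hlt : t.1.2.1 < t.1.2.2
  · obtain ⟨e0, e1, e2, e3⟩ := ineq_off F h3 hlt u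
    have g0 := h 0
    have g1 := h 1
    have g2 := h 2
    have g3 := h 3
    rw [e0] at g0
    rw [e1] at g1
    rw [e2] at g2
    rw [e3] at g3
    have hji : (((t.1.2.1 : ℕ) : ℝ)) + 1 ≤ (t.1.2.2 : ℕ) := by
      have : (t.1.2.1 : ℕ) + 1 ≤ (t.1.2.2 : ℕ) := hlt
      exact_mod_cast this
    set w := wf F h3 t.1.1 u with hw
    have hsum : cf F h3 t.1.1 0 u + cf F h3 t.1.1 1 u + cf F h3 t.1.1 2 u = w :=
      (wf_apply F h3 t.1.1 u).symm
    have hw0 : 0 ≤ w := by linarith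
    have p1 : 0 ≤ ((t.1.2.1 : ℕ) : ℝ) * w := mul_nonneg hj0 hw0
    have p2 : 0 ≤ ((((t.1.2.2 : ℕ) : ℝ)) - (((t.1.2.1 : ℕ) : ℝ) + 1)) * w :=
      mul_nonneg (by linarith) hw0
    have p3 : 0 ≤ ((M : ℝ) - (((t.1.2.2 : ℕ) : ℝ) + 1)) * w := mul_nonneg (by linarith) hw0
    have p4 : M * cf F h3 t.1.1 2 u = M * w - M * (cf F h3 t.1.1 0 u + cf F h3 t.1.1 1 u) := by
      rw [← hsum]; ring
    refine ⟨t.1.1, Or.inl rfl, rfl, ?_, ?_, ?_, by linarith, by linarith, by linarith, by linarith⟩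
    · have : 0 ≤ M * cf F h3 t.1.1 0 u := by linarith
      exact nonneg_of_mul_nonneg_right this hM
    · have : 0 ≤ M * cf F h3 t.1.1 1 u := by linarith
      exact nonneg_of_mul_nonneg_right this hM
    · have : 0 ≤ M * cf F h3 t.1.1 2 u := by linarith
      exact nonneg_of_mul_nonneg_right this hM
  · obtain ⟨e0, e1, e2, e3⟩ := ineq_diag F h3 hlt u
    have hd := (diag_eq hlt).1
    have g0 := h 0
    have g1 := h 1
    have g2 := h 2
    have g3 := h 3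
    rw [e0] at g0
    rw [e1] at g1
    rw [e2, wf_sw F h3 hQ] at g2
    rw [e3, wf_sw F h3 hQ] at g3
    obtain ⟨l, m, hl, hm, hlm, hs⟩ := cf_sw F h3 hQ t.1.1
    obtain ⟨s0, s1, s2⟩ := hs u
    rw [← hd]
    set w := wf F h3 t.1.1 u with hw
    have hsum : cf F h3 t.1.1 0 u + cf F h3 t.1.1 1 u + cf F h3 t.1.1 2 u = w :=
      (wf_apply F h3 t.1.1 u).symm
    rcases le_total 0 (cf F h3 t.1.1 1 u) with hc | hc
    · have hMc : 0 ≤ M * cf F h3 t.1.1 1 u := mul_nonneg hM.le hc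
      have hw0 : 0 ≤ w := by linarith
      have p1 : 0 ≤ ((t.1.2.1 : ℕ) : ℝ) * w := mul_nonneg hj0 hw0
      have p3 : 0 ≤ ((M : ℝ) - (((t.1.2.1 : ℕ) : ℝ) + 1)) * w := mul_nonneg (by linarith) hw0
      have p4 : M * cf F h3 t.1.1 2 u = M * w - M * (cf F h3 t.1.1 0 u + cf F h3 t.1.1 1 u) := by
        rw [← hsum]; ring
      refine ⟨t.1.1, Or.inl rfl, rfl, ?_, hc, ?_, by linarith, by linarith, by linarith,
        by linarith⟩
      · have : 0 ≤ M * cf F h3 t.1.1 0 u := by linarith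
        exact nonneg_of_mul_nonneg_right this hM
      · have : 0 ≤ M * cf F h3 t.1.1 2 u := by linarith
        exact nonneg_of_mul_nonneg_right this hM
    · have hc' : 0 ≤ cf F h3 t.1.1.sw 1 u := by
        rw [s1]
        have := mul_nonneg hm.le (neg_nonneg.2 hc)
        linarith
      have hMc : 0 ≤ M * cf F h3 t.1.1.sw 1 u := mul_nonneg hM.le hc'
      have hsum' : cf F h3 t.1.1.sw 0 u + cf F h3 t.1.1.sw 1 u + cf F h3 t.1.1.sw 2 u = w := by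
        rw [hw, ← wf_sw F h3 hQ, wf_apply]
      have hw0 : 0 ≤ w := by linarith
      have p1 : 0 ≤ ((t.1.2.1 : ℕ) : ℝ) * w := mul_nonneg hj0 hw0
      have p3 : 0 ≤ ((M : ℝ) - (((t.1.2.1 : ℕ) : ℝ) + 1)) * w := mul_nonneg (by linarith) hw0
      have p4 : M * cf F h3 t.1.1.sw 2 u =
          M * w - M * (cf F h3 t.1.1.sw 0 u + cf F h3 t.1.1.sw 1 u) := by
        rw [← hsum']; ring
      refine ⟨t.1.1.sw, Or.inr ⟨rfl, rfl⟩, ?_, ?_, hc', ?_, ?_, ?_, ?_, ?_⟩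
      · rw [wf_sw F h3 hQ]
      · have : 0 ≤ M * cf F h3 t.1.1.sw 0 u := by linarith
        exact nonneg_of_mul_nonneg_right this hM
      · have : 0 ≤ M * cf F h3 t.1.1.sw 2 u := by linarith
        exact nonneg_of_mul_nonneg_right this hM
      all_goals
        rw [wf_sw F h3 hQ, ← hw]
        linarith

/-- `wf` is the gauge on the cone -/
theorem wf_max (hQ : Quads P b) {t : Tc P c M} {u : E} (h : ∀ k, ineq F h3 t k u ≤ 0)
    (f : Flg P c) : wf F h3 f u ≤ wf F h3 t.1.1 u := by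
  obtain ⟨g, -, hw, h0, h1, h2, -⟩ := cone_cases F h3 hQ h
  rw [hw]
  have hsum : cf F h3 g 0 u + cf F h3 g 1 u + cf F h3 g 2 u = wf F h3 g u :=
    (wf_apply F h3 g u).symm
  rcases (show 0 ≤ wf F h3 g u by linarith).eq_or_lt with h5 | h5
  · have z0 : cf F h3 g 0 u = 0 := by linarith
    have z1 : cf F h3 g 1 u = 0 := by linarith
    have z2 : cf F h3 g 2 u = 0 := by linarith
    have : u = 0 := by rw [← cf_sum F h3 g u, z0, z1, z2]; simp
    rw [this, map_zero, map_zero]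
  · obtain ⟨hm, -⟩ := proj_mem F h3 g h0 h1 h2 h5
    have h6 := wf_le_one F h3 f (mem_fc.1 hm c (by simp))
    rw [add_sub_cancel_left, map_smul, smul_eq_mul, inv_mul_le_iff₀ h5, mul_one] at h6
    exact h6

theorem exists_tc_of_flag (hQ : Quads P b) (hM : 0 < M) {u : E} (f : Flg P c)
    (h0 : 0 ≤ cf F h3 f 0 u) (h1 : 0 ≤ cf F h3 f 1 u) (h2 : 0 ≤ cf F h3 f 2 u) :
    ∃ t : Tc P c M, (∀ k, ineq F h3 t k u ≤ 0) ∧ (t.1.1 = f ∨ t.1.1 = f.sw) := by
  classical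
  have hM' : (0 : ℝ) < M := by exact_mod_cast hM
  set w := wf F h3 f u with hw
  have hsum : cf F h3 f 0 u + cf F h3 f 1 u + cf F h3 f 2 u = w := (wf_apply F h3 f u).symm
  have hw0 : 0 ≤ w := by linarith
  -- integer parts
  have key : ∀ x : ℝ, 0 ≤ x → x ≤ w → ∃ j : Fin M, (j : ℕ) * w ≤ M * x ∧ M * x ≤ ((j : ℕ) + 1) * w ∧
      ∀ n : ℕ, (n : ℝ) * w ≤ M * x → n < M → (0 < w → n ≤ (j : ℕ)) := by
    intro x hx hxw
    rcases hw0.eq_or_lt with hz | hz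
    · have : x = 0 := by linarith
      refine ⟨⟨0, hM⟩, ?_, ?_, fun n _ _ h => absurd hz h.ne⟩
      · rw [← hz, this]; simp
      · rw [← hz, this]; simp
    · set y : ℝ := M * x / w with hy
      have hy0 : 0 ≤ y := by positivity
      have hyM : y ≤ M := by
        rw [hy, div_le_iff₀ hz]
        exact mul_le_mul_of_nonneg_left hxw hM'.le
      have hyw : y * w = M * x := by rw [hy]; field_simp
      by_cases hlt : y < M
      · have h5 : ⌊y⌋₊ < M := (Nat.floor_lt hy0).2 hlt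
        refine ⟨⟨⌊y⌋₊, h5⟩, ?_, ?_, ?_⟩
        · rw [← hyw]; exact mul_le_mul_of_nonneg_right (Nat.floor_le hy0) hz.le
        · rw [← hyw]; exact mul_le_mul_of_nonneg_right (Nat.lt_floor_add_one y).le hz.le
        · intro n hn _ _
          rw [← hyw] at hn
          exact Nat.le_floor (le_of_mul_le_mul_right hn hz)
      · have hyM' : y = M := le_antisymm hyM (not_lt.1 hlt)
        refine ⟨⟨M - 1, by omega⟩, ?_, ?_, ?_⟩
        · rw [← hyw, hyM']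
          refine mul_le_mul_of_nonneg_right ?_ hz.le
          have : M - 1 ≤ M := Nat.sub_le _ _
          exact_mod_cast this
        · rw [← hyw, hyM']
          refine mul_le_mul_of_nonneg_right ?_ hz.le
          have : M ≤ M - 1 + 1 := by omega
          exact_mod_cast this
        · intro n _ hn _
          show n ≤ M - 1
          omega
  obtain ⟨j, j1, j2, -⟩ := key (cf F h3 f 0 u) h0 (by linarith)
  obtain ⟨i, i1, i2, i3⟩ := key (cf F h3 f 0 u + cf F h3 f 1 u) (by linarith) (by linarith)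
  have hMc : 0 ≤ M * cf F h3 f 1 u := mul_nonneg hM'.le h1
  rcases hw0.eq_or_lt with hz | hz
  · -- `u = 0`
    have z0 : cf F h3 f 0 u = 0 := by linarith
    have z1 : cf F h3 f 1 u = 0 := by linarith
    have z2 : cf F h3 f 2 u = 0 := by linarith
    have hu : u = 0 := by rw [← cf_sum F h3 f u, z0, z1, z2]; simp
    have hz' : ∀ t : Tc P c M, ∀ k, ineq F h3 t k u ≤ 0 := fun t k => by rw [hu, map_zero]
    rcases trichotomous_of WellOrderingRel f.a2 f.a3 with h | h | h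
    · exact ⟨⟨(f, ⟨0, hM⟩, ⟨0, hM⟩), Or.inr ⟨rfl, h⟩⟩, hz' _, Or.inl rfl⟩
    · exact absurd h f.h23
    · exact ⟨⟨(f.sw, ⟨0, hM⟩, ⟨0, hM⟩), Or.inr ⟨rfl, h⟩⟩, hz' _, Or.inr rfl⟩
  have hji : (j : ℕ) ≤ (i : ℕ) := i3 j (by linarith) j.2 hz
  rcases hji.lt_or_eq with hlt | heq
  · refine ⟨⟨(f, j, i), Or.inl hlt⟩, fun k => ?_, Or.inl rfl⟩
    obtain ⟨e0, e1, e2, e3⟩ := ineq_off F h3 (t := ⟨(f, j, i), Or.inl hlt⟩) hlt u
    fin_cases k
    · refine (le_of_eq e0).trans ?_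
      simp only [← hw]; linarith
    · refine (le_of_eq e1).trans ?_
      simp only [← hw]; linarith
    · refine (le_of_eq e2).trans ?_
      simp only [← hw]; linarith
    · refine (le_of_eq e3).trans ?_
      simp only [← hw]; linarith
  · have hij : j = i := Fin.ext heq
    subst hij
    obtain ⟨l, m, hl, hm, hlm, hs⟩ := cf_sw F h3 hQ f
    obtain ⟨s0, s1, s2⟩ := hs u
    have hsw : wf F h3 f.sw u = w := by rw [wf_sw F h3 hQ]
    have hlc : 0 ≤ M * (l * cf F h3 f 1 u) := by positivity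
    have hlc2 : M * ((l - m) * cf F h3 f 1 u) ≤ M * (1 * cf F h3 f 1 u) := by
      gcongr
    have b0 : (j : ℕ) * w ≤ M * cf F h3 f.sw 0 u := by rw [s0]; linarith
    have b1 : M * (cf F h3 f.sw 0 u + cf F h3 f.sw 1 u) ≤ ((j : ℕ) + 1) * w := by
      rw [s0, s1]; linarith
    rcases trichotomous_of WellOrderingRel f.a2 f.a3 with h | h | h
    · refine ⟨⟨(f, j, j), Or.inr ⟨rfl, h⟩⟩, fun k => ?_, Or.inl rfl⟩
      obtain ⟨e0, e1, e2, e3⟩ := ineq_diag F h3 (t := ⟨(f, j, j), Or.inr ⟨rfl, h⟩⟩) (lt_irrefl j) u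
      fin_cases k
      · refine (le_of_eq e0).trans ?_
        simp only [← hw]; linarith
      · refine (le_of_eq e1).trans ?_
        simp only [← hw]; linarith
      · refine (le_of_eq e2).trans ?_
        simp only [hsw]; linarith
      · refine (le_of_eq e3).trans ?_
        simp only [hsw]; linarith
    · exact absurd h f.h23
    · refine ⟨⟨(f.sw, j, j), Or.inr ⟨rfl, h⟩⟩, fun k => ?_, Or.inr rfl⟩
      obtain ⟨e0, e1, e2, e3⟩ :=
        ineq_diag F h3 (t := ⟨(f.sw, j, j), Or.inr ⟨rfl, h⟩⟩) (lt_irrefl j) u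
      have hss : (f.sw).sw = f := rfl
      fin_cases k
      · refine (le_of_eq e0).trans ?_
        simp only [hsw]; linarith
      · refine (le_of_eq e1).trans ?_
        simp only [hsw]; linarith
      · refine (le_of_eq e2).trans ?_
        simp only [hss, ← hw]; linarith
      · refine (le_of_eq e3).trans ?_
        simp only [hss, ← hw]; linarith

/-- **the cones cover** -/
theorem exists_tc (hQ : Quads P b) (hN : N ≤ 4) (hc : (P c).Nonempty) (hM : 0 < M) (u : E) :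
    ∃ t : Tc P c M, ∀ k, ineq F h3 t k u ≤ 0 := by
  obtain ⟨f, hf⟩ := exists_flag F h3 hN c hc u
  obtain ⟨t, ht, -⟩ := exists_tc_of_flag F h3 hQ hM f (hf 0) (hf 1) (hf 2)
  exact ⟨t, ht⟩

/-! ### cells and coordinates -/

/-- the coordinates on a closed cell -/
theorem cell_sc (hQ : Quads P b) {t : Tc P c M} {u : E} (h : ∀ k, ineq F h3 t k u ≤ 0)
    (hw : 0 < wf F h3 t.1.1 u) :
    b {c} + (wf F h3 t.1.1 u)⁻¹ • u ∈ fc P {c, t.1.1.a1} ∧
      sc P b (b {c} + (wf F h3 t.1.1 u)⁻¹ • u) t.1.1.a2 ∈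
        Icc ((t.1.2.1 : ℕ) / M : ℝ) (((t.1.2.1 : ℕ) + 1) / M) ∧
      sc P b (b {c} + (wf F h3 t.1.1 u)⁻¹ • u) t.1.1.a3 ∈
        Icc ((t.1.2.2 : ℕ) / M : ℝ) (((t.1.2.2 : ℕ) + 1) / M) ∧
      ∀ a, a ≠ c → a ≠ t.1.1.a1 → a ≠ t.1.1.a2 → a ≠ t.1.1.a3 →
        sc P b (b {c} + (wf F h3 t.1.1 u)⁻¹ • u) a = 1 := by
  have hM : (0 : ℝ) < M := by
    have := t.1.2.1.pos
    exact_mod_cast this
  obtain ⟨g, hg, hwg, h0, h1, h2, k1, k2, k3, k4⟩ := cone_cases F h3 hQ h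
  rw [hwg] at hw ⊢
  obtain ⟨m0, m1, m2, m3, m4, m5⟩ := proj_mem F h3 g h0 h1 h2 hw
  have I0 : cf F h3 g 0 u / wf F h3 g u ∈ Icc ((t.1.2.1 : ℕ) / M : ℝ) (((t.1.2.1 : ℕ) + 1) / M) := by
    constructor
    · rw [div_le_div_iff₀ hM hw]; linarith
    · rw [div_le_div_iff₀ hw hM]; linarith
  have I1 : (cf F h3 g 0 u + cf F h3 g 1 u) / wf F h3 g u ∈
      Icc ((t.1.2.2 : ℕ) / M : ℝ) (((t.1.2.2 : ℕ) + 1) / M) := by
    constructor
    · rw [div_le_div_iff₀ hM hw]; linarith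
    · rw [div_le_div_iff₀ hw hM]; linarith
  rcases hg with rfl | ⟨rfl, hd⟩
  · exact ⟨m0, by rw [m3]; exact I0, by rw [m4]; exact I1, m5⟩
  · rw [← hd] at I1 ⊢
    refine ⟨m0, ?_, ?_, fun a a0 a1 a2 a3 => m5 a a0 a1 a3 a2⟩
    · have : t.1.1.sw.a3 = t.1.1.a2 := rfl
      rw [← this, m4]; exact I1
    · have : t.1.1.sw.a2 = t.1.1.a3 := rfl
      rw [← this, m3]; exact I0

/-- the coordinates on an open cell -/
theorem open_sc (hQ : Quads P b) {t : Tc P c M} {u : E} (h : ∀ k, ineq F h3 t k u < 0) :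
    0 < wf F h3 t.1.1 u ∧
      sc P b (b {c} + (wf F h3 t.1.1 u)⁻¹ • u) c = 0 ∧
      sc P b (b {c} + (wf F h3 t.1.1 u)⁻¹ • u) t.1.1.a1 = 0 ∧
      sc P b (b {c} + (wf F h3 t.1.1 u)⁻¹ • u) t.1.1.a2 ∈
        Ioo ((t.1.2.1 : ℕ) / M : ℝ) (((t.1.2.1 : ℕ) + 1) / M) ∧
      sc P b (b {c} + (wf F h3 t.1.1 u)⁻¹ • u) t.1.1.a3 ∈
        Ioo ((t.1.2.2 : ℕ) / M : ℝ) (((t.1.2.2 : ℕ) + 1) / M) ∧
      ∀ a, a ≠ c → a ≠ t.1.1.a1 → a ≠ t.1.1.a2 → a ≠ t.1.1.a3 →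
        sc P b (b {c} + (wf F h3 t.1.1 u)⁻¹ • u) a = 1 := by
  have hM : (0 : ℝ) < M := by
    have := t.1.2.1.pos
    exact_mod_cast this
  obtain ⟨g, hg, hwg, h0, h1, h2, -⟩ := cone_cases F h3 hQ (fun k => (h k).le)
  have hMc : 0 ≤ M * cf F h3 g 1 u := mul_nonneg hM.le h1
  -- strict inequalities in the flag `g`
  have hstrict : (t.1.2.1 : ℕ) * wf F h3 g u < M * cf F h3 g 0 u ∧
      M * cf F h3 g 0 u < ((t.1.2.1 : ℕ) + 1) * wf F h3 g u ∧
      (t.1.2.2 : ℕ) * wf F h3 g u < M * (cf F h3 g 0 u + cf F h3 g 1 u) ∧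
      M * (cf F h3 g 0 u + cf F h3 g 1 u) < ((t.1.2.2 : ℕ) + 1) * wf F h3 g u := by
    have g0 := h 0
    have g1 := h 1
    have g2 := h 2
    have g3 := h 3
    by_cases hlt : t.1.2.1 < t.1.2.2
    · have hgt : g = t.1.1 := by
        rcases hg with h | ⟨-, h⟩
        · exact h
        · exact absurd h hlt.ne
      subst hgt
      obtain ⟨e0, e1, e2, e3⟩ := ineq_off F h3 hlt u
      rw [e0] at g0
      rw [e1] at g1
      rw [e2] at g2
      rw [e3] at g3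
      exact ⟨by linarith, by linarith, by linarith, by linarith⟩
    · obtain ⟨e0, e1, e2, e3⟩ := ineq_diag F h3 hlt u
      have hd := (diag_eq hlt).1
      rw [e0] at g0
      rw [e1] at g1
      rw [e2] at g2
      rw [e3] at g3
      rw [← hd]
      rcases hg with rfl | ⟨rfl, -⟩
      · exact ⟨by linarith, by linarith, by linarith, by linarith⟩
      · exact ⟨by linarith, by linarith, by linarith, by linarith⟩
  obtain ⟨k1, k2, k3, k4⟩ := hstrict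
  have hw : 0 < wf F h3 g u := by linarith
  rw [hwg]
  obtain ⟨m0, m1, m2, m3, m4, m5⟩ := proj_mem F h3 g h0 h1 h2 hw
  have I0 : cf F h3 g 0 u / wf F h3 g u ∈ Ioo ((t.1.2.1 : ℕ) / M : ℝ) (((t.1.2.1 : ℕ) + 1) / M) := by
    constructor
    · rw [div_lt_div_iff₀ hM hw]; linarith
    · rw [div_lt_div_iff₀ hw hM]; linarith
  have I1 : (cf F h3 g 0 u + cf F h3 g 1 u) / wf F h3 g u ∈
      Ioo ((t.1.2.2 : ℕ) / M : ℝ) (((t.1.2.2 : ℕ) + 1) / M) := by
    constructor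
    · rw [div_lt_div_iff₀ hM hw]; linarith
    · rw [div_lt_div_iff₀ hw hM]; linarith
  refine ⟨hw, m1, ?_⟩
  rcases hg with rfl | ⟨rfl, hd⟩
  · exact ⟨m2, by rw [m3]; exact I0, by rw [m4]; exact I1, m5⟩
  · rw [← hd] at I1 ⊢
    refine ⟨m2, ?_, ?_, fun a a0 a1 a2 a3 => m5 a a0 a1 a3 a2⟩
    · have : t.1.1.sw.a3 = t.1.1.a2 := rfl
      rw [← this, m4]; exact I1
    · have : t.1.1.sw.a2 = t.1.1.a3 := rfl
      rw [← this, m3]; exact I0

theorem nat_of_Ioo {x : ℝ} {m n : ℕ} {M : ℝ} (hM : 0 < M) (h1 : x ∈ Ioo ((m : ℝ) / M) ((m + 1) / M))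
    (h2 : x ∈ Ioo ((n : ℝ) / M) ((n + 1) / M)) : m = n := by
  have a1 := h1.1.trans h2.2
  have a2 := h2.1.trans h1.2
  rw [div_lt_div_iff_of_pos_right hM] at a1 a2
  have b1 : m < n + 1 := by exact_mod_cast a1
  have b2 : n < m + 1 := by exact_mod_cast a2
  omega

/-- **the open cones are disjoint** -/
theorem tc_dis (hQ : Quads P b) {t t' : Tc P c M} {u : E} (h : ∀ k, ineq F h3 t k u < 0)
    (h' : ∀ k, ineq F h3 t' k u < 0) : t = t' := by
  have hM : (0 : ℝ) < M := by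
    have := t.1.2.1.pos
    exact_mod_cast this
  obtain ⟨w0, p0, p1, p2, p3, p4⟩ := open_sc F h3 hQ h
  obtain ⟨w0', q0, q1, q2, q3, q4⟩ := open_sc F h3 hQ h'
  have hww : wf F h3 t.1.1 u = wf F h3 t'.1.1 u :=
    le_antisymm (wf_max F h3 hQ (fun k => (h' k).le) _) (wf_max F h3 hQ (fun k => (h k).le) _)
  rw [← hww] at q0 q1 q2 q3 q4
  set s := sc P b (b {c} + (wf F h3 t.1.1 u)⁻¹ • u) with hs
  have hj0 : ∀ n : ℕ, (0 : ℝ) ≤ (n : ℝ) / M := fun n => by positivity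
  have hi1 : ∀ n : Fin M, (((n : ℕ) : ℝ) + 1) / M ≤ 1 := fun n => by
    rw [div_le_one hM]; exact_mod_cast n.2
  have P2 : 0 < s t.1.1.a2 ∧ s t.1.1.a2 < 1 := ⟨(hj0 _).trans_lt p2.1, p2.2.trans_le (hi1 _)⟩
  have P3 : 0 < s t.1.1.a3 ∧ s t.1.1.a3 < 1 := ⟨(hj0 _).trans_lt p3.1, p3.2.trans_le (hi1 _)⟩
  have Q2 : 0 < s t'.1.1.a2 ∧ s t'.1.1.a2 < 1 := ⟨(hj0 _).trans_lt q2.1, q2.2.trans_le (hi1 _)⟩
  have Q3 : 0 < s t'.1.1.a3 ∧ s t'.1.1.a3 < 1 := ⟨(hj0 _).trans_lt q3.1, q3.2.trans_le (hi1 _)⟩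
  -- the first cell
  have e1 : t.1.1.a1 = t'.1.1.a1 := by
    by_contra hne
    by_cases a2 : t.1.1.a1 = t'.1.1.a2
    · rw [← a2, p1] at Q2; exact lt_irrefl _ Q2.1
    by_cases a3 : t.1.1.a1 = t'.1.1.a3
    · rw [← a3, p1] at Q3; exact lt_irrefl _ Q3.1
    have := q4 _ t.1.1.h1 hne a2 a3
    rw [p1] at this
    exact zero_ne_one this
  have mem : ∀ a, 0 < s a → s a < 1 → (a = t.1.1.a2 ∨ a = t.1.1.a3) ∧ (a = t'.1.1.a2 ∨ a = t'.1.1.a3) := by
    intro a ha0 ha1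
    constructor
    · by_contra hn
      push Not at hn
      have n0 : a ≠ c := by rintro rfl; rw [p0] at ha0; exact lt_irrefl _ ha0
      have n1 : a ≠ t.1.1.a1 := by rintro rfl; rw [p1] at ha0; exact lt_irrefl _ ha0
      have := p4 a n0 n1 hn.1 hn.2
      rw [this] at ha1; exact lt_irrefl _ ha1
    · by_contra hn
      push Not at hn
      have n0 : a ≠ c := by rintro rfl; rw [p0] at ha0; exact lt_irrefl _ ha0
      have n1 : a ≠ t'.1.1.a1 := by rintro rfl; rw [q1] at ha0; exact lt_irrefl _ ha0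
      have := q4 a n0 n1 hn.1 hn.2
      rw [this] at ha1; exact lt_irrefl _ ha1
  have m2 := (mem _ P2.1 P2.2).2
  have m3 := (mem _ P3.1 P3.2).2
  have n23 := t.1.1.h23
  rcases m2 with m2 | m2
  · have m3' : t.1.1.a3 = t'.1.1.a3 := m3.resolve_left fun h => n23 (m2.trans h.symm)
    rw [m2] at p2
    rw [m3'] at p3
    have hj := nat_of_Ioo hM p2 q2
    have hi := nat_of_Ioo hM p3 q3
    have hf : t.1.1 = t'.1.1 := by
      have : ∀ f f' : Flg P c, f.a1 = f'.a1 → f.a2 = f'.a2 → f.a3 = f'.a3 → f = f' := by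
        intro f f' h1 h2 h3
        cases f; cases f'
        simp only [Flg.mk.injEq]
        exact ⟨h1, h2, h3⟩
      exact this _ _ e1 m2 m3'
    exact Subtype.ext (Prod.ext hf (Prod.ext (Fin.ext hj) (Fin.ext hi)))
  · -- swapped: impossible
    exfalso
    have m3' : t.1.1.a3 = t'.1.1.a2 := m3.resolve_right fun h => n23 (m2.trans h.symm)
    rw [m2] at p2
    rw [m3'] at p3
    have hj := nat_of_Ioo hM p2 q3
    have hi := nat_of_Ioo hM p3 q2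
    rcases t.2 with h5 | ⟨h5, h6⟩
    · have h5' : (t.1.2.1 : ℕ) < (t.1.2.2 : ℕ) := h5
      rcases t'.2 with h7 | ⟨h7, -⟩
      · have h7' : (t'.1.2.1 : ℕ) < (t'.1.2.2 : ℕ) := h7
        omega
      · have h7' : (t'.1.2.1 : ℕ) = (t'.1.2.2 : ℕ) := congrArg Fin.val h7
        omega
    · have h5' : (t.1.2.1 : ℕ) = (t.1.2.2 : ℕ) := congrArg Fin.val h5
      rcases t'.2 with h7 | ⟨-, h8⟩
      · have h7' : (t'.1.2.1 : ℕ) < (t'.1.2.2 : ℕ) := h7
        omega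
      · rw [m2, m3'] at h6
        exact asymm h6 h8

/-- a point of the open cell -/
noncomputable def vt (b : Set I → E) (t : Tc P c M) : E :=
  ((2 * (t.1.2.1 : ℕ) + 1) / (2 * M) : ℝ) • dir b t.1.1 0 +
    ((((t.1.2.2 : ℕ) : ℝ) - (t.1.2.1 : ℕ)) / M : ℝ) • dir b t.1.1 1 +
    (1 - (2 * (t.1.2.2 : ℕ) + 1) / (2 * M) : ℝ) • dir b t.1.1 2

theorem vt_spec (hQ : Quads P b) (t : Tc P c M) :
    wf F h3 t.1.1 (vt b t) = 1 ∧ ∀ k, ineq F h3 t k (vt b t) < 0 := by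
  have hM : (0 : ℝ) < M := by
    have := t.1.2.1.pos
    exact_mod_cast this
  obtain ⟨c0, c1, c2⟩ := cf_comb F h3 t.1.1 ((2 * (t.1.2.1 : ℕ) + 1) / (2 * M) : ℝ)
    ((((t.1.2.2 : ℕ) : ℝ) - (t.1.2.1 : ℕ)) / M : ℝ) (1 - (2 * (t.1.2.2 : ℕ) + 1) / (2 * M) : ℝ)
  change cf F h3 t.1.1 0 (vt b t) = _ at c0
  change cf F h3 t.1.1 1 (vt b t) = _ at c1
  change cf F h3 t.1.1 2 (vt b t) = _ at c2
  have hw : wf F h3 t.1.1 (vt b t) = 1 := by
    rw [wf_apply, c0, c1, c2]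
    field_simp
    ring
  have d0 : M * cf F h3 t.1.1 0 (vt b t) = (t.1.2.1 : ℕ) + 1 / 2 := by
    rw [c0]; field_simp
  have d1 : M * (cf F h3 t.1.1 0 (vt b t) + cf F h3 t.1.1 1 (vt b t)) = (t.1.2.2 : ℕ) + 1 / 2 := by
    rw [c0, c1]; field_simp; ring
  refine ⟨hw, ?_⟩
  by_cases hlt : t.1.2.1 < t.1.2.2
  · obtain ⟨e0, e1, e2, e3⟩ := ineq_off F h3 hlt (vt b t)
    rw [hw] at e0 e1 e2 e3
    intro k
    fin_cases k
    · refine (lt_of_eq_of_lt e0 ?_); linarith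
    · refine (lt_of_eq_of_lt e1 ?_); linarith
    · refine (lt_of_eq_of_lt e2 ?_); linarith
    · refine (lt_of_eq_of_lt e3 ?_); linarith
  · obtain ⟨e0, e1, e2, e3⟩ := ineq_diag F h3 hlt (vt b t)
    have hd := (diag_eq hlt).1
    obtain ⟨l, m, hl, hm, hlm, hs⟩ := cf_sw F h3 hQ t.1.1
    obtain ⟨s0, s1, s2⟩ := hs (vt b t)
    have z1 : cf F h3 t.1.1 1 (vt b t) = 0 := by rw [c1, hd]; simp
    rw [z1] at s0 s1 d1
    rw [← hd] at d1
    rw [wf_sw F h3 hQ] at e2 e3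
    rw [hw] at e0 e1 e2 e3
    rw [z1] at e1
    rw [s0] at e2 e3
    rw [s1] at e3
    intro k
    fin_cases k
    · refine (lt_of_eq_of_lt e0 ?_); linarith
    · refine (lt_of_eq_of_lt e1 ?_); linarith
    · refine (lt_of_eq_of_lt e2 ?_); linarith
    · refine (lt_of_eq_of_lt e3 ?_); linarith

theorem cf_of_sc (f : Flg P c) {y : E} (hy : y ∈ P c) (h1 : sc P b y f.a1 = 0)
    (h23 : sc P b y f.a2 ≤ sc P b y f.a3)
    (ho : ∀ a, a ≠ c → a ≠ f.a1 → a ≠ f.a2 → a ≠ f.a3 → sc P b y a = 1) :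
    cf F h3 f 0 (y - b {c}) = sc P b y f.a2 ∧
      cf F h3 f 0 (y - b {c}) + cf F h3 f 1 (y - b {c}) = sc P b y f.a3 ∧
      wf F h3 f (y - b {c}) = 1 := by
  have hyL := F.sub c hy
  have hK := F.sc_mem_K hyL
  have h0 : sc P b y c = 0 := (F.sc_eq_zero hyL).2 hy
  set s := sc P b y with hs
  have b2 := hK.1 f.a2
  have b3 := hK.1 f.a3
  set u : E := s f.a2 • dir b f 0 + (s f.a3 - s f.a2) • dir b f 1 + (1 - s f.a3) • dir b f 2 with hu
  obtain ⟨c0, c1, c2⟩ := cf_comb F h3 f (s f.a2) (s f.a3 - s f.a2) (1 - s f.a3)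
  rw [← hu] at c0 c1 c2
  have hw : wf F h3 f u = 1 := by rw [wf_apply, c0, c1, c2]; ring
  obtain ⟨m0, m1, m2, m3, m4, m5⟩ := proj_mem F h3 f (u := u) (by rw [c0]; exact b2.1)
    (by rw [c1]; linarith) (by rw [c2]; linarith [b3.2]) (by rw [hw]; exact one_pos)
  rw [hw, inv_one, one_smul] at m0 m1 m2 m3 m4 m5
  rw [div_one, c0] at m3
  rw [div_one, c0, c1] at m4
  have heq : sc P b (b {c} + u) = s := by
    funext a
    by_cases a0 : a = c
    · subst a0; rw [m1, h0]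
    by_cases a1 : a = f.a1
    · subst a1; rw [m2, h1]
    by_cases a2 : a = f.a2
    · subst a2; rw [m3]
    by_cases a3 : a = f.a3
    · subst a3; rw [m4]; ring
    rw [m5 a a0 a1 a2 a3, ho a a0 a1 a2 a3]
  have hyu : y = b {c} + u := by
    rw [← F.T_sc hyL, ← F.T_sc (F.sub c (mem_fc.1 m0 c (by simp))), heq]
  rw [hyu, add_sub_cancel_left, c0, c1]
  exact ⟨rfl, by ring, hw⟩

/-- **a point of the boundary with coordinates in the square is in the cell** -/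
theorem mem_cell_of_sc (hQ : Quads P b) (t : Tc P c M) {y : E} (hy : y ∈ P c)
    (h1 : sc P b y t.1.1.a1 = 0)
    (h2 : sc P b y t.1.1.a2 ∈ Icc ((t.1.2.1 : ℕ) / M : ℝ) (((t.1.2.1 : ℕ) + 1) / M))
    (h3' : sc P b y t.1.1.a3 ∈ Icc ((t.1.2.2 : ℕ) / M : ℝ) (((t.1.2.2 : ℕ) + 1) / M))
    (ho : ∀ a, a ≠ c → a ≠ t.1.1.a1 → a ≠ t.1.1.a2 → a ≠ t.1.1.a3 → sc P b y a = 1) :
    wf F h3 t.1.1 (y - b {c}) = 1 ∧ ∀ k, ineq F h3 t k (y - b {c}) ≤ 0 := by
  have hM : (0 : ℝ) < M := by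
    have := t.1.2.1.pos
    exact_mod_cast this
  have key : ∀ {x m : ℝ}, x ∈ Icc (m / M) ((m + 1) / M) → m ≤ M * x ∧ M * x ≤ m + 1 := by
    intro x m hx
    rw [mem_Icc, div_le_iff₀ hM, le_div_iff₀ hM] at hx
    exact ⟨by linarith [hx.1], by linarith [hx.2]⟩
  obtain ⟨k1, k2⟩ := key h2
  obtain ⟨k3, k4⟩ := key h3'
  by_cases hlt : t.1.2.1 < t.1.2.2
  · have h23 : sc P b y t.1.1.a2 ≤ sc P b y t.1.1.a3 := by
      refine h2.2.trans (le_trans ?_ h3'.1)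
      rw [div_le_div_iff_of_pos_right hM]
      have : (t.1.2.1 : ℕ) + 1 ≤ (t.1.2.2 : ℕ) := hlt
      exact_mod_cast this
    obtain ⟨c0, c1, hw⟩ := cf_of_sc F h3 t.1.1 hy h1 h23 ho
    refine ⟨hw, fun k => ?_⟩
    obtain ⟨e0, e1, e2, e3⟩ := ineq_off F h3 hlt (y - b {c})
    rw [hw, c0] at e0 e1
    rw [hw, c1] at e2 e3
    fin_cases k
    · refine (le_of_eq e0).trans ?_; linarith
    · refine (le_of_eq e1).trans ?_; linarith
    · refine (le_of_eq e2).trans ?_; linarith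
    · refine (le_of_eq e3).trans ?_; linarith
  · have hd := (diag_eq hlt).1
    rw [← hd] at k3 k4
    obtain ⟨l, m, hl, hm, hlm, hs⟩ := cf_sw F h3 hQ t.1.1
    rcases le_total (sc P b y t.1.1.a2) (sc P b y t.1.1.a3) with h23 | h23
    · obtain ⟨c0, c1, hw⟩ := cf_of_sc F h3 t.1.1 hy h1 h23 ho
      obtain ⟨s0, s1, s2⟩ := hs (y - b {c})
      have hc1 : 0 ≤ cf F h3 t.1.1 1 (y - b {c}) := by linarith
      refine ⟨hw, fun k => ?_⟩
      obtain ⟨e0, e1, e2, e3⟩ := ineq_diag F h3 hlt (y - b {c})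
      rw [wf_sw F h3 hQ] at e2 e3
      rw [hw] at e0 e1 e2 e3
      have q1 : 0 ≤ M * (l * cf F h3 t.1.1 1 (y - b {c})) := by positivity
      have q2 : M * ((l - m) * cf F h3 t.1.1 1 (y - b {c})) ≤ M * (1 * cf F h3 t.1.1 1 (y - b {c})) := by
        gcongr
      have q3 : M * (cf F h3 t.1.1 0 (y - b {c}) + cf F h3 t.1.1 1 (y - b {c})) ≤
          (t.1.2.1 : ℕ) + 1 := by rw [c1]; exact k4
      have q4 : ((t.1.2.1 : ℕ) : ℝ) ≤ M * cf F h3 t.1.1 0 (y - b {c}) := by rw [c0]; exact k1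
      fin_cases k
      · refine (le_of_eq e0).trans ?_; linarith
      · refine (le_of_eq e1).trans ?_; linarith
      · refine (le_of_eq e2).trans ?_; rw [s0]; linarith
      · refine (le_of_eq e3).trans ?_; rw [s0, s1]; linarith
    · obtain ⟨c0, c1, hw⟩ := cf_of_sc F h3 t.1.1.sw hy h1 h23 fun a a0 a1 a2 a3 => ho a a0 a1 a3 a2
      have x2 : t.1.1.sw.a2 = t.1.1.a3 := rfl
      have x3 : t.1.1.sw.a3 = t.1.1.a2 := rfl
      rw [x2] at c0
      rw [x3] at c1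
      obtain ⟨l', m', hl', hm', hlm', hs'⟩ := cf_sw F h3 hQ t.1.1.sw
      obtain ⟨s0, s1, s2⟩ := hs' (y - b {c})
      have hss : (t.1.1.sw).sw = t.1.1 := rfl
      rw [hss] at s0 s1 s2
      have hw' : wf F h3 t.1.1 (y - b {c}) = 1 := by rw [← wf_sw F h3 hQ]; exact hw
      have hc1 : 0 ≤ cf F h3 t.1.1.sw 1 (y - b {c}) := by linarith
      refine ⟨hw', fun k => ?_⟩
      obtain ⟨e0, e1, e2, e3⟩ := ineq_diag F h3 hlt (y - b {c})
      rw [hw'] at e0 e1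
      rw [hw] at e2 e3
      have q1 : 0 ≤ M * (l' * cf F h3 t.1.1.sw 1 (y - b {c})) := by positivity
      have q2 : M * ((l' - m') * cf F h3 t.1.1.sw 1 (y - b {c})) ≤
          M * (1 * cf F h3 t.1.1.sw 1 (y - b {c})) := by gcongr
      have q3 : M * (cf F h3 t.1.1.sw 0 (y - b {c}) + cf F h3 t.1.1.sw 1 (y - b {c})) ≤
          (t.1.2.1 : ℕ) + 1 := by rw [c1]; exact k2
      have q4 : ((t.1.2.1 : ℕ) : ℝ) ≤ M * cf F h3 t.1.1.sw 0 (y - b {c}) := by rw [c0]; exact k3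
      fin_cases k
      · refine (le_of_eq e0).trans ?_; rw [s0]; linarith
      · refine (le_of_eq e1).trans ?_; rw [s0, s1]; linarith
      · refine (le_of_eq e2).trans ?_; linarith
      · refine (le_of_eq e3).trans ?_; linarith

end main

end Crest.Agent.R096.Fbr_628
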