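import Crest.Agent.R096.Fbr2_628
import Crest.Agent.R096.Brk5_582

/-!
# Row 96, FAN (helper628), part 3: permutations of flags; the facets of a brick

`cf_sv`, `perm1`, `perm2`: flags through a point of the boundary with prescribed first labels.
`Fct c a l ε`: the cell `a` lies across the facet `(l, ε)` of the box `c`; `wf_of_fct`: the gauge
functional of a flag with `a1 = a` is `ε u l / hs c l`; `exists_fct`: every point of a facet is in a
cell across it.
-/

set_option autoImplicit false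
set_option linter.unusedSectionVars false

open Set

namespace Crest.Agent.R096.Fbr_628

open Crest.Agent.R096.Brk1_582 Crest.Agent.R096.Brk2_582 Crest.Agent.R096.Grd_714
  Crest.Agent.R096.Brk3_582 Crest.Agent.R096.Bsp_628

/-- the flag with the first two labels exchanged -/
def Flg.sv {E I : Type*} {P : I → Set E} {c : I} (f : Flg P c) : Flg P c where
  a1 := f.a2
  a2 := f.a1
  a3 := f.a3
  h1 := f.h2
  h2 := f.h1
  h3 := f.h3
  h12 := f.h12.symm
  h13 := f.h23
  h23 := f.h13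
  ne := by
    have e : ({c, f.a2, f.a1, f.a3} : Set I) = {c, f.a1, f.a2, f.a3} := by
      ext x; simp only [mem_insert_iff, mem_singleton_iff]; tauto
    rw [e]; exact f.ne

section perm

variable {E : Type*} [NormedAddCommGroup E] [NormedSpace ℝ E] [CompleteSpace E] {I : Type*}
variable {La : Set E} {P : I → Set E} {b : Set I → E} {N : ℕ} {c : I}

theorem dir_sv_one (f : Flg P c) : dir b f.sv 1 = dir b f 1 := by
  have e : ({c, f.a2, f.a1} : Set I) = {c, f.a1, f.a2} := by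
    ext x; simp only [mem_insert_iff, mem_singleton_iff]; tauto
  change b {c, f.a2, f.a1} - b {c} = _
  rw [e]; rfl

theorem dir_sv_two (f : Flg P c) : dir b f.sv 2 = dir b f 2 := by
  have e : ({c, f.a2, f.a1, f.a3} : Set I) = {c, f.a1, f.a2, f.a3} := by
    ext x; simp only [mem_insert_iff, mem_singleton_iff]; tauto
  change b {c, f.a2, f.a1, f.a3} - b {c} = _
  rw [e]; rfl

variable (F : Foam La P b N) (h3 : Module.finrank ℝ E = 3)
include F

theorem cf_sv (f : Flg P c) {u : E} (h0 : cf F h3 f 0 u = 0) :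
    cf F h3 f.sv 0 u = 0 ∧ cf F h3 f.sv 1 u = cf F h3 f 1 u ∧
      cf F h3 f.sv 2 u = cf F h3 f 2 u := by
  have hu : u = (0 : ℝ) • dir b f.sv 0 + cf F h3 f 1 u • dir b f.sv 1 +
      cf F h3 f 2 u • dir b f.sv 2 := by
    conv_lhs => rw [← cf_sum F h3 f u, h0, ← dir_sv_one f, ← dir_sv_two f]
    simp
  have := cf_comb F h3 f.sv 0 (cf F h3 f 1 u) (cf F h3 f 2 u)
  rw [← hu] at this
  exact this

theorem cf_sw0 (f : Flg P c) {u : E} (h1 : cf F h3 f 1 u = 0) :
    cf F h3 f.sw 0 u = cf F h3 f 0 u ∧ cf F h3 f.sw 1 u = 0 ∧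
      cf F h3 f.sw 2 u = cf F h3 f 2 u := by
  have hu : u = cf F h3 f 0 u • dir b f.sw 0 + (0 : ℝ) • dir b f.sw 1 +
      cf F h3 f 2 u • dir b f.sw 2 := by
    conv_lhs => rw [← cf_sum F h3 f u, h1, ← dir_sw_zero f, ← dir_sw_two f]
    simp
  have := cf_comb F h3 f.sw (cf F h3 f 0 u) 0 (cf F h3 f 2 u)
  rw [← hu] at this
  exact this

/-- `u` is in the cone of the flag, on the wall of the flag -/
def InC (f : Flg P c) (u : E) : Prop := (∀ k, 0 ≤ cf F h3 f k u) ∧ wf F h3 f u = 1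

theorem InC.spec {f : Flg P c} {u : E} (h : InC F h3 f u) : b {c} + u ∈ fc P {c, f.a1} ∧
      sc P b (b {c} + u) c = 0 ∧ sc P b (b {c} + u) f.a1 = 0 ∧
      sc P b (b {c} + u) f.a2 = cf F h3 f 0 u ∧
      sc P b (b {c} + u) f.a3 = cf F h3 f 0 u + cf F h3 f 1 u ∧
      ∀ a, a ≠ c → a ≠ f.a1 → a ≠ f.a2 → a ≠ f.a3 → sc P b (b {c} + u) a = 1 := by
  have := proj_mem F h3 f (h.1 0) (h.1 1) (h.1 2) (by rw [h.2]; exact one_pos)
  rw [h.2, inv_one, one_smul, div_one, div_one] at this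
  exact this

theorem InC.mem {f : Flg P c} {u : E} (h : InC F h3 f u) : b {c} + u ∈ P c :=
  mem_fc.1 (h.spec F h3).1 c (by simp)

theorem InC.sc_zero {f : Flg P c} {u : E} (h : InC F h3 f u) {a : I} (ha : b {c} + u ∈ P a) :
    sc P b (b {c} + u) a = 0 := (F.sc_eq_zero (F.sub c (h.mem F h3))).2 ha

/-- **a flag through the point with prescribed first label** -/
theorem perm1 {f : Flg P c} {u : E} (h : InC F h3 f u) {a : I} (hac : a ≠ c)
    (ha : b {c} + u ∈ P a) : ∃ g : Flg P c, g.a1 = a ∧ InC F h3 g u := by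
  obtain ⟨s0, s1, s2, s3, s4, s5⟩ := h.spec F h3
  have hz := h.sc_zero F h3 ha
  have hw := h.2
  rw [wf_apply] at hw
  by_cases e1 : a = f.a1
  · exact ⟨f, e1.symm, h⟩
  by_cases e2 : a = f.a2
  · rw [e2, s3] at hz
    obtain ⟨t0, t1, t2⟩ := cf_sv F h3 f hz
    refine ⟨f.sv, e2.symm, ?_, ?_⟩
    · intro k
      fin_cases k
      · exact t0.ge
      · exact (h.1 1).trans_eq t1.symm
      · exact (h.1 2).trans_eq t2.symm
    · rw [wf_apply, t0, t1, t2]; linarith
  by_cases e3 : a = f.a3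
  · rw [e3, s4] at hz
    have p0 := h.1 0
    have p1 := h.1 1
    have z0 : cf F h3 f 0 u = 0 := by linarith
    have z1 : cf F h3 f 1 u = 0 := by linarith
    obtain ⟨q0, q1, q2⟩ := cf_sw0 F h3 f z1
    rw [z0] at q0
    obtain ⟨t0, t1, t2⟩ := cf_sv F h3 f.sw q0
    refine ⟨f.sw.sv, e3.symm, ?_, ?_⟩
    · intro k
      fin_cases k
      · exact t0.ge
      · exact (q1.ge).trans_eq t1.symm
      · exact ((h.1 2).trans_eq q2.symm).trans_eq t2.symm
    · rw [wf_apply, t0, t1, t2, q1, q2]; linarith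
  · have := s5 a hac e1 e2 e3
    rw [this] at hz
    exact absurd hz one_ne_zero

/-- **a flag through the point with prescribed first two labels** -/
theorem perm2 {f : Flg P c} {u : E} (h : InC F h3 f u) {a a' : I} (hac : a ≠ c) (hac' : a' ≠ c)
    (haa : a ≠ a') (ha : b {c} + u ∈ P a) (ha' : b {c} + u ∈ P a') :
    ∃ g : Flg P c, g.a1 = a ∧ g.a2 = a' ∧ InC F h3 g u ∧ cf F h3 g 0 u = 0 := by
  obtain ⟨g, hg, hi⟩ := perm1 F h3 h hac ha
  obtain ⟨s0, s1, s2, s3, s4, s5⟩ := hi.spec F h3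
  have hz := hi.sc_zero F h3 ha'
  have hw := hi.2
  rw [wf_apply] at hw
  have p0 := hi.1 0
  have p1 := hi.1 1
  by_cases e2 : a' = g.a2
  · rw [e2, s3] at hz
    exact ⟨g, hg, e2.symm, hi, hz⟩
  by_cases e3 : a' = g.a3
  · rw [e3, s4] at hz
    have z0 : cf F h3 g 0 u = 0 := by linarith
    have z1 : cf F h3 g 1 u = 0 := by linarith
    obtain ⟨q0, q1, q2⟩ := cf_sw0 F h3 g z1
    refine ⟨g.sw, hg, e3.symm, ⟨?_, ?_⟩, by rw [q0, z0]⟩
    · intro k
      fin_cases k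
      · exact p0.trans_eq q0.symm
      · exact q1.ge
      · exact (hi.1 2).trans_eq q2.symm
    · rw [wf_apply, q0, q1, q2]; linarith
  · have := s5 a' hac' (by rw [hg]; exact haa.symm) e2 e3
    rw [this] at hz
    exact absurd hz one_ne_zero

end perm

/-! ### box foams -/

section box

variable {La : Set (Fin 3 → ℝ)} {F : Set (Bx (Fin 3))} {δ κ0 : ℝ} {N : ℕ} {c : F}

/-- half the side -/
noncomputable def hs (c : F) (l : Fin 3) : ℝ := (c.1.hi l - c.1.lo l) / 2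

theorem hs_pos (BF : BoxFoam La F δ κ0) (c : F) (l : Fin 3) : 0 < hs c l := by
  have := BF.pos _ c.2 l
  unfold hs
  linarith

theorem bc_single (c : F) (l : Fin 3) : bc ({c} : Set F) l = (c.1.lo l + c.1.hi l) / 2 := by
  unfold bc loA hiA
  simp

theorem mem_Pc {u : Fin 3 → ℝ} : bc ({c} : Set F) + u ∈ Pc F c ↔ ∀ l, |u l| ≤ hs c l := by
  change _ ∈ c.1.set ↔ _
  rw [Bx.mem_set]
  refine forall_congr' fun l => ?_
  rw [Pi.add_apply, bc_single, hs, abs_le]
  constructor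
  · rintro ⟨h1, h2⟩
    constructor <;> linarith
  · rintro ⟨h1, h2⟩
    constructor <;> linarith

/-- `a` is across the facet `(l, ε)` of `c` -/
def Fct (c a : F) (l : Fin 3) (ε : ℝ) : Prop :=
  (ε = 1 ∧ a.1.lo l = c.1.hi l) ∨ (ε = -1 ∧ a.1.hi l = c.1.lo l)

theorem Fct.eps {a : F} {l : Fin 3} {ε : ℝ} (h : Fct c a l ε) : ε = 1 ∨ ε = -1 := by
  rcases h with ⟨h, -⟩ | ⟨h, -⟩
  · exact Or.inl h
  · exact Or.inr h

theorem Fct.coord {a : F} {l : Fin 3} {ε : ℝ} (h : Fct c a l ε) {u : Fin 3 → ℝ}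
    (h1 : bc ({c} : Set F) + u ∈ Pc F c) (h2 : bc ({c} : Set F) + u ∈ Pc F a) :
    u l = ε * hs c l := by
  have h3 := (Bx.mem_set.1 h1) l
  have h4 := (Bx.mem_set.1 h2) l
  rw [Pi.add_apply, bc_single] at h3 h4
  unfold hs
  rcases h with ⟨rfl, h⟩ | ⟨rfl, h⟩
  · linarith
  · linarith

theorem exists_fct_of (BF : BoxFoam La F δ κ0) {a : F} (hac : a ≠ c) {y : Fin 3 → ℝ}
    (h1 : y ∈ Pc F c) (h2 : y ∈ Pc F a) : ∃ l ε, Fct c a l ε := by
  obtain ⟨k, h | h⟩ := opp_of_pair BF hac.symm h1 h2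
  · exact ⟨k, 1, Or.inl ⟨rfl, by rw [h.1, h.2]⟩⟩
  · exact ⟨k, -1, Or.inr ⟨rfl, by rw [h.1, h.2]⟩⟩

/-- **every point of a facet lies in a cell across it** -/
theorem exists_fct (BF : BoxFoam La F δ κ0) (hLa : IsOpen La) {u : Fin 3 → ℝ} {l : Fin 3} {ε : ℝ}
    (hε : ε = 1 ∨ ε = -1) (hu : ∀ j, |u j| ≤ hs c j) (hul : u l = ε * hs c l) :
    ∃ a : F, a ≠ c ∧ bc ({c} : Set F) + u ∈ Pc F a ∧ Fct c a l ε := by
  set y := bc ({c} : Set F) + u with hy
  have hyc : y ∈ Pc F c := mem_Pc.2 hu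
  have hyL : y ∈ La := BF.sub _ c.2 hyc
  have hlc := hs_pos BF c l
  obtain ⟨a, ha, t, ht, hat⟩ := cover_dir BF hLa hyL (fun j => if j = l then ε else -u j)
  have hcoord : ∀ j, y j = (c.1.lo j + c.1.hi j) / 2 + u j := fun j => by
    rw [hy, Pi.add_apply, bc_single]
  have hac : a ≠ c := by
    rintro rfl
    have h1 := (Bx.mem_set.1 hat l)
    simp only [Pi.add_apply, Pi.smul_apply, if_true, smul_eq_mul] at h1
    rw [hcoord, hul] at h1
    unfold hs at h1
    rcases hε with rfl | rfl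
    · linarith [h1.2]
    · linarith [h1.1]
  refine ⟨a, hac, ha, ?_⟩
  obtain ⟨j, hj⟩ := opp_of_pair BF hac.symm hyc ha
  have hjp := hs_pos BF c j
  have h4 := Bx.mem_set.1 hat j
  simp only [Pi.add_apply, Pi.smul_apply, smul_eq_mul] at h4
  have hyj := hcoord j
  unfold hs at hjp hul
  rcases hj with ⟨h1, h2⟩ | ⟨h1, h2⟩
  · by_cases hjl : j = l
    · subst hjl
      rcases hε with rfl | rfl
      · exact Or.inl ⟨rfl, by rw [h1, h2]⟩
      · exfalso
        linarith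
    · exfalso
      rw [if_neg hjl] at h4
      have : 0 < u j := by linarith
      nlinarith [h4.1]
  · by_cases hjl : j = l
    · subst hjl
      rcases hε with rfl | rfl
      · exfalso
        linarith
      · exact Or.inr ⟨rfl, by rw [h1, h2]⟩
    · exfalso
      rw [if_neg hjl] at h4
      have : u j < 0 := by linarith
      nlinarith [h4.2]

variable (FF : Foam La (Pc F) (bc (F := F)) N) (h3 : Module.finrank ℝ (Fin 3 → ℝ) = 3)

theorem dir_mem (FF : Foam La (Pc F) (bc (F := F)) N) (f : Flg (Pc F) c) (j : Fin 3) :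
    bc ({c} : Set F) + dir (bc (F := F)) f j ∈ fc (Pc F) {c, f.a1} := by
  have hm : ∀ A : Set F, ({c, f.a1} : Set F) ⊆ A → A ⊆ {c, f.a1, f.a2, f.a3} →
      bc A ∈ fc (Pc F) {c, f.a1} := fun A hA hA' =>
    fc_anti hA (FF.mem A ⟨c, hA (by simp)⟩ (f.ne.mono (fc_anti hA')))
  fin_cases j
  · have : bc ({c} : Set F) + dir (bc (F := F)) f 0 = bc {c, f.a1} := by
      show bc ({c} : Set F) + (bc {c, f.a1} - bc ({c} : Set F)) = _
      abel
    refine this ▸ hm _ subset_rfl ?_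
    intro x; simp only [mem_insert_iff, mem_singleton_iff]; tauto
  · have : bc ({c} : Set F) + dir (bc (F := F)) f 1 = bc {c, f.a1, f.a2} := by
      show bc ({c} : Set F) + (bc {c, f.a1, f.a2} - bc ({c} : Set F)) = _
      abel
    refine this ▸ hm _ ?_ ?_
    · intro x; simp only [mem_insert_iff, mem_singleton_iff]; tauto
    · intro x; simp only [mem_insert_iff, mem_singleton_iff]; tauto
  · have : bc ({c} : Set F) + dir (bc (F := F)) f 2 = bc {c, f.a1, f.a2, f.a3} := by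
      show bc ({c} : Set F) + (bc {c, f.a1, f.a2, f.a3} - bc ({c} : Set F)) = _
      abel
    refine this ▸ hm _ ?_ subset_rfl
    intro x; simp only [mem_insert_iff, mem_singleton_iff]; tauto

/-- the directions of a flag are on the facet -/
theorem dir_coord (FF : Foam La (Pc F) (bc (F := F)) N) {f : Flg (Pc F) c} {l : Fin 3} {ε : ℝ}
    (h : Fct c f.a1 l ε) (j : Fin 3) : dir (bc (F := F)) f j l = ε * hs c l := by
  have hm := dir_mem FF f j
  exact h.coord (mem_fc.1 hm c (by simp)) (mem_fc.1 hm f.a1 (by simp))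

/-- **the gauge functional of a flag** -/
theorem wf_of_fct {f : Flg (Pc F) c} {l : Fin 3} {ε : ℝ} (h : Fct c f.a1 l ε) (u : Fin 3 → ℝ) :
    hs c l * wf FF h3 f u = ε * u l := by
  have h1 := congrFun (cf_sum FF h3 f u) l
  simp only [Pi.add_apply, Pi.smul_apply, smul_eq_mul, dir_coord FF h] at h1
  have he : ε * ε = 1 := by rcases h.eps with rfl | rfl <;> norm_num
  rw [wf_apply, ← h1]
  linear_combination (-(cf FF h3 f 0 u + cf FF h3 f 1 u + cf FF h3 f 2 u) * hs c l) * he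

include FF in
/-- the facet is unique -/
theorem fct_unique (BF : BoxFoam La F δ κ0) {f f' : Flg (Pc F) c} (hff : f.a1 = f'.a1)
    {l l' : Fin 3} {ε ε' : ℝ} (h : Fct c f.a1 l ε) (h' : Fct c f'.a1 l' ε') : l = l' ∧ ε = ε' := by
  have h3 : Module.finrank ℝ (Fin 3 → ℝ) = 3 := by simp
  have p1 := hs_pos BF c l
  have p2 := hs_pos BF c l'
  rw [← hff] at h'
  have e1 := wf_of_fct FF h3 h (Pi.single l 1)
  have e2 := wf_of_fct FF h3 h' (Pi.single l 1)
  rw [Pi.single_eq_same, mul_one] at e1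
  have hne : wf FF h3 f (Pi.single l 1) ≠ 0 := by
    intro h0
    rw [h0, mul_zero] at e1
    rcases h.eps with h5 | h5 <;> rw [h5] at e1 <;> norm_num at e1
  by_cases hl : l = l'
  · subst hl
    rw [Pi.single_eq_same, mul_one] at e2
    exact ⟨rfl, by rw [← e1, ← e2]⟩
  · rw [Pi.single_eq_of_ne (Ne.symm hl), mul_zero] at e2
    rcases mul_eq_zero.1 e2 with h5 | h5
    · exact absurd h5 p2.ne'
    · exact absurd h5 hne

/-- a point on the boundary of the box is in the cone of a flag -/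
theorem exists_inC (hN : N ≤ 4) (BF : BoxFoam La F δ κ0) {u : Fin 3 → ℝ} (hu : ∀ j, |u j| ≤ hs c j)
    {l : Fin 3} {ε : ℝ} (hε : ε = 1 ∨ ε = -1) (hul : u l = ε * hs c l) (hLa : IsOpen La) :
    ∃ f : Flg (Pc F) c, InC FF h3 f u := by
  have hyc : bc ({c} : Set F) + u ∈ Pc F c := mem_Pc.2 hu
  obtain ⟨f, hf⟩ := exists_flag FF h3 hN c ⟨_, hyc⟩ u
  refine ⟨f, hf, ?_⟩
  have hle : wf FF h3 f u ≤ 1 := by
    have := wf_le_one FF h3 f hyc
    rwa [add_sub_cancel_left] at this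
  have hl := hs_pos BF c l
  have h0 : 0 ≤ wf FF h3 f u := by
    rw [wf_apply]
    have a0 := hf 0
    have a1 := hf 1
    have a2 := hf 2
    linarith
  have hun : u ≠ 0 := by
    rintro rfl
    rw [Pi.zero_apply] at hul
    rcases hε with rfl | rfl <;> linarith
  have hpos : 0 < wf FF h3 f u := by
    refine lt_of_le_of_ne h0 fun h => hun ?_
    have hsum := wf_apply FF h3 f u
    rw [← h] at hsum
    have a0 := hf 0
    have a1 := hf 1
    have a2 := hf 2
    have z0 : cf FF h3 f 0 u = 0 := by linarith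
    have z1 : cf FF h3 f 1 u = 0 := by linarith
    have z2 : cf FF h3 f 2 u = 0 := by linarith
    rw [← cf_sum FF h3 f u, z0, z1, z2]
    simp
  have hm := (proj_mem FF h3 f (hf 0) (hf 1) (hf 2) hpos).1
  have h5 := (mem_Pc.1 (mem_fc.1 hm c (by simp))) l
  rw [Pi.smul_apply, hul, smul_eq_mul, abs_mul, abs_mul, abs_of_pos (inv_pos.2 hpos),
    abs_of_pos hl] at h5
  have he : |ε| = 1 := by rcases hε with rfl | rfl <;> simp
  rw [he, one_mul] at h5
  have h6 : (wf FF h3 f u)⁻¹ ≤ 1 := by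
    by_contra hcon
    push Not at hcon
    nlinarith
  have h7 : 1 ≤ wf FF h3 f u := (inv_le_one₀ hpos).1 h6
  linarith

/-- **a flag on a given facet** -/
theorem exists_fct_flag (hN : N ≤ 4) (BF : BoxFoam La F δ κ0) (hLa : IsOpen La) {u : Fin 3 → ℝ}
    (hu : ∀ j, |u j| ≤ hs c j) {l : Fin 3} {ε : ℝ} (hε : ε = 1 ∨ ε = -1)
    (hul : u l = ε * hs c l) : ∃ f : Flg (Pc F) c, InC FF h3 f u ∧ Fct c f.a1 l ε := by
  obtain ⟨f, hf⟩ := exists_inC FF h3 hN BF hu hε hul hLa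
  obtain ⟨a, hac, ha, hfa⟩ := exists_fct BF hLa hε hu hul
  obtain ⟨g, hg, hi⟩ := perm1 FF h3 hf hac ha
  exact ⟨g, hi, by rw [hg]; exact hfa⟩

/-- **a flag on a given edge of the box** -/
theorem exists_fct_flag2 (hN : N ≤ 4) (BF : BoxFoam La F δ κ0) (hLa : IsOpen La) {u : Fin 3 → ℝ}
    (hu : ∀ j, |u j| ≤ hs c j) {l l' : Fin 3} (hll : l ≠ l') {ε ε' : ℝ} (hε : ε = 1 ∨ ε = -1)
    (hε' : ε' = 1 ∨ ε' = -1) (hul : u l = ε * hs c l) (hul' : u l' = ε' * hs c l') :
    ∃ f : Flg (Pc F) c, InC FF h3 f u ∧ Fct c f.a1 l ε ∧ Fct c f.a2 l' ε' ∧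
      cf FF h3 f 0 u = 0 := by
  obtain ⟨a', hac', ha', hfa'⟩ := exists_fct BF hLa hε' hu hul'
  obtain ⟨f, hf, hfl⟩ := exists_fct_flag FF h3 hN BF hLa hu hε hul
  have hne : f.a1 ≠ a' := by
    intro h
    rw [← h] at hfa'
    exact hll (fct_unique FF BF rfl hfl hfa').1
  have hm := (hf.spec FF h3).1
  obtain ⟨g, h1, h2, h4, h5⟩ := perm2 FF h3 hf f.h1 hac' hne (mem_fc.1 hm f.a1 (by simp)) ha'
  exact ⟨g, h4, by rw [h1]; exact hfl, by rw [h2]; exact hfa', h5⟩

/-- every flag lies on a facet -/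
theorem exists_fct_of_flag (BF : BoxFoam La F δ κ0) (f : Flg (Pc F) c) : ∃ l ε, Fct c f.a1 l ε := by
  obtain ⟨y, hy⟩ := f.ne1
  exact exists_fct_of BF f.h1 (mem_fc.1 hy c (by simp)) (mem_fc.1 hy f.a1 (by simp))

end box

end Crest.Agent.R096.Fbr_628
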