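import Crest.Agent.R096.Fbr5_628

/-!
# Row 96, FAN (helper628), part 6: the closed cells of the boundary of the brick in the prism shell

`Mal_874.PS.CC`, `PS.VV`: smallest face and its direction space, in scaled coordinates.
`exists_ext`: a face of a box foam has two different extensions; `tight_core`: tight inequalities.
-/

set_option autoImplicit false
set_option linter.unusedSectionVars false

open Set

namespace Crest.Agent.R096.Mal_874

open Cut_874

variable {n : ℕ}

namespace PS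

/-- the smallest face containing `X`, in scaled coordinates -/
def CC (S : PS n) (X : Fin n → ℝ) : Set (Fin n → ℝ) :=
  {Y | ∀ i : S.Ix, X ∈ ZP (S.GG i) → ∀ p ∈ S.GG i,
    dt (rv p.1) Y ≤ p.2 ∧ (dt (rv p.1) X = p.2 → dt (rv p.1) Y = p.2)}

theorem dt_add' (ν : Fin n → ℝ) (u v : Fin n → ℝ) : dt ν (u + v) = dt ν u + dt ν v := by
  unfold dt
  rw [← Finset.sum_add_distrib]
  exact Finset.sum_congr rfl fun m _ => by rw [Pi.add_apply]; ring

theorem dt_smul' (ν : Fin n → ℝ) (c : ℝ) (u : Fin n → ℝ) : dt ν (c • u) = c * dt ν u := by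
  unfold dt
  rw [Finset.mul_sum]
  exact Finset.sum_congr rfl fun m _ => by rw [Pi.smul_apply, smul_eq_mul]; ring

/-- the direction space of the smallest face -/
def VV (S : PS n) (X : Fin n → ℝ) : Submodule ℝ (Fin n → ℝ) where
  carrier := {v | ∀ i : S.Ix, X ∈ ZP (S.GG i) → ∀ p ∈ S.GG i,
    dt (rv p.1) X = p.2 → dt (rv p.1) v = 0}
  zero_mem' := by
    intro i _ p _ _
    unfold dt
    simp
  add_mem' := by
    intro u v hu hv i hi p hp h
    rw [dt_add', hu i hi p hp h, hv i hi p hp h, add_zero]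
  smul_mem' := by
    intro c u hu i hi p hp h
    rw [dt_smul', hu i hi p hp h, mul_zero]

variable (S : PS n)

theorem mem_CC {X Y : Fin n → ℝ} : Y ∈ S.CC X ↔ ∀ i : S.Ix, X ∈ ZP (S.GG i) → ∀ p ∈ S.GG i,
    dt (rv p.1) Y ≤ p.2 ∧ (dt (rv p.1) X = p.2 → dt (rv p.1) Y = p.2) := Iff.rfl

theorem mem_VV {X v : Fin n → ℝ} : v ∈ S.VV X ↔ ∀ i : S.Ix, X ∈ ZP (S.GG i) → ∀ p ∈ S.GG i,
    dt (rv p.1) X = p.2 → dt (rv p.1) v = 0 := Iff.rfl

theorem dt_sub' (ν : Fin n → ℝ) (u v : Fin n → ℝ) : dt ν (u - v) = dt ν u - dt ν v := by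
  unfold dt
  rw [← Finset.sum_sub_distrib]
  exact Finset.sum_congr rfl fun m _ => by rw [Pi.sub_apply]; ring

theorem sub_mem_VV {X Y : Fin n → ℝ} (h : Y ∈ S.CC X) : Y - X ∈ S.VV X := by
  intro i hi p hp hpX
  rw [dt_sub', (h i hi p hp).2 hpX, hpX, sub_self]

/-- small moves along the direction space stay in the face -/
theorem exists_move {X v : Fin n → ℝ} (hv : v ∈ S.VV X) :
    ∃ ε : ℝ, 0 < ε ∧ X + ε • v ∈ S.CC X := by
  classical
  have := Fintype.ofFinite S.Ix
  let A : Finset ((Fin n → ℤ) × ℤ) :=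
    (Finset.univ.filter fun i : S.Ix => X ∈ ZP (S.GG i)).biUnion fun i => S.GG i
  have hA : ∀ p ∈ A, dt (rv p.1) X ≤ p.2 := by
    intro p hp
    obtain ⟨i, hi, hp'⟩ := Finset.mem_biUnion.1 hp
    exact (Finset.mem_filter.1 hi).2 p hp'
  have hAv : ∀ p ∈ A, dt (rv p.1) X = p.2 → dt (rv p.1) v = 0 := by
    intro p hp h
    obtain ⟨i, hi, hp'⟩ := Finset.mem_biUnion.1 hp
    exact hv i (Finset.mem_filter.1 hi).2 p hp' h
  have key : ∀ B : Finset ((Fin n → ℤ) × ℤ), B ⊆ A → ∃ ε : ℝ, 0 < ε ∧ ∀ δ : ℝ, 0 ≤ δ → δ ≤ ε →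
      ∀ p ∈ B, dt (rv p.1) X + δ * dt (rv p.1) v ≤ p.2 := by
    intro B
    induction B using Finset.induction_on with
    | empty => exact fun _ => ⟨1, one_pos, fun _ _ _ p hp => absurd hp (Finset.notMem_empty _)⟩
    | insert p B hpB ih =>
      intro hB
      obtain ⟨ε, hε, h⟩ := ih fun q hq => hB (Finset.mem_insert_of_mem hq)
      have hpA := hB (Finset.mem_insert_self p B)
      rcases (hA p hpA).eq_or_lt with h1 | h1
      · refine ⟨ε, hε, fun δ h0 h2 q hq => ?_⟩
        rcases Finset.mem_insert.1 hq with rfl | hq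
        · rw [hAv _ hpA h1, mul_zero, add_zero, h1]
        · exact h δ h0 h2 q hq
      · set g := (p.2 : ℝ) - dt (rv p.1) X with hg
        have hg0 : 0 < g := by linarith
        refine ⟨min ε (g / (|dt (rv p.1) v| + 1)), lt_min hε (by positivity),
          fun δ h0 h2 q hq => ?_⟩
        rcases Finset.mem_insert.1 hq with rfl | hq
        · have h3 := h2.trans (min_le_right _ _)
          rw [le_div_iff₀ (by positivity)] at h3
          have h4 := le_abs_self (dt (rv q.1) v)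
          have h5 : δ * dt (rv q.1) v ≤ δ * |dt (rv q.1) v| := mul_le_mul_of_nonneg_left h4 h0
          linarith
        · exact h δ h0 (h2.trans (min_le_left _ _)) q hq
  obtain ⟨ε, hε, h⟩ := key A subset_rfl
  refine ⟨ε, hε, fun i hi p hp => ?_⟩
  have hpA : p ∈ A := Finset.mem_biUnion.2 ⟨i, Finset.mem_filter.2 ⟨Finset.mem_univ _, hi⟩, hp⟩
  rw [dt_add', dt_smul']
  exact ⟨h ε hε.le le_rfl p hpA, fun h1 => by rw [hv i hi p hp h1, mul_zero, add_zero, h1]⟩

end PS

end Crest.Agent.R096.Mal_874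

namespace Crest.Agent.R096.Fbr_628

open Crest.Agent.R096.Brk1_582 Crest.Agent.R096.Brk2_582 Crest.Agent.R096.Grd_714
  Crest.Agent.R096.Brk3_582 Crest.Agent.R096.Brk5_582 Crest.Agent.R096.Bsp_628
  Crest.Agent.R096.Mal_874 Crest.Agent.R096.Cut_874

/-! ### two extensions of a face -/

/-- **a face which is not a vertex has an extension which avoids a given label** -/
theorem exists_ext {La : Set (Fin 3 → ℝ)} {F : Set (Bx (Fin 3))} {δ κ0 : ℝ} {N : ℕ}
    (FF : Foam La (Pc F) (bc (F := F)) N) (BF : BoxFoam La F δ κ0) (hLa : IsOpen La) {A : Set F}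
    (hA : A.Finite) (hne : A.Nonempty) (hfc : (fc (Pc F) A).Nonempty) (h3 : A.ncard ≤ 3) (a : F) :
    ∃ p : F, p ∉ A ∧ p ≠ a ∧ (fc (Pc F) (insert p A)).Nonempty := by
  have hcount := deg_count BF hA hne hfc
  obtain ⟨k, hk⟩ : ∃ k, loA A k ≠ hiA A k := by
    by_contra hcon
    push Not at hcon
    have : {k | loA A k = hiA A k} = univ := by
      ext k; simp [hcon k]
    rw [this, ncard_univ, Nat.card_eq_fintype_card, Fintype.card_fin] at hcount
    omega
  have hb := FF.mem A hne hfc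
  have hbm := (mem_fc_iff hA hne).1 hb
  have hle : ∀ j, loA A j ≤ hiA A j := fun j => (hbm j).1.trans (hbm j).2
  have hin : ∀ v : ℝ, loA A k ≤ v → v ≤ hiA A k →
      Function.update (bc (F := F) A) k v ∈ fc (Pc F) A := by
    intro v h1 h2
    rw [mem_fc_iff hA hne]
    intro j
    by_cases hj : j = k
    · subst hj; rw [Function.update_self]; exact ⟨h1, h2⟩
    · rw [Function.update_of_ne hj]; exact hbm j
  have hup := hin _ (hle k) le_rfl
  have hdn := hin _ le_rfl (hle k)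
  have hLaf : ∀ {y}, y ∈ fc (Pc F) A → y ∈ La := fun {y} hy => by
    obtain ⟨c, hc⟩ := hne
    exact BF.sub _ c.2 (mem_fc.1 hy c hc)
  have hne' : ∀ {y}, y ∈ fc (Pc F) A → (act (Pc F) y).Nonempty := fun {y} hy => by
    obtain ⟨c, hc⟩ := hne
    exact ⟨c, mem_fc.1 hy c hc⟩
  -- a new label at the upper end
  obtain ⟨p, hp, hpA⟩ : ∃ p ∈ act (Pc F) (Function.update (bc (F := F) A) k (hiA A k)), p ∉ A := by
    by_contra hcon
    push Not at hcon
    have e : act (Pc F) (Function.update (bc (F := F) A) k (hiA A k)) = A :=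
      Set.Subset.antisymm hcon (mem_fc'.1 hup)
    have := lt_hiA BF hLa (hLaf hup) (k := k) (by rw [e]; exact hk) (finite_act' BF (hLaf hup))
      (hne' hup)
    rw [e, Function.update_self] at this
    exact lt_irrefl _ this
  obtain ⟨q, hq, hqA⟩ : ∃ p ∈ act (Pc F) (Function.update (bc (F := F) A) k (loA A k)), p ∉ A := by
    by_contra hcon
    push Not at hcon
    have e : act (Pc F) (Function.update (bc (F := F) A) k (loA A k)) = A :=
      Set.Subset.antisymm hcon (mem_fc'.1 hdn)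
    have := loA_lt BF hLa (hLaf hdn) (k := k) (by rw [e]; exact hk) (finite_act' BF (hLaf hdn))
      (hne' hdn)
    rw [e, Function.update_self] at this
    exact lt_irrefl _ this
  have hmem : ∀ {y p}, y ∈ fc (Pc F) A → p ∈ act (Pc F) y → (fc (Pc F) (insert p A)).Nonempty := by
    intro y p hy hp
    refine ⟨y, mem_fc.2 fun x hx => ?_⟩
    rcases mem_insert_iff.1 hx with rfl | hx
    · exact hp
    · exact mem_fc.1 hy x hx
  by_cases hpa : p = a
  · by_cases hqa : q = a
    · exfalso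
      subst hpa
      subst hqa
      have hcv : Convex ℝ (Pc F q) := FF.cvx q
      have h1 : Function.update (bc (F := F) A) k (hiA A k) ∈ Pc F q := hp
      have h2 : Function.update (bc (F := F) A) k (loA A k) ∈ Pc F q := hq
      have h4 := hcv h1 h2 (by norm_num : (0 : ℝ) ≤ 1 / 2) (by norm_num : (0 : ℝ) ≤ 1 / 2)
        (by norm_num)
      have e : (1 / 2 : ℝ) • Function.update (bc (F := F) A) k (hiA A k) +
          (1 / 2 : ℝ) • Function.update (bc (F := F) A) k (loA A k) = bc A := by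
        funext j
        by_cases hj : j = k
        · subst hj
          simp only [Pi.add_apply, Pi.smul_apply, Function.update_self, smul_eq_mul]
          unfold bc; ring
        · simp only [Pi.add_apply, Pi.smul_apply, Function.update_of_ne hj, smul_eq_mul]
          ring
      rw [e] at h4
      have h5 := FF.act_b hne hfc
      exact hqA (h5 ▸ h4)
    · exact ⟨q, hqA, hqa, hmem hdn hq⟩
  · exact ⟨p, hpA, hpa, hmem hup hp⟩

/-! ### tight inequalities -/

section tight

variable {E : Type*} [NormedAddCommGroup E] [NormedSpace ℝ E] [CompleteSpace E] {I : Type*}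
variable {La : Set E} {P : I → Set E} {b : Set I → E} {N : ℕ} {c : I} {M : ℕ}
variable (F : Foam La P b N) (h3 : Module.finrank ℝ E = 3)

theorem tight_core (hQ : Quads P b) (f : Flg P c) (hM : 0 < M) {u u' : E}
    (hu : InC F h3 f u ∨ InC F h3 f.sw u) (hu' : InC F h3 f u' ∨ InC F h3 f.sw u') {j : ℕ}
    (b2 : (j : ℝ) ≤ M * sc P b (b {c} + u) f.a2 ∧ M * sc P b (b {c} + u) f.a2 ≤ j + 1)
    (b3 : (j : ℝ) ≤ M * sc P b (b {c} + u) f.a3 ∧ M * sc P b (b {c} + u) f.a3 ≤ j + 1)
    (b2' : (j : ℝ) ≤ M * sc P b (b {c} + u') f.a2 ∧ M * sc P b (b {c} + u') f.a2 ≤ j + 1)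
    (b3' : (j : ℝ) ≤ M * sc P b (b {c} + u') f.a3 ∧ M * sc P b (b {c} + u') f.a3 ≤ j + 1)
    (H : ∀ a (n : ℕ), M * sc P b (b {c} + u) a = n → M * sc P b (b {c} + u') a = n) :
    (M * cf F h3 f 0 u = j → M * cf F h3 f 0 u' = j) ∧
      (M * (cf F h3 f 0 u + cf F h3 f 1 u) = j + 1 →
        M * (cf F h3 f 0 u' + cf F h3 f 1 u') = j + 1) := by
  have hM' : (0 : ℝ) < M := by exact_mod_cast hM
  obtain ⟨l, m, hl, hm, hlm, hs⟩ := cf_sw F h3 hQ f
  -- values of the coordinates
  have key : ∀ z : E, (InC F h3 f z ∨ InC F h3 f.sw z) →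
      (0 ≤ cf F h3 f 1 z ∧ sc P b (b {c} + z) f.a2 = cf F h3 f 0 z ∧
        sc P b (b {c} + z) f.a3 = cf F h3 f 0 z + cf F h3 f 1 z) ∨
      (cf F h3 f 1 z ≤ 0 ∧ sc P b (b {c} + z) f.a3 = cf F h3 f 0 z + l * cf F h3 f 1 z ∧
        sc P b (b {c} + z) f.a2 = cf F h3 f 0 z + (l - m) * cf F h3 f 1 z) := by
    intro z hz
    rcases hz with hz | hz
    · obtain ⟨-, -, -, s2, s3, -⟩ := hz.spec F h3
      exact Or.inl ⟨hz.1 1, s2, s3⟩
    · obtain ⟨-, -, -, s2, s3, -⟩ := hz.spec F h3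
      obtain ⟨t0, t1, t2⟩ := hs z
      have e2 : f.sw.a2 = f.a3 := rfl
      have e3 : f.sw.a3 = f.a2 := rfl
      rw [e2, t0] at s2
      rw [e3, t0, t1] at s3
      have h1 := hz.1 1
      rw [t1] at h1
      refine Or.inr ⟨?_, s2, by rw [s3]; ring⟩
      by_contra hcon
      push Not at hcon
      nlinarith
  have H2 := H f.a2
  have H3 := H f.a3
  have K1 := key u hu
  have K2 := key u' hu'
  clear key
  set A := cf F h3 f 0 u
  set C := cf F h3 f 1 u
  set A' := cf F h3 f 0 u'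
  set C' := cf F h3 f 1 u'
  set s2 := sc P b (b {c} + u) f.a2
  set s3 := sc P b (b {c} + u) f.a3
  set s2' := sc P b (b {c} + u') f.a2
  set s3' := sc P b (b {c} + u') f.a3
  constructor
  · intro hA
    rcases K1 with ⟨hC, e2, e3⟩ | ⟨hC, e3, e2⟩
    · have h1 := H2 j (by rw [e2]; exact hA)
      rcases K2 with ⟨hC', e2', e3'⟩ | ⟨hC', e3', e2'⟩
      · rw [← e2']; exact h1
      · have h5 : M * (m * C') = M * s3' - M * s2' := by rw [e2', e3']; ring
        have h6 : 0 ≤ M * (m * C') := by rw [h5, h1]; linarith [b3'.1]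
        have h7 : 0 ≤ m * C' := nonneg_of_mul_nonneg_right h6 hM'
        have h8 : 0 ≤ C' := nonneg_of_mul_nonneg_right h7 hm
        have h9 : C' = 0 := le_antisymm hC' h8
        rw [h9, mul_zero, add_zero] at e2'
        rw [← e2']; exact h1
    · have h5 : (j : ℝ) ≤ j + M * (l * C) := by
        have := b3.1
        rw [e3] at this
        linarith
      have h6 : 0 ≤ M * (l * C) := by linarith
      have h7 : 0 ≤ l * C := nonneg_of_mul_nonneg_right h6 hM'
      have h8 : l * C = 0 := le_antisymm (mul_nonpos_of_nonneg_of_nonpos hl hC) h7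
      have h9 : M * s3 = j := by rw [e3, h8, add_zero]; exact hA
      have h1 := H3 j h9
      rcases K2 with ⟨hC', e2', e3'⟩ | ⟨hC', e3', e2'⟩
      · have h10 : M * C' = M * s3' - M * s2' := by rw [e2', e3']; ring
        have h11 : M * C' ≤ 0 := by rw [h10, h1]; linarith [b2'.1]
        have h12 : C' ≤ 0 := nonpos_of_mul_nonpos_right h11 hM'
        have h13 : C' = 0 := le_antisymm h12 hC'
        rw [h13, add_zero] at e3'
        rw [← e3']; exact h1
      · rcases mul_eq_zero.1 h8 with h10 | h10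
        · rw [h10, zero_mul, add_zero] at e3'
          rw [← e3']; exact h1
        · -- C = 0
          have h11 : M * s2 = j := by rw [e2, h10, mul_zero, add_zero]; exact hA
          have h12 := H2 j h11
          have h13 : M * (m * C') = M * s3' - M * s2' := by rw [e2', e3']; ring
          have h14 : M * (m * C') = 0 := by rw [h13, h1, h12, sub_self]
          have h15 : m * C' = 0 := (mul_eq_zero.1 h14).resolve_left hM'.ne'
          have h16 : C' = 0 := (mul_eq_zero.1 h15).resolve_left hm.ne'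
          rw [h16, mul_zero, add_zero] at e3'
          rw [← e3']; exact h1
  · intro hA
    have hA' : M * (A + C) = ((j + 1 : ℕ) : ℝ) := by push_cast; exact hA
    rcases K1 with ⟨hC, e2, e3⟩ | ⟨hC, e3, e2⟩
    · have h1 := H3 (j + 1) (by rw [e3]; exact hA')
      push_cast at h1
      rcases K2 with ⟨hC', e2', e3'⟩ | ⟨hC', e3', e2'⟩
      · rw [← e3']; exact h1
      · have h5 : M * (m * C') = M * s3' - M * s2' := by rw [e2', e3']; ring
        have h6 : 0 ≤ M * (m * C') := by rw [h5, h1]; linarith [b2'.2]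
        have h7 : 0 ≤ m * C' := nonneg_of_mul_nonneg_right h6 hM'
        have h8 : 0 ≤ C' := nonneg_of_mul_nonneg_right h7 hm
        have h9 : C' = 0 := le_antisymm hC' h8
        rw [h9, mul_zero, add_zero] at e3'
        rw [h9, add_zero, ← e3']; exact h1
    · have h5 : M * (A + (l - m) * C) ≤ M * (A + C) := by
        have := b2.2
        rw [e2] at this
        linarith
      have h6 : A + (l - m) * C ≤ A + C := le_of_mul_le_mul_left h5 hM'
      have h7 : C = 0 := by
        by_contra hne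
        have hlt : C < 0 := lt_of_le_of_ne hC hne
        nlinarith
      rw [h7, mul_zero, add_zero] at e2 e3
      have h8 := H3 (j + 1) (by rw [e3]; rw [h7, add_zero] at hA'; exact hA')
      have h9 := H2 (j + 1) (by rw [e2]; rw [h7, add_zero] at hA'; exact hA')
      push_cast at h8 h9
      rcases K2 with ⟨hC', e2', e3'⟩ | ⟨hC', e3', e2'⟩
      · rw [← e3']; exact h8
      · have h10 : M * (m * C') = M * s3' - M * s2' := by rw [e2', e3']; ring
        have h14 : M * (m * C') = 0 := by rw [h10, h8, h9, sub_self]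
        have h15 : m * C' = 0 := (mul_eq_zero.1 h14).resolve_left hM'.ne'
        have h16 : C' = 0 := (mul_eq_zero.1 h15).resolve_left hm.ne'
        rw [h16, mul_zero, add_zero] at e3'
        rw [h16, add_zero, ← e3']; exact h8

/-- **tight inequalities of a cell stay tight** -/
theorem tight_ineq (hQ : Quads P b) (t : Tc P c M) {u u' : E} (hw : wf F h3 t.1.1 u = 1)
    (hw' : wf F h3 t.1.1 u' = 1) (hi : ∀ k, ineq F h3 t k u ≤ 0) (hi' : ∀ k, ineq F h3 t k u' ≤ 0)
    (H : ∀ a (n : ℕ), M * sc P b (b {c} + u) a = n → M * sc P b (b {c} + u') a = n) (k : Fin 4)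
    (hk : ineq F h3 t k u = 0) : ineq F h3 t k u' = 0 := by
  have hM : 0 < M := t.1.2.1.pos
  have hM' : (0 : ℝ) < M := by exact_mod_cast hM
  have inc : ∀ z, wf F h3 t.1.1 z = 1 → (∀ k, ineq F h3 t k z ≤ 0) →
      (InC F h3 t.1.1 z ∨ InC F h3 t.1.1.sw z ∧ t.1.2.1 = t.1.2.2) := by
    intro z hz1 hz2
    obtain ⟨g, hg, hwg, g0, g1, g2, -⟩ := cone_cases F h3 hQ hz2
    have hI : InC F h3 g z := by
      refine ⟨?_, by rw [← hwg]; exact hz1⟩
      intro k
      fin_cases k
      · exact g0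
      · exact g1
      · exact g2
    rcases hg with rfl | ⟨rfl, h⟩
    · exact Or.inl hI
    · exact Or.inr ⟨hI, h⟩
  have hI := inc u hw hi
  have hI' := inc u' hw' hi'
  have conv : ∀ {x m : ℝ}, x ∈ Icc (m / M) ((m + 1) / M) → m ≤ M * x ∧ M * x ≤ m + 1 := by
    intro x m hx
    rw [mem_Icc, div_le_iff₀ hM', le_div_iff₀ hM'] at hx
    exact ⟨by linarith [hx.1], by linarith [hx.2]⟩
  obtain ⟨-, c2, c3, -⟩ := cell_sc F h3 hQ hi (by rw [hw]; exact one_pos)
  obtain ⟨-, c2', c3', -⟩ := cell_sc F h3 hQ hi' (by rw [hw']; exact one_pos)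
  rw [hw, inv_one, one_smul] at c2 c3
  rw [hw', inv_one, one_smul] at c2' c3'
  have b2 := conv c2
  have b3 := conv c3
  have b2' := conv c2'
  have b3' := conv c3'
  by_cases hlt : t.1.2.1 < t.1.2.2
  · have h1 : InC F h3 t.1.1 u := hI.resolve_right fun h => absurd h.2 hlt.ne
    have h1' : InC F h3 t.1.1 u' := hI'.resolve_right fun h => absurd h.2 hlt.ne
    obtain ⟨-, -, -, s2, s3, -⟩ := h1.spec F h3
    obtain ⟨-, -, -, s2', s3', -⟩ := h1'.spec F h3
    obtain ⟨e0, e1, e2, e3⟩ := ineq_off F h3 hlt u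
    obtain ⟨e0', e1', e2', e3'⟩ := ineq_off F h3 hlt u'
    have H2 := H t.1.1.a2
    have H3 := H t.1.1.a3
    rw [s2, s2'] at H2
    rw [s3, s3'] at H3
    rw [hw] at e0 e1 e2 e3
    rw [hw'] at e0' e1' e2' e3'
    fin_cases k
    · have h5 : ineq F h3 t 0 u = 0 := hk
      show ineq F h3 t 0 u' = 0
      have := H2 ((t.1.2.1 : ℕ) + 1) (by push_cast; linarith)
      push_cast at this
      linarith
    · have h5 : ineq F h3 t 1 u = 0 := hk
      show ineq F h3 t 1 u' = 0
      have := H2 (t.1.2.1 : ℕ) (by linarith)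
      linarith
    · have h5 : ineq F h3 t 2 u = 0 := hk
      show ineq F h3 t 2 u' = 0
      have := H3 ((t.1.2.2 : ℕ) + 1) (by push_cast; linarith)
      push_cast at this
      linarith
    · have h5 : ineq F h3 t 3 u = 0 := hk
      show ineq F h3 t 3 u' = 0
      have := H3 (t.1.2.2 : ℕ) (by linarith)
      linarith
  · have hd := (diag_eq hlt).1
    rw [← hd] at b3 b3'
    obtain ⟨e0, e1, e2, e3⟩ := ineq_diag F h3 hlt u
    obtain ⟨e0', e1', e2', e3'⟩ := ineq_diag F h3 hlt u'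
    rw [hw] at e0 e1
    rw [hw'] at e0' e1'
    rw [wf_sw F h3 hQ, hw] at e2 e3
    rw [wf_sw F h3 hQ, hw'] at e2' e3'
    have hJ : InC F h3 t.1.1 u ∨ InC F h3 t.1.1.sw u := hI.imp_right fun h => h.1
    have hJ' : InC F h3 t.1.1 u' ∨ InC F h3 t.1.1.sw u' := hI'.imp_right fun h => h.1
    obtain ⟨T1, T2⟩ := tight_core F h3 hQ t.1.1 hM hJ hJ' b2 b3 b2' b3' H
    obtain ⟨T3, T4⟩ := tight_core F h3 hQ t.1.1.sw hM hJ.symm hJ'.symm b3 b2 b3' b2' H
    fin_cases k
    · have h5 : ineq F h3 t 0 u = 0 := hk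
      show ineq F h3 t 0 u' = 0
      have := T1 (by linarith)
      linarith
    · have h5 : ineq F h3 t 1 u = 0 := hk
      show ineq F h3 t 1 u' = 0
      have := T2 (by linarith)
      linarith
    · have h5 : ineq F h3 t 2 u = 0 := hk
      show ineq F h3 t 2 u' = 0
      have := T3 (by linarith)
      linarith
    · have h5 : ineq F h3 t 3 u = 0 := hk
      show ineq F h3 t 3 u' = 0
      have := T4 (by linarith)
      linarith

/-- flag with the last label replaced -/
theorem InC.replace {f : Flg P c} {u : E} (h : InC F h3 f u) (h2 : cf F h3 f 2 u = 0) (g : Flg P c)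
    (e1 : g.a1 = f.a1) (e2 : g.a2 = f.a2) : InC F h3 g u := by
  have hd0 : dir b g 0 = dir b f 0 := by
    show b {c, g.a1} - b {c} = b {c, f.a1} - b {c}
    rw [e1]
  have hd1 : dir b g 1 = dir b f 1 := by
    show b {c, g.a1, g.a2} - b {c} = b {c, f.a1, f.a2} - b {c}
    rw [e1, e2]
  have hu : u = cf F h3 f 0 u • dir b g 0 + cf F h3 f 1 u • dir b g 1 + (0 : ℝ) • dir b g 2 := by
    conv_lhs => rw [← cf_sum F h3 f u, h2, ← hd0, ← hd1]
    simp
  obtain ⟨c0, c1, c2⟩ := cf_comb F h3 g (cf F h3 f 0 u) (cf F h3 f 1 u) 0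
  rw [← hu] at c0 c1 c2
  have hw := h.2
  rw [wf_apply, h2] at hw
  refine ⟨?_, by rw [wf_apply, c0, c1, c2]; exact hw⟩
  intro k
  fin_cases k
  · exact (h.1 0).trans_eq c0.symm
  · exact (h.1 1).trans_eq c1.symm
  · exact c2.ge

/-- the point is the centre of the face of the first label -/
theorem InC.replace2 {f : Flg P c} {u : E} (h : InC F h3 f u) (h1 : cf F h3 f 1 u = 0)
    (h2 : cf F h3 f 2 u = 0) (g : Flg P c) (e1 : g.a1 = f.a1) : InC F h3 g u := by
  have hd0 : dir b g 0 = dir b f 0 := by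
    show b {c, g.a1} - b {c} = b {c, f.a1} - b {c}
    rw [e1]
  have hu : u = cf F h3 f 0 u • dir b g 0 + (0 : ℝ) • dir b g 1 + (0 : ℝ) • dir b g 2 := by
    conv_lhs => rw [← cf_sum F h3 f u, h1, h2, ← hd0]
    simp
  obtain ⟨c0, c1, c2⟩ := cf_comb F h3 g (cf F h3 f 0 u) 0 0
  rw [← hu] at c0 c1 c2
  have hw := h.2
  rw [wf_apply, h1, h2] at hw
  refine ⟨?_, by rw [wf_apply, c0, c1, c2]; exact hw⟩
  intro k
  fin_cases k
  · exact (h.1 0).trans_eq c0.symm
  · exact c1.ge
  · exact c2.ge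

/-- **a cell of the grid through a point of the cone of a flag** -/
theorem exists_tile (hQ : Quads P b) {g : Flg P c} {u : E} (h : InC F h3 g u) {j i : Fin M}
    (hji : j ≤ i) (k1 : ((j : ℕ) : ℝ) ≤ M * cf F h3 g 0 u) (k2 : M * cf F h3 g 0 u ≤ (j : ℕ) + 1)
    (k3 : ((i : ℕ) : ℝ) ≤ M * (cf F h3 g 0 u + cf F h3 g 1 u))
    (k4 : M * (cf F h3 g 0 u + cf F h3 g 1 u) ≤ (i : ℕ) + 1) :
    ∃ t : Tc P c M, t.1.1.a1 = g.a1 ∧ (∀ k, ineq F h3 t k u ≤ 0) ∧
      ∀ u', wf F h3 t.1.1 u' = 1 → (∀ k, ineq F h3 t k u' ≤ 0) →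
        (((j : ℕ) : ℝ) ≤ M * sc P b (b {c} + u') g.a2 ∧ M * sc P b (b {c} + u') g.a2 ≤ (j : ℕ) + 1) ∧
        (((i : ℕ) : ℝ) ≤ M * sc P b (b {c} + u') g.a3 ∧ M * sc P b (b {c} + u') g.a3 ≤ (i : ℕ) + 1) ∧
        sc P b (b {c} + u') g.a1 = 0 ∧
        ∀ a, a ≠ c → a ≠ g.a1 → a ≠ g.a2 → a ≠ g.a3 → sc P b (b {c} + u') a = 1 := by
  have hM : (0 : ℝ) < M := by
    have := j.pos
    exact_mod_cast this
  have conv : ∀ {x m : ℝ}, x ∈ Icc (m / M) ((m + 1) / M) → m ≤ M * x ∧ M * x ≤ m + 1 := by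
    intro x m hx
    rw [mem_Icc, div_le_iff₀ hM, le_div_iff₀ hM] at hx
    exact ⟨by linarith [hx.1], by linarith [hx.2]⟩
  have conv' : ∀ {x m : ℝ}, m ≤ M * x → M * x ≤ m + 1 → x ∈ Icc (m / M) ((m + 1) / M) := by
    intro x m h1 h2
    rw [mem_Icc, div_le_iff₀ hM, le_div_iff₀ hM]
    exact ⟨by linarith, by linarith⟩
  obtain ⟨-, s0, s1, s2, s3, s4⟩ := h.spec F h3
  have hmem := h.mem F h3
  rw [← s2] at k1 k2
  rw [← s3] at k3 k4
  have sub : b {c} + u - b {c} = u := by abel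
  rcases hji.eq_or_lt with hji | hji
  · subst hji
    -- diagonal
    obtain ⟨t, ht⟩ : ∃ t : Tc P c M, t.1.2.1 = j ∧ t.1.2.2 = j ∧ (t.1.1 = g ∨ t.1.1 = g.sw) := by
      by_cases hr : WellOrderingRel g.a2 g.a3
      · exact ⟨⟨(g, j, j), Or.inr ⟨rfl, hr⟩⟩, rfl, rfl, Or.inl rfl⟩
      · have hr' : WellOrderingRel g.a3 g.a2 := by
          rcases trichotomous_of WellOrderingRel g.a2 g.a3 with h | h | h
          · exact absurd h hr
          · exact absurd h g.h23
          · exact h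
        exact ⟨⟨(g.sw, j, j), Or.inr ⟨rfl, hr'⟩⟩, rfl, rfl, Or.inr rfl⟩
    obtain ⟨t1, t2, t3⟩ := ht
    refine ⟨t, by rcases t3 with h | h <;> rw [h]; rfl, ?_, fun u' hw' hi' => ?_⟩
    · have := mem_cell_of_sc F h3 hQ t hmem (by rcases t3 with h | h <;> rw [h] <;> exact s1)
        (by
          rw [t1]
          rcases t3 with h | h <;> rw [h]
          · exact conv' k1 k2
          · exact conv' k3 k4)
        (by
          rw [t2]
          rcases t3 with h | h <;> rw [h]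
          · exact conv' k3 k4
          · exact conv' k1 k2)
        (by
          rcases t3 with h | h <;> rw [h]
          · exact s4
          · exact fun a a0 a1 a2 a3 => s4 a a0 a1 a3 a2)
      rw [sub] at this
      exact this.2
    · obtain ⟨q0, q2, q3, q4⟩ := cell_sc F h3 hQ hi' (by rw [hw']; exact one_pos)
      rw [hw', inv_one, one_smul] at q0 q2 q3 q4
      have q1 : sc P b (b {c} + u') t.1.1.a1 = 0 :=
        (F.sc_eq_zero (F.sub c (mem_fc.1 q0 c (by simp)))).2 (mem_fc.1 q0 t.1.1.a1 (by simp))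
      rw [t1] at q2
      rw [t2] at q3
      rcases t3 with h | h <;> rw [h] at q1 q2 q3 q4
      · exact ⟨conv q2, conv q3, q1, q4⟩
      · exact ⟨conv q3, conv q2, q1, fun a a0 a1 a2 a3 => q4 a a0 a1 a3 a2⟩
  · refine ⟨⟨(g, j, i), Or.inl hji⟩, rfl, ?_, fun u' hw' hi' => ?_⟩
    · have := mem_cell_of_sc F h3 hQ (⟨(g, j, i), Or.inl hji⟩ : Tc P c M) hmem s1 (conv' k1 k2)
        (conv' k3 k4) s4
      rw [sub] at this
      exact this.2
    · obtain ⟨q0, q2, q3, q4⟩ := cell_sc F h3 hQ hi' (by rw [hw']; exact one_pos)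
      rw [hw', inv_one, one_smul] at q0 q2 q3 q4
      have q1 : sc P b (b {c} + u') g.a1 = 0 :=
        (F.sc_eq_zero (F.sub c (mem_fc.1 q0 c (by simp)))).2 (mem_fc.1 q0 g.a1 (by simp))
      exact ⟨conv q2, conv q3, q1, q4⟩

end tight

end Crest.Agent.R096.Fbr_628
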