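import Crest.Agent.R096.Fbr6_628

/-!
# Row 96, FAN (helper628), part 7: the closed cells of the boundary of the brick

`mem_CC_iff`: for a boundary point `X` of the box, the smallest face of the prism shell is the closed
cell of the `1/M`-grid of the coordinates `sc`; `finrank_VV`: its dimension.
-/

set_option autoImplicit false
set_option linter.unusedSectionVars false

open Set

namespace Crest.Agent.R096.Fbr_628

open Crest.Agent.R096.Brk1_582 Crest.Agent.R096.Brk2_582 Crest.Agent.R096.Grd_714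
  Crest.Agent.R096.Brk3_582 Crest.Agent.R096.Brk5_582 Crest.Agent.R096.Bsp_628
  Crest.Agent.R096.Mal_874 Crest.Agent.R096.Cut_874

variable {La : Set (Fin 3 → ℝ)} {F : Set (Bx (Fin 3))} {δ κ0 : ℝ} {N : ℕ}

namespace BD

variable {FF : Foam La (Pc F) (bc (F := F)) N} {h3 : Module.finrank ℝ (Fin 3 → ℝ) = 3} {c : F}
  {o : Fin 3 → ℝ} {B : ℝ} (D : BD FF h3 c o B) {M : ℕ}

/-- the coordinate `sc` of the point with integer coordinates `X` -/
noncomputable def sx (M : ℕ) (X : Fin 3 → ℝ) (a : F) : ℝ := sc (Pc F) (bc (F := F)) (D.pt M X) a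

/-- `Y` is in the closed grid cell of `X` -/
def FC (M : ℕ) (X Y : Fin 3 → ℝ) : Prop := ∀ a, (⌊(M : ℝ) * D.sx M X a⌋₊ : ℝ) ≤ M * D.sx M Y a ∧
  M * D.sx M Y a ≤ ⌈(M : ℝ) * D.sx M X a⌉₊

theorem pt_dsp (hM : 0 < M) (X : Fin 3 → ℝ) : D.pt M X = bc ({c} : Set F) + D.dsp M 0 X :=
  D.pt_eq hM (fun l h => absurd (show (0 : SignType) = 1 from h) (by decide))
    (fun l h => absurd (show (0 : SignType) = -1 from h) (by decide))

theorem dsp_eq (hM : 0 < M) {σ : Fin 3 → SignType} {X : Fin 3 → ℝ}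
    (h1 : ∀ l, σ l = 1 → X l = D.hi M l) (h2 : ∀ l, σ l = -1 → X l = D.lo M l) :
    D.dsp M σ X = D.dsp M 0 X := by
  have := (D.pt_eq hM h1 h2).symm.trans (D.pt_dsp hM X)
  exact add_left_cancel this

theorem hi_iff (hM : 0 < M) {X : Fin 3 → ℝ} {l : Fin 3} :
    X l = D.hi M l ↔ D.dsp M 0 X l = 1 * hs c l := by
  have hM' : (0 : ℝ) < M := by exact_mod_cast hM
  have hw := D.w0
  have e : D.dsp M 0 X l = D.w / M * (X l - M * D.z l) := if_pos rfl
  rw [e, one_mul, D.side]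
  unfold hi
  push_cast
  constructor
  · intro h
    rw [h]
    field_simp
    ring
  · intro h
    field_simp at h
    linarith

theorem lo_iff (hM : 0 < M) {X : Fin 3 → ℝ} {l : Fin 3} :
    X l = D.lo M l ↔ D.dsp M 0 X l = -1 * hs c l := by
  have hM' : (0 : ℝ) < M := by exact_mod_cast hM
  have hw := D.w0
  have e : D.dsp M 0 X l = D.w / M * (X l - M * D.z l) := if_pos rfl
  rw [e, D.side]
  unfold lo
  push_cast
  constructor
  · intro h
    rw [h]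
    field_simp
    ring
  · intro h
    field_simp at h
    linarith

theorem box_iff (hM : 0 < M) {X : Fin 3 → ℝ} : (∀ l, (D.lo M l : ℝ) ≤ X l ∧ X l ≤ D.hi M l) ↔
    D.pt M X ∈ Pc F c := by
  rw [D.pt_dsp hM, mem_Pc]
  exact forall_congr' fun l => (D.dsp_range hM (σ := 0) rfl).symm

/-- the point is on a facet of the box -/
def OnB (M : ℕ) (X : Fin 3 → ℝ) : Prop := ∃ l, X l = D.lo M l ∨ X l = D.hi M l

theorem OnB.inC (hN : N ≤ 4) (BF : BoxFoam La F δ κ0) (hLa : IsOpen La) (hM : 0 < M)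
    {X : Fin 3 → ℝ} (hX : D.pt M X ∈ Pc F c) (h : D.OnB M X) :
    ∃ g : Flg (Pc F) c, InC FF h3 g (D.dsp M 0 X) := by
  have hu : ∀ j, |D.dsp M 0 X j| ≤ hs c j := by
    rw [D.pt_dsp hM] at hX
    exact mem_Pc.1 hX
  obtain ⟨l, h | h⟩ := h
  · exact exists_inC FF h3 hN BF hu (Or.inr rfl) ((D.lo_iff hM).1 h) hLa
  · exact exists_inC FF h3 hN BF hu (Or.inl rfl) ((D.hi_iff hM).1 h) hLa

section fcs

variable {D}

theorem FC.nat (hM : 0 < M) {X Y : Fin 3 → ℝ} (h : D.FC M X Y) {a : F} {n : ℕ}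
    (hn : M * D.sx M X a = n) : M * D.sx M Y a = n := by
  obtain ⟨h1, h2⟩ := h a
  rw [hn, Nat.floor_natCast] at h1
  rw [hn, Nat.ceil_natCast] at h2
  exact le_antisymm h2 h1

theorem FC.zero (hM : 0 < M) {X Y : Fin 3 → ℝ} (h : D.FC M X Y) {a : F}
    (hn : D.sx M X a = 0) : D.sx M Y a = 0 := by
  have hM' : (M : ℝ) ≠ 0 := by exact_mod_cast hM.ne'
  have := h.nat hM (n := 0) (by rw [hn]; simp)
  rw [Nat.cast_zero] at this
  exact (mul_eq_zero.1 this).resolve_left hM'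

theorem FC.one (hM : 0 < M) {X Y : Fin 3 → ℝ} (h : D.FC M X Y) {a : F}
    (hn : D.sx M X a = 1) : D.sx M Y a = 1 := by
  have hM' : (M : ℝ) ≠ 0 := by exact_mod_cast hM.ne'
  have := h.nat hM (n := M) (by rw [hn]; simp)
  field_simp at this
  exact this

theorem FC.box {X Y : Fin 3 → ℝ} (h : D.FC M X Y) {a : F} {j : ℕ}
    (h1 : (j : ℝ) ≤ M * D.sx M X a) (h2 : M * D.sx M X a ≤ j + 1) :
    (j : ℝ) ≤ M * D.sx M Y a ∧ M * D.sx M Y a ≤ j + 1 := by
  obtain ⟨k1, k2⟩ := h a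
  constructor
  · refine le_trans ?_ k1
    exact_mod_cast Nat.le_floor h1
  · refine k2.trans ?_
    have : ⌈(M : ℝ) * D.sx M X a⌉₊ ≤ j + 1 := Nat.ceil_le.2 (by push_cast; exact h2)
    exact_mod_cast this

end fcs

theorem sx_bnd {X : Fin 3 → ℝ} (hX : D.pt M X ∈ Pc F c) (a : F) :
    0 ≤ D.sx M X a ∧ D.sx M X a ≤ 1 :=
  (FF.sc_mem_K (FF.sub c hX)).1 a

theorem sx_zero {X : Fin 3 → ℝ} (hX : D.pt M X ∈ Pc F c) {a : F} :
    D.sx M X a = 0 ↔ D.pt M X ∈ Pc F a :=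
  FF.sc_eq_zero (FF.sub c hX)

/-- coordinates of a point of the cone of a flag -/
theorem inC_sx (hM : 0 < M) {X : Fin 3 → ℝ} {g : Flg (Pc F) c} (h : InC FF h3 g (D.dsp M 0 X)) :
    D.sx M X c = 0 ∧ D.sx M X g.a1 = 0 ∧ D.sx M X g.a2 = cf FF h3 g 0 (D.dsp M 0 X) ∧
      D.sx M X g.a3 = cf FF h3 g 0 (D.dsp M 0 X) + cf FF h3 g 1 (D.dsp M 0 X) ∧
      ∀ a, a ≠ c → a ≠ g.a1 → a ≠ g.a2 → a ≠ g.a3 → D.sx M X a = 1 := by
  obtain ⟨-, s⟩ := h.spec FF h3
  rw [← D.pt_dsp hM] at s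
  exact s

/-- the facets through `X` contain the cell of `X` -/
theorem facet_of_fc (BF : BoxFoam La F δ κ0) (hLa : IsOpen La) (hM : 0 < M) {X Y : Fin 3 → ℝ}
    (hX : D.pt M X ∈ Pc F c) (hY : D.pt M Y ∈ Pc F c) (h : D.FC M X Y) (l : Fin 3) :
    (X l = D.hi M l → Y l = D.hi M l) ∧ (X l = D.lo M l → Y l = D.lo M l) := by
  have key : ∀ ε : ℝ, (ε = 1 ∨ ε = -1) → D.dsp M 0 X l = ε * hs c l →
      D.dsp M 0 Y l = ε * hs c l := by
    intro ε hε he
    have hX' := hX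
    have hY' := hY
    rw [D.pt_dsp hM] at hX' hY'
    obtain ⟨a, hac, ha, hf⟩ := exists_fct BF hLa hε (mem_Pc.1 hX') he
    rw [← D.pt_dsp hM] at ha
    have h1 := h.zero hM ((D.sx_zero hX).2 ha)
    have h2 := (D.sx_zero hY).1 h1
    rw [D.pt_dsp hM] at h2
    exact hf.coord hY' h2
  constructor
  · intro h1
    exact (D.hi_iff hM).2 (key 1 (Or.inl rfl) ((D.hi_iff hM).1 h1))
  · intro h1
    exact (D.lo_iff hM).2 (key (-1) (Or.inr rfl) ((D.lo_iff hM).1 h1))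

theorem vec_eqz (hM : 0 < M) {σ : Fin 3 → SignType} {f : Flg (Pc F) c} {l0 : Fin 3} {ε : ℝ}
    (h : Fct c f.a1 l0 ε) (h0 : σ l0 ≠ 0) {p0 p1 n : ℤ} {X : Fin 3 → ℝ} :
    dt (rv (D.vec M σ f p0 p1 n).1) X = (D.vec M σ f p0 p1 n).2 ↔
      fun' FF h3 M f p0 p1 n (D.dsp M σ X) = 0 := by
  constructor
  · intro h5
    refine le_antisymm ((D.vec_le hM h h0).1 h5.le) (not_lt.1 fun h6 => ?_)
    exact absurd ((D.vec_lt hM h h0).2 h6) (by rw [h5]; exact lt_irrefl _)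
  · intro h5
    refine le_antisymm ((D.vec_le hM h h0).2 h5.le) (not_lt.1 fun h6 => ?_)
    exact absurd ((D.vec_lt hM h h0).1 h6) (by rw [h5]; exact lt_irrefl _)

variable (hN : N ≤ 4) (BF : BoxFoam La F δ κ0) (hLa : IsOpen La)
  (hQ : Quads (Pc F) (bc (F := F))) (hM : 0 < M) (t : ℤ) (ht : 0 < t)

/-- on a face the point is on the corresponding facets -/
theorem on_face {i : (D.shell hN BF hLa hQ hM t ht).Ix} {X : Fin 3 → ℝ}
    (hX : D.pt M X ∈ Pc F c) (hi : X ∈ ZP ((D.shell hN BF hLa hQ hM t ht).GG i)) :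
    (∀ l, i.1 l = 1 → X l = D.hi M l) ∧ (∀ l, i.1 l = -1 → X l = D.lo M l) := by
  obtain ⟨-, h2⟩ := (PS.mem_ZP _).1 hi
  have hb := (D.box_iff hM).2 hX
  constructor
  · intro l hl
    exact le_antisymm (hb l).2 ((h2 l).1 hl).1
  · intro l hl
    exact le_antisymm ((h2 l).2 hl).2 (hb l).1

/-- **the closed grid cell is in the smallest face** -/
theorem mem_CC_of_fc {X Y : Fin 3 → ℝ} (hX : D.pt M X ∈ Pc F c) (hY : D.pt M Y ∈ Pc F c)
    (h : D.FC M X Y) : Y ∈ (D.shell hN BF hLa hQ hM t ht).CC X := by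
  intro i hi
  obtain ⟨o1, o2⟩ := D.on_face hN BF hLa hQ hM t ht hX hi
  have hf := D.facet_of_fc BF hLa hM hX hY h
  have q1 : ∀ l, i.1 l = 1 → Y l = D.hi M l := fun l hl => (hf l).1 (o1 l hl)
  have q2 : ∀ l, i.1 l = -1 → Y l = D.lo M l := fun l hl => (hf l).2 (o2 l hl)
  have hbX := (D.box_iff hM).2 hX
  have hbY := (D.box_iff hM).2 hY
  have ht' : (0 : ℝ) < t := by exact_mod_cast ht
  rw [PS.forall_GG]
  refine ⟨?_, fun l => ⟨fun hl => ⟨?_, ?_⟩, fun hl => ⟨?_, ?_⟩⟩⟩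
  · have hXG := ((PS.mem_ZP _).1 hi).1
    obtain ⟨σ, τ⟩ := i
    change (D.shF hN BF hLa hQ hM σ).Tc at τ
    change X ∈ ZP ((D.shF hN BF hLa hQ hM σ).G τ) at hXG
    change ∀ l, σ l = 1 → X l = D.hi M l at o1
    change ∀ l, σ l = -1 → X l = D.lo M l at o2
    change ∀ l, σ l = 1 → Y l = D.hi M l at q1
    change ∀ l, σ l = -1 → Y l = D.lo M l at q2
    change ∀ p ∈ (D.shF hN BF hLa hQ hM σ).G τ, _
    have eX := D.dsp_eq hM o1 o2
    have eY := D.dsp_eq hM q1 q2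
    clear hi
    revert hXG
    revert τ
    rcases D.shF_cases hN BF hLa hQ hM σ with ⟨l0, h0, h1, e⟩ | ⟨l1, l2, hll, h01, h02, h1, e⟩ |
      ⟨h, e⟩
    · rw [e]
      intro τ hXG
      obtain ⟨tt, hτ⟩ := τ
      have hXG' : X ∈ ZP (D.cellG σ tt) := hXG
      change ∀ p ∈ D.cellG σ tt, _
      rw [D.mem_ZP_cell hM hτ h0] at hXG'
      have cX := D.dsp_coord h0 (M := M) (X := X)
      have cY := D.dsp_coord h0 (M := M) (X := Y)
      have wX := D.wf_one hτ cX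
      have wY := D.wf_one hτ cY
      have sX := cell_sc FF h3 hQ hXG' (by rw [wX]; exact one_pos)
      rw [wX, inv_one, one_smul, eX, ← D.pt_dsp hM] at sX
      obtain ⟨m0, m2, m3, m4⟩ := sX
      have hM' : (0 : ℝ) < M := by exact_mod_cast hM
      have conv : ∀ {x m : ℝ}, x ∈ Icc (m / M) ((m + 1) / M) → m ≤ M * x ∧ M * x ≤ m + 1 := by
        intro x m hx
        rw [mem_Icc, div_le_iff₀ hM', le_div_iff₀ hM'] at hx
        exact ⟨by linarith [hx.1], by linarith [hx.2]⟩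
      have conv' : ∀ {x m : ℝ}, m ≤ M * x ∧ M * x ≤ m + 1 → x ∈ Icc (m / M) ((m + 1) / M) := by
        intro x m h
        rw [mem_Icc, div_le_iff₀ hM', le_div_iff₀ hM']
        exact ⟨by linarith [h.1], by linarith [h.2]⟩
      have y1 : sc (Pc F) (bc (F := F)) (D.pt M Y) tt.1.1.a1 = 0 :=
        h.zero hM ((D.sx_zero hX).2 (mem_fc.1 m0 _ (by simp)))
      have y2 := conv' (h.box (conv m2).1 (conv m2).2)
      have y3 := conv' (h.box (conv m3).1 (conv m3).2)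
      have y4 : ∀ a, a ≠ c → a ≠ tt.1.1.a1 → a ≠ tt.1.1.a2 → a ≠ tt.1.1.a3 →
          sc (Pc F) (bc (F := F)) (D.pt M Y) a = 1 :=
        fun a a0 a1 a2 a3 => h.one hM (m4 a a0 a1 a2 a3)
      have hYc := (mem_cell_of_sc FF h3 hQ tt hY y1 y2 y3 y4).2
      rw [D.pt_dsp hM, add_sub_cancel_left, ← eY] at hYc
      rw [D.forall_cellG]
      intro k
      have hfk : Fct c (dat tt k).1.a1 l0 ((σ l0 : SignType) : ℝ) := by rw [dat_a1]; exact hτ
      constructor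
      · rw [D.vec_le hM hfk h0, ← ineq_eq]
        exact hYc k
      · rw [D.vec_eqz hM hfk h0, D.vec_eqz hM hfk h0, ← ineq_eq]
        intro hk
        refine tight_ineq FF h3 hQ tt wX wY hXG' hYc ?_ k hk
        intro a n
        rw [eX, eY, ← D.pt_dsp hM, ← D.pt_dsp hM]
        exact h.nat hM
    · rw [e]
      intro τ hXG
      obtain ⟨⟨f, i⟩, hf1, hf2⟩ := τ
      have hXG' : X ∈ ZP (D.edgG σ (f, i)) := hXG
      change ∀ p ∈ D.edgG σ (f, i), _
      rw [D.mem_ZP_edg BF hM hll hf1 hf2 h01 h02] at hXG'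
      have cX1 := D.dsp_coord h01 (M := M) (X := X)
      have cX2 := D.dsp_coord h02 (M := M) (X := X)
      have cY1 := D.dsp_coord h01 (M := M) (X := Y)
      have cY2 := D.dsp_coord h02 (M := M) (X := Y)
      have IX := D.inC_of_edg BF hll hf1 hf2 cX1 cX2 hXG'.1 hXG'.2
      have zX := (D.edge_cf0 BF hll hf1 hf2 cX1 cX2).1
      have zY := D.edge_cf0 BF hll hf1 hf2 cY1 cY2
      rw [eX] at IX zX hXG'
      rw [eY] at zY
      obtain ⟨s0, s1, s2, s3, s4⟩ := D.inC_sx hM IX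
      simp only at s0 s1 s2 s3 s4 zX zY hXG' hf1 hf2
      rw [zX] at s2
      rw [zX, zero_add] at s3
      have y1 : D.sx M Y f.a1 = 0 := h.zero hM s1
      have y2 : D.sx M Y f.a2 = 0 := h.zero hM s2
      have y3 := h.box (a := f.a3) (j := (i : ℕ)) (by rw [s3]; exact hXG'.1)
        (by rw [s3]; exact hXG'.2)
      have y4 : ∀ a, a ≠ c → a ≠ f.a1 → a ≠ f.a2 → a ≠ f.a3 → D.sx M Y a = 1 :=
        fun a a0 a1 a2 a3 => h.one hM (s4 a a0 a1 a2 a3)
      obtain ⟨-, c1, -⟩ := cf_of_sc FF h3 f hY y1 (by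
        change D.sx M Y f.a2 ≤ D.sx M Y f.a3
        rw [y2]; exact (D.sx_bnd hY _).1) y4
      rw [D.pt_dsp hM, add_sub_cancel_left, ← D.pt_dsp hM, zY.1, zero_add] at c1
      change cf FF h3 f 1 (D.dsp M 0 Y) = D.sx M Y f.a3 at c1
      have w1 := D.wf_one hf1 cX1
      have w1' := D.wf_one hf1 cY1
      rw [eX] at w1
      rw [eY] at w1'
      have ee : ∀ (p0 p1 n : ℤ) (z : Fin 3 → ℝ), fun' FF h3 M f p0 p1 n z =
          M * (p0 * cf FF h3 f 0 z + p1 * cf FF h3 f 1 z) - n * wf FF h3 f z := fun _ _ _ _ => rfl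
      have H3 : ∀ n : ℕ, M * D.sx M X f.a3 = n → M * D.sx M Y f.a3 = n := fun n => h.nat hM
      rw [← c1] at y3
      rw [s3, ← c1] at H3
      rw [D.forall_edgG]
      constructor
      · constructor
        · rw [D.vec_le hM hf1 h01, eY, ee, zY.1, w1']
          push_cast
          linarith [y3.2]
        · rw [D.vec_eqz hM hf1 h01, D.vec_eqz hM hf1 h01, eX, eY, ee, ee, zX, zY.1, w1, w1']
          intro h5
          have := H3 ((i : ℕ) + 1) (by push_cast at h5 ⊢; linarith)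
          push_cast at this ⊢
          linarith
      · constructor
        · rw [D.vec_le hM hf1 h01, eY, ee, zY.1, w1']
          push_cast
          linarith [y3.1]
        · rw [D.vec_eqz hM hf1 h01, D.vec_eqz hM hf1 h01, eX, eY, ee, ee, zX, zY.1, w1, w1']
          intro h5
          have := H3 (i : ℕ) (by push_cast at h5 ⊢; linarith)
          push_cast
          linarith
    · rw [e]
      intro τ hXG
      refine forall_boxG.2 fun l hl => ?_
      rw [dt_ez, dt_neg_ez, dt_ez, dt_neg_ez]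
      push_cast
      refine ⟨⟨(hbY l).2, fun h5 => (hf l).1 h5⟩, ⟨by linarith [(hbY l).1], fun h5 => ?_⟩⟩
      rw [(hf l).2 (by linarith)]
  · rw [dt_neg_ez, dt_neg_ez]
    have e1 := o1 l hl
    have e2 := q1 l hl
    rw [e1, e2]
    show -(D.hi M l : ℝ) ≤ ((-(D.hi M l) : ℤ) : ℝ) ∧ _
    push_cast
    exact ⟨le_rfl, fun h => h⟩
  · rw [dt_ez, dt_ez]
    have e1 := o1 l hl
    have e2 := q1 l hl
    rw [e1, e2]
    show (D.hi M l : ℝ) ≤ ((D.hi M l + t : ℤ) : ℝ) ∧ _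
    push_cast
    exact ⟨by linarith, fun h => h⟩
  · rw [dt_neg_ez, dt_neg_ez]
    have e1 := o2 l hl
    have e2 := q2 l hl
    rw [e1, e2]
    show -(D.lo M l : ℝ) ≤ ((-(D.lo M l - t) : ℤ) : ℝ) ∧ _
    push_cast
    exact ⟨by linarith, fun h => h⟩
  · rw [dt_ez, dt_ez]
    have e1 := o2 l hl
    have e2 := q2 l hl
    rw [e1, e2]
    show (D.lo M l : ℝ) ≤ ((D.lo M l : ℤ) : ℝ) ∧ _
    exact ⟨le_rfl, fun h => h⟩

end BD

end Crest.Agent.R096.Fbr_628
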