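import Crest.Agent.R096.Fbr7_628

/-!
# Row 96, FAN (helper628), part 8: the closed cells of the boundary of the brick (converse, dimension)
-/

set_option autoImplicit false
set_option linter.unusedSectionVars false

open Set

namespace Crest.Agent.R096.Fbr_628

open Crest.Agent.R096.Brk1_582 Crest.Agent.R096.Brk2_582 Crest.Agent.R096.Grd_714
  Crest.Agent.R096.Brk3_582 Crest.Agent.R096.Brk5_582 Crest.Agent.R096.Bsp_628
  Crest.Agent.R096.Mal_874 Crest.Agent.R096.Cut_874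

variable {La : Set (Fin 3 → ℝ)} {F : Set (Bx (Fin 3))} {δ κ0 : ℝ} {N : ℕ}

/-- a grid box above -/
theorem exists_above {M : ℕ} {x y : ℝ} (hxy : x ≤ y) (hx : 0 ≤ x) (hy : y ≤ 1) {j : Fin M}
    (hj : ((j : ℕ) : ℝ) ≤ M * x) : ∃ i : Fin M, j ≤ i ∧ ((i : ℕ) : ℝ) ≤ M * y ∧
      M * y ≤ (i : ℕ) + 1 := by
  have hM : 0 < M := j.pos
  have hM' : (0 : ℝ) < M := by exact_mod_cast hM
  obtain ⟨i, hi1, hi2⟩ := BD.exists_fin hM (hx.trans hxy) hy
  have h1 : M * x ≤ M * y := mul_le_mul_of_nonneg_left hxy hM'.le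
  rcases le_total j i with h | h
  · exact ⟨i, h, hi1, hi2⟩
  · rcases h.eq_or_lt with h | h
    · exact ⟨j, le_rfl, by rw [← h]; exact hi1, by rw [← h]; exact hi2⟩
    · have h2 : (((i : ℕ) : ℝ)) + 1 ≤ (j : ℕ) := by
        have : (i : ℕ) + 1 ≤ (j : ℕ) := h
        exact_mod_cast this
      exact ⟨j, le_rfl, by linarith, by linarith⟩

/-- a grid box below -/
theorem exists_below {M : ℕ} {x y : ℝ} (hxy : x ≤ y) (hx : 0 ≤ x) (hy : y ≤ 1) {i : Fin M}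
    (hi : M * y ≤ (i : ℕ) + 1) : ∃ j : Fin M, j ≤ i ∧ ((j : ℕ) : ℝ) ≤ M * x ∧
      M * x ≤ (j : ℕ) + 1 := by
  have hM : 0 < M := i.pos
  have hM' : (0 : ℝ) < M := by exact_mod_cast hM
  obtain ⟨j, hj1, hj2⟩ := BD.exists_fin hM hx (hxy.trans hy)
  have h1 : M * x ≤ M * y := mul_le_mul_of_nonneg_left hxy hM'.le
  rcases le_total j i with h | h
  · exact ⟨j, h, hj1, hj2⟩
  · rcases h.eq_or_lt with h | h
    · exact ⟨i, le_rfl, by rw [h]; exact hj1, by rw [h]; exact hj2⟩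
    · have h2 : (((i : ℕ) : ℝ)) + 1 ≤ (j : ℕ) := by
        have : (i : ℕ) + 1 ≤ (j : ℕ) := h
        exact_mod_cast this
      exact ⟨i, le_rfl, by linarith, by linarith⟩

namespace BD

variable {FF : Foam La (Pc F) (bc (F := F)) N} {h3 : Module.finrank ℝ (Fin 3 → ℝ) = 3} {c : F}
  {o : Fin 3 → ℝ} {B : ℝ} (D : BD FF h3 c o B) {M : ℕ}

variable (hN : N ≤ 4) (BF : BoxFoam La F δ κ0) (hLa : IsOpen La)
  (hQ : Quads (Pc F) (bc (F := F))) (hM : 0 < M) (t : ℤ) (ht : 0 < t)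

theorem B0_iff {X : Fin 3 → ℝ} :
    X ∈ (D.shell hN BF hLa hQ hM t ht).B0 ↔ D.pt M X ∈ Pc F c := D.box_iff hM

theorem mem_of_CC {X Y : Fin 3 → ℝ} (hX : D.pt M X ∈ Pc F c)
    (hY : Y ∈ (D.shell hN BF hLa hQ hM t ht).CC X) : D.pt M Y ∈ Pc F c := by
  have h1 := (D.B0_iff hN BF hLa hQ hM t ht).2 hX
  rw [← PS.ZP_core] at h1
  rw [← D.B0_iff hN BF hLa hQ hM t ht, ← PS.ZP_core]
  exact fun p hp => (hY _ h1 p hp).1

/-- a face tile through a boundary point contains its smallest face -/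
theorem box_of_CC {X Y : Fin 3 → ℝ} (hX : D.pt M X ∈ Pc F c)
    (hY : Y ∈ (D.shell hN BF hLa hQ hM t ht).CC X) {g : Flg (Pc F) c}
    (hg : InC FF h3 g (D.dsp M 0 X)) {j i : Fin M} (hji : j ≤ i)
    (k1 : ((j : ℕ) : ℝ) ≤ M * D.sx M X g.a2) (k2 : M * D.sx M X g.a2 ≤ (j : ℕ) + 1)
    (k3 : ((i : ℕ) : ℝ) ≤ M * D.sx M X g.a3) (k4 : M * D.sx M X g.a3 ≤ (i : ℕ) + 1) :
    (((j : ℕ) : ℝ) ≤ M * D.sx M Y g.a2 ∧ M * D.sx M Y g.a2 ≤ (j : ℕ) + 1) ∧
      (((i : ℕ) : ℝ) ≤ M * D.sx M Y g.a3 ∧ M * D.sx M Y g.a3 ≤ (i : ℕ) + 1) ∧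
      D.sx M Y g.a1 = 0 ∧ wf FF h3 g (D.dsp M 0 Y) = 1 ∧
      ∀ a, a ≠ c → a ≠ g.a1 → a ≠ g.a2 → a ≠ g.a3 → D.sx M Y a = 1 := by
  obtain ⟨-, -, s2, s3, -⟩ := D.inC_sx hM hg
  rw [s2] at k1 k2
  rw [s3] at k3 k4
  obtain ⟨tt, ta, ti, tb⟩ := exists_tile FF h3 hQ hg hji k1 k2 k3 k4
  obtain ⟨l0, ε, hf⟩ := exists_fct_of_flag BF g
  -- the sign
  obtain ⟨es, hes, hes0⟩ : ∃ es : SignType, (es : ℝ) = ε ∧ es ≠ 0 := by
    rcases hf.eps with h | h
    · exact ⟨1, by rw [h]; simp, by decide⟩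
    · exact ⟨-1, by rw [h]; simp, by decide⟩
  set σ : Fin 3 → SignType := Function.update 0 l0 es with hσ
  have h0 : σ l0 ≠ 0 := by rw [hσ, Function.update_self]; exact hes0
  have h1 : ∀ l, l ≠ l0 → σ l = 0 := fun l hl => by rw [hσ, Function.update_of_ne hl]; rfl
  have hσε : ((σ l0 : SignType) : ℝ) = ε := by rw [hσ, Function.update_self]; exact hes
  have hft : Fct c tt.1.1.a1 l0 ((σ l0 : SignType) : ℝ) := by rw [ta, hσε]; exact hf
  -- X on the facet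
  have hm := (hg.spec FF h3).1
  have hXl : D.dsp M 0 X l0 = ε * hs c l0 := hf.coord (mem_fc.1 hm c (by simp)) (mem_fc.1 hm g.a1 (by simp))
  have o1 : ∀ l, σ l = 1 → X l = D.hi M l := by
    intro l hl
    by_cases hll : l = l0
    · subst hll
      rw [hl] at hσε
      rw [D.hi_iff hM, hXl, ← hσε]; simp
    · rw [h1 l hll] at hl; exact absurd hl (by decide)
  have o2 : ∀ l, σ l = -1 → X l = D.lo M l := by
    intro l hl
    by_cases hll : l = l0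
    · subst hll
      rw [hl] at hσε
      rw [D.lo_iff hM, hXl, ← hσε]; simp
    · rw [h1 l hll] at hl; exact absurd hl (by decide)
  have eX := D.dsp_eq hM o1 o2
  -- the index
  obtain ⟨τ, hτ⟩ : ∃ τ : (D.shF hN BF hLa hQ hM σ).Tc, (D.shF hN BF hLa hQ hM σ).G τ =
      D.cellG σ tt := by
    rw [D.shF_face hN BF hLa hQ hM h0 h1]
    exact ⟨⟨tt, hft⟩, rfl⟩
  set S := D.shell hN BF hLa hQ hM t ht with hS
  let i0 : S.Ix := ⟨σ, τ⟩
  have ht' : (0 : ℝ) < t := by exact_mod_cast ht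
  have hXi : X ∈ ZP (S.GG i0) := by
    rw [PS.mem_ZP]
    refine ⟨?_, fun l => ⟨fun hl => ?_, fun hl => ?_⟩⟩
    · show X ∈ ZP ((D.shF hN BF hLa hQ hM σ).G τ)
      rw [hτ, D.mem_ZP_cell hM hft h0, eX]
      exact ti
    · rw [o1 l hl]
      show (D.hi M l : ℝ) ≤ D.hi M l ∧ (D.hi M l : ℝ) ≤ D.hi M l + t
      constructor <;> linarith
    · rw [o2 l hl]
      show (D.lo M l : ℝ) - t ≤ D.lo M l ∧ (D.lo M l : ℝ) ≤ D.lo M l
      constructor <;> linarith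
  have hYi : Y ∈ ZP (S.GG i0) := fun p hp => (hY i0 hXi p hp).1
  have hYc := D.mem_of_CC hN BF hLa hQ hM t ht hX hY
  obtain ⟨q1, q2⟩ := D.on_face hN BF hLa hQ hM t ht hYc hYi
  have eY := D.dsp_eq hM (σ := σ) q1 q2
  have hYG : Y ∈ ZP ((D.shF hN BF hLa hQ hM σ).G τ) := ((PS.mem_ZP _).1 hYi).1
  rw [hτ, D.mem_ZP_cell hM hft h0] at hYG
  have wY := D.wf_one hft (D.dsp_coord h0 (M := M) (X := Y))
  have := tb _ wY hYG
  rw [eY, ← D.pt_dsp hM] at this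
  obtain ⟨b1, b2, b3, b4⟩ := this
  have wg : wf FF h3 g (D.dsp M 0 Y) = 1 := by
    rw [← eY]
    have hfg : Fct c g.a1 l0 ((σ l0 : SignType) : ℝ) := by rw [hσε]; exact hf
    exact D.wf_one hfg (D.dsp_coord h0 (M := M) (X := Y))
  exact ⟨b1, b2, b3, wg, b4⟩

include BF hLa hM in
/-- **a flag through the point which avoids a label with coordinate one** -/
theorem exists_avoid {X : Fin 3 → ℝ} {g : Flg (Pc F) c} (hg : InC FF h3 g (D.dsp M 0 X)) {a : F}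
    (ha : D.sx M X a = 1) : ∃ g' : Flg (Pc F) c, InC FF h3 g' (D.dsp M 0 X) ∧ a ≠ c ∧
      a ≠ g'.a1 ∧ a ≠ g'.a2 ∧ a ≠ g'.a3 := by
  obtain ⟨s0, s1, s2, s3, s4⟩ := D.inC_sx hM hg
  have n0 : a ≠ c := by rintro rfl; rw [s0] at ha; exact zero_ne_one ha
  have n1 : a ≠ g.a1 := by rintro rfl; rw [s1] at ha; exact zero_ne_one ha
  have hw := hg.2
  rw [wf_apply] at hw
  have p0 := hg.1 0
  have p1 := hg.1 1
  have p2 := hg.1 2
  -- extensions of an edge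
  have extE : ∀ f : Flg (Pc F) c, f.a1 ≠ a → f.a2 ≠ a → ∃ p, ∃ (hp1 : p ≠ f.a1) (hp2 : p ≠ f.a2)
      (hpc : p ≠ c), p ≠ a ∧ (fc (Pc F) {c, f.a1, f.a2, p}).Nonempty := by
    intro f hf1 hf2
    have hfin : ({c, f.a1, f.a2} : Set F).Finite := by simp
    have hcard : ({c, f.a1, f.a2} : Set F).ncard ≤ 3 := by
      refine (ncard_insert_le _ _).trans ?_
      rw [ncard_pair f.h12]
    obtain ⟨p, hp1, hp2, hp3⟩ := exists_ext FF BF hLa hfin ⟨c, by simp⟩ f.ne2 hcard a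
    have e : insert p ({c, f.a1, f.a2} : Set F) = {c, f.a1, f.a2, p} := by
      ext x; simp only [mem_insert_iff, mem_singleton_iff]; tauto
    rw [e] at hp3
    simp only [mem_insert_iff, mem_singleton_iff, not_or] at hp1
    exact ⟨p, hp1.2.1, hp1.2.2, hp1.1, hp2, hp3⟩
  by_cases n2 : a = g.a2
  · -- the point is the centre of the face
    rw [n2, s2] at ha
    have z1 : cf FF h3 g 1 (D.dsp M 0 X) = 0 := by linarith
    have z2 : cf FF h3 g 2 (D.dsp M 0 X) = 0 := by linarith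
    have hfin : ({c, g.a1} : Set F).Finite := by simp
    have hcard : ({c, g.a1} : Set F).ncard ≤ 3 := by
      rw [ncard_pair g.h1.symm]; norm_num
    obtain ⟨p, hp1, hp2, hp3⟩ := exists_ext FF BF hLa hfin ⟨c, by simp⟩ g.ne1 hcard a
    simp only [mem_insert_iff, mem_singleton_iff, not_or] at hp1
    have hfin2 : (insert p ({c, g.a1} : Set F)).Finite := by simp
    have hcard2 : (insert p ({c, g.a1} : Set F)).ncard ≤ 3 := by
      refine (ncard_insert_le _ _).trans ?_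
      rw [ncard_pair g.h1.symm]
    obtain ⟨q, hq1, hq2, hq3⟩ := exists_ext FF BF hLa hfin2 ⟨p, by simp⟩ hp3 hcard2 a
    simp only [mem_insert_iff, mem_singleton_iff, not_or] at hq1
    have e : insert q (insert p ({c, g.a1} : Set F)) = {c, g.a1, p, q} := by
      ext x; simp only [mem_insert_iff, mem_singleton_iff]; tauto
    rw [e] at hq3
    refine ⟨⟨g.a1, p, q, g.h1, hp1.1, hq1.2.1, Ne.symm hp1.2, Ne.symm hq1.2.2, Ne.symm hq1.1, hq3⟩,
      hg.replace2 FF h3 z1 z2 _ rfl, n0, n1, hp2.symm, hq2.symm⟩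
  by_cases n3 : a = g.a3
  · rw [n3, s3] at ha
    have z2 : cf FF h3 g 2 (D.dsp M 0 X) = 0 := by linarith
    obtain ⟨p, hp1, hp2, hpc, hpa, hp3⟩ := extE g (Ne.symm n1) (Ne.symm n2)
    exact ⟨⟨g.a1, g.a2, p, g.h1, g.h2, hpc, g.h12, Ne.symm hp1, Ne.symm hp2, hp3⟩,
      hg.replace FF h3 z2 _ rfl rfl, n0, n1, n2, Ne.symm hpa⟩
  · exact ⟨g, hg, n0, n1, n2, n3⟩

/-- **the smallest face of a boundary point is in the closed grid cell** -/
theorem fc_of_mem_CC {X Y : Fin 3 → ℝ} (hX : D.pt M X ∈ Pc F c) (hB : D.OnB M X)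
    (hY : Y ∈ (D.shell hN BF hLa hQ hM t ht).CC X) : D.pt M Y ∈ Pc F c ∧ D.FC M X Y := by
  have hYc := D.mem_of_CC hN BF hLa hQ hM t ht hX hY
  refine ⟨hYc, ?_⟩
  have hM' : (0 : ℝ) < M := by exact_mod_cast hM
  obtain ⟨g, hg⟩ := hB.inC D hN BF hLa hM hX
  -- a grid box for every flag
  have anyb : ∀ g : Flg (Pc F) c, InC FF h3 g (D.dsp M 0 X) →
      D.sx M Y g.a1 = 0 ∧ ∀ a, a ≠ c → a ≠ g.a1 → a ≠ g.a2 → a ≠ g.a3 → D.sx M Y a = 1 := by
    intro g hg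
    obtain ⟨-, -, s2, s3, -⟩ := D.inC_sx hM hg
    have h23 : D.sx M X g.a2 ≤ D.sx M X g.a3 := by rw [s2, s3]; linarith [hg.1 1]
    obtain ⟨j, j1, j2⟩ := exists_fin hM (D.sx_bnd hX g.a2).1 (D.sx_bnd hX g.a2).2
    obtain ⟨i, hji, i1, i2⟩ := exists_above h23 (D.sx_bnd hX g.a2).1 (D.sx_bnd hX g.a3).2 j1
    obtain ⟨-, -, b3, -, b4⟩ := D.box_of_CC hN BF hLa hQ hM t ht hX hY hg hji j1 j2 i1 i2
    exact ⟨b3, b4⟩
  have hzero : ∀ a, D.sx M X a = 0 → D.sx M Y a = 0 := by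
    intro a ha
    by_cases hac : a = c
    · subst hac
      exact (D.sx_zero hYc).2 hYc
    · have h1 := (D.sx_zero hX).1 ha
      rw [D.pt_dsp hM] at h1
      obtain ⟨g', hg', hi'⟩ := perm1 FF h3 hg hac h1
      rw [← hg']
      exact (anyb g' hi').1
  have hone : ∀ a, D.sx M X a = 1 → D.sx M Y a = 1 := by
    intro a ha
    obtain ⟨g', hi', n0, n1, n2, n3⟩ := D.exists_avoid BF hLa hM hg ha
    exact (anyb g' hi').2 a n0 n1 n2 n3
  obtain ⟨s0, s1, s2, s3, s4⟩ := D.inC_sx hM hg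
  have h23 : D.sx M X g.a2 ≤ D.sx M X g.a3 := by rw [s2, s3]; linarith [hg.1 1]
  have x2 := D.sx_bnd hX g.a2
  have x3 := D.sx_bnd hX g.a3
  intro a
  have hyb := D.sx_bnd hYc a
  have hxb := D.sx_bnd hX a
  constructor
  · -- lower bound
    rcases hxb.2.eq_or_lt with h1 | h1
    · rw [h1, hone a h1, mul_one, Nat.floor_natCast]
    rcases hxb.1.eq_or_lt with h0 | h0
    · rw [← h0, mul_zero, Nat.floor_zero, Nat.cast_zero]
      exact mul_nonneg hM'.le hyb.1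
    have ha : a = g.a2 ∨ a = g.a3 := by
      by_contra hcon
      push Not at hcon
      have n0 : a ≠ c := by rintro rfl; rw [s0] at h0; exact lt_irrefl _ h0
      have n1 : a ≠ g.a1 := by rintro rfl; rw [s1] at h0; exact lt_irrefl _ h0
      rw [s4 a n0 n1 hcon.1 hcon.2] at h1
      exact lt_irrefl _ h1
    have hMx : 0 ≤ M * D.sx M X a := mul_nonneg hM'.le hxb.1
    have hlt : ⌊(M : ℝ) * D.sx M X a⌋₊ < M := by
      rw [Nat.floor_lt hMx]; nlinarith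
    have hfl := Nat.floor_le hMx
    have hfl2 := (Nat.lt_floor_add_one ((M : ℝ) * D.sx M X a)).le
    rcases ha with rfl | rfl
    · obtain ⟨i, hji, i1, i2⟩ := exists_above (j := ⟨_, hlt⟩) h23 x2.1 x3.2 hfl
      exact (D.box_of_CC hN BF hLa hQ hM t ht hX hY hg hji hfl hfl2 i1 i2).1.1
    · obtain ⟨j, hji, j1, j2⟩ := exists_below (i := ⟨_, hlt⟩) h23 x2.1 x3.2 hfl2
      exact (D.box_of_CC hN BF hLa hQ hM t ht hX hY hg hji j1 j2 hfl hfl2).2.1.1
  · -- upper bound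
    rcases hxb.1.eq_or_lt with h0 | h0
    · rw [← h0, hzero a h0.symm, mul_zero, Nat.ceil_zero, Nat.cast_zero]
    rcases hxb.2.eq_or_lt with h1 | h1
    · rw [h1, mul_one, Nat.ceil_natCast]
      have := mul_le_mul_of_nonneg_left hyb.2 hM'.le
      linarith
    have ha : a = g.a2 ∨ a = g.a3 := by
      by_contra hcon
      push Not at hcon
      have n0 : a ≠ c := by rintro rfl; rw [s0] at h0; exact lt_irrefl _ h0
      have n1 : a ≠ g.a1 := by rintro rfl; rw [s1] at h0; exact lt_irrefl _ h0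
      rw [s4 a n0 n1 hcon.1 hcon.2] at h1
      exact lt_irrefl _ h1
    have hMx : 0 < M * D.sx M X a := mul_pos hM' h0
    have hc1 := Nat.ceil_pos.2 hMx
    have hcM : ⌈(M : ℝ) * D.sx M X a⌉₊ ≤ M := Nat.ceil_le.2 (by nlinarith)
    set n := ⌈(M : ℝ) * D.sx M X a⌉₊ with hn
    have hlt : n - 1 < M := by omega
    have hcast : (((n - 1 : ℕ) : ℝ)) + 1 = n := by
      have : n - 1 + 1 = n := by omega
      exact_mod_cast this
    have hfl2 : M * D.sx M X a ≤ ((n - 1 : ℕ) : ℝ) + 1 := by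
      rw [hcast]; exact Nat.le_ceil _
    have hfl : ((n - 1 : ℕ) : ℝ) ≤ M * D.sx M X a := by
      have := Nat.ceil_lt_add_one hMx.le
      rw [← hn] at this
      linarith
    rcases ha with rfl | rfl
    · obtain ⟨i, hji, i1, i2⟩ := exists_above (j := ⟨_, hlt⟩) h23 x2.1 x3.2 hfl
      have := (D.box_of_CC hN BF hLa hQ hM t ht hX hY hg hji hfl hfl2 i1 i2).1.2
      rw [← hcast]
      exact this
    · obtain ⟨j, hji, j1, j2⟩ := exists_below (i := ⟨_, hlt⟩) h23 x2.1 x3.2 hfl2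
      have := (D.box_of_CC hN BF hLa hQ hM t ht hX hY hg hji j1 j2 hfl hfl2).2.1.2
      rw [← hcast]
      exact this

/-- **the smallest face of a boundary point is the closed grid cell** -/
theorem mem_CC_iff {X Y : Fin 3 → ℝ} (hX : D.pt M X ∈ Pc F c) (hB : D.OnB M X) :
    Y ∈ (D.shell hN BF hLa hQ hM t ht).CC X ↔ D.pt M Y ∈ Pc F c ∧ D.FC M X Y :=
  ⟨D.fc_of_mem_CC hN BF hLa hQ hM t ht hX hB,
    fun h => D.mem_CC_of_fc hN BF hLa hQ hM t ht hX h.1 h.2⟩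

end BD

end Crest.Agent.R096.Fbr_628
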