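import Crest.Agent.R096.Bd6_416

/-!
# R096 (row 96), P4-FACE, part 0: the interface of a filling rule (helper522)

`SqExt L M b`: the LAM-structure `M` on `q` restricts on `dq` to the structure `L` squeezed by `2b`.
This is everything that 416's `Dep.gd_eqs` uses, so any rule (416's cone rule, the near-affine rule
of the faces) can be used in the recursion over the mesh.
-/

set_option autoImplicit false

open Set Metric

namespace Crest.Agent.R096.Fc_522

open Crest.Agent.R096.Ce_537 Crest.Agent.R096.Bd_416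

variable {E : Type*} [NormedAddCommGroup E] [NormedSpace ℝ E]
variable {κ I : Type*} {q dq : Set E}

/-- `M` on `q` is a filling of `L` on `dq`, squeezed by `2b` -/
structure SqExt (L : Lam dq I) (M : Lam q I) (b : ℝ) : Prop where
  sub : dq ⊆ q
  b0 : 0 < b
  b2 : b < 1/2
  c : ∀ i, ∀ z ∈ dq, M.c i z = cl (L.c i z / (2 * b))
  B : ∀ i, ∀ z ∈ dq, z ∈ M.B i ↔ |L.c i z| ≤ b
  tr : ∀ i, ∀ z ∈ dq, |L.c i z| ≤ b → ∀ s ∈ I2, M.tr i (z, s) = L.tr i (z, 2 * b * s)

/-- 416's cone rule is a filling -/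
theorem sqExt_fillBall {n : ℕ} (e : PLEquiv (cube n) q) (he : e.f '' sph n = dq) {L : Lam dq I}
    {K b : ℝ} {h ρ : I → ℝ} (D : Dep L K b h ρ) : SqExt L (D.fillBall e he) b where
  sub := dq_subset e he
  b0 := D.cst.b0
  b2 := D.cst.b2
  c i z hz := D.fillBall_c_bd e he i hz
  B i z hz := D.fillBall_B_bd e he i hz
  tr i z hz hc s hs := D.fillBall_tr_bd e he i hz hc hs

variable [Fintype I] {g : Gd E κ} {p : Pcs g dq I} {hI : g.Is dq} {M : Lam q I} {b : ℝ}

/-- the colour data of a filling -/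
noncomputable def fgd (p : Pcs g dq I) (M : Lam q I) (g0 : κ → ℤ) : Gd E κ :=
  M.gd p.col p.ε g0

theorem fgd_is (g0 : κ → ℤ) (hd : M.Dj p.col) : (fgd p M g0).Is q :=
  Lam.gd_is p.ε g0 hd p.hε

/-- **on the boundary the new data are the old data squeezed by `2b`** (for any filling rule) -/
theorem SqExt.gd_eqs (D : SqExt (p.lam hI) M b) (hdj : M.Dj p.col) (g0 : κ → ℤ)
    (hg : ∀ a, ∀ z ∈ dq, g.G a z = g0 a + stp p.col p.ε a (fun x => p.c x z)) :
    (g.sq b).Eqs (fgd p M g0) dq := by
  have hb0 := D.b0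
  have hb2 := D.b2
  have c' : ∀ x, ∀ z ∈ dq, M.c x z = cl (p.c x z / (2 * b)) := D.c
  have B' : ∀ x, ∀ z ∈ dq, z ∈ M.B x ↔ |p.c x z| ≤ b := D.B
  have PB : ∀ x, ∀ z ∈ dq, |p.c x z| ≤ b → z ∈ p.P x := fun x z hz hc =>
    p.cn x z hz (lt_of_le_of_lt hc hb2)
  have key : ∀ a, ∀ z ∈ dq, (fgd p M g0).G a z = (g.sq b).G a z := by
    intro a z hz
    show (g0 a : ℝ) + stp p.col p.ε a (fun x => M.c x z) = _
    by_cases hB : z ∈ g.B a
    · obtain ⟨x, hx, hxP⟩ := p.cov a z hz hB
      have h1 : stp p.col p.ε a (fun x => M.c x z)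
          - stp p.col p.ε a (fun x => p.c x z)
          = p.ε x * (M.c x z - p.c x z) := by
        refine stp_sub (f := fun x => M.c x z) (f' := fun x => p.c x z) hx
          fun y hy hya => ?_
        rw [c' y z hz]
        refine cl_half hb0 hb2 (p.half hz ?_)
        exact fun hc => p.col_ne hy hc hxP (hya.trans hx.symm)
      have h2 : p.ε x * p.c x z = g.G a z - g.lev a z - 1/2 := by
        rw [p.cP x z hxP, sgn_sgn (p.hε x), hx]
      rw [Gd.sq_G_mem hB, ← h2, mul_div_assoc, cl_sgn (p.hε x), ← c' x z hz]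
      have h3 := hg a z hz
      rw [mul_sub] at h1
      linarith
    · rw [Gd.sq_G_notMem hB, hg a z hz]
      congr 1
      refine stp_congr fun y hy => ?_
      rw [c' y z hz]
      refine cl_half hb0 hb2 (p.half hz ?_)
      exact fun hc => hB (hy ▸ p.PB y hc)
  have kB : ∀ a, ∀ z ∈ dq, ∀ x, p.col x = a → z ∈ p.P x →
      (|g.G a z - g.lev a z - 1/2| ≤ b ↔ |p.c x z| ≤ b) := by
    intro a z hz x hx hxP
    have h2 : p.ε x * p.c x z = g.G a z - g.lev a z - 1/2 := by
      rw [p.cP x z hxP, sgn_sgn (p.hε x), hx]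
    rw [← h2, abs_mul]
    rcases p.hε x with h | h <;> rw [h] <;> simp
  refine ⟨key, ?_, ?_, ?_⟩
  · intro a z hz
    constructor
    · rintro ⟨x, hx, hxB⟩
      have h1 := (B' x z hz).1 hxB
      have h2 := PB x z hz h1
      exact ⟨hx ▸ p.PB x h2, (kB a z hz x hx h2).2 h1⟩
    · rintro ⟨h1, h2⟩
      obtain ⟨x, hx, hxP⟩ := p.cov a z hz h1
      exact ⟨x, hx, (B' x z hz).2 ((kB a z hz x hx hxP).1 h2)⟩
  · rintro a z hz ⟨h1, h2⟩
    obtain ⟨x, hx, hxP⟩ := p.cov a z hz h1
    have hxB := (B' x z hz).2 ((kB a z hz x hx hxP).1 h2)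
    have h3 := key a z hz
    rw [Gd.sq_G_mem h1] at h3
    show (M.gd p.col p.ε g0).lev a z = g.lev a z
    rw [hdj.lev p.ε g0 hx hxB]
    have h4 : p.ε x * p.c x z = g.G a z - g.lev a z - 1/2 := by
      rw [p.cP x z hxP, sgn_sgn (p.hε x), hx]
    rw [← h4, mul_div_assoc, cl_sgn (p.hε x), ← c' x z hz] at h3
    have h5 : (fgd p M g0).G a z = g0 a + stp p.col p.ε a (fun x => M.c x z) := rfl
    rw [h5] at h3
    linarith
  · rintro a z hz ⟨h1, h2⟩ s hs
    obtain ⟨x, hx, hxP⟩ := p.cov a z hz h1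
    have hc := (kB a z hz x hx hxP).1 h2
    have hxB := (B' x z hz).2 hc
    show (M.gd p.col p.ε g0).tr a (z, s) = g.tr a (z, 2 * b * s)
    rw [hdj.tr p.ε g0 hx hxB, D.tr x z hz hc _ (sgn_mul_mem (p.hε x) hs)]
    show g.tr (p.col x) (z, p.ε x * (2 * b * (p.ε x * s))) = _
    rw [hx]
    congr 2
    rcases p.hε x with h | h <;> rw [h] <;> ring

/-! ### reversal of some of the band functions -/

/-- reverse the band functions of the pieces with `f x = true` -/
noncomputable def flip {S : Set E} (p : Pcs g S I) (f : I → Bool) : Pcs g S I where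
  col := p.col
  ε x := if f x then - p.ε x else p.ε x
  P := p.P
  c x z := if f x then - p.c x z else p.c x z
  hε x := by
    by_cases h : f x
    · simp only [h, if_true]; rcases p.hε x with h' | h' <;> rw [h'] <;> norm_num
    · simp only [h, if_false]; exact p.hε x
  Pc := p.Pc
  PS := p.PS
  PB := p.PB
  cov := p.cov
  dis := p.dis
  pc x := by
    by_cases h : f x
    · simp only [h, if_true]; exact pl_neg (p.pc x)
    · simp only [h, if_false]; exact p.pc x
  cm x z hz := by
    by_cases h : f x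
    · simp only [h, if_true]
      have := p.cm x z hz
      exact ⟨by linarith [this.2], by linarith [this.1]⟩
    · simp only [h, if_false]; exact p.cm x z hz
  cP x z hz := by
    by_cases h : f x
    · simp only [h, if_true]; rw [p.cP x z hz]; ring
    · simp only [h, if_false]; exact p.cP x z hz
  cn x z hz hc := by
    by_cases h : f x
    · simp only [h, if_true, abs_neg] at hc; exact p.cn x z hz hc
    · simp only [h, if_false] at hc; exact p.cn x z hz hc

end Crest.Agent.R096.Fc_522
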