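import Crest.Agent.R096.Bd3_416

/-!
# R096 (row 96), P4-FACE, part 1: restriction and gluing of LAM-structures (helper522)
-/

set_option autoImplicit false

open Set Metric

namespace Crest.Agent.R096.Bd_416.Lam

open Crest.Agent.R096.Ce_537

variable {E : Type*} [NormedAddCommGroup E] [NormedSpace ℝ E] {Z Y : Set E} {ι : Type*}

/-- restriction to a closed subset which is invariant under the transports -/
def restrict522 (L : Lam Z ι) (hY : IsClosed Y) (hYZ : Y ⊆ Z)
    (hinv : ∀ i, ∀ z ∈ L.B i, z ∈ Y → ∀ s ∈ I2, L.tr i (z, s) ∈ Y) : Lam Y ι where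
  c := L.c
  B i := L.B i ∩ Y
  tr := L.tr
  pc i := (L.pc i).mono hYZ
  cm i z hz := L.cm i z (hYZ hz)
  Bc i := (L.Bc i).inter hY
  BZ i z hz := hz.2
  Bm i z hz hc := ⟨L.Bm i z (hYZ hz) hc, hz⟩
  pt i := (L.pt i).mono (prod_mono inter_subset_left Subset.rfl)
  trB i z hz s hs := ⟨L.trB i z hz.1 s hs, hinv i z hz.1 hz.2 s hs⟩
  ctr i z hz s hs := L.ctr i z hz.1 s hs
  tr_self i z hz := L.tr_self i z hz.1
  tr_tr i z hz s hs s' hs' := L.tr_tr i z hz.1 s hs s' hs'
  co i j hij z hz s hs := L.co i j hij z hz.1 s hs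
  Bo i j hij z hz hz' s hs := ⟨L.Bo i j hij z hz.1 hz'.1 s hs, hinv i z hz.1 hz.2 s hs⟩
  comm i j hij z hz hz' s hs t ht := L.comm i j hij z hz.1 hz'.1 s hs t ht

open scoped Classical in
/-- gluing of two structures on closed sets which agree on the intersection -/
noncomputable def glue522 (L : Lam Z ι) (M : Lam Y ι) (hZ : IsClosed Z) (hY : IsClosed Y)
    (hc : ∀ i, ∀ z ∈ Z, z ∈ Y → L.c i z = M.c i z)
    (hB : ∀ i, ∀ z ∈ Z, z ∈ Y → (z ∈ L.B i ↔ z ∈ M.B i))
    (ht : ∀ i, ∀ z ∈ L.B i, z ∈ Y → ∀ s ∈ I2, L.tr i (z, s) = M.tr i (z, s)) :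
    Lam (Z ∪ Y) ι :=
  have hBL : ∀ i z, z ∈ Z → z ∈ L.B i ∪ M.B i → z ∈ L.B i := by
    rintro i z hz (h | h)
    · exact h
    · exact (hB i z hz (M.BZ i h)).2 h
  have hBM : ∀ i z, z ∈ Y → z ∈ L.B i ∪ M.B i → z ∈ M.B i := by
    rintro i z hz (h | h)
    · exact (hB i z (L.BZ i h) hz).1 h
    · exact h
  have cL : ∀ i z, z ∈ Z → (if z ∈ Z then L.c i z else M.c i z) = L.c i z := by
    intro i z hz; simp [hz]
  have cM : ∀ i z, z ∈ Y → (if z ∈ Z then L.c i z else M.c i z) = M.c i z := by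
    intro i z hz
    by_cases h : z ∈ Z
    · simp only [h, if_true]; exact hc i z h hz
    · simp [h]
  have tL : ∀ i z s, z ∈ L.B i → (if z ∈ Z then L.tr i (z, s) else M.tr i (z, s)) = L.tr i (z, s) := by
    intro i z s hz; simp [L.BZ i hz]
  have tM : ∀ i z s, z ∈ M.B i → s ∈ I2 →
      (if z ∈ Z then L.tr i (z, s) else M.tr i (z, s)) = M.tr i (z, s) := by
    intro i z s hz hs
    by_cases h : z ∈ Z
    · simp only [h, if_true]
      exact ht i z ((hB i z h (M.BZ i hz)).2 hz) (M.BZ i hz) s hs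
    · simp [h]
  { c := fun i z => if z ∈ Z then L.c i z else M.c i z
    B := fun i => L.B i ∪ M.B i
    tr := fun i p => if p.1 ∈ Z then L.tr i p else M.tr i p
    pc := fun i => PLOn.union ((L.pc i).congr fun z hz => cL i z hz)
      ((M.pc i).congr fun z hz => cM i z hz) hZ hY
    cm := by
      rintro i z (hz | hz)
      · show (if z ∈ Z then _ else _) ∈ I2
        rw [cL i z hz]; exact L.cm i z hz
      · show (if z ∈ Z then _ else _) ∈ I2
        rw [cM i z hz]; exact M.cm i z hz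
    Bc := fun i => (L.Bc i).union (M.Bc i)
    BZ := fun i => union_subset_union (L.BZ i) (M.BZ i)
    Bm := by
      rintro i z (hz | hz) h
      · rw [cL i z hz] at h; exact Or.inl (L.Bm i z hz h)
      · rw [cM i z hz] at h; exact Or.inr (M.Bm i z hz h)
    pt := by
      intro i
      rw [union_prod]
      refine PLOn.union ((L.pt i).congr ?_) ((M.pt i).congr ?_) ((L.Bc i).prod isClosed_Icc)
        ((M.Bc i).prod isClosed_Icc)
      · rintro ⟨z, s⟩ hp; exact tL i z s hp.1
      · rintro ⟨z, s⟩ hp; exact tM i z s hp.1 hp.2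
    trB := by
      rintro i z (hz | hz) s hs
      · left; show (if z ∈ Z then L.tr i (z, s) else M.tr i (z, s)) ∈ _
        rw [tL i z s hz]; exact L.trB i z hz s hs
      · right; show (if z ∈ Z then L.tr i (z, s) else M.tr i (z, s)) ∈ _
        rw [tM i z s hz hs]; exact M.trB i z hz s hs
    ctr := by
      rintro i z (hz | hz) s hs
      · rw [tL i z s hz, cL i _ (L.BZ i (L.trB i z hz s hs))]; exact L.ctr i z hz s hs
      · rw [tM i z s hz hs, cM i _ (M.BZ i (M.trB i z hz s hs))]; exact M.ctr i z hz s hs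
    tr_self := by
      rintro i z (hz | hz)
      · rw [cL i z (L.BZ i hz), tL i z _ hz]; exact L.tr_self i z hz
      · rw [cM i z (M.BZ i hz), tM i z _ hz (M.cm i z (M.BZ i hz))]; exact M.tr_self i z hz
    tr_tr := by
      rintro i z (hz | hz) s hs s' hs'
      · rw [tL i z s hz, tL i z s' hz]
        show (if L.tr i (z, s) ∈ Z then L.tr i (L.tr i (z, s), s') else _) = _
        rw [if_pos (L.BZ i (L.trB i z hz s hs))]
        exact L.tr_tr i z hz s hs s' hs'
      · rw [tM i z s hz hs, tM i z s' hz hs']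
        show (if M.tr i (z, s) ∈ Z then L.tr i (M.tr i (z, s), s') else
          M.tr i (M.tr i (z, s), s')) = _
        rw [tM i (M.tr i (z, s)) s' (M.trB i z hz s hs) hs']
        exact M.tr_tr i z hz s hs s' hs'
    co := by
      rintro i j hij z (hz | hz) s hs
      · rw [tL i z s hz, cL j _ (L.BZ i (L.trB i z hz s hs)), cL j z (L.BZ i hz)]
        exact L.co i j hij z hz s hs
      · rw [tM i z s hz hs, cM j _ (M.BZ i (M.trB i z hz s hs)), cM j z (M.BZ i hz)]
        exact M.co i j hij z hz s hs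
    Bo := by
      rintro i j hij z (hz | hz) hz' s hs
      · left; show (if z ∈ Z then L.tr i (z, s) else M.tr i (z, s)) ∈ _
        rw [tL i z s hz]
        exact L.Bo i j hij z hz (hBL j z (L.BZ i hz) hz') s hs
      · right; show (if z ∈ Z then L.tr i (z, s) else M.tr i (z, s)) ∈ _
        rw [tM i z s hz hs]
        exact M.Bo i j hij z hz (hBM j z (M.BZ i hz) hz') s hs
    comm := by
      rintro i j hij z (hz | hz) hz' s hs t ht'
      · have hj := hBL j z (L.BZ i hz) hz'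
        rw [tL i z s hz, tL j z t hj]
        show (if L.tr j (z, t) ∈ Z then L.tr i (L.tr j (z, t), s) else _)
          = (if L.tr i (z, s) ∈ Z then L.tr j (L.tr i (z, s), t) else _)
        rw [if_pos (L.BZ j (L.trB j z hj t ht')), if_pos (L.BZ i (L.trB i z hz s hs))]
        exact L.comm i j hij z hz hj s hs t ht'
      · have hj := hBM j z (M.BZ i hz) hz'
        rw [tM i z s hz hs, tM j z t hj ht']
        have h1 : M.tr j (z, t) ∈ M.B i := M.Bo j i hij.symm z hj hz t ht'
        have h2 : M.tr i (z, s) ∈ M.B j := M.Bo i j hij z hz hj s hs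
        show (if M.tr j (z, t) ∈ Z then L.tr i (M.tr j (z, t), s) else
            M.tr i (M.tr j (z, t), s))
          = (if M.tr i (z, s) ∈ Z then L.tr j (M.tr i (z, s), t) else
            M.tr j (M.tr i (z, s), t))
        rw [tM i (M.tr j (z, t)) s h1 hs, tM j (M.tr i (z, s)) t h2 ht']
        exact M.comm i j hij z hz hj s hs t ht' }

section glue

variable (L : Lam Z ι) (M : Lam Y ι) (hZ : IsClosed Z) (hY : IsClosed Y)
    (hc : ∀ i, ∀ z ∈ Z, z ∈ Y → L.c i z = M.c i z)
    (hB : ∀ i, ∀ z ∈ Z, z ∈ Y → (z ∈ L.B i ↔ z ∈ M.B i))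
    (ht : ∀ i, ∀ z ∈ L.B i, z ∈ Y → ∀ s ∈ I2, L.tr i (z, s) = M.tr i (z, s))

lemma glue522_B (i : ι) : (L.glue522 M hZ hY hc hB ht).B i = L.B i ∪ M.B i := rfl

lemma glue522_c_left {i : ι} {z : E} (hz : z ∈ Z) :
    (L.glue522 M hZ hY hc hB ht).c i z = L.c i z := by
  simp [glue522, hz]

lemma glue522_c_right {i : ι} {z : E} (hz : z ∈ Y) :
    (L.glue522 M hZ hY hc hB ht).c i z = M.c i z := by
  by_cases h : z ∈ Z
  · rw [glue522_c_left L M hZ hY hc hB ht h, hc i z h hz]
  · simp [glue522, h]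

lemma glue522_tr_left {i : ι} {z : E} (hz : z ∈ L.B i) (s : ℝ) :
    (L.glue522 M hZ hY hc hB ht).tr i (z, s) = L.tr i (z, s) := by
  simp [glue522, L.BZ i hz]

lemma glue522_tr_right {i : ι} {z : E} (hz : z ∈ M.B i) {s : ℝ} (hs : s ∈ I2) :
    (L.glue522 M hZ hY hc hB ht).tr i (z, s) = M.tr i (z, s) := by
  by_cases h : z ∈ Z
  · have h1 : z ∈ L.B i := (hB i z h (M.BZ i hz)).2 hz
    rw [glue522_tr_left L M hZ hY hc hB ht h1, ht i z h1 (M.BZ i hz) s hs]
  · simp [glue522, h]

end glue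

end Crest.Agent.R096.Bd_416.Lam
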