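import Crest.Agent.R096.Fc1_522

/-!
# R096 (row 96), P4-FACE, part 2: the PL shift of the collar of the square (helper522)
-/

set_option autoImplicit false

open Set Metric

namespace Crest.Agent.R096.Fc_522

open Crest.Agent.R096.Ce_537 Crest.Agent.R096.Bd_416

/-- the interval of one side -/
abbrev J : Set ℝ := Icc (-1) 1

/-- an increasing PL homeo `k` of `[-1,1]` with inverse `k'` -/
structure Mono (k k' : ℝ → ℝ) : Prop where
  pk : PLOn k J
  pk' : PLOn k' J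
  mem : ∀ x ∈ J, k x ∈ J
  mem' : ∀ x ∈ J, k' x ∈ J
  li : ∀ x ∈ J, k' (k x) = x
  ri : ∀ x ∈ J, k (k' x) = x
  lo : k (-1) = -1
  hi : k 1 = 1
  mono : ∀ x ∈ J, ∀ y ∈ J, x ≤ y → k x ≤ k y

namespace Mono

variable {k k' : ℝ → ℝ} (M : Mono k k')
include M

lemma lo' : k' (-1) = -1 := by
  have := M.li (-1) ⟨le_rfl, by norm_num⟩
  rwa [M.lo] at this

lemma hi' : k' 1 = 1 := by
  have := M.li 1 ⟨by norm_num, le_rfl⟩
  rwa [M.hi] at this

lemma mono' : ∀ x ∈ J, ∀ y ∈ J, x ≤ y → k' x ≤ k' y := by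
  intro x hx y hy h
  by_contra hc
  have h1 := M.mono _ (M.mem' y hy) _ (M.mem' x hx) (not_le.1 hc).le
  rw [M.ri y hy, M.ri x hx] at h1
  have : x = y := le_antisymm h h1
  rw [this] at hc
  exact hc le_rfl

lemma symm : Mono k' k := ⟨M.pk', M.pk, M.mem', M.mem, M.ri, M.li, M.lo', M.hi', M.mono'⟩

end Mono

/-- the path from the identity to `k`: every point moves with speed one until it arrives -/
noncomputable def mv (k : ℝ → ℝ) (t x : ℝ) : ℝ := max (min (k x) (x + t)) (x - t)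

lemma mv_zero (k : ℝ → ℝ) (x : ℝ) : mv k 0 x = x := by
  unfold mv
  rw [add_zero, sub_zero]
  exact max_eq_right (min_le_right _ _)

lemma mv_of_le {k : ℝ → ℝ} {t x : ℝ} (h : |k x - x| ≤ t) : mv k t x = k x := by
  obtain ⟨h1, h2⟩ := abs_le.1 h
  unfold mv
  rw [min_eq_left (by linarith), max_eq_left (by linarith)]

lemma mv_fix {k : ℝ → ℝ} {t x : ℝ} (ht : 0 ≤ t) (h : k x = x) : mv k t x = x := by
  rw [mv_of_le (by rw [h, sub_self, abs_zero]; exact ht), h]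

lemma mv_mem {k : ℝ → ℝ} {t x : ℝ} (ht : 0 ≤ t) (hx : x ∈ J) (hk : k x ∈ J) : mv k t x ∈ J := by
  unfold mv
  constructor
  · rcases le_total (k x) (x + t) with h | h
    · rw [min_eq_left h]; exact hk.1.trans (le_max_left _ _)
    · rw [min_eq_right h]
      refine le_trans ?_ (le_max_left _ _)
      linarith [hx.1]
  · refine max_le ((min_le_left _ _).trans hk.2) ?_
    linarith [hx.2]

lemma mv_mv {k k' : ℝ → ℝ} (M : Mono k k') {t x : ℝ} (ht : 0 ≤ t) (hx : x ∈ J) :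
    mv k' t (mv k t x) = x := by
  have hk := M.mem x hx
  rcases le_total (k x) (x + t) with h | h
  · rcases le_total (x - t) (k x) with h' | h'
    · have e : mv k t x = k x := mv_of_le (abs_le.2 ⟨by linarith, by linarith⟩)
      rw [e, mv_of_le, M.li x hx]
      rw [M.li x hx]
      exact abs_le.2 ⟨by linarith, by linarith⟩
    · -- `k x ≤ x - t`
      have e : mv k t x = x - t := by
        unfold mv; rw [min_eq_left h, max_eq_right h']
      have hm : x - t ∈ J := ⟨by linarith [hk.1], by linarith [hx.2]⟩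
      have h3 : x ≤ k' (x - t) := by
        have := M.mono' _ hk _ hm h'
        rwa [M.li x hx] at this
      rw [e]; unfold mv
      rw [min_eq_right (by linarith), max_eq_left (by linarith)]; ring
  · have e : mv k t x = x + t := by
      unfold mv; rw [min_eq_right h, max_eq_left (by linarith)]
    have hm : x + t ∈ J := ⟨by linarith [hx.1], by linarith [hk.2]⟩
    have h3 : k' (x + t) ≤ x := by
      have := M.mono' _ hm _ hk h
      rwa [M.li x hx] at this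
    rw [e]; unfold mv
    have h4 : min (k' (x + t)) (x + t + t) = k' (x + t) := min_eq_left (by linarith)
    rw [h4, max_eq_right (by linarith)]; ring

lemma mv_mono {k : ℝ → ℝ} {t x y : ℝ} (hk : k x ≤ k y) (h : x ≤ y) : mv k t x ≤ mv k t y :=
  max_le_max (min_le_min hk (by linarith)) (by linarith)

section pl

variable {E : Type*} [NormedAddCommGroup E] [NormedSpace ℝ E] {Z : Set E}

lemma pl_mv {k : ℝ → ℝ} (hk : PLOn k J) {t x : E → ℝ} (ht : PLOn t Z) (hx : PLOn x Z)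
    (hm : MapsTo x Z J) : PLOn (fun z => mv k (t z) (x z)) Z :=
  pl_max (pl_min (hk.comp hx hm) (pl_add hx ht)) (pl_sub hx ht)

end pl

/-! ### the circle `sph 2` and its four sides -/

/-- four side functions: `b` (bottom, `ω 1 = -1`), `t` (top), `l` (left, `ω 0 = -1`), `r` (right) -/
structure Sides where
  (b b' t t' l l' r r' : ℝ → ℝ)
  hb : Mono b b'
  ht : Mono t t'
  hl : Mono l l'
  hr : Mono r r'

/-- the inverse -/
def Sides.symm (S : Sides) : Sides :=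
  ⟨S.b', S.b, S.t', S.t, S.l', S.l, S.r', S.r, S.hb.symm, S.ht.symm, S.hl.symm, S.hr.symm⟩

lemma sph_mem {ω : Fin 2 → ℝ} (h : ω ∈ sph 2) (i : Fin 2) : ω i ∈ J := by
  have h1 : ‖ω‖ = 1 := by simpa using h
  have := abs_apply_le ω i
  rw [h1] at this
  exact abs_le.1 this

lemma sph_cases {ω : Fin 2 → ℝ} (h : ω ∈ sph 2) :
    ω 1 = -1 ∨ ω 1 = 1 ∨ ω 0 = -1 ∨ ω 0 = 1 := by
  have h1 : ‖ω‖ = 1 := by simpa using h
  have h0 : ω ≠ 0 := by rintro rfl; simp at h1
  obtain ⟨i, hi⟩ := exists_coord h0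
  rw [h1] at hi
  have hi' : |ω i| = 1 := hi.symm
  fin_cases i
  · have hi'' : |ω 0| = 1 := hi'
    rcases (abs_eq zero_le_one).1 hi'' with h | h
    · exact Or.inr (Or.inr (Or.inr h))
    · exact Or.inr (Or.inr (Or.inl h))
  · have hi'' : |ω 1| = 1 := hi'
    rcases (abs_eq zero_le_one).1 hi'' with h | h
    · exact Or.inr (Or.inl h)
    · exact Or.inl h

lemma mem_sph {ω : Fin 2 → ℝ} (h0 : ω 0 ∈ J) (h1 : ω 1 ∈ J)
    (h : ω 1 = -1 ∨ ω 1 = 1 ∨ ω 0 = -1 ∨ ω 0 = 1) : ω ∈ sph 2 := by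
  have a0 : |ω 0| ≤ 1 := abs_le.2 h0
  have a1 : |ω 1| ≤ 1 := abs_le.2 h1
  have hn : ‖ω‖ = 1 := by
    apply le_antisymm
    · rw [pi_norm_le_iff_of_nonneg zero_le_one]
      intro i; fin_cases i
      · exact a0
      · exact a1
    · rcases h with h | h | h | h
      · have := abs_apply_le ω 1; rw [h] at this; simpa using this
      · have := abs_apply_le ω 1; rw [h] at this; simpa using this
      · have := abs_apply_le ω 0; rw [h] at this; simpa using this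
      · have := abs_apply_le ω 0; rw [h] at this; simpa using this
  simpa using hn

open scoped Classical in
/-- the shift of the circle at time `t` -/
noncomputable def sh (S : Sides) (t : ℝ) (ω : Fin 2 → ℝ) : Fin 2 → ℝ :=
  ![if ω 1 = -1 then mv S.b t (ω 0) else if ω 1 = 1 then mv S.t t (ω 0) else ω 0,
    if ω 0 = -1 then mv S.l t (ω 1) else if ω 0 = 1 then mv S.r t (ω 1) else ω 1]

section sh

variable (S : Sides) {t : ℝ} {ω : Fin 2 → ℝ}

lemma sh_zero (ω : Fin 2 → ℝ) : sh S 0 ω = ω := by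
  unfold sh
  simp only [mv_zero, ite_self]
  funext i; fin_cases i <;> rfl

lemma mvb_end {t : ℝ} (ht : 0 ≤ t) {x : ℝ} {k k' : ℝ → ℝ} (M : Mono k k') (h : x = -1 ∨ x = 1) :
    mv k t x = x := by
  rcases h with h | h
  · rw [h]; exact mv_fix ht M.lo
  · rw [h]; exact mv_fix ht M.hi

lemma sh_bot (ht : 0 ≤ t) (hω : ω ∈ sph 2) (h : ω 1 = -1) : sh S t ω = ![mv S.b t (ω 0), -1] := by
  unfold sh
  have e : (if ω 0 = -1 then mv S.l t (ω 1) else if ω 0 = 1 then mv S.r t (ω 1) else ω 1)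
      = -1 := by
    rw [h]
    split_ifs
    · exact mvb_end ht S.hl (Or.inl rfl)
    · exact mvb_end ht S.hr (Or.inl rfl)
    · rfl
  rw [e, if_pos h]

lemma sh_top (ht : 0 ≤ t) (hω : ω ∈ sph 2) (h : ω 1 = 1) : sh S t ω = ![mv S.t t (ω 0), 1] := by
  unfold sh
  have e : (if ω 0 = -1 then mv S.l t (ω 1) else if ω 0 = 1 then mv S.r t (ω 1) else ω 1)
      = 1 := by
    rw [h]
    split_ifs
    · exact mvb_end ht S.hl (Or.inr rfl)
    · exact mvb_end ht S.hr (Or.inr rfl)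
    · rfl
  rw [e, if_neg (by rw [h]; norm_num), if_pos h]

lemma sh_left (ht : 0 ≤ t) (hω : ω ∈ sph 2) (h : ω 0 = -1) : sh S t ω = ![-1, mv S.l t (ω 1)] := by
  unfold sh
  have e : (if ω 1 = -1 then mv S.b t (ω 0) else if ω 1 = 1 then mv S.t t (ω 0) else ω 0)
      = -1 := by
    rw [h]
    split_ifs
    · exact mvb_end ht S.hb (Or.inl rfl)
    · exact mvb_end ht S.ht (Or.inl rfl)
    · rfl
  rw [e, if_pos h]

lemma sh_right (ht : 0 ≤ t) (hω : ω ∈ sph 2) (h : ω 0 = 1) : sh S t ω = ![1, mv S.r t (ω 1)] := by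
  unfold sh
  have e : (if ω 1 = -1 then mv S.b t (ω 0) else if ω 1 = 1 then mv S.t t (ω 0) else ω 0)
      = 1 := by
    rw [h]
    split_ifs
    · exact mvb_end ht S.hb (Or.inr rfl)
    · exact mvb_end ht S.ht (Or.inr rfl)
    · rfl
  rw [e, if_neg (by rw [h]; norm_num), if_pos h]

lemma sh_mem (ht : 0 ≤ t) (hω : ω ∈ sph 2) : sh S t ω ∈ sph 2 := by
  have h0 := sph_mem hω 0
  have h1 := sph_mem hω 1
  rcases sph_cases hω with h | h | h | h
  · rw [sh_bot S ht hω h]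
    exact mem_sph (mv_mem ht h0 (S.hb.mem _ h0)) ⟨le_rfl, by norm_num⟩ (Or.inl rfl)
  · rw [sh_top S ht hω h]
    exact mem_sph (mv_mem ht h0 (S.ht.mem _ h0)) ⟨by norm_num, le_rfl⟩ (Or.inr (Or.inl rfl))
  · rw [sh_left S ht hω h]
    exact mem_sph (ω := ![-1, mv S.l t (ω 1)]) ⟨le_rfl, by norm_num⟩
      (mv_mem ht h1 (S.hl.mem _ h1)) (Or.inr (Or.inr (Or.inl rfl)))
  · rw [sh_right S ht hω h]
    exact mem_sph (ω := ![1, mv S.r t (ω 1)]) ⟨by norm_num, le_rfl⟩
      (mv_mem ht h1 (S.hr.mem _ h1)) (Or.inr (Or.inr (Or.inr rfl)))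

lemma eq_vec {ω : Fin 2 → ℝ} : ω = ![ω 0, ω 1] := by
  funext i; fin_cases i <;> rfl

lemma sh_sh (ht : 0 ≤ t) (hω : ω ∈ sph 2) : sh S.symm t (sh S t ω) = ω := by
  have hm := sh_mem S ht hω
  have h0 := sph_mem hω 0
  have h1 := sph_mem hω 1
  rcases sph_cases hω with h | h | h | h
  · rw [sh_bot S ht hω h] at hm ⊢
    rw [sh_bot S.symm ht hm rfl]
    show ![mv S.b' t (mv S.b t (ω 0)), -1] = ω
    rw [mv_mv S.hb ht h0, ← h, ← eq_vec]
  · rw [sh_top S ht hω h] at hm ⊢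
    rw [sh_top S.symm ht hm rfl]
    show ![mv S.t' t (mv S.t t (ω 0)), 1] = ω
    rw [mv_mv S.ht ht h0, ← h, ← eq_vec]
  · rw [sh_left S ht hω h] at hm ⊢
    rw [sh_left S.symm ht hm rfl]
    show ![-1, mv S.l' t (mv S.l t (ω 1))] = ω
    rw [mv_mv S.hl ht h1, ← h, ← eq_vec]
  · rw [sh_right S ht hω h] at hm ⊢
    rw [sh_right S.symm ht hm rfl]
    show ![1, mv S.r' t (mv S.r t (ω 1))] = ω
    rw [mv_mv S.hr ht h1, ← h, ← eq_vec]

end sh

lemma isClosed_side (i : Fin 2) (a : ℝ) : IsClosed {ω : Fin 2 → ℝ | ω i = a} :=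
  isClosed_eq (continuous_apply i) continuous_const

section plsh

variable {E : Type*} [NormedAddCommGroup E] [NormedSpace ℝ E] {Z : Set E}

lemma pl_sh (S : Sides) {t : E → ℝ} {w : E → Fin 2 → ℝ} (hZ : IsClosed Z) (ht : PLOn t Z)
    (hw : PLOn w Z) (hm : MapsTo w Z (sph 2)) (h0 : ∀ z ∈ Z, 0 ≤ t z) :
    PLOn (fun z => sh S (t z) (w z)) Z := by
  have hc : ContinuousOn w Z := hw.1
  have cl' : ∀ (i : Fin 2) (a : ℝ), IsClosed (Z ∩ {z | w z i = a}) := fun i a =>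
    hc.preimage_isClosed_of_isClosed hZ (isClosed_side i a)
  have p0 : PLOn (fun z => w z 0) Z := pl_apply hw 0
  have p1 : PLOn (fun z => w z 1) Z := pl_apply hw 1
  have m0 : MapsTo (fun z => w z 0) Z J := fun z hz => sph_mem (hm hz) 0
  have m1 : MapsTo (fun z => w z 1) Z J := fun z hz => sph_mem (hm hz) 1
  have vec : ∀ {f g : E → ℝ} {K : Set E}, PLOn f K → PLOn g K → PLOn (fun z => ![f z, g z]) K := by
    intro f g K hf hg
    refine pl_pi fun i => ?_
    fin_cases i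
    · exact hf
    · exact hg
  have hU : Z ⊆ (Z ∩ {z | w z 1 = -1}) ∪ ((Z ∩ {z | w z 1 = 1}) ∪
      ((Z ∩ {z | w z 0 = -1}) ∪ (Z ∩ {z | w z 0 = 1}))) := by
    intro z hz
    rcases sph_cases (hm hz) with h | h | h | h
    · exact Or.inl ⟨hz, h⟩
    · exact Or.inr (Or.inl ⟨hz, h⟩)
    · exact Or.inr (Or.inr (Or.inl ⟨hz, h⟩))
    · exact Or.inr (Or.inr (Or.inr ⟨hz, h⟩))
  refine PLOn.mono (PLOn.union ?_ (PLOn.union ?_ (PLOn.union ?_ ?_ (cl' 0 (-1)) (cl' 0 1))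
    (cl' 1 1) ((cl' 0 (-1)).union (cl' 0 1))) (cl' 1 (-1))
    ((cl' 1 1).union ((cl' 0 (-1)).union (cl' 0 1)))) hU
  · exact ((vec (pl_mv S.hb.pk ht p0 m0) (plOn_const (-1 : ℝ) Z)).mono inter_subset_left).congr
      fun z hz => sh_bot S (h0 z hz.1) (hm hz.1) hz.2
  · exact ((vec (pl_mv S.ht.pk ht p0 m0) (plOn_const (1 : ℝ) Z)).mono inter_subset_left).congr
      fun z hz => sh_top S (h0 z hz.1) (hm hz.1) hz.2
  · exact ((vec (plOn_const (-1 : ℝ) Z) (pl_mv S.hl.pk ht p1 m1)).mono inter_subset_left).congr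
      fun z hz => sh_left S (h0 z hz.1) (hm hz.1) hz.2
  · exact ((vec (plOn_const (1 : ℝ) Z) (pl_mv S.hr.pk ht p1 m1)).mono inter_subset_left).congr
      fun z hz => sh_right S (h0 z hz.1) (hm hz.1) hz.2

end plsh

/-- THE SHIFT OF THE COLLAR `sph 2 × [r2, 1]`: the identity for `r ≥ r1`, and at `r = r2` the time is
`T (r1 - r2)` -/
noncomputable def shift (S : Sides) (T r1 r2 : ℝ) (hT : 0 ≤ T) :
    PLEquiv (sph 2 ×ˢ Icc r2 1) (sph 2 ×ˢ Icc r2 1) where
  f z := (sh S (T * max 0 (r1 - z.2)) z.1, z.2)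
  g z := (sh S.symm (T * max 0 (r1 - z.2)) z.1, z.2)
  pf := by
    have h1 : PLOn (fun z : (Fin 2 → ℝ) × ℝ => T * max 0 (r1 - z.2)) (sph 2 ×ˢ Icc r2 1) :=
      pl_mul T (pl_max (plOn_const _ _) (pl_sub (plOn_const r1 _) (pl_snd (plOn_id _))))
    exact pl_pair (pl_sh S (isClosed_sphere.prod isClosed_Icc) h1 (pl_fst (plOn_id _))
      (fun z hz => hz.1) (fun z _ => mul_nonneg hT (le_max_left _ _))) (pl_snd (plOn_id _))
  pg := by
    have h1 : PLOn (fun z : (Fin 2 → ℝ) × ℝ => T * max 0 (r1 - z.2)) (sph 2 ×ˢ Icc r2 1) :=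
      pl_mul T (pl_max (plOn_const _ _) (pl_sub (plOn_const r1 _) (pl_snd (plOn_id _))))
    exact pl_pair (pl_sh S.symm (isClosed_sphere.prod isClosed_Icc) h1 (pl_fst (plOn_id _))
      (fun z hz => hz.1) (fun z _ => mul_nonneg hT (le_max_left _ _))) (pl_snd (plOn_id _))
  mf z hz := ⟨sh_mem S (mul_nonneg hT (le_max_left _ _)) hz.1, hz.2⟩
  mg z hz := ⟨sh_mem S.symm (mul_nonneg hT (le_max_left _ _)) hz.1, hz.2⟩
  li z hz := Prod.ext (sh_sh S (mul_nonneg hT (le_max_left _ _)) hz.1) rfl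
  ri z hz := Prod.ext (sh_sh S.symm (mul_nonneg hT (le_max_left _ _)) hz.1) rfl

end Crest.Agent.R096.Fc_522
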