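import Crest.Agent.R096.Fc2_522
import Crest.Agent.R096.Bd6_416

/-!
# R096 (row 96), P4-FACE, part 3: product structure in the inner square, the outer collar with
ramps for the short chords only, and the glued structure on the square (helper522)
-/

set_option autoImplicit false

open Set Metric

namespace Crest.Agent.R096.Fc_522

open Crest.Agent.R096.Ce_537 Crest.Agent.R096.Bd_416

/-! ### the inner square -/

/-- data of the product structure on the inner square `{‖x‖ ≤ R}`: the index `i` is `lng`, its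
band is `{|x (ax i) - ξ i| ≤ ℓ i / 2}` -/
structure Inn (ι : Type*) (R : ℝ) where
  lng : ι → Prop
  ax : ι → Fin 2
  ξ : ι → ℝ
  σ : ι → ℝ
  ℓ : ι → ℝ
  hσ : ∀ i, σ i = 1 ∨ σ i = -1
  hℓ : ∀ i, 0 < ℓ i
  hξ : ∀ i, lng i → |ξ i| + ℓ i / 2 ≤ R
  sep : ∀ i j, i ≠ j → lng i → lng j → ax i = ax j → (ℓ i + ℓ j) / 2 < |ξ i - ξ j|

/-- the closed square of half side `R` -/
abbrev Sq (R : ℝ) : Set (Fin 2 → ℝ) := {x | ‖x‖ ≤ R}

lemma isClosed_Sq (R : ℝ) : IsClosed (Sq R) := isClosed_le continuous_norm continuous_const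

/-- change of the coordinate `a` -/
def upd (a : Fin 2) (x : Fin 2 → ℝ) (v : ℝ) : Fin 2 → ℝ := fun j => if j = a then v else x j

lemma upd_same (a : Fin 2) (x : Fin 2 → ℝ) (v : ℝ) : upd a x v a = v := by simp [upd]

lemma upd_ne {a j : Fin 2} (h : j ≠ a) (x : Fin 2 → ℝ) (v : ℝ) : upd a x v j = x j := by
  simp [upd, h]

lemma upd_upd (a : Fin 2) (x : Fin 2 → ℝ) (v w : ℝ) : upd a (upd a x v) w = upd a x w := by
  funext j; by_cases h : j = a <;> simp [upd, h]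

lemma upd_self (a : Fin 2) (x : Fin 2 → ℝ) : upd a x (x a) = x := by
  funext j; by_cases h : j = a <;> simp [upd, h]

lemma upd_comm {a c : Fin 2} (h : a ≠ c) (x : Fin 2 → ℝ) (v w : ℝ) :
    upd a (upd c x w) v = upd c (upd a x v) w := by
  funext j
  by_cases h1 : j = a
  · subst h1; simp [upd, h]
  · by_cases h2 : j = c
    · subst h2; simp [upd, h1]
    · simp [upd, h1, h2]

lemma upd_mem {a : Fin 2} {x : Fin 2 → ℝ} {v R : ℝ} (hx : ‖x‖ ≤ R) (hv : |v| ≤ R) :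
    ‖upd a x v‖ ≤ R := by
  have h0 : 0 ≤ R := (norm_nonneg _).trans hx
  rw [pi_norm_le_iff_of_nonneg h0]
  intro j
  by_cases h : j = a
  · rw [h, upd_same]; exact hv
  · rw [upd_ne h]; exact (norm_le_pi_norm x j).trans hx

lemma pl_upd {E : Type*} [NormedAddCommGroup E] [NormedSpace ℝ E] {Z : Set E} (a : Fin 2)
    {x : E → Fin 2 → ℝ} {v : E → ℝ} (hx : PLOn x Z) (hv : PLOn v Z) :
    PLOn (fun z => upd a (x z) (v z)) Z := by
  refine pl_pi fun j => ?_
  by_cases h : j = a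
  · simp only [upd, h, if_true]; exact hv
  · simp only [upd, h, if_false]; exact pl_apply hx j

namespace Inn

variable {ι : Type*} {R : ℝ} (N : Inn ι R)

open scoped Classical in
/-- band function -/
noncomputable def c (i : ι) (x : Fin 2 → ℝ) : ℝ :=
  if N.lng i then cl (N.σ i * ((x (N.ax i) - N.ξ i) / N.ℓ i)) else -1/2

/-- band -/
def B (i : ι) : Set (Fin 2 → ℝ) := {x | x ∈ Sq R ∧ N.lng i ∧ |x (N.ax i) - N.ξ i| ≤ N.ℓ i / 2}

/-- transport -/
def tr (i : ι) (p : (Fin 2 → ℝ) × ℝ) : Fin 2 → ℝ :=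
  upd (N.ax i) p.1 (N.ξ i + N.σ i * N.ℓ i * p.2)

lemma σσ (i : ι) : N.σ i * N.σ i = 1 := by rcases N.hσ i with h | h <;> rw [h] <;> norm_num

lemma absσ (i : ι) : |N.σ i| = 1 := by rcases N.hσ i with h | h <;> rw [h] <;> norm_num

lemma pos_abs {i : ι} {s : ℝ} (hs : s ∈ I2) : |N.ξ i + N.σ i * N.ℓ i * s - N.ξ i| ≤ N.ℓ i / 2 := by
  rw [add_sub_cancel_left, abs_mul, abs_mul, N.absσ, one_mul, abs_of_pos (N.hℓ i)]
  have := abs_le.2 (show -(1/2:ℝ) ≤ s ∧ s ≤ 1/2 from ⟨by linarith [hs.1], hs.2⟩)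
  nlinarith [N.hℓ i]

lemma pos_mem {i : ι} (hi : N.lng i) {s : ℝ} (hs : s ∈ I2) :
    |N.ξ i + N.σ i * N.ℓ i * s| ≤ R := by
  have h1 := N.pos_abs (i := i) hs
  have h2 := N.hξ i hi
  have h3 := abs_sub_abs_le_abs_sub (N.ξ i + N.σ i * N.ℓ i * s) (N.ξ i)
  linarith

lemma c_lng {i : ι} (hi : N.lng i) (x : Fin 2 → ℝ) :
    N.c i x = cl (N.σ i * ((x (N.ax i) - N.ξ i) / N.ℓ i)) := by simp [c, hi]

lemma c_of_B {i : ι} {x : Fin 2 → ℝ} (h : x ∈ N.B i) :
    N.c i x = N.σ i * ((x (N.ax i) - N.ξ i) / N.ℓ i) := by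
  rw [N.c_lng h.2.1]
  apply cl_of_mem
  have h1 : |N.σ i * ((x (N.ax i) - N.ξ i) / N.ℓ i)| ≤ 1/2 := by
    rw [abs_mul, N.absσ, one_mul, abs_div, abs_of_pos (N.hℓ i), div_le_iff₀ (N.hℓ i)]
    linarith [h.2.2]
  have := abs_le.1 h1
  exact ⟨by linarith [this.1], this.2⟩

lemma c_tr {i : ι} (hi : N.lng i) {x : Fin 2 → ℝ} {s : ℝ} (hs : s ∈ I2) :
    N.c i (N.tr i (x, s)) = s := by
  have h0 := N.hℓ i
  rw [N.c_lng hi, tr, upd_same, add_sub_cancel_left]
  have : N.σ i * (N.σ i * N.ℓ i * s / N.ℓ i) = s := by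
    have : N.σ i * (N.σ i * N.ℓ i * s / N.ℓ i) = (N.σ i * N.σ i) * s := by field_simp
    rw [this, N.σσ, one_mul]
  rw [this, cl_of_mem hs]

lemma tr_B {i : ι} {x : Fin 2 → ℝ} (h : x ∈ N.B i) {s : ℝ} (hs : s ∈ I2) :
    N.tr i (x, s) ∈ N.B i := by
  refine ⟨upd_mem h.1 (N.pos_mem h.2.1 hs), h.2.1, ?_⟩
  rw [tr, upd_same]; exact N.pos_abs hs

lemma ne_ax {i j : ι} (hij : i ≠ j) {x : Fin 2 → ℝ} (hx : x ∈ N.B i) (hx' : x ∈ N.B j) :
    N.ax j ≠ N.ax i := by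
  intro h
  have h1 := N.sep i j hij hx.2.1 hx'.2.1 h.symm
  have h2 := hx.2.2
  have h3 := hx'.2.2
  rw [h] at h3
  have h4 : |N.ξ i - N.ξ j| ≤ |x (N.ax i) - N.ξ i| + |x (N.ax i) - N.ξ j| := by
    have := abs_sub (x (N.ax i) - N.ξ j) (x (N.ax i) - N.ξ i)
    have e : x (N.ax i) - N.ξ j - (x (N.ax i) - N.ξ i) = N.ξ i - N.ξ j := by ring
    rw [e] at this
    linarith
  linarith

lemma c_other {i j : ι} (hij : i ≠ j) {x : Fin 2 → ℝ} (hx : x ∈ N.B i) {s : ℝ} (hs : s ∈ I2) :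
    N.c j (N.tr i (x, s)) = N.c j x := by
  by_cases hj : N.lng j
  · by_cases ha : N.ax j = N.ax i
    · have key : ∀ v : ℝ, |v - N.ξ i| ≤ N.ℓ i / 2 →
          cl (N.σ j * ((v - N.ξ j) / N.ℓ j)) = cl (N.σ j * ((N.ξ i - N.ξ j) / N.ℓ j)) := by
        intro v hv
        have h1 := N.sep i j hij hx.2.1 hj ha.symm
        have hl := N.hℓ j
        obtain ⟨v1, v2⟩ := abs_le.1 hv
        rw [cl_sgn (N.hσ j), cl_sgn (N.hσ j)]
        congr 1
        have hli := N.hℓ i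
        rcases le_total 0 (N.ξ i - N.ξ j) with h | h
        · rw [abs_of_nonneg h] at h1
          rw [cl_of_ge, cl_of_ge]
          · rw [le_div_iff₀ hl]; linarith
          · rw [le_div_iff₀ hl]; linarith
        · rw [abs_of_nonpos h] at h1
          rw [cl_of_le, cl_of_le]
          · rw [div_le_iff₀ hl]; linarith
          · rw [div_le_iff₀ hl]; linarith
      rw [N.c_lng hj, N.c_lng hj, ha, tr, upd_same, key _ (N.pos_abs hs), key _ hx.2.2]
    · rw [N.c_lng hj, N.c_lng hj, tr, upd_ne ha]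
  · simp [c, hj]

/-- THE PRODUCT STRUCTURE OF THE INNER SQUARE -/
noncomputable def lam : Lam (Sq R) ι where
  c := N.c
  B := N.B
  tr := N.tr
  pc i := by
    by_cases hi : N.lng i
    · refine (pl_cl (pl_mul (N.σ i) (pl_div (pl_sub_const (pl_apply (plOn_id (Sq R)) (N.ax i))
        (N.ξ i)) (N.ℓ i)))).congr fun x _ => N.c_lng hi x
    · refine (plOn_const (-1/2 : ℝ) _).congr fun x _ => ?_
      simp [c, hi]
  cm i z _ := by
    by_cases hi : N.lng i
    · rw [N.c_lng hi]; exact cl_mem _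
    · have : N.c i z = -1/2 := by simp [c, hi]
      rw [this]; exact ⟨le_rfl, by norm_num⟩
  Bc i := by
    by_cases hi : N.lng i
    · have : N.B i = Sq R ∩ {x | |x (N.ax i) - N.ξ i| ≤ N.ℓ i / 2} := by
        ext x; exact ⟨fun h => ⟨h.1, h.2.2⟩, fun h => ⟨h.1, hi, h.2⟩⟩
      rw [this]
      exact (isClosed_Sq R).inter (isClosed_le (continuous_abs.comp
        ((continuous_apply _).sub continuous_const)) continuous_const)
    · have : N.B i = ∅ := by
        ext x; exact ⟨fun h => (hi h.2.1).elim, fun h => h.elim⟩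
      rw [this]; exact isClosed_empty
  BZ i z hz := hz.1
  Bm i z hz hc := by
    by_cases hi : N.lng i
    · rw [N.c_lng hi] at hc
      have h1 := (abs_cl_lt hc).2
      rw [abs_mul, N.absσ, one_mul, abs_div, abs_of_pos (N.hℓ i), div_lt_iff₀ (N.hℓ i)] at h1
      exact ⟨hz, hi, by linarith⟩
    · have : N.c i z = -1/2 := by simp [c, hi]
      rw [this] at hc; norm_num [abs_of_neg] at hc
  pt i := pl_upd (N.ax i) (pl_fst (plOn_id _))
    (pl_add (plOn_const _ _) (pl_mul (N.σ i * N.ℓ i) (pl_snd (plOn_id _))))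
  trB i z hz s hs := N.tr_B hz hs
  ctr i z hz s hs := N.c_tr hz.2.1 hs
  tr_self i z hz := by
    rw [N.c_of_B hz, tr]
    have h0 := N.hℓ i
    have : N.ξ i + N.σ i * N.ℓ i * (N.σ i * ((z (N.ax i) - N.ξ i) / N.ℓ i)) = z (N.ax i) := by
      have : N.σ i * N.ℓ i * (N.σ i * ((z (N.ax i) - N.ξ i) / N.ℓ i))
          = (N.σ i * N.σ i) * (z (N.ax i) - N.ξ i) := by field_simp
      rw [this, N.σσ]; ring
    show upd (N.ax i) z _ = z
    rw [this, upd_self]
  tr_tr i z hz s hs s' hs' := by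
    show upd _ (upd _ z _) _ = upd _ z _
    rw [upd_upd]
  co i j hij z hz s hs := N.c_other hij hz hs
  Bo i j hij z hz hz' s hs := by
    refine ⟨(N.tr_B hz hs).1, hz'.2.1, ?_⟩
    rw [tr, upd_ne (N.ne_ax hij hz hz')]; exact hz'.2.2
  comm i j hij z hz hz' s hs t ht := upd_comm (N.ne_ax hij hz hz').symm z _ _

end Inn

end Crest.Agent.R096.Fc_522
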