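import Crest.Agent.R096.Fc3_522
import Crest.Agent.R096.Fc0_522

/-!
# R096 (row 96), P4-FACE, part 4: the outer collar with ramps for the short chords only, the glued
structure on the square (helper522)
-/

set_option autoImplicit false

open Set Metric

namespace Crest.Agent.R096.Fc_522

open Crest.Agent.R096.Ce_537 Crest.Agent.R096.Bd_416

variable {ι : Type*}

section pull

variable {E F : Type*} [NormedAddCommGroup E] [NormedSpace ℝ E]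
  [NormedAddCommGroup F] [NormedSpace ℝ F] {Z : Set E} {Z' : Set F}

lemma pull_c (L : Lam Z' ι) (e : PLEquiv Z Z') (hZ : IsClosed Z) (i : ι) (x : E) :
    (L.pull e hZ).c i x = L.c i (e.f x) := rfl

lemma pull_B (L : Lam Z' ι) (e : PLEquiv Z Z') (hZ : IsClosed Z) (i : ι) (x : E) :
    x ∈ (L.pull e hZ).B i ↔ x ∈ Z ∧ e.f x ∈ L.B i := Iff.rfl

lemma pull_tr (L : Lam Z' ι) (e : PLEquiv Z Z') (hZ : IsClosed Z) (i : ι) (p : E × ℝ) :
    (L.pull e hZ).tr i p = e.g (L.tr i (e.f p.1, p.2)) := rfl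

end pull

/-- the point of the circle over `x`, `‖x‖ = r`, moved by the time `t` -/
noncomputable def wv (S : Sides) (t r : ℝ) (x : Fin 2 → ℝ) : Fin 2 → ℝ :=
  sh S t (fun j => cf r (x j))

/-- the coordinates of the ring after the shift -/
noncomputable def cow (S : Sides) (T r1 : ℝ) (x : Fin 2 → ℝ) : (Fin 2 → ℝ) × ℝ :=
  (sh S (T * max 0 (r1 - ‖x‖)) (fun j => cf ‖x‖ (x j)), ‖x‖)

/-- the closed outer ring -/
def Rg (r : ℝ) : Set (Fin 2 → ℝ) := {x | r ≤ ‖x‖ ∧ ‖x‖ ≤ 1}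

lemma isClosed_Rg (r : ℝ) : IsClosed (Rg r) :=
  (isClosed_le continuous_const continuous_norm).inter
    (isClosed_le continuous_norm continuous_const)

/-- the outer product -/
abbrev Zc (r : ℝ) : Set ((Fin 2 → ℝ) × ℝ) := sph 2 ×ˢ Icc r 1

lemma isClosed_Zc (r : ℝ) : IsClosed (Zc r) := isClosed_sphere.prod isClosed_Icc

/-- data of the face rule -/
structure Fd (L : Lam (sph 2) ι) (K b : ℝ) (h ρ : ι → ℝ) (S : Sides) (T r1 r2 : ℝ)
    (N : Inn ι r2) : Prop where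
  dep : Dep L K b h ρ
  hT : 0 ≤ T
  r2h : 1/2 ≤ r2
  r21 : r2 ≤ r1
  r1o : r1 ≤ 1
  /-- the long chords have deep ramps -/
  lg : ∀ i, N.lng i → ρ i + h i/2 ≤ r2
  /-- the short chords have outer ramps -/
  st : ∀ i, ¬ N.lng i → r1 ≤ ρ i - h i/2
  /-- strictly inside -/
  hst : ∀ i, N.lng i → |N.ξ i| + N.ℓ i / 2 < r2
  m1 : ∀ i, N.lng i → ∀ x, ‖x‖ = r2 →
    cl (L.c i (wv S (T * (r1 - r2)) r2 x) / (2 * b)) = N.c i x
  m2 : ∀ i, N.lng i → ∀ x, ‖x‖ = r2 →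
    (|L.c i (wv S (T * (r1 - r2)) r2 x)| ≤ b ↔ x ∈ N.B i)
  m3 : ∀ i, N.lng i → ∀ x, ‖x‖ = r2 → x ∈ N.B i → ∀ s ∈ I2,
    L.tr i (wv S (T * (r1 - r2)) r2 x, 2 * b * s) = wv S (T * (r1 - r2)) r2 (N.tr i (x, s))

section ring

variable {r2 : ℝ}

lemma Rg_sub (hr : 1/2 ≤ r2) : Rg r2 ⊆ Ann 2 := fun _ hx => ⟨hr.trans hx.1, hx.2⟩

lemma Zc_sub (hr : 1/2 ≤ r2) : Zc r2 ⊆ PS (sph 2) := fun _ hz => ⟨hz.1, hr.trans hz.2.1, hz.2.2⟩

/-- the collar restricted to the ring -/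
noncomputable def colR (hr : 1/2 ≤ r2) : PLEquiv (Rg r2) (Zc r2) :=
  (collar 2).restr (Rg_sub hr) (Zc_sub hr)
    (fun x hx => by
      have := (collar 2).mf (Rg_sub hr hx)
      exact ⟨this.1, hx.1, hx.2⟩)
    (fun z hz => by
      have hn : ‖fun j => cg z.2 (z.1 j)‖ = z.2 := norm_cg hz.1 ⟨hr.trans hz.2.1, hz.2.2⟩
      exact ⟨by show r2 ≤ ‖fun j => cg z.2 (z.1 j)‖; rw [hn]; exact hz.2.1,
        by show ‖fun j => cg z.2 (z.1 j)‖ ≤ 1; rw [hn]; exact hz.2.2⟩)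

lemma colR_f (hr : 1/2 ≤ r2) (x : Fin 2 → ℝ) : (colR hr).f x = (fun j => cf ‖x‖ (x j), ‖x‖) := rfl

lemma colR_g (hr : 1/2 ≤ r2) (z : (Fin 2 → ℝ) × ℝ) : (colR hr).g z = fun j => cg z.2 (z.1 j) :=
  rfl

lemma Rg_union (hr1 : r2 ≤ 1) : Rg r2 ∪ Sq r2 = cube 2 := by
  ext x
  simp only [Rg, Sq, mem_union, mem_ofPred_eq, mem_closedBall_zero_iff]
  constructor
  · rintro (h | h)
    · exact h.2
    · exact h.trans hr1
  · intro h
    rcases le_total r2 ‖x‖ with h1 | h1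
    · exact Or.inl ⟨h1, h⟩
    · exact Or.inr h1

end ring

namespace Fd

variable {L : Lam (sph 2) ι} {K b : ℝ} {h ρ : ι → ℝ} {S : Sides} {T r1 r2 : ℝ} {N : Inn ι r2}
  (D : Fd L K b h ρ S T r1 r2 N)
include D

lemma r2o : r2 ≤ 1 := D.r21.trans D.r1o

lemma ramp_lng {i : ι} (hi : N.lng i) {r : ℝ} (hr : r2 ≤ r) : ramp (h i) (ρ i) r = 1/2 :=
  ramp_high (D.dep.h0 i) ((D.lg i hi).trans hr)

lemma ramp_st {i : ι} (hi : ¬ N.lng i) {r : ℝ} (hr : r ≤ r1) : ramp (h i) (ρ i) r = -1/2 :=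
  ramp_low (D.dep.h0 i) (hr.trans (D.st i hi))

lemma Af_lng {i : ι} (hi : N.lng i) {z : (Fin 2 → ℝ) × ℝ} (hz : z ∈ Zc r2) :
    Af L h ρ i z = L.c i z.1 := by
  unfold Af
  rw [D.ramp_lng hi hz.2.1]
  exact min_eq_left (L.cm i _ hz.1).2

lemma Af_st {i : ι} (hi : ¬ N.lng i) {z : (Fin 2 → ℝ) × ℝ} (hz : z ∈ Zc r2) (hr : z.2 ≤ r1) :
    Af L h ρ i z = -1/2 := by
  unfold Af
  rw [D.ramp_st hi hr]
  exact min_eq_right (L.cm i _ hz.1).1

lemma inv : ∀ i, ∀ z ∈ Bf L b h ρ i, z ∈ Zc r2 → ∀ s ∈ I2, Tf L K b h ρ i (z, s) ∈ Zc r2 := by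
  intro i z hz hz' s hs
  have h1 := D.dep.T1_mem hz hs
  have h2 := D.dep.T2_mem hz hs
  refine ⟨h1, ?_, h2.2⟩
  by_cases hi : N.lng i
  · have e : (Tf L K b h ρ i (z, s)).2 = z.2 + h i * (phi K b (Af L h ρ i z) (2 * b * s)
      (ramp (h i) (ρ i) z.2) - ramp (h i) (ρ i) z.2) := rfl
    have hw := D.ramp_lng hi hz'.2.1
    rw [e, D.dep.phi_w_half hz hs hw, hw]
    simpa using hz'.2.1
  · have e := D.dep.ramp_T hz hs
    have h3 := (D.dep.phi_w_mem hz hs).1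
    have h4 := (scale_mem D.dep.cst hs).1
    have h5 := D.dep.cst.b2
    have h6 : -1/2 < ramp (h i) (ρ i) (Tf L K b h ρ i (z, s)).2 := by rw [e]; linarith
    have h7 := lt_of_ramp (D.dep.h0 i) h6
    have h8 := D.st i hi
    have h9 := D.r21
    show r2 ≤ (Tf L K b h ρ i (z, s)).2
    linarith

open scoped Classical in
/-- in the ring a long band does not move the radius -/
lemma Tf_lng {i : ι} (hi : N.lng i) {z : (Fin 2 → ℝ) × ℝ} (hz : z ∈ Zc r2)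
    (hc : |L.c i z.1| ≤ b) {s : ℝ} (hs : s ∈ I2) :
    Tf L K b h ρ i (z, s) = (L.tr i (z.1, 2 * b * s), z.2) := by
  have h2 := D.Af_lng hi hz
  have h1 := D.ramp_lng hi hz.2.1
  have h3 := abs_le.1 hc
  have h4 := scale_mem D.dep.cst hs
  apply Prod.ext
  · show (if z.1 ∈ L.B i then L.tr i (z.1, phi K b (Af L h ρ i z) (2 * b * s) (L.c i z.1))
      else z.1) = _
    rw [if_pos (D.dep.B_of_le hz.1 hc), h2, phi_base h3.1 h4.1]
  · show z.2 + h i * (phi K b (Af L h ρ i z) (2 * b * s) (ramp (h i) (ρ i) z.2)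
      - ramp (h i) (ρ i) z.2) = z.2
    rw [h1, h2, phi_top D.dep.cst h3.2 h4.2]; ring

/-- the structure on the product ring -/
noncomputable def ringP : Lam (Zc r2) ι :=
  (D.dep.ext isClosed_sphere).restrict522 (isClosed_Zc r2) (Zc_sub D.r2h) D.inv

/-- the shift -/
noncomputable def shf : PLEquiv (Zc r2) (Zc r2) := shift S T r1 r2 D.hT

/-- THE STRUCTURE ON THE RING -/
noncomputable def ring : Lam (Rg r2) ι :=
  (D.ringP.pull D.shf (isClosed_Zc r2)).pull (colR D.r2h) (isClosed_Rg r2)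

lemma cow_eq (x : Fin 2 → ℝ) : D.shf.f ((colR D.r2h).f x) = cow S T r1 x := rfl

lemma co_mem {x : Fin 2 → ℝ} (hx : x ∈ Rg r2) : cow S T r1 x ∈ Zc r2 := by
  have h1 := (colR D.r2h).mf hx
  have h2 := D.shf.mf h1
  rw [D.cow_eq] at h2
  exact h2

lemma ringP_c (i : ι) (z : (Fin 2 → ℝ) × ℝ) :
    D.ringP.c i z = cl (Af L h ρ i z / (2 * b)) := rfl

lemma ringP_B (i : ι) (z : (Fin 2 → ℝ) × ℝ) :
    z ∈ D.ringP.B i ↔ z ∈ Bf L b h ρ i ∧ z ∈ Zc r2 := Iff.rfl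

lemma ringP_tr (i : ι) (p : ((Fin 2 → ℝ) × ℝ) × ℝ) :
    D.ringP.tr i p = Tf L K b h ρ i p := rfl

lemma ring_c (i : ι) (x : Fin 2 → ℝ) :
    D.ring.c i x = cl (Af L h ρ i (cow S T r1 x) / (2 * b)) := by
  unfold ring
  rw [pull_c, pull_c, D.ringP_c, D.cow_eq]

lemma ring_B (i : ι) (x : Fin 2 → ℝ) :
    x ∈ D.ring.B i ↔ x ∈ Rg r2 ∧ |Af L h ρ i (cow S T r1 x)| ≤ b := by
  unfold ring
  rw [pull_B, pull_B, D.ringP_B, D.cow_eq]
  constructor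
  · rintro ⟨h1, h2, h3, h4⟩
    exact ⟨h1, h3.2⟩
  · rintro ⟨h1, h2⟩
    have h3 := D.co_mem h1
    exact ⟨h1, (colR D.r2h).mf h1, ⟨Zc_sub D.r2h h3, h2⟩, h3⟩

lemma ring_tr (i : ι) (x : Fin 2 → ℝ) (s : ℝ) :
    D.ring.tr i (x, s) = (colR D.r2h).g (D.shf.g (Tf L K b h ρ i (cow S T r1 x, s))) := by
  unfold ring
  rw [pull_tr, pull_tr, D.ringP_tr, D.cow_eq]

lemma co_r2 {x : Fin 2 → ℝ} (hx : ‖x‖ = r2) : cow S T r1 x = (wv S (T * (r1 - r2)) r2 x, r2) := by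
  unfold cow wv
  rw [hx, max_eq_right (sub_nonneg.2 D.r21)]

lemma mem_Rg_r2 {x : Fin 2 → ℝ} (hx : ‖x‖ = r2) : x ∈ Rg r2 := ⟨hx.ge, hx.le.trans D.r2o⟩

omit D in
lemma norm_r2 {x : Fin 2 → ℝ} (h1 : x ∈ Rg r2) (h2 : x ∈ Sq r2) : ‖x‖ = r2 := le_antisymm h2 h1.1

/-- the transport of the inner structure preserves `‖x‖ = r2` -/
lemma norm_tr {i : ι} {x : Fin 2 → ℝ} (hx : ‖x‖ = r2) (hB : x ∈ N.B i) {s : ℝ} (hs : s ∈ I2) :
    ‖N.tr i (x, s)‖ = r2 := by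
  apply le_antisymm (N.tr_B hB hs).1
  have hx0 : x ≠ 0 := by
    rintro rfl; rw [norm_zero] at hx; have := D.r2h; linarith
  obtain ⟨j, hj⟩ := exists_coord hx0
  rw [hx] at hj
  have hja : j ≠ N.ax i := by
    rintro rfl
    have h1 := D.hst i hB.2.1
    have h2 := hB.2.2
    have h3 := abs_sub_abs_le_abs_sub (x (N.ax i)) (N.ξ i)
    linarith
  calc r2 = |x j| := hj
    _ = |N.tr i (x, s) j| := by rw [Inn.tr, upd_ne hja]
    _ ≤ _ := abs_apply_le _ _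

lemma wv_back {x : Fin 2 → ℝ} (hx : ‖x‖ = r2) :
    (colR D.r2h).g (D.shf.g (wv S (T * (r1 - r2)) r2 x, r2)) = x := by
  have h1 := D.mem_Rg_r2 hx
  rw [← D.co_r2 hx]
  have h2 : cow S T r1 x = D.shf.f ((colR D.r2h).f x) := rfl
  rw [h2, D.shf.li _ ((colR D.r2h).mf h1), (colR D.r2h).li _ h1]

lemma match_c (i : ι) {x : Fin 2 → ℝ} (h1 : x ∈ Rg r2) (h2 : x ∈ Sq r2) :
    D.ring.c i x = N.lam.c i x := by
  have hx := norm_r2 h1 h2
  rw [D.ring_c, D.co_r2 hx]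
  have hz : (wv S (T * (r1 - r2)) r2 x, r2) ∈ Zc r2 := by rw [← D.co_r2 hx]; exact D.co_mem h1
  by_cases hi : N.lng i
  · rw [D.Af_lng hi hz]
    exact D.m1 i hi x hx
  · rw [D.Af_st hi hz D.r21, cl_low D.dep.cst.b0 D.dep.cst.b2]
    show _ = N.c i x
    simp [Inn.c, hi]

lemma match_B (i : ι) {x : Fin 2 → ℝ} (h1 : x ∈ Rg r2) (h2 : x ∈ Sq r2) :
    x ∈ D.ring.B i ↔ x ∈ N.lam.B i := by
  have hx := norm_r2 h1 h2
  rw [D.ring_B, D.co_r2 hx]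
  have hz : (wv S (T * (r1 - r2)) r2 x, r2) ∈ Zc r2 := by rw [← D.co_r2 hx]; exact D.co_mem h1
  by_cases hi : N.lng i
  · rw [D.Af_lng hi hz]
    exact ⟨fun h => (D.m2 i hi x hx).1 h.2, fun h => ⟨h1, (D.m2 i hi x hx).2 h⟩⟩
  · rw [D.Af_st hi hz D.r21]
    constructor
    · rintro ⟨_, h⟩
      have := D.dep.cst.b2
      norm_num [abs_of_neg] at h
      linarith
    · intro h; exact absurd h.2.1 hi

lemma match_tr (i : ι) {x : Fin 2 → ℝ} (h1 : x ∈ D.ring.B i) (h2 : x ∈ Sq r2) {s : ℝ}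
    (hs : s ∈ I2) : D.ring.tr i (x, s) = N.lam.tr i (x, s) := by
  have hx := norm_r2 (D.ring.BZ i h1) h2
  have hN := (D.match_B i (D.ring.BZ i h1) h2).1 h1
  have hi : N.lng i := hN.2.1
  have hz : (wv S (T * (r1 - r2)) r2 x, r2) ∈ Zc r2 := by
    rw [← D.co_r2 hx]; exact D.co_mem (D.ring.BZ i h1)
  rw [D.ring_tr, D.co_r2 hx, D.Tf_lng hi hz ((D.m2 i hi x hx).2 hN) hs]
  show (colR D.r2h).g (D.shf.g (L.tr i (wv S (T * (r1 - r2)) r2 x, 2 * b * s), r2)) = N.tr i (x, s)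
  rw [D.m3 i hi x hx hN s hs]
  exact D.wv_back (D.norm_tr hx hN hs)

/-- **THE STRUCTURE ON THE SQUARE** -/
noncomputable def face : Lam (cube 2) ι :=
  (D.ring.glue522 N.lam (isClosed_Rg r2) (isClosed_Sq r2)
    (fun i _ h1 h2 => D.match_c i h1 h2) (fun i _ h1 h2 => D.match_B i h1 h2)
    (fun i _ h1 h2 _ hs => D.match_tr i h1 h2 hs)).cast (Rg_union D.r2o)

lemma face_c_ring (i : ι) {x : Fin 2 → ℝ} (hx : x ∈ Rg r2) :
    D.face.c i x = cl (Af L h ρ i (cow S T r1 x) / (2 * b)) := by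
  unfold face
  rw [Lam.cast_c, Lam.glue522_c_left _ _ _ _ _ _ _ hx, D.ring_c]

lemma face_c_in (i : ι) {x : Fin 2 → ℝ} (hx : x ∈ Sq r2) : D.face.c i x = N.c i x := by
  unfold face
  rw [Lam.cast_c, Lam.glue522_c_right _ _ _ _ _ _ _ hx]
  rfl

lemma face_B (i : ι) : D.face.B i = D.ring.B i ∪ N.B i := by
  unfold face
  rw [Lam.cast_B, Lam.glue522_B]
  rfl

lemma face_tr_ring (i : ι) {x : Fin 2 → ℝ} (hx : x ∈ D.ring.B i) (s : ℝ) :
    D.face.tr i (x, s) = D.ring.tr i (x, s) := by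
  unfold face
  rw [Lam.cast_tr, Lam.glue522_tr_left _ _ _ _ _ _ _ hx]

lemma face_tr_in (i : ι) {x : Fin 2 → ℝ} (hx : x ∈ N.B i) {s : ℝ} (hs : s ∈ I2) :
    D.face.tr i (x, s) = N.tr i (x, s) := by
  unfold face
  rw [Lam.cast_tr, Lam.glue522_tr_right _ _ _ _ _ _ _ hx hs]
  rfl

/-! ### the boundary -/

lemma co_sph {x : Fin 2 → ℝ} (hx : x ∈ sph 2) : cow S T r1 x = (x, 1) := by
  have h1 : ‖x‖ = 1 := by simpa using hx
  have h2 : (collar 2).f x = (x, 1) := collar_f_sph hx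
  have h3 : (fun j => cf ‖x‖ (x j)) = x := congrArg Prod.fst h2
  unfold cow
  rw [h3, h1, max_eq_left (by linarith [D.r1o]), mul_zero, sh_zero]

lemma sph_Rg {x : Fin 2 → ℝ} (hx : x ∈ sph 2) : x ∈ Rg r2 := by
  have h1 : ‖x‖ = 1 := by simpa using hx
  exact ⟨by rw [h1]; exact D.r2o, h1.le⟩

lemma not_in_sph {i : ι} {x : Fin 2 → ℝ} (hx : x ∈ sph 2) (hB : x ∈ N.B i) :
    x ∈ D.ring.B i := by
  exact (D.match_B i (D.sph_Rg hx) hB.1).2 hB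

/-- **the square is a filling of the circle** -/
theorem sqExt : SqExt L D.face b where
  sub := sph_subset_cube
  b0 := D.dep.cst.b0
  b2 := D.dep.cst.b2
  c i x hx := by
    rw [D.face_c_ring i (D.sph_Rg hx), D.co_sph hx, D.dep.A_one i hx]
  B i x hx := by
    rw [D.face_B]
    have h1 := D.ring_B i x
    rw [D.co_sph hx, D.dep.A_one i hx] at h1
    constructor
    · rintro (h | h)
      · exact (h1.1 h).2
      · exact (h1.1 (D.not_in_sph hx h)).2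
    · intro h
      exact Or.inl (h1.2 ⟨D.sph_Rg hx, h⟩)
  tr i x hx hc s hs := by
    have h1 : x ∈ D.ring.B i := by
      rw [D.ring_B, D.co_sph hx, D.dep.A_one i hx]
      exact ⟨D.sph_Rg hx, hc⟩
    rw [D.face_tr_ring i h1, D.ring_tr, D.co_sph hx, D.dep.T_one hx hc hs]
    have h2 := D.dep.I2_of hs (show 2 * b * s ∈ Icc (2 * b * s) (1/2) from
      ⟨le_rfl, (scale_mem D.dep.cst hs).2.trans D.dep.cst.b2.le⟩)
    have h3 : L.tr i (x, 2 * b * s) ∈ sph 2 :=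
      L.BZ i (L.trB i x (D.dep.B_of_le hx hc) _ h2)
    have h4 : (L.tr i (x, 2 * b * s), (1:ℝ)) = D.shf.f ((colR D.r2h).f (L.tr i (x, 2 * b * s))) :=
      (D.co_sph h3).symm
    rw [h4, D.shf.li _ ((colR D.r2h).mf (D.sph_Rg h3)), (colR D.r2h).li _ (D.sph_Rg h3)]

end Fd

end Crest.Agent.R096.Fc_522
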