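import Mathlib

/-!
# R096 (row 96), P4-CONE, part 1: laminar families of collar functions, depths, ramps (helper117)

`c i : E → [-1/2, 1/2]` on a set `Z` (the boundary of a cell): `-1/2` on the side of the base point,
`1/2` on the other side, the curve is `{c i = 0}`, the band is `{-1/2 < c i < 1/2}`.
-/

set_option autoImplicit false

open Set Filter Topology

namespace Crest.Agent.R096.Pc_117

section Rel

variable {E : Type*}

/-- the closed inner sides of `f` and `g` are disjoint on `Z` -/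
def Out (Z : Set E) (f g : E → ℝ) : Prop := ∀ z ∈ Z, f z = -1/2 ∨ g z = -1/2

/-- `f` lies inside `g` on `Z` (bands included) -/
def Ins (Z : Set E) (f g : E → ℝ) : Prop := ∀ z ∈ Z, -1/2 < f z → g z = 1/2

lemma Out.symm {Z : Set E} {f g : E → ℝ} (h : Out Z f g) : Out Z g f :=
  fun z hz => (h z hz).symm

lemma Out.mono {Z Y : Set E} {f g : E → ℝ} (h : Out Z f g) (hY : Y ⊆ Z) : Out Y f g :=
  fun z hz => h z (hY hz)

lemma Ins.mono {Z Y : Set E} {f g : E → ℝ} (h : Ins Z f g) (hY : Y ⊆ Z) : Ins Y f g :=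
  fun z hz => h z (hY hz)

lemma Ins.trans {Z : Set E} {f g h : E → ℝ} (h1 : Ins Z f g) (h2 : Ins Z g h) : Ins Z f h := by
  intro z hz hf
  exact h2 z hz (by rw [h1 z hz hf]; norm_num)

lemma Ins.irrefl {Z : Set E} {f : E → ℝ} (hf : ∃ z ∈ Z, f z = 0) (h : Ins Z f f) : False := by
  obtain ⟨z, hz, h0⟩ := hf
  have := h z hz (by rw [h0]; norm_num)
  rw [h0] at this
  norm_num at this

/-- A finite family of collar functions with colours, laminar inside every colour. -/
structure Lam {I N : Type*} (Z : Set E) (col : I → N) (c : I → E → ℝ) : Prop where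
  mem : ∀ i, ∀ z ∈ Z, c i z ∈ Icc (-1/2 : ℝ) (1/2)
  same : ∀ i j, i ≠ j → col i = col j → Out Z (c i) (c j) ∨ Ins Z (c i) (c j) ∨ Ins Z (c j) (c i)
  mid : ∀ i, ∃ z ∈ Z, c i z = 0

/-- **depth**: an injective rank which decreases towards the outside, for ALL pairs. -/
theorem exists_depth {I : Type*} [Fintype I] (Z : Set E) (c : I → E → ℝ)
    (mid : ∀ i, ∃ z ∈ Z, c i z = 0) :
    ∃ k : I → ℕ, Function.Injective k ∧ (∀ i, k i < Fintype.card I) ∧
      ∀ i j, Ins Z (c i) (c j) → k j < k i := by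
  classical
  let n := Fintype.card I
  let idx : I → ℕ := fun i => (Fintype.equivFin I i : ℕ)
  have hidx : ∀ i, idx i < n := fun i => (Fintype.equivFin I i).2
  let k0 : I → ℕ := fun i => (Finset.univ.filter (fun l => Ins Z (c i) (c l))).card
  have hk0 : ∀ i j, Ins Z (c i) (c j) → k0 j < k0 i := by
    intro i j h
    apply Finset.card_lt_card
    refine ⟨?_, ?_⟩
    · intro l hl
      rw [Finset.mem_filter] at hl ⊢
      exact ⟨hl.1, h.trans hl.2⟩
    · intro hs
      have : j ∈ Finset.univ.filter (fun l => Ins Z (c j) (c l)) :=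
        hs (Finset.mem_filter.2 ⟨Finset.mem_univ _, h⟩)
      exact Ins.irrefl (mid j) (Finset.mem_filter.1 this).2
  let key : I → ℕ := fun i => k0 i * n + idx i
  have hkey_lt : ∀ i j, Ins Z (c i) (c j) → key j < key i := by
    intro i j h
    have h1 := hk0 i j h
    have h2 := hidx j
    calc key j = k0 j * n + idx j := rfl
      _ < k0 j * n + n := by omega
      _ = (k0 j + 1) * n := by ring
      _ ≤ k0 i * n := Nat.mul_le_mul_right n h1
      _ ≤ key i := Nat.le_add_right _ _
  have hkey_inj : Function.Injective key := by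
    intro i j h
    have h1 := hidx i
    have h2 := hidx j
    have hn : 0 < n := lt_of_le_of_lt (Nat.zero_le _) h1
    have h3 : idx i = idx j := by
      have e1 : key i % n = idx i := by
        show (k0 i * n + idx i) % n = idx i
        rw [Nat.mul_add_mod_self_right, Nat.mod_eq_of_lt h1]
      have e2 : key j % n = idx j := by
        show (k0 j * n + idx j) % n = idx j
        rw [Nat.mul_add_mod_self_right, Nat.mod_eq_of_lt h2]
      rw [← e1, ← e2, h]
    exact (Fintype.equivFin I).injective (Fin.ext h3)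
  let k : I → ℕ := fun i => (Finset.univ.filter (fun l => key l < key i)).card
  have hmono : ∀ i j, key i < key j → k i < k j := by
    intro i j h
    apply Finset.card_lt_card
    refine ⟨?_, ?_⟩
    · intro l hl
      rw [Finset.mem_filter] at hl ⊢
      exact ⟨hl.1, lt_trans hl.2 h⟩
    · intro hs
      have : i ∈ Finset.univ.filter (fun l => key l < key i) :=
        hs (Finset.mem_filter.2 ⟨Finset.mem_univ _, h⟩)
      exact lt_irrefl _ (Finset.mem_filter.1 this).2
  refine ⟨k, ?_, ?_, ?_⟩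
  · intro i j h
    by_contra hne
    rcases lt_or_gt_of_ne (fun e => hne (hkey_inj e)) with h1 | h1
    · have := hmono i j h1
      omega
    · have := hmono j i h1
      omega
  · intro i
    have : k i < (Finset.univ : Finset I).card := by
      apply Finset.card_lt_card
      refine ⟨Finset.filter_subset _ _, ?_⟩
      intro hs
      have := hs (Finset.mem_univ i)
      exact lt_irrefl _ (Finset.mem_filter.1 this).2
    simpa using this
  · intro i j h
    exact hmono j i (hkey_lt i j h)

end Rel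

section Ramp

/-- clamp to `[-1/2, 1/2]` -/
noncomputable def cl (x : ℝ) : ℝ := max (-1/2) (min (1/2) x)

lemma cl_mem (x : ℝ) : cl x ∈ Icc (-1/2 : ℝ) (1/2) :=
  ⟨le_max_left _ _, max_le (by norm_num) (min_le_left _ _)⟩

lemma cl_of_mem {x : ℝ} (h : x ∈ Icc (-1/2 : ℝ) (1/2)) : cl x = x := by
  unfold cl
  rw [min_eq_right h.2, max_eq_right h.1]

lemma cl_of_le {x : ℝ} (h : x ≤ -1/2) : cl x = -1/2 := by
  unfold cl
  rw [min_eq_right (by linarith), max_eq_left h]

lemma cl_of_ge {x : ℝ} (h : 1/2 ≤ x) : cl x = 1/2 := by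
  unfold cl
  rw [min_eq_left h, max_eq_right (by norm_num)]

lemma cl_mono : Monotone cl := by
  intro x y h
  exact max_le_max le_rfl (min_le_min le_rfl h)

lemma cl_lip (x y : ℝ) : |cl x - cl y| ≤ |x - y| := by
  unfold cl
  refine le_trans (abs_max_sub_max_le_max _ _ _ _) ?_
  refine max_le (by simp) ?_
  refine le_trans (abs_min_sub_min_le_max _ _ _ _) ?_
  exact max_le (by simp) le_rfl

lemma cl_continuous : Continuous cl := by
  unfold cl
  fun_prop

lemma neg_half_lt_of_cl {x : ℝ} (h : -1/2 < cl x) : -1/2 < x := by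
  by_contra hc
  rw [cl_of_le (not_lt.1 hc)] at h
  exact lt_irrefl _ h

lemma lt_half_of_cl {x : ℝ} (h : cl x < 1/2) : x < 1/2 := by
  by_contra hc
  rw [cl_of_ge (not_lt.1 hc)] at h
  exact lt_irrefl _ h

/-- height of a ramp for `n` curves -/
noncomputable def hh (n : ℕ) : ℝ := 1 / (4 * n + 4)

/-- depth number `k` of `n` -/
noncomputable def rr (n k : ℕ) : ℝ := 1/2 + (2 * k + 2) * hh n

/-- ramp number `k` of `n`: from `-1/2` to `1/2` on `[rr - hh/2, rr + hh/2]` -/
noncomputable def ww (n k : ℕ) (r : ℝ) : ℝ := cl ((r - rr n k) / hh n)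

lemma hh_pos (n : ℕ) : 0 < hh n := by
  unfold hh
  positivity

lemma hh_mul (n : ℕ) : (4 * n + 4) * hh n = 1 := by
  unfold hh
  have : (0 : ℝ) < 4 * n + 4 := by positivity
  field_simp

lemma rr_bound {n k : ℕ} (h : k < n) : rr n k ≤ 1 - 2 * hh n := by
  have h1 : (k : ℝ) + 1 ≤ n := by exact_mod_cast h
  have h2 := hh_mul n
  have h3 := hh_pos n
  unfold rr
  nlinarith

lemma rr_ge (n k : ℕ) : 1/2 + 2 * hh n ≤ rr n k := by
  have h3 := hh_pos n
  have : (0 : ℝ) ≤ k := by positivity
  unfold rr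
  nlinarith

lemma rr_gap {n k l : ℕ} (h : k < l) : rr n k + 2 * hh n ≤ rr n l := by
  have h1 : (k : ℝ) + 1 ≤ l := by exact_mod_cast h
  have h3 := hh_pos n
  unfold rr
  nlinarith

lemma rr_gap_abs {n k l : ℕ} (h : k ≠ l) : 2 * hh n ≤ |rr n k - rr n l| := by
  rcases lt_or_gt_of_ne h with h | h
  · have := rr_gap (n := n) h
    rw [abs_sub_comm]
    exact le_trans (by linarith) (le_abs_self _)
  · have := rr_gap (n := n) h
    exact le_trans (by linarith) (le_abs_self _)

lemma ww_mem (n k : ℕ) (r : ℝ) : ww n k r ∈ Icc (-1/2 : ℝ) (1/2) := cl_mem _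

lemma ww_of_le {n k : ℕ} {r : ℝ} (h : r ≤ rr n k - hh n / 2) : ww n k r = -1/2 := by
  have h3 := hh_pos n
  apply cl_of_le
  rw [div_le_iff₀ h3]
  linarith

lemma ww_of_ge {n k : ℕ} {r : ℝ} (h : rr n k + hh n / 2 ≤ r) : ww n k r = 1/2 := by
  have h3 := hh_pos n
  apply cl_of_ge
  rw [le_div_iff₀ h3]
  linarith

lemma lt_of_ww {n k : ℕ} {r : ℝ} (h : -1/2 < ww n k r) : rr n k - hh n / 2 < r := by
  by_contra hc
  rw [ww_of_le (not_lt.1 hc)] at h
  exact lt_irrefl _ h

lemma lt_of_ww' {n k : ℕ} {r : ℝ} (h : ww n k r < 1/2) : r < rr n k + hh n / 2 := by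
  by_contra hc
  rw [ww_of_ge (not_lt.1 hc)] at h
  exact lt_irrefl _ h

/-- the ramps are disjoint: once ramp `l` has started, every deeper ramp is complete -/
lemma ww_lt {n k l : ℕ} (h : k < l) {r : ℝ} (hr : -1/2 < ww n l r) : ww n k r = 1/2 := by
  have h1 := lt_of_ww hr
  have h2 := rr_gap (n := n) h
  have h3 := hh_pos n
  exact ww_of_ge (by linarith)

lemma ww_one {n k : ℕ} (h : k < n) : ww n k 1 = 1/2 := by
  have h2 := rr_bound h
  have h3 := hh_pos n
  exact ww_of_ge (by linarith)

lemma ww_inner {n k : ℕ} {r : ℝ} (h : r ≤ 1/2 + hh n) : ww n k r = -1/2 := by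
  have h2 := rr_ge n k
  have h3 := hh_pos n
  exact ww_of_le (by linarith)

lemma ww_outer {n k : ℕ} (hk : k < n) {r : ℝ} (h : 1 - hh n ≤ r) : ww n k r = 1/2 := by
  have h2 := rr_bound hk
  have h3 := hh_pos n
  exact ww_of_ge (by linarith)

lemma ww_mono (n k : ℕ) : Monotone (ww n k) := by
  intro x y h
  have h3 := hh_pos n
  exact cl_mono (by gcongr)

lemma ww_continuous (n k : ℕ) : Continuous (ww n k) := by
  unfold ww
  exact cl_continuous.comp (by fun_prop)

lemma ww_lip (n k : ℕ) (r s : ℝ) : |ww n k r - ww n k s| ≤ (4 * n + 4) * |r - s| := by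
  have h3 := hh_pos n
  refine le_trans (cl_lip _ _) (le_of_eq ?_)
  have h4 := hh_mul n
  rw [← sub_div, abs_div, abs_of_pos h3, div_eq_iff h3.ne']
  have : r - rr n k - (s - rr n k) = r - s := by ring
  rw [this]
  calc |r - s| = ((4 * n + 4) * hh n) * |r - s| := by rw [h4, one_mul]
    _ = (4 * n + 4) * |r - s| * hh n := by ring

/-- at an interior value the ramp is affine -/
lemma ww_eq_iff {n k : ℕ} {r s : ℝ} (h1 : -1/2 < s) (h2 : s < 1/2) :
    ww n k r = s ↔ r = rr n k + hh n * s := by
  have h3 := hh_pos n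
  constructor
  · intro h
    have a1 : -1/2 < (r - rr n k) / hh n := neg_half_lt_of_cl (by
      show -1/2 < ww n k r
      rw [h]; exact h1)
    have a2 : (r - rr n k) / hh n < 1/2 := lt_half_of_cl (by
      show ww n k r < 1/2
      rw [h]; exact h2)
    have a3 : ww n k r = (r - rr n k) / hh n := cl_of_mem ⟨a1.le, a2.le⟩
    rw [a3, div_eq_iff h3.ne'] at h
    linarith
  · intro h
    have : (r - rr n k) / hh n = s := by
      rw [h]
      field_simp
      ring
    unfold ww
    rw [this]
    exact cl_of_mem ⟨h1.le, h2.le⟩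

lemma le_ww_iff {n k : ℕ} {r s : ℝ} (h1 : -1/2 < s) (h2 : s ≤ 1/2) :
    s ≤ ww n k r ↔ rr n k + hh n * s ≤ r := by
  have h3 := hh_pos n
  constructor
  · intro h
    by_contra hc
    push Not at hc
    have a : (r - rr n k) / hh n < s := by
      rw [div_lt_iff₀ h3]
      linarith
    have : ww n k r < s := by
      unfold ww cl
      refine max_lt h1 (lt_of_le_of_lt (min_le_right _ _) a)
    linarith
  · intro h
    have a : s ≤ (r - rr n k) / hh n := by
      rw [le_div_iff₀ h3]
      linarith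
    exact le_trans (le_min h2 a) (le_max_right _ _)

end Ramp

end Crest.Agent.R096.Pc_117
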