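import Crest.Agent.R096.Fc4_522
import Crest.Agent.R096.Pc1_117

/-!
# R096 (row 96), P4-FACE, part 5: the relations Out / Ins pass from the circle to the square; bands
of one colour are disjoint (helper522)
-/

set_option autoImplicit false

open Set Metric

namespace Crest.Agent.R096.Fc_522

open Crest.Agent.R096.Ce_537 Crest.Agent.R096.Bd_416

open Crest.Agent.R096.Pc_117 (Out Ins)

variable {ι : Type*}

/-- the other axis -/
def oth (a : Fin 2) : Fin 2 := if a = 0 then 1 else 0

lemma oth_ne (a : Fin 2) : oth a ≠ a := by fin_cases a <;> decide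

lemma oth_oth (a : Fin 2) : oth (oth a) = a := by fin_cases a <;> rfl

lemma eq_oth {a j : Fin 2} (h : j ≠ a) : j = oth a := by
  fin_cases a <;> fin_cases j <;> first | rfl | exact absurd rfl h

/-- push a point of the square to the boundary, the coordinate `a` is kept -/
lemma norm_upd_oth {R : ℝ} {x : Fin 2 → ℝ} (hx : x ∈ Sq R) (a : Fin 2) :
    ‖upd (oth a) x R‖ = R := by
  have h0 : 0 ≤ R := (norm_nonneg _).trans hx
  apply le_antisymm
  · exact upd_mem hx (by rw [abs_of_nonneg h0])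
  · have := abs_apply_le (upd (oth a) x R) (oth a)
    rw [upd_same, abs_of_nonneg h0] at this
    exact this

lemma Inn.c_congr {R : ℝ} (N : Inn ι R) {i : ι} {x y : Fin 2 → ℝ} (h : x (N.ax i) = y (N.ax i)) :
    N.c i x = N.c i y := by
  by_cases hi : N.lng i
  · rw [N.c_lng hi, N.c_lng hi, h]
  · simp [Inn.c, hi]

lemma Inn.c_st {R : ℝ} (N : Inn ι R) {i : ι} (hi : ¬ N.lng i) (x : Fin 2 → ℝ) :
    N.c i x = -1/2 := by
  simp [Inn.c, hi]

lemma cl_hi {b : ℝ} (h0 : 0 < b) (h2 : b < 1/2) : cl (1/2 / (2 * b)) = 1/2 :=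
  cl_half h0 h2 (Or.inr rfl)

namespace Fd

variable {L : Lam (sph 2) ι} {K b : ℝ} {h ρ : ι → ℝ} {S : Sides} {T r1 r2 : ℝ} {N : Inn ι r2}
  (D : Fd L K b h ρ S T r1 r2 N)
include D

/-! ### the raw functions on the ring -/

omit D in
lemma Af_out {i j : ι} (ho : Out (sph 2) (L.c i) (L.c j)) {z : (Fin 2 → ℝ) × ℝ}
    (hz : z ∈ Zc r2) : Af L h ρ i z = -1/2 ∨ Af L h ρ j z = -1/2 := by
  rcases ho z.1 hz.1 with e | e
  · left; unfold Af; rw [e]; exact min_eq_left ramp_mem.1
  · right; unfold Af; rw [e]; exact min_eq_left ramp_mem.1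

lemma Af_ins {i j : ι} (hij : i ≠ j) (hi : Ins (sph 2) (L.c i) (L.c j))
    (ho : N.lng j ∨ ρ j < ρ i) {z : (Fin 2 → ℝ) × ℝ} (hz : z ∈ Zc r2)
    (hA : -1/2 < Af L h ρ i z) : Af L h ρ j z = 1/2 := by
  have h1 : -1/2 < L.c i z.1 := lt_of_lt_of_le hA (min_le_left _ _)
  have h2 := hi z.1 hz.1 h1
  rcases ho with ho | ho
  · rw [D.Af_lng ho hz, h2]
  · have h3 : -1/2 < ramp (h i) (ρ i) z.2 := lt_of_lt_of_le hA (min_le_right _ _)
    have h4 := lt_of_ramp (D.dep.h0 i) h3
    have hh0i := D.dep.h0 i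
    have hh0j := D.dep.h0 j
    have h5 := D.dep.sep i j hij ⟨z.1, hz.1, h1, by rw [h2]; norm_num⟩
    rw [abs_of_pos (by linarith)] at h5
    unfold Af
    rw [h2, ramp_high (D.dep.h0 j) (by linarith), min_self]

/-! ### the square -/

lemma lng_of_ins {i j : ι} (hi : N.lng i) (ho : N.lng j ∨ ρ j < ρ i) : N.lng j := by
  rcases ho with ho | ho
  · exact ho
  · by_contra hj
    have h1 := D.st j hj
    have h2 := D.lg i hi
    have h3 := D.r21
    have h4 := D.dep.h0 i
    have h5 := D.dep.h0 j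
    linarith

lemma face_out {i j : ι} (hax : N.lng i → N.lng j → N.ax i = N.ax j)
    (ho : Out (sph 2) (L.c i) (L.c j)) : Out (cube 2) (D.face.c i) (D.face.c j) := by
  have hl := cl_low D.dep.cst.b0 D.dep.cst.b2
  intro x hx
  rw [← Rg_union D.r2o] at hx
  have key : ∀ x ∈ Rg r2, D.face.c i x = -1/2 ∨ D.face.c j x = -1/2 := by
    intro x hx
    rw [D.face_c_ring i hx, D.face_c_ring j hx]
    rcases Af_out ho (D.co_mem hx) with e | e
    · left; rw [e, hl]
    · right; rw [e, hl]
  rcases hx with hx | hx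
  · exact key x hx
  · rw [D.face_c_in i hx, D.face_c_in j hx]
    by_cases hi : N.lng i
    · by_cases hj : N.lng j
      · have ha := hax hi hj
        have hn := norm_upd_oth hx (N.ax i)
        have e1 : N.c i x = N.c i (upd (oth (N.ax i)) x r2) :=
          N.c_congr (by rw [upd_ne (oth_ne _).symm])
        have e2 : N.c j x = N.c j (upd (oth (N.ax i)) x r2) :=
          N.c_congr (by rw [upd_ne (by rw [← ha]; exact (oth_ne _).symm)])
        have h3 := key _ (D.mem_Rg_r2 hn)
        rw [D.face_c_in i (show _ ∈ Sq r2 from hn.le), D.face_c_in j (show _ ∈ Sq r2 from hn.le)]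
          at h3
        rw [e1, e2]; exact h3
      · right; exact N.c_st hj x
    · left; exact N.c_st hi x

lemma face_ins {i j : ι} (hij : i ≠ j) (hax : N.lng i → N.lng j → N.ax i = N.ax j)
    (hI : Ins (sph 2) (L.c i) (L.c j)) (ho : N.lng j ∨ ρ j < ρ i) :
    Ins (cube 2) (D.face.c i) (D.face.c j) := by
  have hl := cl_low D.dep.cst.b0 D.dep.cst.b2
  intro x hx
  rw [← Rg_union D.r2o] at hx
  have key : ∀ x ∈ Rg r2, -1/2 < D.face.c i x → D.face.c j x = 1/2 := by
    intro x hx h1
    rw [D.face_c_ring i hx] at h1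
    rw [D.face_c_ring j hx, D.Af_ins hij hI ho (D.co_mem hx), cl_hi D.dep.cst.b0 D.dep.cst.b2]
    by_contra hc
    have h2 : Af L h ρ i (cow S T r1 x) ≤ -1/2 := not_lt.1 hc
    have h3 : cl (Af L h ρ i (cow S T r1 x) / (2 * b)) ≤ cl (-1/2 / (2 * b)) :=
      cl_mono (div_le_div_of_nonneg_right h2 (by linarith [D.dep.cst.b0]))
    rw [hl] at h3
    linarith
  rcases hx with hx | hx
  · exact key x hx
  · rw [D.face_c_in i hx, D.face_c_in j hx]
    intro h1
    by_cases hi : N.lng i
    · have hj := D.lng_of_ins hi ho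
      have ha := hax hi hj
      have hn := norm_upd_oth hx (N.ax i)
      have e1 : N.c i x = N.c i (upd (oth (N.ax i)) x r2) :=
        N.c_congr (by rw [upd_ne (oth_ne _).symm])
      have e2 : N.c j x = N.c j (upd (oth (N.ax i)) x r2) :=
        N.c_congr (by rw [upd_ne (by rw [← ha]; exact (oth_ne _).symm)])
      have h3 := key _ (D.mem_Rg_r2 hn)
      rw [D.face_c_in i (show _ ∈ Sq r2 from hn.le), D.face_c_in j (show _ ∈ Sq r2 from hn.le)]
        at h3
      rw [e1] at h1
      rw [e2]; exact h3 h1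
    · rw [N.c_st hi x] at h1; exact absurd h1 (lt_irrefl _)

/-- the circle is a laminar family with depths compatible with the two kinds of chords -/
structure Ord {κ : Type*} (D : Fd L K b h ρ S T r1 r2 N) (col : ι → κ) : Prop where
  ax : ∀ i j, i ≠ j → col i = col j → N.lng i → N.lng j → N.ax i = N.ax j
  rel : ∀ i j, i ≠ j → col i = col j → Out (sph 2) (L.c i) (L.c j) ∨
    (Ins (sph 2) (L.c i) (L.c j) ∧ (N.lng j ∨ ρ j < ρ i)) ∨
    (Ins (sph 2) (L.c j) (L.c i) ∧ (N.lng i ∨ ρ i < ρ j))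

variable {κ : Type*} {col : ι → κ}

omit D in
theorem Ord.same {D : Fd L K b h ρ S T r1 r2 N} (O : Ord D col) (i j : ι) (hij : i ≠ j)
    (hc : col i = col j) :
    Out (cube 2) (D.face.c i) (D.face.c j) ∨ Ins (cube 2) (D.face.c i) (D.face.c j) ∨
      Ins (cube 2) (D.face.c j) (D.face.c i) := by
  have h1 := O.ax i j hij hc
  rcases O.rel i j hij hc with h | h | h
  · exact Or.inl (D.face_out h1 h)
  · exact Or.inr (Or.inl (D.face_ins hij h1 h.1 h.2))
  · exact Or.inr (Or.inr (D.face_ins hij.symm (fun a b => (h1 b a).symm) h.1 h.2))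

omit D in
/-- 117's laminar family on the square -/
theorem Ord.lam117 {D : Fd L K b h ρ S T r1 r2 N} (O : Ord D col)
    (mid : ∀ i, ∃ z ∈ sph 2, L.c i z = 0) : Pc_117.Lam (cube 2) col D.face.c where
  mem i z hz := D.face.cm i z hz
  same := O.same
  mid i := by
    obtain ⟨z, hz, h0⟩ := mid i
    refine ⟨z, sph_subset_cube hz, ?_⟩
    rw [D.sqExt.c i z hz, h0, zero_div]
    exact cl_of_mem ⟨by norm_num, by norm_num⟩

omit D in
/-- the bands of one colour are disjoint -/
theorem Ord.dj {D : Fd L K b h ρ S T r1 r2 N} (O : Ord D col) (i j : ι) (hij : i ≠ j)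
    (hc : col i = col j) : Disjoint (D.face.B i) (D.face.B j) := by
  have hb := D.dep.cst.b2
  have ring : ∀ x, x ∈ D.ring.B i → x ∈ D.ring.B j → False := by
    intro x hi hj
    rw [D.ring_B] at hi hj
    have hz := D.co_mem hi.1
    have i1 := (abs_le.1 hi.2).1
    have i2 := (abs_le.1 hi.2).2
    have j1 := (abs_le.1 hj.2).1
    have j2 := (abs_le.1 hj.2).2
    rcases O.rel i j hij hc with h | h | h
    · rcases Af_out h hz with e | e
      · rw [e] at i1; linarith
      · rw [e] at j1; linarith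
    · have := D.Af_ins hij h.1 h.2 hz (by linarith)
      rw [this] at j2; linarith
    · have := D.Af_ins hij.symm h.1 h.2 hz (by linarith)
      rw [this] at i2; linarith
  refine Set.disjoint_left.2 fun x hi hj => ?_
  rw [D.face_B] at hi hj
  rcases hi with hi | hi
  · rcases hj with hj | hj
    · exact ring x hi hj
    · exact ring x hi ((D.match_B j (D.ring.BZ i hi) hj.1).2 hj)
  · rcases hj with hj | hj
    · exact ring x ((D.match_B i (D.ring.BZ j hj) hi.1).2 hi) hj
    · exact N.ne_ax hij hi hj (O.ax i j hij hc hi.2.1 hj.2.1).symm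

end Fd

end Crest.Agent.R096.Fc_522
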