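import Crest.Agent.R096.Fc5_522

/-!
# R096 (row 96), P4-FACE, part 6: the matching conditions from concrete data: long chords with affine
bands on two opposite sides, side homeos which straighten them (helper522)
-/

set_option autoImplicit false

open Set Metric

namespace Crest.Agent.R096.Fc_522

open Crest.Agent.R096.Ce_537 Crest.Agent.R096.Bd_416

variable {ι : Type*}

/-! ### the clamp -/

lemma cl_cl {b : ℝ} (h0 : 0 < b) (h2 : b ≤ 1/2) (t : ℝ) : cl (cl t / (2 * b)) = cl (t / (2 * b)) := by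
  have hb : 0 < 2 * b := by linarith
  rcases le_total t (-1/2) with h | h
  · rw [cl_of_le h, cl_of_le, cl_of_le]
    · rw [div_le_iff₀ hb]; linarith
    · rw [div_le_iff₀ hb]; linarith
  · rcases le_total t (1/2) with h' | h'
    · rw [cl_of_mem ⟨h, h'⟩]
    · rw [cl_of_ge h', cl_of_ge, cl_of_ge]
      · rw [le_div_iff₀ hb]; linarith
      · rw [le_div_iff₀ hb]; linarith

lemma abs_cl_le {b t : ℝ} (h2 : b < 1/2) : |cl t| ≤ b ↔ |t| ≤ b := by
  constructor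
  · intro h
    have := (abs_cl_lt (lt_of_le_of_lt h h2)).1
    rwa [← this] at h
  · intro h
    obtain ⟨h1, h3⟩ := abs_le.1 h
    rwa [cl_of_mem ⟨by linarith, by linarith⟩]

lemma abs_sgn {σ : ℝ} (h : σ = 1 ∨ σ = -1) (t : ℝ) : |σ * t| = |t| := by
  rcases h with rfl | rfl
  · rw [one_mul]
  · rw [neg_one_mul, abs_neg]

lemma sgn_sq {σ : ℝ} (h : σ = 1 ∨ σ = -1) : σ * σ = 1 := by
  rcases h with rfl | rfl <;> norm_num

/-! ### the collar coordinate is strictly monotone -/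

lemma cg_le {r x y : ℝ} (h : x ≤ y) : cg r x ≤ cg r y := by
  unfold cg
  have h1 : max 0 ((y + 1 - 2 * r) / 2) ≤ max 0 ((x + 1 - 2 * r) / 2) + (y - x) / 2 := by
    rcases le_total 0 ((y + 1 - 2 * r) / 2) with h' | h'
    · rw [max_eq_right h']
      have := le_max_right 0 ((x + 1 - 2 * r) / 2)
      linarith
    · rw [max_eq_left h']
      have := le_max_left 0 ((x + 1 - 2 * r) / 2)
      linarith
  have h2 : max 0 ((-x + 1 - 2 * r) / 2) ≤ max 0 ((-y + 1 - 2 * r) / 2) + (y - x) / 2 := by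
    rcases le_total 0 ((-x + 1 - 2 * r) / 2) with h' | h'
    · rw [max_eq_right h']
      have := le_max_right 0 ((-y + 1 - 2 * r) / 2)
      linarith
    · rw [max_eq_left h']
      have := le_max_left 0 ((-y + 1 - 2 * r) / 2)
      linarith
  linarith

lemma cf_lt {r x y : ℝ} (hr : 1/2 ≤ r) (h : x < y) : cf r x < cf r y := by
  by_contra hc
  have := cg_le (r := r) (not_lt.1 hc)
  rw [cg_cf hr, cg_cf hr] at this
  linarith

lemma cf_J {r y : ℝ} (hr : 1/2 ≤ r) (hr1 : r ≤ 1) (hy : |y| ≤ r) : cf r y ∈ J := by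
  have h1 : |cf r y| ≤ 1 := by
    rw [abs_cf r y hr, ← cf_top hr hr1]
    exact cf_mono hr (abs_nonneg _) hy
  exact abs_le.1 h1

lemma Mono.inj {k k' : ℝ → ℝ} (M : Mono k k') {x y : ℝ} (hx : x ∈ J) (hy : y ∈ J) (h : x < y) :
    k x < k y := by
  refine lt_of_le_of_ne (M.mono x hx y hy h.le) fun he => ?_
  have := congrArg k' he
  rw [M.li x hx, M.li y hy] at this
  linarith

/-- side map `k` straightens the band `{|x - p| ≤ b w}` to `{|y - ξ| ≤ ℓ/2}` -/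
def Str (k : ℝ → ℝ) (b r2 p w ξ ℓ : ℝ) : Prop :=
  ∀ y, |y - ξ| ≤ ℓ / 2 → k (cf r2 y) = p + 2 * b * w / ℓ * (y - ξ)

section Str

variable {k k' : ℝ → ℝ} {b r2 p w ξ ℓ : ℝ}

lemma Str.gt (M : Mono k k') (h : Str k b r2 p w ξ ℓ) (hr : 1/2 ≤ r2) (hr1 : r2 ≤ 1)
    (hℓ : 0 < ℓ) (hξ : |ξ| + ℓ/2 < r2) {y : ℝ} (hy : |y| ≤ r2) (hy' : ξ + ℓ/2 < y) :
    p + b * w < k (cf r2 y) := by
  have h1 := h (ξ + ℓ/2) (by rw [add_sub_cancel_left, abs_of_pos (by linarith)])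
  have h2 : p + 2 * b * w / ℓ * (ξ + ℓ/2 - ξ) = p + b * w := by field_simp; ring
  rw [h2] at h1
  rw [← h1]
  have h3 : |ξ + ℓ/2| ≤ r2 := by
    have := abs_add_le ξ (ℓ/2)
    rw [abs_of_pos (show 0 < ℓ/2 by linarith)] at this
    linarith
  exact M.inj (cf_J hr hr1 h3) (cf_J hr hr1 hy) (cf_lt hr hy')

lemma Str.lt (M : Mono k k') (h : Str k b r2 p w ξ ℓ) (hr : 1/2 ≤ r2) (hr1 : r2 ≤ 1)
    (hℓ : 0 < ℓ) (hξ : |ξ| + ℓ/2 < r2) {y : ℝ} (hy : |y| ≤ r2) (hy' : y < ξ - ℓ/2) :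
    k (cf r2 y) < p - b * w := by
  have h1 := h (ξ - ℓ/2) (by rw [sub_sub_cancel_left, abs_neg, abs_of_pos (by linarith)])
  have h2 : p + 2 * b * w / ℓ * (ξ - ℓ/2 - ξ) = p - b * w := by field_simp; ring
  rw [h2] at h1
  rw [← h1]
  have h3 : |ξ - ℓ/2| ≤ r2 := by
    have := abs_sub ξ (ℓ/2)
    rw [abs_of_pos (show 0 < ℓ/2 by linarith)] at this
    linarith
  exact M.inj (cf_J hr hr1 hy) (cf_J hr hr1 h3) (cf_lt hr hy')

lemma Str.cl_eq (M : Mono k k') (h : Str k b r2 p w ξ ℓ) (hb : 0 < b) (hr : 1/2 ≤ r2)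
    (hr1 : r2 ≤ 1) (hw : 0 < w) (hℓ : 0 < ℓ) (hξ : |ξ| + ℓ/2 < r2) {y : ℝ} (hy : |y| ≤ r2) :
    cl ((k (cf r2 y) - p) / (2 * b * w)) = cl ((y - ξ) / ℓ) := by
  have hbw : 0 < 2 * b * w := by positivity
  rcases lt_or_ge y (ξ - ℓ/2) with h1 | h1
  · have h2 := h.lt M hr hr1 hℓ hξ hy h1
    rw [cl_of_le, cl_of_le]
    · rw [div_le_iff₀ hℓ]; linarith
    · rw [div_le_iff₀ hbw]; linarith
  · rcases lt_or_ge (ξ + ℓ/2) y with h2 | h2
    · have h3 := h.gt M hr hr1 hℓ hξ hy h2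
      rw [cl_of_ge, cl_of_ge]
      · rw [le_div_iff₀ hℓ]; linarith
      · rw [le_div_iff₀ hbw]; linarith
    · rw [h y (abs_le.2 ⟨by linarith, by linarith⟩)]
      congr 1
      field_simp
      ring

lemma Str.abs_iff (M : Mono k k') (h : Str k b r2 p w ξ ℓ) (hb : 0 < b) (hr : 1/2 ≤ r2)
    (hr1 : r2 ≤ 1) (hw : 0 < w) (hℓ : 0 < ℓ) (hξ : |ξ| + ℓ/2 < r2) {y : ℝ} (hy : |y| ≤ r2) :
    |(k (cf r2 y) - p) / w| ≤ b ↔ |y - ξ| ≤ ℓ / 2 := by
  rw [abs_div, abs_of_pos hw, div_le_iff₀ hw]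
  constructor
  · intro h1
    obtain ⟨h2, h3⟩ := abs_le.1 h1
    by_contra hc
    rcases lt_abs.1 (not_le.1 hc) with h4 | h4
    · have := h.gt M hr hr1 hℓ hξ hy (by linarith)
      linarith
    · have := h.lt M hr hr1 hℓ hξ hy (by linarith)
      linarith
  · intro h1
    rw [h y h1, add_sub_cancel_left, abs_mul, abs_of_pos (by positivity)]
    have : 2 * b * w / ℓ * |y - ξ| ≤ 2 * b * w / ℓ * (ℓ/2) := by gcongr
    have h2 : 2 * b * w / ℓ * (ℓ/2) = b * w := by field_simp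
    linarith

end Str

/-! ### long chords -/

/-- a long chord of axis `a`: two bands, one on the side `ω (oth a) = -1`, one on the side
`ω (oth a) = 1`, the band function is affine on them -/
structure LongCh (L : Lam (sph 2) ι) (i : ι) (a : Fin 2) (σ p w q v : ℝ) : Prop where
  hσ : σ = 1 ∨ σ = -1
  hw : 0 < w
  hv : 0 < v
  hp : |p| + w/2 < 1
  hq : |q| + v/2 < 1
  lo : ∀ ω ∈ sph 2, ω (oth a) = -1 → L.c i ω = cl (σ * ((ω a - p) / w))
  hi : ∀ ω ∈ sph 2, ω (oth a) = 1 → L.c i ω = cl (σ * ((ω a - q) / v))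
  sl : ∀ ω ∈ sph 2, ω a = -1 → L.c i ω = -(σ / 2)
  sr : ∀ ω ∈ sph 2, ω a = 1 → L.c i ω = σ / 2
  B : ∀ ω ∈ L.B i, (ω (oth a) = -1 ∧ |ω a - p| ≤ w / 2) ∨ (ω (oth a) = 1 ∧ |ω a - q| ≤ v / 2)

lemma LongCh.tr_lo {L : Lam (sph 2) ι} {i : ι} {a : Fin 2} {σ p w q v : ℝ}
    (C : LongCh L i a σ p w q v) {ω : Fin 2 → ℝ} (hB : ω ∈ L.B i) (hω : ω (oth a) = -1) {s : ℝ}
    (hs : s ∈ I2) : L.tr i (ω, s) = upd a ω (p + σ * w * s) := by
  have hc : ContinuousOn (fun s : ℝ => L.tr i (ω, s)) I2 :=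
    (L.pt i).1.comp (by fun_prop) (fun s hs => ⟨hB, hs⟩)
  have hz : ω ∈ sph 2 := L.BZ i hB
  have hU : ∀ s ∈ I2, L.tr i (ω, s) ∈ {ω' : Fin 2 → ℝ | ω' (oth a) = -1} := by
    refine pre_mem isPreconnected_I2 hc (isClosed_side (oth a) (-1)) (isClosed_side (oth a) 1)
      ?_ ?_ (L.cm i ω hz) ?_
    · refine Set.disjoint_left.2 fun x hx hx' => ?_
      have e1 : x (oth a) = -1 := hx
      have e2 : x (oth a) = 1 := hx'
      rw [e1] at e2; norm_num at e2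
    · intro s hs
      rcases C.B _ (L.trB i ω hB s hs) with h | h
      · exact Or.inl h.1
      · exact Or.inr h.1
    · show L.tr i (ω, L.c i ω) (oth a) = -1
      rw [L.tr_self i ω hB]; exact hω
  have h1 : L.tr i (ω, s) (oth a) = -1 := hU s hs
  have hB' := L.trB i ω hB s hs
  have h2 := C.lo _ (L.BZ i hB') h1
  rw [L.ctr i ω hB s hs] at h2
  have h3 : |L.tr i (ω, s) a - p| ≤ w / 2 := by
    rcases C.B _ hB' with h | h
    · exact h.2
    · rw [h1] at h; norm_num at h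
  have hw := C.hw
  have h4 : |σ * ((L.tr i (ω, s) a - p) / w)| ≤ 1/2 := by
    rw [abs_sgn C.hσ, abs_div, abs_of_pos hw, div_le_iff₀ hw]; linarith
  obtain ⟨h5, h6⟩ := abs_le.1 h4
  rw [cl_of_mem ⟨by linarith, h6⟩] at h2
  have h7 : L.tr i (ω, s) a = p + σ * w * s := by
    have h8 := sgn_sq C.hσ
    have : σ * w * (σ * ((L.tr i (ω, s) a - p) / w)) = (σ * σ) * (L.tr i (ω, s) a - p) := by
      field_simp
    rw [← h2, h8] at this
    linarith
  funext j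
  by_cases hj : j = a
  · rw [hj, upd_same]; exact h7
  · rw [upd_ne hj, eq_oth hj, h1, hω]

lemma LongCh.tr_hi {L : Lam (sph 2) ι} {i : ι} {a : Fin 2} {σ p w q v : ℝ}
    (C : LongCh L i a σ p w q v) {ω : Fin 2 → ℝ} (hB : ω ∈ L.B i) (hω : ω (oth a) = 1) {s : ℝ}
    (hs : s ∈ I2) : L.tr i (ω, s) = upd a ω (q + σ * v * s) := by
  have hc : ContinuousOn (fun s : ℝ => L.tr i (ω, s)) I2 :=
    (L.pt i).1.comp (by fun_prop) (fun s hs => ⟨hB, hs⟩)
  have hz : ω ∈ sph 2 := L.BZ i hB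
  have hU : ∀ s ∈ I2, L.tr i (ω, s) ∈ {ω' : Fin 2 → ℝ | ω' (oth a) = 1} := by
    refine pre_mem isPreconnected_I2 hc (isClosed_side (oth a) 1) (isClosed_side (oth a) (-1))
      ?_ ?_ (L.cm i ω hz) ?_
    · refine Set.disjoint_left.2 fun x hx hx' => ?_
      have e1 : x (oth a) = 1 := hx
      have e2 : x (oth a) = -1 := hx'
      rw [e1] at e2; norm_num at e2
    · intro s hs
      rcases C.B _ (L.trB i ω hB s hs) with h | h
      · exact Or.inr h.1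
      · exact Or.inl h.1
    · show L.tr i (ω, L.c i ω) (oth a) = 1
      rw [L.tr_self i ω hB]; exact hω
  have h1 : L.tr i (ω, s) (oth a) = 1 := hU s hs
  have hB' := L.trB i ω hB s hs
  have h2 := C.hi _ (L.BZ i hB') h1
  rw [L.ctr i ω hB s hs] at h2
  have h3 : |L.tr i (ω, s) a - q| ≤ v / 2 := by
    rcases C.B _ hB' with h | h
    · rw [h1] at h; norm_num at h
    · exact h.2
  have hv := C.hv
  have h4 : |σ * ((L.tr i (ω, s) a - q) / v)| ≤ 1/2 := by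
    rw [abs_sgn C.hσ, abs_div, abs_of_pos hv, div_le_iff₀ hv]; linarith
  obtain ⟨h5, h6⟩ := abs_le.1 h4
  rw [cl_of_mem ⟨by linarith, h6⟩] at h2
  have h7 : L.tr i (ω, s) a = q + σ * v * s := by
    have h8 := sgn_sq C.hσ
    have : σ * v * (σ * ((L.tr i (ω, s) a - q) / v)) = (σ * σ) * (L.tr i (ω, s) a - q) := by
      field_simp
    rw [← h2, h8] at this
    linarith
  funext j
  by_cases hj : j = a
  · rw [hj, upd_same]; exact h7
  · rw [upd_ne hj, eq_oth hj, h1, hω]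

/-! ### the sides by axis -/

/-- the side map of the side `ω (oth a) = -1` -/
def Sides.lo (S : Sides) (a : Fin 2) : ℝ → ℝ := if a = 0 then S.b else S.l
def Sides.lo' (S : Sides) (a : Fin 2) : ℝ → ℝ := if a = 0 then S.b' else S.l'
/-- the side map of the side `ω (oth a) = 1` -/
def Sides.up (S : Sides) (a : Fin 2) : ℝ → ℝ := if a = 0 then S.t else S.r
def Sides.up' (S : Sides) (a : Fin 2) : ℝ → ℝ := if a = 0 then S.t' else S.r'

lemma Sides.hlo (S : Sides) (a : Fin 2) : Mono (S.lo a) (S.lo' a) := by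
  fin_cases a
  · exact S.hb
  · exact S.hl

lemma Sides.hup (S : Sides) (a : Fin 2) : Mono (S.up a) (S.up' a) := by
  fin_cases a
  · exact S.ht
  · exact S.hr

lemma upd_vec0 {ω : Fin 2 → ℝ} {v c : ℝ} (h : ω 1 = c) : ![v, c] = upd 0 ω v := by
  funext j; fin_cases j
  · rfl
  · show c = ω 1
    rw [h]

lemma upd_vec1 {ω : Fin 2 → ℝ} {v c : ℝ} (h : ω 0 = c) : ![c, v] = upd 1 ω v := by
  funext j; fin_cases j
  · show c = ω 0
    rw [h]
  · rfl

lemma sh_lo (S : Sides) (a : Fin 2) {t : ℝ} (ht : 0 ≤ t) {ω : Fin 2 → ℝ} (hω : ω ∈ sph 2)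
    (h : ω (oth a) = -1) : sh S t ω = upd a ω (mv (S.lo a) t (ω a)) := by
  fin_cases a
  · rw [sh_bot S ht hω h, upd_vec0 h]; rfl
  · rw [sh_left S ht hω h, upd_vec1 h]; rfl

lemma sh_up (S : Sides) (a : Fin 2) {t : ℝ} (ht : 0 ≤ t) {ω : Fin 2 → ℝ} (hω : ω ∈ sph 2)
    (h : ω (oth a) = 1) : sh S t ω = upd a ω (mv (S.up a) t (ω a)) := by
  fin_cases a
  · rw [sh_top S ht hω h, upd_vec0 h]; rfl
  · rw [sh_right S ht hω h, upd_vec1 h]; rfl

/-- on the side `ω a = ± 1` the coordinate `a` does not move -/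
lemma sh_fix (S : Sides) (a : Fin 2) {t : ℝ} (ht : 0 ≤ t) {ω : Fin 2 → ℝ} (hω : ω ∈ sph 2)
    {e : ℝ} (he : e = -1 ∨ e = 1) (h : ω a = e) : sh S t ω a = e := by
  rcases he with rfl | rfl
  · have h' : ω (oth (oth a)) = -1 := by rw [oth_oth]; exact h
    rw [sh_lo S (oth a) ht hω h', upd_ne (oth_ne a).symm, h]
  · have h' : ω (oth (oth a)) = 1 := by rw [oth_oth]; exact h
    rw [sh_up S (oth a) ht hω h', upd_ne (oth_ne a).symm, h]

/-! ### the matching -/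

/-- concrete data which give `Fd` -/
structure Geo (L : Lam (sph 2) ι) (K b : ℝ) (h ρ : ι → ℝ) (S : Sides) (T r1 r2 : ℝ)
    (N : Inn ι r2) (p w q v : ι → ℝ) : Prop where
  dep : Dep L K b h ρ
  hT : 0 ≤ T
  r2h : 1/2 ≤ r2
  r21 : r2 ≤ r1
  r1o : r1 ≤ 1
  lg : ∀ i, N.lng i → ρ i + h i/2 ≤ r2
  st : ∀ i, ¬ N.lng i → r1 ≤ ρ i - h i/2
  hst : ∀ i, N.lng i → |N.ξ i| + N.ℓ i / 2 < r2
  ch : ∀ i, N.lng i → LongCh L i (N.ax i) (N.σ i) (p i) (w i) (q i) (v i)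
  /-- the shift arrives -/
  arr_lo : ∀ a, ∀ x ∈ J, |S.lo a x - x| ≤ T * (r1 - r2)
  arr_up : ∀ a, ∀ x ∈ J, |S.up a x - x| ≤ T * (r1 - r2)
  str_lo : ∀ i, N.lng i → Str (S.lo (N.ax i)) b r2 (p i) (w i) (N.ξ i) (N.ℓ i)
  str_up : ∀ i, N.lng i → Str (S.up (N.ax i)) b r2 (q i) (v i) (N.ξ i) (N.ℓ i)

namespace Geo

variable {L : Lam (sph 2) ι} {K b : ℝ} {h ρ : ι → ℝ} {S : Sides} {T r1 r2 : ℝ} {N : Inn ι r2}
  {p w q v : ι → ℝ} (D : Geo L K b h ρ S T r1 r2 N p w q v)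
include D

lemma t0 : 0 ≤ T * (r1 - r2) := mul_nonneg D.hT (sub_nonneg.2 D.r21)

lemma r2o : r2 ≤ 1 := D.r21.trans D.r1o

lemma om_mem {x : Fin 2 → ℝ} (hx : ‖x‖ = r2) : (fun j => cf r2 (x j)) ∈ sph 2 := by
  have h1 : ‖fun j => cf ‖x‖ (x j)‖ = 1 := norm_cf ⟨by rw [hx]; exact D.r2h, by rw [hx]; exact D.r2o⟩
  rw [hx] at h1
  simpa using h1

omit D in
lemma le_r2 {x : Fin 2 → ℝ} (hx : ‖x‖ = r2) (a : Fin 2) : |x a| ≤ r2 := by
  rw [← hx]; exact abs_apply_le x a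

lemma cf_neg_r2 : cf r2 (-r2) = -1 := by rw [cf_neg, cf_top D.r2h D.r2o]

/-- the four sides, by the axis `a` -/
lemma cases (a : Fin 2) {x : Fin 2 → ℝ} (hx : ‖x‖ = r2) :
    x (oth a) = -r2 ∨ x (oth a) = r2 ∨ x a = -r2 ∨ x a = r2 := by
  have hx0 : x ≠ 0 := by
    rintro rfl; rw [norm_zero] at hx; have := D.r2h; linarith
  obtain ⟨j, hj⟩ := exists_coord hx0
  rw [hx] at hj
  have h0 : 0 ≤ r2 := by have := D.r2h; linarith
  by_cases h : j = a
  · subst h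
    rcases (abs_eq h0).1 hj.symm with h | h
    · exact Or.inr (Or.inr (Or.inr h))
    · exact Or.inr (Or.inr (Or.inl h))
  · have e := eq_oth h
    subst e
    rcases (abs_eq h0).1 hj.symm with h | h
    · exact Or.inr (Or.inl h)
    · exact Or.inl h

lemma wv_lo (a : Fin 2) {x : Fin 2 → ℝ} (hx : ‖x‖ = r2) (h : x (oth a) = -r2) :
    wv S (T * (r1 - r2)) r2 x = upd a (fun j => cf r2 (x j)) (S.lo a (cf r2 (x a))) := by
  unfold wv
  have h1 : (fun j => cf r2 (x j)) (oth a) = -1 := by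
    show cf r2 (x (oth a)) = -1
    rw [h, D.cf_neg_r2]
  rw [sh_lo S a D.t0 (D.om_mem hx) h1]
  congr 1
  exact mv_of_le (D.arr_lo a _ (cf_J D.r2h D.r2o (le_r2 hx a)))

lemma wv_up (a : Fin 2) {x : Fin 2 → ℝ} (hx : ‖x‖ = r2) (h : x (oth a) = r2) :
    wv S (T * (r1 - r2)) r2 x = upd a (fun j => cf r2 (x j)) (S.up a (cf r2 (x a))) := by
  unfold wv
  have h1 : (fun j => cf r2 (x j)) (oth a) = 1 := by
    show cf r2 (x (oth a)) = 1
    rw [h, cf_top D.r2h D.r2o]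
  rw [sh_up S a D.t0 (D.om_mem hx) h1]
  congr 1
  exact mv_of_le (D.arr_up a _ (cf_J D.r2h D.r2o (le_r2 hx a)))

lemma wv_mem {x : Fin 2 → ℝ} (hx : ‖x‖ = r2) : wv S (T * (r1 - r2)) r2 x ∈ sph 2 :=
  sh_mem S D.t0 (D.om_mem hx)

lemma wv_sl (a : Fin 2) {x : Fin 2 → ℝ} (hx : ‖x‖ = r2) (h : x a = -r2) :
    wv S (T * (r1 - r2)) r2 x a = -1 :=
  sh_fix S a D.t0 (D.om_mem hx) (Or.inl rfl) (by show cf r2 (x a) = -1; rw [h, D.cf_neg_r2])

lemma wv_sr (a : Fin 2) {x : Fin 2 → ℝ} (hx : ‖x‖ = r2) (h : x a = r2) :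
    wv S (T * (r1 - r2)) r2 x a = 1 :=
  sh_fix S a D.t0 (D.om_mem hx) (Or.inr rfl)
    (by show cf r2 (x a) = 1; rw [h, cf_top D.r2h D.r2o])

lemma wv_oth_lo (a : Fin 2) {x : Fin 2 → ℝ} (hx : ‖x‖ = r2) (h : x (oth a) = -r2) :
    wv S (T * (r1 - r2)) r2 x (oth a) = -1 := by
  rw [D.wv_lo a hx h, upd_ne (oth_ne a)]
  show cf r2 (x (oth a)) = -1
  rw [h, D.cf_neg_r2]

lemma wv_oth_up (a : Fin 2) {x : Fin 2 → ℝ} (hx : ‖x‖ = r2) (h : x (oth a) = r2) :
    wv S (T * (r1 - r2)) r2 x (oth a) = 1 := by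
  rw [D.wv_up a hx h, upd_ne (oth_ne a)]
  show cf r2 (x (oth a)) = 1
  rw [h, cf_top D.r2h D.r2o]

/-- the value of the band function at the shifted point -/
lemma c_lo {i : ι} (hi : N.lng i) {x : Fin 2 → ℝ} (hx : ‖x‖ = r2)
    (h : x (oth (N.ax i)) = -r2) :
    L.c i (wv S (T * (r1 - r2)) r2 x)
      = cl (N.σ i * ((S.lo (N.ax i) (cf r2 (x (N.ax i))) - p i) / w i)) := by
  rw [(D.ch i hi).lo _ (D.wv_mem hx) (D.wv_oth_lo _ hx h)]
  have : wv S (T * (r1 - r2)) r2 x (N.ax i) = S.lo (N.ax i) (cf r2 (x (N.ax i))) := by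
    rw [D.wv_lo _ hx h, upd_same]
  rw [this]

lemma c_up {i : ι} (hi : N.lng i) {x : Fin 2 → ℝ} (hx : ‖x‖ = r2)
    (h : x (oth (N.ax i)) = r2) :
    L.c i (wv S (T * (r1 - r2)) r2 x)
      = cl (N.σ i * ((S.up (N.ax i) (cf r2 (x (N.ax i))) - q i) / v i)) := by
  rw [(D.ch i hi).hi _ (D.wv_mem hx) (D.wv_oth_up _ hx h)]
  have : wv S (T * (r1 - r2)) r2 x (N.ax i) = S.up (N.ax i) (cf r2 (x (N.ax i))) := by
    rw [D.wv_up _ hx h, upd_same]
  rw [this]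

lemma far {i : ι} (hi : N.lng i) : N.ℓ i / 2 < r2 - N.ξ i ∧ N.ℓ i / 2 < r2 + N.ξ i := by
  have h1 := D.hst i hi
  have h2 := le_abs_self (N.ξ i)
  have h3 := neg_abs_le (N.ξ i)
  constructor <;> linarith

/-- **the abstract data of the face rule from the concrete data** -/
theorem fd : Fd L K b h ρ S T r1 r2 N where
  dep := D.dep
  hT := D.hT
  r2h := D.r2h
  r21 := D.r21
  r1o := D.r1o
  lg := D.lg
  st := D.st
  hst := D.hst
  m1 i hi x hx := by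
    have hb := D.dep.cst.b0
    have hb2 := D.dep.cst.b2
    have C := D.ch i hi
    have hℓ := N.hℓ i
    have hx' := le_r2 hx (N.ax i)
    obtain ⟨f1, f2⟩ := D.far hi
    rw [N.c_lng hi]
    rcases D.cases (N.ax i) hx with h | h | h | h
    · rw [D.c_lo hi hx h, cl_cl hb hb2.le, mul_div_assoc, cl_sgn C.hσ, cl_sgn C.hσ]
      congr 1
      have := (D.str_lo i hi).cl_eq (S.hlo _) hb D.r2h D.r2o C.hw hℓ (D.hst i hi) hx'
      rw [← this, div_div, mul_comm (w i)]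
    · rw [D.c_up hi hx h, cl_cl hb hb2.le, mul_div_assoc, cl_sgn C.hσ, cl_sgn C.hσ]
      congr 1
      have := (D.str_up i hi).cl_eq (S.hup _) hb D.r2h D.r2o C.hv hℓ (D.hst i hi) hx'
      rw [← this, div_div, mul_comm (v i)]
    · rw [C.sl _ (D.wv_mem hx) (D.wv_sl _ hx h), h, cl_sgn C.hσ]
      have e1 : cl ((-r2 - N.ξ i) / N.ℓ i) = -1/2 := by
        apply cl_of_le; rw [div_le_iff₀ hℓ]; linarith
      rw [e1]
      rcases C.hσ with e | e
      · rw [e]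
        have : -(1/2 : ℝ) / (2 * b) = -1/2 / (2 * b) := by ring
        rw [this, cl_low hb hb2]; norm_num
      · rw [e]
        have : -(-1/2 : ℝ) / (2 * b) = 1/2 / (2 * b) := by ring
        rw [this, cl_half hb hb2 (Or.inr rfl)]; norm_num
    · rw [C.sr _ (D.wv_mem hx) (D.wv_sr _ hx h), h, cl_sgn C.hσ]
      have e1 : cl ((r2 - N.ξ i) / N.ℓ i) = 1/2 := by
        apply cl_of_ge; rw [le_div_iff₀ hℓ]; linarith
      rw [e1]
      rcases C.hσ with e | e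
      · rw [e, cl_half hb hb2 (Or.inr rfl)]; norm_num
      · rw [e, cl_low hb hb2]; norm_num
  m2 i hi x hx := by
    have hb := D.dep.cst.b0
    have hb2 := D.dep.cst.b2
    have C := D.ch i hi
    have hℓ := N.hℓ i
    have hx' := le_r2 hx (N.ax i)
    obtain ⟨f1, f2⟩ := D.far hi
    have hN : x ∈ N.B i ↔ |x (N.ax i) - N.ξ i| ≤ N.ℓ i / 2 :=
      ⟨fun h => h.2.2, fun h => ⟨hx.le, hi, h⟩⟩
    rw [hN]
    rcases D.cases (N.ax i) hx with h | h | h | h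
    · rw [D.c_lo hi hx h, abs_cl_le hb2, abs_sgn C.hσ]
      exact (D.str_lo i hi).abs_iff (S.hlo _) hb D.r2h D.r2o C.hw hℓ (D.hst i hi) hx'
    · rw [D.c_up hi hx h, abs_cl_le hb2, abs_sgn C.hσ]
      exact (D.str_up i hi).abs_iff (S.hup _) hb D.r2h D.r2o C.hv hℓ (D.hst i hi) hx'
    · rw [C.sl _ (D.wv_mem hx) (D.wv_sl _ hx h), h]
      constructor
      · intro h1
        rcases C.hσ with e | e <;> rw [e] at h1 <;> norm_num [abs_of_neg] at h1 <;> linarith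
      · intro h1
        have := (abs_le.1 h1).1
        linarith
    · rw [C.sr _ (D.wv_mem hx) (D.wv_sr _ hx h), h]
      constructor
      · intro h1
        rcases C.hσ with e | e <;> rw [e] at h1 <;> norm_num [abs_of_neg] at h1 <;> linarith
      · intro h1
        have := (abs_le.1 h1).2
        linarith
  m3 i hi x hx hB s hs := by
    have hb := D.dep.cst.b0
    have hb2 := D.dep.cst.b2
    have C := D.ch i hi
    have hℓ := N.hℓ i
    have hx' := le_r2 hx (N.ax i)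
    obtain ⟨f1, f2⟩ := D.far hi
    have h2s := mem_scale hb hb2 hs
    have hpos := N.pos_abs (i := i) hs
    have hne := oth_ne (N.ax i)
    -- the other coordinate does not move
    have ho : N.tr i (x, s) (oth (N.ax i)) = x (oth (N.ax i)) := by rw [Inn.tr, upd_ne hne]
    have ha : N.tr i (x, s) (N.ax i) = N.ξ i + N.σ i * N.ℓ i * s := by rw [Inn.tr, upd_same]
    have key : ∀ e : ℝ, x (oth (N.ax i)) = e → |e| = r2 → ‖N.tr i (x, s)‖ = r2 := by
      intro e h1 h2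
      apply le_antisymm (N.tr_B hB hs).1
      calc r2 = |N.tr i (x, s) (oth (N.ax i))| := by rw [ho, h1, h2]
        _ ≤ _ := abs_apply_le _ _
    have h0 : 0 ≤ r2 := by have := D.r2h; linarith
    have hcB : |L.c i (wv S (T * (r1 - r2)) r2 x)| ≤ b := by
      rcases D.cases (N.ax i) hx with h | h | h | h
      · rw [D.c_lo hi hx h, abs_cl_le hb2, abs_sgn C.hσ]
        exact ((D.str_lo i hi).abs_iff (S.hlo _) hb D.r2h D.r2o C.hw hℓ (D.hst i hi) hx').2 hB.2.2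
      · rw [D.c_up hi hx h, abs_cl_le hb2, abs_sgn C.hσ]
        exact ((D.str_up i hi).abs_iff (S.hup _) hb D.r2h D.r2o C.hv hℓ (D.hst i hi) hx').2 hB.2.2
      · have := (abs_le.1 hB.2.2).1; rw [h] at this; linarith
      · have := (abs_le.1 hB.2.2).2; rw [h] at this; linarith
    have hLB : wv S (T * (r1 - r2)) r2 x ∈ L.B i := D.dep.B_of_le (D.wv_mem hx) hcB
    rcases D.cases (N.ax i) hx with h | h | h | h
    · have hn := key _ h (by rw [abs_neg, abs_of_nonneg h0])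
      have h' : N.tr i (x, s) (oth (N.ax i)) = -r2 := by rw [ho, h]
      rw [C.tr_lo hLB (D.wv_oth_lo _ hx h) h2s, D.wv_lo _ hn h', D.wv_lo _ hx h, upd_upd]
      funext j
      by_cases hj : j = N.ax i
      · rw [hj, upd_same, upd_same, ha, (D.str_lo i hi) _ hpos]
        field_simp
        ring
      · rw [upd_ne hj, upd_ne hj]
        show cf r2 (x j) = cf r2 (N.tr i (x, s) j)
        rw [Inn.tr, upd_ne hj]
    · have hn := key _ h (by rw [abs_of_nonneg h0])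
      have h' : N.tr i (x, s) (oth (N.ax i)) = r2 := by rw [ho, h]
      rw [C.tr_hi hLB (D.wv_oth_up _ hx h) h2s, D.wv_up _ hn h', D.wv_up _ hx h, upd_upd]
      funext j
      by_cases hj : j = N.ax i
      · rw [hj, upd_same, upd_same, ha, (D.str_up i hi) _ hpos]
        field_simp
        ring
      · rw [upd_ne hj, upd_ne hj]
        show cf r2 (x j) = cf r2 (N.tr i (x, s) j)
        rw [Inn.tr, upd_ne hj]
    · have := (abs_le.1 hB.2.2).1; rw [h] at this; linarith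
    · have := (abs_le.1 hB.2.2).2; rw [h] at this; linarith

end Geo

end Crest.Agent.R096.Fc_522
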