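import Crest.Agent.R096.Fcd1_117
import Crest.Agent.R096.Dfn1_416

/-!
# R096 (row 96), FRONT, field `lab` (helper117), part 2: the inputs `hgi`, `hst` of `exists_cd` for the
state after CUT

* `levL`     : the levels of a pattern with barriers, names of the families only;
* `exG_s3`   : the state after CUT on the boundary of a shrunk core is the exact pattern;
* `giD_s3`   : **`hgi`**;
* `mem_outK` : for a family whose points are in no core the outer state contains all points;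
* `hst_s3`   : **`hst`**.
-/

set_option autoImplicit false
set_option linter.unusedSectionVars false
set_option linter.unusedVariables false

open Set Relation Module
open scoped Classical

namespace Crest.Agent.R096.Fcd_117

open Crest.Agent.R096.Brk1_582 Crest.Agent.R096.Brk2_582 Crest.Agent.R096.Brk3_582
  Crest.Agent.R096.Brk5_582 Crest.Agent.R096.Bsp_628 Crest.Agent.R096.Init_543
  Crest.Agent.R096.Vb_965 Crest.Agent.R096.Msh_715 Crest.Agent.R096.St_147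
  Crest.Agent.R096.Seq_213 Crest.Agent.R096.Lm_117 Crest.Agent.R096.Gl_422
  Crest.Agent.R096.SkB_662 Crest.Agent.R096.Cpo_642
  Crest.Agent.R096.Ce_537 Crest.Agent.R096.Agl5_543
  Crest.Agent.R096.Cp_298 Crest.Agent.R096.Gm_298 Crest.Agent.R096.Ac_117
  Crest.Agent.R096.Sla_184 Crest.Agent.R096.Kin_527
  Crest.Agent.R096.Vrt_422 Crest.Agent.R096.Rop_441 Crest.Agent.R096.Qdl_662
  Crest.Agent.R096.Lmx_662 Crest.Agent.R096.Flb_422 Crest.Agent.R096.Frk_441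
  Crest.Agent.R096.Exa_560 Crest.Agent.R096.Dfi_539 Crest.Agent.R096.Dfi_471
  Crest.Agent.R096.Dfo_539 Crest.Agent.R096.Door_501 Crest.Agent.R096.Twr_438
  Crest.Agent.R096.Ess3_95 Crest.Agent.R096.Dfn_416
open Crest.Agent.R096.Sla_184.Sla (hf vf old tg F0 Fn Out OnS InL In)
open Crest.Agent.R096.St_147.St (Frozen)
open Crest.Agent.R096.SkC1_961 (E3 Hom3 FoamD)
open Crest.Agent.R096.Mbf_337 (KJ sb)
open Crest.Agent.R096.Gia_537 (Kc Kc_sub Kc_compact Kc_disj Kc_exact)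
open Crest.Agent.R096.Frn_337 (Ti cti Lay pO)
open Crest.Agent.R096.Dia_316 (nbT)
open Crest.Agent.R096.Bgf_4 (Ext)

/-! ### levels without the barriers -/

section lev

variable {E : Type} [NormedAddCommGroup E] [NormedSpace ℝ E] [FiniteDimensional ℝ E]
variable {Om : Set E} {ι : Type} {T : Tiling Om ι} {Sg : Set E} {J Mo : Type}

/-- the levels of the families -/
noncomputable def levL (L : Lev T Sg (J ⊕ Mo)) : Lev T Sg J where
  u := L.u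
  aff := L.aff
  J0 := L.J0.preimage Sum.inl (Sum.inl_injective.injOn)
  lv := fun j => L.lv (Sum.inl j)
  inj := fun i hi j hj h => Sum.inl_injective
    (L.inj _ (Finset.mem_preimage.1 hi) _ (Finset.mem_preimage.1 hj) h)
  vert := fun v hv h0 j hj => L.vert v hv h0 _ (Finset.mem_preimage.1 hj)

theorem mem_levL {L : Lev T Sg (J ⊕ Mo)} {j : J} : j ∈ (levL L).J0 ↔ Sum.inl j ∈ L.J0 :=
  Finset.mem_preimage (hf := Sum.inl_injective.injOn)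

end lev

/-! ### the giants -/

section gi

variable {E : Type} [NormedAddCommGroup E] [NormedSpace ℝ E] [FiniteDimensional ℝ E]
variable {Om : Set E} {ι : Type} {T : Tiling Om ι} {κ : Type} {S : Sla T κ} {c : κ}
variable {h3 : finrank ℝ E = 3} {J C Mo : Type} {fam : J → C} [Nonempty (J ⊕ Mo)]
  {s : GSt (meshC T h3) (Sum.map fam (id : Mo → Mo))} {r : J ⊕ Mo → E} {Sf : J ⊕ Mo → Set E}
  {nb : κ → C ⊕ Mo → Prop} {v0 v1 : ∀ c, C ⊕ Mo → VxK T S.K c} {u : κ → C ⊕ Mo → E → ℝ}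
  {A B : κ → C ⊕ Mo → ℝ} {L : ∀ c, C ⊕ Mo → Lev T (frontier (S.K c)) (J ⊕ Mo)}
  {Tw : Twrs (S.sh h3) S.n (outK S.hH S.dis s r)} {l0 : E → J ⊕ Mo}
  {am : Mo → C} {Act : C → Set (T.RIdx S.HH ⊕ κ)} {s3 : GSt (S.mn h3) fam}

/-- the boundary faces of a giant are frozen -/
theorem frozen_hf (hact : ∀ a, Sum.inr c ∉ Act a) (a : C) (G : (S.sh h3 c).Fk) :
    Frozen (S.mn h3) (Act a) (hf G (S.n c)) := by
  exact ⟨Sum.inr c, Sla.kk_mem_side (Sla.hf_onS G le_rfl), hact a⟩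

/-- **the pattern of the state after CUT on the boundary of the shrunk core is exact** -/
theorem exG_s3 (lo : LevOut s nb u A B L) (tt : TwOut S h3 s r v0 v1 L Tw)
    (D3 : CutOut (s2 S h3 Tw l0) am Act s3) (hact : ∀ a, Sum.inr c ∉ Act a) {j : J}
    (hj : nb c (Sum.inl (fam j))) : ExG S c (levL (L c (Sum.inl (fam j)))) j
      {w | w ∈ s3.P ∧ s3.lab w = j} := by
  intro w hw h1
  have h := exG_s2 (l0 := l0) lo tt (j := Sum.inl j) hj w hw h1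
  refine Iff.trans ?_ h
  obtain ⟨G, hG⟩ := exists_hf h3 hw h1
  have h2 := D3.frozen (hf G (S.n c)) w j (frozen_hf hact _ G)
  constructor
  · rintro ⟨g1, g2⟩
    have g3 := h2.1 ⟨⟨g1, hG⟩, g2⟩
    exact ⟨g3.1.1, g3.2⟩
  · rintro ⟨g1, g2⟩
    have g3 := h2.2 ⟨⟨g1, hG⟩, g2⟩
    exact ⟨g3.1.1, g3.2⟩

end gi

/-! ### the outer state -/

section out

variable {E : Type} [NormedAddCommGroup E] [NormedSpace ℝ E] [FiniteDimensional ℝ E]
variable {Om : Set E} {ι : Type} {T : Tiling Om ι} {κ : Type} {S : Sla T κ}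
variable {h3 : finrank ℝ E = 3} {J C : Type} {fam : J → C}
  {s : GSt (meshC T h3) fam} {r : J → E}

/-- if no point of the name `j` is in a core, the outer state contains all points of `j` -/
theorem mem_outK {j : J} (hroot : r j ∈ s.P ∧ s.lab (r j) = j) (hconn : s.Conn j)
    (hfar : ∀ w ∈ s.P, s.lab w = j → ∀ k, w ∉ S.K k) {w : E} (hw : w ∈ s.P) (hl : s.lab w = j) :
    w ∈ (outK S.hH S.dis s r).P := by
  have hr : r j ∈ outerP s (piK T S.K) r := ⟨hroot.1, by rw [hroot.2]⟩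
  refine hconn.2 (outerP s (piK T S.K) r) (fun F x hx hA hxl => ?_) (r j) hr hroot.1 hroot.2 w hw hl
  refine outerP_mu (fun hd => ?_) hx hA.2
  obtain ⟨k, hk⟩ := (Slc_184.diag_iff h3 (fun c => (S.hH c).core) (fun c => (S.hH c).sub)
    (fun c => (S.hH c).cc) S.dis F).1 hd
  obtain ⟨q, hq⟩ := T.cov F.pt F.pt_mem
  have h1 := T.sub_of_mem_interior (S.hH k).cpt.isClosed (S.hH k).cc hq hk
  have h2 : x ∈ F.set := hA.2.1
  rw [F.set_eq] at h2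
  exact hfar x hx.1 hxl k (h1 (T.cc_sub_tile hq h2))

end out

/-! ### the machine -/

section mach

variable {δ κ0 R c0 : ℝ} {La Om : Set E3} {ι : Type} {Φ : FoamD δ κ0 R c0 La}
  {T : Tiling Om ι} {f g : E3 → E3} {κ1 κ2 s₁ s' μ : ℝ} {X : Set Φ.F} {J0 J V : Φ.F → Set ι}
  {ct : Φ.F → ι}
  {A : Φ.F → E3 ≃ᵃ[ℝ] E3} {lam : Φ.F → ℝ} {z : Φ.F → E3} {θ : Φ.F → E3 → E3} {φ : Φ.F → E3 → ℝ}
  {ct' : Φ.F → ι} {r₀ : Φ.F → ℝ} {S : Sla T (Ti X)} {M : Φ.F → ℕ}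
  [Nonempty S.T3.Cell] {hKK : ∀ k, CoreH S.T3 (S.KK k)}
  {L : Φ.F → Finset ℝ} [Nonempty (JJ Φ L)] {hG : GF Φ r₀ T f L} {bp : JJ Φ L → E3}
  {Mo : Type} [Nonempty (JJ Φ L ⊕ Mo)]
  {sB : GSt (meshC T fr3) (Sum.map (fun j : JJ Φ L => j.1) (id : Mo → Mo))}
  {r : JJ Φ L ⊕ Mo → E3} {Sf : JJ Φ L ⊕ Mo → Set E3} {nb : Ti X → Φ.F ⊕ Mo → Prop}
  {v0 v1 : ∀ c, Φ.F ⊕ Mo → VxK T S.K c} {u : Ti X → Φ.F ⊕ Mo → E3 → ℝ}
  {Al Bl : Ti X → Φ.F ⊕ Mo → ℝ} {Lx : ∀ c, Φ.F ⊕ Mo → Lev T (frontier (S.K c)) (JJ Φ L ⊕ Mo)}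
  {Tw : Twrs (S.sh fr3) S.n (outK S.hH S.dis sB r)} {l0 : E3 → JJ Φ L ⊕ Mo}
  {am : Mo → Φ.F} {Act : Φ.F → Set (T.RIdx S.HH ⊕ Ti X)}
  {s3 : GSt (mK fr3 hKK (Sla.dis_KK (S := S))) (fun j : JJ Φ L => j.1)}
  {hLa : IsOpen La} {hR : InitR Φ T f g J0 ct' r₀}
  {hM : Mesh0 T (Pc Φ.F) (bc (F := Φ.F)) (RF Φ r₀) f (KorJ Φ J0) κ1} {hε : κ1 < s₁}
  {hε1 : κ1 < 1}

/-- **`hgi` of `exists_cd`** -/
theorem giD_s3 (lo : LevOut (Kc := S.K) sB nb u Al Bl Lx) (tt : TwOut S fr3 sB r v0 v1 Lx Tw)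
    (D3 : CutOut (s2 S fr3 Tw l0) am Act s3)
    (hu : ∀ k a, u k (Sum.inl a) = fun x => sb Φ (θ k.1 x) a)
    (hnb : ∀ k a, nbT Φ X k a → nb k (Sum.inl a))
    (hAl : ∀ k a, s₁ ≤ Al k (Sum.inl a)) (hBl : ∀ k a, Bl k (Sum.inl a) ≤ 1 - s₁)
    (hact : ∀ a k, Sum.inr k ∉ Act a) (k : Ti X) (a : Φ.F) (hn : nbT Φ X k a) :
    GiD s₁ θ S s3 k a := by
  refine ⟨levL (Lx k (Sum.inl a)), fun x hx => ?_, fun j hj => ?_⟩
  · show (Lx k (Sum.inl a)).u x = _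
    rw [lo.u k, hu k a]
  · subst hj
    have h1 : (Sum.inl j : JJ Φ L ⊕ Mo) ∈ (Lx k (Sum.inl j.1)).J0 :=
      (lo.mem k (Sum.inl j.1) (Sum.inl j)).2 ⟨rfl, hnb k j.1 hn⟩
    have h2 := lo.win k _ _ h1
    exact ⟨mem_levL.2 h1, (hAl k j.1).trans h2.1.le, h2.2.le.trans (hBl k j.1),
      exG_s3 lo tt D3 (fun a => hact a k) (hnb k j.1 hn)⟩

/-- the points of the truthful state in a core -/
theorem st0_nb (hLa : IsOpen La) (hR : InitR Φ T f g J0 ct' r₀)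
    (hC : Mbf_337.Cores Φ T f κ1 κ2 X J0 J V ct A lam z θ φ) (hμ : 0 < μ)
    (hm : ∀ c, ∀ t ∈ L c, μ ≤ t ∧ t ≤ 1 - μ) {w : E3} (hw : w ∈ (st0 hG bp).P) {k : Φ.F}
    (hk : w ∈ KJ T (J k)) :
    ((st0 hG bp).lab w).1 ≠ k ∧ (Pc Φ.F k ∩ Pc Φ.F ((st0 hG bp).lab w).1).Nonempty := by
  obtain ⟨h1, h2, h3⟩ := st0_mem hLa hR hw
  have h4 : va (Pc Φ.F) (bc (F := Φ.F)) (RF Φ r₀) f ((st0 hG bp).lab w).1 w =
      ((st0 hG bp).lab w).2.1 := by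
    rw [← h3]
    exact hR.v_eq' Φ hLa h1 (by omega) _
  have h5 := hm _ _ ((st0 hG bp).lab w).2.2
  have hk' : w ∈ Kc T J k := hk
  constructor
  · intro e
    have h6 := (va_core hLa hR hC hk').1
    rw [← e, h4] at h6
    linarith [h5.1]
  · by_contra hne
    have h6 := va_core_one hLa hR hC hne hk'
    rw [h4] at h6
    linarith [h5.2]

/-- **`hst` of `exists_cd`** -/
theorem hst_s3 (hext : Ext (st0 hG bp) sB) (hLa : IsOpen La) (hR : InitR Φ T f g J0 ct' r₀)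
    (hC : Mbf_337.Cores Φ T f κ1 κ2 X J0 J V ct A lam z θ φ) (hμ : 0 < μ)
    (hm : ∀ c, ∀ t ∈ L c, μ ≤ t ∧ t ≤ 1 - μ) (hK : ∀ k : Ti X, S.K k = KJ T (J k.1))
    (D : DIn S.hH sB r Sf nb v0 v1 u Al Bl) (D3 : CutOut (s2 S fr3 Tw l0) am Act s3)
    (hact : ∀ (a : Φ.F), ∀ c ∈ X, ∀ h, Sum.inl (S.ot (ct c) h) ∉ Act a) (j : JJ Φ L)
    (hn : ∀ k : Ti X, ¬ nbT Φ X k j.1) (c : Φ.F) (hc : c ∈ X) (w : E3)
    (hw : w ∈ P (T.H (ct c))) :
    (w ∈ s3.P ∧ s3.lab w = j) ↔ (w ∈ (st0 hG bp).P ∧ (st0 hG bp).lab w = j) := by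
  have hiS := out_ct hLa hC hK hc
  have hq : w ∈ P (S.T3.H (S.ot (ct c) hiS)) := by rw [Sla.ot_P]; exact hw
  have hqK : ∀ c', ¬ P (S.T3.H (S.ot (ct c) hiS)) ⊆ S.KK c' := not_KK_ot hiS
  have key : w ∈ Om → S.T3.dim w = 1 → ∃ F, w ∈ (S.mn fr3).On F ∧
      Frozen (S.mn fr3) (Act j.1) F := by
    intro h1 h2
    obtain ⟨F, hF, hs, -⟩ := exists_faceK (h3 := fr3) (hH := hKK) (hdis := S.dis_KK) h1 h2 hq hqK
    exact ⟨F, hF, _, hs, hact j.1 c hc hiS⟩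
  constructor
  · rintro ⟨h1, h2⟩
    have h3 := pts3 (hKK := hKK) D3 h1
    obtain ⟨F, hF, hfz⟩ := key h3.1 h3.2.1
    have h4 := (D3.frozen F w j hfz).1 ⟨⟨h1, hF⟩, h2⟩
    obtain ⟨h8, h9⟩ := out2_tile h4.1.1 hiS hw
    exact hext.of_lab h8 (h9 ▸ h4.2)
  · rintro ⟨h1, h2⟩
    have h3 := hext.mem h1
    rw [h2] at h3
    have h4 : w ∈ (outK S.hH S.dis sB r).P := by
      refine mem_outK (D.root _) (D.conn _) (fun x hx hxl k hxk => ?_) h3.1 h3.2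
      obtain ⟨g1, g2⟩ := hext.of_lab hx hxl
      rw [hK k] at hxk
      obtain ⟨g3, g4⟩ := st0_nb hLa hR hC hμ hm g1 hxk
      rw [g2] at g3 g4
      exact hn k ⟨g3, g4⟩
    have h5 : w ∈ (s2 S fr3 Tw l0).P := mem_old h4
    have h6 : (s2 S fr3 Tw l0).lab w = Sum.inl j := (lab_old h4).trans h3.2
    have h7 := s2_dim h5
    obtain ⟨F, hF, hfz⟩ := key h7.1 h7.2
    have h8 := (D3.frozen F w j hfz).2 ⟨⟨h5, hF⟩, h6⟩
    exact ⟨h8.1.1, h8.2⟩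

end mach

end Crest.Agent.R096.Fcd_117
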