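import Crest.Agent.R096.Fcd2_117
import Crest.Agent.R096.Flb6_422
import Crest.Agent.R096.Dfn4_416

/-!
# R096 (row 96), FRONT, field `lab` (helper117), part 3: **the field `lab` for the state after CUT**

`lab_S3` : 422's `lab_front` + 117's `giD_s3`, `hst_s3` over 471's slicing `slC`, at 662's vertices
`vA`, `vB` (literal hypothesis `lab` of 416's `frontN_S3`).
-/

set_option autoImplicit false
set_option linter.unusedSectionVars false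
set_option linter.unusedVariables false
set_option linter.style.longLine false

open Set Topology Filter Metric Module Relation
open scoped Classical

namespace Crest.Agent.R096.Fcd_117

open Crest.Agent.R096.Msh_715 Crest.Agent.R096.Coh_184 Crest.Agent.R096.Lab_184
  Crest.Agent.R096.Main_4 Crest.Agent.R096.Agl5_543
  Crest.Agent.R096.Seq_213 Crest.Agent.R096.St_147 Crest.Agent.R096.Door_501
  Crest.Agent.R096.Twr_438 Crest.Agent.R096.Exa_560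
  Crest.Agent.R096.Ess3_95 Crest.Agent.R096.Ess4_95 Crest.Agent.R096.Ac_117 Crest.Agent.R096.Lm_117
  Crest.Agent.R096.Dfi_539 Crest.Agent.R096.Dfi_471 Crest.Agent.R096.Dfo_539
  Crest.Agent.R096.Sla_184 Crest.Agent.R096.Gm_298
  Crest.Agent.R096.Brk1_582 Crest.Agent.R096.Brk2_582 Crest.Agent.R096.Brk3_582
  Crest.Agent.R096.Brk5_582 Crest.Agent.R096.Bsp_628 Crest.Agent.R096.Init_543
  Crest.Agent.R096.Qdl_662 Crest.Agent.R096.Lmx_662 Crest.Agent.R096.Frs_662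
  Crest.Agent.R096.Rop_441 Crest.Agent.R096.Frk_441 Crest.Agent.R096.Gl_422
  Crest.Agent.R096.Ori_543 Crest.Agent.R096.Cp_298 Crest.Agent.R096.SkB_662
  Crest.Agent.R096.Cpo_642 Crest.Agent.R096.Seq_213.GSt Crest.Agent.R096.Dfn_416
open Crest.Agent.R096.Mbf_337 (KJ Tiny Cores Words sb Fine)
open Crest.Agent.R096.SkC1_961 (E3 FoamD Hom3)
open Crest.Agent.R096.Frn_337 (Ti)
open Crest.Agent.R096.Bgf_4 (Ext)
open Crest.Agent.R096.Dia_316 (nbT)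

variable {δ κ0 R c0 : ℝ} {La Om : Set E3} {ι : Type} {Φ : FoamD δ κ0 R c0 La} {T : Tiling Om ι}
  {f g : E3 → E3} {κ1 κ2 μ s₁ s' : ℝ} {X : Set Φ.F} {J0 J V : Φ.F → Set ι}
  {ct ct' : Φ.F → ι} {A : Φ.F → E3 ≃ᵃ[ℝ] E3} {lam : Φ.F → ℝ} {z : Φ.F → E3}
  {θ : Φ.F → E3 → E3} {φ : Φ.F → E3 → ℝ} {M : Φ.F → ℕ} {r₀ : Φ.F → ℝ}
  {L : Φ.F → Finset ℝ} [Nonempty (JJ Φ L)] {hG : GF Φ r₀ T f L} {bp : JJ Φ L → E3}
  {Mo : Type}

/-- **`lab` OF THE STATE AFTER CUT** -/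
theorem lab_S3 [Nonempty (JJ Φ L ⊕ Mo)]
    {sB : GSt (meshC T fr3) (Sum.map (fun j : JJ Φ L => j.1) (id : Mo → Mo))}
    {r : JJ Φ L ⊕ Mo → E3} {Sf : JJ Φ L ⊕ Mo → Set E3} {nb : Ti X → Φ.F ⊕ Mo → Prop}
    (hf : Hom3 f Om La) (hLa : IsOpen La) (hLc : IsPreconnected La)
    (hN : Num δ κ0 R c0 κ2 κ1 s₁) (hR : InitR Φ T f g J0 ct' r₀)
    (hC : Cores Φ T f κ1 κ2 X J0 J V ct A lam z θ φ) (hF : Fine Φ T f κ1 J0)
    (hW : Words Φ T f X ct A lam z M L)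
    (hM : Mesh0 T (Pc Φ.F) (bc (F := Φ.F)) (RF Φ r₀) f (KorJ Φ J0) κ1) (h1 : κ1 < s₁) (h2 : κ1 < 1)
    (hκμ : κ1 < μ) (hμ : s₁ ≤ μ) (hm : ∀ c, ∀ t ∈ L c, μ ≤ t ∧ t ≤ 1 - μ)
    (hs' : s₁ + κ1 ≤ s') {Db : Φ.F → Set E3} {lam₀ : JJ Φ L → E3 → ZMod 2} {v₀ v₁ : Φ.F → E3}
    (hI : InitS hLa hR hM h1 h2 hG Db bp lam₀ v₀ v₁)
    {q0 q1 : Φ.F → ι} {w0 w1 x0 x1 : Φ.F → E3}
    (hv : VxD Φ T f V Db q0 q1 w0 w1 x0 x1)
    (n : Ti X → ℕ) (hn : ∀ c, 0 < n c) [Nonempty (slC hLa hC n hn).T3.Cell]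
    (hne : ∃ c, OutK (slC hLa hC n hn).T3 (slC hLa hC n hn).KK c)
    (hext : Ext (st0 hG bp) sB)
    {v0 v1 : ∀ c, Φ.F ⊕ Mo → VxK T (slC hLa hC n hn).K c} {u : Ti X → Φ.F ⊕ Mo → E3 → ℝ}
    {Al Bl : Ti X → Φ.F ⊕ Mo → ℝ}
    {Lx : ∀ c, Φ.F ⊕ Mo → Lev T (frontier ((slC hLa hC n hn).K c)) (JJ Φ L ⊕ Mo)}
    {Tw : Twrs ((slC hLa hC n hn).sh fr3) (slC hLa hC n hn).n
      (outK (slC hLa hC n hn).hH (slC hLa hC n hn).dis sB r)} {l0 : E3 → JJ Φ L ⊕ Mo}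
    (Dn : DIn (slC hLa hC n hn).hH sB r Sf nb v0 v1 u Al Bl)
    (lo : LevOut (Kc := (slC hLa hC n hn).K) sB nb u Al Bl Lx)
    (tt : TwOut (slC hLa hC n hn) fr3 sB r v0 v1 Lx Tw)
    (hu : ∀ k a, u k (Sum.inl a) = fun x => sb Φ (θ k.1 x) a)
    (hnb : ∀ k a, nbT Φ X k a → nb k (Sum.inl a))
    (hAl : ∀ k a, s₁ ≤ Al k (Sum.inl a)) (hBl : ∀ k a, Bl k (Sum.inl a) ≤ 1 - s₁)
    {am : Mo → Φ.F} {Act : Φ.F → Set (T.RIdx (slC hLa hC n hn).HH ⊕ Ti X)}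
    (hactT : ∀ a k, Sum.inr k ∉ Act a)
    (hactX : ∀ (a : Φ.F), ∀ c ∈ X, ∀ h, Sum.inl ((slC hLa hC n hn).ot (ct c) h) ∉ Act a)
    {s3 : GSt (mK fr3 (Lay_316.lay_sla hLa hC n hn).core (Lay_316.lay_sla hLa hC n hn).disj)
      (fun j : JJ Φ L => j.1)}
    (D3 : CutOut (s2 (slC hLa hC n hn) fr3 Tw l0) am Act s3)
    (posB : PosS Φ T f s' J0 (slC hLa hC n hn) s3) :
    ∃ lm, LabIn (lmK fr3 (Lay_316.lay_sla hLa hC n hn).core (Lay_316.lay_sla hLa hC n hn).disj hne)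
      (qdT (fun p : T.RIdx (slC hLa hC n hn).HH => p.tile)
      (sla_sub (slC hLa hC n hn)) (slC hLa hC n hn).KK hLa hR hM h1 h2) s3
      (fun c => GD fr3 (Lay_316.lay_sla hLa hC n hn).core (Lay_316.lay_sla hLa hC n hn).disj (Db c))
      (fun c => ZK (slC hLa hC n hn).T3 (slC hLa hC n hn).KK (Db c)) lm
      (vA hLa hC hv n hn) (vB hLa hC hv n hn) := by
  have hK : ∀ k : Ti X, (slC hLa hC n hn).K k = KJ T (J k.1) := fun k => rfl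
  have hL := Lay_316.lay_sla hLa hC n hn
  have hμ0 : 0 < μ := lt_of_le_of_lt hN.hκ1 hκμ
  have on := on_S3 (hKK := hL.core) (hne := hne) D3
  exact Flb_422.lab_front hf hLc hN hC hF hW hκμ hμ hm hK hs' on posB hI hv
    (fun k a hk _ => giD_s3 lo tt D3 hu hnb hAl hBl hactT k a hk)
    (fun j hj c hc w hw => hst_s3 (hKK := hL.core) hext hLa hR hC hμ0 hm hK Dn D3 hactX j hj c hc w hw)
    (fun a c => out_of_V hC (hv.out0 a) c) (fun a c => out_of_V hC (hv.out1 a) c)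

end Crest.Agent.R096.Fcd_117
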