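import Crest.Agent.R096.Fcd3_117
import Crest.Agent.R096.Dfg1_539
import Crest.Agent.R096.Nmd1_698
import Crest.Agent.R096.Sgo3_298
import Crest.Agent.R096.Civ2_662

/-!
# R096 (row 96), DOORS_final (helper117): **`FrontN` from the output of LEAF BC**

`frontN_m` : over 471's slicing `slC`, 539's record `BRec`, 698's numbers `NumD`
(`s₁ = μ/32`, `s' = μ/4`), 298's zones `Rdc T f Xᶜ (rout ρ3 d)`: the output of 662's `leafBC`
(state after CUT, `Inv`, (B), (E1), (E2)) gives `FrontN`; `lab` by 117's `lab_S3`, the rest by 416.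
-/

set_option autoImplicit false
set_option linter.unusedSectionVars false
set_option linter.unusedVariables false
set_option linter.style.longLine false

open Set Topology Filter Metric Module Relation
open scoped Classical

namespace Crest.Agent.R096.Fcd_117

open Crest.Agent.R096.Msh_715 Crest.Agent.R096.Coh_184 Crest.Agent.R096.Lab_184
  Crest.Agent.R096.Main_4 Crest.Agent.R096.Agl5_543
  Crest.Agent.R096.Seq_213 Crest.Agent.R096.St_147 Crest.Agent.R096.Door_501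
  Crest.Agent.R096.Twr_438 Crest.Agent.R096.Exa_560
  Crest.Agent.R096.Ess3_95 Crest.Agent.R096.Ess4_95 Crest.Agent.R096.Ac_117 Crest.Agent.R096.Lm_117
  Crest.Agent.R096.Dfi_539 Crest.Agent.R096.Dfi_471 Crest.Agent.R096.Dfo_539
  Crest.Agent.R096.Sla_184 Crest.Agent.R096.Gm_298
  Crest.Agent.R096.Brk1_582 Crest.Agent.R096.Brk2_582 Crest.Agent.R096.Brk3_582
  Crest.Agent.R096.Brk5_582 Crest.Agent.R096.Bsp_628 Crest.Agent.R096.Init_543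
  Crest.Agent.R096.Qdl_662 Crest.Agent.R096.Lmx_662 Crest.Agent.R096.Frs_662
  Crest.Agent.R096.Rop_441 Crest.Agent.R096.Frk_441 Crest.Agent.R096.Gl_422
  Crest.Agent.R096.Ori_543 Crest.Agent.R096.Cp_298 Crest.Agent.R096.SkB_662
  Crest.Agent.R096.Cpo_642 Crest.Agent.R096.Seq_213.GSt Crest.Agent.R096.Dfn_416
open Crest.Agent.R096.Mbf_337 (KJ Tiny Cores Words sb Fine)
open Crest.Agent.R096.SkC1_961 (E3 FoamD Hom3)
open Crest.Agent.R096.Frn_337 (Ti)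
open Crest.Agent.R096.Bgf_4 (Ext)
open Crest.Agent.R096.Dia_316 (nbT)
open Crest.Agent.R096.Dfg_539 (BRec)
open Crest.Agent.R096.Nmd1_698 (NumD)
open Crest.Agent.R096.Sgo_298 (ActR inl_ActR inr_ActR rout RmA notR)

variable {δ κ0 R c0 : ℝ} {La Om : Set E3} {ι : Type} {Φ : FoamD δ κ0 R c0 La} {T : Tiling Om ι}
  {f g : E3 → E3} {κ1 κ2 μ : ℝ} {X : Set Φ.F} {J0 J V : Φ.F → Set ι}
  {ct ct' : Φ.F → ι} {A : Φ.F → E3 ≃ᵃ[ℝ] E3} {lam : Φ.F → ℝ} {z : Φ.F → E3}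
  {θ : Φ.F → E3 → E3} {φ : Φ.F → E3 → ℝ} {M : Φ.F → ℕ} {r₀ : Φ.F → ℝ}
  {L : Φ.F → Finset ℝ} [Nonempty (JJ Φ L)] {hG : GF Φ r₀ T f L} {bp : JJ Φ L → E3}
  {Mo : Type}

/-- **`FrontN` FROM THE OUTPUT OF LEAF BC** : numbers of record -/
theorem frontN_m [Nonempty (JJ Φ L ⊕ Mo)]
    {sB : GSt (meshC T fr3) (Sum.map (fun j : JJ Φ L => j.1) (id : Mo → Mo))}
    {r : JJ Φ L ⊕ Mo → E3} {Sf : JJ Φ L ⊕ Mo → Set E3} {nb : Ti X → Φ.F ⊕ Mo → Prop}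
    (hf : Hom3 f Om La) (hLa : IsOpen La) (hLc : IsPreconnected La)
    (hN : NumD δ κ0 R c0 κ2 μ κ1) (hR : InitR Φ T f g J0 ct' r₀)
    (hC : Cores Φ T f κ1 κ2 X J0 J V ct A lam z θ φ) (hF : Fine Φ T f κ1 J0)
    (hW : Words Φ T f X ct A lam z M L)
    (hM : Mesh0 T (Pc Φ.F) (bc (F := Φ.F)) (RF Φ r₀) f (KorJ Φ J0) κ1) (h1 : κ1 < μ / 32)
    (h2 : κ1 < 1) (hm : ∀ c, ∀ t ∈ L c, μ ≤ t ∧ t ≤ 1 - μ)
    {Db : Φ.F → Set E3} {lam₀ : JJ Φ L → E3 → ZMod 2} {v₀ v₁ : Φ.F → E3}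
    (hI : InitS hLa hR hM h1 h2 hG Db bp lam₀ v₀ v₁)
    {q0 q1 : Φ.F → ι} {w0 w1 x0 x1 : Φ.F → E3} (hv : VxD Φ T f V Db q0 q1 w0 w1 x0 x1)
    (n : Ti X → ℕ) (hn : ∀ c, 0 < n c) [Nonempty (slC hLa hC n hn).T3.Cell]
    (hne : ∃ c, OutK (slC hLa hC n hn).T3 (slC hLa hC n hn).KK c)
    {co : Mo → Ti X} (hext : Ext (st0 hG bp) sB) (hB : BarS hG bp V co sB)
    {v0 v1 : ∀ c, Φ.F ⊕ Mo → VxK T (slC hLa hC n hn).K c} {u : Ti X → Φ.F ⊕ Mo → E3 → ℝ}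
    {Al Bl : Ti X → Φ.F ⊕ Mo → ℝ}
    {Lx : ∀ c, Φ.F ⊕ Mo → Lev T (frontier ((slC hLa hC n hn).K c)) (JJ Φ L ⊕ Mo)}
    {Tw : Twrs ((slC hLa hC n hn).sh fr3) (slC hLa hC n hn).n
      (outK (slC hLa hC n hn).hH (slC hLa hC n hn).dis sB r)} {l0 : E3 → JJ Φ L ⊕ Mo}
    (Dn : DIn (slC hLa hC n hn).hH sB r Sf nb v0 v1 u Al Bl)
    (lo : LevOut (Kc := (slC hLa hC n hn).K) sB nb u Al Bl Lx)
    (tt : TwOut (slC hLa hC n hn) fr3 sB r v0 v1 Lx Tw)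
    {am : Mo → Φ.F} {Zm : Mo → Set Φ.F} {lb mm ra h W0 W1 : ℝ}
    (rec : BRec hLa sB f X J θ co am Zm nb v0 v1 u Al Bl μ (Cn δ R * κ1) lb mm ra h W0 W1)
    {ρ1 ρ2 ρ3 ρ4 d : Φ.F → ℝ} (hRm : RmA Φ T f X J0 J V θ ρ1 ρ2 ρ3 ρ4 d)
    {s3 : GSt (mK fr3 (Lay_316.lay_sla hLa hC n hn).core (Lay_316.lay_sla hLa hC n hn).disj)
      (fun j : JJ Φ L => j.1)} {far₃ : JJ Φ L → Set E3}
    (D3 : CutOut (s2 (slC hLa hC n hn) fr3 Tw l0) am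
      (fun _ => ActR (slC hLa hC n hn) (Rdc T f Xᶜ (rout ρ3 d))) s3)
    (inv : s3.Inv (qdT (fun p : T.RIdx (slC hLa hC n hn).HH => p.tile)
      (sla_sub (slC hLa hC n hn)) (slC hLa hC n hn).KK hLa hR hM h1 h2) far₃)
    (posB : PosS Φ T f (μ / 4) J0 (slC hLa hC n hn) s3)
    (oneT : ∀ (k : Ti X) (j : JJ Φ L), One s3 {F | Sum.inr k ∈ (mK fr3
      (Lay_316.lay_sla hLa hC n hn).core (Lay_316.lay_sla hLa hC n hn).disj).side F} j)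
    (twoT : ∀ (q : Init_543.QK (Pc Φ.F)) (k : Ti X), k.1 ∈ q.Z → ∀ j j' : JJ Φ L, j.1 ∈ q.B →
      j'.1 ∈ q.B → j.1 ≠ j'.1 →
      Two s3 ((qdT (fun p : T.RIdx (slC hLa hC n hn).HH => p.tile)
      (sla_sub (slC hLa hC n hn)) (slC hLa hC n hn).KK hLa hR hM h1 h2).Act q)
        {Sum.inr k} j j') :
    ∃ (far₀ : JJ Φ L → Set E3) (Gc : Φ.F → Set E3)
      (Zc : Φ.F → Set (QK (belK (slC hLa hC n hn).T3 (slC hLa hC n hn).KK)))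
      (lm : JJ Φ L → QK (belK (slC hLa hC n hn).T3 (slC hLa hC n hn).KK) → ZMod 2),
    FrontN T f J0 V (fun p => p.tile) (μ / 4)
      (Lay_316.lay_sla hLa hC n hn).core (Lay_316.lay_sla hLa hC n hn).disj hne
      (qdT (fun p : T.RIdx (slC hLa hC n hn).HH => p.tile) (sla_sub (slC hLa hC n hn))
        (slC hLa hC n hn).KK hLa hR hM h1 h2) s3 far₀ Gc Zc lm
      (vA hLa hC hv n hn) (vB hLa hC hv n hn) := by
  have hμ0 := hN.hμ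
  obtain ⟨n1, n2, n3, n4, n5, -⟩ := hN.base
  have hactX : ∀ (a : Φ.F), ∀ c ∈ X, ∀ h, Sum.inl ((slC hLa hC n hn).ot (ct c) h) ∉
      ActR (slC hLa hC n hn) (Rdc T f Xᶜ (rout ρ3 d)) := by
    intro a c hc h hin
    rw [inl_ActR] at hin
    exact notR hRm (q := ct c) (fun k hk => ct_notV hC hc ⟨k, hk⟩) hin
  obtain ⟨lm, lab⟩ := lab_S3 (hG := hG) (bp := bp) (am := am) (Tw := Tw) (Lx := Lx) (l0 := l0)
    (s₁ := μ / 32) (s' := μ / 4) (μ := μ)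
    hf hLa hLc hN.num hR hC hF hW hM h1 h2 hN.kmu (by linarith) hm hN.ss' hI hv n hn hne hext Dn lo
    tt (fun k a => funext fun x => rec.ul k a x) (fun k a h => (rec.nbl k a).2 h)
    (fun k a => by rw [rec.Al]; linarith) (fun k a => by rw [rec.Bl]; linarith)
    (Act := fun _ => ActR (slC hLa hC n hn) (Rdc T f Xᶜ (rout ρ3 d)))
    (fun a k => inr_ActR) hactX D3 posB
  exact ⟨far₃, _, _, lm, frontN_S3 (s' := μ / 4) hLa hR hC hM h1 h2 hμ0 hm hv n hn hne hB Dn lo tt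
    D3 inv lab posB oneT twoT⟩

end Crest.Agent.R096.Fcd_117
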