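import Mathlib

/-!
# R096 (row 96), p = 2, leaf FACE (968 #9730 (3)), definitions (helper58)

Squares in `E3 = Fin 3 → ℝ` parallel to the axes `u`, `v`, their rims, the energy of the fine
rims of a face.
-/

set_option autoImplicit false

open MeasureTheory Set Filter Topology
open scoped ENNReal

namespace Crest.Agent.R096.Fcg_58

noncomputable section

abbrev E3 : Type := Fin 3 → ℝ

/-- unit vector -/
def ex (u : Fin 3) : E3 := Pi.single u 1

/-- closed square with lower corner `c`, side `h`, directions `u`, `v` -/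
def Sq (u v : Fin 3) (c : E3) (h : ℝ) : Set E3 :=
  {x | (c u ≤ x u ∧ x u ≤ c u + h) ∧ (c v ≤ x v ∧ x v ≤ c v + h) ∧ ∀ w, w ≠ u → w ≠ v → x w = c w}

/-- the rim of the square -/
def Rim (u v : Fin 3) (c : E3) (h : ℝ) : Set E3 :=
  {x | x ∈ Sq u v c h ∧ (x u = c u ∨ x u = c u + h ∨ x v = c v ∨ x v = c v + h)}

/-- `∫ g` over the edge with lower end `c`, direction `u`, length `h` -/
def edg (g : E3 → ℝ≥0∞) (u : Fin 3) (c : E3) (h : ℝ) : ℝ≥0∞ := ∫⁻ s in Icc 0 h, g (c + s • ex u)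

/-- `∫ g` over the rim of the square -/
def rimI (g : E3 → ℝ≥0∞) (u v : Fin 3) (c : E3) (h : ℝ) : ℝ≥0∞ :=
  edg g u c h + edg g u (c + h • ex v) h + edg g v c h + edg g v (c + h • ex u) h

/-- lower corner of the fine square number `m` of the square with lower corner `c` -/
def sc (u v : Fin 3) (c : E3) (h : ℝ) {n : ℕ} (m : Fin n × Fin n) : E3 :=
  c + (h * (m.1 : ℕ)) • ex u + (h * (m.2 : ℕ)) • ex v

/-- `h * ∑ (fine squares of side h = t / n of the face Sq u v b t) ∫_rim g` -/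
def faceE (g : E3 → ℝ≥0∞) (t : ℝ) (n : ℕ) (u v : Fin 3) (b : E3) : ℝ≥0∞ :=
  ENNReal.ofReal (t / n) * ∑ m : Fin n × Fin n, rimI g u v (sc u v b (t / n) m) (t / n)

/-- liminf over all `n → ∞` -/
def liE (g : E3 → ℝ≥0∞) (t : ℝ) (u v : Fin 3) (b : E3) : ℝ≥0∞ :=
  liminf (fun n : ℕ => faceE g t n u v b) atTop

/-- lower corner of the cube number `k` of the grid `a + t ℤ^3` -/
def gc (a : E3) (t : ℝ) (k : Fin 3 → ℤ) : E3 := a + t • fun i => (k i : ℝ)

end

end Crest.Agent.R096.Fcg_58
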