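import Crest.Agent.R096.Fcg0_58

/-!
# R096 (row 96), p = 2, leaf FACE, part 1 (helper58): the fine squares of a face are cells

`Cells F Q B` (968 #9730) for `F = Sq u v b t`, `Q m`, `B m` = fine squares and their rims.
-/

set_option autoImplicit false

open MeasureTheory Set Filter Topology
open scoped ENNReal

namespace Crest.Agent.R096.Fcg_58

variable {u v : Fin 3} {c b : E3} {h t : ℝ}

theorem ex_same (u : Fin 3) : ex u u = 1 := by simp [ex]

theorem ex_ne {u w : Fin 3} (h : w ≠ u) : ex u w = 0 := by simp [ex, h]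

theorem sc_u (huv : u ≠ v) {n : ℕ} (m : Fin n × Fin n) :
    sc u v c h m u = c u + h * (m.1 : ℕ) := by
  simp [sc, ex_same, ex_ne huv]

theorem sc_v (huv : u ≠ v) {n : ℕ} (m : Fin n × Fin n) :
    sc u v c h m v = c v + h * (m.2 : ℕ) := by
  simp [sc, ex_same, ex_ne huv.symm]

theorem sc_w {n : ℕ} (m : Fin n × Fin n) {w : Fin 3} (hu : w ≠ u) (hv : w ≠ v) :
    sc u v c h m w = c w := by
  simp [sc, ex_ne hu, ex_ne hv]

theorem isClosed_Sq : IsClosed (Sq u v c h) := by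
  have h1 : Sq u v c h = {x | c u ≤ x u} ∩ {x | x u ≤ c u + h} ∩ ({x | c v ≤ x v} ∩ {x | x v ≤ c v + h}) ∩
      ⋂ w : Fin 3, {x | w ≠ u → w ≠ v → x w = c w} := by
    ext x
    simp only [Sq, mem_ofPred_eq, mem_inter_iff, mem_iInter]
    tauto
  rw [h1]
  refine IsClosed.inter (IsClosed.inter (IsClosed.inter ?_ ?_) (IsClosed.inter ?_ ?_)) (isClosed_iInter fun w => ?_)
  · exact isClosed_le continuous_const (continuous_apply u)
  · exact isClosed_le (continuous_apply u) continuous_const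
  · exact isClosed_le continuous_const (continuous_apply v)
  · exact isClosed_le (continuous_apply v) continuous_const
  · by_cases h2 : w ≠ u ∧ w ≠ v
    · have : {x : E3 | w ≠ u → w ≠ v → x w = c w} = {x | x w = c w} := by
        ext x; simp only [mem_ofPred_eq]; tauto
      rw [this]
      exact isClosed_eq (continuous_apply w) continuous_const
    · have : {x : E3 | w ≠ u → w ≠ v → x w = c w} = univ := by
        ext x; simp only [mem_ofPred_eq, mem_univ]; tauto
      rw [this]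
      exact isClosed_univ

theorem Rim_sub : Rim u v c h ⊆ Sq u v c h := fun _ hx => hx.1

theorem isBounded_Sq : Bornology.IsBounded (Sq u v c h) := by
  have : Sq u v c h ⊆ Icc (fun i => c i) (fun i => c i + |h|) := by
    intro x hx
    obtain ⟨⟨h1, h2⟩, ⟨h3, h4⟩, h5⟩ := hx
    have ha := le_abs_self h
    have ha' := abs_nonneg h
    constructor
    · intro i
      by_cases hu : i = u
      · subst hu; exact h1
      · by_cases hv : i = v
        · subst hv; exact h3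
        · exact (h5 i hu hv).ge
    · intro i
      by_cases hu : i = u
      · subst hu; show x i ≤ c i + |h|; linarith
      · by_cases hv : i = v
        · subst hv; show x i ≤ c i + |h|; linarith
        · show x i ≤ c i + |h|
          rw [h5 i hu hv]; linarith
  exact (isCompact_Icc.isBounded).subset this

theorem isCompact_Sq : IsCompact (Sq u v c h) :=
  Metric.isCompact_of_isClosed_isBounded isClosed_Sq isBounded_Sq

theorem cvx_ge {a a' l x y : ℝ} (ha : 0 ≤ a) (ha' : 0 ≤ a') (hs : a + a' = 1) (hx : l ≤ x)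
    (hy : l ≤ y) : l ≤ a * x + a' * y := by
  have h1 := mul_le_mul_of_nonneg_left hx ha
  have h2 := mul_le_mul_of_nonneg_left hy ha'
  have h3 : a * l + a' * l = l := by rw [← add_mul, hs, one_mul]
  linarith

theorem cvx_le {a a' l x y : ℝ} (ha : 0 ≤ a) (ha' : 0 ≤ a') (hs : a + a' = 1) (hx : x ≤ l)
    (hy : y ≤ l) : a * x + a' * y ≤ l := by
  have h1 := mul_le_mul_of_nonneg_left hx ha
  have h2 := mul_le_mul_of_nonneg_left hy ha'
  have h3 : a * l + a' * l = l := by rw [← add_mul, hs, one_mul]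
  linarith

theorem convex_Sq : Convex ℝ (Sq u v c h) := by
  intro x hx y hy a a' ha ha' hs
  obtain ⟨⟨h1, h2⟩, ⟨h3, h4⟩, h5⟩ := hx
  obtain ⟨⟨k1, k2⟩, ⟨k3, k4⟩, k5⟩ := hy
  refine ⟨⟨?_, ?_⟩, ⟨?_, ?_⟩, fun w hw hw' => ?_⟩
  · exact cvx_ge ha ha' hs h1 k1
  · exact cvx_le ha ha' hs h2 k2
  · exact cvx_ge ha ha' hs h3 k3
  · exact cvx_le ha ha' hs h4 k4
  · simp only [Pi.add_apply, Pi.smul_apply, smul_eq_mul]
    rw [h5 w hw hw', k5 w hw hw', ← add_mul, hs, one_mul]

/-- points of one square are close -/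
theorem dist_le_of_mem_Sq (hh : 0 ≤ h) {x y : E3} (hx : x ∈ Sq u v c h) (hy : y ∈ Sq u v c h) :
    dist x y ≤ h := by
  obtain ⟨⟨h1, h2⟩, ⟨h3, h4⟩, h5⟩ := hx
  obtain ⟨⟨k1, k2⟩, ⟨k3, k4⟩, k5⟩ := hy
  refine (dist_pi_le_iff hh).2 fun i => ?_
  rw [Real.dist_eq, abs_le]
  by_cases hu : i = u
  · subst hu; constructor <;> linarith
  · by_cases hv : i = v
    · subst hv; constructor <;> linarith
    · rw [h5 i hu hv, k5 i hu hv]; constructor <;> linarith

theorem fin_nat_le {n : ℕ} (m : Fin n) : ((m : ℕ) : ℝ) + 1 ≤ n := by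
  have := m.2
  exact_mod_cast this

/-- the fine squares are in the face -/
theorem Sq_sc_sub (huv : u ≠ v) (ht : 0 ≤ t) {n : ℕ} (m : Fin n × Fin n) :
    Sq u v (sc u v b (t / n) m) (t / n) ⊆ Sq u v b t := by
  have hn : 0 < n := lt_of_le_of_lt (Nat.zero_le _) m.1.2
  have hn' : (0:ℝ) < n := by exact_mod_cast hn
  have hh : 0 ≤ t / n := by positivity
  have hnt : (n:ℝ) * (t / n) = t := by field_simp
  have key : ∀ k : Fin n, t / n * ((k : ℕ) : ℝ) + t / n ≤ t := by
    intro k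
    have := fin_nat_le k
    calc t / n * ((k : ℕ) : ℝ) + t / n = (((k : ℕ) : ℝ) + 1) * (t / n) := by ring
      _ ≤ n * (t / n) := by gcongr
      _ = t := hnt
  rintro x ⟨⟨h1, h2⟩, ⟨h3, h4⟩, h5⟩
  rw [sc_u huv] at h1 h2
  rw [sc_v huv] at h3 h4
  have e1 : 0 ≤ t / n * ((m.1 : ℕ) : ℝ) := by positivity
  have e2 : 0 ≤ t / n * ((m.2 : ℕ) : ℝ) := by positivity
  refine ⟨⟨by linarith, by linarith [key m.1]⟩, ⟨by linarith, by linarith [key m.2]⟩, ?_⟩
  intro w hw hw'
  rw [h5 w hw hw', sc_w m hw hw']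

theorem exists_fin {n : ℕ} (hn : 0 < n) (ht : 0 ≤ t) {y : ℝ} (h0 : 0 ≤ y) (h1 : y ≤ t) :
    ∃ m : Fin n, t / n * ((m : ℕ) : ℝ) ≤ y ∧ y ≤ t / n * ((m : ℕ) : ℝ) + t / n := by
  have hn' : (0:ℝ) < n := by exact_mod_cast hn
  rcases ht.eq_or_lt with ht | ht
  · subst ht
    exact ⟨⟨0, hn⟩, by simpa using h0, by simpa using h1⟩
  have hh : 0 < t / n := by positivity
  have hnt : (n:ℝ) * (t / n) = t := by field_simp
  by_cases h2 : y < t
  · have h3 : 0 ≤ y / (t / n) := by positivity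
    have h4 : y / (t / n) < n := by
      rw [div_lt_iff₀ hh, hnt]; exact h2
    refine ⟨⟨⌊y / (t / n)⌋₊, (Nat.floor_lt h3).2 h4⟩, ?_, ?_⟩
    · have h5 := Nat.floor_le h3
      rw [le_div_iff₀ hh] at h5
      simp only
      linarith [mul_comm (t / n) ((⌊y / (t / n)⌋₊ : ℕ) : ℝ)]
    · have h5 := (Nat.lt_floor_add_one (y / (t / n))).le
      rw [div_le_iff₀ hh] at h5
      simp only
      nlinarith
  · have h3 : y = t := le_antisymm h1 (not_lt.1 h2)
    refine ⟨⟨n - 1, by omega⟩, ?_, ?_⟩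
    · have : ((n - 1 : ℕ) : ℝ) ≤ n := by exact_mod_cast Nat.sub_le n 1
      simp only
      rw [h3]
      calc t / n * ((n - 1 : ℕ) : ℝ) ≤ t / n * n := by gcongr
        _ = t := by linarith [mul_comm (t / n) (n:ℝ)]
    · have : ((n - 1 : ℕ) : ℝ) = n - 1 := by
        rw [Nat.cast_sub (by omega)]; simp
      simp only
      rw [h3, this]
      have : t / n * ((n:ℝ) - 1) + t / n = n * (t / n) := by ring
      rw [this, hnt]

/-- cells of a face (968 #9730) -/
structure Cells {X : Type*} [TopologicalSpace X] (F : Set X) {J : Type*} (Q B : J → Set X) : Prop where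
  closed : ∀ j, IsClosed (Q j)
  sub : ∀ j, B j ⊆ Q j
  cov : F ⊆ ⋃ j, Q j
  meet : ∀ j k, j ≠ k → Q j ∩ Q k ⊆ B j ∩ B k
  cut : ∀ j (S : Set X), S ⊆ F → IsPreconnected S → (S ∩ Q j).Nonempty → ¬ S ⊆ Q j → (S ∩ B j).Nonempty

/-- a connected subset of a face which meets a fine square and is not inside it meets the rim -/
theorem cut_Sq {F : Set E3} (hF : F ⊆ {x | ∀ w, w ≠ u → w ≠ v → x w = c w}) {S : Set E3}
    (hSF : S ⊆ F) (hS : IsPreconnected S) (h1 : (S ∩ Sq u v c h).Nonempty) (h2 : ¬ S ⊆ Sq u v c h) :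
    (S ∩ Rim u v c h).Nonempty := by
  by_contra h3
  rw [not_nonempty_iff_eq_empty] at h3
  set O : Set E3 := {x | (c u < x u ∧ x u < c u + h) ∧ (c v < x v ∧ x v < c v + h)} with hO
  have hOo : IsOpen O := by
    have : O = {x | c u < x u} ∩ {x | x u < c u + h} ∩ ({x | c v < x v} ∩ {x | x v < c v + h}) := by
      ext x; simp only [hO, mem_ofPred_eq, mem_inter_iff]
    rw [this]
    refine ((isOpen_lt continuous_const (continuous_apply u)).inter
      (isOpen_lt (continuous_apply u) continuous_const)).inter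
      ((isOpen_lt continuous_const (continuous_apply v)).inter
      (isOpen_lt (continuous_apply v) continuous_const))
  have hA : ∀ x ∈ S, x ∈ Sq u v c h → x ∈ O := by
    rintro x hxS ⟨⟨g1, g2⟩, ⟨g3, g4⟩, g5⟩
    have hnr : x ∉ Rim u v c h := fun hr => by
      have : x ∈ S ∩ Rim u v c h := ⟨hxS, hr⟩
      rw [h3] at this
      exact this
    have hnr' : ¬ (x u = c u ∨ x u = c u + h ∨ x v = c v ∨ x v = c v + h) :=
      fun hh => hnr ⟨⟨⟨g1, g2⟩, ⟨g3, g4⟩, g5⟩, hh⟩
    push Not at hnr'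
    obtain ⟨k1, k2, k3, k4⟩ := hnr'
    exact ⟨⟨lt_of_le_of_ne g1 (Ne.symm k1), lt_of_le_of_ne g2 k2⟩,
      ⟨lt_of_le_of_ne g3 (Ne.symm k3), lt_of_le_of_ne g4 k4⟩⟩
  have hB : ∀ x ∈ S, x ∈ O → x ∈ Sq u v c h := by
    rintro x hxS ⟨⟨g1, g2⟩, g3, g4⟩
    exact ⟨⟨g1.le, g2.le⟩, ⟨g3.le, g4.le⟩, hF (hSF hxS)⟩
  obtain ⟨x, hxS, hxQ⟩ := h1
  obtain ⟨y, hyS, hyQ⟩ := not_subset.1 h2
  obtain ⟨z, hzS, hzO, hzQ⟩ := hS O (Sq u v c h)ᶜ hOo isClosed_Sq.isOpen_compl
    (fun z hz => by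
      by_cases hzq : z ∈ Sq u v c h
      · exact Or.inl (hA z hz hzq)
      · exact Or.inr hzq)
    ⟨x, hxS, hA x hxS hxQ⟩ ⟨y, hyS, hyQ⟩
  exact hzQ (hB z hzS hzO)

/-- the fine squares of a face are cells -/
theorem cells_face (huv : u ≠ v) (ht : 0 ≤ t) {n : ℕ} (hn : 0 < n) :
    Cells (Sq u v b t) (fun m : Fin n × Fin n => Sq u v (sc u v b (t / n) m) (t / n))
      (fun m => Rim u v (sc u v b (t / n) m) (t / n)) where
  closed := fun _ => isClosed_Sq
  sub := fun _ => Rim_sub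
  cov := by
    rintro x ⟨⟨h1, h2⟩, ⟨h3, h4⟩, h5⟩
    obtain ⟨m1, a1, a2⟩ := exists_fin hn ht (sub_nonneg.2 h1) (by linarith)
    obtain ⟨m2, a3, a4⟩ := exists_fin hn ht (sub_nonneg.2 h3) (by linarith)
    refine mem_iUnion.2 ⟨(m1, m2), ⟨?_, ?_⟩, ⟨?_, ?_⟩, ?_⟩
    · rw [sc_u huv]; simp only; linarith
    · rw [sc_u huv]; simp only; linarith
    · rw [sc_v huv]; simp only; linarith
    · rw [sc_v huv]; simp only; linarith
    · intro w hw hw'
      rw [sc_w _ hw hw', h5 w hw hw']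
  meet := by
    rintro j k hjk x ⟨hj, hk⟩
    have hn' : (0:ℝ) < n := by exact_mod_cast hn
    have hh : 0 ≤ t / n := by positivity
    obtain ⟨⟨h1, h2⟩, ⟨h3, h4⟩, h5⟩ := id hj
    obtain ⟨⟨k1, k2⟩, ⟨k3, k4⟩, k5⟩ := id hk
    rw [sc_u huv] at h1 h2 k1 k2
    rw [sc_v huv] at h3 h4 k3 k4
    have key : ∀ a a' : Fin n, a < a' → t / n * ((a : ℕ) : ℝ) + t / n ≤ t / n * ((a' : ℕ) : ℝ) := by
      intro a a' haa
      have : ((a : ℕ) : ℝ) + 1 ≤ ((a' : ℕ) : ℝ) := by exact_mod_cast haa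
      calc t / n * ((a : ℕ) : ℝ) + t / n = t / n * (((a : ℕ) : ℝ) + 1) := by ring
        _ ≤ _ := by gcongr
    have hne : j.1 ≠ k.1 ∨ j.2 ≠ k.2 := by
      by_contra hc
      push Not at hc
      exact hjk (Prod.ext hc.1 hc.2)
    constructor
    · refine ⟨hj, ?_⟩
      rw [sc_u huv, sc_v huv]
      rcases hne with hne | hne
      · rcases lt_or_gt_of_ne hne with hlt | hlt
        · right; left; linarith [key _ _ hlt]
        · left; linarith [key _ _ hlt]
      · rcases lt_or_gt_of_ne hne with hlt | hlt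
        · right; right; right; linarith [key _ _ hlt]
        · right; right; left; linarith [key _ _ hlt]
    · refine ⟨hk, ?_⟩
      rw [sc_u huv, sc_v huv]
      rcases hne with hne | hne
      · rcases lt_or_gt_of_ne hne with hlt | hlt
        · left; linarith [key _ _ hlt]
        · right; left; linarith [key _ _ hlt]
      · rcases lt_or_gt_of_ne hne with hlt | hlt
        · right; right; left; linarith [key _ _ hlt]
        · right; right; right; linarith [key _ _ hlt]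
  cut := by
    intro j S hSF hS h1 h2
    refine cut_Sq (F := Sq u v b t) ?_ hSF hS h1 h2
    rintro x ⟨-, -, h5⟩ w hw hw'
    rw [sc_w _ hw hw', h5 w hw hw']

end Crest.Agent.R096.Fcg_58
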