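import Crest.Agent.R096.Fcg1_58

/-!
# R096 (row 96), p = 2, leaf FACE, part 2 (helper58): oscillation over the rims, hypothesis hE
-/

set_option autoImplicit false

open MeasureTheory Set Filter Topology
open scoped ENNReal

namespace Crest.Agent.R096.Fcg_58

noncomputable section

/-- `γ` is an upper gradient of `f` on the segments in `Om` of the line through `x` in direction
`u`. -/
def ACU {Y : Type*} [PseudoEMetricSpace Y] (f : E3 → Y) (γ : E3 → ℝ≥0∞) (Om : Set E3) (u : Fin 3)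
    (x : E3) : Prop :=
  ∀ s s' : ℝ, s ≤ s' → (∀ τ ∈ Icc s s', x + τ • ex u ∈ Om) →
    edist (f (x + s • ex u)) (f (x + s' • ex u)) ≤ ∫⁻ τ in Icc s s', γ (x + τ • ex u)

/-- node number `w` of the grid `b + (t / n) ℤ^3` -/
def node (t : ℝ) (n : ℕ) (b : E3) (w : Fin 3 → ℤ) : E3 := b + (t / n) • fun i => (w i : ℝ)

/-- ACL on all lines of all the grids `b + (t / n) ℤ^3` -/
def Good {Y : Type*} [PseudoEMetricSpace Y] (f : E3 → Y) (γ : E3 → ℝ≥0∞) (Om : Set E3) (t : ℝ)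
    (b : E3) : Prop :=
  ∀ n : ℕ, 0 < n → ∀ w : Fin 3 → ℤ, ∀ u, ACU f γ Om u (node t n b w)

theorem node_add {t : ℝ} {n : ℕ} {b : E3} (w : Fin 3 → ℤ) (u : Fin 3) (k : ℤ) :
    node t n b w + (t / n * k) • ex u = node t n b (w + Pi.single u k) := by
  funext i
  by_cases h : i = u
  · subst h
    simp [node, ex]
    ring
  · simp [node, ex, h]

theorem node_add1 {t : ℝ} {n : ℕ} {b : E3} (w : Fin 3 → ℤ) (u : Fin 3) :
    node t n b w + (t / n) • ex u = node t n b (w + Pi.single u 1) := by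
  rw [← node_add]
  simp

theorem node_zero {t : ℝ} {n : ℕ} {b : E3} : node t n b 0 = b := by
  funext i
  simp [node]

theorem sc_node {u v : Fin 3} {t : ℝ} {n : ℕ} {b : E3} (m : Fin n × Fin n) :
    ∃ w, sc u v b (t / n) m = node t n b w := by
  refine ⟨0 + Pi.single u ((m.1 : ℕ) : ℤ) + Pi.single v ((m.2 : ℕ) : ℤ), ?_⟩
  rw [← node_add, ← node_add, node_zero]
  simp [sc]

section osc

variable {Y : Type*} {f : E3 → Y} {γ : E3 → ℝ≥0∞} {Om : Set E3} {u v : Fin 3} {c : E3} {h : ℝ}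

/-- the closed edge -/
def Seg (u : Fin 3) (c : E3) (h : ℝ) : Set E3 := (fun s : ℝ => c + s • ex u) '' Icc 0 h

theorem edge_osc [PseudoEMetricSpace Y] (hA : ACU f γ Om u c) (hs : Seg u c h ⊆ Om) {x y : E3}
    (hx : x ∈ Seg u c h) (hy : y ∈ Seg u c h) : edist (f x) (f y) ≤ edg γ u c h := by
  obtain ⟨s, hs1, rfl⟩ := hx
  obtain ⟨s', hs2, rfl⟩ := hy
  wlog hss : s ≤ s' generalizing s s'
  · rw [edist_comm]
    exact this s' hs2 s hs1 (not_le.1 hss).le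
  refine (hA s s' hss fun τ hτ => hs ⟨τ, ⟨hs1.1.trans hτ.1, hτ.2.trans hs2.2⟩, rfl⟩).trans ?_
  exact lintegral_mono_set (Icc_subset_Icc hs1.1 hs2.2)

theorem left_mem_Seg (hh : 0 ≤ h) : c ∈ Seg u c h := ⟨0, ⟨le_rfl, hh⟩, by simp⟩

theorem right_mem_Seg (hh : 0 ≤ h) : c + h • ex u ∈ Seg u c h := ⟨h, ⟨hh, le_rfl⟩, rfl⟩

theorem mem_Rim_cases (huv : u ≠ v) {x : E3} (hx : x ∈ Rim u v c h) :
    x ∈ Seg u c h ∨ x ∈ Seg u (c + h • ex v) h ∨ x ∈ Seg v c h ∨ x ∈ Seg v (c + h • ex u) h := by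
  obtain ⟨⟨⟨h1, h2⟩, ⟨h3, h4⟩, h5⟩, h6⟩ := hx
  have hcase : ∀ w, w = u ∨ w = v ∨ (w ≠ u ∧ w ≠ v) := fun w => by tauto
  rcases h6 with h6 | h6 | h6 | h6
  · right; right; left
    refine ⟨x v - c v, ⟨by linarith, by linarith⟩, ?_⟩
    funext w
    rcases hcase w with rfl | rfl | ⟨hw, hw'⟩
    · simp [ex_ne huv, h6]
    · simp [ex_same]
    · simp [ex_ne hw', h5 w hw hw']
  · right; right; right
    refine ⟨x v - c v, ⟨by linarith, by linarith⟩, ?_⟩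
    funext w
    rcases hcase w with rfl | rfl | ⟨hw, hw'⟩
    · simp [ex_ne huv, ex_same, h6]
    · simp [ex_same, ex_ne huv.symm]
    · simp [ex_ne hw', ex_ne hw, h5 w hw hw']
  · left
    refine ⟨x u - c u, ⟨by linarith, by linarith⟩, ?_⟩
    funext w
    rcases hcase w with rfl | rfl | ⟨hw, hw'⟩
    · simp [ex_same]
    · simp [ex_ne huv.symm, h6]
    · simp [ex_ne hw, h5 w hw hw']
  · right; left
    refine ⟨x u - c u, ⟨by linarith, by linarith⟩, ?_⟩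
    funext w
    rcases hcase w with rfl | rfl | ⟨hw, hw'⟩
    · simp [ex_same, ex_ne huv]
    · simp [ex_ne huv.symm, ex_same, h6]
    · simp [ex_ne hw', ex_ne hw, h5 w hw hw']

theorem Seg_sub1 (huv : u ≠ v) (hh : 0 ≤ h) : Seg u c h ⊆ Rim u v c h := by
  rintro _ ⟨s, ⟨hs1, hs2⟩, rfl⟩
  refine ⟨⟨⟨?_, ?_⟩, ⟨?_, ?_⟩, fun w hw hw' => ?_⟩, Or.inr (Or.inr (Or.inl ?_))⟩
  · simp [ex_same, hs1]
  · simp [ex_same, hs2]
  · simp [ex_ne huv.symm]
  · simp [ex_ne huv.symm, hh]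
  · simp [ex_ne hw]
  · simp [ex_ne huv.symm]

theorem Seg_sub2 (huv : u ≠ v) (hh : 0 ≤ h) : Seg u (c + h • ex v) h ⊆ Rim u v c h := by
  rintro _ ⟨s, ⟨hs1, hs2⟩, rfl⟩
  refine ⟨⟨⟨?_, ?_⟩, ⟨?_, ?_⟩, fun w hw hw' => ?_⟩, Or.inr (Or.inr (Or.inr ?_))⟩
  · simp [ex_same, ex_ne huv, hs1]
  · simp [ex_same, ex_ne huv, hs2]
  · simp [ex_ne huv.symm, ex_same, hh]
  · simp [ex_ne huv.symm, ex_same]
  · simp [ex_ne hw, ex_ne hw']
  · simp [ex_ne huv.symm, ex_same]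

theorem Seg_sub3 (huv : u ≠ v) (hh : 0 ≤ h) : Seg v c h ⊆ Rim u v c h := by
  rintro _ ⟨s, ⟨hs1, hs2⟩, rfl⟩
  refine ⟨⟨⟨?_, ?_⟩, ⟨?_, ?_⟩, fun w hw hw' => ?_⟩, Or.inl ?_⟩
  · simp [ex_ne huv]
  · simp [ex_ne huv, hh]
  · simp [ex_same, hs1]
  · simp [ex_same, hs2]
  · simp [ex_ne hw']
  · simp [ex_ne huv]

theorem Seg_sub4 (huv : u ≠ v) (hh : 0 ≤ h) : Seg v (c + h • ex u) h ⊆ Rim u v c h := by
  rintro _ ⟨s, ⟨hs1, hs2⟩, rfl⟩
  refine ⟨⟨⟨?_, ?_⟩, ⟨?_, ?_⟩, fun w hw hw' => ?_⟩, Or.inr (Or.inl ?_)⟩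
  · simp [ex_same, ex_ne huv, hh]
  · simp [ex_same, ex_ne huv]
  · simp [ex_ne huv.symm, ex_same, hs1]
  · simp [ex_ne huv.symm, ex_same, hs2]
  · simp [ex_ne hw, ex_ne hw']
  · simp [ex_ne huv, ex_same]

theorem osc_corner [PseudoEMetricSpace Y] (huv : u ≠ v) (hh : 0 ≤ h) (hR : Rim u v c h ⊆ Om)
    (h1 : ACU f γ Om u c) (h2 : ACU f γ Om u (c + h • ex v)) (h3 : ACU f γ Om v c)
    (h4 : ACU f γ Om v (c + h • ex u)) {x : E3} (hx : x ∈ Rim u v c h) :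
    edist (f x) (f c) ≤ rimI γ u v c h := by
  unfold rimI
  rcases mem_Rim_cases huv hx with hx | hx | hx | hx
  · refine (edge_osc h1 ((Seg_sub1 huv hh).trans hR) hx (left_mem_Seg hh)).trans ?_
    exact le_add_right (le_add_right (le_add_right le_rfl))
  · have a1 := edge_osc h2 ((Seg_sub2 huv hh).trans hR) hx (left_mem_Seg hh)
    have a2 := edge_osc h3 ((Seg_sub3 huv hh).trans hR) (right_mem_Seg hh) (left_mem_Seg hh)
    refine (edist_triangle _ (f (c + h • ex v)) _).trans ((add_le_add a1 a2).trans ?_)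
    exact le_add_right (add_le_add_left (le_add_left le_rfl) _)
  · refine (edge_osc h3 ((Seg_sub3 huv hh).trans hR) hx (left_mem_Seg hh)).trans ?_
    exact le_add_right (le_add_left le_rfl)
  · have a1 := edge_osc h4 ((Seg_sub4 huv hh).trans hR) hx (left_mem_Seg hh)
    have a2 := edge_osc h1 ((Seg_sub1 huv hh).trans hR) (right_mem_Seg hh) (left_mem_Seg hh)
    refine (edist_triangle _ (f (c + h • ex u)) _).trans ((add_le_add a1 a2).trans ?_)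
    rw [add_comm]
    exact add_le_add_left (le_add_right (le_add_right le_rfl)) _

theorem osc_rim [PseudoEMetricSpace Y] (huv : u ≠ v) (hh : 0 ≤ h) (hR : Rim u v c h ⊆ Om)
    (h1 : ACU f γ Om u c) (h2 : ACU f γ Om u (c + h • ex v)) (h3 : ACU f γ Om v c)
    (h4 : ACU f γ Om v (c + h • ex u)) {x y : E3} (hx : x ∈ Rim u v c h) (hy : y ∈ Rim u v c h) :
    edist (f x) (f y) ≤ 2 * rimI γ u v c h := by
  rw [two_mul]
  refine (edist_triangle _ (f c) _).trans (add_le_add (osc_corner huv hh hR h1 h2 h3 h4 hx) ?_)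
  rw [edist_comm]
  exact osc_corner huv hh hR h1 h2 h3 h4 hy

end osc

section cs

theorem add_sq_le2 (x y : ℝ≥0∞) : (x + y) ^ 2 ≤ 2 * (x ^ 2 + y ^ 2) := by
  have h := ENNReal.rpow_add_le_mul_rpow_add_rpow x y (p := 2) (by norm_num)
  norm_num at h
  exact h

theorem add_sq_le4 (a b c d : ℝ≥0∞) : (a + b + c + d) ^ 2 ≤ 4 * (a ^ 2 + b ^ 2 + c ^ 2 + d ^ 2) := by
  calc (a + b + c + d) ^ 2 = ((a + b) + (c + d)) ^ 2 := by ring
    _ ≤ 2 * ((a + b) ^ 2 + (c + d) ^ 2) := add_sq_le2 _ _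
    _ ≤ 2 * (2 * (a ^ 2 + b ^ 2) + 2 * (c ^ 2 + d ^ 2)) := by
        gcongr
        · exact add_sq_le2 _ _
        · exact add_sq_le2 _ _
    _ = 4 * (a ^ 2 + b ^ 2 + c ^ 2 + d ^ 2) := by ring

variable {γ : E3 → ℝ≥0∞} {u v : Fin 3} {c : E3} {h : ℝ}

theorem edg_sq_le (hγ : Measurable γ) : edg γ u c h ^ 2 ≤ ENNReal.ofReal h * edg (fun x => γ x ^ 2) u c h := by
  have hm : Measurable fun s : ℝ => c + s • ex u := Continuous.measurable (by fun_prop)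
  have hF : AEMeasurable (fun s : ℝ => γ (c + s • ex u)) (volume.restrict (Icc 0 h)) :=
    (hγ.comp hm).aemeasurable
  have h0 := ENNReal.lintegral_mul_le_Lp_mul_Lq (volume.restrict (Icc 0 h))
    Real.HolderConjugate.two_two hF (g := fun _ => (1 : ℝ≥0∞)) aemeasurable_const
  simp only [Pi.mul_apply, mul_one, ENNReal.one_rpow, lintegral_const, Measure.restrict_apply_univ,
    one_mul, Real.volume_Icc, sub_zero] at h0
  have h2 : ∀ a : ℝ≥0∞, (a ^ (1 / (2 : ℝ))) ^ 2 = a := by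
    intro a
    rw [← ENNReal.rpow_natCast, ← ENNReal.rpow_mul]
    norm_num
  calc edg γ u c h ^ 2 ≤ ((∫⁻ s in Icc 0 h, γ (c + s • ex u) ^ (2 : ℝ)) ^ (1 / (2 : ℝ)) *
        (ENNReal.ofReal h) ^ (1 / (2 : ℝ))) ^ 2 := by
        unfold edg
        gcongr
    _ = (∫⁻ s in Icc 0 h, γ (c + s • ex u) ^ (2 : ℝ)) * ENNReal.ofReal h := by rw [mul_pow, h2, h2]
    _ = ENNReal.ofReal h * edg (fun x => γ x ^ 2) u c h := by
        rw [mul_comm]
        simp only [ENNReal.rpow_ofNat, edg]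

theorem rimI_sq_le (hγ : Measurable γ) :
    rimI γ u v c h ^ 2 ≤ 4 * (ENNReal.ofReal h * rimI (fun x => γ x ^ 2) u v c h) := by
  unfold rimI
  refine (add_sq_le4 _ _ _ _).trans ?_
  gcongr
  rw [mul_add, mul_add, mul_add]
  gcongr
  · exact edg_sq_le hγ
  · exact edg_sq_le hγ
  · exact edg_sq_le hγ
  · exact edg_sq_le hγ

end cs

end

end Crest.Agent.R096.Fcg_58
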