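import Crest.Agent.R96.Intr29_538

/-!
# Row 96 (S0127), p = 2: averages of face energies over translations (helper812)

* `wsum w ν g a = ∑' φ, w φ * ∫⁻ z, g (a + z) ∂ν φ`;
* `lint_wsum_le` : mean over `a ∈ Tr`;
* `good_list` : finitely many (weights, faces, region, density) outside one bad set;
* `vol_of_pack` : the density condition from a packing of balls / tiles.
-/

set_option autoImplicit false
set_option linter.unusedSectionVars false

open MeasureTheory Set Filter Metric
open scoped ENNReal NNReal Topology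

namespace Crest.Agent.R096.Fen_812

open Crest.AnalysisR.VecCalc3 Crest.AnalysisR.Sobolev
open Crest.Agent.R96.Acl_392 Crest.Agent.R96.Coarse_538

noncomputable section

variable {Φ : Type*}

/-- weighted sum of the translated measures -/
def wsum (w : Φ → ℝ≥0∞) (ν : Φ → Measure R3) (g : R3 → ℝ≥0∞) (a : R3) : ℝ≥0∞ :=
  ∑' φ, w φ * ∫⁻ z, g (a + z) ∂ν φ

theorem aemeasurable_inner {ν : Measure R3} [SFinite ν] {g : R3 → ℝ≥0∞}
    (hg : AEMeasurable g volume) : AEMeasurable (fun a => ∫⁻ z, g (a + z) ∂ν) volume :=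
  Crest.Agent.R96.Grid_392.aemeasurable_pc (ν := ν) (γ := fun y : R3 => y) measurable_id hg

theorem aemeasurable_wsum [Countable Φ] (w : Φ → ℝ≥0∞) (ν : Φ → Measure R3)
    [∀ φ, SFinite (ν φ)] {g : R3 → ℝ≥0∞} (hg : AEMeasurable g volume) :
    AEMeasurable (wsum w ν g) volume :=
  AEMeasurable.tsum fun φ => (aemeasurable_inner (ν := ν φ) hg).const_mul _

theorem meas_shift {ν : Measure R3} [SFinite ν] {D : Set R3} (hD : MeasurableSet D) :
    Measurable fun z : R3 => ν {y | z - y ∈ D} := by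
  have h1 : MeasurableSet {p : R3 × R3 | p.1 - p.2 ∈ D} :=
    (measurable_fst.sub measurable_snd) hD
  exact measurable_measure_prodMk_left h1

/-- **the mean over the translations** -/
theorem lint_wsum_le [Countable Φ] {w : Φ → ℝ≥0∞} {ν : Φ → Measure R3} [∀ φ, SFinite (ν φ)]
    {g : R3 → ℝ≥0∞} (hg : AEMeasurable g volume) {Tr : Set R3} (hTr : MeasurableSet Tr)
    {n : ℝ≥0∞} (hvol : ∀ y, ∑' φ, w φ * ν φ {z | y - z ∈ Tr} ≤ n * volume Tr) :
    ∫⁻ a in Tr, wsum w ν g a ≤ n * volume Tr * ∫⁻ y, g y := by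
  have h1 : ∀ φ, AEMeasurable (fun a => w φ * ∫⁻ z, g (a + z) ∂ν φ) (volume.restrict Tr) :=
    fun φ => ((aemeasurable_inner (ν := ν φ) hg).const_mul _).restrict
  unfold wsum
  rw [lintegral_tsum h1]
  have h2 : ∀ φ, ∫⁻ a in Tr, w φ * ∫⁻ z, g (a + z) ∂ν φ =
      ∫⁻ y, g y * (w φ * ν φ {z | y - z ∈ Tr}) := by
    intro φ
    rw [lintegral_const_mul'' _ (aemeasurable_inner (ν := ν φ) hg).restrict, tonelli_nu hTr hg,
      ← lintegral_const_mul'']
    · refine lintegral_congr fun y => ?_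
      ring
    · exact hg.mul (meas_shift hTr).aemeasurable
  simp only [h2]
  rw [← lintegral_tsum]
  · calc ∫⁻ y, ∑' φ, g y * (w φ * ν φ {z | y - z ∈ Tr})
        ≤ ∫⁻ y, g y * (n * volume Tr) := by
          refine lintegral_mono fun y => ?_
          rw [ENNReal.tsum_mul_left]
          gcongr
          exact hvol y
      _ = n * volume Tr * ∫⁻ y, g y := by
          rw [lintegral_mul_const'' _ hg, mul_comm]
  · intro φ
    exact hg.mul ((meas_shift hTr).const_mul _).aemeasurable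

/-- Markov, with a strict inequality (also for the value `0`) -/
theorem markov' {X : R3 → ℝ≥0∞} (hX : AEMeasurable X volume) {Tr : Set R3}
    (hTr : MeasurableSet Tr) {J θ : ℝ≥0∞} (hθ0 : θ ≠ 0) (hθ1 : θ ≠ ∞)
    (h : ∫⁻ a in Tr, X a ≤ J * volume Tr) :
    volume (Tr ∩ {a | J / θ < X a}) ≤ θ * volume Tr := by
  by_cases hJ1 : J = ∞
  · have : Tr ∩ {a | J / θ < X a} = ∅ := by
      rw [hJ1, ENNReal.top_div_of_ne_top hθ1]
      ext a
      simp
    rw [this, measure_empty]
    exact zero_le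
  by_cases hJ0 : J = 0
  · rw [hJ0, zero_mul, nonpos_iff_eq_zero, lintegral_eq_zero_iff' hX.restrict] at h
    have h2 : volume (Tr ∩ {a | J / θ < X a}) = 0 := by
      rw [Filter.EventuallyEq, ae_restrict_iff' hTr] at h
      refine measure_mono_null ?_ (ae_iff.1 h)
      rintro a ⟨ha, ha'⟩
      rw [hJ0, ENNReal.zero_div] at ha'
      intro hcon
      have h3 : X a = (0 : R3 → ℝ≥0∞) a := hcon ha
      rw [mem_ofPred_eq, h3] at ha'
      exact lt_irrefl _ ha'
    rw [h2]
    exact zero_le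
  · have hc0 : J / θ ≠ 0 := (ENNReal.div_pos hJ0 hθ1).ne'
    have hc1 : J / θ ≠ ∞ := ENNReal.div_ne_top hJ1 hθ0
    have h1 := mul_meas_ge_le_lintegral₀ (hX.restrict (s := Tr)) (J / θ)
    have h2 : volume (Tr ∩ {a | J / θ < X a}) ≤ (volume.restrict Tr) {a | J / θ ≤ X a} := by
      rw [Measure.restrict_apply₀' hTr.nullMeasurableSet, inter_comm]
      refine measure_mono ?_
      rintro a ⟨ha1, ha2⟩
      exact ⟨(show J / θ ≤ X a from le_of_lt ha1), ha2⟩
    refine h2.trans ?_
    have h3 := h1.trans h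
    rw [mul_comm (J / θ), ← ENNReal.le_div_iff_mul_le (Or.inl hc0) (Or.inl hc1)] at h3
    refine h3.trans (le_of_eq ?_)
    rw [ENNReal.div_eq_inv_mul, ENNReal.div_eq_inv_mul, ENNReal.mul_inv (Or.inr hJ1) (Or.inr hJ0),
      inv_inv]
    calc θ * J⁻¹ * (J * volume Tr) = (J⁻¹ * J) * (θ * volume Tr) := by ring
      _ = θ * volume Tr := by rw [ENNReal.inv_mul_cancel hJ0 hJ1, one_mul]

/-- **finitely many lists outside one bad set** -/
theorem good_list [Countable Φ] {Lx : Type*} [Fintype Lx] {Tr : Set R3} (hTr : MeasurableSet Tr)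
    {w : Lx → Φ → ℝ≥0∞} {ν : Φ → Measure R3} [∀ φ, SFinite (ν φ)]
    {n : Lx → ℝ≥0∞} (hvol : ∀ l y, ∑' φ, w l φ * ν φ {z | y - z ∈ Tr} ≤ n l * volume Tr)
    {g : Lx → R3 → ℝ≥0∞} (hg : ∀ l, AEMeasurable (g l) volume) {Es : Lx → Set R3}
    (hE : ∀ l, MeasurableSet (Es l)) {θ : ℝ≥0∞} (hθ0 : θ ≠ 0) (hθ1 : θ ≠ ∞) :
    ∃ B : Set R3, MeasurableSet B ∧ volume B ≤ θ * volume Tr ∧ ∀ a ∈ Tr, a ∉ B → ∀ l,
      wsum (w l) ν ((Es l).indicator (g l)) a ≤
        n l * Fintype.card Lx / θ * ∫⁻ y in Es l, g l y := by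
  rcases isEmpty_or_nonempty Lx with h0 | h0
  · exact ⟨∅, MeasurableSet.empty, by rw [measure_empty]; exact zero_le, fun _ _ _ l =>
      h0.elim l⟩
  have hcard : (Fintype.card Lx : ℝ≥0∞) ≠ 0 := by
    exact_mod_cast Fintype.card_ne_zero
  have hcard' : (Fintype.card Lx : ℝ≥0∞) ≠ ∞ := ENNReal.natCast_ne_top _
  have hgE : ∀ l, AEMeasurable ((Es l).indicator (g l)) volume := fun l => (hg l).indicator (hE l)
  set θ' : ℝ≥0∞ := θ / Fintype.card Lx with hθ'
  have hθ'0 : θ' ≠ 0 := (ENNReal.div_pos hθ0 hcard').ne'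
  have hθ'1 : θ' ≠ ∞ := ENNReal.div_ne_top hθ1 hcard
  set X : Lx → R3 → ℝ≥0∞ := fun l => wsum (w l) ν ((Es l).indicator (g l)) with hX
  set J : Lx → ℝ≥0∞ := fun l => n l * ∫⁻ y in Es l, g l y with hJ
  have h1 : ∀ l, volume (Tr ∩ {a | J l / θ' < X l a}) ≤ θ' * volume Tr := by
    intro l
    refine markov' (aemeasurable_wsum _ _ (hgE l)) hTr hθ'0 hθ'1 ?_
    refine (lint_wsum_le (hgE l) hTr (hvol l)).trans (le_of_eq ?_)
    rw [lintegral_indicator (hE l), hJ]
    ring
  refine ⟨toMeasurable volume (⋃ l, Tr ∩ {a | J l / θ' < X l a}), measurableSet_toMeasurable _ _,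
    ?_, fun a ha haB l => ?_⟩
  · rw [measure_toMeasurable]
    refine (measure_iUnion_le _).trans ?_
    rw [tsum_fintype]
    refine (Finset.sum_le_sum fun l _ => h1 l).trans (le_of_eq ?_)
    rw [Finset.sum_const, Finset.card_univ, nsmul_eq_mul, ← mul_assoc, hθ',
      ENNReal.mul_div_cancel hcard hcard']
  · have h2 : ¬ J l / θ' < X l a := by
      intro h
      exact haB (subset_toMeasurable _ _ (mem_iUnion.2 ⟨l, ha, h⟩))
    refine (not_lt.1 h2).trans (le_of_eq ?_)
    rw [hJ, hθ', ENNReal.div_eq_inv_mul, ENNReal.div_eq_inv_mul, ENNReal.div_eq_inv_mul,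
      ENNReal.mul_inv (Or.inr hθ1) (Or.inr hθ0), inv_inv]
    ring

/-- **the density condition from a packing**: every face `F φ` has a set `Q φ` near it, with
`w φ ≤ C * volume (Q φ)`, the sets `Q φ` overlap at most `m` times -/
theorem vol_of_pack [Countable Φ] {w : Φ → ℝ≥0∞} {ν : Φ → Measure R3} {F Q : Φ → Set R3}
    {Tr : Set R3} {t : ℝ} {M C K : ℝ≥0∞} {m : ℕ} (hν : ∀ φ, ν φ univ ≤ M)
    (hF : ∀ φ, ν φ (F φ)ᶜ = 0) (hQm : ∀ φ, MeasurableSet (Q φ))
    (hw : ∀ φ, w φ ≤ C * volume (Q φ)) (hnear : ∀ φ, ∀ z ∈ F φ, Q φ ⊆ closedBall z t)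
    (hov : ∀ x, {φ | x ∈ Q φ}.encard ≤ m)
    (hK : volume (cthickening t Tr) ≤ K * volume Tr) (y : R3) :
    ∑' φ, w φ * ν φ {z | y - z ∈ Tr} ≤ (M * C * m * K) * volume Tr := by
  set R : Set R3 := {x | y - x ∈ cthickening t Tr} with hR
  have hRm : MeasurableSet R :=
    (measurable_const.sub measurable_id) isClosed_cthickening.measurableSet
  have hRv : volume R = volume (cthickening t Tr) := by
    have h1 : MeasurePreserving (fun x : R3 => y - x) volume volume :=
      Measure.measurePreserving_sub_left volume y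
    exact h1.measure_preimage isClosed_cthickening.measurableSet.nullMeasurableSet
  have h1 : ∀ φ, w φ * ν φ {z | y - z ∈ Tr} ≤ (M * C) * volume (Q φ ∩ R) := by
    intro φ
    by_cases h0 : (F φ ∩ {z | y - z ∈ Tr}).Nonempty
    · obtain ⟨z0, hz0, hz1⟩ := h0
      have hQR : Q φ ⊆ R := by
        intro x hx
        have hd : dist (y - x) (y - z0) ≤ t := by
          rw [dist_sub_left]
          exact mem_closedBall.1 (hnear φ z0 hz0 hx)
        exact mem_cthickening_of_dist_le (y - x) (y - z0) t Tr hz1 hd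
      rw [inter_eq_left.2 hQR]
      calc w φ * ν φ {z | y - z ∈ Tr} ≤ (C * volume (Q φ)) * M := by
            gcongr
            · exact hw φ
            · exact (measure_mono (subset_univ _)).trans (hν φ)
        _ = M * C * volume (Q φ) := by ring
    · have h2 : ν φ {z | y - z ∈ Tr} = 0 := by
        refine measure_mono_null ?_ (hF φ)
        intro z hz hzF
        exact h0 ⟨z, hzF, hz⟩
      rw [h2, mul_zero]
      exact zero_le
  calc ∑' φ, w φ * ν φ {z | y - z ∈ Tr} ≤ ∑' φ, (M * C) * volume (Q φ ∩ R) :=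
        ENNReal.tsum_le_tsum h1
    _ = (M * C) * ∑' φ, volume (Q φ ∩ R) := ENNReal.tsum_mul_left
    _ ≤ (M * C) * (m * volume R) := by
        gcongr
        calc ∑' φ, volume (Q φ ∩ R) = ∑' φ, ∫⁻ x in R, (Q φ).indicator 1 x := by
              refine tsum_congr fun φ => ?_
              rw [lintegral_indicator_one (hQm φ), Measure.restrict_apply (hQm φ)]
          _ = ∫⁻ x in R, ∑' φ, (Q φ).indicator 1 x := by
              rw [lintegral_tsum]
              exact fun φ => (measurable_one.indicator (hQm φ)).aemeasurable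
          _ ≤ ∫⁻ _ in R, (m : ℝ≥0∞) := by
              refine lintegral_mono fun x => ?_
              have h8 : ∀ φ, (Q φ).indicator (1 : R3 → ℝ≥0∞) x =
                  {φ | x ∈ Q φ}.indicator (1 : Φ → ℝ≥0∞) φ := by
                intro φ
                by_cases hj : x ∈ Q φ
                · rw [indicator_of_mem hj, indicator_of_mem (show φ ∈ {φ | x ∈ Q φ} from hj)]
                  rfl
                · rw [indicator_of_notMem hj,
                    indicator_of_notMem (show φ ∉ {φ | x ∈ Q φ} from hj)]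
              rw [tsum_congr h8, ← tsum_subtype, Pi.one_def, ENNReal.tsum_set_one]
              refine le_trans (ENat.toENNReal_le.2 (hov x)) (le_of_eq ?_)
              simp
          _ = m * volume R := by rw [lintegral_const, Measure.restrict_apply_univ]
    _ ≤ (M * C) * (m * (K * volume Tr)) := by
        rw [hRv]
        gcongr
    _ = (M * C * m * K) * volume Tr := by ring

end

end Crest.Agent.R096.Fen_812
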