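import Crest.Agent.R096.Fen1_812

/-!
# Row 96 (S0127), p = 2: random face measures (helper812), part 2

* `faceM w ν a` : translated weighted face measure; `lint_faceM`; `rm_faceM` (538's `RM`);
* `pack_le` / `rm_of_pack` / `mass_of_pack` : density and mass from a packing;
* `thick_le_of_ball` : `volume (cthickening t Tr) ≤ K * volume Tr`.
-/

set_option autoImplicit false
set_option linter.unusedSectionVars false

open MeasureTheory Set Filter Metric
open scoped ENNReal NNReal Topology

namespace Crest.Agent.R096.Fen_812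

open Crest.AnalysisR.VecCalc3 Crest.AnalysisR.Sobolev
open Crest.Agent.R96.Acl_392 Crest.Agent.R96.Coarse_538

noncomputable section

variable {Φ : Type*}

/-- translated weighted face measure -/
def faceM (w : Φ → ℝ≥0∞) (ν : Φ → Measure R3) (a : R3) : Measure R3 :=
  Measure.sum fun φ => w φ • (ν φ).map (fun z => a + z)

theorem lint_faceM {w : Φ → ℝ≥0∞} {ν : Φ → Measure R3} {F : R3 → ℝ≥0∞} (hF : Measurable F)
    (a : R3) : ∫⁻ y, F y ∂faceM w ν a = wsum w ν F a := by
  unfold faceM wsum
  rw [lintegral_sum_measure]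
  refine tsum_congr fun φ => ?_
  rw [lintegral_smul_measure, lintegral_map hF (measurable_const_add a)]
  rfl

/-- **the face measure is a random measure** -/
theorem rm_faceM [Countable Φ] {w : Φ → ℝ≥0∞} {ν : Φ → Measure R3} [∀ φ, SFinite (ν φ)]
    {Tr : Set R3} (hTr : MeasurableSet Tr) {n : ℝ≥0∞}
    (hvol : ∀ y, ∑' φ, w φ * ν φ {z | y - z ∈ Tr} ≤ n * volume Tr) : RM Tr n (faceM w ν) where
  meas := fun F hF => by
    simp only [lint_faceM hF]
    exact (aemeasurable_wsum w ν hF.aemeasurable).restrict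
  dens := fun F hF => by
    simp only [lint_faceM hF]
    exact lint_wsum_le hF.aemeasurable hTr hvol

/-- for a.e. translation the null sets are not seen; so `lint_faceM` for a.e.-measurable densities -/
theorem ae_lint_faceM [Countable Φ] {ν : Φ → Measure R3} [∀ φ, SFinite (ν φ)]
    {F : R3 → ℝ≥0∞} (hF : AEMeasurable F volume) :
    ∀ᵐ a, ∀ φ, ∀ᵐ z ∂ν φ, F (a + z) = hF.mk F (a + z) := by
  rw [ae_all_iff]
  intro φ
  set Z := toMeasurable volume {y | F y ≠ hF.mk F y} with hZ
  have hZ0 : volume Z = 0 := by rw [hZ, measure_toMeasurable]; exact hF.ae_eq_mk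
  have hZm : MeasurableSet Z := measurableSet_toMeasurable _ _
  have h1 := tonelli_nu (ν := ν φ) MeasurableSet.univ (F := Z.indicator 1)
    (measurable_one.indicator hZm).aemeasurable
  have h2 : ∫⁻ z, Z.indicator (1 : R3 → ℝ≥0∞) z * ν φ {y | z - y ∈ univ} = 0 := by
    rw [lintegral_eq_zero_iff' (by
      have h3 : (fun z : R3 => Z.indicator (1 : R3 → ℝ≥0∞) z * ν φ {y | z - y ∈ univ}) =
        fun z => Z.indicator (1 : R3 → ℝ≥0∞) z * ν φ univ := by
        funext z; simp
      rw [h3]
      exact ((measurable_one.indicator hZm).mul_const _).aemeasurable)]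
    have h4 : ∀ᵐ z : R3, z ∉ Z := by
      rw [ae_iff]
      simp only [not_not]
      exact hZ0
    filter_upwards [h4] with z hz
    rw [indicator_of_notMem hz, zero_mul]
    rfl
  rw [h2, Measure.restrict_univ, lintegral_eq_zero_iff' (aemeasurable_inner (ν := ν φ)
    (measurable_one.indicator hZm).aemeasurable)] at h1
  filter_upwards [h1] with a ha
  have h5 : Measurable fun z : R3 => Z.indicator (1 : R3 → ℝ≥0∞) (a + z) :=
    (measurable_one.indicator hZm).comp (measurable_const_add a)
  have h6 : ∫⁻ z, Z.indicator (1 : R3 → ℝ≥0∞) (a + z) ∂ν φ = 0 := ha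
  rw [lintegral_eq_zero_iff h5] at h6
  filter_upwards [h6] with z hz
  by_contra hcon
  have h7 : a + z ∈ Z := subset_toMeasurable _ _ hcon
  have h8 : Z.indicator (1 : R3 → ℝ≥0∞) (a + z) = 0 := hz
  rw [indicator_of_mem h7] at h8
  exact one_ne_zero h8

theorem ae_wsum_eq [Countable Φ] {w : Φ → ℝ≥0∞} {ν : Φ → Measure R3} [∀ φ, SFinite (ν φ)]
    {F : R3 → ℝ≥0∞} (hF : AEMeasurable F volume) :
    ∀ᵐ a, wsum w ν F a = ∫⁻ y, hF.mk F y ∂faceM w ν a := by
  filter_upwards [ae_lint_faceM (ν := ν) hF] with a ha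
  rw [lint_faceM hF.measurable_mk]
  unfold wsum
  exact tsum_congr fun φ => by rw [lintegral_congr_ae (ha φ)]

/-- **the mass of a region, from a packing** -/
theorem pack_le [Countable Φ] {w : Φ → ℝ≥0∞} {ν : Φ → Measure R3} {F Q : Φ → Set R3}
    {t : ℝ} {M C : ℝ≥0∞} {m : ℕ} (hν : ∀ φ, ν φ univ ≤ M)
    (hF : ∀ φ, ν φ (F φ)ᶜ = 0) (hQm : ∀ φ, MeasurableSet (Q φ))
    (hw : ∀ φ, w φ ≤ C * volume (Q φ)) (hnear : ∀ φ, ∀ z ∈ F φ, Q φ ⊆ closedBall z t)
    (hov : ∀ x, {φ | x ∈ Q φ}.encard ≤ m) (S : Set R3) :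
    ∑' φ, w φ * ν φ S ≤ (M * C * m) * volume (cthickening t S) := by
  set R : Set R3 := cthickening t S with hR
  have h1 : ∀ φ, w φ * ν φ S ≤ (M * C) * volume (Q φ ∩ R) := by
    intro φ
    by_cases h0 : (F φ ∩ S).Nonempty
    · obtain ⟨z0, hz0, hz1⟩ := h0
      have hQR : Q φ ⊆ R := by
        intro x hx
        exact mem_cthickening_of_dist_le x z0 t S hz1 (mem_closedBall.1 (hnear φ z0 hz0 hx))
      rw [inter_eq_left.2 hQR]
      calc w φ * ν φ S ≤ (C * volume (Q φ)) * M := by
            gcongr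
            · exact hw φ
            · exact (measure_mono (subset_univ _)).trans (hν φ)
        _ = M * C * volume (Q φ) := by ring
    · have h2 : ν φ S = 0 := by
        refine measure_mono_null ?_ (hF φ)
        intro z hz hzF
        exact h0 ⟨z, hzF, hz⟩
      rw [h2, mul_zero]
      exact zero_le
  calc ∑' φ, w φ * ν φ S ≤ ∑' φ, (M * C) * volume (Q φ ∩ R) := ENNReal.tsum_le_tsum h1
    _ = (M * C) * ∑' φ, volume (Q φ ∩ R) := ENNReal.tsum_mul_left
    _ ≤ (M * C) * (m * volume R) := by
        gcongr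
        calc ∑' φ, volume (Q φ ∩ R) = ∑' φ, ∫⁻ x in R, (Q φ).indicator 1 x := by
              refine tsum_congr fun φ => ?_
              rw [lintegral_indicator_one (hQm φ), Measure.restrict_apply (hQm φ)]
          _ = ∫⁻ x in R, ∑' φ, (Q φ).indicator 1 x := by
              rw [lintegral_tsum]
              exact fun φ => (measurable_one.indicator (hQm φ)).aemeasurable
          _ ≤ ∫⁻ _ in R, (m : ℝ≥0∞) := by
              refine lintegral_mono fun x => ?_
              have h8 : ∀ φ, (Q φ).indicator (1 : R3 → ℝ≥0∞) x =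
                  {φ | x ∈ Q φ}.indicator (1 : Φ → ℝ≥0∞) φ := by
                intro φ
                by_cases hj : x ∈ Q φ
                · rw [indicator_of_mem hj, indicator_of_mem (show φ ∈ {φ | x ∈ Q φ} from hj)]
                  rfl
                · rw [indicator_of_notMem hj,
                    indicator_of_notMem (show φ ∉ {φ | x ∈ Q φ} from hj)]
              rw [tsum_congr h8, ← tsum_subtype, Pi.one_def, ENNReal.tsum_set_one]
              refine le_trans (ENat.toENNReal_le.2 (hov x)) (le_of_eq ?_)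
              simp
          _ = m * volume R := by rw [lintegral_const, Measure.restrict_apply_univ]
    _ = (M * C * m) * volume R := by ring

/-- **the random face measure of a packed family** -/
theorem rm_of_pack [Countable Φ] {w : Φ → ℝ≥0∞} {ν : Φ → Measure R3} [∀ φ, SFinite (ν φ)]
    {F Q : Φ → Set R3} {Tr : Set R3} (hTr : MeasurableSet Tr) {t : ℝ} {M C K : ℝ≥0∞} {m : ℕ}
    (hν : ∀ φ, ν φ univ ≤ M) (hF : ∀ φ, ν φ (F φ)ᶜ = 0) (hQm : ∀ φ, MeasurableSet (Q φ))
    (hw : ∀ φ, w φ ≤ C * volume (Q φ)) (hnear : ∀ φ, ∀ z ∈ F φ, Q φ ⊆ closedBall z t)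
    (hov : ∀ x, {φ | x ∈ Q φ}.encard ≤ m)
    (hK : volume (cthickening t Tr) ≤ K * volume Tr) :
    RM Tr (M * C * m * K) (faceM w ν) :=
  rm_faceM hTr (vol_of_pack hν hF hQm hw hnear hov hK)

/-- **mass of a set** (538's clause on the cubes) -/
theorem mass_of_pack [Countable Φ] {w : Φ → ℝ≥0∞} {ν : Φ → Measure R3}
    {F Q : Φ → Set R3} {t : ℝ} {M C : ℝ≥0∞} {m : ℕ}
    (hν : ∀ φ, ν φ univ ≤ M) (hF : ∀ φ, ν φ (F φ)ᶜ = 0) (hQm : ∀ φ, MeasurableSet (Q φ))
    (hw : ∀ φ, w φ ≤ C * volume (Q φ)) (hnear : ∀ φ, ∀ z ∈ F φ, Q φ ⊆ closedBall z t)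
    (hov : ∀ x, {φ | x ∈ Q φ}.encard ≤ m) (a : R3) {S : Set R3} (hS : MeasurableSet S) :
    faceM w ν a S ≤ (M * C * m) * volume (cthickening t S) := by
  have h1 : faceM w ν a S = ∑' φ, w φ * ν φ ((fun z => a + z) ⁻¹' S) := by
    unfold faceM
    rw [Measure.sum_apply _ hS]
    refine tsum_congr fun φ => ?_
    rw [Measure.smul_apply, Measure.map_apply (measurable_const_add a) hS]
    rfl
  have h2 : (fun z => a + z) ⁻¹' cthickening t S = cthickening t ((fun z => a + z) ⁻¹' S) := by
    ext z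
    have e : (fun z => a + z) '' ((fun z => a + z) ⁻¹' S) = S :=
      image_preimage_eq _ (fun y => ⟨y - a, by abel⟩)
    rw [mem_preimage, mem_cthickening_iff, mem_cthickening_iff]
    have h3 : infEDist (a + z) S = infEDist z ((fun z => a + z) ⁻¹' S) := by
      conv_lhs => rw [← e]
      exact infEDist_image (isometry_add_left a)
    rw [h3]
  rw [h1]
  refine (pack_le hν hF hQm hw hnear hov _).trans (le_of_eq ?_)
  rw [← h2]
  congr 1
  exact measure_preimage_add volume a (cthickening t S)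

/-- the volume of a ball in `R3` -/
theorem vol_ball_le (c : R3) {r : ℝ} (hr : 0 ≤ r) :
    volume (closedBall c r) ≤ ENNReal.ofReal ((2 * r) ^ 3) := by
  have h1 : closedBall c r ⊆ {x : R3 | ∀ i, x i ∈ Icc (c i - r) (c i + r)} := by
    intro x hx i
    have h2 : |x i - c i| ≤ r := by
      have := PiLp.norm_apply_le (x - c) i
      rw [PiLp.sub_apply, Real.norm_eq_abs] at this
      exact this.trans (by rw [← dist_eq_norm]; exact hx)
    rw [abs_le] at h2
    constructor <;> linarith [h2.1, h2.2]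
  refine (measure_mono h1).trans (le_of_eq ?_)
  rw [vol_box fun _ => measurableSet_Icc]
  simp only [Real.volume_Icc]
  rw [Fin.prod_univ_three]
  have e : ∀ i, c i + r - (c i - r) = 2 * r := fun i => by ring
  rw [e, e, e, ← ENNReal.ofReal_mul (by positivity), ← ENNReal.ofReal_mul (by positivity)]
  congr 1
  ring

theorem le_vol_ball (c : R3) {r : ℝ} (hr : 0 ≤ r) :
    ENNReal.ofReal (r ^ 3) ≤ volume (ball c r) := by
  have h1 : {x : R3 | ∀ i, x i ∈ Ioo (c i - r / 2) (c i + r / 2)} ⊆ ball c r := by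
    intro x hx
    rw [mem_ball, EuclideanSpace.dist_eq, Real.sqrt_lt' (by
      have h2 := hx 0
      rcases hr.lt_or_eq with h | h
      · exact h
      · exfalso
        rw [← h] at h2
        exact absurd (h2.1.trans h2.2) (by linarith))]
    have h2 : ∀ i, dist (x i) (c i) ^ 2 < (r / 2) ^ 2 := by
      intro i
      rw [Real.dist_eq]
      have h3 := hx i
      have h4 : |x i - c i| < r / 2 := by
        rw [abs_lt]
        constructor <;> linarith [h3.1, h3.2]
      exact pow_lt_pow_left₀ h4 (abs_nonneg _) two_ne_zero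
    rw [Fin.sum_univ_three]
    nlinarith [h2 0, h2 1, h2 2]
  refine le_trans (le_of_eq ?_) (measure_mono h1)
  rw [vol_box fun _ => measurableSet_Ioo]
  simp only [Real.volume_Ioo]
  rw [Fin.prod_univ_three]
  have e : ∀ i, c i + r / 2 - (c i - r / 2) = r := fun i => by ring
  rw [e, e, e, ← ENNReal.ofReal_mul (by positivity), ← ENNReal.ofReal_mul (by positivity)]
  congr 1
  ring

/-- the translations lie in a ball of radius `C t` and have volume at least `t ^ 3` -/
theorem thick_le_of_ball {Tr : Set R3} {c : R3} {t C : ℝ} (ht : 0 ≤ t) (hC : 0 ≤ C)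
    (h : Tr ⊆ closedBall c (C * t)) (hv : ENNReal.ofReal (t ^ 3) ≤ volume Tr) :
    volume (cthickening t Tr) ≤ ENNReal.ofReal ((2 * (C + 1)) ^ 3) * volume Tr := by
  have h1 : cthickening t Tr ⊆ closedBall c ((C + 1) * t) := by
    refine (cthickening_subset_of_subset t h).trans ?_
    rw [cthickening_closedBall ht (by positivity)]
    exact closedBall_subset_closedBall (by linarith)
  calc volume (cthickening t Tr) ≤ volume (closedBall c ((C + 1) * t)) := measure_mono h1
    _ ≤ ENNReal.ofReal ((2 * ((C + 1) * t)) ^ 3) := vol_ball_le c (by positivity)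
    _ = ENNReal.ofReal ((2 * (C + 1)) ^ 3) * ENNReal.ofReal (t ^ 3) := by
        rw [← ENNReal.ofReal_mul (by positivity)]
        congr 1
        ring
    _ ≤ _ := by gcongr

end

end Crest.Agent.R096.Fen_812
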