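import Crest.Agent.R096.Fen2_812
import Crest.Agent.R096.Mf2_113
import Crest.Agent.R096.P2l9_565

/-!
# Row 96 (S0127), p = 2: random face measures (helper812), part 3: the 2-cells of a model tiling
-/

set_option autoImplicit false
set_option linter.unusedSectionVars false

open MeasureTheory Set Filter Metric
open scoped ENNReal NNReal Topology

namespace Crest.Agent.R096.Fen_812

open Crest.AnalysisR.VecCalc3 Crest.AnalysisR.Sobolev
open Crest.Agent.R96.Acl_392 Crest.Agent.R96.Coarse_538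
open Crest.Agent.R096.Msh_715 Crest.Agent.R096.Fce_793 Crest.Agent.R096.Mf_113
open Crest.Agent.R096.P2l_565 (cells2 cells2_le)

noncomputable section

/-! ### the measure of a parametrised face -/

/-- the image of the Lebesgue measure of the parameter polygon -/
def nuF (e : Fin 2 → R3) (x : R3) (P : Set (ℝ × ℝ)) : Measure R3 :=
  (volume.restrict P).map (pt e x)

theorem measurable_pt (e : Fin 2 → R3) (x : R3) : Measurable (pt e x) := by
  unfold pt
  fun_prop

instance (e : Fin 2 → R3) (x : R3) (P : Set (ℝ × ℝ)) : SFinite (nuF e x P) := by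
  unfold nuF
  infer_instance

theorem nuF_univ {e : Fin 2 → R3} {x : R3} {P : Set (ℝ × ℝ)}
    (hP : P ⊆ Icc (0 : ℝ) 1 ×ˢ Icc (0 : ℝ) 1) : nuF e x P univ ≤ 1 := by
  unfold nuF
  rw [Measure.map_apply (measurable_pt e x) MeasurableSet.univ, preimage_univ,
    Measure.restrict_apply_univ]
  refine (measure_mono hP).trans (le_of_eq ?_)
  rw [Measure.volume_eq_prod, Measure.prod_prod, Real.volume_Icc]
  simp

theorem nuF_compl {e : Fin 2 → R3} {x : R3} {P : Set (ℝ × ℝ)} (hP : IsCompact P) :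
    nuF e x P (pt e x '' P)ᶜ = 0 := by
  have hc : Continuous (pt e x) := by unfold pt; fun_prop
  have h1 : MeasurableSet (pt e x '' P)ᶜ := (hP.image hc).isClosed.measurableSet.compl
  unfold nuF
  rw [Measure.map_apply hc.measurable h1, Measure.restrict_apply (hc.measurable h1)]
  refine measure_mono_null ?_ measure_empty
  rintro w ⟨hw, hwP⟩
  exact hw (mem_image_of_mem _ hwP)

theorem lint_nuF {e : Fin 2 → R3} {x : R3} {P : Set (ℝ × ℝ)} {g : R3 → ℝ≥0∞}
    (hg : Measurable g) (a : R3) :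
    ∫⁻ z, g (a + z) ∂nuF e x P = ∫⁻ w in P, g (pt e (a + x) w) := by
  unfold nuF
  have h1 : Measurable fun z : R3 => g (a + z) := hg.comp (measurable_const_add a)
  rw [lintegral_map h1 (measurable_pt e x)]
  refine lintegral_congr fun w => ?_
  congr 1
  unfold pt
  abel

/-! ### the 2-cells of a tiling -/

section tiling

variable {Om0 : Set R3} {ι0 : Type*} {T0 : Tiling Om0 ι0}

/-- the tile of the face is fat, small, with few neighbours -/
def Fat (T0 : Tiling Om0 ι0) (t : ℝ) (nc : ℕ) (C w : ℝ≥0∞) (K : Set R3) : Prop :=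
  ∃ i c r, K ⊆ P (T0.H i) ∧ 0 ≤ r ∧ closedBall c r ⊆ P (T0.H i) ∧
    w ≤ C * ENNReal.ofReal (r ^ 3) ∧ (∀ x ∈ P (T0.H i), ∀ y ∈ P (T0.H i), dist x y ≤ t) ∧
    {j | (P (T0.H j) ∩ P (T0.H i)).Nonempty}.ncard ≤ nc

/-- the packing of the 2-cells of a tiling by balls -/
theorem exists_pack {t : ℝ} {nc : ℕ} {C : ℝ≥0∞} {w : CK T0 2 → ℝ≥0∞}
    (hfat : ∀ φ, w φ ≠ 0 → Fat T0 t nc C (w φ) φ.1.set) :
    ∃ Q : CK T0 2 → Set R3, (∀ φ, MeasurableSet (Q φ)) ∧ (∀ φ, w φ ≤ C * volume (Q φ)) ∧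
      (∀ φ, ∀ z ∈ φ.1.set, Q φ ⊆ closedBall z t) ∧ ∀ x, {φ | x ∈ Q φ}.encard ≤ nc := by
  classical
  have h1 : ∀ φ : CK T0 2, ∃ (i : ι0) (c : R3) (r : ℝ), w φ ≠ 0 → φ.1.set ⊆ P (T0.H i) ∧ 0 ≤ r ∧
      closedBall c r ⊆ P (T0.H i) ∧ w φ ≤ C * ENNReal.ofReal (r ^ 3) ∧
      (∀ x ∈ P (T0.H i), ∀ y ∈ P (T0.H i), dist x y ≤ t) ∧
      {j | (P (T0.H j) ∩ P (T0.H i)).Nonempty}.ncard ≤ nc := by
    intro φ
    by_cases h : w φ = 0
    · obtain ⟨i, _⟩ := T0.cov _ φ.1.pt_mem
      exact ⟨i, 0, 0, fun h' => absurd h h'⟩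
    · obtain ⟨i, c, r, h2⟩ := hfat φ h
      exact ⟨i, c, r, fun _ => h2⟩
  choose ti cc rr h2 using h1
  have hsub : ∀ φ, w φ ≠ 0 → ball (cc φ) (rr φ) ⊆ I (T0.H (ti φ)) := by
    intro φ h
    rw [← Srg_465.interior_P (T0.ne _)]
    exact interior_maximal (ball_subset_closedBall.trans (h2 φ h).2.2.1) isOpen_ball
  refine ⟨fun φ => if w φ = 0 then ∅ else ball (cc φ) (rr φ), fun φ => ?_, fun φ => ?_,
    fun φ z hz => ?_, fun x => ?_⟩
  · simp only
    split_ifs
    · exact MeasurableSet.empty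
    · exact measurableSet_ball
  · simp only
    split_ifs with h
    · rw [h]; exact zero_le
    · refine (h2 φ h).2.2.2.1.trans ?_
      gcongr
      exact le_vol_ball _ (h2 φ h).2.1
  · simp only
    split_ifs with h
    · exact empty_subset _
    · intro x hx
      have h3 := h2 φ h
      rw [mem_closedBall]
      exact h3.2.2.2.2.1 x (h3.2.2.1 (ball_subset_closedBall hx)) z (h3.1 hz)
  · by_cases hx : ∃ φ : CK T0 2, w φ ≠ 0 ∧ x ∈ ball (cc φ) (rr φ)
    · obtain ⟨φ0, h0, hx0⟩ := hx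
      have hxI := hsub φ0 h0 hx0
      have h4 : ∀ φ ∈ {φ : CK T0 2 | x ∈ if w φ = 0 then (∅ : Set R3) else ball (cc φ) (rr φ)},
          φ.1.set ∈ cells2 T0 (ti φ0) := by
        intro φ hφ
        simp only [mem_ofPred_eq] at hφ
        split_ifs at hφ with h
        · exact absurd hφ (notMem_empty x)
        · have h5 := hsub φ h hφ
          have h6 : ti φ = ti φ0 := by
            by_contra hne
            exact Set.disjoint_left.1 (T0.dis _ _ hne) h5 hxI
          have h7 := (h2 φ h).1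
          rw [h6] at h7
          refine ⟨φ.1.pt, φ.1.pt_mem, φ.2, ?_, φ.1.set_eq⟩
          rw [← φ.1.set_eq]
          exact h7
      have hinj : InjOn (fun φ : CK T0 2 => φ.1.set)
          {φ : CK T0 2 | x ∈ if w φ = 0 then (∅ : Set R3) else ball (cc φ) (rr φ)} := by
        intro φ _ φ' _ h
        exact Subtype.ext (Tiling.Cell.ext h)
      rw [← hinj.encard_image]
      have h8 : (fun φ : CK T0 2 => φ.1.set) ''
          {φ : CK T0 2 | x ∈ if w φ = 0 then (∅ : Set R3) else ball (cc φ) (rr φ)} ⊆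
          cells2 T0 (ti φ0) := by
        rintro _ ⟨φ, hφ, rfl⟩
        exact h4 φ hφ
      refine (encard_le_encard h8).trans ?_
      have hfin := P2l_565.finite_cells2 T0 (ti φ0)
      rw [← hfin.cast_ncard_eq]
      exact_mod_cast (cells2_le T0 (by simp) (ti φ0)).trans (h2 φ0 h0).2.2.2.2.2
    · have h5 : {φ : CK T0 2 | x ∈ if w φ = 0 then (∅ : Set R3) else ball (cc φ) (rr φ)} = ∅ := by
        ext φ
        simp only [mem_ofPred_eq, mem_empty_iff_false, iff_false]
        intro h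
        split_ifs at h with h'
        · exact h
        · exact hx ⟨φ, h', h⟩
      simp only [h5, encard_empty]
      exact zero_le

/-- **the face energies of a model tiling: random measure** -/
theorem rm_cells {t : ℝ} {nc : ℕ} {C : ℝ≥0∞} {w : CK T0 2 → ℝ≥0∞}
    (hfat : ∀ φ, w φ ≠ 0 → Fat T0 t nc C (w φ) φ.1.set)
    {ν : CK T0 2 → Measure R3} [∀ φ, SFinite (ν φ)] {M : ℝ≥0∞} (hν : ∀ φ, ν φ univ ≤ M)
    (hνF : ∀ φ, ν φ (φ.1.set)ᶜ = 0) {Tr : Set R3} (hTr : MeasurableSet Tr) {K : ℝ≥0∞}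
    (hK : volume (cthickening t Tr) ≤ K * volume Tr) :
    RM Tr (M * C * nc * K) (faceM w ν) ∧
      ∀ a, ∀ S, MeasurableSet S → faceM w ν a S ≤ (M * C * nc) * volume (cthickening t S) := by
  obtain ⟨Q, h1, h2, h3, h4⟩ := exists_pack hfat
  exact ⟨rm_of_pack hTr hν hνF h1 h2 h3 h4 hK,
    fun a S hS => mass_of_pack hν hνF h1 h2 h3 h4 a hS⟩

end tiling

end

end Crest.Agent.R096.Fen_812
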