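import Mathlib
import Crest.Agent.R332.FullTop
import Crest.Prelude.Def_SobolevMap

/-!
Row 96, FILL (helper955).  A compact retract `A` of a Euclidean space has no bounded complementary
component; hence every bounded complementary component of a subset `S ⊆ A` lies in `A`.
Applied to `A = f⁻¹ D`, `D` compact convex in the target of a homeomorphism `f : Ω → Λ`: the inside
of every surface contained in `f⁻¹ D` lies in `f⁻¹ D ⊆ Ω`.
-/

set_option autoImplicit false
set_option linter.unusedSectionVars false
set_option linter.style.longLine false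

open Set Metric Topology Bornology

namespace Crest.Agent.R096.Fill_955

variable {E : Type*} [NormedAddCommGroup E] [InnerProductSpace ℝ E] [FiniteDimensional ℝ E]
variable {F : Type*} [NormedAddCommGroup F] [InnerProductSpace ℝ F] [FiniteDimensional ℝ F]

/-- a continuous self map of a Euclidean space which is the identity off a bounded set is onto -/
theorem surjective_of_id_off_bounded {g : E → E} (hg : Continuous g) {B : Set E} (hB : IsBounded B)
    (hid : ∀ x, x ∉ B → g x = x) : Function.Surjective g := by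
  intro z
  obtain ⟨ρ, hρ⟩ := hB.subset_closedBall (0 : E)
  -- shift by `z`
  obtain ⟨x, hx⟩ := R332.Full.exists_zero_of_inner_pos (fun x => g (x + z) - z)
    ((hg.comp (continuous_id.add continuous_const)).sub continuous_const)
    (|ρ| + ‖z‖ + 1) (by positivity) (by
      intro x hx
      have h1 : x + z ∉ B := by
        intro hmem
        have h2 := hρ hmem
        rw [mem_closedBall_zero_iff] at h2
        have h3 : ‖x‖ ≤ ‖x + z‖ + ‖z‖ := by
          have := norm_sub_le (x + z) z
          simpa using this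
        have h4 := le_abs_self ρ
        linarith
      have h5 : g (x + z) - z = x := by rw [hid _ h1]; abel
      simp only [h5]
      rw [real_inner_self_eq_norm_sq]
      have : 0 < ‖x‖ := lt_of_lt_of_le (by positivity) hx
      positivity)
  exact ⟨x + z, sub_eq_zero.1 hx⟩

/-- `A` is a retract of the whole space -/
def IsRetr (A : Set E) : Prop := ∃ r : E → E, Continuous r ∧ (∀ x, r x ∈ A) ∧ ∀ x ∈ A, r x = x

/-- closed convex nonempty sets are retracts -/
theorem IsRetr.of_convex {C : Set E} (hne : C.Nonempty) (hcl : IsClosed C)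
    (hcv : Convex ℝ C) : IsRetr C := by
  obtain ⟨P, h1, h2⟩ := R332.Full.exists_proj C hne hcl hcv
  refine ⟨P, ?_, h1, fun x hx => R332.Full.proj_eq_of_mem h2 hx⟩
  have h3 : LipschitzWith 1 P := LipschitzWith.of_dist_le_mul (fun x y => by
    rw [dist_eq_norm, dist_eq_norm, NNReal.coe_one, one_mul]
    exact R332.Full.proj_lipschitz h1 h2 x y)
  exact h3.continuous

/-- a closed set which is homeomorphic to a retract is a retract -/
theorem IsRetr.of_maps {A : Set E} (hA : IsClosed A) {D : Set F} (hD : IsRetr D)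
    {f : E → F} {g : F → E} (hf : ContinuousOn f A) (hfm : MapsTo f A D)
    (hg : ContinuousOn g D) (hgm : MapsTo g D A) (hgf : ∀ x ∈ A, g (f x) = x) : IsRetr A := by
  have : TietzeExtension F := TietzeExtension.of_tvs ℝ
  obtain ⟨rD, hr1, hr2, hr3⟩ := hD
  obtain ⟨φ, hφ⟩ := ContinuousMap.exists_restrict_eq hA
    (⟨fun x : A => f x, continuousOn_iff_continuous_domRestrict.1 hf⟩ : C(A, F))
  have hφ' : ∀ x ∈ A, φ x = f x := fun x hx => congrArg (fun ψ : C(A, F) => ψ ⟨x, hx⟩) hφ
  refine ⟨fun x => g (rD (φ x)), ?_, fun x => hgm (hr2 _), fun x hx => ?_⟩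
  · exact hg.comp_continuous (hr1.comp φ.continuous) (fun x => hr2 _)
  · show g (rD (φ x)) = x
    rw [hφ' x hx, hr3 _ (hfm hx), hgf x hx]

/-- **(F2)** the complement of a closed retract has no bounded component -/
theorem not_isBounded_component {A : Set E} (hA : IsClosed A) (hr : IsRetr A) {z : E} (hz : z ∉ A) :
    ¬ IsBounded (connectedComponentIn Aᶜ z) := by
  intro hb
  obtain ⟨r, hr1, hr2, hr3⟩ := hr
  set W := connectedComponentIn Aᶜ z with hW
  have hWo : IsOpen W := hA.isOpen_compl.connectedComponentIn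
  have hzW : z ∈ W := mem_connectedComponentIn hz
  have hfr : frontier W ⊆ A := by
    intro x hx
    by_contra hxA
    have hU : IsOpen (connectedComponentIn Aᶜ x) := hA.isOpen_compl.connectedComponentIn
    have hxU : x ∈ connectedComponentIn Aᶜ x := mem_connectedComponentIn hxA
    have h1 : x ∈ closure W := frontier_subset_closure hx
    obtain ⟨y, hy1, hy2⟩ := mem_closure_iff.1 h1 _ hU hxU
    have e1 := connectedComponentIn_eq hy1
    have e2 := connectedComponentIn_eq hy2
    have h2 : x ∈ W := by rw [hW, e2, ← e1]; exact hxU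
    exact (hWo.frontier_eq ▸ hx).2 h2
  classical
  set g : E → E := W.piecewise r id with hg
  have hgc : Continuous g := by
    refine continuous_piecewise ?_ hr1.continuousOn continuous_id.continuousOn
    intro x hx
    exact hr3 x (hfr hx)
  obtain ⟨x, hx⟩ := surjective_of_id_off_bounded hgc hb (fun x hx => by
    rw [hg, piecewise_eq_of_notMem _ _ _ hx]; rfl) z
  by_cases hxW : x ∈ W
  · rw [hg, piecewise_eq_of_mem _ _ _ hxW] at hx
    exact hz (hx ▸ hr2 x)
  · rw [hg, piecewise_eq_of_notMem _ _ _ hxW] at hx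
    exact hxW ((show x = z from hx) ▸ hzW)

/-- **(F3)** every bounded complementary component of a subset of a closed retract lies in it -/
theorem component_subset {A S : Set E} (hA : IsClosed A) (hr : IsRetr A) (hSA : S ⊆ A) {x : E}
    (hb : IsBounded (connectedComponentIn Sᶜ x)) : connectedComponentIn Sᶜ x ⊆ A := by
  intro z hz
  by_contra hzA
  have h1 : connectedComponentIn Aᶜ z ⊆ connectedComponentIn Sᶜ z :=
    connectedComponentIn_mono z (compl_subset_compl.2 hSA)
  rw [← connectedComponentIn_eq hz] at h1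
  exact not_isBounded_component hA hr hzA (hb.subset h1)

/-- variant of (F3) without components: a bounded open set with frontier in `A` is contained in `A` -/
theorem open_subset_of_frontier {A W : Set E} (hA : IsClosed A) (hr : IsRetr A) (hW : IsOpen W)
    (hb : IsBounded W) (hfr : frontier W ⊆ A) : W ⊆ A := by
  intro z hz
  by_contra hzA
  refine not_isBounded_component hA hr hzA (hb.subset ?_)
  -- the component of `z` in `Aᶜ` cannot leave `W`
  have hpre : IsPreconnected (connectedComponentIn Aᶜ z) := isPreconnected_connectedComponentIn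
  have hsub : connectedComponentIn Aᶜ z ⊆ W ∪ (closure W)ᶜ := by
    intro y hy
    by_cases h : y ∈ closure W
    · by_cases h' : y ∈ W
      · exact Or.inl h'
      · exact absurd (hfr (by rw [hW.frontier_eq]; exact ⟨h, h'⟩))
          (connectedComponentIn_subset _ _ hy)
    · exact Or.inr h
  refine hpre.subset_left_of_subset_union hW isClosed_closure.isOpen_compl ?_ hsub
    ⟨z, mem_connectedComponentIn hzA, hz⟩
  exact disjoint_compl_right.mono_left subset_closure

omit [FiniteDimensional ℝ E] in
/-- the complement of a ball is connected in dimension at least two -/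
theorem isConnected_compl_closedBall (hd : 1 < Module.rank ℝ E) {R : ℝ} (hR : 0 ≤ R) :
    IsConnected (closedBall (0 : E) R)ᶜ := by
  have h1 : IsConnected (Ioi R ×ˢ sphere (0 : E) 1) :=
    isConnected_Ioi.prod (isConnected_sphere hd 0 zero_le_one)
  have h2 := h1.image (fun q : ℝ × E => q.1 • q.2) (by fun_prop)
  convert h2 using 1
  ext x
  simp only [mem_compl_iff, mem_closedBall_zero_iff, not_le, mem_image, mem_prod, mem_Ioi,
    mem_sphere_zero_iff_norm, Prod.exists]
  constructor
  · intro hx
    have hx0 : 0 < ‖x‖ := hR.trans_lt hx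
    refine ⟨‖x‖, ‖x‖⁻¹ • x, ⟨hx, ?_⟩, ?_⟩
    · rw [norm_smul, norm_inv, norm_norm, inv_mul_cancel₀ hx0.ne']
    · rw [smul_smul, mul_inv_cancel₀ hx0.ne', one_smul]
  · rintro ⟨t, u, ⟨ht, hu⟩, rfl⟩
    rw [norm_smul, hu, mul_one, Real.norm_eq_abs]
    exact ht.trans_le (le_abs_self t)

/-- **(F2)** in dimension at least two the complement of a compact retract is connected -/
theorem isConnected_compl {A : Set E} (hA : IsCompact A) (hr : IsRetr A)
    (hd : 1 < Module.rank ℝ E) : IsConnected Aᶜ := by
  obtain ⟨R, hR⟩ := hA.isBounded.subset_closedBall (0 : E)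
  have hR' : A ⊆ closedBall (0 : E) |R| := hR.trans (closedBall_subset_closedBall (le_abs_self R))
  have hC : IsConnected (closedBall (0 : E) |R|)ᶜ := isConnected_compl_closedBall hd (abs_nonneg R)
  obtain ⟨x0, hx0⟩ := hC.nonempty
  have hCA : (closedBall (0 : E) |R|)ᶜ ⊆ Aᶜ := compl_subset_compl.2 hR'
  refine ⟨⟨x0, hCA hx0⟩, isPreconnected_of_forall x0 ?_⟩
  intro y hy
  refine ⟨connectedComponentIn Aᶜ y, connectedComponentIn_subset _ _, ?_,
    mem_connectedComponentIn hy, isPreconnected_connectedComponentIn⟩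
  have h1 := not_isBounded_component hA.isClosed hr hy
  have h2 : ¬ connectedComponentIn Aᶜ y ⊆ closedBall (0 : E) |R| := fun h =>
    h1 (isBounded_closedBall.subset h)
  obtain ⟨w, hw1, hw2⟩ := not_subset.1 h2
  have h3 := hC.isPreconnected.subset_connectedComponentIn hw2 hCA
  rw [connectedComponentIn_eq hw1]
  exact h3 hx0

/-- **(F4)** Jordan-Brouwer for the boundary of a closed retract: if `A` is a compact retract and
`A = U ∪ S`, `U` open and connected, disjoint from the closed set `S`, then the components of `Sᶜ`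
are `U` and `Aᶜ` (dimension at least two). -/
theorem component_eq_inside {A U S : Set E} (hA : IsCompact A) (hU : IsOpen U)
    (hUc : IsPreconnected U) (hUS : Disjoint U S) (hAU : A = U ∪ S) {x : E} (hx : x ∈ U) :
    connectedComponentIn Sᶜ x = U := by
  refine Subset.antisymm ?_ (hUc.subset_connectedComponentIn hx hUS.subset_compl_right)
  refine isPreconnected_connectedComponentIn.subset_left_of_subset_union hU
    hA.isClosed.isOpen_compl ?_ ?_
    ⟨x, mem_connectedComponentIn (hUS.subset_compl_right hx), hx⟩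
  · exact disjoint_compl_right.mono_left (hAU ▸ subset_union_left)
  · intro y hy
    have hyS := connectedComponentIn_subset _ _ hy
    by_cases h : y ∈ A
    · rw [hAU] at h
      exact Or.inl (h.resolve_right hyS)
    · exact Or.inr h

theorem component_eq_outside {A U S : Set E} (hA : IsCompact A) (hr : IsRetr A)
    (hd : 1 < Module.rank ℝ E) (hU : IsOpen U) (hAU : A = U ∪ S)
    {x : E} (hx : x ∉ A) : connectedComponentIn Sᶜ x = Aᶜ := by
  have hSA : S ⊆ A := hAU ▸ subset_union_right
  refine Subset.antisymm ?_ ((isConnected_compl hA hr hd).isPreconnected.subset_connectedComponentIn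
    hx (compl_subset_compl.2 hSA))
  refine isPreconnected_connectedComponentIn.subset_left_of_subset_union
    hA.isClosed.isOpen_compl hU ?_ ?_
    ⟨x, mem_connectedComponentIn (fun h => hx (hSA h)), hx⟩
  · exact (disjoint_compl_right.mono_left (hAU ▸ subset_union_left)).symm
  · intro y hy
    have hyS := connectedComponentIn_subset _ _ hy
    by_cases h : y ∈ A
    · rw [hAU] at h
      exact Or.inr (h.resolve_right hyS)
    · exact Or.inl h

/-! ### homeomorphisms -/

/-- `f⁻¹ D ∩ Ω` written as the image of `D` under the inverse `g`. -/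
theorem isRetr_image {D : Set F} (hD : IsCompact D) (hDc : Convex ℝ D) (hDn : D.Nonempty)
    {f : E → F} {g : F → E} (hg : ContinuousOn g D) (hf : ContinuousOn f (g '' D))
    (hfg : ∀ y ∈ D, f (g y) = y) : IsCompact (g '' D) ∧ IsRetr (g '' D) := by
  have h1 : IsCompact (g '' D) := hD.image_of_continuousOn hg
  refine ⟨h1, IsRetr.of_maps h1.isClosed (IsRetr.of_convex hDn hD.isClosed hDc) (f := f) (g := g)
    hf ?_ hg (mapsTo_image g D) ?_⟩
  · rintro _ ⟨y, hy, rfl⟩
    rw [hfg y hy]; exact hy
  · rintro _ ⟨y, hy, rfl⟩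
    rw [hfg y hy]

/-- **(F3)** for compact sets given by their frontier -/
theorem subset_of_frontier {A K : Set E} (hA : IsClosed A) (hr : IsRetr A) (hK : IsCompact K)
    (hfr : frontier K ⊆ A) : K ⊆ A := by
  have h1 : interior K ⊆ A := open_subset_of_frontier hA hr isOpen_interior
    (hK.isBounded.subset interior_subset) (frontier_interior_subset.trans hfr)
  intro x hx
  by_cases h : x ∈ interior K
  · exact h1 h
  · exact hfr ⟨subset_closure hx, h⟩

open Crest.AnalysisR.VecCalc3 Crest.AnalysisR.Sobolev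

theorem one_lt_rank_R3 : 1 < Module.rank ℝ R3 := by
  rw [← Module.finrank_eq_rank, finrank_euclideanSpace_fin]
  norm_num

/-- `Ω ∩ f⁻¹ D` is compact and a retract, for `D ⊆ Λ` compact convex -/
theorem isRetr_preimage {f : R3 → R3} {Om La : Set R3} (hf : IsHomeomorphOn f Om La) {D : Set R3}
    (hD : IsCompact D) (hDc : Convex ℝ D) (hDn : D.Nonempty) (hDL : D ⊆ La) :
    IsCompact (Om ∩ f ⁻¹' D) ∧ IsRetr (Om ∩ f ⁻¹' D) := by
  obtain ⟨g, h1, h2, h3, h4, h5, h6⟩ := hf
  have he : Om ∩ f ⁻¹' D = g '' D := by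
    ext x
    constructor
    · rintro ⟨hx, hxD⟩
      exact ⟨f x, hxD, h3 x hx⟩
    · rintro ⟨y, hy, rfl⟩
      refine ⟨h2 (hDL hy), ?_⟩
      show f (g y) ∈ D
      rw [h4 y (hDL hy)]; exact hy
  rw [he]
  refine isRetr_image hD hDc hDn (f := f) (h6.mono hDL) (h5.mono ?_) (fun y hy => h4 y (hDL hy))
  rintro _ ⟨y, hy, rfl⟩
  exact h2 (hDL hy)

/-- **FILL** (components): the bounded complementary components of `S ⊆ f⁻¹ D` lie in `f⁻¹ D ⊆ Ω` -/
theorem component_subset_preimage {f : R3 → R3} {Om La : Set R3} (hf : IsHomeomorphOn f Om La)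
    {D : Set R3} (hD : IsCompact D) (hDc : Convex ℝ D) (hDn : D.Nonempty) (hDL : D ⊆ La)
    {S : Set R3} (hS : S ⊆ Om ∩ f ⁻¹' D) {x : R3} (hb : IsBounded (connectedComponentIn Sᶜ x)) :
    connectedComponentIn Sᶜ x ⊆ Om ∩ f ⁻¹' D := by
  obtain ⟨h1, h2⟩ := isRetr_preimage hf hD hDc hDn hDL
  exact component_subset h1.isClosed h2 hS hb

/-- **FILL** (compact sets): a compact set with frontier in `f⁻¹ D` lies in `f⁻¹ D ⊆ Ω` -/
theorem subset_preimage_of_frontier {f : R3 → R3} {Om La : Set R3} (hf : IsHomeomorphOn f Om La)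
    {D : Set R3} (hD : IsCompact D) (hDc : Convex ℝ D) (hDn : D.Nonempty) (hDL : D ⊆ La)
    {K : Set R3} (hK : IsCompact K) (hfr : frontier K ⊆ Om ∩ f ⁻¹' D) : K ⊆ Om ∩ f ⁻¹' D := by
  obtain ⟨h1, h2⟩ := isRetr_preimage hf hD hDc hDn hDL
  exact subset_of_frontier h1.isClosed h2 hK hfr

/-- **Jordan-Brouwer** for `f⁻¹ (frontier D)`, inside -/
theorem component_inside {f : R3 → R3} {Om La : Set R3} (hOm : IsOpen Om)
    (hf : IsHomeomorphOn f Om La) {D : Set R3}
    (hD : IsCompact D) (hDc : Convex ℝ D) (hDn : D.Nonempty) (hDL : D ⊆ La)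
    {x : R3} (hx : x ∈ Om) (hxD : f x ∈ interior D) :
    connectedComponentIn (Om ∩ f ⁻¹' frontier D)ᶜ x = Om ∩ f ⁻¹' interior D := by
  obtain ⟨h1, -⟩ := isRetr_preimage hf hD hDc hDn hDL
  obtain ⟨g, a1, a2, a3, a4, a5, a6⟩ := hf
  have he : Om ∩ f ⁻¹' interior D = g '' interior D := by
    ext x
    constructor
    · rintro ⟨hx, hxD⟩
      exact ⟨f x, hxD, a3 x hx⟩
    · rintro ⟨y, hy, rfl⟩
      refine ⟨a2 (hDL (interior_subset hy)), ?_⟩
      show f (g y) ∈ interior D
      rw [a4 y (hDL (interior_subset hy))]; exact hy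
  refine component_eq_inside (A := Om ∩ f ⁻¹' D) h1 (a5.isOpen_inter_preimage hOm isOpen_interior)
    ?_ ?_ ?_ ⟨hx, hxD⟩
  · rw [he]
    exact hDc.interior.isPreconnected.image _ (a6.mono (interior_subset.trans hDL))
  · rw [Set.disjoint_left]
    rintro y ⟨-, hy⟩ ⟨-, hy'⟩
    exact hy'.2 hy
  · rw [← inter_union_distrib_left, ← preimage_union, ← closure_eq_interior_union_frontier,
      hD.isClosed.closure_eq]

/-- **Jordan-Brouwer** for `f⁻¹ (frontier D)`, outside -/
theorem component_outside {f : R3 → R3} {Om La : Set R3} (hOm : IsOpen Om)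
    (hf : IsHomeomorphOn f Om La) {D : Set R3}
    (hD : IsCompact D) (hDc : Convex ℝ D) (hDn : D.Nonempty) (hDL : D ⊆ La)
    {x : R3} (hx : x ∉ Om ∩ f ⁻¹' D) :
    connectedComponentIn (Om ∩ f ⁻¹' frontier D)ᶜ x = (Om ∩ f ⁻¹' D)ᶜ := by
  obtain ⟨h1, h2⟩ := isRetr_preimage hf hD hDc hDn hDL
  obtain ⟨g, a1, a2, a3, a4, a5, a6⟩ := hf
  refine component_eq_outside (U := Om ∩ f ⁻¹' interior D) h1 h2 one_lt_rank_R3
    (a5.isOpen_inter_preimage hOm isOpen_interior) ?_ hx
  rw [← inter_union_distrib_left, ← preimage_union, ← closure_eq_interior_union_frontier,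
    hD.isClosed.closure_eq]

/-- the complement of `f⁻¹ D` is connected -/
theorem isConnected_compl_preimage {f : R3 → R3} {Om La : Set R3}
    (hf : IsHomeomorphOn f Om La) {D : Set R3}
    (hD : IsCompact D) (hDc : Convex ℝ D) (hDn : D.Nonempty) (hDL : D ⊆ La) :
    IsConnected (Om ∩ f ⁻¹' D)ᶜ := by
  obtain ⟨h1, h2⟩ := isRetr_preimage hf hD hDc hDn hDL
  exact isConnected_compl h1 h2 one_lt_rank_R3

end Crest.Agent.R096.Fill_955
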