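import Crest.Agent.R096.Fin10_147
import Crest.Agent.R096.Crb2_609

/-!
# R096 (row 96), bottom assembly, part 11 (helper147): the whole back half

* `core_lay` : the block `core` of `front_out` over the final state (609's `core_block`);
* `front_any` : `front_out` for any output of the mesh;
* `back_out` : from the seam `Lay` + `Front` (337) and the numbers to the structure map.
-/

set_option autoImplicit false
set_option linter.unusedSectionVars false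
set_option linter.unusedVariables false
set_option linter.style.longLine false

open Set Filter Topology Metric Module MeasureTheory Relation
open scoped ENNReal

namespace Crest.Agent.R096.Fin_147

open Crest.Agent.R096.Ce_537 (PLOn PLEquiv cube sph IsBall Cplx)
open Crest.Agent.R096.Bd_416 Crest.Agent.R096.Grd_714 Crest.Agent.R096.Mg_441
open Crest.Agent.R096.Xp_537 Crest.Agent.R096.Bin_181
open Crest.Agent.R096.Ar_241 (Tr0 TopC Exact cod SheetData)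
open Crest.Agent.R096.Shp_334 (OnMesh Bls)
open Crest.Agent.R096.Brk1_582 Crest.Agent.R096.Brk2_582 Crest.Agent.R096.Brk3_582
open Crest.Agent.R096.Brk5_582 Crest.Agent.R096.Brk6_582
open Crest.Agent.R096.Bsp_628
open Crest.Agent.R096.SkC1_961 (E3 Hom3 FoamD Cfg th NN)
open Crest.Agent.R096.Msh_715 Crest.Agent.R096.Nr_527 Crest.Agent.R096.Oa_527
open Crest.Agent.R096.Mbf_337 (KJ sb gau)
open Crest.Agent.R096.St_147 Crest.Agent.R096.Seq_213 Crest.Agent.R096.Seq_213.GSt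
  Crest.Agent.R096.Lm_117 Crest.Agent.R096.Ac_117 Crest.Agent.R096.Agl5_543
  Crest.Agent.R096.Ori_543 Crest.Agent.R096.Gm_298
  Crest.Agent.R096.Cp_298 Crest.Agent.R096.Gl_422 Crest.Agent.R096.SkB_662
open Crest.Agent.R096.Fl_835 (wk)
open Crest.Agent.R96.Nu7_199 (WE)
open Crest.Agent.R096.Mno_534 (FinG)
open Crest.Agent.R096.Init_543 (JJ fr3)
open Crest.Agent.R096.Frn_337 (Ti Lay Front Kcs pO Lp pO_ne cti rel_p)
open Crest.Agent.R096.Ecm_446 (nr sto_inj sto_lt sto_sur)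
open Crest.Agent.R096.Mfr_487 (Xc_Lp hKJ_Lp hKc_Lp hKX_Lp)
open Crest.Agent.R096.On_441 (Lf xlf)
open Crest.Agent.R096.Ecm_446 (Nod NNt Full Dk OnT CoresR gbR exists_dk dk_sub_frontier)
open Crest.Agent.R096.Onb_63 (kp)
open Crest.Agent.R096.Csub_487 (CU CU_nonneg)

variable {δ κ0 R c0 : ℝ} {La Om : Set E3} {ι : Type} {Φ : FoamD δ κ0 R c0 La} {T : Tiling Om ι}
  {f : E3 → E3} {κ1 κ2 : ℝ} {X : Set Φ.F} {J0 Jt V : Φ.F → Set ι} {ct : Φ.F → ι}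
  {A : Φ.F → E3 ≃ᵃ[ℝ] E3} {lam : Φ.F → ℝ} {z : Φ.F → E3} {θ : Φ.F → E3 → E3} {φ : Φ.F → E3 → ℝ}
  {Mm : Φ.F → ℕ} {ι3 : Type} {T3 : Tiling Om ι3} {KK : Ti X → Set E3} {c3 : ι → ι3}
  [Nonempty T3.Cell] {hH : ∀ k, CoreH T3 (KK k)}
  {hdis : ∀ k k', k ≠ k' → Disjoint (KK k) (KK k')} {hne : ∃ c, OutK T3 KK c}
  {Lv : Φ.F → Finset ℝ} {Qd : Quads (ι3 ⊕ Ti X) Φ.F (Init_543.QK (Pc Φ.F))}
  {s₀ : GSt (mK fr3 hH hdis) (fun j : JJ Φ Lv => j.1)} {far₀ : JJ Φ Lv → Set E3}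
  {Gc : Φ.F → Set E3} {Zc : Φ.F → Set (QK (belK T3 KK))}
  {lam₀ : JJ Φ Lv → QK (belK T3 KK) → ZMod 2} {v₀ v₁ : Φ.F → QK (belK T3 KK)}
  {κw : Φ.F → ℕ} {hfin : ∀ a, {j : JJ Φ Lv | j.1 = a}.Finite} {kap : Φ.F → ℕ}
  {s : GSt (mK fr3 hH hdis) (fam' (fun j : JJ Φ Lv => j.1) (Rk κw kap))}
  {far : Nm' (fun j : JJ Φ Lv => j.1) (Rk κw kap) → Set E3} {β : E3 → E3}
  {lmf : Nm' (fun j : JJ Φ Lv => j.1) (Rk κw kap) →
    {c : QK (belK T3 KK) // pO T3 KK c3 ct c} → ZMod 2}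

/-- **the block `core`** over the seam, from the nodes and the values of the mesh on the boundaries
of the exact cores -/
theorem core_lay (hLa : IsOpen La) (hδ : 0 < δ) (hR : 0 < R)
    (hC : Mbf_337.Cores Φ T f κ1 κ2 X J0 Jt V ct A lam z θ φ) (hL : Lay Φ T X J0 Jt T3 KK c3)
    (h : StO (Lp c3 ct hH hdis hne) (oriK fr3 hH hdis) (fun c => tauK T3 KK c.1) (RelM T3)
      (lmK fr3 hH hdis hne).W1 Qd κw s₀ far₀ (fun c => {v | v.1 ∈ Zc c})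
      (fun j v => lam₀ j v.1) (fun c => sv (pO T3 KK c3 ct) (pO_ne hne) (v₀ c))
      (fun c => sv (pO T3 KK c3 ct) (pO_ne hne) (v₁ c)) hfin kap s far β lmf)
    (hnp : ∀ c : Φ.F, (Pc Φ.F c).Nonempty) (hm : ∀ a, 0 < mm (fin_copies (Rk κw kap) hfin) a)
    {κb : ℝ} {n : Φ.F → Φ.F → ℕ → ℝ}
    (HR : CoresR Φ T3 f κ1 κ2 (Lp c3 ct hH hdis hne) (kp T3 KK c3 ct) Qd κw s₀
      (fun c => {v | v.1 ∈ Zc c}) (fun j v => lam₀ j v.1)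
      (fun c => sv (pO T3 KK c3 ct) (pO_ne hne) (v₀ c)) kap X (fun c => c3 (ct c)) A lam z Mm
      (fun j => j.2.1) κb n hfin)
    {sg κf : ℝ} (hs : 0 < sg) (hs1 : sg < 1) (hκf : 0 < κf) (hκs : 2 * κf ≤ sg)
    (hN : ∀ c ∈ X, Crb_609.NodeOK Φ (mm (fin_copies (Rk κw kap) hfin)) sg c (Mm c) (n c))
    {bt : ℕ → ℝ} {g0 Gf : Gd E3 (Nm' (fun j : JJ Φ Lv => j.1) (Rk κw kap))}
    (hcr : ∀ c : X, ∀ x ∈ frontier (Kcs T KK ct c),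
      EqAt (gbR hLa hnp hm (fun a => .top a) (nr (Lp c3 ct hH hdis hne) s lmf h.fin1) HR c) g0 x ∧
        EqAt (sqs g0 bt 4) Gf x) :
    ∃ Rr : Φ.F → E3 → E3,
      (∀ a ∈ X, ∃ (U : PLEquiv (Kcs T KK ct a) (Pc Φ.F a))
        (e : PLEquiv (frontier (Kcs T KK ct a)) (bdP (Pc Φ.F) (bc (F := Φ.F))
          (mm (fin_copies (Rk κw kap) hfin)) a)),
        (∀ x ∈ Kcs T KK ct a, U.f x = Rr a (th (A a) (lam a) (z a) x)) ∧
        (∀ x ∈ Kcs T KK ct a, x ∈ frontier (Kcs T KK ct a) ↔ U.f x ∈ bdP (Pc Φ.F) (bc (F := Φ.F))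
          (mm (fin_copies (Rk κw kap) hfin)) a) ∧
        (∀ x ∈ frontier (Kcs T KK ct a), e.f x = U.f x) ∧
        (∀ y ∈ bdP (Pc Φ.F) (bc (F := Φ.F))
          (mm (fin_copies (Rk κw kap) hfin)) a, e.g y = U.g y) ∧
        (∀ x ∈ frontier (Kcs T KK ct a),
          EqAt (ekS (gr Φ hLa hnp hm) (bc (F := Φ.F)) κb (.top a) h.cmb.fam
            (nr (Lp c3 ct hH hdis hne) s lmf h.fin1) e) g0 x) ∧
        (∀ x ∈ frontier (Kcs T KK ct a), EqAt (sqs g0 bt 4) Gf x) ∧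
        ∀ x ∈ frontier (Kcs T KK ct a), ∃ q : {c : QK (belK T3 KK) // pO T3 KK c3 ct c},
          x ∈ setK T3 KK q.1 ∧ setK T3 KK q.1 ⊆ frontier (Kcs T KK ct a) ∧
            IsClosed (setK T3 KK q.1)) ∧
      (∀ a ∈ X, ∀ y ∈ a.1.set, ∀ y' ∈ a.1.set,
        ‖st (gr Φ hLa hnp hm) κf (Rr a y) - st (gr Φ hLa hnp hm) κf (Rr a y')‖ ≤
          Rpk_714.Spk δ κ0 R * ‖y - y'‖) ∧
      (∀ a ∈ X, ∀ u ∈ interior a.1.set,
        Rr a ((1 - sg) • u + sg • (gr Φ hLa hnp hm).b (.top a)) =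
          (1 - sg) • u + sg • (gr Φ hLa hnp hm).b (.top a)) := by
  have hKc : ∀ a ∈ X, Kcs T KK ct a = P (T3.H (c3 (ct a))) := fun a ha => by
    rw [hKX_Lp a ha, Onb_63.keep_ct hL hC ha]
  have hset : ∀ q : {c : QK (belK T3 KK) // pO T3 KK c3 ct c},
      setK T3 KK q.1 = (kp T3 KK c3 ct q).set := fun q => Cpo_642.celK_set _ q
  refine Crb_609.core_block (Tl := T3) (ct := fun c => c3 (ct c)) (f := f) (κ1 := κ1) (κ2 := κ2)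
    hLa hδ hR HR.ex hm hnp hs hs1 hκf hκs hN hKc
    (K := fun q : {c : QK (belK T3 KK) // pO T3 KK c3 ct c} => setK T3 KK q.1)
    (D := fun a => Dk (c3 (ct a)) (kp T3 KK c3 ct)) ?_ ?_ ?_ ?_
  · intro a ha x hx
    obtain ⟨q, hq, hxq⟩ := exists_dk (HR.st a ha).full hx
    exact ⟨q, hq, by rw [hset]; exact hxq⟩
  · intro a ha q hq
    show setK T3 KK q.1 ⊆ _ ∧ IsClosed (setK T3 KK q.1)
    rw [hset]
    exact ⟨dk_sub_frontier hq, by rw [(kp T3 KK c3 ct q).set_eq]; exact T3.isClosed_cc _⟩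
  · intro a ha q hq x hx
    have hx' : x ∈ frontier (Kcs T KK ct a) := by
      rw [hKc a ha]
      refine dk_sub_frontier hq ?_
      rw [← hset]; exact hx
    exact (hcr ⟨a, ha⟩ x hx').1
  · intro a ha q hq x hx
    have hx' : x ∈ frontier (Kcs T KK ct a) := by
      rw [hKc a ha]
      refine dk_sub_frontier hq ?_
      rw [← hset]; exact hx
    exact (hcr ⟨a, ha⟩ x hx').2

set_option maxHeartbeats 1000000 in
/-- **FRONT -> BACK for any output of the mesh**: `Inv`, `MGeo`, the clause `tile` with any constant,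
446's base `gbR` and the squeeze on the boundaries of the exact cores -/
theorem front_any (hOm : IsOpen Om) (hLa : IsOpen La) (hf : Hom3 f Om La) (hδ : 0 < δ) (hR : 0 < R)
    (hs : Small δ κ0 R κ1 κ2)
    (hC : Mbf_337.Cores Φ T f κ1 κ2 X J0 Jt V ct A lam z θ φ)
    (hF : Mbf_337.Fine Φ T f κ1 J0) (hL : Lay Φ T X J0 Jt T3 KK c3)
    (hFr : Front T f J0 Jt V ct c3 hH hdis hne Qd s₀ far₀ Gc Zc lam₀ v₀ v₁)
    {κp μ κ3 : ℝ} {Zx : Φ.F → Set ℝ} {m0 : Φ.F → ℕ} (h3 : 0 ≤ κ3)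
    (hLv : Mbf_337.Levels Φ T f κp μ κ3 Zx m0 κw Lv)
    (h : StO (Lp c3 ct hH hdis hne) (oriK fr3 hH hdis) (fun c => tauK T3 KK c.1) (RelM T3)
      (lmK fr3 hH hdis hne).W1 Qd κw s₀ far₀ (fun c => {v | v.1 ∈ Zc c})
      (fun j v => lam₀ j v.1) (fun c => sv (pO T3 KK c3 ct) (pO_ne hne) (v₀ c))
      (fun c => sv (pO T3 KK c3 ct) (pO_ne hne) (v₁ c)) hfin kap s far β lmf)
    (hnp : ∀ c : Φ.F, (Pc Φ.F c).Nonempty) (hm : ∀ a, 0 < mm h.fin1 a)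
    {κb : ℝ} (hκb : 0 < κb ∧ κb < 1) {n : Φ.F → Φ.F → ℕ → ℝ}
    (HR : CoresR Φ T3 f κ1 κ2 (Lp c3 ct hH hdis hne) (kp T3 KK c3 ct) Qd κw s₀
      (fun c => {v | v.1 ∈ Zc c}) (fun j v => lam₀ j v.1)
      (fun c => sv (pO T3 KK c3 ct) (pO_ne hne) (v₀ c)) kap X (fun c => c3 (ct c)) A lam z Mm
      (fun j => j.2.1) κb n hfin)
    {sg : ℝ} (hN : ∀ c ∈ X, Crb_609.NodeOK Φ (mm h.fin1) sg c (Mm c) (n c))
    -- the mesh
    {Gf : Gd E3 (Nm' (fun j : JJ Φ Lv => j.1) (Rk κw kap))} {Pp : ∀ q, h.cmb.I q → Set E3}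
    {cc : ∀ q, h.cmb.I q → E3 → ℝ} (H : Inv h.cmb (fun q => setK T3 KK q.1) univ Gf Pp cc)
    (MG : Mi_117.MGeo h.lfs (Lf lmf) (xlf h.lab.lab) (fun q => setK T3 KK q.1)
      (⋃ c : X, Dk (c3 (ct c)) (kp T3 KK c3 ct)) cc)
    {Ck Cs : Set (Set E3) → ℝ} (hCk : ∀ 𝒦, 0 ≤ Ck 𝒦) (hCs : ∀ 𝒦, 2 * R * κ3 * Ck 𝒦 ≤ Cs 𝒦)
    (tile : ∀ i, (∀ c, i ∉ V c) → ∃ q : {c : QK (belK T3 KK) // pO T3 KK c3 ct c},
      setK T3 KK q.1 = P (T.H i) ∧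
      (∀ e, e < q → dimK (belK T3 KK) (fun c => c.1.dim) e.1 = 1 →
        (Lp c3 ct hH hdis hne).toSk.On1 e ⊆ {y | y ∈ P (T.H i) ∧ T.dim y ≤ 1}) ∧
      ∀ (B : E3 ≃ᵃ[ℝ] E3) (x : h.cmb.I q), ∀ y ∈ setK T3 KK q.1,
        LB B (Ck ((fun K => B '' K) '' Cfg T i) *
          WE (Xc_Lp hC hL) h.cmb (wk κw kap (fun j : JJ Φ Lv => j.1)) q /
          wk κw kap (fun j : JJ Φ Lv => j.1) (h.cmb.col q x)) (cc q x) (setK T3 KK q.1) y)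
    {bt : ℕ → ℝ} (hb0 : ∀ n, 0 < bt n) (hb2 : ∀ n, bt n < 1/2)
    {g0 : Gd E3 (Nm' (fun j : JJ Φ Lv => j.1) (Rk κw kap))}
    (hcr : ∀ c : X, ∀ x ∈ frontier (Kcs T KK ct c),
      EqAt (gbR hLa hnp hm (fun a => .top a) (nr (Lp c3 ct hH hdis hne) s lmf h.fin1) HR c) g0 x ∧
        EqAt (sqs g0 bt 4) Gf x)
    -- numbers
    {κf : ℝ} (hκf : κf = 1 - (1 - κb) * bet bt 4)
    {e : ℝ} (hs0 : 0 < sg) (hs1 : sg < 1) (hκs : 2 * κf ≤ sg) (he1 : 3 * sg ≤ e)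
    (he2 : κf / (1 - κf) < e) {C0 : ℝ} (hC0 : Rpk_714.Spk δ κ0 R < C0) :
    ∃ (Rr : Φ.F → E3 → E3) (G : E3 → E3),
      FinG Φ T f J0 V X (fun q : {c : QK (belK T3 KK) // pO T3 KK c3 ct c} =>
        setK T3 KK q.1) (gG (Tq (bc (F := Φ.F)) (mm h.fin1)) (merge h.fin1 Gf)) (Kcs T KK ct)
      (fun a x => st (gr Φ hLa hnp hm) κf (Rr a (th (A a) (lam a) (z a) x))) G ∧
      GOut C0 Cs e Φ T f X J0 V ct A lam κw Lv G := by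
  have hκf1 : 0 < κf ∧ κf < 1 := by
    rw [hκf]; exact Xr_537.kf_pos hκb (bet_pos hb0 4) (bet_le hb0 hb2 4)
  obtain ⟨Rr, core, hS, hRr⟩ := core_lay hLa hδ hR hC hL h hnp hm HR hs0 hs1 hκf1.1 hκs hN hcr
  obtain ⟨G, hG⟩ := front_out hOm hLa hf hs hC hF hL hFr hR.le h3 hLv h hm H
    (Rb := ⋃ c : X, Dk (c3 (ct c)) (kp T3 KK c3 ct)) (by
      intro q hq
      obtain ⟨c, hc⟩ := mem_iUnion.1 hq
      rw [Cpo_642.celK_dim]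
      exact hc.2) MG hnp hCk hCs tile hκb hb0 hb2 hκf Rr core hC0 hS
    (by linarith [hκf1.1]) hs1 he1 he2 hRr
  exact ⟨Rr, G, hG⟩

set_option maxHeartbeats 1000000 in
/-- **THE BACK HALF**: from the seam to the structure map -/
theorem back_out (hOm : IsOpen Om) (hLa : IsOpen La) (hf : Hom3 f Om La) (hδ : 0 < δ) (hR : 0 < R)
    (hs : Small δ κ0 R κ1 κ2)
    (hC : Mbf_337.Cores Φ T f κ1 κ2 X J0 Jt V ct A lam z θ φ)
    (hF : Mbf_337.Fine Φ T f κ1 J0) (hL : Lay Φ T X J0 Jt T3 KK c3)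
    (hFr : Front T f J0 Jt V ct c3 hH hdis hne Qd s₀ far₀ Gc Zc lam₀ v₀ v₁)
    {κp μ κ3 : ℝ} {Zx : Φ.F → Set ℝ} {m0 : Φ.F → ℕ} (h3 : 0 ≤ κ3) (hκp : 0 ≤ κp) (hμ : 0 < μ)
    (hLv : Mbf_337.Levels Φ T f κp μ κ3 Zx m0 κw Lv)
    (hW : Mbf_337.Words Φ T f X ct A lam z Mm Lv)
    -- numbers
    {κb : ℝ} (hκb : 0 < κb) (hκb2 : κb ≤ 1/2) {bt : ℕ → ℝ} (hb4 : ∀ n, 1/4 ≤ bt n)
    (hb2 : ∀ n, bt n < 1/2) {κf : ℝ} (hκf : κf = 1 - (1 - κb) * bet bt 4)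
    {sg e : ℝ} (hs0 : 0 < sg) (hs1 : sg < 1) (hκs : 2 * κf ≤ sg) (he1 : 3 * sg ≤ e)
    (he2 : κf / (1 - κf) < e) (hκps : κp ≤ sg / 4)
    (hm0 : ∀ c ∈ X, ∀ a, (Pc Φ.F a ∩ Pc Φ.F c).Nonempty → Mm c ≤ m0 a ∧ 8 / sg ≤ m0 a)
    {C0 : ℝ} (hC0 : Rpk_714.Spk δ κ0 R < C0) {Cs : Set (Set E3) → ℝ}
    (hCs : ∀ 𝒦, 2 * R * κ3 * (2 * CU (Mi_117.KbR δ R) 3 𝒦) ≤ Cs 𝒦) :
    ∃ G : E3 → E3, GOut C0 Cs e Φ T f X J0 V ct A lam κw Lv G := by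
  have hb0 : ∀ n, 0 < bt n := fun n => lt_of_lt_of_le (by norm_num) (hb4 n)
  have hκb1 : 0 < κb ∧ κb < 1 := ⟨hκb, by linarith⟩
  have hi := hFr.stI hLv.lf
  obtain ⟨kap, s, far, β, lmf, h⟩ := exists_out hi
  have hm : ∀ a, 0 < mm h.fin1 a := mm_pos_final h hLv h.fin1
  have hnp : ∀ c : Φ.F, (Pc Φ.F c).Nonempty := ne_Pc
  obtain ⟨n, HR, hN⟩ := Onb_63.Front.coresR_nodeOK hLa hL hC hW hLv hμ hFr hi.finJ kap hκb
    (by linarith) hκp hs0 hs1 hκps hm0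
  obtain ⟨Gf, Pp, cc, g0, H, MG, tile, hcr⟩ := Mi_117.mesh_lay hLa hδ hR hL hC hFr hLv.lf h hnp hm
    (fun j => by
      have := (hLv.marg _ _ j.2.2).2
      linarith) ⟨hκb, hκb2⟩ HR hb4 hb2 (ε := 1/2) (by norm_num) le_rfl
  obtain ⟨-, G, -, hG⟩ := front_any hOm hLa hf hδ hR hs hC hF hL hFr h3 hLv h hnp hm hκb1 HR hN H MG
    (Ck := fun 𝒦 => 2 * CU (Mi_117.KbR δ R) 3 𝒦)
    (fun 𝒦 => mul_nonneg zero_le_two (CU_nonneg (Mi_117.KbR_nonneg hδ hR) _ _))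
    hCs tile hb0 hb2 (fun c x hx => ⟨(hcr c x hx).1, (hcr c x hx).2.1⟩) hκf hs0 hs1 hκs he1 he2 hC0
  exact ⟨G, hG⟩

end Crest.Agent.R096.Fin_147
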