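import Crest.Agent.R096.Ar9_241
import Crest.Agent.R096.Xq6_537

/-!
# R096 (row 96), EXPLODE, part q7 (helper537)

`Pcs`: a locally finite family of closed pieces with local transport structures (`TrnOn`) which
agree on the overlaps, and a properness bound.  `Pcs.tr0` = the global structure (`Tr0`, helper241).
`Mach` = mesh pieces and exact cores; `Mach.exact` = 241's `Exact`.
-/

set_option autoImplicit false
set_option linter.unusedSectionVars false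
set_option linter.unusedVariables false
set_option linter.deprecated false

open Set Topology
open scoped NNReal

namespace Crest.Agent.R096.Xp_537

open Crest.Agent.R096.Ce_537 (PLOn PLEquiv cube sph IsBall LocPL)
open Crest.Agent.R096.Ar_241 (Tr0 TopC Exact)

variable {E E' : Type*} [NormedAddCommGroup E] [NormedSpace ℝ E]
  [NormedAddCommGroup E'] [NormedSpace ℝ E']
  {Q : Type*} [PartialOrder Q] {Λ : Set E} {ι : Type*}

/-- **pieces of a transport structure** -/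
structure Pcs (Ω : Set E') (C : CC Λ Q) (Z : ι → Set E') (G : ι → E' → E)
    (top : ι → E' → Q) (tr : ι → E' → E → E') : Prop where
  closed : ∀ i, IsClosed (Z i)
  sub : ∀ i, Z i ⊆ Ω
  cov : ∀ x ∈ Ω, ∃ i, x ∈ Z i
  on : ∀ i, TrnOn (Z i) C (G i) (top i) (tr i)
  cont : ∀ i, ContinuousOn (G i) (Z i)
  agG : ∀ i j, ∀ x ∈ Z i, x ∈ Z j → G i x = G j x
  agT : ∀ i j, ∀ x ∈ Z i, x ∈ Z j → top i x = top j x
  agt : ∀ i j, ∀ x ∈ Z i, x ∈ Z j → ∀ t ∈ C.cell (top i x), tr i x t = tr j x t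
  lf : ∀ x ∈ Ω, ∃ U ∈ 𝓝 x, {i | (Z i ∩ U).Nonempty}.Finite
  prop : ∀ q, ∃ A ⊆ Ω, IsCompact A ∧ ∀ i, ∀ x ∈ Z i, G i x ∈ C.cell q → x ∈ A

open Classical in
/-- a piece which contains the point -/
noncomputable def idx [Nonempty ι] (Z : ι → Set E') (x : E') : ι :=
  if h : ∃ i, x ∈ Z i then h.choose else Classical.arbitrary ι

lemma idx_spec [Nonempty ι] {Z : ι → Set E'} {x : E'} (h : ∃ i, x ∈ Z i) : x ∈ Z (idx Z x) := by
  unfold idx; rw [dif_pos h]; exact h.choose_spec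

/-- the glued map -/
noncomputable def gluG [Nonempty ι] (Z : ι → Set E') (G : ι → E' → E) (x : E') : E :=
  G (idx Z x) x

/-- the glued top cell -/
noncomputable def gluT [Nonempty ι] (Z : ι → Set E') (top : ι → E' → Q) (x : E') : Q :=
  top (idx Z x) x

/-- the glued transport -/
noncomputable def glut [Nonempty ι] (Z : ι → Set E') (tr : ι → E' → E → E') (x : E') (t : E) :
    E' := tr (idx Z x) x t

namespace Pcs

variable [Nonempty ι] {Ω : Set E'} {C : CC Λ Q} {Z : ι → Set E'} {G : ι → E' → E}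
  {top : ι → E' → Q} {tr : ι → E' → E → E'} (h : Pcs Ω C Z G top tr)
include h

lemma G_eq {i : ι} {x : E'} (hx : x ∈ Z i) : gluG Z G x = G i x :=
  h.agG _ _ x (idx_spec ⟨i, hx⟩) hx

lemma top_eq {i : ι} {x : E'} (hx : x ∈ Z i) : gluT Z top x = top i x :=
  h.agT _ _ x (idx_spec ⟨i, hx⟩) hx

lemma tr_eq {i : ι} {x : E'} (hx : x ∈ Z i) {t : E} (ht : t ∈ C.cell (top i x)) :
    glut Z tr x t = tr i x t :=
  (h.agt i _ x hx (idx_spec ⟨i, hx⟩) t ht).symm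

lemma on' (i : ι) : TrnOn (Z i) C (gluG Z G) (gluT Z top) (glut Z tr) :=
  (h.on i).congr (fun x hx => h.G_eq hx) (fun x hx => h.top_eq hx)
    (fun x hx t ht => h.tr_eq hx ht)

lemma G_mem {x : E'} (hx : x ∈ Ω) : gluG Z G x ∈ C.cell (gluT Z top x) := by
  obtain ⟨i, hi⟩ := h.cov x hx
  exact (h.on' i).G_mem x hi

lemma mapsTo : MapsTo (gluG Z G) Ω Λ := fun x hx => C.sub _ (h.G_mem hx)

lemma lf_cpt {A : Set E'} (hA : IsCompact A) (hs : A ⊆ Ω) :
    {i | (Z i ∩ A).Nonempty}.Finite := by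
  choose! U hU hf using h.lf
  obtain ⟨t, ht, hcov⟩ := hA.elim_nhds_subcover U (fun x hx => hU x (hs hx))
  refine (t.finite_toSet.biUnion (fun x hx => hf x (hs (ht x hx)))).subset ?_
  rintro i ⟨x, hxi, hxA⟩
  obtain ⟨y, hy, hxy⟩ := mem_iUnion₂.1 (hcov hxA)
  exact mem_biUnion hy ⟨x, hxi, hxy⟩

/-- finitely many pieces over a cell -/
lemma fin (q : Q) : {i | (Z i ∩ {x | gluG Z G x ∈ C.cell q}).Nonempty}.Finite := by
  obtain ⟨A, hA, hc, hp⟩ := h.prop q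
  refine (h.lf_cpt hc hA).subset ?_
  rintro i ⟨x, hx, hxq⟩
  refine ⟨x, hx, hp i x hx ?_⟩
  rw [← h.G_eq hx]; exact hxq

/-- the glued map is continuous -/
lemma contOn : ContinuousOn (gluG Z G) Ω := by
  intro x hx
  obtain ⟨U, hU, hf⟩ := h.lf x hx
  have h1 : ∀ i ∈ {i | (Z i ∩ U).Nonempty}, ContinuousWithinAt (gluG Z G) (Z i) x := by
    intro i _
    by_cases hxi : x ∈ Z i
    · exact (h.cont i x hxi).congr (fun y hy => h.G_eq hy) (h.G_eq hxi)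
    · have : 𝓝[Z i] x = ⊥ := by
        rw [← notMem_closure_iff_nhdsWithin_eq_bot, (h.closed i).closure_eq]; exact hxi
      unfold ContinuousWithinAt
      rw [this]; exact Filter.tendsto_bot
  have h2 : ContinuousWithinAt (gluG Z G) (⋃ i ∈ {i | (Z i ∩ U).Nonempty}, Z i) x := by
    unfold ContinuousWithinAt
    rw [nhdsWithin_biUnion hf]
    simp only [Filter.tendsto_iSup]
    exact h1
  refine h2.mono_of_mem_nhdsWithin (Filter.mem_of_superset (inter_mem_nhdsWithin Ω hU) ?_)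
  rintro y ⟨hy, hyU⟩
  obtain ⟨i, hi⟩ := h.cov y hy
  exact mem_biUnion (show i ∈ {i | (Z i ∩ U).Nonempty} from ⟨y, hi, hyU⟩) hi

/-- **the global structure** -/
noncomputable def tr0 : Tr0 Ω C (gluG Z G) where
  top := gluT Z top
  tr := glut Z tr
  G_mem x hx := by
    obtain ⟨i, hi⟩ := h.cov x hx
    exact (h.on' i).G_mem x hi
  tr_mem x hx t ht := by
    obtain ⟨i, hi⟩ := h.cov x hx
    exact h.sub i ((h.on' i).tr_mem x hi t ht)
  tr_G x hx t ht := by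
    obtain ⟨i, hi⟩ := h.cov x hx
    exact (h.on' i).tr_G x hi t ht
  tr_top x hx t ht := by
    obtain ⟨i, hi⟩ := h.cov x hx
    exact (h.on' i).tr_top x hi t ht
  tr_self x hx := by
    obtain ⟨i, hi⟩ := h.cov x hx
    exact (h.on' i).tr_self x hi
  tr_tr x hx t ht s hs := by
    obtain ⟨i, hi⟩ := h.cov x hx
    exact (h.on' i).tr_tr x hi t ht s hs
  plG q := by
    refine plOn_cover (h.fin q) h.closed (fun x hx => ?_) (fun i => ?_)
    · obtain ⟨i, hi⟩ := h.cov x hx.1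
      exact ⟨i, ⟨x, hi, hx.2.2⟩, hi⟩
    · exact ((h.on' i).plG q).mono (fun x hx => ⟨hx.2, hx.1.2⟩)
  plc q := by
    refine plOn_cover (h.fin q) h.closed (fun x hx => ?_) (fun i => ?_)
    · obtain ⟨i, hi⟩ := h.cov x hx.1
      exact ⟨i, ⟨x, hi, hx.2.2⟩, hi⟩
    · exact ((h.on' i).plc q).mono (fun x hx => ⟨hx.2, hx.1.2⟩)
  pltr q := by
    refine plOn_cover (Ks := fun i => Z i ×ˢ (univ : Set E)) (h.fin q)
      (fun i => (h.closed i).prod isClosed_univ) ?_ (fun i => ?_)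
    · rintro ⟨x, t⟩ ⟨hx, ht⟩
      obtain ⟨i, hi⟩ := h.cov x hx.1
      refine ⟨i, ⟨x, hi, ?_⟩, hi, mem_univ _⟩
      show gluG Z G x ∈ C.cell q
      rw [show gluG Z G x = C.b q from hx.2]
      exact C.bmem q
    · refine ((h.on' i).pltr q).mono ?_
      rintro ⟨x, t⟩ ⟨⟨hx, ht⟩, hi, -⟩
      exact ⟨⟨hi, hx.2⟩, ht⟩
  lf := lf_of_cont h.contOn h.mapsTo (fun q x hx => ⟨hx.1, hx.2.2⟩)

@[simp] lemma tr0_top (x : E') : h.tr0.top x = gluT Z top x := rfl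
@[simp] lemma tr0_tr (x : E') (t : E) : h.tr0.tr x t = glut Z tr x t := rfl

/-- preimages of cells are compact -/
lemma isCompact_preimage_cell (q : Q) : IsCompact {x | x ∈ Ω ∧ gluG Z G x ∈ C.cell q} := by
  obtain ⟨A, hA, hc, hp⟩ := h.prop q
  have h1 : {x | x ∈ Ω ∧ gluG Z G x ∈ C.cell q} = A ∩ gluG Z G ⁻¹' C.cell q := by
    ext x
    constructor
    · rintro ⟨hx, hxq⟩
      obtain ⟨i, hi⟩ := h.cov x hx
      exact ⟨hp i x hi (by rw [← h.G_eq hi]; exact hxq), hxq⟩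
    · rintro ⟨hx, hxq⟩
      exact ⟨hA hx, hxq⟩
  rw [h1]
  have h2 := (h.contOn.mono hA).preimage_isClosed_of_isClosed hc.isClosed (C.cpt q).isClosed
  exact hc.of_isClosed_subset h2 inter_subset_left

/-- **the glued map is proper** -/
lemma isCompact_preimage {D : Set E} (hD : IsCompact D) (hs : D ⊆ Λ) :
    IsCompact {x | x ∈ Ω ∧ gluG Z G x ∈ D} := by
  -- finitely many cells meet `D`
  have hfin : {q | (C.cell q ∩ D).Nonempty}.Finite := by
    choose! r hr hf using C.lf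
    obtain ⟨t, ht, hcov⟩ := hD.elim_nhds_subcover (fun y => Metric.ball y (r y))
      (fun y hy => Metric.ball_mem_nhds y (hr y (hs hy)))
    refine (t.finite_toSet.biUnion (fun y hy => hf y (hs (ht y hy)))).subset ?_
    rintro q ⟨y, hyq, hyD⟩
    obtain ⟨z, hz, hyz⟩ := mem_iUnion₂.1 (hcov hyD)
    exact mem_biUnion hz ⟨y, hyq, hyz⟩
  have h1 : IsCompact (⋃ q ∈ {q | (C.cell q ∩ D).Nonempty},
      {x | x ∈ Ω ∧ gluG Z G x ∈ C.cell q}) :=
    hfin.isCompact_biUnion (fun q _ => h.isCompact_preimage_cell q)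
  have h2 : {x | x ∈ Ω ∧ gluG Z G x ∈ D} = (⋃ q ∈ {q | (C.cell q ∩ D).Nonempty},
      {x | x ∈ Ω ∧ gluG Z G x ∈ C.cell q}) ∩ gluG Z G ⁻¹' D := by
    ext x
    constructor
    · rintro ⟨hx, hxD⟩
      refine ⟨mem_biUnion (x := gluT Z top x) ⟨gluG Z G x, h.G_mem hx, hxD⟩
        ⟨hx, h.G_mem hx⟩, hxD⟩
    · rintro ⟨hx, hxD⟩
      obtain ⟨q, hq, hx1, -⟩ := mem_iUnion₂.1 hx
      exact ⟨hx1, hxD⟩
  rw [h2]
  have hsub : (⋃ q ∈ {q | (C.cell q ∩ D).Nonempty},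
      {x | x ∈ Ω ∧ gluG Z G x ∈ C.cell q}) ⊆ Ω := by
    intro x hx
    obtain ⟨q, hq, hx1, -⟩ := mem_iUnion₂.1 hx
    exact hx1
  exact h1.of_isClosed_subset
    ((h.contOn.mono hsub).preimage_isClosed_of_isClosed h1.isClosed hD.isClosed) inter_subset_left

/-- **the fibres are compact** (`hc` of 241) -/
lemma isCompact_F (q : Q) : IsCompact (h.tr0.F q) := by
  have := h.isCompact_preimage (D := {C.b q}) isCompact_singleton
    (singleton_subset_iff.2 (C.sub q (C.bmem q)))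
  exact this

end Pcs

/-! ### mesh pieces and exact cores -/

/-- **mesh pieces and exact cores** -/
structure Mach (Ω : Set E') (C : CC Λ Q) (Z : ι → Set E') (G : ι → E' → E)
    (top : ι → E' → Q) (tr : ι → E' → E → E') (κ θ : TopC Q → ℝ) (Kc : TopC Q → Set E')
    (Th : ∀ c, PLEquiv (Kc c) (coreF C (κ c) c.1 (θ c))) : Prop where
  κpos : ∀ c, 0 < κ c ∧ κ c < 1
  θ0 : ∀ c, 0 ≤ θ c
  θ1 : ∀ c, θ c < 1
  closed : ∀ i, IsClosed (Z i)
  subZ : ∀ i, Z i ⊆ Ω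
  subK : ∀ c, Kc c ⊆ Ω
  cov : ∀ x ∈ Ω, (∃ i, x ∈ Z i) ∨ ∃ c, x ∈ Kc c
  on : ∀ i, TrnOn (Z i) C (G i) (top i) (tr i)
  cont : ∀ i, ContinuousOn (G i) (Z i)
  agG : ∀ i j, ∀ x ∈ Z i, x ∈ Z j → G i x = G j x
  agT : ∀ i j, ∀ x ∈ Z i, x ∈ Z j → top i x = top j x
  agt : ∀ i j, ∀ x ∈ Z i, x ∈ Z j → ∀ t ∈ C.cell (top i x), tr i x t = tr j x t
  bgG : ∀ i c, ∀ x ∈ Z i, x ∈ Kc c → G i x = cG C (κ c) (Th c).f x
  bgT : ∀ i c, ∀ x ∈ Z i, x ∈ Kc c → top i x = ctop C (κ c) c.1 (Th c).f x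
  bgt : ∀ i c, ∀ x ∈ Z i, x ∈ Kc c → ∀ t ∈ C.cell (top i x),
    tr i x t = ctr C (κ c) (Th c).f (Th c).g x t
  disj : ∀ c c', c ≠ c' → Disjoint (Kc c) (Kc c')
  bdry : ∀ c, ∀ x ∈ Kc c, (∃ i, x ∈ Z i) ↔ sl C (κ c) ((Th c).f x) c.1 = θ c
  ntop : ∀ i, ∀ x ∈ Z i, ∃ r, top i x < r
  lfZ : ∀ x ∈ Ω, ∃ U ∈ 𝓝 x, {i | (Z i ∩ U).Nonempty}.Finite
  lfK : ∀ x ∈ Ω, ∃ U ∈ 𝓝 x, {c | (Kc c ∩ U).Nonempty}.Finite
  prop : ∀ q, ∃ A ⊆ Ω, IsCompact A ∧ ∀ i, ∀ x ∈ Z i, G i x ∈ C.cell q → x ∈ A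

namespace Mach

variable [FiniteDimensional ℝ E] {Ω : Set E'} {C : CC Λ Q} {Z : ι → Set E'} {G : ι → E' → E}
  {top : ι → E' → Q} {tr : ι → E' → E → E'} {κ θ : TopC Q → ℝ} {Kc : TopC Q → Set E'}
  {Th : ∀ c, PLEquiv (Kc c) (coreF C (κ c) c.1 (θ c))} (h : Mach Ω C Z G top tr κ θ Kc Th)

/-- all pieces -/
abbrev ZZ (Z : ι → Set E') (Kc : TopC Q → Set E') : ι ⊕ TopC Q → Set E' := Sum.elim Z Kc

/-- all maps -/
noncomputable abbrev GG (C : CC Λ Q) (G : ι → E' → E) (κ θ : TopC Q → ℝ) {Kc : TopC Q → Set E'}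
    (Th : ∀ c, PLEquiv (Kc c) (coreF C (κ c) c.1 (θ c))) : ι ⊕ TopC Q → E' → E :=
  Sum.elim G (fun c => cG C (κ c) (Th c).f)

/-- all top cells -/
noncomputable abbrev TT (C : CC Λ Q) (top : ι → E' → Q) (κ θ : TopC Q → ℝ)
    {Kc : TopC Q → Set E'} (Th : ∀ c, PLEquiv (Kc c) (coreF C (κ c) c.1 (θ c))) :
    ι ⊕ TopC Q → E' → Q :=
  Sum.elim top (fun c => ctop C (κ c) c.1 (Th c).f)

/-- all transports -/
noncomputable abbrev RR (C : CC Λ Q) (tr : ι → E' → E → E') (κ θ : TopC Q → ℝ)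
    {Kc : TopC Q → Set E'} (Th : ∀ c, PLEquiv (Kc c) (coreF C (κ c) c.1 (θ c))) :
    ι ⊕ TopC Q → E' → E → E' :=
  Sum.elim tr (fun c => ctr C (κ c) (Th c).f (Th c).g)

include h

lemma isCompact_K (c : TopC Q) : IsCompact (Kc c) := by
  have h1 : Kc c = (Th c).g '' (coreF C (κ c) c.1 (θ c)) := by
    ext x
    constructor
    · intro hx
      exact ⟨_, (Th c).mf hx, (Th c).li x hx⟩
    · rintro ⟨y, hy, rfl⟩
      exact (Th c).mg hy
  rw [h1]
  exact (Ar_241.isCompact_coreF C (h.κpos c) c.1).image_of_continuousOn (Th c).pg.1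

lemma ctop_le {c : TopC Q} {x : E'} (hx : x ∈ Kc c) : ctop C (κ c) c.1 (Th c).f x ≤ c.1 := by
  obtain ⟨k1, k2, k3⟩ := st_spec C (h.κpos c) ((Th c).mf hx).1
  exact k3 _ (mn_spec c.1 k1.wt).1

lemma cG_mem {c : TopC Q} {x : E'} (hx : x ∈ Kc c) : cG C (κ c) (Th c).f x ∈ C.cell c.1 :=
  C.mono_le (h.ctop_le hx) ((core_trnOn (h.κpos c) (Th c)).G_mem x hx)

/-- finitely many top cells meet a cell -/
lemma fin_top (q : Q) : {c : TopC Q | (C.cell c.1 ∩ C.cell q).Nonempty}.Finite := by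
  choose! r hr hf using C.lf
  obtain ⟨t, ht, hcov⟩ := (C.cpt q).elim_nhds_subcover (fun y => Metric.ball y (r y))
    (fun y hy => Metric.ball_mem_nhds y (hr y (C.sub q hy)))
  have h1 : {p : Q | (C.cell p ∩ C.cell q).Nonempty}.Finite := by
    refine (t.finite_toSet.biUnion (fun y hy => hf y (C.sub q (ht y hy)))).subset ?_
    rintro p ⟨y, hyp, hyq⟩
    obtain ⟨z, hz, hyz⟩ := mem_iUnion₂.1 (hcov hyq)
    exact mem_biUnion hz ⟨y, hyp, hyz⟩
  have h2 : (Subtype.val ⁻¹' {p : Q | (C.cell p ∩ C.cell q).Nonempty} : Set (TopC Q)).Finite :=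
    Set.Finite.preimage (Subtype.val_injective.injOn) h1
  exact h2

/-- **all pieces together** -/
theorem pcs : Pcs Ω C (ZZ Z Kc) (GG C G κ θ Th) (TT C top κ θ Th) (RR C tr κ θ Th) where
  closed := by
    rintro (i | c)
    · exact h.closed i
    · exact (h.isCompact_K c).isClosed
  sub := by
    rintro (i | c)
    · exact h.subZ i
    · exact h.subK c
  cov x hx := by
    rcases h.cov x hx with ⟨i, hi⟩ | ⟨c, hc⟩
    · exact ⟨Sum.inl i, hi⟩
    · exact ⟨Sum.inr c, hc⟩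
  on := by
    rintro (i | c)
    · exact h.on i
    · exact core_trnOn (h.κpos c) (Th c)
  cont := by
    rintro (i | c)
    · exact h.cont i
    · exact ((plOn_st C (h.κpos c) c.1).comp (Th c).pf (fun x hx => ((Th c).mf hx).1)).1
  agG := by
    rintro (i | c) (j | c') x hx hx'
    · exact h.agG i j x hx hx'
    · exact h.bgG i c' x hx hx'
    · exact (h.bgG j c x hx' hx).symm
    · by_cases e : c = c'
      · subst e; rfl
      · exact absurd hx' (Set.disjoint_left.1 (h.disj c c' e) hx)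
  agT := by
    rintro (i | c) (j | c') x hx hx'
    · exact h.agT i j x hx hx'
    · exact h.bgT i c' x hx hx'
    · exact (h.bgT j c x hx' hx).symm
    · by_cases e : c = c'
      · subst e; rfl
      · exact absurd hx' (Set.disjoint_left.1 (h.disj c c' e) hx)
  agt := by
    rintro (i | c) (j | c') x hx hx' t ht
    · exact h.agt i j x hx hx' t ht
    · exact h.bgt i c' x hx hx' t ht
    · refine (h.bgt j c x hx' hx t ?_).symm
      rw [h.bgT j c x hx' hx]; exact ht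
    · by_cases e : c = c'
      · subst e; rfl
      · exact absurd hx' (Set.disjoint_left.1 (h.disj c c' e) hx)
  lf x hx := by
    obtain ⟨U, hU, hf⟩ := h.lfZ x hx
    obtain ⟨V, hV, hg⟩ := h.lfK x hx
    refine ⟨U ∩ V, Filter.inter_mem hU hV, ?_⟩
    refine ((hf.image Sum.inl).union (hg.image Sum.inr)).subset ?_
    rintro (i | c) ⟨y, hy, hyU, hyV⟩
    · exact Or.inl ⟨i, ⟨y, hy, hyU⟩, rfl⟩
    · exact Or.inr ⟨c, ⟨y, hy, hyV⟩, rfl⟩
  prop q := by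
    obtain ⟨A, hA, hc, hp⟩ := h.prop q
    refine ⟨A ∪ ⋃ c ∈ {c : TopC Q | (C.cell c.1 ∩ C.cell q).Nonempty}, Kc c,
      union_subset hA (iUnion₂_subset fun c _ => h.subK c),
      hc.union ((h.fin_top q).isCompact_biUnion fun c _ => h.isCompact_K c), ?_⟩
    rintro (i | c) x hx hxq
    · exact Or.inl (hp i x hx hxq)
    · exact Or.inr (mem_biUnion (x := c) ⟨_, h.cG_mem hx, hxq⟩ hx)

variable [Nonempty ι]

/-- **the exact structure of helper241** -/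
noncomputable def exact : Exact h.pcs.tr0 κ θ Kc (Ωᶜ ∪ ⋃ i, Z i) where
  κpos := h.κpos
  θ0 := h.θ0
  θ1 := h.θ1
  Th := Th
  sub := h.subK
  G_eq c x hx := h.pcs.G_eq (i := Sum.inr c) hx
  top_eq c x hx := h.pcs.top_eq (i := Sum.inr c) hx
  tr_eq c x hx t ht := by
    refine h.pcs.tr_eq (i := Sum.inr c) hx ?_
    have h1 : gluT (ZZ Z Kc) (TT C top κ θ Th) x = ctop C (κ c) c.1 (Th c).f x :=
      h.pcs.top_eq (i := Sum.inr c) hx
    have h2 : t ∈ C.cell (gluT (ZZ Z Kc) (TT C top κ θ Th) x) := ht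
    rw [h1] at h2
    exact h2
  X0_iff c x hx := by
    rw [← h.bdry c x hx]
    constructor
    · rintro (h1 | h1)
      · exact absurd (h.subK c hx) h1
      · exact mem_iUnion.1 h1
    · intro h1
      exact Or.inr (mem_iUnion.2 h1)
  disj := h.disj
  maxtop x hx hm := by
    rcases h.cov x hx with ⟨i, hi⟩ | h1
    · exfalso
      have h1 : gluT (ZZ Z Kc) (TT C top κ θ Th) x = top i x :=
        h.pcs.top_eq (i := Sum.inl i) hi
      obtain ⟨r, hr⟩ := h.ntop i x hi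
      have h2 : gluT (ZZ Z Kc) (TT C top κ θ Th) x ≤ r := by rw [h1]; exact hr.le
      have h3 : r = gluT (ZZ Z Kc) (TT C top κ θ Th) x := hm r h2
      rw [h1] at h3
      exact hr.ne h3.symm
    · exact h1

/-- the mesh part is closed -/
lemma isClosed_X0 (hΩ : IsOpen Ω) : IsClosed (Ωᶜ ∪ ⋃ i, Z i) := by
  rw [← isOpen_compl_iff, isOpen_iff_mem_nhds]
  intro x hx
  rw [compl_union, compl_compl] at hx
  obtain ⟨hxΩ, hxZ⟩ := hx
  obtain ⟨U, hU, hf⟩ := h.lfZ x hxΩ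
  have h1 : IsClosed (⋃ i ∈ {i | (Z i ∩ U).Nonempty}, Z i) :=
    hf.isClosed_biUnion fun i _ => h.closed i
  have h2 : x ∉ ⋃ i ∈ {i | (Z i ∩ U).Nonempty}, Z i := fun hc => by
    obtain ⟨i, -, hi⟩ := mem_iUnion₂.1 hc
    exact hxZ (mem_iUnion.2 ⟨i, hi⟩)
  have h3 := h1.isOpen_compl.mem_nhds h2
  filter_upwards [h3, hU, hΩ.mem_nhds hxΩ] with y hy hyU hyΩ
  rw [compl_union, compl_compl]
  refine ⟨hyΩ, fun hc => ?_⟩
  obtain ⟨i, hi⟩ := mem_iUnion.1 hc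
  exact hy (mem_biUnion (show i ∈ {i | (Z i ∩ U).Nonempty} from ⟨y, hi, hyU⟩) hi)

lemma cov_X0 : Ω ⊆ (Ωᶜ ∪ ⋃ i, Z i) ∪ ⋃ c, Kc c := by
  intro x hx
  rcases h.cov x hx with ⟨i, hi⟩ | ⟨c, hc⟩
  · exact Or.inl (Or.inr (mem_iUnion.2 ⟨i, hi⟩))
  · exact Or.inr (mem_iUnion.2 ⟨c, hc⟩)

end Mach

end Crest.Agent.R096.Xp_537
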