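import Crest.Agent.R096.Nr3_527
import Crest.Agent.R096.Xq7_537
import Crest.Agent.R096.At1_241

/-!
# R096 (row 96), bottom assembly, part 1 (helper147): MACH-INST

From the band structure of all mesh cells outside the giants (`Inv`, helper416), the exactness (K4)
(`Ex`, helper441) and the charts of the giants to `Mach` (helper537).
-/

set_option autoImplicit false
set_option linter.unusedSectionVars false
set_option linter.style.longLine false

open Set Filter Topology Metric

namespace Crest.Agent.R096.Fin_147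

open Crest.Agent.R096.Ce_537 (PLOn PLEquiv cube sph IsBall Cplx)
open Crest.Agent.R096.Bd_416 Crest.Agent.R096.Grd_714 Crest.Agent.R096.Mg_441
open Crest.Agent.R096.Xp_537
open Crest.Agent.R096.Ar_241 (Tr0 TopC Exact)

section mesh

variable {Q : Type} [PartialOrder Q] {dim : Q → ℕ} {J Fam : Type}
variable {E' : Type*} [NormedAddCommGroup E'] [NormedSpace ℝ E']
variable {Cc : Cmb Q dim J Fam} {K : Q → Set E'} {D : Set Q} {g : Gd E' J}
  {P : ∀ q, Cc.I q → Set E'} {c : ∀ q, Cc.I q → E' → ℝ}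
variable {E : Type*} [NormedAddCommGroup E] [NormedSpace ℝ E] {Pf : Fam → Set E}

/-- the active families of a cell -/
def actF (Cc : Cmb Q dim J Fam) (q : Q) : Set Fam := {a | ∃ x : Cc.I q, Cc.fam (Cc.col q x) = a}

lemma actF_finite (q : Q) : (actF Cc q).Finite := by
  have := Cc.fin q
  exact (Set.finite_range fun x : Cc.I q => Cc.fam (Cc.col q x)).subset
    (fun a ⟨x, hx⟩ => ⟨x, hx⟩)

variable (H : Inv Cc K D g P c) (hfin : ∀ a, {j | Cc.fam j = a}.Finite)

include H in
lemma not_band {q : Q} (hq : q ∈ D) {a : Fam} (ha : a ∉ actF Cc q) {z : E'} (hz : z ∈ K q) :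
    z ∉ (merge hfin g).B a :=
  notMem_band H hfin hq hz (fun x hx => ha ⟨x, hx⟩)

include H in
/-- finitely many families have a band at a point -/
lemma finite_B {q : Q} (hq : q ∈ D) {z : E'} (hz : z ∈ K q) :
    {a | z ∈ (merge hfin g).B a}.Finite :=
  (actF_finite (Cc := Cc) q).subset fun a ha => by
    by_contra hn
    exact not_band H hfin hq hn hz ha

include H in
/-- inactive families have a constant interval -/
lemma lo_const {q : Q} (hq : q ∈ D) {a : Fam} (ha : a ∉ actF Cc q) {z z' : E'} (hz : z ∈ K q)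
    (hz' : z' ∈ K q) : loN hfin g z a = loN hfin g z' a ∧ hiN hfin g z a = hiN hfin g z' a := by
  have h1 := not_band H hfin hq ha hz
  have h2 := not_band H hfin hq ha hz'
  have e1 := merge_inact H hfin hq (a := a) (fun x hx => ha ⟨x, hx⟩) hz
  have e2 := merge_inact H hfin hq (a := a) (fun x hx => ha ⟨x, hx⟩) hz'
  obtain ⟨f1, f2, -⟩ := box_off H hfin hq hz h1
  obtain ⟨f3, f4, -⟩ := box_off H hfin hq hz' h2
  have e3 : loN hfin g z a = loN hfin g z' a := by
    have : (loN hfin g z a : ℝ) = loN hfin g z' a := by rw [← f1, ← f3, e1, e2]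
    exact_mod_cast this
  exact ⟨e3, by rw [f2, f4, e3]⟩

lemma gx_inj {m : Fam → ℕ} : Function.Injective (fun b : Gx Pf m => (b.lo, b.hi)) := by
  intro b b' h
  have h1 := congrArg Prod.fst h
  have h2 := congrArg Prod.snd h
  exact Gx.ext h1 h2

open Classical in
include H in
/-- **finitely many grid boxes meet a mesh cell** -/
theorem finite_boxes {q : Q} (hq : q ∈ D) :
    {b : Gx Pf (mm hfin) | ∃ z ∈ K q, b.lo = loN hfin g z ∧ b.hi = hiN hfin g z}.Finite := by
  rcases (K q).eq_empty_or_nonempty with h0 | ⟨z0, hz0⟩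
  · have : {b : Gx Pf (mm hfin) | ∃ z ∈ K q, b.lo = loN hfin g z ∧ b.hi = hiN hfin g z} = ∅ := by
      ext b; simp [h0]
    rw [this]; exact Set.finite_empty
  have hA := actF_finite (Cc := Cc) q
  have : Fintype (actF Cc q) := hA.fintype
  set N : ℕ := ∑ a : actF Cc q, mm hfin a.1 with hN
  have hle : ∀ a : actF Cc q, mm hfin a.1 ≤ N := fun a =>
    Finset.single_le_sum (f := fun a : actF Cc q => mm hfin a.1) (fun _ _ => Nat.zero_le _)
      (Finset.mem_univ a)
  let Φ : ((actF Cc q → Fin (N + 1)) × (actF Cc q → Fin (N + 1))) → (Fam → ℕ) × (Fam → ℕ) :=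
    fun p => (fun a => if h : a ∈ actF Cc q then (p.1 ⟨a, h⟩ : ℕ) else loN hfin g z0 a,
      fun a => if h : a ∈ actF Cc q then (p.2 ⟨a, h⟩ : ℕ) else hiN hfin g z0 a)
  refine ((Set.finite_range Φ).preimage (gx_inj (Pf := Pf) (m := mm hfin)).injOn).subset ?_
  rintro b ⟨z, hz, h1, h2⟩
  refine ⟨(fun a => ⟨b.lo a.1, ?_⟩, fun a => ⟨b.hi a.1, ?_⟩), ?_⟩
  · have := b.le a.1
    have h3 := b.him a.1
    have h4 := hle a
    omega
  · have h3 := b.him a.1
    have h4 := hle a
    omega
  · refine Prod.ext (funext fun a => ?_) (funext fun a => ?_)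
    · by_cases ha : a ∈ actF Cc q
      · simp [Φ, ha]
      · simp only [Φ, ha, dif_neg, not_false_iff]
        rw [h1]; exact (lo_const H hfin hq ha hz0 hz).1
    · by_cases ha : a ∈ actF Cc q
      · simp [Φ, ha]
      · simp only [Φ, ha, dif_neg, not_false_iff]
        rw [h2]; exact (lo_const H hfin hq ha hz0 hz).2

variable {Λ : Set E} {C : CC Λ (Cel Pf (mm hfin))} {T : (Fam → ℝ) → E} {co : E → Fam → ℝ}
  (OK : GridOK C T co) (hm : ∀ a, 0 < mm hfin a) (q0 : Cel Pf (mm hfin))

include H OK in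
/-- **the structure map is PL on every mesh cell** -/
theorem plOn_gG (hK : ∀ q, IsClosed (K q)) {q : Q} (hq : q ∈ D) {y : Fam → ℝ}
    (hy : Ex Cc Pf q y) : PLOn (gG T (merge hfin g)) (K q) := by
  have hIs := inv_merge_is H hfin hq
  refine plOn_cover
    (Ks := fun b : Gx Pf (mm hfin) => {x | x ∈ K q ∧ (fun a => (merge hfin g).G a x) ∈ b.bx})
    (finite_boxes H hfin hq) (fun b => ?_) (fun x hx => ?_) (fun b => ?_)
  · have h1 : ∀ a, IsClosed {x | x ∈ K q ∧ (b.lo a : ℝ) ≤ (merge hfin g).G a x ∧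
        (merge hfin g).G a x ≤ b.hi a} := by
      intro a
      have h2 := ((hIs.pG a).1).preimage_isClosed_of_isClosed (hK q)
        (isClosed_Icc (a := (b.lo a : ℝ)) (b := (b.hi a : ℝ)))
      exact h2
    have h3 : {x | x ∈ K q ∧ (fun a => (merge hfin g).G a x) ∈ b.bx} =
        K q ∩ ⋂ a, {x | x ∈ K q ∧ (b.lo a : ℝ) ≤ (merge hfin g).G a x ∧
        (merge hfin g).G a x ≤ b.hi a} := by
      ext x
      simp only [mem_ofPred_eq, mem_inter_iff, mem_iInter]
      exact ⟨fun h => ⟨h.1, fun a => ⟨h.1, h.2 a⟩⟩, fun h => ⟨h.1, fun a => (h.2 a).2⟩⟩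
    rw [h3]
    exact (hK q).inter (isClosed_iInter h1)
  · obtain ⟨b, h1, h2, h3⟩ := exists_box H hfin hq hx hy
    exact ⟨b, ⟨x, hx, h1, h2⟩, hx, h3⟩
  · exact OK.comp b (fun a => (hIs.pG a).mono (fun x hx => hx.1)) (fun x hx => hx.2.2)

include H OK in
/-- the local transport structure of a mesh cell -/
theorem on_cell {q : Q} (hq : q ∈ D) {y : Fam → ℝ} (hy : Ex Cc Pf q y) :
    TrnOn (K q) C (gG T (merge hfin g)) (gtop hm q0 (merge hfin g)) (gtr co (merge hfin g)) :=
  mesh_trnOn OK hm q0 (inv_merge_is H hfin hq) (fun _ hx => finite_B H hfin hq hx)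
    (fun _ hx => Nr_527.merge_mem_G2 H hfin hm hq hx hy)

end mesh

end Crest.Agent.R096.Fin_147
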