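import Crest.Agent.R096.Clo5_441
import Crest.Agent.R096.Main1_4
import Crest.Agent.R096.Lab6_184

/-!
# Row 96, FINLAB (helper441), part 1: labels of two states along ropes

* `fam_of_final`, `no_final` : where the final state can have points of a family.
* `rope_cells`, `rope_tiles`, `rope_union` : the sum of the labels of two patterns is constant along a
  rope on which both patterns have the same parities.
-/

set_option autoImplicit false
set_option linter.unusedSectionVars false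

open Set Metric Relation

namespace Crest.Agent.R096.Fin_441

open Crest.Agent.R096.Msh_715 Crest.Agent.R096.Main_4 Crest.Agent.R096.Agl5_543
  Crest.Agent.R096.St_147 Crest.Agent.R096.Seq_213 Crest.Agent.R096.Clo_441

section states

variable {E : Type} [NormedAddCommGroup E] [NormedSpace ℝ E] [FiniteDimensional ℝ E]
variable {Om : Set E} {ι J C K : Type} {T : Tiling Om ι} {h3 : Module.finrank ℝ E = 3}
variable {fam : J → C}

/-- every tile at a point of a 1-cell has a 2-cell through this point -/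
theorem exists_face {w : E} (hw : w ∈ Om) (hd : T.dim w = 1) {q : ι} (hq : w ∈ P (T.H q)) :
    ∃ F : C2 T, w ∈ (meshC T h3).On F ∧ q ∈ (meshC T h3).side F := by
  obtain ⟨x, hx, -, -, hd1, -, hq1, -, hp1, -⟩ := Agl3_543.two_cells T h3 hw hd hq
  refine ⟨mk2 T hx hd1, ⟨?_, hd⟩, ?_⟩
  · rw [mk2_set]; exact hp1
  · show q ∈ (mk2 T hx hd1).side h3
    rw [C2.mem_side]
    have h5 : (mk2 T hx hd1).pt ∈ T.oc x := T.pt_cl hx
    rw [T.at_eq_of_mem_oc hx h5]
    exact hq1

theorem act_of_int {A : Set ι} {w : E} (hw : w ∈ Om) (hd : T.dim w = 1)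
    (h : Int (meshC T h3) A w) {q : ι} (hq : w ∈ P (T.H q)) : q ∈ A := by
  obtain ⟨F, hF, hqF⟩ := exists_face (h3 := h3) hw hd hq
  exact h.2 F hF q hqF

end states

section general

variable {ι Φ W J C K : Type} {M : MeshC ι Φ W} {fam : J → C}

/-- **(FL2)** names and families of the points of the final state -/
theorem fam_of_final {s₀ s : GSt M fam} {Q : Quads ι C K} {far : J → Set W} (h0 : s₀.Inv Q far)
    (h : s.Inv Q far) (hsub : s.P ⊆ s₀.P) {w : W} (hw : w ∈ s.P) :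
    s.lab w = s₀.lab w ∨
      ∃ k, Int M (Q.Act k) w ∧ Q.In k (fam (s.lab w)) ∧ Q.In k (fam (s₀.lab w)) := by
  rcases h.loc hw with h1 | ⟨k, hk, hint⟩
  · exact Or.inl (h0.far_mem h1).2.symm
  · obtain ⟨F, hF⟩ := hint.1
    exact Or.inr ⟨k, hint, hk, h0.only ⟨hsub hw, hF⟩ (hint.2 F hF)⟩

end general

section states2

variable {E : Type} [NormedAddCommGroup E] [NormedSpace ℝ E] [FiniteDimensional ℝ E]
variable {Om : Set E} {ι J C K : Type} {T : Tiling Om ι} {h3 : Module.finrank ℝ E = 3}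
variable {fam : J → C}

/-- **(FL2')** a tile without initial points of the family `a`, which is active in no quad of `a`,
has no final point of the family `a` -/
theorem no_final {s₀ s : GSt (meshC T h3) fam} {Q : Quads ι C K} {far : J → Set E}
    (h0 : s₀.Inv Q far) (h : s.Inv Q far) (hsub : s.P ⊆ s₀.P)
    (hP : ∀ w ∈ s₀.P, w ∈ Om ∧ T.dim w = 1) {a : C} {q : ι}
    (hq0 : ∀ w ∈ s₀.P, w ∈ P (T.H q) → fam (s₀.lab w) ≠ a) (hqk : ∀ k, Q.In k a → q ∉ Q.Act k)
    {w : E} (hw : w ∈ s.P) (hwq : w ∈ P (T.H q)) : fam (s.lab w) ≠ a := by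
  intro ha
  have hw0 := hP w (hsub hw)
  rcases fam_of_final h0 h hsub hw with h1 | ⟨k, hint, hk, -⟩
  · rw [h1] at ha
    exact hq0 w (hsub hw) hwq ha
  · rw [ha] at hk
    exact hqk k hk (act_of_int hw0.1 hw0.2 hint hwq)

end states2

section ropes

variable {E : Type*} [NormedAddCommGroup E] [NormedSpace ℝ E] [FiniteDimensional ℝ E]
variable {Om : Set E} {ι : Type*} {T : Tiling Om ι}

open Classical in
/-- parity of the number of points of `Q` on the 1-cell of `w` -/
noncomputable def par (T : Tiling Om ι) (Q : Finset E) (w : E) : ZMod 2 :=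
  ((Q.filter (fun u => u ∈ T.cc w)).card : ZMod 2)

theorem par_zero {Q : Finset E} {w : E} (h : ∀ u ∈ Q, u ∉ T.cc w) : par T Q w = 0 := by
  classical
  unfold par
  rw [Finset.filter_eq_empty_iff.2 (fun u hu => h u hu)]
  simp

theorem par_congr {Q Q' : Finset E} {w : E} (h : ∀ u ∈ T.cc w, (u ∈ Q ↔ u ∈ Q')) :
    par T Q w = par T Q' w := by
  classical
  unfold par
  congr 2
  ext u
  simp only [Finset.mem_filter]
  constructor
  · rintro ⟨a, b⟩; exact ⟨(h u b).1 a, b⟩
  · rintro ⟨a, b⟩; exact ⟨(h u b).2 a, b⟩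

theorem par_of_oc {Q : Finset E} {w w' : E} (h : T.cc w = T.cc w') : par T Q w = par T Q w' := by
  unfold par; rw [h]

/-- **(FL3) ROPE FOR TWO PATTERNS**, cells: on the 1-cells of the cells of `N` which meet `A` both
patterns have the same parity; then `lam + lam'` has the same value at all vertices of these cells. -/
theorem rope_cells {Q Q' : Finset E} {lam lam' : E → ZMod 2} (h : IsLab T Q lam)
    (h' : IsLab T Q' lam') {A : Set E} (hA : IsCompact A) (hAc : IsPreconnected A)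
    {N : Set T.Cell} (hAN : A ⊆ ⋃ c ∈ N, c.set)
    (hpar : ∀ c ∈ N, (c.set ∩ A).Nonempty → ∀ w ∈ c.set, T.dim w = 1 → par T Q w = par T Q' w)
    {c c' : T.Cell} (hc : c ∈ N) (hcA : (c.set ∩ A).Nonempty) (hc' : c' ∈ N)
    (hcA' : (c'.set ∩ A).Nonempty) {v v' : E} (hv : v ∈ c.set) (hv0 : T.dim v = 0)
    (hv' : v' ∈ c'.set) (hv0' : T.dim v' = 0) : lam v + lam' v = lam v' + lam' v' := by
  classical
  have hcO : ∀ c : T.Cell, c.set ⊆ Om := fun c => T.cplx.sub c
  have hvO : v ∈ Om := hcO c hv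
  have hvO' : v' ∈ Om := hcO c' hv'
  have hle : ∀ {c : T.Cell} {v : E} (hv : v ∈ c.set) (hvO : v ∈ Om), T.cl hvO ≤ c := by
    intro c v hv hvO
    show T.cc v ⊆ c.set
    rw [c.set_eq] at hv ⊢
    exact T.cc_sub_of_mem hv
  have key := label_const T.cplx hA hAc (J := N) hAN
    (P := {w | w ∈ Om ∧ T.dim w = 1 ∧ par T Q w ≠ par T Q' w}) ?_
    (lam := fun c : T.Cell => lam c.pt + lam' c.pt) ?_ (i := c) (v := T.cl hvO) (i' := c')
    (v' := T.cl hvO') hc hcA (hle hv hvO) ((T.dim_cl hvO).trans hv0) hc' hcA' (hle hv' hvO')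
    ((T.dim_cl hvO').trans hv0')
  · simpa only [pt_of_zero T hvO hv0, pt_of_zero T hvO' hv0'] using key
  · intro i hi hiA j hj hj1
    rw [Set.disjoint_left]
    rintro w hw ⟨-, hw1, hne⟩
    exact hne (hpar i hi hiA w (hj hw) hw1)
  · intro e he hdis a ha b hb ha0 hb0
    have hset : e.set = T.cc e.pt := e.set_eq
    have hpe : e.pt ∈ e.set := by rw [hset]; exact T.self_mem_cc _
    have hpar' : par T Q e.pt = par T Q' e.pt := by
      by_contra hne
      exact Set.disjoint_left.1 hdis hpe ⟨e.pt_mem, he, hne⟩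
    have hmem : ∀ {c : T.Cell}, c ≤ e → c.pt ∈ T.cc e.pt := by
      intro c hc
      have h1 : c.pt ∈ c.set := by rw [c.set_eq]; exact T.self_mem_cc _
      have h2 : c.pt ∈ e.set := hc h1
      rwa [hset] at h2
    obtain ⟨p, q, hpq, hseg, -, hp0, hq0, -, -⟩ := T.edge_eq e.pt_mem he
    have e1 := h e.pt e.pt_mem he p q hseg
    have e2 := h' e.pt e.pt_mem he p q hseg
    have e3 : lam p + lam q = lam' p + lam' q := e1.trans (hpar'.trans e2.symm)
    have e4 : ∀ a b c d : ZMod 2, a + b = c + d → a + c = b + d := by decide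
    have e5 : lam p + lam' p = lam q + lam' q := e4 _ _ _ _ e3
    have hends : ∀ {c : E}, c ∈ T.cc e.pt → T.dim c = 0 → c = p ∨ c = q := fun hc hc0 =>
      ends_unique T e.pt_mem he hseg hp0 hq0 hc hc0
    show lam a.pt + lam' a.pt = lam b.pt + lam' b.pt
    rcases hends (hmem ha) ha0 with h1 | h1 <;> rcases hends (hmem hb) hb0 with h2 | h2 <;>
      rw [h1, h2]
    · exact e5
    · exact e5.symm

/-- **(FL3), tiles**: the tiles of `W` cover `A` -/
theorem rope_tiles {Q Q' : Finset E} {lam lam' : E → ZMod 2} (h : IsLab T Q lam)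
    (h' : IsLab T Q' lam') {A : Set E} (hA : IsCompact A) (hAc : IsPreconnected A) {W : Set ι}
    (hAW : A ⊆ ⋃ i ∈ W, P (T.H i))
    (hpar : ∀ i ∈ W, (P (T.H i) ∩ A).Nonempty → ∀ w ∈ P (T.H i), T.dim w = 1 →
      par T Q w = par T Q' w)
    {i i' : ι} (hi : i ∈ W) (hiA : (P (T.H i) ∩ A).Nonempty) (hi' : i' ∈ W)
    (hiA' : (P (T.H i') ∩ A).Nonempty) {v v' : E} (hv : v ∈ P (T.H i)) (hv0 : T.dim v = 0)
    (hv' : v' ∈ P (T.H i')) (hv0' : T.dim v' = 0) : lam v + lam' v = lam v' + lam' v' := by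
  have htile : ∀ i, ∃ c : T.Cell, c.set = P (T.H i) := by
    intro i
    obtain ⟨x, hx⟩ := T.ne i
    have hxO : x ∈ Om := T.sub i (I_sub_P _ hx)
    exact ⟨T.cl hxO, T.cc_eq_tile hx⟩
  obtain ⟨c, hc⟩ := htile i
  obtain ⟨c', hc'⟩ := htile i'
  refine rope_cells h h' hA hAc (N := {c | ∃ i ∈ W, c.set = P (T.H i)}) ?_ ?_ (c := c) (c' := c')
    ⟨i, hi, hc⟩ (by rw [hc]; exact hiA) ⟨i', hi', hc'⟩ (by rw [hc']; exact hiA')
    (by rw [hc]; exact hv) hv0 (by rw [hc']; exact hv') hv0'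
  · intro x hx
    obtain ⟨k, hk, hxk⟩ := mem_iUnion₂.1 (hAW hx)
    obtain ⟨d, hd⟩ := htile k
    exact mem_biUnion (show d ∈ {c : T.Cell | ∃ i ∈ W, c.set = P (T.H i)} from ⟨k, hk, hd⟩)
      (by rw [hd]; exact hxk)
  · rintro c ⟨k, hk, hck⟩ hne w hw hw1
    rw [hck] at hne hw
    exact hpar k hk hne w hw hw1

/-- **(FL3), unions of closed cells** (core spheres) -/
theorem rope_union {Q Q' : Finset E} {lam lam' : E → ZMod 2} (h : IsLab T Q lam)
    (h' : IsLab T Q' lam') {A : Set E} (hA : IsCompact A) (hAc : IsPreconnected A) (hAO : A ⊆ Om)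
    (hU : ∀ x ∈ A, T.cc x ⊆ A) (hpar : ∀ w ∈ A, T.dim w = 1 → par T Q w = par T Q' w)
    {v v' : E} (hv : v ∈ A) (hv0 : T.dim v = 0) (hv' : v' ∈ A) (hv0' : T.dim v' = 0) :
    lam v + lam' v = lam v' + lam' v' := by
  refine rope_cells h h' hA hAc (N := {c | c.set ⊆ A}) ?_ ?_ (c := T.cl (hAO hv))
    (c' := T.cl (hAO hv')) (hU v hv) ⟨v, T.self_mem_cc v, hv⟩ (hU v' hv')
    ⟨v', T.self_mem_cc v', hv'⟩ (T.self_mem_cc v) hv0 (T.self_mem_cc v') hv0'
  · intro x hx
    exact mem_biUnion (show T.cl (hAO hx) ∈ {c : T.Cell | c.set ⊆ A} from hU x hx)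
      (T.self_mem_cc x)
  · intro c hc _ w hw hw1
    exact hpar w (hc hw) hw1

end ropes

end Crest.Agent.R096.Fin_441
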