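import Crest.Agent.R096.Fin2_147
import Crest.Agent.R096.At2_241
import Crest.Agent.R096.As6_241

/-!
# R096 (row 96), bottom assembly, part 3 (helper147): TYPE D cores

`exists_tr0` : the transport structure of the mesh on the boundary of a core, over the faces of the
top cell.  `exists_ThD` : the chart of a tiny core from squares (one point) and edges (circles).
-/

set_option autoImplicit false
set_option linter.unusedSectionVars false
set_option linter.style.longLine false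

open Set Filter Topology Metric Module

namespace Crest.Agent.R096.Fin_147

open Crest.Agent.R096.Ce_537 (PLOn PLEquiv cube sph IsBall Cplx)
open Crest.Agent.R096.Bd_416 Crest.Agent.R096.Grd_714 Crest.Agent.R096.Mg_441
open Crest.Agent.R096.Xp_537
open Crest.Agent.R096.Ar_241 (Tr0 TopC Exact cod SheetData)
open Crest.Agent.R096.As_241 (below bdc EdgeData)

/-! ### restriction of a local transport structure to the faces of a top cell -/

section below

variable {E E' : Type*} [NormedAddCommGroup E] [NormedSpace ℝ E]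
  [NormedAddCommGroup E'] [NormedSpace ℝ E']
  {Q : Type*} [PartialOrder Q] {Λ : Set E} {C : CC Λ Q} {c : Q} {Z : Set E'} {G : E' → E}
  {top : E' → Q} {tr : E' → E → E'}

open Classical in
/-- the top cell as a proper face of `c` -/
noncomputable def topB (top : E' → Q) {c : Q} (d : {q : Q // q < c}) (x : E') : {q : Q // q < c} :=
  if h : top x < c then ⟨top x, h⟩ else d

lemma topB_val {d : {q : Q // q < c}} {x : E'} (h : top x < c) : (topB top d x).1 = top x := by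
  unfold topB; rw [dif_pos h]

theorem trnOn_below (h : TrnOn Z C G top tr) (d : {q : Q // q < c})
    (hlt : ∀ x ∈ Z, top x < c) : TrnOn Z (below C c) G (topB top d) tr := by
  have hv : ∀ x ∈ Z, (topB top d x).1 = top x := fun x hx => topB_val (hlt x hx)
  have hcell : ∀ x ∈ Z, (below C c).cell (topB top d x) = C.cell (top x) := fun x hx => by
    show C.cell (topB top d x).1 = _
    rw [hv x hx]
  have hset : ∀ q : {q : Q // q < c},
      {x | x ∈ Z ∧ q ≤ topB top d x ∧ G x ∈ (below C c).cell q} =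
      {x | x ∈ Z ∧ q.1 ≤ top x ∧ G x ∈ C.cell q.1} := fun q => by
    ext x
    constructor
    · rintro ⟨h1, h2, h3⟩
      refine ⟨h1, ?_, h3⟩
      rw [← hv x h1]; exact h2
    · rintro ⟨h1, h2, h3⟩
      refine ⟨h1, ?_, h3⟩
      show q.1 ≤ (topB top d x).1
      rw [hv x h1]; exact h2
  refine ⟨fun x hx => ?_, fun x hx t ht => ?_, fun x hx t ht => ?_, fun x hx t ht => ?_,
    fun x hx => h.tr_self x hx, fun x hx t ht s hs => ?_, fun q => ?_, fun q => ?_, fun q => ?_⟩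
  · rw [hcell x hx]; exact h.G_mem x hx
  · rw [hcell x hx] at ht; exact h.tr_mem x hx t ht
  · rw [hcell x hx] at ht; exact h.tr_G x hx t ht
  · rw [hcell x hx] at ht
    show (topB top d x).1 ≤ (topB top d (tr x t)).1
    rw [hv x hx, hv _ (h.tr_mem x hx t ht)]
    exact h.tr_top x hx t ht
  · rw [hcell x hx] at ht hs; exact h.tr_tr x hx t ht s hs
  · rw [hset q]; exact h.plG q.1
  · rw [hset q]; exact h.plc q.1
  · exact h.pltr q.1

end below

/-! ### the transport structure on the boundary of a core -/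

variable {Q : Type} [PartialOrder Q] {dim : Q → ℕ} {J Fam : Type}
variable {E' : Type*} [NormedAddCommGroup E'] [NormedSpace ℝ E']
variable {E : Type*} [NormedAddCommGroup E] [NormedSpace ℝ E] {Pf : Fam → Set E}
variable [FiniteDimensional ℝ E]
variable {Cc : Cmb Q dim J Fam} {K : Q → Set E'} {g : Gd E' J}
  {P : ∀ q, Cc.I q → Set E'} {c : ∀ q, Cc.I q → E' → ℝ}
variable {hfin : ∀ a, {j | Cc.fam j = a}.Finite} {hm : ∀ a, 0 < mm hfin a}
  {q0 : Cel Pf (mm hfin)} {Λ : Set E} {C : CC Λ (Cel Pf (mm hfin))}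
  {T : (Fam → ℝ) → E} {co : E → Fam → ℝ} {c0 : Fam} {S : Set E'}

/-- on a cell over `{y c0 = 0}` the top cell is a face of `c0` -/
lemma gtop_lt {D : Set Q} (H : Inv Cc K D g P c) {q : Q} (hq : q ∈ D) {y : Fam → ℝ}
    (hy : Ex Cc Pf q y) (hy0 : y c0 = 0) {x : E'} (hx : x ∈ K q) :
    gtop hm q0 (merge hfin g) x < .top c0 := by
  obtain ⟨b, hb, -, -, hoff⟩ := gtop_spec (hm := hm) (q0 := q0) (inv_merge_is H hfin hq)
    (fun _ hx => finite_B H hfin hq hx)
    (fun _ hx => Nr_527.merge_mem_G2 H hfin hm hq hx hy) hx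
  rw [hb, Cel.gr_lt_top]
  obtain ⟨hz1, hz2⟩ := hy.zero c0 hy0
  have h1 : x ∉ (merge hfin g).B c0 := by
    refine not_band H hfin hq ?_ hx
    rintro ⟨w, hw⟩
    exact hz1 w hw
  have h2 : (merge hfin g).G c0 x = 0 := by
    rw [merge_inact H hfin hq hz1 hx]
    refine Finset.sum_eq_zero fun j hj => ?_
    rw [hz2 j (by simpa using hj)]
    exact val_zero
  have h3 := (hoff c0 h1).2
  rw [h2] at h3
  exact_mod_cast h3

/-- **the transport structure of the mesh on a union of cells over the boundary of `c0`** -/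
theorem exists_tr0 (H : Inv Cc K univ g P c) (OK : GridOK C T co) (hKcl : ∀ q, IsClosed (K q))
    {Dc : Set Q} (hDf : Dc.Finite) (hDne : Dc.Nonempty) (hne : ∀ q ∈ Dc, (K q).Nonempty)
    (hS : S = ⋃ q ∈ Dc, K q) (hSc : IsCompact S)
    (ex : ∀ q ∈ Dc, ∃ y, Ex Cc Pf q y ∧ y c0 = 0) :
    ∃ (G : E' → E) (X : Tr0 S (below C (.top c0)) G), ContinuousOn G S ∧
      (∀ x ∈ S, G x = gG T (merge hfin g) x) ∧
      (∀ x ∈ S, (X.top x).1 = gtop hm q0 (merge hfin g) x) ∧
      ∀ x ∈ S, ∀ t ∈ C.cell (gtop hm q0 (merge hfin g) x),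
        X.tr x t = gtr co (merge hfin g) x t := by
  have hlt : ∀ q ∈ Dc, ∀ x ∈ K q, gtop hm q0 (merge hfin g) x < .top c0 := fun q hq x hx => by
    obtain ⟨y, hy, hy0⟩ := ex q hq
    exact gtop_lt H (mem_univ q) hy hy0 hx
  obtain ⟨q1, hq1⟩ := hDne
  obtain ⟨x1, hx1⟩ := hne q1 hq1
  let d : {q : Cel Pf (mm hfin) // q < .top c0} := ⟨_, hlt q1 hq1 x1 hx1⟩
  have hmem : ∀ x ∈ S, ∃ q : Dc, x ∈ K q.1 := by
    intro x hx
    rw [hS] at hx
    obtain ⟨q, hq, hx⟩ := mem_iUnion₂.1 hx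
    exact ⟨⟨q, hq⟩, hx⟩
  have hsub : ∀ q : Dc, K q.1 ⊆ S := fun q x hx => by
    rw [hS]; exact mem_iUnion₂.2 ⟨q.1, q.2, hx⟩
  have M : Pcs S (below C (.top c0)) (fun q : Dc => K q.1) (fun _ => gG T (merge hfin g))
      (fun _ => topB (gtop hm q0 (merge hfin g)) d) (fun _ => gtr co (merge hfin g)) :=
    { closed := fun q => hKcl q.1
      sub := hsub
      cov := hmem
      on := fun q => by
        obtain ⟨y, hy, -⟩ := ex q.1 q.2
        exact trnOn_below (on_cell H hfin OK hm q0 (mem_univ q.1) hy) d (hlt q.1 q.2)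
      cont := fun q => by
        obtain ⟨y, hy, -⟩ := ex q.1 q.2
        exact (plOn_gG H hfin OK hKcl (mem_univ q.1) hy).1
      agG := fun _ _ _ _ _ => rfl
      agT := fun _ _ _ _ _ => rfl
      agt := fun _ _ _ _ _ _ _ => rfl
      lf := fun x hx => by
        have : Finite Dc := hDf
        exact ⟨univ, Filter.univ_mem, Set.toFinite _⟩
      prop := fun q => ⟨S, subset_rfl, hSc, fun i x hx _ => hsub i hx⟩ }
  have : Nonempty Dc := ⟨⟨q1, hq1⟩⟩
  have eG : ∀ q : Dc, ∀ x ∈ K q.1, gluG (fun q : Dc => K q.1)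
      (fun _ : Dc => gG T (merge hfin g)) x = gG T (merge hfin g) x :=
    fun q x hx => M.G_eq (i := q) hx
  have eT : ∀ q : Dc, ∀ x ∈ K q.1, (M.tr0.top x).1 = gtop hm q0 (merge hfin g) x :=
    fun q x hx => by
      have h1 : M.tr0.top x = topB (gtop hm q0 (merge hfin g)) d x := M.top_eq (i := q) hx
      rw [h1]
      exact topB_val (hlt q.1 q.2 x hx)
  refine ⟨_, M.tr0, M.contOn, fun x hx => ?_, fun x hx => ?_, fun x hx t ht => ?_⟩
  · obtain ⟨q, hq⟩ := hmem x hx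
    exact eG q x hq
  · obtain ⟨q, hq⟩ := hmem x hx
    exact eT q x hq
  · obtain ⟨q, hq⟩ := hmem x hx
    refine M.tr_eq (i := q) hq ?_
    show t ∈ C.cell (topB (gtop hm q0 (merge hfin g)) d x).1
    rw [topB_val (hlt q.1 q.2 x hq)]
    exact ht

variable [FiniteDimensional ℝ E']

/-- **the chart of a tiny core** -/
theorem exists_ThD (H : Inv Cc K univ g P c) (OK : GridOK C T co) (hKcl : ∀ q, IsClosed (K q))
    (hΛ : IsOpen Λ) (hE3 : finrank ℝ E = 3) {K0 : Set E'} (hK0 : IsBall 3 K0 S)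
    {Dc : Set Q} (hDf : Dc.Finite) (hDne : Dc.Nonempty) (hne : ∀ q ∈ Dc, (K q).Nonempty)
    (hS : S = ⋃ q ∈ Dc, K q) (ex : ∀ q ∈ Dc, ∃ y, Ex Cc Pf q y ∧ y c0 = 0)
    {ℓ : J → ℝ} (hO : Ord Cc ℓ) (hℓ : ∀ j j', j ≠ j' → Cc.fam j = Cc.fam j' → ℓ j ≠ ℓ j')
    (circ : ∀ j, Cc.fam j ≠ c0 → (Pf (Cc.fam j) ∩ Pf c0).Nonempty →
      Nonempty (PLEquiv (sph 2) {x | x ∈ S ∧ g.G j x = 1/2}))
    (sq : ∀ q : Gx Pf (mm hfin), q.hi c0 = 0 → q.free.ncard = 2 →
      ∃ x, {z | z ∈ S ∧ ∀ a, (merge hfin g).G a z = ((q.lo a : ℝ) + q.hi a) / 2} = {x})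
    {κ : ℝ} (hκ : 0 < κ ∧ κ < 1) :
    ∃ Th : PLEquiv K0 (coreF C κ (.top c0) 0),
      (∀ x ∈ K0, x ∈ S ↔ sl C κ (Th.f x) (.top c0) = 0) ∧
      ∀ x ∈ S, gG T (merge hfin g) x = cG C κ Th.f x ∧
        gtop hm q0 (merge hfin g) x = ctop C κ (.top c0) Th.f x ∧
        ∀ t ∈ C.cell (gtop hm q0 (merge hfin g) x),
          gtr co (merge hfin g) x t = ctr C κ Th.f Th.g x t := by
  have hSc : IsCompact S := hK0.isCompact_bdry
  obtain ⟨G, X, hGc, hG, hT, ht⟩ := exists_tr0 (hm := hm) (q0 := q0) H OK hKcl hDf hDne hne hS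
    hSc ex
  have hsph : Nonempty (PLEquiv (sph 3) S) := by
    obtain ⟨e, he⟩ := hK0
    rw [← he]
    exact ⟨e.restrImage Ce_537.sph_subset_cube⟩
  have hc : ∀ ρ : Cel Pf (mm hfin), Cel.top c0 ≤ ρ → ρ = Cel.top c0 := At_241.top_max c0
  have hOn : At_241.OnS hfin Pf K g T G S := by
    refine At_241.OnS.of_ex H (fun z hz => ?_) hG
    have hz' := hz
    rw [hS] at hz'
    obtain ⟨q, hq, hzq⟩ := mem_iUnion₂.1 hz'
    obtain ⟨y, hy, -⟩ := ex q hq
    exact ⟨q, y, hzq, hy⟩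
  have hballs := As_241.balls_below hΛ hE3 hc X hsph hGc (fun q hq => ?_) (fun q hq => ?_)
  rotate_left
  · -- squares
    obtain ⟨q, hlt⟩ := q
    cases q with
    | top a => exact absurd hlt Cel.not_top_lt
    | gr q =>
      have h2 : q.free.ncard = 2 := by
        have := At_241.cod_gr OK hΛ hE3 q
        have h1 : cod C (.gr q) = 1 := hq
        omega
      obtain ⟨x, hx⟩ := sq q (Cel.gr_lt_top.1 hlt) h2
      refine ⟨x, ?_⟩
      rw [← hx]
      ext z
      constructor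
      · rintro ⟨hz, he⟩
        exact ⟨hz, (hOn.fibre OK hz q).1 he⟩
      · rintro ⟨hz, he⟩
        exact ⟨hz, (hOn.fibre OK hz q).2 he⟩
  · exact At_241.edgeData hΛ hE3 OK hOn H hO hℓ circ hm hq
  obtain ⟨Th, h1, -, h3⟩ := As_241.exists_Th (As_241.trn_below X hballs) hΛ hc hκ le_rfl
    zero_lt_one (by rw [hE3]; exact hK0)
  refine ⟨Th, h1, fun x hx => ?_⟩
  obtain ⟨e1, e2, e3⟩ := h3 x hx
  have eT : ((As_241.trn_below X hballs).top x).1 = gtop hm q0 (merge hfin g) x := hT x hx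
  refine ⟨?_, ?_, fun t htt => ?_⟩
  · rw [e1, hG x hx]
  · rw [e2, eT]
  · rw [e3 t (by rw [eT]; exact htt)]
    exact (ht x hx t htt).symm

end Crest.Agent.R096.Fin_147
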