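import Crest.Agent.R096.Clo4_441
import Crest.Agent.R096.Clo5_441
import Crest.Agent.R096.Brk1_582
import Crest.Agent.R096.Cb3_609

/-!
# Row 96, FINLAB (helper441), part 3: general complexes.

Labels of the vertices of any `Cplx` (537) with prescribed jumps on the 1-cells:
* `crope`, `cunion` : the sum of two labels is constant along ropes / unions of closed cells on which
  the jumps agree;
* `side` : two labels agree at all vertices of all core spheres;
* `k4`   : labels of an inactive family are exact;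
* `mem_K_of_inactive`, `count_zero`, `count_full` : hence the vector of the counts is in 582's `K P`.
-/

set_option autoImplicit false
set_option linter.unusedSectionVars false

open Set Metric Relation
open Crest.Agent.R096.Ce_537

namespace Crest.Agent.R096.Fin_441

open Crest.Agent.R096.Clo_441

section complex

variable {E : Type*} [NormedAddCommGroup E] [NormedSpace ℝ E]
variable {Ω : Set E} {I : Type*} [PartialOrder I] {dim : I → ℕ} {K : I → Set E}

/-- labels of the vertices with jump `par e` along the 1-cell `e` -/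
def CLab (dim : I → ℕ) (par lam : I → ZMod 2) : Prop :=
  ∀ e, dim e = 1 → ∀ a ≤ e, ∀ b ≤ e, dim a = 0 → dim b = 0 → a ≠ b → lam a + lam b = par e

theorem clab_eq {par par' lam lam' : I → ZMod 2} (h : CLab dim par lam) (h' : CLab dim par' lam')
    {e a b : I} (he : dim e = 1) (hpar : par e = par' e) (ha : a ≤ e) (hb : b ≤ e)
    (ha0 : dim a = 0) (hb0 : dim b = 0) : lam a + lam' a = lam b + lam' b := by
  by_cases hab : a = b
  · rw [hab]
  · have e1 := h e he a ha b hb ha0 hb0 hab
    have e2 := h' e he a ha b hb ha0 hb0 hab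
    have e3 : lam a + lam b = lam' a + lam' b := by rw [e1, e2, hpar]
    have e4 : ∀ a b c d : ZMod 2, a + b = c + d → a + c = b + d := by decide
    exact e4 _ _ _ _ e3

/-- **rope for two labels** -/
theorem crope (C : Cplx Ω I dim K) {par par' lam lam' : I → ZMod 2} (h : CLab dim par lam)
    (h' : CLab dim par' lam') {J : Set I} {A : Set E} (hA : IsCompact A) (hAc : IsPreconnected A)
    (hAJ : A ⊆ ⋃ i ∈ J, K i)
    (hpar : ∀ i ∈ J, (K i ∩ A).Nonempty → ∀ e ≤ i, dim e = 1 → par e = par' e)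
    {i v i' v' : I} (hi : i ∈ J) (hiA : (K i ∩ A).Nonempty) (hv : v ≤ i) (hv0 : dim v = 0)
    (hi' : i' ∈ J) (hiA' : (K i' ∩ A).Nonempty) (hv' : v' ≤ i') (hv0' : dim v' = 0) :
    lam v + lam' v = lam v' + lam' v' := by
  refine label_const C hA hAc hAJ
    (P := ⋃ e ∈ {e | dim e = 1 ∧ par e ≠ par' e}, {x | Opn K e x}) ?_
    (lam := fun i => lam i + lam' i) ?_ hi hiA hv hv0 hi' hiA' hv' hv0'
  · intro j hj hjA l hl hl1
    rw [Set.disjoint_left]
    intro x hx hx'
    obtain ⟨e, ⟨he1, hne⟩, hxe⟩ := mem_iUnion₂.1 hx'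
    -- the open cell of `x` is `e`, so `e ≤ l`, hence `e = l`
    obtain ⟨m, hm, hmx⟩ := C.exists_opn hx
    have hem : e = m := C.disj e m x hxe hmx
    subst hem
    exact hne (hpar j hj hjA e (hm.trans hl) he1)
  · intro e he hdis a ha b hb ha0 hb0
    have hpe : par e = par' e := by
      by_contra hne
      -- the open cell `e` is not empty
      obtain ⟨x, hx⟩ : ∃ x, Opn K e x := by
        obtain ⟨x, hx, hx'⟩ := (C.isBall e).nonempty_diff
        exact ⟨x, hx, fun j hj hxj => hx' (mem_biUnion (show j ∈ {j | j < e} from hj) hxj)⟩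
      exact Set.disjoint_left.1 hdis hx.1 (mem_biUnion (show e ∈ {e | dim e = 1 ∧
        par e ≠ par' e} from ⟨he, hne⟩) hx)
    exact clab_eq h h' he hpe ha hb ha0 hb0

/-- **two labels on a compact connected union of closed cells** -/
theorem cunion (C : Cplx Ω I dim K) {par par' lam lam' : I → ZMod 2} (h : CLab dim par lam)
    (h' : CLab dim par' lam') {A : Set E} (hA : IsCompact A) (hAc : IsPreconnected A)
    (hU : ∀ x ∈ A, ∃ i, x ∈ K i ∧ K i ⊆ A)
    (hpar : ∀ e, dim e = 1 → K e ⊆ A → par e = par' e)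
    {v w : I} (hv0 : dim v = 0) (hv : K v ⊆ A) (hw0 : dim w = 0) (hw : K w ⊆ A) :
    lam v + lam' v = lam w + lam' w :=
  const_of_edges C hA hAc hU (lam := fun i => lam i + lam' i)
    (fun e he hKe a ha b hb ha0 hb0 => clab_eq h h' he (hpar e he hKe) ha hb ha0 hb0)
    hv0 hv hw0 hw

/-- a rope between the sets `S` and `S'` along which the jumps agree -/
def Rope (dim : I → ℕ) (K : I → Set E) (par par' : I → ZMod 2) (S S' : Set E) : Prop :=
  ∃ (J : Set I) (A : Set E), IsCompact A ∧ IsPreconnected A ∧ A ⊆ (⋃ i ∈ J, K i) ∧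
    (∀ i ∈ J, (K i ∩ A).Nonempty → ∀ e ≤ i, dim e = 1 → par e = par' e) ∧
    (∃ i ∈ J, (K i ∩ A).Nonempty ∧ ∃ v ≤ i, dim v = 0 ∧ K v ⊆ S) ∧
    (∃ i ∈ J, (K i ∩ A).Nonempty ∧ ∃ v ≤ i, dim v = 0 ∧ K v ⊆ S')

/-- **SIDE**: two labels with the same jumps on the core spheres and along the ropes agree at all
vertices of all core spheres as soon as they agree at one. -/
theorem side (C : Cplx Ω I dim K) {par par' lam lam' : I → ZMod 2} (h : CLab dim par lam)
    (h' : CLab dim par' lam') {β : Type*} {Sp : β → Set E} (hSc : ∀ b, IsCompact (Sp b))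
    (hSp : ∀ b, IsPreconnected (Sp b)) (hSU : ∀ b, ∀ x ∈ Sp b, ∃ i, x ∈ K i ∧ K i ⊆ Sp b)
    (hSe : ∀ b e, dim e = 1 → K e ⊆ Sp b → par e = par' e)
    (hconn : ∀ b b', Relation.ReflTransGen
      (fun b b' => Rope dim K par par' (Sp b) (Sp b')) b b')
    {b₀ : β} {v₀ : I} (hv₀ : dim v₀ = 0) (hvS : K v₀ ⊆ Sp b₀) (h₀ : lam v₀ = lam' v₀)
    (b : β) {v : I} (hv : dim v = 0) (hvb : K v ⊆ Sp b) : lam v = lam' v := by
  have key : ∀ b, ∀ v, dim v = 0 → K v ⊆ Sp b → lam v + lam' v = lam v₀ + lam' v₀ := by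
    intro b
    induction hconn b₀ b with
    | refl =>
      intro v hv hvb
      exact cunion C h h' (hSc _) (hSp _) (hSU _) (hSe _) hv hvb hv₀ hvS
    | tail _ hr ih =>
      intro v hv hvb
      obtain ⟨J, A, hA, hAc, hAJ, hpar, ⟨i, hi, hiA, u, hu, hu0, huS⟩,
        i', hi', hiA', u', hu', hu0', huS'⟩ := hr
      rw [cunion C h h' (hSc _) (hSp _) (hSU _) (hSe _) hv hvb hu0' huS', ← ih u hu0 huS]
      exact crope C h h' hA hAc hAJ hpar hi' hiA' hu' hu0' hi hiA hu hu0
  have e1 := key b v hv hvb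
  rw [h₀] at e1
  have e2 : ∀ a b c : ZMod 2, a + b = c + c → a = b := by decide
  exact e2 _ _ _ e1

/-- **(K4)**: the labels of a family without points on the rope are the same at all vertices of the
rope -/
theorem k4 (C : Cplx Ω I dim K) {par lam : I → ZMod 2} (h : CLab dim par lam) {J : Set I}
    {A : Set E} (hA : IsCompact A) (hAc : IsPreconnected A) (hAJ : A ⊆ ⋃ i ∈ J, K i)
    (hpar : ∀ i ∈ J, (K i ∩ A).Nonempty → ∀ e ≤ i, dim e = 1 → par e = 0)
    {i v i' v' : I} (hi : i ∈ J) (hiA : (K i ∩ A).Nonempty) (hv : v ≤ i) (hv0 : dim v = 0)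
    (hi' : i' ∈ J) (hiA' : (K i' ∩ A).Nonempty) (hv' : v' ≤ i') (hv0' : dim v' = 0) :
    lam v = lam v' := by
  have h' : CLab dim (fun _ : I => (0 : ZMod 2)) (fun _ => 0) := by
    intro e _ a _ b _ _ _ _
    simp
  have := crope C h h' hA hAc hAJ (fun i hi hiA e he he1 => hpar i hi hiA e he he1)
    hi hiA hv hv0 hi' hiA' hv' hv0'
  simpa using this

/-- (K4) on a compact connected union of closed cells (core spheres, closed tiles ..) -/
theorem k4_union (C : Cplx Ω I dim K) {par lam : I → ZMod 2} (h : CLab dim par lam)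
    {A : Set E} (hA : IsCompact A) (hAc : IsPreconnected A)
    (hU : ∀ x ∈ A, ∃ i, x ∈ K i ∧ K i ⊆ A)
    (hpar : ∀ e, dim e = 1 → K e ⊆ A → par e = 0)
    {v w : I} (hv0 : dim v = 0) (hv : K v ⊆ A) (hw0 : dim w = 0) (hw : K w ⊆ A) :
    lam v = lam w := by
  have h' : CLab dim (fun _ : I => (0 : ZMod 2)) (fun _ => 0) := by
    intro e _ a _ b _ _ _ _
    simp
  have := cunion C h h' hA hAc hU hpar hv0 hv hw0 hw
  simpa using this

end complex

/-! ### the vector of the counts is in `K P` -/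

section counts

variable {E : Type*} [NormedAddCommGroup E] [NormedSpace ℝ E] {S : Type*} {P : S → Set E}

/-- `u` agrees with the point `y` of the cube complex at all families which are exact at `y` -/
theorem mem_K_of_inactive {y u : S → ℝ} (hy : y ∈ Brk1_582.K P) (hu : ∀ a, 0 ≤ u a ∧ u a ≤ 1)
    (h0 : ∀ a, y a = 0 → u a = 0) (h1 : ∀ a, y a = 1 → u a = 1) : u ∈ Brk1_582.K P := by
  obtain ⟨hyb, ⟨a, ha⟩, hne⟩ := hy
  refine ⟨hu, ⟨a, h0 a ha⟩, hne.mono (Brk1_582.fc_anti ?_)⟩
  intro a ha'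
  by_contra hcon
  have h2 : ¬ y a < 1 := hcon
  rcases (hyb a).2.lt_or_eq with h | h
  · exact h2 h
  · rw [mem_ofPred_eq, h1 a h] at ha'
    exact lt_irrefl _ ha'

open Classical in
/-- the mean of the labels over a finite set of members -/
noncomputable def cnt {R : Type*} [Fintype R] (f : R → ZMod 2) : ℝ :=
  ((Finset.univ.filter fun r => f r = 1).card : ℝ) / (Fintype.card R : ℝ)

theorem cnt_nonneg {R : Type*} [Fintype R] (f : R → ZMod 2) : 0 ≤ cnt f := by
  unfold cnt; positivity

theorem cnt_le_one {R : Type*} [Fintype R] (f : R → ZMod 2) : cnt f ≤ 1 := by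
  unfold cnt
  exact div_le_one_of_le₀ (by exact_mod_cast Finset.card_le_univ _) (by positivity)

theorem cnt_zero {R : Type*} [Fintype R] {f : R → ZMod 2} (h : ∀ r, f r = 0) : cnt f = 0 := by
  unfold cnt
  rw [Finset.filter_false_of_mem]
  · simp
  · intro r _
    rw [h r]; decide

theorem cnt_one {R : Type*} [Fintype R] [Nonempty R] {f : R → ZMod 2} (h : ∀ r, f r = 1) :
    cnt f = 1 := by
  unfold cnt
  rw [Finset.filter_true_of_mem (fun r _ => h r), Finset.card_univ]
  exact div_self (by exact_mod_cast Fintype.card_ne_zero)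

/-- **the vector of the means of the labels is in the cube complex** -/
theorem cnt_mem_K {R : S → Type*} [∀ a, Fintype (R a)] [∀ a, Nonempty (R a)]
    {y : S → ℝ} (hy : y ∈ Brk1_582.K P) {lam : ∀ a, R a → ZMod 2}
    (h0 : ∀ a, y a = 0 → ∀ r, lam a r = 0) (h1 : ∀ a, y a = 1 → ∀ r, lam a r = 1) :
    (fun a => cnt (lam a)) ∈ Brk1_582.K P :=
  mem_K_of_inactive hy (fun a => ⟨cnt_nonneg _, cnt_le_one _⟩) (fun a ha => cnt_zero (h0 a ha))
    (fun a ha => cnt_one (h1 a ha))

end counts

end Crest.Agent.R096.Fin_441
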