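import Crest.Agent.R096.Be7_416
import Crest.Agent.R096.Csub7_487
import Crest.Agent.R096.Fl6_835
import Crest.Agent.R096.Cgt1_113

/-!
# R096 (row 96), bottom, block (6) of 147's `fin_st` (helper117): **`tile_clause`** = the literal
clause `tile` (numbers on the ordinary tiles, points of the edges) from the tracked data of the mesh
over any labelled mesh which is made of cells of a tiling `T3`, where `T3` agrees with the tiling `Tl`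
at the ordinary tiles.
-/

set_option autoImplicit false
set_option linter.unusedSectionVars false
set_option linter.style.longLine false

open Set Metric Filter Topology Module

namespace Crest.Agent.R096.Mi_117

open Crest.Agent.R096.St_147 Crest.Agent.R096.Seq_213 Crest.Agent.R096.Seq_213.GSt
  Crest.Agent.R096.Bd_416 Crest.Agent.R096.Mg_441 Crest.Agent.R096.Lm_117
  Crest.Agent.R096.Cp_298 Crest.Agent.R096.Gl_422
  Crest.Agent.R096.On_441 Crest.Agent.R096.SkB_662 Crest.Agent.R096.Ce_537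
  Crest.Agent.R096.Arc_778
open Crest.Agent.R096.Msh_715 Crest.Agent.R096.Ecm_446 Crest.Agent.R096.Csub_487
open Crest.Agent.R096.SkC1_961 (E3 FoamD)
open Crest.Agent.R096.Fl_835 (wk)
open Crest.Agent.R96.Nu1_199 (Wd)
open Crest.Agent.R96.Nu7_199 (WE WE_nonneg)
open Crest.Agent.R096.Nk_955 Crest.Agent.R096.Be_416

section gen

open scoped Classical

variable {ι Φc W Q J Fm : Type} {M : MeshC ι Φc W} [PartialOrder Q] {dim : Q → ℕ}
variable {L : LM M Q dim} {fam : J → Fm} {s : GSt M fam}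
variable {E : Type} [NormedAddCommGroup E] [NormedSpace ℝ E] [FiniteDimensional ℝ E]
variable {h : LF L s} {Lam : J → Q → ZMod 2} {hLam : ∀ j c, L.toSk.XL (gP s j) (Lam j) c}
variable {Om Om' : Set E} {ι3 ιt : Type} {T3 : Tiling Om' ι3} {Tl : Tiling Om ιt}
variable {K : Q → Set E} {Ω : Set E} {ε Kb : ℝ} {b : ℕ → ℝ} {wt : J → ℝ} {δ : Q → ℝ} {R : Set Q}
  {cell : Q → T3.Cell} {g0 g : Gd E J} {Pp0 Pp : ∀ q, (cmb h Lam hLam).I q → Set E}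
  {c0 c : ∀ q, (cmb h Lam hLam).I q → E → ℝ}

/-- the configuration of a tile at which two tilings agree -/
theorem cfg_congr {i3 : ι3} {i : ιt} (h0 : P (T3.H i3) = P (Tl.H i))
    (hcc : ∀ x ∈ P (Tl.H i), T3.cc x = Tl.cc x) :
    Crest.Agent.R96.Nu8_199.Cfg T3 i3 = Crest.Agent.R96.Nu8_199.Cfg Tl i := by
  ext S
  constructor
  · rintro ⟨x, hx, rfl⟩
    rw [h0] at hx
    exact ⟨x, hx, hcc x hx⟩
  · rintro ⟨x, hx, rfl⟩
    exact ⟨x, by rw [h0]; exact hx, (hcc x hx).symm⟩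

/-- **the pieces of an ordinary tile, all frames** -/
theorem tile_lm (X : Cplx Ω Q dim K) (hI : CellIx T3 dim K cell) (h3 : finrank ℝ E = 3)
    (hw : ∀ j, 0 < wt j) (hb4 : ∀ n, 1/4 ≤ b n) (hε : ε ≤ 1/2) (hKb : 0 ≤ Kb)
    (hδ : ∀ q, 0 < δ q)
    (hδ2 : ∀ q, 0 < WE X (cmb h Lam hLam) wt q → ∀ σ ≤ q, δ σ ≤ WE X (cmb h Lam hLam) wt q)
    {i3 : ι3} {i : ιt} (h0 : P (T3.H i3) = P (Tl.H i))
    (hcc : ∀ x ∈ P (Tl.H i), T3.cc x = Tl.cc x) {q : Q} (hq : K q = P (T3.H i3))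
    (hT : TrkL X R g0 Pp0 c0 (K0f R Kb) δ ε b wt g Pp c q) (B : E ≃ᵃ[ℝ] E)
    (x : (cmb h Lam hLam).I q) {z : E} (hz : z ∈ K q) :
    LB B (2 * CU Kb 3 ((fun K => B '' K) '' Crest.Agent.R96.Nu8_199.Cfg Tl i) *
      WE X (cmb h Lam hLam) wt q / wt ((cmb h Lam hLam).col q x)) (c q x) (K q) z := by
  have h1 := hI.tile_pieceCU (C := cmb h Lam hLam) X (by omega) hw hb4 hε (K0f_nonneg hKb) hδ hδ2
    hq (fun σ _ hd y => cmb_ne h Lam hLam hd y)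
    (Spec := SpecG (cmb h Lam hLam) K (ek h)) (R := R) (g0 := g0) (P0 := Pp0) (c0 := c0)
    (by rw [h3]; exact hT) (K0f_le hKb q) (N := WE X (cmb h Lam hLam) wt q) le_rfl B x hz
  rw [h3] at h1
  have e1 : Crest.Agent.R96.Nu8_199.CfgB T3 i3 B =
      (fun K => B '' K) '' Crest.Agent.R96.Nu8_199.Cfg Tl i := by
    show (fun K => B '' K) '' Crest.Agent.R96.Nu8_199.Cfg T3 i3 = _
    rw [cfg_congr h0 hcc]
  rw [e1] at h1
  exact h1

/-- **the points of the edges of an ordinary tile** -/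
theorem on1_lm {M : MeshC ι Φc E} {L : LM M Q dim} (hI : CellIx T3 dim K cell)
    (hO : OnT T3 L.toSk cell) {i3 : ι3} {i : ιt}
    (h0 : P (T3.H i3) = P (Tl.H i))
    (hcc : ∀ x ∈ P (Tl.H i), T3.cc x = Tl.cc x) {q : Q} (hq : K q = P (T3.H i3)) {e : Q}
    (he : e < q) : L.toSk.On1 e ⊆ {y | y ∈ P (Tl.H i) ∧ Tl.dim y ≤ 1} := by
  rintro w ⟨hw1, hwe⟩
  have h1 := hO.w1 w hw1
  have h2 := hO.ed w hw1
  have h3 : w ∈ (cell e).set := by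
    have h4 : L.ed w = e := hwe
    rw [← h4, h2]; exact T3.self_mem_cc w
  have h4 : w ∈ P (Tl.H i) := by
    rw [← h0, ← hq, hI.set_eq]
    exact Tiling.Cell.le_def.1 ((hI.le _ _).1 he.le) h3
  refine ⟨h4, ?_⟩
  rw [← (Mf_113.dim_of_cc (Tl.sub i h4) h1.1 (hcc w h4)).2, h1.2]

end gen

/-! ### the literal clause -/

variable {δf κ0 Rf cf : ℝ} {La Om Om' Ω' : Set E3} {ιt ι3 : Type}
variable {ι Φc Q J Kq : Type} {M : MeshC ι Φc E3} [PartialOrder Q] {dim : Q → ℕ}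
  {Φ : FoamD δf κ0 Rf cf La} {Tl : Tiling Om ιt} {T3 : Tiling Om' ι3}
  {L : LM M Q dim} {O : Ori M} {τ : Q → ZMod 2} {Rel : E3 → E3 → Prop} {Vc : Set E3}
  {Qd : Quads ι Φ.F Kq} {κ : Φ.F → ℕ} {fam : J → Φ.F} {s₀ : GSt M fam} {far₀ : J → Set E3}
  {Z : Φ.F → Set Q} {lam₀ : J → Q → ZMod 2} {v₀ v₁ : Φ.F → Q}
  {hfin : ∀ a, {j | fam j = a}.Finite} {kap : Φ.F → ℕ} {s : GSt M (fam' fam (Rk κ kap))}
  {far : Nm' fam (Rk κ kap) → Set E3} {β : E3 → E3} {lam : Nm' fam (Rk κ kap) → Q → ZMod 2}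
  {K : Q → Set E3} {ε Kb : ℝ} {b : ℕ → ℝ} {δ : Q → ℝ} {R : Set Q} {cell : Q → T3.Cell}
  {V : Φ.F → Set ιt}

open scoped Classical in
/-- **the clause `tile` of `fin_st`** -/
theorem tile_clause (h : StO L O τ Rel Vc Qd κ s₀ far₀ Z lam₀ v₀ v₁ hfin kap s far β lam)
    (X : Cplx Ω' Q dim K) (hI : CellIx T3 dim K cell) (hO : OnT T3 L.toSk cell)
    (hb4 : ∀ n, 1/4 ≤ b n) (hε : ε ≤ 1/2) (hKb : 0 ≤ Kb) (hδ : ∀ q, 0 < δ q)
    (hδ2 : ∀ q, 0 < WE X h.cmb (wk κ kap fam) q → ∀ σ ≤ q, δ σ ≤ WE X h.cmb (wk κ kap fam) q)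
    {g0 g : Gd E3 (Nm' fam (Rk κ kap))} {Pp0 Pp : ∀ q, h.cmb.I q → Set E3}
    {c0 c : ∀ q, h.cmb.I q → E3 → ℝ}
    (hT : ∀ q, TrkL (h := h.lfs) (Lam := Lf lam) (hLam := xlf h.lab.lab) X R g0 Pp0 c0 (K0f R Kb)
      δ ε b (wk κ kap fam) g Pp c q)
    (hord : ∀ i, (∀ c, i ∉ V c) → ∃ i3 : ι3, P (T3.H i3) = P (Tl.H i) ∧
      (∀ x ∈ P (Tl.H i), T3.cc x = Tl.cc x) ∧ ∃ q, K q = P (T3.H i3)) :
    ∀ i, (∀ c, i ∉ V c) → ∃ q, K q = P (Tl.H i) ∧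
      (∀ e, e < q → dim e = 1 → L.toSk.On1 e ⊆ {y | y ∈ P (Tl.H i) ∧ Tl.dim y ≤ 1}) ∧
      ∀ (B : E3 ≃ᵃ[ℝ] E3) (x : h.cmb.I q), ∀ y ∈ K q,
        LB B (2 * CU Kb 3 ((fun K => B '' K) '' SkC1_961.Cfg Tl i) *
          WE X h.cmb (wk κ kap fam) q / wk κ kap fam (h.cmb.col q x)) (c q x) (K q) y := by
  intro i hi
  obtain ⟨i3, h0, hcc, q, hq⟩ := hord i hi
  refine ⟨q, by rw [hq, h0], fun e he _ => on1_lm hI hO h0 hcc hq he, fun B x y hy => ?_⟩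
  exact tile_lm (h := h.lfs) (Lam := Lf lam) (hLam := xlf h.lab.lab) (wt := wk κ kap fam) X hI
    (by simp) (Fl_835.wk_pos κ kap fam) hb4 hε hKb hδ hδ2 h0 hcc hq (hT q) B x hy

end Crest.Agent.R096.Mi_117
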