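import Crest.Agent.R096.Fin7_147
import Crest.Agent.R096.Be8_416
import Crest.Agent.R096.Cin3_181
import Crest.Agent.R096.Ecm6_446
import Crest.Agent.R096.Rpk1_714
import Crest.Agent.R096.Mi5_117

/-!
# R096 (row 96), bottom assembly, part 8 (helper147): THE BASE OF THE EXACT CORES over the final state

`core_one` : the base `BaseC` (416) of one exact core from `StI`, `StO` (662), the literal clauses
`Exact`, `grid`, `word` (over the mesh with layers `T3`) and 446's remaining inputs.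
-/

set_option autoImplicit false
set_option linter.unusedSectionVars false
set_option linter.unusedVariables false
set_option linter.style.longLine false

open Set Filter Topology Metric Module MeasureTheory Relation
open scoped ENNReal

namespace Crest.Agent.R096.Fin_147

open Crest.Agent.R096.Ce_537 (PLOn PLEquiv cube sph IsBall Cplx)
open Crest.Agent.R096.Bd_416 Crest.Agent.R096.Grd_714 Crest.Agent.R096.Mg_441
open Crest.Agent.R096.Xp_537 Crest.Agent.R096.Bin_181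
open Crest.Agent.R096.Brk1_582 Crest.Agent.R096.Brk2_582 Crest.Agent.R096.Brk3_582
open Crest.Agent.R096.Brk5_582 Crest.Agent.R096.Brk6_582
open Crest.Agent.R096.Bsp_628
open Crest.Agent.R096.SkC1_961 (E3 Hom3 FoamD Cfg th NN)
open Crest.Agent.R096.Msh_715
open Crest.Agent.R096.Mbf_337 (KJ sb gau)
open Crest.Agent.R096.St_147 Crest.Agent.R096.Seq_213 Crest.Agent.R096.Lm_117
  Crest.Agent.R096.Cp_298 Crest.Agent.R096.Gl_422 Crest.Agent.R096.SkB_662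
open Crest.Agent.R096.Ecm_446 (Grid Full CW CG Dk OnT nr Disc)
open Crest.Agent.R096.Cin_181 (MeshG OnC thC thA)
open Crest.Agent.R096.Be_416 (BaseC Kbase wts)
open Crest.Agent.R096.Init_543 (JJ)
open Crest.Agent.R96.Nu3_199 Crest.Agent.R96.Nu5_199 Crest.Agent.R96.Nu6_199

variable {δ κ0 R c0 : ℝ} {La Om : Set E3} {ι3 : Type} {Φ : FoamD δ κ0 R c0 La}
  {T3 : Tiling Om ι3} {f : E3 → E3} {κ1 κ2 : ℝ}
variable {ι' Φc Q Kq : Type} {M : MeshC ι' Φc E3} [PartialOrder Q] {dim : Q → ℕ}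
  {L : LM M Q dim} {O : Ori M} {τ : Q → ZMod 2} {Rel : E3 → E3 → Prop} {Vc : Set E3}
  {Qd : Quads ι' Φ.F Kq} {κw : Φ.F → ℕ} {Lv : Φ.F → Finset ℝ}
  {s₀ : GSt M (fmJ Φ Lv)} {far₀ : JJ Φ Lv → Set E3} {G₀ : Φ.F → Set E3}
  {Z : Φ.F → Set Q} {lam₀ : JJ Φ Lv → Q → ZMod 2} {v₀ v₁ : Φ.F → Q}
  {hfin : ∀ a, {j | fmJ Φ Lv j = a}.Finite} {kap : Φ.F → ℕ}
  {s : GSt M (fam' (fmJ Φ Lv) (Rk κw kap))}
  {far : Nm' (fmJ Φ Lv) (Rk κw kap) → Set E3} {β : E3 → E3}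
  {lm : Nm' (fmJ Φ Lv) (Rk κw kap) → Q → ZMod 2} {vl : Q → T3.Cell}

/-- the numbers of the nodes of the core with the grid `Mx` -/
noncomputable abbrev NNx (κw kap : Φ.F → ℕ) (Lv : Φ.F → Finset ℝ) (Mx : ℕ) : Φ.F → ℕ → ℕ :=
  Ecm_446.NN (fmJ Φ Lv) κw kap (fun j => (Mx : ℝ) * j.2.1)

/-- a sheet of the level `t` -/
def lvS (Φ : FoamD δ κ0 R c0 La) (f : E3 → E3) (Lv : Φ.F → Finset ℝ) (j : JJ Φ Lv) : Set E3 :=
  {y | Φ.lev j.1 (f y) = j.2.1}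

/-- its inside -/
def lvV (Φ : FoamD δ κ0 R c0 La) (f : E3 → E3) (Lv : Φ.F → Finset ℝ) (j : JJ Φ Lv) : Set E3 :=
  {y | Φ.lev j.1 (f y) < j.2.1}

/-- **the inputs of one exact core over `T3`** (446's leaves) -/
structure CoreIn (L : LM M Q dim) (Qd : Quads ι' Φ.F Kq) (s₀ : GSt M (fmJ Φ Lv))
    (Z : Φ.F → Set Q) (lam₀ : JJ Φ Lv → Q → ZMod 2) (v₀ : Φ.F → Q) (vl : Q → T3.Cell)
    (f : E3 → E3) (κ1 κ2 : ℝ) (a : Φ.F) (i : ι3) (A : E3 ≃ᵃ[ℝ] E3) (lam : ℝ) (z : E3) (Mx : ℕ) :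
    Prop where
  ex : Mbf_337.Exact Φ T3 f κ1 κ2 a i A lam z
  grid : Grid Φ T3 i A lam z Mx
  full : Full T3 i vl
  word : CW T3 i (Ecm_446.U Φ A lam z Mx) (fmJ Φ Lv) (fun j => (Mx : ℝ) * j.2.1) (lvS Φ f Lv)
    (lvV Φ f Lv)
  pts : ∀ w ∈ s₀.P, w ∈ P (T3.H i) → w ∈ lvS Φ f Lv (s₀.lab w)
  fr : ∀ e ∈ Dk i vl, dim e = 1 → ∀ c, FrE L Qd c e
  path : ∀ c, (∃ j, fmJ Φ Lv j = c) → (∃ v ∈ Dk i vl, dim v = 0 ∧
    ReflTransGen (Ed L {e | FrE L Qd c e}) (v₀ c) v) ∨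
    ∀ v ∈ Dk i vl, dim v = 0 → v ∈ Z c ∧ ∀ j, fmJ Φ Lv j = c → lam₀ j v = 0
  lab : ∀ v ∈ Dk i vl, dim v = 0 → ∀ j, lam₀ j v = 1 ↔ (vl v).pt ∈ lvV Φ f Lv j

/-- a closed cell is a ball with the boundary `K \ ri K` -/
lemma isBall_ri (hIx : Csub_487.CellIx T3 dim (fun q => (vl q).set) vl) (q : Q) :
    IsBall (dim q) (vl q).set ((vl q).set \ ri (vl q).set) := by
  have h1 := T3.cplx.isBall (vl q)
  have h2 : (⋃ j ∈ {j : T3.Cell | j < vl q}, j.set) = (vl q).set \ ri (vl q).set :=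
    R96.Nu8_199.bdS_cell (vl q)
  rw [h2] at h1
  rw [hIx.dim_eq]
  exact h1

set_option maxHeartbeats 1000000 in
/-- **the base of one exact core** -/
theorem core_one (hLa : IsOpen La) (hδ : 0 < δ) (hR : 0 < R)
    (hi : StI L O τ Rel Vc Qd κw s₀ far₀ G₀ Z lam₀ v₀ v₁)
    (h : StO L O τ Rel Vc Qd κw s₀ far₀ Z lam₀ v₀ v₁ hfin kap s far β lm)
    (hT : OnT T3 L.toSk vl) (hIx : Csub_487.CellIx T3 dim (fun q => (vl q).set) vl)
    (hne : ∀ c : Φ.F, (Pc Φ.F c).Nonempty)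
    {hf1 : ∀ a, {j | h.cmb.fam j = a}.Finite} (hm : ∀ a, 0 < mm hf1 a)
    {a : Φ.F} {i : ι3} {A : E3 ≃ᵃ[ℝ] E3} {lam : ℝ} {z : E3} {Mx : ℕ}
    (hI : CoreIn L Qd s₀ Z lam₀ v₀ vl f κ1 κ2 a i A lam z Mx)
    {κb : ℝ} (hκb : 0 < κb ∧ κb < 1) (hμ : ∀ a, ∀ t ∈ Lv a, 0 < t ∧ t ≤ 1)
    {n : Φ.F → ℕ → ℝ} (hN : ∀ a, StrictMono (n a)) (hN0 : ∀ a, n a 0 = 0)
    (hNm : ∀ a, n a Mx = mm hf1 a)
    (hnN : ∀ a i, i ≤ Mx → |n a i - NNx κw kap Lv Mx a i| < κb / 2) :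
    ∃ P0 c0, BaseC h.cmb (fun q => (vl q).set) (wts κw kap (fmJ Φ Lv))
      (Kbase (Fintype.card (Fin 3)) δ R κb) (Dk i vl)
      (ekS (gr Φ hLa hne hm) (bc (F := Φ.F)) κb (.top a) h.cmb.fam (nr L s lm h.fin1)
        ((thC hLa hI.ex (m' := fun _ => Mx) fun _ => hI.grid.1).trans
          (rcR hN hN0 hNm (foam Φ.bf hLa) (quads_box Φ.bf (by simp)) (fun _ => hI.grid.1) hm a)))
      P0 c0 := by
  obtain ⟨gx, hG, hlo, hhi⟩ := Cin_181.exists_meshG hLa hI.ex hI.grid (OnC.of_onT hT)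
  have hCG := Ecm_446.cg_of_grid hLa hI.ex hI.grid
  have hD := Ecm_446.sto_disc hi h hT hI.full hCG hI.word hI.pts hI.fr hI.path hI.lab
  have hD' : Disc h.cmb (Dk i vl) (nr L s lm h.fin1) (NNx κw kap Lv Mx) (fun q => (gx q).lo)
      (fun q => (gx q).hi) := hD.congr fun q hq a => ⟨hlo q hq a, hhi q hq a⟩
  have hτ1 : ∀ j : JJ Φ Lv, (Mx : ℝ) * j.2.1 ≤ Mx := fun j => by
    have h1 := (hμ j.1 j.2.1 j.2.2).2
    have h2 : (0:ℝ) ≤ Mx := Nat.cast_nonneg _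
    nlinarith
  have htop : ∀ a, NNx κw kap Lv Mx a Mx = mm hf1 a := fun a =>
    Ecm_446.NN_top hτ1 a hfin
  refine ⟨_, _, Be_416.disc_baseC hN hN0 hI.grid.1 hNm (foam Φ.bf hLa)
    (quads_box Φ.bf (by simp)) hne hm hκb (.top a) hnN hD' hG Φ.bf hLa (by simp) hδ hR Φ.cmp
    (thA A lam z) (fun z' _ => (Cin_181.thA_eq z').symm) ?_ ?_ ?_ (Ecm_446.sto_sur h) ?_ ?_ ?_⟩
  · exact fun q _ => hIx.cpt q
  · exact fun q _ => hIx.conv q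
  · exact fun q _ => isBall_ri hIx q
  · intro a' i' hi'
    have h1 := Ecm_446.NN_mono (κc := κw) (kap := kap) (τ := fun j : JJ Φ Lv => (Mx : ℝ) * j.2.1)
      hfin a' hi'
    exact h1.trans (htop a').le
  · intro j; positivity
  · intro j j' hj
    show (2:ℝ)⁻¹ ^ kap _ = (2:ℝ)⁻¹ ^ kap _
    have : fam' (fmJ Φ Lv) (Rk κw kap) j = fam' (fmJ Φ Lv) (Rk κw kap) j' := hj
    rw [this]

end Crest.Agent.R096.Fin_147
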