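import Crest.Agent.R096.Gia6_537
import Crest.Agent.R096.Arc18_778
import Crest.Agent.R096.Shg7_334
import Crest.Agent.R096.Frn2_337

/-!
# R096 (row 96), GIANTS-INST, part 7 (helper537): the tiny cores over 337's labelled mesh `Lp`

* `zero_core` : the label of the brick `a` is `0` at the cells of the boundary of the core of `a`;
* `embP` : 334's `Emb` for the index type `{c : QK (belK T KK) // pK T KK tl c}` (642, 337);
* `cor2P` : 334's `Cor2` for the cores `Kcs T KK ct` (337);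
* `Sc_eq` : 241's `Sc` is the boundary of the core;
* **`tiny_core`** : the chart of a tiny core from (E1), the squares (241's `sq_sto`) and `MeshEx`.
-/

set_option autoImplicit false
set_option linter.unusedSectionVars false
set_option linter.unusedVariables false
set_option linter.style.longLine false

open Set Filter Topology Metric Module

namespace Crest.Agent.R096.Gia_537

open Crest.Agent.R096.Ce_537 (PLOn PLEquiv cube sph IsBall Cplx)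
open Crest.Agent.R096.Bd_416 Crest.Agent.R096.Mg_441
open Crest.Agent.R096.Brk1_582 Crest.Agent.R096.Brk2_582 Crest.Agent.R096.Brk3_582
open Crest.Agent.R096.Brk5_582
open Crest.Agent.R096.Bsp_628
open Crest.Agent.R096.Grd_714
open Crest.Agent.R096.Xp_537 hiding bc
open Crest.Agent.R096.SkC1_961 (E3 Hom3 FoamD Cfg th NN)
open Crest.Agent.R096.Msh_715
open Crest.Agent.R096.Mbf_337 (KJ sb gau)
open Crest.Agent.R096.Nr_527
open Crest.Agent.R096.Lm_117 Crest.Agent.R096.Cpo_642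
open Crest.Agent.R096.Shg_334 (Emb Cor2)

section zero

variable {δ κ0 R c0 : ℝ} {La Om : Set E3} {ι : Type} {Φ : FoamD δ κ0 R c0 La}
  {T : Tiling Om ι} {f : E3 → E3} {κ1 κ2 : ℝ} {X : Set Φ.F} {J0 Jt V : Φ.F → Set ι} {ct : Φ.F → ι}
  {A : Φ.F → E3 ≃ᵃ[ℝ] E3} {lam : Φ.F → ℝ} {z : Φ.F → E3} {θ : Φ.F → E3 → E3} {φ : Φ.F → E3 → ℝ}

/-- a tile which meets a tiny core is near it -/
theorem mem_V (hC : Mbf_337.Cores Φ T f κ1 κ2 X J0 Jt V ct A lam z θ φ) {a : Φ.F} (ha : a ∉ X)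
    {i : ι} {x : E3} (hx : x ∈ KJ T (Jt a)) (hxi : x ∈ P (T.H i)) : i ∈ V a := by
  by_cases hi : i ∈ Jt a
  · exact J_sub hC a hi
  · have hcl : IsClosed (KJ T (Jt a)) := (Kc_compact hC a).isClosed
    have hfr : x ∈ frontier (KJ T (Jt a)) := by
      rw [hcl.frontier_eq]
      exact ⟨hx, not_mem_interior_KJ hi hxi⟩
    obtain ⟨ρ1, ρ2, ρ3, ρ4, d, hd, -, -, -, -, h34, -, -, -, h5, h6, -⟩ := (hC.tiny a ha).room
    exact h6 i ⟨x, hxi, by have := (h5 x hfr).2; linarith⟩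

/-- **the label `a` is `0` on the tiles which meet the core of `a`** -/
theorem zero_core (hLa : IsOpen La) (hf : Hom3 f Om La) (hκ1 : 0 ≤ κ1) (hκ : κ0 * κ1 < κ2)
    (hC : Mbf_337.Cores Φ T f κ1 κ2 X J0 Jt V ct A lam z θ φ) {a : Φ.F} (ha : a ∉ X)
    {i : ι} (hi : ∀ c, i ∉ J0 c) {x : E3} (hx : x ∈ KJ T (Jt a)) (hxi : x ∈ P (T.H i))
    {x0 : E3} (hx0 : x0 ∈ P (T.H i)) : sb Φ (Φ.Psi (f x0)) a = 0 := by
  have h1 := mem_V hC ha hx hxi
  have h2 : x0 ∈ KJ T (V a) := mem_KJ.2 ⟨i, h1, hx0⟩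
  have h3 := (open_only Φ hLa (V_inside hC h2)).1
  have h4 : Φ.Psi (f x0) ∈ Pc Φ.F a := Psi_mem Φ hLa h3 (not_hole2 hf hκ1 hκ hC (hi a) hx0)
  exact ((foam Φ.bf hLa).sc_eq_zero ((foam Φ.bf hLa).sub a h4)).2 h4

end zero

section emb

variable {E : Type} [NormedAddCommGroup E] [NormedSpace ℝ E] [FiniteDimensional ℝ E]
variable {Om : Set E} {ι κ 𝒢 α : Type} {T : Tiling Om ι} {KK : κ → Set E} {Kc : 𝒢 → Set E}
variable [Nonempty T.Cell] {tα : α → ι} {tl : 𝒢 → ι ⊕ κ}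

/-- **642's index type names the cells outside all cores** -/
theorem embP (R : Cor2 T KK Kc tl) (hR : ∀ i, (∃ b, tα b = i) ↔ ∃ a, tl a = Sum.inl i)
    (h3 : finrank ℝ E = 3) (hH : ∀ c, CoreH T (KK c)) :
    Emb T Kc (fun c : {c : QK (belK T KK) // pK T KK tα c} =>
      dimK (belK T KK) (fun c => c.1.dim) c.1) (celK T KK tα) where
  inj := celK_inj tα
  le := by
    rintro ⟨a | a, ha⟩ ⟨b | b, hb⟩
    · exact Iff.rfl
    · exact hb.elim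
    · exact ha.elim
    · exact ha.elim
  dim := celK_dim tα
  out := by
    intro q
    obtain ⟨h1, h2⟩ := (celK_range tα (celK T KK tα q)).1 ⟨q, rfl⟩
    rcases Nat.lt_or_ge (celK T KK tα q).dim 3 with h | h
    · exact R.out_of h3 hH (by omega) h1
    · have hle : (celK T KK tα q).dim ≤ finrank ℝ E := T.dim_le_finrank _
      obtain ⟨i, hi, hI⟩ := Lm_117.tile_of_dim h3 (c := celK T KK tα q) (by omega)
      have hout : ∀ k, ¬ P (T.H i) ⊆ KK k := by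
        obtain ⟨i0, h4, h5⟩ := h1
        rw [hi] at h5
        rw [Shg_334.tile_sub h5]
        exact h4
      rcases R.cases hout with h4 | ⟨a, ha⟩
      · exact ⟨i, h4, hi.le⟩
      · obtain ⟨b, rfl⟩ := (hR i).2 ⟨a, ha⟩
        exact absurd hi (h2 b)
  sur := by
    intro c hc
    refine (celK_range tα c).2 ⟨R.outK hc, fun b hb => ?_⟩
    obtain ⟨a, ha⟩ := (hR (tα b)).1 ⟨b, rfl⟩
    obtain ⟨q, h1, h2⟩ := hc
    rw [hb] at h2
    have h5 := Shg_334.tile_sub h2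
    exact h1 a (by rw [R.ct a _ ha, ← h5])

end emb

section cor2

open Crest.Agent.R096.Frn_337

variable {δ κ0 R c0 : ℝ} {La Om : Set E3} {ι : Type} {Φ : FoamD δ κ0 R c0 La}
  {T : Tiling Om ι} {f : E3 → E3} {κ1 κ2 : ℝ} {X : Set Φ.F} {J0 Jt V : Φ.F → Set ι} {ct : Φ.F → ι}
  {A : Φ.F → E3 ≃ᵃ[ℝ] E3} {lam : Φ.F → ℝ} {z : Φ.F → E3} {θ : Φ.F → E3 → E3} {φ : Φ.F → E3 → ℝ}
  {ι3 : Type} {T3 : Tiling Om ι3} {KK : Ti X → Set E3} {c3 : ι → ι3}

lemma cti_T {a : Φ.F} (h : a ∉ X) : cti X c3 ct a = Sum.inr ⟨a, h⟩ := by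
  unfold cti
  rw [dif_pos h]

lemma cti_X {a : Φ.F} (h : a ∈ X) : cti X c3 ct a = Sum.inl (c3 (ct a)) := by
  unfold cti
  rw [dif_neg (not_not.2 h)]

lemma Kcs_disj (hLa : IsOpen La) (hC : Mbf_337.Cores Φ T f κ1 κ2 X J0 Jt V ct A lam z θ φ)
    (hL : Lay Φ T X J0 Jt T3 KK c3) {a a' : Φ.F} (hne : a ≠ a') :
    Disjoint (Kcs T KK ct a) (Kcs T KK ct a') :=
  (Kc_disj hLa hC hne).mono (Kcs_sub hC hL a) (Kcs_sub hC hL a')

/-- **the cores** -/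
theorem cor2P (hLa : IsOpen La) (hC : Mbf_337.Cores Φ T f κ1 κ2 X J0 Jt V ct A lam z θ φ)
    (hL : Lay Φ T X J0 Jt T3 KK c3) : Cor2 T3 KK (Kcs T KK ct) (cti X c3 ct) where
  inj := by
    intro a a' h
    by_cases ha : a ∈ X
    · by_cases ha' : a' ∈ X
      · rw [cti_X ha, cti_X ha'] at h
        have h1 := Sum.inl_injective h
        have h2 := tl_eq hC hL ha
        rw [h1, tl_eq hC hL ha'] at h2
        exact ct_inj hC ha ha' (Shg_334.tile_sub h2.le).symm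
      · rw [cti_X ha, cti_T ha'] at h
        cases h
    · by_cases ha' : a' ∈ X
      · rw [cti_T ha, cti_X ha'] at h
        cases h
      · rw [cti_T ha, cti_T ha'] at h
        exact congrArg Subtype.val (Sum.inr_injective h)
  sur k := ⟨k.1, cti_T k.2⟩
  kk a k h := by
    by_cases ha : a ∈ X
    · rw [cti_X ha] at h
      cases h
    · rw [cti_T ha] at h
      have h1 := Sum.inr_injective h
      rw [← h1]
      exact Kcs_T ⟨a, ha⟩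
  ct a i h := by
    by_cases ha : a ∈ X
    · rw [cti_X ha] at h
      rw [← Sum.inl_injective h, tl_eq hC hL ha]
      exact Kcs_X ha
    · rw [cti_T ha] at h
      cases h
  dis a a' hne := Kcs_disj hLa hC hL hne

/-- the exact core tiles -/
lemma tlX_iff (i : ι3) : (∃ b, tlX X c3 ct b = i) ↔ ∃ a, cti X c3 ct a = Sum.inl i := by
  constructor
  · rintro ⟨b, rfl⟩
    exact ⟨b.1, cti_X b.2⟩
  · rintro ⟨a, ha⟩
    by_cases h : a ∈ X
    · rw [cti_X h] at ha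
      exact ⟨⟨a, h⟩, Sum.inl_injective ha⟩
    · rw [cti_T h] at ha
      cases ha

end cor2

/-! ### `Sc` is the boundary of the core -/

section sc

open Crest.Agent.R096.Ac_117 Crest.Agent.R096.Agl5_543

variable {E : Type} [NormedAddCommGroup E] [NormedSpace ℝ E] [FiniteDimensional ℝ E]
variable {Om : Set E} {ι κ 𝒢 : Type} {T : Tiling Om ι} {KK : κ → Set E} {Kc : 𝒢 → Set E}
variable [Nonempty T.Cell] {tl : 𝒢 → ι ⊕ κ}
variable {Q' : Type} [PartialOrder Q'] {dim' : Q' → ℕ} {vl : Q' → T.Cell}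

/-- **241's `Sc` is the boundary of the core** -/
theorem Sc_eq (Em : Emb T Kc dim' vl) (R : Cor2 T KK Kc tl) (h3 : finrank ℝ E = 3)
    (hH : ∀ c, CoreH T (KK c)) (hdis : ∀ c c', c ≠ c' → Disjoint (KK c) (KK c'))
    (L : LM (mK h3 hH hdis) Q' dim') (hcf : ∀ F, vl (L.cf F) = F.1.1) {K : Q' → Set E}
    (hK : ∀ q, K q = (vl q).set) (a : 𝒢) : At_241.Sc L tl K a = frontier (Kc a) := by
  apply Subset.antisymm
  · intro x hx
    obtain ⟨F, hF, hx⟩ := mem_iUnion₂.1 hx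
    rw [hK, hcf] at hx
    exact (R.side h3 hH hdis a F).1 hF hx
  · intro x hx
    obtain ⟨F, hF, hxF⟩ := exists_face h3 (fun a => R.coreH h3 hH a) hx
    obtain ⟨f, hf⟩ := Em.sur F.1 (out_of_frontier (fun a => R.coreH h3 hH a) R.dis hF)
    have h5 := out_face h3 F (R.outK (hf ▸ Em.out f))
    refine mem_iUnion₂.2 ⟨⟨F, h5⟩, (R.side h3 hH hdis a ⟨F, h5⟩).2 hF, ?_⟩
    rw [hK, hcf]
    exact hxF

end sc

/-! ### the tiny cores over `Lp` -/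

section front

open Crest.Agent.R096.Frn_337
open Crest.Agent.R096.St_147 Crest.Agent.R096.Seq_213 Crest.Agent.R096.Ac_117
  Crest.Agent.R096.Cp_298 Crest.Agent.R096.Gm_298 Crest.Agent.R096.Gl_422
  Crest.Agent.R096.SkB_662 Crest.Agent.R096.Agl5_543 Crest.Agent.R096.Ori_543
open Crest.Agent.R096.Init_543 (JJ fr3)
open Crest.Agent.R096.Fin_147 (gr)
open Crest.Agent.R096.Shp_334 (Bls)

variable {δ κ0 R c0 : ℝ} {La Om : Set E3} {ι : Type} {Φ : FoamD δ κ0 R c0 La}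
  {T : Tiling Om ι} {f : E3 → E3} {κ1 κ2 : ℝ} {X : Set Φ.F} {J0 Jt V : Φ.F → Set ι} {ct : Φ.F → ι}
  {A : Φ.F → E3 ≃ᵃ[ℝ] E3} {lam : Φ.F → ℝ} {z : Φ.F → E3} {θ : Φ.F → E3 → E3} {φ : Φ.F → E3 → ℝ}
  {ι3 : Type} {T3 : Tiling Om ι3} {KK : Ti X → Set E3} {c3 : ι → ι3}
variable [Nonempty T3.Cell] {hH : ∀ k, CoreH T3 (KK k)}
    {hdis : ∀ k k', k ≠ k' → Disjoint (KK k) (KK k')} {hne : ∃ c, OutK T3 KK c}
    {Lv : Φ.F → Finset ℝ} {Qd : Quads (ι3 ⊕ Ti X) Φ.F (Init_543.QK (Pc Φ.F))}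
    {s₀ : GSt (mK fr3 hH hdis) (fun j : JJ Φ Lv => j.1)} {far₀ : JJ Φ Lv → Set E3}
    {Gc : Φ.F → Set E3} {Zc : Φ.F → Set (QK (belK T3 KK))}
    {lam₀ : JJ Φ Lv → QK (belK T3 KK) → ZMod 2} {v₀ v₁ : Φ.F → QK (belK T3 KK)}
    {κ : Φ.F → ℕ}
    {hfin : ∀ a, {j : JJ Φ Lv | j.1 = a}.Finite} {kap : Φ.F → ℕ}
    {s : GSt (mK fr3 hH hdis) (fam' (fun j : JJ Φ Lv => j.1) (Rk κ kap))}
    {far : Nm' (fun j : JJ Φ Lv => j.1) (Rk κ kap) → Set E3} {β : E3 → E3}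
    {lm : Nm' (fun j : JJ Φ Lv => j.1) (Rk κ kap) → {c : QK (belK T3 KK) // pO T3 KK c3 ct c} → ZMod 2}

theorem cf_Lp (F : {F : C2 T3 // ¬ (((meshC T3 fr3).side F).map (piK T3 KK)).IsDiag}) :
    celK T3 KK (tlX X c3 ct) ((Lp c3 ct hH hdis hne).cf F) = F.1.1 := rfl

/-- **BLOCK `tiny` of 147's `fin_st` / `fin_stG` over 337's `Lp`** -/
theorem tiny_front (hLa : IsOpen La) (hf : Hom3 f Om La) (hs : Small δ κ0 R κ1 κ2)
    (hC : Mbf_337.Cores Φ T f κ1 κ2 X J0 Jt V ct A lam z θ φ)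
    (hL : Lay Φ T X J0 Jt T3 KK c3)
    (hFr : Front T f J0 Jt V ct c3 hH hdis hne Qd s₀ far₀ Gc Zc lam₀ v₀ v₁)
    (hκ : ∀ m, {c | κ c ≤ m}.Finite)
    (h : StO (Lp c3 ct hH hdis hne) (oriK fr3 hH hdis) (fun c => tauK T3 KK c.1) (RelM T3)
      (lmK fr3 hH hdis hne).W1 Qd κ s₀ far₀ (fun c => {v | v.1 ∈ Zc c})
      (fun j v => lam₀ j v.1) (fun c => sv (pO T3 KK c3 ct) (pO_ne hne) (v₀ c))
      (fun c => sv (pO T3 KK c3 ct) (pO_ne hne) (v₁ c)) hfin kap s far β lm)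
    {hf1 : ∀ a, {j | h.cmb.fam j = a}.Finite} (hm : ∀ a, 0 < mm hf1 a)
    (hneP : ∀ c : Φ.F, (Pc Φ.F c).Nonempty) (q0 : Cel (Pc Φ.F) (mm hf1))
    {Gf : Gd E3 (Nm' (fun j : JJ Φ Lv => j.1) (Rk κ kap))} {Pp : ∀ q, h.cmb.I q → Set E3}
    {cc : ∀ q, h.cmb.I q → E3 → ℝ}
    (H : Inv h.cmb (fun q => setK T3 KK q.1) univ Gf Pp cc)
    (hB : ∀ j, Bls h.cmb (fun q => setK T3 KK q.1) cc j)
    {κf : ℝ} (hκf : 0 < κf ∧ κf < 1) {a : Φ.F} (ha : a ∉ X)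
    (sq : ∀ q : Gx (Pc Φ.F) (mm hf1), q.free.ncard = 2 → q.hi a = 0 →
      ∃ x, {w | w ∈ At_241.Sc (Lp c3 ct hH hdis hne) (cti X c3 ct) (fun q => setK T3 KK q.1) a ∧
        gG (Tq (bc (F := Φ.F)) (mm hf1)) (merge hf1 Gf) w = (gr Φ hLa hneP hm).b (.gr q)} = {x}) :
    ∃ Th : PLEquiv (Kcs T KK ct a) (coreF (gr Φ hLa hneP hm) κf (.top a) 0),
      (∀ x ∈ Kcs T KK ct a, x ∈ frontier (Kcs T KK ct a) ↔
        sl (gr Φ hLa hneP hm) κf (Th.f x) (.top a) = 0) ∧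
      ∀ x ∈ frontier (Kcs T KK ct a),
        gG (Tq (bc (F := Φ.F)) (mm hf1)) (merge hf1 Gf) x =
          cG (gr Φ hLa hneP hm) κf Th.f x ∧
        gtop hm q0 (merge hf1 Gf) x = ctop (gr Φ hLa hneP hm) κf (.top a) Th.f x ∧
        ∀ u ∈ (gr Φ hLa hneP hm).cell (gtop hm q0 (merge hf1 Gf) x),
          gtr (co (Pc Φ.F) (bc (F := Φ.F)) (mm hf1)) (merge hf1 Gf) x u =
            ctr (gr Φ hLa hneP hm) κf Th.f Th.g x u := by
  have Rc : Cor2 T3 KK (Kcs T KK ct) (cti X c3 ct) := cor2P hLa hC hL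
  have Em : Emb T3 (Kcs T KK ct) (fun c : {c : QK (belK T3 KK) // pO T3 KK c3 ct c} =>
      dimK (belK T3 KK) (fun c => c.1.dim) c.1) (celK T3 KK (tlX X c3 ct)) :=
    embP Rc (fun i => tlX_iff i) fr3 hH
  have hcoreH : ∀ a, CoreH T3 (Kcs T KK ct a) := fun a => Rc.coreH fr3 hH a
  have hKeq : (fun q : {c : QK (belK T3 KK) // pO T3 KK c3 ct c} => setK T3 KK q.1) =
      fun q => (celK T3 KK (tlX X c3 ct) q).set := funext fun q => celK_set _ q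
  have Xc := Em.cplx hcoreH Rc.dis
  have G := Em.gc fr3 hcoreH Rc.dis (fun a => Rc.ball fr3 hL.ball a)
  rw [← hKeq] at Xc G
  have hneQ : Nonempty {c : QK (belK T3 KK) // pO T3 KK c3 ct c} := by
    obtain ⟨c, hc⟩ := pO_ne (c3 := c3) (ct := ct) hne
    exact ⟨⟨c, hc⟩⟩
  have hon : ∀ w ∈ s.P, w ∈ (Lp c3 ct hH hdis hne).toSk.W1 := fun w hw => (hFr.stI hκ).V1 (h.PV hw)
  have D : ∀ j, Shg_334.DicO h.cmb s j (Lp c3 ct hH hdis hne).cf
      (Shg_334.ordX T3 (Ti X) (Kcs T KK ct)) := fun j =>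
    Em.dic fr3 hH hdis Rc (Lp c3 ct hH hdis hne) cf_Lp hneQ h.lfs (On_441.Lf lm)
      (On_441.xlf h.lab.lab) j (fun w hw _ => hon w hw)
  have Gn := fun j => Em.gnt fr3 hH hdis Rc (Lp c3 ct hH hdis hne) cf_Lp (s := s) (j := j)
    fun a => Arc_778.one_out h hFr.inv (fun k => hFr.actK k a) (hFr.one a j.1)
  have OK : GridOK (gr Φ hLa hneP hm) (Tq (bc (F := Φ.F)) (mm hf1))
      (co (Pc Φ.F) (bc (F := Φ.F)) (mm hf1)) := gridOK _ _ _ _
  have hO := On_441.ordF h.lab h.lfs h.fin1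
  have hℓ := On_441.ordF_ne h.lab h.fin1
  have hfr : (⋃ q ∈ Em.bd.bq a, setK T3 KK q.1) = frontier (Kcs T KK ct a) := by
    have h1 := Em.bd_union hcoreH Rc.dis a
    rw [← h1]
    exact iUnion₂_congr fun q _ => celK_set _ q
  have hSc : At_241.Sc (Lp c3 ct hH hdis hne) (cti X c3 ct) (fun q => setK T3 KK q.1) a =
      ⋃ q ∈ Em.bd.bq a, setK T3 KK q.1 := by
    rw [hfr]
    exact Sc_eq Em Rc fr3 hH hdis (Lp c3 ct hH hdis hne) cf_Lp (fun q => celK_set _ q) a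
  rw [hSc] at sq
  have hex := hFr.meshEx hκ h
  have hzero : ∀ q ∈ Em.bd.bq a, ∃ y, Ex h.cmb (Pc Φ.F) q y ∧ y a = 0 := by
    intro q hq
    obtain ⟨i, hi, hKi, x0, hx0, he⟩ := hex q (mem_univ q)
    have hq' : setK T3 KK q.1 ⊆ frontier (Kcs T KK ct a) := by
      rw [celK_set (tlX X c3 ct) q]; exact hq
    obtain ⟨x, hx⟩ : (setK T3 KK q.1).Nonempty := by
      rw [celK_set (tlX X c3 ct) q]
      exact ⟨_, set_ne _⟩
    refine ⟨_, he, zero_core hLa hf hs.k1 hs.c hC ha hi (x := x) ?_ (hKi hx) hx0⟩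
    exact Kcs_sub hC hL a ((Kcs_closed hL a).frontier_subset (hq' hx))
  have hOn : At_241.OnS hf1 (Pc Φ.F) (fun q : {c : QK (belK T3 KK) // pO T3 KK c3 ct c} =>
      setK T3 KK q.1) Gf (Tq (bc (F := Φ.F)) (mm hf1))
      (gG (Tq (bc (F := Φ.F)) (mm hf1)) (merge hf1 Gf)) (⋃ q ∈ Em.bd.bq a, setK T3 KK q.1) := by
    refine At_241.OnS.of_ex H (fun w hw => ?_) fun w _ => rfl
    obtain ⟨q, hq, hwq⟩ := mem_iUnion₂.1 hw
    obtain ⟨y, hy, -⟩ := hzero q hq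
    exact ⟨q, y, hwq, hy⟩
  refine Arc_778.chart_D hLa (by simp) (foam4 Φ hLa) hm H OK hO hℓ q0 Xc G a hfr hzero ?_ sq hκf
  intro j hj hmeet
  refine Arc_778.circ_giant H Xc G (hB j) (D j) (Gn j) a ?_
  exact exists_piece H OK hO hℓ hm hOn sq hj
    (exists_four Φ.bf hLa (by simp) (fun e => hj e.symm) hmeet) rfl

end front

end Crest.Agent.R096.Gia_537
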