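import Mathlib
import Crest.Agent.R096.Csub9_487
import Crest.Agent.R096.Mi5_117

/-!
# R096 (row 96), helper487.  The mixed mesh over the final state (534 #11119 (M1)).

* `exists_deltaM` : tolerances `δ`, monotone, below any positive function, and at most the weighted
  number of every cell around which has points at all;
* `mesh_instT_cores` : 117's `mesh_instT` with the bases of the cores (416's `base_all`);
* `StO.meshX` : the same over the final state, `K₀ = K0x (⋃ D i) Kb KN`;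
* `tile_clauseX`, `tile_clauseN` : the clause `tile` of `fin_st`.
-/

set_option autoImplicit false
set_option linter.unusedSectionVars false
set_option linter.style.longLine false

open Set Metric Filter Topology Module

namespace Crest.Agent.R096.Mxo_487

open Crest.Agent.R096.St_147 Crest.Agent.R096.Seq_213 Crest.Agent.R096.Seq_213.GSt
  Crest.Agent.R096.Bd_416 Crest.Agent.R096.Mg_441 Crest.Agent.R096.Lm_117
  Crest.Agent.R096.Cp_298 Crest.Agent.R096.Gl_422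
  Crest.Agent.R096.On_441 Crest.Agent.R096.SkB_662 Crest.Agent.R096.Ce_537
  Crest.Agent.R096.Arc_778
open Crest.Agent.R096.Msh_715 Crest.Agent.R096.Ecm_446 Crest.Agent.R096.Csub_487
open Crest.Agent.R096.SkC1_961 (E3 FoamD)
open Crest.Agent.R096.Fl_835 (wk)
open Crest.Agent.R096.Mi_117
open Crest.Agent.R96.Nu1_199 Crest.Agent.R96.Nu2_199 Crest.Agent.R96.Nu3_199
  Crest.Agent.R96.Nu4_199 Crest.Agent.R96.Nu5_199 Crest.Agent.R96.Nu6_199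
open Crest.Agent.R96.Nu7_199 (WE WE_nonneg finite_above)
open Crest.Agent.R096.Nk_955 Crest.Agent.R096.Be_416 Crest.Agent.R096.Mxs_487

open scoped Classical

/-! ### tolerances -/

section delta

variable {Q : Type} [PartialOrder Q] {dim : Q → ℕ} {J Fam : Type}
variable {E : Type*} [NormedAddCommGroup E] [NormedSpace ℝ E] [FiniteDimensional ℝ E]
variable {K : Q → Set E} {Ω : Set E}

/-- a monotone positive function below a positive function -/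
theorem exists_mono_below (X : Cplx Ω Q dim K) (f : Q → ℝ) (hf : ∀ q, 0 < f q) :
    ∃ δ : Q → ℝ, (∀ q, 0 < δ q) ∧ (∀ q, δ q ≤ f q) ∧ ∀ σ τ : Q, σ ≤ τ → δ σ ≤ δ τ := by
  have hne : ∀ σ : Q, (f '' {τ | σ ≤ τ}).Nonempty := fun σ => ⟨f σ, σ, le_rfl, rfl⟩
  have hfin : ∀ σ : Q, (f '' {τ | σ ≤ τ}).Finite := fun σ => (finite_above X σ).image f
  refine ⟨fun σ => sInf (f '' {τ | σ ≤ τ}), fun σ => ?_, fun σ => ?_, fun σ τ h => ?_⟩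
  · obtain ⟨τ, -, h⟩ := (hne σ).csInf_mem (hfin σ)
    show 0 < sInf (f '' {τ | σ ≤ τ})
    rw [← h]; exact hf τ
  · exact csInf_le (hfin σ).bddBelow ⟨σ, le_rfl, rfl⟩
  · exact csInf_le_csInf (hfin σ).bddBelow (hne τ) (image_mono fun ρ h' => h.trans h')

/-- **the tolerances** -/
theorem exists_deltaM (X : Cplx Ω Q dim K) (C : Cmb Q dim J Fam) (wt : J → ℝ) (d0 : Q → ℝ)
    (hd0 : ∀ q, 0 < d0 q) :
    ∃ δ : Q → ℝ, (∀ q, 0 < δ q) ∧ (∀ q, δ q ≤ d0 q) ∧ (∀ σ τ : Q, σ ≤ τ → δ σ ≤ δ τ) ∧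
      ∀ q, 0 < WE X C wt q → ∀ σ ≤ q, δ σ ≤ WE X C wt q := by
  obtain ⟨δ, h1, h2, h3⟩ := exists_mono_below X
    (fun q => min (d0 q) (if 0 < WE X C wt q then WE X C wt q else 1)) fun q => by
      refine lt_min (hd0 q) ?_
      split_ifs with h
      · exact h
      · exact one_pos
  refine ⟨δ, h1, fun q => (h2 q).trans (min_le_left _ _), h3, fun q hq σ hσ => ?_⟩
  have h4 := (h2 q).trans (min_le_right _ _)
  rw [if_pos hq] at h4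
  exact (h3 σ q hσ).trans h4

end delta

/-! ### the mesh over the bases of the cores -/

section lm

variable {ι Φ W Q J Fm : Type} {M : MeshC ι Φ W} [PartialOrder Q] {dim : Q → ℕ}
variable {L : LM M Q dim} {fam : J → Fm} {s : GSt M fam}
variable {E : Type*} [NormedAddCommGroup E] [NormedSpace ℝ E] [FiniteDimensional ℝ E]
variable {h : LF L s} {Lam : J → Q → ZMod 2} {hLam : ∀ j c, L.toSk.XL (gP s j) (Lam j) c}
variable {K : Q → Set E} {Ω : Set E} {ε Kb KN : ℝ} {b : ℕ → ℝ} {wt : J → ℝ} {δ : Q → ℝ}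
variable {Ic : Type} {S : Ic → Set E} {D : Ic → Set Q} {gb : Ic → Gd E J}
  {Pb : Ic → ∀ q, (cmb h Lam hLam).I q → Set E} {cb : Ic → ∀ q, (cmb h Lam hLam).I q → E → ℝ}

/-- **MESH-INST, mixed form, over the cores** `i : Ic` with their bases `gb i, Pb i, cb i` on the
cells `D i` -/
theorem mesh_instT_cores (X : Cplx Ω Q dim K) (T : Top3 L) (hconv : ∀ τ, Convex ℝ (K τ))
    (hcpt : ∀ τ, IsCompact (K τ)) (hbd : ∀ τ, bdS K τ = K τ \ ri (K τ))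
    (hw : ∀ j, 0 < wt j) (hb0 : ∀ n, 0 < b n) (hb2 : ∀ n, b n < 1/2) (hε0 : 0 < ε) (hε1 : ε < 1)
    {δm : ℝ} (hδm : 0 ≤ δm) (hδm1 : δm < 1) {ε' : ℝ} (hε'0 : 0 < ε') (hε'1 : ε' < 1)
    (hKb : 0 ≤ Kb) (hKN : 0 ≤ KN) (hS : ∀ i i', i ≠ i' → Disjoint (S i) (S i'))
    (hK : ∀ i, ∀ q ∈ D i, K q ⊆ S i)
    (B : ∀ i, BaseC (cmb h Lam hLam) K wt Kb (D i) (gb i) (Pb i) (cb i))
    (hδ : ∀ q, 0 < δ q)
    (N : Set Q) (hN2 : ∀ τ ∈ N, 2 ≤ dim τ)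
    {th : Q → ℝ} (hth0 : ∀ τ, 0 < th τ) (hth1 : ∀ τ, th τ ≤ 1)
    (hth : ∀ τ ∉ ⋃ i, D i, τ ∉ N → 2 ≤ dim τ → th τ = 1)
    (hε' : ∀ τ ∉ ⋃ i, D i, dim τ = 1 → 1 - ε' ≤ (1 - δm) * (1 - ε) * th τ)
    (SpecX : ∀ q, Bd_416.Lam (K q) ((cmb h Lam hLam).I q) → Prop)
    (hX0 : ∀ τ ∉ ⋃ i, D i, dim τ = 0 → ∀ M, SpecX τ M)
    (hX1 : ∀ τ ∉ ⋃ i, D i, dim τ = 1 → ∀ (e : PLEquiv (cube 1) (K τ)), AffC e →
      e.f '' sph 1 = bdS K τ →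
      e.f (fun _ => -1) ∈ K ((cmb h Lam hLam).o τ) → ∀ (p : (cmb h Lam hLam).I τ → ℝ)
      (hE : Ed (fun i => 4 * (1 - δm) * (1 - ε) * (th τ * uq (cmb h Lam hLam) wt δ τ) *
        wt ((cmb h Lam hLam).col τ i)) p),
      (∀ i, |p i| + 4 * (1 - δm) * (1 - ε) * (th τ * uq (cmb h Lam hLam) wt δ τ) *
        wt ((cmb h Lam hLam).col τ i) / 2 < 1 - δm) →
      (∀ i j, ek h τ j < ek h τ i → p j < p i) →
      SpecX τ ((edgeLam hE).pull e.symm (X.isClosed τ)))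
    (hX2 : ∀ D' g P c (H : Inv (cmb h Lam hLam) K D' g P c), ∀ τ, 2 ≤ dim τ →
      (∀ q ∈ D', TrkX X (⋃ i, D i) (ug S gb) (uP D Pb) (uc D cb) SpecX
        (K0x (⋃ i, D i) Kb KN) δ ε' b wt (dim τ) g P c q) →
      ∀ (_ : τ ∉ ⋃ i, D i) (_ : τ ∉ N) (hτ : ∀ σ < τ, σ ∈ D') (κ : ℝ)
      (ρ : (cmb h Lam hLam).I τ → ℝ)
      (Dp : Dep (bdLam H X τ hτ) κ (b (dim τ)) (fun x => (th τ * uq (cmb h Lam hLam) wt δ τ) *
        wt ((cmb h Lam hLam).col τ x)) ρ),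
      (∀ x x', RlG (cmb h Lam hLam) K c τ x x' → ρ x' < ρ x) →
      ∀ (e : PLEquiv (cube (dim τ)) (K τ)) (he : e.f '' sph (dim τ) = bdS K τ),
      SpecX τ (Dp.fillBall e he))
    (ruleN : ∀ D' g P c (H : Inv (cmb h Lam hLam) K D' g P c), ∀ τ ∈ N,
      (∀ q ∈ D', TrkX X (⋃ i, D i) (ug S gb) (uP D Pb) (uc D cb) SpecX
        (K0x (⋃ i, D i) Kb KN) δ ε' b wt (dim τ) g P c q) →
      τ ∉ ⋃ i, D i → ∀ hτ : ∀ σ < τ, σ ∈ D',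
      ∃ (e' : PLEquiv (cube (dim τ)) (K τ)) (he' : e'.f '' sph (dim τ) = bdS K τ)
        (κ : ℝ) (h' ρ : (cmb h Lam hLam).I τ → ℝ) (Dp : Dep (bdLam H X τ hτ) κ (b (dim τ)) h' ρ),
        (∀ x x', RlG (cmb h Lam hLam) K c τ x x' → ρ x' < ρ x) ∧ SpecX τ (Dp.fillBall e' he') ∧
        ∀ B : E ≃ᵃ[ℝ] E, ∀ x, ∀ z ∈ K τ,
          LB B (K0x (⋃ i, D i) Kb KN τ * (AAc (dim τ) (B '' K τ) *
            (Wd (cmb h Lam hLam) wt τ + δ τ)) / wt ((cmb h Lam hLam).col τ x))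
            ((Dp.fillBall e' he').c x) (K τ) z) :
    ∃ g P c, Inv (cmb h Lam hLam) K univ g P c ∧ MGeo h Lam hLam K (⋃ i, D i) c ∧
      (∀ q, TrkX X (⋃ i, D i) (ug S gb) (uP D Pb) (uc D cb) SpecX
        (K0x (⋃ i, D i) Kb KN) δ ε' b wt 4 g P c q) ∧
      ∀ i, ∀ q ∈ D i, ∀ z ∈ K q, EqAt (sqs (gb i) b 4) g z := by
  have hne : ∀ q, (K q).Nonempty := fun q => (X.isBall q).nonempty
  obtain ⟨BB, hE⟩ := base_all hS hK hne B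
  obtain ⟨g, P, c, H, G, hT⟩ := mesh_instT X T hconv hcpt hbd hw hb0 hb2 hε0 hε1 hδm hδm1
    hε'0 hε'1 N hN2 hth0 hth1 hth hε' (K0x_nonneg hKN) (fun σ τ hστ => K0x_mono hKb hστ.le) hδ
    BB (fun q hq => le_K0x_of_mem hq) SpecX hX0 hX1 hX2 ruleN
  exact ⟨g, P, c, H, G, hT, fun i q hq z hz =>
    (eqAt_sqs (hE i q hq z hz) hb0 hb2 4).trans ((hT q).eqR (mem_iUnion.2 ⟨i, hq⟩) z hz)⟩

end lm

/-! ### the final state -/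

section sto

variable {ι Φc Q J Kq C : Type} {W : Type} {M : MeshC ι Φc W} [PartialOrder Q] {dim : Q → ℕ}
  {L : LM M Q dim} {O : Ori M} {τ : Q → ZMod 2} {Rel : W → W → Prop} {Vc : Set W}
  {Qd : Quads ι C Kq} {κ : C → ℕ} {fam : J → C} {s₀ : GSt M fam} {far₀ : J → Set W}
  {Z : C → Set Q} {lam₀ : J → Q → ZMod 2} {v₀ v₁ : C → Q}
  {hfin : ∀ a, {j | fam j = a}.Finite} {kap : C → ℕ} {s : GSt M (fam' fam (Rk κ kap))}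
  {far : Nm' fam (Rk κ kap) → Set W} {β : W → W} {lam : Nm' fam (Rk κ kap) → Q → ZMod 2}
variable {E : Type*} [NormedAddCommGroup E] [NormedSpace ℝ E] [FiniteDimensional ℝ E]
variable {K : Q → Set E} {Ω : Set E} {ε Kb KN : ℝ} {b : ℕ → ℝ}

/-- **THE MIXED MESH OVER THE FINAL STATE** (534 #11119 (M1)); the tolerances come first, they are
monotone and below a given positive function -/
theorem StO.meshX (h : StO L O τ Rel Vc Qd κ s₀ far₀ Z lam₀ v₀ v₁ hfin kap s far β lam)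
    {Ic : Type} {S : Ic → Set E} {D : Ic → Set Q} {gb : Ic → Gd E (Nm' fam (Rk κ kap))}
    {Pb : Ic → ∀ q, h.cmb.I q → Set E} {cb : Ic → ∀ q, h.cmb.I q → E → ℝ}
    (X : Cplx Ω Q dim K) (T : Top3 L) (hconv : ∀ τ, Convex ℝ (K τ))
    (hcpt : ∀ τ, IsCompact (K τ)) (hbd : ∀ τ, bdS K τ = K τ \ ri (K τ))
    (hb0 : ∀ n, 0 < b n) (hb2 : ∀ n, b n < 1/2) (hε0 : 0 < ε) (hε1 : ε < 1)
    {δm : ℝ} (hδm : 0 ≤ δm) (hδm1 : δm < 1) {ε' : ℝ} (hε'0 : 0 < ε') (hε'1 : ε' < 1)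
    (hKb : 0 ≤ Kb) (hKN : 0 ≤ KN) (hS : ∀ i i', i ≠ i' → Disjoint (S i) (S i'))
    (hK : ∀ i, ∀ q ∈ D i, K q ⊆ S i)
    (B : ∀ i, BaseC h.cmb K (wts κ kap fam) Kb (D i) (gb i) (Pb i) (cb i))
    (d0 : Q → ℝ) (hd0 : ∀ q, 0 < d0 q) :
    ∃ δ : Q → ℝ, (∀ q, 0 < δ q) ∧ (∀ q, δ q ≤ d0 q) ∧ (∀ σ τ : Q, σ ≤ τ → δ σ ≤ δ τ) ∧
      (∀ q, 0 < WE X h.cmb (wts κ kap fam) q → ∀ σ ≤ q, δ σ ≤ WE X h.cmb (wts κ kap fam) q) ∧
      ∀ (N : Set Q) (_ : ∀ τ ∈ N, 2 ≤ dim τ)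
      (th : Q → ℝ) (_ : ∀ τ, 0 < th τ) (_ : ∀ τ, th τ ≤ 1)
      (_ : ∀ τ ∉ ⋃ i, D i, τ ∉ N → 2 ≤ dim τ → th τ = 1)
      (_ : ∀ τ ∉ ⋃ i, D i, dim τ = 1 → 1 - ε' ≤ (1 - δm) * (1 - ε) * th τ)
      (SpecX : ∀ q, Bd_416.Lam (K q) (h.cmb.I q) → Prop)
      (_ : ∀ τ ∉ ⋃ i, D i, dim τ = 0 → ∀ M, SpecX τ M)
      (_ : ∀ τ ∉ ⋃ i, D i, dim τ = 1 → ∀ (e : PLEquiv (cube 1) (K τ)), AffC e →
        e.f '' sph 1 = bdS K τ →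
        e.f (fun _ => -1) ∈ K (h.cmb.o τ) → ∀ (p : h.cmb.I τ → ℝ)
        (hE : Ed (fun i => 4 * (1 - δm) * (1 - ε) * (th τ * uq h.cmb (wts κ kap fam) δ τ) *
          wts κ kap fam (h.cmb.col τ i)) p),
        (∀ i, |p i| + 4 * (1 - δm) * (1 - ε) * (th τ * uq h.cmb (wts κ kap fam) δ τ) *
          wts κ kap fam (h.cmb.col τ i) / 2 < 1 - δm) →
        (∀ i j, ek h.lfs τ j < ek h.lfs τ i → p j < p i) →
        SpecX τ ((edgeLam hE).pull e.symm (X.isClosed τ)))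
      (_ : ∀ D' g P c (H : Inv h.cmb K D' g P c), ∀ τ, 2 ≤ dim τ →
        (∀ q ∈ D', TrkX (h := h.lfs) (Lam := Lf lam) (hLam := xlf h.lab.lab) X (⋃ i, D i)
          (ug S gb) (uP D Pb) (uc D cb) SpecX (K0x (⋃ i, D i) Kb KN) δ ε' b (wts κ kap fam)
          (dim τ) g P c q) →
        ∀ (_ : τ ∉ ⋃ i, D i) (_ : τ ∉ N) (hτ : ∀ σ < τ, σ ∈ D') (κ' : ℝ)
        (ρ : h.cmb.I τ → ℝ)
        (Dp : Dep (bdLam H X τ hτ) κ' (b (dim τ)) (fun x =>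
          (th τ * uq h.cmb (wts κ kap fam) δ τ) * wts κ kap fam (h.cmb.col τ x)) ρ),
        (∀ x x', RlG h.cmb K c τ x x' → ρ x' < ρ x) →
        ∀ (e : PLEquiv (cube (dim τ)) (K τ)) (he : e.f '' sph (dim τ) = bdS K τ),
        SpecX τ (Dp.fillBall e he))
      (_ : ∀ D' g P c (H : Inv h.cmb K D' g P c), ∀ τ ∈ N,
        (∀ q ∈ D', TrkX (h := h.lfs) (Lam := Lf lam) (hLam := xlf h.lab.lab) X (⋃ i, D i)
          (ug S gb) (uP D Pb) (uc D cb) SpecX (K0x (⋃ i, D i) Kb KN) δ ε' b (wts κ kap fam)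
          (dim τ) g P c q) →
        τ ∉ ⋃ i, D i → ∀ hτ : ∀ σ < τ, σ ∈ D',
        ∃ (e' : PLEquiv (cube (dim τ)) (K τ)) (he' : e'.f '' sph (dim τ) = bdS K τ)
          (κ' : ℝ) (h' ρ : h.cmb.I τ → ℝ) (Dp : Dep (bdLam H X τ hτ) κ' (b (dim τ)) h' ρ),
          (∀ x x', RlG h.cmb K c τ x x' → ρ x' < ρ x) ∧ SpecX τ (Dp.fillBall e' he') ∧
          ∀ B : E ≃ᵃ[ℝ] E, ∀ x, ∀ z ∈ K τ,
            LB B (K0x (⋃ i, D i) Kb KN τ * (AAc (dim τ) (B '' K τ) *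
              (Wd h.cmb (wts κ kap fam) τ + δ τ)) / wts κ kap fam (h.cmb.col τ x))
              ((Dp.fillBall e' he').c x) (K τ) z),
      ∃ g P c, Inv h.cmb K univ g P c ∧ MGeo h.lfs (Lf lam) (xlf h.lab.lab) K (⋃ i, D i) c ∧
        (∀ q, TrkX (h := h.lfs) (Lam := Lf lam) (hLam := xlf h.lab.lab) X (⋃ i, D i) (ug S gb)
          (uP D Pb) (uc D cb) SpecX (K0x (⋃ i, D i) Kb KN) δ ε' b (wts κ kap fam) 4 g P c q) ∧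
        ∀ i, ∀ q ∈ D i, ∀ z ∈ K q, EqAt (sqs (gb i) b 4) g z := by
  obtain ⟨δ, h1, h2, h3, h4⟩ := exists_deltaM X h.cmb (wts κ kap fam) d0 hd0
  exact ⟨δ, h1, h2, h3, h4, fun N hN2 th hth0 hth1 hth hε' SpecX hX0 hX1 hX2 ruleN =>
    mesh_instT_cores (h := h.lfs) (Lam := Lf lam) (hLam := xlf h.lab.lab) X T hconv hcpt hbd
      (fun j => by positivity) hb0 hb2 hε0 hε1 hδm hδm1 hε'0 hε'1 hKb hKN hS hK B h1 N hN2 hth0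
      hth1 hth hε' SpecX hX0 hX1 hX2 ruleN⟩

end sto

/-! ### the clause `tile` -/

section tile

variable {δf κ0 Rf cf : ℝ} {La Om Om' Ω' : Set E3} {ιt ι3 : Type}
variable {ι Φc Q J Kq : Type} {M : MeshC ι Φc E3} [PartialOrder Q] {dim : Q → ℕ}
  {Φ : FoamD δf κ0 Rf cf La} {Tl : Tiling Om ιt} {T3 : Tiling Om' ι3}
  {L : LM M Q dim} {O : Ori M} {τ : Q → ZMod 2} {Rel : E3 → E3 → Prop} {Vc : Set E3}
  {Qd : Quads ι Φ.F Kq} {κ : Φ.F → ℕ} {fam : J → Φ.F} {s₀ : GSt M fam} {far₀ : J → Set E3}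
  {Z : Φ.F → Set Q} {lam₀ : J → Q → ZMod 2} {v₀ v₁ : Φ.F → Q}
  {hfin : ∀ a, {j | fam j = a}.Finite} {kap : Φ.F → ℕ} {s : GSt M (fam' fam (Rk κ kap))}
  {far : Nm' fam (Rk κ kap) → Set E3} {β : E3 → E3} {lam : Nm' fam (Rk κ kap) → Q → ZMod 2}
  {K : Q → Set E3} {ε Kb KN : ℝ} {b : ℕ → ℝ} {δ : Q → ℝ} {R : Set Q} {cell : Q → T3.Cell}
  {V : Φ.F → Set ιt}

/-- **one tile, any bound of `K₀ q`** -/
theorem tile_one (h : StO L O τ Rel Vc Qd κ s₀ far₀ Z lam₀ v₀ v₁ hfin kap s far β lam)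
    (X : Cplx Ω' Q dim K) (hI : CellIx T3 dim K cell)
    (hb4 : ∀ n, 1/4 ≤ b n) {ε₁ : ℝ} (hε : ε ≤ ε₁) (hε1 : ε₁ < 1) {K₀ : Q → ℝ}
    (hK : ∀ q, 0 ≤ K₀ q) (hδ : ∀ q, 0 < δ q)
    (hδ2 : ∀ q, 0 < WE X h.cmb (wk κ kap fam) q → ∀ σ ≤ q, δ σ ≤ WE X h.cmb (wk κ kap fam) q)
    {SpecX : ∀ q, Bd_416.Lam (K q) (h.cmb.I q) → Prop}
    {g0 g : Gd E3 (Nm' fam (Rk κ kap))} {Pp0 Pp : ∀ q, h.cmb.I q → Set E3}
    {c0 c : ∀ q, h.cmb.I q → E3 → ℝ} {i3 : ι3} {i : ιt}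
    (h0 : P (T3.H i3) = P (Tl.H i)) (hcc : ∀ x ∈ P (Tl.H i), T3.cc x = Tl.cc x)
    {q : Q} (hq : K q = P (T3.H i3))
    (hT : TrkX (h := h.lfs) (Lam := Lf lam) (hLam := xlf h.lab.lab) X R g0 Pp0 c0 SpecX K₀
      δ ε b (wk κ kap fam) 4 g Pp c q) {K₁ : ℝ} (hK1 : K₀ q ≤ K₁)
    (B : E3 ≃ᵃ[ℝ] E3) (x : h.cmb.I q) {y : E3} (hy : y ∈ K q) :
    LB B (2 * CUe K₁ ε₁ 3 ((fun K => B '' K) '' SkC1_961.Cfg Tl i) *
      WE X h.cmb (wk κ kap fam) q / wk κ kap fam (h.cmb.col q x)) (c q x) (K q) y := by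
  have e1 : (fun K => B '' K) '' Crest.Agent.R96.Nu8_199.Cfg Tl i =
      Crest.Agent.R96.Nu8_199.CfgB T3 i3 B := by
    show _ = (fun K => B '' K) '' Crest.Agent.R96.Nu8_199.Cfg T3 i3
    rw [cfg_congr h0 hcc]
  exact LB_tile_mix (h := h.lfs) (Lam := Lf lam) (hLam := xlf h.lab.lab) hI (by simp) X
    (Fl_835.wk_pos κ kap fam) hb4 hε hε1 hK hδ hδ2 hq hT hK1 B e1 x hy

/-- **the clause `tile` of `fin_st`, mixed mesh**: constant `2 * CUe (max KN Kb) ε₁ 3` -/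
theorem tile_clauseX (h : StO L O τ Rel Vc Qd κ s₀ far₀ Z lam₀ v₀ v₁ hfin kap s far β lam)
    (X : Cplx Ω' Q dim K) (hI : CellIx T3 dim K cell) (hO : OnT T3 L.toSk cell)
    (hb4 : ∀ n, 1/4 ≤ b n) {ε₁ : ℝ} (hε : ε ≤ ε₁) (hε1 : ε₁ < 1) (hKb : 0 ≤ Kb) (hKN : 0 ≤ KN)
    (hδ : ∀ q, 0 < δ q)
    (hδ2 : ∀ q, 0 < WE X h.cmb (wk κ kap fam) q → ∀ σ ≤ q, δ σ ≤ WE X h.cmb (wk κ kap fam) q)
    {SpecX : ∀ q, Bd_416.Lam (K q) (h.cmb.I q) → Prop}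
    {g0 g : Gd E3 (Nm' fam (Rk κ kap))} {Pp0 Pp : ∀ q, h.cmb.I q → Set E3}
    {c0 c : ∀ q, h.cmb.I q → E3 → ℝ}
    (hT : ∀ q, TrkX (h := h.lfs) (Lam := Lf lam) (hLam := xlf h.lab.lab) X R g0 Pp0 c0 SpecX
      (K0x R Kb KN) δ ε b (wk κ kap fam) 4 g Pp c q)
    (hord : ∀ i, (∀ c, i ∉ V c) → ∃ i3 : ι3, P (T3.H i3) = P (Tl.H i) ∧
      (∀ x ∈ P (Tl.H i), T3.cc x = Tl.cc x) ∧ ∃ q, K q = P (T3.H i3)) :
    ∀ i, (∀ c, i ∉ V c) → ∃ q, K q = P (Tl.H i) ∧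
      (∀ e, e < q → dim e = 1 → L.toSk.On1 e ⊆ {y | y ∈ P (Tl.H i) ∧ Tl.dim y ≤ 1}) ∧
      ∀ (B : E3 ≃ᵃ[ℝ] E3) (x : h.cmb.I q), ∀ y ∈ K q,
        LB B (2 * CUe (max KN Kb) ε₁ 3 ((fun K => B '' K) '' SkC1_961.Cfg Tl i) *
          WE X h.cmb (wk κ kap fam) q / wk κ kap fam (h.cmb.col q x)) (c q x) (K q) y := by
  intro i hi
  obtain ⟨i3, h0, hcc, q, hq⟩ := hord i hi
  exact ⟨q, by rw [hq, h0], fun e he _ => on1_lm hI hO h0 hcc hq he, fun B x y hy =>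
    tile_one h X hI hb4 hε hε1 (K0x_nonneg hKN) hδ hδ2 h0 hcc hq (hT q) (K0x_le hKb q) B x hy⟩

/-- **the tiles which touch no cell of the given part**: constant `2 * CUe KN ε₁ 3` -/
theorem tile_clauseN (h : StO L O τ Rel Vc Qd κ s₀ far₀ Z lam₀ v₀ v₁ hfin kap s far β lam)
    (X : Cplx Ω' Q dim K) (hI : CellIx T3 dim K cell)
    (hb4 : ∀ n, 1/4 ≤ b n) {ε₁ : ℝ} (hε : ε ≤ ε₁) (hε1 : ε₁ < 1) (hKN : 0 ≤ KN)
    (hδ : ∀ q, 0 < δ q)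
    (hδ2 : ∀ q, 0 < WE X h.cmb (wk κ kap fam) q → ∀ σ ≤ q, δ σ ≤ WE X h.cmb (wk κ kap fam) q)
    {SpecX : ∀ q, Bd_416.Lam (K q) (h.cmb.I q) → Prop}
    {g0 g : Gd E3 (Nm' fam (Rk κ kap))} {Pp0 Pp : ∀ q, h.cmb.I q → Set E3}
    {c0 c : ∀ q, h.cmb.I q → E3 → ℝ}
    (hT : ∀ q, TrkX (h := h.lfs) (Lam := Lf lam) (hLam := xlf h.lab.lab) X R g0 Pp0 c0 SpecX
      (K0x R Kb KN) δ ε b (wk κ kap fam) 4 g Pp c q)
    {i3 : ι3} {i : ιt} (h0 : P (T3.H i3) = P (Tl.H i))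
    (hcc : ∀ x ∈ P (Tl.H i), T3.cc x = Tl.cc x) {q : Q} (hq : K q = P (T3.H i3))
    (hqR : ∀ σ ≤ q, σ ∉ R) (B : E3 ≃ᵃ[ℝ] E3) (x : h.cmb.I q) {y : E3} (hy : y ∈ K q) :
    LB B (2 * CUe KN ε₁ 3 ((fun K => B '' K) '' SkC1_961.Cfg Tl i) *
      WE X h.cmb (wk κ kap fam) q / wk κ kap fam (h.cmb.col q x)) (c q x) (K q) y :=
  tile_one h X hI hb4 hε hε1 (K0x_nonneg hKN) hδ hδ2 h0 hcc hq (hT q) (K0x_of_not hKN hqR).le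
    B x hy

end tile

end Crest.Agent.R096.Mxo_487
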