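import Mathlib
import Crest.Agent.R096.Mxo1_487
import Crest.Agent.R096.Frn1_337
import Crest.Agent.R096.Onb1_63
import Crest.Agent.R096.Fin7_147

/-!
# R096 (row 96), helper487.  The geometry of 337's seam `Lay` over `Lp` (Frn1_337).

From `Lay Φ T X J0 Jt T3 KK c3` and `Cores`:
* `cellIx_Lp`, `onT_Lp`, `top3_Lp`, `conv_Lp`, `cpt_Lp`, `bd_Lp` : the index type `{q // pO q}` names
  closed cells of `T3`;
* `Xc_Lp` : `Cplx (Om ∩ Xout (Kcs T KK ct)) ..`; `hKJ_Lp`, `hKc_Lp`, `hKX_Lp`, `cores_disj_Lp`;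
* `hord_Lp` : the tilings `T3` and `T` agree at the ordinary tiles, and their 3-cells are in `Q'`.
-/

set_option autoImplicit false
set_option linter.unusedSectionVars false
set_option linter.unusedVariables false
set_option linter.style.longLine false

open Set Metric Filter Topology Module

namespace Crest.Agent.R096.Mfr_487

open Crest.Agent.R096.Brk1_582 Crest.Agent.R096.Brk2_582 Crest.Agent.R096.Brk3_582
open Crest.Agent.R096.Brk5_582 Crest.Agent.R096.Bsp_628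
open Crest.Agent.R096.St_147 Crest.Agent.R096.Seq_213 Crest.Agent.R096.Seq_213.GSt
open Crest.Agent.R096.Lm_117 Crest.Agent.R096.Ac_117 Crest.Agent.R096.Msh_715
open Crest.Agent.R096.Cp_298 Crest.Agent.R096.Gm_298 Crest.Agent.R096.Gl_422
open Crest.Agent.R096.SkB_662 Crest.Agent.R096.Cpo_642
open Crest.Agent.R096.Agl5_543 Crest.Agent.R096.Ori_543
open Crest.Agent.R096.Init_543 (JJ fr3)
open Crest.Agent.R096.Ce_537 (PLEquiv IsBall Cplx)
open Crest.Agent.R096.SkC1_961 (E3 Hom3 FoamD Cfg th NN)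
open Crest.Agent.R096.Mbf_337 (KJ sb)
open Crest.Agent.R096.Frn_337 Crest.Agent.R096.Ecm_446 Crest.Agent.R096.Onb_63
open Crest.Agent.R096.Csub_487 (CellIx)
open Crest.Agent.R096.Fin_147 (Xout)

/-! ### any subcomplex of the merged mesh without giants -/

section gen

variable {E : Type} [NormedAddCommGroup E] [NormedSpace ℝ E] [FiniteDimensional ℝ E]
variable {Om : Set E} {ι κ : Type} {T : Tiling Om ι} {Kc : κ → Set E} [Nonempty T.Cell]

/-- the cells of `{q // p q}`, `p` without giants, are closed cells of `T` (63's `kT`) -/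
theorem cellIx_kT {p : QK (belK T Kc) → Prop} (hp : ∀ c d, c ≤ d → p d → p c)
    (hk : ∀ k, ¬ p (QK.k _ k)) :
    CellIx T (fun c : {c : QK (belK T Kc) // p c} => dimK (belK T Kc) (fun c => c.1.dim) c.1)
      (fun c => setK T Kc c.1) (kT T Kc p) where
  le _ _ := kT_le hk
  down τ c hc := by
    obtain ⟨⟨d, i, hi, hd⟩, hd'⟩ := exists_c hk τ
    have h1 : kT T Kc p τ = d := by
      show kap (fun c : {c : T.Cell // OutK T Kc c} => c.1) τ.1 = _
      rw [hd']; rfl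
    rw [h1] at hc
    refine ⟨⟨QK.c _ ⟨c, i, hi, (Tiling.Cell.le_def.1 hc).trans hd⟩, hp _ _ ?_ τ.2⟩, rfl⟩
    rw [hd']
    exact hc
  dim_eq q := by
    obtain ⟨d, hd⟩ := exists_c hk q
    show dimK (belK T Kc) (fun c => c.1.dim) q.1 =
      (kap (fun c : {c : T.Cell // OutK T Kc c} => c.1) q.1).dim
    rw [hd]; rfl
  set_eq q := by
    obtain ⟨d, hd⟩ := exists_c hk q
    show setK T Kc q.1 = (kap (fun c : {c : T.Cell // OutK T Kc c} => c.1) q.1).set
    rw [hd]; rfl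

end gen

/-- a tile is in a union of tiles only if it is one of them -/
theorem mem_of_sub_KJ {Om : Set E3} {ι : Type} {T : Tiling Om ι} {J : Set ι} {i : ι}
    (h : P (T.H i) ⊆ KJ T J) : i ∈ J := by
  obtain ⟨x, hx⟩ := T.ne i
  obtain ⟨j, hj, hxj⟩ := Nr_527.mem_KJ.1 (h (I_sub_P _ hx))
  have h1 : j ∈ T.at_ x := hxj
  rw [T.at_eq_singleton hx, mem_singleton_iff] at h1
  rwa [← h1]

/-- a tile outside a union of tiles does not meet its interior -/
theorem not_mem_interior_KJ {Om : Set E3} {ι : Type} {T : Tiling Om ι} {J : Set ι} {i : ι}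
    (hi : i ∉ J) {x : E3} (hx : x ∈ P (T.H i)) : x ∉ interior (KJ T J) := by
  intro h
  have hcl : x ∈ closure (I (T.H i)) := P_sub_closure_I (T.ne i) hx
  obtain ⟨y, hy1, hy2⟩ := mem_closure_iff.1 hcl _ isOpen_interior h
  obtain ⟨j, hj, hyj⟩ := Nr_527.mem_KJ.1 (interior_subset hy1)
  have h1 : j ∈ T.at_ y := hyj
  rw [T.at_eq_singleton hy2, mem_singleton_iff] at h1
  exact hi (h1 ▸ hj)

/-- tiles with the same set are equal -/
theorem tile_inj {Om : Set E3} {ι : Type} {T : Tiling Om ι} {i j : ι}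
    (h : P (T.H i) = P (T.H j)) : i = j := by
  obtain ⟨x, hx⟩ := T.ne i
  have h1 : j ∈ T.at_ x := by
    show x ∈ P (T.H j)
    rw [← h]; exact I_sub_P _ hx
  rw [T.at_eq_singleton hx, mem_singleton_iff] at h1
  exact h1.symm

section lay

variable {δ κ0 R c0 : ℝ} {La Om : Set E3} {ι : Type}
variable {Φ : FoamD δ κ0 R c0 La} {T : Tiling Om ι} {X : Set Φ.F} {J0 Jt V : Φ.F → Set ι}
  {ι3 : Type} {T3 : Tiling Om ι3} {KK : Ti X → Set E3} {c3 : ι → ι3} {ct : Φ.F → ι}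

theorem pO_k (k : Ti X) : ¬ pO T3 KK c3 ct (QK.k _ k) := fun h => h

section lp

variable [Nonempty T3.Cell] {hH : ∀ k, CoreH T3 (KK k)}
    {hdis : ∀ k k', k ≠ k' → Disjoint (KK k) (KK k')} {hne : ∃ c, OutK T3 KK c}

/-- **the cells of `Lp` are closed cells of `T3`** -/
theorem cellIx_Lp :
    CellIx T3 (fun c : {c : QK (belK T3 KK) // pO T3 KK c3 ct c} =>
      dimK (belK T3 KK) (fun c => c.1.dim) c.1) (fun c => setK T3 KK c.1)
      (kT T3 KK (pO T3 KK c3 ct)) :=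
  cellIx_kT pO_down pO_k

theorem onT_Lp : OnT T3 (Lp c3 ct hH hdis hne).toSk (kT T3 KK (pO T3 KK c3 ct)) :=
  onT_K _ _ _ pO_k

theorem top3_Lp : Top3 (Lp c3 ct hH hdis hne) :=
  (top3K fr3 hH hdis hne).sub _ _ _ _ _ _ _ _ _ _ fun _ _ _ q _ => ⟨q, fun _ => Iff.rfl⟩

end lp

variable [Nonempty T3.Cell]

omit [Nonempty T3.Cell] in
theorem Kcs_of_mem {a : Φ.F} (ha : a ∈ X) : Kcs T KK ct a = P (T.H (ct a)) := by
  unfold Kcs; rw [dif_neg (not_not.2 ha)]

omit [Nonempty T3.Cell] in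
theorem Kcs_of_not {a : Φ.F} (ha : a ∉ X) : Kcs T KK ct a = KK ⟨a, ha⟩ := by
  unfold Kcs; rw [dif_pos ha]

variable {f : E3 → E3} {κ1 κ2 : ℝ} {A : Φ.F → E3 ≃ᵃ[ℝ] E3} {lam : Φ.F → ℝ} {z : Φ.F → E3}
  {θ : Φ.F → E3 → E3} {φ : Φ.F → E3 → ℝ}
  (hC : Mbf_337.Cores Φ T f κ1 κ2 X J0 Jt V ct A lam z θ φ)
  (hL : Lay Φ T X J0 Jt T3 KK c3)

include hC

omit [Nonempty T3.Cell] in
/-- exact core tiles are in no tiny core -/
theorem ct_notMem {a : Φ.F} (ha : a ∈ X) (k : Ti X) : ct a ∉ Jt k.1 := by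
  intro h
  have h1 : a ≠ k.1 := fun h' => k.2 (h' ▸ ha)
  have h2 : ct a ∈ V a := by rw [(hC.one a ha).2.2]; exact mem_singleton _
  exact Set.disjoint_left.1 (hC.disj a k.1 h1) h2 (Nr_527.J_sub hC _ h)

omit [Nonempty T3.Cell] in
/-- ordinary tiles are in no tiny core -/
theorem ord_notMem {i : ι} (hi : ∀ c, i ∉ V c) (k : Ti X) : i ∉ Jt k.1 :=
  fun h => hi k.1 (Nr_527.J_sub hC _ h)

include hL

omit [Nonempty T3.Cell] in
theorem P_ct {a : Φ.F} (ha : a ∈ X) : P (T3.H (c3 (ct a))) = P (T.H (ct a)) :=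
  hL.keep _ (ct_notMem hC ha)

omit [Nonempty T3.Cell] in
/-- the cores of the placement are exactly the `KK k` and the tiles `tlX a` -/
theorem Kcs_cases (f' : Φ.F) : (∃ k, Kcs T KK ct f' = KK k) ∨
    ∃ a, Kcs T KK ct f' = P (T3.H (tlX X c3 ct a)) := by
  by_cases h : f' ∈ X
  · exact Or.inr ⟨⟨f', h⟩, by rw [Kcs_of_mem h]; exact (P_ct hC hL h).symm⟩
  · exact Or.inl ⟨⟨f', h⟩, Kcs_of_not h⟩

/-- **the complex outside the open cores** (block (5) of `fin_stG`) -/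
theorem Xc_Lp : Cplx (Om ∩ Xout (Kcs T KK ct)) {c : QK (belK T3 KK) // pO T3 KK c3 ct c}
    (fun c => dimK (belK T3 KK) (fun c => c.1.dim) c.1) (fun c => setK T3 KK c.1) :=
  cplx_outK (T := T3) (KK := KK) (Kc := Kcs T KK ct) (tlX X c3 ct) hL.core hL.disj
    (Kcs_cases hC hL) (fun k => ⟨k.1, Kcs_of_not k.2⟩)
    (fun a => ⟨a.1, by rw [Kcs_of_mem a.2]; exact (P_ct hC hL a.2).symm⟩)

omit [Nonempty T3.Cell] in
theorem hKJ_Lp (a : Φ.F) : Kcs T KK ct a ⊆ KJ T (Jt a) := by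
  by_cases h : a ∈ X
  · rw [Kcs_of_mem h, (hC.one a h).2.1]
    intro x hx
    exact Nr_527.mem_KJ.2 ⟨ct a, mem_singleton _, hx⟩
  · rw [Kcs_of_not h]; exact hL.sub ⟨a, h⟩

omit hC [Nonempty T3.Cell] in
theorem hKc_Lp (a : Φ.F) : IsClosed (Kcs T KK ct a) := by
  by_cases h : a ∈ X
  · rw [Kcs_of_mem h]; exact isClosed_P _
  · rw [Kcs_of_not h]; exact (hL.core ⟨a, h⟩).cpt.isClosed

omit hC hL [Nonempty T3.Cell] in
theorem hKX_Lp : ∀ a ∈ X, Kcs T KK ct a = P (T.H (ct a)) := fun _ ha => Kcs_of_mem ha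

omit [Nonempty T3.Cell] in
/-- every core of the placement is compact -/
theorem cpt_Kcs (a : Φ.F) : IsCompact (Kcs T KK ct a) := by
  by_cases h : a ∈ X
  · rw [Kcs_of_mem h]; exact T.cpt _
  · rw [Kcs_of_not h]; exact (hL.core ⟨a, h⟩).cpt

omit [Nonempty T3.Cell] in
/-- the 3-cell of an ordinary tile is a cell outside all cores -/
theorem out_ord {i : ι} (hi : ∀ c, i ∉ V c) : OutK T3 KK (tcell T3 (c3 i)) ∧
    notTile T3 (tlX X c3 ct) (tcell T3 (c3 i)) := by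
  have hP : P (T3.H (c3 i)) = P (T.H i) := hL.keep i (ord_notMem hC hi)
  refine ⟨⟨c3 i, fun k hk => ?_, by rw [tcell_set]⟩, fun a ha => ?_⟩
  · rw [hP] at hk
    exact ord_notMem hC hi k (mem_of_sub_KJ (hk.trans (hL.sub k)))
  · rw [tcell_set, hP, show tlX X c3 ct a = c3 (ct a.1) from rfl, P_ct hC hL a.2] at ha
    have h1 := tile_inj ha
    refine hi a.1 ?_
    rw [(hC.one a.1 a.2).2.2, h1]
    exact mem_singleton _

/-- **`hord`** (117's `tile_clause`, 747's `edge_clause`): at the ordinary tiles `T3` and `T` agree,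
and the 3-cell is in `Q'` -/
theorem hord_Lp : ∀ i, (∀ c, i ∉ V c) → ∃ i3 : ι3, P (T3.H i3) = P (T.H i) ∧
    (∀ x ∈ P (T.H i), T3.cc x = T.cc x) ∧
    ∃ q : {c : QK (belK T3 KK) // pO T3 KK c3 ct c}, setK T3 KK q.1 = P (T3.H i3) := by
  intro i hi
  have h1 := out_ord hC hL hi
  refine ⟨c3 i, hL.keep i (ord_notMem hC hi), fun x hx => ?_,
    ⟨QK.c _ ⟨tcell T3 (c3 i), h1.1⟩, h1.2⟩, tcell_set _⟩
  exact (hL.cc x (T.sub i hx) fun k => not_mem_interior_KJ (ord_notMem hC hi k) hx).1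

omit [Nonempty T3.Cell] in
/-- the dimensions too -/
theorem dim_ord {i : ι} (hi : ∀ c, i ∉ V c) {x : E3} (hx : x ∈ P (T.H i)) :
    T3.cc x = T.cc x ∧ T3.dim x = T.dim x :=
  hL.cc x (T.sub i hx) fun k => not_mem_interior_KJ (ord_notMem hC hi k) hx

end lay

end Crest.Agent.R096.Mfr_487
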