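import Crest.Agent.R096.Fin7_147
import Crest.Agent.R096.Mfr1_487
import Crest.Agent.R096.Shg8_334
import Crest.Agent.R096.Gia7_537
import Crest.Agent.R096.Mi6_117
import Crest.Agent.R096.Onb2_63
import Crest.Agent.R096.Ecm8_446

/-!
# R096 (row 96), bottom assembly, part 9 (helper147): from the seam `Front` (337) to the structure map

`front_out0` : `fin_stG` over 337's `Lp`: the blocks (2) levels, (4) MeshEx, (5) complex and cores,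
(9) tiny cores, (11) sheets are proved from `Lay`, `Front`, `Cores`; the other blocks are hypotheses.
-/

set_option autoImplicit false
set_option linter.unusedSectionVars false
set_option linter.unusedVariables false
set_option linter.style.longLine false

open Set Filter Topology Metric Module MeasureTheory Relation
open scoped ENNReal

namespace Crest.Agent.R096.Fin_147

open Crest.Agent.R096.Ce_537 (PLOn PLEquiv cube sph IsBall Cplx)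
open Crest.Agent.R096.Bd_416 Crest.Agent.R096.Grd_714 Crest.Agent.R096.Mg_441
open Crest.Agent.R096.Xp_537 Crest.Agent.R096.Bin_181
open Crest.Agent.R096.Ar_241 (Tr0 TopC Exact cod SheetData)
open Crest.Agent.R096.Shp_334 (OnMesh Bls)
open Crest.Agent.R096.Brk1_582 Crest.Agent.R096.Brk2_582 Crest.Agent.R096.Brk3_582
open Crest.Agent.R096.Brk5_582 Crest.Agent.R096.Brk6_582
open Crest.Agent.R096.Bsp_628
open Crest.Agent.R096.SkC1_961 (E3 Hom3 FoamD Cfg th NN)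
open Crest.Agent.R096.Msh_715 Crest.Agent.R096.Nr_527 Crest.Agent.R096.Oa_527
open Crest.Agent.R096.Mbf_337 (KJ sb gau)
open Crest.Agent.R096.St_147 Crest.Agent.R096.Seq_213 Crest.Agent.R096.Seq_213.GSt
  Crest.Agent.R096.Lm_117 Crest.Agent.R096.Ac_117 Crest.Agent.R096.Agl5_543
  Crest.Agent.R096.Ori_543 Crest.Agent.R096.Gm_298
  Crest.Agent.R096.Cp_298 Crest.Agent.R096.Gl_422 Crest.Agent.R096.SkB_662
open Crest.Agent.R096.Fl_835 (wk)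
open Crest.Agent.R96.Nu7_199 (WE)
open Crest.Agent.R096.Mno_534 (FinG)
open Crest.Agent.R096.Init_543 (JJ fr3)
open Crest.Agent.R096.Frn_337 (Ti Lay Front Kcs pO Lp pO_ne cti rel_p)
open Crest.Agent.R096.Ecm_446 (nr sto_inj sto_lt sto_sur)
open Crest.Agent.R096.Mfr_487 (Xc_Lp hKJ_Lp hKc_Lp hKX_Lp)

variable {δ κ0 R c0 : ℝ} {La Om : Set E3} {ι : Type} {Φ : FoamD δ κ0 R c0 La} {T : Tiling Om ι}
  {f : E3 → E3} {κ1 κ2 : ℝ} {X : Set Φ.F} {J0 Jt V : Φ.F → Set ι} {ct : Φ.F → ι}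
  {A : Φ.F → E3 ≃ᵃ[ℝ] E3} {lam : Φ.F → ℝ} {z : Φ.F → E3} {θ : Φ.F → E3 → E3} {φ : Φ.F → E3 → ℝ}
  {Mm : Φ.F → ℕ} {ι3 : Type} {T3 : Tiling Om ι3} {KK : Ti X → Set E3} {c3 : ι → ι3}
  [Nonempty T3.Cell] {hH : ∀ k, CoreH T3 (KK k)}
  {hdis : ∀ k k', k ≠ k' → Disjoint (KK k) (KK k')} {hne : ∃ c, OutK T3 KK c}
  {Lv : Φ.F → Finset ℝ} {Qd : Quads (ι3 ⊕ Ti X) Φ.F (Init_543.QK (Pc Φ.F))}
  {s₀ : GSt (mK fr3 hH hdis) (fun j : JJ Φ Lv => j.1)} {far₀ : JJ Φ Lv → Set E3}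
  {Gc : Φ.F → Set E3} {Zc : Φ.F → Set (QK (belK T3 KK))}
  {lam₀ : JJ Φ Lv → QK (belK T3 KK) → ZMod 2} {v₀ v₁ : Φ.F → QK (belK T3 KK)}
  {κw : Φ.F → ℕ} {hfin : ∀ a, {j : JJ Φ Lv | j.1 = a}.Finite} {kap : Φ.F → ℕ}
  {s : GSt (mK fr3 hH hdis) (fam' (fun j : JJ Φ Lv => j.1) (Rk κw kap))}
  {far : Nm' (fun j : JJ Φ Lv => j.1) (Rk κw kap) → Set E3} {β : E3 → E3}
  {lmf : Nm' (fun j : JJ Φ Lv => j.1) (Rk κw kap) →
    {c : QK (belK T3 KK) // pO T3 KK c3 ct c} → ZMod 2}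

/-- there is a brick -/
theorem exists_brick (Φ : FoamD δ κ0 R c0 La) (hLa : IsOpen La) (hf : Hom3 f Om La) {x : E3}
    (hx : x ∈ Om) : Nonempty Φ.F := by
  obtain ⟨fi, h1, -⟩ := hf
  obtain ⟨a, -⟩ := (foam Φ.bf hLa).cov _ (h1 hx)
  exact ⟨a⟩

set_option maxHeartbeats 1000000 in
/-- **FRONT -> BACK**, the blocks `tile`, `core`, `sq`, `arcs` being hypotheses -/
theorem front_out0 (hOm : IsOpen Om) (hLa : IsOpen La) (hf : Hom3 f Om La)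
    (hs : Small δ κ0 R κ1 κ2)
    (hC : Mbf_337.Cores Φ T f κ1 κ2 X J0 Jt V ct A lam z θ φ)
    (hF : Mbf_337.Fine Φ T f κ1 J0) (hL : Lay Φ T X J0 Jt T3 KK c3)
    (hFr : Front T f J0 Jt V ct c3 hH hdis hne Qd s₀ far₀ Gc Zc lam₀ v₀ v₁)
    -- the levels
    {κp μ κ3 : ℝ} {Zx : Φ.F → Set ℝ} {m0 : Φ.F → ℕ} (hR : 0 ≤ R) (h3 : 0 ≤ κ3)
    (hLv : Mbf_337.Levels Φ T f κp μ κ3 Zx m0 κw Lv)
    -- the final state
    (h : StO (Lp c3 ct hH hdis hne) (oriK fr3 hH hdis) (fun c => tauK T3 KK c.1) (RelM T3)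
      (lmK fr3 hH hdis hne).W1 Qd κw s₀ far₀ (fun c => {v | v.1 ∈ Zc c})
      (fun j v => lam₀ j v.1) (fun c => sv (pO T3 KK c3 ct) (pO_ne hne) (v₀ c))
      (fun c => sv (pO T3 KK c3 ct) (pO_ne hne) (v₁ c)) hfin kap s far β lmf)
    {hf1 : ∀ a, {j | h.cmb.fam j = a}.Finite} (hm : ∀ a, 0 < mm hf1 a)
    -- the mesh
    {Gf : Gd E3 (Nm' (fun j : JJ Φ Lv => j.1) (Rk κw kap))} {Pp : ∀ q, h.cmb.I q → Set E3}
    {cc : ∀ q, h.cmb.I q → E3 → ℝ} (H : Inv h.cmb (fun q => setK T3 KK q.1) univ Gf Pp cc)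
    (hB : ∀ j, Bls h.cmb (fun q => setK T3 KK q.1) cc j)
    (hnp : ∀ c : Φ.F, (Pc Φ.F c).Nonempty)
    -- the numbers on the tiles
    {Ck Cs : Set (Set E3) → ℝ} (hCk : ∀ 𝒦, 0 ≤ Ck 𝒦) (hCs : ∀ 𝒦, 2 * R * κ3 * Ck 𝒦 ≤ Cs 𝒦)
    (tile : ∀ i, (∀ c, i ∉ V c) → ∃ q : {c : QK (belK T3 KK) // pO T3 KK c3 ct c},
      setK T3 KK q.1 = P (T.H i) ∧
      (∀ e, e < q → dimK (belK T3 KK) (fun c => c.1.dim) e.1 = 1 →
        (Lp c3 ct hH hdis hne).toSk.On1 e ⊆ {y | y ∈ P (T.H i) ∧ T.dim y ≤ 1}) ∧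
      ∀ (B : E3 ≃ᵃ[ℝ] E3) (x : h.cmb.I q), ∀ y ∈ setK T3 KK q.1,
        LB B (Ck ((fun K => B '' K) '' Cfg T i) *
          WE (Xc_Lp hC hL) h.cmb (wk κw kap (fun j : JJ Φ Lv => j.1)) q /
          wk κw kap (fun j : JJ Φ Lv => j.1) (h.cmb.col q x)) (cc q x) (setK T3 KK q.1) y)
    -- the exact cores
    {κb : ℝ} (hκb : 0 < κb ∧ κb < 1) {bt : ℕ → ℝ} (hb0 : ∀ n, 0 < bt n) (hb2 : ∀ n, bt n < 1/2)
    {κf : ℝ} (hκf : κf = 1 - (1 - κb) * bet bt 4)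
    {g0 : Gd E3 (Nm' (fun j : JJ Φ Lv => j.1) (Rk κw kap))} (Rr : Φ.F → E3 → E3)
    (core : ∀ a ∈ X, ∃ (U : PLEquiv (Kcs T KK ct a) (Pc Φ.F a))
      (e : PLEquiv (frontier (Kcs T KK ct a)) (bdP (Pc Φ.F) (bc (F := Φ.F)) (mm hf1) a)),
      (∀ x ∈ Kcs T KK ct a, U.f x = Rr a (th (A a) (lam a) (z a) x)) ∧
      (∀ x ∈ Kcs T KK ct a, x ∈ frontier (Kcs T KK ct a) ↔
        U.f x ∈ bdP (Pc Φ.F) (bc (F := Φ.F)) (mm hf1) a) ∧
      (∀ x ∈ frontier (Kcs T KK ct a), e.f x = U.f x) ∧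
      (∀ y ∈ bdP (Pc Φ.F) (bc (F := Φ.F)) (mm hf1) a, e.g y = U.g y) ∧
      (∀ x ∈ frontier (Kcs T KK ct a),
        EqAt (ekS (gr Φ hLa hnp hm) (bc (F := Φ.F)) κb (.top a) h.cmb.fam
          (nr (Lp c3 ct hH hdis hne) s lmf h.fin1) e) g0 x) ∧
      (∀ x ∈ frontier (Kcs T KK ct a), EqAt (sqs g0 bt 4) Gf x) ∧
      ∀ x ∈ frontier (Kcs T KK ct a), ∃ q : {c : QK (belK T3 KK) // pO T3 KK c3 ct c},
        x ∈ setK T3 KK q.1 ∧ setK T3 KK q.1 ⊆ frontier (Kcs T KK ct a) ∧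
          IsClosed (setK T3 KK q.1))
    {C0 e S sg : ℝ} (hSC : S < C0)
    (hS : ∀ a ∈ X, ∀ y ∈ a.1.set, ∀ y' ∈ a.1.set,
      ‖st (gr Φ hLa hnp hm) κf (Rr a y) - st (gr Φ hLa hnp hm) κf (Rr a y')‖ ≤ S * ‖y - y'‖)
    (hs0 : κf ≤ sg) (hs1 : sg < 1) (he1 : 3 * sg ≤ e) (he2 : κf / (1 - κf) < e)
    (hRr : ∀ a ∈ X, ∀ u ∈ interior a.1.set,
      Rr a ((1 - sg) • u + sg • (gr Φ hLa hnp hm).b (.top a)) =
        (1 - sg) • u + sg • (gr Φ hLa hnp hm).b (.top a))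
    -- the squares on the tiny cores
    (sq : ∀ a, a ∉ X → ∀ q : Gx (Pc Φ.F) (mm hf1), q.free.ncard = 2 → q.hi a = 0 →
      ∃ x, {w | w ∈ At_241.Sc (Lp c3 ct hH hdis hne) (cti X c3 ct) (fun q => setK T3 KK q.1) a ∧
        gG (Tq (bc (F := Φ.F)) (mm hf1)) (merge hf1 Gf) w = (gr Φ hLa hnp hm).b (.gr q)} = {x})
    -- arcs
    (arcs : ∀ (G : E3 → E3) (Y : Tr0 Om (gr Φ hLa hnp hm) G),
      OnMesh Y (fun q : {c : QK (belK T3 KK) // pO T3 KK c3 ct c} => setK T3 KK q.1) Gf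
        (Tq (bc (F := Φ.F)) (mm hf1))
        (XM Om (fun q : {c : QK (belK T3 KK) // pO T3 KK c3 ct c} => setK T3 KK q.1)) →
      Nonempty (Exact Y (fun _ => κf) (fun _ => 0)
        (Ktc (hfin := hf1) (Pf := Pc Φ.F) (Kcs T KK ct))
        (XM Om (fun q : {c : QK (belK T3 KK) // pO T3 KK c3 ct c} => setK T3 KK q.1))) →
      ∀ q, cod (gr Φ hLa hnp hm) q = 1 →
      IsBall 1 (Y.F q ∩ XM Om (fun q : {c : QK (belK T3 KK) // pO T3 KK c3 ct c} => setK T3 KK q.1))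
        (Y.F q ∩ XM Om (fun q : {c : QK (belK T3 KK) // pO T3 KK c3 ct c} => setK T3 KK q.1) ∩
          ⋃ c : TopC (Cel (Pc Φ.F) (mm hf1)),
            Ktc (hfin := hf1) (Pf := Pc Φ.F) (Kcs T KK ct) c)) :
    ∃ G : E3 → E3, FinG Φ T f J0 V X (fun q : {c : QK (belK T3 KK) // pO T3 KK c3 ct c} =>
        setK T3 KK q.1) (gG (Tq (bc (F := Φ.F)) (mm hf1)) (merge hf1 Gf)) (Kcs T KK ct)
      (fun a x => st (gr Φ hLa hnp hm) κf (Rr a (th (A a) (lam a) (z a) x))) G ∧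
      GOut C0 Cs e Φ T f X J0 V ct A lam κw Lv G := by
  have hκf1 : 0 < κf ∧ κf < 1 := by
    rw [hκf]; exact Xr_537.kf_pos hκb (bet_pos hb0 4) (bet_le hb0 hb2 4)
  obtain ⟨a0⟩ := exists_brick Φ hLa hf (Classical.arbitrary T3.Cell).pt_mem
  have hdA : ∀ a a', a ≠ a' → Disjoint (Kcs T KK ct a) (Kcs T KK ct a') := fun a a' ha =>
    Gia_537.Kcs_disj hLa hC hL ha
  have keep : ∀ c ∈ X, P (T3.H (c3 (ct c))) = P (T.H (ct c)) := fun c hc => Onb_63.keep_ct hL hC hc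
  have : Nonempty {c : QK (belK T3 KK) // pO T3 KK c3 ct c} := by
    obtain ⟨c, hc⟩ := pO_ne (c3 := c3) (ct := ct) hne
    exact ⟨⟨c, hc⟩⟩
  refine fin_stG (n := 3) hOm hLa hf hs hC hF h rel_p hR h3 hLv (Mi_117.Front.hlev hFr) hm H
    (hFr.meshEx hLv.lf h) hnp (Xc_Lp hC hL) (hKJ_Lp hC hL) (hKc_Lp hL) hKX_Lp (.top a0) hCk hCs
    tile hκb hb0 hb2 hκf (lv := nr (Lp c3 ct hH hdis hne) s lmf h.fin1)
    (sto_inj h) (sto_lt h) (sto_sur h) Rr core hSC hS hs0 hs1 he1 he2 hRr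
    (fun a ha => Gia_537.tiny_front hLa hf hs hC hL hFr hLv.lf h hm hnp (.top a0) H hB hκf1 ha
      (sq a ha)) arcs ?_
  intro G Y hM hX
  exact Shg_334.front_sheets hFr hL.ball keep hdA hOm h H hB (Xc_Lp hC hL) hLa hm hnp G Y hM hX

end Crest.Agent.R096.Fin_147
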