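import Crest.Agent.R096.Fk9_522
import Crest.Agent.R096.Bd18_416

/-!
# R096 (row 96), P4-FACE, combinatorics, part 10: the boundary word of a designated 2-cell from the
tracked data on its four sides (helper522)
-/

set_option autoImplicit false
set_option linter.unusedSectionVars false

open Set Metric Filter Topology

namespace Crest.Agent.R096.Fk_522

open Crest.Agent.R096.Ce_537 Crest.Agent.R096.Bd_416 Crest.Agent.R096.Fsw_928

open scoped Classical

variable {Q : Type} [PartialOrder Q] {dim : Q → ℕ} {J Fam : Type}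
variable {E : Type*} [NormedAddCommGroup E] [NormedSpace ℝ E]

/-- first and second end of a side (corners: 0 bottom left, 1 bottom right, 2 top left,
3 top right) -/
def w0 : Fin 4 → Fin 4 := ![0, 2, 0, 1]
/-- second end of a side -/
def w1 : Fin 4 → Fin 4 := ![1, 3, 2, 3]

/-- **a 2-cell with four sides** (bottom, top, left, right) and four corners; the corner 3 is the
base vertex -/
structure SqC (C : Cmb Q dim J Fam) (τ : Q) where
  es : Fin 4 → Q
  lt : ∀ s, es s < τ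
  d1 : ∀ s, dim (es s) = 1
  inj : Function.Injective es
  onto : ∀ σ < τ, dim σ = 1 → ∃ s, es s = σ
  v : Fin 4 → Q
  l0 : ∀ s, v (w0 s) < es s
  l1 : ∀ s, v (w1 s) < es s
  ne : ∀ s, v (w0 s) ≠ v (w1 s)
  ob : ∀ s, C.o (es s) = v (w0 s) ∨ C.o (es s) = v (w1 s)
  base : C.o τ = v 3

/-- the width of the band of a crossing point -/
noncomputable def SqC.wd {C : Cmb Q dim J Fam} {τ : Q} (S : SqC C τ) (wt : J → ℝ)
    (ν : Fin 4 → ℝ) (s : Fin 4) (y : C.I (S.es s)) : ℝ := ν s * wt (C.col (S.es s) y)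

/-- **boundary word over the discrete data** -/
structure BwF {C : Cmb Q dim J Fam} {τ : Q} (S : SqC C τ) (wt : J → ℝ) (ν : Fin 4 → ℝ) (δ : ℝ)
    (L : Lam (sph 2) (C.I τ)) where
  p : ∀ s, C.I (S.es s) → ℝ
  ed : ∀ s, Ed (S.wd wt ν s) (p s)
  mlo : ∀ s y, -(1 - δ) ≤ p s y - S.wd wt ν s y / 2
  mhi : ∀ s y, p s y + S.wd wt ν s y / 2 ≤ 1 - δ
  a : Fin 4 → C.I τ → ZMod 2
  c_eq : ∀ s x t, |t| ≤ 1 → -2 * L.c x (sd s t) =
    sg (a s x) * ∏ y : C.I (S.es s) with C.up (S.lt s) y = x,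
      (-2 * ramp (S.wd wt ν s y) (p s y) t)
  base : ∀ x, L.c x (sd 1 1) = -1/2
  nc : ∀ x x', x ≠ x' → C.fam (C.col τ x) = C.fam (C.col τ x') → ∀ s (y : C.I (S.es s)),
    C.up (S.lt s) y = x → -2 * L.c x' (sd s (p s y)) = sg (C.side τ x x')

/-- the boundary word -/
noncomputable def BwF.toBw {C : Cmb Q dim J Fam} {τ : Q} {S : SqC C τ} {wt : J → ℝ}
    {ν : Fin 4 → ℝ} {δ : ℝ} {L : Lam (sph 2) (C.I τ)} (B : BwF S wt ν δ L) : Bw L where
  E s := C.I (S.es s)
  up s y := C.up (S.lt s) y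
  w s y := S.wd wt ν s y
  p s y := B.p s y
  ed s := B.ed s
  a := B.a
  c_eq := B.c_eq
  base := B.base

/-! ### flipping -/

lemma ed_flip {ι : Type*} {w p : ι → ℝ} (h : Ed w p) {o : ℝ} (ho : o = 1 ∨ o = -1) :
    Ed w (fun i => o * p i) := by
  rcases ho with rfl | rfl
  · simpa using h
  · refine ⟨h.w0, fun i => ?_, fun i => ?_, fun i j hij => ?_⟩
    · have := h.hi i; linarith
    · have := h.lo i; linarith
    · have h1 : -1 * p i - -1 * p j = -(p i - p j) := by ring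
      rw [h1, abs_neg]; exact h.sep i j hij

lemma ramp_flip (w p t : ℝ) : ramp w p (-t) = - ramp w (-p) t := by
  unfold ramp
  rw [← cl_neg]
  congr 1
  rw [← neg_div]
  congr 1
  ring

lemma prod_flip {α : Type*} (F : Finset α) (w p : α → ℝ) {o : ℝ} (ho : o = 1 ∨ o = -1) (t : ℝ) :
    ∏ y ∈ F, (-2 * ramp (w y) (p y) (o * t)) =
      sg (if o = 1 then 0 else (F.card : ZMod 2)) * ∏ y ∈ F, (-2 * ramp (w y) (o * p y) t) := by
  rcases ho with rfl | rfl
  · simp
  · have h1 : ¬ ((-1 : ℝ) = 1) := by norm_num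
    rw [if_neg h1, ← sg_cast_card F, ← Finset.prod_mul_distrib]
    refine Finset.prod_congr rfl fun y _ => ?_
    have e1 : (-1 : ℝ) * t = -t := by ring
    have e2 : (-1 : ℝ) * p y = -p y := by ring
    rw [e1, e2, ramp_flip]
    ring

variable {C : Cmb Q dim J Fam} {K : Q → Set E} {D : Set Q} {g : Gd E J}
  {P : ∀ q, C.I q → Set E} {c : ∀ q, C.I q → E → ℝ} {Ω : Set E}

/-- **the boundary word from the band functions on the four sides** -/
theorem exists_bwF (H : Inv C K D g P c) (X : Cplx Ω Q dim K) {τ : Q} (hτ : ∀ σ < τ, σ ∈ D)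
    (hd : 1 ≤ dim τ) (S : SqC C τ) {A : (Fin 2 → ℝ) → E}
    (hA : ∀ s t, |t| ≤ 1 → A (sd s t) ∈ K (S.es s)) (hb : A (sd 1 1) ∈ K (C.o τ))
    {wt : J → ℝ} {ν : Fin 4 → ℝ} {δ : ℝ}
    (hc : ∀ s, ∃ (o : ℝ) (p : C.I (S.es s) → ℝ), (o = 1 ∨ o = -1) ∧ Ed (S.wd wt ν s) p ∧
      (∀ y, |p y| + S.wd wt ν s y / 2 < 1 - δ) ∧
      ∀ y t, |t| ≤ 1 → c (S.es s) y (A (sd s t)) = ramp (S.wd wt ν s y) (p y) (o * t))
    {L : Lam (sph 2) (C.I τ)} (hL : ∀ x, ∀ ω ∈ sph 2, L.c x ω = cbd C K c τ x (A ω)) :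
    Nonempty (BwF S wt ν δ L) := by
  choose o p ho hE hm hp using hc
  have hp' : ∀ s y t, |t| ≤ 1 → -2 * c (S.es s) y (A (sd s t)) =
      -2 * ramp (S.wd wt ν s y) (p s y) (o s * t) := fun s y t ht => by rw [hp s y t ht]
  refine ⟨⟨fun s y => o s * p s y, fun s => ed_flip (hE s) (ho s), fun s y => ?_, fun s y => ?_,
    fun s x => C.s (S.lt s) x + (if o s = 1 then 0 else
      ((Finset.univ.filter fun y : C.I (S.es s) => C.up (S.lt s) y = x).card : ZMod 2)),
    fun s x t ht => ?_, fun x => ?_, fun x x' hne hf s y hy => ?_⟩⟩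
  · have h1 := hm s y
    have h2 := neg_abs_le (p s y)
    have h3 := le_abs_self (p s y)
    rcases ho s with h | h <;> rw [h] <;> linarith
  · have h1 := hm s y
    have h2 := neg_abs_le (p s y)
    have h3 := le_abs_self (p s y)
    rcases ho s with h | h <;> rw [h] <;> linarith
  · rw [hL x _ (sd_mem s ht), cbd_eq H X (S.lt s) hτ x (hA s t ht), sg_add, mul_assoc,
      ← prod_flip _ _ _ (ho s) t]
    congr 1
    exact Finset.prod_congr rfl fun y _ => hp' s y t ht
  · have h1 : |(1:ℝ)| ≤ 1 := by norm_num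
    have h2 := cbd_eq H X (C.o_lt τ hd) hτ x hb
    rw [C.s_o τ hd x, sg_zero, one_mul] at h2
    have := C.vert (C.o τ) (C.o_dim τ hd)
    rw [Finset.prod_of_isEmpty] at h2
    rw [hL x _ (sd_mem 1 h1)]
    linarith
  · subst hy
    have hσ := hτ _ (S.lt s)
    have h1 : |o s * p s y| ≤ 1 := by
      have h2 := (hE s).lo y
      have h3 := (hE s).hi y
      have h4 := (hE s).w0 y
      have h5 : |o s| = 1 := by rcases ho s with h | h <;> rw [h] <;> norm_num
      rw [abs_mul, h5, one_mul, abs_le]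
      constructor <;> linarith
    have hz := hA s _ h1
    rw [hL x' _ (sd_mem s h1)]
    refine bd_sides H X hτ hne hf ?_
    refine ⟨S.es s, S.lt s, y, rfl, H.cn _ hσ y _ hz ?_⟩
    have h2 : o s * (o s * p s y) = p s y := by
      rcases ho s with h | h <;> rw [h] <;> ring
    rw [hp s y _ h1, h2]
    unfold ramp
    rw [sub_self, zero_div, cl_of_mem ⟨by norm_num, by norm_num⟩]
    norm_num

end Crest.Agent.R096.Fk_522
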