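import Crest.Agent.R096.Fk10_522
import Crest.Agent.R096.Arc9_778

/-!
# R096 (row 96), P4-FACE, combinatorics, part 11: two ends, labels in the corners, numbers of
crossing points (helper522)
-/

set_option autoImplicit false
set_option linter.unusedSectionVars false

open Set Metric Filter Topology

namespace Crest.Agent.R096.Fk_522

open Crest.Agent.R096.Ce_537 Crest.Agent.R096.Bd_416 Crest.Agent.R096.Fsw_928

open scoped Classical

variable {Q : Type} [PartialOrder Q] {dim : Q → ℕ} {J Fam : Type}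
variable {C : Cmb Q dim J Fam} {τ : Q} {S : SqC C τ} {wt : J → ℝ} {ν : Fin 4 → ℝ} {δ : ℝ}
  {L : Lam (sph 2) (C.I τ)}

/-- **two ends** -/
theorem BwF.two (B : BwF S wt ν δ L)
    (hends : ∀ x : C.I τ, ∃ a b, a ≠ b ∧ Arc_778.Blw C τ x = {a, b}) : B.toBw.Two := by
  intro x
  obtain ⟨a, b, hab, hB⟩ := hends x
  let F : Finset (Σ s, C.I (S.es s)) := Finset.univ.filter fun v => C.up (S.lt v.1) v.2 = x
  let Φ : (Σ s, C.I (S.es s)) → (Σ e, C.I e) := fun v => ⟨S.es v.1, v.2⟩
  have hΦ : Function.Injective Φ := by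
    rintro ⟨s, y⟩ ⟨s', y'⟩ h
    have h1 : S.es s = S.es s' := congrArg Sigma.fst h
    have h2 := S.inj h1
    subst h2
    have h3 : y = y' := by
      have := (Sigma.mk.inj_iff.1 h).2
      exact eq_of_heq this
    rw [h3]
  have hF : F.image Φ = {a, b} := by
    ext v
    have h1 : v ∈ ({a, b} : Finset (Σ e, C.I e)) ↔ v ∈ Arc_778.Blw C τ x := by
      rw [hB]; simp
    rw [h1, Finset.mem_image]
    constructor
    · rintro ⟨⟨s, y⟩, h, rfl⟩
      exact ⟨S.d1 s, S.lt s, (Finset.mem_filter.1 h).2⟩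
    · rintro ⟨hd, h, hu⟩
      obtain ⟨e, y⟩ := v
      obtain ⟨s, hs⟩ := S.onto e h hd
      dsimp only at hs hu h
      subst hs
      exact ⟨⟨s, y⟩, Finset.mem_filter.2 ⟨Finset.mem_univ _, hu⟩, rfl⟩
  have hcard : F.card = 2 := by
    rw [← Finset.card_image_of_injective F hΦ, hF, Finset.card_pair hab]
  have hs : F.card = ∑ s, B.toBw.n s x := by
    show (Finset.univ.filter fun v : Σ s, C.I (S.es s) => C.up (S.lt v.1) v.2 = x).card = _
    rw [Finset.card_filter, Fintype.sum_sigma]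
    refine Finset.sum_congr rfl fun s _ => ?_
    rw [← Finset.card_filter]
    rfl
  rw [Fin.sum_univ_four] at hs
  omega

/-- number of the crossing points of the sheet `j` on the side `s` -/
noncomputable def SqC.N (S : SqC C τ) (s : Fin 4) (j : J) : ℕ :=
  (Finset.univ.filter fun y : C.I (S.es s) => C.col (S.es s) y = j).card

/-- jump of the label of `j` along the side `s` -/
noncomputable def SqC.dsp (S : SqC C τ) (s : Fin 4) (j : J) : ℝ :=
  (sg (C.Lab j (S.v (w0 s))) - sg (C.Lab j (S.v (w1 s)))) / 2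

/-- labels at the ends of an edge -/
lemma lab_edge {q : Q} (hd : dim q = 1) {v v' : Q} (h : v < q) (h' : v' < q) (hne : v ≠ v')
    (ho : C.o q = v ∨ C.o q = v') (j : J) : C.Lab j v' = C.Lab j v +
      ((Finset.univ.filter fun y : C.I q => C.col q y = j).card : ZMod 2) := by
  have z0 : ∀ p (hp : p < q), p = C.o q → ∀ x, C.s hp x = 0 := by
    rintro p hp rfl x
    exact C.s_o q hd.ge x
  have z1 : ∀ p (hp : p < q), p ≠ C.o q → ∀ x, C.s hp x = 1 := fun p hp hn x =>
    C.s_edge hp hd hn x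
  have s1 : ∑ x : C.I q with C.col q x = j, (1 : ZMod 2) =
      ((Finset.univ.filter fun y : C.I q => C.col q y = j).card : ZMod 2) := by
    rw [Finset.sum_const, nsmul_eq_mul, mul_one]
  have z : ∀ a b : ZMod 2, a = a + b + b := by decide
  rw [C.lab_eq h j, C.lab_eq h' j]
  rcases ho with ho | ho
  · rw [Finset.sum_eq_zero (fun x _ => z0 v h ho.symm x), add_zero,
      Finset.sum_congr rfl (fun x _ => z1 v' h' (fun e => hne (ho.symm.trans e.symm)) x), s1]
  · rw [Finset.sum_eq_zero (fun x _ => z0 v' h' ho.symm x), add_zero,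
      Finset.sum_congr rfl (fun x _ => z1 v h (fun e => hne (e.trans ho)) x), s1]
    exact z _ _

lemma SqC.lab_side (S : SqC C τ) (s : Fin 4) (j : J) :
    C.Lab j (S.v (w1 s)) = C.Lab j (S.v (w0 s)) + (S.N s j : ZMod 2) :=
  lab_edge (S.d1 s) (S.l0 s) (S.l1 s) (S.ne s) (S.ob s) j

lemma SqC.lab_base (S : SqC C τ) (hd : 1 ≤ dim τ) (j : J) : C.Lab j (S.v 3) = C.Lab j τ := by
  rw [← S.base, C.lab_eq (C.o_lt τ hd) j,
    Finset.sum_eq_zero (fun x _ => C.s_o τ hd x), add_zero]

/-- the ends of a piece are among the crossing points of its sheet -/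
lemma BwF.n_le (B : BwF S wt ν δ L) (s : Fin 4) (x : C.I τ) :
    B.toBw.n s x ≤ S.N s (C.col τ x) := by
  refine Finset.card_le_card fun y hy => ?_
  have h1 : C.up (S.lt s) y = x := (Bw.mem_en B.toBw).1 hy
  refine Finset.mem_filter.2 ⟨Finset.mem_univ _, ?_⟩
  rw [← C.col_up (S.lt s) y, h1]

/-- two pieces of one sheet have different ends -/
lemma BwF.n_le2 (B : BwF S wt ν δ L) (s : Fin 4) {x x' : C.I τ} (hne : x ≠ x')
    (hc : C.col τ x = C.col τ x') :
    B.toBw.n s x + B.toBw.n s x' ≤ S.N s (C.col τ x) := by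
  have hd : Disjoint (B.toBw.en s x) (B.toBw.en s x') := by
    rw [Finset.disjoint_left]
    intro y h h'
    exact hne (((Bw.mem_en B.toBw).1 h).symm.trans ((Bw.mem_en B.toBw).1 h'))
  have h1 : (B.toBw.en s x ∪ B.toBw.en s x').card = B.toBw.n s x + B.toBw.n s x' :=
    Finset.card_union_of_disjoint hd
  rw [← h1]
  refine Finset.card_le_card fun y hy => ?_
  refine Finset.mem_filter.2 ⟨Finset.mem_univ _, ?_⟩
  rcases Finset.mem_union.1 hy with h | h
  · have h2 : C.up (S.lt s) y = x := (Bw.mem_en B.toBw).1 h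
    rw [← C.col_up (S.lt s) y, h2]
  · have h2 : C.up (S.lt s) y = x' := (Bw.mem_en B.toBw).1 h
    rw [← C.col_up (S.lt s) y, h2, hc]

/-- **order of two pieces of one family on a side** -/
lemma BwF.ord_aux (B : BwF S wt ν δ L) {x x' : C.I τ} (hne : x ≠ x')
    (hf : C.fam (C.col τ x) = C.fam (C.col τ x')) {s : Fin 4} (hn : B.toBw.n s x = 1)
    (hn' : B.toBw.n s x' = 1) (ha : B.a s x' = 1) :
    B.toBw.ps s x < B.toBw.ps s x' ↔ C.side τ x x' = 1 := by
  obtain ⟨z, g1, e1, e2⟩ := Bw.exists_one hn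
  obtain ⟨z', g1', e1', e2'⟩ := Bw.exists_one hn'
  have hz : C.up (S.lt s) z = x := (Bw.mem_en B.toBw).1 (by rw [g1]; simp)
  have hz' : C.up (S.lt s) z' = x' := (Bw.mem_en B.toBw).1 (by rw [g1']; simp)
  have hzz : z ≠ z' := by rintro rfl; exact hne (hz.symm.trans hz')
  have h1 := (B.ed s).lo z
  have h2 := (B.ed s).hi z
  have h3 := (B.ed s).w0 z
  have h3' := (B.ed s).w0 z'
  have ht : |B.p s z| ≤ 1 := abs_le.2 ⟨by linarith, by linarith⟩
  have h4 : L.c x' (sd s (B.p s z)) = sg (B.a s x') * ramp (S.wd wt ν s z') (B.p s z')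
      (B.p s z) := Bw.c_one B.toBw g1' ht
  have h5 := B.nc x x' hne hf s z hz
  have h6 := (B.ed s).sep z z' hzz
  rw [ha, sg_one] at h4
  rw [h4] at h5
  rw [e1, e1']
  show B.p s z < B.p s z' ↔ _
  constructor
  · intro hlt
    rw [abs_of_neg (by linarith)] at h6
    rw [ramp_low h3' (by linarith)] at h5
    apply sg_inj
    rw [sg_one, ← h5]; norm_num
  · intro hs
    by_contra hc
    have hc' := not_lt.1 hc
    rw [abs_of_nonneg (by linarith)] at h6
    rw [ramp_high h3' (by linarith), hs, sg_one] at h5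
    norm_num at h5

end Crest.Agent.R096.Fk_522
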