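import Crest.Agent.R096.Fk11_522

/-!
# R096 (row 96), P4-FACE, combinatorics, part 12: nearly pure 2-cells in discrete terms and `Pure`
(helper522)
-/

set_option autoImplicit false
set_option linter.unusedSectionVars false

open Set Metric Filter Topology

namespace Crest.Agent.R096.Fk_522

open Crest.Agent.R096.Ce_537 Crest.Agent.R096.Bd_416 Crest.Agent.R096.Fsw_928

open scoped Classical

variable {Q : Type} [PartialOrder Q] {dim : Q → ℕ} {J Fam : Type}
variable {C : Cmb Q dim J Fam} {τ : Q} {S : SqC C τ} {wt : J → ℝ} {ν : Fin 4 → ℝ} {δ : ℝ}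
  {L : Lam (sph 2) (C.I τ)}

/-- direction of a side -/
def dr : Fin 4 → Fin 2 := ![0, 0, 1, 1]

/-- **discrete purity**: only the families `c 0`, `c 1` cross the sides; the sides of direction `i`
carry the weight `a i` of the family `c i`, nearly all crossed in the direction `σ i`, and nearly
nothing of the other family; `T i` = sheets of the family `c i` -/
structure DP (S : SqC C τ) (wt : J → ℝ) (T : Fin 2 → Finset J) (c : Fin 2 → Fam)
    (σ a : Fin 2 → ℝ) (m : ℝ) : Prop where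
  ne : c 0 ≠ c 1
  two : ∀ s (y : C.I (S.es s)), ∃ i, C.fam (C.col _ y) = c i
  T1 : ∀ i, ∀ j ∈ T i, C.fam j = c i
  T2 : ∀ i s (y : C.I (S.es s)), C.fam (C.col _ y) = c i → C.col _ y ∈ T i
  sg : ∀ i, σ i = 1 ∨ σ i = -1
  small : ∀ s (y : C.I (S.es s)), wt (C.col _ y) ≤ m
  tot : ∀ i s, dr s = i → ∑ y : C.I (S.es s) with C.fam (C.col _ y) = c i, wt (C.col _ y) ≤ a i + m
  dis : ∀ i s, dr s = i → a i - m ≤ σ i * ∑ j ∈ T i, wt j * S.dsp s j
  oth : ∀ i s, dr s ≠ i → ∑ y : C.I (S.es s) with C.fam (C.col _ y) = c i, wt (C.col _ y) ≤ m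

/-- main sheets of direction `i` -/
def SqC.Mn (S : SqC C τ) (i : Fin 2) (σ : ℝ) (j : J) : Prop :=
  (∀ s, S.N s j = if dr s = i then 1 else 0) ∧ Bd_416.sg (C.Lab j τ) = -σ

/-- main pieces -/
noncomputable def SqC.M (S : SqC C τ) (c : Fin 2 → Fam) (σ a : Fin 2 → ℝ) (i : Fin 2) :
    Finset (C.I τ) :=
  Finset.univ.filter fun x => a i ≠ 0 ∧ C.fam (C.col τ x) = c i ∧ S.Mn i (σ i) (C.col τ x)

/-! ### numbers -/

lemma sg_succ_of {l l' : ZMod 2} {n : ℕ} (h : l' = l + (n : ZMod 2)) :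
    (n % 2 = 0 ∧ sg l' = sg l) ∨ (n % 2 = 1 ∧ sg l' = - sg l) := by
  rcases Nat.mod_two_eq_zero_or_one n with h1 | h1
  · left
    have : (n : ZMod 2) = 0 := (cast_zero_iff n).2 h1
    rw [h, this, add_zero]
    exact ⟨h1, rfl⟩
  · right
    have : (n : ZMod 2) = 1 := by
      have h2 : n = 2 * (n / 2) + 1 := by omega
      rw [h2]
      push_cast
      have : (2 : ZMod 2) = 0 := by decide
      rw [this]; ring
    rw [h, this, sg_add, sg_one]
    exact ⟨h1, by ring⟩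

lemma dsp_cases {n : ℕ} {l l' : ZMod 2} (h : l' = l + (n : ZMod 2)) {σ : ℝ}
    (hσ : σ = 1 ∨ σ = -1) :
    (n % 2 = 0 ∧ σ * ((sg l - sg l') / 2) = 0) ∨
    (n % 2 = 1 ∧ sg l' = σ ∧ σ * ((sg l - sg l') / 2) = -1) ∨
    (n % 2 = 1 ∧ sg l' = -σ ∧ σ * ((sg l - sg l') / 2) = 1) := by
  rcases sg_succ_of h with ⟨h1, h2⟩ | ⟨h1, h2⟩
  · left
    refine ⟨h1, ?_⟩
    rw [h2]; ring
  · right
    have h3 : sg l = - sg l' := by rw [h2]; ring
    rw [h3]
    rcases hσ with rfl | rfl <;> rcases sg_or l' with h4 | h4 <;> rw [h4] <;> norm_num [h1]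

/-- **the pointwise inequality** -/
lemma key_num {n0 n1 n2 n3 : ℕ} {l00 l10 l01 l11 : ZMod 2} (h0 : l10 = l00 + (n0 : ZMod 2))
    (h1 : l11 = l01 + (n1 : ZMod 2)) (h2 : l01 = l00 + (n2 : ZMod 2))
    (h3 : l11 = l10 + (n3 : ZMod 2)) {σ : ℝ} (hσ : σ = 1 ∨ σ = -1)
    (hm : ¬ (n0 = 1 ∧ n1 = 1 ∧ n2 = 0 ∧ n3 = 0 ∧ sg l11 = -σ)) :
    (n0 : ℝ) ≤ 2 * (n0 - σ * ((sg l00 - sg l10) / 2)) + (n1 - σ * ((sg l01 - sg l11) / 2)) +
      n2 + n3 ∧
    (n1 : ℝ) ≤ 2 * (n1 - σ * ((sg l01 - sg l11) / 2)) + (n0 - σ * ((sg l00 - sg l10) / 2)) +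
      n2 + n3 := by
  have hpar : (n0 + n1 + n2 + n3) % 2 = 0 := by
    rw [← cast_zero_iff]
    push_cast
    have z : ∀ a b c d e f g h : ZMod 2, b = a + e → d = c + f → c = a + g → d = b + h →
        e + f + g + h = 0 := by decide
    exact z _ _ _ _ _ _ _ _ h0 h1 h2 h3
  have c0 : (0:ℝ) ≤ n0 := Nat.cast_nonneg _
  have c1 : (0:ℝ) ≤ n1 := Nat.cast_nonneg _
  have c2 : (0:ℝ) ≤ n2 := Nat.cast_nonneg _
  have c3 : (0:ℝ) ≤ n3 := Nat.cast_nonneg _
  have o : ∀ n : ℕ, n % 2 = 1 → (1:ℝ) ≤ n := fun n hn => by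
    have : 1 ≤ n := by omega
    exact_mod_cast this
  rcases dsp_cases h0 hσ with ⟨p0, e0⟩ | ⟨p0, f0, e0⟩ | ⟨p0, f0, e0⟩ <;>
    rcases dsp_cases h1 hσ with ⟨p1, e1⟩ | ⟨p1, f1, e1⟩ | ⟨p1, f1, e1⟩ <;> rw [e0, e1]
  · constructor <;> linarith
  · constructor <;> linarith
  · have := o n1 p1
    have h4 : 1 ≤ n2 + n3 := by omega
    have h4' : (1:ℝ) ≤ n2 + n3 := by exact_mod_cast h4
    constructor
    · linarith
    · by_cases h5 : n1 = 1
      · rw [h5]; push_cast; linarith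
      · have : 3 ≤ n1 := by omega
        have : (3:ℝ) ≤ n1 := by exact_mod_cast this
        linarith
  · constructor <;> linarith
  · constructor <;> linarith
  · have h4 : (1:ℝ) ≤ n1 := o n1 p1
    constructor <;> linarith
  · have := o n0 p0
    have h4 : 1 ≤ n2 + n3 := by omega
    have h4' : (1:ℝ) ≤ n2 + n3 := by exact_mod_cast h4
    constructor
    · by_cases h5 : n0 = 1
      · rw [h5]; push_cast; linarith
      · have : 3 ≤ n0 := by omega
        have : (3:ℝ) ≤ n0 := by exact_mod_cast this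
        linarith
    · linarith
  · have h4 : (1:ℝ) ≤ n0 := o n0 p0
    constructor <;> linarith
  · have g0 := o n0 p0
    have g1 := o n1 p1
    by_cases h4 : n2 + n3 = 0
    · have h5 : ¬ (n0 = 1 ∧ n1 = 1) := fun h => hm ⟨h.1, h.2, by omega, by omega, f1⟩
      by_cases h6 : n0 = 1
      · have : 3 ≤ n1 := by omega
        have : (3:ℝ) ≤ n1 := by exact_mod_cast this
        rw [h6]; push_cast
        constructor <;> linarith
      · have : 3 ≤ n0 := by omega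
        have h7 : (3:ℝ) ≤ n0 := by exact_mod_cast this
        by_cases h8 : n1 = 1
        · rw [h8]; push_cast
          constructor <;> linarith
        · have : 3 ≤ n1 := by omega
          have h9 : (3:ℝ) ≤ n1 := by exact_mod_cast this
          constructor <;> linarith
    · have h4'' : 1 ≤ n2 + n3 := by omega
      have h4' : (1:ℝ) ≤ n2 + n3 := by exact_mod_cast h4''
      constructor
      · by_cases h5 : n0 = 1
        · rw [h5]; push_cast; linarith
        · have : 3 ≤ n0 := by omega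
          have : (3:ℝ) ≤ n0 := by exact_mod_cast this
          linarith
      · by_cases h5 : n1 = 1
        · rw [h5]; push_cast; linarith
        · have : 3 ≤ n1 := by omega
          have : (3:ℝ) ≤ n1 := by exact_mod_cast this
          linarith

/-- the same for the four sides -/
lemma SqC.key (S : SqC C τ) (hd : 1 ≤ dim τ) {i : Fin 2} {σ : ℝ} (hσ : σ = 1 ∨ σ = -1) {j : J}
    (hm : ¬ S.Mn i σ j) {s : Fin 4} (hs : dr s = i) :
    (S.N s j : ℝ) ≤ 2 * ∑ s' with dr s' = i, ((S.N s' j : ℝ) - σ * S.dsp s' j) +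
      ∑ s' with dr s' ≠ i, (S.N s' j : ℝ) := by
  have e0 : C.Lab j (S.v 1) = C.Lab j (S.v 0) + (S.N 0 j : ZMod 2) := S.lab_side 0 j
  have e1 : C.Lab j (S.v 3) = C.Lab j (S.v 2) + (S.N 1 j : ZMod 2) := S.lab_side 1 j
  have e2 : C.Lab j (S.v 2) = C.Lab j (S.v 0) + (S.N 2 j : ZMod 2) := S.lab_side 2 j
  have e3 : C.Lab j (S.v 3) = C.Lab j (S.v 1) + (S.N 3 j : ZMod 2) := S.lab_side 3 j
  have d0 : S.dsp 0 j = (Bd_416.sg (C.Lab j (S.v 0)) - Bd_416.sg (C.Lab j (S.v 1))) / 2 := rfl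
  have d1 : S.dsp 1 j = (Bd_416.sg (C.Lab j (S.v 2)) - Bd_416.sg (C.Lab j (S.v 3))) / 2 := rfl
  have d2 : S.dsp 2 j = (Bd_416.sg (C.Lab j (S.v 0)) - Bd_416.sg (C.Lab j (S.v 2))) / 2 := rfl
  have d3 : S.dsp 3 j = (Bd_416.sg (C.Lab j (S.v 1)) - Bd_416.sg (C.Lab j (S.v 3))) / 2 := rfl
  have hb := S.lab_base hd j
  have f0 : (Finset.univ.filter fun s' : Fin 4 => dr s' = 0) = {0, 1} := by decide
  have f1 : (Finset.univ.filter fun s' : Fin 4 => dr s' = 1) = {2, 3} := by decide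
  have f0' : (Finset.univ.filter fun s' : Fin 4 => dr s' ≠ 0) = {2, 3} := by decide
  have f1' : (Finset.univ.filter fun s' : Fin 4 => dr s' ≠ 1) = {0, 1} := by decide
  have n01 : (0 : Fin 4) ≠ 1 := by decide
  have n23 : (2 : Fin 4) ≠ 3 := by decide
  have hpos : ∀ (s : Fin 4), (0:ℝ) ≤ S.N s j - σ * S.dsp s j := fun s => by
    have h1 := S.lab_side s j
    show (0:ℝ) ≤ S.N s j - σ * ((Bd_416.sg (C.Lab j (S.v (w0 s))) -
      Bd_416.sg (C.Lab j (S.v (w1 s)))) / 2)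
    rcases dsp_cases h1 hσ with ⟨p0, e0⟩ | ⟨p0, f0, e0⟩ | ⟨p0, f0, e0⟩ <;> rw [e0]
    · have := Nat.cast_nonneg (α := ℝ) (S.N s j); linarith
    · have := Nat.cast_nonneg (α := ℝ) (S.N s j); linarith
    · have : 1 ≤ S.N s j := by omega
      have : (1:ℝ) ≤ S.N s j := by exact_mod_cast this
      linarith
  have p0 := hpos 0
  have p1 := hpos 1
  have p2 := hpos 2
  have p3 := hpos 3
  have hi : i = 0 ∨ i = 1 := by omega
  rcases hi with rfl | rfl
  · have hm' : ¬ (S.N 0 j = 1 ∧ S.N 1 j = 1 ∧ S.N 2 j = 0 ∧ S.N 3 j = 0 ∧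
        Bd_416.sg (C.Lab j (S.v 3)) = -σ) := by
      rintro ⟨h1, h2, h3, h4, h5⟩
      refine hm ⟨fun s => ?_, by rw [← hb]; exact h5⟩
      fin_cases s
      · exact h1
      · exact h2
      · exact h3
      · exact h4
    obtain ⟨k0, k1⟩ := key_num e0 e1 e2 e3 hσ hm'
    rw [f0, f0', Finset.sum_pair n01, Finset.sum_pair n23]
    rw [d0, d1] at *
    have hs' : s = 0 ∨ s = 1 := by
      fin_cases s
      · exact Or.inl rfl
      · exact Or.inr rfl
      · exact absurd hs (by decide)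
      · exact absurd hs (by decide)
    rcases hs' with rfl | rfl <;> linarith
  · have hm' : ¬ (S.N 2 j = 1 ∧ S.N 3 j = 1 ∧ S.N 0 j = 0 ∧ S.N 1 j = 0 ∧
        Bd_416.sg (C.Lab j (S.v 3)) = -σ) := by
      rintro ⟨h1, h2, h3, h4, h5⟩
      refine hm ⟨fun s => ?_, by rw [← hb]; exact h5⟩
      fin_cases s
      · exact h3
      · exact h4
      · exact h1
      · exact h2
    obtain ⟨k0, k1⟩ := key_num e2 e3 e0 e1 hσ hm'
    rw [f1, f1', Finset.sum_pair n23, Finset.sum_pair n01]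
    rw [d2, d3] at *
    have hs' : s = 2 ∨ s = 3 := by
      fin_cases s
      · exact absurd hs (by decide)
      · exact absurd hs (by decide)
      · exact Or.inl rfl
      · exact Or.inr rfl
    rcases hs' with rfl | rfl <;> linarith

end Crest.Agent.R096.Fk_522
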