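import Crest.Agent.R096.Fk12_522

/-!
# R096 (row 96), P4-FACE, combinatorics, part 13: discrete purity gives `Pure` (helper522)
-/

set_option autoImplicit false
set_option linter.unusedSectionVars false

open Set Metric Filter Topology

namespace Crest.Agent.R096.Fk_522

open Crest.Agent.R096.Ce_537 Crest.Agent.R096.Bd_416 Crest.Agent.R096.Fsw_928

open scoped Classical

variable {Q : Type} [PartialOrder Q] {dim : Q → ℕ} {J Fam : Type}
variable {C : Cmb Q dim J Fam} {τ : Q} {S : SqC C τ} {wt : J → ℝ} {ν : Fin 4 → ℝ} {δ : ℝ}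
  {L : Lam (sph 2) (C.I τ)} {T : Fin 2 → Finset J} {c : Fin 2 → Fam} {σ a : Fin 2 → ℝ} {m : ℝ}

namespace DP

variable (hD : DP S wt T c σ a m)
include hD

lemma sum_fam (i : Fin 2) (s : Fin 4) (F : J → Prop) :
    ∑ y : C.I (S.es s) with (C.fam (C.col _ y) = c i ∧ F (C.col _ y)), wt (C.col _ y)
      = ∑ j ∈ T i with F j, wt j * S.N s j := by
  rw [← Finset.sum_fiberwise_of_maps_to (t := (T i).filter F) (g := fun y => C.col _ y)
    (fun y hy => ?_)]
  · refine Finset.sum_congr rfl fun j hj => ?_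
    obtain ⟨hj1, hj2⟩ := Finset.mem_filter.1 hj
    have h1 : ((Finset.univ.filter fun y : C.I (S.es s) =>
        (C.fam (C.col _ y) = c i ∧ F (C.col _ y))).filter fun y => C.col _ y = j)
        = Finset.univ.filter fun y : C.I (S.es s) => C.col _ y = j := by
      ext y
      simp only [Finset.mem_filter, Finset.mem_univ, true_and]
      constructor
      · rintro ⟨-, h⟩; exact h
      · rintro rfl; exact ⟨⟨hD.T1 i _ hj1, hj2⟩, rfl⟩
    rw [h1]
    have h2 : ∀ y ∈ Finset.univ.filter (fun y : C.I (S.es s) => C.col _ y = j),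
        wt (C.col _ y) = wt j := fun y hy => by rw [(Finset.mem_filter.1 hy).2]
    rw [Finset.sum_congr rfl h2, Finset.sum_const, nsmul_eq_mul, mul_comm]
    rfl
  · obtain ⟨-, h1, h2⟩ := Finset.mem_filter.1 hy
    exact Finset.mem_filter.2 ⟨hD.T2 i s y h1, h2⟩

lemma sum_fam' (i : Fin 2) (s : Fin 4) :
    ∑ y : C.I (S.es s) with C.fam (C.col _ y) = c i, wt (C.col _ y)
      = ∑ j ∈ T i, wt j * S.N s j := by
  have h := hD.sum_fam i s (fun _ => True)
  simpa using h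

/-- the weight of the crossing points whose sheets are not main -/
theorem bad_fam (hd : 1 ≤ dim τ) (hw : ∀ j, 0 < wt j) {i : Fin 2} {s : Fin 4} (hs : dr s = i) :
    ∑ y : C.I (S.es s) with (C.fam (C.col _ y) = c i ∧ ¬ S.Mn i (σ i) (C.col _ y)),
      wt (C.col _ y) ≤ 10 * m := by
  have e0 : ∑ y : C.I (S.es s) with (C.fam (C.col _ y) = c i ∧ ¬ S.Mn i (σ i) (C.col _ y)),
      wt (C.col _ y) = ∑ j ∈ T i with ¬ S.Mn i (σ i) j, wt j * S.N s j := by
    convert hD.sum_fam i s (fun j => ¬ S.Mn i (σ i) j)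
  rw [e0]
  have hσ := hD.sg i
  let f : J → ℝ := fun j => 2 * ∑ s' with dr s' = i, ((S.N s' j : ℝ) - σ i * S.dsp s' j) +
      ∑ s' with dr s' ≠ i, (S.N s' j : ℝ)
  have hf : ∀ j, 0 ≤ f j := fun j => by
    refine add_nonneg (mul_nonneg zero_le_two (Finset.sum_nonneg fun s' _ => ?_))
      (Finset.sum_nonneg fun s' _ => Nat.cast_nonneg _)
    have h1 := S.lab_side s' j
    show (0:ℝ) ≤ S.N s' j - σ i * ((Bd_416.sg (C.Lab j (S.v (w0 s'))) -
      Bd_416.sg (C.Lab j (S.v (w1 s')))) / 2)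
    rcases dsp_cases h1 hσ with ⟨p0, e0⟩ | ⟨p0, f0, e0⟩ | ⟨p0, f0, e0⟩ <;> rw [e0]
    · have := Nat.cast_nonneg (α := ℝ) (S.N s' j); linarith
    · have := Nat.cast_nonneg (α := ℝ) (S.N s' j); linarith
    · have : 1 ≤ S.N s' j := by omega
      have : (1:ℝ) ≤ S.N s' j := by exact_mod_cast this
      linarith
  have h1 : ∑ j ∈ T i with ¬ S.Mn i (σ i) j, wt j * S.N s j ≤ ∑ j ∈ T i, wt j * f j := by
    calc ∑ j ∈ T i with ¬ S.Mn i (σ i) j, wt j * S.N s j
        ≤ ∑ j ∈ T i with ¬ S.Mn i (σ i) j, wt j * f j := by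
          refine Finset.sum_le_sum fun j hj => mul_le_mul_of_nonneg_left ?_ (hw j).le
          exact S.key hd hσ (Finset.mem_filter.1 hj).2 hs
      _ ≤ _ := Finset.sum_le_sum_of_subset_of_nonneg (Finset.filter_subset _ _)
          fun j _ _ => mul_nonneg (hw j).le (hf j)
  refine h1.trans ?_
  have h2 : ∑ j ∈ T i, wt j * f j =
      2 * ∑ s' with dr s' = i, (∑ j ∈ T i, wt j * S.N s' j -
        σ i * ∑ j ∈ T i, wt j * S.dsp s' j) +
      ∑ s' with dr s' ≠ i, ∑ j ∈ T i, wt j * (S.N s' j : ℝ) := by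
    have e1 : ∀ j, wt j * f j = 2 * ∑ s' with dr s' = i, (wt j * (S.N s' j : ℝ) -
        σ i * (wt j * S.dsp s' j)) + ∑ s' with dr s' ≠ i, wt j * (S.N s' j : ℝ) := fun j => by
      show wt j * (2 * ∑ s' with dr s' = i, ((S.N s' j : ℝ) - σ i * S.dsp s' j) +
        ∑ s' with dr s' ≠ i, (S.N s' j : ℝ)) = _
      have a1 : wt j * ∑ s' with dr s' = i, ((S.N s' j : ℝ) - σ i * S.dsp s' j) =
          ∑ s' with dr s' = i, (wt j * (S.N s' j : ℝ) - σ i * (wt j * S.dsp s' j)) := by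
        rw [Finset.mul_sum]
        exact Finset.sum_congr rfl fun s' _ => by ring
      have a2 : wt j * ∑ s' with dr s' ≠ i, (S.N s' j : ℝ) =
          ∑ s' with dr s' ≠ i, wt j * (S.N s' j : ℝ) := Finset.mul_sum _ _ _
      rw [mul_add, mul_left_comm, a1, a2]
    rw [Finset.sum_congr rfl fun j _ => e1 j, Finset.sum_add_distrib, ← Finset.mul_sum,
      Finset.sum_comm, Finset.sum_comm (s := T i)]
    congr 2
    refine Finset.sum_congr rfl fun s' _ => ?_
    rw [Finset.sum_sub_distrib, ← Finset.mul_sum]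
  rw [h2]
  have h3 : ∀ s', dr s' = i → ∑ j ∈ T i, wt j * (S.N s' j : ℝ) -
      σ i * ∑ j ∈ T i, wt j * S.dsp s' j ≤ 2 * m := fun s' hs' => by
    have h4 := hD.tot i s' hs'
    have h5 := hD.dis i s' hs'
    rw [hD.sum_fam' i s'] at h4
    linarith
  have h6 : ∀ s', dr s' ≠ i → ∑ j ∈ T i, wt j * (S.N s' j : ℝ) ≤ m := fun s' hs' => by
    have h4 := hD.oth i s' hs'
    rwa [hD.sum_fam' i s'] at h4
  have c1 : (Finset.univ.filter fun s' : Fin 4 => dr s' = i).card = 2 := by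
    have hi : i = 0 ∨ i = 1 := by omega
    rcases hi with rfl | rfl <;> decide
  have c2 : (Finset.univ.filter fun s' : Fin 4 => dr s' ≠ i).card = 2 := by
    have hi : i = 0 ∨ i = 1 := by omega
    rcases hi with rfl | rfl <;> decide
  have h7 := Finset.sum_le_card_nsmul (Finset.univ.filter fun s' : Fin 4 => dr s' = i)
    (fun s' => ∑ j ∈ T i, wt j * (S.N s' j : ℝ) - σ i * ∑ j ∈ T i, wt j * S.dsp s' j) (2 * m)
    (fun s' hs' => h3 s' (Finset.mem_filter.1 hs').2)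
  have h8 := Finset.sum_le_card_nsmul (Finset.univ.filter fun s' : Fin 4 => dr s' ≠ i)
    (fun s' => ∑ j ∈ T i, wt j * (S.N s' j : ℝ)) m
    (fun s' hs' => h6 s' (Finset.mem_filter.1 hs').2)
  rw [c1] at h7
  rw [c2] at h8
  simp only [nsmul_eq_mul, Nat.cast_ofNat] at h7 h8
  linarith

/-- **the weight of the bad ends of a side** -/
theorem bad_sum (hd : 1 ≤ dim τ) (hw : ∀ j, 0 < wt j) (hm : 0 ≤ m) (s : Fin 4) :
    ∑ y : C.I (S.es s) with (C.up (S.lt s) y ∉ S.M c σ a 1 ∧ C.up (S.lt s) y ∉ S.M c σ a 0),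
      wt (C.col _ y) ≤ 11 * m := by
  have hother : dr s ≠ 1 - dr s := by
    have hi : dr s = 0 ∨ dr s = 1 := by omega
    rcases hi with h | h <;> rw [h] <;> decide
  have ho := hD.oth (1 - dr s) s hother
  have hmain : ∑ y : C.I (S.es s) with (C.fam (C.col _ y) = c (dr s) ∧
      C.up (S.lt s) y ∉ S.M c σ a (dr s)), wt (C.col _ y) ≤ 10 * m := by
    by_cases ha : a (dr s) = 0
    · have h1 := hD.tot (dr s) s rfl
      rw [ha, zero_add] at h1
      refine (Finset.sum_le_sum_of_subset_of_nonneg (fun y hy => ?_)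
        fun y _ _ => (hw _).le).trans (h1.trans (by linarith))
      exact Finset.mem_filter.2 ⟨Finset.mem_univ _, (Finset.mem_filter.1 hy).2.1⟩
    · refine le_trans (Finset.sum_le_sum_of_subset_of_nonneg (fun y hy => ?_)
        fun y _ _ => (hw _).le) (hD.bad_fam hd hw (i := dr s) (s := s) rfl)
      obtain ⟨-, h1, h2⟩ := Finset.mem_filter.1 hy
      refine Finset.mem_filter.2 ⟨Finset.mem_univ _, h1, fun h3 => h2 ?_⟩
      refine Finset.mem_filter.2 ⟨Finset.mem_univ _, ha, ?_, ?_⟩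
      · rw [C.col_up]; exact h1
      · rw [C.col_up]; exact h3
  have hle : ∑ y : C.I (S.es s) with (C.up (S.lt s) y ∉ S.M c σ a 1 ∧
      C.up (S.lt s) y ∉ S.M c σ a 0), wt (C.col _ y) ≤
      ∑ y : C.I (S.es s) with (C.fam (C.col _ y) = c (dr s) ∧
        C.up (S.lt s) y ∉ S.M c σ a (dr s)), wt (C.col _ y) +
      ∑ y : C.I (S.es s) with C.fam (C.col _ y) = c (1 - dr s), wt (C.col _ y) := by
    rw [Finset.sum_filter, Finset.sum_filter, Finset.sum_filter, ← Finset.sum_add_distrib]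
    refine Finset.sum_le_sum fun y _ => ?_
    have hy := (hw (C.col _ y)).le
    obtain ⟨i, hi⟩ := hD.two s y
    have hi' : i = dr s ∨ i = 1 - dr s := by omega
    by_cases hP : C.up (S.lt s) y ∉ S.M c σ a 1 ∧ C.up (S.lt s) y ∉ S.M c σ a 0
    · rw [if_pos hP]
      have hPi : C.up (S.lt s) y ∉ S.M c σ a (dr s) := by
        have hj : dr s = 0 ∨ dr s = 1 := by omega
        rcases hj with h | h <;> rw [h]
        · exact hP.2
        · exact hP.1
      rcases hi' with rfl | rfl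
      · rw [if_pos ⟨hi, hPi⟩]
        split_ifs <;> linarith
      · rw [if_pos hi]
        split_ifs <;> linarith
    · rw [if_neg hP]
      split_ifs <;> linarith
  linarith

end DP

namespace BwF

variable (B : BwF S wt ν δ L) (h2 : B.toBw.Two)
include h2

/-- the ends of a main piece -/
lemma n_main {i : Fin 2} {x : C.I τ} (hx : x ∈ S.M c σ a i) (s : Fin 4) :
    B.toBw.n s x = if dr s = i then 1 else 0 := by
  have hM := (Finset.mem_filter.1 hx).2.2.2.1
  have h0 := h2 x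
  have l0 := B.n_le 0 x
  have l1 := B.n_le 1 x
  have l2 := B.n_le 2 x
  have l3 := B.n_le 3 x
  have hi : i = 0 ∨ i = 1 := by omega
  rcases hi with rfl | rfl
  · have m0 : S.N 0 (C.col τ x) = 1 := hM 0
    have m1 : S.N 1 (C.col τ x) = 1 := hM 1
    have m2 : S.N 2 (C.col τ x) = 0 := hM 2
    have m3 : S.N 3 (C.col τ x) = 0 := hM 3
    fin_cases s
    · show B.toBw.n 0 x = 1; omega
    · show B.toBw.n 1 x = 1; omega
    · show B.toBw.n 2 x = 0; omega
    · show B.toBw.n 3 x = 0; omega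
  · have m0 : S.N 0 (C.col τ x) = 0 := hM 0
    have m1 : S.N 1 (C.col τ x) = 0 := hM 1
    have m2 : S.N 2 (C.col τ x) = 1 := hM 2
    have m3 : S.N 3 (C.col τ x) = 1 := hM 3
    fin_cases s
    · show B.toBw.n 0 x = 0; omega
    · show B.toBw.n 1 x = 0; omega
    · show B.toBw.n 2 x = 1; omega
    · show B.toBw.n 3 x = 1; omega

/-- **a main piece is the only piece of its sheet** -/
lemma only {i : Fin 2} {x : C.I τ} (hx : x ∈ S.M c σ a i) {x' : C.I τ}
    (hc : C.col τ x' = C.col τ x) : x' = x := by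
  by_contra hne
  have hM := (Finset.mem_filter.1 hx).2.2.2.1
  have h0 := h2 x
  have h0' := h2 x'
  have l0 := B.n_le2 0 (Ne.symm hne) hc.symm
  have l1 := B.n_le2 1 (Ne.symm hne) hc.symm
  have l2 := B.n_le2 2 (Ne.symm hne) hc.symm
  have l3 := B.n_le2 3 (Ne.symm hne) hc.symm
  rw [hM] at l0 l1 l2 l3
  have hi : i = 0 ∨ i = 1 := by omega
  have d0 : dr 0 = 0 := rfl
  have d1 : dr 1 = 0 := rfl
  have d2 : dr 2 = 1 := rfl
  have d3 : dr 3 = 1 := rfl
  rw [d0] at l0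
  rw [d1] at l1
  rw [d2] at l2
  rw [d3] at l3
  rcases hi with rfl | rfl
  · simp at l0 l1 l2 l3
    omega
  · simp at l0 l1 l2 l3
    omega

lemma cls_A {x : C.I τ} (hx : x ∈ S.M c σ a 1) : B.toBw.cls x = 1 := by
  have n2 : B.toBw.n 2 x = 1 := B.n_main h2 hx 2
  have n3 : B.toBw.n 3 x = 1 := B.n_main h2 hx 3
  unfold Bw.cls
  rw [if_pos ⟨n2, n3⟩]

lemma cls_B {x : C.I τ} (hx : x ∈ S.M c σ a 0) : B.toBw.cls x = 2 := by
  have n0 : B.toBw.n 0 x = 1 := B.n_main h2 hx 0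
  have n1 : B.toBw.n 1 x = 1 := B.n_main h2 hx 1
  have n2 : B.toBw.n 2 x = 0 := B.n_main h2 hx 2
  unfold Bw.cls
  rw [if_neg (by rw [n2]; rintro ⟨h, -⟩; exact absurd h (by decide)), if_pos ⟨n0, n1⟩]

lemma a_main {i : Fin 2} {x : C.I τ} (hx : x ∈ S.M c σ a i) {s : Fin 4} (hs : dr s = i) :
    B.a s x = 1 := by
  obtain ⟨r1, r3, r0, r2, -⟩ := B.toBw.a_rel x
  have n0 := B.n_main h2 hx 0
  have n1 := B.n_main h2 hx 1
  have n2 := B.n_main h2 hx 2
  have n3 := B.n_main h2 hx 3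
  have d0 : dr 0 = 0 := rfl
  have d1 : dr 1 = 0 := rfl
  have d2 : dr 2 = 1 := rfl
  have d3 : dr 3 = 1 := rfl
  rw [d0] at n0
  rw [d1] at n1
  rw [d2] at n2
  rw [d3] at n3
  rw [n1] at r1
  rw [n3] at r3
  rw [n3, n0] at r0
  rw [r0] at r2
  have hi : i = 0 ∨ i = 1 := by omega
  rcases hi with rfl | rfl
  · simp at r0 r1
    fin_cases s
    · exact r0
    · exact r1
    · exact absurd hs (by decide)
    · exact absurd hs (by decide)
  · simp at r2 r3
    fin_cases s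
    · exact absurd hs (by decide)
    · exact absurd hs (by decide)
    · exact r2
    · exact r3

lemma ord_main {i : Fin 2} {x x' : C.I τ} (hx : x ∈ S.M c σ a i) (hx' : x' ∈ S.M c σ a i)
    {s s' : Fin 4} (hs : dr s = i) (hs' : dr s' = i) (hlt : B.toBw.ps s x < B.toBw.ps s x') :
    B.toBw.ps s' x < B.toBw.ps s' x' := by
  by_cases hne : x = x'
  · subst hne; exact absurd hlt (lt_irrefl _)
  have hf : C.fam (C.col τ x) = C.fam (C.col τ x') :=
    (Finset.mem_filter.1 hx).2.2.1.trans (Finset.mem_filter.1 hx').2.2.1.symm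
  have h1 : B.toBw.n s x = 1 := by rw [B.n_main h2 hx s, if_pos hs]
  have h1' : B.toBw.n s x' = 1 := by rw [B.n_main h2 hx' s, if_pos hs]
  have h3 : B.toBw.n s' x = 1 := by rw [B.n_main h2 hx s', if_pos hs']
  have h3' : B.toBw.n s' x' = 1 := by rw [B.n_main h2 hx' s', if_pos hs']
  exact (B.ord_aux hne hf h3 h3' (B.a_main h2 hx' hs')).2
    ((B.ord_aux hne hf h1 h1' (B.a_main h2 hx' hs)).1 hlt)

omit h2 in
/-- **`Pure` from discrete purity** -/
theorem pure (hd : 1 ≤ dim τ) (hw : ∀ j, 0 < wt j) (hν : ∀ s, 0 < ν s)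
    (hends : ∀ x : C.I τ, ∃ a b, a ≠ b ∧ Arc_778.Blw C τ x = {a, b})
    (hD : DP S wt T c σ a m) (hm : 0 ≤ m) {η : ℝ}
    (hη : ∀ s, 11 * (ν s * m) ≤ η ∨ ∑ y, S.wd wt ν s y ≤ η)
    (hfull : ∀ s, a (dr s) ≠ 0 → 2 * (1 - δ) - η ≤ ∑ y, S.wd wt ν s y)
    (hνν : ∀ s s', dr s = dr s' → a (dr s) ≠ 0 → |ν s - ν s'| ≤ η * ν s) :
    Pure B.toBw (fun x => wt (C.col τ x)) ν (a 1 ≠ 0) (a 0 ≠ 0) δ η (S.M c σ a 1)
      (S.M c σ a 0) := by
  have h2 := B.two hends
  have hνm : ∀ s, 0 ≤ ν s * m := fun s => mul_nonneg (hν s).le hm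
  have hwd0 : ∀ s y, 0 ≤ S.wd wt ν s y := fun s y => mul_nonneg (hν s).le (hw _).le
  refine ⟨h2, fun x => hw _, hν, fun s y => ?_, B.mlo, B.mhi, fun s y => ?_,
    fun x hx => B.cls_A h2 hx, fun x hx => B.cls_B h2 hx,
    fun x hx x' hx' => B.ord_main h2 hx hx' rfl rfl,
    fun x hx x' hx' => B.ord_main h2 hx hx' rfl rfl, fun s => ?_, fun h => ?_, fun h => ?_,
    fun h s hs => hfull s ?_, fun h s hs => hfull s ?_, fun h => ⟨hνν 2 3 rfl h, ?_⟩,
    fun h => ⟨hνν 0 1 rfl h, ?_⟩⟩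
  · show ν s * wt (C.col _ y) = ν s * wt (C.col τ (C.up (S.lt s) y))
    rw [C.col_up]
  · show ν s * wt (C.col _ y) ≤ η
    rcases hη s with h4 | h4
    · have h3 := mul_le_mul_of_nonneg_left (hD.small s y) (hν s).le
      have h5 := hνm s
      linarith
    · exact (Finset.single_le_sum (fun y _ => hwd0 s y) (Finset.mem_univ y)).trans h4
  · rcases hη s with h5 | h5
    · have h3 := hD.bad_sum hd hw hm s
      have h4 := mul_le_mul_of_nonneg_left h3 (hν s).le
      rw [Finset.mul_sum] at h4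
      refine le_trans (le_of_eq ?_) (h4.trans ?_)
      · rfl
      · linarith
    · exact (Finset.sum_le_sum_of_subset_of_nonneg (Finset.filter_subset _ _)
        fun y _ _ => hwd0 s y).trans h5
  · rw [not_not] at h
    ext x
    simp [SqC.M, h]
  · rw [not_not] at h
    ext x
    simp [SqC.M, h]
  · rcases hs with rfl | rfl <;> exact h
  · rcases hs with rfl | rfl <;> exact h
  · rw [abs_sub_comm]; exact hνν 3 2 rfl h
  · rw [abs_sub_comm]; exact hνν 1 0 rfl h

end BwF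

end Crest.Agent.R096.Fk_522
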