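import Crest.Agent.R096.Fsw23_928

/-!
# R096 (row 96), FACE-SWEEP, part 24: the face rule for the final structure (helper928)
-/

set_option autoImplicit false
set_option linter.unusedSectionVars false

open Set Metric Filter Topology MeasureTheory
open scoped ENNReal NNReal Classical

namespace Crest.Agent.R096.Fsw_928

open Crest.Agent.R096.Ce_537 Crest.Agent.R096.Bd_416 Crest.Agent.R096.Fk_522

/-! ### the filled face is `ff` -/

section fill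

variable {E : Type*} [NormedAddCommGroup E] [NormedSpace ℝ E] {q dq : Set E} {I : Type*}

/-- a depth assignment of the pulled back structure is one of the structure -/
lemma dep_unpull {n : ℕ} (e : PLEquiv (cube n) q) (he : e.f '' sph n = dq) {L : Lam dq I}
    {K b : ℝ} {h ρ : I → ℝ} (D : Dep (L.pull (bdE e he) isClosed_sphere) K b h ρ) :
    Dep L K b h ρ where
  cst := D.cst
  h0 := D.h0
  lo := D.lo
  hi := D.hi
  sep i j hij := by
    rintro ⟨ω, hω, h1, h2⟩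
    refine D.sep i j hij ⟨(bdE e he).g ω, (bdE e he).mg hω, ?_, ?_⟩
    · show -1/2 < L.c i ((bdE e he).f ((bdE e he).g ω))
      rw [(bdE e he).ri ω hω]; exact h1
    · show -1/2 < L.c j ((bdE e he).f ((bdE e he).g ω))
      rw [(bdE e he).ri ω hω]; exact h2

/-- the chart of the face: the sweeps, then the given chart -/
noncomputable def swCh (P P' : Par) (A : PLEquiv (cube 2) q) : PLEquiv (cube 2) q :=
  (P.phi P').trans A

lemma swCh_sph (P P' : Par) {A : PLEquiv (cube 2) q} (hA : A.f '' sph 2 = dq) :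
    (swCh P P' A).f '' sph 2 = dq := by
  rw [← hA]
  refine image_congr fun ω hω => ?_
  show A.f ((P.phi P').f ω) = A.f ω
  rw [P.phi_f_sph P' hω]

/-- **the band functions of the face are `ff`** -/
theorem fillBall_ff (P P' : Par) (A : PLEquiv (cube 2) q) (hA : A.f '' sph 2 = dq) {L : Lam dq I}
    {K b : ℝ} {h ρ : I → ℝ} (D : Dep L K b h ρ)
    (D' : Dep (L.pull (bdE A hA) isClosed_sphere) K b h ρ) (i : I) {z : Fin 2 → ℝ}
    (hz : z ∈ cube 2) :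
    (D.fillBall (swCh P P' A) (swCh_sph P P' hA)).c i (A.f z) = ff D' P P' i z := by
  rw [D.fillBall_c]
  have e1 : (swCh P P' A).g (A.f z) = (P.phi P').g z := by
    show (P.phi P').g (A.g (A.f z)) = _
    rw [A.li z hz]
  rw [e1]
  unfold ff
  have hx : (P.phi P').g z ∈ cube 2 := (P.phi P').mg hz
  rcases le_total ‖(P.phi P').g z‖ (1/2) with h1 | h1
  · rw [(D.pull _ _).fill_c_low i h1, D'.fill_c_low i h1]
  · have hAnn : (P.phi P').g z ∈ Ann 2 := ⟨h1, by simpa using hx⟩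
    rw [(D.pull _ _).fill_c_ann i hAnn, D'.fill_c_ann i hAnn]
    have hω := ((collar 2).mf hAnn).1
    have e2 : (swCh P P' A).f ((collar 2).f ((P.phi P').g z)).1
        = A.f ((collar 2).f ((P.phi P').g z)).1 := by
      show A.f ((P.phi P').f _) = _
      rw [P.phi_f_sph P' hω]
    show cl (min (L.c i ((swCh P P' A).f ((collar 2).f ((P.phi P').g z)).1)) _ / (2 * b)) = _
    rw [e2]
    rfl

end fill

/-! ### the face rule -/

section rule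

/-- **THE FACE RULE FOR THE FINAL STRUCTURE** -/
theorem face_rule {p : ℝ} (hp : 1 ≤ p) {Λ : ℝ} (hΛ : 1 ≤ Λ) {e : ℝ} (he : 0 < e) :
    ∃ δ0 : ℝ, 0 < δ0 ∧ δ0 ≤ 1/4 ∧ ∀ δ, 0 < δ → δ ≤ δ0 → ∃ P P' : Par, ∃ η0 : ℝ, 0 < η0 ∧ η0 ≤ δ / 56 ∧
    ∀ η, 0 ≤ η → η ≤ η0 →
    (∀ {ι : Type} [Fintype ι] {L : Lam (sph 2) ι} {W : Bw L} {wt : ι → ℝ} {ν : Fin 4 → ℝ}
      {FA FB : Prop} {MA MB : Finset ι} (_ : Pure W wt ν FA FB δ η MA MB) {K b : ℝ} (_ : Cst K b)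
      (k0 : ι → ℕ) (_ : Function.Injective k0) (Rl : ι → ι → Prop)
      (_ : ∀ x x', Rl x x' → Bw.Inc L x x') (_ : ∀ x x', Rl x x' → k0 x' < k0 x),
      Nonempty (Bw.Dpt W P P' K b (lg W wt ν) Rl (6 * η) (6 * η))) ∧
    (∀ {Q : Type} [PartialOrder Q] {dim : Q → ℕ} {J Fam : Type} {E : Type} [NormedAddCommGroup E]
      [NormedSpace ℝ E] {C : Cmb Q dim J Fam} {K : Q → Set E} {D : Set Q} {g : Gd E J}
      {Pc : ∀ q, C.I q → Set E} {c : ∀ q, C.I q → E → ℝ} (_ : Bd_416.Inv C K D g Pc c) {q : Q}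
      (_ : q ∈ D) {L : Lam (sph 2) (C.I q)} {W : Bw L} {wt : J → ℝ} {ν : Fin 4 → ℝ}
      {FA FB : Prop} {MA MB : Finset (C.I q)}
      (_ : Pure W (fun x : C.I q => wt (C.col q x)) ν FA FB δ η MA MB) {κ' b : ℝ}
      {Rl : C.I q → C.I q → Prop}
      (T : Bw.Dpt W P P' κ' b (lg W (fun x : C.I q => wt (C.col q x)) ν) Rl (6 * η) (6 * η))
      (β μ lf : ℝ), 0 < β → β ≤ 1 → 1 - η ≤ 2 * (b * β) → 0 < μ → 1 / αX ν ≤ Λ * μ →
      1 ≤ lf → lf ≤ 2 →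
      ∀ (ch : (Fin 2 → ℝ) → E), (∀ z ∈ osq, ch z ∈ K q) →
      (∀ x, ∀ z ∈ osq, c q x (ch z) = fb T.D P P' β x z) →
      ∀ (T1 : Finset J) (ε : Fin 2 → ℝ), (∀ i, ε i = 1 ∨ ε i = -1) →
      ∀ (F' : (Fin 2 → ℝ) → ℝ), (∀ z ∈ osq, ∀ z' ∈ osq, F' (tau ε z') - F' (tau ε z)
        = lf * (∑ j ∈ T1, wt j * g.G j (ch z') - ∑ j ∈ T1, wt j * g.G j (ch z))) →
      ∀ (κ s : ℝ), |s| = 1 →
      ((∀ x ∈ MA, C.col q x ∈ T1 ∧ (∀ x', C.col q x' = C.col q x → x' = x) ∧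
          sg (C.Lab (C.col q x) q) = s) → (∀ x ∈ MB, C.col q x ∉ T1) →
        (FA → |κ + lf * (ε 1 * s * (2 / ν 2))| ≤ 6 * δ * μ) → (¬ FA → |κ| ≤ 6 * δ * μ) →
        ∫⁻ y in ousq, ‖fderiv ℝ F' y - κ • pr 1‖ₑ ^ p ≤ ENNReal.ofReal (e * μ ^ p)) ∧
      ((∀ x ∈ MB, C.col q x ∈ T1 ∧ (∀ x', C.col q x' = C.col q x → x' = x) ∧
          sg (C.Lab (C.col q x) q) = s) → (∀ x ∈ MA, C.col q x ∉ T1) →
        (FB → |κ + lf * (ε 0 * s * (2 / ν 0))| ≤ 6 * δ * μ) → (¬ FB → |κ| ≤ 6 * δ * μ) →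
        ∫⁻ y in ousq, ‖fderiv ℝ F' y - κ • pr 0‖ₑ ^ p ≤ ENNReal.ofReal (e * μ ^ p))) := by
  have hp0 : 0 ≤ p := by linarith
  have he1 : 0 < e / 2 ^ p := by positivity
  obtain ⟨δ0, h1, h2, h3⟩ := pure_LP hp hΛ he1
  refine ⟨δ0, h1, h2, fun δ hδ hδ0 => ?_⟩
  obtain ⟨P, P', η0, h4, h5, h6⟩ := h3 δ hδ hδ0
  refine ⟨P, P', η0, h4, h5, fun η hη hη0 => ?_⟩
  obtain ⟨h60, h7⟩ := h6 η hη hη0
  refine ⟨@h60, ?_⟩
  intro Q _ dim J Fam E _ _ C K D g Pc c H q hq L W wt ν FA FB MA MB HP κ' b Rl T β μ lf hβ0 hβ1 hbβ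
    hμ hα hlf1 hlf2 ch hch hc T1 ε hε F' hF' κ s hs
  have hlf : 0 < lf := by linarith
  -- general step
  have key : ∀ (M : Finset (C.I q)), (∀ x ∈ M, C.col q x ∈ T1 ∧
      (∀ x', C.col q x' = C.col q x → x' = x) ∧ sg (C.Lab (C.col q x) q) = s) →
      ∀ z ∈ osq, ∀ z' ∈ osq,
        |F' (tau ε z') / lf - F' (tau ε z) / lf
          - (GJ T.D P P' β M (fun x => s * wt (C.col q x)) z'
            - GJ T.D P P' β M (fun x => s * wt (C.col q x)) z)| ≤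
        ∑ i : C.I q with (C.col q i ∈ T1 ∧ i ∉ M), |wt (C.col q i)| *
          |fb T.D P P' β i z' - fb T.D P P' β i z| := by
    intro M hM z hz z' hz'
    have h8 := label_diff H hq wt T1 M (fun x hx => (hM x hx).1) (fun x hx => (hM x hx).2.1)
      (hch z hz) (hch z' hz')
    have e1 : F' (tau ε z') / lf - F' (tau ε z) / lf
        = ∑ j ∈ T1, wt j * g.G j (ch z') - ∑ j ∈ T1, wt j * g.G j (ch z) := by
      rw [← sub_div, hF' z hz z' hz', mul_div_cancel_left₀ _ hlf.ne']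
    have e2 : ∀ v ∈ osq, GJ T.D P P' β M (fun x => s * wt (C.col q x)) v
        = ∑ x ∈ M, sg (C.Lab (C.col q x) q) * wt (C.col q x) * c q x (ch v) := by
      intro v hv
      unfold GJ
      refine Finset.sum_congr rfl fun x hx => ?_
      rw [(hM x hx).2.2, hc x v hv]
    rw [e1, e2 z hz, e2 z' hz']
    refine h8.trans (le_of_eq (Finset.sum_congr rfl fun x _ => ?_))
    rw [hc x z hz, hc x z' hz']
  have fin : ∀ {j : Fin 2}, (∫⁻ y in ousq, ‖fderiv ℝ (fun y => F' y / lf) y - (κ / lf) • pr j‖ₑ ^ p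
      ≤ ENNReal.ofReal (e / 2 ^ p * μ ^ p)) →
      ∫⁻ y in ousq, ‖fderiv ℝ F' y - κ • pr j‖ₑ ^ p ≤ ENNReal.ofReal (e * μ ^ p) := by
    intro j h9
    refine (lint_scale hlf hp0 h9).trans (ENNReal.ofReal_le_ofReal ?_)
    have h10 : lf ^ p ≤ 2 ^ p := Real.rpow_le_rpow hlf.le hlf2 hp0
    have h11 : 0 ≤ e * μ ^ p := by positivity
    have h12 : (0:ℝ) < 2 ^ p := by positivity
    calc e / 2 ^ p * μ ^ p * lf ^ p ≤ e / 2 ^ p * μ ^ p * 2 ^ p :=
          mul_le_mul_of_nonneg_left h10 (by positivity)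
      _ = e * μ ^ p := by field_simp
  have hκ : ∀ {t : ℝ}, |κ + lf * t| ≤ 6 * δ * μ → |κ / lf + t| ≤ 6 * δ * μ := by
    intro t h
    have e3 : κ / lf + t = (κ + lf * t) / lf := by field_simp
    rw [e3, abs_div, abs_of_pos hlf, div_le_iff₀ hlf]
    have : 0 ≤ 6 * δ * μ := by positivity
    nlinarith
  have hκ0 : |κ| ≤ 6 * δ * μ → |κ / lf| ≤ 6 * δ * μ := by
    intro h
    have := hκ (t := 0) (by simpa using h)
    simpa using this
  refine ⟨fun hM hN k1 k0 => fin ?_, fun hM hN k1 k0 => fin ?_⟩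
  · refine (h7 HP T β μ hβ0 hβ1 hbβ hμ hα (Finset.univ.filter fun i => C.col q i ∈ T1 ∧ i ∉ MA)
      (fun x hx => ?_) (fun x => s * wt (C.col q x)) (fun x => wt (C.col q x)) (fun x _ => ?_) ε hε
      (fun y => F' y / lf) (κ / lf) s hs).1 (fun x _ => rfl) (key MA hM) (fun hF => hκ (k1 hF))
      (fun hF => hκ0 (k0 hF))
    · obtain ⟨-, h8, h9⟩ := Finset.mem_filter.1 hx
      exact ⟨h9, fun hB => hN x hB h8⟩
    · rw [abs_of_pos (HP.wt0 x)]
  · refine (h7 HP T β μ hβ0 hβ1 hbβ hμ hα (Finset.univ.filter fun i => C.col q i ∈ T1 ∧ i ∉ MB)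
      (fun x hx => ?_) (fun x => s * wt (C.col q x)) (fun x => wt (C.col q x)) (fun x _ => ?_) ε hε
      (fun y => F' y / lf) (κ / lf) s hs).2 (fun x _ => rfl) (key MB hM) (fun hF => hκ (k1 hF))
      (fun hF => hκ0 (k0 hF))
    · obtain ⟨-, h8, h9⟩ := Finset.mem_filter.1 hx
      exact ⟨fun hA => hN x hA h8, h9⟩
    · rw [abs_of_pos (HP.wt0 x)]

end rule

end Crest.Agent.R096.Fsw_928
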