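import Crest.Agent.R096.Bd19_416

/-!
# R096 (row 96), P4-MESH: edges with margin and the mixed mesh (helper662)

* `ratio_self`, `ratio_face`, `ratio_edge`: the exact factors of `Trk.new`;
* `exists_edM`, `exists_newCell_edgeM`: equidistant weighted positions with a margin `δ` at the ends;
* `mesh_mix`: `mesh_cone` with a set `N` of designated cells for which the rule is a hypothesis.
-/

set_option autoImplicit false

open Set Metric Filter Topology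

namespace Crest.Agent.R096.Mmx_662

open Crest.Agent.R096.Ce_537 Crest.Agent.R096.Bd_416

open scoped Classical

set_option linter.unusedSectionVars false

/-- a cell which has just been filled has the factor `1` -/
lemma ratio_self {b : ℕ → ℝ} (hb : ∀ n, 0 < b n) (m : ℕ) :
    bet b (m + 1) / bet b (m + 1) = 1 := div_self (bet_pos hb _).ne'

/-- one squeeze later -/
lemma ratio_succ {b : ℕ → ℝ} (hb : ∀ n, 0 < b n) (m : ℕ) :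
    bet b (m + 2) / bet b (m + 1) = 2 * b (m + 1) := by
  rw [bet_succ b (m + 1), mul_div_assoc, div_self (bet_pos hb _).ne', mul_one]

/-- two squeezes later -/
lemma ratio_succ2 {b : ℕ → ℝ} (hb : ∀ n, 0 < b n) (m : ℕ) :
    bet b (m + 3) / bet b (m + 1) = 2 * b (m + 2) * (2 * b (m + 1)) := by
  rw [bet_succ b (m + 2), bet_succ b (m + 1), ← mul_assoc, mul_div_assoc,
    div_self (bet_pos hb _).ne', mul_one]

/-- positions in a given order, widths proportional to the weights, margin `δ` at the ends -/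
theorem exists_edM {ι : Type*} [Fintype ι] (k : ι → ℕ) (hk : Function.Injective k) (w : ι → ℝ)
    (hw : ∀ i, 0 < w i) {u : ℝ} (hu : 0 < u) (hs : u * ∑ i, w i ≤ 1/2) {ε : ℝ} (he : 0 < ε)
    (he1 : ε < 1) {δ : ℝ} (hδ : 0 ≤ δ) (hδ1 : δ < 1) :
    ∃ p : ι → ℝ, Ed (fun i => 4 * (1 - δ) * (1 - ε) * u * w i) p ∧
      (∀ i, |p i| + 4 * (1 - δ) * (1 - ε) * u * w i / 2 < 1 - δ) ∧
      ∀ i j, k j < k i → p j < p i := by
  obtain ⟨p, hE, hp⟩ := exists_ed k hk w hw hu hs he he1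
  have hd : 0 < 1 - δ := by linarith
  have hwid : ∀ i, 4 * (1 - δ) * (1 - ε) * u * w i = (1 - δ) * (4 * (1 - ε) * u * w i) :=
    fun i => by ring
  refine ⟨fun i => (1 - δ) * p i, ⟨fun i => ?_, fun i => ?_, fun i => ?_, fun i j hij => ?_⟩,
    fun i => ?_, fun i j h => ?_⟩
  · show 0 < 4 * (1 - δ) * (1 - ε) * u * w i
    rw [hwid]; exact mul_pos hd (hE.w0 i)
  · show -1 < (1 - δ) * p i - 4 * (1 - δ) * (1 - ε) * u * w i / 2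
    rw [hwid]
    have := hE.lo i
    nlinarith
  · show (1 - δ) * p i + 4 * (1 - δ) * (1 - ε) * u * w i / 2 < 1
    rw [hwid]
    have := hE.hi i
    nlinarith
  · show (4 * (1 - δ) * (1 - ε) * u * w i + 4 * (1 - δ) * (1 - ε) * u * w j) / 2
      < |(1 - δ) * p i - (1 - δ) * p j|
    rw [hwid, hwid, ← mul_sub, abs_mul, abs_of_pos hd]
    have := hE.sep i j hij
    nlinarith
  · show |(1 - δ) * p i| + 4 * (1 - δ) * (1 - ε) * u * w i / 2 < 1 - δ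
    rw [hwid, abs_mul, abs_of_pos hd]
    have h1 := hE.lo i
    have h2 := hE.hi i
    have h3 : |p i| + 4 * (1 - ε) * u * w i / 2 < 1 := by
      rcases abs_cases (p i) with ⟨h, -⟩ | ⟨h, -⟩ <;> rw [h] <;> linarith
    nlinarith
  · exact mul_lt_mul_of_pos_left (hp i j h) hd

variable {Q : Type} [PartialOrder Q] {dim : Q → ℕ} {J Fam : Type}
variable {E : Type*} [NormedAddCommGroup E] [NormedSpace ℝ E]
variable {C : Cmb Q dim J Fam} {K : Q → Set E} {D : Set Q} {g : Gd E J}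
  {P : ∀ q, C.I q → Set E} {c : ∀ q, C.I q → E → ℝ} {b : ℝ} {Ω : Set E}

/-- **new edges with weights and margin** -/
theorem exists_newCell_edgeM (H : Inv C K D g P c) (X : Cplx Ω Q dim K) {τ : Q}
    (hτ : ∀ σ < τ, σ ∈ D) (hd : dim τ = 1) (h0 : 0 < b) (h2 : b < 1/2)
    (e : PLEquiv (cube 1) (K τ)) (he : e.f '' sph 1 = bdS K τ)
    (hbase : e.f (fun _ => -1) ∈ K (C.o τ)) (k : C.I τ → ℕ) (hk : Function.Injective k)
    (ord : ∀ x x', x ≠ x' → C.fam (C.col τ x) = C.fam (C.col τ x') →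
      (k x' < k x → C.side τ x x' = 1) ∧ (k x < k x' → C.side τ x x' = 0))
    (w : C.I τ → ℝ) (hw : ∀ i, 0 < w i) {u : ℝ} (hu : 0 < u) (hs : u * ∑ i, w i ≤ 1/2) {ε : ℝ}
    (he0 : 0 < ε) (he1 : ε < 1) {δ : ℝ} (hδ : 0 ≤ δ) (hδ1 : δ < 1) :
    ∃ (p : C.I τ → ℝ) (hE : Ed (fun i => 4 * (1 - δ) * (1 - ε) * u * w i) p),
      (∀ i, |p i| + 4 * (1 - δ) * (1 - ε) * u * w i / 2 < 1 - δ) ∧
      (∀ i j, k j < k i → p j < p i) ∧
      NewCell C K g c b τ ((edgeLam hE).pull e.symm (X.isClosed τ)) := by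
  obtain ⟨p, hE, hm, hp⟩ := exists_edM k hk w hw hu hs he0 he1 hδ hδ1
  refine ⟨p, hE, hm, hp, newCell_edge H X hτ hd h0 h2 e he hbase hE fun x x' hne hf => ?_⟩
  have hkk : ∀ x x', p x' < p x → k x' < k x := by
    intro x x' h
    rcases lt_trichotomy (k x') (k x) with h1 | h1 | h1
    · exact h1
    · rw [hk h1] at h; exact absurd h (lt_irrefl _)
    · exact absurd (hp x' x h1) (not_lt.2 h.le)
  exact ⟨fun h => (ord x x' hne hf).1 (hkk x x' h), fun h => (ord x x' hne hf).2 (hkk x' x h)⟩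

/-! ### the mixed mesh -/

section mix

variable {R : Set Q} {g0 : Gd E J} {P0 : ∀ q, C.I q → Set E} {c0 : ∀ q, C.I q → E → ℝ}
  {Y : Type*} [PseudoMetricSpace Y]

/-- **THE MIXED MESH**: `mesh_cone` with margin `δ` on the edges and a set `N` of designated cells
of dimension `≥ 2`, for which the rule is the hypothesis `ruleN`. -/
theorem mesh_mix (X : Cplx Ω Q dim K) (hR : ∀ q ∈ R, ∀ p < q, p ∈ R)
    (H0 : Inv C K R g0 P0 c0) {b : ℕ → ℝ} (hb0 : ∀ n, 0 < b n) (hb2 : ∀ n, b n < 1/2)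
    {wt : J → ℝ} (hw : ∀ j, 0 < wt j) {Λ : ℕ → Q → (E → Y) → ℝ} (Fr : Q → Set (E → Y))
    (hΛ0 : ∀ n q, ∀ B ∈ Fr q, 0 ≤ Λ n q B)
    (hΛs : ∀ n q, ∀ B ∈ Fr q, Λ n q B / (2 * b n) ≤ Λ (n + 1) q B)
    (hFr : ∀ {σ τ : Q}, σ < τ → Fr τ ⊆ Fr σ)
    (hΛR : ∀ q ∈ R, ∀ B ∈ Fr q, ∀ x, ∀ z ∈ K q,
      LB B (Λ 0 q B / wt (C.col q x)) (c0 q x) (K q) z)
    {ε : ℝ} (he0 : 0 < ε) (he1 : ε < 1) {δ : ℝ} (hδ : 0 ≤ δ) (hδ1 : δ < 1)
    (N : Set Q) (hN2 : ∀ τ ∈ N, 2 ≤ dim τ)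
    (u : Q → ℝ) (hu : ∀ τ ∉ R, τ ∉ N → 0 < u τ)
    (hus : ∀ τ ∉ R, τ ∉ N → u τ * ∑ x, wt (C.col τ x) ≤ 1/2)
    (Lf Lg : Q → (E → Y) → ℝ) (hLf : ∀ τ ∉ R, τ ∉ N → ∀ B ∈ Fr τ, 0 ≤ Lf τ B)
    (e : ∀ τ, 1 ≤ dim τ → PLEquiv (cube (dim τ)) (K τ))
    (he : ∀ τ ∉ R, τ ∉ N → ∀ hd : 1 ≤ dim τ, (e τ hd).f '' sph (dim τ) = bdS K τ)
    (hef : ∀ τ ∉ R, τ ∉ N → ∀ hd : 1 ≤ dim τ, ∀ B ∈ Fr τ, ∀ ω ∈ sph (dim τ),
      MB id B (Lf τ B) (e τ hd).f (sph (dim τ)) ω)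
    (heg : ∀ τ ∉ R, τ ∉ N → ∀ hd : 1 ≤ dim τ, ∀ B ∈ Fr τ, ∀ z ∈ K τ,
      MB B id (Lg τ B) (e τ hd).g (K τ) z)
    (k : ∀ τ, C.I τ → ℕ) (hk : ∀ τ ∉ R, dim τ = 1 → Function.Injective (k τ))
    (ord : ∀ τ ∉ R, dim τ = 1 → ∀ x x', x ≠ x' → C.fam (C.col τ x) = C.fam (C.col τ x') →
      (k τ x' < k τ x → C.side τ x x' = 1) ∧ (k τ x < k τ x' → C.side τ x x' = 0))
    (hΛ1 : ∀ τ ∉ R, dim τ = 1 → ∀ B ∈ Fr τ,
      Lg τ B / (4 * (1 - δ) * (1 - ε) * u τ) ≤ Λ 2 τ B)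
    (Bb : Q → (E → Y) → ℝ)
    (hBb : ∀ τ ∉ R, τ ∉ N → 2 ≤ dim τ → ∀ B ∈ Fr τ, ∀ σ < τ, Λ (dim τ) σ B ≤ Bb τ B)
    (hΛ2 : ∀ τ ∉ R, τ ∉ N → 2 ≤ dim τ → ∀ B ∈ Fr τ,
      7 * max (Bb τ B * Lf τ B) (1 / u τ) / (2 * b (dim τ)) * Lg τ B ≤ Λ (dim τ + 1) τ B)
    (Rl : (∀ q, C.I q → E → ℝ) → ∀ τ, C.I τ → C.I τ → Prop)
    (hRl : ∀ D g P c (_ : Inv C K D g P c), ∀ τ ∉ R, τ ∉ N → 2 ≤ dim τ → (∀ σ < τ, σ ∈ D) →
      ∃ kk : C.I τ → ℕ, Function.Injective kk ∧ ∀ x x', Rl c τ x x' → kk x' < kk x)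
    (hRI : ∀ c τ x x', Ins C K c τ x x' → Rl c τ x x')
    (Spec : ∀ q, Lam (K q) (C.I q) → Prop)
    (hS0 : ∀ τ ∉ R, dim τ = 0 → ∀ M, Spec τ M)
    (hS1 : ∀ τ ∉ R, dim τ = 1 → ∀ (e : PLEquiv (cube 1) (K τ)), e.f '' sph 1 = bdS K τ →
      e.f (fun _ => -1) ∈ K (C.o τ) → ∀ (p : C.I τ → ℝ)
      (hE : Ed (fun i => 4 * (1 - δ) * (1 - ε) * u τ * wt (C.col τ i)) p),
      (∀ i, |p i| + 4 * (1 - δ) * (1 - ε) * u τ * wt (C.col τ i) / 2 < 1 - δ) →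
      (∀ i j, k τ j < k τ i → p j < p i) → Spec τ ((edgeLam hE).pull e.symm (X.isClosed τ)))
    (hS2 : ∀ D g P c (H : Inv C K D g P c), ∀ τ, (hd : 2 ≤ dim τ) →
      (∀ q ∈ D, Trk C K R g0 P0 c0 b Spec Fr wt Λ (dim τ) q g (P q) (c q)) →
      ∀ (hR : τ ∉ R) (hN : τ ∉ N) (hτ : ∀ σ < τ, σ ∈ D) (κ : ℝ) (ρ : C.I τ → ℝ)
      (Dp : Dep (bdLam H X τ hτ) κ (b (dim τ)) (fun x => u τ * wt (C.col τ x)) ρ),
      (∀ x x', Rl c τ x x' → ρ x' < ρ x) →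
      Spec τ (Dp.fillBall (e τ (by omega)) (he τ hR hN (by omega))))
    (ruleN : ∀ D g P c (H : Inv C K D g P c), ∀ τ ∈ N,
      (∀ q ∈ D, Trk C K R g0 P0 c0 b Spec Fr wt Λ (dim τ) q g (P q) (c q)) →
      τ ∉ R → ∀ hτ : ∀ σ < τ, σ ∈ D,
      ∃ (e' : PLEquiv (cube (dim τ)) (K τ)) (he' : e'.f '' sph (dim τ) = bdS K τ)
        (κ : ℝ) (h ρ : C.I τ → ℝ) (Dp : Dep (bdLam H X τ hτ) κ (b (dim τ)) h ρ),
        (∀ x x', Rl c τ x x' → ρ x' < ρ x) ∧ Spec τ (Dp.fillBall e' he') ∧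
        ∀ B ∈ Fr τ, ∀ x, ∀ z ∈ K τ,
          LB B (Λ (dim τ + 1) τ B / wt (C.col τ x)) ((Dp.fillBall e' he').c x) (K τ) z)
    (n : ℕ) : ∃ g P c, Inv C K (R ∪ {q | dim q < n}) g P c ∧
      ∀ q ∈ R ∪ {q | dim q < n}, Trk C K R g0 P0 c0 b Spec Fr wt Λ n q g (P q) (c q) := by
  refine mesh_spec X hR H0 hb0 hb2 hw hΛs hΛR (fun n D g P c H hT τ hd hτR hτ => ?_) n
  subst hd
  rcases Nat.lt_or_ge (dim τ) 1 with h1 | h1
  · have h0 : dim τ = 0 := by omega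
    have := C.vert τ h0
    exact ⟨emptyLam (K τ) (C.I τ), newCell_empty _, hS0 τ hτR h0 _,
      fun _ _ x => isEmptyElim x⟩
  rcases Nat.lt_or_ge (dim τ) 2 with h2 | h2
  · have hd : dim τ = 1 := by omega
    have hτN : τ ∉ N := fun h => by have := hN2 τ h; omega
    have key : ∃ e1 : PLEquiv (cube 1) (K τ), e1.f '' sph 1 = bdS K τ ∧
        ∀ B ∈ Fr τ, ∀ z ∈ K τ, MB B id (Lg τ B) e1.g (K τ) z := by
      have hgen : ∀ m, dim τ = m → 1 ≤ m → ∃ e1 : PLEquiv (cube m) (K τ),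
          e1.f '' sph m = bdS K τ ∧ ∀ B ∈ Fr τ, ∀ z ∈ K τ, MB B id (Lg τ B) e1.g (K τ) z := by
        rintro m rfl hm
        exact ⟨e τ hm, he τ hτR hτN hm, heg τ hτR hτN hm⟩
      exact hgen 1 hd le_rfl
    obtain ⟨e1, he1', hg1⟩ := key
    obtain ⟨e2, he2, hb, hg2⟩ := exists_flip (C := C) X hd e1 he1' hg1
    obtain ⟨p, hE, hm, hp, hN⟩ := exists_newCell_edgeM H X hτ hd (hb0 _) (hb2 _) e2 he2 hb (k τ)
      (hk τ hτR hd) (ord τ hτR hd) (fun x => wt (C.col τ x)) (fun x => hw _) (hu τ hτR hτN)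
      (hus τ hτR hτN) he0 he1 hδ hδ1
    refine ⟨_, hN, hS1 τ hτR hd e2 he2 hb p hE hm hp, fun B hB x z hz => ?_⟩
    refine (edge_LB hE e2 (X.isClosed τ) x (hg2 B hB) hz).mono ?_
    have h3 := hΛ1 τ hτR hd B hB
    rw [hd]
    have h4 := hw (C.col τ x)
    show Lg τ B / (4 * (1 - δ) * (1 - ε) * u τ * wt (C.col τ x)) ≤ Λ 2 τ B / wt (C.col τ x)
    rw [← div_div]
    exact div_le_div_of_nonneg_right h3 h4.le
  by_cases hτN : τ ∈ N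
  · obtain ⟨e', he', κ, h, ρ, Dp, hρ, hS, hL⟩ := ruleN D g P c H τ hτN hT hτR hτ
    exact ⟨Dp.fillBall e' he', newCell_cone H X hτ h2 _ _ Dp
      fun x x' hne hf h3 h4 h5 => hρ x x' (hRI _ _ _ _ ⟨hne, hf, h3, h4, h5⟩), hS, hL⟩
  · have hC := Cst.mk' (hb0 (dim τ)) (hb2 (dim τ))
    obtain ⟨kk, hkk, hkI⟩ := hRl D g P c H τ hτR hτN h2 hτ
    obtain ⟨ρ, Dp, hρ⟩ := Cw_298.exists_dep (bdLam H X τ hτ) hC kk hkk
      (fun x => wt (C.col τ x)) (fun x => hw _) (hu τ hτR hτN) (hus τ hτR hτN)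
    have hρ' : ∀ x x', Rl c τ x x' → ρ x' < ρ x := by
      intro x x' h
      have h4 := hρ x x' (hkI x x' h)
      have h5 := mul_pos (hu τ hτR hτN) (hw (C.col τ x))
      have h6 := mul_pos (hu τ hτR hτN) (hw (C.col τ x'))
      linarith
    refine ⟨Dp.fillBall (e τ h1) (he τ hτR hτN h1), newCell_cone H X hτ h2 _ _ Dp
      fun x x' hne hf h3 h4 h5 => hρ' x x' (hRI _ _ _ _ ⟨hne, hf, h3, h4, h5⟩),
      hS2 D g P c H τ h2 hT hτR hτN hτ _ ρ Dp hρ', fun B hB x z hz => ?_⟩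
    have hwx := hw (C.col τ x)
    have hB0 : 0 ≤ Bb τ B :=
      (hΛ0 _ _ B (hFr (C.o_lt τ h1) hB)).trans (hBb τ hτR hτN h2 B hB (C.o τ) (C.o_lt τ h1))
    have hL : ∀ ω ∈ bdS K τ,
        LB B (Bb τ B / wt (C.col τ x)) ((bdLam H X τ hτ).c x) (bdS K τ) ω := by
      intro ω hω
      refine H.LB_cbd X hτ x (div_nonneg hB0 hwx.le) fun σ h y hy hz => ?_
      refine ((hT σ (hτ σ h)).ll B (hFr h hB) y ω hz).mono ?_
      have e1 : C.col σ y = C.col τ x := by rw [← hy, C.col_up]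
      rw [e1]
      exact div_le_div_of_nonneg_right (hBb τ hτR hτN h2 B hB σ h) hwx.le
    refine (Dp.fillBall_LB (e τ h1) (he τ hτR hτN h1) x (div_nonneg hB0 hwx.le)
      (hLf τ hτR hτN B hB) hL (hef τ hτR hτN h1 B hB) (heg τ hτR hτN h1 B hB) hz).mono ?_
    have h3 := hΛ2 τ hτR hτN h2 B hB
    refine le_trans (le_of_eq ?_) (div_le_div_of_nonneg_right h3 hwx.le)
    have e2 : max (Bb τ B / wt (C.col τ x) * Lf τ B) (1 / (u τ * wt (C.col τ x)))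
        = max (Bb τ B * Lf τ B) (1 / u τ) / wt (C.col τ x) := by
      rw [← max_div_div_right hwx.le, div_mul_eq_mul_div, div_div]
    show 7 * max (Bb τ B / wt (C.col τ x) * Lf τ B) (1 / (u τ * wt (C.col τ x))) /
      (2 * b (dim τ)) * Lg τ B = _
    rw [e2]; ring

end mix

end Crest.Agent.R096.Mmx_662
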