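import Crest.Agent.R096.Fk13_522
import Crest.Agent.R096.Fsw24_928
import Crest.Agent.R096.Mmx1_662

/-!
# R096 (row 96), P4-FACE, combinatorics, part 14: the rule of the designated 2-cells in the mixed
mesh (helper522)
-/

set_option autoImplicit false
set_option linter.unusedSectionVars false

open Set Metric Filter Topology

namespace Crest.Agent.R096.Fk_522

open Crest.Agent.R096.Ce_537 Crest.Agent.R096.Bd_416 Crest.Agent.R096.Fsw_928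
open Crest.Agent.R096.Pc_117 (LL)

open scoped Classical

variable {Q : Type} [PartialOrder Q] {dim : Q → ℕ} {J Fam : Type}
variable {E : Type*} [NormedAddCommGroup E] [NormedSpace ℝ E]

/-- **edges**: affine coordinate `χ`, widths `wd * wt`, margin `δ` -/
def SpecE (C : Cmb Q dim J Fam) (K : Q → Set E) (wt : J → ℝ) (δ : ℝ) (wd : Q → ℝ)
    (χ : Q → E → ℝ) (q : Q) (M : Lam (K q) (C.I q)) : Prop :=
  dim q = 1 → ∃ (o : ℝ) (p : C.I q → ℝ), (o = 1 ∨ o = -1) ∧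
    Ed (fun y => wd q * wt (C.col q y)) p ∧
    (∀ y, |p y| + wd q * wt (C.col q y) / 2 < 1 - δ) ∧
    ∀ y, ∀ z ∈ K q, M.c y z = ramp (wd q * wt (C.col q y)) (p y) (o * χ q z)

/-- **a designated 2-cell**: chart, coordinates of the edges -/
structure Des (C : Cmb Q dim J Fam) (K : Q → Set E) (χ : Q → E → ℝ) (τ : Q) where
  S : SqC C τ
  d2 : dim τ = 2
  A : PLEquiv (cube 2) (K τ)
  sph : A.f '' sph 2 = bdS K τ
  side : ∀ s t, |t| ≤ 1 → A.f (sd s t) ∈ K (S.es s)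
  base : A.f (sd 1 1) ∈ K (C.o τ)
  θ : Fin 4 → ℝ
  θ1 : ∀ s, θ s = 1 ∨ θ s = -1
  χA : ∀ s t, |t| ≤ 1 → χ (S.es s) (A.f (sd s t)) = θ s * t

/-- the widths on the four sides -/
def Des.nu {C : Cmb Q dim J Fam} {K : Q → Set E} {χ : Q → E → ℝ} {τ : Q} (G : Des C K χ τ)
    (wd : Q → ℝ) (s : Fin 4) : ℝ := wd (G.S.es s)

/-- **the structure on a designated 2-cell** -/
def SpecF (C : Cmb Q dim J Fam) (K : Q → Set E) (wt : J → ℝ) (δ : ℝ) (wd : Q → ℝ)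
    (χ : Q → E → ℝ) (P P' : Par) (b η : ℝ) {τ : Q} (G : Des C K χ τ)
    (M : Lam (K τ) (C.I τ)) : Prop :=
  ∃ (L : Lam (sph 2) (C.I τ)) (B : BwF G.S wt (G.nu wd) δ L) (κ : ℝ)
    (Rl : C.I τ → C.I τ → Prop)
    (T : Bw.Dpt B.toBw P P' κ b (lg B.toBw (fun x => wt (C.col τ x)) (G.nu wd)) Rl
      (6 * η) (6 * η)),
    ∀ x, ∀ z ∈ cube 2, M.c x (G.A.f z) = ff T.D P P' x z

/-- numbers of a designated 2-cell -/
structure NumF {C : Cmb Q dim J Fam} {τ : Q} (S : SqC C τ) (wt : J → ℝ) (ν : Fin 4 → ℝ)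
    (a : Fin 2 → ℝ) (m δ η : ℝ) : Prop where
  ν0 : ∀ s, 0 < ν s
  m0 : 0 ≤ m
  η11 : ∀ s, 11 * (ν s * m) ≤ η ∨ ∑ y, S.wd wt ν s y ≤ η
  full : ∀ s, a (dr s) ≠ 0 → 2 * (1 - δ) - η ≤ ∑ y, S.wd wt ν s y
  νν : ∀ s s', dr s = dr s' → a (dr s) ≠ 0 → |ν s - ν s'| ≤ η * ν s

variable {C : Cmb Q dim J Fam} {K : Q → Set E} {D : Set Q} {g : Gd E J}
  {P : ∀ q, C.I q → Set E} {c : ∀ q, C.I q → E → ℝ} {Ω : Set E}

/-- the chart of a new edge -/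
lemma specE_edge {wt : J → ℝ} {δ : ℝ} {wd : Q → ℝ} {χ : Q → E → ℝ} {τ : Q}
    (hcl : IsClosed (K τ)) (e : PLEquiv (cube 1) (K τ))
    (hχ : (∀ z ∈ K τ, e.g z 0 = χ τ z) ∨ (∀ z ∈ K τ, e.g z 0 = - χ τ z))
    {p : C.I τ → ℝ} (hE : Ed (fun y => wd τ * wt (C.col τ y)) p)
    (hm : ∀ y, |p y| + wd τ * wt (C.col τ y) / 2 < 1 - δ) :
    SpecE C K wt δ wd χ τ ((edgeLam hE).pull e.symm hcl) := by
  intro _
  rcases hχ with h | h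
  · refine ⟨1, p, Or.inl rfl, hE, hm, fun y z hz => ?_⟩
    show ramp (wd τ * wt (C.col τ y)) (p y) (e.g z 0) = _
    rw [h z hz, one_mul]
  · refine ⟨-1, p, Or.inr rfl, hE, hm, fun y z hz => ?_⟩
    show ramp (wd τ * wt (C.col τ y)) (p y) (e.g z 0) = _
    rw [h z hz, neg_one_mul]

/-- inclusion on the boundary -/
lemma inc_of_rlG (H : Inv C K D g P c) (X : Cplx Ω Q dim K) {τ : Q} (hτ : ∀ σ < τ, σ ∈ D)
    (hd : 2 ≤ dim τ) {L : Lam (sph 2) (C.I τ)} {A : (Fin 2 → ℝ) → E}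
    (hA : ∀ ω ∈ sph 2, A ω ∈ bdS K τ) (hL : ∀ x, ∀ ω ∈ sph 2, L.c x ω = cbd C K c τ x (A ω))
    {x x' : C.I τ} (h : Arc_778.RlG C K c τ x x') : Bw.Inc L x x' := by
  intro ω hω h0
  rw [hL x ω hω] at h0
  rw [hL x' ω hω]
  rcases h with h | h
  · rw [h.geo H X hτ hd _ (hA ω hω) (by linarith)]; norm_num
  · exact h.2.2 _ (hA ω hω) h0

section mesh

variable {R : Set Q} {g0 : Gd E J} {P0 : ∀ q, C.I q → Set E} {c0 : ∀ q, C.I q → E → ℝ}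
  {Y : Type*} [PseudoMetricSpace Y] {b : ℕ → ℝ} {wt : J → ℝ} {Λ : ℕ → Q → (E → Y) → ℝ}
  {Fr : Q → Set (E → Y)} {Spec : ∀ q, Lam (K q) (C.I q) → Prop}
  {δ : ℝ} {wd : Q → ℝ} {χ : Q → E → ℝ}

/-- **the boundary word of a designated 2-cell at stage 2** -/
theorem bwF_of_trk (H : Inv C K D g P c) (X : Cplx Ω Q dim K) (hb0 : ∀ n, 0 < b n)
    (hSE : ∀ q M, Spec q M → SpecE C K wt δ wd χ q M) {τ : Q} (hτ : ∀ σ < τ, σ ∈ D)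
    (hT : ∀ q ∈ D, Trk C K R g0 P0 c0 b Spec Fr wt Λ 2 q g (P q) (c q))
    (G : Des C K χ τ) (hR : ∀ s, G.S.es s ∉ R)
    {L : Lam (sph 2) (C.I τ)} (hL : ∀ x, ∀ ω ∈ sph 2, L.c x ω = cbd C K c τ x (G.A.f ω)) :
    Nonempty (BwF G.S wt (G.nu wd) δ L) := by
  have hd := G.d2
  refine exists_bwF H X hτ (by omega) G.S G.side G.base (fun s => ?_) hL
  obtain ⟨β, M, hβ, hS, hM⟩ := (hT _ (hτ _ (G.S.lt s))).new (hR s)
  rw [G.S.d1 s, Mmx_662.ratio_self hb0] at hβ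
  subst hβ
  obtain ⟨o, p, ho, hE, hm, hc⟩ := hSE _ _ hS (G.S.d1 s)
  have hθ := G.θ1 s
  refine ⟨o * G.θ s, p, ?_, hE, hm, fun y t ht => ?_⟩
  · rcases ho with h | h <;> rcases hθ with h' | h' <;> rw [h, h'] <;> norm_num
  · have hz := G.side s t ht
    rw [hM.mc y _ hz, div_one, cl_of_mem (M.cm y _ hz), hc y _ hz, G.χA s t ht, mul_assoc]
    rfl

/-- **THE RULE OF THE DESIGNATED 2-CELLS** (the hypothesis `ruleN` of `mesh_mix`, for one cell) -/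
theorem rule_faceL {P1 P2 : Par} {η Λ0 : ℝ} {Λ' : (E → Y) → ℝ}
    (hdep : ∀ {ι : Type} [Fintype ι] {L : Lam (sph 2) ι} {W : Bw L} {wt : ι → ℝ} {ν : Fin 4 → ℝ}
      {FA FB : Prop} {MA MB : Finset ι} (_ : Pure W wt ν FA FB δ η MA MB) {K b : ℝ} (_ : Cst K b)
      (k0 : ι → ℕ) (_ : Function.Injective k0) (Rl : ι → ι → Prop)
      (_ : ∀ x x', Rl x x' → Bw.Inc L x x') (_ : ∀ x x', Rl x x' → k0 x' < k0 x),
      Nonempty (Bw.Dpt W P1 P2 K b (lg W wt ν) Rl (6 * η) (6 * η)))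
    (hcr : ∀ {ι : Type} {L : Lam (sph 2) ι} {K b : ℝ} {h ρ : ι → ℝ}
      (D : Dep L K b h ρ) (i : ι) (M : ℝ), 0 ≤ M →
      (∀ ω ∈ sph 2, LL M (L.c i) (sph 2) ω) → 1 / h i ≤ M →
      ∀ z ∈ cube 2, LL (Λ0 * M / (2 * b)) (ff D P1 P2 i) (cube 2) z) (hΛ0 : 0 ≤ Λ0)
    (hb0 : ∀ n, 0 < b n) (hb2 : ∀ n, b n < 1/2) (hw : ∀ j, 0 < wt j)
    (hSE : ∀ q M, Spec q M → SpecE C K wt δ wd χ q M)
    (H : Inv C K D g P c) (X : Cplx Ω Q dim K) {τ : Q} (hτ : ∀ σ < τ, σ ∈ D)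
    (hT : ∀ q ∈ D, Trk C K R g0 P0 c0 b Spec Fr wt Λ (dim τ) q g (P q) (c q))
    (G : Des C K χ τ) (hR : ∀ s, G.S.es s ∉ R)
    (hends : ∀ x : C.I τ, ∃ a b, a ≠ b ∧ Arc_778.Blw C τ x = {a, b})
    {T : Fin 2 → Finset J} {cc : Fin 2 → Fam} {σ a : Fin 2 → ℝ} {m : ℝ}
    (hD : DP G.S wt T cc σ a m) (hN : NumF G.S wt (G.nu wd) a m δ η)
    {Lg : (E → Y) → ℝ} (hLg : ∀ B ∈ Fr τ, ∀ z ∈ K τ, MB B id (Lg B) G.A.g (K τ) z)
    (hΛ : ∀ B ∈ Fr τ, Λ0 * (16 / αX (G.nu wd)) / (2 * b (dim τ)) * Lg B ≤ Λ' B)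
    (hSF : ∀ {κ : ℝ} {h ρ : C.I τ → ℝ} (Dp : Dep (bdLam H X τ hτ) κ (b (dim τ)) h ρ)
      (_ : ∀ x x', Arc_778.RlG C K c τ x x' → ρ x' < ρ x)
      {n : ℕ} (_ : dim τ = n) (e : PLEquiv (cube n) (K τ)) (he : e.f '' sph n = bdS K τ),
      SpecF C K wt δ wd χ P1 P2 (b 2) η G (Dp.fillBall e he) → Spec τ (Dp.fillBall e he)) :
    ∃ (e' : PLEquiv (cube (dim τ)) (K τ)) (he' : e'.f '' sph (dim τ) = bdS K τ)
      (κ : ℝ) (h ρ : C.I τ → ℝ) (Dp : Dep (bdLam H X τ hτ) κ (b (dim τ)) h ρ),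
      (∀ x x', Arc_778.RlG C K c τ x x' → ρ x' < ρ x) ∧ Spec τ (Dp.fillBall e' he') ∧
      ∀ B ∈ Fr τ, ∀ x, ∀ z ∈ K τ,
        LB B (Λ' B / wt (C.col τ x)) ((Dp.fillBall e' he').c x) (K τ) z := by
  have hd := G.d2
  rw [hd] at hT hΛ
  let L : Lam (sph 2) (C.I τ) := (bdLam H X τ hτ).pull (bdE G.A G.sph) isClosed_sphere
  have hL : ∀ x, ∀ ω ∈ sph 2, L.c x ω = cbd C K c τ x (G.A.f ω) := fun x ω _ => rfl
  obtain ⟨B⟩ := bwF_of_trk H X hb0 hSE hτ hT G hR hL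
  have hP := B.pure (by omega) hw hN.ν0 hends hD hN.m0 hN.η11 hN.full hN.νν
  obtain ⟨kk, hk, hkk⟩ := Arc_778.rlG_rank X D g P c H τ hd.ge hτ
  have hA : ∀ ω ∈ sph 2, G.A.f ω ∈ bdS K τ := fun ω hω => by
    rw [← G.sph]; exact ⟨ω, hω, rfl⟩
  have hC := Cst.mk' (hb0 2) (hb2 2)
  obtain ⟨Tt⟩ := hdep hP hC kk hk (Arc_778.RlG C K c τ)
    (fun x x' h => inc_of_rlG H X hτ hd.ge hA hL h) hkk
  have key : ∃ (e' : PLEquiv (cube 2) (K τ)) (he' : e'.f '' sph 2 = bdS K τ)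
      (κ : ℝ) (h ρ : C.I τ → ℝ) (Dp : Dep (bdLam H X τ hτ) κ (b 2) h ρ),
      (∀ x x', Arc_778.RlG C K c τ x x' → ρ x' < ρ x) ∧ Spec τ (Dp.fillBall e' he') ∧
      ∀ B ∈ Fr τ, ∀ x, ∀ z ∈ K τ,
        LB B (Λ' B / wt (C.col τ x)) ((Dp.fillBall e' he').c x) (K τ) z := by
    have hff : ∀ x, ∀ z ∈ cube 2, ((dep_unpull G.A G.sph Tt.D).fillBall (swCh P1 P2 G.A)
        (swCh_sph P1 P2 G.sph)).c x (G.A.f z) = ff Tt.D P1 P2 x z :=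
      fun x z hz => fillBall_ff P1 P2 G.A G.sph (dep_unpull G.A G.sph Tt.D) Tt.D x hz
    refine ⟨swCh P1 P2 G.A, swCh_sph P1 P2 G.sph, _, Tt.h, Tt.ρ, dep_unpull G.A G.sph Tt.D,
      Tt.nest, ?_, fun F hF x z hz => ?_⟩
    · have hSF' : ∀ {κ : ℝ} {h ρ : C.I τ → ℝ} (Dp : Dep (bdLam H X τ hτ) κ (b 2) h ρ)
          (_ : ∀ x x', Arc_778.RlG C K c τ x x' → ρ x' < ρ x)
          (e : PLEquiv (cube 2) (K τ)) (he : e.f '' sph 2 = bdS K τ),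
          SpecF C K wt δ wd χ P1 P2 (b 2) η G (Dp.fillBall e he) →
            Spec τ (Dp.fillBall e he) := by
        have := @hSF
        rw [hd] at this
        intro κ h ρ Dp hh e he hS
        exact this Dp hh rfl e he hS
      refine hSF' _ Tt.nest _ _ ⟨L, B, _, _, Tt, hff⟩
    · have hc := hP.crd Tt Finset.univ (w := fun x => wt (C.col τ x))
        (fun x _ => by rw [abs_of_pos (hw _)])
      have hx := Finset.mem_univ x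
      have hα := hP.αX0
      have hwx := hw (C.col τ x)
      have hb := hb0 2
      have h1 := hcr Tt.D x _ (hc.M0 x hx) (hc.lip x hx) (hc.hM x hx) (G.A.g z) (G.A.mg hz)
      have hcon : ContinuousWithinAt G.A.g (K τ) z := G.A.pg.1 z hz
      have h2 : LB F (Λ0 * (16 / (αX (G.nu wd) * wt (C.col τ x))) / (2 * b 2) * Lg F)
          (fun y => ff Tt.D P1 P2 x (G.A.g y)) (K τ) z :=
        LB.comp (B' := id) (by positivity) h1 (hLg F hF z hz) hcon (fun y hy => G.A.mg hy)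
      refine (h2.congr (fun y hy => ?_) hz).mono ?_
      · show ff Tt.D P1 P2 x (G.A.g y) = _
        rw [← hff x _ (G.A.mg hy), G.A.ri y hy]
      · have h3 := hΛ F hF
        refine le_trans (le_of_eq ?_) (div_le_div_of_nonneg_right h3 hwx.le)
        field_simp
  obtain ⟨e', he', κ, h, ρ, Dp, h1, h2, h3⟩ := key
  have hfin : ∀ n, n = 2 → ∃ (e' : PLEquiv (cube n) (K τ)) (he' : e'.f '' sph n = bdS K τ)
      (κ : ℝ) (h ρ : C.I τ → ℝ) (Dp : Dep (bdLam H X τ hτ) κ (b n) h ρ),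
      (∀ x x', Arc_778.RlG C K c τ x x' → ρ x' < ρ x) ∧ Spec τ (Dp.fillBall e' he') ∧
      ∀ B ∈ Fr τ, ∀ x, ∀ z ∈ K τ,
        LB B (Λ' B / wt (C.col τ x)) ((Dp.fillBall e' he').c x) (K τ) z := by
    rintro n rfl
    exact ⟨e', he', κ, h, ρ, Dp, h1, h2, h3⟩
  exact hfin _ hd

/-- **THE RULE OF THE DESIGNATED 2-CELLS** (the hypothesis `ruleN` of `mesh_mix`, for one cell) -/
theorem rule_face {P1 P2 : Par} {η Λ0 : ℝ}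
    (hdep : ∀ {ι : Type} [Fintype ι] {L : Lam (sph 2) ι} {W : Bw L} {wt : ι → ℝ} {ν : Fin 4 → ℝ}
      {FA FB : Prop} {MA MB : Finset ι} (_ : Pure W wt ν FA FB δ η MA MB) {K b : ℝ} (_ : Cst K b)
      (k0 : ι → ℕ) (_ : Function.Injective k0) (Rl : ι → ι → Prop)
      (_ : ∀ x x', Rl x x' → Bw.Inc L x x') (_ : ∀ x x', Rl x x' → k0 x' < k0 x),
      Nonempty (Bw.Dpt W P1 P2 K b (lg W wt ν) Rl (6 * η) (6 * η)))
    (hcr : ∀ {ι : Type} {L : Lam (sph 2) ι} {K b : ℝ} {h ρ : ι → ℝ}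
      (D : Dep L K b h ρ) (i : ι) (M : ℝ), 0 ≤ M →
      (∀ ω ∈ sph 2, LL M (L.c i) (sph 2) ω) → 1 / h i ≤ M →
      ∀ z ∈ cube 2, LL (Λ0 * M / (2 * b)) (ff D P1 P2 i) (cube 2) z) (hΛ0 : 0 ≤ Λ0)
    (hb0 : ∀ n, 0 < b n) (hb2 : ∀ n, b n < 1/2) (hw : ∀ j, 0 < wt j)
    (hSE : ∀ q M, Spec q M → SpecE C K wt δ wd χ q M)
    (H : Inv C K D g P c) (X : Cplx Ω Q dim K) {τ : Q} (hτ : ∀ σ < τ, σ ∈ D)
    (hT : ∀ q ∈ D, Trk C K R g0 P0 c0 b Spec Fr wt Λ (dim τ) q g (P q) (c q))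
    (G : Des C K χ τ) (hR : ∀ s, G.S.es s ∉ R)
    (hends : ∀ x : C.I τ, ∃ a b, a ≠ b ∧ Arc_778.Blw C τ x = {a, b})
    {T : Fin 2 → Finset J} {cc : Fin 2 → Fam} {σ a : Fin 2 → ℝ} {m : ℝ}
    (hD : DP G.S wt T cc σ a m) (hN : NumF G.S wt (G.nu wd) a m δ η)
    {Lg : (E → Y) → ℝ} (hLg : ∀ B ∈ Fr τ, ∀ z ∈ K τ, MB B id (Lg B) G.A.g (K τ) z)
    (hΛ : ∀ B ∈ Fr τ, Λ0 * (16 / αX (G.nu wd)) / (2 * b (dim τ)) * Lg B ≤ Λ (dim τ + 1) τ B)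
    (hSF : ∀ {κ : ℝ} {h ρ : C.I τ → ℝ} (Dp : Dep (bdLam H X τ hτ) κ (b (dim τ)) h ρ)
      (_ : ∀ x x', Arc_778.RlG C K c τ x x' → ρ x' < ρ x)
      {n : ℕ} (_ : dim τ = n) (e : PLEquiv (cube n) (K τ)) (he : e.f '' sph n = bdS K τ),
      SpecF C K wt δ wd χ P1 P2 (b 2) η G (Dp.fillBall e he) → Spec τ (Dp.fillBall e he)) :
    ∃ (e' : PLEquiv (cube (dim τ)) (K τ)) (he' : e'.f '' sph (dim τ) = bdS K τ)
      (κ : ℝ) (h ρ : C.I τ → ℝ) (Dp : Dep (bdLam H X τ hτ) κ (b (dim τ)) h ρ),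
      (∀ x x', Arc_778.RlG C K c τ x x' → ρ x' < ρ x) ∧ Spec τ (Dp.fillBall e' he') ∧
      ∀ B ∈ Fr τ, ∀ x, ∀ z ∈ K τ,
        LB B (Λ (dim τ + 1) τ B / wt (C.col τ x)) ((Dp.fillBall e' he').c x) (K τ) z :=
  rule_faceL (Λ' := fun B => Λ (dim τ + 1) τ B) hdep hcr hΛ0 hb0 hb2 hw hSE H X hτ hT G hR hends
    hD hN hLg hΛ hSF

end mesh

end Crest.Agent.R096.Fk_522
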