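import Crest.Agent.R096.Fk14_522

/-!
# R096 (row 96), P4-FACE, combinatorics, part 15: 662's mixed mesh with given edge coordinates, and
the mesh with designated nearly pure 2-cells (helper522)
-/

set_option autoImplicit false
set_option linter.unusedSectionVars false

open Set Metric Filter Topology

namespace Crest.Agent.R096.Fk_522

open Crest.Agent.R096.Ce_537 Crest.Agent.R096.Bd_416 Crest.Agent.R096.Fsw_928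
open Crest.Agent.R096.Pc_117 (LL)

open scoped Classical

variable {Q : Type} [PartialOrder Q] {dim : Q → ℕ} {J Fam : Type}
variable {E : Type*} [NormedAddCommGroup E] [NormedSpace ℝ E]
variable {C : Cmb Q dim J Fam} {K : Q → Set E} {D : Set Q} {g : Gd E J}
  {P : ∀ q, C.I q → Set E} {c : ∀ q, C.I q → E → ℝ} {b : ℝ} {Ω : Set E}

/-- flipping a chart of an edge changes the sign of its coordinate (416's `exists_flip`) -/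
theorem exists_flipE (X : Cplx Ω Q dim K) {τ : Q} (hd : dim τ = 1) (e : PLEquiv (cube 1) (K τ))
    (he : e.f '' sph 1 = bdS K τ) {Y : Type*} [PseudoMetricSpace Y] {Fr : Set (E → Y)} {Lg : (E → Y) → ℝ}
    (hg : ∀ B ∈ Fr, ∀ z ∈ K τ, MB B id (Lg B) e.g (K τ) z) :
    ∃ e' : PLEquiv (cube 1) (K τ), e'.f '' sph 1 = bdS K τ ∧ e'.f (fun _ => -1) ∈ K (C.o τ) ∧
      (∀ B ∈ Fr, ∀ z ∈ K τ, MB B id (Lg B) e'.g (K τ) z) ∧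
      ((∀ z, e'.g z 0 = e.g z 0) ∨ (∀ z, e'.g z 0 = - e.g z 0)) := by
  obtain ⟨z, hz⟩ := (X.isBall (C.o τ)).nonempty
  have hzS : z ∈ bdS K τ := mem_biUnion (show C.o τ ∈ {j | j < τ} from C.o_lt τ hd.ge) hz
  rw [← he] at hzS
  obtain ⟨v, hv, rfl⟩ := hzS
  rcases (abs_eq zero_le_one).1 (mem_sph1.1 hv) with h | h
  · refine ⟨negE.trans e, ?_, ?_, fun B hB z hz => ?_, Or.inr fun z => rfl⟩
    · rw [← he]
      apply Set.Subset.antisymm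
      · rintro _ ⟨u, hu, rfl⟩
        refine ⟨-u, mem_sph1.2 ?_, rfl⟩
        show |-(u 0)| = 1
        rw [abs_neg]; exact mem_sph1.1 hu
      · rintro _ ⟨u, hu, rfl⟩
        refine ⟨-u, mem_sph1.2 ?_, ?_⟩
        · show |-(u 0)| = 1
          rw [abs_neg]; exact mem_sph1.1 hu
        · show e.f (- -u) = e.f u
          rw [neg_neg]
    · show e.f (-(fun _ => -1)) ∈ _
      have hv' : (-(fun _ => -1) : Fin 1 → ℝ) = v := by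
        funext k; rw [Subsingleton.elim k 0, h]; simp
      rw [hv']; exact hz
    · filter_upwards [hg B hB z hz] with y hy
      show dist (-(e.g y)) (-(e.g z)) ≤ _
      rw [dist_neg_neg]; exact hy
  · refine ⟨e, he, ?_, hg, Or.inl fun z => rfl⟩
    have hv' : (fun _ => -1 : Fin 1 → ℝ) = v := by
      funext k; rw [Subsingleton.elim k 0, h]
    rw [hv']; exact hz

section mix

variable {R : Set Q} {g0 : Gd E J} {P0 : ∀ q, C.I q → Set E} {c0 : ∀ q, C.I q → E → ℝ}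
  {Y : Type*} [PseudoMetricSpace Y]

/-- **THE MIXED MESH WITH GIVEN EDGE COORDINATES**: 662's `mesh_mix` (same proof); the charts of the
edges are `e τ` or its flip: first coordinate `± χ τ` -/
theorem mesh_mixE (X : Cplx Ω Q dim K) (hR : ∀ q ∈ R, ∀ p < q, p ∈ R)
    (H0 : Inv C K R g0 P0 c0) {b : ℕ → ℝ} (hb0 : ∀ n, 0 < b n) (hb2 : ∀ n, b n < 1/2)
    {wt : J → ℝ} (hw : ∀ j, 0 < wt j) {Λ : ℕ → Q → (E → Y) → ℝ} (Fr : Q → Set (E → Y))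
    (hΛ0 : ∀ n q, ∀ B ∈ Fr q, 0 ≤ Λ n q B)
    (hΛs : ∀ n q, ∀ B ∈ Fr q, Λ n q B / (2 * b n) ≤ Λ (n + 1) q B)
    (hFr : ∀ {σ τ : Q}, σ < τ → Fr τ ⊆ Fr σ)
    (hΛR : ∀ q ∈ R, ∀ B ∈ Fr q, ∀ x, ∀ z ∈ K q,
      LB B (Λ 0 q B / wt (C.col q x)) (c0 q x) (K q) z)
    {ε : ℝ} (he0 : 0 < ε) (he1 : ε < 1) {δ : ℝ} (hδ : 0 ≤ δ) (hδ1 : δ < 1)
    (N : Set Q) (hN2 : ∀ τ ∈ N, 2 ≤ dim τ)
    (u : Q → ℝ) (hu : ∀ τ ∉ R, τ ∉ N → 0 < u τ)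
    (hus : ∀ τ ∉ R, τ ∉ N → u τ * ∑ x, wt (C.col τ x) ≤ 1/2)
    (Lf Lg : Q → (E → Y) → ℝ) (hLf : ∀ τ ∉ R, τ ∉ N → ∀ B ∈ Fr τ, 0 ≤ Lf τ B)
    (e : ∀ τ, 1 ≤ dim τ → PLEquiv (cube (dim τ)) (K τ))
    (he : ∀ τ ∉ R, τ ∉ N → ∀ hd : 1 ≤ dim τ, (e τ hd).f '' sph (dim τ) = bdS K τ)
    (hef : ∀ τ ∉ R, τ ∉ N → ∀ hd : 1 ≤ dim τ, ∀ B ∈ Fr τ, ∀ ω ∈ sph (dim τ),
      MB id B (Lf τ B) (e τ hd).f (sph (dim τ)) ω)
    (heg : ∀ τ ∉ R, τ ∉ N → ∀ hd : 1 ≤ dim τ, ∀ B ∈ Fr τ, ∀ z ∈ K τ,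
      MB B id (Lg τ B) (e τ hd).g (K τ) z)
    (χ : Q → E → ℝ) (hχ : ∀ τ ∉ R, τ ∉ N → ∀ hd : 1 ≤ dim τ, dim τ = 1 → ∀ z ∈ K τ,
      (e τ hd).g z ⟨0, hd⟩ = χ τ z)
    (k : ∀ τ, C.I τ → ℕ) (hk : ∀ τ ∉ R, dim τ = 1 → Function.Injective (k τ))
    (ord : ∀ τ ∉ R, dim τ = 1 → ∀ x x', x ≠ x' → C.fam (C.col τ x) = C.fam (C.col τ x') →
      (k τ x' < k τ x → C.side τ x x' = 1) ∧ (k τ x < k τ x' → C.side τ x x' = 0))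
    (hΛ1 : ∀ τ ∉ R, dim τ = 1 → ∀ B ∈ Fr τ,
      Lg τ B / (4 * (1 - δ) * (1 - ε) * u τ) ≤ Λ 2 τ B)
    (Bb : Q → (E → Y) → ℝ)
    (hBb : ∀ τ ∉ R, τ ∉ N → 2 ≤ dim τ → ∀ B ∈ Fr τ, ∀ σ < τ, Λ (dim τ) σ B ≤ Bb τ B)
    (hΛ2 : ∀ τ ∉ R, τ ∉ N → 2 ≤ dim τ → ∀ B ∈ Fr τ,
      7 * max (Bb τ B * Lf τ B) (1 / u τ) / (2 * b (dim τ)) * Lg τ B ≤ Λ (dim τ + 1) τ B)
    (Rl : (∀ q, C.I q → E → ℝ) → ∀ τ, C.I τ → C.I τ → Prop)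
    (hRl : ∀ D g P c (_ : Inv C K D g P c), ∀ τ ∉ R, τ ∉ N → 2 ≤ dim τ → (∀ σ < τ, σ ∈ D) →
      ∃ kk : C.I τ → ℕ, Function.Injective kk ∧ ∀ x x', Rl c τ x x' → kk x' < kk x)
    (hRI : ∀ c τ x x', Ins C K c τ x x' → Rl c τ x x')
    (Spec : ∀ q, Lam (K q) (C.I q) → Prop)
    (hS0 : ∀ τ ∉ R, dim τ = 0 → ∀ M, Spec τ M)
    (hS1 : ∀ τ ∉ R, dim τ = 1 → ∀ (e : PLEquiv (cube 1) (K τ)),
      ((∀ z ∈ K τ, e.g z 0 = χ τ z) ∨ (∀ z ∈ K τ, e.g z 0 = - χ τ z)) →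
      e.f '' sph 1 = bdS K τ →
      e.f (fun _ => -1) ∈ K (C.o τ) → ∀ (p : C.I τ → ℝ)
      (hE : Ed (fun i => 4 * (1 - δ) * (1 - ε) * u τ * wt (C.col τ i)) p),
      (∀ i, |p i| + 4 * (1 - δ) * (1 - ε) * u τ * wt (C.col τ i) / 2 < 1 - δ) →
      (∀ i j, k τ j < k τ i → p j < p i) → Spec τ ((edgeLam hE).pull e.symm (X.isClosed τ)))
    (hS2 : ∀ D g P c (H : Inv C K D g P c), ∀ τ, (hd : 2 ≤ dim τ) →
      (∀ q ∈ D, Trk C K R g0 P0 c0 b Spec Fr wt Λ (dim τ) q g (P q) (c q)) →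
      ∀ (hR : τ ∉ R) (hN : τ ∉ N) (hτ : ∀ σ < τ, σ ∈ D) (κ : ℝ) (ρ : C.I τ → ℝ)
      (Dp : Dep (bdLam H X τ hτ) κ (b (dim τ)) (fun x => u τ * wt (C.col τ x)) ρ),
      (∀ x x', Rl c τ x x' → ρ x' < ρ x) →
      Spec τ (Dp.fillBall (e τ (by omega)) (he τ hR hN (by omega))))
    (ruleN : ∀ D g P c (H : Inv C K D g P c), ∀ τ ∈ N,
      (∀ q ∈ D, Trk C K R g0 P0 c0 b Spec Fr wt Λ (dim τ) q g (P q) (c q)) →
      τ ∉ R → ∀ hτ : ∀ σ < τ, σ ∈ D,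
      ∃ (e' : PLEquiv (cube (dim τ)) (K τ)) (he' : e'.f '' sph (dim τ) = bdS K τ)
        (κ : ℝ) (h ρ : C.I τ → ℝ) (Dp : Dep (bdLam H X τ hτ) κ (b (dim τ)) h ρ),
        (∀ x x', Rl c τ x x' → ρ x' < ρ x) ∧ Spec τ (Dp.fillBall e' he') ∧
        ∀ B ∈ Fr τ, ∀ x, ∀ z ∈ K τ,
          LB B (Λ (dim τ + 1) τ B / wt (C.col τ x)) ((Dp.fillBall e' he').c x) (K τ) z)
    (n : ℕ) : ∃ g P c, Inv C K (R ∪ {q | dim q < n}) g P c ∧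
      ∀ q ∈ R ∪ {q | dim q < n}, Trk C K R g0 P0 c0 b Spec Fr wt Λ n q g (P q) (c q) := by
  refine mesh_spec X hR H0 hb0 hb2 hw hΛs hΛR (fun n D g P c H hT τ hd hτR hτ => ?_) n
  subst hd
  rcases Nat.lt_or_ge (dim τ) 1 with h1 | h1
  · have h0 : dim τ = 0 := by omega
    have := C.vert τ h0
    exact ⟨emptyLam (K τ) (C.I τ), newCell_empty _, hS0 τ hτR h0 _,
      fun _ _ x => isEmptyElim x⟩
  rcases Nat.lt_or_ge (dim τ) 2 with h2 | h2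
  · have hd : dim τ = 1 := by omega
    have hτN : τ ∉ N := fun h => by have := hN2 τ h; omega
    have key : ∃ e1 : PLEquiv (cube 1) (K τ), e1.f '' sph 1 = bdS K τ ∧
        (∀ B ∈ Fr τ, ∀ z ∈ K τ, MB B id (Lg τ B) e1.g (K τ) z) ∧
        ∀ z ∈ K τ, e1.g z 0 = χ τ z := by
      have hgen : ∀ m, dim τ = m → ∀ hm : 1 ≤ m, m = 1 → ∃ e1 : PLEquiv (cube m) (K τ),
          e1.f '' sph m = bdS K τ ∧ (∀ B ∈ Fr τ, ∀ z ∈ K τ, MB B id (Lg τ B) e1.g (K τ) z) ∧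
          ∀ z ∈ K τ, e1.g z ⟨0, hm⟩ = χ τ z := by
        rintro m rfl hm h1
        exact ⟨e τ hm, he τ hτR hτN hm, heg τ hτR hτN hm, hχ τ hτR hτN hm h1⟩
      exact hgen 1 hd le_rfl rfl
    obtain ⟨e1, he1', hg1, hx1⟩ := key
    obtain ⟨e2, he2, hb, hg2, hx2⟩ := exists_flipE (C := C) X hd e1 he1' hg1
    have hx : (∀ z ∈ K τ, e2.g z 0 = χ τ z) ∨ (∀ z ∈ K τ, e2.g z 0 = - χ τ z) :=
      hx2.imp (fun h z hz => by rw [h z, hx1 z hz]) (fun h z hz => by rw [h z, hx1 z hz])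
    obtain ⟨p, hE, hm, hp, hN⟩ := Mmx_662.exists_newCell_edgeM H X hτ hd (hb0 _) (hb2 _) e2 he2 hb (k τ)
      (hk τ hτR hd) (ord τ hτR hd) (fun x => wt (C.col τ x)) (fun x => hw _) (hu τ hτR hτN)
      (hus τ hτR hτN) he0 he1 hδ hδ1
    refine ⟨_, hN, hS1 τ hτR hd e2 hx he2 hb p hE hm hp, fun B hB x z hz => ?_⟩
    refine (edge_LB hE e2 (X.isClosed τ) x (hg2 B hB) hz).mono ?_
    have h3 := hΛ1 τ hτR hd B hB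
    rw [hd]
    have h4 := hw (C.col τ x)
    show Lg τ B / (4 * (1 - δ) * (1 - ε) * u τ * wt (C.col τ x)) ≤ Λ 2 τ B / wt (C.col τ x)
    rw [← div_div]
    exact div_le_div_of_nonneg_right h3 h4.le
  by_cases hτN : τ ∈ N
  · obtain ⟨e', he', κ, h, ρ, Dp, hρ, hS, hL⟩ := ruleN D g P c H τ hτN hT hτR hτ
    exact ⟨Dp.fillBall e' he', newCell_cone H X hτ h2 _ _ Dp
      fun x x' hne hf h3 h4 h5 => hρ x x' (hRI _ _ _ _ ⟨hne, hf, h3, h4, h5⟩), hS, hL⟩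
  · have hC := Cst.mk' (hb0 (dim τ)) (hb2 (dim τ))
    obtain ⟨kk, hkk, hkI⟩ := hRl D g P c H τ hτR hτN h2 hτ
    obtain ⟨ρ, Dp, hρ⟩ := Cw_298.exists_dep (bdLam H X τ hτ) hC kk hkk
      (fun x => wt (C.col τ x)) (fun x => hw _) (hu τ hτR hτN) (hus τ hτR hτN)
    have hρ' : ∀ x x', Rl c τ x x' → ρ x' < ρ x := by
      intro x x' h
      have h4 := hρ x x' (hkI x x' h)
      have h5 := mul_pos (hu τ hτR hτN) (hw (C.col τ x))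
      have h6 := mul_pos (hu τ hτR hτN) (hw (C.col τ x'))
      linarith
    refine ⟨Dp.fillBall (e τ h1) (he τ hτR hτN h1), newCell_cone H X hτ h2 _ _ Dp
      fun x x' hne hf h3 h4 h5 => hρ' x x' (hRI _ _ _ _ ⟨hne, hf, h3, h4, h5⟩),
      hS2 D g P c H τ h2 hT hτR hτN hτ _ ρ Dp hρ', fun B hB x z hz => ?_⟩
    have hwx := hw (C.col τ x)
    have hB0 : 0 ≤ Bb τ B :=
      (hΛ0 _ _ B (hFr (C.o_lt τ h1) hB)).trans (hBb τ hτR hτN h2 B hB (C.o τ) (C.o_lt τ h1))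
    have hL : ∀ ω ∈ bdS K τ,
        LB B (Bb τ B / wt (C.col τ x)) ((bdLam H X τ hτ).c x) (bdS K τ) ω := by
      intro ω hω
      refine H.LB_cbd X hτ x (div_nonneg hB0 hwx.le) fun σ h y hy hz => ?_
      refine ((hT σ (hτ σ h)).ll B (hFr h hB) y ω hz).mono ?_
      have e1 : C.col σ y = C.col τ x := by rw [← hy, C.col_up]
      rw [e1]
      exact div_le_div_of_nonneg_right (hBb τ hτR hτN h2 B hB σ h) hwx.le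
    refine (Dp.fillBall_LB (e τ h1) (he τ hτR hτN h1) x (div_nonneg hB0 hwx.le)
      (hLf τ hτR hτN B hB) hL (hef τ hτR hτN h1 B hB) (heg τ hτR hτN h1 B hB) hz).mono ?_
    have h3 := hΛ2 τ hτR hτN h2 B hB
    refine le_trans (le_of_eq ?_) (div_le_div_of_nonneg_right h3 hwx.le)
    have e2 : max (Bb τ B / wt (C.col τ x) * Lf τ B) (1 / (u τ * wt (C.col τ x)))
        = max (Bb τ B * Lf τ B) (1 / u τ) / wt (C.col τ x) := by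
      rw [← max_div_div_right hwx.le, div_mul_eq_mul_div, div_div]
    show 7 * max (Bb τ B / wt (C.col τ x) * Lf τ B) (1 / (u τ * wt (C.col τ x))) /
      (2 * b (dim τ)) * Lg τ B = _
    rw [e2]; ring

end mix

section face

variable {R : Set Q} {g0 : Gd E J} {P0 : ∀ q, C.I q → Set E} {c0 : ∀ q, C.I q → E → ℝ}
  {Y : Type*} [PseudoMetricSpace Y]

/-- **the predicate of the mesh with designated 2-cells** -/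
def SpecM (C : Cmb Q dim J Fam) (K : Q → Set E) (wt : J → ℝ) (δ : ℝ) (wd : Q → ℝ)
    (χ : Q → E → ℝ) (P1 P2 : Par) (b2 η : ℝ) {N : Set Q} (des : ∀ τ ∈ N, Des C K χ τ)
    (k : ∀ q, C.I q → ℕ) (q : Q) (M : Lam (K q) (C.I q)) : Prop :=
  SpecE C K wt δ wd χ q M ∧ (∀ h : q ∈ N, SpecF C K wt δ wd χ P1 P2 b2 η (des q h) M) ∧
    Arc_778.SpecG C K k q M

/-- the depths of nearly pure words (928's `pure_LP` / `face_rule`, first part) -/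
def HasDep (P1 P2 : Par) (δ η : ℝ) : Prop :=
  ∀ {ι : Type} [Fintype ι] {L : Lam (sph 2) ι} {W : Bw L} {wt : ι → ℝ} {ν : Fin 4 → ℝ}
    {FA FB : Prop} {MA MB : Finset ι} (_ : Pure W wt ν FA FB δ η MA MB) {K b : ℝ} (_ : Cst K b)
    (k0 : ι → ℕ) (_ : Function.Injective k0) (Rl : ι → ι → Prop)
    (_ : ∀ x x', Rl x x' → Bw.Inc L x x') (_ : ∀ x x', Rl x x' → k0 x' < k0 x),
    Nonempty (Bw.Dpt W P1 P2 K b (lg W wt ν) Rl (6 * η) (6 * η))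

/-- the crude bound (928's `exists_crude`) -/
def Crude (P1 P2 : Par) (Λ0 : ℝ) : Prop :=
  ∀ {ι : Type} {L : Lam (sph 2) ι} {K b : ℝ} {h ρ : ι → ℝ}
    (D : Dep L K b h ρ) (i : ι) (M : ℝ), 0 ≤ M →
    (∀ ω ∈ sph 2, LL M (L.c i) (sph 2) ω) → 1 / h i ≤ M →
    ∀ z ∈ cube 2, LL (Λ0 * M / (2 * b)) (ff D P1 P2 i) (cube 2) z

/-- **THE MESH WITH DESIGNATED NEARLY PURE 2-CELLS** -/
theorem mesh_face (X : Cplx Ω Q dim K) (hR : ∀ q ∈ R, ∀ p < q, p ∈ R)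
    (H0 : Inv C K R g0 P0 c0) {b : ℕ → ℝ} (hb0 : ∀ n, 0 < b n) (hb2 : ∀ n, b n < 1/2)
    {wt : J → ℝ} (hw : ∀ j, 0 < wt j) {Λ : ℕ → Q → (E → Y) → ℝ} (Fr : Q → Set (E → Y))
    (hΛ0 : ∀ n q, ∀ B ∈ Fr q, 0 ≤ Λ n q B)
    (hΛs : ∀ n q, ∀ B ∈ Fr q, Λ n q B / (2 * b n) ≤ Λ (n + 1) q B)
    (hFr : ∀ {σ τ : Q}, σ < τ → Fr τ ⊆ Fr σ)
    (hΛR : ∀ q ∈ R, ∀ B ∈ Fr q, ∀ x, ∀ z ∈ K q,
      LB B (Λ 0 q B / wt (C.col q x)) (c0 q x) (K q) z)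
    {ε : ℝ} (he0 : 0 < ε) (he1 : ε < 1) {δ : ℝ} (hδ : 0 ≤ δ) (hδ1 : δ < 1)
    (χ : Q → E → ℝ) (N : Set Q) (des : ∀ τ ∈ N, Des C K χ τ)
    (u : Q → ℝ) (hu : ∀ τ ∉ R, τ ∉ N → 0 < u τ)
    (hus : ∀ τ ∉ R, τ ∉ N → u τ * ∑ x, wt (C.col τ x) ≤ 1/2)
    (Lf Lg : Q → (E → Y) → ℝ) (hLf : ∀ τ ∉ R, τ ∉ N → ∀ B ∈ Fr τ, 0 ≤ Lf τ B)
    (e : ∀ τ, 1 ≤ dim τ → PLEquiv (cube (dim τ)) (K τ))
    (he : ∀ τ ∉ R, τ ∉ N → ∀ hd : 1 ≤ dim τ, (e τ hd).f '' sph (dim τ) = bdS K τ)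
    (hef : ∀ τ ∉ R, τ ∉ N → ∀ hd : 1 ≤ dim τ, ∀ B ∈ Fr τ, ∀ ω ∈ sph (dim τ),
      MB id B (Lf τ B) (e τ hd).f (sph (dim τ)) ω)
    (heg : ∀ τ ∉ R, τ ∉ N → ∀ hd : 1 ≤ dim τ, ∀ B ∈ Fr τ, ∀ z ∈ K τ,
      MB B id (Lg τ B) (e τ hd).g (K τ) z)
    (hχ : ∀ τ ∉ R, τ ∉ N → ∀ hd : 1 ≤ dim τ, dim τ = 1 → ∀ z ∈ K τ,
      (e τ hd).g z ⟨0, hd⟩ = χ τ z)
    (k : ∀ τ, C.I τ → ℕ) (hk : ∀ τ ∉ R, dim τ = 1 → Function.Injective (k τ))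
    (ord : ∀ τ ∉ R, dim τ = 1 → ∀ x x', x ≠ x' → C.fam (C.col τ x) = C.fam (C.col τ x') →
      (k τ x' < k τ x → C.side τ x x' = 1) ∧ (k τ x < k τ x' → C.side τ x x' = 0))
    (hΛ1 : ∀ τ ∉ R, dim τ = 1 → ∀ B ∈ Fr τ,
      Lg τ B / (4 * (1 - δ) * (1 - ε) * u τ) ≤ Λ 2 τ B)
    (Bb : Q → (E → Y) → ℝ)
    (hBb : ∀ τ ∉ R, τ ∉ N → 2 ≤ dim τ → ∀ B ∈ Fr τ, ∀ σ < τ, Λ (dim τ) σ B ≤ Bb τ B)
    (hΛ2 : ∀ τ ∉ R, τ ∉ N → 2 ≤ dim τ → ∀ B ∈ Fr τ,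
      7 * max (Bb τ B * Lf τ B) (1 / u τ) / (2 * b (dim τ)) * Lg τ B ≤ Λ (dim τ + 1) τ B)
    -- the designated cells
    {P1 P2 : Par} {η Λ1 : ℝ} (hdep : HasDep P1 P2 δ η) (hcr : Crude P1 P2 Λ1) (hΛ1' : 0 ≤ Λ1)
    (hNR : ∀ τ (h : τ ∈ N), ∀ s, (des τ h).S.es s ∉ R)
    (hends : ∀ τ ∈ N, ∀ x : C.I τ, ∃ a b, a ≠ b ∧ Arc_778.Blw C τ x = {a, b})
    (hDP : ∀ τ (h : τ ∈ N), ∃ (T : Fin 2 → Finset J) (cc : Fin 2 → Fam) (σ a : Fin 2 → ℝ)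
      (m : ℝ), DP (des τ h).S wt T cc σ a m ∧ NumF (des τ h).S wt
        ((des τ h).nu fun q => 4 * (1 - δ) * (1 - ε) * u q) a m δ η)
    (LN : Q → (E → Y) → ℝ)
    (hLN : ∀ τ (h : τ ∈ N), ∀ B ∈ Fr τ, ∀ z ∈ K τ, MB B id (LN τ B) (des τ h).A.g (K τ) z)
    (hΛN : ∀ τ (h : τ ∈ N), ∀ B ∈ Fr τ,
      Λ1 * (16 / αX ((des τ h).nu fun q => 4 * (1 - δ) * (1 - ε) * u q)) / (2 * b (dim τ)) *
        LN τ B ≤ Λ (dim τ + 1) τ B)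
    (n : ℕ) : ∃ g P c, Inv C K (R ∪ {q | dim q < n}) g P c ∧
      ∀ q ∈ R ∪ {q | dim q < n}, Trk C K R g0 P0 c0 b
        (SpecM C K wt δ (fun q => 4 * (1 - δ) * (1 - ε) * u q) χ P1 P2 (b 2) η des k)
        Fr wt Λ n q g (P q) (c q) := by
  refine mesh_mixE X hR H0 hb0 hb2 hw Fr hΛ0 hΛs hFr hΛR he0 he1 hδ hδ1 N
    (fun τ h => (des τ h).d2.ge) u hu hus Lf Lg hLf e he hef heg χ hχ k hk ord hΛ1 Bb hBb hΛ2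
    (Arc_778.RlG C K)
    (fun D g P c H τ _ _ hd hτ => Arc_778.rlG_rank X D g P c H τ hd hτ) Arc_778.rlG_ins _
    (fun τ _ hd M => ⟨fun h => by omega, fun h => by
      exfalso; have := (des τ h).d2; omega, Arc_778.specG0 hd M⟩)
    (fun τ hτR hd e1 hx he1 hb p hE hm hp => ⟨specE_edge (X.isClosed τ) e1 hx hE hm,
      fun h => by exfalso; have := (des τ h).d2; omega, Arc_778.specG1 X hd e1 he1 hb hE hp⟩)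
    (fun D g P c H τ hd _ hτR hN hτ κ ρ Dp hρ => ⟨fun h => by omega, fun h => (hN h).elim,
      Arc_778.specG2 H X hd hτ Dp hρ _ _⟩)
    (fun D g P c H τ hN hT hτR hτ => ?_) n
  · obtain ⟨T, cc, σ, a, m, hD, hNm⟩ := hDP τ hN
    refine rule_face hdep hcr hΛ1' hb0 hb2 hw (fun q M h => h.1) H X hτ hT (des τ hN) (hNR τ hN)
      (hends τ hN) hD hNm (hLN τ hN) (hΛN τ hN) ?_
    intro κ h ρ Dp hρ n hn e1 he1 hS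
    refine ⟨fun h => ?_, fun _ => hS, ?_⟩
    · have := (des τ hN).d2; omega
    · exact Arc_778.specG2 H X (des τ hN).d2.ge hτ Dp hρ e1 he1

end face

end Crest.Agent.R096.Fk_522
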