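import Crest.Agent.R096.Fk15_522

/-!
# R096 (row 96), P4-FACE, combinatorics, part 16: the numbers of a designated 2-cell (helper522)
-/

set_option autoImplicit false
set_option linter.unusedSectionVars false

open Set Metric Filter Topology

namespace Crest.Agent.R096.Fk_522

open Crest.Agent.R096.Ce_537 Crest.Agent.R096.Bd_416 Crest.Agent.R096.Fsw_928

open scoped Classical

variable {Q : Type} [PartialOrder Q] {dim : Q → ℕ} {J Fam : Type}
variable {C : Cmb Q dim J Fam} {τ : Q} {S : SqC C τ} {wt : J → ℝ}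
  {T : Fin 2 → Finset J} {c : Fin 2 → Fam} {σ a : Fin 2 → ℝ} {m : ℝ}

/-- the total weight of a side -/
noncomputable def SqC.W (S : SqC C τ) (wt : J → ℝ) (s : Fin 4) : ℝ :=
  ∑ y : C.I (S.es s), wt (C.col _ y)

lemma SqC.dsp_le (S : SqC C τ) {o : ℝ} (ho : o = 1 ∨ o = -1) (s : Fin 4) (j : J) :
    o * S.dsp s j ≤ S.N s j := by
  have h1 := S.lab_side s j
  show o * ((Bd_416.sg (C.Lab j (S.v (w0 s))) - Bd_416.sg (C.Lab j (S.v (w1 s)))) / 2) ≤ _
  rcases dsp_cases h1 ho with ⟨p0, e0⟩ | ⟨p0, f0, e0⟩ | ⟨p0, f0, e0⟩ <;> rw [e0]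
  · exact Nat.cast_nonneg _
  · have := Nat.cast_nonneg (α := ℝ) (S.N s j); linarith
  · have : 1 ≤ S.N s j := by omega
    exact_mod_cast this

namespace DP

variable (hD : DP S wt T c σ a m) (hw : ∀ j, 0 < wt j)
include hD hw

lemma W_lo (s : Fin 4) : a (dr s) - m ≤ S.W wt s := by
  refine (hD.dis (dr s) s rfl).trans ?_
  have h1 : σ (dr s) * ∑ j ∈ T (dr s), wt j * S.dsp s j ≤
      ∑ j ∈ T (dr s), wt j * S.N s j := by
    rw [Finset.mul_sum]
    refine Finset.sum_le_sum fun j _ => ?_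
    have h2 := mul_le_mul_of_nonneg_left (S.dsp_le (hD.sg (dr s)) s j) (hw j).le
    linarith
  refine h1.trans ?_
  rw [← hD.sum_fam' (dr s) s]
  exact Finset.sum_le_sum_of_subset_of_nonneg (Finset.filter_subset _ _)
    fun y _ _ => (hw _).le

lemma W_hi (s : Fin 4) : S.W wt s ≤ a (dr s) + 2 * m := by
  have hother : dr s ≠ 1 - dr s := by
    have hi : dr s = 0 ∨ dr s = 1 := by omega
    rcases hi with h | h <;> rw [h] <;> decide
  have h1 := hD.tot (dr s) s rfl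
  have h2 := hD.oth (1 - dr s) s hother
  have h3 : S.W wt s ≤ ∑ y : C.I (S.es s) with C.fam (C.col _ y) = c (dr s), wt (C.col _ y) +
      ∑ y : C.I (S.es s) with C.fam (C.col _ y) = c (1 - dr s), wt (C.col _ y) := by
    unfold SqC.W
    rw [Finset.sum_filter, Finset.sum_filter, ← Finset.sum_add_distrib]
    refine Finset.sum_le_sum fun y _ => ?_
    have hy := (hw (C.col _ y)).le
    obtain ⟨i, hi⟩ := hD.two s y
    have hi' : i = dr s ∨ i = 1 - dr s := by omega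
    rcases hi' with rfl | rfl
    · rw [if_pos hi]; split_ifs <;> linarith
    · rw [if_pos hi]; split_ifs <;> linarith
  linarith

/-- **the numbers** (main directions: full width; empty directions: factor `θ`) -/
theorem numF {μ Λ η1 δ ε η θ : ℝ} (hm : m = η1 * μ) (hμ : 0 < μ) (hΛ : 1 ≤ Λ)
    (hab : ∀ i, a i = 0 ∨ (μ / Λ ≤ a i ∧ a i ≤ μ)) (h10 : 0 < η1) (h11 : 2 * Λ * η1 ≤ 1)
    (h12 : η1 ≤ θ) (hδ : 0 ≤ δ) (hδ1 : δ ≤ 1/4) (hε : 0 ≤ ε) (hε1 : ε ≤ 1/4)
    (hη : 44 * Λ * η1 + 2 * ε ≤ η) (hθ : 2 * θ ≤ η)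
    {ν d t : Fin 4 → ℝ} (hd0 : ∀ s, 0 < d s) (hd1 : ∀ s, d s ≤ η1 * μ)
    (ht : ∀ s, a (dr s) ≠ 0 → t s = 1) (ht0 : ∀ s, a (dr s) = 0 → t s = θ)
    (hν : ∀ s, ν s = 4 * (1 - δ) * (1 - ε) * (t s * (1 / (2 * (S.W wt s + d s))))) :
    NumF S wt ν a m δ η ∧ 1 / αX ν ≤ 3 * μ ∧
      ∀ s, a (dr s) ≠ 0 → |a (dr s) - 2 / ν s| ≤ (3 * η1 + 5 * (δ + ε)) * μ := by
  have hΛ0 : 0 < Λ := by linarith
  have hθ0 : 0 < θ := by linarith
  have hm0 : 0 ≤ m := by rw [hm]; positivity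
  have ha1 : ∀ i, a i ≤ μ := fun i => by
    rcases hab i with h1 | h1
    · rw [h1]; exact hμ.le
    · exact h1.2
  have hmμ : m ≤ μ / 2 := by
    rw [hm]
    have : 2 * η1 ≤ 1 := by nlinarith
    nlinarith
  have hW0 : ∀ s, 0 ≤ S.W wt s := fun s => Finset.sum_nonneg fun y _ => (hw _).le
  have hWlo := hD.W_lo hw
  have hWhi := hD.W_hi hw
  obtain ⟨M, hM⟩ : ∃ M : Fin 4 → ℝ, ∀ s, M s = S.W wt s + d s := ⟨_, fun _ => rfl⟩
  have hM0 : ∀ s, 0 < M s := fun s => by
    have := hW0 s; have := hd0 s; rw [hM s]; linarith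
  have hM2 : ∀ s, S.W wt s ≤ M s := fun s => by have := hd0 s; rw [hM s]; linarith
  have hdm : ∀ s, d s ≤ m := fun s => by rw [hm]; exact hd1 s
  have hMhi : ∀ s, M s ≤ a (dr s) + 3 * m := fun s => by
    have := hWhi s; have := hdm s; rw [hM s]; linarith
  have hM5 : ∀ s, M s - m ≤ S.W wt s := fun s => by
    have := hdm s; rw [hM s]; linarith
  have hMlo : ∀ s, a (dr s) - m ≤ M s := fun s => by
    have := hWlo s; have := hM2 s; linarith
  have h1δ : 0 < 1 - δ := by linarith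
  have h1ε : 0 < 1 - ε := by linarith
  have hcc : 0 < 2 * (1 - δ) * (1 - ε) := by positivity
  have hcc1 : 2 * (1 - δ) * (1 - ε) ≤ 2 := by nlinarith
  have hcc2 : (9:ℝ)/8 ≤ 2 * (1 - δ) * (1 - ε) := by nlinarith
  have hν' : ∀ s, ν s = 2 * (1 - δ) * (1 - ε) * t s / M s := fun s => by
    have h1 := (hM0 s).ne'
    rw [hν s, ← hM s]
    field_simp
    ring
  have hνm : ∀ s, a (dr s) ≠ 0 → ν s = 2 * (1 - δ) * (1 - ε) / M s := fun s ha => by
    rw [hν' s, ht s ha, mul_one]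
  have htpos : ∀ s, 0 < t s := fun s => by
    by_cases ha : a (dr s) = 0
    · rw [ht0 s ha]; exact hθ0
    · rw [ht s ha]; exact one_pos
  have hν0 : ∀ s, 0 < ν s := fun s => by
    rw [hν' s]; exact div_pos (mul_pos hcc (htpos s)) (hM0 s)
  have hmain : ∀ s, a (dr s) ≠ 0 → μ / Λ ≤ a (dr s) := fun s ha => by
    rcases hab (dr s) with h | h
    · exact absurd h ha
    · exact h.1
  have hmM : ∀ s, a (dr s) ≠ 0 → m / M s ≤ 2 * (Λ * η1) := fun s ha => by
    rw [div_le_iff₀ (hM0 s)]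
    have h1 := hmain s ha
    have h2 := hMlo s
    rw [div_le_iff₀ hΛ0] at h1
    have h3 : μ ≤ 2 * (Λ * M s) := by
      have h4 : (a (dr s) - m) * Λ ≤ M s * Λ := mul_le_mul_of_nonneg_right h2 hΛ0.le
      have h5 : 2 * (m * Λ) ≤ μ := by
        rw [hm]
        have := mul_le_mul_of_nonneg_right h11 hμ.le
        linarith
      linarith
    rw [hm]
    have h4 := mul_le_mul_of_nonneg_left h3 h10.le
    linarith
  have hle : ∀ s, a (dr s) ≠ 0 → ν s * m ≤ 4 * (Λ * η1) := fun s ha => by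
    have h1 : ν s * m = 2 * (1 - δ) * (1 - ε) * (m / M s) := by rw [hνm s ha]; ring
    rw [h1]
    have h2 := hmM s ha
    have h3 : 0 ≤ m / M s := div_nonneg hm0 (hM0 s).le
    calc 2 * (1 - δ) * (1 - ε) * (m / M s) ≤ 2 * (m / M s) := mul_le_mul_of_nonneg_right hcc1 h3
      _ ≤ _ := by linarith
  have hΛη : 0 ≤ Λ * η1 := by positivity
  have hsum : ∀ s, ∑ y, S.wd wt ν s y = ν s * S.W wt s := fun s => by
    unfold SqC.wd SqC.W
    rw [Finset.mul_sum]
  refine ⟨⟨hν0, hm0, fun s => ?_, fun s ha => ?_, fun s s' hss ha => ?_⟩, ?_, fun s ha => ?_⟩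
  · by_cases ha : a (dr s) = 0
    · right
      rw [hsum s, hν' s, ht0 s ha]
      have h1 : 2 * (1 - δ) * (1 - ε) * θ / M s * S.W wt s =
          2 * (1 - δ) * (1 - ε) * θ * (S.W wt s / M s) := by ring
      have h2 : S.W wt s / M s ≤ 1 := (div_le_one (hM0 s)).2 (hM2 s)
      have h3 : 2 * (1 - δ) * (1 - ε) * θ ≤ 2 * θ := mul_le_mul_of_nonneg_right hcc1 hθ0.le
      have h4 : 2 * (1 - δ) * (1 - ε) * θ * (S.W wt s / M s) ≤
          2 * (1 - δ) * (1 - ε) * θ * 1 := mul_le_mul_of_nonneg_left h2 (by positivity)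
      rw [h1]
      linarith
    · left
      have := hle s ha
      linarith
  · rw [hsum s, hνm s ha]
    have h1 := hM5 s
    have h2 := hmM s ha
    have h3 : 1 - m / M s ≤ S.W wt s / M s := by
      rw [le_div_iff₀ (hM0 s), sub_mul, div_mul_cancel₀ _ (hM0 s).ne']
      linarith
    have h4 : 2 * (1 - δ) * (1 - ε) / M s * S.W wt s =
        2 * (1 - δ) * (1 - ε) * (S.W wt s / M s) := by ring
    rw [h4]
    have h5 : 2 * (1 - δ) * (1 - ε) * (1 - 2 * (Λ * η1)) ≤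
        2 * (1 - δ) * (1 - ε) * (S.W wt s / M s) :=
      mul_le_mul_of_nonneg_left (by linarith) hcc.le
    refine le_trans ?_ h5
    have h6 : 2 * (1 - δ) * (1 - ε) * (1 - 2 * (Λ * η1)) =
        2 * (1 - δ) - 2 * (1 - δ) * ε - 2 * (1 - δ) * (1 - ε) * (2 * (Λ * η1)) := by ring
    have h7 : 2 * (1 - δ) * ε ≤ 2 * ε := by nlinarith
    have h8 : 2 * (1 - δ) * (1 - ε) * (2 * (Λ * η1)) ≤ 2 * (2 * (Λ * η1)) :=
      mul_le_mul_of_nonneg_right hcc1 (by linarith)
    rw [h6]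
    linarith
  · have ha' : a (dr s') ≠ 0 := by rw [← hss]; exact ha
    have h1 := hMhi s
    have h2 := hMlo s
    have h3 := hMhi s'
    have h4 := hMlo s'
    rw [← hss] at h3 h4
    have h5 : |M s' - M s| ≤ 4 * m := abs_le.2 ⟨by linarith, by linarith⟩
    have h6 : ν s - ν s' = ν s * ((M s' - M s) / M s') := by
      rw [hνm s ha, hνm s' ha']
      have := (hM0 s).ne'
      have := (hM0 s').ne'
      field_simp
    rw [h6, abs_mul, abs_of_pos (hν0 s), abs_div, abs_of_pos (hM0 s'), mul_comm η]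
    refine mul_le_mul_of_nonneg_left ?_ (hν0 s).le
    have h7 : |M s' - M s| / M s' ≤ 4 * m / M s' := div_le_div_of_nonneg_right h5 (hM0 s').le
    have h8 := hmM s' ha'
    have h9 : 4 * m / M s' = 4 * (m / M s') := by ring
    rw [h9] at h7
    linarith
  · have h1 : ∀ s, 1 / (3 * μ) ≤ ν s := fun s => by
      rw [hν' s, div_le_div_iff₀ (by linarith) (hM0 s)]
      have h2 := hMhi s
      by_cases ha : a (dr s) = 0
      · rw [ht0 s ha]
        rw [ha, hm] at h2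
        have h3 : (9:ℝ)/8 * (θ * (3 * μ)) ≤ 2 * (1 - δ) * (1 - ε) * (θ * (3 * μ)) :=
          mul_le_mul_of_nonneg_right hcc2 (by positivity)
        have h4 : η1 * μ ≤ θ * μ := mul_le_mul_of_nonneg_right h12 hμ.le
        have h5 : 0 ≤ θ * μ := by positivity
        linarith
      · rw [ht s ha, mul_one]
        have h4 : (9:ℝ)/8 * (3 * μ) ≤ 2 * (1 - δ) * (1 - ε) * (3 * μ) :=
          mul_le_mul_of_nonneg_right hcc2 (by linarith)
        have h5 := ha1 (dr s)
        linarith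
    have h2 : 1 / (3 * μ) ≤ αX ν := by
      unfold αX αA αB
      exact le_min (le_min (h1 2) (h1 3)) (le_min (h1 0) (h1 1))
    have h3 : 0 < αX ν := lt_of_lt_of_le (by positivity) h2
    rw [div_le_iff₀ h3]
    rw [div_le_iff₀ (by linarith)] at h2
    linarith
  · have h1 := hMhi s
    have h2 := hMlo s
    have h3 : 2 / ν s = M s / ((1 - δ) * (1 - ε)) := by
      rw [hνm s ha]
      have := (hM0 s).ne'
      field_simp
    rw [h3]
    have hp : 0 < (1 - δ) * (1 - ε) := by positivity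
    have h4 : M s ≤ M s / ((1 - δ) * (1 - ε)) := by
      rw [le_div_iff₀ hp]
      have : (1 - δ) * (1 - ε) ≤ 1 := by nlinarith
      nlinarith [hM0 s]
    have h5 : M s / ((1 - δ) * (1 - ε)) ≤ M s * (1 + 2 * (δ + ε)) := by
      rw [div_le_iff₀ hp, mul_assoc]
      have h6 : 1 ≤ (1 + 2 * (δ + ε)) * ((1 - δ) * (1 - ε)) := by
        have h7 : 1 - (δ + ε) ≤ (1 - δ) * (1 - ε) := by nlinarith
        have h8 : 1 ≤ (1 + 2 * (δ + ε)) * (1 - (δ + ε)) := by nlinarith
        have h9 : 0 ≤ 1 + 2 * (δ + ε) := by linarith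
        exact h8.trans (mul_le_mul_of_nonneg_left h7 h9)
      nlinarith [hM0 s]
    have h11' : M s ≤ 5/2 * μ := by
      have := ha1 (dr s); linarith
    have h12' : M s * (2 * (δ + ε)) ≤ 5/2 * μ * (2 * (δ + ε)) :=
      mul_le_mul_of_nonneg_right h11' (by linarith)
    have h13 : 0 ≤ (δ + ε) * μ := by positivity
    have h14 : 0 ≤ η1 * μ := by positivity
    rw [hm] at h1 h2
    rw [abs_le]
    constructor
    · linarith
    · linarith

end DP

end Crest.Agent.R096.Fk_522
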