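import Crest.Agent.R96.Nu6_199

/-!
# R096 (row 96), P4-FACE, part 17: affine charts of the edges with the constants of the shape
(helper522)
-/

set_option autoImplicit false
set_option linter.unusedSectionVars false

open Set Metric Filter Topology

namespace Crest.Agent.R096.Fk_522

open Crest.Agent.R096.Ce_537 Crest.Agent.R096.Bd_416
open Crest.Agent.R96.Nu3_199 Crest.Agent.R96.Nu5_199 Crest.Agent.R96.Nu6_199

open scoped Classical

/-- a local Lipschitz constant on a convex set is a Lipschitz constant -/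
theorem glob {V Y : Type*} [NormedAddCommGroup V] [NormedSpace ℝ V] [PseudoMetricSpace Y]
    {Z : Set V} (hZ : Convex ℝ Z) {F : V → Y} {A : ℝ}
    (h : ∀ x ∈ Z, ∀ᶠ y in 𝓝[Z] x, dist (F y) (F x) ≤ A * dist y x) {x y : V} (hx : x ∈ Z)
    (hy : y ∈ Z) : dist (F y) (F x) ≤ A * dist y x := by
  let r : ℝ → V := fun t => x + t • (y - x)
  have hr : Continuous r := by fun_prop
  have hrm : ∀ t ∈ Icc (0:ℝ) 1, r t ∈ Z := fun t ht => hZ.add_smul_sub_mem hx hy ht
  have hrd : ∀ s t, dist (r s) (r t) = |s - t| * dist y x := by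
    intro s t
    rw [dist_eq_norm, dist_eq_norm]
    have : r s - r t = (s - t) • (y - x) := by
      show x + s • (y - x) - (x + t • (y - x)) = _
      rw [sub_smul]; abel
    rw [this, norm_smul, Real.norm_eq_abs]
  have hloc : ∀ t ∈ Icc (0:ℝ) 1, ∀ᶠ s in 𝓝[Icc (0:ℝ) 1] t,
      dist (F (r s)) (F (r t)) ≤ A * dist y x * |s - t| := by
    intro t ht
    have h1 : Tendsto r (𝓝[Icc (0:ℝ) 1] t) (𝓝[Z] (r t)) :=
      tendsto_nhdsWithin_iff.2 ⟨(hr.tendsto t).mono_left nhdsWithin_le_nhds,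
        by filter_upwards [self_mem_nhdsWithin] with s hs using hrm s hs⟩
    filter_upwards [h1.eventually (h _ (hrm t ht))] with s hs
    rw [hrd] at hs
    linarith
  have hcont : ContinuousOn (fun t => dist (F (r t)) (F (r 0)) - A * dist y x * t)
      (Icc (0:ℝ) 1) := by
    refine ContinuousOn.sub ?_ (by fun_prop)
    refine continuous_dist.comp_continuousOn (ContinuousOn.prodMk ?_ continuousOn_const)
    intro t ht
    rw [ContinuousWithinAt, tendsto_iff_dist_tendsto_zero]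
    refine squeeze_zero' (Eventually.of_forall fun _ => dist_nonneg) (hloc t ht) ?_
    have : Continuous fun s : ℝ => A * dist y x * |s - t| := by fun_prop
    have h2 := this.tendsto t
    simp only [sub_self, abs_zero, mul_zero] at h2
    exact h2.mono_left nhdsWithin_le_nhds
  set S : Set ℝ := {t | dist (F (r t)) (F (r 0)) - A * dist y x * t ≤ 0} with hS
  have hcl : IsClosed (S ∩ Icc 0 1) := by
    have h2 := hcont.preimage_isClosed_of_isClosed isClosed_Icc (isClosed_Iic (a := (0:ℝ)))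
    have h3 : S ∩ Icc 0 1 = Icc 0 1 ∩
        (fun t => dist (F (r t)) (F (r 0)) - A * dist y x * t) ⁻¹' Iic 0 := by
      ext t
      simp only [hS, mem_inter_iff, mem_ofPred_eq, mem_preimage, mem_Iic]
      tauto
    rw [h3]
    exact h2
  have h0 : (0 : ℝ) ∈ S := by simp [hS]
  have h1 := hcl.Icc_subset_of_forall_mem_nhdsWithin h0 (by
    rintro t ⟨ht, ht0, ht1⟩
    have h4 : 𝓝[>] t ≤ 𝓝[Icc (0:ℝ) 1] t := by
      rw [← nhdsWithin_Ioo_eq_nhdsGT ht1]
      exact nhdsWithin_mono _ fun s hs => ⟨ht0.trans hs.1.le, hs.2.le⟩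
    filter_upwards [h4 (hloc t ⟨ht0, ht1.le⟩), self_mem_nhdsWithin] with s hs hst
    have hst' : t < s := hst
    rw [abs_of_pos (by linarith)] at hs
    have h5 : dist (F (r t)) (F (r 0)) - A * dist y x * t ≤ 0 := ht
    show dist (F (r s)) (F (r 0)) - A * dist y x * s ≤ 0
    have h6 := dist_triangle (F (r s)) (F (r t)) (F (r 0))
    linarith)
  have h2 : (1 : ℝ) ∈ S := h1 (right_mem_Icc.2 zero_le_one)
  have h3 : dist (F (r 1)) (F (r 0)) - A * dist y x * 1 ≤ 0 := h2
  have e1 : r 1 = y := by simp [r]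
  have e0 : r 0 = x := by simp [r]
  rw [e1, e0] at h3
  linarith

variable {E : Type*} [NormedAddCommGroup E] [NormedSpace ℝ E] [FiniteDimensional ℝ E]

/-- a convex body whose relative boundary has two points is a segment -/
lemma seg_of_bd {S : Set E} (hc : IsCompact S) {p q : E} (h : S \ ri S = {p, q})
    {x : E} (hx : x ∈ S) : ∃ s ∈ Icc (0:ℝ) 1, x = AffineMap.lineMap p q s := by
  have hp : p ∈ S := by
    have : p ∈ S \ ri S := by rw [h]; simp
    exact this.1
  by_cases hxp : x = p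
  · exact ⟨0, ⟨le_rfl, zero_le_one⟩, by rw [AffineMap.lineMap_apply_zero, hxp]⟩
  let r : ℝ → E := fun t => p + t • (x - p)
  have hr : Continuous r := by fun_prop
  let T : Set ℝ := r ⁻¹' S ∩ Ici 1
  have hn : 0 < ‖x - p‖ := norm_pos_iff.2 (sub_ne_zero.2 hxp)
  obtain ⟨M, hM⟩ := hc.isBounded.exists_norm_le
  have hTb : T ⊆ Icc 1 ((M + ‖p‖) / ‖x - p‖) := by
    rintro t ⟨ht, ht1⟩
    refine ⟨ht1, ?_⟩
    rw [le_div_iff₀ hn]
    have h1 := hM _ ht
    have ht1' : (1:ℝ) ≤ t := ht1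
    have h2 : t * ‖x - p‖ = ‖t • (x - p)‖ := by
      rw [norm_smul, Real.norm_eq_abs, abs_of_pos (by linarith)]
    have h3 : t • (x - p) = r t - p := by simp [r]
    rw [h2, h3]
    exact (norm_sub_le _ _).trans (by linarith)
  have hTc : IsCompact T := isCompact_Icc.of_isClosed_subset
    ((hc.isClosed.preimage hr).inter isClosed_Ici) hTb
  have h1T : (1:ℝ) ∈ T := ⟨by simpa [r] using hx, mem_Ici.2 le_rfl⟩
  obtain ⟨t, ht, hmax⟩ := hTc.exists_isGreatest ⟨1, h1T⟩
  have ht1 : (1:ℝ) ≤ t := ht.2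
  have hy : r t ∈ S \ ri S := by
    refine ⟨ht.1, fun hri => ?_⟩
    obtain ⟨s, hs, hs2⟩ := hri.2 p hp
    have e : r t + s • (r t - p) = r (t * (1 + s)) := by
      show p + t • (x - p) + s • (p + t • (x - p) - p) = p + (t * (1 + s)) • (x - p)
      rw [add_sub_cancel_left, smul_smul, add_assoc, ← add_smul]
      congr 2
      ring
    rw [e] at hs2
    have h4 : t * (1 + s) ∈ T := ⟨hs2, by show (1:ℝ) ≤ t * (1 + s); nlinarith⟩
    have h5 := hmax h4
    nlinarith
  rw [h] at hy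
  rcases hy with hy | hy
  · exfalso
    have h6 : t • (x - p) = 0 := by
      have : p + t • (x - p) = p := hy
      simpa using this
    rcases smul_eq_zero.1 h6 with h7 | h7
    · linarith
    · exact hxp (sub_eq_zero.1 h7)
  · have hq : p + t • (x - p) = q := hy
    refine ⟨t⁻¹, ⟨by positivity, inv_le_one_of_one_le₀ ht1⟩, ?_⟩
    rw [AffineMap.lineMap_apply, vsub_eq_sub, vadd_eq_add, ← hq, add_sub_cancel_left, smul_smul,
      inv_mul_cancel₀ (by linarith), one_smul, sub_add_cancel]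

lemma dist_fin1 (y x : Fin 1 → ℝ) : dist y x = |y 0 - x 0| := by
  rw [dist_eq_norm]
  refine le_antisymm ?_ ?_
  · rw [pi_norm_le_iff_of_nonneg (abs_nonneg _)]
    intro i
    rw [Subsingleton.elim i 0]
    exact le_rfl
  · exact norm_le_pi_norm (y - x) 0

/-- **THE AFFINE CHART OF AN EDGE** has the constants of the shape -/
theorem affine_edge {S : Set E} (h1 : Convex ℝ S) (h2 : IsCompact S) (h3 : S.Nonempty)
    (h4 : IsBall 1 S (S \ ri S)) : ∃ (e : PLEquiv (cube 1) S) (χ : E →ᵃ[ℝ] ℝ),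
      e.f '' sph 1 = S \ ri S ∧ (∀ z ∈ S, e.g z 0 = χ z) ∧ ∀ B : E ≃ᵃ[ℝ] E,
      (∀ x ∈ cube 1, MB (fun x => x) B (AAc 1 (B '' S)) e.f (cube 1) x) ∧
        ∀ z ∈ S, MB B (fun x => x) (AAc 1 (B '' S)) e.g S z := by
  obtain ⟨e0, he0, hB0⟩ := AAc_spec h1 h2 h3 h4
  let vm : Fin 1 → ℝ := fun _ => -1
  let vp : Fin 1 → ℝ := fun _ => 1
  have hvm : vm ∈ sph 1 := mem_sph1.2 (by show |(-1:ℝ)| = 1; norm_num)
  have hvp : vp ∈ sph 1 := mem_sph1.2 (by show |(1:ℝ)| = 1; norm_num)
  have hvmc := sph_subset_cube hvm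
  have hvpc := sph_subset_cube hvp
  set p := e0.f vm with hp
  set q := e0.f vp with hq
  have hsph : sph 1 = {vm, vp} := by
    ext v
    rw [mem_sph1]
    constructor
    · intro h
      rcases (abs_eq zero_le_one).1 h with h | h
      · right
        funext i; rw [Subsingleton.elim i 0, h]
      · left
        funext i; rw [Subsingleton.elim i 0, h]
    · rintro (rfl | rfl)
      · show |(-1:ℝ)| = 1; norm_num
      · show |(1:ℝ)| = 1; norm_num
  have hbd : S \ ri S = {p, q} := by rw [← he0, hsph, image_pair]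
  have hpq : p ≠ q := by
    intro h
    have h5 := e0.li vm hvmc
    have h6 := e0.li vp hvpc
    rw [← hp, h, hq, h6] at h5
    have := congrFun h5 0
    have h7 : (1:ℝ) = -1 := this
    norm_num at h7
  have hpS : p ∈ S := e0.mf hvmc
  have hqS : q ∈ S := e0.mf hvpc
  obtain ⟨l, hl⟩ := SeparatingDual.exists_ne_zero (R := ℝ) (sub_ne_zero.2 (Ne.symm hpq))
  let χ : E →ᵃ[ℝ] ℝ := ((2 / l (q - p)) • (l : E →ₗ[ℝ] ℝ)).toAffineMap +
    AffineMap.const ℝ E (-1 - 2 / l (q - p) * l p)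
  have hχ : ∀ z, χ z = 2 / l (q - p) * l z + (-1 - 2 / l (q - p) * l p) := fun z => rfl
  have hχl : ∀ s, χ (AffineMap.lineMap p q s) = 2 * s - 1 := by
    intro s
    rw [hχ, AffineMap.lineMap_apply, vsub_eq_sub, vadd_eq_add, map_add, map_smul, smul_eq_mul]
    field_simp
    ring
  let a : (Fin 1 → ℝ) →ᵃ[ℝ] ℝ := ((1/2 : ℝ) • (LinearMap.proj 0 : (Fin 1 → ℝ) →ₗ[ℝ] ℝ)).toAffineMap +
    AffineMap.const ℝ _ (1/2 : ℝ)
  have ha : ∀ t, a t = (1 + t 0) / 2 := fun t => by
    show (1/2 : ℝ) * t 0 + 1/2 = _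
    ring
  have hmem : ∀ t ∈ cube 1, a t ∈ Icc (0:ℝ) 1 := fun t ht => by
    have h5 := abs_le.1 (mem_cube1.1 ht)
    rw [ha]
    constructor <;> linarith
  have hseg := fun x (hx : x ∈ S) => seg_of_bd h2 hbd hx
  let e : PLEquiv (cube 1) S :=
    { f := fun t => AffineMap.lineMap p q (a t)
      g := fun z _ => χ z
      pf := plOn_affine ((AffineMap.lineMap p q : ℝ →ᵃ[ℝ] E).comp a) _
      pg := pl_pi fun _ => plOn_affine χ _
      mf := fun t ht => by
        have h5 := hmem t ht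
        exact h1.segment_subset hpS hqS (by
          rw [segment_eq_image_lineMap]; exact ⟨_, h5, rfl⟩)
      mg := fun z hz => by
        obtain ⟨s, hs, rfl⟩ := hseg z hz
        rw [mem_cube1]
        show |χ _| ≤ 1
        rw [hχl, abs_le]
        constructor <;> linarith [hs.1, hs.2]
      li := fun t _ => by
        funext i
        show χ (AffineMap.lineMap p q (a t)) = t i
        rw [hχl, ha, Subsingleton.elim i 0]
        ring
      ri := fun z hz => by
        obtain ⟨s, hs, rfl⟩ := hseg z hz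
        show AffineMap.lineMap p q (a fun _ => χ (AffineMap.lineMap p q s)) = _
        rw [ha, hχl]
        congr 1
        ring }
  have hef : ∀ t, e.f t = AffineMap.lineMap p q (a t) := fun t => rfl
  have heg : ∀ z, e.g z = fun _ => χ z := fun z => rfl
  refine ⟨e, χ, ?_, fun z _ => rfl, fun B => ?_⟩
  · rw [hsph, image_pair, hbd, hef, hef, ha, ha]
    have e1 : (1 + vm 0) / 2 = 0 := by show (1 + (-1:ℝ)) / 2 = 0; norm_num
    have e2 : (1 + vp 0) / 2 = 1 := by show (1 + (1:ℝ)) / 2 = 1; norm_num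
    rw [e1, e2, AffineMap.lineMap_apply_zero, AffineMap.lineMap_apply_one]
  · have hBl : ∀ s, B (AffineMap.lineMap p q s) = AffineMap.lineMap (B p) (B q) s := fun s =>
      (B : E →ᵃ[ℝ] E).apply_lineMap p q s
    obtain ⟨hB1, hB2⟩ := hB0 B
    set A := AAc 1 (B '' S) with hA
    have hA0 : 0 < A := AAc_pos _ _
    have k1 : dist (B q) (B p) ≤ A * 2 := by
      have h5 := glob (convex_closedBall (0 : Fin 1 → ℝ) 1) (F := fun t => B (e0.f t)) (A := A)
        (fun x hx => hB1 x hx) hvmc hvpc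
      rw [dist_fin1] at h5
      have h6 : |vp 0 - vm 0| = 2 := by show |(1:ℝ) - (-1)| = 2; norm_num
      rw [h6] at h5
      exact h5
    have k2 : 2 ≤ A * dist (B q) (B p) := by
      have h5 := glob (convex_Icc (0:ℝ) 1) (F := fun s : ℝ => e0.g (AffineMap.lineMap p q s))
        (A := A * dist (B q) (B p)) (fun s hs => by
          have hz : (AffineMap.lineMap p q s : E) ∈ S := h1.segment_subset hpS hqS (by
            rw [segment_eq_image_lineMap]; exact ⟨_, hs, rfl⟩)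
          have hT : Tendsto (fun s : ℝ => (AffineMap.lineMap p q s : E)) (𝓝[Icc 0 1] s)
              (𝓝[S] (AffineMap.lineMap p q s)) := by
            refine tendsto_nhdsWithin_iff.2 ⟨?_, ?_⟩
            · have : Continuous fun s : ℝ => (AffineMap.lineMap p q s : E) :=
                AffineMap.lineMap_continuous
              exact (this.tendsto s).mono_left nhdsWithin_le_nhds
            · filter_upwards [self_mem_nhdsWithin] with s' hs'
              exact h1.segment_subset hpS hqS (by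
                rw [segment_eq_image_lineMap]; exact ⟨_, hs', rfl⟩)
          filter_upwards [hT.eventually (hB2 _ hz)] with s' hs'
          refine hs'.trans (le_of_eq ?_)
          rw [hBl, hBl, dist_lineMap_lineMap, dist_comm (B p)]
          ring) (left_mem_Icc.2 zero_le_one) (right_mem_Icc.2 zero_le_one)
      rw [AffineMap.lineMap_apply_zero, AffineMap.lineMap_apply_one, hp, hq, e0.li vm hvmc,
        e0.li vp hvpc, dist_fin1] at h5
      have h6 : |vp 0 - vm 0| = 2 := by show |(1:ℝ) - (-1)| = 2; norm_num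
      have h7 : dist (1:ℝ) 0 = 1 := by simp
      rw [h6, h7, mul_one] at h5
      exact h5
    refine ⟨fun x _ => Eventually.of_forall fun y => ?_, fun z hz => ?_⟩
    · show dist (B (e.f y)) (B (e.f x)) ≤ A * dist y x
      rw [hef, hef, hBl, hBl, dist_lineMap_lineMap, ha, ha, Real.dist_eq, dist_fin1,
        dist_comm (B p)]
      have h5 : (1 + y 0) / 2 - (1 + x 0) / 2 = (y 0 - x 0) / 2 := by ring
      rw [h5, abs_div, abs_of_pos (by norm_num : (0:ℝ) < 2)]
      have h6 := mul_le_mul_of_nonneg_left k1 (abs_nonneg (y 0 - x 0))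
      linarith
    · filter_upwards [self_mem_nhdsWithin] with y hy
      obtain ⟨s, hs, rfl⟩ := hseg z hz
      obtain ⟨t, ht, rfl⟩ := hseg y hy
      show dist (e.g _) (e.g _) ≤ A * dist (B _) (B _)
      rw [dist_fin1, hBl, hBl, dist_lineMap_lineMap, Real.dist_eq, dist_comm (B p)]
      show |χ _ - χ _| ≤ _
      rw [hχl, hχl]
      have h5 : 2 * t - 1 - (2 * s - 1) = 2 * (t - s) := by ring
      rw [h5, abs_mul, abs_of_pos (by norm_num : (0:ℝ) < 2)]
      have h6 := mul_le_mul_of_nonneg_left k2 (abs_nonneg (t - s))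
      linarith

variable {Q : Type} [PartialOrder Q] {dim : Q → ℕ} {K : Q → Set E} {Ω : Set E}

/-- **199's `exists_e` with affine edges** -/
theorem exists_eA (X : Cplx Ω Q dim K) (hconv : ∀ τ, Convex ℝ (K τ)) (hcpt : ∀ τ, IsCompact (K τ))
    (hbd : ∀ τ, bdS K τ = K τ \ ri (K τ)) :
    ∃ (e : ∀ τ, 1 ≤ dim τ → PLEquiv (cube (dim τ)) (K τ)) (χ : Q → E →ᵃ[ℝ] ℝ),
      (∀ τ, ∀ hd : 1 ≤ dim τ, (e τ hd).f '' sph (dim τ) = bdS K τ) ∧
      (∀ τ, ∀ hd : 1 ≤ dim τ, ∀ B ∈ FrA E, ∀ v ∈ cube (dim τ),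
        MB id B (AAc (dim τ) (B '' K τ)) (e τ hd).f (cube (dim τ)) v) ∧
      (∀ τ, ∀ hd : 1 ≤ dim τ, ∀ B ∈ FrA E, ∀ z ∈ K τ,
        MB B id (AAc (dim τ) (B '' K τ)) (e τ hd).g (K τ) z) ∧
      ∀ τ, ∀ hd : 1 ≤ dim τ, dim τ = 1 → ∀ z ∈ K τ, (e τ hd).g z ⟨0, hd⟩ = χ τ z := by
  have key : ∀ τ, ∀ n, dim τ = n → ∃ (e : PLEquiv (cube n) (K τ)) (χ : E →ᵃ[ℝ] ℝ),
      e.f '' sph n = K τ \ ri (K τ) ∧
      (∀ B : E ≃ᵃ[ℝ] E, (∀ x ∈ cube n, MB (fun x => x) B (AAc n (B '' K τ)) e.f (cube n) x) ∧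
        ∀ z ∈ K τ, MB B (fun x => x) (AAc n (B '' K τ)) e.g (K τ) z) ∧
      ∀ hn : 1 ≤ n, n = 1 → ∀ z ∈ K τ, e.g z ⟨0, hn⟩ = χ z := by
    intro τ n hn
    have hb : IsBall n (K τ) (K τ \ ri (K τ)) := by
      rw [← hbd, ← hn]; exact X.isBall τ
    by_cases h1 : n = 1
    · subst h1
      obtain ⟨e, χ, h2, h3, h4⟩ := affine_edge (hconv τ) (hcpt τ) hb.nonempty hb
      exact ⟨e, χ, h2, h4, fun _ _ z hz => h3 z hz⟩
    · obtain ⟨e, h2, h3⟩ := AAc_spec (hconv τ) (hcpt τ) hb.nonempty hb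
      exact ⟨e, AffineMap.const ℝ E 0, h2, h3, fun _ h => absurd h h1⟩
  choose e χ h1 h2 h3 using fun τ => key τ (dim τ) rfl
  refine ⟨fun τ _ => e τ, χ, fun τ _ => by rw [hbd]; exact h1 τ, ?_, ?_, ?_⟩
  · rintro τ _ _ ⟨B, rfl⟩ v hv
    exact (h2 τ B).1 v hv
  · rintro τ _ _ ⟨B, rfl⟩ z hz
    exact (h2 τ B).2 z hz
  · intro τ hd hd1 z hz
    exact h3 τ hd hd1 z hz

end Crest.Agent.R096.Fk_522
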