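import Crest.Agent.R096.Fk16_522
import Crest.Agent.R096.Fk17_522

/-!
# R096 (row 96), P4-FACE, part 18: THE MESH WITH DESIGNATED 2-CELLS IN ALL AFFINE FRAMES, with 199's
numbers (helper522)
-/

set_option autoImplicit false
set_option linter.unusedSectionVars false

open Set Metric Filter Topology

namespace Crest.Agent.R096.Fk_522

open Crest.Agent.R096.Ce_537 Crest.Agent.R096.Bd_416 Crest.Agent.R096.Fsw_928
open Crest.Agent.R96.Nu1_199 Crest.Agent.R96.Nu2_199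
open Crest.Agent.R96.Nu3_199 Crest.Agent.R96.Nu5_199 Crest.Agent.R96.Nu6_199

open scoped Classical

section two

variable {Q : Type} [PartialOrder Q] {dim : Q → ℕ} {J Fam : Type}
variable {C : Cmb Q dim J Fam} {τ : Q}

/-- two ends -/
theorem SqC.card_two (S : SqC C τ) (x : C.I τ)
    (hends : ∃ a b, a ≠ b ∧ Arc_778.Blw C τ x = {a, b}) :
    ∑ s, (Finset.univ.filter fun y : C.I (S.es s) => C.up (S.lt s) y = x).card = 2 := by
  obtain ⟨a, b, hab, hB⟩ := hends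
  let F : Finset (Σ s, C.I (S.es s)) := Finset.univ.filter fun v => C.up (S.lt v.1) v.2 = x
  let Φ : (Σ s, C.I (S.es s)) → (Σ e, C.I e) := fun v => ⟨S.es v.1, v.2⟩
  have hΦ : Function.Injective Φ := by
    rintro ⟨s, y⟩ ⟨s', y'⟩ h
    have h1 : S.es s = S.es s' := congrArg Sigma.fst h
    have h2 := S.inj h1
    subst h2
    have h3 : y = y' := by
      have := (Sigma.mk.inj_iff.1 h).2
      exact eq_of_heq this
    rw [h3]
  have hF : F.image Φ = {a, b} := by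
    ext v
    have h1 : v ∈ ({a, b} : Finset (Σ e, C.I e)) ↔ v ∈ Arc_778.Blw C τ x := by
      rw [hB]; simp
    rw [h1, Finset.mem_image]
    constructor
    · rintro ⟨⟨s, y⟩, h, rfl⟩
      exact ⟨S.d1 s, S.lt s, (Finset.mem_filter.1 h).2⟩
    · rintro ⟨hd, h, hu⟩
      obtain ⟨e, y⟩ := v
      obtain ⟨s, hs⟩ := S.onto e h hd
      dsimp only at hs hu h
      subst hs
      exact ⟨⟨s, y⟩, Finset.mem_filter.2 ⟨Finset.mem_univ _, hu⟩, rfl⟩
  have hcard : F.card = 2 := by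
    rw [← Finset.card_image_of_injective F hΦ, hF, Finset.card_pair hab]
  rw [← hcard]
  show _ = (Finset.univ.filter fun v : Σ s, C.I (S.es s) => C.up (S.lt v.1) v.2 = x).card
  rw [Finset.card_filter, Fintype.sum_sigma]
  refine Finset.sum_congr rfl fun s _ => ?_
  rw [← Finset.card_filter]

/-- the weight of a side is at most twice the weight of the cell -/
theorem SqC.W_le (S : SqC C τ) {wt : J → ℝ} (hw : ∀ j, 0 < wt j)
    (hends : ∀ x : C.I τ, ∃ a b, a ≠ b ∧ Arc_778.Blw C τ x = {a, b}) (s : Fin 4) :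
    Wd C wt (S.es s) ≤ 2 * Wd C wt τ := by
  have h1 : Wd C wt (S.es s) = ∑ x : C.I τ, ∑ y : C.I (S.es s) with C.up (S.lt s) y = x,
      wt (C.col _ y) := by
    unfold Wd
    exact (Finset.sum_fiberwise Finset.univ (fun y : C.I (S.es s) => C.up (S.lt s) y)
      (fun y => wt (C.col _ y))).symm
  rw [h1]
  unfold Wd
  rw [Finset.mul_sum]
  refine Finset.sum_le_sum fun x _ => ?_
  have h2 : ∀ y ∈ Finset.univ.filter (fun y : C.I (S.es s) => C.up (S.lt s) y = x),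
      wt (C.col _ y) = wt (C.col τ x) := fun y hy => by
    rw [← C.col_up (S.lt s) y, (Finset.mem_filter.1 hy).2]
  rw [Finset.sum_congr rfl h2, Finset.sum_const, nsmul_eq_mul]
  refine mul_le_mul_of_nonneg_right ?_ (hw _).le
  have h3 := S.card_two x (hends x)
  have h4 : (Finset.univ.filter fun y : C.I (S.es s) => C.up (S.lt s) y = x).card ≤ 2 := by
    rw [← h3]
    exact Finset.single_le_sum
      (f := fun s => (Finset.univ.filter fun y : C.I (S.es s) => C.up (S.lt s) y = x).card)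
      (fun _ _ => Nat.zero_le _) (Finset.mem_univ s)
  exact_mod_cast h4

end two

section mesh

variable {E : Type*} [NormedAddCommGroup E] [NormedSpace ℝ E] [FiniteDimensional ℝ E]
variable {Q : Type} [PartialOrder Q] {dim : Q → ℕ} {J Fam : Type}
variable {C : Cmb Q dim J Fam} {K : Q → Set E} {Ω : Set E}
variable {R : Set Q} {K₀ ε δ : ℝ} {b : ℕ → ℝ} {wt : J → ℝ} {d : Q → ℝ}
variable {g0 : Gd E J} {P0 : ∀ q, C.I q → Set E} {c0 : ∀ q, C.I q → E → ℝ}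

/-- the loss of width on the edges -/
def lss (δ ε : ℝ) : ℝ := 1 - (1 - δ) * (1 - ε)

/-- **THE MESH WITH DESIGNATED NEARLY PURE 2-CELLS, ALL FRAMES AT ONCE** -/
theorem mesh_shapeF (X : Cplx Ω Q dim K) (hconv : ∀ τ, Convex ℝ (K τ))
    (hcpt : ∀ τ, IsCompact (K τ)) (hbd : ∀ τ, bdS K τ = K τ \ ri (K τ))
    (hw : ∀ j, 0 < wt j) (hb0 : ∀ n, 0 < b n) (hb2 : ∀ n, b n < 1/2) (hε0 : 0 < ε) (hε1 : ε < 1)
    (hδ0 : 0 ≤ δ) (hδ1 : δ < 1) (hK : 0 ≤ K₀) (hd : ∀ q, 0 < d q)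
    (hR : ∀ q ∈ R, ∀ p < q, p ∈ R) (H0 : Inv C K R g0 P0 c0)
    (hbase : ∀ q ∈ R, ∃ (A : E ≃ᵃ[ℝ] E) (L : ℝ), 0 ≤ L ∧ L * AAc (dim q) (A '' K q) ≤ K₀ ∧
      ∀ x, ∀ z ∈ K q, LB A (L * (Wd C wt q + d q) / wt (C.col q x)) (c0 q x) (K q) z)
    (e : ∀ τ, 1 ≤ dim τ → PLEquiv (cube (dim τ)) (K τ))
    (he : ∀ τ, ∀ hd : 1 ≤ dim τ, (e τ hd).f '' sph (dim τ) = bdS K τ)
    (hef : ∀ τ, ∀ hd : 1 ≤ dim τ, ∀ B ∈ FrA E, ∀ v ∈ cube (dim τ),
      MB id B (AAc (dim τ) (B '' K τ)) (e τ hd).f (cube (dim τ)) v)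
    (heg : ∀ τ, ∀ hd : 1 ≤ dim τ, ∀ B ∈ FrA E, ∀ z ∈ K τ,
      MB B id (AAc (dim τ) (B '' K τ)) (e τ hd).g (K τ) z)
    (χ : Q → E → ℝ) (hχ : ∀ τ, ∀ hd : 1 ≤ dim τ, dim τ = 1 → ∀ z ∈ K τ,
      (e τ hd).g z ⟨0, hd⟩ = χ τ z)
    (k : ∀ τ, C.I τ → ℕ) (hk : ∀ τ ∉ R, dim τ = 1 → Function.Injective (k τ))
    (ord : ∀ τ ∉ R, dim τ = 1 → ∀ x x', x ≠ x' → C.fam (C.col τ x) = C.fam (C.col τ x') →
      (k τ x' < k τ x → C.side τ x x' = 1) ∧ (k τ x < k τ x' → C.side τ x x' = 0))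
    -- the designated cells
    {N : Set Q} (des : ∀ τ ∈ N, Des C K χ τ)
    {P1 P2 : Par} {η Λ1 A0 : ℝ} (hdep : HasDep P1 P2 δ η) (hcr : Crude P1 P2 Λ1) (hΛ1' : 0 ≤ Λ1)
    (hA0 : 0 ≤ A0) (hK0 : Λ1 * 16 * A0 / (b 2 * ((1 - δ) * (1 - ε))) ≤ K₀)
    (hNR : ∀ τ (h : τ ∈ N), ∀ s, (des τ h).S.es s ∉ R)
    (hends : ∀ τ ∈ N, ∀ x : C.I τ, ∃ a b, a ≠ b ∧ Arc_778.Blw C τ x = {a, b})
    (hDP : ∀ τ (h : τ ∈ N), ∃ (T : Fin 2 → Finset J) (cc : Fin 2 → Fam) (σ a : Fin 2 → ℝ)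
      (m : ℝ), DP (des τ h).S wt T cc σ a m ∧ NumF (des τ h).S wt
        ((des τ h).nu fun q => 4 * (1 - δ) * (1 - ε) * uq C wt d q) a m δ η)
    (hfr : ∀ τ (h : τ ∈ N), ∃ B0 : E ≃ᵃ[ℝ] E, AAc 2 (B0 '' K τ) ≤ A0 ∧
      ∀ z ∈ K τ, MB B0 id 2 (des τ h).A.g (K τ) z)
    (hds : ∀ τ (h : τ ∈ N), ∀ s, d ((des τ h).S.es s) ≤ 2 * d τ)
    (n : ℕ) : ∃ g P c, Inv C K (R ∪ {q | dim q < n}) g P c ∧
      ∀ q ∈ R ∪ {q | dim q < n}, Trk C K R g0 P0 c0 b
        (SpecM C K wt δ (fun q => 4 * (1 - δ) * (1 - ε) * uq C wt d q) χ P1 P2 (b 2) η des k)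
        (fun _ => FrA E) wt (LamS X C K₀ (lss δ ε) b wt d) n q g (P q) (c q) := by
  have h1δ : 0 < 1 - δ := by linarith
  have h1ε : 0 < 1 - ε := by linarith
  have hpp : 0 < (1 - δ) * (1 - ε) := mul_pos h1δ h1ε
  have hε0' : 0 < lss δ ε := by
    unfold lss
    have : (1 - δ) * (1 - ε) ≤ 1 * (1 - ε) := mul_le_mul_of_nonneg_right (by linarith) h1ε.le
    linarith
  have hε1' : lss δ ε < 1 := by unfold lss; linarith
  have NN : ∀ B : E → E, Num C R wt K₀ 1 (lss δ ε) b (omB X C wt d B) d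
      (fun τ => AAc (dim τ) (B '' K τ)) (fun τ => AAc (dim τ) (B '' K τ)) :=
    fun B => num_omB X hw hb0 hb2 hε0' hε1' hK hd B
  have N0 := NN (fun x => x)
  refine mesh_face X hR H0 N0.b0 N0.b2 N0.w0 (fun _ => FrA E)
    (Λ := LamS X C K₀ (lss δ ε) b wt d) (fun n q B _ => (NN B).lam0 n q)
    (fun n q B _ => (NN B).lamS n q) (fun _ => Subset.rfl) ?_ hε0 hε1 hδ0 hδ1 χ N des
    (uq C wt d) (fun τ _ _ => N0.u0 τ) (fun τ _ _ => N0.uS τ)
    (fun τ B => AAc (dim τ) (B '' K τ)) (fun τ B => AAc (dim τ) (B '' K τ))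
    (fun τ _ _ B _ => ((NN B).f0 τ).le) e (fun τ _ _ hd => he τ hd)
    (fun τ _ _ hd B hB v hv => (hef τ hd B hB v (sph_subset_cube hv)).filter_mono
      (nhdsWithin_mono _ fun _ h => sph_subset_cube h))
    (fun τ _ _ hd B hB z hz => heg τ hd B hB z hz)
    (fun τ _ _ hd h1 z hz => hχ τ hd h1 z hz) k hk ord ?_
    (fun τ B => Bbq X R K₀ 1 (lss δ ε) b (omB X C wt d B) (fun τ => AAc (dim τ) (B '' K τ))
      (fun τ => AAc (dim τ) (B '' K τ)) τ) (fun τ _ _ h2 B _ => (NN B).Bb_le X τ h2)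
    (fun τ hτ _ h2 B _ => (NN B).lam2 X τ hτ h2) hdep hcr hΛ1' hNR hends hDP
    (fun τ B => 2 * (A0 * AAc 2 (B '' K τ))) ?_ ?_ n
  · -- the base
    rintro q hq _ ⟨B, rfl⟩ x z hz
    obtain ⟨A, L, hL, hLK, hA⟩ := hbase q hq
    have hb : IsBall (dim q) (K q) (K q \ ri (K q)) := by
      rw [← hbd]; exact X.isBall q
    have hwx := hw (C.col q x)
    have hW : 0 ≤ Wd C wt q + d q := by
      have h1 := Wd_nonneg (C := C) hw q
      have h2 := hd q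
      linarith
    have h1 := Crest.Agent.R96.Nu5_199.LB.frame (hconv q) (hcpt q) hb.nonempty hb A B hz (by positivity) (hA x z hz)
    refine h1.mono ?_
    rw [div_mul_eq_mul_div]
    refine div_le_div_of_nonneg_right ?_ hwx.le
    have h2 := omB_ge (C := C) X hw hd (B : E → E) q
    calc L * (Wd C wt q + d q) * (AAc (dim q) (A '' K q) * AAc (dim q) (B '' K q))
        = (L * AAc (dim q) (A '' K q)) * (AAc (dim q) (B '' K q) * (Wd C wt q + d q)) := by ring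
      _ ≤ K₀ * (AAc (dim q) (B '' K q) * (Wd C wt q + d q)) :=
          mul_le_mul_of_nonneg_right hLK (mul_nonneg (AAc_pos _ _).le hW)
      _ ≤ K₀ * omB X C wt d B q := mul_le_mul_of_nonneg_left h2 hK
  · -- the edges
    intro τ hτ h1 B _
    have h2 := (NN B).lam1 τ hτ h1
    refine le_trans (le_of_eq ?_) h2
    unfold lss
    congr 1
    ring
  · -- the charts of the designated cells
    rintro τ h _ ⟨B, rfl⟩ z hz
    obtain ⟨B0, h1, h2⟩ := hfr τ h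
    have hdim := (des τ h).d2
    have hb : IsBall 2 (K τ) (K τ \ ri (K τ)) := by
      rw [← hbd, ← hdim]; exact X.isBall τ
    filter_upwards [h2 z hz, MB_frame (hconv τ) (hcpt τ) hb.nonempty hb B0 B hz] with y hy hy'
    have h3 := AAc_pos (E := E) 2 (B '' K τ)
    have h4 : AAc 2 (B0 '' K τ) * AAc 2 (B '' K τ) * dist (B y) (B z) ≤
        A0 * AAc 2 (B '' K τ) * dist (B y) (B z) := by gcongr
    calc dist (id ((des τ h).A.g y)) (id ((des τ h).A.g z)) ≤ 2 * dist (B0 y) (B0 z) := hy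
      _ ≤ 2 * (A0 * AAc 2 (B '' K τ) * dist (B y) (B z)) := by linarith
      _ = _ := by ring
  · -- the numbers of the designated cells
    rintro τ h _ ⟨B, rfl⟩
    have hdim := (des τ h).d2
    set G := des τ h with hG
    set wd : Q → ℝ := fun q => 4 * (1 - δ) * (1 - ε) * uq C wt d q with hwd
    have hW0 : 0 < Wd C wt τ + d τ := N0.W0 τ
    have hν : ∀ s, (1 - δ) * (1 - ε) / (Wd C wt τ + d τ) ≤ G.nu wd s := fun s => by
      show _ ≤ 4 * (1 - δ) * (1 - ε) * uq C wt d (G.S.es s)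
      have h1 := G.S.W_le hw (hends τ h) s
      have h2 := hds τ h s
      have h3 := N0.W0 (G.S.es s)
      unfold uq
      rw [mul_one_div, div_le_div_iff₀ hW0 (by positivity)]
      have h4 : Wd C wt (G.S.es s) + d (G.S.es s) ≤ 2 * (Wd C wt τ + d τ) := by linarith
      have h5 := mul_le_mul_of_nonneg_left h4 hpp.le
      linarith
    have hα : (1 - δ) * (1 - ε) / (Wd C wt τ + d τ) ≤ αX (G.nu wd) := by
      unfold αX αA αB
      exact le_min (le_min (hν 2) (hν 3)) (le_min (hν 0) (hν 1))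
    have hα0 : 0 < αX (G.nu wd) := lt_of_lt_of_le (div_pos hpp hW0) hα
    have hinv : 16 / αX (G.nu wd) ≤ 16 * ((Wd C wt τ + d τ) / ((1 - δ) * (1 - ε))) := by
      rw [div_le_iff₀ hα0]
      rw [div_le_iff₀ hW0] at hα
      have : 16 * ((Wd C wt τ + d τ) / ((1 - δ) * (1 - ε))) * αX (G.nu wd) =
          16 * ((αX (G.nu wd) * (Wd C wt τ + d τ)) / ((1 - δ) * (1 - ε))) := by ring
      rw [this]
      have h6 : 1 ≤ αX (G.nu wd) * (Wd C wt τ + d τ) / ((1 - δ) * (1 - ε)) := by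
        rw [le_div_iff₀ hpp]; linarith
      linarith
    have hb := hb0 2
    have hAc := AAc_pos (E := E) 2 (B '' K τ)
    have hom := omB_ge (C := C) X hw hd (B : E → E) τ
    rw [hdim] at hom ⊢
    show _ ≤ Kn K₀ 1 (lss δ ε) b (2 + 1) * omB X C wt d B τ
    have hKn : K₀ ≤ Kn K₀ 1 (lss δ ε) b (2 + 1) := by
      have hstep : ∀ m, Kn K₀ 1 (lss δ ε) b m ≤ Kn K₀ 1 (lss δ ε) b (m + 1) := fun m => by
        rw [Kn_succ]
        refine le_max_of_le_left ?_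
        rw [le_div_iff₀ (by have := hb0 m; linarith)]
        have h7 := Kn_nonneg (A := 1) (ε := lss δ ε) hK hb0 m
        have h8 := hb2 m
        nlinarith
      exact ((hstep 0).trans (hstep 1)).trans (hstep 2)
    have hWp : 0 ≤ AAc 2 (B '' K τ) * (Wd C wt τ + d τ) := mul_nonneg hAc.le hW0.le
    calc Λ1 * (16 / αX (G.nu wd)) / (2 * b 2) * (2 * (A0 * AAc 2 (B '' K τ)))
        = (Λ1 * A0 * AAc 2 (B '' K τ) / b 2) * (16 / αX (G.nu wd)) := by
          field_simp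
      _ ≤ (Λ1 * A0 * AAc 2 (B '' K τ) / b 2) *
          (16 * ((Wd C wt τ + d τ) / ((1 - δ) * (1 - ε)))) :=
          mul_le_mul_of_nonneg_left hinv (by positivity)
      _ = (Λ1 * 16 * A0 / (b 2 * ((1 - δ) * (1 - ε)))) *
          (AAc 2 (B '' K τ) * (Wd C wt τ + d τ)) := by
          field_simp
      _ ≤ K₀ * (AAc 2 (B '' K τ) * (Wd C wt τ + d τ)) := mul_le_mul_of_nonneg_right hK0 hWp
      _ ≤ Kn K₀ 1 (lss δ ε) b (2 + 1) * (AAc 2 (B '' K τ) * (Wd C wt τ + d τ)) :=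
          mul_le_mul_of_nonneg_right hKn hWp
      _ ≤ _ := mul_le_mul_of_nonneg_left hom (hK.trans hKn)

end mesh

end Crest.Agent.R096.Fk_522
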