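import Crest.Agent.R096.Fsw28_928
import Crest.Agent.R096.Fk12_522

/-!
# R096 (row 96), FACE-SWEEP, part 29: 477's `FaceIn` gives 522's discrete purity `DP` (helper928)
-/

set_option autoImplicit false
set_option linter.unusedSectionVars false

open Set Metric Filter Topology MeasureTheory
open scoped ENNReal

namespace Crest.Agent.R096.Fsw_928

open Crest.Agent.R096.Ce_537 Crest.Agent.R096.Bd_416 Crest.Agent.R096.Fk_522
open Crest.Agent.R096.SkN1_477 Crest.Agent.R096.Mg_441 Crest.Agent.R096.On_441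
open Crest.Agent.R096.SkC1_961 (E3 FoamD)

open scoped Classical

/-! ### pieces of an edge -/

section edge

variable {Q : Type} [PartialOrder Q] {dim : Q → ℕ} {J Fam : Type}
variable {E : Type*} [NormedAddCommGroup E] [NormedSpace ℝ E]
variable {C : Cmb Q dim J Fam} {K : Q → Set E} {D : Set Q} {g : Gd E J}
  {P : ∀ q, C.I q → Set E} {c : ∀ q, C.I q → E → ℝ}

/-- the level functions in a vertex -/
lemma G_vert (H : Bd_416.Inv C K D g P c) {v : Q} (hv : v ∈ D) (hd : dim v = 0) {z : E}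
    (hz : z ∈ K v) (j : J) : g.G j z = 1/2 - sg (C.Lab j v) / 2 := by
  have := C.vert v hd
  rw [H.PF v hv j z hz, Finset.prod_of_isEmpty, mul_one]

/-- the band function of a piece of an edge vanishes somewhere -/
lemma exists_zero (H : Bd_416.Inv C K D g P c) {q : Q} (hq : q ∈ D) (hd : dim q = 1)
    (hc : IsPreconnected (K q)) {v v' : Q} (h : v < q) (h' : v' < q) (hdv : dim v = 0)
    (hdv' : dim v' = 0) (hne : v ≠ v') (ho : C.o q = v ∨ C.o q = v') {z z' : E} (hz : z ∈ K v)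
    (hz' : z' ∈ K v') (hzq : z ∈ K q) (hzq' : z' ∈ K q) (y : C.I q) : ∃ x ∈ K q, c q y x = 0 := by
  have key : ∀ {v v' : Q} (h : v < q) (h' : v' < q), dim v = 0 → dim v' = 0 → v ≠ v' →
      C.o q = v → ∀ {z z' : E}, z ∈ K v → z' ∈ K v' → z ∈ K q → z' ∈ K q →
      ∃ x ∈ K q, c q y x = 0 := by
    intro v v' h h' hdv hdv' hne ho z z' hz hz' hzq hzq'
    have s0 : C.s h y = 0 := by
      subst ho
      exact C.s_o q hd.ge y
    have s1 : C.s h' y = 1 := C.s_edge h' hd (by rw [ho]; exact hne.symm) y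
    have e0 := H.r2 h hq y z hz
    have e1 := H.r2 h' hq y z' hz'
    have i0 := C.vert v hdv
    have i1 := C.vert v' hdv'
    rw [Finset.prod_of_isEmpty, mul_one, s0, sg_zero] at e0
    rw [Finset.prod_of_isEmpty, mul_one, s1, sg_one] at e1
    have h0 : (0:ℝ) ∈ Icc (c q y z) (c q y z') := ⟨by linarith, by linarith⟩
    exact hc.intermediate_value hzq hzq' (H.pc q hq y).1 h0
  rcases ho with ho | ho
  · exact key h h' hdv hdv' hne ho hz hz' hzq hzq'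
  · exact key h' h hdv' hdv hne.symm ho hz' hz hzq' hzq

/-- half integers -/
lemma merge_half (H : Bd_416.Inv C K D g P c) (hfin : ∀ a, {j | C.fam j = a}.Finite) {q : Q}
    (hq : q ∈ D) {y : C.I q} {z : E} (hz : z ∈ K q) (h0 : c q y z = 0) :
    ∃ n : ℕ, (merge hfin g).G (C.fam (C.col q y)) z = n + 1/2 := by
  have hzP : z ∈ P q y := H.cn q hq y z hz (by rw [h0]; norm_num)
  rw [merge_G, ← Finset.add_sum_erase _ _ ((mem_sh hfin).2 rfl : C.col q y ∈ sh hfin _)]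
  have e1 : g.G (C.col q y) z = 1/2 := by
    rw [H.PF q hq _ z hz, prod_split y (fun x => -2 * c q x z), h0]
    ring
  have e2 : ∀ j ∈ (sh hfin (C.fam (C.col q y))).erase (C.col q y), g.G j z = 0 ∨ g.G j z = 1 := by
    intro j hj
    obtain ⟨hj1, hj2⟩ := Finset.mem_erase.1 hj
    rw [mem_sh] at hj2
    have h3 : ∀ x ∈ Finset.univ.filter (fun x : C.I q => C.col q x = j), -2 * c q x z
        = sg (C.side q y x) := by
      intro x hx
      have hx' := (Finset.mem_filter.1 hx).2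
      have hne : y ≠ x := by rintro rfl; exact hj1 hx'.symm
      exact H.sd q hq y x hne (by rw [hx', hj2]) z hzP
    rw [H.PF q hq _ z hz, Finset.prod_congr rfl h3, ← sg_sum]
    rcases sg_or (C.Lab j q) with h4 | h4 <;>
      rcases sg_or (∑ x : C.I q with C.col q x = j, C.side q y x) with h5 | h5 <;>
      rw [h4, h5] <;> norm_num
  obtain ⟨n, hn, -⟩ := sum01 _ _ e2
  exact ⟨n, by rw [e1, hn]; ring⟩

/-- integers -/
lemma merge_int (H : Bd_416.Inv C K D g P c) (hfin : ∀ a, {j | C.fam j = a}.Finite) {v : Q}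
    (hv : v ∈ D) (hd : dim v = 0) {z : E} (hz : z ∈ K v) (a : Fam) :
    ∃ n : ℕ, (merge hfin g).G a z = n := by
  rw [merge_G]
  obtain ⟨n, hn, -⟩ := sum01 (sh hfin a) (fun j => g.G j z) (fun j _ => by
    rw [G_vert H hv hd hz j]
    rcases sg_or (C.Lab j v) with h4 | h4 <;> rw [h4] <;> norm_num)
  exact ⟨n, hn⟩

/-- **a family with a piece in the edge has not a constant label on the edge** -/
theorem uu_ne (H : Bd_416.Inv C K D g P c) (hfin : ∀ a, {j | C.fam j = a}.Finite) {q : Q}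
    (hq : q ∈ D) (hd : dim q = 1)
    (hc : IsPreconnected (K q)) {v v' : Q} (h : v < q) (h' : v' < q) (hdv : dim v = 0)
    (hdv' : dim v' = 0) (hne : v ≠ v') (ho : C.o q = v ∨ C.o q = v') (hv : v ∈ D) {z z' : E}
    (hz : z ∈ K v)
    (hz' : z' ∈ K v') (hzq : z ∈ K q) (hzq' : z' ∈ K q) (y : C.I q) :
    ∃ x ∈ K q, uu hfin g x (C.fam (C.col q y)) ≠ uu hfin g z (C.fam (C.col q y)) := by
  obtain ⟨x, hx, h0⟩ := exists_zero H hq hd hc h h' hdv hdv' hne ho hz hz' hzq hzq' y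
  refine ⟨x, hx, fun he => ?_⟩
  obtain ⟨n, hn⟩ := merge_half H hfin hq hx h0
  obtain ⟨n', hn'⟩ := merge_int H hfin hv hdv hz (C.fam (C.col q y))
  have hm : (0:ℝ) < mm hfin (C.fam (C.col q y)) := by
    have : 0 < (sh hfin (C.fam (C.col q y))).card :=
      Finset.card_pos.2 ⟨_, (mem_sh hfin).2 rfl⟩
    exact_mod_cast this
  unfold uu at he
  rw [div_left_inj' hm.ne', hn, hn'] at he
  have h2 : (2 * n + 1 : ℝ) = 2 * n' := by linarith
  have h3 : 2 * n + 1 = 2 * n' := by exact_mod_cast h2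
  omega

end edge

/-! ### the cells of a designated face -/

/-- the height of the side `s` -/
noncomputable def hgt (ε : Fin 2 → ℝ) : Fin 4 → ℝ :=
  ![(1 - ε 1) / 2, (1 + ε 1) / 2, (1 - ε 0) / 2, (1 + ε 0) / 2]

/-- the corners of the model square -/
def cx : Fin 4 → ℝ := ![-1, 1, -1, 1]
/-- the corners of the model square -/
def cy : Fin 4 → ℝ := ![-1, -1, 1, 1]

/-- the corner `k` of the face -/
noncomputable def cor (B : E3 ≃ᵃ[ℝ] E3) (ε : Fin 2 → ℝ) (k : Fin 4) : E3 :=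
  corner B ((1 + ε 0 * cx k) / 2) ((1 + ε 1 * cy k) / 2)

/-- **the cells of a designated face** -/
structure FG {Q : Type} [PartialOrder Q] {dim : Q → ℕ} {J Fam : Type} {C : Cmb Q dim J Fam}
    {τ : Q} (S : SqC C τ) (K : Q → Set E3) (B : E3 ≃ᵃ[ℝ] E3) (ε : Fin 2 → ℝ) : Prop where
  e1 : ∀ i, ε i = 1 ∨ ε i = -1
  face : K τ = usq B
  side : ∀ s, K (S.es s) = SkN1_477.side B (dr s) (hgt ε s)
  d0 : ∀ k, dim (S.v k) = 0
  vtx : ∀ k, cor B ε k ∈ K (S.v k)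

lemma hgt01 {ε : Fin 2 → ℝ} (hε : ∀ i, ε i = 1 ∨ ε i = -1) (s : Fin 4) :
    hgt ε s = 0 ∨ hgt ε s = 1 := by
  fin_cases s
  · show (1 - ε 1) / 2 = 0 ∨ (1 - ε 1) / 2 = 1
    rcases hε 1 with h | h <;> rw [h] <;> norm_num
  · show (1 + ε 1) / 2 = 0 ∨ (1 + ε 1) / 2 = 1
    rcases hε 1 with h | h <;> rw [h] <;> norm_num
  · show (1 - ε 0) / 2 = 0 ∨ (1 - ε 0) / 2 = 1
    rcases hε 0 with h | h <;> rw [h] <;> norm_num
  · show (1 + ε 0) / 2 = 0 ∨ (1 + ε 0) / 2 = 1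
    rcases hε 0 with h | h <;> rw [h] <;> norm_num

lemma side_sub (B : E3 ≃ᵃ[ℝ] E3) (j : Fin 2) {b : ℝ} (hb : b = 0 ∨ b = 1) :
    SkN1_477.side B j b ⊆ usq B := by
  rintro x ⟨y, ⟨h1, h2, h3⟩, hy⟩
  refine ⟨y, fun i => ?_, hy⟩
  by_cases hij : i = j
  · rw [hij]; exact ⟨h1, h2⟩
  · have h4 : ∀ i j : Fin 2, i ≠ j → i = 1 - j := by decide
    rw [h4 i j hij, h3]
    rcases hb with rfl | rfl <;> norm_num


lemma cor_w0 (B : E3 ≃ᵃ[ℝ] E3) {ε : Fin 2 → ℝ} (hε : ∀ i, ε i = 1 ∨ ε i = -1) (s : Fin 4) :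
    cor B ε (w0 s) ∈ SkN1_477.side B (dr s) (hgt ε s) := by
  have h01 : ∀ (i : Fin 2) (t : ℝ), (t = 1 ∨ t = -1) → 0 ≤ (1 + ε i * t) / 2 ∧ (1 + ε i * t) / 2 ≤ 1 := by
    intro i t ht
    rcases ht with rfl | rfl <;> rcases hε i with h | h <;> rw [h] <;> norm_num
  refine mem_preimage.2 ?_
  unfold cor corner
  rw [B.apply_symm_apply]
  refine ⟨_, ?_, rfl⟩
  fin_cases s
  · refine ⟨(h01 0 (-1) (Or.inr rfl)).1, (h01 0 (-1) (Or.inr rfl)).2, ?_⟩
    show (1 + ε 1 * (-1)) / 2 = (1 - ε 1) / 2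
    ring
  · refine ⟨(h01 0 (-1) (Or.inr rfl)).1, (h01 0 (-1) (Or.inr rfl)).2, ?_⟩
    show (1 + ε 1 * 1) / 2 = (1 + ε 1) / 2
    ring
  · refine ⟨(h01 1 (-1) (Or.inr rfl)).1, (h01 1 (-1) (Or.inr rfl)).2, ?_⟩
    show (1 + ε 0 * (-1)) / 2 = (1 - ε 0) / 2
    ring
  · refine ⟨(h01 1 (-1) (Or.inr rfl)).1, (h01 1 (-1) (Or.inr rfl)).2, ?_⟩
    show (1 + ε 0 * 1) / 2 = (1 + ε 0) / 2
    ring

lemma cor_w1 (B : E3 ≃ᵃ[ℝ] E3) {ε : Fin 2 → ℝ} (hε : ∀ i, ε i = 1 ∨ ε i = -1) (s : Fin 4) :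
    cor B ε (w1 s) ∈ SkN1_477.side B (dr s) (hgt ε s) := by
  have h01 : ∀ (i : Fin 2) (t : ℝ), (t = 1 ∨ t = -1) → 0 ≤ (1 + ε i * t) / 2 ∧ (1 + ε i * t) / 2 ≤ 1 := by
    intro i t ht
    rcases ht with rfl | rfl <;> rcases hε i with h | h <;> rw [h] <;> norm_num
  refine mem_preimage.2 ?_
  unfold cor corner
  rw [B.apply_symm_apply]
  refine ⟨_, ?_, rfl⟩
  fin_cases s
  · refine ⟨(h01 0 1 (Or.inl rfl)).1, (h01 0 1 (Or.inl rfl)).2, ?_⟩
    show (1 + ε 1 * (-1)) / 2 = (1 - ε 1) / 2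
    ring
  · refine ⟨(h01 0 1 (Or.inl rfl)).1, (h01 0 1 (Or.inl rfl)).2, ?_⟩
    show (1 + ε 1 * 1) / 2 = (1 + ε 1) / 2
    ring
  · refine ⟨(h01 1 1 (Or.inl rfl)).1, (h01 1 1 (Or.inl rfl)).2, ?_⟩
    show (1 + ε 0 * (-1)) / 2 = (1 - ε 0) / 2
    ring
  · refine ⟨(h01 1 1 (Or.inl rfl)).1, (h01 1 1 (Or.inl rfl)).2, ?_⟩
    show (1 + ε 0 * 1) / 2 = (1 + ε 0) / 2
    ring

lemma side_preconn (B : E3 ≃ᵃ[ℝ] E3) (j : Fin 2) (b : ℝ) :
    IsPreconnected (SkN1_477.side B j b) := by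
  have h1 : Convex ℝ {y : E2 | 0 ≤ y j ∧ y j ≤ 1 ∧ y (1 - j) = b} := by
    intro y hy z hz s t hs ht hst
    refine ⟨?_, ?_, ?_⟩
    · show 0 ≤ s * y j + t * z j
      have := mul_nonneg hs hy.1
      have := mul_nonneg ht hz.1
      linarith
    · show s * y j + t * z j ≤ 1
      have := mul_le_mul_of_nonneg_left hy.2.1 hs
      have := mul_le_mul_of_nonneg_left hz.2.1 ht
      linarith
    · show s * y (1 - j) + t * z (1 - j) = b
      rw [hy.2.2, hz.2.2, ← add_mul, hst, one_mul]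
  have h2 : SkN1_477.side B j b = (fun y : E2 => B.symm (emb y)) ''
      {y : E2 | 0 ≤ y j ∧ y j ≤ 1 ∧ y (1 - j) = b} := by
    ext x
    constructor
    · rintro ⟨y, hy, hyx⟩
      exact ⟨y, hy, by show B.symm (emb y) = x; rw [hyx, B.symm_apply_apply]⟩
    · rintro ⟨y, hy, rfl⟩
      refine mem_preimage.2 ?_
      show B (B.symm (emb y)) ∈ _
      rw [B.apply_symm_apply]
      exact ⟨y, hy, rfl⟩
  rw [h2]
  refine h1.isPreconnected.image _ ?_
  have : (fun y : E2 => B.symm (emb y)) = fun y => ((B.symm : E3 →ᵃ[ℝ] E3).comp embA) y := by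
    funext y
    show _ = B.symm (embA y)
    rw [embA_apply]
  rw [this]
  exact (AffineMap.continuous_of_finiteDimensional _).continuousOn

/-! ### the purity -/

section dp

variable {δ' κ0 R c0 : ℝ} {La : Set E3} {Φ : FoamD δ' κ0 R c0 La} {κ : Φ.F → ℕ}
  {L : Φ.F → Finset ℝ} {Q : Type} [PartialOrder Q] {dim : Q → ℕ} {J : Type}
  {C : Cmb Q dim J Φ.F} {K : Q → Set E3} {D : Set Q} {g : Gd E3 J}
  {Pc : ∀ q, C.I q → Set E3} {c : ∀ q, C.I q → E3 → ℝ}

/-- the sum of the jumps of the labels along a side -/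
lemma sum_dsp (H : Bd_416.Inv C K D g Pc c) {τ : Q} {S : SqC C τ} {B : E3 ≃ᵃ[ℝ] E3}
    {ε : Fin 2 → ℝ} (G : FG S K B ε) (hvD : ∀ k, S.v k ∈ D)
    (hfin : ∀ a, {j | C.fam j = a}.Finite) {wt : J → ℝ} {rr : Φ.F → ℝ} {c' : Φ.F}
    (hm : (mm hfin c' : ℝ) = rr c' * (L c').card)
    (hw : ∀ j, C.fam j = c' → rr c' * wt j = (2:ℝ)⁻¹ ^ κ c') (s : Fin 4) :
    ∑ j ∈ sh hfin c', wt j * S.dsp s j =
      (uu hfin g (cor B ε (w1 s)) c' - uu hfin g (cor B ε (w0 s)) c') *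
        ((L c').card * (2:ℝ)⁻¹ ^ κ c') := by
  have e1 : ∀ y : E2, uu hfin g (B.symm (emb y)) c' * ((L c').card * (2:ℝ)⁻¹ ^ κ c')
      = ∑ j ∈ sh hfin c', wt j * g.G j (B.symm (emb y)) := fun y =>
    wlab_uu (Φ := Φ) hfin g hm hw B y
  have e2 : ∀ k, uu hfin g (cor B ε k) c' * ((L c').card * (2:ℝ)⁻¹ ^ κ c')
      = ∑ j ∈ sh hfin c', wt j * (1/2 - sg (C.Lab j (S.v k)) / 2) := by
    intro k
    refine (e1 _).trans (Finset.sum_congr rfl fun j _ => ?_)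
    rw [← G_vert H (hvD k) (G.d0 k) (G.vtx k) j]
    rfl
  rw [sub_mul, e2, e2, ← Finset.sum_sub_distrib]
  refine Finset.sum_congr rfl fun j _ => ?_
  unfold SqC.dsp
  ring

/-- **`FaceIn` gives `DP`** -/
theorem dp_of_faceIn (H : Bd_416.Inv C K D g Pc c) {τ : Q} {S : SqC C τ} {B : E3 ≃ᵃ[ℝ] E3}
    {ε : Fin 2 → ℝ} (G : FG S K B ε) (hvD : ∀ k, S.v k ∈ D) (heD : ∀ s, S.es s ∈ D)
    (hfin : ∀ a, {j | C.fam j = a}.Finite) {wt : J → ℝ} (hw0 : ∀ j, 0 < wt j) {rr : Φ.F → ℝ}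
    (hr : ∀ a, 1 ≤ rr a) (hm : ∀ a, (mm hfin a : ℝ) = rr a * (L a).card)
    (hw : ∀ j, rr (C.fam j) * wt j = (2:ℝ)⁻¹ ^ κ (C.fam j))
    {n : Set E3 → Φ.F → ℝ}
    (hn : ∀ s a, n (SkN1_477.side B (dr s) (hgt ε s)) a = nP C (S.es s) a / rr a)
    {η μ : ℝ} {a : Fin 2 → ℝ} {c1 c2 : Φ.F} {σ1 σ2 : ℝ}
    (F : FaceIn Φ κ L (fun x => uu hfin g x) n η μ a B c1 c2 σ1 σ2) :
    DP S wt (fun i => sh hfin (![c1, c2] i)) ![c1, c2] (fun i => ε i * ![σ1, σ2] i) a
      (η * μ) := by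
  have hε := G.e1
  have hwle : ∀ j, wt j ≤ (2:ℝ)⁻¹ ^ κ (C.fam j) := fun j => by
    rw [← hw j]
    have := hr (C.fam j)
    nlinarith [hw0 j]
  -- the sum over a family
  have hsum : ∀ s (c' : Φ.F) (inst : DecidablePred fun y : C.I (S.es s) =>
      C.fam (C.col _ y) = c'), ∑ y ∈ @Finset.filter _ _ inst Finset.univ, wt (C.col _ y)
      = n (SkN1_477.side B (dr s) (hgt ε s)) c' * (2:ℝ)⁻¹ ^ κ c' := by
    intro s c' inst
    have hr0 : rr c' ≠ 0 := by have := hr c'; linarith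
    have e1 : ∀ y ∈ @Finset.filter _ (fun y : C.I (S.es s) => C.fam (C.col _ y) = c') inst
        Finset.univ, wt (C.col _ y) = (2:ℝ)⁻¹ ^ κ c' / rr c' := by
      intro y hy
      have h1 := (Finset.mem_filter.1 hy).2
      have h2 := hw (C.col _ y)
      rw [h1] at h2
      rw [eq_div_iff hr0, mul_comm]
      exact h2
    rw [Finset.sum_congr rfl e1, Finset.sum_const, nsmul_eq_mul, hn]
    have e2 : ((@Finset.filter _ (fun y : C.I (S.es s) => C.fam (C.col _ y) = c') inst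
        Finset.univ).card : ℝ) = (nP C (S.es s) c' : ℝ) := by
      unfold nP
      congr 3
    rw [e2]
    ring
  -- two families
  have htwo : ∀ s (y : C.I (S.es s)), C.fam (C.col _ y) = c1 ∨ C.fam (C.col _ y) = c2 := by
    intro s y
    by_contra hcon
    push Not at hcon
    have hsub : K (S.es s) ⊆ usq B := by
      rw [G.side s]; exact side_sub B _ (hgt01 hε s)
    have hz0 : cor B ε (w0 s) ∈ K (S.es s) := by rw [G.side s]; exact cor_w0 B hε s
    have hz1 : cor B ε (w1 s) ∈ K (S.es s) := by rw [G.side s]; exact cor_w1 B hε s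
    obtain ⟨x, hx, hxne⟩ := uu_ne H hfin (heD s) (S.d1 s)
      (by rw [G.side s]; exact side_preconn B _ _) (S.l0 s) (S.l1 s) (G.d0 _) (G.d0 _) (S.ne s)
      (S.ob s) (hvD _) (G.vtx _) (G.vtx _) hz0 hz1 y
    exact hxne (F.two _ hcon.1 hcon.2 x (hsub hx) _ (hsub hz0))
  have hval : ∀ i : Fin 2, ![c1, c2] i = c1 ∨ ![c1, c2] i = c2 := by
    intro i; fin_cases i
    · exact Or.inl rfl
    · exact Or.inr rfl
  refine ⟨F.ne, fun s y => ?_, fun i j hj => (mem_sh hfin).1 hj, fun i s y hy => ?_,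
    fun i => ?_, fun s y => ?_, fun i s hs => ?_, fun i s hs => ?_, fun i s hs => ?_⟩
  · rcases htwo s y with h | h
    · exact ⟨0, h⟩
    · exact ⟨1, h⟩
  · exact (mem_sh hfin).2 hy
  · fin_cases i
    · show ε 0 * σ1 = 1 ∨ ε 0 * σ1 = -1
      rcases hε 0 with h | h <;> rcases F.sg1 with h' | h' <;> rw [h, h'] <;> norm_num
    · show ε 1 * σ2 = 1 ∨ ε 1 * σ2 = -1
      rcases hε 1 with h | h <;> rcases F.sg2 with h' | h' <;> rw [h, h'] <;> norm_num
  · refine (hwle _).trans ?_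
    rcases htwo s y with h | h
    · rw [h]; exact F.small1
    · rw [h]; exact F.small2
  · rw [hsum s _ _]
    subst hs
    have hb := hgt01 hε s
    have hd : dr s = 0 ∨ dr s = 1 := by omega
    rcases hd with h | h <;> rw [h]
    · exact (F.main1 _ hb).1
    · exact (F.main2 _ hb).1
  · show a i - η * μ ≤ ε i * ![σ1, σ2] i * ∑ j ∈ sh hfin (![c1, c2] i), wt j * S.dsp s j
    subst hs
    have hb := hgt01 hε s
    rw [sum_dsp (Φ := Φ) (κ := κ) (L := L) H G hvD hfin (hm _) (fun j hj => by rw [← hj]; exact hw j) s]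
    fin_cases s
    · show a 0 - η * μ ≤ ε 0 * σ1 * ((uu hfin g (cor B ε 1) c1 - uu hfin g (cor B ε 0) c1) *
        ((L c1).card * (2:ℝ)⁻¹ ^ κ c1))
      have h1 := (F.main1 _ hb).2
      have e1 : cor B ε 1 = corner B ((1 + ε 0) / 2) ((1 - ε 1) / 2) := by
        show corner B ((1 + ε 0 * 1) / 2) ((1 + ε 1 * (-1)) / 2) = _
        congr 1 <;> ring
      have e0 : cor B ε 0 = corner B ((1 - ε 0) / 2) ((1 - ε 1) / 2) := by
        show corner B ((1 + ε 0 * (-1)) / 2) ((1 + ε 1 * (-1)) / 2) = _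
        congr 1 <;> ring
      have h1' : a 0 - η * μ ≤ σ1 * (uu hfin g (corner B 1 ((1 - ε 1) / 2)) c1 -
        uu hfin g (corner B 0 ((1 - ε 1) / 2)) c1) * ((L c1).card * (2 : ℝ)⁻¹ ^ κ c1) := h1
      rw [e1, e0]
      rcases hε 0 with h | h
      · have t1 : (1 + ε 0) / 2 = 1 := by rw [h]; norm_num
        have t0 : (1 - ε 0) / 2 = 0 := by rw [h]; norm_num
        rw [t1, t0, h]; linarith
      · have t1 : (1 + ε 0) / 2 = 0 := by rw [h]; norm_num
        have t0 : (1 - ε 0) / 2 = 1 := by rw [h]; norm_num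
        rw [t1, t0, h]; linarith
    · show a 0 - η * μ ≤ ε 0 * σ1 * ((uu hfin g (cor B ε 3) c1 - uu hfin g (cor B ε 2) c1) *
        ((L c1).card * (2:ℝ)⁻¹ ^ κ c1))
      have h1 := (F.main1 _ hb).2
      have e1 : cor B ε 3 = corner B ((1 + ε 0) / 2) ((1 + ε 1) / 2) := by
        show corner B ((1 + ε 0 * 1) / 2) ((1 + ε 1 * 1) / 2) = _
        congr 1 <;> ring
      have e0 : cor B ε 2 = corner B ((1 - ε 0) / 2) ((1 + ε 1) / 2) := by
        show corner B ((1 + ε 0 * (-1)) / 2) ((1 + ε 1 * 1) / 2) = _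
        congr 1 <;> ring
      have h1' : a 0 - η * μ ≤ σ1 * (uu hfin g (corner B 1 ((1 + ε 1) / 2)) c1 -
        uu hfin g (corner B 0 ((1 + ε 1) / 2)) c1) * ((L c1).card * (2 : ℝ)⁻¹ ^ κ c1) := h1
      rw [e1, e0]
      rcases hε 0 with h | h
      · have t1 : (1 + ε 0) / 2 = 1 := by rw [h]; norm_num
        have t0 : (1 - ε 0) / 2 = 0 := by rw [h]; norm_num
        rw [t1, t0, h]; linarith
      · have t1 : (1 + ε 0) / 2 = 0 := by rw [h]; norm_num
        have t0 : (1 - ε 0) / 2 = 1 := by rw [h]; norm_num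
        rw [t1, t0, h]; linarith
    · show a 1 - η * μ ≤ ε 1 * σ2 * ((uu hfin g (cor B ε 2) c2 - uu hfin g (cor B ε 0) c2) *
        ((L c2).card * (2:ℝ)⁻¹ ^ κ c2))
      have h1 := (F.main2 _ hb).2
      have e1 : cor B ε 2 = corner B ((1 - ε 0) / 2) ((1 + ε 1) / 2) := by
        show corner B ((1 + ε 0 * (-1)) / 2) ((1 + ε 1 * 1) / 2) = _
        congr 1 <;> ring
      have e0 : cor B ε 0 = corner B ((1 - ε 0) / 2) ((1 - ε 1) / 2) := by
        show corner B ((1 + ε 0 * (-1)) / 2) ((1 + ε 1 * (-1)) / 2) = _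
        congr 1 <;> ring
      have h1' : a 1 - η * μ ≤ σ2 * (uu hfin g (corner B ((1 - ε 0) / 2) 1) c2 -
        uu hfin g (corner B ((1 - ε 0) / 2) 0) c2) * ((L c2).card * (2 : ℝ)⁻¹ ^ κ c2) := h1
      rw [e1, e0]
      rcases hε 1 with h | h
      · have t1 : (1 + ε 1) / 2 = 1 := by rw [h]; norm_num
        have t0 : (1 - ε 1) / 2 = 0 := by rw [h]; norm_num
        rw [t1, t0, h]; linarith
      · have t1 : (1 + ε 1) / 2 = 0 := by rw [h]; norm_num
        have t0 : (1 - ε 1) / 2 = 1 := by rw [h]; norm_num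
        rw [t1, t0, h]; linarith
    · show a 1 - η * μ ≤ ε 1 * σ2 * ((uu hfin g (cor B ε 3) c2 - uu hfin g (cor B ε 1) c2) *
        ((L c2).card * (2:ℝ)⁻¹ ^ κ c2))
      have h1 := (F.main2 _ hb).2
      have e1 : cor B ε 3 = corner B ((1 + ε 0) / 2) ((1 + ε 1) / 2) := by
        show corner B ((1 + ε 0 * 1) / 2) ((1 + ε 1 * 1) / 2) = _
        congr 1 <;> ring
      have e0 : cor B ε 1 = corner B ((1 + ε 0) / 2) ((1 - ε 1) / 2) := by
        show corner B ((1 + ε 0 * 1) / 2) ((1 + ε 1 * (-1)) / 2) = _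
        congr 1 <;> ring
      have h1' : a 1 - η * μ ≤ σ2 * (uu hfin g (corner B ((1 + ε 0) / 2) 1) c2 -
        uu hfin g (corner B ((1 + ε 0) / 2) 0) c2) * ((L c2).card * (2 : ℝ)⁻¹ ^ κ c2) := h1
      rw [e1, e0]
      rcases hε 1 with h | h
      · have t1 : (1 + ε 1) / 2 = 1 := by rw [h]; norm_num
        have t0 : (1 - ε 1) / 2 = 0 := by rw [h]; norm_num
        rw [t1, t0, h]; linarith
      · have t1 : (1 + ε 1) / 2 = 0 := by rw [h]; norm_num
        have t0 : (1 - ε 1) / 2 = 1 := by rw [h]; norm_num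
        rw [t1, t0, h]; linarith
  · rw [hsum s _ _]
    have hb := hgt01 hε s
    have hi : i = 0 ∨ i = 1 := by omega
    have hd : dr s = 0 ∨ dr s = 1 := by omega
    rcases hi with rfl | rfl <;> rcases hd with h | h
    · exact absurd h hs
    · rw [h]; exact F.other1 _ hb
    · rw [h]; exact F.other2 _ hb
    · exact absurd h hs

end dp

end Crest.Agent.R096.Fsw_928
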