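import Mathlib
import Crest.Agent.R96.Nu6_199

/-!
# R096 (row 96), helper487.  Charts of the cells with affine charts of the edges
-/

set_option autoImplicit false
set_option linter.unusedSectionVars false

open Set Metric Filter Topology

namespace Crest.Agent.R096.Mxs_487

open Crest.Agent.R096.Ce_537 Crest.Agent.R096.Bd_416
open Crest.Agent.R96.Nu1_199 Crest.Agent.R96.Nu3_199 Crest.Agent.R96.Nu4_199
open Crest.Agent.R96.Nu5_199 Crest.Agent.R96.Nu6_199

open scoped Classical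

noncomputable section

/-- a locally `A`-Lipschitz map of an interval -/
theorem dist_le_of_local {Y : Type*} [PseudoMetricSpace Y] {F : ℝ → Y} {a b A : ℝ} (hab : a ≤ b)
    (h : ∀ t ∈ Icc a b, ∀ᶠ s in 𝓝[Icc a b] t, dist (F s) (F t) ≤ A * |s - t|) :
    dist (F b) (F a) ≤ A * (b - a) := by
  have hc : ContinuousOn F (Icc a b) := by
    intro t ht
    rw [ContinuousWithinAt, tendsto_iff_dist_tendsto_zero]
    have h1 : Tendsto (fun s : ℝ => A * |s - t|) (𝓝[Icc a b] t) (𝓝 0) := by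
      have : Continuous fun s : ℝ => A * |s - t| := by fun_prop
      have h2 := (this.tendsto t).mono_left (nhdsWithin_le_nhds (s := Icc a b))
      simpa using h2
    exact squeeze_zero' (Eventually.of_forall fun _ => dist_nonneg) (h t ht) h1
  have hsub : Icc a b ⊆ {t | dist (F t) (F a) ≤ A * (t - a)} := by
    refine IsClosed.Icc_subset_of_forall_mem_nhdsWithin ?_ (by simp) ?_
    · have h1 : ContinuousOn (fun t => A * (t - a) - dist (F t) (F a)) (Icc a b) := by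
        refine ContinuousOn.sub (by fun_prop) ?_
        exact Continuous.comp_continuousOn (g := fun y : Y => dist y (F a)) (by fun_prop) hc
      have h2 := h1.preimage_isClosed_of_isClosed isClosed_Icc (isClosed_Ici (a := (0:ℝ)))
      convert h2 using 1
      ext t
      simp only [mem_inter_iff, mem_ofPred_eq, mem_preimage, mem_Ici, sub_nonneg]
      exact and_comm
    · rintro t ⟨ht, htb⟩
      have h1 := h t ⟨htb.1, htb.2.le⟩
      have h2 : 𝓝[Ioi t] t ≤ 𝓝[Icc a b] t := by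
        rw [← nhdsWithin_Ioc_eq_nhdsGT htb.2]
        exact nhdsWithin_mono _ fun s hs => ⟨htb.1.trans hs.1.le, hs.2⟩
      filter_upwards [h2 h1, self_mem_nhdsWithin] with s hs hst
      have hst' : t < s := hst
      have h3 : dist (F t) (F a) ≤ A * (t - a) := ht
      rw [abs_of_pos (by linarith)] at hs
      calc dist (F s) (F a) ≤ dist (F s) (F t) + dist (F t) (F a) := dist_triangle _ _ _
        _ ≤ A * (s - t) + A * (t - a) := add_le_add hs h3
        _ = A * (s - a) := by ring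
  exact hsub ⟨hab, le_rfl⟩

variable {E : Type*} [NormedAddCommGroup E] [NormedSpace ℝ E]

/-- the chart is affine -/
def AffC {m : ℕ} {S : Set E} (e : PLEquiv (cube m) S) : Prop :=
  ∃ a : (Fin m → ℝ) →ᵃ[ℝ] E, ∀ v, e.f v = a v

theorem AffC.neg {S : Set E} {e : PLEquiv (cube 1) S} (h : AffC e) :
    AffC (negE.trans e) := by
  obtain ⟨a, ha⟩ := h
  refine ⟨a.comp (-LinearMap.id : (Fin 1 → ℝ) →ₗ[ℝ] (Fin 1 → ℝ)).toAffineMap, fun v => ?_⟩
  show e.f (-v) = _
  rw [ha]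
  simp

variable [FiniteDimensional ℝ E]

/-- **an edge has an affine chart with the same constants in all frames** -/
theorem exists_edge_aff {S : Set E} (hS : Convex ℝ S) (e : PLEquiv (cube 1) S) :
    ∃ e' : PLEquiv (cube 1) S, AffC e' ∧ e'.f '' sph 1 = e.f '' sph 1 ∧
      ∀ (B : E ≃ᵃ[ℝ] E) (A : ℝ), (∀ x ∈ cube 1, MB (fun x => x) B A e.f (cube 1) x) →
        (∀ z ∈ S, MB B (fun x => x) A e.g S z) →
        (∀ x ∈ cube 1, MB (fun x => x) B A e'.f (cube 1) x) ∧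
        ∀ z ∈ S, MB B (fun x => x) A e'.g S z := by
  have hc1 : ∀ t : ℝ, |t| ≤ 1 → (fun _ => t : Fin 1 → ℝ) ∈ cube 1 := fun t ht => by
    rw [mem_closedBall_zero_iff, pi_norm_const, Real.norm_eq_abs]
    exact ht
  have hcm : ∀ v ∈ cube 1, |v 0| ≤ 1 := fun v hv => by
    have h1 : ‖v‖ ≤ 1 := mem_closedBall_zero_iff.1 hv
    exact (norm_le_pi_norm v 0).trans h1
  have hvc : ∀ v : Fin 1 → ℝ, v = fun _ => v 0 := fun v => by
    funext k; rw [Subsingleton.elim k 0]
  set x0 := e.f (fun _ => -1) with hx0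
  set x1 := e.f (fun _ => 1) with hx1
  have hm1 : (fun _ => -1 : Fin 1 → ℝ) ∈ cube 1 := hc1 _ (by norm_num)
  have hp1 : (fun _ => 1 : Fin 1 → ℝ) ∈ cube 1 := hc1 _ (by norm_num)
  have h0S : x0 ∈ S := e.mf hm1
  have h1S : x1 ∈ S := e.mf hp1
  have hne : x0 ≠ x1 := fun h => by
    have h1 : e.g x0 = e.g x1 := by rw [h]
    rw [hx0, hx1, e.li _ hm1, e.li _ hp1] at h1
    have := congrFun h1 0
    norm_num at this
  have hseg : segment ℝ x0 x1 ⊆ S := hS.segment_subset h0S h1S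
  have hSs : S ⊆ segment ℝ x0 x1 := by
    intro z hz
    have hcg : ContinuousOn (fun y => e.g y 0) (segment ℝ x0 x1) :=
      ((continuous_apply 0).comp_continuousOn e.pg.1).mono hseg
    have hpre := (convex_segment x0 x1).isPreconnected.image _ hcg
    have ha : (-1 : ℝ) ∈ (fun y => e.g y 0) '' segment ℝ x0 x1 :=
      ⟨x0, left_mem_segment ℝ _ _, by show e.g x0 0 = -1; rw [hx0, e.li _ hm1]⟩
    have hb : (1 : ℝ) ∈ (fun y => e.g y 0) '' segment ℝ x0 x1 :=
      ⟨x1, right_mem_segment ℝ _ _, by show e.g x1 0 = 1; rw [hx1, e.li _ hp1]⟩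
    have hz1 := abs_le.1 (hcm _ (e.mg hz))
    obtain ⟨w, hw, hw'⟩ := hpre.Icc_subset ha hb (show e.g z 0 ∈ Icc (-1 : ℝ) 1 from hz1)
    have h2 : e.g w = e.g z := by rw [hvc (e.g w), hvc (e.g z)]; funext; exact hw'
    rw [← e.ri z hz, ← h2, e.ri w (hseg hw)]
    exact hw
  -- the functional
  obtain ⟨φ, hφ⟩ : ∃ φ : E →ₗ[ℝ] ℝ, φ (x1 - x0) = 1 := by
    have hn : ‖x1 - x0‖ ≠ 0 := norm_ne_zero_iff.2 (sub_ne_zero.2 hne.symm)
    obtain ⟨φ, -, hφ⟩ := exists_dual_vector ℝ (x1 - x0) hn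
    refine ⟨(‖x1 - x0‖⁻¹ • φ : E →L[ℝ] ℝ), ?_⟩
    show ‖x1 - x0‖⁻¹ * φ (x1 - x0) = 1
    rw [hφ]
    exact inv_mul_cancel₀ hn
  set f : (Fin 1 → ℝ) →ᵃ[ℝ] E :=
    (AffineMap.lineMap x0 x1 : ℝ →ᵃ[ℝ] E).comp
      ((AffineMap.lineMap (1/2 : ℝ) 1 : ℝ →ᵃ[ℝ] ℝ).comp
        (LinearMap.proj 0 : (Fin 1 → ℝ) →ₗ[ℝ] ℝ).toAffineMap) with hf
  have hfv : ∀ v, f v = x0 + ((v 0 + 1) / 2) • (x1 - x0) := fun v => by
    rw [hf]
    simp only [AffineMap.comp_apply, LinearMap.coe_toAffineMap, LinearMap.proj_apply,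
      AffineMap.lineMap_apply, vsub_eq_sub, vadd_eq_add, smul_eq_mul]
    rw [add_comm]
    congr 2
    ring
  set g : E →ᵃ[ℝ] (Fin 1 → ℝ) :=
    AffineMap.pi fun _ => (AffineMap.lineMap (-1 : ℝ) 1 : ℝ →ᵃ[ℝ] ℝ).comp
      (φ.toAffineMap - AffineMap.const ℝ E (φ x0)) with hg
  have hgy : ∀ y, g y = fun _ => 2 * (φ y - φ x0) - 1 := fun y => by
    funext k
    rw [hg]
    simp only [AffineMap.pi_apply, AffineMap.comp_apply, AffineMap.lineMap_apply, vsub_eq_sub,
      vadd_eq_add, smul_eq_mul]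
    show (φ y - φ x0) * (1 - -1) + -1 = _
    ring
  have hgf : ∀ v, g (f v) = v := fun v => by
    rw [hgy, hvc v]
    funext k
    rw [hfv, map_add, map_smul, hφ, smul_eq_mul]
    ring
  have hseg' : ∀ y ∈ S, ∃ s ∈ Icc (0:ℝ) 1, y = x0 + s • (x1 - x0) := fun y hy => by
    obtain ⟨s, hs, rfl⟩ := (segment_eq_image' ℝ x0 x1 ▸ hSs hy)
    exact ⟨s, hs, rfl⟩
  have hfg : ∀ y ∈ S, f (g y) = y := fun y hy => by
    obtain ⟨s, hs, rfl⟩ := hseg' y hy
    rw [hfv, hgy, map_add, map_smul, hφ, smul_eq_mul]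
    simp only
    congr 2
    ring
  have mf : MapsTo f (cube 1) S := fun v hv => by
    refine hseg ?_
    rw [segment_eq_image' ℝ x0 x1]
    have h1 := abs_le.1 (hcm v hv)
    exact ⟨(v 0 + 1) / 2, ⟨by linarith, by linarith⟩, (hfv v).symm⟩
  have mg : MapsTo g S (cube 1) := fun y hy => by
    obtain ⟨s, hs, rfl⟩ := hseg' y hy
    rw [hgy]
    refine hc1 _ ?_
    rw [map_add, map_smul, hφ, smul_eq_mul, abs_le]
    constructor <;> nlinarith [hs.1, hs.2]
  refine ⟨⟨f, g, plOn_affine f _, plOn_affine g _, mf, mg, fun v _ => hgf v, hfg⟩,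
    ⟨f, fun _ => rfl⟩, ?_, fun B A h1 h2 => ?_⟩
  · -- the ends
    have hsph : sph 1 = {fun _ => -1, fun _ => 1} := by
      ext v
      rw [mem_sph1]
      constructor
      · intro h
        rcases (abs_eq zero_le_one).1 h with h | h
        · right; rw [mem_singleton_iff, hvc v, h]
        · left; rw [hvc v, h]
      · rintro (rfl | rfl) <;> norm_num
    show f '' sph 1 = _
    rw [hsph, image_pair, image_pair, hfv, hfv, ← hx0, ← hx1]
    norm_num
  · have hB : ∀ s : ℝ, B (x0 + s • (x1 - x0)) = B x0 + s • (B x1 - B x0) := fun s => by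
      have h3 : x0 + s • (x1 - x0) = AffineMap.lineMap x0 x1 s := by
        rw [AffineMap.lineMap_apply, vsub_eq_sub, vadd_eq_add, add_comm]
      rw [h3]
      have h4 := (B : E →ᵃ[ℝ] E).apply_lineMap x0 x1 s
      have h5 : (B : E →ᵃ[ℝ] E) (AffineMap.lineMap x0 x1 s) = B (AffineMap.lineMap x0 x1 s) := rfl
      rw [← h5, h4, AffineMap.lineMap_apply, vsub_eq_sub, vadd_eq_add, add_comm]
      rfl
    set ℓ := ‖B x1 - B x0‖ with hℓ
    have hBd : ∀ s t : ℝ, dist (B (x0 + s • (x1 - x0))) (B (x0 + t • (x1 - x0))) = |s - t| * ℓ := by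
      intro s t
      rw [hB, hB, dist_add_left, dist_eq_norm, ← sub_smul, norm_smul, Real.norm_eq_abs]
    have hcd : ∀ s t : ℝ, dist (fun _ => s : Fin 1 → ℝ) (fun _ => t) = |s - t| := fun s t => by
      rw [dist_pi_const, Real.dist_eq]
    -- the chart `e.f`
    have hl1 : ℓ ≤ A * 2 := by
      have h3 : ∀ t ∈ Icc (-1:ℝ) 1, ∀ᶠ s in 𝓝[Icc (-1:ℝ) 1] t,
          dist (B (e.f fun _ => s)) (B (e.f fun _ => t)) ≤ A * |s - t| := by
        intro t ht
        have h4 := h1 (fun _ => t) (hc1 t (abs_le.2 ht))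
        have h5 : Tendsto (fun s : ℝ => (fun _ => s : Fin 1 → ℝ)) (𝓝[Icc (-1:ℝ) 1] t)
            (𝓝[cube 1] fun _ => t) := by
          refine tendsto_nhdsWithin_iff.2 ⟨?_, ?_⟩
          · have : Continuous fun s : ℝ => (fun _ => s : Fin 1 → ℝ) := by fun_prop
            exact (this.tendsto t).mono_left nhdsWithin_le_nhds
          · filter_upwards [self_mem_nhdsWithin] with s hs using hc1 s (abs_le.2 hs)
        filter_upwards [h5.eventually h4] with s hs
        rwa [hcd] at hs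
      have h6 := dist_le_of_local (F := fun s => B (e.f fun _ => s)) (by norm_num) h3
      have h7 : ℓ = dist (B (e.f fun _ => (1:ℝ))) (B (e.f fun _ => (-1:ℝ))) := by
        rw [hℓ, dist_eq_norm]
      rw [h7]
      refine h6.trans (le_of_eq ?_)
      ring
    -- the chart `e.g`
    have hl2 : 2 ≤ A * ℓ := by
      have h3 : ∀ t ∈ Icc (0:ℝ) 1, ∀ᶠ s in 𝓝[Icc (0:ℝ) 1] t,
          dist (e.g (x0 + s • (x1 - x0))) (e.g (x0 + t • (x1 - x0))) ≤ (A * ℓ) * |s - t| := by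
        intro t ht
        have hmem : ∀ s ∈ Icc (0:ℝ) 1, x0 + s • (x1 - x0) ∈ S := fun s hs => by
          refine hseg ?_
          rw [segment_eq_image' ℝ x0 x1]
          exact ⟨s, hs, rfl⟩
        have h4 := h2 _ (hmem t ht)
        have h5 : Tendsto (fun s : ℝ => x0 + s • (x1 - x0)) (𝓝[Icc (0:ℝ) 1] t)
            (𝓝[S] (x0 + t • (x1 - x0))) := by
          refine tendsto_nhdsWithin_iff.2 ⟨?_, ?_⟩
          · have : Continuous fun s : ℝ => x0 + s • (x1 - x0) := by fun_prop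
            exact (this.tendsto t).mono_left nhdsWithin_le_nhds
          · filter_upwards [self_mem_nhdsWithin] with s hs using hmem s hs
        filter_upwards [h5.eventually h4] with s hs
        rw [hBd] at hs
        refine hs.trans (le_of_eq ?_)
        ring
      have h6 := dist_le_of_local (F := fun s => e.g (x0 + s • (x1 - x0))) zero_le_one h3
      have h7 : dist (e.g (x0 + (1:ℝ) • (x1 - x0))) (e.g (x0 + (0:ℝ) • (x1 - x0))) = 2 := by
        rw [one_smul, zero_smul, add_zero, add_sub_cancel, hx0, hx1, e.li _ hm1, e.li _ hp1, hcd]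
        norm_num
      rw [h7] at h6
      linarith
    constructor
    · intro v _
      refine Eventually.of_forall fun w => ?_
      show dist (B (f w)) (B (f v)) ≤ A * dist w v
      rw [hfv, hfv, hBd, hvc w, hvc v, hcd]
      have h3 : |(w 0 + 1) / 2 - (v 0 + 1) / 2| = |w 0 - v 0| / 2 := by
        rw [← sub_div, abs_div, abs_two]
        congr 2
        ring
      simp only
      rw [h3]
      nlinarith [abs_nonneg (w 0 - v 0)]
    · intro z hz
      filter_upwards [self_mem_nhdsWithin] with y hy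
      show dist (g y) (g z) ≤ A * dist (B y) (B z)
      obtain ⟨s, hs, rfl⟩ := hseg' y hy
      obtain ⟨t, ht, rfl⟩ := hseg' z hz
      rw [hBd, hgy, hgy, hcd, map_add, map_add, map_smul, map_smul, hφ, smul_eq_mul, smul_eq_mul]
      have h3 : 2 * (φ x0 + s * 1 - φ x0) - 1 - (2 * (φ x0 + t * 1 - φ x0) - 1) = 2 * (s - t) := by
        ring
      rw [h3, abs_mul, abs_two]
      nlinarith [abs_nonneg (s - t)]

/-- the same, for a dimension which is only known to be `1` -/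
theorem exists_edge_aff' {m : ℕ} (hm : m = 1) {S : Set E} (hS : Convex ℝ S)
    (e : PLEquiv (cube m) S) :
    ∃ e' : PLEquiv (cube m) S, AffC e' ∧ e'.f '' sph m = e.f '' sph m ∧
      ∀ (B : E ≃ᵃ[ℝ] E) (A : ℝ), (∀ x ∈ cube m, MB (fun x => x) B A e.f (cube m) x) →
        (∀ z ∈ S, MB B (fun x => x) A e.g S z) →
        (∀ x ∈ cube m, MB (fun x => x) B A e'.f (cube m) x) ∧
        ∀ z ∈ S, MB B (fun x => x) A e'.g S z := by
  subst hm
  exact exists_edge_aff hS e

variable {Q : Type} [PartialOrder Q] {dim : Q → ℕ} {K : Q → Set E} {Ω : Set E}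

/-- **the charts of the cells, with constants in all affine frames, affine on the edges** -/
theorem exists_eA (X : Cplx Ω Q dim K) (hconv : ∀ τ, Convex ℝ (K τ))
    (hcpt : ∀ τ, IsCompact (K τ)) (hbd : ∀ τ, bdS K τ = K τ \ ri (K τ)) :
    ∃ e : ∀ τ, 1 ≤ dim τ → PLEquiv (cube (dim τ)) (K τ),
      (∀ τ, ∀ hd : 1 ≤ dim τ, (e τ hd).f '' sph (dim τ) = bdS K τ) ∧
      (∀ τ, ∀ hd : 1 ≤ dim τ, ∀ B ∈ FrA E, ∀ v ∈ cube (dim τ),
        MB id B (AAc (dim τ) (B '' K τ)) (e τ hd).f (cube (dim τ)) v) ∧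
      (∀ τ, ∀ hd : 1 ≤ dim τ, ∀ B ∈ FrA E, ∀ z ∈ K τ,
        MB B id (AAc (dim τ) (B '' K τ)) (e τ hd).g (K τ) z) ∧
      ∀ τ, ∀ hd : 1 ≤ dim τ, dim τ = 1 → AffC (e τ hd) := by
  obtain ⟨e, h1, h2, h3⟩ := exists_e X hconv hcpt hbd
  have key : ∀ τ, ∀ hd : 1 ≤ dim τ, ∃ e' : PLEquiv (cube (dim τ)) (K τ),
      e'.f '' sph (dim τ) = bdS K τ ∧
      (∀ B ∈ FrA E, ∀ v ∈ cube (dim τ),
        MB id B (AAc (dim τ) (B '' K τ)) e'.f (cube (dim τ)) v) ∧
      (∀ B ∈ FrA E, ∀ z ∈ K τ, MB B id (AAc (dim τ) (B '' K τ)) e'.g (K τ) z) ∧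
      (dim τ = 1 → AffC e') := by
    intro τ hd
    by_cases h : dim τ = 1
    · obtain ⟨e', ha, hs, hB⟩ := exists_edge_aff' h (hconv τ) (e τ hd)
      refine ⟨e', by rw [hs, h1], ?_, ?_, fun _ => ha⟩
      · rintro _ ⟨B, rfl⟩ v hv
        exact (hB B _ (fun x hx => h2 τ hd _ ⟨B, rfl⟩ x hx)
          (fun z hz => h3 τ hd _ ⟨B, rfl⟩ z hz)).1 v hv
      · rintro _ ⟨B, rfl⟩ z hz
        exact (hB B _ (fun x hx => h2 τ hd _ ⟨B, rfl⟩ x hx)
          (fun z hz => h3 τ hd _ ⟨B, rfl⟩ z hz)).2 z hz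
    · exact ⟨e τ hd, h1 τ hd, h2 τ hd, h3 τ hd, fun h' => absurd h' h⟩
  choose e' h4 h5 h6 h7 using key
  exact ⟨e', h4, h5, h6, h7⟩

end

end Crest.Agent.R096.Mxs_487
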