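import Crest.Agent.R096.Fk14_522
import Crest.Agent.R096.Fsw29_928
import Crest.Agent.R096.Mxs0_487

/-!
# R096 (row 96), P4-FACE, part 19: designated faces of a complex: unit squares in affine frames
(helper522)
-/

set_option autoImplicit false
set_option linter.unusedSectionVars false

open Set Metric Filter Topology

namespace Crest.Agent.R096.Fk_522

open Crest.Agent.R096.Ce_537 Crest.Agent.R096.Bd_416 Crest.Agent.R096.Fsw_928
open Crest.Agent.R096.Mxs_487 (AffC)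
open Crest.Agent.R96.Nu3_199

open scoped Classical

section aff

variable {E : Type*} [NormedAddCommGroup E] [NormedSpace ℝ E]

lemma const_mem_cube1 {t : ℝ} (ht : |t| ≤ 1) : (fun _ => t : Fin 1 → ℝ) ∈ cube 1 := by
  rw [mem_closedBall_zero_iff, pi_norm_const, Real.norm_eq_abs]
  exact ht

lemma abs_le_of_cube1 {v : Fin 1 → ℝ} (hv : v ∈ cube 1) : |v 0| ≤ 1 :=
  (norm_le_pi_norm v 0).trans (mem_closedBall_zero_iff.1 hv)

lemma eq_const1 (v : Fin 1 → ℝ) : v = fun _ => v 0 := by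
  funext k
  rw [Subsingleton.elim k 0]

/-- **affine charts of a segment are unique up to the sign** -/
theorem affC_path {S : Set E} (e : PLEquiv (cube 1) S) (he : AffC e) (γ : ℝ →ᵃ[ℝ] E)
    (hγ : γ '' Icc (-1) 1 = S) :
    ∃ o : ℝ, (o = 1 ∨ o = -1) ∧ ∀ t, |t| ≤ 1 → e.g (γ t) 0 = o * t := by
  obtain ⟨a, ha⟩ := he
  have hm : ∀ t : ℝ, |t| ≤ 1 → γ t ∈ S := fun t ht => by
    rw [← hγ]; exact ⟨t, abs_le.1 ht, rfl⟩
  have h1 : |(1:ℝ)| ≤ 1 := by norm_num
  have h2 : |(-1:ℝ)| ≤ 1 := by norm_num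
  obtain ⟨s1, hs1⟩ : ∃ s, s = e.g (γ 1) 0 := ⟨_, rfl⟩
  obtain ⟨s2, hs2⟩ : ∃ s, s = e.g (γ (-1)) 0 := ⟨_, rfl⟩
  have b1 : |s1| ≤ 1 := by rw [hs1]; exact abs_le_of_cube1 (e.mg (hm 1 h1))
  have b2 : |s2| ≤ 1 := by rw [hs2]; exact abs_le_of_cube1 (e.mg (hm (-1) h2))
  have g1 : γ 1 = a (fun _ => s1) := by
    rw [← ha, ← e.ri _ (hm 1 h1)]
    congr 1
    rw [eq_const1 (e.g (γ 1)), ← hs1]
  have g2 : γ (-1) = a (fun _ => s2) := by
    rw [← ha, ← e.ri _ (hm (-1) h2)]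
    congr 1
    rw [eq_const1 (e.g (γ (-1))), ← hs2]
  have key : ∀ t, |t| ≤ 1 → e.g (γ t) 0 = (1 - t) / 2 * s2 + (1 + t) / 2 * s1 := by
    intro t ht
    have ht' := abs_le.1 ht
    have e1 : γ t = AffineMap.lineMap (γ (-1)) (γ 1) ((1 + t) / 2) := by
      rw [← γ.apply_lineMap]
      congr 1
      rw [AffineMap.lineMap_apply, smul_eq_mul, vsub_eq_sub, vadd_eq_add]
      ring
    have e2 : γ t = e.f (fun _ => (1 - t) / 2 * s2 + (1 + t) / 2 * s1) := by
      rw [e1, g1, g2, ← a.apply_lineMap, ha]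
      congr 1
      funext k
      rw [AffineMap.lineMap_apply]
      simp only [vsub_eq_sub, vadd_eq_add, Pi.add_apply, Pi.smul_apply, Pi.sub_apply, smul_eq_mul]
      ring
    have e3 : |(1 - t) / 2 * s2 + (1 + t) / 2 * s1| ≤ 1 := by
      obtain ⟨c1, c2⟩ := abs_le.1 b1
      obtain ⟨c3, c4⟩ := abs_le.1 b2
      have p1 : 0 ≤ (1 - t) / 2 := by linarith
      have p2 : 0 ≤ (1 + t) / 2 := by linarith
      have q1 := mul_le_mul_of_nonneg_left c2 p2
      have q2 := mul_le_mul_of_nonneg_left c1 p2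
      have q3 := mul_le_mul_of_nonneg_left c4 p1
      have q4 := mul_le_mul_of_nonneg_left c3 p1
      rw [abs_le]
      constructor <;> linarith
    rw [e2, e.li _ (const_mem_cube1 e3)]
  -- onto
  have onto : ∀ s : ℝ, |s| ≤ 1 → ∃ t, |t| ≤ 1 ∧ (1 - t) / 2 * s2 + (1 + t) / 2 * s1 = s := by
    intro s hs
    have h3 : e.f (fun _ => s) ∈ S := e.mf (const_mem_cube1 hs)
    obtain ⟨t, ht, h4⟩ := hγ.symm.subset h3
    have ht' : |t| ≤ 1 := abs_le.2 ht
    refine ⟨t, ht', ?_⟩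
    rw [← key t ht', h4, e.li _ (const_mem_cube1 hs)]
  obtain ⟨t1, k1, l1⟩ := onto 1 h1
  obtain ⟨t2, k2, l2⟩ := onto (-1) h2
  obtain ⟨c1, c2⟩ := abs_le.1 b1
  obtain ⟨c3, c4⟩ := abs_le.1 b2
  obtain ⟨d1, d2⟩ := abs_le.1 k1
  obtain ⟨d3, d4⟩ := abs_le.1 k2
  have A1 : s1 = 1 ∨ s2 = 1 := by
    by_contra hc
    push Not at hc
    have f1 : s1 < 1 := lt_of_le_of_ne c2 hc.1
    have f2 : s2 < 1 := lt_of_le_of_ne c4 hc.2
    rcases lt_or_eq_of_le d1 with h | h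
    · have q1 : (1 + t1) / 2 * s1 < (1 + t1) / 2 * 1 :=
        mul_lt_mul_of_pos_left f1 (by linarith)
      have q2 : (1 - t1) / 2 * s2 ≤ (1 - t1) / 2 * 1 :=
        mul_le_mul_of_nonneg_left c4 (by linarith)
      linarith
    · rw [← h] at l1
      linarith
  have A2 : s1 = -1 ∨ s2 = -1 := by
    by_contra hc
    push Not at hc
    have f1 : -1 < s1 := lt_of_le_of_ne c1 hc.1.symm
    have f2 : -1 < s2 := lt_of_le_of_ne c3 hc.2.symm
    rcases lt_or_eq_of_le d3 with h | h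
    · have q1 : (1 + t2) / 2 * (-1) < (1 + t2) / 2 * s1 :=
        mul_lt_mul_of_pos_left f1 (by linarith)
      have q2 : (1 - t2) / 2 * (-1) ≤ (1 - t2) / 2 * s2 :=
        mul_le_mul_of_nonneg_left c3 (by linarith)
      linarith
    · rw [← h] at l2
      linarith
  rcases A1 with h | h <;> rcases A2 with h' | h'
  · linarith
  · refine ⟨1, Or.inl rfl, fun t ht => ?_⟩
    rw [key t ht, h, h']; ring
  · refine ⟨-1, Or.inr rfl, fun t ht => ?_⟩
    rw [key t ht, h, h']; ring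
  · linarith

/-- the coordinate of a segment: first coordinate of an affine chart -/
noncomputable def chi {Q : Type} (K : Q → Set E) (q : Q) (z : E) : ℝ :=
  if h : ∃ e : PLEquiv (cube 1) (K q), AffC e then h.choose.g z 0 else 0

lemma chi_eq {Q : Type} {K : Q → Set E} {q : Q} (h : ∃ e : PLEquiv (cube 1) (K q), AffC e) :
    ∃ e : PLEquiv (cube 1) (K q), AffC e ∧ ∀ z, chi K q z = e.g z 0 :=
  ⟨h.choose, h.choose_spec, fun z => by unfold chi; rw [dif_pos h]⟩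

/-- every affine chart has the coordinate `± chi` -/
theorem chi_chart {Q : Type} {K : Q → Set E} {q : Q} (e : PLEquiv (cube 1) (K q)) (he : AffC e) :
    (∀ z ∈ K q, e.g z 0 = chi K q z) ∨ (∀ z ∈ K q, e.g z 0 = - chi K q z) := by
  obtain ⟨e0, h0, h1⟩ := chi_eq ⟨e, he⟩
  obtain ⟨a0, ha0⟩ := h0
  let γ : ℝ →ᵃ[ℝ] E := a0.comp (LinearMap.pi fun _ : Fin 1 => (LinearMap.id : ℝ →ₗ[ℝ] ℝ)).toAffineMap
  have hγ : ∀ t, γ t = e0.f (fun _ => t) := fun t => by rw [ha0]; rfl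
  have himg : γ '' Icc (-1) 1 = K q := by
    ext z
    constructor
    · rintro ⟨t, ht, rfl⟩
      rw [hγ]
      exact e0.mf (const_mem_cube1 (abs_le.2 ht))
    · intro hz
      refine ⟨e0.g z 0, abs_le.1 (abs_le_of_cube1 (e0.mg hz)), ?_⟩
      rw [hγ, ← eq_const1, e0.ri z hz]
  obtain ⟨o, ho, h2⟩ := affC_path e he γ himg
  have h3 : ∀ z ∈ K q, e.g z 0 = o * chi K q z := fun z hz => by
    have h4 := h2 (e0.g z 0) (abs_le_of_cube1 (e0.mg hz))
    rw [hγ, ← eq_const1, e0.ri z hz, ← h1 z] at h4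
    exact h4
  rcases ho with rfl | rfl
  · left
    intro z hz
    rw [h3 z hz, one_mul]
  · right
    intro z hz
    rw [h3 z hz, neg_one_mul]

end aff

end Crest.Agent.R096.Fk_522
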