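import Mathlib

/-!
# R096 (row 96), P4-FACE, combinatorics, part 1: greedy heights (helper522)
-/

set_option autoImplicit false

open Set MeasureTheory

namespace Crest.Agent.R096.Fk_522

/-- disjoint intervals in an interval -/
lemma sum_le_of_disjoint {ι : Type*} (S : Finset ι) (y l : ι → ℝ) {a b : ℝ} (hab : a ≤ b)
    (hlo : ∀ i ∈ S, a ≤ y i - l i / 2) (hhi : ∀ i ∈ S, y i + l i / 2 ≤ b)
    (h0 : ∀ i ∈ S, 0 ≤ l i)
    (hd : ∀ i ∈ S, ∀ j ∈ S, i ≠ j → (l i + l j) / 2 ≤ |y i - y j|) :
    ∑ i ∈ S, l i ≤ b - a := by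
  have h1 : volume (⋃ i ∈ S, Ioo (y i - l i / 2) (y i + l i / 2))
      = ∑ i ∈ S, volume (Ioo (y i - l i / 2) (y i + l i / 2)) := by
    refine measure_biUnion_finset ?_ (fun i _ => measurableSet_Ioo)
    intro i hi j hj hij
    refine Set.disjoint_left.2 fun t ht ht' => ?_
    have h := hd i hi j hj hij
    rcases le_abs.1 h with h | h
    · linarith [ht.1, ht'.2]
    · linarith [ht.2, ht'.1]
  have h2 : volume (⋃ i ∈ S, Ioo (y i - l i / 2) (y i + l i / 2)) ≤ volume (Icc a b) := by
    refine measure_mono ?_
    refine iUnion₂_subset fun i hi => ?_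
    exact Ioo_subset_Icc_self.trans (Icc_subset_Icc (hlo i hi) (hhi i hi))
  rw [h1, Real.volume_Icc] at h2
  have h3 : ∀ i ∈ S, volume (Ioo (y i - l i / 2) (y i + l i / 2)) = ENNReal.ofReal (l i) := by
    intro i _
    rw [Real.volume_Ioo]
    congr 1
    ring
  rw [Finset.sum_congr rfl h3, ← ENNReal.ofReal_sum_of_nonneg h0] at h2
  exact (ENNReal.ofReal_le_ofReal_iff (by linarith)).1 h2

/-- a rank function of a finite type with an injective map to a linear order -/
lemma exists_rank_lin {ι α : Type*} [Fintype ι] [LinearOrder α] (f : ι → α)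
    (hf : Function.Injective f) :
    ∃ k : ι → ℕ, Function.Injective k ∧ (∀ i j, f i < f j → k i < k j) ∧
      ∀ i j, k i < k j → f i < f j := by
  classical
  let k : ι → ℕ := fun i => (Finset.univ.filter fun j => f j < f i).card
  have h1 : ∀ i j, f i < f j → k i < k j := by
    intro i j h
    refine Finset.card_lt_card (Finset.ssubset_iff_subset_ne.2 ⟨?_, ?_⟩)
    · intro m hm
      rw [Finset.mem_filter] at hm ⊢
      exact ⟨hm.1, hm.2.trans h⟩
    · intro he
      have h2 : i ∈ Finset.univ.filter fun m => f m < f j :=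
        Finset.mem_filter.2 ⟨Finset.mem_univ _, h⟩
      rw [← he] at h2
      exact lt_irrefl _ (Finset.mem_filter.1 h2).2
  have h2 : ∀ i j, k i < k j → f i < f j := by
    intro i j h
    by_contra hc
    rcases (not_lt.1 hc).eq_or_lt with h3 | h3
    · rw [hf h3] at h; exact lt_irrefl _ h
    · exact lt_asymm h (h1 _ _ h3)
  refine ⟨k, fun i j h => ?_, h1, h2⟩
  rcases lt_trichotomy (f i) (f j) with h3 | h3 | h3
  · exact absurd h (h1 _ _ h3).ne
  · exact hf h3
  · exact absurd h (h1 _ _ h3).ne'

/-- **greedy heights** in the order `k` -/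
theorem greedy {ι : Type*} [Fintype ι] [DecidableEq ι] (y l : ι → ℝ) (hl : ∀ i, 0 < l i) (k : ι → ℕ)
    (hk : Function.Injective k) (hky : ∀ i j, k i < k j → y i ≤ y j) (M : Finset ι)
    (hM : ∀ i ∈ M, ∀ j ∈ M, i ≠ j → (l i + l j) / 2 ≤ |y i - y j|) {lam : ℝ}
    (hlam : ∀ i, l i ≤ lam) :
    ∃ v : ι → ℝ, (∀ i, y i ≤ v i) ∧ (∀ i j, k i < k j → v i + (l i + l j) / 2 ≤ v j) ∧
      ∀ i, v i ≤ y i + ∑ j ∈ Mᶜ, l j + 2 * lam := by
  classical
  -- the terms
  let T : ι → ι → ℝ := fun i j => y j - l j / 2 +
    ∑ m : ι with (k j ≤ k m ∧ k m < k i), l m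
  let A : ι → Finset ι := fun i => Finset.univ.filter fun j => k j ≤ k i
  have hA : ∀ i, (A i).Nonempty := fun i => ⟨i, by simp [A]⟩
  let a : ι → ℝ := fun i => (A i).sup' (hA i) (T i)
  have ha0 : ∀ i, y i - l i / 2 ≤ a i := by
    intro i
    have h1 : T i i ≤ a i := Finset.le_sup' (T i) (show i ∈ A i by simp [A])
    have h2 : T i i = y i - l i / 2 := by
      have : (Finset.univ.filter fun m : ι => k i ≤ k m ∧ k m < k i) = ∅ := by
        ext m; simp
      show y i - l i / 2 + _ = _
      rw [this]; simp
    rw [← h2]; exact h1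
  have hstep : ∀ i i', k i < k i' → a i + l i ≤ a i' := by
    intro i i' h
    have h1 : a i ≤ a i' - l i := by
      refine Finset.sup'_le _ _ fun j hj => ?_
      have hj' : k j ≤ k i := by simpa [A] using hj
      have h2 : T i' j ≤ a i' := Finset.le_sup' (T i') (by
        simp only [A, Finset.mem_filter, Finset.mem_univ, true_and]; omega)
      have h3 : T i j + l i ≤ T i' j := by
        show y j - l j / 2 + _ + l i ≤ y j - l j / 2 + _
        have h4 : ∑ m : ι with (k j ≤ k m ∧ k m < k i), l m + l i
            ≤ ∑ m : ι with (k j ≤ k m ∧ k m < k i'), l m := by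
          have h5 : i ∉ Finset.univ.filter fun m : ι => k j ≤ k m ∧ k m < k i := by simp
          rw [add_comm, ← Finset.sum_insert h5]
          refine Finset.sum_le_sum_of_subset_of_nonneg ?_ fun m _ _ => (hl m).le
          intro m hm
          rw [Finset.mem_insert] at hm
          simp only [Finset.mem_filter, Finset.mem_univ, true_and] at hm ⊢
          rcases hm with rfl | hm
          · exact ⟨hj', h⟩
          · exact ⟨hm.1, by omega⟩
        linarith
      linarith
    linarith
  have hup : ∀ i, a i ≤ y i + ∑ j ∈ Mᶜ, l j + 3 / 2 * lam := by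
    intro i
    refine Finset.sup'_le _ _ fun j hj => ?_
    have hj' : k j ≤ k i := by simpa [A] using hj
    have hyji : y j ≤ y i := by
      rcases hj'.eq_or_lt with h | h
      · rw [hk h]
      · exact hky j i h
    have hlj := hlam j
    have hlj0 := hl j
    set B := Finset.univ.filter fun m : ι => k j ≤ k m ∧ k m < k i with hB
    have hsplit : ∑ m ∈ B, l m = ∑ m ∈ B.filter (· ∈ M), l m
        + ∑ m ∈ B.filter (· ∉ M), l m :=
      (Finset.sum_filter_add_sum_filter_not B (· ∈ M) l).symm
    have h1 : ∑ m ∈ B.filter (· ∉ M), l m ≤ ∑ m ∈ Mᶜ, l m := by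
      refine Finset.sum_le_sum_of_subset_of_nonneg ?_ fun m _ _ => (hl m).le
      intro m hm
      rw [Finset.mem_filter] at hm
      exact Finset.mem_compl.2 hm.2
    have h2 : ∑ m ∈ B.filter (· ∈ M), l m ≤ (y i + lam / 2) - (y j - lam / 2) := by
      have hmem : ∀ m ∈ B.filter (· ∈ M), (k j ≤ k m ∧ k m < k i) ∧ m ∈ M := by
        intro m hm
        rw [Finset.mem_filter, hB, Finset.mem_filter] at hm
        exact ⟨hm.1.2, hm.2⟩
      refine sum_le_of_disjoint _ y l (by linarith) ?_ ?_ (fun m _ => (hl m).le) ?_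
      · intro m hm
        have h3 := (hmem m hm).1.1
        have h4 : y j ≤ y m := by
          rcases h3.eq_or_lt with h | h
          · rw [hk h]
          · exact hky j m h
        have h5 := hlam m
        linarith
      · intro m hm
        have h3 := hky m i (hmem m hm).1.2
        have h5 := hlam m
        linarith
      · intro m hm m' hm' hne
        exact hM m (hmem m hm).2 m' (hmem m' hm').2 hne
    show y j - l j / 2 + ∑ m ∈ B, l m ≤ _
    rw [hsplit]
    -- j counted
    by_cases hjM : j ∈ M
    · -- the interval of `j` itself starts at `y j - l j / 2`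
      have h2' : ∑ m ∈ B.filter (· ∈ M), l m ≤ (y i + lam / 2) - (y j - l j / 2) := by
        have hmem : ∀ m ∈ B.filter (· ∈ M), (k j ≤ k m ∧ k m < k i) ∧ m ∈ M := by
          intro m hm
          rw [Finset.mem_filter, hB, Finset.mem_filter] at hm
          exact ⟨hm.1.2, hm.2⟩
        refine sum_le_of_disjoint _ y l (by linarith) ?_ ?_ (fun m _ => (hl m).le) ?_
        · intro m hm
          have h3 := (hmem m hm).1.1
          rcases h3.eq_or_lt with h | h
          · rw [hk h]
          · have h4 := hky j m h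
            have hne : j ≠ m := by rintro rfl; exact lt_irrefl _ h
            have h6 := hM j hjM m (hmem m hm).2 hne
            rw [abs_sub_comm, abs_of_nonneg (by linarith)] at h6
            have := hl j
            linarith
        · intro m hm
          have h3 := hky m i (hmem m hm).1.2
          have h5 := hlam m
          linarith
        · intro m hm m' hm' hne
          exact hM m (hmem m hm).2 m' (hmem m' hm').2 hne
      linarith
    · linarith
  refine ⟨fun i => a i + l i / 2, fun i => ?_, fun i j h => ?_, fun i => ?_⟩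
  · have := ha0 i
    show y i ≤ a i + l i / 2
    linarith
  · have := hstep i j h
    show a i + l i / 2 + (l i + l j) / 2 ≤ a j + l j / 2
    linarith
  · have h1 := hup i
    have h2 := hlam i
    show a i + l i / 2 ≤ _
    linarith

end Crest.Agent.R096.Fk_522
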