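import Crest.Agent.R096.Fk19_522

/-!
# R096 (row 96), P4-FACE, part 20: **the unit squares of a complex are designated faces**: `Des` and
928's `FG` from `K τ = usq B` and the four sides (helper522)
-/

set_option autoImplicit false
set_option linter.unusedSectionVars false

open Set Metric Filter Topology

namespace Crest.Agent.R096.Fk_522

open Crest.Agent.R096.Ce_537 Crest.Agent.R096.Bd_416 Crest.Agent.R096.Fsw_928
open Crest.Agent.R096.Mxs_487 (AffC)
open Crest.Agent.R096.SkN1_477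
open Crest.Agent.R096.SkC1_961 (E3)
open Crest.Agent.R96.Nu3_199

open scoped Classical

/-! ### interior points and ends -/

section geo

variable (B : E3 ≃ᵃ[ℝ] E3)

lemma B_ext (x z : E3) (t : ℝ) : B (x + t • (x - z)) = B x + t • (B x - B z) := by
  have e1 : x + t • (x - z) = AffineMap.lineMap x z (-t) := by
    rw [AffineMap.lineMap_apply, vsub_eq_sub, vadd_eq_add, neg_smul, ← smul_neg, neg_sub, add_comm]
  have e2 := (B : E3 →ᵃ[ℝ] E3).apply_lineMap x z (-t)
  rw [e1]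
  refine e2.trans ?_
  rw [AffineMap.lineMap_apply, vsub_eq_sub, vadd_eq_add, neg_smul, ← smul_neg, neg_sub, add_comm]
  rfl

lemma emb_ext (y w : E2) (t : ℝ) : emb y + t • (emb y - emb w) = emb (y + t • (y - w)) := by
  funext i
  fin_cases i
  · rfl
  · rfl
  · show (0:ℝ) + t * (0 - 0) = 0
    ring

lemma emb_inj {y w : E2} (h : emb y = emb w) : y = w := by
  rw [← qmb_emb y, h, qmb_emb]

/-- interior points of the square -/
lemma ri_usq {x : E3} {y : E2} (hy : ∀ i, 0 < y i ∧ y i < 1) (hx : emb y = B x) :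
    x ∈ ri (usq B) := by
  refine ⟨⟨y, fun i => ⟨(hy i).1.le, (hy i).2.le⟩, hx⟩, ?_⟩
  rintro z ⟨w, hw, hwz⟩
  obtain ⟨t, ht0, ht⟩ : ∃ t : ℝ, 0 < t ∧ ∀ i, t ≤ y i ∧ t ≤ 1 - y i := by
    have h0 := hy 0
    have h1 := hy 1
    refine ⟨min (min (y 0) (1 - y 0)) (min (y 1) (1 - y 1)), ?_, fun i => ?_⟩
    · exact lt_min (lt_min h0.1 (by linarith)) (lt_min h1.1 (by linarith))
    · have hi : i = 0 ∨ i = 1 := by omega
      rcases hi with rfl | rfl
      · exact ⟨(min_le_left _ _).trans (min_le_left _ _),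
          (min_le_left _ _).trans (min_le_right _ _)⟩
      · exact ⟨(min_le_right _ _).trans (min_le_left _ _),
          (min_le_right _ _).trans (min_le_right _ _)⟩
  refine ⟨t, ht0, y + t • (y - w), fun i => ?_, ?_⟩
  · show 0 ≤ y i + t * (y i - w i) ∧ y i + t * (y i - w i) ≤ 1
    have h1 := ht i
    have h2 := hw i
    have h3 := hy i
    constructor
    · nlinarith
    · nlinarith
  · rw [B_ext, ← hx, ← hwz, emb_ext]

/-- interior points of a side -/
lemma ri_side {x : E3} {y : E2} {j : Fin 2} {b : ℝ} (h0 : 0 < y j) (h1 : y j < 1)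
    (hb : y (1 - j) = b) (hx : emb y = B x) : x ∈ ri (SkN1_477.side B j b) := by
  refine ⟨⟨y, ⟨h0.le, h1.le, hb⟩, hx⟩, ?_⟩
  rintro z ⟨w, ⟨hw0, hw1, hwb⟩, hwz⟩
  refine ⟨min (y j) (1 - y j), lt_min h0 (by linarith), y + (min (y j) (1 - y j)) • (y - w),
    ⟨?_, ?_, ?_⟩, ?_⟩
  · show 0 ≤ y j + min (y j) (1 - y j) * (y j - w j)
    have h2 := min_le_left (y j) (1 - y j)
    have h3 : 0 < min (y j) (1 - y j) := lt_min h0 (by linarith)
    nlinarith
  · show y j + min (y j) (1 - y j) * (y j - w j) ≤ 1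
    have h2 := min_le_right (y j) (1 - y j)
    have h3 : 0 < min (y j) (1 - y j) := lt_min h0 (by linarith)
    nlinarith
  · show y (1 - j) + min (y j) (1 - y j) * (y (1 - j) - w (1 - j)) = b
    rw [hb, hwb, sub_self, mul_zero, add_zero]
  · rw [B_ext, ← hx, ← hwz, emb_ext]

/-- the ends are not interior -/
lemma not_ri_side {x : E3} {y : E2} {j : Fin 2} {b : ℝ} (hj : y j = 0 ∨ y j = 1)
    (hx : emb y = B x) : x ∉ ri (SkN1_477.side B j b) := by
  rintro ⟨-, h⟩
  let w : E2 := fun i => if i = j then 1 - y j else b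
  have hne : (1 - j) ≠ j := by
    have : ∀ j : Fin 2, 1 - j ≠ j := by decide
    exact this j
  have wj : w j = 1 - y j := if_pos rfl
  have wb : w (1 - j) = b := if_neg hne
  obtain ⟨t, ht, w', ⟨h0, h1, -⟩, hw'⟩ := h (B.symm (emb w)) ⟨w, ⟨by
    rw [wj]; rcases hj with h | h <;> rw [h] <;> norm_num, by
    rw [wj]; rcases hj with h | h <;> rw [h] <;> norm_num, wb⟩, (B.apply_symm_apply _).symm⟩
  rw [B_ext, B.apply_symm_apply, ← hx, emb_ext] at hw'
  have e1 := congrFun (emb_inj hw') j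
  have e2 : w' j = y j + t * (y j - w j) := e1
  rw [wj] at e2
  rcases hj with h | h
  · rw [h] at e2; linarith
  · rw [h] at e2; linarith

/-- two sides are different -/
lemma side_inj {j j' : Fin 2} {b b' : ℝ} (hb' : b' = 0 ∨ b' = 1)
    (h : SkN1_477.side B j b = SkN1_477.side B j' b') : j = j' ∧ b = b' := by
  have hne : ∀ j : Fin 2, (1 - j) ≠ j := by decide
  let w : E2 := fun i => if i = j then 1/2 else b
  have wj : w j = 1/2 := if_pos rfl
  have wb : w (1 - j) = b := if_neg (hne j)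
  have hm : B.symm (emb w) ∈ SkN1_477.side B j b :=
    ⟨w, ⟨by rw [wj]; norm_num, by rw [wj]; norm_num, wb⟩, (B.apply_symm_apply _).symm⟩
  rw [h] at hm
  obtain ⟨y, ⟨h0, h1, h2⟩, hy⟩ := hm
  rw [B.apply_symm_apply] at hy
  have hyw := emb_inj hy
  rw [hyw] at h2
  by_cases hjj : j = j'
  · refine ⟨hjj, ?_⟩
    rw [← hjj, wb] at h2
    exact h2
  · exfalso
    have e1 : ∀ j j' : Fin 2, j ≠ j' → 1 - j' = j := by decide
    rw [e1 j j' hjj, wj] at h2
    rcases hb' with h | h <;> rw [h] at h2 <;> norm_num at h2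

end geo

/-! ### cells -/

section cell

variable {E : Type*} [NormedAddCommGroup E] [NormedSpace ℝ E]
variable {Q : Type} [PartialOrder Q] {dim : Q → ℕ} {K : Q → Set E} {Ω : Set E}

lemma exists_opn_pt (X : Cplx Ω Q dim K) (σ : Q) : ∃ x, Opn K σ x := by
  obtain ⟨e, he⟩ := X.isBall σ
  have h0 : (0 : Fin (dim σ) → ℝ) ∈ cube (dim σ) := by simp [cube]
  refine ⟨e.f 0, e.mf h0, fun j hj hx => ?_⟩
  have h1 : e.f 0 ∈ ⋃ j ∈ {j | j < σ}, K j := mem_biUnion hj hx
  rw [← he] at h1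
  obtain ⟨v, hv, hv2⟩ := h1
  have h2 : v = 0 := by rw [← e.li v (sph_subset_cube hv), hv2, e.li _ h0]
  rw [h2] at hv
  have : ‖(0 : Fin (dim σ) → ℝ)‖ = 1 := mem_sphere_zero_iff_norm.1 hv
  simp at this

lemma opn_of_dim0 (X : Cplx Ω Q dim K) {v : Q} (hv : dim v = 0) {x : E} (hx : x ∈ K v) :
    Opn K v x := ⟨hx, fun j hj _ => by have := X.mono _ _ hj; omega⟩

lemma eq_of_dim0 (X : Cplx Ω Q dim K) {v v' : Q} (hv : dim v = 0) (hv' : dim v' = 0) {x : E}
    (hx : x ∈ K v) (hx' : x ∈ K v') : v = v' :=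
  X.disj _ _ x (opn_of_dim0 X hv hx) (opn_of_dim0 X hv' hx')

lemma pt_of_dim0 (X : Cplx Ω Q dim K) {v : Q} (hv : dim v = 0) {x y : E} (hx : x ∈ K v)
    (hy : y ∈ K v) : x = y := by
  obtain ⟨e, -⟩ := X.isBall v
  rw [← e.ri x hx, ← e.ri y hy]
  congr 1
  funext i
  exact absurd i.2 (by omega)

lemma lt_of_opn (X : Cplx Ω Q dim K) {σ τ : Q} {x : E} (hx : Opn K σ x) (hy : x ∈ K τ)
    (hd : dim σ ≠ dim τ) : σ < τ :=
  lt_of_le_of_ne (X.opn_le hx hy) fun h => hd (by rw [h])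

end cell

/-! ### the chart over `K τ` -/

section chart

variable {ε : Fin 2 → ℝ} (hε : ∀ i, ε i = 1 ∨ ε i = -1) (B : E3 ≃ᵃ[ℝ] E3)

/-- 928's chart, on a set which is the square -/
noncomputable def chUK {S : Set E3} (h : S = usq B) : PLEquiv (cube 2) S where
  f := (chU hε B).f
  g := (chU hε B).g
  pf := (chU hε B).pf
  pg := by rw [h]; exact (chU hε B).pg
  mf := by rw [h]; exact (chU hε B).mf
  mg := by rw [h]; exact (chU hε B).mg
  li := (chU hε B).li
  ri := by rw [h]; exact (chU hε B).ri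

/-- the path along the side `s` -/
noncomputable def sdp (B : E3 ≃ᵃ[ℝ] E3) (ε : Fin 2 → ℝ) (s : Fin 4) : ℝ →ᵃ[ℝ] E3 :=
  (AffineMap.lineMap (chA B ε (sd s (-1))) (chA B ε (sd s 1)) : ℝ →ᵃ[ℝ] E3).comp
    (AffineMap.lineMap (1/2 : ℝ) 1 : ℝ →ᵃ[ℝ] ℝ)

lemma sdp_apply (s : Fin 4) (t : ℝ) : sdp B ε s t = chA B ε (sd s t) := by
  have e1 : sdp B ε s t = AffineMap.lineMap (chA B ε (sd s (-1))) (chA B ε (sd s 1))
      ((1 + t) / 2) := by
    show (AffineMap.lineMap (chA B ε (sd s (-1))) (chA B ε (sd s 1)) : ℝ →ᵃ[ℝ] E3)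
      ((AffineMap.lineMap (1/2 : ℝ) 1 : ℝ →ᵃ[ℝ] ℝ) t) = _
    congr 1
    rw [AffineMap.lineMap_apply, smul_eq_mul, vsub_eq_sub, vadd_eq_add]
    ring
  rw [e1, ← (chA B ε).apply_lineMap]
  congr 1
  funext i
  rw [AffineMap.lineMap_apply]
  simp only [vsub_eq_sub, vadd_eq_add, Pi.add_apply, Pi.smul_apply, Pi.sub_apply, smul_eq_mul]
  have hi : i = 0 ∨ i = 1 := by omega
  rcases hi with rfl | rfl <;> fin_cases s <;> simp [sd] <;> ring

/-- direction and height of the side `s` -/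
lemma sd_side (s : Fin 4) :
    (chU hε B).f '' (sd s '' Icc (-1) 1) = SkN1_477.side B (dr s) (hgt ε s) := by
  rw [chU_sd hε B s]
  fin_cases s <;> rfl

end chart

/-! ### the theorem -/

variable {Q : Type} [PartialOrder Q] {dim : Q → ℕ} {J Fam : Type} {K : Q → Set E3} {Ω : Set E3}

/-- **UNIT SQUARES ARE DESIGNATED FACES** -/
theorem exists_desU (X : Cplx Ω Q dim K) (hbd : ∀ τ, bdS K τ = K τ \ ri (K τ))
    (hA : ∀ e, dim e = 1 → ∃ c : PLEquiv (cube 1) (K e), AffC c) (C : Cmb Q dim J Fam) {τ : Q}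
    (hd : dim τ = 2) {B : E3 ≃ᵃ[ℝ] E3} (hK : K τ = usq B)
    (hs : ∀ (j : Fin 2) (b : ℝ), b = 0 ∨ b = 1 → ∃ e, dim e = 1 ∧ K e = SkN1_477.side B j b) :
    ∃ (ε : Fin 2 → ℝ) (hε : ∀ i, ε i = 1 ∨ ε i = -1) (G : Des C K (chi K) τ),
      FG G.S K B ε ∧ G.A = chUK hε B hK := by
  have h01 : ∀ j : Fin 2, 1 - (1 - j) = j := by decide
  -- the ends of an edge
  have hend : ∀ {e : Q} (j : Fin 2) (b : ℝ), dim e = 1 → K e = SkN1_477.side B j b →
      ∀ {x : E3} {y : E2}, (y j = 0 ∨ y j = 1) → y (1 - j) = b → emb y = B x →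
      ∃ v < e, dim v = 0 ∧ x ∈ K v := by
    intro e j b hde hKe x y hy hb hx
    have h1 : x ∈ bdS K e := by
      rw [hbd, hKe]
      refine ⟨⟨y, ⟨?_, ?_, hb⟩, hx⟩, not_ri_side B hy hx⟩
      · rcases hy with h | h <;> rw [h] <;> norm_num
      · rcases hy with h | h <;> rw [h] <;> norm_num
    simp only [bdS, mem_iUnion, mem_ofPred_eq, exists_prop] at h1
    obtain ⟨v, hv, hxv⟩ := h1
    exact ⟨v, hv, by have := X.mono _ _ hv; omega, hxv⟩
  -- a point of a vertex on an edge is an end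
  have hend' : ∀ {e v : Q} (j : Fin 2) (b : ℝ), K e = SkN1_477.side B j b → v < e →
      ∀ {x : E3}, x ∈ K v → ∃ y : E2, (y j = 0 ∨ y j = 1) ∧ y (1 - j) = b ∧ emb y = B x := by
    intro e v j b hKe hv x hx
    have h1 : x ∈ bdS K e := by
      simp only [bdS, mem_iUnion, mem_ofPred_eq, exists_prop]
      exact ⟨v, hv, hx⟩
    rw [hbd, hKe] at h1
    obtain ⟨⟨y, ⟨h2, h3, h4⟩, h5⟩, h6⟩ := h1
    refine ⟨y, ?_, h4, h5⟩
    by_contra hc
    push Not at hc
    exact h6 (ri_side B (lt_of_le_of_ne h2 hc.1.symm) (lt_of_le_of_ne h3 hc.2) h4 h5)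
  -- the boundary of the square
  have hbdy : ∀ x ∈ bdS K τ, ∃ (j : Fin 2) (b : ℝ), (b = 0 ∨ b = 1) ∧
      x ∈ SkN1_477.side B j b := by
    intro x hx
    rw [hbd, hK] at hx
    obtain ⟨⟨y, hy, hyx⟩, h2⟩ := hx
    by_contra hc
    push Not at hc
    refine h2 (ri_usq B (y := y) (fun i => ?_) hyx)
    have hm : ∀ b, y i = b → x ∈ SkN1_477.side B (1 - i) b := fun b hb =>
      ⟨y, ⟨(hy _).1, (hy _).2, by rw [h01]; exact hb⟩, hyx⟩
    refine ⟨lt_of_le_of_ne (hy i).1 fun h => ?_, lt_of_le_of_ne (hy i).2 fun h => ?_⟩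
    · exact hc _ 0 (Or.inl rfl) (hm 0 h.symm)
    · exact hc _ 1 (Or.inr rfl) (hm 1 h)
  -- edges are below
  have hlt : ∀ {e : Q} (j : Fin 2) (b : ℝ), (b = 0 ∨ b = 1) → dim e = 1 →
      K e = SkN1_477.side B j b → e < τ := by
    intro e j b hb hde hKe
    obtain ⟨x, hx⟩ := exists_opn_pt X e
    refine lt_of_opn X hx ?_ (by omega)
    rw [hK]
    exact side_sub B j hb (by rw [← hKe]; exact hx.1)
  -- the base corner
  have hoτ : C.o τ < τ := C.o_lt τ (by omega)
  have hoτ0 : dim (C.o τ) = 0 := C.o_dim τ (by omega)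
  obtain ⟨p, hp⟩ := exists_opn_pt X (C.o τ)
  have hpb : p ∈ bdS K τ := by
    simp only [bdS, mem_iUnion, mem_ofPred_eq, exists_prop]
    exact ⟨_, hoτ, hp.1⟩
  obtain ⟨y0, hy0, hy0p⟩ : ∃ y : E2, (∀ i, y i = 0 ∨ y i = 1) ∧ emb y = B p := by
    obtain ⟨j, b, hb, hpj⟩ := hbdy p hpb
    obtain ⟨e, hde, hKe⟩ := hs j b hb
    have h1 : C.o τ < e := lt_of_opn X hp (by rw [hKe]; exact hpj) (by omega)
    obtain ⟨y, h2, h3, h4⟩ := hend' j b hKe h1 hp.1
    refine ⟨y, fun i => ?_, h4⟩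
    by_cases hij : i = j
    · rw [hij]; exact h2
    · have e1 : ∀ i j : Fin 2, i ≠ j → i = 1 - j := by decide
      rw [e1 i j hij, h3]; exact hb
  obtain ⟨ε, hε, ha, hb⟩ := exists_eps (hy0 0) (hy0 1)
  -- the edges
  have hes : ∀ s : Fin 4, ∃ e, dim e = 1 ∧ K e = SkN1_477.side B (dr s) (hgt ε s) := fun s =>
    hs _ _ (hgt01 hε s)
  choose es hes1 hesK using hes
  have heslt : ∀ s, es s < τ := fun s => hlt _ _ (hgt01 hε s) (hes1 s) (hesK s)
  -- coordinates of the corners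
  have hcB : ∀ k, B (cor B ε k) = emb ![(1 + ε 0 * cx k) / 2, (1 + ε 1 * cy k) / 2] := fun k => by
    unfold cor corner
    rw [B.apply_symm_apply]
  have hw0 : ∀ s, ∃ y : E2, (y (dr s) = 0 ∨ y (dr s) = 1) ∧ y (1 - dr s) = hgt ε s ∧
      emb y = B (cor B ε (w0 s)) := by
    intro s
    refine ⟨_, ?_, ?_, (hcB _).symm⟩
    · fin_cases s
      · show (1 + ε 0 * (-1)) / 2 = 0 ∨ (1 + ε 0 * (-1)) / 2 = 1
        rcases hε 0 with h | h <;> rw [h] <;> norm_num
      · show (1 + ε 0 * (-1)) / 2 = 0 ∨ (1 + ε 0 * (-1)) / 2 = 1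
        rcases hε 0 with h | h <;> rw [h] <;> norm_num
      · show (1 + ε 1 * (-1)) / 2 = 0 ∨ (1 + ε 1 * (-1)) / 2 = 1
        rcases hε 1 with h | h <;> rw [h] <;> norm_num
      · show (1 + ε 1 * (-1)) / 2 = 0 ∨ (1 + ε 1 * (-1)) / 2 = 1
        rcases hε 1 with h | h <;> rw [h] <;> norm_num
    · fin_cases s
      · show (1 + ε 1 * (-1)) / 2 = (1 - ε 1) / 2
        ring
      · show (1 + ε 1 * 1) / 2 = (1 + ε 1) / 2
        ring
      · show (1 + ε 0 * (-1)) / 2 = (1 - ε 0) / 2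
        ring
      · show (1 + ε 0 * 1) / 2 = (1 + ε 0) / 2
        ring
  have hw1 : ∀ s, ∃ y : E2, (y (dr s) = 0 ∨ y (dr s) = 1) ∧ y (1 - dr s) = hgt ε s ∧
      emb y = B (cor B ε (w1 s)) := by
    intro s
    refine ⟨_, ?_, ?_, (hcB _).symm⟩
    · fin_cases s
      · show (1 + ε 0 * 1) / 2 = 0 ∨ (1 + ε 0 * 1) / 2 = 1
        rcases hε 0 with h | h <;> rw [h] <;> norm_num
      · show (1 + ε 0 * 1) / 2 = 0 ∨ (1 + ε 0 * 1) / 2 = 1
        rcases hε 0 with h | h <;> rw [h] <;> norm_num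
      · show (1 + ε 1 * 1) / 2 = 0 ∨ (1 + ε 1 * 1) / 2 = 1
        rcases hε 1 with h | h <;> rw [h] <;> norm_num
      · show (1 + ε 1 * 1) / 2 = 0 ∨ (1 + ε 1 * 1) / 2 = 1
        rcases hε 1 with h | h <;> rw [h] <;> norm_num
    · fin_cases s
      · show (1 + ε 1 * (-1)) / 2 = (1 - ε 1) / 2
        ring
      · show (1 + ε 1 * 1) / 2 = (1 + ε 1) / 2
        ring
      · show (1 + ε 0 * (-1)) / 2 = (1 - ε 0) / 2
        ring
      · show (1 + ε 0 * 1) / 2 = (1 + ε 0) / 2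
        ring
  -- the vertices
  have hv : ∀ k : Fin 4, ∃ v, dim v = 0 ∧ cor B ε k ∈ K v := by
    have h0 : ∀ s, ∃ v, dim v = 0 ∧ cor B ε (w0 s) ∈ K v := fun s => by
      obtain ⟨y, h1, h2, h3⟩ := hw0 s
      obtain ⟨v, -, h4, h5⟩ := hend _ _ (hes1 s) (hesK s) h1 h2 h3
      exact ⟨v, h4, h5⟩
    have h1 : ∀ s, ∃ v, dim v = 0 ∧ cor B ε (w1 s) ∈ K v := fun s => by
      obtain ⟨y, h1, h2, h3⟩ := hw1 s
      obtain ⟨v, -, h4, h5⟩ := hend _ _ (hes1 s) (hesK s) h1 h2 h3
      exact ⟨v, h4, h5⟩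
    intro k
    fin_cases k
    · exact h0 0
    · exact h1 0
    · exact h0 1
    · exact h1 1
  choose v hv0 hvc using hv
  have hl0 : ∀ s, v (w0 s) < es s := fun s => by
    refine lt_of_opn X (opn_of_dim0 X (hv0 _) (hvc _)) ?_ (by rw [hv0, hes1]; omega)
    rw [hesK]; exact cor_w0 B hε s
  have hl1 : ∀ s, v (w1 s) < es s := fun s => by
    refine lt_of_opn X (opn_of_dim0 X (hv0 _) (hvc _)) ?_ (by rw [hv0, hes1]; omega)
    rw [hesK]; exact cor_w1 B hε s
  have hcne : ∀ s, cor B ε (w0 s) ≠ cor B ε (w1 s) := fun s h => by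
    have h1 : (![(1 + ε 0 * cx (w0 s)) / 2, (1 + ε 1 * cy (w0 s)) / 2] : E2) =
        ![(1 + ε 0 * cx (w1 s)) / 2, (1 + ε 1 * cy (w1 s)) / 2] :=
      emb_inj (by rw [← hcB, ← hcB, h])
    have k0 := congrFun h1 0
    have k1 := congrFun h1 1
    have k0' : (1 + ε 0 * cx (w0 s)) / 2 = (1 + ε 0 * cx (w1 s)) / 2 := k0
    have k1' : (1 + ε 1 * cy (w0 s)) / 2 = (1 + ε 1 * cy (w1 s)) / 2 := k1
    fin_cases s
    · have : (1 + ε 0 * (-1)) / 2 = (1 + ε 0 * 1) / 2 := k0'
      rcases hε 0 with h | h <;> rw [h] at this <;> norm_num at this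
    · have : (1 + ε 0 * (-1)) / 2 = (1 + ε 0 * 1) / 2 := k0'
      rcases hε 0 with h | h <;> rw [h] at this <;> norm_num at this
    · have : (1 + ε 1 * (-1)) / 2 = (1 + ε 1 * 1) / 2 := k1'
      rcases hε 1 with h | h <;> rw [h] at this <;> norm_num at this
    · have : (1 + ε 1 * (-1)) / 2 = (1 + ε 1 * 1) / 2 := k1'
      rcases hε 1 with h | h <;> rw [h] at this <;> norm_num at this
  have hbase3 : cor B ε 3 = p := by
    apply B.injective
    rw [hcB, ← hy0p]
    congr 1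
    funext i
    have hi : ∀ i : Fin 2, i = 0 ∨ i = 1 := by decide
    rcases hi i with rfl | rfl
    · show (1 + ε 0 * 1) / 2 = y0 0
      rw [mul_one, ha]
    · show (1 + ε 1 * 1) / 2 = y0 1
      rw [mul_one, hb]
  -- the skeleton
  let S : SqC C τ :=
    { es := es
      lt := heslt
      d1 := hes1
      inj := fun s s' h => by
        have h1 : SkN1_477.side B (dr s) (hgt ε s) = SkN1_477.side B (dr s') (hgt ε s') := by
          rw [← hesK, ← hesK, h]
        obtain ⟨h2, h3⟩ := side_inj B (hgt01 hε s') h1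
        have n0 : ε 0 ≠ -ε 0 := by rcases hε 0 with h | h <;> rw [h] <;> norm_num
        have n1 : ε 1 ≠ -ε 1 := by rcases hε 1 with h | h <;> rw [h] <;> norm_num
        have g0 : hgt ε 0 = (1 - ε 1) / 2 := rfl
        have g1 : hgt ε 1 = (1 + ε 1) / 2 := rfl
        have g2 : hgt ε 2 = (1 - ε 0) / 2 := rfl
        have g3 : hgt ε 3 = (1 + ε 0) / 2 := rfl
        have d0 : dr 0 = 0 := rfl
        have d1 : dr 1 = 0 := rfl
        have d2 : dr 2 = 1 := rfl
        have d3 : dr 3 = 1 := rfl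
        have z01 : (0 : Fin 2) ≠ 1 := by decide
        have h4 : ∀ s : Fin 4, s = 0 ∨ s = 1 ∨ s = 2 ∨ s = 3 := by decide
        rcases h4 s with rfl | rfl | rfl | rfl <;> rcases h4 s' with rfl | rfl | rfl | rfl <;>
          first
          | rfl
          | (exfalso; first
              | exact z01 h2
              | exact z01 h2.symm
              | (rw [g0, g1] at h3; exact n1 (by linarith))
              | (rw [g1, g0] at h3; exact n1 (by linarith))
              | (rw [g2, g3] at h3; exact n0 (by linarith))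
              | (rw [g3, g2] at h3; exact n0 (by linarith)))
      onto := fun σ hσ hσ1 => by
        obtain ⟨x, hx⟩ := exists_opn_pt X σ
        have hxb : x ∈ bdS K τ := by
          simp only [bdS, mem_iUnion, mem_ofPred_eq, exists_prop]
          exact ⟨σ, hσ, hx.1⟩
        obtain ⟨j, b, hb', hxj⟩ := hbdy x hxb
        have : ∃ s, dr s = j ∧ hgt ε s = b := by
          have hj : j = 0 ∨ j = 1 := by omega
          rcases hj with rfl | rfl
          · rcases hε 1 with h | h <;> rcases hb' with h' | h'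
            · exact ⟨0, rfl, by show (1 - ε 1) / 2 = b; rw [h, h']; norm_num⟩
            · exact ⟨1, rfl, by show (1 + ε 1) / 2 = b; rw [h, h']; norm_num⟩
            · exact ⟨1, rfl, by show (1 + ε 1) / 2 = b; rw [h, h']; norm_num⟩
            · exact ⟨0, rfl, by show (1 - ε 1) / 2 = b; rw [h, h']; norm_num⟩
          · rcases hε 0 with h | h <;> rcases hb' with h' | h'
            · exact ⟨2, rfl, by show (1 - ε 0) / 2 = b; rw [h, h']; norm_num⟩
            · exact ⟨3, rfl, by show (1 + ε 0) / 2 = b; rw [h, h']; norm_num⟩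
            · exact ⟨3, rfl, by show (1 + ε 0) / 2 = b; rw [h, h']; norm_num⟩
            · exact ⟨2, rfl, by show (1 - ε 0) / 2 = b; rw [h, h']; norm_num⟩
        obtain ⟨s, rfl, rfl⟩ := this
        refine ⟨s, ?_⟩
        by_contra hne
        have h1 : σ ≤ es s := X.opn_le hx (by rw [hesK]; exact hxj)
        have h2 := X.mono _ _ (lt_of_le_of_ne h1 (Ne.symm hne))
        rw [hσ1, hes1] at h2
        omega
      v := v
      l0 := hl0
      l1 := hl1
      ne := fun s h => hcne s (pt_of_dim0 X (hv0 _) (hvc _) (by rw [h]; exact hvc _))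
      ob := fun s => by
        have ho : C.o (es s) < es s := C.o_lt _ (by rw [hes1])
        have ho0 : dim (C.o (es s)) = 0 := C.o_dim _ (by rw [hes1])
        obtain ⟨x, hx⟩ := exists_opn_pt X (C.o (es s))
        obtain ⟨y, h1, h2, h3⟩ := hend' _ _ (hesK s) ho hx.1
        have h4 : x = cor B ε (w0 s) ∨ x = cor B ε (w1 s) := by
          have e1 : ∀ i j : Fin 2, i ≠ j → i = 1 - j := by decide
          obtain ⟨z0, k1, k2, k3⟩ := hw0 s
          obtain ⟨z1, k4, k5, k6⟩ := hw1 s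
          have k7 : z0 (dr s) ≠ z1 (dr s) := fun h => hcne s (by
            apply B.injective
            rw [← k3, ← k6]
            congr 1
            funext i
            by_cases hi : i = dr s
            · rw [hi]; exact h
            · rw [e1 i _ hi, k2, k5])
          have k8 : y (dr s) = z0 (dr s) ∨ y (dr s) = z1 (dr s) := by
            rcases h1 with h | h <;> rcases k1 with h' | h' <;> rcases k4 with h'' | h'' <;>
              first
              | exact absurd (h'.trans h''.symm) k7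
              | exact Or.inl (h.trans h'.symm)
              | exact Or.inr (h.trans h''.symm)
          rcases k8 with h | h
          · left
            apply B.injective
            rw [← h3, ← k3]
            congr 1
            funext i
            by_cases hi : i = dr s
            · rw [hi]; exact h
            · rw [e1 i _ hi, h2, k2]
          · right
            apply B.injective
            rw [← h3, ← k6]
            congr 1
            funext i
            by_cases hi : i = dr s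
            · rw [hi]; exact h
            · rw [e1 i _ hi, h2, k5]
        rcases h4 with h | h
        · left
          exact eq_of_dim0 X ho0 (hv0 _) hx.1 (by rw [h]; exact hvc _)
        · right
          exact eq_of_dim0 X ho0 (hv0 _) hx.1 (by rw [h]; exact hvc _)
      base := eq_of_dim0 X hoτ0 (hv0 3) hp.1 (by rw [← hbase3]; exact hvc 3) }
  have hθ : ∀ s : Fin 4, ∃ o : ℝ, (o = 1 ∨ o = -1) ∧ ∀ t, |t| ≤ 1 →
      chi K (es s) ((chU hε B).f (sd s t)) = o * t := by
    intro s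
    obtain ⟨c, hc, hcz⟩ := chi_eq (hA (es s) (hes1 s))
    have himg : sdp B ε s '' Icc (-1) 1 = K (es s) := by
      rw [hesK, ← sd_side hε B s, image_image]
      refine image_congr fun t _ => ?_
      rw [sdp_apply]
      rfl
    obtain ⟨o, ho, h1⟩ := affC_path c hc (sdp B ε s) himg
    refine ⟨o, ho, fun t ht => ?_⟩
    rw [hcz, ← h1 t ht, sdp_apply]
    rfl
  choose θ hθ1 hθ2 using hθ
  refine ⟨ε, hε, ⟨S, hd, chUK hε B hK, ?_, fun s t ht => ?_, ?_, θ, hθ1, hθ2⟩, ?_, rfl⟩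
  · show (chU hε B).f '' sph 2 = bdS K τ
    rw [chU_sph hε B]
    ext x
    constructor
    · rintro ⟨j, b, hb', hx⟩
      obtain ⟨e, h1, h2⟩ := hs j b hb'
      simp only [bdS, mem_iUnion, mem_ofPred_eq, exists_prop]
      exact ⟨e, hlt j b hb' h1 h2, by rw [h2]; exact hx⟩
    · intro hx
      exact hbdy x hx
  · show (chU hε B).f (sd s t) ∈ K (es s)
    rw [hesK, ← sd_side hε B s]
    exact ⟨_, ⟨t, abs_le.1 ht, rfl⟩, rfl⟩
  · have h0 : sd 1 1 = ![1, 1] := by
      funext i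
      have hi : ∀ i : Fin 2, i = 0 ∨ i = 1 := by decide
      rcases hi i with rfl | rfl <;> simp [sd]
    have h1 : (chU hε B).f (sd 1 1) = p := by
      rw [← hbase3, h0]
      exact chU_corner hε B 1 1
    show (chU hε B).f (sd 1 1) ∈ K (C.o τ)
    rw [h1]
    exact hp.1
  · exact ⟨hε, hK, hesK, hv0, hvc⟩

end Crest.Agent.R096.Fk_522
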