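import Crest.Agent.R096.Fk15_522
import Crest.Agent.R096.Fk20_522
import Crest.Agent.R096.Mi4_117

/-!
# R096 (row 96), P4-FACE, part 21: **MESH-INST WITH DESIGNATED FACES**: the predicate `SpecXF` (bands
on the edges + structure of the designated faces) and the discharge of `hX0`, `hX1`, `hX2`, `ruleN`
of 117's `mesh_instT` / 487's `StO.meshX` (helper522)
-/

set_option autoImplicit false
set_option linter.unusedSectionVars false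

open Set Metric Filter Topology

namespace Crest.Agent.R096.Fk_522

open Crest.Agent.R096.Ce_537 Crest.Agent.R096.Bd_416 Crest.Agent.R096.Fsw_928
open Crest.Agent.R096.Mxs_487 (AffC LamK)
open Crest.Agent.R096.St_147 Crest.Agent.R096.Seq_213 Crest.Agent.R096.Lm_117
open Crest.Agent.R096.Mi_117 (MGeo TrkX mesh_instT)
open Crest.Agent.R096.Be_416 (BaseC)
open Crest.Agent.R96.Nu1_199 Crest.Agent.R96.Nu2_199
open Crest.Agent.R96.Nu3_199 Crest.Agent.R96.Nu5_199 Crest.Agent.R96.Nu6_199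

open scoped Classical

section spec

variable {Q : Type} [PartialOrder Q] {dim : Q → ℕ} {J Fam : Type}
variable {E : Type*} [NormedAddCommGroup E] [NormedSpace ℝ E]

/-- the widths of the bands on the edges (per unit of weight) -/
noncomputable def wdT (C : Cmb Q dim J Fam) (wt : J → ℝ) (δ : Q → ℝ) (δm ε : ℝ) (th : Q → ℝ)
    (q : Q) : ℝ :=
  4 * (1 - δm) * (1 - ε) * (th q * uq C wt δ q)

/-- **bands on the edges and the structure of the designated faces** -/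
def SpecXF (C : Cmb Q dim J Fam) (K : Q → Set E) (wt : J → ℝ) (δ : ℝ) (wd : Q → ℝ)
    (χ : Q → E → ℝ) (P1 P2 : Par) (b η : ℝ) {N : Set Q} (des : ∀ τ ∈ N, Des C K χ τ) (q : Q)
    (M : Bd_416.Lam (K q) (C.I q)) : Prop :=
  SpecE C K wt δ wd χ q M ∧ ∀ h : q ∈ N, SpecF C K wt δ wd χ P1 P2 b η (des q h) M

/-- the coordinate `χ` of the edges is the one of every affine chart, up to the sign -/
def SgnC (K : Q → Set E) (dim : Q → ℕ) (χ : Q → E → ℝ) : Prop :=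
  ∀ τ, dim τ = 1 → ∀ e : PLEquiv (cube 1) (K τ), AffC e →
    (∀ z ∈ K τ, e.g z 0 = χ τ z) ∨ (∀ z ∈ K τ, e.g z 0 = - χ τ z)

lemma sgnC_chi (K : Q → Set E) (dim : Q → ℕ) : SgnC K dim (chi K) := fun _ _ e he =>
  chi_chart e he

end spec

variable {ι Φ W Q J Fm : Type} {M : MeshC ι Φ W} [PartialOrder Q] {dim : Q → ℕ}
variable {L : LM M Q dim} {fam : J → Fm} {s : GSt M fam}
variable {E : Type*} [NormedAddCommGroup E] [NormedSpace ℝ E] [FiniteDimensional ℝ E]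
variable {h : LF L s} {Lam : J → Q → ZMod 2} {hLam : ∀ j c, L.toSk.XL (gP s j) (Lam j) c}
variable {K : Q → Set E} {Ω : Set E} {R : Set Q} {g0 : Gd E J}
  {P0 : ∀ q, (cmb h Lam hLam).I q → Set E} {c0 : ∀ q, (cmb h Lam hLam).I q → E → ℝ}
  {K₀ δ : Q → ℝ} {ε δm ε' b2 η : ℝ} {b : ℕ → ℝ} {wt : J → ℝ} {th : Q → ℝ} {χ : Q → E → ℝ}
  {P1 P2 : Par} {N : Set Q} {des : ∀ τ ∈ N, Des (cmb h Lam hLam) K χ τ}

/-- **`hX0`** -/
theorem specXF_0 {wd : Q → ℝ} {τ : Q} (hd : dim τ = 0)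
    (M' : Bd_416.Lam (K τ) ((cmb h Lam hLam).I τ)) :
    SpecXF (cmb h Lam hLam) K wt δm wd χ P1 P2 b2 η des τ M' :=
  ⟨fun h1 => by omega, fun h' => by have := (des τ h').d2; omega⟩

/-- **`hX1`** -/
theorem specXF_1 (X : Cplx Ω Q dim K) (hχ : SgnC K dim χ) {τ : Q} (hd : dim τ = 1)
    (e : PLEquiv (cube 1) (K τ)) (ha : AffC e) (p : (cmb h Lam hLam).I τ → ℝ)
    (hE : Ed (fun i => 4 * (1 - δm) * (1 - ε) * (th τ * uq (cmb h Lam hLam) wt δ τ) *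
      wt ((cmb h Lam hLam).col τ i)) p)
    (hm : ∀ i, |p i| + 4 * (1 - δm) * (1 - ε) * (th τ * uq (cmb h Lam hLam) wt δ τ) *
      wt ((cmb h Lam hLam).col τ i) / 2 < 1 - δm) :
    SpecXF (cmb h Lam hLam) K wt δm (wdT (cmb h Lam hLam) wt δ δm ε th) χ P1 P2 b2 η des τ
      ((edgeLam hE).pull e.symm (X.isClosed τ)) :=
  ⟨specE_edge (X.isClosed τ) e (hχ τ hd e ha) hE hm,
    fun h' => by have := (des τ h').d2; omega⟩

/-- **`hX2`** -/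
theorem specXF_2 {wd : Q → ℝ} {D : Set Q} {g : Gd E J} {P : ∀ q, (cmb h Lam hLam).I q → Set E}
    {c : ∀ q, (cmb h Lam hLam).I q → E → ℝ} (H : Inv (cmb h Lam hLam) K D g P c)
    (X : Cplx Ω Q dim K) {τ : Q} (hd : 2 ≤ dim τ) (hN : τ ∉ N) (hτ : ∀ σ < τ, σ ∈ D) {κ b' : ℝ}
    {h' ρ : (cmb h Lam hLam).I τ → ℝ} (Dp : Dep (bdLam H X τ hτ) κ b' h' ρ) {n : ℕ}
    (e : PLEquiv (cube n) (K τ)) (he : e.f '' sph n = bdS K τ) :
    SpecXF (cmb h Lam hLam) K wt δm wd χ P1 P2 b2 η des τ (Dp.fillBall e he) :=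
  ⟨fun h1 => by omega, fun h' => (hN h').elim⟩

/-- **`ruleN`** -/
theorem specXF_N (X : Cplx Ω Q dim K) (T : Top3 L) (hconv : ∀ τ, Convex ℝ (K τ))
    (hcpt : ∀ τ, IsCompact (K τ)) (hbd : ∀ τ, bdS K τ = K τ \ ri (K τ))
    (hw : ∀ j, 0 < wt j) (hb0 : ∀ n, 0 < b n) (hb2 : ∀ n, b n < 1/2)
    {Λ1 A0 : ℝ} (hdep : HasDep P1 P2 δm η) (hcr : Crude P1 P2 Λ1) (hΛ1 : 0 ≤ Λ1)
    {wd : Q → ℝ} {D : Set Q} {g : Gd E J} {P : ∀ q, (cmb h Lam hLam).I q → Set E}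
    {c : ∀ q, (cmb h Lam hLam).I q → E → ℝ} (H : Inv (cmb h Lam hLam) K D g P c) {τ : Q}
    (hN : τ ∈ N) (hT : ∀ q ∈ D, TrkX X R g0 P0 c0
      (SpecXF (cmb h Lam hLam) K wt δm wd χ P1 P2 (b 2) η des) K₀ δ ε' b wt (dim τ) g P c q)
    (hR : τ ∉ R) (hτ : ∀ σ < τ, σ ∈ D) (hNR : ∀ s', (des τ hN).S.es s' ∉ R)
    {T' : Fin 2 → Finset J} {cc : Fin 2 → Fm} {σ a : Fin 2 → ℝ} {m : ℝ}
    (hDP : DP (des τ hN).S wt T' cc σ a m)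
    (hNum : NumF (des τ hN).S wt ((des τ hN).nu wd) a m δm η)
    (hKN : Λ1 * 16 * A0 / (b 2 * αX ((des τ hN).nu wd)) ≤
        K₀ τ * (Wd (cmb h Lam hLam) wt τ + δ τ))
    {B0 : E ≃ᵃ[ℝ] E} (hB0 : AAc 2 (B0 '' K τ) ≤ A0)
    (hB1 : ∀ z ∈ K τ, MB B0 id 2 (des τ hN).A.g (K τ) z) :
    ∃ (e' : PLEquiv (cube (dim τ)) (K τ)) (he' : e'.f '' sph (dim τ) = bdS K τ)
      (κ : ℝ) (h' ρ : (cmb h Lam hLam).I τ → ℝ) (Dp : Dep (bdLam H X τ hτ) κ (b (dim τ)) h' ρ),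
      (∀ x x', Arc_778.RlG (cmb h Lam hLam) K c τ x x' → ρ x' < ρ x) ∧
      SpecXF (cmb h Lam hLam) K wt δm wd χ P1 P2 (b 2) η des τ (Dp.fillBall e' he') ∧
      ∀ B : E ≃ᵃ[ℝ] E, ∀ x, ∀ z ∈ K τ,
        LB B (K₀ τ * (AAc (dim τ) (B '' K τ) * (Wd (cmb h Lam hLam) wt τ + δ τ)) /
          wt ((cmb h Lam hLam).col τ x)) ((Dp.fillBall e' he').c x) (K τ) z := by
  have hC : Arc_778.CmbG (cmb h Lam hLam) R (ek h) :=
    cmbG_lm T h Lam hLam fun q _ hd => ek_inj h q hd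
  have hSE : ∀ q M', Mi_117.SpecGX (cmb h Lam hLam) K (ek h) (SpecXF (cmb h Lam hLam) K wt δm
      wd χ P1 P2 (b 2) η des) q M' → SpecE (cmb h Lam hLam) K wt δm wd χ q M' :=
    fun q M' h' => h'.2.1
  have hd := (des τ hN).d2
  have hb : IsBall 2 (K τ) (K τ \ ri (K τ)) := by
    rw [← hbd, ← hd]; exact X.isBall τ
  have hα : 0 < αX ((des τ hN).nu wd) := by
    unfold αX αA αB
    exact lt_min (lt_min (hNum.ν0 2) (hNum.ν0 3)) (lt_min (hNum.ν0 0) (hNum.ν0 1))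
  have hLg : ∀ F ∈ FrA E, ∀ z ∈ K τ,
      MB F id (2 * (A0 * AAc 2 (F '' K τ))) (des τ hN).A.g (K τ) z := by
    -- the charts of the designated cells
    rintro _ ⟨F, rfl⟩ z hz
    filter_upwards [hB1 z hz, MB_frame (hconv τ) (hcpt τ) hb.nonempty hb B0 F hz] with y hy hy'
    have h3 := AAc_pos (E := E) 2 (F '' K τ)
    have h4 : AAc 2 (B0 '' K τ) * AAc 2 (F '' K τ) * dist (F y) (F z) ≤
        A0 * AAc 2 (F '' K τ) * dist (F y) (F z) := by gcongr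
    calc dist (id ((des τ hN).A.g y)) (id ((des τ hN).A.g z)) ≤ 2 * dist (B0 y) (B0 z) := hy
      _ ≤ 2 * (A0 * AAc 2 (F '' K τ) * dist (F y) (F z)) := by linarith
      _ = _ := by ring
  have hΛ : ∀ F ∈ FrA E,
      Λ1 * (16 / αX ((des τ hN).nu wd)) / (2 * b (dim τ)) * (2 * (A0 * AAc 2 (F '' K τ))) ≤
      K₀ τ * (AAc (dim τ) (F '' K τ) * (Wd (cmb h Lam hLam) wt τ + δ τ)) := by
    -- the numbers of the designated cells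
    rintro _ ⟨F, rfl⟩
    have hAc := AAc_pos (E := E) 2 (F '' K τ)
    have hb' := hb0 2
    have h4 := mul_le_mul_of_nonneg_right hKN hAc.le
    rw [hd]
    calc Λ1 * (16 / αX ((des τ hN).nu wd)) / (2 * b 2) * (2 * (A0 * AAc 2 (F '' K τ)))
        = Λ1 * 16 * A0 / (b 2 * αX ((des τ hN).nu wd)) * AAc 2 (F '' K τ) := by
          field_simp
      _ ≤ K₀ τ * (Wd (cmb h Lam hLam) wt τ + δ τ) * AAc 2 (F '' K τ) := h4
      _ = _ := by ring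
  obtain ⟨e', he', κ, h', ρ, Dp, h1, h2, h3⟩ := rule_faceL (P1 := P1) (P2 := P2) (η := η)
    (Λ0 := Λ1) (Fr := fun _ => FrA E)
    (Λ' := fun F => K₀ τ * (AAc (dim τ) (F '' K τ) * (Wd (cmb h Lam hLam) wt τ + δ τ)))
    hdep hcr hΛ1 hb0 hb2 hw hSE H X hτ hT (des τ hN) hNR (hC.ends τ hR hd) hDP hNum
    (Lg := fun F => 2 * (A0 * AAc 2 (F '' K τ))) hLg hΛ
    (fun Dp hρ n hn e he hS => ⟨Arc_778.specG2 H X (by omega) hτ Dp hρ _ _,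
      fun h1 => by omega, fun _ => hS⟩)
  exact ⟨e', he', κ, h', ρ, Dp, h1, h2.2, fun F x z hz => h3 F ⟨F, rfl⟩ x z hz⟩

/-- **MESH-INST WITH DESIGNATED FACES** -/
theorem mesh_instF (X : Cplx Ω Q dim K) (T : Top3 L) (hconv : ∀ τ, Convex ℝ (K τ))
    (hcpt : ∀ τ, IsCompact (K τ)) (hbd : ∀ τ, bdS K τ = K τ \ ri (K τ))
    (hw : ∀ j, 0 < wt j) (hb0 : ∀ n, 0 < b n) (hb2 : ∀ n, b n < 1/2) (hε0 : 0 < ε) (hε1 : ε < 1)
    (hδm : 0 ≤ δm) (hδm1 : δm < 1) (hε'0 : 0 < ε') (hε'1 : ε' < 1)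
    (hth0 : ∀ τ, 0 < th τ) (hth1 : ∀ τ, th τ ≤ 1) (hth : ∀ τ, 2 ≤ dim τ → th τ = 1)
    (hε' : ∀ τ ∉ R, dim τ = 1 → 1 - ε' ≤ (1 - δm) * (1 - ε) * th τ)
    (hK : ∀ q, 0 ≤ K₀ q) (hKm : ∀ σ τ : Q, σ < τ → K₀ σ ≤ K₀ τ)
    (hδ : ∀ q, 0 < δ q) {κb : ℝ} (B : BaseC (cmb h Lam hLam) K wt κb R g0 P0 c0)
    (hKR : ∀ q ∈ R, κb ≤ K₀ q) (hχ : SgnC K dim χ)
    (des : ∀ τ ∈ N, Des (cmb h Lam hLam) K χ τ)
    {Λ1 A0 : ℝ} (hdep : HasDep P1 P2 δm η) (hcr : Crude P1 P2 Λ1) (hΛ1 : 0 ≤ Λ1)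
    (hNR : ∀ τ (h' : τ ∈ N), ∀ s', (des τ h').S.es s' ∉ R)
    (hDP : ∀ τ (h' : τ ∈ N), ∃ (T' : Fin 2 → Finset J) (cc : Fin 2 → Fm) (σ a : Fin 2 → ℝ)
      (m : ℝ), DP (des τ h').S wt T' cc σ a m ∧ NumF (des τ h').S wt
        ((des τ h').nu (wdT (cmb h Lam hLam) wt δ δm ε th)) a m δm η)
    (hKN : ∀ τ (h' : τ ∈ N),
      Λ1 * 16 * A0 / (b 2 * αX ((des τ h').nu (wdT (cmb h Lam hLam) wt δ δm ε th))) ≤
        K₀ τ * (Wd (cmb h Lam hLam) wt τ + δ τ))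
    (hfr : ∀ τ (h' : τ ∈ N), ∃ B0 : E ≃ᵃ[ℝ] E, AAc 2 (B0 '' K τ) ≤ A0 ∧
      ∀ z ∈ K τ, MB B0 id 2 (des τ h').A.g (K τ) z) :
    ∃ g P c, Inv (cmb h Lam hLam) K univ g P c ∧ MGeo h Lam hLam K R c ∧
      ∀ q, TrkX X R g0 P0 c0 (SpecXF (cmb h Lam hLam) K wt δm
        (wdT (cmb h Lam hLam) wt δ δm ε th) χ P1 P2 (b 2) η des) K₀ δ ε' b wt 4 g P c q :=
  mesh_instT X T hconv hcpt hbd hw hb0 hb2 hε0 hε1 hδm hδm1 hε'0 hε'1 N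
    (fun τ h' => (des τ h').d2.ge) hth0 hth1 (fun τ _ _ hd => hth τ hd) hε' hK hKm hδ B hKR
    (SpecXF (cmb h Lam hLam) K wt δm (wdT (cmb h Lam hLam) wt δ δm ε th) χ P1 P2 (b 2) η des)
    (fun _ _ hd M' => specXF_0 hd M')
    (fun τ _ hd e ha _ _ p hE hm _ => specXF_1 X hχ hd e ha p hE hm)
    (fun D g P c H τ hd _ _ hN hτ κ ρ Dp _ e he => specXF_2 H X hd hN hτ Dp e he)
    (fun D g P c H τ hN hT hR hτ => by
      obtain ⟨T', cc, σ, a, m, hDPτ, hNum⟩ := hDP τ hN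
      obtain ⟨B0, hB0, hB1⟩ := hfr τ hN
      exact specXF_N X T hconv hcpt hbd hw hb0 hb2 hdep hcr hΛ1 H hN hT hR hτ (hNR τ hN) hDPτ
        hNum (hKN τ hN) hB0 hB1)

end Crest.Agent.R096.Fk_522
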