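import Crest.Agent.R096.Fk18_522
import Crest.Agent.R096.Fk21_522

/-!
# R096 (row 96), P4-FACE, part 22: the constant `K₀` of a designated face (helper522)
-/

set_option autoImplicit false
set_option linter.unusedSectionVars false

open Set Metric Filter Topology

namespace Crest.Agent.R096.Fk_522

open Crest.Agent.R096.Ce_537 Crest.Agent.R096.Bd_416 Crest.Agent.R096.Fsw_928
open Crest.Agent.R96.Nu1_199 Crest.Agent.R96.Nu2_199
open Crest.Agent.R96.Nu3_199 Crest.Agent.R96.Nu5_199 Crest.Agent.R96.Nu6_199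

open scoped Classical

variable {Q : Type} [PartialOrder Q] {dim : Q → ℕ} {J Fam : Type}
variable {E : Type*} [NormedAddCommGroup E] [NormedSpace ℝ E]
variable {C : Cmb Q dim J Fam} {K : Q → Set E} {χ : Q → E → ℝ} {τ : Q} {wt : J → ℝ}

/-- **the hypothesis `hKN` of `specXF_N`** with `K₀ τ ≥ 192 Λ Λ1 A0 / β0` -/
theorem hKN_of (G : Des C K χ τ) (hw : ∀ j, 0 < wt j)
    (hends : ∀ x : C.I τ, ∃ a b, a ≠ b ∧ Arc_778.Blw C τ x = {a, b})
    {T : Fin 2 → Finset J} {c : Fin 2 → Fam} {σ a : Fin 2 → ℝ} {m μ Λ η1 : ℝ}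
    (hD : DP G.S wt T c σ a m) (hm : m = η1 * μ) (hμ : 0 < μ) (hΛ : 1 ≤ Λ)
    (hab : ∀ i, a i = 0 ∨ (μ / Λ ≤ a i ∧ a i ≤ μ)) (h11 : 2 * Λ * η1 ≤ 1) (ha : ∃ i, a i ≠ 0)
    {wd : Q → ℝ} (hα0 : 0 < αX (G.nu wd)) (hα : 1 / αX (G.nu wd) ≤ 3 * μ)
    {Λ1 A0 β0 b2 δτ k : ℝ} (hΛ1 : 0 ≤ Λ1) (hA0 : 0 ≤ A0) (hβ : 0 < β0) (hb : β0 ≤ b2)
    (hδ : 0 ≤ δτ) (hk : 192 * Λ * Λ1 * A0 / β0 ≤ k) :
    Λ1 * 16 * A0 / (b2 * αX (G.nu wd)) ≤ k * (Wd C wt τ + δτ) := by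
  have hΛ0 : 0 < Λ := by linarith
  -- the weight of the cell
  have hW : μ / (4 * Λ) ≤ Wd C wt τ := by
    obtain ⟨i, hi⟩ := ha
    have hai : μ / Λ ≤ a i := by
      rcases hab i with h | h
      · exact absurd h hi
      · exact h.1
    obtain ⟨s, hs⟩ : ∃ s, dr s = i := by
      have h2 : i = 0 ∨ i = 1 := by omega
      rcases h2 with rfl | rfl
      · exact ⟨0, rfl⟩
      · exact ⟨2, rfl⟩
    have h1 := hD.W_lo hw s
    rw [hs] at h1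
    have h2 : G.S.W wt s ≤ 2 * Wd C wt τ := G.S.W_le hw hends s
    have h3 : m ≤ μ / (2 * Λ) := by
      rw [hm, le_div_iff₀ (by linarith)]
      have := mul_le_mul_of_nonneg_right h11 hμ.le
      linarith
    have e1 : μ / Λ = 2 * (μ / (2 * Λ)) := by field_simp
    have e2 : μ / (2 * Λ) = 2 * (μ / (4 * Λ)) := by field_simp; norm_num
    rw [e1] at hai
    linarith
  have hb2 : 0 < b2 := by linarith
  have h1 : Λ1 * 16 * A0 / (b2 * αX (G.nu wd)) ≤ Λ1 * 16 * A0 / β0 * (3 * μ) := by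
    have e1 : Λ1 * 16 * A0 / (b2 * αX (G.nu wd)) = Λ1 * 16 * A0 / b2 * (1 / αX (G.nu wd)) := by
      field_simp
    rw [e1]
    have h2 : Λ1 * 16 * A0 / b2 ≤ Λ1 * 16 * A0 / β0 :=
      div_le_div_of_nonneg_left (by positivity) hβ hb
    have h3 : 0 ≤ 1 / αX (G.nu wd) := by positivity
    have h4 : 0 ≤ Λ1 * 16 * A0 / β0 := by positivity
    exact mul_le_mul h2 hα h3 h4
  refine h1.trans ?_
  have h2 : Λ1 * 16 * A0 / β0 * (3 * μ) = 192 * Λ * Λ1 * A0 / β0 * (μ / (4 * Λ)) := by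
    field_simp
    ring
  rw [h2]
  have h5 : 0 ≤ 192 * Λ * Λ1 * A0 / β0 := by positivity
  have h6 : 0 ≤ μ / (4 * Λ) := by positivity
  exact mul_le_mul hk (by linarith) h6 (h5.trans hk)

end Crest.Agent.R096.Fk_522
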