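import Crest.Agent.R096.Fk22_522
import Crest.Agent.R096.Csub9_487

/-!
# R096 (row 96), P4-FACE, part 23: the Lipschitz constant of a designated face in its own frame, from
the numbers of the mesh (helper522)
-/

set_option autoImplicit false
set_option linter.unusedSectionVars false

open Set Metric Filter Topology

namespace Crest.Agent.R096.Fk_522

open Crest.Agent.R096.Ce_537 Crest.Agent.R096.Bd_416 Crest.Agent.R096.Fsw_928
open Crest.Agent.R096.SkN1_477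
open Crest.Agent.R096.SkC1_961 (E3)
open Crest.Agent.R096.St_147 Crest.Agent.R096.Seq_213 Crest.Agent.R096.Lm_117
open Crest.Agent.R096.Mi_117 (TrkX)
open Crest.Agent.R096.Csub_487 (CUe CUe_nonneg C𝒦_le_CUe)
open Crest.Agent.R96.Nu1_199 Crest.Agent.R96.Nu2_199
open Crest.Agent.R96.Nu3_199 Crest.Agent.R96.Nu5_199 Crest.Agent.R96.Nu6_199
open Crest.Agent.R96.Nu7_199 (WE WE_nonneg)

open scoped Classical

/-- the faces of the unit square (in the frame of the square) -/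
def sqF : Set (Set E3) :=
  {emb '' {y : E2 | ∀ j, 0 ≤ y j ∧ y j ≤ 1}} ∪
    ((fun t : Fin 2 × Fin 2 => emb '' {y : E2 | 0 ≤ y t.1 ∧ y t.1 ≤ 1 ∧
      y (1 - t.1) = ((t.2 : ℕ) : ℝ)}) '' univ ∪
    (fun t : Fin 2 × Fin 2 => {emb ![((t.1 : ℕ) : ℝ), ((t.2 : ℕ) : ℝ)]}) '' univ)

lemma finite_sqF : sqF.Finite :=
  (finite_singleton _).union ((finite_univ.image _).union (finite_univ.image _))

lemma exists_fin01 {b : ℝ} (hb : b = 0 ∨ b = 1) : ∃ k : Fin 2, ((k : ℕ) : ℝ) = b := by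
  rcases hb with rfl | rfl
  · exact ⟨0, by simp⟩
  · exact ⟨1, by simp⟩

section cell

variable {Q : Type} [PartialOrder Q] {dim : Q → ℕ} {J Fam : Type} {K : Q → Set E3} {Ω : Set E3}
  {C : Cmb Q dim J Fam} {τ : Q}

/-- the cells below a designated face, in its frame -/
theorem cells_sqF (X : Cplx Ω Q dim K) (hbd : ∀ τ, bdS K τ = K τ \ ri (K τ)) (hd : dim τ = 2)
    {S : SqC C τ} {B : E3 ≃ᵃ[ℝ] E3} {ε : Fin 2 → ℝ} (F : FG S K B ε) :
    ∀ σ ≤ τ, B '' K σ ∈ sqF := by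
  intro σ hσ
  have him : ∀ Z : Set E3, B '' (B ⁻¹' Z) = Z := fun Z => B.surjective.image_preimage Z
  rcases eq_or_lt_of_le hσ with rfl | hlt
  · left
    rw [F.face]
    exact him _
  have h1 := X.mono _ _ hlt
  rw [hd] at h1
  have h2 : dim σ = 1 ∨ dim σ = 0 := by omega
  right
  rcases h2 with h2 | h2
  · left
    obtain ⟨s, rfl⟩ := S.onto σ hlt h2
    obtain ⟨k, hk⟩ := exists_fin01 (hgt01 F.e1 s)
    refine ⟨(dr s, k), mem_univ _, ?_⟩
    rw [F.side s]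
    show emb '' {y : E2 | 0 ≤ y (dr s) ∧ y (dr s) ≤ 1 ∧ y (1 - dr s) = ((k : ℕ) : ℝ)} = _
    rw [hk]
    exact (him _).symm
  · right
    obtain ⟨p, hp⟩ := exists_opn_pt X σ
    have hpb : p ∈ bdS K τ := by
      simp only [bdS, mem_iUnion, mem_ofPred_eq, exists_prop]
      exact ⟨σ, hlt, hp.1⟩
    -- `p` lies in a side
    have hps : ∃ s, p ∈ K (S.es s) := by
      simp only [bdS, mem_iUnion, mem_ofPred_eq, exists_prop] at hpb
      have hb := X.isBall τ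
      rw [hd] at hb
      by_contra hc
      push Not at hc
      -- the boundary of the square consists of the sides
      have h3 : p ∈ K τ \ ri (K τ) := by
        rw [← hbd]
        simp only [bdS, mem_iUnion, mem_ofPred_eq, exists_prop]
        exact ⟨σ, hlt, hp.1⟩
      rw [F.face] at h3
      obtain ⟨⟨y, hy, hyp⟩, h4⟩ := h3
      have h01 : ∀ j : Fin 2, 1 - (1 - j) = j := by decide
      have hm : ∀ (i : Fin 2) (s : Fin 4), dr s = 1 - i → y i = hgt ε s → p ∈ K (S.es s) := by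
        intro i s hs hh
        rw [F.side s, hs]
        exact ⟨y, ⟨(hy _).1, (hy _).2, by rw [h01]; exact hh⟩, hyp⟩
      have g0 : hgt ε 0 = (1 - ε 1) / 2 := rfl
      have g1 : hgt ε 1 = (1 + ε 1) / 2 := rfl
      have g2 : hgt ε 2 = (1 - ε 0) / 2 := rfl
      have g3 : hgt ε 3 = (1 + ε 0) / 2 := rfl
      have k1 : ∀ b : ℝ, (b = 0 ∨ b = 1) → y 1 ≠ b := by
        intro b hb' hyb
        rcases F.e1 1 with h | h <;> rcases hb' with h' | h'
        · exact hc 0 (hm 1 0 rfl (by rw [hyb, g0, h, h']; norm_num))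
        · exact hc 1 (hm 1 1 rfl (by rw [hyb, g1, h, h']; norm_num))
        · exact hc 1 (hm 1 1 rfl (by rw [hyb, g1, h, h']; norm_num))
        · exact hc 0 (hm 1 0 rfl (by rw [hyb, g0, h, h']; norm_num))
      have k0 : ∀ b : ℝ, (b = 0 ∨ b = 1) → y 0 ≠ b := by
        intro b hb' hyb
        rcases F.e1 0 with h | h <;> rcases hb' with h' | h'
        · exact hc 2 (hm 0 2 rfl (by rw [hyb, g2, h, h']; norm_num))
        · exact hc 3 (hm 0 3 rfl (by rw [hyb, g3, h, h']; norm_num))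
        · exact hc 3 (hm 0 3 rfl (by rw [hyb, g3, h, h']; norm_num))
        · exact hc 2 (hm 0 2 rfl (by rw [hyb, g2, h, h']; norm_num))
      refine h4 (ri_usq B (y := y) (fun i => ?_) hyp)
      have hi : ∀ i : Fin 2, i = 0 ∨ i = 1 := by decide
      rcases hi i with rfl | rfl
      · exact ⟨lt_of_le_of_ne (hy 0).1 (k0 0 (Or.inl rfl)).symm,
          lt_of_le_of_ne (hy 0).2 (k0 1 (Or.inr rfl))⟩
      · exact ⟨lt_of_le_of_ne (hy 1).1 (k1 0 (Or.inl rfl)).symm,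
          lt_of_le_of_ne (hy 1).2 (k1 1 (Or.inr rfl))⟩
    obtain ⟨s, hs⟩ := hps
    have hlt' : σ < S.es s := lt_of_opn X hp hs (by rw [h2, S.d1]; omega)
    have h5 : p ∈ K (S.es s) \ ri (K (S.es s)) := by
      rw [← hbd]
      simp only [bdS, mem_iUnion, mem_ofPred_eq, exists_prop]
      exact ⟨σ, hlt', hp.1⟩
    rw [F.side s] at h5
    obtain ⟨⟨y, ⟨y0, y1, yb⟩, hyp⟩, h6⟩ := h5
    have hyj : y (dr s) = 0 ∨ y (dr s) = 1 := by
      by_contra hc
      push Not at hc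
      exact h6 (ri_side B (lt_of_le_of_ne y0 hc.1.symm) (lt_of_le_of_ne y1 hc.2) yb hyp)
    have hyb : y (1 - dr s) = 0 ∨ y (1 - dr s) = 1 := by rw [yb]; exact hgt01 F.e1 s
    have hall : ∀ i, y i = 0 ∨ y i = 1 := fun i => by
      by_cases h : i = dr s
      · rw [h]; exact hyj
      · have e1 : ∀ i j : Fin 2, i ≠ j → i = 1 - j := by decide
        rw [e1 i _ h]; exact hyb
    obtain ⟨k0, hk0⟩ := exists_fin01 (hall 0)
    obtain ⟨k1, hk1⟩ := exists_fin01 (hall 1)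
    have hKσ : K σ = {p} := by
      ext z
      constructor
      · intro hz; exact pt_of_dim0 X h2 hz hp.1
      · rintro rfl; exact hp.1
    refine ⟨(k0, k1), mem_univ _, ?_⟩
    show {emb ![((k0 : ℕ) : ℝ), ((k1 : ℕ) : ℝ)]} = _
    rw [hk0, hk1, hKσ, image_singleton, ← hyp]
    congr 2
    funext i
    have hi : ∀ i : Fin 2, i = 0 ∨ i = 1 := by decide
    rcases hi i with rfl | rfl <;> rfl

/-- cells with the same set are equal -/
lemma K_inj' (X : Cplx Ω Q dim K) {σ σ' : Q} (h : K σ = K σ') : σ = σ' := by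
  obtain ⟨x, hx⟩ := exists_opn_pt X σ
  obtain ⟨x', hx'⟩ := exists_opn_pt X σ'
  exact le_antisymm (X.opn_le hx (by rw [← h]; exact hx.1))
    (X.opn_le hx' (by rw [h]; exact hx'.1))

/-- the weight of the edges of a designated face -/
lemma WE_eq_sq (X : Cplx Ω Q dim K) (S : SqC C τ) (wt : J → ℝ) :
    WE X C wt τ = ∑ s, S.W wt s := by
  have h1 : edg X τ = Finset.univ.image S.es := by
    ext e
    rw [mem_edg X, Finset.mem_image]
    constructor
    · rintro ⟨h, hd⟩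
      obtain ⟨s, rfl⟩ := S.onto e h hd
      exact ⟨s, Finset.mem_univ _, rfl⟩
    · rintro ⟨s, -, rfl⟩
      exact ⟨S.lt s, S.d1 s⟩
  unfold WE
  rw [h1, Finset.sum_image fun s _ s' _ h => S.inj h]
  rfl

end cell

section lm

variable {ι Φ W Q J Fm : Type} {M : MeshC ι Φ W} [PartialOrder Q] {dim : Q → ℕ}
variable {L : LM M Q dim} {fam : J → Fm} {s : GSt M fam}
variable {h : LF L s} {Lam : J → Q → ZMod 2} {hLam : ∀ j c, L.toSk.XL (gP s j) (Lam j) c}
variable {K : Q → Set E3} {Ω : Set E3} {R : Set Q} {g0 g : Gd E3 J}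
  {P0 Pp : ∀ q, (cmb h Lam hLam).I q → Set E3} {c0 c : ∀ q, (cmb h Lam hLam).I q → E3 → ℝ}
  {K₀ δ : Q → ℝ} {ε : ℝ} {b : ℕ → ℝ} {wt : J → ℝ}
  {SpecX : ∀ q, Bd_416.Lam (K q) ((cmb h Lam hLam).I q) → Prop}

/-- **the Lipschitz bound of a designated face in its frame** (hypothesis `hL` of 928's `face_end`,
`CL := CUe K₁ ε₁ 3 sqF`, `d := η1 * μ`) -/
theorem hL_face (X : Cplx Ω Q dim K) (hbd : ∀ τ, bdS K τ = K τ \ ri (K τ)) (hw : ∀ j, 0 < wt j)
    (hb4 : ∀ n, 1/4 ≤ b n) {ε₁ : ℝ} (hε : ε ≤ ε₁) (hε1 : ε₁ < 1) (hK : ∀ q, 0 ≤ K₀ q)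
    (hδ : ∀ q, 0 < δ q) {τ : Q} (hd2 : dim τ = 2) {S : SqC (cmb h Lam hLam) τ}
    {B : E3 ≃ᵃ[ℝ] E3} {ε0 : Fin 2 → ℝ} (F : FG S K B ε0) {d : ℝ} (hd : ∀ σ ≤ τ, δ σ ≤ d)
    (hT : TrkX X R g0 P0 c0 SpecX K₀ δ ε b wt 4 g Pp c τ) {K₁ : ℝ} (hK1 : K₀ τ ≤ K₁)
    (x : (cmb h Lam hLam).I τ) {z : E3} (hz : z ∈ usq B) :
    LB B (CUe K₁ ε₁ 3 sqF * (∑ s', S.W wt s' + d) / wt ((cmb h Lam hLam).col τ x)) (c τ x)
      (K τ) z := by
  have hb0' : ∀ n, 0 < b n := fun n => by have := hb4 n; linarith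
  have hzK : z ∈ K τ := by rw [F.face]; exact hz
  have h1 := hT.ll B ⟨B, rfl⟩ x z hzK
  refine h1.mono (div_le_div_of_nonneg_right ?_ (hw _).le)
  have h3 := Mxs_487.lam_tileK (ε := ε) (K₀ := K₀) (b := b) (C := cmb h Lam hLam) (wt := wt)
    (δ := δ) X hw hb0' hK hδ (q := τ) (by omega) (m := 3) (by omega) finite_sqF
    (cells_sqF X hbd hd2 F) (fun σ _ σ' _ e => K_inj' X e) hd
    (fun _ _ hσ y => Be_416.cmb_ne h Lam hLam hσ y)
  refine h3.trans ?_
  have h4 := C𝒦_le_CUe (hK τ) hK1 hε hε1 hb4 3 sqF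
  have h5 := CUe_nonneg (ε := ε₁) ((hK τ).trans hK1) 3 sqF
  have h6 : 0 ≤ d := (hδ τ).le.trans (hd τ le_rfl)
  have h7 := WE_nonneg (C := cmb h Lam hLam) X hw τ
  have h8 : ∑ e ∈ edg X τ, Wd (cmb h Lam hLam) wt e = ∑ s', S.W wt s' := WE_eq_sq X S wt
  rw [h8]
  have h9 : 0 ≤ ∑ s', S.W wt s' := by rw [← h8]; exact h7
  exact mul_le_mul_of_nonneg_right h4 (add_nonneg h9 h6)

end lm

end Crest.Agent.R096.Fk_522
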