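import Crest.Agent.R096.Fsw13_928

/-!
# R096 (row 96), FACE-SWEEP, part 14: the `L^p` estimate (helper928)
-/

set_option autoImplicit false

open Set Metric Filter Topology MeasureTheory
open scoped ENNReal NNReal

namespace Crest.Agent.R096.Fsw_928

open Crest.Agent.R096.Ce_537 Crest.Agent.R096.Bd_416

/-! ### the uncovered part of a staircase -/

section stair

variable {ι : Type}

/-- the heights which are in no open step -/
def Unc (J : Finset ι) (x ℓ : ι → ℝ) (b : ℝ) : Set ℝ :=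
  {t | t ∈ Ioo (-1:ℝ) 1 ∧ ∀ i ∈ J, b * ℓ i ≤ |t - x i|}

lemma volume_Unc {J : Finset ι} {x ℓ : ι → ℝ} {b μ : ℝ} (hb0 : 0 < b) (hb : b < 1/2)
    (hℓ : ∀ i ∈ J, 0 < ℓ i) (hsep : ∀ i ∈ J, ∀ j ∈ J, i ≠ j → (ℓ i + ℓ j) / 2 ≤ |x i - x j|)
    (hin : ∀ i ∈ J, |x i| + ℓ i / 2 ≤ 1) (hμ : 2 - ∑ i ∈ J, 2 * b * ℓ i ≤ μ) :
    volume (Unc J x ℓ b) ≤ ENNReal.ofReal μ := by
  classical
  set I : ι → Set ℝ := fun i => Ioo (x i - b * ℓ i) (x i + b * ℓ i)
  have hI : ∀ i ∈ J, I i ⊆ Ioo (-1:ℝ) 1 := by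
    intro i hi t ht
    have h1 := hin i hi
    have h2 := hℓ i hi
    have h3 := abs_le.1 (show |x i| ≤ 1 - ℓ i / 2 by linarith)
    have h4 : b * ℓ i ≤ ℓ i / 2 := by nlinarith
    exact ⟨by linarith [ht.1, h3.1], by linarith [ht.2, h3.2]⟩
  have hdis : (J : Set ι).PairwiseDisjoint I := by
    intro i hi j hj hij
    rw [Function.onFun, Set.disjoint_left]
    rintro t ht ht'
    have h1 := hsep i hi j hj hij
    have h2 : |t - x i| < b * ℓ i := abs_lt.2 ⟨by linarith [ht.1], by linarith [ht.2]⟩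
    have h3 : |t - x j| < b * ℓ j := abs_lt.2 ⟨by linarith [ht'.1], by linarith [ht'.2]⟩
    have h4 : |x i - x j| ≤ |t - x i| + |t - x j| := by
      have h5 := abs_sub_le (x i) t (x j)
      have h6 := abs_sub_comm (x i) t
      linarith
    have h5 := hℓ i hi
    have h6 := hℓ j hj
    have h7 : b * ℓ i ≤ ℓ i / 2 := by nlinarith
    have h8 : b * ℓ j ≤ ℓ j / 2 := by nlinarith
    linarith
  have hsub : Unc J x ℓ b ⊆ Ioo (-1:ℝ) 1 \ ⋃ i ∈ J, I i := by
    rintro t ⟨ht, h1⟩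
    refine ⟨ht, ?_⟩
    simp only [mem_iUnion, not_exists]
    intro i hi hc
    have h2 : |t - x i| < b * ℓ i := abs_lt.2 ⟨by linarith [hc.1], by linarith [hc.2]⟩
    exact absurd (h1 i hi) (not_le.2 h2)
  have hmU : MeasurableSet (⋃ i ∈ J, I i) :=
    Finset.measurableSet_biUnion _ fun i _ => measurableSet_Ioo
  have hU : volume (⋃ i ∈ J, I i) = ENNReal.ofReal (∑ i ∈ J, 2 * b * ℓ i) := by
    rw [measure_biUnion_finset hdis (fun i _ => measurableSet_Ioo),
      ENNReal.ofReal_sum_of_nonneg (fun i hi => by have := hℓ i hi; positivity)]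
    refine Finset.sum_congr rfl fun i _ => ?_
    rw [Real.volume_Ioo]
    congr 1; ring
  refine (measure_mono hsub).trans ?_
  rw [measure_sdiff (iUnion₂_subset hI) hmU.nullMeasurableSet (by rw [hU]; exact ENNReal.ofReal_ne_top),
    hU, Real.volume_Ioo, ← ENNReal.ofReal_sub _ (Finset.sum_nonneg fun i hi => by
      have := hℓ i hi; positivity)]
  apply ENNReal.ofReal_le_ofReal
  linarith

end stair

/-! ### areas of strips -/

lemma osq_coord {z : Fin 2 → ℝ} (hz : z ∈ osq) (j : Fin 2) : z j ∈ Ioo (-1:ℝ) 1 := by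
  have h1 : ‖z‖ < 1 := by simpa using hz
  have h2 := (abs_apply_le z j).trans_lt h1
  exact abs_lt.1 h2

lemma volume_strip (j : Fin 2) (U : Set ℝ) :
    volume {z : Fin 2 → ℝ | z ∈ osq ∧ z j ∈ U} ≤ 2 * volume U := by
  have h1 : {z : Fin 2 → ℝ | z ∈ osq ∧ z j ∈ U}
      ⊆ Set.pi univ (fun i => if i = j then U else Ioo (-1:ℝ) 1) := by
    rintro z ⟨hz, hU⟩ i _
    by_cases h : i = j
    · subst h; simpa using hU
    · simpa [h] using osq_coord hz i
  refine (measure_mono h1).trans ?_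
  rw [volume_pi_pi, Fin.prod_univ_two]
  fin_cases j
  · simp
    rw [mul_comm]
    norm_num
  · simp
    norm_num

/-- the main rectangle -/
def MR (P : Par) : Set (Fin 2 → ℝ) := {z | |z 0| < 1 - (P.a + P.m * P.H) ∧ -1 < z 1 ∧ z 1 < -1 + P.H}

lemma isOpen_MR (P : Par) : IsOpen (MR P) :=
  (isOpen_lt (continuous_apply 0).abs continuous_const).inter
    ((isOpen_lt continuous_const (continuous_apply 1)).inter
      (isOpen_lt (continuous_apply 1) continuous_const))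

lemma MR_subset (P : Par) : MR P ⊆ P.Rb := by
  rintro z ⟨h0, h1, h2⟩
  have ha := P.a0
  have hm := mul_pos P.m0 P.H0
  have hH := P.aH
  have hp := P.H0
  have hcube : z ∈ cube 2 := by
    rw [mem_cube2]
    exact ⟨by linarith, abs_le.2 ⟨h1.le, by linarith⟩⟩
  have k1 : (1 + z 1) / P.H ≤ 1 := by rw [div_le_one hp]; linarith
  have k2 : 1 ≤ (1 - |z 0|) / P.a := by rw [le_div_iff₀ ha]; linarith
  have k3 : 1 ≤ (1 - z 1) / P.a := by rw [le_div_iff₀ ha]; linarith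
  have hR : P.R (z 0) (z 1) = (1 + z 1) / P.H := by
    unfold Par.R
    rw [Par.max_neg_eq]
    exact min_eq_right (k1.trans (le_min k2 k3))
  exact ⟨⟨hcube, by rw [hR]; exact k1⟩, hR⟩

lemma volume_compl_MR (P : Par) :
    volume (osq \ MR P) ≤ ENNReal.ofReal (4 * (P.a + P.m * P.H) + 2 * (2 - P.H)) := by
  have ha := P.a0
  have hm := mul_pos P.m0 P.H0
  have hH := P.aH
  have hsub : osq \ MR P ⊆
      ({z | z ∈ osq ∧ z 0 ∈ Ioc (-1:ℝ) (-1 + (P.a + P.m * P.H))} ∪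
        {z | z ∈ osq ∧ z 0 ∈ Ico (1 - (P.a + P.m * P.H)) 1}) ∪
      {z | z ∈ osq ∧ z 1 ∈ Ico (-1 + P.H) 1} := by
    rintro z ⟨hz, hM⟩
    have h0 := osq_coord hz 0
    have h1 := osq_coord hz 1
    by_cases k1 : |z 0| < 1 - (P.a + P.m * P.H)
    · right
      refine ⟨hz, ?_, h1.2⟩
      by_contra hc
      exact hM ⟨k1, h1.1, not_le.1 hc⟩
    · left
      rw [not_lt, le_abs] at k1
      rcases k1 with k1 | k1
      · exact Or.inr ⟨hz, k1, h0.2⟩
      · exact Or.inl ⟨hz, h0.1, by linarith⟩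
  refine (measure_mono hsub).trans ((measure_union_le _ _).trans
    ((add_le_add (measure_union_le _ _) le_rfl).trans ?_))
  refine (add_le_add (add_le_add (volume_strip 0 _) (volume_strip 0 _))
    (volume_strip 1 _)).trans ?_
  rw [Real.volume_Ioc, Real.volume_Ico, Real.volume_Ico]
  have e2 : (2 : ℝ≥0∞) = ENNReal.ofReal 2 := by norm_num
  rw [e2, ← ENNReal.ofReal_mul (by norm_num), ← ENNReal.ofReal_mul (by norm_num),
    ← ENNReal.ofReal_mul (by norm_num), ← ENNReal.ofReal_add (by linarith) (by linarith),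
    ← ENNReal.ofReal_add (by linarith) (by linarith)]
  apply ENNReal.ofReal_le_ofReal
  linarith

/-! ### the main estimate -/

/-- coordinate functional -/
noncomputable def pr (j : Fin 2) : (Fin 2 → ℝ) →L[ℝ] ℝ := ContinuousLinearMap.proj j

@[simp] lemma pr_apply (j : Fin 2) (v : Fin 2 → ℝ) : pr j v = v j := rfl

lemma norm_pr_le (j : Fin 2) : ‖pr j‖ ≤ 1 :=
  ContinuousLinearMap.opNorm_le_bound _ zero_le_one fun v => by
    rw [one_mul]; exact norm_le_pi_norm v j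

lemma norm_smul_pr (s : ℝ) (j : Fin 2) : ‖s • pr j‖ ≤ |s| := by
  rw [norm_smul, Real.norm_eq_abs]
  exact mul_le_of_le_one_right (abs_nonneg _) (norm_pr_le j)

lemma cl_small {x b : ℝ} (hb0 : 0 < b) (hb : b < 1/2) (hx : |x| < b) :
    cl (cl x / (2 * b)) = x / (2 * b) := by
  obtain ⟨h1, h2⟩ := abs_lt.1 hx
  rw [cl_of_mem (show x ∈ Icc (-1/2:ℝ) (1/2) from ⟨by linarith, by linarith⟩)]
  apply cl_of_mem
  constructor
  · rw [le_div_iff₀ (by linarith)]; linarith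
  · rw [div_le_iff₀ (by linarith)]; linarith

lemma cl_large {x b : ℝ} (hb0 : 0 < b) (hb : b < 1/2) (hx : b ≤ |x|) :
    ¬ |cl (cl x / (2 * b))| < 1/2 := by
  rw [le_abs] at hx
  rcases hx with h | h
  · have h1 : b ≤ cl x := by
      have := cl_mono h
      rwa [cl_of_mem (show b ∈ Icc (-1/2:ℝ) (1/2) from ⟨by linarith, hb.le⟩)] at this
    have h2 : cl (cl x / (2 * b)) = 1/2 := by
      apply cl_of_ge
      rw [le_div_iff₀ (by linarith)]; linarith
    rw [h2]; norm_num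
  · have h1 : cl x ≤ -b := by
      have := cl_mono (show x ≤ -b by linarith)
      rwa [cl_of_mem (show -b ∈ Icc (-1/2:ℝ) (1/2) from ⟨by linarith, by linarith⟩)] at this
    have h2 : cl (cl x / (2 * b)) = -1/2 := by
      apply cl_of_le
      rw [div_le_iff₀ (by linarith)]; linarith
    rw [h2]; norm_num [abs_of_neg]

variable {ι : Type} {L : Lam (sph 2) ι} {K b : ℝ} {h ρ : ι → ℝ}

/-- **THE `L^p` ESTIMATE FOR ONE CLASS OF LONG CHORDS** -/
theorem lp_main (D : Dep L K b h ρ) (P P' : Par) {β : ℝ} (h0 : 0 < β) (hβ1 : β ≤ 1)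
    (hdj : Disj L) (j : Fin 2) (J : Finset ι)
    (w x ℓ Kf Mf : ι → ℝ) (Fan : ι → Set (Fin 2 → ℝ)) {s s' W Ec μ p : ℝ} (hp : 0 ≤ p)
    (hW : 0 ≤ W) (hWE : W ≤ Ec)
    (hKf : ∀ i ∈ J, 0 ≤ Kf i ∧ |w i| * Kf i ≤ W)
    (hfan : ∀ i ∈ J, ∀ z ∈ osq, z ∉ Fan i → LC j (Kf i) (fb D P P' β i) (cube 2) z)
    (hMf : ∀ i ∈ J, 0 ≤ Mf i ∧ |w i| * Mf i ≤ Ec)
    (hcr : ∀ i ∈ J, ∀ z ∈ cube 2, Pc_117.LL (Mf i) (fb D P P' β i) (cube 2) z)
    (hmain : ∀ i ∈ J, ∀ z ∈ MR P, fb D P P' β i z = cl (cl (-(z j - x i) / ℓ i) / (2 * (b * β))))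
    (hw : ∀ i ∈ J, w i = 2 * (b * β) * s' * ℓ i)
    (hℓ : ∀ i ∈ J, 0 < ℓ i)
    (hsep : ∀ i ∈ J, ∀ k ∈ J, i ≠ k → (ℓ i + ℓ k) / 2 ≤ |x i - x k|)
    (hin : ∀ i ∈ J, |x i| + ℓ i / 2 ≤ 1) (hμ : 2 - ∑ i ∈ J, 2 * (b * β) * ℓ i ≤ μ) :
    ∫⁻ z in osq, ‖fderiv ℝ (GJ D P P' β J w) z + s • pr j‖ₑ ^ p ≤
      ENNReal.ofReal |s - s'| ^ p * volume osq
      + ENNReal.ofReal (2 * W + |s| + |s'|) ^ p *
          (ENNReal.ofReal (4 * (P.a + P.m * P.H) + 2 * (2 - P.H)) + 2 * ENNReal.ofReal μ)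
      + ENNReal.ofReal (2 * Ec + |s| + |s'|) ^ p * ∑ i ∈ J, volume (Fan i) := by
  classical
  have hb : 0 < b * β := mul_pos D.cst.b0 h0
  have hb2 : b * β < 1/2 := lt_of_le_of_lt (mul_le_of_le_one_right D.cst.b0.le hβ1) D.cst.b2
  set c := b * β with hc0
  -- differentiability
  have hΛ : ∀ i ∈ J, ∀ z ∈ cube 2,
      Pc_117.LL (∑ i ∈ J, Mf i) (fb D P P' β i) (cube 2) z := fun i hi z hz =>
    (hcr i hi z hz).mono (Finset.single_le_sum (fun k hk => (hMf k hk).1) hi)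
  have hae := ae_diff D P P' β J (Finset.sum_nonneg fun k hk => (hMf k hk).1) hΛ
  set S3 : Set (Fin 2 → ℝ) := ⋃ i ∈ J, Fan i
  set S2 : Set (Fin 2 → ℝ) := (osq \ MR P ∪ {z | z ∈ osq ∧ z j ∈ Unc J x ℓ c}) \ S3
  set S1 : Set (Fin 2 → ℝ) := {z | z ∈ osq ∧ z ∈ MR P ∧ z j ∉ Unc J x ℓ c}
  have hcov : osq ⊆ S1 ∪ (S2 ∪ S3) := by
    intro z hz
    by_cases h3 : z ∈ S3
    · exact Or.inr (Or.inr h3)
    · by_cases h1 : z ∈ MR P
      · by_cases h2 : z j ∈ Unc J x ℓ c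
        · exact Or.inr (Or.inl ⟨Or.inr ⟨hz, h2⟩, h3⟩)
        · exact Or.inl ⟨hz, h1, h2⟩
      · exact Or.inr (Or.inl ⟨Or.inl ⟨hz, h1⟩, h3⟩)
  have b1 : ∀ᵐ z ∂(volume.restrict osq), z ∈ S1 →
      ‖fderiv ℝ (GJ D P P' β J w) z + s • pr j‖ₑ ≤ ENNReal.ofReal |s - s'| := by
    filter_upwards [hae] with z hd hz
    obtain ⟨hzo, hzM, hzU⟩ := hz
    have hex : ∃ i ∈ J, |z j - x i| < c * ℓ i := by
      by_contra hc
      push Not at hc
      exact hzU ⟨osq_coord hzo j, hc⟩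
    obtain ⟨i, hi, hact⟩ := hex
    have hli := hℓ i hi
    -- the other functions are inactive
    have hoth : ∀ k ∈ J, k ≠ i → fderiv ℝ (fb D P P' β k) z = 0 := by
      intro k hk hki
      have hlk := hℓ k hk
      refine fderiv_inactive D P P' β ?_
      rw [hmain k hk z hzM]
      refine cl_large hb hb2 ?_
      rw [abs_div, abs_neg, abs_of_pos hlk, le_div_iff₀ hlk]
      have h1 := hsep i hi k hk (Ne.symm hki)
      have h4 : |x i - x k| ≤ |z j - x i| + |z j - x k| := by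
        have h5 := abs_sub_le (x i) (z j) (x k)
        have h6 := abs_sub_comm (x i) (z j)
        linarith
      nlinarith
    have hder : fderiv ℝ (fb D P P' β i) z = (-(1 / (2 * c * ℓ i))) • pr j := by
      have hloc : fb D P P' β i =ᶠ[𝓝 z] fun y => (-(1 / (2 * c * ℓ i))) * (y j - x i) := by
        have h1 : ∀ᶠ y : Fin 2 → ℝ in 𝓝 z, |y j - x i| < c * ℓ i := by
          have hc : Continuous fun y : Fin 2 → ℝ => |y j - x i| :=
            ((continuous_apply j).sub continuous_const).abs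
          exact (hc.tendsto z).eventually_lt_const hact
        filter_upwards [h1, (isOpen_MR P).mem_nhds hzM] with y hy hyM
        rw [hmain i hi y hyM, cl_small hb hb2]
        · field_simp
        · rw [abs_div, abs_neg, abs_of_pos hli, div_lt_iff₀ hli]; exact hy
      rw [hloc.fderiv_eq]
      have h2 : HasFDerivAt (fun y : Fin 2 → ℝ => (-(1 / (2 * c * ℓ i))) * (y j - x i))
          ((-(1 / (2 * c * ℓ i))) • pr j) z := by
        have h3 : HasFDerivAt (fun y : Fin 2 → ℝ => y j) (pr j) z :=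
          (pr j).hasFDerivAt
        exact (h3.sub_const (x i)).const_mul (-(1 / (2 * c * ℓ i)))
      exact h2.fderiv
    rw [fderiv_GJ D P P' β J w hd, Finset.sum_eq_single_of_mem i hi (fun k hk hki => by
      rw [hoth k hk hki, smul_zero]), hder, smul_smul]
    have e : w i * -(1 / (2 * c * ℓ i)) = -s' := by
      rw [hw i hi]
      field_simp
    rw [e, ← add_smul]
    have e2 : -s' + s = s - s' := by ring
    rw [e2, ← ofReal_norm]
    exact ENNReal.ofReal_le_ofReal (norm_smul_pr _ _)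
  have gen : ∀ {z : Fin 2 → ℝ} {M : ℝ}, 0 ≤ M → z ∈ osq →
      (∀ i ∈ J, DifferentiableAt ℝ (fb D P P' β i) z) →
      (∀ i ∈ J, |w i| * ‖fderiv ℝ (fb D P P' β i) z‖ ≤ M) →
      ‖fderiv ℝ (GJ D P P' β J w) z + s • pr j‖ₑ ≤ ENNReal.ofReal (2 * M + |s| + |s'|) := by
    intro z M hM hzo hd hb1
    rw [← ofReal_norm]
    apply ENNReal.ofReal_le_ofReal
    have h1 := norm_add_le (fderiv ℝ (GJ D P P' β J w) z) (s • pr j)
    have h2 := norm_fderiv_GJ_le D P P' β J w hd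
    have h3 := sum_fderiv_le D P P' β h0 hβ1 hdj J w hM hzo hb1
    have h4 := norm_smul_pr s j
    have h5 := abs_nonneg s'
    linarith
  have b2 : ∀ᵐ z ∂(volume.restrict osq), z ∈ S2 →
      ‖fderiv ℝ (GJ D P P' β J w) z + s • pr j‖ₑ ≤ ENNReal.ofReal (2 * W + |s| + |s'|) := by
    filter_upwards [hae, ae_restrict_mem measurableSet_ball] with z hd hzo hz
    refine gen hW hzo hd fun i hi => ?_
    have h1 : z ∉ Fan i := fun hc => hz.2 (mem_biUnion hi hc)
    have h2 := norm_fderiv_LC (hKf i hi).1 (hfan i hi z hzo h1) (cube_nhds hzo)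
    exact (mul_le_mul_of_nonneg_left h2 (abs_nonneg _)).trans (hKf i hi).2
  have b3 : ∀ᵐ z ∂(volume.restrict osq), z ∈ S3 →
      ‖fderiv ℝ (GJ D P P' β J w) z + s • pr j‖ₑ ≤ ENNReal.ofReal (2 * Ec + |s| + |s'|) := by
    filter_upwards [hae, ae_restrict_mem measurableSet_ball] with z hd hzo _
    refine gen (hW.trans hWE) hzo hd fun i hi => ?_
    have h2 := Pc_117.LL.norm_fderiv_le (hMf i hi).1 (hcr i hi z (osq_subset hzo)) (cube_nhds hzo)
    exact (mul_le_mul_of_nonneg_left h2 (abs_nonneg _)).trans (hMf i hi).2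
  have e12 : ENNReal.ofReal |s - s'| ≤ ENNReal.ofReal (2 * W + |s| + |s'|) := by
    apply ENNReal.ofReal_le_ofReal
    have := abs_sub s s'
    linarith
  have e23 : ENNReal.ofReal (2 * W + |s| + |s'|) ≤ ENNReal.ofReal (2 * Ec + |s| + |s'|) := by
    apply ENNReal.ofReal_le_ofReal
    linarith
  refine (lint_three hp hcov b1 b2 b3 e12 e23).trans ?_
  refine add_le_add (add_le_add le_rfl (mul_le_mul' le_rfl ?_)) (mul_le_mul' le_rfl ?_)
  · refine (measure_mono (sdiff_subset)).trans ((measure_union_le _ _).trans ?_)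
    refine add_le_add (volume_compl_MR P) ((volume_strip j _).trans ?_)
    exact mul_le_mul' le_rfl (volume_Unc hb hb2 hℓ hsep hin hμ)
  · exact measure_biUnion_finset_le _ _

end Crest.Agent.R096.Fsw_928
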