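import Crest.Agent.R096.Fk1_522
import Crest.Agent.R096.Fsw14_928
import Crest.Agent.R096.Bd14_416

/-!
# R096 (row 96), P4-FACE, combinatorics, part 2: boundary words of the square (helper522)
-/

set_option autoImplicit false

open Set Metric

namespace Crest.Agent.R096.Fk_522

open Crest.Agent.R096.Ce_537 Crest.Agent.R096.Bd_416 Crest.Agent.R096.Fsw_928

open scoped Classical

/-- **the boundary word** of a LAM-structure on the boundary of the square: on every side (bottom,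
top, left, right) finitely many end points with positions and widths -/
structure Bw {ι : Type} (L : Lam (sph 2) ι) where
  /-- ends on the side -/
  E : Fin 4 → Type
  [fin : ∀ s, Fintype (E s)]
  /-- chord of an end -/
  up : ∀ s, E s → ι
  /-- width of the band -/
  w : ∀ s, E s → ℝ
  /-- position -/
  p : ∀ s, E s → ℝ
  ed : ∀ s, Ed (w s) (p s)
  /-- label at the end `t = -1` of the side -/
  a : Fin 4 → ι → ZMod 2
  c_eq : ∀ s x t, |t| ≤ 1 → -2 * L.c x (sd s t) =
    sg (a s x) * ∏ y : E s with up s y = x, (-2 * ramp (w s y) (p s y) t)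
  base : ∀ x, L.c x (sd 1 1) = -1/2

attribute [instance] Bw.fin

lemma sg_cast_card {α : Type*} (S : Finset α) : ∏ _y ∈ S, (-1 : ℝ) = sg (S.card : ZMod 2) := by
  rw [Finset.prod_const]
  generalize S.card = m
  induction m with
  | zero => simp
  | succ m ih => rw [pow_succ, ih, Nat.cast_succ, sg_add, sg_one]

lemma sd_13 : sd 1 1 = sd 3 1 := by
  funext i; fin_cases i <;> simp [sd]

lemma sd_03 : sd 0 1 = sd 3 (-1) := by
  funext i; fin_cases i <;> simp [sd]

lemma sd_02 : sd 0 (-1) = sd 2 (-1) := by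
  funext i; fin_cases i <;> simp [sd]

lemma sd_12 : sd 1 (-1) = sd 2 1 := by
  funext i; fin_cases i <;> simp [sd]

lemma cast_zero_iff (m : ℕ) : (m : ZMod 2) = 0 ↔ m % 2 = 0 := by
  rw [ZMod.natCast_eq_zero_iff]; omega

namespace Bw

variable {ι : Type} {L : Lam (sph 2) ι} (W : Bw L)

/-- the ends of the chord `x` on the side `s` -/
noncomputable def en (s : Fin 4) (x : ι) : Finset (W.E s) := Finset.univ.filter fun y => W.up s y = x

lemma mem_en {s : Fin 4} {x : ι} {y : W.E s} : y ∈ W.en s x ↔ W.up s y = x := by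
  simp [en]

/-- number of the ends of `x` on the side `s` -/
noncomputable def n (s : Fin 4) (x : ι) : ℕ := (W.en s x).card

lemma ramp_neg {s : Fin 4} (y : W.E s) : ramp (W.w s y) (W.p s y) (-1) = -1/2 :=
  ramp_low ((W.ed s).w0 y) (by linarith [(W.ed s).lo y])

lemma ramp_pos {s : Fin 4} (y : W.E s) : ramp (W.w s y) (W.p s y) 1 = 1/2 :=
  ramp_high ((W.ed s).w0 y) (by linarith [(W.ed s).hi y])

lemma val_neg (s : Fin 4) (x : ι) : -2 * L.c x (sd s (-1)) = sg (W.a s x) := by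
  rw [W.c_eq s x (-1) (by norm_num)]
  have : ∀ y ∈ Finset.univ.filter (fun y => W.up s y = x),
      -2 * ramp (W.w s y) (W.p s y) (-1) = 1 := fun y _ => by
    rw [W.ramp_neg]; norm_num
  rw [Finset.prod_congr rfl this]
  simp

lemma val_pos (s : Fin 4) (x : ι) : -2 * L.c x (sd s 1) = sg (W.a s x + (W.n s x : ZMod 2)) := by
  rw [W.c_eq s x 1 (by norm_num)]
  have : ∀ y ∈ Finset.univ.filter (fun y => W.up s y = x),
      -2 * ramp (W.w s y) (W.p s y) 1 = -1 := fun y _ => by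
    rw [W.ramp_pos]; norm_num
  rw [Finset.prod_congr rfl this, sg_cast_card, sg_add]
  rfl

lemma a_rel (x : ι) : W.a 1 x = (W.n 1 x : ZMod 2) ∧ W.a 3 x = (W.n 3 x : ZMod 2) ∧
    W.a 0 x = (W.n 3 x : ZMod 2) + (W.n 0 x : ZMod 2) ∧ W.a 2 x = W.a 0 x ∧
    W.a 2 x + (W.n 2 x : ZMod 2) = W.a 1 x := by
  have h1 := W.val_pos 1 x
  have h3 := W.val_pos 3 x
  have h0 := W.val_pos 0 x
  have h2 := W.val_pos 2 x
  have g1 := W.val_neg 1 x
  have g3 := W.val_neg 3 x
  have g0 := W.val_neg 0 x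
  have g2 := W.val_neg 2 x
  have hb : -2 * L.c x (sd 1 1) = sg 0 := by rw [W.base, sg_zero]; norm_num
  have e1 : W.a 1 x + (W.n 1 x : ZMod 2) = 0 := sg_inj (h1.symm.trans hb)
  have e3 : W.a 3 x + (W.n 3 x : ZMod 2) = 0 := sg_inj (h3.symm.trans (by rw [← sd_13]; exact hb))
  have e0 : W.a 0 x + (W.n 0 x : ZMod 2) = W.a 3 x := sg_inj (h0.symm.trans (by rw [sd_03]; exact g3))
  have e2 : W.a 2 x = W.a 0 x := sg_inj (g2.symm.trans (by rw [← sd_02]; exact g0))
  have e4 : W.a 2 x + (W.n 2 x : ZMod 2) = W.a 1 x :=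
    sg_inj (h2.symm.trans (by rw [← sd_12]; exact g1))
  have z : ∀ a b : ZMod 2, a + b = 0 → a = b := by decide
  have z' : ∀ a b c : ZMod 2, a + b = c → a = c + b := by decide
  refine ⟨z _ _ e1, z _ _ e3, ?_, e2, e4⟩
  rw [z' _ _ _ e0, z _ _ e3]

/-- values in the corners: bottom right -/
lemma c_br (x : ι) : -2 * L.c x (sd 0 1) = sg (W.n 3 x : ZMod 2) := by
  rw [sd_03, W.val_neg, (W.a_rel x).2.1]

/-- bottom left -/
lemma c_bl (x : ι) : -2 * L.c x (sd 0 (-1)) = sg ((W.n 3 x : ZMod 2) + (W.n 0 x : ZMod 2)) := by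
  rw [W.val_neg, (W.a_rel x).2.2.1]

/-- top left -/
lemma c_tl (x : ι) : -2 * L.c x (sd 1 (-1)) = sg (W.n 1 x : ZMod 2) := by
  rw [W.val_neg, (W.a_rel x).1]

/-- no end on the side -/
lemma c_const {s : Fin 4} {x : ι} (h : W.n s x = 0) {t : ℝ} (ht : |t| ≤ 1) :
    -2 * L.c x (sd s t) = sg (W.a s x) := by
  rw [W.c_eq s x t ht]
  have : (Finset.univ.filter fun y => W.up s y = x) = ∅ := Finset.card_eq_zero.1 h
  rw [this]; simp

/-- one end on the side -/
lemma c_one {s : Fin 4} {x : ι} {y : W.E s} (h : W.en s x = {y}) {t : ℝ} (ht : |t| ≤ 1) :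
    L.c x (sd s t) = sg (W.a s x) * ramp (W.w s y) (W.p s y) t := by
  have h1 := W.c_eq s x t ht
  have h2 : (Finset.univ.filter fun y => W.up s y = x) = {y} := h
  rw [h2, Finset.prod_singleton] at h1
  linarith

/-- an active point of a side lies in a band of an end -/
lemma exists_end {s : Fin 4} {x : ι} {t : ℝ} (ht : |t| ≤ 1) (h : |L.c x (sd s t)| < 1/2) :
    ∃ y, W.up s y = x ∧ |t - W.p s y| < W.w s y / 2 := by
  by_contra hc
  push Not at hc
  have h1 : |∏ y : W.E s with W.up s y = x, (-2 * ramp (W.w s y) (W.p s y) t)| = 1 := by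
    refine abs_prod_eq fun y hy => ?_
    have hy' := (Finset.mem_filter.1 hy).2
    rcases ramp_far ((W.ed s).w0 y) (hc y hy') with h | h
    · rw [h.2]; norm_num
    · rw [h.2]; norm_num
  have h2 := W.c_eq s x t ht
  have h3 : |-2 * L.c x (sd s t)| = 1 := by
    rw [h2, abs_mul, h1, mul_one, abs_sg]
  rw [abs_mul] at h3
  norm_num at h3
  linarith

include W in
/-- bands on the circle are disjoint -/
theorem disj : Disj L := by
  intro i j hij ω hω ⟨h1, h2⟩
  obtain ⟨s, t, ht, rfl⟩ := exists_sd hω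
  obtain ⟨y, hy, hy'⟩ := W.exists_end ht h1
  obtain ⟨z, hz, hz'⟩ := W.exists_end ht h2
  have hne : y ≠ z := by
    rintro rfl
    exact hij (hy.symm.trans hz)
  exact (W.ed s).disj hne hy'.le hz'.le rfl

/-! ### classes -/

/-- all chords have two ends -/
def Two : Prop := ∀ x, W.n 0 x + W.n 1 x + W.n 2 x + W.n 3 x = 2

/-- the class of a chord: 1 = left-right, 2 = bottom-top, 3 = around the base vertex, 0 = other -/
noncomputable def cls (x : ι) : Fin 4 :=
  if W.n 2 x = 1 ∧ W.n 3 x = 1 then 1 else if W.n 0 x = 1 ∧ W.n 1 x = 1 then 2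
    else if W.n 1 x = 1 ∧ W.n 3 x = 1 then 3 else 0

variable {W}

lemma cls_one (h2 : W.Two) {x : ι} (h : W.cls x = 1) :
    W.n 0 x = 0 ∧ W.n 1 x = 0 ∧ W.n 2 x = 1 ∧ W.n 3 x = 1 := by
  have := h2 x
  unfold cls at h
  split_ifs at h with h3 h4 h5
  · refine ⟨?_, ?_, h3.1, h3.2⟩ <;> omega
  · exact absurd h (by decide)
  · exact absurd h (by decide)
  · exact absurd h (by decide)

lemma cls_two (h2 : W.Two) {x : ι} (h : W.cls x = 2) :
    W.n 0 x = 1 ∧ W.n 1 x = 1 ∧ W.n 2 x = 0 ∧ W.n 3 x = 0 := by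
  have := h2 x
  unfold cls at h
  split_ifs at h with h3 h4 h5
  · exact absurd h (by decide)
  · refine ⟨h4.1, h4.2, ?_, ?_⟩ <;> omega
  · exact absurd h (by decide)
  · exact absurd h (by decide)

/-- `x` lies inside `x'` on the boundary -/
def Inc (L : Lam (sph 2) ι) (x x' : ι) : Prop := ∀ ω ∈ sph 2, 0 ≤ L.c x ω → 0 < L.c x' ω

lemma mod_of_sg {m m' : ℕ} {c c' : ℝ} (h : -2 * c = sg (m : ZMod 2)) (h' : -2 * c' = sg (m' : ZMod 2))
    (hi : 0 ≤ c → 0 < c') (hm : m % 2 = 1) : m' % 2 = 1 := by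
  have h1 : sg (m : ZMod 2) = -1 := by
    unfold sg
    rw [if_neg]
    rw [cast_zero_iff]; omega
  have h2 : 0 < c' := hi (by rw [h1] at h; linarith)
  by_contra hc
  have h3 : sg (m' : ZMod 2) = 1 := by
    unfold sg
    rw [if_pos]
    rw [cast_zero_iff]; omega
  rw [h3] at h'
  linarith

/-- **nested chords: the outer one has the bigger class** -/
lemma cls_le (h2 : W.Two) {x x' : ι} (h : Inc L x x') : W.cls x ≤ W.cls x' := by
  have a1 : |(1:ℝ)| ≤ 1 := by norm_num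
  have a2 : |(-1:ℝ)| ≤ 1 := by norm_num
  have h3 : W.n 3 x % 2 = 1 → W.n 3 x' % 2 = 1 :=
    mod_of_sg (W.c_br x) (W.c_br x') (h _ (sd_mem 0 a1))
  have h1 : W.n 1 x % 2 = 1 → W.n 1 x' % 2 = 1 :=
    mod_of_sg (W.c_tl x) (W.c_tl x') (h _ (sd_mem 1 a2))
  have h0 : (W.n 3 x + W.n 0 x) % 2 = 1 → (W.n 3 x' + W.n 0 x') % 2 = 1 := by
    refine mod_of_sg (c := L.c x (sd 0 (-1))) (c' := L.c x' (sd 0 (-1))) ?_ ?_ (h _ (sd_mem 0 a2))
    · rw [W.c_bl]; push_cast; rfl
    · rw [W.c_bl]; push_cast; rfl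
  have t := h2 x
  have t' := h2 x'
  unfold cls
  split_ifs <;> first | decide | (exfalso; omega)

end Bw

end Crest.Agent.R096.Fk_522
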