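import Crest.Agent.R096.Fk2_522
import Crest.Agent.R096.Bd17_416

/-!
# R096 (row 96), P4-FACE, combinatorics, part 3: the long chords (helper522)
-/

set_option autoImplicit false

open Set Metric

namespace Crest.Agent.R096.Fk_522

open Crest.Agent.R096.Ce_537 Crest.Agent.R096.Bd_416 Crest.Agent.R096.Fsw_928

open scoped Classical

/-! ### ramps -/

/-- the wider and earlier ramp is bigger -/
lemma ramp_le_ramp {w p v l t : ℝ} (hl : 0 < l) (h1 : l ≤ w) (h2 : p + w / 2 ≤ v + l / 2) :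
    ramp l v t ≤ ramp w p t := by
  have hw : 0 < w := hl.trans_le h1
  rcases le_total t (v - l / 2) with h | h
  · rw [ramp_low hl h]; exact ramp_mem.1
  rcases le_total (p + w / 2) t with h' | h'
  · rw [ramp_high hw h']; exact ramp_mem.2
  unfold ramp
  apply Bd_416.cl_mono
  have e1 : (t - v) / l = 1/2 - (v + l / 2 - t) / l := by field_simp; ring
  have e2 : (t - p) / w = 1/2 - (p + w / 2 - t) / w := by field_simp; ring
  rw [e1, e2]
  have h3 : (p + w / 2 - t) / w ≤ (p + w / 2 - t) / l :=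
    div_le_div_of_nonneg_left (by linarith) hl h1
  have h4 : (p + w / 2 - t) / l ≤ (v + l / 2 - t) / l :=
    div_le_div_of_nonneg_right (by linarith) hl.le
  linarith

/-- the ramp of a swept chord as a function of the time -/
lemma ramp_time {A c H v l r : ℝ} (hc : 0 < c) (hH : 0 < H) (hl : 0 < l) :
    ramp (l / (c * H)) (A - (1 + v) / (c * H)) (A - r / c) = Bd_416.cl ((1 + v - H * r) / l) := by
  unfold ramp
  congr 1
  field_simp
  ring

lemma neg_ramp {w p t : ℝ} : - ramp w p t = Bd_416.cl ((p - t) / w) := by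
  unfold ramp
  rw [← Bd_416.cl_neg]
  congr 1
  ring

/-- **the lag condition** -/
lemma lag_aux {A c H v l w p r t : ℝ} (hc : 0 < c) (hH : 0 < H) (hl : 0 < l) (h1 : l ≤ w)
    (h2 : p + w / 2 ≤ v + l / 2) (ht : -1 + H * r ≤ t) :
    - ramp w p t ≤ ramp (l / (c * H)) (A - (1 + v) / (c * H)) (A - r / c) := by
  rw [ramp_time hc hH hl]
  have h3 : - ramp w p t ≤ - ramp l v t := neg_le_neg (ramp_le_ramp hl h1 h2)
  refine h3.trans ?_
  rw [neg_ramp]
  apply Bd_416.cl_mono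
  exact div_le_div_of_nonneg_right (by linarith) hl.le

lemma abs_ramp_sub' {h ρ r r' : ℝ} (hh : 0 < h) :
    |- ramp h ρ r - - ramp h ρ r'| ≤ 1 / h * |r - r'| := by
  have h1 := abs_ramp_sub (ρ := ρ) (r := r) (r' := r') hh
  have e : - ramp h ρ r - - ramp h ρ r' = - (ramp h ρ r - ramp h ρ r') := by ring
  rw [e, abs_neg]
  refine h1.trans (le_of_eq ?_)
  ring

/-! ### points of the sides -/

lemma eq_sd0 {ω : Fin 2 → ℝ} (h : ω 1 = -1) : ω = sd 0 (ω 0) := by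
  funext i; fin_cases i
  · simp [sd]
  · simpa [sd] using h

lemma eq_sd1 {ω : Fin 2 → ℝ} (h : ω 1 = 1) : ω = sd 1 (ω 0) := by
  funext i; fin_cases i
  · simp [sd]
  · simpa [sd] using h

lemma eq_sd2 {ω : Fin 2 → ℝ} (h : ω 0 = -1) : ω = sd 2 (ω 1) := by
  funext i; fin_cases i
  · simpa [sd] using h
  · simp [sd]

lemma eq_sd3 {ω : Fin 2 → ℝ} (h : ω 0 = 1) : ω = sd 3 (ω 1) := by
  funext i; fin_cases i
  · simpa [sd] using h
  · simp [sd]

namespace Bw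

variable {ι : Type} {L : Lam (sph 2) ι} (W : Bw L)

/-- position of the only end of `x` on the side `s` -/
noncomputable def ps (s : Fin 4) (x : ι) : ℝ :=
  if h : W.n s x = 1 then W.p s (Finset.card_eq_one.1 h).choose else 0

/-- width of the only end of `x` on the side `s` -/
noncomputable def ws (s : Fin 4) (x : ι) : ℝ :=
  if h : W.n s x = 1 then W.w s (Finset.card_eq_one.1 h).choose else 1

variable {W}

lemma exists_one {s : Fin 4} {x : ι} (h : W.n s x = 1) :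
    ∃ y, W.en s x = {y} ∧ W.ps s x = W.p s y ∧ W.ws s x = W.w s y := by
  refine ⟨(Finset.card_eq_one.1 h).choose, (Finset.card_eq_one.1 h).choose_spec, ?_, ?_⟩
  · unfold ps; rw [dif_pos h]
  · unfold ws; rw [dif_pos h]

lemma ws_pos (s : Fin 4) (x : ι) : 0 < W.ws s x := by
  unfold ws
  split_ifs with h
  · exact (W.ed s).w0 _
  · norm_num

lemma ps_lo {s : Fin 4} {x : ι} (h : W.n s x = 1) : -1 < W.ps s x - W.ws s x / 2 := by
  obtain ⟨y, -, e1, e2⟩ := exists_one h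
  rw [e1, e2]; exact (W.ed s).lo y

lemma ps_hi {s : Fin 4} {x : ι} (h : W.n s x = 1) : W.ps s x + W.ws s x / 2 < 1 := by
  obtain ⟨y, -, e1, e2⟩ := exists_one h
  rw [e1, e2]; exact (W.ed s).hi y

lemma ps_sep {s : Fin 4} {x x' : ι} (h : W.n s x = 1) (h' : W.n s x' = 1) (hne : x ≠ x') :
    (W.ws s x + W.ws s x') / 2 < |W.ps s x - W.ps s x'| := by
  obtain ⟨y, g1, e1, e2⟩ := exists_one h
  obtain ⟨y', g1', e1', e2'⟩ := exists_one h'
  rw [e1, e2, e1', e2']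
  refine (W.ed s).sep y y' ?_
  rintro rfl
  have h1 : y ∈ W.en s x := by rw [g1]; simp
  have h2 : y ∈ W.en s x' := by rw [g1']; simp
  rw [mem_en] at h1 h2
  exact hne (h1.symm.trans h2)

lemma c_ps {s : Fin 4} {x : ι} (h : W.n s x = 1) {t : ℝ} (ht : |t| ≤ 1) :
    L.c x (sd s t) = sg (W.a s x) * ramp (W.ws s x) (W.ps s x) t := by
  obtain ⟨y, g1, e1, e2⟩ := exists_one h
  rw [e1, e2]; exact W.c_one g1 ht

/-! ### type A -/

section A

variable {x : ι} (h0 : W.n 0 x = 0) (h1 : W.n 1 x = 0) (h2 : W.n 2 x = 1) (h3 : W.n 3 x = 1)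
include h0 h1 h2 h3

omit h1 h2 in
lemma A_bot {t : ℝ} (ht : |t| ≤ 1) : L.c x (sd 0 t) = 1/2 := by
  have h4 := W.c_const h0 ht
  rw [(W.a_rel x).2.2.1, h0, h3] at h4
  simp only [Nat.cast_one, Nat.cast_zero, add_zero, sg_one] at h4
  linarith

omit h0 h2 h3 in
lemma A_top {t : ℝ} (ht : |t| ≤ 1) : L.c x (sd 1 t) = -1/2 := by
  have h4 := W.c_const h1 ht
  rw [(W.a_rel x).1, h1] at h4
  simp only [Nat.cast_zero, sg_zero] at h4
  linarith

omit h1 in
lemma A_left {t : ℝ} (ht : |t| ≤ 1) : L.c x (sd 2 t) = - ramp (W.ws 2 x) (W.ps 2 x) t := by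
  rw [c_ps h2 ht, (W.a_rel x).2.2.2.1, (W.a_rel x).2.2.1, h0, h3]
  simp

omit h0 h1 h2 in
lemma A_right {t : ℝ} (ht : |t| ≤ 1) : L.c x (sd 3 t) = - ramp (W.ws 3 x) (W.ps 3 x) t := by
  rw [c_ps h3 ht, (W.a_rel x).2.1, h3]
  simp

end A

/-- the values of a type A chord on the lateral sides -/
noncomputable def kA (W : Bw L) (x : ι) (σ t : ℝ) : ℝ :=
  if σ = 1 then - ramp (W.ws 3 x) (W.ps 3 x) t else - ramp (W.ws 2 x) (W.ps 2 x) t

/-- the lower ends of the bands -/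
noncomputable def ymA (W : Bw L) (x : ι) (σ : ℝ) : ℝ :=
  if σ = 1 then W.ps 3 x - W.ws 3 x / 2 else W.ps 2 x - W.ws 2 x / 2

/-- the upper ends of the bands -/
noncomputable def ypA (W : Bw L) (x : ι) (σ : ℝ) : ℝ :=
  if σ = 1 then W.ps 3 x + W.ws 3 x / 2 else W.ps 2 x + W.ws 2 x / 2

lemma neg_ramp_lo {w p t : ℝ} (hw : 0 < w) (h : t < p - w / 2) : - ramp w p t = 1/2 := by
  rw [ramp_low hw h.le]; norm_num

lemma neg_ramp_hi {w p t : ℝ} (hw : 0 < w) (h : p + w / 2 ≤ t) : - ramp w p t = -1/2 := by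
  rw [ramp_high hw h]; norm_num

lemma neg_ramp_mem {w p t : ℝ} : - ramp w p t ∈ I2 := by
  have h := (ramp_mem : ramp w p t ∈ I2)
  have h1 : -1/2 ≤ ramp w p t := h.1
  have h2 : ramp w p t ≤ 1/2 := h.2
  constructor <;> linarith

lemma ks_A (W : Bw L) (x : ι) {Kc : ℝ} (h2 : 1 / W.ws 2 x ≤ Kc) (h3 : 1 / W.ws 3 x ≤ Kc) :
    KS (W.kA x) (W.ymA x) (W.ypA x) Kc where
  lo σ t ht := by
    unfold kA ymA at *
    split_ifs at * with h
    · exact neg_ramp_lo (W.ws_pos 3 x) ht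
    · exact neg_ramp_lo (W.ws_pos 2 x) ht
  hi σ t ht := by
    unfold kA ypA at *
    split_ifs at * with h
    · exact neg_ramp_hi (W.ws_pos 3 x) ht.le
    · exact neg_ramp_hi (W.ws_pos 2 x) ht.le
  lip σ s t := by
    unfold kA
    split_ifs with h
    · exact (abs_ramp_sub' (W.ws_pos 3 x)).trans (mul_le_mul_of_nonneg_right h3 (abs_nonneg _))
    · exact (abs_ramp_sub' (W.ws_pos 2 x)).trans (mul_le_mul_of_nonneg_right h2 (abs_nonneg _))
  mem σ t := by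
    unfold kA
    split_ifs <;> exact neg_ramp_mem

/-- **type A chords are swept** -/
theorem ta_A (h2' : W.Two) {x : ι} (hx : W.cls x = 1) {P : Par} {v l : ℝ} (hl : 0 < l)
    (hl2 : l ≤ W.ws 2 x) (hl3 : l ≤ W.ws 3 x) (hv2 : W.ps 2 x + W.ws 2 x / 2 ≤ v + l / 2)
    (hv3 : W.ps 3 x + W.ws 3 x / 2 ≤ v + l / 2) (hf2 : W.ps 2 x + W.ws 2 x / 2 ≤ 1 - 2 * P.a)
    (hf3 : W.ps 3 x + W.ws 3 x / 2 ≤ 1 - 2 * P.a) :
    TA P (L.c x) (fun t => ramp (l / (4 * P.H)) (1 - (1 + v) / (4 * P.H)) (1 - t / 4))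
      (W.kA x) := by
  obtain ⟨h0, h1, h2, h3⟩ := cls_one h2' hx
  refine ⟨?_, ?_, ?_, ?_, ?_, fun ρ => ramp_mem.1, fun ρ => ramp_mem.2⟩
  · intro ω hω h
    rw [eq_sd0 h]
    exact A_bot h0 h3 (mem_sph2.1 hω).1
  · intro ω hω h
    rw [eq_sd1 h]
    exact A_top h1 (mem_sph2.1 hω).1
  · intro ω hω h
    rcases (abs_eq zero_le_one).1 h with h4 | h4
    · rw [eq_sd3 h4, A_right h3 (mem_sph2.1 hω).2.1]
      unfold kA
      rw [if_pos (by simp [sd])]
      simp [sd]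
    · rw [eq_sd2 h4, A_left h0 h2 h3 (mem_sph2.1 hω).2.1]
      unfold kA
      rw [if_neg (by simp [sd]; norm_num)]
      simp [sd]
  · intro σ t ht
    unfold kA
    split_ifs
    · exact neg_ramp_hi (W.ws_pos 3 x) (by linarith)
    · exact neg_ramp_hi (W.ws_pos 2 x) (by linarith)
  · intro σ t r hσ hr0 hr1 ht ht1
    unfold kA
    split_ifs
    · exact lag_aux (by norm_num) P.H0 hl hl3 hv3 ht
    · exact lag_aux (by norm_num) P.H0 hl hl2 hv2 ht

/-! ### type B -/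

section B

variable {x : ι} (h0 : W.n 0 x = 1) (h1 : W.n 1 x = 1) (h2 : W.n 2 x = 0) (h3 : W.n 3 x = 0)
include h0 h1 h2 h3

omit h1 h2 in
lemma B_bot {t : ℝ} (ht : |t| ≤ 1) : L.c x (sd 0 t) = - ramp (W.ws 0 x) (W.ps 0 x) t := by
  rw [c_ps h0 ht, (W.a_rel x).2.2.1, h0, h3]
  simp

omit h0 h2 h3 in
lemma B_top {t : ℝ} (ht : |t| ≤ 1) : L.c x (sd 1 t) = - ramp (W.ws 1 x) (W.ps 1 x) t := by
  rw [c_ps h1 ht, (W.a_rel x).1, h1]
  simp

omit h1 in
lemma B_left {t : ℝ} (ht : |t| ≤ 1) : L.c x (sd 2 t) = 1/2 := by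
  have h4 := W.c_const h2 ht
  rw [(W.a_rel x).2.2.2.1, (W.a_rel x).2.2.1, h0, h3] at h4
  simp only [Nat.cast_one, Nat.cast_zero, zero_add, sg_one] at h4
  linarith

omit h0 h1 h2 in
lemma B_right {t : ℝ} (ht : |t| ≤ 1) : L.c x (sd 3 t) = -1/2 := by
  have h4 := W.c_const h3 ht
  rw [(W.a_rel x).2.1, h3] at h4
  simp only [Nat.cast_zero, sg_zero] at h4
  linarith

end B

/-- the values of a type B chord on the bottom -/
noncomputable def kb (W : Bw L) (x : ι) (t : ℝ) : ℝ := - ramp (W.ws 0 x) (W.ps 0 x) t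

/-- the values of a type B chord on the top -/
noncomputable def kt (W : Bw L) (x : ι) (t : ℝ) : ℝ := - ramp (W.ws 1 x) (W.ps 1 x) t

theorem tb_B (h2' : W.Two) {x : ι} (hx : W.cls x = 2) {P : Par}
    (b0 : -(1 - 2 * (P.a + P.m * P.H)) < W.ps 0 x - W.ws 0 x / 2)
    (b1 : W.ps 0 x + W.ws 0 x / 2 ≤ 1 - 2 * (P.a + P.m * P.H))
    (t0 : -(1 - 2 * P.a) < W.ps 1 x - W.ws 1 x / 2)
    (t1 : W.ps 1 x + W.ws 1 x / 2 ≤ 1 - 2 * P.a) :
    TB P (L.c x) (W.kb x) (W.kt x) := by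
  obtain ⟨h0, h1, h2, h3⟩ := cls_two h2' hx
  refine ⟨?_, ?_, ?_, ?_, ?_, ?_, ?_, ?_⟩
  · intro ω hω h
    rw [eq_sd2 h]
    exact B_left h0 h2 h3 (mem_sph2.1 hω).2.1
  · intro ω hω h
    rw [eq_sd3 h]
    exact B_right h3 (mem_sph2.1 hω).2.1
  · intro ω hω h
    rw [eq_sd0 h, B_bot h0 h3 (mem_sph2.1 hω).1]
    simp [sd, kb]
  · intro ω hω h
    rw [eq_sd1 h, B_top h1 (mem_sph2.1 hω).1]
    simp [sd, kt]
  · intro t ht
    exact neg_ramp_lo (W.ws_pos 0 x) (by linarith)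
  · intro t ht
    exact neg_ramp_hi (W.ws_pos 0 x) (by linarith)
  · intro t ht
    exact neg_ramp_lo (W.ws_pos 1 x) (by linarith)
  · intro t ht
    exact neg_ramp_hi (W.ws_pos 1 x) (by linarith)

/-- the lower ends of the bands for the second sweep -/
noncomputable def ymB (W : Bw L) (P : Par) (x : ι) (σ : ℝ) : ℝ :=
  if σ = 1 then (W.ps 1 x - W.ws 1 x / 2) / (1 - P.a) else (W.ps 0 x - W.ws 0 x / 2) / (1 - P.a)

/-- the upper ends of the bands for the second sweep -/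
noncomputable def ypB (W : Bw L) (P : Par) (x : ι) (σ : ℝ) : ℝ :=
  if σ = 1 then (W.ps 1 x + W.ws 1 x / 2) / (1 - P.a) else (W.ps 0 x + W.ws 0 x / 2) / (1 - P.a)

lemma one_sub_a (P : Par) : 0 < 1 - P.a := by
  have := P.a_le
  linarith

lemma ks_B (W : Bw L) (P : Par) (x : ι) {Kc : ℝ} (h0 : 1 / W.ws 0 x ≤ Kc)
    (h1 : 1 / W.ws 1 x ≤ Kc) :
    KS (fun σ t => if σ = 1 then W.kt x ((1 - P.a) * t) else W.kb x ((1 - P.a) * t))
      (W.ymB P x) (W.ypB P x) ((1 - P.a) * Kc) where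
  lo σ t ht := by
    have ha := one_sub_a P
    unfold ymB at ht
    unfold kt kb
    split_ifs at * with h
    · rw [lt_div_iff₀ ha] at ht
      exact neg_ramp_lo (W.ws_pos 1 x) (by linarith)
    · rw [lt_div_iff₀ ha] at ht
      exact neg_ramp_lo (W.ws_pos 0 x) (by linarith)
  hi σ t ht := by
    have ha := one_sub_a P
    unfold ypB at ht
    unfold kt kb
    split_ifs at * with h
    · rw [div_lt_iff₀ ha] at ht
      exact neg_ramp_hi (W.ws_pos 1 x) (by linarith)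
    · rw [div_lt_iff₀ ha] at ht
      exact neg_ramp_hi (W.ws_pos 0 x) (by linarith)
  lip σ s t := by
    have ha := one_sub_a P
    have e : |(1 - P.a) * s - (1 - P.a) * t| = (1 - P.a) * |s - t| := by
      rw [← mul_sub, abs_mul, abs_of_pos ha]
    unfold kt kb
    show |(if σ = 1 then _ else _) - (if σ = 1 then _ else _)| ≤ _
    split_ifs with h
    · refine (abs_ramp_sub' (W.ws_pos 1 x)).trans ?_
      rw [e, mul_assoc, mul_left_comm]
      exact mul_le_mul_of_nonneg_left (mul_le_mul_of_nonneg_right h1 (abs_nonneg _)) ha.le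
    · refine (abs_ramp_sub' (W.ws_pos 0 x)).trans ?_
      rw [e, mul_assoc, mul_left_comm]
      exact mul_le_mul_of_nonneg_left (mul_le_mul_of_nonneg_right h0 (abs_nonneg _)) ha.le
  mem σ t := by
    unfold kt kb
    show (if σ = 1 then _ else _) ∈ I2
    split_ifs <;> exact neg_ramp_mem

/-- **type B chords are swept in the second sweep** -/
theorem ta_B {x : ι} {P : Par} (B : TB P (L.c x) (W.kb x) (W.kt x)) {P' : Par}
    (ha' : 2 * P'.a ≤ P.a) {v l : ℝ} (hl : 0 < l)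
    (hl0 : l ≤ W.ws 0 x / (1 - P.a)) (hl1 : l ≤ W.ws 1 x / (1 - P.a))
    (hv0 : (W.ps 0 x + W.ws 0 x / 2) / (1 - P.a) ≤ v + l / 2)
    (hv1 : (W.ps 1 x + W.ws 1 x / 2) / (1 - P.a) ≤ v + l / 2) :
    TA P' (fun ω => L.c x (P.ann.β.g (sw ω)))
      (fun t => ramp (l / (8 * P'.H)) (3/4 - (1 + v) / (8 * P'.H)) (3/4 - t / 8))
      (fun σ t => if σ = 1 then W.kt x ((1 - P.a) * t) else W.kb x ((1 - P.a) * t)) := by
  have ha := one_sub_a P
  have key : ∀ (w p t : ℝ), 0 < w → - ramp w p ((1 - P.a) * t)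
      = - ramp (w / (1 - P.a)) (p / (1 - P.a)) t := by
    intro w p t hw
    unfold ramp
    congr 2
    field_simp
  refine B.second P' ha' ?_ (fun ρ => ramp_mem.1) (fun ρ => ramp_mem.2)
  intro σ t r hσ hr0 hr1 ht ht1
  unfold kt kb
  split_ifs
  · rw [key _ _ _ (W.ws_pos 1 x)]
    refine lag_aux (by norm_num) P'.H0 hl hl1 ?_ ht
    refine le_trans (le_of_eq ?_) hv1
    ring
  · rw [key _ _ _ (W.ws_pos 0 x)]
    refine lag_aux (by norm_num) P'.H0 hl hl0 ?_ ht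
    refine le_trans (le_of_eq ?_) hv0
    ring

end Bw

end Crest.Agent.R096.Fk_522
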