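import Crest.Agent.R096.Fk3_522

/-!
# R096 (row 96), P4-FACE, combinatorics, part 4: heights and depths (helper522)
-/

set_option autoImplicit false
set_option linter.unusedSectionVars false

open Set Metric

namespace Crest.Agent.R096.Fk_522

open Crest.Agent.R096.Ce_537 Crest.Agent.R096.Bd_416 Crest.Agent.R096.Fsw_928

open scoped Classical

namespace Bw

variable {ι : Type} [Fintype ι] {L : Lam (sph 2) ι} {W : Bw L}

/-! ### long chords of one class -/

/-- the upper end of the two bands, minus half of the gap -/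
noncomputable def yy (W : Bw L) (s s' : Fin 4) (c : ℝ) (l : ι → ℝ) (x : ι) : ℝ :=
  max (c * (W.ps s x + W.ws s x / 2)) (c * (W.ps s' x + W.ws s' x / 2)) - l x / 2

lemma yy_gap {s s' : Fin 4} {c : ℝ} (hc : 0 < c) {l : ι → ℝ} {x x' : ι}
    (h1 : W.n s x = 1) (h1' : W.n s x' = 1) (h2 : W.n s' x = 1) (h2' : W.n s' x' = 1)
    (hl : l x' ≤ c * W.ws s x') (hl' : l x' ≤ c * W.ws s' x')
    (hp : W.ps s x < W.ps s x') (hp' : W.ps s' x < W.ps s' x') :
    W.yy s s' c l x + (l x + l x') / 2 ≤ W.yy s s' c l x' := by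
  have hne : x ≠ x' := by rintro rfl; exact lt_irrefl _ hp
  have e1 := ps_sep h1 h1' hne
  have e2 := ps_sep h2 h2' hne
  rw [abs_sub_comm, abs_of_pos (by linarith)] at e1 e2
  have f1 : c * (W.ps s x + W.ws s x / 2) + l x' ≤ c * (W.ps s x' + W.ws s x' / 2) := by
    have : c * (W.ps s x + W.ws s x / 2) + c * W.ws s x' ≤ c * (W.ps s x' + W.ws s x' / 2) := by
      rw [← mul_add]
      exact mul_le_mul_of_nonneg_left (by linarith) hc.le
    linarith
  have f2 : c * (W.ps s' x + W.ws s' x / 2) + l x' ≤ c * (W.ps s' x' + W.ws s' x' / 2) := by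
    have : c * (W.ps s' x + W.ws s' x / 2) + c * W.ws s' x' ≤ c * (W.ps s' x' + W.ws s' x' / 2) := by
      rw [← mul_add]
      exact mul_le_mul_of_nonneg_left (by linarith) hc.le
    linarith
  have f3 : max (c * (W.ps s x + W.ws s x / 2)) (c * (W.ps s' x + W.ws s' x / 2)) + l x'
      ≤ max (c * (W.ps s x' + W.ws s x' / 2)) (c * (W.ps s' x' + W.ws s' x' / 2)) := by
    rw [← le_sub_iff_add_le]
    refine max_le ?_ ?_
    · have := le_max_left (c * (W.ps s x' + W.ws s x' / 2)) (c * (W.ps s' x' + W.ws s' x' / 2))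
      linarith
    · have := le_max_right (c * (W.ps s x' + W.ws s x' / 2)) (c * (W.ps s' x' + W.ws s' x' / 2))
      linarith
  unfold yy
  linarith

/-- an order-respecting embedding -/
noncomputable def ord (y : ι → ℝ) (k0 : ι → ℕ) (x : ι) : ℝ ×ₗ ℤ := toLex (y x, -(k0 x : ℤ))

lemma ord_inj {y : ι → ℝ} {k0 : ι → ℕ} (hk : Function.Injective k0) :
    Function.Injective (ord y k0) := by
  intro x x' h
  have h1 : (y x, -(k0 x : ℤ)) = (y x', -(k0 x' : ℤ)) := toLex.injective h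
  have h2 : -(k0 x : ℤ) = -(k0 x' : ℤ) := (Prod.mk.inj h1).2
  exact hk (by omega)

lemma ord_lt {y : ι → ℝ} {k0 : ι → ℕ} {x x' : ι} :
    ord y k0 x < ord y k0 x' ↔ y x < y x' ∨ (y x = y x' ∧ k0 x' < k0 x) := by
  unfold ord
  rw [Prod.Lex.toLex_lt_toLex]
  simp only
  constructor
  · rintro (h | ⟨h, h'⟩)
    · exact Or.inl h
    · exact Or.inr ⟨h, by omega⟩
  · rintro (h | ⟨h, h'⟩)
    · exact Or.inl h
    · exact Or.inr ⟨h, by omega⟩

/-- greedy heights on a part of `ι` -/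
theorem greedy_on (S : Finset ι) (y l : ι → ℝ) (hl : ∀ x ∈ S, 0 < l x) (k0 : ι → ℕ)
    (hk : Function.Injective k0) (M : Finset ι)
    (hM : ∀ x ∈ M, ∀ x' ∈ M, x ∈ S → x' ∈ S → x ≠ x' → (l x + l x') / 2 ≤ |y x - y x'|) {lam : ℝ}
    (hlam : ∀ x ∈ S, l x ≤ lam) :
    ∃ v : ι → ℝ, (∀ x ∈ S, y x ≤ v x) ∧
      (∀ x ∈ S, ∀ x' ∈ S, x ≠ x' → (l x + l x') / 2 ≤ |v x - v x'|) ∧
      (∀ x ∈ S, ∀ x' ∈ S, y x < y x' → v x < v x') ∧
      (∀ x ∈ S, ∀ x' ∈ S, y x = y x' → k0 x' < k0 x → v x < v x') ∧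
      ∀ x ∈ S, v x ≤ y x + ∑ j ∈ S \ M, l j + 2 * lam := by
  classical
  obtain ⟨k, hkinj, hk1, hk2⟩ := exists_rank_lin (fun i : S => ord y k0 i)
    (fun i j h => Subtype.ext (ord_inj hk h))
  obtain ⟨v, h1, h2, h3⟩ := greedy (fun i : S => y i) (fun i : S => l i) (fun i => hl i i.2) k hkinj
    (fun i j h => by
      rcases ord_lt.1 (hk2 i j h) with h' | h'
      · exact h'.le
      · exact h'.1.le)
    (Finset.univ.filter fun i : S => (i : ι) ∈ M) (fun i hi j hj hne => by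
      rw [Finset.mem_filter] at hi hj
      exact hM i hi.2 j hj.2 i.2 j.2 (fun h => hne (Subtype.ext h)))
    (fun i => hlam i i.2)
  let V : ι → ℝ := fun x => if h : x ∈ S then v ⟨x, h⟩ else 0
  have hV : ∀ x (h : x ∈ S), V x = v ⟨x, h⟩ := fun x h => dif_pos h
  have key : ∀ x (hx : x ∈ S) x' (hx' : x' ∈ S), ord y k0 x < ord y k0 x' →
      V x + (l x + l x') / 2 ≤ V x' := by
    intro x hx x' hx' h
    rw [hV x hx, hV x' hx']
    exact h2 ⟨x, hx⟩ ⟨x', hx'⟩ (hk1 ⟨x, hx⟩ ⟨x', hx'⟩ h)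
  have hsum : ∑ j ∈ (Finset.univ.filter fun i : S => (i : ι) ∈ M)ᶜ, l j = ∑ j ∈ S \ M, l j := by
    have e : S \ M = ((Finset.univ.filter fun i : S => (i : ι) ∈ M)ᶜ).map
        (Function.Embedding.subtype _) := by
      ext x
      simp only [Finset.mem_sdiff, Finset.mem_map, Finset.mem_compl, Finset.mem_filter,
        Finset.mem_univ, true_and, Function.Embedding.coe_subtype, Subtype.exists, exists_and_left,
        exists_prop, exists_eq_right_right]
      tauto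
    rw [e, Finset.sum_map]
    rfl
  refine ⟨V, fun x hx => ?_, fun x hx x' hx' hne => ?_, fun x hx x' hx' h => ?_,
    fun x hx x' hx' h h' => ?_, fun x hx => ?_⟩
  · rw [hV x hx]; exact h1 ⟨x, hx⟩
  · rcases lt_trichotomy (ord y k0 x) (ord y k0 x') with h | h | h
    · have := key x hx x' hx' h
      rw [abs_sub_comm]
      exact le_trans (by linarith) (le_abs_self _)
    · exact absurd (ord_inj hk h) hne
    · have := key x' hx' x hx h
      exact le_trans (by linarith) (le_abs_self _)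
  · have := key x hx x' hx' (ord_lt.2 (Or.inl h))
    have h3 := hl x hx
    have h4 := hl x' hx'
    linarith
  · have := key x hx x' hx' (ord_lt.2 (Or.inr ⟨h, h'⟩))
    have h3 := hl x hx
    have h4 := hl x' hx'
    linarith
  · rw [hV x hx, ← hsum]
    exact h3 ⟨x, hx⟩

/-! ### nested long chords -/

lemma ramp_self {w p : ℝ} : ramp w p p = 0 := by
  unfold ramp
  rw [sub_self, zero_div, cl_of_mem (by constructor <;> norm_num)]

lemma lt_of_neg_ramp {w p t : ℝ} (hw : 0 < w) (h : 0 < - ramp w p t) : t < p := by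
  by_contra hc
  rw [not_lt] at hc
  have h1 : (0:ℝ) ≤ ramp w p t := by
    have : Bd_416.cl 0 ≤ ramp w p t := Bd_416.cl_mono (div_nonneg (by linarith) hw.le)
    rwa [cl_of_mem (by constructor <;> norm_num)] at this
  linarith

lemma inc_side {s : Fin 4} {x x' : ι} (hx : W.n s x = 1)
    (h : ∀ t, |t| ≤ 1 → L.c x (sd s t) = - ramp (W.ws s x) (W.ps s x) t)
    (h' : ∀ t, |t| ≤ 1 → L.c x' (sd s t) = - ramp (W.ws s x') (W.ps s x') t)
    (hi : Inc L x x') : W.ps s x < W.ps s x' := by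
  have h1 := ps_lo hx
  have h2 := ps_hi hx
  have h3 := ws_pos (W := W) s x
  have h4 : |W.ps s x| ≤ 1 := abs_le.2 ⟨by linarith, by linarith⟩
  have h5 := hi _ (sd_mem s h4) (by rw [h _ h4, ramp_self]; norm_num)
  rw [h' _ h4] at h5
  exact lt_of_neg_ramp (ws_pos s x') h5

lemma inc_A (h2 : W.Two) {x x' : ι} (hx : W.cls x = 1) (hx' : W.cls x' = 1) (h : Inc L x x') :
    W.ps 2 x < W.ps 2 x' ∧ W.ps 3 x < W.ps 3 x' := by
  obtain ⟨a0, a1, a2, a3⟩ := cls_one h2 hx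
  obtain ⟨b0, b1, b2, b3⟩ := cls_one h2 hx'
  exact ⟨inc_side a2 (fun t ht => A_left a0 a2 a3 ht) (fun t ht => A_left b0 b2 b3 ht) h,
    inc_side a3 (fun t ht => A_right a3 ht) (fun t ht => A_right b3 ht) h⟩

lemma inc_B (h2 : W.Two) {x x' : ι} (hx : W.cls x = 2) (hx' : W.cls x' = 2) (h : Inc L x x') :
    W.ps 0 x < W.ps 0 x' ∧ W.ps 1 x < W.ps 1 x' := by
  obtain ⟨a0, a1, a2, a3⟩ := cls_two h2 hx
  obtain ⟨b0, b1, b2, b3⟩ := cls_two h2 hx'
  exact ⟨inc_side a0 (fun t ht => B_bot a0 a3 ht) (fun t ht => B_bot b0 b3 ht) h,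
    inc_side a1 (fun t ht => B_top a1 ht) (fun t ht => B_top b1 ht) h⟩

/-- the chords of a class -/
noncomputable def cl4 (W : Bw L) (κ : Fin 4) : Finset ι := Finset.univ.filter fun x => W.cls x = κ

lemma mem_cl4 {κ : Fin 4} {x : ι} : x ∈ W.cl4 κ ↔ W.cls x = κ := by simp [cl4]

/-- **heights of the chords of one long class** -/
theorem heights (k0 : ι → ℕ) (hk : Function.Injective k0) {κ s s' : Fin 4} {c : ℝ} (hc : 0 < c)
    (hn : ∀ x, W.cls x = κ → W.n s x = 1) (hn' : ∀ x, W.cls x = κ → W.n s' x = 1)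
    (hinc : ∀ x x', W.cls x = κ → W.cls x' = κ → Inc L x x' →
      W.ps s x < W.ps s x' ∧ W.ps s' x < W.ps s' x')
    (l : ι → ℝ) (hl : ∀ x, 0 < l x) (hls : ∀ x, W.cls x = κ → l x ≤ c * W.ws s x)
    (hls' : ∀ x, W.cls x = κ → l x ≤ c * W.ws s' x) (M : Finset ι)
    (hM : ∀ x ∈ M, ∀ x' ∈ M, W.ps s x < W.ps s x' → W.ps s' x < W.ps s' x') {lam : ℝ}
    (hlam : ∀ x, W.cls x = κ → l x ≤ lam) :
    ∃ v : ι → ℝ, (∀ x, W.cls x = κ → c * (W.ps s x + W.ws s x / 2) ≤ v x + l x / 2) ∧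
      (∀ x, W.cls x = κ → c * (W.ps s' x + W.ws s' x / 2) ≤ v x + l x / 2) ∧
      (∀ x, W.cls x = κ → v x + l x / 2 ≤ max (c * (W.ps s x + W.ws s x / 2))
        (c * (W.ps s' x + W.ws s' x / 2)) + ∑ j ∈ W.cl4 κ \ M, l j + 2 * lam) ∧
      (∀ x x', W.cls x = κ → W.cls x' = κ → x ≠ x' → (l x + l x') / 2 ≤ |v x - v x'|) ∧
      ∀ x x', W.cls x = κ → W.cls x' = κ → Inc L x x' → v x < v x' := by
  have gap : ∀ x x', W.cls x = κ → W.cls x' = κ → W.ps s x < W.ps s x' →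
      W.ps s' x < W.ps s' x' → W.yy s s' c l x + (l x + l x') / 2 ≤ W.yy s s' c l x' := by
    intro x x' hx hx' h1 h2
    exact yy_gap hc (hn x hx) (hn x' hx') (hn' x hx) (hn' x' hx') (hls x' hx') (hls' x' hx') h1 h2
  obtain ⟨v, h1, h2, h3, -, h5⟩ := greedy_on (W.cl4 κ) (W.yy s s' c l) l (fun x _ => hl x) k0 hk M
    (fun x hx x' hx' hxS hxS' hne => by
      rw [mem_cl4] at hxS hxS'
      have hsep := ps_sep (hn x hxS) (hn x' hxS') hne
      have hw := ws_pos (W := W) s x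
      have hw' := ws_pos (W := W) s x'
      rcases lt_trichotomy (W.ps s x) (W.ps s x') with h | h | h
      · have := gap x x' hxS hxS' h (hM x hx x' hx' h)
        rw [abs_sub_comm]
        exact le_trans (by linarith) (le_abs_self _)
      · rw [h, sub_self, abs_zero] at hsep
        linarith
      · have := gap x' x hxS' hxS h (hM x' hx' x hx h)
        exact le_trans (by linarith) (le_abs_self _))
    (fun x hx => hlam x (mem_cl4.1 hx))
  refine ⟨v, fun x hx => ?_, fun x hx => ?_, fun x hx => ?_, fun x x' hx hx' hne => ?_,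
    fun x x' hx hx' hi => ?_⟩
  · have := h1 x (mem_cl4.2 hx)
    unfold yy at this
    have := le_max_left (c * (W.ps s x + W.ws s x / 2)) (c * (W.ps s' x + W.ws s' x / 2))
    linarith
  · have := h1 x (mem_cl4.2 hx)
    unfold yy at this
    have := le_max_right (c * (W.ps s x + W.ws s x / 2)) (c * (W.ps s' x + W.ws s' x / 2))
    linarith
  · have := h5 x (mem_cl4.2 hx)
    unfold yy at this
    linarith
  · exact h2 x (mem_cl4.2 hx) x' (mem_cl4.2 hx') hne
  · obtain ⟨a1, a2⟩ := hinc x x' hx hx' hi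
    have := gap x x' hx hx' a1 a2
    exact h3 x (mem_cl4.2 hx) x' (mem_cl4.2 hx') (by linarith [hl x, hl x'])

/-- **packing of the other classes** -/
theorem packed (k0 : ι → ℕ) (hk : Function.Injective k0) (κ : Fin 4) (l : ι → ℝ)
    (hl : ∀ x, 0 < l x) {lam : ℝ} (hlam : ∀ x, W.cls x = κ → l x ≤ lam) :
    ∃ v : ι → ℝ, (∀ x, W.cls x = κ → 0 ≤ v x - l x / 2) ∧
      (∀ x, W.cls x = κ → v x + l x / 2 ≤ ∑ j ∈ W.cl4 κ, l j + 3 * lam) ∧
      (∀ x x', W.cls x = κ → W.cls x' = κ → x ≠ x' → (l x + l x') / 2 ≤ |v x - v x'|) ∧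
      ∀ x x', W.cls x = κ → W.cls x' = κ → k0 x' < k0 x → v x < v x' := by
  obtain ⟨v, h1, h2, -, h4, h5⟩ := greedy_on (W.cl4 κ) (fun _ => lam / 2) l (fun x _ => hl x) k0 hk ∅
    (fun x hx => absurd hx (Finset.notMem_empty x)) (fun x hx => hlam x (mem_cl4.1 hx))
  refine ⟨v, fun x hx => ?_, fun x hx => ?_, fun x x' hx hx' hne => ?_,
    fun x x' hx hx' hi => ?_⟩
  · have h6 : lam / 2 ≤ v x := h1 x (mem_cl4.2 hx)
    have := hlam x hx
    linarith
  · have h6 : v x ≤ lam / 2 + ∑ j ∈ W.cl4 κ \ ∅, l j + 2 * lam := h5 x (mem_cl4.2 hx)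
    rw [Finset.sdiff_empty] at h6
    have := hlam x hx
    linarith
  · exact h2 x (mem_cl4.2 hx) x' (mem_cl4.2 hx') hne
  · exact h4 x (mem_cl4.2 hx) x' (mem_cl4.2 hx') rfl hi

end Bw

end Crest.Agent.R096.Fk_522
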