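import Crest.Agent.R096.Fk4_522

/-!
# R096 (row 96), P4-FACE, combinatorics, part 5: the depths of all chords (helper522)
-/

set_option autoImplicit false
set_option linter.unusedSectionVars false

open Set Metric

namespace Crest.Agent.R096.Fk_522

open Crest.Agent.R096.Ce_537 Crest.Agent.R096.Bd_416 Crest.Agent.R096.Fsw_928

open scoped Classical

namespace Bw

variable {ι : Type} [Fintype ι] {L : Lam (sph 2) ι} {W : Bw L}

/-- **the depths of the chords of a face**: `v` = heights of the long chords, `l` = their gaps -/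
structure Dpt (W : Bw L) (P P' : Par) (K b : ℝ) (l : ι → ℝ) (Rl : ι → ι → Prop)
    (eA eB : ℝ) where
  v : ι → ℝ
  h : ι → ℝ
  ρ : ι → ℝ
  D : Dep L K b h ρ
  nest : ∀ x x', Rl x x' → ρ x' < ρ x
  hA : ∀ x, W.cls x = 1 → h x = l x / (4 * P.H)
  ρA : ∀ x, W.cls x = 1 → ρ x = 1 - (1 + v x) / (4 * P.H)
  lowA : ∀ x, W.cls x = 1 → 3/4 ≤ ρ x - h x / 2
  vA2 : ∀ x, W.cls x = 1 → W.ps 2 x + W.ws 2 x / 2 ≤ v x + l x / 2
  vA3 : ∀ x, W.cls x = 1 → W.ps 3 x + W.ws 3 x / 2 ≤ v x + l x / 2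
  vA : ∀ x, W.cls x = 1 → v x + l x / 2 ≤
    max (W.ps 2 x + W.ws 2 x / 2) (W.ps 3 x + W.ws 3 x / 2) + eA
  sepA : ∀ x x', W.cls x = 1 → W.cls x' = 1 → x ≠ x' → (l x + l x') / 2 ≤ |v x - v x'|
  hB : ∀ x, W.cls x = 2 → h x = l x / (8 * P'.H)
  ρB : ∀ x, W.cls x = 2 → ρ x = 3/4 - (1 + v x) / (8 * P'.H)
  highB : ∀ x, W.cls x = 2 → ρ x + h x / 2 ≤ 3/4
  lowB : ∀ x, W.cls x = 2 → 5/8 ≤ ρ x - h x / 2
  vB0 : ∀ x, W.cls x = 2 → (W.ps 0 x + W.ws 0 x / 2) / (1 - P.a) ≤ v x + l x / 2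
  vB1 : ∀ x, W.cls x = 2 → (W.ps 1 x + W.ws 1 x / 2) / (1 - P.a) ≤ v x + l x / 2
  vB : ∀ x, W.cls x = 2 → v x + l x / 2 ≤
    max ((W.ps 0 x + W.ws 0 x / 2) / (1 - P.a)) ((W.ps 1 x + W.ws 1 x / 2) / (1 - P.a)) + eB
  hX : ∀ x, W.cls x = 0 ∨ W.cls x = 3 → h x = l x

/-- the windows of the classes -/
lemma fin4_cases (κ : Fin 4) : κ = 0 ∨ κ = 1 ∨ κ = 2 ∨ κ = 3 := by
  fin_cases κ <;> simp

theorem exists_dpt (h2 : W.Two) (P P' : Par) {K b ε δ : ℝ} (hC : Cst K b) (k0 : ι → ℕ)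
    (hk : Function.Injective k0) (Rl : ι → ι → Prop) (hR1 : ∀ x x', Rl x x' → Inc L x x')
    (hR2 : ∀ x x', Rl x x' → k0 x' < k0 x) (l : ι → ℝ) (hl : ∀ x, 0 < l x)
    (lA2 : ∀ x, W.cls x = 1 → l x ≤ W.ws 2 x) (lA3 : ∀ x, W.cls x = 1 → l x ≤ W.ws 3 x)
    (lB0 : ∀ x, W.cls x = 2 → l x ≤ W.ws 0 x) (lB1 : ∀ x, W.cls x = 2 → l x ≤ W.ws 1 x)
    (mlo : ∀ s x, W.n s x = 1 → -(1 - δ) ≤ W.ps s x - W.ws s x / 2)
    (mhi : ∀ s x, W.n s x = 1 → W.ps s x + W.ws s x / 2 ≤ 1 - δ)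
    (hεδ : P.H * ε ≤ δ) (haδ : P.a ≤ δ) (hε : 0 ≤ ε) (hε1 : ε ≤ 1)
    (MA MB : Finset ι)
    (hMA : ∀ x ∈ MA, ∀ x' ∈ MA, W.ps 2 x < W.ps 2 x' → W.ps 3 x < W.ps 3 x')
    (hMB : ∀ x ∈ MB, ∀ x' ∈ MB, W.ps 0 x < W.ps 0 x' → W.ps 1 x < W.ps 1 x')
    {lam eA eB : ℝ} (hlam : ∀ x, l x ≤ lam)
    (heA : ∑ j ∈ W.cl4 1 \ MA, l j + 2 * lam ≤ eA) (heB : ∑ j ∈ W.cl4 2 \ MB, l j + 2 * lam ≤ eB)
    (he0 : ∑ j ∈ W.cl4 0, l j + 3 * lam ≤ ε / 4) (he3 : ∑ j ∈ W.cl4 3, l j + 3 * lam ≤ 1/8)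
    (hHA : 2 - δ + eA ≤ P.H) (hHB : 1 + (1 - δ) / (1 - P.a) + eB ≤ P'.H) :
    Nonempty (Dpt W P P' K b l Rl eA eB) := by
  have hcA := fun x hx => cls_one (W := W) h2 (x := x) hx
  have hcB := fun x hx => cls_two (W := W) h2 (x := x) hx
  have ha := one_sub_a P
  have hP := P.H0
  have hP' := P'.H0
  have ha0 := P.a0
  have hinv : 1 ≤ (1 - P.a)⁻¹ := (one_le_inv₀ ha).2 (by linarith)
  have hscale : ∀ t : ℝ, 0 ≤ t → t ≤ (1 - P.a)⁻¹ * t := fun t ht => le_mul_of_one_le_left ht hinv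
  obtain ⟨vA, a1, a2, a3, a4, a5⟩ := heights (W := W) (κ := 1) (s := 2) (s' := 3) (c := 1) k0 hk
    one_pos (fun x hx => (hcA x hx).2.2.1) (fun x hx => (hcA x hx).2.2.2)
    (fun x x' hx hx' hi => inc_A h2 hx hx' hi) l hl (fun x hx => by rw [one_mul]; exact lA2 x hx)
    (fun x hx => by rw [one_mul]; exact lA3 x hx) MA hMA (lam := lam) (fun x _ => hlam x)
  obtain ⟨vB, b1, b2, b3, b4, b5⟩ := heights (W := W) (κ := 2) (s := 0) (s' := 1)
    (c := (1 - P.a)⁻¹) k0 hk
    (by positivity) (fun x hx => (hcB x hx).1) (fun x hx => (hcB x hx).2.1)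
    (fun x x' hx hx' hi => inc_B h2 hx hx' hi) l hl
    (fun x hx => (lB0 x hx).trans (hscale _ (ws_pos 0 x).le))
    (fun x hx => (lB1 x hx).trans (hscale _ (ws_pos 1 x).le)) MB hMB (lam := lam) (fun x _ => hlam x)
  obtain ⟨v0, c1, c2, c3, c4⟩ := packed (W := W) k0 hk 0 l hl (lam := lam) (fun x _ => hlam x)
  obtain ⟨v3, d1, d2, d3, d4⟩ := packed (W := W) k0 hk 3 l hl (lam := lam) (fun x _ => hlam x)
  simp only [one_mul] at a1 a2 a3
  -- definitions
  let v : ι → ℝ := fun x => if W.cls x = 1 then vA x else if W.cls x = 2 then vB x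
    else if W.cls x = 3 then v3 x else v0 x
  let h : ι → ℝ := fun x => if W.cls x = 1 then l x / (4 * P.H) else if W.cls x = 2 then
    l x / (8 * P'.H) else l x
  let ρ : ι → ℝ := fun x => if W.cls x = 1 then 1 - (1 + vA x) / (4 * P.H) else
    if W.cls x = 2 then 3/4 - (1 + vB x) / (8 * P'.H) else if W.cls x = 3 then 5/8 - v3 x
    else 1 - v0 x
  have n21 : ¬ ((2 : Fin 4) = 1) := by decide
  have n31 : ¬ ((3 : Fin 4) = 1) := by decide
  have n32 : ¬ ((3 : Fin 4) = 2) := by decide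
  have n01 : ¬ ((0 : Fin 4) = 1) := by decide
  have n02 : ¬ ((0 : Fin 4) = 2) := by decide
  have n03 : ¬ ((0 : Fin 4) = 3) := by decide
  have h1e : ∀ x, W.cls x = 1 → h x = l x / (4 * P.H) := fun x hx => if_pos hx
  have h2e : ∀ x, W.cls x = 2 → h x = l x / (8 * P'.H) := fun x hx => by
    simp only [h, hx, n21, if_false, if_true]
  have h3e : ∀ x, W.cls x = 3 → h x = l x := fun x hx => by
    simp only [h, hx, n31, n32, if_false]
  have h0e : ∀ x, W.cls x = 0 → h x = l x := fun x hx => by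
    simp only [h, hx, n01, n02, if_false]
  have r1e : ∀ x, W.cls x = 1 → ρ x = 1 - (1 + vA x) / (4 * P.H) := fun x hx => if_pos hx
  have r2e : ∀ x, W.cls x = 2 → ρ x = 3/4 - (1 + vB x) / (8 * P'.H) := fun x hx => by
    simp only [ρ, hx, n21, if_false, if_true]
  have r3e : ∀ x, W.cls x = 3 → ρ x = 5/8 - v3 x := fun x hx => by
    simp only [ρ, hx, n31, n32, if_false, if_true]
  have r0e : ∀ x, W.cls x = 0 → ρ x = 1 - v0 x := fun x hx => by
    simp only [ρ, hx, n01, n02, n03, if_false]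
  have v1e : ∀ x, W.cls x = 1 → v x = vA x := fun x hx => if_pos hx
  have v2e : ∀ x, W.cls x = 2 → v x = vB x := fun x hx => by
    simp only [v, hx, n21, if_false, if_true]
  -- windows
  have hi1 : ∀ x, W.cls x = 1 → ρ x + h x / 2 ≤ 1 - ε / 4 := by
    intro x hx
    rw [r1e x hx, h1e x hx]
    have e1 := a1 x hx
    have e2 := mlo 2 x (hcA x hx).2.2.1
    have e3 := lA2 x hx
    have e4 : ε / 4 ≤ (1 + vA x - l x / 2) / (4 * P.H) := by
      rw [le_div_iff₀ (by positivity)]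
      linarith
    have e5 : (1 + vA x - l x / 2) / (4 * P.H)
        = (1 + vA x) / (4 * P.H) - l x / (4 * P.H) / 2 := by ring
    linarith
  have lo1 : ∀ x, W.cls x = 1 → 3/4 ≤ ρ x - h x / 2 := by
    intro x hx
    rw [r1e x hx, h1e x hx]
    have e1 := a3 x hx
    have e2 := mhi 2 x (hcA x hx).2.2.1
    have e3 := mhi 3 x (hcA x hx).2.2.2
    have e6 := max_le e2 e3
    have e4 : (1 + vA x + l x / 2) / (4 * P.H) ≤ 1/4 := by
      rw [div_le_iff₀ (by positivity)]
      linarith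
    have e5 : (1 + vA x + l x / 2) / (4 * P.H)
        = (1 + vA x) / (4 * P.H) + l x / (4 * P.H) / 2 := by ring
    linarith
  have hi2 : ∀ x, W.cls x = 2 → ρ x + h x / 2 ≤ 3/4 := by
    intro x hx
    rw [r2e x hx, h2e x hx]
    have e1 := b1 x hx
    have e2 := mlo 0 x (hcB x hx).1
    have e3 := (lB0 x hx).trans (hscale _ (ws_pos 0 x).le)
    have e6 : -1 ≤ (1 - P.a)⁻¹ * (W.ps 0 x - W.ws 0 x / 2) := by
      rw [inv_mul_eq_div, le_div_iff₀ ha]
      linarith
    have e4 : 0 ≤ (1 + vB x - l x / 2) / (8 * P'.H) := by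
      apply div_nonneg _ (by positivity)
      have e7 : (1 - P.a)⁻¹ * (W.ps 0 x + W.ws 0 x / 2)
          = (1 - P.a)⁻¹ * (W.ps 0 x - W.ws 0 x / 2) + (1 - P.a)⁻¹ * W.ws 0 x := by ring
      linarith
    have e5 : (1 + vB x - l x / 2) / (8 * P'.H)
        = (1 + vB x) / (8 * P'.H) - l x / (8 * P'.H) / 2 := by ring
    linarith
  have lo2 : ∀ x, W.cls x = 2 → 5/8 ≤ ρ x - h x / 2 := by
    intro x hx
    rw [r2e x hx, h2e x hx]
    have e1 := b3 x hx
    have e2 := mhi 0 x (hcB x hx).1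
    have e3 := mhi 1 x (hcB x hx).2.1
    have e6 : max ((1 - P.a)⁻¹ * (W.ps 0 x + W.ws 0 x / 2))
        ((1 - P.a)⁻¹ * (W.ps 1 x + W.ws 1 x / 2)) ≤ (1 - δ) / (1 - P.a) := by
      rw [inv_mul_eq_div, inv_mul_eq_div]
      exact max_le (div_le_div_of_nonneg_right e2 ha.le) (div_le_div_of_nonneg_right e3 ha.le)
    have e4 : (1 + vB x + l x / 2) / (8 * P'.H) ≤ 1/8 := by
      rw [div_le_iff₀ (by positivity)]
      linarith
    have e5 : (1 + vB x + l x / 2) / (8 * P'.H)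
        = (1 + vB x) / (8 * P'.H) + l x / (8 * P'.H) / 2 := by ring
    linarith
  have hi0 : ∀ x, W.cls x = 0 → ρ x + h x / 2 ≤ 1 := by
    intro x hx
    rw [r0e x hx, h0e x hx]
    have := c1 x hx
    linarith
  have lo0 : ∀ x, W.cls x = 0 → 1 - ε / 4 ≤ ρ x - h x / 2 := by
    intro x hx
    rw [r0e x hx, h0e x hx]
    have := c2 x hx
    linarith
  have hi3 : ∀ x, W.cls x = 3 → ρ x + h x / 2 ≤ 5/8 := by
    intro x hx
    rw [r3e x hx, h3e x hx]
    have := d1 x hx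
    linarith
  have lo3 : ∀ x, W.cls x = 3 → 1/2 ≤ ρ x - h x / 2 := by
    intro x hx
    rw [r3e x hx, h3e x hx]
    have := d2 x hx
    linarith
  have h0 : ∀ x, 0 < h x := by
    intro x
    have := hl x
    rcases fin4_cases (W.cls x) with hx | hx | hx | hx
    · rw [h0e x hx]; exact this
    · rw [h1e x hx]; positivity
    · rw [h2e x hx]; positivity
    · rw [h3e x hx]; exact this
  -- different classes
  have hlt : ∀ x x', W.cls x < W.cls x' → ρ x' + h x' / 2 ≤ ρ x - h x / 2 := by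
    intro x x' hxx
    rcases fin4_cases (W.cls x) with hx | hx | hx | hx <;>
      rcases fin4_cases (W.cls x') with hx' | hx' | hx' | hx' <;>
      first
      | (exfalso; rw [hx, hx'] at hxx; revert hxx; decide)
      | skip
    · linarith [lo0 x hx, hi1 x' hx']
    · linarith [lo0 x hx, hi2 x' hx']
    · linarith [lo0 x hx, hi3 x' hx']
    · linarith [lo1 x hx, hi2 x' hx']
    · linarith [lo1 x hx, hi3 x' hx']
    · linarith [lo2 x hx, hi3 x' hx']
  have habs : ∀ {A B c : ℝ}, 0 < c → |(A - B) / c| = |A - B| / c := fun {A B c} hc => by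
    rw [abs_div, abs_of_pos hc]
  have hsep : ∀ x x', x ≠ x' → (h x + h x') / 2 ≤ |ρ x - ρ x'| := by
    intro x x' hne
    rcases lt_trichotomy (W.cls x) (W.cls x') with hc | hc | hc
    · have := hlt x x' hc
      exact le_trans (by linarith) (le_abs_self _)
    · rcases fin4_cases (W.cls x) with hx | hx | hx | hx
      · have hx' : W.cls x' = 0 := by rw [← hc]; exact hx
        rw [h0e x hx, h0e x' hx', r0e x hx, r0e x' hx']
        have := c3 x x' hx hx' hne
        have e : 1 - v0 x - (1 - v0 x') = -(v0 x - v0 x') := by ring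
        rw [e, abs_neg]; exact this
      · have hx' : W.cls x' = 1 := by rw [← hc]; exact hx
        rw [h1e x hx, h1e x' hx', r1e x hx, r1e x' hx']
        have := a4 x x' hx hx' hne
        have e : 1 - (1 + vA x) / (4 * P.H) - (1 - (1 + vA x') / (4 * P.H))
            = -((vA x - vA x') / (4 * P.H)) := by ring
        rw [e, abs_neg, habs (by positivity)]
        have e2 : (l x / (4 * P.H) + l x' / (4 * P.H)) / 2 = ((l x + l x') / 2) / (4 * P.H) := by
          ring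
        rw [e2]
        exact div_le_div_of_nonneg_right this (by positivity)
      · have hx' : W.cls x' = 2 := by rw [← hc]; exact hx
        rw [h2e x hx, h2e x' hx', r2e x hx, r2e x' hx']
        have := b4 x x' hx hx' hne
        have e : 3/4 - (1 + vB x) / (8 * P'.H) - (3/4 - (1 + vB x') / (8 * P'.H))
            = -((vB x - vB x') / (8 * P'.H)) := by ring
        rw [e, abs_neg, habs (by positivity)]
        have e2 : (l x / (8 * P'.H) + l x' / (8 * P'.H)) / 2 = ((l x + l x') / 2) / (8 * P'.H) := by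
          ring
        rw [e2]
        exact div_le_div_of_nonneg_right this (by positivity)
      · have hx' : W.cls x' = 3 := by rw [← hc]; exact hx
        rw [h3e x hx, h3e x' hx', r3e x hx, r3e x' hx']
        have := d3 x x' hx hx' hne
        have e : 5/8 - v3 x - (5/8 - v3 x') = -(v3 x - v3 x') := by ring
        rw [e, abs_neg]; exact this
    · have := hlt x' x hc
      rw [abs_sub_comm]
      exact le_trans (by linarith) (le_abs_self _)
  have hnest : ∀ x x', Rl x x' → ρ x' < ρ x := by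
    intro x x' hR
    have hi := hR1 x x' hR
    have hkk := hR2 x x' hR
    rcases (cls_le h2 hi).lt_or_eq with hc | hc
    · have := hlt x x' hc
      have := h0 x
      have := h0 x'
      linarith
    · rcases fin4_cases (W.cls x) with hx | hx | hx | hx
      · have hx' : W.cls x' = 0 := by rw [← hc]; exact hx
        have := c4 x x' hx hx' hkk
        rw [r0e x hx, r0e x' hx']; linarith
      · have hx' : W.cls x' = 1 := by rw [← hc]; exact hx
        have := a5 x x' hx hx' hi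
        rw [r1e x hx, r1e x' hx']
        have : (1 + vA x) / (4 * P.H) < (1 + vA x') / (4 * P.H) :=
          div_lt_div_of_pos_right (by linarith) (by positivity)
        linarith
      · have hx' : W.cls x' = 2 := by rw [← hc]; exact hx
        have := b5 x x' hx hx' hi
        rw [r2e x hx, r2e x' hx']
        have : (1 + vB x) / (8 * P'.H) < (1 + vB x') / (8 * P'.H) :=
          div_lt_div_of_pos_right (by linarith) (by positivity)
        linarith
      · have hx' : W.cls x' = 3 := by rw [← hc]; exact hx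
        have := d4 x x' hx hx' hkk
        rw [r3e x hx, r3e x' hx']; linarith
  refine ⟨⟨v, h, ρ, ⟨hC, h0, ?_, ?_, fun x x' hne _ => hsep x x' hne⟩, hnest, h1e,
    fun x hx => by rw [r1e x hx, v1e x hx], lo1, fun x hx => by rw [v1e x hx]; exact a1 x hx,
    fun x hx => by rw [v1e x hx]; exact a2 x hx, fun x hx => ?_, fun x x' hx hx' hne => ?_, h2e,
    fun x hx => by rw [r2e x hx, v2e x hx], hi2, lo2, fun x hx => ?_, fun x hx => ?_,
    fun x hx => ?_, fun x hx => ?_⟩⟩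
  · intro x
    rcases fin4_cases (W.cls x) with hx | hx | hx | hx
    · linarith [lo0 x hx]
    · linarith [lo1 x hx]
    · linarith [lo2 x hx]
    · exact lo3 x hx
  · intro x
    rcases fin4_cases (W.cls x) with hx | hx | hx | hx
    · exact hi0 x hx
    · linarith [hi1 x hx]
    · linarith [hi2 x hx]
    · linarith [hi3 x hx]
  · rw [v1e x hx]
    have := a3 x hx
    linarith
  · rw [v1e x hx, v1e x' hx']
    exact a4 x x' hx hx' hne
  · rw [v2e x hx]
    have := b1 x hx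
    rwa [inv_mul_eq_div] at this
  · rw [v2e x hx]
    have := b2 x hx
    rwa [inv_mul_eq_div] at this
  · rw [v2e x hx]
    have := b3 x hx
    rw [inv_mul_eq_div, inv_mul_eq_div] at this
    linarith
  · rcases hx with hx | hx
    · exact h0e x hx
    · exact h3e x hx

end Bw

end Crest.Agent.R096.Fk_522
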