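import Crest.Agent.R096.Fk5_522

/-!
# R096 (row 96), P4-FACE, combinatorics, part 6: nearly pure boundary words (helper522)
-/

set_option autoImplicit false
set_option linter.unusedSectionVars false

open Set Metric

namespace Crest.Agent.R096.Fk_522

open Crest.Agent.R096.Ce_537 Crest.Agent.R096.Bd_416 Crest.Agent.R096.Fsw_928

open scoped Classical

namespace Bw

variable {ι : Type} [Fintype ι] {L : Lam (sph 2) ι} {W : Bw L}

/-! ### sums over ends and over chords -/

/-- total width of the bands of a chord -/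
noncomputable def tot (W : Bw L) (x : ι) : ℝ := ∑ s, ∑ y ∈ W.en s x, W.w s y

lemma w_le_tot {s : Fin 4} {y : W.E s} : W.w s y ≤ W.tot (W.up s y) := by
  have h1 : W.w s y ≤ ∑ y' ∈ W.en s (W.up s y), W.w s y' :=
    Finset.single_le_sum (f := W.w s) (fun z _ => ((W.ed s).w0 z).le) (W.mem_en.2 rfl)
  refine h1.trans ?_
  exact Finset.single_le_sum (f := fun s' => ∑ y' ∈ W.en s' (W.up s y), W.w s' y')
    (fun s' _ => Finset.sum_nonneg fun z _ => ((W.ed s').w0 z).le) (Finset.mem_univ s)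

lemma tot_nonneg (x : ι) : 0 ≤ W.tot x :=
  Finset.sum_nonneg fun s _ => Finset.sum_nonneg fun z _ => ((W.ed s).w0 z).le

lemma exists_end_of_two (h2 : W.Two) (x : ι) : ∃ s, ∃ y : W.E s, W.up s y = x := by
  by_contra hc
  push Not at hc
  have h : ∀ s, W.n s x = 0 := fun s => by
    unfold n
    rw [Finset.card_eq_zero]
    ext y
    simp [mem_en, hc s y]
  have := h2 x
  rw [h 0, h 1, h 2, h 3] at this
  omega

lemma sum_fib (s : Fin 4) (S : Finset ι) :
    ∑ x ∈ S, ∑ y ∈ W.en s x, W.w s y = ∑ y : W.E s with W.up s y ∈ S, W.w s y := by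
  rw [← Finset.sum_fiberwise_of_maps_to (s := Finset.univ.filter fun y : W.E s => W.up s y ∈ S)
    (t := S) (g := W.up s) (fun y hy => (Finset.mem_filter.1 hy).2)]
  refine Finset.sum_congr rfl fun x hx => ?_
  refine Finset.sum_congr ?_ fun _ _ => rfl
  ext y
  rw [mem_en, Finset.mem_filter, Finset.mem_filter]
  constructor
  · rintro rfl; exact ⟨⟨Finset.mem_univ _, hx⟩, rfl⟩
  · exact fun h => h.2

lemma sum_en_one {s : Fin 4} {x : ι} (h : W.n s x = 1) : ∑ y ∈ W.en s x, W.w s y = W.ws s x := by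
  obtain ⟨y, e1, -, e3⟩ := exists_one h
  rw [e1, Finset.sum_singleton, e3]

lemma sum_ws {s : Fin 4} {S : Finset ι} (h : ∀ x ∈ S, W.n s x = 1) :
    ∑ x ∈ S, W.ws s x = ∑ y : W.E s with W.up s y ∈ S, W.w s y := by
  rw [← sum_fib]
  exact Finset.sum_congr rfl fun x hx => (sum_en_one (h x hx)).symm

lemma ps_up {s : Fin 4} {y : W.E s} (h : W.n s (W.up s y) = 1) : W.ps s (W.up s y) = W.p s y := by
  obtain ⟨y', e1, e2, -⟩ := exists_one h
  have : y ∈ W.en s (W.up s y) := W.mem_en.2 rfl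
  rw [e1, Finset.mem_singleton] at this
  rw [e2, this]

lemma ws_up {s : Fin 4} {y : W.E s} (h : W.n s (W.up s y) = 1) : W.ws s (W.up s y) = W.w s y := by
  obtain ⟨y', e1, -, e2⟩ := exists_one h
  have : y ∈ W.en s (W.up s y) := W.mem_en.2 rfl
  rw [e1, Finset.mem_singleton] at this
  rw [e2, this]

/-- main chords below a height -/
lemma sum_below {s : Fin 4} {M : Finset ι} (hn : ∀ x ∈ M, W.n s x = 1) (t : ℝ) :
    ∑ x ∈ M with W.ps s x ≤ t, W.ws s x
      = ∑ y : W.E s with (W.up s y ∈ M ∧ W.p s y ≤ t), W.w s y := by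
  rw [sum_ws (fun x hx => hn x (Finset.mem_filter.1 hx).1)]
  refine Finset.sum_congr ?_ fun _ _ => rfl
  ext y
  simp only [Finset.mem_filter, Finset.mem_univ, true_and]
  constructor
  · rintro ⟨h1, h2⟩
    rw [ps_up (hn _ h1)] at h2
    exact ⟨h1, h2⟩
  · rintro ⟨h1, h2⟩
    refine ⟨h1, ?_⟩
    rw [ps_up (hn _ h1)]; exact h2

/-! ### closeness of the two ends of a main chord -/

/-- upper bound of a position by the total width -/
lemma pos_le {s : Fin 4} {δ η : ℝ}
    (mhi : ∀ y, W.p s y + W.w s y / 2 ≤ 1 - δ) (full : 2 * (1 - δ) - η ≤ ∑ y, W.w s y)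
    (y : W.E s) : W.p s y + W.w s y / 2 ≤ -(1 - δ) + η + ∑ z with W.p s z ≤ W.p s y, W.w s z := by
  have h1 : ∑ z with ¬ W.p s z ≤ W.p s y, W.w s z ≤ (1 - δ) - (W.p s y + W.w s y / 2) := by
    refine sum_le_of_disjoint _ (W.p s) (W.w s) (by linarith [mhi y]) ?_ (fun z _ => mhi z)
      (fun z _ => ((W.ed s).w0 z).le) (fun z _ z' _ hne => ((W.ed s).sep z z' hne).le)
    intro z hz
    have hz' := not_le.1 (Finset.mem_filter.1 hz).2
    have hne : z ≠ y := by rintro rfl; exact lt_irrefl _ hz'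
    have h2 := (W.ed s).sep z y hne
    rw [abs_of_pos (by linarith)] at h2
    linarith
  have h2 := Finset.sum_filter_add_sum_filter_not (Finset.univ : Finset (W.E s))
    (fun z => W.p s z ≤ W.p s y) (W.w s)
  linarith

/-- lower bound of a position -/
lemma le_pos {s : Fin 4} {δ : ℝ} (mlo : ∀ y, -(1 - δ) ≤ W.p s y - W.w s y / 2) (y : W.E s) :
    -(1 - δ) + ∑ z with W.p s z ≤ W.p s y, W.w s z ≤ W.p s y + W.w s y / 2 := by
  have h0 := (W.ed s).w0 y
  have h1 : ∑ z with W.p s z ≤ W.p s y, W.w s z ≤ (W.p s y + W.w s y / 2) - (-(1 - δ)) := by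
    refine sum_le_of_disjoint _ (W.p s) (W.w s) (by linarith [mlo y]) (fun z _ => mlo z) ?_
      (fun z _ => ((W.ed s).w0 z).le) (fun z _ z' _ hne => ((W.ed s).sep z z' hne).le)
    intro z hz
    have hz' := (Finset.mem_filter.1 hz).2
    by_cases hne : z = y
    · rw [hne]
    have h2 := (W.ed s).sep z y hne
    rw [abs_sub_comm, abs_of_nonneg (by linarith)] at h2
    linarith
  linarith

/-- **the two ends of a main chord have nearly the same height** -/
theorem close {s s' : Fin 4} {M : Finset ι} {wt : ι → ℝ} {ν : Fin 4 → ℝ} {δ η : ℝ}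
    (hδ0 : 0 ≤ δ) (hη : 0 ≤ η)
    (hn : ∀ x ∈ M, W.n s x = 1) (hn' : ∀ x ∈ M, W.n s' x = 1) (wt0 : ∀ x, 0 < wt x)
    (wid : ∀ s y, W.w s y = ν s * wt (W.up s y))
    (mlo : ∀ s y, -(1 - δ) ≤ W.p s y - W.w s y / 2)
    (mhi : ∀ s y, W.p s y + W.w s y / 2 ≤ 1 - δ) (full : 2 * (1 - δ) - η ≤ ∑ y, W.w s y)
    (bad : ∑ y : W.E s with W.up s y ∉ M, W.w s y ≤ η) (hν : |ν s - ν s'| ≤ η * ν s')
    (ord : ∀ x ∈ M, ∀ x' ∈ M, W.ps s x < W.ps s x' → W.ps s' x < W.ps s' x') {x : ι}
    (hx : x ∈ M) : W.ps s x + W.ws s x / 2 ≤ W.ps s' x + W.ws s' x / 2 + 4 * η := by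
  obtain ⟨y, e1, e2, e3⟩ := exists_one (hn x hx)
  obtain ⟨y', e1', e2', e3'⟩ := exists_one (hn' x hx)
  have h1 := pos_le (W := W) (mhi s) full y
  have h2 := le_pos (W := W) (mlo s') y'
  rw [e2, e3, e2', e3']
  -- the ends below
  have h3 : ∑ z with W.p s z ≤ W.p s y, W.w s z
      ≤ ∑ z with (W.up s z ∈ M ∧ W.p s z ≤ W.p s y), W.w s z + η := by
    have : ∑ z with W.p s z ≤ W.p s y, W.w s z
        ≤ ∑ z with (W.up s z ∈ M ∧ W.p s z ≤ W.p s y), W.w s z +
          ∑ z : W.E s with W.up s z ∉ M, W.w s z := by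
      rw [← Finset.sum_union]
      · refine Finset.sum_le_sum_of_subset_of_nonneg ?_ fun z _ _ => ((W.ed s).w0 z).le
        intro z hz
        rw [Finset.mem_union, Finset.mem_filter, Finset.mem_filter]
        have hz' := (Finset.mem_filter.1 hz).2
        by_cases h : W.up s z ∈ M
        · exact Or.inl ⟨Finset.mem_univ _, h, hz'⟩
        · exact Or.inr ⟨Finset.mem_univ _, h⟩
      · rw [Finset.disjoint_left]
        intro z hz hz'
        exact (Finset.mem_filter.1 hz').2 (Finset.mem_filter.1 hz).2.1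
    linarith
  have h4 : ∑ z with (W.up s' z ∈ M ∧ W.p s' z ≤ W.p s' y'), W.w s' z
      ≤ ∑ z with W.p s' z ≤ W.p s' y', W.w s' z := by
    refine Finset.sum_le_sum_of_subset_of_nonneg ?_ fun z _ _ => ((W.ed s').w0 z).le
    intro z hz
    rw [Finset.mem_filter] at hz ⊢
    exact ⟨hz.1, hz.2.2⟩
  rw [← sum_below hn] at h3
  rw [← sum_below hn'] at h4
  -- the same set
  have hset : (M.filter fun x' => W.ps s x' ≤ W.p s y) = M.filter fun x' => W.ps s' x' ≤ W.p s' y' := by
    ext x'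
    rw [Finset.mem_filter, Finset.mem_filter, ← e2, ← e2']
    refine and_congr_right fun hx' => ?_
    constructor
    · intro h
      rcases h.lt_or_eq with h | h
      · exact (ord x' hx' x hx h).le
      · by_cases hne : x' = x
        · rw [hne]
        · exfalso
          have h5 := ps_sep (hn x' hx') (hn x hx) hne
          rw [h, sub_self, abs_zero] at h5
          linarith [ws_pos (W := W) s x, ws_pos (W := W) s x']
    · intro h
      by_contra hc
      have h5 := ord x hx x' hx' (not_le.1 hc)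
      linarith
  rw [hset] at h3
  have hws : ∀ {s : Fin 4}, ∀ x' ∈ M, W.n s x' = 1 → W.ws s x' = ν s * wt x' := by
    intro s x' _ hn1
    obtain ⟨z, f1, -, f3⟩ := exists_one hn1
    have hz : z ∈ W.en s x' := by rw [f1]; simp
    rw [mem_en] at hz
    rw [f3, wid s z, hz]
  set B := M.filter fun x' => W.ps s' x' ≤ W.p s' y' with hB
  have h5 : ∑ x' ∈ B, W.ws s x' = ν s * ∑ x' ∈ B, wt x' := by
    rw [Finset.mul_sum]
    refine Finset.sum_congr rfl fun x' hx' => ?_
    have := (Finset.mem_filter.1 hx').1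
    exact hws x' this (hn x' this)
  have h6 : ∑ x' ∈ B, W.ws s' x' = ν s' * ∑ x' ∈ B, wt x' := by
    rw [Finset.mul_sum]
    refine Finset.sum_congr rfl fun x' hx' => ?_
    have := (Finset.mem_filter.1 hx').1
    exact hws x' this (hn' x' this)
  have h7 : 0 ≤ ∑ x' ∈ B, wt x' := Finset.sum_nonneg fun x' _ => (wt0 x').le
  have h8 : ν s' * ∑ x' ∈ B, wt x' ≤ 2 := by
    rw [← h6]
    have := h4
    have h9 := mhi s' y'
    linarith
  have h9 : (ν s - ν s') * ∑ x' ∈ B, wt x' ≤ 2 * η := by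
    calc (ν s - ν s') * ∑ x' ∈ B, wt x' ≤ (η * ν s') * ∑ x' ∈ B, wt x' :=
          mul_le_mul_of_nonneg_right ((le_abs_self _).trans hν) h7
      _ = η * (ν s' * ∑ x' ∈ B, wt x') := by ring
      _ ≤ η * 2 := mul_le_mul_of_nonneg_left h8 hη
      _ = _ := by ring
  rw [h5] at h3
  rw [h6] at h4
  have h10 : (ν s - ν s') * ∑ x' ∈ B, wt x'
      = ν s * ∑ x' ∈ B, wt x' - ν s' * ∑ x' ∈ B, wt x' := by ring
  linarith

/-! ### two ends -/

/-- **the bands of a chord on the circle** -/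
theorem ends2 (h2 : W.Two) (x : ι) : Ends2 L x (W.tot x) := by
  let S : Finset (Σ s : Fin 4, W.E s) := Finset.univ.filter fun e => W.up e.1 e.2 = x
  have hS : S.card = 2 := by
    have e : S = (Finset.univ : Finset (Fin 4)).sigma fun s => W.en s x := by
      ext ⟨s, y⟩
      simp [S, mem_en]
    rw [e, Finset.card_sigma]
    have := h2 x
    simp only [Fin.sum_univ_four]
    unfold n at this
    omega
  obtain ⟨e1, e2, hne, hS'⟩ := Finset.card_eq_two.1 hS
  refine ⟨![e1.1, e2.1], ![W.p e1.1 e1.2, W.p e2.1 e2.2], ?_⟩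
  intro ω hω hc
  obtain ⟨s, t, ht, rfl⟩ := exists_sd hω
  obtain ⟨y, hy, hyt⟩ := W.exists_end ht hc
  have hw : W.w s y ≤ W.tot x := by rw [← hy]; exact w_le_tot
  have h0 := (W.ed s).w0 y
  have hmem : (⟨s, y⟩ : Σ s : Fin 4, W.E s) ∈ S := by simp [S, hy]
  rw [hS', Finset.mem_insert, Finset.mem_singleton] at hmem
  rcases hmem with h | h
  · refine ⟨0, t, ?_, ?_, ht⟩
    · show sd s t = sd e1.1 t
      rw [← h]
    · show |t - W.p e1.1 e1.2| ≤ W.tot x
      rw [← h]
      show |t - W.p s y| ≤ W.tot x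
      linarith
  · refine ⟨1, t, ?_, ?_, ht⟩
    · show sd s t = sd e2.1 t
      rw [← h]
    · show |t - W.p e2.1 e2.2| ≤ W.tot x
      rw [← h]
      show |t - W.p s y| ≤ W.tot x
      linarith

end Bw

end Crest.Agent.R096.Fk_522
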