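import Crest.Agent.R096.Fsw14_928

/-!
# R096 (row 96), FACE-SWEEP, part 15: the classes of chords (helper928)
-/

set_option autoImplicit false

open Set Metric Filter Topology MeasureTheory
open scoped ENNReal NNReal

namespace Crest.Agent.R096.Fsw_928

open Crest.Agent.R096.Ce_537 Crest.Agent.R096.Bd_416

lemma volume_osq : volume osq = 4 := by
  rw [osq, Real.volume_pi_ball _ one_pos]
  norm_num

section cls

variable {ι : Type} {L : Lam (sph 2) ι} {K b : ℝ} {h ρ : ι → ℝ}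

/-! ### later squeezes -/

lemma cl_cl' {β : ℝ} (h0 : 0 < β) (h1 : β ≤ 1) (t : ℝ) : cl (cl t / β) = cl (t / β) := by
  rcases le_total t (-1/2) with h | h
  · rw [cl_of_le h, cl_of_le, cl_of_le]
    · rw [div_le_iff₀ h0]; nlinarith
    · rw [div_le_iff₀ h0]; nlinarith
  · rcases le_total t (1/2) with h' | h'
    · rw [cl_of_mem ⟨h, h'⟩]
    · rw [cl_of_ge h', cl_of_ge, cl_of_ge]
      · rw [le_div_iff₀ h0]; nlinarith
      · rw [le_div_iff₀ h0]; nlinarith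

lemma fb_eq {D : Dep L K b h ρ} {P P' : Par} {β : ℝ} (h0 : 0 < β) (h1 : β ≤ 1) {i : ι}
    {z : Fin 2 → ℝ} {y : ℝ} (h2 : ff D P P' i z = cl (y / (2 * b))) :
    fb D P P' β i z = cl (y / (2 * (b * β))) := by
  unfold fb
  rw [h2, cl_cl' h0 h1, div_div, mul_assoc]

lemma LC.fb {D : Dep L K b h ρ} {P P' : Par} {β : ℝ} (h0 : 0 < β) {i : ι} {j : Fin 2} {κ : ℝ}
    {z : Fin 2 → ℝ} (h2 : LC j (κ / (2 * b)) (ff D P P' i) (cube 2) z) :
    LC j (κ / (2 * (b * β))) (Fsw_928.fb D P P' β i) (cube 2) z := by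
  have h3 := LC.cl_div (b := β / 2) (by linarith) h2
  have e : 2 * (β / 2) = β := by ring
  rw [e, div_div, mul_assoc] at h3
  exact h3

lemma LL_fb {D : Dep L K b h ρ} {P P' : Par} {β : ℝ} (h0 : 0 < β) {i : ι} {κ : ℝ}
    {z : Fin 2 → ℝ} (h2 : Pc_117.LL (κ / (2 * b)) (ff D P P' i) (cube 2) z) :
    Pc_117.LL (κ / (2 * (b * β))) (fb D P P' β i) (cube 2) z := by
  filter_upwards [h2] with y hy
  refine (cl_lip _ _).trans ?_
  rw [← sub_div, abs_div, abs_of_pos h0, div_le_iff₀ h0]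
  refine hy.trans (le_of_eq ?_)
  have hb := D.cst.b0.ne'
  have := h0.ne'
  field_simp

/-- crude data: `M i` is a Lipschitz constant of the band on the circle and of the ramp -/
structure Crd (L : Lam (sph 2) ι) (h : ι → ℝ) (J : Finset ι) (w M : ι → ℝ) (Q : ℝ) : Prop where
  M0 : ∀ i ∈ J, 0 ≤ M i
  lip : ∀ i ∈ J, ∀ ω ∈ sph 2, Pc_117.LL (M i) (L.c i) (sph 2) ω
  hM : ∀ i ∈ J, 1 / h i ≤ M i
  wM : ∀ i ∈ J, |w i| * M i ≤ Q

/-- the long chords which are swept in the first sweep -/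
structure ClA (D : Dep L K b h ρ) (P : Par) (β : ℝ) (J : Finset ι) (w : ι → ℝ)
    (k : ι → ℝ → ℝ → ℝ) (ym yp : ι → ℝ → ℝ) (Kc ℓ : ι → ℝ) (s' W lam μ : ℝ) : Prop where
  ch : ∀ i ∈ J, ChA D P i (k i) (ym i) (yp i) (Kc i)
  wH : ∀ i ∈ J, w i = 2 * (b * β) * s' * (4 * P.H * h i)
  wK : ∀ i ∈ J, |w i| * (Kc i / (2 * (b * β))) ≤ W
  sW : |s'| ≤ W
  y : ∀ i ∈ J, ∀ σ, (σ = 1 ∨ σ = -1) → -1 < ym i σ ∧ ym i σ ≤ 1 ∧ yp i σ ≤ 1 ∧
    yp i σ - ym i σ ≤ ℓ i ∧ 4 * (1 - ρ i + h i / 2) - (1 + ym i σ) / P.H ≤ lam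
  lam0 : 0 ≤ lam
  l0 : ∀ i ∈ J, 0 ≤ ℓ i
  sum : ∑ i ∈ J, ℓ i ≤ 4
  full : 2 - ∑ i ∈ J, 2 * (b * β) * (4 * P.H * h i) ≤ μ

lemma ChA.formula {D : Dep L K b h ρ} {P : Par} {i : ι} {k : ℝ → ℝ → ℝ} {ym yp : ℝ → ℝ} {Kc : ℝ}
    (A : ChA D P i k ym yp Kc) (P' : Par) {β : ℝ} (h0 : 0 < β) (h1 : β ≤ 1) {z : Fin 2 → ℝ}
    (hz : z ∈ MR P) : fb D P P' β i z = cl (cl (-(z 1 - (-1 + 4 * P.H * (1 - ρ i))) / (4 * P.H * h i)) / (2 * (b * β))) := by
  refine (fb_eq h0 h1 (A.mid P' (MR_subset P hz) hz.1.le)).trans ?_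
  unfold ramp
  have hH := P.H0.ne'
  have hh := (D.h0 i).ne'
  congr 3
  field_simp
  ring

/-- **`L^p` estimate, type A** -/
theorem exists_lp_A (P P' : Par) : ∃ (Λc : ℝ) (Λ : ℝ≥0), 0 ≤ Λc ∧
    ∀ {ι : Type} {L : Lam (sph 2) ι} {K b : ℝ} {h ρ : ι → ℝ} (D : Dep L K b h ρ) (_ : Disj L)
      (J : Finset ι) (w : ι → ℝ) (k : ι → ℝ → ℝ → ℝ) (ym yp : ι → ℝ → ℝ) (Kc ℓ M : ι → ℝ)
      (β s s' W lam μ Q p : ℝ), 0 < β → β ≤ 1 → 0 ≤ p → ClA D P β J w k ym yp Kc ℓ s' W lam μ → Crd L h J w M Q →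
      ∫⁻ z in osq, ‖fderiv ℝ (GJ D P P' β J w) z + s • pr 1‖ₑ ^ p ≤
        ENNReal.ofReal |s - s'| ^ p * 4
        + ENNReal.ofReal (2 * W + |s| + |s'|) ^ p *
            (ENNReal.ofReal (4 * (P.a + P.m * P.H) + 2 * (2 - P.H)) + 2 * ENNReal.ofReal μ)
        + ENNReal.ofReal (2 * max W (Λc * Q / (2 * (b * β))) + |s| + |s'|) ^ p *
            ((Λ : ℝ≥0∞) * (4 * ENNReal.ofReal lam)) := by
  classical
  obtain ⟨Λc, hΛc, hcr⟩ := exists_crude P P'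
  obtain ⟨Λ, hΛ⟩ := exists_fan P
  refine ⟨Λc, Λ, hΛc, ?_⟩
  intro ι L K b h ρ D hdj J w k ym yp Kc ℓ M β s s' W lam μ Q p hβ0 hβ1 hp A C
  have hb := mul_pos D.cst.b0 hβ0
  have hH := P.H0
  have hH2 := P.aH
  have ha := P.a0
  have hW : 0 ≤ W := (abs_nonneg _).trans A.sW
  have hmain := lp_main D P P' hβ0 hβ1 hdj 1 J w (fun i => -1 + 4 * P.H * (1 - ρ i))
    (fun i => 4 * P.H * h i) (fun i => max (Kc i) (1 / (4 * h i) / P.H) / (2 * (b * β)))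
    (fun i => Λc * M i / (2 * (b * β))) (fun i => FanA h ρ P i (ym i) (yp i)) (s := s) (s' := s')
    (W := W) (Ec := max W (Λc * Q / (2 * (b * β)))) (μ := μ) hp hW (le_max_left _ _)
    (by
      intro i hi
      have hh := D.h0 i
      refine ⟨div_nonneg ((A.ch i hi).K0.trans (le_max_left _ _)) (by linarith), ?_⟩
      rw [← max_div_div_right (by linarith : (0:ℝ) ≤ 2 * (b * β)), mul_max_of_nonneg _ _ (abs_nonneg _)]
      refine max_le (A.wK i hi) ?_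
      rw [A.wH i hi, abs_mul, abs_mul, abs_of_pos (by linarith : 0 < 2 * (b * β)),
        abs_of_pos (by positivity : 0 < 4 * P.H * h i)]
      have e : 2 * (b * β) * |s'| * (4 * P.H * h i) * (1 / (4 * h i) / P.H / (2 * (b * β))) = |s'| := by
        have hb1 := D.cst.b0
        field_simp
      rw [e]; exact A.sW)
    (fun i hi z _ hz => ((A.ch i hi).lc P' hz).fb hβ0)
    (by
      intro i hi
      refine ⟨div_nonneg (mul_nonneg hΛc (C.M0 i hi)) (by linarith), ?_⟩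
      refine le_trans ?_ (le_max_right _ _)
      have h1 := mul_le_mul_of_nonneg_left (C.wM i hi) hΛc
      calc |w i| * (Λc * M i / (2 * (b * β))) = Λc * (|w i| * M i) / (2 * (b * β)) := by ring
        _ ≤ Λc * Q / (2 * (b * β)) := div_le_div_of_nonneg_right h1 (by linarith))
    (fun i hi z hz => LL_fb hβ0 (hcr D i (M i) (C.M0 i hi) (C.lip i hi) (C.hM i hi) z hz))
    (fun i hi z hz => (A.ch i hi).formula P' hβ0 hβ1 hz)
    (fun i hi => A.wH i hi)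
    (fun i hi => by have := D.h0 i; positivity)
    (by
      intro i hi j hj hij
      have hω : (fun _ : Fin 2 => (-1:ℝ)) ∈ sph 2 := by
        rw [mem_sph2]; norm_num
      have h1 := (A.ch i hi).ta.bot _ hω rfl
      have h2 := (A.ch j hj).ta.bot _ hω rfl
      have h3 := D.sep i j hij ⟨_, hω, by rw [h1]; norm_num, by rw [h2]; norm_num⟩
      have e : -1 + 4 * P.H * (1 - ρ i) - (-1 + 4 * P.H * (1 - ρ j))
          = -(4 * P.H * (ρ i - ρ j)) := by ring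
      show (4 * P.H * h i + 4 * P.H * h j) / 2
        ≤ |-1 + 4 * P.H * (1 - ρ i) - (-1 + 4 * P.H * (1 - ρ j))|
      rw [e, abs_neg, abs_mul, abs_of_pos (by positivity : 0 < 4 * P.H)]
      have := mul_le_mul_of_nonneg_left h3 (by positivity : 0 ≤ 4 * P.H)
      linarith)
    (by
      intro i hi
      have h1 := (A.ch i hi).low
      have h2 := D.hi i
      have h3 := D.h0 i
      have h4 : |-1 + 4 * P.H * (1 - ρ i)| ≤ 1 - 4 * P.H * h i / 2 := by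
        rw [abs_le]
        constructor
        · nlinarith
        · have h5 : 4 * P.H * (1 - ρ i + h i / 2) ≤ 4 * P.H * (1/4) :=
            mul_le_mul_of_nonneg_left (by linarith) (by positivity)
          nlinarith
      show |-1 + 4 * P.H * (1 - ρ i)| + 4 * P.H * h i / 2 ≤ 1
      linarith)
    A.full
  refine hmain.trans ?_
  rw [volume_osq]
  refine add_le_add le_rfl (mul_le_mul' le_rfl ?_)
  have hfan : ∀ i ∈ J, volume (FanA h ρ P i (ym i) (yp i))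
      ≤ (Λ : ℝ≥0∞) * (ENNReal.ofReal (ℓ i) * ENNReal.ofReal lam) := by
    intro i hi
    refine hΛ _ _ _ (4 * (1 - ρ i + h i / 2)) (ℓ i) lam (A.l0 i hi) A.lam0 (A.y i hi) ?_ ?_
    · have := (A.ch i hi).low
      linarith
    · intro t ht
      refine (ramp_low (D.h0 i) ?_).le
      linarith
  refine (Finset.sum_le_sum hfan).trans ?_
  rw [← Finset.mul_sum, ← Finset.sum_mul, ← ENNReal.ofReal_sum_of_nonneg A.l0]
  refine mul_le_mul' le_rfl (mul_le_mul' ?_ le_rfl)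
  exact (ENNReal.ofReal_le_ofReal A.sum).trans (by norm_num)

/-- the long chords which are swept in the second sweep -/
structure ClB (D : Dep L K b h ρ) (P P' : Par) (β : ℝ) (J : Finset ι) (w x ℓ : ι → ℝ)
    (kb kt : ι → ℝ → ℝ) (ym yp : ι → ℝ → ℝ) (Kc ℓ' : ι → ℝ) (s' W lam μ : ℝ) : Prop where
  ch : ∀ i ∈ J, ChB D P P' i (kb i) (kt i) (ym i) (yp i) (Kc i)
  kb_eq : ∀ i ∈ J, ∀ u, kb i u = cl (-(u - x i) / ℓ i)
  lpos : ∀ i ∈ J, 0 < ℓ i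
  wH : ∀ i ∈ J, w i = 2 * (b * β) * s' * ℓ i
  wK : ∀ i ∈ J, |w i| * (Kc i / (2 * (b * β))) ≤ W
  wR : ∀ i ∈ J, |w i| * (1 / (8 * h i) / P'.H / (1 - P.a) / (2 * (b * β))) ≤ W
  sW : |s'| ≤ W
  sep : ∀ i ∈ J, ∀ j ∈ J, i ≠ j → (ℓ i + ℓ j) / 2 ≤ |x i - x j|
  inn : ∀ i ∈ J, |x i| + ℓ i / 2 ≤ 1
  y : ∀ i ∈ J, ∀ σ, (σ = 1 ∨ σ = -1) → -1 < ym i σ ∧ ym i σ ≤ 1 ∧ yp i σ ≤ 1 ∧
    yp i σ - ym i σ ≤ ℓ' i ∧ 8 * (3/4 - ρ i + h i / 2) - (1 + ym i σ) / P'.H ≤ lam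
  lam0 : 0 ≤ lam
  l0 : ∀ i ∈ J, 0 ≤ ℓ' i
  sum : ∑ i ∈ J, ℓ' i ≤ 4
  full : 2 - ∑ i ∈ J, 2 * (b * β) * ℓ i ≤ μ

/-- **`L^p` estimate, type B** -/
theorem exists_lp_B (P P' : Par) : ∃ (Λc : ℝ) (Λ : ℝ≥0), 0 ≤ Λc ∧
    ∀ {ι : Type} {L : Lam (sph 2) ι} {K b : ℝ} {h ρ : ι → ℝ} (D : Dep L K b h ρ) (_ : Disj L)
      (J : Finset ι) (w x ℓ : ι → ℝ) (kb kt : ι → ℝ → ℝ) (ym yp : ι → ℝ → ℝ) (Kc ℓ' M : ι → ℝ)
      (β s s' W lam μ Q p : ℝ), 0 < β → β ≤ 1 → 0 ≤ p → ClB D P P' β J w x ℓ kb kt ym yp Kc ℓ' s' W lam μ →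
      Crd L h J w M Q →
      ∫⁻ z in osq, ‖fderiv ℝ (GJ D P P' β J w) z + s • pr 0‖ₑ ^ p ≤
        ENNReal.ofReal |s - s'| ^ p * 4
        + ENNReal.ofReal (2 * W + |s| + |s'|) ^ p *
            (ENNReal.ofReal (4 * (P.a + P.m * P.H) + 2 * (2 - P.H)) + 2 * ENNReal.ofReal μ)
        + ENNReal.ofReal (2 * max W (Λc * Q / (2 * (b * β))) + |s| + |s'|) ^ p *
            ((Λ : ℝ≥0∞) * (4 * ENNReal.ofReal lam)) := by
  classical
  obtain ⟨Λc, hΛc, hcr⟩ := exists_crude P P'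
  obtain ⟨Λ, hΛ⟩ := exists_fanB P P'
  refine ⟨Λc, Λ, hΛc, ?_⟩
  intro ι L K b h ρ D hdj J w x ℓ kb kt ym yp Kc ℓ' M β s s' W lam μ Q p hβ0 hβ1 hp B C
  have hb := mul_pos D.cst.b0 hβ0
  have hmain := lp_main D P P' hβ0 hβ1 hdj 0 J w x ℓ
    (fun i => max (Kc i) (1 / (8 * h i) / P'.H / (1 - P.a)) / (2 * (b * β)))
    (fun i => Λc * M i / (2 * (b * β))) (fun i => FanB h ρ P P' i (ym i) (yp i)) (s := s) (s' := s')
    (W := W) (Ec := max W (Λc * Q / (2 * (b * β)))) (μ := μ) hp ((abs_nonneg _).trans B.sW) (le_max_left _ _)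
    (by
      intro i hi
      refine ⟨div_nonneg ((B.ch i hi).K0.trans (le_max_left _ _)) (by linarith), ?_⟩
      rw [← max_div_div_right (by linarith : (0:ℝ) ≤ 2 * (b * β)), mul_max_of_nonneg _ _ (abs_nonneg _)]
      exact max_le (B.wK i hi) (B.wR i hi))
    (fun i hi z _ hz => ((B.ch i hi).lc hz).fb hβ0)
    (by
      intro i hi
      refine ⟨div_nonneg (mul_nonneg hΛc (C.M0 i hi)) (by linarith), ?_⟩
      refine le_trans ?_ (le_max_right _ _)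
      have h1 := mul_le_mul_of_nonneg_left (C.wM i hi) hΛc
      calc |w i| * (Λc * M i / (2 * (b * β))) = Λc * (|w i| * M i) / (2 * (b * β)) := by ring
        _ ≤ Λc * Q / (2 * (b * β)) := div_le_div_of_nonneg_right h1 (by linarith))
    (fun i hi z hz => LL_fb hβ0 (hcr D i (M i) (C.M0 i hi) (C.lip i hi) (C.hM i hi) z hz))
    (fun i hi z hz => by
      rw [fb_eq hβ0 hβ1 ((B.ch i hi).mid (MR_subset P hz)), B.kb_eq i hi])
    (fun i hi => B.wH i hi) B.lpos B.sep B.inn B.full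
  refine hmain.trans ?_
  rw [volume_osq]
  refine add_le_add le_rfl (mul_le_mul' le_rfl ?_)
  have hfan : ∀ i ∈ J, volume (FanB h ρ P P' i (ym i) (yp i))
      ≤ (Λ : ℝ≥0∞) * (ENNReal.ofReal (ℓ' i) * ENNReal.ofReal lam) := by
    intro i hi
    refine hΛ _ _ _ (8 * (3/4 - ρ i + h i / 2)) (ℓ' i) lam (B.l0 i hi) B.lam0 (B.y i hi) ?_ ?_
    · have := (B.ch i hi).low
      linarith
    · intro t ht
      refine (ramp_low (D.h0 i) ?_).le
      linarith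
  refine (Finset.sum_le_sum hfan).trans ?_
  rw [← Finset.mul_sum, ← Finset.sum_mul, ← ENNReal.ofReal_sum_of_nonneg B.l0]
  refine mul_le_mul' le_rfl (mul_le_mul' ?_ le_rfl)
  exact (ENNReal.ofReal_le_ofReal B.sum).trans (by norm_num)

/-- **`L^p` estimate for few chords** -/
theorem exists_lp_X (P P' : Par) : ∃ (Λc : ℝ) (Λ : ℝ≥0), 0 ≤ Λc ∧
    ∀ {ι : Type} {L : Lam (sph 2) ι} {K b : ℝ} {h ρ : ι → ℝ} (D : Dep L K b h ρ) (_ : Disj L)
      (J : Finset ι) (w ℓ M : ι → ℝ) (β η Q p : ℝ), 0 < β → β ≤ 1 → 0 < p → (∀ i ∈ J, 0 ≤ ℓ i) →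
      (∀ i ∈ J, Ends2 L i (ℓ i)) → ∑ i ∈ J, (ℓ i + h i) ≤ η → Crd L h J w M Q → 0 ≤ Q →
      ∫⁻ z in osq, ENNReal.ofReal (∑ i ∈ J, |w i| * ‖fderiv ℝ (fb D P P' β i) z‖) ^ p ≤
        ENNReal.ofReal (2 * (Λc * Q / (2 * (b * β)))) ^ p * ((Λ : ℝ≥0∞) * ENNReal.ofReal η) := by
  classical
  obtain ⟨Λc, hΛc, hcr⟩ := exists_crude P P'
  obtain ⟨Λ, hΛ⟩ := exists_act P P'
  refine ⟨Λc, Λ, hΛc, ?_⟩
  intro ι L K b h ρ D hdj J w ℓ M β η Q p hβ0 hβ1 hp hℓ hE hη C hQ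
  have hb := mul_pos D.cst.b0 hβ0
  have hE0 : 0 ≤ Λc * Q / (2 * (b * β)) := div_nonneg (mul_nonneg hΛc hQ) (by linarith)
  have hcr' : ∀ i ∈ J, ∀ z ∈ cube 2,
      Pc_117.LL (Λc * M i / (2 * (b * β))) (fb D P P' β i) (cube 2) z :=
    fun i hi z hz => LL_fb hβ0 (hcr D i (M i) (C.M0 i hi) (C.lip i hi) (C.hM i hi) z hz)
  have hM0 : ∀ i ∈ J, 0 ≤ Λc * M i / (2 * (b * β)) := fun i hi =>
    div_nonneg (mul_nonneg hΛc (C.M0 i hi)) (by linarith)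
  have h3 := lint_three hp.le
    (g := fun z => ENNReal.ofReal (∑ i ∈ J, |w i| * ‖fderiv ℝ (fb D P P' β i) z‖))
    (S1 := {z | z ∈ osq ∧ z ∉ ⋃ i ∈ J, Act P P' D i}) (S2 := ∅)
    (S3 := ⋃ i ∈ J, Act P P' D i) (e1 := 0) (e2 := 0)
    (e3 := ENNReal.ofReal (2 * (Λc * Q / (2 * (b * β)))))
    (by
      intro z hz
      by_cases hc : z ∈ ⋃ i ∈ J, Act P P' D i
      · exact Or.inr (Or.inr hc)
      · exact Or.inl ⟨hz, hc⟩)
    (by
      filter_upwards with z hz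
      obtain ⟨hzo, hz2⟩ := hz
      simp only [mem_iUnion, not_exists] at hz2
      rw [Finset.sum_eq_zero, ENNReal.ofReal_zero]
      intro i hi
      rw [fderiv_inactive D P P' β (fun hc => hz2 i hi ⟨osq_subset hzo,
        active_ff D P P' hβ0 hβ1 hc⟩), norm_zero, mul_zero])
    (by filter_upwards with z hz; exact absurd hz (notMem_empty z))
    (by
      filter_upwards [ae_restrict_mem measurableSet_ball] with z hzo _
      apply ENNReal.ofReal_le_ofReal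
      refine sum_fderiv_le D P P' β hβ0 hβ1 hdj J w hE0 hzo ?_
      intro i hi
      have h2 := Pc_117.LL.norm_fderiv_le (hM0 i hi) (hcr' i hi z (osq_subset hzo)) (cube_nhds hzo)
      refine (mul_le_mul_of_nonneg_left h2 (abs_nonneg _)).trans ?_
      have h1 := mul_le_mul_of_nonneg_left (C.wM i hi) hΛc
      calc |w i| * (Λc * M i / (2 * (b * β))) = Λc * (|w i| * M i) / (2 * (b * β)) := by ring
        _ ≤ Λc * Q / (2 * (b * β)) := div_le_div_of_nonneg_right h1 (by linarith))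
    le_rfl zero_le
  refine h3.trans ?_
  rw [ENNReal.zero_rpow_of_pos hp, zero_mul, zero_mul, zero_add, zero_add]
  refine mul_le_mul' le_rfl ((measure_biUnion_finset_le _ _).trans ?_)
  refine (Finset.sum_le_sum fun i hi => hΛ D i (ℓ i) (hℓ i hi) (hE i hi)).trans ?_
  rw [← Finset.mul_sum, ← ENNReal.ofReal_sum_of_nonneg fun i hi => by
    have := hℓ i hi; have := D.h0 i; linarith]
  exact mul_le_mul' le_rfl (ENNReal.ofReal_le_ofReal hη)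

end cls

end Crest.Agent.R096.Fsw_928
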