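import Crest.Agent.R096.Fk6_522
import Crest.Agent.R096.Fsw15_928

/-!
# R096 (row 96), P4-FACE, combinatorics, part 7: Lipschitz constants on the circle (helper522)
-/

set_option autoImplicit false
set_option linter.unusedSectionVars false

open Set Metric Filter Topology

namespace Crest.Agent.R096.Fk_522

open Crest.Agent.R096.Ce_537 Crest.Agent.R096.Bd_416 Crest.Agent.R096.Fsw_928
open Crest.Agent.R096.Pc_117 (LL)

open scoped Classical

/-- a ramp is constant near a point off its band -/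
lemma ramp_ev {w p t0 : ℝ} (hw : 0 < w) (h : w / 2 < |t0 - p|) :
    ∀ᶠ t in 𝓝 t0, ramp w p t = ramp w p t0 := by
  rcases lt_abs.1 h with h1 | h1
  · have h2 : ∀ᶠ t in 𝓝 t0, p + w / 2 < t := lt_mem_nhds (by linarith)
    filter_upwards [h2] with t ht
    rw [ramp_high hw ht.le, ramp_high hw (by linarith)]
  · have h2 : ∀ᶠ t in 𝓝 t0, t < p - w / 2 := gt_mem_nhds (by linarith)
    filter_upwards [h2] with t ht
    rw [ramp_low hw ht.le, ramp_low hw (by linarith)]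

lemma abs_two_ramp {w p t : ℝ} : |-2 * ramp w p t| ≤ 1 := by
  have h := (ramp_mem : ramp w p t ∈ I2)
  have h1 : -1/2 ≤ ramp w p t := h.1
  have h2 : ramp w p t ≤ 1/2 := h.2
  rw [abs_le]
  constructor <;> linarith

/-- a product of ramps with disjoint bands -/
lemma prod_ev {E : Type} [Fintype E] {w p : E → ℝ} (ed : Ed w p) (S : Finset E) {κ : ℝ} (hκ : 0 ≤ κ)
    (hw : ∀ y ∈ S, 1 / w y ≤ κ) (t0 : ℝ) :
    ∀ᶠ t in 𝓝 t0, |∏ y ∈ S, (-2 * ramp (w y) (p y) t) - ∏ y ∈ S, (-2 * ramp (w y) (p y) t0)|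
      ≤ 2 * κ * |t - t0| := by
  by_cases hex : ∃ y0 ∈ S, |t0 - p y0| ≤ w y0 / 2
  · obtain ⟨y0, hy0, h0⟩ := hex
    have h1 : ∀ᶠ t in 𝓝 t0, ∀ y ∈ S.erase y0, ramp (w y) (p y) t = ramp (w y) (p y) t0 := by
      rw [Filter.eventually_all_finset]
      intro y hy
      have hne := Finset.ne_of_mem_erase hy
      refine ramp_ev (ed.w0 y) ?_
      by_contra hc
      exact ed.disj hne (not_lt.1 hc) h0 rfl
    filter_upwards [h1] with t ht
    rw [← Finset.mul_prod_erase S _ hy0, ← Finset.mul_prod_erase S _ hy0]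
    have e : ∏ y ∈ S.erase y0, (-2 * ramp (w y) (p y) t)
        = ∏ y ∈ S.erase y0, (-2 * ramp (w y) (p y) t0) :=
      Finset.prod_congr rfl fun y hy => by rw [ht y hy]
    rw [e, ← sub_mul, abs_mul]
    have h2 : |∏ y ∈ S.erase y0, (-2 * ramp (w y) (p y) t0)| ≤ 1 :=
      abs_prod_le fun y _ => abs_two_ramp
    have h3 : |-2 * ramp (w y0) (p y0) t - -2 * ramp (w y0) (p y0) t0| ≤ 2 * κ * |t - t0| := by
      have e2 : -2 * ramp (w y0) (p y0) t - -2 * ramp (w y0) (p y0) t0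
          = 2 * (- ramp (w y0) (p y0) t - - ramp (w y0) (p y0) t0) := by ring
      rw [e2, abs_mul, abs_two]
      have := abs_ramp_sub' (ρ := p y0) (r := t) (r' := t0) (ed.w0 y0)
      have h4 := mul_le_mul_of_nonneg_right (hw y0 hy0) (abs_nonneg (t - t0))
      nlinarith
    calc _ ≤ 2 * κ * |t - t0| * 1 := mul_le_mul h3 h2 (abs_nonneg _) (by positivity)
      _ = _ := mul_one _
  · push Not at hex
    have h1 : ∀ᶠ t in 𝓝 t0, ∀ y ∈ S, ramp (w y) (p y) t = ramp (w y) (p y) t0 := by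
      rw [Filter.eventually_all_finset]
      intro y hy
      exact ramp_ev (ed.w0 y) (hex y hy)
    filter_upwards [h1] with t ht
    have e : ∏ y ∈ S, (-2 * ramp (w y) (p y) t) = ∏ y ∈ S, (-2 * ramp (w y) (p y) t0) :=
      Finset.prod_congr rfl fun y hy => by rw [ht y hy]
    rw [e, sub_self, abs_zero]
    positivity

/-- a side of the square -/
def Sd (s : Fin 4) : Set (Fin 2 → ℝ) := {ω | ∃ t, |t| ≤ 1 ∧ ω = sd s t}

lemma Sd_eq (s : Fin 4) : Sd s = sd s '' Icc (-1) 1 := by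
  ext ω
  constructor
  · rintro ⟨t, ht, rfl⟩; exact ⟨t, abs_le.1 ht, rfl⟩
  · rintro ⟨t, ht, rfl⟩; exact ⟨t, abs_le.2 ht, rfl⟩

lemma continuous_sd (s : Fin 4) : Continuous (sd s) := by
  refine continuous_pi fun i => ?_
  fin_cases i <;> fin_cases s <;> simp [sd] <;> fun_prop

lemma isClosed_Sd (s : Fin 4) : IsClosed (Sd s) := by
  rw [Sd_eq]
  exact (isCompact_Icc.image (continuous_sd s)).isClosed

lemma sph_eq_Sd : sph 2 = ⋃ s ∈ (Set.univ : Set (Fin 4)), Sd s := by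
  ext ω
  constructor
  · intro h
    obtain ⟨s, t, ht, e⟩ := exists_sd h
    exact mem_biUnion (mem_univ s) ⟨t, ht, e⟩
  · intro h
    obtain ⟨s, -, t, ht, rfl⟩ := mem_iUnion₂.1 h
    exact sd_mem s ht

/-- the coordinate along a side -/
def co1 (s : Fin 4) (ω : Fin 2 → ℝ) : ℝ := if s = 0 ∨ s = 1 then ω 0 else ω 1

lemma co1_sd (s : Fin 4) (t : ℝ) : co1 s (sd s t) = t := by
  fin_cases s <;> simp [co1, sd]

lemma abs_co1 (s : Fin 4) (ω ω' : Fin 2 → ℝ) : |co1 s ω - co1 s ω'| ≤ dist ω ω' := by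
  unfold co1
  split_ifs
  · rw [← Real.dist_eq]; exact dist_le_pi_dist ω ω' 0
  · rw [← Real.dist_eq]; exact dist_le_pi_dist ω ω' 1

lemma continuous_co1 (s : Fin 4) : Continuous (co1 s) := by
  unfold co1
  split_ifs <;> fun_prop

namespace Bw

variable {ι : Type} [Fintype ι] {L : Lam (sph 2) ι} {W : Bw L}

/-- **Lipschitz constants of the band functions on the circle** -/
theorem lip_c {x : ι} {κ : ℝ} (hκ : 0 ≤ κ) (hw : ∀ s, ∀ y : W.E s, W.up s y = x → 1 / W.w s y ≤ κ)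
    {ω : Fin 2 → ℝ} (_ : ω ∈ sph 2) : LL κ (L.c x) (sph 2) ω := by
  suffices h : LL κ (L.c x) (⋃ s ∈ (Set.univ : Set (Fin 4)), Sd s) ω from
    h.mono_set sph_eq_Sd.subset
  refine LL.biUnion Set.finite_univ (fun s _ => isClosed_Sd s) ?_
  rintro s - ⟨t0, ht0, rfl⟩
  have h1 := prod_ev (W.ed s) (Finset.univ.filter fun y => W.up s y = x) hκ
    (fun y hy => hw s y (Finset.mem_filter.1 hy).2) t0
  have h2 : Tendsto (co1 s) (𝓝[Sd s] (sd s t0)) (𝓝 t0) := by
    have := ((continuous_co1 s).tendsto (sd s t0)).mono_left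
      (nhdsWithin_le_nhds (s := Sd s))
    rwa [co1_sd] at this
  filter_upwards [h2.eventually h1, self_mem_nhdsWithin] with ω' hω' hS
  obtain ⟨t, ht, rfl⟩ := hS
  rw [co1_sd] at hω'
  have e1 := W.c_eq s x t ht
  have e2 := W.c_eq s x t0 ht0
  have e3 : |-2 * L.c x (sd s t) - -2 * L.c x (sd s t0)| ≤ 2 * κ * |t - t0| := by
    rw [e1, e2, ← mul_sub, abs_mul, abs_sg, one_mul]
    exact hω'
  have e4 : -2 * L.c x (sd s t) - -2 * L.c x (sd s t0)
      = -2 * (L.c x (sd s t) - L.c x (sd s t0)) := by ring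
  rw [e4, abs_mul] at e3
  have e5 : |(-2:ℝ)| = 2 := by norm_num
  rw [e5] at e3
  have e6 : |t - t0| ≤ dist (sd s t) (sd s t0) := by
    have := abs_co1 s (sd s t) (sd s t0)
    rwa [co1_sd, co1_sd] at this
  have e7 := mul_le_mul_of_nonneg_left e6 hκ
  linarith

end Bw

end Crest.Agent.R096.Fk_522
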