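import Crest.Agent.R096.Fk7_522

/-!
# R096 (row 96), P4-FACE, combinatorics, part 8: nearly pure words: the input of the `L^p`
estimates (helper522)
-/

set_option autoImplicit false
set_option linter.unusedSectionVars false

open Set Metric Filter Topology

namespace Crest.Agent.R096.Fk_522

open Crest.Agent.R096.Ce_537 Crest.Agent.R096.Bd_416 Crest.Agent.R096.Fsw_928
open Crest.Agent.R096.Pc_117 (LL)

open scoped Classical

/-- **a nearly pure boundary word** (`MA`, `MB` = main left-right, bottom-top chords; `FA`, `FB` =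
the main chords fill the sides) -/
structure Pure {ι : Type} [Fintype ι] {L : Lam (sph 2) ι} (W : Bw L) (wt : ι → ℝ) (ν : Fin 4 → ℝ)
    (FA FB : Prop) (δ η : ℝ) (MA MB : Finset ι) : Prop where
  two : W.Two
  wt0 : ∀ x, 0 < wt x
  ν0 : ∀ s, 0 < ν s
  wid : ∀ s y, W.w s y = ν s * wt (W.up s y)
  mlo : ∀ s y, -(1 - δ) ≤ W.p s y - W.w s y / 2
  mhi : ∀ s y, W.p s y + W.w s y / 2 ≤ 1 - δ
  small : ∀ s y, W.w s y ≤ η
  clA : ∀ x ∈ MA, W.cls x = 1
  clB : ∀ x ∈ MB, W.cls x = 2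
  ordA : ∀ x ∈ MA, ∀ x' ∈ MA, W.ps 2 x < W.ps 2 x' → W.ps 3 x < W.ps 3 x'
  ordB : ∀ x ∈ MB, ∀ x' ∈ MB, W.ps 0 x < W.ps 0 x' → W.ps 1 x < W.ps 1 x'
  bad : ∀ s, ∑ y : W.E s with (W.up s y ∉ MA ∧ W.up s y ∉ MB), W.w s y ≤ η
  eA : ¬ FA → MA = ∅
  eB : ¬ FB → MB = ∅
  fullA : FA → ∀ s, (s = 2 ∨ s = 3) → 2 * (1 - δ) - η ≤ ∑ y, W.w s y
  fullB : FB → ∀ s, (s = 0 ∨ s = 1) → 2 * (1 - δ) - η ≤ ∑ y, W.w s y
  νA : FA → |ν 2 - ν 3| ≤ η * ν 2 ∧ |ν 2 - ν 3| ≤ η * ν 3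
  νB : FB → |ν 0 - ν 1| ≤ η * ν 0 ∧ |ν 0 - ν 1| ≤ η * ν 1

/-- the smallest widths -/
noncomputable def αA (ν : Fin 4 → ℝ) : ℝ := min (ν 2) (ν 3)
noncomputable def αB (ν : Fin 4 → ℝ) : ℝ := min (ν 0) (ν 1)
noncomputable def αX (ν : Fin 4 → ℝ) : ℝ := min (αA ν) (αB ν)

lemma αX_le (ν : Fin 4 → ℝ) (s : Fin 4) : αX ν ≤ ν s := by
  unfold αX αA αB
  fin_cases s
  · exact (min_le_right _ _).trans (min_le_left _ _)
  · exact (min_le_right _ _).trans (min_le_right _ _)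
  · exact (min_le_left _ _).trans (min_le_left _ _)
  · exact (min_le_left _ _).trans (min_le_right _ _)

/-- the gaps -/
noncomputable def lg {ι : Type} {L : Lam (sph 2) ι} (W : Bw L) (wt : ι → ℝ) (ν : Fin 4 → ℝ)
    (x : ι) : ℝ :=
  if W.cls x = 1 then αA ν * wt x else if W.cls x = 2 then αB ν * wt x else αX ν * wt x

namespace Pure

open Bw

variable {ι : Type} [Fintype ι] {L : Lam (sph 2) ι} {W : Bw L} {wt : ι → ℝ} {ν : Fin 4 → ℝ}
  {FA FB : Prop} {δ η : ℝ} {MA MB : Finset ι} (H : Pure W wt ν FA FB δ η MA MB)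
include H

lemma αA0 : 0 < αA ν := lt_min (H.ν0 2) (H.ν0 3)
lemma αB0 : 0 < αB ν := lt_min (H.ν0 0) (H.ν0 1)
lemma αX0 : 0 < αX ν := lt_min H.αA0 H.αB0

lemma ws_eq {s : Fin 4} {x : ι} (h : W.n s x = 1) : W.ws s x = ν s * wt x := by
  obtain ⟨z, f1, -, f3⟩ := exists_one h
  have hz : z ∈ W.en s x := by rw [f1]; simp
  rw [mem_en] at hz
  rw [f3, H.wid s z, hz]

lemma ws_small {s : Fin 4} {x : ι} (h : W.n s x = 1) : W.ws s x ≤ η := by
  obtain ⟨z, -, -, f3⟩ := exists_one h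
  rw [f3]; exact H.small s z

lemma ws_lo {s : Fin 4} {x : ι} (h : W.n s x = 1) : -(1 - δ) ≤ W.ps s x - W.ws s x / 2 := by
  obtain ⟨z, -, f2, f3⟩ := exists_one h
  rw [f2, f3]; exact H.mlo s z

lemma ws_hi {s : Fin 4} {x : ι} (h : W.n s x = 1) : W.ps s x + W.ws s x / 2 ≤ 1 - δ := by
  obtain ⟨z, -, f2, f3⟩ := exists_one h
  rw [f2, f3]; exact H.mhi s z

lemma lg_one {x : ι} (h : W.cls x = 1) : lg W wt ν x = αA ν * wt x := if_pos h

lemma lg_two {x : ι} (h : W.cls x = 2) : lg W wt ν x = αB ν * wt x := by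
  have n21 : ¬ ((2 : Fin 4) = 1) := by decide
  unfold lg
  rw [h, if_neg n21, if_pos rfl]

lemma lg_pos (x : ι) : 0 < lg W wt ν x := by
  have h := H.wt0 x
  unfold lg
  split_ifs
  · exact mul_pos H.αA0 h
  · exact mul_pos H.αB0 h
  · exact mul_pos H.αX0 h

lemma lg_ge (x : ι) : αX ν * wt x ≤ lg W wt ν x := by
  have h := H.wt0 x
  unfold lg
  split_ifs
  · exact mul_le_mul_of_nonneg_right (min_le_left _ _) h.le
  · exact mul_le_mul_of_nonneg_right (min_le_right _ _) h.le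
  · exact le_rfl

/-- the gap is at most the width of some end -/
lemma lg_le (x : ι) : ∃ s, ∃ y : W.E s, W.up s y = x ∧ lg W wt ν x ≤ W.w s y := by
  have h := (H.wt0 x).le
  by_cases h1 : W.cls x = 1
  · obtain ⟨-, -, a2, -⟩ := cls_one H.two h1
    obtain ⟨z, f1, -, -⟩ := exists_one a2
    have hz : z ∈ W.en 2 x := by rw [f1]; simp
    rw [mem_en] at hz
    refine ⟨2, z, hz, ?_⟩
    rw [H.lg_one h1, H.wid, hz]
    exact mul_le_mul_of_nonneg_right (min_le_left _ _) h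
  by_cases h2 : W.cls x = 2
  · obtain ⟨a0, -, -, -⟩ := cls_two H.two h2
    obtain ⟨z, f1, -, -⟩ := exists_one a0
    have hz : z ∈ W.en 0 x := by rw [f1]; simp
    rw [mem_en] at hz
    refine ⟨0, z, hz, ?_⟩
    rw [H.lg_two h2, H.wid, hz]
    exact mul_le_mul_of_nonneg_right (min_le_left _ _) h
  · obtain ⟨s, y, hy⟩ := exists_end_of_two H.two x
    refine ⟨s, y, hy, ?_⟩
    unfold lg
    rw [if_neg h1, if_neg h2, H.wid, hy]
    exact mul_le_mul_of_nonneg_right (αX_le ν s) h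

lemma lg_small (x : ι) : lg W wt ν x ≤ η := by
  obtain ⟨s, y, -, h⟩ := H.lg_le x
  exact h.trans (H.small s y)

lemma lg_tot (x : ι) : lg W wt ν x ≤ W.tot x := by
  obtain ⟨s, y, hy, h⟩ := H.lg_le x
  refine h.trans ?_
  rw [← hy]; exact w_le_tot

/-- **the chords which are not main chords** -/
lemma sum_tot {S : Finset ι} (hS : ∀ x ∈ S, x ∉ MA ∧ x ∉ MB) : ∑ x ∈ S, W.tot x ≤ 4 * η := by
  unfold Bw.tot
  rw [Finset.sum_comm]
  have h : ∀ s : Fin 4, ∑ x ∈ S, ∑ y ∈ W.en s x, W.w s y ≤ η := by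
    intro s
    rw [sum_fib]
    refine le_trans (Finset.sum_le_sum_of_subset_of_nonneg ?_ fun z _ _ => ((W.ed s).w0 z).le)
      (H.bad s)
    intro y hy
    rw [Finset.mem_filter] at hy ⊢
    exact ⟨hy.1, hS _ hy.2⟩
  refine (Finset.sum_le_sum fun s _ => h s).trans ?_
  simp

lemma sum_lg {S : Finset ι} (hS : ∀ x ∈ S, x ∉ MA ∧ x ∉ MB) :
    ∑ x ∈ S, lg W wt ν x ≤ 4 * η :=
  (Finset.sum_le_sum fun x _ => H.lg_tot x).trans (H.sum_tot hS)

lemma notMem_of_cls {x : ι} (h1 : W.cls x ≠ 1) (h2 : W.cls x ≠ 2) : x ∉ MA ∧ x ∉ MB :=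
  ⟨fun h => h1 (H.clA x h), fun h => h2 (H.clB x h)⟩

lemma notMem_B {x : ι} (h1 : W.cls x = 1) : x ∉ MB := fun h => by
  have := H.clB x h
  rw [h1] at this
  exact absurd this (by decide)

lemma notMem_A {x : ι} (h1 : W.cls x = 2) : x ∉ MA := fun h => by
  have := H.clA x h
  rw [h1] at this
  exact absurd this (by decide)

/-- **the depths exist** -/
theorem exists_dpt (P P' : Par) {K b ε : ℝ} (hC : Cst K b) (k0 : ι → ℕ)
    (hk : Function.Injective k0) (Rl : ι → ι → Prop) (hR1 : ∀ x x', Rl x x' → Inc L x x')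
    (hR2 : ∀ x x', Rl x x' → k0 x' < k0 x) (hη : 0 ≤ η)
    (hεδ : P.H * ε ≤ δ) (haδ : P.a ≤ δ) (hε : 28 * η ≤ ε) (hε1 : ε ≤ 1/2)
    (hHA : 2 - δ + 6 * η ≤ P.H) (hHB : 1 + (1 - δ) / (1 - P.a) + 6 * η ≤ P'.H) :
    Nonempty (Dpt W P P' K b (lg W wt ν) Rl (6 * η) (6 * η)) := by
  have n03 : ¬ ((0 : Fin 4) = 1) := by decide
  have n02 : ¬ ((0 : Fin 4) = 2) := by decide
  have n31 : ¬ ((3 : Fin 4) = 1) := by decide
  have n32 : ¬ ((3 : Fin 4) = 2) := by decide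
  refine Bw.exists_dpt H.two P P' hC k0 hk Rl hR1 hR2 (lg W wt ν) H.lg_pos ?_ ?_ ?_ ?_
    (fun s x h => H.ws_lo h) (fun s x h => H.ws_hi h) hεδ haδ (by linarith) (by linarith) MA MB
    H.ordA H.ordB (lam := η) H.lg_small ?_ ?_ ?_ ?_ hHA hHB
  · intro x hx
    rw [H.lg_one hx, H.ws_eq (cls_one H.two hx).2.2.1]
    exact mul_le_mul_of_nonneg_right (min_le_left _ _) (H.wt0 x).le
  · intro x hx
    rw [H.lg_one hx, H.ws_eq (cls_one H.two hx).2.2.2]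
    exact mul_le_mul_of_nonneg_right (min_le_right _ _) (H.wt0 x).le
  · intro x hx
    rw [H.lg_two hx, H.ws_eq (cls_two H.two hx).1]
    exact mul_le_mul_of_nonneg_right (min_le_left _ _) (H.wt0 x).le
  · intro x hx
    rw [H.lg_two hx, H.ws_eq (cls_two H.two hx).2.1]
    exact mul_le_mul_of_nonneg_right (min_le_right _ _) (H.wt0 x).le
  · have := H.sum_lg (S := W.cl4 1 \ MA) (fun x hx => by
      rw [Finset.mem_sdiff, mem_cl4] at hx
      exact ⟨hx.2, H.notMem_B hx.1⟩)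
    linarith
  · have := H.sum_lg (S := W.cl4 2 \ MB) (fun x hx => by
      rw [Finset.mem_sdiff, mem_cl4] at hx
      exact ⟨H.notMem_A hx.1, hx.2⟩)
    linarith
  · have := H.sum_lg (S := W.cl4 0) (fun x hx => by
      rw [mem_cl4] at hx
      exact H.notMem_of_cls (by rw [hx]; decide) (by rw [hx]; decide))
    linarith
  · have := H.sum_lg (S := W.cl4 3) (fun x hx => by
      rw [mem_cl4] at hx
      exact H.notMem_of_cls (by rw [hx]; decide) (by rw [hx]; decide))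
    linarith

end Pure

end Crest.Agent.R096.Fk_522
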