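import Crest.Agent.R096.Fk8_522

/-!
# R096 (row 96), P4-FACE, combinatorics, part 9: `ClA`, `ClB`, `Crd` of a nearly pure word
(helper522)
-/

set_option autoImplicit false
set_option linter.unusedSectionVars false

open Set Metric Filter Topology

namespace Crest.Agent.R096.Fk_522

open Crest.Agent.R096.Ce_537 Crest.Agent.R096.Bd_416 Crest.Agent.R096.Fsw_928
open Crest.Agent.R096.Pc_117 (LL)

open scoped Classical

namespace Pure

open Bw

variable {ι : Type} [Fintype ι] {L : Lam (sph 2) ι} {W : Bw L} {wt : ι → ℝ} {ν : Fin 4 → ℝ}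
  {FA FB : Prop} {δ η : ℝ} {MA MB : Finset ι} (H : Pure W wt ν FA FB δ η MA MB)
include H

lemma n2 {x : ι} (hx : x ∈ MA) : W.n 2 x = 1 := (cls_one H.two (H.clA x hx)).2.2.1
lemma n3 {x : ι} (hx : x ∈ MA) : W.n 3 x = 1 := (cls_one H.two (H.clA x hx)).2.2.2
lemma n0 {x : ι} (hx : x ∈ MB) : W.n 0 x = 1 := (cls_two H.two (H.clB x hx)).1
lemma n1 {x : ι} (hx : x ∈ MB) : W.n 1 x = 1 := (cls_two H.two (H.clB x hx)).2.1

lemma badA {s : Fin 4} (hs : s = 2 ∨ s = 3) : ∑ y : W.E s with W.up s y ∉ MA, W.w s y ≤ η := by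
  refine le_trans (Finset.sum_le_sum_of_subset_of_nonneg ?_ fun z _ _ => ((W.ed s).w0 z).le)
    (H.bad s)
  intro y hy
  rw [Finset.mem_filter] at hy ⊢
  refine ⟨hy.1, hy.2, fun hB => ?_⟩
  have h := cls_two H.two (H.clB _ hB)
  have h1 : y ∈ W.en s (W.up s y) := W.mem_en.2 rfl
  have h2 : W.n s (W.up s y) = 0 := by
    rcases hs with rfl | rfl
    · exact h.2.2.1
    · exact h.2.2.2
  unfold n at h2
  rw [Finset.card_eq_zero] at h2
  rw [h2] at h1
  exact absurd h1 (Finset.notMem_empty _)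

lemma badB {s : Fin 4} (hs : s = 0 ∨ s = 1) : ∑ y : W.E s with W.up s y ∉ MB, W.w s y ≤ η := by
  refine le_trans (Finset.sum_le_sum_of_subset_of_nonneg ?_ fun z _ _ => ((W.ed s).w0 z).le)
    (H.bad s)
  intro y hy
  rw [Finset.mem_filter] at hy ⊢
  refine ⟨hy.1, fun hA => ?_, hy.2⟩
  have h := cls_one H.two (H.clA _ hA)
  have h1 : y ∈ W.en s (W.up s y) := W.mem_en.2 rfl
  have h2 : W.n s (W.up s y) = 0 := by
    rcases hs with rfl | rfl
    · exact h.1
    · exact h.2.1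
  unfold n at h2
  rw [Finset.card_eq_zero] at h2
  rw [h2] at h1
  exact absurd h1 (Finset.notMem_empty _)

lemma tA {x : ι} (hx : x ∈ MA) : FA := by
  by_contra h
  rw [H.eA h] at hx
  exact absurd hx (Finset.notMem_empty _)

lemma tB {x : ι} (hx : x ∈ MB) : FB := by
  by_contra h
  rw [H.eB h] at hx
  exact absurd hx (Finset.notMem_empty _)

lemma ord32 {x x' : ι} (hx : x ∈ MA) (hx' : x' ∈ MA) (h : W.ps 3 x < W.ps 3 x') :
    W.ps 2 x < W.ps 2 x' := by
  by_contra hc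
  rcases (not_lt.1 hc).lt_or_eq with h1 | h1
  · exact lt_asymm h (H.ordA x' hx' x hx h1)
  · have hne : x ≠ x' := by rintro rfl; exact lt_irrefl _ h
    have h2 := ps_sep (H.n2 hx) (H.n2 hx') hne
    rw [h1, sub_self, abs_zero] at h2
    linarith [ws_pos (W := W) 2 x, ws_pos (W := W) 2 x']

lemma ord10 {x x' : ι} (hx : x ∈ MB) (hx' : x' ∈ MB) (h : W.ps 1 x < W.ps 1 x') :
    W.ps 0 x < W.ps 0 x' := by
  by_contra hc
  rcases (not_lt.1 hc).lt_or_eq with h1 | h1
  · exact lt_asymm h (H.ordB x' hx' x hx h1)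
  · have hne : x ≠ x' := by rintro rfl; exact lt_irrefl _ h
    have h2 := ps_sep (H.n0 hx) (H.n0 hx') hne
    rw [h1, sub_self, abs_zero] at h2
    linarith [ws_pos (W := W) 0 x, ws_pos (W := W) 0 x']

/-- closeness, type A -/
lemma closeA (hδ0 : 0 ≤ δ) (hη : 0 ≤ η) {x : ι} (hx : x ∈ MA) :
    W.ps 2 x + W.ws 2 x / 2 ≤ W.ps 3 x + W.ws 3 x / 2 + 4 * η ∧
    W.ps 3 x + W.ws 3 x / 2 ≤ W.ps 2 x + W.ws 2 x / 2 + 4 * η := by
  have hF := H.tA hx
  constructor
  · exact Bw.close hδ0 hη (fun x h => H.n2 h) (fun x h => H.n3 h) H.wt0 H.wid H.mlo H.mhi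
      (H.fullA hF 2 (Or.inl rfl)) (H.badA (Or.inl rfl)) (H.νA hF).2 H.ordA hx
  · refine Bw.close hδ0 hη (fun x h => H.n3 h) (fun x h => H.n2 h) H.wt0 H.wid H.mlo H.mhi
      (H.fullA hF 3 (Or.inr rfl)) (H.badA (Or.inr rfl)) ?_
      (fun x h x' h' hlt => H.ord32 h h' hlt) hx
    rw [abs_sub_comm]; exact (H.νA hF).1

/-- closeness, type B -/
lemma closeB (hδ0 : 0 ≤ δ) (hη : 0 ≤ η) {x : ι} (hx : x ∈ MB) :
    W.ps 0 x + W.ws 0 x / 2 ≤ W.ps 1 x + W.ws 1 x / 2 + 4 * η ∧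
    W.ps 1 x + W.ws 1 x / 2 ≤ W.ps 0 x + W.ws 0 x / 2 + 4 * η := by
  have hF := H.tB hx
  constructor
  · exact Bw.close hδ0 hη (fun x h => H.n0 h) (fun x h => H.n1 h) H.wt0 H.wid H.mlo H.mhi
      (H.fullB hF 0 (Or.inl rfl)) (H.badB (Or.inl rfl)) (H.νB hF).2 H.ordB hx
  · refine Bw.close hδ0 hη (fun x h => H.n1 h) (fun x h => H.n0 h) H.wt0 H.wid H.mlo H.mhi
      (H.fullB hF 1 (Or.inr rfl)) (H.badB (Or.inr rfl)) ?_
      (fun x h x' h' hlt => H.ord10 h h' hlt) hx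
    rw [abs_sub_comm]; exact (H.νB hF).1

lemma sum_le_two (hδ1 : δ ≤ 1) (s : Fin 4) : ∑ y : W.E s, W.w s y ≤ 2 * (1 - δ) := by
  have := sum_le_of_disjoint Finset.univ (W.p s) (W.w s) (a := -(1 - δ)) (b := 1 - δ)
    (by linarith) (fun y _ => H.mlo s y) (fun y _ => H.mhi s y) (fun y _ => ((W.ed s).w0 y).le)
    (fun y _ y' _ hne => ((W.ed s).sep y y' hne).le)
  linarith

lemma sum_main_le (hδ1 : δ ≤ 1) {s : Fin 4} {M : Finset ι}
    (hn : ∀ x ∈ M, W.n s x = 1) : ∑ x ∈ M, W.ws s x ≤ 2 * (1 - δ) := by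
  rw [sum_ws hn]
  exact (Finset.sum_le_sum_of_subset_of_nonneg (Finset.filter_subset _ _)
    fun z _ _ => ((W.ed s).w0 z).le).trans (H.sum_le_two hδ1 s)

lemma sum_main_ge {s : Fin 4} {M : Finset ι} (hn : ∀ x ∈ M, W.n s x = 1)
    (hb : ∑ y : W.E s with W.up s y ∉ M, W.w s y ≤ η) (hf : 2 * (1 - δ) - η ≤ ∑ y, W.w s y) :
    2 * (1 - δ) - 2 * η ≤ ∑ x ∈ M, W.ws s x := by
  rw [sum_ws hn]
  have := Finset.sum_filter_add_sum_filter_not (Finset.univ : Finset (W.E s))
    (fun y => W.up s y ∈ M) (W.w s)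
  linarith

variable {P P' : Par} {K b : ℝ} {Rl : ι → ι → Prop}

/-- type A: chord data -/
theorem chA (T : Dpt W P P' K b (lg W wt ν) Rl (6 * η) (6 * η)) (haδ : 2 * P.a ≤ δ) {x : ι}
    (hx : W.cls x = 1) :
    ChA T.D P x (W.kA x) (W.ymA x) (W.ypA x) (1 / (αA ν * wt x)) where
  ta := by
    have h2 := (cls_one H.two hx).2.2.1
    have h3 := (cls_one H.two hx).2.2.2
    rw [T.hA x hx, T.ρA x hx]
    refine ta_A H.two hx (H.lg_pos x) ?_ ?_ (T.vA2 x hx) (T.vA3 x hx) ?_ ?_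
    · rw [H.lg_one hx, H.ws_eq h2]
      exact mul_le_mul_of_nonneg_right (min_le_left _ _) (H.wt0 x).le
    · rw [H.lg_one hx, H.ws_eq h3]
      exact mul_le_mul_of_nonneg_right (min_le_right _ _) (H.wt0 x).le
    · have := H.ws_hi h2; linarith
    · have := H.ws_hi h3; linarith
  ks := by
    have h2 := (cls_one H.two hx).2.2.1
    have h3 := (cls_one H.two hx).2.2.2
    have h0 := mul_pos H.αA0 (H.wt0 x)
    refine ks_A W x ?_ ?_
    · rw [H.ws_eq h2]
      exact one_div_le_one_div_of_le h0 (mul_le_mul_of_nonneg_right (min_le_left _ _) (H.wt0 x).le)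
    · rw [H.ws_eq h3]
      exact one_div_le_one_div_of_le h0 (mul_le_mul_of_nonneg_right (min_le_right _ _) (H.wt0 x).le)
  K0 := (one_div_pos.2 (mul_pos H.αA0 (H.wt0 x))).le
  low := T.lowA x hx

/-- type B: chord data -/
theorem chB (T : Dpt W P P' K b (lg W wt ν) Rl (6 * η) (6 * η))
    (haδ : 2 * (P.a + P.m * P.H) < δ) (ha' : 2 * P'.a ≤ P.a) {x : ι}
    (hx : W.cls x = 2) :
    ChB T.D P P' x (W.kb x) (W.kt x) (W.ymB P x) (W.ypB P x) (1 / (αB ν * wt x)) := by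
  have h0 := (cls_two H.two hx).1
  have h1 := (cls_two H.two hx).2.1
  have hα := mul_pos H.αB0 (H.wt0 x)
  have l0 : αB ν * wt x ≤ W.ws 0 x := by
    rw [H.ws_eq h0]; exact mul_le_mul_of_nonneg_right (min_le_left _ _) (H.wt0 x).le
  have l1 : αB ν * wt x ≤ W.ws 1 x := by
    rw [H.ws_eq h1]; exact mul_le_mul_of_nonneg_right (min_le_right _ _) (H.wt0 x).le
  have ha := one_sub_a P
  have ha0 := P.a0
  have hmH := mul_pos P.m0 P.H0
  have sc : ∀ t : ℝ, 0 ≤ t → t ≤ t / (1 - P.a) := fun t ht => by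
    rw [le_div_iff₀ ha]
    have := mul_nonneg ht ha0.le
    linarith
  have hlo0 := H.ws_lo h0
  have hhi0 := H.ws_hi h0
  have hlo1 := H.ws_lo h1
  have hhi1 := H.ws_hi h1
  have tb : TB P (L.c x) (W.kb x) (W.kt x) :=
    tb_B H.two hx (by linarith) (by linarith) (by linarith) (by linarith)
  refine ⟨tb, ?_, ?_, ?_, ?_, (one_div_pos.2 hα).le, T.highB x hx, T.lowB x hx⟩
  · intro s t
    exact (abs_ramp_sub' (W.ws_pos 0 x)).trans
      (mul_le_mul_of_nonneg_right (one_div_le_one_div_of_le hα l0) (abs_nonneg _))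
  · intro s t
    exact (abs_ramp_sub' (W.ws_pos 1 x)).trans
      (mul_le_mul_of_nonneg_right (one_div_le_one_div_of_le hα l1) (abs_nonneg _))
  · rw [T.hB x hx, T.ρB x hx]
    refine ta_B tb ha' (H.lg_pos x) ?_ ?_ (T.vB0 x hx) (T.vB1 x hx)
    · rw [H.lg_two hx]
      exact l0.trans (sc _ (ws_pos 0 x).le)
    · rw [H.lg_two hx]
      exact l1.trans (sc _ (ws_pos 1 x).le)
  · exact ks_B W P x (one_div_le_one_div_of_le hα l0) (one_div_le_one_div_of_le hα l1)

/-- **type A** -/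
theorem clA' (T : Dpt W P P' K b (lg W wt ν) Rl (6 * η) (6 * η)) (haδ : 2 * P.a ≤ δ)
    (hδ1 : δ ≤ 1) (hη : 0 ≤ η) (hη1 : η ≤ 1) (hH1 : 1 ≤ P.H) {β : ℝ} (hβ : 0 < β) (hF : FA)
    {sA : ℝ} (hs : |sA| = 1) {w : ι → ℝ} (hw : ∀ x ∈ MA, w x = sA * wt x) :
    ClA T.D P β MA w W.kA W.ymA W.ypA (fun x => 1 / (αA ν * wt x))
      (fun x => W.ws 2 x + W.ws 3 x) (sA / (2 * (b * β) * αA ν)) (1 / (2 * (b * β) * αA ν))
      (11 * η) (2 - 2 * (b * β) * ((1 - η) * (2 * (1 - δ) - 2 * η))) := by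
  have hb := mul_pos T.D.cst.b0 hβ
  have hα := H.αA0
  have hH := P.H0
  have ha0 := P.a0
  have hδ0 : 0 ≤ δ := by linarith
  have hl : ∀ x ∈ MA, 4 * P.H * T.h x = αA ν * wt x := fun x hx => by
    rw [T.hA x (H.clA x hx), H.lg_one (H.clA x hx)]
    field_simp
  refine ⟨fun x hx => H.chA T haδ (H.clA x hx), ?_, ?_, ?_, ?_, by linarith, ?_, ?_, ?_⟩
  · intro x hx
    rw [hl x hx, hw x hx]
    have := hα.ne'
    have := T.D.cst.b0.ne'
    have := hβ.ne'
    field_simp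
  · intro x hx
    have h0 := H.wt0 x
    rw [hw x hx, abs_mul, hs, one_mul, abs_of_pos h0]
    apply le_of_eq
    have := hα.ne'
    have := hb.ne'
    field_simp
  · rw [abs_div, hs, abs_of_pos (by positivity)]
  · intro x hx σ hσ
    have e2 := H.ws_lo (H.n2 hx)
    have e3 := H.ws_lo (H.n3 hx)
    have f2 := H.ws_hi (H.n2 hx)
    have f3 := H.ws_hi (H.n3 hx)
    have g2 := H.ws_small (H.n2 hx)
    have g3 := H.ws_small (H.n3 hx)
    have p2 := ws_pos (W := W) 2 x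
    have p3 := ws_pos (W := W) 3 x
    obtain ⟨c1, c2⟩ := H.closeA hδ0 hη hx
    have hv := T.vA x (H.clA x hx)
    have hmax : max (W.ps 2 x + W.ws 2 x / 2) (W.ps 3 x + W.ws 3 x / 2)
        ≤ min (W.ps 2 x + W.ws 2 x / 2) (W.ps 3 x + W.ws 3 x / 2) + 4 * η := by
      rw [← min_add_add_right]
      exact max_le (le_min (by linarith) c1) (le_min c2 (by linarith))
    have key : ∀ s, (s = 2 ∨ s = 3) → T.v x + lg W wt ν x / 2 - (W.ps s x - W.ws s x / 2)
        ≤ 11 * η := by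
      intro s hs'
      rcases hs' with rfl | rfl
      · have := min_le_left (W.ps 2 x + W.ws 2 x / 2) (W.ps 3 x + W.ws 3 x / 2)
        linarith
      · have := min_le_right (W.ps 2 x + W.ws 2 x / 2) (W.ps 3 x + W.ws 3 x / 2)
        linarith
    have hid : ∀ t : ℝ, 4 * (1 - T.ρ x + T.h x / 2) - (1 + t) / P.H
        = (T.v x + lg W wt ν x / 2 - t) / P.H := by
      intro t
      rw [T.hA x (H.clA x hx), T.ρA x (H.clA x hx)]
      field_simp
      ring
    have hdiv : ∀ t : ℝ, t ≤ 11 * η → t / P.H ≤ 11 * η := by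
      intro t ht
      rw [div_le_iff₀ hH]
      have : 11 * η * 1 ≤ 11 * η * P.H := mul_le_mul_of_nonneg_left hH1 (by linarith)
      linarith
    unfold ymA ypA
    split_ifs with h
    · refine ⟨by linarith, by linarith, by linarith, by linarith, ?_⟩
      rw [hid]; exact hdiv _ (key 3 (Or.inr rfl))
    · refine ⟨by linarith, by linarith, by linarith, by linarith, ?_⟩
      rw [hid]; exact hdiv _ (key 2 (Or.inl rfl))
  · intro x _
    have := ws_pos (W := W) 2 x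
    have := ws_pos (W := W) 3 x
    linarith
  · rw [Finset.sum_add_distrib]
    have h2 := H.sum_main_le hδ1 (s := 2) (fun x hx => H.n2 (x := x) hx)
    have h3 := H.sum_main_le hδ1 (s := 3) (fun x hx => H.n3 (x := x) hx)
    linarith
  · have h1 : ∑ x ∈ MA, 2 * (b * β) * (4 * P.H * T.h x) = 2 * (b * β) * ∑ x ∈ MA, αA ν * wt x := by
      rw [Finset.mul_sum]
      exact Finset.sum_congr rfl fun x hx => by rw [hl x hx]
    rw [h1]
    have h2 := H.sum_main_ge (s := 2) (fun x hx => H.n2 (x := x) hx) (H.badA (Or.inl rfl))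
      (H.fullA hF 2 (Or.inl rfl))
    have h3 : ∑ x ∈ MA, W.ws 2 x = ν 2 * ∑ x ∈ MA, wt x := by
      rw [Finset.mul_sum]
      exact Finset.sum_congr rfl fun x hx => H.ws_eq (H.n2 hx)
    have h4 : (1 - η) * ν 2 ≤ αA ν := by
      refine le_min ?_ ?_
      · nlinarith [H.ν0 2]
      · have := (abs_le.1 (H.νA hF).1).2
        linarith
    have h5 : 0 ≤ ∑ x ∈ MA, wt x := Finset.sum_nonneg fun x _ => (H.wt0 x).le
    have h6 : (1 - η) * (2 * (1 - δ) - 2 * η) ≤ ∑ x ∈ MA, αA ν * wt x := by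
      rw [← Finset.mul_sum]
      calc (1 - η) * (2 * (1 - δ) - 2 * η) ≤ (1 - η) * (ν 2 * ∑ x ∈ MA, wt x) :=
            mul_le_mul_of_nonneg_left (by linarith) (by linarith)
        _ = ((1 - η) * ν 2) * ∑ x ∈ MA, wt x := by ring
        _ ≤ _ := mul_le_mul_of_nonneg_right h4 h5
    have h7 := mul_le_mul_of_nonneg_left h6 (by positivity : 0 ≤ 2 * (b * β))
    linarith

/-- **type B** -/
theorem clB' (T : Dpt W P P' K b (lg W wt ν) Rl (6 * η) (6 * η))
    (haδ : 2 * (P.a + P.m * P.H) < δ) (ha' : 2 * P'.a ≤ P.a)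
    (hδ1 : δ ≤ 1) (hη : 0 ≤ η) (hH1 : 1 ≤ P'.H) {β : ℝ} (hβ : 0 < β) (hF : FB)
    {sB : ℝ} (hs : |sB| = 1) {w : ι → ℝ} (hw : ∀ x ∈ MB, w x = sB * wt x) :
    ClB T.D P P' β MB w (W.ps 0) (W.ws 0) W.kb W.kt (W.ymB P) (W.ypB P)
      (fun x => 1 / (αB ν * wt x))
      (fun x => (W.ws 0 x + W.ws 1 x) / (1 - P.a)) (sB / (2 * (b * β) * ν 0))
      (1 / (2 * (b * β) * αB ν * (1 - P.a)))
      (16 * η) (2 - 2 * (b * β) * (2 * (1 - δ) - 2 * η)) := by
  have hb := mul_pos T.D.cst.b0 hβ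
  have hα := H.αB0
  have hν := H.ν0 0
  have hP := P.H0
  have hH := P'.H0
  have ha0 := P.a0
  have ha := one_sub_a P
  have ha4 := P.a_le
  have hmH := mul_pos P.m0 P.H0
  have hδ0 : 0 ≤ δ := by linarith
  have haδ2 : P.a ≤ δ := by linarith
  refine ⟨fun x hx => H.chB T haδ ha' (H.clB x hx), ?_, fun x _ => ws_pos 0 x, ?_, ?_, ?_, ?_, ?_,
    ?_, ?_, by linarith, ?_, ?_, ?_⟩
  · intro x _ u
    show - ramp (W.ws 0 x) (W.ps 0 x) u = _
    rw [neg_ramp]
    congr 1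
    ring
  · intro x hx
    rw [H.ws_eq (H.n0 hx), hw x hx]
    have := hν.ne'
    have := T.D.cst.b0.ne'
    have := hβ.ne'
    field_simp
  · intro x hx
    have h0 := H.wt0 x
    rw [hw x hx, abs_mul, hs, one_mul, abs_of_pos h0]
    have e : wt x * (1 / (αB ν * wt x) / (2 * (b * β))) = 1 / (2 * (b * β) * αB ν) := by
      have := hα.ne'
      have := hb.ne'
      field_simp
    rw [e]
    apply one_div_le_one_div_of_le (by positivity)
    exact mul_le_of_le_one_right (by positivity) (by linarith)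
  · intro x hx
    have h0 := H.wt0 x
    rw [hw x hx, abs_mul, hs, one_mul, abs_of_pos h0, T.hB x (H.clB x hx), H.lg_two (H.clB x hx)]
    apply le_of_eq
    have := hα.ne'
    have := hb.ne'
    have := ha.ne'
    field_simp
  · rw [abs_div, hs, abs_of_pos (by positivity)]
    apply one_div_le_one_div_of_le (by positivity)
    have e1 : αB ν ≤ ν 0 := min_le_left _ _
    calc 2 * (b * β) * αB ν * (1 - P.a) ≤ 2 * (b * β) * αB ν :=
          mul_le_of_le_one_right (by positivity) (by linarith)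
      _ ≤ _ := mul_le_mul_of_nonneg_left e1 (by positivity)
  · intro x hx x' hx' hne
    exact (ps_sep (H.n0 hx) (H.n0 hx') hne).le
  · intro x hx
    have e2 := H.ws_lo (H.n0 hx)
    have f2 := H.ws_hi (H.n0 hx)
    have : |W.ps 0 x| ≤ 1 - W.ws 0 x / 2 := abs_le.2 ⟨by linarith, by linarith⟩
    linarith
  · intro x hx σ hσ
    have e2 := H.ws_lo (H.n0 hx)
    have e3 := H.ws_lo (H.n1 hx)
    have f2 := H.ws_hi (H.n0 hx)
    have f3 := H.ws_hi (H.n1 hx)
    have g2 := H.ws_small (H.n0 hx)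
    have g3 := H.ws_small (H.n1 hx)
    have p2 := ws_pos (W := W) 0 x
    have p3 := ws_pos (W := W) 1 x
    obtain ⟨c1, c2⟩ := H.closeB hδ0 hη hx
    have hv := T.vB x (H.clB x hx)
    have hc : ∀ s s' : Fin 4, W.ps s x + W.ws s x / 2 ≤ W.ps s' x + W.ws s' x / 2 + 4 * η →
        W.ws s' x ≤ η → (W.ps s x + W.ws s x / 2) / (1 - P.a)
          ≤ (W.ps s' x - W.ws s' x / 2) / (1 - P.a) + 10 * η := by
      intro s s' h1 h2
      rw [← sub_le_iff_le_add', ← sub_div, div_le_iff₀ ha]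
      have : 10 * η * (3/4) ≤ 10 * η * (1 - P.a) :=
        mul_le_mul_of_nonneg_left (by linarith) (by linarith)
      linarith
    have k00 := hc 0 0 (by linarith) g2
    have k10 := hc 1 0 c2 g2
    have k01 := hc 0 1 c1 g3
    have k11 := hc 1 1 (by linarith) g3
    have hid : ∀ t : ℝ, 8 * (3/4 - T.ρ x + T.h x / 2) - (1 + t) / P'.H
        = (T.v x + lg W wt ν x / 2 - t) / P'.H := by
      intro t
      rw [T.hB x (H.clB x hx), T.ρB x (H.clB x hx)]
      field_simp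
      ring
    have hdiv : ∀ t : ℝ, t ≤ 16 * η → t / P'.H ≤ 16 * η := by
      intro t ht
      rw [div_le_iff₀ hH]
      have : 16 * η * 1 ≤ 16 * η * P'.H := mul_le_mul_of_nonneg_left hH1 (by linarith)
      linarith
    have hlow : ∀ t : ℝ, -(1 - δ) ≤ t → -1 < t / (1 - P.a) := by
      intro t ht
      rw [lt_div_iff₀ ha]
      linarith
    have hup : ∀ t : ℝ, t ≤ 1 - δ → t / (1 - P.a) ≤ 1 := by
      intro t ht
      rw [div_le_one ha]
      linarith
    have hnn : 0 ≤ W.ws 0 x / (1 - P.a) := div_nonneg p2.le ha.le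
    have hnn' : 0 ≤ W.ws 1 x / (1 - P.a) := div_nonneg p3.le ha.le
    unfold ymB ypB
    split_ifs with h
    · refine ⟨hlow _ e3, hup _ (by linarith), hup _ f3, ?_, ?_⟩
      · have e : (W.ps 1 x + W.ws 1 x / 2) / (1 - P.a) - (W.ps 1 x - W.ws 1 x / 2) / (1 - P.a)
            = W.ws 1 x / (1 - P.a) := by ring
        show _ ≤ (W.ws 0 x + W.ws 1 x) / (1 - P.a)
        rw [e, add_div]; linarith
      · rw [hid]
        apply hdiv
        have := max_le k01 k11
        linarith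
    · refine ⟨hlow _ e2, hup _ (by linarith), hup _ f2, ?_, ?_⟩
      · have e : (W.ps 0 x + W.ws 0 x / 2) / (1 - P.a) - (W.ps 0 x - W.ws 0 x / 2) / (1 - P.a)
            = W.ws 0 x / (1 - P.a) := by ring
        show _ ≤ (W.ws 0 x + W.ws 1 x) / (1 - P.a)
        rw [e, add_div]; linarith
      · rw [hid]
        apply hdiv
        have := max_le k00 k10
        linarith
  · intro x _
    have := ws_pos (W := W) 0 x
    have := ws_pos (W := W) 1 x
    exact div_nonneg (by linarith) ha.le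
  · rw [← Finset.sum_div, Finset.sum_add_distrib, div_le_iff₀ ha]
    have h2 := H.sum_main_le hδ1 (s := 0) (fun x hx => H.n0 (x := x) hx)
    have h3 := H.sum_main_le hδ1 (s := 1) (fun x hx => H.n1 (x := x) hx)
    linarith
  · rw [← Finset.mul_sum]
    have h2 := H.sum_main_ge (s := 0) (fun x hx => H.n0 (x := x) hx) (H.badB (Or.inl rfl))
      (H.fullB hF 0 (Or.inl rfl))
    have h7 := mul_le_mul_of_nonneg_left h2 (by positivity : 0 ≤ 2 * (b * β))
    linarith

/-- **crude data** -/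
theorem crd (T : Dpt W P P' K b (lg W wt ν) Rl (6 * η) (6 * η)) (J : Finset ι) {w : ι → ℝ}
    (hw : ∀ x ∈ J, |w x| ≤ wt x) :
    Crd L T.h J w (fun x => 16 / (αX ν * wt x)) (16 / αX ν) := by
  have hα := H.αX0
  have hH2 : P.H ≤ 2 := by have := P.aH; have := P.a0; linarith
  have hH2' : P'.H ≤ 2 := by have := P'.aH; have := P'.a0; linarith
  have hP := P.H0
  have hP' := P'.H0
  refine ⟨fun x _ => ?_, fun x _ ω hω => ?_, fun x _ => ?_, fun x hx => ?_⟩
  · have := H.wt0 x; positivity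
  · have h0 := H.wt0 x
    refine (lip_c (W := W) (κ := 1 / (αX ν * wt x)) (by positivity) ?_ hω).mono ?_
    · intro s y hy
      rw [H.wid, hy]
      exact one_div_le_one_div_of_le (by positivity)
        (mul_le_mul_of_nonneg_right (αX_le ν s) h0.le)
    · exact div_le_div_of_nonneg_right (by norm_num) (by positivity)
  · have h0 := H.wt0 x
    have hl := H.lg_ge x
    have hlp := H.lg_pos x
    have hXl : 0 < αX ν * wt x := by positivity
    rcases Bw.fin4_cases (W.cls x) with hx | hx | hx | hx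
    · rw [T.hX x (Or.inl hx)]
      exact (one_div_le_one_div_of_le hXl hl).trans
        (div_le_div_of_nonneg_right (by norm_num) hXl.le)
    · rw [T.hA x hx, one_div_div]
      calc 4 * P.H / lg W wt ν x ≤ 16 / lg W wt ν x :=
            div_le_div_of_nonneg_right (by linarith) hlp.le
        _ ≤ _ := div_le_div_of_nonneg_left (by norm_num) hXl hl
    · rw [T.hB x hx, one_div_div]
      calc 8 * P'.H / lg W wt ν x ≤ 16 / lg W wt ν x :=
            div_le_div_of_nonneg_right (by linarith) hlp.le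
        _ ≤ _ := div_le_div_of_nonneg_left (by norm_num) hXl hl
    · rw [T.hX x (Or.inr hx)]
      exact (one_div_le_one_div_of_le hXl hl).trans
        (div_le_div_of_nonneg_right (by norm_num) hXl.le)
  · have h0 := H.wt0 x
    calc |w x| * (16 / (αX ν * wt x)) ≤ wt x * (16 / (αX ν * wt x)) :=
          mul_le_mul_of_nonneg_right (hw x hx) (by positivity)
      _ = 16 / αX ν := by field_simp

/-- **the sum over the other chords** -/
theorem sumX (T : Dpt W P P' K b (lg W wt ν) Rl (6 * η) (6 * η)) (hH1 : 1 ≤ P.H) (hH1' : 1 ≤ P'.H)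
    {J : Finset ι} (hJ : ∀ x ∈ J, x ∉ MA ∧ x ∉ MB) : ∑ x ∈ J, (W.tot x + T.h x) ≤ 8 * η := by
  have h : ∀ x, T.h x ≤ W.tot x := by
    intro x
    refine le_trans ?_ (H.lg_tot x)
    have hl := (H.lg_pos x).le
    rcases Bw.fin4_cases (W.cls x) with hx | hx | hx | hx
    · rw [T.hX x (Or.inl hx)]
    · rw [T.hA x hx]
      exact div_le_self hl (by linarith)
    · rw [T.hB x hx]
      exact div_le_self hl (by linarith)
    · rw [T.hX x (Or.inr hx)]
  have h1 := H.sum_tot hJ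
  calc ∑ x ∈ J, (W.tot x + T.h x) ≤ ∑ x ∈ J, (W.tot x + W.tot x) :=
        Finset.sum_le_sum fun x _ => by linarith [h x]
    _ = 2 * ∑ x ∈ J, W.tot x := by rw [Finset.mul_sum]; exact Finset.sum_congr rfl fun _ _ => by ring
    _ ≤ _ := by linarith

end Pure

end Crest.Agent.R096.Fk_522
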