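import Crest.Agent.R096.Fl1_835
import Crest.Agent.R096.Mg4_441
import Crest.Agent.R096.Xq3_537

/-!
# R096 (row 96), FIN-LIP (helper835), part 2: the merged levels and the final Lipschitz bound

Near a point `z` of a closed mesh cell only the pieces through `z` move, and there is at most one of
every family: the merged level `G a` is `lev a z + 1/2 ± c x` for this piece `x`.
-/

set_option autoImplicit false
set_option linter.unusedSectionVars false

open Set Filter Topology Relation

namespace Crest.Agent.R096.Fl_835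

open Crest.Agent.R096.Ce_537
open Crest.Agent.R096.Bd_416
open Crest.Agent.R096.Mg_441
open Crest.Agent.R096.Grd_714
open Crest.Agent.R096.Brk1_582

variable {Q : Type} [PartialOrder Q] {dim : Q → ℕ} {J Fam : Type}
variable {E : Type*} [NormedAddCommGroup E] [NormedSpace ℝ E]
variable {C : Cmb Q dim J Fam} {K : Q → Set E} {D : Set Q} {g : Gd E J}
  {P : ∀ q, C.I q → Set E} {c : ∀ q, C.I q → E → ℝ}

/-- `y` differs from `z` only in the pieces through `z` -/
def Still (C : Cmb Q dim J Fam) (P : ∀ q, C.I q → Set E) (c : ∀ q, C.I q → E → ℝ) (q : Q)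
    (z y : E) : Prop :=
  ∀ x : C.I q, z ∉ P q x → y ∉ P q x ∧ c q x y = c q x z

theorem still_self (q : Q) (z : E) : Still C P c q z z := fun _ hx => ⟨hx, rfl⟩

section inv

variable (H : Inv C K D g P c) {q : Q} (hq : q ∈ D)
include H hq

lemma half_of_notMem {x : C.I q} {z : E} (hz : z ∈ K q) (hx : z ∉ P q x) :
    c q x z = -1/2 ∨ c q x z = 1/2 :=
  half_of_I2 (H.cm q hq x z hz) fun h => hx (H.cn q hq x z hz h)

/-- near `z` only the pieces through `z` move -/
theorem eventually_still {z : E} (hz : z ∈ K q) : ∀ᶠ y in 𝓝[K q] z, Still C P c q z y := by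
  have h1 : ∀ x : C.I q, ∀ᶠ y in 𝓝[K q] z, (z ∉ P q x → y ∉ P q x ∧ c q x y = c q x z) := by
    intro x
    by_cases hx : z ∈ P q x
    · exact Eventually.of_forall fun y h => absurd hx h
    · have e1 : ∀ᶠ y in 𝓝[K q] z, y ∉ P q x :=
        Filter.Eventually.filter_mono nhdsWithin_le_nhds
          ((H.cl q hq x).isOpen_compl.mem_nhds hx)
      have e2 : ∀ᶠ y in 𝓝[K q] z, |c q x y - c q x z| < 1 := by
        have hc : Tendsto (c q x) (𝓝[K q] z) (𝓝 (c q x z)) := (H.pc q hq x).1 z hz
        have := hc.sub_const (c q x z)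
        rw [sub_self] at this
        have := this.abs
        rw [abs_zero] at this
        exact this.eventually (gt_mem_nhds one_pos)
      filter_upwards [e1, e2, self_mem_nhdsWithin] with y h1 h2 hy _
      refine ⟨h1, ?_⟩
      rcases half_of_notMem H hq hz hx with h3 | h3 <;>
      rcases half_of_notMem H hq hy h1 with h4 | h4 <;> rw [h3, h4] at h2 ⊢ <;>
      norm_num at h2
  exact (Filter.eventually_all.2 h1).mono fun y hy x => hy x

open scoped Classical in
/-- a sheet without pieces through `z` does not move -/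
theorem G_still {z y : E} (hz : z ∈ K q) (hy : y ∈ K q) (hs : Still C P c q z y) {j : J}
    (hj : ∀ x : C.I q, C.col q x = j → z ∉ P q x) : g.G j y = g.G j z := by
  rw [H.PF q hq j y hy, H.PF q hq j z hz]
  congr 2
  refine Finset.prod_congr rfl fun x hx => ?_
  rw [Finset.mem_filter] at hx
  rw [(hs x (hj x hx.2)).2]

open scoped Classical in
/-- the sign of a piece -/
theorem exists_sign {z : E} (hz : z ∈ K q) {x : C.I q} (hx : z ∈ P q x) :
    ∃ ε : ℝ, |ε| = 1 ∧ ∀ y ∈ K q, Still C P c q z y → g.G (C.col q x) y = 1/2 + ε * c q x y := by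
  refine ⟨sg (C.Lab (C.col q x) q) *
    ∏ x' : C.I q with (C.col q x' = C.col q x ∧ x' ≠ x), (-2 * c q x' z), ?_, ?_⟩
  · have h1 : |sg (C.Lab (C.col q x) q)| = 1 := by
      rcases z2 (C.Lab (C.col q x) q) with h | h <;> rw [h] <;> simp
    rw [abs_mul, h1, one_mul, Finset.abs_prod]
    refine Finset.prod_eq_one fun x' hx' => ?_
    rw [Finset.mem_filter] at hx'
    have hn : z ∉ P q x' := fun h =>
      Set.disjoint_left.1 (H.fd q hq x x' (Ne.symm hx'.2.2) (by rw [hx'.2.1])) hx h
    exact abs_of_half (half_of_notMem H hq hz hn)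
  · intro y hy hs
    rw [H.PF q hq _ y hy, prod_split x (fun x' => -2 * c q x' y)]
    have e : ∏ x' : C.I q with (C.col q x' = C.col q x ∧ x' ≠ x), (-2 * c q x' y) =
        ∏ x' : C.I q with (C.col q x' = C.col q x ∧ x' ≠ x), (-2 * c q x' z) := by
      refine Finset.prod_congr rfl fun x' hx' => ?_
      rw [Finset.mem_filter] at hx'
      have hn : z ∉ P q x' := fun h =>
        Set.disjoint_left.1 (H.fd q hq x x' (Ne.symm hx'.2.2) (by rw [hx'.2.1])) hx h
      rw [(hs x' hn).2]
    rw [e]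
    ring

open scoped Classical in
/-- **the merged level near a point of the band of `x`** -/
theorem merge_near (hfin : ∀ a, {j | C.fam j = a}.Finite) {z : E} (hz : z ∈ K q) {x : C.I q}
    (hx : z ∈ P q x) : ∃ ε : ℝ, |ε| = 1 ∧ ∀ y ∈ K q, Still C P c q z y →
      (merge hfin g).G (C.fam (C.col q x)) y =
        (merge hfin g).lev (C.fam (C.col q x)) z + (1/2 + ε * c q x y) := by
  obtain ⟨ε, h1, h2⟩ := exists_sign H hq hz hx
  refine ⟨ε, h1, fun y hy hs => ?_⟩
  rw [merge_G_band, h2 y hy hs, merge_lev hfin (inv_DB H hq) hz (H.PB q hq x hx), add_comm]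
  congr 1
  refine Finset.sum_congr rfl fun j' hj' => ?_
  rw [Finset.mem_erase, mem_sh] at hj'
  refine G_still H hq hz hy hs fun x' hx' hzx' => ?_
  have hne : x ≠ x' := by
    rintro rfl
    exact hj'.1 hx'.symm
  exact Set.disjoint_left.1 (H.fd q hq x x' hne (by rw [hx', hj'.2])) hx hzx'

/-- no piece of the family through `z`: the level does not move -/
theorem merge_still (hfin : ∀ a, {j | C.fam j = a}.Finite) {z y : E} (hz : z ∈ K q)
    (hy : y ∈ K q) (hs : Still C P c q z y) {a : Fam}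
    (ha : ∀ x : C.I q, C.fam (C.col q x) = a → z ∉ P q x) :
    (merge hfin g).G a y = (merge hfin g).G a z := by
  rw [merge_G, merge_G]
  refine Finset.sum_congr rfl fun j hj => ?_
  rw [mem_sh] at hj
  exact G_still H hq hz hy hs fun x hx => ha x (by rw [hx, hj])

/-- **(A)** -/
theorem levels (hfin : ∀ a, {j | C.fam j = a}.Finite) {z : E} (hz : z ∈ K q) :
    ∀ᶠ y in 𝓝[K q] z, ∀ a : Fam,
      (∃ x : C.I q, C.fam (C.col q x) = a ∧ z ∈ P q x ∧
        |(merge hfin g).G a y - (merge hfin g).G a z| = |c q x y - c q x z|) ∨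
      (merge hfin g).G a y = (merge hfin g).G a z := by
  filter_upwards [eventually_still H hq hz, self_mem_nhdsWithin] with y hs hy a
  by_cases h : ∃ x : C.I q, C.fam (C.col q x) = a ∧ z ∈ P q x
  · left
    obtain ⟨x, rfl, hx⟩ := h
    refine ⟨x, rfl, hx, ?_⟩
    obtain ⟨ε, h1, h2⟩ := merge_near H hq hfin hz hx
    rw [h2 y hy hs, h2 z hz (still_self q z)]
    have e : (merge hfin g).lev (C.fam (C.col q x)) z + (1/2 + ε * c q x y) -
        ((merge hfin g).lev (C.fam (C.col q x)) z + (1/2 + ε * c q x z)) =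
        ε * (c q x y - c q x z) := by ring
    rw [e, abs_mul, h1, one_mul]
  · right
    push Not at h
    exact merge_still H hq hfin hz hy hs h

/-- **(C)** near `z` the levels lie in the grid box of `z` -/
theorem mem_box (hfin : ∀ a, {j | C.fam j = a}.Finite) {z : E} (hz : z ∈ K q) :
    ∀ᶠ y in 𝓝[K q] z, ∀ a : Fam, (loN hfin g z a : ℝ) ≤ (merge hfin g).G a y ∧
      (merge hfin g).G a y ≤ (hiN hfin g z a : ℝ) := by
  filter_upwards [eventually_still H hq hz, self_mem_nhdsWithin] with y hs hy a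
  by_cases h : ∃ x : C.I q, C.fam (C.col q x) = a ∧ z ∈ P q x
  · obtain ⟨x, rfl, hx⟩ := h
    obtain ⟨ε, h1, h2⟩ := merge_near H hq hfin hz hx
    have hB : z ∈ (merge hfin g).B (C.fam (C.col q x)) := mem_merge_B' hfin (H.PB q hq x hx)
    obtain ⟨k1, k2, -⟩ := box_band H hfin hq hz hB
    rw [h2 y hy hs, k1, k2]
    push_cast
    have hm := H.cm q hq x y hy
    have habs : |ε * c q x y| ≤ 1/2 := by
      rw [abs_mul, h1, one_mul, abs_le]
      constructor <;> linarith [hm.1, hm.2]
    rw [abs_le] at habs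
    constructor <;> linarith [habs.1, habs.2]
  · push Not at h
    rw [merge_still H hq hfin hz hy hs h]
    exact G_mem_box H hfin hq hz a

variable {E' : Type*} [NormedAddCommGroup E'] [NormedSpace ℝ E'] [CompleteSpace E']
  {La : Set E'} {Pf : Fam → Set E'} {b : Set Fam → E'}

/-- **FIN-LIP (D)** -/
theorem fin_lip (hfin : ∀ a, {j | C.fam j = a}.Finite) {z : E} (hz : z ∈ K q)
    (FF : Foam La Pf b 4) (hQ : Quads Pf b) {Dm : Fam → ℝ} (hD : StepLe Pf b Dm)
    (hmm : ∀ a, 0 < mm hfin a) (hD0 : ∀ a, 0 ≤ Dm a) {y0 : Fam → ℝ} (hy0 : Ex C Pf q y0)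
    {ρ : E → ℝ} (hρ : ∀ y, 0 ≤ ρ y) {Λ : C.I q → ℝ}
    (hc : ∀ᶠ y in 𝓝[K q] z, ∀ x : C.I q, |c q x y - c q x z| ≤ Λ x * ρ y) {M : ℝ} (hM0 : 0 ≤ M)
    (hM : ∀ x : C.I q, Dm (C.fam (C.col q x)) * Λ x ≤ M * mm hfin (C.fam (C.col q x))) :
    ∀ᶠ y in 𝓝[K q] z, ‖Xp_537.gG (Tq b (mm hfin)) (merge hfin g) y -
      Xp_537.gG (Tq b (mm hfin)) (merge hfin g) z‖ ≤ 2 * M * ρ y := by
  obtain ⟨bq, hlo, hhi, hbz⟩ := exists_box H hfin hq hz hy0
  filter_upwards [hc, levels H hq hfin hz, mem_box H hq hfin hz] with y h1 h2 h3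
  have hby : (fun a => (merge hfin g).G a y) ∈ bq.bx := by
    intro a
    rw [hlo, hhi]
    exact h3 a
  have := Tq_lip FF hQ hD hmm hby hbz (M := M * ρ y) (mul_nonneg hM0 (hρ y)) (fun a _ => ?_)
  · unfold Xp_537.gG
    linarith
  · rcases h2 a with ⟨x, rfl, -, h5⟩ | h5
    · show Dm (C.fam (C.col q x)) * |(merge hfin g).G (C.fam (C.col q x)) y -
        (merge hfin g).G (C.fam (C.col q x)) z| ≤ _
      rw [h5]
      calc Dm (C.fam (C.col q x)) * |c q x y - c q x z|
          ≤ Dm (C.fam (C.col q x)) * (Λ x * ρ y) :=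
            mul_le_mul_of_nonneg_left (h1 x) (hD0 _)
        _ = (Dm (C.fam (C.col q x)) * Λ x) * ρ y := by ring
        _ ≤ (M * mm hfin (C.fam (C.col q x))) * ρ y := mul_le_mul_of_nonneg_right (hM x) (hρ y)
        _ = M * ρ y * mm hfin (C.fam (C.col q x)) := by ring
    · show Dm a * |(merge hfin g).G a y - (merge hfin g).G a z| ≤ _
      rw [h5, sub_self, abs_zero, mul_zero]
      have := hρ y
      positivity

end inv

end Crest.Agent.R096.Fl_835
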