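import Crest.Agent.R096.Fl2_835
import Crest.Agent.R096.Bd21_416

/-!
# R096 (row 96), FIN-LIP (helper835), part 3: the final form in frames

Input: `LB B (L / wt (fam (col x))) (c q x) (K q) z` for every piece (= 199's `tile_piece_T`), weights
against number of copies.  Output: the bound for `gG` on the closed cell in the frame `B`.
-/

set_option autoImplicit false
set_option linter.unusedSectionVars false

open Set Filter Topology Relation

namespace Crest.Agent.R096.Fl_835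

open Crest.Agent.R096.Ce_537
open Crest.Agent.R096.Bd_416
open Crest.Agent.R096.Mg_441
open Crest.Agent.R096.Grd_714
open Crest.Agent.R096.Brk1_582 Crest.Agent.R096.Brk2_582 Crest.Agent.R096.Brk6_582
open Crest.Agent.R096.Bsp_628 Crest.Agent.R096.Brk3_582 Crest.Agent.R096.Brk5_582

variable {Q : Type} [PartialOrder Q] {dim : Q → ℕ} {J : Type}
variable {E : Type*} [NormedAddCommGroup E] [NormedSpace ℝ E]
variable {K : Q → Set E} {D : Set Q} {g : Gd E J}

/-- **FIN-LIP in frames, general foam** -/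
theorem fin_lip_LB {Fam : Type} {C : Cmb Q dim J Fam} {P : ∀ q, C.I q → Set E}
    {c : ∀ q, C.I q → E → ℝ} (H : Inv C K D g P c) {q : Q} (hq : q ∈ D)
    {E' : Type*} [NormedAddCommGroup E'] [NormedSpace ℝ E'] [CompleteSpace E']
    {La : Set E'} {Pf : Fam → Set E'} {b : Set Fam → E'}
    (hfin : ∀ a, {j | C.fam j = a}.Finite) {z : E} (hz : z ∈ K q)
    (FF : Foam La Pf b 4) (hQ : Quads Pf b) {Dm : Fam → ℝ} (hD : StepLe Pf b Dm)
    (hmm : ∀ a, 0 < mm hfin a) (hD0 : ∀ a, 0 ≤ Dm a) {y0 : Fam → ℝ} (hy0 : Ex C Pf q y0)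
    {Y : Type*} [PseudoMetricSpace Y] {B : E → Y} {L : ℝ} (hL : 0 ≤ L) {wt : Fam → ℝ}
    (hw : ∀ a, 0 < wt a)
    (hc : ∀ x : C.I q, LB B (L / wt (C.fam (C.col q x))) (c q x) (K q) z)
    {κ3 : ℝ} (h3 : 0 ≤ κ3) (hκ : ∀ a, Dm a ≤ κ3 * (mm hfin a * wt a)) :
    ∀ᶠ y in 𝓝[K q] z, ‖Xp_537.gG (Tq b (mm hfin)) (merge hfin g) y -
      Xp_537.gG (Tq b (mm hfin)) (merge hfin g) z‖ ≤ 2 * κ3 * L * dist (B y) (B z) := by
  have hc' : ∀ᶠ y in 𝓝[K q] z, ∀ x : C.I q,
      |c q x y - c q x z| ≤ (L / wt (C.fam (C.col q x))) * dist (B y) (B z) :=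
    Filter.eventually_all.2 hc
  have := fin_lip H hq hfin hz FF hQ hD hmm hD0 hy0 (ρ := fun y => dist (B y) (B z))
    (fun _ => dist_nonneg) hc' (M := κ3 * L) (mul_nonneg h3 hL) (fun x => ?_)
  · filter_upwards [this] with y hy
    linarith
  · have w0 := hw (C.fam (C.col q x))
    have h := hκ (C.fam (C.col q x))
    have e : Dm (C.fam (C.col q x)) * (L / wt (C.fam (C.col q x))) =
        Dm (C.fam (C.col q x)) / wt (C.fam (C.col q x)) * L := by ring
    rw [e]
    have h' : Dm (C.fam (C.col q x)) / wt (C.fam (C.col q x)) ≤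
        κ3 * mm hfin (C.fam (C.col q x)) := by
      rw [div_le_iff₀ w0]; linarith
    have := mul_le_mul_of_nonneg_right h' hL
    linarith

section box

variable {κ : Type} [Fintype κ] [Nonempty κ] {La : Set (κ → ℝ)} {F : Set (Bx κ)} {δ κ0 : ℝ}

/-- **FIN-LIP in frames, box foams in dimension 3** -/
theorem fin_lip_box {C : Cmb Q dim J F} {P : ∀ q, C.I q → Set E}
    {c : ∀ q, C.I q → E → ℝ} (H : Inv C K D g P c) {q : Q} (hq : q ∈ D)
    (BF : BoxFoam La F δ κ0) (hLa : IsOpen La) (hk : Fintype.card κ = 3) {R : ℝ} (hR : 0 ≤ R)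
    (hcmp : Cmp F R) (hfin : ∀ a, {j | C.fam j = a}.Finite) {z : E} (hz : z ∈ K q)
    {y0 : F → ℝ} (hy0 : Ex C (Pc F) q y0)
    {Y : Type*} [PseudoMetricSpace Y] {B : E → Y} {L : ℝ} (hL : 0 ≤ L) {wt : F → ℝ}
    (hw : ∀ a, 0 < wt a)
    (hc : ∀ x : C.I q, LB B (L / wt (C.fam (C.col q x))) (c q x) (K q) z)
    {κ3 : ℝ} (h3 : 0 ≤ κ3) (hκ : ∀ a : F, a.1.sz ≤ κ3 * (mm hfin a * wt a)) :
    ∀ᶠ y in 𝓝[K q] z, ‖Xp_537.gG (Tq (bc (F := F)) (mm hfin)) (merge hfin g) y -
      Xp_537.gG (Tq (bc (F := F)) (mm hfin)) (merge hfin g) z‖ ≤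
        2 * R * κ3 * L * dist (B y) (B z) := by
  have FF : Foam La (Pc F) (bc (F := F)) 4 := by
    have := foam BF hLa
    rwa [hk] at this
  have hsz : ∀ a : F, 0 < a.1.sz := fun a => Bx.sz_pos (BF.pos _ a.2)
  have hmm : ∀ a, 0 < mm hfin a := by
    intro a
    by_contra h
    have h0 : mm hfin a = 0 := by omega
    have := hκ a
    rw [h0, Nat.cast_zero, zero_mul, mul_zero] at this
    exact absurd (hsz a) (not_lt.2 this)
  have := fin_lip_LB H hq hfin hz FF (quads_box BF hk) (step_box BF hLa hcmp) hmm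
    (fun a => mul_nonneg hR (hsz a).le) hy0 hL hw hc (κ3 := R * κ3) (mul_nonneg hR h3)
    (fun a => by
      have := mul_le_mul_of_nonneg_left (hκ a) hR
      linarith)
  filter_upwards [this] with y hy
  linarith

end box

end Crest.Agent.R096.Fl_835
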