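import Crest.Agent.R096.Fl3_835

/-!
# R096 (row 96), FIN-LIP (helper835), part 4: the local form (clause `lipT` of 477's `OutNO`)

If the base points of all faces over the tile lie in a set of diameter `W` and every active label has
weight at least `w`, the Lipschitz constant of `gG` is `2 * (W / w) * L`: no constant of the foam.
-/

set_option autoImplicit false
set_option linter.unusedSectionVars false

open Set Filter Topology Relation

namespace Crest.Agent.R096.Fl_835

open Crest.Agent.R096.Ce_537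
open Crest.Agent.R096.Bd_416
open Crest.Agent.R096.Mg_441
open Crest.Agent.R096.Grd_714
open Crest.Agent.R096.Brk1_582 Crest.Agent.R096.Brk2_582 Crest.Agent.R096.Brk6_582

section conic

variable {E : Type*} [NormedAddCommGroup E] [NormedSpace ℝ E] [FiniteDimensional ℝ E]

/-- a PL function is affine along the rays near a point of a convex set -/
theorem plOn_conic {f : E → ℝ} {K : Set E} (h : PLOn f K) (hK : Convex ℝ K) {z : E} (hz : z ∈ K) :
    ∀ᶠ y in 𝓝[K] z, ∀ t ∈ Icc (0 : ℝ) 1, f (z + t • (y - z)) = f z + t * (f y - f z) := by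
  classical
  obtain ⟨hc, S, hS⟩ := h
  have h1 : ∀ᶠ y in 𝓝[K] z, ∀ g : S, (g : E →ᵃ[ℝ] ℝ) z ≠ f z → (g : E →ᵃ[ℝ] ℝ) y ≠ f y := by
    refine Filter.eventually_all.2 fun g => ?_
    by_cases hg : (g : E →ᵃ[ℝ] ℝ) z = f z
    · exact Eventually.of_forall fun y h => absurd hg h
    · have c1 : ContinuousOn (fun y => (g : E →ᵃ[ℝ] ℝ) y - f y) K :=
        ((AffineMap.continuous_of_finiteDimensional (g : E →ᵃ[ℝ] ℝ)).continuousOn).sub hc
      have c2 : Tendsto (fun y => (g : E →ᵃ[ℝ] ℝ) y - f y) (𝓝[K] z)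
        (𝓝 ((g : E →ᵃ[ℝ] ℝ) z - f z)) := c1 z hz
      have := c2.eventually_ne (sub_ne_zero.2 hg)
      filter_upwards [this] with y hy _
      exact sub_ne_zero.1 hy
  obtain ⟨r, hr, hball⟩ := Metric.mem_nhdsWithin_iff.1 h1
  have h2 : ∀ᶠ y in 𝓝[K] z, dist y z < r :=
    Filter.Eventually.filter_mono nhdsWithin_le_nhds (Metric.ball_mem_nhds z hr)
  filter_upwards [h2, self_mem_nhdsWithin] with y hy hyK t ht
  have hseg : ∀ s ∈ Icc (0 : ℝ) 1, z + s • (y - z) ∈ K := by
    intro s hs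
    have := hK hz hyK (by linarith [hs.2] : 0 ≤ 1 - s) hs.1 (by ring)
    convert this using 1
    module
  have hbal : ∀ s ∈ Icc (0 : ℝ) 1, z + s • (y - z) ∈ Metric.ball z r := by
    intro s hs
    rw [mem_ball_iff_norm, add_sub_cancel_left, norm_smul, Real.norm_eq_abs, abs_of_nonneg hs.1]
    rw [dist_eq_norm] at hy
    calc s * ‖y - z‖ ≤ 1 * ‖y - z‖ := mul_le_mul_of_nonneg_right hs.2 (norm_nonneg _)
      _ < r := by linarith
  have hact : ∀ s ∈ Icc (0 : ℝ) 1, ∃ g ∈ S, g z = f z ∧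
      f (z + s • (y - z)) = f z + s * (g y - f z) := by
    intro s hs
    obtain ⟨g, hg, he⟩ := hS _ (hseg s hs)
    have hgz : g z = f z := by
      by_contra hne
      exact hball ⟨hbal s hs, hseg s hs⟩ ⟨g, hg⟩ hne he.symm
    refine ⟨g, hg, hgz, ?_⟩
    have e : z + s • (y - z) = AffineMap.lineMap z y s := by
      rw [AffineMap.lineMap_apply, vsub_eq_sub, vadd_eq_add, add_comm]
    rw [he, e, AffineMap.apply_lineMap, AffineMap.lineMap_apply, hgz]
    simp only [vsub_eq_sub, vadd_eq_add, smul_eq_mul]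
    ring
  rcases ht.1.eq_or_lt with h0 | h0
  · rw [← h0]; simp
  set φ : ℝ → ℝ := fun s => (f (z + s • (y - z)) - f z) / s with hφ
  have hφc : ContinuousOn φ (Ioc 0 1) := by
    have hp : Continuous fun s : ℝ => z + s • (y - z) := by fun_prop
    have hh : ContinuousOn (fun s : ℝ => f (z + s • (y - z))) (Ioc 0 1) :=
      hc.comp hp.continuousOn fun s hs => hseg s ⟨hs.1.le, hs.2⟩
    exact (hh.sub continuousOn_const).div continuousOn_id fun s hs => hs.1.ne'
  have hfin : (φ '' Ioc 0 1).Finite := by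
    refine ((S.finite_toSet).image fun g : E →ᵃ[ℝ] ℝ => g y - f z).subset ?_
    rintro _ ⟨s, hs, rfl⟩
    obtain ⟨g, hg, -, he⟩ := hact s ⟨hs.1.le, hs.2⟩
    refine ⟨g, hg, ?_⟩
    simp only [hφ, he]
    rw [add_sub_cancel_left, mul_div_cancel_left₀ _ hs.1.ne']
  have hpre : IsPreconnected (φ '' Ioc 0 1) := isPreconnected_Ioc.image φ hφc
  have hsub : (φ '' Ioc 0 1).Subsingleton := by
    by_contra hns
    exact hpre.infinite_of_nontrivial (Set.not_subsingleton_iff.1 hns) hfin
  have heq : φ t = φ 1 :=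
    hsub ⟨t, ⟨h0, ht.2⟩, rfl⟩ ⟨1, ⟨one_pos, le_rfl⟩, rfl⟩
  simp only [hφ, one_smul, div_one] at heq
  rw [div_eq_iff h0.ne'] at heq
  have e1 : z + (y - z) = y := by abel
  rw [e1] at heq
  linarith

end conic

variable {Q : Type} [PartialOrder Q] {dim : Q → ℕ} {J Fam : Type}
variable {E : Type*} [NormedAddCommGroup E] [NormedSpace ℝ E] [FiniteDimensional ℝ E]
variable {C : Cmb Q dim J Fam} {K : Q → Set E} {D : Set Q} {g : Gd E J}
  {P : ∀ q, C.I q → Set E} {c : ∀ q, C.I q → E → ℝ}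

/-- near `z` the merged levels are affine along the rays -/
theorem G_mid (H : Inv C K D g P c) {q : Q} (hq : q ∈ D) (hKc : Convex ℝ (K q))
    (hfin : ∀ a, {j | C.fam j = a}.Finite) {z : E} (hz : z ∈ K q) :
    ∀ᶠ y in 𝓝[K q] z, z + (1/2 : ℝ) • (y - z) ∈ K q ∧ ∀ a : Fam,
      (merge hfin g).G a (z + (1/2 : ℝ) • (y - z)) =
        ((merge hfin g).G a z + (merge hfin g).G a y) / 2 := by
  have hmid : ∀ y ∈ K q, z + (1/2 : ℝ) • (y - z) ∈ K q := by
    intro y hy
    have := hKc hz hy (by norm_num : (0:ℝ) ≤ 1/2) (by norm_num : (0:ℝ) ≤ 1/2) (by norm_num)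
    convert this using 1
    module
  have ht : Tendsto (fun y : E => z + (1/2 : ℝ) • (y - z)) (𝓝[K q] z) (𝓝[K q] z) := by
    have hc : Continuous fun y : E => z + (1/2 : ℝ) • (y - z) := by fun_prop
    have h1 := hc.tendsto z
    simp only [sub_self, smul_zero, add_zero] at h1
    exact tendsto_nhdsWithin_iff.2 ⟨h1.mono_left nhdsWithin_le_nhds,
      Filter.eventually_of_mem self_mem_nhdsWithin hmid⟩
  have hcon : ∀ᶠ y in 𝓝[K q] z, ∀ x : C.I q, ∀ t ∈ Icc (0 : ℝ) 1,
      c q x (z + t • (y - z)) = c q x z + t * (c q x y - c q x z) :=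
    Filter.eventually_all.2 fun x => plOn_conic (H.pc q hq x) hKc hz
  filter_upwards [eventually_still H hq hz, ht.eventually (eventually_still H hq hz), hcon,
    self_mem_nhdsWithin] with y h1 h2 h3 hy
  refine ⟨hmid y hy, fun a => ?_⟩
  by_cases h : ∃ x : C.I q, C.fam (C.col q x) = a ∧ z ∈ P q x
  · obtain ⟨x, rfl, hx⟩ := h
    obtain ⟨ε, k1, k2⟩ := merge_near H hq hfin hz hx
    rw [k2 _ (hmid y hy) h2, k2 y hy h1, k2 z hz (still_self q z),
      h3 x (1/2) ⟨by norm_num, by norm_num⟩]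
    ring
  · push Not at h
    rw [merge_still H hq hfin hz (hmid y hy) h2 h, merge_still H hq hfin hz hy h1 h]
    ring

variable {E' : Type*} [NormedAddCommGroup E'] [NormedSpace ℝ E'] [CompleteSpace E']
  {La : Set E'} {Pf : Fam → Set E'} {b : Set Fam → E'}

/-- the label of the family `a` -/
noncomputable def lab {fam : J → Fam} (hfin : ∀ a, {j | fam j = a}.Finite) (g : Gd E J) (x : E)
    (a : Fam) : ℝ := (merge hfin g).G a x / mm hfin a

/-- **`lipT`, the part of `G`** -/
theorem lipT (H : Inv C K D g P c) {q : Q} (hq : q ∈ D) (hKc : Convex ℝ (K q))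
    (hfin : ∀ a, {j | C.fam j = a}.Finite) {z : E} (hz : z ∈ K q)
    (FF : Foam La Pf b 4) (hQ : Quads Pf b) (hmm : ∀ a, 0 < mm hfin a)
    {y0 : Fam → ℝ} (hy0 : Ex C Pf q y0)
    {Y : Type*} [PseudoMetricSpace Y] {B : E → Y} {L : ℝ} (hL : 0 ≤ L) {wt : Fam → ℝ}
    (hw0 : ∀ a, 0 < wt a)
    (hc : ∀ x : C.I q, LB B (L / wt (C.fam (C.col q x))) (c q x) (K q) z)
    {W w : ℝ} (hW : 0 ≤ W) (hw : 0 < w) {Ds : Set E'} (hDs : ∀ y ∈ Ds, ∀ y' ∈ Ds, ‖y - y'‖ ≤ W)
    (h1 : ∀ x ∈ K q, ∀ S : Set Fam, {a | lab hfin g x a = 0} ⊆ S → S ⊆ {a | lab hfin g x a < 1} →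
      b S ∈ Ds)
    (h2 : ∀ x ∈ K q, ∀ a, 0 < lab hfin g x a → lab hfin g x a < 1 → w ≤ mm hfin a * wt a) :
    ∀ᶠ y in 𝓝[K q] z, ‖Xp_537.gG (Tq b (mm hfin)) (merge hfin g) y -
      Xp_537.gG (Tq b (mm hfin)) (merge hfin g) z‖ ≤ 2 * (W / w) * L * dist (B y) (B z) := by
  obtain ⟨bq, hlo, hhi, hbz⟩ := exists_box H hfin hq hz hy0
  have hcA : ∀ᶠ y in 𝓝[K q] z, ∀ x : C.I q,
      |c q x y - c q x z| ≤ (L / wt (C.fam (C.col q x))) * dist (B y) (B z) :=
    Filter.eventually_all.2 hc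
  filter_upwards [hcA, levels H hq hfin hz, mem_box H hq hfin hz, G_mid H hq hKc hfin hz] with
    y k1 k2 k3 k4
  obtain ⟨hyK, hmid⟩ := k4
  set x' := z + (1/2 : ℝ) • (y - z) with hx'
  have hby : (fun a => (merge hfin g).G a y) ∈ bq.bx := by
    intro a
    rw [hlo, hhi]
    exact k3 a
  have hbm : (fun a => (merge hfin g).G a x') ∈ bq.bx := by
    intro a
    have a1 := hby a
    have a2 := hbz a
    simp only [hmid a] at *
    constructor <;> linarith [a1.1, a1.2, a2.1, a2.2]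
  have hG2 := bq.bx_sub hmm hbm
  set q' := flb hmm _ hG2 with hq'
  have hmem := mem_flb hmm hG2
  -- the two points are in the smallest box of the middle point
  have hint : ∀ a, ((q'.lo a : ℕ) : ℝ) = (merge hfin g).G a x' ∧
      ((q'.hi a : ℕ) : ℝ) = (merge hfin g).G a x' ∨ (q'.lo a = bq.lo a ∧ q'.hi a = bq.hi a ∧
        ((bq.lo a : ℕ) : ℝ) < (merge hfin g).G a x' ∧
        (merge hfin g).G a x' < ((bq.hi a : ℕ) : ℝ)) := by
    intro a
    have a1 := hbm a
    simp only at a1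
    rcases a1.1.eq_or_lt with e | e
    · left
      have f1 : q'.lo a = ⌊(merge hfin g).G a x'⌋₊ := rfl
      have f2 : q'.hi a = ⌈(merge hfin g).G a x'⌉₊ := rfl
      rw [f1, f2, ← e, Nat.floor_natCast, Nat.ceil_natCast]
      exact ⟨rfl, rfl⟩
    rcases a1.2.eq_or_lt with e' | e'
    · left
      have f1 : q'.lo a = ⌊(merge hfin g).G a x'⌋₊ := rfl
      have f2 : q'.hi a = ⌈(merge hfin g).G a x'⌉₊ := rfl
      rw [f1, f2, e', Nat.floor_natCast, Nat.ceil_natCast]
      exact ⟨rfl, rfl⟩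
    right
    have hle : bq.hi a ≤ bq.lo a + 1 := by
      rw [hlo, hhi]; exact hi_le_lo H hfin hq hz a
    have hlt : bq.lo a < bq.hi a := by exact_mod_cast e.trans e'
    have hh : bq.hi a = bq.lo a + 1 := by omega
    have f1 : q'.lo a = ⌊(merge hfin g).G a x'⌋₊ := rfl
    have f2 : q'.hi a = ⌈(merge hfin g).G a x'⌉₊ := rfl
    have g0 : 0 ≤ (merge hfin g).G a x' := (Nat.cast_nonneg _).trans a1.1
    rw [hh] at e'
    push_cast at e'
    refine ⟨?_, ?_, e, by rw [hh]; push_cast; exact e'⟩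
    · rw [f1]
      exact (Nat.floor_eq_iff g0).2 ⟨e.le, e'⟩
    · rw [f2, hh]
      refine (Nat.ceil_eq_iff (by omega)).2 ⟨?_, ?_⟩
      · simpa using e
      · push_cast; exact e'.le
  have hboth : (fun a => (merge hfin g).G a y) ∈ q'.bx ∧
      (fun a => (merge hfin g).G a z) ∈ q'.bx := by
    have key : ∀ a, (((q'.lo a : ℕ) : ℝ) ≤ (merge hfin g).G a y ∧
        (merge hfin g).G a y ≤ ((q'.hi a : ℕ) : ℝ)) ∧ (((q'.lo a : ℕ) : ℝ) ≤ (merge hfin g).G a z ∧
        (merge hfin g).G a z ≤ ((q'.hi a : ℕ) : ℝ)) := by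
      intro a
      have a1 := hby a
      have a2 := hbz a
      have a3 := hmid a
      have a4 := hbm a
      simp only at a1 a2 a4
      rcases hint a with ⟨e1, e2⟩ | ⟨e1, e2, -⟩
      · -- integer level: all three are equal
        rw [e1, e2]
        have hor : (merge hfin g).G a x' = ((bq.lo a : ℕ) : ℝ) ∨
            (merge hfin g).G a x' = ((bq.hi a : ℕ) : ℝ) := by
          by_contra hcon
          push Not at hcon
          have u1 := lt_of_le_of_ne a4.1 (Ne.symm hcon.1)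
          have u2 := lt_of_le_of_ne a4.2 hcon.2
          have hle : bq.hi a ≤ bq.lo a + 1 := by
            rw [hlo, hhi]; exact hi_le_lo H hfin hq hz a
          rw [← e1] at u1 u2
          have v1 : bq.lo a < q'.lo a := by exact_mod_cast u1
          have v2 : q'.lo a < bq.hi a := by exact_mod_cast u2
          omega
        rcases hor with h | h <;> rw [h] at a3 ⊢ <;>
        refine ⟨⟨?_, ?_⟩, ?_, ?_⟩ <;> linarith [a1.1, a1.2, a2.1, a2.2]
      · rw [e1, e2]
        exact ⟨a1, a2⟩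
    exact ⟨fun a => (key a).1, fun a => (key a).2⟩
  -- the faces over the box
  have hZ : ∀ a, q'.hi a = 0 ↔ lab hfin g x' a = 0 := by
    intro a
    have p : (0 : ℝ) < mm hfin a := by exact_mod_cast hmm a
    have a1 := hmem a
    have a2 := hbm a
    simp only at a1 a2
    rw [lab, div_eq_zero_iff, or_iff_left p.ne']
    constructor
    · intro h
      rw [← hq', h, Nat.cast_zero] at a1
      have : (0 : ℝ) ≤ ((bq.lo a : ℕ) : ℝ) := Nat.cast_nonneg _
      linarith [a1.2, a2.1]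
    · intro h
      have f2 : q'.hi a = ⌈(merge hfin g).G a x'⌉₊ := rfl
      rw [f2, h, Nat.ceil_zero]
  have hLt : ∀ a, q'.lo a < mm hfin a → lab hfin g x' a < 1 := by
    intro a h
    have p : (0 : ℝ) < mm hfin a := by exact_mod_cast hmm a
    rw [lab, div_lt_one p]
    have a2 := hG2.1.1 a
    simp only [lv] at a2
    have a3 := (div_le_one p).1 a2.2
    refine lt_of_le_of_ne a3 fun he => ?_
    have f1 : q'.lo a = ⌊(merge hfin g).G a x'⌋₊ := rfl
    rw [f1, he, Nat.floor_natCast] at h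
    omega
  have hstep : StepAt b q' (fun _ => W) := by
    intro A a hA hL' ha
    have hAL : A ⊆ {a | q'.lo a < mm hfin a} := (subset_insert _ _).trans hL'
    refine hDs _ ?_ _ ?_
    · exact h1 x' hyK _ (fun a' ha' => subset_insert _ _ (hA ((hZ a').2 ha')))
        (fun a' ha' => hLt a' (hL' ha'))
    · exact h1 x' hyK _ (fun a' ha' => hA ((hZ a').2 ha')) (fun a' ha' => hLt a' (hAL ha'))
  have hd0 : 0 ≤ dist (B y) (B z) := dist_nonneg
  have := Tq_lip_at FF hQ hstep hmm hboth.1 hboth.2 (M := (W / w) * L * dist (B y) (B z))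
    (by positivity) (fun a ha => ?_)
  · unfold Xp_537.gG
    linarith
  · show W * |(merge hfin g).G a y - (merge hfin g).G a z| ≤ _
    rcases k2 a with ⟨x, rfl, -, h5⟩ | h5
    · rw [h5]
      set a := C.fam (C.col q x)
      have hfree : q'.lo a < q'.hi a := ha
      have hlt1 : lab hfin g x' a < 1 := hLt a (hfree.trans_le (q'.him a))
      have hlt0 : 0 < lab hfin g x' a := by
        have hne : ¬ lab hfin g x' a = 0 := by
          rw [← hZ a]; omega
        exact lt_of_le_of_ne (hG2.1.1 a).1 (Ne.symm hne)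
      have hww := h2 x' hyK a hlt0 hlt1
      have hwa := hw0 a
      calc W * |c q x y - c q x z| ≤ W * ((L / wt a) * dist (B y) (B z)) :=
            mul_le_mul_of_nonneg_left (k1 x) hW
        _ = W * L * dist (B y) (B z) / wt a := by ring
        _ ≤ (W / w) * L * dist (B y) (B z) * mm hfin a := by
            rw [div_le_iff₀ hwa]
            have e : (W / w) * L * dist (B y) (B z) * mm hfin a * wt a =
              W * L * dist (B y) (B z) * ((mm hfin a * wt a) / w) := by ring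
            rw [e]
            have : 1 ≤ (mm hfin a * wt a) / w := (one_le_div hw).2 hww
            have h0 : 0 ≤ W * L * dist (B y) (B z) := by positivity
            nlinarith
    · rw [h5, sub_self, abs_zero, mul_zero]
      positivity

end Crest.Agent.R096.Fl_835
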