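import Crest.Agent.R096.Fl4_835
import Crest.Agent.R096.Mbf_337
import Crest.Agent.R096.SkB1b_662
import Crest.Agent.R096.Csub4_487

/-!
# R096 (row 96), OUT-LIP (helper835): the clause `lip` of `Mbf_337.Out` (and `lipT` of `SkN1_477`)

`out_lip_tile`, `out_lipT_tile`: one ordinary tile, from `Inv`, `LB` of the pieces (199 / 487), the
weighted number of points on the edges (298 / 662) and the closeness of `g` and `gG`.
-/

set_option autoImplicit false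
set_option linter.unusedSectionVars false

open Set Filter Topology Relation MeasureTheory
open scoped ENNReal

namespace Crest.Agent.R096.Fl_835

open Crest.Agent.R096.Ce_537
open Crest.Agent.R096.Bd_416
open Crest.Agent.R096.Mg_441
open Crest.Agent.R096.Grd_714
open Crest.Agent.R096.Msh_715
open Crest.Agent.R096.Brk1_582 Crest.Agent.R096.Brk2_582 Crest.Agent.R096.Brk6_582
open Crest.Agent.R096.Bsp_628 Crest.Agent.R096.Brk3_582 Crest.Agent.R096.Brk5_582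
open Crest.Agent.R096.SkC1_961 (E3 FoamD Cfg NN)

variable {δ κ0 R c0 : ℝ} {La Om : Set E3} {ι : Type}
variable {Q : Type} [PartialOrder Q] {dim : Q → ℕ} {J : Type}

/-- from `𝓝[P]` to `𝓝` at the points of the open tile -/
theorem ev_open {T : Tiling Om ι} {i : ι} {x : E3} (hx : x ∈ I (T.H i)) {p : E3 → Prop}
    (h : ∀ᶠ y in 𝓝[P (T.H i)] x, p y) : ∀ᶠ y in 𝓝 x, p y := by
  have hm : P (T.H i) ∈ 𝓝 x := Filter.mem_of_superset ((isOpen_I _).mem_nhds hx) (I_sub_P _)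
  rwa [nhdsWithin_eq_nhds.2 hm] at h

section tile

variable {Φ : FoamD δ κ0 R c0 La} {T : Tiling Om ι} {f : E3 → E3} {κ : Φ.F → ℕ}
  {L : Φ.F → Finset ℝ}
  {C : Cmb Q dim J Φ.F} {K : Q → Set E3} {D : Set Q} {G : Gd E3 J}
  {P' : ∀ q, C.I q → Set E3} {c : ∀ q, C.I q → E3 → ℝ}

/-- **the clause `lip` of `Out` on one ordinary tile** -/
theorem out_lip_tile (hLa : IsOpen La) (hR : 0 ≤ R) {κ3 : ℝ} (h3 : 0 ≤ κ3)
    (many : ∀ c, c.1.sz ≤ κ3 * ((L c).card * (2 : ℝ)⁻¹ ^ κ c))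
    (H : Inv C K D G P' c) {q : Q} (hq : q ∈ D) {i : ι} (hqi : K q = P (T.H i))
    (hfin : ∀ a, {j | C.fam j = a}.Finite) {wt : Φ.F → ℝ} (hw : ∀ a, 0 < wt a)
    (hmw : ∀ a, mm hfin a * wt a = (L a).card * (2 : ℝ)⁻¹ ^ κ a)
    {y0 : Φ.F → ℝ} (hy0 : Ex C (Pc Φ.F) q y0)
    {Ck : Set (Set E3) → ℝ} (hCk : ∀ 𝒦, 0 ≤ Ck 𝒦) {W : ℝ} (hW0 : 0 ≤ W)
    (hLB : ∀ (B : E3 ≃ᵃ[ℝ] E3) (x : C.I q), ∀ z ∈ K q,
      LB B (Ck ((fun K => B '' K) '' Cfg T i) * W / wt (C.fam (C.col q x))) (c q x) (K q) z)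
    (hWN : ENNReal.ofReal W ≤ NN Φ T f κ L i)
    {g : E3 → E3} {tol : ℝ}
    (hg : ∀ x ∈ I (T.H i), ∀ᶠ y in 𝓝 x,
      ‖(g y - Xp_537.gG (Tq (bc (F := Φ.F)) (mm hfin)) (merge hfin G) y) -
        (g x - Xp_537.gG (Tq (bc (F := Φ.F)) (mm hfin)) (merge hfin G) x)‖ ≤ tol * ‖y - x‖) :
    ∀ B : E3 ≃ᵃ[ℝ] E3, ∀ N : ℝ, 0 ≤ N → NN Φ T f κ L i ≤ ENNReal.ofReal N →
      ∀ x ∈ I (T.H i), ∀ᶠ y in 𝓝 x,
        ‖g y - g x‖ ≤ (2 * R * κ3 * Ck ((fun K => B '' K) '' Cfg T i)) * N * ‖B y - B x‖ +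
          tol * ‖y - x‖ := by
  intro B N hN hNN x hx
  have hWN' : W ≤ N := (ENNReal.ofReal_le_ofReal_iff hN).1 (hWN.trans hNN)
  have hxK : x ∈ K q := hqi ▸ I_sub_P _ hx
  have k := fin_lip_box H hq Φ.bf hLa (by simp) hR Φ.cmp hfin hxK hy0 (B := (B : E3 → E3))
    (L := Ck ((fun K => B '' K) '' Cfg T i) * W) (mul_nonneg (hCk _) hW0) hw
    (fun x' => hLB B x' x hxK) h3 (fun a => by rw [hmw a]; exact many a)
  rw [hqi] at k
  filter_upwards [ev_open hx k, hg x hx] with y k1 k2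
  have e : g y - g x = ((g y - Xp_537.gG (Tq (bc (F := Φ.F)) (mm hfin)) (merge hfin G) y) -
      (g x - Xp_537.gG (Tq (bc (F := Φ.F)) (mm hfin)) (merge hfin G) x)) +
      (Xp_537.gG (Tq (bc (F := Φ.F)) (mm hfin)) (merge hfin G) y -
        Xp_537.gG (Tq (bc (F := Φ.F)) (mm hfin)) (merge hfin G) x) := by abel
  rw [e]
  refine (norm_add_le _ _).trans ?_
  rw [dist_eq_norm] at k1
  have k3 : 2 * R * κ3 * (Ck ((fun K => B '' K) '' Cfg T i) * W) * ‖B y - B x‖ ≤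
      (2 * R * κ3 * Ck ((fun K => B '' K) '' Cfg T i)) * N * ‖B y - B x‖ := by
    refine mul_le_mul_of_nonneg_right ?_ (norm_nonneg _)
    have h0 : 0 ≤ 2 * R * κ3 * Ck ((fun K => B '' K) '' Cfg T i) :=
      mul_nonneg (by positivity) (hCk _)
    have := mul_le_mul_of_nonneg_left hWN' h0
    linarith
  linarith

/-- **the clause `lipT` of `OutNO` on one ordinary tile** -/
theorem out_lipT_tile (hLa : IsOpen La)
    (H : Inv C K D G P' c) {q : Q} (hq : q ∈ D) {i : ι} (hqi : K q = P (T.H i))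
    (hfin : ∀ a, {j | C.fam j = a}.Finite) {wt : Φ.F → ℝ} (hw : ∀ a, 0 < wt a)
    (hmm : ∀ a, 0 < mm hfin a)
    (hmw : ∀ a, mm hfin a * wt a = (L a).card * (2 : ℝ)⁻¹ ^ κ a)
    {y0 : Φ.F → ℝ} (hy0 : Ex C (Pc Φ.F) q y0)
    {Ck : Set (Set E3) → ℝ} (hCk : ∀ 𝒦, 0 ≤ Ck 𝒦) {W : ℝ} (hW0 : 0 ≤ W)
    (hLB : ∀ (B : E3 ≃ᵃ[ℝ] E3) (x : C.I q), ∀ z ∈ K q,
      LB B (Ck ((fun K => B '' K) '' Cfg T i) * W / wt (C.fam (C.col q x))) (c q x) (K q) z)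
    (hWN : ENNReal.ofReal W ≤ NN Φ T f κ L i)
    {g : E3 → E3} {tol : ℝ}
    (hg : ∀ x ∈ I (T.H i), ∀ᶠ y in 𝓝 x,
      ‖(g y - Xp_537.gG (Tq (bc (F := Φ.F)) (mm hfin)) (merge hfin G) y) -
        (g x - Xp_537.gG (Tq (bc (F := Φ.F)) (mm hfin)) (merge hfin G) x)‖ ≤ tol * ‖y - x‖) :
    ∀ B : E3 ≃ᵃ[ℝ] E3, ∀ N : ℝ, 0 ≤ N → NN Φ T f κ L i ≤ ENNReal.ofReal N →
      ∀ Wd w : ℝ, 0 ≤ Wd → 0 < w → ∀ Ds : Set E3, (∀ y ∈ Ds, ∀ y' ∈ Ds, ‖y - y'‖ ≤ Wd) →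
      (∀ x ∈ P (T.H i), ∀ S : Set Φ.F, {c | lab hfin G x c = 0} ⊆ S →
        S ⊆ {c | lab hfin G x c < 1} → bc (F := Φ.F) S ∈ Ds) →
      (∀ x ∈ P (T.H i), ∀ c, 0 < lab hfin G x c → lab hfin G x c < 1 →
        w ≤ (L c).card * (2 : ℝ)⁻¹ ^ κ c) →
      ∀ x ∈ I (T.H i), ∀ᶠ y in 𝓝 x,
        ‖g y - g x‖ ≤ (2 * Ck ((fun K => B '' K) '' Cfg T i)) * (Wd / w) * N * ‖B y - B x‖ +
          tol * ‖y - x‖ := by
  intro B N hN hNN Wd w hWd hw' Ds hDs h1 h2 x hx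
  have hWN' : W ≤ N := (ENNReal.ofReal_le_ofReal_iff hN).1 (hWN.trans hNN)
  have hxK : x ∈ K q := hqi ▸ I_sub_P _ hx
  have FF : Foam La (Pc Φ.F) (bc (F := Φ.F)) 4 := by
    have := foam Φ.bf hLa
    rwa [Fintype.card_fin] at this
  have hKc : Convex ℝ (K q) := by
    rw [hqi]; exact convex_P _
  have k := lipT H hq hKc hfin hxK FF (quads_box Φ.bf (by simp)) hmm hy0 (B := (B : E3 → E3))
    (L := Ck ((fun K => B '' K) '' Cfg T i) * W) (mul_nonneg (hCk _) hW0) hw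
    (fun x' => hLB B x' x hxK) hWd hw' hDs (fun x hx => h1 x (hqi ▸ hx))
    (fun x hx a h0 h1' => by rw [hmw a]; exact h2 x (hqi ▸ hx) a h0 h1')
  rw [hqi] at k
  filter_upwards [ev_open hx k, hg x hx] with y k1 k2
  have e : g y - g x = ((g y - Xp_537.gG (Tq (bc (F := Φ.F)) (mm hfin)) (merge hfin G) y) -
      (g x - Xp_537.gG (Tq (bc (F := Φ.F)) (mm hfin)) (merge hfin G) x)) +
      (Xp_537.gG (Tq (bc (F := Φ.F)) (mm hfin)) (merge hfin G) y -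
        Xp_537.gG (Tq (bc (F := Φ.F)) (mm hfin)) (merge hfin G) x) := by abel
  rw [e]
  refine (norm_add_le _ _).trans ?_
  rw [dist_eq_norm] at k1
  have k3 : 2 * (Wd / w) * (Ck ((fun K => B '' K) '' Cfg T i) * W) * ‖B y - B x‖ ≤
      (2 * Ck ((fun K => B '' K) '' Cfg T i)) * (Wd / w) * N * ‖B y - B x‖ := by
    refine mul_le_mul_of_nonneg_right ?_ (norm_nonneg _)
    have h0 : 0 ≤ 2 * Ck ((fun K => B '' K) '' Cfg T i) * (Wd / w) :=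
      mul_nonneg (mul_nonneg (by norm_num) (hCk _)) (by positivity)
    have := mul_le_mul_of_nonneg_left hWN' h0
    linarith
  linarith

end tile

end Crest.Agent.R096.Fl_835
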