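import Crest.Agent.R096.SkC1_961

/-!
Row 96 (S0127), helper477.  **The additional output of the machine for the near-optimality theorem
`NO0`** (degenerate differentials).  Definitions only, on top of `SkC1_961`.

* input `FaceD` : the designated 2-cells (unit squares in affine frames), the scale `μ` and the
  expected weights `a 0`, `a 1` (`0` or comparable to `μ`);
* `u : E3 → Φ.F → ℝ` : the labels of `G` (values in 582's `K`); `g - T ∘ u` is as small as we like,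
  also in the Lipschitz sense on every ordinary tile (EXPLODE);
* `n : Set E3 → Φ.F → ℝ` : number of final points of a family on the closed 1-cells (copies of one
  level count together as one): the TOTAL weight is at most the weight of the initial points (534: the
  machine exchanges discs between families);
* `zero` / `one` : exact labels (441's (K4));
* `lipT` : Lipschitz bound: constant of the shape times (diameter `W` of the barycentres of the quads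
  which are used) / (weight `w`): no constant of the foam; on the tiles which touch a designated face
  the number `N` is at least `μ` (522: narrow bands on the sides with `a j = 0`);
* `face` : the rule of the nearly pure designated 2-cells (928 / 522).
-/

set_option autoImplicit false
set_option linter.style.longLine false
set_option linter.unusedSectionVars false

open MeasureTheory Set Filter Topology Metric
open scoped ENNReal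

namespace Crest.Agent.R096.SkN1_477

open Crest.Agent.R096.Bsp_628 Crest.Agent.R096.Brk1_582 Crest.Agent.R096.Brk3_582
open Crest.Agent.R096.Brk5_582
open Crest.Agent.R096.Msh_715
open Crest.Agent.R096.SkC1_961

noncomputable section

/-- the plane -/
abbrev E2 : Type := Fin 2 → ℝ

/-- embedding of the plane into `E3` as `{y 2 = 0}` -/
def emb (y : E2) : E3 := ![y 0, y 1, 0]

/-- the unit square pulled back by the frame `B` -/
def usq (B : E3 ≃ᵃ[ℝ] E3) : Set E3 := B ⁻¹' (emb '' {y : E2 | ∀ j, 0 ≤ y j ∧ y j ≤ 1})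

/-- the side of the unit square in direction `j` (`j = 0, 1`) at height `b` (`b = 0, 1`) of the
other coordinate, pulled back by the frame `B` -/
def side (B : E3 ≃ᵃ[ℝ] E3) (j : Fin 2) (b : ℝ) : Set E3 :=
  B ⁻¹' (emb '' {y : E2 | 0 ≤ y j ∧ y j ≤ 1 ∧ y (1 - j) = b})

/-- the corner of the unit square pulled back by the frame `B` -/
def corner (B : E3 ≃ᵃ[ℝ] E3) (a b : ℝ) : E3 := B.symm (emb ![a, b])

section Face

variable {δ κ0 R c0 : ℝ} {La Om : Set E3} {ι : Type}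

/-- **designated 2-cells**: a set `Ds` of points in open 2-cells which are unit squares in the
frames `B x`, the four sides are closed 1-cells, no core tile touches them; a common side of two
designated squares has the same direction in both frames.  Scale `μ`, expected weights `a j`. -/
structure FaceD (T : Tiling Om ι) (Ex : Set ι) (Ds : Set E3) (B : E3 → E3 ≃ᵃ[ℝ] E3) (Λ μ : ℝ)
    (a : Fin 2 → ℝ) : Prop where
  mem : ∀ x ∈ Ds, x ∈ Om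
  dim : ∀ x ∈ Ds, T.dim x = 2
  sq : ∀ x ∈ Ds, T.cc x = usq (B x)
  sides : ∀ x ∈ Ds, ∀ (j : Fin 2) (b : ℝ), b = 0 ∨ b = 1 →
    ∃ z ∈ Om, T.dim z = 1 ∧ T.cc z = side (B x) j b
  dir : ∀ x ∈ Ds, ∀ x' ∈ Ds, ∀ (j j' : Fin 2) (b b' : ℝ), side (B x) j b = side (B x') j' b' → j = j'
  off : ∀ x ∈ Ds, ∀ y ∈ T.cc x, ∀ i, y ∈ P (T.H i) → i ∉ Ex
  mu : 0 < μ
  ab : ∀ j, a j = 0 ∨ (μ / Λ ≤ a j ∧ a j ≤ μ)

/-- **nearly pure 2-cell** with frame `B`: only the labels `c1 ≠ c2` are not constant on it;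
the horizontal sides (direction 0) carry the weight `a 0` of `c1`, nearly all crossed in the
direction `σ1`, the vertical ones the weight `a 1` of `c2`; all errors `≤ η μ`. -/
structure FaceIn (Φ : FoamD δ κ0 R c0 La) (κ : Φ.F → ℕ) (L : Φ.F → Finset ℝ)
    (u : E3 → Φ.F → ℝ) (n : Set E3 → Φ.F → ℝ) (η μ : ℝ) (a : Fin 2 → ℝ) (B : E3 ≃ᵃ[ℝ] E3)
    (c1 c2 : Φ.F) (σ1 σ2 : ℝ) : Prop where
  ne : c1 ≠ c2
  two : ∀ c, c ≠ c1 → c ≠ c2 → ∀ y ∈ usq B, ∀ y' ∈ usq B, u y c = u y' c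
  small1 : (2 : ℝ)⁻¹ ^ κ c1 ≤ η * μ
  small2 : (2 : ℝ)⁻¹ ^ κ c2 ≤ η * μ
  sg1 : σ1 = 1 ∨ σ1 = -1
  sg2 : σ2 = 1 ∨ σ2 = -1
  main1 : ∀ b : ℝ, b = 0 ∨ b = 1 → n (side B 0 b) c1 * (2 : ℝ)⁻¹ ^ κ c1 ≤ a 0 + η * μ ∧
    a 0 - η * μ ≤ σ1 * (u (corner B 1 b) c1 - u (corner B 0 b) c1) *
      ((L c1).card * (2 : ℝ)⁻¹ ^ κ c1)
  main2 : ∀ b : ℝ, b = 0 ∨ b = 1 → n (side B 1 b) c2 * (2 : ℝ)⁻¹ ^ κ c2 ≤ a 1 + η * μ ∧
    a 1 - η * μ ≤ σ2 * (u (corner B b 1) c2 - u (corner B b 0) c2) *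
      ((L c2).card * (2 : ℝ)⁻¹ ^ κ c2)
  other1 : ∀ b : ℝ, b = 0 ∨ b = 1 → n (side B 1 b) c1 * (2 : ℝ)⁻¹ ^ κ c1 ≤ η * μ
  other2 : ∀ b : ℝ, b = 0 ∨ b = 1 → n (side B 0 b) c2 * (2 : ℝ)⁻¹ ^ κ c2 ≤ η * μ

/-- weighted label of the family `c` in the frame `B`, as a function on the plane -/
def wlab (Φ : FoamD δ κ0 R c0 La) (κ : Φ.F → ℕ) (L : Φ.F → Finset ℝ) (u : E3 → Φ.F → ℝ)
    (B : E3 ≃ᵃ[ℝ] E3) (c : Φ.F) (y : E2) : ℝ :=
  u (B.symm (emb y)) c * ((L c).card * (2 : ℝ)⁻¹ ^ κ c)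

/-- **rule of the nearly pure 2-cells**: the weighted labels `c1`, `c2` have nearly the constant
gradients `(σ1 a 0, 0)`, `(0, σ2 a 1)` in `L^p`. -/
def FaceOut (p : ℝ) (Φ : FoamD δ κ0 R c0 La) (κ : Φ.F → ℕ) (L : Φ.F → Finset ℝ)
    (u : E3 → Φ.F → ℝ) (e μ : ℝ) (a : Fin 2 → ℝ) (B : E3 ≃ᵃ[ℝ] E3) (c1 c2 : Φ.F)
    (σ1 σ2 : ℝ) : Prop :=
  (∫⁻ y in {y : E2 | ∀ j, 0 < y j ∧ y j < 1},
    ‖fderiv ℝ (wlab Φ κ L u B c1) y
      - (σ1 * a 0) • ContinuousLinearMap.proj (R := ℝ) (φ := fun _ : Fin 2 => ℝ) 0‖ₑ ^ p)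
    ≤ ENNReal.ofReal (e * μ ^ p) ∧
  (∫⁻ y in {y : E2 | ∀ j, 0 < y j ∧ y j < 1},
    ‖fderiv ℝ (wlab Φ κ L u B c2) y
      - (σ2 * a 1) • ContinuousLinearMap.proj (R := ℝ) (φ := fun _ : Fin 2 => ℝ) 1‖ₑ ^ p)
    ≤ ENNReal.ofReal (e * μ ^ p)

/-- the quad of `v` is a parallelogram (364: then 714's map is `T`) -/
def Par {F : Set (Bx (Fin 3))} (v : F → ℝ) : Prop :=
  ∀ c1 c2 : F, c1 ≠ c2 → av v = {c1, c2} →
    bc (F := F) {c | v c < 1} + bc (F := F) {c | v c = 0} =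
      bc (F := F) (insert c1 {c | v c = 0}) + bc (F := F) (insert c2 {c | v c = 0})

/-- the tile `i` touches a designated face -/
def TouchD (T : Tiling Om ι) (Ds : Set E3) (i : ι) : Prop :=
  ∃ x ∈ Ds, (T.cc x ∩ P (T.H i)).Nonempty

/-- **additional output of the machine**; `Ex` = excluded tiles (core tiles and the finitely many
tiles near the tiny cores in which the machine may create new points) -/
structure OutNO (p : ℝ) (Cu : Set (Set E3) → ℝ) (e η : ℝ) (Φ : FoamD δ κ0 R c0 La) (T : Tiling Om ι)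
    (f : E3 → E3) (Ex : Set ι) (κ : Φ.F → ℕ) (L : Φ.F → Finset ℝ) (tol : ι → ℝ)
    (Ds : Set E3) (B : E3 → E3 ≃ᵃ[ℝ] E3) (μ : ℝ) (a : Fin 2 → ℝ) (g : E3 → E3)
    (u : E3 → Φ.F → ℝ) (n : Set E3 → Φ.F → ℝ) : Prop where
  memK : ∀ i, i ∉ Ex → ∀ x ∈ P (T.H i), u x ∈ K (Pc Φ.F)
  clo : ∀ i, i ∉ Ex → (∀ z ∈ P (T.H i), Par (u z)) → ∀ x ∈ P (T.H i), ∀ y ∈ P (T.H i),
    ‖g x - Brk1_582.T (bc (F := Φ.F)) (u x)‖ ≤ tol i ∧
    ‖(g x - Brk1_582.T (bc (F := Φ.F)) (u x)) - (g y - Brk1_582.T (bc (F := Φ.F)) (u y))‖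
      ≤ tol i * ‖x - y‖
  zero : ∀ i, i ∉ Ex → ∀ x ∈ P (T.H i), ∀ y ∈ P (T.H i), ∀ c, Φ.lev c (f x) = 0 → u y c = 0
  one : ∀ i, i ∉ Ex → ∀ x ∈ P (T.H i), ∀ y ∈ P (T.H i), ∀ c, Φ.lev c (f x) = 1 → u y c = 1
  n0 : ∀ x c, 0 ≤ n x c
  cnt : ∀ x ∈ Om, T.dim x = 1 → (∀ i, x ∈ P (T.H i) → i ∉ Ex) → ∀ S : Finset Φ.F,
    ENNReal.ofReal (∑ c ∈ S, n (T.cc x) c * (2 : ℝ)⁻¹ ^ κ c) ≤
      ∑' c : Φ.F, ENNReal.ofReal ((2 : ℝ)⁻¹ ^ κ c) *
        ∑ t ∈ L c, (({y ∈ T.cc x | Φ.lev c (f y) = t}.encard : ℕ∞) : ℝ≥0∞)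
  osc : ∀ x ∈ Om, T.dim x = 1 → (∀ i, x ∈ P (T.H i) → i ∉ Ex) → ∀ c,
    ∀ y ∈ T.cc x, ∀ y' ∈ T.cc x, |u y c - u y' c| * (L c).card ≤ n (T.cc x) c
  lipT : ∀ i, i ∉ Ex → (∀ j ∈ Ex, Disjoint (P (T.H i)) (P (T.H j))) →
    ∀ B' : E3 ≃ᵃ[ℝ] E3, ∀ N : ℝ, 0 ≤ N → NN Φ T f κ L i ≤ ENNReal.ofReal N →
    (TouchD T Ds i → μ ≤ N) →
    ∀ W w : ℝ, 0 ≤ W → 0 < w → ∀ D : Set E3, (∀ y ∈ D, ∀ y' ∈ D, ‖y - y'‖ ≤ W) →
    (∀ x ∈ P (T.H i), ∀ S : Set Φ.F, {c | u x c = 0} ⊆ S → S ⊆ {c | u x c < 1} →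
      bc (F := Φ.F) S ∈ D) →
    (∀ x ∈ P (T.H i), ∀ c, 0 < u x c → u x c < 1 → w ≤ (L c).card * (2 : ℝ)⁻¹ ^ κ c) →
    ∀ x ∈ I (T.H i), ∀ᶠ y in 𝓝 x,
      ‖g y - g x‖ ≤ Cu ((fun K => B' '' K) '' Cfg T i) * (W / w) * N * ‖B' y - B' x‖
        + tol i * ‖y - x‖
  face : ∀ x ∈ Ds, ∀ (c1 c2 : Φ.F) (σ1 σ2 : ℝ), FaceIn Φ κ L u n η μ a (B x) c1 c2 σ1 σ2 →
    FaceOut p Φ κ L u e μ a (B x) c1 c2 σ1 σ2

end Face

end

end Crest.Agent.R096.SkN1_477
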