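import Crest.Agent.R096.Fl6_835
import Crest.Agent.R096.SkN1_477

/-!
# R096 (row 96), OUT-LIP (helper835), part 3: the F-forms (534 #11010 (d), 522 #10872 (1))

The weight `W` of the tile is not compared with `NN` but with every admissible `N`:
`∀ N, 0 ≤ N → NN ≤ N → Hy N → W ≤ N`; the clauses hold for the `N` with `Hy N`
(`Hy N := TouchD T Ds i → μ ≤ N`).
-/

set_option autoImplicit false
set_option linter.unusedSectionVars false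

open Set Filter Topology Relation MeasureTheory
open scoped ENNReal

namespace Crest.Agent.R096.Fl_835

open Crest.Agent.R096.Ce_537
open Crest.Agent.R096.Bd_416
open Crest.Agent.R096.Mg_441
open Crest.Agent.R096.Msh_715
open Crest.Agent.R096.Brk1_582 Crest.Agent.R096.Brk2_582 Crest.Agent.R096.Brk6_582
open Crest.Agent.R096.Bsp_628 Crest.Agent.R096.Brk3_582 Crest.Agent.R096.Brk5_582
open Crest.Agent.R096.SkC1_961 (E3 FoamD Cfg NN)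

variable {δ κ0 R c0 : ℝ} {La Om Ω' : Set E3} {ιt : Type}

section tile

variable {Q : Type} [PartialOrder Q] {dim : Q → ℕ} {J : Type}
variable {Φ : FoamD δ κ0 R c0 La} {T : Tiling Om ιt} {f : E3 → E3} {κ : Φ.F → ℕ}
  {L : Φ.F → Finset ℝ}
  {C : Cmb Q dim J Φ.F} {K : Q → Set E3} {D : Set Q} {G : Gd E3 J}
  {P' : ∀ q, C.I q → Set E3} {c : ∀ q, C.I q → E3 → ℝ}

/-- **the structure map on one ordinary tile, F-form** (`lip`) -/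
theorem outG_lip_tileF (hLa : IsOpen La) (hR : 0 ≤ R) {κ3 : ℝ} (h3 : 0 ≤ κ3)
    (many : ∀ c, c.1.sz ≤ κ3 * ((L c).card * (2 : ℝ)⁻¹ ^ κ c))
    (H : Inv C K D G P' c) {q : Q} (hq : q ∈ D) {i : ιt} (hqi : K q = P (T.H i))
    (hfin : ∀ a, {j | C.fam j = a}.Finite) {wt : Φ.F → ℝ} (hw : ∀ a, 0 < wt a)
    (hmw : ∀ a, mm hfin a * wt a = (L a).card * (2 : ℝ)⁻¹ ^ κ a)
    {y0 : Φ.F → ℝ} (hy0 : Ex C (Pc Φ.F) q y0)
    {Ck : Set (Set E3) → ℝ} (hCk : ∀ 𝒦, 0 ≤ Ck 𝒦) {W : ℝ} (hW0 : 0 ≤ W)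
    (hLB : ∀ (B : E3 ≃ᵃ[ℝ] E3) (x : C.I q), ∀ z ∈ K q,
      LB B (Ck ((fun K => B '' K) '' Cfg T i) * W / wt (C.fam (C.col q x))) (c q x) (K q) z)
    {Hy : ℝ → Prop} (hWN : ∀ N, 0 ≤ N → NN Φ T f κ L i ≤ ENNReal.ofReal N → Hy N → W ≤ N)
    {Gm : E3 → E3} (hG : EqOn Gm
      (Xp_537.gG (Grd_714.Tq (bc (F := Φ.F)) (mm hfin)) (merge hfin G)) (P (T.H i))) :
    ∀ B : E3 ≃ᵃ[ℝ] E3, ∀ N : ℝ, 0 ≤ N → NN Φ T f κ L i ≤ ENNReal.ofReal N → Hy N →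
      ∀ x ∈ I (T.H i), ∀ᶠ y in 𝓝 x,
        ‖Gm y - Gm x‖ ≤ (2 * R * κ3 * Ck ((fun K => B '' K) '' Cfg T i)) * N * ‖B y - B x‖ := by
  intro B N hN hNN hHy x hx
  have hWN' : W ≤ N := hWN N hN hNN hHy
  have hxP : x ∈ P (T.H i) := I_sub_P _ hx
  have hxK : x ∈ K q := hqi ▸ hxP
  have k := fin_lip_box H hq Φ.bf hLa (by simp) hR Φ.cmp hfin hxK hy0 (B := (B : E3 → E3))
    (L := Ck ((fun K => B '' K) '' Cfg T i) * W) (mul_nonneg (hCk _) hW0) hw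
    (fun x' => hLB B x' x hxK) h3 (fun a => by rw [hmw a]; exact many a)
  rw [hqi] at k
  have h1 : ∀ᶠ y in 𝓝 x, y ∈ P (T.H i) :=
    Filter.mem_of_superset ((isOpen_I _).mem_nhds hx) (I_sub_P _)
  filter_upwards [ev_open hx k, h1] with y k1 hy
  rw [hG hy, hG hxP]
  rw [dist_eq_norm] at k1
  refine k1.trans ?_
  refine mul_le_mul_of_nonneg_right ?_ (norm_nonneg _)
  have h0 : 0 ≤ 2 * R * κ3 * Ck ((fun K => B '' K) '' Cfg T i) :=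
    mul_nonneg (by positivity) (hCk _)
  have := mul_le_mul_of_nonneg_left hWN' h0
  linarith

/-- **the structure map on one ordinary tile, F-form** (`lipT`) -/
theorem outG_lipT_tileF (hLa : IsOpen La)
    (H : Inv C K D G P' c) {q : Q} (hq : q ∈ D) {i : ιt} (hqi : K q = P (T.H i))
    (hfin : ∀ a, {j | C.fam j = a}.Finite) {wt : Φ.F → ℝ} (hw : ∀ a, 0 < wt a)
    (hmm : ∀ a, 0 < mm hfin a)
    (hmw : ∀ a, mm hfin a * wt a = (L a).card * (2 : ℝ)⁻¹ ^ κ a)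
    {y0 : Φ.F → ℝ} (hy0 : Ex C (Pc Φ.F) q y0)
    {Ck : Set (Set E3) → ℝ} (hCk : ∀ 𝒦, 0 ≤ Ck 𝒦) {W : ℝ} (hW0 : 0 ≤ W)
    (hLB : ∀ (B : E3 ≃ᵃ[ℝ] E3) (x : C.I q), ∀ z ∈ K q,
      LB B (Ck ((fun K => B '' K) '' Cfg T i) * W / wt (C.fam (C.col q x))) (c q x) (K q) z)
    {Hy : ℝ → Prop} (hWN : ∀ N, 0 ≤ N → NN Φ T f κ L i ≤ ENNReal.ofReal N → Hy N → W ≤ N)
    {Gm : E3 → E3} (hG : EqOn Gm
      (Xp_537.gG (Grd_714.Tq (bc (F := Φ.F)) (mm hfin)) (merge hfin G)) (P (T.H i))) :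
    ∀ B : E3 ≃ᵃ[ℝ] E3, ∀ N : ℝ, 0 ≤ N → NN Φ T f κ L i ≤ ENNReal.ofReal N → Hy N →
      ∀ Wd w : ℝ, 0 ≤ Wd → 0 < w → ∀ Ds : Set E3, (∀ y ∈ Ds, ∀ y' ∈ Ds, ‖y - y'‖ ≤ Wd) →
      (∀ x ∈ P (T.H i), ∀ S : Set Φ.F, {c | lab hfin G x c = 0} ⊆ S →
        S ⊆ {c | lab hfin G x c < 1} → bc (F := Φ.F) S ∈ Ds) →
      (∀ x ∈ P (T.H i), ∀ c, 0 < lab hfin G x c → lab hfin G x c < 1 →
        w ≤ (L c).card * (2 : ℝ)⁻¹ ^ κ c) →
      ∀ x ∈ I (T.H i), ∀ᶠ y in 𝓝 x,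
        ‖Gm y - Gm x‖ ≤
          (2 * Ck ((fun K => B '' K) '' Cfg T i)) * (Wd / w) * N * ‖B y - B x‖ := by
  intro B N hN hNN hHy Wd w hWd hw' Ds hDs h1 h2 x hx
  have hWN' : W ≤ N := hWN N hN hNN hHy
  have hxP : x ∈ P (T.H i) := I_sub_P _ hx
  have hxK : x ∈ K q := hqi ▸ hxP
  have FF : Foam La (Pc Φ.F) (bc (F := Φ.F)) 4 := by
    have := foam Φ.bf hLa
    rwa [Fintype.card_fin] at this
  have hKc : Convex ℝ (K q) := by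
    rw [hqi]; exact convex_P _
  have k := lipT H hq hKc hfin hxK FF (Grd_714.quads_box Φ.bf (by simp)) hmm hy0
    (B := (B : E3 → E3))
    (L := Ck ((fun K => B '' K) '' Cfg T i) * W) (mul_nonneg (hCk _) hW0) hw
    (fun x' => hLB B x' x hxK) hWd hw' hDs (fun x hx => h1 x (hqi ▸ hx))
    (fun x hx a h0 h1' => by rw [hmw a]; exact h2 x (hqi ▸ hx) a h0 h1')
  rw [hqi] at k
  have h5 : ∀ᶠ y in 𝓝 x, y ∈ P (T.H i) :=
    Filter.mem_of_superset ((isOpen_I _).mem_nhds hx) (I_sub_P _)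
  filter_upwards [ev_open hx k, h5] with y k1 hy
  rw [hG hy, hG hxP]
  rw [dist_eq_norm] at k1
  refine k1.trans ?_
  refine mul_le_mul_of_nonneg_right ?_ (norm_nonneg _)
  have h0 : 0 ≤ 2 * Ck ((fun K => B '' K) '' Cfg T i) * (Wd / w) :=
    mul_nonneg (mul_nonneg (by norm_num) (hCk _)) (by positivity)
  have := mul_le_mul_of_nonneg_left hWN' h0
  linarith

end tile

/-- **the number of a tile with extra weight**: `W = (WE + d) / 2` -/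
theorem wn_le {Φ : FoamD δ κ0 R c0 La} {T : Tiling Om ιt} {f : E3 → E3} {κ : Φ.F → ℕ}
    {L : Φ.F → Finset ℝ} {i : ιt} {W d μ : ℝ} {Ds : Set E3}
    (hW : ENNReal.ofReal W ≤ NN Φ T f κ L i)
    (hd : d ≤ W ∨ (SkN1_477.TouchD T Ds i ∧ d ≤ μ)) :
    ∀ N, 0 ≤ N → NN Φ T f κ L i ≤ ENNReal.ofReal N → (SkN1_477.TouchD T Ds i → μ ≤ N) →
      (W + d) / 2 ≤ N := by
  intro N hN hNN hT
  have h1 : W ≤ N := (ENNReal.ofReal_le_ofReal_iff hN).1 (hW.trans hNN)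
  rcases hd with h | ⟨h, h'⟩
  · linarith
  · have := hT h
    linarith

end Crest.Agent.R096.Fl_835
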