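import Crest.Agent.R096.Fl7_835

/-!
# R096 (row 96), OUT-LIP (helper835), part 4: F-forms for the final state

`outG_lip_stF`, `outG_lipT_stF`: 534 #11010 (d).
-/

set_option autoImplicit false
set_option linter.unusedSectionVars false

open Set Filter Topology Relation MeasureTheory
open scoped ENNReal

namespace Crest.Agent.R096.Fl_835

open Crest.Agent.R096.St_147 Crest.Agent.R096.Seq_213 Crest.Agent.R096.Seq_213.GSt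
  Crest.Agent.R096.Bd_416 Crest.Agent.R096.Mg_441 Crest.Agent.R096.Lm_117
  Crest.Agent.R096.Cp_298 Crest.Agent.R096.Gl_422
  Crest.Agent.R096.On_441 Crest.Agent.R096.SkB_662 Crest.Agent.R096.Ce_537
open Crest.Agent.R096.Msh_715
open Crest.Agent.R096.Bsp_628 Crest.Agent.R096.Brk1_582 Crest.Agent.R096.Brk3_582
open Crest.Agent.R096.Brk5_582
open Crest.Agent.R096.SkC1_961 (E3 FoamD Cfg NN)

variable {δ κ0 R c0 : ℝ} {La Om : Set E3} {ιt : Type}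
variable {ι Φc Q J Kq : Type} {M : MeshC ι Φc E3} [PartialOrder Q] {dim : Q → ℕ}
  {Φ : FoamD δ κ0 R c0 La} {T : Tiling Om ιt} {f : E3 → E3}
  {L : LM M Q dim} {O : Ori M} {τ : Q → ZMod 2} {Rel : E3 → E3 → Prop} {V : Set E3}
  {Qd : Quads ι Φ.F Kq} {κ : Φ.F → ℕ} {fam : J → Φ.F} {s₀ : GSt M fam} {far₀ : J → Set E3}
  {Z : Φ.F → Set Q} {lam₀ : J → Q → ZMod 2} {v₀ v₁ : Φ.F → Q}
  {hfin : ∀ a, {j | fam j = a}.Finite} {kap : Φ.F → ℕ} {s : GSt M (fam' fam (Rk κ kap))}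
  {far : Nm' fam (Rk κ kap) → Set E3} {β : E3 → E3} {lam : Nm' fam (Rk κ kap) → Q → ZMod 2}
  {Kc : Q → Set E3}

variable {D : Set Q} {y0 : Φ.F → ℝ} {Ck : Set (Set E3) → ℝ} {κ3 Wn : ℝ}
  {Lv : Φ.F → Finset ℝ} {q : Q} {i : ιt} {Hy : ℝ → Prop}

/-- **`lip` for the structure map, F-form, from the final state** -/
theorem outG_lip_stF (hLa : IsOpen La) (hR : 0 ≤ R) (h3 : 0 ≤ κ3)
    (many : ∀ c, c.1.sz ≤ κ3 * ((Lv c).card * (2 : ℝ)⁻¹ ^ κ c))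
    (h : StO L O τ Rel V Qd κ s₀ far₀ Z lam₀ v₀ v₁ hfin kap s far β lam)
    (hcard : ∀ a, mm hfin a = (Lv a).card)
    {Gf : Gd E3 (Nm' fam (Rk κ kap))} {P' : ∀ q, h.cmb.I q → Set E3}
    {c : ∀ q, h.cmb.I q → E3 → ℝ} (H : Inv h.cmb Kc D Gf P' c) (hq : q ∈ D)
    (hqi : Kc q = P (T.H i)) (hy0 : Ex h.cmb (Pc Φ.F) q y0) (hCk : ∀ 𝒦, 0 ≤ Ck 𝒦)
    (hW0 : 0 ≤ Wn)
    (hLB : ∀ (B : E3 ≃ᵃ[ℝ] E3) (x : h.cmb.I q), ∀ z ∈ Kc q,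
      LB B (Ck ((fun K => B '' K) '' Cfg T i) * Wn / wk κ kap fam (h.cmb.col q x))
        (c q x) (Kc q) z)
    (hWN : ∀ N, 0 ≤ N → NN Φ T f κ Lv i ≤ ENNReal.ofReal N → Hy N → Wn ≤ N)
    {Gm : E3 → E3} (hG : EqOn Gm
      (Xp_537.gG (Grd_714.Tq (bc (F := Φ.F)) (mm h.fin1)) (merge h.fin1 Gf)) (P (T.H i))) :
    ∀ B : E3 ≃ᵃ[ℝ] E3, ∀ N : ℝ, 0 ≤ N → NN Φ T f κ Lv i ≤ ENNReal.ofReal N → Hy N →
      ∀ x ∈ I (T.H i), ∀ᶠ y in 𝓝 x,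
        ‖Gm y - Gm x‖ ≤ (2 * R * κ3 * Ck ((fun K => B '' K) '' Cfg T i)) * N * ‖B y - B x‖ :=
  outG_lip_tileF hLa hR h3 many H hq hqi h.fin1 (wt := fun a => (2 : ℝ)⁻¹ ^ kap a)
    (fun a => by positivity) (mm_wk h hcard) hy0 hCk hW0 hLB hWN hG

/-- **`lipT` for the structure map, F-form, from the final state** -/
theorem outG_lipT_stF (hLa : IsOpen La)
    (h : StO L O τ Rel V Qd κ s₀ far₀ Z lam₀ v₀ v₁ hfin kap s far β lam)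
    (hcard : ∀ a, mm hfin a = (Lv a).card) (hmm : ∀ a, 0 < mm h.fin1 a)
    {Gf : Gd E3 (Nm' fam (Rk κ kap))} {P' : ∀ q, h.cmb.I q → Set E3}
    {c : ∀ q, h.cmb.I q → E3 → ℝ} (H : Inv h.cmb Kc D Gf P' c) (hq : q ∈ D)
    (hqi : Kc q = P (T.H i)) (hy0 : Ex h.cmb (Pc Φ.F) q y0) (hCk : ∀ 𝒦, 0 ≤ Ck 𝒦)
    (hW0 : 0 ≤ Wn)
    (hLB : ∀ (B : E3 ≃ᵃ[ℝ] E3) (x : h.cmb.I q), ∀ z ∈ Kc q,
      LB B (Ck ((fun K => B '' K) '' Cfg T i) * Wn / wk κ kap fam (h.cmb.col q x))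
        (c q x) (Kc q) z)
    (hWN : ∀ N, 0 ≤ N → NN Φ T f κ Lv i ≤ ENNReal.ofReal N → Hy N → Wn ≤ N)
    {Gm : E3 → E3} (hG : EqOn Gm
      (Xp_537.gG (Grd_714.Tq (bc (F := Φ.F)) (mm h.fin1)) (merge h.fin1 Gf)) (P (T.H i))) :
    ∀ B : E3 ≃ᵃ[ℝ] E3, ∀ N : ℝ, 0 ≤ N → NN Φ T f κ Lv i ≤ ENNReal.ofReal N → Hy N →
      ∀ Wd w : ℝ, 0 ≤ Wd → 0 < w → ∀ Ds : Set E3, (∀ y ∈ Ds, ∀ y' ∈ Ds, ‖y - y'‖ ≤ Wd) →
      (∀ x ∈ P (T.H i), ∀ S : Set Φ.F, {c | lab h.fin1 Gf x c = 0} ⊆ S →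
        S ⊆ {c | lab h.fin1 Gf x c < 1} → bc (F := Φ.F) S ∈ Ds) →
      (∀ x ∈ P (T.H i), ∀ c, 0 < lab h.fin1 Gf x c → lab h.fin1 Gf x c < 1 →
        w ≤ (Lv c).card * (2 : ℝ)⁻¹ ^ κ c) →
      ∀ x ∈ I (T.H i), ∀ᶠ y in 𝓝 x,
        ‖Gm y - Gm x‖ ≤
          (2 * Ck ((fun K => B '' K) '' Cfg T i)) * (Wd / w) * N * ‖B y - B x‖ :=
  outG_lipT_tileF hLa H hq hqi h.fin1 (wt := fun a => (2 : ℝ)⁻¹ ^ kap a)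
    (fun a => by positivity) hmm (mm_wk h hcard) hy0 hCk hW0 hLB hWN hG

end Crest.Agent.R096.Fl_835
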