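import Crest.Agent.R096.Slp2_316

/-!
# Row 96, DOORS, leaf SLC2 (helper316), part 3: the slide from the frontier of the core, with the
explicit formula on the 1-cells
-/

set_option autoImplicit false
set_option linter.unusedSectionVars false

open Set Filter Topology Metric
open scoped Classical

namespace Crest.Agent.R096.Slp_316

open Crest.Agent.R096.Msh_715 Crest.Agent.R096.Slc_184 Crest.Agent.R096.Sla_184
  Crest.Agent.R096.Ce_537

variable {E : Type} [NormedAddCommGroup E] [NormedSpace ℝ E] [FiniteDimensional ℝ E]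
variable {Om : Set E} {ι : Type} {T : Tiling Om ι} {κ : Type} {S : Sla T κ} {c : κ}
variable {j j' : ℕ}

/-- the section point of a vertex of the frontier -/
theorem spt_mkF (hj : j ≤ S.n c) {v : E} (hv : v ∈ frontier (S.K c)) (hd : T.dim v = 0) :
    spt S c j (mkF hv) = S.lv c v (S.t c j) := by
  have h0 : (mkF hv).dim = 0 := by
    show T.dim (mkF hv).pt = 0
    rw [T.dim_eq_of_mem_oc (S.K_sub c (S.fr_sub c hv)) (mkF_pt hv), hd]
  have h1 : v ∈ sec S c 0 (mkF hv) := by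
    rw [sec_zero, mkF_set]; exact T.self_mem_cc v
  exact (lv_vert (Nat.zero_le _) hj h0 h1).symm

/-- a vertex of the frontier: the point of its vertical line at the level `j` -/
theorem h1_v (hj : j ≤ S.n c) {v : E} (hv : v ∈ frontier (S.K c)) (hd : T.dim v = 0) :
    h1 S c 0 j v = S.lv c v (S.t c j) := by
  have h0 : (mkF hv).dim = 0 := by
    show T.dim (mkF hv).pt = 0
    rw [T.dim_eq_of_mem_oc (S.K_sub c (S.fr_sub c hv)) (mkF_pt hv), hd]
  have h1' : v ∈ sec S c 0 (mkF hv) := by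
    rw [sec_zero, mkF_set]; exact T.self_mem_cc v
  rw [h1_vert (Nat.zero_le _) hj h0 h1', spt_mkF hj hv hd]

/-- **the slide on a 1-cell of the frontier** -/
theorem h1_par (hj : j ≤ S.n c) {e : T.Cell} (he : e.dim = 1) (hf : e.set ⊆ frontier (S.K c))
    {s : ℝ} (hs : s ∈ Icc (0 : ℝ) 1) :
    h1 S c 0 j (lft e + s • (rgt e - lft e)) = S.lv c (lft e) (S.t c j) +
      s • (S.lv c (rgt e) (S.t c j) - S.lv c (lft e) (S.t c j)) := by
  obtain ⟨a1, a2, a3, a4, a5, a6, a7⟩ := lft_rgt he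
  set q : FC S c := ⟨e, hf⟩ with hq
  have hqd : q.dim = 1 := he
  have hx : lft e + s • (rgt e - lft e) ∈ sec S c 0 q := by
    rw [sec_zero]
    show lft e + s • (rgt e - lft e) ∈ e.set
    rw [a2, segment_eq_image']
    exact ⟨s, hs, rfl⟩
  rw [h1_edge (Nat.zero_le _) hj hqd hx]
  have hl : lft e ∈ sec S c 0 q := by rw [sec_zero]; exact a6
  have hr : rgt e ∈ sec S c 0 q := by rw [sec_zero]; exact a7
  have e1 : Am S c 0 j q (lft e) = S.lv c (lft e) (S.t c j) := by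
    rw [← h1_edge (Nat.zero_le _) hj hqd hl, h1_v hj (hf a6) a4]
  have e2 : Am S c 0 j q (rgt e) = S.lv c (rgt e) (S.t c j) := by
    rw [← h1_edge (Nat.zero_le _) hj hqd hr, h1_v hj (hf a7) a5]
  have e3 : lft e + s • (rgt e - lft e) = AffineMap.lineMap (lft e) (rgt e) s := by
    rw [AffineMap.lineMap_apply_module']; abel
  rw [e3, AffineMap.apply_lineMap, e1, e2, AffineMap.lineMap_apply_module']
  abel

/-- **SLC2 from the frontier of the core** -/
theorem exists_slide0 (S : Sla T κ) (c : κ) (hj : j ≤ S.n c) :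
    ∃ e : PLEquiv (frontier (S.K c)) {x | S.OnS c j x},
      (∀ x ∈ frontier (S.K c), e.f x ∈ S.O c x) ∧
      (∀ y, S.OnS c j y → e.g y ∈ S.O c y) ∧
      (∀ x ∈ frontier (S.K c), e.f '' T.cc x = S.T3.cc (e.f x)) ∧
      (∀ y, S.OnS c j y → e.g '' S.T3.cc y = T.cc (e.g y)) ∧
      (∀ x ∈ frontier (S.K c), S.T3.dim (e.f x) = T.dim x) ∧
      (∀ x ∈ frontier (S.K c), T.dim x = 0 → e.f x = S.lv c x (S.t c j)) ∧
      (∀ a : T.Cell, a.dim = 1 → a.set ⊆ frontier (S.K c) → ∀ s ∈ Icc (0 : ℝ) 1,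
        e.f (lft a + s • (rgt a - lft a)) = S.lv c (lft a) (S.t c j) +
          s • (S.lv c (rgt a) (S.t c j) - S.lv c (lft a) (S.t c j))) ∧
      (∀ x ∈ frontier (S.K c), T.dim x ≤ 1 → ∃ A : E →ᵃ[ℝ] E, EqOn e.f A (T.cc x)) ∧
      (∀ y, S.OnS c j y → S.T3.dim y ≤ 1 → ∃ A : E →ᵃ[ℝ] E, EqOn e.g A (S.T3.cc y)) := by
  obtain ⟨e, e1, e2, e3, e4, e5⟩ := exists_slide S c (Nat.zero_le (S.n c)) hj
  have h0 := sl_zero (S := S) (c := c)
  have hcel : ∀ {j j' : ℕ} {x y : E} (hx : S.OnS c j x) (hy : S.OnS c j' y), y ∈ S.O c x →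
      cel S c hy.bd = cel S c hx.bd := by
    intro j j' x y hx hy h
    exact eq_of_O (cel_O hy.bd) (Sla.O_trans (cel S c hx.bd).pt_Bd (cel_O hx.bd) h)
  have e3' : ∀ y ∈ sl S c j, e.g y ∈ S.O c y := by
    intro y hy
    have h1 := e3 (e.g y) (e.mg hy)
    rw [e.ri y hy] at h1
    exact Sla.O_symm (show S.OnS c 0 (e.g y) from e.mg hy).bd h1
  let e' : PLEquiv (frontier (S.K c)) {x | S.OnS c j x} :=
    { f := e.f
      g := e.g
      pf := h0 ▸ e.pf
      pg := e.pg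
      mf := h0 ▸ e.mf
      mg := h0 ▸ e.mg
      li := h0 ▸ e.li
      ri := e.ri }
  have hcc0 : ∀ x ∈ frontier (S.K c), T.cc x = S.T3.cc x := fun x hx => (Sla.out_fr hx).cc.symm
  have hd0 : ∀ x ∈ frontier (S.K c), S.T3.dim x = T.dim x := fun x hx => (Sla.out_fr hx).dim
  refine ⟨e', fun x hx => ?_, fun y hy => e3' y hy, fun x hx => ?_, fun y hy => ?_,
    fun x hx => ?_, fun x hx hd => ?_, fun a ha haf s hs => ?_, fun x hx hd => ?_,
    fun y hy hd => ?_⟩
  · rw [← h0] at hx; exact e3 x hx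
  · have hx' : S.OnS c 0 x := Sla.onS_fr hx
    have hy' : S.OnS c j (e.f x) := e.mf hx'
    rw [hcc0 x hx]
    show e.f '' S.T3.cc x = S.T3.cc (e.f x)
    rw [cc_eq_sec hx', cc_eq_sec hy', hcel hx' hy' (e3 x hx')]
    exact e1 _
  · have hx' : S.OnS c 0 (e.g y) := e.mg hy
    show e.g '' S.T3.cc y = T.cc (e.g y)
    rw [hcc0 _ hx'.fr, cc_eq_sec hx', cc_eq_sec hy, hcel hy hx' (e3' y hy)]
    exact e2 _
  · have hx' : S.OnS c 0 x := Sla.onS_fr hx
    have hy' : S.OnS c j (e.f x) := e.mf hx'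
    show S.T3.dim (e.f x) = T.dim x
    rw [← hd0 x hx, ← dim_cel hx', ← dim_cel hy', hcel hx' hy' (e3 x hx')]
  · have h1' : x ∈ sec S c 0 (mkF hx) := by
      rw [sec_zero, mkF_set]; exact T.self_mem_cc x
    have h2 : (mkF hx).dim ≤ 1 := by
      have : (mkF hx).dim = T.dim x :=
        T.dim_eq_of_mem_oc (S.K_sub c (S.fr_sub c hx)) (mkF_pt hx)
      omega
    show e.f x = _
    rw [e4 _ h2 h1', h1_v hj hx hd]
  · obtain ⟨q, hq⟩ : ∃ q : FC S c, q.1 = a := ⟨⟨a, haf⟩, rfl⟩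
    have h1' : lft a + s • (rgt a - lft a) ∈ sec S c 0 q := by
      rw [sec_zero]
      show lft a + s • (rgt a - lft a) ∈ q.1.set
      rw [hq, (lft_rgt ha).2.1, segment_eq_image']
      exact ⟨s, hs, rfl⟩
    have hqd : q.dim ≤ 1 := by
      show q.1.dim ≤ 1
      rw [hq]; exact ha.le
    show e.f _ = _
    rw [e4 q hqd h1', h1_par hj ha haf hs]
  · have hx' : S.OnS c 0 x := Sla.onS_fr hx
    rw [← hd0 x hx, ← dim_cel hx'] at hd
    obtain ⟨A, hA⟩ := h1_aff (Nat.zero_le _) hj hd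
    refine ⟨A, ?_⟩
    rw [hcc0 x hx, cc_eq_sec hx']
    exact (e4 _ hd).trans hA
  · rw [← dim_cel hy] at hd
    obtain ⟨A, hA⟩ := h1_aff hj (Nat.zero_le _) hd
    refine ⟨A, ?_⟩
    rw [cc_eq_sec hy]
    exact (e5 _ hd).trans hA

end Crest.Agent.R096.Slp_316
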