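import Crest.Agent.R096.Dfi3_471
import Crest.Agent.R096.Slp3_316
import Crest.Agent.R096.Vrt4_422

/-!
# R096 (row 96), DOORS, `Front.lab` (helper422), part 1: the level function on the boundary of the
shrunk core.

`slg S c` : 316's slide of the boundary of the shrunk core onto the boundary of the core;
`ub S c u = u ∘ slg` : affine on the 1-cells, different from the levels at the vertices, and the
copies of the points of an exact pattern are exactly the points with `ub = lv j`.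
-/

set_option autoImplicit false
set_option linter.unusedSectionVars false

open Set Module
open scoped Classical

namespace Crest.Agent.R096.Flb_422

open Crest.Agent.R096.Msh_715 Crest.Agent.R096.Sla_184 Crest.Agent.R096.Slp_316
  Crest.Agent.R096.Ce_537 Crest.Agent.R096.Exa_560 Crest.Agent.R096.Agl5_543
  Crest.Agent.R096.Seq_213 Crest.Agent.R096.St_147 Crest.Agent.R096.Door_501
  Crest.Agent.R096.Twr_438 Crest.Agent.R096.Dfi_539 Crest.Agent.R096.Dfi_471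
  Crest.Agent.R096.Gl_422 Crest.Agent.R096.Ess3_95
open Crest.Agent.R096.Sla_184.Sla (hf vf old tg F0 Fn Out OnS InL In)

variable {E : Type} [NormedAddCommGroup E] [NormedSpace ℝ E] [FiniteDimensional ℝ E]
variable {Om : Set E} {ι : Type} {T : Tiling Om ι} {κ : Type} {S : Sla T κ} {c : κ}
variable {w x y v : E} {J : Type}

/-- the slide of the boundary of the shrunk core onto the boundary of the core -/
noncomputable def sle (S : Sla T κ) (c : κ) :
    PLEquiv (frontier (S.K c)) {x | S.OnS c (S.n c) x} :=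
  (exists_slide0 S c (le_refl (S.n c))).choose

theorem sle_spec (S : Sla T κ) (c : κ) :
      (∀ x ∈ frontier (S.K c), (sle S c).f x ∈ S.O c x) ∧
      (∀ y, S.OnS c (S.n c) y → (sle S c).g y ∈ S.O c y) ∧
      (∀ x ∈ frontier (S.K c), (sle S c).f '' T.cc x = S.T3.cc ((sle S c).f x)) ∧
      (∀ y, S.OnS c (S.n c) y → (sle S c).g '' S.T3.cc y = T.cc ((sle S c).g y)) ∧
      (∀ x ∈ frontier (S.K c), S.T3.dim ((sle S c).f x) = T.dim x) ∧
      (∀ x ∈ frontier (S.K c), T.dim x = 0 → (sle S c).f x = S.lv c x (S.t c (S.n c))) ∧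
      (∀ a : T.Cell, a.dim = 1 → a.set ⊆ frontier (S.K c) → ∀ s ∈ Icc (0 : ℝ) 1,
        (sle S c).f (lft a + s • (rgt a - lft a)) = S.lv c (lft a) (S.t c (S.n c)) +
          s • (S.lv c (rgt a) (S.t c (S.n c)) - S.lv c (lft a) (S.t c (S.n c)))) ∧
      (∀ x ∈ frontier (S.K c), T.dim x ≤ 1 → ∃ A : E →ᵃ[ℝ] E, EqOn (sle S c).f A (T.cc x)) ∧
      (∀ y, S.OnS c (S.n c) y → S.T3.dim y ≤ 1 →
        ∃ A : E →ᵃ[ℝ] E, EqOn (sle S c).g A (S.T3.cc y)) :=
  (exists_slide0 S c (le_refl (S.n c))).choose_spec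

theorem sle_gf (hx : x ∈ frontier (S.K c)) : (sle S c).g ((sle S c).f x) = x := (sle S c).li x hx

theorem sle_fg (hy : y ∈ frontier (S.KK c)) : (sle S c).f ((sle S c).g y) = y :=
  (sle S c).ri y (Sla.mem_fr_KK.1 hy)

theorem sle_fr (hy : y ∈ frontier (S.KK c)) : (sle S c).g y ∈ frontier (S.K c) :=
  (sle S c).mg (Sla.mem_fr_KK.1 hy)

theorem sle_dim (hy : y ∈ frontier (S.KK c)) : T.dim ((sle S c).g y) = S.T3.dim y := by
  rw [← (sle_spec S c).2.2.2.2.1 _ (sle_fr hy), sle_fg hy]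

/-- the slide of the copies of the vertices -/
theorem sle_hc (hv : v ∈ frontier (S.K c)) (h0 : T.dim v = 0) :
    (sle S c).g (S.hc c v (S.n c)) = v := by
  have h1 := (sle_spec S c).2.2.2.2.2.1 v hv h0
  have h2 : S.hc c v (S.n c) = (sle S c).f v := by
    rw [h1]
    unfold Sla.hc
    rw [min_self]
  rw [h2, sle_gf hv]

/-- the slide of the copies of the points of the 1-cells -/
theorem sle_hp' (hw : w ∈ frontier (S.K c)) (h1 : T.dim w = 1) :
    (sle S c).f w = S.hp c (S.n c) w := by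
  have hwo := Sla.edx_opn hw h1
  set e : S.Ed c := Sla.edx hw h1 with he
  rw [Sla.hp_eq e hwo]
  obtain ⟨s, hs, e1⟩ := exists_par e.2.1 hwo
  have h2 := (par_eq e.2.1 hs).2
  rw [← e1] at h2
  rw [h2]
  have h4 := (sle_spec S c).2.2.2.2.2.2.1 e.1 e.2.1 e.2.2 s ⟨hs.1.le, hs.2.le⟩
  rw [← e1] at h4
  rw [h4]
  unfold Sla.hc
  rw [min_self]
  rfl

theorem sle_hp (hw : w ∈ frontier (S.K c)) (h1 : T.dim w = 1) :
    (sle S c).g (S.hp c (S.n c) w) = w := by
  rw [← sle_hp' hw h1, sle_gf hw]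

theorem hp_sle (hy : y ∈ frontier (S.KK c)) (h1 : S.T3.dim y = 1) :
    S.hp c (S.n c) ((sle S c).g y) = y := by
  rw [← sle_hp' (sle_fr hy) (by rw [sle_dim hy]; exact h1), sle_fg hy]

/-- the level function on the boundary of the shrunk core -/
noncomputable def ub (S : Sla T κ) (c : κ) (u : E → ℝ) (x : E) : ℝ := u ((sle S c).g x)

theorem ub_hc (u : E → ℝ) (hv : v ∈ frontier (S.K c)) (h0 : T.dim v = 0) :
    ub S c u (S.hc c v (S.n c)) = u v := by
  unfold ub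
  rw [sle_hc hv h0]

/-- **(haff)** -/
theorem ub_aff (h3 : finrank ℝ E = 3) (L : Lev T (frontier (S.K c)) J) {e : S.T3.Cell}
    (he : e.dim = 1) (hf : e.set ⊆ frontier (S.KK c)) :
    ∃ g : E →ᵃ[ℝ] ℝ, EqOn (ub S c L.u) g e.set := by
  have hy : e.pt ∈ frontier (S.KK c) := hf (by rw [e.set_eq]; exact S.T3.self_mem_cc _)
  obtain ⟨A, hA⟩ := (sle_spec S c).2.2.2.2.2.2.2.2 e.pt (Sla.mem_fr_KK.1 hy) (le_of_eq he)
  have him := (sle_spec S c).2.2.2.1 e.pt (Sla.mem_fr_KK.1 hy)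
  obtain ⟨F, hF, hpF⟩ := (sgd h3 S.hH c).cov _ (sle_fr hy)
  have hsub : T.cc ((sle S c).g e.pt) ⊆ F.set := by
    rw [F.set_eq] at hpF ⊢
    exact T.cc_sub_of_mem hpF
  obtain ⟨g, hg⟩ := L.aff F hF
  refine ⟨g.comp A, fun x hx => ?_⟩
  have hx' : x ∈ S.T3.cc e.pt := by rw [← e.set_eq]; exact hx
  show L.u ((sle S c).g x) = g (A x)
  rw [hg (hsub (him ▸ mem_image_of_mem _ hx')), hA hx']

/-- **(hvt)** -/
theorem ub_vert (L : Lev T (frontier (S.K c)) J) {j : J} (hj : j ∈ L.J0)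
    (hv : v ∈ frontier (S.KK c)) (h0 : S.T3.dim v = 0) : ub S c L.u v ≠ L.lv j :=
  L.vert _ (sle_fr hv) (by rw [sle_dim hv]; exact h0) j hj

/-- the set `B` of points of one name on the boundary of the shrunk core is the copy of the exact
pattern -/
def ExG (S : Sla T κ) (c : κ) (L : Lev T (frontier (S.K c)) J) (j : J) (B : Set E) : Prop :=
  ∀ w ∈ frontier (S.KK c), S.T3.dim w = 1 →
    (w ∈ B ↔ ∃ q, q ∈ frontier (S.K c) ∧ T.dim q = 1 ∧ L.u q = L.lv j ∧ w = S.hp c (S.n c) q)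

/-- **(hpat)** -/
theorem ExG.pat {L : Lev T (frontier (S.K c)) J} {j : J} {B : Set E} (h : ExG S c L j B)
    (hw : w ∈ frontier (S.KK c)) (h1 : S.T3.dim w = 1) : w ∈ B ↔ ub S c L.u w = L.lv j := by
  rw [h w hw h1]
  unfold ub
  constructor
  · rintro ⟨q, hq, hq1, hqj, rfl⟩
    rw [sle_hp hq hq1]
    exact hqj
  · intro hj
    exact ⟨(sle S c).g w, sle_fr hw, by rw [sle_dim hw]; exact h1, hj, (hp_sle hw h1).symm⟩

section s2

variable {h3 : finrank ℝ E = 3} {C : Type} {fam : J → C} [Nonempty J]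
  {s : GSt (meshC T h3) fam} {r : J → E} {Sf : J → Set E} {nb : κ → C → Prop}
  {v0 v1 : ∀ c, C → VxK T S.K c} {u : κ → C → E → ℝ} {A B : κ → C → ℝ}
  {L : ∀ c, C → Lev T (frontier (S.K c)) J}
  {Tw : Twrs (S.sh h3) S.n (outK S.hH S.dis s r)} {l0 : E → J}

/-- a point of a 1-cell of the boundary of the shrunk core is on a face of the boundary -/
theorem exists_hf (h3 : finrank ℝ E = 3) (hw : w ∈ frontier (S.KK c)) (h1 : S.T3.dim w = 1) :
    ∃ G : (S.sh h3 c).Fk, w ∈ (S.mn h3).On (hf G (S.n c)) := by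
  have hq := sle_fr hw
  have hq1 : T.dim ((sle S c).g w) = 1 := by rw [sle_dim hw]; exact h1
  obtain ⟨e, he⟩ : ∃ e : S.Ed c, (sle S c).g w ∈ e.1.opn := ⟨_, Sla.edx_opn hq hq1⟩
  obtain ⟨F, hF, hpF⟩ := (sgd h3 S.hH c).cov _ hq
  have hG := (face_iff h3 (fun c => (S.hH c).core) (fun c => (S.hH c).sub) (fun c => (S.hH c).cc)
    S.dis F c).1 hF
  let G : (S.sh h3 c).Fk := ⟨⟨F, hG.1⟩, hG.2⟩
  exact ⟨G, (Sla.on_hf (G := G) le_rfl).2 ⟨(sle S c).g w, ⟨hpF, hq1⟩, (hp_sle hw h1).symm⟩⟩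

/-- **the pattern of `s₂` on the boundary of the shrunk core is exact** -/
theorem exG_s2 (lo : LevOut s nb u A B L) (tt : TwOut S h3 s r v0 v1 L Tw) {j : J}
    (hj : nb c (fam j)) : ExG S c (L c (fam j)) j
      {w | w ∈ (s2 S h3 Tw l0).P ∧ (s2 S h3 Tw l0).lab w = j} := by
  intro w hw h1
  constructor
  · rintro ⟨hP, hl⟩
    obtain ⟨G, hG⟩ := exists_hf h3 hw h1
    obtain ⟨a, q, hq, -, hwq, hlq, -⟩ := gi2' tt hP hG
    obtain ⟨h4, h5⟩ := exa_lab (L c a) hq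
    rw [hl] at hlq
    rw [← hlq] at h4 h5
    obtain ⟨rfl, -⟩ := (lo.mem c a j).1 h4
    obtain ⟨h6, h7, -⟩ := (mem_P (L c (fam j))).1 hq
    exact ⟨q, h6, h7, h5, hwq⟩
  · rintro ⟨q, h4, h5, h6, rfl⟩
    have hJ : j ∈ (L c (fam j)).J0 := (lo.mem c (fam j) j).2 ⟨rfl, hj⟩
    have hq : q ∈ (exa h3 S.hH S.dis (L c (fam j))).P := (mem_P (L c (fam j))).2 ⟨h4, h5, j, hJ, h6⟩
    obtain ⟨h7, h8, -⟩ := gi2 (l0 := l0) tt hq
    exact ⟨h7, h8.trans (lab_of (L c (fam j)) hJ h6)⟩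

end s2

end Crest.Agent.R096.Flb_422
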