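import Crest.Agent.R096.Flb1_422
import Crest.Agent.R096.Lmx3_662
import Crest.Agent.R096.Vrt3_422

/-!
# R096 (row 96), DOORS, `Front.lab` (helper422), part 2: `LabIn` over the sliced mesh.

`Cd`        : the core datum of one family (literal inputs of 662's `labIn_mixD`);
`cd_giant`  : a shrunk core with an exact pattern, two feet on the boundary of the core and ropes to
              the feet in the outer part (the columns are added here);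
`cd_exact`  : an outer tile with the truthful state;
`labIn_sla` : **`LabIn` over `meshK S.T3 S.KK`** from one core datum per family.
-/

set_option autoImplicit false
set_option linter.unusedSectionVars false
set_option linter.unusedVariables false

open Set Module Relation
open scoped Classical

namespace Crest.Agent.R096.Flb_422

open Crest.Agent.R096.Msh_715 Crest.Agent.R096.Sla_184 Crest.Agent.R096.Slp_316
  Crest.Agent.R096.Ce_537 Crest.Agent.R096.Exa_560 Crest.Agent.R096.Agl5_543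
  Crest.Agent.R096.Seq_213 Crest.Agent.R096.St_147 Crest.Agent.R096.Door_501
  Crest.Agent.R096.Twr_438 Crest.Agent.R096.Dfi_539 Crest.Agent.R096.Dfi_471
  Crest.Agent.R096.Gl_422 Crest.Agent.R096.Vrt_422 Crest.Agent.R096.Lmx_662
  Crest.Agent.R096.Lm_117 Crest.Agent.R096.Ac_117 Crest.Agent.R096.Cp_298
  Crest.Agent.R096.Ori_543 Crest.Agent.R096.Coh_184 Crest.Agent.R096.Gm_298
open Crest.Agent.R096.Sla_184.Sla (hf vf old tg F0 Fn Out OnS InL In)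

variable {E : Type} [NormedAddCommGroup E] [NormedSpace ℝ E] [FiniteDimensional ℝ E]
variable {Om : Set E} {ι : Type} {T : Tiling Om ι} {κ : Type} {S : Sla T κ} {c : κ}
variable {w x y v : E} [Nonempty S.T3.Cell]
variable {h3 : finrank ℝ E = 3} {hH : ∀ c, CoreH S.T3 (S.KK c)} {hne : ∃ c, OutK S.T3 S.KK c}
  {C K : Type} {Qd : Quads (T.RIdx S.HH ⊕ κ) C K} {J : Type} {fam : J → C}
  {s : GSt (mK h3 hH Sla.dis_KK) fam} {a : C} {j : ℕ}

/-! ### feet -/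

theorem hc_vx (hv : v ∈ frontier (S.K c)) (h0 : T.dim v = 0) (hj : j ≤ S.n c) :
    (edC S.T3 (S.hc c v j)).dim = 0 ∧ (edC S.T3 (S.hc c v j)).pt = S.hc c v j ∧
      (edC S.T3 (S.hc c v j)).set = {S.hc c v j} := by
  have hB := Sla.fr_Bd hv
  have hD := D_vx hv h0
  have hd : S.T3.dim (S.hc c v j) = 0 := by
    have := Sla.hc_dim3 hB j
    omega
  have hO := hc_Om hB hj
  obtain ⟨h1, h2⟩ := SkB_662.edC_vertex (T := S.T3) hO hd
  exact ⟨h1, h2, by rw [edC_set hO, S.T3.cc_eq_singleton (S.T3.dim_eq_zero_iff.1 hd)]⟩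

theorem hc_zero (hv : v ∈ frontier (S.K c)) (h0 : T.dim v = 0) : S.hc c v 0 = v :=
  Sla.hc_zero_vx (Sla.onS_fr hv) (D_vx hv h0)

theorem outK_foot (hv : v ∈ frontier (S.K c)) (h0 : T.dim v = 0) : OutK S.T3 S.KK (edC S.T3 v) := by
  have h := outK_hc (Sla.fr_Bd hv) (Nat.zero_le (S.n c))
  rw [hc_zero hv h0] at h
  exact h

/-- the copy of a foot on the boundary of the shrunk core -/
theorem hc_bdc (hv : v ∈ frontier (S.K c)) (h0 : T.dim v = 0) :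
    (edC S.T3 (S.hc c v (S.n c))).set ⊆ bdc S.T3 S.KK (Sum.inr c) := by
  rw [(hc_vx hv h0 le_rfl).2.2, singleton_subset_iff]
  exact Sla.mem_fr_KK.2 (Sla.hc_onS (Sla.fr_Bd hv) le_rfl)

/-- the conditions on the column over a foot -/
structure Col (Qd : Quads (T.RIdx S.HH ⊕ κ) C K) (s : GSt (mK h3 hH Sla.dis_KK) fam) (a : C)
    (c : κ) (v : E) : Prop where
  fr : ∀ k, Qd.In k a → ∀ i < S.n c, ∃ q, S.vc c v i ∈ P (S.T3.H q) ∧ Sum.inl q ∉ Qd.Act k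
  pt : ∀ i < S.n c, ∀ w ∈ s.P, w ∈ S.O c v → S.InL c i w → fam (s.lab w) ≠ a

/-- **a rope to a foot is prolonged to the shrunk core** -/
theorem Col.rope (hC : Col Qd s a c v) (hv : v ∈ frontier (S.K c)) (h0 : T.dim v = 0)
    {p : QK (belK S.T3 S.KK)}
    (h : ReflTransGen (Ed (lmK h3 hH Sla.dis_KK hne) (Fr0 (lmK h3 hH Sla.dis_KK hne) Qd s a)) p
      (oc (edC S.T3 v) (outK_foot hv h0))) :
    ReflTransGen (Ed (lmK h3 hH Sla.dis_KK hne) (Fr0 (lmK h3 hH Sla.dis_KK hne) Qd s a)) p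
      (oc (edC S.T3 (S.hc c v (S.n c))) (outK_hc (Sla.fr_Bd hv) le_rfl)) := by
  have h1 := col_path (h3 := h3) (hH := hH) (hne := hne) (Qd := Qd) (s := s) (a := a) hv h0 hC.fr
    hC.pt le_rfl
  have e : (oc (edC S.T3 v) (outK_foot hv h0) : QK (belK S.T3 S.KK)) =
      oc (edC S.T3 (S.hc c v 0)) (outK_hc (Sla.fr_Bd hv) (Nat.zero_le _)) := by
    congr 1
    exact (congrArg (edC S.T3) (hc_zero hv h0)).symm
  rw [e] at h
  exact h.trans h1

/-! ### core data -/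

/-- **the core datum of a family**: the inputs of `labIn_mixD` -/
structure Cd (hne : ∃ c, OutK S.T3 S.KK c) (Qd : Quads (T.RIdx S.HH ⊕ κ) C K)
    (s : GSt (mK h3 hH Sla.dis_KK) fam) (t0 : GSt (meshC T h3) fam) (lam0 : J → E → ZMod 2)
    (p0 p1 : QK (belK S.T3 S.KK)) (a : C) (co : T.RIdx S.HH ⊕ κ) (u0 u1 : S.T3.Cell)
    (o0 : OutK S.T3 S.KK u0) (o1 : OutK S.T3 S.KK u1) (uu : E → ℝ) (tt : J → ℝ) : Prop where
  out : OutI S.T3 S.KK co
  act : ∀ k, Qd.In k a → co ∉ Qd.Act k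
  b0 : u0.set ⊆ bdc S.T3 S.KK co ∧ u0.dim = 0
  b1 : u1.set ⊆ bdc S.T3 S.KK co ∧ u1.dim = 0
  lab : ∀ j, fam j = a → ∀ q, co = Sum.inl q → Main_4.IsLab T (Lab_184.gPts t0 j) (lam0 j)
  cell : ∀ q, co = Sum.inl q → ∀ e : S.T3.Cell, e.dim = 1 →
      e.set ⊆ Msh_715.P (S.T3.H q) → T.cc e.pt = e.set ∧ T.dim e.pt = 1
  st : ∀ j, fam j = a → ∀ q, co = Sum.inl q → ∀ w ∈ Msh_715.P (S.T3.H q),
      ((w ∈ s.P ∧ s.lab w = j) ↔ (w ∈ t0.P ∧ t0.lab w = j))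
  val : ∀ j, fam j = a → ∀ q, co = Sum.inl q → lam0 j u0.pt + lam0 j u1.pt = 1
  aff : ∀ k, co = Sum.inr k → ∀ e : S.T3.Cell, e.dim = 1 →
      e.set ⊆ frontier (S.KK k) → ∃ g : E →ᵃ[ℝ] ℝ, EqOn uu g e.set
  vt : ∀ j, fam j = a → ∀ k, co = Sum.inr k → ∀ v ∈ frontier (S.KK k), S.T3.dim v = 0 →
      uu v ≠ tt j
  pat : ∀ j, fam j = a → ∀ k, co = Sum.inr k → ∀ w ∈ frontier (S.KK k), S.T3.dim w = 1 →
      ((w ∈ s.P ∧ s.lab w = j) ↔ uu w = tt j)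
  ut : ∀ j, fam j = a → ∀ k, co = Sum.inr k → uu u0.pt < tt j ∧ tt j < uu u1.pt
  r0 : ReflTransGen (Ed (lmK h3 hH Sla.dis_KK hne) (Fr0 (lmK h3 hH Sla.dis_KK hne) Qd s a))
      p0 (oc u0 o0)
  r1 : ReflTransGen (Ed (lmK h3 hH Sla.dis_KK hne) (Fr0 (lmK h3 hH Sla.dis_KK hne) Qd s a))
      (oc u1 o1) p1

variable {t0 : GSt (meshC T h3) fam} {lam0 : J → E → ZMod 2} {p0 p1 : QK (belK S.T3 S.KK)}

/-- **a shrunk core with exact pattern** -/
theorem cd_giant {v0 v1 : E} (hv0 : v0 ∈ frontier (S.K c)) (hd0 : T.dim v0 = 0)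
    (hv1 : v1 ∈ frontier (S.K c)) (hd1 : T.dim v1 = 0) (L : Lev T (frontier (S.K c)) J)
    (hact : ∀ k, Sum.inr c ∉ Qd.Act k) (hJ : ∀ j, fam j = a → j ∈ L.J0)
    (hE : ∀ j, fam j = a → ExG S c L j {w | w ∈ s.P ∧ s.lab w = j})
    (hl : ∀ j, fam j = a → L.u v0 < L.lv j ∧ L.lv j < L.u v1)
    (hC0 : Col Qd s a c v0) (hC1 : Col Qd s a c v1)
    (h0 : ReflTransGen (Ed (lmK h3 hH Sla.dis_KK hne) (Fr0 (lmK h3 hH Sla.dis_KK hne) Qd s a)) p0
      (oc (edC S.T3 v0) (outK_foot hv0 hd0)))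
    (h1 : ReflTransGen (Ed (lmK h3 hH Sla.dis_KK hne) (Fr0 (lmK h3 hH Sla.dis_KK hne) Qd s a)) p1
      (oc (edC S.T3 v1) (outK_foot hv1 hd1))) :
    Cd hne Qd s t0 lam0 p0 p1 a (Sum.inr c) (edC S.T3 (S.hc c v0 (S.n c)))
      (edC S.T3 (S.hc c v1 (S.n c))) (outK_hc (Sla.fr_Bd hv0) le_rfl)
      (outK_hc (Sla.fr_Bd hv1) le_rfl) (ub S c L.u) L.lv where
  out := fun q hq => by cases hq
  act := fun k _ => hact k
  b0 := ⟨hc_bdc hv0 hd0, (hc_vx hv0 hd0 le_rfl).1⟩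
  b1 := ⟨hc_bdc hv1 hd1, (hc_vx hv1 hd1 le_rfl).1⟩
  lab := fun j _ q hq => by cases hq
  cell := fun q hq => by cases hq
  st := fun j _ q hq => by cases hq
  val := fun j _ q hq => by cases hq
  aff := fun k hk e he hf => by
    obtain rfl : c = k := Sum.inr.inj hk
    exact ub_aff h3 L he hf
  vt := fun j hj k hk v hv hd => by
    obtain rfl : c = k := Sum.inr.inj hk
    exact ub_vert L (hJ j hj) hv hd
  pat := fun j hj k hk w hw hd => by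
    obtain rfl : c = k := Sum.inr.inj hk
    exact (hE j hj).pat hw hd
  ut := fun j hj k hk => by
    rw [(hc_vx hv0 hd0 le_rfl).2.1, (hc_vx hv1 hd1 le_rfl).2.1, ub_hc _ hv0 hd0, ub_hc _ hv1 hd1]
    exact hl j hj
  r0 := hC0.rope hv0 hd0 h0
  r1 := path_symm (hC1.rope hv1 hd1 h1)

/-- **an outer tile with the truthful state** -/
theorem cd_exact {q : ι} (hi : ∀ c, ¬ P (T.H q) ⊆ S.K c) {v0 v1 : E} (hv0 : v0 ∈ P (T.H q))
    (hd0 : T.dim v0 = 0) (hv1 : v1 ∈ P (T.H q)) (hd1 : T.dim v1 = 0)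
    (hact : ∀ k, Qd.In k a → Sum.inl (S.ot q hi) ∉ Qd.Act k)
    (hlab : ∀ j, fam j = a → Main_4.IsLab T (Lab_184.gPts t0 j) (lam0 j))
    (hst : ∀ j, fam j = a → ∀ w ∈ P (T.H q),
      ((w ∈ s.P ∧ s.lab w = j) ↔ (w ∈ t0.P ∧ t0.lab w = j)))
    (hval : ∀ j, fam j = a → lam0 j v0 + lam0 j v1 = 1)
    (h0 : ReflTransGen (Ed (lmK h3 hH Sla.dis_KK hne) (Fr0 (lmK h3 hH Sla.dis_KK hne) Qd s a)) p0
      (vK hi hv0 hd0))
    (h1 : ReflTransGen (Ed (lmK h3 hH Sla.dis_KK hne) (Fr0 (lmK h3 hH Sla.dis_KK hne) Qd s a)) p1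
      (vK hi hv1 hd1)) :
    Cd hne Qd s t0 lam0 p0 p1 a (Sum.inl (S.ot q hi)) (edC S.T3 v0)
      (edC S.T3 v1) (vx3 hi hv0 hd0).2.2.2.2 (vx3 hi hv1 hd1).2.2.2.2 (fun _ => 0)
      (fun _ => 0) where
  out := outI_ot hi
  act := hact
  b0 := ⟨by
    rw [(vx3 hi hv0 hd0).2.2.2.1, singleton_subset_iff]
    show v0 ∈ P (S.T3.H (S.ot q hi))
    rw [Sla.ot_P hi]; exact hv0, (vx3 hi hv0 hd0).2.1⟩
  b1 := ⟨by
    rw [(vx3 hi hv1 hd1).2.2.2.1, singleton_subset_iff]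
    show v1 ∈ P (S.T3.H (S.ot q hi))
    rw [Sla.ot_P hi]; exact hv1, (vx3 hi hv1 hd1).2.1⟩
  lab := fun j hj _ _ => hlab j hj
  cell := fun p hp e he hf => by
    obtain rfl : S.ot q hi = p := Sum.inl.inj hp
    exact cell3 hi he hf
  st := fun j hj p hp w hw => by
    obtain rfl : S.ot q hi = p := Sum.inl.inj hp
    rw [Sla.ot_P hi] at hw
    exact hst j hj w hw
  val := fun j hj _ _ => by
    rw [(vx3 hi hv0 hd0).2.2.1, (vx3 hi hv1 hd1).2.2.1]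
    exact hval j hj
  aff := fun k hk => by cases hk
  vt := fun j _ k hk => by cases hk
  pat := fun j _ k hk => by cases hk
  ut := fun j _ k hk => by cases hk
  r0 := h0
  r1 := path_symm h1

/-- **`LabIn` OVER THE SLICED MESH** -/
theorem labIn_sla {v₀ v₁ : C → QK (belK S.T3 S.KK)} (D : C → Set E)
    (hW : ∀ w ∈ s.P, w ∈ (lmK h3 hH Sla.dis_KK hne).W1)
    (hD : ∀ j, IsCompact (D (fam j))) (hDO : ∀ j, D (fam j) ⊆ Om)
    (hfr : ∀ j, IsPreconnected (frontier (D (fam j)))) (htr : ∀ j, TrivF (ZMod 2) (D (fam j)))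
    (supp : ∀ w ∈ s.P, (∀ q, w ∈ Msh_715.P (S.T3.H q) →
      Msh_715.P (S.T3.H q) ⊆ interior (D (fam (s.lab w)))) ∧
      ∀ c, w ∈ S.KK c → S.KK c ⊆ interior (D (fam (s.lab w))))
    (act : ∀ j k, Qd.In k (fam j) → Qd.Act k ⊆ AD S.T3 S.KK (D (fam j)))
    (far : ∀ j, v₁ (fam j) ∈ ZK S.T3 S.KK (D (fam j)))
    (cd : ∀ j, ∃ co u0 u1 o0 o1 uu tt,
      Cd hne Qd s t0 lam0 (v₀ (fam j)) (v₁ (fam j)) (fam j) co u0 u1 o0 o1 uu tt) :
    ∃ lam₀, Gl_422.LabIn (lmK h3 hH Sla.dis_KK hne) Qd s (fun c => GD h3 hH Sla.dis_KK (D c))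
      (fun c => ZK S.T3 S.KK (D c)) lam₀ v₀ v₁ := by
  have key : ∀ a : C, ∃ co u0 u1 o0 o1 uu tt, (∃ j, fam j = a) →
      Cd hne Qd s t0 lam0 (v₀ a) (v₁ a) a co u0 u1 o0 o1 uu tt := by
    intro a
    by_cases ha : ∃ j, fam j = a
    · obtain ⟨j, rfl⟩ := ha
      obtain ⟨co, u0, u1, o0, o1, uu, tt, h⟩ := cd j
      exact ⟨co, u0, u1, o0, o1, uu, tt, fun _ => h⟩
    · obtain ⟨c, hc⟩ := hne
      obtain ⟨q, -⟩ := id hc
      exact ⟨Sum.inl q, c, c, hc, hc, fun _ => 0, fun _ => 0, fun h => absurd h ha⟩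
  choose co u0 u1 o0 o1 uu tt hcd using key
  have hc : ∀ j, Cd hne Qd s t0 lam0 (v₀ (fam j)) (v₁ (fam j)) (fam j) (co (fam j)) (u0 (fam j))
    (u1 (fam j)) (o0 (fam j)) (o1 (fam j)) (uu (fam j)) (tt (fam j)) := fun j => hcd _ ⟨j, rfl⟩
  exact labIn_mixD D hW hD hDO hfr htr supp act far co (fun j => (hc j).out)
    (fun j k hk => (hc j).act k hk) u0 u1 o0 o1 (fun j => (hc j).b0) (fun j => (hc j).b1)
    (fun j q hq => (hc j).lab j rfl q hq) (fun j q hq => (hc j).cell q hq)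
    (fun j q hq => (hc j).st j rfl q hq) (fun j q hq => (hc j).val j rfl q hq) uu
    (fun j => tt (fam j) j) (fun j k hk => (hc j).aff k hk) (fun j k hk => (hc j).vt j rfl k hk)
    (fun j k hk => (hc j).pat j rfl k hk) (fun j k hk => (hc j).ut j rfl k hk)
    (fun j => (hc j).r0) (fun j => (hc j).r1)

end Crest.Agent.R096.Flb_422
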