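import Crest.Agent.R096.Flb2_422
import Crest.Agent.R096.Dfi4_471

/-!
# R096 (row 96), DOORS, `Front.lab` (helper422), part 3: the columns over the feet.

`col_of` : no active tile and no point of the family over a foot with small (large) value, from
(A) the active cells and (B) the points have a point of middle value in their tile of `T`.
-/

set_option autoImplicit false
set_option linter.unusedSectionVars false
set_option linter.unusedVariables false

open Set Module Relation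
open scoped Classical

namespace Crest.Agent.R096.Flb_422

open Crest.Agent.R096.Msh_715 Crest.Agent.R096.Sla_184 Crest.Agent.R096.Slp_316
  Crest.Agent.R096.Ce_537 Crest.Agent.R096.Exa_560 Crest.Agent.R096.Agl5_543
  Crest.Agent.R096.Seq_213 Crest.Agent.R096.St_147 Crest.Agent.R096.Door_501
  Crest.Agent.R096.Twr_438 Crest.Agent.R096.Dfi_539 Crest.Agent.R096.Dfi_471
  Crest.Agent.R096.Gl_422 Crest.Agent.R096.Vrt_422 Crest.Agent.R096.Lmx_662
  Crest.Agent.R096.Lm_117 Crest.Agent.R096.Ac_117 Crest.Agent.R096.Cp_298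
  Crest.Agent.R096.Ori_543 Crest.Agent.R096.Coh_184 Crest.Agent.R096.Gm_298
open Crest.Agent.R096.Sla_184.Sla (hf vf old tg F0 Fn Out OnS InL In)

variable {E : Type} [NormedAddCommGroup E] [NormedSpace ℝ E] [FiniteDimensional ℝ E]
variable {Om : Set E} {ι : Type} {T : Tiling Om ι} {κ : Type} {S : Sla T κ} {c : κ}
variable {w x y v : E} [Nonempty S.T3.Cell]
variable {h3 : finrank ℝ E = 3} {hH : ∀ c, CoreH S.T3 (S.KK c)} {hne : ∃ c, OutK S.T3 S.KK c}
  {C K : Type} {Qd : Quads (T.RIdx S.HH ⊕ κ) C K} {J : Type} {fam : J → C}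
  {s : GSt (mK h3 hH Sla.dis_KK) fam} {a : C} {j : ℕ}

/-- **the column over a foot** -/
theorem col_of (hv : v ∈ frontier (S.K c)) (h0 : T.dim v = 0) {g : E → ℝ} {ε σ : ℝ}
    (hosc : ∀ i, v ∈ P (T.H i) → P (T.H i) ⊆ S.K c → ∀ x ∈ P (T.H i), |g v - g x| ≤ ε)
    (hg : g v < σ - ε ∨ 1 - σ + ε < g v)
    (hA : ∀ k, Qd.In k a → ∀ p, Sum.inl p ∈ Qd.Act k →
      ∃ x ∈ P (T.H p.tile), σ ≤ g x ∧ g x ≤ 1 - σ)
    (hB : ∀ w ∈ s.P, fam (s.lab w) = a → ∀ p, w ∈ P (S.T3.H p) →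
      ∃ x ∈ P (T.H p.tile), σ ≤ g x ∧ g x ≤ 1 - σ) : Col Qd s a c v := by
  have key : ∀ i w, w ∈ S.O c v → S.InL c i w → ∀ p, w ∈ P (S.T3.H p) →
      ¬ ∃ x ∈ P (T.H p.tile), σ ≤ g x ∧ g x ≤ 1 - σ := by
    rintro i w hO hL p hp ⟨x, hx, h1, h2⟩
    obtain ⟨h4, h5⟩ := at3_O hv hO hL.bo.1 hp
    have h6 := abs_le.1 (hosc p.tile h4 h5 x hx)
    rcases hg with h | h
    · linarith [h6.1]
    · linarith [h6.2]
  refine ⟨fun k hk i hi => ?_, fun i hi w hw hO hL ha => ?_⟩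
  · have hL := Sla.vc_inL (Sla.fr_Bd hv) hi
    obtain ⟨p, hp⟩ := S.T3.cov _ hL.mem
    exact ⟨p, hp, fun h => key i _ (Sla.vc_O (Sla.fr_Bd hv) i) hL p hp (hA k hk p h)⟩
  · obtain ⟨p, hp⟩ := S.T3.cov _ hL.mem
    exact key i w hO hL p hp (hB w hw ha p hp)

end Crest.Agent.R096.Flb_422
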