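import Crest.Agent.R096.Rop13_441
import Crest.Agent.R096.Lmx2_662

/-!
# R096 (row 96), DOORS, `Front.lab` (helper422), part 4: `supp` of the state after DOORS.

Over 441's `Lst`: all tiles and all shrunk cores through a point of the state are inside the body of
the brick of its family.
-/

set_option autoImplicit false
set_option linter.unusedSectionVars false
set_option linter.unusedVariables false

open Set Relation Module
open scoped Classical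

namespace Crest.Agent.R096.Flb_422

open Crest.Agent.R096.Brk1_582 Crest.Agent.R096.Brk2_582 Crest.Agent.R096.Brk3_582
  Crest.Agent.R096.Brk5_582 Crest.Agent.R096.Bsp_628 Crest.Agent.R096.Init_543
  Crest.Agent.R096.Vb_965 Crest.Agent.R096.Msh_715 Crest.Agent.R096.St_147
  Crest.Agent.R096.Seq_213 Crest.Agent.R096.Lm_117 Crest.Agent.R096.Gl_422
  Crest.Agent.R096.SkB_662 Crest.Agent.R096.Cpo_642
  Crest.Agent.R096.Ce_537 Crest.Agent.R096.Agl5_543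
  Crest.Agent.R096.Cp_298 Crest.Agent.R096.Gm_298 Crest.Agent.R096.Ac_117
  Crest.Agent.R096.Sla_184 Crest.Agent.R096.Sla_184.Sla
  Crest.Agent.R096.Rop_441 Crest.Agent.R096.Lmx_662
open Crest.Agent.R096.SkC1_961 (E3 Hom3 FoamD)
open Crest.Agent.R096.Mbf_337 (KJ sb)
open Crest.Agent.R096.Gia_537 (Kc Kc_sub Kc_compact Kc_disj Kc_exact KJ_mono)

variable {δ κ0 R c0 : ℝ} {La Om : Set E3} {ι : Type} {Φ : FoamD δ κ0 R c0 La}
  {T : Tiling Om ι} {f g : E3 → E3} {κ1 κ2 s₁ σ : ℝ} {X : Set Φ.F} {J0 J V : Φ.F → Set ι}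
  {ct : Φ.F → ι}
  {A : Φ.F → E3 ≃ᵃ[ℝ] E3} {lam : Φ.F → ℝ} {z : Φ.F → E3} {θ : Φ.F → E3 → E3} {φ : Φ.F → E3 → ℝ}
  {ct' : Φ.F → ι} {r₀ : Φ.F → ℝ}
  {κ : Type} {S : Sla T κ}

/-- the brick of a core with a point of value `< 1` is touched -/
theorem touch_core (hLa : IsOpen La) (hR : InitR Φ T f g J0 ct' r₀)
    (hC : Mbf_337.Cores Φ T f κ1 κ2 X J0 J V ct A lam z θ φ) {a c : Φ.F} {x : E3}
    (hx : x ∈ KJ T (V c)) (h1 : va (Pc Φ.F) (bc (F := Φ.F)) (RF Φ r₀) f a x < 1) :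
    (Pc Φ.F c ∩ Pc Φ.F a).Nonempty := by
  have h2 := Nr_527.V_inside hC hx
  obtain ⟨i, -, hi⟩ := Nr_527.mem_KJ.1 hx
  exact star_of_lt hR.hm (foam4 Φ hLa) (retF Φ hLa hR.pos hR.le_one) (T.sub i hi)
    (Bx.mem_set.2 fun k => ⟨(h2 k).1.le, (h2 k).2.le⟩) h1

variable [Nonempty S.T3.Cell] {hH : ∀ c, CoreH S.T3 (S.KK c)} {hne : ∃ c, OutK S.T3 S.KK c}
  {Kq : Type} {Qd : Quads (T.RIdx S.HH ⊕ κ) Φ.F Kq} {Jn : Type} {fam : Jn → Φ.F}
  {s₀ : GSt (mK fr3 hH (dis_KK (S := S))) fam}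

/-- **`supp` at the shrunk cores** -/
theorem supp_core_S (hLa : IsOpen La) (hR : InitR Φ T f g J0 ct' r₀)
    (hC : Mbf_337.Cores Φ T f κ1 κ2 X J0 J V ct A lam z θ φ) (hK : TinyK X J S) (hσ : 0 < σ)
    (h : Lst Φ f J0 J r₀ S hH hne Qd s₀ s₁ σ) {w : E3} (hw : w ∈ s₀.P) {D : Set E3}
    (hD : Body Om f (Pc Φ.F) (fam (s₀.lab w)) D) {c : κ} (hwc : w ∈ S.KK c) :
    S.KK c ⊆ interior D := by
  obtain ⟨hO, hd, hi⟩ := mem_W1K.1 (h.on w hw)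
  obtain ⟨p, hwp, hout⟩ : ∃ p : T.RIdx S.HH, w ∈ P (S.T3.H p) ∧ ∀ c, ¬ P (S.T3.H p) ⊆ S.KK c :=
    exists_tile_out dis_KK hO hi
  have hIn : S.In c w := by
    have h1 := mem_KK.1 hwc
    exact in_of_lt h1.1 (h1.2.trans_lt (S.tn_lt c))
  have hpc : P (T.H p.tile) ⊆ S.K c := hIn.tile (P3_sub p hwp)
  obtain ⟨x, hx, -, hx1⟩ := h.lay w hw p c hout hpc hwp
  obtain ⟨c', hc', e⟩ := hK c
  have hsub : S.K c ⊆ KJ T (V c') := by
    rw [e]; exact KJ_mono (Nr_527.J_sub hC c')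
  have ht := touch_core hLa hR hC (hsub (hpc hx)) (by linarith)
  exact (KK_K.trans hsub).trans (core_body hC hD ht)

/-- **`supp` at the tiles** -/
theorem supp_tile_S (hLa : IsOpen La) (h0 : 0 ≤ κ1) (h1s : κ1 < s₁) (hR : InitR Φ T f g J0 ct' r₀)
    (hC : Mbf_337.Cores Φ T f κ1 κ2 X J0 J V ct A lam z θ φ)
    (hM : Mesh0 T (Pc Φ.F) (bc (F := Φ.F)) (RF Φ r₀) f (KorJ Φ J0) κ1)
    (hK : TinyK X J S) (hall : ∀ d, d ∉ X → ∃ k : κ, S.K k = KJ T (J d)) (hσ : κ1 < σ)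
    (h : Lst Φ f J0 J r₀ S hH hne Qd s₀ s₁ σ) {w : E3} (hw : w ∈ s₀.P) {D : Set E3}
    (hD : Body Om f (Pc Φ.F) (fam (s₀.lab w)) D) {p : T.RIdx S.HH} (hwp : w ∈ P (S.T3.H p)) :
    P (S.T3.H p) ⊆ interior D := by
  by_cases hout : ∀ c, ¬ P (S.T3.H p) ⊆ S.KK c
  · obtain ⟨hO, hd, hi⟩ := mem_W1K.1 (h.on w hw)
    have hwT := P3_sub p hwp
    rcases tile_or S p.tile with ho | ⟨c, hc⟩
    · by_cases hp : p.tile ∈ KorJ Φ J
      · obtain ⟨d, hdJ⟩ := hp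
        have hdX : d ∈ X := by
          by_contra hdX
          obtain ⟨k, hk⟩ := hall d hdX
          exact ho k (by rw [hk]; exact fun x hx => Nr_527.mem_KJ.2 ⟨_, hdJ, hx⟩)
        have hdV : p.tile ∈ V d := Nr_527.J_sub hC d hdJ
        rw [(hC.one d hdX).2.1, mem_singleton_iff] at hdJ
        have hOut := Sla.out_of_tile ho hwT
        have hd1 : T.dim w = 1 := by rw [← hOut.dim]; exact hd
        obtain ⟨i, hi', hwi⟩ := exists_out T kor_sub (fun c c' hcc => Kc_disj hLa hC hcc) hO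
          (fun c => out_X hLa hC hdX (hdJ ▸ hwT) (by omega) c)
        obtain ⟨-, h2⟩ := h.lev w hw i hi' hwi
        have hsub : P (T.H p.tile) ⊆ KJ T (V d) := fun x hx => Nr_527.mem_KJ.2 ⟨_, hdV, hx⟩
        exact (P3_sub p).trans (hsub.trans (core_body hC hD
          (touch_core hLa hR hC (hsub hwT) (by linarith))))
      · obtain ⟨-, h2⟩ := h.lev w hw p.tile hp hwT
        exact (P3_sub p).trans (tile_body hLa hR.hm (retF Φ hLa hR.pos hR.le_one) hC hM h0 hD hwT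
          (by linarith))
    · obtain ⟨x, hx, -, hx1⟩ := h.lay w hw p c hout hc hwp
      exact (P3_sub p).trans (tile_body hLa hR.hm (retF Φ hLa hR.pos hR.le_one) hC hM h0 hD hx
        (by linarith))
  · push Not at hout
    obtain ⟨c, hc⟩ := hout
    exact hc.trans (supp_core_S hLa hR hC hK (h0.trans_lt hσ) h hw hD (hc hwp))

/-- **`supp` of `labIn_mixD`** -/
theorem supp_S (hLa : IsOpen La) (h0 : 0 ≤ κ1) (h1s : κ1 < s₁) (hR : InitR Φ T f g J0 ct' r₀)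
    (hC : Mbf_337.Cores Φ T f κ1 κ2 X J0 J V ct A lam z θ φ)
    (hM : Mesh0 T (Pc Φ.F) (bc (F := Φ.F)) (RF Φ r₀) f (KorJ Φ J0) κ1)
    (hK : TinyK X J S) (hall : ∀ d, d ∉ X → ∃ k : κ, S.K k = KJ T (J d)) (hσ : κ1 < σ)
    (h : Lst Φ f J0 J r₀ S hH hne Qd s₀ s₁ σ) {D : Φ.F → Set E3}
    (hD : ∀ a, Body Om f (Pc Φ.F) a (D a)) : ∀ w ∈ s₀.P,
      (∀ q, w ∈ P (S.T3.H q) → P (S.T3.H q) ⊆ interior (D (fam (s₀.lab w)))) ∧
      ∀ c, w ∈ S.KK c → S.KK c ⊆ interior (D (fam (s₀.lab w))) := fun w hw =>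
  ⟨fun q hq => supp_tile_S hLa h0 h1s hR hC hM hK hall hσ h hw (hD _) hq,
    fun c hc => supp_core_S hLa hR hC hK (h0.trans_lt hσ) h hw (hD _) hc⟩

end Crest.Agent.R096.Flb_422
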