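import Crest.Agent.R096.Frk1_441
import Crest.Agent.R096.Flb2_422

/-!
# R096 (row 96), FRONT (helper441): ropes to the feet, columns, core data for 422's `labIn_sla`

* `col_of`     : `Flb_422.Col` over a foot of small / large level;
* `rope0_fr`, `rope1_fr` : ropes `v₀ a`, `v₁ a` → a foot on the frontier of a tiny core;
* `rope0_o`, `rope1_o`   : ropes to a vertex of a tile outside all cores;
* `cd_giant_L`, `cd_exact_L` : 422's `Cd` from `Lst`.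
-/

set_option autoImplicit false
set_option linter.unusedSectionVars false
set_option linter.unusedVariables false

open Set Relation Module

namespace Crest.Agent.R096.Frk_441

open Crest.Agent.R096.Brk1_582 Crest.Agent.R096.Brk2_582 Crest.Agent.R096.Brk3_582
  Crest.Agent.R096.Brk5_582 Crest.Agent.R096.Bsp_628 Crest.Agent.R096.Init_543
  Crest.Agent.R096.Vb_965 Crest.Agent.R096.Msh_715 Crest.Agent.R096.St_147
  Crest.Agent.R096.Seq_213 Crest.Agent.R096.Lm_117 Crest.Agent.R096.Gl_422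
  Crest.Agent.R096.SkB_662 Crest.Agent.R096.Cpo_642
  Crest.Agent.R096.Ce_537 Crest.Agent.R096.Agl5_543
  Crest.Agent.R096.Cp_298 Crest.Agent.R096.Gm_298 Crest.Agent.R096.Ac_117
  Crest.Agent.R096.Sla_184 Crest.Agent.R096.Sla_184.Sla Crest.Agent.R096.Kin_527
  Crest.Agent.R096.Vrt_422 Crest.Agent.R096.Rop_441
  Crest.Agent.R096.Lmx_662 Crest.Agent.R096.Flb_422
open Crest.Agent.R096.SkC1_961 (E3 Hom3 FoamD)
open Crest.Agent.R096.Mbf_337 (KJ sb)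
open Crest.Agent.R096.Gia_537 (Kc Kc_sub Kc_compact Kc_disj Kc_exact)
open Crest.Agent.R096.Exa_560 (Lev)

variable {δ κ0 R c0 : ℝ} {La Om : Set E3} {ι : Type} {Φ : FoamD δ κ0 R c0 La}
  {T : Tiling Om ι} {f g : E3 → E3} {κ1 κ2 s₁ σ : ℝ} {X : Set Φ.F} {J0 J V : Φ.F → Set ι}
  {ct : Φ.F → ι}
  {A : Φ.F → E3 ≃ᵃ[ℝ] E3} {lam : Φ.F → ℝ} {z : Φ.F → E3} {θ : Φ.F → E3 → E3} {φ : Φ.F → E3 → ℝ}
  {ct' : Φ.F → ι} {r₀ : Φ.F → ℝ}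
  {κ : Type} {S : Sla T κ}
variable [Nonempty S.T3.Cell] {hH : ∀ c, CoreH S.T3 (S.KK c)} {hne : ∃ c, OutK S.T3 S.KK c}
  {Kq : Type} {Qd : Quads (T.RIdx S.HH ⊕ κ) Φ.F Kq} {Jn : Type} {fam : Jn → Φ.F}
  {s₀ : GSt (mK fr3 hH (dis_KK (S := S))) fam}

section main

variable (hLa : IsOpen La) (hLc : IsPreconnected La) (hN : Num δ κ0 R c0 κ2 κ1 s₁)
  (hσ : s₁ ≤ σ)
  (hR : InitR Φ T f g J0 ct' r₀)
  (hC : Mbf_337.Cores Φ T f κ1 κ2 X J0 J V ct A lam z θ φ)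
  (hM : Mesh0 T (Pc Φ.F) (bc (F := Φ.F)) (RF Φ r₀) f (KorJ Φ J0) κ1)
  (hK : TinyK X J S)
  (Xc : Cplx Om (QK (belK S.T3 S.KK)) (dimK (belK S.T3 S.KK) fun c => c.1.dim)
    (setK S.T3 S.KK))
  (h : Lst Φ f J0 J r₀ S hH hne Qd s₀ s₁ σ)
include hLa hN hσ hR hC hM hK h

/-- **the column over a foot of small or large level** -/
theorem col_of {c : κ} {v : E3} (hv : v ∈ frontier (S.K c)) {a : Φ.F}
    (hl : va (Pc Φ.F) (bc (F := Φ.F)) (RF Φ r₀) f a v ≤ θN δ κ0 R c0 κ2 κ1 ∨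
      1 - θN δ κ0 R c0 κ2 κ1 ≤ va (Pc Φ.F) (bc (F := Φ.F)) (RF Φ r₀) f a v) :
    Col Qd s₀ a c v := by
  have hs := hN.hs
  have h00 := hN.h00
  have h1N := hN.hκ1
  have hθ := hN.hθ
  have hη : κ1 + θN δ κ0 R c0 κ2 κ1 < s₁ := by
    unfold ηN at hs
    linarith
  have hosc : ∀ {p : T.RIdx S.HH}, v ∈ P (T.H p.tile) → ∀ {x : E3}, x ∈ P (T.H p.tile) →
      |va (Pc Φ.F) (bc (F := Φ.F)) (RF Φ r₀) f a x -
        va (Pc Φ.F) (bc (F := Φ.F)) (RF Φ r₀) f a v| ≤ κ1 := fun {p} hp {x} hx =>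
    hM.osc p.tile (hK.notJ0 hLa hC hv hp) x hx v hp a
  constructor
  · intro k hk i hi
    have hL : S.InL c i (S.vc c v i) := vc_inL (fr_Bd hv) hi
    obtain ⟨p, hp⟩ := S.T3.cov _ hL.mem
    obtain ⟨b1, b2, b3⟩ := col_tile hv (vc_O (fr_Bd hv) i) hL hp
    refine ⟨p, hp, fun hact => ?_⟩
    obtain ⟨k', ⟨-, x, hx, hx1, -⟩, hk'⟩ := h.act p b3 k hact
    have h4 := hx1 a (hk' a hk)
    have h5 := abs_le.1 (hosc b1 hx)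
    rcases hl with hl | hl
    · linarith [h4.1, h5.2]
    · linarith [h4.2, h5.1]
  · intro i hi w hw hwO hwL hwa
    obtain ⟨p, hp⟩ := S.T3.cov _ hwL.mem
    obtain ⟨b1, b2, b3⟩ := col_tile hv hwO hwL hp
    obtain ⟨x, hx, h4, h5⟩ := h.lay w hw p c b3 b2 hp
    rw [hwa] at h4 h5
    have h6 := abs_le.1 (hosc b1 hx)
    rcases hl with hl | hl
    · linarith [h4, h6.2]
    · linarith [h5, h6.1]

include Xc

/-- **a rope from a deep vertex to a foot of small level** -/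
theorem rope0_fr {c : κ} {v : E3} (hv : v ∈ frontier (S.K c)) (hd : T.dim v = 0) {a : Φ.F}
    (hl : va (Pc Φ.F) (bc (F := Φ.F)) (RF Φ r₀) f a v ≤ θN δ κ0 R c0 κ2 κ1)
    {w₀ : QK (belK S.T3 S.KK)} (hw₀ : DeepS hC r₀ S a w₀)
    (hO : OutK S.T3 S.KK (edC S.T3 v)) :
    ReflTransGen (Ed (lmK fr3 hH (dis_KK (S := S)) hne)
      (Fr0 (lmK fr3 hH (dis_KK (S := S)) hne) Qd s₀ a)) w₀ (oc (edC S.T3 v) hO) := by
  have h2N := hN.two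
  exact zero_S hLa hN hR hC hM hK Xc h hw₀
    (deep_fr hLa hN (by linarith : 2 * κ1 < σ) hR hC hM hK Xc h hv hd hl hO)

/-- **a rope from a deep vertex to a vertex of a tile outside all cores** -/
theorem rope0_o {i : ι} (hi : i ∉ KorJ Φ J) {v x : E3} (hv : v ∈ P (T.H i)) (hd : T.dim v = 0)
    (hx : x ∈ P (T.H i)) {a : Φ.F}
    (hl : va (Pc Φ.F) (bc (F := Φ.F)) (RF Φ r₀) f a x ≤ θN δ κ0 R c0 κ2 κ1)
    {w₀ : QK (belK S.T3 S.KK)} (hw₀ : DeepS hC r₀ S a w₀)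
    (hO : OutK S.T3 S.KK (edC S.T3 v)) :
    ReflTransGen (Ed (lmK fr3 hH (dis_KK (S := S)) hne)
      (Fr0 (lmK fr3 hH (dis_KK (S := S)) hne) Qd s₀ a)) w₀ (oc (edC S.T3 v) hO) :=
  zero_S hLa hN hR hC hM hK Xc h hw₀ (deep_o hLa hN hR hC hK hi hv hd hx hl hO)

include hLc

/-- **a rope from a far vertex to a foot of large level** -/
theorem rope1_fr {c : κ} {v : E3} (hv : v ∈ frontier (S.K c)) (hd : T.dim v = 0) {a : Φ.F}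
    (hl : 1 - θN δ κ0 R c0 κ2 κ1 ≤ va (Pc Φ.F) (bc (F := Φ.F)) (RF Φ r₀) f a v)
    {w₁ : QK (belK S.T3 S.KK)} (hw₁ : FarS Φ f r₀ J S (θN δ κ0 R c0 κ2 κ1) a w₁)
    (hO : OutK S.T3 S.KK (edC S.T3 v)) :
    ReflTransGen (Ed (lmK fr3 hH (dis_KK (S := S)) hne)
      (Fr0 (lmK fr3 hH (dis_KK (S := S)) hne) Qd s₀ a)) w₁ (oc (edC S.T3 v) hO) := by
  have h2N := hN.two
  exact far_S hLa hLc hN hR hC hM hK Xc h hw₁
    (far_fr hLa hN (by linarith : 2 * κ1 < σ) hR hC hM hK Xc h hv hd hl hO)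

/-- **a rope from a far vertex to a vertex of a tile outside all cores** -/
theorem rope1_o {i : ι} (hi : i ∉ KorJ Φ J) {v x : E3} (hv : v ∈ P (T.H i)) (hd : T.dim v = 0)
    (hx : x ∈ P (T.H i)) {a : Φ.F}
    (hl : 1 - θN δ κ0 R c0 κ2 κ1 ≤ va (Pc Φ.F) (bc (F := Φ.F)) (RF Φ r₀) f a x)
    {w₁ : QK (belK S.T3 S.KK)} (hw₁ : FarS Φ f r₀ J S (θN δ κ0 R c0 κ2 κ1) a w₁)
    (hO : OutK S.T3 S.KK (edC S.T3 v)) :
    ReflTransGen (Ed (lmK fr3 hH (dis_KK (S := S)) hne)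
      (Fr0 (lmK fr3 hH (dis_KK (S := S)) hne) Qd s₀ a)) w₁ (oc (edC S.T3 v) hO) :=
  far_S hLa hLc hN hR hC hM hK Xc h hw₁ (far_o hK hi hv hd hx hl hO)

variable {t0 : GSt (meshC T fr3) fam} {lam0 : Jn → E3 → ZMod 2}

/-- **422's core datum at a giant** -/
theorem cd_giant_L {c : κ} {v0 v1 : E3} (hv0 : v0 ∈ frontier (S.K c)) (hd0 : T.dim v0 = 0)
    (hv1 : v1 ∈ frontier (S.K c)) (hd1 : T.dim v1 = 0) (L : Lev T (frontier (S.K c)) Jn)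
    {a : Φ.F} (hact : ∀ k, Sum.inr c ∉ Qd.Act k) (hJ : ∀ j, fam j = a → j ∈ L.J0)
    (hE : ∀ j, fam j = a → ExG S c L j {w | w ∈ s₀.P ∧ s₀.lab w = j})
    (hl : ∀ j, fam j = a → L.u v0 < L.lv j ∧ L.lv j < L.u v1)
    (hl0 : va (Pc Φ.F) (bc (F := Φ.F)) (RF Φ r₀) f a v0 ≤ θN δ κ0 R c0 κ2 κ1)
    (hl1 : 1 - θN δ κ0 R c0 κ2 κ1 ≤ va (Pc Φ.F) (bc (F := Φ.F)) (RF Φ r₀) f a v1)
    {w₀ w₁ : QK (belK S.T3 S.KK)} (hw₀ : DeepS hC r₀ S a w₀)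
    (hw₁ : FarS Φ f r₀ J S (θN δ κ0 R c0 κ2 κ1) a w₁) :
    Cd hne Qd s₀ t0 lam0 w₀ w₁ a (Sum.inr c) (edC S.T3 (S.hc c v0 (S.n c)))
      (edC S.T3 (S.hc c v1 (S.n c))) (outK_hc (Sla.fr_Bd hv0) le_rfl)
      (outK_hc (Sla.fr_Bd hv1) le_rfl) (ub S c L.u) L.lv :=
  cd_giant hv0 hd0 hv1 hd1 L hact hJ hE hl
    (col_of hLa hN hσ hR hC hM hK h hv0 (Or.inl hl0))
    (col_of hLa hN hσ hR hC hM hK h hv1 (Or.inr hl1))
    (rope0_fr hLa hN hσ hR hC hM hK Xc h hv0 hd0 hl0 hw₀ _)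
    (rope1_fr hLa hLc hN hσ hR hC hM hK Xc h hv1 hd1 hl1 hw₁ _)

/-- **422's core datum at an outer tile with the truthful state**; `i0`, `i1` = tiles outside all
cores at the two vertices -/
theorem cd_exact_L {q : ι} (hi : ∀ c, ¬ P (T.H q) ⊆ S.K c) {v0 v1 : E3} (hv0 : v0 ∈ P (T.H q))
    (hd0 : T.dim v0 = 0) (hv1 : v1 ∈ P (T.H q)) (hd1 : T.dim v1 = 0) {a : Φ.F}
    (hact : ∀ k, Qd.In k a → Sum.inl (S.ot q hi) ∉ Qd.Act k)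
    (hlab : ∀ j, fam j = a → Main_4.IsLab T (Lab_184.gPts t0 j) (lam0 j))
    (hst : ∀ j, fam j = a → ∀ w ∈ P (T.H q),
      ((w ∈ s₀.P ∧ s₀.lab w = j) ↔ (w ∈ t0.P ∧ t0.lab w = j)))
    (hval : ∀ j, fam j = a → lam0 j v0 + lam0 j v1 = 1)
    {i0 i1 : ι} (hi0 : i0 ∉ KorJ Φ J) (hvi0 : v0 ∈ P (T.H i0)) (hi1 : i1 ∉ KorJ Φ J)
    (hvi1 : v1 ∈ P (T.H i1))
    (hl0 : va (Pc Φ.F) (bc (F := Φ.F)) (RF Φ r₀) f a v0 ≤ θN δ κ0 R c0 κ2 κ1)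
    (hl1 : 1 - θN δ κ0 R c0 κ2 κ1 ≤ va (Pc Φ.F) (bc (F := Φ.F)) (RF Φ r₀) f a v1)
    {w₀ w₁ : QK (belK S.T3 S.KK)} (hw₀ : DeepS hC r₀ S a w₀)
    (hw₁ : FarS Φ f r₀ J S (θN δ κ0 R c0 κ2 κ1) a w₁) :
    Cd hne Qd s₀ t0 lam0 w₀ w₁ a (Sum.inl (S.ot q hi)) (edC S.T3 v0)
      (edC S.T3 v1) (vx3 hi hv0 hd0).2.2.2.2 (vx3 hi hv1 hd1).2.2.2.2 (fun _ => 0)
      (fun _ => 0) :=
  cd_exact hi hv0 hd0 hv1 hd1 hact hlab hst hval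
    (rope0_o hLa hN hσ hR hC hM hK Xc h hi0 hvi0 hd0 hvi0 hl0 hw₀ _)
    (rope1_o hLa hLc hN hσ hR hC hM hK Xc h hi1 hvi1 hd1 hvi1 hl1 hw₁ _)

end main

end Crest.Agent.R096.Frk_441
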