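import Crest.Agent.R096.Flb4_422
import Crest.Agent.R096.Frk2_441

/-!
# R096 (row 96), DOORS, `Front.lab` (helper422), part 5: `LabIn` of 662's `FrontM`.

`u0S`, `u1S`  : 662's vertices of all families (deep, far, in `ZK`);
`labIn_front` : the literal field `lab` of `FrontM` (quads `qdT`) from one core datum per family.
-/

set_option autoImplicit false
set_option linter.unusedSectionVars false
set_option linter.unusedVariables false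

open Set Relation Module
open scoped Classical

namespace Crest.Agent.R096.Flb_422

open Crest.Agent.R096.Brk1_582 Crest.Agent.R096.Brk2_582 Crest.Agent.R096.Brk3_582
  Crest.Agent.R096.Brk5_582 Crest.Agent.R096.Bsp_628 Crest.Agent.R096.Init_543
  Crest.Agent.R096.Vb_965 Crest.Agent.R096.Msh_715 Crest.Agent.R096.St_147
  Crest.Agent.R096.Seq_213 Crest.Agent.R096.Lm_117 Crest.Agent.R096.Gl_422
  Crest.Agent.R096.SkB_662 Crest.Agent.R096.Cpo_642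
  Crest.Agent.R096.Ce_537 Crest.Agent.R096.Agl5_543
  Crest.Agent.R096.Cp_298 Crest.Agent.R096.Gm_298 Crest.Agent.R096.Ac_117
  Crest.Agent.R096.Sla_184 Crest.Agent.R096.Sla_184.Sla
  Crest.Agent.R096.Rop_441 Crest.Agent.R096.Lmx_662 Crest.Agent.R096.Qdl_662
  Crest.Agent.R096.Frk_441
open Crest.Agent.R096.SkC1_961 (E3 Hom3 FoamD)
open Crest.Agent.R096.Mbf_337 (KJ sb)
open Crest.Agent.R096.Gia_537 (Kc Kc_sub Kc_compact Kc_disj Kc_exact KJ_mono)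
open Crest.Agent.R096.Frn_337 (Ti cti Lay pO)

variable {δ κ0 R c0 : ℝ} {La Om : Set E3} {ι : Type} {Φ : FoamD δ κ0 R c0 La}
  {T : Tiling Om ι} {f g : E3 → E3} {κ1 κ2 s₁ s' : ℝ} {X : Set Φ.F} {J0 J V : Φ.F → Set ι}
  {ct : Φ.F → ι}
  {A : Φ.F → E3 ≃ᵃ[ℝ] E3} {lam : Φ.F → ℝ} {z : Φ.F → E3} {θ : Φ.F → E3 → E3} {φ : Φ.F → E3 → ℝ}
  {ct' : Φ.F → ι} {r₀ : Φ.F → ℝ} {S : Sla T (Ti X)}

section vx

variable [Nonempty S.T3.Cell] {D : Φ.F → Set E3} {q0 q1 : Φ.F → ι} {v0 v1 x0 x1 : Φ.F → E3}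

/-- the deep vertices -/
noncomputable def u0S (hC : Mbf_337.Cores Φ T f κ1 κ2 X J0 J V ct A lam z θ φ)
    (hK : ∀ k : Ti X, S.K k = KJ T (J k.1)) (hv : VxD Φ T f V D q0 q1 v0 v1 x0 x1) (a : Φ.F) :
    QK (belK S.T3 S.KK) :=
  vK ((tinyK_of hK).subK.out (hv.notKor0 hC a).1) (hv.mem0 a) (hv.dim0 a)

/-- the far vertices -/
noncomputable def u1S (hC : Mbf_337.Cores Φ T f κ1 κ2 X J0 J V ct A lam z θ φ)
    (hK : ∀ k : Ti X, S.K k = KJ T (J k.1)) (hv : VxD Φ T f V D q0 q1 v0 v1 x0 x1) (a : Φ.F) :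
    QK (belK S.T3 S.KK) :=
  vK ((tinyK_of hK).subK.out (hv.notKor1 hC a).1) (hv.mem1 a) (hv.dim1 a)

theorem deep_u0 (hLa : IsOpen La) (hN : Num δ κ0 R c0 κ2 κ1 s₁) (hR : InitR Φ T f g J0 ct' r₀)
    (hC : Mbf_337.Cores Φ T f κ1 κ2 X J0 J V ct A lam z θ φ)
    (hK : ∀ k : Ti X, S.K k = KJ T (J k.1)) (hv : VxD Φ T f V D q0 q1 v0 v1 x0 x1) (a : Φ.F) :
    DeepS hC r₀ S a (u0S hC hK hv a) := deep_vK hLa hN hR hC hK hv a _

theorem far_u1 (hLa : IsOpen La) (hN : Num δ κ0 R c0 κ2 κ1 s₁) (hR : InitR Φ T f g J0 ct' r₀)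
    (hC : Mbf_337.Cores Φ T f κ1 κ2 X J0 J V ct A lam z θ φ)
    (hK : ∀ k : Ti X, S.K k = KJ T (J k.1)) (hv : VxD Φ T f V D q0 q1 v0 v1 x0 x1) (a : Φ.F) :
    FarS Φ f r₀ J S (θN δ κ0 R c0 κ2 κ1) a (u1S hC hK hv a) := far_vK hLa hN hR hC hK hv a _

theorem zk_u1 (hC : Mbf_337.Cores Φ T f κ1 κ2 X J0 J V ct A lam z θ φ)
    (hK : ∀ k : Ti X, S.K k = KJ T (J k.1)) (hv : VxD Φ T f V D q0 q1 v0 v1 x0 x1) (a : Φ.F) :
    u1S hC hK hv a ∈ ZK S.T3 S.KK (D a) := vK_far _ (hv.mem1 a) (hv.dim1 a) (hv.far a)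

end vx

variable [Nonempty S.T3.Cell] {hH : ∀ k, CoreH S.T3 (S.KK k)} {hne : ∃ c, OutK S.T3 S.KK c}
  {L : Φ.F → Finset ℝ} {s₀ : GSt (mK fr3 hH (dis_KK (S := S))) (fun j : JJ Φ L => j.1)}
  {hLa : IsOpen La} {hR : InitR Φ T f g J0 ct' r₀}
  {hM : Mesh0 T (Pc Φ.F) (bc (F := Φ.F)) (RF Φ r₀) f (KorJ Φ J0) κ1} {hε : κ1 < s₁}
  {hε1 : κ1 < 1} {D : Φ.F → Set E3} {t0 : GSt (meshC T fr3) (fun j : JJ Φ L => j.1)}
  {lam0 : JJ Φ L → E3 → ZMod 2}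

/-- **`FrontM.lab`** from one core datum per family -/
theorem labIn_front (hN : Num δ κ0 R c0 κ2 κ1 s₁)
    (hC : Mbf_337.Cores Φ T f κ1 κ2 X J0 J V ct A lam z θ φ)
    (hK : ∀ k : Ti X, S.K k = KJ T (J k.1)) (hs' : s₁ + κ1 ≤ s')
    (on : ∀ w ∈ s₀.P, w ∈ (lmK fr3 hH (dis_KK (S := S)) hne).W1)
    (posB : PosS Φ T f s' J0 S s₀) (hD : ∀ a, Body Om f (Pc Φ.F) a (D a))
    {w₀ w₁ : Φ.F → QK (belK S.T3 S.KK)} (hz : ∀ j : JJ Φ L, w₁ j.1 ∈ ZK S.T3 S.KK (D j.1))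
    (cd : ∀ j : JJ Φ L, ∃ co u0 u1 o0 o1 uu tt,
      Cd hne (qdT (fun p => p.tile) (sla_sub S) S.KK hLa hR hM hε hε1) s₀ t0 lam0 (w₀ j.1)
        (w₁ j.1) j.1 co u0 u1 o0 o1 uu tt) :
    ∃ lm, LabIn (lmK fr3 hH (dis_KK (S := S)) hne)
      (qdT (fun p => p.tile) (sla_sub S) S.KK hLa hR hM hε hε1) s₀
      (fun c => GD fr3 hH dis_KK (D c)) (fun c => ZK S.T3 S.KK (D c)) lm w₀ w₁ := by
  have h := lst_of_B (hLa := hLa) (hR := hR) (hM := hM) (hε := hε) (hε1 := hε1) (hne := hne) hC hK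
    hs' on posB
  have h0 := hN.hκ1
  refine labIn_sla D on (fun j => (hD _).cpt) (fun j => (hD _).sub) (fun j => (hD _).fr)
    (fun j => (hD _).triv)
    (supp_S hLa h0 hε hR hC hM (tinyK_of hK) (fun d hd => ⟨⟨d, hd⟩, hK ⟨d, hd⟩⟩) (by linarith) h
      hD) (fun j k hk => act_AD hC h0 (hD _) k hk) hz cd

end Crest.Agent.R096.Flb_422
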