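import Crest.Agent.R096.Tig1_438

/-! Row 96, P3-TIGHT (helper438), part 2: pictures (flags with involutions), the coarse surface
(chords) and the fine surface (pieces of chords and arcs in the cells), and
(T2) `H1` of the fine surface implies `H1` of the coarse one (retightening),
(T1) the converse under the hypothesis that the arcs do not cross in the cell discs. -/

set_option autoImplicit false

namespace Crest.Agent.R096.Tig_438

/-- `H¹(·; Z/2) = 0` of a surface given by flags and involutions `a0` (other vertex), `a1` (other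
edge), `a2` (other tile), restricted to the flags in `S`: a function of the corners whose sum
around every edge vanishes is a function of the vertex plus a function of the tile -/
def H1 {M : Type*} (a0 a1 a2 : M → M) (S : M → Prop) : Prop :=
  ∀ θ : M → ZMod 2, (∀ m, S m → θ (a1 m) = θ m) →
    (∀ m, S m → θ m + θ (a0 m) + (θ (a2 m) + θ (a0 (a2 m))) = 0) →
    ∃ ψ χ : M → ZMod 2, (∀ m, S m → ψ (a1 m) = ψ m) ∧ (∀ m, S m → ψ (a2 m) = ψ m) ∧
      (∀ m, S m → χ (a0 m) = χ m) ∧ (∀ m, S m → χ (a1 m) = χ m) ∧ ∀ m, S m → θ m = ψ m + χ m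

/-- a picture: darts `D` (ends of pieces of chords in the mesh faces), flags `D × Bool` (`Bool` =
one of the two cells of the face) -/
structure Pic (D : Type*) where
  /-- other end of the piece -/
  s : D → D
  /-- straight on through the crossing point; fixed points = ends of the chords -/
  t : D → D
  /-- same end point of the chord, same cell, other face -/
  r : D × Bool → D × Bool
  /-- resolved crossing points -/
  cut : D → Prop
  /-- other end of the arc in the cell, same side of the arc -/
  mu : D × Bool → D × Bool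
  s_s : ∀ d, s (s d) = d
  s_ne : ∀ d, s d ≠ d
  t_t : ∀ d, t (t d) = d
  r_r : ∀ m : D × Bool, t m.1 = m.1 → r (r m) = m
  t_r : ∀ m : D × Bool, t m.1 = m.1 → t (r m).1 = (r m).1
  cut_ne : ∀ d, cut d → t d ≠ d
  cut_t : ∀ d, cut d → cut (t d)
  cut_mu : ∀ m : D × Bool, cut m.1 → cut (mu m).1
  mu_mu : ∀ m : D × Bool, cut m.1 → mu (mu m) = m
  mu_t : ∀ m : D × Bool, cut m.1 → mu (t m.1, m.2) = (t (mu m).1, (mu m).2)

namespace Pic

variable {D : Type*} (K : Pic D)

/-- coarse surface: other end of the chord -/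
noncomputable def A0 (m : D × Bool) : D × Bool := (pr K.s K.t m.1, m.2)

/-- other cell -/
def A2 (m : D × Bool) : D × Bool := (m.1, !m.2)

/-- flags of the coarse surface in a set of sheets -/
def CS (S : D → Prop) (m : D × Bool) : Prop := S m.1 ∧ K.t m.1 = m.1

/-- `H¹ = 0` for the chords -/
def coarse (S : D → Prop) : Prop := H1 K.A0 K.r (Pic.A2 (D := D)) (K.CS S)

open Classical in
/-- fine surface; flags `((d, b), false)` at the piece, `((d, b), true)` at the arc -/
noncomputable def B0 (m : (D × Bool) × Bool) : (D × Bool) × Bool :=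
  if m.2 = true then (K.mu m.1, true) else ((K.s m.1.1, m.1.2), false)

open Classical in
noncomputable def B1 (m : (D × Bool) × Bool) : (D × Bool) × Bool :=
  if K.t m.1.1 = m.1.1 then (K.r m.1, m.2)
  else if K.cut m.1.1 then (m.1, !m.2) else ((K.t m.1.1, m.1.2), m.2)

open Classical in
noncomputable def B2 (m : (D × Bool) × Bool) : (D × Bool) × Bool :=
  if m.2 = true then ((K.t m.1.1, m.1.2), true) else ((m.1.1, !m.1.2), false)

/-- flags of the fine surface in a set of sheets -/
def FS (S : D → Prop) (m : (D × Bool) × Bool) : Prop := S m.1.1 ∧ (m.2 = true → K.cut m.1.1)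

/-- `H¹ = 0` for the fine surface -/
def fine (S : D → Prop) : Prop := H1 K.B0 K.B1 K.B2 (K.FS S)

/-- a set of darts which is a union of sheets -/
structure Sheet (S : D → Prop) : Prop where
  s : ∀ d, S d → S (K.s d)
  t : ∀ d, S d → S (K.t d)
  r : ∀ m : D × Bool, S m.1 → K.t m.1 = m.1 → S (K.r m).1
  mu : ∀ m : D × Bool, S m.1 → K.cut m.1 → S (K.mu m).1

variable {K} {S : D → Prop}

theorem B0_false (m : D × Bool) : K.B0 (m, false) = ((K.s m.1, m.2), false) := by simp [B0]
theorem B0_true (m : D × Bool) : K.B0 (m, true) = (K.mu m, true) := by simp [B0]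
theorem B2_false (m : D × Bool) : K.B2 (m, false) = ((m.1, !m.2), false) := by simp [B2]
theorem B2_true (m : D × Bool) : K.B2 (m, true) = ((K.t m.1, m.2), true) := by simp [B2]
theorem B1_P {m : D × Bool} (h : K.t m.1 = m.1) (b : Bool) : K.B1 (m, b) = (K.r m, b) := by
  simp [B1, h]
theorem B1_cut {m : D × Bool} (h : K.cut m.1) (b : Bool) : K.B1 (m, b) = (m, !b) := by
  simp [B1, K.cut_ne _ h, h]
theorem B1_not {m : D × Bool} (h : K.t m.1 ≠ m.1) (h' : ¬ K.cut m.1) (b : Bool) :
    K.B1 (m, b) = ((K.t m.1, m.2), b) := by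
  simp [B1, h, h']

theorem not_cut_of_P {d : D} (h : K.t d = d) : ¬ K.cut d := fun hc => K.cut_ne d hc h

theorem cut_iff (d : D) : K.cut (K.t d) ↔ K.cut d :=
  ⟨fun h => by have := K.cut_t _ h; rwa [K.t_t] at this, K.cut_t d⟩

theorem z2 (a : ZMod 2) : a + a = 0 := CharTwo.add_self_eq_zero a

/-- **(T2) retightening**: if the fine surface has `H¹ = 0` then so has the surface of the chords
(closed circles are dropped, every closed chord cycle on the boundary of a cell bounds one tile).
No condition on the arcs. -/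
theorem coarse_of_fine [Finite D] (hS : K.Sheet S) (h : K.fine S) : K.coarse S := by
  classical
  intro θ h1 h2
  -- the jump of `θ` across the face along the path of `d`
  set δ : D → ZMod 2 := fun d =>
    if hd : ∃ p, Conn K.s K.t d p ∧ K.t p = p then
      θ (hd.choose, true) + θ (hd.choose, false) else 0 with hδ
  have hpr : ∀ p, S p → K.t p = p →
      θ (pr K.s K.t p, true) + θ (pr K.s K.t p, false) = θ (p, true) + θ (p, false) := by
    intro p hp hpt
    have := h2 (p, true) ⟨hp, hpt⟩
    simp only [A0, A2, Bool.not_true] at this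
    have e : θ (p, true) + θ (pr K.s K.t p, true) + (θ (p, false) + θ (pr K.s K.t p, false))
        = (θ (pr K.s K.t p, true) + θ (pr K.s K.t p, false)) + (θ (p, true) + θ (p, false)) := by
      ring
    rw [e] at this
    exact CharTwo.add_eq_zero.1 this
  have hδP : ∀ d p, S d → Conn K.s K.t d p → K.t p = p → δ d = θ (p, true) + θ (p, false) := by
    intro d p hd hc hp
    have hex : ∃ p, Conn K.s K.t d p ∧ K.t p = p := ⟨p, hc, hp⟩
    have hSp : S p := hc.mem hS.s hS.t hd
    simp only [hδ, dif_pos hex]
    have hq := hex.choose_spec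
    have hpq : Conn K.s K.t p hex.choose := (hc.symm K.s_s K.t_t).trans hq.1
    rcases end_unique K.s_s K.t_t K.s_ne hp hq.2 hpq with e | e
    · rw [e]
    · rw [e, hpr p hSp hp]
  have hδc : ∀ d e, S d → Conn K.s K.t d e → δ e = δ d := by
    intro d e hd hc
    by_cases hex : ∃ p, Conn K.s K.t d p ∧ K.t p = p
    · obtain ⟨p, hp, hpt⟩ := hex
      rw [hδP d p hd hp hpt, hδP e p (hc.mem hS.s hS.t hd) ((hc.symm K.s_s K.t_t).trans hp) hpt]
    · have hex' : ¬ ∃ p, Conn K.s K.t e p ∧ K.t p = p := fun ⟨p, hp, hpt⟩ =>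
        hex ⟨p, hc.trans hp, hpt⟩
      simp only [hδ, dif_neg hex, dif_neg hex']
  have hδs : ∀ d, S d → δ (K.s d) = δ d := fun d hd => hδc _ _ hd (Conn.refl _ _ _).s
  have hδt : ∀ d, S d → δ (K.t d) = δ d := fun d hd => hδc _ _ hd (Conn.refl _ _ _).t
  -- the corner function on the fine surface
  set Θ : (D × Bool) × Bool → ZMod 2 := fun m =>
    if K.t m.1.1 = m.1.1 then θ m.1 else if m.1.2 = true then δ m.1.1 else 0 with hΘ
  have hΘP : ∀ m : (D × Bool) × Bool, K.t m.1.1 = m.1.1 → Θ m = θ m.1 := fun m hm => by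
    simp only [hΘ, if_pos hm]
  have hΘN : ∀ m : (D × Bool) × Bool, K.t m.1.1 ≠ m.1.1 →
      Θ m = if m.1.2 = true then δ m.1.1 else 0 := fun m hm => by
    simp only [hΘ, if_neg hm]
  -- the jump of `Θ` across the face is `δ`
  have hjump : ∀ d, S d → Θ ((d, true), false) + Θ ((d, false), false) = δ d := by
    intro d hd
    by_cases hp : K.t d = d
    · rw [hΘP _ hp, hΘP _ hp, hδP d d hd (Conn.refl _ _ _) hp]
    · rw [hΘN _ hp, hΘN _ hp]; simp
  have hcor : ∀ m, K.FS S m → Θ (K.B1 m) = Θ m := by
    -- `Θ` is a function of the corner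
    rintro ⟨⟨d, β⟩, γ⟩ ⟨hd, hc⟩
    simp only at hd hc
    by_cases hp : K.t d = d
    · rw [B1_P (m := (d, β)) hp, hΘP _ (K.t_r _ hp), hΘP _ hp]
      exact h1 (d, β) ⟨hd, hp⟩
    by_cases hcut : K.cut d
    · rw [B1_cut (m := (d, β)) hcut]
    · have hpt : K.t (K.t d) ≠ K.t d := fun h => hp (by rw [K.t_t] at h; exact h.symm)
      rw [B1_not (m := (d, β)) hp hcut, hΘN ((K.t d, β), γ) hpt, hΘN ((d, β), γ) hp]
      simp only [hδt d hd]
  have hsum : ∀ m, K.FS S m → Θ m + Θ (K.B0 m) + (Θ (K.B2 m) + Θ (K.B0 (K.B2 m))) = 0 := by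
    -- the sum around every edge vanishes
    rintro ⟨⟨d, β⟩, γ⟩ ⟨hd, hc⟩
    simp only at hd hc
    cases γ with
    | false =>
      rw [B2_false, B0_false, B0_false]
      have e1 := hjump d hd
      have e2 := hjump (K.s d) (hS.s _ hd)
      rw [hδs d hd] at e2
      cases β with
      | true =>
        simp only [Bool.not_true]
        have : Θ ((d, true), false) + Θ ((K.s d, true), false) + (Θ ((d, false), false) +
          Θ ((K.s d, false), false)) = (Θ ((d, true), false) + Θ ((d, false), false)) +
          (Θ ((K.s d, true), false) + Θ ((K.s d, false), false)) := by ring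
        rw [this, e1, e2, z2]
      | false =>
        simp only [Bool.not_false]
        have : Θ ((d, false), false) + Θ ((K.s d, false), false) + (Θ ((d, true), false) +
          Θ ((K.s d, true), false)) = (Θ ((d, true), false) + Θ ((d, false), false)) +
          (Θ ((K.s d, true), false) + Θ ((K.s d, false), false)) := by ring
        rw [this, e1, e2, z2]
    | true =>
      have hcut := hc rfl
      rw [B2_true, B0_true, B0_true, K.mu_t _ hcut]
      have hp : K.t d ≠ d := K.cut_ne _ hcut
      have hpt : K.t (K.t d) ≠ K.t d := K.cut_ne _ (K.cut_t _ hcut)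
      have hcm := K.cut_mu (d, β) hcut
      have hm : K.t (K.mu (d, β)).1 ≠ (K.mu (d, β)).1 := K.cut_ne _ hcm
      have hmt : K.t (K.t (K.mu (d, β)).1) ≠ K.t (K.mu (d, β)).1 := K.cut_ne _ (K.cut_t _ hcm)
      rw [hΘN _ hp, hΘN _ hm, hΘN _ hpt, hΘN _ hmt]
      simp only [hδt d hd, hδt _ (hS.mu (d, β) hd hcut)]
      exact z2 _
  obtain ⟨ψ, χ, a, b, c, e, f⟩ := h Θ hcor hsum
  · refine ⟨fun m => ψ (m, false), fun m => χ (m, false), ?_, ?_, ?_, ?_, ?_⟩
    · rintro m ⟨hm, hp⟩
      have := a (m, false) ⟨hm, by simp⟩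
      rwa [B1_P hp] at this
    · rintro m ⟨hm, hp⟩
      have := b (m, false) ⟨hm, by simp⟩
      rwa [B2_false] at this
    · rintro ⟨d, β⟩ ⟨hm, hp⟩
      -- `χ` is constant along the path
      have hg : ∀ x, S x → χ ((K.s x, β), false) = χ ((x, β), false) := fun x hx => by
        have := c ((x, β), false) ⟨hx, by simp⟩
        rwa [B0_false] at this
      have ht : ∀ x, S x → χ ((K.t x, β), false) = χ ((x, β), false) := by
        intro x hx
        by_cases hp : K.t x = x
        · rw [hp]
        by_cases hcut : K.cut x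
        · have h3 := e ((x, β), false) ⟨hx, by simp⟩
          rw [B1_cut hcut] at h3
          have h4 := e ((K.t x, β), false) ⟨hS.t _ hx, by simp⟩
          rw [B1_cut (m := (K.t x, β)) (K.cut_t _ hcut)] at h4
          simp only [Bool.not_false] at h3 h4
          have h5 := b ((x, β), true) ⟨hx, fun _ => hcut⟩
          rw [B2_true] at h5
          have h6 := f ((x, β), true) ⟨hx, fun _ => hcut⟩
          have h7 := f ((K.t x, β), true) ⟨hS.t _ hx, fun _ => K.cut_t _ hcut⟩
          have hpt : K.t (K.t x) ≠ K.t x := K.cut_ne _ (K.cut_t _ hcut)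
          rw [hΘN _ hp] at h6
          rw [hΘN _ hpt] at h7
          simp only [hδt x hx] at h7
          simp only at h5 h6
          rw [h5] at h7
          have h8 : χ ((K.t x, β), true) = χ ((x, β), true) := by
            have := h6.symm.trans h7
            exact (add_left_cancel this).symm
          rw [← h4, h8, h3]
        · have h3 := e ((x, β), false) ⟨hx, by simp⟩
          rwa [B1_not hp hcut] at h3
      have := (conn_pr K.s K.t d).eq_on (f := fun x => χ ((x, β), false)) hS.s hS.t hg ht hm
      exact this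
    · rintro m ⟨hm, hp⟩
      have := e (m, false) ⟨hm, by simp⟩
      rwa [B1_P hp] at this
    · rintro m ⟨hm, hp⟩
      have := f (m, false) ⟨hm, by simp⟩
      rwa [hΘP _ hp] at this

end Pic

end Crest.Agent.R096.Tig_438
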