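import Crest.Agent.R096.Ex6_422
import Crest.Agent.R096.Tig2_438

/-!
# Flags (helper438's format) over systems (`Ex_422.Sys`), part 1

`Over K M` : flags `M` with `a0 a1 a2` over a system `K`; `Over.H1` : `K.h1` gives `Tig_438.H1`
of the flags.
-/

set_option autoImplicit false

namespace Crest.Agent.R096.Flg_422

open Finset Classical Ex_422 Tig_438

variable {V E F I M : Type*}

/-- flags over a system -/
structure Over (K : Sys V E F I) (M : Type*) where
  a0 : M → M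
  a1 : M → M
  a2 : M → M
  vx : M → V
  ed : M → E
  tl : M → F
  a0_a0 : ∀ m, a0 (a0 m) = m
  a1_a1 : ∀ m, a1 (a1 m) = m
  a2_a2 : ∀ m, a2 (a2 m) = m
  a02 : ∀ m, a0 (a2 m) = a2 (a0 m)
  a1_ne : ∀ m, a1 m ≠ m
  vx1 : ∀ m, vx (a1 m) = vx m
  vx2 : ∀ m, vx (a2 m) = vx m
  ed0 : ∀ m, ed (a0 m) = ed m
  ed2 : ∀ m, ed (a2 m) = ed m
  tl0 : ∀ m, tl (a0 m) = tl m
  tl1 : ∀ m, tl (a1 m) = tl m
  vne : ∀ m, vx (a0 m) ≠ vx m
  tne : ∀ m, tl (a2 m) ≠ tl m
  bE : ∀ m v, v ∈ K.bE (ed m) ↔ v = vx m ∨ v = vx (a0 m)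
  bF : ∀ e f, e ∈ K.bF f ↔ ∃ m, tl m = f ∧ ed m = e
  eo : ∀ {m m' : M} {i : I}, tl m ∈ K.S i → tl m' ∈ K.S i → ed m = ed m' →
    m' = m ∨ m' = a0 m ∨ m' = a2 m ∨ m' = a0 (a2 m)
  S2 : ∀ {m : M} {i : I}, tl m ∈ K.S i → tl (a2 m) ∈ K.S i

section

variable {K : Sys V E F I} (O : Over K M)

theorem Over.bE_eq (m : M) : K.bE (O.ed m) = {O.vx m, O.vx (O.a0 m)} := by
  ext v
  rw [O.bE, Finset.mem_insert, Finset.mem_singleton]

theorem Over.sum_bE (m : M) (ψ : V → ZMod 2) :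
    ∑ v ∈ K.bE (O.ed m), ψ v = ψ (O.vx m) + ψ (O.vx (O.a0 m)) := by
  rw [O.bE_eq, Finset.sum_pair (O.vne m).symm]

/-- flags of one tile at one edge -/
theorem Over.same_tile {m m' : M} {i : I} (hm : O.tl m ∈ K.S i) (ht : O.tl m' = O.tl m)
    (he : O.ed m' = O.ed m) : m' = m ∨ m' = O.a0 m := by
  rcases O.eo hm (ht ▸ hm) he.symm with h | h | h | h
  · exact Or.inl h
  · exact Or.inr h
  · exact absurd (h ▸ ht) (O.tne m)
  · rw [h, O.tl0] at ht
    exact absurd ht (O.tne m)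

/-- sums over the boundary of a tile as sums over its flags -/
theorem Over.sum_tile [Fintype M] {i : I} {f : F} (hf : f ∈ K.S i) (g : E → ZMod 2)
    (h : M → ZMod 2) (hg : ∀ m, O.tl m = f → g (O.ed m) = h m + h (O.a0 m)) :
    ∑ e ∈ K.bF f, g e = ∑ m ∈ Finset.univ.filter (fun m => O.tl m = f), h m := by
  have h1 : K.bF f = (Finset.univ.filter (fun m => O.tl m = f)).image O.ed := by
    ext e
    rw [O.bF, Finset.mem_image]
    constructor
    · rintro ⟨m, hm, he⟩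
      exact ⟨m, Finset.mem_filter.2 ⟨Finset.mem_univ _, hm⟩, he⟩
    · rintro ⟨m, hm, he⟩
      exact ⟨m, (Finset.mem_filter.1 hm).2, he⟩
  rw [h1]
  refine Finset.sum_image' h fun m hm => ?_
  have hmf := (Finset.mem_filter.1 hm).2
  have h2 : (Finset.univ.filter (fun m => O.tl m = f)).filter (fun j => O.ed j = O.ed m) =
      {m, O.a0 m} := by
    ext j
    simp only [Finset.mem_filter, Finset.mem_univ, true_and, Finset.mem_insert,
      Finset.mem_singleton]
    constructor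
    · rintro ⟨h3, h4⟩
      exact O.same_tile (i := i) (by rw [hmf]; exact hf) (h3.trans hmf.symm) h4
    · rintro (rfl | rfl)
      · exact ⟨hmf, rfl⟩
      · exact ⟨(O.tl0 m).trans hmf, O.ed0 m⟩
  have h3 : m ≠ O.a0 m := fun h => O.vne m (by rw [← h])
  rw [h2, Finset.sum_pair h3]
  exact hg m hmf

theorem Over.sum_tile_zero [Fintype M] {f : F} (h : M → ZMod 2)
    (h1 : ∀ m, O.tl m = f → h (O.a1 m) = h m) :
    ∑ m ∈ Finset.univ.filter (fun m => O.tl m = f), h m = 0 := by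
  refine Finset.sum_involution (fun m _ => O.a1 m) ?_ ?_ ?_ ?_
  · intro m hm
    rw [h1 m (Finset.mem_filter.1 hm).2]
    exact CharTwo.add_self_eq_zero _
  · intro m _ _
    exact O.a1_ne m
  · intro m hm
    exact Finset.mem_filter.2 ⟨Finset.mem_univ _, (O.tl1 m).trans (Finset.mem_filter.1 hm).2⟩
  · intro m _
    exact O.a1_a1 m

/-- **`h1` of the system gives `H1` of the flags** -/
theorem Over.H1 [Finite M] (i : I) : Tig_438.H1 O.a0 O.a1 O.a2 (fun m => O.tl m ∈ K.S i) := by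
  have := Fintype.ofFinite M
  intro θ h1 h2
  -- the jump along the edges
  set κ : E → ZMod 2 := fun e =>
    if h : ∃ m, O.tl m ∈ K.S i ∧ O.ed m = e then θ (Classical.choose h) +
      θ (O.a0 (Classical.choose h)) else 0 with hκ
  have hval : ∀ m, O.tl m ∈ K.S i → κ (O.ed m) = θ m + θ (O.a0 m) := by
    intro m hm
    have h : ∃ m', O.tl m' ∈ K.S i ∧ O.ed m' = O.ed m := ⟨m, hm, rfl⟩
    simp only [hκ]
    rw [dif_pos h]
    obtain ⟨h3, h4⟩ := Classical.choose_spec h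
    set m' := Classical.choose h
    rcases O.eo hm h3 h4.symm with h5 | h5 | h5 | h5
    · rw [h5]
    · rw [h5, O.a0_a0]
      exact add_comm _ _
    · rw [h5]
      have h6 := h2 m hm
      have aux : ∀ a b c d : ZMod 2, a + b + (c + d) = 0 → c + d = a + b := by decide
      exact aux _ _ _ _ h6
    · rw [h5, O.a0_a0]
      have h6 := h2 m hm
      have aux : ∀ a b c d : ZMod 2, a + b + (c + d) = 0 → d + c = a + b := by decide
      exact aux _ _ _ _ h6
  obtain ⟨ψ, hψ⟩ := K.h1 i κ (by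
    intro f hf
    rw [O.sum_tile hf κ θ (fun m hm => hval m (by rw [hm]; exact hf))]
    exact O.sum_tile_zero θ fun m hm => h1 m (show O.tl m ∈ K.S i by rw [hm]; exact hf))
  have hd : ∀ m, O.tl m ∈ K.S i → θ m + θ (O.a0 m) = ψ (O.vx m) + ψ (O.vx (O.a0 m)) := by
    intro m hm
    rw [← hval m hm, ← O.sum_bE]
    exact hψ _ hm _ ((O.bF _ _).2 ⟨m, rfl, rfl⟩)
  refine ⟨fun m => ψ (O.vx m), fun m => θ m + ψ (O.vx m), ?_, ?_, ?_, ?_, ?_⟩
  · intro m _
    simp only [O.vx1]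
  · intro m _
    simp only [O.vx2]
  · intro m hm
    have h3 := hd m hm
    have aux : ∀ a b c d : ZMod 2, a + b = c + d → b + d = a + c := by decide
    exact aux _ _ _ _ h3
  · intro m hm
    simp only [O.vx1, h1 m hm]
  · intro m _
    have aux : ∀ a b : ZMod 2, a = b + (a + b) := by decide
    exact aux _ _

end

end Crest.Agent.R096.Flg_422
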