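import Crest.Agent.R096.Tig3_438
import Crest.Agent.R096.Coh4_184
import Crest.Agent.R096.Ex1_422

/-! Row 96, P3-TIGHT (helper438), part 4: from flags with involutions to the complexes `Sys` of
helper422. -/

set_option autoImplicit false

namespace Crest.Agent.R096.Tig_438

open Finset Classical

/-- potentials on the cycles of two involutions -/
theorem exists_pot {M : Type*} [Fintype M] (a b : M → M) (ha : ∀ m, a (a m) = m)
    (hb : ∀ m, b (b m) = m) (κ : M → ZMod 2) (hκ : ∀ m, κ (a m) = κ m) (R : M → Prop)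
    (hR : ∀ m, R m ↔ ¬ R (a m))
    (h : ∀ ζ : M → ZMod 2, (∀ m, ζ (a m) = ζ m) → (∀ m, ζ (b m) = ζ m) →
      ∑ m, (if R m then ζ m * κ m else 0) = 0) :
    ∃ θ : M → ZMod 2, (∀ m, θ (b m) = θ m) ∧ ∀ m, θ m + θ (a m) = κ m := by
  let B : M ⊕ M → M → ZMod 2 := fun e v => match e with
    | Sum.inl m => (if v = m then 1 else 0) + (if v = a m then 1 else 0)
    | Sum.inr m => (if v = m then 1 else 0) + (if v = b m then 1 else 0)
  let p : M ⊕ M → Prop := fun e => match e with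
    | Sum.inl m => R m
    | Sum.inr _ => True
  let κ' : M ⊕ M → ZMod 2 := fun e => match e with
    | Sum.inl m => κ m
    | Sum.inr _ => 0
  have hswap : ∀ (c : M → M), (∀ m, c (c m) = m) → ∀ (z : M → ZMod 2) (v : M),
      ∑ m, z m * ((if v = m then 1 else 0) + (if v = c m then 1 else 0)) = z v + z (c v) := by
    intro c hc z v
    simp only [mul_add, mul_ite, mul_one, mul_zero, Finset.sum_add_distrib]
    congr 1
    · rw [Finset.sum_ite_eq]; simp
    · have : ∀ m, (v = c m) ↔ (c v = m) := fun m =>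
        ⟨fun h => by rw [h, hc], fun h => by rw [← h, hc]⟩
      simp only [this]
      rw [Finset.sum_ite_eq]; simp
  obtain ⟨θ, hθ⟩ := Coh_184.exact_of_kills (K := ZMod 2) B p κ' (by
    intro z hz hc
    have h1 : ∀ v, z (Sum.inl v) + z (Sum.inl (a v)) + (z (Sum.inr v) + z (Sum.inr (b v))) = 0 := by
      intro v
      have := hc v
      rw [Fintype.sum_sum_type] at this
      rw [hswap a ha (fun m => z (Sum.inl m)) v, hswap b hb (fun m => z (Sum.inr m)) v] at this
      exact this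
    have h2 : ∀ v, z (Sum.inl v) + z (Sum.inl (a v)) = z (Sum.inr v) + z (Sum.inr (b v)) :=
      fun v => CharTwo.add_eq_zero.1 (h1 v)
    have h3 := h (fun v => z (Sum.inl v) + z (Sum.inl (a v)))
      (fun m => by simp only [ha]; exact add_comm _ _)
      (fun m => by simp only [h2, hb]; exact add_comm _ _)
    rw [Fintype.sum_sum_type]
    have h4 : ∑ m, z (Sum.inr m) * κ' (Sum.inr m) = 0 := by simp [κ']
    rw [h4, add_zero, ← h3]
    refine Finset.sum_congr rfl fun m _ => ?_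
    show z (Sum.inl m) * κ m = _
    by_cases hm : R m
    · rw [if_pos hm]
      have : z (Sum.inl (a m)) = 0 := hz _ ((hR m).1 hm)
      rw [this, add_zero]
    · rw [if_neg hm, hz (Sum.inl m) hm, zero_mul])
  have hsum : ∀ (c : M → M) (m : M),
      ∑ v, ((if v = m then (1 : ZMod 2) else 0) + (if v = c m then 1 else 0)) * θ v =
        θ m + θ (c m) := by
    intro c m
    simp only [add_mul, ite_mul, one_mul, zero_mul, Finset.sum_add_distrib]
    congr 1
    · rw [Finset.sum_ite_eq']; simp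
    · rw [Finset.sum_ite_eq']; simp
  refine ⟨θ, fun m => ?_, fun m => ?_⟩
  · have := hθ (Sum.inr m) trivial
    have h5 : ∑ v, B (Sum.inr m) v * θ v = θ m + θ (b m) := hsum b m
    rw [h5] at this
    exact (CharTwo.add_eq_zero.1 this.symm).symm
  · by_cases hm : R m
    · have := hθ (Sum.inl m) hm
      have h5 : ∑ v, B (Sum.inl m) v * θ v = θ m + θ (a m) := hsum a m
      rw [h5] at this
      exact this.symm
    · have hm' : R (a m) := by
        by_contra h6
        exact hm ((hR m).2 h6)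
      have := hθ (Sum.inl (a m)) hm'
      have h5 : ∑ v, B (Sum.inl (a m)) v * θ v = θ (a m) + θ (a (a m)) := hsum a (a m)
      rw [h5, ha] at this
      have h6 : κ' (Sum.inl (a m)) = κ m := hκ m
      rw [h6] at this
      rw [this]; exact add_comm _ _

/-- an involution without fixed point has a fundamental domain -/
theorem exists_half {M : Type*} [Finite M] (a : M → M) (ha : ∀ m, a (a m) = m)
    (hn : ∀ m, a m ≠ m) : ∃ R : M → Prop, ∀ m, R m ↔ ¬ R (a m) := by
  obtain ⟨n, ⟨e⟩⟩ := Finite.exists_equiv_fin M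
  refine ⟨fun m => e m < e (a m), fun m => ?_⟩
  simp only [ha, not_lt]
  exact ⟨fun h => h.le, fun h => lt_of_le_of_ne h fun h1 => hn m (e.injective h1).symm⟩

/-- a sum over a type with an involution without fixed points, of an invariant function, is zero
in `Z/2` -/
theorem sum_inv_zero {M : Type*} [Fintype M] (a : M → M) (ha : ∀ m, a (a m) = m)
    (hn : ∀ m, a m ≠ m) (f : M → ZMod 2) (hf : ∀ m, f (a m) = f m) (p : M → Prop)
    (hp : ∀ m, p m → p (a m)) :
    ∑ m, (if p m then f m else 0) = 0 := by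
  refine Finset.sum_involution (fun m _ => a m) ?_ ?_ ?_ ?_
  · intro m _
    have : p (a m) ↔ p m := ⟨fun h => by have := hp _ h; rwa [ha] at this, hp m⟩
    simp only [this, hf]
    split_ifs
    · exact CharTwo.add_self_eq_zero _
    · simp
  · intro m _ _
    exact hn m
  · intro m _; exact Finset.mem_univ _
  · intro m _; exact ha m

/-- flags with involutions, carrying names of vertices, edges and sheets -/
structure FC (M V E I : Type*) where
  a0 : M → M
  a1 : M → M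
  a2 : M → M
  i0 : ∀ m, a0 (a0 m) = m
  i1 : ∀ m, a1 (a1 m) = m
  i2 : ∀ m, a2 (a2 m) = m
  c02 : ∀ m, a0 (a2 m) = a2 (a0 m)
  n1 : ∀ m, a1 m ≠ m
  vx : M → V
  v1 : ∀ m, vx (a1 m) = vx m
  v2 : ∀ m, vx (a2 m) = vx m
  v0 : ∀ m, vx (a0 m) ≠ vx m
  eg : M → E
  e0 : ∀ m, eg (a0 m) = eg m
  e2 : ∀ m, eg (a2 m) = eg m
  esurj : Function.Surjective eg
  sh : M → I
  s0 : ∀ m, sh (a0 m) = sh m
  s1 : ∀ m, sh (a1 m) = sh m
  s2 : ∀ m, sh (a2 m) = sh m
  col : I → Bool
  e_eq : ∀ m m', eg m = eg m' → sh m = sh m' → m' = m ∨ m' = a0 m ∨ m' = a2 m ∨ m' = a0 (a2 m)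
  e_vx : ∀ m m', eg m = eg m' → vx m' = vx m ∨ vx m' = vx (a0 m)
  t_ne : ∀ m, ∃ X : M → Prop, (∀ x, X x → X (a0 x)) ∧ (∀ x, X x → X (a1 x)) ∧ X m ∧ ¬ X (a2 m)
  sep : ∀ m m', vx m = vx m' → col (sh m) = col (sh m') → sh m = sh m'
  conn : ∀ (X : M → Prop), (∀ x, X x → X (a0 x)) → (∀ x, X x → X (a1 x)) →
    (∀ x, X x → X (a2 x)) → ∀ m m', X m → sh m' = sh m → X m'
  link : ∀ (X : M → Prop), (∀ x, X x → X (a1 x)) →
    (∀ x, X x → X (a2 x)) → ∀ m m', X m → vx m' = vx m → sh m' = sh m → X m'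
  h1 : ∀ i, H1 a0 a1 a2 (fun m => sh m = i)

namespace FC

variable {M V E I : Type*} (K : FC M V E I)

/-- tiles -/
def Tile : Type _ := Quot (fun m m' : M => m' = K.a0 m ∨ m' = K.a1 m)

/-- the tile of a flag -/
def tl (m : M) : K.Tile := Quot.mk _ m

theorem tl0 (m : M) : K.tl (K.a0 m) = K.tl m :=
  (Quot.sound (r := fun m m' : M => m' = K.a0 m ∨ m' = K.a1 m) (Or.inl rfl)).symm
theorem tl1 (m : M) : K.tl (K.a1 m) = K.tl m :=
  (Quot.sound (r := fun m m' : M => m' = K.a0 m ∨ m' = K.a1 m) (Or.inr rfl)).symm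

theorem exists_tl (f : K.Tile) : ∃ m, K.tl m = f := Quot.exists_rep f

/-- functions constant on tiles -/
theorem tl_eq_of {A : Type*} (g : M → A) (h0 : ∀ m, g (K.a0 m) = g m)
    (h1 : ∀ m, g (K.a1 m) = g m) {m m' : M} (h : K.tl m = K.tl m') : g m = g m' := by
  have : ∀ f : K.Tile, ∃ y : A, ∀ m, K.tl m = f → g m = y := by
    intro f
    obtain ⟨m, rfl⟩ := K.exists_tl f
    refine ⟨g m, ?_⟩
    let G : K.Tile → A := Quot.lift g (by
      rintro a b (rfl | rfl)
      · exact (h0 a).symm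
      · exact (h1 a).symm)
    intro m' hm'
    have h3 : G (K.tl m') = G (K.tl m) := by rw [hm']
    exact h3
  obtain ⟨y, hy⟩ := this (K.tl m')
  rw [hy m h, hy m' rfl]

/-- predicates stable under `a0`, `a1` are constant on tiles -/
theorem tl_ind {X : M → Prop} (h0 : ∀ m, X m → X (K.a0 m)) (h1 : ∀ m, X m → X (K.a1 m))
    {m m' : M} (h : K.tl m = K.tl m') (hm : X m) : X m' := by
  have := K.tl_eq_of X (fun m => propext ⟨fun h => by have := h0 _ h; rwa [K.i0] at this, h0 m⟩)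
    (fun m => propext ⟨fun h => by have := h1 _ h; rwa [K.i1] at this, h1 m⟩) h
  exact this ▸ hm

theorem tl2_ne (m : M) : K.tl (K.a2 m) ≠ K.tl m := by
  intro h
  obtain ⟨X, h0, h1, hm, hn⟩ := K.t_ne m
  exact hn (K.tl_ind h0 h1 h.symm hm)

theorem sh_tl {m m' : M} (h : K.tl m = K.tl m') : K.sh m = K.sh m' :=
  K.tl_eq_of K.sh K.s0 K.s1 h

/-- same tile and same edge -/
theorem same {m m' : M} (ht : K.tl m = K.tl m') (he : K.eg m = K.eg m') :
    m' = m ∨ m' = K.a0 m := by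
  rcases K.e_eq m m' he (K.sh_tl ht) with h | h | h | h
  · exact Or.inl h
  · exact Or.inr h
  · rw [h] at ht; exact absurd ht.symm (K.tl2_ne m)
  · rw [h, K.tl0] at ht; exact absurd ht.symm (K.tl2_ne m)

variable [Fintype M]

/-- edges of a tile -/
noncomputable def bF (f : K.Tile) : Finset E :=
  (Finset.univ.filter fun m => K.tl m = f).image K.eg

theorem mem_bF {f : K.Tile} {e : E} : e ∈ K.bF f ↔ ∃ m, K.tl m = f ∧ K.eg m = e := by
  simp [bF]

omit [Fintype M] in
/-- a flag of the edge -/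
noncomputable def fl (e : E) : M := (K.esurj e).choose

omit [Fintype M] in
theorem eg_fl (e : E) : K.eg (K.fl e) = e := (K.esurj e).choose_spec

omit [Fintype M] in
/-- ends of an edge -/
noncomputable def bE (e : E) : Finset V := {K.vx (K.fl e), K.vx (K.a0 (K.fl e))}

omit [Fintype M] in
theorem bE_eq (m : M) : K.bE (K.eg m) = {K.vx m, K.vx (K.a0 m)} := by
  have h1 := K.eg_fl (K.eg m)
  set n := K.fl (K.eg m) with hn
  have h2 := K.e_vx n m h1
  have h3 := K.e_vx n (K.a0 m) (by rw [K.e0]; exact h1)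
  have h4 := K.v0 m
  unfold bE
  rw [← hn]
  rcases h2 with h2 | h2 <;> rcases h3 with h3 | h3
  · exact absurd (h3.trans h2.symm) h4
  · rw [h2, h3]
  · rw [h2, h3]; exact Finset.pair_comm _ _
  · exact absurd (h3.trans h2.symm) h4

omit [Fintype M] in
theorem mem_bE {m : M} {v : V} : v ∈ K.bE (K.eg m) ↔ v = K.vx m ∨ v = K.vx (K.a0 m) := by
  rw [bE_eq]; simp

omit [Fintype M] in
theorem mem_bE' {e : E} {v : V} : v ∈ K.bE e ↔ ∃ m, K.eg m = e ∧ K.vx m = v := by
  constructor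
  · intro h
    rw [← K.eg_fl e, mem_bE] at h
    rcases h with h | h
    · exact ⟨_, K.eg_fl e, h.symm⟩
    · exact ⟨K.a0 (K.fl e), by rw [K.e0, K.eg_fl], h.symm⟩
  · rintro ⟨m, rfl, rfl⟩
    rw [mem_bE]; exact Or.inl rfl

omit [Fintype M] in
theorem bE_card (e : E) : (K.bE e).card = 2 := by
  rw [← K.eg_fl e, bE_eq]
  exact Finset.card_pair (K.v0 _).symm

omit [Fintype M] in
theorem sum_bE (m : M) (ψ : V → ZMod 2) :
    ∑ v ∈ K.bE (K.eg m), ψ v = ψ (K.vx m) + ψ (K.vx (K.a0 m)) := by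
  rw [bE_eq, Finset.sum_pair (K.v0 m).symm]

/-- sums over the edges of a tile, by a fundamental domain -/
theorem sum_bF (R : M → Prop) (hR : ∀ m, R m ↔ ¬ R (K.a0 m)) (f : K.Tile) (κ : E → ZMod 2) :
    ∑ e ∈ K.bF f, κ e = ∑ m, (if R m ∧ K.tl m = f then κ (K.eg m) else 0) := by
  rw [← Finset.sum_filter]
  have hinj : Set.InjOn K.eg ((Finset.univ.filter fun m => R m ∧ K.tl m = f : Finset M) : Set M) := by
    intro m hm m' hm' he
    simp only [Finset.coe_filter, Finset.mem_univ, true_and, Set.mem_ofPred_eq] at hm hm'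
    rcases K.same (hm.2.trans hm'.2.symm) he with h | h
    · exact h.symm
    · exfalso
      have h1 := (hR m).1 hm.1
      rw [← h] at h1
      exact h1 hm'.1
  rw [← Finset.sum_image (f := κ) hinj]
  refine Finset.sum_congr ?_ fun _ _ => rfl
  ext e
  rw [K.mem_bF, Finset.mem_image]
  constructor
  · rintro ⟨m, hm, rfl⟩
    by_cases h : R m
    · exact ⟨m, by simp [h, hm], rfl⟩
    · refine ⟨K.a0 m, ?_, K.e0 m⟩
      have : R (K.a0 m) := by by_contra h2; exact h ((hR m).2 h2)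
      simp [this, K.tl0, hm]
  · rintro ⟨m, hm, rfl⟩
    simp only [Finset.mem_filter, Finset.mem_univ, true_and] at hm
    exact ⟨m, hm.2, rfl⟩

theorem dd (f : K.Tile) (ψ : V → ZMod 2) : ∑ e ∈ K.bF f, ∑ v ∈ K.bE e, ψ v = 0 := by
  have hn0 : ∀ m, K.a0 m ≠ m := fun m h => K.v0 m (by rw [h])
  obtain ⟨R, hR⟩ := exists_half K.a0 K.i0 hn0
  rw [K.sum_bF R hR]
  simp only [sum_bE]
  have h1 : ∑ m, (if K.tl m = f then ψ (K.vx m) else 0) = 0 := by
    refine sum_inv_zero K.a1 K.i1 K.n1 (fun m => ψ (K.vx m)) (fun m => by rw [K.v1])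
      (fun m => K.tl m = f) (fun m hm => by rw [K.tl1]; exact hm)
  refine Eq.trans ?_ h1
  -- split the sum over all flags in two halves
  have h2 : ∑ m, (if K.tl m = f then ψ (K.vx m) else 0) =
      ∑ m, (if R m ∧ K.tl m = f then ψ (K.vx m) else 0) +
      ∑ m, (if R (K.a0 m) ∧ K.tl m = f then ψ (K.vx m) else 0) := by
    rw [← Finset.sum_add_distrib]
    refine Finset.sum_congr rfl fun m _ => ?_
    by_cases hm : R m
    · have := (hR m).1 hm
      simp [hm, this]
    · have h3 : R (K.a0 m) := by by_contra h2; exact hm ((hR m).2 h2)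
      simp [hm, h3]
  have h3 : ∑ m, (if R (K.a0 m) ∧ K.tl m = f then ψ (K.vx m) else 0) =
      ∑ m, (if R m ∧ K.tl m = f then ψ (K.vx (K.a0 m)) else 0) := by
    refine Finset.sum_nbij' (fun m => K.a0 m) (fun m => K.a0 m) (fun _ _ => Finset.mem_univ _)
      (fun _ _ => Finset.mem_univ _) (fun m _ => K.i0 m) (fun m _ => K.i0 m) fun m _ => ?_
    simp only [K.i0, K.tl0]
  rw [h2, h3, ← Finset.sum_add_distrib]
  refine Finset.sum_congr rfl fun m _ => ?_
  split_ifs
  · rfl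
  · simp

/-- potentials on the tiles -/
theorem exists_theta (i : I) (κ : E → ZMod 2)
    (h : ∀ m, K.sh m = i → ∑ e ∈ K.bF (K.tl m), κ e = 0) :
    ∃ θ : M → ZMod 2, (∀ m, θ (K.a1 m) = θ m) ∧
      ∀ m, K.sh m = i → θ m + θ (K.a0 m) = κ (K.eg m) := by
  have hn0 : ∀ m, K.a0 m ≠ m := fun m h => K.v0 m (by rw [h])
  obtain ⟨R, hR⟩ := exists_half K.a0 K.i0 hn0
  have _ : Finite K.Tile := Finite.of_surjective K.tl fun f => K.exists_tl f
  have _ : Fintype K.Tile := Fintype.ofFinite _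
  obtain ⟨θ, h1, h2⟩ := exists_pot K.a0 K.a1 K.i0 K.i1
    (fun m => if K.sh m = i then κ (K.eg m) else 0) (fun m => by simp only [K.s0, K.e0]) R hR (by
      intro ζ hζ0 hζ1
      -- group by tiles
      have h3 : ∀ m, (if R m then ζ m * (if K.sh m = i then κ (K.eg m) else 0) else 0) =
          ∑ f : K.Tile, (if K.tl m = f then
            (if R m then ζ m * (if K.sh m = i then κ (K.eg m) else 0) else 0) else 0) := by
        intro m
        rw [Finset.sum_ite_eq]; simp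
      rw [Finset.sum_congr rfl fun m _ => h3 m, Finset.sum_comm]
      refine Finset.sum_eq_zero fun f _ => ?_
      obtain ⟨m₀, rfl⟩ := K.exists_tl f
      have h4 : ∀ m, (if K.tl m = K.tl m₀ then
            (if R m then ζ m * (if K.sh m = i then κ (K.eg m) else 0) else 0) else 0) =
          (if K.sh m₀ = i then ζ m₀ else 0) *
            (if R m ∧ K.tl m = K.tl m₀ then κ (K.eg m) else 0) := by
        intro m
        by_cases ht : K.tl m = K.tl m₀
        · have e1 : ζ m = ζ m₀ := K.tl_eq_of ζ hζ0 hζ1 ht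
          have e2 : K.sh m = K.sh m₀ := K.sh_tl ht
          by_cases hr : R m
          · simp only [ht, hr, and_self, if_true, e1, e2]
            split_ifs <;> simp
          · simp [ht, hr]
        · simp [ht]
      rw [Finset.sum_congr rfl fun m _ => h4 m, ← Finset.mul_sum, ← K.sum_bF R hR]
      by_cases hi : K.sh m₀ = i
      · rw [h m₀ hi, mul_zero]
      · simp [hi])
  refine ⟨θ, h1, fun m hm => ?_⟩
  rw [h2 m, if_pos hm]

/-- the system of helper422 -/
noncomputable def toSys : Ex_422.Sys V E K.Tile I where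
  bF := K.bF
  bE := K.bE
  two := K.bE_card
  col := K.col
  S := fun i => {f | ∃ m, K.tl m = f ∧ K.sh m = i}
  disj := by
    rintro i j f ⟨m, rfl, rfl⟩ ⟨m', h, rfl⟩
    exact K.sh_tl h.symm
  dd := fun {i f} _ ψ => K.dd f ψ
  man := by
    rintro i e f ⟨m, rfl, rfl⟩ hef
    obtain ⟨n, hn, rfl⟩ := K.mem_bF.1 hef
    refine ⟨K.tl (K.a2 n), ⟨K.a2 n, rfl, by rw [K.s2]; exact K.sh_tl hn⟩, ?_,
      K.mem_bF.2 ⟨K.a2 n, rfl, K.e2 n⟩, ?_⟩
    · rw [← hn]; exact K.tl2_ne n
    · rintro g ⟨m', rfl, hs⟩ heg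
      obtain ⟨n', hn', hee⟩ := K.mem_bF.1 heg
      have hsh : K.sh n = K.sh n' := by rw [K.sh_tl hn, K.sh_tl hn', hs]
      rcases K.e_eq n n' hee.symm hsh with h | h | h | h
      · left; rw [← hn', h, hn]
      · left; rw [← hn', h, K.tl0, hn]
      · right; rw [← hn', h]
      · right; rw [← hn', h, K.tl0]
  conn := by
    intro i X hX hcl
    by_cases hne : X = ∅
    · exact Or.inl hne
    right
    obtain ⟨f, hf⟩ := Set.nonempty_iff_ne_empty.2 hne
    refine Set.Subset.antisymm hX ?_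
    obtain ⟨m, rfl, hm⟩ := hX hf
    rintro g ⟨m', rfl, hm'⟩
    have key := K.conn (fun x => K.tl x ∈ X) (fun x hx => by rw [K.tl0]; exact hx)
      (fun x hx => by rw [K.tl1]; exact hx) (fun x hx => ?_) m m' hf (hm'.trans hm.symm)
    · exact key
    · obtain ⟨y, hy, hyi⟩ := hX hx
      exact hcl (K.eg x) _ hx (K.mem_bF.2 ⟨x, rfl, rfl⟩) _
        ⟨K.a2 x, rfl, by rw [K.s2, ← K.sh_tl hy, hyi]⟩ (K.mem_bF.2 ⟨K.a2 x, rfl, K.e2 x⟩)
  link := by
    rintro i v X hX hcl f hf ⟨e, hef, hve⟩ g hg ⟨e', heg, hve'⟩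
    -- a flag of `f` at `v`
    have hat : ∀ (t : K.Tile) (e : E), e ∈ K.bF t → v ∈ K.bE e → ∃ m, K.tl m = t ∧ K.vx m = v := by
      intro t e het hve
      obtain ⟨n, hn, rfl⟩ := K.mem_bF.1 het
      rcases K.mem_bE.1 hve with h | h
      · exact ⟨n, hn, h.symm⟩
      · exact ⟨K.a0 n, by rw [K.tl0]; exact hn, h.symm⟩
    obtain ⟨m, rfl, hm⟩ := hat f e hef hve
    obtain ⟨m', rfl, hm'⟩ := hat g e' heg hve'
    obtain ⟨n, hn, hni⟩ := hX hf
    obtain ⟨n', hn', hni'⟩ := hg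
    have key := K.link (fun x => K.tl x ∈ X ∧ K.vx x = v)
      (fun x hx => ⟨by rw [K.tl1]; exact hx.1, by rw [K.v1]; exact hx.2⟩)
      (fun x hx => ⟨?_, by rw [K.v2]; exact hx.2⟩) m m' ⟨hf, hm⟩ (hm'.trans hm.symm) ?_
    · exact key.1
    · obtain ⟨y, hy, hyi⟩ := hX hx.1
      exact hcl (K.eg x) (K.mem_bE.2 (Or.inl hx.2.symm)) _ hx.1 (K.mem_bF.2 ⟨x, rfl, rfl⟩) _
        ⟨K.a2 x, rfl, by rw [K.s2, ← K.sh_tl hy, hyi]⟩ (K.mem_bF.2 ⟨K.a2 x, rfl, K.e2 x⟩)
    · rw [← K.sh_tl hn', hni', ← K.sh_tl hn, hni]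
  h1 := by
    intro i κ hκ
    obtain ⟨θ, t1, t2⟩ := K.exists_theta i κ fun m hm => hκ _ ⟨m, rfl, hm⟩
    obtain ⟨ψ, χ, p1, p2, c0, c1, hθ⟩ := K.h1 i θ (fun m _ => t1 m) (by
      intro m hm
      have e1 := t2 m hm
      have e2 := t2 (K.a2 m) (by rw [K.s2]; exact hm)
      rw [K.e2] at e2
      rw [e1, e2, CharTwo.add_self_eq_zero])
    -- `ψ` is a function of the vertex
    have hv : ∀ m m', K.sh m = i → K.sh m' = i → K.vx m' = K.vx m → ψ m' = ψ m := by
      intro m m' hm hm' hv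
      have := K.link (fun x => K.sh x = i ∧ ψ x = ψ m)
        (fun x hx => ⟨by rw [K.s1]; exact hx.1, by rw [p1 x hx.1]; exact hx.2⟩)
        (fun x hx => ⟨by rw [K.s2]; exact hx.1, by rw [p2 x hx.1]; exact hx.2⟩) m m'
        ⟨hm, rfl⟩ hv (hm'.trans hm.symm)
      exact this.2
    refine ⟨fun v => if h : ∃ m, K.sh m = i ∧ K.vx m = v then ψ h.choose else 0, ?_⟩
    have hval : ∀ m, K.sh m = i → (if h : ∃ m', K.sh m' = i ∧ K.vx m' = K.vx m then ψ h.choose
        else 0) = ψ m := by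
      intro m hm
      have hex : ∃ m', K.sh m' = i ∧ K.vx m' = K.vx m := ⟨m, hm, rfl⟩
      rw [dif_pos hex]
      exact hv m _ hm hex.choose_spec.1 hex.choose_spec.2
    rintro f ⟨m, rfl, hm⟩ e hef
    obtain ⟨n, hn, rfl⟩ := K.mem_bF.1 hef
    have hni : K.sh n = i := by rw [K.sh_tl hn, hm]
    have hni' : K.sh (K.a0 n) = i := by rw [K.s0, hni]
    rw [K.sum_bE, hval n hni, hval _ hni', ← t2 n hni, hθ n hni, hθ _ hni', c0 n hni]
    have : ψ n + χ n + (ψ (K.a0 n) + χ n) = ψ n + ψ (K.a0 n) + (χ n + χ n) := by ring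
    rw [this, CharTwo.add_self_eq_zero, add_zero]
  sep := by
    rintro i j f g v ⟨m, rfl, hm⟩ ⟨m', rfl, hm'⟩ ⟨e, hef, hve⟩ ⟨e', heg, hve'⟩ hc
    have hat : ∀ (t : K.Tile) (e : E), e ∈ K.bF t → v ∈ K.bE e → ∃ m, K.tl m = t ∧ K.vx m = v := by
      intro t e het hve
      obtain ⟨n, hn, rfl⟩ := K.mem_bF.1 het
      rcases K.mem_bE.1 hve with h | h
      · exact ⟨n, hn, h.symm⟩
      · exact ⟨K.a0 n, by rw [K.tl0]; exact hn, h.symm⟩
    obtain ⟨n, hn, hnv⟩ := hat _ _ hef hve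
    obtain ⟨n', hn', hnv'⟩ := hat _ _ heg hve'
    have e1 : K.sh n = i := by rw [K.sh_tl hn, hm]
    have e2 : K.sh n' = j := by rw [K.sh_tl hn', hm']
    rw [← e1, ← e2]
    exact K.sep n n' (hnv.trans hnv'.symm) (by rw [e1, e2]; exact hc)

end FC

end Crest.Agent.R096.Tig_438
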