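import Crest.Agent.R096.Flg1_422
import Crest.Agent.R096.Tig4_438

/-!
# Flags over the exchanged system

`FC.over` : the flags of helper438's `FC` over `FC.toSys`.
`Swap` : the new involution `a2'` (other tile at the copy of the edge); `Over.ex` : the flags over
`Cur.ex`; `swap_H1` : `H1` of the new flags.
-/

set_option autoImplicit false

namespace Crest.Agent.R096.Flg_422

open Finset Classical Ex_422 Tig_438

variable {V E F I Γ M : Type*}

/-- the flags of an `FC` over its system -/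
noncomputable def fcOver [Fintype M] (K : FC M V E I) : Over K.toSys M where
  a0 := K.a0
  a1 := K.a1
  a2 := K.a2
  vx := K.vx
  ed := K.eg
  tl := K.tl
  a0_a0 := K.i0
  a1_a1 := K.i1
  a2_a2 := K.i2
  a02 := K.c02
  a1_ne := K.n1
  vx1 := K.v1
  vx2 := K.v2
  ed0 := K.e0
  ed2 := K.e2
  tl0 := K.tl0
  tl1 := K.tl1
  vne := K.v0
  tne := K.tl2_ne
  bE := fun _ _ => K.mem_bE
  bF := fun _ _ => K.mem_bF
  eo := by
    rintro m m' i ⟨n, hn, hni⟩ ⟨n', hn', hni'⟩ he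
    refine K.e_eq m m' he ?_
    rw [← K.sh_tl hn, ← K.sh_tl hn', hni, hni']
  S2 := by
    rintro m i ⟨n, hn, hni⟩
    exact ⟨K.a2 m, rfl, by rw [K.s2, ← K.sh_tl hn, hni]⟩

section

variable {K : Sys V E F I} (O : Over K M) (C : Cur K Γ)

/-- `a2'` = the flag of the other tile at the copy of the edge -/
structure Swap (a2' : M → M) : Prop where
  all : ∀ m, ∃ i, O.tl m ∈ K.S i
  off : ∀ m, ¬ C.Dbl (O.ed m) → a2' m = O.a2 m
  ed' : ∀ m, C.Dbl (O.ed m) → O.ed (a2' m) = O.ed m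
  vx' : ∀ m, C.Dbl (O.ed m) → O.vx (a2' m) = O.vx m
  tl' : ∀ m, C.Dbl (O.ed m) → O.tl (a2' m) ≠ O.tl m
  ec' : ∀ m, C.Dbl (O.ed m) → C.ec (O.tl (a2' m)) (O.ed m) = C.ec (O.tl m) (O.ed m)

variable {O C} {a2' : M → M} (hs : Swap O C a2')

include hs

theorem Swap.same {m m' : M} (ht : O.tl m' = O.tl m) (he : O.ed m' = O.ed m) :
    m' = m ∨ m' = O.a0 m := by
  obtain ⟨i, hi⟩ := hs.all m
  exact O.same_tile hi ht he

theorem Swap.same_vx {m m' : M} (ht : O.tl m' = O.tl m) (he : O.ed m' = O.ed m)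
    (hv : O.vx m' = O.vx m) : m' = m := by
  rcases hs.same ht he with h | h
  · exact h
  · rw [h] at hv
    exact absurd hv (O.vne m)

theorem Swap.ed2 (m : M) : O.ed (a2' m) = O.ed m := by
  by_cases h : C.Dbl (O.ed m)
  · exact hs.ed' m h
  · rw [hs.off m h, O.ed2]

theorem Swap.vx2 (m : M) : O.vx (a2' m) = O.vx m := by
  by_cases h : C.Dbl (O.ed m)
  · exact hs.vx' m h
  · rw [hs.off m h, O.vx2]

theorem Swap.tne (m : M) : O.tl (a2' m) ≠ O.tl m := by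
  by_cases h : C.Dbl (O.ed m)
  · exact hs.tl' m h
  · rw [hs.off m h]
    exact O.tne m

theorem Swap.ec2 (m : M) : C.ec (O.tl (a2' m)) (O.ed m) = C.ec (O.tl m) (O.ed m) := by
  by_cases h : C.Dbl (O.ed m)
  · exact hs.ec' m h
  · rw [C.ec_off h, C.ec_off h]

variable [Finite Γ]

/-- on a curve edge: a flag at the same copy is in the tile of `m` or of `a2' m` -/
theorem Swap.two {m m' : M} (hd : C.Dbl (O.ed m)) (he : O.ed m' = O.ed m)
    (hc : C.ec (O.tl m') (O.ed m) = C.ec (O.tl m) (O.ed m)) :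
    O.tl m' = O.tl m ∨ O.tl m' = O.tl (a2' m) := by
  obtain ⟨γ, hγ⟩ := hd
  obtain ⟨o, n, -, -, -, hne, heo, hen, hco, hcn, -, -, -, hall⟩ :=
    C.exists_pair hγ (C.ec (O.tl m) (O.ed m))
  have hbF : ∀ x : M, O.ed x ∈ K.bF (O.tl x) := fun x => (O.bF _ _).2 ⟨x, rfl, rfl⟩
  obtain ⟨i, hi⟩ := hs.all m
  obtain ⟨j, hj⟩ := hs.all m'
  obtain ⟨k, hk⟩ := hs.all (a2' m)
  have h1 := hall i _ hi (hbF m) rfl
  have h2 := hall j _ hj (by rw [← he]; exact hbF m') hc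
  have h3 := hall k _ hk (by rw [← hs.ed2 m]; exact hbF (a2' m)) (hs.ec2 m)
  have h4 := hs.tne m
  rcases h1 with h1 | h1 <;> rcases h2 with h2 | h2 <;> rcases h3 with h3 | h3
  · exact absurd (h3.trans h1.symm) h4
  · exact Or.inl (h2.trans h1.symm)
  · exact absurd (h3.trans h1.symm) h4
  · exact Or.inr (h2.trans h3.symm)
  · exact Or.inr (h2.trans h3.symm)
  · exact absurd (h3.trans h1.symm) h4
  · exact Or.inl (h2.trans h1.symm)
  · exact absurd (h3.trans h1.symm) h4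

theorem Swap.inv (m : M) : a2' (a2' m) = m := by
  by_cases hd : C.Dbl (O.ed m)
  · have hd' : C.Dbl (O.ed (a2' m)) := by rw [hs.ed2]; exact hd
    have he : O.ed (a2' (a2' m)) = O.ed m := by rw [hs.ed2, hs.ed2]
    have hc : C.ec (O.tl (a2' (a2' m))) (O.ed m) = C.ec (O.tl m) (O.ed m) := by
      have h1 := hs.ec2 (a2' m)
      rw [hs.ed2] at h1
      rw [h1, hs.ec2]
    rcases hs.two hd he hc with h | h
    · exact hs.same_vx h he (by rw [hs.vx2, hs.vx2])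
    · exact absurd h (hs.tne (a2' m))
  · rw [hs.off m hd, hs.off (O.a2 m) (by rw [O.ed2]; exact hd), O.a2_a2]

theorem Swap.vx0 (m : M) : O.vx (O.a0 (a2' m)) = O.vx (O.a0 m) := by
  have h1 : O.vx (O.a0 (a2' m)) ∈ K.bE (O.ed (a2' m)) := (O.bE _ _).2 (Or.inr rfl)
  rw [hs.ed2] at h1
  rcases (O.bE _ _).1 h1 with h | h
  · exfalso
    apply O.vne (a2' m)
    rw [h, hs.vx2]
  · exact h

theorem Swap.comm (m : M) : O.a0 (a2' m) = a2' (O.a0 m) := by
  by_cases hd : C.Dbl (O.ed m)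
  · have hd0 : C.Dbl (O.ed (O.a0 m)) := by rw [O.ed0]; exact hd
    have he : O.ed (a2' (O.a0 m)) = O.ed m := by rw [hs.ed2, O.ed0]
    have hc : C.ec (O.tl (a2' (O.a0 m))) (O.ed m) = C.ec (O.tl m) (O.ed m) := by
      have h1 := hs.ec2 (O.a0 m)
      rw [O.ed0, O.tl0] at h1
      exact h1
    rcases hs.two hd he hc with h | h
    · exfalso
      have h2 := hs.tne (O.a0 m)
      rw [O.tl0] at h2
      exact h2 h
    · symm
      refine hs.same_vx ?_ ?_ ?_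
      · rw [h, O.tl0]
      · rw [he, O.ed0, hs.ed2]
      · rw [hs.vx2, hs.vx0]
  · rw [hs.off m hd, hs.off (O.a0 m) (by rw [O.ed0]; exact hd), O.a02]

theorem Swap.stable {m : M} {i : I} (h : O.tl m ∈ C.S' i) : O.tl (a2' m) ∈ C.S' i := by
  by_cases hd : C.Dbl (O.ed m)
  · obtain ⟨γ, hγ⟩ := id hd
    obtain ⟨o, n, -, -, -, hne, heo, hen, hco, hcn, -, -, hS, hall⟩ :=
      C.exists_pair hγ (C.ec (O.tl m) (O.ed m))
    have hbF : ∀ x : M, O.ed x ∈ K.bF (O.tl x) := fun x => (O.bF _ _).2 ⟨x, rfl, rfl⟩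
    obtain ⟨j, hj⟩ := hs.all m
    obtain ⟨k, hk⟩ := hs.all (a2' m)
    have h1 := hall j _ hj (hbF m) rfl
    have h3 := hall k _ hk (by rw [← hs.ed2 m]; exact hbF (a2' m)) (hs.ec2 m)
    rcases h1 with h1 | h1 <;> rcases h3 with h3 | h3
    · rw [h3, ← h1]; exact h
    · rw [h3]; rw [h1] at h; exact (hS i).1 h
    · rw [h3]; rw [h1] at h; exact (hS i).2 h
    · rw [h3, ← h1]; exact h
  · rw [hs.off m hd]
    obtain ⟨ν, hν, hanc⟩ := h
    obtain ⟨j, hj⟩ := hs.all m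
    exact ⟨ν, C.rg_edge hj (O.S2 hj) ((O.bF _ _).2 ⟨m, rfl, rfl⟩)
      ((O.bF _ _).2 ⟨O.a2 m, rfl, O.ed2 m⟩) hd hν, hanc⟩

/-- **the flags over the exchanged system** -/
noncomputable def Swap.over [Finite F] : Over C.ex M where
  a0 := O.a0
  a1 := O.a1
  a2 := a2'
  vx := fun m => (O.vx m, C.vt (O.tl m) (O.vx m))
  ed := fun m => (O.ed m, C.ec (O.tl m) (O.ed m))
  tl := O.tl
  a0_a0 := O.a0_a0
  a1_a1 := O.a1_a1
  a2_a2 := hs.inv
  a02 := hs.comm
  a1_ne := O.a1_ne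
  vx1 := fun m => by rw [O.vx1, O.tl1]
  vx2 := fun m => by
    obtain ⟨i, hi⟩ := hs.all m
    obtain ⟨j, hj⟩ := hs.all (a2' m)
    have hbF : ∀ x : M, O.ed x ∈ K.bF (O.tl x) := fun x => (O.bF _ _).2 ⟨x, rfl, rfl⟩
    have hbE : ∀ x : M, O.vx x ∈ K.bE (O.ed x) := fun x => (O.bE _ _).2 (Or.inl rfl)
    have h1 := C.vc_eq hi (hbF m) (hbE m)
    have h2 := C.vc_eq hj (hbF (a2' m)) (hbE (a2' m))
    rw [hs.ed2, hs.vx2, hs.ec2] at h2
    rw [hs.vx2]
    exact Prod.ext rfl (h2.symm.trans h1)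
  ed0 := fun m => by rw [O.ed0, O.tl0]
  ed2 := fun m => by
    rw [hs.ed2]
    exact Prod.ext rfl (hs.ec2 m)
  tl0 := O.tl0
  tl1 := O.tl1
  vne := fun m h => O.vne m (Prod.mk.inj h).1
  tne := hs.tne
  bE := fun m v => by
    obtain ⟨v, β⟩ := v
    obtain ⟨i, hi⟩ := hs.all m
    have hbF : O.ed m ∈ K.bF (O.tl m) := (O.bF _ _).2 ⟨m, rfl, rfl⟩
    change (v, β) ∈ C.bE' _ ↔ _
    rw [C.mem_bE', O.bE]
    simp only [Prod.mk.injEq]
    constructor
    · rintro ⟨h | h, hβ⟩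
      · left
        refine ⟨h, ?_⟩
        rw [← hβ, h]
        exact C.vc_eq hi hbF ((O.bE _ _).2 (Or.inl rfl))
      · right
        refine ⟨h, ?_⟩
        rw [← hβ, h, O.tl0]
        exact C.vc_eq hi hbF ((O.bE _ _).2 (Or.inr rfl))
    · rintro (⟨h, hβ⟩ | ⟨h, hβ⟩)
      · refine ⟨Or.inl h, ?_⟩
        rw [hβ, h]
        exact C.vc_eq hi hbF ((O.bE _ _).2 (Or.inl rfl))
      · refine ⟨Or.inr h, ?_⟩
        rw [hβ, h, O.tl0]
        exact C.vc_eq hi hbF ((O.bE _ _).2 (Or.inr rfl))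
  bF := fun e f => by
    obtain ⟨e, β⟩ := e
    change (e, β) ∈ C.bF' f ↔ _
    rw [C.mem_bF', O.bF]
    constructor
    · rintro ⟨⟨m, rfl, rfl⟩, hβ⟩
      exact ⟨m, rfl, Prod.ext rfl hβ⟩
    · rintro ⟨m, rfl, h⟩
      obtain ⟨h1, h2⟩ := Prod.mk.inj h
      exact ⟨⟨m, rfl, h1⟩, by rw [← h1]; exact h2⟩
  eo := by
    intro m m' i hm hm' he
    obtain ⟨he1, he2⟩ := Prod.mk.inj he
    by_cases hd : C.Dbl (O.ed m)
    · have hc : C.ec (O.tl m') (O.ed m) = C.ec (O.tl m) (O.ed m) := by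
        rw [he2, he1]
      rcases hs.two hd he1.symm hc with h | h
      · rcases hs.same h he1.symm with h1 | h1
        · exact Or.inl h1
        · exact Or.inr (Or.inl h1)
      · rcases hs.same (m := a2' m) h (by rw [hs.ed2]; exact he1.symm) with h1 | h1
        · exact Or.inr (Or.inr (Or.inl h1))
        · exact Or.inr (Or.inr (Or.inr h1))
    · rw [hs.off m hd]
      obtain ⟨p, hp⟩ := hs.all m
      obtain ⟨q, hq⟩ := hs.all m'
      have hpq : p = q := C.same_old_edge hm hm' hp hq ((O.bF _ _).2 ⟨m, rfl, rfl⟩)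
        (by rw [he1]; exact (O.bF _ _).2 ⟨m', rfl, rfl⟩) hd
      subst hpq
      exact O.eo hp hq he1
  S2 := fun h => hs.stable h

/-- **`H1` of the new flags** -/
theorem Swap.H1 [Finite F] [Finite M] (i : I) :
    Tig_438.H1 O.a0 O.a1 a2' (fun m => O.tl m ∈ C.S' i) := hs.over.H1 i

end

/-- the same for helper438's `FC` -/
theorem fc_H1 [Fintype M] [Finite Γ] (K : FC M V E I) (C : Cur K.toSys Γ) (a2' : M → M)
    (off : ∀ m, ¬ C.Dbl (K.eg m) → a2' m = K.a2 m)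
    (on : ∀ m, C.Dbl (K.eg m) → K.eg (a2' m) = K.eg m ∧ K.vx (a2' m) = K.vx m ∧
      K.tl (a2' m) ≠ K.tl m ∧ C.ec (K.tl (a2' m)) (K.eg m) = C.ec (K.tl m) (K.eg m)) (i : I) :
    Tig_438.H1 K.a0 K.a1 a2' (fun m => K.tl m ∈ C.S' i) ∧
      ∀ m, K.tl m ∈ C.S' i → K.tl (a2' m) ∈ C.S' i := by
  have _ : Finite K.Tile := Finite.of_surjective K.tl fun f => K.exists_tl f
  have hs : Swap (fcOver K) C a2' :=
    { all := fun m => ⟨K.sh m, m, rfl, rfl⟩
      off := off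
      ed' := fun m h => (on m h).1
      vx' := fun m h => (on m h).2.1
      tl' := fun m h => (on m h).2.2.1
      ec' := fun m h => (on m h).2.2.2 }
  exact ⟨hs.H1 i, fun m hm => hs.stable hm⟩

end Crest.Agent.R096.Flg_422
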