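import Crest.Agent.R096.Ex6_422

/-!
# Curves of double arcs

A finite type `N` (= pairs (double point, one of its two cells)) with involutions `al` (other end
of the arc) and `be` (other cell) gives the curves `Curve al be` and a term of `Ex_422.Cur`.
-/

set_option autoImplicit false

namespace Crest.Agent.R096.Flg_422

open Finset Classical Ex_422

variable {V E F I N : Type*}

/-- orbits of two involutions -/
def Curve (al be : N → N) : Type _ := Quot (fun n n' : N => n' = al n ∨ n' = be n)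

/-- the curve of `n` -/
def cv (al be : N → N) (n : N) : Curve al be := Quot.mk _ n

section

variable {al be : N → N}

theorem cv_al (n : N) : cv al be (al n) = cv al be n :=
  (Quot.sound (r := fun n n' : N => n' = al n ∨ n' = be n) (Or.inl rfl)).symm

theorem cv_be (n : N) : cv al be (be n) = cv al be n :=
  (Quot.sound (r := fun n n' : N => n' = al n ∨ n' = be n) (Or.inr rfl)).symm

theorem exists_cv (γ : Curve al be) : ∃ n, cv al be n = γ := Quot.exists_rep γ

instance [Finite N] : Finite (Curve al be) :=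
  Finite.of_surjective (cv al be) exists_cv

/-- functions constant on curves -/
theorem cv_eq_of {A : Type*} (g : N → A) (h0 : ∀ n, g (al n) = g n) (h1 : ∀ n, g (be n) = g n)
    {n n' : N} (h : cv al be n = cv al be n') : g n = g n' := by
  let G : Curve al be → A := Quot.lift g (by
    rintro a b (rfl | rfl)
    · exact (h0 a).symm
    · exact (h1 a).symm)
  have h3 : G (cv al be n) = G (cv al be n') := by rw [h]
  exact h3

/-- induction along a curve -/
theorem cv_ind (hal : ∀ n, al (al n) = n) (hbe : ∀ n, be (be n) = n) {X : N → Prop}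
    (h0 : ∀ n, X n → X (al n)) (h1 : ∀ n, X n → X (be n)) {n n' : N}
    (h : cv al be n = cv al be n') (hn : X n) : X n' := by
  have := cv_eq_of X (fun n => propext ⟨fun h => by have := h0 _ h; rwa [hal] at this, h0 n⟩)
    (fun n => propext ⟨fun h => by have := h1 _ h; rwa [hbe] at this, h1 n⟩) h
  exact this ▸ hn

end

/-- **CURVES**: the term of `Cur` given by the double arcs. -/
theorem exists_cur_arcs [Finite V] [Finite E] [Finite F] [Finite N] (K : Sys V E F I)
    (al be : N → N) (hal : ∀ n, al (al n) = n) (hbe : ∀ n, be (be n) = n)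
    (be_ne : ∀ n, be n ≠ n) (ar : N → E) (pt : N → V)
    (har : ∀ n n', ar n = ar n' ↔ n' = n ∨ n' = al n)
    (hpt : ∀ n n', pt n = pt n' ↔ n' = n ∨ n' = be n)
    (hbE : ∀ n v, v ∈ K.bE (ar n) ↔ v = pt n ∨ v = pt (al n))
    (s₀ : Bool → N → I) (s_al : ∀ x n, s₀ x (al n) = s₀ x n) (s_be : ∀ x n, s₀ x (be n) = s₀ x n)
    (scol : ∀ x n, K.col (s₀ x n) = x)
    (on : ∀ x n, ∃ f ∈ K.S (s₀ x n), ar n ∈ K.bF f)
    (hE : ∀ {e : E} {f g : F} {i j : I}, f ∈ K.S i → g ∈ K.S j → K.col i ≠ K.col j →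
      e ∈ K.bF f → e ∈ K.bF g → ∃ n, e = ar n)
    (hV : ∀ {v : V} {f g : F} {i j : I}, f ∈ K.S i → g ∈ K.S j → K.col i ≠ K.col j →
      K.At f v → K.At g v → ∃ n, v = pt n)
    (root : I → F) (root_mem : ∀ i, root i ∈ K.S i) :
    ∃ C : Cur K (Curve al be), (∀ γ e, e ∈ C.c γ ↔ ∃ n, cv al be n = γ ∧ ar n = e) ∧
      (∀ x n, C.s x (cv al be n) = s₀ x n) ∧ C.root = root := by
  have := Fintype.ofFinite N
  set c : Curve al be → Finset E := fun γ =>
    (Finset.univ.filter (fun n => cv al be n = γ)).image ar with hc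
  have hmem : ∀ γ e, e ∈ c γ ↔ ∃ n, cv al be n = γ ∧ ar n = e := by
    intro γ e
    simp only [hc, Finset.mem_image, Finset.mem_filter, Finset.mem_univ, true_and]
  -- the two ends of an arc are different
  have hpne : ∀ n, pt (al n) ≠ pt n := by
    intro n h
    have h1 := K.two (ar n)
    have h2 : K.bE (ar n) = {pt n} := by
      ext v
      rw [hbE, h, Finset.mem_singleton, or_self]
    rw [h2, Finset.card_singleton] at h1
    omega
  -- vertices on a curve
  have hvert : ∀ γ e v, e ∈ c γ → v ∈ K.bE e → ∃ n, cv al be n = γ ∧ ar n = e ∧ pt n = v := by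
    intro γ e v he hv
    obtain ⟨n, hn, rfl⟩ := (hmem γ e).1 he
    rcases (hbE n v).1 hv with h | h
    · exact ⟨n, hn, rfl, h.symm⟩
    · exact ⟨al n, (cv_al n).trans hn, ((har n (al n)).2 (Or.inr rfl)).symm, h.symm⟩
  set s : Bool → Curve al be → I := fun x => Quot.lift (s₀ x) (by
    rintro a b (rfl | rfl)
    · exact (s_al x a).symm
    · exact (s_be x a).symm) with hs
  have hsv : ∀ x n, s x (cv al be n) = s₀ x n := fun _ _ => rfl
  have hvd : ∀ {γ δ : Curve al be} {e e' : E} {v : V}, e ∈ c γ → e' ∈ c δ → v ∈ K.bE e →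
      v ∈ K.bE e' → γ = δ := by
    intro γ δ e e' v he he' hv hv'
    obtain ⟨n, rfl, -, h1⟩ := hvert γ e v he hv
    obtain ⟨n', rfl, -, h2⟩ := hvert δ e' v he' hv'
    rcases (hpt n n').1 (h1.trans h2.symm) with h | h
    · rw [h]
    · rw [h, cv_be]
  have hex := exists_cur (Γ := Curve al be) K c ?_ ?_ ?_ hvd s ?_ ?_ root root_mem ?_ ?_
  · obtain ⟨C, hC1, hC2, hC3⟩ := hex
    refine ⟨C, ?_, ?_, hC3⟩
    · rw [hC1]; exact hmem
    · rw [hC2]; exact hsv
  · intro γ
    obtain ⟨n, hn⟩ := exists_cv γ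
    exact ⟨ar n, (hmem γ _).2 ⟨n, hn, rfl⟩⟩
  · rintro γ v ⟨e, he, hv⟩
    obtain ⟨n, hn, -, hnv⟩ := hvert γ e v he hv
    have hne : ar n ≠ ar (be n) := by
      intro h
      rcases (har n (be n)).1 h with h1 | h1
      · exact be_ne n h1
      · apply hpne n
        rw [← h1]
        exact ((hpt n (be n)).2 (Or.inr rfl)).symm
    refine ⟨ar n, (hmem γ _).2 ⟨n, hn, rfl⟩, ar (be n),
      (hmem γ _).2 ⟨be n, (cv_be n).trans hn, rfl⟩, hne, (hbE n v).2 (Or.inl hnv.symm),
      (hbE (be n) v).2 (Or.inl (hnv.symm.trans ((hpt n (be n)).2 (Or.inr rfl)))), ?_⟩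
    intro e' he' hv'
    obtain ⟨n', -, rfl, hn'⟩ := hvert γ e' v he' hv'
    rcases (hpt n n').1 (hnv.trans hn'.symm) with h | h
    · left; rw [h]
    · right; rw [h]
  · intro γ P hP e he v hv hPv e' he' w hw
    obtain ⟨n, hn, rfl, hnv⟩ := hvert γ e v he hv
    obtain ⟨n', hn', rfl, hn'w⟩ := hvert γ e' w he' hw
    rw [← hnv] at hPv
    rw [← hn'w]
    refine (cv_ind hal hbe (X := fun m => cv al be m = γ ∧ P (pt m)) ?_ ?_
      (hn.trans hn'.symm) ⟨hn, hPv⟩).2
    · rintro m ⟨hm, hPm⟩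
      refine ⟨(cv_al m).trans hm, ?_⟩
      exact hP (ar m) ((hmem γ _).2 ⟨m, hm, rfl⟩) (pt m) ((hbE m _).2 (Or.inl rfl)) (pt (al m))
        ((hbE m _).2 (Or.inr rfl)) hPm
    · rintro m ⟨hm, hPm⟩
      refine ⟨(cv_be m).trans hm, ?_⟩
      rw [← (hpt m (be m)).2 (Or.inr rfl)]
      exact hPm
  · intro x γ
    obtain ⟨n, rfl⟩ := exists_cv γ
    exact scol x n
  · intro x γ e he
    obtain ⟨n, rfl, rfl⟩ := (hmem γ e).1 he
    exact on x n
  · intro γ e e' v f g i j hf hg hij hef heg hv he' hv'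
    obtain ⟨n, rfl⟩ := hE hf hg hij hef heg
    have h1 : ar n ∈ c (cv al be n) := (hmem _ _).2 ⟨n, rfl, rfl⟩
    rw [← hvd h1 he' hv hv']
    exact h1
  · intro v f g i j hf hg hij hfv hgv
    obtain ⟨n, rfl⟩ := hV hf hg hij hfv hgv
    exact ⟨cv al be n, ar n, (hmem _ _).2 ⟨n, rfl, rfl⟩, (hbE n _).2 (Or.inl rfl)⟩

end Crest.Agent.R096.Flg_422
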