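import Crest.Agent.R96.Els3_538

/-!
# Row 96, p ≤ 2, (EL), [N] of 538 #12014: number of neighbours of a `Far` outer tile
-/

set_option autoImplicit false
set_option linter.unusedSectionVars false

open Set Metric

namespace Crest.Agent.R096.Fnb_748

open Crest.Agent.R096.Msh_715 Crest.Agent.R096.Msh_715.Tiling Crest.Agent.R096.Mal_874
open Crest.Agent.R096.Msb_432 Crest.Agent.R096.Msh_810 Crest.Agent.R096.Cut_874
open Crest.Agent.R96.Els_538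

noncomputable section

variable {E : Type*} [NormedAddCommGroup E] [NormedSpace ℝ E]
variable {J : Type*} (M : MD E 3 J) {k : J → ℕ} (hk : M.Sc k) (a : Fin 3 → ℝ)
  {v : J → E} (hv : M.Adm v)

/-- integers in an interval of length `≤ 3` -/
theorem card_Icc_le {α β : ℝ} (h : β - α ≤ 3) : (Finset.Icc ⌈α⌉ ⌊β⌋).card ≤ 4 := by
  rw [Int.card_Icc]
  have h1 := Int.floor_le β
  have h2 := Int.le_ceil α
  have h3 : ((⌊β⌋ - ⌈α⌉ : ℤ) : ℝ) ≤ 3 := by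
    push_cast
    linarith
  have h4 : ⌊β⌋ - ⌈α⌉ ≤ 3 := by exact_mod_cast h3
  omega

/-- cubes of the scale `κ'` which may meet the cube `(κ, z)` -/
def Fz (κ : ℕ) (z : Fin 3 → ℤ) (κ' : ℕ) : Finset (Fin 3 → ℤ) :=
  Fintype.piFinset fun i => Finset.Icc ⌈(2 : ℝ) ^ κ' / 2 ^ κ * z i - 1⌉
    ⌊(2 : ℝ) ^ κ' / 2 ^ κ * (z i + 1)⌋

theorem card_Fz {κ κ' : ℕ} (h : κ' ≤ κ + 1) (z : Fin 3 → ℤ) : (Fz κ z κ').card ≤ 64 := by
  unfold Fz
  rw [Fintype.card_piFinset]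
  have hc : (2 : ℝ) ^ κ' / 2 ^ κ ≤ 2 := by
    rw [div_le_iff₀ (by positivity)]
    calc (2 : ℝ) ^ κ' ≤ 2 ^ (κ + 1) := pow_le_pow_right₀ (by norm_num) h
      _ = 2 * 2 ^ κ := by rw [pow_succ, mul_comm]
  calc ∏ i : Fin 3, (Finset.Icc ⌈(2 : ℝ) ^ κ' / 2 ^ κ * z i - 1⌉
        ⌊(2 : ℝ) ^ κ' / 2 ^ κ * (z i + 1)⌋).card
      ≤ ∏ _i : Fin 3, 4 := Finset.prod_le_prod' fun i _ => card_Icc_le (by nlinarith)
    _ = 64 := by simp

theorem mem_Fz {κ κ' : ℕ} {z z' : Fin 3 → ℤ} {y : Fin 3 → ℝ} (h : y ∈ Cu a κ z)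
    (h' : y ∈ Cu a κ' z') : z' ∈ Fz κ z κ' := by
  have hc : (0 : ℝ) < 2 ^ κ' / 2 ^ κ := by positivity
  unfold Fz
  rw [Fintype.mem_piFinset]
  intro i
  rw [mem_Cu] at h h'
  have h1 := h i
  have h2 := h' i
  have e : ps a κ' y i = 2 ^ κ' / 2 ^ κ * ps a κ y i := by
    unfold ps
    field_simp
  rw [e] at h2
  rw [Finset.mem_Icc, Int.ceil_le, Int.le_floor]
  constructor
  · nlinarith [mul_le_mul_of_nonneg_left h1.1 hc.le, h2.2]
  · nlinarith [mul_le_mul_of_nonneg_left h1.2 hc.le, h2.1]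

/-- **number of neighbours of a far outer tile** -/
theorem far_nb {t : SIx M hk a hv} (ht : Far M hk a hv t) :
    {t' | (P ((meshS M hk a hv).H t') ∩ P ((meshS M hk a hv).H t)).Nonempty}.ncard ≤ 1000 := by
  classical
  obtain ⟨x0, hx0⟩ := (meshS M hk a hv).ne t
  have hx0' := I_sub_P _ hx0
  obtain ⟨p, hp, hpR⟩ := touch_far ht hx0' hx0'
  have key : ∀ t' : SIx M hk a hv,
      (P ((meshS M hk a hv).H t') ∩ P ((meshS M hk a hv).H t)).Nonempty →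
      ∃ q, t' = oS M hk a hv q ∧ Rgo M hk a hv q ∧ q.1.par.1.1.k ≤ p.1.par.1.1.k + 1 ∧
        p.1.par.1.1.k ≤ q.1.par.1.1.k + 1 ∧
        q.1.par.1.1.z ∈ Fz p.1.par.1.1.k p.1.par.1.1.z q.1.par.1.1.k := by
    rintro t' ⟨x, hx', hx⟩
    obtain ⟨q, hq, hqR⟩ := touch_far ht hx hx'
    rw [hp] at hx
    rw [hq] at hx'
    have hx1 : x ∈ P ((M.ad hk a hv).T0.H p.1.par) := by rw [← hpR.hP]; exact hx
    have hx2 : x ∈ P ((M.ad hk a hv).T0.H q.1.par) := by rw [← hqR.hP]; exact hx'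
    have h1 : q.1.par.1.1.k ≤ p.1.par.1.1.k + 1 :=
      (tile_k_le (φ := M.φ) (D := (M.ad hk a hv).D) hx2).trans
        (K_le_succ (mem_at.1 (show p.1.par ∈ (tiling M.φ (M.ad hk a hv).D).at_ x from hx1)))
    have h2 : p.1.par.1.1.k ≤ q.1.par.1.1.k + 1 :=
      (tile_k_le (φ := M.φ) (D := (M.ad hk a hv).D) hx1).trans
        (K_le_succ (mem_at.1 (show q.1.par ∈ (tiling M.φ (M.ad hk a hv).D).at_ x from hx2)))
    rw [hpR.P_eq] at hx
    rw [hqR.P_eq] at hx'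
    exact ⟨q, hq, hqR, h1, h2, mem_Fz a hx hx'⟩
  have : Nonempty (M.OIx hk a hv) := ⟨p⟩
  choose! qq hqq using key
  set κ := p.1.par.1.1.k with hκ
  set z := p.1.par.1.1.z with hz
  set S : Finset (Σ _ : ℕ, (Fin 3 → ℤ)) := (Finset.Icc (κ - 1) (κ + 1)).sigma (Fz κ z) with hS
  have h1 : {t' | (P ((meshS M hk a hv).H t') ∩ P ((meshS M hk a hv).H t)).Nonempty}.ncard ≤
      (S : Set (Σ _ : ℕ, (Fin 3 → ℤ))).ncard := by
    refine Set.ncard_le_ncard_of_injOn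
      (fun t' => (⟨(qq t').1.par.1.1.k, (qq t').1.par.1.1.z⟩ : Σ _ : ℕ, (Fin 3 → ℤ))) ?_ ?_
      S.finite_toSet
    · intro t' ht'
      obtain ⟨-, -, h3, h4, h5⟩ := hqq t' ht'
      rw [Finset.mem_coe, hS, Finset.mem_sigma]
      have h6 : κ - 1 ≤ (qq t').1.par.1.1.k := by omega
      exact ⟨Finset.mem_Icc.2 ⟨h6, h3⟩, h5⟩
    · intro t1 ht1 t2 ht2 h12
      simp only [Sigma.mk.injEq] at h12
      obtain ⟨e1, r1, -⟩ := hqq t1 ht1
      obtain ⟨e2, r2, -⟩ := hqq t2 ht2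
      rw [e1, e2]
      exact r1.inj r2 h12.1 (eq_of_heq h12.2)
  refine h1.trans ?_
  rw [Set.ncard_coe_finset, hS, Finset.card_sigma]
  calc ∑ s ∈ Finset.Icc (κ - 1) (κ + 1), (Fz κ z s).card
      ≤ ∑ _s ∈ Finset.Icc (κ - 1) (κ + 1), 64 :=
        Finset.sum_le_sum fun s hs => card_Fz (Finset.mem_Icc.1 hs).2 z
    _ = (Finset.Icc (κ - 1) (κ + 1)).card * 64 := by rw [Finset.sum_const, smul_eq_mul]
    _ ≤ 3 * 64 := by
        refine Nat.mul_le_mul_right _ ?_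
        rw [Nat.card_Icc]
        omega
    _ ≤ 1000 := by norm_num

end

end Crest.Agent.R096.Fnb_748
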