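import Crest.Agent.R096.Mdd4_360
import Crest.Agent.R096.Bxc1_635

/-!
Row 96 (S0127), NO0 for `p ≥ 3` (helper635): 360's `Fine` / `Cores` (Fns2-4, Mdd4) for the foam `fN`
(= `Np_962.ΦN`; outer stage of ratio `1/4`, concentric hole of ratio `lam c / 2`).

* `hcore_fN` : 124's `HCore` for `fN` (the core of the push is the box of ratio `1/4`);
* `lam_le_tt` : off the open box of ratio `3/4 lam`: `lam ≤ tt`;
* `fineS_nrT` : 360's `fineS_nr` with any threshold `θ`;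
* **`cf_mdN`** : `Mbf_337.Cores` and `Mbf_337.Fine` for all meshes of an `MD`.
-/

set_option autoImplicit false
set_option linter.style.longLine false
set_option linter.unusedSectionVars false

open MeasureTheory Set Filter Topology Metric

namespace Crest.Agent.R096.Fnn_635

open Crest.Agent.R096.Bsp_628 Crest.Agent.R096.Brk1_582 Crest.Agent.R096.Brk2_582
open Crest.Agent.R096.Brk3_582
open Crest.Agent.R096.Brk5_582
open Crest.Agent.R096.Msh_715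
open Crest.Agent.R96.Push_899
open Crest.Agent.R096.SkC1_961 (E3 Hom3 IsPush FoamD)
open Crest.Agent.R096.EaX_766 (cbx)
open Crest.Agent.R096.Bxs_627 (ctr cb CoriE qb zz qb_W zz_lo zz_hi)
open Crest.Agent.R096.Core_124
open Crest.Agent.R096.Mal_874 Crest.Agent.R096.Msh_810
open Crest.Agent.R096.Fns_360 Crest.Agent.R096.Mdd_360
open Crest.Agent.R096.Bxc1_635

noncomputable section

variable {δ κ0 R c0 : ℝ} {La Om : Set E3}

/-- `HCore` for `fN` -/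
theorem hcore_fN {F : Set (Bx (Fin 3))} (bf : BoxFoam La F δ κ0) (cmp : Cmp F R) (hκ : 1 ≤ κ0)
    (hc : 0 < c0) (hc2 : c0 * (8 * κ0) ≤ 1) (lam : F → ℝ) (hl : ∀ c, 0 < lam c)
    (hl4 : ∀ c, lam c ≤ 1 / 4) (c : F) :
    HCore (fN bf cmp hκ hc hc2 lam hl hl4) c ∅ 0 (side (qb c.1 (bf.pos _ c.2)))
      (coreBF (qb c.1 (bf.pos _ c.2)) (ctr c.1)) (1 / 4) (zz c.1 (1 / 4)) where
  shape := by
    have hQ := bf.pos _ c.2
    have hW : ∀ i, 0 < (qb c.1 hQ).W i := fun i => Bx.side_pos hQ i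
    have hs := shapeBF hκ hW (fun i j => (c.1.side_le_sz i).trans (bf.asp _ c.2 j)) (ctr_mid hQ)
    have hc8 : c0 ≤ 1 / (8 * κ0) := by rw [le_div_iff₀ (by linarith)]; exact hc2
    have hsd := side_pos hW
    exact ⟨hc, hc8.trans (by rw [div_le_one (by linarith)]; linarith), hsd, le_rfl, hW,
      fun i => (mul_le_mul_of_nonneg_right hc8 hsd.le).trans (hs.lo1 i), hs.lo2,
      fun i => (mul_le_mul_of_nonneg_right hc8 hsd.le).trans (hs.hi1 i), hs.hi2,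
      fun i => (mul_le_mul_of_nonneg_right hc8 (hW i).le).trans (hs.wd i),
      fun i hi => absurd hi (Finset.notMem_empty i)⟩
  inner := (hole_cb (bf.pos _ c.2) (hl c) ((hl4 c).trans (by norm_num))).inner
    fun i => Bx.side_pos (bf.pos _ c.2) i
  pu := rfl
  l0 := by norm_num
  l1 := by norm_num
  lo k := by
    have hW : ∀ i, 0 < (qb c.1 (bf.pos _ c.2)).W i := fun i => Bx.side_pos (bf.pos _ c.2) i
    rw [coreBF_lo hW, qb_W, zz_lo]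
    ring
  hi k := by
    have hW : ∀ i, 0 < (qb c.1 (bf.pos _ c.2)).W i := fun i => Bx.side_pos (bf.pos _ c.2) i
    rw [coreBF_hi hW, qb_W, zz_hi]
    ring

/-- off the open box of ratio `3/4 lam`, `tt ≥ lam` -/
theorem lam_le_tt {Q : Bx (Fin 3)} (hQ : Q.Pos) {lam : ℝ} (hl : 0 < lam) (hl4 : lam ≤ 1 / 4) {y : E3}
    (hy : y ∉ interior (cbx Q (3 / 4 * lam))) :
    lam ≤ tt (coreBF (qb Q hQ) (ctr Q)) (cb Q hQ (lam / 2) (half_pos hl).le) y := by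
  by_contra hcon
  rw [not_le, tt_lt_iff] at hcon
  apply hy
  rw [mem_interior_iff_mem_nhds]
  have hW : ∀ i, 0 < (qb Q hQ).W i := fun i => Bx.side_pos hQ i
  have hn : Nest (cb Q hQ (lam / 2) (half_pos hl).le) (coreBF (qb Q hQ) (ctr Q)) :=
    ((hole_cb hQ hl (hl4.trans (by norm_num))).inner hW).nest
  have h1 : ∀ k, |y k - ctr Q k| < 3 / 4 * lam * Q.side k / 2 := by
    intro k
    have h2 := (gg_lt_iff hn y k lam).1 (hcon k)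
    have hs := Bx.side_pos hQ k
    unfold cl ch at h2
    rw [Bxs_627.cb_lo, Bxs_627.cb_hi, coreBF_lo hW, coreBF_hi hW, qb_W] at h2
    have h3 : 0 < lam * Q.side k := by positivity
    have h4 : 0 < lam * (lam * Q.side k) := by positivity
    rw [abs_lt]
    constructor <;> nlinarith [h2.1, h2.2]
  have h4 : ∀ᶠ y' in 𝓝 y, ∀ k, |y' k - ctr Q k| < 3 / 4 * lam * Q.side k / 2 := by
    rw [eventually_all]
    intro k
    have hc : ContinuousAt (fun y' : E3 => |y' k - ctr Q k|) y :=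
      (((continuous_apply k).continuousAt).sub continuousAt_const).abs
    exact hc.eventually (gt_mem_nhds (h1 k))
  filter_upwards [h4] with y' hy'
  exact fun k => (hy' k).le

/-- the constant of the inner tiles, threshold `θ` -/
def KIT (δ κ0 R c0 θ : ℝ) : ℝ := KF δ R * Kpu (κ0 / c0) c0 θ

theorem KF_nonneg (hR : 0 < R) : 0 ≤ KF δ R := hR.le.trans (le_max_left _ _)

/-- **inner tiles, in 124's language**: `f` maps `S` into the brick, `tt ≥ θ` -/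
theorem fineS_nrT {Φ : FoamD δ κ0 R c0 La} (hLa : IsOpen La) (hδ : 0 < δ) (hR : 0 < R) {c : Φ.F}
    {P : Finset (Fin 3)} {κ ρ : ℝ} {C : Box (Fin 3)} {lam : ℝ} {z : E3}
    (H : HCore Φ c P κ ρ C lam z) {f : E3 → E3} {S : Set E3} {θ η ε : ℝ} (hθ : 0 < θ)
    (hθ1 : θ ≤ 1) (hS : ∀ x ∈ S, f x ∈ c.1.set ∧ θ ≤ tt C (Φ.B c) (f x))
    (hη : ∀ x ∈ S, ∀ y ∈ S, ‖f y - f x‖ ≤ η * c.1.sz) (hε : KIT δ κ0 R c0 θ * η ≤ ε) :
    FineS Φ f ε S := by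
  have hc0 := H.shape.c0
  refine fineS_brick Φ hLa hδ hR (c := c) (L := Kpu (κ0 / c0) c0 θ) (η := η)
    (fun x hx => ⟨(hS x hx).1, fun h => ?_⟩) (Kpu_nonneg _ _ _) (fun x hx y hy => ?_) hη (by
      rw [← mul_assoc]; exact hε)
  · have h1 := (tt_le_zero_iff H.inner.nest (f x)).2 h
    have h2 := (hS x hx).2
    linarith
  · rw [H.pu]
    refine psi_lip_off H.shape H.inner (fun i j => ?_) hθ hθ1 (hS x hx).2 (hS y hy).2
    have h5 : (bbox Φ c).W i ≤ κ0 * (bbox Φ c).W j := (H.side_le i).trans (H.side_ge j)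
    have h6 := H.shape.wd j
    have h8 := H.shape.W0 j
    have hk := H.k1
    rw [div_mul_eq_mul_div, le_div_iff₀ hc0]
    nlinarith

/-- **INNER TILES for `fN`** -/
theorem fineS_innerN {F : Set (Bx (Fin 3))} (hLa : IsOpen La) (hδ : 0 < δ) (hR : 0 < R)
    (bf : BoxFoam La F δ κ0) (cmp : Cmp F R) (hκ0 : 1 ≤ κ0)
    (hc : 0 < c0) (hc2 : c0 * (8 * κ0) ≤ 1) (lam : F → ℝ) (hl : ∀ c, 0 < lam c)
    (hl4 : ∀ c, lam c ≤ 1 / 4) {lam0 : ℝ} (h00 : 0 < lam0) (hl0 : ∀ c, lam0 ≤ lam c)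
    {f : E3 → E3} {κ1 κ2 : ℝ} (hκ1 : 0 ≤ κ1) (hκ : κ1 * κ0 ≤ 1 / 8) {c : F} {A : E3 ≃ᵃ[ℝ] E3}
    (hcor : CoriE Om f A c.1 (lam c) κ1 κ2) {S : Set E3} (hSO : S ⊆ Om)
    (hSA : ∀ x ∈ S, x ∉ interior (A ⁻¹' cbx c.1 (lam c))) (hSc : ∀ x ∈ S, f x ∈ c.1.set)
    {κw η : ℝ} (hw : ∀ x ∈ S, ‖f x - A x‖ ≤ κw * c.1.sz)
    (hη : ∀ x ∈ S, ∀ y ∈ S, ‖A y - A x‖ ≤ η * c.1.sz) {ε : ℝ}
    (hε : KIT δ κ0 R c0 lam0 * (η + 2 * κw) ≤ ε) :
    FineS (fN bf cmp hκ0 hc hc2 lam hl hl4) f ε S := by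
  refine fineS_nrT hLa hδ hR (hcore_fN bf cmp hκ0 hc hc2 lam hl hl4 c) h00
    ((hl0 c).trans ((hl4 c).trans (by norm_num))) (fun x hx => ⟨hSc x hx, ?_⟩)
    (η := η + 2 * κw) (fun x hx y hy => ?_) hε
  · refine (hl0 c).trans (lam_le_tt (bf.pos _ c.2) (hl c) (hl4 c) ?_)
    exact off_core (bf.pos _ c.2) (bf.asp _ c.2) (hl c) hκ1 hκ hcor (hSO hx) (hSA x hx)
  · have h1 := hw x hx
    have h2 := hw y hy
    have h3 := hη x hx y hy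
    have e : f y - f x = (f y - A y) + (A y - A x) - (f x - A x) := by abel
    rw [e]
    refine (norm_sub_le _ _).trans ?_
    have h4 := norm_add_le (f y - A y) (A y - A x)
    have e2 : (η + 2 * κw) * c.1.sz = κw * c.1.sz + η * c.1.sz + κw * c.1.sz := by ring
    change _ ≤ (η + 2 * κw) * c.1.sz
    rw [e2]
    linarith

/-- **FINE for `X = univ`**, `fN` -/
theorem fine_coresMN {F : Set (Bx (Fin 3))} (bf : BoxFoam La F δ κ0) (cmp : Cmp F R) (hκ0 : 1 ≤ κ0)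
    (hc : 0 < c0) (hc2 : c0 * (8 * κ0) ≤ 1) (lam : F → ℝ) (hl : ∀ c, 0 < lam c)
    (hl4 : ∀ c, lam c ≤ 1 / 4)
    {f : E3 → E3} {κ1 κ2 : ℝ} (hκ1 : 0 ≤ κ1) (hκ : κ1 * κ0 ≤ 1 / 8) {ι : Type} {T : Tiling Om ι}
    {ct : F → ι} {A : F → E3 ≃ᵃ[ℝ] E3} (hcor : ∀ c, CoriE Om f (A c) c.1 (lam c) κ1 κ2)
    (htile : ∀ c, P (T.H (ct c)) = A c ⁻¹' cbx c.1 (lam c)) {ε : ℝ} {ρ : E3 → ℝ}
    (hρ : ∀ x ∈ Om, FineS (fN bf cmp hκ0 hc hc2 lam hl hl4) f ε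
      (closedBall x (ρ x) ∩ (Om ∩ offO f (O34 lam))))
    (hT : ∀ i, (∀ c, i ≠ ct c) → (∃ x ∈ Om, P (T.H i) ⊆ closedBall x (ρ x)) ∨
      FineS (fN bf cmp hκ0 hc hc2 lam hl hl4) f ε (P (T.H i))) :
    Mbf_337.Fine (fN bf cmp hκ0 hc hc2 lam hl hl4) T f ε (fun c => {ct c}) := by
  refine mbf_fine fun i hi => ?_
  have hi' : ∀ c, i ≠ ct c := fun c h => hi c h
  rcases hT i hi' with ⟨x, hx, h⟩ | h
  · refine (hρ x hx).mono fun y hy => ⟨h hy, ?_⟩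
    exact tile_off bf lam hl hκ1 hκ hcor htile hi' hy
  · exact h

/-- the size function for `fN`: the holes lie in the open `3/4` cores -/
theorem hole_subN {F : Set (Bx (Fin 3))} (bf : BoxFoam La F δ κ0) (cmp : Cmp F R) (hκ0 : 1 ≤ κ0)
    (hc : 0 < c0) (hc2 : c0 * (8 * κ0) ≤ 1) (lam : F → ℝ) (hl : ∀ c, 0 < lam c)
    (hl4 : ∀ c, lam c ≤ 1 / 4) (c : F) :
    ((fN bf cmp hκ0 hc hc2 lam hl hl4).B c).S ⊆ O34 lam c :=
  hole_sub (bf.pos _ c.2) (hl c)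

/-- **size function for `fN`** (`exists_rho_off` with `O := O34 lam`) -/
theorem exists_rhoN {F : Set (Bx (Fin 3))} (bf : BoxFoam La F δ κ0) (cmp : Cmp F R) (hκ0 : 1 ≤ κ0)
    (hc : 0 < c0) (hc2 : c0 * (8 * κ0) ≤ 1) (lam : F → ℝ) (hl : ∀ c, 0 < lam c)
    (hl4 : ∀ c, lam c ≤ 1 / 4) (hOm : IsOpen Om) (hLa : IsOpen La) (hδ : 0 < δ)
    (hR : 0 < R) {f : E3 → E3} (hfm : MapsTo f Om La) (hfc : ContinuousOn f Om) {ε : ℝ}
    (hε : 0 < ε) :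
    ∃ ρ : E3 → ℝ, (∀ x y, ρ x ≤ ρ y + dist x y) ∧ (∀ x, 0 ≤ ρ x) ∧ (∀ x, ρ x ≤ 1) ∧
      (∀ x, 0 < ρ x ↔ x ∈ Om) ∧ ∀ x ∈ Om, closedBall x (ρ x) ⊆ Om ∧
        FineS (fN bf cmp hκ0 hc hc2 lam hl hl4) f ε
          (closedBall x (ρ x) ∩ (Om ∩ offO f (O34 lam))) :=
  exists_rho_off (fN bf cmp hκ0 hc hc2 lam hl hl4) hOm hLa hδ hR hfm hfc
    (O := O34 lam) (fun c => isOpen_interior) (hole_subN bf cmp hκ0 hc hc2 lam hl hl4) hε

section mesh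

variable {J : Type*} (M : MD E3 3 J) {k : J → ℕ} (hk : M.Sc k) (a : Fin 3 → ℝ) {v : J → E3}
  (hv : M.Adm v)

/-- **the inner tiles of the aligned mesh are fine**, threshold `θ` -/
theorem fineS_innerMT (hLa : IsOpen La) (hδ : 0 < δ) (hR : 0 < R) {Φ : FoamD δ κ0 R c0 La}
    {f : E3 → E3} (X : RD M) {j : J} {c : Φ.F} {P' : Finset (Fin 3)} {κ ρ : ℝ} {C : Box (Fin 3)}
    {lam : ℝ} {z : E3} (H : HCore Φ c P' κ ρ C lam z) (A : E3 → E3) {κw uA η ε θ : ℝ}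
    (hθ : 0 < θ) (hθ1 : θ ≤ 1)
    (hN : ∀ x ∈ (M.Bk v j).N, x ∉ interior (M.Bk v j).Kc →
      (f x ∈ c.1.set ∧ θ ≤ tt C (Φ.B c) (f x)) ∧ ‖f x - A x‖ ≤ κw * c.1.sz)
    (huA0 : 0 ≤ uA) (huA : ∀ x y, ‖A y - A x‖ ≤ uA * dist ((M.Q j).ψ x) ((M.Q j).ψ y))
    (hη : uA * (X.R j / 2 ^ (M.Q j).kc) ≤ η * c.1.sz) (hε : KIT δ κ0 R c0 θ * (η + 2 * κw) ≤ ε)
    (i : M.IIx hk a hv j) (hi : i ≠ M.core hk a hv j) :
    FineS Φ f ε (P ((M.mesh hk a hv).H (Sum.inr ⟨j, i⟩))) := by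
  have hoff := fun x hx => inner_off M hk a hv i hi (x := x) hx
  refine fineS_nrT hLa hδ hR H hθ hθ1 (S := P ((M.mesh hk a hv).H (Sum.inr ⟨j, i⟩)))
    (fun x hx => (hN x (hoff x hx).1 (hoff x hx).2).1) (η := η + 2 * κw) (fun x hx y hy => ?_) hε
  have h1 := (hN x (hoff x hx).1 (hoff x hx).2).2
  have h2 := (hN y (hoff y hy).1 (hoff y hy).2).2
  have h3 : ‖A y - A x‖ ≤ η * c.1.sz := by
    refine (huA x y).trans (le_trans ?_ hη)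
    exact mul_le_mul_of_nonneg_left (inner_size_all M hk a hv X i hi hx hy) huA0
  have e : f y - f x = (f y - A y) + (A y - A x) - (f x - A x) := by abel
  rw [e]
  refine (norm_sub_le _ _).trans ?_
  have h4 := norm_add_le (f y - A y) (A y - A x)
  have e2 : (η + 2 * κw) * c.1.sz = κw * c.1.sz + η * c.1.sz + κw * c.1.sz := by ring
  change _ ≤ (η + 2 * κw) * c.1.sz
  rw [e2]
  linarith

end mesh

section univ

variable {F : Set (Bx (Fin 3))} (M : MD E3 3 F) {k : F → ℕ}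
  (hk : M.Sc k) (a : Fin 3 → ℝ) {v : F → E3} (hv : M.Adm v)

/-- **`Mbf_337.Cores` on the aligned mesh, all bricks exact**, `fN`. -/
theorem cores_MDN (bf : BoxFoam La F δ κ0) (cmp : Cmp F R) (hκ0 : 1 ≤ κ0)
    (hc : 0 < c0) (hc2 : c0 * (8 * κ0) ≤ 1) (lam : F → ℝ) (hl : ∀ c, 0 < lam c)
    (hl4 : ∀ c, lam c ≤ 1 / 4) {f : E3 → E3} {κ1 κ2 : ℝ} (h0 : 0 ≤ κ2) (h2 : κ2 ≤ 1 / 4)
    (hκ1 : 0 ≤ κ1) (hκ12 : κ1 * κ0 ≤ κ2) {A : F → E3 ≃ᵃ[ℝ] E3}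
    (hK : ∀ c, (M.Q c).Kc = A c ⁻¹' cbx c.1 (lam c))
    (hcor : ∀ c, CoriE (M.φ ⁻¹' M.D0.Om) f (trA (A c) (v c)) c.1 (lam c) κ1 κ2) :
    Mbf_337.Cores (fN bf cmp hκ0 hc hc2 lam hl hl4) (M.mesh hk a hv) f κ1 κ2 univ
      (fun c => {ctM M hk a hv c}) (fun c => {ctM M hk a hv c}) (fun c => {ctM M hk a hv c})
      (ctM M hk a hv) (fun c => trA (A c) (v c)) lam (fun c => zz c.1 (lam c)) (fun _ x => x)
      (fun _ _ => 0) :=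
  coresN bf cmp hκ0 hc hc2 lam hl hl4 h0 h2 hκ1 hκ12 (ctM_inj M hk a hv) hcor
    fun c => P_core_tr M hk a hv (hK c)

/-- **`Mbf_337.Fine` on the aligned mesh, all bricks exact**, `fN`. -/
theorem fine_MDN (hLa : IsOpen La) (hδ : 0 < δ) (hR : 0 < R) (bf : BoxFoam La F δ κ0) (cmp : Cmp F R)
    (hκ0 : 1 ≤ κ0) (hc : 0 < c0) (hc2 : c0 * (8 * κ0) ≤ 1) (lam : F → ℝ) (hl : ∀ c, 0 < lam c)
    (hl4 : ∀ c, lam c ≤ 1 / 4) {lam0 : ℝ} (h00 : 0 < lam0) (hl0 : ∀ c, lam0 ≤ lam c)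
    {f : E3 → E3} {κ1 κ2 : ℝ} (hκ1 : 0 ≤ κ1) (hκ : κ1 * κ0 ≤ 1 / 8)
    {A : F → E3 ≃ᵃ[ℝ] E3} (hK : ∀ c, (M.Q c).Kc = A c ⁻¹' cbx c.1 (lam c))
    (hcor : ∀ c, CoriE (M.φ ⁻¹' M.D0.Om) f (trA (A c) (v c)) c.1 (lam c) κ1 κ2) (X : RD M)
    {ρ : (Fin 3 → ℝ) → ℝ} {ε : ℝ} (hρ : ∀ u, M.D0.ρ u ≤ ρ u)
    (hF : ∀ x, M.φ x ∈ M.D0.Om → FineS (fN bf cmp hκ0 hc hc2 lam hl hl4) f ε
      (M.φ ⁻¹' closedBall (M.φ x) (ρ (M.φ x)) ∩ ((M.φ ⁻¹' M.D0.Om) ∩ offO f (O34 lam))))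
    {κw η uA : F → ℝ} (hN : ∀ c, ∀ x ∈ (M.Bk v c).N, f x ∈ c.1.set ∧
      ‖f x - trA (A c) (v c) x‖ ≤ κw c * c.1.sz)
    (huA0 : ∀ c, 0 ≤ uA c)
    (huA : ∀ c, ∀ x y, ‖A c y - A c x‖ ≤ uA c * dist ((M.Q c).ψ x) ((M.Q c).ψ y))
    (hη : ∀ c, uA c * (X.R c / 2 ^ (M.Q c).kc) ≤ η c * c.1.sz)
    (hε : ∀ c, KIT δ κ0 R c0 lam0 * (η c + 2 * κw c) ≤ ε) :
    Mbf_337.Fine (fN bf cmp hκ0 hc hc2 lam hl hl4) (M.mesh hk a hv) f ε
      (fun c => {ctM M hk a hv c}) := by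
  refine mbf_fine fun t ht => ?_
  rcases t with p | ⟨c, i⟩
  · refine (fineS_outer M hk a hv hρ hF p).mono fun x hx => ⟨hx, ?_⟩
    exact tile_off bf lam hl hκ1 hκ hcor (fun c => P_core_tr M hk a hv (hK c))
      (fun c h => ht c h) hx
  · have hi : i ≠ M.core hk a hv c := by
      rintro rfl
      exact ht c rfl
    refine fineS_innerMT M hk a hv hLa hδ hR (Φ := fN bf cmp hκ0 hc hc2 lam hl hl4) X
      (hcore_fN bf cmp hκ0 hc hc2 lam hl hl4 c) (fun x => trA (A c) (v c) x) (κw := κw c)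
      (η := η c) h00 ((hl0 c).trans ((hl4 c).trans (by norm_num))) (fun x hx hx' => ?_) (huA0 c)
      (fun x y => ?_) (hη c) (hε c) i hi
    · have h1 := hN c x hx
      have hxO : x ∈ M.φ ⁻¹' M.D0.Om := M.Vsub c (MD.N_mem hv c hx)
      have hK' : (M.Bk v c).Kc = trA (A c) (v c) ⁻¹' cbx c.1 (lam c) := by
        rw [← M.P_core hk a hv c]
        exact P_core_tr M hk a hv (hK c)
      refine ⟨⟨h1.1, (hl0 c).trans (lam_le_tt (bf.pos _ c.2) (hl c) (hl4 c) ?_)⟩, h1.2⟩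
      refine off_core (bf.pos _ c.2) (bf.asp _ c.2) (hl c) hκ1 hκ (hcor c) hxO ?_
      rw [← hK']
      exact hx'
    · have h1 := huA c (x - v c) (y - v c)
      rw [trA_apply, trA_apply]
      refine h1.trans (le_of_eq ?_)
      rw [map_sub, map_sub, dist_sub_right]

/-- **all bricks exact: `Cores` and `Fine` for every admissible mesh**, `fN` (360's `cf_md`). -/
theorem cf_mdN {f : E3 → E3} (hLa : IsOpen La) (hδ : 0 < δ) (hR : 0 < R) (bf : BoxFoam La F δ κ0)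
    (cmp : Cmp F R) (hκ0 : 1 ≤ κ0) (hc : 0 < c0) (hc2 : c0 * (8 * κ0) ≤ 1) (lam : F → ℝ)
    (hl : ∀ c, 0 < lam c) (hl4 : ∀ c, lam c ≤ 1 / 4) {lam0 : ℝ} (h00 : 0 < lam0)
    (hl0 : ∀ c, lam0 ≤ lam c) {κ1 κ2 τ η ε : ℝ} (hκ1 : 0 ≤ κ1) (hτ : 0 < τ) (hτ2 : τ ≤ κ2)
    (h2 : κ2 ≤ 1 / 4) (hκ8 : (κ1 + τ) * κ0 ≤ 1 / 8) (hκ12 : (κ1 + τ) * κ0 ≤ κ2 - τ)
    {A : F → E3 ≃ᵃ[ℝ] E3} (hcor : ∀ c, CoriE Om f (A c) c.1 (lam c) κ1 κ2)
    (hφ : M.φ = ContinuousLinearEquiv.refl ℝ E3) (hOmM : M.φ ⁻¹' M.D0.Om = Om)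
    (hK : ∀ c, (M.Q c).Kc = A c ⁻¹' cbx c.1 (lam c))
    (hroom : ∀ c, cthickening (M.r c) (M.Q c).N ⊆ A c ⁻¹' cbx c.1 ((1 + 2 * κ2) * lam c))
    (hsm : ∀ c (v : E3), ‖v‖ ≤ M.r c → ‖(A c).linear v‖ ≤ τ * (lam c * c.1.sz) ∧
        ∀ k, |(A c).linear v k| ≤ τ * (lam c * c.1.side k)) (X : RD M)
    {uA : F → ℝ} (huA0 : ∀ c, 0 ≤ uA c)
    (huA : ∀ c, ∀ x y, ‖A c y - A c x‖ ≤ uA c * dist ((M.Q c).ψ x) ((M.Q c).ψ y))
    (hη : ∀ c, uA c * (X.R c / 2 ^ (M.Q c).kc) ≤ η * c.1.sz)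
    (hε : KIT δ κ0 R c0 lam0 * (η + 2 * (κ1 + τ)) ≤ ε)
    (hF : ∀ x ∈ Om, FineS (fN bf cmp hκ0 hc hc2 lam hl hl4) f ε
      (closedBall x (M.D0.ρ x) ∩ (Om ∩ offO f (O34 lam)))) :
    Mbf_337.Cores (fN bf cmp hκ0 hc hc2 lam hl hl4) (M.mesh hk a hv) f (κ1 + τ) (κ2 - τ) univ
      (fun c => {ctM M hk a hv c}) (fun c => {ctM M hk a hv c}) (fun c => {ctM M hk a hv c})
      (ctM M hk a hv) (fun c => trA (A c) (v c)) lam (fun c => zz c.1 (lam c)) (fun _ x => x)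
      (fun _ _ => 0) ∧
    Mbf_337.Fine (fN bf cmp hκ0 hc hc2 lam hl hl4) (M.mesh hk a hv) f ε
      (fun c => {ctM M hk a hv c}) := by
  have hv' : ∀ c, ‖v c‖ ≤ M.r c := by
    intro c
    have h1 := hv c
    rw [hφ] at h1
    exact h1
  have hcor' : ∀ c, CoriE (M.φ ⁻¹' M.D0.Om) f (trA (A c) (v c)) c.1 (lam c) (κ1 + τ) (κ2 - τ) := by
    intro c
    rw [hOmM]
    exact cor_tr (hcor c) (hsm c (v c) (hv' c))
  refine ⟨cores_MDN M hk a hv bf cmp hκ0 hc hc2 lam hl hl4 (by linarith) (by linarith)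
    (by linarith) hκ12 hK hcor', ?_⟩
  have hlκ : ∀ c, (1 / 2 + κ2) * lam c + κ1 * κ0 * lam c < 1 / 2 := by
    intro c
    have h1 := hl c
    have h3 := hl4 c
    have h4 : κ1 * κ0 ≤ 1 / 8 := by nlinarith
    nlinarith
  refine fine_MDN M hk a hv hLa hδ hR bf cmp hκ0 hc hc2 lam hl hl4 h00 hl0 (by linarith) hκ8 hK
    hcor' X (ρ := M.D0.ρ) (fun _ => le_rfl) ?_ (κw := fun _ => κ1 + τ) (η := fun _ => η) ?_ huA0
    huA hη (fun _ => hε)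
  · intro x hx
    have hxO : x ∈ Om := by
      rw [← hOmM]
      exact hx
    have h1 := hF x hxO
    rw [hOmM]
    rw [hφ]
    exact h1
  · intro c x hx
    have hxN : x - v c ∈ (M.Q c).N := ((M.Q c).mem_N_tr (v c) x).1 hx
    have hxt : x ∈ cthickening (M.r c) (M.Q c).N := by
      refine mem_cthickening_of_dist_le x (x - v c) _ _ hxN ?_
      rw [dist_eq_norm, sub_sub_cancel]
      exact hv' c
    have hxA := hroom c hxt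
    obtain ⟨hxO, h5⟩ := img_open (bf.pos _ c.2) (bf.asp _ c.2) (hl c) hκ1 (hlκ c) (hcor c) hxA
    refine ⟨Bx.mem_set.2 fun i => ⟨(h5 i).1.le, (h5 i).2.le⟩, ?_⟩
    have h6 := (hcor c x (Or.inr fun i => (hxA i).trans (le_of_eq (by ring)))).2
    have h7 := (hsm c (v c) (hv' c)).1
    have e : f x - trA (A c) (v c) x = (f x - A c x) + (A c).linear (v c) := by
      rw [← trA_sub (A c) (v c) x]; abel
    rw [e]
    refine (norm_add_le _ _).trans ?_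
    have hs := Bx.sz_pos (bf.pos _ c.2)
    have h8 : lam c * c.1.sz ≤ c.1.sz := by nlinarith [hl4 c]
    have h9 : (κ1 + τ) * (lam c * c.1.sz) ≤ (κ1 + τ) * c.1.sz :=
      mul_le_mul_of_nonneg_left h8 (by linarith)
    linarith

end univ

end

end Crest.Agent.R096.Fnn_635
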