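import Crest.Agent.R096.Fns4_360
import Crest.Agent.R096.Np2_962

/-!
Row 96 (S0127), helper733.  `Cores` and `Fine` for 635's foam `fN` (NO0, `p ≥ 3`) on 874's aligned mesh
(360's Fns3, Fns4, Mdd4, Mdd5 with the foam `fN`): the push `puN` is Lipschitz with a constant which
depends on the lower bound `lam0` of the core ratios.
-/

set_option autoImplicit false
set_option linter.style.longLine false
set_option linter.unusedSectionVars false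
set_option linter.unusedVariables false

open MeasureTheory Set Filter Topology Metric

namespace Crest.Agent.R096.Fnn_733

open Crest.Agent.R096.Bsp_628 Crest.Agent.R096.Brk1_582 Crest.Agent.R096.Brk2_582
open Crest.Agent.R096.Brk3_582
open Crest.Agent.R096.Brk5_582
open Crest.Agent.R096.Msh_715
open Crest.Agent.R96.Push_899
open Crest.Agent.R096.SkC1_961 (E3 Hom3 IsPush FoamD)
open Crest.Agent.R096.EaX_766 (cbx)
open Crest.Agent.R096.Bxs_627 (ctr cb CoriE fD)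
open Crest.Agent.R096.Core_124
open Crest.Agent.R096.Mal_874 Crest.Agent.R096.Msh_810
open Crest.Agent.R096.Fns_360
open Crest.Agent.R096.Bxc1_635 (fN puN coresN)

noncomputable section

variable {δ κ0 R c0 : ℝ} {La Om : Set E3}

/-- the constant of the inner tiles, `tt ≥ θ` -/
def KN (δ κ0 R c0 θ : ℝ) : ℝ := KF δ R * Kpu (κ0 / c0) c0 θ

/-- 360's `fineS_nr` with `tt ≥ θ` -/
theorem fineS_th {Φ : FoamD δ κ0 R c0 La} (hLa : IsOpen La) (hδ : 0 < δ) (hR : 0 < R) {c : Φ.F}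
    {P : Finset (Fin 3)} {κ ρ : ℝ} {C : Box (Fin 3)} {lam : ℝ} {z : E3}
    (H : HCore Φ c P κ ρ C lam z) {θ : ℝ} (hθ : 0 < θ) (hθ1 : θ ≤ 1) {f : E3 → E3} {S : Set E3}
    {η ε : ℝ} (hS : ∀ x ∈ S, f x ∈ c.1.set ∧ θ ≤ tt C (Φ.B c) (f x))
    (hη : ∀ x ∈ S, ∀ y ∈ S, ‖f y - f x‖ ≤ η * c.1.sz) (hε : KN δ κ0 R c0 θ * η ≤ ε) :
    FineS Φ f ε S := by
  have hc0 := H.shape.c0
  refine fineS_brick Φ hLa hδ hR (c := c) (L := Kpu (κ0 / c0) c0 θ) (η := η)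
    (fun x hx => ⟨(hS x hx).1, fun h => ?_⟩) (Kpu_nonneg _ _ _) (fun x hx y hy => ?_) hη (by
      rw [← mul_assoc]; exact hε)
  · have h1 := (tt_le_zero_iff H.inner.nest (f x)).2 h
    have h2 := (hS x hx).2
    linarith
  · rw [H.pu]
    refine psi_lip_off H.shape H.inner (fun i j => ?_) hθ hθ1 (hS x hx).2 (hS y hy).2
    have h5 : (bbox Φ c).W i ≤ κ0 * (bbox Φ c).W j := (H.side_le i).trans (H.side_ge j)
    have h6 := H.shape.wd j
    have h8 := H.shape.W0 j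
    have hk := H.k1
    rw [div_mul_eq_mul_div, le_div_iff₀ hc0]
    nlinarith

section fN

variable {F : Set (Bx (Fin 3))} (bf : BoxFoam La F δ κ0) (cmp : Cmp F R) (hκ : 1 ≤ κ0)
  (hc : 0 < c0) (hc2 : c0 * (8 * κ0) ≤ 1) (lam : F → ℝ) (hl : ∀ c, 0 < lam c)
  (hl4 : ∀ c, lam c ≤ 1 / 4)

/-- `HCore` for `fN`: the outer stage is the concentric box of ratio `1/4` -/
theorem hcore_fN (c : F) :
    HCore (fN bf cmp hκ hc hc2 lam hl hl4) c ∅ 0 (side (Bxs_627.qb c.1 (bf.pos _ c.2)))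
      (coreBF (Bxs_627.qb c.1 (bf.pos _ c.2)) (ctr c.1)) (1 / 4) (Bxs_627.zz c.1 (1 / 4)) := by
  have hQ := bf.pos _ c.2
  have hW : ∀ i, 0 < (Bxs_627.qb c.1 hQ).W i := fun i => Bx.side_pos hQ i
  have hs := shapeBF hκ hW (fun i j => (c.1.side_le_sz i).trans (bf.asp _ c.2 j))
    (Bxc1_635.ctr_mid hQ)
  have hc8 : c0 ≤ 1 / (8 * κ0) := by rw [le_div_iff₀ (by linarith)]; exact hc2
  have hsd := side_pos hW
  refine ⟨?_, ?_, rfl, by norm_num, by norm_num, fun k => ?_, fun k => ?_⟩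
  · exact ⟨hc, hc8.trans (by rw [div_le_one (by linarith)]; linarith), hsd, le_rfl, hW,
      fun i => (mul_le_mul_of_nonneg_right hc8 hsd.le).trans (hs.lo1 i), hs.lo2,
      fun i => (mul_le_mul_of_nonneg_right hc8 hsd.le).trans (hs.hi1 i), hs.hi2,
      fun i => (mul_le_mul_of_nonneg_right hc8 (hW i).le).trans (hs.wd i),
      fun i hi => absurd hi (Finset.notMem_empty i)⟩
  · exact (Bxc1_635.hole_cb hQ (hl c) ((hl4 c).trans (by norm_num))).inner hW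
  · rw [coreBF_lo hW, Bxs_627.qb_W, Bxs_627.zz_lo]; ring
  · rw [coreBF_hi hW, Bxs_627.qb_W, Bxs_627.zz_hi]; ring

/-- off the open 3/4 core, `tt ≥ lam` -/
theorem lam_le_tt {Q : Bx (Fin 3)} (hQ : Q.Pos) {l : ℝ} (hl : 0 < l) (hl4 : l ≤ 1 / 4) {y : E3}
    (hy : y ∉ interior (cbx Q (3 / 4 * l))) :
    l ≤ tt (coreBF (Bxs_627.qb Q hQ) (ctr Q)) (cb Q hQ (l / 2) (half_pos hl).le) y := by
  have hW : ∀ i, 0 < (Bxs_627.qb Q hQ).W i := fun i => Bx.side_pos hQ i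
  by_contra hcon
  rw [not_le, tt_lt_iff] at hcon
  apply hy
  rw [mem_interior_iff_mem_nhds]
  have hn : Nest (cb Q hQ (l / 2) (half_pos hl).le) (coreBF (Bxs_627.qb Q hQ) (ctr Q)) :=
    ((Bxc1_635.hole_cb hQ hl (hl4.trans (by norm_num))).inner hW).nest
  have h1 : ∀ k, |y k - ctr Q k| < 3 / 4 * l * Q.side k / 2 := by
    intro k
    have h2 := (gg_lt_iff hn y k l).1 (hcon k)
    have hs : 0 < Q.side k := Bx.side_pos hQ k
    unfold cl ch at h2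
    rw [Bxs_627.cb_lo, Bxs_627.cb_hi, coreBF_lo hW, coreBF_hi hW, Bxs_627.qb_W] at h2
    have h3 : 0 ≤ l * l * Q.side k := by positivity
    rw [abs_lt]
    constructor <;> nlinarith [h2.1, h2.2]
  have h4 : ∀ᶠ y' in 𝓝 y, ∀ k, |y' k - ctr Q k| < 3 / 4 * l * Q.side k / 2 := by
    rw [eventually_all]
    intro k
    have hc : ContinuousAt (fun y' : E3 => |y' k - ctr Q k|) y :=
      (((continuous_apply k).continuousAt).sub continuousAt_const).abs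
    exact hc.eventually (gt_mem_nhds (h1 k))
  filter_upwards [h4] with y' hy'
  exact fun k => (hy' k).le

/-- the holes of `fN` lie in the open 3/4 cores -/
theorem hole_sub_O34 (c : F) : ((fN bf cmp hκ hc hc2 lam hl hl4).B c).S ⊆ O34 lam c := by
  intro y hy
  have hQ := bf.pos _ c.2
  have h1 : ∀ k, |y k - ctr c.1 k| ≤ lam c / 2 * c.1.side k / 2 :=
    (Bxs_627.mem_cb (hl := (half_pos (hl c)).le)).1 hy
  have h2 : ∀ k, |y k - ctr c.1 k| < 3 / 4 * lam c * c.1.side k / 2 := by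
    intro k
    have := mul_pos (hl c) (Bx.side_pos hQ k)
    have := h1 k
    linarith
  show y ∈ interior (cbx c.1 (3 / 4 * lam c))
  rw [mem_interior_iff_mem_nhds]
  have h4 : ∀ᶠ y' in 𝓝 y, ∀ k, |y' k - ctr c.1 k| < 3 / 4 * lam c * c.1.side k / 2 := by
    rw [eventually_all]
    intro k
    have hc : ContinuousAt (fun y' : E3 => |y' k - ctr c.1 k|) y :=
      (((continuous_apply k).continuousAt).sub continuousAt_const).abs
    exact hc.eventually (gt_mem_nhds (h2 k))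
  filter_upwards [h4] with y' hy'
  exact fun k => (hy' k).le

end fN

/-! ### the aligned mesh -/

section mesh

variable {J : Type*} (M : MD E3 3 J) {k : J → ℕ} (hk : M.Sc k) (a : Fin 3 → ℝ) {v : J → E3}
  (hv : M.Adm v)

/-- 360's `fineS_innerM` with `tt ≥ θ` -/
theorem fineS_innerT (hLa : IsOpen La) (hδ : 0 < δ) (hR : 0 < R) {Φ : FoamD δ κ0 R c0 La}
    {f : E3 → E3} (X : RD M) {j : J} {c : Φ.F} {P' : Finset (Fin 3)} {κ ρ : ℝ} {C : Box (Fin 3)}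
    {lam : ℝ} {z : E3} (H : HCore Φ c P' κ ρ C lam z) {θ : ℝ} (hθ : 0 < θ) (hθ1 : θ ≤ 1)
    (A : E3 → E3) {κw uA η ε : ℝ}
    (hN : ∀ x ∈ (M.Bk v j).N, x ∉ interior (M.Bk v j).Kc →
      (f x ∈ c.1.set ∧ θ ≤ tt C (Φ.B c) (f x)) ∧ ‖f x - A x‖ ≤ κw * c.1.sz)
    (huA0 : 0 ≤ uA) (huA : ∀ x y, ‖A y - A x‖ ≤ uA * dist ((M.Q j).ψ x) ((M.Q j).ψ y))
    (hη : uA * (X.R j / 2 ^ (M.Q j).kc) ≤ η * c.1.sz) (hε : KN δ κ0 R c0 θ * (η + 2 * κw) ≤ ε)
    (i : M.IIx hk a hv j) (hi : i ≠ M.core hk a hv j) :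
    FineS Φ f ε (P ((M.mesh hk a hv).H (Sum.inr ⟨j, i⟩))) := by
  have hoff := fun x hx => inner_off M hk a hv i hi (x := x) hx
  refine fineS_th hLa hδ hR H hθ hθ1 (S := P ((M.mesh hk a hv).H (Sum.inr ⟨j, i⟩)))
    (fun x hx => (hN x (hoff x hx).1 (hoff x hx).2).1) (η := η + 2 * κw) (fun x hx y hy => ?_) hε
  have h1 := (hN x (hoff x hx).1 (hoff x hx).2).2
  have h2 := (hN y (hoff y hy).1 (hoff y hy).2).2
  have h3 : ‖A y - A x‖ ≤ η * c.1.sz := by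
    refine (huA x y).trans (le_trans ?_ hη)
    exact mul_le_mul_of_nonneg_left (inner_size_all M hk a hv X i hi hx hy) huA0
  have e : f y - f x = (f y - A y) + (A y - A x) - (f x - A x) := by abel
  rw [e]
  refine (norm_sub_le _ _).trans ?_
  have h4 := norm_add_le (f y - A y) (A y - A x)
  have e2 : (η + 2 * κw) * c.1.sz = κw * c.1.sz + η * c.1.sz + κw * c.1.sz := by ring
  change _ ≤ (η + 2 * κw) * c.1.sz
  rw [e2]
  linarith

end mesh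

section univ

variable {F : Set (Bx (Fin 3))} (M : MD E3 3 F) {k : F → ℕ} (hk : M.Sc k) (a : Fin 3 → ℝ)
  {v : F → E3} (hv : M.Adm v)

/-- **`Mbf_337.Cores` on the aligned mesh for `fN`, all bricks exact.** -/
theorem cores_MDN (bf : BoxFoam La F δ κ0) (cmp : Cmp F R) (hκ : 1 ≤ κ0)
    (hc : 0 < c0) (hc2 : c0 * (8 * κ0) ≤ 1) (lam : F → ℝ) (hl : ∀ c, 0 < lam c)
    (hl4 : ∀ c, lam c ≤ 1 / 4)
    {f : E3 → E3} {κ1 κ2 : ℝ} (h0 : 0 ≤ κ2) (h2 : κ2 ≤ 1 / 4) (hκ1 : 0 ≤ κ1)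
    (hκ12 : κ1 * κ0 ≤ κ2) {A : F → E3 ≃ᵃ[ℝ] E3}
    (hK : ∀ c, (M.Q c).Kc = A c ⁻¹' cbx c.1 (lam c))
    (hcor : ∀ c, CoriE (M.φ ⁻¹' M.D0.Om) f (trA (A c) (v c)) c.1 (lam c) κ1 κ2) :
    Mbf_337.Cores (fN bf cmp hκ hc hc2 lam hl hl4) (M.mesh hk a hv) f κ1 κ2 univ
      (fun c => {ctM M hk a hv c}) (fun c => {ctM M hk a hv c}) (fun c => {ctM M hk a hv c})
      (ctM M hk a hv) (fun c => trA (A c) (v c)) lam (fun c => Bxs_627.zz c.1 (lam c)) (fun _ x => x)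
      (fun _ _ => 0) :=
  coresN bf cmp hκ hc hc2 lam hl hl4 h0 h2 hκ1 hκ12 (ctM_inj M hk a hv) hcor
    fun c => P_core_tr M hk a hv (hK c)

/-- **`Mbf_337.Fine` on the aligned mesh for `fN`, all bricks exact** (`hF`: 360's `exists_dat_off` with
`O := O34 lam`, `hole_sub_O34`). -/
theorem fine_MDN (hLa : IsOpen La) (hδ : 0 < δ) (hR : 0 < R) (bf : BoxFoam La F δ κ0) (cmp : Cmp F R)
    (hκ : 1 ≤ κ0) (hc : 0 < c0) (hc2 : c0 * (8 * κ0) ≤ 1) (lam : F → ℝ) (hl : ∀ c, 0 < lam c)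
    (hl4 : ∀ c, lam c ≤ 1 / 4) {lam0 : ℝ} (hl0 : 0 < lam0) (hlam : ∀ c, lam0 ≤ lam c)
    {f : E3 → E3} {κ1 κ2 : ℝ} (hκ1 : 0 ≤ κ1) (hκ8 : κ1 * κ0 ≤ 1 / 8)
    {A : F → E3 ≃ᵃ[ℝ] E3} (hK : ∀ c, (M.Q c).Kc = A c ⁻¹' cbx c.1 (lam c))
    (hcor : ∀ c, CoriE (M.φ ⁻¹' M.D0.Om) f (trA (A c) (v c)) c.1 (lam c) κ1 κ2) (X : RD M)
    {ρ : (Fin 3 → ℝ) → ℝ} {ε : ℝ} (hρ : ∀ u, M.D0.ρ u ≤ ρ u)
    (hF : ∀ x, M.φ x ∈ M.D0.Om → FineS (fN bf cmp hκ hc hc2 lam hl hl4) f ε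
      (M.φ ⁻¹' closedBall (M.φ x) (ρ (M.φ x)) ∩ ((M.φ ⁻¹' M.D0.Om) ∩ offO f (O34 lam))))
    {κw η uA : F → ℝ} (hN : ∀ c, ∀ x ∈ (M.Bk v c).N, f x ∈ c.1.set ∧
      ‖f x - trA (A c) (v c) x‖ ≤ κw c * c.1.sz)
    (huA0 : ∀ c, 0 ≤ uA c)
    (huA : ∀ c, ∀ x y, ‖A c y - A c x‖ ≤ uA c * dist ((M.Q c).ψ x) ((M.Q c).ψ y))
    (hη : ∀ c, uA c * (X.R c / 2 ^ (M.Q c).kc) ≤ η c * c.1.sz)
    (hε : ∀ c, KN δ κ0 R c0 lam0 * (η c + 2 * κw c) ≤ ε) :
    Mbf_337.Fine (fN bf cmp hκ hc hc2 lam hl hl4) (M.mesh hk a hv) f ε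
      (fun c => {ctM M hk a hv c}) := by
  refine mbf_fine fun t ht => ?_
  rcases t with p | ⟨c, i⟩
  · refine (fineS_outer M hk a hv hρ hF p).mono fun x hx => ⟨hx, ?_⟩
    exact tile_off bf lam hl hκ1 hκ8 hcor (fun c => P_core_tr M hk a hv (hK c))
      (fun c h => ht c h) hx
  · have hi : i ≠ M.core hk a hv c := by
      rintro rfl
      exact ht c rfl
    refine fineS_innerT M hk a hv hLa hδ hR (Φ := fN bf cmp hκ hc hc2 lam hl hl4) X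
      (hcore_fN bf cmp hκ hc hc2 lam hl hl4 c) hl0 ((hlam c).trans ((hl4 c).trans (by norm_num)))
      (fun x => trA (A c) (v c) x) (κw := κw c)
      (η := η c) (fun x hx hx' => ?_) (huA0 c) (fun x y => ?_) (hη c) (hε c) i hi
    · have h1 := hN c x hx
      have hxO : x ∈ M.φ ⁻¹' M.D0.Om := M.Vsub c (MD.N_mem hv c hx)
      have hK' : (M.Bk v c).Kc = trA (A c) (v c) ⁻¹' cbx c.1 (lam c) := by
        rw [← M.P_core hk a hv c]
        exact P_core_tr M hk a hv (hK c)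
      refine ⟨⟨h1.1, (hlam c).trans (lam_le_tt (bf.pos _ c.2) (hl c) (hl4 c) ?_)⟩, h1.2⟩
      refine off_core (bf.pos _ c.2) (bf.asp _ c.2) (hl c) hκ1 hκ8 (hcor c) hxO ?_
      rw [← hK']
      exact hx'
    · have h1 := huA c (x - v c) (y - v c)
      rw [trA_apply, trA_apply]
      refine h1.trans (le_of_eq ?_)
      rw [map_sub, map_sub, dist_sub_right]

end univ

end

end Crest.Agent.R096.Fnn_733
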