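import Crest.Agent.R096.Fnn1_733
import Crest.Agent.R096.Mdd5_360

/-!
Row 96 (S0127), helper733.  360's `cf_md` and `cf_X` (`Cores` and `Fine` for every admissible mesh) for
635's foam `fN` (NO0, `p ≥ 3`).
-/

set_option autoImplicit false
set_option linter.style.longLine false
set_option linter.unusedSectionVars false
set_option linter.unusedVariables false

open MeasureTheory Set Filter Topology Metric

namespace Crest.Agent.R096.Fnn_733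

open Crest.Agent.R096.Bsp_628 Crest.Agent.R096.Brk5_582 Crest.Agent.R096.Brk1_582
open Crest.Agent.R096.Brk2_582 Crest.Agent.R096.Brk3_582
open Crest.Agent.R096.SkC1_961 (E3 FoamD Hom3)
open Crest.Agent.R096.EaX_766 (cbx RatA)
open Crest.Agent.R096.Bxs_627 (ctr CoriE)
open Crest.Agent.R096.Mal_874 Crest.Agent.R096.Msh_810 Crest.Agent.R096.Msh_715
open Crest.Agent.R096.Fns_360 Crest.Agent.R096.Mfa_880 Crest.Agent.R096.Mdd_360
open Crest.Agent.R096.Bxc1_635 (fN puN coresN)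

noncomputable section

variable {La Om : Set E3} {f : E3 → E3} {F : Set (Bx (Fin 3))} {δ κ0 R c0 : ℝ}

theorem hlκ_of {l κ1 κ2 τ : ℝ} (hl : 0 < l) (hl4 : l ≤ 1 / 4) (hκ1 : 0 ≤ κ1) (hκ : 1 ≤ κ0) (hτ : 0 < τ)
    (h2 : κ2 ≤ 1 / 4) (hκ8 : (κ1 + τ) * κ0 ≤ 1 / 8) :
    (1 / 2 + κ2) * l + κ1 * κ0 * l < 1 / 2 := by
  have h1 : κ1 * κ0 ≤ 1 / 8 := by nlinarith
  have h3 : (1 / 2 + κ2 + κ1 * κ0) * l ≤ (1 / 2 + 1 / 4 + 1 / 8) * l :=
    mul_le_mul_of_nonneg_right (by linarith) hl.le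
  nlinarith

/-- **`fN`, all bricks exact: `Cores` and `Fine` for every admissible mesh** (360's `cf_md`). -/
theorem cf_mdN (hLa : IsOpen La) (hδ : 0 < δ) (hR : 0 < R) (bf : BoxFoam La F δ κ0) (cmp : Cmp F R)
    (hκ : 1 ≤ κ0) (hc : 0 < c0) (hc2 : c0 * (8 * κ0) ≤ 1) (lam : F → ℝ) (hl : ∀ c, 0 < lam c)
    (hl4 : ∀ c, lam c ≤ 1 / 4) {lam0 : ℝ} (hl0 : 0 < lam0) (hlam : ∀ c, lam0 ≤ lam c)
    {κ1 κ2 τ η ε : ℝ} (hκ1 : 0 ≤ κ1) (hτ : 0 < τ) (hτ2 : τ ≤ κ2)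
    (h2 : κ2 ≤ 1 / 4) (hκ8 : (κ1 + τ) * κ0 ≤ 1 / 8) (hκ12 : (κ1 + τ) * κ0 ≤ κ2 - τ)
    {A : F → E3 ≃ᵃ[ℝ] E3} (hcor : ∀ c, CoriE Om f (A c) c.1 (lam c) κ1 κ2)
    (M : MD E3 3 F) (hφ : M.φ = ContinuousLinearEquiv.refl ℝ E3) (hOmM : M.φ ⁻¹' M.D0.Om = Om)
    (hK : ∀ c, (M.Q c).Kc = A c ⁻¹' cbx c.1 (lam c))
    (hroom : ∀ c, cthickening (M.r c) (M.Q c).N ⊆ A c ⁻¹' cbx c.1 ((1 + 2 * κ2) * lam c))
    (hsm : ∀ c (v : E3), ‖v‖ ≤ M.r c → ‖(A c).linear v‖ ≤ τ * (lam c * c.1.sz) ∧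
        ∀ k, |(A c).linear v k| ≤ τ * (lam c * c.1.side k)) (X : RD M)
    {uA : F → ℝ} (huA0 : ∀ c, 0 ≤ uA c)
    (huA : ∀ c, ∀ x y, ‖A c y - A c x‖ ≤ uA c * dist ((M.Q c).ψ x) ((M.Q c).ψ y))
    (hη : ∀ c, uA c * (X.R c / 2 ^ (M.Q c).kc) ≤ η * c.1.sz)
    (hε : KN δ κ0 R c0 lam0 * (η + 2 * (κ1 + τ)) ≤ ε)
    (hF : ∀ x ∈ Om, FineS (fN bf cmp hκ hc hc2 lam hl hl4) f ε
      (closedBall x (M.D0.ρ x) ∩ (Om ∩ offO f (O34 lam))))
    {k : F → ℕ} (hk : M.Sc k) (a : Fin 3 → ℝ) {v : F → E3} (hv : M.Adm v) :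
    Mbf_337.Cores (fN bf cmp hκ hc hc2 lam hl hl4) (M.mesh hk a hv) f (κ1 + τ) (κ2 - τ) univ
      (fun c => {ctM M hk a hv c}) (fun c => {ctM M hk a hv c}) (fun c => {ctM M hk a hv c})
      (ctM M hk a hv) (fun c => trA (A c) (v c)) lam (fun c => Bxs_627.zz c.1 (lam c)) (fun _ x => x)
      (fun _ _ => 0) ∧
    Mbf_337.Fine (fN bf cmp hκ hc hc2 lam hl hl4) (M.mesh hk a hv) f ε
      (fun c => {ctM M hk a hv c}) := by
  have hv' : ∀ c, ‖v c‖ ≤ M.r c := by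
    intro c
    have h1 := hv c
    rw [hφ] at h1
    exact h1
  have hcor' : ∀ c, CoriE (M.φ ⁻¹' M.D0.Om) f (trA (A c) (v c)) c.1 (lam c) (κ1 + τ) (κ2 - τ) := by
    intro c
    rw [hOmM]
    exact cor_tr (hcor c) (hsm c (v c) (hv' c))
  refine ⟨cores_MDN M hk a hv bf cmp hκ hc hc2 lam hl hl4 (by linarith)
    (by linarith) (by linarith) hκ12 hK hcor', ?_⟩
  refine fine_MDN M hk a hv hLa hδ hR bf cmp hκ hc hc2 lam hl hl4 hl0 hlam (by linarith) hκ8 hK hcor' X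
    (ρ := M.D0.ρ) (fun _ => le_rfl) ?_ (κw := fun _ => κ1 + τ) (η := fun _ => η) ?_ huA0 huA hη
    (fun _ => hε)
  · intro x hx
    have hxO : x ∈ Om := by
      rw [← hOmM]
      exact hx
    have h1 := hF x hxO
    rw [hOmM]
    rw [hφ]
    exact h1
  · intro c x hx
    have hxN : x - v c ∈ (M.Q c).N := ((M.Q c).mem_N_tr (v c) x).1 hx
    have hxt : x ∈ cthickening (M.r c) (M.Q c).N := by
      refine mem_cthickening_of_dist_le x (x - v c) _ _ hxN ?_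
      rw [dist_eq_norm, sub_sub_cancel]
      exact hv' c
    have hxA := hroom c hxt
    obtain ⟨hxO, h5⟩ := img_open (bf.pos _ c.2) (bf.asp _ c.2) (hl c) hκ1
      (hlκ_of (hl c) (hl4 c) hκ1 hκ hτ h2 hκ8) (hcor c) hxA
    refine ⟨Bx.mem_set.2 fun i => ⟨(h5 i).1.le, (h5 i).2.le⟩, ?_⟩
    have h6 := (hcor c x (Or.inr fun i => (hxA i).trans (le_of_eq (by ring)))).2
    have h7 := (hsm c (v c) (hv' c)).1
    have e : f x - trA (A c) (v c) x = (f x - A c x) + (A c).linear (v c) := by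
      rw [← trA_sub (A c) (v c) x]; abel
    rw [e]
    refine (norm_add_le _ _).trans ?_
    have hs := Bx.sz_pos (bf.pos _ c.2)
    have h8 : lam c * c.1.sz ≤ c.1.sz := by nlinarith [hl4 c]
    have h9 : (κ1 + τ) * (lam c * c.1.sz) ≤ (κ1 + τ) * c.1.sz :=
      mul_le_mul_of_nonneg_left h8 (by linarith)
    linarith

variable {X : Set F}

/-- **`fN`, all bricks exact, blocks indexed by `X`: `Cores` and `Fine` for every admissible mesh**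
(360's `cf_X`). -/
theorem cf_XN (hX : ∀ c, c ∈ X) (hLa : IsOpen La) (hδ : 0 < δ) (hR : 0 < R) (bf : BoxFoam La F δ κ0)
    (cmp : Cmp F R)
    (hκ : 1 ≤ κ0) (hc : 0 < c0) (hc2 : c0 * (8 * κ0) ≤ 1) (lam : F → ℝ) (hl : ∀ c, 0 < lam c)
    (hl4 : ∀ c, lam c ≤ 1 / 4) {lam0 : ℝ} (hl0 : 0 < lam0) (hlam : ∀ c, lam0 ≤ lam c)
    {κ1 κ2 τ η ε : ℝ} (hκ1 : 0 ≤ κ1) (hτ : 0 < τ) (hτ2 : τ ≤ κ2)
    (h2 : κ2 ≤ 1 / 4) (hκ8 : (κ1 + τ) * κ0 ≤ 1 / 8) (hκ12 : (κ1 + τ) * κ0 ≤ κ2 - τ)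
    {A : F → E3 ≃ᵃ[ℝ] E3} (hcor : ∀ c, CoriE Om f (A c) c.1 (lam c) κ1 κ2)
    (M : MD E3 3 X) (hφ : M.φ = ContinuousLinearEquiv.refl ℝ E3) (hOmM : M.φ ⁻¹' M.D0.Om = Om)
    (hK : ∀ c : X, (M.Q c).Kc = A c ⁻¹' cbx c.1.1 (lam c))
    (hroom : ∀ c : X, cthickening (M.r c) (M.Q c).N ⊆ A c ⁻¹' cbx c.1.1 ((1 + 2 * κ2) * lam c))
    (hsm : ∀ (c : X) (v : E3), ‖v‖ ≤ M.r c → ‖(A c).linear v‖ ≤ τ * (lam c * c.1.1.sz) ∧
        ∀ k, |(A c).linear v k| ≤ τ * (lam c * c.1.1.side k)) (Y : RD M)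
    {uA : X → ℝ} (huA0 : ∀ c, 0 ≤ uA c)
    (huA : ∀ (c : X), ∀ x y, ‖A c y - A c x‖ ≤ uA c * dist ((M.Q c).ψ x) ((M.Q c).ψ y))
    (hη : ∀ c : X, uA c * (Y.R c / 2 ^ (M.Q c).kc) ≤ η * c.1.1.sz)
    (hε : KN δ κ0 R c0 lam0 * (η + 2 * (κ1 + τ)) ≤ ε)
    (hF : ∀ x ∈ Om, FineS (fN bf cmp hκ hc hc2 lam hl hl4) f ε
      (closedBall x (M.D0.ρ x) ∩ (Om ∩ offO f (O34 lam))))
    {k : X → ℕ} (hk : M.Sc k) (m : F → ℕ) (a : E3) {w : X → E3} (hv : M.Adm fun j => a + w j)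
    (i0 : M.OIx hk (M.φ a) hv ⊕ Σ j, M.IIx hk (M.φ a) hv j) :
    Mbf_337.Cores (fN bf cmp hκ hc hc2 lam hl hl4) (M.mesh hk (M.φ a) hv) f (κ1 + τ) (κ2 - τ) univ
      ((decoX A lam m a w).mkX X (M.mesh hk (M.φ a) hv) i0
        fun c => Sum.inr ⟨c, M.core hk (M.φ a) hv c⟩).J0
      ((decoX A lam m a w).mkX X (M.mesh hk (M.φ a) hv) i0
        fun c => Sum.inr ⟨c, M.core hk (M.φ a) hv c⟩).J
      ((decoX A lam m a w).mkX X (M.mesh hk (M.φ a) hv) i0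
        fun c => Sum.inr ⟨c, M.core hk (M.φ a) hv c⟩).V
      ((decoX A lam m a w).mkX X (M.mesh hk (M.φ a) hv) i0
        fun c => Sum.inr ⟨c, M.core hk (M.φ a) hv c⟩).ct
      (decoX A lam m a w).A (decoX A lam m a w).lam (decoX A lam m a w).z (decoX A lam m a w).θ
      (decoX A lam m a w).φ ∧
    Mbf_337.Fine (fN bf cmp hκ hc hc2 lam hl hl4) (M.mesh hk (M.φ a) hv) f ε
      ((decoX A lam m a w).mkX X (M.mesh hk (M.φ a) hv) i0
        fun c => Sum.inr ⟨c, M.core hk (M.φ a) hv c⟩).J0 := by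
  set T := M.mesh hk (M.φ a) hv with hT
  set ct : F → M.OIx hk (M.φ a) hv ⊕ Σ j, M.IIx hk (M.φ a) hv j :=
    fun c => Sum.inr ⟨⟨c, hX c⟩, M.core hk (M.φ a) hv ⟨c, hX c⟩⟩ with hct
  set D := (decoX A lam m a w).mkX X T i0 fun c => Sum.inr ⟨c, M.core hk (M.φ a) hv c⟩ with hD
  have eJ0 : D.J0 = fun c => {ct c} := by
    funext c
    exact Set.ext fun i => ⟨fun ⟨_, e⟩ => e, fun e => ⟨hX c, e⟩⟩
  have eJ : D.J = fun c => {ct c} := eJ0
  have eV : D.V = fun c => {ct c} := eJ0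
  have ect : D.ct = ct := by
    funext c
    exact Deco.mkX_ct (hX c)
  have eA : (decoX A lam m a w).A = fun c => trA (A c) (a + w ⟨c, hX c⟩) := by
    funext c
    exact decoX_A A lam m a w (hX c)
  have hct_inj : Function.Injective ct := by
    intro c c' h
    have h1 := Sum.inr.inj h
    rw [Sigma.mk.injEq] at h1
    exact congrArg Subtype.val h1.1
  have hv' : ∀ c : X, ‖a + w c‖ ≤ M.r c := by
    intro c
    have h1 := hv c
    rw [hφ] at h1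
    exact h1
  have hcor' : ∀ c, CoriE (M.φ ⁻¹' M.D0.Om) f (trA (A c) (a + w ⟨c, hX c⟩)) c.1 (lam c) (κ1 + τ)
      (κ2 - τ) := by
    intro c
    rw [hOmM]
    exact cor_tr (hcor c) (hsm ⟨c, hX c⟩ _ (hv' ⟨c, hX c⟩))
  have htile : ∀ c, P (T.H (ct c)) = trA (A c) (a + w ⟨c, hX c⟩) ⁻¹' cbx c.1 (lam c) := by
    intro c
    exact P_core_tr M hk (M.φ a) hv (j := ⟨c, hX c⟩) (hK ⟨c, hX c⟩)
  rw [eJ0, eJ, eV, ect, eA]
  refine ⟨coresN bf cmp hκ hc hc2 lam hl hl4 (by linarith) (by linarith)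
    (by linarith) hκ12 hct_inj hcor' htile, ?_⟩
  refine mbf_fine fun t ht => ?_
  rcases t with p | ⟨c, i⟩
  · refine (fineS_outer M hk (M.φ a) hv (Φ := fN bf cmp hκ hc hc2 lam hl hl4) (f := f) (ε := ε)
      (Y := (M.φ ⁻¹' M.D0.Om) ∩ offO f (O34 lam)) (ρ := M.D0.ρ) (fun _ => le_rfl) ?_ p).mono
      fun x hx => ⟨hx, ?_⟩
    · intro x hx
      have hxO : x ∈ Om := by
        rw [← hOmM]
        exact hx
      have h1 := hF x hxO
      rw [hOmM, hφ]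
      exact h1
    · exact tile_off bf lam hl (by linarith) hκ8 hcor' htile (fun c h => ht c h) hx
  · have hi : i ≠ M.core hk (M.φ a) hv c := by
      rintro rfl
      exact ht c.1 rfl
    refine fineS_innerT M hk (M.φ a) hv hLa hδ hR (Φ := fN bf cmp hκ hc hc2 lam hl hl4) Y
      (hcore_fN bf cmp hκ hc hc2 lam hl hl4 c.1) hl0
      ((hlam c.1).trans ((hl4 c.1).trans (by norm_num))) (fun x => trA (A c) (a + w c) x)
      (κw := κ1 + τ) (η := η) (fun x hx hx' => ?_) (huA0 c) (fun x y => ?_) (hη c) hε i hi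
    · have hxN : x - (a + w c) ∈ (M.Q c).N := ((M.Q c).mem_N_tr (a + w c) x).1 hx
      have hxt : x ∈ cthickening (M.r c) (M.Q c).N := by
        refine mem_cthickening_of_dist_le x (x - (a + w c)) _ _ hxN ?_
        rw [dist_eq_norm, sub_sub_cancel]
        exact hv' c
      have hxA := hroom c hxt
      obtain ⟨hxO, h5⟩ := img_open (bf.pos _ c.1.2) (bf.asp _ c.1.2) (hl c) hκ1
        (hlκ_of (hl c) (hl4 c) hκ1 hκ hτ h2 hκ8) (hcor c) hxA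
      have hset : f x ∈ c.1.1.set := Bx.mem_set.2 fun i => ⟨(h5 i).1.le, (h5 i).2.le⟩
      refine ⟨⟨hset, (hlam c.1).trans (lam_le_tt (bf.pos _ c.1.2) (hl c) (hl4 c) ?_)⟩, ?_⟩
      · refine off_core (bf.pos _ c.1.2) (bf.asp _ c.1.2) (hl c) (by linarith) hκ8 (hcor' c.1)
          (by rw [hOmM]; exact hxO) ?_
        have h6 := htile c.1
        have h7 : P (T.H (ct c.1)) = (M.Bk (fun j => a + w j) c).Kc := M.P_core hk (M.φ a) hv c
        rw [← h6, h7]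
        exact hx'
      · have h6 := (hcor c x (Or.inr fun i => (hxA i).trans (le_of_eq (by ring)))).2
        have h7 := (hsm c (a + w c) (hv' c)).1
        have e : f x - trA (A c) (a + w c) x = (f x - A c x) + (A c).linear (a + w c) := by
          rw [← trA_sub (A c) (a + w c) x]; abel
        rw [e]
        refine (norm_add_le _ _).trans ?_
        have hs := Bx.sz_pos (bf.pos _ c.1.2)
        have h8 : lam c * c.1.1.sz ≤ c.1.1.sz := by nlinarith [hl4 c]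
        have h9 : (κ1 + τ) * (lam c * c.1.1.sz) ≤ (κ1 + τ) * c.1.1.sz :=
          mul_le_mul_of_nonneg_left h8 (by linarith)
        linarith
    · have h1 := huA c (x - (a + w c)) (y - (a + w c))
      rw [trA_apply, trA_apply]
      refine h1.trans (le_of_eq ?_)
      rw [map_sub, map_sub, dist_sub_right]

end

end Crest.Agent.R096.Fnn_733
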