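import Crest.Agent.R096.Msh1_810

/-!
# The Whitney mesh of `{ρ > 0}`

`Dat n`: 1-Lipschitz `ρ ≤ 1`, constant `C > 1`, shift `a`. `K D x` = scale of the mesh at `x`.
Mesh cells `IsM D σ` = dyadic cells on whose open cell `K = scale`.
-/

set_option autoImplicit false
open MeasureTheory Set
open scoped ENNReal

namespace Crest.Agent.R096.Msh_810

variable {n : ℕ}

/-- data of a Whitney mesh. -/
structure Dat (n : ℕ) where
  /-- size function. -/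
  ρ : (Fin n → ℝ) → ℝ
  /-- constant. -/
  C : ℝ
  /-- shift. -/
  a : Fin n → ℝ
  lip : ∀ x y, ρ x ≤ ρ y + dist x y
  nonneg : ∀ x, 0 ≤ ρ x
  le_one : ∀ x, ρ x ≤ 1
  hC : 1 < C

variable (D : Dat n)

/-- the open set covered by the mesh. -/
def Dat.Om : Set (Fin n → ℝ) := {x | 0 < D.ρ x}

/-- admissible cube. -/
def Adm (k : ℕ) (z : Fin n → ℤ) : Prop := ∀ x ∈ Cu D.a k z, D.C ≤ 2 ^ k * D.ρ x

/-- the scales that are fine enough at `x`. -/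
def gd (x : Fin n → ℝ) : Set ℕ := {k | ∀ z, x ∈ Cu D.a k z → Adm D k z}

/-- the scale of the mesh at `x`. -/
noncomputable def K (x : Fin n → ℝ) : ℕ := sInf (gd D x)

variable {D}

lemma Dat.C_pos : 0 < D.C := lt_trans zero_lt_one D.hC

lemma Adm.child {k : ℕ} {z z' : Fin n → ℤ} (h : Adm D k z) (hz : (fun i => z' i / 2) = z) :
    Adm D (k + 1) z' := by
  intro x hx
  have hx' := Cu_parent D.a k z' hx
  rw [hz] at hx'
  have h1 := h x hx'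
  have h2 : (0 : ℝ) ≤ 2 ^ k * D.ρ x := mul_nonneg (by positivity) (D.nonneg x)
  calc D.C ≤ 2 ^ k * D.ρ x := h1
    _ ≤ 2 * (2 ^ k * D.ρ x) := by linarith
    _ = 2 ^ (k + 1) * D.ρ x := by rw [pow_succ]; ring

lemma gd_succ {x : Fin n → ℝ} {k : ℕ} (h : k ∈ gd D x) : k + 1 ∈ gd D x := fun z hz =>
  (h _ (Cu_parent D.a k z hz)).child rfl

lemma gd_mono {x : Fin n → ℝ} {k k' : ℕ} (h : k ∈ gd D x) (hk : k ≤ k') : k' ∈ gd D x := by
  induction k', hk using Nat.le_induction with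
  | base => exact h
  | succ m _ ih => exact gd_succ ih

lemma gd_of_large {x : Fin n → ℝ} {k : ℕ} (h : D.C + 1 ≤ 2 ^ k * D.ρ x) : k ∈ gd D x := by
  intro z hz y hy
  have h1 := dist_le_of_mem_Cu hz hy
  have h2 := D.lip x y
  have h3 : (0 : ℝ) < 2 ^ k := by positivity
  have h4 : 2 ^ k * D.ρ x ≤ 2 ^ k * D.ρ y + 2 ^ k * dist x y := by
    rw [← mul_add]; exact mul_le_mul_of_nonneg_left h2 h3.le
  linarith

lemma gd_nonempty {x : Fin n → ℝ} (hx : 0 < D.ρ x) : (gd D x).Nonempty := by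
  obtain ⟨k, hk⟩ := pow_unbounded_of_one_lt ((D.C + 1) / D.ρ x) (one_lt_two : (1 : ℝ) < 2)
  refine ⟨k, gd_of_large ?_⟩
  rw [div_lt_iff₀ hx] at hk
  exact hk.le

lemma zero_notMem_gd (x : Fin n → ℝ) : 0 ∉ gd D x := by
  intro h
  have h1 := h _ (mem_Cu_floor D.a 0 x) x (mem_Cu_floor D.a 0 x)
  have h2 := D.le_one x
  have h3 := D.hC
  rw [pow_zero, one_mul] at h1
  linarith

lemma K_mem {x : Fin n → ℝ} (hx : 0 < D.ρ x) : K D x ∈ gd D x := Nat.sInf_mem (gd_nonempty hx)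

lemma K_le_iff {x : Fin n → ℝ} (hx : 0 < D.ρ x) {k : ℕ} : K D x ≤ k ↔ k ∈ gd D x :=
  ⟨fun h => gd_mono (K_mem hx) h, fun h => Nat.sInf_le h⟩

lemma K_pos {x : Fin n → ℝ} (hx : 0 < D.ρ x) : 0 < K D x := by
  rcases Nat.eq_zero_or_pos (K D x) with h | h
  · exact absurd (h ▸ K_mem hx) (zero_notMem_gd x)
  · exact h

lemma pred_notMem {x : Fin n → ℝ} (hx : 0 < D.ρ x) {k : ℕ} (hk : k < K D x) : k ∉ gd D x :=
  fun h => absurd ((K_le_iff hx).2 h) (not_le.2 hk)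

lemma K_lower {x : Fin n → ℝ} (hx : 0 < D.ρ x) : D.C ≤ 2 ^ (K D x) * D.ρ x :=
  K_mem hx _ (mem_Cu_floor D.a _ x) x (mem_Cu_floor D.a _ x)

lemma upper_of_notMem {x : Fin n → ℝ} {k : ℕ} (h : k ∉ gd D x) : 2 ^ k * D.ρ x < D.C + 1 := by
  by_contra h'
  exact h (gd_of_large (not_lt.1 h'))

lemma K_upper {x : Fin n → ℝ} (hx : 0 < D.ρ x) : 2 ^ (K D x) * D.ρ x < 2 * D.C + 2 := by
  obtain ⟨m, hm⟩ : ∃ m, K D x = m + 1 := ⟨K D x - 1, by have := K_pos hx; omega⟩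
  have h1 := upper_of_notMem (pred_notMem hx (k := m) (by omega))
  rw [hm, pow_succ]
  nlinarith

variable (D) in
/-- mesh cells. -/
def IsM (σ : Idx n) : Prop := ∃ x ∈ Do D.a σ, 0 < D.ρ x ∧ K D x = σ.k

/-- (M6) the size on a mesh cell. -/
lemma IsM.lower {σ : Idx n} (h : IsM D σ) {y : Fin n → ℝ} (hy : y ∈ Dc D.a σ) :
    D.C ≤ 2 ^ σ.k * D.ρ y := by
  obtain ⟨x, hx, hx0, hK⟩ := h
  have h1 := K_mem hx0
  rw [hK] at h1
  have h2 := mem_Cu_floor D.a σ.k x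
  exact h1 _ h2 y (same_closed hx hy (σ := ⟨σ.k, _, Finset.univ⟩) le_rfl h2)

lemma IsM.pos {σ : Idx n} (h : IsM D σ) {y : Fin n → ℝ} (hy : y ∈ Dc D.a σ) : 0 < D.ρ y := by
  have h1 := h.lower hy
  have h2 := D.C_pos
  by_contra h3
  have h4 : D.ρ y = 0 := le_antisymm (not_lt.1 h3) (D.nonneg y)
  rw [h4, mul_zero] at h1
  linarith

lemma IsM.subset_Om {σ : Idx n} (h : IsM D σ) : Dc D.a σ ⊆ D.Om := fun _ hy => h.pos hy

/-- the scale at the points of a closed mesh cell is at least that of the cell. -/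
lemma IsM.le_K {σ : Idx n} (h : IsM D σ) {y : Fin n → ℝ} (hy : y ∈ Dc D.a σ) : σ.k ≤ K D y := by
  have hy0 := h.pos hy
  obtain ⟨x, hx, hx0, hK⟩ := h
  by_contra hlt
  push Not at hlt
  have h1 : K D y ∉ gd D x := pred_notMem hx0 (by omega)
  apply h1
  intro z hz
  exact K_mem hy0 z (same_closed hx hy (σ := ⟨K D y, z, Finset.univ⟩) hlt.le hz)

lemma IsM.K_eq {σ : Idx n} (h : IsM D σ) {y : Fin n → ℝ} (hy : y ∈ Do D.a σ) :
    K D y = σ.k := by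
  refine le_antisymm ?_ (h.le_K (Do_subset_Dc _ _ hy))
  rw [K_le_iff (h.pos (Do_subset_Dc _ _ hy))]
  obtain ⟨x, hx, hx0, hK⟩ := h
  intro z hz
  have h1 := K_mem hx0
  rw [hK] at h1
  exact h1 z (same_closed hy (Do_subset_Dc _ _ hx) (σ := ⟨σ.k, z, Finset.univ⟩) le_rfl hz)

/-- scales of touching cells differ by at most one. -/
lemma IsM.K_le {σ : Idx n} (h : IsM D σ) {y : Fin n → ℝ} (hy : y ∈ Dc D.a σ) :
    K D y ≤ σ.k + 1 := by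
  have h1 := h.lower hy
  have h2 := K_upper (h.pos hy)
  have h3 := D.hC
  have hy0 := h.pos hy
  by_contra hlt
  push Not at hlt
  have h4 : (2 : ℝ) ^ (σ.k + 2) ≤ 2 ^ (K D y) := pow_le_pow_right₀ one_le_two hlt
  have h5 : (2 : ℝ) ^ (σ.k + 2) * D.ρ y ≤ 2 ^ (K D y) * D.ρ y :=
    mul_le_mul_of_nonneg_right h4 hy0.le
  have h6 : (2 : ℝ) ^ (σ.k + 2) * D.ρ y = 4 * (2 ^ σ.k * D.ρ y) := by rw [pow_add]; ring
  linarith

/-- the mesh cell whose open cell contains `x`. -/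
noncomputable def cell (D : Dat n) (x : Fin n → ℝ) : Idx n := cellOf D.a (K D x) x

@[simp] lemma cell_k (x : Fin n → ℝ) : (cell D x).k = K D x := rfl

lemma mem_Do_cell (x : Fin n → ℝ) : x ∈ Do D.a (cell D x) := mem_Do_cellOf _ _ _

lemma mem_Dc_cell (x : Fin n → ℝ) : x ∈ Dc D.a (cell D x) := mem_Dc_cellOf _ _ _

lemma isM_cell {x : Fin n → ℝ} (hx : 0 < D.ρ x) : IsM D (cell D x) :=
  ⟨x, mem_Do_cell x, hx, rfl⟩

/-- (M0) -/
lemma IsM.eq_cell {σ : Idx n} (h : IsM D σ) {x : Fin n → ℝ} (hx : x ∈ Do D.a σ) :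
    σ = cell D x := by
  have h1 := mem_Do_iff.1 hx
  unfold cell
  rw [h.K_eq hx, h1]

lemma IsM.eq_of_mem {σ τ : Idx n} (h : IsM D σ) (h' : IsM D τ) {x : Fin n → ℝ}
    (hx : x ∈ Do D.a σ) (hx' : x ∈ Do D.a τ) : σ = τ :=
  (h.eq_cell hx).trans (h'.eq_cell hx').symm

/-- (M1), also for every closed dyadic cell of scale `≤ K`. -/
lemma Dc_cell_subset {φ : Idx n} {y : Fin n → ℝ} (hy : y ∈ Dc D.a φ) (hk : φ.k ≤ K D y) :
    Dc D.a (cell D y) ⊆ Dc D.a φ :=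
  nest (σ := φ) (τ := cell D y) hk (mem_Do_cell y) hy

lemma IsM.cell_subset {σ : Idx n} (h : IsM D σ) {y : Fin n → ℝ} (hy : y ∈ Dc D.a σ) :
    Dc D.a (cell D y) ⊆ Dc D.a σ := Dc_cell_subset hy (h.le_K hy)

/-- faces (same scale) of mesh cells are unions of mesh cells. -/
lemma IsM.face_cell_subset {σ φ : Idx n} (h : IsM D σ) (hk : φ.k ≤ σ.k)
    {y : Fin n → ℝ} (hy : y ∈ Dc D.a σ) (hy' : y ∈ Dc D.a φ) :
    Dc D.a (cell D y) ⊆ Dc D.a φ := Dc_cell_subset hy' (hk.trans (h.le_K hy))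

/-- (M2) -/
lemma IsM.J_ssubset {σ : Idx n} (h : IsM D σ) {y : Fin n → ℝ} (hy : y ∈ Dc D.a σ)
    (hy' : y ∉ Do D.a σ) : (cell D y).J ⊂ σ.J :=
  lt_of_le_of_lt (J_anti D.a (h.le_K hy) y) (J_ssubset_of_mem hy hy')

lemma Dc_nonempty (a : Fin n → ℝ) (σ : Idx n) : (Do a σ).Nonempty := by
  refine ⟨fun i => a i + (σ.z i + if i ∈ σ.J then 1 / 2 else 0) / 2 ^ σ.k, fun i => ?_⟩
  have h2 : (2 : ℝ) ^ σ.k ≠ 0 := by positivity
  have e : ps a σ.k (fun i => a i + (σ.z i + if i ∈ σ.J then 1 / 2 else 0) / 2 ^ σ.k) i =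
      σ.z i + if i ∈ σ.J then 1 / 2 else 0 := by
    unfold ps
    field_simp
    ring
  rw [e]
  refine ⟨fun hi => ?_, fun hi => ?_⟩
  · simp only [hi, if_true]
    constructor <;> linarith
  · simp only [hi, if_false, add_zero]

/-- the mesh cells as a type. -/
def Cel (D : Dat n) : Type := {σ : Idx n // IsM D σ}

/-- the closed cell. -/
def Cel.c (σ : Cel D) : Set (Fin n → ℝ) := Dc D.a σ.1

/-- the open cell. -/
def Cel.o (σ : Cel D) : Set (Fin n → ℝ) := Do D.a σ.1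

/-- the dimension. -/
def Cel.d (σ : Cel D) : ℕ := σ.1.J.card

lemma Cel.J_ssubset {σ τ : Cel D} (h : σ.c ⊆ τ.c) (hne : σ ≠ τ) : σ.1.J ⊂ τ.1.J := by
  obtain ⟨x, hx⟩ := Dc_nonempty D.a σ.1
  have h1 : x ∈ Dc D.a τ.1 := h (Do_subset_Dc _ _ hx)
  have h2 : x ∉ Do D.a τ.1 := fun h2 => hne (Subtype.ext (σ.2.eq_of_mem τ.2 hx h2))
  have h3 := τ.2.J_ssubset h1 h2
  rwa [← σ.2.eq_cell hx] at h3

lemma Cel.c_injective : Function.Injective (Cel.c (D := D)) := by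
  intro σ τ h
  by_contra hne
  have h1 := Cel.J_ssubset h.subset hne
  have h2 := Cel.J_ssubset h.symm.subset (Ne.symm hne)
  exact lt_irrefl _ (h1.trans h2)

instance : PartialOrder (Cel D) := PartialOrder.lift Cel.c Cel.c_injective

lemma Cel.le_def {σ τ : Cel D} : σ ≤ τ ↔ σ.c ⊆ τ.c := Iff.rfl

lemma Cel.d_lt {σ τ : Cel D} (h : σ < τ) : σ.d < τ.d :=
  Finset.card_lt_card (Cel.J_ssubset h.le h.ne)

/-- the cell through a point. -/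
noncomputable def Cel.of (x : Fin n → ℝ) (hx : x ∈ D.Om) : Cel D := ⟨cell D x, isM_cell hx⟩

lemma Cel.mem_of (x : Fin n → ℝ) (hx : x ∈ D.Om) : x ∈ (Cel.of x hx).o := mem_Do_cell x

lemma Cel.eq_of {σ : Cel D} {x : Fin n → ℝ} (hx : x ∈ σ.o) (hx' : x ∈ D.Om) :
    σ = Cel.of x hx' := Subtype.ext (σ.2.eq_cell hx)

lemma Cel.o_subset_c (σ : Cel D) : σ.o ⊆ σ.c := Do_subset_Dc _ _

lemma Cel.c_subset_Om (σ : Cel D) : σ.c ⊆ D.Om := σ.2.subset_Om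

lemma Cel.o_nonempty (σ : Cel D) : σ.o.Nonempty := Dc_nonempty _ _

lemma Cel.of_le {σ : Cel D} {x : Fin n → ℝ} (hx : x ∈ σ.c) :
    Cel.of x (σ.c_subset_Om hx) ≤ σ := σ.2.cell_subset hx

/-- (M0) the open cells are disjoint. -/
lemma Cel.eq_of_mem_o {σ τ : Cel D} {x : Fin n → ℝ} (hx : x ∈ σ.o) (hx' : x ∈ τ.o) : σ = τ :=
  Subtype.ext (σ.2.eq_of_mem τ.2 hx hx')

lemma Cel.pairwise_disjoint : Pairwise fun σ τ : Cel D => Disjoint σ.o τ.o := fun _ _ h =>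
  Set.disjoint_left.2 fun _ hx hx' => h (Cel.eq_of_mem_o hx hx')

/-- (M0) the open cells cover. -/
lemma Cel.iUnion_o : ⋃ σ : Cel D, σ.o = D.Om := by
  ext x
  simp only [mem_iUnion]
  exact ⟨fun ⟨σ, h⟩ => σ.c_subset_Om (σ.o_subset_c h), fun h => ⟨Cel.of x h, Cel.mem_of x h⟩⟩

lemma Cel.iUnion_c : ⋃ σ : Cel D, σ.c = D.Om := by
  ext x
  simp only [mem_iUnion]
  exact ⟨fun ⟨σ, h⟩ => σ.c_subset_Om h, fun h => ⟨Cel.of x h, Cel.o_subset_c _ (Cel.mem_of x h)⟩⟩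

/-- a cell meeting an open cell contains it. -/
lemma Cel.le_of_mem {σ τ : Cel D} {x : Fin n → ℝ} (hx : x ∈ σ.o) (hx' : x ∈ τ.c) : σ ≤ τ := by
  rw [Cel.eq_of hx (τ.c_subset_Om hx')]
  exact Cel.of_le hx'

/-- (M1) -/
lemma Cel.c_eq (τ : Cel D) : τ.c = ⋃ σ ∈ {σ : Cel D | σ ≤ τ}, σ.o := by
  ext x
  simp only [mem_iUnion, mem_ofPred_eq, exists_prop]
  constructor
  · intro hx
    exact ⟨Cel.of x (τ.c_subset_Om hx), Cel.of_le hx, Cel.mem_of _ _⟩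
  · rintro ⟨σ, h, hx⟩
    exact h (σ.o_subset_c hx)

/-- (M2) the boundary is the union of the smaller closed cells. -/
lemma Cel.boundary (τ : Cel D) : τ.c \ τ.o = ⋃ σ ∈ {σ : Cel D | σ < τ}, σ.c := by
  ext x
  simp only [mem_iUnion, mem_ofPred_eq, exists_prop, mem_sdiff]
  constructor
  · rintro ⟨hx, hx'⟩
    refine ⟨Cel.of x (τ.c_subset_Om hx), lt_of_le_of_ne (Cel.of_le hx) ?_,
      Cel.o_subset_c _ (Cel.mem_of _ _)⟩
    intro h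
    apply hx'
    rw [← h]
    exact Cel.mem_of _ _
  · rintro ⟨σ, h, hx⟩
    refine ⟨h.le hx, fun hx' => ?_⟩
    exact absurd (Cel.le_of_mem hx' hx) (not_le_of_gt h)

/-- (M3) -/
lemma Cel.inter (σ τ : Cel D) :
    σ.c ∩ τ.c = ⋃ υ ∈ {υ : Cel D | υ ≤ σ ∧ υ ≤ τ}, υ.o := by
  ext x
  simp only [mem_iUnion, mem_ofPred_eq, exists_prop, mem_inter_iff]
  constructor
  · rintro ⟨h1, h2⟩
    refine ⟨Cel.of x (σ.c_subset_Om h1), ⟨Cel.of_le h1, Cel.of_le h2⟩, Cel.mem_of _ _⟩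
  · rintro ⟨υ, ⟨h1, h2⟩, hx⟩
    exact ⟨h1 (υ.o_subset_c hx), h2 (υ.o_subset_c hx)⟩

/-- size on a cell: `C ≤ 2^k ρ < 4(C+1)` everywhere on a closed cell of scale `k`. -/
lemma Cel.size (σ : Cel D) {y : Fin n → ℝ} (hy : y ∈ σ.c) :
    D.C ≤ 2 ^ σ.1.k * D.ρ y ∧ 2 ^ σ.1.k * D.ρ y < 2 * D.C + 2 := by
  refine ⟨σ.2.lower hy, ?_⟩
  have h1 := K_upper (σ.2.pos hy)
  have h2 : (2 : ℝ) ^ σ.1.k ≤ 2 ^ (K D y) := pow_le_pow_right₀ one_le_two (σ.2.le_K hy)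
  have h3 := mul_le_mul_of_nonneg_right h2 (D.nonneg y)
  linarith

/-- scales of touching cells. -/
lemma Cel.scale_le {σ τ : Cel D} {y : Fin n → ℝ} (hy : y ∈ σ.c) (hy' : y ∈ τ.c) :
    σ.1.k ≤ τ.1.k + 1 := (σ.2.le_K hy).trans (τ.2.K_le hy')

lemma Cel.scale_mono {σ τ : Cel D} (h : σ ≤ τ) : τ.1.k ≤ σ.1.k := by
  obtain ⟨x, hx⟩ := σ.o_nonempty
  have h1 := τ.2.le_K (h (σ.o_subset_c hx))
  rwa [σ.2.K_eq hx] at h1

end Crest.Agent.R096.Msh_810
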