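import Crest.Agent.R096.Nr4_527
import Crest.Agent.R096.Mbf_337
import Crest.Agent.R096.ThC6_766
import Crest.Agent.R096.Msh2_810

/-!
Row 96 (S0127), helper360.  FINE-SUP, part 1: size functions and the supply of `Mbf_337.Fine`.

* `exists_rho` : a size function from a local, antitone property of sets;
* `FineS Φ f ε S` : the two clauses of `Fine` for all pairs of points of `S`;
* `fineS_loc`, **`exists_fine_rho`** : a size function such that the part of `closedBall x (ρ x)` off the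
  holes is fine;
* `fine_of_rho` : `Mbf_337.Fine` for a tiling whose non-core tiles are small;
* `ofDat` : the same on the tiles of 810's Whitney mesh.
-/

set_option autoImplicit false
set_option linter.style.longLine false
set_option linter.unusedSectionVars false

open MeasureTheory Set Filter Topology Metric

namespace Crest.Agent.R096.Fns_360

/-! ### size functions -/

section rho

variable {X : Type*} [PseudoMetricSpace X]

/-- admissible radii -/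
def adm (U : Set X) (G : Set X → Prop) (x : X) : Set ℝ :=
  {r | 0 ≤ r ∧ r ≤ 1 ∧ (0 < r → ball x r ⊆ U ∧ G (ball x r))}

theorem zero_mem_adm (U : Set X) (G : Set X → Prop) (x : X) : (0 : ℝ) ∈ adm U G x :=
  ⟨le_refl _, zero_le_one, fun h => absurd h (lt_irrefl _)⟩

theorem adm_bdd (U : Set X) (G : Set X → Prop) (x : X) : BddAbove (adm U G x) :=
  ⟨1, fun _ h => h.2.1⟩

/-- **a size function from a local antitone property.** -/
theorem exists_rho {U : Set X} (hU : IsOpen U) (G : Set X → Prop)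
    (anti : ∀ s t, s ⊆ t → G t → G s) (loc : ∀ x ∈ U, ∃ r > 0, G (closedBall x r)) :
    ∃ ρ : X → ℝ, (∀ x y, ρ x ≤ ρ y + dist x y) ∧ (∀ x, 0 ≤ ρ x) ∧ (∀ x, ρ x ≤ 1) ∧
      (∀ x, 0 < ρ x ↔ x ∈ U) ∧ ∀ x ∈ U, closedBall x (ρ x) ⊆ U ∧ G (closedBall x (ρ x)) := by
  classical
  have hnn : ∀ x, 0 ≤ sSup (adm U G x) := fun x => le_csSup (adm_bdd U G x) (zero_mem_adm U G x)
  have hlip : ∀ x y, sSup (adm U G x) ≤ sSup (adm U G y) + dist x y := by
    intro x y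
    refine csSup_le ⟨0, zero_mem_adm U G x⟩ fun r hr => ?_
    rcases le_or_gt r (dist x y) with h | h
    · exact h.trans (le_add_of_nonneg_left (hnn y))
    · have hr0 : 0 < r := dist_nonneg.trans_lt h
      have h1 : r - dist x y ∈ adm U G y := by
        refine ⟨by linarith, by linarith [hr.2.1, dist_nonneg (x := x) (y := y)], fun _ => ?_⟩
        have h2 : ball y (r - dist x y) ⊆ ball x r := by
          apply ball_subset_ball'
          rw [dist_comm y x]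
          linarith
        exact ⟨h2.trans (hr.2.2 hr0).1, anti _ _ h2 (hr.2.2 hr0).2⟩
      have := le_csSup (adm_bdd U G y) h1
      linarith
  have hle1 : ∀ x, sSup (adm U G x) ≤ 1 := fun x =>
    csSup_le ⟨0, zero_mem_adm U G x⟩ fun r hr => hr.2.1
  have hpos : ∀ x, 0 < sSup (adm U G x) ↔ x ∈ U := by
    intro x
    constructor
    · intro h
      obtain ⟨r, hr, h0⟩ := exists_lt_of_lt_csSup ⟨0, zero_mem_adm U G x⟩ h
      exact (hr.2.2 h0).1 (mem_ball_self h0)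
    · intro hx
      obtain ⟨r, hr, hG⟩ := loc x hx
      obtain ⟨r', hr', hU'⟩ := Metric.isOpen_iff.1 hU x hx
      have h1 : min (min r r') 1 ∈ adm U G x := by
        refine ⟨by positivity, min_le_right _ _, fun _ => ⟨?_, ?_⟩⟩
        · exact (ball_subset_ball ((min_le_left _ _).trans (min_le_right _ _))).trans hU'
        · exact anti _ _ (ball_subset_closedBall.trans
            (closedBall_subset_closedBall ((min_le_left _ _).trans (min_le_left _ _)))) hG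
      exact (by positivity : (0 : ℝ) < min (min r r') 1).trans_le (le_csSup (adm_bdd U G x) h1)
  refine ⟨fun x => sSup (adm U G x) / 2, ?_, ?_, ?_, ?_, ?_⟩
  · intro x y
    have := hlip x y
    have := dist_nonneg (x := x) (y := y)
    linarith
  · intro x
    have := hnn x
    linarith
  · intro x
    have := hle1 x
    have := hnn x
    linarith
  · intro x
    rw [← hpos x]
    constructor <;> intro h <;> linarith
  · intro x hx
    have h0 := (hpos x).2 hx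
    obtain ⟨r, hr, h1⟩ := exists_lt_of_lt_csSup (s := adm U G x) (b := sSup (adm U G x) / 2)
      ⟨0, zero_mem_adm U G x⟩ (by linarith)
    have h2 : 0 < r := by linarith
    have h3 : closedBall x (sSup (adm U G x) / 2) ⊆ ball x r := closedBall_subset_ball h1
    exact ⟨h3.trans (hr.2.2 h2).1, anti _ _ h3 (hr.2.2 h2).2⟩

end rho

/-! ### the local property -/

open Crest.Agent.R096.Bsp_628 Crest.Agent.R096.Brk1_582 Crest.Agent.R096.Brk2_582
open Crest.Agent.R096.Brk3_582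
open Crest.Agent.R096.Brk5_582
open Crest.Agent.R096.Msh_715
open Crest.Agent.R96.Push_899
open Crest.Agent.R096.SkC1_961 (E3 Hom3 IsPush FoamD)

noncomputable section

variable {δ κ0 R c0 : ℝ} {La Om : Set E3}

/-- the two clauses of `Mbf_337.Fine` for all pairs of points of `S` -/
structure FineS (Φ : FoamD δ κ0 R c0 La) (f : E3 → E3) (ε : ℝ) (S : Set E3) : Prop where
  psi : ∀ x ∈ S, ∀ y ∈ S, ∀ c : Φ.F, Φ.Psi (f x) ∈ c.1.set →
    ‖Φ.Psi (f y) - Φ.Psi (f x)‖ ≤ ε * c.1.sz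
  lev : ∀ x ∈ S, ∀ y ∈ S, ∀ c : Φ.F, |Φ.lev c (f y) - Φ.lev c (f x)| ≤ ε

theorem FineS.mono {Φ : FoamD δ κ0 R c0 La} {f : E3 → E3} {ε : ℝ} {S S' : Set E3}
    (h : FineS Φ f ε S) (hS : S' ⊆ S) : FineS Φ f ε S' :=
  ⟨fun x hx y hy => h.psi x (hS hx) y (hS hy), fun x hx y hy => h.lev x (hS hx) y (hS hy)⟩

theorem FineS.congr {Φ : FoamD δ κ0 R c0 La} {f g : E3 → E3} {ε : ℝ} {S : Set E3}
    (h : FineS Φ f ε S) (hfg : ∀ x ∈ S, g x = f x) : FineS Φ g ε S :=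
  ⟨fun x hx y hy c hc => by
    rw [hfg x hx] at hc ⊢; rw [hfg y hy]; exact h.psi x hx y hy c hc,
   fun x hx y hy c => by rw [hfg x hx, hfg y hy]; exact h.lev x hx y hy c⟩

/-- the oscillation of the coordinates and of the points near a point of the target -/
theorem target_loc (Φ : FoamD δ κ0 R c0 La) (hLa : IsOpen La) (hδ : 0 < δ) (hR : 0 < R) {ε : ℝ}
    (hε : 0 < ε) {p0 : E3} (hp0 : p0 ∈ La) :
    ∃ r > 0, ∀ p ∈ ball p0 r, ∀ q ∈ ball p0 r, (∀ c : Φ.F, p ∈ c.1.set → ‖q - p‖ ≤ ε * c.1.sz) ∧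
      ∀ c : Φ.F, |sc (Pc Φ.F) (bc (F := Φ.F)) q c - sc (Pc Φ.F) (bc (F := Φ.F)) p c| ≤ ε := by
  have FF := foam Φ.bf hLa
  obtain ⟨r1, hr1, hfin⟩ := FF.lf p0 hp0
  obtain ⟨r2, hr2, hball⟩ := Metric.isOpen_iff.1 hLa p0 hp0
  set s : Set Φ.F := {c | (Pc Φ.F c ∩ Metric.ball p0 r1).Nonempty} with hs
  have hne : s.Nonempty := by
    obtain ⟨c, hc⟩ := FF.cov p0 hp0
    exact ⟨c, p0, hc, Metric.mem_ball_self hr1⟩
  obtain ⟨c1, hc1, hmin⟩ := Set.exists_min_image _ (fun c : Φ.F => c.1.sz) hfin hne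
  have hsz : 0 < c1.1.sz := Bx.sz_pos (Φ.bf.pos _ c1.2)
  set m := c1.1.sz with hm
  have hC := Cs_nonneg (n := Fintype.card (Fin 3)) hδ hR
  set C := Cs (Fintype.card (Fin 3)) δ R with hCdef
  set r := min (min r1 r2) (ε * m / (2 * (C + 1))) with hr
  have hr0 : 0 < r := by positivity
  have hrr : 2 * r ≤ ε * m / (C + 1) := by
    have h1 : r ≤ ε * m / (2 * (C + 1)) := min_le_right _ _
    have h2 : ε * m / (2 * (C + 1)) = ε * m / (C + 1) / 2 := by field_simp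
    rw [h2] at h1
    linarith
  have hsub : ball p0 r ⊆ ball p0 r1 := ball_subset_ball ((min_le_left _ _).trans (min_le_left _ _))
  have hsub2 : ball p0 r ⊆ La :=
    (ball_subset_ball ((min_le_left _ _).trans (min_le_right _ _))).trans hball
  refine ⟨r, hr0, fun p hp q hq => ?_⟩
  have hd : ‖q - p‖ ≤ 2 * r := by
    have h1 := mem_ball.1 hp
    have h2 := mem_ball.1 hq
    have h3 := dist_triangle_right q p p0
    rw [← dist_eq_norm]
    linarith
  constructor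
  · intro c hc
    have hcs : c ∈ s := ⟨p, hc, hsub hp⟩
    have h1 : m ≤ c.1.sz := hmin c hcs
    have h2 : ε * m / (C + 1) ≤ ε * m := div_le_self (by positivity) (by linarith)
    have h3 : ε * m ≤ ε * c.1.sz := mul_le_mul_of_nonneg_left h1 hε.le
    linarith
  · intro c
    have hcov : ball p0 r ⊆ ⋃ c ∈ s, Pc Φ.F c := by
      intro x hx
      obtain ⟨d, hd⟩ := FF.cov x (hsub2 hx)
      exact mem_iUnion₂.2 ⟨d, ⟨x, hd, hsub hx⟩, hd⟩
    have h1 := lip_convex Φ.bf hLa hδ hR Φ.cmp (convex_ball p0 r) hfin hcov hsz hmin c q hq p hp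
    refine h1.trans ?_
    have h2 : C / m * ‖q - p‖ ≤ C / m * (ε * m / (C + 1)) :=
      mul_le_mul_of_nonneg_left (hd.trans hrr) (by positivity)
    have h3 : C / m * (ε * m / (C + 1)) = ε * (C / (C + 1)) := by field_simp
    have h4 : C / (C + 1) ≤ 1 := (div_le_one (by linarith)).2 (by linarith)
    calc C / m * ‖q - p‖ ≤ C / m * (ε * m / (C + 1)) := h2
      _ = ε * (C / (C + 1)) := h3
      _ ≤ ε * 1 := mul_le_mul_of_nonneg_left h4 hε.le
      _ = ε := mul_one _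

/-- `Psi ∘ f` is defined and continuous off the holes -/
theorem continuousOn_Psi_comp (Φ : FoamD δ κ0 R c0 La) (hLa : IsOpen La) {f : E3 → E3}
    (hfm : MapsTo f Om La) (hfc : ContinuousOn f Om) {X : Set E3}
    (hXh : ∀ x ∈ Om, x ∈ X → ∀ c : Φ.F, f x ∉ (Φ.B c).S) :
    ContinuousOn (fun x => Φ.Psi (f x)) (Om ∩ X) ∧ ∀ x ∈ Om ∩ X, Φ.Psi (f x) ∈ La := by
  constructor
  · refine (Nr_527.continuousOn_Psi Φ hLa).comp (hfc.mono inter_subset_left) ?_
    exact fun x hx => ⟨hfm hx.1, hXh x hx.1 hx.2⟩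
  · intro x hx
    obtain ⟨c, hc⟩ := (foam Φ.bf hLa).cov _ (hfm hx.1)
    exact (foam Φ.bf hLa).sub c (Nr_527.Psi_mem Φ hLa hc (hXh x hx.1 hx.2 c))

/-- **every point of `Om` has a ball whose part in `X` is fine** (`X` relatively closed in `Om`, off the
holes) -/
theorem fineS_loc (Φ : FoamD δ κ0 R c0 La) (hLa : IsOpen La) (hδ : 0 < δ) (hR : 0 < R) {f : E3 → E3}
    (hfm : MapsTo f Om La) (hfc : ContinuousOn f Om) {X : Set E3}
    (hX : ∀ x ∈ Om, x ∉ X → ∀ᶠ y in 𝓝 x, y ∉ X)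
    (hXh : ∀ x ∈ Om, x ∈ X → ∀ c : Φ.F, f x ∉ (Φ.B c).S) {ε : ℝ} (hε : 0 < ε) {x : E3} (hx : x ∈ Om) :
    ∃ r > 0, FineS Φ f ε (closedBall x r ∩ (Om ∩ X)) := by
  by_cases hxX : x ∈ X
  · obtain ⟨hc, hm⟩ := continuousOn_Psi_comp Φ hLa hfm hfc hXh
    obtain ⟨r, hr, h⟩ := target_loc Φ hLa hδ hR hε (hm x ⟨hx, hxX⟩)
    have h1 := (hc x ⟨hx, hxX⟩) (ball_mem_nhds _ hr)
    rw [Filter.mem_map, mem_nhdsWithin_iff] at h1
    obtain ⟨r', hr', h2⟩ := h1
    have h3 : ∀ y ∈ closedBall x (r' / 2) ∩ (Om ∩ X), Φ.Psi (f y) ∈ ball (Φ.Psi (f x)) r := by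
      intro y hy
      exact h2 ⟨closedBall_subset_ball (half_lt_self hr') hy.1, hy.2⟩
    refine ⟨r' / 2, half_pos hr', ⟨fun y hy y' hy' c hc' => ?_, fun y hy y' hy' c => ?_⟩⟩
    · exact (h _ (h3 y hy) _ (h3 y' hy')).1 c hc'
    · exact (h _ (h3 y hy) _ (h3 y' hy')).2 c
  · obtain ⟨r, hr, h⟩ := Metric.eventually_nhds_iff.1 (hX x hx hxX)
    have h1 : ∀ y ∈ closedBall x (r / 2) ∩ (Om ∩ X), False := by
      intro y hy
      refine h ?_ hy.2.2
      have := mem_closedBall.1 hy.1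
      linarith
    exact ⟨r / 2, half_pos hr, ⟨fun y hy => (h1 y hy).elim, fun y hy => (h1 y hy).elim⟩⟩

/-- **SIZE FUNCTION FOR `Fine`.** -/
theorem exists_fine_rho (Φ : FoamD δ κ0 R c0 La) (hOm : IsOpen Om) (hLa : IsOpen La) (hδ : 0 < δ)
    (hR : 0 < R) {f : E3 → E3} (hfm : MapsTo f Om La) (hfc : ContinuousOn f Om) {X : Set E3}
    (hX : ∀ x ∈ Om, x ∉ X → ∀ᶠ y in 𝓝 x, y ∉ X)
    (hXh : ∀ x ∈ Om, x ∈ X → ∀ c : Φ.F, f x ∉ (Φ.B c).S) {ε : ℝ} (hε : 0 < ε) :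
    ∃ ρ : E3 → ℝ, (∀ x y, ρ x ≤ ρ y + dist x y) ∧ (∀ x, 0 ≤ ρ x) ∧ (∀ x, ρ x ≤ 1) ∧
      (∀ x, 0 < ρ x ↔ x ∈ Om) ∧ ∀ x ∈ Om, closedBall x (ρ x) ⊆ Om ∧
        FineS Φ f ε (closedBall x (ρ x) ∩ (Om ∩ X)) :=
  exists_rho hOm (fun s => FineS Φ f ε (s ∩ (Om ∩ X)))
    (fun _ _ hst h => h.mono (inter_subset_inter_left _ hst))
    fun _ hx => fineS_loc Φ hLa hδ hR hfm hfc hX hXh hε hx

/-- the form with 766's `Scale` -/
theorem exists_fine_scale (Φ : FoamD δ κ0 R c0 La) (hOm : IsOpen Om) (hLa : IsOpen La) (hδ : 0 < δ)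
    (hR : 0 < R) {f : E3 → E3} (hf : Hom3 f Om La) {X : Set E3}
    (hX : ∀ x ∈ Om, x ∉ X → ∀ᶠ y in 𝓝 x, y ∉ X)
    (hXh : ∀ x ∈ Om, x ∈ X → ∀ c : Φ.F, f x ∉ (Φ.B c).S) {ε : ℝ} (hε : 0 < ε) :
    ∃ ρ : E3 → ℝ, (∀ x, 0 ≤ ρ x) ∧ (∀ x y, ρ x ≤ ρ y + ‖x - y‖ / 8) ∧ (∀ x ∈ Om, 0 < ρ x) ∧
      (∀ x ∉ Om, ρ x = 0) ∧ (∀ x, ρ x ≤ 1) ∧
      ∀ x ∈ Om ∩ X, ∀ y ∈ Om ∩ X, ‖y - x‖ ≤ ρ x →
        (∀ c : Φ.F, Φ.Psi (f x) ∈ c.1.set → ‖Φ.Psi (f y) - Φ.Psi (f x)‖ ≤ ε * c.1.sz) ∧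
        ∀ c : Φ.F, |Φ.lev c (f y) - Φ.lev c (f x)| ≤ ε := by
  obtain ⟨fi, hm, -, -, -, hc, -⟩ := hf
  obtain ⟨ρ, h1, h2, h3, h4, h5⟩ := exists_fine_rho Φ hOm hLa hδ hR hm hc hX hXh hε
  refine ⟨fun x => ρ x / 8, fun x => by have := h2 x; positivity, fun x y => ?_, fun x hx => ?_,
    fun x hx => ?_, fun x => ?_, fun x hx y hy hxy => ?_⟩
  · have := h1 x y
    rw [dist_eq_norm] at this
    linarith
  · have := (h4 x).2 hx
    positivity
  · have := h2 x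
    have h6 : ¬ 0 < ρ x := fun h => hx ((h4 x).1 h)
    have : ρ x = 0 := le_antisymm (not_lt.1 h6) this
    simp [this]
  · have := h3 x
    linarith
  · have h6 := (h5 x hx.1).2
    have hρ := h2 x
    have hx' : x ∈ closedBall x (ρ x) ∩ (Om ∩ X) := ⟨mem_closedBall_self hρ, hx⟩
    have hy' : y ∈ closedBall x (ρ x) ∩ (Om ∩ X) := by
      refine ⟨?_, hy⟩
      rw [mem_closedBall, dist_eq_norm]
      linarith
    exact ⟨fun c hc' => h6.psi x hx' y hy' c hc', fun c => h6.lev x hx' y hy' c⟩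

end

end Crest.Agent.R096.Fns_360
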