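import Crest.Agent.R096.Fns1_360
import Crest.Agent.R096.Bxs10_627
import Crest.Agent.R096.Msh6_810

/-!
Row 96 (S0127), helper360.  FINE-SUP, part 2: `Mbf_337.Fine` from a size function.

* `offO f O` : the points which `f` maps off the open sets `O c`; `exists_rho_off`, `exists_dat_off`;
* `fineS_tile` : the tiles of 810's Whitney tiling of a `Dat` below the size function;
* **`mbf_fine`** : `Mbf_337.Fine` from the alternative 'small at a point' / 'fine';
* `off_core` : the complement of an exact core is mapped off the 3/4 core;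
* **`fine_coresM`** : `Fine` for `X = univ`.
-/

set_option autoImplicit false
set_option linter.style.longLine false
set_option linter.unusedSectionVars false

open MeasureTheory Set Filter Topology Metric

namespace Crest.Agent.R096.Fns_360

open Crest.Agent.R096.Bsp_628 Crest.Agent.R096.Brk1_582 Crest.Agent.R096.Brk2_582
open Crest.Agent.R096.Brk3_582
open Crest.Agent.R096.Brk5_582
open Crest.Agent.R096.Msh_715
open Crest.Agent.R96.Push_899
open Crest.Agent.R096.SkC1_961 (E3 Hom3 IsPush FoamD)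
open Crest.Agent.R096.EaX_766 (cbx)
open Crest.Agent.R096.Bxs_627 (ctr cb CoriE fD)

noncomputable section

variable {δ κ0 R c0 : ℝ} {La Om : Set E3}

/-- the points which `f` maps off the sets `O c` -/
def offO {I : Type*} (f : E3 → E3) (O : I → Set E3) : Set E3 := {x | ∀ c, f x ∉ O c}

theorem offO_closed {I : Type*} {f : E3 → E3} {O : I → Set E3} (hOm : IsOpen Om)
    (hfc : ContinuousOn f Om) (hO : ∀ c, IsOpen (O c)) :
    ∀ x ∈ Om, x ∉ offO f O → ∀ᶠ y in 𝓝 x, y ∉ offO f O := by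
  intro x hx hxO
  have h1 : ∃ c, f x ∈ O c := by
    by_contra hcon
    push Not at hcon
    exact hxO hcon
  obtain ⟨c, hc⟩ := h1
  have h2 := (hfc.continuousAt (hOm.mem_nhds hx)).eventually_mem ((hO c).mem_nhds hc)
  filter_upwards [h2] with y hy hcon
  exact hcon c hy

/-- size function, points off open neighbourhoods of the holes -/
theorem exists_rho_off (Φ : FoamD δ κ0 R c0 La) (hOm : IsOpen Om) (hLa : IsOpen La) (hδ : 0 < δ)
    (hR : 0 < R) {f : E3 → E3} (hfm : MapsTo f Om La) (hfc : ContinuousOn f Om) {O : Φ.F → Set E3}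
    (hO : ∀ c, IsOpen (O c)) (hB : ∀ c, (Φ.B c).S ⊆ O c) {ε : ℝ} (hε : 0 < ε) :
    ∃ ρ : E3 → ℝ, (∀ x y, ρ x ≤ ρ y + dist x y) ∧ (∀ x, 0 ≤ ρ x) ∧ (∀ x, ρ x ≤ 1) ∧
      (∀ x, 0 < ρ x ↔ x ∈ Om) ∧ ∀ x ∈ Om, closedBall x (ρ x) ⊆ Om ∧
        FineS Φ f ε (closedBall x (ρ x) ∩ (Om ∩ offO f O)) :=
  exists_fine_rho Φ hOm hLa hδ hR hfm hfc (offO_closed hOm hfc hO)
    (fun _ _ hx c hc => hx c (hB c hc)) hε

/-- the same in a linear frame: a size function for 810's Whitney mesh -/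
theorem exists_dat_off (φ : E3 ≃L[ℝ] (Fin 3 → ℝ)) (Φ : FoamD δ κ0 R c0 La) (hOm : IsOpen Om)
    (hLa : IsOpen La) (hδ : 0 < δ) (hR : 0 < R) {f : E3 → E3} (hfm : MapsTo f Om La)
    (hfc : ContinuousOn f Om) {O : Φ.F → Set E3} (hO : ∀ c, IsOpen (O c))
    (hB : ∀ c, (Φ.B c).S ⊆ O c) {ε : ℝ} (hε : 0 < ε) :
    ∃ ρ : (Fin 3 → ℝ) → ℝ, (∀ x y, ρ x ≤ ρ y + dist x y) ∧ (∀ x, 0 ≤ ρ x) ∧ (∀ x, ρ x ≤ 1) ∧
      (∀ x, 0 < ρ (φ x) ↔ x ∈ Om) ∧ ∀ x ∈ Om, φ ⁻¹' closedBall (φ x) (ρ (φ x)) ⊆ Om ∧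
        FineS Φ f ε (φ ⁻¹' closedBall (φ x) (ρ (φ x)) ∩ (Om ∩ offO f O)) := by
  have hU : IsOpen (φ.symm ⁻¹' Om) := hOm.preimage φ.symm.continuous
  obtain ⟨ρ, h1, h2, h3, h4, h5⟩ := exists_rho hU
    (fun s => φ ⁻¹' s ⊆ Om ∧ FineS Φ f ε (φ ⁻¹' s ∩ (Om ∩ offO f O)))
    (fun s t hst h => ⟨(preimage_mono hst).trans h.1,
      h.2.mono (inter_subset_inter_left _ (preimage_mono hst))⟩) (by
      intro u hu
      have hx : φ.symm u ∈ Om := hu
      obtain ⟨r, hr, hF⟩ := fineS_loc Φ hLa hδ hR hfm hfc (offO_closed hOm hfc hO)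
        (fun _ _ hx c hc => hx c (hB c hc)) hε hx
      obtain ⟨r1, hr1, hr1'⟩ := Metric.isOpen_iff.1 hOm _ hx
      have h6 : φ.symm ⁻¹' (ball (φ.symm u) (min r r1)) ∈ 𝓝 u :=
        φ.symm.continuous.continuousAt.preimage_mem_nhds (ball_mem_nhds _ (by positivity))
      obtain ⟨s, hs, hs'⟩ := Metric.nhds_basis_closedBall.mem_iff.1 h6
      have h7 : φ ⁻¹' closedBall u s ⊆ ball (φ.symm u) (min r r1) := by
        intro y hy
        have := hs' hy
        simpa using this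
      refine ⟨s, hs, h7.trans ((ball_subset_ball (min_le_right _ _)).trans hr1'), ?_⟩
      exact hF.mono (inter_subset_inter_left _ (h7.trans
        ((ball_subset_ball (min_le_left _ _)).trans ball_subset_closedBall))))
  refine ⟨ρ, h1, h2, h3, fun x => ?_, fun x hx => ?_⟩
  · rw [h4]
    simp
  · have h6 : φ x ∈ φ.symm ⁻¹' Om := by simpa using hx
    exact (h5 _ h6).2

/-- the tiles of 810's tiling of a `Dat` below `ρ` lie in the ball of each of their points -/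
theorem tile_sub_ball {φ : E3 ≃L[ℝ] (Fin 3 → ℝ)} {D : Msh_810.Dat 3} {ρ : (Fin 3 → ℝ) → ℝ}
    (hρ : ∀ u, D.ρ u ≤ ρ u) (τ : Msh_810.Top D) {x : E3} (hx : x ∈ P ((Msh_810.tiling φ D).H τ)) :
    P ((Msh_810.tiling φ D).H τ) ⊆ φ ⁻¹' closedBall (φ x) (ρ (φ x)) := by
  have key : ∀ y, y ∈ P ((Msh_810.tiling φ D).H τ) → φ y ∈ Msh_810.Cu D.a τ.1.1.k τ.1.1.z := by
    intro y hy
    have h := Msh_810.P_Hc φ D.a τ.1.1.k τ.1.1.z
    change y ∈ P (Msh_810.Hc φ D.a τ.1.1.k τ.1.1.z) at hy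
    rw [h] at hy
    exact hy
  intro y hy
  have h1 := Msh_810.dist_le_of_mem_Cu (key y hy) (key x hx)
  have h2 : D.C ≤ 2 ^ τ.1.1.k * D.ρ (φ x) := by
    have h3 : φ x ∈ τ.1.c := by
      rw [Msh_810.Top.c_eq]; exact key x hx
    exact τ.1.2.lower h3
  have h4 := D.hC
  have hp : (0 : ℝ) < 2 ^ τ.1.1.k := by positivity
  have h5 : (2 : ℝ) ^ τ.1.1.k * dist (φ y) (φ x) ≤ 2 ^ τ.1.1.k * D.ρ (φ x) := by linarith
  have h6 := le_of_mul_le_mul_left h5 hp
  exact h6.trans (hρ _)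

/-- tiles of 810's tiling -/
theorem fineS_tile {Φ : FoamD δ κ0 R c0 La} {f : E3 → E3} {ε : ℝ} {Y : Set E3}
    {φ : E3 ≃L[ℝ] (Fin 3 → ℝ)} {D : Msh_810.Dat 3} {ρ : (Fin 3 → ℝ) → ℝ} (hρ : ∀ u, D.ρ u ≤ ρ u)
    (hF : ∀ x ∈ Om, FineS Φ f ε (φ ⁻¹' closedBall (φ x) (ρ (φ x)) ∩ Y)) (τ : Msh_810.Top D)
    (hτ : P ((Msh_810.tiling φ D).H τ) ⊆ Om) : FineS Φ f ε (P ((Msh_810.tiling φ D).H τ) ∩ Y) := by
  obtain ⟨x, hx⟩ := (Msh_810.tiling φ D).ne τ
  have hx' := I_sub_P _ hx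
  exact (hF x (hτ hx')).mono (inter_subset_inter_left _ (tile_sub_ball hρ τ hx'))

/-- **`Mbf_337.Fine` from fine tiles** -/
theorem mbf_fine {ι : Type} {T : Tiling Om ι} {Φ : FoamD δ κ0 R c0 La} {f : E3 → E3} {ε : ℝ}
    {J0 : Φ.F → Set ι} (h : ∀ i, (∀ c, i ∉ J0 c) → FineS Φ f ε (P (T.H i))) :
    Mbf_337.Fine Φ T f ε J0 :=
  ⟨fun i hi x hx y hy c hc => (h i hi).psi x hx y hy c hc,
   fun i hi x hx y hy c => (h i hi).lev x hx y hy c⟩

/-- a point off an exact core is mapped off the 3/4 core -/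
theorem off_core {Q : Bx (Fin 3)} (hQ : Q.Pos) (hasp : ∀ k, Q.sz ≤ κ0 * Q.side k) {f : E3 → E3}
    {A : E3 ≃ᵃ[ℝ] E3} {lam κ1 κ2 : ℝ} (hl : 0 < lam) (hκ1 : 0 ≤ κ1) (hκ : κ1 * κ0 ≤ 1 / 8)
    (hcor : CoriE Om f A Q lam κ1 κ2) {x : E3} (hx : x ∈ Om)
    (hxA : x ∉ interior (A ⁻¹' cbx Q lam)) : f x ∉ interior (cbx Q (3 / 4 * lam)) := by
  intro hcon
  have hside : ∀ k, 0 < Q.side k := fun k => Bx.side_pos hQ k
  -- strict inequalities in the interior
  have h1 : ∀ k, |f x k - ctr Q k| < 3 / 4 * lam * Q.side k / 2 := by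
    intro k
    have hsub : cbx Q (3 / 4 * lam) ⊆ {y : E3 | |y k - ctr Q k| ≤ 3 / 4 * lam * Q.side k / 2} :=
      fun y hy => hy k
    by_contra hlt
    have hle := interior_subset hcon
    have e : |f x k - ctr Q k| = 3 / 4 * lam * Q.side k / 2 := le_antisymm (hle k) (not_lt.1 hlt)
    -- move the coordinate `k` outwards
    have hpos : 0 < |f x k - ctr Q k| := by rw [e]; have := hside k; positivity
    have hc : ContinuousAt (fun s : ℝ => Function.update (f x) k (ctr Q k + (1 + s) * (f x k - ctr Q k))) 0 := by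
      fun_prop
    have h0 : (fun s : ℝ => Function.update (f x) k (ctr Q k + (1 + s) * (f x k - ctr Q k))) 0 = f x := by
      funext j
      by_cases hj : j = k
      · subst hj; simp
      · simp [Function.update_of_ne hj]
    have hev : ∀ᶠ s in 𝓝 (0 : ℝ), Function.update (f x) k (ctr Q k + (1 + s) * (f x k - ctr Q k)) ∈
        interior (cbx Q (3 / 4 * lam)) := by
      refine hc.eventually_mem (isOpen_interior.mem_nhds ?_)
      have h0' := h0
      beta_reduce at h0'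
      rw [h0']; exact hcon
    obtain ⟨r, hr, hr'⟩ := Metric.eventually_nhds_iff.1 hev
    have h2 := hsub (interior_subset (hr' (y := r / 2) (by
      rw [Real.dist_eq, sub_zero, abs_of_pos (by positivity)]; linarith)))
    have h3 : Function.update (f x) k (ctr Q k + (1 + r / 2) * (f x k - ctr Q k)) k - ctr Q k =
        (1 + r / 2) * (f x k - ctr Q k) := by
      rw [Function.update_self]; ring
    simp only [mem_ofPred_eq] at h2
    rw [h3, abs_mul, abs_of_pos (by positivity : (0 : ℝ) < 1 + r / 2), ← e] at h2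
    nlinarith
  -- closeness
  have h2 : ‖f x - A x‖ ≤ κ1 * (lam * Q.sz) := by
    refine (hcor x (Or.inl ⟨hx, fun k => ?_⟩)).2
    have h3 := h1 k
    have h4 := hside k
    have h5 : 0 < lam * Q.side k := by positivity
    nlinarith
  apply hxA
  rw [mem_interior_iff_mem_nhds]
  have h3 : ∀ k, |A x k - ctr Q k| < lam * Q.side k / 2 := by
    intro k
    have h4 : |f x k - A x k| ≤ κ1 * (lam * Q.sz) := by
      have := norm_le_pi_norm (f x - A x) k
      rw [Pi.sub_apply, Real.norm_eq_abs] at this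
      exact this.trans h2
    have h5 : κ1 * (lam * Q.sz) ≤ 1 / 8 * (lam * Q.side k) := by
      have h6 := hasp k
      have h7 := hside k
      have h8 : 0 < lam * Q.side k := by positivity
      calc κ1 * (lam * Q.sz) ≤ κ1 * (lam * (κ0 * Q.side k)) := by gcongr
        _ = κ1 * κ0 * (lam * Q.side k) := by ring
        _ ≤ 1 / 8 * (lam * Q.side k) := mul_le_mul_of_nonneg_right hκ h8.le
    have h6 : |A x k - ctr Q k| ≤ |f x k - ctr Q k| + |f x k - A x k| := by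
      have h7 := abs_sub_le (A x k) (f x k) (ctr Q k)
      rw [abs_sub_comm (A x k) (f x k)] at h7
      linarith
    have h7 := h1 k
    have h8 : 3 / 4 * lam * Q.side k / 2 = 3 / 8 * (lam * Q.side k) := by ring
    rw [h8] at h7
    have h9 : lam * Q.side k / 2 = 1 / 2 * (lam * Q.side k) := by ring
    rw [h9]
    linarith
  have hc : ∀ k, ContinuousAt (fun y : E3 => |A y k - ctr Q k|) x := fun k =>
    (((continuous_apply k).continuousAt.comp
      (AffineMap.continuous_of_finiteDimensional (A : E3 →ᵃ[ℝ] E3)).continuousAt).sub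
        continuousAt_const).abs
  have h4 : ∀ᶠ y in 𝓝 x, ∀ k, |A y k - ctr Q k| < lam * Q.side k / 2 := by
    rw [eventually_all]
    exact fun k => (hc k).eventually (gt_mem_nhds (h3 k))
  filter_upwards [h4] with y hy
  exact fun k => (hy k).le

/-- the hole of `fD` lies in the open 3/4 core -/
theorem hole_sub {Q : Bx (Fin 3)} (hQ : Q.Pos) {lam : ℝ} (hl : 0 < lam) :
    (cb Q hQ (lam / 2) (half_pos hl).le).S ⊆ interior (cbx Q (3 / 4 * lam)) := by
  intro y hy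
  rw [Bxs_627.mem_cb] at hy
  rw [mem_interior_iff_mem_nhds]
  have h1 : ∀ k, |y k - ctr Q k| < 3 / 4 * lam * Q.side k / 2 := by
    intro k
    have := hy k
    have h2 := Bx.side_pos hQ k
    have h3 : 0 < lam * Q.side k := by positivity
    nlinarith
  have h4 : ∀ᶠ y' in 𝓝 y, ∀ k, |y' k - ctr Q k| < 3 / 4 * lam * Q.side k / 2 := by
    rw [eventually_all]
    intro k
    have hc : ContinuousAt (fun y' : E3 => |y' k - ctr Q k|) y :=
      (((continuous_apply k).continuousAt).sub continuousAt_const).abs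
    exact hc.eventually (gt_mem_nhds (h1 k))
  filter_upwards [h4] with y' hy'
  exact fun k => (hy' k).le

/-- the open 3/4 cores -/
def O34 {F : Set (Bx (Fin 3))} (lam : F → ℝ) (c : F) : Set E3 := interior (cbx c.1 (3 / 4 * lam c))

/-- **a tile which is not a core, all bricks exact: it is mapped off the open 3/4 cores.** -/
theorem tile_off {F : Set (Bx (Fin 3))} (bf : BoxFoam La F δ κ0) (lam : F → ℝ)
    (hl : ∀ c, 0 < lam c) {f : E3 → E3} {κ1 κ2 : ℝ} (hκ1 : 0 ≤ κ1) (hκ : κ1 * κ0 ≤ 1 / 8) {ι : Type}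
    {T : Tiling Om ι} {ct : F → ι} {A : F → E3 ≃ᵃ[ℝ] E3}
    (hcor : ∀ c, CoriE Om f (A c) c.1 (lam c) κ1 κ2)
    (htile : ∀ c, P (T.H (ct c)) = A c ⁻¹' cbx c.1 (lam c)) {i : ι} (hi : ∀ c, i ≠ ct c) :
    P (T.H i) ⊆ Om ∩ offO f (O34 lam) := by
  intro x hx
  refine ⟨T.sub i hx, fun c => ?_⟩
  refine off_core (bf.pos _ c.2) (bf.asp _ c.2) (hl c) hκ1 hκ (hcor c) (T.sub i hx) ?_
  rw [← htile, Nr_527.interior_P' (T.ne _)]
  exact fun h => Set.disjoint_left.1 (disjoint_P_I (T.ne i) (T.dis i (ct c) (hi c))) hx h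

/-- **FINE for `X = univ`** (627's literal form): core tiles = the exact cores, every other tile lies in
the ball of one of its points (or is fine for another reason). -/
theorem fine_coresM {F : Set (Bx (Fin 3))} (bf : BoxFoam La F δ κ0) (cmp : Cmp F R) (hκ0 : 1 ≤ κ0)
    (hc : 0 < c0) (hc2 : c0 * κ0 ≤ 1) (lam : F → ℝ) (hl : ∀ c, c0 ≤ lam c) (hl1 : ∀ c, lam c < 1)
    {f : E3 → E3} {κ1 κ2 : ℝ} (hκ1 : 0 ≤ κ1) (hκ : κ1 * κ0 ≤ 1 / 8) {ι : Type} {T : Tiling Om ι}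
    {ct : F → ι} {A : F → E3 ≃ᵃ[ℝ] E3} (hcor : ∀ c, CoriE Om f (A c) c.1 (lam c) κ1 κ2)
    (htile : ∀ c, P (T.H (ct c)) = A c ⁻¹' cbx c.1 (lam c)) {ε : ℝ} {ρ : E3 → ℝ}
    (hρ : ∀ x ∈ Om, FineS (fD bf cmp hκ0 hc hc2 lam hl hl1) f ε
      (closedBall x (ρ x) ∩ (Om ∩ offO f (O34 lam))))
    (hT : ∀ i, (∀ c, i ≠ ct c) → (∃ x ∈ Om, P (T.H i) ⊆ closedBall x (ρ x)) ∨
      FineS (fD bf cmp hκ0 hc hc2 lam hl hl1) f ε (P (T.H i))) :
    Mbf_337.Fine (fD bf cmp hκ0 hc hc2 lam hl hl1) T f ε (fun c => {ct c}) := by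
  refine mbf_fine fun i hi => ?_
  have hi' : ∀ c, i ≠ ct c := fun c h => hi c h
  rcases hT i hi' with ⟨x, hx, h⟩ | h
  · refine (hρ x hx).mono fun y hy => ⟨h hy, ?_⟩
    exact tile_off bf lam (fun c => hc.trans_le (hl c)) hκ1 hκ hcor htile hi' hy
  · exact h

end

end Crest.Agent.R096.Fns_360
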