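import Crest.Agent.R096.Fns2_360
import Crest.Agent.R096.Core5_124

/-!
Row 96 (S0127), helper360.  FINE-SUP, part 3: the inner tiles (inside the block of an exact core).

* `psi_lip_off` : the two-stage push is Lipschitz off `{tt C B < θ}` (no convexity);
* `psh_lip_off` : the one-stage push is Lipschitz off the hole;
* **`fineS_brick`** : a set whose image lies in the brick `c`, off the hole, with small oscillation of `f`
  is fine;
* `hcore_fD` : 124's `HCore` for `fD`;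
* **`fineS_inner`** : the tiles of the block, `f` close to the exact map `A`.
-/

set_option autoImplicit false
set_option linter.style.longLine false
set_option linter.unusedSectionVars false

open MeasureTheory Set Filter Topology Metric

namespace Crest.Agent.R096.Fns_360

open Crest.Agent.R096.Bsp_628 Crest.Agent.R096.Brk1_582 Crest.Agent.R096.Brk2_582
open Crest.Agent.R096.Brk3_582
open Crest.Agent.R096.Brk5_582
open Crest.Agent.R096.Msh_715
open Crest.Agent.R96.Push_899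
open Crest.Agent.R096.SkC1_961 (E3 Hom3 IsPush FoamD)
open Crest.Agent.R096.EaX_766 (cbx)
open Crest.Agent.R096.Bxs_627 (ctr cb CoriE fD)
open Crest.Agent.R096.Core_124

noncomputable section

theorem sum_le3 (y y' : E3) : ∑ j, |y' j - y j| ≤ 3 * ‖y' - y‖ := by
  have : ∀ j ∈ (Finset.univ : Finset (Fin 3)), |y' j - y j| ≤ ‖y' - y‖ := fun j _ => by
    have := norm_le_pi_norm (y' - y) j
    rwa [Pi.sub_apply, Real.norm_eq_abs] at this
  refine (Finset.sum_le_sum this).trans ?_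
  simp

/-- the Lipschitz constant of a push -/
def Kpu (α c0 θ : ℝ) : ℝ := 3 * max (2 / c0 ^ 2) (9 * (1 / θ) * α)

theorem Kpu_nonneg (α c0 θ : ℝ) : 0 ≤ Kpu α c0 θ :=
  mul_nonneg (by norm_num) (le_trans (by positivity) (le_max_left _ _))

/-- **the two-stage push is Lipschitz off a neighbourhood of the hole** -/
theorem psi_lip_off {P : Finset (Fin 3)} {c₀ κ ρ : ℝ} {Q C B : Box (Fin 3)} (hQ : Shape P c₀ κ ρ Q C)
    (hC : Inner C B) {α θ : ℝ} (hα : ∀ i j, Q.W i ≤ α * C.W j) (hθ : 0 < θ) (hθ1 : θ ≤ 1)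
    {y y' : E3} (hy : θ ≤ tt C B y) (hy' : θ ≤ tt C B y') :
    ‖psi Q C B y' - psi Q C B y‖ ≤ Kpu α c₀ θ * ‖y' - y‖ := by
  have hα0 : 0 ≤ α := by
    have h1 := hα 0 0
    have h2 := hQ.W0 0
    have h3 := hC.W0 0
    by_contra hneg
    nlinarith
  have hc0 := hQ.c0
  set K := max (2 / c₀ ^ 2) (9 * (1 / θ) * α) with hK
  have hK1 : 2 / c₀ ^ 2 ≤ K := le_max_left _ _
  have hK2 : 9 * (1 / θ) * α ≤ K := le_max_right _ _
  have hK0 : 0 ≤ K := le_trans (by positivity) hK1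
  have toN : ∀ z z' : E3, (∀ i, |psi Q C B z' i - psi Q C B z i| ≤ K * ∑ j, |z' j - z j|) →
      ‖psi Q C B z' - psi Q C B z‖ ≤ 3 * K * ‖z' - z‖ := by
    intro z z' h
    refine (pi_norm_le_iff_of_nonneg (by positivity)).2 fun i => ?_
    rw [Pi.sub_apply, Real.norm_eq_abs]
    refine (h i).trans ?_
    calc K * ∑ j, |z' j - z j| ≤ K * (3 * ‖z' - z‖) :=
          mul_le_mul_of_nonneg_left (sum_le3 z z') hK0
      _ = 3 * K * ‖z' - z‖ := by ring
  have hout : ∀ z z' : E3, z ∉ C.I → z' ∉ C.I →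
      ‖psi Q C B z' - psi Q C B z‖ ≤ 3 * K * ‖z' - z‖ := by
    intro z z' h1 h2
    refine toN z z' fun i => (psi_incr_out hQ hC h1 h2 i).trans ?_
    exact mul_le_mul_of_nonneg_right hK1 (Finset.sum_nonneg fun _ _ => abs_nonneg _)
  have hin : ∀ z z' : E3, z ∈ C.S → z' ∈ C.S → θ ≤ tt C B z → θ ≤ tt C B z' →
      ‖psi Q C B z' - psi Q C B z‖ ≤ 3 * K * ‖z' - z‖ := by
    intro z z' h1 h2 h3 h4
    have h1t : tt C B z' ≤ 1 := (tt_le_one_iff hC.nest _).2 h2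
    refine toN z z' fun i => ?_
    have h5 := psi_incr_in hQ hC h1 h2 ⟨by linarith, Or.inl (by linarith)⟩
      ⟨by linarith, Or.inl (by linarith)⟩ (M := 1 / θ) (fun i => by
        have h6 := hC.W_le_ww i (t := tt C B z') (by linarith) h1t
        have h7 := hC.W0 i
        rw [div_mul_eq_mul_div, one_mul, le_div_iff₀ hθ]
        nlinarith) (a := fun _ => α) (fun i j => hα i j) i
    refine h5.trans ?_
    rw [← Finset.mul_sum, ← mul_assoc]
    exact mul_le_mul_of_nonneg_right hK2 (Finset.sum_nonneg fun _ _ => abs_nonneg _)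
  have hmix : ∀ z z' : E3, z ∈ C.S → z' ∉ C.S → θ ≤ tt C B z → θ ≤ tt C B z' →
      ‖psi Q C B z' - psi Q C B z‖ ≤ 3 * K * ‖z' - z‖ := by
    intro z z' h1 h2 h3 h4
    have hzI : z' ∉ C.I := fun h => h2 fun i => ⟨(h i).1.le, (h i).2.le⟩
    have ht1 : tt C B z ≤ 1 := (tt_le_one_iff hC.nest _).2 h1
    have ht2 : 1 ≤ tt C B z' := not_lt.1 (mt (tt_lt_one_iff hC.nest _).1 hzI)
    have hcont : Continuous fun s : ℝ => tt C B (z + s • (z' - z)) :=
      (continuous_tt C B).comp (by fun_prop)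
    obtain ⟨s, hs, hs1⟩ : (1:ℝ) ∈ (fun s : ℝ => tt C B (z + s • (z' - z))) '' Icc 0 1 := by
      refine intermediate_value_Icc zero_le_one hcont.continuousOn ?_
      constructor
      · simpa using ht1
      · simpa using ht2
    set x := z + s • (z' - z) with hx
    have hs1' : tt C B x = 1 := hs1
    have hxS : x ∈ C.S := (tt_le_one_iff hC.nest _).1 hs1'.le
    have hxI : x ∉ C.I := fun h => by
      have := (tt_lt_one_iff hC.nest _).2 h
      linarith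
    have e1 : ‖x - z‖ = s * ‖z' - z‖ := by
      rw [hx, show z + s • (z' - z) - z = s • (z' - z) by module, norm_smul,
        Real.norm_of_nonneg hs.1]
    have e2 : ‖z' - x‖ = (1 - s) * ‖z' - z‖ := by
      rw [hx, show z' - (z + s • (z' - z)) = (1 - s) • (z' - z) by module, norm_smul,
        Real.norm_of_nonneg (sub_nonneg.2 hs.2)]
    have b1 := hin z x h1 hxS h3 (by rw [hs1']; exact hθ1)
    have b2 := hout x z' hxI hzI
    calc ‖psi Q C B z' - psi Q C B z‖ ≤ ‖psi Q C B z' - psi Q C B x‖ +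
        ‖psi Q C B x - psi Q C B z‖ := norm_sub_le_norm_sub_add_norm_sub _ _ _
      _ ≤ 3 * K * ‖z' - x‖ + 3 * K * ‖x - z‖ := add_le_add b2 b1
      _ = 3 * K * ‖z' - z‖ := by rw [e1, e2]; ring
  change ‖psi Q C B y' - psi Q C B y‖ ≤ 3 * K * ‖y' - y‖
  by_cases h1 : y ∈ C.S <;> by_cases h2 : y' ∈ C.S
  · exact hin y y' h1 h2 hy hy'
  · exact hmix y y' h1 h2 hy hy'
  · rw [norm_sub_rev, norm_sub_rev y' y]
    exact hmix y' y h2 h1 hy' hy
  · exact hout y y' (fun h => h1 fun i => ⟨(h i).1.le, (h i).2.le⟩)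
      (fun h => h2 fun i => ⟨(h i).1.le, (h i).2.le⟩)

/-- the one-stage push is Lipschitz off the hole -/
theorem psh_lip_off {P : Finset (Fin 3)} {c₀ κ ρ : ℝ} {Q C : Box (Fin 3)} (hQ : Shape P c₀ κ ρ Q C)
    {y y' : E3} (hy : 0 ≤ tt Q C y) (hy' : 0 ≤ tt Q C y') :
    ‖psh Q C y' - psh Q C y‖ ≤ 6 / c₀ ^ 2 * ‖y' - y‖ := by
  have hc0 := hQ.c0
  refine (pi_norm_le_iff_of_nonneg (by positivity)).2 fun i => ?_
  rw [Pi.sub_apply, Real.norm_eq_abs]
  refine (hQ.incr hy hy' i).trans ?_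
  calc 2 / c₀ ^ 2 * ∑ j, |y' j - y j| ≤ 2 / c₀ ^ 2 * (3 * ‖y' - y‖) :=
        mul_le_mul_of_nonneg_left (sum_le3 y y') (by positivity)
    _ = 6 / c₀ ^ 2 * ‖y' - y‖ := by ring

variable {δ κ0 R c0 : ℝ} {La Om : Set E3}

/-- the constant of `fineS_brick` -/
def KF (δ R : ℝ) : ℝ := max R (Cs (Fintype.card (Fin 3)) δ R)

/-- **a set which is mapped into one brick, off the hole, with small oscillation** -/
theorem fineS_brick (Φ : FoamD δ κ0 R c0 La) (hLa : IsOpen La) (hδ : 0 < δ) (hR : 0 < R) {c : Φ.F}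
    {f : E3 → E3} {S : Set E3} {L η ε : ℝ} (hS : ∀ x ∈ S, f x ∈ c.1.set ∧ f x ∉ (Φ.B c).S)
    (hL0 : 0 ≤ L)
    (hL : ∀ x ∈ S, ∀ y ∈ S, ‖Φ.pu c (f y) - Φ.pu c (f x)‖ ≤ L * ‖f y - f x‖)
    (hη : ∀ x ∈ S, ∀ y ∈ S, ‖f y - f x‖ ≤ η * c.1.sz) (hε : KF δ R * (L * η) ≤ ε) :
    FineS Φ f ε S := by
  have hsz : 0 < c.1.sz := Bx.sz_pos (Φ.bf.pos _ c.2)
  have hC := Cs_nonneg (n := Fintype.card (Fin 3)) hδ hR
  have e : ∀ x ∈ S, Φ.Psi (f x) = Φ.pu c (f x) := fun x hx =>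
    Vb_965.Psi_eqD Φ hLa (hS x hx).1
  have hm : ∀ x ∈ S, Φ.Psi (f x) ∈ Pc Φ.F c := fun x hx =>
    Nr_527.Psi_mem Φ hLa (hS x hx).1 (hS x hx).2
  have hd : ∀ x ∈ S, ∀ y ∈ S, ‖Φ.Psi (f y) - Φ.Psi (f x)‖ ≤ L * η * c.1.sz := by
    intro x hx y hy
    rw [e x hx, e y hy]
    calc _ ≤ L * ‖f y - f x‖ := hL x hx y hy
      _ ≤ L * (η * c.1.sz) := mul_le_mul_of_nonneg_left (hη x hx y hy) hL0
      _ = _ := by ring
  have hLη : ∀ x ∈ S, 0 ≤ L * η := by
    intro x hx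
    have h1 := hη x hx x hx
    rw [sub_self, norm_zero] at h1
    have h2 : 0 ≤ η := by
      by_contra hneg
      nlinarith
    positivity
  constructor
  · intro x hx y hy c' hc'
    have h1 : c.1.sz ≤ R * c'.1.sz := Φ.cmp c c' ⟨_, hm x hx, hc'⟩
    have h2 := hLη x hx
    have h3 : 0 < c'.1.sz := Bx.sz_pos (Φ.bf.pos _ c'.2)
    calc _ ≤ L * η * c.1.sz := hd x hx y hy
      _ ≤ L * η * (R * c'.1.sz) := mul_le_mul_of_nonneg_left h1 h2
      _ = R * (L * η) * c'.1.sz := by ring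
      _ ≤ KF δ R * (L * η) * c'.1.sz := by
        apply mul_le_mul_of_nonneg_right _ h3.le
        exact mul_le_mul_of_nonneg_right (le_max_left _ _) h2
      _ ≤ ε * c'.1.sz := mul_le_mul_of_nonneg_right hε h3.le
  · intro x hx y hy c'
    have h2 := hLη x hx
    have h1 := lip_cell Φ.bf hLa hδ hR Φ.cmp c _ (hm y hy) _ (hm x hx) c'
    refine h1.trans ?_
    calc _ ≤ Cs (Fintype.card (Fin 3)) δ R / c.1.sz * (L * η * c.1.sz) :=
          mul_le_mul_of_nonneg_left (hd x hx y hy) (by positivity)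
      _ = Cs (Fintype.card (Fin 3)) δ R * (L * η) := by field_simp
      _ ≤ KF δ R * (L * η) := mul_le_mul_of_nonneg_right (le_max_right _ _) h2
      _ ≤ ε := hε

/-- the constant of the inner tiles -/
def KI (δ κ0 R c0 : ℝ) : ℝ := KF δ R * Kpu (κ0 / c0) c0 (1 / 2)

/-- **inner tiles, in 124's language**: `f` maps `S` into the brick, `tt ≥ 1/2` -/
theorem fineS_nr {Φ : FoamD δ κ0 R c0 La} (hLa : IsOpen La) (hδ : 0 < δ) (hR : 0 < R) {c : Φ.F}
    {P : Finset (Fin 3)} {κ ρ : ℝ} {C : Box (Fin 3)} {lam : ℝ} {z : E3}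
    (H : HCore Φ c P κ ρ C lam z) {f : E3 → E3} {S : Set E3} {η ε : ℝ} (hS : ∀ x ∈ S, f x ∈ H.Nr)
    (hη : ∀ x ∈ S, ∀ y ∈ S, ‖f y - f x‖ ≤ η * c.1.sz) (hε : KI δ κ0 R c0 * η ≤ ε) :
    FineS Φ f ε S := by
  have hc0 := H.shape.c0
  refine fineS_brick Φ hLa hδ hR (c := c) (L := Kpu (κ0 / c0) c0 (1 / 2)) (η := η)
    (fun x hx => ⟨(hS x hx).1, fun h => ?_⟩) (Kpu_nonneg _ _ _) (fun x hx y hy => ?_) hη (by
      rw [← mul_assoc]; exact hε)
  · have h1 := (tt_le_zero_iff H.inner.nest (f x)).2 h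
    have h2 := (hS x hx).2
    linarith
  · rw [H.pu]
    refine psi_lip_off H.shape H.inner (fun i j => ?_) (by norm_num) (by norm_num) (hS x hx).2
      (hS y hy).2
    have h5 : (bbox Φ c).W i ≤ κ0 * (bbox Φ c).W j := (H.side_le i).trans (H.side_ge j)
    have h6 := H.shape.wd j
    have h8 := H.shape.W0 j
    have hk := H.k1
    rw [div_mul_eq_mul_div, le_div_iff₀ hc0]
    nlinarith

/-- `HCore` for `fD` -/
theorem hcore_fD {F : Set (Bx (Fin 3))} (bf : BoxFoam La F δ κ0) (cmp : Cmp F R) (hκ0 : 1 ≤ κ0)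
    (hc : 0 < c0) (hc2 : c0 * κ0 ≤ 1) (lam : F → ℝ) (hl : ∀ c, c0 ≤ lam c) (hl1 : ∀ c, lam c < 1)
    (c : F) :
    HCore (fD bf cmp hκ0 hc hc2 lam hl hl1) c ∅ 0 ((1 - lam c) * c.1.sz / 2)
      (cb c.1 (bf.pos _ c.2) (lam c) (hc.trans_le (hl c)).le) (lam c)
      (Bxs_627.zz c.1 (lam c)) where
  shape := Bxs_627.shape_cb' (bf.pos _ c.2) hκ0 (bf.asp _ c.2) (hc.trans_le (hl c)) (hl1 c) hc (hl c) hc2
  inner := Bxs_627.inner_cb (bf.pos _ c.2) (hc.trans_le (hl c))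
  pu := rfl
  l0 := hc.trans_le (hl c)
  l1 := (hl1 c).le
  lo _ := rfl
  hi _ := rfl

/-- off the open 3/4 core, `tt ≥ 1/2` -/
theorem half_le_tt {Q : Bx (Fin 3)} (hQ : Q.Pos) {lam : ℝ} (hl : 0 < lam) {y : E3}
    (hy : y ∉ interior (cbx Q (3 / 4 * lam))) :
    1 / 2 ≤ tt (cb Q hQ lam hl.le) (cb Q hQ (lam / 2) (half_pos hl).le) y := by
  by_contra hcon
  rw [not_le, tt_lt_iff] at hcon
  apply hy
  rw [mem_interior_iff_mem_nhds]
  have hn : Nest (cb Q hQ (lam / 2) (half_pos hl).le) (cb Q hQ lam hl.le) :=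
    (Bxs_627.inner_cb hQ hl).nest
  have h1 : ∀ k, |y k - ctr Q k| < 3 / 4 * lam * Q.side k / 2 := by
    intro k
    have h2 := (gg_lt_iff hn y k (1 / 2)).1 (hcon k)
    unfold cl ch at h2
    rw [Bxs_627.cb_lo, Bxs_627.cb_lo, Bxs_627.cb_hi, Bxs_627.cb_hi] at h2
    rw [abs_lt]
    constructor <;> linarith [h2.1, h2.2]
  have h4 : ∀ᶠ y' in 𝓝 y, ∀ k, |y' k - ctr Q k| < 3 / 4 * lam * Q.side k / 2 := by
    rw [eventually_all]
    intro k
    have hc : ContinuousAt (fun y' : E3 => |y' k - ctr Q k|) y :=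
      (((continuous_apply k).continuousAt).sub continuousAt_const).abs
    exact hc.eventually (gt_mem_nhds (h1 k))
  filter_upwards [h4] with y' hy'
  exact fun k => (hy' k).le

/-- **INNER TILES for `fD`**: `S` off the open core, mapped into the closed brick, `f` close to `A` on
`S` and `A` oscillates little on `S`. -/
theorem fineS_inner {F : Set (Bx (Fin 3))} (hLa : IsOpen La) (hδ : 0 < δ) (hR : 0 < R)
    (bf : BoxFoam La F δ κ0) (cmp : Cmp F R) (hκ0 : 1 ≤ κ0)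
    (hc : 0 < c0) (hc2 : c0 * κ0 ≤ 1) (lam : F → ℝ) (hl : ∀ c, c0 ≤ lam c) (hl1 : ∀ c, lam c < 1)
    {f : E3 → E3} {κ1 κ2 : ℝ} (hκ1 : 0 ≤ κ1) (hκ : κ1 * κ0 ≤ 1 / 8) {c : F} {A : E3 ≃ᵃ[ℝ] E3}
    (hcor : CoriE Om f A c.1 (lam c) κ1 κ2) {S : Set E3} (hSO : S ⊆ Om)
    (hSA : ∀ x ∈ S, x ∉ interior (A ⁻¹' cbx c.1 (lam c))) (hSc : ∀ x ∈ S, f x ∈ c.1.set)
    {κw η : ℝ} (hw : ∀ x ∈ S, ‖f x - A x‖ ≤ κw * c.1.sz)
    (hη : ∀ x ∈ S, ∀ y ∈ S, ‖A y - A x‖ ≤ η * c.1.sz) {ε : ℝ}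
    (hε : KI δ κ0 R c0 * (η + 2 * κw) ≤ ε) :
    FineS (fD bf cmp hκ0 hc hc2 lam hl hl1) f ε S := by
  refine fineS_nr hLa hδ hR (hcore_fD bf cmp hκ0 hc hc2 lam hl hl1 c) (fun x hx => ⟨hSc x hx, ?_⟩)
    (η := η + 2 * κw) (fun x hx y hy => ?_) hε
  · refine half_le_tt (bf.pos _ c.2) (hc.trans_le (hl c)) ?_
    exact off_core (bf.pos _ c.2) (bf.asp _ c.2) (hc.trans_le (hl c)) hκ1 hκ hcor (hSO hx) (hSA x hx)
  · have h1 := hw x hx
    have h2 := hw y hy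
    have h3 := hη x hx y hy
    have e : f y - f x = (f y - A y) + (A y - A x) - (f x - A x) := by abel
    rw [e]
    refine (norm_sub_le _ _).trans ?_
    have h4 := norm_add_le (f y - A y) (A y - A x)
    have e2 : (η + 2 * κw) * c.1.sz = κw * c.1.sz + η * c.1.sz + κw * c.1.sz := by ring
    change _ ≤ (η + 2 * κw) * c.1.sz
    rw [e2]
    linarith

end

end Crest.Agent.R096.Fns_360
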