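import Crest.Agent.R096.Fp1_812

/-!
Row 96, P5-FANPATH (helper812): the path lemma for fan maps.
-/

set_option autoImplicit false

open Module Set Filter
open scoped Topology

namespace Crest.Agent.R096.Fp_812

/-- a small Lipschitz perturbation of a bijective antilipschitz map is bijective -/
theorem bijective_of_perturb {E : Type*} [NormedAddCommGroup E] [CompleteSpace E]
    {f g : E → E} (hf : Function.Bijective f) {m k : ℝ} (hk : 0 ≤ k) (hkm : k < m)
    (hm : ∀ x y, m * dist x y ≤ dist (f x) (f y))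
    (hg : ∀ x y, dist (g x - f x) (g y - f y) ≤ k * dist x y) : Function.Bijective g := by
  have hm0 : 0 < m := hk.trans_lt hkm
  constructor
  · intro x y hxy
    have h1 := hm x y
    have h2 := hg x y
    rw [hxy, dist_eq_norm, show g y - f x - (g y - f y) = f y - f x by abel, ← dist_eq_norm,
      dist_comm (f y)] at h2
    have h3 : m * dist x y ≤ k * dist x y := h1.trans h2
    have h4 : dist x y ≤ 0 := by
      by_contra h; push Not at h
      nlinarith
    exact dist_le_zero.1 h4
  · intro z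
    let e := Equiv.ofBijective f hf
    have he : ∀ x, e x = f x := fun _ => rfl
    let T : E → E := fun x => e.symm (z - (g x - f x))
    have hT : ContractingWith (Real.toNNReal (k / m)) T := by
      constructor
      · rw [← NNReal.coe_lt_coe, Real.coe_toNNReal _ (div_nonneg hk hm0.le)]
        exact (div_lt_one hm0).2 hkm
      · refine LipschitzWith.of_dist_le_mul fun x y => ?_
        rw [Real.coe_toNNReal _ (div_nonneg hk hm0.le)]
        have h1 := hm (T x) (T y)
        have e1 : f (T x) = z - (g x - f x) := by rw [← he]; exact e.apply_symm_apply _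
        have e2 : f (T y) = z - (g y - f y) := by rw [← he]; exact e.apply_symm_apply _
        rw [e1, e2, dist_sub_left] at h1
        have h2 := h1.trans (hg x y)
        rw [div_mul_eq_mul_div, le_div_iff₀ hm0]
        linarith
    refine ⟨ContractingWith.fixedPoint T hT, ?_⟩
    have hfix := hT.fixedPoint_isFixedPt
    set x := ContractingWith.fixedPoint T hT
    have e1 : f (T x) = z - (g x - f x) := by rw [← he]; exact e.apply_symm_apply _
    rw [hfix] at e1
    have := eq_sub_iff_add_eq.1 e1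
    simpa using this

namespace Fan

variable {V E : Type*} [Fintype V] [NormedAddCommGroup E] [NormedSpace ℝ E]
  [FiniteDimensional ℝ E] (F : Fan V E)

/-- uniform constants along a path of nondegenerate fan maps -/
theorem exists_bounds (w : ℝ → V → E) (hw : ContinuousOn w (Icc 0 1))
    (hdet : ∀ t ∈ Icc (0 : ℝ) 1, ∀ c ∈ F.T, (F.lin c (w t)).det ≠ 0) :
    ∃ m M : ℝ, 0 < m ∧ ∀ t ∈ Icc (0 : ℝ) 1, ∀ c ∈ F.T,
      (∀ x, m * ‖x‖ ≤ ‖F.lin c (w t) x‖) ∧ ‖F.lin c (w t)‖ ≤ M := by
  classical
  have hl : ∀ c, ContinuousOn (fun t => F.lin c (w t)) (Icc 0 1) := fun c =>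
    (F.continuous_lin c).comp_continuousOn hw
  have h1 : ∀ c : F.T, ∃ m M : ℝ, 0 < m ∧ ∀ t ∈ Icc (0 : ℝ) 1,
      (∀ x, m * ‖x‖ ≤ ‖F.lin c.1 (w t) x‖) ∧ ‖F.lin c.1 (w t)‖ ≤ M := by
    rintro ⟨c, hc⟩
    have hK : IsCompact (Icc (0 : ℝ) 1 ×ˢ Metric.sphere (0 : E) 1) :=
      isCompact_Icc.prod (isCompact_sphere _ _)
    have hcont : ContinuousOn (fun q : ℝ × E => ‖F.lin c (w q.1) q.2‖)
        (Icc (0 : ℝ) 1 ×ˢ Metric.sphere (0 : E) 1) := by
      refine ContinuousOn.norm ?_
      have h2 : ContinuousOn (fun q : ℝ × E => F.lin c (w q.1))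
          (Icc (0 : ℝ) 1 ×ˢ Metric.sphere (0 : E) 1) :=
        (hl c).comp continuousOn_fst fun q hq => hq.1
      exact h2.clm_apply continuousOn_snd
    obtain ⟨m, hm0, hm⟩ := hK.exists_forall_le' hcont (a := 0) (by
      rintro ⟨t, x⟩ ⟨ht, hx⟩
      have hx0 : x ≠ 0 := by rintro rfl; simp at hx
      have hinj : Function.Injective (F.lin c (w t)) := by
        have := (LinearEquiv.ofIsUnitDet (f := (F.lin c (w t) : E →ₗ[ℝ] E))
          (v := finBasis ℝ E) (v' := finBasis ℝ E) (by
            rw [LinearMap.det_toMatrix]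
            exact isUnit_iff_ne_zero.2 (hdet t ht c hc))).injective
        intro a b hab
        exact this hab
      have : F.lin c (w t) x ≠ 0 := fun h => hx0 (hinj (by rw [h, map_zero]))
      simpa using this)
    obtain ⟨M, hM⟩ := isCompact_Icc.exists_bound_of_continuousOn (hl c)
    refine ⟨m, M, hm0, fun t ht => ⟨fun x => ?_, hM t ht⟩⟩
    by_cases hx : x = 0
    · simp [hx]
    · have hn : 0 < ‖x‖ := norm_pos_iff.2 hx
      have h3 := hm (t, ‖x‖⁻¹ • x) ⟨ht, by simp [norm_smul, hn.ne']⟩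
      simp only [ContinuousLinearMap.map_smul, norm_smul, norm_inv, norm_norm] at h3
      rw [inv_mul_eq_div, le_div_iff₀ hn] at h3
      exact h3
  choose m M hm0 hmM using h1
  by_cases hne : Nonempty F.T
  · obtain ⟨c0, hc0⟩ := Finite.exists_min m
    refine ⟨m c0, ∑ c, |M c|, hm0 c0, fun t ht c hc => ⟨fun x => ?_, ?_⟩⟩
    · exact (mul_le_mul_of_nonneg_right (hc0 ⟨c, hc⟩) (norm_nonneg x)).trans
        ((hmM ⟨c, hc⟩ t ht).1 x)
    · refine ((hmM ⟨c, hc⟩ t ht).2.trans (le_abs_self _)).trans ?_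
      exact Finset.single_le_sum (f := fun c : F.T => |M c|) (fun _ _ => abs_nonneg _)
        (Finset.mem_univ (⟨c, hc⟩ : F.T))
  · exact ⟨1, 0, one_pos, fun t ht c hc => absurd ⟨⟨c, hc⟩⟩ hne⟩

/-- **path lemma** -/
theorem bijective_of_path (w : ℝ → V → E) (hw : ContinuousOn w (Icc 0 1))
    (hdet : ∀ t ∈ Icc (0 : ℝ) 1, ∀ c ∈ F.T, (F.lin c (w t)).det ≠ 0)
    {t0 : ℝ} (ht0 : t0 ∈ Icc (0 : ℝ) 1) (hb : Function.Bijective (F.map (w t0))) :
    ∀ t ∈ Icc (0 : ℝ) 1, Function.Bijective (F.map (w t)) := by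
  obtain ⟨m, M, hm0, hmM⟩ := F.exists_bounds w hw hdet
  have hl : ∀ c, ContinuousOn (fun t => F.lin c (w t)) (Icc 0 1) := fun c =>
    (F.continuous_lin c).comp_continuousOn hw
  have : CompleteSpace E := FiniteDimensional.complete ℝ E
  have step : ∀ s ∈ Icc (0 : ℝ) 1, ∀ t ∈ Icc (0 : ℝ) 1,
      (∀ c ∈ F.T, ‖F.lin c (w t) - F.lin c (w s)‖ ≤ m / 2) →
      Function.Bijective (F.map (w s)) → Function.Bijective (F.map (w t)) := by
    intro s hs t ht hst hbs
    refine bijective_of_perturb hbs (k := m / 2) (m := m) (by linarith) (by linarith)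
      (fun x y => F.dist_le_map (w s) hbs m (fun c hc => (hmM s hs c hc).1) hm0 x y)
      (fun x y => ?_)
    rw [F.map_sub_map, F.map_sub_map]
    refine F.dist_map_le _ _ (fun c hc => ?_) x y
    rw [F.lin_sub hc]
    exact hst c hc
  intro t ht
  refine (isPreconnected_Icc.induction₂ (s := Icc (0 : ℝ) 1)
    (fun s t => (Function.Bijective (F.map (w s)) ↔ Function.Bijective (F.map (w t))))
    (fun s hs => by
      have h1 : ∀ᶠ t in 𝓝[Icc (0 : ℝ) 1] s, ∀ c : F.T,
          ‖F.lin c.1 (w t) - F.lin c.1 (w s)‖ ≤ m / 2 := by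
        rw [Filter.eventually_all]
        intro c
        have h2 : Tendsto (fun t => F.lin c.1 (w t)) (𝓝[Icc (0 : ℝ) 1] s)
            (𝓝 (F.lin c.1 (w s))) := hl c.1 s hs
        have h3 := (tendsto_iff_norm_sub_tendsto_zero.1 h2).eventually
          (gt_mem_nhds (half_pos hm0))
        filter_upwards [h3] with t ht using ht.le
      filter_upwards [h1, self_mem_nhdsWithin] with t ht ht'
      refine ⟨step s hs t ht' fun c hc => ht ⟨c, hc⟩, step t ht' s hs fun c hc => ?_⟩
      rw [norm_sub_rev]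
      exact ht ⟨c, hc⟩)
    (fun _ _ _ _ _ _ h h' => h.trans h') (fun _ _ _ _ h => h.symm) ht0 ht).1 hb

/-- the determinant of a cell depends continuously on the images of the vertices -/
theorem continuous_det (c : Finset V) : Continuous fun w : V → E => (F.lin c w).det :=
  ContinuousLinearMap.continuous_det.comp (F.continuous_lin c)

end Fan

end Crest.Agent.R096.Fp_812
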