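import Crest.Agent.R096.Fp2_812

/-!
Row 96, P5-FANPATH (helper812): functions linear on the cells of a fan; continuous selections of
linear maps are linear on the cells of an adapted fan; smooth paths in open sets.
-/

set_option autoImplicit false
set_option linter.unusedSectionVars false

open Module Set Filter
open scoped Topology ContDiff

namespace Crest.Agent.R096.Fp_812

namespace Fan

variable {V E : Type*} [Fintype V] [NormedAddCommGroup E] [NormedSpace ℝ E]
  [FiniteDimensional ℝ E] (F : Fan V E)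

/-- a function which is linear on every cell is a fan map -/
theorem map_eq_of_linear {G : Type*} [NormedAddCommGroup G] [NormedSpace ℝ G] (g : E → G)
    (hg : ∀ c ∈ F.T, ∃ L : E →L[ℝ] G, ∀ x ∈ F.cone c, g x = L x) :
    F.map (fun i => g (F.v i)) = g := by
  classical
  funext x
  obtain ⟨c, hc, hx⟩ := F.exists_cone x
  obtain ⟨L, hL⟩ := hg c hc
  have hLe : F.lin c (fun i => g (F.v i)) = L :=
    F.ext_cell hc fun i hi => by
      rw [F.lin_vertex hc _ hi]
      exact hL _ ⟨_, Rep.self hi⟩
  rw [F.map_eq_lin hc _ hx, hLe, hL x hx]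

theorem vertex_mem_cone {c : Finset V} {i : V} (hi : i ∈ c) : F.v i ∈ F.cone c := by
  classical
  exact ⟨_, Rep.self hi⟩

/-- a linear map which agrees on a cone with an injective function is injective -/
theorem injective_of_cone {G : Type*} [NormedAddCommGroup G] [NormedSpace ℝ G]
    {c : Finset V} (hc : c ∈ F.T) {g : E → G} (hg : Function.Injective g)
    {L : E →L[ℝ] G} (hL : ∀ x ∈ F.cone c, g x = L x) : Function.Injective L := by
  classical
  rw [injective_iff_map_eq_zero]
  intro a ha
  have hsum : a = ∑ i : c, (F.bas hc).repr a i • F.v i := by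
    conv_lhs => rw [← (F.bas hc).sum_repr a]
    exact Finset.sum_congr rfl fun i _ => by simp
  -- positive and negative parts
  have hrep : ∀ f : c → ℝ, (∀ i, 0 ≤ f i) → (∑ i : c, f i • F.v i) ∈ F.cone c := by
    intro f hf
    refine ⟨fun j => if hj : j ∈ c then f ⟨j, hj⟩ else 0, ?_, ?_, ?_⟩
    · intro j; by_cases hj : j ∈ c
      · simpa [hj] using hf ⟨j, hj⟩
      · simp [hj]
    · intro j hj; simp [hj]
    · rw [← Finset.sum_subset (Finset.subset_univ c)]
      · rw [← Finset.sum_coe_sort]
        exact Finset.sum_congr rfl fun j _ => by simp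
      · intro j _ hj; simp [hj]
  set p : E := ∑ i : c, max ((F.bas hc).repr a i) 0 • F.v i with hp
  set n : E := ∑ i : c, max (-(F.bas hc).repr a i) 0 • F.v i with hn
  have hpn : a = p - n := by
    rw [hsum, hp, hn, ← Finset.sum_sub_distrib]
    refine Finset.sum_congr rfl fun i _ => ?_
    rw [← sub_smul]
    congr 1
    rcases le_total 0 ((F.bas hc).repr a i) with h | h
    · rw [max_eq_left h, max_eq_right (by linarith)]; ring
    · rw [max_eq_right h, max_eq_left (by linarith)]; ring
  have h1 : p ∈ F.cone c := hrep _ fun i => le_max_right _ _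
  have h2 : n ∈ F.cone c := hrep _ fun i => le_max_right _ _
  have h3 : g p = g n := by
    rw [hL p h1, hL n h2]
    have : L p - L n = 0 := by rw [← map_sub, ← hpn, ha]
    exact sub_eq_zero.1 this
  rw [hpn, hg h3, sub_self]

/-- cells of an injective fan map are nondegenerate -/
theorem det_ne_zero (w : V → E) (hw : Function.Injective (F.map w)) {c : Finset V}
    (hc : c ∈ F.T) : (F.lin c w).det ≠ 0 := by
  have hinj := F.injective_of_cone hc hw (L := F.lin c w) fun x hx => F.map_eq_lin hc w hx
  have h2 : Function.Injective (F.lin c w : E →ₗ[ℝ] E) := hinj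
  have h3 := LinearMap.isUnit_iff_ker_eq_bot (F.lin c w : E →ₗ[ℝ] E) |>.2 (LinearMap.ker_eq_bot.2 h2)
  have h4 := h3.map (LinearMap.det : (E →ₗ[ℝ] E) →* ℝ)
  exact h4.ne_zero

/-- a continuous selection of finitely many linear maps is linear on the cells of a fan adapted to
the functionals `φ ∘ (A - B)` -/
theorem linear_of_selection (S : Finset (E →L[ℝ] E)) (H : E → E) (hH : Continuous H)
    (hsel : ∀ x, ∃ A ∈ S, H x = A x)
    (b : Basis (Fin (finrank ℝ E)) ℝ E)
    (had : ∀ c ∈ F.T, ∀ A ∈ S, ∀ B ∈ S, ∀ k, (∀ i ∈ c, 0 ≤ b.coord k ((A - B) (F.v i))) ∨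
      (∀ i ∈ c, b.coord k ((A - B) (F.v i)) ≤ 0)) :
    ∀ c ∈ F.T, ∃ A ∈ S, ∀ x ∈ F.cone c, H x = A x := by
  classical
  intro c hc
  -- positive combinations
  let P : Set (c → ℝ) := {a | ∀ i, 0 < a i}
  let X : (c → ℝ) → E := fun a => ∑ i : c, a i • F.v i
  have hX : Continuous X := by fun_prop
  have hPconv : Convex ℝ P := by
    intro a ha a' ha' s t hs ht hst i
    have h1 := ha i
    have h2 := ha' i
    simp only [Pi.add_apply, Pi.smul_apply, smul_eq_mul]
    rcases hs.eq_or_lt with rfl | hs
    · simp at hst; subst hst; simpa using h2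
    · exact add_pos_of_pos_of_nonneg (mul_pos hs h1) (mul_nonneg ht h2.le)
  -- dichotomy
  have hdich : ∀ A ∈ S, ∀ B ∈ S, (∀ i ∈ c, A (F.v i) = B (F.v i)) ∨
      ∀ a ∈ P, A (X a) ≠ B (X a) := by
    intro A hA B hB
    by_cases hAB : ∀ i ∈ c, A (F.v i) = B (F.v i)
    · exact Or.inl hAB
    · right
      push Not at hAB
      obtain ⟨i0, hi0, hne⟩ := hAB
      intro a ha heq
      have hk : ∃ k, b.coord k ((A - B) (F.v i0)) ≠ 0 := by
        by_contra hcon
        push Not at hcon
        apply hne
        have : (A - B) (F.v i0) = 0 := (b.forall_coord_eq_zero_iff).1 hcon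
        exact sub_eq_zero.1 this
      obtain ⟨k, hk⟩ := hk
      have hz : ∑ i : c, a i * b.coord k ((A - B) (F.v i)) = 0 := by
        have h1 : b.coord k ((A - B) (X a)) = 0 := by
          have : (A - B) (X a) = 0 := by
            simpa [sub_eq_zero] using heq
          rw [this, map_zero]
        simpa [X, map_sum] using h1
      rcases had c hc A hA B hB k with h | h
      · have h2 := (Finset.sum_eq_zero_iff_of_nonneg (fun i _ =>
          mul_nonneg (ha i).le (h i.1 i.2))).1 hz ⟨i0, hi0⟩ (Finset.mem_univ _)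
        rcases mul_eq_zero.1 h2 with h3 | h3
        · exact (ha ⟨i0, hi0⟩).ne' h3
        · exact hk h3
      · have h2 := (Finset.sum_eq_zero_iff_of_nonpos (fun i _ =>
          mul_nonpos_of_nonneg_of_nonpos (ha i).le (h i.1 i.2))).1 hz ⟨i0, hi0⟩
          (Finset.mem_univ _)
        rcases mul_eq_zero.1 h2 with h3 | h3
        · exact (ha ⟨i0, hi0⟩).ne' h3
        · exact hk h3
  -- base point
  have h1P : (fun _ => (1 : ℝ)) ∈ P := fun _ => one_pos
  obtain ⟨A, hA, hA1⟩ := hsel (X fun _ => 1)
  refine ⟨A, hA, ?_⟩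
  have hPA : ∀ a ∈ P, H (X a) = A (X a) := by
    -- two closed sets
    let Z1 : Set (c → ℝ) := {a | H (X a) = A (X a)}
    let S' := S.filter fun B => ¬ ∀ i ∈ c, B (F.v i) = A (F.v i)
    let Z2 : Set (c → ℝ) := ⋃ B ∈ S', {a | H (X a) = B (X a)}
    have hZ1 : IsClosed Z1 := isClosed_eq (hH.comp hX) (A.continuous.comp hX)
    have hZ2 : IsClosed Z2 := by
      refine Set.Finite.isClosed_biUnion (Finset.finite_toSet S') fun B _ => ?_
      exact isClosed_eq (hH.comp hX) (B.continuous.comp hX)
    have hcov : P ⊆ Z1 ∪ Z2 := by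
      intro a ha
      obtain ⟨B, hB, hBa⟩ := hsel (X a)
      by_cases hAB : ∀ i ∈ c, B (F.v i) = A (F.v i)
      · left
        show H (X a) = A (X a)
        rw [hBa]
        simp only [X, map_sum, ContinuousLinearMap.map_smul]
        exact Finset.sum_congr rfl fun i _ => by rw [hAB i.1 i.2]
      · right
        simp only [Z2, mem_iUnion]
        exact ⟨B, Finset.mem_filter.2 ⟨hB, hAB⟩, hBa⟩
    have hdisj : P ∩ (Z1 ∩ Z2) = ∅ := by
      ext a
      simp only [mem_inter_iff, mem_empty_iff_false, iff_false, not_and]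
      intro ha h1 h2
      simp only [Z2, mem_iUnion] at h2
      obtain ⟨B, hB, hBa⟩ := h2
      obtain ⟨hBS, hBA⟩ := Finset.mem_filter.1 hB
      rcases hdich B hBS A hA with h | h
      · exact hBA h
      · refine h a ha ?_
        have h3 : H (X a) = B (X a) := hBa
        have h4 : H (X a) = A (X a) := h1
        rw [← h3, h4]
    have hpre := hPconv.isPreconnected
    rw [isPreconnected_closed_iff] at hpre
    intro a ha
    by_contra hcon
    have haZ2 : a ∈ Z2 := by
      rcases hcov ha with h | h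
      · exact absurd h hcon
      · exact h
    have hbad := hpre Z1 Z2 hZ1 hZ2 hcov ⟨_, h1P, hA1⟩ ⟨a, ha, haZ2⟩
    rw [hdisj] at hbad
    exact Set.not_nonempty_empty hbad
  -- limit
  intro x hx
  obtain ⟨a, ha⟩ := hx
  have hxX : x = X (fun i => a i) := by
    rw [← ha.sum]
    simp only [X]
    rw [← Finset.sum_subset (Finset.subset_univ c)]
    · rw [← Finset.sum_coe_sort]
    · intro j _ hj; simp [ha.off j hj]
  have hlim : Tendsto (fun ε : ℝ => X (fun i => a i + ε)) (𝓝[>] 0) (𝓝 x) := by
    have : Continuous fun ε : ℝ => X (fun i => a i + ε) := hX.comp (by fun_prop)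
    have h2 := this.tendsto 0
    simp only [add_zero] at h2
    rw [← hxX] at h2
    exact h2.mono_left nhdsWithin_le_nhds
  have hev : ∀ᶠ ε : ℝ in 𝓝[>] 0, H (X (fun i => a i + ε)) = A (X (fun i => a i + ε)) := by
    filter_upwards [self_mem_nhdsWithin] with ε hε
    exact hPA _ fun i => add_pos_of_nonneg_of_pos (ha.nonneg i) hε
  exact tendsto_nhds_unique_of_eventuallyEq ((hH.tendsto x).comp hlim)
    ((A.continuous.tendsto x).comp hlim) hev

end Fan

theorem contDiff_eval (q : Polynomial ℝ) : ContDiff ℝ ∞ fun t : ℝ => q.eval t := by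
  induction q using Polynomial.induction_on' with
  | add p q hp hq => simpa using hp.add hq
  | monomial n c =>
    simp only [Polynomial.eval_monomial]
    exact contDiff_const.mul (contDiff_id.pow n)

/-- two points of an open set joined by a continuous path are joined by a polynomial path -/
theorem exists_smooth_path {G : Type*} [NormedAddCommGroup G] [NormedSpace ℝ G]
    [FiniteDimensional ℝ G] {U : Set G} (hU : IsOpen U) {a b : G} (h : JoinedIn U a b) :
    ∃ p : ℝ → G, ContDiff ℝ ∞ p ∧ p 0 = a ∧ p 1 = b ∧ ∀ t ∈ Icc (0 : ℝ) 1, p t ∈ U := by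
  classical
  obtain ⟨γ, hγ⟩ := h
  let g : ℝ → G := γ.extend
  have hg : Continuous g := γ.continuous_extend
  have hgU : ∀ t ∈ Icc (0 : ℝ) 1, g t ∈ U := by
    intro t ht
    simp only [g, Path.extend_apply γ ht]
    exact hγ _
  obtain ⟨δ, hδ, hδU⟩ := (isCompact_Icc.image hg).exists_thickening_subset_open hU
    (by rintro _ ⟨t, ht, rfl⟩; exact hgU t ht)
  let bs := finBasis ℝ G
  set N := ∑ i, ‖bs i‖ with hN
  have hN0 : 0 ≤ N := Finset.sum_nonneg fun _ _ => norm_nonneg _
  set η := δ / (3 * (N + 1)) with hη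
  have hη0 : 0 < η := by positivity
  have h1 : ∀ i, ∃ q : Polynomial ℝ, ∀ t ∈ Icc (0 : ℝ) 1, |q.eval t - bs.repr (g t) i| < η := by
    intro i
    refine exists_polynomial_near_of_continuousOn 0 1 _ ?_ η hη0
    have : Continuous (bs.coord i) := LinearMap.continuous_of_finiteDimensional _
    exact (this.comp hg).continuousOn
  choose q hq using h1
  let p0 : ℝ → G := fun t => ∑ i, (q i).eval t • bs i
  have hp0 : ContDiff ℝ ∞ p0 := by
    refine ContDiff.sum fun i _ => ?_
    exact (contDiff_eval (q i)).smul contDiff_const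
  have hp0g : ∀ t ∈ Icc (0 : ℝ) 1, ‖p0 t - g t‖ ≤ η * N := by
    intro t ht
    have : p0 t - g t = ∑ i, ((q i).eval t - bs.repr (g t) i) • bs i := by
      simp only [p0, sub_smul, Finset.sum_sub_distrib, bs.sum_repr]
    rw [this]
    refine (norm_sum_le _ _).trans ?_
    rw [hN, Finset.mul_sum]
    refine Finset.sum_le_sum fun i _ => ?_
    rw [norm_smul]
    exact mul_le_mul_of_nonneg_right (hq i t ht).le (norm_nonneg _)
  have hηN : η * N < δ / 3 := by
    rw [hη, div_mul_eq_mul_div, div_lt_div_iff₀ (by positivity) (by norm_num)]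
    nlinarith
  have g0 : g 0 = a := by simp [g]
  have g1 : g 1 = b := by simp [g]
  refine ⟨fun t => p0 t + ((1 - t) • (a - p0 0) + t • (b - p0 1)), ?_, by simp, by simp, ?_⟩
  · refine hp0.add (((contDiff_const.sub contDiff_id).smul contDiff_const).add
      (contDiff_id.smul contDiff_const))
  · intro t ht
    apply hδU
    rw [Metric.mem_thickening_iff]
    refine ⟨g t, ⟨t, ht, rfl⟩, ?_⟩
    rw [dist_eq_norm]
    have e0 := hp0g 0 (by simp)
    have e1 := hp0g 1 (by simp)
    have et := hp0g t ht
    rw [g0, norm_sub_rev] at e0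
    rw [g1, norm_sub_rev] at e1
    calc ‖p0 t + ((1 - t) • (a - p0 0) + t • (b - p0 1)) - g t‖
        = ‖(p0 t - g t) + ((1 - t) • (a - p0 0) + t • (b - p0 1))‖ := by congr 1; abel
      _ ≤ ‖p0 t - g t‖ + (‖(1 - t) • (a - p0 0)‖ + ‖t • (b - p0 1)‖) :=
          (norm_add_le _ _).trans (add_le_add le_rfl (norm_add_le _ _))
      _ ≤ η * N + ((1 - t) * (η * N) + t * (η * N)) := by
          rw [norm_smul, norm_smul, Real.norm_of_nonneg ht.1, Real.norm_of_nonneg (by linarith [ht.2] : (0 : ℝ) ≤ 1 - t)]
          refine add_le_add et (add_le_add ?_ ?_)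
          · exact mul_le_mul_of_nonneg_left e0 (by linarith [ht.2])
          · exact mul_le_mul_of_nonneg_left e1 ht.1
      _ < δ := by linarith

end Crest.Agent.R096.Fp_812
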