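import Crest.Agent.R096.Fp3_812

/-!
Row 96, P5-FANPATH (helper812): the shear `Ψ_s x = x - s τ(x) q` which blows up a simplicial cone,
and the first segment of the fan path.
-/

set_option autoImplicit false
set_option linter.unusedSectionVars false

open Module Set Filter
open scoped Topology ContDiff

namespace Crest.Agent.R096.Fp_812

section Shear

variable {E : Type*} [NormedAddCommGroup E] [NormedSpace ℝ E] [FiniteDimensional ℝ E]
  (e : Basis (Fin 3) ℝ E)

/-- the minimum of the coordinates -/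
noncomputable def mn (x : E) : ℝ := min (e.repr x 0) (min (e.repr x 1) (e.repr x 2))

/-- the sum of the generators -/
noncomputable def qq : E := e 0 + e 1 + e 2

/-- the shear function -/
noncomputable def ta (x : E) : ℝ := e.repr x 0 + e.repr x 1 + e.repr x 2 - 3 * mn e x

/-- the shear -/
noncomputable def Ps (s : ℝ) (x : E) : E := x - (s * ta e x) • qq e

theorem continuous_repr (i : Fin 3) : Continuous fun x => e.repr x i := by
  have : Continuous (e.coord i) := LinearMap.continuous_of_finiteDimensional _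
  exact this

theorem continuous_mn : Continuous (mn e) :=
  (continuous_repr e 0).min ((continuous_repr e 1).min (continuous_repr e 2))

theorem continuous_ta : Continuous (ta e) :=
  (((continuous_repr e 0).add (continuous_repr e 1)).add (continuous_repr e 2)).sub
    (continuous_const.mul (continuous_mn e))

theorem continuous_Ps : Continuous fun q : ℝ × E => Ps e q.1 q.2 :=
  continuous_snd.sub ((continuous_fst.mul ((continuous_ta e).comp continuous_snd)).smul
    continuous_const)

theorem repr_qq (i : Fin 3) : e.repr (qq e) i = 1 := by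
  fin_cases i <;> simp [qq]

theorem repr_add_qq (x : E) (c : ℝ) (i : Fin 3) : e.repr (x + c • qq e) i = e.repr x i + c := by
  rw [map_add, map_smul, Finsupp.add_apply, Finsupp.smul_apply, repr_qq, smul_eq_mul, mul_one]

theorem mn_add_qq (x : E) (c : ℝ) : mn e (x + c • qq e) = mn e x + c := by
  simp only [mn, repr_add_qq, min_add_add_right]

theorem ta_add_qq (x : E) (c : ℝ) : ta e (x + c • qq e) = ta e x := by
  simp only [ta, mn_add_qq, repr_add_qq]; ring

theorem repr_Ps (s : ℝ) (x : E) (i : Fin 3) : e.repr (Ps e s x) i = e.repr x i - s * ta e x := by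
  have : Ps e s x = x + (-(s * ta e x)) • qq e := by rw [Ps, neg_smul, sub_eq_add_neg]
  rw [this, repr_add_qq]; ring

theorem ta_Ps (s : ℝ) (x : E) : ta e (Ps e s x) = ta e x := by
  have : Ps e s x = x + (-(s * ta e x)) • qq e := by rw [Ps, neg_smul, sub_eq_add_neg]
  rw [this, ta_add_qq]

theorem mn_Ps (s : ℝ) (x : E) : mn e (Ps e s x) = mn e x - s * ta e x := by
  have : Ps e s x = x + (-(s * ta e x)) • qq e := by rw [Ps, neg_smul, sub_eq_add_neg]
  rw [this, mn_add_qq]; ring

theorem Ps_Ps (s t : ℝ) (x : E) : Ps e s (Ps e t x) = Ps e (s + t) x := by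
  rw [Ps, ta_Ps, Ps, Ps, sub_sub, ← add_smul]
  congr 2; ring

theorem Ps_zero (x : E) : Ps e 0 x = x := by simp [Ps]

theorem Ps_bijective (s : ℝ) : Function.Bijective (Ps e s) := by
  refine Function.bijective_iff_has_inverse.2 ⟨Ps e (-s), fun x => ?_, fun x => ?_⟩
  · rw [Ps_Ps, neg_add_cancel, Ps_zero]
  · rw [Ps_Ps, add_neg_cancel, Ps_zero]

theorem mn_le (x : E) (i : Fin 3) : mn e x ≤ e.repr x i := by
  fin_cases i
  · exact min_le_left _ _
  · exact (min_le_right _ _).trans (min_le_left _ _)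
  · exact (min_le_right _ _).trans (min_le_right _ _)

theorem exists_mn (x : E) : ∃ i, mn e x = e.repr x i := by
  rcases min_choice (e.repr x 0) (min (e.repr x 1) (e.repr x 2)) with h | h
  · exact ⟨0, h⟩
  · rcases min_choice (e.repr x 1) (e.repr x 2) with h' | h'
    · exact ⟨1, h.trans h'⟩
    · exact ⟨2, h.trans h'⟩

theorem le_mn {x : E} {r : ℝ} (h : ∀ i, r ≤ e.repr x i) : r ≤ mn e x := by
  obtain ⟨i, hi⟩ := exists_mn e x
  rw [hi]; exact h i

theorem mn_smul {t : ℝ} (ht : 0 ≤ t) (x : E) : mn e (t • x) = t * mn e x := by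
  simp only [mn, map_smul, Finsupp.smul_apply, smul_eq_mul]
  rw [mul_min_of_nonneg _ _ ht, mul_min_of_nonneg _ _ ht]

/-- the height: minus the sum of the coordinates -/
noncomputable def hl (y : E) : ℝ := -(e.repr y 0 + e.repr y 1 + e.repr y 2)

theorem hl_Ps_one (x : E) :
    hl e (Ps e 1 x) = 2 * (e.repr x 0 + e.repr x 1 + e.repr x 2) - 9 * mn e x := by
  simp only [hl, repr_Ps, ta]; ring

theorem eq_zero_of_repr {x : E} (h : ∀ i, e.repr x i = 0) : x = 0 := by
  apply e.ext_elem
  intro i; simp [h i]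

theorem hl_pos {x : E} (hx : x ≠ 0) (hm : mn e x ≤ 0) : 0 < hl e (Ps e 1 x) := by
  rw [hl_Ps_one]
  by_contra hcon
  push Not at hcon
  apply hx
  have h0 := mn_le e x 0
  have h1 := mn_le e x 1
  have h2 := mn_le e x 2
  have hm0 : mn e x = 0 := by linarith
  refine eq_zero_of_repr e fun i => ?_
  fin_cases i
  · show e.repr x 0 = 0
    linarith
  · show e.repr x 1 = 0
    linarith
  · show e.repr x 2 = 0
    linarith

/-- the linear form of `Ψ_s` where the `k`-th coordinate is the smallest -/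
theorem Ps_eq_of_min (s : ℝ) (k : Fin 3) {x : E} (hk : ∀ j, e.repr x k ≤ e.repr x j) :
    Ps e s x = x - (s * (e.repr x 0 + e.repr x 1 + e.repr x 2 - 3 * e.repr x k)) • qq e := by
  have : mn e x = e.repr x k := le_antisymm (mn_le e x k) (le_mn e hk)
  rw [Ps, ta, this]

/-- the linear map -/
noncomputable def PsL (s : ℝ) (k : Fin 3) : E →L[ℝ] E :=
  LinearMap.toContinuousLinearMap
    (LinearMap.id - (s • (e.coord 0 + e.coord 1 + e.coord 2 - (3 : ℝ) • e.coord k)).smulRight
      (qq e))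

theorem Ps_eq_PsL (s : ℝ) (k : Fin 3) {x : E} (hk : ∀ j, e.repr x k ≤ e.repr x j) :
    Ps e s x = PsL e s k x := by
  rw [Ps_eq_of_min e s k hk]
  simp [PsL]

end Shear

namespace Fan

variable {V E : Type*} [Fintype V] [NormedAddCommGroup E] [NormedSpace ℝ E]
  [FiniteDimensional ℝ E] (F : Fan V E) (e : Basis (Fin 3) ℝ E)

/-- nondegenerate positions of the vertices -/
def U : Set (V → E) := {w | ∀ c ∈ F.T, (F.lin c w).det ≠ 0}

/-- positive positions of the vertices -/
def Up : Set (V → E) := {w | ∀ c ∈ F.T, 0 < (F.lin c w).det}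

theorem isOpen_U : IsOpen F.U := by
  have : F.U = ⋂ c ∈ F.T, {w | (F.lin c w).det ≠ 0} := by ext w; simp [U]
  rw [this]
  exact Set.Finite.isOpen_biInter (Finset.finite_toSet F.T) fun c _ =>
    isOpen_ne_fun (F.continuous_det c) continuous_const

theorem isOpen_Up : IsOpen F.Up := by
  have : F.Up = ⋂ c ∈ F.T, {w | 0 < (F.lin c w).det} := by ext w; simp [Up]
  rw [this]
  exact Set.Finite.isOpen_biInter (Finset.finite_toSet F.T) fun c _ =>
    isOpen_lt continuous_const (F.continuous_det c)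

/-- a path in `U` starting in `Up` stays in `Up` -/
theorem joinedIn_Up {w w' : V → E} (h : JoinedIn F.U w w') (hw : w ∈ F.Up) :
    JoinedIn F.Up w w' := by
  obtain ⟨γ, hγ⟩ := h
  refine ⟨γ, fun t c hc => ?_⟩
  by_contra hcon
  push Not at hcon
  have hcont : Continuous fun t => (F.lin c (γ t)).det :=
    (F.continuous_det c).comp γ.continuous
  have h0 : 0 < (F.lin c (γ 0)).det := by rw [γ.source]; exact hw c hc
  have hpre : IsPreconnected (Set.univ : Set unitInterval) := isPreconnected_univ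
  have := hpre.intermediate_value (Set.mem_univ t) (Set.mem_univ 0) hcont.continuousOn
    ⟨hcon, h0.le⟩
  obtain ⟨t', _, ht'⟩ := this
  exact hγ t' c hc ht'

theorem repr_rep {c : Finset V} {a : V → ℝ} {x : E} (h : Rep F.v c a x) (L : E →L[ℝ] E)
    (i : Fin 3) : e.repr (L x) i = ∑ j, a j * e.repr (L (F.v j)) i := by
  rw [← h.sum, map_sum]
  have := map_sum (e.coord i) (fun j => L (a j • F.v j)) Finset.univ
  simp only [Basis.coord_apply] at this
  rw [this]
  simp

/-- on a cell adapted to the differences of the coordinates of `G`, one coordinate of `G` is the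
smallest -/
theorem exists_min_coord {c : Finset V} (_hc : c ∈ F.T) {G : E → E} {L : E →L[ℝ] E}
    (hL : ∀ x ∈ F.cone c, G x = L x)
    (had : ∀ i j : Fin 3, (∀ v ∈ c, e.repr (G (F.v v)) i ≤ e.repr (G (F.v v)) j) ∨
      (∀ v ∈ c, e.repr (G (F.v v)) j ≤ e.repr (G (F.v v)) i)) :
    ∃ k : Fin 3, ∀ x ∈ F.cone c, ∀ j, e.repr (G x) k ≤ e.repr (G x) j := by
  have key : ∀ i j : Fin 3, (∀ v ∈ c, e.repr (G (F.v v)) i ≤ e.repr (G (F.v v)) j) →
      ∀ x ∈ F.cone c, e.repr (G x) i ≤ e.repr (G x) j := by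
    intro i j hij x hx
    obtain ⟨a, ha⟩ := hx
    rw [hL x ⟨a, ha⟩, F.repr_rep e ha, F.repr_rep e ha]
    refine Finset.sum_le_sum fun v _ => ?_
    by_cases hv : v ∈ c
    · have := hij v hv
      rw [hL _ (F.vertex_mem_cone hv)] at this
      exact mul_le_mul_of_nonneg_left this (ha.nonneg v)
    · simp [ha.off v hv]
  have had' : ∀ i j : Fin 3, (∀ x ∈ F.cone c, e.repr (G x) i ≤ e.repr (G x) j) ∨
      (∀ x ∈ F.cone c, e.repr (G x) j ≤ e.repr (G x) i) := fun i j =>
    (had i j).imp (key i j) (key j i)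
  -- minimum of a total preorder on three elements
  have h01 := had' 0 1
  have h02 := had' 0 2
  have h12 := had' 1 2
  have hall : ∀ k : Fin 3, (∀ x ∈ F.cone c, e.repr (G x) k ≤ e.repr (G x) 0) →
      (∀ x ∈ F.cone c, e.repr (G x) k ≤ e.repr (G x) 1) →
      (∀ x ∈ F.cone c, e.repr (G x) k ≤ e.repr (G x) 2) →
      ∃ k : Fin 3, ∀ x ∈ F.cone c, ∀ j, e.repr (G x) k ≤ e.repr (G x) j := by
    intro k h0 h1 h2
    refine ⟨k, fun x hx j => ?_⟩
    fin_cases j
    · exact h0 x hx
    · exact h1 x hx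
    · exact h2 x hx
  rcases h01 with h01 | h10
  · rcases h02 with h02 | h20
    · exact hall 0 (fun x _ => le_rfl) h01 h02
    · exact hall 2 h20 (fun x hx => (h20 x hx).trans (h01 x hx)) (fun x _ => le_rfl)
  · rcases h12 with h12 | h21
    · exact hall 1 h10 (fun x _ => le_rfl) h12
    · exact hall 2 (fun x hx => (h21 x hx).trans (h10 x hx)) h21 (fun x _ => le_rfl)

/-- `Ψ_s ∘ G` is linear on the cells -/
theorem linear_Ps_comp (s : ℝ) {G : E → E}
    (hlin : ∀ c ∈ F.T, ∃ L : E →L[ℝ] E, ∀ x ∈ F.cone c, G x = L x)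
    (had : ∀ c ∈ F.T, ∀ i j : Fin 3, (∀ v ∈ c, e.repr (G (F.v v)) i ≤ e.repr (G (F.v v)) j) ∨
      (∀ v ∈ c, e.repr (G (F.v v)) j ≤ e.repr (G (F.v v)) i)) :
    ∀ c ∈ F.T, ∃ L : E →L[ℝ] E, ∀ x ∈ F.cone c, Ps e s (G x) = L x := by
  intro c hc
  obtain ⟨L, hL⟩ := hlin c hc
  obtain ⟨k, hk⟩ := F.exists_min_coord e hc hL (had c hc)
  refine ⟨(PsL e s k).comp L, fun x hx => ?_⟩
  rw [Ps_eq_PsL e s k (hk x hx), hL x hx]
  rfl

/-- first and third segment of the fan path -/
theorem seg {G : E → E} (hinj : Function.Injective G)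
    (hlin : ∀ c ∈ F.T, ∃ L : E →L[ℝ] E, ∀ x ∈ F.cone c, G x = L x)
    (had : ∀ c ∈ F.T, ∀ i j : Fin 3, (∀ v ∈ c, e.repr (G (F.v v)) i ≤ e.repr (G (F.v v)) j) ∨
      (∀ v ∈ c, e.repr (G (F.v v)) j ≤ e.repr (G (F.v v)) i)) :
    JoinedIn F.U (fun v => G (F.v v)) (fun v => Ps e 1 (G (F.v v))) := by
  refine ⟨⟨⟨fun s : unitInterval => fun v => Ps e (s : ℝ) (G (F.v v)), ?_⟩, ?_, ?_⟩, ?_⟩
  · refine continuous_pi fun v => ?_
    exact (continuous_Ps e).comp (continuous_subtype_val.prodMk continuous_const)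
  · funext v; simp [Ps_zero]
  · funext v; simp
  · intro s c hc
    have h1 := F.map_eq_of_linear (fun x => Ps e (s : ℝ) (G x)) (F.linear_Ps_comp e s hlin had)
    refine F.det_ne_zero _ ?_ hc
    show Function.Injective (F.map (fun v => Ps e (s : ℝ) (G (F.v v))))
    rw [h1]
    exact (Ps_bijective e s).1.comp hinj

end Fan

end Crest.Agent.R096.Fp_812
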