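import Crest.Agent.R096.Fp4_812

/-!
Row 96, P5-FANPATH (helper812): the plane section of the blown up complement, and the middle
segment of the fan path from the planar (Tutte) statement.
-/

set_option autoImplicit false
set_option linter.unusedSectionVars false

open Module Set Filter
open scoped Topology ContDiff

namespace Crest.Agent.R096.Fp_812

/-- planar determinant -/
def dt (u x : ℝ × ℝ) : ℝ := u.1 * x.2 - u.2 * x.1

/-- the planar statement (consequence of P5-TUTTE of helper334): `p` a straight line triangulation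
of the convex set `D`, `q` another position of the vertices with all triangles positive and equal to
`p` on the frontier: they are joined by a path of such positions. -/
def TutteStmt : Prop :=
  ∀ (P : Type) [Fintype P] (D : Set (ℝ × ℝ)) (p q : P → ℝ × ℝ) (T : Finset (P × P × P)),
    Convex ℝ D → IsCompact D →
    (∀ a b c, (a, b, c) ∈ T → (b, c, a) ∈ T) →
    (∀ a b c, (a, b, c) ∈ T → 0 < dt (p b - p a) (p c - p a)) →
    (∀ v, p v ∈ D) →
    (∀ z ∈ D, ∃ a b c, (a, b, c) ∈ T ∧ ∃ α β γ : ℝ, 0 ≤ α ∧ 0 ≤ β ∧ 0 ≤ γ ∧ α + β + γ = 1 ∧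
      z = α • p a + β • p b + γ • p c) →
    (∀ a b c a' b' c', (a, b, c) ∈ T → (a', b', c') ∈ T → ∀ m m' : P → ℝ,
      (∀ i, 0 ≤ m i) → (∀ i, 0 ≤ m' i) → (∀ i, i ≠ a → i ≠ b → i ≠ c → m i = 0) →
      (∀ i, i ≠ a' → i ≠ b' → i ≠ c' → m' i = 0) → ∑ i, m i = 1 → ∑ i, m' i = 1 →
      ∑ i, m i • p i = ∑ i, m' i • p i → m = m') →
    (∀ v, ∃ b c, (v, b, c) ∈ T) →
    (∀ v, p v ∈ frontier D → q v = p v) →
    (∀ a b c, (a, b, c) ∈ T → 0 < dt (q b - q a) (q c - q a)) →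
    ∃ Q : ℝ → P → ℝ × ℝ, (∀ v, ContinuousOn (fun t => Q t v) (Icc 0 1)) ∧ Q 0 = p ∧ Q 1 = q ∧
      (∀ t ∈ Icc (0 : ℝ) 1, ∀ v, p v ∈ frontier D → Q t v = p v) ∧
      ∀ t ∈ Icc (0 : ℝ) 1, ∀ a b c, (a, b, c) ∈ T → 0 < dt (Q t b - Q t a) (Q t c - Q t a)

section Planar

variable {E : Type*} [NormedAddCommGroup E] [NormedSpace ℝ E] [FiniteDimensional ℝ E]
  (e : Basis (Fin 3) ℝ E)

/-- the section plane coordinates -/
noncomputable def zc (y : E) : ℝ × ℝ := (e.repr y 0 / hl e y, e.repr y 1 / hl e y)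

/-- the lift of a point of the plane -/
noncomputable def lf (z : ℝ × ℝ) : E := z.1 • e 0 + z.2 • e 1 + (-1 - z.1 - z.2) • e 2

theorem repr_lf_zero (z : ℝ × ℝ) : e.repr (lf e z) 0 = z.1 := by simp [lf]
theorem repr_lf_one (z : ℝ × ℝ) : e.repr (lf e z) 1 = z.2 := by simp [lf]
theorem repr_lf_two (z : ℝ × ℝ) : e.repr (lf e z) 2 = -1 - z.1 - z.2 := by simp [lf]

theorem hl_lf (z : ℝ × ℝ) : hl e (lf e z) = 1 := by
  rw [hl, repr_lf_zero, repr_lf_one, repr_lf_two]; ring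

theorem ext3 {x y : E} (h0 : e.repr x 0 = e.repr y 0) (h1 : e.repr x 1 = e.repr y 1)
    (h2 : e.repr x 2 = e.repr y 2) : x = y := by
  apply e.ext_elem
  intro i; fin_cases i
  · exact h0
  · exact h1
  · exact h2

theorem lf_zc {y : E} (hy : hl e y ≠ 0) : hl e y • lf e (zc e y) = y := by
  have h : -(e.repr y 0 + e.repr y 1 + e.repr y 2) = hl e y := rfl
  refine ext3 e ?_ ?_ ?_
  · rw [map_smul, Finsupp.smul_apply, repr_lf_zero, zc, smul_eq_mul]; field_simp
  · rw [map_smul, Finsupp.smul_apply, repr_lf_one, zc, smul_eq_mul]; field_simp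
  · rw [map_smul, Finsupp.smul_apply, repr_lf_two, zc, smul_eq_mul]
    field_simp
    linarith

/-- affine combinations -/
theorem lf_sum {ι : Type*} [Fintype ι] (m : ι → ℝ) (hm : ∑ i, m i = 1) (z : ι → ℝ × ℝ) :
    ∑ i, m i • lf e (z i) = lf e (∑ i, m i • z i) := by
  have hf : (∑ i, m i • z i).1 = ∑ i, m i * (z i).1 := by
    simp [Prod.fst_sum]
  have hs : (∑ i, m i • z i).2 = ∑ i, m i * (z i).2 := by
    simp [Prod.snd_sum]
  have hr : ∀ k, e.repr (∑ i, m i • lf e (z i)) k = ∑ i, m i * e.repr (lf e (z i)) k := by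
    intro k
    have := map_sum (e.coord k) (fun i => m i • lf e (z i)) Finset.univ
    simp only [Basis.coord_apply] at this
    rw [this]; simp
  refine ext3 e ?_ ?_ ?_
  · rw [hr, repr_lf_zero, hf]; simp only [repr_lf_zero]
  · rw [hr, repr_lf_one, hs]; simp only [repr_lf_one]
  · rw [hr, repr_lf_two, hf, hs]; simp only [repr_lf_two]
    have : ∀ i, m i * (-1 - (z i).1 - (z i).2) = - m i - m i * (z i).1 - m i * (z i).2 :=
      fun i => by ring
    simp only [this, Finset.sum_sub_distrib, Finset.sum_neg_distrib, hm]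

theorem lf_injective : Function.Injective (lf e) := by
  intro z z' h
  have h0 := repr_lf_zero e z
  have h1 := repr_lf_one e z
  rw [h, repr_lf_zero] at h0
  rw [h, repr_lf_one] at h1
  exact Prod.ext h0.symm h1.symm

theorem continuous_lf : Continuous (lf e) := by
  unfold lf; fun_prop

/-- the triangle -/
def DD : Set (ℝ × ℝ) := {z | -(1 / 2) ≤ z.1 ∧ -(1 / 2) ≤ z.2 ∧ z.1 + z.2 ≤ -(1 / 2)}

theorem convex_DD : Convex ℝ DD := by
  rintro ⟨a, b⟩ ⟨h1, h2, h3⟩ ⟨a', b'⟩ ⟨h1', h2', h3'⟩ s t hs ht hst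
  simp only [Prod.smul_mk, Prod.mk_add_mk, smul_eq_mul, DD, mem_ofPred_eq] at *
  refine ⟨by nlinarith, by nlinarith, by nlinarith⟩

theorem isClosed_DD : IsClosed DD := by
  have : DD = {z : ℝ × ℝ | -(1 / 2) ≤ z.1} ∩ ({z | -(1 / 2) ≤ z.2} ∩ {z | z.1 + z.2 ≤ -(1 / 2)}) := by
    ext z; simp [DD]
  rw [this]
  exact (isClosed_le continuous_const continuous_fst).inter
    ((isClosed_le continuous_const continuous_snd).inter
      (isClosed_le (continuous_fst.add continuous_snd) continuous_const))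

theorem isCompact_DD : IsCompact DD := by
  have h : DD ⊆ Icc (-(1 / 2) : ℝ) 0 ×ˢ Icc (-(1 / 2) : ℝ) 0 := by
    rintro ⟨a, b⟩ ⟨h1, h2, h3⟩
    simp only at h1 h2 h3
    exact ⟨⟨h1, by simp only; linarith⟩, ⟨h2, by simp only; linarith⟩⟩
  exact (isCompact_Icc.prod isCompact_Icc).of_isClosed_subset isClosed_DD h

theorem key_repr (x : E) (i : Fin 3) :
    e.repr (Ps e 1 x) i + hl e (Ps e 1 x) / 2 = e.repr x i - 3 / 2 * mn e x := by
  rw [repr_Ps, hl_Ps_one, ta]; ring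

theorem zc_mem_DD {x : E} (hx : x ≠ 0) (hm : mn e x ≤ 0) : zc e (Ps e 1 x) ∈ DD := by
  have hp := hl_pos e hx hm
  have h : ∀ i, -(1 / 2) ≤ e.repr (Ps e 1 x) i / hl e (Ps e 1 x) := by
    intro i
    rw [le_div_iff₀ hp]
    have := key_repr e x i
    have h2 := mn_le e x i
    linarith
  refine ⟨h 0, h 1, ?_⟩
  have h2 := h 2
  have h3 : hl e (Ps e 1 x) = -(e.repr (Ps e 1 x) 0 + e.repr (Ps e 1 x) 1 + e.repr (Ps e 1 x) 2) :=
    rfl
  simp only [zc]
  rw [← add_div]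
  rw [div_le_iff₀ hp]
  rw [le_div_iff₀ hp] at h2
  linarith

theorem mn_of_mem_DD {z : ℝ × ℝ} (hz : z ∈ DD) : mn e (Ps e (-1) (lf e z)) ≤ 0 := by
  set x := Ps e (-1) (lf e z) with hx
  have hy : Ps e 1 x = lf e z := by rw [hx, Ps_Ps]; norm_num; exact Ps_zero e _
  obtain ⟨i, hi⟩ := exists_mn e x
  have h := key_repr e x i
  rw [hy, hl_lf, hi] at h
  have hyi : -(1 / 2) ≤ e.repr (lf e z) i := by
    obtain ⟨h1, h2, h3⟩ := hz
    fin_cases i
    · show -(1 / 2) ≤ e.repr (lf e z) 0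
      rw [repr_lf_zero]; exact h1
    · show -(1 / 2) ≤ e.repr (lf e z) 1
      rw [repr_lf_one]; exact h2
    · show -(1 / 2) ≤ e.repr (lf e z) 2
      rw [repr_lf_two]; linarith
  rw [hi]
  linarith

theorem mn_of_frontier {x : E} (hx : x ≠ 0) (hm : mn e x ≤ 0)
    (hf : zc e (Ps e 1 x) ∈ frontier DD) : mn e x = 0 := by
  by_contra hne
  have hlt : mn e x < 0 := lt_of_le_of_ne hm hne
  have hp := hl_pos e hx hm
  have h : ∀ i, -(1 / 2) < e.repr (Ps e 1 x) i / hl e (Ps e 1 x) := by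
    intro i
    rw [lt_div_iff₀ hp]
    have := key_repr e x i
    have h2 := mn_le e x i
    linarith
  apply hf.2
  have hO : IsOpen ({z : ℝ × ℝ | -(1 / 2) < z.1} ∩ ({z | -(1 / 2) < z.2} ∩
      {z | z.1 + z.2 < -(1 / 2)})) :=
    (isOpen_lt continuous_const continuous_fst).inter
    ((isOpen_lt continuous_const continuous_snd).inter
      (isOpen_lt (continuous_fst.add continuous_snd) continuous_const))
  refine mem_interior.2 ⟨_, ?_, hO, h 0, h 1, ?_⟩
  · rintro z ⟨h1, h2, h3⟩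
    have h1' : -(1 / 2) < z.1 := h1
    have h2' : -(1 / 2) < z.2 := h2
    have h3' : z.1 + z.2 < -(1 / 2) := h3
    exact ⟨h1'.le, h2'.le, h3'.le⟩
  · have h2 := h 2
    have h3 : hl e (Ps e 1 x) = -(e.repr (Ps e 1 x) 0 + e.repr (Ps e 1 x) 1 +
      e.repr (Ps e 1 x) 2) := rfl
    show e.repr (Ps e 1 x) 0 / hl e (Ps e 1 x) + e.repr (Ps e 1 x) 1 / hl e (Ps e 1 x) < -(1 / 2)
    rw [← add_div, div_lt_iff₀ hp]
    rw [lt_div_iff₀ hp] at h2
    linarith

theorem exists_eps_of_interior {S : Set (ℝ × ℝ)} {z : ℝ × ℝ} (hz : z ∈ interior S)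
    (d : ℝ × ℝ) : ∃ ε : ℝ, 0 < ε ∧ z + ε • d ∈ S := by
  have hc : Tendsto (fun ε : ℝ => z + ε • d) (𝓝[>] 0) (𝓝 z) := by
    have h1 : Continuous fun ε : ℝ => z + ε • d := by fun_prop
    have := h1.tendsto 0
    simp only [zero_smul, add_zero] at this
    exact this.mono_left nhdsWithin_le_nhds
  have h2 := hc.eventually (mem_interior_iff_mem_nhds.1 hz)
  obtain ⟨ε, h3, h4⟩ := (h2.and self_mem_nhdsWithin).exists
  exact ⟨ε, h4, h3⟩

theorem frontier_of_mn {x : E} (hx : x ≠ 0) (hm : mn e x = 0) :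
    zc e (Ps e 1 x) ∈ frontier DD := by
  have hp := hl_pos e hx hm.le
  refine ⟨subset_closure (zc_mem_DD e hx hm.le), fun hint => ?_⟩
  obtain ⟨i, hi⟩ := exists_mn e x
  have h := key_repr e x i
  rw [← hi, hm] at h
  have hq : e.repr (Ps e 1 x) i / hl e (Ps e 1 x) = -(1 / 2) := by
    rw [div_eq_iff hp.ne']; linarith
  have h3 : hl e (Ps e 1 x) = -(e.repr (Ps e 1 x) 0 + e.repr (Ps e 1 x) 1 +
      e.repr (Ps e 1 x) 2) := rfl
  fin_cases i
  · obtain ⟨ε, hε, h1, _, _⟩ := exists_eps_of_interior hint (-1, 0)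
    have hq' : (zc e (Ps e 1 x)).1 = -(1 / 2) := hq
    simp only [Prod.fst_add, Prod.smul_fst, smul_eq_mul, hq'] at h1
    linarith
  · obtain ⟨ε, hε, _, h1, _⟩ := exists_eps_of_interior hint (0, -1)
    have hq' : (zc e (Ps e 1 x)).2 = -(1 / 2) := hq
    simp only [Prod.snd_add, Prod.smul_snd, smul_eq_mul, hq'] at h1
    linarith
  · obtain ⟨ε, hε, _, _, h1⟩ := exists_eps_of_interior hint (1, 1)
    have hq' : e.repr (Ps e 1 x) 2 / hl e (Ps e 1 x) = -(1 / 2) := hq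
    have hq2 : (zc e (Ps e 1 x)).1 + (zc e (Ps e 1 x)).2 = -(1 / 2) := by
      simp only [zc]
      rw [← add_div, div_eq_iff hp.ne']
      rw [div_eq_iff hp.ne'] at hq'
      linarith
    simp only [Prod.fst_add, Prod.smul_fst, Prod.snd_add, Prod.smul_snd, smul_eq_mul] at h1
    linarith

theorem det_lf (r : Fin 3 → ℝ) (z : Fin 3 → ℝ × ℝ) :
    e.det (fun i => r i • lf e (z i)) = -(r 0 * r 1 * r 2 * dt (z 1 - z 0) (z 2 - z 0)) := by
  rw [Basis.det_apply, Matrix.det_fin_three]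
  simp only [Basis.toMatrix_apply, map_smul, Finsupp.smul_apply, smul_eq_mul, repr_lf_zero,
    repr_lf_one, repr_lf_two, dt, Prod.fst_sub, Prod.snd_sub]
  ring

end Planar

namespace Fan

variable {V E : Type*} [Fintype V] [NormedAddCommGroup E] [NormedSpace ℝ E]
  [FiniteDimensional ℝ E] (F : Fan V E) (e : Basis (Fin 3) ℝ E)

include e in
theorem card3 {c : Finset V} (hc : c ∈ F.T) : c.card = 3 := by
  rw [F.card c hc, finrank_eq_card_basis e, Fintype.card_fin]

/-- determinant of the images of the generators of a cell -/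
theorem det_cell {c : Finset V} (hc : c ∈ F.T) (w : V → E) (a : Fin 3 → V)
    (ha : ∀ i, a i ∈ c) :
    e.det (fun i => w (a i)) = (F.lin c w).det * e.det (fun i => F.v (a i)) := by
  have h := e.det_comp (F.lin c w : E →ₗ[ℝ] E) (fun i => F.v (a i))
  have h2 : (F.lin c w : E →ₗ[ℝ] E) ∘ (fun i => F.v (a i)) = fun i => w (a i) := by
    funext i
    exact F.lin_vertex hc w (ha i)
  rw [h2] at h
  exact h

theorem det_gen_ne_zero {c : Finset V} (hc : c ∈ F.T) (a : Fin 3 → V)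
    (ha : ∀ i, a i ∈ c) (hinj : Function.Injective a) : e.det (fun i => F.v (a i)) ≠ 0 := by
  have hli : LinearIndependent ℝ (fun i => F.v (a i)) := by
    have h1 := F.li hc
    have h2 := h1.comp (fun i : Fin 3 => (⟨a i, ha i⟩ : c)) (fun i j hij => by
      apply hinj; simpa using hij)
    exact h2
  have hu := (Basis.is_basis_iff_det e (v := fun i => F.v (a i))).1
    ⟨hli, by
      refine hli.span_eq_top_of_card_eq_finrank' ?_
      rw [finrank_eq_card_basis e]⟩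
  exact hu.ne_zero

theorem vertex_ne_zero {c : Finset V} (hc : c ∈ F.T) {i : V} (hi : i ∈ c) : F.v i ≠ 0 :=
  (F.li hc).ne_zero ⟨i, hi⟩

end Fan

end Crest.Agent.R096.Fp_812
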