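import Crest.Agent.R096.Fp5_812

/-!
Row 96, P5-FANPATH (helper812): the middle segment of the fan path, from the planar statement.
-/

set_option autoImplicit false
set_option linter.unusedSectionVars false

open Module Set Filter
open scoped Topology ContDiff

namespace Crest.Agent.R096.Fp_812

namespace Fan

variable {V E : Type*} [Fintype V] [NormedAddCommGroup E] [NormedSpace ℝ E]
  [FiniteDimensional ℝ E] (F : Fan V E) (e : Basis (Fin 3) ℝ E)

/-- the fan is adapted to the basis: coordinates and their differences have constant signs -/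
structure Ad : Prop where
  coord : ∀ c ∈ F.T, ∀ k : Fin 3, (∀ v ∈ c, 0 ≤ e.repr (F.v v) k) ∨ (∀ v ∈ c, e.repr (F.v v) k ≤ 0)
  diff : ∀ c ∈ F.T, ∀ i j : Fin 3, (∀ v ∈ c, e.repr (F.v v) i ≤ e.repr (F.v v) j) ∨
      (∀ v ∈ c, e.repr (F.v v) j ≤ e.repr (F.v v) i)

/-- cells outside the cone of the basis -/
def Neg (c : Finset V) : Prop := ∃ v ∈ c, mn e (F.v v) < 0

theorem repr_cone {c : Finset V} {a : V → ℝ} {x : E} (h : Rep F.v c a x) (i : Fin 3) :
    e.repr x i = ∑ j, a j * e.repr (F.v j) i := by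
  have := F.repr_rep e h (ContinuousLinearMap.id ℝ E) i
  simpa using this

theorem mn_nonneg_of_not_neg {c : Finset V} (h : ¬ F.Neg e c) {x : E}
    (hx : x ∈ F.cone c) : 0 ≤ mn e x := by
  obtain ⟨a, ha⟩ := hx
  refine le_mn e fun i => ?_
  rw [F.repr_cone e ha]
  refine Finset.sum_nonneg fun j _ => ?_
  by_cases hj : j ∈ c
  · have h1 : 0 ≤ mn e (F.v j) := by
      by_contra hcon
      push Not at hcon
      exact h ⟨j, hj, hcon⟩
    exact mul_nonneg (ha.nonneg j) (h1.trans (mn_le e _ i))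
  · simp [ha.off j hj]

theorem mn_nonpos_of_neg (had : F.Ad e) {c : Finset V} (hc : c ∈ F.T) (h : F.Neg e c) {v : V}
    (hv : v ∈ c) : mn e (F.v v) ≤ 0 := by
  obtain ⟨v0, hv0, h0⟩ := h
  obtain ⟨k, hk⟩ := exists_mn e (F.v v0)
  rw [hk] at h0
  rcases had.coord c hc k with h1 | h1
  · exact absurd (h1 v0 hv0) (not_le.2 h0)
  · exact (mn_le e _ k).trans (h1 v hv)

/-- every point outside the open cone of the basis lies in a negative cell -/
theorem exists_neg_cell {x : E} (hx : mn e x ≤ 0) :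
    ∃ c ∈ F.T, F.Neg e c ∧ x ∈ F.cone c := by
  classical
  let Z : Set E := ⋃ c ∈ F.T.filter (fun c => F.Neg e c), F.cone c
  have hZ : IsClosed Z := by
    refine Set.Finite.isClosed_biUnion (Finset.finite_toSet _) fun c hc => ?_
    exact F.isClosed_cone (Finset.mem_filter.1 hc).1
  have hneg : ∀ y : E, mn e y < 0 → y ∈ Z := by
    intro y hy
    obtain ⟨c, hc, hyc⟩ := F.exists_cone y
    simp only [Z, mem_iUnion]
    refine ⟨c, Finset.mem_filter.2 ⟨hc, ?_⟩, hyc⟩
    by_contra hcon
    exact absurd (F.mn_nonneg_of_not_neg e hcon hyc) (not_le.2 hy)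
  have hxZ : x ∈ Z := by
    have hlim : Tendsto (fun ε : ℝ => x + (-ε) • qq e) (𝓝[>] 0) (𝓝 x) := by
      have h1 : Continuous fun ε : ℝ => x + (-ε) • qq e := by fun_prop
      have := h1.tendsto 0
      simp only [neg_zero, zero_smul, add_zero] at this
      exact this.mono_left nhdsWithin_le_nhds
    refine hZ.mem_of_tendsto hlim ?_
    filter_upwards [self_mem_nhdsWithin] with ε hε
    apply hneg
    rw [mn_add_qq]
    have : (0 : ℝ) < ε := hε
    linarith
  simp only [Z, mem_iUnion] at hxZ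
  obtain ⟨c, hc, hxc⟩ := hxZ
  exact ⟨c, (Finset.mem_filter.1 hc).1, (Finset.mem_filter.1 hc).2, hxc⟩

/-- `Ψ` is additive in coordinates on the cells -/
theorem Ps_rep (had : F.Ad e) (s : ℝ) {c : Finset V} (hc : c ∈ F.T) {a : V → ℝ} {x : E}
    (h : Rep F.v c a x) : Ps e s x = ∑ i, a i • Ps e s (F.v i) := by
  classical
  have h1 := F.map_eq_of_linear (fun x => Ps e s x) (F.linear_Ps_comp e s (G := fun x => x)
    (fun c _ => ⟨ContinuousLinearMap.id ℝ E, fun x _ => rfl⟩) had.diff)
  have h2 := congrFun h1 x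
  rw [F.map_of_rep _ hc h] at h2
  exact h2.symm

theorem hl_sum {ι : Type*} [Fintype ι] (a : ι → ℝ) (y : ι → E) :
    hl e (∑ i, a i • y i) = ∑ i, a i * hl e (y i) := by
  have hr : ∀ k, e.repr (∑ i, a i • y i) k = ∑ i, a i * e.repr (y i) k := by
    intro k
    have := map_sum (e.coord k) (fun i => a i • y i) Finset.univ
    simp only [Basis.coord_apply] at this
    rw [this]; simp
  simp only [hl, hr]
  rw [← Finset.sum_add_distrib, ← Finset.sum_add_distrib, ← Finset.sum_neg_distrib]
  exact Finset.sum_congr rfl fun i _ => by ring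

set_option maxHeartbeats 1600000 in
/-- **the middle segment** -/
theorem seg_mid {V : Type} [Fintype V] (F : Fan V E) (tutte : TutteStmt) (had : F.Ad e) {H : E → E}
    (hH : Function.Injective H) (hid : ∀ x, 0 ≤ mn e x → H x = x)
    (hpos : (fun v => Ps e 1 (H (F.v v))) ∈ F.Up) (hpos' : (fun v => Ps e 1 (F.v v)) ∈ F.Up) :
    JoinedIn F.U (fun v => Ps e 1 (F.v v)) (fun v => Ps e 1 (H (F.v v))) := by
  classical
  -- negativity is preserved by `H`
  have hneg : ∀ x, mn e x ≤ 0 → mn e (H x) ≤ 0 := by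
    intro x hx
    by_contra hcon
    push Not at hcon
    have h1 : H (H x) = H x := hid _ hcon.le
    have h2 := hH h1
    rw [h2] at hcon
    linarith
  have hH0 : H 0 = 0 := hid 0 (by simp [mn])
  have hne0 : ∀ x, x ≠ 0 → H x ≠ 0 := fun x hx h => hx (hH (h.trans hH0.symm))
  -- the planar vertices
  let P : Type := {v : V // ∃ c ∈ F.T, v ∈ c ∧ F.Neg e c}
  have hPne : ∀ v : P, F.v v.1 ≠ 0 := by
    rintro ⟨v, c, hc, hv, _⟩; exact F.vertex_ne_zero hc hv
  have hPmn : ∀ v : P, mn e (F.v v.1) ≤ 0 := by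
    rintro ⟨v, c, hc, hv, hn⟩; exact F.mn_nonpos_of_neg e had hc hn hv
  have hPl : ∀ v : P, 0 < hl e (Ps e 1 (F.v v.1)) := fun v => hl_pos e (hPne v) (hPmn v)
  have hPl' : ∀ v : P, 0 < hl e (Ps e 1 (H (F.v v.1))) := fun v =>
    hl_pos e (hne0 _ (hPne v)) (hneg _ (hPmn v))
  let p : P → ℝ × ℝ := fun v => zc e (Ps e 1 (F.v v.1))
  let q : P → ℝ × ℝ := fun v => zc e (Ps e 1 (H (F.v v.1)))
  have hpl : ∀ v : P, hl e (Ps e 1 (F.v v.1)) • lf e (p v) = Ps e 1 (F.v v.1) := fun v =>
    lf_zc e (hPl v).ne'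
  have hql : ∀ v : P, hl e (Ps e 1 (H (F.v v.1))) • lf e (q v) = Ps e 1 (H (F.v v.1)) := fun v =>
    lf_zc e (hPl' v).ne'
  let T : Finset (P × P × P) := Finset.univ.filter fun t =>
    (({t.1.1, t.2.1.1, t.2.2.1} : Finset V) ∈ F.T ∧ F.Neg e {t.1.1, t.2.1.1, t.2.2.1}) ∧
      0 < dt (p t.2.1 - p t.1) (p t.2.2 - p t.1)
  have hT : ∀ a b c : P, (a, b, c) ∈ T ↔ (({a.1, b.1, c.1} : Finset V) ∈ F.T ∧
      F.Neg e {a.1, b.1, c.1}) ∧ 0 < dt (p b - p a) (p c - p a) := by
    intro a b c; simp [T]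
  -- determinants of a cell in terms of planar positions
  have hdet : ∀ (w : V → E) (a b c : P) (r : P → ℝ) (z : P → ℝ × ℝ),
      ({a.1, b.1, c.1} : Finset V) ∈ F.T → w a.1 = r a • lf e (z a) → w b.1 = r b • lf e (z b) →
      w c.1 = r c • lf e (z c) →
      (F.lin {a.1, b.1, c.1} w).det * e.det (fun i => F.v (![a.1, b.1, c.1] i)) =
        -(r a * r b * r c * dt (z b - z a) (z c - z a)) := by
    intro w a b c r z hc ha hb hcc
    have h1 := F.det_cell e hc w ![a.1, b.1, c.1] (by intro i; fin_cases i <;> simp)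
    rw [← h1]
    have h2 : (fun i => w (![a.1, b.1, c.1] i)) = fun i => (![r a, r b, r c] i) •
        lf e (![z a, z b, z c] i) := by
      funext i; fin_cases i
      · exact ha
      · exact hb
      · exact hcc
    rw [h2, det_lf]
    rfl
  have hgen : ∀ (a b c : P), ({a.1, b.1, c.1} : Finset V) ∈ F.T →
      e.det (fun i => F.v (![a.1, b.1, c.1] i)) ≠ 0 := by
    intro a b c hc
    refine F.det_gen_ne_zero e hc _ (by intro i; fin_cases i <;> simp) ?_
    have h3 := F.card3 e hc
    have hab : a.1 ≠ b.1 := by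
      intro h; rw [h] at h3
      have := (Finset.card_le_two (a := b.1) (b := c.1))
      simp at h3; omega
    have hac : a.1 ≠ c.1 := by
      intro h
      have h4 : ({a.1, b.1, c.1} : Finset V) = {b.1, c.1} := by
        rw [h]; ext x; simp
      rw [h4] at h3
      have := (Finset.card_le_two (a := b.1) (b := c.1))
      omega
    have hbc : b.1 ≠ c.1 := by
      intro h
      have h4 : ({a.1, b.1, c.1} : Finset V) = {a.1, c.1} := by
        rw [h]; ext x; simp
      rw [h4] at h3
      have := (Finset.card_le_two (a := a.1) (b := c.1))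
      omega
    intro i j hij
    fin_cases i <;> fin_cases j <;> simp_all
  -- orientation of `q`
  have hqpos : ∀ a b c : P, (a, b, c) ∈ T → 0 < dt (q b - q a) (q c - q a) := by
    intro a b c habc
    obtain ⟨⟨hc, hn⟩, hd⟩ := (hT a b c).1 habc
    have h1 := hdet (fun v => Ps e 1 (F.v v)) a b c (fun v => hl e (Ps e 1 (F.v v.1))) p hc
      (hpl a).symm (hpl b).symm (hpl c).symm
    have h2 := hdet (fun v => Ps e 1 (H (F.v v))) a b c (fun v => hl e (Ps e 1 (H (F.v v.1)))) q hc
      (hql a).symm (hql b).symm (hql c).symm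
    have h3 := hpos' _ hc
    have h4 := hpos _ hc
    have h5 := hPl a
    have h6 := hPl b
    have h7 := hPl c
    have h8 := hPl' a
    have h9 := hPl' b
    have h10 := hPl' c
    have h11 : 0 < hl e (Ps e 1 (F.v a.1)) * hl e (Ps e 1 (F.v b.1)) * hl e (Ps e 1 (F.v c.1)) :=
      mul_pos (mul_pos h5 h6) h7
    have h12 : 0 < hl e (Ps e 1 (H (F.v a.1))) * hl e (Ps e 1 (H (F.v b.1))) *
        hl e (Ps e 1 (H (F.v c.1))) := mul_pos (mul_pos h8 h9) h10
    have h13 : e.det (fun i => F.v (![a.1, b.1, c.1] i)) < 0 := by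
      by_contra hcon
      push Not at hcon
      have := mul_nonneg h3.le hcon
      rw [h1] at this
      have := mul_pos h11 hd
      linarith
    have h14 := mul_neg_of_pos_of_neg h4 h13
    rw [h2] at h14
    by_contra hcon
    push Not at hcon
    have := mul_nonpos_of_nonneg_of_nonpos h12.le hcon
    linarith
  -- completing a cell to a positive triple starting at a given vertex
  have htriple : ∀ c ∈ F.T, F.Neg e c → ∀ v ∈ c, ∃ (a b d : P), a.1 = v ∧ c = {a.1, b.1, d.1} ∧
      (a, b, d) ∈ T := by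
    intro c hc hn v hv
    have h3 := F.card3 e hc
    have h4 : (c.erase v).card = 2 := by rw [Finset.card_erase_of_mem hv, h3]
    obtain ⟨x, y, hxy, hc'⟩ := Finset.card_eq_two.1 h4
    have hc2 : c = {v, x, y} := by
      rw [← Finset.insert_erase hv, hc']
    have hx : x ∈ c := by rw [hc2]; simp
    have hy : y ∈ c := by rw [hc2]; simp
    let a : P := ⟨v, c, hc, hv, hn⟩
    let b : P := ⟨x, c, hc, hx, hn⟩
    let d : P := ⟨y, c, hc, hy, hn⟩
    have hne : dt (p b - p a) (p d - p a) ≠ 0 := by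
      have h1 := hdet (fun v => Ps e 1 (F.v v)) a b d (fun v => hl e (Ps e 1 (F.v v.1))) p
        (by show ({v, x, y} : Finset V) ∈ F.T; rw [← hc2]; exact hc)
        (hpl a).symm (hpl b).symm (hpl d).symm
      intro h0
      rw [h0, mul_zero, neg_zero] at h1
      rcases mul_eq_zero.1 h1 with h | h
      · exact (hpos' _ (by show ({v, x, y} : Finset V) ∈ F.T; rw [← hc2]; exact hc)).ne' h
      · exact hgen a b d (by show ({v, x, y} : Finset V) ∈ F.T; rw [← hc2]; exact hc) h
    rcases lt_or_gt_of_ne hne with hlt | hgt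
    · refine ⟨a, d, b, rfl, ?_, (hT _ _ _).2 ⟨⟨?_, ?_⟩, ?_⟩⟩
      · rw [hc2]; show ({v, x, y} : Finset V) = {v, y, x}
        ext z; simp; tauto
      · show ({v, y, x} : Finset V) ∈ F.T
        have : ({v, y, x} : Finset V) = c := by rw [hc2]; ext z; simp; tauto
        rw [this]; exact hc
      · show F.Neg e {v, y, x}
        have : ({v, y, x} : Finset V) = c := by rw [hc2]; ext z; simp; tauto
        rw [this]; exact hn
      · have : dt (p d - p a) (p b - p a) = - dt (p b - p a) (p d - p a) := by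
          simp only [dt]; ring
        rw [this]; linarith
    · refine ⟨a, b, d, rfl, hc2, (hT _ _ _).2 ⟨⟨?_, ?_⟩, hgt⟩⟩
      · show ({v, x, y} : Finset V) ∈ F.T
        rw [← hc2]; exact hc
      · show F.Neg e {v, x, y}
        rw [← hc2]; exact hn
  -- apply the planar statement
  obtain ⟨Q, hQc, hQ0, hQ1, hQf, hQpos⟩ := tutte P DD p q T convex_DD isCompact_DD
    (by
      intro a b c h
      obtain ⟨⟨h1, h2⟩, h3⟩ := (hT a b c).1 h
      have heq : ({b.1, c.1, a.1} : Finset V) = {a.1, b.1, c.1} := by ext z; simp; tauto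
      refine (hT b c a).2 ⟨⟨by rw [heq]; exact h1, by rw [heq]; exact h2⟩, ?_⟩
      have : dt (p c - p b) (p a - p b) = dt (p b - p a) (p c - p a) := by
        simp only [dt, Prod.fst_sub, Prod.snd_sub]; ring
      rw [this]; exact h3)
    (fun a b c h => ((hT a b c).1 h).2)
    (fun v => zc_mem_DD e (hPne v) (hPmn v))
    (by
      intro z hz
      set x := Ps e (-1) (lf e z) with hx
      have hy : Ps e 1 x = lf e z := by rw [hx, Ps_Ps]; norm_num; exact Ps_zero e _
      obtain ⟨c, hc, hn, hxc⟩ := F.exists_neg_cell e (mn_of_mem_DD e hz : mn e x ≤ 0)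
      obtain ⟨a, ha⟩ := hxc
      obtain ⟨v, hv⟩ := Finset.card_pos.1 (by rw [F.card3 e hc]; norm_num : 0 < c.card)
      obtain ⟨A, B, D', hA, hcABD, hmem⟩ := htriple c hc hn v hv
      have hcT := ((hT A B D').1 hmem).1.1
      have h3 := F.card3 e hcT
      have hAB : A.1 ≠ B.1 := by
        intro h
        have h4 : ({A.1, B.1, D'.1} : Finset V) = {B.1, D'.1} := by rw [h]; ext x; simp
        rw [h4] at h3
        have := (Finset.card_le_two (a := B.1) (b := D'.1))
        omega
      have hAD : A.1 ≠ D'.1 := by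
        intro h
        have h4 : ({A.1, B.1, D'.1} : Finset V) = {B.1, D'.1} := by
          rw [h]; ext x; simp
        rw [h4] at h3
        have := (Finset.card_le_two (a := B.1) (b := D'.1))
        omega
      have hBD : B.1 ≠ D'.1 := by
        intro h
        have h4 : ({A.1, B.1, D'.1} : Finset V) = {A.1, D'.1} := by rw [h]; ext x; simp
        rw [h4] at h3
        have := (Finset.card_le_two (a := A.1) (b := D'.1))
        omega
      -- the sum over the cell
      have hsum : ∀ (f : V → E), (∀ i, i ∉ c → f i = 0) →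
          ∑ i, f i = f A.1 + (f B.1 + f D'.1) := by
        intro f hf
        rw [← Finset.sum_subset (Finset.subset_univ c) (fun i _ hi => hf i hi), hcABD,
          Finset.sum_insert (by simp [hAB, hAD]), Finset.sum_insert (by simp [hBD]),
          Finset.sum_singleton]
      have hsumR : ∀ (f : V → ℝ), (∀ i, i ∉ c → f i = 0) →
          ∑ i, f i = f A.1 + (f B.1 + f D'.1) := by
        intro f hf
        rw [← Finset.sum_subset (Finset.subset_univ c) (fun i _ hi => hf i hi), hcABD,
          Finset.sum_insert (by simp [hAB, hAD]), Finset.sum_insert (by simp [hBD]),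
          Finset.sum_singleton]
      have h4 := F.Ps_rep e had 1 hc ha
      rw [hy] at h4
      have h5 : lf e z = (a A.1 * hl e (Ps e 1 (F.v A.1))) • lf e (p A) +
          ((a B.1 * hl e (Ps e 1 (F.v B.1))) • lf e (p B) +
          (a D'.1 * hl e (Ps e 1 (F.v D'.1))) • lf e (p D')) := by
        rw [h4, hsum _ (fun i hi => by rw [ha.off i hi, zero_smul]), mul_smul, mul_smul, mul_smul,
          hpl A, hpl B, hpl D']
      have h6 : a A.1 * hl e (Ps e 1 (F.v A.1)) + (a B.1 * hl e (Ps e 1 (F.v B.1)) +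
          a D'.1 * hl e (Ps e 1 (F.v D'.1))) = 1 := by
        have h7 := hl_sum e a (fun i => Ps e 1 (F.v i))
        rw [← h4, hl_lf, hsumR _ (fun i hi => by rw [ha.off i hi, zero_mul])] at h7
        exact h7.symm
      refine ⟨A, B, D', hmem, a A.1 * hl e (Ps e 1 (F.v A.1)), a B.1 * hl e (Ps e 1 (F.v B.1)),
        a D'.1 * hl e (Ps e 1 (F.v D'.1)), mul_nonneg (ha.nonneg _) (hPl A).le,
        mul_nonneg (ha.nonneg _) (hPl B).le, mul_nonneg (ha.nonneg _) (hPl D').le,
        by rw [add_assoc]; exact h6, ?_⟩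
      apply lf_injective e
      have h8 := lf_sum e (![a A.1 * hl e (Ps e 1 (F.v A.1)), a B.1 * hl e (Ps e 1 (F.v B.1)),
        a D'.1 * hl e (Ps e 1 (F.v D'.1))]) (by
          rw [Fin.sum_univ_three]; simp only [Matrix.cons_val_zero, Matrix.cons_val_one,
            Matrix.cons_val]; rw [add_assoc]; exact h6) (![p A, p B, p D'])
      rw [Fin.sum_univ_three, Fin.sum_univ_three] at h8
      simp only [Matrix.cons_val_zero, Matrix.cons_val_one, Matrix.cons_val] at h8
      rw [← h8, h5, add_assoc])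
    (by
      intro a b c a' b' c' h h' m m' hm hm' hs hs' hm1 hm1' hmm
      obtain ⟨⟨hc, _⟩, _⟩ := (hT a b c).1 h
      obtain ⟨⟨hc', _⟩, _⟩ := (hT a' b' c').1 h'
      -- extend to `V`
      let ext : (P → ℝ) → V → ℝ := fun m v =>
        if hv : ∃ c ∈ F.T, v ∈ c ∧ F.Neg e c then m ⟨v, hv⟩ / hl e (Ps e 1 (F.v v)) else 0
      have hext : ∀ (m : P → ℝ) (M : V → E), ∑ v, ext m v • M v =
          ∑ v : P, (m v / hl e (Ps e 1 (F.v v.1))) • M v.1 := by
        intro m M
        have h1 : ∀ v : P, ext m v.1 • M v.1 = (m v / hl e (Ps e 1 (F.v v.1))) • M v.1 := by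
          rintro ⟨v, hv⟩; simp only [ext, dif_pos hv]
        rw [← Finset.sum_congr rfl fun v _ => h1 v]
        rw [← Finset.sum_subset (Finset.subset_univ (Finset.univ.filter
          fun v => ∃ c ∈ F.T, v ∈ c ∧ F.Neg e c))]
        · exact Finset.sum_subtype _ (by simp) _
        · intro v _ hv
          have : ¬ ∃ c ∈ F.T, v ∈ c ∧ F.Neg e c := by simpa using hv
          simp only [ext, dif_neg this, zero_smul]
      have hrep : ∀ (m : P → ℝ) (a b c : P), (∀ i, 0 ≤ m i) →
          (∀ i, i ≠ a → i ≠ b → i ≠ c → m i = 0) →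
          Rep F.v {a.1, b.1, c.1} (ext m) (∑ v, ext m v • F.v v) := by
        intro m a b c hm hs
        refine ⟨fun v => ?_, fun v hv => ?_, rfl⟩
        · by_cases hv : ∃ c ∈ F.T, v ∈ c ∧ F.Neg e c
          · simp only [ext, dif_pos hv]
            exact div_nonneg (hm _) (hPl ⟨v, hv⟩).le
          · simp only [ext, dif_neg hv]; exact le_rfl
        · by_cases hv' : ∃ c ∈ F.T, v ∈ c ∧ F.Neg e c
          · simp only [ext, dif_pos hv']
            rw [hs ⟨v, hv'⟩ (fun h => hv (by rw [← h]; simp)) (fun h => hv (by rw [← h]; simp))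
              (fun h => hv (by rw [← h]; simp)), zero_div]
          · simp only [ext, dif_neg hv']
      have r1 := hrep m a b c hm hs
      have r2 := hrep m' a' b' c' hm' hs'
      have hPs : ∀ (m : P → ℝ) (a b c : P), ({a.1, b.1, c.1} : Finset V) ∈ F.T → ∑ i, m i = 1 →
          Rep F.v {a.1, b.1, c.1} (ext m) (∑ v, ext m v • F.v v) →
          Ps e 1 (∑ v, ext m v • F.v v) = lf e (∑ i, m i • p i) := by
        intro m a b c hc hm1 hr
        rw [F.Ps_rep e had 1 hc hr, hext m (fun v => Ps e 1 (F.v v)), ← lf_sum e m hm1]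
        refine Finset.sum_congr rfl fun v _ => ?_
        rw [← hpl v, smul_smul, hpl v, div_mul_cancel₀ _ (hPl v).ne']
      have hx : (∑ v, ext m v • F.v v) = ∑ v, ext m' v • F.v v := by
        apply (Ps_bijective e 1).1
        rw [hPs m a b c hc hm1 r1, hPs m' a' b' c' hc' hm1' r2, hmm]
      rw [← hx] at r2
      have := F.uniq _ hc _ hc' _ _ _ r1 r2
      funext v
      have h5 := congrFun this v.1
      simp only [ext, dif_pos v.2] at h5
      exact (div_left_inj' (hPl v).ne').1 h5)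
    (by
      rintro ⟨v, c, hc, hv, hn⟩
      obtain ⟨a, b, d, ha, _, h⟩ := htriple c hc hn v hv
      have : a = ⟨v, c, hc, hv, hn⟩ := Subtype.ext ha
      rw [← this]
      exact ⟨b, d, h⟩)
    (by
      intro v hv
      have := mn_of_frontier e (hPne v) (hPmn v) hv
      show zc e (Ps e 1 (H (F.v v.1))) = zc e (Ps e 1 (F.v v.1))
      rw [hid _ this.ge])
    hqpos
  -- the path
  let r : ℝ → P → ℝ := fun t v =>
    (1 - t) * hl e (Ps e 1 (F.v v.1)) + t * hl e (Ps e 1 (H (F.v v.1)))
  let W : ℝ → V → E := fun t v =>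
    if hv : ∃ c ∈ F.T, v ∈ c ∧ F.Neg e c then r t ⟨v, hv⟩ • lf e (Q t ⟨v, hv⟩)
    else (1 - t) • Ps e 1 (F.v v) + t • Ps e 1 (H (F.v v))
  have hr0 : ∀ t ∈ Icc (0 : ℝ) 1, ∀ v, 0 < r t v := by
    intro t ht v
    simp only [r]
    have h1 := hPl v
    have h2 := hPl' v
    rcases ht.1.eq_or_lt with h0 | h0
    · rw [← h0]; simpa using h1
    · have h3 : 0 < t * hl e (Ps e 1 (H (F.v v.1))) := mul_pos h0 h2
      have h4 : 0 ≤ (1 - t) * hl e (Ps e 1 (F.v v.1)) := mul_nonneg (by linarith [ht.2]) h1.le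
      linarith
  have hWc : ContinuousOn W (Icc 0 1) := by
    refine continuousOn_pi.2 fun v => ?_
    by_cases hv : ∃ c ∈ F.T, v ∈ c ∧ F.Neg e c
    · simp only [W, dif_pos hv, r]
      exact (by fun_prop : Continuous fun t : ℝ => (1 - t) * hl e (Ps e 1 (F.v v)) +
        t * hl e (Ps e 1 (H (F.v v)))).continuousOn.smul
        ((continuous_lf e).comp_continuousOn (hQc ⟨v, hv⟩))
    · simp only [W, dif_neg hv]
      exact (by fun_prop : Continuous fun t : ℝ => (1 - t) • Ps e 1 (F.v v) +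
        t • Ps e 1 (H (F.v v))).continuousOn
  have hW0 : W 0 = fun v => Ps e 1 (F.v v) := by
    funext v
    by_cases hv : ∃ c ∈ F.T, v ∈ c ∧ F.Neg e c
    · simp only [W, dif_pos hv, r, hQ0, sub_zero, one_mul, zero_mul, add_zero]
      exact hpl ⟨v, hv⟩
    · simp only [W, dif_neg hv, sub_zero, one_smul, zero_smul, add_zero]
  have hW1 : W 1 = fun v => Ps e 1 (H (F.v v)) := by
    funext v
    by_cases hv : ∃ c ∈ F.T, v ∈ c ∧ F.Neg e c
    · simp only [W, dif_pos hv, r, hQ1, sub_self, one_mul, zero_mul, zero_add]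
      exact hql ⟨v, hv⟩
    · simp only [W, dif_neg hv, sub_self, one_smul, zero_smul, zero_add]
  have hWU : ∀ t ∈ Icc (0 : ℝ) 1, W t ∈ F.U := by
    intro t ht c hc
    by_cases hn : F.Neg e c
    · obtain ⟨v, hv⟩ := Finset.card_pos.1 (by rw [F.card3 e hc]; norm_num : 0 < c.card)
      obtain ⟨a, b, d, _, hcc, hmem⟩ := htriple c hc hn v hv
      have hW : ∀ a : P, W t a.1 = r t a • lf e (Q t a) := by
        rintro ⟨a, ha⟩; simp only [W, dif_pos ha]
      have hcT : ({a.1, b.1, d.1} : Finset V) ∈ F.T := by rw [← hcc]; exact hc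
      have h1 := hdet (W t) a b d (r t) (Q t) hcT (hW a) (hW b) (hW d)
      rw [hcc]
      intro h0
      rw [h0, zero_mul] at h1
      have h2 := mul_pos (mul_pos (mul_pos (hr0 t ht a) (hr0 t ht b)) (hr0 t ht d))
        (hQpos t ht a b d hmem)
      linarith
    · -- a cell inside the cone: nothing moves
      have hconst : F.lin c (W t) = F.lin c (fun v => Ps e 1 (F.v v)) := by
        refine F.ext_cell hc fun v hv => ?_
        rw [F.lin_vertex hc _ hv, F.lin_vertex hc _ hv]
        have hm0 : 0 ≤ mn e (F.v v) := F.mn_nonneg_of_not_neg e hn (F.vertex_mem_cone hv)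
        by_cases hv' : ∃ c ∈ F.T, v ∈ c ∧ F.Neg e c
        · have hm1 : mn e (F.v v) = 0 := le_antisymm (hPmn ⟨v, hv'⟩) hm0
          have h1 := hQf t ht ⟨v, hv'⟩ (frontier_of_mn e (hPne ⟨v, hv'⟩) hm1)
          simp only [W, dif_pos hv', h1, r, hid _ hm0]
          rw [← add_mul, sub_add_cancel, one_mul]
          exact hpl ⟨v, hv'⟩
        · simp only [W, dif_neg hv', hid _ hm0]
          rw [← add_smul, sub_add_cancel, one_smul]
      rw [hconst]
      exact (hpos' c hc).ne'
  refine ⟨⟨⟨fun t : unitInterval => W t, ?_⟩, ?_, ?_⟩, fun t => hWU _ t.2⟩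
  · exact hWc.domRestrict
  · show W ((0 : unitInterval) : ℝ) = _
    rw [Set.Icc.coe_zero, hW0]
  · show W ((1 : unitInterval) : ℝ) = _
    rw [Set.Icc.coe_one, hW1]

end Fan

end Crest.Agent.R096.Fp_812
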