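import Crest.Agent.R096.Fp6_812
import Crest.Agent.R096.Fan4_696

/-!
Row 96, P5-FANPATH (helper812): **the fan path**.  A conic piecewise linear injective map of a
three dimensional space, orientation preserving, is joined to a linear map by a smooth path of
positions of the vertices of one fixed fan.
-/

set_option autoImplicit false
set_option linter.unusedSectionVars false

open Module Set Filter
open scoped Topology ContDiff

namespace Crest.Agent.R096.Fp_812

namespace Fan

variable {V E : Type*} [Fintype V] [NormedAddCommGroup E] [NormedSpace ℝ E]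
  [FiniteDimensional ℝ E] (F : Fan V E)

theorem mem_cone_of_repr {c : Finset V} (hc : c ∈ F.T) {x : E}
    (h : ∀ i : c, 0 ≤ (F.bas hc).repr x i) : x ∈ F.cone c := by
  classical
  refine ⟨fun j => if hj : j ∈ c then (F.bas hc).repr x ⟨j, hj⟩ else 0, ?_, ?_, ?_⟩
  · intro j
    by_cases hj : j ∈ c
    · simpa [hj] using h ⟨j, hj⟩
    · simp [hj]
  · intro j hj; simp [hj]
  · conv_rhs => rw [← (F.bas hc).sum_repr x]
    rw [← Finset.sum_subset (Finset.subset_univ c)]
    · rw [← Finset.sum_coe_sort]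
      exact Finset.sum_congr rfl fun j _ => by simp
    · intro j _ hj; simp [hj]

theorem interior_cone_nonempty {c : Finset V} (hc : c ∈ F.T) : (interior (F.cone c)).Nonempty := by
  classical
  refine ⟨∑ i : c, F.bas hc i, ?_⟩
  have hO : IsOpen (⋂ i : c, {x : E | 0 < (F.bas hc).repr x i}) := by
    refine isOpen_iInter_of_finite fun i => isOpen_lt continuous_const ?_
    have : Continuous ((F.bas hc).coord i) := LinearMap.continuous_of_finiteDimensional _
    exact this
  refine mem_interior.2 ⟨_, fun x hx => ?_, hO, ?_⟩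
  · simp only [mem_iInter, mem_ofPred_eq] at hx
    exact F.mem_cone_of_repr hc fun i => (hx i).le
  · simp only [mem_iInter, mem_ofPred_eq]
    intro i
    have : (∑ j : c, F.bas hc j) = ∑ j : c, (1 : ℝ) • F.bas hc j := by simp
    rw [this, Basis.repr_sum_self]
    exact one_pos

theorem U_comp {w w' : V → E} (A : E ≃L[ℝ] E) (hA : 0 < (A : E →L[ℝ] E).det)
    (h : JoinedIn F.Up w w') : JoinedIn F.Up (fun v => A (w v)) (fun v => A (w' v)) := by
  obtain ⟨γ, hγ⟩ := h
  refine ⟨⟨⟨fun t => fun v => A (γ t v), ?_⟩, ?_, ?_⟩, ?_⟩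
  · exact continuous_pi fun v => A.continuous.comp ((continuous_apply v).comp γ.continuous)
  · funext v; simp
  · funext v; simp
  · intro t c hc
    have h1 : F.lin c (fun v => A (γ t v)) = (A : E →L[ℝ] E).comp (F.lin c (γ t)) :=
      F.lin_comp hc _ (A : E →L[ℝ] E)
    show 0 < (F.lin c (fun v => A (γ t v))).det
    rw [h1]
    have h2 : ((A : E →L[ℝ] E).comp (F.lin c (γ t))).det =
        (A : E →L[ℝ] E).det * (F.lin c (γ t)).det := by
      simp only [ContinuousLinearMap.det, ContinuousLinearMap.toLinearMap_comp]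
      exact LinearMap.det_comp _ _
    rw [h2]
    exact mul_pos hA (hγ t c hc)

end Fan

/-- **the fan path** -/
theorem fanpath (tutte : TutteStmt) {E : Type*} [NormedAddCommGroup E] [NormedSpace ℝ E]
    [FiniteDimensional ℝ E] (h3 : finrank ℝ E = 3) {H : E → E} {S : Finset (E →L[ℝ] E)}
    (hH : Str_696.Conic H S) (hinj : Function.Injective H)
    (hor : ∀ A ∈ S, (interior {x | H x = A x}).Nonempty → 0 < A.det) :
    ∃ (V : Type) (_ : Fintype V) (F : Fan V E) (w : ℝ → V → E) (A : E ≃L[ℝ] E),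
      0 < (A : E →L[ℝ] E).det ∧ (∀ c ∈ F.T, ∃ B ∈ S, ∀ x ∈ F.cone c, H x = B x) ∧
      (∀ i, F.v i ≠ 0) ∧
      ContDiff ℝ ∞ w ∧ F.map (w 0) = H ∧ F.map (w 1) = A ∧
      (∀ t ∈ Icc (0 : ℝ) 1, ∀ c ∈ F.T, 0 < (F.lin c (w t)).det) ∧
      (∀ t ∈ Icc (0 : ℝ) 1, Function.Bijective (F.map (w t))) := by
  classical
  -- a first fan
  obtain ⟨V0, _, F0, hF0, -, -, -⟩ := Fan_696.exists_Fan hH ∅
  obtain ⟨c0, hc0, -⟩ := F0.exists_cone 0
  obtain ⟨A0, hA0S, hA0'⟩ := hF0 c0 hc0
  have hA0 : ∀ x ∈ F0.cone c0, H x = A0 x := by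
    rintro x ⟨a, ha⟩; exact hA0' a x ha
  have hcard0 : Fintype.card c0 = Fintype.card (Fin 3) := by
    rw [Fintype.card_coe, F0.card c0 hc0, h3, Fintype.card_fin]
  let eq0 : c0 ≃ Fin 3 := Fintype.equivOfCardEq hcard0
  let e : Basis (Fin 3) ℝ E := (F0.bas hc0).reindex eq0
  have hmncone : ∀ x, 0 ≤ mn e x → x ∈ F0.cone c0 := by
    intro x hx
    refine F0.mem_cone_of_repr hc0 fun i => ?_
    have h1 := hx.trans (mn_le e x (eq0 i))
    simpa [e] using h1
  have hdet0 : 0 < A0.det := by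
    refine hor A0 hA0S ?_
    obtain ⟨x, hx⟩ := F0.interior_cone_nonempty hc0
    exact ⟨x, interior_mono (fun y hy => hA0 y hy) hx⟩
  let A : E ≃L[ℝ] E := A0.toContinuousLinearEquivOfDetNeZero hdet0.ne'
  have hAA0 : (A : E →L[ℝ] E) = A0 :=
    ContinuousLinearMap.coe_toContinuousLinearEquivOfDetNeZero _ _
  have hAx : ∀ x, A x = A0 x := fun x =>
    ContinuousLinearMap.toContinuousLinearEquivOfDetNeZero_apply A0 hdet0.ne' x
  have hdetA : 0 < (A : E →L[ℝ] E).det := by rw [hAA0]; exact hdet0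
  have hcompdet : ∀ B C : E →L[ℝ] E, (B.comp C).det = B.det * C.det := by
    intro B C
    simp only [ContinuousLinearMap.det, ContinuousLinearMap.toLinearMap_comp]
    exact LinearMap.det_comp _ _
  have hdetAs : 0 < (A.symm : E →L[ℝ] E).det := by
    have h1 := hcompdet (A : E →L[ℝ] E) (A.symm : E →L[ℝ] E)
    have h2 : (A : E →L[ℝ] E).comp (A.symm : E →L[ℝ] E) = ContinuousLinearMap.id ℝ E := by
      ext x; simp
    have h3' : (ContinuousLinearMap.id ℝ E).det = 1 := by
      simp [ContinuousLinearMap.det]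
    rw [h2, h3'] at h1
    by_contra hcon
    push Not at hcon
    have := mul_nonpos_of_nonneg_of_nonpos hdetA.le hcon
    linarith
  let H1 : E → E := fun x => A.symm (H x)
  let S1 : Finset (E →L[ℝ] E) := S.image fun B => (A.symm : E →L[ℝ] E).comp B
  have hH1 : Str_696.Conic H1 S1 := by
    refine ⟨A.symm.continuous.comp hH.cont, fun t v ht => ?_, fun v => ?_⟩
    · show A.symm (H (t • v)) = t • A.symm (H v)
      rw [hH.homog t v ht, map_smul]
    · obtain ⟨B, hB, h⟩ := hH.sel v
      refine ⟨_, Finset.mem_image_of_mem _ hB, ?_⟩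
      show A.symm (H v) = A.symm (B v)
      rw [h]
  have hH1inj : Function.Injective H1 := A.symm.injective.comp hinj
  have hid : ∀ x, 0 ≤ mn e x → H1 x = x := fun x hx => by
    show A.symm (H x) = x
    rw [hA0 x (hmncone x hx), ← hAx, A.symm_apply_apply]
  let cf : Fin 3 → (E →L[ℝ] ℝ) := fun i => LinearMap.toContinuousLinearMap (e.coord i)
  have hcf : ∀ i x, cf i x = e.repr x i := fun i x => rfl
  let L : Finset (E →L[ℝ] ℝ) := (Finset.univ.image cf) ∪
    ((Finset.univ.image fun p : Fin 3 × Fin 3 => cf p.1 - cf p.2) ∪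
      (S1 ×ˢ (Finset.univ : Finset (Fin 3 × Fin 3))).image
        (fun q => (cf q.2.1 - cf q.2.2).comp q.1))
  obtain ⟨V, iV, F, hF', -, hne, hL⟩ := Fan_696.exists_Fan hH1 L
  have hF : ∀ c ∈ F.T, ∃ B ∈ S1, ∀ x ∈ F.cone c, H1 x = B x := by
    intro c hc
    obtain ⟨B, hB, h⟩ := hF' c hc
    exact ⟨B, hB, by rintro x ⟨a, ha⟩; exact h a x ha⟩
  have had : F.Ad e := by
    refine ⟨fun c hc k => hL c hc (cf k) ?_, fun c hc i j => ?_⟩
    · exact Finset.mem_union_left _ (Finset.mem_image_of_mem _ (Finset.mem_univ k))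
    · have h1 := hL c hc (cf i - cf j) (Finset.mem_union_right _ (Finset.mem_union_left _
        (Finset.mem_image.2 ⟨(i, j), Finset.mem_univ _, rfl⟩)))
      rcases h1 with h1 | h1
      · right; intro v hv
        have := h1 v hv
        rw [sub_apply, hcf, hcf] at this
        linarith
      · left; intro v hv
        have := h1 v hv
        rw [sub_apply, hcf, hcf] at this
        linarith
  have had1 : ∀ c ∈ F.T, ∀ i j : Fin 3, (∀ v ∈ c, e.repr (H1 (F.v v)) i ≤ e.repr (H1 (F.v v)) j) ∨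
      (∀ v ∈ c, e.repr (H1 (F.v v)) j ≤ e.repr (H1 (F.v v)) i) := by
    intro c hc i j
    obtain ⟨B, hB, hHB⟩ := hF c hc
    have h1 := hL c hc ((cf i - cf j).comp B) (Finset.mem_union_right _
      (Finset.mem_union_right _ (Finset.mem_image.2 ⟨(B, (i, j)),
        Finset.mem_product.2 ⟨hB, Finset.mem_univ _⟩, rfl⟩)))
    rcases h1 with h1 | h1
    · right; intro v hv
      have := h1 v hv
      rw [ContinuousLinearMap.comp_apply, sub_apply, hcf, hcf,
        ← hHB _ (F.vertex_mem_cone hv)] at this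
      linarith
    · left; intro v hv
      have := h1 v hv
      rw [ContinuousLinearMap.comp_apply, sub_apply, hcf, hcf,
        ← hHB _ (F.vertex_mem_cone hv)] at this
      linarith
  have hHcell : ∀ c ∈ F.T, ∃ B ∈ S, ∀ x ∈ F.cone c, H x = B x := by
    intro c hc
    obtain ⟨B, hB, hHB⟩ := hF c hc
    obtain ⟨B', hB', rfl⟩ := Finset.mem_image.1 hB
    refine ⟨B', hB', fun x hx => ?_⟩
    have h1 : A.symm (H x) = A.symm (B' x) := hHB x hx
    exact A.symm.injective h1
  have hUp1 : (fun v => H1 (F.v v)) ∈ F.Up := by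
    intro c hc
    obtain ⟨B, hB, hHB⟩ := hHcell c hc
    have h1 : F.lin c (fun v => H1 (F.v v)) = (A.symm : E →L[ℝ] E).comp B := by
      refine F.ext_cell hc fun v hv => ?_
      rw [F.lin_vertex hc _ hv]
      show A.symm (H (F.v v)) = A.symm (B (F.v v))
      rw [hHB _ (F.vertex_mem_cone hv)]
    rw [h1, hcompdet]
    refine mul_pos hdetAs (hor B hB ?_)
    obtain ⟨x, hx⟩ := F.interior_cone_nonempty hc
    exact ⟨x, interior_mono (fun y hy => hHB y hy) hx⟩
  have hUp0 : F.v ∈ F.Up := by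
    intro c hc
    have h1 : F.lin c F.v = ContinuousLinearMap.id ℝ E :=
      F.ext_cell hc fun v hv => by rw [F.lin_vertex hc _ hv]; rfl
    rw [h1]
    simp [ContinuousLinearMap.det]
  have seg1 : JoinedIn F.Up (fun v => H1 (F.v v)) (fun v => Ps e 1 (H1 (F.v v))) :=
    F.joinedIn_Up (F.seg e hH1inj (fun c hc => (hF c hc).imp fun B h => h.2) had1) hUp1
  have seg3 : JoinedIn F.Up (fun v => F.v v) (fun v => Ps e 1 (F.v v)) :=
    F.joinedIn_Up (F.seg e (G := fun x => x) (fun _ _ h => h)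
      (fun c hc => ⟨ContinuousLinearMap.id ℝ E, fun x _ => rfl⟩) had.diff) hUp0
  have seg2 : JoinedIn F.U (fun v => Ps e 1 (F.v v)) (fun v => Ps e 1 (H1 (F.v v))) :=
    F.seg_mid e tutte had hH1inj hid seg1.target_mem seg3.target_mem
  have seg2' := F.joinedIn_Up seg2 seg3.target_mem
  have hall : JoinedIn F.Up (fun v => H1 (F.v v)) F.v := (seg1.trans seg2'.symm).trans seg3.symm
  have hall2 := F.U_comp A hdetA hall
  have hH1A : (fun v => A (H1 (F.v v))) = fun v => H (F.v v) := by
    funext v; exact A.apply_symm_apply _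
  rw [hH1A] at hall2
  obtain ⟨w, hw, hw0, hw1, hwU⟩ := exists_smooth_path F.isOpen_Up hall2
  have hmap0 : F.map (w 0) = H := by
    rw [hw0]
    exact F.map_eq_of_linear H fun c hc => (hHcell c hc).imp fun B h => h.2
  have hmap1 : F.map (w 1) = A := by
    rw [hw1]
    exact F.map_eq_of_linear A fun c hc => ⟨(A : E →L[ℝ] E), fun x _ => rfl⟩
  have hbij : ∀ t ∈ Icc (0 : ℝ) 1, Function.Bijective (F.map (w t)) :=
    F.bijective_of_path w hw.continuous.continuousOn (fun t ht c hc => (hwU t ht c hc).ne')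
      (t0 := 1) (right_mem_Icc.2 zero_le_one) (by rw [hmap1]; exact A.bijective)
  exact ⟨V, iV, F, w, A, hdetA, hHcell, hne, hw, hmap0, hmap1, fun t ht c hc => hwU t ht c hc,
    hbij⟩

end Crest.Agent.R096.Fp_812
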