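import Crest.Agent.R096.Np2_962

/-!
Row 96 (S0127), helper408, node NO0-PRE3.  **The fields of `FrontC` / `Front3` see the derivatives `g`
on `Op` only**: `g` may be replaced by `0` off `Op` (`Front3.ind`), as the mesh part (sums over ALL
edges of the outer mesh) needs.
-/

set_option autoImplicit false
set_option linter.unusedSectionVars false
set_option linter.unusedVariables false
open Set Filter Topology MeasureTheory
open scoped NNReal ENNReal

namespace Crest.Agent.R096.Fri_408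

open Crest.Agent.R096.Brk5_582 Crest.Agent.R096.Bsp_628 Crest.Agent.R096.Log1_582
open Crest.Agent.R096.Log2_582 Crest.Agent.R096.Dic6_582 Crest.Agent.R096.Dic7_582
open Crest.Agent.R096.Npr_582 Crest.Agent.R096.Np_962
open Crest.Agent.R96.Push_899 (EE LaE)
open Crest.Agent.R96.Acl_392 Crest.Agent.R96.Sob2_199
open Crest.Agent.R096.SkC1_961 (E3 Hom3 FoamD)

variable {p : ℝ} {q : ℕ} {s : Fin 3 → ℝ} {ε ε' : ℝ≥0∞} {Om La : Set E3} {M h : ℝ}
  {a : Fin 3 → ℝ} {Φ : FoamD (dF q) (kF q) 6 (cN q) La} {f1 : E3 → E3} {X HH : Set E3}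
  {g : Φ.F → Fin 3 → E3 → ℝ}

/-- any two families `g`, `g'` which agree on `Op` -/
theorem frontC_congr (H : FrontC p q s ε ε' Om La M h a Φ f1 X HH g)
    {g' : Φ.F → Fin 3 → E3 → ℝ} (hm : ∀ c l, Measurable (g' c l))
    (hg : ∀ c l, ∀ x ∈ Op Φ Om f1, g' c l x = g c l x) :
    FrontC p q s ε ε' Om La M h a Φ f1 X HH g' where
  q1 := H.q1
  h0 := H.h0
  fr := H.fr
  homeo := H.homeo
  op := H.op
  XO := H.XO
  Xm := H.Xm
  Xv := H.Xv
  HHo := H.HHo
  HHs := H.HHs
  HHX := H.HHX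
  HHw := H.HHw
  Qv := H.Qv
  gm := hm
  wd := fun c l => wd_congr H.op (H.wd c l) (Eventually.of_forall fun _ _ => rfl)
    (Eventually.of_forall fun x hx => (hg c l x hx).symm)
  eW := fun l w h1 h2 => by
    refine le_trans (le_of_eq ?_) (H.eW l w h1 h2)
    refine setLIntegral_congr_fun H.op.measurableSet fun x hx => ?_
    simp only [hg _ _ x hx]
  eX := fun l w h1 h2 => by
    refine le_trans (le_of_eq ?_) (H.eX l w h1 h2)
    refine setLIntegral_congr_fun (H.op.measurableSet.inter H.Xm) fun x hx => ?_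
    simp only [hg _ _ x hx.1]

/-- **`g` is replaced by `0` off `Op`** -/
theorem frontC_ind (H : FrontC p q s ε ε' Om La M h a Φ f1 X HH g) :
    FrontC p q s ε ε' Om La M h a Φ f1 X HH (fun c l => (Op Φ Om f1).indicator (g c l)) :=
  frontC_congr H (fun c l => (H.gm c l).indicator H.op.measurableSet)
    fun c l x hx => indicator_of_mem hx _

variable {f : E3 → E3} {ρ0 κ1 κ2 lam0 : ℝ} {lam : Φ.F → ℝ} {A : Φ.F → E3 ≃ᵃ[ℝ] E3}
  {D1 : E3 → E3 →L[ℝ] E3}

/-- any two families `g`, `g'` which agree on `Op` -/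
theorem front3_congr (H : Front3 p q s ε ε' Om La f M ρ0 h a κ1 κ2 lam0 Φ lam A f1 D1 X HH g)
    {g' : Φ.F → Fin 3 → E3 → ℝ} (hm : ∀ c l, Measurable (g' c l))
    (hg : ∀ c l, ∀ x ∈ Op Φ Om f1, g' c l x = g c l x) :
    Front3 p q s ε ε' Om La f M ρ0 h a κ1 κ2 lam0 Φ lam A f1 D1 X HH g' where
  c := frontC_congr H.c hm hg
  sh := H.sh
  near := H.near
  nb := H.nb
  dy := H.dy
  rat := H.rat
  ex := H.ex
  XN := H.XN
  cs := H.cs

/-- **`g` is replaced by `0` off `Op`** -/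
theorem front3_ind (H : Front3 p q s ε ε' Om La f M ρ0 h a κ1 κ2 lam0 Φ lam A f1 D1 X HH g) :
    Front3 p q s ε ε' Om La f M ρ0 h a κ1 κ2 lam0 Φ lam A f1 D1 X HH
      (fun c l => (Op Φ Om f1).indicator (g c l)) :=
  front3_congr H (fun c l => (H.c.gm c l).indicator H.c.op.measurableSet)
    fun c l x hx => indicator_of_mem hx _

theorem ind_off {S : Set E3} {𝒞 : Type*} {g : 𝒞 → Fin 3 → E3 → ℝ} (c : 𝒞) (l : Fin 3) {x : E3}
    (hx : x ∉ S) : (fun c l => S.indicator (g c l)) c l x = 0 := indicator_of_notMem hx _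

end Crest.Agent.R096.Fri_408
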