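import Crest.Agent.R096.Frk2_441

/-!
# R096 (row 96), FRONT (helper441): the feet at a tiny core and 422's core datum

`exists_cd_tiny` : `Cd` at a tiny core which touches `a`, from the exact pattern (`ExG`).
-/

set_option autoImplicit false
set_option linter.unusedSectionVars false
set_option linter.unusedVariables false

open Set Relation Module

namespace Crest.Agent.R096.Frk_441

open Crest.Agent.R096.Brk1_582 Crest.Agent.R096.Brk2_582 Crest.Agent.R096.Brk3_582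
  Crest.Agent.R096.Brk5_582 Crest.Agent.R096.Bsp_628 Crest.Agent.R096.Init_543
  Crest.Agent.R096.Vb_965 Crest.Agent.R096.Msh_715 Crest.Agent.R096.St_147
  Crest.Agent.R096.Seq_213 Crest.Agent.R096.Lm_117 Crest.Agent.R096.Gl_422
  Crest.Agent.R096.SkB_662 Crest.Agent.R096.Cpo_642
  Crest.Agent.R096.Ce_537 Crest.Agent.R096.Agl5_543
  Crest.Agent.R096.Cp_298 Crest.Agent.R096.Gm_298 Crest.Agent.R096.Ac_117
  Crest.Agent.R096.Sla_184 Crest.Agent.R096.Sla_184.Sla Crest.Agent.R096.Kin_527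
  Crest.Agent.R096.Vrt_422 Crest.Agent.R096.Rop_441
  Crest.Agent.R096.Lmx_662 Crest.Agent.R096.Flb_422
open Crest.Agent.R096.SkC1_961 (E3 Hom3 FoamD)
open Crest.Agent.R096.Mbf_337 (KJ sb)
open Crest.Agent.R096.Gia_537 (Kc Kc_sub Kc_compact Kc_disj Kc_exact)
open Crest.Agent.R096.Exa_560 (Lev)

variable {δ κ0 R c0 : ℝ} {La Om : Set E3} {ι : Type} {Φ : FoamD δ κ0 R c0 La}
  {T : Tiling Om ι} {f g : E3 → E3} {κ1 κ2 s₁ σ : ℝ} {X : Set Φ.F} {J0 J V : Φ.F → Set ι}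
  {ct : Φ.F → ι}
  {A : Φ.F → E3 ≃ᵃ[ℝ] E3} {lam : Φ.F → ℝ} {z : Φ.F → E3} {θ : Φ.F → E3 → E3} {φ : Φ.F → E3 → ℝ}
  {ct' : Φ.F → ι} {r₀ : Φ.F → ℝ}

open scoped Classical in
/-- **a point of `bd P_c` far from `P_a`** -/
theorem exists_one (hLa : IsOpen La) {a c : Φ.F} (hac : a ≠ c)
    (hne : (Pc Φ.F c ∩ Pc Φ.F a).Nonempty) :
    ∃ y ∈ frontier (Pc Φ.F c), sb Φ y a = 1 := by
  have FF := foam Φ.bf hLa
  obtain ⟨q, hq1, hq2⟩ := hne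
  have hfc : (fc (Pc Φ.F) ({a, c} : Set Φ.F)).Nonempty := by
    refine ⟨q, mem_fc.2 ?_⟩
    rintro y (rfl | rfl)
    · exact hq2
    · exact hq1
  have h := Exc_965.isPreconnected_relbd Φ.bf hLa (A := {a, c}) (by simp) ⟨a, by simp⟩ hfc
    (by rw [ncard_pair hac]; simp)
  rw [← Exc_965.rel2_eq] at h
  obtain ⟨p, hp1, hp2, d, hdc, hda, hpd⟩ := h.2
  have hne2 : (fc (Pc Φ.F) ({c, d} : Set Φ.F)).Nonempty := by
    refine ⟨p, mem_fc.2 ?_⟩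
    rintro y (rfl | rfl)
    · exact hp1
    · exact hpd
  have hm := FF.mem {c, d} ⟨c, by simp⟩ hne2
  have hbc : bc (F := Φ.F) {c, d} ∈ Pc Φ.F c := mem_fc.1 hm c (by simp)
  have hbd : bc (F := Φ.F) {c, d} ∈ Pc Φ.F d := mem_fc.1 hm d (by simp)
  refine ⟨bc (F := Φ.F) {c, d}, ?_, ?_⟩
  · rw [frontier_cell FF, Lset_zero FF]; exact ⟨hbc, d, hdc, hbd⟩
  · have h2 := Brk2_582.sc_chain FF (k := 0) (fun _ => ({c, d} : Set Φ.F)) (fun _ _ _ => le_rfl)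
      ⟨c, by simp⟩ hne2 (fun _ => 1) (fun _ => zero_le_one) (by simp) a
    have h3 : a ∉ ({c, d} : Set Φ.F) := by
      rintro (h | h)
      · exact hac h
      · exact hda h.symm
    simp only [Fin.sum_univ_succ, one_smul, Finset.univ_eq_empty, Finset.sum_empty, add_zero,
      if_neg h3] at h2
    exact h2

/-- **a point of `bd P_c` on `P_a`** -/
theorem exists_zero (hLa : IsOpen La) {a c : Φ.F} (hac : a ≠ c)
    (hne : (Pc Φ.F c ∩ Pc Φ.F a).Nonempty) :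
    ∃ y ∈ frontier (Pc Φ.F c), sb Φ y a = 0 := by
  have FF := foam Φ.bf hLa
  obtain ⟨y, hyc, hya⟩ := hne
  refine ⟨y, ?_, (FF.sc_eq_zero (FF.sub c hyc)).2 hya⟩
  rw [frontier_cell FF, Lset_zero FF]; exact ⟨hyc, a, hac, hya⟩

/-- **a foot near a point of `bd P_c`** -/
theorem exists_foot (hLa : IsOpen La) (hN : Num δ κ0 R c0 κ2 κ1 s₁) (hR : InitR Φ T f g J0 ct' r₀)
    (hC : Mbf_337.Cores Φ T f κ1 κ2 X J0 J V ct A lam z θ φ)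
    (hM : Mesh0 T (Pc Φ.F) (bc (F := Φ.F)) (RF Φ r₀) f (KorJ Φ J0) κ1) {c : Φ.F} (hcX : c ∉ X)
    {y : E3} (hy : y ∈ frontier (Pc Φ.F c)) (a : Φ.F) :
    ∃ x v i, v ∈ frontier (KJ T (J c)) ∧ T.dim v = 0 ∧ i ∉ KorJ Φ J ∧ x ∈ P (T.H i) ∧
      v ∈ P (T.H i) ∧
      |sb Φ y a - va (Pc Φ.F) (bc (F := Φ.F)) (RF Φ r₀) f a x| ≤ η0F δ κ0 R c0 κ2 κ1 ∧
      |va (Pc Φ.F) (bc (F := Φ.F)) (RF Φ r₀) f a v -
        va (Pc Φ.F) (bc (F := Φ.F)) (RF Φ r₀) f a x| ≤ κ1 ∧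
      |sb Φ (θ c v) a - va (Pc Φ.F) (bc (F := Φ.F)) (RF Φ r₀) f a v| ≤ η0F δ κ0 R c0 κ2 κ1 := by
  have hCT := corT hLa hN.hδ hN.hR hN.hκ0 hN.hκ1 hN.hκ2 hN.hκ hN.hκn hC hR
  have hx := hCT.taum c hy
  have hxK : tauC hC c y ∈ Kc T J c := (Kc_compact hC c).isClosed.frontier_subset hx
  have hxO : tauC hC c y ∈ Om := Kc_sub c hxK
  have hout : ∀ d, tauC hC c y ∉ interior (Kc T J d) := by
    intro d hd
    by_cases hdc : d = c
    · subst hdc; exact hx.2 hd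
    · exact disjoint_left.1 (Kc_disj (T := T) (J := J) hLa hC hdc) (interior_subset hd) hxK
  obtain ⟨i, hi, hxi⟩ := exists_out T (kor_sub (Φ := Φ) (J := J)) (fun _ _ h => Kc_disj hLa hC h)
    hxO hout
  obtain ⟨v, hv, hd⟩ := exists_vertex T hxO
  have hvf : v ∈ frontier (KJ T (J c)) :=
    (Exa_560.coreH_tiny (hC.tiny c hcX)).cc _ hx hv
  have hvi : v ∈ P (T.H i) := T.cc_sub_tile hxi hv
  have hi0 : i ∉ KorJ Φ J0 := fun h' => hi (korJ_mono hC h')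
  refine ⟨_, v, i, hvf, hd, hi, hxi, hvi, ?_, hM.osc i hi0 v hvi _ hxi a, ?_⟩
  · have h1 := hCT.close c _ hx a
    rwa [hCT.ri c y hy] at h1
  · have h1 := hCT.close c v hvf a
    rwa [thC_tiny hcX] at h1

variable {κ : Type} {S : Sla T κ}
variable [Nonempty S.T3.Cell] {hH : ∀ c, CoreH S.T3 (S.KK c)} {hne : ∃ c, OutK S.T3 S.KK c}
  {Kq : Type} {Qd : Quads (T.RIdx S.HH ⊕ κ) Φ.F Kq} {Jn : Type} {fam : Jn → Φ.F}
  {s₀ : GSt (mK fr3 hH (dis_KK (S := S))) fam}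

section main

variable (hLa : IsOpen La) (hLc : IsPreconnected La) (hN : Num δ κ0 R c0 κ2 κ1 s₁)
  (hσ : s₁ ≤ σ)
  (hR : InitR Φ T f g J0 ct' r₀)
  (hC : Mbf_337.Cores Φ T f κ1 κ2 X J0 J V ct A lam z θ φ)
  (hM : Mesh0 T (Pc Φ.F) (bc (F := Φ.F)) (RF Φ r₀) f (KorJ Φ J0) κ1)
  (hK : TinyK X J S)
  (Xc : Cplx Om (QK (belK S.T3 S.KK)) (dimK (belK S.T3 S.KK) fun c => c.1.dim)
    (setK S.T3 S.KK))
  (h : Lst Φ f J0 J r₀ S hH hne Qd s₀ s₁ σ)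

section nofar

include hLa hσ hC hM hK h

/-- **the column over a foot** -/
theorem col_gen {c : κ} {v : E3} (hv : v ∈ frontier (S.K c)) {a : Φ.F}
    (hl : va (Pc Φ.F) (bc (F := Φ.F)) (RF Φ r₀) f a v + κ1 < s₁ ∨
      1 - s₁ < va (Pc Φ.F) (bc (F := Φ.F)) (RF Φ r₀) f a v - κ1) :
    Col Qd s₀ a c v := by
  have hosc : ∀ {p : T.RIdx S.HH}, v ∈ P (T.H p.tile) → ∀ {x : E3}, x ∈ P (T.H p.tile) →
      |va (Pc Φ.F) (bc (F := Φ.F)) (RF Φ r₀) f a x -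
        va (Pc Φ.F) (bc (F := Φ.F)) (RF Φ r₀) f a v| ≤ κ1 := fun {p} hp {x} hx =>
    hM.osc p.tile (hK.notJ0 hLa hC hv hp) x hx v hp a
  constructor
  · intro k hk i hi
    have hL : S.InL c i (S.vc c v i) := vc_inL (fr_Bd hv) hi
    obtain ⟨p, hp⟩ := S.T3.cov _ hL.mem
    obtain ⟨b1, b2, b3⟩ := col_tile hv (vc_O (fr_Bd hv) i) hL hp
    refine ⟨p, hp, fun hact => ?_⟩
    obtain ⟨k', ⟨-, x, hx, hx1, -⟩, hk'⟩ := h.act p b3 k hact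
    have h4 := hx1 a (hk' a hk)
    have h5 := abs_le.1 (hosc b1 hx)
    rcases hl with hl | hl
    · linarith [h4.1, h5.2]
    · linarith [h4.2, h5.1]
  · intro i hi w hw hwO hwL hwa
    obtain ⟨p, hp⟩ := S.T3.cov _ hwL.mem
    obtain ⟨b1, b2, b3⟩ := col_tile hv hwO hwL hp
    obtain ⟨x, hx, h4, h5⟩ := h.lay w hw p c b3 b2 hp
    rw [hwa] at h4 h5
    have h6 := abs_le.1 (hosc b1 hx)
    rcases hl with hl | hl
    · linarith [h4, h6.2]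
    · linarith [h5, h6.1]

end nofar

include hLa hLc hN hσ hR hC hM hK Xc h

variable {t0 : GSt (meshC T fr3) fam} {lam0 : Jn → E3 → ZMod 2}

/-- **422's core datum at a tiny core which touches `a`** -/
theorem exists_cd_tiny {k : κ} {c a : Φ.F} (hcX : c ∉ X) (hkc : S.K k = KJ T (J c)) (hac : a ≠ c)
    (hca : (Pc Φ.F c ∩ Pc Φ.F a).Nonempty) (L : Lev T (frontier (S.K k)) Jn)
    (hu : ∀ v ∈ frontier (S.K k), L.u v = sb Φ (θ c v) a) (hact : ∀ l, Sum.inr k ∉ Qd.Act l)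
    (hJ : ∀ j, fam j = a → j ∈ L.J0)
    (hlv : ∀ j, fam j = a → s₁ ≤ L.lv j ∧ L.lv j ≤ 1 - s₁)
    (hE : ∀ j, fam j = a → ExG S k L j {w | w ∈ s₀.P ∧ s₀.lab w = j})
    {w₀ w₁ : QK (belK S.T3 S.KK)} (hw₀ : DeepS hC r₀ S a w₀)
    (hw₁ : FarS Φ f r₀ J S (θN δ κ0 R c0 κ2 κ1) a w₁) :
    ∃ u0 u1 o0 o1 uu tt, Cd hne Qd s₀ t0 lam0 w₀ w₁ a (Sum.inr k) u0 u1 o0 o1 uu tt := by
  have hs := hN.hs
  have h00 := hN.h00
  have h1N := hN.hκ1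
  unfold ηN θN at hs
  obtain ⟨y0, hy0, e0⟩ := exists_zero hLa hac hca
  obtain ⟨y1, hy1, e1⟩ := exists_one hLa hac hca
  obtain ⟨x0, v0, i0, a1, a2, a3, a4, a5, a6, a7, a8⟩ := exists_foot hLa hN hR hC hM hcX hy0 a
  obtain ⟨x1, v1, i1, b1, b2, b3, b4, b5, b6, b7, b8⟩ := exists_foot hLa hN hR hC hM hcX hy1 a
  rw [e0] at a6
  rw [e1] at b6
  have a6' := abs_le.1 a6
  have a7' := abs_le.1 a7
  have a8' := abs_le.1 a8
  have b6' := abs_le.1 b6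
  have b7' := abs_le.1 b7
  have b8' := abs_le.1 b8
  rw [← hkc] at a1 b1
  refine ⟨_, _, _, _, _, _, cd_giant a1 a2 b1 b2 L hact hJ hE (fun j hj => ?_)
    (col_gen hLa hσ hC hM hK h a1 (Or.inl ?_)) (col_gen hLa hσ hC hM hK h b1 (Or.inr ?_))
    (rope0_o hLa hN hσ hR hC hM hK Xc h a3 a5 a2 a4 ?_ hw₀ _)
    (rope1_o hLa hLc hN hσ hR hC hM hK Xc h b3 b5 b2 b4 ?_ hw₁ _)⟩
  · obtain ⟨g1, g2⟩ := hlv j hj
    rw [hu v0 a1, hu v1 b1]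
    constructor
    · linarith [a6'.1, a7'.2, a8'.2]
    · linarith [b6'.2, b7'.1, b8'.1]
  · linarith [a6'.1, a7'.2]
  · linarith [b6'.2, b7'.1]
  · unfold θN; linarith [a6'.1]
  · unfold θN; linarith [b6'.2]

end main

end Crest.Agent.R096.Frk_441
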