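import Crest.Agent.R096.Mal8_874

/-!
Row 96 (S0127), helper234.  TMESH-RHO, abstract part: size functions (`Msh_810.Dat`) from a hereditary
local property, and a size function with EXACT scales on a compact set (the bulk) and on a locally
finite family of disjoint compact sets (the zones).
-/

set_option autoImplicit false
set_option linter.style.longLine false
set_option linter.unusedSectionVars false

open Set Filter Topology Metric

namespace Crest.Agent.R096.Tme_234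

open Crest.Agent.R096.Msh_810 Crest.Agent.R096.Mal_874

variable {n : ℕ}

noncomputable section

section good

variable (Om : Set (Fin n → ℝ)) (Q : Set (Fin n → ℝ) → Prop)

/-- the good radii at `x` -/
def gr (x : Fin n → ℝ) : Set ℝ := {r | 0 < r ∧ r ≤ 1 ∧ ball x r ⊆ Om ∧ Q (ball x r)}

/-- the supremum of the good radii -/
def rg (x : Fin n → ℝ) : ℝ := sSup (gr Om Q x)

variable {Om Q}

theorem gr_bdd (x : Fin n → ℝ) : BddAbove (gr Om Q x) := ⟨1, fun _ h => h.2.1⟩

theorem rg_nonneg (x : Fin n → ℝ) : 0 ≤ rg Om Q x := Real.sSup_nonneg fun _ h => h.1.le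

theorem rg_le_one (x : Fin n → ℝ) : rg Om Q x ≤ 1 := Real.sSup_le (fun _ h => h.2.1) zero_le_one

theorem le_rg {x : Fin n → ℝ} {r : ℝ} (h : r ∈ gr Om Q x) : r ≤ rg Om Q x := le_csSup (gr_bdd x) h

theorem rg_lip (hmono : ∀ A B, A ⊆ B → Q B → Q A) (x y : Fin n → ℝ) :
    rg Om Q x ≤ rg Om Q y + dist x y := by
  refine Real.sSup_le (fun r hr => ?_) (add_nonneg (rg_nonneg y) dist_nonneg)
  by_cases h : r ≤ dist x y
  · linarith [rg_nonneg (Om := Om) (Q := Q) y]
  · push Not at h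
    have hsub : ball y (r - dist x y) ⊆ ball x r := ball_subset_ball' (by
      rw [dist_comm y x]; linarith)
    have : r - dist x y ∈ gr Om Q y :=
      ⟨by linarith, by linarith [hr.2.1, dist_nonneg (x := x) (y := y)], hsub.trans hr.2.2.1,
        hmono _ _ hsub hr.2.2.2⟩
    linarith [le_rg this]

theorem rg_good (hmono : ∀ A B, A ⊆ B → Q B → Q A) {x : Fin n → ℝ} {r : ℝ} (hr0 : 0 ≤ r)
    (hr : r < rg Om Q x) {A : Set (Fin n → ℝ)} (hA : A ⊆ closedBall x r) : A ⊆ Om ∧ Q A := by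
  have hne : (gr Om Q x).Nonempty := by
    by_contra hcon
    rw [not_nonempty_iff_eq_empty] at hcon
    unfold rg at hr
    rw [hcon, Real.sSup_empty] at hr
    linarith
  obtain ⟨r', hr', hlt⟩ := exists_lt_of_lt_csSup hne hr
  have hsub : A ⊆ ball x r' := hA.trans (closedBall_subset_ball hlt)
  exact ⟨hsub.trans hr'.2.2.1, hmono _ _ hsub hr'.2.2.2⟩

/-- the size function of a hereditary property -/
def rgD (Om : Set (Fin n → ℝ)) (Q : Set (Fin n → ℝ) → Prop) (hmono : ∀ A B, A ⊆ B → Q B → Q A) (C : ℝ)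
    (hC : 1 < C) (a : Fin n → ℝ) : Dat n where
  ρ := rg Om Q
  C := C
  a := a
  lip := rg_lip hmono
  nonneg := rg_nonneg
  le_one := rg_le_one
  hC := hC

theorem rgD_Om (hOm : IsOpen Om) (hmono : ∀ A B, A ⊆ B → Q B → Q A) {C : ℝ} (hC : 1 < C)
    (a : Fin n → ℝ) (hloc : ∀ x ∈ Om, ∃ r > 0, Q (ball x r)) : (rgD Om Q hmono C hC a).Om = Om := by
  ext x
  constructor
  · intro hx
    have hx' : 0 < rg Om Q x := hx
    exact (rg_good hmono le_rfl hx' (A := {x}) (by simp)).1 rfl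
  · intro hx
    obtain ⟨r, hr, hQ⟩ := hloc x hx
    obtain ⟨s, hs, hsub⟩ := Metric.isOpen_iff.1 hOm x hx
    have hm : 0 < min 1 (min r s) := lt_min one_pos (lt_min hr hs)
    have : min 1 (min r s) ∈ gr Om Q x :=
      ⟨hm, min_le_left _ _,
        (ball_subset_ball ((min_le_right _ _).trans (min_le_right _ _))).trans hsub,
        hmono _ _ (ball_subset_ball ((min_le_right _ _).trans (min_le_left _ _))) hQ⟩
    exact hm.trans_le (le_rg this)

end good

/-! ### exact scales -/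

/-- **the scale of the mesh is exactly `k` on `S`** (form stable under refinement elsewhere) -/
def ExactOn (D : Dat n) (S : Set (Fin n → ℝ)) (k : ℕ) : Prop :=
  ∀ x ∈ S, D.ρ x ≤ D.C / 2 ^ k ∧ ∀ y, dist x y ≤ (2 ^ k)⁻¹ → D.C / 2 ^ k ≤ D.ρ y

theorem ExactOn.K_eq {D : Dat n} {S : Set (Fin n → ℝ)} {k : ℕ} (h : ExactOn D S k) {x : Fin n → ℝ}
    (hx : x ∈ S) : K D x = k := by
  have hp : (0 : ℝ) < 2 ^ k := by positivity
  have hC := D.C_pos
  refine K_eq_of (fun y hy => ?_) ?_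
  · have := (h x hx).2 y hy
    rw [div_le_iff₀' hp] at this
    exact this
  · have := (h x hx).1
    rw [le_div_iff₀' hp] at this
    linarith

/-- every tile which meets `S` has the scale `k` -/
theorem ExactOn.tile {D : Dat n} {S : Set (Fin n → ℝ)} {k : ℕ} (h : ExactOn D S k) {τ : Cel D}
    (hτ : (τ.c ∩ S).Nonempty) : τ.1.k = k := by
  obtain ⟨y, hy, hyS⟩ := hτ
  have hp : (0 : ℝ) < 2 ^ k := by positivity
  have hC := D.C_pos
  have h1 : τ.1.k ≤ k := by
    rw [← h.K_eq hyS]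
    exact τ.2.le_K hy
  refine le_antisymm h1 ?_
  have h2 : D.C ≤ 2 ^ τ.1.k * D.ρ y := τ.2.lower hy
  have h3 := (h y hyS).1
  have h4 : D.C ≤ 2 ^ τ.1.k * (D.C / 2 ^ k) :=
    h2.trans (mul_le_mul_of_nonneg_left h3 (by positivity))
  by_contra hcon
  push Not at hcon
  have h5 : (2 : ℝ) ^ τ.1.k < 2 ^ k := pow_lt_pow_right₀ (by norm_num) hcon
  have h6 : (2 : ℝ) ^ τ.1.k * (D.C / 2 ^ k) < 2 ^ k * (D.C / 2 ^ k) :=
    mul_lt_mul_of_pos_right h5 (by positivity)
  have h7 : (2 : ℝ) ^ k * (D.C / 2 ^ k) = D.C := by field_simp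
  linarith

/-- a closed cell of the mesh is small compared with the size function: it satisfies every hereditary
property of `rgD` -/
theorem cell_good {Om : Set (Fin n → ℝ)} {Q : Set (Fin n → ℝ) → Prop}
    (hmono : ∀ A B, A ⊆ B → Q B → Q A) {D : Dat n} (hρ : ∀ x, D.ρ x ≤ rg Om Q x) {σ : Cel D} :
    Q σ.c := by
  obtain ⟨y, hy⟩ := σ.o_nonempty
  have hyc := σ.o_subset_c hy
  have h1 : D.C ≤ 2 ^ σ.1.k * D.ρ y := σ.2.lower hyc
  have hp : (0 : ℝ) < 2 ^ σ.1.k := by positivity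
  have hC := D.hC
  have h2 : (2 ^ σ.1.k : ℝ)⁻¹ < rg Om Q y := by
    refine lt_of_lt_of_le ?_ (hρ y)
    rw [inv_lt_iff_one_lt_mul₀' hp]
    linarith
  refine (rg_good hmono (by positivity) h2 ?_).2
  intro z hz
  rw [mem_closedBall]
  have e : σ.c ⊆ Cu D.a σ.1.k σ.1.z := by
    intro w hw i
    have := hw i
    refine ⟨fun _ => ?_, fun hh => absurd (Finset.mem_univ i) hh⟩
    by_cases hi : i ∈ σ.1.J
    · exact this.1 hi
    · have h3 := this.2 hi
      exact ⟨h3.ge, h3.le.trans (by linarith)⟩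
  rw [← one_div, le_div_iff₀' hp]
  exact dist_le_of_mem_Cu (e hz) (e hyc)

section walls

variable {J : Type*} {D0 : Dat n} {W : J → Set (Fin n → ℝ)}

theorem fin_meet {Om : Set (Fin n → ℝ)}
    (hlf : ∀ x ∈ Om, ∃ r > 0, {j | (W j ∩ ball x r).Nonempty}.Finite)
    {S : Set (Fin n → ℝ)} (hS : IsCompact S) (hSO : S ⊆ Om) : {j | (W j ∩ S).Nonempty}.Finite := by
  have h1 : ∀ x ∈ S, ∃ r > 0, {j | (W j ∩ ball x r).Nonempty}.Finite := fun x hx => hlf x (hSO hx)
  choose! r hr hfin using h1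
  obtain ⟨t, ht, hcov⟩ := hS.elim_nhds_subcover (fun x => ball x (r x))
    fun x hx => ball_mem_nhds x (hr x hx)
  refine (t.finite_toSet.biUnion (t := fun x => {j | (W j ∩ ball x (r x)).Nonempty})
    fun x hx => hfin x (ht x hx)).subset ?_
  rintro j ⟨y, hy, hyS⟩
  obtain ⟨x, hx, hyx⟩ := mem_iUnion₂.1 (hcov hyS)
  exact mem_biUnion hx ⟨y, hy, hyx⟩

theorem isOpen_compl_walls {Om : Set (Fin n → ℝ)} (hOm : IsOpen Om) (hc : ∀ j, IsClosed (W j))
    (hlf : ∀ x ∈ Om, ∃ r > 0, {j | (W j ∩ ball x r).Nonempty}.Finite) (p : J → Prop) :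
    IsOpen {x ∈ Om | ∀ l, p l → x ∉ W l} := by
  rw [isOpen_iff_mem_nhds]
  rintro x ⟨hx, hxW⟩
  obtain ⟨r, hr, hfin⟩ := hlf x hx
  have h1 : ∀ᶠ y in 𝓝 x, ∀ l ∈ {j | (W j ∩ ball x r).Nonempty}, p l → y ∉ W l := by
    rw [eventually_all_finite hfin]
    intro l _
    by_cases hl : p l
    · filter_upwards [(hc l).isOpen_compl.mem_nhds (hxW l hl)] with y hy _ using hy
    · exact Eventually.of_forall fun _ h => absurd h hl
  filter_upwards [h1, hOm.mem_nhds hx, ball_mem_nhds x hr] with y h2 h3 h4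
  exact ⟨h3, fun l hl hyl => h2 l ⟨y, hyl, h4⟩ hl hyl⟩

/-- room around a compact set which misses the walls `l`, `p l` -/
theorem room (hc : ∀ j, IsClosed (W j)) (hne : ∀ j, (W j).Nonempty)
    (hlf : ∀ x ∈ D0.Om, ∃ r > 0, {j | (W j ∩ ball x r).Nonempty}.Finite) {S : Set (Fin n → ℝ)}
    (hS : IsCompact S) (hSO : S ⊆ D0.Om) (p : J → Prop) (hp : ∀ l, p l → Disjoint S (W l)) :
    ∃ η > 0, ∀ x ∈ S, ∀ y, dist x y ≤ η → η ≤ D0.ρ y ∧ ∀ l, p l → η ≤ infDist y (W l) := by
  have hOm : IsOpen D0.Om := isOpen_lt continuous_const D0.continuous_ρ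
  obtain ⟨δ, hδ, hsub⟩ := hS.exists_cthickening_subset_open (isOpen_compl_walls hOm hc hlf p)
    fun x hx => ⟨hSO hx, fun l hl hxl => disjoint_left.1 (hp l hl) hx hxl⟩
  have hKc : IsCompact (cthickening δ S) := hS.cthickening
  have hm : ∃ m > 0, ∀ y ∈ cthickening δ S, m ≤ D0.ρ y := by
    rcases (cthickening δ S).eq_empty_or_nonempty with he | hn
    · exact ⟨1, one_pos, fun y hy => by rw [he] at hy; exact absurd hy (notMem_empty y)⟩
    · obtain ⟨y0, hy0, hmin⟩ := hKc.exists_isMinOn hn D0.continuous_ρ.continuousOn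
      exact ⟨D0.ρ y0, (hsub hy0).1, fun y hy => hmin hy⟩
  obtain ⟨m, hm0, hm⟩ := hm
  refine ⟨min m (δ / 2), lt_min hm0 (by linarith), fun x hx y hxy => ?_⟩
  have h1 : min m (δ / 2) ≤ δ / 2 := min_le_right _ _
  have hmem : ∀ z, dist x z ≤ δ → z ∈ cthickening δ S := fun z hz =>
    mem_cthickening_of_dist_le z x δ S hx (by rw [dist_comm]; exact hz)
  refine ⟨(min_le_left _ _).trans (hm y (hmem y (by linarith))), fun l hl => ?_⟩
  rw [le_infDist (hne l)]
  intro z hz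
  by_contra hcon
  push Not at hcon
  have h2 : dist x z ≤ δ := by
    have := dist_triangle x y z
    linarith
  exact (hsub (hmem z h2)).2 l hl hz

/-- the size function cut off at `C 2^-kb` -/
def cutD (D0 : Dat n) (kb : ℕ) : Dat n where
  ρ x := min (D0.C / 2 ^ kb) (D0.ρ x)
  C := D0.C
  a := D0.a
  lip x y := by
    have h1 := D0.lip x y
    rcases le_total (D0.C / 2 ^ kb) (D0.ρ y) with h2 | h2
    · rw [min_eq_left h2]
      exact (min_le_left _ _).trans (by linarith [dist_nonneg (x := x) (y := y)])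
    · rw [min_eq_right h2]
      exact (min_le_right _ _).trans h1
  nonneg x := le_min (div_nonneg D0.C_pos.le (by positivity)) (D0.nonneg x)
  le_one x := (min_le_right _ _).trans (D0.le_one x)
  hC := D0.hC

theorem cutD_ρ {kb : ℕ} (x : Fin n → ℝ) : (cutD D0 kb).ρ x = min (D0.C / 2 ^ kb) (D0.ρ x) := rfl

theorem cutD_Om {kb : ℕ} : (cutD D0 kb).Om = D0.Om := by
  ext x
  show 0 < min (D0.C / 2 ^ kb) (D0.ρ x) ↔ 0 < D0.ρ x
  have := D0.C_pos
  rw [lt_min_iff]
  exact ⟨fun h => h.2, fun h => ⟨by positivity, h⟩⟩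

theorem exists_pow_le {C η : ℝ} (hη : 0 < η) : ∃ k0 : ℕ, ∀ k, k0 ≤ k → C / 2 ^ k ≤ η := by
  obtain ⟨k0, hk0⟩ := pow_unbounded_of_one_lt (C / η) (by norm_num : (1 : ℝ) < 2)
  refine ⟨k0, fun k hk => ?_⟩
  have h1 : (2 : ℝ) ^ k0 ≤ 2 ^ k := pow_le_pow_right₀ (by norm_num) hk
  rw [div_le_iff₀ (by positivity)]
  rw [div_lt_iff₀ hη] at hk0
  nlinarith

/-- **exact scales**: `kb` on the bulk `Kb`, `k j ≥ k0 j` on the zone `W j`, with `k j = kb` for the
zones which meet the bulk -/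
theorem exists_exact (D0 : Dat n) (hc : ∀ j, IsCompact (W j)) (hne : ∀ j, (W j).Nonempty)
    (hsub : ∀ j, W j ⊆ D0.Om) (hdis : ∀ j l, j ≠ l → Disjoint (W j) (W l))
    (hlf : ∀ x ∈ D0.Om, ∃ r > 0, {j | (W j ∩ ball x r).Nonempty}.Finite) (k0 : J → ℕ)
    {Kb : Set (Fin n → ℝ)} (hKb : IsCompact Kb) (hKbO : Kb ⊆ D0.Om) :
    ∃ kb0 : ℕ, ∀ kb, kb0 ≤ kb → ∃ k : J → ℕ, (∀ j, k0 j ≤ k j) ∧ (∀ j, kb ≤ k j) ∧
      (∀ j, (W j ∩ Kb).Nonempty → k j = kb) ∧ ∃ ρ : (Fin n → ℝ) → ℝ, ∀ a : Fin n → ℝ,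
      ∃ D : Dat n, D.ρ = ρ ∧ D.C = D0.C ∧ D.a = a ∧ D.Om = D0.Om ∧ (∀ x, D.ρ x ≤ D0.ρ x) ∧
        (∀ x, D.ρ x ≤ D.C / 2 ^ kb) ∧ (∀ j, ExactOn D (W j) (k j)) ∧ ExactOn D Kb kb := by
  have hC := D0.C_pos
  have hC1 := D0.hC
  -- the zones which meet the bulk
  set J1 : Set J := {j | (W j ∩ Kb).Nonempty} with hJ1
  have hJ1f : J1.Finite := fin_meet hlf hKb hKbO
  -- thresholds of the zones
  have hη : ∀ j, ∃ η > 0, ∀ x ∈ W j, ∀ y, dist x y ≤ η →
      η ≤ D0.ρ y ∧ ∀ l, l ≠ j → η ≤ infDist y (W l) := fun j =>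
    room (fun j => (hc j).isClosed) hne hlf (hc j) (hsub j) (fun l => l ≠ j)
      fun l hl => hdis j l (Ne.symm hl)
  choose η hη0 hη using hη
  have hk1 : ∀ j, ∃ k1 : ℕ, ∀ k, k1 ≤ k → D0.C / 2 ^ k ≤ η j := fun j => exists_pow_le (hη0 j)
  choose k1 hk1 using hk1
  -- threshold of the bulk
  obtain ⟨ηb, hηb0, hηb⟩ := room (fun j => (hc j).isClosed) hne hlf hKb hKbO (fun l => l ∉ J1)
    (fun l hl => by
      rw [disjoint_left]
      intro x hx hxl
      exact hl ⟨x, hxl, hx⟩)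
  obtain ⟨kb1, hkb1⟩ := exists_pow_le hηb0
  refine ⟨max kb1 (hJ1f.toFinset.sup fun j => max (k0 j) (k1 j)), fun kb hkb => ?_⟩
  classical
  have hkbJ : ∀ j ∈ J1, k0 j ≤ kb ∧ k1 j ≤ kb := by
    intro j hj
    have h1 : max (k0 j) (k1 j) ≤ hJ1f.toFinset.sup fun j => max (k0 j) (k1 j) :=
      Finset.le_sup (f := fun j => max (k0 j) (k1 j)) (hJ1f.mem_toFinset.2 hj)
    have h2 := (h1.trans (le_max_right _ _)).trans hkb
    exact ⟨(le_max_left _ _).trans h2, (le_max_right _ _).trans h2⟩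
  have hkbb : D0.C / 2 ^ kb ≤ ηb := hkb1 kb ((le_max_left _ _).trans hkb)
  let k : J → ℕ := fun j => if j ∈ J1 then kb else max kb (max (k0 j) (k1 j))
  have hk0 : ∀ j, k0 j ≤ k j := by
    intro j
    by_cases hj : j ∈ J1
    · simp only [k, if_pos hj]; exact (hkbJ j hj).1
    · simp only [k, if_neg hj]; exact (le_max_left _ _).trans (le_max_right _ _)
  have hk1' : ∀ j, k1 j ≤ k j := by
    intro j
    by_cases hj : j ∈ J1
    · simp only [k, if_pos hj]; exact (hkbJ j hj).2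
    · simp only [k, if_neg hj]; exact (le_max_right _ _).trans (le_max_right _ _)
  have hkb' : ∀ j, kb ≤ k j := by
    intro j
    by_cases hj : j ∈ J1
    · simp only [k, if_pos hj]; exact le_rfl
    · simp only [k, if_neg hj]; exact le_max_left _ _
  have hinv : ∀ m : ℕ, (2 ^ m : ℝ)⁻¹ ≤ D0.C / 2 ^ m := by
    intro m
    rw [← one_div]
    gcongr
  refine ⟨k, hk0, hkb', fun j hj => by simp only [k]; exact if_pos hj,
    (outD (cutD D0 kb) k W 0).ρ, fun a => ⟨outD (cutD D0 kb) k W a, rfl, rfl, rfl, ?_, ?_, ?_, ?_, ?_⟩⟩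
  · rw [outD_Om hne (by rw [cutD_Om]; exact hlf), cutD_Om]
  · intro x
    exact (outD_le_ρ0 x).trans (min_le_right _ _)
  · intro x
    exact (outD_le_ρ0 x).trans (min_le_left _ _)
  · intro j x hx
    constructor
    · have h1 := outD_le (D0 := cutD D0 kb) (k := k) (W := W) (a := a) x (some j)
      have h2 : outF (cutD D0 kb).ρ (cutD D0 kb).C k W x (some j) =
          D0.C / 2 ^ k j + infDist x (W j) := rfl
      rw [h2, infDist_zero_of_mem hx, add_zero] at h1
      exact h1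
    · intro y hy
      have hCη : D0.C / 2 ^ k j ≤ η j := hk1 j _ (hk1' j)
      have h3 := hη j x hx y ((hy.trans (hinv _)).trans hCη)
      refine le_outD ?_ fun l => ?_
      · rw [cutD_ρ]
        refine le_min ?_ (hCη.trans h3.1)
        exact div_le_div_of_nonneg_left hC.le (by positivity)
          (pow_le_pow_right₀ (by norm_num) (hkb' j))
      · by_cases hl : l = j
        · rw [hl]
          have := infDist_nonneg (s := W j) (x := y)
          show D0.C / 2 ^ k j ≤ D0.C / 2 ^ k j + infDist y (W j)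
          linarith
        · have h4 := h3.2 l hl
          have h5 : 0 < D0.C / 2 ^ k l := by positivity
          show D0.C / 2 ^ k j ≤ D0.C / 2 ^ k l + infDist y (W l)
          linarith
  · intro x hx
    constructor
    · exact (outD_le_ρ0 x).trans (min_le_left _ _)
    · intro y hy
      have h3 := hηb x hx y ((hy.trans (hinv _)).trans hkbb)
      refine le_outD ?_ fun l => ?_
      · rw [cutD_ρ]
        exact le_min le_rfl (hkbb.trans h3.1)
      · by_cases hl : l ∈ J1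
        · have h6 : k l = kb := by simp only [k]; exact if_pos hl
          have := infDist_nonneg (s := W l) (x := y)
          show D0.C / 2 ^ kb ≤ D0.C / 2 ^ k l + infDist y (W l)
          rw [h6]
          linarith
        · have h4 := h3.2 l hl
          have h5 : 0 < D0.C / 2 ^ k l := by positivity
          show D0.C / 2 ^ kb ≤ D0.C / 2 ^ k l + infDist y (W l)
          linarith

end walls

end

end Crest.Agent.R096.Tme_234
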