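import Crest.Agent.R096.Tme1_234
import Crest.Agent.R096.Tme2_234
import Crest.Agent.R096.Fns2_360

/-!
Row 96 (S0127), helper234.  TMESH-RHO (T3-ρ): the base mesh of the meshes with tiny cores.

`exists_base`: for a foam whose holes have their preimages in small disjoint balls
`closedBall (x c) (2 * R c)` there are scales `kb` (bulk), `k c` (zones) such that for every shift `a`
there is a Whitney tiling of `Om` which is the lattice of scale `k c` in `closedBall (x c) (2 * R c)`, the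
lattice of scale `kb` on the bulk, and fine off the balls `closedBall (x c) (R c / 2)`.
-/

set_option autoImplicit false
set_option linter.style.longLine false
set_option linter.unusedSectionVars false

open MeasureTheory Set Filter Topology Metric
open scoped ENNReal

namespace Crest.Agent.R096.Tme_234

open Crest.Agent.R096.Bsp_628 Crest.Agent.R096.Brk1_582
open Crest.Agent.R096.Msh_715
open Crest.Agent.R096.Msh_810 (Cu Hc hc ps mem_Cu P_Hc Dat Top Cel tiling cf)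
open Crest.Agent.R096.SkC1_961 (E3 Hom3 FoamD Cfg)
open Crest.Agent.R096.Mbf_337 Crest.Agent.R096.Tms_582 Crest.Agent.R096.Fns_360

noncomputable section

/-! ### lattices and translates -/

section lat

variable {n : ℕ}

/-- the lattice point below `a`, in units of `2^-k` -/
def flr (a : Fin n → ℝ) (k : ℕ) (i : Fin n) : ℤ := ⌊(2 : ℝ) ^ k * a i⌋

/-- the representative of `a` modulo `2^-k` in the cube `[0, 2^-k)^n` -/
def wmod (a : Fin n → ℝ) (k : ℕ) (i : Fin n) : ℝ := a i - (flr a k i : ℝ) / 2 ^ k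

theorem wmod_nonneg (a : Fin n → ℝ) (k : ℕ) (i : Fin n) : 0 ≤ wmod a k i := by
  have hp : (0 : ℝ) < 2 ^ k := by positivity
  unfold wmod flr
  rw [sub_nonneg, div_le_iff₀' hp]
  exact Int.floor_le _

theorem wmod_lt (a : Fin n → ℝ) (k : ℕ) (i : Fin n) : wmod a k i < (2 : ℝ)⁻¹ ^ k := by
  have hp : (0 : ℝ) < 2 ^ k := by positivity
  unfold wmod flr
  rw [sub_lt_iff_lt_add, inv_pow, ← one_div, ← add_div, lt_div_iff₀' hp]
  have := Int.lt_floor_add_one ((2 : ℝ) ^ k * a i)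
  linarith

/-- **the lattice with the shift `a` is the lattice with the shift `wmod a k`** -/
theorem Hc_mod {E : Type*} [NormedAddCommGroup E] [NormedSpace ℝ E] (φ : E ≃L[ℝ] (Fin n → ℝ))
    (a : Fin n → ℝ) (k : ℕ) (z : Fin n → ℤ) :
    Hc φ a k z = Hc φ (wmod a k) k (fun i => z i + flr a k i) := by
  have e : hc φ a k z = hc φ (wmod a k) k (fun i => z i + flr a k i) := by
    funext p
    unfold hc
    have hp : (2 : ℝ) ^ k ≠ 0 := by positivity
    have h1 : a p.1 + ((z p.1 : ℝ) + 1) / 2 ^ k =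
        wmod a k p.1 + ((((z p.1 + flr a k p.1 : ℤ)) : ℝ) + 1) / 2 ^ k := by
      unfold wmod
      push_cast
      field_simp
      ring
    have h2 : a p.1 + (z p.1 : ℝ) / 2 ^ k =
        wmod a k p.1 + (((z p.1 + flr a k p.1 : ℤ)) : ℝ) / 2 ^ k := by
      unfold wmod
      push_cast
      field_simp
      ring
    rw [h1, h2]
  unfold Hc
  rw [e]

end lat

/-! ### the Whitney tiling as a tiling of `Om` -/

/-- 810's tiling in the standard frame, as a tiling of `Om` -/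
def baseT {Om : Set E3} (D : Dat 3) (h : D.Om = Om) : Tiling Om (Top D) where
  H := (tiling idE D).H
  cpt := (tiling idE D).cpt
  ne := (tiling idE D).ne
  sub i := by
    have h2 : idE ⁻¹' D.Om = Om := h
    exact ((tiling idE D).sub i).trans h2.subset
  cov x hx := (tiling idE D).cov x (by
    have h2 : idE ⁻¹' D.Om = Om := h
    rw [h2]; exact hx)
  dis := (tiling idE D).dis
  lf x hx := (tiling idE D).lf x (by
    have h2 : idE ⁻¹' D.Om = Om := h
    rw [h2]; exact hx)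
  op := by
    have h1 := (tiling idE D).op
    have h2 : idE ⁻¹' D.Om = Om := h
    rw [h2] at h1
    exact h1

theorem baseT_H {Om : Set E3} (D : Dat 3) (h : D.Om = Om) (τ : Top D) :
    (baseT D h).H τ = Hc idE D.a τ.1.1.k τ.1.1.z := rfl

theorem P_baseT {Om : Set E3} (D : Dat 3) (h : D.Om = Om) (τ : Top D) :
    P ((baseT D h).H τ) = τ.1.c := by
  rw [baseT_H, P_Hc, ← Msh_810.Top.c_eq]
  rfl

/-- the tiles which meet a set of exact scale `k` are the cubes of the lattice of scale `k` -/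
theorem ExactOn.baseT {Om : Set E3} {D : Dat 3} (h : D.Om = Om) {S : Set E3} {k : ℕ}
    (hS : ExactOn D S k) {τ : Top D} (hτ : (P ((baseT D h).H τ) ∩ S).Nonempty) :
    ∃ z, (Tme_234.baseT D h).H τ = Hc idE D.a k z := by
  rw [P_baseT] at hτ
  have h1 := hS.tile hτ
  exact ⟨τ.1.1.z, by rw [baseT_H, h1]⟩

variable {δ κ0 R0 c0 : ℝ} {La Om : Set E3}

/-- **T3-ρ** -/
theorem exists_base (Φ : FoamD δ κ0 R0 c0 La) (hOm : IsOpen Om) (hLa : IsOpen La) (hδ : 0 < δ)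
    (hR0 : 0 < R0) {f : E3 → E3} (hf : Hom3 f Om La) {κ1 : ℝ} (hκ1 : 0 < κ1) (x : Φ.F → E3)
    (R : Φ.F → ℝ) (hR : ∀ c, 0 < R c) (hsub : ∀ c, closedBall (x c) (2 * R c) ⊆ Om)
    (hdis : ∀ c c', c ≠ c' → Disjoint (closedBall (x c) (2 * R c)) (closedBall (x c') (2 * R c')))
    (hlf : ∀ y ∈ Om, ∃ r > 0, {c | (closedBall (x c) (2 * R c) ∩ ball y r).Nonempty}.Finite)
    (hhole : ∀ p ∈ Om, ∀ c, f p ∈ (Φ.B c).S → p ∈ ball (x c) (R c / 2)) (k0 : Φ.F → ℕ) {C : ℝ}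
    (hC : 1 < C) (ρ0 : E3 → ℝ) (hρ0 : ∀ y z, ρ0 y ≤ ρ0 z + dist y z) (hρ0n : ∀ y, 0 ≤ ρ0 y)
    (hρ0p : ∀ y ∈ Om, 0 < ρ0 y) {Kb : Set E3} (hKb : IsCompact Kb) (hKbO : Kb ⊆ Om) :
    ∃ kb0 : ℕ, ∀ kb, kb0 ≤ kb → ∃ k : Φ.F → ℕ, (∀ c, k0 c ≤ k c) ∧ (∀ c, kb ≤ k c) ∧
      (∀ c, (2 : ℝ)⁻¹ ^ k c ≤ R c / 16) ∧
      (∀ c, (closedBall (x c) (2 * R c) ∩ Kb).Nonempty → k c = kb) ∧ ∃ ρ : E3 → ℝ,
      (∀ y, ρ y ≤ ρ0 y) ∧ (∀ y, ρ y ≤ C / 2 ^ kb) ∧ ∀ a : E3,
      ∃ (D : Dat 3) (h : D.Om = Om), D.ρ = ρ ∧ D.C = C ∧ D.a = a ∧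
        (∀ c, ExactOn D (closedBall (x c) (2 * R c)) (k c)) ∧ ExactOn D Kb kb ∧
        (∀ c τ, (P ((baseT D h).H τ) ∩ closedBall (x c) (2 * R c)).Nonempty →
          ∃ z, (baseT D h).H τ = Hc idE (wmod a (k c)) (k c) z) ∧
        (∀ τ, (P ((baseT D h).H τ) ∩ Kb).Nonempty → ∃ z, (baseT D h).H τ = Hc idE a kb z) ∧
        ∀ τ, (∀ c, Disjoint (P ((baseT D h).H τ)) (closedBall (x c) (R c / 2))) →
          FineAt Φ (baseT D h) f κ1 τ := by
  obtain ⟨fi, hfm, hfim, hl, hri, hfc, hfic⟩ := id hf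
  -- the points off the open half balls
  have hlf2 : ∀ y ∈ Om, ∃ r > 0, {c | (closedBall (x c) (R c / 2) ∩ ball y r).Nonempty}.Finite := by
    intro y hy
    obtain ⟨r, hr, hfin⟩ := hlf y hy
    refine ⟨r, hr, hfin.subset ?_⟩
    rintro c ⟨z, hz, hz'⟩
    exact ⟨z, closedBall_subset_closedBall (by linarith [hR c]) hz, hz'⟩
  set X : Set E3 := {y | ∀ c, y ∉ ball (x c) (R c / 2)} with hX
  have hXcl : ∀ y ∈ Om, y ∉ X → ∀ᶠ z in 𝓝 y, z ∉ X := by
    intro y _ hy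
    have h1 : ∃ c, y ∈ ball (x c) (R c / 2) := by
      by_contra hcon
      push Not at hcon
      exact hy hcon
    obtain ⟨c, hc⟩ := h1
    filter_upwards [isOpen_ball.mem_nhds hc] with z hz hzX
    exact hzX c hz
  have hXh : ∀ y ∈ Om, y ∈ X → ∀ c : Φ.F, f y ∉ (Φ.B c).S := fun y hy hyX c hc =>
    hyX c (hhole y hy c hc)
  obtain ⟨ρ1, h1, h2, h3, h4, h5⟩ := exists_fine_rho Φ hOm hLa hδ hR0 hfm hfc hXcl hXh hκ1
  -- the abstract size function
  let D0 : Dat 3 :=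
    { ρ := fun y => min (ρ0 y) (ρ1 y)
      C := C
      a := 0
      lip := fun y z => by
        have e1 := hρ0 y z
        have e2 := h1 y z
        rcases le_total (ρ0 z) (ρ1 z) with h | h
        · rw [min_eq_left h]; exact (min_le_left _ _).trans e1
        · rw [min_eq_right h]; exact (min_le_right _ _).trans e2
      nonneg := fun y => le_min (hρ0n y) (h2 y)
      le_one := fun y => (min_le_right _ _).trans (h3 y)
      hC := hC }
  have hD0 : D0.Om = Om := by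
    ext y
    show 0 < min (ρ0 y) (ρ1 y) ↔ y ∈ Om
    rw [lt_min_iff]
    exact ⟨fun h => (h4 y).1 h.2, fun h => ⟨hρ0p y h, (h4 y).2 h⟩⟩
  have hk1 : ∀ c, ∃ k1 : ℕ, ∀ k, k1 ≤ k → (1 : ℝ) / 2 ^ k ≤ R c / 16 := fun c =>
    exists_pow_le (by have := hR c; positivity)
  choose k1 hk1 using hk1
  obtain ⟨kb0, hkb0⟩ := exists_exact (J := Φ.F) D0 (W := fun c => closedBall (x c) (2 * R c))
    (fun c => isCompact_closedBall _ _)
    (fun c => ⟨x c, mem_closedBall_self (by have := hR c; positivity)⟩)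
    (fun c => by rw [hD0]; exact hsub c) hdis (by rw [hD0]; exact hlf)
    (fun c => max (k0 c) (k1 c)) hKb (by rw [hD0]; exact hKbO)
  refine ⟨kb0, fun kb hkb => ?_⟩
  obtain ⟨k, hk0, hkk, hkJ, ρ, hρ⟩ := hkb0 kb hkb
  have hρle : (∀ y, ρ y ≤ ρ0 y) ∧ (∀ y, ρ y ≤ ρ1 y) ∧ ∀ y, ρ y ≤ C / 2 ^ kb := by
    obtain ⟨D, d1, d2, d3, d4, d5, d6, d7, d8⟩ := hρ 0
    refine ⟨fun y => ?_, fun y => ?_, fun y => ?_⟩
    · rw [← d1]; exact (d5 y).trans (min_le_left _ _)
    · rw [← d1]; exact (d5 y).trans (min_le_right _ _)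
    · have := d6 y
      rw [d1, d2] at this
      exact this
  refine ⟨k, fun c => (le_max_left _ _).trans (hk0 c), hkk, fun c => ?_, hkJ, ρ, hρle.1, hρle.2.2,
    fun a => ?_⟩
  · have := hk1 c (k c) ((le_max_right _ _).trans (hk0 c))
    rw [inv_pow, ← one_div]
    exact this
  obtain ⟨D, d1, d2, d3, d4, d5, d6, d7, d8⟩ := hρ a
  have hDO : D.Om = Om := d4.trans hD0
  refine ⟨D, hDO, d1, d2, d3, d7, d8, ?_, ?_, ?_⟩
  · intro c τ hτ
    obtain ⟨z, hz⟩ := (d7 c).baseT hDO hτ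
    refine ⟨fun i => z i + flr a (k c) i, ?_⟩
    rw [hz, d3]
    exact Hc_mod idE a (k c) z
  · intro τ hτ
    obtain ⟨z, hz⟩ := d8.baseT hDO hτ
    exact ⟨z, by rw [hz, d3]⟩
  · intro τ hτ
    have hPO : P ((tiling idE D).H τ) ⊆ Om := (baseT D hDO).sub τ
    have hF := fineS_tile (φ := idE) (D := D) (ρ := ρ1) (Y := Om ∩ X) (Om := Om) (Φ := Φ) (f := f)
      (ε := κ1) (fun u => by rw [d1]; exact hρle.2.1 u)
      (fun y hy => (h5 y hy).2) τ hPO
    have hsubX : P ((tiling idE D).H τ) ⊆ Om ∩ X := by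
      intro y hy
      refine ⟨hPO hy, fun c hc => ?_⟩
      exact Set.disjoint_left.1 (hτ c) hy (ball_subset_closedBall hc)
    intro y hy z hz c'
    have hy' : y ∈ P ((tiling idE D).H τ) ∩ (Om ∩ X) := ⟨hy, hsubX hy⟩
    have hz' : z ∈ P ((tiling idE D).H τ) ∩ (Om ∩ X) := ⟨hz, hsubX hz⟩
    exact ⟨fun hc => hF.psi y hy' z hz' c' hc, hF.lev y hy' z hz' c'⟩

end

end Crest.Agent.R096.Tme_234
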