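import Crest.Agent.R096.Mal5_874
import Crest.Agent.R096.Gno2_324
import Crest.Agent.R096.Tme3_234
import Crest.Agent.R096.Ea1_713

/-!
Row 96 (S0127), helper234.  FRAMES of the ordinary tiles (NOPre, p < 3; 552 #10820): a tile which is a
dyadic cube of scale `k` all of whose neighbours are cubes (of the same dyadic lattice) of scale
`≤ k + 1` has, in the frame `2^k (y - corner)`, a configuration in the FINITE list `Sg`, which also
contains 324's `𝒬0`.
-/

set_option autoImplicit false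
set_option linter.style.longLine false
set_option linter.unusedSectionVars false

open Set Filter Topology Metric

namespace Crest.Agent.R096.Frm_234

open Crest.Agent.R096.Msh_715 Crest.Agent.R096.Mal_874
open Crest.Agent.R096.Msh_810 (Cu Hc hc ps mem_Cu P_Hc I_Hc forall_Hc Dat Top Cel tiling cf Do)
open Crest.Agent.R096.SkC1_961 (E3 Cfg)
open Crest.Agent.R096.No0_477 (fr fr_apply)
open Crest.Agent.R096.Gno_324 (𝒬0)
open Crest.Agent.R096.Tms_582 (idE)
open Crest.Agent.R096.Tme_234 (baseT baseT_H P_baseT)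
open Crest.Agent.R096.Ea_713 (lin lin_sub)

noncomputable section

/-- `2^-k` -/
def rk (k : ℕ) : ℝ := (2 ^ k)⁻¹

theorem rk_pos (k : ℕ) : 0 < rk k := by unfold rk; positivity

theorem rk_ne (k : ℕ) : rk k ≠ 0 := (rk_pos k).ne'

theorem rk_inv (k : ℕ) : (rk k)⁻¹ = 2 ^ k := inv_inv _

/-- the corner of the cube -/
def cor (a : E3) (k : ℕ) (z : Fin 3 → ℤ) : E3 := fun i => a i + z i / 2 ^ k

/-- the frame of the cube -/
def frm (a : E3) (k : ℕ) (z : Fin 3 → ℤ) : E3 ≃ᵃ[ℝ] E3 := fr (cor a k z) (rk k) (rk_ne k)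

theorem frm_apply (a : E3) (k : ℕ) (z : Fin 3 → ℤ) (y : E3) (i : Fin 3) :
    frm a k z y i = 2 ^ k * (y i - a i) - z i := by
  unfold frm
  rw [fr_apply, rk_inv, Pi.smul_apply, Pi.sub_apply, smul_eq_mul, cor]
  field_simp
  ring

/-- the linear part of a frame is `r⁻¹ id` -/
theorem lin_fr_apply (w : E3) (r : ℝ) (hr : r ≠ 0) (v : E3) : lin (fr w r hr) v = r⁻¹ • v := by
  have h := lin_sub (fr w r hr) 0 v
  rw [sub_zero, fr_apply, fr_apply] at h
  rw [← h, ← smul_sub]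
  congr 1
  abel

theorem norm_lin_frm (a : E3) (k : ℕ) (z : Fin 3 → ℤ) : ‖lin (frm a k z)‖ ≤ 2 ^ k := by
  refine ContinuousLinearMap.opNorm_le_bound _ (by positivity) fun v => ?_
  unfold frm
  rw [lin_fr_apply, rk_inv, norm_smul, Real.norm_of_nonneg (by positivity)]

/-! ### the list -/

/-- the coordinate vectors and their negatives -/
def Ne : Finset (Fin 3 → ℝ) := by
  classical
  exact Finset.univ.image fun p : Fin 3 × Bool =>
    if p.2 then (Pi.single p.1 1 : Fin 3 → ℝ) else -Pi.single p.1 1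

theorem mem_Ne (m : Fin 3) : (Pi.single m 1 : Fin 3 → ℝ) ∈ Ne ∧ (-Pi.single m 1 : Fin 3 → ℝ) ∈ Ne := by
  classical
  unfold Ne
  exact ⟨Finset.mem_image.2 ⟨(m, true), Finset.mem_univ _, rfl⟩,
    Finset.mem_image.2 ⟨(m, false), Finset.mem_univ _, rfl⟩⟩

theorem Ne_rat : ∀ ν ∈ Ne, ∀ m, ∃ c : ℤ, ν m = c / ((2 : ℕ) : ℝ) := by
  classical
  intro ν hν m
  unfold Ne at hν
  obtain ⟨⟨l, b⟩, -, rfl⟩ := Finset.mem_image.1 hν
  cases b
  · by_cases h : m = l
    · subst h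
      refine ⟨-2, ?_⟩
      simp
    · refine ⟨0, ?_⟩
      simp [h]
  · by_cases h : m = l
    · subst h
      refine ⟨2, ?_⟩
      simp
    · refine ⟨0, ?_⟩
      simp [h]

/-- **the list of configurations of the ordinary tiles** -/
def Sg : Set (Set (Set E3)) := insert 𝒬0 (simL Ne 2 1)

theorem Sg_finite : Sg.Finite := (simL_finite Ne 2 1).insert _

theorem Q0_mem : 𝒬0 ∈ Sg := mem_insert _ _

/-- the coordinates of scale `k` -/
def chi (a : E3) (k : ℕ) : E3 ≃ᵃ[ℝ] E3 := frm a k 0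

theorem chi_apply (a : E3) (k : ℕ) (y : E3) (i : Fin 3) : chi a k y i = 2 ^ k * (y i - a i) := by
  unfold chi
  rw [frm_apply]
  simp

theorem dt_single (m : Fin 3) (u : Fin 3 → ℝ) : dt (Pi.single m 1) u = u m := by
  unfold dt
  rw [Finset.sum_eq_single m]
  · simp
  · intro l _ hl
    simp [hl]
  · intro h; exact absurd (Finset.mem_univ m) h

theorem dt_neg_single (m : Fin 3) (u : Fin 3 → ℝ) : dt (-Pi.single m 1) u = -u m := by
  have h := dt_neg (n := 3) (Pi.single m 1) u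
  rw [dt_single] at h
  exact h

/-- the inequalities of the cubes of scale `≤ k + 1` are in good form in the coordinates of scale `k` -/
theorem gf_cube' (a : E3) {k k' : ℕ} (hk : k' ≤ k + 1) (z : Fin 3 → ℤ) :
    ∀ h ∈ Hc idE a k' z, ∃ ν, ∃ t : ℤ, GF (chi a k) (2 ^ k) Ne 2 h ν t := by
  rw [forall_Hc]
  have hpow : (2 : ℝ) ^ k * 2 = 2 ^ (k + 1 - k') * 2 ^ k' := by
    rw [← pow_add, Nat.sub_add_cancel hk, pow_succ]
  have hk0 : (2 : ℝ) ^ k' ≠ 0 := by positivity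
  intro m
  constructor
  · refine ⟨Pi.single m 1, 2 ^ (k + 1 - k') * (z m + 1), (mem_Ne m).1, fun y => ?_⟩
    rw [dt_single, chi_apply]
    show (2 : ℝ) ^ k * (y m - (a m + (z m + 1) / 2 ^ k')) = _
    have e : (2 : ℝ) ^ k * ((z m + 1) / 2 ^ k') =
        ((2 ^ (k + 1 - k') * (z m + 1) : ℤ) : ℝ) / ((2 : ℕ) : ℝ) := by
      rw [eq_div_iff (by norm_num), mul_div_assoc', div_mul_eq_mul_div, div_eq_iff hk0]
      push_cast
      linear_combination ((z m : ℝ) + 1) * hpow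
    rw [← e]
    ring
  · refine ⟨-Pi.single m 1, -(2 ^ (k + 1 - k') * z m), (mem_Ne m).2, fun y => ?_⟩
    rw [dt_neg_single, chi_apply]
    show (2 : ℝ) ^ k * (-(y m) - -(a m + z m / 2 ^ k')) = _
    have e : (2 : ℝ) ^ k * ((z m : ℝ) / 2 ^ k') =
        ((2 ^ (k + 1 - k') * z m : ℤ) : ℝ) / ((2 : ℕ) : ℝ) := by
      rw [eq_div_iff (by norm_num), mul_div_assoc', div_mul_eq_mul_div, div_eq_iff hk0]
      push_cast
      linear_combination (z m : ℝ) * hpow
    have e2 : ((-(2 ^ (k + 1 - k') * z m) : ℤ) : ℝ) / ((2 : ℕ) : ℝ) =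
        -((2 : ℝ) ^ k * ((z m : ℝ) / 2 ^ k')) := by
      rw [e]; push_cast; ring
    rw [e2]
    ring

/-- 874's `sim_tile` with a prescribed base point -/
theorem sim_at {Om : Set E3} {ι : Type} {T : Tiling Om ι} {χ : E3 ≃ᵃ[ℝ] (Fin 3 → ℝ)} {s : ℝ}
    (hs : 0 < s) {𝒩 : Finset (Fin 3 → ℝ)} {d : ℕ} (hd : 0 < d)
    (h𝒩 : ∀ ν ∈ 𝒩, ∀ m, ∃ c : ℤ, ν m = c / d) {R : ℝ} {i : ι}
    (hgood : ∀ l, (P (T.H l) ∩ P (T.H i)).Nonempty → ∀ h ∈ T.H l, ∃ ν, ∃ t : ℤ, GF χ s 𝒩 d h ν t)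
    (hR : ∀ x ∈ P (T.H i), ∀ y ∈ P (T.H i), ∀ m, |χ y m - χ x m| ≤ R) {x0 : E3}
    (hx0 : x0 ∈ P (T.H i)) {B : E3 ≃ᵃ[ℝ] E3} (hB : ∀ y m, B y m = χ y m - ⌊χ x0 m⌋) :
    (fun K => B '' K) '' Cfg T i ∈ simL 𝒩 d R := by
  rintro _ ⟨_, ⟨x, hx, rfl⟩, rfl⟩
  obtain ⟨S, hS, e⟩ := cc_shape' (x := x) hs hd h𝒩 (R := R) (le_bnd (R := R))
    (fun l hl h hh => hgood l ⟨x, hl, hx⟩ h hh) (i₀ := i) hx (hR x hx)
  refine ⟨S, hS, fun m => ⌊χ x m⌋ - ⌊χ x0 m⌋, ?_, ?_⟩
  · intro m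
    have h1 := Int.floor_le (χ x m)
    have h2 := Int.lt_floor_add_one (χ x m)
    have h3 := Int.floor_le (χ x0 m)
    have h4 := Int.lt_floor_add_one (χ x0 m)
    have h5 := abs_le.1 (hR x0 hx0 x hx m)
    have h6 := le_abs_self R
    push_cast
    rw [abs_le]
    constructor <;> linarith
  · ext u
    simp only [Set.mem_image, Set.mem_ofPred_eq]
    constructor
    · rintro ⟨y, hy, rfl⟩
      rw [e] at hy
      have h1 : (fun m => B y m - ((⌊χ x m⌋ - ⌊χ x0 m⌋ : ℤ) : ℝ)) =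
          fun m => χ y m - (⌊χ x m⌋ : ℝ) := by
        funext m
        rw [hB]
        push_cast
        ring
      rw [h1]
      exact hy
    · intro hu
      refine ⟨B.symm u, ?_, by simp⟩
      rw [e]
      simp only [Set.mem_ofPred_eq]
      have h1 : (fun m => χ (B.symm u) m - (⌊χ x m⌋ : ℝ)) =
          fun m => u m - ((⌊χ x m⌋ - ⌊χ x0 m⌋ : ℤ) : ℝ) := by
        funext m
        have h2 := hB (B.symm u) m
        rw [AffineEquiv.apply_symm_apply] at h2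
        push_cast
        linarith
      rw [h1]
      exact hu

/-- **FRAMES**: a dyadic cube all of whose neighbours are dyadic cubes of scale `≤ k + 1` -/
theorem frame_tile {Om : Set E3} {ι : Type} {T : Tiling Om ι} {i : ι} {a : E3} {k : ℕ}
    {z : Fin 3 → ℤ} (hi : T.H i = Hc idE a k z)
    (hn : ∀ l, (P (T.H l) ∩ P (T.H i)).Nonempty → ∃ k' z', k' ≤ k + 1 ∧ T.H l = Hc idE a k' z') :
    (fun K => frm a k z '' K) '' Cfg T i ∈ Sg := by
  have hmem : ∀ y ∈ P (T.H i), ∀ m, (z m : ℝ) ≤ chi a k y m ∧ chi a k y m ≤ z m + 1 := by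
    intro y hy m
    rw [hi, P_Hc] at hy
    have h := (mem_Cu.1 hy) m
    rw [chi_apply]
    exact h
  obtain ⟨x0, hx0⟩ := T.ne i
  have hfl : ∀ m, ⌊chi a k x0 m⌋ = z m := by
    intro m
    have hx0' := hx0
    rw [hi, I_Hc] at hx0'
    have h := hx0' m
    have h1 := h.1 (Finset.mem_univ m)
    rw [Int.floor_eq_iff, chi_apply]
    exact ⟨h1.1.le, h1.2⟩
  refine mem_insert_of_mem _ ?_
  refine sim_at (T := T) (χ := chi a k) (s := 2 ^ k) (by positivity) (𝒩 := Ne) (d := 2) (by norm_num)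
    Ne_rat (R := 1) (i := i) (fun l hl => ?_) (fun x hx y hy m => ?_) (I_sub_P _ hx0) fun y m => ?_
  · obtain ⟨k', z', hk', e⟩ := hn l hl
    rw [e]
    exact gf_cube' a hk' z'
  · have h1 := hmem x hx m
    have h2 := hmem y hy m
    rw [abs_le]
    constructor <;> linarith
  · rw [hfl m, frm_apply, chi_apply]

/-- touching tiles of the Whitney tiling: scales differ by at most one -/
theorem base_nb {Om : Set E3} {D : Dat 3} (h : D.Om = Om) {τ τ' : Top D}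
    (hτ : (P ((baseT D h).H τ') ∩ P ((baseT D h).H τ)).Nonempty) :
    τ'.1.1.k ≤ τ.1.1.k + 1 := by
  rw [P_baseT, P_baseT] at hτ
  obtain ⟨y, hy', hy⟩ := hτ
  exact (τ'.1.2.le_K hy').trans (τ.1.2.K_le hy)

/-- **frames of the ordinary tiles of a tiling which is the Whitney tiling near them** -/
theorem frame_base {Om : Set E3} {ι : Type} {T : Tiling Om ι} {D : Dat 3} (h : D.Om = Om) {i : ι}
    {τ : Top D} (hi : T.H i = (baseT D h).H τ)
    (hn : ∀ l, (P (T.H l) ∩ P (T.H i)).Nonempty → ∃ τ' : Top D, T.H l = (baseT D h).H τ') :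
    (fun K => frm D.a τ.1.1.k τ.1.1.z '' K) '' Cfg T i ∈ Sg ∧
      ‖lin (frm D.a τ.1.1.k τ.1.1.z)‖ ≤ 2 ^ τ.1.1.k := by
  refine ⟨frame_tile (T := T) hi fun l hl => ?_, norm_lin_frm _ _ _⟩
  obtain ⟨τ', e⟩ := hn l hl
  refine ⟨τ'.1.1.k, τ'.1.1.z, ?_, e⟩
  rw [e, hi] at hl
  exact base_nb h hl

end

end Crest.Agent.R096.Frm_234
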