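import Crest.Agent.R096.Gp0_702

/-!
# R096 (row 96), P2-GEN (N6) (helper324): the frontier of a regular compact cellular set

`front : Gp_702.FrontStmt`.
-/

set_option autoImplicit false

open Set Metric Topology

namespace Crest.Agent.R096.Frt_324

open Gp_702

/-- closed lattice cube of side `1/32` -/
def cb (z : Fin 3 → ℤ) : Set E3 := {x | ∀ j, (z j : ℝ) ≤ 32 * x j ∧ 32 * x j ≤ z j + 1}

/-- open lattice cube of side `1/32` -/
def ob (z : Fin 3 → ℤ) : Set E3 := {x | ∀ j, (z j : ℝ) < 32 * x j ∧ 32 * x j < z j + 1}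

/-- centre -/
noncomputable def ct (z : Fin 3 → ℤ) : E3 := fun j => (z j + 1 / 2) / 32

lemma ct_mem (z : Fin 3 → ℤ) : ct z ∈ ob z := by
  intro j
  simp only [ct]
  constructor <;> linarith

lemma ob_sub (z : Fin 3 → ℤ) : ob z ⊆ cb z := fun _ hx j => ⟨(hx j).1.le, (hx j).2.le⟩

lemma same_symm {x x' : E3} (h : Same x x') : Same x' x :=
  fun j m => ⟨(h j m).1.symm, (h j m).2.symm⟩

lemma same_ob {z : Fin 3 → ℤ} {x x' : E3} (hx : x ∈ ob z) (hx' : x' ∈ ob z) : Same x x' := by
  intro j m
  have h1 := hx j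
  have h2 := hx' j
  constructor
  · constructor
    · intro h
      have h3 : (z j : ℝ) < m := h1.1.trans h
      have h4 : z j < m := by exact_mod_cast h3
      have h5 : z j + 1 ≤ m := h4
      have h6 : (z j : ℝ) + 1 ≤ m := by exact_mod_cast h5
      linarith
    · intro h
      have h3 : (z j : ℝ) < m := h2.1.trans h
      have h4 : z j < m := by exact_mod_cast h3
      have h5 : z j + 1 ≤ m := h4
      have h6 : (z j : ℝ) + 1 ≤ m := by exact_mod_cast h5
      linarith
  · constructor
    · intro h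
      have h3 : (m : ℝ) < z j + 1 := h.trans h1.2
      have h4 : m < z j + 1 := by exact_mod_cast h3
      have h5 : m ≤ z j := by omega
      have h6 : (m : ℝ) ≤ z j := by exact_mod_cast h5
      linarith
    · intro h
      have h3 : (m : ℝ) < z j + 1 := h.trans h2.2
      have h4 : m < z j + 1 := by exact_mod_cast h3
      have h5 : m ≤ z j := by omega
      have h6 : (m : ℝ) ≤ z j := by exact_mod_cast h5
      linarith

lemma isClosed_cb (z : Fin 3 → ℤ) : IsClosed (cb z) := by
  have : cb z = ⋂ j, {x : E3 | (z j : ℝ) ≤ 32 * x j ∧ 32 * x j ≤ z j + 1} := by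
    ext x; simp [cb]
  rw [this]
  refine isClosed_iInter fun j => ?_
  have hcj : Continuous fun x : E3 => 32 * x j := continuous_const.mul (continuous_apply j)
  exact (isClosed_le continuous_const hcj).inter (isClosed_le hcj continuous_const)

lemma cb_sub_closure (z : Fin 3 → ℤ) : cb z ⊆ closure (ob z) := by
  have h1 : ob z = Set.pi univ (fun j => Ioo ((z j : ℝ) / 32) (((z j : ℝ) + 1) / 32)) := by
    ext x
    simp only [ob, mem_setOf_eq, mem_pi, mem_univ, true_implies, mem_Ioo]
    refine forall_congr' fun j => ?_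
    constructor
    · rintro ⟨h1, h2⟩
      constructor <;> linarith
    · rintro ⟨h1, h2⟩
      constructor <;> linarith
  rw [h1, closure_pi_set]
  intro x hx j _
  show x j ∈ closure (Ioo ((z j : ℝ) / 32) (((z j : ℝ) + 1) / 32))
  rw [closure_Ioo (by intro h; linarith)]
  have := hx j
  constructor <;> linarith

/-- generic points are dense -/
lemma exists_generic {W : Set E3} (hW : IsOpen W) (hne : W.Nonempty) :
    ∃ y ∈ W, ∃ z : Fin 3 → ℤ, y ∈ ob z := by
  have hd : Dense (Set.pi univ (fun _ : Fin 3 => {x : ℝ | Irrational x})) :=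
    dense_pi univ fun _ _ => dense_irrational
  obtain ⟨y, hyW, hy⟩ := hd.inter_open_nonempty W hW hne
  refine ⟨y, hyW, fun j => ⌊32 * y j⌋, fun j => ⟨?_, Int.lt_floor_add_one _⟩⟩
  have hirr : Irrational (32 * y j) := by
    have h1 : Irrational (y j) := hy j (mem_univ j)
    have h2 := h1.natCast_mul (m := 32) (by norm_num)
    simpa using h2
  refine lt_of_le_of_ne (Int.floor_le _) fun h => ?_
  exact hirr.ne_int _ h.symm

section

variable {N : Set E3} (hc : IsCompact N) (hr : closure (interior N) = N)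
  (hs : ∀ x x', Same x x' → x ∈ N → x' ∈ N)

/-- the cubes of `N` -/
def ZN (N : Set E3) : Set (Fin 3 → ℤ) := {z | ct z ∈ N}

include hs in
lemma mem_iff {z : Fin 3 → ℤ} {x : E3} (hx : x ∈ ob z) : x ∈ N ↔ z ∈ ZN N :=
  ⟨fun h => hs _ _ (same_ob hx (ct_mem z)) h, fun h => hs _ _ (same_ob (ct_mem z) hx) h⟩

include hc in
lemma finite_ZN : (ZN N).Finite := by
  obtain ⟨R, hR⟩ := hc.isBounded.subset_closedBall (0 : E3)
  obtain ⟨M, hM⟩ := exists_nat_gt (32 * R + 1)
  refine (Set.finite_Icc (fun _ : Fin 3 => -(M : ℤ)) (fun _ => (M : ℤ))).subset ?_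
  intro z hz
  have h1 : ct z ∈ closedBall (0 : E3) R := hR hz
  rw [mem_closedBall_zero_iff] at h1
  have h2 : ∀ j, |ct z j| ≤ R := fun j => (norm_le_pi_norm (ct z) j).trans h1
  have h3 : ∀ j, (-(M : ℝ)) ≤ z j ∧ (z j : ℝ) ≤ M := by
    intro j
    have h4 := abs_le.1 (h2 j)
    simp only [ct] at h4
    constructor <;> linarith [h4.1, h4.2]
  constructor
  · intro j
    have := (h3 j).1
    exact_mod_cast this
  · intro j
    have := (h3 j).2
    exact_mod_cast this

include hc hs in
lemma cb_sub {z : Fin 3 → ℤ} (hz : z ∈ ZN N) : cb z ⊆ N := by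
  have h1 : ob z ⊆ N := fun x hx => (mem_iff hs hx).2 hz
  exact (cb_sub_closure z).trans (closure_minimal h1 hc.isClosed)

include hc hr hs in
lemma exists_cb {x : E3} (hx : x ∈ N) : ∃ z ∈ ZN N, x ∈ cb z := by
  by_contra hcon
  push Not at hcon
  have hcl : IsClosed (⋃ z ∈ ZN N, cb z) :=
    (finite_ZN hc).isClosed_biUnion fun z _ => isClosed_cb z
  have hxU : x ∈ (⋃ z ∈ ZN N, cb z)ᶜ := by
    simp only [mem_compl_iff, mem_iUnion, not_exists]
    exact hcon
  rw [← hr] at hx
  have h1 := mem_closure_iff.1 hx _ hcl.isOpen_compl hxU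
  obtain ⟨y, ⟨hy1, hy2⟩, z, hyz⟩ :=
    exists_generic (hcl.isOpen_compl.inter isOpen_interior) h1
  have hz : z ∈ ZN N := (mem_iff hs hyz).1 (interior_subset hy2)
  exact hy1 (mem_biUnion hz (ob_sub z hyz))

include hc hs in
/-- a point all of whose cubes belong to `N` is interior -/
lemma mem_interior_of {x : E3} (h : ∀ z, x ∈ cb z → z ∈ ZN N) : x ∈ interior N := by
  rw [mem_interior]
  refine ⟨{y | ∀ j, ((⌈32 * x j⌉ - 1 : ℤ) : ℝ) < 32 * y j ∧ 32 * y j < ((⌊32 * x j⌋ + 1 : ℤ) : ℝ)},
    ?_, ?_, ?_⟩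
  · intro y hy
    have hz : x ∈ cb (fun j => ⌊32 * y j⌋) := by
      intro j
      have h1 : ⌊32 * y j⌋ ≤ ⌊32 * x j⌋ := by
        have := Int.floor_lt.2 (hy j).2
        omega
      have h2 : ⌈32 * x j⌉ - 1 ≤ ⌊32 * y j⌋ := Int.le_floor.2 (hy j).1.le
      constructor
      · have h3 : (⌊32 * y j⌋ : ℝ) ≤ ⌊32 * x j⌋ := by exact_mod_cast h1
        exact h3.trans (Int.floor_le _)
      · have h3 : ((⌈32 * x j⌉ - 1 : ℤ) : ℝ) ≤ ⌊32 * y j⌋ := by exact_mod_cast h2
        push_cast at h3
        have h4 := Int.le_ceil (32 * x j)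
        linarith
    refine cb_sub hc hs (h _ hz) ?_
    intro j
    exact ⟨Int.floor_le _, (Int.lt_floor_add_one _).le⟩
  · have : {y : E3 | ∀ j, ((⌈32 * x j⌉ - 1 : ℤ) : ℝ) < 32 * y j ∧
        32 * y j < ((⌊32 * x j⌋ + 1 : ℤ) : ℝ)} = ⋂ j, {y : E3 |
          ((⌈32 * x j⌉ - 1 : ℤ) : ℝ) < 32 * y j ∧ 32 * y j < ((⌊32 * x j⌋ + 1 : ℤ) : ℝ)} := by
      ext y; simp
    rw [this]
    refine isOpen_iInter_of_finite fun j => ?_
    have hcj : Continuous fun y : E3 => 32 * y j := continuous_const.mul (continuous_apply j)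
    exact (isOpen_lt continuous_const hcj).inter (isOpen_lt hcj continuous_const)
  · intro j
    constructor
    · have := Int.ceil_lt_add_one (32 * x j)
      push_cast
      linarith
    · have := Int.lt_floor_add_one (32 * x j)
      push_cast
      linarith

end

/-- the neighbour of `z` in direction `i` -/
def nb (z : Fin 3 → ℤ) (i : Fin 3) (s : Bool) : Fin 3 → ℤ :=
  Function.update z i (z i + if s then 1 else -1)

/-- the common face of `z` and its neighbour -/
noncomputable def fc (q : (Fin 3 → ℤ) × Fin 3 × Bool) : E3 × E3 :=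
  (fun j => if j = q.2.1 then ((q.1 j : ℝ) + if q.2.2 then 1 else 0) / 32 else (q.1 j : ℝ) / 32,
   fun j => if j = q.2.1 then ((q.1 j : ℝ) + if q.2.2 then 1 else 0) / 32
    else ((q.1 j : ℝ) + 1) / 32)

lemma mem_fc {z : Fin 3 → ℤ} {i : Fin 3} {s : Bool} {x : E3} :
    x ∈ Icc (fc (z, i, s)).1 (fc (z, i, s)).2 ↔ x ∈ cb z ∧ x ∈ cb (nb z i s) := by
  constructor
  · rintro ⟨h1, h2⟩
    have h3 : ∀ j, (fc (z, i, s)).1 j ≤ x j := h1
    have h4 : ∀ j, x j ≤ (fc (z, i, s)).2 j := h2
    constructor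
    · intro j
      have h5 := h3 j
      have h6 := h4 j
      simp only [fc] at h5 h6
      by_cases hj : j = i
      · cases s <;> simp only [hj, if_true, Bool.false_eq_true, if_false] at h5 h6 ⊢ <;>
          constructor <;> linarith
      · simp only [hj, if_false] at h5 h6
        constructor <;> linarith
    · intro j
      have h5 := h3 j
      have h6 := h4 j
      simp only [fc] at h5 h6
      by_cases hj : j = i
      · subst hj
        cases s <;>
          simp only [nb, if_true, Bool.false_eq_true, if_false, Function.update_self] at h5 h6 ⊢ <;>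
          push_cast <;> constructor <;> linarith
      · simp only [hj, if_false] at h5 h6
        simp only [nb, Function.update_of_ne hj]
        constructor <;> linarith
  · rintro ⟨h1, h2⟩
    constructor
    · intro j
      have h5 := h1 j
      have h6 := h2 j
      simp only [fc]
      by_cases hj : j = i
      · subst hj
        cases s <;>
          simp only [nb, if_true, Bool.false_eq_true, if_false, Function.update_self] at h5 h6 ⊢ <;>
          push_cast at h6 <;> linarith [h5.1, h5.2, h6.1, h6.2]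
      · simp only [hj, if_false]
        linarith [h5.1]
    · intro j
      have h5 := h1 j
      have h6 := h2 j
      simp only [fc]
      by_cases hj : j = i
      · subst hj
        cases s <;>
          simp only [nb, if_true, Bool.false_eq_true, if_false, Function.update_self] at h5 h6 ⊢ <;>
          push_cast at h6 <;> linarith [h5.1, h5.2, h6.1, h6.2]
      · simp only [hj, if_false]
        linarith [h5.2]

/-- two cubes of a point which differ only in the coordinate `i` -/
lemma nb_of {z z' : Fin 3 → ℤ} {x : E3} (hx : x ∈ cb z) (hx' : x ∈ cb z') {i : Fin 3}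
    (h : ∀ j, j ≠ i → z' j = z j) (hne : z ≠ z') : ∃ s, z' = nb z i s := by
  have h1 : z' i ≠ z i := by
    intro h2
    apply hne
    funext j
    by_cases hj : j = i
    · rw [hj, h2]
    · exact (h j hj).symm
  have h2 := hx i
  have h3 := hx' i
  have h4 : (z i : ℝ) ≤ z' i + 1 := h2.1.trans h3.2
  have h5 : (z' i : ℝ) ≤ z i + 1 := h3.1.trans h2.2
  have h4' : z i ≤ z' i + 1 := by exact_mod_cast h4
  have h5' : z' i ≤ z i + 1 := by exact_mod_cast h5
  have h6 : z' i = z i + 1 ∨ z' i = z i + -1 := by omega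
  rcases h6 with h6 | h6
  · refine ⟨true, ?_⟩
    funext j
    by_cases hj : j = i
    · subst hj; simp [nb, h6]
    · simp [nb, hj, h j hj]
  · refine ⟨false, ?_⟩
    funext j
    by_cases hj : j = i
    · subst hj; simp [nb, h6]
    · simp [nb, hj, h j hj]

/-- path from a cube of `Z` to a cube outside `Z`, one coordinate at a time -/
lemma exists_step {Z : Set (Fin 3 → ℤ)} {x : E3} {z z' : Fin 3 → ℤ} (hz : z ∈ Z) (hz' : z' ∉ Z)
    (hx : x ∈ cb z) (hx' : x ∈ cb z') :
    ∃ w ∈ Z, ∃ i s, x ∈ cb w ∧ x ∈ cb (nb w i s) ∧ nb w i s ∉ Z := by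
  -- mixed cubes contain `x`
  have hmix : ∀ w w' : Fin 3 → ℤ, x ∈ cb w → (∀ j, w' j = w j ∨ w' j = z' j) → x ∈ cb w' := by
    intro w w' hw h j
    rcases h j with h | h
    · rw [h]; exact hw j
    · rw [h]; exact hx' j
  -- single step
  have hstep : ∀ (w : Fin 3 → ℤ) (i : Fin 3), w ∈ Z → x ∈ cb w →
      Function.update w i (z' i) ∉ Z →
      ∃ w ∈ Z, ∃ i s, x ∈ cb w ∧ x ∈ cb (nb w i s) ∧ nb w i s ∉ Z := by
    intro w i hw hxw hw'
    have hxw' : x ∈ cb (Function.update w i (z' i)) := by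
      refine hmix w _ hxw fun j => ?_
      by_cases hj : j = i
      · subst hj; right; simp
      · left; simp [hj]
    obtain ⟨s, hs⟩ := nb_of hxw hxw' (i := i) (fun j hj => by simp [hj])
      (fun h => hw' (h ▸ hw))
    exact ⟨w, hw, i, s, hxw, hs ▸ hxw', hs ▸ hw'⟩
  by_cases h0 : Function.update z 0 (z' 0) ∈ Z
  · have hx0 : x ∈ cb (Function.update z 0 (z' 0)) := by
      refine hmix z _ hx fun j => ?_
      by_cases hj : j = 0
      · subst hj; right; simp
      · left; simp [hj]
    by_cases h1 : Function.update (Function.update z 0 (z' 0)) 1 (z' 1) ∈ Z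
    · have hx1 : x ∈ cb (Function.update (Function.update z 0 (z' 0)) 1 (z' 1)) := by
        refine hmix _ _ hx0 fun j => ?_
        by_cases hj : j = 1
        · subst hj; right; simp
        · left; simp [hj]
      refine hstep _ 2 h1 hx1 ?_
      have : Function.update (Function.update (Function.update z 0 (z' 0)) 1 (z' 1)) 2 (z' 2)
          = z' := by
        funext j
        fin_cases j <;> simp [Function.update]
      rw [this]
      exact hz'
    · exact hstep _ 1 h0 hx0 h1
  · exact hstep _ 0 hz hx h0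

/-- **(N6)** -/
theorem front : FrontStmt := by
  classical
  intro N hc hr hs
  set Z := ZN N with hZ
  have hZf : Z.Finite := finite_ZN hc
  have hPf : {q : (Fin 3 → ℤ) × Fin 3 × Bool | q.1 ∈ Z ∧ nb q.1 q.2.1 q.2.2 ∉ Z}.Finite := by
    refine (hZf.prod (Set.finite_univ (α := Fin 3 × Bool))).subset ?_
    rintro ⟨z, i, s⟩ ⟨h1, _⟩
    exact ⟨h1, mem_univ _⟩
  refine ⟨hPf.toFinset.image fc, ?_, ?_, ?_⟩
  · intro p hp
    obtain ⟨q, -, rfl⟩ := Finset.mem_image.1 hp
    intro j
    simp only [fc]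
    split_ifs <;> linarith
  · intro p hp
    obtain ⟨q, -, rfl⟩ := Finset.mem_image.1 hp
    refine ⟨q.2.1, by simp [fc], fun j hj => ?_⟩
    simp only [fc, hj, if_false]
    intro h
    linarith
  · ext x
    simp only [mem_iUnion, exists_prop]
    constructor
    · intro hx
      have hxN : x ∈ N := hc.isClosed.closure_eq ▸ hx.1
      obtain ⟨z, hz, hxz⟩ := exists_cb hc hr hs hxN
      have h1 : ∃ z', x ∈ cb z' ∧ z' ∉ Z := by
        by_contra hcon
        push Not at hcon
        exact hx.2 (mem_interior_of hc hs hcon)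
      obtain ⟨z', hxz', hz'⟩ := h1
      obtain ⟨w, hw, i, s, h2, h3, h4⟩ := exists_step hz hz' hxz hxz'
      exact ⟨fc (w, i, s), Finset.mem_image.2 ⟨(w, i, s), by simpa using ⟨hw, h4⟩, rfl⟩,
        mem_fc.2 ⟨h2, h3⟩⟩
    · rintro ⟨p, hp, hx⟩
      obtain ⟨⟨z, i, s⟩, hq, rfl⟩ := Finset.mem_image.1 hp
      have hq' : z ∈ Z ∧ nb z i s ∉ Z := by simpa using hq
      obtain ⟨h1, h2⟩ := mem_fc.1 hx
      rw [frontier_eq_closure_inter_closure]
      refine ⟨subset_closure (cb_sub hc hs hq'.1 h1), ?_⟩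
      have h3 : ob (nb z i s) ⊆ Nᶜ := fun y hy hyN => hq'.2 ((mem_iff hs hy).1 hyN)
      exact closure_mono h3 (cb_sub_closure _ h2)

end Crest.Agent.R096.Frt_324
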