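import Crest.Agent.R096.Dic6_582

/-!
Row 96 (S0127), NO0 for `p ≥ 3`, [U4] (helper899), part 1: the graded log foam with a given size
function.
-/

set_option autoImplicit false
set_option linter.unusedSectionVars false
set_option linter.unusedVariables false
open Set Filter Topology MeasureTheory
open scoped NNReal ENNReal

noncomputable section

namespace Crest.Agent.R096.Frt_899

open Crest.Agent.R096.Brk1_582 Crest.Agent.R096.Brk2_582 Crest.Agent.R096.Brk3_582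
open Crest.Agent.R096.Brk4_582 Crest.Agent.R096.Brk5_582
open Crest.Agent.R096.Bsp_628 Crest.Agent.R096.Log1_582 Crest.Agent.R096.Log2_582
open Crest.Agent.R096.Log3_582 Crest.Agent.R096.Dic2_582 Crest.Agent.R096.Dic6_582
open Crest.Agent.R96.Push_899 (EE co continuous_co)

theorem co_image_eq (Λ : Set (EE (Fin 3))) :
    co '' Λ = (WithLp.toLp 2 : (Fin 3 → ℝ) → EE (Fin 3)) ⁻¹' Λ := by
  ext y
  constructor
  · rintro ⟨x, hx, rfl⟩; exact hx
  · intro hy; exact ⟨_, hy, rfl⟩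

/-- **the graded log foam with size function `rho`** -/
theorem exists_FrR {q : ℕ} (hq : 1 ≤ q) {Λ K₀ : Set (EE (Fin 3))} (hΛ : IsOpen Λ)
    (hb : Bornology.IsBounded Λ) (hK : IsCompact K₀) (hKΛ : K₀ ⊆ Λ) {M : ℝ} (hM : 0 ≤ M)
    {rho : (Fin 3 → ℝ) → ℝ} (hL : LipschitzWith 1 rho) (h0 : ∀ x, 0 < rho x ↔ x ∈ co '' Λ)
    (hr : ∀ x, 32 * rho x ≤ Metric.infDist x (co '' Λ)ᶜ) :
    ∃ s₀ > 0, ∀ s, 0 < s → s < s₀ → ∀ a : Fin 3 → ℝ, ∃ F, Fr q Λ K₀ M s a F ∧
      (∀ C ∈ F, ∀ x ∈ C.set, C.sz ≤ rho x) ∧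
      ∀ C ∈ F, ∀ x ∈ C.set, min (2 * q * s) (rho x / 6) ≤ C.sz := by
  have hco : IsOpen (co '' Λ) := by
    rw [co_image_eq]
    exact hΛ.preimage (PiLp.continuous_toLp 2 _)
  have hbd : Bornology.IsBounded (co '' Λ) := by
    have h1 : LipschitzWith 1 (co : EE (Fin 3) → Fin 3 → ℝ) := by
      refine LipschitzWith.of_dist_le_mul fun x y => ?_
      rw [dist_eq_norm, dist_eq_norm, NNReal.coe_one, one_mul]
      exact norm_ofLp_sub_le x y
    exact h1.isBounded_image hb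
  obtain ⟨s₀, hs₀, H⟩ := exists_log_foam_dy hq hco hbd hL h0 (hK.image continuous_co)
    (image_mono hKΛ) hM (le_max_left _ _) (le_max_right _ _)
  refine ⟨s₀, hs₀, fun s hs hss a => ?_⟩
  obtain ⟨F, BF, h1, h2, h3, h4, h5, h6⟩ := (H s hs hss).2 a
  have h6' : (3 * (1 + ((1 : ℝ≥0) : ℝ))) = 6 := by norm_num
  rw [h6'] at h2 h4
  refine ⟨F, ⟨hq, hs, BF, fun C hC x hx => ?_, h2, h3, h5, h6⟩, h1, fun C hC x hx => ?_⟩
  · have := h1 C hC x hx
    have := hr x
    linarith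
  · rcases h4 C hC with h7 | h7
    · exact (min_le_left _ _).trans (isLog_sz hq hs h7).ge
    · refine (min_le_right _ _).trans ?_
      have := h7 x hx
      linarith

end Crest.Agent.R096.Frt_899
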