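import Crest.Agent.R096.Frt1_899
import Crest.Agent.R096.Bxn3_627
import Crest.Agent.R096.Npr1_582
import Crest.Agent.R96.PnU4_849

/-!
Row 96 (S0127), NO0 for `p ≥ 3`, [U4] (helper899), part 2: scales, the stretched target, the size
function of the foam, closeness of the pushed map to the given one.
-/

set_option autoImplicit false
set_option linter.unusedSectionVars false
set_option linter.unusedVariables false
open Set Filter Topology MeasureTheory Metric
open scoped NNReal ENNReal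

noncomputable section

namespace Crest.Agent.R096.Frt_899

open Crest.Agent.R096.ThC6_766 (Scale)
open Crest.Agent.R96.Push_899 (EE co continuous_co LaE isOpen_LaE co_image_LaE IsStretch)
open Crest.Agent.R96.PnU_849 (Gm Gm_Gm Gm_sub norm_Gm_le norm_Gm_inv_le continuous_Gm)
open Crest.Agent.R096.Er_594 (norm_P3_le norm_P3_symm_le)
open Crest.Agent.R96.En10_199 (P3)
open Crest.Agent.R096.SkC1_961 (E3 Hom3)

/-! ### the basic scale -/

theorem scale_inf {V : Type*} [NormedAddCommGroup V] [InnerProductSpace ℝ V] {Λ : Set V}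
    (hΛ : IsOpen Λ) (hne : (Λᶜ).Nonempty) {t : ℝ} (ht : 0 < t) (ht1 : t ≤ 1) :
    Scale Λ (fun y => min (infDist y Λᶜ / 8) t) := by
  refine ⟨fun x => le_min (by have := infDist_nonneg (x := x) (s := Λᶜ); positivity) ht.le,
    fun x y => ?_, fun x hx => ?_, fun x hx => ?_, fun x => (min_le_right _ _).trans ht1⟩
  · have h1 := infDist_le_infDist_add_dist (s := Λᶜ) (x := x) (y := y)
    rw [dist_eq_norm] at h1
    have h3 := norm_nonneg (x - y)
    rcases min_cases (infDist y Λᶜ / 8) t with h | h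
    · rw [h.1]
      exact (min_le_left _ _).trans (by linarith)
    · rw [h.1]
      exact (min_le_right _ _).trans (by linarith)
  · have h1 : 0 < infDist x Λᶜ := by
      rw [← hΛ.isClosed_compl.notMem_iff_infDist_pos hne]
      exact fun h => h hx
    exact lt_min (by positivity) ht
  · have h1 : infDist x Λᶜ = 0 := infDist_zero_of_mem hx
    rw [h1, zero_div]
    exact min_eq_left ht.le

/-! ### the stretched target -/

section gm

variable {k : Fin 3} {G : ℝ} {Λ : Set (EE (Fin 3))}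

theorem Gm_image_eq (hG : G ≠ 0) : Gm k G '' Λ = Gm k G⁻¹ ⁻¹' Λ := by
  ext y
  constructor
  · rintro ⟨x, hx, rfl⟩
    show Gm k G⁻¹ (Gm k G x) ∈ Λ
    rwa [Gm_Gm (inv_mul_cancel₀ hG)]
  · intro hy
    exact ⟨_, hy, Gm_Gm (mul_inv_cancel₀ hG) y⟩

theorem isOpen_GmI (hG : G ≠ 0) (hΛ : IsOpen Λ) : IsOpen (Gm k G '' Λ) := by
  rw [Gm_image_eq hG]
  exact hΛ.preimage (continuous_Gm k G⁻¹)

theorem lipschitz_Gm (hG : 1 ≤ G) : LipschitzWith (Real.toNNReal G) (Gm k G) := by
  refine LipschitzWith.of_dist_le_mul fun x y => ?_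
  rw [dist_eq_norm, dist_eq_norm, Gm_sub, Real.coe_toNNReal _ (by linarith)]
  exact norm_Gm_le hG _

theorem bounded_GmI (hG : 1 ≤ G) (hΛ : Bornology.IsBounded Λ) :
    Bornology.IsBounded (Gm k G '' Λ) := (lipschitz_Gm hG).isBounded_image hΛ

theorem mem_GmI (hG : G ≠ 0) {y : EE (Fin 3)} : Gm k G y ∈ Gm k G '' Λ ↔ y ∈ Λ := by
  rw [Gm_image_eq hG]
  show Gm k G⁻¹ (Gm k G y) ∈ Λ ↔ _
  rw [Gm_Gm (inv_mul_cancel₀ hG)]

theorem mem_of_GmI (hG : G ≠ 0) {y : EE (Fin 3)} (h : y ∈ Gm k G '' Λ) : Gm k G⁻¹ y ∈ Λ := by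
  rw [Gm_image_eq hG] at h
  exact h

theorem infDist_Gm_le (hG : 1 ≤ G) (hne : (Λᶜ).Nonempty) (y : EE (Fin 3)) :
    infDist (Gm k G y) (Gm k G '' Λ)ᶜ ≤ G * infDist y Λᶜ := by
  have hG0 : G ≠ 0 := by positivity
  have h1 : ∀ z ∈ Λᶜ, infDist (Gm k G y) (Gm k G '' Λ)ᶜ ≤ G * dist y z := by
    intro z hz
    have h2 : Gm k G z ∈ (Gm k G '' Λ)ᶜ := fun h => hz ((mem_GmI hG0).1 h)
    refine (infDist_le_dist_of_mem h2).trans ?_
    have := (lipschitz_Gm (k := k) hG).dist_le_mul y z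
    rwa [Real.coe_toNNReal _ (by linarith)] at this
  have hG' : 0 < G := by linarith
  rw [← div_le_iff₀' hG']
  refine (le_infDist hne).2 fun z hz => ?_
  rw [div_le_iff₀' hG']
  exact h1 z hz

end gm

/-! ### the size function of the foam -/

theorem LaE_compl (La : Set E3) : (LaE La)ᶜ = LaE Laᶜ := rfl

theorem P3_mem_LaE {La : Set E3} {x : E3} : P3 x ∈ LaE La ↔ x ∈ La := Iff.rfl

theorem infDist_LaE_le {La : Set E3} (hne : (Laᶜ).Nonempty) (x : E3) :
    infDist (P3 x) (LaE La)ᶜ ≤ 2 * infDist x Laᶜ := by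
  have h1 : ∀ z ∈ Laᶜ, infDist (P3 x) (LaE La)ᶜ ≤ 2 * dist x z := by
    intro z hz
    have h2 : P3 z ∈ (LaE La)ᶜ := hz
    refine (infDist_le_dist_of_mem h2).trans ?_
    rw [dist_eq_norm, dist_eq_norm, ← map_sub]
    exact norm_P3_le _
  rw [← div_le_iff₀' (by norm_num : (0:ℝ) < 2)]
  refine (le_infDist hne).2 fun z hz => ?_
  rw [div_le_iff₀' (by norm_num : (0:ℝ) < 2)]
  exact h1 z hz

theorem compl_nonempty_of_bounded {La : Set E3} (hb : Bornology.IsBounded La) :
    (Laᶜ).Nonempty := by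
  by_contra hcon
  rw [not_nonempty_iff_eq_empty, compl_empty_iff] at hcon
  rw [hcon] at hb
  exact NormedSpace.unbounded_univ ℝ E3 hb

/-- **the size function** -/
theorem exists_rho {La : Set E3} (hLa : IsOpen La) (hb : Bornology.IsBounded La) {G : ℝ}
    (hG : 1 ≤ G) {s₁ : EE (Fin 3) → ℝ} (hs : Scale (Gm 2 G '' LaE La) s₁) :
    ∃ rho : (Fin 3 → ℝ) → ℝ, LipschitzWith 1 rho ∧ (∀ x, 0 < rho x ↔ x ∈ co '' LaE La) ∧
      (∀ x, 32 * rho x ≤ infDist x (co '' LaE La)ᶜ) ∧ ∀ x, rho x ≤ s₁ (Gm 2 G (P3 x)) := by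
  have hG0 : 0 < G := by linarith
  have hne : (Laᶜ).Nonempty := compl_nonempty_of_bounded hb
  have hs0 := hs.nonneg
  rw [co_image_LaE]
  refine ⟨fun x => min (infDist x Laᶜ / 32) (s₁ (Gm 2 G (P3 x)) / G), ?_, fun x => ?_, fun x => ?_,
    fun x => ?_⟩
  · refine LipschitzWith.of_le_add fun x y => ?_
    rw [dist_eq_norm]
    have h1 := infDist_le_infDist_add_dist (s := Laᶜ) (x := x) (y := y)
    rw [dist_eq_norm] at h1
    have h2 := hs.lip (Gm 2 G (P3 x)) (Gm 2 G (P3 y))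
    have h3 : ‖Gm 2 G (P3 x) - Gm 2 G (P3 y)‖ ≤ G * (2 * ‖x - y‖) := by
      rw [Gm_sub, ← map_sub]
      exact (norm_Gm_le hG _).trans (mul_le_mul_of_nonneg_left (norm_P3_le _) hG0.le)
    have h4 := norm_nonneg (x - y)
    rcases min_cases (infDist y Laᶜ / 32) (s₁ (Gm 2 G (P3 y)) / G) with h | h
    · rw [h.1]
      exact (min_le_left _ _).trans (by linarith)
    · rw [h.1]
      refine (min_le_right _ _).trans ?_
      rw [div_add' _ _ _ hG0.ne']
      gcongr
      nlinarith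
  · constructor
    · intro h
      by_contra hcon
      have h1 : infDist x Laᶜ = 0 := infDist_zero_of_mem hcon
      have h2 : 0 < infDist x Laᶜ / 32 := h.trans_le (min_le_left _ _)
      rw [h1] at h2
      norm_num at h2
    · intro hx
      have h1 : 0 < infDist x Laᶜ := by
        rw [← hLa.isClosed_compl.notMem_iff_infDist_pos hne]
        exact fun h => h hx
      have h2 : 0 < s₁ (Gm 2 G (P3 x)) := hs.pos _ ((mem_GmI hG0.ne').2 hx)
      exact lt_min (by positivity) (by positivity)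
  · have := min_le_left (infDist x Laᶜ / 32) (s₁ (Gm 2 G (P3 x)) / G)
    linarith
  · refine (min_le_right _ _).trans ?_
    exact div_le_self (hs0 _) hG

end Crest.Agent.R096.Frt_899
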