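import Crest.Agent.R096.Bxs1_627
import Crest.Agent.R096.Dic6_582
import Crest.Agent.R96.PnU3_849
import Crest.Agent.R96.Push20_899

/-!
# Row 96 (S0127), helper358.  NO0, p ≥ 3, leaf (S2) `holes_ok` of 899 #11139

The holes of TOPH for the stretched target: balls around the stretched centres of the bricks of a foam.
-/

set_option autoImplicit false
set_option linter.style.longLine false

open Set Filter Topology Metric

namespace Crest.Agent.R096.Hok_358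

open Crest.Agent.R096.Bsp_628 Crest.Agent.R096.Bxs_627
open Crest.Agent.R96.Push_899 Crest.Agent.R96.PnU_849
open Crest.Agent.R96.En10_199 (P3)
open Crest.Agent.R096.SkC1_961 (E3)

noncomputable section

variable {La : Set E3} {F : Set (Bx (Fin 3))} {δ κ0 : ℝ}

/-- the stretch expands distances -/
theorem norm_sub_le_Gm {ι : Type*} [Fintype ι] [Nonempty ι] [DecidableEq ι] {k : ι} {G : ℝ}
    (hG : 1 ≤ G) (x y : EE ι) : ‖x - y‖ ≤ ‖Gm k G x - Gm k G y‖ := by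
  have h0 : G⁻¹ * G = 1 := inv_mul_cancel₀ (by linarith)
  have h1 := norm_Gm_inv_le (k := k) hG (Gm k G (x - y))
  rw [Gm_Gm h0, ← Gm_sub] at h1
  exact h1

theorem P3_eq (x : Fin 3 → ℝ) : (P3 x : EE (Fin 3)) = WithLp.toLp 2 x := rfl

theorem co_P3 (x : Fin 3 → ℝ) : co (P3 x : EE (Fin 3)) = x := rfl

/-- **(i)** the stretched centres lie in the stretched target -/
theorem ctr_mem_Gm (BF : BoxFoam La F δ κ0) (G : ℝ) (c : F) :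
    Gm 2 G (P3 (ctr c.1)) ∈ Gm 2 G '' LaE La :=
  ⟨P3 (ctr c.1), BF.sub _ c.2 (ctr_mem (BF.pos _ c.2)), rfl⟩

/-- **(ii)** the balls are disjoint -/
theorem disj_Gm (BF : BoxFoam La F δ κ0) (hκ : 0 < κ0) {G : ℝ} (hG : 1 ≤ G) (c c' : F)
    (hne : c ≠ c') : 2 * rad κ0 c.1 + 2 * rad κ0 c'.1 <
      ‖Gm 2 G (P3 (ctr c.1)) - Gm 2 G (P3 (ctr c'.1))‖ :=
  (holes_disj BF hκ c c' hne).trans_le (norm_sub_le_Gm hG _ _)

/-- **(iii)** the balls are locally finite -/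
theorem fin_Gm (BF : BoxFoam La F δ κ0) (hκ : 1 ≤ κ0) {G : ℝ} (hG : 1 ≤ G) {q : EE (Fin 3)}
    (hq : q ∈ Gm 2 G '' LaE La) :
    ∃ r : ℝ, 0 < r ∧
      {c : F | (closedBall (Gm 2 G (P3 (ctr c.1))) (2 * rad κ0 c.1) ∩ ball q r).Nonempty}.Finite := by
  obtain ⟨q', hq', rfl⟩ := hq
  obtain ⟨r, hr, hf⟩ := holes_fin (La := La) BF hκ (q := q') hq'
  refine ⟨r, hr, hf.subset ?_⟩
  rintro c ⟨y, hy, hyq⟩
  have h0 : G⁻¹ * G = 1 := inv_mul_cancel₀ (by linarith)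
  have h0' : G * G⁻¹ = 1 := mul_inv_cancel₀ (by linarith)
  refine ⟨Gm 2 G⁻¹ y, ?_, ?_⟩
  · rw [mem_closedBall, dist_eq_norm] at hy ⊢
    have h1 := norm_sub_le_Gm (k := (2 : Fin 3)) hG (Gm 2 G⁻¹ y) (P3 (ctr c.1))
    rw [Gm_Gm h0'] at h1
    exact h1.trans hy
  · rw [mem_ball, dist_eq_norm] at hyq ⊢
    have h1 := norm_sub_le_Gm (k := (2 : Fin 3)) hG (Gm 2 G⁻¹ y) q'
    rw [Gm_Gm h0'] at h1
    exact h1.trans_lt hyq

/-- **(S2) `holes_ok`** for a general foam -/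
theorem holes_ok_gen (BF : BoxFoam La F δ κ0) (hκ : 1 ≤ κ0) {G : ℝ} (hG : 1 ≤ G) :
    (∀ c : F, Gm 2 G (P3 (ctr c.1)) ∈ Gm 2 G '' LaE La) ∧
    (∀ c : F, 0 < c.1.sz / (8 * κ0)) ∧
    (∀ c c' : F, c ≠ c' → 2 * (c.1.sz / (8 * κ0)) + 2 * (c'.1.sz / (8 * κ0)) <
      ‖Gm 2 G (P3 (ctr c.1)) - Gm 2 G (P3 (ctr c'.1))‖) ∧
    (∀ q ∈ Gm 2 G '' LaE La, ∃ r : ℝ, 0 < r ∧
      {c : F | (closedBall (Gm 2 G (P3 (ctr c.1))) (2 * (c.1.sz / (8 * κ0))) ∩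
        ball q r).Nonempty}.Finite) ∧
    ∀ (c : F) (i : Fin 3), 8 * (c.1.sz / (8 * κ0)) ≤ c.1.side i := by
  have hκ0 : 0 < κ0 := by linarith
  refine ⟨fun c => ctr_mem_Gm BF G c, fun c => ?_, fun c c' h => disj_Gm BF hκ0 hG c c' h,
    fun q hq => fin_Gm BF hκ hG hq, fun c i => ?_⟩
  · exact div_pos (Bx.sz_pos (BF.pos _ c.2)) (by positivity)
  · have h1 := BF.asp _ c.2 i
    rw [show 8 * (c.1.sz / (8 * κ0)) = c.1.sz / κ0 by field_simp, div_le_iff₀ hκ0]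
    linarith

open Crest.Agent.R096.Dic6_582 (dF kF one_le_kF)

/-- **(S2) `holes_ok`**, literally: the foam of `Dic6_582` -/
theorem holes_ok {q : ℕ} (BF : BoxFoam La F (dF q) (kF q)) {G : ℝ} (hG : 1 ≤ G) :
    (∀ c : F, Gm 2 G (P3 (ctr c.1)) ∈ Gm 2 G '' LaE La) ∧
    (∀ c : F, 0 < c.1.sz / (8 * kF q)) ∧
    (∀ c c' : F, c ≠ c' → 2 * (c.1.sz / (8 * kF q)) + 2 * (c'.1.sz / (8 * kF q)) <
      ‖Gm 2 G (P3 (ctr c.1)) - Gm 2 G (P3 (ctr c'.1))‖) ∧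
    (∀ q' ∈ Gm 2 G '' LaE La, ∃ r : ℝ, 0 < r ∧
      {c : F | (closedBall (Gm 2 G (P3 (ctr c.1))) (2 * (c.1.sz / (8 * kF q))) ∩
        ball q' r).Nonempty}.Finite) ∧
    ∀ (c : F) (i : Fin 3), 8 * (c.1.sz / (8 * kF q)) ≤ c.1.side i :=
  holes_ok_gen BF (one_le_kF q) hG

end

end Crest.Agent.R096.Hok_358
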