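import Crest.Agent.R96.PnU3_849

/-!
Row 96 (S0127), helper764, NO0 `p ≥ 3`, leaf [T4] of 849 #11063 / 899 #11058: hypothesis (T4) of
`pushNO_U` for the map `T = Th` of `toph_τ` (Tau2_764) with the balls around the stretched centres of
the bricks, `8 R c ≤` every side of the brick.
-/

set_option autoImplicit false
set_option linter.unusedSectionVars false
set_option linter.unusedVariables false
set_option linter.style.longLine false

open Set Filter Metric Topology

namespace Crest.Agent.R096.Tau_764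

open Crest.Agent.R96.Push_899 Crest.Agent.R96.PnU_849

variable {ι : Type*} [Fintype ι] [Nonempty ι] [DecidableEq ι]

theorem abs_coord_le (y : EE ι) (i : ι) : |y i| ≤ ‖y‖ := by
  have := PiLp.norm_apply_le y i
  rwa [Real.norm_eq_abs] at this

/-- coordinates of a difference of stretched points -/
theorem abs_Gm_sub {k : ι} {G : ℝ} (z x : EE ι) (i : ι) :
    |(if i = k then G else 1) * (z i - x i)| ≤ ‖Gm k G z - Gm k G x‖ := by
  have h1 := abs_coord_le (Gm k G z - Gm k G x) i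
  rw [PiLp.sub_apply, Gm_apply, Gm_apply, ← mul_sub] at h1
  exact h1

/-- **off the middle slabs, over `K₀`, every stretched centre is far.** -/
theorem far_of_GX {I : Type*} {Q : I → Box ι} {k : ι} {a : ι → ℝ} {s w η G : ℝ}
    {K₀ : Set (EE ι)} (hs : 0 < s) (hw : 0 < w) (hG : 1 ≤ G) (hGw : 1 / 2 ≤ G * w)
    (hU : ∀ c, Nr K₀ s (Q c) → Uni k a s (Q c)) {x : I → EE ι}
    (hx : ∀ c i, x c i = ((Q c).lo i + (Q c).hi i) / 2) {R : I → ℝ}
    (hR : ∀ c i, 8 * R c ≤ (Q c).W i) {z : EE ι} (hz : z ∈ GX K₀ k a s w η) (c : I) :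
    4 * R c < ‖Gm k G z - Gm k G (x c)‖ := by
  by_cases hN : Nr K₀ s (Q c)
  · have h1 := hU c hN
    obtain ⟨n, hn⟩ := h1.lo_k
    have h2 := h1.hi_k
    have h3 : x c k = a k + s / 2 + n * s := by
      rw [hx, h2, hn]; ring
    have h4 := hz.2.1 n
    rw [← h3] at h4
    have h5 := abs_Gm_sub (k := k) (G := G) z (x c) k
    rw [if_pos rfl, abs_mul, abs_of_nonneg (by linarith : (0:ℝ) ≤ G)] at h5
    have h6 : G * (w * s) < G * |z k - x c k| := mul_lt_mul_of_pos_left h4 (by linarith)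
    have h7 := hR c k
    have h8 : (Q c).W k = s := by
      unfold Box.W
      rw [h2]; ring
    rw [h8] at h7
    have h9 : 1 / 2 * s ≤ G * w * s := mul_le_mul_of_nonneg_right hGw hs.le
    have h10 : G * (w * s) = G * w * s := by ring
    linarith
  · have h1 : z ∉ SE (Q c) := by
      intro h2
      exact hN ⟨z, h2, z, hz.1, by rw [sub_self, norm_zero]; exact hs.le⟩
    have h2 : ∃ i, (Q c).W i / 2 < |z i - x c i| := by
      by_contra hcon
      push Not at hcon
      apply h1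
      intro i
      have h3 := abs_le.1 (hcon i)
      rw [hx] at h3
      have h4 : (Q c).W i = (Q c).hi i - (Q c).lo i := rfl
      rw [h4] at h3
      constructor
      · show (Q c).lo i ≤ z i
        linarith
      · show z i ≤ (Q c).hi i
        linarith
    obtain ⟨i, hi⟩ := h2
    have h3 := abs_Gm_sub (k := k) (G := G) z (x c) i
    have h4 : |z i - x c i| ≤ |(if i = k then G else 1) * (z i - x c i)| := by
      rw [abs_mul]
      have h5 : 1 ≤ |(if i = k then G else (1:ℝ))| := by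
        split_ifs
        · rw [abs_of_nonneg (by linarith)]; exact hG
        · rw [abs_one]
      nlinarith [abs_nonneg (z i - x c i)]
    have h5 := hR c i
    linarith

/-- **hypothesis (T4) of 849's `pushNO_U` for the map of `toph_τ`** (`h1`, `h2` = its two new
clauses). -/
theorem T4_tau {k : ι} {a0 : ℝ} (ha0 : 1 ≤ a0) {m : ℕ} (hm : 0 < m) {K₀ Λ : Set (EE ι)}
    {a : ι → ℝ} {s : ℝ} (hs : 0 < s) {I : Type*} {Q : I → Box ι}
    (hU : ∀ c, Nr K₀ s (Q c) → Uni k a s (Q c)) {x P : I → EE ι} {R : I → ℝ}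
    (hx : ∀ c i, x c i = ((Q c).lo i + (Q c).hi i) / 2)
    (hP : ∀ c, P c = Gm k (GU a0 m) (x c)) (hR : ∀ c i, 8 * R c ≤ (Q c).W i)
    {T th : EE ι → EE ι} {w : EE ι → ℝ} {τ β β' : ℝ} (hβ : 4 * β' ≤ β)
    (hτ : ∀ y, τ * w y ≤ s / (16 * m))
    (h1 : ∀ y, (∀ c, 4 * R c ≤ ‖th y - P c‖) →
      ‖T y - th y‖ ≤ τ * w y ∧ ∀ c, 2 * R c < ‖T y - P c‖)
    (h2 : ∀ y ∈ Gm k (GU a0 m) '' Λ, (∀ c, 4 * R c < ‖th y - P c‖) →
      ∀ᶠ y' in 𝓝 y, ‖T y' - T y‖ ≤ (1 + 4 * β') * ‖y' - y‖) :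
    ∀ y ∈ Gm k (GU a0 m) '' Λ, Gm k (GU a0 m)⁻¹ (th y) ∈ GX K₀ k a s (wm m) (ηm m) →
      ‖T y - th y‖ ≤ s / (16 * m) ∧ ∀ᶠ y' in 𝓝 y, ‖T y' - T y‖ ≤ (1 + β) * ‖y' - y‖ := by
  intro y hy hGX
  have hG := GU_ge ha0 hm
  have hm0 : (0:ℝ) < m := by exact_mod_cast hm
  have hwm : 0 < wm m := by unfold wm; positivity
  have hGw : 1 / 2 ≤ GU a0 m * wm m := by
    have h3 := GU_ws ha0 hm
    have h4 : wm m = 2 * ws m := by unfold wm ws; field_simp; norm_num
    rw [h4]
    norm_num at h3 ⊢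
    linarith
  have hfar : ∀ c, 4 * R c < ‖th y - P c‖ := by
    intro c
    have h3 := far_of_GX hs hwm hG hGw hU hx hR hGX c
    rw [Gm_Gm (mul_inv_cancel₀ (by linarith : GU a0 m ≠ 0)), ← hP] at h3
    exact h3
  refine ⟨((h1 y fun c => (hfar c).le).1).trans (hτ y), ?_⟩
  filter_upwards [h2 y hy hfar] with y' hy'
  exact hy'.trans (mul_le_mul_of_nonneg_right (by linarith) (norm_nonneg _))

end Crest.Agent.R096.Tau_764
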