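import Crest.Agent.R096.Frt2_899
import Crest.Agent.R096.Er4_594
import Crest.Agent.R096.Hok1_358
import Crest.Agent.R096.Dcn3_635
import Crest.Agent.R096.Tau4_764

/-!
Row 96 (S0127), NO0 for `p ≥ 3`, [U4] (helper899), part 3: small lemmas (minimum of scales, lower
bounds of the radii, enlarged cores, near bricks).
-/

set_option autoImplicit false
set_option linter.unusedSectionVars false
set_option linter.unusedVariables false
open Set Filter Topology MeasureTheory Metric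
open scoped NNReal ENNReal

noncomputable section

namespace Crest.Agent.R096.Frt_899

open Crest.Agent.R096.Brk5_582 Crest.Agent.R096.Bsp_628 Crest.Agent.R096.Log1_582
open Crest.Agent.R096.Log2_582 Crest.Agent.R096.Dic6_582
open Crest.Agent.R096.ThC6_766 (Scale)
open Crest.Agent.R96.Push_899 (EE co continuous_co LaE isOpen_LaE co_image_LaE IsStretch SE Box Uni
  brk' brk Mid)
open Crest.Agent.R96.PnU_849 (Gm Gm_Gm Gm_sub norm_Gm_le norm_Gm_inv_le continuous_Gm)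
open Crest.Agent.R96.En10_199 (P3)
open Crest.Agent.R096.SkC1_961 (E3 Hom3)
open Crest.Agent.R096.Bxs_627 (ctr)
open Crest.Agent.R096.EaX_766 (cbx lin RatA ExIn)
open Crest.Agent.R096.Npr_582 (bfOf)

/-! ### scales -/

theorem scale_min2 {V : Type*} [NormedAddCommGroup V] [InnerProductSpace ℝ V] {Λ : Set V}
    {w₁ w₂ : V → ℝ} (h1 : Scale Λ w₁) (h2 : Scale Λ w₂) : Scale Λ (fun y => min (w₁ y) (w₂ y)) := by
  refine ⟨fun x => le_min (h1.nonneg x) (h2.nonneg x), fun x y => ?_, fun x hx =>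
    lt_min (h1.pos x hx) (h2.pos x hx), fun x hx => ?_, fun x => (min_le_left _ _).trans (h1.le_one x)⟩
  · rcases min_cases (w₁ y) (w₂ y) with h | h
    · rw [h.1]; exact (min_le_left _ _).trans (h1.lip x y)
    · rw [h.1]; exact (min_le_right _ _).trans (h2.lip x y)
  · rw [h1.off x hx, h2.off x hx, min_self]

theorem loc_low {V : Type*} [PseudoMetricSpace V] {r : V → ℝ} (hc : Continuous r) {q : V}
    (hq : 0 < r q) : ∃ ε : ℝ, 0 < ε ∧ ∃ m : ℝ, 0 < m ∧ ∀ z ∈ ball q ε, m ≤ r z := by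
  have h1 : ∀ᶠ z in 𝓝 q, r q / 2 < r z :=
    hc.continuousAt.eventually_const_lt (by linarith)
  obtain ⟨ε, hε, h2⟩ := Metric.eventually_nhds_iff_ball.1 h1
  exact ⟨ε, hε, r q / 2, by linarith, fun z hz => (h2 z hz).le⟩

/-! ### bricks -/

theorem ctr_mem {Q : Bx (Fin 3)} (hQ : Q.Pos) : ctr Q ∈ Q.set := by
  rw [Bx.mem_set]
  intro i
  have h1 := Crest.Agent.R096.Bxs_627.ctr_lo Q i
  have h2 := Crest.Agent.R096.Bxs_627.ctr_hi Q i
  have h3 := Bx.side_pos hQ i
  constructor <;> linarith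

/-- points over the enlarged core are mapped into the open brick -/
theorem N_in {p : ℝ} {Om : Set E3} {f : E3 → E3} {D : E3 → E3 →L[ℝ] E3} {o : E3} {u κ1 κ2 κ0 : ℝ}
    {Q : Bx (Fin 3)} {A : E3 ≃ᵃ[ℝ] E3} {lam : ℝ} (h : ExIn p Om f D o u κ1 κ2 Q A lam) (hQ : Q.Pos)
    (asp : ∀ i, Q.sz ≤ κ0 * Q.side i) (hl : 0 < lam) (hl8 : lam ≤ 1 / 8) (hκ1 : 0 ≤ κ1)
    (hκ : κ1 * κ0 ≤ 1 / 4) (hκ2 : 0 ≤ κ2) (hκ2' : κ2 ≤ 1 / 8) {x : E3}
    (hx : x ∈ A ⁻¹' cbx Q ((1 + 2 * κ2) * lam)) :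
    x ∈ Om ∧ ∀ k, |f x k - ctr Q k| < Q.side k / 2 := by
  obtain ⟨h2, h3⟩ := h.cor x (Or.inr hx)
  refine ⟨h2, fun k => ?_⟩
  have h4 := norm_le_pi_norm (f x - A x) k
  rw [Pi.sub_apply, Real.norm_eq_abs] at h4
  have h5 : |A x k - ctr Q k| ≤ (1 + 2 * κ2) * lam * Q.side k / 2 := hx k
  have h6 := abs_sub_le (f x k) (A x k) (ctr Q k)
  have h8 := Bx.side_pos hQ k
  have h9 : κ1 * (lam * Q.sz) ≤ 1 / 4 * (lam * Q.side k) := by
    calc κ1 * (lam * Q.sz) ≤ κ1 * (lam * (κ0 * Q.side k)) := by gcongr; exact asp k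
      _ = κ1 * κ0 * (lam * Q.side k) := by ring
      _ ≤ _ := by gcongr
  have h10 : lam * Q.side k ≤ 1 / 8 * Q.side k := by gcongr
  have h11 : (1 + 2 * κ2) * lam * Q.side k ≤ 5 / 4 * (lam * Q.side k) := by
    rw [mul_assoc]
    have := mul_pos hl h8
    gcongr
    linarith
  linarith

theorem isClosed_cbx (Q : Bx (Fin 3)) (a : ℝ) : IsClosed (cbx Q a) := by
  have : cbx Q a = ⋂ k, {y : E3 | |y k - ctr Q k| ≤ a * Q.side k / 2} := by
    ext y; simp [cbx]
  rw [this]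
  refine isClosed_iInter fun k => ?_
  exact isClosed_le (by fun_prop) continuous_const

theorem continuous_aff (A : E3 ≃ᵃ[ℝ] E3) : Continuous A :=
  AffineMap.continuous_of_finiteDimensional (A : E3 →ᵃ[ℝ] E3)

theorem measurable_N (A : E3 ≃ᵃ[ℝ] E3) (Q : Bx (Fin 3)) (a : ℝ) :
    MeasurableSet (A ⁻¹' cbx Q a) :=
  ((isClosed_cbx Q a).preimage (continuous_aff A)).measurableSet

/-- bricks near `K₀` are aligned (unit walls at the integer heights) -/
theorem uni_of_Nr {q : ℕ} {Λ K K₀ : Set (EE (Fin 3))} {M s : ℝ} {a : Fin 3 → ℝ} {α β : ℕ}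
    {F : Set (Bx (Fin 3))}
    (h : Fr q Λ K M s (fun i => a i + s * (![(α : ℝ), β, 0] : Fin 3 → ℝ) i) F) (hM : 1 < M)
    (hK : K₀ ⊆ K) (c : F) (hc : Crest.Agent.R96.PnU_849.Nr K₀ s (brk h.foam c)) :
    Uni 2 a s (brk h.foam c) := by
  obtain ⟨y, hy, y₀, hy₀, hyy⟩ := hc
  exact uni_translate (h.uni_of_log (h.isLog hM hy (hK hy₀) hyy))

theorem cores_disj {La : Set E3} {F : Set (Bx (Fin 3))} {δ κ0 : ℝ} (BF : BoxFoam La F δ κ0)
    {f : E3 → E3} {c c' : F} (hne : c ≠ c') {x : E3}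
    (h1 : ∀ k, |f x k - ctr c.1 k| < c.1.side k / 2)
    (h2 : ∀ k, |f x k - ctr c'.1 k| < c'.1.side k / 2) : False := by
  obtain ⟨k, hk⟩ := BF.inv.disj c.2 c'.2 (BF.pos _ c.2) (BF.pos _ c'.2) (fun h => hne (Subtype.ext h))
  have h3 := abs_lt.1 (h1 k)
  have h4 := abs_lt.1 (h2 k)
  have h5 := Crest.Agent.R096.Bxs_627.ctr_lo c.1 k
  have h6 := Crest.Agent.R096.Bxs_627.ctr_hi c.1 k
  have h7 := Crest.Agent.R096.Bxs_627.ctr_lo c'.1 k
  have h8 := Crest.Agent.R096.Bxs_627.ctr_hi c'.1 k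
  rcases hk with hk | hk <;> linarith [h3.1, h3.2, h4.1, h4.2]

/-! ### the map in the stretched coordinates -/

section sh

open Crest.Agent.R96.En10_199 (P3_mp)
open Crest.Agent.R96.Sob7_199 (grad_of_wd)
open Crest.Agent.R096.Er_594
open Crest.Agent.R096.Sk_962 (SH)
open Crest.AnalysisR.VecCalc3 Crest.AnalysisR.Sobolev
open Crest.Agent.R96.Acl_392
open Crest.Agent.R96.PnU_849

/-- helper4's `Tl_4.sh_of3` (copied: lighter imports) -/
theorem sh_of3 {p : ℝ} (hp : 1 ≤ p) {Om La : Set E3} (hO : IsOpen Om) {f : E3 → E3}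
    {D : E3 → E3 →L[ℝ] E3} (h : SH3 p Om La f D) :
    SH p (P3.symm ⁻¹' Om) (P3.symm ⁻¹' La) (r3 f) (fun j y => row (D (P3.symm y)) j) := by
  have hp0 : 0 < p := by linarith
  have hmp : MeasurePreserving P3.symm (volume : Measure R3) (volume : Measure E3) :=
    PiLp.volume_preserving_ofLp (Fin 3)
  have hem : MeasurableEmbedding P3.symm := P3.symm.toHomeomorph.measurableEmbedding
  have hOs := isOpen_symm_pre hO
  have hae : ∀ {F : Type} [TopologicalSpace F] {u : E3 → F},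
      AEStronglyMeasurable u (volume.restrict Om) →
      AEStronglyMeasurable (fun y => u (P3.symm y)) (volume.restrict (P3.symm ⁻¹' Om)) := by
    intro F _ u hu
    have h1 : Measure.map P3.symm (volume.restrict (P3.symm ⁻¹' Om)) = volume.restrict Om := by
      rw [← hem.restrict_map, hmp.map_eq]
    rw [← h1] at hu
    exact (hem.aestronglyMeasurable_map_iff).1 hu
  have hml : ∀ {u : R3 → R3}, AEStronglyMeasurable u (volume.restrict (P3.symm ⁻¹' Om)) →
      ∫⁻ y in P3.symm ⁻¹' Om, ‖u y‖ₑ ^ p ≠ ∞ →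
      MemLp u (ENNReal.ofReal p) (volume.restrict (P3.symm ⁻¹' Om)) := by
    intro u h1 h2
    refine ⟨h1, ?_⟩
    rw [eLpNorm_lt_top_iff_lintegral_rpow_enorm_lt_top (by simpa using hp0) (by simp)]
    rw [ENNReal.toReal_ofReal hp0.le]
    exact lt_top_iff_ne_top.2 h2
  have h22 : (2:ℝ≥0∞) ^ p ≠ ∞ := ENNReal.rpow_ne_top_of_nonneg hp0.le (by norm_num)
  refine ⟨homeo_of' h.homeo, hml ?_ ?_, fun j => grad_of_wd fun i => ?_, fun j => hml ?_ ?_⟩
  · have h1 := hae ((hom3_cont h.homeo).aestronglyMeasurable hO.measurableSet)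
    exact P3.continuous.comp_aestronglyMeasurable h1
  · have h1 : ∫⁻ y in P3.symm ⁻¹' Om, ‖r3 f y‖ₑ ^ p ≤
        2 ^ p * ∫⁻ y in P3.symm ⁻¹' Om, ‖f (P3.symm y)‖ₑ ^ p := by
      rw [← lintegral_const_mul' _ _ h22]
      apply lintegral_mono
      intro y
      change ‖P3 (f (P3.symm y))‖ₑ ^ p ≤ 2 ^ p * ‖f (P3.symm y)‖ₑ ^ p
      rw [← ENNReal.mul_rpow_of_nonneg _ _ hp0.le]
      apply ENNReal.rpow_le_rpow _ hp0.le
      rw [← ofReal_norm, ← ofReal_norm]
      refine (ENNReal.ofReal_le_ofReal (norm_P3_le _)).trans (le_of_eq ?_)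
      rw [ENNReal.ofReal_mul (by norm_num)]
      norm_num
    refine ne_top_of_le_ne_top (ENNReal.mul_ne_top h22 ?_) h1
    rw [← lint_P3_symm Om (fun x => ‖f x‖ₑ ^ p)]
    exact h.lp
  · have h1 := Crest.Agent.R96.En10_199.wd_comp_equiv (h.vwd i j) P3.symm hmp
    have h2 : (P3.symm.symm (Pi.single i (1:ℝ)) : R3) = EuclideanSpace.single i 1 := by
      rw [← Crest.Agent.R96.En10_199.P3_symm_single]
      exact P3.apply_symm_apply _
    rw [h2] at h1
    exact h1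
  · have h1 := hae h.aesm
    have h2 : Continuous fun L : E3 →L[ℝ] E3 => row L j := by
      have : (fun L : E3 →L[ℝ] E3 => row L j) = fun L => P3 (fun i => L (Pi.single i 1) j) := rfl
      rw [this]
      refine P3.continuous.comp (continuous_pi fun i => ?_)
      exact (continuous_apply (A := fun _ : Fin 3 => ℝ) j).comp
        (continuous_eval_const (F := E3 →L[ℝ] E3) (Pi.single i (1:ℝ) : E3))
    exact h2.comp_aestronglyMeasurable h1
  · have h1 : ∫⁻ y in P3.symm ⁻¹' Om, ‖row (D (P3.symm y)) j‖ₑ ^ p ≤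
        2 ^ p * ∫⁻ y in P3.symm ⁻¹' Om, ‖D (P3.symm y)‖ₑ ^ p := by
      rw [← lintegral_const_mul' _ _ h22]
      apply lintegral_mono
      intro y
      change ‖P3 (fun i => D (P3.symm y) (Pi.single i 1) j)‖ₑ ^ p ≤ 2 ^ p * ‖D (P3.symm y)‖ₑ ^ p
      rw [← ENNReal.mul_rpow_of_nonneg _ _ hp0.le]
      apply ENNReal.rpow_le_rpow _ hp0.le
      rw [← ofReal_norm, ← ofReal_norm]
      refine (ENNReal.ofReal_le_ofReal (((norm_P3_le _).trans (mul_le_mul_of_nonneg_left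
        ((pi_norm_le_iff_of_nonneg (norm_nonneg (D (P3.symm y)))).2 fun i => ?_)
          (by norm_num))))).trans (le_of_eq ?_)
      · refine (norm_le_pi_norm (D (P3.symm y) (Pi.single i 1)) j).trans ?_
        have h3 := (D (P3.symm y)).le_opNorm (Pi.single i (1:ℝ))
        have h4 : ‖(Pi.single i (1:ℝ) : E3)‖ = 1 := by
          rw [Pi.norm_single]; simp
        rwa [h4, mul_one] at h3
      · rw [ENNReal.ofReal_mul (by norm_num)]
        norm_num
    refine ne_top_of_le_ne_top (ENNReal.mul_ne_top h22 ?_) h1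
    rw [← lint_P3_symm Om (fun x => ‖D x‖ₑ ^ p)]
    exact h.energy


/-- weak gradients and multiplication by a constant -/
theorem hwg_smul {Om : Set R3} {v : R3 → ℝ} {g : R3 → R3} (h : HasWeakGradOn Om v g) (c : ℝ) :
    HasWeakGradOn Om (fun x => c * v x) (c • g) := by
  obtain ⟨h1, h2, h3⟩ := h
  refine ⟨?_, h2.smul c, ?_⟩
  · have h4 := h1.smul c
    exact h4
  · intro φ a1 a2 a3 i
    have h4 := h3 φ a1 a2 a3 i
    have e1 : ∫ x in Om, c * v x * pderiv φ i x = c * ∫ x in Om, v x * pderiv φ i x := by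
      rw [← integral_const_mul]
      congr 1
      funext x; ring
    have e2 : ∫ x in Om, (c • g) x i * φ x = c * ∫ x in Om, g x i * φ x := by
      rw [← integral_const_mul]
      congr 1
      funext x
      rw [Pi.smul_apply, PiLp.smul_apply, smul_eq_mul]; ring
    rw [e1, e2, h4]; ring

/-- the homeomorphism part -/
theorem homeo_Gm {Om La : Set R3} {f : R3 → R3} (h : IsHomeomorphOn f Om La) (k : Fin 3) {G : ℝ}
    (hG : G ≠ 0) : IsHomeomorphOn (fun x => Gm k G (f x)) Om (Gm k G '' La) := by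
  obtain ⟨fi, a1, a2, a3, a4, a5, a6⟩ := h
  refine ⟨fun y => fi (Gm k G⁻¹ y), ?_, ?_, ?_, ?_, ?_, ?_⟩
  · intro x hx; exact ⟨f x, a1 hx, rfl⟩
  · rintro _ ⟨y, hy, rfl⟩
    change fi (Gm k G⁻¹ (Gm k G y)) ∈ Om
    rw [Gm_Gm (inv_mul_cancel₀ hG)]; exact a2 hy
  · intro x hx
    change fi (Gm k G⁻¹ (Gm k G (f x))) = x
    rw [Gm_Gm (inv_mul_cancel₀ hG)]; exact a3 x hx
  · rintro _ ⟨y, hy, rfl⟩
    change Gm k G (f (fi (Gm k G⁻¹ (Gm k G y)))) = Gm k G y
    rw [Gm_Gm (inv_mul_cancel₀ hG), a4 y hy]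
  · exact (continuous_Gm k G).comp_continuousOn a5
  · refine a6.comp (continuous_Gm k G⁻¹).continuousOn ?_
    rintro _ ⟨y, hy, rfl⟩
    rw [Gm_Gm (inv_mul_cancel₀ hG)]; exact hy

/-- **the push of `SH` by `Gm k G`** (any `k`, any `G ≠ 0`) -/
theorem sh_Gm' {p : ℝ} {Om La : Set R3} {f : R3 → R3} {G₀ : Fin 3 → R3 → R3} (k : Fin 3) {G : ℝ}
    (hG : G ≠ 0) (h : SH p Om La f G₀) :
    SH p Om (Gm k G '' La) (fun x => Gm k G (f x)) (fun j => if j = k then G • G₀ k else G₀ j) := by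
  refine ⟨homeo_Gm h.homeo k hG, ?_, ?_, ?_⟩
  · have h1 := h.mem.continuousLinearMap_comp ((GmL k G hG : R3 ≃L[ℝ] R3) : R3 →L[ℝ] R3)
    exact h1
  · intro j
    by_cases hj : j = k
    · subst hj
      rw [if_pos rfl]
      have e1 : (fun x => Gm j G (f x) j) = fun x => G * f x j := by
        funext x; rw [Gm_k]
      rw [e1]
      exact hwg_smul (h.wg j) G
    · rw [if_neg hj]
      have e1 : (fun x => Gm k G (f x) j) = fun x => f x j := by
        funext x; rw [Gm_ne _ hj]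
      rw [e1]
      exact h.wg j
  · intro j
    by_cases hj : j = k
    · subst hj
      rw [if_pos rfl]
      exact (h.memG j).const_smul G
    · rw [if_neg hj]
      exact h.memG j

/-- both halves together -/
theorem sh_Gm3 {p : ℝ} (hp : 1 ≤ p) {Om La : Set E3} (hO : IsOpen Om) {f : E3 → E3}
    {D : E3 → E3 →L[ℝ] E3} (h : SH3 p Om La f D) {G : ℝ} (hG : 1 ≤ G) :
    SH p (P3.symm ⁻¹' Om) (Gm 2 G '' LaE La) (fun y => Gm 2 G (r3 f y))
      (fun j y => if j = 2 then G • row (D (P3.symm y)) 2 else row (D (P3.symm y)) j) := by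
  have h1 : SH p (P3.symm ⁻¹' Om) (Gm 2 G '' LaE La) (fun y => Gm 2 G (r3 f y))
      (fun j => if j = 2 then G • (fun y => row (D (P3.symm y)) 2) else
        (fun y => row (D (P3.symm y)) j)) :=
    sh_Gm' 2 (G := G) (by linarith) (sh_of3 hp hO h)
  have e : (fun j y => if j = 2 then G • row (D (P3.symm y)) 2 else row (D (P3.symm y)) j :
      Fin 3 → R3 → R3) = (fun j => if j = 2 then G • (fun y => row (D (P3.symm y)) 2) else
        (fun y => row (D (P3.symm y)) j)) := by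
    funext j y
    by_cases hj : j = 2
    · simp only [if_pos hj, Pi.smul_apply]
    · simp only [if_neg hj]
  rw [e]
  exact h1

end sh

end Crest.Agent.R096.Frt_899
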