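import Crest.Agent.R096.Frt3_899
import Crest.Agent.R096.Blk3_764
import Crest.Agent.R096.Shc1_816

/-!
Row 96 (S0127), NO0 for `p ≥ 3`, [U4] (helper899), part 4: **the composition of the front**, with the
theorem on one brick (`BrickThm`) as a hypothesis.
-/

set_option autoImplicit false
set_option linter.unusedSectionVars false
set_option linter.unusedVariables false
open Set Filter Topology MeasureTheory Metric
open scoped NNReal ENNReal

noncomputable section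

namespace Crest.Agent.R096.Frt_899

open Crest.AnalysisR.VecCalc3 (R3)
open Crest.Agent.R096.Brk1_582 Crest.Agent.R096.Brk2_582 Crest.Agent.R096.Brk3_582
open Crest.Agent.R096.Brk4_582 Crest.Agent.R096.Brk5_582 Crest.Agent.R096.Bsp_628
open Crest.Agent.R096.Log1_582 Crest.Agent.R096.Log2_582 Crest.Agent.R096.Log3_582
open Crest.Agent.R096.Dic1_582 Crest.Agent.R096.Dic2_582 Crest.Agent.R096.Dic4_582
open Crest.Agent.R096.Dic6_582 Crest.Agent.R096.Dic7_582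
open Crest.Agent.R096.ThC6_766 (Scale)
open Crest.Agent.R96.Push_899 (EE co continuous_co LaE isOpen_LaE co_image_LaE IsStretch SE Box Uni
  brk' brk Mid StP St cutf foam0' asp' countable_brk Hole Psi Pun Lands)
open Crest.Agent.R96.PnU_849
open Crest.Agent.R96.En10_199 (P3)
open Crest.Agent.R096.SkC1_961 (E3 Hom3)
open Crest.Agent.R096.Bxs_627 (ctr HolT prepT)
open Crest.Agent.R096.EaX_766 (cbx lin RatA ExIn)
open Crest.Agent.R096.Npr_582 (bfOf cN)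
open Crest.Agent.R096.Np_962
open Crest.Agent.R096.Bxc1_635 (holeN holeN_hole' ctr_mid' coreN)
open Crest.Agent.R096.Dcn_635 (Vs)
open Crest.Agent.R096.Er_594 (SH3 e3 r3 D3 row symm_pre sh3_of)
open Crest.Agent.R096.Sk_962 (SH)
open Crest.Agent.R96.Lu_538 (Gmat)
open Crest.Agent.R096.Osc_802 (cube)
open Crest.Agent.R096.Toph_766 (Aff)
open Crest.Agent.R96.Str_520 (col)
open Crest.Agent.R096.Bks_896 (kf kf_pos measurable_kf)
open Crest.Agent.R096.Blk_764 (blocks3 C3 C3_ne_top cg hGD_of)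

open Classical in
/-- the ratio of the core of the brick `Q` -/
def lamU (q Gn : ℕ) (K₀ : Set (EE (Fin 3))) (h : ℝ) (Q : Box (Fin 3)) : ℝ :=
  if Nr K₀ h Q then 1 / (512 * kF q) else 1 / (512 * kF q * Gn)

/-- **the theorem on one brick** -/
def BrickThm (p : ℝ) : Prop :=
  ∀ q m Gn : ℕ, 1 ≤ q → 0 < m → GU (kF q) m ≤ Gn →
  ∀ κ1 κ2 : ℝ, 0 < κ1 → κ1 ≤ 1 / 4 → κ1 * kF q ≤ 1 / 4 → 0 < κ2 → κ2 ≤ 1 / 8 →
  ∃ C0 : ℝ, 0 ≤ C0 ∧ ∃ θ : ℝ, 0 < θ ∧ ∃ κ₁ : ℝ, 0 < κ₁ ∧ κ₁ ≤ 1 / 32 ∧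
  ∃ kE : ℝ → ℝ, Measurable kE ∧ (∀ x, 0 < x → 0 < kE x) ∧
  ∀ r : ℝ, 0 < r → ∃ hE : ℝ → ℝ, Continuous hE ∧ (∀ x, 0 < x → 0 < hE x) ∧ ∃ h₁ : ℝ, 0 < h₁ ∧
  ∀ (Om La : Set E3), IsOpen Om → Bornology.IsBounded Om → IsOpen La → Bornology.IsBounded La →
  ∀ K₀ : Set (EE (Fin 3)), IsCompact K₀ → K₀.Nonempty → cthickening (2 * r) K₀ ⊆ LaE La →
  ∀ h : ℝ, 0 < h → h < h₁ → StP (cutf K₀ r) h (ws m) (εU (kF q) m) (1 / r) →
  ∀ (a₀ : Fin 3 → ℝ) (α β₂ : ℕ) (S : EE (Fin 3) ≃ₜ EE (Fin 3)), IsStretch 2 (LaE La) h S →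
    ⇑S = St 2 (cutf K₀ r) (a₀ 2) h (ws m) (εU (kF q) m) →
  ∀ M : ℝ, 3 ≤ M → ∀ (F : Set (Bx (Fin 3)))
    (hF : Fr q (LaE La) (cthickening (2 * r) K₀) M h
      (fun i => a₀ i + h * (![(α : ℝ), β₂, 0] : Fin 3 → ℝ) i) F),
  ∀ (f₁ : R3 → R3) (G₁ : Fin 3 → R3 → R3) (β' : ℝ) (w μ κ δ : R3 → ℝ) (th : R3 → R3)
    (yc ξ : F → R3) (Th : R3 ≃ₜ R3) (G' : Fin 3 → R3 → R3) (τ : ℝ), 0 < β' → β' ≤ 1 / 2 →
    SH p (P3.symm ⁻¹' Om) (Gm 2 (GU (kF q) m) '' LaE La) f₁ G₁ →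
    Scale (Gm 2 (GU (kF q) m) '' LaE La) w →
    Scale (P3.symm ⁻¹' Om) μ → Scale (P3.symm ⁻¹' Om) δ →
    HolT p (P3.symm ⁻¹' Om) (Gm 2 (GU (kF q) m) '' LaE La) f₁ G₁ β' κ₁ w μ κ δ th
      (fun c : F => Gm 2 (GU (kF q) m) (P3 (ctr c.1))) (fun c : F => c.1.sz / (8 * kF q)) yc ξ Th
      G' τ →
    (∀ x ∈ P3.symm ⁻¹' Om, κ x ≤ kE (μ x)) → (∀ c : F, c.1.sz ≤ hE (μ (ξ c))) →
  ∀ G'' : Fin 3 → R3 → R3,
    SH p (P3.symm ⁻¹' Om) (LaE La) (fun x => S (Gm 2 (GU (kF q) m)⁻¹ (Th (f₁ x)))) G'' →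
    (∀ (U V : Set R3) (B : R3 →L[ℝ] R3) (ε : ℝ≥0), IsOpen U → U ⊆ P3.symm ⁻¹' Om → IsOpen V →
      (∀ x ∈ U, Th (f₁ x) ∈ V) →
      LipschitzOnWith ε (fun y => S (Gm 2 (GU (kF q) m)⁻¹ y) - B y) V →
      ∀ᵐ x, x ∈ U → ∀ i, ‖col G'' i x - B (col G' i x)‖ ≤ ε * ‖col G' i x‖) →
  ∃ A : F → E3 ≃ᵃ[ℝ] E3, ∀ c : F,
    ExIn p Om (e3 (fun x => S (Gm 2 (GU (kF q) m)⁻¹ (Th (f₁ x))))) (D3 G'')
      (fun i => a₀ i + h * (![(α : ℝ), β₂, 0] : Fin 3 → ℝ) i) h κ1 κ2 c.1 (A c)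
      (lamU q Gn K₀ h (brk' (bfOf hF) c)) ∧
    ‖lin (A c)‖ ≤ C0 * ‖Gmat G₁ (ξ c)‖ ∧
    A c ⁻¹' cbx c.1 ((1 + 2 * κ2) * lamU q Gn K₀ h (brk' (bfOf hF) c)) ⊆
      P3 ⁻¹' cube (ξ c) (4 * (c.1.sz / (8 * kF q)) / μ (ξ c)) ∧
    ∀ x : E3, ‖Aff f₁ G₁ (ξ c) (Gm 2 (GU (kF q) m) (P3 (ctr c.1)) - yc c) (P3 x) -
        Gm 2 (GU (kF q) m) (P3 (ctr c.1))‖ ≤ θ * c.1.sz →
      x ∈ A c ⁻¹' cbx c.1 ((1 + 2 * κ2) * lamU q Gn K₀ h (brk' (bfOf hF) c))

/-- the choice of `δ` -/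
theorem exists_delta {δ₁ d ε' C V : ℝ≥0∞} (h1 : 0 < δ₁) (hd : 0 < d) (hε : 0 < ε') (hC : C ≠ ⊤)
    (hV : V ≠ ⊤) : ∃ δ : ℝ≥0∞, 0 < δ ∧ δ ≤ δ₁ ∧ 2 * δ ≤ d / 2 ∧ C * (δ + V * δ) ≤ ε' := by
  have hd2 : 0 < d / 2 := ENNReal.half_pos hd.ne'
  obtain ⟨δ, hδ, hle⟩ := exists_mul_le (1 + 2 + C * (1 + V)) (by finiteness)
    (lt_min h1 (lt_min hd2 hε))
  have e1 := hle.trans (min_le_left _ _)
  have e2 := hle.trans ((min_le_right _ _).trans (min_le_left _ _))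
  have e3 := hle.trans ((min_le_right _ _).trans (min_le_right _ _))
  refine ⟨δ, hδ, ?_, ?_, ?_⟩
  · refine le_trans ?_ e1
    calc δ = 1 * δ := (one_mul δ).symm
      _ ≤ (1 + 2 + C * (1 + V)) * δ := by
          refine mul_le_mul' ?_ le_rfl
          rw [add_assoc]; exact le_self_add
  · refine le_trans ?_ e2
    refine mul_le_mul' ?_ le_rfl
    calc (2:ℝ≥0∞) ≤ 1 + 2 := le_add_self
      _ ≤ _ := le_self_add
  · refine le_trans ?_ e3
    calc C * (δ + V * δ) = C * (1 + V) * δ := by ring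
      _ ≤ _ := mul_le_mul' le_add_self le_rfl

theorem lamU_pos {q Gn : ℕ} (hGn : (0:ℝ) < Gn) (K₀ : Set (EE (Fin 3))) (h : ℝ)
    (Q : Box (Fin 3)) : 0 < lamU q Gn K₀ h Q := by
  have := one_le_kF q
  unfold lamU
  split_ifs <;> positivity

theorem lamU_ge {q Gn : ℕ} (hGn : (1:ℝ) ≤ Gn) (K₀ : Set (EE (Fin 3))) (h : ℝ)
    (Q : Box (Fin 3)) : 1 / (512 * kF q * Gn) ≤ lamU q Gn K₀ h Q := by
  have := one_le_kF q
  unfold lamU
  split_ifs
  · apply one_div_le_one_div_of_le (by positivity)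
    nlinarith
  · exact le_rfl

theorem lamU_le {q Gn : ℕ} (hGn : (1:ℝ) ≤ Gn) (K₀ : Set (EE (Fin 3))) (h : ℝ)
    (Q : Box (Fin 3)) : lamU q Gn K₀ h Q ≤ 1 / 512 := by
  have := one_le_kF q
  unfold lamU
  split_ifs
  · apply one_div_le_one_div_of_le (by norm_num)
    linarith
  · apply one_div_le_one_div_of_le (by norm_num)
    nlinarith

theorem lamU_rat (q Gn : ℕ) (K₀ : Set (EE (Fin 3))) (h : ℝ) (Q : Box (Fin 3)) :
    ∃ r : ℚ, lamU q Gn K₀ h Q = r := by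
  have hk : ∃ n : ℚ, kF q = n := ⟨max 3 (2 * q), by unfold kF; push_cast; rfl⟩
  obtain ⟨n, hn⟩ := hk
  unfold lamU
  rw [hn]
  split_ifs
  · exact ⟨1 / (512 * n), by push_cast; rfl⟩
  · exact ⟨1 / (512 * n * Gn), by push_cast; rfl⟩

theorem lamU_near {q Gn : ℕ} {K₀ : Set (EE (Fin 3))} {h : ℝ} {Q : Box (Fin 3)}
    (hQ : Nr K₀ h Q) : lamU q Gn K₀ h Q = 1 / (512 * kF q) := by
  unfold lamU
  rw [if_pos hQ]

set_option maxHeartbeats 1600000 in
/-- **FRONT OF NO0, `p ≥ 3`**, from the theorem on one brick -/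
theorem exists_front3_of {p : ℝ} (hp : 3 ≤ p) (HB : BrickThm p) : ExFront3 p := by
  intro s hs hs2 ε hε
  have hp1 : 1 ≤ p := by linarith
  have hp0 : 0 < p := by linarith
  have hV : Vs p s ≠ ⊤ :=
    ENNReal.sum_ne_top.2 fun l _ => ENNReal.rpow_ne_top_of_nonneg hp0.le (by simp)
  obtain ⟨q, hq, hqε, Hq⟩ := exists_consts2 hp1 (Vs p s) hV hε
  refine ⟨q, hq, fun κ2 hκ2 hκ2' ε' hε' => ?_⟩
  obtain ⟨d, hd, hdε, hd1, hcon⟩ := Hq ε' hε'
  have hκ0 : 1 ≤ kF q := one_le_kF q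
  have hκ00 : 0 < kF q := by linarith
  have hd2 : 0 < d / 2 := ENNReal.half_pos hd.ne'
  obtain ⟨m, hm, β, hβ, HU⟩ := pushNO_U (μ := (volume : Measure E3)) (E := E3) (2 : Fin 3)
    (a0 := kF q) (c₁ := 1 / (512 * kF q) / 2) (CT := 25 / 2) (p := p) hκ0 (by positivity)
    (by
      rw [div_div, div_le_one (by positivity)]
      nlinarith) (by norm_num) hp1
    (fun l : Fin 3 => (EuclideanSpace.single l (s l) : EE (Fin 3))) (fun l => by
      fin_cases l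
      · simp
      · simp
      · simp [hs2]) hd2
  set G : ℝ := GU (kF q) m with hGd
  have hG : 1 ≤ G := GU_ge hκ0 hm
  have hG0 : G ≠ 0 := by positivity
  obtain ⟨Gn, hGn⟩ := exists_nat_ge G
  have hGn1 : (1:ℝ) ≤ Gn := hG.trans hGn
  have hm1 : (1:ℝ) ≤ m := by exact_mod_cast hm
  have hlF : 0 < 1 / (512 * kF q * Gn) := by positivity
  have hlF1 : 1 / (512 * kF q * Gn) ≤ 1 := by
    rw [div_le_one (by positivity)]
    nlinarith
  refine ⟨1 / (512 * kF q * Gn), hlF, fun κ1 hκ1 => ?_⟩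
  obtain ⟨δ₁, hδ₁, HU⟩ := HU (1 / (512 * kF q * Gn) / 2) (by positivity) (by linarith)
  -- bricks
  set κ1' : ℝ := min κ1 (1 / (4 * kF q)) with hκ1'
  have hκ1p : 0 < κ1' := lt_min hκ1 (by positivity)
  have hκ1k : κ1' * kF q ≤ 1 / 4 := by
    calc κ1' * kF q ≤ 1 / (4 * kF q) * kF q := by gcongr; exact min_le_right _ _
      _ = 1 / 4 := by field_simp
  have hκ14 : κ1' ≤ 1 / 4 := by nlinarith
  obtain ⟨C0, hC0, θ, hθ, κ₁, hκ₁, hκ₁', kE, hkm, hkp, HB⟩ := HB q m Gn hq hm hGn κ1' κ2 hκ1p hκ14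
    hκ1k hκ2 hκ2'
  have hC3 := C3_ne_top (p := p) (Gc := G) (C0 := C0) (lam0 := 1 / (512 * kF q * Gn)) hp1
  obtain ⟨δ, hδ, hδ₁le, hδd, hδC⟩ := exists_delta (V := ENNReal.ofReal (∑ l, |s l| ^ p)) hδ₁ hd hε' hC3
    ENNReal.ofReal_ne_top
  refine ⟨δ, hδ, ?_⟩
  intro Om La f D hOm hOmne hOmb hLa hLab hSH hE hdet M ρ0 hM hρ0
  have hOmf : volume Om ≠ ⊤ := hOmb.measure_lt_top.ne
  obtain ⟨fi, hf1, hf2, hf3, hf4, hf5, hf6⟩ := hSH.homeo
  have hLE : IsOpen (LaE La) := isOpen_LaE hLa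
  have hLac : (Laᶜ).Nonempty := compl_nonempty_of_bounded hLab
  have hLEb : Bornology.IsBounded (LaE La) := by
    have h1 : LaE La = (P3 : E3 → EE (Fin 3)) '' La := by
      ext y
      constructor
      · intro hy; exact ⟨co y, hy, rfl⟩
      · rintro ⟨x, hx, rfl⟩; exact hx
    rw [h1]
    exact (P3 : E3 →L[ℝ] EE (Fin 3)).lipschitz.isBounded_image hLab
  set φ : E3 → EE (Fin 3) := fun x => P3 (f x) with hφ
  have hφc : ContinuousOn φ Om := P3.continuous.comp_continuousOn hf5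
  have hφm : MapsTo φ Om (LaE La) := fun x hx => hf1 hx
  obtain ⟨K₀, hK, hKne, hKΛ, r, hr, hrΛ, e₀, he₀, s₀, hs₀, HU⟩ := HU Om (LaE La) φ
    (fun l => Pi.single l 1) (fun l x => P3 (D x (Pi.single l 1))) hOm hOmne hOmf hLE hφc hφm hSH.vwd
    (hE.trans (mul_le_mul' hδ₁le le_rfl))
  -- the stretched target
  set Λ₁ : Set (EE (Fin 3)) := Gm 2 G '' LaE La with hΛ₁
  have hΛo : IsOpen Λ₁ := isOpen_GmI hG0 hLE
  have hΛb : Bornology.IsBounded Λ₁ := bounded_GmI hG hLEb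
  have hΛc : (Λ₁ᶜ).Nonempty := by
    obtain ⟨z, hz⟩ := hLac
    exact ⟨Gm 2 G (P3 z), fun h => hz ((mem_GmI (Λ := LaE La) hG0).1 h)⟩
  set t : ℝ := min 1 (min (4 / 5 * e₀) (2 / 5 * ρ0)) with ht
  have ht0 : 0 < t := lt_min one_pos (lt_min (by positivity) (by positivity))
  have ht1 : t ≤ 1 := min_le_left _ _
  have hte : 5 / 4 * t ≤ e₀ := by
    have : t ≤ 4 / 5 * e₀ := (min_le_right _ _).trans (min_le_left _ _)
    linarith
  have htρ : 5 / 4 * t ≤ ρ0 / 2 := by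
    have : t ≤ 2 / 5 * ρ0 := (min_le_right _ _).trans (min_le_right _ _)
    linarith
  set w : EE (Fin 3) → ℝ := fun y => min (infDist y Λ₁ᶜ / 8) t with hwd
  have hw : Scale Λ₁ w := scale_inf hΛo hΛc ht0 ht1
  have hwt : ∀ y, w y ≤ t := fun y => min_le_right _ _
  -- the map
  set Ω : Set R3 := P3.symm ⁻¹' Om with hΩd
  have hΩ : IsOpen Ω := hOm.preimage P3.symm.continuous
  have hΩb : Bornology.IsBounded Ω := by
    have h1 : Ω = (P3 : E3 → R3) '' Om := by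
      ext y
      constructor
      · intro hy; exact ⟨P3.symm y, hy, P3.apply_symm_apply y⟩
      · rintro ⟨x, hx, rfl⟩
        show P3.symm (P3 x) ∈ Om
        rwa [P3.symm_apply_apply]
    rw [h1]
    exact (P3 : E3 →L[ℝ] R3).lipschitz.isBounded_image hOmb
  set f₁ : R3 → R3 := fun y => Gm 2 G (r3 f y) with hf₁
  set G₁ : Fin 3 → R3 → R3 := fun j y =>
    if j = 2 then G • row (D (P3.symm y)) 2 else row (D (P3.symm y)) j with hG₁
  have hsh₁ : SH p Ω Λ₁ f₁ G₁ := sh_Gm3 hp1 hOm hSH hG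
  set β' : ℝ := min (β / 4) (1 / 2) with hβ'
  have hβp : 0 < β' := lt_min (by positivity) (by norm_num)
  have hβ1 : β' ≤ 1 / 2 := min_le_right _ _
  have hβ4 : 4 * β' ≤ β := by
    have : β' ≤ β / 4 := min_le_left _ _
    linarith
  have hσ : (0:ℝ) < 1 / (2 * kF q) := by positivity
  obtain ⟨μ, κ, δ', s₁, hμ, hδ', hκle, hs₁, hs₁w, -, Hprep⟩ := prepT hβp hβ1 hp hΩ hΩb hΛo hΛb hsh₁ hw
    hκ₁ hκ₁' (κf := fun x => min (kf p θ (1 / (2 * kF q)) x) (kE x))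
    ((measurable_kf _ _ _).min hkm) (fun x hx => lt_min (kf_pos hθ hσ hx) (hkp x hx))
    (hf := fun _ => 1) continuousOn_const (fun _ _ => one_pos)
  obtain ⟨hE', hEc, hEp, h₁, hh₁, HB⟩ := HB r hr
  have hμc := hμ.cont
  obtain ⟨s₂, hs₂, hs₂'⟩ := Crest.Agent.R096.Toph_766.exists_s1 hΩ hΛo hsh₁.homeo hw
    (h := fun x => hE' (μ x)) (by fun_prop) (fun x hx => hEp _ (hμ.pos x hx))
  have hs₃ := scale_min2 hs₁ hs₂
  obtain ⟨rho, hρL, hρ1, hρ32, hρs⟩ := exists_rho hLa hLab hG hs₃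
  have hK'c : IsCompact (cthickening (2 * r) K₀) := hK.cthickening
  obtain ⟨s₀', hs₀', HF⟩ := exists_FrR hq hLE hLEb hK'c hrΛ (M := M) (by linarith) hρL hρ1 hρ32
  refine ⟨min s₀ (min s₀' (min (ρ0 / 2) h₁)), lt_min hs₀ (lt_min hs₀' (lt_min (by positivity) hh₁)),
    fun h hh hhh => ?_⟩
  have hh0 : h < s₀ := hhh.trans_le (min_le_left _ _)
  have hh0' : h < s₀' := hhh.trans_le ((min_le_right _ _).trans (min_le_left _ _))
  have hhρ : h < ρ0 / 2 :=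
    hhh.trans_le ((min_le_right _ _).trans ((min_le_right _ _).trans (min_le_left _ _)))
  have hhh₁ : h < h₁ :=
    hhh.trans_le ((min_le_right _ _).trans ((min_le_right _ _).trans (min_le_right _ _)))
  obtain ⟨hStP, HU⟩ := HU h hh hh0
  -- the collapse
  have hρc : Continuous rho := hρL.continuous
  have hrc : Continuous fun y : EE (Fin 3) =>
      1 / (8 * kF q) * min (2 * q * h) (rho (co (Gm 2 G⁻¹ y)) / 6) := by
    have h2 : Continuous fun y : EE (Fin 3) => rho (co (Gm 2 G⁻¹ y)) :=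
      hρc.comp (continuous_co.comp (continuous_Gm 2 G⁻¹))
    exact continuous_const.mul (continuous_const.min (h2.div_const 6))
  have hqp : (0:ℝ) < q := by exact_mod_cast hq
  obtain ⟨Phi, th, hCT, hthn, hthΛ, Hprep⟩ := Hprep
    (r := fun y : EE (Fin 3) => 1 / (8 * kF q) * min (2 * q * h) (rho (co (Gm 2 G⁻¹ y)) / 6))
    (fun y hy => loc_low hrc (by
      have h2 : 0 < rho (co (Gm 2 G⁻¹ y)) := (hρ1 _).2 ⟨_, mem_of_GmI hG0 hy, rfl⟩
      have h3 : 0 < min (2 * q * h) (rho (co (Gm 2 G⁻¹ y)) / 6) :=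
        lt_min (by positivity) (by positivity)
      positivity))
  have hthc : Continuous th := (hCT.lipschitz (by linarith)).continuous
  obtain ⟨a₀, ha₀, S, hS, hSe, X₀, hX₀O, hX₀m, hX₀v, hX₀K, HU⟩ := HU th hthc.continuousOn
    (fun y => (hthn y).trans (by
      have := hwt y
      linarith)) 0
  -- the strips
  set φ₂ : E3 → EE (Fin 3) := fun x => Gm 2 G⁻¹ (th (Gm 2 G (P3 (f x)))) with hφ₂
  have hφ₂c : ContinuousOn φ₂ Om :=
    (continuous_Gm 2 G⁻¹).comp_continuousOn (hthc.comp_continuousOn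
      ((continuous_Gm 2 G).comp_continuousOn hφc))
  have hφ₂m : ∀ i, AEMeasurable (fun x => φ₂ x i) (volume.restrict Om) := fun i =>
    (((EuclideanSpace.proj i).continuous.comp_continuousOn hφ₂c).aestronglyMeasurable
      hOm.measurableSet).aemeasurable
  obtain ⟨α, β₂, hα, hβ₂, hstrip⟩ := exists_translate (μ := (volume : Measure E3)) (Ω := Om)
    (φ := φ₂) hq hh hφ₂m a₀
  set a : Fin 3 → ℝ := fun i => a₀ i + h * (![(α : ℝ), β₂, 0] : Fin 3 → ℝ) i with ha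
  obtain ⟨F, hF, hFsz, hFlow⟩ := HF h hh hh0' a
  have bf : BoxFoam La F (dF q) (kF q) := bfOf hF
  have hcnt : Countable F := countable_brk hF.foam
  set lam : F → ℝ := fun c => lamU q Gn K₀ h (brk' bf c) with hlam
  have hl : ∀ c, 0 < lam c := fun c => lamU_pos (by linarith) _ _ _
  have hl512 : ∀ c, lam c ≤ 1 / 512 := fun c => lamU_le hGn1 _ _ _
  have hl4 : ∀ c, lam c ≤ 1 / 4 := fun c => (hl512 c).trans (by norm_num)
  have hllow : ∀ c, 1 / (512 * kF q * Gn) ≤ lam c := fun c => lamU_ge hGn1 _ _ _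
  set P : F → EE (Fin 3) := fun c => Gm 2 G (P3 (ctr c.1)) with hP
  set R : F → ℝ := fun c => c.1.sz / (8 * kF q) with hR
  obtain ⟨ho1, ho2, ho3, ho4, ho5⟩ := Crest.Agent.R096.Hok_358.holes_ok bf hG
  have hpos : ∀ c : F, c.1.Pos := fun c => bf.pos _ c.2
  have hszp : ∀ c : F, 0 < c.1.sz := fun c => Bx.sz_pos (hpos c)
  have hPs : ∀ c : F, c.1.sz ≤ min (s₁ (P c)) (s₂ (P c)) := fun c =>
    (hFsz c.1 c.2 _ (ctr_mem (hpos c))).trans (hρs (ctr c.1))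
  have hRsz : ∀ c : F, R c ≤ c.1.sz := fun c => div_le_self (hszp c).le (by linarith)
  obtain ⟨yc, ξ, Th, G', hol⟩ := Hprep P R ho1 (fun c => by
      have h1 := hFlow c.1 c.2 _ (ctr_mem (hpos c))
      have h2 : co (Gm 2 G⁻¹ (P c)) = ctr c.1 := by
        show co (Gm 2 G⁻¹ (Gm 2 G (P3 (ctr c.1)))) = _
        rw [Gm_Gm (inv_mul_cancel₀ hG0)]; rfl
      show 1 / (8 * kF q) * min (2 * q * h) (rho (co (Gm 2 G⁻¹ (P c))) / 6) ≤ c.1.sz / (8 * kF q)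
      rw [h2, one_div, inv_mul_eq_div]
      gcongr) (fun c => (hRsz c).trans ((hPs c).trans (min_le_left _ _))) ho3 ho4
    (τ := h / (16 * m)) (by positivity)
  -- (T4)
  have hK₀K' : K₀ ⊆ cthickening (2 * r) K₀ := self_subset_cthickening K₀
  have hU : ∀ c : F, Nr K₀ h (brk' bf c) → Uni 2 a₀ h (brk' bf c) := fun c hc =>
    uni_of_Nr hF (by linarith) hK₀K' c hc
  have hτ : ∀ y, h / (16 * m) * w y ≤ h / (16 * m) := fun y =>
    mul_le_of_le_one_right (by positivity) (hw.le_one y)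
  have hT4 := Crest.Agent.R096.Tau_764.T4_tau (k := (2 : Fin 3)) (a0 := kF q) hκ0 hm (K₀ := K₀)
    (Λ := LaE La) (a := a₀) hh (Q := brk' bf) hU (x := fun c => P3 (ctr c.1)) (P := P) (R := R)
    (fun c i => rfl) (fun c => rfl) (fun c i => ho5 c i) (T := Th) (th := th) (w := w)
    (τ := h / (16 * m)) (β := β) (β' := β') hβ4 hτ hol.tau hol.tloc
  obtain ⟨hXK, hEn⟩ := HU Th hol.lip (fun y => (hol.disp y).trans (by
      have := hwt y
      linarith)) hT4 F (brk' bf) (foam0' bf) (fun c i j => asp' bf c i j) hU (fun c => ctr c.1)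
    (holeN bf lam hl) (fun c => ctr_mid' bf c) (fun c => holeN_hole' bf lam hl hl4 (by positivity) c
      (by
        have := hllow c
        linarith)) (fun c hc => holeN_hole' bf lam hl hl4 (by positivity) c (by
        have h1 : lam c = 1 / (512 * kF q) := lamU_near hc
        rw [h1]))
  -- the Sobolev homeomorphism
  have hΩv : volume Ω ≠ ⊤ := hΩb.measure_lt_top.ne
  obtain ⟨G'', hsh2, hcol2, hcl⟩ := Crest.Agent.R096.Shc_816.sh_comp2 hΩ hΩv hol.sh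
    (H := SGh 2 G hG0 S) (Λ' := LaE La) (fun y => SGh_mem hG0 hS y) (K := 4) (by
      refine LipschitzWith.of_dist_le_mul fun y y' => ?_
      rw [dist_eq_norm, dist_eq_norm]
      show ‖S (Gm 2 G⁻¹ y) - S (Gm 2 G⁻¹ y')‖ ≤ _
      rw [hSe]
      exact SG_lipK hStP hG (GU_slope hκ0 hm) y y')
  have hnearξ : ∀ c : F, ‖f₁ (ξ c) - P c‖ ≤ w (P c) := by
    intro c
    have h1 := hol.near_good c
    have h2 := hol.near_P c
    have h3 := hs₁w (P c) (ho1 c)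
    have h4 : R c ≤ s₁ (P c) := (hRsz c).trans ((hPs c).trans (min_le_left _ _))
    have h5 := hw.nonneg (P c)
    have e : f₁ (ξ c) - P c = -(yc c - f₁ (ξ c)) - (P c - yc c) := by abel
    rw [e]
    refine (norm_sub_le _ _).trans ?_
    rw [norm_neg]
    linarith
  have hξΩ : ∀ c, ξ c ∈ Ω := fun c => (hol.ee c).1
  obtain ⟨A, hA⟩ := HB Om La hOm hOmb hLa hLab K₀ hK hKne hrΛ h hh hhh₁ hStP a₀ α β₂ S hS hSe M hM F hF
    f₁ G₁ β' w μ κ δ' th yc ξ Th G' (h / (16 * m)) hβp hβ1 hsh₁ hw hμ hδ' hol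
    (fun x hx => (hκle x hx).trans (min_le_right _ _))
    (fun c => (hPs c).trans ((min_le_right _ _).trans ((hs₂' (P c) (ho1 c)).2 _ (hξΩ c) (hnearξ c))))
    G'' hsh2 hcl
  -- the final map
  set f1 : E3 → E3 := fun x => co (S (Gm 2 G⁻¹ (Th (Gm 2 G (P3 (f x)))))) with hf1d
  have e1 : e3 (fun x => S (Gm 2 G⁻¹ (Th (f₁ x)))) = f1 := by
    funext x
    show P3.symm (S (Gm 2 G⁻¹ (Th (Gm 2 G (P3 (f (P3.symm (P3 x)))))))) = _
    rw [P3.symm_apply_apply]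
    rfl
  have hSH1 : SH3 p Om La f1 (D3 G'') := by
    have h1 := sh3_of hp1 hΩ hsh2
    have e2 : P3 ⁻¹' Ω = Om := symm_pre Om
    have e4 : P3 ⁻¹' (LaE La) = La := rfl
    rw [e2, e4] at h1
    rw [← e1]
    exact h1
  have hex : ∀ c, ExIn p Om f1 (D3 G'') a h κ1' κ2 c.1 (A c) (lam c) := fun c => by
    have h1 := (hA c).1
    rw [e1] at h1
    exact h1
  -- the enlarged cores
  set N : F → Set E3 := fun c => A c ⁻¹' cbx c.1 ((1 + 2 * κ2) * lam c) with hN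
  have hasp : ∀ c : F, ∀ i, c.1.sz ≤ kF q * c.1.side i := fun c i => bf.asp _ c.2 i
  have hNin : ∀ c x, x ∈ N c → x ∈ Om ∧ ∀ k, |f1 x k - ctr c.1 k| < c.1.side k / 2 := fun c x hx =>
    N_in (hex c) (hpos c) (hasp c) (hl c) ((hl512 c).trans (by norm_num)) hκ1p.le hκ1k hκ2.le hκ2' hx
  have hNd : Pairwise (Function.onFun Disjoint N) := by
    intro c c' hcc
    rw [Function.onFun, Set.disjoint_left]
    intro x hx hx'
    exact cores_disj bf hcc (hNin c x hx).2 (hNin c' x hx').2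
  have hKN : ∀ c : F, A c ⁻¹' cbx c.1 (lam c) ⊆ N c := by
    intro c x hx k
    refine (hx k).trans ?_
    have h1 := hl c
    have h2 := Bx.side_pos (hpos c) k
    have h3 : 0 ≤ κ2 * (lam c * c.1.side k) := by positivity
    nlinarith
  obtain ⟨hvN, hcs⟩ := blocks3 (p := p) hp1 (Gc := G) (C0 := C0) (lam0 := 1 / (512 * kF q * Gn))
    (θ := θ) (σ := 1 / (2 * kF q)) hG hC0 hlF hθ hσ hOm (D := D) (Ω := Ω) rfl (f₁ := f₁) (G₁ := G₁)
    (fun j => (hsh₁.memG j).1) (Eventually.of_forall fun x _ j => by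
      have h1 := hGD_of (D := D) G x j
      rw [← h1]
      show (if j = 2 then G • row (D (P3.symm (P3 x))) 2 else row (D (P3.symm (P3 x))) j) = _
      by_cases hj : j = 2
      · simp only [if_pos hj, Pi.smul_apply]
      · simp only [if_neg hj])
    (μ := μ) (κ := κ) (δ := δ') (fun x hx => hμ.pos x hx)
    (fun x hx => (hκle x hx).trans (min_le_left _ _)) (ξ := ξ) (t := fun c => P c - yc c) (P := P)
    (R := R) (sz := fun c => c.1.sz) (lam := lam) (A := A) (N := N)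
    (K := fun c => A c ⁻¹' cbx c.1 (lam c)) hol.ee hol.good ho2 (fun c => by
      show 4 * (c.1.sz / (8 * kF q)) ≤ 1 / (2 * kF q) * c.1.sz
      apply le_of_eq
      field_simp
      ring) (fun c => measurable_N _ _ _) hNd (fun c => (hA c).2.2.1)
    (fun c x hx => (hA c).2.2.2 x hx) hKN hllow (fun c => (hA c).2.1)
  -- the bad set
  set X : Set E3 := X₀ ∪ ⋃ c, N c with hX
  have hXO : X ⊆ Om := union_subset hX₀O (iUnion_subset fun c x hx => (hNin c x hx).1)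
  have hXm : MeasurableSet X := hX₀m.union (MeasurableSet.iUnion fun c => measurable_N _ _ _)
  have hXv : volume X ≤ d * volume Om := by
    calc volume X ≤ volume X₀ + volume (⋃ c, N c) := measure_union_le _ _
      _ ≤ d / 2 * volume Om + 2 * (δ * volume Om) :=
        add_le_add hX₀v (hvN.trans (mul_le_mul' le_rfl hdet))
      _ = (d / 2 + 2 * δ) * volume Om := by ring
      _ ≤ (d / 2 + d / 2) * volume Om := by gcongr
      _ = d * volume Om := by rw [ENNReal.add_halves]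
  have hnotX₀ : ∀ x ∈ Om \ X, x ∈ Om \ X₀ := fun x hx => ⟨hx.1, fun h => hx.2 (Or.inl h)⟩
  set ψ : E3 → EE (Fin 3) := fun x => Gm 2 G⁻¹ (Th (Gm 2 G (P3 (f x)))) with hψ
  obtain ⟨hψc, hψm, hψw⟩ := Crest.Agent.R096.Dcn3_635.phi_data hOm hS (φ := ψ) hSH1
  have hstrip' : (volume.restrict Om) (Strip q a h φ₂) ≤ 6 / (q : ℝ≥0∞) * volume Om := by
    refine hstrip.trans (le_of_eq ?_)
    simp only [div_eq_mul_inv]; ring
  obtain ⟨HH, g, hFC⟩ := Crest.Agent.R096.Dcn2_635.frontC_of2 hp1 hs hs2 (ε := ε) (ε' := ε') (d := d)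
    hqε hdε hd1 hcon hOm hLa hK'c hrΛ hF hM lam hl hl4 hψc hψm hψw hS
    (Crest.Agent.R096.Dcn3_635.hom3_f1 hSH.homeo hG (fun y => hol.mem y) hS) hXO hXm hXv
    (fun x hx => hK₀K' (hXK x (hnotX₀ x hx)).1)
    (Crest.Agent.R096.Dcn3_635.hXh_of bf lam hl hκ2.le hκ1p.le hκ1k hex
      (fun c => (subset_iUnion N c).trans subset_union_right))
    (fun x hx c hc => (hXK x (hnotX₀ x hx)).2 c hc)
    (φ₂ := φ₂) (fun x hx i => by
      have h1 := (hT4 (Gm 2 G (P3 (f x))) ⟨_, hφm hx.1, rfl⟩ (hX₀K x (hnotX₀ x hx)).2).1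
      have h2 : ‖ψ x - φ₂ x‖ ≤ h / (16 * m) := by
        show ‖Gm 2 G⁻¹ (Th (Gm 2 G (P3 (f x)))) - Gm 2 G⁻¹ (th (Gm 2 G (P3 (f x))))‖ ≤ _
        rw [Gm_sub]
        exact (norm_Gm_inv_le hG _).trans h1
      have h3 := Crest.Agent.R96.PnU_849.abs_le_norm (ψ x - φ₂ x) i
      rw [PiLp.sub_apply] at h3
      refine h3.trans (h2.trans ?_)
      apply div_le_div_of_nonneg_left hh.le (by norm_num)
      linarith)
    hstrip'
    (fun D' hD' => (hEn D' hD').trans (mul_le_mul' ENNReal.half_le_self le_rfl))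
  refine ⟨a, F, bf, hF.cmp, lam, hl, hl4, A, f1, D3 G'', X, HH, g, ?_⟩
  exact
    { c := hFC
      sh := hSH1
      near := fun x _ => (Crest.Agent.R096.Dcn3_635.near_f1 hG (t := 5 / 4 * t) (fun y =>
        (hol.disp y).trans (by
          have := hwt y
          linarith)) hS x).trans (by linarith)
      nb := Crest.Agent.R096.Dcn3_635.nb_f1 hLa hLac hG (Ct := 5 / 4) (by norm_num) hw hol.disp
        hh.le hS
      dy := hF.dy
      rat := fun c => ⟨hllow c, lamU_rat _ _ _ _ _⟩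
      ex := fun c => Crest.Agent.R096.Dcn3_635.exIn_mono (hl c).le (hszp c).le (min_le_left _ _)
        (hex c)
      XN := fun c => (subset_iUnion N c).trans subset_union_right
      cs := by
        refine (hcs s hs2).trans ?_
        calc _ ≤ C3 p G C0 (1 / (512 * kF q * Gn)) * (δ * volume Om +
              ENNReal.ofReal (∑ l, |s l| ^ p) * (δ * volume Om)) := by gcongr
          _ = C3 p G C0 (1 / (512 * kF q * Gn)) * (δ + ENNReal.ofReal (∑ l, |s l| ^ p) * δ) *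
              volume Om := by ring
          _ ≤ ε' * volume Om := by gcongr }

end Crest.Agent.R096.Frt_899
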