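import Crest.Agent.R096.Frt4_899
import Crest.Agent.R096.Bxn6_627

/-!
Row 96 (S0127), NO0 for `p ≥ 3`, [U4] (helper899), part 5: **`exists_front3`**, from 627's theorem on
one brick (`exIn_hol3`).
-/

set_option autoImplicit false
set_option linter.unusedSectionVars false
set_option linter.unusedVariables false
open Set Filter Topology MeasureTheory Metric
open scoped NNReal ENNReal

noncomputable section

namespace Crest.Agent.R096.Frt_899

open Crest.AnalysisR.VecCalc3 (R3)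
open Crest.Agent.R096.Brk5_582 Crest.Agent.R096.Bsp_628
open Crest.Agent.R096.Log1_582 Crest.Agent.R096.Log2_582
open Crest.Agent.R096.Log3_582 (isLog_side isLog_sz)
open Crest.Agent.R096.Dic6_582 Crest.Agent.R096.Dic7_582
open Crest.Agent.R096.ThC6_766 (Scale)
open Crest.Agent.R96.Push_899 (EE co continuous_co LaE isOpen_LaE co_image_LaE IsStretch SE Box Uni
  brk' brk Mid StP St cutf foam0' asp' bf_LaE brk_dist mem_SE_toBox mem_SE_brk cutf_eq_zero
  cutf_eq_one)
open Crest.Agent.R96.PnU_849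
open Crest.Agent.R96.En10_199 (P3)
open Crest.Agent.R096.SkC1_961 (E3 Hom3)
open Crest.Agent.R096.Bxs_627 (ctr HolT HolN exIn_hol3 dgf dgf_k dgf_ne NearS nearS_uni nearS_off msl
  ctr_lo ctr_hi)
open Crest.Agent.R096.EaX_766 (cbx lin RatA ExIn)
open Crest.Agent.R096.Npr_582 (bfOf cN)
open Crest.Agent.R096.Np_962
open Crest.Agent.R096.Er_594 (SH3 e3 r3 D3 row symm_pre sh3_of isOpen_symm_pre)
open Crest.Agent.R096.Sk_962 (SH)
open Crest.Agent.R96.Lu_538 (Gmat)
open Crest.Agent.R096.Osc_802 (cube)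
open Crest.Agent.R096.Toph_766 (Aff)
open Crest.Agent.R96.Str_520 (col)

theorem dgf_eq (k : Fin 3) (g : ℝ) : dgf k g = Gm k g := by
  funext y
  ext i
  by_cases hi : i = k
  · subst hi; rw [dgf_k, Gm_k]
  · rw [dgf_ne _ _ hi, Gm_ne _ hi]

theorem msl_eq (a0 : ℝ) (m : ℕ) : msl (ws m) (εU a0 m) = GU a0 m := by
  unfold msl GU
  ring

section near

variable {q m : ℕ} {La : Set E3} {K₀ : Set (EE (Fin 3))} {r h M : ℝ} {a₀ : Fin 3 → ℝ}
  {α β₂ : ℕ} {F : Set (Bx (Fin 3))}

/-- the centre of a brick -/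
theorem ctr_SE (bf : BoxFoam (co '' LaE La) F (dF q) (kF q)) (c : F) :
    P3 (ctr c.1) ∈ SE (brk bf c) := by
  rw [mem_SE_brk]
  exact ctr_mem (bf.pos c.1 c.2)

/-- points near the centre are in the brick -/
theorem mem_SE_of (bf : BoxFoam (co '' LaE La) F (dF q) (kF q)) (c : F) {y : EE (Fin 3)}
    (hy : ∀ i, |y i - P3 (ctr c.1) i| ≤ c.1.side i / 2) : y ∈ SE (brk bf c) := by
  rw [mem_SE_brk, Bx.mem_set]
  intro i
  have h1 := abs_le.1 (hy i)
  have h2 : P3 (ctr c.1) i = ctr c.1 i := rfl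
  have h3 := ctr_lo c.1 i
  have h4 := ctr_hi c.1 i
  have h5 : co y i = y i := rfl
  rw [h2] at h1
  rw [h5]
  constructor <;> linarith [h1.1, h1.2]

/-- **a brick which is no log is off the support of the cut-off** -/
theorem cutf_zero_of (hr : 0 < r) (hM : 1 < M) (hne : K₀.Nonempty)
    (hF : Fr q (LaE La) (cthickening (2 * r) K₀) M h
      (fun i => a₀ i + h * (![(α : ℝ), β₂, 0] : Fin 3 → ℝ) i) F) {c : F}
    (hc : ¬ IsLog q (fun i => a₀ i + h * (![(α : ℝ), β₂, 0] : Fin 3 → ℝ) i) h c.1)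
    {y : EE (Fin 3)} (hy : y ∈ SE (brk hF.foam c)) : cutf K₀ r y = 0 := by
  apply cutf_eq_zero hr
  by_contra hcon
  push Not at hcon
  apply hc
  obtain ⟨z, hz, hyz⟩ := (infDist_lt_iff hne).1 hcon
  exact hF.isLog hM hy (mem_cthickening_of_dist_le y z _ _ hz hyz.le)
    (by rw [sub_self, norm_zero]; exact hF.s0.le)

/-- **a brick near `K₀`**: the cut-off is `1` at the centre -/
theorem cutf_one_of (hr : 0 < r)
    (bf : BoxFoam (co '' LaE La) F (dF q) (kF q)) {c : F} (hsz : c.1.sz ≤ 2 * q * h)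
    (hh : (6 * q + 1) * h ≤ r) (hc : Nr K₀ h (brk bf c)) : cutf K₀ r (P3 (ctr c.1)) = 1 := by
  apply cutf_eq_one hr
  obtain ⟨y, hy, y₀, hy₀, hyy⟩ := hc
  refine (infDist_le_dist_of_mem hy₀).trans ?_
  have h1 := brk_dist bf hy (ctr_SE bf c)
  rw [Fintype.card_fin] at h1
  push_cast at h1
  have h2 := dist_triangle (P3 (ctr c.1)) y y₀
  rw [dist_eq_norm, dist_eq_norm] at h2
  have h3 : dist (P3 (ctr c.1)) y₀ ≤ 3 * c.1.sz + h := h2.trans (by
    rw [dist_eq_norm]; linarith)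
  nlinarith

end near

/-- **the theorem on one brick** (627's `exIn_hol3` for all bricks of a log foam) -/
theorem brickThm {p : ℝ} (hp : 3 ≤ p) : BrickThm p := by
  intro q m Gn hq hm hGn κ1 κ2 hκ1 hκ1a hκ1b hκ2 hκ2a
  have hkF := one_le_kF q
  have hkF0 : 0 < kF q := by linarith
  have hG1 : 1 ≤ GU (kF q) m := GU_ge hkF hm
  have hG0 : 0 < GU (kF q) m := by linarith
  have hGn1 : (1:ℝ) ≤ Gn := hG1.trans hGn
  have hGn0 : (0:ℝ) < Gn := by linarith
  have hws := ws_pos hm
  have hws8 := ws_le hm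
  have hGws := GU_ws hkF hm
  obtain ⟨κ₁, ca, cb, b1, b2, b3, b4, H⟩ := exIn_hol3 hp hkF (one_div_pos.2 hGn0) hκ1 hκ1a hκ2.le
    (by linarith : κ2 < 1 / 4)
  refine ⟨3, by norm_num, 1 / (Gn:ℝ) / (2048 * kF q ^ 2), by positivity, κ₁, b1,
    b2.trans (by norm_num), fun x => ca * x ^ (p + 6), by fun_prop,
    fun x hx => by positivity, ?_⟩
  intro r hr
  refine ⟨fun x => 8 * kF q * r * cb * x ^ 4, by fun_prop, fun x hx => by positivity,
    r / ((6 * q + 1) * (Gn:ℝ)), by positivity, ?_⟩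
  intro Om La hO hOb hLa hLab K₀ hK hne hKL h hh hhr hP a₀ α β₂ S hS hSt M hM F hF
    f₁ G₁ β' w μ κ δ th yc ξ Th G' τ hβ hβ' sh₁ hw hμ hδ hol hκ hsz G'' sh₂ hG''
  have hM1 : 1 < M := by linarith
  have hq1 : (1:ℝ) ≤ q := by exact_mod_cast hq
  have hh1 : (6 * q + 1) * (Gn * h) ≤ r := by
    rw [lt_div_iff₀ (by positivity)] at hhr
    linarith
  have hh2 : (6 * q + 1) * h ≤ r := by
    refine le_trans ?_ hh1
    gcongr
    nlinarith
  have hkq : 2 * (q:ℝ) ≤ kF q := le_max_right _ _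
  have hcont : ContinuousOn f₁ (P3.symm ⁻¹' Om) := by
    obtain ⟨_, -, -, -, -, h5, -⟩ := sh₁.homeo
    exact h5
  have key : ∀ c : F, ∃ A : E3 ≃ᵃ[ℝ] E3,
      ExIn p Om (e3 (fun x => S (Gm 2 (GU (kF q) m)⁻¹ (Th (f₁ x))))) (D3 G'')
        (fun i => a₀ i + h * (![(α : ℝ), β₂, 0] : Fin 3 → ℝ) i) h κ1 κ2 c.1 A
        (lamU q Gn K₀ h (brk' (bfOf hF) c)) ∧
      ‖lin A‖ ≤ 3 * ‖Gmat G₁ (ξ c)‖ ∧
      A ⁻¹' cbx c.1 ((1 + 2 * κ2) * lamU q Gn K₀ h (brk' (bfOf hF) c)) ⊆
        P3 ⁻¹' cube (ξ c) (4 * (c.1.sz / (8 * kF q)) / μ (ξ c)) ∧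
      ∀ x : E3, ‖Aff f₁ G₁ (ξ c) (Gm 2 (GU (kF q) m) (P3 (ctr c.1)) - yc c) (P3 x) -
          Gm 2 (GU (kF q) m) (P3 (ctr c.1))‖ ≤ 1 / (Gn:ℝ) / (2048 * kF q ^ 2) * c.1.sz →
        x ∈ A ⁻¹' cbx c.1 ((1 + 2 * κ2) * lamU q Gn K₀ h (brk' (bfOf hF) c)) := by
    intro c
    have hQ : c.1.Pos := hF.foam.pos c.1 c.2
    have hs := Bx.sz_pos hQ
    have hsz2 := hF.size c.1 c.2
    have asp : ∀ j, c.1.sz ≤ kF q * c.1.side j := hF.foam.asp c.1 c.2
    -- the slope of the brick
    set χ := cutf K₀ r with hχ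
    obtain ⟨γ, hγ0, hγG, hlam⟩ : ∃ γ : ℝ, 1 / (Gn:ℝ) ≤ γ ∧
        γ * GU (kF q) m ≤ 1 + χ (P3 (ctr c.1)) * (GU (kF q) m - 1) ∧
        lamU q Gn K₀ h (brk' (bfOf hF) c) = γ / (512 * kF q) := by
      by_cases hN : Nr K₀ h (brk' (bfOf hF) c)
      · refine ⟨1, ?_, ?_, ?_⟩
        · rw [div_le_one hGn0]; exact hGn1
        · rw [hχ, cutf_one_of hr hF.foam hsz2 hh2 hN]; linarith
        · unfold lamU
          rw [if_pos hN]
      · refine ⟨1 / (Gn:ℝ), le_rfl, ?_, ?_⟩
        · have h1 : 1 / (Gn:ℝ) * GU (kF q) m ≤ 1 := by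
            rw [one_div, inv_mul_le_iff₀ hGn0, mul_one]; exact hGn
          have h2 := mul_nonneg (hP.χ0 (P3 (ctr c.1))) (sub_nonneg.2 hG1)
          linarith
        · unfold lamU
          rw [if_neg hN]
          field_simp
    -- the radius of the map
    obtain ⟨ρ, hρ0, hNS, hρ1, hρ2⟩ : ∃ ρ : ℝ, 0 < ρ ∧
        NearS 2 S χ (GU (kF q) m) (P3 (ctr c.1)) (c.1.sz / (8 * kF q) / 16) ρ ∧
        c.1.sz / (8 * kF q) / 16 < GU (kF q) m * ρ ∧
        GU (kF q) m * (1 / r) * (ρ + c.1.sz / (8 * kF q) / 16) ≤ 1 / 2 := by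
      have hR : c.1.sz / (8 * kF q) / 16 ≤ h / 128 := by
        rw [div_div, div_le_div_iff₀ (by positivity) (by norm_num)]
        have h1 : c.1.sz ≤ kF q * h := hsz2.trans (by gcongr)
        linarith
      by_cases hlog : IsLog q (fun i => a₀ i + h * (![(α : ℝ), β₂, 0] : Fin 3 → ℝ) i) h c.1
      · have hU : Uni 2 a₀ h (brk hF.foam c) := uni_translate (hF.uni_of_log hlog)
        obtain ⟨N, hN⟩ := uni_mid hU
        refine ⟨ws m * h, by positivity, ?_, ?_, ?_⟩
        · rw [hSt, ← msl_eq]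
          refine nearS_uni hP (by linarith) (N := N) ?_ _
          have h1 : P3 (ctr c.1) 2 = ((brk hF.foam c).lo 2 + (brk hF.foam c).hi 2) / 2 := rfl
          rw [h1, hN]
          rfl
        · have : 0.49 * h ≤ GU (kF q) m * (ws m * h) := by
            rw [← mul_assoc]; gcongr
          linarith
        · have h1 : ws m * h ≤ 1 / 8 * h := by gcongr
          have h2 : GU (kF q) m * h ≤ r / 7 := by
            have h3 : GU (kF q) m * h ≤ Gn * h := by gcongr
            have h4 : 7 * (Gn * h) ≤ (6 * q + 1) * (Gn * h) := by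
              gcongr
              linarith
            linarith
          have h5 : GU (kF q) m * (1 / r) * (ws m * h + c.1.sz / (8 * kF q) / 16) ≤
              GU (kF q) m * (1 / r) * (1 / 8 * h + h / 128) := by gcongr
          refine h5.trans ?_
          have h6 : GU (kF q) m * (1 / r) * (1 / 8 * h + h / 128) =
              (GU (kF q) m * h) / r * (17 / 128) := by ring
          rw [h6]
          have h7 : (GU (kF q) m * h) / r ≤ 1 / 7 := by
            rw [div_le_iff₀ hr]; linarith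
          linarith
      · have hside : ∀ j, c.1.sz / (8 * kF q) ≤ c.1.side j / 8 := by
          intro j
          rw [div_le_div_iff₀ (by positivity) (by norm_num)]
          have := asp j
          linarith
        refine ⟨c.1.sz / (8 * kF q) / 8, by positivity, ?_, ?_, ?_⟩
        · rw [hSt]
          refine nearS_off hP _ ?_
          intro y hy1 hy2
          refine cutf_zero_of hr hM1 hne hF hlog (mem_SE_of hF.foam c fun i => ?_)
          have h1 := hside i
          have h2 := Bx.side_pos hQ i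
          by_cases hi : i = 2
          · subst hi
            refine hy2.trans ?_
            linarith
          · refine (hy1 i hi).trans ?_
            linarith
        · have h1 : 0 < c.1.sz / (8 * kF q) := by positivity
          nlinarith
        · have h1 : c.1.sz / (8 * kF q) / 8 ≤ h / 64 := by linarith
          have h2 : GU (kF q) m * h ≤ r / 7 := by
            have h3 : GU (kF q) m * h ≤ Gn * h := by gcongr
            have h4 : 7 * (Gn * h) ≤ (6 * q + 1) * (Gn * h) := by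
              gcongr
              linarith
            linarith
          have h5 : GU (kF q) m * (1 / r) * (c.1.sz / (8 * kF q) / 8 + c.1.sz / (8 * kF q) / 16) ≤
              GU (kF q) m * (1 / r) * (h / 64 + h / 128) := by gcongr
          refine h5.trans ?_
          have h6 : GU (kF q) m * (1 / r) * (h / 64 + h / 128) =
              (GU (kF q) m * h) / r * (3 / 128) := by ring
          rw [h6]
          have h7 : (GU (kF q) m * h) / r ≤ 1 / 7 := by
            rw [div_le_iff₀ hr]; linarith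
          linarith
    have hsz3 := hsz c
    simp only at hsz3
    obtain ⟨A, c1, c2, c3, c4⟩ := H le_rfl (isOpen_symm_pre hO) hcont hμ hκ hol.toHolN
      (k := 2) (S := S) (χ := χ) (G := GU (kF q) m) (L := 1 / r) hG1 hP.χ0 hP.χ1 hP.hL0 hP.hL
      (G2 := G'') (by rw [dgf_eq]; exact hG'') c hQ asp (γ := γ) (ρ := ρ) (by positivity) rfl
      (by rw [dgf_eq]) hγ0 hγG hNS hρ1 hρ2 (by
        have e1 : μ (ξ c) ^ (4:ℝ) = μ (ξ c) ^ 4 := by
          rw [← Real.rpow_natCast]; norm_num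
        rw [e1]
        have e2 : 1 / r * (c.1.sz / (8 * kF q)) = c.1.sz / (8 * kF q * r) := by
          field_simp
        rw [e2, div_le_iff₀ (by positivity)]
        linarith)
      (fun i => a₀ i + h * (![(α : ℝ), β₂, 0] : Fin 3 → ℝ) i) hh
    rw [dgf_eq, symm_pre] at c1
    rw [hlam]
    exact ⟨A, c1, c4, fun x hx => (c2 x hx).2, c3⟩
  choose A hA using key
  exact ⟨A, hA⟩

/-- **[U4]: the front of NO0, `p ≥ 3`** -/
theorem exists_front3 {p : ℝ} (hp : 3 ≤ p) : ExFront3 p := exists_front3_of hp (brickThm hp)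

end Crest.Agent.R096.Frt_899
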