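import Crest.Agent.R096.No2_276
import Crest.Agent.R096.SkN1_477
import Crest.Agent.R096.Sk1_962

/-!
# Row 96, NO0 (N4) (helper168): FACE -> SLICE

On a square of side `r` of the slice the map is `(b₀ + σ₁ v₁, b₁ + σ₂ v₂, b₂)` up to a `τ`-Lipschitz
error, `v₁`, `v₂` = weighted labels of the two families (in the unit frame), with the `L^p` bounds
`FaceOut` of 477's `SkN1`.  Then the two derivatives of the slice are close to `s_i e_i` in `L^p`.
-/

set_option autoImplicit false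
set_option linter.unusedSectionVars false

open Set Function MeasureTheory Filter Topology Metric
open scoped ENNReal NNReal

namespace Crest.Agent.R096.Fs_168

open Crest.Agent.R096.Sq_477 (sl Dp)
open Crest.Agent.R096.No_276 (sq osq isOpen_osq measurableSet_osq sq_ae volume_osq)
open Crest.Agent.R096.Sk_962 (LL)
open Crest.Agent.R096.SkC1_961 (E3)

noncomputable section

abbrev E2 : Type := Fin 2 → ℝ

/-- the corner of the square -/
def cor (a : E2) (r : ℝ) (q : Fin 2 → ℤ) : E2 := fun i => a i + r * q i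

/-- the unit coordinates of the square -/
def unt (a : E2) (r : ℝ) (q : Fin 2 → ℤ) (y : E2) : E2 := r⁻¹ • (y - cor a r q)

/-- the open unit square -/
def usqo : Set E2 := {y : E2 | ∀ j, 0 < y j ∧ y j < 1}

theorem unt_preimage (a : E2) {r : ℝ} (hr : 0 < r) (q : Fin 2 → ℤ) :
    unt a r q ⁻¹' usqo = osq a r q := by
  ext y
  simp only [mem_preimage, usqo, mem_ofPred_eq, osq, unt, Pi.smul_apply, Pi.sub_apply, cor,
    smul_eq_mul]
  refine forall_congr' fun j => ?_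
  rw [← div_eq_inv_mul, div_lt_one hr, div_pos_iff_of_pos_right hr]
  constructor
  · rintro ⟨h1, h2⟩; constructor <;> nlinarith
  · rintro ⟨h1, h2⟩; constructor <;> nlinarith

theorem map_unt (a : E2) {r : ℝ} (hr : 0 < r) (q : Fin 2 → ℤ) :
    Measure.map (unt a r q) volume = ENNReal.ofReal (r ^ 2) • (volume : Measure E2) := by
  have h1 : unt a r q = (fun y : E2 => r⁻¹ • y) ∘ (fun y : E2 => y - cor a r q) := rfl
  rw [h1, ← Measure.map_map (by fun_prop) (by fun_prop),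
    (measurePreserving_sub_right (volume : Measure E2) (cor a r q)).map_eq,
    Measure.map_addHaar_smul volume (inv_ne_zero hr.ne')]
  congr 2
  rw [Module.finrank_fin_fun, abs_of_pos (by positivity)]
  rw [inv_pow, inv_inv]

/-- change of variables to the unit square -/
theorem lint_unt (a : E2) {r : ℝ} (hr : 0 < r) (q : Fin 2 → ℤ) (H : E2 → ℝ≥0∞) :
    ∫⁻ y in osq a r q, H (unt a r q y) = ENNReal.ofReal (r ^ 2) * ∫⁻ y in usqo, H y := by
  have he : MeasurableEmbedding (unt a r q) := by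
    have h1 : MeasurableEmbedding (fun y : E2 => y - cor a r q) :=
      (Homeomorph.subRight (cor a r q)).measurableEmbedding
    have h2 : MeasurableEmbedding (fun y : E2 => r⁻¹ • y) :=
      (Homeomorph.smulOfNeZero r⁻¹ (inv_ne_zero hr.ne')).measurableEmbedding
    exact h2.comp h1
  rw [← unt_preimage a hr q]
  have h3 : ∫⁻ y in unt a r q ⁻¹' usqo, H (unt a r q y) =
      ∫⁻ y in usqo, H y ∂(Measure.map (unt a r q) volume) := by
    rw [he.restrict_map, he.lintegral_map]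
  rw [h3, map_unt a hr q, Measure.restrict_smul, lintegral_smul_measure, smul_eq_mul]

/-- `(a+b+c)^p ≤ 3^p (a^p + b^p + c^p)` -/
theorem rpow_add3 {p : ℝ} (hp : 0 < p) (a b c : ℝ≥0∞) :
    (a + b + c) ^ p ≤ 3 ^ p * (a ^ p + b ^ p + c ^ p) := by
  have h1 : a + b + c ≤ 3 * max (max a b) c := by
    have ha : a ≤ max (max a b) c := (le_max_left _ _).trans (le_max_left _ _)
    have hb : b ≤ max (max a b) c := (le_max_right _ _).trans (le_max_left _ _)
    have hc : c ≤ max (max a b) c := le_max_right _ _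
    calc a + b + c ≤ max (max a b) c + max (max a b) c + max (max a b) c :=
          add_le_add (add_le_add ha hb) hc
      _ = 3 * max (max a b) c := by ring
  calc (a + b + c) ^ p ≤ (3 * max (max a b) c) ^ p := ENNReal.rpow_le_rpow h1 hp.le
    _ = 3 ^ p * (max (max a b) c) ^ p := ENNReal.mul_rpow_of_nonneg _ _ hp.le
    _ ≤ 3 ^ p * (a ^ p + b ^ p + c ^ p) := by
        gcongr
        rcases max_choice (max a b) c with h | h
        · rw [h]
          rcases max_choice a b with h' | h'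
          · rw [h']; exact le_self_add.trans le_self_add
          · rw [h']; exact le_add_self.trans le_self_add
        · rw [h]; exact le_add_self

/-- the model map -/
def mdl (b : E3) (σ1 σ2 : ℝ) (w1 w2 : E2 → ℝ) (y : E2) : E3 :=
  ![b 0 + σ1 * w1 y, b 1 + σ2 * w2 y, b 2]

theorem single_apply_le (D : E2 →L[ℝ] ℝ) (i : Fin 2) : |D (Pi.single i 1)| ≤ ‖D‖ := by
  have := D.le_opNorm (Pi.single i (1 : ℝ))
  rwa [Pi.norm_single, norm_one, mul_one, Real.norm_eq_abs] at this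

theorem hasFDerivAt_mdl {σ1 σ2 : ℝ} {b : E3} {w1 w2 : E2 → ℝ} {y : E2} {D1 D2 : E2 →L[ℝ] ℝ}
    (hw1 : HasFDerivAt w1 D1 y) (hw2 : HasFDerivAt w2 D2 y) :
    HasFDerivAt (mdl b σ1 σ2 w1 w2)
      (ContinuousLinearMap.pi (![σ1 • D1, σ2 • D2, (0 : E2 →L[ℝ] ℝ)] : Fin 3 → (E2 →L[ℝ] ℝ))) y := by
  rw [hasFDerivAt_pi']
  intro k
  have hk : k = 0 ∨ k = 1 ∨ k = 2 := by revert k; decide
  rcases hk with rfl | rfl | rfl
  · exact (hw1.const_mul σ1).const_add (b 0)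
  · exact (hw2.const_mul σ2).const_add (b 1)
  · exact hasFDerivAt_const (b 2) y

theorem norm_le3 {w : E3} {C : ℝ} (h0 : |w 0| ≤ C) (h1 : |w 1| ≤ C) (h2 : |w 2| ≤ C) : ‖w‖ ≤ C := by
  rw [pi_norm_le_iff_of_nonneg ((abs_nonneg _).trans h0)]
  intro k
  have hk : k = 0 ∨ k = 1 ∨ k = 2 := by revert k; decide
  rcases hk with rfl | rfl | rfl
  · exact h0
  · exact h1
  · exact h2

/-- coordinates of the defect -/
theorem defect {a' : Fin 2 → ℝ} {σ1 σ2 r : ℝ} (hr : 0 < r) (hσ1 : σ1 = 1 ∨ σ1 = -1)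
    (hσ2 : σ2 = 1 ∨ σ2 = -1) (V1 V2 : E2 →L[ℝ] ℝ) (i : Fin 2) (m : E3)
    (m0 : m 0 = σ1 * (r⁻¹ * V1 (Pi.single i 1))) (m1 : m 1 = σ2 * (r⁻¹ * V2 (Pi.single i 1)))
    (m2 : m 2 = 0) :
    ‖m - Pi.single ((2 : Fin 3).succAbove i) (a' i / r)‖ ≤
      r⁻¹ * ‖V1 - (σ1 * a' 0) • ContinuousLinearMap.proj (R := ℝ) (φ := fun _ : Fin 2 => ℝ) 0‖ +
      r⁻¹ * ‖V2 - (σ2 * a' 1) • ContinuousLinearMap.proj (R := ℝ) (φ := fun _ : Fin 2 => ℝ) 1‖ := by
  have hs1 : σ1 * σ1 = 1 := by rcases hσ1 with h | h <;> rw [h] <;> norm_num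
  have hs2 : σ2 * σ2 = 1 := by rcases hσ2 with h | h <;> rw [h] <;> norm_num
  have ha1 : |σ1| = 1 := by rcases hσ1 with h | h <;> rw [h] <;> norm_num
  have ha2 : |σ2| = 1 := by rcases hσ2 with h | h <;> rw [h] <;> norm_num
  have hr0 : 0 ≤ r⁻¹ := by positivity
  set X1 := V1 - (σ1 * a' 0) • ContinuousLinearMap.proj (R := ℝ) (φ := fun _ : Fin 2 => ℝ) 0 with hX1
  set X2 := V2 - (σ2 * a' 1) • ContinuousLinearMap.proj (R := ℝ) (φ := fun _ : Fin 2 => ℝ) 1 with hX2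
  have hX1n : 0 ≤ r⁻¹ * ‖X1‖ := mul_nonneg hr0 (norm_nonneg _)
  have hX2n : 0 ≤ r⁻¹ * ‖X2‖ := mul_nonneg hr0 (norm_nonneg _)
  have x1 : X1 (Pi.single i 1) = V1 (Pi.single i 1) - σ1 * a' 0 * (Pi.single i (1 : ℝ) : E2) 0 := rfl
  have x2 : X2 (Pi.single i 1) = V2 (Pi.single i 1) - σ2 * a' 1 * (Pi.single i (1 : ℝ) : E2) 1 := rfl
  have b1 : |σ1 * (r⁻¹ * X1 (Pi.single i 1))| ≤ r⁻¹ * ‖X1‖ := by
    rw [abs_mul, ha1, one_mul, abs_mul, abs_of_nonneg hr0]
    exact mul_le_mul_of_nonneg_left (single_apply_le X1 i) hr0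
  have b2 : |σ2 * (r⁻¹ * X2 (Pi.single i 1))| ≤ r⁻¹ * ‖X2‖ := by
    rw [abs_mul, ha2, one_mul, abs_mul, abs_of_nonneg hr0]
    exact mul_le_mul_of_nonneg_left (single_apply_le X2 i) hr0
  have hall : ∀ i : Fin 2, i = 0 ∨ i = 1 := by decide
  rcases hall i with rfl | rfl
  · have e20 : (2 : Fin 3).succAbove 0 = 0 := by decide
    rw [e20]
    rw [Pi.single_eq_same, mul_one] at x1
    rw [Pi.single_eq_of_ne (by decide), mul_zero, sub_zero] at x2
    refine norm_le3 ?_ ?_ ?_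
    · rw [Pi.sub_apply, Pi.single_eq_same, m0]
      have : σ1 * (r⁻¹ * V1 (Pi.single 0 1)) - a' 0 / r = σ1 * (r⁻¹ * X1 (Pi.single 0 1)) := by
        have h1 : a' 0 / r = (σ1 * σ1) * (a' 0 / r) := by rw [hs1, one_mul]
        rw [x1, h1]; ring
      rw [this]; linarith
    · rw [Pi.sub_apply, Pi.single_eq_of_ne (by decide), sub_zero, m1, ← x2]; linarith
    · rw [Pi.sub_apply, Pi.single_eq_of_ne (by decide), sub_zero, m2, abs_zero]; linarith
  · have e21 : (2 : Fin 3).succAbove 1 = 1 := by decide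
    rw [e21]
    rw [Pi.single_eq_of_ne (by decide), mul_zero, sub_zero] at x1
    rw [Pi.single_eq_same, mul_one] at x2
    refine norm_le3 ?_ ?_ ?_
    · rw [Pi.sub_apply, Pi.single_eq_of_ne (by decide), sub_zero, m0, ← x1]; linarith
    · rw [Pi.sub_apply, Pi.single_eq_same, m1]
      have : σ2 * (r⁻¹ * V2 (Pi.single 1 1)) - a' 1 / r = σ2 * (r⁻¹ * X2 (Pi.single 1 1)) := by
        have h1 : a' 1 / r = (σ2 * σ2) * (a' 1 / r) := by rw [hs2, one_mul]
        rw [x2, h1]; ring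
      rw [this]; linarith
    · rw [Pi.sub_apply, Pi.single_eq_of_ne (by decide), sub_zero, m2, abs_zero]; linarith

/-- pointwise bound at a point where everything is differentiable -/
theorem pointwise {a' : Fin 2 → ℝ} {σ1 σ2 r τ : ℝ} (hr : 0 < r) (hσ1 : σ1 = 1 ∨ σ1 = -1)
    (hσ2 : σ2 = 1 ∨ σ2 = -1) {b : E3} {w1 w2 : E2 → ℝ} {h : E2 → E3} {y : E2}
    {D1 D2 V1 V2 : E2 →L[ℝ] ℝ} {Dh : E2 →L[ℝ] E3}
    (hw1 : HasFDerivAt w1 D1 y) (hw2 : HasFDerivAt w2 D2 y) (hh : HasFDerivAt h Dh y)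
    (hV1 : D1 = r⁻¹ • V1) (hV2 : D2 = r⁻¹ • V2) {O : Set E2} (hO : O ∈ 𝓝 y) {τ' : ℝ≥0}
    (hτ : (τ' : ℝ) = τ)
    (herr : LipschitzOnWith τ' (fun z => h z - mdl b σ1 σ2 w1 w2 z) O) (i : Fin 2) :
    ‖Dp h i y - Pi.single ((2 : Fin 3).succAbove i) (a' i / r)‖ ≤
      r⁻¹ * ‖V1 - (σ1 * a' 0) • ContinuousLinearMap.proj (R := ℝ) (φ := fun _ : Fin 2 => ℝ) 0‖ +
      r⁻¹ * ‖V2 - (σ2 * a' 1) • ContinuousLinearMap.proj (R := ℝ) (φ := fun _ : Fin 2 => ℝ) 1‖ +
      τ := by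
  have hmd := hasFDerivAt_mdl (b := b) (σ1 := σ1) (σ2 := σ2) hw1 hw2
  obtain ⟨M, hMd, M0, M1, M2⟩ : ∃ M : E2 →L[ℝ] E3, HasFDerivAt (mdl b σ1 σ2 w1 w2) M y ∧
      M (Pi.single i 1) 0 = σ1 * D1 (Pi.single i 1) ∧
      M (Pi.single i 1) 1 = σ2 * D2 (Pi.single i 1) ∧ M (Pi.single i 1) 2 = 0 :=
    ⟨_, hmd, rfl, rfl, rfl⟩
  clear hmd
  have herr' : HasFDerivAt (fun z => h z - mdl b σ1 σ2 w1 w2 z) (Dh - M) y := hh.sub hMd
  have hbound : ‖Dh - M‖ ≤ τ := by
    rw [← herr'.fderiv, ← hτ]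
    exact norm_fderiv_le_of_lipschitzOn ℝ hO herr
  have hDp : Dp h i y = (Dh - M) (Pi.single i 1) + M (Pi.single i 1) := by
    have e1 : Dp h i y = Dh (Pi.single i 1) := by
      unfold Dp
      rw [hh.fderiv]
    have e2 : (Dh - M) (Pi.single i (1 : ℝ)) = Dh (Pi.single i 1) - M (Pi.single i 1) := rfl
    rw [e1, e2, sub_add_cancel]
  have h1 : ‖(Dh - M) (Pi.single i 1)‖ ≤ τ := by
    have := (Dh - M).le_opNorm (Pi.single i (1 : ℝ))
    rw [Pi.norm_single, norm_one, mul_one] at this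
    exact this.trans hbound
  have hV1' : D1 (Pi.single i 1) = r⁻¹ * V1 (Pi.single i 1) := by rw [hV1]; rfl
  have hV2' : D2 (Pi.single i 1) = r⁻¹ * V2 (Pi.single i 1) := by rw [hV2]; rfl
  rw [hV1'] at M0
  rw [hV2'] at M1
  have hmain := defect (a' := a') hr hσ1 hσ2 V1 V2 i (M (Pi.single i 1)) M0 M1 M2
  rw [hDp, add_sub_assoc]
  refine (norm_add_le _ _).trans ?_
  linarith [h1, hmain]

/-- derivative of `v ∘ unt` -/
theorem fderiv_unt {v : E2 → ℝ} {a : E2} {r : ℝ} (hr : 0 < r) {q : Fin 2 → ℤ} {y : E2}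
    {D : E2 →L[ℝ] ℝ} (h : HasFDerivAt (fun z => v (unt a r q z)) D y) :
    D = r⁻¹ • fderiv ℝ v (unt a r q y) := by
  have h1 : HasFDerivAt (fun z : E2 => cor a r q + r • z) (r • ContinuousLinearMap.id ℝ E2)
      (unt a r q y) := ((hasFDerivAt_id _).const_smul r).const_add _
  have hback : ∀ z : E2, unt a r q (cor a r q + r • z) = z := by
    intro z
    unfold unt
    rw [add_sub_cancel_left, smul_smul, inv_mul_cancel₀ hr.ne', one_smul]
  have hy : cor a r q + r • unt a r q y = y := by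
    unfold unt
    rw [smul_smul, mul_inv_cancel₀ hr.ne', one_smul]; abel
  have h' : HasFDerivAt (fun z => v (unt a r q z)) D (cor a r q + r • unt a r q y) := by
    rw [hy]; exact h
  have h2 := h'.comp (unt a r q y) h1
  have h3 : ((fun z => v (unt a r q z)) ∘ fun z : E2 => cor a r q + r • z) = v := by
    funext z
    simp only [comp_apply, hback]
  rw [h3] at h2
  rw [h2.fderiv]
  ext z
  simp [hr.ne']

/-- **FACE -> SLICE, abstract form.** -/
theorem face_slice {p : ℝ} (hp : 1 ≤ p) {r : ℝ} (hr : 0 < r) {a : E2} {q : Fin 2 → ℤ}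
    {h : E2 → E3} {v1 v2 : E2 → ℝ} {b : E3} {a' : Fin 2 → ℝ} {σ1 σ2 τ e μ : ℝ}
    (hσ1 : σ1 = 1 ∨ σ1 = -1) (hσ2 : σ2 = 1 ∨ σ2 = -1) (hτ : 0 ≤ τ) (he : 0 ≤ e) (hμ : 0 ≤ μ)
    (hh : LL h (osq a r q))
    (herr : ∀ y ∈ osq a r q, ∀ y' ∈ osq a r q,
      ‖(h y - mdl b σ1 σ2 (fun z => v1 (unt a r q z)) (fun z => v2 (unt a r q z)) y) -
        (h y' - mdl b σ1 σ2 (fun z => v1 (unt a r q z)) (fun z => v2 (unt a r q z)) y')‖ ≤
        τ * ‖y - y'‖)
    (h1 : ∫⁻ y in usqo, ‖fderiv ℝ v1 y -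
      (σ1 * a' 0) • ContinuousLinearMap.proj (R := ℝ) (φ := fun _ : Fin 2 => ℝ) 0‖ₑ ^ p ≤
        ENNReal.ofReal (e * μ ^ p))
    (h2 : ∫⁻ y in usqo, ‖fderiv ℝ v2 y -
      (σ2 * a' 1) • ContinuousLinearMap.proj (R := ℝ) (φ := fun _ : Fin 2 => ℝ) 1‖ₑ ^ p ≤
        ENNReal.ofReal (e * μ ^ p)) (i : Fin 2) :
    ∫⁻ y in sq a r q, ‖Dp h i y - Pi.single ((2 : Fin 3).succAbove i) (a' i / r)‖ₑ ^ p ≤
      ENNReal.ofReal (3 ^ p * (2 * (e * (μ / r) ^ p) + τ ^ p) * r ^ 2) := by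
  have hp0 : 0 < p := by linarith
  set w1 : E2 → ℝ := fun z => v1 (unt a r q z) with hw1
  set w2 : E2 → ℝ := fun z => v2 (unt a r q z) with hw2
  set τ' : ℝ≥0 := ⟨τ, hτ⟩ with hτ'
  have hLip : LipschitzOnWith τ' (fun z => h z - mdl b σ1 σ2 w1 w2 z) (osq a r q) :=
    LipschitzOnWith.of_dist_le_mul fun y hy y' hy' => by
      rw [dist_eq_norm, dist_eq_norm]; exact herr y hy y' hy'
  -- the model is locally Lipschitz
  have hmdl : LL (mdl b σ1 σ2 w1 w2) (osq a r q) := by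
    intro x hx
    obtain ⟨ρ, hρ, C, hC⟩ := hh x hx
    obtain ⟨ρ', hρ', hb'⟩ := Metric.isOpen_iff.1 (isOpen_osq a r q) x hx
    refine ⟨min ρ ρ', lt_min hρ hρ', C + τ', ?_⟩
    have e1 : mdl b σ1 σ2 w1 w2 = fun z => h z - (h z - mdl b σ1 σ2 w1 w2 z) := by
      funext z; abel
    rw [e1]
    exact (hC.mono (ball_subset_ball (min_le_left _ _))).sub
      (hLip.mono ((ball_subset_ball (min_le_right _ _)).trans hb'))
  have hcomp : ∀ k : Fin 3, LL (fun z => mdl b σ1 σ2 w1 w2 z k) (osq a r q) := by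
    intro k x hx
    obtain ⟨ρ, hρ, C, hC⟩ := hmdl x hx
    refine ⟨ρ, hρ, C, LipschitzOnWith.of_dist_le_mul fun y hy z hz => ?_⟩
    refine le_trans ?_ (hC.dist_le_mul y hy z hz)
    exact dist_le_pi_dist _ _ k
  have hs : ∀ {σ : ℝ}, (σ = 1 ∨ σ = -1) → σ * σ = 1 := by
    intro σ h; rcases h with h | h <;> rw [h] <;> norm_num
  have hww : ∀ {σ β : ℝ} {w : E2 → ℝ} (_ : σ = 1 ∨ σ = -1),
      LL (fun z => β + σ * w z) (osq a r q) → LL w (osq a r q) := by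
    intro σ β w hσ hL x hx
    obtain ⟨ρ, hρ, C, hC⟩ := hL x hx
    refine ⟨ρ, hρ, C, LipschitzOnWith.of_dist_le_mul fun y hy z hz => ?_⟩
    have h3 := hC.dist_le_mul y hy z hz
    rw [Real.dist_eq] at h3 ⊢
    have h4 : β + σ * w y - (β + σ * w z) = σ * (w y - w z) := by ring
    rw [h4, abs_mul] at h3
    have h5 : |σ| = 1 := by rcases hσ with h | h <;> rw [h] <;> norm_num
    rwa [h5, one_mul] at h3
  have hLw1 : LL w1 (osq a r q) := hww hσ1 (hcomp 0)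
  have hLw2 : LL w2 (osq a r q) := hww hσ2 (hcomp 1)
  have hae : ∀ᵐ y ∂(volume.restrict (osq a r q)),
      ‖Dp h i y - Pi.single ((2 : Fin 3).succAbove i) (a' i / r)‖ₑ ^ p ≤
      3 ^ p * (ENNReal.ofReal (r⁻¹ ^ p) * (‖fderiv ℝ v1 (unt a r q y) - (σ1 * a' 0) •
          ContinuousLinearMap.proj (R := ℝ) (φ := fun _ : Fin 2 => ℝ) 0‖ₑ ^ p) +
        ENNReal.ofReal (r⁻¹ ^ p) * (‖fderiv ℝ v2 (unt a r q y) - (σ2 * a' 1) •
          ContinuousLinearMap.proj (R := ℝ) (φ := fun _ : Fin 2 => ℝ) 1‖ₑ ^ p) +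
        ENNReal.ofReal (τ ^ p)) := by
    rw [ae_restrict_iff' (measurableSet_osq a r q)]
    filter_upwards [hh.ae_diff (μ := volume), hLw1.ae_diff (μ := volume),
      hLw2.ae_diff (μ := volume)] with y d0 d1 d2 hy
    have k0 := (d0 hy).hasFDerivAt
    have k1 := (d1 hy).hasFDerivAt
    have k2 := (d2 hy).hasFDerivAt
    have hpt := pointwise (a' := a') hr hσ1 hσ2 (b := b) k1 k2 k0 (fderiv_unt hr k1)
      (fderiv_unt hr k2) ((isOpen_osq a r q).mem_nhds hy) (τ' := τ') rfl hLip i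
    have hr0 : 0 ≤ r⁻¹ := by positivity
    set X1 := fderiv ℝ v1 (unt a r q y) - (σ1 * a' 0) •
          ContinuousLinearMap.proj (R := ℝ) (φ := fun _ : Fin 2 => ℝ) 0 with hX1
    set X2 := fderiv ℝ v2 (unt a r q y) - (σ2 * a' 1) •
          ContinuousLinearMap.proj (R := ℝ) (φ := fun _ : Fin 2 => ℝ) 1 with hX2
    have hen : ‖Dp h i y - Pi.single ((2 : Fin 3).succAbove i) (a' i / r)‖ₑ ≤
        ENNReal.ofReal r⁻¹ * ‖X1‖ₑ + ENNReal.ofReal r⁻¹ * ‖X2‖ₑ + ENNReal.ofReal τ := by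
      rw [← ofReal_norm, ← ofReal_norm X1, ← ofReal_norm X2, ← ENNReal.ofReal_mul hr0,
        ← ENNReal.ofReal_mul hr0, ← ENNReal.ofReal_add (by positivity) (by positivity),
        ← ENNReal.ofReal_add (by positivity) hτ]
      exact ENNReal.ofReal_le_ofReal hpt
    refine (ENNReal.rpow_le_rpow hen hp0.le).trans ((rpow_add3 hp0 _ _ _).trans (le_of_eq ?_))
    rw [ENNReal.mul_rpow_of_nonneg _ _ hp0.le, ENNReal.mul_rpow_of_nonneg _ _ hp0.le,
      ENNReal.ofReal_rpow_of_nonneg hr0 hp0.le, ENNReal.ofReal_rpow_of_nonneg hτ hp0.le]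
  rw [← setLIntegral_congr (sq_ae a hr.le q)]
  refine (lintegral_mono_ae hae).trans ?_
  -- measurability
  have m1 : Measurable fun y : E2 => ‖fderiv ℝ v1 (unt a r q y) - (σ1 * a' 0) •
      ContinuousLinearMap.proj (R := ℝ) (φ := fun _ : Fin 2 => ℝ) 0‖ₑ ^ p := by
    have hu : Measurable (unt a r q) := by
      have : Continuous (unt a r q) := by unfold unt; fun_prop
      exact this.measurable
    exact (((measurable_fderiv ℝ v1).comp hu).sub_const _).enorm.pow_const p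
  have m2 : Measurable fun y : E2 => ‖fderiv ℝ v2 (unt a r q y) - (σ2 * a' 1) •
      ContinuousLinearMap.proj (R := ℝ) (φ := fun _ : Fin 2 => ℝ) 1‖ₑ ^ p := by
    have hu : Measurable (unt a r q) := by
      have : Continuous (unt a r q) := by unfold unt; fun_prop
      exact this.measurable
    exact (((measurable_fderiv ℝ v2).comp hu).sub_const _).enorm.pow_const p
  rw [lintegral_const_mul _ (by fun_prop), lintegral_add_left (by fun_prop),
    lintegral_add_left (by fun_prop), lintegral_const_mul _ m1, lintegral_const_mul _ m2,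
    lint_unt a hr q (fun y => ‖fderiv ℝ v1 y - (σ1 * a' 0) •
      ContinuousLinearMap.proj (R := ℝ) (φ := fun _ : Fin 2 => ℝ) 0‖ₑ ^ p),
    lint_unt a hr q (fun y => ‖fderiv ℝ v2 y - (σ2 * a' 1) •
      ContinuousLinearMap.proj (R := ℝ) (φ := fun _ : Fin 2 => ℝ) 1‖ₑ ^ p)]
  simp only [lintegral_const, Measure.restrict_apply, MeasurableSet.univ, univ_inter]
  rw [volume_osq a hr.le q]
  have h3 : (3 : ℝ≥0∞) ^ p = ENNReal.ofReal (3 ^ p) := by
    rw [← ENNReal.ofReal_rpow_of_nonneg (by norm_num) hp0.le]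
    norm_num
  calc 3 ^ p * (ENNReal.ofReal (r⁻¹ ^ p) * (ENNReal.ofReal (r ^ 2) * ∫⁻ y in usqo,
          ‖fderiv ℝ v1 y - (σ1 * a' 0) •
            ContinuousLinearMap.proj (R := ℝ) (φ := fun _ : Fin 2 => ℝ) 0‖ₑ ^ p) +
        ENNReal.ofReal (r⁻¹ ^ p) * (ENNReal.ofReal (r ^ 2) * ∫⁻ y in usqo,
          ‖fderiv ℝ v2 y - (σ2 * a' 1) •
            ContinuousLinearMap.proj (R := ℝ) (φ := fun _ : Fin 2 => ℝ) 1‖ₑ ^ p) +
        ENNReal.ofReal (τ ^ p) * ENNReal.ofReal (r ^ 2))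
      ≤ ENNReal.ofReal (3 ^ p) * (ENNReal.ofReal (r⁻¹ ^ p) * (ENNReal.ofReal (r ^ 2) *
          ENNReal.ofReal (e * μ ^ p)) +
        ENNReal.ofReal (r⁻¹ ^ p) * (ENNReal.ofReal (r ^ 2) * ENNReal.ofReal (e * μ ^ p)) +
        ENNReal.ofReal (τ ^ p) * ENNReal.ofReal (r ^ 2)) := by
          rw [h3]; gcongr
    _ = ENNReal.ofReal (3 ^ p * (2 * (e * (μ / r) ^ p) + τ ^ p) * r ^ 2) := by
        have hμp : 0 ≤ μ ^ p := Real.rpow_nonneg hμ p
        have hτp : 0 ≤ τ ^ p := Real.rpow_nonneg hτ p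
        have hrp : 0 ≤ r⁻¹ ^ p := Real.rpow_nonneg (by positivity) p
        have h3p : (0 : ℝ) ≤ 3 ^ p := by positivity
        rw [← ENNReal.ofReal_mul (by positivity), ← ENNReal.ofReal_mul (by positivity),
          ← ENNReal.ofReal_mul (by positivity), ← ENNReal.ofReal_add (by positivity) (by positivity),
          ← ENNReal.ofReal_add (by positivity) (by positivity), ← ENNReal.ofReal_mul (by positivity)]
        congr 1
        have e1 : (μ / r) ^ p = r⁻¹ ^ p * μ ^ p := by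
          rw [div_eq_inv_mul, Real.mul_rpow (by positivity) hμ]
        rw [e1]; ring

end

end Crest.Agent.R096.Fs_168
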