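import Crest.Agent.R096.Fs1_168
import Crest.Agent.R096.No0_477

/-!
# Row 96, NO0-L2 (helper168): FACE -> SLICE on one pure square (477 #10235 (L2))

`faceIn_of_pure` : PURE(τ) + QF + cnt + osc + clo ⟹ `FaceIn`.
`slice_of_face` : `FaceOut` + QF + clo ⟹ the `L^p` estimate of the slice.
`L2` : both together, from the individual clauses; `L2_out` : from `OutNO` and `NOGeo`.
-/

set_option autoImplicit false
set_option linter.unusedSectionVars false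
set_option linter.style.longLine false

open Set Function MeasureTheory Filter Topology Metric
open scoped ENNReal NNReal

namespace Crest.Agent.R096.Fs_168

open Crest.Agent.R096.Bsp_628 Crest.Agent.R096.Brk1_582 Crest.Agent.R096.Brk3_582
open Crest.Agent.R096.Brk5_582
open Crest.Agent.R096.Msh_715
open Crest.Agent.R096.SkN1_477 (emb usq side corner FaceIn FaceOut wlab OutNO FaceD Par)
open Crest.Agent.R096.No0_477 (vx fr fr_apply fr_symm_apply cub mf frN DsN QF Vw NOGeo)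
open Crest.Agent.R096.Sq_477 (sl Dp measurable_Dp)
open Crest.Agent.R096.No_276 (sq osq isOpen_osq measurableSet_osq sq_ae volume_osq)
open Crest.Agent.R096.Sk_962 (LL)
open Crest.Agent.R096.SkC1_961 (E3 FoamD)

noncomputable section

variable {δ κ0 R c0 : ℝ} {La Om : Set E3} {ι : Type}

/-! ### points of the square -/

theorem emb0 (y : E2) : emb y 0 = y 0 := rfl
theorem emb1 (y : E2) : emb y 1 = y 1 := rfl
theorem emb2 (y : E2) : emb y 2 = 0 := rfl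

theorem symm_emb (w : E3) {r : ℝ} (hr : r ≠ 0) (y : E2) :
    (fr w r hr).symm (emb y) = w + r • emb y := fr_symm_apply w hr _

theorem sq_mem_cub {w : E3} {r : ℝ} (hr : 0 < r) {y : E2} (hy : ∀ j, 0 ≤ y j ∧ y j ≤ 1) :
    w + r • emb y ∈ cub w r := by
  intro k
  have hk : k = 0 ∨ k = 1 ∨ k = 2 := by revert k; decide
  rcases hk with rfl | rfl | rfl
  · show w 0 ≤ w 0 + r * emb y 0 ∧ w 0 + r * emb y 0 ≤ w 0 + r
    rw [emb0]
    have := hy 0
    constructor <;> nlinarith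
  · show w 1 ≤ w 1 + r * emb y 1 ∧ w 1 + r * emb y 1 ≤ w 1 + r
    rw [emb1]
    have := hy 1
    constructor <;> nlinarith
  · show w 2 ≤ w 2 + r * emb y 2 ∧ w 2 + r * emb y 2 ≤ w 2 + r
    rw [emb2]
    constructor <;> nlinarith

theorem usq_sub {w : E3} {r : ℝ} (hr : 0 < r) : usq (fr w r hr.ne') ⊆ cub w r := by
  rintro x ⟨y, hy, hx⟩
  have h1 : x = w + r • emb y := by
    rw [← symm_emb w hr.ne', hx, AffineEquiv.symm_apply_apply]
  rw [h1]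
  exact sq_mem_cub hr hy

theorem side_sub {w : E3} {r : ℝ} (hr : 0 < r) {j : Fin 2} {b : ℝ} (hb : b = 0 ∨ b = 1) :
    side (fr w r hr.ne') j b ⊆ cub w r := by
  rintro x ⟨y, ⟨h0, h1, h2⟩, hx⟩
  have h3 : x = w + r • emb y := by
    rw [← symm_emb w hr.ne', hx, AffineEquiv.symm_apply_apply]
  rw [h3]
  refine sq_mem_cub hr fun k => ?_
  have hall : ∀ k j : Fin 2, k = j ∨ k = 1 - j := by decide
  rcases hall k j with rfl | rfl
  · exact ⟨h0, h1⟩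
  · rw [h2]; rcases hb with rfl | rfl <;> norm_num

/-- the end point `t` of the side `j` at height `b` -/
def ep (j : Fin 2) (b t : ℝ) : E2 := fun i => if i = j then t else b

theorem ep_mem_side {w : E3} {r : ℝ} (hr : 0 < r) {j : Fin 2} {b t : ℝ} (ht : t = 0 ∨ t = 1) :
    w + r • emb (ep j b t) ∈ side (fr w r hr.ne') j b := by
  refine ⟨ep j b t, ⟨?_, ?_, ?_⟩, ?_⟩
  · simp only [ep, if_true]; rcases ht with rfl | rfl <;> norm_num
  · simp only [ep, if_true]; rcases ht with rfl | rfl <;> norm_num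
  · have : (1 - j) ≠ j := by revert j; decide
    simp [ep, this]
  · rw [← symm_emb w hr.ne', AffineEquiv.apply_symm_apply]

theorem corner_eq {w : E3} {r : ℝ} (hr : 0 < r) (α β : ℝ) :
    corner (fr w r hr.ne') α β = w + r • emb ![α, β] := symm_emb w hr.ne' _

theorem ep0 (b t : ℝ) : ep 0 b t = ![t, b] := by
  funext i
  have hi : i = 0 ∨ i = 1 := by revert i; decide
  rcases hi with rfl | rfl <;> simp [ep]

theorem ep1 (b t : ℝ) : ep 1 b t = ![b, t] := by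
  funext i
  have hi : i = 0 ∨ i = 1 := by revert i; decide
  rcases hi with rfl | rfl <;> simp [ep]

theorem dist_ep {w : E3} {r : ℝ} (hr : 0 < r) (j : Fin 2) (b : ℝ) :
    ‖(w + r • emb (ep j b 1)) - (w + r • emb (ep j b 0))‖ ≤ r := by
  rw [add_sub_add_left_eq_sub, ← smul_sub, norm_smul, Real.norm_eq_abs, abs_of_pos hr]
  have h1 : ‖emb (ep j b 1) - emb (ep j b 0)‖ ≤ 1 := by
    refine norm_le3 ?_ ?_ ?_
    · rw [Pi.sub_apply, emb0, emb0]
      unfold ep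
      split_ifs <;> simp
    · rw [Pi.sub_apply, emb1, emb1]
      unfold ep
      split_ifs <;> simp
    · rw [Pi.sub_apply, emb2, emb2]; simp
  nlinarith

/-! ### counts on one side -/

/-- two families in the initial weight -/
theorem two_le_Vw (Φ : FoamD δ κ0 R c0 La) (f : E3 → E3) (κ : Φ.F → ℕ) (L : Φ.F → Finset ℝ)
    {A : Set E3} {n : Φ.F → ℝ} (hn0 : ∀ c, 0 ≤ n c)
    (hcnt : ∀ S : Finset Φ.F, ENNReal.ofReal (∑ c ∈ S, n c * (2 : ℝ)⁻¹ ^ κ c) ≤ Vw Φ f κ L A)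
    {c1 c2 : Φ.F} (hne : c1 ≠ c2) {V : ℝ} (hV0 : 0 ≤ V) (hV : Vw Φ f κ L A ≤ ENNReal.ofReal V) :
    n c1 * (2 : ℝ)⁻¹ ^ κ c1 + n c2 * (2 : ℝ)⁻¹ ^ κ c2 ≤ V := by
  classical
  have h3 := (hcnt {c1, c2}).trans hV
  rw [Finset.sum_pair hne] at h3
  exact (ENNReal.ofReal_le_ofReal_iff hV0).1 h3

/-- the estimates on one side: `ca` = the family of the direction, `cb` = the other one -/
theorem side_est {r s τ tol e' η S1 W1 W2 D : ℝ} (hr : 0 < r) (hτ : 0 ≤ τ) (he' : 0 ≤ e')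
    (htol : 0 ≤ tol) (hs : 0 ≤ s) (hη : 2 * τ + tol + e' * (s + τ) ≤ η * S1)
    (hW2 : 0 ≤ W2) (hV : W1 + W2 ≤ r * (s + τ)) (hD1 : D ≤ (1 + e') * W1)
    (hD : r * (s - τ) - tol * r ≤ D) :
    W1 ≤ s * r + η * (S1 * r) ∧ s * r - η * (S1 * r) ≤ D ∧ W2 ≤ η * (S1 * r) := by
  have h0 : (2 * τ + tol + e' * (s + τ)) * r ≤ η * S1 * r := mul_le_mul_of_nonneg_right hη hr.le
  have h1 : W1 ≤ r * (s + τ) := by linarith
  have h2 : e' * W1 ≤ e' * (r * (s + τ)) := mul_le_mul_of_nonneg_left h1 he'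
  have h3 : 0 ≤ e' * (s + τ) * r := by positivity
  have h4 : 0 ≤ tol * r := by positivity
  have h5 : 0 ≤ τ * r := by positivity
  refine ⟨?_, ?_, ?_⟩
  · nlinarith
  · nlinarith
  · nlinarith

/-- **PURE ⟹ FaceIn** -/
theorem faceIn_of_pure {Φ : FoamD δ κ0 R c0 La} {κ : Φ.F → ℕ} {L : Φ.F → Finset ℝ} {f g : E3 → E3}
    {u : E3 → Φ.F → ℝ} {n : Set E3 → Φ.F → ℝ} {w : E3} {r : ℝ} (hr : 0 < r)
    {c1 c2 : Φ.F} {σ1 σ2 ww : ℝ} {b : E3} (hQ : QF Φ κ L u (cub w r) c1 c2 σ1 σ2 ww b)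
    {s : Fin 3 → ℝ} (hs : ∀ i, 0 ≤ s i) {τ tol e' η S1 ε : ℝ} (hτ : 0 ≤ τ) (htol : 0 ≤ tol)
    (he' : 0 ≤ e') (hη : ∀ j : Fin 2, 2 * τ + tol + e' * (s j.castSucc + τ) ≤ η * S1)
    (hε : ε ≤ η * S1) (hk1 : (2 : ℝ)⁻¹ ^ κ c1 ≤ ε * r) (hk2 : (2 : ℝ)⁻¹ ^ κ c2 ≤ ε * r)
    (hclo : ∀ x ∈ cub w r, ∀ y ∈ cub w r,
      ‖(g x - Brk1_582.T (bc (F := Φ.F)) (u x)) - (g y - Brk1_582.T (bc (F := Φ.F)) (u y))‖
        ≤ tol * ‖x - y‖)
    (hn0 : ∀ A c, 0 ≤ n A c)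
    (hcnt : ∀ (j : Fin 2) (b : ℝ), b = 0 ∨ b = 1 → ∀ S : Finset Φ.F,
      ENNReal.ofReal (∑ c ∈ S, n (side (fr w r hr.ne') j b) c * (2 : ℝ)⁻¹ ^ κ c) ≤
        Vw Φ f κ L (side (fr w r hr.ne') j b))
    (hosc : ∀ (j : Fin 2) (b : ℝ), b = 0 ∨ b = 1 → ∀ c,
      ∀ y ∈ side (fr w r hr.ne') j b, ∀ y' ∈ side (fr w r hr.ne') j b,
        |u y c - u y' c| * (L c).card ≤ (1 + e') * n (side (fr w r hr.ne') j b) c)
    (hV : ∀ (j : Fin 2) (b : ℝ), b = 0 ∨ b = 1 →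
      Vw Φ f κ L (side (fr w r hr.ne') j b) ≤ ENNReal.ofReal (r * (s j.castSucc + τ)))
    (hD : ∀ (j : Fin 2) (b : ℝ), b = 0 ∨ b = 1 → r * (s j.castSucc - τ) ≤
      (g (w + r • emb (ep j b 1)) - g (w + r • emb (ep j b 0))) j.castSucc) :
    FaceIn Φ κ L u n η (S1 * r) (fun j => s j.castSucc * r) (fr w r hr.ne') c1 c2 σ1 σ2 := by
  have hkk : ∀ c, 0 < (2 : ℝ)⁻¹ ^ κ c := fun c => by positivity
  -- the displacement of the label
  have hlab : ∀ (j : Fin 2) (b' : ℝ), b' = 0 ∨ b' = 1 →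
      r * (s j.castSucc - τ) - tol * r ≤
        (Brk1_582.T (bc (F := Φ.F)) (u (w + r • emb (ep j b' 1))) -
          Brk1_582.T (bc (F := Φ.F)) (u (w + r • emb (ep j b' 0)))) j.castSucc := by
    intro j b' hb'
    have m1 := side_sub hr hb' (ep_mem_side (w := w) (j := j) (b := b') hr (t := 1) (Or.inr rfl))
    have m0 := side_sub hr hb' (ep_mem_side (w := w) (j := j) (b := b') hr (t := 0) (Or.inl rfl))
    have h1 := hclo _ m1 _ m0
    have h2 := (norm_le_pi_norm ((g (w + r • emb (ep j b' 1)) -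
      Brk1_582.T (bc (F := Φ.F)) (u (w + r • emb (ep j b' 1)))) -
      (g (w + r • emb (ep j b' 0)) -
      Brk1_582.T (bc (F := Φ.F)) (u (w + r • emb (ep j b' 0))))) j.castSucc).trans h1
    have h3 : tol * ‖(w + r • emb (ep j b' 1)) - (w + r • emb (ep j b' 0))‖ ≤ tol * r :=
      mul_le_mul_of_nonneg_left (dist_ep hr j b') htol
    have h4 := h2.trans h3
    rw [Real.norm_eq_abs, abs_le] at h4
    have h5 := hD j b' hb'
    simp only [Pi.sub_apply] at h4 h5 ⊢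
    linarith [h4.2]
  have e0 : (0 : Fin 2).castSucc = (0 : Fin 3) := rfl
  have e1 : (1 : Fin 2).castSucc = (1 : Fin 3) := rfl
  have hform0 : ∀ y ∈ cub w r, Brk1_582.T (bc (F := Φ.F)) (u y) 0 = b 0 + σ1 * ww * u y c1 := by
    intro y hy
    rw [hQ.form y hy]
    simp
  have hform1 : ∀ y ∈ cub w r, Brk1_582.T (bc (F := Φ.F)) (u y) 1 = b 1 + σ2 * ww * u y c2 := by
    intro y hy
    rw [hQ.form y hy]
    simp
  have ha1 : |σ1| = 1 := by rcases hQ.sg1 with h | h <;> rw [h] <;> norm_num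
  have ha2 : |σ2| = 1 := by rcases hQ.sg2 with h | h <;> rw [h] <;> norm_num
  -- one side
  have key : ∀ (j : Fin 2) (b' : ℝ), b' = 0 ∨ b' = 1 → ∀ (ca cb : Φ.F) (σ : ℝ), ca ≠ cb →
      |σ| = 1 → ((L ca).card * (2 : ℝ)⁻¹ ^ κ ca = ww) →
      (Brk1_582.T (bc (F := Φ.F)) (u (w + r • emb (ep j b' 1))) -
          Brk1_582.T (bc (F := Φ.F)) (u (w + r • emb (ep j b' 0)))) j.castSucc =
        σ * (u (w + r • emb (ep j b' 1)) ca - u (w + r • emb (ep j b' 0)) ca) * ww →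
      n (side (fr w r hr.ne') j b') ca * (2 : ℝ)⁻¹ ^ κ ca ≤ s j.castSucc * r + η * (S1 * r) ∧
      s j.castSucc * r - η * (S1 * r) ≤
        σ * (u (w + r • emb (ep j b' 1)) ca - u (w + r • emb (ep j b' 0)) ca) * ww ∧
      n (side (fr w r hr.ne') j b') cb * (2 : ℝ)⁻¹ ^ κ cb ≤ η * (S1 * r) := by
    intro j b' hb' ca cb σ hcc hσ hww hT
    have h1 := two_le_Vw Φ f κ L (hn0 _) (hcnt j b' hb') hcc
      (mul_nonneg hr.le (add_nonneg (hs _) hτ)) (hV j b' hb')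
    have h2 := hlab j b' hb'
    rw [hT] at h2
    have h3 := hosc j b' hb' ca _ (ep_mem_side (w := w) (j := j) (b := b') hr (t := 1) (Or.inr rfl))
      _ (ep_mem_side (w := w) (j := j) (b := b') hr (t := 0) (Or.inl rfl))
    have h4 : σ * (u (w + r • emb (ep j b' 1)) ca - u (w + r • emb (ep j b' 0)) ca) * ww ≤
        (1 + e') * (n (side (fr w r hr.ne') j b') ca * (2 : ℝ)⁻¹ ^ κ ca) := by
      have h5 : σ * (u (w + r • emb (ep j b' 1)) ca - u (w + r • emb (ep j b' 0)) ca) ≤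
          |u (w + r • emb (ep j b' 1)) ca - u (w + r • emb (ep j b' 0)) ca| := by
        refine (le_abs_self _).trans (le_of_eq ?_)
        rw [abs_mul, hσ, one_mul]
      calc σ * (u (w + r • emb (ep j b' 1)) ca - u (w + r • emb (ep j b' 0)) ca) * ww
          ≤ |u (w + r • emb (ep j b' 1)) ca - u (w + r • emb (ep j b' 0)) ca| * ww :=
            mul_le_mul_of_nonneg_right h5 hQ.w0.le
        _ = (|u (w + r • emb (ep j b' 1)) ca - u (w + r • emb (ep j b' 0)) ca| * (L ca).card) *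
            (2 : ℝ)⁻¹ ^ κ ca := by rw [← hww]; ring
        _ ≤ ((1 + e') * n (side (fr w r hr.ne') j b') ca) * (2 : ℝ)⁻¹ ^ κ ca :=
            mul_le_mul_of_nonneg_right h3 (hkk _).le
        _ = _ := by ring
    exact side_est hr hτ he' htol (hs _) (hη j) (mul_nonneg (hn0 _ _) (hkk _).le) h1 h4 h2
  have hx : ∀ (j : Fin 2) (b' t : ℝ), b' = 0 ∨ b' = 1 → t = 0 ∨ t = 1 →
      w + r • emb (ep j b' t) ∈ cub w r := fun j b' t hb' ht =>
    side_sub hr hb' (ep_mem_side hr ht)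
  have k0 : ∀ b' : ℝ, b' = 0 ∨ b' = 1 → _ := fun b' hb' =>
    key 0 b' hb' c1 c2 σ1 hQ.ne ha1 hQ.w1 (by
      rw [Pi.sub_apply, e0, hform0 _ (hx 0 b' 1 hb' (Or.inr rfl)),
        hform0 _ (hx 0 b' 0 hb' (Or.inl rfl))]
      ring)
  have k1 : ∀ b' : ℝ, b' = 0 ∨ b' = 1 → _ := fun b' hb' =>
    key 1 b' hb' c2 c1 σ2 hQ.ne.symm ha2 hQ.w2 (by
      rw [Pi.sub_apply, e1, hform1 _ (hx 1 b' 1 hb' (Or.inr rfl)),
        hform1 _ (hx 1 b' 0 hb' (Or.inl rfl))]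
      ring)
  refine ⟨hQ.ne, ?_, ?_, ?_, hQ.sg1, hQ.sg2, ?_, ?_, ?_, ?_⟩
  · intro c h1 h2 y hy y' hy'
    exact hQ.oth c h1 h2 y (usq_sub hr hy) y' (usq_sub hr hy')
  · calc (2 : ℝ)⁻¹ ^ κ c1 ≤ ε * r := hk1
      _ ≤ η * S1 * r := mul_le_mul_of_nonneg_right hε hr.le
      _ = η * (S1 * r) := by ring
  · calc (2 : ℝ)⁻¹ ^ κ c2 ≤ ε * r := hk2
      _ ≤ η * S1 * r := mul_le_mul_of_nonneg_right hε hr.le
      _ = η * (S1 * r) := by ring
  · intro b' hb'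
    have h := k0 b' hb'
    refine ⟨h.1, ?_⟩
    rw [corner_eq hr, corner_eq hr, ← ep0, ← ep0, hQ.w1]
    exact h.2.1
  · intro b' hb'
    have h := k1 b' hb'
    refine ⟨h.1, ?_⟩
    rw [corner_eq hr, corner_eq hr, ← ep1, ← ep1, hQ.w2]
    exact h.2.1
  · intro b' hb'
    exact (k1 b' hb').2.2
  · intro b' hb'
    exact (k0 b' hb').2.2

/-! ### the slice -/

/-- the lower corner of the square in the plane -/
def lc (w : E3) : E2 := fun j => w j.castSucc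

theorem insert_eq_pt (w : E3) {r : ℝ} (hr : 0 < r) (y : E2) :
    (2 : Fin 3).insertNth (α := fun _ => ℝ) (w 2) y = w + r • emb (unt (lc w) r 0 y) := by
  have h : ∀ j : Fin 2, r * unt (lc w) r 0 y j = y j - w j.castSucc := by
    intro j
    simp only [unt, cor, lc, Pi.smul_apply, Pi.sub_apply, smul_eq_mul, Pi.zero_apply, Int.cast_zero,
      mul_zero, add_zero]
    rw [← mul_assoc, mul_inv_cancel₀ hr.ne', one_mul]
  funext k
  have hk : k = 0 ∨ k = 1 ∨ k = 2 := by revert k; decide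
  rcases hk with rfl | rfl | rfl
  · have e1 : (2 : Fin 3).insertNth (α := fun _ => ℝ) (w 2) y 0 = y 0 := by
      have : (0 : Fin 3) = (2 : Fin 3).succAbove 0 := by decide
      rw [this, Fin.insertNth_apply_succAbove]
    rw [e1, Pi.add_apply, Pi.smul_apply, smul_eq_mul, emb0, h 0]
    show y 0 = w 0 + (y 0 - w 0); ring
  · have e1 : (2 : Fin 3).insertNth (α := fun _ => ℝ) (w 2) y 1 = y 1 := by
      have : (1 : Fin 3) = (2 : Fin 3).succAbove 1 := by decide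
      rw [this, Fin.insertNth_apply_succAbove]
    rw [e1, Pi.add_apply, Pi.smul_apply, smul_eq_mul, emb1, h 1]
    show y 1 = w 1 + (y 1 - w 1); ring
  · rw [Fin.insertNth_apply_same, Pi.add_apply, Pi.smul_apply, emb2]; simp

theorem norm_insert_sub (c : ℝ) (y y' : E2) :
    ‖(2 : Fin 3).insertNth (α := fun _ => ℝ) c y - (2 : Fin 3).insertNth (α := fun _ => ℝ) c y'‖ =
      ‖y - y'‖ := by
  have h0 : ∀ z : E2, (2 : Fin 3).insertNth (α := fun _ => ℝ) c z 0 = z 0 := by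
    intro z
    have : (0 : Fin 3) = (2 : Fin 3).succAbove 0 := by decide
    rw [this, Fin.insertNth_apply_succAbove]
  have h1 : ∀ z : E2, (2 : Fin 3).insertNth (α := fun _ => ℝ) c z 1 = z 1 := by
    intro z
    have : (1 : Fin 3) = (2 : Fin 3).succAbove 1 := by decide
    rw [this, Fin.insertNth_apply_succAbove]
  apply le_antisymm
  · refine norm_le3 ?_ ?_ ?_
    · rw [Pi.sub_apply, h0, h0]; exact norm_le_pi_norm (y - y') 0
    · rw [Pi.sub_apply, h1, h1]; exact norm_le_pi_norm (y - y') 1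
    · rw [Pi.sub_apply, Fin.insertNth_apply_same, Fin.insertNth_apply_same, sub_self, abs_zero]
      exact norm_nonneg _
  · rw [pi_norm_le_iff_of_nonneg (norm_nonneg _)]
    intro i
    have hi : i = 0 ∨ i = 1 := by revert i; decide
    rcases hi with rfl | rfl
    · have := norm_le_pi_norm ((2 : Fin 3).insertNth (α := fun _ => ℝ) c y -
        (2 : Fin 3).insertNth (α := fun _ => ℝ) c y') 0
      rwa [Pi.sub_apply, h0, h0] at this
    · have := norm_le_pi_norm ((2 : Fin 3).insertNth (α := fun _ => ℝ) c y -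
        (2 : Fin 3).insertNth (α := fun _ => ℝ) c y') 1
      rwa [Pi.sub_apply, h1, h1] at this

theorem insert_mem_cub {w : E3} {r : ℝ} (hr : 0 < r) {y : E2} (hy : y ∈ osq (lc w) r 0) :
    (2 : Fin 3).insertNth (α := fun _ => ℝ) (w 2) y ∈ cub w r := by
  rw [insert_eq_pt w hr]
  refine sq_mem_cub hr fun j => ?_
  have h1 : unt (lc w) r 0 y ∈ usqo := by
    have : y ∈ unt (lc w) r 0 ⁻¹' usqo := by rw [unt_preimage (lc w) hr 0]; exact hy
    exact this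
  exact ⟨(h1 j).1.le, (h1 j).2.le⟩

theorem usqo_eq : usqo = {y : Fin 2 → ℝ | ∀ j, 0 < y j ∧ y j < 1} := rfl

theorem succAbove_castSucc (i : Fin 2) : (2 : Fin 3).succAbove i = i.castSucc := by
  revert i; decide

/-- **FaceOut ⟹ slice estimate** -/
theorem slice_of_face {Φ : FoamD δ κ0 R c0 La} {κ : Φ.F → ℕ} {L : Φ.F → Finset ℝ} {g : E3 → E3}
    {u : E3 → Φ.F → ℝ} {w : E3} {r p : ℝ} (hp : 1 ≤ p) (hr : 0 < r)
    {c1 c2 : Φ.F} {σ1 σ2 ww : ℝ} {b : E3} (hQ : QF Φ κ L u (cub w r) c1 c2 σ1 σ2 ww b)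
    {s : Fin 3 → ℝ} {tol e S1 : ℝ} (htol : 0 ≤ tol) (he : 0 ≤ e) (hS1 : 0 ≤ S1)
    (hclo : ∀ x ∈ cub w r, ∀ y ∈ cub w r,
      ‖(g x - Brk1_582.T (bc (F := Φ.F)) (u x)) - (g y - Brk1_582.T (bc (F := Φ.F)) (u y))‖
        ≤ tol * ‖x - y‖)
    (hLL : LL (sl g (w 2) 2) (osq (lc w) r 0))
    (hout : FaceOut p Φ κ L u e (S1 * r) (fun j => s j.castSucc * r) (fr w r hr.ne')
      c1 c2 σ1 σ2) (i : Fin 2) :
    ∫⁻ y in sq (lc w) r 0, ‖Dp (sl g (w 2) 2) i y -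
        Pi.single ((2 : Fin 3).succAbove i) (s ((2 : Fin 3).succAbove i))‖ₑ ^ p ≤
      ENNReal.ofReal (3 ^ p * (2 * (e * S1 ^ p) + tol ^ p) * r ^ 2) := by
  have hmdl : ∀ y ∈ osq (lc w) r 0,
      mdl b σ1 σ2 (fun z => wlab Φ κ L u (fr w r hr.ne') c1 (unt (lc w) r 0 z))
        (fun z => wlab Φ κ L u (fr w r hr.ne') c2 (unt (lc w) r 0 z)) y =
      Brk1_582.T (bc (F := Φ.F)) (u ((2 : Fin 3).insertNth (α := fun _ => ℝ) (w 2) y)) := by
    intro y hy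
    have hm := insert_mem_cub hr hy
    rw [hQ.form _ hm]
    have h1 : (fr w r hr.ne').symm (emb (unt (lc w) r 0 y)) =
        (2 : Fin 3).insertNth (α := fun _ => ℝ) (w 2) y := by
      rw [symm_emb, insert_eq_pt w hr]
    funext k
    have hk : k = 0 ∨ k = 1 ∨ k = 2 := by revert k; decide
    rcases hk with rfl | rfl | rfl
    · show b 0 + σ1 * wlab Φ κ L u (fr w r hr.ne') c1 (unt (lc w) r 0 y) = _
      unfold wlab
      rw [h1, hQ.w1]
      simp; ring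
    · show b 1 + σ2 * wlab Φ κ L u (fr w r hr.ne') c2 (unt (lc w) r 0 y) = _
      unfold wlab
      rw [h1, hQ.w2]
      simp; ring
    · show b 2 = _
      simp
  have hmain := face_slice (a := lc w) (q := 0) (h := sl g (w 2) 2)
    (v1 := wlab Φ κ L u (fr w r hr.ne') c1) (v2 := wlab Φ κ L u (fr w r hr.ne') c2)
    (b := b) (a' := fun j => s j.castSucc * r) (μ := S1 * r) hp hr hQ.sg1 hQ.sg2 htol he
    (mul_nonneg hS1 hr.le) hLL (by
      intro y hy y' hy'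
      rw [hmdl y hy, hmdl y' hy', ← norm_insert_sub (w 2) y y']
      exact hclo _ (insert_mem_cub hr hy) _ (insert_mem_cub hr hy')) hout.1 hout.2 i
  have e1 : (fun j : Fin 2 => s j.castSucc * r) i / r = s ((2 : Fin 3).succAbove i) := by
    rw [succAbove_castSucc]
    simp only
    rw [mul_div_assoc, div_self hr.ne', mul_one]
  have e2 : S1 * r / r = S1 := by rw [mul_div_assoc, div_self hr.ne', mul_one]
  rw [e1, e2] at hmain
  exact hmain

/-- both derivatives, on the open square in 477's form -/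
theorem slice_sum {Φ : FoamD δ κ0 R c0 La} {κ : Φ.F → ℕ} {L : Φ.F → Finset ℝ} {g : E3 → E3}
    {u : E3 → Φ.F → ℝ} {w : E3} {r p : ℝ} (hp : 1 ≤ p) (hr : 0 < r)
    {c1 c2 : Φ.F} {σ1 σ2 ww : ℝ} {b : E3} (hQ : QF Φ κ L u (cub w r) c1 c2 σ1 σ2 ww b)
    {s : Fin 3 → ℝ} {tol e S1 : ℝ} (htol : 0 ≤ tol) (he : 0 ≤ e) (hS1 : 0 ≤ S1)
    (hclo : ∀ x ∈ cub w r, ∀ y ∈ cub w r,
      ‖(g x - Brk1_582.T (bc (F := Φ.F)) (u x)) - (g y - Brk1_582.T (bc (F := Φ.F)) (u y))‖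
        ≤ tol * ‖x - y‖)
    (hLL : LL (sl g (w 2) 2) (osq (lc w) r 0))
    (hout : FaceOut p Φ κ L u e (S1 * r) (fun j => s j.castSucc * r) (fr w r hr.ne')
      c1 c2 σ1 σ2) :
    ∫⁻ y in {y : Fin 2 → ℝ | ∀ j : Fin 2, w j.castSucc < y j ∧ y j < w j.castSucc + r},
      ∑ i : Fin 2, ‖Dp (sl g (w 2) 2) i y -
        Pi.single ((2 : Fin 3).succAbove i) (s ((2 : Fin 3).succAbove i))‖ₑ ^ p ≤
      ENNReal.ofReal (4 * 3 ^ p * (e * S1 ^ p + tol ^ p) * r ^ 2) := by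
  have hset : {y : Fin 2 → ℝ | ∀ j : Fin 2, w j.castSucc < y j ∧ y j < w j.castSucc + r} =
      osq (lc w) r 0 := by
    ext y
    simp only [mem_ofPred_eq, osq, lc, Pi.zero_apply, Int.cast_zero, mul_zero, add_zero, zero_add,
      mul_one]
  rw [hset, setLIntegral_congr (sq_ae (lc w) hr.le 0), lintegral_finsetSum _ fun i _ =>
    measurable_Dp (sl g (w 2) 2) i _ p]
  have h1 := fun i => slice_of_face hp hr hQ (s := s) htol he hS1 hclo hLL hout i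
  have hep : 0 ≤ e * S1 ^ p := mul_nonneg he (Real.rpow_nonneg hS1 p)
  have htp : 0 ≤ tol ^ p := Real.rpow_nonneg htol p
  calc _ ≤ ∑ _i : Fin 2, ENNReal.ofReal (3 ^ p * (2 * (e * S1 ^ p) + tol ^ p) * r ^ 2) :=
        Finset.sum_le_sum fun i _ => h1 i
    _ = ENNReal.ofReal (2 * (3 ^ p * (2 * (e * S1 ^ p) + tol ^ p) * r ^ 2)) := by
        rw [Finset.sum_const, Finset.card_univ, Fintype.card_fin, nsmul_eq_mul,
          ENNReal.ofReal_mul (p := 2) (by norm_num)]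
        norm_num
    _ ≤ _ := by
        apply ENNReal.ofReal_le_ofReal
        have h3p : (0 : ℝ) < 3 ^ p := by positivity
        have : 0 ≤ 3 ^ p * tol ^ p * r ^ 2 := by positivity
        nlinarith

/-- **(L2), from the individual clauses.** -/
theorem L2 {Φ : FoamD δ κ0 R c0 La} {κ : Φ.F → ℕ} {L : Φ.F → Finset ℝ} {f g : E3 → E3}
    {u : E3 → Φ.F → ℝ} {n : Set E3 → Φ.F → ℝ} {w : E3} {r p : ℝ} (hp : 1 ≤ p) (hr : 0 < r)
    {c1 c2 : Φ.F} {σ1 σ2 ww : ℝ} {b : E3} (hQ : QF Φ κ L u (cub w r) c1 c2 σ1 σ2 ww b)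
    {s : Fin 3 → ℝ} (hs : ∀ i, 0 ≤ s i) {τ tol e e' η S1 ε : ℝ} (hτ : 0 ≤ τ) (htol : 0 ≤ tol)
    (he : 0 ≤ e) (hS1 : 0 ≤ S1)
    (he' : 0 ≤ e') (hη : ∀ j : Fin 2, 2 * τ + tol + e' * (s j.castSucc + τ) ≤ η * S1)
    (hε : ε ≤ η * S1) (hk1 : (2 : ℝ)⁻¹ ^ κ c1 ≤ ε * r) (hk2 : (2 : ℝ)⁻¹ ^ κ c2 ≤ ε * r)
    (hclo : ∀ x ∈ cub w r, ∀ y ∈ cub w r,
      ‖(g x - Brk1_582.T (bc (F := Φ.F)) (u x)) - (g y - Brk1_582.T (bc (F := Φ.F)) (u y))‖
        ≤ tol * ‖x - y‖)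
    (hLL : LL (sl g (w 2) 2) (osq (lc w) r 0))
    (hn0 : ∀ A c, 0 ≤ n A c)
    (hcnt : ∀ (j : Fin 2) (b : ℝ), b = 0 ∨ b = 1 → ∀ S : Finset Φ.F,
      ENNReal.ofReal (∑ c ∈ S, n (side (fr w r hr.ne') j b) c * (2 : ℝ)⁻¹ ^ κ c) ≤
        Vw Φ f κ L (side (fr w r hr.ne') j b))
    (hosc : ∀ (j : Fin 2) (b : ℝ), b = 0 ∨ b = 1 → ∀ c,
      ∀ y ∈ side (fr w r hr.ne') j b, ∀ y' ∈ side (fr w r hr.ne') j b,
        |u y c - u y' c| * (L c).card ≤ (1 + e') * n (side (fr w r hr.ne') j b) c)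
    (hface : ∀ (c1 c2 : Φ.F) (σ1 σ2 : ℝ),
      FaceIn Φ κ L u n η (S1 * r) (fun j => s j.castSucc * r) (fr w r hr.ne') c1 c2 σ1 σ2 →
      FaceOut p Φ κ L u e (S1 * r) (fun j => s j.castSucc * r) (fr w r hr.ne') c1 c2 σ1 σ2)
    (hV : ∀ (j : Fin 2) (b : ℝ), b = 0 ∨ b = 1 →
      Vw Φ f κ L (side (fr w r hr.ne') j b) ≤ ENNReal.ofReal (r * (s j.castSucc + τ)))
    (hD : ∀ (j : Fin 2) (b : ℝ), b = 0 ∨ b = 1 → r * (s j.castSucc - τ) ≤
      (g (w + r • emb (ep j b 1)) - g (w + r • emb (ep j b 0))) j.castSucc) :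
    ∫⁻ y in {y : Fin 2 → ℝ | ∀ j : Fin 2, w j.castSucc < y j ∧ y j < w j.castSucc + r},
      ∑ i : Fin 2, ‖Dp (sl g (w 2) 2) i y -
        Pi.single ((2 : Fin 3).succAbove i) (s ((2 : Fin 3).succAbove i))‖ₑ ^ p ≤
      ENNReal.ofReal (4 * 3 ^ p * (e * S1 ^ p + tol ^ p) * r ^ 2) :=
  slice_sum hp hr hQ htol he hS1 hclo hLL (hface c1 c2 σ1 σ2
    (faceIn_of_pure hr hQ hs hτ htol he' hη hε hk1 hk2 hclo hn0 hcnt hosc hV hD))

/-- the slice of a locally Lipschitz map -/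
theorem LL_slice {g : E3 → E3} {O : Set E3} (hg : LL g O) {c : ℝ} {U : Set E2}
    (hU : ∀ y ∈ U, (2 : Fin 3).insertNth (α := fun _ => ℝ) c y ∈ O) : LL (sl g c 2) U := by
  intro y hy
  obtain ⟨ρ, hρ, C, hC⟩ := hg _ (hU y hy)
  refine ⟨ρ, hρ, C, LipschitzOnWith.of_dist_le_mul fun z hz z' hz' => ?_⟩
  have hball : ∀ z ∈ ball y ρ, (2 : Fin 3).insertNth (α := fun _ => ℝ) c z ∈
      ball ((2 : Fin 3).insertNth (α := fun _ => ℝ) c y) ρ := by
    intro z hz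
    rw [mem_ball, dist_eq_norm] at hz ⊢
    rwa [norm_insert_sub]
  have := hC.dist_le_mul _ (hball z hz) _ (hball z' hz')
  rw [dist_eq_norm ((2 : Fin 3).insertNth (α := fun _ => ℝ) c z), norm_insert_sub,
    ← dist_eq_norm] at this
  exact this

end

end Crest.Agent.R096.Fs_168
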