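import Crest.Agent.R096.No3_477

/-!
Row 96 (S0127), helper477.  NO0-ASM leaf (L1) COUNT, part 2: most squares are pure.
-/

set_option autoImplicit false
set_option linter.style.longLine false
set_option linter.unusedSectionVars false
set_option linter.unusedVariables false

open MeasureTheory Set Filter Topology Metric
open scoped ENNReal

namespace Crest.Agent.R096.No5_477

open Crest.Agent.R096.Bsp_628 Crest.Agent.R096.Brk1_582 Crest.Agent.R096.Brk3_582
open Crest.Agent.R096.Brk5_582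
open Crest.Agent.R096.Msh_715
open Crest.Agent.R096.SkC1_961 Crest.Agent.R096.SkN1_477 Crest.Agent.R096.No0_477
open Crest.Agent.R096.No3_477

noncomputable section

/-- `(i, t)` as a vertex: `i` in direction `j`, `t` in the other direction -/
def vt (j : Fin 2) (i t : ℕ) : Fin 2 → ℕ := fun k => if k = j then i else t

theorem vt_self (j : Fin 2) (i t : ℕ) : vt j i t j = i := by simp [vt]
theorem vt_other (j : Fin 2) (i t : ℕ) : vt j i t (1 - j) = t := by
  have : (1 - j : Fin 2) ≠ j := by fin_cases j <;> simp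
  simp [vt, this]

theorem vt_eta (j : Fin 2) (v : Fin 2 → ℕ) : vt j (v j) (v (1 - j)) = v := by
  funext k
  fin_cases j <;> fin_cases k <;> simp [vt]

/-- start of the side `(j, b)` of the square `v` -/
def st (j : Fin 2) (b : ℕ) (v : Fin 2 → ℕ) : Fin 2 → ℕ := fun i => v i + if i = j then 0 else b

theorem st_vt (j : Fin 2) (b i t : ℕ) : st j b (vt j i t) = vt j i (t + b) := by
  funext k
  by_cases hk : k = j <;> simp [st, vt, hk]

theorem nx_vt (j : Fin 2) (i t : ℕ) : nx (vt j i t) j = vt j (i + 1) t := by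
  funext k
  by_cases hk : k = j <;> simp [nx, vt, hk]

theorem st_injective (j : Fin 2) (b : ℕ) : Function.Injective (st j b) := by
  intro v v' h
  funext k
  have := congrFun h k
  simpa [st] using this

theorem sum_pi2 (j : Fin 2) (M : ℕ) (F : (Fin 2 → ℕ) → ℝ) :
    ∑ v ∈ Fintype.piFinset (fun _ : Fin 2 => Finset.range M), F v =
      ∑ t ∈ Finset.range M, ∑ i ∈ Finset.range M, F (vt j i t) := by
  rw [← Finset.sum_product' (f := fun t i => F (vt j i t))]
  refine Finset.sum_bij' (fun v _ => (v (1 - j), v j)) (fun x _ => vt j x.2 x.1) ?_ ?_ ?_ ?_ ?_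
  · intro v hv
    rw [Fintype.mem_piFinset] at hv
    exact Finset.mem_product.2 ⟨hv _, hv _⟩
  · intro x hx
    obtain ⟨h1, h2⟩ := Finset.mem_product.1 hx
    rw [Fintype.mem_piFinset]
    intro k
    by_cases hk : k = j
    · simp only [vt, hk, if_true]; exact h2
    · simp only [vt, hk, if_false]; exact h1
  · intro v _
    exact vt_eta j v
  · intro x _
    simp only [vt_self, vt_other]
  · intro v _
    exact congrArg F (vt_eta j v).symm

theorem mem_pi {M : ℕ} {v : Fin 2 → ℕ} :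
    v ∈ Fintype.piFinset (fun _ : Fin 2 => Finset.range M) ↔ ∀ j, v j < M := by
  simp [Fintype.mem_piFinset]

theorem card_Fc (M : ℕ) (Zs : Finset ℤ) : ((Fc M Zs).card : ℝ) = (Zs.card : ℝ) * M ^ 2 := by
  unfold Fc
  rw [Finset.card_product, Fintype.card_piFinset]
  simp

theorem sum_Fc (M : ℕ) (Zs : Finset ℤ) (F : ℤ × (Fin 2 → ℕ) → ℝ) :
    ∑ q ∈ Fc M Zs, F q =
      ∑ m ∈ Zs, ∑ v ∈ Fintype.piFinset (fun _ : Fin 2 => Finset.range M), F (m, v) := by
  unfold Fc
  rw [Finset.sum_product]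

section

variable (g : E3 → E3) (a : E3) (r : ℝ) (o : Fin 2 → ℤ)

/-- displacement along the side `(j, b)` of the square `(m, v)` -/
def dsp (j : Fin 2) (b : ℕ) (q : ℤ × (Fin 2 → ℕ)) : ℝ :=
  (g (vx a r o q.1 (nx (st j b q.2) j)) - g (vx a r o q.1 (st j b q.2))) j.castSucc

theorem sum_dsp (j : Fin 2) (b M : ℕ) (Zs : Finset ℤ) :
    ∑ q ∈ Fc M Zs, dsp g a r o j b q = ∑ m ∈ Zs, ∑ t ∈ Finset.range M,
      (g (vx a r o m (vt j M (t + b))) - g (vx a r o m (vt j 0 (t + b)))) j.castSucc := by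
  rw [sum_Fc]
  refine Finset.sum_congr rfl fun m _ => ?_
  rw [sum_pi2 j]
  refine Finset.sum_congr rfl fun t _ => ?_
  have h1 : ∀ i ∈ Finset.range M, dsp g a r o j b (m, vt j i t) =
      (fun i => g (vx a r o m (vt j i (t + b))) j.castSucc) (i + 1) -
        (fun i => g (vx a r o m (vt j i (t + b))) j.castSucc) i := by
    intro i _
    simp only [dsp, st_vt, nx_vt, Pi.sub_apply]
  exact (Finset.sum_congr rfl h1).trans
    (Finset.sum_range_sub (fun i => g (vx a r o m (vt j i (t + b))) j.castSucc) M)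

end

/-- the vertex shift is the shift in space -/
theorem vx_nx (a : E3) (r : ℝ) (o : Fin 2 → ℤ) (m : ℤ) (v : Fin 2 → ℕ) (j : Fin 2) :
    vx a r o m (nx v j) = vx a r o m v + r • (Pi.single j.castSucc 1 : E3) := by
  funext k
  fin_cases j <;> fin_cases k <;> simp [vx, nx] <;> ring

theorem vx_st (a : E3) (r : ℝ) (o : Fin 2 → ℤ) (m : ℤ) (v : Fin 2 → ℕ) (j : Fin 2) (b : ℕ) :
    vx a r o m (st j b v) = vx a r o m v + (r * b) • (Pi.single (1 - j).castSucc 1 : E3) := by
  funext k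
  fin_cases j <;> fin_cases k <;> simp [vx, st] <;> ring

theorem mem_usq_fr {w : E3} {r : ℝ} (hr : 0 < r) {x : E3} :
    x ∈ usq (fr w r hr.ne') ↔ x 2 = w 2 ∧ ∀ j : Fin 2, w j.castSucc ≤ x j.castSucc ∧
      x j.castSucc ≤ w j.castSucc + r := by
  unfold usq
  rw [mem_preimage, fr_apply]
  have hinv : 0 < r⁻¹ := inv_pos.2 hr
  have hrr : r⁻¹ * r = 1 := inv_mul_cancel₀ hr.ne'
  constructor
  · rintro ⟨y, hy, hyx⟩
    have h0 := congrFun hyx 0
    have h1 := congrFun hyx 1
    have h2 := congrFun hyx 2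
    simp only [emb, Matrix.cons_val_zero, Matrix.cons_val_one, Matrix.cons_val, Pi.smul_apply,
      Pi.sub_apply, smul_eq_mul] at h0 h1 h2
    have e2 : x 2 = w 2 := by
      have : r⁻¹ * (x 2 - w 2) = 0 := h2.symm
      rcases mul_eq_zero.1 this with h | h
      · exact absurd h hinv.ne'
      · linarith
    refine ⟨e2, fun j => ?_⟩
    have key : ∀ (A B c : ℝ), c = r⁻¹ * (A - B) → 0 ≤ c → c ≤ 1 → B ≤ A ∧ A ≤ B + r := by
      intro A B c hc h0 h1
      have hA : A - B = r * c := by rw [hc]; field_simp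
      constructor
      · nlinarith
      · nlinarith
    fin_cases j
    · exact key _ _ _ h0 (hy 0).1 (hy 0).2
    · exact key _ _ _ h1 (hy 1).1 (hy 1).2
  · rintro ⟨e2, h⟩
    refine ⟨![r⁻¹ * (x 0 - w 0), r⁻¹ * (x 1 - w 1)], ?_, ?_⟩
    · have key : ∀ (A B : ℝ), B ≤ A → A ≤ B + r → 0 ≤ r⁻¹ * (A - B) ∧ r⁻¹ * (A - B) ≤ 1 := by
        intro A B h1 h2
        constructor
        · exact mul_nonneg hinv.le (by linarith)
        · rw [← hrr]
          exact mul_le_mul_of_nonneg_left (by linarith) hinv.le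
      intro j
      fin_cases j
      · exact key _ _ (h 0).1 (h 0).2
      · exact key _ _ (h 1).1 (h 1).2
    · funext k
      fin_cases k <;> simp [emb, e2]

/-- the largest coordinate difference -/
theorem abs_dsp_le {g : E3 → E3} {a : E3} {r : ℝ} {o : Fin 2 → ℤ} (j : Fin 2) (b : ℕ)
    (q : ℤ × (Fin 2 → ℕ)) : |dsp g a r o j b q| ≤
      ‖g (vx a r o q.1 (nx (st j b q.2) j)) - g (vx a r o q.1 (st j b q.2))‖ :=
  norm_le_pi_norm (g (vx a r o q.1 (nx (st j b q.2) j)) - g (vx a r o q.1 (st j b q.2))) j.castSucc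

/-- both ends of a side lie in the closed square -/
theorem st_mem {a : E3} {r : ℝ} (hr : 0 < r) {o : Fin 2 → ℤ} {m : ℤ} {v : Fin 2 → ℕ} (j : Fin 2)
    {b : ℕ} (hb : b = 0 ∨ b = 1) :
    vx a r o m (st j b v) ∈ usq (fr (vx a r o m v) r hr.ne') ∧
      vx a r o m (nx (st j b v) j) ∈ usq (fr (vx a r o m v) r hr.ne') := by
  rw [mem_usq_fr hr, mem_usq_fr hr, vx_nx, vx_st]
  rcases hb with rfl | rfl <;> refine ⟨⟨?_, fun i => ?_⟩, ?_, fun i => ?_⟩ <;>
    fin_cases j <;> (try fin_cases i) <;> simp [hr.le]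

theorem norm_side {a : E3} {r : ℝ} (hr : 0 < r) {o : Fin 2 → ℤ} {m : ℤ} (v : Fin 2 → ℕ)
    (j : Fin 2) : ‖vx a r o m (nx v j) - vx a r o m v‖ = r := by
  rw [vx_nx, add_sub_cancel_left, norm_smul, Pi.norm_single]
  simp [abs_of_pos hr]

section main

variable {δ κ0 R c0 : ℝ} {La Om : Set E3} {ι : Type}

/-- **pure square**: it has a quad; on the four sides the initial weight is at most `r (s_j + τ)`
and the displacement of `g` in direction `j` at least `r (s_j - τ)`. -/
def PureS (Φ : FoamD δ κ0 R c0 La) (f : E3 → E3) (κ : Φ.F → ℕ) (L : Φ.F → Finset ℝ)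
    (s : Fin 3 → ℝ) (ε τ r : ℝ) (hr : r ≠ 0) (a : E3) (o : Fin 2 → ℤ)
    (U : ℤ → (Fin 2 → ℕ) → Prop) (g : E3 → E3) (u : E3 → Φ.F → ℝ) (q : ℤ × (Fin 2 → ℕ)) : Prop :=
  U q.1 q.2 ∧ (∃ c1 c2 σ1 σ2 w b, QF Φ κ L u (cub (vx a r o q.1 q.2) r) c1 c2 σ1 σ2 w b ∧
    (2 : ℝ)⁻¹ ^ κ c1 ≤ ε * r ∧ (2 : ℝ)⁻¹ ^ κ c2 ≤ ε * r) ∧
  ∀ (j : Fin 2) (b : ℕ), b = 0 ∨ b = 1 →
    Vw Φ f κ L (side (fr (vx a r o q.1 q.2) r hr) j b) ≤
      ENNReal.ofReal (r * (s j.castSucc + τ)) ∧
    r * (s j.castSucc - τ) ≤ dsp g a r o j b q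

open Classical in
/-- **(L1)** most squares are pure -/
theorem pure_most {p : ℝ} (hp : 1 ≤ p) {Φ : FoamD δ κ0 R c0 La} {f : E3 → E3} {κ : Φ.F → ℕ}
    {L : Φ.F → Finset ℝ} {s : Fin 3 → ℝ} (hs : ∀ i, 0 ≤ s i) {ε θ τ K1 r : ℝ} (hr : 0 < r)
    (hε : 0 ≤ ε) (hθ : 0 ≤ θ) (hθ1 : θ ≤ 1) (hτ : 0 < τ) (hK : 0 ≤ K1)
    {a : E3} {o : Fin 2 → ℤ} {M : ℕ} {Zs : Finset ℤ} (hM : 1 ≤ M * r)
    {U : ℤ → (Fin 2 → ℕ) → Prop} {g : E3 → E3} {u : E3 → Φ.F → ℝ}
    (H : NONum p Φ f κ L s ε K1 r hr.ne' a o M Zs U g u)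
    (hD : ∀ q ∈ Fc M Zs, U q.1 q.2 → (∃ c1 c2 σ1 σ2 w b,
      QF Φ κ L u (cub (vx a r o q.1 q.2) r) c1 c2 σ1 σ2 w b) →
      ∀ (j : Fin 2) (b : ℕ), b = 0 ∨ b = 1 → ∀ V : ℝ, 0 ≤ V →
      Vw Φ f κ L (side (fr (vx a r o q.1 q.2) r hr.ne') j b) ≤ ENNReal.ofReal V →
      dsp g a r o j b q ≤ (1 + θ) * V + θ * r) :
    (((Fc M Zs).filter fun q => ¬ PureS Φ f κ L s ε τ r hr.ne' a o U g u q).card : ℝ) ≤
      (ε + 4 * ((θ * (s 0 + s 1 + 1) + (6 + K1) * ε) / τ)) * ((Zs.card : ℝ) * M ^ 2) := by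
  set N : ℝ := (Zs.card : ℝ) * M ^ 2 with hN
  have hN0 : 0 ≤ N := by positivity
  have hM0 : (0 : ℝ) < M := by
    by_contra h
    have : (M : ℝ) * r ≤ 0 := mul_nonpos_of_nonpos_of_nonneg (not_lt.1 h) hr.le
    linarith
  set good : ℤ × (Fin 2 → ℕ) → Prop := fun q => U q.1 q.2 ∧ ∃ c1 c2 σ1 σ2 w b,
    QF Φ κ L u (cub (vx a r o q.1 q.2) r) c1 c2 σ1 σ2 w b ∧
    (2 : ℝ)⁻¹ ^ κ c1 ≤ ε * r ∧ (2 : ℝ)⁻¹ ^ κ c2 ≤ ε * r with hgood
  have hbad : (((Fc M Zs).filter fun q => ¬ good q).card : ℝ) ≤ ε * N := by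
    have h1 := H.good
    rw [← Set.ncard_coe_finset] 
    refine le_trans (le_of_eq ?_) h1
    congr 2
    ext q
    simp only [Finset.coe_filter, Set.mem_ofPred_eq, hgood]
  obtain ⟨x, hx0, hxV, hxs⟩ := H.wt
  obtain ⟨X, hX0, hXlip, hXs⟩ := H.lip
  -- one kind of side
  have key : ∀ (j : Fin 2) (b : ℕ), b = 0 ∨ b = 1 →
      (((Fc M Zs).filter fun q => good q ∧ (τ < x j q.1 (st j b q.2) ∨
        dsp g a r o j b q < r * (s j.castSucc - τ))).card : ℝ) ≤
        (θ * (s 0 + s 1 + 1) + (6 + K1) * ε) / τ * N := by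
    intro j b hb
    have hb1 : b ≤ 1 := by omega
    have h := count1 (Fc M Zs) good (dsp g a r o j b) (fun q => x j q.1 (st j b q.2))
      (fun q => X q.1 q.2) (s := s j.castSucc) (r := r) (θ := θ) (K1 := K1) (ε := ε) (p := p)
      (N := N) hr (hs _) hθ hθ1 hK hp hε (card_Fc M Zs) (by convert hbad) (fun q _ => hx0 _ _ _) ?_
      (fun q _ => hX0 _ _) hXs ?_ ?_ ?_ hτ
    · refine le_trans (le_of_eq ?_)
        (h.trans (mul_le_mul_of_nonneg_right (div_le_div_of_nonneg_right ?_ hτ.le) hN0))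
      · congr!
      have : s j.castSucc ≤ s 0 + s 1 := by
        have h0 := hs 0
        have h1 := hs 1
        fin_cases j
        · exact le_add_of_nonneg_right h1
        · exact le_add_of_nonneg_left h0
      nlinarith
    · rw [sum_Fc]
      refine le_trans ?_ (hxs j)
      refine Finset.sum_le_sum fun m _ => ?_
      rw [← Finset.sum_image (f := fun v => x j m v) (g := st j b)
        (fun v _ v' _ h => st_injective j b h)]
      refine Finset.sum_le_sum_of_subset_of_nonneg ?_ fun v _ _ => hx0 _ _ _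
      intro v hv
      obtain ⟨v', hv', rfl⟩ := Finset.mem_image.1 hv
      rw [mem_pi] at hv' ⊢
      intro k
      have := hv' k
      unfold st
      split_ifs <;> omega
    · intro q hq hg
      have hqq := Finset.mem_product.1 hq
      obtain ⟨hU, c1, c2, σ1, σ2, w, b', hQ, -⟩ := hg
      have hst : (fun i => q.2 i + if i = j then 0 else b) = st j b q.2 := rfl
      have hV := hxV q.1 hqq.1 q.2 (mem_pi.1 hqq.2) hU j b hb
      rw [hst] at hV
      exact hD q hq hU ⟨c1, c2, σ1, σ2, w, b', hQ⟩ j b hb _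
        (mul_nonneg hr.le (add_nonneg (hs _) (hx0 _ _ _))) hV
    · intro q hq
      have hqq := Finset.mem_product.1 hq
      have hm := st_mem (a := a) (o := o) (m := q.1) (v := q.2) hr j hb
      have := hXlip q.1 hqq.1 q.2 (mem_pi.1 hqq.2) _ hm.2 _ hm.1
      rw [norm_side hr] at this
      calc |dsp g a r o j b q| ≤ _ := abs_dsp_le j b q
        _ ≤ (K1 + X q.1 q.2) * r := this
        _ = r * (K1 + X q.1 q.2) := mul_comm _ _
    · rw [sum_dsp]
      have h1 : s j.castSucc * r * N = ∑ m ∈ Zs, ∑ t ∈ Finset.range M, s j.castSucc * (M * r) := by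
        simp only [Finset.sum_const, Finset.card_range, nsmul_eq_mul, hN]
        ring
      rw [h1, ← Finset.sum_sub_distrib]
      have h2 := H.ends j
      calc |∑ m ∈ Zs, (∑ t ∈ Finset.range M,
            (g (vx a r o m (vt j M (t + b))) - g (vx a r o m (vt j 0 (t + b)))) j.castSucc
            - ∑ t ∈ Finset.range M, s j.castSucc * (M * r))|
          ≤ ∑ m ∈ Zs, ∑ t ∈ Finset.range M,
            |(g (vx a r o m (vt j M (t + b))) - g (vx a r o m (vt j 0 (t + b)))) j.castSucc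
              - s j.castSucc * (M * r)| := by
            refine (Finset.abs_sum_le_sum_abs _ _).trans (Finset.sum_le_sum fun m _ => ?_)
            rw [← Finset.sum_sub_distrib]
            exact Finset.abs_sum_le_sum_abs _ _
        _ ≤ ∑ m ∈ Zs, ∑ t ∈ Finset.range (M + 1),
            |(g (vx a r o m (vt j M t)) - g (vx a r o m (vt j 0 t))) j.castSucc
              - s j.castSucc * (M * r)| := by
            refine Finset.sum_le_sum fun m _ => ?_
            rw [← Finset.sum_image (f := fun t =>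
              |(g (vx a r o m (vt j M t)) - g (vx a r o m (vt j 0 t))) j.castSucc
              - s j.castSucc * (M * r)|) (g := fun t => t + b)
              (fun t _ t' _ (h : t + b = t' + b) => by omega)]
            refine Finset.sum_le_sum_of_subset_of_nonneg ?_ fun _ _ _ => abs_nonneg _
            intro t ht
            obtain ⟨t', ht', rfl⟩ := Finset.mem_image.1 ht
            have := Finset.mem_range.1 ht'
            exact Finset.mem_range.2 (by show t' + b < M + 1; omega)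
        _ ≤ ε * ((Zs.card : ℝ) * M) := h2
        _ ≤ ε * r * N := by
            rw [hN]
            have : (Zs.card : ℝ) * M ≤ r * ((Zs.card : ℝ) * M ^ 2) := by
              have h3 : (Zs.card : ℝ) * M * 1 ≤ (Zs.card : ℝ) * M * (M * r) :=
                mul_le_mul_of_nonneg_left hM (by positivity)
              linarith [h3, (by ring : (Zs.card : ℝ) * M * (M * r) = r * ((Zs.card : ℝ) * M ^ 2))]
            calc ε * ((Zs.card : ℝ) * M) ≤ ε * (r * ((Zs.card : ℝ) * M ^ 2)) :=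
                  mul_le_mul_of_nonneg_left this hε
              _ = _ := by ring
  -- union
  have hsub : ((Fc M Zs).filter fun q => ¬ PureS Φ f κ L s ε τ r hr.ne' a o U g u q) ⊆
      ((Fc M Zs).filter fun q => ¬ good q) ∪
        (Finset.univ : Finset (Fin 2 × Fin 2)).biUnion fun jb =>
          (Fc M Zs).filter fun q => good q ∧ (τ < x jb.1 q.1 (st jb.1 (jb.2 : ℕ) q.2) ∨
            dsp g a r o jb.1 (jb.2 : ℕ) q < r * (s jb.1.castSucc - τ)) := by
    intro q hq
    obtain ⟨hqF, hnp⟩ := Finset.mem_filter.1 hq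
    by_cases hg : good q
    · refine Finset.mem_union_right _ ?_
      by_contra hcon
      refine hnp ⟨hg.1, hg.2, fun j b hb => ?_⟩
      have hqq := Finset.mem_product.1 hqF
      have hlt : b < 2 := by omega
      have h1 : ¬ (τ < x j q.1 (st j b q.2) ∨ dsp g a r o j b q < r * (s j.castSucc - τ)) := by
        intro h
        refine hcon (Finset.mem_biUnion.2 ⟨(j, ⟨b, hlt⟩), Finset.mem_univ _, ?_⟩)
        exact Finset.mem_filter.2 ⟨hqF, hg, h⟩
      rw [not_or, not_lt, not_lt] at h1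
      refine ⟨?_, h1.2⟩
      refine (hxV q.1 hqq.1 q.2 (mem_pi.1 hqq.2) hg.1 j b hb).trans (ENNReal.ofReal_le_ofReal ?_)
      exact mul_le_mul_of_nonneg_left (add_le_add le_rfl h1.1) hr.le
    · exact Finset.mem_union_left _ (Finset.mem_filter.2 ⟨hqF, hg⟩)
  calc (((Fc M Zs).filter fun q => ¬ PureS Φ f κ L s ε τ r hr.ne' a o U g u q).card : ℝ)
      ≤ (((Fc M Zs).filter fun q => ¬ good q).card : ℝ) +
        ∑ jb : Fin 2 × Fin 2, (((Fc M Zs).filter fun q => good q ∧
          (τ < x jb.1 q.1 (st jb.1 (jb.2 : ℕ) q.2) ∨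
            dsp g a r o jb.1 (jb.2 : ℕ) q < r * (s jb.1.castSucc - τ))).card : ℝ) := by
        have h1 := (Finset.card_le_card hsub).trans (Finset.card_union_le _ _)
        have h2 := h1.trans (Nat.add_le_add_left Finset.card_biUnion_le _)
        exact_mod_cast h2
    _ ≤ ε * N + ∑ jb : Fin 2 × Fin 2, (θ * (s 0 + s 1 + 1) + (6 + K1) * ε) / τ * N := by
        refine add_le_add hbad (Finset.sum_le_sum fun jb _ => key jb.1 jb.2 ?_)
        have := jb.2.2
        omega
    _ = _ := by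
        simp only [Finset.sum_const, Finset.card_univ, Fintype.card_prod, Fintype.card_fin,
          nsmul_eq_mul]
        push_cast
        ring

end main

end

end Crest.Agent.R096.No5_477
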