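import Crest.Agent.R096.Fs2_168
import Crest.Agent.R096.No5_477

/-!
# Row 96, NO0-L2 (helper168): the slice estimate on a pure square, from `OutNO` and `NOGeo`

`L2_out` : `PureS` (No5_477) + `NOGeo` + `OutNO` (SkN1_477 v4) + locally PL ⟹ the `L^p` estimate of
the two derivatives of the slice on the open square `(m, v)`.
-/

set_option autoImplicit false
set_option linter.unusedSectionVars false
set_option linter.style.longLine false

open Set Function MeasureTheory Filter Topology Metric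
open scoped ENNReal NNReal

namespace Crest.Agent.R096.Fs_168

open Crest.Agent.R096.Bsp_628 Crest.Agent.R096.Brk1_582 Crest.Agent.R096.Brk3_582
open Crest.Agent.R096.Brk5_582
open Crest.Agent.R096.Msh_715
open Crest.Agent.R096.SkN1_477 (emb usq side corner FaceIn FaceOut wlab OutNO FaceD Par)
open Crest.Agent.R096.No0_477 (vx nx fr fr_apply fr_symm_apply cub mf frN DsN QF Vw NOGeo)
open Crest.Agent.R096.No5_477 (st dsp vx_nx vx_st PureS)
open Crest.Agent.R096.Sq_477 (sl Dp measurable_Dp)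
open Crest.Agent.R096.No_276 (sq osq isOpen_osq measurableSet_osq sq_ae volume_osq)
open Crest.Agent.R096.Sk_962 (LL)
open Crest.Agent.R096.SkC1_961 (E3 FoamD)

noncomputable section

theorem emb_ep (j : Fin 2) (b t : ℝ) :
    emb (ep j b t) = t • (Pi.single j.castSucc 1 : E3) + b • (Pi.single (1 - j).castSucc 1 : E3) := by
  funext k
  fin_cases j <;> fin_cases k <;> simp [emb, ep]

theorem frN_mf (w : E3) {r : ℝ} (hr : r ≠ 0) : frN r hr (mf w r) = fr w r hr := by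
  unfold frN mf
  congr 1
  funext k
  fin_cases k <;> simp

/-- the ends of the side `(j, b)` of the square `(m, v)` -/
theorem vx_st_ep (a : E3) (r : ℝ) (o : Fin 2 → ℤ) (m : ℤ) (v : Fin 2 → ℕ) (j : Fin 2) (b : ℕ) :
    vx a r o m (st j b v) = vx a r o m v + r • emb (ep j b 0) := by
  rw [vx_st, emb_ep, zero_smul, zero_add, smul_smul]

theorem vx_nx_ep (a : E3) (r : ℝ) (o : Fin 2 → ℤ) (m : ℤ) (v : Fin 2 → ℕ) (j : Fin 2) (b : ℕ) :
    vx a r o m (nx (st j b v) j) = vx a r o m v + r • emb (ep j b 1) := by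
  rw [vx_nx, vx_st, emb_ep, one_smul, smul_add, smul_smul, add_assoc, add_comm (r • _) _]

section

variable {δ κ0 R c0 : ℝ} {La Om : Set E3} {ι : Type}

/-- **(L2)** the slice over a pure square -/
theorem L2_out {p : ℝ} (hp : 1 ≤ p) {Cu : Set (Set E3) → ℝ} {e η : ℝ} (he : 0 ≤ e)
    {Φ : FoamD δ κ0 R c0 La} {T : Tiling Om ι} {f : E3 → E3} {Ex : Set ι} {κ : Φ.F → ℕ}
    {L : Φ.F → Finset ℝ} {tol : ι → ℝ} {r : ℝ} (hr : 0 < r) {a : E3} {o : Fin 2 → ℤ} {M : ℕ}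
    {Zs : Finset ℤ} {U : ℤ → (Fin 2 → ℕ) → Prop} {𝒬 : Set (Set E3)} {Lq : ℕ} {ηg : ℝ}
    (G : NOGeo T Ex 𝒬 Lq ηg r hr.ne' a o M Zs U) {s : Fin 3 → ℝ} (hs : ∀ i, 0 ≤ s i) {S1 : ℝ}
    (hS1 : 0 ≤ S1) {g : E3 → E3} {u : E3 → Φ.F → ℝ} {n : Set E3 → Φ.F → ℝ}
    (hO : OutNO p Cu e η Φ T f Ex κ L tol (DsN a r o M Zs U) (frN r hr.ne') (S1 * r)
      (fun j => s j.castSucc * r) g u n)
    (hpl : Str_696.LocPL g Om) {ε τ t0 : ℝ} (hτ : 0 ≤ τ) (ht0 : 0 ≤ t0) (htol : ∀ i, tol i ≤ t0)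
    (hη : 2 * τ + t0 ≤ η * S1) (hε : ε ≤ η * S1) {m : ℤ} (hm : m ∈ Zs) {v : Fin 2 → ℕ}
    (hv : ∀ j, v j < M) (hP : PureS Φ f κ L s ε τ r hr.ne' a o U g u (m, v)) :
    ∫⁻ y in {y : Fin 2 → ℝ | ∀ j : Fin 2, vx a r o m v j.castSucc < y j ∧
        y j < vx a r o m v j.castSucc + r},
      ∑ i : Fin 2, ‖Dp (sl g (a 2 + r * m) 2) i y -
        Pi.single ((2 : Fin 3).succAbove i) (s ((2 : Fin 3).succAbove i))‖ₑ ^ p ≤
      ENNReal.ofReal (4 * 3 ^ p * (e * S1 ^ p + t0 ^ p) * r ^ 2) := by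
  obtain ⟨hU, ⟨c1, c2, σ1, σ2, ww, b, hQ, hk1, hk2⟩, hside⟩ := hP
  simp only at hU hQ hside
  obtain ⟨i, hi, -, -⟩ := G.tile m hm v hv hU
  have hw2 : vx a r o m v 2 = a 2 + r * m := rfl
  have hcorner : vx a r o m v ∈ cub (vx a r o m v) r := fun k =>
    ⟨le_rfl, le_add_of_nonneg_right hr.le⟩
  have hiEx : i ∉ Ex := G.off m hm v hv hU _ hcorner i (hi ▸ hcorner)
  have hclo : ∀ x ∈ cub (vx a r o m v) r, ∀ y ∈ cub (vx a r o m v) r,
      ‖(g x - Brk1_582.T (bc (F := Φ.F)) (u x)) - (g y - Brk1_582.T (bc (F := Φ.F)) (u y))‖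
        ≤ t0 * ‖x - y‖ := by
    intro x hx y hy
    rw [← hi] at hx hy
    refine (hO.clo i hiEx (fun z hz => hQ.par z (hi ▸ hz)) x hx y hy).2.trans ?_
    exact mul_le_mul_of_nonneg_right (htol i) (norm_nonneg _)
  have hface : ∀ (c1 c2 : Φ.F) (σ1 σ2 : ℝ),
      FaceIn Φ κ L u n η (S1 * r) (fun j => s j.castSucc * r) (fr (vx a r o m v) r hr.ne')
        c1 c2 σ1 σ2 →
      FaceOut p Φ κ L u e (S1 * r) (fun j => s j.castSucc * r) (fr (vx a r o m v) r hr.ne')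
        c1 c2 σ1 σ2 := by
    intro c1 c2 σ1 σ2 h
    have hmem : mf (vx a r o m v) r ∈ DsN a r o M Zs U := ⟨m, hm, v, hv, hU, rfl⟩
    have := hO.face _ hmem c1 c2 σ1 σ2
    rw [frN_mf] at this
    exact this h
  have hcell : ∀ (j : Fin 2) (b' : ℝ), b' = 0 ∨ b' = 1 → ∃ z ∈ Om, T.dim z = 1 ∧
      T.cc z = side (fr (vx a r o m v) r hr.ne') j b' ∧ ∀ i, z ∈ P (T.H i) → i ∉ Ex := by
    intro j b' hb'
    have hb'' : ∃ bn : ℕ, (bn = 0 ∨ bn = 1) ∧ (bn : ℝ) = b' := by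
      rcases hb' with rfl | rfl
      · exact ⟨0, Or.inl rfl, by simp⟩
      · exact ⟨1, Or.inr rfl, by simp⟩
    obtain ⟨bn, hbn, rfl⟩ := hb''
    obtain ⟨z, hz, hd, hcc⟩ := G.edge m hm v hv hU j bn hbn
    refine ⟨z, hz, hd, hcc, fun i' hi' => ?_⟩
    have h1 : z ∈ side (fr (vx a r o m v) r hr.ne') j bn := hcc ▸ T.self_mem_cc z
    exact G.off m hm v hv hU z (side_sub hr hb' h1) i' hi'
  have hV : ∀ (j : Fin 2) (b' : ℝ), b' = 0 ∨ b' = 1 →
      Vw Φ f κ L (side (fr (vx a r o m v) r hr.ne') j b') ≤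
        ENNReal.ofReal (r * (s j.castSucc + τ)) := by
    intro j b' hb'
    rcases hb' with rfl | rfl
    · have := (hside j 0 (Or.inl rfl)).1
      rwa [Nat.cast_zero] at this
    · have := (hside j 1 (Or.inr rfl)).1
      rwa [Nat.cast_one] at this
  have hD : ∀ (j : Fin 2) (b' : ℝ), b' = 0 ∨ b' = 1 → r * (s j.castSucc - τ) ≤
      (g (vx a r o m v + r • emb (ep j b' 1)) - g (vx a r o m v + r • emb (ep j b' 0)))
        j.castSucc := by
    intro j b' hb'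
    rcases hb' with rfl | rfl
    · have := (hside j 0 (Or.inl rfl)).2
      unfold dsp at this
      simp only at this
      rw [vx_nx_ep, vx_st_ep, Nat.cast_zero] at this
      exact this
    · have := (hside j 1 (Or.inr rfl)).2
      unfold dsp at this
      simp only at this
      rw [vx_nx_ep, vx_st_ep, Nat.cast_one] at this
      exact this
  have hLL : LL (sl g (vx a r o m v 2) 2) (osq (lc (vx a r o m v)) r 0) := by
    refine LL_slice (O := Om) (fun x hx => Sk_962.LocPL.lip hpl hx) fun y hy => ?_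
    have h1 := insert_mem_cub hr hy
    rw [← hi] at h1
    exact T.sub i h1
  have h := L2 (τ := τ) (tol := t0) (e := e) (e' := 0) (η := η) (ε := ε) (n := n) (f := f) hp hr hQ
    hs hτ ht0 he hS1 le_rfl (fun j => by linarith) hε hk1 hk2 hclo hLL (fun A c => hO.n0 A c)
    (fun j b' hb' => by
      obtain ⟨z, hz, hd, hcc, hex⟩ := hcell j b' hb'
      have := hO.cnt z hz hd hex
      rwa [hcc] at this)
    (fun j b' hb' c y hy y' hy' => by
      obtain ⟨z, hz, hd, hcc, hex⟩ := hcell j b' hb'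
      have := hO.osc z hz hd hex c y (hcc ▸ hy) y' (hcc ▸ hy')
      rw [hcc] at this
      rwa [add_zero, one_mul])
    hface hV hD
  rw [hw2] at h
  exact h

end

end

end Crest.Agent.R096.Fs_168
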