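import Crest.Agent.R096.Wk2_689

/-!
Row 96, P4 / ARCS, (A1) FACE-SIDE of helper117 #8543 (helper334), part 1: the region colouring of a
chord diagram of two families given by a relative cycle.
-/

set_option autoImplicit false
open Finset

namespace Crest.Agent.R096.Fsd_334

open Fx_689

variable {C : Type*} (D : Dg C) [Fintype C] [DecidableEq C]

/-- colour of the region on side `i` of the piece of `x` over `(k, k+1)` -/
def tcol (u : C → ℕ → ZMod 2) (x : C) (k : ℕ) (i : ZMod 2) : ZMod 2 :=
  D.S u (fun y => if y = x then i else D.ep y x k)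

lemma tcol_add {u : C → ℕ → ZMod 2} (hu : D.RC u) (x : C) (k : ℕ) (h1 : D.lo x ≤ k)
    (h2 : k < D.hi x) : tcol D u x k 0 + tcol D u x k 1 = u x k := by
  have h := D.S_add hu (fun y => if y = x then 0 else D.ep y x k)
    (fun y => if y = x then 1 else D.ep y x k) x (by
      intro y
      by_cases hy : y = x <;> simp [hy])
  have h3 := D.u_eq hu x k h1 h2 (fun y => if y = x then 0 else D.ep y x k)
    (fun y hy => by rw [if_neg (fun h => D.X_ne hy h.symm)])
  unfold tcol
  rw [h, h3, ← add_assoc, Dg.add_self', zero_add]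

lemma tcol_quad {u : C → ℕ → ZMod 2} {x y : C} (hX : D.X x y) {k k' : ℕ}
    (hk : k = D.e x y ∨ k = D.e x y - 1) (hk' : k' = D.e y x ∨ k' = D.e y x - 1) :
    tcol D u x k (D.ep x y k') = tcol D u y k' (D.ep y x k) := by
  unfold tcol
  congr 1
  funext z
  have hne := D.X_ne hX
  by_cases h1 : z = x
  · subst h1; simp [hne]
  · by_cases h2 : z = y
    · subst h2; simp [h1]
    · simp only [h1, h2, if_false]
      exact D.side_third hX h1 h2 k k' hk hk'

/-- side of `y` of the boundary gap number `j` -/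
def inb (y : C) (j : ℕ) : ZMod 2 := if D.lo y < j ∧ j ≤ D.hi y then 1 else 0

/-- colour of the boundary gap number `j` -/
def gb (u : C → ℕ → ZMod 2) (j : ℕ) : ZMod 2 := D.S u (fun y => inb D y j)

omit [DecidableEq C] in
lemma gb_zero (u : C → ℕ → ZMod 2) : gb D u 0 = 0 := by
  have : (fun y => inb D y 0) = fun _ => 0 := by
    funext y; simp [inb]
  unfold gb
  rw [this]
  simp [Dg.S]

omit [Fintype C] [DecidableEq C] in
lemma ep_lo {x y : C} : D.ep y x (D.lo x) = D.inn y (D.lo x) := by
  unfold Dg.ep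
  split_ifs with h
  · have := (D.e_mem h.1).1
    omega
  · rfl

omit [Fintype C] [DecidableEq C] in
lemma inn_same {x y : C} (hne : y ≠ x) (hX : ¬ D.X x y) : D.inn y (D.hi x) = D.inn y (D.lo x) := by
  have l1 := D.lt x; have l2 := D.lt y
  have a1 : D.lo x ≠ D.lo y := fun h => hne (D.lo_inj _ _ h).symm
  have b1 : D.hi x ≠ D.hi y := fun h => hne (D.hi_inj _ _ h).symm
  have c1 := D.ne x y; have c2 := D.ne y x
  unfold Dg.X at hX
  unfold Dg.inn
  split_ifs <;> first | rfl | (exfalso; omega)

omit [Fintype C] [DecidableEq C] in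
lemma ep_hi {x y : C} (hne : y ≠ x) : D.ep y x (D.hi x - 1) = D.inn y (D.hi x) := by
  unfold Dg.ep
  split_ifs with h
  · rfl
  · by_cases hX : D.X x y
    · exfalso
      apply h
      have := (D.e_mem hX).2
      exact ⟨hX, by omega⟩
    · exact (inn_same D hne hX).symm

lemma tcol_lo0 (u : C → ℕ → ZMod 2) (x : C) : tcol D u x (D.lo x) 0 = gb D u (D.lo x) := by
  unfold tcol gb
  congr 1
  funext y
  by_cases hy : y = x
  · subst hy; simp [inb]
  · have c1 := D.ne x y
    simp only [hy, if_false]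
    rw [ep_lo]
    unfold Dg.inn inb
    split_ifs <;> first | rfl | (exfalso; omega)

lemma tcol_lo1 (u : C → ℕ → ZMod 2) (x : C) : tcol D u x (D.lo x) 1 = gb D u (D.lo x + 1) := by
  unfold tcol gb
  congr 1
  funext y
  have l1 := D.lt x
  by_cases hy : y = x
  · subst hy
    simp only [if_true]
    unfold inb
    rw [if_pos ⟨by omega, by omega⟩]
  · have a1 : D.lo x ≠ D.lo y := fun h => hy (D.lo_inj _ _ h).symm
    simp only [hy, if_false]
    rw [ep_lo]
    unfold Dg.inn inb
    split_ifs <;> first | rfl | (exfalso; omega)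

lemma tcol_hi1 (u : C → ℕ → ZMod 2) (x : C) : tcol D u x (D.hi x - 1) 1 = gb D u (D.hi x) := by
  unfold tcol gb
  congr 1
  funext y
  have l1 := D.lt x
  by_cases hy : y = x
  · subst hy
    simp only [if_true]
    unfold inb
    rw [if_pos ⟨by omega, by omega⟩]
  · have b1 : D.hi x ≠ D.hi y := fun h => hy (D.hi_inj _ _ h).symm
    simp only [hy, if_false]
    rw [ep_hi D hy]
    unfold Dg.inn inb
    split_ifs <;> first | rfl | (exfalso; omega)

lemma tcol_hi0 (u : C → ℕ → ZMod 2) (x : C) : tcol D u x (D.hi x - 1) 0 = gb D u (D.hi x + 1) := by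
  unfold tcol gb
  congr 1
  funext y
  have l1 := D.lt x
  by_cases hy : y = x
  · subst hy
    simp only [if_true]
    unfold inb
    rw [if_neg (by omega)]
  · have c1 := D.ne y x
    simp only [hy, if_false]
    rw [ep_hi D hy]
    unfold Dg.inn inb
    split_ifs <;> first | rfl | (exfalso; omega)

lemma gb_lo {u : C → ℕ → ZMod 2} (hu : D.RC u) (x : C) :
    gb D u (D.lo x + 1) = gb D u (D.lo x) + u x (D.lo x) := by
  rw [← tcol_lo0, ← tcol_lo1, ← tcol_add D hu x (D.lo x) le_rfl (D.lt x), ← add_assoc,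
    Dg.add_self', zero_add]

lemma gb_hi {u : C → ℕ → ZMod 2} (hu : D.RC u) (x : C) :
    gb D u (D.hi x + 1) = gb D u (D.hi x) + u x (D.hi x - 1) := by
  have l1 := D.lt x
  rw [← tcol_hi0, ← tcol_hi1, ← tcol_add D hu x (D.hi x - 1) (by omega) (by omega),
    add_comm (tcol D u x (D.hi x - 1) 0), ← add_assoc, Dg.add_self', zero_add]

end Crest.Agent.R096.Fsd_334
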