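import Crest.Agent.R096.Fsd1_334

/-!
Row 96, P4 / ARCS, (A1) FACE-SIDE of helper117 #8543 (helper334), part 2: in the language of
`St1_147`.  A mod 2 function `u` on the sub-chords of a face, even at the double points, is the
jump of a colouring of the two sides of the sub-chords, consistent in the four quadrants of every
double point and along the boundary of the face.
-/

set_option autoImplicit false

namespace Crest.Agent.R096.Fsd_334

open St_147 Fx_689 Wk_689

variable {ι Φ W I : Type} {M : MeshC ι Φ W} {col : I → Bool} {s : St M col}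

/-- the first piece of a chord -/
def fp (x : Bool) (F : Φ) (a : W) (ha : s.At F a)
    (hl : M.pos F a < M.pos F (s.mu F a)) (hx : col (s.lab a) = x) : s.Sub x :=
  Sum.inl ⟨(F, a), ha, hl, hx⟩

/-- the piece above a double point -/
def ap (z : s.Dbl) (x : Bool) : s.Sub x := Sum.inr z

open Classical in
/-- the sub-chord of the chord `(F, a)` of colour `x` which lies over the gap number `k` -/
noncomputable def pk (x : Bool) (F : Φ) (a : W) (ha : s.At F a)
    (hl : M.pos F a < M.pos F (s.mu F a)) (hx : col (s.lab a) = x) (k : ℕ) : s.Sub x :=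
  if h : ∃ z : s.Dbl, (z.F = F ∧ z.e x = a) ∧ rk s F (z.key x) ≤ k then
    ap (Set.exists_max_image {z : s.Dbl | (z.F = F ∧ z.e x = a) ∧ rk s F (z.key x) ≤ k}
      (fun z => z.key x) (Set.toFinite _) h).choose x
  else fp x F a ha hl hx

lemma pk_cases (x : Bool) (F : Φ) (a : W) (ha : s.At F a)
    (hl : M.pos F a < M.pos F (s.mu F a)) (hx : col (s.lab a) = x) (k : ℕ) :
    (∃ z : s.Dbl, (z.F = F ∧ z.e x = a ∧ rk s F (z.key x) ≤ k) ∧
      (∀ y : s.Dbl, y.F = F → y.e x = a → rk s F (y.key x) ≤ k → y.key x ≤ z.key x) ∧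
      pk x F a ha hl hx k = ap z x) ∨
    ((∀ z : s.Dbl, z.F = F → z.e x = a → k < rk s F (z.key x)) ∧
      pk x F a ha hl hx k = fp x F a ha hl hx) := by
  classical
  by_cases h : ∃ z : s.Dbl, (z.F = F ∧ z.e x = a) ∧ rk s F (z.key x) ≤ k
  · left
    have hs := (Set.exists_max_image {z : s.Dbl | (z.F = F ∧ z.e x = a) ∧
      rk s F (z.key x) ≤ k} (fun z => z.key x) (Set.toFinite _) h).choose_spec
    refine ⟨_, ⟨hs.1.1.1, hs.1.1.2, hs.1.2⟩, ?_, ?_⟩
    · intro y h1 h2 h3
      exact hs.2 y ⟨⟨h1, h2⟩, h3⟩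
    · unfold pk
      rw [dif_pos h]
  · right
    refine ⟨?_, ?_⟩
    · push Not at h
      intro z h1 h2
      exact h z ⟨h1, h2⟩
    · unfold pk
      rw [dif_neg h]

lemma pk_chd (x : Bool) (F : Φ) (a : W) (ha : s.At F a)
    (hl : M.pos F a < M.pos F (s.mu F a)) (hx : col (s.lab a) = x) (k : ℕ) :
    chd (pk x F a ha hl hx k) = (F, a) := by
  rcases pk_cases x F a ha hl hx k with ⟨z, h1, -, h⟩ | ⟨-, h⟩
  · rw [h]; exact Prod.ext h1.1 h1.2.1
  · rw [h]; rfl

/-- characterisation of `pk` -/
lemma pk_eq {x : Bool} {F : Φ} {a : W} (ha : s.At F a)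
    (hl : M.pos F a < M.pos F (s.mu F a)) (hx : col (s.lab a) = x) {k : ℕ} {p : s.Sub x}
    (hc : chd p = (F, a)) (h1 : rk s F (start p) ≤ k ∨ ∃ b, p = Sum.inl b)
    (h2 : ∀ z : s.Dbl, z.F = F → z.e x = a → rk s F (z.key x) ≤ k → z.key x ≤ start p) :
    pk x F a ha hl hx k = p := by
  rcases pk_cases x F a ha hl hx k with ⟨z0, hz0, hmax, h⟩ | ⟨hno, h⟩
  · rw [h]
    have h3 : z0.key x ≤ start p := h2 z0 hz0.1 hz0.2.1 hz0.2.2
    apply start_inj
    · rw [hc]; exact Prod.ext hz0.1 hz0.2.1
    · refine le_antisymm h3 ?_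
      cases p with
      | inl b =>
        exfalso
        have h4 : M.pos F a < z0.key x := by
          have := (key_mem z0 x).1
          rw [hz0.1, hz0.2.1] at this
          exact this
        have h5 : start (Sum.inl b : s.Sub x) = M.pos F a := by
          have e : b.1 = (F, a) := hc
          simp only [start]
          rw [e]
        rw [h5] at h3
        exact absurd h4 (not_lt.2 h3)
      | inr y =>
        have h6 : rk s F (y.key x) ≤ k := by
          rcases h1 with h1 | ⟨b, hb⟩
          · exact h1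
          · exact absurd hb (by simp)
        exact hmax y (congrArg Prod.fst hc) (congrArg Prod.snd hc) h6
  · rw [h]
    cases p with
    | inl b =>
      have e : b.1 = (F, a) := hc
      have e2 : (⟨(F, a), ha, hl, hx⟩ : {p : Φ × W // s.At p.1 p.2 ∧
        M.pos p.1 p.2 < M.pos p.1 (s.mu p.1 p.2) ∧ col (s.lab p.2) = x}) = b :=
        Subtype.ext e.symm
      show (Sum.inl _ : s.Sub x) = Sum.inl b
      rw [e2]
    | inr y =>
      exfalso
      have h6 : rk s F (y.key x) ≤ k := by
        rcases h1 with h1 | ⟨b, hb⟩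
        · exact h1
        · exact absurd hb (by simp)
      exact absurd h6 (not_le.2 (hno y (congrArg Prod.fst hc) (congrArg Prod.snd hc)))

/-- `u` read on the diagram -/
noncomputable def uD (s : St M col) (u : (c : Bool) → s.Sub c → ZMod 2) (F : Φ) (a : Ch s F)
    (k : ℕ) : ZMod 2 :=
  u ((dg s F).fam a) (pk _ F a.1 a.2.1 a.2.2 rfl k)

lemma uD_eq (u : (c : Bool) → s.Sub c → ZMod 2) {F : Φ} (a : Ch s F) {x : Bool}
    (hx : col (s.lab a.1) = x) (k : ℕ) :
    uD s u F a k = u x (pk x F a.1 a.2.1 a.2.2 hx k) := by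
  subst hx; rfl

lemma pk_above (z : s.Dbl) (x : Bool) :
    pk x z.F (z.e x) (z.at_ x) (z.low x) (z.colr x) (rk s z.F (z.key x)) = Sum.inr z := by
  apply pk_eq
  · rfl
  · left; exact le_rfl
  · intro y hy1 hy2 hy3
    show y.key x ≤ z.key x
    by_contra hcon
    rw [not_le] at hcon
    have h1 : rk s z.F (z.key x) < rk s z.F (y.key x) := by
      rw [key_eq z x] at hcon ⊢
      exact rk_lt s (kp_at z x) le_rfl hcon
    omega

lemma rk_key_pos (z : s.Dbl) (x : Bool) : 0 < rk s z.F (z.key x) := by
  have h1 := (key_mem z x).1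
  have := rk_lt s (z.at_ x) le_rfl h1
  omega

lemma pk_below (z : s.Dbl) (x : Bool) :
    pk x z.F (z.e x) (z.at_ x) (z.low x) (z.colr x) (rk s z.F (z.key x) - 1) = bel z x := by
  have hb := bel_spec z x
  have hc := below_chd hb
  have hs := below_start hb
  have hpos := rk_key_pos z x
  apply pk_eq
  · exact hc
  · cases hp : bel z x with
    | inl b => right; exact ⟨b, rfl⟩
    | inr y =>
      left
      rw [hp] at hb
      have h1 : rk s z.F (y.key x) < rk s z.F (z.key x) := by
        have h3 := hb.2.2.1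
        have h4 := kp_at y x
        rw [← hb.1] at h4
        have h5 : y.key x = M.pos z.F (kp y x) := by rw [key_eq y x, ← hb.1]
        rw [h5] at h3 ⊢
        exact rk_lt s h4 le_rfl h3
      show rk s z.F (y.key x) ≤ _
      omega
  · intro y hy1 hy2 hy3
    by_contra hcon
    rw [not_le] at hcon
    have h1 : y.key x < z.key x := by
      by_contra h2
      rw [not_lt] at h2
      have := rk_mono s z.F h2
      omega
    exact hs.2 (Sum.inr y) (by rw [hc]; exact Prod.ext hy1 hy2) ⟨hcon, h1⟩

/-- the double point given by a crossing of the diagram -/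
lemma exists_dbl {F : Φ} {a b : Ch s F} (hX : (dg s F).X a b) :
    ∃ z : s.Dbl, ∃ h : z.F = F, h ▸ cz z ((dg s F).fam a) = a ∧
      h ▸ cz z (!((dg s F).fam a)) = b := by
  have hne := (dg s F).X_ne hX
  have hf := (dg s F).X_fam hX
  have hL := (X_iff s a b hne).1 hX
  cases hfa : (dg s F).fam a with
  | true =>
    have hfb : (dg s F).fam b = false := by
      rw [hfa] at hf
      cases h : (dg s F).fam b
      · rfl
      · exact absurd h.symm hf
    refine ⟨⟨F, fun x => if x then a.1 else b.1, ?_, ?_, ?_, ?_⟩, rfl, ?_, ?_⟩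
    · intro x; cases x
      · exact b.2.1
      · exact a.2.1
    · intro x; cases x
      · exact b.2.2
      · exact a.2.2
    · intro x; cases x
      · exact hfb
      · exact hfa
    · exact hL
    · exact Subtype.ext rfl
    · exact Subtype.ext rfl
  | false =>
    have hfb : (dg s F).fam b = true := by
      rw [hfa] at hf
      cases h : (dg s F).fam b
      · exact absurd h.symm hf
      · rfl
    have hL' := (X_iff s b a (Ne.symm hne)).1 ((dg s F).X_symm hX)
    refine ⟨⟨F, fun x => if x then b.1 else a.1, ?_, ?_, ?_, ?_⟩, rfl, ?_, ?_⟩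
    · intro x; cases x
      · exact a.2.1
      · exact b.2.1
    · intro x; cases x
      · exact a.2.2
      · exact b.2.2
    · intro x; cases x
      · exact hfa
      · exact hfb
    · exact hL'
    · exact Subtype.ext rfl
    · exact Subtype.ext rfl


variable (u : (c : Bool) → s.Sub c → ZMod 2) {F : Φ}

/-- `u` is even at the double points of `F` -/
def Even (s : St M col) (u : (c : Bool) → s.Sub c → ZMod 2) (F : Φ) : Prop :=
  ∀ z : s.Dbl, z.F = F →
    (u true (bel z true) + u true (Sum.inr z)) + (u false (bel z false) + u false (Sum.inr z)) = 0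

lemma uD_z (z : s.Dbl) (x : Bool) (k : ℕ) :
    uD s u z.F (cz z x) k = u x (pk x z.F (z.e x) (z.at_ x) (z.low x) (z.colr x) k) :=
  uD_eq u (cz z x) (z.colr x) k

lemma uD_above (z : s.Dbl) (x : Bool) :
    uD s u z.F (cz z x) ((dg s z.F).e (cz z x) (cz z (!x))) = u x (Sum.inr z) := by
  rw [uD_z, ← rk_key, pk_above]

lemma uD_below (z : s.Dbl) (x : Bool) :
    uD s u z.F (cz z x) ((dg s z.F).e (cz z x) (cz z (!x)) - 1) = u x (bel z x) := by
  rw [uD_z, ← rk_key, pk_below]

lemma uD_RC (hu : Even s u F) : (dg s F).RC (uD s u F) := by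
  constructor
  · intro a j h1 h2 h3
    show u _ (pk _ F a.1 a.2.1 a.2.2 rfl (j - 1)) = u _ (pk _ F a.1 a.2.1 a.2.2 rfl j)
    congr 1
    -- no double point has rank `j`
    have hno : ∀ z : s.Dbl, z.F = F → z.e (col (s.lab a.1)) = a.1 →
        rk s F (z.key (col (s.lab a.1))) ≠ j := by
      intro z hz hza hk
      subst hz
      have e1 : cz z (col (s.lab a.1)) = a := Subtype.ext hza
      apply h3 (cz z (!(col (s.lab a.1))))
      · have := cz_X z (col (s.lab a.1))
        rwa [e1] at this
      · have := rk_key z (col (s.lab a.1))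
        rw [e1] at this
        rw [← this, hk]
    rcases pk_cases _ F a.1 a.2.1 a.2.2 rfl j with ⟨z, hz, hmax, h⟩ | ⟨hn, h⟩
    · rw [h]
      apply pk_eq
      · exact Prod.ext hz.1 hz.2.1
      · left
        show rk s F (z.key _) ≤ j - 1
        have := hno z hz.1 hz.2.1
        omega
      · intro y h4 h5 h6
        exact hmax y h4 h5 (by omega)
    · rw [h]
      apply pk_eq
      · rfl
      · right; exact ⟨_, rfl⟩
      · intro y h4 h5 h6
        have := hn y h4 h5
        omega
  · intro a b hX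
    obtain ⟨z, hz, h1, h2⟩ := exists_dbl hX
    subst hz
    simp only at h1 h2
    have key : ∀ x : Bool, cz z x = a → cz z (!x) = b →
        uD s u z.F a ((dg s z.F).e a b - 1) + uD s u z.F a ((dg s z.F).e a b) =
        uD s u z.F b ((dg s z.F).e b a - 1) + uD s u z.F b ((dg s z.F).e b a) := by
      intro x ha hb
      subst ha
      subst hb
      have e1 := uD_above u z x
      have e2 := uD_below u z x
      have e3 := uD_above u z (!x)
      have e4 := uD_below u z (!x)
      rw [Bool.not_not] at e3 e4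
      rw [e1, e2, e3, e4]
      have h := hu z rfl
      have key2 : ∀ p q r t : ZMod 2, (p + q) + (r + t) = 0 → p + q = r + t := by decide
      cases x
      · exact (key2 _ _ _ _ h).symm
      · exact key2 _ _ _ _ h
    exact key _ h1 h2

open Classical in
/-- value of `u` on the sub-chord at the boundary point `w` -/
noncomputable def ue (s : St M col) (u : (c : Bool) → s.Sub c → ZMod 2) (F : Φ) (w : W) : ZMod 2 :=
  if h : s.At F w then
    (if hl : M.pos F w < M.pos F (s.mu F w) then
      uD s u F ⟨w, h, hl⟩ ((dg s F).lo ⟨w, h, hl⟩)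
    else if hl' : M.pos F (s.mu F w) < M.pos F (s.mu F (s.mu F w)) then
      uD s u F ⟨s.mu F w, At.mu s h, hl'⟩ ((dg s F).hi ⟨s.mu F w, At.mu s h, hl'⟩ - 1)
    else 0)
  else 0

lemma low_of_not {w : W} (h : s.At F w) (hl : ¬ M.pos F w < M.pos F (s.mu F w)) :
    M.pos F (s.mu F w) < M.pos F (s.mu F (s.mu F w)) := by
  rw [s.mu_mu h.1 h.2]
  exact lt_of_le_of_ne (not_lt.1 hl) (pos_ne s (At.mu s h) h (s.mu_ne h.1 h.2))

/-- the first piece -/
lemma pk_lo {x : Bool} {a : W} (ha : s.At F a) (hl : M.pos F a < M.pos F (s.mu F a))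
    (hx : col (s.lab a) = x) : pk x F a ha hl hx (rk s F (M.pos F a)) = fp x F a ha hl hx := by
  apply pk_eq
  · rfl
  · right; exact ⟨_, rfl⟩
  · intro z h1 h2 h3
    exfalso
    have h4 := (key_mem z x).1
    rw [h1, h2] at h4
    have := rk_lt s ha le_rfl h4
    omega

/-- the last piece -/
lemma pk_hi {x : Bool} {a : W} (ha : s.At F a) (hl : M.pos F a < M.pos F (s.mu F a))
    (hx : col (s.lab a) = x) {p : s.Sub x} (hc : chd p = (F, a)) (ht : IsTop p) :
    pk x F a ha hl hx (rk s F (M.pos F (s.mu F a)) - 1) = p := by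
  apply pk_eq
  · exact hc
  · cases p with
    | inl b => right; exact ⟨b, rfl⟩
    | inr z =>
      left
      show rk s F (z.key x) ≤ _
      have h1 : z.F = F := congrArg Prod.fst hc
      have h2 : z.e x = a := congrArg Prod.snd hc
      have h4 := (key_mem z x).2
      rw [h1, h2] at h4
      have h5 := kp_at z x
      have h6 := key_eq z x
      rw [h1] at h5 h6
      rw [h6] at h4 ⊢
      have := rk_lt s h5 le_rfl h4
      omega
  · intro z h1 h2 h3
    have := top_iff.1 ht (Sum.inr z) (by rw [hc]; exact Prod.ext h1 h2)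
    exact this

/-- the clause `End` at an upper end point -/
lemma end_upper {x : Bool} {p : s.Sub x} {w : W} (h : p.End F w)
    (hl : M.pos F (s.mu F w) < M.pos F w) : chd p = (F, s.mu F w) ∧ IsTop p := by
  obtain ⟨hw, h | h⟩ := h
  · exact absurd h.1 (not_lt.2 hl.le)
  · obtain ⟨-, h⟩ := h
    cases p with
    | inl a =>
      refine ⟨h.1, ?_⟩
      intro z hz
      have e1 : a.1.1 = z.F := hz.1
      have e2 : a.1.2 = z.e x := hz.2.1
      have h1 : a.1 = (F, s.mu F w) := h.1
      rw [h1] at e1 e2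
      exact h.2 z e1.symm e2.symm
    | inr y =>
      refine ⟨Prod.ext h.1 h.2.1, ?_⟩
      intro z hz
      exact h.2.2 z (hz.1.trans h.1) (hz.2.1.trans h.2.1) hz.2.2.1

lemma end_lower {x : Bool} {p : s.Sub x} {w : W} (h : p.End F w)
    (hl : M.pos F w < M.pos F (s.mu F w)) : ∃ hx : col (s.lab w) = x, p = fp x F w h.1 hl hx := by
  obtain ⟨hw, h | h⟩ := h
  · obtain ⟨-, a, rfl, ha⟩ := h
    have hx : col (s.lab w) = x := by
      have := a.2.2.2
      rwa [ha] at this
    refine ⟨hx, ?_⟩
    have e2 : a = (⟨(F, w), hw, hl, hx⟩ : {p : Φ × W // s.At p.1 p.2 ∧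
        M.pos p.1 p.2 < M.pos p.1 (s.mu p.1 p.2) ∧ col (s.lab p.2) = x}) := Subtype.ext ha
    exact congrArg Sum.inl e2
  · exact absurd h.1 (not_lt.2 hl.le)

/-- `ue` is the value of `u` on the sub-chord at `w` -/
lemma ue_eq {x : Bool} {p : s.Sub x} {w : W} (h : p.End F w) : ue s u F w = u x p := by
  unfold ue
  rw [dif_pos h.1]
  by_cases hl : M.pos F w < M.pos F (s.mu F w)
  · rw [dif_pos hl]
    obtain ⟨hx, hp⟩ := end_lower h hl
    rw [uD_eq u (⟨w, h.1, hl⟩ : Ch s F) hx]
    exact (congrArg (u x) (pk_lo h.1 hl hx)).trans (congrArg (u x) hp.symm)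
  · rw [dif_neg hl]
    have hl' := low_of_not h.1 hl
    rw [dif_pos hl']
    have hl2 : M.pos F (s.mu F w) < M.pos F w := by rwa [s.mu_mu h.1.1 h.1.2] at hl'
    obtain ⟨hc, ht⟩ := end_upper h hl2
    have hx : col (s.lab (s.mu F w)) = x := by
      have := chd_col p
      rwa [hc] at this
    rw [uD_eq u (⟨s.mu F w, At.mu s h.1, hl'⟩ : Ch s F) hx]
    exact congrArg (u x) (pk_hi (At.mu s h.1) hl' hx hc ht)

open Classical in
/-- boundary colour: the sum of `u` over the points of `P` below the position -/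
noncomputable def gs (s : St M col) (u : (c : Bool) → s.Sub c → ZMod 2) (F : Φ) (r : ℝ) : ZMod 2 :=
  ∑ w ∈ s.P.filter (fun w => w ∈ M.On F ∧ M.pos F w < r), ue s u F w

open Classical in
/-- the same with `≤` -/
noncomputable def gs' (s : St M col) (u : (c : Bool) → s.Sub c → ZMod 2) (F : Φ) (r : ℝ) : ZMod 2 :=
  ∑ w ∈ s.P.filter (fun w => w ∈ M.On F ∧ M.pos F w ≤ r), ue s u F w

lemma gs'_eq {w : W} (hw : s.At F w) : gs' s u F (M.pos F w) = gs s u F (M.pos F w) + ue s u F w := by
  classical
  unfold gs gs'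
  have : s.P.filter (fun v => v ∈ M.On F ∧ M.pos F v ≤ M.pos F w)
      = insert w (s.P.filter (fun v => v ∈ M.On F ∧ M.pos F v < M.pos F w)) := by
    ext v
    rw [Finset.mem_insert, Finset.mem_filter, Finset.mem_filter]
    constructor
    · rintro ⟨h1, h2, h3⟩
      rcases h3.eq_or_lt with h4 | h4
      · left; exact M.pos_inj F h2 hw.2 h4
      · right; exact ⟨h1, h2, h4⟩
    · rintro (rfl | ⟨h1, h2, h3⟩)
      · exact ⟨hw.1, hw.2, le_rfl⟩
      · exact ⟨h1, h2, h3.le⟩
  rw [this, Finset.sum_insert]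
  · ring
  · rw [Finset.mem_filter]
    rintro ⟨-, -, h⟩
    exact lt_irrefl _ h

lemma gb_step (hu : Even s u F) {w : W} (hw : s.At F w) :
    gb (dg s F) (uD s u F) (rk s F (M.pos F w) + 1)
      = gb (dg s F) (uD s u F) (rk s F (M.pos F w)) + ue s u F w := by
  have hRC := uD_RC u hu
  by_cases hl : M.pos F w < M.pos F (s.mu F w)
  · have := gb_lo (dg s F) hRC ⟨w, hw, hl⟩
    unfold ue
    rw [dif_pos hw, dif_pos hl]
    exact this
  · have hl' := low_of_not hw hl
    have := gb_hi (dg s F) hRC ⟨s.mu F w, At.mu s hw, hl'⟩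
    unfold ue
    rw [dif_pos hw, dif_neg hl, dif_pos hl']
    have e : (dg s F).hi ⟨s.mu F w, At.mu s hw, hl'⟩ = rk s F (M.pos F w) := by
      show rk s F (M.pos F (s.mu F (s.mu F w))) = _
      rw [s.mu_mu hw.1 hw.2]
    rw [e] at this ⊢
    exact this

lemma gb_rk (hu : Even s u F) (r : ℝ) : gb (dg s F) (uD s u F) (rk s F r) = gs s u F r := by
  classical
  induction hn : rk s F r using Nat.strong_induction_on generalizing r with
  | _ n ih =>
    by_cases hne : (s.P.filter (fun v => v ∈ M.On F ∧ M.pos F v < r)).Nonempty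
    · obtain ⟨w, hw, hmax⟩ := Finset.exists_max_image _ (fun v => M.pos F v) hne
      rw [Finset.mem_filter] at hw
      have hwA : s.At F w := ⟨hw.1, hw.2.1⟩
      have e1 : s.P.filter (fun v => v ∈ M.On F ∧ M.pos F v < r)
          = insert w (s.P.filter (fun v => v ∈ M.On F ∧ M.pos F v < M.pos F w)) := by
        ext v
        rw [Finset.mem_insert, Finset.mem_filter, Finset.mem_filter]
        constructor
        · rintro ⟨h1, h2, h3⟩
          have h4 := hmax v (by rw [Finset.mem_filter]; exact ⟨h1, h2, h3⟩)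
          rcases h4.eq_or_lt with h5 | h5
          · left; exact M.pos_inj F h2 hw.2.1 h5
          · right; exact ⟨h1, h2, h5⟩
        · rintro (rfl | ⟨h1, h2, h3⟩)
          · exact ⟨hw.1, hw.2.1, hw.2.2⟩
          · exact ⟨h1, h2, h3.trans hw.2.2⟩
      have hnot : w ∉ s.P.filter (fun v => v ∈ M.On F ∧ M.pos F v < M.pos F w) := by
        rw [Finset.mem_filter]
        rintro ⟨-, -, h⟩
        exact lt_irrefl _ h
      have e2 : rk s F r = rk s F (M.pos F w) + 1 := by
        unfold rk
        rw [e1, Finset.card_insert_of_notMem hnot]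
      have e3 : gs s u F r = gs s u F (M.pos F w) + ue s u F w := by
        unfold gs
        rw [e1, Finset.sum_insert hnot]
        ring
      rw [← hn, e2, gb_step u hu hwA, e3]
      congr 1
      exact ih (rk s F (M.pos F w)) (by omega) (M.pos F w) rfl
    · rw [Finset.not_nonempty_iff_eq_empty] at hne
      have h0 : n = 0 := by
        rw [← hn]
        unfold rk
        rw [hne, Finset.card_empty]
      rw [h0, gb_zero]
      unfold gs
      rw [hne, Finset.sum_empty]

/-- `true` if the piece of colour `x` below `z` lies inside the other chord -/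
def InB (z : s.Dbl) (x : Bool) : Prop :=
  M.Btw z.F (z.e (!x)) (s.mu z.F (z.e (!x))) (z.e x)

open Classical in
/-- the half of colour `x` at `z` on side `j` of the other chord (`true` = inner side) -/
noncomputable def pcz (z : s.Dbl) (x : Bool) (j : Bool) : s.Sub x :=
  if (InB z x ↔ j = true) then bel z x else ap z x

open Classical in
/-- `Bool` to `ZMod 2` -/
def bz (j : Bool) : ZMod 2 := if j then 1 else 0

/-- number of the gap under a sub-chord -/
noncomputable def gp {x : Bool} (p : s.Sub x) : ℕ :=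
  match p with
  | .inl a => rk s a.1.1 (M.pos a.1.1 a.1.2)
  | .inr z => rk s z.F (z.key x)

/-- the chord of a sub-chord as an element of `Ch` -/
def chc {x : Bool} (p : s.Sub x) : Ch s (chd p).1 := ⟨(chd p).2, chd_at p, chd_low p⟩

/-- THE COLOURING of the sides of the sub-chords -/
noncomputable def tc (s : St M col) (u : (c : Bool) → s.Sub c → ZMod 2) {x : Bool} (p : s.Sub x)
    (i : Bool) : ZMod 2 :=
  tcol (dg s (chd p).1) (uD s u (chd p).1) (chc p) (gp p) (bz i)

end Crest.Agent.R096.Fsd_334
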