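import Crest.Agent.R096.Fsd2_334

/-!
Row 96, P4 / ARCS, (A1) FACE-SIDE of helper117 #8543 (helper334), part 3: the theorem.
-/

set_option autoImplicit false

namespace Crest.Agent.R096.Fsd_334

open St_147 Fx_689 Wk_689

variable {ι Φ W I : Type} {M : MeshC ι Φ W} {col : I → Bool} {s : St M col}
  (u : (c : Bool) → s.Sub c → ZMod 2) {F : Φ}

lemma tc_eq {x : Bool} (p : s.Sub x) {F : Φ} {a : Ch s F} (h : chd p = (F, a.1)) (i : Bool) :
    tc s u p i = tcol (dg s F) (uD s u F) a (gp p) (bz i) := by
  have h1 : (chd p).1 = F := congrArg Prod.fst h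
  subst h1
  have h2 : a = chc p := Subtype.ext (congrArg Prod.snd h).symm
  rw [h2]; rfl

lemma gp_eq {x : Bool} (p : s.Sub x) : gp p = rk s (chd p).1 (start p) := by
  cases p <;> rfl

lemma tcol_shift {F : Φ} (a : Ch s F) {k k' : ℕ} (hkk : k ≤ k')
    (h : ∀ z : s.Dbl, z.F = F → z.e ((dg s F).fam a) = a.1 →
      ¬ (k < rk s F (z.key ((dg s F).fam a)) ∧ rk s F (z.key ((dg s F).fam a)) ≤ k'))
    (v : Ch s F → ℕ → ZMod 2) (i : ZMod 2) :
    tcol (dg s F) v a k i = tcol (dg s F) v a k' i := by
  unfold tcol
  congr 1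
  funext y
  by_cases hy : y = a
  · simp [hy]
  · simp only [hy, if_false]
    unfold Dg.ep
    by_cases hX : (dg s F).X a y
    · obtain ⟨z, hz, h1, h2⟩ := exists_dbl hX
      subst hz
      simp only at h1 h2
      have e := rk_key z ((dg s z.F).fam a)
      rw [h1, h2] at e
      have h3 := h z rfl (congrArg Subtype.val h1)
      rw [e] at h3
      by_cases h4 : (dg s z.F).e a y ≤ k
      · rw [if_pos ⟨hX, h4⟩, if_pos ⟨hX, h4.trans hkk⟩]
      · rw [if_neg (fun h => h4 h.2), if_neg (fun h5 => h3 ⟨not_le.1 h4, h5.2⟩)]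
    · rw [if_neg (fun h => hX h.1), if_neg (fun h => hX h.1)]

/-- a key is a position of a point: strict monotonicity of the rank -/
lemma rk_key_lt {z : s.Dbl} {x : Bool} {t : ℝ} (h : z.key x < t) :
    rk s z.F (z.key x) < rk s z.F t := by
  rw [key_eq] at h ⊢
  exact rk_lt s (kp_at z x) le_rfl h

lemma lt_of_rk {F : Φ} {t t' : ℝ} (h : rk s F t < rk s F t') : t < t' := by
  by_contra hc
  exact absurd (rk_mono s F (not_lt.1 hc)) (not_le.2 h)

open Classical in
lemma inn_InB (z : s.Dbl) (x : Bool) :
    (dg s z.F).inn (cz z (!x)) ((dg s z.F).lo (cz z x)) = bz (decide (InB z x)) := by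
  have e : ((dg s z.F).lo (cz z (!x)) < (dg s z.F).lo (cz z x) ∧
      (dg s z.F).lo (cz z x) < (dg s z.F).hi (cz z (!x))) ↔ InB z x := by
    show (rk s z.F (M.pos z.F (z.e (!x))) < rk s z.F (M.pos z.F (z.e x)) ∧
      rk s z.F (M.pos z.F (z.e x)) < rk s z.F (M.pos z.F (s.mu z.F (z.e (!x))))) ↔ _
    rw [rk_lt_iff s (z.at_ _), rk_lt_iff s (z.at_ _)]
    unfold InB MeshC.Btw
    constructor
    · intro h; exact Or.inl h
    · rintro (h | h)
      · exact h
      · exact absurd (h.1.trans h.2) (not_lt.2 (z.low _).le)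
  unfold Dg.inn bz
  by_cases h : InB z x
  · rw [if_pos (e.2 h)]; simp [h]
  · rw [if_neg (fun h' => h (e.1 h'))]; simp [h]

/-- the half of colour `x` on side `j` at `z`, read on the diagram -/
lemma pcz_spec (z : s.Dbl) (x j : Bool) :
    ∃ k, (k = (dg s z.F).e (cz z x) (cz z (!x)) ∨ k = (dg s z.F).e (cz z x) (cz z (!x)) - 1) ∧
      (dg s z.F).ep (cz z (!x)) (cz z x) k = bz j ∧
      ∀ i, tc s u (pcz z x j) i = tcol (dg s z.F) (uD s u z.F) (cz z x) k (bz i) := by
  classical
  have hX := cz_X z x
  have hI := inn_InB z x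
  have hrk := rk_key z x
  by_cases hj : InB z x ↔ j = true
  · refine ⟨(dg s z.F).e (cz z x) (cz z (!x)) - 1, Or.inr rfl, ?_, ?_⟩
    · rw [(dg s z.F).ep_e1 hX, hI]
      by_cases h : InB z x
      · rw [hj.1 h]; simp [h]
      · have : j = false := by
          cases j
          · rfl
          · exact absurd (hj.2 rfl) h
        rw [this]; simp [h]
    · intro i
      have hb := bel_spec z x
      have hc := below_chd hb
      have hs := below_start hb
      have e1 : pcz z x j = bel z x := by unfold pcz; rw [if_pos hj]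
      rw [e1, tc_eq u (bel z x) (a := cz z x) hc i]
      apply tcol_shift
      · rw [gp_eq, ← hrk, hc]
        -- start < key
        have h1 := hs.1
        have h2 : rk s z.F (start (bel z x)) < rk s z.F (z.key x) := by
          have h3 : start (bel z x) < z.key x := h1
          cases hp : bel z x with
          | inl b =>
            rw [hp] at h3 hc
            have hb1 : b.1 = (z.F, z.e x) := hc
            have h4 : start (Sum.inl b : s.Sub x) = M.pos z.F (z.e x) := by
              simp only [start]; rw [hb1]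
            rw [h4] at h3 ⊢
            exact rk_lt s (z.at_ x) le_rfl h3
          | inr y =>
            rw [hp] at h3 hc
            have hyF : y.F = z.F := congrArg Prod.fst hc
            have h4 := rk_key_lt (s := s) (z := y) (x := x) (t := z.key x) h3
            rw [hyF] at h4
            exact h4
        show rk s z.F (start (bel z x)) ≤ _
        omega
      · have hfam : (dg s z.F).fam (cz z x) = x := cz_fam z x
        rw [hfam]
        rintro y hy1 hy2 ⟨h1, h2⟩
        rw [gp_eq, hc] at h1
        have h3 : start (bel z x) < y.key x := lt_of_rk h1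
        have h4 : y.key x < z.key x := by
          apply lt_of_rk (s := s) (F := z.F)
          have := (dg s z.F).e_mem hX
          rw [hrk]
          omega
        exact hs.2 (Sum.inr y) (by rw [hc]; exact Prod.ext hy1 hy2) ⟨h3, h4⟩
  · refine ⟨(dg s z.F).e (cz z x) (cz z (!x)), Or.inl rfl, ?_, ?_⟩
    · rw [(dg s z.F).ep_e hX, (dg s z.F).inn_flip hX, hI]
      by_cases h : InB z x
      · have : j = false := by
          cases j
          · rfl
          · exact absurd ⟨fun _ => rfl, fun _ => h⟩ hj
        rw [this]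
        simp only [h, decide_true]
        unfold bz
        decide
      · have : j = true := by
          cases j
          · exact absurd ⟨fun h' => absurd h' h, fun h' => by simp at h'⟩ hj
          · rfl
        rw [this]
        simp only [h, decide_false]
        unfold bz
        decide
    · intro i
      have e1 : pcz z x j = ap z x := by unfold pcz; rw [if_neg hj]
      rw [e1, tc_eq u (ap z x) (F := z.F) (a := cz z x) rfl i]
      have : gp (ap z x) = (dg s z.F).e (cz z x) (cz z (!x)) := hrk
      rw [this]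

/-- (ii) the four quadrants at a double point -/
theorem quadrants (z : s.Dbl) (i j : Bool) :
    tc s u (pcz z true j) i = tc s u (pcz z false i) j := by
  obtain ⟨k, hk, h1, h2⟩ := pcz_spec u z true j
  obtain ⟨k', hk', h1', h2'⟩ := pcz_spec u z false i
  rw [h2, h2', ← h1, ← h1']
  have hX : (dg s z.F).X (cz z true) (cz z false) := cz_X z true
  exact tcol_quad (dg s z.F) hX hk hk'

/-- (i) the jump across a sub-chord -/
theorem jump (hu : Even s u F) {x : Bool} (p : s.Sub x) (hp : (chd p).1 = F) :
    tc s u p false + tc s u p true = u x p := by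
  subst hp
  have hRC := uD_RC u hu
  have hlo : (dg s (chd p).1).lo (chc p) ≤ gp p := by
    rw [gp_eq]
    exact rk_mono s _ (start_ge p)
  have hhi : gp p < (dg s (chd p).1).hi (chc p) := by
    have h3 := start_lt p
    show gp p < rk s (chd p).1 (M.pos (chd p).1 (s.mu (chd p).1 (chd p).2))
    cases p with
    | inl b =>
      exact (rk_lt_iff s b.2.1).2 b.2.2.1
    | inr z =>
      exact rk_key_lt (s := s) (z := z) (x := x) h3
  have h := tcol_add (dg s (chd p).1) hRC (chc p) (gp p) hlo hhi
  have e0 : bz false = 0 := by simp [bz]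
  have e1 : bz true = 1 := by simp [bz]
  unfold tc
  rw [e0, e1, h, uD_eq u (chc p) (chd_col p)]
  congr 1
  apply pk_eq
  · rfl
  · left; rw [gp_eq]
  · intro z h1 h2 h3
    rw [gp_eq] at h3
    by_contra hcon
    rw [not_le] at hcon
    have h4 : rk s (chd p).1 (start p) < rk s (chd p).1 (z.key x) := by
      cases p with
      | inl b => exact rk_lt s b.2.1 le_rfl hcon
      | inr y => exact rk_key_lt (s := s) (z := y) (x := x) hcon
    omega

/-- a chord from its lower end point -/
def mkc (s : St M col) (F : Φ) (w : W) (hw : s.At F w) (hl : M.pos F w < M.pos F (s.mu F w)) :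
    Ch s F := ⟨w, hw, hl⟩

/-- (iii) at a lower end point -/
theorem lower (hu : Even s u F) {x : Bool} {p : s.Sub x} {w : W} (h : p.End F w)
    (hl : M.pos F w < M.pos F (s.mu F w)) :
    tc s u p false = gs s u F (M.pos F w) ∧ tc s u p true = gs' s u F (M.pos F w) := by
  obtain ⟨hx, hp⟩ := end_lower h hl
  have hw := h.1
  have hc : chd p = (F, w) := by rw [hp]; rfl
  have hg : gp p = (dg s F).lo (mkc s F w hw hl) := by rw [gp_eq, hp]; rfl
  have e0 : bz false = 0 := by simp [bz]
  have e1 : bz true = 1 := by simp [bz]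
  have hlo : (dg s F).lo (mkc s F w hw hl) = rk s F (M.pos F w) := rfl
  constructor
  · rw [tc_eq u p (a := (mkc s F w hw hl)) hc, hg, e0, tcol_lo0, hlo, gb_rk u hu]
  · rw [tc_eq u p (a := (mkc s F w hw hl)) hc, hg, e1, tcol_lo1, hlo, gb_step u hu hw,
      gb_rk u hu, gs'_eq u hw]

/-- (iii) at an upper end point -/
theorem upper (hu : Even s u F) {x : Bool} {p : s.Sub x} {w : W} (h : p.End F w)
    (hl : M.pos F (s.mu F w) < M.pos F w) :
    tc s u p true = gs s u F (M.pos F w) ∧ tc s u p false = gs' s u F (M.pos F w) := by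
  obtain ⟨hc, ht⟩ := end_upper h hl
  have hw := h.1
  have hw' := At.mu s hw
  have hl' : M.pos F (s.mu F w) < M.pos F (s.mu F (s.mu F w)) := by
    rwa [s.mu_mu hw.1 hw.2]
  have hhi : (dg s F).hi (mkc s F (s.mu F w) hw' hl') = rk s F (M.pos F w) := by
    show rk s F (M.pos F (s.mu F (s.mu F w))) = _
    rw [s.mu_mu hw.1 hw.2]
  have e0 : bz false = 0 := by simp [bz]
  have e1 : bz true = 1 := by simp [bz]
  have hcx : col (s.lab (s.mu F w)) = x := by
    have := chd_col p
    rwa [hc] at this
  have shift : ∀ i, tcol (dg s F) (uD s u F) (mkc s F (s.mu F w) hw' hl') (gp p) i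
      = tcol (dg s F) (uD s u F) (mkc s F (s.mu F w) hw' hl')
        ((dg s F).hi (mkc s F (s.mu F w) hw' hl') - 1) i := by
    intro i
    apply tcol_shift
    · have h3 := start_lt p
      have h4 : gp p < (dg s F).hi (mkc s F (s.mu F w) hw' hl') := by
        rw [hhi]
        rw [hc] at h3
        simp only at h3
        rw [s.mu_mu hw.1 hw.2] at h3
        rw [gp_eq, hc]
        cases hp : p with
        | inl b =>
          rw [hp] at h3 hc
          have hb1 : b.1 = (F, s.mu F w) := hc
          have h4 : start (Sum.inl b : s.Sub x) = M.pos F (s.mu F w) := by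
            simp only [start]; rw [hb1]
          rw [h4]
          exact rk_lt s hw' le_rfl hl
        | inr y =>
          rw [hp] at h3 hc
          have hyF : y.F = F := congrArg Prod.fst hc
          have h4 := rk_key_lt (s := s) (z := y) (x := x) (t := M.pos F w) h3
          rw [hyF] at h4
          exact h4
      omega
    · have hfam : (dg s F).fam (mkc s F (s.mu F w) hw' hl') = x := hcx
      rw [hfam]
      rintro y hy1 hy2 ⟨h1, -⟩
      rw [gp_eq, hc] at h1
      have h3 : start p < y.key x := lt_of_rk h1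
      exact absurd h3 (not_lt.2 (top_iff.1 ht (Sum.inr y) (by rw [hc]; exact Prod.ext hy1 hy2)))
  constructor
  · rw [tc_eq u p (a := (mkc s F (s.mu F w) hw' hl')) hc, e1, shift, tcol_hi1, hhi, gb_rk u hu]
  · rw [tc_eq u p (a := (mkc s F (s.mu F w) hw' hl')) hc, e0, shift, tcol_hi0, hhi,
      gb_step u hu hw, gb_rk u hu, gs'_eq u hw]

/-- evenness from the relation `Below` -/
lemma even_of (h : ∀ (z : s.Dbl) (p : s.Sub true) (q : s.Sub false), z.F = F → p.Below z →
    q.Below z → (u true p + u true (Sum.inr z)) + (u false q + u false (Sum.inr z)) = 0) :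
    Even s u F := fun z hz => h z _ _ hz (bel_spec z true) (bel_spec z false)

end Crest.Agent.R096.Fsd_334
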