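import Crest.Agent.R096.Fsw9_928
import Mathlib.MeasureTheory.Measure.Hausdorff

/-!
# R096 (row 96), FACE-SWEEP, part 10: Lipschitz constants of PL maps, crude bounds (helper928)
-/

set_option autoImplicit false

open Set Metric Filter Topology MeasureTheory
open scoped ENNReal NNReal

namespace Crest.Agent.R096.Fsw_928

open Crest.Agent.R096.Ce_537 Crest.Agent.R096.Bd_416

section PLLip

variable {E F : Type*} [NormedAddCommGroup E] [NormedSpace ℝ E] [FiniteDimensional ℝ E]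
  [NormedAddCommGroup F] [NormedSpace ℝ F]

/-- a PL map has a pointwise Lipschitz constant -/
theorem exists_pw {f : E → F} {K : Set E} (hf : PLOn f K) :
    ∃ Λ : ℝ, 0 ≤ Λ ∧ ∀ z ∈ K, ∀ᶠ y in 𝓝[K] z, dist (f y) (f z) ≤ Λ * dist y z := by
  classical
  obtain ⟨hc, S, hS⟩ := hf
  refine ⟨∑ g ∈ S, ‖LinearMap.toContinuousLinearMap g.linear‖,
    Finset.sum_nonneg fun _ _ => norm_nonneg _, fun z hz => ?_⟩
  have h1 : ∀ᶠ y in 𝓝[K] z, ∀ g ∈ S, g z ≠ f z → f y ≠ g y := by
    rw [Filter.eventually_all_finset]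
    intro g _
    by_cases hg : g z = f z
    · exact Filter.Eventually.of_forall fun y h => absurd hg h
    · have hgc : ContinuousWithinAt g K z :=
        (AffineMap.continuous_of_finiteDimensional g).continuousWithinAt
      have h2 : ∀ᶠ y in 𝓝[K] z, 0 < dist (f y) (g y) :=
        Filter.Tendsto.eventually_const_lt (dist_pos.2 (fun e => hg e.symm))
          ((hc z hz).dist hgc)
      filter_upwards [h2] with y hy _ using dist_pos.1 hy
  filter_upwards [h1, self_mem_nhdsWithin] with y hy hyK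
  obtain ⟨g, hg, e⟩ := hS y hyK
  have h3 : g z = f z := by
    by_contra hne
    exact hy g hg hne e
  rw [e, ← h3, dist_eq_norm, dist_eq_norm]
  have h4 : g y - g z = g.linear (y - z) := by
    have := g.linearMap_vsub y z
    simpa using this.symm
  rw [h4]
  have h5 : ‖g.linear (y - z)‖ ≤ ‖LinearMap.toContinuousLinearMap g.linear‖ * ‖y - z‖ :=
    (LinearMap.toContinuousLinearMap g.linear).le_opNorm (y - z)
  refine h5.trans (mul_le_mul_of_nonneg_right ?_ (norm_nonneg _))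
  exact Finset.single_le_sum (f := fun g : E →ᵃ[ℝ] F =>
    ‖LinearMap.toContinuousLinearMap g.linear‖) (fun _ _ => norm_nonneg _) hg

/-- a PL map into `ℝ^m` is Lipschitz on a convex set -/
theorem exists_lip {m : ℕ} {f : E → Fin m → ℝ} {K : Set E} (hf : PLOn f K) (hK : Convex ℝ K) :
    ∃ Λ : ℝ≥0, LipschitzOnWith Λ f K := by
  obtain ⟨Λ, h0, h⟩ := exists_pw hf
  refine ⟨⟨Λ, h0⟩, LipschitzOnWith.of_dist_le_mul fun x hx y hy => ?_⟩
  rw [dist_pi_le_iff (by positivity)]
  intro j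
  have h1 : ∀ z ∈ K, Pc_117.LL Λ (fun y => f y j) K z := fun z hz => by
    filter_upwards [h z hz] with y hy
    have := (dist_le_pi_dist (f y) (f z) j).trans hy
    rwa [Real.dist_eq] at this
  have h2 := Pc_117.LL.dist_le hK h1 hy hx
  rw [Real.dist_eq]
  exact h2

end PLLip

/-! ### areas of images of boxes -/

/-- the box `[a,b] × [c,d]` -/
def bx (a b c d : ℝ) : Set (Fin 2 → ℝ) := {x | (a ≤ x 0 ∧ x 0 ≤ b) ∧ (c ≤ x 1 ∧ x 1 ≤ d)}

lemma bx_eq (a b c d : ℝ) : bx a b c d = Icc ![a, c] ![b, d] := by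
  ext x
  simp only [bx, mem_ofPred_eq, mem_Icc, Pi.le_def, Fin.forall_fin_two]
  simp
  tauto

lemma convex_bx (a b c d : ℝ) : Convex ℝ (bx a b c d) := by
  rw [bx_eq]; exact convex_Icc _ _

lemma volume_bx {a b c d : ℝ} : volume (bx a b c d) = ENNReal.ofReal (b - a) * ENNReal.ofReal (d - c) := by
  rw [bx_eq, Real.volume_Icc_pi]
  simp [Fin.prod_univ_two]

lemma bx_mono {a b c d a' b' c' d' : ℝ} (ha : a' ≤ a) (hb : b ≤ b') (hc : c' ≤ c) (hd : d ≤ d') :
    bx a b c d ⊆ bx a' b' c' d' := by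
  rintro x ⟨⟨h1, h2⟩, h3, h4⟩
  exact ⟨⟨ha.trans h1, h2.trans hb⟩, hc.trans h3, h4.trans hd⟩

lemma hausdorff_eq : (Measure.hausdorffMeasure 2 : Measure (Fin 2 → ℝ)) = volume := by
  have := hausdorffMeasure_pi_real (ι := Fin 2)
  simpa using this

/-- **area of the image of a box under a Lipschitz map** -/
theorem volume_image_bx {f : (Fin 2 → ℝ) → Fin 2 → ℝ} {Λ : ℝ≥0} {A B C D' : ℝ}
    (hf : LipschitzOnWith Λ f (bx A B C D')) {a b c d : ℝ} (ha : A ≤ a) (hb : b ≤ B)
    (hc : C ≤ c) (hd : d ≤ D') :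
    volume (f '' bx a b c d)
      ≤ (Λ : ℝ≥0∞) ^ 2 * (ENNReal.ofReal (b - a) * ENNReal.ofReal (d - c)) := by
  have h := (hf.mono (bx_mono ha hb hc hd)).hausdorffMeasure_image_le (d := 2) (by norm_num)
  rw [hausdorff_eq, volume_bx] at h
  simpa using h

end Crest.Agent.R096.Fsw_928
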