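import Crest.Agent.R096.Fsw10_928

/-!
# R096 (row 96), FACE-SWEEP, part 11: crude bounds: Lipschitz constant and area (helper928)
-/

set_option autoImplicit false

open Set Metric Filter Topology MeasureTheory
open scoped ENNReal NNReal

namespace Crest.Agent.R096.Fsw_928

open Crest.Agent.R096.Ce_537 Crest.Agent.R096.Bd_416

/-! ### crude Lipschitz bound -/

section crude

variable (P P' : Par)

/-- the points with collar coordinates -/
def Z1 : Set (Fin 2 → ℝ) := {z | z ∈ cube 2 ∧ 1/2 ≤ ‖(P.phi P').g z‖}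
def Z2 : Set (Fin 2 → ℝ) := {z | z ∈ cube 2 ∧ ‖(P.phi P').g z‖ ≤ 1/2}

lemma isClosed_Z1 : IsClosed (Z1 P P') :=
  ((P.phi P').pg.1.norm).preimage_isClosed_of_isClosed isClosed_closedBall isClosed_Ici

lemma isClosed_Z2 : IsClosed (Z2 P P') :=
  ((P.phi P').pg.1.norm).preimage_isClosed_of_isClosed isClosed_closedBall isClosed_Iic

lemma Z1_union : Z1 P P' ∪ Z2 P P' = cube 2 := by
  ext z
  constructor
  · rintro (h | h) <;> exact h.1
  · intro h
    rcases le_total (1/2) ‖(P.phi P').g z‖ with h1 | h1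
    · exact Or.inl ⟨h, h1⟩
    · exact Or.inr ⟨h, h1⟩

/-- the collar coordinates of a point -/
noncomputable def co (z : Fin 2 → ℝ) : (Fin 2 → ℝ) × ℝ := (collar 2).f ((P.phi P').g z)

variable {P P'}

lemma co_ann {z : Fin 2 → ℝ} (hz : z ∈ Z1 P P') : (P.phi P').g z ∈ Ann 2 :=
  ⟨hz.2, by simpa using (P.phi P').mg hz.1⟩

lemma co_mem {z : Fin 2 → ℝ} (hz : z ∈ Z1 P P') : co P P' z ∈ PS (sph 2) :=
  (collar 2).mf (co_ann hz)

lemma isCo_co {z : Fin 2 → ℝ} (hz : z ∈ Z1 P P') :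
    Par.IsCo ((P.phi P').g z) (co P P' z).1 (co P P' z).2 :=
  ⟨(co_mem hz).1, (co_mem hz).2, ((collar 2).li _ (co_ann hz)).symm⟩

lemma pl_co : PLOn (co P P') (Z1 P P') :=
  (collar 2).pf.comp ((P.phi P').pg.mono fun _ h => h.1) (fun _ h => co_ann h)

variable (P P')

/-- **crude Lipschitz bound**, the constant depends on the sweeps only -/
theorem exists_crude : ∃ Λ : ℝ, 0 ≤ Λ ∧ ∀ {ι : Type} {L : Lam (sph 2) ι} {K b : ℝ} {h ρ : ι → ℝ}
    (D : Dep L K b h ρ) (i : ι) (M : ℝ), 0 ≤ M →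
    (∀ ω ∈ sph 2, Pc_117.LL M (L.c i) (sph 2) ω) → 1 / h i ≤ M →
    ∀ z ∈ cube 2, Pc_117.LL (Λ * M / (2 * b)) (ff D P P' i) (cube 2) z := by
  obtain ⟨Λ, h0, hΛ⟩ := exists_pw (pl_co (P := P) (P' := P'))
  refine ⟨Λ, h0, ?_⟩
  intro ι L K b h ρ D i M hM hc hh z _
  have hb := D.cst.b0
  have hhi := D.h0 i
  have hpos : 0 ≤ Λ * M / (2 * b) := div_nonneg (mul_nonneg h0 hM) (by linarith)
  rw [← Z1_union P P']
  unfold Pc_117.LL
  rw [nhdsWithin_union, Filter.eventually_sup]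
  constructor
  · by_cases hz : z ∈ Z1 P P'
    swap
    · have : 𝓝[Z1 P P'] z = ⊥ := by
        rw [← notMem_closure_iff_nhdsWithin_eq_bot, (isClosed_Z1 P P').closure_eq]; exact hz
      rw [this]; exact Filter.eventually_bot
    have h1 := hΛ z hz
    have hq : Tendsto (fun y => (co P P' y).1) (𝓝[Z1 P P'] z) (𝓝[sph 2] (co P P' z).1) :=
      tendsto_nhdsWithin_iff.2 ⟨(continuous_fst.tendsto _).comp (pl_co.1 z hz),
        by filter_upwards [self_mem_nhdsWithin] with y hy using (co_mem hy).1⟩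
    have h2 := hq.eventually (hc _ (co_mem hz).1)
    filter_upwards [h1, h2, self_mem_nhdsWithin] with y hy hy2 hyZ
    have e : ∀ w ∈ Z1 P P', ff D P P' i w = cl (min (L.c i (co P P' w).1)
        (ramp (h i) (ρ i) (co P P' w).2) / (2 * b)) := fun w hw =>
      ff_of_co D P P' i (isCo_co hw)
    rw [e y hyZ, e z hz]
    refine (cl_lip _ _).trans ?_
    rw [← sub_div, abs_div, abs_of_pos (by linarith : 0 < 2 * b), div_mul_eq_mul_div]
    refine div_le_div_of_nonneg_right ?_ (by linarith)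
    refine (abs_min_sub_min_le_max _ _ _ _).trans (max_le ?_ ?_)
    · refine hy2.trans ?_
      have h3 : dist (co P P' y).1 (co P P' z).1 ≤ dist (co P P' y) (co P P' z) := le_max_left _ _
      calc M * dist (co P P' y).1 (co P P' z).1 ≤ M * (Λ * dist y z) :=
            mul_le_mul_of_nonneg_left (h3.trans hy) hM
        _ = _ := by ring
    · refine (ramp_lip hhi _ _).trans ?_
      have h3 : |(co P P' y).2 - (co P P' z).2| ≤ dist (co P P' y) (co P P' z) := by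
        rw [← Real.dist_eq]; exact le_max_right _ _
      calc (1 / h i) * |(co P P' y).2 - (co P P' z).2| ≤ M * (Λ * dist y z) :=
            mul_le_mul hh (h3.trans hy) (abs_nonneg _) hM
        _ = _ := by ring
  · by_cases hz : z ∈ Z2 P P'
    · filter_upwards [self_mem_nhdsWithin] with y hy
      have e : ∀ w ∈ Z2 P P', ff D P P' i w = -1/2 := fun w hw => D.fill_c_low i hw.2
      rw [e y hy, e z hz, sub_self, abs_zero]
      exact mul_nonneg hpos dist_nonneg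
    · have : 𝓝[Z2 P P'] z = ⊥ := by
        rw [← notMem_closure_iff_nhdsWithin_eq_bot, (isClosed_Z2 P P').closure_eq]; exact hz
      rw [this]; exact Filter.eventually_bot

end crude

/-! ### the sides of the square -/

/-- the four sides: bottom, top, left, right -/
def sd (s : Fin 4) (t : ℝ) : Fin 2 → ℝ :=
  fun i => if i = 0 then (if s = 0 then t else if s = 1 then t else if s = 2 then -1 else 1)
    else (if s = 0 then -1 else if s = 1 then 1 else t)

lemma sd_mem (s : Fin 4) {t : ℝ} (ht : |t| ≤ 1) : sd s t ∈ sph 2 := by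
  rw [mem_sph2]
  fin_cases s <;> simp [sd, ht]

lemma exists_sd {ω : Fin 2 → ℝ} (hω : ω ∈ sph 2) : ∃ s t, |t| ≤ 1 ∧ ω = sd s t := by
  rw [mem_sph2] at hω
  obtain ⟨h0, h1, h2⟩ := hω
  have ext2 : ∀ {a b : Fin 2 → ℝ}, a 0 = b 0 → a 1 = b 1 → a = b := by
    intro a b e0 e1
    funext i
    fin_cases i
    · exact e0
    · exact e1
  rcases h2 with h2 | h2
  · rcases (abs_eq zero_le_one).1 h2 with h3 | h3
    · exact ⟨3, ω 1, h1, ext2 (by simp [sd, h3]) (by simp [sd])⟩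
    · exact ⟨2, ω 1, h1, ext2 (by simp [sd, h3]) (by simp [sd])⟩
  · rcases (abs_eq zero_le_one).1 h2 with h3 | h3
    · exact ⟨1, ω 0, h0, ext2 (by simp [sd]) (by simp [sd, h3])⟩
    · exact ⟨0, ω 0, h0, ext2 (by simp [sd]) (by simp [sd, h3])⟩

lemma pl_sd (s : Fin 4) {Z : Set (Fin 2 → ℝ)} : PLOn (fun x : Fin 2 → ℝ => sd s (x 0)) Z := by
  have h0 : PLOn (fun x : Fin 2 → ℝ => x 0) Z := pl_apply (plOn_id Z) 0
  refine pl_pi fun i => ?_
  fin_cases i <;> fin_cases s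
  · simpa [sd] using h0
  · simpa [sd] using h0
  · simpa [sd] using plOn_const (-1:ℝ) Z
  · simpa [sd] using plOn_const (1:ℝ) Z
  · simpa [sd] using plOn_const (-1:ℝ) Z
  · simpa [sd] using plOn_const (1:ℝ) Z
  · simpa [sd] using h0
  · simpa [sd] using h0

lemma mem_bx_abs {x : Fin 2 → ℝ} {c d : ℝ} (hx : x ∈ bx (-1) 1 c d) : |x 0| ≤ 1 :=
  abs_le.2 hx.1

/-! ### area of the active set of a chord -/

section act

variable (P P' : Par)

noncomputable def Psi (s : Fin 4) (x : Fin 2 → ℝ) : Fin 2 → ℝ :=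
  (P.phi P').f ((collar 2).g (sd s (x 0), x 1))

lemma pl_Psi (s : Fin 4) : PLOn (Psi P P' s) (bx (-1) 1 (1/2) 1) := by
  have h1 : PLOn (fun x : Fin 2 → ℝ => (sd s (x 0), x 1)) (bx (-1) 1 (1/2) 1) :=
    pl_pair (pl_sd s) (pl_apply (plOn_id _) 1)
  have h2 : MapsTo (fun x : Fin 2 → ℝ => (sd s (x 0), x 1)) (bx (-1) 1 (1/2) 1) (PS (sph 2)) :=
    fun x hx => ⟨sd_mem s (mem_bx_abs hx), hx.2⟩
  exact (P.phi P').pf.comp ((collar 2).pg.comp h1 h2)
    (fun x hx => Ann_union_Hf ▸ Or.inl ((collar 2).mg (h2 hx)))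

/-- the active set of the chord `i` -/
def Act {ι : Type} {L : Lam (sph 2) ι} {K b : ℝ} {h ρ : ι → ℝ} (D : Dep L K b h ρ) (i : ι) :
    Set (Fin 2 → ℝ) := {z | z ∈ cube 2 ∧ |ff D P P' i z| < 1/2}

/-- the two ends of the chord `i` on the circle -/
def Ends2 {ι : Type} (L : Lam (sph 2) ι) (i : ι) (ℓ : ℝ) : Prop :=
  ∃ (s : Fin 2 → Fin 4) (α : Fin 2 → ℝ), ∀ ω ∈ sph 2, |L.c i ω| < 1/2 →
    ∃ j t, ω = sd (s j) t ∧ |t - α j| ≤ ℓ ∧ |t| ≤ 1

theorem exists_act : ∃ Λ : ℝ≥0, ∀ {ι : Type} {L : Lam (sph 2) ι} {K b : ℝ} {h ρ : ι → ℝ}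
    (D : Dep L K b h ρ) (i : ι) (ℓ : ℝ), 0 ≤ ℓ → Ends2 L i ℓ →
    volume (Act P P' D i) ≤ (Λ : ℝ≥0∞) * ENNReal.ofReal (ℓ + h i) := by
  classical
  choose Λ hΛ using fun s : Fin 4 => exists_lip (pl_Psi P P' s) (convex_bx _ _ _ _)
  refine ⟨8 * ∑ s, (Λ s) ^ 2, ?_⟩
  intro ι L K b h ρ D i ℓ hℓ ⟨s, α, hends⟩
  have hhi := D.h0 i
  -- covering
  have hcov : Act P P' D i ⊆ (⋃ j : Fin 2, Psi P P' (s j) ''
      bx (max (-1) (α j - ℓ)) (min 1 (α j + ℓ)) (1/2) 1) ∪
      (⋃ s' : Fin 4, Psi P P' s' '' bx (-1) 1 (ρ i - h i / 2) (ρ i + h i / 2)) := by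
    rintro z ⟨hz, hact⟩
    have hz1 : z ∈ Z1 P P' := by
      refine ⟨hz, ?_⟩
      by_contra hc
      have e : ff D P P' i z = -1/2 := D.fill_c_low i (not_le.1 hc).le
      rw [e] at hact; norm_num [abs_of_neg] at hact
    have hco := isCo_co hz1
    rw [ff_of_co D P P' i hco] at hact
    obtain ⟨hlo, hhi'⟩ := abs_lt.1 hact
    set ω := (co P P' z).1
    set r := (co P P' z).2
    have hb := D.cst.b0
    have hb2 := D.cst.b2
    have hmin : |min (L.c i ω) (ramp (h i) (ρ i) r)| < 1/2 := by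
      have h3 : |cl (min (L.c i ω) (ramp (h i) (ρ i) r) / (2 * b))| < 1/2 := hact
      have h4 := (abs_cl_lt h3).2
      rw [abs_div, abs_of_pos (by linarith : 0 < 2 * b), div_lt_iff₀ (by linarith)] at h4
      linarith
    obtain ⟨m1, m2⟩ := abs_lt.1 hmin
    have c1 : -(1/2) < L.c i ω := m1.trans_le (min_le_left _ _)
    have c2 : -(1/2) < ramp (h i) (ρ i) r := m1.trans_le (min_le_right _ _)
    have hzeq : (P.phi P').f ((collar 2).g (ω, r)) = z := by
      rw [← hco.2.2]; exact (P.phi P').ri z hz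
    by_cases hcω : L.c i ω < 1/2
    · left
      obtain ⟨j, t, e, ht, ht1⟩ := hends ω hco.1 (abs_lt.2 ⟨c1, hcω⟩)
      refine mem_iUnion.2 ⟨j, ![t, r], ?_, ?_⟩
      · obtain ⟨a1, a2⟩ := abs_le.1 ht
        obtain ⟨b1, b2⟩ := abs_le.1 ht1
        refine ⟨⟨?_, ?_⟩, ?_, ?_⟩
        · show max (-1) (α j - ℓ) ≤ t
          exact max_le b1 (by linarith)
        · show t ≤ min 1 (α j + ℓ)
          exact le_min b2 (by linarith)
        · exact hco.2.1.1
        · exact hco.2.1.2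
      · show (P.phi P').f ((collar 2).g (sd (s j) t, r)) = z
        rw [← e]; exact hzeq
    · right
      rw [not_lt] at hcω
      have h5 : ramp (h i) (ρ i) r < 1/2 := by
        rcases min_lt_iff.1 m2 with h6 | h6
        · exact absurd h6 (not_lt.2 hcω)
        · exact h6
      obtain ⟨s', t, ht1, e⟩ := exists_sd hco.1
      refine mem_iUnion.2 ⟨s', ![t, r], ?_, ?_⟩
      · obtain ⟨b1, b2⟩ := abs_le.1 ht1
        refine ⟨⟨b1, b2⟩, ?_, ?_⟩
        · show ρ i - h i / 2 ≤ r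
          exact (lt_of_ramp hhi (by linarith)).le
        · show r ≤ ρ i + h i / 2
          exact (lt_of_ramp_lt hhi h5).le
      · show (P.phi P').f ((collar 2).g (sd s' t, r)) = z
        rw [← e]; exact hzeq
  have hlo := D.lo i
  have hup := D.hi i
  have hS : ∀ s' : Fin 4, ((Λ s' : ℝ≥0) : ℝ≥0∞) ^ 2 ≤ ((∑ s, (Λ s) ^ 2 : ℝ≥0) : ℝ≥0∞) := by
    intro s'
    rw [← ENNReal.coe_pow, ENNReal.coe_le_coe]
    exact Finset.single_le_sum (f := fun s => (Λ s) ^ 2) (fun _ _ => by positivity) (Finset.mem_univ s')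
  refine (measure_mono hcov).trans ((measure_union_le _ _).trans ?_)
  have k1 : volume (⋃ j : Fin 2, Psi P P' (s j) ''
      bx (max (-1) (α j - ℓ)) (min 1 (α j + ℓ)) (1/2) 1)
      ≤ ((∑ s, (Λ s) ^ 2 : ℝ≥0) : ℝ≥0∞) * ENNReal.ofReal (2 * ℓ) := by
    refine (measure_iUnion_le _).trans ?_
    rw [tsum_fintype]
    have : ∀ j : Fin 2, volume (Psi P P' (s j) ''
        bx (max (-1) (α j - ℓ)) (min 1 (α j + ℓ)) (1/2) 1)
        ≤ ((∑ s, (Λ s) ^ 2 : ℝ≥0) : ℝ≥0∞) * ENNReal.ofReal ℓ := by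
      intro j
      refine (volume_image_bx (hΛ (s j)) (le_max_left _ _) (min_le_left _ _) le_rfl le_rfl).trans ?_
      refine mul_le_mul' (hS (s j)) ?_
      rw [← ENNReal.ofReal_mul' (by norm_num)]
      apply ENNReal.ofReal_le_ofReal
      have h1 := le_max_right (-1) (α j - ℓ)
      have h2 := min_le_right 1 (α j + ℓ)
      nlinarith
    refine (Finset.sum_le_sum fun j _ => this j).trans ?_
    rw [Finset.sum_const, Finset.card_univ, Fintype.card_fin, nsmul_eq_mul,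
      ENNReal.ofReal_mul (by norm_num)]
    rw [show ENNReal.ofReal 2 = 2 by norm_num]
    push_cast
    rw [mul_left_comm]
  have k2 : volume (⋃ s' : Fin 4, Psi P P' s' '' bx (-1) 1 (ρ i - h i / 2) (ρ i + h i / 2))
      ≤ ((∑ s, (Λ s) ^ 2 : ℝ≥0) : ℝ≥0∞) * ENNReal.ofReal (8 * h i) := by
    refine (measure_iUnion_le _).trans ?_
    rw [tsum_fintype]
    have : ∀ s' : Fin 4, volume (Psi P P' s' '' bx (-1) 1 (ρ i - h i / 2) (ρ i + h i / 2))
        ≤ ((Λ s' : ℝ≥0) : ℝ≥0∞) ^ 2 * ENNReal.ofReal (2 * h i) := by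
      intro s'
      refine (volume_image_bx (hΛ s') le_rfl le_rfl hlo hup).trans ?_
      refine mul_le_mul' le_rfl ?_
      rw [← ENNReal.ofReal_mul' (by linarith)]
      apply ENNReal.ofReal_le_ofReal
      linarith
    refine (Finset.sum_le_sum fun s' _ => this s').trans ?_
    rw [← Finset.sum_mul]
    push_cast
    refine mul_le_mul' le_rfl (ENNReal.ofReal_le_ofReal (by linarith))
  refine (add_le_add k1 k2).trans ?_
  rw [← mul_add, ← ENNReal.ofReal_add (by linarith) (by linarith)]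
  push_cast
  rw [mul_comm (8 : ℝ≥0∞), mul_assoc]
  refine mul_le_mul' le_rfl ?_
  rw [show (8 : ℝ≥0∞) = ENNReal.ofReal 8 by norm_num, ← ENNReal.ofReal_mul (by norm_num)]
  apply ENNReal.ofReal_le_ofReal
  linarith

end act

end Crest.Agent.R096.Fsw_928
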