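import Crest.Agent.R096.Fsw11_928

/-!
# R096 (row 96), FACE-SWEEP, part 12: area of the fans (helper928)
-/

set_option autoImplicit false

open Set Metric Filter Topology MeasureTheory
open scoped ENNReal NNReal

namespace Crest.Agent.R096.Fsw_928

open Crest.Agent.R096.Ce_537 Crest.Agent.R096.Bd_416

/-- the side `σ = ±1` (left, right) -/
noncomputable def ls (σ : Bool) (t : ℝ) : Fin 2 → ℝ := fun i => if i = 0 then (if σ then 1 else -1) else t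

lemma ls_mem (σ : Bool) {t : ℝ} (ht : |t| ≤ 1) : ls σ t ∈ sph 2 := by
  rw [mem_sph2]
  cases σ <;> simp [ls, ht]

lemma pl_ls (σ : Bool) {Z : Set (Fin 2 → ℝ)} : PLOn (fun x : Fin 2 → ℝ => ls σ (x 0)) Z := by
  refine pl_pi fun i => ?_
  fin_cases i
  · exact plOn_const (if σ then (1:ℝ) else -1) Z
  · exact pl_apply (plOn_id Z) 0

/-- parametrisation of the fan -/
noncomputable def Fp (P : Par) (σ : Bool) (x : Fin 2 → ℝ) : Fin 2 → ℝ := P.F (ls σ (x 0), x 1)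

lemma pl_Fp (P : Par) (σ : Bool) {Z : Set (Fin 2 → ℝ)} : PLOn (Fp P σ) Z :=
  (P.pl_F univ).comp (pl_pair (pl_ls σ) (pl_apply (plOn_id _) 1)) (fun _ _ => mem_univ _)

/-- a point of the fan of a swept chord -/
lemma fan_mem {P : Par} {rp ym yp : ℝ → ℝ} (hm : ∀ σ, (σ = 1 ∨ σ = -1) → -1 < ym σ)
    {z : Fin 2 → ℝ} (hz : z ∈ Fan P rp ym yp) :
    ∃ (σ : Bool), ∃ x, z = Fp P σ x ∧ (ym (if σ then 1 else -1) ≤ x 0 ∧
      x 0 ≤ yp (if σ then 1 else -1)) ∧ |x 0| ≤ 1 ∧ x 1 ∈ Icc (0:ℝ) 1 ∧ x 0 ≤ P.hh (x 1) ∧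
      -1/2 < rp (x 1) := by
  obtain ⟨hzb, h1, h2, h3⟩ := hz
  have hs := sgn_cases (z 0)
  have h4 : P.om z 0 = sgn (z 0) := by
    rcases P.om_bot_cases hzb with h | h
    · exfalso
      have := hm _ hs
      linarith
    · exact h.1
  have hom := P.om_mem hzb.1
  have hli : P.F (P.om z, P.R (z 0) (z 1)) = z := P.sweep.ri z hzb.1
  have hσ : ∃ σ : Bool, sgn (z 0) = (if σ then 1 else -1) := by
    rcases hs with h | h
    · exact ⟨true, by simpa using h⟩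
    · exact ⟨false, by simpa using h⟩
  obtain ⟨σ, hσ⟩ := hσ
  have he : P.om z = ls σ (P.om z 1) := by
    funext i
    fin_cases i
    · show P.om z 0 = (if σ then (1:ℝ) else -1)
      rw [h4, hσ]
    · rfl
  refine ⟨σ, ![P.om z 1, P.R (z 0) (z 1)], ?_, ⟨?_, ?_⟩, (mem_sph2.1 hom).2.1, P.R_mem hzb.1, ?_, ?_⟩
  · show z = P.F (ls σ (P.om z 1), P.R (z 0) (z 1))
    rw [← he, hli]
  · rw [← hσ]; exact h1
  · rw [← hσ]; exact h2
  · show P.om z 1 ≤ P.hh (P.R (z 0) (z 1))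
    rw [P.bot_eq hzb]; exact P.om_bot_le hzb
  · show -1/2 < rp (P.R (z 0) (z 1))
    rw [hzb.2]; exact h3

/-- **area of the fan of a type A chord** -/
theorem exists_fan (P : Par) : ∃ Λ : ℝ≥0, ∀ (rp ym yp : ℝ → ℝ) (t0 ℓ lam : ℝ), 0 ≤ ℓ → 0 ≤ lam →
    (∀ σ, (σ = 1 ∨ σ = -1) → -1 < ym σ ∧ ym σ ≤ 1 ∧ yp σ ≤ 1 ∧ yp σ - ym σ ≤ ℓ ∧
      t0 - (1 + ym σ) / P.H ≤ lam) →
    t0 ≤ 1 → (∀ t, t0 ≤ t → rp t ≤ -1/2) →
    volume (Fan P rp ym yp) ≤ (Λ : ℝ≥0∞) * (ENNReal.ofReal ℓ * ENNReal.ofReal lam) := by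
  classical
  choose Λ hΛ using fun σ : Bool => exists_lip (pl_Fp P σ (Z := bx (-1) 1 0 1)) (convex_bx _ _ _ _)
  refine ⟨∑ σ, (Λ σ) ^ 2, ?_⟩
  intro rp ym yp t0 ℓ lam hℓ hlam hy ht0 hrp
  have hcov : Fan P rp ym yp ⊆ ⋃ σ : Bool, Fp P σ '' bx (ym (if σ then 1 else -1))
      (yp (if σ then 1 else -1)) (max 0 ((1 + ym (if σ then 1 else -1)) / P.H)) t0 := by
    intro z hz
    obtain ⟨σ, x, h1, h2, h3, h4, h5, h6⟩ := fan_mem (fun σ hσ => (hy σ hσ).1) hz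
    refine mem_iUnion.2 ⟨σ, x, ⟨h2, ?_, ?_⟩, h1.symm⟩
    · refine max_le h4.1 ?_
      rw [div_le_iff₀ P.H0]
      unfold Par.hh at h5
      linarith [h2.1]
    · by_contra hc
      have := hrp (x 1) (not_le.1 hc).le
      linarith
  have hσ : ∀ σ : Bool, ((if σ then (1:ℝ) else -1) = 1 ∨ (if σ then (1:ℝ) else -1) = -1) := by
    intro σ; cases σ <;> simp
  refine (measure_mono hcov).trans ((measure_iUnion_le _).trans ?_)
  rw [tsum_fintype]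
  push_cast
  rw [Finset.sum_mul]
  refine Finset.sum_le_sum fun σ _ => ?_
  obtain ⟨a1, a2, a3, a4, a5⟩ := hy _ (hσ σ)
  refine (volume_image_bx (hΛ σ) a1.le a3 (le_max_left _ _) ht0).trans ?_
  refine mul_le_mul' le_rfl (mul_le_mul' (ENNReal.ofReal_le_ofReal a4)
    (ENNReal.ofReal_le_ofReal ?_))
  have := le_max_right 0 ((1 + ym (if σ then (1:ℝ) else -1)) / P.H)
  linarith

/-- from the second square to the first -/
noncomputable def back (P : Par) (z : Fin 2 → ℝ) : Fin 2 → ℝ := P.chart.g (sw z)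

lemma back_z2 (P : Par) {z : Fin 2 → ℝ} (hz : z ∈ P.BX) : back P (P.z2 z) = z := by
  unfold back Par.z2
  rw [sw_sw]
  exact P.chart.li z hz

lemma pl_back (P : Par) {Z : Set (Fin 2 → ℝ)} (hZ : Z ⊆ cube 2) : PLOn (back P) Z :=
  P.chart.pg.comp (pl_sw Z) (fun _ hx => swE.mf (hZ hx))

/-- **area of the fan of a type B chord** -/
theorem exists_fanB (P P' : Par) : ∃ Λ : ℝ≥0, ∀ (rp ym yp : ℝ → ℝ) (t0 ℓ lam : ℝ), 0 ≤ ℓ →
    0 ≤ lam →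
    (∀ σ, (σ = 1 ∨ σ = -1) → -1 < ym σ ∧ ym σ ≤ 1 ∧ yp σ ≤ 1 ∧ yp σ - ym σ ≤ ℓ ∧
      t0 - (1 + ym σ) / P'.H ≤ lam) →
    t0 ≤ 1 → (∀ t, t0 ≤ t → rp t ≤ -1/2) →
    volume {z | z ∈ P.BX ∧ P.z2 z ∈ Fan P' rp ym yp}
      ≤ (Λ : ℝ≥0∞) * (ENNReal.ofReal ℓ * ENNReal.ofReal lam) := by
  obtain ⟨Λ, hΛ⟩ := exists_fan P'
  obtain ⟨M, hM⟩ := exists_lip (pl_back P (Z := cube 2) le_rfl) (convex_closedBall _ _)
  refine ⟨M ^ 2 * Λ, ?_⟩
  intro rp ym yp t0 ℓ lam h1 h2 h3 h4 h5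
  have hsub : {z | z ∈ P.BX ∧ P.z2 z ∈ Fan P' rp ym yp} ⊆ back P '' Fan P' rp ym yp := by
    rintro z ⟨hz, hz2⟩
    exact ⟨P.z2 z, hz2, back_z2 P hz⟩
  have hF : Fan P' rp ym yp ⊆ cube 2 := fun z hz => hz.1.1.1
  have h6 := (hM.mono hF).hausdorffMeasure_image_le (d := 2) (by norm_num)
  rw [hausdorff_eq] at h6
  refine (measure_mono hsub).trans (h6.trans ?_)
  push_cast
  rw [mul_assoc]
  have e : ((M : ℝ≥0∞) ^ (2:ℝ)) = (M : ℝ≥0∞) ^ 2 := by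
    rw [← ENNReal.rpow_natCast]; norm_num
  rw [e]
  exact mul_le_mul' le_rfl (hΛ rp ym yp t0 ℓ lam h1 h2 h3 h4 h5)

end Crest.Agent.R096.Fsw_928
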