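import Crest.Agent.R096.Fsw12_928
import Mathlib.Analysis.Calculus.Rademacher

/-!
# R096 (row 96), FACE-SWEEP, part 13: derivatives and the `L^p` bookkeeping (helper928)
-/

set_option autoImplicit false

open Set Metric Filter Topology MeasureTheory
open scoped ENNReal NNReal

namespace Crest.Agent.R096.Fsw_928

open Crest.Agent.R096.Ce_537 Crest.Agent.R096.Bd_416

/-- the open square -/
abbrev osq : Set (Fin 2 → ℝ) := ball 0 1

lemma osq_subset : osq ⊆ cube 2 := ball_subset_closedBall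

lemma cube_nhds {z : Fin 2 → ℝ} (hz : z ∈ osq) : cube 2 ∈ 𝓝 z :=
  mem_of_superset (isOpen_ball.mem_nhds hz) osq_subset

/-! ### derivatives from local bounds -/

lemma fderiv_LC {j : Fin 2} {K : ℝ} {f : (Fin 2 → ℝ) → ℝ} {Z : Set (Fin 2 → ℝ)} {x : Fin 2 → ℝ}
    (hK : 0 ≤ K) (h : LC j K f Z x) (hZ : Z ∈ 𝓝 x) (v : Fin 2 → ℝ) :
    |fderiv ℝ f x v| ≤ K * |v j| := by
  by_cases hf : DifferentiableAt ℝ f x
  swap
  · rw [fderiv_zero_of_not_differentiableAt hf]
    simpa using mul_nonneg hK (abs_nonneg _)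
  unfold LC at h
  rw [nhdsWithin_eq_nhds.2 hZ] at h
  have h1 : HasDerivAt (fun t : ℝ => x + t • v) v 0 := by
    simpa using ((hasDerivAt_id (0:ℝ)).smul_const v).const_add x
  have h2 : HasFDerivAt f (fderiv ℝ f x) (x + (0:ℝ) • v) := by simpa using hf.hasFDerivAt
  have h3 : HasDerivAt (fun t : ℝ => f (x + t • v)) (fderiv ℝ f x v) 0 :=
    h2.comp_hasDerivAt (0:ℝ) h1
  have h4 : Tendsto (fun t : ℝ => x + t • v) (𝓝 0) (𝓝 x) := by
    have := h1.continuousAt.tendsto
    simpa using this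
  have h5 : ∀ᶠ t : ℝ in 𝓝 0, ‖f (x + t • v) - f (x + (0:ℝ) • v)‖ ≤ K * |v j| * ‖t - 0‖ := by
    filter_upwards [h4.eventually h] with t ht
    rw [zero_smul, add_zero, Real.norm_eq_abs]
    refine ht.trans (le_of_eq ?_)
    simp [abs_mul]
    ring
  have := h3.hasFDerivAt.le_of_lip' (mul_nonneg hK (abs_nonneg _)) h5
  simpa using this

lemma norm_fderiv_LC {j : Fin 2} {K : ℝ} {f : (Fin 2 → ℝ) → ℝ} {Z : Set (Fin 2 → ℝ)}
    {x : Fin 2 → ℝ} (hK : 0 ≤ K) (h : LC j K f Z x) (hZ : Z ∈ 𝓝 x) : ‖fderiv ℝ f x‖ ≤ K := by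
  refine ContinuousLinearMap.opNorm_le_bound _ hK fun v => ?_
  refine (fderiv_LC hK h hZ v).trans (mul_le_mul_of_nonneg_left ?_ hK)
  exact norm_le_pi_norm v j

/-! ### activity -/

section act

variable {ι : Type} {L : Lam (sph 2) ι} {K b : ℝ} {h ρ : ι → ℝ} (D : Dep L K b h ρ) (P P' : Par)
  (β : ℝ)

/-- the band functions after later squeezes (total factor `β`) -/
noncomputable def fb (i : ι) (z : Fin 2 → ℝ) : ℝ := cl (ff D P P' i z / β)

variable {β} in
lemma fb_one {i : ι} {z : Fin 2 → ℝ} (hz : z ∈ cube 2) : fb D P P' 1 i z = ff D P P' i z := by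
  unfold fb; rw [div_one, cl_of_mem (ff_mem D P P' i hz)]

/-- where the function is `± 1/2` the derivative vanishes -/
lemma fderiv_inactive {i : ι} {z : Fin 2 → ℝ} (h1 : ¬ |fb D P P' β i z| < 1/2) :
    fderiv ℝ (fb D P P' β i) z = 0 := by
  have hm : ∀ᶠ y in 𝓝 z, fb D P P' β i y ∈ I2 := Filter.Eventually.of_forall fun y => cl_mem _
  have h2 : fb D P P' β i z ∈ I2 := cl_mem _
  have h3 : fb D P P' β i z = 1/2 ∨ fb D P P' β i z = -1/2 := by
    rw [not_lt, le_abs] at h1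
    rcases h1 with h1 | h1
    · exact Or.inl (le_antisymm h2.2 h1)
    · exact Or.inr (le_antisymm (by linarith) h2.1)
  rcases h3 with h3 | h3
  · refine IsLocalMax.fderiv_eq_zero ?_
    filter_upwards [hm] with y hy
    rw [h3]; exact hy.2
  · refine IsLocalMin.fderiv_eq_zero ?_
    filter_upwards [hm] with y hy
    rw [h3]; exact hy.1

/-- bands on the circle are disjoint -/
def Disj (L : Lam (sph 2) ι) : Prop :=
  ∀ i j, i ≠ j → ∀ ω ∈ sph 2, ¬ (|L.c i ω| < 1/2 ∧ |L.c j ω| < 1/2)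

variable {β} in
lemma active_ff (h0 : 0 < β) (hβ1 : β ≤ 1) {i : ι} {z : Fin 2 → ℝ} (h1 : |fb D P P' β i z| < 1/2) :
    |ff D P P' i z| < 1/2 := by
  have h4 := (abs_cl_lt h1).2
  rw [abs_div, abs_of_pos h0, div_lt_iff₀ h0] at h4
  linarith

lemma active_cases {i : ι} {z : Fin 2 → ℝ} (hz : z ∈ cube 2) (h1 : |ff D P P' i z| < 1/2) :
    z ∈ Z1 P P' ∧ -1/2 < L.c i (co P P' z).1 ∧ (|L.c i (co P P' z).1| < 1/2 ∨
      |(co P P' z).2 - ρ i| < h i / 2) := by
  have hz1 : z ∈ Z1 P P' := by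
    refine ⟨hz, ?_⟩
    by_contra hc
    have e : ff D P P' i z = -1/2 := D.fill_c_low i (not_le.1 hc).le
    rw [e] at h1; norm_num [abs_of_neg] at h1
  have hco := isCo_co hz1
  rw [ff_of_co D P P' i hco] at h1
  have hb := D.cst.b0
  have hb2 := D.cst.b2
  have hmin : |min (L.c i (co P P' z).1) (ramp (h i) (ρ i) (co P P' z).2)| < 1/2 := by
    have h4 := (abs_cl_lt h1).2
    rw [abs_div, abs_of_pos (by linarith : 0 < 2 * b), div_lt_iff₀ (by linarith)] at h4
    linarith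
  obtain ⟨m1, m2⟩ := abs_lt.1 hmin
  have c1 : -(1/2) < L.c i (co P P' z).1 := m1.trans_le (min_le_left _ _)
  have c2 : -(1/2) < ramp (h i) (ρ i) (co P P' z).2 := m1.trans_le (min_le_right _ _)
  refine ⟨hz1, by linarith, ?_⟩
  by_cases hc : L.c i (co P P' z).1 < 1/2
  · exact Or.inl (abs_lt.2 ⟨c1, hc⟩)
  · right
    have h5 : ramp (h i) (ρ i) (co P P' z).2 < 1/2 := by
      rcases min_lt_iff.1 m2 with h6 | h6
      · exact absurd h6 hc
      · exact h6
    rw [abs_lt]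
    have k1 := lt_of_ramp (D.h0 i) (show -1/2 < ramp (h i) (ρ i) (co P P' z).2 by linarith)
    have k2 := lt_of_ramp_lt (D.h0 i) h5
    constructor <;> linarith

/-- **at most two bands are active at a point** -/
theorem two_active (h0 : 0 < β) (hβ1 : β ≤ 1) (hd : Disj L) (J : Finset ι) {z : Fin 2 → ℝ}
    (hz : z ∈ cube 2) : (J.filter fun i => |fb D P P' β i z| < 1/2).card ≤ 2 := by
  classical
  by_contra hc
  rw [not_le, Finset.two_lt_card] at hc
  obtain ⟨i, hi, j, hj, k, hk, hij, hik, hjk⟩ := hc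
  rw [Finset.mem_filter] at hi hj hk
  obtain ⟨z1, a1, a2⟩ := active_cases D P P' hz (active_ff D P P' h0 hβ1 hi.2)
  obtain ⟨-, b1, b2⟩ := active_cases D P P' hz (active_ff D P P' h0 hβ1 hj.2)
  obtain ⟨-, d1, d2⟩ := active_cases D P P' hz (active_ff D P P' h0 hβ1 hk.2)
  have hω := (co_mem z1).1
  have key : ∀ i j, i ≠ j → -1/2 < L.c i (co P P' z).1 → -1/2 < L.c j (co P P' z).1 →
      |(co P P' z).2 - ρ i| < h i / 2 → |(co P P' z).2 - ρ j| < h j / 2 → False := by
    intro i j hij hi hj h1 h2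
    have h3 := D.sep i j hij ⟨_, hω, hi, hj⟩
    have h4 : |ρ i - ρ j| ≤ |(co P P' z).2 - ρ i| + |(co P P' z).2 - ρ j| := by
      have h5 := abs_sub_le (ρ i) (co P P' z).2 (ρ j)
      have h6 := abs_sub_comm (ρ i) (co P P' z).2
      linarith
    linarith
  rcases a2 with a2 | a2 <;> rcases b2 with b2 | b2 <;> rcases d2 with d2 | d2
  · exact hd i j hij _ hω ⟨a2, b2⟩
  · exact hd i j hij _ hω ⟨a2, b2⟩
  · exact hd i k hik _ hω ⟨a2, d2⟩
  · exact key j k hjk b1 d1 b2 d2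
  · exact hd j k hjk _ hω ⟨b2, d2⟩
  · exact key i k hik a1 d1 a2 d2
  · exact key i j hij a1 b1 a2 b2
  · exact key i j hij a1 b1 a2 b2

/-- sum of the derivatives -/
theorem sum_fderiv_le (h0 : 0 < β) (hβ1 : β ≤ 1) (hd : Disj L) (J : Finset ι) (w : ι → ℝ) {M : ℝ}
    (hM : 0 ≤ M) {z : Fin 2 → ℝ} (hz : z ∈ osq)
    (h1 : ∀ i ∈ J, |w i| * ‖fderiv ℝ (fb D P P' β i) z‖ ≤ M) :
    ∑ i ∈ J, |w i| * ‖fderiv ℝ (fb D P P' β i) z‖ ≤ 2 * M := by
  classical
  rw [← Finset.sum_filter_add_sum_filter_not J (fun i => |fb D P P' β i z| < 1/2)]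
  have h2 : ∑ i ∈ J.filter (fun i => ¬ |fb D P P' β i z| < 1/2),
      |w i| * ‖fderiv ℝ (fb D P P' β i) z‖ = 0 := by
    refine Finset.sum_eq_zero fun i hi => ?_
    rw [fderiv_inactive D P P' β (Finset.mem_filter.1 hi).2, norm_zero, mul_zero]
  rw [h2, add_zero]
  refine (Finset.sum_le_card_nsmul _ _ M fun i hi => h1 i (Finset.mem_filter.1 hi).1).trans ?_
  rw [nsmul_eq_mul]
  refine mul_le_mul_of_nonneg_right ?_ hM
  exact_mod_cast two_active D P P' β h0 hβ1 hd J (osq_subset hz)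

/-- the weighted sum -/
noncomputable def GJ (J : Finset ι) (w : ι → ℝ) (z : Fin 2 → ℝ) : ℝ :=
  ∑ i ∈ J, w i * fb D P P' β i z

lemma fderiv_GJ (J : Finset ι) (w : ι → ℝ) {z : Fin 2 → ℝ}
    (h1 : ∀ i ∈ J, DifferentiableAt ℝ (fb D P P' β i) z) :
    fderiv ℝ (GJ D P P' β J w) z = ∑ i ∈ J, w i • fderiv ℝ (fb D P P' β i) z := by
  have h2 : HasFDerivAt (GJ D P P' β J w) (∑ i ∈ J, w i • fderiv ℝ (fb D P P' β i) z) z := by
    unfold GJ
    exact HasFDerivAt.fun_sum fun i hi => ((h1 i hi).hasFDerivAt.const_mul (w i))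
  exact h2.fderiv

lemma norm_fderiv_GJ_le (J : Finset ι) (w : ι → ℝ) {z : Fin 2 → ℝ}
    (h1 : ∀ i ∈ J, DifferentiableAt ℝ (fb D P P' β i) z) :
    ‖fderiv ℝ (GJ D P P' β J w) z‖ ≤ ∑ i ∈ J, |w i| * ‖fderiv ℝ (fb D P P' β i) z‖ := by
  rw [fderiv_GJ D P P' β J w h1]
  refine (norm_sum_le _ _).trans (le_of_eq (Finset.sum_congr rfl fun i _ => ?_))
  rw [norm_smul, Real.norm_eq_abs]

/-- all band functions are differentiable almost everywhere -/
theorem ae_diff (J : Finset ι) {Λ : ℝ} (h0 : 0 ≤ Λ)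
    (h1 : ∀ i ∈ J, ∀ z ∈ cube 2, Pc_117.LL Λ (fb D P P' β i) (cube 2) z) :
    ∀ᵐ z ∂(volume.restrict osq), ∀ i ∈ J, DifferentiableAt ℝ (fb D P P' β i) z := by
  rw [Filter.eventually_all_finset]
  intro i hi
  have hL : LipschitzOnWith ⟨Λ, h0⟩ (fb D P P' β i) osq := by
    refine LipschitzOnWith.of_dist_le_mul fun x hx y hy => ?_
    have := Pc_117.LL.dist_le (convex_closedBall (0 : Fin 2 → ℝ) 1) (h1 i hi)
      (osq_subset hy) (osq_subset hx)
    rw [Real.dist_eq]; exact this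
  have h2 := hL.ae_differentiableWithinAt (μ := volume) measurableSet_ball
  filter_upwards [h2, ae_restrict_mem measurableSet_ball] with z hz hzm
  exact hz.differentiableAt (isOpen_ball.mem_nhds hzm)

end act

/-! ### bookkeeping -/

/-- three kinds of points -/
theorem lint_three {p : ℝ} (hp : 0 ≤ p) {g : (Fin 2 → ℝ) → ℝ≥0∞} {S1 S2 S3 : Set (Fin 2 → ℝ)}
    {e1 e2 e3 : ℝ≥0∞} (hcov : osq ⊆ S1 ∪ (S2 ∪ S3))
    (h1 : ∀ᵐ z ∂(volume.restrict osq), z ∈ S1 → g z ≤ e1)
    (h2 : ∀ᵐ z ∂(volume.restrict osq), z ∈ S2 → g z ≤ e2)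
    (h3 : ∀ᵐ z ∂(volume.restrict osq), z ∈ S3 → g z ≤ e3) (h12 : e1 ≤ e2) (h23 : e2 ≤ e3) :
    ∫⁻ z in osq, g z ^ p ≤ e1 ^ p * volume osq + e2 ^ p * volume S2 + e3 ^ p * volume S3 := by
  classical
  set T2 := toMeasurable volume S2
  set T3 := toMeasurable volume S3
  have m2 : MeasurableSet T2 := measurableSet_toMeasurable _ _
  have m3 : MeasurableSet T3 := measurableSet_toMeasurable _ _
  have hle : ∀ᵐ z ∂(volume.restrict osq), g z ^ p ≤
      e1 ^ p + T2.indicator (fun _ => e2 ^ p) z + T3.indicator (fun _ => e3 ^ p) z := by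
    filter_upwards [h1, h2, h3, ae_restrict_mem measurableSet_ball] with z a1 a2 a3 hz
    by_cases k3 : z ∈ T3
    · rw [indicator_of_mem k3]
      refine le_trans ?_ le_add_self
      refine ENNReal.rpow_le_rpow ?_ hp
      rcases hcov hz with h | h | h
      · exact (a1 h).trans (h12.trans h23)
      · exact (a2 h).trans h23
      · exact a3 h
    · rw [indicator_of_notMem k3, add_zero]
      have n3 : z ∉ S3 := fun h => k3 (subset_toMeasurable _ _ h)
      by_cases k2 : z ∈ T2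
      · rw [indicator_of_mem k2]
        refine le_trans ?_ le_add_self
        refine ENNReal.rpow_le_rpow ?_ hp
        rcases hcov hz with h | h | h
        · exact (a1 h).trans h12
        · exact a2 h
        · exact absurd h n3
      · rw [indicator_of_notMem k2, add_zero]
        have n2 : z ∉ S2 := fun h => k2 (subset_toMeasurable _ _ h)
        refine ENNReal.rpow_le_rpow ?_ hp
        rcases hcov hz with h | h | h
        · exact a1 h
        · exact absurd h n2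
        · exact absurd h n3
  refine (lintegral_mono_ae hle).trans ?_
  rw [lintegral_add_right _ (measurable_const.indicator m3),
    lintegral_add_right _ (measurable_const.indicator m2), lintegral_const,
    lintegral_indicator_const m2, lintegral_indicator_const m3, Measure.restrict_apply_univ]
  refine add_le_add (add_le_add le_rfl ?_) ?_
  · refine mul_le_mul' le_rfl ((Measure.restrict_apply_le _ _).trans ?_)
    rw [measure_toMeasurable]
  · refine mul_le_mul' le_rfl ((Measure.restrict_apply_le _ _).trans ?_)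
    rw [measure_toMeasurable]

end Crest.Agent.R096.Fsw_928
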