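import Crest.Agent.R096.Fsw15_928

/-!
# R096 (row 96), FACE-SWEEP, part 16: chords from positions, the estimate in the form "for every e" (helper928)
-/

set_option autoImplicit false

open Set Metric Filter Topology MeasureTheory
open scoped ENNReal NNReal

namespace Crest.Agent.R096.Fsw_928

open Crest.Agent.R096.Ce_537 Crest.Agent.R096.Bd_416

/-! ### clipped affine functions -/

section clip

lemma cl_sub_le {y l t : ℝ} (hl : 0 < l) (h : t ≤ y - l / 2) : cl ((y - t) / l) = 1/2 := by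
  apply cl_of_ge
  rw [le_div_iff₀ hl]; linarith

lemma cl_sub_ge {y l t : ℝ} (hl : 0 < l) (h : y + l / 2 ≤ t) : cl ((y - t) / l) = -1/2 := by
  apply cl_of_le
  rw [div_le_iff₀ hl]; linarith

lemma cl_sub_lip {y l : ℝ} (hl : 0 < l) (s t : ℝ) :
    |cl ((y - s) / l) - cl ((y - t) / l)| ≤ (1 / l) * |s - t| := by
  refine (cl_lip _ _).trans (le_of_eq ?_)
  have : (y - s) / l - (y - t) / l = -((s - t) / l) := by ring
  rw [this, abs_neg, abs_div, abs_of_pos hl]; ring

end clip

section pos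

variable {ι : Type} {L : Lam (sph 2) ι} {K b : ℝ} {h ρ : ι → ℝ}

/-- values on the right (`σ = 1`) and left side -/
noncomputable def kP (y1 l1 y2 l2 : ℝ) (σ t : ℝ) : ℝ :=
  if σ = 1 then cl ((y1 - t) / l1) else cl ((y2 - t) / l2)

lemma kP_KS {y1 l1 y2 l2 : ℝ} (h1 : 0 < l1) (h2 : 0 < l2) :
    KS (kP y1 l1 y2 l2) (fun σ => if σ = 1 then y1 - l1 / 2 else y2 - l2 / 2)
      (fun σ => if σ = 1 then y1 + l1 / 2 else y2 + l2 / 2) (max (1 / l1) (1 / l2)) where
  lo σ t ht := by
    unfold kP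
    split_ifs at ht ⊢
    · exact cl_sub_le h1 ht.le
    · exact cl_sub_le h2 ht.le
  hi σ t ht := by
    unfold kP
    split_ifs at ht ⊢
    · exact cl_sub_ge h1 ht.le
    · exact cl_sub_ge h2 ht.le
  lip σ s t := by
    unfold kP
    split_ifs
    · exact (cl_sub_lip h1 s t).trans (mul_le_mul_of_nonneg_right (le_max_left _ _) (abs_nonneg _))
    · exact (cl_sub_lip h2 s t).trans (mul_le_mul_of_nonneg_right (le_max_right _ _) (abs_nonneg _))
  mem σ t := by
    unfold kP
    split_ifs <;> exact cl_mem _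

/-- **a type A chord from the positions of its ends** (`1` = right side, `2` = left side) -/
theorem ChA.of_pos {D : Dep L K b h ρ} {P : Par} {i : ι} {y1 l1 y2 l2 : ℝ}
    (hbot : ∀ ω ∈ sph 2, ω 1 = -1 → L.c i ω = 1/2)
    (htop : ∀ ω ∈ sph 2, ω 1 = 1 → L.c i ω = -1/2)
    (hr : ∀ ω ∈ sph 2, ω 0 = 1 → L.c i ω = cl ((y1 - ω 1) / l1))
    (hl : ∀ ω ∈ sph 2, ω 0 = -1 → L.c i ω = cl ((y2 - ω 1) / l2))
    (h1 : 0 < l1) (h2 : 0 < l2) (m1 : y1 + l1 / 2 ≤ 1 - 2 * P.a) (m2 : y2 + l2 / 2 ≤ 1 - 2 * P.a)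
    (g1 : (1 + (y1 + l1 / 2)) / P.H ≤ 4 * (1 - ρ i - h i / 2))
    (g2 : (1 + (y2 + l2 / 2)) / P.H ≤ 4 * (1 - ρ i - h i / 2))
    (low : 3/4 ≤ ρ i - h i / 2) :
    ChA D P i (kP y1 l1 y2 l2) (fun σ => if σ = 1 then y1 - l1 / 2 else y2 - l2 / 2)
      (fun σ => if σ = 1 then y1 + l1 / 2 else y2 + l2 / 2) (max (1 / l1) (1 / l2)) where
  ta := {
    bot := hbot
    top := htop
    side := fun ω hω h => by
      unfold kP
      rcases (abs_eq zero_le_one).1 h with h3 | h3
      · rw [if_pos h3, hr ω hω h3]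
      · rw [if_neg (by rw [h3]; norm_num), hl ω hω h3]
    far := fun σ t ht => by
      unfold kP
      split_ifs
      · exact cl_sub_ge h1 (by linarith)
      · exact cl_sub_ge h2 (by linarith)
    lag := fun σ t ρ' hσ h0 h1' ht ht1 => by
      have hH := P.H0
      have key : ∀ y l : ℝ, 0 < l → (1 + (y + l / 2)) / P.H ≤ 4 * (1 - ρ i - h i / 2) →
          cl ((y - t) / l) ≤ ramp (h i) (ρ i) (1 - ρ' / 4) := by
        intro y l hl hg
        by_cases hc : y + l / 2 ≤ t
        · rw [cl_sub_ge hl hc]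
          exact ramp_mem.1
        · have h3 : ramp (h i) (ρ i) (1 - ρ' / 4) = 1/2 := by
            apply ramp_high (D.h0 i)
            rw [div_le_iff₀ hH] at hg
            unfold Par.hh at ht
            have h4 : P.H * ρ' ≤ 4 * (1 - ρ i - h i / 2) * P.H := by linarith [not_le.1 hc]
            have h5 : ρ' ≤ 4 * (1 - ρ i - h i / 2) := by
              by_contra hcc
              rw [not_le] at hcc
              have := mul_lt_mul_of_pos_right hcc hH
              linarith
            linarith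
          rw [h3]
          exact (cl_mem _).2
      show kP y1 l1 y2 l2 σ t ≤ _
      unfold kP
      split_ifs
      · exact key y1 l1 h1 g1
      · exact key y2 l2 h2 g2
    rp0 := fun _ => ramp_mem.1
    rp1 := fun _ => ramp_mem.2 }
  ks := kP_KS h1 h2
  K0 := le_trans (by positivity) (le_max_left _ _)
  low := low

/-- **a type B chord from the positions of its ends** (`x` on the bottom, `x'` on the top) -/
theorem ChB.of_pos {D : Dep L K b h ρ} {P P' : Par} {i : ι} {x l x' l' : ℝ}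
    (hleft : ∀ ω ∈ sph 2, ω 0 = -1 → L.c i ω = 1/2)
    (hright : ∀ ω ∈ sph 2, ω 0 = 1 → L.c i ω = -1/2)
    (hb : ∀ ω ∈ sph 2, ω 1 = -1 → L.c i ω = cl ((x - ω 0) / l))
    (ht : ∀ ω ∈ sph 2, ω 1 = 1 → L.c i ω = cl ((x' - ω 0) / l'))
    (h1 : 0 < l) (h2 : 0 < l') (m1 : |x| + l / 2 ≤ 1 - 2 * (P.a + P.m * P.H))
    (m2 : |x'| + l' / 2 ≤ 1 - 2 * P.a) (ha : 2 * P'.a ≤ P.a)
    (g1 : (1 + (x + l / 2) / (1 - P.a)) / P'.H ≤ 8 * (3/4 - ρ i - h i / 2))
    (g2 : (1 + (x' + l' / 2) / (1 - P.a)) / P'.H ≤ 8 * (3/4 - ρ i - h i / 2))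
    (high : ρ i + h i / 2 ≤ 3/4) (low : 5/8 ≤ ρ i - h i / 2) :
    ChB D P P' i (fun u => cl ((x - u) / l)) (fun u => cl ((x' - u) / l'))
      (fun σ => if σ = 1 then (x' - l' / 2) / (1 - P.a) else (x - l / 2) / (1 - P.a))
      (fun σ => if σ = 1 then (x' + l' / 2) / (1 - P.a) else (x + l / 2) / (1 - P.a))
      (max (1 / l) (1 / l')) := by
  have ha1 : 0 < 1 - P.a := by linarith [P.a_lt_one]
  have e1 := abs_nonneg x
  have hx := abs_le.1 (le_refl |x|)
  have hx' := abs_le.1 (le_refl |x'|)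
  have tb : TB P (L.c i) (fun u => cl ((x - u) / l)) (fun u => cl ((x' - u) / l')) :=
    { left := hleft
      right := hright
      bot := hb
      top := ht
      b0 := fun u hu => cl_sub_le h1 (by linarith)
      b1 := fun u hu => cl_sub_ge h1 (by linarith)
      t0 := fun u hu => cl_sub_le h2 (by linarith)
      t1 := fun u hu => cl_sub_ge h2 (by linarith) }
  have lag : ∀ σ t ρ' : ℝ, (σ = 1 ∨ σ = -1) → 0 ≤ ρ' → ρ' ≤ 1 → P'.hh ρ' ≤ t → t ≤ 1 →
      (if σ = 1 then cl ((x' - (1 - P.a) * t) / l') else cl ((x - (1 - P.a) * t) / l))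
        ≤ ramp (h i) (ρ i) (3/4 - ρ' / 8) := by
    intro σ t ρ' hσ h0 h1' htt ht1
    have hH := P'.H0
    have key : ∀ y l : ℝ, 0 < l → (1 + (y + l / 2) / (1 - P.a)) / P'.H ≤ 8 * (3/4 - ρ i - h i / 2) →
        cl ((y - (1 - P.a) * t) / l) ≤ ramp (h i) (ρ i) (3/4 - ρ' / 8) := by
      intro y l hl hg
      by_cases hc : y + l / 2 ≤ (1 - P.a) * t
      · rw [cl_sub_ge hl hc]
        exact ramp_mem.1
      · have h3 : ramp (h i) (ρ i) (3/4 - ρ' / 8) = 1/2 := by
          apply ramp_high (D.h0 i)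
          rw [div_le_iff₀ hH] at hg
          unfold Par.hh at htt
          have h6 : t < (y + l / 2) / (1 - P.a) := by
            rw [lt_div_iff₀ ha1]; linarith [not_le.1 hc]
          have h4 : P'.H * ρ' ≤ 8 * (3/4 - ρ i - h i / 2) * P'.H := by linarith
          have h5 : ρ' ≤ 8 * (3/4 - ρ i - h i / 2) := by
            by_contra hcc
            rw [not_le] at hcc
            have := mul_lt_mul_of_pos_right hcc hH
            linarith
          linarith
        rw [h3]
        exact (cl_mem _).2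
    split_ifs
    · exact key x' l' h2 g2
    · exact key x l h1 g1
  refine ⟨tb, fun s t => ?_, fun s t => ?_, ?_, ?_, le_trans (by positivity) (le_max_left _ _),
    high, low⟩
  · exact (cl_sub_lip h1 s t).trans (mul_le_mul_of_nonneg_right (le_max_left _ _) (abs_nonneg _))
  · exact (cl_sub_lip h2 s t).trans (mul_le_mul_of_nonneg_right (le_max_right _ _) (abs_nonneg _))
  · exact tb.second P' ha lag (fun _ => ramp_mem.1) (fun _ => ramp_mem.2)
  · refine ⟨fun σ t ht => ?_, fun σ t ht => ?_, fun σ s t => ?_, fun σ t => ?_⟩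
    · split_ifs at ht ⊢
      · rw [lt_div_iff₀ ha1] at ht
        exact cl_sub_le h2 (by linarith)
      · rw [lt_div_iff₀ ha1] at ht
        exact cl_sub_le h1 (by linarith)
    · split_ifs at ht ⊢
      · rw [div_lt_iff₀ ha1] at ht
        exact cl_sub_ge h2 (by linarith)
      · rw [div_lt_iff₀ ha1] at ht
        exact cl_sub_ge h1 (by linarith)
    · have e : |(1 - P.a) * s - (1 - P.a) * t| = (1 - P.a) * |s - t| := by
        rw [← mul_sub, abs_mul, abs_of_pos ha1]
      split_ifs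
      · refine (cl_sub_lip h2 _ _).trans ?_
        rw [e]
        have := mul_le_mul_of_nonneg_right (le_max_right (1 / l) (1 / l'))
          (mul_nonneg ha1.le (abs_nonneg (s - t)))
        linarith
      · refine (cl_sub_lip h1 _ _).trans ?_
        rw [e]
        have := mul_le_mul_of_nonneg_right (le_max_left (1 / l) (1 / l'))
          (mul_nonneg ha1.le (abs_nonneg (s - t)))
        linarith
    · split_ifs <;> exact cl_mem _

end pos

end Crest.Agent.R096.Fsw_928
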