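import Crest.Agent.R096.Fsw16_928

/-!
# R096 (row 96), FACE-SWEEP, part 17: THE ESTIMATE, "for every e" (helper928)
-/

set_option autoImplicit false

open Set Metric Filter Topology MeasureTheory
open scoped ENNReal NNReal

namespace Crest.Agent.R096.Fsw_928

open Crest.Agent.R096.Ce_537 Crest.Agent.R096.Bd_416

lemma exists_small {C e : ℝ≥0∞} (hC : C ≠ ⊤) (he : e ≠ 0) :
    ∃ δ : ℝ, 0 < δ ∧ δ ≤ 1 ∧ C * ENNReal.ofReal δ ≤ e := by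
  obtain ⟨n, hn, h1⟩ := ENNReal.exists_nnreal_pos_mul_lt hC he
  refine ⟨min n 1, lt_min (by exact_mod_cast hn) one_pos, min_le_right _ _, ?_⟩
  rw [mul_comm]
  refine le_trans (mul_le_mul' ?_ le_rfl) h1.le
  refine (ENNReal.ofReal_le_ofReal (min_le_left _ _)).trans ?_
  rw [ENNReal.ofReal_coe_nnreal]

lemma ofReal_rpow_le {p x : ℝ} (hp : 1 ≤ p) (hx : x ≤ 1) :
    ENNReal.ofReal x ^ p ≤ ENNReal.ofReal x := by
  have h1 : ENNReal.ofReal x ≤ 1 := by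
    rw [← ENNReal.ofReal_one]; exact ENNReal.ofReal_le_ofReal hx
  calc ENNReal.ofReal x ^ p ≤ ENNReal.ofReal x ^ (1:ℝ) := ENNReal.rpow_le_rpow_of_exponent_ge h1 hp
    _ = _ := ENNReal.rpow_one _

section e

variable {ι : Type} {L : Lam (sph 2) ι} {K b : ℝ} {h ρ : ι → ℝ}

/-- all chords of `J` are of type A -/
def IsA (D : Dep L K b h ρ) (P : Par) (β : ℝ) (J : Finset ι) (w : ι → ℝ) (s' W lam μ : ℝ) : Prop :=
  ∃ k ym yp Kc ℓ, ClA D P β J w k ym yp Kc ℓ s' W lam μ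

/-- all chords of `J` are of type B -/
def IsB (D : Dep L K b h ρ) (P P' : Par) (β : ℝ) (J : Finset ι) (w : ι → ℝ) (s' W lam μ : ℝ) :
    Prop :=
  ∃ x ℓ kb kt ym yp Kc ℓ', ClB D P P' β J w x ℓ kb kt ym yp Kc ℓ' s' W lam μ

lemma three_terms {p S δ E : ℝ} {C e : ℝ≥0∞} (hp : 1 ≤ p) (hδ1 : δ ≤ 1)
    (h1 : (4 + ENNReal.ofReal (4 * S) ^ p * 3) * ENNReal.ofReal δ ≤ e / 2)
    {lam : ℝ} (h2 : C * ENNReal.ofReal lam ≤ e / 2)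
    {a1 a2 a3 m1 m2 lam' : ℝ} {Λ : ℝ≥0∞} (b1 : a1 ≤ δ) (b2 : a2 ≤ 4 * S) (b3 : a3 ≤ E)
    (c1 : m1 ≤ δ) (c2 : m2 ≤ δ) (c3 : lam' ≤ lam)
    (hC : ENNReal.ofReal E ^ p * (Λ * 4) ≤ C) :
    ENNReal.ofReal a1 ^ p * 4 + ENNReal.ofReal a2 ^ p * (ENNReal.ofReal m1 + 2 * ENNReal.ofReal m2)
      + ENNReal.ofReal a3 ^ p * (Λ * (4 * ENNReal.ofReal lam')) ≤ e := by
  have hp0 : 0 ≤ p := by linarith
  have k1 : ENNReal.ofReal a1 ^ p ≤ ENNReal.ofReal δ :=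
    (ENNReal.rpow_le_rpow (ENNReal.ofReal_le_ofReal b1) hp0).trans (ofReal_rpow_le hp hδ1)
  have k2 : ENNReal.ofReal a2 ^ p ≤ ENNReal.ofReal (4 * S) ^ p :=
    ENNReal.rpow_le_rpow (ENNReal.ofReal_le_ofReal b2) hp0
  have k3 : ENNReal.ofReal a3 ^ p ≤ ENNReal.ofReal E ^ p :=
    ENNReal.rpow_le_rpow (ENNReal.ofReal_le_ofReal b3) hp0
  have k4 := ENNReal.ofReal_le_ofReal c1
  have k5 := ENNReal.ofReal_le_ofReal c2
  have k6 := ENNReal.ofReal_le_ofReal c3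
  rw [← ENNReal.add_halves e]
  refine add_le_add (le_trans ?_ h1) (le_trans ?_ h2)
  · rw [add_mul]
    refine add_le_add ?_ ?_
    · rw [mul_comm]; exact mul_le_mul' le_rfl k1
    · rw [mul_assoc]
      refine mul_le_mul' k2 ?_
      calc ENNReal.ofReal m1 + 2 * ENNReal.ofReal m2
          ≤ ENNReal.ofReal δ + 2 * ENNReal.ofReal δ := add_le_add k4 (mul_le_mul' le_rfl k5)
        _ = 3 * ENNReal.ofReal δ := by ring
  · calc ENNReal.ofReal a3 ^ p * (Λ * (4 * ENNReal.ofReal lam'))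
        ≤ ENNReal.ofReal E ^ p * (Λ * (4 * ENNReal.ofReal lam)) :=
          mul_le_mul' k3 (mul_le_mul' le_rfl (mul_le_mul' le_rfl k6))
      _ = ENNReal.ofReal E ^ p * (Λ * 4) * ENNReal.ofReal lam := by ring
      _ ≤ C * ENNReal.ofReal lam := mul_le_mul' hC le_rfl

lemma crude_const {S Λc b' Q : ℝ} (hΛ : 0 ≤ Λc) (hb : 1/4 ≤ b') (hQ : Q ≤ S) (hS : 0 ≤ S) :
    Λc * Q / (2 * b') ≤ 2 * Λc * S := by
  rw [div_le_iff₀ (by linarith)]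
  have h1 : Λc * Q ≤ Λc * S := mul_le_mul_of_nonneg_left hQ hΛ
  have h2 : 0 ≤ Λc * S := mul_nonneg hΛ hS
  nlinarith

/-- **THE FACE ESTIMATE** (order of the constants: `p, S, e`, then `δ`, then the two sweeps `P, P'`,
then `lam, η`) -/
theorem face_lp {p : ℝ} (hp : 1 ≤ p) {S : ℝ} (hS : 0 ≤ S) {e : ℝ≥0∞} (he : e ≠ 0) :
    ∃ δ : ℝ, 0 < δ ∧ ∀ P P' : Par, 4 * (P.a + P.m * P.H) + 2 * (2 - P.H) ≤ δ →
    ∃ lam : ℝ, 0 < lam ∧ ∃ η : ℝ, 0 < η ∧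
    ∀ {ι : Type} {L : Lam (sph 2) ι} {K b : ℝ} {h ρ : ι → ℝ} (D : Dep L K b h ρ) (_ : Disj L)
      (J : Finset ι) (w M : ι → ℝ) (β Q : ℝ), 0 < β → β ≤ 1 → 1/4 ≤ b * β →
      Crd L h J w M Q → Q ≤ S →
      (∀ s s' W lam' μ : ℝ, |s| ≤ S → |s - s'| ≤ δ → W ≤ S → μ ≤ δ → lam' ≤ lam →
        IsA D P β J w s' W lam' μ →
        ∫⁻ z in osq, ‖fderiv ℝ (GJ D P P' β J w) z + s • pr 1‖ₑ ^ p ≤ e) ∧
      (∀ s s' W lam' μ : ℝ, |s| ≤ S → |s - s'| ≤ δ → W ≤ S → μ ≤ δ → lam' ≤ lam →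
        IsB D P P' β J w s' W lam' μ →
        ∫⁻ z in osq, ‖fderiv ℝ (GJ D P P' β J w) z + s • pr 0‖ₑ ^ p ≤ e) ∧
      (∀ ℓ : ι → ℝ, (∀ i ∈ J, 0 ≤ ℓ i) → (∀ i ∈ J, Ends2 L i (ℓ i)) →
        ∑ i ∈ J, (ℓ i + h i) ≤ η →
        ∫⁻ z in osq, ENNReal.ofReal (∑ i ∈ J, |w i| * ‖fderiv ℝ (fb D P P' β i) z‖) ^ p ≤ e) := by
  have hp0 : 0 < p := by linarith
  have he2 : e / 2 ≠ 0 := (ENNReal.half_pos he).ne'
  have hC1 : (4 + ENNReal.ofReal (4 * S) ^ p * 3 : ℝ≥0∞) ≠ ⊤ := by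
    refine ENNReal.add_ne_top.2 ⟨by norm_num, ENNReal.mul_ne_top ?_ (by norm_num)⟩
    exact ENNReal.rpow_ne_top_of_nonneg hp0.le ENNReal.ofReal_ne_top
  obtain ⟨δ, hδ, hδ1, hδe⟩ := exists_small hC1 he2
  refine ⟨δ, hδ, fun P P' hP => ?_⟩
  obtain ⟨ΛA, ΛA', hA0, hA⟩ := exists_lp_A P P'
  obtain ⟨ΛB, ΛB', hB0, hB⟩ := exists_lp_B P P'
  obtain ⟨ΛX, ΛX', hX0, hX⟩ := exists_lp_X P P'
  have hfin : ∀ (E : ℝ) (Λ : ℝ≥0), (ENNReal.ofReal E ^ p * ((Λ : ℝ≥0∞) * 4) : ℝ≥0∞) ≠ ⊤ :=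
    fun E Λ => ENNReal.mul_ne_top (ENNReal.rpow_ne_top_of_nonneg hp0.le ENNReal.ofReal_ne_top)
      (ENNReal.mul_ne_top ENNReal.coe_ne_top (by norm_num))
  obtain ⟨l1, hl1, -, hl1e⟩ := exists_small (hfin (2 * max S (2 * ΛA * S) + 2 * S) ΛA') he2
  obtain ⟨l2, hl2, -, hl2e⟩ := exists_small (hfin (2 * max S (2 * ΛB * S) + 2 * S) ΛB') he2
  obtain ⟨η, hη, -, hηe⟩ := exists_small (hfin (2 * (2 * ΛX * S)) ΛX') he
  refine ⟨min l1 l2, lt_min hl1 hl2, η, hη, ?_⟩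
  intro ι L K b h ρ D hdj J w M β Q hβ0 hβ1 hbβ C hQ
  refine ⟨?_, ?_, ?_⟩
  · rintro s s' W lam' μ hs hss hW hμ hlam ⟨k, ym, yp, Kc, ℓ, A⟩
    have hs' : |s'| ≤ S := A.sW.trans hW
    refine (hA D hdj J w k ym yp Kc ℓ M β s s' W lam' μ Q p hβ0 hβ1 hp0.le A C).trans ?_
    refine three_terms (δ := δ) (S := S) (E := 2 * max S (2 * ΛA * S) + 2 * S)
      hp hδ1 hδe hl1e hss (by linarith) ?_ hP hμ
      (hlam.trans (min_le_left _ _)) le_rfl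
    have h3 : max W (ΛA * Q / (2 * (b * β))) ≤ max S (2 * ΛA * S) :=
      max_le_max hW (crude_const hA0 hbβ hQ hS)
    linarith
  · rintro s s' W lam' μ hs hss hW hμ hlam ⟨x, ℓ, kb, kt, ym, yp, Kc, ℓ', B⟩
    have hs' : |s'| ≤ S := B.sW.trans hW
    refine (hB D hdj J w x ℓ kb kt ym yp Kc ℓ' M β s s' W lam' μ Q p hβ0 hβ1 hp0.le B C).trans ?_
    refine three_terms (δ := δ) (S := S) (E := 2 * max S (2 * ΛB * S) + 2 * S)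
      hp hδ1 hδe hl2e hss (by linarith) ?_ hP hμ
      (hlam.trans (min_le_right _ _)) le_rfl
    have h3 : max W (ΛB * Q / (2 * (b * β))) ≤ max S (2 * ΛB * S) :=
      max_le_max hW (crude_const hB0 hbβ hQ hS)
    linarith
  · intro ℓ hℓ hE hsum
    have hQ0 : 0 ≤ Q ∨ J = ∅ := by
      rcases J.eq_empty_or_nonempty with hJ | ⟨i, hi⟩
      · exact Or.inr hJ
      · left
        exact (mul_nonneg (abs_nonneg _) (C.M0 i hi)).trans (C.wM i hi)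
    rcases hQ0 with hQ0 | hJ
    · refine (hX D hdj J w ℓ M β η Q p hβ0 hβ1 hp0 hℓ hE hsum C hQ0).trans ?_
      refine le_trans ?_ hηe
      rw [mul_assoc]
      refine mul_le_mul' (ENNReal.rpow_le_rpow (ENNReal.ofReal_le_ofReal ?_) hp0.le)
        (mul_le_mul' ?_ le_rfl)
      · have := crude_const hX0 hbβ hQ hS
        linarith
      · exact le_mul_of_one_le_right zero_le (by norm_num)
    · subst hJ
      simp [ENNReal.zero_rpow_of_pos hp0]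

end e

end Crest.Agent.R096.Fsw_928
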