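import Crest.Agent.R096.Fsw17_928

/-!
# R096 (row 96), FACE-SWEEP, part 18: the classes from the positions of the ends (helper928)
-/

set_option autoImplicit false

open Set Metric Filter Topology MeasureTheory
open scoped ENNReal NNReal

namespace Crest.Agent.R096.Fsw_928

open Crest.Agent.R096.Ce_537 Crest.Agent.R096.Bd_416

section pos

variable {ι : Type} {L : Lam (sph 2) ι} {K b : ℝ} {h ρ : ι → ℝ}

/-- a chord from the right side (position `y1`, width `l1`) to the left side (`y2`, `l2`); the base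
vertex is `(1,1)` -/
structure LR (L : Lam (sph 2) ι) (i : ι) (y1 l1 y2 l2 : ℝ) : Prop where
  bot : ∀ ω ∈ sph 2, ω 1 = -1 → L.c i ω = 1/2
  top : ∀ ω ∈ sph 2, ω 1 = 1 → L.c i ω = -1/2
  right : ∀ ω ∈ sph 2, ω 0 = 1 → L.c i ω = cl ((y1 - ω 1) / l1)
  left : ∀ ω ∈ sph 2, ω 0 = -1 → L.c i ω = cl ((y2 - ω 1) / l2)
  p1 : 0 < l1
  p2 : 0 < l2
  lo1 : -1 < y1 - l1 / 2
  lo2 : -1 < y2 - l2 / 2

/-- a chord from the bottom side (position `x`, width `l`) to the top side (`x'`, `l'`) -/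
structure BT (L : Lam (sph 2) ι) (i : ι) (x l x' l' : ℝ) : Prop where
  left : ∀ ω ∈ sph 2, ω 0 = -1 → L.c i ω = 1/2
  right : ∀ ω ∈ sph 2, ω 0 = 1 → L.c i ω = -1/2
  bot : ∀ ω ∈ sph 2, ω 1 = -1 → L.c i ω = cl ((x - ω 0) / l)
  top : ∀ ω ∈ sph 2, ω 1 = 1 → L.c i ω = cl ((x' - ω 0) / l')
  p1 : 0 < l
  p2 : 0 < l'

theorem IsA.of_pos {D : Dep L K b h ρ} {P : Par} {β : ℝ} (hβ0 : 0 < β) {J : Finset ι}
    {w y1 l1 y2 l2 : ι → ℝ} {s' W lam μ : ℝ}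
    (ch : ∀ i ∈ J, LR L i (y1 i) (l1 i) (y2 i) (l2 i))
    (m1 : ∀ i ∈ J, y1 i + l1 i / 2 ≤ 1 - 2 * P.a) (m2 : ∀ i ∈ J, y2 i + l2 i / 2 ≤ 1 - 2 * P.a)
    (g1 : ∀ i ∈ J, (1 + (y1 i + l1 i / 2)) / P.H ≤ 4 * (1 - ρ i - h i / 2))
    (g2 : ∀ i ∈ J, (1 + (y2 i + l2 i / 2)) / P.H ≤ 4 * (1 - ρ i - h i / 2))
    (n1 : ∀ i ∈ J, 4 * (1 - ρ i + h i / 2) - (1 + (y1 i - l1 i / 2)) / P.H ≤ lam)
    (n2 : ∀ i ∈ J, 4 * (1 - ρ i + h i / 2) - (1 + (y2 i - l2 i / 2)) / P.H ≤ lam)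
    (low : ∀ i ∈ J, 3/4 ≤ ρ i - h i / 2)
    (wH : ∀ i ∈ J, w i = 2 * (b * β) * s' * (4 * P.H * h i))
    (w1 : ∀ i ∈ J, |w i| / l1 i ≤ 2 * (b * β) * W) (w2 : ∀ i ∈ J, |w i| / l2 i ≤ 2 * (b * β) * W)
    (sW : |s'| ≤ W) (lam0 : 0 ≤ lam) (t1 : ∑ i ∈ J, l1 i ≤ 2) (t2 : ∑ i ∈ J, l2 i ≤ 2)
    (full : 2 - ∑ i ∈ J, 2 * (b * β) * (4 * P.H * h i) ≤ μ) :
    IsA D P β J w s' W lam μ := by
  have ha := P.a0
  have hb : 0 < 2 * (b * β) := by have := mul_pos D.cst.b0 hβ0; linarith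
  refine ⟨fun i => kP (y1 i) (l1 i) (y2 i) (l2 i),
    fun i σ => if σ = 1 then y1 i - l1 i / 2 else y2 i - l2 i / 2,
    fun i σ => if σ = 1 then y1 i + l1 i / 2 else y2 i + l2 i / 2,
    fun i => max (1 / l1 i) (1 / l2 i), fun i => l1 i + l2 i, ?_, wH, ?_, sW, ?_, lam0, ?_, ?_, full⟩
  · intro i hi
    have C := ch i hi
    exact ChA.of_pos C.bot C.top C.right C.left C.p1 C.p2 (m1 i hi) (m2 i hi) (g1 i hi) (g2 i hi)
      (low i hi)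
  · intro i hi
    rw [← mul_div_assoc, div_le_iff₀ hb, mul_max_of_nonneg _ _ (abs_nonneg _), mul_one_div,
      mul_one_div, mul_comm W]
    exact max_le (w1 i hi) (w2 i hi)
  · intro i hi σ hσ
    have C := ch i hi
    have k1 := C.p1
    have k2 := C.p2
    have k3 := m1 i hi
    have k4 := m2 i hi
    split_ifs
    · exact ⟨C.lo1, by linarith, by linarith, by linarith, n1 i hi⟩
    · exact ⟨C.lo2, by linarith, by linarith, by linarith, n2 i hi⟩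
  · intro i hi
    have C := ch i hi
    linarith [C.p1, C.p2]
  · rw [Finset.sum_add_distrib]; linarith

theorem IsB.of_pos {D : Dep L K b h ρ} {P P' : Par} {β : ℝ} (hβ0 : 0 < β) {J : Finset ι}
    {w x l x' l' : ι → ℝ} {s' W lam μ : ℝ} (ha2 : 2 * P'.a ≤ P.a)
    (ch : ∀ i ∈ J, BT L i (x i) (l i) (x' i) (l' i))
    (m1 : ∀ i ∈ J, |x i| + l i / 2 ≤ 1 - 2 * (P.a + P.m * P.H))
    (m2 : ∀ i ∈ J, |x' i| + l' i / 2 ≤ 1 - 2 * P.a)
    (g1 : ∀ i ∈ J, (1 + (x i + l i / 2) / (1 - P.a)) / P'.H ≤ 8 * (3/4 - ρ i - h i / 2))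
    (g2 : ∀ i ∈ J, (1 + (x' i + l' i / 2) / (1 - P.a)) / P'.H ≤ 8 * (3/4 - ρ i - h i / 2))
    (n1 : ∀ i ∈ J, 8 * (3/4 - ρ i + h i / 2) - (1 + (x i - l i / 2) / (1 - P.a)) / P'.H ≤ lam)
    (n2 : ∀ i ∈ J, 8 * (3/4 - ρ i + h i / 2) - (1 + (x' i - l' i / 2) / (1 - P.a)) / P'.H ≤ lam)
    (high : ∀ i ∈ J, ρ i + h i / 2 ≤ 3/4) (low : ∀ i ∈ J, 5/8 ≤ ρ i - h i / 2)
    (wH : ∀ i ∈ J, w i = 2 * (b * β) * s' * l i)
    (w1 : ∀ i ∈ J, |w i| / l i ≤ 2 * (b * β) * W) (w2 : ∀ i ∈ J, |w i| / l' i ≤ 2 * (b * β) * W)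
    (wR : ∀ i ∈ J, |w i| * (1 / (8 * h i) / P'.H / (1 - P.a)) ≤ 2 * (b * β) * W)
    (sW : |s'| ≤ W) (lam0 : 0 ≤ lam)
    (sep : ∀ i ∈ J, ∀ j ∈ J, i ≠ j → (l i + l j) / 2 ≤ |x i - x j|)
    (t1 : ∑ i ∈ J, l i ≤ 2 * (1 - P.a)) (t2 : ∑ i ∈ J, l' i ≤ 2 * (1 - P.a))
    (full : 2 - ∑ i ∈ J, 2 * (b * β) * l i ≤ μ) :
    IsB D P P' β J w s' W lam μ := by
  have ha := P.a0
  have ha1 : 0 < 1 - P.a := by linarith [P.a_lt_one]
  have hm := mul_pos P.m0 P.H0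
  have hb : 0 < 2 * (b * β) := by have := mul_pos D.cst.b0 hβ0; linarith
  refine ⟨x, l, fun i u => cl ((x i - u) / l i), fun i u => cl ((x' i - u) / l' i),
    fun i σ => if σ = 1 then (x' i - l' i / 2) / (1 - P.a) else (x i - l i / 2) / (1 - P.a),
    fun i σ => if σ = 1 then (x' i + l' i / 2) / (1 - P.a) else (x i + l i / 2) / (1 - P.a),
    fun i => max (1 / l i) (1 / l' i), fun i => (l i + l' i) / (1 - P.a), ?_, ?_, ?_, wH, ?_, ?_,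
    sW, sep, ?_, ?_, lam0, ?_, ?_, full⟩
  · intro i hi
    have C := ch i hi
    exact ChB.of_pos C.left C.right C.bot C.top C.p1 C.p2 (m1 i hi) (m2 i hi) ha2 (g1 i hi)
      (g2 i hi) (high i hi) (low i hi)
  · intro i _ u
    show cl ((x i - u) / l i) = cl (-(u - x i) / l i)
    rw [neg_sub]
  · intro i hi; exact (ch i hi).p1
  · intro i hi
    rw [← mul_div_assoc, div_le_iff₀ hb, mul_max_of_nonneg _ _ (abs_nonneg _), mul_one_div,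
      mul_one_div, mul_comm W]
    exact max_le (w1 i hi) (w2 i hi)
  · intro i hi
    rw [← mul_div_assoc, div_le_iff₀ hb, mul_comm W]
    exact wR i hi
  · intro i hi
    have := m1 i hi
    linarith
  · intro i hi σ hσ
    have C := ch i hi
    have k1 := C.p1
    have k2 := C.p2
    have k3 := m1 i hi
    have k4 := m2 i hi
    obtain ⟨k5, k6⟩ := abs_le.1 (le_refl |x i|)
    obtain ⟨k7, k8⟩ := abs_le.1 (le_refl |x' i|)
    have hd : ∀ A B : ℝ, A ≤ B → A / (1 - P.a) ≤ B / (1 - P.a) := fun A B hAB =>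
      div_le_div_of_nonneg_right hAB ha1.le
    split_ifs
    · refine ⟨?_, ?_, ?_, ?_, n2 i hi⟩
      · rw [lt_div_iff₀ ha1]; linarith
      · rw [div_le_one ha1]; linarith
      · rw [div_le_one ha1]; linarith
      · rw [← sub_div]; exact hd _ _ (by linarith)
    · refine ⟨?_, ?_, ?_, ?_, n1 i hi⟩
      · rw [lt_div_iff₀ ha1]; linarith
      · rw [div_le_one ha1]; linarith
      · rw [div_le_one ha1]; linarith
      · rw [← sub_div]; exact hd _ _ (by linarith)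
  · intro i hi
    have C := ch i hi
    exact div_nonneg (by linarith [C.p1, C.p2]) ha1.le
  · rw [← Finset.sum_div, div_le_iff₀ ha1, Finset.sum_add_distrib]; linarith

end pos

end Crest.Agent.R096.Fsw_928
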