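import Crest.Agent.R096.Fsw18_928
import Crest.Agent.R096.Bd21_416

/-!
# R096 (row 96), FACE-SWEEP, part 19: from the integrals to a pointwise statement off a small set,
labels of a family, transport to the unit square (helper928)
-/

set_option autoImplicit false

open Set Metric Filter Topology MeasureTheory
open scoped ENNReal NNReal Classical

namespace Crest.Agent.R096.Fsw_928

open Crest.Agent.R096.Ce_537 Crest.Agent.R096.Bd_416

/-! ### Chebyshev -/

lemma cheb {g : (Fin 2 → ℝ) → ℝ≥0∞} (hm : Measurable g) {e : ℝ} (he : 0 < e)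
    (hg : ∫⁻ z in osq, g z ≤ ENNReal.ofReal (e * e)) :
    volume {z | z ∈ osq ∧ ENNReal.ofReal e < g z} ≤ ENNReal.ofReal e := by
  have h1 := mul_meas_ge_le_lintegral₀ (μ := volume.restrict osq) hm.aemeasurable (ENNReal.ofReal e)
  have h2 : volume {z | z ∈ osq ∧ ENNReal.ofReal e < g z}
      ≤ (volume.restrict osq) {z | ENNReal.ofReal e ≤ g z} := by
    rw [Measure.restrict_apply' measurableSet_ball]
    exact measure_mono fun z hz => ⟨hz.2.le, hz.1⟩
  refine h2.trans ?_
  have h3 := h1.trans hg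
  rw [ENNReal.ofReal_mul he.le] at h3
  exact (ENNReal.mul_le_mul_iff_right (ENNReal.ofReal_pos.2 he).ne' ENNReal.ofReal_ne_top).1 h3

section off

variable {ι : Type} {L : Lam (sph 2) ι} {K b : ℝ} {h ρ : ι → ℝ} (D : Dep L K b h ρ) (P P' : Par)
  (β : ℝ)

/-- **off a small set the function is nearly affine** -/
theorem off_small {J JX : Finset ι} {w wX : ι → ℝ} {F : (Fin 2 → ℝ) → ℝ} {s e : ℝ} {j : Fin 2}
    (he : 0 < e) (hd : ∀ᵐ z ∂(volume.restrict osq), ∀ i ∈ J ∪ JX,
      DifferentiableAt ℝ (fb D P P' β i) z)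
    (h1 : ∫⁻ z in osq, ‖fderiv ℝ (GJ D P P' β J w) z + s • pr j‖ₑ ≤ ENNReal.ofReal (e * e))
    (hX : ∫⁻ z in osq, ENNReal.ofReal (∑ i ∈ JX, |wX i| * ‖fderiv ℝ (fb D P P' β i) z‖)
      ≤ ENNReal.ofReal (e * e))
    (hF : ∀ z ∈ osq, ∀ z' ∈ osq, |F z' - F z - (GJ D P P' β J w z' - GJ D P P' β J w z)| ≤
      ∑ i ∈ JX, |wX i| * |fb D P P' β i z' - fb D P P' β i z|) :
    ∃ W : Set (Fin 2 → ℝ), volume W ≤ ENNReal.ofReal (2 * e) ∧ ∀ z ∈ osq, z ∉ W →
      ∀ᶠ z' in 𝓝 z, |F z' - F z + s * (z' j - z j)| ≤ 4 * e * ‖z' - z‖ := by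
  set N : Set (Fin 2 → ℝ) := {z | z ∈ osq ∧ ¬ ∀ i ∈ J ∪ JX, DifferentiableAt ℝ (fb D P P' β i) z}
  set W1 : Set (Fin 2 → ℝ) := {z | z ∈ osq ∧
    ENNReal.ofReal e < ‖fderiv ℝ (GJ D P P' β J w) z + s • pr j‖ₑ}
  set W2 : Set (Fin 2 → ℝ) := {z | z ∈ osq ∧
    ENNReal.ofReal e < ENNReal.ofReal (∑ i ∈ JX, |wX i| * ‖fderiv ℝ (fb D P P' β i) z‖)}
  have m1 : Measurable fun z => ‖fderiv ℝ (GJ D P P' β J w) z + s • pr j‖ₑ :=
    ((measurable_fderiv ℝ _).add_const _).enorm
  have m2 : Measurable fun z =>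
      ENNReal.ofReal (∑ i ∈ JX, |wX i| * ‖fderiv ℝ (fb D P P' β i) z‖) := by
    refine ENNReal.measurable_ofReal.comp (Finset.measurable_sum _ fun i _ => ?_)
    exact ((measurable_fderiv ℝ _).norm).const_mul _
  have k0 : volume N = 0 := by
    rw [ae_restrict_iff' measurableSet_ball, ae_iff] at hd
    refine measure_mono_null ?_ hd
    intro z hz hc
    exact hz.2 (hc hz.1)
  refine ⟨N ∪ (W1 ∪ W2), ?_, ?_⟩
  · refine (measure_union_le _ _).trans ?_
    rw [k0, zero_add]
    refine (measure_union_le _ _).trans ((add_le_add (cheb m1 he h1) (cheb m2 he hX)).trans ?_)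
    rw [← ENNReal.ofReal_add he.le he.le]
    apply le_of_eq; congr 1; ring
  · intro z hz hW
    rw [mem_union, mem_union, not_or, not_or] at hW
    obtain ⟨n0, n1, n2⟩ := hW
    have hdz : ∀ i ∈ J ∪ JX, DifferentiableAt ℝ (fb D P P' β i) z := by
      by_contra hc; exact n0 ⟨hz, hc⟩
    have a1 : ‖fderiv ℝ (GJ D P P' β J w) z + s • pr j‖ ≤ e := by
      have : ¬ ENNReal.ofReal e < ‖fderiv ℝ (GJ D P P' β J w) z + s • pr j‖ₑ := fun hc =>
        n1 ⟨hz, hc⟩
      rw [not_lt, ← ofReal_norm, ENNReal.ofReal_le_ofReal_iff he.le] at this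
      exact this
    have a2 : ∑ i ∈ JX, |wX i| * ‖fderiv ℝ (fb D P P' β i) z‖ ≤ e := by
      have : ¬ ENNReal.ofReal e <
          ENNReal.ofReal (∑ i ∈ JX, |wX i| * ‖fderiv ℝ (fb D P P' β i) z‖) := fun hc =>
        n2 ⟨hz, hc⟩
      rw [not_lt, ENNReal.ofReal_le_ofReal_iff he.le] at this
      exact this
    have hG : HasFDerivAt (GJ D P P' β J w) (fderiv ℝ (GJ D P P' β J w) z) z := by
      have hd1 : DifferentiableAt ℝ (GJ D P P' β J w) z := by
        unfold GJ
        exact DifferentiableAt.fun_sum fun i hi =>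
          (hdz i (Finset.mem_union_left _ hi)).const_mul (w i)
      exact hd1.hasFDerivAt
    have b1 : ∀ᶠ z' in 𝓝 z, ‖GJ D P P' β J w z' - GJ D P P' β J w z
        - fderiv ℝ (GJ D P P' β J w) z (z' - z)‖ ≤ e * ‖z' - z‖ :=
      hG.isLittleO.bound he
    set S := ∑ i ∈ JX, |wX i|
    have hS : 0 ≤ S := Finset.sum_nonneg fun _ _ => abs_nonneg _
    set e' := e / (S + 1)
    have he' : 0 < e' := by positivity
    have b2 : ∀ᶠ z' in 𝓝 z, ∀ i ∈ JX, |fb D P P' β i z' - fb D P P' β i z| ≤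
        (‖fderiv ℝ (fb D P P' β i) z‖ + e') * ‖z' - z‖ := by
      rw [Filter.eventually_all_finset]
      intro i hi
      have h3 := (hdz i (Finset.mem_union_right _ hi)).hasFDerivAt.isLittleO.bound he'
      filter_upwards [h3] with z' hz'
      have h4 := (fderiv ℝ (fb D P P' β i) z).le_opNorm (z' - z)
      rw [Real.norm_eq_abs] at hz' h4
      have h5 : |fb D P P' β i z' - fb D P P' β i z| ≤
          |fb D P P' β i z' - fb D P P' β i z - fderiv ℝ (fb D P P' β i) z (z' - z)|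
          + |fderiv ℝ (fb D P P' β i) z (z' - z)| := by
        have := abs_add_le (fb D P P' β i z' - fb D P P' β i z
          - fderiv ℝ (fb D P P' β i) z (z' - z)) (fderiv ℝ (fb D P P' β i) z (z' - z))
        rwa [sub_add_cancel] at this
      rw [add_mul]; linarith
    filter_upwards [b1, b2, isOpen_ball.mem_nhds hz] with z' c1 c2 hz'
    have d1 := hF z hz z' hz'
    have d2 : ∑ i ∈ JX, |wX i| * |fb D P P' β i z' - fb D P P' β i z| ≤ 2 * e * ‖z' - z‖ := by
      calc ∑ i ∈ JX, |wX i| * |fb D P P' β i z' - fb D P P' β i z|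
          ≤ ∑ i ∈ JX, |wX i| * ((‖fderiv ℝ (fb D P P' β i) z‖ + e') * ‖z' - z‖) :=
            Finset.sum_le_sum fun i hi => mul_le_mul_of_nonneg_left (c2 i hi) (abs_nonneg _)
        _ = (∑ i ∈ JX, |wX i| * ‖fderiv ℝ (fb D P P' β i) z‖ + S * e') * ‖z' - z‖ := by
            rw [show S = ∑ i ∈ JX, |wX i| from rfl, Finset.sum_mul, ← Finset.sum_add_distrib,
              Finset.sum_mul]
            refine Finset.sum_congr rfl fun i _ => ?_
            ring
        _ ≤ 2 * e * ‖z' - z‖ := by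
            refine mul_le_mul_of_nonneg_right ?_ (norm_nonneg _)
            have h6 : S * e' ≤ e := by
              show S * (e / (S + 1)) ≤ e
              rw [← mul_div_assoc, div_le_iff₀ (by linarith)]
              nlinarith
            linarith
    have d3 : |fderiv ℝ (GJ D P P' β J w) z (z' - z) + s * (z' j - z j)| ≤ e * ‖z' - z‖ := by
      have h4 := (fderiv ℝ (GJ D P P' β J w) z + s • pr j).le_opNorm (z' - z)
      rw [Real.norm_eq_abs] at h4
      refine le_trans (le_of_eq ?_) (h4.trans (mul_le_mul_of_nonneg_right a1 (norm_nonneg _)))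
      rfl
    rw [Real.norm_eq_abs] at c1
    have e1 : F z' - F z + s * (z' j - z j)
        = (F z' - F z - (GJ D P P' β J w z' - GJ D P P' β J w z))
        + (GJ D P P' β J w z' - GJ D P P' β J w z - fderiv ℝ (GJ D P P' β J w) z (z' - z))
        + (fderiv ℝ (GJ D P P' β J w) z (z' - z) + s * (z' j - z j)) := by ring
    rw [e1]
    refine (abs_add_three _ _ _).trans ?_
    linarith

end off

/-! ### labels of a family -/

section lab

variable {Q : Type} [PartialOrder Q] {dim : Q → ℕ} {J Fam : Type}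
variable {E : Type*} [NormedAddCommGroup E] [NormedSpace ℝ E]
variable {C : Cmb Q dim J Fam} {K : Q → Set E} {D : Set Q} {g : Gd E J}
  {P : ∀ q, C.I q → Set E} {c : ∀ q, C.I q → E → ℝ}

lemma abs_prod_sub_prod_le {α : Type*} (S : Finset α) (f f' : α → ℝ) (h : ∀ x ∈ S, |f x| ≤ 1)
    (h' : ∀ x ∈ S, |f' x| ≤ 1) : |∏ x ∈ S, f x - ∏ x ∈ S, f' x| ≤ ∑ x ∈ S, |f x - f' x| := by
  induction S using Finset.induction_on with
  | empty => simp
  | insert a S ha ih =>
    rw [Finset.prod_insert ha, Finset.prod_insert ha, Finset.sum_insert ha]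
    have ih' := ih (fun x hx => h x (Finset.mem_insert_of_mem hx))
      (fun x hx => h' x (Finset.mem_insert_of_mem hx))
    have e : f a * ∏ x ∈ S, f x - f' a * ∏ x ∈ S, f' x
        = (f a - f' a) * ∏ x ∈ S, f x + f' a * (∏ x ∈ S, f x - ∏ x ∈ S, f' x) := by ring
    rw [e]
    refine (abs_add_le _ _).trans ?_
    rw [abs_mul, abs_mul]
    have h1 : |∏ x ∈ S, f x| ≤ 1 := by
      rw [Finset.abs_prod]
      exact Finset.prod_le_one (fun _ _ => abs_nonneg _) fun x hx => h x (Finset.mem_insert_of_mem hx)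
    have h2 := h' a (Finset.mem_insert_self _ _)
    have h3 := abs_nonneg (f a - f' a)
    have h4 := abs_nonneg (∏ x ∈ S, f x - ∏ x ∈ S, f' x)
    nlinarith

/-- **the weighted label of the sheets `T` on a cell**: the main pieces `Jm` are the only pieces of
their sheets -/
theorem label_diff (H : Inv C K D g P c) {q : Q} (hq : q ∈ D) (wt : J → ℝ)
    (T : Finset J) (Jm : Finset (C.I q)) (hT : ∀ x ∈ Jm, C.col q x ∈ T)
    (h1 : ∀ x ∈ Jm, ∀ x', C.col q x' = C.col q x → x' = x) {z z' : E} (hz : z ∈ K q)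
    (hz' : z' ∈ K q) :
    |∑ j ∈ T, wt j * g.G j z' - ∑ j ∈ T, wt j * g.G j z
      - (∑ x ∈ Jm, sg (C.Lab (C.col q x) q) * wt (C.col q x) * c q x z'
        - ∑ x ∈ Jm, sg (C.Lab (C.col q x) q) * wt (C.col q x) * c q x z)|
      ≤ ∑ x : C.I q with (C.col q x ∈ T ∧ x ∉ Jm), |wt (C.col q x)| * |c q x z' - c q x z| := by
  set Tm : Finset J := Jm.image (C.col q)
  have hTm : Tm ⊆ T := by
    intro j hj
    obtain ⟨x, hx, rfl⟩ := Finset.mem_image.1 hj
    exact hT x hx
  have hinj : ∀ x ∈ Jm, ∀ x' ∈ Jm, C.col q x = C.col q x' → x = x' := fun x hx x' hx' he =>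
    (h1 x hx x' he.symm).symm
  -- main sheets
  have hmain : ∀ x ∈ Jm, ∀ v ∈ K q, g.G (C.col q x) v
      = 1/2 + sg (C.Lab (C.col q x) q) * c q x v := by
    intro x hx v hv
    rw [H.PF q hq _ v hv]
    have hfil : (Finset.univ.filter fun x' : C.I q => C.col q x' = C.col q x) = {x} := by
      ext x'
      simp only [Finset.mem_filter, Finset.mem_univ, true_and, Finset.mem_singleton]
      exact ⟨fun h => h1 x hx x' h, fun h => by rw [h]⟩
    rw [hfil, Finset.prod_singleton]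
    ring
  have hsplit : ∀ v ∈ K q, ∑ j ∈ T, wt j * g.G j v
      = (∑ x ∈ Jm, wt (C.col q x) * (1/2) + ∑ x ∈ Jm, sg (C.Lab (C.col q x) q) * wt (C.col q x) * c q x v)
        + ∑ j ∈ T \ Tm, wt j * g.G j v := by
    intro v hv
    rw [← Finset.sum_sdiff hTm, add_comm]
    congr 1
    rw [Finset.sum_image fun x hx x' hx' he => hinj x hx x' hx' he, ← Finset.sum_add_distrib]
    refine Finset.sum_congr rfl fun x hx => ?_
    rw [hmain x hx v hv]; ring
  rw [hsplit z hz, hsplit z' hz']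
  have e : ∀ a b b' d d' : ℝ, (a + b' + d' - (a + b + d) - (b' - b)) = d' - d := by
    intros; ring
  rw [e, ← Finset.sum_sub_distrib]
  refine (Finset.abs_sum_le_sum_abs _ _).trans ?_
  -- other sheets
  have hoth : ∀ j ∈ T \ Tm, |wt j * g.G j z' - wt j * g.G j z| ≤
      ∑ x : C.I q with C.col q x = j, |wt j| * |c q x z' - c q x z| := by
    intro j _
    rw [← mul_sub, abs_mul, H.PF q hq _ z hz, H.PF q hq _ z' hz', ← Finset.mul_sum]
    refine mul_le_mul_of_nonneg_left ?_ (abs_nonneg _)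
    have e2 : ∀ r a a' : ℝ, 1/2 - r/2 * a' - (1/2 - r/2 * a) = -(r * ((a' - a)/2)) := by
      intros; ring
    rw [e2, abs_neg, abs_mul, abs_sg, one_mul, abs_div, abs_of_pos (by norm_num : (0:ℝ) < 2),
      div_le_iff₀ (by norm_num : (0:ℝ) < 2)]
    refine (abs_prod_sub_prod_le _ _ _ (fun x _ => abs_two_le (H.cm q hq x z' hz'))
      (fun x _ => abs_two_le (H.cm q hq x z hz))).trans ?_
    rw [Finset.sum_mul]
    refine Finset.sum_le_sum fun x _ => ?_
    have e3 : -2 * c q x z' - -2 * c q x z = -(2 * (c q x z' - c q x z)) := by ring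
    rw [e3, abs_neg, abs_mul, abs_of_pos (by norm_num : (0:ℝ) < 2), mul_comm]
  refine (Finset.sum_le_sum hoth).trans ?_
  have hre : ∑ j ∈ T \ Tm, ∑ x : C.I q with C.col q x = j, |wt j| * |c q x z' - c q x z|
      = ∑ x : C.I q with C.col q x ∈ T \ Tm, |wt (C.col q x)| * |c q x z' - c q x z| := by
    rw [← Finset.sum_fiberwise_of_maps_to (s := Finset.univ.filter fun x : C.I q =>
      C.col q x ∈ T \ Tm) (t := T \ Tm) (g := C.col q) (fun x hx => (Finset.mem_filter.1 hx).2)]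
    refine Finset.sum_congr rfl fun j hj => ?_
    have : (Finset.univ.filter fun x : C.I q => C.col q x = j)
        = ((Finset.univ.filter fun x : C.I q => C.col q x ∈ T \ Tm).filter
          fun x => C.col q x = j) := by
      ext x
      simp only [Finset.mem_filter, Finset.mem_univ, true_and]
      exact ⟨fun h => ⟨h ▸ hj, h⟩, fun h => h.2⟩
    rw [this]
    refine Finset.sum_congr rfl fun x hx => ?_
    rw [(Finset.mem_filter.1 hx).2]
  rw [hre]
  refine Finset.sum_le_sum_of_subset_of_nonneg ?_ fun _ _ _ => by positivity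
  intro x hx
  rw [Finset.mem_filter] at hx ⊢
  obtain ⟨-, hx⟩ := hx
  rw [Finset.mem_sdiff] at hx
  exact ⟨Finset.mem_univ _, hx.1, fun hc => hx.2 (Finset.mem_image_of_mem _ hc)⟩

end lab

end Crest.Agent.R096.Fsw_928
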