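import Crest.Agent.R096.Bd3_416

/-!
# R096 (row 96), FACE-SWEEP, part 1: the sweep annulus of the square (helper928)

`Par`: small inset `a`, slope `m`, sweep height `H`.  `Par.F (ω, ρ)` parametrises the boundary of the
box `[-1 + aρ, 1 - aρ] × [-1 + Hρ, 1 - aρ]`; `Par.sweep : PLEquiv (sph 2 × [0,1]) (NA P)`.
-/

set_option autoImplicit false

open Set Metric

namespace Crest.Agent.R096.Fsw_928

open Crest.Agent.R096.Ce_537 Crest.Agent.R096.Bd_416

lemma mem_cube2 {x : Fin 2 → ℝ} : x ∈ cube 2 ↔ |x 0| ≤ 1 ∧ |x 1| ≤ 1 := by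
  rw [cube, mem_closedBall_zero_iff, pi_norm_le_iff_of_nonneg zero_le_one]
  simp [Fin.forall_fin_two]

lemma mem_sph2 {x : Fin 2 → ℝ} :
    x ∈ sph 2 ↔ |x 0| ≤ 1 ∧ |x 1| ≤ 1 ∧ (|x 0| = 1 ∨ |x 1| = 1) := by
  constructor
  · intro h
    have h1 : ‖x‖ = 1 := by simpa using h
    have h2 : x ∈ cube 2 := sph_subset_cube h
    rw [mem_cube2] at h2
    have hx0 : x ≠ 0 := by rintro rfl; rw [norm_zero] at h1; norm_num at h1
    obtain ⟨i, hi⟩ := exists_coord hx0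
    rw [h1] at hi
    refine ⟨h2.1, h2.2, ?_⟩
    fin_cases i
    · exact Or.inl hi.symm
    · exact Or.inr hi.symm
  · rintro ⟨h0, h1, h2⟩
    have h3 : ‖x‖ ≤ 1 := by simpa using (mem_cube2.2 ⟨h0, h1⟩ : x ∈ cube 2)
    have h4 : (1 : ℝ) ≤ ‖x‖ := by
      rcases h2 with h2 | h2
      · rw [← h2]; exact abs_apply_le x 0
      · rw [← h2]; exact abs_apply_le x 1
    simpa using le_antisymm h3 h4

/-- parameters of a sweep -/
structure Par where
  a : ℝ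
  m : ℝ
  H : ℝ
  a0 : 0 < a
  m0 : 0 < m
  H0 : 0 < H
  aH : H + 2 * a ≤ 2
  am : a + m * H ≤ 1 / 4

namespace Par

variable (P : Par)

/-- height of the sweeping side at time `ρ` -/
def hh (ρ : ℝ) : ℝ := -1 + P.H * ρ

/-- inset -/
def dd (t ρ : ℝ) : ℝ := P.a * ρ + P.m * max 0 (P.hh ρ - t)

noncomputable def U (s t ρ : ℝ) : ℝ := cg (1 - P.dd t ρ) s

noncomputable def V (t ρ : ℝ) : ℝ := max (P.hh ρ) (min t ((1 + t) / 2 - P.a * ρ))

/-- gauge of the boxes -/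
noncomputable def R (u v : ℝ) : ℝ :=
  min (min ((1 - max u (-u)) / P.a) ((1 - v) / P.a)) ((1 + v) / P.H)

noncomputable def T (u v ρ : ℝ) : ℝ :=
  max (-1) (max (max v (2 * v - 1 + 2 * (P.a * ρ)) - (1 - max u (-u) - P.a * ρ) / P.m)
    (1 - (2 / P.a) * (1 - P.a * ρ - v)))

noncomputable def S (u t ρ : ℝ) : ℝ := max (-1) (min (cf (1 - P.dd t ρ) u) 1)

variable {P}

lemma one_sub_two_a_le {ρ : ℝ} (h0 : 0 ≤ ρ) (h1 : ρ ≤ 1) : P.hh ρ ≤ 1 - 2 * (P.a * ρ) := by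
  have h := P.aH
  have h2 : (P.H + 2 * P.a) * ρ ≤ 2 * 1 := mul_le_mul h h1 h0 (by norm_num)
  unfold hh
  nlinarith

lemma hh_ge {ρ : ℝ} (h0 : 0 ≤ ρ) : -1 ≤ P.hh ρ := by
  have := mul_nonneg P.H0.le h0
  unfold hh; linarith

lemma hh_le {ρ : ℝ} (h1 : ρ ≤ 1) : P.hh ρ + 1 ≤ P.H := by
  have := mul_le_mul_of_nonneg_left h1 P.H0.le
  unfold hh; linarith

lemma aρ_nonneg {ρ : ℝ} (h0 : 0 ≤ ρ) : 0 ≤ P.a * ρ := mul_nonneg P.a0.le h0

lemma aρ_le {ρ : ℝ} (h1 : ρ ≤ 1) : P.a * ρ ≤ P.a := by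
  have := mul_le_mul_of_nonneg_left h1 P.a0.le
  linarith

lemma dd_ge {t ρ : ℝ} : P.a * ρ ≤ P.dd t ρ := by
  have := mul_nonneg P.m0.le (le_max_left 0 (P.hh ρ - t))
  unfold dd; linarith

lemma dd_le {t ρ : ℝ} (h1 : ρ ≤ 1) (ht : -1 ≤ t) : P.dd t ρ ≤ 1 / 4 := by
  have h2 : max 0 (P.hh ρ - t) ≤ P.H := max_le P.H0.le (by linarith [P.hh_le h1])
  have h3 := mul_le_mul_of_nonneg_left h2 P.m0.le
  have h4 := P.aρ_le h1
  have := P.am
  unfold dd; linarith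

lemma dd_of_ge {t ρ : ℝ} (h : P.hh ρ ≤ t) : P.dd t ρ = P.a * ρ := by
  unfold dd; rw [max_eq_left (by linarith)]; ring

lemma dd_of_le {t ρ : ℝ} (h : t ≤ P.hh ρ) : P.dd t ρ = P.a * ρ + P.m * (P.hh ρ - t) := by
  unfold dd; rw [max_eq_right (by linarith)]

lemma a_le : P.a ≤ 1 / 4 := by
  have := P.am
  have := mul_pos P.m0 P.H0
  linarith

/-- the third term of `T` is at most `-1` on the sweeping side -/
lemma third_le {ρ : ℝ} (h1 : ρ ≤ 1) :
    1 - (2 / P.a) * (1 - P.a * ρ - P.hh ρ) ≤ -1 := by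
  have h2 : P.a ≤ 1 - P.a * ρ - P.hh ρ := by
    have h3 := P.aH
    have h4 := P.aρ_le h1
    have h5 := P.hh_le h1
    linarith
  have h6 : (2 / P.a) * P.a = 2 := by field_simp [P.a0.ne']
  have h7 := mul_le_mul_of_nonneg_left h2 (div_nonneg (by norm_num) P.a0.le : (0:ℝ) ≤ 2 / P.a)
  linarith

lemma two_le : 2 ≤ 2 / P.a := by
  rw [le_div_iff₀ P.a0]
  have := P.a_le
  linarith

lemma max_neg_eq (u : ℝ) : max u (-u) = |u| := rfl

lemma abs_U {s t ρ : ℝ} (h1 : ρ ≤ 1) (ht : -1 ≤ t) :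
    |P.U s t ρ| = cg (1 - P.dd t ρ) |s| := by
  unfold U; exact abs_cg _ _ (by linarith [P.dd_le h1 ht])

lemma abs_U_le {s t ρ : ℝ} (h0 : 0 ≤ ρ) (h1 : ρ ≤ 1) (ht : -1 ≤ t) (hs : |s| ≤ 1) :
    |P.U s t ρ| ≤ 1 - P.dd t ρ := by
  rw [abs_U h1 ht]
  have h2 := P.dd_le h1 ht
  have h3 := (P.aρ_nonneg h0).trans (P.dd_ge (t := t))
  calc cg (1 - P.dd t ρ) |s| ≤ cg (1 - P.dd t ρ) 1 := cg_mono (by linarith) (abs_nonneg _) hs
    _ = _ := cg_top (by linarith) (by linarith)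

lemma abs_U_eq {s t ρ : ℝ} (h0 : 0 ≤ ρ) (h1 : ρ ≤ 1) (ht : -1 ≤ t) (hs : |s| = 1) :
    |P.U s t ρ| = 1 - P.dd t ρ := by
  rw [abs_U h1 ht, hs]
  have h2 := P.dd_le h1 ht
  have h3 := (P.aρ_nonneg h0).trans (P.dd_ge (t := t))
  exact cg_top (by linarith) (by linarith)

lemma S_U {s t ρ : ℝ} (h1 : ρ ≤ 1) (ht : -1 ≤ t) (hs : |s| ≤ 1) :
    P.S (P.U s t ρ) t ρ = s := by
  unfold S U
  rw [cf_cg (by linarith [P.dd_le h1 ht])]
  rw [abs_le] at hs
  rw [min_eq_left hs.2, max_eq_right hs.1]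

lemma hh_le_mid {ρ : ℝ} (h0 : 0 ≤ ρ) (h1 : ρ ≤ 1) {t : ℝ} (ht : P.hh ρ ≤ t) :
    P.hh ρ ≤ (1 + t) / 2 - P.a * ρ := by
  have := P.one_sub_two_a_le h0 h1
  linarith

lemma V_of_ge {t ρ : ℝ} (h0 : 0 ≤ ρ) (h1 : ρ ≤ 1) (ht : P.hh ρ ≤ t) :
    P.V t ρ = min t ((1 + t) / 2 - P.a * ρ) := by
  unfold V
  exact max_eq_right (le_min ht (P.hh_le_mid h0 h1 ht))

lemma V_of_le {t ρ : ℝ} (ht : t ≤ P.hh ρ) : P.V t ρ = P.hh ρ := by
  unfold V
  exact max_eq_left ((min_le_left _ _).trans ht)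

lemma V_ge (t ρ : ℝ) : P.hh ρ ≤ P.V t ρ := le_max_left _ _

lemma V_le {t ρ : ℝ} (h0 : 0 ≤ ρ) (h1 : ρ ≤ 1) (ht : t ≤ 1) : P.V t ρ ≤ 1 - P.a * ρ := by
  unfold V
  refine max_le ?_ ((min_le_right _ _).trans (by linarith))
  have := P.one_sub_two_a_le h0 h1
  have := P.aρ_nonneg h0
  linarith

/-- **the gauge of the image is `ρ`** -/
lemma R_F {s t ρ : ℝ} (h0 : 0 ≤ ρ) (h1 : ρ ≤ 1) (hs : |s| ≤ 1) (ht : |t| ≤ 1)
    (hst : |s| = 1 ∨ |t| = 1) : P.R (P.U s t ρ) (P.V t ρ) = ρ := by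
  have ht' := abs_le.1 ht
  have e1 : ρ ≤ (1 - |P.U s t ρ|) / P.a := by
    rw [le_div_iff₀ P.a0]
    have := P.abs_U_le h0 h1 ht'.1 hs
    have := P.dd_ge (t := t) (ρ := ρ)
    linarith
  have e2 : ρ ≤ (1 - P.V t ρ) / P.a := by
    rw [le_div_iff₀ P.a0]
    have := P.V_le h0 h1 ht'.2
    linarith
  have e3 : ρ ≤ (1 + P.V t ρ) / P.H := by
    rw [le_div_iff₀ P.H0]
    have := P.V_ge t ρ
    unfold hh at this
    linarith
  unfold R
  rw [max_neg_eq]
  apply le_antisymm _ (le_min (le_min e1 e2) e3)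
  by_cases hle : t ≤ P.hh ρ
  · refine (min_le_right _ _).trans ?_
    rw [div_le_iff₀ P.H0, P.V_of_le hle]
    unfold hh; linarith
  · rw [not_le] at hle
    rcases hst with hs1 | ht1
    · refine (min_le_left _ _).trans ((min_le_left _ _).trans ?_)
      rw [div_le_iff₀ P.a0, P.abs_U_eq h0 h1 ht'.1 hs1, P.dd_of_ge hle.le]
      linarith
    · have ht2 : t = 1 := by
        rcases abs_eq (zero_le_one' ℝ) |>.1 ht1 with h | h
        · exact h
        · have := P.hh_ge h0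
          linarith
      refine (min_le_left _ _).trans ((min_le_right _ _).trans ?_)
      rw [div_le_iff₀ P.a0, P.V_of_ge h0 h1 hle.le, ht2]
      have : (1 : ℝ) - P.a * ρ ≤ min 1 ((1 + 1) / 2 - P.a * ρ) :=
        le_min (by linarith [P.aρ_nonneg h0]) (by linarith)
      linarith

/-- **`T` recovers `t`** -/
lemma T_F {s t ρ : ℝ} (h0 : 0 ≤ ρ) (h1 : ρ ≤ 1) (hs : |s| ≤ 1) (ht : |t| ≤ 1)
    (hst : |s| = 1 ∨ |t| = 1) : P.T (P.U s t ρ) (P.V t ρ) ρ = t := by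
  have ht' := abs_le.1 ht
  have ha := P.aρ_nonneg h0
  have hU := P.abs_U_le h0 h1 ht'.1 hs
  have hd := P.dd_ge (t := t) (ρ := ρ)
  have h2a := P.one_sub_two_a_le h0 h1
  have h2 := P.two_le
  unfold T
  rw [max_neg_eq]
  by_cases hle : t ≤ P.hh ρ
  · -- sweeping side
    rw [P.V_of_le hle]
    have e1 : max (P.hh ρ) (2 * P.hh ρ - 1 + 2 * (P.a * ρ)) = P.hh ρ :=
      max_eq_left (by linarith)
    rw [e1]
    have hd' := P.dd_of_le hle
    have e3 := P.third_le h1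
    have hge : P.m * (P.hh ρ - t) ≤ 1 - |P.U s t ρ| - P.a * ρ := by linarith
    have hge' : P.hh ρ - t ≤ (1 - |P.U s t ρ| - P.a * ρ) / P.m := by
      rw [le_div_iff₀ P.m0]; linarith
    rcases hst with hs1 | ht1
    · have e2 : (1 - |P.U s t ρ| - P.a * ρ) / P.m = P.hh ρ - t := by
        rw [P.abs_U_eq h0 h1 ht'.1 hs1, hd', div_eq_iff P.m0.ne']
        ring
      rw [e2]
      have e4 : P.hh ρ - (P.hh ρ - t) = t := by ring
      have e5 : max t (1 - (2 / P.a) * (1 - P.a * ρ - P.hh ρ)) = t := max_eq_left (by linarith)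
      rw [e4, e5]
      exact max_eq_right ht'.1
    · have ht2 : t = -1 := by
        rcases abs_eq (zero_le_one' ℝ) |>.1 ht1 with h | h
        · exfalso
          rw [h] at hle
          have : P.a * ρ ≤ 0 := by linarith
          have hρ : P.a * ρ = 0 := le_antisymm this ha
          have h3 : ρ = 0 := by
            rcases mul_eq_zero.1 hρ with h4 | h4
            · exact absurd h4 P.a0.ne'
            · exact h4
          rw [h3] at hle
          unfold hh at hle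
          norm_num at hle
        · exact h
      apply le_antisymm
      · refine max_le (by linarith) (max_le ?_ (by linarith))
        linarith
      · rw [ht2]; exact le_max_left _ _
  · rw [not_le] at hle
    rw [P.V_of_ge h0 h1 hle.le]
    have hdd := P.dd_of_ge hle.le
    -- the first inner maximum is `t`
    have e1 : max (min t ((1 + t) / 2 - P.a * ρ))
        (2 * min t ((1 + t) / 2 - P.a * ρ) - 1 + 2 * (P.a * ρ)) = t := by
      rcases le_total t ((1 + t) / 2 - P.a * ρ) with h | h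
      · rw [min_eq_left h]; exact max_eq_left (by linarith)
      · rw [min_eq_right h]
        have : 2 * ((1 + t) / 2 - P.a * ρ) - 1 + 2 * (P.a * ρ) = t := by ring
        rw [this]; exact max_eq_right h
    rw [e1]
    have hge : 0 ≤ (1 - |P.U s t ρ| - P.a * ρ) / P.m := div_nonneg (by linarith) P.m0.le
    have e3 : 1 - (2 / P.a) * (1 - P.a * ρ - min t ((1 + t) / 2 - P.a * ρ)) ≤ t := by
      have h3 : (1 - t) / 2 ≤ 1 - P.a * ρ - min t ((1 + t) / 2 - P.a * ρ) := by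
        have := min_le_right t ((1 + t) / 2 - P.a * ρ)
        linarith
      have h4 := mul_le_mul_of_nonneg_left h3 (by linarith : (0:ℝ) ≤ 2 / P.a)
      have h5 := mul_le_mul_of_nonneg_right h2 (by linarith : (0:ℝ) ≤ (1 - t) / 2)
      linarith
    rcases hst with hs1 | ht1
    · have e2 : (1 - |P.U s t ρ| - P.a * ρ) / P.m = 0 := by
        rw [P.abs_U_eq h0 h1 ht'.1 hs1, hdd]
        simp
      rw [e2, sub_zero, max_eq_left e3]
      exact max_eq_right ht'.1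
    · have ht2 : t = 1 := by
        rcases abs_eq (zero_le_one' ℝ) |>.1 ht1 with h | h
        · exact h
        · have := P.hh_ge h0
          linarith
      have e4 : 1 - (2 / P.a) * (1 - P.a * ρ - min t ((1 + t) / 2 - P.a * ρ)) = 1 := by
        rw [ht2, min_eq_right (by linarith)]
        have : 1 - P.a * ρ - ((1 + 1) / 2 - P.a * ρ) = 0 := by ring
        rw [this]; ring
      have e5 : max (t - (1 - |P.U s t ρ| - P.a * ρ) / P.m) 1 = 1 := max_eq_right (by linarith)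
      rw [e4, e5, ht2]
      exact max_eq_right (by norm_num)

end Par

end Crest.Agent.R096.Fsw_928
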