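import Crest.Agent.R096.Fsw19_928

/-!
# R096 (row 96), FACE-SWEEP, part 20: the pointwise form on the unit square (helper928)
-/

set_option autoImplicit false

open Set Metric Filter Topology MeasureTheory
open scoped ENNReal NNReal Classical

namespace Crest.Agent.R096.Fsw_928

open Crest.Agent.R096.Ce_537 Crest.Agent.R096.Bd_416

/-- affine chart of the unit square; `ε i = ± 1`; `(1,1)` goes to the corner `(1 + ε)/2` -/
noncomputable def tau (ε z : Fin 2 → ℝ) : Fin 2 → ℝ := fun i => (1 + ε i * z i) / 2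

/-- inverse -/
noncomputable def utau (ε y : Fin 2 → ℝ) : Fin 2 → ℝ := fun i => ε i * (2 * y i - 1)

section tau

variable {ε : Fin 2 → ℝ} (hε : ∀ i, ε i = 1 ∨ ε i = -1)
include hε

lemma eps_sq (i : Fin 2) : ε i * ε i = 1 := by
  rcases hε i with h | h <;> rw [h] <;> norm_num

lemma tau_utau (y : Fin 2 → ℝ) : tau ε (utau ε y) = y := by
  funext i
  have := eps_sq hε i
  unfold tau utau
  rw [← mul_assoc, this]; ring

lemma utau_tau (z : Fin 2 → ℝ) : utau ε (tau ε z) = z := by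
  funext i
  have := eps_sq hε i
  unfold tau utau
  have e : ε i * (2 * ((1 + ε i * z i) / 2) - 1) = (ε i * ε i) * z i := by ring
  rw [e, this, one_mul]

lemma abs_eps (i : Fin 2) : |ε i| = 1 := by
  rcases hε i with h | h <;> rw [h] <;> norm_num

lemma utau_mem {y : Fin 2 → ℝ} (hy : ∀ i, 0 < y i ∧ y i < 1) : utau ε y ∈ osq := by
  rw [mem_ball, dist_zero_right, pi_norm_lt_iff one_pos]
  intro i
  show |ε i * (2 * y i - 1)| < 1
  rw [abs_mul, abs_eps hε, one_mul, abs_lt]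
  constructor <;> linarith [(hy i).1, (hy i).2]

omit hε in
lemma continuous_utau : Continuous (utau ε) := by
  unfold utau; fun_prop

lemma norm_utau_sub (y y' : Fin 2 → ℝ) : ‖utau ε y' - utau ε y‖ ≤ 2 * ‖y' - y‖ := by
  rw [pi_norm_le_iff_of_nonneg (by positivity)]
  intro i
  show |ε i * (2 * y' i - 1) - ε i * (2 * y i - 1)| ≤ _
  have e : ε i * (2 * y' i - 1) - ε i * (2 * y i - 1) = ε i * (2 * (y' i - y i)) := by ring
  rw [e, abs_mul, abs_eps hε, one_mul, abs_mul, abs_of_pos (by norm_num : (0:ℝ) < 2)]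
  exact mul_le_mul_of_nonneg_left (norm_le_pi_norm (y' - y) i) (by norm_num)

lemma lip_tau : LipschitzWith 1 (tau ε) := by
  refine LipschitzWith.of_dist_le_mul fun z z' => ?_
  rw [NNReal.coe_one, one_mul, dist_pi_le_iff dist_nonneg]
  intro i
  rw [Real.dist_eq]
  have e : tau ε z i - tau ε z' i = ε i * ((z i - z' i) / 2) := by unfold tau; ring
  rw [e, abs_mul, abs_eps hε, one_mul, abs_div, abs_of_pos (by norm_num : (0:ℝ) < 2)]
  have h1 : |z i - z' i| ≤ dist z z' := by rw [← Real.dist_eq]; exact dist_le_pi_dist z z' i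
  linarith [abs_nonneg (z i - z' i)]

/-- transport of the pointwise statement -/
theorem to_unit {F' : (Fin 2 → ℝ) → ℝ} {s e v : ℝ} {j : Fin 2}
    (h : ∃ W : Set (Fin 2 → ℝ), volume W ≤ ENNReal.ofReal v ∧ ∀ z ∈ osq, z ∉ W →
      ∀ᶠ z' in 𝓝 z, |F' (tau ε z') - F' (tau ε z) + s * (z' j - z j)| ≤ e * ‖z' - z‖) (he : 0 ≤ e) :
    ∃ W : Set (Fin 2 → ℝ), volume W ≤ ENNReal.ofReal v ∧ ∀ y : Fin 2 → ℝ,
      (∀ i, 0 < y i ∧ y i < 1) → y ∉ W →
      ∀ᶠ y' in 𝓝 y, |F' y' - F' y + 2 * s * ε j * (y' j - y j)| ≤ 2 * e * ‖y' - y‖ := by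
  obtain ⟨W, hW, h1⟩ := h
  refine ⟨tau ε '' W, ?_, ?_⟩
  · have h2 := ((lip_tau hε).lipschitzOnWith (s := W)).hausdorffMeasure_image_le (d := 2)
      (by norm_num)
    rw [hausdorff_eq] at h2
    simpa using h2.trans (by simpa using hW)
  · intro y hy hyW
    have hz := utau_mem hε hy
    have hzW : utau ε y ∉ W := fun hc => hyW ⟨_, hc, tau_utau hε y⟩
    have h3 := (continuous_utau (ε := ε)).continuousAt (x := y) |>.eventually (h1 _ hz hzW)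
    filter_upwards [h3] with y' hy'
    rw [tau_utau hε, tau_utau hε] at hy'
    have e1 : s * (utau ε y' j - utau ε y j) = 2 * s * ε j * (y' j - y j) := by
      unfold utau; ring
    rw [e1] at hy'
    refine hy'.trans ?_
    have := mul_le_mul_of_nonneg_left (norm_utau_sub hε y y') he
    linarith

end tau

section fin

variable {ι : Type} {L : Lam (sph 2) ι} {K b : ℝ} {h ρ : ι → ℝ}

lemma ae_diff_of_crd (D : Dep L K b h ρ) (P P' : Par) {β : ℝ} (hβ : 0 < β) {J : Finset ι}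
    {w M : ι → ℝ} {Q : ℝ} (C : Crd L h J w M Q) :
    ∀ᵐ z ∂(volume.restrict osq), ∀ i ∈ J, DifferentiableAt ℝ (fb D P P' β i) z := by
  obtain ⟨Λc, hΛc, hcr⟩ := exists_crude P P'
  have hb := mul_pos D.cst.b0 hβ
  have hM0 : ∀ i ∈ J, 0 ≤ Λc * M i / (2 * (b * β)) := fun i hi =>
    div_nonneg (mul_nonneg hΛc (C.M0 i hi)) (by linarith)
  exact ae_diff D P P' β J (Finset.sum_nonneg hM0) (fun i hi z hz =>
    (LL_fb hβ (hcr D i (M i) (C.M0 i hi) (C.lip i hi) (C.hM i hi) z hz)).mono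
      (Finset.single_le_sum hM0 hi))

/-- **THE FACE RULE, POINTWISE FORM**: off a set of area `≤ e` of the unit square the function `F'`
is nearly affine -/
theorem face_pt {S : ℝ} (hS : 0 ≤ S) {e : ℝ} (he : 0 < e) :
    ∃ δ : ℝ, 0 < δ ∧ ∀ P P' : Par, 4 * (P.a + P.m * P.H) + 2 * (2 - P.H) ≤ δ →
    ∃ lam : ℝ, 0 < lam ∧ ∃ η : ℝ, 0 < η ∧
    ∀ {ι : Type} {L : Lam (sph 2) ι} {K b : ℝ} {h ρ : ι → ℝ} (D : Dep L K b h ρ) (_ : Disj L)
      (J JX : Finset ι) (w wX M : ι → ℝ) (β Q : ℝ), 0 < β → β ≤ 1 → 1/4 ≤ b * β →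
      Crd L h J w M Q → Crd L h JX wX M Q → Q ≤ S →
      (∃ ℓ : ι → ℝ, (∀ i ∈ JX, 0 ≤ ℓ i) ∧ (∀ i ∈ JX, Ends2 L i (ℓ i)) ∧
        ∑ i ∈ JX, (ℓ i + h i) ≤ η) →
    ∀ (ε : Fin 2 → ℝ) (_ : ∀ i, ε i = 1 ∨ ε i = -1) (F' : (Fin 2 → ℝ) → ℝ),
      (∀ z ∈ osq, ∀ z' ∈ osq,
        |F' (tau ε z') - F' (tau ε z) - (GJ D P P' β J w z' - GJ D P P' β J w z)| ≤
          ∑ i ∈ JX, |wX i| * |fb D P P' β i z' - fb D P P' β i z|) →
      (∀ s s' W lam' μ : ℝ, |s| ≤ S → |s - s'| ≤ δ → W ≤ S → μ ≤ δ → lam' ≤ lam →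
        IsA D P β J w s' W lam' μ →
        ∃ W : Set (Fin 2 → ℝ), volume W ≤ ENNReal.ofReal e ∧ ∀ y : Fin 2 → ℝ,
          (∀ i, 0 < y i ∧ y i < 1) → y ∉ W →
          ∀ᶠ y' in 𝓝 y, |F' y' - F' y + 2 * s * ε 1 * (y' 1 - y 1)| ≤ e * ‖y' - y‖) ∧
      (∀ s s' W lam' μ : ℝ, |s| ≤ S → |s - s'| ≤ δ → W ≤ S → μ ≤ δ → lam' ≤ lam →
        IsB D P P' β J w s' W lam' μ →
        ∃ W : Set (Fin 2 → ℝ), volume W ≤ ENNReal.ofReal e ∧ ∀ y : Fin 2 → ℝ,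
          (∀ i, 0 < y i ∧ y i < 1) → y ∉ W →
          ∀ᶠ y' in 𝓝 y, |F' y' - F' y + 2 * s * ε 0 * (y' 0 - y 0)| ≤ e * ‖y' - y‖) ∧
      (J = ∅ →
        ∃ W : Set (Fin 2 → ℝ), volume W ≤ ENNReal.ofReal e ∧ ∀ y : Fin 2 → ℝ,
          (∀ i, 0 < y i ∧ y i < 1) → y ∉ W →
          ∀ᶠ y' in 𝓝 y, |F' y' - F' y| ≤ e * ‖y' - y‖) := by
  set e0 := e / 8
  have he0 : 0 < e0 := by positivity
  have hne : ENNReal.ofReal (e0 * e0) ≠ 0 := by
    rw [Ne, ENNReal.ofReal_eq_zero, not_le]; positivity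
  obtain ⟨δ, hδ, hP⟩ := face_lp (p := 1) le_rfl hS hne
  refine ⟨δ, hδ, fun P P' hPP => ?_⟩
  obtain ⟨lam, hlam, η, hη, hm⟩ := hP P P' hPP
  refine ⟨lam, hlam, η, hη, ?_⟩
  rintro ι L K b h ρ D hdj J JX w wX M β Q hβ0 hβ1 hbβ C CX hQ ⟨ℓ, l1, l2, l3⟩ ε hε F' hF
  have hd : ∀ᵐ z ∂(volume.restrict osq), ∀ i ∈ J ∪ JX,
      DifferentiableAt ℝ (fb D P P' β i) z := by
    filter_upwards [ae_diff_of_crd D P P' hβ0 C, ae_diff_of_crd D P P' hβ0 CX] with z h1 h2 i hi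
    rcases Finset.mem_union.1 hi with hi | hi
    · exact h1 i hi
    · exact h2 i hi
  obtain ⟨mA, mB, -⟩ := hm D hdj J w M β Q hβ0 hβ1 hbβ C hQ
  obtain ⟨-, -, mX⟩ := hm D hdj JX wX M β Q hβ0 hβ1 hbβ CX hQ
  have hX := mX ℓ l1 l2 l3
  simp only [ENNReal.rpow_one] at mA mB hX
  have hfin : ∀ {s : ℝ} {j : Fin 2},
      ∫⁻ z in osq, ‖fderiv ℝ (GJ D P P' β J w) z + s • pr j‖ₑ ≤ ENNReal.ofReal (e0 * e0) →
      ∃ W : Set (Fin 2 → ℝ), volume W ≤ ENNReal.ofReal e ∧ ∀ y : Fin 2 → ℝ,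
          (∀ i, 0 < y i ∧ y i < 1) → y ∉ W →
          ∀ᶠ y' in 𝓝 y, |F' y' - F' y + 2 * s * ε j * (y' j - y j)| ≤ e * ‖y' - y‖ := by
    intro s j h1
    obtain ⟨W, w1, w2⟩ := to_unit hε (off_small D P P' β (F := fun z => F' (tau ε z)) he0 hd h1 hX hF)
      (by positivity)
    refine ⟨W, w1.trans (ENNReal.ofReal_le_ofReal (by show 2 * (e / 8) ≤ e; linarith)),
      fun y hy hyW => ?_⟩
    filter_upwards [w2 y hy hyW] with y' hy'
    refine hy'.trans (le_of_eq ?_)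
    show 2 * (4 * (e / 8)) * _ = _
    ring
  refine ⟨?_, ?_, ?_⟩
  · intro s s' W lam' μ a1 a2 a3 a4 a5 a6
    exact hfin (mA s s' W lam' μ a1 a2 a3 a4 a5 a6)
  · intro s s' W lam' μ a1 a2 a3 a4 a5 a6
    exact hfin (mB s s' W lam' μ a1 a2 a3 a4 a5 a6)
  · intro hJ
    subst hJ
    have h0 : ∀ z, fderiv ℝ (GJ D P P' β ∅ w) z + (0:ℝ) • pr 0 = 0 := by
      intro z
      have : GJ D P P' β ∅ w = fun _ => 0 := by
        funext z; unfold GJ; exact Finset.sum_empty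
      rw [this, fderiv_fun_const]
      simp
    have hz0 : ∀ z, ‖fderiv ℝ (GJ D P P' β ∅ w) z + (0:ℝ) • pr 0‖ₑ = 0 := by
      intro z; rw [h0 z, ← ofReal_norm, norm_zero, ENNReal.ofReal_zero]
    obtain ⟨W, w1, w2⟩ := hfin (s := 0) (j := 0) (by
      simp only [hz0, lintegral_zero]
      exact zero_le)
    refine ⟨W, w1, fun y hy hyW => ?_⟩
    filter_upwards [w2 y hy hyW] with y' hy'
    simpa using hy'

end fin

end Crest.Agent.R096.Fsw_928
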