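import Crest.Agent.R096.Fsw20_928

/-!
# R096 (row 96), FACE-SWEEP, part 21: the `L^p` form on the unit square (helper928)
-/

set_option autoImplicit false

open Set Metric Filter Topology MeasureTheory
open scoped ENNReal NNReal Classical

namespace Crest.Agent.R096.Fsw_928

open Crest.Agent.R096.Ce_537 Crest.Agent.R096.Bd_416

/-- the open unit square -/
abbrev ousq : Set (Fin 2 → ℝ) := {y | ∀ j, 0 < y j ∧ y j < 1}

lemma isOpen_ousq : IsOpen ousq := by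
  have : ousq = ⋂ j : Fin 2, {y : Fin 2 → ℝ | 0 < y j ∧ y j < 1} := by
    ext y; simp [ousq]
  rw [this]
  refine isOpen_iInter_of_finite fun j => ?_
  exact (isOpen_lt continuous_const (continuous_apply j)).inter
    (isOpen_lt (continuous_apply j) continuous_const)

section tau

variable {ε : Fin 2 → ℝ} (hε : ∀ i, ε i = 1 ∨ ε i = -1)

/-- linear part of `utau` -/
noncomputable def dut (ε : Fin 2 → ℝ) : (Fin 2 → ℝ) →L[ℝ] (Fin 2 → ℝ) :=
  ContinuousLinearMap.pi fun i => (2 * ε i) • pr i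

lemma dut_apply (v : Fin 2 → ℝ) (i : Fin 2) : dut ε v i = 2 * ε i * v i := rfl

lemma hasFDerivAt_utau (y : Fin 2 → ℝ) : HasFDerivAt (utau ε) (dut ε) y := by
  rw [hasFDerivAt_pi']
  intro i
  have h1 : HasFDerivAt (fun y : Fin 2 → ℝ => y i) (pr i) y := (pr i).hasFDerivAt
  have h2 : HasFDerivAt (fun y : Fin 2 → ℝ => ε i * (2 * y i - 1)) (ε i • ((2:ℝ) • pr i)) y :=
    ((h1.const_mul 2).sub_const 1).const_mul (ε i)
  have e : (ContinuousLinearMap.proj i).comp (dut ε) = ε i • ((2:ℝ) • pr i) := by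
    ext v
    show 2 * ε i * _ = ε i * (2 * _)
    ring
  rw [e]
  exact h2

include hε

lemma norm_dut_le : ‖dut ε‖ ≤ 2 := by
  refine ContinuousLinearMap.opNorm_le_bound _ (by norm_num) fun v => ?_
  rw [pi_norm_le_iff_of_nonneg (by positivity)]
  intro i
  rw [dut_apply, Real.norm_eq_abs, abs_mul, abs_mul, abs_eps hε, mul_one,
    abs_of_pos (by norm_num : (0:ℝ) < 2)]
  exact mul_le_mul_of_nonneg_left (norm_le_pi_norm v i) (by norm_num)

lemma lint_utau {g : (Fin 2 → ℝ) → ℝ≥0∞} (hg : Measurable g) :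
    ∫⁻ y in ousq, g (utau ε y) ≤ ∫⁻ z in osq, g z := by
  have hm : Measurable (utau ε) := continuous_utau.measurable
  rw [← lintegral_map hg hm]
  refine lintegral_mono' ?_ le_rfl
  refine Measure.le_iff.2 fun A hA => ?_
  rw [Measure.map_apply hm hA, Measure.restrict_apply (hm hA), Measure.restrict_apply hA]
  have h1 : utau ε ⁻¹' A ∩ ousq ⊆ tau ε '' (A ∩ osq) := by
    rintro y ⟨h2, h3⟩
    exact ⟨utau ε y, ⟨h2, utau_mem hε h3⟩, tau_utau hε y⟩
  refine (measure_mono h1).trans ?_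
  have h2 := ((lip_tau hε).lipschitzOnWith (s := A ∩ osq)).hausdorffMeasure_image_le (d := 2)
    (by norm_num)
  rw [hausdorff_eq] at h2
  simpa using h2

/-- transport of the integral -/
theorem lint_to_unit {F' : (Fin 2 → ℝ) → ℝ} {κ p : ℝ} {j : Fin 2} (hp : 0 ≤ p) :
    ∫⁻ y in ousq, ‖fderiv ℝ F' y - κ • pr j‖ₑ ^ p ≤ (2:ℝ≥0∞) ^ p *
      ∫⁻ z in osq, ‖fderiv ℝ (fun z => F' (tau ε z)) z + (-(κ * ε j) / 2) • pr j‖ₑ ^ p := by
  set F : (Fin 2 → ℝ) → ℝ := fun z => F' (tau ε z)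
  have hF : F' = fun y => F (utau ε y) := by
    funext y
    show F' y = F' (tau ε (utau ε y))
    rw [tau_utau hε]
  set g : (Fin 2 → ℝ) → ℝ≥0∞ := fun z => ‖fderiv ℝ F z + (-(κ * ε j) / 2) • pr j‖ₑ ^ p
  have hg : Measurable g := ((measurable_fderiv ℝ _).add_const _).enorm.pow_const _
  have hpt : ∀ y, ‖fderiv ℝ F' y - κ • pr j‖ₑ ^ p ≤ (2:ℝ≥0∞) ^ p * g (utau ε y) := by
    intro y
    have hfd : fderiv ℝ F' y = (fderiv ℝ F (utau ε y)).comp (dut ε) := by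
      by_cases hd : DifferentiableAt ℝ F (utau ε y)
      · rw [hF]
        exact (hd.hasFDerivAt.comp y (hasFDerivAt_utau y)).fderiv
      · have hd' : ¬ DifferentiableAt ℝ F' y := by
          intro hc
          apply hd
          have hct : DifferentiableAt ℝ (tau ε) (utau ε y) := by
            refine differentiableAt_pi.2 fun i => ?_
            show DifferentiableAt ℝ (fun z : Fin 2 → ℝ => (1 + ε i * z i) / 2) _
            fun_prop
          rw [← tau_utau hε y] at hc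
          exact hc.comp (utau ε y) hct
        rw [fderiv_zero_of_not_differentiableAt hd', fderiv_zero_of_not_differentiableAt hd,
          ContinuousLinearMap.zero_comp]
    have e : fderiv ℝ F' y - κ • pr j
        = (fderiv ℝ F (utau ε y) + (-(κ * ε j) / 2) • pr j).comp (dut ε) := by
      rw [hfd]
      ext v
      show fderiv ℝ F (utau ε y) (dut ε v) - κ * v j
        = fderiv ℝ F (utau ε y) (dut ε v) + (-(κ * ε j) / 2) * (dut ε v j)
      rw [dut_apply]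
      have := eps_sq hε j
      linear_combination (κ * v j) * this
    rw [e, ← ENNReal.mul_rpow_of_nonneg _ _ hp]
    refine ENNReal.rpow_le_rpow ?_ hp
    rw [← ofReal_norm, ← ofReal_norm, ← ENNReal.ofReal_ofNat 2,
      ← ENNReal.ofReal_mul (by norm_num)]
    apply ENNReal.ofReal_le_ofReal
    refine (ContinuousLinearMap.opNorm_comp_le _ _).trans ?_
    rw [mul_comm]
    exact mul_le_mul_of_nonneg_right (norm_dut_le hε) (norm_nonneg _)
  refine (lintegral_mono fun y => hpt y).trans ?_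
  have h3 : ∫⁻ y in ousq, (2:ℝ≥0∞) ^ p * g (utau ε y)
      = (2:ℝ≥0∞) ^ p * ∫⁻ y in ousq, g (utau ε y) :=
    lintegral_const_mul ((2:ℝ≥0∞) ^ p) (f := fun y => g (utau ε y))
      (hg.comp continuous_utau.measurable)
  rw [h3]
  exact mul_le_mul' le_rfl (lint_utau hε hg)

end tau

section sum

variable {ι : Type} {L : Lam (sph 2) ι} {K b : ℝ} {h ρ : ι → ℝ} (D : Dep L K b h ρ) (P P' : Par)
  {β : ℝ}

/-- main part plus rest -/
theorem lint_add (hβ : 0 < β) {J JX : Finset ι} {w wX M : ι → ℝ} {Q : ℝ}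
    (C : Crd L h J w M Q) (CX : Crd L h JX wX M Q) {F : (Fin 2 → ℝ) → ℝ} {s p : ℝ}
    {j : Fin 2} (hp : 1 ≤ p)
    (hF : ∀ z ∈ osq, ∀ z' ∈ osq, |F z' - F z - (GJ D P P' β J w z' - GJ D P P' β J w z)| ≤
      ∑ i ∈ JX, |wX i| * |fb D P P' β i z' - fb D P P' β i z|) :
    ∫⁻ z in osq, ‖fderiv ℝ F z + s • pr j‖ₑ ^ p ≤ (2:ℝ≥0∞) ^ (p - 1) *
      ((∫⁻ z in osq, ‖fderiv ℝ (GJ D P P' β J w) z + s • pr j‖ₑ ^ p)
      + ∫⁻ z in osq, ENNReal.ofReal (∑ i ∈ JX, |wX i| * ‖fderiv ℝ (fb D P P' β i) z‖) ^ p) := by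
  have hp0 : 0 ≤ p := by linarith
  set G : (Fin 2 → ℝ) → ℝ := fun z => F z - GJ D P P' β J w z with hG
  have hGd : ∀ z ∈ osq, ∀ z' ∈ osq, |G z' - G z| ≤
      ∑ i ∈ JX, |wX i| * |fb D P P' β i z' - fb D P P' β i z| := by
    intro z hz z' hz'
    have := hF z hz z' hz'
    refine le_trans (le_of_eq ?_) this
    congr 1
    simp only [hG]; ring
  -- Lipschitz
  obtain ⟨Λc, hΛc, hcr⟩ := exists_crude P P'
  have hb := mul_pos D.cst.b0 hβ
  have hM0 : ∀ i ∈ JX, 0 ≤ Λc * M i / (2 * (b * β)) := fun i hi =>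
    div_nonneg (mul_nonneg hΛc (CX.M0 i hi)) (by linarith)
  have hfl : ∀ i ∈ JX, ∀ z ∈ osq, ∀ z' ∈ osq, |fb D P P' β i z' - fb D P P' β i z|
      ≤ Λc * M i / (2 * (b * β)) * dist z' z := fun i hi z hz z' hz' =>
    Pc_117.LL.dist_le (convex_closedBall (0 : Fin 2 → ℝ) 1) (fun x hx =>
      LL_fb hβ (hcr D i (M i) (CX.M0 i hi) (CX.lip i hi) (CX.hM i hi) x hx))
      (osq_subset hz) (osq_subset hz')
  set Λ : ℝ := ∑ i ∈ JX, |wX i| * (Λc * M i / (2 * (b * β)))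
  have hΛ0 : 0 ≤ Λ := Finset.sum_nonneg fun i hi => mul_nonneg (abs_nonneg _) (hM0 i hi)
  have hGL : LipschitzOnWith ⟨Λ, hΛ0⟩ G osq := by
    refine LipschitzOnWith.of_dist_le_mul fun x hx y hy => ?_
    rw [Real.dist_eq]
    refine (hGd y hy x hx).trans ?_
    show _ ≤ Λ * dist x y
    rw [Finset.sum_mul]
    refine Finset.sum_le_sum fun i hi => ?_
    rw [mul_assoc]
    exact mul_le_mul_of_nonneg_left (hfl i hi y hy x hx) (abs_nonneg _)
  have hae : ∀ᵐ z ∂(volume.restrict osq), DifferentiableAt ℝ G z := by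
    have h2 := hGL.ae_differentiableWithinAt (μ := volume) measurableSet_ball
    filter_upwards [h2, ae_restrict_mem measurableSet_ball] with z hz hzm
    exact hz.differentiableAt (isOpen_ball.mem_nhds hzm)
  have hpt : ∀ᵐ z ∂(volume.restrict osq), ‖fderiv ℝ F z + s • pr j‖ₑ ^ p ≤ (2:ℝ≥0∞) ^ (p - 1) *
      (‖fderiv ℝ (GJ D P P' β J w) z + s • pr j‖ₑ ^ p
      + ENNReal.ofReal (∑ i ∈ JX, |wX i| * ‖fderiv ℝ (fb D P P' β i) z‖) ^ p) := by
    filter_upwards [hae, ae_diff_of_crd D P P' hβ C, ae_diff_of_crd D P P' hβ CX,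
      ae_restrict_mem measurableSet_ball] with z hdG hdJ hdX hz
    have hdJ' : DifferentiableAt ℝ (GJ D P P' β J w) z := by
      unfold GJ
      exact DifferentiableAt.fun_sum fun i hi => (hdJ i hi).const_mul (w i)
    -- norm of the rest
    have hn : ‖fderiv ℝ G z‖ ≤ ∑ i ∈ JX, |wX i| * ‖fderiv ℝ (fb D P P' β i) z‖ := by
      refine le_of_forall_pos_le_add fun t ht => ?_
      set S := ∑ i ∈ JX, |wX i|
      have hS : 0 ≤ S := Finset.sum_nonneg fun _ _ => abs_nonneg _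
      have ht' : 0 < t / (S + 1) := by positivity
      have b2 : ∀ᶠ z' in 𝓝 z, ∀ i ∈ JX, |fb D P P' β i z' - fb D P P' β i z| ≤
          (‖fderiv ℝ (fb D P P' β i) z‖ + t / (S + 1)) * ‖z' - z‖ := by
        rw [Filter.eventually_all_finset]
        intro i hi
        have h3 := (hdX i hi).hasFDerivAt.isLittleO.bound ht'
        filter_upwards [h3] with z' hz'
        have h4 := (fderiv ℝ (fb D P P' β i) z).le_opNorm (z' - z)
        rw [Real.norm_eq_abs] at hz' h4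
        have h5 : |fb D P P' β i z' - fb D P P' β i z| ≤
            |fb D P P' β i z' - fb D P P' β i z - fderiv ℝ (fb D P P' β i) z (z' - z)|
            + |fderiv ℝ (fb D P P' β i) z (z' - z)| := by
          have := abs_add_le (fb D P P' β i z' - fb D P P' β i z
            - fderiv ℝ (fb D P P' β i) z (z' - z)) (fderiv ℝ (fb D P P' β i) z (z' - z))
          rwa [sub_add_cancel] at this
        rw [add_mul]; linarith
      refine hdG.hasFDerivAt.le_of_lip' (by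
        have : 0 ≤ ∑ i ∈ JX, |wX i| * ‖fderiv ℝ (fb D P P' β i) z‖ :=
          Finset.sum_nonneg fun i _ => by positivity
        linarith) ?_
      filter_upwards [b2, isOpen_ball.mem_nhds hz] with z' c2 hz'
      rw [Real.norm_eq_abs]
      refine (hGd z hz z' hz').trans ?_
      calc ∑ i ∈ JX, |wX i| * |fb D P P' β i z' - fb D P P' β i z|
          ≤ ∑ i ∈ JX, |wX i| * ((‖fderiv ℝ (fb D P P' β i) z‖ + t / (S + 1)) * ‖z' - z‖) :=
            Finset.sum_le_sum fun i hi => mul_le_mul_of_nonneg_left (c2 i hi) (abs_nonneg _)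
        _ = (∑ i ∈ JX, |wX i| * ‖fderiv ℝ (fb D P P' β i) z‖ + S * (t / (S + 1))) * ‖z' - z‖ := by
            rw [show S = ∑ i ∈ JX, |wX i| from rfl, Finset.sum_mul, ← Finset.sum_add_distrib,
              Finset.sum_mul]
            refine Finset.sum_congr rfl fun i _ => ?_
            ring
        _ ≤ (∑ i ∈ JX, |wX i| * ‖fderiv ℝ (fb D P P' β i) z‖ + t) * ‖z' - z‖ := by
            refine mul_le_mul_of_nonneg_right ?_ (norm_nonneg _)
            have h6 : S * (t / (S + 1)) ≤ t := by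
              rw [← mul_div_assoc, div_le_iff₀ (by linarith)]
              nlinarith
            linarith
    have hFe : fderiv ℝ F z = fderiv ℝ (GJ D P P' β J w) z + fderiv ℝ G z := by
      have : F = fun z => GJ D P P' β J w z + G z := by
        funext z; simp only [hG]; ring
      rw [this]
      exact fderiv_fun_add hdJ' hdG
    have hle : ‖fderiv ℝ F z + s • pr j‖ₑ ≤ ‖fderiv ℝ (GJ D P P' β J w) z + s • pr j‖ₑ
        + ENNReal.ofReal (∑ i ∈ JX, |wX i| * ‖fderiv ℝ (fb D P P' β i) z‖) := by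
      rw [hFe, add_right_comm]
      refine (enorm_add_le (fderiv ℝ (GJ D P P' β J w) z + s • pr j)
        (fderiv ℝ G z)).trans (add_le_add le_rfl ?_)
      rw [← ofReal_norm]
      exact ENNReal.ofReal_le_ofReal hn
    exact (ENNReal.rpow_le_rpow hle hp0).trans (ENNReal.rpow_add_le_mul_rpow_add_rpow _ _ hp)
  refine (lintegral_mono_ae hpt).trans ?_
  have m1 : Measurable fun z => ‖fderiv ℝ (GJ D P P' β J w) z + s • pr j‖ₑ ^ p :=
    ((measurable_fderiv ℝ _).add_const _).enorm.pow_const _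
  have m2 : Measurable fun z =>
      ENNReal.ofReal (∑ i ∈ JX, |wX i| * ‖fderiv ℝ (fb D P P' β i) z‖) ^ p := by
    refine (ENNReal.measurable_ofReal.comp (Finset.measurable_sum _ fun i _ => ?_)).pow_const _
    exact ((measurable_fderiv ℝ _).norm).const_mul _
  have h3 : ∫⁻ z in osq, (2:ℝ≥0∞) ^ (p - 1) *
      (‖fderiv ℝ (GJ D P P' β J w) z + s • pr j‖ₑ ^ p
      + ENNReal.ofReal (∑ i ∈ JX, |wX i| * ‖fderiv ℝ (fb D P P' β i) z‖) ^ p)
      = (2:ℝ≥0∞) ^ (p - 1) * ∫⁻ z in osq, (‖fderiv ℝ (GJ D P P' β J w) z + s • pr j‖ₑ ^ p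
      + ENNReal.ofReal (∑ i ∈ JX, |wX i| * ‖fderiv ℝ (fb D P P' β i) z‖) ^ p) :=
    lintegral_const_mul _ (m1.add m2)
  rw [h3, lintegral_add_left m1]

end sum

section fin

/-- **THE FACE RULE, `L^p` FORM ON THE UNIT SQUARE** (477's `FaceOut`) -/
theorem face_LP {p : ℝ} (hp : 1 ≤ p) {S : ℝ} (hS : 0 ≤ S) {e : ℝ} (he : 0 < e) :
    ∃ δ : ℝ, 0 < δ ∧ ∀ P P' : Par, 4 * (P.a + P.m * P.H) + 2 * (2 - P.H) ≤ δ →
    ∃ lam : ℝ, 0 < lam ∧ ∃ η : ℝ, 0 < η ∧
    ∀ {ι : Type} {L : Lam (sph 2) ι} {K b : ℝ} {h ρ : ι → ℝ} (D : Dep L K b h ρ) (_ : Disj L)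
      (J JX : Finset ι) (w wX M : ι → ℝ) (β Q : ℝ), 0 < β → β ≤ 1 → 1/4 ≤ b * β →
      Crd L h J w M Q → Crd L h JX wX M Q → Q ≤ S →
      (∃ ℓ : ι → ℝ, (∀ i ∈ JX, 0 ≤ ℓ i) ∧ (∀ i ∈ JX, Ends2 L i (ℓ i)) ∧
        ∑ i ∈ JX, (ℓ i + h i) ≤ η) →
    ∀ (ε : Fin 2 → ℝ) (_ : ∀ i, ε i = 1 ∨ ε i = -1) (F' : (Fin 2 → ℝ) → ℝ),
      (∀ z ∈ osq, ∀ z' ∈ osq,
        |F' (tau ε z') - F' (tau ε z) - (GJ D P P' β J w z' - GJ D P P' β J w z)| ≤
          ∑ i ∈ JX, |wX i| * |fb D P P' β i z' - fb D P P' β i z|) →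
      (∀ κ s' W lam' μ : ℝ, |κ| ≤ 2 * S → |-(κ * ε 1) / 2 - s'| ≤ δ → W ≤ S → μ ≤ δ → lam' ≤ lam →
        IsA D P β J w s' W lam' μ →
        ∫⁻ y in ousq, ‖fderiv ℝ F' y - κ • pr 1‖ₑ ^ p ≤ ENNReal.ofReal e) ∧
      (∀ κ s' W lam' μ : ℝ, |κ| ≤ 2 * S → |-(κ * ε 0) / 2 - s'| ≤ δ → W ≤ S → μ ≤ δ → lam' ≤ lam →
        IsB D P P' β J w s' W lam' μ →
        ∫⁻ y in ousq, ‖fderiv ℝ F' y - κ • pr 0‖ₑ ^ p ≤ ENNReal.ofReal e) ∧
      (J = ∅ → ∀ (κ : ℝ) (j : Fin 2), |κ| ≤ δ →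
        ∫⁻ y in ousq, ‖fderiv ℝ F' y - κ • pr j‖ₑ ^ p ≤ ENNReal.ofReal e) := by
  have hp0 : 0 ≤ p := by linarith
  have hpp : 0 < p := by linarith
  set e1 : ℝ≥0∞ := ENNReal.ofReal e / ((2:ℝ≥0∞) ^ p * ((2:ℝ≥0∞) ^ (p - 1) * 2)) with he1
  have h2p : ∀ q : ℝ, (2:ℝ≥0∞) ^ q ≠ 0 ∧ (2:ℝ≥0∞) ^ q ≠ ⊤ := fun q =>
    ⟨(ENNReal.rpow_pos (by norm_num) (by norm_num)).ne', ENNReal.rpow_ne_top_of_ne_zero
      (by norm_num) (by norm_num)⟩
  have hK0 : (2:ℝ≥0∞) ^ p * ((2:ℝ≥0∞) ^ (p - 1) * 2) ≠ 0 :=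
    mul_ne_zero (h2p p).1 (mul_ne_zero (h2p _).1 (by norm_num))
  have hKt : (2:ℝ≥0∞) ^ p * ((2:ℝ≥0∞) ^ (p - 1) * 2) ≠ ⊤ :=
    ENNReal.mul_ne_top (h2p p).2 (ENNReal.mul_ne_top (h2p _).2 (by norm_num))
  have he1' : e1 ≠ 0 := by
    rw [he1]
    exact ENNReal.div_ne_zero.2 ⟨(ENNReal.ofReal_pos.2 he).ne', hKt⟩
  obtain ⟨δ0, hδ0, hP⟩ := face_lp hp hS he1'
  obtain ⟨δ1, hδ1, hδ11, hδ1e⟩ := exists_small (C := 4) (e := e1) (by norm_num) he1'
  refine ⟨min δ0 δ1, lt_min hδ0 hδ1, fun P P' hPP => ?_⟩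
  obtain ⟨lam, hlam, η, hη, hm⟩ := hP P P' (hPP.trans (min_le_left _ _))
  refine ⟨lam, hlam, η, hη, ?_⟩
  rintro ι L K b h ρ D hdj J JX w wX M β Q hβ0 hβ1 hbβ C CX hQ ⟨ℓ, l1, l2, l3⟩ ε hε F' hF
  obtain ⟨mA, mB, -⟩ := hm D hdj J w M β Q hβ0 hβ1 hbβ C hQ
  obtain ⟨-, -, mX⟩ := hm D hdj JX wX M β Q hβ0 hβ1 hbβ CX hQ
  have hX := mX ℓ l1 l2 l3
  have hfin : ∀ {κ : ℝ} {j : Fin 2},
      ∫⁻ z in osq, ‖fderiv ℝ (GJ D P P' β J w) z + (-(κ * ε j) / 2) • pr j‖ₑ ^ p ≤ e1 →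
      ∫⁻ y in ousq, ‖fderiv ℝ F' y - κ • pr j‖ₑ ^ p ≤ ENNReal.ofReal e := by
    intro κ j h1
    refine (lint_to_unit hε (κ := κ) (j := j) hp0).trans ?_
    refine (mul_le_mul' le_rfl ((lint_add D P P' hβ0 C CX (F := fun z => F' (tau ε z)) hp hF).trans
      (mul_le_mul' le_rfl (add_le_add h1 hX)))).trans ?_
    rw [← two_mul, ← mul_assoc, ← mul_assoc, mul_assoc ((2:ℝ≥0∞) ^ p) _ 2, he1]
    exact (ENNReal.mul_div_cancel hK0 hKt).le
  have hs : ∀ {κ : ℝ} {j : Fin 2}, |κ| ≤ 2 * S → |-(κ * ε j) / 2| ≤ S := by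
    intro κ j hκ
    rw [abs_div, abs_neg, abs_mul, abs_eps hε, mul_one, abs_of_pos (by norm_num : (0:ℝ) < 2)]
    linarith
  refine ⟨?_, ?_, ?_⟩
  · intro κ s' W lam' μ a1 a2 a3 a4 a5 a6
    exact hfin (mA _ s' W lam' μ (hs a1) (a2.trans (min_le_left _ _)) a3
      (a4.trans (min_le_left _ _)) a5 a6)
  · intro κ s' W lam' μ a1 a2 a3 a4 a5 a6
    exact hfin (mB _ s' W lam' μ (hs a1) (a2.trans (min_le_left _ _)) a3
      (a4.trans (min_le_left _ _)) a5 a6)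
  · intro hJ κ j hκ
    subst hJ
    refine hfin ?_
    have h0 : ∀ z, ‖fderiv ℝ (GJ D P P' β ∅ w) z + (-(κ * ε j) / 2) • pr j‖ₑ ^ p
        ≤ ENNReal.ofReal δ1 := by
      intro z
      have e0 : GJ D P P' β ∅ w = fun _ => 0 := by
        funext z; unfold GJ; exact Finset.sum_empty
      have e2 : fderiv ℝ (GJ D P P' β ∅ w) z + (-(κ * ε j) / 2) • pr j
          = (-(κ * ε j) / 2) • pr j := by
        rw [e0, fderiv_fun_const]; simp
      rw [e2, ← ofReal_norm]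
      have h1 : ‖(-(κ * ε j) / 2) • pr j‖ ≤ δ1 := by
        refine (norm_smul_pr _ _).trans ?_
        rw [abs_div, abs_neg, abs_mul, abs_eps hε, mul_one, abs_of_pos (by norm_num : (0:ℝ) < 2)]
        have := hκ.trans (min_le_right _ _)
        linarith [abs_nonneg κ]
      exact (ENNReal.rpow_le_rpow (ENNReal.ofReal_le_ofReal h1) hp0).trans
        (ofReal_rpow_le hp hδ11)
    refine (lintegral_mono fun z => h0 z).trans ?_
    rw [lintegral_const, Measure.restrict_apply_univ, volume_osq, mul_comm]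
    exact hδ1e

end fin

end Crest.Agent.R096.Fsw_928
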