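import Crest.Agent.R096.Fsw21_928

/-!
# R096 (row 96), FACE-SWEEP, part 22: scaling (helper928)
-/

set_option autoImplicit false

open Set Metric Filter Topology MeasureTheory
open scoped ENNReal NNReal Classical

namespace Crest.Agent.R096.Fsw_928

/-- from the normalized function `F / μ` to `F` -/
theorem lint_scale {F : (Fin 2 → ℝ) → ℝ} {μ κ p e : ℝ} {j : Fin 2} (hμ : 0 < μ) (hp : 0 ≤ p)
    (h : ∫⁻ y in ousq, ‖fderiv ℝ (fun y => F y / μ) y - (κ / μ) • pr j‖ₑ ^ p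
      ≤ ENNReal.ofReal e) :
    ∫⁻ y in ousq, ‖fderiv ℝ F y - κ • pr j‖ₑ ^ p ≤ ENNReal.ofReal (e * μ ^ p) := by
  have hF : F = fun y => μ * (F y / μ) := by
    funext y
    field_simp
  have hpt : ∀ y, ‖fderiv ℝ F y - κ • pr j‖ₑ ^ p
      = ENNReal.ofReal (μ ^ p) * ‖fderiv ℝ (fun y => F y / μ) y - (κ / μ) • pr j‖ₑ ^ p := by
    intro y
    have h1 : fderiv ℝ F y = μ • fderiv ℝ (fun y => F y / μ) y := by
      have h0 : F = μ • (fun y => F y / μ) := hF
      conv_lhs => rw [h0]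
      exact congrFun (fderiv_const_smul_field (𝕜 := ℝ) (F := ℝ) (f := fun y => F y / μ) μ) y
    have h2 : fderiv ℝ F y - κ • pr j
        = μ • (fderiv ℝ (fun y => F y / μ) y - (κ / μ) • pr j) := by
      rw [h1, smul_sub, smul_smul, mul_div_cancel₀ _ hμ.ne']
    rw [h2, ← ofReal_norm, ← ofReal_norm, norm_smul, Real.norm_of_nonneg hμ.le,
      ENNReal.ofReal_mul hμ.le, ENNReal.mul_rpow_of_nonneg _ _ hp,
      ENNReal.ofReal_rpow_of_nonneg hμ.le hp]
  have m : Measurable fun y => ‖fderiv ℝ (fun y => F y / μ) y - (κ / μ) • pr j‖ₑ ^ p :=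
    ((measurable_fderiv ℝ _).sub_const _).enorm.pow_const _
  have h3 : ∫⁻ y in ousq, ‖fderiv ℝ F y - κ • pr j‖ₑ ^ p
      = ENNReal.ofReal (μ ^ p) * ∫⁻ y in ousq,
        ‖fderiv ℝ (fun y => F y / μ) y - (κ / μ) • pr j‖ₑ ^ p := by
    rw [← lintegral_const_mul _ m]
    exact lintegral_congr fun y => hpt y
  rw [h3, mul_comm e, ENNReal.ofReal_mul (Real.rpow_nonneg hμ.le _)]
  exact mul_le_mul' le_rfl h

end Crest.Agent.R096.Fsw_928
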