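import Crest.Agent.R096.Fsw22_928
import Crest.Agent.R096.Fk9_522

/-!
# R096 (row 96), FACE-SWEEP, part 23: nearly pure words: the choice of the sweeps, the estimate
(helper928, on helper522's combinatorics)
-/

set_option autoImplicit false
set_option linter.unusedSectionVars false

open Set Metric Filter Topology MeasureTheory
open scoped ENNReal NNReal Classical

namespace Crest.Agent.R096.Fsw_928

open Crest.Agent.R096.Ce_537 Crest.Agent.R096.Bd_416 Crest.Agent.R096.Fk_522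

/-! ### scaling of the classes -/

section scale

variable {ι : Type} {L : Lam (sph 2) ι} {K b : ℝ} {h ρ : ι → ℝ} {D : Dep L K b h ρ} {P P' : Par}
  {β : ℝ} {J : Finset ι} {w : ι → ℝ} {μ : ℝ}

lemma Crd.scale {M : ι → ℝ} {Q : ℝ} (C : Crd L h J w M Q) (hμ : 0 < μ) :
    Crd L h J (fun i => w i / μ) M (Q / μ) where
  M0 := C.M0
  lip := C.lip
  hM := C.hM
  wM i hi := by
    rw [abs_div, abs_of_pos hμ, div_mul_eq_mul_div]
    exact div_le_div_of_nonneg_right (C.wM i hi) hμ.le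

lemma ClA.scale {k : ι → ℝ → ℝ → ℝ} {ym yp : ι → ℝ → ℝ} {Kc ℓ : ι → ℝ} {s' W lam m : ℝ}
    (A : ClA D P β J w k ym yp Kc ℓ s' W lam m) (hμ : 0 < μ) :
    ClA D P β J (fun i => w i / μ) k ym yp Kc ℓ (s' / μ) (W / μ) lam m where
  ch := A.ch
  wH i hi := by rw [A.wH i hi]; ring
  wK i hi := by
    rw [abs_div, abs_of_pos hμ, div_mul_eq_mul_div]
    exact div_le_div_of_nonneg_right (A.wK i hi) hμ.le
  sW := by
    rw [abs_div, abs_of_pos hμ]
    exact div_le_div_of_nonneg_right A.sW hμ.le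
  y := A.y
  lam0 := A.lam0
  l0 := A.l0
  sum := A.sum
  full := A.full

lemma ClB.scale {x ℓ : ι → ℝ} {kb kt : ι → ℝ → ℝ} {ym yp : ι → ℝ → ℝ} {Kc ℓ' : ι → ℝ}
    {s' W lam m : ℝ} (B : ClB D P P' β J w x ℓ kb kt ym yp Kc ℓ' s' W lam m) (hμ : 0 < μ) :
    ClB D P P' β J (fun i => w i / μ) x ℓ kb kt ym yp Kc ℓ' (s' / μ) (W / μ) lam m where
  ch := B.ch
  kb_eq := B.kb_eq
  lpos := B.lpos
  wH i hi := by rw [B.wH i hi]; ring
  wK i hi := by
    rw [abs_div, abs_of_pos hμ, div_mul_eq_mul_div]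
    exact div_le_div_of_nonneg_right (B.wK i hi) hμ.le
  wR i hi := by
    rw [abs_div, abs_of_pos hμ, div_mul_eq_mul_div]
    exact div_le_div_of_nonneg_right (B.wR i hi) hμ.le
  sW := by
    rw [abs_div, abs_of_pos hμ]
    exact div_le_div_of_nonneg_right B.sW hμ.le
  sep := B.sep
  inn := B.inn
  y := B.y
  lam0 := B.lam0
  l0 := B.l0
  sum := B.sum
  full := B.full

end scale

/-! ### the two sweeps -/

/-- the first sweep -/
noncomputable def P1 (δ : ℝ) (h0 : 0 < δ) (h1 : δ ≤ 1) : Par where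
  a := δ / 8
  m := δ / 16
  H := 2 - δ / 2
  a0 := by positivity
  m0 := by positivity
  H0 := by linarith
  aH := by linarith
  am := by nlinarith

/-- the second sweep -/
noncomputable def P2 (δ : ℝ) (h0 : 0 < δ) (h1 : δ ≤ 1) : Par where
  a := δ / 16
  m := δ / 16
  H := 2 - δ / 8
  a0 := by positivity
  m0 := by positivity
  H0 := by linarith
  aH := by linarith
  am := by nlinarith

section pure

/-- constants of a nearly pure face -/
lemma slope_aux {Λ μ ν α β' κ s ε η δ θ : ℝ} (hμ : 0 < μ) (hν : 0 < ν) (hα : 0 < α)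
    (h1 : 1 / α ≤ Λ * μ) (hd : |1 / α - 1 / ν| ≤ η * (Λ * μ)) (hβ : 1 - η ≤ 2 * β')
    (hβ1 : 2 * β' ≤ 1) (hη : η ≤ 1/2) (hη0 : 0 ≤ η) (hs : |s| = 1) (hε : |ε| = 1)
    (hεε : ε * ε = 1) (hκ : |κ + ε * s * (2 / ν)| ≤ θ * μ) (hΛ : 1 ≤ Λ)
    (hδ : 4 * Λ * η ≤ δ) (hθ : 2 * θ ≤ δ) :
    |-(κ / μ * ε) / 2 - s / (2 * β' * α) / μ| ≤ δ := by
  have hb : 0 < 2 * β' := by linarith
  have e : -(κ / μ * ε) / 2 - s / (2 * β' * α) / μ
      = (-(ε * (κ + ε * s * (2 / ν))) / 2 - s * (1 / α - 1 / ν)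
        - s * ((1 / (2 * β') - 1) * (1 / α))) / μ := by
    have h2 : ε * (ε * s * (2 / ν)) = s * (2 / ν) := by
      have : ε * (ε * s * (2 / ν)) = (ε * ε) * (s * (2 / ν)) := by ring
      rw [this, hεε, one_mul]
    have h3 : ε * (κ + ε * s * (2 / ν)) = ε * κ + s * (2 / ν) := by rw [mul_add, h2]
    rw [h3]
    field_simp
    ring
  rw [e, abs_div, abs_of_pos hμ, div_le_iff₀ hμ]
  have t1 : |-(ε * (κ + ε * s * (2 / ν))) / 2| ≤ θ * μ / 2 := by
    rw [abs_div, abs_neg, abs_mul, hε, one_mul, abs_of_pos (by norm_num : (0:ℝ) < 2)]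
    linarith
  have t2 : |s * (1 / α - 1 / ν)| ≤ η * (Λ * μ) := by
    rw [abs_mul, hs, one_mul]; exact hd
  have t3 : |s * ((1 / (2 * β') - 1) * (1 / α))| ≤ 2 * η * (Λ * μ) := by
    rw [abs_mul, hs, one_mul, abs_mul, abs_of_pos (one_div_pos.2 hα)]
    have t4 : |1 / (2 * β') - 1| ≤ 2 * η := by
      have h5 : 0 ≤ 1 / (2 * β') - 1 := by
        rw [sub_nonneg, le_div_iff₀ hb]; linarith
      rw [abs_of_nonneg h5, sub_le_iff_le_add, div_le_iff₀ hb]
      nlinarith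
    exact mul_le_mul t4 h1 (one_div_pos.2 hα).le (by positivity)
  have t5 : |(-(ε * (κ + ε * s * (2 / ν))) / 2 - s * (1 / α - 1 / ν)
        - s * ((1 / (2 * β') - 1) * (1 / α)))| ≤ θ * μ / 2 + η * (Λ * μ) + 2 * η * (Λ * μ) := by
    refine (abs_sub _ _).trans (add_le_add ((abs_sub _ _).trans (add_le_add t1 t2)) t3)
  refine t5.trans ?_
  have hημ : 0 ≤ η * μ := mul_nonneg hη0 hμ.le
  have h6 : η * μ * 1 ≤ η * μ * Λ := mul_le_mul_of_nonneg_left hΛ hημ
  have h7 : 4 * Λ * η * μ ≤ δ * μ := mul_le_mul_of_nonneg_right hδ hμ.le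
  have h8 : 2 * θ * μ ≤ δ * μ := mul_le_mul_of_nonneg_right hθ hμ.le
  linarith

lemma full_auxB {η t β' δ' : ℝ} (hη : 0 ≤ η) (ht : 0 ≤ t) (ht2 : t ≤ 2) (hβ : 1 - η ≤ 2 * β')
    (h : 2 - t + 2 * η ≤ δ') : 2 - 2 * β' * t ≤ δ' := by
  have h1 : (1 - η) * t ≤ 2 * β' * t := mul_le_mul_of_nonneg_right hβ ht
  have h2 : η * t ≤ η * 2 := mul_le_mul_of_nonneg_left ht2 hη
  have e : (1 - η) * t = t - η * t := by ring
  linarith

lemma full_auxA {η t β' δ' : ℝ} (hη : 0 ≤ η) (hη2 : η ≤ 1/2) (ht : 0 ≤ t) (ht2 : t ≤ 2)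
    (hβ : 1 - η ≤ 2 * β') (h : 2 - t + 4 * η ≤ δ') : 2 - 2 * β' * ((1 - η) * t) ≤ δ' := by
  have h2 : η * t ≤ η * 2 := mul_le_mul_of_nonneg_left ht2 hη
  have e : (1 - η) * t = t - η * t := by ring
  have h3 : 0 ≤ η * t := mul_nonneg hη ht
  exact full_auxB hη (by rw [e]; nlinarith) (by linarith) hβ (by linarith)

set_option maxHeartbeats 1000000 in
/-- **THE FACE RULE FOR NEARLY PURE WORDS** -/
theorem pure_LP {p : ℝ} (hp : 1 ≤ p) {Λ : ℝ} (hΛ : 1 ≤ Λ) {e : ℝ} (he : 0 < e) :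
    ∃ δ0 : ℝ, 0 < δ0 ∧ δ0 ≤ 1/4 ∧ ∀ δ, 0 < δ → δ ≤ δ0 → ∃ P P' : Par, ∃ η0 : ℝ, 0 < η0 ∧ η0 ≤ δ / 56 ∧
    ∀ η, 0 ≤ η → η ≤ η0 →
    (∀ {ι : Type} [Fintype ι] {L : Lam (sph 2) ι} {W : Bw L} {wt : ι → ℝ} {ν : Fin 4 → ℝ}
      {FA FB : Prop} {MA MB : Finset ι} (_ : Pure W wt ν FA FB δ η MA MB) {K b : ℝ} (_ : Cst K b)
      (k0 : ι → ℕ) (_ : Function.Injective k0) (Rl : ι → ι → Prop)
      (_ : ∀ x x', Rl x x' → Bw.Inc L x x') (_ : ∀ x x', Rl x x' → k0 x' < k0 x),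
      Nonempty (Bw.Dpt W P P' K b (lg W wt ν) Rl (6 * η) (6 * η))) ∧
    (∀ {ι : Type} [Fintype ι] {L : Lam (sph 2) ι} {W : Bw L} {wt : ι → ℝ} {ν : Fin 4 → ℝ}
      {FA FB : Prop} {MA MB : Finset ι} (_ : Pure W wt ν FA FB δ η MA MB) {K b : ℝ}
      {Rl : ι → ι → Prop} (T : Bw.Dpt W P P' K b (lg W wt ν) Rl (6 * η) (6 * η))
      (β μ : ℝ), 0 < β → β ≤ 1 → 1 - η ≤ 2 * (b * β) → 0 < μ → 1 / αX ν ≤ Λ * μ →
      ∀ (JX : Finset ι), (∀ x ∈ JX, x ∉ MA ∧ x ∉ MB) → ∀ (w wX : ι → ℝ),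
      (∀ x ∈ JX, |wX x| ≤ wt x) → ∀ (ε : Fin 2 → ℝ), (∀ i, ε i = 1 ∨ ε i = -1) →
      ∀ (F' : (Fin 2 → ℝ) → ℝ) (κ s : ℝ), |s| = 1 →
      ((∀ x ∈ MA, w x = s * wt x) →
        (∀ z ∈ osq, ∀ z' ∈ osq,
          |F' (tau ε z') - F' (tau ε z) - (GJ T.D P P' β MA w z' - GJ T.D P P' β MA w z)| ≤
            ∑ i ∈ JX, |wX i| * |fb T.D P P' β i z' - fb T.D P P' β i z|) →
        (FA → |κ + ε 1 * s * (2 / ν 2)| ≤ 6 * δ * μ) → (¬ FA → |κ| ≤ 6 * δ * μ) →
        ∫⁻ y in ousq, ‖fderiv ℝ F' y - κ • pr 1‖ₑ ^ p ≤ ENNReal.ofReal (e * μ ^ p)) ∧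
      ((∀ x ∈ MB, w x = s * wt x) →
        (∀ z ∈ osq, ∀ z' ∈ osq,
          |F' (tau ε z') - F' (tau ε z) - (GJ T.D P P' β MB w z' - GJ T.D P P' β MB w z)| ≤
            ∑ i ∈ JX, |wX i| * |fb T.D P P' β i z' - fb T.D P P' β i z|) →
        (FB → |κ + ε 0 * s * (2 / ν 0)| ≤ 6 * δ * μ) → (¬ FB → |κ| ≤ 6 * δ * μ) →
        ∫⁻ y in ousq, ‖fderiv ℝ F' y - κ • pr 0‖ₑ ^ p ≤ ENNReal.ofReal (e * μ ^ p))) := by
  have hp0 : 0 ≤ p := by linarith
  have hS : (0:ℝ) ≤ 16 * Λ := by linarith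
  obtain ⟨δL, hδL, hPP⟩ := face_LP hp hS he
  refine ⟨min (1/4) (δL / 12), lt_min (by norm_num) (by positivity), min_le_left _ _,
    fun δ hδ hδ0 => ?_⟩
  have hδ14 : δ ≤ 1/4 := hδ0.trans (min_le_left _ _)
  have hδ1 : δ ≤ 1 := by linarith
  have hδ12 : δ ≤ δL / 12 := hδ0.trans (min_le_right _ _)
  have hδ4 : δ ≤ δL / 4 := hδ12.trans (by linarith)
  set P : Par := P1 δ hδ hδ1
  set P' : Par := P2 δ hδ hδ1
  have ea : P.a = δ / 8 := rfl
  have em : P.m = δ / 16 := rfl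
  have eH : P.H = 2 - δ / 2 := rfl
  have ea' : P'.a = δ / 16 := rfl
  have eH' : P'.H = 2 - δ / 8 := rfl
  have hmH : P.m * P.H ≤ δ / 8 := by rw [em, eH]; nlinarith
  obtain ⟨lam, hlam, η1, hη1, hm⟩ := hPP P P' (by rw [ea, eH] at *; linarith)
  set η0 : ℝ := min (min (1/2) (δ / 56)) (min (min (lam / 16) (η1 / 8))
    (min (δL / 12) (δL / (4 * Λ))))
  have q1 : η0 ≤ 1/2 := (min_le_left _ _).trans (min_le_left _ _)
  have q2 : η0 ≤ δ / 56 := (min_le_left _ _).trans (min_le_right _ _)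
  have q3 : η0 ≤ lam / 16 := (min_le_right _ _).trans ((min_le_left _ _).trans (min_le_left _ _))
  have q4 : η0 ≤ η1 / 8 := (min_le_right _ _).trans ((min_le_left _ _).trans (min_le_right _ _))
  have q5 : η0 ≤ δL / 12 := (min_le_right _ _).trans ((min_le_right _ _).trans (min_le_left _ _))
  have q6 : η0 ≤ δL / (4 * Λ) :=
    (min_le_right _ _).trans ((min_le_right _ _).trans (min_le_right _ _))
  refine ⟨P, P', η0, ?_, q2, fun η hη hηη => ⟨?_, ?_⟩⟩
  · refine lt_min (lt_min (by norm_num) (by positivity)) (lt_min (lt_min (by positivity)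
      (by positivity)) (lt_min (by positivity) (by positivity)))
  · -- depths
    intro ι _ L W wt ν FA FB MA MB H K b hC k0 hk Rl hR1 hR2
    refine H.exists_dpt P P' (ε := δ / 2) hC k0 hk Rl hR1 hR2 hη ?_ ?_ ?_ ?_ ?_ ?_
    · rw [eH]; nlinarith
    · rw [ea]; linarith
    · linarith
    · linarith
    · rw [eH]; linarith
    · rw [ea, eH']
      have h8 : 0 < 1 - δ / 8 := by linarith
      have h9 : (1 - δ) / (1 - δ / 8) ≤ 1 - 7 * δ / 8 := by
        rw [div_le_iff₀ h8]; nlinarith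
      linarith
  · -- estimates
    intro ι _ L W wt ν FA FB MA MB H K b Rl T β μ hβ0 hβ1 hbβ hμ hαX JX hJX w wX hwX ε hε F' κ s hs
    have hb := mul_pos T.D.cst.b0 hβ0
    have hb2 : b * β ≤ 1/2 :=
      (mul_le_of_le_one_right T.D.cst.b0.le hβ1).trans T.D.cst.b2.le
    have hb4 : 1/4 ≤ b * β := by linarith
    have hαX0 := H.αX0
    have hαA0 := H.αA0
    have hαB0 := H.αB0
    have iA : 1 / αA ν ≤ Λ * μ :=
      (one_div_le_one_div_of_le hαX0 (min_le_left _ _)).trans hαX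
    have iB : 1 / αB ν ≤ Λ * μ :=
      (one_div_le_one_div_of_le hαX0 (min_le_right _ _)).trans hαX
    have iν : ∀ t, 1 / ν t ≤ Λ * μ := fun t =>
      (one_div_le_one_div_of_le hαX0 (αX_le ν t)).trans hαX
    have hdj : Disj L := W.disj
    have hQ : 16 / αX ν / μ ≤ 16 * Λ := by
      rw [div_le_iff₀ hμ]
      have : 16 / αX ν = 16 * (1 / αX ν) := by ring
      rw [this]; linarith
    have hX : ∃ ℓ : ι → ℝ, (∀ i ∈ JX, 0 ≤ ℓ i) ∧ (∀ i ∈ JX, Ends2 L i (ℓ i)) ∧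
        ∑ i ∈ JX, (ℓ i + T.h i) ≤ η1 := by
      refine ⟨W.tot, fun i _ => ?_, fun i _ => Bw.ends2 H.two i, ?_⟩
      · exact (H.lg_pos i).le.trans (H.lg_tot i)
      · refine (H.sumX T ?_ ?_ hJX).trans ?_
        · rw [eH]; linarith
        · rw [eH']; linarith
        · linarith
    have hFs : ∀ {J : Finset ι}, (∀ z ∈ osq, ∀ z' ∈ osq,
          |F' (tau ε z') - F' (tau ε z) - (GJ T.D P P' β J w z' - GJ T.D P P' β J w z)| ≤
            ∑ i ∈ JX, |wX i| * |fb T.D P P' β i z' - fb T.D P P' β i z|) →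
        (∀ z ∈ osq, ∀ z' ∈ osq,
          |F' (tau ε z') / μ - F' (tau ε z) / μ - (GJ T.D P P' β J (fun i => w i / μ) z'
            - GJ T.D P P' β J (fun i => w i / μ) z)| ≤
            ∑ i ∈ JX, |wX i / μ| * |fb T.D P P' β i z' - fb T.D P P' β i z|) := by
      intro J hF z hz z' hz'
      have hG : ∀ v, GJ T.D P P' β J (fun i => w i / μ) v = GJ T.D P P' β J w v / μ := by
        intro v; unfold GJ
        rw [Finset.sum_div]
        exact Finset.sum_congr rfl fun i _ => by ring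
      rw [hG, hG, ← sub_div, ← sub_div, ← sub_div, abs_div, abs_of_pos hμ, div_le_iff₀ hμ]
      refine (hF z hz z' hz').trans (le_of_eq ?_)
      rw [Finset.sum_mul]
      refine Finset.sum_congr rfl fun i _ => ?_
      rw [abs_div, abs_of_pos hμ]
      field_simp
    have hκb : ∀ {κ' : ℝ}, |κ'| ≤ 2 * (Λ * μ) + 6 * δ * μ → |κ' / μ| ≤ 2 * (16 * Λ) := by
      intro κ' h
      rw [abs_div, abs_of_pos hμ, div_le_iff₀ hμ]
      have h1 : 6 * δ * μ ≤ 2 * μ := mul_le_mul_of_nonneg_right (by linarith) hμ.le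
      have h2 : 1 * μ ≤ Λ * μ := mul_le_mul_of_nonneg_right hΛ hμ.le
      have h3 : 0 ≤ Λ * μ := by positivity
      linarith
    have hκe : ∀ {j : Fin 2} {t : Fin 4}, |κ + ε j * s * (2 / ν t)| ≤ 6 * δ * μ →
        |κ| ≤ 2 * (Λ * μ) + 6 * δ * μ := by
      intro j t h
      have h1 : |κ| ≤ |κ + ε j * s * (2 / ν t)| + |ε j * s * (2 / ν t)| := by
        have := abs_sub (κ + ε j * s * (2 / ν t)) (ε j * s * (2 / ν t))
        rwa [add_sub_cancel_right] at this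
      have h2 : |ε j * s * (2 / ν t)| ≤ 2 * (Λ * μ) := by
        rw [abs_mul, abs_mul, abs_eps hε, hs, one_mul, one_mul, abs_of_pos (div_pos two_pos (H.ν0 t))]
        have h3 := iν t
        have : 2 / ν t = 2 * (1 / ν t) := by ring
        rw [this]; linarith
      linarith
    have hδη : 4 * Λ * η ≤ δL := by
      have h1 := hηη.trans q6
      rw [le_div_iff₀ (by positivity)] at h1
      linarith
    have hη2 : η ≤ 1/2 := hηη.trans q1
    have hzero : ∀ {J : Finset ι} {j : Fin 2}, J = ∅ → (∀ z ∈ osq, ∀ z' ∈ osq,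
          |F' (tau ε z') - F' (tau ε z) - (GJ T.D P P' β J w z' - GJ T.D P P' β J w z)| ≤
            ∑ i ∈ JX, |wX i| * |fb T.D P P' β i z' - fb T.D P P' β i z|) → |κ| ≤ 6 * δ * μ →
        ∫⁻ y in ousq, ‖fderiv ℝ F' y - κ • pr j‖ₑ ^ p ≤ ENNReal.ofReal (e * μ ^ p) := by
      intro J j hJ hF hκ
      have hm' := hm T.D hdj J JX (fun i => w i / μ) (fun i => wX i / μ)
        (fun x => 16 / (αX ν * wt x)) β (16 / αX ν / μ) hβ0 hβ1 hb4
        (by subst hJ; exact ⟨by simp, by simp, by simp, by simp⟩)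
        ((H.crd T JX hwX).scale hμ) hQ hX ε hε (fun y => F' y / μ) (hFs hF)
      refine lint_scale hμ hp0 (hm'.2.2 hJ (κ / μ) j ?_)
      rw [abs_div, abs_of_pos hμ, div_le_iff₀ hμ]
      refine hκ.trans (mul_le_mul_of_nonneg_right ?_ hμ.le)
      linarith
    refine ⟨fun hw hF hκ1 hκ0 => ?_, fun hw hF hκ1 hκ0 => ?_⟩
    · by_cases hFA : FA
      swap
      · exact hzero (H.eA hFA) hF (hκ0 hFA)
      have hκ := hκ1 hFA
      have hwA : ∀ x ∈ MA, |w x| ≤ wt x := fun x hx => by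
        rw [hw x hx, abs_mul, hs, one_mul, abs_of_pos (H.wt0 x)]
      have hm' := hm T.D hdj MA JX (fun i => w i / μ) (fun i => wX i / μ)
        (fun x => 16 / (αX ν * wt x)) β (16 / αX ν / μ) hβ0 hβ1 hb4
        ((H.crd T MA hwA).scale hμ) ((H.crd T JX hwX).scale hμ) hQ hX ε hε
        (fun y => F' y / μ) (hFs hF)
      have hcl := (H.clA' T (by rw [ea]; linarith) hδ1 hη (by linarith) (by rw [eH]; linarith)
        hβ0 hFA hs hw).scale hμ
      refine lint_scale hμ hp0 (hm'.1 (κ / μ) _ _ _ _ (hκb (hκe hκ)) ?_ ?_ ?_ ?_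
        ⟨_, _, _, _, _, hcl⟩)
      · refine slope_aux hμ (H.ν0 2) hαA0 iA ?_ hbβ (by linarith) hη2 hη hs (abs_eps hε 1)
          (eps_sq hε 1) hκ hΛ hδη (by linarith)
        obtain ⟨g1, g2⟩ := H.νA hFA
        have h2 := H.ν0 2
        have h3 := H.ν0 3
        have hle : αA ν ≤ ν 2 := min_le_left _ _
        have e1 : 1 / αA ν - 1 / ν 2 = (ν 2 - αA ν) / ν 2 * (1 / αA ν) := by
          field_simp
        have e2 : ν 2 - αA ν ≤ η * ν 2 := by
          have : ν 2 - η * ν 2 ≤ αA ν := by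
            refine le_min ?_ ?_
            · nlinarith
            · linarith [(abs_le.1 g1).2]
          linarith
        rw [e1, abs_of_nonneg (mul_nonneg (div_nonneg (by linarith) h2.le)
          (one_div_pos.2 hαA0).le)]
        exact mul_le_mul ((div_le_iff₀ h2).2 e2) iA (one_div_pos.2 hαA0).le hη
      · rw [div_le_iff₀ hμ]
        have e3 : 1 / (2 * (b * β) * αA ν) = 1 / (2 * (b * β)) * (1 / αA ν) := by field_simp
        rw [e3]
        have e4 : 1 / (2 * (b * β)) ≤ 2 := by rw [div_le_iff₀ (by linarith)]; linarith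
        have e5 := mul_le_mul e4 iA (one_div_pos.2 hαA0).le (by norm_num)
        have e6 : 0 ≤ Λ * μ := by positivity
        linarith
      · have hη12 : η ≤ δL / 12 := hηη.trans q5
        exact full_auxA hη hη2 (by linarith) (by linarith) hbβ (by linarith)
      · linarith
    · by_cases hFB : FB
      swap
      · exact hzero (H.eB hFB) hF (hκ0 hFB)
      have hκ := hκ1 hFB
      have hwB : ∀ x ∈ MB, |w x| ≤ wt x := fun x hx => by
        rw [hw x hx, abs_mul, hs, one_mul, abs_of_pos (H.wt0 x)]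
      have hm' := hm T.D hdj MB JX (fun i => w i / μ) (fun i => wX i / μ)
        (fun x => 16 / (αX ν * wt x)) β (16 / αX ν / μ) hβ0 hβ1 hb4
        ((H.crd T MB hwB).scale hμ) ((H.crd T JX hwX).scale hμ) hQ hX ε hε
        (fun y => F' y / μ) (hFs hF)
      have hcl := (H.clB' T (by rw [ea]; linarith) (by rw [ea, ea']; linarith) hδ1 hη
        (by rw [eH']; linarith) hβ0 hFB hs hw).scale hμ
      refine lint_scale hμ hp0 (hm'.2.1 (κ / μ) _ _ _ _ (hκb (hκe hκ)) ?_ ?_ ?_ ?_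
        ⟨_, _, _, _, _, _, _, _, hcl⟩)
      · refine slope_aux hμ (H.ν0 0) (H.ν0 0) (iν 0) ?_ hbβ (by linarith) hη2 hη hs (abs_eps hε 0)
          (eps_sq hε 0) hκ hΛ hδη (by linarith)
        rw [sub_self, abs_zero]
        positivity
      · rw [div_le_iff₀ hμ]
        have ha78 : 7/8 ≤ 1 - P.a := by rw [ea]; linarith
        have e3 : 1 / (2 * (b * β) * αB ν * (1 - P.a))
            = 1 / (2 * (b * β)) * (1 / αB ν) * (1 / (1 - P.a)) := by
          have : (1 - P.a) ≠ 0 := by linarith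
          field_simp
        rw [e3]
        have e4 : 1 / (2 * (b * β)) ≤ 2 := by rw [div_le_iff₀ (by linarith)]; linarith
        have e5 := mul_le_mul e4 iB (one_div_pos.2 hαB0).le (by norm_num)
        have e6 : 0 ≤ Λ * μ := by positivity
        have e7 : 1 / (1 - P.a) ≤ 2 := by rw [div_le_iff₀ (by linarith)]; linarith
        have e8 := mul_le_mul e5 e7 (by
          exact (one_div_pos.2 (by linarith)).le) (by positivity)
        linarith
      · have hη12 : η ≤ δL / 12 := hηη.trans q5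
        exact full_auxB hη (by linarith) (by linarith) hbβ (by linarith)
      · linarith

end pure

end Crest.Agent.R096.Fsw_928
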