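import Crest.Agent.R096.Fsw24_928
import Crest.Agent.R096.SkN1_477

/-!
# R096 (row 96), FACE-SWEEP, part 25: the affine chart of a designated face (helper928)
-/

set_option autoImplicit false
set_option linter.unusedSectionVars false

open Set Metric Filter Topology MeasureTheory

namespace Crest.Agent.R096.Fsw_928

open Crest.Agent.R096.Ce_537 Crest.Agent.R096.SkN1_477
open Crest.Agent.R096.SkC1_961 (E3)

/-- `tau ε` as an affine map -/
noncomputable def tauA (ε : Fin 2 → ℝ) : (Fin 2 → ℝ) →ᵃ[ℝ] (Fin 2 → ℝ) where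
  toFun := tau ε
  linear := LinearMap.pi fun i => (ε i / 2) • LinearMap.proj i
  map_vadd' z v := by
    ext i
    simp only [tau, vadd_eq_add, Pi.add_apply, LinearMap.pi_apply, LinearMap.smul_apply,
      LinearMap.proj_apply, smul_eq_mul]
    ring

/-- `utau ε` as an affine map -/
noncomputable def utauA (ε : Fin 2 → ℝ) : (Fin 2 → ℝ) →ᵃ[ℝ] (Fin 2 → ℝ) where
  toFun := utau ε
  linear := LinearMap.pi fun i => (2 * ε i) • LinearMap.proj i
  map_vadd' z v := by
    ext i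
    simp only [utau, vadd_eq_add, Pi.add_apply, LinearMap.pi_apply, LinearMap.smul_apply,
      LinearMap.proj_apply, smul_eq_mul]
    ring

/-- `emb` as an affine map -/
noncomputable def embA : (Fin 2 → ℝ) →ᵃ[ℝ] E3 :=
  (LinearMap.pi ![LinearMap.proj (R := ℝ) (φ := fun _ : Fin 2 => ℝ) 0,
    LinearMap.proj (R := ℝ) (φ := fun _ : Fin 2 => ℝ) 1, 0]).toAffineMap

lemma embA_apply (y : Fin 2 → ℝ) : embA y = emb y := by
  funext i
  fin_cases i <;> rfl

/-- the projection to the plane -/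
def qmb (x : E3) : Fin 2 → ℝ := fun i => x i.castSucc

lemma qmb_emb (y : Fin 2 → ℝ) : qmb (emb y) = y := by
  funext i
  fin_cases i <;> rfl

/-- `qmb` as an affine map -/
noncomputable def qmbA : E3 →ᵃ[ℝ] (Fin 2 → ℝ) :=
  (LinearMap.pi fun i : Fin 2 => LinearMap.proj (R := ℝ) (φ := fun _ : Fin 3 => ℝ)
    i.castSucc).toAffineMap

lemma qmbA_apply (x : E3) : qmbA x = qmb x := rfl

/-- the chart `z ↦ B⁻¹ (emb (tau ε z))` as an affine map -/
noncomputable def chA (B : E3 ≃ᵃ[ℝ] E3) (ε : Fin 2 → ℝ) : (Fin 2 → ℝ) →ᵃ[ℝ] E3 :=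
  (B.symm : E3 →ᵃ[ℝ] E3).comp (embA.comp (tauA ε))

lemma chA_apply (B : E3 ≃ᵃ[ℝ] E3) (ε z : Fin 2 → ℝ) : chA B ε z = B.symm (emb (tau ε z)) := by
  show B.symm (embA (tau ε z)) = _
  rw [embA_apply]

/-- its inverse on the plane of the face -/
noncomputable def chB (B : E3 ≃ᵃ[ℝ] E3) (ε : Fin 2 → ℝ) : E3 →ᵃ[ℝ] (Fin 2 → ℝ) :=
  (utauA ε).comp (qmbA.comp (B : E3 →ᵃ[ℝ] E3))

lemma chB_apply (B : E3 ≃ᵃ[ℝ] E3) (ε : Fin 2 → ℝ) (x : E3) : chB B ε x = utau ε (qmb (B x)) := rfl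

section chart

variable {ε : Fin 2 → ℝ} (hε : ∀ i, ε i = 1 ∨ ε i = -1) (B : E3 ≃ᵃ[ℝ] E3)

lemma mem_cube2' {z : Fin 2 → ℝ} : z ∈ cube 2 ↔ ∀ i, |z i| ≤ 1 := by
  rw [mem_closedBall_zero_iff, pi_norm_le_iff_of_nonneg zero_le_one]
  rfl

include hε

lemma tau_mem {z : Fin 2 → ℝ} (hz : z ∈ cube 2) (j : Fin 2) : 0 ≤ tau ε z j ∧ tau ε z j ≤ 1 := by
  have h := abs_le.1 (mem_cube2'.1 hz j)
  unfold tau
  rcases hε j with h1 | h1 <;> rw [h1] <;> constructor <;> linarith

lemma utau_mem' {y : Fin 2 → ℝ} (hy : ∀ j, 0 ≤ y j ∧ y j ≤ 1) : utau ε y ∈ cube 2 := by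
  rw [mem_cube2']
  intro j
  have h := hy j
  unfold utau
  rw [abs_mul, abs_eps hε, one_mul, abs_le]
  constructor <;> linarith

omit hε in
lemma apply_chA (z : Fin 2 → ℝ) : B (chA B ε z) = emb (tau ε z) := by
  rw [chA_apply, B.apply_symm_apply]

lemma chB_chA (z : Fin 2 → ℝ) : chB B ε (chA B ε z) = z := by
  rw [chB_apply, apply_chA, qmb_emb, utau_tau hε]

lemma chA_chB {x : E3} (hx : x ∈ usq B) : chA B ε (chB B ε x) = x := by
  obtain ⟨y, -, hy⟩ := hx
  rw [chB_apply, chA_apply, ← hy, qmb_emb, tau_utau hε, hy, B.symm_apply_apply]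

lemma chA_mem {z : Fin 2 → ℝ} (hz : z ∈ cube 2) : chA B ε z ∈ usq B := by
  refine mem_preimage.2 ?_
  rw [apply_chA]
  exact ⟨_, fun j => tau_mem hε hz j, rfl⟩

lemma chB_mem {x : E3} (hx : x ∈ usq B) : chB B ε x ∈ cube 2 := by
  obtain ⟨y, hy, hyx⟩ := hx
  rw [chB_apply, ← hyx, qmb_emb]
  exact utau_mem' hε hy

/-- **the chart of a designated face** -/
noncomputable def chU : PLEquiv (cube 2) (usq B) where
  f := fun z => chA B ε z
  g := fun x => chB B ε x
  pf := plOn_affine _ _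
  pg := plOn_affine _ _
  mf := fun _ hz => chA_mem hε B hz
  mg := fun _ hx => chB_mem hε B hx
  li := fun z _ => chB_chA hε B z
  ri := fun _ hx => chA_chB hε B hx

lemma chU_f (z : Fin 2 → ℝ) : (chU hε B).f z = B.symm (emb (tau ε z)) := chA_apply B ε z

lemma chU_g (x : E3) : (chU hε B).g x = utau ε (qmb (B x)) := rfl

/-- the boundary of the square -/
lemma chU_sph : (chU hε B).f '' sph 2 =
    {x | ∃ j : Fin 2, ∃ b : ℝ, (b = 0 ∨ b = 1) ∧ x ∈ side B j b} := by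
  have h01 : ∀ j : Fin 2, 1 - (1 - j) = j := by decide
  ext x
  constructor
  · rintro ⟨z, hz, rfl⟩
    have hzc : z ∈ cube 2 := sphere_subset_closedBall hz
    have h1 : ∃ i, |z i| = 1 := by
      have hz1 : ‖z‖ = 1 := mem_sphere_zero_iff_norm.1 hz
      obtain ⟨i, hi⟩ := exists_coord (x := z) (by rintro rfl; simp at hz1)
      exact ⟨i, by rw [← hi, hz1]⟩
    obtain ⟨i, hi⟩ := h1
    have hB : B ((chU hε B).f z) = emb (tau ε z) := apply_chA B z
    refine ⟨1 - i, tau ε z i, ?_, ?_⟩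
    · unfold tau
      rcases hε i with h2 | h2 <;> rcases (abs_eq zero_le_one).1 hi with h3 | h3 <;>
        rw [h2, h3] <;> norm_num
    · refine mem_preimage.2 ?_
      rw [hB]
      refine ⟨_, ⟨(tau_mem hε hzc _).1, (tau_mem hε hzc _).2, ?_⟩, rfl⟩
      rw [h01]
  · rintro ⟨j, b, hb, y, ⟨h1, h2, h3⟩, hy⟩
    have hyc : ∀ i, 0 ≤ y i ∧ y i ≤ 1 := by
      intro i
      by_cases hij : i = j
      · rw [hij]; exact ⟨h1, h2⟩
      · have h4 : ∀ i j : Fin 2, i ≠ j → i = 1 - j := by decide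
        rw [h4 i j hij, h3]
        rcases hb with rfl | rfl <;> norm_num
    refine ⟨utau ε y, ?_, ?_⟩
    · rw [mem_sphere_zero_iff_norm]
      refine le_antisymm (mem_closedBall_zero_iff.1 (utau_mem' hε hyc)) ?_
      refine le_trans ?_ (norm_le_pi_norm (utau ε y) (1 - j))
      rw [Real.norm_eq_abs]
      unfold utau
      rw [abs_mul, abs_eps hε, one_mul, h3]
      rcases hb with rfl | rfl <;> norm_num
    · rw [chU_f, tau_utau hε, hy, B.symm_apply_apply]

/-- the side `s` of the model square, in the frame: direction and height -/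
lemma chU_sd (s : Fin 4) :
    (chU hε B).f '' (sd s '' Icc (-1) 1) =
      side B (if s = 0 ∨ s = 1 then 0 else 1)
        (if s = 0 then (1 - ε 1) / 2 else if s = 1 then (1 + ε 1) / 2 else
          if s = 2 then (1 - ε 0) / 2 else (1 + ε 0) / 2) := by
  ext x
  constructor
  · rintro ⟨_, ⟨t, ht, rfl⟩, rfl⟩
    have hB : B ((chU hε B).f (sd s t)) = emb (tau ε (sd s t)) := apply_chA B _
    refine mem_preimage.2 ?_
    rw [hB]
    refine ⟨_, ⟨?_, ?_, ?_⟩, rfl⟩
    · exact (tau_mem hε (sphere_subset_closedBall (sd_mem s (abs_le.2 ht))) _).1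
    · exact (tau_mem hε (sphere_subset_closedBall (sd_mem s (abs_le.2 ht))) _).2
    · fin_cases s <;> simp [tau, sd] <;> ring
  · rintro ⟨y, ⟨h1, h2, h3⟩, hy⟩
    have key : ∀ t : ℝ, t ∈ Icc (-1 : ℝ) 1 → tau ε (sd s t) = y →
        x ∈ (chU hε B).f '' (sd s '' Icc (-1) 1) := by
      intro t ht h
      refine ⟨_, ⟨t, ht, rfl⟩, ?_⟩
      rw [chU_f, h, hy, B.symm_apply_apply]
    have e0 := eps_sq hε 0
    have e1 := eps_sq hε 1
    have hm : ∀ i, 0 ≤ y i → y i ≤ 1 → ε i * (2 * y i - 1) ∈ Icc (-1 : ℝ) 1 := by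
      intro i h4 h5
      rcases hε i with h | h <;> rw [h] <;> constructor <;> linarith
    fin_cases s
    · refine key (ε 0 * (2 * y 0 - 1)) (hm 0 (by simpa using h1) (by simpa using h2)) ?_
      have h3' : y 1 = (1 - ε 1) / 2 := by simpa using h3
      funext i
      fin_cases i
      · show (1 + ε 0 * (ε 0 * (2 * y 0 - 1))) / 2 = y 0
        rw [← mul_assoc, e0]; ring
      · show (1 + ε 1 * (-1)) / 2 = y 1
        rw [h3']; ring
    · refine key (ε 0 * (2 * y 0 - 1)) (hm 0 (by simpa using h1) (by simpa using h2)) ?_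
      have h3' : y 1 = (1 + ε 1) / 2 := by simpa using h3
      funext i
      fin_cases i
      · show (1 + ε 0 * (ε 0 * (2 * y 0 - 1))) / 2 = y 0
        rw [← mul_assoc, e0]; ring
      · show (1 + ε 1 * 1) / 2 = y 1
        rw [h3']; ring
    · refine key (ε 1 * (2 * y 1 - 1)) (hm 1 (by simpa using h1) (by simpa using h2)) ?_
      have h3' : y 0 = (1 - ε 0) / 2 := by simpa using h3
      funext i
      fin_cases i
      · show (1 + ε 0 * (-1)) / 2 = y 0
        rw [h3']; ring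
      · show (1 + ε 1 * (ε 1 * (2 * y 1 - 1))) / 2 = y 1
        rw [← mul_assoc, e1]; ring
    · refine key (ε 1 * (2 * y 1 - 1)) (hm 1 (by simpa using h1) (by simpa using h2)) ?_
      have h3' : y 0 = (1 + ε 0) / 2 := by simpa using h3
      funext i
      fin_cases i
      · show (1 + ε 0 * 1) / 2 = y 0
        rw [h3']; ring
      · show (1 + ε 1 * (ε 1 * (2 * y 1 - 1))) / 2 = y 1
        rw [← mul_assoc, e1]; ring

/-- the corners -/
lemma chU_corner (s t : ℝ) : (chU hε B).f ![s, t] = corner B ((1 + ε 0 * s) / 2) ((1 + ε 1 * t) / 2) := by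
  rw [chU_f]
  rfl

end chart

/-- the frame whose base corner is a given corner -/
lemma exists_eps {a b : ℝ} (ha : a = 0 ∨ a = 1) (hb : b = 0 ∨ b = 1) :
    ∃ ε : Fin 2 → ℝ, (∀ i, ε i = 1 ∨ ε i = -1) ∧ (1 + ε 0) / 2 = a ∧ (1 + ε 1) / 2 = b := by
  refine ⟨![2 * a - 1, 2 * b - 1], fun i => ?_, ?_, ?_⟩
  · fin_cases i
    · show 2 * a - 1 = 1 ∨ 2 * a - 1 = -1
      rcases ha with rfl | rfl <;> norm_num
    · show 2 * b - 1 = 1 ∨ 2 * b - 1 = -1
      rcases hb with rfl | rfl <;> norm_num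
  · show (1 + (2 * a - 1)) / 2 = a
    ring
  · show (1 + (2 * b - 1)) / 2 = b
    ring

end Crest.Agent.R096.Fsw_928
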