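import Crest.Agent.R096.Fsw25_928
import Crest.Agent.R096.Bd21_416

/-!
# R096 (row 96), FACE-SWEEP, part 26: the boundary structure in the chart; Lipschitz constants of a
designated face in any frame (helper928)
-/

set_option autoImplicit false
set_option linter.unusedSectionVars false

open Set Metric Filter Topology MeasureTheory

namespace Crest.Agent.R096.Fsw_928

open Crest.Agent.R096.Ce_537 Crest.Agent.R096.Bd_416 Crest.Agent.R096.Fk_522

open scoped Classical

section bd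

variable {Q : Type} [PartialOrder Q] {dim : Q → ℕ} {J Fam : Type}
variable {E : Type*} [NormedAddCommGroup E] [NormedSpace ℝ E]
variable {C : Cmb Q dim J Fam} {K : Q → Set E} {D : Set Q} {g : Gd E J}
  {Pc : ∀ q, C.I q → Set E} {c : ∀ q, C.I q → E → ℝ} {Ω : Set E}

/-- the boundary structure in the chart -/
lemma bdPull_c (H : Bd_416.Inv C K D g Pc c) (X : Cplx Ω Q dim K) {τ : Q} (hτ : ∀ σ < τ, σ ∈ D)
    (A : PLEquiv (cube 2) (K τ)) (hA : A.f '' sph 2 = bdS K τ) (x : C.I τ) (ω : Fin 2 → ℝ) :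
    ((bdLam H X τ hτ).pull (bdE A hA) isClosed_sphere).c x ω = cbd C K c τ x (A.f ω) := rfl

end bd

/-- **(F2) Lipschitz constants of a designated face** in the frame `B`; `Lg` = constant of the
inverse chart in this frame -/
theorem exists_LB (P P' : Par) : ∃ Λc : ℝ, 0 ≤ Λc ∧ ∀ {E : Type} [NormedAddCommGroup E]
    [NormedSpace ℝ E] {q dq : Set E} {I : Type} [Fintype I] {Lq : Lam dq I}
    (A : PLEquiv (cube 2) q) (hA : A.f '' sph 2 = dq)
    {W : Bw (Lq.pull (bdE A hA) isClosed_sphere)} {wt : I → ℝ} {ν : Fin 4 → ℝ} {FA FB : Prop}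
    {δ η : ℝ} {MA MB : Finset I} (_ : Pure W wt ν FA FB δ η MA MB) {K b : ℝ} {Rl : I → I → Prop}
    (T : Bw.Dpt W P P' K b (lg W wt ν) Rl (6 * η) (6 * η)) {Y : Type} [PseudoMetricSpace Y]
    (B : E → Y) {Lg : ℝ} (_ : ∀ z ∈ q, Bd_416.MB B id Lg A.g q z) (x : I),
    ∀ z ∈ q, LB B (Λc * (16 / αX ν) / (2 * b) * Lg / wt x)
      (((dep_unpull A hA T.D).fillBall (swCh P P' A) (swCh_sph P P' hA)).c x) q z := by
  obtain ⟨Λc, h0, hcr⟩ := exists_crude P P'
  refine ⟨Λc, h0, ?_⟩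
  intro E _ _ q dq I _ Lq A hA W wt ν FA FB δ η MA MB HP K b Rl T Y _ B Lg hg x z hz
  have hw := HP.wt0 x
  have hα := HP.αX0
  have hb := T.D.cst.b0
  have C1 := HP.crd T {x} (w := wt) (fun x _ => by rw [abs_of_pos (HP.wt0 x)])
  have hx : x ∈ ({x} : Finset I) := Finset.mem_singleton_self x
  have h1 := hcr T.D x (16 / (αX ν * wt x)) (C1.M0 x hx) (C1.lip x hx) (C1.hM x hx)
    (A.g z) (A.mg hz)
  have ht : Tendsto A.g (𝓝[q] z) (𝓝[cube 2] (A.g z)) :=
    tendsto_nhdsWithin_iff.2 ⟨A.pg.1 z hz, by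
      filter_upwards [self_mem_nhdsWithin] with y hy using A.mg hy⟩
  have e : ∀ y ∈ q, ((dep_unpull A hA T.D).fillBall (swCh P P' A) (swCh_sph P P' hA)).c x y
      = ff T.D P P' x (A.g y) := by
    intro y hy
    have := fillBall_ff P P' A hA (dep_unpull A hA T.D) T.D x (A.mg hy)
    rwa [A.ri y hy] at this
  filter_upwards [ht.eventually h1, hg z hz, self_mem_nhdsWithin] with y h2 h3 hy
  rw [e y hy, e z hz]
  refine h2.trans ?_
  have h4 : 0 ≤ Λc * (16 / (αX ν * wt x)) / (2 * b) := by positivity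
  calc Λc * (16 / (αX ν * wt x)) / (2 * b) * dist (A.g y) (A.g z)
      ≤ Λc * (16 / (αX ν * wt x)) / (2 * b) * (Lg * dist (B y) (B z)) :=
        mul_le_mul_of_nonneg_left h3 h4
    _ = _ := by field_simp

end Crest.Agent.R096.Fsw_928
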