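import Crest.Agent.R096.Fsw26_928
import Crest.Agent.R096.On1_441
import Crest.Agent.R096.Bd18_416

/-!
# R096 (row 96), FACE-SWEEP, part 27: 477's `FaceOut` for the labels `uu` of the final structure
(helper928)
-/

set_option autoImplicit false
set_option linter.unusedSectionVars false

open Set Metric Filter Topology MeasureTheory
open scoped ENNReal

namespace Crest.Agent.R096.Fsw_928

open Crest.Agent.R096.Ce_537 Crest.Agent.R096.Bd_416 Crest.Agent.R096.Fk_522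
open Crest.Agent.R096.SkN1_477 Crest.Agent.R096.Mg_441 Crest.Agent.R096.On_441
open Crest.Agent.R096.SkC1_961 (E3 FoamD)

open scoped Classical

/-- **the rule of a designated face** `q` with the chart `A`: the left-right chords of the family
`cA` (sign `sA`), the bottom-top chords of the family `cB` (sign `sB`) -/
def FSpec {Q : Type} [PartialOrder Q] {dim : Q → ℕ} {J Fam : Type} {E : Type}
    [NormedAddCommGroup E] [NormedSpace ℝ E] (C : Cmb Q dim J Fam) (K : Q → Set E) (wt : J → ℝ)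
    (P P' : Par) (δ η b : ℝ) (q : Q) (A : (Fin 2 → ℝ) → E) (cA cB : Fam) (sA sB : ℝ)
    (ν : Fin 4 → ℝ) (FA FB : Prop) (M : Lam (K q) (C.I q)) : Prop :=
  ∃ (L : Lam (sph 2) (C.I q)) (W : Bw L) (MA MB : Finset (C.I q)) (κ : ℝ)
    (Rl : C.I q → C.I q → Prop)
    (_ : Pure W (fun x : C.I q => wt (C.col q x)) ν FA FB δ η MA MB)
    (T : Bw.Dpt W P P' κ b (lg W (fun x : C.I q => wt (C.col q x)) ν) Rl (6 * η) (6 * η)),
    (∀ x, ∀ z ∈ cube 2, M.c x (A z) = ff T.D P P' x z) ∧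
    (∀ x ∈ MA, C.fam (C.col q x) = cA ∧ (∀ x', C.col q x' = C.col q x → x' = x) ∧
      sg (C.Lab (C.col q x) q) = sA) ∧
    (∀ x ∈ MB, C.fam (C.col q x) = cB ∧ (∀ x', C.col q x' = C.col q x → x' = x) ∧
      sg (C.Lab (C.col q x) q) = sB)

lemma osq_subset_cube : osq ⊆ cube 2 := by
  intro z hz
  rw [mem_cube2']
  have h : z ∈ ball (0 : Fin 2 → ℝ) 1 := hz
  intro i
  have h1 := norm_le_pi_norm z i
  have h2 : ‖z‖ < 1 := mem_ball_zero_iff.1 h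
  rw [Real.norm_eq_abs] at h1
  linarith

section out

variable {δ κ0 R c0 : ℝ} {La : Set E3}

/-- the weighted labels -/
lemma wlab_uu {Φ : FoamD δ κ0 R c0 La} {κ : Φ.F → ℕ} {L : Φ.F → Finset ℝ} {J : Type}
    {fam : J → Φ.F} (hfin : ∀ a, {j | fam j = a}.Finite) (g : Gd E3 J) {wt : J → ℝ} {r : ℝ}
    {c : Φ.F} (hm : (mm hfin c : ℝ) = r * (L c).card)
    (hw : ∀ j, fam j = c → r * wt j = (2:ℝ)⁻¹ ^ κ c) (B : E3 ≃ᵃ[ℝ] E3) (y : E2) :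
    wlab Φ κ L (fun x => uu hfin g x) B c y
      = ∑ j ∈ sh hfin c, wt j * g.G j (B.symm (emb y)) := by
  show uu hfin g (B.symm (emb y)) c * ((L c).card * (2:ℝ)⁻¹ ^ κ c) = _
  unfold uu
  rw [merge_G]
  have hcard : (mm hfin c : ℝ) = ((sh hfin c).card : ℝ) := rfl
  rcases (sh hfin c).eq_empty_or_nonempty with h0 | ⟨j0, hj0⟩
  · rw [h0]; simp
  · have hpos : (0:ℝ) < ((sh hfin c).card : ℝ) := by
      exact_mod_cast Finset.card_pos.2 ⟨j0, hj0⟩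
    have e : ∀ j ∈ sh hfin c, ((L c).card : ℝ) * (2:ℝ)⁻¹ ^ κ c = (mm hfin c : ℝ) * wt j := by
      intro j hj
      rw [← hw j ((mem_sh hfin).1 hj), hm]; ring
    rw [div_mul_eq_mul_div, Finset.sum_mul, Finset.sum_div]
    refine Finset.sum_congr rfl fun j hj => ?_
    rw [e j hj, hcard]
    field_simp

/-- **FACE-OUT** -/
theorem face_out {p : ℝ} (hp : 1 ≤ p) {Λ : ℝ} (hΛ : 1 ≤ Λ) {e : ℝ} (he : 0 < e) :
    ∃ δ0 : ℝ, 0 < δ0 ∧ δ0 ≤ 1/4 ∧ ∀ δ, 0 < δ → δ ≤ δ0 → ∃ P P' : Par, ∃ η0 : ℝ, 0 < η0 ∧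
    η0 ≤ δ / 56 ∧ ∀ η, 0 ≤ η → η ≤ η0 →
    (∀ {ι : Type} [Fintype ι] {L : Lam (sph 2) ι} {W : Bw L} {wt : ι → ℝ} {ν : Fin 4 → ℝ}
      {FA FB : Prop} {MA MB : Finset ι} (_ : Pure W wt ν FA FB δ η MA MB) {K b : ℝ} (_ : Cst K b)
      (k0 : ι → ℕ) (_ : Function.Injective k0) (Rl : ι → ι → Prop)
      (_ : ∀ x x', Rl x x' → Bw.Inc L x x') (_ : ∀ x x', Rl x x' → k0 x' < k0 x),
      Nonempty (Bw.Dpt W P P' K b (lg W wt ν) Rl (6 * η) (6 * η))) ∧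
    (∀ {δ' κ0 R c0 : ℝ} {La : Set E3} (Φ : FoamD δ' κ0 R c0 La) (κ : Φ.F → ℕ)
      (L : Φ.F → Finset ℝ) {Q : Type} [PartialOrder Q] {dim : Q → ℕ} {J : Type}
      {C : Cmb Q dim J Φ.F} {K : Q → Set E3} {D : Set Q} {g : Gd E3 J}
      {Pc : ∀ q, C.I q → Set E3} {c : ∀ q, C.I q → E3 → ℝ} (_ : Bd_416.Inv C K D g Pc c) {q : Q}
      (_ : q ∈ D) (hfin : ∀ a, {j | C.fam j = a}.Finite) (wt : J → ℝ) (rr : Φ.F → ℝ)
      (c1 c2 : Φ.F) (_ : c1 ≠ c2)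
      (_ : ∀ a, (a = c1 ∨ a = c2) → (mm hfin a : ℝ) = rr a * (L a).card ∧
        ∀ j, C.fam j = a → rr a * wt j = (2:ℝ)⁻¹ ^ κ a)
      (B : E3 ≃ᵃ[ℝ] E3) (ε : Fin 2 → ℝ) (_ : ∀ i, ε i = 1 ∨ ε i = -1)
      (_ : ∀ z ∈ cube 2, B.symm (emb (tau ε z)) ∈ K q)
      (ν : Fin 4 → ℝ) (FA FB : Prop) (b sA sB : ℝ) (M : Lam (K q) (C.I q))
      (_ : FSpec C K wt P P' δ η b q (fun z => B.symm (emb (tau ε z))) c2 c1 sA sB ν FA FB M)
      (β : ℝ) (_ : Sqd C K q β M g (Pc q) (c q)) (_ : 1 - η ≤ 2 * (b * β))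
      (μ : ℝ) (_ : 0 < μ) (_ : 1 / αX ν ≤ Λ * μ) (a : Fin 2 → ℝ) (σ1 σ2 : ℝ)
      (_ : |sA| = 1) (_ : |sB| = 1)
      (_ : FA → |σ2 * a 1 + ε 1 * sA * (2 / ν 2)| ≤ 6 * δ * μ)
      (_ : ¬ FA → |σ2 * a 1| ≤ 6 * δ * μ)
      (_ : FB → |σ1 * a 0 + ε 0 * sB * (2 / ν 0)| ≤ 6 * δ * μ)
      (_ : ¬ FB → |σ1 * a 0| ≤ 6 * δ * μ),
      FaceOut p Φ κ L (fun x => uu hfin g x) e μ a B c1 c2 σ1 σ2) := by
  obtain ⟨δ0, h1, h2, h3⟩ := face_rule hp hΛ he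
  refine ⟨δ0, h1, h2, fun δ hδ hδ0 => ?_⟩
  obtain ⟨P, P', η0, h4, h5, h6⟩ := h3 δ hδ hδ0
  refine ⟨P, P', η0, h4, h5, fun η hη hη0 => ?_⟩
  obtain ⟨h60, h7⟩ := h6 η hη hη0
  refine ⟨@h60, ?_⟩
  intro δ' κ0 R c0 La Φ κ L Q _ dim J C K D g Pc c H q hq hfin wt rr c1 c2 hne hmm B ε hε hK ν FA FB
    b sA sB M hS β hSq hβ μ hμ hα a σ1 σ2 hsA hsB k1 k2 k3 k4
  obtain ⟨L', W, MA, MB, κ', Rl, HP, T, hM, hMA, hMB⟩ := hS
  have hcub := osq_subset_cube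
  have hc : ∀ x, ∀ z ∈ osq, c q x (B.symm (emb (tau ε z))) = fb T.D P P' β x z := by
    intro x z hz
    rw [hSq.mc x _ (hK z (hcub hz)), hM x z (hcub hz)]
    rfl
  have hF' : ∀ c', (c' = c1 ∨ c' = c2) → ∀ z ∈ osq, ∀ z' ∈ osq,
      wlab Φ κ L (fun x => uu hfin g x) B c' (tau ε z')
        - wlab Φ κ L (fun x => uu hfin g x) B c' (tau ε z)
      = 1 * (∑ j ∈ sh hfin c', wt j * g.G j (B.symm (emb (tau ε z')))
        - ∑ j ∈ sh hfin c', wt j * g.G j (B.symm (emb (tau ε z)))) := by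
    intro c' hc' z _ z' _
    rw [wlab_uu hfin g (hmm c' hc').1 (hmm c' hc').2, wlab_uu hfin g (hmm c' hc').1 (hmm c' hc').2,
      one_mul]
  constructor
  · refine (h7 H hq HP T β μ 1 hSq.β0 hSq.β1 hβ hμ hα le_rfl one_le_two
      (fun z => B.symm (emb (tau ε z))) (fun z hz => hK z (hcub hz)) hc (sh hfin c1) ε hε
      (wlab Φ κ L (fun x => uu hfin g x) B c1) (hF' c1 (Or.inl rfl)) (σ1 * a 0) sB hsB).2
      (fun x hx => ?_) (fun x hx => ?_) (fun h => ?_) k4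
    · obtain ⟨e1, e2, e3⟩ := hMB x hx
      exact ⟨(mem_sh hfin).2 e1, e2, e3⟩
    · rw [mem_sh, (hMA x hx).1]; exact hne.symm
    · rw [one_mul]; exact k3 h
  · refine (h7 H hq HP T β μ 1 hSq.β0 hSq.β1 hβ hμ hα le_rfl one_le_two
      (fun z => B.symm (emb (tau ε z))) (fun z hz => hK z (hcub hz)) hc (sh hfin c2) ε hε
      (wlab Φ κ L (fun x => uu hfin g x) B c2) (hF' c2 (Or.inr rfl)) (σ2 * a 1) sA hsA).1
      (fun x hx => ?_) (fun x hx => ?_) (fun h => ?_) k2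
    · obtain ⟨e1, e2, e3⟩ := hMA x hx
      exact ⟨(mem_sh hfin).2 e1, e2, e3⟩
    · rw [mem_sh, (hMB x hx).1]; exact hne
    · rw [one_mul]; exact k1 h

end out

end Crest.Agent.R096.Fsw_928
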