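import Crest.Agent.R096.Fsw27_928

/-!
# R096 (row 96), FACE-SWEEP, part 28: the Lipschitz constants of a designated face in its own frame;
designated faces without weight (helper928)
-/

set_option autoImplicit false
set_option linter.unusedSectionVars false

open Set Metric Filter Topology MeasureTheory
open scoped ENNReal

namespace Crest.Agent.R096.Fsw_928

open Crest.Agent.R096.Ce_537 Crest.Agent.R096.Bd_416 Crest.Agent.R096.Fk_522
open Crest.Agent.R096.SkN1_477 Crest.Agent.R096.Mg_441 Crest.Agent.R096.On_441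
open Crest.Agent.R096.SkC1_961 (E3 FoamD)

open scoped Classical

/-! ### the chart in the frame of the face -/

section frame

variable {ε : Fin 2 → ℝ} (hε : ∀ i, ε i = 1 ∨ ε i = -1) (B : E3 ≃ᵃ[ℝ] E3)
include hε

lemma dist_chB (y z : E3) : dist (chB B ε y) (chB B ε z) ≤ 2 * dist (B y) (B z) := by
  have h0 : (0:ℝ) ≤ 2 * dist (B y) (B z) := by positivity
  refine (dist_pi_le_iff h0).2 fun i => ?_
  rw [chB_apply, chB_apply, Real.dist_eq]
  have e : utau ε (qmb (B y)) i - utau ε (qmb (B z)) i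
      = ε i * (2 * (B y i.castSucc - B z i.castSucc)) := by
    show ε i * (2 * B y i.castSucc - 1) - ε i * (2 * B z i.castSucc - 1) = _
    ring
  rw [e, abs_mul, abs_eps hε, one_mul, abs_mul, abs_of_pos (by norm_num : (0:ℝ) < 2)]
  refine mul_le_mul_of_nonneg_left ?_ (by norm_num)
  rw [← Real.dist_eq]
  exact dist_le_pi_dist (B y) (B z) i.castSucc

/-- the inverse chart, in the frame of the face -/
lemma chU_MB (Z : Set E3) (z : E3) : Bd_416.MB B id 2 (chU hε B).g Z z :=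
  Eventually.of_forall fun y => dist_chB hε B y z

end frame

lemma dist_emb (y y' : Fin 2 → ℝ) : dist (emb y) (emb y') = dist y y' := by
  have h1 : ∀ i, (emb y - emb y') i = if h : (i : ℕ) < 2 then (y - y') ⟨i, h⟩ else 0 := by
    intro i
    fin_cases i
    · rfl
    · rfl
    · show (0:ℝ) - 0 = _
      simp
  rw [dist_eq_norm, dist_eq_norm]
  refine le_antisymm ?_ ?_
  · refine (pi_norm_le_iff_of_nonneg (norm_nonneg _)).2 fun i => ?_
    rw [h1]
    split_ifs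
    · exact norm_le_pi_norm _ _
    · rw [norm_zero]; exact norm_nonneg _
  · refine (pi_norm_le_iff_of_nonneg (norm_nonneg _)).2 fun i => ?_
    have := norm_le_pi_norm (emb y - emb y') i.castSucc
    rw [h1] at this
    have hi : ((i.castSucc : Fin 3) : ℕ) < 2 := i.2
    rw [dif_pos hi] at this
    exact this

/-- `L^p` norm of a function with small Lipschitz constant -/
lemma lint_lip {p S : ℝ} (hp : 0 ≤ p) (hS : 0 ≤ S) {f : E2 → ℝ}
    (h : ∀ y ∈ ousq, ∀ᶠ y' in 𝓝 y, |f y' - f y| ≤ S * dist y' y) :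
    ∫⁻ y in ousq, ‖fderiv ℝ f y - (0:ℝ) • pr 0‖ₑ ^ p ≤ ENNReal.ofReal (S ^ p) := by
  have hvol : volume ousq ≤ 1 := by
    have h1 : ousq ⊆ Icc (0 : Fin 2 → ℝ) 1 := fun y hy =>
      ⟨fun i => (hy i).1.le, fun i => (hy i).2.le⟩
    refine (measure_mono h1).trans ?_
    rw [Real.volume_Icc_pi]
    simp
  have h2 : ∀ y ∈ ousq, ‖fderiv ℝ f y - (0:ℝ) • pr 0‖ₑ ^ p ≤ ENNReal.ofReal (S ^ p) := by
    intro y hy
    rw [zero_smul, sub_zero]
    have h3 : ‖fderiv ℝ f y‖ ≤ S := by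
      refine norm_fderiv_le_of_lip' ℝ hS ?_
      filter_upwards [h y hy] with y' h4
      rw [Real.norm_eq_abs, ← dist_eq_norm]
      exact h4
    rw [← ENNReal.ofReal_rpow_of_nonneg hS hp]
    refine ENNReal.rpow_le_rpow ?_ hp
    rw [← ofReal_norm]
    exact ENNReal.ofReal_le_ofReal h3
  calc ∫⁻ y in ousq, ‖fderiv ℝ f y - (0:ℝ) • pr 0‖ₑ ^ p
      ≤ ∫⁻ _ in ousq, ENNReal.ofReal (S ^ p) :=
        setLIntegral_mono' isOpen_ousq.measurableSet h2
    _ = ENNReal.ofReal (S ^ p) * volume ousq := by rw [setLIntegral_const]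
    _ ≤ _ := mul_le_of_le_one_right zero_le hvol

section zero

/-- **a designated face without weight**: `FaceOut` from the Lipschitz bounds -/
theorem face_out_zero {δ' κ0 R c0 : ℝ} {La : Set E3} (Φ : FoamD δ' κ0 R c0 La) (κ : Φ.F → ℕ)
    (L : Φ.F → Finset ℝ) {Q : Type} [PartialOrder Q] {dim : Q → ℕ} {J : Type}
    {C : Cmb Q dim J Φ.F} {K : Q → Set E3} {D : Set Q} {g : Gd E3 J}
    {Pc : ∀ q, C.I q → Set E3} {c : ∀ q, C.I q → E3 → ℝ} (H : Bd_416.Inv C K D g Pc c) {q : Q}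
    (hq : q ∈ D) (hfin : ∀ a, {j | C.fam j = a}.Finite) (wt : J → ℝ) (hw : ∀ j, 0 < wt j)
    (rr : Φ.F → ℝ) (c1 c2 : Φ.F)
    (hmm : ∀ a, (a = c1 ∨ a = c2) → (mm hfin a : ℝ) = rr a * (L a).card ∧
      ∀ j, C.fam j = a → rr a * wt j = (2:ℝ)⁻¹ ^ κ a)
    (B : E3 ≃ᵃ[ℝ] E3) (hK : usq B ⊆ K q) {S : ℝ} (hS : 0 ≤ S)
    (hL : ∀ x, ∀ z ∈ usq B, LB B (S / wt (C.col q x)) (c q x) (K q) z)
    {p e μ : ℝ} (hp : 0 ≤ p) (hSe : S ^ p ≤ e * μ ^ p) {a : Fin 2 → ℝ} (ha : ∀ j, a j = 0)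
    (σ1 σ2 : ℝ) : FaceOut p Φ κ L (fun x => uu hfin g x) e μ a B c1 c2 σ1 σ2 := by
  have key : ∀ c', (c' = c1 ∨ c' = c2) → ∀ y ∈ ousq, ∀ᶠ y' in 𝓝 y,
      |wlab Φ κ L (fun x => uu hfin g x) B c' y' - wlab Φ κ L (fun x => uu hfin g x) B c' y|
        ≤ S * dist y' y := by
    intro c' hc' y hy
    have hmem : ∀ y ∈ ousq, B.symm (emb y) ∈ usq B := fun y hy =>
      mem_preimage.2 (by rw [B.apply_symm_apply]; exact ⟨y, fun j => ⟨(hy j).1.le, (hy j).2.le⟩, rfl⟩)
    have h1 := H.LB_fam wt hw hq (sh hfin c')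
      (fun j hj j' hj' => by rw [mem_sh] at hj hj'; rw [hj, hj']) (hK (hmem y hy)) hS
      (fun x => hL x _ (hmem y hy))
    have hcont : Continuous fun y : E2 => B.symm (emb y) := by
      have : (fun y : E2 => B.symm (emb y)) = fun y => ((B.symm : E3 →ᵃ[ℝ] E3).comp embA) y := by
        funext y
        show _ = B.symm (embA y)
        rw [embA_apply]
      rw [this]
      exact AffineMap.continuous_of_finiteDimensional _
    have ht : Tendsto (fun y : E2 => B.symm (emb y)) (𝓝 y) (𝓝[K q] (B.symm (emb y))) :=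
      tendsto_nhdsWithin_iff.2 ⟨hcont.tendsto y, by
        filter_upwards [isOpen_ousq.mem_nhds hy] with y' hy' using hK (hmem y' hy')⟩
    filter_upwards [ht.eventually h1] with y' h2
    rw [wlab_uu hfin g (hmm c' hc').1 (hmm c' hc').2, wlab_uu hfin g (hmm c' hc').1 (hmm c' hc').2]
    refine h2.trans (le_of_eq ?_)
    rw [B.apply_symm_apply, B.apply_symm_apply, dist_emb]
  have h0 : ∀ c', (c' = c1 ∨ c' = c2) → ∀ (σ : ℝ) (j : Fin 2),
      ∫⁻ y in ousq, ‖fderiv ℝ (wlab Φ κ L (fun x => uu hfin g x) B c') y - (σ * a j) • pr j‖ₑ ^ p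
        ≤ ENNReal.ofReal (e * μ ^ p) := by
    intro c' hc' σ j
    have e1 : ∀ y, fderiv ℝ (wlab Φ κ L (fun x => uu hfin g x) B c') y - (σ * a j) • pr j
        = fderiv ℝ (wlab Φ κ L (fun x => uu hfin g x) B c') y - (0:ℝ) • pr 0 := by
      intro y
      rw [ha j, mul_zero, zero_smul, zero_smul]
    simp only [e1]
    exact (lint_lip hp hS (key c' hc')).trans (ENNReal.ofReal_le_ofReal hSe)
  exact ⟨h0 c1 (Or.inl rfl) σ1 0, h0 c2 (Or.inr rfl) σ2 1⟩

end zero

end Crest.Agent.R096.Fsw_928
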