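import Crest.Agent.R096.Fsw1_928

/-!
# R096 (row 96), FACE-SWEEP, part 2: the sweep annulus as a `PLEquiv` (helper928)
-/

set_option autoImplicit false

open Set Metric

namespace Crest.Agent.R096.Fsw_928

open Crest.Agent.R096.Ce_537 Crest.Agent.R096.Bd_416

namespace Par

variable {P : Par}

lemma cf_abs_eq_one {δ u : ℝ} (hδ0 : 0 ≤ δ) (hδ : δ ≤ 1/2) (hu : |u| = 1 - δ) :
    |cf (1 - δ) u| = 1 := by
  rw [abs_cf _ _ (by linarith), hu]
  exact cf_top (by linarith) (by linarith)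

lemma cf_abs_le_one {δ u : ℝ} (hδ0 : 0 ≤ δ) (hδ : δ ≤ 1/2) (hu : |u| ≤ 1 - δ) :
    |cf (1 - δ) u| ≤ 1 := by
  rw [abs_cf _ _ (by linarith)]
  calc cf (1 - δ) |u| ≤ cf (1 - δ) (1 - δ) := cf_mono (by linarith) (abs_nonneg _) hu
    _ = 1 := cf_top (by linarith) (by linarith)

lemma clamp_eq {x : ℝ} (hx : |x| ≤ 1) : max (-1) (min x 1) = x := by
  rw [abs_le] at hx
  rw [min_eq_left hx.2, max_eq_right hx.1]

lemma U_S {u t ρ : ℝ} (h0 : 0 ≤ ρ) (h1 : ρ ≤ 1) (ht : -1 ≤ t) (hu : |u| ≤ 1 - P.dd t ρ) :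
    P.U (P.S u t ρ) t ρ = u := by
  have h2 := P.dd_le h1 ht
  have h3 := (P.aρ_nonneg h0).trans (P.dd_ge (t := t))
  unfold U S
  rw [clamp_eq (cf_abs_le_one h3 (by linarith) hu)]
  exact cg_cf (by linarith)

lemma abs_S_le {u t ρ : ℝ} : |P.S u t ρ| ≤ 1 := by
  unfold S
  rw [abs_le]
  exact ⟨le_max_left _ _, max_le (by norm_num) (min_le_right _ _)⟩

lemma abs_S_eq {u t ρ : ℝ} (h0 : 0 ≤ ρ) (h1 : ρ ≤ 1) (ht : -1 ≤ t) (hu : |u| = 1 - P.dd t ρ) :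
    |P.S u t ρ| = 1 := by
  have h2 := P.dd_le h1 ht
  have h3 := (P.aρ_nonneg h0).trans (P.dd_ge (t := t))
  unfold S
  have h4 : |cf (1 - P.dd t ρ) u| = 1 := cf_abs_eq_one h3 (by linarith) hu
  rw [clamp_eq h4.le, h4]

/-- the data of a point of the annulus -/
lemma gauge_ge {u v ρ : ℝ} (hR : P.R u v = ρ) :
    P.a * ρ ≤ 1 - |u| ∧ P.a * ρ ≤ 1 - v ∧ P.hh ρ ≤ v := by
  unfold R at hR
  rw [max_neg_eq] at hR
  refine ⟨?_, ?_, ?_⟩
  · have h : ρ ≤ (1 - |u|) / P.a := by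
      rw [← hR]; exact (min_le_left _ _).trans (min_le_left _ _)
    rw [le_div_iff₀ P.a0] at h; linarith
  · have h : ρ ≤ (1 - v) / P.a := by
      rw [← hR]; exact (min_le_left _ _).trans (min_le_right _ _)
    rw [le_div_iff₀ P.a0] at h; linarith
  · have h : ρ ≤ (1 + v) / P.H := by
      rw [← hR]; exact min_le_right _ _
    rw [le_div_iff₀ P.H0] at h
    unfold hh; linarith

lemma gauge_eq {u v ρ : ℝ} (hR : P.R u v = ρ) :
    |u| = 1 - P.a * ρ ∨ v = 1 - P.a * ρ ∨ v = P.hh ρ := by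
  unfold R at hR
  rw [max_neg_eq] at hR
  rcases min_choice (min ((1 - |u|) / P.a) ((1 - v) / P.a)) ((1 + v) / P.H) with h | h
  · rw [h] at hR
    rcases min_choice ((1 - |u|) / P.a) ((1 - v) / P.a) with h2 | h2
    · rw [h2, div_eq_iff P.a0.ne'] at hR
      left; linarith
    · rw [h2, div_eq_iff P.a0.ne'] at hR
      right; left; linarith
  · rw [h, div_eq_iff P.H0.ne'] at hR
    right; right
    unfold hh; linarith

/-- **the inverse on the annulus** -/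
lemma inv_spec {u v ρ : ℝ} (hR : P.R u v = ρ) (h0 : 0 ≤ ρ) (h1 : ρ ≤ 1) :
    -1 ≤ P.T u v ρ ∧ P.T u v ρ ≤ 1 ∧ P.U (P.S u (P.T u v ρ) ρ) (P.T u v ρ) ρ = u ∧
      P.V (P.T u v ρ) ρ = v ∧ (|P.S u (P.T u v ρ) ρ| = 1 ∨ |P.T u v ρ| = 1) := by
  obtain ⟨g1, g2, g3⟩ := P.gauge_ge hR
  have ha := P.aρ_nonneg h0
  have hh1 := P.hh_ge h0
  have h2a := P.one_sub_two_a_le h0 h1
  have h2 := P.two_le
  have htri := P.third_le h1
  have hq : 0 ≤ (1 - |u| - P.a * ρ) / P.m := div_nonneg (by linarith) P.m0.le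
  have hT1ge : v ≤ max v (2 * v - 1 + 2 * (P.a * ρ)) := le_max_left _ _
  have hT1le : max v (2 * v - 1 + 2 * (P.a * ρ)) ≤ 1 := max_le (by linarith) (by linarith)
  have h3 : 1 - (2 / P.a) * (1 - P.a * ρ - v) ≤ max v (2 * v - 1 + 2 * (P.a * ρ)) := by
    refine le_trans ?_ (le_max_right _ _)
    have h5 := mul_le_mul_of_nonneg_right h2 (by linarith : (0:ℝ) ≤ 1 - P.a * ρ - v)
    linarith
  rcases P.gauge_eq hR with hu | hv | hv
  · -- lateral sides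
    have e0 : (1 - |u| - P.a * ρ) / P.m = 0 := by rw [hu]; simp
    have eT : P.T u v ρ = max v (2 * v - 1 + 2 * (P.a * ρ)) := by
      unfold T
      rw [max_neg_eq, e0, sub_zero, max_eq_left h3]
      exact max_eq_right (by linarith)
    have ht1 : -1 ≤ P.T u v ρ := by rw [eT]; linarith
    have hth : P.hh ρ ≤ P.T u v ρ := by rw [eT]; linarith
    have hu' : |u| = 1 - P.dd (P.T u v ρ) ρ := by rw [P.dd_of_ge hth]; exact hu
    refine ⟨ht1, by rw [eT]; exact hT1le, P.U_S h0 h1 ht1 hu'.le, ?_, Or.inl (P.abs_S_eq h0 h1 ht1 hu')⟩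
    rw [P.V_of_ge h0 h1 hth, eT]
    rcases le_total v (2 * v - 1 + 2 * (P.a * ρ)) with h | h
    · rw [max_eq_right h]
      have e : (1 + (2 * v - 1 + 2 * (P.a * ρ))) / 2 - P.a * ρ = v := by ring
      rw [e]; exact min_eq_right h
    · rw [max_eq_left h]
      exact min_eq_left (by linarith)
  · -- top
    have e0 : 1 - (2 / P.a) * (1 - P.a * ρ - v) = 1 := by rw [hv]; ring
    have eT : P.T u v ρ = 1 := by
      unfold T
      rw [max_neg_eq, e0]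
      rw [max_eq_right (show max v (2 * v - 1 + 2 * (P.a * ρ)) -
        (1 - |u| - P.a * ρ) / P.m ≤ 1 by linarith)]
      exact max_eq_right (by norm_num)
    have hth : P.hh ρ ≤ 1 := by linarith
    have hu' : |u| ≤ 1 - P.dd 1 ρ := by rw [P.dd_of_ge hth]; linarith
    rw [eT]
    refine ⟨by norm_num, le_refl _, P.U_S h0 h1 (by norm_num) hu', ?_, Or.inr (by norm_num)⟩
    rw [P.V_of_ge h0 h1 hth, hv]
    have e : (1 + 1 : ℝ) / 2 - P.a * ρ = 1 - P.a * ρ := by ring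
    rw [e]; exact min_eq_right (by linarith)
  · -- sweeping side
    have e1 : max v (2 * v - 1 + 2 * (P.a * ρ)) = P.hh ρ := by
      rw [hv]; exact max_eq_left (by linarith)
    have eT : P.T u v ρ = max (-1) (P.hh ρ - (1 - |u| - P.a * ρ) / P.m) := by
      unfold T
      rw [max_neg_eq, e1, hv]
      rcases le_total (1 - 2 / P.a * (1 - P.a * ρ - P.hh ρ))
        (P.hh ρ - (1 - |u| - P.a * ρ) / P.m) with h | h
      · rw [max_eq_left h]
      · rw [max_eq_right h, max_eq_left htri, max_eq_left (h.trans htri)]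
    have hth : P.T u v ρ ≤ P.hh ρ := by rw [eT]; exact max_le hh1 (by linarith)
    have hdd := P.dd_of_le hth
    have ht1 : -1 ≤ P.T u v ρ := by rw [eT]; exact le_max_left _ _
    refine ⟨ht1, by linarith, ?_⟩
    rcases le_total (P.hh ρ - (1 - |u| - P.a * ρ) / P.m) (-1) with h | h
    · have eT2 : P.T u v ρ = -1 := by rw [eT]; exact max_eq_left h
      have hu' : |u| ≤ 1 - P.dd (P.T u v ρ) ρ := by
        rw [hdd, eT2]
        have h5 : P.hh ρ - -1 ≤ (1 - |u| - P.a * ρ) / P.m := by linarith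
        rw [le_div_iff₀ P.m0] at h5
        linarith
      refine ⟨P.U_S h0 h1 ht1 hu', by rw [P.V_of_le hth, hv], Or.inr (by rw [eT2]; norm_num)⟩
    · have eT2 : P.T u v ρ = P.hh ρ - (1 - |u| - P.a * ρ) / P.m := by rw [eT]; exact max_eq_right h
      have hu' : |u| = 1 - P.dd (P.T u v ρ) ρ := by
        rw [hdd, eT2]
        have h5 : P.m * (P.hh ρ - (P.hh ρ - (1 - |u| - P.a * ρ) / P.m)) = 1 - |u| - P.a * ρ := by
          have := P.m0.ne'
          field_simp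
          ring
        rw [h5]; ring
      exact ⟨P.U_S h0 h1 ht1 hu'.le, by rw [P.V_of_le hth, hv], Or.inl (P.abs_S_eq h0 h1 ht1 hu')⟩

/-- the closed annulus between the square and the last box -/
def NA (P : Par) : Set (Fin 2 → ℝ) := {z | z ∈ cube 2 ∧ P.R (z 0) (z 1) ≤ 1}

/-- the last box -/
def BX (P : Par) : Set (Fin 2 → ℝ) := {z | 1 ≤ P.R (z 0) (z 1)}

lemma R_nonneg {z : Fin 2 → ℝ} (hz : z ∈ cube 2) : 0 ≤ P.R (z 0) (z 1) := by
  rw [mem_cube2] at hz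
  have h1 := abs_le.1 hz.2
  unfold R
  rw [max_neg_eq]
  exact le_min (le_min (div_nonneg (by linarith [hz.1]) P.a0.le)
    (div_nonneg (by linarith) P.a0.le)) (div_nonneg (by linarith) P.H0.le)

/-- the map -/
noncomputable def F (P : Par) (p : (Fin 2 → ℝ) × ℝ) : Fin 2 → ℝ :=
  fun i => if i = 0 then P.U (p.1 0) (p.1 1) p.2 else P.V (p.1 1) p.2

/-- its inverse -/
noncomputable def Gi (P : Par) (z : Fin 2 → ℝ) : (Fin 2 → ℝ) × ℝ :=
  (fun i => if i = 0 then P.S (z 0) (P.T (z 0) (z 1) (P.R (z 0) (z 1))) (P.R (z 0) (z 1))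
    else P.T (z 0) (z 1) (P.R (z 0) (z 1)), P.R (z 0) (z 1))

@[simp] lemma F_zero (p : (Fin 2 → ℝ) × ℝ) : P.F p 0 = P.U (p.1 0) (p.1 1) p.2 := rfl
@[simp] lemma F_one (p : (Fin 2 → ℝ) × ℝ) : P.F p 1 = P.V (p.1 1) p.2 := rfl

section PL

variable {E : Type*} [NormedAddCommGroup E] [NormedSpace ℝ E] {Z : Set E}

lemma pl_hh {ρ : E → ℝ} (hρ : PLOn ρ Z) : PLOn (fun z => P.hh (ρ z)) Z :=
  pl_add (plOn_const _ _) (pl_mul _ hρ)

lemma pl_dd {t ρ : E → ℝ} (ht : PLOn t Z) (hρ : PLOn ρ Z) : PLOn (fun z => P.dd (t z) (ρ z)) Z :=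
  pl_add (pl_mul _ hρ) (pl_mul _ (pl_max (plOn_const _ _) (pl_sub (pl_hh hρ) ht)))

lemma pl_U {s t ρ : E → ℝ} (hs : PLOn s Z) (ht : PLOn t Z) (hρ : PLOn ρ Z) :
    PLOn (fun z => P.U (s z) (t z) (ρ z)) Z :=
  pl_cg (pl_sub (plOn_const _ _) (pl_dd ht hρ)) hs

lemma pl_V {t ρ : E → ℝ} (ht : PLOn t Z) (hρ : PLOn ρ Z) : PLOn (fun z => P.V (t z) (ρ z)) Z :=
  pl_max (pl_hh hρ) (pl_min ht (pl_sub (pl_div (pl_add (plOn_const _ _) ht) 2) (pl_mul _ hρ)))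

lemma pl_R {u v : E → ℝ} (hu : PLOn u Z) (hv : PLOn v Z) : PLOn (fun z => P.R (u z) (v z)) Z :=
  pl_min (pl_min (pl_div (pl_sub (plOn_const _ _) (pl_max hu (pl_neg hu))) _)
    (pl_div (pl_sub (plOn_const _ _) hv) _)) (pl_div (pl_add (plOn_const _ _) hv) _)

lemma pl_T {u v ρ : E → ℝ} (hu : PLOn u Z) (hv : PLOn v Z) (hρ : PLOn ρ Z) :
    PLOn (fun z => P.T (u z) (v z) (ρ z)) Z := by
  refine pl_max (plOn_const _ _) (pl_max (pl_sub (pl_max hv ?_) ?_) ?_)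
  · exact pl_add (pl_sub_const (pl_mul _ hv) _) (pl_mul _ (pl_mul _ hρ))
  · exact pl_div (pl_sub (pl_sub (plOn_const _ _) (pl_max hu (pl_neg hu))) (pl_mul _ hρ)) _
  · exact pl_sub (plOn_const _ _) (pl_mul _ (pl_sub (pl_sub (plOn_const _ _) (pl_mul _ hρ)) hv))

lemma pl_S {u t ρ : E → ℝ} (hu : PLOn u Z) (ht : PLOn t Z) (hρ : PLOn ρ Z) :
    PLOn (fun z => P.S (u z) (t z) (ρ z)) Z :=
  pl_max (plOn_const _ _) (pl_min (pl_cf (pl_sub (plOn_const _ _) (pl_dd ht hρ)) hu)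
    (plOn_const _ _))

end PL

lemma pl_F (Z : Set ((Fin 2 → ℝ) × ℝ)) : PLOn P.F Z := by
  refine pl_pi fun i => ?_
  have h0 : PLOn (fun p : (Fin 2 → ℝ) × ℝ => p.1 0) Z := pl_apply (pl_fst (plOn_id _)) 0
  have h1 : PLOn (fun p : (Fin 2 → ℝ) × ℝ => p.1 1) Z := pl_apply (pl_fst (plOn_id _)) 1
  have h2 : PLOn (fun p : (Fin 2 → ℝ) × ℝ => p.2) Z := pl_snd (plOn_id _)
  by_cases hi : i = 0
  · subst hi; simpa [F] using pl_U h0 h1 h2
  · simpa [F, hi] using pl_V h1 h2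

lemma pl_Gi (Z : Set (Fin 2 → ℝ)) : PLOn P.Gi Z := by
  have h0 : PLOn (fun z : Fin 2 → ℝ => z 0) Z := pl_apply (plOn_id _) 0
  have h1 : PLOn (fun z : Fin 2 → ℝ => z 1) Z := pl_apply (plOn_id _) 1
  have hR : PLOn (fun z : Fin 2 → ℝ => P.R (z 0) (z 1)) Z := pl_R h0 h1
  have hT := pl_T (P := P) h0 h1 hR
  refine pl_pair (pl_pi fun i => ?_) hR
  by_cases hi : i = 0
  · subst hi; simpa using pl_S h0 hT hR
  · simpa [hi] using hT

/-- **the sweep annulus** -/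
noncomputable def sweep (P : Par) : PLEquiv (sph 2 ×ˢ Icc (0 : ℝ) 1) P.NA where
  f := P.F
  g := P.Gi
  pf := P.pl_F _
  pg := P.pl_Gi _
  mf := by
    rintro ⟨ω, ρ⟩ ⟨hω, h0, h1⟩
    rw [mem_sph2] at hω
    have ht := abs_le.1 hω.2.1
    refine ⟨?_, ?_⟩
    · rw [mem_cube2]
      have h2 := P.abs_U_le h0 h1 ht.1 hω.1
      have h3 := (P.aρ_nonneg h0).trans (P.dd_ge (t := ω 1))
      refine ⟨?_, ?_⟩
      · show |P.U (ω 0) (ω 1) ρ| ≤ 1
        linarith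
      · show |P.V (ω 1) ρ| ≤ 1
        rw [abs_le]
        have h4 := P.V_le h0 h1 ht.2
        have h5 := P.V_ge (ω 1) ρ
        have h6 := P.hh_ge h0
        have h7 := P.aρ_nonneg h0
        constructor <;> linarith
    · show P.R (P.U (ω 0) (ω 1) ρ) (P.V (ω 1) ρ) ≤ 1
      rw [P.R_F h0 h1 hω.1 hω.2.1 hω.2.2]
      exact h1
  mg := by
    rintro z ⟨hz, h1⟩
    have h0 := P.R_nonneg hz
    obtain ⟨a1, a2, -, -, a5⟩ := P.inv_spec (u := z 0) (v := z 1) rfl h0 h1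
    refine ⟨?_, h0, h1⟩
    rw [mem_sph2]
    refine ⟨?_, ?_, ?_⟩
    · show |P.S _ _ _| ≤ 1
      exact P.abs_S_le
    · show |P.T _ _ _| ≤ 1
      exact abs_le.2 ⟨a1, a2⟩
    · exact a5
  li := by
    rintro ⟨ω, ρ⟩ ⟨hω, h0, h1⟩
    rw [mem_sph2] at hω
    have ht := abs_le.1 hω.2.1
    have hR := P.R_F h0 h1 hω.1 hω.2.1 hω.2.2
    have hT := P.T_F h0 h1 hω.1 hω.2.1 hω.2.2
    have hS := P.S_U h1 ht.1 hω.1
    apply Prod.ext
    · funext i
      by_cases hi : i = 0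
      · subst hi
        show P.S (P.U (ω 0) (ω 1) ρ) (P.T (P.U (ω 0) (ω 1) ρ) (P.V (ω 1) ρ)
          (P.R (P.U (ω 0) (ω 1) ρ) (P.V (ω 1) ρ))) (P.R (P.U (ω 0) (ω 1) ρ) (P.V (ω 1) ρ)) = ω 0
        rw [hR, hT, hS]
      · have hi1 : i = 1 := by omega
        subst hi1
        show P.T (P.U (ω 0) (ω 1) ρ) (P.V (ω 1) ρ)
          (P.R (P.U (ω 0) (ω 1) ρ) (P.V (ω 1) ρ)) = ω 1
        rw [hR, hT]
    · exact hR
  ri := by
    rintro z ⟨hz, h1⟩
    have h0 := P.R_nonneg hz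
    obtain ⟨-, -, a3, a4, -⟩ := P.inv_spec (u := z 0) (v := z 1) rfl h0 h1
    funext i
    by_cases hi : i = 0
    · subst hi; exact a3
    · have hi1 : i = 1 := by omega
      subst hi1
      exact a4

lemma F_at_zero {ω : Fin 2 → ℝ} (hω : ω ∈ sph 2) : P.F (ω, 0) = ω := by
  rw [mem_sph2] at hω
  have ht := abs_le.1 hω.2.1
  have hh0 : P.hh 0 = -1 := by unfold hh; simp
  have hd : P.dd (ω 1) 0 = 0 := by rw [P.dd_of_ge (by rw [hh0]; exact ht.1)]; simp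
  funext i
  by_cases hi : i = 0
  · subst hi
    show P.U (ω 0) (ω 1) 0 = ω 0
    unfold U
    rw [hd, sub_zero]
    exact cg_one hω.1
  · have hi1 : i = 1 := by omega
    subst hi1
    show P.V (ω 1) 0 = ω 1
    rw [P.V_of_ge le_rfl zero_le_one (by rw [hh0]; exact ht.1)]
    exact min_eq_left (by linarith)

end Par

end Crest.Agent.R096.Fsw_928
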