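import Crest.Agent.R096.Fsw29_928
import Crest.Agent.R096.Fk15_522

/-!
# R096 (row 96), FACE-SWEEP, part 30: the clause `face` of `OutNO` from the final structure
(helper928)
-/

set_option autoImplicit false
set_option linter.unusedSectionVars false

open Set Metric Filter Topology MeasureTheory
open scoped ENNReal

namespace Crest.Agent.R096.Fsw_928

open Crest.Agent.R096.Ce_537 Crest.Agent.R096.Bd_416 Crest.Agent.R096.Fk_522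
open Crest.Agent.R096.SkN1_477 Crest.Agent.R096.Mg_441 Crest.Agent.R096.On_441
open Crest.Agent.R096.SkC1_961 (E3 FoamD)

open scoped Classical

/-- what 522's `BwF.pure` gives for the cell -/
def PureF {Q : Type} [PartialOrder Q] {dim : Q → ℕ} {J Fam : Type} {C : Cmb Q dim J Fam} {τ : Q}
    (S : SqC C τ) (wt : J → ℝ) (ν : Fin 4 → ℝ) (a : Fin 2 → ℝ) (m δ η : ℝ) : Prop :=
  ∀ (T : Fin 2 → Finset J) (cc : Fin 2 → Fam) (σ : Fin 2 → ℝ) (_ : DP S wt T cc σ a m)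
    (L : Lam (sph 2) (C.I τ)) (B : BwF S wt ν δ L),
    Pure B.toBw (fun x => wt (C.col τ x)) ν (a 1 ≠ 0) (a 0 ≠ 0) δ η (S.M cc σ a 1) (S.M cc σ a 0)

lemma mem_M {Q : Type} [PartialOrder Q] {dim : Q → ℕ} {J Fam : Type} {C : Cmb Q dim J Fam}
    {τ : Q} {S : SqC C τ} {cc : Fin 2 → Fam} {σ a : Fin 2 → ℝ} {i : Fin 2} {x : C.I τ}
    (hx : x ∈ S.M cc σ a i) : C.fam (C.col τ x) = cc i ∧ S.Mn i (σ i) (C.col τ x) := by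
  obtain ⟨-, -, e1, e2⟩ := Finset.mem_filter.1 hx
  exact ⟨e1, e2⟩

/-- **THE CLAUSE `face` OF THE MACHINE** for one designated 2-cell -/
theorem face_clause {p : ℝ} (hp : 1 ≤ p) {Λ : ℝ} (hΛ : 1 ≤ Λ) {e : ℝ} (he : 0 < e) :
    ∃ δ0 : ℝ, 0 < δ0 ∧ δ0 ≤ 1/4 ∧ ∀ δ, 0 < δ → δ ≤ δ0 → ∃ P1 P2 : Par, ∃ η0 : ℝ, 0 < η0 ∧
    η0 ≤ δ / 56 ∧ ∀ η, 0 ≤ η → η ≤ η0 → HasDep P1 P2 δ η ∧
    ∀ {δ' κ0 R c0 : ℝ} {La : Set E3} (Φ : FoamD δ' κ0 R c0 La) (κ : Φ.F → ℕ)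
      (L : Φ.F → Finset ℝ) {Q : Type} [PartialOrder Q] {dim : Q → ℕ} {J : Type}
      {C : Cmb Q dim J Φ.F} {K : Q → Set E3} {D : Set Q} {g : Gd E3 J}
      {Pc : ∀ q, C.I q → Set E3} {c : ∀ q, C.I q → E3 → ℝ} (_ : Bd_416.Inv C K D g Pc c) {τ : Q}
      (_ : τ ∈ D) {χ : Q → E3 → ℝ} (G : Des C K χ τ) (_ : ∀ s, G.S.es s ∈ D)
      (_ : ∀ k, G.S.v k ∈ D)
      (B : E3 ≃ᵃ[ℝ] E3) (ε : Fin 2 → ℝ) (_ : FG G.S K B ε)
      (_ : ∀ z ∈ cube 2, G.A.f z = B.symm (emb (tau ε z)))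
      (hfin : ∀ a, {j | C.fam j = a}.Finite) (wt : J → ℝ) (_ : ∀ j, 0 < wt j) (rr : Φ.F → ℝ)
      (_ : ∀ a, 1 ≤ rr a) (_ : ∀ a, (mm hfin a : ℝ) = rr a * (L a).card)
      (_ : ∀ j, rr (C.fam j) * wt j = (2:ℝ)⁻¹ ^ κ (C.fam j))
      (n : Set E3 → Φ.F → ℝ)
      (_ : ∀ s a, n (SkN1_477.side B (dr s) (hgt ε s)) a = nP C (G.S.es s) a / rr a)
      (wd : Q → ℝ) (b : ℝ) (M : Lam (K τ) (C.I τ))
      (_ : SpecF C K wt δ wd χ P1 P2 b η G M)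
      (β : ℝ) (_ : Sqd C K τ β M g (Pc τ) (c τ)) (_ : 1 - η ≤ 2 * (b * β))
      (η1 μ : ℝ) (_ : 0 < μ) (a : Fin 2 → ℝ) (_ : PureF G.S wt (G.nu wd) a (η1 * μ) δ η)
      (_ : 1 / αX (G.nu wd) ≤ Λ * μ)
      (_ : ∀ s, a (dr s) ≠ 0 → |a (dr s) - 2 / G.nu wd s| ≤ 6 * δ * μ)
      (c1 c2 : Φ.F) (σ1 σ2 : ℝ)
      (_ : FaceIn Φ κ L (fun x => uu hfin g x) n η1 μ a B c1 c2 σ1 σ2),
      FaceOut p Φ κ L (fun x => uu hfin g x) e μ a B c1 c2 σ1 σ2 := by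
  obtain ⟨δ0, h1, h2, h3⟩ := face_out hp hΛ he
  refine ⟨δ0, h1, h2, fun δ hδ hδ0 => ?_⟩
  obtain ⟨P, P', η0, h4, h5, h6⟩ := h3 δ hδ hδ0
  refine ⟨P, P', η0, h4, h5, fun η hη hη0 => ?_⟩
  obtain ⟨h60, h7⟩ := h6 η hη hη0
  refine ⟨@h60, ?_⟩
  intro δ' κ0 R c0 La Φ κ L Q _ dim J C K D g Pc c H τ hτ χ G heD hvD B ε FGe hGA hfin wt hw rr hr
    hm hwt n hn wd b M hS β hSq hbβ η1 μ hμ a hP hα hsl c1 c2 σ1 σ2 F
  have hε := FGe.e1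
  have hDP := dp_of_faceIn H FGe hvD heD hfin hw hr hm hwt hn F
  obtain ⟨L', Bw', κ', Rl, T, hM⟩ := hS
  have hPu := hP _ _ _ hDP L' Bw'
  have h2w := hPu.two
  have hcub : ∀ z ∈ cube 2, B.symm (emb (tau ε z)) ∈ K τ := by
    intro z hz
    rw [← hGA z hz]
    exact G.A.mf hz
  have hσ : ∀ {σ : ℝ}, (σ = 1 ∨ σ = -1) → ∀ i, |-(ε i * σ)| = 1 := by
    intro σ h i
    rcases h with rfl | rfl <;> rcases hε i with h' | h' <;> rw [h'] <;> norm_num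
  have hsp : FSpec C K wt P P' δ η b τ (fun z => B.symm (emb (tau ε z))) c2 c1 (-(ε 1 * σ2))
      (-(ε 0 * σ1)) (G.nu wd) (a 1 ≠ 0) (a 0 ≠ 0) M := by
    refine ⟨L', Bw'.toBw, _, _, κ', Rl, hPu, T, fun x z hz => ?_, fun x hx => ?_, fun x hx => ?_⟩
    · show M.c x (B.symm (emb (tau ε z))) = _
      rw [← hGA z hz]
      exact hM x z hz
    · obtain ⟨e1, e2⟩ := mem_M hx
      exact ⟨e1, fun x' hx' => Bw'.only h2w hx hx', e2.2⟩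
    · obtain ⟨e1, e2⟩ := mem_M hx
      exact ⟨e1, fun x' hx' => Bw'.only h2w hx hx', e2.2⟩
  have habs : ∀ {σ : ℝ}, (σ = 1 ∨ σ = -1) → |σ| = 1 := by
    intro σ h
    rcases h with rfl | rfl <;> norm_num
  have hslope : ∀ {σ : ℝ}, (σ = 1 ∨ σ = -1) → ∀ (i : Fin 2) (s : Fin 4), dr s = i → a i ≠ 0 →
      |σ * a i + ε i * -(ε i * σ) * (2 / G.nu wd s)| ≤ 6 * δ * μ := by
    intro σ hσ i s hs ha
    subst hs
    have e1 : σ * a (dr s) + ε (dr s) * -(ε (dr s) * σ) * (2 / G.nu wd s)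
        = σ * (a (dr s) - 2 / G.nu wd s) := by
      have := eps_sq hε (dr s)
      have e2 : ε (dr s) * -(ε (dr s) * σ) = -(ε (dr s) * ε (dr s)) * σ := by ring
      rw [e2, this]; ring
    rw [e1, abs_mul, habs hσ, one_mul]
    exact hsl s ha
  have hzero : ∀ (σ : ℝ) (i : Fin 2), ¬ a i ≠ 0 → |σ * a i| ≤ 6 * δ * μ := by
    intro σ i h
    rw [not_not] at h
    rw [h, mul_zero, abs_zero]
    positivity
  exact h7 Φ κ L H hτ hfin wt rr c1 c2 F.ne (fun a' _ => ⟨hm a', fun j hj => by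
      rw [← hj]; exact hwt j⟩) B ε hε hcub (G.nu wd) (a 1 ≠ 0) (a 0 ≠ 0) b (-(ε 1 * σ2))
    (-(ε 0 * σ1)) M hsp β hSq hbβ μ hμ hα a σ1 σ2 (hσ F.sg2 1) (hσ F.sg1 0)
    (fun h => hslope F.sg2 1 2 rfl h) (fun h => hzero σ2 1 h)
    (fun h => hslope F.sg1 0 0 rfl h) (fun h => hzero σ1 0 h)

end Crest.Agent.R096.Fsw_928
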