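import Crest.Agent.R096.Fsw30_928
import Crest.Agent.R096.Mxs0_487

/-!
# R096 (row 96), FACE-SWEEP, part 31: the geometry `Des`, `FG` of a designated face of a cell complex
(helper928)
-/

set_option autoImplicit false
set_option linter.unusedSectionVars false

open Set Metric Filter Topology MeasureTheory

namespace Crest.Agent.R096.Fsw_928

open Crest.Agent.R096.Ce_537 Crest.Agent.R096.Bd_416 Crest.Agent.R096.Fk_522
open Crest.Agent.R096.SkN1_477
open Crest.Agent.R096.SkC1_961 (E3)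
open Crest.Agent.R096.Mxs_487 (AffC)
open Crest.Agent.R96.Nu3_199 (ri)

open scoped Classical

/-! ### relative interiors -/

section rin

variable {V E : Type*} [NormedAddCommGroup V] [NormedSpace ℝ V] [NormedAddCommGroup E]
  [NormedSpace ℝ E]

/-- the relative interior of an affine image -/
lemma ri_inj (a : V →ᵃ[ℝ] E) (ha : Function.Injective a) (T : Set V) :
    ri (a '' T) = a '' ri T := by
  have key : ∀ x y : V, ∀ t : ℝ, a x + t • (a x - a y) = a (x + t • (x - y)) := by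
    intro x y t
    have h1 : x + t • (x - y) = AffineMap.lineMap x y (-t) := by
      rw [AffineMap.lineMap_apply, vsub_eq_sub, vadd_eq_add, neg_smul, ← smul_neg, neg_sub,
        add_comm]
    rw [h1, a.apply_lineMap, AffineMap.lineMap_apply, vsub_eq_sub, vadd_eq_add, neg_smul,
      ← smul_neg, neg_sub, add_comm]
  ext z
  constructor
  · rintro ⟨⟨x, hx, rfl⟩, h⟩
    refine ⟨x, ⟨hx, fun y hy => ?_⟩, rfl⟩
    obtain ⟨t, ht, w, hw, hwe⟩ := h (a y) ⟨y, hy, rfl⟩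
    rw [key] at hwe
    exact ⟨t, ht, by rw [← ha hwe]; exact hw⟩
  · rintro ⟨x, ⟨hx, h⟩, rfl⟩
    refine ⟨⟨x, hx, rfl⟩, ?_⟩
    rintro _ ⟨y, hy, rfl⟩
    obtain ⟨t, ht, h2⟩ := h y hy
    exact ⟨t, ht, by rw [key]; exact ⟨_, h2, rfl⟩⟩

/-- the relative interior of the unit ball -/
lemma ri_ball : ri (closedBall (0 : V) 1) = ball 0 1 := by
  ext y
  rw [mem_ball_zero_iff]
  constructor
  · rintro ⟨hy, h⟩
    by_contra hcon
    push Not at hcon
    obtain ⟨t, ht, h2⟩ := h 0 (mem_closedBall_self zero_le_one)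
    rw [mem_closedBall_zero_iff, sub_zero] at h2
    have h3 : y + t • y = (1 + t) • y := by rw [add_smul, one_smul]
    rw [h3, norm_smul, Real.norm_eq_abs, abs_of_pos (by linarith)] at h2
    nlinarith
  · intro hy
    refine ⟨mem_closedBall_zero_iff.2 hy.le, fun z hz => ⟨(1 - ‖y‖) / 2, by linarith, ?_⟩⟩
    rw [mem_closedBall_zero_iff] at hz ⊢
    have h1 := norm_add_le y (((1 - ‖y‖) / 2) • (y - z))
    rw [norm_smul, Real.norm_eq_abs, abs_of_pos (by linarith)] at h1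
    have h2 := norm_sub_le y z
    have h3 := norm_nonneg y
    nlinarith

end rin

/-! ### affine coordinates of the edges -/

/-- an affine map of `[-1, 1]` onto itself -/
lemma pm_affine {α β : ℝ} (h1 : ∀ t : ℝ, |t| ≤ 1 → |α * t + β| ≤ 1) {t t' : ℝ} (ht : |t| ≤ 1)
    (ht' : |t'| ≤ 1) (h2 : α * t + β = 1) (h3 : α * t' + β = -1) : (α = 1 ∨ α = -1) ∧ β = 0 := by
  have a1 := abs_le.1 (h1 1 (by norm_num))
  have a2 := abs_le.1 (h1 (-1) (by norm_num))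
  have b1 := abs_le.1 ht
  have b2 := abs_le.1 ht'
  have h4 : α * (t - t') = 2 := by linarith
  rcases le_total 0 α with h | h
  · have h5 : α ≤ 1 := by linarith
    have h6 : 1 ≤ α := by nlinarith
    have h7 : α = 1 := le_antisymm h5 h6
    refine ⟨Or.inl h7, ?_⟩
    rw [h7] at a1 a2
    linarith
  · have h5 : -1 ≤ α := by linarith
    have h6 : α ≤ -1 := by nlinarith
    have h7 : α = -1 := le_antisymm h6 h5
    refine ⟨Or.inr h7, ?_⟩
    rw [h7] at a1 a2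
    linarith

section chi

variable {E : Type*} [NormedAddCommGroup E] [NormedSpace ℝ E]

/-- an affine chart of a segment has an affine coordinate -/
lemma affC_chi {S : Set E} {e : PLEquiv (cube 1) S} (h : AffC e) :
    ∃ χ : E →ᵃ[ℝ] ℝ, ∀ z ∈ S, e.g z 0 = χ z := by
  obtain ⟨a, ha⟩ := h
  let vm : Fin 1 → ℝ := fun _ => -1
  let vp : Fin 1 → ℝ := fun _ => 1
  have hvm : vm ∈ cube 1 := mem_cube1.2 (by show |(-1:ℝ)| ≤ 1; norm_num)
  have hvp : vp ∈ cube 1 := mem_cube1.2 (by show |(1:ℝ)| ≤ 1; norm_num)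
  have hpq : a vp - a vm ≠ 0 := by
    rw [sub_ne_zero, ← ha, ← ha]
    intro h
    have h5 := e.li vm hvm
    have h6 := e.li vp hvp
    rw [← h, h6] at h5
    have := congrFun h5 0
    have h7 : (1:ℝ) = -1 := this
    norm_num at h7
  obtain ⟨l, hl⟩ := SeparatingDual.exists_ne_zero (R := ℝ) hpq
  let χ : E →ᵃ[ℝ] ℝ := ((2 / l (a vp - a vm)) • (l : E →ₗ[ℝ] ℝ)).toAffineMap +
    AffineMap.const ℝ E (-1 - 2 / l (a vp - a vm) * l (a vm))
  have hχ : ∀ z, χ z = 2 / l (a vp - a vm) * l z + (-1 - 2 / l (a vp - a vm) * l (a vm)) :=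
    fun z => rfl
  refine ⟨χ, fun z hz => ?_⟩
  have h1 : z = AffineMap.lineMap (a vm) (a vp) ((1 + e.g z 0) / 2) := by
    rw [← a.apply_lineMap]
    have h2 : AffineMap.lineMap vm vp ((1 + e.g z 0) / 2) = e.g z := by
      funext i
      rw [Subsingleton.elim i 0, AffineMap.lineMap_apply, vsub_eq_sub, vadd_eq_add]
      show (1 + e.g z 0) / 2 * (1 - (-1)) + (-1) = e.g z 0
      ring
    rw [h2, ← ha, e.ri z hz]
  have h3 : χ (AffineMap.lineMap (a vm) (a vp) ((1 + e.g z 0) / 2)) = e.g z 0 := by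
    rw [hχ, AffineMap.lineMap_apply, vsub_eq_sub, vadd_eq_add, map_add, map_smul, smul_eq_mul]
    field_simp
    ring
  rw [← h1] at h3
  exact h3.symm

/-- affine coordinates of the edges -/
def EdC {Q : Type} [PartialOrder Q] (K : Q → Set E) (dim : Q → ℕ) (χ : Q → E → ℝ) : Prop :=
  ∀ q, dim q = 1 → ∃ (e : PLEquiv (cube 1) (K q)) (χ' : E →ᵃ[ℝ] ℝ), e.f '' sph 1 = bdS K q ∧
    ∀ z ∈ K q, χ q z = χ' z ∧ e.g z 0 = χ' z

/-- a segment with an affine parameter: the coordinate is `± t` and the boundary consists of the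
two ends -/
lemma coord_pm {S : Set E} (e : PLEquiv (cube 1) S) {χ' : E →ᵃ[ℝ] ℝ}
    (hχ : ∀ z ∈ S, e.g z 0 = χ' z) (m : ℝ →ᵃ[ℝ] E) (hm : ∀ t : ℝ, |t| ≤ 1 → m t ∈ S)
    (hms : ∀ z ∈ S, ∃ t : ℝ, |t| ≤ 1 ∧ m t = z) :
    ∃ θ : ℝ, (θ = 1 ∨ θ = -1) ∧ ∀ t : ℝ, |t| ≤ 1 → χ' (m t) = θ * t := by
  have haff : ∀ t : ℝ, χ' (m t) = (χ' (m 1) - χ' (m 0)) * t + χ' (m 0) := by
    intro t
    have h1 : (m t : E) = AffineMap.lineMap (m 0) (m 1) t := by
      rw [← m.apply_lineMap]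
      congr 1
      rw [AffineMap.lineMap_apply]
      simp
    rw [h1, χ'.apply_lineMap, AffineMap.lineMap_apply, vsub_eq_sub, vadd_eq_add, smul_eq_mul]
    ring
  have hb : ∀ t : ℝ, |t| ≤ 1 → |(χ' (m 1) - χ' (m 0)) * t + χ' (m 0)| ≤ 1 := by
    intro t ht
    rw [← haff, ← hχ _ (hm t ht)]
    exact mem_cube1.1 (e.mg (hm t ht))
  have hs : ∀ r : ℝ, |r| ≤ 1 → ∃ t : ℝ, |t| ≤ 1 ∧ (χ' (m 1) - χ' (m 0)) * t + χ' (m 0) = r := by
    intro r hr
    have hv : (fun _ => r : Fin 1 → ℝ) ∈ cube 1 := mem_cube1.2 hr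
    obtain ⟨t, ht, h⟩ := hms _ (e.mf hv)
    refine ⟨t, ht, ?_⟩
    rw [← haff, h, ← hχ _ (e.mf hv), e.li _ hv]
  obtain ⟨t, ht, h2⟩ := hs 1 (by norm_num)
  obtain ⟨t', ht', h3⟩ := hs (-1) (by norm_num)
  obtain ⟨h4, h5⟩ := pm_affine hb ht ht' h2 h3
  refine ⟨_, h4, fun t _ => ?_⟩
  rw [haff, h5, add_zero, sub_zero]

/-- the coordinate of another affine chart -/
lemma EdC.sign {Q : Type} [PartialOrder Q] {dim : Q → ℕ} {K : Q → Set E} {χ : Q → E → ℝ}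
    (h : EdC K dim χ) {q : Q} (hq : dim q = 1) {e : PLEquiv (cube 1) (K q)} (he : AffC e) :
    (∀ z ∈ K q, e.g z 0 = χ q z) ∨ (∀ z ∈ K q, e.g z 0 = - χ q z) := by
  obtain ⟨e', χ', -, h2⟩ := h q hq
  obtain ⟨a, ha⟩ := he
  let m : ℝ →ᵃ[ℝ] E := a.comp (LinearMap.pi fun _ => LinearMap.id : ℝ →ₗ[ℝ] (Fin 1 → ℝ)).toAffineMap
  have hm : ∀ t : ℝ, m t = e.f (fun _ => t) := fun t => (ha _).symm
  have hc : ∀ t : ℝ, |t| ≤ 1 → (fun _ => t : Fin 1 → ℝ) ∈ cube 1 := fun t ht => mem_cube1.2 ht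
  have hinv : ∀ z ∈ K q, m (e.g z 0) = z := fun z hz => by
    rw [hm]
    have : (fun _ => e.g z 0 : Fin 1 → ℝ) = e.g z := by
      funext i; rw [Subsingleton.elim i 0]
    rw [this, e.ri z hz]
  obtain ⟨θ, hθ, h3⟩ := coord_pm e' (fun z hz => (h2 z hz).2) m
    (fun t ht => by rw [hm]; exact e.mf (hc t ht))
    (fun z hz => ⟨e.g z 0, mem_cube1.1 (e.mg hz), hinv z hz⟩)
  rcases hθ with rfl | rfl
  · left
    intro z hz
    have h4 := h3 _ (mem_cube1.1 (e.mg hz))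
    rw [hinv z hz] at h4
    rw [(h2 z hz).1, h4, one_mul]
  · right
    intro z hz
    have h4 := h3 _ (mem_cube1.1 (e.mg hz))
    rw [hinv z hz] at h4
    rw [(h2 z hz).1, h4]
    ring

/-- affine coordinates exist (487's `exists_eA`) -/
theorem exists_edC {Q : Type} [PartialOrder Q] {dim : Q → ℕ} {K : Q → Set E}
    (e : ∀ τ, 1 ≤ dim τ → PLEquiv (cube (dim τ)) (K τ))
    (he : ∀ τ, ∀ hd : 1 ≤ dim τ, (e τ hd).f '' sph (dim τ) = bdS K τ)
    (hea : ∀ τ, ∀ hd : 1 ≤ dim τ, dim τ = 1 → AffC (e τ hd)) : ∃ χ : Q → E → ℝ, EdC K dim χ := by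
  have key : ∀ q, ∃ χ : E → ℝ, dim q = 1 → ∃ (e : PLEquiv (cube 1) (K q)) (χ' : E →ᵃ[ℝ] ℝ),
      e.f '' sph 1 = bdS K q ∧ ∀ z ∈ K q, χ z = χ' z ∧ e.g z 0 = χ' z := by
    intro q
    by_cases h : dim q = 1
    · have h1 := he q h.ge
      have h2 := hea q h.ge h
      generalize e q h.ge = e1 at h1 h2
      revert e1
      rw [h]
      intro e1 h1 h2
      obtain ⟨χ', hχ⟩ := affC_chi h2
      exact ⟨χ', fun _ => ⟨e1, χ', h1, fun z hz => ⟨rfl, hχ z hz⟩⟩⟩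
    · exact ⟨fun _ => 0, fun h' => absurd h' h⟩
  choose χ hχ using key
  exact ⟨χ, hχ⟩

end chi

end Crest.Agent.R096.Fsw_928
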