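import Crest.Agent.R096.Fsw31_928

/-!
# R096 (row 96), FACE-SWEEP, part 32: the geometry `Des`, `FG` of a designated face of a cell complex
(helper928)
-/

set_option autoImplicit false
set_option linter.unusedSectionVars false

open Set Metric Filter Topology MeasureTheory

namespace Crest.Agent.R096.Fsw_928

open Crest.Agent.R096.Ce_537 Crest.Agent.R096.Bd_416 Crest.Agent.R096.Fk_522
open Crest.Agent.R096.SkN1_477
open Crest.Agent.R096.SkC1_961 (E3)
open Crest.Agent.R96.Nu3_199 (ri)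

open scoped Classical

/-! ### cells -/

section cells

variable {E : Type*} [NormedAddCommGroup E] [NormedSpace ℝ E]
variable {Q : Type} [PartialOrder Q] {dim : Q → ℕ} {K : Q → Set E} {Ω : Set E}

lemma exists_opn_pt (X : Cplx Ω Q dim K) (q : Q) : ∃ x, Opn K q x := by
  obtain ⟨e, he⟩ := X.isBall q
  have h0 : (0 : Fin (dim q) → ℝ) ∈ cube (dim q) := mem_closedBall_self zero_le_one
  refine ⟨e.f 0, e.mf h0, fun j hj hx => ?_⟩
  have h1 : e.f 0 ∈ e.f '' sph (dim q) := by rw [he]; exact mem_biUnion hj hx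
  obtain ⟨v, hv, hve⟩ := h1
  have h2 : v = 0 := by rw [← e.li v (sph_subset_cube hv), hve, e.li 0 h0]
  rw [h2] at hv
  have h3 : ‖(0 : Fin (dim q) → ℝ)‖ = 1 := mem_sphere_zero_iff_norm.1 hv
  rw [norm_zero] at h3
  norm_num at h3

lemma le_of_sub (X : Cplx Ω Q dim K) {p q : Q} (h : K p ⊆ K q) : p ≤ q := by
  obtain ⟨x, hx⟩ := exists_opn_pt X p
  exact X.opn_le hx (h hx.1)

lemma eq_of_le (X : Cplx Ω Q dim K) {p q : Q} (h : p ≤ q) (hd : dim p = dim q) : p = q := by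
  rcases h.eq_or_lt with h | h
  · exact h
  · have := X.mono _ _ h
    omega

lemma opn_zero (X : Cplx Ω Q dim K) {v : Q} (hv : dim v = 0) {z : E} (hz : z ∈ K v) :
    Opn K v z := ⟨hz, fun j hj => by have := X.mono _ _ hj; omega⟩

lemma sing_zero (X : Cplx Ω Q dim K) {v : Q} (hv : dim v = 0) {z z' : E} (hz : z ∈ K v)
    (hz' : z' ∈ K v) : z = z' := by
  obtain ⟨e, he⟩ := X.isBall v
  have h : e.g z = e.g z' := by
    funext i
    have := i.2
    omega
  rw [← e.ri z hz, h, e.ri z' hz']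

end cells

/-! ### the sides -/

section sides

variable {ε : Fin 2 → ℝ} (hε : ∀ i, ε i = 1 ∨ ε i = -1) (B : E3 ≃ᵃ[ℝ] E3)

/-- the side `s` as an affine curve -/
noncomputable def mS (B : E3 ≃ᵃ[ℝ] E3) (ε : Fin 2 → ℝ) (s : Fin 4) : ℝ →ᵃ[ℝ] E3 :=
  (chA B ε).comp (AffineMap.lineMap (sd s 0) (sd s 1))

lemma mS_apply (s : Fin 4) (t : ℝ) : mS B ε s t = chA B ε (sd s t) := by
  show chA B ε (AffineMap.lineMap (sd s 0) (sd s 1) t) = _
  congr 1
  funext i
  rw [AffineMap.lineMap_apply]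
  show t * (sd s 1 i - sd s 0 i) + sd s 0 i = _
  fin_cases s <;> fin_cases i <;> simp [sd]

include hε

lemma chA_inj : Function.Injective (chA B ε) := fun z z' h => by
  rw [← chB_chA hε B z, h, chB_chA hε B z']

lemma side_eq (s : Fin 4) :
    SkN1_477.side B (dr s) (hgt ε s) = (fun t => chA B ε (sd s t)) '' Icc (-1) 1 := by
  have h := chU_sd hε B s
  have h1 : (chU hε B).f '' (sd s '' Icc (-1) 1) = (fun t => chA B ε (sd s t)) '' Icc (-1) 1 := by
    rw [image_image]; rfl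
  rw [← h1, h]
  fin_cases s <;> rfl

lemma mem_side {s : Fin 4} {t : ℝ} (ht : |t| ≤ 1) :
    chA B ε (sd s t) ∈ SkN1_477.side B (dr s) (hgt ε s) := by
  rw [side_eq hε]
  exact ⟨t, abs_le.1 ht, rfl⟩

/-- the corners of the sides -/
lemma cor_sd (s : Fin 4) : cor B ε (w0 s) = chA B ε (sd s (-1)) ∧
    cor B ε (w1 s) = chA B ε (sd s 1) := by
  have h := chU_corner hε B
  have key : ∀ k : Fin 4, cor B ε k = chA B ε ![cx k, cy k] := fun k => (h _ _).symm
  constructor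
  · rw [key]
    congr 1
    funext i
    fin_cases s <;> fin_cases i <;> simp [sd, cx, cy, w0]
  · rw [key]
    congr 1
    funext i
    fin_cases s <;> fin_cases i <;> simp [sd, cx, cy, w1]

/-- every corner belongs to two sides -/
lemma cor_two (k : Fin 4) : ∃ s s' : Fin 4, s ≠ s' ∧
    cor B ε k ∈ SkN1_477.side B (dr s) (hgt ε s) ∧
    cor B ε k ∈ SkN1_477.side B (dr s') (hgt ε s') := by
  fin_cases k
  · exact ⟨0, 2, by decide, cor_w0 B hε 0, cor_w0 B hε 2⟩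
  · exact ⟨0, 3, by decide, cor_w1 B hε 0, cor_w0 B hε 3⟩
  · exact ⟨1, 2, by decide, cor_w0 B hε 1, cor_w1 B hε 2⟩
  · exact ⟨1, 3, by decide, cor_w1 B hε 1, cor_w1 B hε 3⟩

/-- the sides are different -/
lemma side_inj {s s' : Fin 4}
    (h : SkN1_477.side B (dr s) (hgt ε s) = SkN1_477.side B (dr s') (hgt ε s')) : s = s' := by
  have h1 : chA B ε (sd s 0) ∈ SkN1_477.side B (dr s') (hgt ε s') := by
    rw [← h]; exact mem_side hε B (by norm_num)
  rw [side_eq hε] at h1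
  obtain ⟨t, -, ht⟩ := h1
  have h2 := chA_inj hε B ht
  have h20 := congrFun h2 0
  have h21 := congrFun h2 1
  fin_cases s <;> fin_cases s' <;> simp [sd] at h20 h21 ⊢ <;> linarith

/-- the boundary of the face -/
lemma bd_usq : usq B \ ri (usq B) = chA B ε '' sph 2 := by
  have h1 : usq B = chA B ε '' cube 2 := by
    apply Subset.antisymm
    · intro x hx
      exact ⟨chB B ε x, chB_mem hε B hx, chA_chB hε B hx⟩
    · rintro _ ⟨z, hz, rfl⟩
      exact chA_mem hε B hz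
  rw [h1, ri_inj _ (chA_inj hε B), ri_ball, ← image_sdiff (chA_inj hε B)]
  congr 1
  ext z
  constructor
  · rintro ⟨h2, h3⟩
    rw [mem_ball_zero_iff, not_lt] at h3
    exact mem_sphere_zero_iff_norm.2 (le_antisymm (mem_closedBall_zero_iff.1 h2) h3)
  · intro h2
    have h3 : ‖z‖ = 1 := mem_sphere_zero_iff_norm.1 h2
    refine ⟨mem_closedBall_zero_iff.2 h3.le, fun h4 => ?_⟩
    rw [mem_ball_zero_iff, h3] at h4
    exact lt_irrefl _ h4

end sides

/-! ### the geometry of a designated face -/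

section des

variable {Q : Type} [PartialOrder Q] {dim : Q → ℕ} {J Fam : Type} {K : Q → Set E3} {Ω : Set E3}

/-- the boundary of an edge which is a side -/
lemma bd_edge {χ : Q → E3 → ℝ} (hχ : EdC K dim χ) {ε : Fin 2 → ℝ} (hε : ∀ i, ε i = 1 ∨ ε i = -1)
    (B : E3 ≃ᵃ[ℝ] E3) {q : Q} (hq : dim q = 1) {s : Fin 4}
    (hs : K q = SkN1_477.side B (dr s) (hgt ε s)) :
    (∃ θ : ℝ, (θ = 1 ∨ θ = -1) ∧ ∀ t : ℝ, |t| ≤ 1 → χ q (chA B ε (sd s t)) = θ * t) ∧
    ∀ z ∈ bdS K q, z = cor B ε (w0 s) ∨ z = cor B ε (w1 s) := by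
  obtain ⟨e, χ', he, h2⟩ := hχ q hq
  have hm : ∀ t : ℝ, |t| ≤ 1 → mS B ε s t ∈ K q := fun t ht => by
    rw [mS_apply, hs]; exact mem_side hε B ht
  have hms : ∀ z ∈ K q, ∃ t : ℝ, |t| ≤ 1 ∧ mS B ε s t = z := fun z hz => by
    rw [hs, side_eq hε] at hz
    obtain ⟨t, ht, rfl⟩ := hz
    exact ⟨t, abs_le.2 ht, mS_apply B s t⟩
  obtain ⟨θ, hθ, h3⟩ := coord_pm e (fun z hz => (h2 z hz).2) (mS B ε s) hm hms
  refine ⟨⟨θ, hθ, fun t ht => ?_⟩, fun z hz => ?_⟩
  · rw [← mS_apply, (h2 _ (hm t ht)).1, h3 t ht]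
  · rw [← he] at hz
    obtain ⟨v, hv, rfl⟩ := hz
    have hvc := sph_subset_cube hv
    obtain ⟨t, ht, h4⟩ := hms _ (e.mf hvc)
    have h5 := h3 t ht
    rw [h4, ← (h2 _ (e.mf hvc)).2, e.li v hvc] at h5
    have h6 : |t| = 1 := by
      have h7 := mem_sph1.1 hv
      rw [h5, abs_mul] at h7
      rcases hθ with h | h <;> rw [h] at h7 <;> simpa using h7
    rw [← h4, mS_apply]
    rcases (abs_eq zero_le_one).1 h6 with h | h
    · right; rw [h, (cor_sd hε B s).2]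
    · left; rw [h, (cor_sd hε B s).1]

/-- a vertex of the face is a corner -/
lemma vert_corner (X : Cplx Ω Q dim K) {χ : Q → E3 → ℝ} (hχ : EdC K dim χ)
    (hbd : ∀ τ, bdS K τ = K τ \ ri (K τ)) {τ : Q} {B : E3 ≃ᵃ[ℝ] E3}
    (hK : K τ = usq B) {ε : Fin 2 → ℝ} (hε : ∀ i, ε i = 1 ∨ ε i = -1)
    (hs : ∀ s : Fin 4, ∃ q, dim q = 1 ∧ K q = SkN1_477.side B (dr s) (hgt ε s))
    {v : Q} (hv : dim v = 0) (hlt : v < τ) {z : E3} (hz : z ∈ K v) : ∃ k, z = cor B ε k := by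
  have h1 : z ∈ bdS K τ := mem_biUnion hlt hz
  rw [hbd, hK, bd_usq hε B] at h1
  obtain ⟨ω, hω, rfl⟩ := h1
  obtain ⟨s, t, ht, rfl⟩ := exists_sd hω
  obtain ⟨q, hq, hqK⟩ := hs s
  have h2 : chA B ε (sd s t) ∈ K q := by rw [hqK]; exact mem_side hε B ht
  have h3 : v < q := lt_of_le_of_ne (X.opn_le (opn_zero X hv hz) h2) (by rintro rfl; omega)
  rcases (bd_edge hχ hε B hq hqK).2 _ (mem_biUnion h3 hz) with h | h
  · exact ⟨_, h⟩
  · exact ⟨_, h⟩

/-- **THE GEOMETRY OF A DESIGNATED FACE** -/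
theorem exists_des {C : Cmb Q dim J Fam} (X : Cplx Ω Q dim K) {χ : Q → E3 → ℝ}
    (hχ : EdC K dim χ) (hbd : ∀ τ, bdS K τ = K τ \ ri (K τ)) {τ : Q} (hd : dim τ = 2)
    {B : E3 ≃ᵃ[ℝ] E3} (hK : K τ = usq B)
    (hs : ∀ (j : Fin 2) (b : ℝ), b = 0 ∨ b = 1 → ∃ q, dim q = 1 ∧ K q = SkN1_477.side B j b) :
    ∃ (ε : Fin 2 → ℝ) (G : Des C K χ τ), FG G.S K B ε ∧
      (∀ z, G.A.f z = B.symm (emb (tau ε z))) ∧ (∀ x, G.A.g x = utau ε (qmb (B x))) := by
  -- the frame
  obtain ⟨ε, hε, hbase⟩ : ∃ ε : Fin 2 → ℝ, (∀ i, ε i = 1 ∨ ε i = -1) ∧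
      cor B ε 3 ∈ K (C.o τ) := by
    have hlt := C.o_lt τ (by omega)
    have hv := C.o_dim τ (by omega)
    obtain ⟨z, hz⟩ := (X.isBall (C.o τ)).nonempty
    let ε1 : Fin 2 → ℝ := fun _ => 1
    have hε1 : ∀ i, ε1 i = 1 ∨ ε1 i = -1 := fun _ => Or.inl rfl
    obtain ⟨k, rfl⟩ := vert_corner X hχ hbd hK hε1 (fun s => hs _ _ (hgt01 hε1 s)) hv hlt hz
    have ha : (1 + ε1 0 * cx k) / 2 = 0 ∨ (1 + ε1 0 * cx k) / 2 = 1 := by
      show (1 + 1 * cx k) / 2 = 0 ∨ (1 + 1 * cx k) / 2 = 1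
      fin_cases k <;> simp [cx]
    have hb : (1 + ε1 1 * cy k) / 2 = 0 ∨ (1 + ε1 1 * cy k) / 2 = 1 := by
      show (1 + 1 * cy k) / 2 = 0 ∨ (1 + 1 * cy k) / 2 = 1
      fin_cases k <;> simp [cy]
    obtain ⟨ε, hε, e0, e1⟩ := exists_eps ha hb
    refine ⟨ε, hε, ?_⟩
    have e3 : cor B ε 3 = cor B ε1 k := by
      show corner B ((1 + ε 0 * 1) / 2) ((1 + ε 1 * 1) / 2) =
        corner B ((1 + ε1 0 * cx k) / 2) ((1 + ε1 1 * cy k) / 2)
      rw [mul_one, mul_one, e0, e1]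
    rw [e3]
    exact hz
  -- the sides
  choose es hes1 hesK using fun s : Fin 4 => hs (dr s) (hgt ε s) (hgt01 hε s)
  have hinj : Function.Injective es := fun s s' h => by
    refine side_inj hε B ?_
    rw [← hesK, ← hesK, h]
  have hlt : ∀ s, es s < τ := fun s => by
    have h1 : K (es s) ⊆ K τ := by
      rw [hesK, hK]; exact side_sub B _ (hgt01 hε s)
    refine lt_of_le_of_ne (le_of_sub X h1) ?_
    intro h
    have := hes1 s
    rw [h] at this
    omega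
  have honto : ∀ σ < τ, dim σ = 1 → ∃ s, es s = σ := by
    intro σ hσ hσ1
    obtain ⟨x, hx⟩ := exists_opn_pt X σ
    have h1 : x ∈ bdS K τ := mem_biUnion hσ hx.1
    rw [hbd, hK, bd_usq hε B] at h1
    obtain ⟨ω, hω, rfl⟩ := h1
    obtain ⟨s, t, ht, rfl⟩ := exists_sd hω
    refine ⟨s, (eq_of_le X (X.opn_le hx ?_) (by rw [hσ1, hes1])).symm⟩
    rw [hesK]
    exact mem_side hε B ht
  -- the corners
  have hcor : ∀ k, ∃ v, dim v = 0 ∧ cor B ε k ∈ K v := by
    intro k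
    obtain ⟨s, s', hne, h1, h2⟩ := cor_two hε B k
    rw [← hesK] at h1 h2
    obtain ⟨m, hm, hmo⟩ := X.exists_opn h1
    have hm' := X.opn_le hmo h2
    refine ⟨m, ?_, hmo.1⟩
    by_contra hcon
    have h3 : dim m ≤ 1 := by
      rcases hm.eq_or_lt with h | h
      · rw [h, hes1]
      · have := X.mono _ _ h
        have := hes1 s
        omega
    have e1 := eq_of_le X hm (by rw [hes1]; omega)
    have e2 := eq_of_le X hm' (by rw [hes1]; omega)
    exact hne (hinj (e1.symm.trans e2))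
  choose v hv0 hvc using hcor
  have hvo : ∀ k, Opn K (v k) (cor B ε k) := fun k => opn_zero X (hv0 k) (hvc k)
  have hvlt : ∀ k s, cor B ε k ∈ K (es s) → v k < es s := fun k s h =>
    lt_of_le_of_ne (X.opn_le (hvo k) h) (by
      intro h'
      have := hes1 s
      rw [← h', hv0] at this
      omega)
  have hl0 : ∀ s, v (w0 s) < es s := fun s => hvlt _ _ (by rw [hesK]; exact cor_w0 B hε s)
  have hl1 : ∀ s, v (w1 s) < es s := fun s => hvlt _ _ (by rw [hesK]; exact cor_w1 B hε s)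
  have hne : ∀ s, v (w0 s) ≠ v (w1 s) := fun s h => by
    have h1 := hvc (w0 s)
    rw [h] at h1
    have h2 := sing_zero X (hv0 _) h1 (hvc (w1 s))
    rw [(cor_sd hε B s).1, (cor_sd hε B s).2] at h2
    have h3 := chA_inj hε B h2
    have h4 := congrFun h3 0
    have h5 := congrFun h3 1
    fin_cases s <;> simp [sd] at h4 h5 <;> linarith
  have hob : ∀ s, C.o (es s) = v (w0 s) ∨ C.o (es s) = v (w1 s) := by
    intro s
    have h1 := C.o_lt (es s) (hes1 s).ge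
    have h2 := C.o_dim (es s) (hes1 s).ge
    obtain ⟨z, hz⟩ := (X.isBall (C.o (es s))).nonempty
    rcases (bd_edge hχ hε B (hes1 s) (hesK s)).2 z (mem_biUnion h1 hz) with h | h
    · left
      exact X.disj _ _ z (opn_zero X h2 hz) (by rw [h]; exact hvo _)
    · right
      exact X.disj _ _ z (opn_zero X h2 hz) (by rw [h]; exact hvo _)
  have hbs : C.o τ = v 3 :=
    X.disj _ _ (cor B ε 3) (opn_zero X (C.o_dim τ (by omega)) hbase) (hvo 3)
  let S : SqC C τ :=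
    { es := es, lt := hlt, d1 := hes1, inj := hinj, onto := honto, v := v, l0 := hl0, l1 := hl1
      ne := hne, ob := hob, base := hbs }
  -- the chart
  obtain ⟨A, hAf, hAg⟩ : ∃ A : PLEquiv (cube 2) (K τ), (∀ z, A.f z = chA B ε z) ∧
      (∀ x, A.g x = chB B ε x) := by
    rw [hK]
    exact ⟨chU hε B, fun _ => rfl, fun _ => rfl⟩
  choose θ hθ1 hθ using fun s => (bd_edge hχ hε B (hes1 s) (hesK s)).1
  let G : Des C K χ τ :=
    { S := S, d2 := hd, A := A
      sph := by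
        have h1 : bdS K τ = chA B ε '' sph 2 := by rw [hbd, hK, bd_usq hε B]
        rw [h1]
        exact image_congr fun z _ => hAf z
      side := fun s t ht => by
        rw [hAf]
        show _ ∈ K (es s)
        rw [hesK]
        exact mem_side hε B ht
      base := by
        rw [hAf]
        have h1 := (cor_sd hε B 1).2
        have h2 : cor B ε 3 = chA B ε (sd 1 1) := h1
        rw [← h2]
        exact hbase
      θ := θ, θ1 := hθ1
      χA := fun s t ht => by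
        rw [hAf]
        exact hθ s t ht }
  refine ⟨ε, G, ⟨hε, hK, hesK, hv0, hvc⟩, fun z => ?_, fun x => ?_⟩
  · show A.f z = _
    rw [hAf, chA_apply]
  · show A.g x = _
    rw [hAg]; rfl

end des

end Crest.Agent.R096.Fsw_928
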