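import Crest.Agent.R096.Fsw32_928
import Crest.Agent.R096.Fk16_522

/-!
# R096 (row 96), FACE-SWEEP, part 33: the clause `face` for one designated 2-cell, all constants
chosen (helper928)
-/

set_option autoImplicit false
set_option linter.unusedSectionVars false

open Set Metric Filter Topology MeasureTheory
open scoped ENNReal

namespace Crest.Agent.R096.Fsw_928

open Crest.Agent.R096.Ce_537 Crest.Agent.R096.Bd_416 Crest.Agent.R096.Fk_522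
open Crest.Agent.R096.SkN1_477 Crest.Agent.R096.Mg_441 Crest.Agent.R096.On_441
open Crest.Agent.R096.SkC1_961 (E3 FoamD)

open scoped Classical

/-- **THE CLAUSE `face`, ONE CELL, ALL CONSTANTS**: `δ` margin of the edges, `P1 P2` sweep, `θ` factor
of the empty directions, `ε` loss, `β0` lower bound of the squeezing numbers, `CL` Lipschitz constant
of the cell, `η1` purity -/
theorem face_end {p : ℝ} (hp : 1 ≤ p) {Λ : ℝ} (hΛ : 1 ≤ Λ) {e : ℝ} (he : 0 < e) :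
    ∃ δ : ℝ, 0 < δ ∧ δ ≤ 1/4 ∧ ∃ P1 P2 : Par, ∃ η : ℝ, 0 < η ∧ η ≤ 1 ∧ HasDep P1 P2 δ η ∧
    ∃ θ : ℝ, 0 < θ ∧ 2 * θ ≤ η ∧ ∃ ε : ℝ, 0 < ε ∧ ε ≤ 1/4 ∧ 4 * ε ≤ η ∧ ∃ β0 : ℝ, 1/4 ≤ β0 ∧
    β0 < 1/2 ∧ ∀ CL : ℝ, 0 ≤ CL → ∃ η1 : ℝ, 0 < η1 ∧ η1 ≤ θ ∧ 2 * Λ * η1 ≤ 1 ∧
    44 * Λ * η1 + 2 * ε ≤ η ∧
    ∀ {δ' κ0 R c0 : ℝ} {La : Set E3} (Φ : FoamD δ' κ0 R c0 La) (κ : Φ.F → ℕ)
      (L : Φ.F → Finset ℝ) {Q : Type} [PartialOrder Q] {dim : Q → ℕ} {J : Type}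
      {C : Cmb Q dim J Φ.F} {K : Q → Set E3} {g : Gd E3 J}
      {Pc : ∀ q, C.I q → Set E3} {c : ∀ q, C.I q → E3 → ℝ} (_ : Bd_416.Inv C K univ g Pc c)
      {τ : Q} {χ : Q → E3 → ℝ} (G : Des C K χ τ)
      (_ : ∀ x : C.I τ, ∃ a b, a ≠ b ∧ Arc_778.Blw C τ x = {a, b})
      (B : E3 ≃ᵃ[ℝ] E3) (ε0 : Fin 2 → ℝ) (_ : FG G.S K B ε0)
      (_ : ∀ z ∈ cube 2, G.A.f z = B.symm (emb (tau ε0 z)))
      (hfin : ∀ a, {j | C.fam j = a}.Finite) (wt : J → ℝ) (_ : ∀ j, 0 < wt j) (rr : Φ.F → ℝ)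
      (_ : ∀ a, 1 ≤ rr a) (_ : ∀ a, (mm hfin a : ℝ) = rr a * (L a).card)
      (_ : ∀ j, rr (C.fam j) * wt j = (2:ℝ)⁻¹ ^ κ (C.fam j))
      (n : Set E3 → Φ.F → ℝ)
      (_ : ∀ s a, n (SkN1_477.side B (dr s) (hgt ε0 s)) a = nP C (G.S.es s) a / rr a)
      (μ : ℝ) (_ : 0 < μ) (a : Fin 2 → ℝ) (_ : ∀ i, a i = 0 ∨ (μ / Λ ≤ a i ∧ a i ≤ μ))
      (wd : Q → ℝ) (d t : Fin 4 → ℝ) (_ : ∀ s, 0 < d s) (_ : ∀ s, d s ≤ η1 * μ)
      (b : ℕ → ℝ) (_ : ∀ n, β0 ≤ b n)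
      (_ : (∃ T cc σ, DP G.S wt T cc σ a (η1 * μ)) → (∃ i, a i ≠ 0) →
        (∀ s, a (dr s) ≠ 0 → t s = 1) ∧ (∀ s, a (dr s) = 0 → t s = θ) ∧
        (∀ s, wd (G.S.es s) =
          4 * (1 - δ) * (1 - ε) * (t s * (1 / (2 * (G.S.W wt s + d s))))) ∧
        ∃ M, SpecF C K wt δ wd χ P1 P2 (b 2) η G M ∧ Sqd C K τ (2 * b 3) M g (Pc τ) (c τ))
      (_ : ∀ x, ∀ z ∈ usq B,
        LB B (CL * (∑ s, G.S.W wt s + η1 * μ) / wt (C.col τ x)) (c τ x) (K τ) z)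
      (c1 c2 : Φ.F) (σ1 σ2 : ℝ)
      (_ : FaceIn Φ κ L (fun x => uu hfin g x) n η1 μ a B c1 c2 σ1 σ2),
      FaceOut p Φ κ L (fun x => uu hfin g x) e μ a B c1 c2 σ1 σ2 := by
  obtain ⟨δ, h1, h2, h3⟩ := face_clause hp (by norm_num : (1:ℝ) ≤ 3) he
  obtain ⟨P1, P2, η0, h4, h5, h6⟩ := h3 δ h1 le_rfl
  obtain ⟨hdep, hcl⟩ := h6 η0 h4.le le_rfl
  refine ⟨δ, h1, h2, P1, P2, η0, h4, by linarith, @hdep, η0 / 2, by linarith, by linarith,
    η0 / 8, by linarith, by linarith, by linarith, 1/2 * (1 - η0 / 4), by linarith,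
    by linarith, fun CL hCL => ?_⟩
  have hp0 : 0 < p := by linarith
  -- the purity
  obtain ⟨η1, k0, k1, k2, k3⟩ : ∃ η1 : ℝ, 0 < η1 ∧ 44 * Λ * η1 ≤ η0 / 2 ∧ 44 * η1 ≤ δ ∧
      9 * CL * η1 ≤ e ^ (1 / p) := by
    have he' : 0 < e ^ (1 / p) := Real.rpow_pos_of_pos he _
    have hΛ0 : 0 < Λ := by linarith
    refine ⟨min (η0 / (88 * Λ)) (min (δ / 44) (e ^ (1 / p) / (9 * CL + 1))), ?_, ?_, ?_, ?_⟩
    · refine lt_min (by positivity) (lt_min (by positivity) (by positivity))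
    · have h := min_le_left (η0 / (88 * Λ)) (min (δ / 44) (e ^ (1 / p) / (9 * CL + 1)))
      calc 44 * Λ * _ ≤ 44 * Λ * (η0 / (88 * Λ)) := mul_le_mul_of_nonneg_left h (by positivity)
        _ = η0 / 2 := by field_simp; ring
    · have h := (min_le_right (η0 / (88 * Λ)) (min (δ / 44) (e ^ (1 / p) / (9 * CL + 1)))).trans
        (min_le_left _ _)
      linarith
    · have h := (min_le_right (η0 / (88 * Λ)) (min (δ / 44) (e ^ (1 / p) / (9 * CL + 1)))).trans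
        (min_le_right _ _)
      calc 9 * CL * _ ≤ 9 * CL * (e ^ (1 / p) / (9 * CL + 1)) :=
            mul_le_mul_of_nonneg_left h (by positivity)
        _ = e ^ (1 / p) * (9 * CL / (9 * CL + 1)) := by ring
        _ ≤ e ^ (1 / p) * 1 := by
            refine mul_le_mul_of_nonneg_left ?_ he'.le
            rw [div_le_one (by positivity)]
            linarith
        _ = _ := mul_one _
  have k4 : η1 ≤ η0 / 2 := by nlinarith
  have k5 : 2 * Λ * η1 ≤ 1 := by nlinarith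
  refine ⟨η1, k0, k4, k5, by linarith, ?_⟩
  intro δ' κ0 R c0 La Φ κ L Q _ dim J C K g Pc c H τ χ G hends B ε0 FGe hGA hfin wt hw rr hr hm hwt n
    hn μ hμ a hab wd d t hd0 hd1 b hb hN hL c1 c2 σ1 σ2 F
  have hD := dp_of_faceIn H FGe (fun _ => mem_univ _) (fun _ => mem_univ _) hfin hw hr hm hwt hn F
  have hb3 : ∀ n, 0 < b n := fun n => by have := hb n; nlinarith
  by_cases ha : ∃ i, a i ≠ 0
  · obtain ⟨ht, ht0, hν, M, hS, hSq⟩ := hN ⟨_, _, _, hD⟩ ha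
    have hnum : ∀ (T : Fin 2 → Finset J) (cc : Fin 2 → Φ.F) (σ : Fin 2 → ℝ)
        (_ : DP G.S wt T cc σ a (η1 * μ)), NumF G.S wt (G.nu wd) a (η1 * μ) δ η0 ∧
        1 / αX (G.nu wd) ≤ 3 * μ ∧ ∀ s, a (dr s) ≠ 0 →
          |a (dr s) - 2 / G.nu wd s| ≤ (3 * η1 + 5 * (δ + η0 / 8)) * μ := by
      intro T cc σ hDP
      exact hDP.numF hw rfl hμ hΛ hab k0 k5 k4 h1.le h2 (by linarith) (by linarith) (by linarith)
        (by linarith) hd0 hd1 ht ht0 hν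
    obtain ⟨-, hα, hsl⟩ := hnum _ _ _ hD
    refine hcl Φ κ L H (mem_univ _) G (fun _ => mem_univ _) (fun _ => mem_univ _) B ε0 FGe hGA
      hfin wt hw rr hr hm hwt n hn wd (b 2) M hS (2 * b 3) hSq ?_ η1 μ hμ a ?_ hα
      (fun s hs => (hsl s hs).trans ?_) c1 c2 σ1 σ2 F
    · have e2 := hb 2
      have e3 := hb 3
      nlinarith
    · intro T cc σ hDP L' B'
      obtain ⟨hNF, -, -⟩ := hnum T cc σ hDP
      exact B'.pure (by have := G.d2; omega) hw hNF.ν0 hends hDP hNF.m0 hNF.η11 hNF.full hNF.νν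
    · refine mul_le_mul_of_nonneg_right ?_ hμ.le
      linarith
  · push Not at ha
    have hW0 : ∀ s, 0 ≤ G.S.W wt s := fun s => Finset.sum_nonneg fun y _ => (hw _).le
    have hWs : ∑ s, G.S.W wt s ≤ 8 * (η1 * μ) := by
      have h7 : ∀ s, G.S.W wt s ≤ 2 * (η1 * μ) := fun s => by
        have := hD.W_hi hw s
        rw [ha (dr s), zero_add] at this
        exact this
      calc ∑ s, G.S.W wt s ≤ ∑ _s : Fin 4, 2 * (η1 * μ) := Finset.sum_le_sum fun s _ => h7 s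
        _ = 8 * (η1 * μ) := by
            rw [Finset.sum_const, Finset.card_univ, Fintype.card_fin, nsmul_eq_mul]
            push_cast
            ring
    have hS0 : 0 ≤ CL * (∑ s, G.S.W wt s + η1 * μ) :=
      mul_nonneg hCL (add_nonneg (Finset.sum_nonneg fun s _ => hW0 s) (by positivity))
    have hS1 : CL * (∑ s, G.S.W wt s + η1 * μ) ≤ e ^ (1 / p) * μ := by
      calc CL * (∑ s, G.S.W wt s + η1 * μ) ≤ CL * (8 * (η1 * μ) + η1 * μ) :=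
            mul_le_mul_of_nonneg_left (by linarith) hCL
        _ = 9 * CL * η1 * μ := by ring
        _ ≤ _ := mul_le_mul_of_nonneg_right k3 hμ.le
    refine face_out_zero Φ κ L H (mem_univ τ) hfin wt hw rr c1 c2 (fun a' _ => ⟨hm a', fun j hj => by
      rw [← hj]; exact hwt j⟩) B (by rw [FGe.face]) hS0 hL hp0.le ?_ ha σ1 σ2
    calc (CL * (∑ s, G.S.W wt s + η1 * μ)) ^ p ≤ (e ^ (1 / p) * μ) ^ p :=
          Real.rpow_le_rpow hS0 hS1 hp0.le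
      _ = e * μ ^ p := by
          rw [Real.mul_rpow (Real.rpow_nonneg he.le _) hμ.le, ← Real.rpow_mul he.le,
            one_div, inv_mul_cancel₀ hp0.ne', Real.rpow_one]

end Crest.Agent.R096.Fsw_928
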