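import Crest.Agent.R096.Fsw32_928

/-!
# R096 (row 96), FACE-SWEEP, part 34: two frames of the same designated face (helper928)
-/

set_option autoImplicit false
set_option linter.unusedSectionVars false

open Set Metric Filter Topology MeasureTheory

namespace Crest.Agent.R096.Fsw_928

open Crest.Agent.R096.Ce_537 Crest.Agent.R096.Bd_416 Crest.Agent.R096.Fk_522
open Crest.Agent.R096.SkN1_477
open Crest.Agent.R096.SkC1_961 (E3)

open scoped Classical

lemma cor_chA {ε : Fin 2 → ℝ} (hε : ∀ i, ε i = 1 ∨ ε i = -1) (B : E3 ≃ᵃ[ℝ] E3) (k : Fin 4) :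
    cor B ε k = chA B ε ![cx k, cy k] := (chU_corner hε B _ _).symm

/-- a corner lies only on its two sides -/
lemma cor_side {ε : Fin 2 → ℝ} (hε : ∀ i, ε i = 1 ∨ ε i = -1) (B : E3 ≃ᵃ[ℝ] E3) {k s : Fin 4}
    (h : cor B ε k ∈ SkN1_477.side B (dr s) (hgt ε s)) : k = w0 s ∨ k = w1 s := by
  rw [side_eq hε, cor_chA hε] at h
  obtain ⟨t, -, ht⟩ := h
  have h1 := chA_inj hε B ht
  have h10 := congrFun h1 0
  have h11 := congrFun h1 1
  fin_cases s <;> fin_cases k <;> simp [sd, cx, cy] at h10 h11 <;>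
    first
    | (exfalso; linarith)
    | (left; rfl)
    | (right; rfl)

/-- the first side of a corner -/
def sA : Fin 4 → Fin 4 := ![0, 0, 1, 1]
/-- the second side of a corner -/
def sB : Fin 4 → Fin 4 := ![2, 3, 2, 3]

lemma cor_sA {ε : Fin 2 → ℝ} (hε : ∀ i, ε i = 1 ∨ ε i = -1) (B : E3 ≃ᵃ[ℝ] E3) (k : Fin 4) :
    cor B ε k ∈ SkN1_477.side B (dr (sA k)) (hgt ε (sA k)) := by
  fin_cases k
  · exact cor_w0 B hε 0
  · exact cor_w1 B hε 0
  · exact cor_w0 B hε 1
  · exact cor_w1 B hε 1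

lemma cor_sB {ε : Fin 2 → ℝ} (hε : ∀ i, ε i = 1 ∨ ε i = -1) (B : E3 ≃ᵃ[ℝ] E3) (k : Fin 4) :
    cor B ε k ∈ SkN1_477.side B (dr (sB k)) (hgt ε (sB k)) := by
  fin_cases k
  · exact cor_w0 B hε 2
  · exact cor_w0 B hε 3
  · exact cor_w1 B hε 2
  · exact cor_w1 B hε 3

/-- the intersection of the two sides is the corner -/
lemma eq_cor {ε : Fin 2 → ℝ} (hε : ∀ i, ε i = 1 ∨ ε i = -1) (B : E3 ≃ᵃ[ℝ] E3) {k : Fin 4} {x : E3}
    (h1 : x ∈ SkN1_477.side B (dr (sA k)) (hgt ε (sA k)))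
    (h2 : x ∈ SkN1_477.side B (dr (sB k)) (hgt ε (sB k))) : x = cor B ε k := by
  rw [side_eq hε] at h1 h2
  obtain ⟨t, -, ht⟩ := h1
  obtain ⟨t', -, ht'⟩ := h2
  have h3 := chA_inj hε B (ht.trans ht'.symm)
  have h30 := congrFun h3 0
  have h31 := congrFun h3 1
  rw [← ht, cor_chA hε]
  dsimp only
  congr 1
  funext i
  fin_cases k <;> simp [sd, sA, sB] at h30 h31 <;> fin_cases i <;> simp [sd, sA, cx, cy] <;>
    linarith

/-- an affine map of the plane is determined by three corners -/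
lemma aff_three (f g : (Fin 2 → ℝ) →ᵃ[ℝ] E3) (h3 : f ![1, 1] = g ![1, 1])
    (h2 : f ![-1, 1] = g ![-1, 1]) (h1 : f ![1, -1] = g ![1, -1]) (z : Fin 2 → ℝ) : f z = g z := by
  have key : ∀ f : (Fin 2 → ℝ) →ᵃ[ℝ] E3, f z = f ![1, 1] + ((z 0 - 1) / 2) • (f ![1, 1] -
      f ![-1, 1]) + ((z 1 - 1) / 2) • (f ![1, 1] - f ![1, -1]) := by
    intro f
    have e1 : ∀ v w : Fin 2 → ℝ, f v - f w = f.linear (v - w) := fun v w =>
      (f.linearMap_vsub v w).symm
    have e2 : f z = f ![1, 1] + f.linear (z - ![1, 1]) := by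
      rw [← e1]; abel
    rw [e2, e1, e1, add_assoc, ← map_smul, ← map_smul, ← map_add]
    congr 2
    funext i
    fin_cases i
    · show z 0 - 1 = (z 0 - 1) / 2 * (1 - (-1)) + (z 1 - 1) / 2 * (1 - 1)
      ring
    · show z 1 - 1 = (z 0 - 1) / 2 * (1 - 1) + (z 1 - 1) / 2 * (1 - (-1))
      ring
  rw [key f, key g, h1, h2, h3]

section transfer

variable {Q : Type} [PartialOrder Q] {dim : Q → ℕ} {J Fam : Type} {K : Q → Set E3} {Ω : Set E3}
  {C : Cmb Q dim J Fam} {χ χ' : Q → E3 → ℝ} {τ : Q}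

/-- **two frames of the same designated face** with the same directions: the chart and the
cells are the same -/
theorem FG.transfer (X : Cplx Ω Q dim K) (G : Des C K χ τ) {B B' : E3 ≃ᵃ[ℝ] E3}
    {ε ε' : Fin 2 → ℝ} (F : FG G.S K B ε) (hA : ∀ z, G.A.f z = B.symm (emb (tau ε z)))
    (G' : Des C K χ' τ) (F' : FG G'.S K B' ε')
    (dir : ∀ (j j' : Fin 2) (b b' : ℝ), SkN1_477.side B j b = SkN1_477.side B' j' b' → j = j') :
    FG G.S K B' ε' ∧ ∀ z, G.A.f z = B'.symm (emb (tau ε' z)) := by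
  have hε := F.e1
  have hε' := F'.e1
  -- the sides of the first frame are sides of the second one
  have hπ : ∀ s, ∃ s', G'.S.es s' = G.S.es s ∧ dr s' = dr s := by
    intro s
    obtain ⟨s', hs'⟩ := G'.S.onto (G.S.es s) (G.S.lt s) (G.S.d1 s)
    refine ⟨s', hs', ?_⟩
    refine (dir _ _ (hgt ε s) (hgt ε' s') ?_).symm
    rw [← F.side, ← F'.side, hs']
  -- the base corner
  have h3 : cor B ε 3 = cor B' ε' 3 := by
    have h1 := F.vtx 3
    have h2 := F'.vtx 3
    rw [← G.S.base] at h1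
    rw [← G'.S.base] at h2
    exact sing_zero X (C.o_dim τ (by have := G.d2; omega)) h1 h2
  have dr0 : ∀ s : Fin 4, dr s = 0 → s = 0 ∨ s = 1 := by decide
  have dr1 : ∀ s : Fin 4, dr s = 1 → s = 2 ∨ s = 3 := by decide
  have c3 : ∀ s, cor B ε 3 ∈ K (G.S.es s) → (s = 1 ∨ s = 3) := by
    intro s h
    rw [F.side] at h
    rcases cor_side hε B h with h | h <;> fin_cases s <;> simp [w0, w1] at h ⊢
  have c3' : ∀ s, cor B' ε' 3 ∈ K (G'.S.es s) → (s = 1 ∨ s = 3) := by
    intro s h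
    rw [F'.side] at h
    rcases cor_side hε' B' h with h | h <;> fin_cases s <;> simp [w0, w1] at h ⊢
  have m1 : cor B ε 3 ∈ K (G.S.es 1) := by rw [F.side]; exact cor_sA hε B 3
  have m3 : cor B ε 3 ∈ K (G.S.es 3) := by rw [F.side]; exact cor_sB hε B 3
  have e1 : G'.S.es 1 = G.S.es 1 := by
    obtain ⟨s', h1, h2⟩ := hπ 1
    rw [← h1, h3] at m1
    rcases c3' s' m1 with rfl | rfl
    · exact h1
    · exact absurd h2 (by decide)
  have e3 : G'.S.es 3 = G.S.es 3 := by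
    obtain ⟨s', h1, h2⟩ := hπ 3
    rw [← h1, h3] at m3
    rcases c3' s' m3 with rfl | rfl
    · exact absurd h2 (by decide)
    · exact h1
  have e0 : G'.S.es 0 = G.S.es 0 := by
    obtain ⟨s', h1, h2⟩ := hπ 0
    rcases dr0 s' h2 with rfl | rfl
    · exact h1
    · exfalso
      have := G.S.inj (h1.symm.trans e1)
      exact absurd this (by decide)
  have e2 : G'.S.es 2 = G.S.es 2 := by
    obtain ⟨s', h1, h2⟩ := hπ 2
    rcases dr1 s' h2 with rfl | rfl
    · exact h1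
    · exfalso
      have := G.S.inj (h1.symm.trans e3)
      exact absurd this (by decide)
  have es : ∀ s, G'.S.es s = G.S.es s := by
    intro s
    fin_cases s
    · exact e0
    · exact e1
    · exact e2
    · exact e3
  -- the corners
  have hc : ∀ k, cor B' ε' k = cor B ε k := by
    intro k
    refine eq_cor hε B ?_ ?_
    · rw [← F.side, ← es, F'.side]
      exact cor_sA hε' B' k
    · rw [← F.side, ← es, F'.side]
      exact cor_sB hε' B' k
  have hch : ∀ z, chA B ε z = chA B' ε' z := by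
    refine aff_three _ _ ?_ ?_ ?_
    · have h := (hc 3).symm
      rw [cor_chA hε, cor_chA hε'] at h
      exact h
    · have h := (hc 2).symm
      rw [cor_chA hε, cor_chA hε'] at h
      exact h
    · have h := (hc 1).symm
      rw [cor_chA hε, cor_chA hε'] at h
      exact h
  refine ⟨⟨hε', F'.face, fun s => by rw [← es, F'.side], F.d0, fun k => ?_⟩, fun z => ?_⟩
  · rw [hc k]
    exact F.vtx k
  · rw [hA, ← chA_apply, hch, chA_apply]

end transfer

end Crest.Agent.R096.Fsw_928
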