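import Crest.Agent.R096.Fsw33_928
import Crest.Agent.R096.Fsw34_928
import Crest.Agent.R096.Fk18_522

/-!
# R096 (row 96), FACE-SWEEP, part 35: the designated faces of a complex, the set `N`, the factor `th`,
the rule of the mixed mesh (helper928)
-/

set_option autoImplicit false
set_option linter.unusedSectionVars false

open Set Metric Filter Topology MeasureTheory

namespace Crest.Agent.R096.Fsw_928

open Crest.Agent.R096.Ce_537 Crest.Agent.R096.Bd_416 Crest.Agent.R096.Fk_522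
open Crest.Agent.R096.SkN1_477
open Crest.Agent.R096.SkC1_961 (E3)
open Crest.Agent.R096.Mxs_487 (AffC)
open Crest.Agent.R96.Nu1_199 Crest.Agent.R96.Nu2_199
open Crest.Agent.R96.Nu3_199 Crest.Agent.R96.Nu5_199 Crest.Agent.R96.Nu6_199

open scoped Classical

/-- the unit square in `E3` -/
def Sq0 : Set E3 := emb '' {y : E2 | ∀ j, 0 ≤ y j ∧ y j ≤ 1}

lemma image_usq (B : E3 ≃ᵃ[ℝ] E3) : B '' usq B = Sq0 :=
  image_preimage_eq _ B.surjective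

section data

variable {Q : Type} [PartialOrder Q] {dim : Q → ℕ} {J Fam : Type} {K : Q → Set E3} {Ω : Set E3}
  {C : Cmb Q dim J Fam} {χ : Q → E3 → ℝ} {Fc : Set Q} {Bc : Q → E3 ≃ᵃ[ℝ] E3}

/-- **the designated faces of a complex** with their frames `Bc τ` -/
structure DesF (C : Cmb Q dim J Fam) (K : Q → Set E3) (χ : Q → E3 → ℝ) (Fc : Set Q)
    (Bc : Q → E3 ≃ᵃ[ℝ] E3) where
  des : ∀ τ ∈ Fc, Des C K χ τ
  ε : Q → Fin 2 → ℝ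
  fg : ∀ τ (h : τ ∈ Fc), FG (des τ h).S K (Bc τ) (ε τ)
  Af : ∀ τ (h : τ ∈ Fc) z, (des τ h).A.f z = (Bc τ).symm (emb (tau (ε τ) z))
  Ag : ∀ τ (h : τ ∈ Fc) x, (des τ h).A.g x = utau (ε τ) (qmb (Bc τ x))
  dir : ∀ τ ∈ Fc, ∀ τ' ∈ Fc, ∀ (j j' : Fin 2) (b b' : ℝ),
    SkN1_477.side (Bc τ) j b = SkN1_477.side (Bc τ') j' b' → j = j'

theorem exists_desF (X : Cplx Ω Q dim K) (hχ : EdC K dim χ)
    (hbd : ∀ τ, bdS K τ = K τ \ ri (K τ)) (h2 : ∀ τ ∈ Fc, dim τ = 2)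
    (hK : ∀ τ ∈ Fc, K τ = usq (Bc τ))
    (hs : ∀ τ ∈ Fc, ∀ (j : Fin 2) (b : ℝ), b = 0 ∨ b = 1 →
      ∃ q, dim q = 1 ∧ K q = SkN1_477.side (Bc τ) j b)
    (dir : ∀ τ ∈ Fc, ∀ τ' ∈ Fc, ∀ (j j' : Fin 2) (b b' : ℝ),
      SkN1_477.side (Bc τ) j b = SkN1_477.side (Bc τ') j' b' → j = j') :
    Nonempty (DesF C K χ Fc Bc) := by
  have key : ∀ τ, ∃ ε : Fin 2 → ℝ, ∀ _ : τ ∈ Fc, ∃ G : Des C K χ τ, FG G.S K (Bc τ) ε ∧
      (∀ z, G.A.f z = (Bc τ).symm (emb (tau ε z))) ∧ (∀ x, G.A.g x = utau ε (qmb (Bc τ x))) := by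
    intro τ
    by_cases h : τ ∈ Fc
    · obtain ⟨ε, G, h1, h3, h4⟩ := exists_des (C := C) X hχ hbd (h2 τ h) (hK τ h) (hs τ h)
      exact ⟨ε, fun _ => ⟨G, h1, h3, h4⟩⟩
    · exact ⟨fun _ => 1, fun h' => absurd h' h⟩
  choose ε G h1 h3 h4 using key
  exact ⟨⟨G, ε, h1, h3, h4, dir⟩⟩

namespace DesF

variable (F : DesF C K χ Fc Bc) (wt : J → ℝ) (a : Fin 2 → ℝ) (m : ℝ)

/-- the nearly pure designated cells -/
def N : Set Q := {τ | ∃ h : τ ∈ Fc, (∃ T cc σ, DP (F.des τ h).S wt T cc σ a m) ∧ ∃ i, a i ≠ 0}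

/-- the factor of the widths -/
noncomputable def th (θ : ℝ) (q : Q) : ℝ :=
  if ∃ τ, ∃ h : τ ∈ Fc, τ ∈ F.N wt a m ∧ ∃ s, (F.des τ h).S.es s = q ∧ a (dr s) = 0 then θ else 1

variable {F wt a m} {θ : ℝ}

lemma th_empty {τ : Q} (h : τ ∈ Fc) (hN : τ ∈ F.N wt a m) {s : Fin 4} (hs : a (dr s) = 0) :
    F.th wt a m θ ((F.des τ h).S.es s) = θ :=
  if_pos ⟨τ, h, hN, s, rfl, hs⟩

lemma th_main {τ : Q} (h : τ ∈ Fc) {s : Fin 4} (hs : a (dr s) ≠ 0) :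
    F.th wt a m θ ((F.des τ h).S.es s) = 1 := by
  refine if_neg ?_
  rintro ⟨τ', h', -, s', he, h0⟩
  have h1 := F.dir τ' h' τ h (dr s') (dr s) (hgt (F.ε τ') s') (hgt (F.ε τ) s) (by
    rw [← (F.fg τ' h').side, ← (F.fg τ h).side, he])
  rw [h1] at h0
  exact hs h0

lemma th_dim {q : Q} (hq : dim q ≠ 1) : F.th wt a m θ q = 1 := by
  refine if_neg ?_
  rintro ⟨τ', h', -, s', rfl, -⟩
  exact hq ((F.des τ' h').S.d1 s')

lemma th_cases (q : Q) : F.th wt a m θ q = θ ∨ F.th wt a m θ q = 1 := by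
  unfold th
  split_ifs
  · exact Or.inl rfl
  · exact Or.inr rfl

lemma th_pos (hθ : 0 < θ) (q : Q) : 0 < F.th wt a m θ q := by
  rcases F.th_cases (wt := wt) (a := a) (m := m) (θ := θ) q with h | h <;> rw [h]
  · exact hθ
  · exact one_pos

lemma th_le (hθ : θ ≤ 1) (q : Q) : F.th wt a m θ q ≤ 1 := by
  rcases F.th_cases (wt := wt) (a := a) (m := m) (θ := θ) q with h | h <;> rw [h]
  exact hθ

lemma le_th (hθ : θ ≤ 1) (q : Q) : θ ≤ F.th wt a m θ q := by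
  rcases F.th_cases (wt := wt) (a := a) (m := m) (θ := θ) q with h | h <;> rw [h]
  exact hθ

variable (F wt a m)

/-- the widths per weight -/
noncomputable def wd (θ δ ε : ℝ) (dl : Q → ℝ) (q : Q) : ℝ :=
  4 * (1 - δ) * (1 - ε) * (F.th wt a m θ q * uq C wt dl q)

/-- **the additional structure of the cells** -/
def SpX (θ δ ε : ℝ) (dl : Q → ℝ) (P1 P2 : Par) (b2 η : ℝ) (q : Q) (M : Lam (K q) (C.I q)) :
    Prop :=
  SpecE C K wt δ (F.wd wt a m θ δ ε dl) χ q M ∧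
    ∀ h : q ∈ Fc, q ∈ F.N wt a m →
      SpecF C K wt δ (F.wd wt a m θ δ ε dl) χ P1 P2 b2 η (F.des q h) M

variable {F wt a m} {δ ε : ℝ} {dl : Q → ℝ} {P1 P2 : Par} {b2 η : ℝ}

lemma N_dim {τ : Q} (h : τ ∈ F.N wt a m) : dim τ = 2 := (F.des τ h.choose).d2

/-- the other cells -/
lemma spX_other {q : Q} (hd : dim q ≠ 1) (hN : q ∉ F.N wt a m) (M : Lam (K q) (C.I q)) :
    F.SpX wt a m θ δ ε dl P1 P2 b2 η q M :=
  ⟨fun h => absurd h hd, fun _ h => absurd h hN⟩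

/-- the edges -/
lemma spX_edge (hχ : EdC K dim χ) {τ : Q} (hd : dim τ = 1) (hcl : IsClosed (K τ))
    {e : PLEquiv (cube 1) (K τ)} (he : AffC e) {p : C.I τ → ℝ}
    (hE : Ed (fun i => F.wd wt a m θ δ ε dl τ * wt (C.col τ i)) p)
    (hm : ∀ i, |p i| + F.wd wt a m θ δ ε dl τ * wt (C.col τ i) / 2 < 1 - δ) :
    F.SpX wt a m θ δ ε dl P1 P2 b2 η τ ((edgeLam hE).pull e.symm hcl) :=
  ⟨specE_edge hcl e (hχ.sign hd he) hE hm, fun _ h => by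
    have := F.N_dim h
    omega⟩

/-- the designated cells -/
lemma spX_face {τ : Q} (h : τ ∈ Fc) {M : Lam (K τ) (C.I τ)}
    (hF : SpecF C K wt δ (F.wd wt a m θ δ ε dl) χ P1 P2 b2 η (F.des τ h) M) :
    F.SpX wt a m θ δ ε dl P1 P2 b2 η τ M :=
  ⟨fun h' => by have := (F.des τ h).d2; omega, fun _ _ => hF⟩

section num

variable {μ Λ η1 : ℝ} (hw : ∀ j, 0 < wt j) (hm : m = η1 * μ) (hμ : 0 < μ) (hΛ : 1 ≤ Λ)
    (hab : ∀ i, a i = 0 ∨ (μ / Λ ≤ a i ∧ a i ≤ μ)) (h10 : 0 < η1) (h11 : 2 * Λ * η1 ≤ 1)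
    (h12 : η1 ≤ θ) (hδ : 0 ≤ δ) (hδ1 : δ ≤ 1/4) (hε : 0 ≤ ε) (hε1 : ε ≤ 1/4)
    (hη : 44 * Λ * η1 + 2 * ε ≤ η) (hθ : 2 * θ ≤ η) (hdl : ∀ q, 0 < dl q)
    (hdl1 : ∀ q, dl q ≤ η1 * μ)

include hw hm hμ hΛ hab h10 h11 h12 hδ hδ1 hε hε1 hη hθ hdl hdl1

/-- the numbers of a nearly pure cell -/
lemma numF {τ : Q} (h : τ ∈ Fc) (hN : τ ∈ F.N wt a m) {T : Fin 2 → Finset J}
    {cc : Fin 2 → Fam} {σ : Fin 2 → ℝ} (hD : DP (F.des τ h).S wt T cc σ a m) :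
    NumF (F.des τ h).S wt ((F.des τ h).nu (F.wd wt a m θ δ ε dl)) a m δ η :=
  (hD.numF hw hm hμ hΛ hab h10 h11 h12 hδ hδ1 hε hε1 hη hθ
    (d := fun s => dl ((F.des τ h).S.es s)) (t := fun s => F.th wt a m θ ((F.des τ h).S.es s))
    (fun _ => hdl _) (fun _ => hdl1 _) (fun _ hs => F.th_main h hs) (fun _ hs => F.th_empty h hN hs)
    (fun _ => rfl)).1

/-- **THE RULE OF THE NEARLY PURE DESIGNATED CELLS** -/
theorem rule (hθ1 : θ ≤ 1) {Λ1 : ℝ} (hdep : HasDep P1 P2 δ η) (hcr : Crude P1 P2 Λ1) (hΛ1 : 0 ≤ Λ1)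
    (X : Cplx Ω Q dim K) (hconv : ∀ τ, Convex ℝ (K τ)) (hcpt : ∀ τ, IsCompact (K τ))
    (hbd : ∀ τ, bdS K τ = K τ \ ri (K τ)) {b : ℕ → ℝ} (hb0 : ∀ n, 0 < b n)
    (hb2 : ∀ n, b n < 1/2) (hmono : ∀ σ τ : Q, σ ≤ τ → dl σ ≤ dl τ)
    {D R : Set Q} {g g0 : Gd E3 J} {P P0 : ∀ q, C.I q → Set E3} {c c0 : ∀ q, C.I q → E3 → ℝ}
    {Λt : ℕ → Q → (E3 → E3) → ℝ} {Spec : ∀ q, Lam (K q) (C.I q) → Prop}
    (hSE : ∀ q M, Spec q M → SpecE C K wt δ (F.wd wt a m θ δ ε dl) χ q M)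
    (H : Inv C K D g P c) {τ : Q} (h : τ ∈ Fc) (hN : τ ∈ F.N wt a m) (hτ : ∀ σ < τ, σ ∈ D)
    (hT : ∀ q ∈ D, Trk C K R g0 P0 c0 b Spec (fun _ => FrA E3) wt Λt (dim τ) q g (P q) (c q))
    (hR : ∀ s, (F.des τ h).S.es s ∉ R)
    (hends : ∀ x : C.I τ, ∃ a b, a ≠ b ∧ Arc_778.Blw C τ x = {a, b})
    {Kτ : ℝ} (hK : Λ1 * 16 * AAc 2 Sq0 / (b 2 * ((1 - δ) * (1 - ε) * θ)) ≤ Kτ)
    (hSF : ∀ {κ : ℝ} {h' ρ : C.I τ → ℝ} (Dp : Dep (bdLam H X τ hτ) κ (b (dim τ)) h' ρ)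
      (_ : ∀ x x', Arc_778.RlG C K c τ x x' → ρ x' < ρ x)
      {n : ℕ} (_ : dim τ = n) (e : PLEquiv (cube n) (K τ)) (he : e.f '' sph n = bdS K τ),
      SpecF C K wt δ (F.wd wt a m θ δ ε dl) χ P1 P2 (b 2) η (F.des τ h) (Dp.fillBall e he) →
      Spec τ (Dp.fillBall e he)) :
    ∃ (e' : PLEquiv (cube (dim τ)) (K τ)) (he' : e'.f '' sph (dim τ) = bdS K τ)
      (κ : ℝ) (h' ρ : C.I τ → ℝ) (Dp : Dep (bdLam H X τ hτ) κ (b (dim τ)) h' ρ),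
      (∀ x x', Arc_778.RlG C K c τ x x' → ρ x' < ρ x) ∧ Spec τ (Dp.fillBall e' he') ∧
      ∀ B : E3 ≃ᵃ[ℝ] E3, ∀ x, ∀ z ∈ K τ,
        LB B (Kτ * (AAc (dim τ) (B '' K τ) * (Wd C wt τ + dl τ)) / wt (C.col τ x))
          ((Dp.fillBall e' he').c x) (K τ) z := by
  have hN' := hN
  obtain ⟨hh, ⟨T, cc, σ, hD⟩, hi⟩ := hN'
  have hθ0 : 0 < θ := lt_of_lt_of_le h10 h12
  have h1δ : 0 < 1 - δ := by linarith
  have h1ε : 0 < 1 - ε := by linarith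
  have hpp : 0 < (1 - δ) * (1 - ε) * θ := mul_pos (mul_pos h1δ h1ε) hθ0
  have hd2 := (F.des τ h).d2
  have hb : IsBall 2 (K τ) (K τ \ ri (K τ)) := by
    rw [← hbd, ← hd2]; exact X.isBall τ
  have hFG := F.fg τ h
  have hbb := hb0 2
  have hNF := F.numF hw hm hμ hΛ hab h10 h11 h12 hδ hδ1 hε hε1 hη hθ hdl hdl1 h hN hD
  have hW0 : ∀ q, 0 < Wd C wt q + dl q := fun q => by
    have := Wd_nonneg (C := C) hw q
    have := hdl q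
    linarith
  set G := F.des τ h with hG
  set wdd : Q → ℝ := F.wd wt a m θ δ ε dl with hwd
  have hν : ∀ s, (1 - δ) * (1 - ε) * θ / (Wd C wt τ + dl τ) ≤ G.nu wdd s := fun s => by
    show _ ≤ 4 * (1 - δ) * (1 - ε) * (F.th wt a m θ (G.S.es s) * uq C wt dl (G.S.es s))
    have h1 := G.S.W_le hw hends s
    have h2 := hmono _ _ (G.S.lt s).le
    have h3 := hW0 (G.S.es s)
    have h4 := hW0 τ
    have h5 := F.le_th (wt := wt) (a := a) (m := m) hθ1 (G.S.es s)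
    have h6 := hdl τ
    have h7 : 4 * (1 - δ) * (1 - ε) * (θ * uq C wt dl (G.S.es s)) ≤
        4 * (1 - δ) * (1 - ε) * (F.th wt a m θ (G.S.es s) * uq C wt dl (G.S.es s)) := by
      have h8 : 0 ≤ uq C wt dl (G.S.es s) := by unfold uq; positivity
      have h9 : θ * uq C wt dl (G.S.es s) ≤ F.th wt a m θ (G.S.es s) * uq C wt dl (G.S.es s) :=
        mul_le_mul_of_nonneg_right h5 h8
      have h10 : 0 ≤ 4 * (1 - δ) * (1 - ε) := by positivity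
      exact mul_le_mul_of_nonneg_left h9 h10
    refine le_trans ?_ h7
    unfold uq
    have h8 : 4 * (1 - δ) * (1 - ε) * (θ * (1 / (2 * (Wd C wt (G.S.es s) + dl (G.S.es s))))) =
        4 * ((1 - δ) * (1 - ε) * θ) / (2 * (Wd C wt (G.S.es s) + dl (G.S.es s))) := by ring
    rw [h8, div_le_div_iff₀ h4 (by linarith)]
    have h9 : Wd C wt (G.S.es s) + dl (G.S.es s) ≤ 2 * (Wd C wt τ + dl τ) := by linarith
    have h10 := mul_le_mul_of_nonneg_left h9 hpp.le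
    linarith
  have hα : (1 - δ) * (1 - ε) * θ / (Wd C wt τ + dl τ) ≤ αX (G.nu wdd) := by
    unfold αX αA αB
    exact le_min (le_min (hν 2) (hν 3)) (le_min (hν 0) (hν 1))
  have hα0 : 0 < αX (G.nu wdd) := lt_of_lt_of_le (div_pos hpp (hW0 τ)) hα
  have hinv : 16 / αX (G.nu wdd) ≤ 16 * ((Wd C wt τ + dl τ) / ((1 - δ) * (1 - ε) * θ)) := by
    rw [div_le_iff₀ hα0]
    rw [div_le_iff₀ (hW0 τ)] at hα
    have e1 : 16 * ((Wd C wt τ + dl τ) / ((1 - δ) * (1 - ε) * θ)) * αX (G.nu wdd) =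
        16 * ((αX (G.nu wdd) * (Wd C wt τ + dl τ)) / ((1 - δ) * (1 - ε) * θ)) := by ring
    rw [e1]
    have h6 : 1 ≤ αX (G.nu wdd) * (Wd C wt τ + dl τ) / ((1 - δ) * (1 - ε) * θ) := by
      rw [le_div_iff₀ hpp]; linarith
    linarith
  have hg2 : ∀ B ∈ FrA E3, ∀ z ∈ K τ,
      MB B id ((fun B : E3 → E3 => 2 * (AAc 2 Sq0 * AAc 2 (B '' K τ))) B) G.A.g (K τ) z := by
    rintro _ ⟨B, rfl⟩ z hz
    have hm2 : MB (Bc τ) id 2 G.A.g (K τ) z := by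
      have e1 : G.A.g = (chU hFG.e1 (Bc τ)).g := by
        funext x
        rw [F.Ag τ h x]; rfl
      rw [e1]
      exact chU_MB hFG.e1 (Bc τ) _ _
    have himg : Bc τ '' K τ = Sq0 := by rw [hFG.face, image_usq]
    filter_upwards [hm2, MB_frame (hconv τ) (hcpt τ) hb.nonempty hb (Bc τ) B hz] with y hy hy'
    rw [himg] at hy'
    calc dist (id (G.A.g y)) (id (G.A.g z)) ≤ 2 * dist (Bc τ y) (Bc τ z) := hy
      _ ≤ 2 * (AAc 2 Sq0 * AAc 2 (B '' K τ) * dist (B y) (B z)) := by linarith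
      _ = _ := by ring
  have hL2 : ∀ B ∈ FrA E3, Λ1 * (16 / αX (G.nu wdd)) / (2 * b (dim τ)) *
      (fun B : E3 → E3 => 2 * (AAc 2 Sq0 * AAc 2 (B '' K τ))) B ≤
      (fun B : E3 → E3 => Kτ * (AAc (dim τ) (B '' K τ) * (Wd C wt τ + dl τ))) B := by
    rintro _ ⟨B, rfl⟩
    have hAc := AAc_pos (E := E3) 2 (B '' K τ)
    have hAs := AAc_pos (E := E3) 2 Sq0
    rw [hd2]
    have hWp : 0 ≤ AAc 2 (B '' K τ) * (Wd C wt τ + dl τ) := mul_nonneg hAc.le (hW0 τ).le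
    have h3 : 0 ≤ Λ1 * AAc 2 Sq0 * AAc 2 (B '' K τ) / b 2 := by positivity
    calc Λ1 * (16 / αX (G.nu wdd)) / (2 * b 2) * (2 * (AAc 2 Sq0 * AAc 2 (B '' K τ)))
        = (Λ1 * AAc 2 Sq0 * AAc 2 (B '' K τ) / b 2) * (16 / αX (G.nu wdd)) := by
          field_simp
      _ ≤ (Λ1 * AAc 2 Sq0 * AAc 2 (B '' K τ) / b 2) *
          (16 * ((Wd C wt τ + dl τ) / ((1 - δ) * (1 - ε) * θ))) :=
          mul_le_mul_of_nonneg_left hinv h3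
      _ = (Λ1 * 16 * AAc 2 Sq0 / (b 2 * ((1 - δ) * (1 - ε) * θ))) *
          (AAc 2 (B '' K τ) * (Wd C wt τ + dl τ)) := by
          field_simp
      _ ≤ Kτ * (AAc 2 (B '' K τ) * (Wd C wt τ + dl τ)) := mul_le_mul_of_nonneg_right hK hWp
  obtain ⟨e', he', κ, h', ρ, Dp, k1, k2, k3⟩ := rule_faceL (Fr := fun _ => FrA E3)
    (Λ' := fun B : E3 → E3 => Kτ * (AAc (dim τ) (B '' K τ) * (Wd C wt τ + dl τ)))
    (@hdep) (@hcr) hΛ1 hb0 hb2 hw hSE H X hτ hT G hR hends hD hNF hg2 hL2 hSF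
  exact ⟨e', he', κ, h', ρ, Dp, k1, k2, fun B x z hz => k3 _ ⟨B, rfl⟩ x z hz⟩

end num

end DesF

end data

end Crest.Agent.R096.Fsw_928
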