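import Crest.Agent.R096.Mxo4_487
import Crest.Agent.R096.Arc12_778
import Crest.Agent.R096.Fsw35_928

/-!
# R096 (row 96), FACE-SWEEP, part 36: two ends of the pieces of a 2-cell, cells of a tiling, the
Lipschitz constant of a designated face (helper928)
-/

set_option autoImplicit false
set_option linter.unusedSectionVars false
set_option linter.style.longLine false

open Set Metric Filter Topology MeasureTheory

namespace Crest.Agent.R096.Fsw_928

open Crest.Agent.R096.St_147 Crest.Agent.R096.Seq_213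
  Crest.Agent.R096.Bd_416 Crest.Agent.R096.Mg_441 Crest.Agent.R096.Lm_117
  Crest.Agent.R096.Ce_537 Crest.Agent.R096.Arc_778
open Crest.Agent.R096.Msh_715 Crest.Agent.R096.Csub_487
open Crest.Agent.R096.SkC1_961 (E3 FoamD)
open Crest.Agent.R096.SkN1_477
open Crest.Agent.R096.Fk_522
open Crest.Agent.R96.Nu1_199 Crest.Agent.R96.Nu2_199 Crest.Agent.R96.Nu3_199
  Crest.Agent.R96.Nu4_199 Crest.Agent.R96.Nu5_199 Crest.Agent.R96.Nu6_199
open Crest.Agent.R096.Mxs_487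

open scoped Classical

/-! ### two ends -/

section ends

variable {ι Φ W Q J Fm : Type} {M : MeshC ι Φ W} [PartialOrder Q] {dim : Q → ℕ}
variable {L : LM M Q dim} {fam : J → Fm} {s : GSt M fam}
variable {h : LF L s} {Lam : J → Q → ZMod 2} {hLam : ∀ j c, L.toSk.XL (gP s j) (Lam j) c}

/-- a piece of a 2-cell has two ends -/
theorem ends_cmb (T : Top3 L) {q : Q} (hq : dim q = 2) (x : (cmb h Lam hLam).I q) :
    ∃ a b, a ≠ b ∧ Blw (cmb h Lam hLam) q x = {a, b} := by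
  obtain ⟨F, rfl⟩ := T.cf_sur q hq
  obtain ⟨⟨w, hw⟩, rfl⟩ := Quot.exists_rep (show Pc L s (L.cf F) from x)
  exact ⟨_, _, sg_ne hw, blw_w hw⟩

end ends

/-! ### cells of a tiling -/

section cellix

variable {Om : Set E3} {ι : Type} {T : Tiling Om ι} {Q : Type} [PartialOrder Q] {dim : Q → ℕ}
  {K : Q → Set E3} {cell : Q → T.Cell}

lemma dim_of_cc (hI : CellIx T dim K cell) {q : Q} {y : E3} (hy : y ∈ Om) (h : K q = T.cc y) :
    dim q = T.dim y := by
  have h1 : cell q = T.cl hy := Tiling.Cell.ext (by rw [← hI.set_eq, h]; rfl)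
  rw [hI.dim_eq, h1, Tiling.dim_cl]

lemma exists_cc (hI : CellIx T dim K cell) (q : Q) : ∃ y ∈ Om, K q = T.cc y ∧ y ∈ K q := by
  have h1 : K q = T.cc (cell q).pt := by rw [hI.set_eq, (cell q).set_eq]
  exact ⟨(cell q).pt, (cell q).pt_mem, h1, by rw [h1]; exact T.self_mem_cc _⟩

end cellix

/-! ### the configuration of a designated face -/

/-- a side of the unit square in `E3` -/
def Sd0 (j : Fin 2) (b : ℝ) : Set E3 := emb '' {y : E2 | 0 ≤ y j ∧ y j ≤ 1 ∧ y (1 - j) = b}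

lemma image_side (B : E3 ≃ᵃ[ℝ] E3) (j : Fin 2) (b : ℝ) :
    B '' SkN1_477.side B j b = Sd0 j b := image_preimage_eq _ B.surjective

/-- the faces of the unit square -/
def Ksq : Set (Set E3) :=
  {Sq0} ∪ ((fun p : Fin 2 × Fin 2 => Sd0 p.1 (p.2 : ℕ)) '' univ ∪
    (fun p : Fin 2 × Fin 2 => {emb ![((p.1 : ℕ) : ℝ), ((p.2 : ℕ) : ℝ)]}) '' univ)

lemma finite_Ksq : Ksq.Finite :=
  (finite_singleton _).union ((finite_univ.image _).union (finite_univ.image _))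

lemma mem_Ksq_side (j : Fin 2) {b : ℝ} (hb : b = 0 ∨ b = 1) : Sd0 j b ∈ Ksq := by
  right; left
  rcases hb with rfl | rfl
  · exact ⟨(j, 0), mem_univ _, by simp⟩
  · exact ⟨(j, 1), mem_univ _, by simp⟩

lemma mem_Ksq_cor {s t : ℝ} (hs : s = 0 ∨ s = 1) (ht : t = 0 ∨ t = 1) :
    ({emb ![s, t]} : Set E3) ∈ Ksq := by
  right; right
  rcases hs with rfl | rfl <;> rcases ht with rfl | rfl
  · exact ⟨(0, 0), mem_univ _, by simp⟩
  · exact ⟨(0, 1), mem_univ _, by simp⟩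
  · exact ⟨(1, 0), mem_univ _, by simp⟩
  · exact ⟨(1, 1), mem_univ _, by simp⟩

section face

variable {Q : Type} [PartialOrder Q] {dim : Q → ℕ} {J Fam : Type} {K : Q → Set E3} {Ω : Set E3}
  {C : Cmb Q dim J Fam} {χ : Q → E3 → ℝ} {τ : Q}

lemma cxy01 {ε : Fin 2 → ℝ} (hε : ∀ i, ε i = 1 ∨ ε i = -1) (k : Fin 4) :
    ((1 + ε 0 * cx k) / 2 = 0 ∨ (1 + ε 0 * cx k) / 2 = 1) ∧
      ((1 + ε 1 * cy k) / 2 = 0 ∨ (1 + ε 1 * cy k) / 2 = 1) := by
  have h0 := hε 0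
  have h1 := hε 1
  constructor
  · rcases h0 with h | h <;> rw [h] <;> fin_cases k <;> simp [cx]
  · rcases h1 with h | h <;> rw [h] <;> fin_cases k <;> simp [cy]

/-- the cells below a designated face, in its frame -/
theorem mem_Ksq (X : Cplx Ω Q dim K) (hbd : ∀ τ, bdS K τ = K τ \ ri (K τ)) (hχ : EdC K dim χ)
    (G : Des C K χ τ) {B : E3 ≃ᵃ[ℝ] E3} {ε : Fin 2 → ℝ} (F : FG G.S K B ε) {σ : Q} (hσ : σ ≤ τ) :
    B '' K σ ∈ Ksq := by
  have hε := F.e1
  rcases hσ.eq_or_lt with rfl | hlt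
  · rw [F.face, image_usq]
    exact Or.inl rfl
  · have h2 := G.d2
    have h3 := X.mono _ _ hlt
    have h4 : dim σ = 0 ∨ dim σ = 1 := by omega
    rcases h4 with h4 | h4
    · obtain ⟨z, hz⟩ := (X.isBall σ).nonempty
      obtain ⟨k, hk⟩ := vert_corner X hχ hbd F.face hε (fun s => ⟨_, G.S.d1 s, F.side s⟩) h4 hlt hz
      have h5 : K σ = {z} := by
        ext y
        constructor
        · intro hy
          exact sing_zero X h4 hy hz
        · rintro rfl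
          exact hz
      rw [h5, image_singleton, hk]
      have h6 : B (cor B ε k) = emb ![(1 + ε 0 * cx k) / 2, (1 + ε 1 * cy k) / 2] :=
        B.apply_symm_apply _
      rw [h6]
      exact mem_Ksq_cor (cxy01 hε k).1 (cxy01 hε k).2
    · obtain ⟨s, rfl⟩ := G.S.onto σ hlt h4
      rw [F.side, image_side]
      exact mem_Ksq_side _ (hgt01 hε s)

/-- the edges of a designated face -/
lemma sum_edg (X : Cplx Ω Q dim K) (S : SqC C τ) (wt : J → ℝ) :
    ∑ e ∈ edg X τ, Wd C wt e = ∑ s, S.W wt s := by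
  have h1 : edg X τ = Finset.univ.image S.es := by
    ext e
    rw [mem_edg, Finset.mem_image]
    constructor
    · rintro ⟨h1, h2⟩
      obtain ⟨s, hs⟩ := S.onto e h1 h2
      exact ⟨s, Finset.mem_univ _, hs⟩
    · rintro ⟨s, -, rfl⟩
      exact ⟨S.lt s, S.d1 s⟩
  rw [h1, Finset.sum_image fun s _ s' _ h => S.inj h]
  rfl

/-- **THE LIPSCHITZ CONSTANT OF A DESIGNATED FACE in its frame** -/
theorem lamK_face (X : Cplx Ω Q dim K) (hbd : ∀ τ, bdS K τ = K τ \ ri (K τ))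
    (hχ : EdC K dim χ) (G : Des C K χ τ) {B : E3 ≃ᵃ[ℝ] E3} {ε : Fin 2 → ℝ} (F : FG G.S K B ε)
    {wt : J → ℝ} (hw : ∀ j, 0 < wt j) {b : ℕ → ℝ} (hb0 : ∀ n, 1/4 ≤ b n) {K₀ : Q → ℝ}
    (hK : ∀ q, 0 ≤ K₀ q) {KN : ℝ} (hKN : K₀ τ ≤ KN) {dl : Q → ℝ} (hdl : ∀ q, 0 < dl q) {d : ℝ}
    (hd : ∀ q, dl q ≤ d) {ε₁ : ℝ} (hε1 : ε₁ < 1)
    (hends : ∀ x : C.I τ, ∃ a b, a ≠ b ∧ Blw C τ x = {a, b}) :
    LamK X C K₀ ε₁ b wt dl 4 τ B ≤ CUe KN ε₁ 3 Ksq * (∑ s, G.S.W wt s + d) := by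
  have hd2 := G.d2
  have hb0' : ∀ n, 0 < b n := fun n => by have := hb0 n; linarith
  have h1 := lam_tileK (C := C) (ε := ε₁) (b := b) (m := 3) X hw hb0' hK hdl (q := τ) (by omega)
    (by omega) (B := B) finite_Ksq (fun σ hσ => mem_Ksq X hbd hχ G F hσ)
    (fun σ _ σ' _ e => le_antisymm (le_of_sub X e.subset) (le_of_sub X e.symm.subset))
    (fun σ _ => hd σ) (fun σ hσ h2 x => by
      rcases hσ.eq_or_lt with rfl | hlt
      · obtain ⟨v, v', -, hv⟩ := hends x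
        have h3 : v ∈ Blw C σ x := by rw [hv]; simp
        obtain ⟨h4, h5, h6⟩ := h3
        exact ⟨v.1, h5, h4, v.2, h6⟩
      · have := X.mono _ _ hlt
        omega)
  rw [sum_edg X G.S wt] at h1
  refine h1.trans (mul_le_mul_of_nonneg_right ?_ ?_)
  · exact C𝒦_le_CUe (hK _) hKN le_rfl hε1 hb0 3 Ksq
  · have h2 : 0 ≤ ∑ s, G.S.W wt s := Finset.sum_nonneg fun s _ => Finset.sum_nonneg fun y _ => (hw _).le
    have h3 := (hdl τ).le.trans (hd τ)
    linarith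

end face

end Crest.Agent.R096.Fsw_928
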