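import Crest.Agent.R096.Fsw2_928
import Crest.Agent.R096.Cb1_609

/-!
# R096 (row 96), FACE-SWEEP, part 3: the inner cube, the chart of the last box, one step (helper928)
-/

set_option autoImplicit false

open Set Metric

namespace Crest.Agent.R096.Fsw_928

open Crest.Agent.R096.Ce_537 Crest.Agent.R096.Bd_416

/-! ### the inner cube `{‖x‖ ≤ 3/4}` in collar coordinates -/

/-- `{‖x‖ ≤ 3/4}` -/
def In2 : Set (Fin 2 → ℝ) := {x | ‖x‖ ≤ 3/4}

/-- `{3/4 ≤ ‖x‖ ≤ 1}` -/
def Out2 : Set (Fin 2 → ℝ) := {x | 3/4 ≤ ‖x‖ ∧ ‖x‖ ≤ 1}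

lemma isClosed_In2 : IsClosed In2 := isClosed_le continuous_norm continuous_const

lemma isClosed_Out2 : IsClosed Out2 :=
  (isClosed_le continuous_const continuous_norm).inter
    (isClosed_le continuous_norm continuous_const)

noncomputable def shf (x : Fin 2 → ℝ) : Fin 2 → ℝ :=
  fun j => cg (2 * max (1/2) ‖x‖ - 1/2) (cf (max (1/2) ‖x‖) (x j))

noncomputable def shg (y : Fin 2 → ℝ) : Fin 2 → ℝ :=
  fun j => cg ((max (1/2) ‖y‖ + 1/2) / 2) (cf (max (1/2) ‖y‖) (y j))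

lemma shf_low {x : Fin 2 → ℝ} (h : ‖x‖ ≤ 1/2) : shf x = x := by
  funext j
  unfold shf
  rw [max_eq_left h]
  have : (2 * (1/2) - 1/2 : ℝ) = 1/2 := by norm_num
  rw [this]
  exact cg_cf (le_refl _)

lemma shg_low {x : Fin 2 → ℝ} (h : ‖x‖ ≤ 1/2) : shg x = x := by
  funext j
  unfold shg
  rw [max_eq_left h]
  have : ((1/2 + 1/2) / 2 : ℝ) = 1/2 := by norm_num
  rw [this]
  exact cg_cf (le_refl _)

lemma shf_high {x : Fin 2 → ℝ} (h : 1/2 ≤ ‖x‖) :
    shf x = (collar 2).g (((collar 2).f x).1, 2 * ‖x‖ - 1/2) := by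
  funext j
  unfold shf
  rw [max_eq_right h]
  rfl

lemma shg_high {x : Fin 2 → ℝ} (h : 1/2 ≤ ‖x‖) :
    shg x = (collar 2).g (((collar 2).f x).1, (‖x‖ + 1/2) / 2) := by
  funext j
  unfold shg
  rw [max_eq_right h]
  rfl

lemma norm_shf {x : Fin 2 → ℝ} (h : 1/2 ≤ ‖x‖) (h2 : ‖x‖ ≤ 3/4) : ‖shf x‖ = 2 * ‖x‖ - 1/2 := by
  rw [shf_high h]
  have hx : x ∈ Ann 2 := ⟨h, by linarith⟩
  exact norm_cg ((collar 2).mf hx).1 ⟨by linarith, by linarith⟩

lemma norm_shg {x : Fin 2 → ℝ} (h : 1/2 ≤ ‖x‖) (h2 : ‖x‖ ≤ 1) : ‖shg x‖ = (‖x‖ + 1/2) / 2 := by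
  rw [shg_high h]
  have hx : x ∈ Ann 2 := ⟨h, h2⟩
  exact norm_cg ((collar 2).mf hx).1 ⟨by linarith, by linarith⟩

lemma collar_f_g {ω : Fin 2 → ℝ} {r : ℝ} (hω : ω ∈ sph 2) (hr : r ∈ Icc (1/2 : ℝ) 1) :
    (collar 2).f ((collar 2).g (ω, r)) = (ω, r) := (collar 2).ri (ω, r) ⟨hω, hr⟩

lemma norm_collar_g {ω : Fin 2 → ℝ} {r : ℝ} (hω : ω ∈ sph 2) (hr : r ∈ Icc (1/2 : ℝ) 1) :
    ‖(collar 2).g (ω, r)‖ = r := norm_cg hω hr

/-- **the inner cube is blown up in collar coordinates** -/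
noncomputable def shr : PLEquiv In2 (cube 2) where
  f := shf
  g := shg
  pf := by
    have hm : PLOn (fun x : Fin 2 → ℝ => max (1/2) ‖x‖) In2 := pl_max (plOn_const _ _) (pl_norm _)
    exact pl_pi fun j => pl_cg (pl_sub (pl_mul 2 hm) (plOn_const _ _))
      (pl_cf hm (pl_apply (plOn_id _) j))
  pg := by
    have hm : PLOn (fun x : Fin 2 → ℝ => max (1/2) ‖x‖) (cube 2) :=
      pl_max (plOn_const _ _) (pl_norm _)
    exact pl_pi fun j => pl_cg (pl_div (pl_add hm (plOn_const _ _)) 2)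
      (pl_cf hm (pl_apply (plOn_id _) j))
  mf := by
    intro x (hx : ‖x‖ ≤ 3/4)
    simp only [cube, mem_closedBall_zero_iff]
    rcases le_total ‖x‖ (1/2) with h | h
    · rw [shf_low h]; linarith
    · rw [norm_shf h hx]; linarith
  mg := by
    intro x hx
    simp only [cube, mem_closedBall_zero_iff] at hx
    show ‖shg x‖ ≤ 3/4
    rcases le_total ‖x‖ (1/2) with h | h
    · rw [shg_low h]; linarith
    · rw [norm_shg h hx]; linarith
  li := by
    intro x (hx : ‖x‖ ≤ 3/4)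
    rcases le_total ‖x‖ (1/2) with h | h
    · rw [shf_low h, shg_low h]
    · have h3 := norm_shf h hx
      have hxA : x ∈ Ann 2 := ⟨h, by linarith⟩
      have hr : 2 * ‖x‖ - 1/2 ∈ Icc (1/2 : ℝ) 1 := ⟨by linarith, by linarith⟩
      rw [shg_high (by rw [h3]; linarith), h3, shf_high h,
        collar_f_g ((collar 2).mf hxA).1 hr]
      have e : (2 * ‖x‖ - 1/2 + 1/2) / 2 = ‖x‖ := by ring
      rw [e]
      exact (collar 2).li x hxA
  ri := by
    intro x hx
    simp only [cube, mem_closedBall_zero_iff] at hx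
    rcases le_total ‖x‖ (1/2) with h | h
    · rw [shg_low h, shf_low h]
    · have h3 := norm_shg h hx
      have hxA : x ∈ Ann 2 := ⟨h, hx⟩
      have hr : (‖x‖ + 1/2) / 2 ∈ Icc (1/2 : ℝ) 1 := ⟨by linarith, by linarith⟩
      rw [shf_high (by rw [h3]; linarith), h3, shg_high h,
        collar_f_g ((collar 2).mf hxA).1 hr]
      have e : 2 * ((‖x‖ + 1/2) / 2) - 1/2 = ‖x‖ := by ring
      rw [e]
      exact (collar 2).li x hxA

/-- collar coordinates of `shr.g` -/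
lemma shr_g_collar {ω : Fin 2 → ℝ} {r : ℝ} (hω : ω ∈ sph 2) (hr : r ∈ Icc (1/2 : ℝ) 1) :
    shr.g ((collar 2).g (ω, r)) = (collar 2).g (ω, (r + 1/2) / 2) := by
  have h := norm_collar_g hω hr
  show shg _ = _
  rw [shg_high (by rw [h]; exact hr.1), h, collar_f_g hω hr]

lemma shr_f_collar {ω : Fin 2 → ℝ} {r : ℝ} (hω : ω ∈ sph 2) (hr : r ∈ Icc (1/2 : ℝ) (3/4)) :
    shr.f ((collar 2).g (ω, r)) = (collar 2).g (ω, 2 * r - 1/2) := by
  have hr' : r ∈ Icc (1/2 : ℝ) 1 := ⟨hr.1, hr.2.trans (by norm_num)⟩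
  have h := norm_collar_g hω hr'
  show shf _ = _
  rw [shf_high (by rw [h]; exact hr.1), h, collar_f_g hω hr']

/-- the outer annulus in collar coordinates, time `ρ = 4 (1 - r)` -/
noncomputable def outE : PLEquiv Out2 (sph 2 ×ˢ Icc (0 : ℝ) 1) where
  f x := (((collar 2).f x).1, 4 * (1 - ((collar 2).f x).2))
  g p := (collar 2).g (p.1, 1 - p.2 / 4)
  pf := by
    have h : PLOn (collar 2).f Out2 := (collar 2).pf.mono fun x hx => ⟨by
      have := hx.1; linarith, hx.2⟩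
    exact pl_pair (pl_fst h) (pl_mul 4 (pl_sub (plOn_const _ _) (pl_snd h)))
  pg := by
    have hin : PLOn (fun p : (Fin 2 → ℝ) × ℝ => (p.1, 1 - p.2 / 4)) (sph 2 ×ˢ Icc (0 : ℝ) 1) :=
      pl_pair (pl_fst (plOn_id _)) (pl_sub (plOn_const _ _) (pl_div (pl_snd (plOn_id _)) 4))
    refine (collar 2).pg.comp hin ?_
    rintro ⟨ω, ρ⟩ ⟨hω, h0, h1⟩
    simp only at h0 h1
    exact ⟨hω, by show (1/2 : ℝ) ≤ 1 - ρ / 4; linarith, by show 1 - ρ / 4 ≤ (1 : ℝ); linarith⟩
  mf := by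
    rintro x ⟨h1, h2⟩
    have hx : x ∈ Ann 2 := ⟨by linarith, h2⟩
    refine ⟨((collar 2).mf hx).1, ?_, ?_⟩
    · show (0 : ℝ) ≤ 4 * (1 - ‖x‖); linarith
    · show 4 * (1 - ‖x‖) ≤ (1 : ℝ); linarith
  mg := by
    rintro ⟨ω, ρ⟩ ⟨hω, h0, h1⟩
    simp only at h0 h1
    have hr : 1 - ρ / 4 ∈ Icc (1/2 : ℝ) 1 := ⟨by linarith, by linarith⟩
    have := norm_collar_g hω hr
    exact ⟨by rw [this]; linarith, by rw [this]; linarith⟩
  li := by
    rintro x ⟨h1, h2⟩
    have hx : x ∈ Ann 2 := ⟨by linarith, h2⟩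
    have e : 1 - 4 * (1 - ((collar 2).f x).2) / 4 = ((collar 2).f x).2 := by ring
    show (collar 2).g (((collar 2).f x).1, 1 - 4 * (1 - ((collar 2).f x).2) / 4) = x
    rw [e]
    exact (collar 2).li x hx
  ri := by
    rintro ⟨ω, ρ⟩ ⟨hω, h0, h1⟩
    simp only at h0 h1
    have hr : 1 - ρ / 4 ∈ Icc (1/2 : ℝ) 1 := ⟨by linarith, by linarith⟩
    show ((((collar 2).f ((collar 2).g (ω, 1 - ρ / 4))).1),
      4 * (1 - ((collar 2).f ((collar 2).g (ω, 1 - ρ / 4))).2)) = (ω, ρ)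
    rw [collar_f_g hω hr]
    simp only [Prod.mk.injEq, true_and]
    ring

/-! ### the chart of the last box -/

namespace Par

variable {P : Par}

lemma mem_BX {z : Fin 2 → ℝ} :
    z ∈ P.BX ↔ |z 0| ≤ 1 - P.a ∧ z 1 ≤ 1 - P.a ∧ -1 + P.H ≤ z 1 := by
  unfold BX R
  rw [mem_setOf_eq, max_neg_eq, le_min_iff, le_min_iff, le_div_iff₀ P.a0, le_div_iff₀ P.a0,
    le_div_iff₀ P.H0]
  constructor
  · rintro ⟨⟨h1, h2⟩, h3⟩; exact ⟨by linarith, by linarith, by linarith⟩
  · rintro ⟨h1, h2, h3⟩; exact ⟨⟨by linarith, by linarith⟩, by linarith⟩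

lemma BX_subset : P.BX ⊆ cube 2 := by
  intro z hz
  rw [mem_BX] at hz
  rw [mem_cube2]
  have := P.a0
  have := P.H0
  refine ⟨by linarith [hz.1], abs_le.2 ⟨by linarith [hz.2.2], by linarith [hz.2.1]⟩⟩

lemma isClosed_BX : IsClosed P.BX := by
  have : P.BX = {z | |z 0| ≤ 1 - P.a} ∩ ({z | z 1 ≤ 1 - P.a} ∩ {z | -1 + P.H ≤ z 1}) := by
    ext z; rw [mem_BX]; rfl
  rw [this]
  exact (isClosed_le (continuous_apply 0).abs continuous_const).inter
    ((isClosed_le (continuous_apply 1) continuous_const).inter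
      (isClosed_le continuous_const (continuous_apply 1)))

lemma continuous_R : Continuous fun z : Fin 2 → ℝ => P.R (z 0) (z 1) := by
  unfold R
  fun_prop

lemma isClosed_NA : IsClosed P.NA :=
  isClosed_closedBall.inter (isClosed_le P.continuous_R continuous_const)

lemma NA_union_BX : P.NA ∪ P.BX = cube 2 := by
  ext z
  constructor
  · rintro (h | h)
    · exact h.1
    · exact P.BX_subset h
  · intro h
    rcases le_total (P.R (z 0) (z 1)) 1 with h1 | h1
    · exact Or.inl ⟨h, h1⟩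
    · exact Or.inr h1

/-- half height of the last box -/
noncomputable def ee (P : Par) : ℝ := (2 - P.a - P.H) / 2

/-- centre -/
noncomputable def cc (P : Par) : ℝ := (P.H - P.a) / 2

lemma ee_pos : 0 < P.ee := by
  have := P.aH; have := P.a0
  unfold ee; linarith

lemma a_lt_one : P.a < 1 := by linarith [P.a_le]

/-- **affine chart of the last box** -/
noncomputable def chart (P : Par) : PLEquiv P.BX (cube 2) where
  f z := fun i => if i = 0 then z 0 / (1 - P.a) else (z 1 - P.cc) / P.ee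
  g x := fun i => if i = 0 then x 0 * (1 - P.a) else x 1 * P.ee + P.cc
  pf := by
    refine pl_pi fun i => ?_
    by_cases hi : i = 0
    · simpa [hi] using pl_div (pl_apply (plOn_id P.BX) (0 : Fin 2)) (1 - P.a)
    · simpa [hi] using pl_div (pl_sub_const (pl_apply (plOn_id P.BX) (1 : Fin 2)) P.cc) P.ee
  pg := by
    refine pl_pi fun i => ?_
    by_cases hi : i = 0
    · have := pl_mul (1 - P.a) (pl_apply (plOn_id (cube 2)) (0 : Fin 2))
      simpa [hi, mul_comm] using this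
    · have := pl_add_const (pl_mul P.ee (pl_apply (plOn_id (cube 2)) (1 : Fin 2))) P.cc
      simpa [hi, mul_comm] using this
  mf := by
    intro z hz
    rw [mem_BX] at hz
    have h1 : 0 < 1 - P.a := by linarith [P.a_lt_one]
    have h2 := P.ee_pos
    rw [mem_cube2]
    refine ⟨?_, ?_⟩
    · show |z 0 / (1 - P.a)| ≤ 1
      rw [abs_div, abs_of_pos h1, div_le_one h1]; exact hz.1
    · show |(z 1 - P.cc) / P.ee| ≤ 1
      rw [abs_div, abs_of_pos h2, div_le_one h2, abs_le]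
      unfold ee cc
      constructor <;> linarith [hz.2.1, hz.2.2]
  mg := by
    intro x hx
    rw [mem_cube2] at hx
    have h1 : 0 < 1 - P.a := by linarith [P.a_lt_one]
    have h2 := P.ee_pos
    rw [mem_BX]
    refine ⟨?_, ?_, ?_⟩
    · show |x 0 * (1 - P.a)| ≤ 1 - P.a
      rw [abs_mul, abs_of_pos h1]
      nlinarith [hx.1]
    · show x 1 * P.ee + P.cc ≤ 1 - P.a
      have h3 := (abs_le.1 hx.2).2
      have h4 := mul_le_mul_of_nonneg_right h3 h2.le
      unfold ee cc at *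
      linarith
    · show -1 + P.H ≤ x 1 * P.ee + P.cc
      have h3 := (abs_le.1 hx.2).1
      have h4 := mul_le_mul_of_nonneg_right h3 h2.le
      unfold ee cc at *
      linarith
  li := by
    intro z _
    have h1 : 1 - P.a ≠ 0 := by linarith [P.a_lt_one]
    have h2 := P.ee_pos.ne'
    funext i
    by_cases hi : i = 0
    · subst hi
      show z 0 / (1 - P.a) * (1 - P.a) = z 0
      field_simp
    · have hi1 : i = 1 := by omega
      subst hi1
      show (z 1 - P.cc) / P.ee * P.ee + P.cc = z 1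
      field_simp
      ring
  ri := by
    intro x _
    have h1 : 1 - P.a ≠ 0 := by linarith [P.a_lt_one]
    have h2 := P.ee_pos.ne'
    funext i
    by_cases hi : i = 0
    · subst hi
      show x 0 * (1 - P.a) / (1 - P.a) = x 0
      field_simp
    · have hi1 : i = 1 := by omega
      subst hi1
      show (x 1 * P.ee + P.cc - P.cc) / P.ee = x 1
      field_simp
      ring

end Par

end Crest.Agent.R096.Fsw_928
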