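import Crest.Agent.R096.Fsw3_928

/-!
# R096 (row 96), FACE-SWEEP, part 4: one step, swap, collar extension (helper928)
-/

set_option autoImplicit false

open Set Metric

namespace Crest.Agent.R096.Fsw_928

open Crest.Agent.R096.Ce_537 Crest.Agent.R096.Bd_416

/-! ### swap of the coordinates -/

/-- the swap of the two coordinates -/
def sw (x : Fin 2 → ℝ) : Fin 2 → ℝ := fun i => if i = 0 then x 1 else x 0

@[simp] lemma sw_zero (x : Fin 2 → ℝ) : sw x 0 = x 1 := rfl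
@[simp] lemma sw_one (x : Fin 2 → ℝ) : sw x 1 = x 0 := rfl

lemma sw_sw (x : Fin 2 → ℝ) : sw (sw x) = x := by
  funext i
  fin_cases i <;> rfl

lemma norm_sw (x : Fin 2 → ℝ) : ‖sw x‖ = ‖x‖ := by
  have key : ∀ y : Fin 2 → ℝ, ‖sw y‖ ≤ ‖y‖ := fun y => by
    rw [pi_norm_le_iff_of_nonneg (norm_nonneg _)]
    intro i
    fin_cases i
    · exact norm_le_pi_norm y 1
    · exact norm_le_pi_norm y 0
  apply le_antisymm (key x)
  have := key (sw x)
  rwa [sw_sw] at this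

lemma sw_sph {x : Fin 2 → ℝ} (hx : x ∈ sph 2) : sw x ∈ sph 2 := by
  have h : ‖x‖ = 1 := by simpa using hx
  have : ‖sw x‖ = 1 := by rw [norm_sw, h]
  simpa using this

lemma pl_sw (Z : Set (Fin 2 → ℝ)) : PLOn sw Z := by
  refine pl_pi fun i => ?_
  fin_cases i
  · exact pl_apply (plOn_id Z) 1
  · exact pl_apply (plOn_id Z) 0

/-- the swap as a PL equivalence of the square -/
noncomputable def swE : PLEquiv (cube 2) (cube 2) where
  f := sw
  g := sw
  pf := pl_sw _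
  pg := pl_sw _
  mf x hx := by
    simp only [cube, mem_closedBall_zero_iff] at hx ⊢
    rw [norm_sw]; exact hx
  mg x hx := by
    simp only [cube, mem_closedBall_zero_iff] at hx ⊢
    rw [norm_sw]; exact hx
  li x _ := sw_sw x
  ri x _ := sw_sw x

lemma collar_g_apply (ω : Fin 2 → ℝ) (r : ℝ) (j : Fin 2) :
    (collar 2).g (ω, r) j = cg r (ω j) := rfl

lemma sw_collar_g (ω : Fin 2 → ℝ) (r : ℝ) :
    sw ((collar 2).g (ω, r)) = (collar 2).g (sw ω, r) := by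
  funext i
  fin_cases i <;> rfl

/-! ### collar extension of a PL equivalence of the circle -/

/-- `{‖x‖ ≤ 1/2}` -/
def Hf : Set (Fin 2 → ℝ) := {x | ‖x‖ ≤ 1/2}

lemma isClosed_Hf : IsClosed Hf := isClosed_le continuous_norm continuous_const

/-- dilation `{‖x‖ ≤ 1/2} ≅ cube` -/
noncomputable def dil : PLEquiv Hf (cube 2) where
  f x := fun i => 2 * x i
  g x := fun i => x i / 2
  pf := pl_pi fun i => pl_mul 2 (pl_apply (plOn_id _) i)
  pg := pl_pi fun i => pl_div (pl_apply (plOn_id _) i) 2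
  mf x hx := by
    have hx' : ‖x‖ ≤ 1/2 := hx
    have e : (fun i => 2 * x i) = (2:ℝ) • x := by funext i; simp
    simp only [cube, mem_closedBall_zero_iff]
    rw [e, norm_smul]; norm_num; linarith
  mg x hx := by
    simp only [cube, mem_closedBall_zero_iff] at hx
    have e : (fun i => x i / 2) = (1/2:ℝ) • x := by funext i; simp; ring
    show ‖(fun i => x i / 2)‖ ≤ 1/2
    rw [e, norm_smul]; norm_num; linarith
  li x _ := by funext i; show 2 * x i / 2 = x i; ring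
  ri x _ := by funext i; show 2 * (x i / 2) = x i; ring

/-- the product equivalence on the collar -/
noncomputable def prodB (β : PLEquiv (sph 2) (sph 2)) : PLEquiv (PS (sph 2)) (PS (sph 2)) where
  f p := (β.f p.1, p.2)
  g p := (β.g p.1, p.2)
  pf := pl_pair (β.pf.comp (pl_fst (plOn_id _)) (fun _ hz => hz.1)) (pl_snd (plOn_id _))
  pg := pl_pair (β.pg.comp (pl_fst (plOn_id _)) (fun _ hz => hz.1)) (pl_snd (plOn_id _))
  mf _ hp := ⟨β.mf hp.1, hp.2⟩
  mg _ hp := ⟨β.mg hp.1, hp.2⟩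
  li _ hp := Prod.ext (β.li _ hp.1) rfl
  ri _ hp := Prod.ext (β.ri _ hp.1) rfl

/-- outer part of the collar extension -/
noncomputable def colO (β : PLEquiv (sph 2) (sph 2)) : PLEquiv (Ann 2) (Ann 2) :=
  (collar 2).trans ((prodB β).trans (collar 2).symm)

/-- inner part -/
noncomputable def colI (β : PLEquiv (sph 2) (sph 2)) : PLEquiv Hf Hf :=
  dil.trans ((coneEquiv β).trans dil.symm)

lemma cg_half (u : ℝ) : cg (1/2) u = u / 2 := by
  unfold cg
  rcases le_total 0 u with h | h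
  · rw [max_eq_right (show (0:ℝ) ≤ (u + 1 - 2 * (1/2)) / 2 by linarith),
      max_eq_left (show (-u + 1 - 2 * (1/2)) / 2 ≤ (0:ℝ) by linarith)]; ring
  · rw [max_eq_left (show (u + 1 - 2 * (1/2)) / 2 ≤ (0:ℝ) by linarith),
      max_eq_right (show (0:ℝ) ≤ (-u + 1 - 2 * (1/2)) / 2 by linarith)]; ring

lemma colO_f_collar (β : PLEquiv (sph 2) (sph 2)) {ω : Fin 2 → ℝ} {r : ℝ} (hω : ω ∈ sph 2)
    (hr : r ∈ Icc (1/2 : ℝ) 1) :
    (colO β).f ((collar 2).g (ω, r)) = (collar 2).g (β.f ω, r) := by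
  show (collar 2).g ((prodB β).f ((collar 2).f ((collar 2).g (ω, r)))) = _
  rw [collar_f_g hω hr]; rfl

lemma colI_f_half (β : PLEquiv (sph 2) (sph 2)) {ω : Fin 2 → ℝ} (hω : ω ∈ sph 2) :
    (colI β).f ((collar 2).g (ω, 1/2)) = (collar 2).g (β.f ω, 1/2) := by
  have e : (fun i => 2 * (collar 2).g (ω, 1/2) i) = ω := by
    funext i; rw [collar_g_apply, cg_half]; ring
  show (fun i => cone β.f (fun i => 2 * (collar 2).g (ω, 1/2) i) i / 2) = _
  rw [e, cone_sph _ hω]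
  funext i; rw [collar_g_apply, cg_half]

lemma colO_eq_colI (β : PLEquiv (sph 2) (sph 2)) : EqOn (colO β).f (colI β).f (Ann 2 ∩ Hf) := by
  rintro x ⟨hx, hx2⟩
  have h1 : ‖x‖ = 1/2 := le_antisymm hx2 hx.1
  have h2 : (collar 2).g (((collar 2).f x).1, 1/2) = x := by
    have := (collar 2).li x hx
    have e : (collar 2).f x = (((collar 2).f x).1, 1/2) := by
      apply Prod.ext
      · rfl
      · exact h1
    rwa [e] at this
  have h3 := ((collar 2).mf hx).1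
  rw [← h2, colO_f_collar β h3 ⟨le_rfl, by norm_num⟩, colI_f_half β h3]

lemma Ann_union_Hf : Ann 2 ∪ Hf = cube 2 := by
  ext x
  simp only [cube, mem_closedBall_zero_iff]
  constructor
  · rintro (h | h)
    · exact h.2
    · have : ‖x‖ ≤ 1/2 := h
      show ‖x‖ ≤ 1
      linarith
  · intro h
    rcases le_total ‖x‖ (1/2) with h1 | h1
    · exact Or.inr h1
    · exact Or.inl ⟨h1, h⟩

/-- the glued equivalence -/
noncomputable def colG (β : PLEquiv (sph 2) (sph 2)) : PLEquiv (Ann 2 ∪ Hf) (Ann 2 ∪ Hf) :=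
  Cb_609.glue (colO β) (colI β) isClosed_Ann isClosed_Hf isClosed_Ann isClosed_Hf
    (colO_eq_colI β) (colO_eq_colI β.symm)

/-- **the collar extension** `(ω, r) ↦ (β ω, r)` for `r ≥ 1/2` -/
noncomputable def colB (β : PLEquiv (sph 2) (sph 2)) : PLEquiv (cube 2) (cube 2) :=
  (colG β).restr Ann_union_Hf.ge Ann_union_Hf.ge
    (fun x hx => by
      rw [← Ann_union_Hf] at hx ⊢
      exact (colG β).mf hx)
    (fun x hx => by
      rw [← Ann_union_Hf] at hx ⊢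
      exact (colG β).mg hx)

lemma colB_f_ann (β : PLEquiv (sph 2) (sph 2)) {x : Fin 2 → ℝ} (hx : x ∈ Ann 2) :
    (colB β).f x = (colO β).f x :=
  Cb_609.glue_f₁ (colO β) (colI β) isClosed_Ann isClosed_Hf isClosed_Ann isClosed_Hf
    (colO_eq_colI β) (colO_eq_colI β.symm) hx

lemma colB_g_ann (β : PLEquiv (sph 2) (sph 2)) {x : Fin 2 → ℝ} (hx : x ∈ Ann 2) :
    (colB β).g x = (colO β).g x :=
  Cb_609.glue_g₁ (colO β) (colI β) isClosed_Ann isClosed_Hf isClosed_Ann isClosed_Hf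
    (colO_eq_colI β) (colO_eq_colI β.symm) hx

lemma colB_g_hf (β : PLEquiv (sph 2) (sph 2)) {x : Fin 2 → ℝ} (hx : x ∈ Hf) :
    (colB β).g x = (colI β).g x :=
  Cb_609.glue_g₂ (colO β) (colI β) isClosed_Ann isClosed_Hf isClosed_Ann isClosed_Hf
    (colO_eq_colI β) (colO_eq_colI β.symm) hx

lemma colB_f_collar (β : PLEquiv (sph 2) (sph 2)) {ω : Fin 2 → ℝ} {r : ℝ} (hω : ω ∈ sph 2)
    (hr : r ∈ Icc (1/2 : ℝ) 1) :
    (colB β).f ((collar 2).g (ω, r)) = (collar 2).g (β.f ω, r) := by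
  rw [← colO_f_collar β hω hr]
  exact colB_f_ann β ((collar 2).mg ⟨hω, hr⟩)

lemma colB_g_collar (β : PLEquiv (sph 2) (sph 2)) {ω : Fin 2 → ℝ} {r : ℝ} (hω : ω ∈ sph 2)
    (hr : r ∈ Icc (1/2 : ℝ) 1) :
    (colB β).g ((collar 2).g (ω, r)) = (collar 2).g (β.g ω, r) := by
  rw [colB_g_ann β ((collar 2).mg ⟨hω, hr⟩)]
  exact colO_f_collar β.symm hω hr

lemma colB_f_sph (β : PLEquiv (sph 2) (sph 2)) {ω : Fin 2 → ℝ} (hω : ω ∈ sph 2) :
    (colB β).f ω = β.f ω := by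
  have := colB_f_collar β hω (r := 1) ⟨by norm_num, le_rfl⟩
  rwa [collar_g_one hω, collar_g_one (β.mf hω)] at this

lemma colB_g_low (β : PLEquiv (sph 2) (sph 2)) {x : Fin 2 → ℝ} (hx : ‖x‖ ≤ 1/2) :
    ‖(colB β).g x‖ ≤ 1/2 := by
  rw [colB_g_hf β hx]
  exact (colI β).mg hx

/-! ### one step -/

/-- the data of one annulus step -/
structure AnnS where
  NA : Set (Fin 2 → ℝ)
  BX : Set (Fin 2 → ℝ)
  cNA : IsClosed NA
  cBX : IsClosed BX
  un : NA ∪ BX = cube 2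
  A : PLEquiv (sph 2 ×ˢ Icc (0 : ℝ) 1) NA
  C : PLEquiv BX (cube 2)
  A0 : ∀ ω ∈ sph 2, A.f (ω, 0) = ω
  A1 : ∀ ω ∈ sph 2, A.f (ω, 1) ∈ BX
  C1 : ∀ z ∈ NA, z ∈ BX → (A.g z).2 = 1
  CS : ∀ z ∈ BX, C.f z ∈ sph 2 ↔ z ∈ NA

namespace AnnS

variable (W : AnnS)

/-- the induced equivalence of the circle -/
noncomputable def β : PLEquiv (sph 2) (sph 2) where
  f ω := W.C.f (W.A.f (ω, 1))
  g w := (W.A.g (W.C.g w)).1
  pf := by
    have h1 : PLOn (fun ω : Fin 2 → ℝ => (ω, (1:ℝ))) (sph 2) :=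
      pl_pair (plOn_id _) (plOn_const _ _)
    have h2 : PLOn (fun ω : Fin 2 → ℝ => W.A.f (ω, 1)) (sph 2) :=
      W.A.pf.comp h1 (fun ω hω => ⟨hω, by norm_num⟩)
    exact W.C.pf.comp h2 (fun ω hω => W.A1 ω hω)
  pg := by
    have h1 : PLOn W.C.g (sph 2) := W.C.pg.mono sph_subset_cube
    have h2 : MapsTo W.C.g (sph 2) W.NA := fun w hw => by
      rw [← W.CS _ (W.C.mg (sph_subset_cube hw)), W.C.ri _ (sph_subset_cube hw)]; exact hw
    exact pl_fst (W.A.pg.comp h1 h2)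
  mf ω hω := by
    rw [W.CS _ (W.A1 ω hω)]
    exact W.A.mf ⟨hω, by norm_num⟩
  mg w hw := by
    have h2 : W.C.g w ∈ W.NA := by
      rw [← W.CS _ (W.C.mg (sph_subset_cube hw)), W.C.ri _ (sph_subset_cube hw)]; exact hw
    exact (W.A.mg h2).1
  li ω hω := by
    show (W.A.g (W.C.g (W.C.f (W.A.f (ω, 1))))).1 = ω
    rw [W.C.li _ (W.A1 ω hω), W.A.li _ ⟨hω, by norm_num⟩]
  ri w hw := by
    have h0 := W.C.mg (sph_subset_cube hw)
    have h2 : W.C.g w ∈ W.NA := by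
      rw [← W.CS _ h0, W.C.ri _ (sph_subset_cube hw)]; exact hw
    show W.C.f (W.A.f ((W.A.g (W.C.g w)).1, 1)) = w
    have h3 : ((W.A.g (W.C.g w)).1, (1:ℝ)) = W.A.g (W.C.g w) := by
      apply Prod.ext
      · rfl
      · exact (W.C1 _ h2 h0).symm
    rw [h3, W.A.ri _ h2, W.C.ri _ (sph_subset_cube hw)]

variable (κ : PLEquiv (cube 2) (cube 2))

/-- outer part -/
noncomputable def eO : PLEquiv Out2 W.NA := outE.trans W.A

/-- inner part -/
noncomputable def eI : PLEquiv In2 W.BX := shr.trans (κ.trans W.C.symm)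

variable {κ} (hκ : ∀ ω ∈ sph 2, κ.f ω = W.β.f ω)

include hκ in
lemma eq_f : EqOn W.eO.f (W.eI κ).f (Out2 ∩ In2) := by
  rintro x ⟨hx, hx2⟩
  have h1 : ‖x‖ = 3/4 := le_antisymm hx2 hx.1
  have hA : x ∈ Ann 2 := ⟨by linarith, by linarith⟩
  have hω := ((collar 2).mf hA).1
  have h2 : (collar 2).g (((collar 2).f x).1, 3/4) = x := by
    have := (collar 2).li x hA
    have e : (collar 2).f x = (((collar 2).f x).1, 3/4) := by
      apply Prod.ext
      · rfl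
      · exact h1
    rwa [e] at this
  have h3 : (collar 2).f x = (((collar 2).f x).1, 3/4) := by
    apply Prod.ext
    · rfl
    · exact h1
  show W.A.f (((collar 2).f x).1, 4 * (1 - ((collar 2).f x).2)) = W.C.g (κ.f (shr.f x))
  have e1 : 4 * (1 - ((collar 2).f x).2) = 1 := by
    rw [h3]; norm_num
  have e2 : shr.f x = ((collar 2).f x).1 := by
    have h4 := shr_f_collar hω (r := 3/4) ⟨by norm_num, le_rfl⟩
    rw [h2] at h4
    rw [h4]
    have : (2 * (3/4) - 1/2 : ℝ) = 1 := by norm_num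
    rw [this]
    exact collar_g_one hω
  rw [e1, e2, hκ _ hω]
  show _ = W.C.g (W.C.f (W.A.f (((collar 2).f x).1, 1)))
  rw [W.C.li _ (W.A1 _ hω)]

include hκ in
lemma eq_g : EqOn W.eO.g (W.eI κ).g (W.NA ∩ W.BX) := by
  refine Cb_609.eqOn_g_of_f W.eO (W.eI κ) (W.eq_f hκ) ?_
  rintro z ⟨h1, h2⟩
  have h3 := W.C1 z h1 h2
  have h4 := (W.A.mg h1).1
  show ‖(collar 2).g ((W.A.g z).1, 1 - (W.A.g z).2 / 4)‖ ≤ 3/4
  rw [h3, norm_collar_g h4 ⟨by norm_num, by norm_num⟩]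
  norm_num

lemma Out_union_In : Out2 ∪ In2 = cube 2 := by
  ext x
  simp only [cube, mem_closedBall_zero_iff]
  constructor
  · rintro (h | h)
    · exact h.2
    · have : ‖x‖ ≤ 3/4 := h
      show ‖x‖ ≤ 1
      linarith
  · intro h
    rcases le_total ‖x‖ (3/4) with h1 | h1
    · exact Or.inr h1
    · exact Or.inl ⟨h1, h⟩

/-- **one step**: cone side → sweep side -/
noncomputable def step : PLEquiv (cube 2) (cube 2) :=
  (Cb_609.glue W.eO (W.eI κ) isClosed_Out2 isClosed_In2 W.cNA W.cBX (W.eq_f hκ)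
    (W.eq_g hκ)).restr Out_union_In.ge W.un.ge
    (fun x hx => by
      rw [← Out_union_In] at hx
      rw [← W.un]
      exact (Cb_609.glue W.eO (W.eI κ) isClosed_Out2 isClosed_In2 W.cNA W.cBX (W.eq_f hκ)
        (W.eq_g hκ)).mf hx)
    (fun x hx => by
      rw [← W.un] at hx
      rw [← Out_union_In]
      exact (Cb_609.glue W.eO (W.eI κ) isClosed_Out2 isClosed_In2 W.cNA W.cBX (W.eq_f hκ)
        (W.eq_g hκ)).mg hx)

lemma step_g_NA {z : Fin 2 → ℝ} (hz : z ∈ W.NA) :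
    (W.step hκ).g z = (collar 2).g ((W.A.g z).1, 1 - (W.A.g z).2 / 4) :=
  Cb_609.glue_g₁ W.eO (W.eI κ) isClosed_Out2 isClosed_In2 W.cNA W.cBX (W.eq_f hκ)
    (W.eq_g hκ) hz

lemma step_g_BX {z : Fin 2 → ℝ} (hz : z ∈ W.BX) :
    (W.step hκ).g z = shr.g (κ.g (W.C.f z)) :=
  Cb_609.glue_g₂ W.eO (W.eI κ) isClosed_Out2 isClosed_In2 W.cNA W.cBX (W.eq_f hκ)
    (W.eq_g hκ) hz

lemma step_f_sph {ω : Fin 2 → ℝ} (hω : ω ∈ sph 2) : (W.step hκ).f ω = ω := by
  have hn : ‖ω‖ = 1 := by simpa using hω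
  have h1 : ω ∈ Out2 := ⟨by linarith, hn.le⟩
  have h2 : (W.step hκ).f ω = W.eO.f ω :=
    Cb_609.glue_f₁ W.eO (W.eI κ) isClosed_Out2 isClosed_In2 W.cNA W.cBX (W.eq_f hκ)
      (W.eq_g hκ) h1
  rw [h2]
  show W.A.f (((collar 2).f ω).1, 4 * (1 - ((collar 2).f ω).2)) = ω
  rw [collar_f_sph hω]
  simp only [sub_self, mul_zero]
  exact W.A0 ω hω

lemma step_g_sph {ω : Fin 2 → ℝ} (hω : ω ∈ sph 2) : (W.step hκ).g ω = ω := by
  have := (W.step hκ).li ω (sph_subset_cube hω)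
  rwa [W.step_f_sph hκ hω] at this

end AnnS

end Crest.Agent.R096.Fsw_928
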