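import Crest.Agent.R096.Fsw4_928

/-!
# R096 (row 96), FACE-SWEEP, part 5: the PL homeo of the square and its formulas (helper928)
-/

set_option autoImplicit false

open Set Metric

namespace Crest.Agent.R096.Fsw_928

open Crest.Agent.R096.Ce_537 Crest.Agent.R096.Bd_416

namespace Par

variable {P : Par}

lemma F_mem_BX {ω : Fin 2 → ℝ} (hω : ω ∈ sph 2) : P.F (ω, 1) ∈ P.BX := by
  rw [mem_sph2] at hω
  have := P.R_F (ρ := 1) zero_le_one le_rfl hω.1 hω.2.1 hω.2.2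
  exact this.ge

lemma chart_sph {z : Fin 2 → ℝ} (hz : z ∈ P.BX) : P.chart.f z ∈ sph 2 ↔ z ∈ P.NA := by
  have hz' := P.mem_BX.1 hz
  have h1 : 0 < 1 - P.a := by linarith [P.a_lt_one]
  have h2 := P.ee_pos
  have e0 : P.chart.f z 0 = z 0 / (1 - P.a) := rfl
  have e1 : P.chart.f z 1 = (z 1 - P.cc) / P.ee := rfl
  have hm := P.chart.mf hz
  rw [mem_cube2] at hm
  rw [mem_sph2]
  have k0 : |P.chart.f z 0| = 1 ↔ |z 0| = 1 - P.a := by
    rw [e0, abs_div, abs_of_pos h1, div_eq_one_iff_eq h1.ne']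
  have k1 : |P.chart.f z 1| = 1 ↔ (z 1 = 1 - P.a ∨ z 1 = -1 + P.H) := by
    rw [e1, abs_div, abs_of_pos h2, div_eq_one_iff_eq h2.ne', abs_eq h2.le]
    unfold ee cc
    constructor
    · rintro (h | h)
      · left; linarith
      · right; linarith
    · rintro (h | h)
      · left; linarith
      · right; linarith
  have kNA : z ∈ P.NA ↔ (|z 0| = 1 - P.a ∨ (z 1 = 1 - P.a ∨ z 1 = -1 + P.H)) := by
    constructor
    · intro h
      have hR : P.R (z 0) (z 1) = 1 := le_antisymm h.2 hz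
      rcases P.gauge_eq hR with h3 | h3 | h3
      · left; rw [h3]; ring
      · right; left; rw [h3]; ring
      · right; right; rw [h3]; unfold hh; ring
    · intro h
      refine ⟨P.BX_subset hz, ?_⟩
      unfold R
      rw [max_neg_eq]
      rcases h with h | h | h
      · refine (min_le_left _ _).trans ((min_le_left _ _).trans ?_)
        rw [div_le_one P.a0, h]; linarith
      · refine (min_le_left _ _).trans ((min_le_right _ _).trans ?_)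
        rw [div_le_one P.a0, h]; linarith
      · refine (min_le_right _ _).trans ?_
        rw [div_le_one P.H0, h]; linarith
  rw [kNA, k0, k1]
  exact ⟨fun h => h.2.2, fun h => ⟨hm.1, hm.2, h⟩⟩

/-- the step of a sweep -/
noncomputable def ann (P : Par) : AnnS where
  NA := P.NA
  BX := P.BX
  cNA := P.isClosed_NA
  cBX := P.isClosed_BX
  un := P.NA_union_BX
  A := P.sweep
  C := P.chart
  A0 ω hω := P.F_at_zero hω
  A1 ω hω := P.F_mem_BX hω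
  C1 z h1 h2 := le_antisymm h1.2 h2
  CS z hz := P.chart_sph hz

/-- the second sweep (in the swapped last box) -/
noncomputable def phi2 (P : Par) : PLEquiv (cube 2) (cube 2) :=
  P.ann.step (κ := colB P.ann.β) (fun _ hω => colB_f_sph _ hω)

/-- the map on the inner cube -/
noncomputable def kap (P P' : Par) : PLEquiv (cube 2) (cube 2) :=
  (colB P.ann.β).trans (swE.trans (P'.phi2.trans swE))

lemma kap_sph (P P' : Par) : ∀ ω ∈ sph 2, (P.kap P').f ω = P.ann.β.f ω := by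
  intro ω hω
  show sw (P'.phi2.f (sw ((colB P.ann.β).f ω))) = _
  rw [colB_f_sph _ hω]
  have h : P'.phi2.f (sw (P.ann.β.f ω)) = sw (P.ann.β.f ω) :=
    AnnS.step_f_sph P'.ann _ (sw_sph (P.ann.β.mf hω))
  rw [h, sw_sw]

/-- **THE PL HOMEO OF THE SQUARE**: cone side → sweep side -/
noncomputable def phi (P P' : Par) : PLEquiv (cube 2) (cube 2) :=
  P.ann.step (P.kap_sph P')

variable (P) (P' : Par)

lemma phi_f_sph {ω : Fin 2 → ℝ} (hω : ω ∈ sph 2) : (P.phi P').f ω = ω :=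
  AnnS.step_f_sph P.ann _ hω

lemma phi_g_sph {ω : Fin 2 → ℝ} (hω : ω ∈ sph 2) : (P.phi P').g ω = ω :=
  AnnS.step_g_sph P.ann _ hω

/-- the collar coordinates `(ω, r)` of a point of the cone side -/
def IsCo (x ω : Fin 2 → ℝ) (r : ℝ) : Prop :=
  ω ∈ sph 2 ∧ r ∈ Icc (1/2 : ℝ) 1 ∧ x = (collar 2).g (ω, r)

lemma IsCo.norm {x ω : Fin 2 → ℝ} {r : ℝ} (h : IsCo x ω r) : ‖x‖ = r := by
  rw [h.2.2]; exact norm_collar_g h.1 h.2.1

lemma IsCo.ann {x ω : Fin 2 → ℝ} {r : ℝ} (h : IsCo x ω r) : x ∈ Ann 2 := by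
  rw [h.2.2]; exact (collar 2).mg ⟨h.1, h.2.1⟩

lemma IsCo.f {x ω : Fin 2 → ℝ} {r : ℝ} (h : IsCo x ω r) : (collar 2).f x = (ω, r) := by
  rw [h.2.2]; exact collar_f_g h.1 h.2.1

/-- **first sweep** -/
lemma phi_NA {z : Fin 2 → ℝ} (hz : z ∈ P.NA) :
    IsCo ((P.phi P').g z) (P.Gi z).1 (1 - P.R (z 0) (z 1) / 4) := by
  have h1 := P.sweep.mg hz
  refine ⟨h1.1, ?_, AnnS.step_g_NA P.ann _ hz⟩
  have h2 : P.R (z 0) (z 1) ∈ Icc (0:ℝ) 1 := h1.2
  constructor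
  · linarith [h2.2]
  · linarith [h2.1]

/-- the point of the second square -/
noncomputable def z2 (z : Fin 2 → ℝ) : Fin 2 → ℝ := sw (P.chart.f z)

lemma z2_mem {z : Fin 2 → ℝ} (hz : z ∈ P.BX) : P.z2 z ∈ cube 2 := swE.mf (P.chart.mf hz)

lemma phi_BX {z : Fin 2 → ℝ} (hz : z ∈ P.BX) :
    (P.phi P').g z = shr.g ((colB P.ann.β).g (sw (P'.phi2.g (P.z2 z)))) :=
  AnnS.step_g_BX P.ann _ hz

/-- **second sweep** -/
lemma phi_BX_NA {z : Fin 2 → ℝ} (hz : z ∈ P.BX) (hz2 : P.z2 z ∈ P'.NA) :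
    IsCo ((P.phi P').g z) (P.ann.β.g (sw (P'.Gi (P.z2 z)).1))
      (3/4 - P'.R (P.z2 z 0) (P.z2 z 1) / 8) := by
  have h1 := P'.sweep.mg hz2
  have h2 : P'.R (P.z2 z 0) (P.z2 z 1) ∈ Icc (0:ℝ) 1 := h1.2
  have h3 : sw (P'.Gi (P.z2 z)).1 ∈ sph 2 := sw_sph h1.1
  have e1 : P'.phi2.g (P.z2 z)
      = (collar 2).g ((P'.Gi (P.z2 z)).1, 1 - P'.R (P.z2 z 0) (P.z2 z 1) / 4) :=
    AnnS.step_g_NA P'.ann _ hz2
  have hr : 1 - P'.R (P.z2 z 0) (P.z2 z 1) / 4 ∈ Icc (1/2 : ℝ) 1 :=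
    ⟨by linarith [h2.2], by linarith [h2.1]⟩
  refine ⟨P.ann.β.mg h3, ⟨by linarith [h2.2], by linarith [h2.1]⟩, ?_⟩
  rw [P.phi_BX P' hz, e1, sw_collar_g, colB_g_collar _ h3 hr,
    shr_g_collar (P.ann.β.mg h3) hr]
  congr 2
  ring

/-- the point of the last square -/
noncomputable def z3 (z : Fin 2 → ℝ) : Fin 2 → ℝ := P'.chart.f (P.z2 z)

lemma phi_BX_BX {z : Fin 2 → ℝ} (hz : z ∈ P.BX) (hz2 : P.z2 z ∈ P'.BX) :
    (P.phi P').g z
      = shr.g ((colB P.ann.β).g (sw (shr.g ((colB P'.ann.β).g (P.z3 P' z))))) := by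
  rw [P.phi_BX P' hz]
  have : P'.phi2.g (P.z2 z) = shr.g ((colB P'.ann.β).g (P'.chart.f (P.z2 z))) :=
    AnnS.step_g_BX P'.ann _ hz2
  rw [this]
  rfl

/-- **last box, collar part** -/
lemma phi_last {z : Fin 2 → ℝ} (hz : z ∈ P.BX) (hz2 : P.z2 z ∈ P'.BX)
    {θ : Fin 2 → ℝ} {s : ℝ} (h : IsCo (P.z3 P' z) θ s) :
    IsCo ((P.phi P').g z) (P.ann.β.g (sw (P'.ann.β.g θ))) (s / 4 + 3/8) := by
  obtain ⟨h1, h2, h3⟩ := h
  have k1 := P'.ann.β.mg h1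
  have k2 : sw (P'.ann.β.g θ) ∈ sph 2 := sw_sph k1
  have k3 := P.ann.β.mg k2
  have hr : (s + 1/2) / 2 ∈ Icc (1/2 : ℝ) 1 := ⟨by linarith [h2.1], by linarith [h2.2]⟩
  refine ⟨k3, ⟨by linarith [h2.1], by linarith [h2.2]⟩, ?_⟩
  rw [P.phi_BX_BX P' hz hz2, h3, colB_g_collar _ h1 h2, shr_g_collar k1 h2, sw_collar_g,
    colB_g_collar _ k2 hr, shr_g_collar k3 hr]
  congr 2
  ring

lemma norm_shr_g_low {x : Fin 2 → ℝ} (hx : ‖x‖ ≤ 1/2) : ‖shr.g x‖ ≤ 1/2 := by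
  show ‖shg x‖ ≤ 1/2
  rw [shg_low hx]; exact hx

/-- **last box, core** -/
lemma phi_core {z : Fin 2 → ℝ} (hz : z ∈ P.BX) (hz2 : P.z2 z ∈ P'.BX)
    (h : ‖P.z3 P' z‖ ≤ 1/2) : ‖(P.phi P').g z‖ ≤ 1/2 := by
  rw [P.phi_BX_BX P' hz hz2]
  refine norm_shr_g_low (colB_g_low _ ?_)
  rw [norm_sw]
  exact norm_shr_g_low (colB_g_low _ h)

end Par

end Crest.Agent.R096.Fsw_928
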