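import Crest.Agent.R096.Fsw5_928

/-!
# R096 (row 96), FACE-SWEEP, part 6: the sweep annulus in regions (helper928)
-/

set_option autoImplicit false

open Set Metric

namespace Crest.Agent.R096.Fsw_928

open Crest.Agent.R096.Ce_537 Crest.Agent.R096.Bd_416

/-! ### `cg` and functions which are constant near the end points -/

lemma cg_small {r s : ℝ} (hs : |s| ≤ 2 * r - 1) : cg r s = s := by
  obtain ⟨h1, h2⟩ := abs_le.1 hs
  unfold cg
  rw [max_eq_left (show (s + 1 - 2 * r) / 2 ≤ (0:ℝ) by linarith),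
    max_eq_left (show (-s + 1 - 2 * r) / 2 ≤ (0:ℝ) by linarith)]
  ring

lemma cg_big {r s : ℝ} (hr : 1/2 ≤ r) (hs : 2 * r - 1 ≤ s) : 2 * r - 1 ≤ cg r s := by
  have h0 : 0 ≤ s := by linarith
  rw [cg_of_nonneg hr h0, max_eq_right (by linarith)]
  linarith

lemma cg_big' {r s : ℝ} (hr : 1/2 ≤ r) (hs : s ≤ -(2 * r - 1)) : cg r s ≤ -(2 * r - 1) := by
  have h1 := cg_big hr (s := -s) (by linarith)
  rw [cg_neg] at h1
  linarith

/-- `k` is constant on `(-∞, -y]` and on `[y, ∞)` -/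
def Ends (k : ℝ → ℝ) (y : ℝ) : Prop := (∀ x ≤ -y, k x = k (-1)) ∧ ∀ x, y ≤ x → k x = k 1

lemma Ends.cg {k : ℝ → ℝ} {y r s : ℝ} (hk : Ends k y) (hr : 1/2 ≤ r) (hy : y ≤ 2 * r - 1) :
    k (cg r s) = k s := by
  by_cases h : |s| ≤ 2 * r - 1
  · rw [cg_small h]
  · rw [not_le, lt_abs] at h
    rcases h with h | h
    · rw [hk.2 s (by linarith), hk.2 _ (hy.trans (cg_big hr h.le))]
    · rw [hk.1 s (by linarith), hk.1 _ ((cg_big' hr (by linarith : s ≤ -(2 * r - 1))).trans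
        (by linarith))]

/-- the sign, with value `1` at `0` -/
noncomputable def sgn (u : ℝ) : ℝ := if 0 ≤ u then 1 else -1

lemma sgn_of_nonneg {u : ℝ} (h : 0 ≤ u) : sgn u = 1 := if_pos h
lemma sgn_of_neg {u : ℝ} (h : u < 0) : sgn u = -1 := if_neg (not_le.2 h)

lemma sgn_cases (u : ℝ) : sgn u = 1 ∨ sgn u = -1 := by
  unfold sgn; split_ifs <;> simp

namespace Par

variable {P : Par}

/-! ### the three sides -/

lemma T_lat {u v ρ : ℝ} (hR : P.R u v = ρ) (h0 : 0 ≤ ρ) (h1 : ρ ≤ 1) (hu : |u| = 1 - P.a * ρ) :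
    P.T u v ρ = max v (2 * v - 1 + 2 * (P.a * ρ)) := by
  obtain ⟨g1, g2, g3⟩ := P.gauge_ge hR
  have hh1 := P.hh_ge h0
  have h2 := P.two_le
  have hT1ge : v ≤ max v (2 * v - 1 + 2 * (P.a * ρ)) := le_max_left _ _
  have h3 : 1 - (2 / P.a) * (1 - P.a * ρ - v) ≤ max v (2 * v - 1 + 2 * (P.a * ρ)) := by
    refine le_trans ?_ (le_max_right _ _)
    have h5 := mul_le_mul_of_nonneg_right h2 (by linarith : (0:ℝ) ≤ 1 - P.a * ρ - v)
    linarith
  have e0 : (1 - |u| - P.a * ρ) / P.m = 0 := by rw [hu]; simp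
  unfold T
  rw [max_neg_eq, e0, sub_zero, max_eq_left h3]
  exact max_eq_right (by linarith)

lemma T_top {u v ρ : ℝ} (hR : P.R u v = ρ) (h0 : 0 ≤ ρ) (h1 : ρ ≤ 1) (hv : v = 1 - P.a * ρ) :
    P.T u v ρ = 1 := by
  obtain ⟨g1, g2, g3⟩ := P.gauge_ge hR
  have ha := P.aρ_nonneg h0
  have hh1 := P.hh_ge h0
  have hq : 0 ≤ (1 - |u| - P.a * ρ) / P.m := div_nonneg (by linarith) P.m0.le
  have hT1le : max v (2 * v - 1 + 2 * (P.a * ρ)) ≤ 1 := max_le (by linarith) (by linarith)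
  have e0 : 1 - (2 / P.a) * (1 - P.a * ρ - v) = 1 := by rw [hv]; ring
  unfold T
  rw [max_neg_eq, e0]
  rw [max_eq_right (show max v (2 * v - 1 + 2 * (P.a * ρ)) -
    (1 - |u| - P.a * ρ) / P.m ≤ 1 by linarith)]
  exact max_eq_right (by norm_num)

lemma T_bot {u v ρ : ℝ} (hR : P.R u v = ρ) (h0 : 0 ≤ ρ) (h1 : ρ ≤ 1) (hv : v = P.hh ρ) :
    P.T u v ρ = max (-1) (P.hh ρ - (1 - |u| - P.a * ρ) / P.m) := by
  obtain ⟨g1, g2, g3⟩ := P.gauge_ge hR
  have ha := P.aρ_nonneg h0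
  have htri := P.third_le h1
  have h2a := P.one_sub_two_a_le h0 h1
  have e1 : max v (2 * v - 1 + 2 * (P.a * ρ)) = P.hh ρ := by
    rw [hv]; exact max_eq_left (by linarith)
  unfold T
  rw [max_neg_eq, e1, hv]
  rcases le_total (1 - 2 / P.a * (1 - P.a * ρ - P.hh ρ))
    (P.hh ρ - (1 - |u| - P.a * ρ) / P.m) with h | h
  · rw [max_eq_left h]
  · rw [max_eq_right h, max_eq_left htri, max_eq_left (h.trans htri)]

/-- the first coordinate on the sides -/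
lemma S_side {u v ρ : ℝ} (hR : P.R u v = ρ) (h0 : 0 ≤ ρ) (h1 : ρ ≤ 1)
    (hS : |P.S u (P.T u v ρ) ρ| = 1) : P.S u (P.T u v ρ) ρ = sgn u := by
  obtain ⟨a1, a2, a3, -, -⟩ := P.inv_spec hR h0 h1
  have h2 := P.dd_le h1 a1
  have h3 := (P.aρ_nonneg h0).trans (P.dd_ge (t := P.T u v ρ))
  have h4 : cg (1 - P.dd (P.T u v ρ) ρ) 1 = 1 - P.dd (P.T u v ρ) ρ :=
    cg_top (by linarith) (by linarith)
  unfold U at a3
  rcases (abs_eq zero_le_one).1 hS with h | h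
  · rw [h, h4] at a3
    rw [h, sgn_of_nonneg (by linarith)]
  · rw [h, cg_neg, h4] at a3
    rw [h, sgn_of_neg (by linarith)]

/-! ### the regions of the annulus -/

/-- the top region -/
def Rt (P : Par) : Set (Fin 2 → ℝ) := {z | z ∈ P.NA ∧ P.R (z 0) (z 1) = (1 - z 1) / P.a}
/-- the lateral region -/
def Rl (P : Par) : Set (Fin 2 → ℝ) := {z | z ∈ P.NA ∧ P.R (z 0) (z 1) = (1 - |z 0|) / P.a}
/-- the bottom region -/
def Rb (P : Par) : Set (Fin 2 → ℝ) := {z | z ∈ P.NA ∧ P.R (z 0) (z 1) = (1 + z 1) / P.H}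

lemma NA_eq : P.NA = P.Rt ∪ (P.Rl ∪ P.Rb) := by
  ext z
  constructor
  · intro h
    unfold Rt Rl Rb
    simp only [mem_union, mem_ofPred_eq]
    unfold R
    rw [max_neg_eq]
    rcases min_choice (min ((1 - |z 0|) / P.a) ((1 - z 1) / P.a)) ((1 + z 1) / P.H) with e | e
    · rw [e]
      rcases min_choice ((1 - |z 0|) / P.a) ((1 - z 1) / P.a) with e' | e'
      · right; left; exact ⟨h, e'⟩
      · left; exact ⟨h, e'⟩
    · right; right; exact ⟨h, e⟩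
  · rintro (h | h | h) <;> exact h.1

lemma isClosed_Rt : IsClosed P.Rt :=
  P.isClosed_NA.inter (isClosed_eq P.continuous_R (by fun_prop))
lemma isClosed_Rl : IsClosed P.Rl :=
  P.isClosed_NA.inter (isClosed_eq P.continuous_R (by fun_prop))
lemma isClosed_Rb : IsClosed P.Rb :=
  P.isClosed_NA.inter (isClosed_eq P.continuous_R (by fun_prop))

/-- the circle coordinate of a point of the annulus -/
noncomputable def om (P : Par) (z : Fin 2 → ℝ) : Fin 2 → ℝ := (P.Gi z).1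

lemma om_zero (z : Fin 2 → ℝ) :
    P.om z 0 = P.S (z 0) (P.T (z 0) (z 1) (P.R (z 0) (z 1))) (P.R (z 0) (z 1)) := rfl
lemma om_one (z : Fin 2 → ℝ) : P.om z 1 = P.T (z 0) (z 1) (P.R (z 0) (z 1)) := rfl

lemma om_mem {z : Fin 2 → ℝ} (hz : z ∈ P.NA) : P.om z ∈ sph 2 := (P.sweep.mg hz).1

lemma R_mem {z : Fin 2 → ℝ} (hz : z ∈ P.NA) : P.R (z 0) (z 1) ∈ Icc (0:ℝ) 1 :=
  ⟨P.R_nonneg hz.1, hz.2⟩

/-- `u = cg (1 - dd) s` -/
lemma om_U {z : Fin 2 → ℝ} (hz : z ∈ P.NA) :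
    cg (1 - P.dd (P.om z 1) (P.R (z 0) (z 1))) (P.om z 0) = z 0 := by
  have h := P.R_mem hz
  exact (P.inv_spec rfl h.1 h.2).2.2.1

lemma om_side {z : Fin 2 → ℝ} (hz : z ∈ P.NA) (h : |P.om z 0| = 1) : P.om z 0 = sgn (z 0) := by
  have h' := P.R_mem hz
  exact P.S_side rfl h'.1 h'.2 h

lemma om_top {z : Fin 2 → ℝ} (hz : z ∈ P.Rt) : P.om z 1 = 1 := by
  have h := P.R_mem hz.1
  refine P.T_top rfl h.1 h.2 ?_
  rw [hz.2]
  have := P.a0.ne'
  field_simp
  ring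

lemma lat_eq {z : Fin 2 → ℝ} (hz : z ∈ P.Rl) : P.a * P.R (z 0) (z 1) = 1 - |z 0| := by
  rw [hz.2]
  have := P.a0.ne'
  field_simp

lemma bot_eq {z : Fin 2 → ℝ} (hz : z ∈ P.Rb) : P.hh (P.R (z 0) (z 1)) = z 1 := by
  unfold hh
  rw [hz.2]
  have := P.H0.ne'
  field_simp
  ring

lemma om_lat {z : Fin 2 → ℝ} (hz : z ∈ P.Rl) :
    P.om z 1 = max (z 1) (2 * z 1 - 1 + 2 * (1 - |z 0|)) := by
  have h := P.R_mem hz.1
  have h2 := P.lat_eq hz
  have := P.T_lat (u := z 0) (v := z 1) rfl h.1 h.2 (by rw [h2]; ring)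
  rw [h2] at this
  exact this

lemma om_lat_zero {z : Fin 2 → ℝ} (hz : z ∈ P.Rl) : P.om z 0 = sgn (z 0) := by
  have h := P.R_mem hz.1
  have h2 := P.lat_eq hz
  refine P.om_side hz.1 ?_
  have h3 : P.hh (P.R (z 0) (z 1)) ≤ P.om z 1 := by
    rw [P.om_lat hz]
    exact (P.gauge_ge rfl).2.2.trans (le_max_left _ _)
  have h4 : -1 ≤ P.om z 1 := (P.hh_ge h.1).trans h3
  exact P.abs_S_eq h.1 h.2 h4 (by rw [← P.om_one, P.dd_of_ge h3, h2]; ring)

lemma om_bot {z : Fin 2 → ℝ} (hz : z ∈ P.Rb) :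
    P.om z 1 = max (-1) (z 1 - (1 - |z 0| - P.a * P.R (z 0) (z 1)) / P.m) := by
  have h := P.R_mem hz.1
  have h2 := P.bot_eq hz
  have := P.T_bot (u := z 0) (v := z 1) rfl h.1 h.2 h2.symm
  rw [h2] at this
  exact this

lemma om_bot_le {z : Fin 2 → ℝ} (hz : z ∈ P.Rb) : P.om z 1 ≤ z 1 := by
  have h := P.R_mem hz.1
  have h2 := (P.gauge_ge (u := z 0) (v := z 1) rfl).1
  rw [P.om_bot hz]
  refine max_le ?_ ?_
  · have := P.hh_ge h.1; rw [P.bot_eq hz] at this; exact this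
  · have := div_nonneg (show (0:ℝ) ≤ 1 - |z 0| - P.a * P.R (z 0) (z 1) by linarith) P.m0.le
    linarith

/-- in the bottom region the circle point is on the bottom side or on the lateral sides -/
lemma om_bot_cases {z : Fin 2 → ℝ} (hz : z ∈ P.Rb) :
    P.om z 1 = -1 ∨ (P.om z 0 = sgn (z 0) ∧ |z 0| = 1 - P.dd (P.om z 1) (P.R (z 0) (z 1))) := by
  have h := P.R_mem hz.1
  by_cases h1 : P.om z 1 = -1
  · exact Or.inl h1
  · right
    have h2 := P.om_mem hz.1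
    rw [mem_sph2] at h2
    have h3 : |P.om z 0| = 1 := by
      rcases h2.2.2 with h3 | h3
      · exact h3
      · exfalso
        rcases (abs_eq zero_le_one).1 h3 with h4 | h4
        · have h5 := P.om_bot_le hz
          rw [h4] at h5
          have h6 := P.one_sub_two_a_le h.1 h.2
          rw [P.bot_eq hz] at h6
          have h7 : P.a * P.R (z 0) (z 1) = 0 := le_antisymm (by linarith) (P.aρ_nonneg h.1)
          have h8 : P.R (z 0) (z 1) = 0 := by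
            rcases mul_eq_zero.1 h7 with h9 | h9
            · exact absurd h9 P.a0.ne'
            · exact h9
          have h9 := P.bot_eq hz
          rw [h8] at h9
          unfold hh at h9
          rw [← h9] at h5
          norm_num at h5
        · exact h1 h4
    refine ⟨P.om_side hz.1 h3, ?_⟩
    have h5 := P.om_U hz.1
    have h6 := abs_cg (1 - P.dd (P.om z 1) (P.R (z 0) (z 1))) (P.om z 0)
      (by linarith [P.dd_le (t := P.om z 1) h.2 (abs_le.1 h2.2.1).1])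
    rw [h5, h3] at h6
    rw [h6]
    have h7 := (P.aρ_nonneg h.1).trans (P.dd_ge (t := P.om z 1))
    exact cg_top (by linarith [P.dd_le (t := P.om z 1) h.2 (abs_le.1 h2.2.1).1]) (by linarith)

end Par

end Crest.Agent.R096.Fsw_928
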