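import Crest.Agent.R096.Fsw6_928
import Crest.Agent.R096.Pc2_117

/-!
# R096 (row 96), FACE-SWEEP, part 7: the two kinds of long chords in a sweep (helper928)
-/

set_option autoImplicit false

open Set Metric Filter Topology

namespace Crest.Agent.R096.Fsw_928

open Crest.Agent.R096.Ce_537 Crest.Agent.R096.Bd_416

/-! ### chords which are swept (type A) -/

/-- A swept function: `c` on the circle, `rp` = its ramp as a function of the time, `k σ t` its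
values on the two lateral sides. -/
structure TA (P : Par) (c : (Fin 2 → ℝ) → ℝ) (rp : ℝ → ℝ) (k : ℝ → ℝ → ℝ) : Prop where
  bot : ∀ ω ∈ sph 2, ω 1 = -1 → c ω = 1/2
  top : ∀ ω ∈ sph 2, ω 1 = 1 → c ω = -1/2
  side : ∀ ω ∈ sph 2, |ω 0| = 1 → c ω = k (ω 0) (ω 1)
  far : ∀ σ t, 1 - 2 * P.a ≤ t → k σ t = -1/2
  lag : ∀ σ t ρ, (σ = 1 ∨ σ = -1) → 0 ≤ ρ → ρ ≤ 1 → P.hh ρ ≤ t → t ≤ 1 → k σ t ≤ rp ρ
  rp0 : ∀ ρ, -1/2 ≤ rp ρ
  rp1 : ∀ ρ, rp ρ ≤ 1/2

section

variable {P : Par} {c : (Fin 2 → ℝ) → ℝ} {rp : ℝ → ℝ} {k : ℝ → ℝ → ℝ}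

/-- the function on the annulus -/
noncomputable def fa (P : Par) (c : (Fin 2 → ℝ) → ℝ) (rp : ℝ → ℝ) (z : Fin 2 → ℝ) : ℝ :=
  min (c (P.om z)) (rp (P.R (z 0) (z 1)))

namespace TA

variable (A : TA P c rp k)
include A

lemma corner {σ : ℝ} (hσ : σ = 1 ∨ σ = -1) : k σ (-1) = 1/2 := by
  have h1 : |σ| = 1 := by rcases hσ with h | h <;> rw [h] <;> norm_num
  have h2 : (fun i : Fin 2 => if i = 0 then σ else (-1:ℝ)) ∈ sph 2 := by
    rw [mem_sph2]
    refine ⟨?_, ?_, ?_⟩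
    · show |σ| ≤ 1; rw [h1]
    · show |(-1:ℝ)| ≤ 1; norm_num
    · left; exact h1
  have h3 := A.side _ h2 h1
  have h4 := A.bot _ h2 rfl
  have h5 : c (fun i : Fin 2 => if i = 0 then σ else (-1:ℝ)) = k σ (-1) := h3
  rw [← h5, h4]

lemma fa_top {z : Fin 2 → ℝ} (hz : z ∈ P.Rt) : fa P c rp z = -1/2 := by
  unfold fa
  rw [A.top _ (P.om_mem hz.1) (P.om_top hz)]
  exact min_eq_left (A.rp0 _)

lemma fa_lat {z : Fin 2 → ℝ} (hz : z ∈ P.Rl) : fa P c rp z = k (sgn (z 0)) (z 1) := by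
  have hR := P.R_mem hz.1
  have h1 := P.om_lat_zero hz
  have h2 := P.om_lat hz
  have h3 : |P.om z 0| = 1 := by
    rw [h1]; rcases sgn_cases (z 0) with h | h <;> rw [h] <;> norm_num
  have h4 := (P.gauge_ge (u := z 0) (v := z 1) rfl).2.2
  have h5 : P.hh (P.R (z 0) (z 1)) ≤ P.om z 1 := by
    rw [h2]; exact h4.trans (le_max_left _ _)
  have hm := P.om_mem hz.1
  have h1' := (mem_sph2.1 hm).2.1
  unfold fa
  rw [A.side _ hm h3, h1]
  rw [min_eq_left (A.lag _ _ _ (sgn_cases _) hR.1 hR.2 h5 (abs_le.1 h1').2)]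
  by_cases h6 : 2 * z 1 - 1 + 2 * (1 - |z 0|) ≤ z 1
  · rw [h2, max_eq_left h6]
  · rw [not_le] at h6
    have h7 := P.lat_eq hz
    have h8 : P.a * P.R (z 0) (z 1) ≤ P.a := P.aρ_le hR.2
    rw [A.far _ (P.om z 1) (by rw [h2]; exact le_trans (by linarith) (le_max_left _ _)),
      A.far _ (z 1) (by linarith)]

lemma fa_bot {z : Fin 2 → ℝ} (hz : z ∈ P.Rb) :
    fa P c rp z = min (k (sgn (z 0)) (P.om z 1)) (rp ((1 + z 1) / P.H)) := by
  unfold fa
  rw [← hz.2]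
  rcases P.om_bot_cases hz with h | h
  · rw [A.bot _ (P.om_mem hz.1) h, h, A.corner (sgn_cases _)]
  · have h3 : |P.om z 0| = 1 := by
      rw [h.1]; rcases sgn_cases (z 0) with h | h <;> rw [h] <;> norm_num
    rw [A.side _ (P.om_mem hz.1) h3, h.1]

/-- **on the middle part of the bottom region the function is the ramp** -/
lemma fa_mid {z : Fin 2 → ℝ} (hz : z ∈ P.Rb) (hu : |z 0| ≤ 1 - (P.a + P.m * P.H)) :
    fa P c rp z = rp ((1 + z 1) / P.H) := by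
  have hR := P.R_mem hz.1
  have h1 : P.om z 1 = -1 := by
    rw [P.om_bot hz]
    apply max_eq_left
    have h2 : z 1 + 1 ≤ P.H := by
      have := P.hh_le hR.2
      rw [P.bot_eq hz] at this
      exact this
    have h3 : z 1 + 1 ≤ (1 - |z 0| - P.a * P.R (z 0) (z 1)) / P.m := by
      rw [le_div_iff₀ P.m0]
      have h4 := P.aρ_le hR.2
      have h5 := mul_le_mul_of_nonneg_right h2 P.m0.le
      nlinarith
    linarith
  rw [A.fa_bot hz, h1, A.corner (sgn_cases _)]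
  exact min_eq_right (A.rp1 _)

end TA

end

/-! ### chords of the second family (type B) -/

/-- a function which is `1/2` on the left side, `-1/2` on the right side, `kb`, `kt` on the bottom and
top side, and `± 1/2` near the corners -/
structure TB (P : Par) (c : (Fin 2 → ℝ) → ℝ) (kb kt : ℝ → ℝ) : Prop where
  left : ∀ ω ∈ sph 2, ω 0 = -1 → c ω = 1/2
  right : ∀ ω ∈ sph 2, ω 0 = 1 → c ω = -1/2
  bot : ∀ ω ∈ sph 2, ω 1 = -1 → c ω = kb (ω 0)
  top : ∀ ω ∈ sph 2, ω 1 = 1 → c ω = kt (ω 0)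
  b0 : ∀ x ≤ -(1 - 2 * (P.a + P.m * P.H)), kb x = 1/2
  b1 : ∀ x, 1 - 2 * (P.a + P.m * P.H) ≤ x → kb x = -1/2
  t0 : ∀ x ≤ -(1 - 2 * P.a), kt x = 1/2
  t1 : ∀ x, 1 - 2 * P.a ≤ x → kt x = -1/2

namespace TB

variable {P : Par} {c : (Fin 2 → ℝ) → ℝ} {kb kt : ℝ → ℝ} (B : TB P c kb kt)
include B

omit B in
lemma d_pos (P : Par) : 0 ≤ 2 * (P.a + P.m * P.H) := by
  have := P.a0; have := mul_pos P.m0 P.H0; linarith

lemma ends_b : Ends kb (1 - 2 * (P.a + P.m * P.H)) := by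
  have h := d_pos P
  refine ⟨fun x hx => ?_, fun x hx => ?_⟩
  · rw [B.b0 x hx, B.b0 (-1) (by linarith)]
  · rw [B.b1 x hx, B.b1 1 (by linarith)]

lemma ends_t : Ends kt (1 - 2 * P.a) := by
  have h := P.a0
  refine ⟨fun x hx => ?_, fun x hx => ?_⟩
  · rw [B.t0 x hx, B.t0 (-1) (by linarith)]
  · rw [B.t1 x hx, B.t1 1 (by linarith)]

lemma c_top {z : Fin 2 → ℝ} (hz : z ∈ P.Rt) : c (P.om z) = kt (z 0) := by
  have hR := P.R_mem hz.1
  have h1 := P.om_top hz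
  have h2 := P.om_U hz.1
  have h3 : P.dd (P.om z 1) (P.R (z 0) (z 1)) = P.a * P.R (z 0) (z 1) := by
    apply P.dd_of_ge
    rw [h1]
    have := P.one_sub_two_a_le hR.1 hR.2
    have := P.aρ_nonneg hR.1
    linarith
  have h4 := P.aρ_le hR.2
  have h5 := P.a_le
  rw [B.top _ (P.om_mem hz.1) h1, ← B.ends_t.cg (r := 1 - P.dd (P.om z 1) (P.R (z 0) (z 1)))
    (by rw [h3]; linarith) (by rw [h3]; linarith), h2]

lemma c_sgn {ω : Fin 2 → ℝ} (hω : ω ∈ sph 2) {u : ℝ} (h : ω 0 = sgn u)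
    (hu : 1 - 2 * (P.a + P.m * P.H) ≤ |u|) : c ω = kb u := by
  have hd := d_pos P
  have ham := P.am
  by_cases h1 : 0 ≤ u
  · rw [sgn_of_nonneg h1] at h
    rw [abs_of_nonneg h1] at hu
    rw [B.right _ hω h, B.b1 _ hu]
  · rw [not_le] at h1
    rw [sgn_of_neg h1] at h
    rw [abs_of_neg h1] at hu
    rw [B.left _ hω h, B.b0 _ (by linarith)]

lemma c_lat {z : Fin 2 → ℝ} (hz : z ∈ P.Rl) : c (P.om z) = kb (z 0) := by
  have hR := P.R_mem hz.1
  refine B.c_sgn (P.om_mem hz.1) (P.om_lat_zero hz) ?_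
  have h2 := P.lat_eq hz
  have h4 := P.aρ_le hR.2
  have h5 := mul_pos P.m0 P.H0
  have h6 := P.a0
  linarith

lemma c_bot {z : Fin 2 → ℝ} (hz : z ∈ P.Rb) : c (P.om z) = kb (z 0) := by
  have hR := P.R_mem hz.1
  have h4 := P.aρ_le hR.2
  have hm := P.om_mem hz.1
  have h1' := (mem_sph2.1 hm).2.1
  have hdd : P.dd (P.om z 1) (P.R (z 0) (z 1)) ≤ P.a + P.m * P.H := by
    have h5 := P.hh_le hR.2
    have h6 : max 0 (P.hh (P.R (z 0) (z 1)) - P.om z 1) ≤ P.H :=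
      max_le P.H0.le (by linarith [(abs_le.1 h1').1])
    have h7 := mul_le_mul_of_nonneg_left h6 P.m0.le
    unfold Par.dd; linarith
  rcases P.om_bot_cases hz with h | h
  · have h2 := P.om_U hz.1
    have ham := P.am
    rw [B.bot _ hm h, ← B.ends_b.cg (r := 1 - P.dd (P.om z 1) (P.R (z 0) (z 1)))
      (by linarith) (by linarith), h2]
  · refine B.c_sgn hm h.1 ?_
    rw [h.2]
    have := d_pos P
    linarith

/-- off the top region -/
lemma c_low {z : Fin 2 → ℝ} (hz : z ∈ P.Rl ∪ P.Rb) : c (P.om z) = kb (z 0) := by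
  rcases hz with h | h
  · exact B.c_lat h
  · exact B.c_bot h

lemma c_any {z : Fin 2 → ℝ} (hz : z ∈ P.NA) :
    (z ∈ P.Rt ∧ c (P.om z) = kt (z 0)) ∨ (z ∈ P.Rl ∪ P.Rb ∧ c (P.om z) = kb (z 0)) := by
  rw [P.NA_eq] at hz
  rcases hz with h | h
  · exact Or.inl ⟨h, B.c_top h⟩
  · exact Or.inr ⟨h, B.c_low h⟩

omit B in
lemma chart_g_zero (P : Par) (w : Fin 2 → ℝ) : P.chart.g w 0 = w 0 * (1 - P.a) := rfl
omit B in
lemma chart_g_one (P : Par) (w : Fin 2 → ℝ) : P.chart.g w 1 = w 1 * P.ee + P.cc := rfl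

omit B in
lemma chart_NA (P : Par) {w : Fin 2 → ℝ} (hw : w ∈ sph 2) : P.chart.g w ∈ P.NA := by
  have h0 := P.chart.mg (sph_subset_cube hw)
  rw [← P.chart_sph h0, P.chart.ri _ (sph_subset_cube hw)]; exact hw

omit B in
lemma chart_R (P : Par) {w : Fin 2 → ℝ} (hw : w ∈ sph 2) :
    P.R (P.chart.g w 0) (P.chart.g w 1) = 1 :=
  le_antisymm (chart_NA P hw).2 (P.chart.mg (sph_subset_cube hw))

omit B in
lemma beta_g (P : Par) (w : Fin 2 → ℝ) : P.ann.β.g w = P.om (P.chart.g w) := rfl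

/-- the values on the four sides of the last box -/
lemma beta_side {w : Fin 2 → ℝ} (hw : w ∈ sph 2) (h : |w 0| = 1) :
    c (P.ann.β.g w) = - (w 0) / 2 := by
  have h1 := chart_NA P hw
  have ha := P.a0
  have hd := mul_pos P.m0 P.H0
  rw [beta_g]
  rcases (abs_eq zero_le_one).1 h with h2 | h2
  · have e : P.chart.g w 0 = 1 - P.a := by rw [chart_g_zero, h2]; ring
    rcases B.c_any h1 with h3 | h3
    · rw [h3.2, e, B.t1 _ (by linarith), h2]
    · rw [h3.2, e, B.b1 _ (by linarith), h2]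
  · have e : P.chart.g w 0 = -(1 - P.a) := by rw [chart_g_zero, h2]; ring
    rcases B.c_any h1 with h3 | h3
    · rw [h3.2, e, B.t0 _ (by linarith), h2]; norm_num
    · rw [h3.2, e, B.b0 _ (by linarith), h2]; norm_num

lemma beta_top {w : Fin 2 → ℝ} (hw : w ∈ sph 2) (h : w 1 = 1) :
    c (P.ann.β.g w) = kt ((1 - P.a) * w 0) := by
  have h1 := chart_NA P hw
  have h2 : P.chart.g w ∈ P.Rt := by
    refine ⟨h1, ?_⟩
    rw [chart_R P hw, chart_g_one, h]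
    have := P.a0.ne'
    unfold Par.ee Par.cc
    field_simp
    ring
  rw [beta_g, B.c_top h2, chart_g_zero, mul_comm]

lemma beta_bot {w : Fin 2 → ℝ} (hw : w ∈ sph 2) (h : w 1 = -1) :
    c (P.ann.β.g w) = kb ((1 - P.a) * w 0) := by
  have h1 := chart_NA P hw
  have h2 : P.chart.g w ∈ P.Rb := by
    refine ⟨h1, ?_⟩
    rw [chart_R P hw, chart_g_one, h]
    have := P.H0.ne'
    unfold Par.ee Par.cc
    field_simp
    ring
  rw [beta_g, B.c_bot h2, chart_g_zero, mul_comm]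

/-- **the chords of the second family are swept in the second sweep** -/
theorem second (P' : Par) (ha : 2 * P'.a ≤ P.a) {rp : ℝ → ℝ}
    (lag : ∀ σ t ρ : ℝ, (σ = 1 ∨ σ = -1) → 0 ≤ ρ → ρ ≤ 1 → P'.hh ρ ≤ t → t ≤ 1 →
      (if σ = 1 then kt ((1 - P.a) * t) else kb ((1 - P.a) * t)) ≤ rp ρ)
    (rp0 : ∀ ρ, -1/2 ≤ rp ρ) (rp1 : ∀ ρ, rp ρ ≤ 1/2) :
    TA P' (fun ω => c (P.ann.β.g (sw ω))) rp
      (fun σ t => if σ = 1 then kt ((1 - P.a) * t) else kb ((1 - P.a) * t)) where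
  bot ω hω h := by
    have := B.beta_side (sw_sph hω) (by rw [sw_zero, h]; norm_num)
    rw [this, sw_zero, h]; norm_num
  top ω hω h := by
    have := B.beta_side (sw_sph hω) (by rw [sw_zero, h]; norm_num)
    rw [this, sw_zero, h]
  side ω hω h := by
    rcases (abs_eq zero_le_one).1 h with h2 | h2
    · rw [if_pos h2]
      exact B.beta_top (sw_sph hω) (by rw [sw_one, h2])
    · rw [if_neg (by rw [h2]; norm_num)]
      exact B.beta_bot (sw_sph hω) (by rw [sw_one, h2])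
  far σ t ht := by
    have h1 := P.a_le
    have h0 := P.a0
    have h2 : 1 - 2 * P.a ≤ (1 - P.a) * t := by
      have h3 : (1 - P.a) * (1 - 2 * P'.a) ≤ (1 - P.a) * t :=
        mul_le_mul_of_nonneg_left ht (by linarith)
      nlinarith [P'.a0]
    have h4 := mul_pos P.m0 P.H0
    show (if σ = 1 then kt ((1 - P.a) * t) else kb ((1 - P.a) * t)) = -1/2
    split_ifs
    · exact B.t1 _ h2
    · exact B.b1 _ (by linarith)
  lag := lag
  rp0 := rp0
  rp1 := rp1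

end TB

end Crest.Agent.R096.Fsw_928
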