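import Crest.Agent.R096.Fsw7_928

/-!
# R096 (row 96), FACE-SWEEP, part 8: local bounds of long chords off the fans (helper928)
-/

set_option autoImplicit false

open Set Metric Filter Topology

namespace Crest.Agent.R096.Fsw_928

open Crest.Agent.R096.Ce_537 Crest.Agent.R096.Bd_416

/-! ### functions which locally depend on one coordinate only -/

/-- near `x` in `Z` the function changes at most by `K` times the change of the coordinate `j` -/
def LC (j : Fin 2) (K : ℝ) (f : (Fin 2 → ℝ) → ℝ) (Z : Set (Fin 2 → ℝ)) (x : Fin 2 → ℝ) : Prop :=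
  ∀ᶠ y in 𝓝[Z] x, |f y - f x| ≤ K * |y j - x j|

section LC

variable {j : Fin 2} {K : ℝ} {f g : (Fin 2 → ℝ) → ℝ} {Z W : Set (Fin 2 → ℝ)} {x : Fin 2 → ℝ}

lemma LC.mono_set (h : LC j K f Z x) (hW : W ⊆ Z) : LC j K f W x :=
  h.filter_mono (nhdsWithin_mono x hW)

lemma LC.mono {L : ℝ} (h : LC j K f Z x) (hKL : K ≤ L) : LC j L f Z x := by
  filter_upwards [h] with y hy
  exact hy.trans (mul_le_mul_of_nonneg_right hKL (abs_nonneg _))

lemma LC.union (h : LC j K f Z x) (h' : LC j K f W x) : LC j K f (Z ∪ W) x := by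
  unfold LC at *
  rw [nhdsWithin_union]
  exact Filter.eventually_sup.2 ⟨h, h'⟩

lemma LC.of_notMem (hZ : IsClosed Z) (hx : x ∉ Z) : LC j K f Z x := by
  have : 𝓝[Z] x = ⊥ := by
    rw [← notMem_closure_iff_nhdsWithin_eq_bot, hZ.closure_eq]; exact hx
  unfold LC
  rw [this]
  exact Filter.eventually_bot

/-- on a closed set where `f` is given by a formula -/
lemma LC.of_eqOn (hZ : IsClosed Z) {k : ℝ → ℝ} (hk : ∀ s t, |k s - k t| ≤ K * |s - t|)
    (h : ∀ y ∈ Z, f y = k (y j)) : LC j K f Z x := by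
  by_cases hx : x ∈ Z
  · filter_upwards [self_mem_nhdsWithin] with y hy
    rw [h y hy, h x hx]
    exact hk _ _
  · exact LC.of_notMem hZ hx

lemma LC.const_of_eqOn (hK : 0 ≤ K) (hZ : IsClosed Z) {c : ℝ} (h : ∀ y ∈ Z, f y = c) :
    LC j K f Z x := by
  refine LC.of_eqOn hZ (k := fun _ => c) (fun s t => ?_) h
  simpa using mul_nonneg hK (abs_nonneg _)

lemma cl_lip (x y : ℝ) : |cl x - cl y| ≤ |x - y| := by
  have h : ∀ t, cl t = Pc_117.cl t := fun t => by
    unfold cl Pc_117.cl; rw [min_comm]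
  rw [h, h]; exact Pc_117.cl_lip x y

lemma LC.cl_div {b : ℝ} (hb : 0 < b) (h : LC j K f Z x) :
    LC j (K / (2 * b)) (fun y => cl (f y / (2 * b))) Z x := by
  filter_upwards [h] with y hy
  refine (cl_lip _ _).trans ?_
  rw [← sub_div, abs_div, abs_of_pos (by linarith : 0 < 2 * b), div_mul_eq_mul_div]
  exact div_le_div_of_nonneg_right hy (by linarith)

lemma LC.congr (h : LC j K f Z x) (hx : x ∈ Z) (hfg : ∀ y ∈ Z, g y = f y) : LC j K g Z x := by
  filter_upwards [h, self_mem_nhdsWithin] with y hy hyZ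
  rw [hfg y hyZ, hfg x hx]
  exact hy

end LC

/-! ### type A -/

section A

variable {P : Par} {c : (Fin 2 → ℝ) → ℝ} {rp : ℝ → ℝ} {k : ℝ → ℝ → ℝ}

lemma continuous_om_one : Continuous fun z : Fin 2 → ℝ => P.om z 1 := by
  have : (fun z : Fin 2 → ℝ => P.om z 1)
      = fun z => P.T (z 0) (z 1) (P.R (z 0) (z 1)) := rfl
  rw [this]
  unfold Par.T Par.R
  fun_prop

/-- the fan of a swept chord -/
def Fan (P : Par) (rp : ℝ → ℝ) (ym yp : ℝ → ℝ) : Set (Fin 2 → ℝ) :=
  {z | z ∈ P.Rb ∧ ym (sgn (z 0)) ≤ P.om z 1 ∧ P.om z 1 ≤ yp (sgn (z 0)) ∧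
    -1/2 < rp ((1 + z 1) / P.H)}

/-- values on the lateral sides -/
structure KS (k : ℝ → ℝ → ℝ) (ym yp : ℝ → ℝ) (K : ℝ) : Prop where
  lo : ∀ σ t, t < ym σ → k σ t = 1/2
  hi : ∀ σ t, yp σ < t → k σ t = -1/2
  lip : ∀ σ s t, |k σ s - k σ t| ≤ K * |s - t|
  mem : ∀ σ t, k σ t ∈ I2

lemma abs_pos_of_Rl {z : Fin 2 → ℝ} (hz : z ∈ P.Rl) : 0 < |z 0| := by
  have h1 := P.lat_eq hz
  have h2 := P.aρ_le (P.R_mem hz.1).2
  have h3 := P.a_le
  linarith

variable {ym yp : ℝ → ℝ} {K K' : ℝ}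

/-- **off its fan a swept function depends locally on the height only** -/
theorem TA.lc (A : TA P c rp k) (S : KS k ym yp K) (hK : 0 ≤ K)
    (hrp : ∀ s t, |rp s - rp t| ≤ K' * |s - t|) {z : Fin 2 → ℝ} (hz : z ∉ Fan P rp ym yp) :
    LC 1 (max K (K' / P.H)) (fa P c rp) P.NA z := by
  have hM : 0 ≤ max K (K' / P.H) := hK.trans (le_max_left _ _)
  have hrp' : ∀ s t, |rp ((1 + s) / P.H) - rp ((1 + t) / P.H)| ≤ (K' / P.H) * |s - t| := by
    intro s t
    refine (hrp _ _).trans (le_of_eq ?_)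
    have e : (1 + s) / P.H - (1 + t) / P.H = (s - t) / P.H := by ring
    rw [e, abs_div, abs_of_pos P.H0]
    ring
  have hNA : P.NA = P.Rt ∪ ((P.Rl ∩ {y | 0 ≤ y 0}) ∪ (P.Rl ∩ {y | y 0 ≤ 0})) ∪ P.Rb := by
    rw [P.NA_eq, ← inter_union_distrib_left]
    have : ({y : Fin 2 → ℝ | 0 ≤ y 0} ∪ {y | y 0 ≤ 0}) = univ := by
      ext y; simpa using le_total 0 (y 0)
    rw [this, inter_univ, union_assoc]
  have c1 : IsClosed {y : Fin 2 → ℝ | 0 ≤ y 0} := isClosed_le continuous_const (continuous_apply 0)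
  have c2 : IsClosed {y : Fin 2 → ℝ | y 0 ≤ 0} := isClosed_le (continuous_apply 0) continuous_const
  rw [hNA]
  refine LC.union (LC.union ?_ (LC.union ?_ ?_)) ?_
  · exact LC.const_of_eqOn hM P.isClosed_Rt (fun y hy => A.fa_top hy)
  · refine (LC.of_eqOn (P.isClosed_Rl.inter c1) (S.lip 1) fun y hy => ?_).mono (le_max_left _ _)
    rw [A.fa_lat hy.1, sgn_of_nonneg hy.2]
  · refine (LC.of_eqOn (P.isClosed_Rl.inter c2) (S.lip (-1)) fun y hy => ?_).mono (le_max_left _ _)
    have h1 := abs_pos_of_Rl hy.1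
    have h2 : y 0 ≤ 0 := hy.2
    rw [A.fa_lat hy.1, sgn_of_neg (lt_of_le_of_ne h2 (abs_pos.1 h1))]
  · by_cases hzb : z ∈ P.Rb
    swap
    · exact LC.of_notMem P.isClosed_Rb hzb
    refine LC.mono ?_ (le_max_right _ _)
    by_cases h0 : |z 0| < 1 - (P.a + P.m * P.H)
    · -- the middle
      have h1 : ∀ᶠ y : Fin 2 → ℝ in 𝓝[P.Rb] z, |y 0| < 1 - (P.a + P.m * P.H) := by
        refine nhdsWithin_le_nhds ?_
        have hc : Continuous fun y : Fin 2 → ℝ => |y 0| := (continuous_apply 0).abs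
        exact (hc.tendsto z).eventually_lt_const h0
      filter_upwards [h1, self_mem_nhdsWithin] with y hy hyb
      rw [A.fa_mid hyb hy.le, A.fa_mid hzb h0.le]
      exact hrp' _ _
    · rw [not_lt] at h0
      have ham := P.am
      -- the sign is locally constant
      have hs : ∀ᶠ y : Fin 2 → ℝ in 𝓝[P.Rb] z, sgn (y 0) = sgn (z 0) := by
        refine nhdsWithin_le_nhds ?_
        rcases le_or_gt 0 (z 0) with h | h
        · rw [abs_of_nonneg h] at h0
          have h2 : ∀ᶠ y : Fin 2 → ℝ in 𝓝 z, 0 < y 0 :=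
            ((continuous_apply (0 : Fin 2)).tendsto z).eventually_const_lt (by linarith)
          filter_upwards [h2] with y hy
          rw [sgn_of_nonneg hy.le, sgn_of_nonneg h]
        · have h2 : ∀ᶠ y : Fin 2 → ℝ in 𝓝 z, y 0 < 0 :=
            ((continuous_apply (0 : Fin 2)).tendsto z).eventually_lt_const h
          filter_upwards [h2] with y hy
          rw [sgn_of_neg hy, sgn_of_neg h]
      have hom := (continuous_om_one (P := P)).tendsto z
      have hz' : ¬ (ym (sgn (z 0)) ≤ P.om z 1 ∧ P.om z 1 ≤ yp (sgn (z 0)) ∧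
          -1/2 < rp ((1 + z 1) / P.H)) := fun h => hz ⟨hzb, h⟩
      by_cases h1 : P.om z 1 < ym (sgn (z 0))
      · have h2 : ∀ᶠ y : Fin 2 → ℝ in 𝓝[P.Rb] z, P.om y 1 < ym (sgn (z 0)) :=
          nhdsWithin_le_nhds (hom.eventually_lt_const h1)
        filter_upwards [h2, hs, self_mem_nhdsWithin] with y hy hys hyb
        rw [A.fa_bot hyb, A.fa_bot hzb, hys, S.lo _ _ hy, S.lo _ _ h1,
          min_eq_right (A.rp1 _), min_eq_right (A.rp1 _)]
        exact hrp' _ _
      · by_cases h2 : yp (sgn (z 0)) < P.om z 1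
        · have h3 : ∀ᶠ y : Fin 2 → ℝ in 𝓝[P.Rb] z, yp (sgn (z 0)) < P.om y 1 :=
            nhdsWithin_le_nhds (hom.eventually_const_lt h2)
          filter_upwards [h3, hs, self_mem_nhdsWithin] with y hy hys hyb
          rw [A.fa_bot hyb, A.fa_bot hzb, hys, S.hi _ _ hy, S.hi _ _ h2,
            min_eq_left (A.rp0 _), min_eq_left (A.rp0 _), sub_self, abs_zero]
          have := (abs_nonneg _).trans (hrp' (y 1) (z 1))
          exact this
        · have h3 : rp ((1 + z 1) / P.H) = -1/2 := by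
            by_contra hc
            exact hz' ⟨not_lt.1 h1, not_lt.1 h2, lt_of_le_of_ne (A.rp0 _) (Ne.symm hc)⟩
          filter_upwards [self_mem_nhdsWithin] with y hyb
          have e1 : fa P c rp z = -1/2 := by
            rw [A.fa_bot hzb, h3]
            exact min_eq_right (S.mem _ _).1
          have e2 : -1/2 ≤ fa P c rp y := by
            rw [A.fa_bot hyb]; exact le_min (S.mem _ _).1 (A.rp0 _)
          have e3 : fa P c rp y ≤ rp ((1 + y 1) / P.H) := by
            rw [A.fa_bot hyb]; exact min_le_right _ _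
          have e4 := hrp' (y 1) (z 1)
          rw [h3] at e4
          rw [e1, abs_of_nonneg (by linarith)]
          refine le_trans ?_ e4
          refine le_trans ?_ (le_abs_self _)
          linarith

end A

/-! ### type B on the first annulus -/

section B

variable {P : Par} {c : (Fin 2 → ℝ) → ℝ} {kb kt : ℝ → ℝ}

theorem TB.lc (B : TB P c kb kt) {K : ℝ} (hb : ∀ s t, |kb s - kb t| ≤ K * |s - t|)
    (ht : ∀ s t, |kt s - kt t| ≤ K * |s - t|) (z : Fin 2 → ℝ) :
    LC 0 K (fun z => c (P.om z)) P.NA z := by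
  rw [P.NA_eq]
  exact LC.union (LC.of_eqOn P.isClosed_Rt ht fun y hy => B.c_top hy)
    (LC.of_eqOn (P.isClosed_Rl.union P.isClosed_Rb) hb fun y hy => B.c_low hy)

/-! ### pull back to the last box of the first sweep -/

lemma z2_zero (P : Par) (z : Fin 2 → ℝ) : P.z2 z 0 = (z 1 - P.cc) / P.ee := rfl
lemma z2_one (P : Par) (z : Fin 2 → ℝ) : P.z2 z 1 = z 0 / (1 - P.a) := rfl

lemma continuous_z2 (P : Par) : Continuous P.z2 := by
  refine continuous_pi fun i => ?_
  fin_cases i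
  · exact ((continuous_apply (1 : Fin 2)).sub continuous_const).div_const _
  · exact (continuous_apply (0 : Fin 2)).div_const _

lemma LC.z2 {P : Par} {K : ℝ} {g : (Fin 2 → ℝ) → ℝ} {Z Z' : Set (Fin 2 → ℝ)} {z : Fin 2 → ℝ}
    (h : LC 1 K g Z' (P.z2 z)) (hm : MapsTo P.z2 Z Z') :
    LC 0 (K / (1 - P.a)) (fun y => g (P.z2 y)) Z z := by
  have h1 : Tendsto P.z2 (𝓝[Z] z) (𝓝[Z'] (P.z2 z)) :=
    tendsto_nhdsWithin_iff.2 ⟨(continuous_z2 P).continuousWithinAt,
      by filter_upwards [self_mem_nhdsWithin] with y hy using hm hy⟩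
  filter_upwards [h1.eventually h] with y hy
  have ha : 0 < 1 - P.a := by linarith [P.a_lt_one]
  rw [z2_one, z2_one, ← sub_div, abs_div, abs_of_pos ha] at hy
  rw [div_mul_eq_mul_div, ← mul_div_assoc] at *
  exact hy

end B

end Crest.Agent.R096.Fsw_928
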