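import Crest.Agent.R096.Fsw8_928

/-!
# R096 (row 96), FACE-SWEEP, part 9: the band functions of the filled face (helper928)
-/

set_option autoImplicit false

open Set Metric Filter Topology

namespace Crest.Agent.R096.Fsw_928

open Crest.Agent.R096.Ce_537 Crest.Agent.R096.Bd_416

variable {ι : Type*} {L : Lam (sph 2) ι} {K b : ℝ} {h ρ : ι → ℝ}

/-- the band functions of the face -/
noncomputable def ff (D : Dep L K b h ρ) (P P' : Par) (i : ι) (z : Fin 2 → ℝ) : ℝ :=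
  D.fill.c i ((P.phi P').g z)

section

variable (D : Dep L K b h ρ) (P P' : Par) (i : ι)

lemma ff_mem {z : Fin 2 → ℝ} (hz : z ∈ cube 2) : ff D P P' i z ∈ I2 :=
  D.fill.cm i _ ((P.phi P').mg hz)

lemma ff_of_co {z ω : Fin 2 → ℝ} {r : ℝ} (hc : Par.IsCo ((P.phi P').g z) ω r) :
    ff D P P' i z = cl (min (L.c i ω) (ramp (h i) (ρ i) r) / (2 * b)) := by
  unfold ff
  rw [D.fill_c_ann i hc.ann, hc.f]
  rfl

lemma ff_NA {z : Fin 2 → ℝ} (hz : z ∈ P.NA) :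
    ff D P P' i z
      = cl (fa P (L.c i) (fun t => ramp (h i) (ρ i) (1 - t / 4)) z / (2 * b)) :=
  ff_of_co D P P' i (P.phi_NA P' hz)

lemma ff_BX_NA {z : Fin 2 → ℝ} (hz : z ∈ P.BX) (hz2 : P.z2 z ∈ P'.NA) :
    ff D P P' i z
      = cl (fa P' (fun ω => L.c i (P.ann.β.g (sw ω)))
          (fun t => ramp (h i) (ρ i) (3/4 - t / 8)) (P.z2 z) / (2 * b)) :=
  ff_of_co D P P' i (P.phi_BX_NA P' hz hz2)

lemma norm_BX {z : Fin 2 → ℝ} (hz : z ∈ P.BX) : ‖(P.phi P').g z‖ ≤ 3/4 := by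
  have h1 := P.z2_mem hz
  rw [← P'.NA_union_BX] at h1
  rcases h1 with h1 | h1
  · have h2 := P.phi_BX_NA P' hz h1
    rw [h2.norm]
    have h3 : 0 ≤ P'.R (P.z2 z 0) (P.z2 z 1) := P'.R_nonneg h1.1
    linarith
  · rcases le_total ‖P.z3 P' z‖ (1/2) with h2 | h2
    · exact (P.phi_core P' hz h1 h2).trans (by norm_num)
    · have h3 : P.z3 P' z ∈ cube 2 := P'.chart.mf h1
      have hA : P.z3 P' z ∈ Ann 2 := ⟨h2, by simpa using h3⟩
      have h4 := (collar 2).mf hA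
      have h5 := P.phi_last P' hz h1 (θ := ((collar 2).f (P.z3 P' z)).1)
        (s := ((collar 2).f (P.z3 P' z)).2) ⟨h4.1, h4.2, ((collar 2).li _ hA).symm⟩
      rw [h5.norm]
      have := h4.2.2
      linarith

lemma norm_BX_BX {z : Fin 2 → ℝ} (hz : z ∈ P.BX) (h1 : P.z2 z ∈ P'.BX) :
    ‖(P.phi P').g z‖ ≤ 5/8 := by
  rcases le_total ‖P.z3 P' z‖ (1/2) with h2 | h2
  · exact (P.phi_core P' hz h1 h2).trans (by norm_num)
  · have h3 : P.z3 P' z ∈ cube 2 := P'.chart.mf h1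
    have hA : P.z3 P' z ∈ Ann 2 := ⟨h2, by simpa using h3⟩
    have h4 := (collar 2).mf hA
    have h5 := P.phi_last P' hz h1 (θ := ((collar 2).f (P.z3 P' z)).1)
      (s := ((collar 2).f (P.z3 P' z)).2) ⟨h4.1, h4.2, ((collar 2).li _ hA).symm⟩
    rw [h5.norm]
    have := h4.2.2
    linarith

lemma ff_low {z : Fin 2 → ℝ} {t : ℝ} (ht : ‖(P.phi P').g z‖ ≤ t) (hz : z ∈ cube 2)
    (hr : t ≤ ρ i - h i / 2) : ff D P P' i z = -1/2 := by
  unfold ff
  have hm := (P.phi P').mg hz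
  rcases le_total ‖(P.phi P').g z‖ (1/2) with h1 | h1
  · exact D.fill_c_low i h1
  · have hA : (P.phi P').g z ∈ Ann 2 := ⟨h1, by simpa using hm⟩
    rw [D.fill_c_ann i hA, D.low ((collar 2).mf hA) (show ‖(P.phi P').g z‖ ≤ ρ i - h i/2 from
      ht.trans hr)]
    exact cl_low D.cst.b0 D.cst.b2

end

/-! ### type A chords -/

/-- chord of type A (lateral ends, swept in the first sweep) -/
structure ChA (D : Dep L K b h ρ) (P : Par) (i : ι) (k : ℝ → ℝ → ℝ) (ym yp : ℝ → ℝ)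
    (Kc : ℝ) : Prop where
  ta : TA P (L.c i) (fun t => ramp (h i) (ρ i) (1 - t / 4)) k
  ks : KS k ym yp Kc
  K0 : 0 ≤ Kc
  low : 3/4 ≤ ρ i - h i / 2

lemma ramp_lip {h₀ ρ₀ : ℝ} (hh : 0 < h₀) (s t : ℝ) :
    |ramp h₀ ρ₀ s - ramp h₀ ρ₀ t| ≤ (1 / h₀) * |s - t| := by
  unfold ramp
  refine (cl_lip _ _).trans (le_of_eq ?_)
  have : (s - ρ₀) / h₀ - (t - ρ₀) / h₀ = (s - t) / h₀ := by ring
  rw [this, abs_div, abs_of_pos hh]; ring

/-- the fan of a type A chord -/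
def FanA (h ρ : ι → ℝ) (P : Par) (i : ι) (ym yp : ℝ → ℝ) : Set (Fin 2 → ℝ) :=
  Fan P (fun t => ramp (h i) (ρ i) (1 - t / 4)) ym yp

variable {D : Dep L K b h ρ} {P P' : Par} {i : ι}

theorem ChA.lc {k : ℝ → ℝ → ℝ} {ym yp : ℝ → ℝ} {Kc : ℝ} (A : ChA D P i k ym yp Kc) (P' : Par)
    {z : Fin 2 → ℝ} (hz : z ∉ FanA h ρ P i ym yp) :
    LC 1 (max Kc (1 / (4 * h i) / P.H) / (2 * b)) (ff D P P' i) (cube 2) z := by
  have hb := D.cst.b0
  have hh := D.h0 i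
  rw [← P.NA_union_BX]
  have hM : 0 ≤ max Kc (1 / (4 * h i) / P.H) / (2 * b) :=
    div_nonneg (A.K0.trans (le_max_left _ _)) (by linarith)
  refine LC.union ?_ ?_
  · by_cases hzN : z ∈ P.NA
    · refine LC.congr (LC.cl_div hb (A.ta.lc A.ks A.K0 (K' := 1 / (4 * h i)) ?_ hz)) hzN
        (fun y hy => ff_NA D P P' i hy)
      intro s t
      refine (ramp_lip hh _ _).trans (le_of_eq ?_)
      have : (1 - s / 4) - (1 - t / 4) = -(s - t) / 4 := by ring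
      rw [this, abs_div, abs_neg, abs_of_pos (by norm_num : (0:ℝ) < 4)]
      field_simp
    · exact LC.of_notMem P.isClosed_NA hzN
  · exact LC.const_of_eqOn hM P.isClosed_BX
      (fun y hy => ff_low D P P' i (norm_BX P P' hy) (P.BX_subset hy) A.low)

/-- **exact formula of a type A chord on the middle strip** -/
theorem ChA.mid {k : ℝ → ℝ → ℝ} {ym yp : ℝ → ℝ} {Kc : ℝ} (A : ChA D P i k ym yp Kc) (P' : Par)
    {z : Fin 2 → ℝ} (hz : z ∈ P.Rb) (hu : |z 0| ≤ 1 - (P.a + P.m * P.H)) :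
    ff D P P' i z = cl (ramp (h i) (ρ i) (1 - (1 + z 1) / P.H / 4) / (2 * b)) := by
  rw [ff_NA D P P' i hz.1, A.ta.fa_mid hz hu]

/-! ### type B chords -/

/-- chord of type B (ends on the bottom and the top, swept in the second sweep) -/
structure ChB (D : Dep L K b h ρ) (P P' : Par) (i : ι) (kb kt : ℝ → ℝ) (ym yp : ℝ → ℝ)
    (Kc : ℝ) : Prop where
  tb : TB P (L.c i) kb kt
  lb : ∀ s t, |kb s - kb t| ≤ Kc * |s - t|
  lt : ∀ s t, |kt s - kt t| ≤ Kc * |s - t|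
  ta : TA P' (fun ω => L.c i (P.ann.β.g (sw ω))) (fun t => ramp (h i) (ρ i) (3/4 - t / 8))
    (fun σ t => if σ = 1 then kt ((1 - P.a) * t) else kb ((1 - P.a) * t))
  ks : KS (fun σ t => if σ = 1 then kt ((1 - P.a) * t) else kb ((1 - P.a) * t)) ym yp
    ((1 - P.a) * Kc)
  K0 : 0 ≤ Kc
  high : ρ i + h i / 2 ≤ 3/4
  low : 5/8 ≤ ρ i - h i / 2

/-- the fan of a type B chord -/
def FanB (h ρ : ι → ℝ) (P P' : Par) (i : ι) (ym yp : ℝ → ℝ) : Set (Fin 2 → ℝ) :=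
  {z | z ∈ P.BX ∧ P.z2 z ∈ Fan P' (fun t => ramp (h i) (ρ i) (3/4 - t / 8)) ym yp}

lemma ChB.ff_NA' {kb kt : ℝ → ℝ} {ym yp : ℝ → ℝ} {Kc : ℝ} (B : ChB D P P' i kb kt ym yp Kc)
    {z : Fin 2 → ℝ} (hz : z ∈ P.NA) : ff D P P' i z = cl (L.c i (P.om z) / (2 * b)) := by
  rw [ff_NA D P P' i hz]
  have hR := P.R_mem hz
  have h1 : ramp (h i) (ρ i) (1 - P.R (z 0) (z 1) / 4) = 1/2 :=
    ramp_high (D.h0 i) (by linarith [B.high, hR.2])
  unfold fa
  simp only [h1]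
  rw [min_eq_left (L.cm i _ (P.om_mem hz)).2]

theorem ChB.lc {kb kt : ℝ → ℝ} {ym yp : ℝ → ℝ} {Kc : ℝ} (B : ChB D P P' i kb kt ym yp Kc)
    {z : Fin 2 → ℝ} (hz : z ∉ FanB h ρ P P' i ym yp) :
    LC 0 (max Kc (1 / (8 * h i) / P'.H / (1 - P.a)) / (2 * b)) (ff D P P' i) (cube 2) z := by
  have hb := D.cst.b0
  have hh := D.h0 i
  have ha : 0 < 1 - P.a := by linarith [P.a_lt_one]
  have hM : 0 ≤ max Kc (1 / (8 * h i) / P'.H / (1 - P.a)) / (2 * b) :=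
    div_nonneg (B.K0.trans (le_max_left _ _)) (by linarith)
  have hBX : P.BX = (P.BX ∩ P.z2 ⁻¹' P'.NA) ∪ (P.BX ∩ P.z2 ⁻¹' P'.BX) := by
    rw [← inter_union_distrib_left, ← preimage_union, P'.NA_union_BX]
    ext y
    exact ⟨fun hy => ⟨hy, P.z2_mem hy⟩, fun hy => hy.1⟩
  rw [← P.NA_union_BX]
  refine LC.union ?_ ?_
  · by_cases hzN : z ∈ P.NA
    · refine (LC.congr (LC.cl_div hb (B.tb.lc B.lb B.lt z)) hzN
        (fun y hy => B.ff_NA' hy)).mono ?_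
      exact div_le_div_of_nonneg_right (le_max_left _ _) (by linarith)
    · exact LC.of_notMem P.isClosed_NA hzN
  · rw [hBX]
    have hc1 : IsClosed (P.BX ∩ P.z2 ⁻¹' P'.NA) :=
      P.isClosed_BX.inter (P'.isClosed_NA.preimage (continuous_z2 P))
    have hc2 : IsClosed (P.BX ∩ P.z2 ⁻¹' P'.BX) :=
      P.isClosed_BX.inter (P'.isClosed_BX.preimage (continuous_z2 P))
    refine LC.union ?_ ?_
    · by_cases hzN : z ∈ P.BX ∩ P.z2 ⁻¹' P'.NA
      · have hz' : P.z2 z ∉ Fan P' (fun t => ramp (h i) (ρ i) (3/4 - t / 8)) ym yp :=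
          fun hc => hz ⟨hzN.1, hc⟩
        have h1 := B.ta.lc B.ks (mul_nonneg ha.le B.K0) (K' := 1 / (8 * h i)) (by
          intro s t
          refine (ramp_lip hh _ _).trans (le_of_eq ?_)
          have : (3/4 - s / 8) - (3/4 - t / 8) = -(s - t) / 8 := by ring
          rw [this, abs_div, abs_neg, abs_of_pos (by norm_num : (0:ℝ) < 8)]
          field_simp) hz'
        have h2 := LC.cl_div hb (LC.z2 h1 (Z := P.BX ∩ P.z2 ⁻¹' P'.NA) (fun y hy => hy.2))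
        refine (LC.congr h2 hzN (fun y hy => ff_BX_NA D P P' i hy.1 hy.2)).mono ?_
        refine div_le_div_of_nonneg_right (le_of_eq ?_) (by linarith)
        rw [← max_div_div_right ha.le, mul_div_cancel_left₀ _ ha.ne']
      · exact LC.of_notMem hc1 hzN
    · exact LC.const_of_eqOn hM hc2 (fun y hy =>
        ff_low D P P' i (norm_BX_BX P P' hy.1 hy.2) (P.BX_subset hy.1) B.low)

/-- **exact formula of a type B chord off the top region** -/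
theorem ChB.mid {kb kt : ℝ → ℝ} {ym yp : ℝ → ℝ} {Kc : ℝ} (B : ChB D P P' i kb kt ym yp Kc)
    {z : Fin 2 → ℝ} (hz : z ∈ P.Rb) : ff D P P' i z = cl (kb (z 0) / (2 * b)) := by
  rw [B.ff_NA' hz.1, B.tb.c_bot hz]

end Crest.Agent.R096.Fsw_928
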