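import Crest.Agent.R096.Cns4_778
import Crest.Agent.R096.Ebr8_95
import Crest.Agent.R096.Ebr6_95

/-!
# R096 (row 96), DOORS (helper298): the sheet of a barrier over a set of directions

(3) of 688's plan #12211.

* `GmD`, `SmD`        : the part of the sheet with `Psi ∈ D` above a gauge / the whole part;
* `gmD_conn`, `smD_conn` : they are connected when the level / sublevel of the moat function is
  connected over `D`;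
* `zone_lo`, `zone_hi`: over the end zones `{lev a ≤ t0}`, `{t0 ≤ lev a}` all points of the barrier in
  438's state `stB` are joined by chords on the faces of the tiles which meet the part.
-/

set_option autoImplicit false
set_option linter.unusedSectionVars false
set_option linter.unusedVariables false
set_option linter.style.longLine false

open Set Topology Filter Metric Module Relation
open scoped Classical

namespace Crest.Agent.R096.Fsz_298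

open Crest.Agent.R096.Msh_715 Crest.Agent.R096.Coh_184 Crest.Agent.R096.Lab_184
  Crest.Agent.R096.Main_4 Crest.Agent.R096.Agl5_543
  Crest.Agent.R096.Seq_213 Crest.Agent.R096.St_147 Crest.Agent.R096.Door_501
  Crest.Agent.R096.Twr_438 Crest.Agent.R096.Exa_560
  Crest.Agent.R096.Ess3_95 Crest.Agent.R096.Ess4_95
  Crest.Agent.R096.Dfi_471 Crest.Agent.R096.Sla_184
  Crest.Agent.R096.Brk1_582 Crest.Agent.R096.Brk2_582 Crest.Agent.R096.Brk3_582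
  Crest.Agent.R096.Brk5_582 Crest.Agent.R096.Bsp_628 Crest.Agent.R096.Init_543
  Crest.Agent.R096.Dib_438 Crest.Agent.R096.Rop_441
  Crest.Agent.R096.Frs_662 Crest.Agent.R096.Cg_501 Crest.Agent.R096.SecW_892
  Crest.Agent.R096.Nmd1_698 Crest.Agent.R096.Pbn_147 Crest.Agent.R096.Bar_106
  Crest.Agent.R096.Ebr4_95 Crest.Agent.R096.Bgf_4 Crest.Agent.R096.Ess5_95
  Crest.Agent.R096.Cns_778 Crest.Agent.R096.Sphg_316
open Crest.Agent.R096.Sgo_298 (RmA rout ActR)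
open Crest.Agent.R096.Mbf_337 (KJ Tiny Cores Fine Words sb gau)
open Crest.Agent.R096.SkC1_961 (E3 FoamD Hom3)
open Crest.Agent.R096.Frn_337 (Ti)
open Crest.Agent.R096.Ess7_95 (KT)
open Crest.Agent.R096.Bmf_416 (coT coT_fin)
open Crest.Agent.R096.Sla_184.Sla (old Fn Out F0)

section gen

variable {δ κ0 R c0 : ℝ} {La Om : Set E3} {ι : Type} {Φ : FoamD δ κ0 R c0 La}
  {T : Tiling Om ι} {f g : E3 → E3}
  {J0 J V : Φ.F → Set ι} {θ : Φ.F → E3 → E3} {Mo : Type} {co : Mo → Φ.F}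
  {ρ1 ρ2 ρ3 ρ4 d : Mo → ℝ} {G : Mo → E3 → ℝ} {rm h lo hi ω : Mo → ℝ} {q₀ : Mo → E3}
  {g0 ε rr : Mo → ℝ}

/-- the part of the sheet over the directions `D`, above the gauge `r` -/
def GmD (Om : Set E3) (Φ : FoamD δ κ0 R c0 La) (f : E3 → E3) (co : Mo → Φ.F)
    (ℓ : Mo → E3 → ℝ) (ε : Mo → ℝ) (m : Mo) (r : ℝ) (D : Set E3) : Set E3 :=
  {x | x ∈ Om ∧ ℓ m (f x) = ε m ∧ r ≤ ga Φ (co m) (f x) ∧ Φ.Psi (f x) ∈ D}

/-- the part of the sheet over the directions `D` -/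
def SmD (Om : Set E3) (Φ : FoamD δ κ0 R c0 La) (f : E3 → E3)
    (ℓ : Mo → E3 → ℝ) (ε : Mo → ℝ) (m : Mo) (D : Set E3) : Set E3 :=
  {x | x ∈ Om ∧ ℓ m (f x) = ε m ∧ Φ.Psi (f x) ∈ D}

theorem gmD_conn (hB : BarF Φ T f J0 J V θ co ρ1 ρ2 ρ3 ρ4 d G rm h lo hi ω q₀ g0)
    (hLa : IsOpen La) (H : Hm f g Om La) (hε : ∀ m, ε m ∈ Ioo (lo m) (hi m)) {m : Mo}
    {r : ℝ} {D : Set E3}
    (hE : IsPreconnected {q | q ∈ frontier (co m).1.set ∧ G m q = ε m ∧ q ∈ D})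
    (hL : IsPreconnected {q | q ∈ frontier (co m).1.set ∧ G m q ≤ ε m ∧ q ∈ D})
    (hN : {q | q ∈ frontier (co m).1.set ∧ G m q = ε m ∧ q ∈ D}.Nonempty)
    (h0 : 0 < r) (h1 : rm m - h m * ε m < r) (h2 : r ≤ rm m + h m * ε m) :
    IsPreconnected (GmD Om Φ f co (lM Φ co rm h hi G) ε m r D) := by
  obtain ⟨p, hP⟩ := hB.pol hLa m
  have hr := hB.room m
  have hG := hB.gm m
  have hh := hB.h0 m
  have hεm := hε m
  have hεhi : h m * ε m < h m * hi m := mul_lt_mul_of_pos_left hεm.2 hh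
  have hd := hr.d0
  have ha1 : rm m + h m * ε m ≤ ρ4 m := by linarith [hB.a1' m]
  have hε0 : 0 < ε m := lt_of_le_of_lt hG.lo0 hεm.1
  have hhε : 0 < h m * ε m := mul_pos hh hε0
  set a1 : ℝ := rm m + h m * ε m with ha1d
  set A : Set E3 := {q | q ∈ frontier (co m).1.set ∧ G m q = ε m ∧ q ∈ D} with hA
  set B : Set E3 := {q | q ∈ frontier (co m).1.set ∧ G m q ≤ ε m ∧ q ∈ D} with hBd
  have c1 := hP.prod_conn (A := A) (fun q hq => hq.1) hE h0 ha1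
  have c2 := hP.prod_conn (A := B) (fun q hq => hq.1) hL
    (h0.trans_le h2) ha1
  obtain ⟨q, hq, hqe, hqD⟩ := hN
  have hmem : a1 ∈ Ioc 0 (ρ4 m) := ⟨h0.trans_le h2, ha1⟩
  have e1 := hP.gau a1 hmem q hq
  have e2 := hP.psi a1 hmem q hq
  have m1 : p (a1, q) ∈ {y | (r ≤ ga Φ (co m) y ∧ ga Φ (co m) y ≤ a1) ∧ Φ.Psi y ∈ A} :=
    ⟨⟨by rw [e1]; exact h2, e1.le⟩, by rw [e2]; exact ⟨hq, hqe, hqD⟩⟩
  have m2 : p (a1, q) ∈ {y | (a1 ≤ ga Φ (co m) y ∧ ga Φ (co m) y ≤ a1) ∧ Φ.Psi y ∈ B} :=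
    ⟨⟨e1.ge, e1.le⟩, by rw [e2]; exact ⟨hq, hqe.le, hqD⟩⟩
  have c3 := c1.union (p (a1, q)) m1 m2 c2
  have hb : Bod (Φ.B (co m)).lo (Pc Φ.F (co m)) := Pse_316.bod_brick Φ (co m) (hB.pt m)
  have hgf : ga Φ (co m) = Ng (Φ.B (co m)).lo (Pc Φ.F (co m)) :=
    funext (Etg_163.gg_eq Φ (co m))
  have hDL : {y | ga Φ (co m) y ≤ ρ4 m} ⊆ La := by
    rw [hgf]
    exact (hb.le_sub hr.r4.le).trans (Φ.bf.sub (co m).1 (co m).2)
  have c4 := H.preconn_pre (D := _) (fun y hy => hDL (show ga Φ (co m) y ≤ ρ4 m by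
    rcases hy with hy | hy
    · exact hy.1.2.trans ha1
    · exact hy.1.2.trans ha1)) c3
  have e : GmD Om Φ f co (lM Φ co rm h hi G) ε m r D = Om ∩ f ⁻¹'
      ({y | (r ≤ ga Φ (co m) y ∧ ga Φ (co m) y ≤ a1) ∧ Φ.Psi y ∈ A} ∪
        {y | (a1 ≤ ga Φ (co m) y ∧ ga Φ (co m) y ≤ a1) ∧ Φ.Psi y ∈ B}) := by
    ext x
    constructor
    · rintro ⟨k1, k2, k3, k4⟩
      obtain ⟨n1, n2, n3, n4⟩ := hB.pos hεm.2 k2
      have hfr := (hP.inv (f x) (h0.trans_le k3) (n2.trans ha1)).1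
      refine ⟨k1, ?_⟩
      rcases n4 with n | n | n
      · linarith
      · exact Or.inr ⟨⟨n.ge, n.le⟩, hfr, n3, k4⟩
      · exact Or.inl ⟨⟨k3, n2⟩, hfr, n, k4⟩
    · rintro ⟨k1, k2⟩
      have key : r ≤ ga Φ (co m) (f x) ∧ ga Φ (co m) (f x) ≤ a1 ∧ G m (Φ.Psi (f x)) ≤ ε m ∧
          (ga Φ (co m) (f x) = a1 ∨ G m (Φ.Psi (f x)) = ε m) ∧ Φ.Psi (f x) ∈ D := by
        rcases k2 with ⟨⟨n1, n2⟩, n3⟩ | ⟨⟨n1, n2⟩, n3⟩
        · exact ⟨n1, n2, n3.2.1.le, Or.inr n3.2.1, n3.2.2⟩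
        · exact ⟨h2.trans n1, n2, n3.2.1, Or.inl (le_antisymm n2 n1), n3.2.2⟩
      obtain ⟨n1, n2, n3, n4, n5⟩ := key
      refine ⟨k1, (bl_eq_iff hεm.2).2 ?_, n1, n5⟩
      have u1 : |ga Φ (co m) (f x) - rm m| / h m ≤ ε m := by
        rw [div_le_iff₀ hh, abs_le]
        constructor <;> linarith
      rcases n4 with n | n
      · rw [n]
        have u2 : |a1 - rm m| / h m = ε m := by
          rw [ha1d, add_sub_cancel_left, abs_of_pos hhε, mul_div_cancel_left₀ _ hh.ne']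
        rw [u2]
        exact max_eq_left n3
      · rw [n]
        exact max_eq_right u1
  rw [e]
  exact c4

theorem smD_conn (hB : BarF Φ T f J0 J V θ co ρ1 ρ2 ρ3 ρ4 d G rm h lo hi ω q₀ g0)
    (hLa : IsOpen La) (H : Hm f g Om La) (hε : ∀ m, ε m ∈ Ioo (lo m) (hi m)) {m : Mo}
    {D : Set E3}
    (hE : IsPreconnected {q | q ∈ frontier (co m).1.set ∧ G m q = ε m ∧ q ∈ D})
    (hL : IsPreconnected {q | q ∈ frontier (co m).1.set ∧ G m q ≤ ε m ∧ q ∈ D})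
    (hN : {q | q ∈ frontier (co m).1.set ∧ G m q = ε m ∧ q ∈ D}.Nonempty) :
    IsPreconnected (SmD Om Φ f (lM Φ co rm h hi G) ε m D) := by
  obtain ⟨p, hP⟩ := hB.pol hLa m
  have hr := hB.room m
  have hG := hB.gm m
  have hh := hB.h0 m
  have hεm := hε m
  have hεhi : h m * ε m < h m * hi m := mul_lt_mul_of_pos_left hεm.2 hh
  have hd := hr.d0
  have ha1 : rm m + h m * ε m ≤ ρ4 m := by linarith [hB.a1' m]
  have hε0 : 0 < ε m := lt_of_le_of_lt hG.lo0 hεm.1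
  have hhε : 0 < h m * ε m := mul_pos hh hε0
  have ha0 : 0 < rm m - h m * ε m := by linarith [hB.a0 m, hr.r1]
  set a1 : ℝ := rm m + h m * ε m with ha1d
  set a0 : ℝ := rm m - h m * ε m with ha0d
  have h01 : a0 ≤ a1 := by linarith
  set A : Set E3 := {q | q ∈ frontier (co m).1.set ∧ G m q = ε m ∧ q ∈ D} with hA
  set B : Set E3 := {q | q ∈ frontier (co m).1.set ∧ G m q ≤ ε m ∧ q ∈ D} with hBd
  have c1 := hP.prod_conn (A := A) (fun q hq => hq.1) hE ha0 ha1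
  have c2 := hP.prod_conn (A := B) (fun q hq => hq.1) hL (ha0.trans_le h01) ha1
  have c2' := hP.prod_conn (s := a0) (s' := a0) (A := B) (fun q hq => hq.1) hL ha0 (h01.trans ha1)
  obtain ⟨q, hq, hqe, hqD⟩ := hN
  have hmem : a1 ∈ Ioc 0 (ρ4 m) := ⟨ha0.trans_le h01, ha1⟩
  have hmem' : a0 ∈ Ioc 0 (ρ4 m) := ⟨ha0, h01.trans ha1⟩
  have e1 := hP.gau a1 hmem q hq
  have e2 := hP.psi a1 hmem q hq
  have e1' := hP.gau a0 hmem' q hq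
  have e2' := hP.psi a0 hmem' q hq
  have m1 : p (a1, q) ∈ {y | (a0 ≤ ga Φ (co m) y ∧ ga Φ (co m) y ≤ a1) ∧ Φ.Psi y ∈ A} :=
    ⟨⟨by rw [e1]; exact h01, e1.le⟩, by rw [e2]; exact ⟨hq, hqe, hqD⟩⟩
  have m2 : p (a1, q) ∈ {y | (a1 ≤ ga Φ (co m) y ∧ ga Φ (co m) y ≤ a1) ∧ Φ.Psi y ∈ B} :=
    ⟨⟨e1.ge, e1.le⟩, by rw [e2]; exact ⟨hq, hqe.le, hqD⟩⟩
  have c3 := c1.union (p (a1, q)) m1 m2 c2
  have m3 : p (a0, q) ∈ {y | (a0 ≤ ga Φ (co m) y ∧ ga Φ (co m) y ≤ a1) ∧ Φ.Psi y ∈ A} ∪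
      {y | (a1 ≤ ga Φ (co m) y ∧ ga Φ (co m) y ≤ a1) ∧ Φ.Psi y ∈ B} :=
    Or.inl ⟨⟨e1'.ge, by rw [e1']; exact h01⟩, by rw [e2']; exact ⟨hq, hqe, hqD⟩⟩
  have m4 : p (a0, q) ∈ {y | (a0 ≤ ga Φ (co m) y ∧ ga Φ (co m) y ≤ a0) ∧ Φ.Psi y ∈ B} :=
    ⟨⟨e1'.ge, e1'.le⟩, by rw [e2']; exact ⟨hq, hqe.le, hqD⟩⟩
  have c3' := c3.union (p (a0, q)) m3 m4 c2'
  have hb : Bod (Φ.B (co m)).lo (Pc Φ.F (co m)) := Pse_316.bod_brick Φ (co m) (hB.pt m)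
  have hgf : ga Φ (co m) = Ng (Φ.B (co m)).lo (Pc Φ.F (co m)) :=
    funext (Etg_163.gg_eq Φ (co m))
  have hDL : {y | ga Φ (co m) y ≤ ρ4 m} ⊆ La := by
    rw [hgf]
    exact (hb.le_sub hr.r4.le).trans (Φ.bf.sub (co m).1 (co m).2)
  have c4 := H.preconn_pre (D := _) (fun y hy => hDL (show ga Φ (co m) y ≤ ρ4 m by
    rcases hy with (hy | hy) | hy
    · exact hy.1.2.trans ha1
    · exact hy.1.2.trans ha1
    · exact hy.1.2.trans (h01.trans ha1))) c3'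
  have e : SmD Om Φ f (lM Φ co rm h hi G) ε m D = Om ∩ f ⁻¹'
      (({y | (a0 ≤ ga Φ (co m) y ∧ ga Φ (co m) y ≤ a1) ∧ Φ.Psi y ∈ A} ∪
        {y | (a1 ≤ ga Φ (co m) y ∧ ga Φ (co m) y ≤ a1) ∧ Φ.Psi y ∈ B}) ∪
        {y | (a0 ≤ ga Φ (co m) y ∧ ga Φ (co m) y ≤ a0) ∧ Φ.Psi y ∈ B}) := by
    ext x
    constructor
    · rintro ⟨k1, k2, k4⟩
      obtain ⟨n1, n2, n3, n4⟩ := hB.pos hεm.2 k2
      have hfr := (hP.inv (f x) (ha0.trans_le n1) (n2.trans ha1)).1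
      refine ⟨k1, ?_⟩
      rcases n4 with n | n | n
      · exact Or.inr ⟨⟨n.ge, n.le⟩, hfr, n3, k4⟩
      · exact Or.inl (Or.inr ⟨⟨n.ge, n.le⟩, hfr, n3, k4⟩)
      · exact Or.inl (Or.inl ⟨⟨n1, n2⟩, hfr, n, k4⟩)
    · rintro ⟨k1, k2⟩
      have key : a0 ≤ ga Φ (co m) (f x) ∧ ga Φ (co m) (f x) ≤ a1 ∧ G m (Φ.Psi (f x)) ≤ ε m ∧
          (ga Φ (co m) (f x) = a0 ∨ ga Φ (co m) (f x) = a1 ∨ G m (Φ.Psi (f x)) = ε m) ∧
          Φ.Psi (f x) ∈ D := by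
        rcases k2 with (⟨⟨n1, n2⟩, n3⟩ | ⟨⟨n1, n2⟩, n3⟩) | ⟨⟨n1, n2⟩, n3⟩
        · exact ⟨n1, n2, n3.2.1.le, Or.inr (Or.inr n3.2.1), n3.2.2⟩
        · exact ⟨h01.trans n1, n2, n3.2.1, Or.inr (Or.inl (le_antisymm n2 n1)), n3.2.2⟩
        · exact ⟨n1, n2.trans h01, n3.2.1, Or.inl (le_antisymm n2 n1), n3.2.2⟩
      obtain ⟨n1, n2, n3, n4, n5⟩ := key
      refine ⟨k1, (bl_eq_iff hεm.2).2 ?_, n5⟩
      have u1 : |ga Φ (co m) (f x) - rm m| / h m ≤ ε m := by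
        rw [div_le_iff₀ hh, abs_le]
        constructor <;> linarith
      rcases n4 with n | n | n
      · rw [n]
        have u2 : |a0 - rm m| / h m = ε m := by
          rw [ha0d, show rm m - h m * ε m - rm m = -(h m * ε m) by ring, abs_neg,
            abs_of_pos hhε, mul_div_cancel_left₀ _ hh.ne']
        rw [u2]
        exact max_eq_left n3
      · rw [n]
        have u2 : |a1 - rm m| / h m = ε m := by
          rw [ha1d, add_sub_cancel_left, abs_of_pos hhε, mul_div_cancel_left₀ _ hh.ne']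
        rw [u2]
        exact max_eq_left n3
      · rw [n]
        exact max_eq_right u1
  rw [e]
  exact c4

end gen

section mach

variable {δ κ0 R c0 : ℝ} {La Om : Set E3} {ι : Type} {Φ : FoamD δ κ0 R c0 La} {T : Tiling Om ι}
  {f g : E3 → E3} {κ1 κ2 μ : ℝ} {X : Set Φ.F} {J0 J V : Φ.F → Set ι}
  {ct ct' : Φ.F → ι} {Aj : Φ.F → E3 ≃ᵃ[ℝ] E3} {lam : Φ.F → ℝ} {z : Φ.F → E3}
  {θ : Φ.F → E3 → E3} {φ : Φ.F → E3 → ℝ} {r₀ : Φ.F → ℝ} {ρ1 ρ2 ρ3 ρ4 d : Φ.F → ℝ}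
  {L : Φ.F → Finset ℝ} [Nonempty (JJ Φ L)] {hG : GF Φ r₀ T f L} {bp : JJ Φ L → E3}
  {Nn : BM Φ X → Set ℝ} {q₀ : BM Φ X → E3} {ε : BM Φ X → ℝ} {bm : BM Φ X → E3}
  {hGB : GFB Φ r₀ T f L (lRc Φ X μ ρ1 ρ3 d) ε}
  {v0B v1B : ∀ c, BM Φ X → VxK T (KT T J X) c}

/-- the low end zone of the sheet of the barrier `m` -/
def Zlo (Om : Set E3) (Φ : FoamD δ κ0 R c0 La) (f : E3 → E3) (X : Set Φ.F) (μ : ℝ)
    (ρ1 ρ3 d : Φ.F → ℝ) (ε : BM Φ X → ℝ) (m : BM Φ X) (t : ℝ) : Set E3 :=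
  {x | x ∈ Om ∧ lRc Φ X μ ρ1 ρ3 d m (f x) = ε m ∧ Φ.lev m.am (f x) ≤ t}

/-- the high end zone -/
def Zhi (Om : Set E3) (Φ : FoamD δ κ0 R c0 La) (f : E3 → E3) (X : Set Φ.F) (μ : ℝ)
    (ρ1 ρ3 d : Φ.F → ℝ) (ε : BM Φ X → ℝ) (m : BM Φ X) (t : ℝ) : Set E3 :=
  {x | x ∈ Om ∧ lRc Φ X μ ρ1 ρ3 d m (f x) = ε m ∧ t ≤ Φ.lev m.am (f x)}

variable (hLa : IsOpen La) (H : Hm f g Om La) (hμ : 0 < μ) (hμ1 : μ ≤ 1 / 2)
  (bar : BarOut Φ T f κ1 μ X J0 J V θ hG bp Nn ρ1 ρ2 ρ3 ρ4 d q₀ ε bm hGB v0B v1B)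
include hLa H hμ hμ1 bar

theorem eps_le (m : BM Φ X) : 1 < ε m ∧ ε m ≤ 1 + μ / 16 := by
  refine ⟨(bar.lv m).1, (bar.lv m).2.le.trans (hiB_le (μ / 16) m.co)⟩

/-- connected parts of the moat below `t` -/
theorem mlo {m : BM Φ X} {t : ℝ} (h1 : 5 * μ / 16 ≤ t) (h2 : t < 1 - 5 * μ / 16) :
    IsPreconnected {q | q ∈ frontier m.co.1.set ∧
      gmf Φ (μ / 8) (1 / 2) (1 / 2 - 5 * μ / 16) m.am m.Zm q = ε m ∧ q ∈ {q | sb Φ q m.am ≤ t}} ∧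
    IsPreconnected {q | q ∈ frontier m.co.1.set ∧
      gmf Φ (μ / 8) (1 / 2) (1 / 2 - 5 * μ / 16) m.am m.Zm q ≤ ε m ∧ q ∈ {q | sb Φ q m.am ≤ t}} ∧
    {q | q ∈ frontier m.co.1.set ∧
      gmf Φ (μ / 8) (1 / 2) (1 / 2 - 5 * μ / 16) m.am m.Zm q = ε m ∧
        q ∈ {q | sb Φ q m.am ≤ t}}.Nonempty := by
  obtain ⟨e1, e2⟩ := eps_le hLa H hμ hμ1 bar m
  obtain ⟨p, q, hM⟩ := m.mo
  have hra : 0 < 1 / 2 - 5 * μ / 16 := by linarith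
  refine Ebr8_95.moat_le hLa hM
    (Ebr6_95.nm_rec' (s := μ / 16) hμ hμ1 (by positivity) (by linarith)) (by linarith) e2 ?_ ?_
  · nlinarith
  · nlinarith

/-- connected parts of the moat above `t` -/
theorem mhi {m : BM Φ X} {t : ℝ} (h1 : 5 * μ / 16 < t) (h2 : t ≤ 1 - 5 * μ / 16) :
    IsPreconnected {q | q ∈ frontier m.co.1.set ∧
      gmf Φ (μ / 8) (1 / 2) (1 / 2 - 5 * μ / 16) m.am m.Zm q = ε m ∧ q ∈ {q | t ≤ sb Φ q m.am}} ∧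
    IsPreconnected {q | q ∈ frontier m.co.1.set ∧
      gmf Φ (μ / 8) (1 / 2) (1 / 2 - 5 * μ / 16) m.am m.Zm q ≤ ε m ∧ q ∈ {q | t ≤ sb Φ q m.am}} ∧
    {q | q ∈ frontier m.co.1.set ∧
      gmf Φ (μ / 8) (1 / 2) (1 / 2 - 5 * μ / 16) m.am m.Zm q = ε m ∧
        q ∈ {q | t ≤ sb Φ q m.am}}.Nonempty := by
  obtain ⟨e1, e2⟩ := eps_le hLa H hμ hμ1 bar m
  obtain ⟨p, q, hM⟩ := m.mo
  have hra : 0 < 1 / 2 - 5 * μ / 16 := by linarith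
  refine Ebr8_95.moat_ge hLa hM
    (Ebr6_95.nm_rec' (s := μ / 16) hμ hμ1 (by positivity) (by linarith)) (by linarith) e2 ?_ ?_
  · nlinarith
  · nlinarith

theorem zlo_conn (m : BM Φ X) {t : ℝ} (h1 : 5 * μ / 16 ≤ t) (h2 : t < 1 - 5 * μ / 16) :
    IsPreconnected (Zlo Om Φ f X μ ρ1 ρ3 d ε m t) := by
  obtain ⟨a1, a2, a3⟩ := mlo hLa H hμ hμ1 bar (m := m) h1 h2
  exact smD_conn bar.barF hLa H bar.lv (m := m) (D := {q | sb Φ q m.am ≤ t}) a1 a2 a3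

theorem zhi_conn (m : BM Φ X) {t : ℝ} (h1 : 5 * μ / 16 < t) (h2 : t ≤ 1 - 5 * μ / 16) :
    IsPreconnected (Zhi Om Φ f X μ ρ1 ρ3 d ε m t) := by
  obtain ⟨a1, a2, a3⟩ := mhi hLa H hμ hμ1 bar (m := m) h1 h2
  exact smD_conn bar.barF hLa H bar.lv (m := m) (D := {q | t ≤ sb Φ q m.am}) a1 a2 a3

/-- **all points of the barrier over the low end zone are joined over the zone** -/
theorem zone_lo (hI : InitR Φ T f g J0 ct' r₀) (m : BM Φ X) {t : ℝ} (h1 : 5 * μ / 16 ≤ t)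
    (h2 : t < 1 - 5 * μ / 16) {Y : Set E3}
    (hY : ∀ (F : C2 T) y, (∃ q ∈ F.side fr3, (P (T.H q) ∩ Zlo Om Φ f X μ ρ1 ρ3 d ε m t).Nonempty) →
      y ∈ Y → (stB hGB bp bm).At F y → (stB hGB bp bm).lab y = Sum.inr m →
      (stB hGB bp bm).mu F y ∈ Y)
    {w : E3} (hw : w ∈ (stB hGB bp bm).P) (hl : (stB hGB bp bm).lab w = Sum.inr m)
    (hz : Φ.lev m.am (f w) ≤ t) (hwY : w ∈ Y) {w' : E3} (hw' : w' ∈ (stB hGB bp bm).P)
    (hl' : (stB hGB bp bm).lab w' = Sum.inr m) (hz' : Φ.lev m.am (f w') ≤ t) : w' ∈ Y := by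
  have hpos := fun w (hw : w ∈ (stB hGB bp bm).P) hl => bar.pos m w hw hl
  have hcar := car_gmain (h3 := fr3) hGB (fun i => bar.base.mem hLa hI i) (Sum.inr m) (bar.triv _)
  refine cl_sub hcar (zlo_conn hLa H hμ hμ1 bar m h1 h2) (fun x hx => ⟨hx.1, hx.2.1⟩)
    (x := w) ?_ hwY ?_ ?_
  · exact cl_of hw hl ⟨(hpos w hw hl).1, (hpos w hw hl).2.2.1, hz⟩
  · intro F y hF hy hyc hA
    exact hY F y hF hy hA (cl_mem (fun x hx => hx.1) hyc).2.1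
  · exact cl_of hw' hl' ⟨(hpos w' hw' hl').1, (hpos w' hw' hl').2.2.1, hz'⟩

/-- **all points of the barrier over the high end zone are joined over the zone** -/
theorem zone_hi (hI : InitR Φ T f g J0 ct' r₀) (m : BM Φ X) {t : ℝ} (h1 : 5 * μ / 16 < t)
    (h2 : t ≤ 1 - 5 * μ / 16) {Y : Set E3}
    (hY : ∀ (F : C2 T) y, (∃ q ∈ F.side fr3, (P (T.H q) ∩ Zhi Om Φ f X μ ρ1 ρ3 d ε m t).Nonempty) →
      y ∈ Y → (stB hGB bp bm).At F y → (stB hGB bp bm).lab y = Sum.inr m →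
      (stB hGB bp bm).mu F y ∈ Y)
    {w : E3} (hw : w ∈ (stB hGB bp bm).P) (hl : (stB hGB bp bm).lab w = Sum.inr m)
    (hz : t ≤ Φ.lev m.am (f w)) (hwY : w ∈ Y) {w' : E3} (hw' : w' ∈ (stB hGB bp bm).P)
    (hl' : (stB hGB bp bm).lab w' = Sum.inr m) (hz' : t ≤ Φ.lev m.am (f w')) : w' ∈ Y := by
  have hpos := fun w (hw : w ∈ (stB hGB bp bm).P) hl => bar.pos m w hw hl
  have hcar := car_gmain (h3 := fr3) hGB (fun i => bar.base.mem hLa hI i) (Sum.inr m) (bar.triv _)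
  refine cl_sub hcar (zhi_conn hLa H hμ hμ1 bar m h1 h2) (fun x hx => ⟨hx.1, hx.2.1⟩)
    (x := w) ?_ hwY ?_ ?_
  · exact cl_of hw hl ⟨(hpos w hw hl).1, (hpos w hw hl).2.2.1, hz⟩
  · intro F y hF hy hyc hA
    exact hY F y hF hy hA (cl_mem (fun x hx => hx.1) hyc).2.1
  · exact cl_of hw' hl' ⟨(hpos w' hw' hl').1, (hpos w' hw' hl').2.2.1, hz'⟩

/-- the tiles at a point of the sheet of a barrier -/
theorem zone_tile (m : BM Φ X) {x : E3} (hx : lRc Φ X μ ρ1 ρ3 d m (f x) = ε m) {q : ι}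
    (hq : x ∈ P (T.H q)) :
    (q ∈ V m.co ∧ q ∉ J0 m.co) ∧ (ρ1 m.co + 2 * d m.co ≤ ga Φ m.co (f x) ∧
      ga Φ m.co (f x) + 2 * d m.co ≤ ρ4 m.co) ∧ ∀ y ∈ P (T.H q),
        |ga Φ m.co (f x) - ga Φ m.co (f y)| ≤ d m.co ∧
        ∀ e, |Φ.lev e (f x) - Φ.lev e (f y)| ≤ d m.co := by
  have hr := bar.barF.room m
  have hh := bar.barF.h0 m
  obtain ⟨n1, n2, n3, n4⟩ := bar.barF.pos (m := m) (bar.lv m).2 hx
  have e1 := bar.barF.a0 m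
  have e2 := bar.barF.a1' m
  have u2 := mul_lt_mul_of_pos_left (bar.lv m).2 hh
  beta_reduce at n1 n2 e1 e2 u2
  have g1 : ρ1 m.co + 2 * d m.co ≤ ga Φ m.co (f x) := by linarith
  have g2 : ga Φ m.co (f x) + 2 * d m.co ≤ ρ4 m.co := by linarith
  have hd := hr.d0
  beta_reduce at hd
  obtain ⟨t1, t2⟩ := hr.tile hq (by show ρ1 m.co ≤ _; linarith) (by show _ ≤ ρ4 m.co; linarith)
  refine ⟨⟨t1, t2⟩, ⟨g1, g2⟩, fun y hy => ?_⟩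
  obtain ⟨o1, -, o3⟩ := hr.osc q t1 t2 x hq y hy
  exact ⟨o1, o3⟩

/-- the tiles which meet the low end zone lie over a slightly larger zone -/
theorem zlo_tile (m : BM Φ X) {t : ℝ} {q : ι}
    (hq : (P (T.H q) ∩ Zlo Om Φ f X μ ρ1 ρ3 d ε m t).Nonempty) :
    (q ∈ V m.co ∧ q ∉ J0 m.co) ∧ ∀ y ∈ P (T.H q), Φ.lev m.am (f y) ≤ t + d m.co ∧
      ρ1 m.co + d m.co ≤ ga Φ m.co (f y) ∧ ga Φ m.co (f y) + d m.co ≤ ρ4 m.co := by
  obtain ⟨x, hxq, -, hx, hxt⟩ := hq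
  obtain ⟨h1, ⟨h2, h3⟩, h4⟩ := zone_tile hLa H hμ hμ1 bar m hx hxq
  refine ⟨h1, fun y hy => ?_⟩
  obtain ⟨k1, k2⟩ := h4 y hy
  have k1' := abs_le.1 k1
  have k2' := abs_le.1 (k2 m.am)
  exact ⟨by linarith [k2'.1], by linarith [k1'.2], by linarith [k1'.1]⟩

/-- the tiles which meet the high end zone lie over a slightly larger zone -/
theorem zhi_tile (m : BM Φ X) {t : ℝ} {q : ι}
    (hq : (P (T.H q) ∩ Zhi Om Φ f X μ ρ1 ρ3 d ε m t).Nonempty) :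
    (q ∈ V m.co ∧ q ∉ J0 m.co) ∧ ∀ y ∈ P (T.H q), t - d m.co ≤ Φ.lev m.am (f y) ∧
      ρ1 m.co + d m.co ≤ ga Φ m.co (f y) ∧ ga Φ m.co (f y) + d m.co ≤ ρ4 m.co := by
  obtain ⟨x, hxq, -, hx, hxt⟩ := hq
  obtain ⟨h1, ⟨h2, h3⟩, h4⟩ := zone_tile hLa H hμ hμ1 bar m hx hxq
  refine ⟨h1, fun y hy => ?_⟩
  obtain ⟨k1, k2⟩ := h4 y hy
  have k1' := abs_le.1 k1
  have k2' := abs_le.1 (k2 m.am)
  exact ⟨by linarith [k2'.2], by linarith [k1'.2], by linarith [k1'.1]⟩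

/-- a point of the barrier on a tile which meets `{lev a ≤ t}` -/
theorem pt_lo (m : BM Φ X) {t : ℝ} {w : E3} (hw : w ∈ (stB hGB bp bm).P)
    (hl : (stB hGB bp bm).lab w = Sum.inr m) {q : ι} (hwq : w ∈ P (T.H q))
    (hx : ∃ x ∈ P (T.H q), Φ.lev m.am (f x) ≤ t) : Φ.lev m.am (f w) ≤ t + d m.co := by
  obtain ⟨x, hxq, hxt⟩ := hx
  obtain ⟨-, -, h4⟩ := zone_tile hLa H hμ hμ1 bar m (bar.pos m w hw hl).2.2.1 hwq
  have k2' := abs_le.1 ((h4 x hxq).2 m.am)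
  linarith [k2'.2]

/-- a point of the barrier on a tile which meets `{t ≤ lev a}` -/
theorem pt_hi (m : BM Φ X) {t : ℝ} {w : E3} (hw : w ∈ (stB hGB bp bm).P)
    (hl : (stB hGB bp bm).lab w = Sum.inr m) {q : ι} (hwq : w ∈ P (T.H q))
    (hx : ∃ x ∈ P (T.H q), t ≤ Φ.lev m.am (f x)) : t - d m.co ≤ Φ.lev m.am (f w) := by
  obtain ⟨x, hxq, hxt⟩ := hx
  obtain ⟨-, -, h4⟩ := zone_tile hLa H hμ hμ1 bar m (bar.pos m w hw hl).2.2.1 hwq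
  have k2' := abs_le.1 ((h4 x hxq).2 m.am)
  linarith [k2'.1]

/-- **G4 of 778**: the top part of the sheet over the low end zone is connected -/
theorem top_lo (m : BM Φ X) {r t : ℝ} (h1 : 5 * μ / 16 ≤ t) (h2 : t < 1 - 5 * μ / 16)
    (h3 : ρ3 m.co + 6 * d m.co ≤ r) (h4 : r ≤ ρ3 m.co + 9 * d m.co) :
    IsPreconnected {x | x ∈ Om ∧ lRc Φ X μ ρ1 ρ3 d m (f x) = ε m ∧ r ≤ ga Φ m.co (f x) ∧
      Φ.lev m.am (f x) ≤ t} := by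
  obtain ⟨a1, a2, a3⟩ := mlo hLa H hμ hμ1 bar (m := m) h1 h2
  obtain ⟨c1, c2, c3, c4, c5, c6, c7⟩ := caps bar.barF bar.lv m
  exact gmD_conn bar.barF hLa H bar.lv (m := m) (D := {q | sb Φ q m.am ≤ t}) a1 a2 a3
    (by linarith) (by show rB ρ1 ρ3 d m.co - Bgf_4.hB ρ1 ρ3 d m.co * ε m < r; linarith)
    (by show r ≤ rB ρ1 ρ3 d m.co + Bgf_4.hB ρ1 ρ3 d m.co * ε m; linarith)

/-- the top part of the sheet over the high end zone is connected -/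
theorem top_hi (m : BM Φ X) {r t : ℝ} (h1 : 5 * μ / 16 < t) (h2 : t ≤ 1 - 5 * μ / 16)
    (h3 : ρ3 m.co + 6 * d m.co ≤ r) (h4 : r ≤ ρ3 m.co + 9 * d m.co) :
    IsPreconnected {x | x ∈ Om ∧ lRc Φ X μ ρ1 ρ3 d m (f x) = ε m ∧ r ≤ ga Φ m.co (f x) ∧
      t ≤ Φ.lev m.am (f x)} := by
  obtain ⟨a1, a2, a3⟩ := mhi hLa H hμ hμ1 bar (m := m) h1 h2
  obtain ⟨c1, c2, c3, c4, c5, c6, c7⟩ := caps bar.barF bar.lv m
  exact gmD_conn bar.barF hLa H bar.lv (m := m) (D := {q | t ≤ sb Φ q m.am}) a1 a2 a3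
    (by linarith) (by show rB ρ1 ρ3 d m.co - Bgf_4.hB ρ1 ρ3 d m.co * ε m < r; linarith)
    (by show r ≤ rB ρ1 ρ3 d m.co + Bgf_4.hB ρ1 ρ3 d m.co * ε m; linarith)

end mach

end Crest.Agent.R096.Fsz_298
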