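import Crest.Agent.R096.Door10_501

/-!
# R096 (row 96), DOORS, NEWIN (helper688), part 1: re-entry through the same curve

`s : GSt M fam`, a sheet `i` with `H1`, `π` = cells with the same image are merged, `r` = root,
`R0` = points joined with `r` by chords on the faces which are not inside a merged cell.

* `reenter` : a set `B` of points of `R0` which is closed (on the faces of a zone `Zf`) under the
  chords outside the merged cells and which contains, with a point of a curve of the boundary of a
  merged cell, all points of this curve on the faces of the zone, contains all points of `R0` which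
  are joined with a point of `B` by chords of the FULL sheet on the faces of the zone.
-/

set_option autoImplicit false

namespace Crest.Agent.R096.Nwi_688

open Crest.Agent.R096.St_147 Crest.Agent.R096.Seq_213 Crest.Agent.R096.Msh_715
open Crest.Agent.R096.Door_501 Classical

variable {ι ι' Φ W J C : Type} {M : MeshC ι Φ W} {fam : J → C}

/-- one step along a chord on a face of the zone -/
def ZStep (s : GSt M fam) (Zf : Set Φ) (w w' : W) : Prop :=
  ∃ F ∈ Zf, s.At F w ∧ w' = s.mu F w

/-- **re-entry** -/
theorem reenter {s : GSt M fam} {π : ι → ι'} {i : J} (h1 : s.H1 i) {r : W} (hr : s.lab r = i)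
    {Zf : Set Φ} {B : Set W}
    (hout : ∀ F ∈ Zf, ¬ ((M.side F).map π).IsDiag → ∀ w ∈ B,
      Relation.ReflTransGen (OStep s π) r w → s.At F w → s.mu F w ∈ B)
    (hcrv : ∀ k, ∀ F ∈ Zf, InF M π k F → ∀ F' ∈ Zf, InF M π k F' → ∀ w ∈ B, ∀ w',
      Relation.ReflTransGen (OStep s π) r w → s.At F w → s.At F' w' → w' ∈ crv s π k w → w' ∈ B)
    {x y : W} (hx : x ∈ B) (hxr : Relation.ReflTransGen (OStep s π) r x)
    (hyr : Relation.ReflTransGen (OStep s π) r y)
    (hxy : Relation.ReflTransGen (ZStep s Zf) x y) : y ∈ B := by
  have key : s.lab y = i ∧ ((Relation.ReflTransGen (OStep s π) r y ∧ y ∈ B) ∨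
      (¬ Relation.ReflTransGen (OStep s π) r y ∧ ∃ k, ∃ e ∈ B, ∃ F ∈ Zf, InF M π k F ∧ s.At F e ∧
        Relation.ReflTransGen (OStep s π) r e ∧
        ∃ Ψ, Psi s π i k (crv s π k e) Ψ ∧ Ψ y ≠ Ψ r)) := by
    clear hyr
    induction hxy with
    | refl => exact ⟨(oreach_lab hxr).trans hr, Or.inl ⟨hxr, hx⟩⟩
    | @tail y z _ hs ih =>
      obtain ⟨F, hF, hA, rfl⟩ := hs
      obtain ⟨hl, ih⟩ := ih
      have hlz : s.lab (s.mu F y) = i := (s.mu_lab hA.1 hA.2).trans hl
      have hAz : s.At F (s.mu F y) := s.mu_mem hA.1 hA.2
      refine ⟨hlz, ?_⟩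
      rcases ih with ⟨h2, h3⟩ | ⟨h2, k, e, he, F', hF', hin', hAe, hre, Ψ, hΨ, hne⟩
      · -- inside the component of the root
        by_cases hd : ((M.side F).map π).IsDiag
        · obtain ⟨k, hk⟩ := diag_iff.1 hd
          obtain ⟨Ψ, hΨ⟩ := exists_psi_crv h1 k y
          have hy1 : Ψ y = Ψ r := hΨ.reach hr h2
          have hstep := hΨ F y hA hl
          have hyc : y ∈ crv s π k y := Relation.ReflTransGen.refl
          rw [if_pos hk, if_pos hyc] at hstep
          by_cases h4 : Relation.ReflTransGen (OStep s π) r (s.mu F y)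
          · left
            refine ⟨h4, ?_⟩
            have hz1 : Ψ (s.mu F y) = Ψ r := hΨ.reach hr h4
            by_cases h5 : s.mu F y ∈ crv s π k y
            · exact hcrv k F hF hk F hF hk y h3 _ h2 hA hAz h5
            · rw [if_neg h5, hy1, hz1] at hstep
              exact absurd hstep (by generalize Ψ r = u; revert u; decide)
          · right
            refine ⟨h4, k, y, h3, F, hF, hk, hA, h2, Ψ, hΨ, ?_⟩
            have h5 : s.mu F y ∉ crv s π k y := fun h => h4 (h2.trans (crv_ostep h))
            rw [if_neg h5, hy1] at hstep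
            intro h6
            rw [h6] at hstep
            exact absurd hstep (by generalize Ψ r = u; revert u; decide)
        · left
          exact ⟨h2.tail ⟨F, hd, hA.1, hA.2, rfl⟩, hout F hF hd y h3 h2 hA⟩
      · -- outside the component of the root
        have hye : y ∉ crv s π k e := fun h => h2 (hre.trans (crv_ostep h))
        by_cases hk : InF M π k F
        · have hstep := hΨ F y hA hl
          rw [if_pos hk, if_neg hye] at hstep
          by_cases h4 : Relation.ReflTransGen (OStep s π) r (s.mu F y)
          · left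
            refine ⟨h4, ?_⟩
            have hz1 : Ψ (s.mu F y) = Ψ r := hΨ.reach hr h4
            by_cases h5 : s.mu F y ∈ crv s π k e
            · exact hcrv k F' hF' hin' F hF hk e he _ hre hAe hAz h5
            · rw [if_neg h5, hz1] at hstep
              exact absurd (ess_b _ _ (by rw [hstep]; rfl)) hne
          · right
            refine ⟨h4, k, e, he, F', hF', hin', hAe, hre, Ψ, hΨ, ?_⟩
            have h5 : s.mu F y ∉ crv s π k e := fun h => h4 (hre.trans (crv_ostep h))
            rw [if_neg h5] at hstep
            have h6 := ess_b _ _ (by rw [hstep]; rfl : Ψ y + Ψ (s.mu F y) = 0)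
            rw [← h6]; exact hne
        · have h6 := hΨ.out hA hl hk
          right
          have h4 : ¬ Relation.ReflTransGen (OStep s π) r (s.mu F y) := by
            intro h4
            exact hne (by rw [← h6]; exact hΨ.reach hr h4)
          exact ⟨h4, k, e, he, F', hF', hin', hAe, hre, Ψ, hΨ, by rw [h6]; exact hne⟩
  rcases key.2 with ⟨_, h⟩ | ⟨h, _⟩
  · exact h
  · exact absurd hyr h

end Crest.Agent.R096.Nwi_688
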