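import Crest.Agent.R096.Fsz1_298
import Crest.Agent.R096.Nwi1_688

/-!
# R096 (row 96), DOORS (helper298): B3 of the board #12231: the walk over the end zones

`zstep_lo`, `zstep_hi` : in 438's state `stB` two points of the barrier `m` on tiles which meet
`{lev am ≤ t}` (`{t ≤ lev am}`) are joined by chords of the FULL sheet on the faces of fine tiles near
the core, over `{lev am ≤ t + 2 d}` (`{t - 2 d ≤ lev am}`).
-/

set_option autoImplicit false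
set_option linter.unusedSectionVars false
set_option linter.unusedVariables false
set_option linter.style.longLine false

open Set Topology Filter Metric Module Relation
open scoped Classical

namespace Crest.Agent.R096.Fsz_298

open Crest.Agent.R096.Msh_715 Crest.Agent.R096.Coh_184 Crest.Agent.R096.Lab_184
  Crest.Agent.R096.Main_4 Crest.Agent.R096.Agl5_543
  Crest.Agent.R096.Seq_213 Crest.Agent.R096.St_147 Crest.Agent.R096.Door_501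
  Crest.Agent.R096.Twr_438 Crest.Agent.R096.Exa_560
  Crest.Agent.R096.Ess3_95 Crest.Agent.R096.Ess4_95
  Crest.Agent.R096.Dfi_471 Crest.Agent.R096.Sla_184
  Crest.Agent.R096.Brk1_582 Crest.Agent.R096.Brk2_582 Crest.Agent.R096.Brk3_582
  Crest.Agent.R096.Brk5_582 Crest.Agent.R096.Bsp_628 Crest.Agent.R096.Init_543
  Crest.Agent.R096.Dib_438 Crest.Agent.R096.Rop_441
  Crest.Agent.R096.Frs_662 Crest.Agent.R096.Cg_501 Crest.Agent.R096.SecW_892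
  Crest.Agent.R096.Nmd1_698 Crest.Agent.R096.Pbn_147 Crest.Agent.R096.Bar_106
  Crest.Agent.R096.Ebr4_95 Crest.Agent.R096.Bgf_4 Crest.Agent.R096.Ess5_95
  Crest.Agent.R096.Cns_778 Crest.Agent.R096.Nwi_688
open Crest.Agent.R096.Sgo_298 (RmA rout ActR)
open Crest.Agent.R096.Mbf_337 (KJ Tiny Cores Fine Words sb gau)
open Crest.Agent.R096.SkC1_961 (E3 FoamD Hom3)
open Crest.Agent.R096.Frn_337 (Ti)
open Crest.Agent.R096.Ess7_95 (KT)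

variable {δ κ0 R c0 : ℝ} {La Om : Set E3} {ι : Type} {Φ : FoamD δ κ0 R c0 La} {T : Tiling Om ι}
  {f g : E3 → E3} {κ1 κ2 μ : ℝ} {X : Set Φ.F} {J0 J V : Φ.F → Set ι}
  {ct ct' : Φ.F → ι} {Aj : Φ.F → E3 ≃ᵃ[ℝ] E3} {lam : Φ.F → ℝ} {z : Φ.F → E3}
  {θ : Φ.F → E3 → E3} {φ : Φ.F → E3 → ℝ} {r₀ : Φ.F → ℝ} {ρ1 ρ2 ρ3 ρ4 d : Φ.F → ℝ}
  {L : Φ.F → Finset ℝ} [Nonempty (JJ Φ L)] {hG : GF Φ r₀ T f L} {bp : JJ Φ L → E3}
  {Nn : BM Φ X → Set ℝ} {q₀ : BM Φ X → E3} {ε : BM Φ X → ℝ} {bm : BM Φ X → E3}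
  {hGB : GFB Φ r₀ T f L (lRc Φ X μ ρ1 ρ3 d) ε}
  {v0B v1B : ∀ c, BM Φ X → VxK T (KT T J X) c}

/-- the faces of the fine tiles near the core of `m` over `{lev am ≤ t}` -/
def ZFlo (T : Tiling Om ι) (f : E3 → E3) (J0 V : Φ.F → Set ι) (m : BM Φ X) (t : ℝ) : Set (C2 T) :=
  {F | ∃ q ∈ F.side fr3, q ∈ V m.co ∧ q ∉ J0 m.co ∧ ∀ x ∈ P (T.H q), Φ.lev m.am (f x) ≤ t}

/-- the faces of the fine tiles near the core of `m` over `{t ≤ lev am}` -/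
def ZFhi (T : Tiling Om ι) (f : E3 → E3) (J0 V : Φ.F → Set ι) (m : BM Φ X) (t : ℝ) : Set (C2 T) :=
  {F | ∃ q ∈ F.side fr3, q ∈ V m.co ∧ q ∉ J0 m.co ∧ ∀ x ∈ P (T.H q), t ≤ Φ.lev m.am (f x)}

variable (hLa : IsOpen La) (hI : InitR Φ T f g J0 ct' r₀) (hμ : 0 < μ) (hμ1 : μ ≤ 1 / 2)
  (bar : BarOut Φ T f κ1 μ X J0 J V θ hG bp Nn ρ1 ρ2 ρ3 ρ4 d q₀ ε bm hGB v0B v1B)
include hLa hI hμ hμ1 bar

/-- **B3, low end** -/
theorem zstep_lo (m : BM Φ X) {t : ℝ} (h1 : 5 * μ / 16 ≤ t + d m.co)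
    (h2 : t + d m.co < 1 - 5 * μ / 16) {h y : E3}
    (hh : h ∈ (stB hGB bp bm).P) (hhl : (stB hGB bp bm).lab h = Sum.inr m)
    (hhq : ∃ q, h ∈ P (T.H q) ∧ ∃ x ∈ P (T.H q), Φ.lev m.am (f x) ≤ t)
    (hy : y ∈ (stB hGB bp bm).P) (hyl : (stB hGB bp bm).lab y = Sum.inr m)
    (hyq : ∃ q, y ∈ P (T.H q) ∧ ∃ x ∈ P (T.H q), Φ.lev m.am (f x) ≤ t) :
    ReflTransGen (ZStep (stB hGB bp bm) (ZFlo T f J0 V m (t + 2 * d m.co))) h y := by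
  obtain ⟨q, hq, hx⟩ := hhq
  obtain ⟨q', hq', hx'⟩ := hyq
  refine zone_lo hLa hI.hm hμ hμ1 bar hI m (t := t + d m.co) h1 h2
    (Y := {y | ReflTransGen (ZStep (stB hGB bp bm) (ZFlo T f J0 V m (t + 2 * d m.co))) h y})
    ?_ hh hhl (pt_lo hLa hI.hm hμ hμ1 bar m hh hhl hq hx) .refl hy hyl
    (pt_lo hLa hI.hm hμ hμ1 bar m hy hyl hq' hx')
  rintro F y ⟨q, hqF, hqz⟩ hyY hA -
  obtain ⟨⟨k1, k2⟩, k3⟩ := zlo_tile hLa hI.hm hμ hμ1 bar m hqz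
  refine ReflTransGen.tail hyY ⟨F, ⟨q, hqF, k1, k2, fun x hx => ?_⟩, hA, rfl⟩
  have := (k3 x hx).1
  linarith

/-- **B3, high end** -/
theorem zstep_hi (m : BM Φ X) {t : ℝ} (h1 : 5 * μ / 16 < t - d m.co)
    (h2 : t - d m.co ≤ 1 - 5 * μ / 16) {h y : E3}
    (hh : h ∈ (stB hGB bp bm).P) (hhl : (stB hGB bp bm).lab h = Sum.inr m)
    (hhq : ∃ q, h ∈ P (T.H q) ∧ ∃ x ∈ P (T.H q), t ≤ Φ.lev m.am (f x))
    (hy : y ∈ (stB hGB bp bm).P) (hyl : (stB hGB bp bm).lab y = Sum.inr m)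
    (hyq : ∃ q, y ∈ P (T.H q) ∧ ∃ x ∈ P (T.H q), t ≤ Φ.lev m.am (f x)) :
    ReflTransGen (ZStep (stB hGB bp bm) (ZFhi T f J0 V m (t - 2 * d m.co))) h y := by
  obtain ⟨q, hq, hx⟩ := hhq
  obtain ⟨q', hq', hx'⟩ := hyq
  refine zone_hi hLa hI.hm hμ hμ1 bar hI m (t := t - d m.co) h1 h2
    (Y := {y | ReflTransGen (ZStep (stB hGB bp bm) (ZFhi T f J0 V m (t - 2 * d m.co))) h y})
    ?_ hh hhl (pt_hi hLa hI.hm hμ hμ1 bar m hh hhl hq hx) .refl hy hyl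
    (pt_hi hLa hI.hm hμ hμ1 bar m hy hyl hq' hx')
  rintro F y ⟨q, hqF, hqz⟩ hyY hA -
  obtain ⟨⟨k1, k2⟩, k3⟩ := zhi_tile hLa hI.hm hμ hμ1 bar m hqz
  refine ReflTransGen.tail hyY ⟨F, ⟨q, hqF, k1, k2, fun x hx => ?_⟩, hA, rfl⟩
  have := (k3 x hx).1
  linarith

end Crest.Agent.R096.Fsz_298
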