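import Crest.Agent.R096.H2a2_821

/-!
Row 96 (S0127), helper216.  Leaf [C9] of 622 (#11695): **the Fubini part of (2b)**: the integrals over the
translations of the 1-cells of the block against the energies near them (SHORT edges: with the overlap
number; LONG edges: with the energies of the tubes, cell by cell).
-/

set_option autoImplicit false
set_option linter.unusedSectionVars false
set_option linter.style.longLine false

open Set Metric Filter Topology MeasureTheory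
open scoped ENNReal NNReal

namespace Crest.Agent.R096.Fub_216

open Crest.AnalysisR.VecCalc3 Crest.AnalysisR.Sobolev
open Crest.Agent.R096.Msh_715 Crest.Agent.R096.Mal_874
open Crest.Agent.R096.Pin_753
open Crest.Agent.R096.Sq_55 (w2 lint_w2)
open Crest.Agent.R096.Br_695 (En)
open Crest.Agent.R96.Lu_538 (Gmat gmatL gmatL_apply norm_gmatL_le aesm_Gmat)
open Crest.Agent.R96.En10_199 (P3 P3_mp)
open Crest.Agent.R096.Sqt_143 (sg isCompact_sg)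

/-! ### determinants -/

theorem det_ge {L : R3 →L[ℝ] R3} {κ : ℝ} (hκ : 0 < κ) (h : ∀ v, κ * ‖v‖ ≤ ‖L v‖) :
    κ ^ 3 ≤ |L.det| := by
  have hinj : Function.Injective (L : R3 →ₗ[ℝ] R3) := by
    rw [← LinearMap.ker_eq_bot, LinearMap.ker_eq_bot']
    intro x hx
    have h1 := h x
    have h2 : L x = 0 := hx
    rw [h2, norm_zero] at h1
    have h3 : ‖x‖ ≤ 0 := by
      by_contra hc
      push Not at hc
      nlinarith
    exact norm_le_zero_iff.1 h3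
  have hsurj : Function.Surjective (L : R3 →ₗ[ℝ] R3) := LinearMap.injective_iff_surjective.1 hinj
  have hsub : ball (0 : R3) κ ⊆ L '' ball (0 : R3) 1 := by
    intro y hy
    obtain ⟨x, rfl⟩ := hsurj y
    refine ⟨x, ?_, rfl⟩
    rw [mem_ball_zero_iff] at hy ⊢
    have h1 : κ * ‖x‖ ≤ ‖L x‖ := h x
    have h2 : ‖L x‖ < κ := hy
    by_contra hc
    push Not at hc
    nlinarith
  have h1 := measure_mono (μ := (volume : Measure R3)) hsub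
  rw [Measure.addHaar_image_continuousLinearMap, Measure.addHaar_ball_of_pos _ _ hκ] at h1
  have hfr : Module.finrank ℝ R3 = 3 := by simp
  rw [hfr] at h1
  have h0 : volume (ball (0 : R3) 1) ≠ 0 := (measure_ball_pos _ _ one_pos).ne'
  have ht : volume (ball (0 : R3) 1) ≠ ∞ := measure_ball_lt_top.ne
  have h2 : ENNReal.ofReal (κ ^ 3) ≤ ENNReal.ofReal |L.det| :=
    (ENNReal.mul_le_mul_iff_left h0 ht).1 h1
  exact (ENNReal.ofReal_le_ofReal_iff (abs_nonneg _)).1 h2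

theorem norm_P3_le (z : Fin 3 → ℝ) : ‖P3 z‖ ≤ 7 / 4 * ‖z‖ := by
  rw [EuclideanSpace.norm_eq]
  refine Real.sqrt_le_iff.2 ⟨by positivity, ?_⟩
  have h : ∀ i, ‖P3 z i‖ ^ 2 ≤ ‖z‖ ^ 2 := fun i => by
    have := norm_le_pi_norm z i
    exact pow_le_pow_left₀ (norm_nonneg _) this 2
  rw [Fin.sum_univ_three]
  nlinarith [h 0, h 1, h 2, sq_nonneg ‖z‖]

theorem norm_P3_symm_le (x : R3) : ‖P3.symm x‖ ≤ ‖x‖ := norm_w2_symm_le x

theorem vol_P3_image (S : Set (Fin 3 → ℝ)) : volume (P3 '' S) = volume S := by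
  have h : volume (P3 ⁻¹' (P3 '' S)) = volume (P3 '' S) :=
    P3_mp.measure_preimage_emb P3.toHomeomorph.measurableEmbedding _
  rw [← h, preimage_image_eq _ P3.injective]

theorem dv_ge {ψ : R3 ≃L[ℝ] (Fin 3 → ℝ)} {κ : ℝ} (hκ : 0 < κ) (h : ∀ v, ‖ψ v‖ ≤ 4 * κ⁻¹ * ‖v‖) :
    (κ / 7) ^ 3 ≤ dv ψ := by
  have hsub : P3 '' closedBall 0 (κ / 7) ⊆ ψ ⁻¹' closedBall 0 1 := by
    rintro _ ⟨z, hz, rfl⟩
    rw [mem_closedBall_zero_iff] at hz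
    rw [mem_preimage, mem_closedBall_zero_iff]
    calc ‖ψ (P3 z)‖ ≤ 4 * κ⁻¹ * ‖P3 z‖ := h _
      _ ≤ 4 * κ⁻¹ * (7 / 4 * ‖z‖) := by gcongr; exact norm_P3_le z
      _ ≤ 4 * κ⁻¹ * (7 / 4 * (κ / 7)) := by gcongr
      _ = 1 := by field_simp
  have h1 := measure_mono (μ := (volume : Measure R3)) hsub
  rw [vol_P3_image, vol_psi, Real.volume_pi_closedBall _ (by positivity),
    Real.volume_pi_closedBall _ zero_le_one, Fintype.card_fin,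
    ← ENNReal.ofReal_mul (dv_pos ψ).le,
    ENNReal.ofReal_le_ofReal_iff (by have := dv_pos ψ; positivity)] at h1
  nlinarith [h1]

theorem dv_le {ψ : R3 ≃L[ℝ] (Fin 3 → ℝ)} {κ : ℝ} (hκ : 0 < κ) (h : ∀ v, κ / 4 * ‖v‖ ≤ ‖ψ v‖) :
    dv ψ ≤ (4 / κ) ^ 3 := by
  have hsub : ψ ⁻¹' closedBall 0 1 ⊆ P3 '' closedBall 0 (4 / κ) := by
    intro x hx
    rw [mem_preimage, mem_closedBall_zero_iff] at hx
    refine ⟨P3.symm x, ?_, P3.apply_symm_apply x⟩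
    rw [mem_closedBall_zero_iff]
    refine (norm_P3_symm_le x).trans ?_
    rw [le_div_iff₀ hκ]
    have := (h x).trans hx
    linarith
  have h1 := measure_mono (μ := (volume : Measure R3)) hsub
  rw [vol_P3_image, vol_psi, Real.volume_pi_closedBall _ zero_le_one,
    Real.volume_pi_closedBall _ (by positivity), Fintype.card_fin,
    ← ENNReal.ofReal_mul (dv_pos ψ).le,
    ENNReal.ofReal_le_ofReal_iff (by positivity)] at h1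
  nlinarith [h1]

/-! ### the energy density against `Gmat` -/

theorem norm_Gmat_apply_le (G : Fin 3 → R3 → R3) (y v : R3) :
    ‖Gmat G y v‖ ≤ (∑ j, ‖G j y‖) * ‖v‖ := by
  refine (ContinuousLinearMap.le_opNorm _ _).trans ?_
  refine mul_le_mul_of_nonneg_right ?_ (norm_nonneg _)
  refine (norm_gmatL_le _).trans ?_
  refine Real.sqrt_le_iff.2 ⟨Finset.sum_nonneg fun _ _ => norm_nonneg _, ?_⟩
  simp only [Fin.sum_univ_three]
  nlinarith [norm_nonneg (G 0 y), norm_nonneg (G 1 y), norm_nonneg (G 2 y),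
    mul_nonneg (norm_nonneg (G 0 y)) (norm_nonneg (G 1 y)),
    mul_nonneg (norm_nonneg (G 0 y)) (norm_nonneg (G 2 y)),
    mul_nonneg (norm_nonneg (G 1 y)) (norm_nonneg (G 2 y))]

theorem enorm_Gmat_le {p : ℝ} (hp : 1 ≤ p) (G : Fin 3 → R3 → R3) (y v : R3) :
    ‖Gmat G y v‖ₑ ^ p ≤ ENNReal.ofReal (3 ^ p * ‖v‖ ^ p) * En p G y := by
  have hp0 : 0 ≤ p := by linarith
  have h1 : ‖Gmat G y v‖ₑ ≤ ENNReal.ofReal ‖v‖ * ∑ j, ‖G j y‖ₑ := by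
    have h2 : ∑ j, ‖G j y‖ₑ = ENNReal.ofReal (∑ j, ‖G j y‖) := by
      rw [ENNReal.ofReal_sum_of_nonneg fun _ _ => norm_nonneg _]
      exact Finset.sum_congr rfl fun j _ => (ofReal_norm _).symm
    rw [h2, ← ENNReal.ofReal_mul (norm_nonneg _), ← ofReal_norm]
    refine ENNReal.ofReal_le_ofReal ?_
    rw [mul_comm]
    exact norm_Gmat_apply_le G y v
  have h3 : (∑ j : Fin 3, ‖G j y‖ₑ) ^ p ≤ (3:ℝ≥0∞) ^ p * En p G y := by
    refine (ENNReal.rpow_sum_le_const_mul_sum_rpow (s := Finset.univ) (fun j => ‖G j y‖ₑ) hp).trans ?_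
    refine mul_le_mul' ?_ le_rfl
    rw [Finset.card_univ, Fintype.card_fin]
    refine ENNReal.rpow_le_rpow_of_exponent_le (by norm_num) (by linarith)
  calc ‖Gmat G y v‖ₑ ^ p ≤ (ENNReal.ofReal ‖v‖ * ∑ j, ‖G j y‖ₑ) ^ p := ENNReal.rpow_le_rpow h1 hp0
    _ = ENNReal.ofReal ‖v‖ ^ p * (∑ j, ‖G j y‖ₑ) ^ p := ENNReal.mul_rpow_of_nonneg _ _ hp0
    _ ≤ ENNReal.ofReal ‖v‖ ^ p * ((3:ℝ≥0∞) ^ p * En p G y) := mul_le_mul' le_rfl h3
    _ = _ := by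
        rw [ENNReal.ofReal_rpow_of_nonneg (norm_nonneg _) hp0, ← mul_assoc]
        congr 1
        have h4 : (3:ℝ≥0∞) ^ p = ENNReal.ofReal (3 ^ p) := by
          rw [← ENNReal.ofReal_rpow_of_nonneg (by norm_num) hp0]
          norm_num
        rw [h4, ← ENNReal.ofReal_mul (by positivity)]
        congr 1
        ring

theorem aem_En {p : ℝ} {G : Fin 3 → R3 → R3} {m : Measure R3}
    (h : ∀ j, AEStronglyMeasurable (G j) m) : AEMeasurable (En p G) m := by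
  unfold En
  refine Finset.aemeasurable_fun_sum _ fun j _ => ?_
  exact (h j).enorm.pow_const p

/-! ### one edge -/

/-- the constant of the edges -/
noncomputable def CF (p κ : ℝ) : ℝ := 3 ^ p * (25 / κ) * (7 / κ) ^ 3

theorem CF_nonneg (p : ℝ) {κ : ℝ} (hκ : 0 < κ) : 0 ≤ CF p κ := by
  unfold CF; positivity

variable {Q : CB R3 3} {k0 : ℕ}

/-- Fubini for an edge against the energy near the edge -/
theorem edge_En0 {p : ℝ} (hp : 1 ≤ p) {x v : R3} (hv : v ≠ 0) {S : Set R3} (mS : MeasurableSet S)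
    {G : Fin 3 → R3 → R3} (hG : ∀ j, AEStronglyMeasurable (G j) (volume.restrict S))
    (ht : ∀ w ∈ Tw Q k0, ∀ τ ∈ Icc (0:ℝ) 1, x + w + τ • v ∈ S) :
    ∫⁻ w in Tw Q k0, ∫⁻ τ in Icc (0:ℝ) 1, ‖Gmat G (x + w + τ • v) v‖ₑ ^ p ≤
      ENNReal.ofReal (2 / (5 * 2 ^ k0 * ‖Q.ψ v‖) * (3 ^ p * ‖v‖ ^ p)) * ∫⁻ y in S, En p G y := by
  calc ∫⁻ w in Tw Q k0, ∫⁻ τ in Icc (0:ℝ) 1, ‖Gmat G (x + w + τ • v) v‖ₑ ^ p
      ≤ ∫⁻ w in Tw Q k0, ∫⁻ τ in Icc (0:ℝ) 1,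
          ENNReal.ofReal (3 ^ p * ‖v‖ ^ p) * En p G (x + w + τ • v) :=
        lintegral_mono fun w => lintegral_mono fun τ => enorm_Gmat_le hp G _ _
    _ ≤ ENNReal.ofReal (2 / (5 * 2 ^ k0 * ‖Q.ψ v‖)) *
          ∫⁻ y in S, ENNReal.ofReal (3 ^ p * ‖v‖ ^ p) * En p G y :=
        fub_B (F := fun y => ENNReal.ofReal (3 ^ p * ‖v‖ ^ p) * En p G y) hv mS
          ((aem_En hG).const_mul _) ht
    _ = _ := by
        rw [lintegral_const_mul' _ _ ENNReal.ofReal_ne_top, ← mul_assoc,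
          ← ENNReal.ofReal_mul (by positivity)]

/-- the numbers of an edge -/
theorem edge_num {p κ : ℝ} (hp : 1 ≤ p) (hp3 : p ≤ 3) (hκ : 0 < κ)
    (cnd : ∀ v, κ / 4 * ‖v‖ ≤ ‖Q.ψ v‖ ∧ ‖Q.ψ v‖ ≤ 4 * κ⁻¹ * ‖v‖) (L : R3 →L[ℝ] R3) {v : R3}
    (hv : v ≠ 0) :
    ENNReal.ofReal (‖L‖ ^ p / |L.det|) * (ENNReal.ofReal (‖L v‖ ^ (3 - p)) *
        ENNReal.ofReal (2 / (5 * 2 ^ k0 * ‖Q.ψ v‖) * (3 ^ p * ‖v‖ ^ p))) ≤
      ENNReal.ofReal (CF p κ * (‖L‖ ^ 3 / |L.det|) * (2 ^ k0 * ‖v‖) ^ 2) * volume (Tw Q k0) := by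
  have hv0 : 0 < ‖v‖ := norm_pos_iff.2 hv
  have hdv := dv_pos Q.ψ
  have hdv2 := dv_ge hκ fun v => (cnd v).2
  have hψ : 0 < ‖Q.ψ v‖ := by
    have := (cnd v).1
    have h2 : 0 < κ / 4 * ‖v‖ := by positivity
    linarith
  rw [volume_Tw, ← ENNReal.ofReal_mul (by positivity), ← ENNReal.ofReal_mul (by positivity),
    ← ENNReal.ofReal_mul (by have := CF_nonneg p hκ; positivity)]
  refine ENNReal.ofReal_le_ofReal ?_
  have h1 : ‖L v‖ ^ (3 - p) ≤ ‖L‖ ^ (3 - p) * ‖v‖ ^ (3 - p) := by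
    rw [← Real.mul_rpow (norm_nonneg _) (norm_nonneg _)]
    exact Real.rpow_le_rpow (norm_nonneg _) (L.le_opNorm v) (by linarith)
  have h2 : ‖L‖ ^ p * ‖L‖ ^ (3 - p) = ‖L‖ ^ 3 := by
    rcases eq_or_lt_of_le (norm_nonneg L) with h | h
    · rw [← h, Real.zero_rpow (by linarith)]
      simp
    · rw [← Real.rpow_add h]
      have : p + (3 - p) = ((3:ℕ):ℝ) := by push_cast; ring
      rw [this, Real.rpow_natCast]
  have h3 : ‖v‖ ^ (3 - p) * ‖v‖ ^ p = ‖v‖ ^ 3 := by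
    rw [← Real.rpow_add hv0]
    have : 3 - p + p = ((3:ℕ):ℝ) := by push_cast; ring
    rw [this, Real.rpow_natCast]
  have h4 : 2 / (5 * 2 ^ k0 * ‖Q.ψ v‖) ≤ 8 / (5 * 2 ^ k0 * (κ * ‖v‖)) := by
    rw [div_le_div_iff₀ (by positivity) (by positivity)]
    have := (cnd v).1
    have h5 : (0:ℝ) < 5 * 2 ^ k0 := by positivity
    nlinarith [mul_le_mul_of_nonneg_left this h5.le]
  have h6 : 1 ≤ dv Q.ψ * (7 / κ) ^ 3 := by
    calc (1:ℝ) = (κ / 7) ^ 3 * (7 / κ) ^ 3 := by field_simp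
      _ ≤ _ := by gcongr
  calc ‖L‖ ^ p / |L.det| * (‖L v‖ ^ (3 - p) * (2 / (5 * 2 ^ k0 * ‖Q.ψ v‖) * (3 ^ p * ‖v‖ ^ p)))
      ≤ ‖L‖ ^ p / |L.det| * ((‖L‖ ^ (3 - p) * ‖v‖ ^ (3 - p)) *
          (8 / (5 * 2 ^ k0 * (κ * ‖v‖)) * (3 ^ p * ‖v‖ ^ p))) := by gcongr
    _ = (‖L‖ ^ p * ‖L‖ ^ (3 - p)) / |L.det| * (‖v‖ ^ (3 - p) * ‖v‖ ^ p) *
          (8 / (5 * 2 ^ k0 * (κ * ‖v‖)) * 3 ^ p) := by ring
    _ = ‖L‖ ^ 3 / |L.det| * ‖v‖ ^ 3 * (8 / (5 * 2 ^ k0 * (κ * ‖v‖)) * 3 ^ p) * 1 := by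
        rw [h2, h3, mul_one]
    _ ≤ ‖L‖ ^ 3 / |L.det| * ‖v‖ ^ 3 * (8 / (5 * 2 ^ k0 * (κ * ‖v‖)) * 3 ^ p) *
          (dv Q.ψ * (7 / κ) ^ 3) := by gcongr
    _ = CF p κ * (‖L‖ ^ 3 / |L.det|) * (2 ^ k0 * ‖v‖) ^ 2 *
          (dv Q.ψ * (2 / (5 * 2 ^ k0)) ^ 3) := by
        unfold CF
        field_simp
        ring

/-- **[C9](b)** -/
theorem edge_En {p κ : ℝ} (hp : 1 ≤ p) (hp3 : p ≤ 3) (hκ : 0 < κ)
    (cnd : ∀ v, κ / 4 * ‖v‖ ≤ ‖Q.ψ v‖ ∧ ‖Q.ψ v‖ ≤ 4 * κ⁻¹ * ‖v‖) (L : R3 →L[ℝ] R3) {x v : R3}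
    {S : Set R3} (mS : MeasurableSet S)
    {G : Fin 3 → R3 → R3} (hG : ∀ j, AEStronglyMeasurable (G j) (volume.restrict S))
    (ht : ∀ w ∈ Tw Q k0, ∀ τ ∈ Icc (0:ℝ) 1, x + w + τ • v ∈ S) :
    ENNReal.ofReal (‖L‖ ^ p / |L.det|) * (ENNReal.ofReal (‖L v‖ ^ (3 - p)) *
        ∫⁻ w in Tw Q k0, ∫⁻ τ in Icc (0:ℝ) 1, ‖Gmat G (x + w + τ • v) v‖ₑ ^ p) ≤
      ENNReal.ofReal (CF p κ * (‖L‖ ^ 3 / |L.det|) * (2 ^ k0 * ‖v‖) ^ 2) * (∫⁻ y in S, En p G y) *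
        volume (Tw Q k0) := by
  by_cases hv : v = 0
  · have h0 : ∀ y, ‖Gmat G y v‖ₑ ^ p = 0 := fun y => by
      rw [hv, map_zero, enorm_zero, ENNReal.zero_rpow_of_pos (by linarith)]
    simp only [h0]
    simp
  · refine (mul_le_mul' le_rfl (mul_le_mul' le_rfl (edge_En0 hp hv mS hG ht))).trans ?_
    calc _ = ENNReal.ofReal (‖L‖ ^ p / |L.det|) * (ENNReal.ofReal (‖L v‖ ^ (3 - p)) *
          ENNReal.ofReal (2 / (5 * 2 ^ k0 * ‖Q.ψ v‖) * (3 ^ p * ‖v‖ ^ p))) *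
            ∫⁻ y in S, En p G y := by ring
      _ ≤ ENNReal.ofReal (CF p κ * (‖L‖ ^ 3 / |L.det|) * (2 ^ k0 * ‖v‖) ^ 2) *
            volume (Tw Q k0) * ∫⁻ y in S, En p G y := mul_le_mul' (edge_num hp hp3 hκ cnd L hv) le_rfl
      _ = _ := by ring

theorem En_eq : Sq_55.En = Br_695.En := rfl

/-! ### SHORT edges: sum with the overlap number -/

theorem tsum_overlap {α ι : Type*} [MeasurableSpace α] {μ : Measure α} {Es : Set ι}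
    (hEs : Es.Countable) {S : ι → Set α} {U : Set α} (mS : ∀ e ∈ Es, MeasurableSet (S e))
    (hU : ∀ e ∈ Es, S e ⊆ U) {m : ℕ} (hm : ∀ y, {e | e ∈ Es ∧ y ∈ S e}.encard ≤ m)
    {F : α → ℝ≥0∞} (hF : AEMeasurable F (μ.restrict U)) :
    ∑' e : Es, ∫⁻ y in S e, F y ∂μ ≤ m * ∫⁻ y in U, F y ∂μ := by
  have : Countable Es := hEs.to_subtype
  have h1 : ∀ e : Es, ∫⁻ y in S e, F y ∂μ = ∫⁻ y in U, (S e.1).indicator F y ∂μ := by
    intro e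
    rw [lintegral_indicator (mS e.1 e.2), Measure.restrict_restrict (mS e.1 e.2),
      inter_eq_self_of_subset_left (hU e.1 e.2)]
  have h3 : ∑' e : Es, ∫⁻ y in U, (S e.1).indicator F y ∂μ =
      ∫⁻ y in U, ∑' e : Es, (S e.1).indicator F y ∂μ :=
    (lintegral_tsum fun e : Es => hF.indicator (mS e.1 e.2)).symm
  simp only [h1]
  rw [h3, ← lintegral_const_mul' _ _ (by simp)]
  refine lintegral_mono fun y => ?_
  have hfin : {e | e ∈ Es ∧ y ∈ S e}.Finite := by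
    refine Set.encard_lt_top_iff.1 (lt_of_le_of_lt (hm y) ?_)
    exact ENat.natCast_lt_top m
  have hfin2 : {e : Es | y ∈ S e.1}.Finite := by
    have h : {e : Es | y ∈ S e.1} = Subtype.val ⁻¹' {e | e ∈ Es ∧ y ∈ S e} := by
      ext e; simp
    rw [h]
    exact hfin.preimage Subtype.val_injective.injOn
  have hcard : (hfin2.toFinset.card : ℕ∞) ≤ m := by
    refine le_trans ?_ (hm y)
    rw [← Set.encard_coe_eq_coe_finsetCard, Set.Finite.coe_toFinset]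
    rw [← Subtype.val_injective.encard_image]
    refine Set.encard_le_encard ?_
    rintro _ ⟨e, he, rfl⟩
    exact ⟨e.2, he⟩
  have h2 : ∑' e : Es, (S e.1).indicator F y = ∑ e ∈ hfin2.toFinset, (S e.1).indicator F y := by
    refine tsum_eq_sum fun e he => ?_
    rw [Set.Finite.mem_toFinset] at he
    exact indicator_of_notMem (s := S e.1) (by exact he) _
  rw [h2]
  refine (Finset.sum_le_card_nsmul _ _ (F y) fun e _ => indicator_le_self _ _ _).trans ?_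
  rw [nsmul_eq_mul]
  refine mul_le_mul' ?_ le_rfl
  exact_mod_cast hcard

/-- **[C9](c) SHORT edges** -/
theorem short_sum {p κ Λ : ℝ} (hp : 1 ≤ p) (hp3 : p ≤ 3) (hκ : 0 < κ)
    (cnd : ∀ v, κ / 4 * ‖v‖ ≤ ‖Q.ψ v‖ ∧ ‖Q.ψ v‖ ≤ 4 * κ⁻¹ * ‖v‖) (L : R3 →L[ℝ] R3)
    {Es : Set (R3 × R3)} (hEs : Es.Countable) (hΛ : ∀ e ∈ Es, 2 ^ k0 * ‖e.2 - e.1‖ ≤ Λ)
    {S : R3 × R3 → Set R3} {U : Set R3} (mS : ∀ e ∈ Es, MeasurableSet (S e))
    (hU : ∀ e ∈ Es, S e ⊆ U) {m : ℕ} (hm : ∀ y, {e | e ∈ Es ∧ y ∈ S e}.encard ≤ m)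
    {G : Fin 3 → R3 → R3} (hG : ∀ j, AEStronglyMeasurable (G j) (volume.restrict U))
    (ht : ∀ e ∈ Es, ∀ w ∈ Tw Q k0, ∀ τ ∈ Icc (0:ℝ) 1, e.1 + w + τ • (e.2 - e.1) ∈ S e) :
    ENNReal.ofReal (‖L‖ ^ p / |L.det|) *
        (∑' e : Es, ENNReal.ofReal (‖L (e.1.2 - e.1.1)‖ ^ (3 - p)) *
          ∫⁻ w in Tw Q k0, ∫⁻ τ in Icc (0:ℝ) 1,
            ‖Gmat G (e.1.1 + w + τ • (e.1.2 - e.1.1)) (e.1.2 - e.1.1)‖ₑ ^ p) ≤
      ENNReal.ofReal (CF p κ * (‖L‖ ^ 3 / |L.det|) * Λ ^ 2) * (m * ∫⁻ y in U, En p G y) *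
        volume (Tw Q k0) := by
  have hCF := CF_nonneg p hκ
  rw [← ENNReal.tsum_mul_left]
  calc _ ≤ ∑' e : Es, ENNReal.ofReal (CF p κ * (‖L‖ ^ 3 / |L.det|) * Λ ^ 2) *
        (∫⁻ y in S e.1, En p G y) * volume (Tw Q k0) := by
        refine ENNReal.tsum_le_tsum fun e => ?_
        refine (edge_En hp hp3 hκ cnd L (mS e.1 e.2)
          (fun j => (hG j).mono_measure (Measure.restrict_mono (hU e.1 e.2) le_rfl))
          (ht e.1 e.2)).trans ?_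
        refine mul_le_mul' (mul_le_mul' (ENNReal.ofReal_le_ofReal ?_) le_rfl) le_rfl
        have h1 := hΛ e.1 e.2
        have h2 : 0 ≤ 2 ^ k0 * ‖e.1.2 - e.1.1‖ := by positivity
        gcongr
    _ = ENNReal.ofReal (CF p κ * (‖L‖ ^ 3 / |L.det|) * Λ ^ 2) *
        (∑' e : Es, ∫⁻ y in S e.1, En p G y) * volume (Tw Q k0) := by
        rw [ENNReal.tsum_mul_right, ENNReal.tsum_mul_left]
    _ ≤ _ := by
        refine mul_le_mul' (mul_le_mul' le_rfl ?_) le_rfl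
        exact tsum_overlap hEs mS hU hm (aem_En hG)

/-- incidence sum -/
theorem tsum_inc {ι κι : Type*} {Es : Set ι} {Z : ι → Finset κι} {Kj : Finset κι}
    (hZ : ∀ e ∈ Es, Z e ⊆ Kj) {m : ℕ} (hm : ∀ k ∈ Kj, {e | e ∈ Es ∧ k ∈ Z e}.encard ≤ m)
    (b : κι → ℝ≥0∞) :
    ∑' e : Es, ∑ k ∈ Z e, b k ≤ m * ∑ k ∈ Kj, b k := by
  classical
  have h1 : ∀ e : Es, ∑ k ∈ Z e, b k = ∑ k ∈ Kj, if k ∈ Z e then b k else 0 := by
    intro e
    rw [← Finset.sum_filter]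
    refine Finset.sum_congr ?_ fun _ _ => rfl
    ext k
    rw [Finset.mem_filter]
    exact ⟨fun h => ⟨hZ e.1 e.2 h, h⟩, fun h => h.2⟩
  simp only [h1]
  have h2 : ∑' e : Es, ∑ k ∈ Kj, (if k ∈ Z e then b k else 0) =
      ∑ k ∈ Kj, ∑' e : Es, if k ∈ Z e then b k else 0 :=
    Summable.tsum_finsetSum fun _ _ => ENNReal.summable
  rw [h2, Finset.mul_sum]
  refine Finset.sum_le_sum fun k hk => ?_
  have hfin : {e | e ∈ Es ∧ k ∈ Z e}.Finite := by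
    refine Set.encard_lt_top_iff.1 (lt_of_le_of_lt (hm k hk) ?_)
    exact ENat.natCast_lt_top m
  have hfin2 : {e : Es | k ∈ Z e.1}.Finite := by
    have h : {e : Es | k ∈ Z e.1} = Subtype.val ⁻¹' {e | e ∈ Es ∧ k ∈ Z e} := by
      ext e; simp
    rw [h]
    exact hfin.preimage Subtype.val_injective.injOn
  have hcard : (hfin2.toFinset.card : ℕ∞) ≤ m := by
    refine le_trans ?_ (hm k hk)
    rw [← Set.encard_coe_eq_coe_finsetCard, Set.Finite.coe_toFinset,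
      ← Subtype.val_injective.encard_image]
    refine Set.encard_le_encard ?_
    rintro _ ⟨e, he, rfl⟩
    exact ⟨e.2, he⟩
  have h3 : ∑' e : Es, (if k ∈ Z e then b k else 0) =
      ∑ e ∈ hfin2.toFinset, if k ∈ Z e then b k else 0 := by
    refine tsum_eq_sum fun e he => ?_
    rw [Set.Finite.mem_toFinset] at he
    exact if_neg he
  rw [h3]
  refine (Finset.sum_le_card_nsmul _ _ (b k) fun e _ => ?_).trans ?_
  · split_ifs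
    · exact le_rfl
    · exact zero_le
  rw [nsmul_eq_mul]
  refine mul_le_mul' ?_ le_rfl
  exact_mod_cast hcard

/-- **[C9](c') SHORT edges, incidence form** (726) -/
theorem short_inc {p κ Λ : ℝ} (hp : 1 ≤ p) (hp3 : p ≤ 3) (hκ : 0 < κ)
    (cnd : ∀ v, κ / 4 * ‖v‖ ≤ ‖Q.ψ v‖ ∧ ‖Q.ψ v‖ ≤ 4 * κ⁻¹ * ‖v‖) (L : R3 →L[ℝ] R3)
    {Es : Set (R3 × R3)} (hΛ : ∀ e ∈ Es, 2 ^ k0 * ‖e.2 - e.1‖ ≤ Λ)
    {S : R3 × R3 → Set R3} (mS : ∀ e ∈ Es, MeasurableSet (S e))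
    {G : Fin 3 → R3 → R3}
    (hG : ∀ e ∈ Es, ∀ j, AEStronglyMeasurable (G j) (volume.restrict (S e)))
    (ht : ∀ e ∈ Es, ∀ w ∈ Tw Q k0, ∀ τ ∈ Icc (0:ℝ) 1, e.1 + w + τ • (e.2 - e.1) ∈ S e)
    {κι : Type*} {Z : R3 × R3 → Finset κι} {Kj : Finset κι} (hZ : ∀ e ∈ Es, Z e ⊆ Kj)
    {b : κι → ℝ≥0∞} (hb : ∀ e ∈ Es, ∫⁻ y in S e, En p G y ≤ ∑ k ∈ Z e, b k)
    {m : ℕ} (hm : ∀ k ∈ Kj, {e | e ∈ Es ∧ k ∈ Z e}.encard ≤ m) :
    ENNReal.ofReal (‖L‖ ^ p / |L.det|) *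
        (∑' e : Es, ENNReal.ofReal (‖L (e.1.2 - e.1.1)‖ ^ (3 - p)) *
          ∫⁻ w in Tw Q k0, ∫⁻ τ in Icc (0:ℝ) 1,
            ‖Gmat G (e.1.1 + w + τ • (e.1.2 - e.1.1)) (e.1.2 - e.1.1)‖ₑ ^ p) ≤
      ENNReal.ofReal (CF p κ * (‖L‖ ^ 3 / |L.det|) * Λ ^ 2) * (m * ∑ k ∈ Kj, b k) *
        volume (Tw Q k0) := by
  have hCF := CF_nonneg p hκ
  rw [← ENNReal.tsum_mul_left]
  calc _ ≤ ∑' e : Es, ENNReal.ofReal (CF p κ * (‖L‖ ^ 3 / |L.det|) * Λ ^ 2) *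
        (∑ k ∈ Z e.1, b k) * volume (Tw Q k0) := by
        refine ENNReal.tsum_le_tsum fun e => ?_
        refine (edge_En hp hp3 hκ cnd L (mS e.1 e.2) (hG e.1 e.2) (ht e.1 e.2)).trans ?_
        refine mul_le_mul' (mul_le_mul' (ENNReal.ofReal_le_ofReal ?_) (hb e.1 e.2)) le_rfl
        have h1 := hΛ e.1 e.2
        have h2 : 0 ≤ 2 ^ k0 * ‖e.1.2 - e.1.1‖ := by positivity
        gcongr
    _ = ENNReal.ofReal (CF p κ * (‖L‖ ^ 3 / |L.det|) * Λ ^ 2) *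
        (∑' e : Es, ∑ k ∈ Z e.1, b k) * volume (Tw Q k0) := by
        rw [ENNReal.tsum_mul_right, ENNReal.tsum_mul_left]
    _ ≤ _ := mul_le_mul' (mul_le_mul' le_rfl (tsum_inc hZ hm b)) le_rfl

/-! ### LONG edges: the tube cell by cell -/

theorem tube_cells {a v : Fin 3 → ℝ} {u : ℝ} (hu : 0 ≤ u) {n : ℕ} {t : ℕ → ℝ} (h0 : t 0 = 0)
    (h1 : t n = 1) (ht : ∀ i < n, t i < t (i + 1)) {κX : Type*} {PP : κX → Set (Fin 3 → ℝ)}
    {s : ℕ → Finset κX}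
    (hcov : ∀ i < n, cthickening u (sg (a + t i • v) ((t (i + 1) - t i) • v)) ⊆ ⋃ k ∈ s i, PP k)
    {F : (Fin 3 → ℝ) → ℝ≥0∞} {J : ℕ → κX → ℝ≥0∞}
    (hJ : ∀ i < n, ∀ k ∈ s i,
      ∫⁻ z in PP k ∩ cthickening u (sg (a + t i • v) ((t (i + 1) - t i) • v)), F z ≤ J i k) :
    ∫⁻ z in cthickening u (sg a v), F z ≤ ∑ i ∈ Finset.range n, ∑ k ∈ s i, J i k := by
  have hun : ∀ {I : Type} (s : Finset I) (A : I → Set (Fin 3 → ℝ)),
      ∫⁻ z in ⋃ i ∈ s, A i, F z ≤ ∑ i ∈ s, ∫⁻ z in A i, F z := by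
    intro I s A
    classical
    induction s using Finset.induction_on with
    | empty => simp
    | insert j s hj ih =>
      rw [Finset.set_biUnion_insert, Finset.sum_insert hj]
      exact (lintegral_union_le _ _ _).trans (by gcongr)
  have hun2 : ∀ (s : Finset κX) (A : κX → Set (Fin 3 → ℝ)),
      ∫⁻ z in ⋃ i ∈ s, A i, F z ≤ ∑ i ∈ s, ∫⁻ z in A i, F z := by
    intro s A
    classical
    induction s using Finset.induction_on with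
    | empty => simp
    | insert j s hj ih =>
      rw [Finset.set_biUnion_insert, Finset.sum_insert hj]
      exact (lintegral_union_le _ _ _).trans (by gcongr)
  refine (lintegral_mono_set (H2a_821.tube_pieces h0 h1 ht hu)).trans ((hun _ _).trans ?_)
  refine Finset.sum_le_sum fun i hi => ?_
  rw [Finset.mem_range] at hi
  have h2 : cthickening u (sg (a + t i • v) ((t (i + 1) - t i) • v)) ⊆
      ⋃ k ∈ s i, (PP k ∩ cthickening u (sg (a + t i • v) ((t (i + 1) - t i) • v))) := by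
    intro z hz
    obtain ⟨k, hk, hzk⟩ := mem_iUnion₂.1 (hcov i hi hz)
    exact mem_iUnion₂.2 ⟨k, hk, hzk, hz⟩
  refine (lintegral_mono_set h2).trans ((hun2 _ _).trans ?_)
  exact Finset.sum_le_sum fun k hk => hJ i hi k hk

/-- **[C9](d) one LONG edge** -/
theorem long_edge {p κ : ℝ} (hp : 1 ≤ p) (hp3 : p ≤ 3) (hκ : 0 < κ)
    (cnd : ∀ v, κ / 4 * ‖v‖ ≤ ‖Q.ψ v‖ ∧ ‖Q.ψ v‖ ≤ 4 * κ⁻¹ * ‖v‖) (L : R3 →L[ℝ] R3) {x v : R3}
    {u : ℝ} (hu : 4 * κ⁻¹ / (5 * 2 ^ k0) ≤ u)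
    {G : Fin 3 → R3 → R3} (hG : ∀ j, AEStronglyMeasurable (G j)
      (volume.restrict (w2 '' cthickening u (sg (w2.symm x) (w2.symm v)))))
    {n : ℕ} {t : ℕ → ℝ} (h0 : t 0 = 0) (h1 : t n = 1) (ht : ∀ i < n, t i < t (i + 1))
    {κX : Type*} {PP : κX → Set (Fin 3 → ℝ)} {s : ℕ → Finset κX}
    (hcov : ∀ i < n, cthickening u (sg (w2.symm x + t i • w2.symm v)
      ((t (i + 1) - t i) • w2.symm v)) ⊆ ⋃ k ∈ s i, PP k)
    {J : ℕ → κX → ℝ≥0∞}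
    (hJ : ∀ i < n, ∀ k ∈ s i,
      ∫⁻ z in PP k ∩ cthickening u (sg (w2.symm x + t i • w2.symm v)
        ((t (i + 1) - t i) • w2.symm v)), En p G (w2 z) ≤ J i k) :
    ENNReal.ofReal (‖L‖ ^ p / |L.det|) * (ENNReal.ofReal (‖L v‖ ^ (3 - p)) *
        ∫⁻ w in Tw Q k0, ∫⁻ τ in Icc (0:ℝ) 1, ‖Gmat G (x + w + τ • v) v‖ₑ ^ p) ≤
      ENNReal.ofReal (CF p κ * (‖L‖ ^ 3 / |L.det|) * (2 ^ k0 * ‖v‖) ^ 2) *
        (∑ i ∈ Finset.range n, ∑ k ∈ s i, J i k) * volume (Tw Q k0) := by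
  have hu0 : 0 ≤ u := le_trans (by positivity) hu
  refine (edge_En hp hp3 hκ cnd L (measurableSet_tube u _ _) hG
    (seg_add_Tw hκ (fun v => (cnd v).1) hu x v)).trans ?_
  refine mul_le_mul' (mul_le_mul' le_rfl ?_) le_rfl
  rw [lint_w2, preimage_image_eq _ w2.injective]
  exact tube_cells hu0 h0 h1 ht hcov hJ

/-- **[C9](d) sum over the LONG edges** : `N e` = the bound of the tube of `e` -/
theorem long_sum {p κ c : ℝ} (hκ : 0 < κ) (L : R3 →L[ℝ] R3)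
    {Es : Set (R3 × R3)} {G : Fin 3 → R3 → R3} {N : R3 × R3 → ℝ≥0∞}
    (hN : ∀ e ∈ Es, ENNReal.ofReal (‖L‖ ^ p / |L.det|) *
      (ENNReal.ofReal (‖L (e.2 - e.1)‖ ^ (3 - p)) *
        ∫⁻ w in Tw Q k0, ∫⁻ τ in Icc (0:ℝ) 1,
          ‖Gmat G (e.1 + w + τ • (e.2 - e.1)) (e.2 - e.1)‖ₑ ^ p) ≤
      ENNReal.ofReal (CF p κ * (‖L‖ ^ 3 / |L.det|) * (2 ^ k0 * ‖e.2 - e.1‖) ^ 2) * N e *
        volume (Tw Q k0))
    (hc : ∀ e ∈ Es, N e ≤ ENNReal.ofReal (c * ‖L‖ ^ p * ‖e.2 - e.1‖ / 4 ^ k0)) :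
    ENNReal.ofReal (‖L‖ ^ p / |L.det|) *
        (∑' e : Es, ENNReal.ofReal (‖L (e.1.2 - e.1.1)‖ ^ (3 - p)) *
          ∫⁻ w in Tw Q k0, ∫⁻ τ in Icc (0:ℝ) 1,
            ‖Gmat G (e.1.1 + w + τ • (e.1.2 - e.1.1)) (e.1.2 - e.1.1)‖ₑ ^ p) ≤
      ENNReal.ofReal (CF p κ * (‖L‖ ^ 3 / |L.det|) * (c * ‖L‖ ^ p)) *
        (∑' e : Es, ENNReal.ofReal (‖e.1.2 - e.1.1‖ ^ 3)) * volume (Tw Q k0) := by
  have hCF := CF_nonneg p hκ
  rw [← ENNReal.tsum_mul_left]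
  calc _ ≤ ∑' e : Es, ENNReal.ofReal (CF p κ * (‖L‖ ^ 3 / |L.det|) * (c * ‖L‖ ^ p)) *
        ENNReal.ofReal (‖e.1.2 - e.1.1‖ ^ 3) * volume (Tw Q k0) := by
        refine ENNReal.tsum_le_tsum fun e => ?_
        refine (hN e.1 e.2).trans (mul_le_mul' ?_ le_rfl)
        refine (mul_le_mul' le_rfl (hc e.1 e.2)).trans (le_of_eq ?_)
        rw [← ENNReal.ofReal_mul (by positivity), ← ENNReal.ofReal_mul' (by positivity)]
        congr 1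
        have h4 : (4:ℝ) ^ k0 = (2 ^ k0) ^ 2 := by
          rw [← pow_mul, mul_comm, pow_mul]; norm_num
        rw [h4]
        field_simp
    _ = _ := by rw [ENNReal.tsum_mul_right, ENNReal.tsum_mul_left]

end Crest.Agent.R096.Fub_216
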