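import Mathlib

set_option autoImplicit false
open Finset

namespace Crest.Agent.R096.Fx_689

/-- Two families of chords of a circle (cut open: the end points are natural numbers); chords of the
same family do not cross. -/
structure Dg (C : Type*) where
  lo : C → ℕ
  hi : C → ℕ
  lt : ∀ x, lo x < hi x
  lo_inj : ∀ x y, lo x = lo y → x = y
  hi_inj : ∀ x y, hi x = hi y → x = y
  ne : ∀ x y, lo x ≠ hi y
  fam : C → Bool
  nc : ∀ x y, fam x = fam y → ¬ (lo x < lo y ∧ lo y < hi x ∧ hi x < hi y)

namespace Dg

variable {C : Type*} (D : Dg C)

/-- the chords cross -/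
def X (x y : C) : Prop :=
  (D.lo x < D.lo y ∧ D.lo y < D.hi x ∧ D.hi x < D.hi y) ∨
    (D.lo y < D.lo x ∧ D.lo x < D.hi y ∧ D.hi y < D.hi x)

instance (x y : C) : Decidable (D.X x y) := by unfold X; infer_instance

/-- the end point of `y` inside `x` -/
def e (x y : C) : ℕ := if D.lo x < D.lo y then D.lo y else D.hi y

/-- side of `y` on which the point `t` lies -/
def inn (y : C) (t : ℕ) : ZMod 2 := if D.lo y < t ∧ t < D.hi y then 1 else 0

/-- side of `y` on which the piece of `x` over `(k, k+1)` lies -/
def ep (y x : C) (k : ℕ) : ZMod 2 :=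
  if D.X x y ∧ D.e x y ≤ k then D.inn y (D.hi x) else D.inn y (D.lo x)

lemma X_symm {x y : C} (h : D.X x y) : D.X y x := by
  unfold X at *; tauto

lemma X_fam {x y : C} (h : D.X x y) : D.fam x ≠ D.fam y := by
  intro hf
  rcases h with h | h
  · exact D.nc x y hf h
  · exact D.nc y x hf.symm h

lemma X_ne {x y : C} (h : D.X x y) : x ≠ y := by
  rintro rfl
  exact D.X_fam h rfl

lemma e_mem {x y : C} (h : D.X x y) : D.lo x < D.e x y ∧ D.e x y < D.hi x := by
  unfold X at h; unfold e
  have := D.lt x; have := D.lt y
  split_ifs <;> omega

lemma e_inj {x y y' : C} (h : D.X x y) (h' : D.X x y') (he : D.e x y = D.e x y') : y = y' := by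
  unfold e at he
  have h1 := D.ne y y'; have h2 := D.ne y' y
  split_ifs at he
  · exact D.lo_inj _ _ he
  · exact absurd he h1
  · exact absurd he.symm h2
  · exact D.hi_inj _ _ he

lemma inn_flip {x y : C} (h : D.X x y) : D.inn y (D.hi x) = D.inn y (D.lo x) + 1 := by
  unfold X at h; unfold inn
  have := D.lt x; have := D.lt y
  have h1 := D.ne x y; have h2 := D.ne y x
  split_ifs <;> first | rfl | (exfalso; omega) | decide

/-- a function on the pieces of the chords which is even at every vertex (relative cycle) -/
structure RC (u : C → ℕ → ZMod 2) : Prop where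
  st : ∀ x j, D.lo x < j → j < D.hi x → (∀ y, D.X x y → D.e x y ≠ j) → u x (j - 1) = u x j
  ev : ∀ x y, D.X x y →
    u x (D.e x y - 1) + u x (D.e x y) = u y (D.e y x - 1) + u y (D.e y x)

variable [Fintype C] [DecidableEq C]

/-- the turning number of `u` at the vertex `(x, y)` -/
def c (u : C → ℕ → ZMod 2) (x y : C) : ZMod 2 := u x (D.e x y - 1) + u x (D.e x y)

def d (u : C → ℕ → ZMod 2) (x : C) : ZMod 2 :=
  u x (D.lo x) + ∑ y, if D.X x y then D.c u x y * D.inn y (D.lo x) else 0

lemma add_self' (a : ZMod 2) : a + a = 0 := by
  revert a; decide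

lemma form {u : C → ℕ → ZMod 2} (hu : D.RC u) (x : C) (k : ℕ) (h1 : D.lo x ≤ k) (h2 : k < D.hi x) :
    u x k = D.d u x + ∑ y, if D.X x y then D.c u x y * D.ep y x k else 0 := by
  induction k, h1 using Nat.le_induction with
  | base =>
    unfold d
    have : (∑ y, if D.X x y then D.c u x y * D.ep y x (D.lo x) else 0)
        = ∑ y, if D.X x y then D.c u x y * D.inn y (D.lo x) else 0 := by
      apply Finset.sum_congr rfl
      intro y _
      split_ifs with h
      · have := (D.e_mem h).1
        unfold ep
        rw [if_neg (by omega)]
      · rfl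
    rw [this, add_assoc, add_self', add_zero]
  | succ k hk ih =>
    have ih := ih (by omega)
    by_cases hy : ∃ y, D.X x y ∧ D.e x y = k + 1
    · obtain ⟨y, hxy, hey⟩ := hy
      have hc : u x (k + 1) = u x k + D.c u x y := by
        unfold c
        rw [hey]
        have : k + 1 - 1 = k := by omega
        rw [this, ← add_assoc, add_self', zero_add]
      rw [hc, ih, add_assoc]
      congr 1
      have : D.c u x y = ∑ y', if y' = y then D.c u x y else 0 := by simp
      rw [this, ← Finset.sum_add_distrib]
      apply Finset.sum_congr rfl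
      intro y' _
      by_cases h : y' = y
      · subst h
        rw [if_pos hxy, if_pos hxy, if_pos rfl]
        unfold ep
        rw [if_neg (by omega), if_pos ⟨hxy, by omega⟩, D.inn_flip hxy]
        ring
      · rw [if_neg h, add_zero]
        split_ifs with h'
        · have hne : D.e x y' ≠ k + 1 := fun h'' => h (D.e_inj h' hxy (by omega))
          unfold ep
          by_cases h3 : D.e x y' ≤ k
          · rw [if_pos ⟨h', h3⟩, if_pos ⟨h', by omega⟩]
          · rw [if_neg (by tauto), if_neg (by rintro ⟨-, h4⟩; omega)]
        · rfl
    · push Not at hy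
      have hc : u x k = u x (k + 1) := by
        have := hu.st x (k + 1) (by omega) h2 hy
        simpa using this
      rw [← hc, ih]
      congr 1
      apply Finset.sum_congr rfl
      intro y' _
      split_ifs with h'
      · have hne := hy y' h'
        unfold ep
        by_cases h3 : D.e x y' ≤ k
        · rw [if_pos ⟨h', h3⟩, if_pos ⟨h', by omega⟩]
        · rw [if_neg (by tauto), if_neg (by rintro ⟨-, h4⟩; omega)]
      · rfl

/-- the colouring of the regions, a polynomial in the sides -/
def S (u : C → ℕ → ZMod 2) (v : C → ZMod 2) : ZMod 2 :=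
  ∑ x, D.d u x * v x + ∑ x, ∑ y, if D.fam x = false ∧ D.X x y then D.c u x y * (v x * v y) else 0

def Dv (u : C → ℕ → ZMod 2) (v : C → ZMod 2) (x : C) : ZMod 2 :=
  D.d u x + ∑ y, if D.X x y then D.c u x y * v y else 0

lemma S_add {u : C → ℕ → ZMod 2} (hu : D.RC u) (v v' : C → ZMod 2) (x : C)
    (h : ∀ y, v' y = v y + if y = x then 1 else 0) :
    D.S u v' = D.S u v + D.Dv u v x := by
  unfold S Dv
  have e1 : ∑ y, D.d u y * v' y = ∑ y, D.d u y * v y + D.d u x := by
    have : D.d u x = ∑ y, if y = x then D.d u x else 0 := by simp
    rw [this, ← Finset.sum_add_distrib]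
    apply Finset.sum_congr rfl
    intro y _
    rw [h]
    split_ifs with h'
    · subst h'; ring
    · ring
  have e2 : (∑ z, ∑ y, if D.fam z = false ∧ D.X z y then D.c u z y * (v' z * v' y) else 0)
      = (∑ z, ∑ y, if D.fam z = false ∧ D.X z y then D.c u z y * (v z * v y) else 0)
        + ∑ y, if D.X x y then D.c u x y * v y else 0 := by
    have key : ∀ z y, (if D.fam z = false ∧ D.X z y then D.c u z y * (v' z * v' y) else 0)
      = (if D.fam z = false ∧ D.X z y then D.c u z y * (v z * v y) else 0)
        + ((if z = x then (if D.fam x = false ∧ D.X x y then D.c u x y * v y else 0) else 0)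
          + (if y = x then (if D.fam z = false ∧ D.X z x then D.c u z x * v z else 0) else 0)) := by
      intro z y
      by_cases h0 : D.fam z = false ∧ D.X z y
      · have hzy := D.X_ne h0.2
        rw [if_pos h0, if_pos h0, h, h]
        by_cases hz : z = x
        · subst hz
          have hy : ¬ y = z := fun h => hzy h.symm
          rw [if_pos rfl, if_neg hy, if_pos rfl, if_pos h0, if_neg hy]
          ring
        · rw [if_neg hz, if_neg hz]
          by_cases hy : y = x
          · subst hy
            rw [if_pos rfl, if_pos rfl, if_pos h0]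
            ring
          · rw [if_neg hy, if_neg hy]
            ring
      · rw [if_neg h0, if_neg h0]
        by_cases hz : z = x
        · subst hz
          rw [if_pos rfl, if_neg h0]
          split_ifs with h1 h2
          · subst h1
            exact absurd h2.2 (fun h => D.X_ne h rfl)
          · simp
          · simp
        · rw [if_neg hz]
          split_ifs with h1 h2
          · subst h1
            exact absurd h2 h0
          · simp
          · simp
    simp_rw [key, Finset.sum_add_distrib]
    congr 1
    have a1 : (∑ z, ∑ y, if z = x then (if D.fam x = false ∧ D.X x y then D.c u x y * v y else 0)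
        else 0) = ∑ y, if D.fam x = false ∧ D.X x y then D.c u x y * v y else 0 := by
      rw [Finset.sum_comm]
      apply Finset.sum_congr rfl
      intro y _
      simp
    have a2 : (∑ z, ∑ y, if y = x then (if D.fam z = false ∧ D.X z x then D.c u z x * v z else 0)
        else 0) = ∑ y, if D.fam x = true ∧ D.X x y then D.c u x y * v y else 0 := by
      apply Finset.sum_congr rfl
      intro z _
      rw [Finset.sum_ite_eq' Finset.univ x]
      simp only [Finset.mem_univ, if_true]
      by_cases hX : D.X x z
      · have hX' := D.X_symm hX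
        have hf := D.X_fam hX
        have hcc : D.c u z x = D.c u x z := by
          unfold c; exact (hu.ev x z hX).symm
        cases hfx : D.fam x <;> cases hfz : D.fam z
        · exact absurd (hfx.trans hfz.symm) hf
        · simp
        · simp [hX, hX', hcc]
        · exact absurd (hfx.trans hfz.symm) hf
      · have hX' : ¬ D.X z x := fun h => hX (D.X_symm h)
        simp [hX, hX']
    rw [a1, a2, ← Finset.sum_add_distrib]
    apply Finset.sum_congr rfl
    intro y _
    cases hfx : D.fam x <;> simp
  rw [e1, e2]; ring

end Dg

end Crest.Agent.R096.Fx_689
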