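import Crest.Agent.R096.Fx1_689

set_option autoImplicit false
open Finset

namespace Crest.Agent.R096.Fx_689

namespace Dg

variable {C : Type*} (D : Dg C)

/-- sides of a third chord are the same along both chords at their crossing -/
lemma side_third {x y w : C} (hX : D.X x y) (hx : w ≠ x) (hy : w ≠ y) (k k' : ℕ)
    (hk : k = D.e x y ∨ k = D.e x y - 1) (hk' : k' = D.e y x ∨ k' = D.e y x - 1) :
    D.ep w x k = D.ep w y k' := by
  have l1 := D.lt x; have l2 := D.lt y; have l3 := D.lt w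
  have a1 : D.lo x ≠ D.lo y := fun h => D.X_ne hX (D.lo_inj _ _ h)
  have a2 : D.lo w ≠ D.lo x := fun h => hx (D.lo_inj _ _ h)
  have a3 : D.lo w ≠ D.lo y := fun h => hy (D.lo_inj _ _ h)
  have b1 : D.hi x ≠ D.hi y := fun h => D.X_ne hX (D.hi_inj _ _ h)
  have b2 : D.hi w ≠ D.hi x := fun h => hx (D.hi_inj _ _ h)
  have b3 : D.hi w ≠ D.hi y := fun h => hy (D.hi_inj _ _ h)
  have c1 := D.ne x y; have c2 := D.ne y x; have c3 := D.ne x w
  have c4 := D.ne w x; have c5 := D.ne y w; have c6 := D.ne w y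
  have hfam := D.X_fam hX
  have hwxy : ¬ (D.X x w ∧ D.X y w) := by
    rintro ⟨h1, h2⟩
    have := D.X_fam h1; have := D.X_fam h2
    cases hfx : D.fam x <;> cases hfy : D.fam y <;> cases hfw : D.fam w <;> simp_all
  have hk1 : D.lo x < D.lo y ∧ D.lo y < D.hi x ∧ D.hi x < D.hi y ∧
      (k = D.lo y ∨ k = D.lo y - 1) ∧ (k' = D.hi x ∨ k' = D.hi x - 1) ∨
      D.lo y < D.lo x ∧ D.lo x < D.hi y ∧ D.hi y < D.hi x ∧
      (k = D.hi y ∨ k = D.hi y - 1) ∧ (k' = D.lo x ∨ k' = D.lo x - 1) := by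
    unfold e at hk hk'
    rcases hX with h | h
    · left
      rw [if_pos h.1] at hk
      rw [if_neg (by omega)] at hk'
      exact ⟨h.1, h.2.1, h.2.2, hk, hk'⟩
    · right
      rw [if_neg (by omega)] at hk
      rw [if_pos h.1] at hk'
      exact ⟨h.1, h.2.1, h.2.2, hk, hk'⟩
  clear hk hk' hX hfam
  have hex : D.lo x < D.lo w ∧ D.e x w = D.lo w ∨ D.lo w < D.lo x ∧ D.e x w = D.hi w := by
    unfold e
    by_cases h : D.lo x < D.lo w
    · left; exact ⟨h, if_pos h⟩
    · right; exact ⟨by omega, if_neg h⟩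
  have hey : D.lo y < D.lo w ∧ D.e y w = D.lo w ∨ D.lo w < D.lo y ∧ D.e y w = D.hi w := by
    unfold e
    by_cases h : D.lo y < D.lo w
    · left; exact ⟨h, if_pos h⟩
    · right; exact ⟨by omega, if_neg h⟩
  unfold ep inn X at *
  generalize D.e x w = E1 at *
  generalize D.e y w = E2 at *
  rcases hk1 with h | h <;> split_ifs <;> first | rfl | (exfalso; omega)

variable [Fintype C] [DecidableEq C]

/-- the colour seen from the piece of `x` over `(k,k+1)`, on the outer side of `x` -/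
def s (u : C → ℕ → ZMod 2) (x : C) (k : ℕ) : ZMod 2 :=
  D.S u (fun y => if y = x then 0 else D.ep y x k)

/-- local crossing number at the vertex `(x,y)` -/
def cr (u w : C → ℕ → ZMod 2) (x y : C) : ZMod 2 :=
  (u x (D.e x y - 1) * u x (D.e x y)) * (w y (D.e y x - 1) * w y (D.e y x)) +
    (w x (D.e x y - 1) * w x (D.e x y)) * (u y (D.e y x - 1) * u y (D.e y x))

set_option synthInstance.maxSize 2000 in
set_option synthInstance.maxHeartbeats 400000 in
lemma key : ∀ t t' c Dx Dy w1 w2 w3 w4 : ZMod 2,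
    w1 + w2 = w3 + w4 →
    (Dx + t * c) * w1 = 0 → (Dx + (t + 1) * c) * w2 = 0 →
    (Dy + t' * c) * w3 = 0 → (Dy + (t' + 1) * c) * w4 = 0 →
    t * Dy * w1 + (t + 1) * Dy * w2 + t' * Dx * w3 + (t' + 1) * Dx * w4
      = ((Dx + t * c) * (Dx + (t + 1) * c)) * (w3 * w4) +
        (w1 * w2) * ((Dy + t' * c) * (Dy + (t' + 1) * c)) := by
  decide

omit [Fintype C] [DecidableEq C] in
lemma ep_e {x y : C} (h : D.X x y) : D.ep y x (D.e x y) = D.inn y (D.hi x) := by
  unfold ep; rw [if_pos ⟨h, le_refl _⟩]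

omit [Fintype C] [DecidableEq C] in
lemma ep_e1 {x y : C} (h : D.X x y) : D.ep y x (D.e x y - 1) = D.inn y (D.lo x) := by
  unfold ep
  have := (D.e_mem h).1
  rw [if_neg (by rintro ⟨-, h'⟩; omega)]

/-- value of `u` on a piece in terms of a colour vector -/
lemma u_eq {u : C → ℕ → ZMod 2} (hu : D.RC u) (x : C) (k : ℕ) (h1 : D.lo x ≤ k) (h2 : k < D.hi x)
    (v : C → ZMod 2) (hv : ∀ y, D.X x y → v y = D.ep y x k) : u x k = D.Dv u v x := by
  rw [D.form hu x k h1 h2]
  unfold Dv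
  congr 1
  apply Finset.sum_congr rfl
  intro y _
  split_ifs with h
  · rw [hv y h]
  · rfl

lemma Dv_add {u : C → ℕ → ZMod 2} (x y : C) (hX : D.X x y) (t : ZMod 2) (v v' : C → ZMod 2)
    (h : ∀ z, v' z = v z + if z = y then t else 0) :
    D.Dv u v' x = D.Dv u v x + t * D.c u x y := by
  unfold Dv
  rw [add_assoc]
  congr 1
  have : t * D.c u x y = ∑ z, if z = y then t * D.c u x y else 0 := by simp
  rw [this, ← Finset.sum_add_distrib]
  apply Finset.sum_congr rfl
  intro z _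
  rw [h]
  by_cases hz : z = y
  · subst hz
    rw [if_pos rfl, if_pos hX, if_pos hX, if_pos rfl]
    ring
  · rw [if_neg hz, if_neg hz]
    simp

lemma S_addt {u : C → ℕ → ZMod 2} (hu : D.RC u) (v v' : C → ZMod 2) (x : C) (t : ZMod 2)
    (h : ∀ y, v' y = v y + if y = x then t else 0) :
    D.S u v' = D.S u v + t * D.Dv u v x := by
  have h2 : ∀ a : ZMod 2, a = 0 ∨ a = 1 := by decide
  have ht := h2 t
  rcases ht with rfl | rfl
  · have : v' = v := by
      funext y; rw [h]; simp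
    rw [this]; ring
  · rw [D.S_add hu v v' x h]; ring

/-- the four half edges at a vertex -/
lemma vertex {u w : C → ℕ → ZMod 2} (hu : D.RC u) (hw : D.RC w)
    (hd : ∀ x k, D.lo x ≤ k → k < D.hi x → u x k * w x k = 0) {x y : C} (hX : D.X x y) :
    (w x (D.e x y - 1) * D.s u x (D.e x y - 1) + w x (D.e x y) * D.s u x (D.e x y)) +
    (w y (D.e y x - 1) * D.s u y (D.e y x - 1) + w y (D.e y x) * D.s u y (D.e y x))
      = D.cr u w x y := by
  have hY := D.X_symm hX
  have hne := D.X_ne hX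
  have m1 := D.e_mem hX
  have m2 := D.e_mem hY
  set v0 : C → ZMod 2 := fun z => if z = x ∨ z = y then 0 else D.ep z x (D.e x y) with hv0
  -- the four colour vectors
  have va : ∀ k, (k = D.e x y ∨ k = D.e x y - 1) → ∀ z,
      (fun z => if z = x then 0 else D.ep z x k) z = v0 z + if z = y then D.ep y x k else 0 := by
    intro k hk z
    simp only [hv0]
    by_cases h1 : z = x
    · subst h1; simp [hne]
    · by_cases h2 : z = y
      · subst h2; simp [h1]
      · simp only [h1, h2, if_false, or_self, add_zero]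
        rw [D.side_third hX h1 h2 k (D.e y x) hk (Or.inl rfl),
          D.side_third hX h1 h2 (D.e x y) (D.e y x) (Or.inl rfl) (Or.inl rfl)]
  have vb : ∀ k, (k = D.e y x ∨ k = D.e y x - 1) → ∀ z,
      (fun z => if z = y then 0 else D.ep z y k) z = v0 z + if z = x then D.ep x y k else 0 := by
    intro k hk z
    simp only [hv0]
    by_cases h1 : z = x
    · subst h1; simp [hne]
    · by_cases h2 : z = y
      · subst h2; simp [h1]
      · simp only [h1, h2, if_false, or_self, add_zero]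
        rw [D.side_third hX h1 h2 (D.e x y) k (Or.inl rfl) hk]
  have sa : ∀ k, (k = D.e x y ∨ k = D.e x y - 1) →
      D.s u x k = D.S u v0 + D.ep y x k * D.Dv u v0 y := fun k hk =>
    D.S_addt hu v0 _ y _ (va k hk)
  have sb : ∀ k, (k = D.e y x ∨ k = D.e y x - 1) →
      D.s u y k = D.S u v0 + D.ep x y k * D.Dv u v0 x := fun k hk =>
    D.S_addt hu v0 _ x _ (vb k hk)
  have ua : ∀ k, (k = D.e x y ∨ k = D.e x y - 1) →
      u x k = D.Dv u v0 x + D.ep y x k * D.c u x y := by
    intro k hk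
    rw [D.u_eq hu x k (by omega) (by omega) (fun z => if z = x then 0 else D.ep z x k)
      (fun z hz => by rw [if_neg (fun h => D.X_ne hz h.symm)])]
    exact D.Dv_add x y hX _ _ _ (va k hk)
  have ub : ∀ k, (k = D.e y x ∨ k = D.e y x - 1) →
      u y k = D.Dv u v0 y + D.ep x y k * D.c u y x := by
    intro k hk
    rw [D.u_eq hu y k (by omega) (by omega) (fun z => if z = y then 0 else D.ep z y k)
      (fun z hz => by rw [if_neg (fun h => D.X_ne hz h.symm)])]
    exact D.Dv_add y x hY _ _ _ (vb k hk)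
  have hc : D.c u y x = D.c u x y := (hu.ev x y hX).symm
  have d1 := hd x (D.e x y - 1) (by omega) (by omega)
  have d2 := hd x (D.e x y) (by omega) (by omega)
  have d3 := hd y (D.e y x - 1) (by omega) (by omega)
  have d4 := hd y (D.e y x) (by omega) (by omega)
  have hev := hw.ev x y hX
  rw [ua _ (Or.inr rfl)] at d1
  rw [ua _ (Or.inl rfl)] at d2
  rw [ub _ (Or.inr rfl)] at d3
  rw [ub _ (Or.inl rfl)] at d4
  unfold cr
  rw [sa _ (Or.inr rfl), sa _ (Or.inl rfl), sb _ (Or.inr rfl), sb _ (Or.inl rfl)]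
  rw [ua _ (Or.inr rfl), ua _ (Or.inl rfl), ub _ (Or.inr rfl), ub _ (Or.inl rfl)]
  rw [hc] at *
  have f1 := D.ep_e1 hX
  have f2 : D.ep y x (D.e x y) = D.ep y x (D.e x y - 1) + 1 := by
    rw [D.ep_e hX, D.ep_e1 hX, D.inn_flip hX]
  have f3 : D.ep x y (D.e y x) = D.ep x y (D.e y x - 1) + 1 := by
    rw [D.ep_e hY, D.ep_e1 hY, D.inn_flip hY]
  rw [f2] at d2 ⊢
  rw [f3] at d4 ⊢
  have := key (D.ep y x (D.e x y - 1)) (D.ep x y (D.e y x - 1)) (D.c u x y) (D.Dv u v0 x)
    (D.Dv u v0 y) (w x (D.e x y - 1)) (w x (D.e x y)) (w y (D.e y x - 1)) (w y (D.e y x))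
    hev d1 d2 d3 d4
  rw [← this]
  have hz : (w x (D.e x y - 1) + w x (D.e x y)) + (w y (D.e y x - 1) + w y (D.e y x)) = 0 := by
    rw [hev]; exact add_self' _
  linear_combination (D.S u v0) * hz

end Dg

end Crest.Agent.R096.Fx_689
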