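import Crest.Agent.R096.Fx2_689

set_option autoImplicit false
open Finset

namespace Crest.Agent.R096.Fx_689

namespace Dg

variable {C : Type*} (D : Dg C)

lemma telescope (φ : ℕ → ZMod 2) (a b : ℕ) (h : a < b) :
    ∑ j ∈ Finset.Ioo a b, (φ (j - 1) + φ j) = φ a + φ (b - 1) := by
  induction b, (Nat.succ_le_of_lt h) using Nat.le_induction with
  | base =>
    have : Finset.Ioo a (a + 1) = ∅ := by
      ext j; simp only [Finset.mem_Ioo, Finset.notMem_empty, iff_false]; omega
    rw [show a.succ = a + 1 from rfl, this]
    simp [add_self']
  | succ b hb ih =>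
    have h1 : Finset.Ioo a (b + 1) = insert b (Finset.Ioo a b) := by
      ext j; simp only [Finset.mem_Ioo, Finset.mem_insert]; omega
    rw [h1, Finset.sum_insert (by simp), ih (by omega)]
    have : b + 1 - 1 = b := by omega
    rw [this]
    have h2 := add_self' (φ (b - 1))
    linear_combination h2

variable [Fintype C] [DecidableEq C]

/-- sum over the crossings of `x` = the two ends of `x` -/
lemma along {u w : C → ℕ → ZMod 2} (hw : D.RC w) (x : C) :
    ∑ y, (if D.X x y then (w x (D.e x y - 1) * D.s u x (D.e x y - 1)
        + w x (D.e x y) * D.s u x (D.e x y)) else 0)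
      = w x (D.lo x) * D.s u x (D.lo x) + w x (D.hi x - 1) * D.s u x (D.hi x - 1) := by
  rw [← telescope (fun k => w x k * D.s u x k) (D.lo x) (D.hi x) (D.lt x), ← Finset.sum_filter]
  rw [← Finset.sum_image (s := Finset.univ.filter (fun y => D.X x y)) (g := fun y => D.e x y)
    (f := fun j => w x (j - 1) * D.s u x (j - 1) + w x j * D.s u x j)]
  · apply Finset.sum_subset
    · intro j hj
      simp only [Finset.mem_image, Finset.mem_filter, Finset.mem_univ, true_and] at hj
      obtain ⟨y, hy, rfl⟩ := hj
      exact Finset.mem_Ioo.2 (D.e_mem hy)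
    · intro j hj hj'
      rw [Finset.mem_Ioo] at hj
      simp only [Finset.mem_image, Finset.mem_filter, Finset.mem_univ, true_and, not_exists,
        not_and] at hj'
      have h1 := hw.st x j hj.1 hj.2 hj'
      have h2 : D.s u x (j - 1) = D.s u x j := by
        unfold s
        congr 1
        funext y
        split_ifs with h
        · rfl
        · unfold ep
          by_cases hX : D.X x y
          · have := hj' y hX
            by_cases h3 : D.e x y ≤ j
            · rw [if_pos ⟨hX, by omega⟩, if_pos ⟨hX, h3⟩]
            · rw [if_neg (by rintro ⟨-, h4⟩; omega), if_neg (by tauto)]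
          · rw [if_neg (by tauto), if_neg (by tauto)]
      rw [h1, h2]
      exact add_self' _
  · intro y hy y' hy' h
    simp only [Finset.coe_filter, Finset.mem_univ, true_and, Set.mem_ofPred_eq] at hy hy'
    exact D.e_inj hy hy' h

/-- end points -/
def pos (t : C × Bool) : ℕ := if t.2 then D.hi t.1 else D.lo t.1

def val (u : C → ℕ → ZMod 2) (t : C × Bool) : ZMod 2 :=
  if t.2 then u t.1 (D.hi t.1 - 1) else u t.1 (D.lo t.1)

/-- colour of the gap before the point `k` of the circle -/
def G (u : C → ℕ → ZMod 2) (k : ℕ) : ZMod 2 :=
  D.S u (fun y => if D.lo y < k ∧ k ≤ D.hi y then 1 else 0)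

omit [DecidableEq C] in
lemma G_zero (u : C → ℕ → ZMod 2) : D.G u 0 = 0 := by
  unfold G S
  have : (fun y => if D.lo y < 0 ∧ 0 ≤ D.hi y then (1 : ZMod 2) else 0) = fun _ => 0 := by
    funext y; simp
  rw [this]
  simp

lemma G_succ {u : C → ℕ → ZMod 2} (hu : D.RC u) (k : ℕ) :
    D.G u (k + 1) = D.G u k + ∑ t : C × Bool, if D.pos t = k then D.val u t else 0 := by
  by_cases hk : ∃ t : C × Bool, D.pos t = k
  · obtain ⟨⟨x, b⟩, ht⟩ := hk
    have huniq : ∀ t : C × Bool, D.pos t = k → t = (x, b) := by
      rintro ⟨y, b'⟩ h'
      unfold pos at h' ht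
      cases b <;> cases b' <;> simp at h' ht
      · rw [D.lo_inj y x (by omega)]
      · exact absurd (ht.trans h'.symm) (D.ne _ _)
      · exact absurd (h'.trans ht.symm) (D.ne _ _)
      · rw [D.hi_inj y x (by omega)]
    have hsum : (∑ t : C × Bool, if D.pos t = k then D.val u t else 0) = D.val u (x, b) := by
      rw [Finset.sum_eq_single (x, b)]
      · rw [if_pos ht]
      · intro t _ h
        rw [if_neg (fun h' => h (huniq t h'))]
      · simp
    rw [hsum]
    have hl := D.lt x
    cases b
    · -- `k = lo x`
      have hk' : D.lo x = k := by simpa [pos] using ht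
      have hv : ∀ y, (if D.lo y < k + 1 ∧ k + 1 ≤ D.hi y then (1 : ZMod 2) else 0)
          = (if D.lo y < k ∧ k ≤ D.hi y then 1 else 0) + if y = x then 1 else 0 := by
        intro y
        by_cases hy : y = x
        · subst hy
          rw [if_pos (by omega), if_neg (by omega), if_pos rfl, zero_add]
        · have h1 : D.lo y ≠ D.lo x := fun h => hy (D.lo_inj _ _ h)
          have h2 := D.ne x y
          have h3 := D.lt y
          rw [if_neg hy, add_zero]
          split_ifs <;> first | rfl | (exfalso; omega)
      have h0 := D.S_add hu _ _ x hv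
      unfold G
      rw [h0]
      congr 1
      have : D.val u (x, false) = u x (D.lo x) := by simp [val]
      rw [this, D.u_eq hu x (D.lo x) (le_refl _) hl
        (fun y => if D.lo y < k ∧ k ≤ D.hi y then 1 else 0)]
      intro y hXy
      have h1 : D.lo y ≠ D.lo x := fun h => D.X_ne hXy (D.lo_inj _ _ h).symm
      have h2 := D.ne x y
      have h3 := (D.e_mem hXy).1
      have h4 : D.ep y x (D.lo x) = D.inn y (D.lo x) := by
        unfold ep
        rw [if_neg (by rintro ⟨-, h⟩; omega)]
      rw [h4]
      unfold inn
      split_ifs <;> first | rfl | (exfalso; omega)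
    · -- `k = hi x`
      have hk' : D.hi x = k := by simpa [pos] using ht
      have hv : ∀ y, (if D.lo y < k ∧ k ≤ D.hi y then (1 : ZMod 2) else 0)
          = (if D.lo y < k + 1 ∧ k + 1 ≤ D.hi y then 1 else 0) + if y = x then 1 else 0 := by
        intro y
        by_cases hy : y = x
        · subst hy
          rw [if_pos (by omega), if_neg (by omega), if_pos rfl, zero_add]
        · have h1 : D.hi y ≠ D.hi x := fun h => hy (D.hi_inj _ _ h)
          have h2 := D.ne y x
          have h3 := D.lt y
          rw [if_neg hy, add_zero]
          split_ifs <;> first | rfl | (exfalso; omega)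
      have h0 := D.S_add hu _ _ x hv
      unfold G
      rw [h0]
      have : D.val u (x, true) = u x (D.hi x - 1) := by simp [val]
      rw [this, D.u_eq hu x (D.hi x - 1) (by omega) (by omega)
        (fun y => if D.lo y < k + 1 ∧ k + 1 ≤ D.hi y then 1 else 0)]
      · rw [add_assoc, add_self', add_zero]
      intro y hXy
      have h1 : D.hi y ≠ D.hi x := fun h => D.X_ne hXy (D.hi_inj _ _ h).symm
      have h2 := D.ne y x
      have h3 := (D.e_mem hXy).2
      have h4 : D.ep y x (D.hi x - 1) = D.inn y (D.hi x) := by
        unfold ep
        rw [if_pos ⟨hXy, by omega⟩]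
      rw [h4]
      unfold inn
      split_ifs <;> first | rfl | (exfalso; omega)
  · push Not at hk
    have : (∑ t : C × Bool, if D.pos t = k then D.val u t else 0) = 0 :=
      Finset.sum_eq_zero (fun t _ => if_neg (hk t))
    rw [this, add_zero]
    unfold G
    congr 1
    funext y
    have h1 : D.lo y ≠ k := by simpa [pos] using hk (y, false)
    have h2 : D.hi y ≠ k := by simpa [pos] using hk (y, true)
    split_ifs <;> first | rfl | (exfalso; omega)

lemma G_eq {u : C → ℕ → ZMod 2} (hu : D.RC u) (k : ℕ) :
    D.G u k = ∑ t : C × Bool, if D.pos t < k then D.val u t else 0 := by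
  induction k with
  | zero => rw [G_zero]; simp
  | succ k ih =>
    rw [D.G_succ hu, ih, ← Finset.sum_add_distrib]
    apply Finset.sum_congr rfl
    intro t _
    split_ifs <;> first | (exfalso; omega) | simp

/-- crossings = interlacing parity of the end points -/
theorem cr_eq {u w : C → ℕ → ZMod 2} (hu : D.RC u) (hw : D.RC w)
    (hd : ∀ x k, D.lo x ≤ k → k < D.hi x → u x k * w x k = 0) :
    (∑ x, ∑ y, if D.fam x = false ∧ D.X x y then D.cr u w x y else 0)
      = ∑ t : C × Bool, ∑ r : C × Bool, if D.pos r < D.pos t then D.val u r * D.val w t else 0 := by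
  set f : C → C → ZMod 2 := fun x y => w x (D.e x y - 1) * D.s u x (D.e x y - 1)
        + w x (D.e x y) * D.s u x (D.e x y) with hf
  have h1 : (∑ x, ∑ y, if D.fam x = false ∧ D.X x y then D.cr u w x y else 0)
      = ∑ x, ∑ y, if D.X x y then f x y else 0 := by
    have e1 : (∑ x, ∑ y, if D.fam x = false ∧ D.X x y then D.cr u w x y else 0)
        = (∑ x, ∑ y, if D.fam x = false ∧ D.X x y then f x y else 0)
          + ∑ x, ∑ y, if D.fam x = false ∧ D.X x y then f y x else 0 := by
      rw [← Finset.sum_add_distrib]
      apply Finset.sum_congr rfl; intro x _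
      rw [← Finset.sum_add_distrib]
      apply Finset.sum_congr rfl; intro y _
      by_cases h : D.fam x = false ∧ D.X x y
      · rw [if_pos h, if_pos h, if_pos h]
        exact (D.vertex hu hw hd h.2).symm
      · rw [if_neg h, if_neg h, if_neg h, add_zero]
    have e2 : (∑ x, ∑ y, if D.fam x = false ∧ D.X x y then f y x else 0)
        = ∑ x, ∑ y, if D.fam x = true ∧ D.X x y then f x y else 0 := by
      rw [Finset.sum_comm]
      apply Finset.sum_congr rfl; intro x _
      apply Finset.sum_congr rfl; intro y _
      by_cases hX : D.X x y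
      · have hX' := D.X_symm hX
        have hfam := D.X_fam hX
        cases hx : D.fam x <;> cases hy : D.fam y <;> simp_all
      · have hX' : ¬ D.X y x := fun h => hX (D.X_symm h)
        simp [hX, hX']
    rw [e1, e2, ← Finset.sum_add_distrib]
    apply Finset.sum_congr rfl; intro x _
    rw [← Finset.sum_add_distrib]
    apply Finset.sum_congr rfl; intro y _
    cases hx : D.fam x <;> simp
  rw [h1]
  have h2 : ∀ x, (∑ y, if D.X x y then f x y else 0)
      = D.val w (x, false) * D.G u (D.pos (x, false)) + D.val w (x, true) * D.G u (D.pos (x, true)) := by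
    intro x
    rw [hf, D.along hw x]
    have hl := D.lt x
    have p1 : D.pos (x, false) = D.lo x := by simp [pos]
    have p2 : D.pos (x, true) = D.hi x := by simp [pos]
    have v1 : D.val w (x, false) = w x (D.lo x) := by simp [val]
    have v2 : D.val w (x, true) = w x (D.hi x - 1) := by simp [val]
    rw [p1, p2, v1, v2]
    have s1 : D.s u x (D.lo x) = D.G u (D.lo x) := by
      unfold s G
      congr 1
      funext y
      by_cases hy : y = x
      · subst hy
        rw [if_pos rfl, if_neg (by omega)]
      · rw [if_neg hy]
        have h1 : D.lo y ≠ D.lo x := fun h => hy (D.lo_inj _ _ h)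
        have h2 := D.ne x y
        have h3 := D.lt y
        have h4 : D.ep y x (D.lo x) = D.inn y (D.lo x) := by
          unfold ep
          by_cases hX : D.X x y
          · have := (D.e_mem hX).1
            rw [if_neg (by rintro ⟨-, h⟩; omega)]
          · rw [if_neg (by tauto)]
        rw [h4]
        unfold inn
        split_ifs <;> first | rfl | (exfalso; omega)
    have s2 : w x (D.hi x - 1) * D.s u x (D.hi x - 1) = w x (D.hi x - 1) * D.G u (D.hi x) := by
      have hv : ∀ y, (if D.lo y < D.hi x ∧ D.hi x ≤ D.hi y then (1 : ZMod 2) else 0)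
          = (if y = x then 0 else D.ep y x (D.hi x - 1)) + if y = x then 1 else 0 := by
        intro y
        by_cases hy : y = x
        · subst hy
          rw [if_pos (by omega), if_pos rfl, if_pos rfl, zero_add]
        · rw [if_neg hy, if_neg hy, add_zero]
          have h1 : D.hi y ≠ D.hi x := fun h => hy (D.hi_inj _ _ h)
          have h1' : D.lo y ≠ D.lo x := fun h => hy (D.lo_inj _ _ h)
          have h2 := D.ne y x
          have h2' := D.ne x y
          have h3 := D.lt y
          by_cases hX : D.X x y
          · have := (D.e_mem hX).2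
            have h4 : D.ep y x (D.hi x - 1) = D.inn y (D.hi x) := by
              unfold ep
              rw [if_pos ⟨hX, by omega⟩]
            rw [h4]
            unfold inn
            split_ifs <;> first | rfl | (exfalso; omega)
          · have h4 : D.ep y x (D.hi x - 1) = D.inn y (D.lo x) := by
              unfold ep
              rw [if_neg (by tauto)]
            rw [h4]
            unfold X at hX
            unfold inn
            split_ifs <;> first | rfl | (exfalso; omega)
      have hS := D.S_add hu _ _ x hv
      have hG : D.G u (D.hi x) = D.s u x (D.hi x - 1) + u x (D.hi x - 1) := by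
        unfold G s
        rw [hS]
        congr 1
        rw [D.u_eq hu x (D.hi x - 1) (by omega) (by omega)
          (fun y => if y = x then 0 else D.ep y x (D.hi x - 1))]
        intro y hy
        rw [if_neg (fun h => D.X_ne hy h.symm)]
      have hd' := hd x (D.hi x - 1) (by omega) (by omega)
      rw [hG]
      linear_combination (-1 : ZMod 2) * hd'
    rw [s1, s2]
  simp_rw [h2]
  have h3 : ∀ t : C × Bool, (∑ r : C × Bool, if D.pos r < D.pos t then D.val u r * D.val w t else 0)
      = D.val w t * D.G u (D.pos t) := by
    intro t
    rw [D.G_eq hu, Finset.mul_sum]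
    apply Finset.sum_congr rfl
    intro r _
    split_ifs <;> ring
  simp_rw [h3]
  rw [Fintype.sum_prod_type]
  apply Finset.sum_congr rfl
  intro x _
  rw [Fintype.sum_bool]
  ring

end Dg

end Crest.Agent.R096.Fx_689
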