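import Crest.Agent.R096.Fx3_689

set_option autoImplicit false
open Finset

namespace Crest.Agent.R096.Fx_689

namespace Dg

variable {C : Type*} (D : Dg C)

/-- a labelling of the pieces of the chords (`cl x k` = label of the piece of `x` over `(k,k+1)`),
which at every crossing goes straight on or turns: for instance the arcs of a re-glued diagram -/
structure Lab (K : Type*) where
  cl : C → ℕ → K
  st : ∀ x j, D.lo x < j → j < D.hi x → (∀ y, D.X x y → D.e x y ≠ j) → cl x (j - 1) = cl x j
  vx : ∀ x y, D.X x y → D.fam x = false →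
    (cl x (D.e x y - 1) = cl x (D.e x y) ∧ cl y (D.e y x - 1) = cl y (D.e y x)) ∨
    (cl x (D.e x y - 1) = cl y (D.e y x - 1) ∧ cl x (D.e x y) = cl y (D.e y x)) ∨
    (cl x (D.e x y - 1) = cl y (D.e y x) ∧ cl x (D.e x y) = cl y (D.e y x - 1))

namespace Lab

variable {D} {K : Type*} (L : D.Lab K)

/-- label at an end point -/
def clp (t : C × Bool) : K := if t.2 then L.cl t.1 (D.hi t.1 - 1) else L.cl t.1 (D.lo t.1)

/-- straight crossing of the labels `κ` (along the first family) and `κ'` (along the second) -/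
def St (κ κ' : K) (x y : C) : Prop :=
  D.fam x = false ∧ D.X x y ∧ L.cl x (D.e x y - 1) = κ ∧ L.cl x (D.e x y) = κ ∧
    L.cl y (D.e y x - 1) = κ' ∧ L.cl y (D.e y x) = κ'

variable [DecidableEq K]

instance (κ κ' : K) (x y : C) : Decidable (L.St κ κ' x y) := by unfold St; infer_instance

/-- indicator of a label -/
def ind (κ : K) (x : C) (k : ℕ) : ZMod 2 := if L.cl x k = κ then 1 else 0

lemma ind_RC (κ : K) : D.RC (L.ind κ) where
  st x j h1 h2 h3 := by unfold ind; rw [L.st x j h1 h2 h3]
  ev x y hX := by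
    unfold ind
    have hf := D.X_fam hX
    cases hx : D.fam x
    · rcases L.vx x y hX hx with h | h | h
      · rw [h.1, h.2, add_self', add_self']
      · rw [h.1, h.2]
      · rw [h.1, h.2, add_comm]
    · have hy : D.fam y = false := by
        cases hy : D.fam y
        · rfl
        · exact absurd (hx.trans hy.symm) hf
      rcases L.vx y x (D.X_symm hX) hy with h | h | h
      · rw [h.1, h.2, add_self', add_self']
      · rw [h.1, h.2]
      · rw [h.1, h.2, add_comm]

variable [Fintype C] [DecidableEq C]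

/-- **parity law**: straight crossings of two different labels and interlacing of their end points -/
theorem parity {κ κ' : K} (hκ : κ ≠ κ') :
    (((Finset.univ.filter fun z : C × C => L.St κ κ' z.1 z.2).card
      + (Finset.univ.filter fun z : C × C => L.St κ' κ z.1 z.2).card : ℕ) : ZMod 2)
    = ((Finset.univ.filter fun z : (C × Bool) × (C × Bool) =>
        D.pos z.2 < D.pos z.1 ∧ L.clp z.2 = κ ∧ L.clp z.1 = κ').card : ZMod 2) := by
  have hd : ∀ x k, D.lo x ≤ k → k < D.hi x → L.ind κ x k * L.ind κ' x k = 0 := by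
    intro x k _ _
    unfold ind
    by_cases h : L.cl x k = κ
    · have h' : ¬ L.cl x k = κ' := fun h' => hκ (h.symm.trans h')
      rw [if_neg h', mul_zero]
    · rw [if_neg h, zero_mul]
  have h := D.cr_eq (L.ind_RC κ) (L.ind_RC κ') hd
  have hval : ∀ (κ : K) (t : C × Bool), D.val (L.ind κ) t = if L.clp t = κ then 1 else 0 := by
    intro κ t
    unfold val clp ind
    cases t.2 <;> simp
  have hR : (∑ t : C × Bool, ∑ r : C × Bool,
      if D.pos r < D.pos t then D.val (L.ind κ) r * D.val (L.ind κ') t else 0)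
      = ((Finset.univ.filter fun z : (C × Bool) × (C × Bool) =>
        D.pos z.2 < D.pos z.1 ∧ L.clp z.2 = κ ∧ L.clp z.1 = κ').card : ZMod 2) := by
    rw [← Finset.sum_boole]
    symm
    rw [Fintype.sum_prod_type]
    apply Finset.sum_congr rfl; intro t _
    apply Finset.sum_congr rfl; intro r _
    rw [hval, hval]
    split_ifs <;> simp_all
  have hL : (∑ x, ∑ y, if D.fam x = false ∧ D.X x y then D.cr (L.ind κ) (L.ind κ') x y else 0)
      = (((Finset.univ.filter fun z : C × C => L.St κ κ' z.1 z.2).card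
      + (Finset.univ.filter fun z : C × C => L.St κ' κ z.1 z.2).card : ℕ) : ZMod 2) := by
    rw [Nat.cast_add, ← Finset.sum_boole, ← Finset.sum_boole, ← Finset.sum_add_distrib,
      Fintype.sum_prod_type]
    apply Finset.sum_congr rfl; intro x _
    apply Finset.sum_congr rfl; intro y _
    by_cases h0 : D.fam x = false ∧ D.X x y
    · unfold St cr ind
      rw [if_pos h0]
      by_cases a1 : L.cl x (D.e x y - 1) = κ <;> by_cases a2 : L.cl x (D.e x y) = κ <;>
      by_cases a3 : L.cl y (D.e y x - 1) = κ' <;> by_cases a4 : L.cl y (D.e y x) = κ' <;>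
      by_cases b1 : L.cl x (D.e x y - 1) = κ' <;> by_cases b2 : L.cl x (D.e x y) = κ' <;>
      by_cases b3 : L.cl y (D.e y x - 1) = κ <;> by_cases b4 : L.cl y (D.e y x) = κ <;>
      first
      | (exfalso; exact hκ (a1.symm.trans b1))
      | (exfalso; exact hκ (a2.symm.trans b2))
      | (exfalso; exact hκ (b3.symm.trans a3))
      | (exfalso; exact hκ (b4.symm.trans a4))
      | simp [h0.1, h0.2, a1, a2, a3, a4, b1, b2, b3, b4, hκ, hκ.symm]
    · have n1 : ¬ L.St κ κ' (x, y).1 (x, y).2 := fun h => h0 ⟨h.1, h.2.1⟩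
      have n2 : ¬ L.St κ' κ (x, y).1 (x, y).2 := fun h => h0 ⟨h.1, h.2.1⟩
      rw [if_neg h0, if_neg n1, if_neg n2, add_zero]
  rw [← hL, h, hR]

/-- two labels with two end points each: interlaced iff the number of straight crossings is odd -/
theorem parity_two {κ κ' : K} (hκ : κ ≠ κ') {r1 r2 t1 t2 : C × Bool}
    (hr : ∀ t, L.clp t = κ ↔ t = r1 ∨ t = r2) (ht : ∀ t, L.clp t = κ' ↔ t = t1 ∨ t = t2)
    (h1 : D.pos r1 < D.pos r2) (h2 : D.pos t1 < D.pos t2) :
    ((D.pos r1 < D.pos t1 ∧ D.pos t1 < D.pos r2 ∧ D.pos r2 < D.pos t2) ∨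
      (D.pos t1 < D.pos r1 ∧ D.pos r1 < D.pos t2 ∧ D.pos t2 < D.pos r2)) ↔
    Odd ((Finset.univ.filter fun z : C × C => L.St κ κ' z.1 z.2).card
      + (Finset.univ.filter fun z : C × C => L.St κ' κ z.1 z.2).card) := by
  rw [← ZMod.natCast_eq_one_iff_odd, L.parity hκ]
  have hpos : ∀ a b : C × Bool, D.pos a = D.pos b → a = b := by
    rintro ⟨a, i⟩ ⟨b, j⟩ h
    unfold pos at h
    cases i <;> cases j <;> simp at h
    · rw [D.lo_inj a b h]
    · exact absurd h (D.ne _ _)
    · exact absurd h.symm (D.ne _ _)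
    · rw [D.hi_inj a b h]
  have hne : ∀ a b, L.clp a = κ → L.clp b = κ' → D.pos a ≠ D.pos b := by
    intro a b ha hb h
    have := hpos a b h
    subst this
    exact hκ (ha.symm.trans hb)
  have k11 := hne r1 t1 ((hr _).2 (Or.inl rfl)) ((ht _).2 (Or.inl rfl))
  have k12 := hne r1 t2 ((hr _).2 (Or.inl rfl)) ((ht _).2 (Or.inr rfl))
  have k21 := hne r2 t1 ((hr _).2 (Or.inr rfl)) ((ht _).2 (Or.inl rfl))
  have k22 := hne r2 t2 ((hr _).2 (Or.inr rfl)) ((ht _).2 (Or.inr rfl))
  have hr12 : r1 ≠ r2 := fun h => by rw [h] at h1; exact lt_irrefl _ h1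
  have ht12 : t1 ≠ t2 := fun h => by rw [h] at h2; exact lt_irrefl _ h2
  have hcard : (Finset.univ.filter fun z : (C × Bool) × (C × Bool) =>
        D.pos z.2 < D.pos z.1 ∧ L.clp z.2 = κ ∧ L.clp z.1 = κ').card
      = (if D.pos r1 < D.pos t1 then 1 else 0) + (if D.pos r1 < D.pos t2 then 1 else 0)
        + (if D.pos r2 < D.pos t1 then 1 else 0) + (if D.pos r2 < D.pos t2 then 1 else 0) := by
    have : (Finset.univ.filter fun z : (C × Bool) × (C × Bool) =>
        D.pos z.2 < D.pos z.1 ∧ L.clp z.2 = κ ∧ L.clp z.1 = κ')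
        = (({t1, t2} : Finset (C × Bool)) ×ˢ ({r1, r2} : Finset (C × Bool))).filter
          fun z => D.pos z.2 < D.pos z.1 := by
      ext z
      simp only [Finset.mem_filter, Finset.mem_univ, true_and, Finset.mem_product,
        Finset.mem_insert, Finset.mem_singleton, hr, ht]
      tauto
    rw [this, Finset.card_filter, Finset.sum_product, Finset.sum_pair ht12, Finset.sum_pair hr12,
      Finset.sum_pair hr12]
    ring
  rw [hcard]
  constructor
  · rintro (h | h)
    · rw [if_pos (by omega), if_pos (by omega), if_neg (by omega), if_pos (by omega)]; decide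
    · rw [if_neg (by omega), if_pos (by omega), if_neg (by omega), if_neg (by omega)]; decide
  · intro h
    by_contra hcon
    have h3 : ((((if D.pos r1 < D.pos t1 then 1 else 0) + (if D.pos r1 < D.pos t2 then 1 else 0)
        + (if D.pos r2 < D.pos t1 then 1 else 0) + (if D.pos r2 < D.pos t2 then 1 else 0) : ℕ)) :
        ZMod 2) = 0 := by
      split_ifs <;> first | (exfalso; omega) | decide
    rw [h3] at h
    exact absurd h (by decide)

end Lab

end Dg

end Crest.Agent.R096.Fx_689
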