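import Crest.Agent.R096.Fx4_689

set_option autoImplicit false
open Finset

namespace Crest.Agent.R096.Fx_689

namespace Dg

variable {C : Type*} {D : Dg C}

namespace Lab

variable {K : Type*} (L : D.Lab K)

/-- straight crossing with different labels (a double point which is left after the re-gluing) -/
def Res (x y : C) : Prop :=
  D.fam x = false ∧ D.X x y ∧ L.cl x (D.e x y - 1) = L.cl x (D.e x y) ∧
    L.cl y (D.e y x - 1) = L.cl y (D.e y x) ∧ L.cl x (D.e x y) ≠ L.cl y (D.e y x)

variable [DecidableEq K]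

instance (x y : C) : Decidable (L.Res x y) := by unfold Res; infer_instance

/-- new chords: labels with two end points and a colour; no straight crossing inside one colour -/
structure Arcs (J : Type*) where
  lab : J → K
  inj : ∀ j j', lab j = lab j' → j = j'
  a : J → C × Bool
  b : J → C × Bool
  lt : ∀ j, D.pos (a j) < D.pos (b j)
  ends : ∀ j t, L.clp t = lab j ↔ t = a j ∨ t = b j
  fam : J → Bool
  nost : ∀ j j', j ≠ j' → fam j = fam j' → ∀ x y, ¬ L.St (lab j) (lab j') x y

lemma pos_inj (s t : C × Bool) (h : D.pos s = D.pos t) : s = t := by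
  obtain ⟨a, i⟩ := s
  obtain ⟨b, j⟩ := t
  unfold pos at h
  cases i <;> cases j <;> simp at h
  · rw [D.lo_inj a b h]
  · exact absurd h (D.ne _ _)
  · exact absurd h.symm (D.ne _ _)
  · rw [D.hi_inj a b h]

variable [Fintype C] [DecidableEq C]

/-- same colour: not interlaced -/
theorem Arcs.nc {L : D.Lab K} {J : Type*} (A : L.Arcs J) (j j' : J) (hf : A.fam j = A.fam j') :
    ¬ (D.pos (A.a j) < D.pos (A.a j') ∧ D.pos (A.a j') < D.pos (A.b j) ∧
      D.pos (A.b j) < D.pos (A.b j')) := by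
  intro h
  have hne : j ≠ j' := by
    rintro rfl
    exact lt_irrefl _ h.1
  have hk : A.lab j ≠ A.lab j' := fun h => hne (A.inj _ _ h)
  have := (L.parity_two hk (A.ends j) (A.ends j') (A.lt j) (A.lt j')).1 (Or.inl h)
  have z1 : (Finset.univ.filter fun z : C × C => L.St (A.lab j) (A.lab j') z.1 z.2) = ∅ :=
    Finset.filter_eq_empty_iff.2 fun z _ => A.nost j j' hne hf z.1 z.2
  have z2 : (Finset.univ.filter fun z : C × C => L.St (A.lab j') (A.lab j) z.1 z.2) = ∅ :=
    Finset.filter_eq_empty_iff.2 fun z _ => A.nost j' j hne.symm hf.symm z.1 z.2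
  rw [z1, z2] at this
  simp at this

/-- the re-glued diagram is again a diagram -/
def Arcs.dg {L : D.Lab K} {J : Type*} (A : L.Arcs J) : Dg J where
  lo j := D.pos (A.a j)
  hi j := D.pos (A.b j)
  lt := A.lt
  lo_inj j j' h := by
    have h' := pos_inj _ _ h
    have h1 := (A.ends j (A.a j)).2 (Or.inl rfl)
    have h2 := (A.ends j' (A.a j')).2 (Or.inl rfl)
    rw [← h'] at h2
    exact A.inj _ _ (h1.symm.trans h2)
  hi_inj j j' h := by
    have h' := pos_inj _ _ h
    have h1 := (A.ends j (A.b j)).2 (Or.inr rfl)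
    have h2 := (A.ends j' (A.b j')).2 (Or.inr rfl)
    rw [← h'] at h2
    exact A.inj _ _ (h1.symm.trans h2)
  ne j j' h := by
    have h' := pos_inj _ _ h
    have h1 := (A.ends j (A.a j)).2 (Or.inl rfl)
    have h2 := (A.ends j' (A.b j')).2 (Or.inr rfl)
    rw [← h'] at h2
    have := A.inj _ _ (h1.symm.trans h2)
    subst this
    exact absurd h (ne_of_lt (A.lt j))
  fam := A.fam
  nc j j' hf := A.nc j j' hf

/-- crossings of the re-glued diagram are at most the straight double points that are left -/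
theorem Arcs.card_le {L : D.Lab K} {J : Type*} [Fintype J] [DecidableEq J] (A : L.Arcs J) :
    (Finset.univ.filter fun z : J × J => A.dg.fam z.1 = false ∧ A.dg.X z.1 z.2).card
      ≤ (Finset.univ.filter fun z : C × C => L.Res z.1 z.2).card := by
  have key : ∀ z : J × J, A.dg.fam z.1 = false ∧ A.dg.X z.1 z.2 → ∃ w : C × C,
      L.St (A.lab z.1) (A.lab z.2) w.1 w.2 ∨ L.St (A.lab z.2) (A.lab z.1) w.1 w.2 := by
    rintro ⟨j, j'⟩ ⟨-, hX⟩
    have hne : j ≠ j' := A.dg.X_ne hX
    have hk : A.lab j ≠ A.lab j' := fun h => hne (A.inj _ _ h)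
    have hodd := (L.parity_two hk (A.ends j) (A.ends j') (A.lt j) (A.lt j')).1 hX
    by_contra hcon
    push Not at hcon
    have z1 : (Finset.univ.filter fun z : C × C => L.St (A.lab j) (A.lab j') z.1 z.2) = ∅ :=
      Finset.filter_eq_empty_iff.2 fun z _ => (hcon z).1
    have z2 : (Finset.univ.filter fun z : C × C => L.St (A.lab j') (A.lab j) z.1 z.2) = ∅ :=
      Finset.filter_eq_empty_iff.2 fun z _ => (hcon z).2
    rw [z1, z2] at hodd
    simp at hodd
  classical
  rcases isEmpty_or_nonempty J with hJ | ⟨⟨j0⟩⟩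
  · have : (Finset.univ.filter fun z : J × J => A.dg.fam z.1 = false ∧ A.dg.X z.1 z.2) = ∅ :=
      Finset.eq_empty_of_isEmpty _
    rw [this]; simp
  haveI : Nonempty (C × C) := ⟨((A.a j0).1, (A.a j0).1)⟩
  choose! φ hφ using key
  apply Finset.card_le_card_of_injOn φ
  · intro z hz
    simp only [Finset.coe_filter, Finset.mem_univ, true_and, Set.mem_ofPred_eq] at hz ⊢
    have hne : z.1 ≠ z.2 := A.dg.X_ne hz.2
    have hk : A.lab z.1 ≠ A.lab z.2 := fun h => hne (A.inj _ _ h)
    rcases hφ z hz with h | h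
    · obtain ⟨h1, h2, h3, h4, h5, h6⟩ := h
      refine ⟨h1, h2, h3.trans h4.symm, h5.trans h6.symm, ?_⟩
      rw [h4, h6]; exact hk
    · obtain ⟨h1, h2, h3, h4, h5, h6⟩ := h
      refine ⟨h1, h2, h3.trans h4.symm, h5.trans h6.symm, ?_⟩
      rw [h4, h6]; exact hk.symm
  · intro z hz w hw hzw
    simp only [Finset.coe_filter, Finset.mem_univ, true_and, Set.mem_ofPred_eq] at hz hw
    have f1 := A.dg.X_fam hz.2
    have f2 := A.dg.X_fam hw.2
    have hz' := hφ z hz
    have hw' := hφ w hw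
    rw [← hzw] at hw'
    have hlab : (A.lab z.1 = A.lab w.1 ∧ A.lab z.2 = A.lab w.2) ∨
        (A.lab z.1 = A.lab w.2 ∧ A.lab z.2 = A.lab w.1) := by
      rcases hz' with ⟨-, -, -, h4, -, h6⟩ | ⟨-, -, -, h4, -, h6⟩ <;>
        rcases hw' with ⟨-, -, -, g4, -, g6⟩ | ⟨-, -, -, g4, -, g6⟩
      · left; exact ⟨h4.symm.trans g4, h6.symm.trans g6⟩
      · right; exact ⟨h4.symm.trans g4, h6.symm.trans g6⟩
      · right; exact ⟨h6.symm.trans g6, h4.symm.trans g4⟩
      · left; exact ⟨h6.symm.trans g6, h4.symm.trans g4⟩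
    rcases hlab with ⟨h1, h2⟩ | ⟨h1, h2⟩
    · exact Prod.ext (A.inj _ _ h1) (A.inj _ _ h2)
    · exfalso
      have e1 := A.inj _ _ h1
      apply f2
      rw [← e1, hw.1]
      exact hz.1.symm

end Lab

end Dg

end Crest.Agent.R096.Fx_689
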