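import Crest.Agent.R096.Wy1_664

/-!
# Row 96, DOORS, NE1 (helper962): leaf G1, the chart of the moat over a transversal strip

`chart` : `(s, w) ↦ g (pol (s, gam (t0, w)))` on `Icc s0 s1 ×ˢ Icc 0 w1`.
-/

set_option autoImplicit false
set_option linter.unusedSectionVars false

open Set Topology Filter Metric Module
open scoped Classical

namespace Crest.Agent.R096.Gc_962

open Crest.Agent.R096.Msh_715 Crest.Agent.R096.Coh_184 Crest.Agent.R096.Bsp_628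
  Crest.Agent.R096.Brk1_582 Crest.Agent.R096.Brk2_582 Crest.Agent.R096.Brk3_582
  Crest.Agent.R096.Brk5_582 Crest.Agent.R096.Init_543 Crest.Agent.R096.Mbf_337
  Crest.Agent.R96.Push_899 Crest.Agent.R096.Ess1_95 Crest.Agent.R096.Ess4_95
  Crest.Agent.R096.Ess5_95 Crest.Agent.R096.Ess6_95 Crest.Agent.R096.Ess7_95
  Crest.Agent.R096.Lab_184 Crest.Agent.R096.Ebr4_95 Crest.Agent.R096.Bar_106
  Crest.Agent.R096.Bgf_4 Crest.Agent.R096.Ebr1_95 Crest.Agent.R096.Ebr2_95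
  Crest.Agent.R096.Ebr3_95 Crest.Agent.R096.Ebr5_95 Crest.Agent.R096.Ebr6_95 Crest.Agent.R096.Sphg_316

open Crest.Agent.R096.SkC1_961 (E3 Hom3 IsPush FoamD)

variable {δ κ0 R c0 : ℝ} {La Om : Set E3} {Φ : FoamD δ κ0 R c0 La} {f g : E3 → E3}

/-- **the chart** -/
theorem chart_of (hLa : IsOpen La) (H : Hm f g Om La) {c a p q : Φ.F} {Z : Set Φ.F}
    (hM : Mo (Pc Φ.F) c a Z p q) {ρ : ℝ} {pol : ℝ × E3 → E3} (hPol : Pol Φ c ρ pol)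
    (hgc : ∀ y, ga Φ c y ≤ ρ → y ∈ La) {s0 s1 t0 w1 : ℝ} (h0 : 0 < s0) (h1 : s1 ≤ ρ)
    (ht0 : t0 ∈ Icc (0 : ℝ) 1) (hw1 : w1 ≤ 1) :
    ContinuousOn (fun z : ℝ × ℝ => g (pol (z.1, gam (bc (F := Φ.F)) a Z p q (t0, z.2))))
      (Icc s0 s1 ×ˢ Icc 0 w1) ∧
    InjOn (fun z : ℝ × ℝ => g (pol (z.1, gam (bc (F := Φ.F)) a Z p q (t0, z.2))))
      (Icc s0 s1 ×ˢ Icc 0 w1) ∧
    ∀ z ∈ Icc s0 s1 ×ˢ Icc 0 w1,
      g (pol (z.1, gam (bc (F := Φ.F)) a Z p q (t0, z.2))) ∈ Om ∧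
      ga Φ c (f (g (pol (z.1, gam (bc (F := Φ.F)) a Z p q (t0, z.2))))) = z.1 ∧
      Φ.Psi (f (g (pol (z.1, gam (bc (F := Φ.F)) a Z p q (t0, z.2))))) =
        gam (bc (F := Φ.F)) a Z p q (t0, z.2) ∧
      Φ.lev a (f (g (pol (z.1, gam (bc (F := Φ.F)) a Z p q (t0, z.2))))) = t0 ∧
      ∀ l0 mm ra : ℝ, gmf Φ l0 mm ra a Z
        (Φ.Psi (f (g (pol (z.1, gam (bc (F := Φ.F)) a Z p q (t0, z.2)))))) =
          max (z.2 / l0) (|t0 - mm| / ra) := by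
  have FF := foam Φ.bf hLa
  have hR : ∀ z ∈ Icc s0 s1 ×ˢ Icc 0 w1, ((t0, z.2) : ℝ × ℝ) ∈ Rct := fun z hz =>
    ⟨ht0, by linarith [hz.2.1], hz.2.2.trans hw1⟩
  have hI : ∀ z ∈ Icc s0 s1 ×ˢ Icc 0 w1, z.1 ∈ Ioc 0 ρ := fun z hz =>
    ⟨h0.trans_le hz.1.1, hz.1.2.trans h1⟩
  have hfr : ∀ z ∈ Icc s0 s1 ×ˢ Icc 0 w1,
      gam (bc (F := Φ.F)) a Z p q (t0, z.2) ∈ frontier c.1.set := fun z hz =>
    gam_fr hLa hM (hR z hz)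
  have hga : ∀ z ∈ Icc s0 s1 ×ˢ Icc 0 w1,
      ga Φ c (pol (z.1, gam (bc (F := Φ.F)) a Z p q (t0, z.2))) = z.1 := fun z hz =>
    hPol.gau _ (hI z hz) _ (hfr z hz)
  have hps : ∀ z ∈ Icc s0 s1 ×ˢ Icc 0 w1,
      Φ.Psi (pol (z.1, gam (bc (F := Φ.F)) a Z p q (t0, z.2))) =
        gam (bc (F := Φ.F)) a Z p q (t0, z.2) := fun z hz =>
    hPol.psi _ (hI z hz) _ (hfr z hz)
  have hmL : ∀ z ∈ Icc s0 s1 ×ˢ Icc 0 w1,
      pol (z.1, gam (bc (F := Φ.F)) a Z p q (t0, z.2)) ∈ La := fun z hz =>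
    hgc _ (by rw [hga z hz]; exact (hI z hz).2)
  refine ⟨?_, ?_, ?_⟩
  · refine H.gc.comp ?_ hmL
    refine hPol.cont.comp ?_ fun z hz => ⟨mem_univ _, hfr z hz⟩
    refine continuousOn_fst.prodMk ?_
    refine (hM.continuousOn_gam FF).comp (Continuous.continuousOn (by fun_prop)) ?_
    intro z hz
    exact hR z hz
  · intro z hz z' hz' he
    have e1 := H.injOn (hmL z hz) (hmL z' hz') he
    have e2 : z.1 = z'.1 := by rw [← hga z hz, ← hga z' hz', e1]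
    have e3 : gam (bc (F := Φ.F)) a Z p q (t0, z.2) = gam (bc (F := Φ.F)) a Z p q (t0, z'.2) := by
      rw [← hps z hz, ← hps z' hz', e1]
    have e4 := hM.gam_injOn FF (hR z hz) (hR z' hz') e3
    have e5 : z.2 = z'.2 := (Prod.mk.inj e4).2
    exact Prod.ext e2 e5
  · intro z hz
    have hf : f (g (pol (z.1, gam (bc (F := Φ.F)) a Z p q (t0, z.2)))) =
        pol (z.1, gam (bc (F := Φ.F)) a Z p q (t0, z.2)) := H.fg _ (hmL z hz)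
    rw [hf, hps z hz]
    refine ⟨H.gm (hmL z hz), hga z hz, rfl, ?_, ?_⟩
    · show sc (Pc Φ.F) (bc (F := Φ.F))
        (Φ.Psi (pol (z.1, gam (bc (F := Φ.F)) a Z p q (t0, z.2)))) a = t0
      rw [hps z hz, hM.sc_gam FF (hR z hz)]
      exact uu_a
    · intro l0 mm ra
      rw [gmf_gam hLa hM (hR z hz)]
      show max (|z.2| / l0) (|t0 - mm| / ra) = _
      rw [abs_of_nonneg hz.2.1]

/-- **G1 : the chart, with `IsCompact` and `TrivF`** -/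
theorem chart (hLa : IsOpen La) (H : Hm f g Om La) {c a p q : Φ.F} {Z : Set Φ.F}
    (hM : Mo (Pc Φ.F) c a Z p q) {ρ : ℝ} {pol : ℝ × E3 → E3} (hPol : Pol Φ c ρ pol)
    (hgc : ∀ y, ga Φ c y ≤ ρ → y ∈ La) {s0 s1 t0 w1 : ℝ} (h0 : 0 < s0) (h1 : s1 ≤ ρ)
    (ht0 : t0 ∈ Icc (0 : ℝ) 1) (hw1 : w1 ≤ 1) :
    ∃ Wz : ℝ × ℝ → E3, ContinuousOn Wz (Icc s0 s1 ×ˢ Icc 0 w1) ∧
      InjOn Wz (Icc s0 s1 ×ˢ Icc 0 w1) ∧
      (∀ z ∈ Icc s0 s1 ×ˢ Icc 0 w1, Wz z ∈ Om ∧ ga Φ c (f (Wz z)) = z.1 ∧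
        Φ.Psi (f (Wz z)) = gam (bc (F := Φ.F)) a Z p q (t0, z.2) ∧ Φ.lev a (f (Wz z)) = t0 ∧
        ∀ l0 mm ra : ℝ, gmf Φ l0 mm ra a Z (Φ.Psi (f (Wz z))) =
          max (z.2 / l0) (|t0 - mm| / ra)) ∧
      IsCompact (Wz '' (Icc s0 s1 ×ˢ Icc 0 w1)) ∧
      TrivF (ZMod 2) (Wz '' (Icc s0 s1 ×ˢ Icc 0 w1)) := by
  obtain ⟨g1, g2, g3⟩ := chart_of hLa H hM hPol hgc h0 h1 ht0 hw1
  have hK : IsCompact (Icc s0 s1 ×ˢ Icc (0 : ℝ) w1) := isCompact_Icc.prod isCompact_Icc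
  exact ⟨_, g1, g2, g3, hK.image_of_continuousOn g1,
    trivF_convex hK ((convex_Icc _ _).prod (convex_Icc _ _)) g1 g2⟩

/-- the points of gauge `≤ ρ < 1` are in `La` -/
theorem ga_sub {c : Φ.F} (hpt : (Φ.B c).lo = (Φ.B c).hi) {ρ : ℝ} (hρ : ρ ≤ 1) :
    ∀ y, ga Φ c y ≤ ρ → y ∈ La := by
  have hcL : c.1.set ⊆ La := Φ.bf.sub c.1 c.2
  intro y hy
  have hb : Bod (Φ.B c).lo (Pc Φ.F c) := Pse_316.bod_brick Φ c hpt
  have hgf : ga Φ c = Ng (Φ.B c).lo (Pc Φ.F c) := funext (Etg_163.gg_eq Φ c)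
  exact hcL (hb.le_sub hρ (show y ∈ {y | Ng _ _ y ≤ ρ} by rw [← hgf]; exact hy))

end Crest.Agent.R096.Gc_962
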