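import Crest.Agent.R096.Sqt6_143

/-!
Row 96 (S0127), helper143.  SQ-TUBE, part 7: **where `chi` maps a point near the edges** (cell, then
face), local Lipschitz constants there.
-/

set_option autoImplicit false

open Set Metric Filter Topology MeasureTheory

namespace Crest.Agent.R096.Sqt_143

open Crest.Agent.R096.Ce_537 Crest.Agent.R096.Bd_416 Crest.Agent.R96.Hole_348
open Crest.Agent.R096.Sq_55
open scoped NNReal ENNReal

/-- leaving an open set along a segment -/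
lemma exit_pt {U K : Set E3} (hU : IsOpen U) (hK : IsClosed K) (hUK : U ⊆ K) {x y : E3}
    (hx : x ∈ U) (hy : y ∉ U) : ∃ z ∈ K \ U, ‖x - z‖ ≤ ‖x - y‖ := by
  obtain ⟨z, hz1, hz2⟩ := inter_frontier ((convex_segment x y).isPreconnected) hU
    ⟨x, left_mem_segment ℝ x y, hx⟩ ⟨y, right_mem_segment ℝ x y, hy⟩
  refine ⟨z, ⟨closure_minimal hUK hK hz2.1, ?_⟩, ?_⟩
  · have := hz2.2
    rwa [hU.interior_eq] at this
  · have h2 : z ∈ closedBall x ‖x - y‖ := by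
      refine (convex_closedBall x _).segment_subset ?_ ?_ hz1
      · rw [mem_closedBall, dist_self]; exact norm_nonneg _
      · rw [mem_closedBall, dist_eq_norm, norm_sub_rev]
    rwa [mem_closedBall, dist_eq_norm, norm_sub_rev] at h2

/-! ### the model of a face: Lipschitz constant -/

lemma wid_sub (z w : E3) : ‖tl z - tl w‖ ≤ ‖z - w‖ := by
  rw [pi_norm_le_iff_of_nonneg (norm_nonneg _)]
  intro j
  exact norm_le_pi_norm (z - w) j.succ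

lemma zero_sub_le (z w : E3) : |(|z 0| - |w 0|)| ≤ ‖z - w‖ := by
  refine (abs_abs_sub_abs_le _ _).trans ?_
  exact norm_le_pi_norm (z - w) 0

lemma alg1 {a b : ℝ} (ha : a ≠ 0) (hb : b ≠ 0) (p q : Fin 2 → ℝ) :
    a • (a⁻¹ • p - b⁻¹ • q) = (p - q) + (b - a) • (b⁻¹ • q) := by
  funext i
  simp only [Pi.smul_apply, Pi.sub_apply, Pi.add_apply, smul_eq_mul]
  field_simp
  ring

lemma alg2 (a b : ℝ) (p q : Fin 2 → ℝ) : a • p - b • q = a • (p - q) + (a - b) • q := by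
  funext i
  simp only [Pi.smul_apply, Pi.sub_apply, Pi.add_apply, smul_eq_mul]
  ring

lemma fo_lip {τ : ℝ} (h0 : 0 < τ) (h1 : τ ≤ 1/2) {z w : E3} (hz : |z 0| + wid z < 1)
    (hw : |w 0| + wid w < 1) (hw2 : (1/2) * (1 - |w 0|) < wid w) :
    ‖fo τ z - fo τ w‖ ≤ 33 * ‖z - w‖ := by
  have hz0 := wid_nonneg z
  have hw0 := wid_nonneg w
  have az : 0 < 1 - |z 0| := by linarith
  have aw : 0 < 1 - |w 0| := by linarith
  have hn : ‖(1 - |w 0|)⁻¹ • tl w‖ = wid w / (1 - |w 0|) := by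
    rw [norm_smul, norm_inv, Real.norm_eq_abs, abs_of_pos aw, wid_eq]
    field_simp
  have hn1 : ‖(1 - |w 0|)⁻¹ • tl w‖ ≤ 1 := by
    rw [hn, div_le_one aw]; linarith
  have hn2 : 1/2 ≤ ‖(1 - |w 0|)⁻¹ • tl w‖ := by
    rw [hn, le_div_iff₀ aw]; linarith
  have hN : ‖outer τ 1 ((1 - |w 0|)⁻¹ • tl w)‖ ≤ 1 := by
    rw [norm_outer_one h0 h1 hn2 hn1]; nlinarith
  have ha := zero_sub_le z w
  have key : ‖tl (fo τ z) - tl (fo τ w)‖ ≤ 33 * ‖z - w‖ := by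
    have e1 : tl (fo τ z) - tl (fo τ w) =
        (1 - |z 0|) • (outer τ 1 ((1 - |z 0|)⁻¹ • tl z) - outer τ 1 ((1 - |w 0|)⁻¹ • tl w)) +
        ((1 - |z 0|) - (1 - |w 0|)) • outer τ 1 ((1 - |w 0|)⁻¹ • tl w) := by
      rw [tl_fo, tl_fo]; exact alg2 _ _ _ _
    rw [e1]
    refine (norm_add_le _ _).trans ?_
    have b2 : ‖((1 - |z 0|) - (1 - |w 0|)) • outer τ 1 ((1 - |w 0|)⁻¹ • tl w)‖ ≤ ‖z - w‖ := by
      rw [norm_smul, Real.norm_eq_abs]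
      have : |(1 - |z 0|) - (1 - |w 0|)| ≤ ‖z - w‖ := by
        rw [abs_sub_comm] at ha
        have e : (1 - |z 0|) - (1 - |w 0|) = |w 0| - |z 0| := by ring
        rw [e]; exact ha
      calc _ ≤ ‖z - w‖ * 1 := mul_le_mul this hN (norm_nonneg _) (norm_nonneg _)
        _ = _ := mul_one _
    have b1 : ‖(1 - |z 0|) • (outer τ 1 ((1 - |z 0|)⁻¹ • tl z) -
        outer τ 1 ((1 - |w 0|)⁻¹ • tl w))‖ ≤ 32 * ‖z - w‖ := by
      rw [norm_smul, Real.norm_eq_abs, abs_of_pos az]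
      have c1 := outer_lip (ρ := 1) h0 h1 ((1 - |z 0|)⁻¹ • tl z) ((1 - |w 0|)⁻¹ • tl w)
      have c2 : (1 - |z 0|) * ‖(1 - |z 0|)⁻¹ • tl z - (1 - |w 0|)⁻¹ • tl w‖ ≤ 2 * ‖z - w‖ := by
        have e2 : (1 - |z 0|) * ‖(1 - |z 0|)⁻¹ • tl z - (1 - |w 0|)⁻¹ • tl w‖ =
            ‖(tl z - tl w) + ((1 - |w 0|) - (1 - |z 0|)) • ((1 - |w 0|)⁻¹ • tl w)‖ := by
          rw [← abs_of_pos az, ← Real.norm_eq_abs, ← norm_smul, Real.norm_eq_abs, abs_of_pos az]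
          congr 1
          exact alg1 az.ne' aw.ne' _ _
        rw [e2]
        refine (norm_add_le _ _).trans ?_
        have d1 := wid_sub z w
        have d2 : ‖((1 - |w 0|) - (1 - |z 0|)) • ((1 - |w 0|)⁻¹ • tl w)‖ ≤ ‖z - w‖ := by
          rw [norm_smul, Real.norm_eq_abs]
          have : |(1 - |w 0|) - (1 - |z 0|)| ≤ ‖z - w‖ := by
            have e : (1 - |w 0|) - (1 - |z 0|) = |z 0| - |w 0| := by ring
            rw [e]; exact ha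
          calc _ ≤ ‖z - w‖ * 1 := mul_le_mul this hn1 (norm_nonneg _) (norm_nonneg _)
            _ = _ := mul_one _
        linarith
      calc _ ≤ (1 - |z 0|) * (16 * ‖(1 - |z 0|)⁻¹ • tl z - (1 - |w 0|)⁻¹ • tl w‖) :=
            mul_le_mul_of_nonneg_left c1 az.le
        _ ≤ 32 * ‖z - w‖ := by linarith
    linarith
  rw [pi_norm_le_iff_of_nonneg (by positivity)]
  intro j
  refine Fin.cases ?_ (fun i => ?_) j
  · show ‖fo τ z 0 - fo τ w 0‖ ≤ _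
    rw [fo_zero, fo_zero]
    have := norm_le_pi_norm (z - w) 0
    rw [Pi.sub_apply] at this
    have h2 := norm_nonneg (z - w)
    linarith
  · exact (norm_le_pi_norm (tl (fo τ z) - tl (fo τ w)) i).trans key

variable {κ ι : Type*} [Fintype κ] [Fintype ι] {X : Sys κ ι} {p δ : ℝ}

/-! ### the cells -/

lemma Y_outer (h : X.Adm p δ) (N : ℕ) {k : κ} {x : E3} (hx : x ∈ CW (X.C k)) :
    Sys.Y h (N+1) x = (X.C k).e' (outer (X.ηC δ k * (1 - qn 3 p)) 1 ((X.C k).e x)) := by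
  have hz2 : 1/2 < ‖(X.C k).e x‖ := hx.2
  rw [Sys.Y_in h (N+1) hx.1, cgf_in (mem_closedBall_zero_iff.1
    ((X.C k).cht.maps ((X.C k).cht.sub hx.1))), gf_outer hz2.le]

lemma outer_mem (h : X.Adm p δ) {k : κ} {x : E3} (hx : x ∈ CW (X.C k)) :
    outer (X.ηC δ k * (1 - qn 3 p)) 1 ((X.C k).e x) ∈ closedBall (0:E3) 1 ∧
    ‖outer (X.ηC δ k * (1 - qn 3 p)) 1 ((X.C k).e x)‖ =
      1 - 2 * (X.ηC δ k * (1 - qn 3 p)) * (1 - ‖(X.C k).e x‖) := by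
  have hz2 : 1/2 < ‖(X.C k).e x‖ := hx.2
  have hz1 : ‖(X.C k).e x‖ ≤ 1 := mem_closedBall_zero_iff.1
    ((X.C k).cht.maps ((X.C k).cht.sub hx.1))
  have t0 := (Sys.gC h k).t0
  have t1 : X.ηC δ k * (1 - qn 3 p) ≤ 1/2 := by have := (Sys.gC h k).half_le; linarith
  have e := norm_outer_one t0 t1 hz2.le hz1
  refine ⟨?_, e⟩
  rw [mem_closedBall_zero_iff, e]
  nlinarith

lemma Y_lip (h : X.Adm p δ) (N : ℕ) {k : κ} {x y : E3} (hx : x ∈ CW (X.C k))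
    (hy : y ∈ CW (X.C k)) :
    ‖Sys.Y h (N+1) x - Sys.Y h (N+1) y‖ ≤ 16 * (((X.C k).M:ℝ) * (X.C k).M) * ‖x - y‖ := by
  have hM := (X.C k).M_pos
  have hR := (X.C k).R_pos
  have t0 := (Sys.gC h k).t0
  have t1 : X.ηC δ k * (1 - qn 3 p) ≤ 1/2 := by have := (Sys.gC h k).half_le; linarith
  rw [Y_outer h N hx, Y_outer h N hy]
  have h1 := lip_le (X.C k).cht.lip' (outer_mem h hx).1 (outer_mem h hy).1
  have h2 := outer_lip (ρ := 1) t0 t1 ((X.C k).e x) ((X.C k).e y)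
  have h3 := lip_le (X.C k).cht.lip ((X.C k).cht.sub hx.1) ((X.C k).cht.sub hy.1)
  push_cast at h1 h3
  refine h1.trans ?_
  calc ((X.C k).M * (X.C k).R : ℝ) * _ ≤ ((X.C k).M * (X.C k).R : ℝ) *
        (16 * (((X.C k).M / (X.C k).R : ℝ) * ‖x - y‖)) := by
        apply mul_le_mul_of_nonneg_left _ (by positivity)
        linarith
    _ = _ := by field_simp

theorem cell_pt (h : X.Adm p δ) (N : ℕ) {k : κ} {x y0 : E3} {u : ℝ} (hx : x ∈ (X.C k).U)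
    (hy : y0 ∉ (X.C k).U) (hxy : ‖x - y0‖ ≤ u) (hu : 4 * (X.m k : ℝ) * u ≤ (X.C k).R) :
    x ∈ CW (X.C k) ∧ ‖Sys.Y h (N+1) x - x‖ ≤ 4 * (X.m k : ℝ)^2 * u ∧
      ∃ y ∈ (X.C k).P \ (X.C k).U, ‖Sys.Y h (N+1) x - y‖ ≤ δ / (X.C k).R * u := by
  obtain ⟨y, ⟨hyP, hyU⟩, hxy1⟩ := exit_pt (X.C k).cht.opU (X.C k).cht.clK (X.C k).cht.sub hx hy
  have hxP := (X.C k).cht.sub hx
  have hm1 := Sys.m_one (X := X) k
  have hM1 := (X.C k).M_one
  have hMm : ((X.C k).M : ℝ) ≤ X.m k := by exact_mod_cast X.mC k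
  have hR := (X.C k).R_pos
  have hd := h.d0
  have hxyu := hxy1.trans hxy
  have hu0 : 0 < u := by
    refine lt_of_lt_of_le ?_ hxy
    rw [norm_pos_iff, sub_ne_zero]
    rintro rfl
    exact hy hx
  have hy1 : 1 ≤ ‖(X.C k).e y‖ := by
    by_contra hlt
    exact hyU (((X.C k).cht.mem y hyP).1 (mem_ball_zero_iff.2 (not_le.1 hlt)))
  have hdep : 1 - ‖(X.C k).e x‖ ≤ ((X.C k).M / (X.C k).R : ℝ) * u := by
    have h3 := lip_le (X.C k).cht.lip hxP hyP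
    push_cast at h3
    have h4 : ‖(X.C k).e y‖ ≤ ‖(X.C k).e x‖ + ‖(X.C k).e x - (X.C k).e y‖ := by
      calc ‖(X.C k).e y‖ = ‖(X.C k).e x - ((X.C k).e x - (X.C k).e y)‖ := by congr 1; abel
        _ ≤ _ := norm_sub_le _ _
    have h5 : ((X.C k).M / (X.C k).R : ℝ) * ‖x - y‖ ≤ ((X.C k).M / (X.C k).R : ℝ) * u :=
      mul_le_mul_of_nonneg_left hxyu (by positivity)
    linarith
  have hMu : ((X.C k).M / (X.C k).R : ℝ) * u ≤ 1/4 := by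
    rw [div_mul_eq_mul_div, div_le_iff₀ hR]
    have : ((X.C k).M : ℝ) * u ≤ X.m k * u := mul_le_mul_of_nonneg_right hMm hu0.le
    linarith
  have hsh : 1/2 < ‖(X.C k).e x‖ := by linarith
  have hCW : x ∈ CW (X.C k) := ⟨hx, hsh⟩
  obtain ⟨o1, o2⟩ := outer_mem h hCW
  set τ := X.ηC δ k * (1 - qn 3 p) with hτ
  have t0 : 0 < τ := (Sys.gC h k).t0
  have t1 : τ ≤ 1/2 := by have := (Sys.gC h k).half_le; linarith
  have hηC : τ ≤ X.ηC δ k := by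
    have h1 := Sys.ηC_pos h k
    have h2 := qn_pos 3 p
    rw [hτ]; nlinarith
  refine ⟨hCW, ?_, ?_⟩
  · refine (Y_move h N hx hyP hyU).trans ?_
    have h1 : ((X.C k).M:ℝ) * (X.C k).M ≤ (X.m k : ℝ)^2 := by nlinarith
    have h2 := norm_nonneg (x - y)
    have h3 : 0 ≤ ((X.C k).M:ℝ) * (X.C k).M := by positivity
    calc 4 * (((X.C k).M:ℝ) * (X.C k).M) * ‖x - y‖ ≤ 4 * (X.m k : ℝ)^2 * ‖x - y‖ := by gcongr
      _ ≤ 4 * (X.m k : ℝ)^2 * u := by gcongr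
  · have hη1 : 3 * τ * (((X.C k).M / (X.C k).R : ℝ) * u) ≤ 1 := by
      have : 0 ≤ ((X.C k).M / (X.C k).R : ℝ) * u := by positivity
      nlinarith
    have hYP : Sys.Y h (N+1) x ∈ (X.C k).P := (Sys.Y_P h (N+1) k x).2 hxP
    have hlt : 1 - 3 * τ * (((X.C k).M / (X.C k).R : ℝ) * u) <
        ‖(X.C k).e (Sys.Y h (N+1) x)‖ := by
      rw [Y_outer h N hCW, (X.C k).cht.inv' _ o1, o2]
      have h1 : 0 < τ * (((X.C k).M / (X.C k).R : ℝ) * u) := by positivity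
      have h2 : 2 * τ * (1 - ‖(X.C k).e x‖) ≤ 2 * (τ * (((X.C k).M / (X.C k).R : ℝ) * u)) := by
        calc 2 * τ * (1 - ‖(X.C k).e x‖) ≤ 2 * τ * (((X.C k).M / (X.C k).R : ℝ) * u) :=
              mul_le_mul_of_nonneg_left hdep (by linarith)
          _ = _ := by ring
      linarith
    obtain ⟨y', hy', hd'⟩ := (X.C k).layer hη1 hYP hlt
    refine ⟨y', hy', hd'.trans ?_⟩
    have e1 : ((X.C k).M : ℝ) * (X.C k).R * (3 * τ * (((X.C k).M / (X.C k).R : ℝ) * u)) =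
        3 * ((X.C k).M : ℝ)^2 * τ * u := by field_simp
    rw [e1]
    refine mul_le_mul_of_nonneg_right ?_ hu0.le
    calc 3 * ((X.C k).M : ℝ)^2 * τ ≤ 3 * (X.m k : ℝ)^2 * X.ηC δ k := by
          have : ((X.C k).M : ℝ)^2 ≤ (X.m k : ℝ)^2 := by gcongr
          have h0 := Sys.ηC_pos h k
          gcongr
      _ = (δ / (X.C k).R) * (1 / X.m k) := by
          unfold Sys.ηC
          field_simp
      _ ≤ (δ / (X.C k).R) * 1 := by
          apply mul_le_mul_of_nonneg_left _ (by positivity)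
          rw [div_le_one (by linarith)]; exact hm1
      _ = _ := mul_one _

/-! ### the faces -/

lemma H_fo (h : X.Adm p δ) (N : ℕ) {j : ι} {x : E3} (hx : x ∈ FW (X.F j)) :
    Sys.H h (N+1) x = (X.F j).e' (fo (X.ηF δ j * (1 - qF p)) ((X.F j).e x)) := by
  have hz3 : |(X.F j).e x 0| + wid ((X.F j).e x) < 1 := (X.F j).cht.eU hx.1
  have hz4 := wid_nonneg ((X.F j).e x)
  have hz2 : (1/2) * (1 - |(X.F j).e x 0|) < wid ((X.F j).e x) := hx.2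
  rw [Sys.H_in h (N+1) hx.1, T_eq_fo (by linarith) hz2.le hz3.le]

lemma fo_mem (h : X.Adm p δ) {j : ι} {x : E3} (hx : x ∈ FW (X.F j)) :
    fo (X.ηF δ j * (1 - qF p)) ((X.F j).e x) ∈ Dc ∧
    ‖fo (X.ηF δ j * (1 - qF p)) ((X.F j).e x) - (X.F j).e x‖ ≤
      2 * (1 - |(X.F j).e x 0| - wid ((X.F j).e x)) ∧
    wid (fo (X.ηF δ j * (1 - qF p)) ((X.F j).e x)) = (1 - |(X.F j).e x 0|) -
      2 * (X.ηF δ j * (1 - qF p)) * (1 - |(X.F j).e x 0| - wid ((X.F j).e x)) := by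
  have hz3 : |(X.F j).e x 0| + wid ((X.F j).e x) < 1 := (X.F j).cht.eU hx.1
  have hz4 := wid_nonneg ((X.F j).e x)
  have hz2 : (1/2) * (1 - |(X.F j).e x 0|) < wid ((X.F j).e x) := hx.2
  have t0 := (Sys.gF h j).t0
  have t1 : X.ηF δ j * (1 - qF p) ≤ 1/2 := by have := (Sys.gF h j).half_le; linarith
  obtain ⟨k1, k2⟩ := fo_sub_le t0 t1 (by linarith) hz2.le hz3.le
  refine ⟨?_, k1, k2⟩
  show |fo _ _ 0| + wid (fo _ _) ≤ 1
  rw [fo_zero, k2]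
  nlinarith

lemma H_lip (h : X.Adm p δ) (N : ℕ) {j : ι} {x y : E3} (hx : x ∈ FW (X.F j))
    (hy : y ∈ FW (X.F j)) :
    ‖Sys.H h (N+1) x - Sys.H h (N+1) y‖ ≤ 33 * (((X.F j).M:ℝ) * (X.F j).M) * ‖x - y‖ := by
  have hM := (X.F j).M_pos
  have hR := (X.F j).ρ_pos
  have t0 := (Sys.gF h j).t0
  have t1 : X.ηF δ j * (1 - qF p) ≤ 1/2 := by have := (Sys.gF h j).half_le; linarith
  rw [H_fo h N hx, H_fo h N hy]
  have h1 := lip_le (X.F j).cht.lip' (fo_mem h hx).1 (fo_mem h hy).1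
  have h2 := fo_lip t0 t1 (z := (X.F j).e x) (w := (X.F j).e y) ((X.F j).cht.eU hx.1)
    ((X.F j).cht.eU hy.1) hy.2
  have h3 := lip_le (X.F j).cht.lip ((X.F j).cht.sub hx.1) ((X.F j).cht.sub hy.1)
  push_cast at h1 h3
  refine h1.trans ?_
  calc ((X.F j).M * (X.F j).ρ : ℝ) * _ ≤ ((X.F j).M * (X.F j).ρ : ℝ) *
        (33 * (((X.F j).M / (X.F j).ρ : ℝ) * ‖x - y‖)) := by
        apply mul_le_mul_of_nonneg_left _ (by positivity)
        linarith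
    _ = _ := by field_simp

theorem face_pt (h : X.Adm p δ) (N : ℕ) {k : κ} {j : ι} {z y y0 : E3} {d u : ℝ}
    (hz : z ∈ (X.F j).V) (hzP : z ∈ (X.C k).P) (hy : y ∈ (X.C k).P \ (X.C k).U)
    (hzy : ‖z - y‖ ≤ d) (hy0 : y0 ∉ (X.F j).V) (hzy0 : ‖z - y0‖ ≤ u) (hdu : d ≤ u)
    (hu : 8 * (X.m k : ℝ) * u ≤ (X.F j).ρ) :
    z ∈ FW (X.F j) ∧ ‖Sys.H h (N+1) z - z‖ ≤ 4 * (X.m k : ℝ)^2 * u ∧
      ∃ r ∈ (X.F j).rim, ‖Sys.H h (N+1) z - r‖ ≤
        (X.m k : ℝ)^2 * d + 2 * (X.m k : ℝ) * (δ / (X.F j).ρ) * u := by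
  obtain ⟨y', ⟨hyK, hyV⟩, hzy1⟩ := exit_pt (X.F j).cht.opU (X.F j).cht.clK (X.F j).cht.sub hz hy0
  have hzK := (X.F j).cht.sub hz
  have hm1 := Sys.m_one (X := X) k
  have hM1 := (X.F j).M_one
  have hMm : ((X.F j).M : ℝ) ≤ X.m k := by exact_mod_cast X.mF k j ⟨z, hz, hzP⟩
  have hρ := (X.F j).ρ_pos
  have hδ := h.d0
  have hd0 : 0 ≤ d := (norm_nonneg _).trans hzy
  have hu0 : 0 ≤ u := hd0.trans hdu
  have hzu := hzy1.trans hzy0
  have t0 := (Sys.gF h j).t0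
  have hw := wid_nonneg ((X.F j).e z)
  have hMu : ((X.F j).M / (X.F j).ρ : ℝ) * u ≤ 1/8 := by
    rw [div_mul_eq_mul_div, div_le_iff₀ hρ]
    have : ((X.F j).M : ℝ) * u ≤ X.m k * u := mul_le_mul_of_nonneg_right hMm hu0
    linarith
  -- depth
  have hdep : 1 - |(X.F j).e z 0| - wid ((X.F j).e z) ≤
      2 * (((X.F j).M / (X.F j).ρ : ℝ) * u) := by
    have h3 := lip_le (X.F j).cht.lip hzK hyK
    push_cast at h3
    have h4 : 1 ≤ |(X.F j).e y' 0| + wid ((X.F j).e y') := by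
      by_contra hlt
      exact hyV (((X.F j).cht.mem y' hyK).1 (not_le.1 hlt))
    have h5 := wid_sub_le ((X.F j).e y') ((X.F j).e z)
    have h6 := zero_sub_le ((X.F j).e y') ((X.F j).e z)
    rw [norm_sub_rev] at h5 h6
    have h7 := le_abs_self (|(X.F j).e y' 0| - |(X.F j).e z 0|)
    have h8 : ((X.F j).M / (X.F j).ρ : ℝ) * ‖z - y'‖ ≤ ((X.F j).M / (X.F j).ρ : ℝ) * u :=
      mul_le_mul_of_nonneg_left hzu (by positivity)
    linarith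
  -- height
  have hht : |(X.F j).e z 0| ≤ (X.F j).M * d / (X.F j).ρ := by
    rw [le_div_iff₀ hρ]
    have h1 := X.slab j k z hz hzP y hy
    have h2 : ((X.F j).M : ℝ) * ‖z - y‖ ≤ (X.F j).M * d :=
      mul_le_mul_of_nonneg_left hzy (by positivity)
    linarith
  have hht2 : |(X.F j).e z 0| ≤ 1/8 := by
    refine hht.trans (le_trans (le_of_eq_of_le (by ring) (mul_le_mul_of_nonneg_left hdu
      (by positivity : (0:ℝ) ≤ (X.F j).M / (X.F j).ρ))) hMu)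
  have hFW : z ∈ FW (X.F j) := by
    refine ⟨hz, ?_⟩
    show (1/2) * (1 - |(X.F j).e z 0|) < wid ((X.F j).e z)
    linarith
  obtain ⟨f1, f2, f3⟩ := fo_mem h hFW
  set τ := X.ηF δ j * (1 - qF p) with hτ
  have hτη : τ ≤ δ / (2 * (X.F j).M * (X.F j).ρ) := by
    have h1 := Sys.ηF_pos h j
    have h2 := qF_pos p
    have h3 : τ ≤ X.ηF δ j := by rw [hτ]; nlinarith
    exact h3
  refine ⟨hFW, ?_, ?_⟩
  · rw [H_fo h N hFW]
    have h1 := lip_le (X.F j).cht.lip' f1 ((X.F j).cht.maps hzK)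
    rw [(X.F j).cht.inv z hzK] at h1
    push_cast at h1
    refine h1.trans ?_
    calc ((X.F j).M * (X.F j).ρ : ℝ) * ‖fo τ ((X.F j).e z) - (X.F j).e z‖
        ≤ ((X.F j).M * (X.F j).ρ : ℝ) * (2 * (2 * (((X.F j).M / (X.F j).ρ : ℝ) * u))) := by
          apply mul_le_mul_of_nonneg_left _ (by positivity)
          linarith
      _ = 4 * ((X.F j).M : ℝ)^2 * u := by field_simp; ring
      _ ≤ 4 * (X.m k : ℝ)^2 * u := by gcongr
  · have hHK : Sys.H h (N+1) z ∈ (X.F j).K := (X.F j).cht.sub (Sys.H_mem h (N+1) hz)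
    have he : (X.F j).e (Sys.H h (N+1) z) = fo τ ((X.F j).e z) := by
      rw [H_fo h N hFW, (X.F j).cht.inv' _ f1]
    set D : ℝ := (X.F j).M * d / (X.F j).ρ + 4 * τ * (((X.F j).M / (X.F j).ρ : ℝ) * u) with hD
    have hD2 : 0 ≤ 4 * τ * (((X.F j).M / (X.F j).ρ : ℝ) * u) := by positivity
    obtain ⟨r, hr, hr2⟩ := (X.F j).near_aux hHK (d := D) (by
        rw [he, fo_zero]; linarith) (by
        rw [he, f3]
        have : 2 * τ * (1 - |(X.F j).e z 0| - wid ((X.F j).e z)) ≤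
            2 * τ * (2 * (((X.F j).M / (X.F j).ρ : ℝ) * u)) :=
          mul_le_mul_of_nonneg_left hdep (by positivity)
        linarith)
    refine ⟨r, hr, hr2.trans ?_⟩
    have e1 : ((X.F j).M : ℝ) * (X.F j).ρ * D =
        ((X.F j).M : ℝ)^2 * d + (4 * ((X.F j).M : ℝ)^2 * τ) * u := by
      rw [hD]; field_simp
    rw [e1]
    have h1 : ((X.F j).M : ℝ)^2 * d ≤ (X.m k : ℝ)^2 * d := by gcongr
    have h2 : 4 * ((X.F j).M : ℝ)^2 * τ ≤ 2 * (X.m k : ℝ) * (δ / (X.F j).ρ) := by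
      calc 4 * ((X.F j).M : ℝ)^2 * τ ≤ 4 * ((X.F j).M : ℝ)^2 *
            (δ / (2 * (X.F j).M * (X.F j).ρ)) := by gcongr
        _ = 2 * ((X.F j).M : ℝ) * (δ / (X.F j).ρ) := by field_simp; ring
        _ ≤ _ := by gcongr
    have h3 : (4 * ((X.F j).M : ℝ)^2 * τ) * u ≤
        2 * (X.m k : ℝ) * (δ / (X.F j).ρ) * u := mul_le_mul_of_nonneg_right h2 hu0
    linarith

/-! ### both -/

/-- **where `chi` maps a point near the edges** -/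
theorem chi_pt (h : X.Adm p δ) (N₁ N₂ : ℕ) {k : κ} {x y0 : E3} {u : ℝ} (hx : x ∈ (X.C k).U)
    (hy : y0 ∉ (X.C k).U) (hyV : ∀ j, y0 ∉ (X.F j).V) (hxy : ‖x - y0‖ ≤ u)
    (hu : 4 * (X.m k : ℝ) * u ≤ (X.C k).R)
    (huF : ∀ j, ((X.F j).V ∩ (X.C k).P).Nonempty → 40 * (X.m k : ℝ)^3 * u ≤ (X.F j).ρ) :
    x ∈ CW (X.C k) ∧ ‖Sys.chi h (N₁+1) (N₂+1) x - x‖ ≤ 24 * (X.m k : ℝ)^4 * u ∧
    ((∀ j, Sys.Y h (N₂+1) x ∉ (X.F j).V) →
      (∃ y ∈ X.Z, ‖Sys.chi h (N₁+1) (N₂+1) x - y‖ ≤ δ / (X.C k).R * u) ∨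
      ∃ j, ∃ y ∈ (X.F j).rim, ‖Sys.chi h (N₁+1) (N₂+1) x - y‖ ≤
        3 * (X.m k : ℝ)^2 * (δ / (X.C k).R) * u) ∧
    ∀ j, Sys.Y h (N₂+1) x ∈ (X.F j).V → Sys.Y h (N₂+1) x ∈ FW (X.F j) ∧
      ∃ y ∈ (X.F j).rim, ‖Sys.chi h (N₁+1) (N₂+1) x - y‖ ≤
        (X.m k : ℝ)^2 * (δ / (X.C k).R) * u + 10 * (X.m k : ℝ)^3 * (δ / (X.F j).ρ) * u := by
  obtain ⟨a1, a2, y, hy1, hy2⟩ := cell_pt h N₂ hx hy hxy hu
  have hm1 := Sys.m_one (X := X) k
  have hu0 : 0 ≤ u := (norm_nonneg _).trans hxy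
  have hR := (X.C k).R_pos
  have hδ := h.d0
  have hm2 : (1:ℝ) ≤ (X.m k : ℝ)^2 := one_le_pow₀ hm1
  have hm4 : (1:ℝ) ≤ (X.m k : ℝ)^4 := one_le_pow₀ hm1
  have hYP : Sys.Y h (N₂+1) x ∈ (X.C k).P := (Sys.Y_P h (N₂+1) k x).2 ((X.C k).cht.sub hx)
  have hm24 : (X.m k : ℝ)^2 ≤ (X.m k : ℝ)^4 := pow_le_pow_right₀ hm1 (by norm_num)
  -- the face step
  have F : ∀ j, Sys.Y h (N₂+1) x ∈ (X.F j).V → Sys.Y h (N₂+1) x ∈ FW (X.F j) ∧
      ‖Sys.chi h (N₁+1) (N₂+1) x - Sys.Y h (N₂+1) x‖ ≤ 20 * (X.m k : ℝ)^4 * u ∧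
      ∃ y ∈ (X.F j).rim, ‖Sys.chi h (N₁+1) (N₂+1) x - y‖ ≤
        (X.m k : ℝ)^2 * (δ / (X.C k).R) * u + 10 * (X.m k : ℝ)^3 * (δ / (X.F j).ρ) * u := by
    intro j hj
    have hρ := (X.F j).ρ_pos
    have h5 : (1 + 4 * (X.m k : ℝ)^2) * u ≤ 5 * (X.m k : ℝ)^2 * u := by
      apply mul_le_mul_of_nonneg_right _ hu0; linarith
    have hzy0 : ‖Sys.Y h (N₂+1) x - y0‖ ≤ 5 * (X.m k : ℝ)^2 * u := by
      have e1 : Sys.Y h (N₂+1) x - y0 = (Sys.Y h (N₂+1) x - x) + (x - y0) := by abel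
      rw [e1]
      refine (norm_add_le _ _).trans ?_
      linarith
    have hdu : δ / (X.C k).R * u ≤ 5 * (X.m k : ℝ)^2 * u := by
      have h1 : δ / (X.C k).R ≤ 1 := by rw [div_le_one hR]; exact h.dC k
      apply mul_le_mul_of_nonneg_right _ hu0
      linarith
    obtain ⟨b1, b2, r, hr, hr2⟩ := face_pt h N₁ hj hYP hy1 hy2 (hyV j) hzy0 hdu (by
      have := huF j ⟨_, hj, hYP⟩
      calc 8 * (X.m k : ℝ) * (5 * (X.m k : ℝ)^2 * u) = 40 * (X.m k : ℝ)^3 * u := by ring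
        _ ≤ _ := this)
    refine ⟨b1, b2.trans (le_of_eq (by ring)), r, hr, hr2.trans (le_of_eq (by ring))⟩
  refine ⟨a1, ?_, ?_, fun j hj => ⟨(F j hj).1, (F j hj).2.2⟩⟩
  · have e1 : Sys.chi h (N₁+1) (N₂+1) x - x = (Sys.chi h (N₁+1) (N₂+1) x - Sys.Y h (N₂+1) x) +
        (Sys.Y h (N₂+1) x - x) := by abel
    rw [e1]
    refine (norm_add_le _ _).trans ?_
    have h4 : 4 * (X.m k : ℝ)^2 * u ≤ 4 * (X.m k : ℝ)^4 * u := by gcongr
    by_cases hV : ∃ j, Sys.Y h (N₂+1) x ∈ (X.F j).V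
    · obtain ⟨j, hj⟩ := hV
      have := (F j hj).2.1
      linarith
    · push Not at hV
      have : Sys.chi h (N₁+1) (N₂+1) x = Sys.Y h (N₂+1) x := Sys.H_out h (N₁+1) hV
      rw [this, sub_self, norm_zero]
      have : 0 ≤ 20 * (X.m k : ℝ)^4 * u := by positivity
      linarith
  · intro hV
    have e2 : Sys.chi h (N₁+1) (N₂+1) x = Sys.Y h (N₂+1) x := Sys.H_out h (N₁+1) hV
    rw [e2]
    rcases X.hZ k y hy1 with h5 | ⟨j, hj1, hj2⟩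
    · exact Or.inl ⟨y, h5, hy2⟩
    · right
      obtain ⟨r, hr, hyr⟩ := (X.F j).exit hj1 hj2 (hV j) hy2
      refine ⟨j, r, hr, ?_⟩
      have hMm : ((X.F j).M : ℝ) ≤ X.m k := by exact_mod_cast X.mF k j ⟨y, hj1, hy1.1⟩
      have hM1 := (X.F j).M_one
      have h7 : ‖Sys.Y h (N₂+1) x - r‖ ≤ ‖Sys.Y h (N₂+1) x - y‖ + ‖y - r‖ :=
        norm_sub_le_norm_sub_add_norm_sub _ _ _
      have h8 : ((X.F j).M * (X.F j).M : ℝ) ≤ (X.m k : ℝ)^2 := by nlinarith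
      have h9 : 0 ≤ δ / (X.C k).R * u := by positivity
      calc ‖Sys.Y h (N₂+1) x - r‖ ≤ (1 + 2 * ((X.F j).M * (X.F j).M : ℝ)) *
            (δ / (X.C k).R * u) := by linarith
        _ ≤ (3 * (X.m k : ℝ)^2) * (δ / (X.C k).R * u) :=
            mul_le_mul_of_nonneg_right (by linarith) h9
        _ = _ := by ring

/-- **local Lipschitz constant of `chi` near the edges** -/
theorem chi_llv (h : X.Adm p δ) (N₁ N₂ : ℕ) {k : κ} {x : E3} (hx : x ∈ CW (X.C k))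
    (hV : ∀ j, Sys.Y h (N₂+1) x ∈ (X.F j).V → Sys.Y h (N₂+1) x ∈ FW (X.F j))
    (hK : ∀ j, Sys.Y h (N₂+1) x ∉ (X.F j).K \ (X.F j).V) :
    LLV (528 * (X.m k : ℝ)^4) (Sys.chi h (N₁+1) (N₂+1)) x := by
  have hm1 := Sys.m_one (X := X) k
  have hMm : ((X.C k).M : ℝ) ≤ X.m k := by exact_mod_cast X.mC k
  have hM1 := (X.C k).M_one
  have hm24 : (X.m k : ℝ)^2 ≤ (X.m k : ℝ)^4 := pow_le_pow_right₀ hm1 (by norm_num)
  have hYP : Sys.Y h (N₂+1) x ∈ (X.C k).P :=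
    (Sys.Y_P h (N₂+1) k x).2 ((X.C k).cht.sub hx.1)
  have h2 : ((X.C k).M:ℝ) * (X.C k).M ≤ (X.m k : ℝ)^2 := by nlinarith
  have ct : Tendsto (Sys.Y h (N₂+1)) (𝓝 x) (𝓝 (Sys.Y h (N₂+1) x)) :=
    (Sys.Y h (N₂+1)).continuous.continuousAt
  have L : LLV (33 * (X.m k : ℝ)^2) (Sys.H h (N₁+1)) (Sys.Y h (N₂+1) x) := by
    by_cases hj : ∃ j, Sys.Y h (N₂+1) x ∈ (X.F j).V
    · obtain ⟨j, hj⟩ := hj
      have hMj : ((X.F j).M : ℝ) ≤ X.m k := by exact_mod_cast X.mF k j ⟨_, hj, hYP⟩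
      have hMj1 := (X.F j).M_one
      have h3 : ((X.F j).M:ℝ) * (X.F j).M ≤ (X.m k : ℝ)^2 := by nlinarith
      filter_upwards [(isOpen_FW (X.F j)).mem_nhds (hV j hj)] with y hy
      refine (H_lip h N₁ hy (hV j hj)).trans ?_
      have := norm_nonneg (y - Sys.Y h (N₂+1) x)
      gcongr
    · push Not at hj
      have hjK : ∀ j, Sys.Y h (N₂+1) x ∉ (X.F j).K := fun j hjj => hK j ⟨hjj, hj j⟩
      have : ∀ᶠ z in 𝓝 (Sys.Y h (N₂+1) x), ∀ j, z ∉ (X.F j).K :=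
        eventually_all.2 fun j => (X.F j).cht.clK.isOpen_compl.mem_nhds (hjK j)
      filter_upwards [this] with z hz
      rw [Sys.H_out h (N₁+1) fun j hjj => hz j ((X.F j).cht.sub hjj), Sys.H_out h (N₁+1) hj]
      have h3 := norm_nonneg (z - Sys.Y h (N₂+1) x)
      have h4 : (1:ℝ) ≤ 33 * (X.m k : ℝ)^2 := by nlinarith
      nlinarith
  filter_upwards [ct.eventually L, (isOpen_CW (X.C k)).mem_nhds hx] with y hy1 hy2
  have h3 := Y_lip h N₂ hy2 hx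
  have h4 := norm_nonneg (y - x)
  calc ‖Sys.chi h (N₁+1) (N₂+1) y - Sys.chi h (N₁+1) (N₂+1) x‖
      ≤ 33 * (X.m k : ℝ)^2 * ‖Sys.Y h (N₂+1) y - Sys.Y h (N₂+1) x‖ := hy1
    _ ≤ 33 * (X.m k : ℝ)^2 * (16 * (X.m k : ℝ)^2 * ‖y - x‖) := by
        apply mul_le_mul_of_nonneg_left _ (by positivity)
        refine h3.trans ?_
        gcongr
    _ = _ := by ring

end Crest.Agent.R096.Sqt_143
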