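import Crest.Agent.R096.Cbs2_296
import Crest.Agent.R096.Pin1_753
import Crest.Agent.R96.Gam1_538
import Crest.Agent.R96.Intr22_538

/-!
Row 96 (S0127), helper968, leaf [C6] (622 #11695): the clause `gam` of `Pin_753.InP` for
`f₂ = R ∘ f ∘ Φ ∘ chi`: closeness to the affine map on the tubes of the edges of the core.
-/

set_option autoImplicit false
set_option linter.unusedSectionVars false

open Set Metric Filter Topology MeasureTheory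

namespace Crest.Agent.R096.Gam_968

open Crest.AnalysisR.VecCalc3
open Crest.Agent.R096.Msh_715 (P I Tiling)
open Crest.Agent.R096.Mal_874 (CB)
open Crest.Agent.R096.Sq_55 (E3 Sys Face Cell FaceOf w2 toR toR_apply GG)
open Crest.Agent.R096.Sk2_855 (sk1 Mv)
open Crest.Agent.R096.Cob_622 (w2_lip)
open Crest.Agent.R096.Efi_296
open Crest.Agent.R096.Cbs_296
open Crest.Agent.R096.Pin_753
open Crest.Agent.R96.Coarse_538 (seg Cb)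
open Crest.Agent.R96.Intr_538 (cel)
open Crest.Agent.R96.En10_199 (P3)
open scoped ENNReal NNReal

section sys

variable {OmR : Set R3} {ι : Type*} {T : Tiling OmR ι} {s : Finset ι}
  {pr : (Te T).Cell → Prop} {c : ι → E3} {R : ι → ℝ≥0} {ρ : E3 → ℝ≥0} {m : ι → ℝ≥0}
  {X : Sys s (reps (Te T) s pr)}

/-- the closed 1-cells of the used tiles -/
def T1s (T : Tiling OmR ι) (s : Finset ι) : Set E3 := ⋃ c ∈ EgS (Te T) s, c.set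

/-- the rims and `Z`, off the unsqueezed faces, consist of closed 1-cells -/
lemma mem_T1s (h : SysOf (Te T) s pr c R ρ m X) {y : E3}
    (hy : y ∈ X.Z ∨ ∃ j, y ∈ (X.F j).rim) (hf : ∀ b ∈ FcS (Te T) s pr, y ∉ b.set) :
    y ∈ T1s T s := by
  rcases hy with hy | ⟨j, hy⟩
  · rw [h.Z] at hy
    rcases hy with hy | hy
    · exact hy
    · obtain ⟨b, hb, hyb⟩ := mem_iUnion₂.1 hy
      exact absurd hyb (hf b hb)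
  · rw [h.rim] at hy
    have h1 := reps_dim j.2
    have h2 := bdry_sub h1.1 h1.2 (reps_tile j.2) hy
    obtain ⟨b, -, hyb⟩ := mem_iUnion₂.1 h2
    exact mem_iUnion₂.2 ⟨b.1, b.2, hyb⟩

/-- the points of the closed 1-cells -/
lemma T1s_sk1 {y : E3} (hy : y ∈ T1s T s) : w2 y ∈ sk1 T := by
  obtain ⟨b, hb, hyb⟩ := mem_iUnion₂.1 hy
  have h1 : y ∈ sk1 (Te T) := ⟨mem_Om_of_set hyb, (dim_le_of_set hyb).trans hb.1.le⟩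
  rw [Ttr_622.mem_sk1_tr] at h1
  exact h1

/-- **GAM for one system of cells**: `f ∘ Φ ∘ chi` is close to the affine map near a part `E` of
the 1-skeleton -/
theorem gam_sys (h : SysOf (Te T) s pr c R ρ m X) {f Φ : R3 → R3}
    {Om : Set R3} (hF : ContinuousOn (fun y => f (Φ y)) Om)
    (hΦ : ∀ y ∈ sk1 T, Φ y = y) {b z : R3} {L : R3 →L[ℝ] R3} {r ε0 : ℝ}
    (hcelO : cel Cb z r ⊆ Om)
    (hnear : ∀ y ∈ T1s T s, w2 y ∈ cel Cb z r → ‖f (w2 y) - (b + L (w2 y - z))‖ ≤ ε0)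
    {E : Set E3} (hE1 : ∀ y ∈ E, w2 y ∈ sk1 T) {u u1 m₀ : ℝ}
    (hm₀ : 1 ≤ m₀) (hu0 : 0 ≤ u) (hu : u < u1)
    (hcov : ∀ y ∈ E, ∀ x, ‖x - y‖ ≤ u → ∃ k ∈ s, x ∈ P ((Te T).H k))
    (hR : ∀ y0 ∈ E, ∀ k ∈ s, ∀ x ∈ P ((Te T).H k), ‖x - y0‖ ≤ u1 →
      (m k : ℝ) ≤ m₀ ∧ 40 * m₀^4 * u1 ≤ R k)
    (hρ : ∀ x ∈ reps (Te T) s pr, ∀ k ∈ (Te T).at_ x, k ∈ s → R k ≤ m k * ρ x)
    (hfc : ∀ b ∈ FcS (Te T) s pr, ∀ y ∈ b.set, ∀ y0 ∈ E, 26 * m₀^4 * u1 < ‖y - y0‖)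
    (hcel : ∀ y0 ∈ E, ∀ y, ‖y - y0‖ ≤ 26 * m₀^4 * u1 → w2 y ∈ cel Cb z r) {e : ℝ} (he : 0 < e) :
    ∃ δ₀ : ℝ, 0 < δ₀ ∧ ∀ (p δ : ℝ) (h : X.Adm p δ), δ < δ₀ → ∀ N₁ N₂ : ℕ, ∀ y0 ∈ E, ∀ x,
      ‖x - y0‖ ≤ u → ‖f (Φ (w2 (Sys.chi h (N₁+1) (N₂+1) x))) - (b + L (w2 x - z))‖ ≤
        ε0 + 2 * ‖L‖ * (25 * m₀^4 * u1) + e := by
  have hu1 : 0 < u1 := hu0.trans_lt hu
  have hm4 : (1:ℝ) ≤ m₀^4 := one_le_pow₀ hm₀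
  have hm34 : m₀^3 ≤ m₀^4 := pow_le_pow_right₀ hm₀ (by norm_num)
  have hm14 : m₀ ≤ m₀^4 := by
    calc m₀ = m₀^1 := (pow_one _).symm
      _ ≤ _ := pow_le_pow_right₀ hm₀ (by norm_num)
  have hdim : ∀ y ∈ E, y ∈ (P3.symm : R3 ≃L[ℝ] E3).symm ⁻¹' OmR ∧ (Te T).dim y ≤ 1 := by
    intro y hy
    have h1 := hE1 y hy
    have h2 : y ∈ sk1 (Te T) := by
      rw [Ttr_622.mem_sk1_tr]
      exact h1
    exact h2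
  refine Crest.Agent.R96.Gam_538.gam_tube (X := X) (E := E) (u := u) (u1 := u1) (m := m₀) hm₀ hu0
    hu (fun y hy k => h.off_U (hdim y hy).1 ((hdim y hy).2.trans (by norm_num)) k)
    (fun y hy j => h.off_V (hdim y hy).1 (hdim y hy).2 j) ?_ ?_ (T1 := T1s T s) ?_
    (F := fun y => f (Φ y)) (K' := w2 ⁻¹' cel Cb z r) ?_ ?_ ?_
    (A := fun y => b + L (w2 y - z)) (Λ := 2 * ‖L‖) (ε0 := ε0) ?_ (by positivity) ?_ he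
  · intro y hy x hx
    obtain ⟨k, hk, hxk⟩ := hcov y hy x hx
    exact ⟨⟨k, hk⟩, by rw [h.eP]; exact hxk⟩
  · intro y hy k x hx hxy
    rw [h.eP] at hx
    obtain ⟨h1, h2⟩ := hR y hy k k.2 x hx hxy
    rw [h.em, h.eR]
    refine ⟨h1, ?_, fun j hj => ?_⟩
    · calc 4 * m₀ * u1 ≤ 40 * m₀^4 * u1 := by gcongr; linarith
        _ ≤ _ := h2
    · have h3 := hρ j j.2 k (h.at_of_V hj) k.2
      rw [h.eρ]
      have h4 : ((R k : ℝ≥0) : ℝ) ≤ m k * ρ j := by exact_mod_cast h3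
      have h5 : ((R k : ℝ≥0) : ℝ) ≤ m₀ * ρ j :=
        h4.trans (mul_le_mul_of_nonneg_right h1 (ρ j).coe_nonneg)
      have h6 : m₀ * (40 * m₀^3 * u1) ≤ m₀ * ρ j := by
        calc m₀ * (40 * m₀^3 * u1) = 40 * m₀^4 * u1 := by ring
          _ ≤ _ := h2.trans h5
      exact le_of_mul_le_mul_left h6 (by linarith)
  · rintro y hy ⟨y0, hy0, hyy⟩
    refine mem_T1s h hy fun b hb hyb => ?_
    have := hfc b hb y hyb y0 hy0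
    linarith
  · have h1 : IsCompact (cel Cb z r) :=
      Crest.Agent.R96.Intr_538.isCompact_cel Crest.Agent.R96.Coarse_538.ref_Cb.cpt z r
    exact w2.isCompact_preimage.2 h1
  · refine hF.mono ?_
    rintro _ ⟨y, hy, rfl⟩
    exact hcelO hy
  · intro y0 hy0 y hy
    rw [mem_closedBall, dist_eq_norm] at hy
    exact hcel y0 hy0 y hy
  · intro y y'
    have e1 : b + L (w2 y - z) - (b + L (w2 y' - z)) = L (w2 y - w2 y') := by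
      rw [map_sub, map_sub, map_sub]
      abel
    rw [e1]
    calc _ ≤ ‖L‖ * ‖w2 y - w2 y'‖ := L.le_opNorm _
      _ ≤ ‖L‖ * (2 * ‖y - y'‖) := mul_le_mul_of_nonneg_left (w2_lip y y') (norm_nonneg _)
      _ = _ := by ring
  · rintro y hy ⟨y0, hy0, hyy⟩
    show ‖f (Φ (w2 y)) - (b + L (w2 y - z))‖ ≤ ε0
    rw [hΦ _ (T1s_sk1 hy)]
    exact hnear y hy (hcel y0 hy0 y hyy)

end sys

/-- the closed 1-cells at the core of the block -/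
def Gc (Q : CB R3 3) (k0 : ℕ) (hk : Q.kc ≤ k0) : Set R3 :=
  {y | ∃ x ∈ Q.Kc, (Q.T k0 hk).dim x = 1 ∧ y ∈ (Q.T k0 hk).cc x}

lemma w2_add (x y : E3) : w2 (x + y) = w2 x + w2 y := rfl

lemma w2s_add (x y : R3) : w2.symm (x + y) = w2.symm x + w2.symm y := rfl

lemma w2s_norm (x : R3) : ‖w2.symm x‖ ≤ ‖x‖ := by
  refine (pi_norm_le_iff_of_nonneg (norm_nonneg x)).2 fun i => ?_
  exact PiLp.norm_apply_le x i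

/-- the translations of the block are small -/
lemma norm_Tw {Q : CB R3 3} {k0 : ℕ} {κ : ℝ} (hκ : 0 < κ) (hc : ∀ v, κ / 4 * ‖v‖ ≤ ‖Q.ψ v‖)
    {w : R3} (hw : w ∈ Tw Q k0) : ‖w‖ ≤ 4 * κ⁻¹ / (5 * 2 ^ k0) := by
  have h1 : ‖Q.ψ w‖ ≤ 1 / (5 * 2 ^ k0) := hw
  have h2 := (hc w).trans h1
  have h3 : ‖w‖ = 4 * κ⁻¹ * (κ / 4 * ‖w‖) := by field_simp
  rw [h3]
  calc 4 * κ⁻¹ * (κ / 4 * ‖w‖) ≤ 4 * κ⁻¹ * (1 / (5 * 2 ^ k0)) := by gcongr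
    _ = _ := by ring

variable {OmR : Set R3} {ι : Type*} {T : Tiling OmR ι} {s : Finset ι}
  {pr : (Te T).Cell → Prop} {c : ι → E3} {R : ι → ℝ≥0} {ρ : E3 → ℝ≥0} {m : ι → ℝ≥0}
  {X : Sys s (reps (Te T) s pr)}

/-- **the clause `gam` of `Pin_753.InP`** -/
theorem gam_inP (h : SysOf (Te T) s pr c R ρ m X) {f Φ : R3 → R3}
    {Om : Set R3} (hF : ContinuousOn (fun y => f (Φ y)) Om)
    (hΦ : ∀ y ∈ sk1 T, Φ y = y) {b z : R3} {L : R3 →L[ℝ] R3} {r ε0 : ℝ}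
    (hcelO : cel Cb z r ⊆ Om)
    (hnear : ∀ y ∈ T1s T s, w2 y ∈ cel Cb z r → ‖f (w2 y) - (b + L (w2 y - z))‖ ≤ ε0)
    {Q : CB R3 3} {k0 : ℕ} (hk : Q.kc ≤ k0) {κ : ℝ} (hκ : 0 < κ)
    (hc : ∀ v, κ / 4 * ‖v‖ ≤ ‖Q.ψ v‖) (hG : ∀ y ∈ Gc Q k0 hk, y ∈ sk1 T) {u u1 m₀ : ℝ}
    (hm₀ : 1 ≤ m₀) (hu0 : 4 * κ⁻¹ / (5 * 2 ^ k0) ≤ u) (hu : u < u1)
    (hcov : ∀ y ∈ Gc Q k0 hk, ∀ y' : R3, (∀ i, |y' i - y i| ≤ u) → ∃ k ∈ s, y' ∈ P (T.H k))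
    (hR : ∀ y ∈ Gc Q k0 hk, ∀ k ∈ s, ∀ y' ∈ P (T.H k), (∀ i, |y' i - y i| ≤ u1) →
      (m k : ℝ) ≤ m₀ ∧ 40 * m₀^4 * u1 ≤ R k)
    (hρ : ∀ x ∈ reps (Te T) s pr, ∀ k ∈ (Te T).at_ x, k ∈ s → R k ≤ m k * ρ x)
    (hfc : ∀ b ∈ FcS (Te T) s pr, ∀ y ∈ b.set, ∀ y0 ∈ Gc Q k0 hk,
      26 * m₀^4 * u1 < ‖y - w2.symm y0‖)
    (hr : 0 < r) (hcel : ∀ y ∈ Gc Q k0 hk, ∀ i, |y i - z i| ≤ r - 26 * m₀^4 * u1) {e : ℝ}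
    (he : 0 < e)
    {σ κw sz : ℝ} (hnum : 3 * σ + ε0 + 50 * ‖L‖ * m₀^4 * u1 + e ≤ κw * sz) :
    ∃ δ₀ : ℝ, 0 < δ₀ ∧ ∀ (p δ : ℝ) (h : X.Adm p δ), δ < δ₀ → ∀ (N₁ N₂ : ℕ) (Rr : R3 → R3),
      (∀ y, ‖Rr y - y‖ ≤ 3 * σ) →
      ∀ x ∈ Q.Kc, (Q.T k0 hk).dim x = 1 → ∀ y ∈ (Q.T k0 hk).cc x, ∀ w ∈ Tw Q k0,
        ‖Rr (f (Φ (toR (Sys.chi h (N₁+1) (N₂+1)) (y + w)))) - Bk b L z (y + w)‖ ≤ κw * sz := by
  have hu0' : 0 ≤ u := le_trans (by positivity) hu0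
  have hu1 : 0 < u1 := hu0'.trans_lt hu
  have sup : ∀ x y : E3, ∀ r : ℝ, ‖x - y‖ ≤ r → ∀ i, |x i - y i| ≤ r := by
    intro x y r hr i
    exact (norm_le_pi_norm (x - y) i).trans hr
  have memP : ∀ (k : ι) (x : E3), x ∈ P ((Te T).H k) ↔ w2 x ∈ P (T.H k) := by
    intro k x
    rw [Ttr_622.mem_P_tr]
    exact Iff.rfl
  obtain ⟨δ₀, hδ₀, H⟩ := gam_sys h hF hΦ hcelO hnear (E := w2.symm '' Gc Q k0 hk)
    (by rintro _ ⟨y, hy, rfl⟩; rw [w2.apply_symm_apply]; exact hG y hy) hm₀ hu0' hu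
    (by
      rintro _ ⟨y, hy, rfl⟩ x hx
      obtain ⟨k, hk, h1⟩ := hcov y hy (w2 x) (sup _ _ _ hx)
      exact ⟨k, hk, (memP k x).2 h1⟩)
    (by
      rintro _ ⟨y, hy, rfl⟩ k hk x hx hxy
      exact hR y hy k hk (w2 x) ((memP k x).1 hx) (sup _ _ _ hxy))
    hρ
    (by
      rintro b hb y hy _ ⟨y0, hy0, rfl⟩
      exact hfc b hb y hy y0 hy0)
    (by
      rintro _ ⟨y0, hy0, rfl⟩ y hy
      rw [Crest.Agent.R96.Coarse_538.mem_cel hr]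
      intro i
      have h1 := hcel y0 hy0 i
      have h2 : |w2 y i - y0 i| ≤ 26 * m₀^4 * u1 := sup _ _ _ hy i
      calc |w2 y i - z i| = |(w2 y i - y0 i) + (y0 i - z i)| := by congr 1; ring
        _ ≤ |w2 y i - y0 i| + |y0 i - z i| := abs_add_le _ _
        _ ≤ r := by linarith) he
  refine ⟨δ₀, hδ₀, fun p δ h hδ N₁ N₂ Rr hRr x hx hd y hy w hw => ?_⟩
  have h1 := H p δ h hδ N₁ N₂ (w2.symm y) ⟨y, ⟨x, hx, hd, hy⟩, rfl⟩ (w2.symm (y + w)) (by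
    rw [w2s_add, add_sub_cancel_left]
    exact (w2s_norm w).trans ((norm_Tw hκ hc hw).trans hu0))
  rw [w2.apply_symm_apply] at h1
  set F := f (Φ (w2 (Sys.chi h (N₁+1) (N₂+1) (w2.symm (y + w))))) with hFd
  have h2 : f (Φ (toR (Sys.chi h (N₁+1) (N₂+1)) (y + w))) = F := by rw [toR_apply]
  rw [h2]
  show ‖Rr F - (b + L (y + w - z))‖ ≤ _
  calc ‖Rr F - (b + L (y + w - z))‖ = ‖(Rr F - F) + (F - (b + L (y + w - z)))‖ := by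
        congr 1; abel
    _ ≤ 3 * σ + (ε0 + 2 * ‖L‖ * (25 * m₀^4 * u1) + e) :=
        (norm_add_le _ _).trans (add_le_add (hRr F) h1)
    _ ≤ _ := by
        refine le_trans (le_of_eq ?_) hnum
        ring

/-- the points of the closed 1-cells in the segments of a perfect cube -/
lemma near_of_me {κe : Type*} {x v : κe → R3} {a : R3}
    {me : EgS (Te T) s → κe} (hme : ∀ c, w2 '' c.1.set = seg x v a (me c)) {f : R3 → R3}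
    {p κ τ σ₀ η t sz : ℝ} {D : R3 → R3 →L[ℝ] R3} {b z : R3} {L : R3 →L[ℝ] R3}
    (hP : Crest.Agent.R96.Coarse_538.PerfG x v p OmR f D κ τ σ₀ η t sz a z b L) :
    ∀ y ∈ T1s T s, w2 y ∈ cel Cb z ((1 - σ₀) * sz) →
      ‖f (w2 y) - (b + L (w2 y - z))‖ ≤ η * t := by
  intro y hy hyc
  obtain ⟨b', hb, hyb⟩ := mem_iUnion₂.1 hy
  have h1 : w2 y ∈ seg x v a (me ⟨b', hb⟩) := by
    rw [← hme]
    exact mem_image_of_mem _ hyb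
  exact (hP.near _ _ h1 hyc _ h1).2

/-- the same from `MeshG` -/
lemma near_of_mesh {κe : Type*} {x v : κe → R3} {a : R3} {W : Set R3}
    (hM : Crest.Agent.R96.Gdt_538.MeshG T x v a W) {f : R3 → R3}
    {p κ τ σ₀ η t sz : ℝ} {D : R3 → R3 →L[ℝ] R3} {b z : R3} {L : R3 →L[ℝ] R3}
    (hW : cel Cb z ((1 - σ₀) * sz) ⊆ W)
    (hP : Crest.Agent.R96.Coarse_538.PerfG x v p OmR f D κ τ σ₀ η t sz a z b L) :
    ∀ y ∈ T1s T s, w2 y ∈ cel Cb z ((1 - σ₀) * sz) →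
      ‖f (w2 y) - (b + L (w2 y - z))‖ ≤ η * t := by
  intro y hy hyc
  obtain ⟨e, -, h1⟩ := hM.edge _ (T1s_sk1 hy) (hW hyc)
  exact (hP.near _ _ h1 hyc _ h1).2

/-- the inner cube lies in the domain -/
lemma cel_sub_of_perf {κe : Type*} {x v : κe → R3} {a : R3} {f : R3 → R3}
    {p κ τ σ₀ η t sz : ℝ} {D : R3 → R3 →L[ℝ] R3} {b z : R3} {L : R3 →L[ℝ] R3} (hσ0 : 0 < σ₀)
    (hσ1 : σ₀ < 1) (hsz : 0 < sz)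
    (hP : Crest.Agent.R96.Coarse_538.PerfG x v p OmR f D κ τ σ₀ η t sz a z b L) :
    cel Cb z ((1 - σ₀) * sz) ⊆ OmR := by
  have hr : 0 < (1 - σ₀) * sz := mul_pos (by linarith) hsz
  refine Subset.trans ?_ hP.sub
  intro y hy
  rw [Crest.Agent.R96.Coarse_538.mem_cel hr] at hy
  rw [Crest.Agent.R96.Coarse_538.mem_cel hsz]
  intro i
  refine (hy i).trans ?_
  nlinarith

/-- **the clause `gam` for a perfect cube** (`hnear` from `near_of_me` or `near_of_mesh`) -/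
theorem gam_perf' (h : SysOf (Te T) s pr c R ρ m X) {κe : Type*} {x v : κe → R3} {a : R3}
    {f : R3 → R3}
    (hf : ContinuousOn f OmR) {Φ : R3 ≃ₜ R3} (hΦ : Mv T Φ) {p κ τ σ₀ η t sz : ℝ}
    {D : R3 → R3 →L[ℝ] R3} {b z : R3} {L : R3 →L[ℝ] R3} (hκ : 0 < κ) (hσ0 : 0 < σ₀)
    (hσ1 : σ₀ < 1) (hsz : 0 < sz)
    (hP : Crest.Agent.R96.Coarse_538.PerfG x v p OmR f D κ τ σ₀ η t sz a z b L)
    (hnear : ∀ y ∈ T1s T s, w2 y ∈ cel Cb z ((1 - σ₀) * sz) →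
      ‖f (w2 y) - (b + L (w2 y - z))‖ ≤ η * t)
    {Q : CB R3 3} {k0 : ℕ} (hk : Q.kc ≤ k0)
    (hc : ∀ v, κ / 4 * ‖v‖ ≤ ‖Q.ψ v‖) (hG : ∀ y ∈ Gc Q k0 hk, y ∈ sk1 T) {u u1 m₀ : ℝ}
    (hm₀ : 1 ≤ m₀) (hu0 : 4 * κ⁻¹ / (5 * 2 ^ k0) ≤ u) (hu : u < u1)
    (hcov : ∀ y ∈ Gc Q k0 hk, ∀ y' : R3, (∀ i, |y' i - y i| ≤ u) → ∃ k ∈ s, y' ∈ P (T.H k))
    (hR : ∀ y ∈ Gc Q k0 hk, ∀ k ∈ s, ∀ y' ∈ P (T.H k), (∀ i, |y' i - y i| ≤ u1) →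
      (m k : ℝ) ≤ m₀ ∧ 40 * m₀^4 * u1 ≤ R k)
    (hρ : ∀ x ∈ reps (Te T) s pr, ∀ k ∈ (Te T).at_ x, k ∈ s → R k ≤ m k * ρ x)
    (hfc : ∀ b ∈ FcS (Te T) s pr, ∀ y ∈ b.set, ∀ y0 ∈ Gc Q k0 hk,
      26 * m₀^4 * u1 < ‖y - w2.symm y0‖)
    (hcel : ∀ y ∈ Gc Q k0 hk, ∀ i, |y i - z i| ≤ (1 - σ₀) * sz - 26 * m₀^4 * u1) {e : ℝ}
    (he : 0 < e) {σ κw : ℝ} (hnum : 3 * σ + η * t + 50 * κ⁻¹ * m₀^4 * u1 + e ≤ κw * sz) :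
    ∃ δ₀ : ℝ, 0 < δ₀ ∧ ∀ (p δ : ℝ) (h : X.Adm p δ), δ < δ₀ → ∀ (N₁ N₂ : ℕ) (Rr : R3 → R3),
      (∀ y, ‖Rr y - y‖ ≤ 3 * σ) →
      ∀ x ∈ Q.Kc, (Q.T k0 hk).dim x = 1 → ∀ y ∈ (Q.T k0 hk).cc x, ∀ w ∈ Tw Q k0,
        ‖Rr (f (Φ (toR (Sys.chi h (N₁+1) (N₂+1)) (y + w)))) - Bk b L z (y + w)‖ ≤ κw * sz := by
  have hr : 0 < (1 - σ₀) * sz := mul_pos (by linarith) hsz
  have hu1 : 0 < u1 := lt_of_le_of_lt (le_trans (by positivity) hu0) hu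
  refine gam_inP h (f := f) (Φ := Φ) (Om := OmR)
    (hf.comp Φ.continuous.continuousOn hΦ.mapsTo) (fun y hy => hΦ.eq_on_sk1 hy) (b := b)
    (z := z) (L := L) (r := (1 - σ₀) * sz) (ε0 := η * t) (cel_sub_of_perf hσ0 hσ1 hsz hP)
    hnear hk hκ hc hG hm₀ hu0 hu hcov hR hρ hfc hr hcel he ?_
  refine le_trans ?_ hnum
  have h1 : 50 * ‖L‖ * m₀^4 * u1 ≤ 50 * κ⁻¹ * m₀^4 * u1 := by
    have := hP.up
    gcongr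
  linarith

/-- **the clause `gam` for a perfect cube**, with the map `me` of the edges -/
theorem gam_perf (h : SysOf (Te T) s pr c R ρ m X) {κe : Type*} {x v : κe → R3} {a : R3}
    {me : EgS (Te T) s → κe} (hme : ∀ c, w2 '' c.1.set = seg x v a (me c)) {f : R3 → R3}
    (hf : ContinuousOn f OmR) {Φ : R3 ≃ₜ R3} (hΦ : Mv T Φ) {p κ τ σ₀ η t sz : ℝ}
    {D : R3 → R3 →L[ℝ] R3} {b z : R3} {L : R3 →L[ℝ] R3} (hκ : 0 < κ) (hσ0 : 0 < σ₀)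
    (hσ1 : σ₀ < 1) (hsz : 0 < sz)
    (hP : Crest.Agent.R96.Coarse_538.PerfG x v p OmR f D κ τ σ₀ η t sz a z b L)
    {Q : CB R3 3} {k0 : ℕ} (hk : Q.kc ≤ k0)
    (hc : ∀ v, κ / 4 * ‖v‖ ≤ ‖Q.ψ v‖) (hG : ∀ y ∈ Gc Q k0 hk, y ∈ sk1 T) {u u1 m₀ : ℝ}
    (hm₀ : 1 ≤ m₀) (hu0 : 4 * κ⁻¹ / (5 * 2 ^ k0) ≤ u) (hu : u < u1)
    (hcov : ∀ y ∈ Gc Q k0 hk, ∀ y' : R3, (∀ i, |y' i - y i| ≤ u) → ∃ k ∈ s, y' ∈ P (T.H k))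
    (hR : ∀ y ∈ Gc Q k0 hk, ∀ k ∈ s, ∀ y' ∈ P (T.H k), (∀ i, |y' i - y i| ≤ u1) →
      (m k : ℝ) ≤ m₀ ∧ 40 * m₀^4 * u1 ≤ R k)
    (hρ : ∀ x ∈ reps (Te T) s pr, ∀ k ∈ (Te T).at_ x, k ∈ s → R k ≤ m k * ρ x)
    (hfc : ∀ b ∈ FcS (Te T) s pr, ∀ y ∈ b.set, ∀ y0 ∈ Gc Q k0 hk,
      26 * m₀^4 * u1 < ‖y - w2.symm y0‖)
    (hcel : ∀ y ∈ Gc Q k0 hk, ∀ i, |y i - z i| ≤ (1 - σ₀) * sz - 26 * m₀^4 * u1) {e : ℝ}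
    (he : 0 < e) {σ κw : ℝ} (hnum : 3 * σ + η * t + 50 * κ⁻¹ * m₀^4 * u1 + e ≤ κw * sz) :
    ∃ δ₀ : ℝ, 0 < δ₀ ∧ ∀ (p δ : ℝ) (h : X.Adm p δ), δ < δ₀ → ∀ (N₁ N₂ : ℕ) (Rr : R3 → R3),
      (∀ y, ‖Rr y - y‖ ≤ 3 * σ) →
      ∀ x ∈ Q.Kc, (Q.T k0 hk).dim x = 1 → ∀ y ∈ (Q.T k0 hk).cc x, ∀ w ∈ Tw Q k0,
        ‖Rr (f (Φ (toR (Sys.chi h (N₁+1) (N₂+1)) (y + w)))) - Bk b L z (y + w)‖ ≤ κw * sz :=
  gam_perf' h hf hΦ hκ hσ0 hσ1 hsz hP (near_of_me hme hP) hk hc hG hm₀ hu0 hu hcov hR hρ hfc hcel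
    he hnum

end Crest.Agent.R096.Gam_968
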