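import Crest.Agent.R096.Gam3_968
import Crest.Agent.R096.Onp2_622
import Crest.Agent.R096.She1_227

/-!
Row 96 (S0127), helper968, leaf [C6], part 3: `gam_T` over 622's `SetD`.
-/

set_option autoImplicit false
set_option linter.unusedSectionVars false

open Set Metric Filter Topology MeasureTheory

namespace Crest.Agent.R096.Gam_968

open Crest.AnalysisR.VecCalc3
open Crest.Agent.R096.Msh_715 (P I Tiling I_sub_P)
open Crest.Agent.R096.Mal_874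
open Crest.Agent.R096.Gsc_476
open Crest.Agent.R096.Ca_855
open Crest.Agent.R096.Ca_855.MIn (BQ)
open Crest.Agent.R096.Sq_55 (E3 Sys Face Cell FaceOf w2 toR toR_apply GG)
open Crest.Agent.R096.Sk2_855 (sk1 Mv)
open Crest.Agent.R096.Efi_296
open Crest.Agent.R096.Cbs_296
open Crest.Agent.R096.Pin_753
open Crest.Agent.R096.Dps_476
open Crest.Agent.R096.Onp_622 (SetD)
open Crest.Agent.R096.She_227 (sE mem_sE)
open Crest.Agent.R96.Coarse_538 (seg Cb PerfG mem_cel)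
open Crest.Agent.R96.Intr_538 (cel)
open Crest.Agent.R96.Gdt_538 (MeshG)
open scoped ENNReal NNReal

lemma sE_eq (e : R3 × R3) : sE e = w2.symm '' segment ℝ e.1 e.2 := by
  ext y
  rw [mem_sE]
  constructor
  · intro h
    exact ⟨_, h, w2.symm_apply_apply y⟩
  · rintro ⟨x, hx, rfl⟩
    rwa [w2.apply_symm_apply]

variable {Om W : Set R3} {ρ₀ : R3 → ℝ} {J : Type} {Qb : J → CB R3 3} {k0 : ℕ} {σ : ℝ}
  [Finite J] {h : MIn Om W ρ₀ Qb k0 σ} {a : R3}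

/-- **`NearG` from `SetD`** -/
theorem gam_S {p : ℝ} {kk : J → Fin 3 → ℤ} {Q : Finset (Fin 3 → ℤ)} {K1 K3 : ℕ}
    {vU vI vN : ℝ≥0} {f : R3 → R3} {Φ : R3 ≃ₜ R3} {U K₀ : Set R3} {s : Finset (h.ιT a)}
    {pr : (Te (h.T a)).Cell → Prop} {c : h.ιT a → E3} {κt : h.ιT a → ℕ} {R u : h.ιT a → ℝ≥0}
    {X : Sys s (reps (Te (h.T a)) s pr)}
    (hS : SetD p h a kk Q K1 K3 vU vI vN f Φ U K₀ s pr c κt R u X)
    (ha : ‖a‖ ≤ σ / 8) {κ : ℝ} {Bs Nn : ℕ} (hκ : 0 < κ) (hκ1 : κ ≤ 1) {j : J} (hj : kk j ∈ Q)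
    (hb : BQ κ Bs Nn (Qb j) k0) (hK₀ : ((Qb j).tr a).N ⊆ K₀)
    (hK1 : (Qb j).kc + K1 ≤ k0) (hK3 : 1 ≤ K3) (hK3' : (Qb j).kc + (K3 + 1) ≤ k0)
    (hf : ContinuousOn f Om) (hΦ : Mv (h.T a) Φ)
    {κe : Type*} {x v : κe → R3} {a1 : R3} {q τ₁ σ₀ η t sz : ℝ} {D : R3 → R3 →L[ℝ] R3}
    {b z : R3} {L : R3 →L[ℝ] R3} (hσ0 : 0 < σ₀) (hσ1 : σ₀ < 1) (hsz : 0 < sz)
    (hP : PerfG x v q Om f D κ τ₁ σ₀ η t sz a1 z b L) {V : Set R3}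
    (hM : MeshG (h.T a) x v a1 V) (hV : cel Cb z ((1 - σ₀) * sz) ⊆ V)
    {τ : ℝ} (hsub : (Qb j).N ⊆ cel Cb z ((1 - τ) * sz)) (hτ1 : τ < 1) {uu : ℝ} (huu : 0 < uu)
    (hku : 416 * κ⁻¹ * (GG vI : ℝ)^4 * uu ≤ 1 / 2 ^ (Qb j).kc)
    (hau : ‖a‖ + 52 * (GG vI : ℝ)^4 * uu ≤ (τ - σ₀) * sz) {e : ℝ} (he : 0 < e) :
    ∃ δ₀ : ℝ, 0 < δ₀ ∧ ∀ (p δ : ℝ) (hA : X.Adm p δ), δ < δ₀ → ∀ N₁ N₂ : ℕ,
      NearG ((Qb j).tr a) k0 (h.hk j) uu (η * t + 100 * κ⁻¹ * (GG vI : ℝ)^4 * uu + e) b L z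
        (fun y => f (Φ (toR (Sys.chi hA (N₁+1) (N₂+1)) y))) := by
  have hs : ∀ k, P ((h.T a).H k) ⊆ ((Qb j).tr a).N → k ∈ s := by
    intro k hk
    obtain ⟨y, hy⟩ := (h.T a).ne k
    exact hS.mem_s k ⟨y, I_sub_P _ hy, hK₀ (hk (I_sub_P _ hy))⟩
  refine gam_T h ha hκ hκ1 hb hS.sys ?_ hf hΦ hσ0 hσ1 hsz hP hM hV hs ?_ ?_ ?_ hsub hτ1 huu hku
    hau he
  · intro y hy k hk _
    exact (hρ_of (fun x _ k hk l hl => hS.R2 k l (nbr_of_reps hk hl)) hy hk).1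
  · intro c hc hk
    refine hS.pr_of c hc (fun k h1 => hs k (hk k h1).1) (Or.inr fun k h1 => ?_)
    obtain ⟨h2, h3⟩ := hk k h1
    exact ⟨j, hj, h2, by
      have h4 : sclT h a k + K1 ≤ k0 := by rw [h3]; exact hK1
      exact h4⟩
  · exact_mod_cast Crest.Agent.R096.Sq_55.one_le_GG vI
  · intro k hk hsc
    refine ⟨?_, ?_⟩
    · have h0 : k ∈ deepJ h a j (K3 + 1) := ⟨hk, by rw [hsc]; exact hK3'⟩
      have h1 : mS (Te (h.T a)) s pr u k ≤ GG vI := by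
        refine mS_le (hS.uI j k ⟨hk, by rw [hsc]; omega⟩) ?_
        rintro l - ⟨x, -, hkx, hlx⟩
        exact hS.uI j l (nbr_deepJ h ha hK3 h0 (nbr_of_reps hkx hlx))
      exact_mod_cast h1
    · have h2 : ((R k : ℝ≥0) : ℝ) = ((2:ℝ) ^ κt k)⁻¹ := by rw [hS.R_eq]; push_cast; rfl
      rw [h2, ← one_div]
      have h3 : κt k ≤ (Qb j).kc + 1 := by rw [← hsc]; exact hS.κ2 k
      exact one_div_le_one_div_of_le (by positivity) (pow_le_pow_right₀ one_le_two h3)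

/-- **961's clause**: the image of the tube of an edge of the core -/
theorem NearG.par' {Q : CB R3 3} {k0 : ℕ} {hk : Q.kc ≤ k0} {u A : ℝ} {b : R3} {L : R3 →L[ℝ] R3}
    {z : R3} {g : R3 → R3} (hg : NearG Q k0 hk u A b L z g) (hu : 0 ≤ u) {r : ℝ} (hr : 0 < r)
    {q : ℝ} (hq : A < q) {e : R3 × R3} (he : e ∈ Ed Q k0 hk) (hK : segment ℝ e.1 e.2 ⊆ Q.Kc)
    (hN : ∀ y ∈ Q.Kc, ∀ i, |y i - z i| + u ≤ r) {z' : E3} (hz : z' ∈ cthickening u (sE e)) :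
    g (w2 z') ∈ thickening q (Crest.Agent.R96.Intr_538.par Cb L b r) := by
  rw [sE_eq] at hz
  exact hg.par hu hr hq he hK hN hz

end Crest.Agent.R096.Gam_968
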