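import Crest.Agent.R096.Gau4_812
import Crest.Agent.R096.Er3_594

/-!
# Row 96, 2SK for tiles (helper812), part 5: producers of `HF`
-/

set_option autoImplicit false
set_option linter.unusedSectionVars false

open Set Metric

namespace Crest.Agent.R096.Sk3_812

open Crest.AnalysisR.VecCalc3 Crest.AnalysisR.Sobolev
open Crest.Agent.R096.SkC1_961 (E3 Hom3)
open Crest.Agent.R096.Er_594 (SH3)
open Crest.Agent.R096.Sk_962 (SH)

/-- `HF` from `Hom3` -/
theorem exists_HF3 {f : E3 → E3} {Om La : Set E3} (h : Hom3 f Om La) :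
    ∃ fi, HF Om La f fi ∧ MapsTo f Om La ∧ ∀ y ∈ La, f (fi y) = y := by
  obtain ⟨fi, h1, h2, h3, h4, h5, h6⟩ := h
  exact ⟨fi, ⟨h5, h6, h2, h3⟩, h1, h4⟩

/-- `HF` from the frozen `IsHomeomorphOn` -/
theorem exists_HF {f : R3 → R3} {Om La : Set R3} (h : IsHomeomorphOn f Om La) :
    ∃ fi, HF Om La f fi ∧ MapsTo f Om La ∧ ∀ y ∈ La, f (fi y) = y := by
  obtain ⟨fi, h1, h2, h3, h4, h5, h6⟩ := h
  exact ⟨fi, ⟨h5, h6, h2, h3⟩, h1, h4⟩

theorem _root_.Crest.Agent.R096.Er_594.SH3.exists_HF {p : ℝ} {Om La : Set E3} {f : E3 → E3}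
    {D : E3 → E3 →L[ℝ] E3} (H : SH3 p Om La f D) :
    ∃ fi, HF Om La f fi ∧ MapsTo f Om La ∧ ∀ y ∈ La, f (fi y) = y :=
  exists_HF3 H.homeo

theorem _root_.Crest.Agent.R096.Sk_962.SH.exists_HF {p : ℝ} {Om La : Set R3} {f : R3 → R3}
    {G : Fin 3 → R3 → R3} (H : SH p Om La f G) :
    ∃ fi, HF Om La f fi ∧ MapsTo f Om La ∧ ∀ y ∈ La, f (fi y) = y :=
  Crest.Agent.R096.Sk3_812.exists_HF H.homeo

/-- a homeomorphism by composition with a move `Ψ` of `Om` -/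
theorem HF.comp {E : Type} [NormedAddCommGroup E] [NormedSpace ℝ E] [FiniteDimensional ℝ E] {Om La : Set E} {f fi : E → E}
    (H : HF Om La f fi) (Ψ : E ≃ₜ E) (h1 : MapsTo Ψ Om Om) (h2 : MapsTo Ψ.symm Om Om) :
    HF Om La (fun x => f (Ψ x)) (fun y => Ψ.symm (fi y)) where
  cont := H.cont.comp Ψ.continuous.continuousOn h1
  conti := Ψ.symm.continuous.comp_continuousOn H.conti
  mti := h2.comp H.mti
  li := fun x hx => by rw [H.li _ (h1 hx)]; exact Ψ.symm_apply_apply x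

end Crest.Agent.R096.Sk3_812
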