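import Crest.Agent.R096.Ebr6_95
import Crest.Agent.R096.Dib5_438

/-!
Row 96, DOORS, NE1 (helper821), leaf G1 of 778: **the chart of a transversal strip** `{lev a = t0}` of the
moat of a core.
-/

set_option autoImplicit false
set_option linter.unusedSectionVars false

open Set Topology Filter Metric Module
open scoped Classical

namespace Crest.Agent.R096.Gch_821

open Crest.Agent.R096.Msh_715 Crest.Agent.R096.Coh_184 Crest.Agent.R096.Bsp_628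
  Crest.Agent.R096.Brk1_582 Crest.Agent.R096.Brk2_582 Crest.Agent.R096.Brk3_582
  Crest.Agent.R096.Brk5_582 Crest.Agent.R096.Init_543 Crest.Agent.R096.Mbf_337
  Crest.Agent.R96.Push_899 Crest.Agent.R096.Ess1_95 Crest.Agent.R096.Ess4_95
  Crest.Agent.R096.Ess5_95 Crest.Agent.R096.Ess6_95 Crest.Agent.R096.Ess7_95
  Crest.Agent.R096.Lab_184 Crest.Agent.R096.Seq_213 Crest.Agent.R096.Seq_213.GSt
  Crest.Agent.R096.Main_4 Crest.Agent.R096.Exa_560 Crest.Agent.R096.Agl4_543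
  Crest.Agent.R096.Agl5_543 Crest.Agent.R096.Agl6_543 Crest.Agent.R096.Agl8_543
  Crest.Agent.R096.Ebr1_95 Crest.Agent.R096.Ebr2_95
  Crest.Agent.R096.Ebr3_95 Crest.Agent.R096.Ebr4_95 Crest.Agent.R096.Ebr5_95
  Crest.Agent.R096.Ebr6_95 Crest.Agent.R096.Bar_106
  Crest.Agent.R096.Bgf_4 Crest.Agent.R096.Dib_438 Crest.Agent.R096.Sphg_316

open Crest.Agent.R096.SkC1_961 (E3 Hom3 IsPush FoamD)
open Crest.Agent.R096.Bmf_416 (coT)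

variable {δ κ0 R c0 : ℝ} {La Om : Set E3} {Φ : FoamD δ κ0 R c0 La} {f g : E3 → E3}

/-- **G1, abstract**: the chart over the rectangle `[s0, s1] × [0, w1]` at the level `t0` -/
theorem chart_pol (hLa : IsOpen La) (H : Hm f g Om La) {c a p q : Φ.F} {Z : Set Φ.F}
    (hM : Mo (Pc Φ.F) c a Z p q) {ρ : ℝ} {pol : ℝ × E3 → E3} (hPol : Pol Φ c ρ pol)
    (hgc : ∀ y, ga Φ c y ≤ ρ → y ∈ La) {l0 mm ra s0 s1 t0 w1 : ℝ} (hs0 : 0 < s0)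
    (hs1 : s1 ≤ ρ) (ht0 : t0 ∈ Icc (0:ℝ) 1) (hw1 : w1 ≤ 1) :
    ∃ Wz : ℝ × ℝ → E3, ContinuousOn Wz (Icc s0 s1 ×ˢ Icc 0 w1) ∧
      InjOn Wz (Icc s0 s1 ×ˢ Icc 0 w1) ∧
      (∀ x ∈ Icc s0 s1 ×ˢ Icc 0 w1, Wz x ∈ Om ∧ ga Φ c (f (Wz x)) = x.1 ∧
        Φ.Psi (f (Wz x)) = gam (bc (F := Φ.F)) a Z p q (t0, x.2) ∧
        Φ.lev a (f (Wz x)) = t0 ∧
        gmf Φ l0 mm ra a Z (Φ.Psi (f (Wz x))) = max (x.2 / l0) (|t0 - mm| / ra)) ∧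
      IsCompact (Wz '' (Icc s0 s1 ×ˢ Icc 0 w1)) ∧
      ∀ {A : Type*} [AddCommGroup A], TrivF A (Wz '' (Icc s0 s1 ×ˢ Icc 0 w1)) := by
  have FF := foam Φ.bf hLa
  set D : Set (ℝ × ℝ) := Icc s0 s1 ×ˢ Icc 0 w1 with hD
  have hR : ∀ x ∈ D, (t0, x.2) ∈ Rct := fun x hx =>
    ⟨ht0, ⟨by linarith [hx.2.1], hx.2.2.trans hw1⟩⟩
  have hfr : ∀ x ∈ D, gam (bc (F := Φ.F)) a Z p q (t0, x.2) ∈ frontier c.1.set := fun x hx =>
    gam_fr hLa hM (hR x hx)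
  set W0 : ℝ × ℝ → E3 := fun x => pol (x.1, gam (bc (F := Φ.F)) a Z p q (t0, x.2)) with hW0
  have hIoc : ∀ x ∈ D, x.1 ∈ Ioc 0 ρ := fun x hx =>
    ⟨lt_of_lt_of_le hs0 hx.1.1, hx.1.2.trans hs1⟩
  have hga : ∀ x ∈ D, ga Φ c (W0 x) = x.1 := fun x hx => hPol.gau _ (hIoc x hx) _ (hfr x hx)
  have hps : ∀ x ∈ D, Φ.Psi (W0 x) = gam (bc (F := Φ.F)) a Z p q (t0, x.2) := fun x hx =>
    hPol.psi _ (hIoc x hx) _ (hfr x hx)
  have hLaW : ∀ x ∈ D, W0 x ∈ La := fun x hx => hgc _ (by rw [hga x hx]; exact (hIoc x hx).2)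
  have hcg : ContinuousOn (fun x : ℝ × ℝ => gam (bc (F := Φ.F)) a Z p q (t0, x.2)) D :=
    (hM.continuousOn_gam FF).comp (by fun_prop) hR
  have hc0 : ContinuousOn W0 D :=
    hPol.cont.comp (continuous_fst.continuousOn.prodMk hcg) fun x hx => ⟨mem_univ _, hfr x hx⟩
  have hfg : ∀ x ∈ D, f (g (W0 x)) = W0 x := fun x hx => H.fg _ (hLaW x hx)
  have hc : ContinuousOn (fun x => g (W0 x)) D := H.gc.comp hc0 hLaW
  have hi : InjOn (fun x => g (W0 x)) D := by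
    intro x hx y hy hxy
    have h1 : W0 x = W0 y := by
      have h2 := congrArg f hxy
      simp only [hfg x hx, hfg y hy] at h2
      exact h2
    have h3 : x.1 = y.1 := by rw [← hga x hx, ← hga y hy, h1]
    have h4 : gam (bc (F := Φ.F)) a Z p q (t0, x.2) = gam (bc (F := Φ.F)) a Z p q (t0, y.2) := by
      rw [← hps x hx, ← hps y hy, h1]
    have h5 := hM.gam_injOn FF (hR x hx) (hR y hy) h4
    exact Prod.ext h3 (Prod.ext_iff.1 h5).2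
  have hK : IsCompact D := isCompact_Icc.prod isCompact_Icc
  have hKc : Convex ℝ D := (convex_Icc _ _).prod (convex_Icc _ _)
  refine ⟨fun x => g (W0 x), hc, hi, fun x hx => ⟨H.gm (hLaW x hx), ?_, ?_, ?_, ?_⟩,
    hK.image_of_continuousOn hc, fun {A} _ => trivF_convex hK hKc hc hi⟩
  · show ga Φ c (f (g (W0 x))) = x.1
    rw [hfg x hx, hga x hx]
  · show Φ.Psi (f (g (W0 x))) = _
    rw [hfg x hx, hps x hx]
  · show Φ.lev a (f (g (W0 x))) = t0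
    rw [hfg x hx]
    have h1 : sb Φ (Φ.Psi (W0 x)) a = t0 := by
      rw [hps x hx]
      have h2 := congrFun (hM.sc_gam FF (hR x hx)) a
      rw [uu_a] at h2
      exact h2
    exact h1
  · show gmf Φ l0 mm ra a Z (Φ.Psi (f (g (W0 x)))) = _
    rw [hfg x hx, hps x hx, gmf_gam hLa hM (hR x hx)]
    unfold Nr
    rw [abs_of_nonneg hx.2.1]

variable {ι : Type} {T : Tiling Om ι} {κ1 μ : ℝ} {X : Set Φ.F} {J0 J V : Φ.F → Set ι}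
  {θ : Φ.F → E3 → E3} {r₀ : Φ.F → ℝ} {L : Φ.F → Finset ℝ} [Nonempty (JJ Φ L)]
  {hG : GF Φ r₀ T f L} {bp : JJ Φ L → E3} {N : BM Φ X → Set ℝ} {ρ1 ρ2 ρ3 ρ4 d : Φ.F → ℝ}
  {q₀ : BM Φ X → E3} {ε : BM Φ X → ℝ} {bm : BM Φ X → E3}
  {hGB : GFB Φ r₀ T f L (lRc Φ X μ ρ1 ρ3 d) ε}
  {v0B v1B : ∀ c, BM Φ X → VxK T (Ess7_95.KT T J X) c}

/-- **G1 for the barriers of `BarOut`** -/
theorem chart_bar (hLa : IsOpen La) (H : Hm f g Om La)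
    (bar : BarOut Φ T f κ1 μ X J0 J V θ hG bp N ρ1 ρ2 ρ3 ρ4 d q₀ ε bm hGB v0B v1B) (m : BM Φ X)
    {l0 mm ra s0 s1 t0 w1 : ℝ} (hs0 : 0 < s0) (hs1 : s1 ≤ ρ4 m.co) (ht0 : t0 ∈ Icc (0:ℝ) 1)
    (hw1 : w1 ≤ 1) :
    ∃ Wz : ℝ × ℝ → E3, ContinuousOn Wz (Icc s0 s1 ×ˢ Icc 0 w1) ∧
      InjOn Wz (Icc s0 s1 ×ˢ Icc 0 w1) ∧
      (∀ x ∈ Icc s0 s1 ×ˢ Icc 0 w1, Wz x ∈ Om ∧ ga Φ m.co (f (Wz x)) = x.1 ∧
        Φ.Psi (f (Wz x)) = gam (bc (F := Φ.F)) m.am m.Zm (pp m) (qq m) (t0, x.2) ∧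
        Φ.lev m.am (f (Wz x)) = t0 ∧
        gmf Φ l0 mm ra m.am m.Zm (Φ.Psi (f (Wz x))) = max (x.2 / l0) (|t0 - mm| / ra)) ∧
      IsCompact (Wz '' (Icc s0 s1 ×ˢ Icc 0 w1)) ∧
      ∀ {A : Type*} [AddCommGroup A], TrivF A (Wz '' (Icc s0 s1 ×ˢ Icc 0 w1)) := by
  obtain ⟨p, hPol⟩ := bar.barF.pol hLa m
  refine chart_pol hLa H (mo_pq m) hPol ?_ hs0 hs1 ht0 hw1
  intro y hy
  have hb : Bod (Φ.B m.co).lo (Pc Φ.F m.co) := Pse_316.bod_brick Φ m.co (bar.barF.pt m)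
  have hgf : ga Φ m.co = Ng (Φ.B m.co).lo (Pc Φ.F m.co) := funext (Etg_163.gg_eq Φ m.co)
  exact Φ.bf.sub m.co.1 m.co.2
    (hb.le_sub (bar.barF.room m).r4.le (show y ∈ {y | Ng _ _ y ≤ ρ4 m.co} by rw [← hgf]; exact hy))

end Crest.Agent.R096.Gch_821
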