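import Crest.Agent.R096.Wy1_664

/-!
# Row 96, DOORS (helper835): G1 of 778 #12223, the chart transversal to the axis of a moat

`exists_chart_pol` : the rectangle `Icc s0 s1 ×ˢ Icc 0 w1` of (gauge, deviation) at the fixed level
`t0` of the moat, as an injective continuous map into `Om`.  `exists_chart` : the same from `BarF`.
-/

set_option autoImplicit false
set_option linter.unusedSectionVars false

open Set Topology Filter Metric Module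
open scoped Classical

namespace Crest.Agent.R096.Gch_835

open Crest.Agent.R096.Msh_715 Crest.Agent.R096.Coh_184 Crest.Agent.R096.Bsp_628
  Crest.Agent.R096.Brk1_582 Crest.Agent.R096.Brk2_582 Crest.Agent.R096.Brk3_582
  Crest.Agent.R096.Brk5_582 Crest.Agent.R096.Init_543 Crest.Agent.R096.Mbf_337
  Crest.Agent.R96.Push_899 Crest.Agent.R096.Ess1_95 Crest.Agent.R096.Ess4_95
  Crest.Agent.R096.Ess5_95 Crest.Agent.R096.Ess6_95 Crest.Agent.R096.Ess7_95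
  Crest.Agent.R096.Lab_184 Crest.Agent.R096.Seq_213 Crest.Agent.R096.Seq_213.GSt
  Crest.Agent.R096.Main_4 Crest.Agent.R096.Exa_560 Crest.Agent.R096.Agl4_543
  Crest.Agent.R096.Agl5_543 Crest.Agent.R096.Agl6_543 Crest.Agent.R096.Agl8_543
  Crest.Agent.R096.Ebr1_95 Crest.Agent.R096.Ebr2_95
  Crest.Agent.R096.Ebr3_95 Crest.Agent.R096.Ebr4_95 Crest.Agent.R096.Ebr5_95
  Crest.Agent.R096.Ebr6_95 Crest.Agent.R096.Bar_106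
  Crest.Agent.R096.Bgf_4 Crest.Agent.R096.Dib_438 Crest.Agent.R096.Sphg_316

open Crest.Agent.R096.SkC1_961 (E3 Hom3 IsPush FoamD)
open Crest.Agent.R096.Ce_537 (PLEquiv IsBall)

variable {δ κ0 R c0 : ℝ} {La Om : Set E3} {ι : Type} {Φ : FoamD δ κ0 R c0 La}
  {T : Tiling Om ι} {f g : E3 → E3} {J0 J V : Φ.F → Set ι} {θ : Φ.F → E3 → E3}

variable {Mo' : Type} {co : Mo' → Φ.F} {ρ1 ρ2 ρ3 ρ4 d : Mo' → ℝ} {G : Mo' → E3 → ℝ}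
  {rm h lo hi ω : Mo' → ℝ} {q₀ : Mo' → E3} {g0 : Mo' → ℝ}

/-- **the chart** at the fixed level `t0` of a moat -/
theorem exists_chart_pol (hLa : IsOpen La) (H : Hm f g Om La) {c a p q : Φ.F} {Z : Set Φ.F}
    (hM : Mo (Pc Φ.F) c a Z p q) {ρ : ℝ} {pl : ℝ × E3 → E3} (hPol : Pol Φ c ρ pl)
    (hgc : ∀ y, ga Φ c y ≤ ρ → y ∈ La) (l0 mm ra : ℝ)
    {s0 s1 t0 w1 : ℝ} (hs0 : 0 < s0) (hs1 : s1 ≤ ρ) (ht0 : t0 ∈ Icc (0 : ℝ) 1) (hw1 : w1 ≤ 1) :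
    ∃ Wz : ℝ × ℝ → E3, ContinuousOn Wz (Icc s0 s1 ×ˢ Icc 0 w1) ∧
      InjOn Wz (Icc s0 s1 ×ˢ Icc 0 w1) ∧
      (∀ z ∈ Icc s0 s1 ×ˢ Icc (0 : ℝ) w1, Wz z ∈ Om ∧ ga Φ c (f (Wz z)) = z.1 ∧
        Φ.Psi (f (Wz z)) = gam (bc (F := Φ.F)) a Z p q (t0, z.2) ∧
        Φ.lev a (f (Wz z)) = t0 ∧
        gmf Φ l0 mm ra a Z (Φ.Psi (f (Wz z))) = max (z.2 / l0) (|t0 - mm| / ra)) ∧
      IsCompact (Wz '' (Icc s0 s1 ×ˢ Icc 0 w1)) ∧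
      TrivF (ZMod 2) (Wz '' (Icc s0 s1 ×ˢ Icc 0 w1)) := by
  have FF := foam Φ.bf hLa
  have hR : ∀ z ∈ Icc s0 s1 ×ˢ Icc (0 : ℝ) w1, ((t0, z.2) : ℝ × ℝ) ∈ Rct := fun z hz =>
    ⟨ht0, ⟨by linarith [hz.2.1], hz.2.2.trans hw1⟩⟩
  have hfr : ∀ z ∈ Icc s0 s1 ×ˢ Icc (0 : ℝ) w1,
      gam (bc (F := Φ.F)) a Z p q (t0, z.2) ∈ frontier c.1.set := fun z hz =>
    gam_fr hLa hM (hR z hz)
  have hs : ∀ z ∈ Icc s0 s1 ×ˢ Icc (0 : ℝ) w1, z.1 ∈ Ioc 0 ρ := fun z hz =>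
    ⟨lt_of_lt_of_le hs0 hz.1.1, hz.1.2.trans hs1⟩
  set Y : ℝ × ℝ → E3 := fun z => pl (z.1, gam (bc (F := Φ.F)) a Z p q (t0, z.2)) with hY
  have hga : ∀ z ∈ Icc s0 s1 ×ˢ Icc (0 : ℝ) w1, ga Φ c (Y z) = z.1 := fun z hz =>
    hPol.gau z.1 (hs z hz) _ (hfr z hz)
  have hps : ∀ z ∈ Icc s0 s1 ×ˢ Icc (0 : ℝ) w1,
      Φ.Psi (Y z) = gam (bc (F := Φ.F)) a Z p q (t0, z.2) := fun z hz =>
    hPol.psi z.1 (hs z hz) _ (hfr z hz)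
  have hYL : ∀ z ∈ Icc s0 s1 ×ˢ Icc (0 : ℝ) w1, Y z ∈ La := fun z hz =>
    hgc _ (by rw [hga z hz]; exact (hs z hz).2)
  have hfg : ∀ z ∈ Icc s0 s1 ×ˢ Icc (0 : ℝ) w1, f (g (Y z)) = Y z := fun z hz =>
    H.fg _ (hYL z hz)
  have hYc : ContinuousOn Y (Icc s0 s1 ×ˢ Icc (0 : ℝ) w1) := by
    refine hPol.cont.comp (continuous_fst.continuousOn.prodMk ?_) fun z hz =>
      ⟨mem_univ _, hfr z hz⟩
    exact (hM.continuousOn_gam FF).comp (Continuous.continuousOn (by fun_prop)) fun z hz => hR z hz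
  have hYi : InjOn Y (Icc s0 s1 ×ˢ Icc (0 : ℝ) w1) := by
    intro z hz z' hz' he
    have h1 : z.1 = z'.1 := by rw [← hga z hz, he, hga z' hz']
    have h2 := hM.gam_injOn FF (hR z hz) (hR z' hz') (by rw [← hps z hz, he, hps z' hz'])
    have h3 : z.2 = z'.2 := (Prod.ext_iff.1 h2).2
    exact Prod.ext h1 h3
  have hWc : ContinuousOn (fun z => g (Y z)) (Icc s0 s1 ×ˢ Icc (0 : ℝ) w1) :=
    H.gc.comp hYc fun z hz => hYL z hz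
  have hWi : InjOn (fun z => g (Y z)) (Icc s0 s1 ×ˢ Icc (0 : ℝ) w1) := fun z hz z' hz' he =>
    hYi hz hz' (H.injOn (hYL z hz) (hYL z' hz') he)
  have hcp : IsCompact (Icc s0 s1 ×ˢ Icc (0 : ℝ) w1) := isCompact_Icc.prod isCompact_Icc
  have hcv : Convex ℝ (Icc s0 s1 ×ˢ Icc (0 : ℝ) w1) := (convex_Icc _ _).prod (convex_Icc _ _)
  refine ⟨fun z => g (Y z), hWc, hWi, fun z hz => ⟨H.gm (hYL z hz), ?_, ?_, ?_, ?_⟩,
    hcp.image_of_continuousOn hWc, Lab_184.trivF_convex hcp hcv hWc hWi⟩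
  · show ga Φ c (f (g (Y z))) = z.1
    rw [hfg z hz]; exact hga z hz
  · show Φ.Psi (f (g (Y z))) = _
    rw [hfg z hz]; exact hps z hz
  · show sb Φ (Φ.Psi (f (g (Y z)))) a = t0
    rw [hfg z hz, hps z hz]
    have h1 := congrFun (hM.sc_gam FF (hR z hz)) a
    rw [uu_a] at h1
    exact h1
  · show gmf Φ l0 mm ra a Z (Φ.Psi (f (g (Y z)))) = _
    rw [hfg z hz, hps z hz, gmf_gam hLa hM (hR z hz)]
    show max (|z.2| / l0) (|t0 - mm| / ra) = _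
    rw [abs_of_nonneg hz.2.1]

/-- a point of small gauge is in `La` -/
theorem ga_sub
    (hB : BarF Φ T f J0 J V θ co ρ1 ρ2 ρ3 ρ4 d G rm h lo hi ω q₀ g0) (m : Mo') :
    ∀ y, ga Φ (co m) y ≤ ρ4 m → y ∈ La := by
  have hcL : (co m).1.set ⊆ La := Φ.bf.sub (co m).1 (co m).2
  intro y hy
  have hb : Bod (Φ.B (co m)).lo (Pc Φ.F (co m)) := Pse_316.bod_brick Φ (co m) (hB.pt m)
  have hgf : ga Φ (co m) = Ng (Φ.B (co m)).lo (Pc Φ.F (co m)) :=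
    funext (Etg_163.gg_eq Φ (co m))
  exact hcL (hb.le_sub (hB.room m).r4.le (show y ∈ {y | Ng _ _ y ≤ ρ4 m} by rw [← hgf]; exact hy))

/-- **the chart at a barrier family** -/
theorem exists_chart (hLa : IsOpen La) (H : Hm f g Om La)
    (hB : BarF Φ T f J0 J V θ co ρ1 ρ2 ρ3 ρ4 d G rm h lo hi ω q₀ g0) (m : Mo')
    {a p q : Φ.F} {Z : Set Φ.F} (hM : Mo (Pc Φ.F) (co m) a Z p q) (l0 mm ra : ℝ)
    {s0 s1 t0 w1 : ℝ} (hs0 : 0 < s0) (hs1 : s1 ≤ ρ4 m) (ht0 : t0 ∈ Icc (0 : ℝ) 1)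
    (hw1 : w1 ≤ 1) :
    ∃ Wz : ℝ × ℝ → E3, ContinuousOn Wz (Icc s0 s1 ×ˢ Icc 0 w1) ∧
      InjOn Wz (Icc s0 s1 ×ˢ Icc 0 w1) ∧
      (∀ z ∈ Icc s0 s1 ×ˢ Icc (0 : ℝ) w1, Wz z ∈ Om ∧ ga Φ (co m) (f (Wz z)) = z.1 ∧
        Φ.Psi (f (Wz z)) = gam (bc (F := Φ.F)) a Z p q (t0, z.2) ∧
        Φ.lev a (f (Wz z)) = t0 ∧
        gmf Φ l0 mm ra a Z (Φ.Psi (f (Wz z))) = max (z.2 / l0) (|t0 - mm| / ra)) ∧
      IsCompact (Wz '' (Icc s0 s1 ×ˢ Icc 0 w1)) ∧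
      TrivF (ZMod 2) (Wz '' (Icc s0 s1 ×ˢ Icc 0 w1)) := by
  obtain ⟨pl, hPol⟩ := hB.pol hLa m
  exact exists_chart_pol hLa H hM hPol (ga_sub hB m) l0 mm ra hs0 hs1 ht0 hw1

end Crest.Agent.R096.Gch_835
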