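import Mathlib

/-!
# R096: locally conical maps, germs (helper879; leaf P5-GERM of helper205, row 96)

`ConAt h x`      : `h` is conical about `x` (with some radius);
`LocConical h Ω` : conical about every point of `Ω` (verbatim #7463);
`germ h x`       : the germ of `h` at `x`, a positively homogeneous map `E → F`, `h (x+v) = h x + germ h x v`
                   for `‖v‖ < rad h x`;
`Tan h x`        : the lineality space of the germ (a submodule of `E`).
-/

set_option autoImplicit false

namespace Crest.Agent.R096.Germ_879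

open Set Metric Filter Topology

variable {E F : Type*} [NormedAddCommGroup E] [NormedSpace ℝ E] [NormedAddCommGroup F] [NormedSpace ℝ F]

/-- `h` is conical about `x` with radius `r`. -/
def ConR (h : E → F) (x : E) (r : ℝ) : Prop :=
  ∀ v : E, ‖v‖ < r → ∀ t ∈ Icc (0 : ℝ) 1, h (x + t • v) = h x + t • (h (x + v) - h x)

/-- `h` is conical about `x`. -/
def ConAt (h : E → F) (x : E) : Prop := ∃ r > 0, ConR h x r

/-- locally conical (helper205 #7463). -/
def LocConical (h : E → F) (Ω : Set E) : Prop :=
  ∀ x ∈ Ω, ∃ r > 0, ∀ v : E, ‖v‖ < r → ∀ t ∈ Icc (0 : ℝ) 1, h (x + t • v) = h x + t • (h (x + v) - h x)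

theorem LocConical.conAt {h : E → F} {Ω : Set E} (hh : LocConical h Ω) {x : E} (hx : x ∈ Ω) : ConAt h x := hh x hx

theorem ConR.mono {h : E → F} {x : E} {r r' : ℝ} (H : ConR h x r) (hr : r' ≤ r) : ConR h x r' :=
  fun v hv t ht => H v (lt_of_lt_of_le hv hr) t ht

/-- positively homogeneous (degree one) -/
def PosHom (H : E → F) : Prop := ∀ (c : ℝ), 0 ≤ c → ∀ v, H (c • v) = c • H v

theorem PosHom.zero {H : E → F} (hH : PosHom H) : H 0 = 0 := by
  have := hH 0 le_rfl 0
  simpa using this

open Classical in
/-- a radius of conicality -/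
noncomputable def rad (h : E → F) (x : E) : ℝ := if hx : ConAt h x then hx.choose else 1

theorem rad_pos (h : E → F) (x : E) : 0 < rad h x := by
  unfold rad
  split_ifs with hx
  · exact hx.choose_spec.1
  · exact one_pos

theorem ConAt.conR {h : E → F} {x : E} (hx : ConAt h x) : ConR h x (rad h x) := by
  unfold rad
  rw [dif_pos hx]
  exact hx.choose_spec.2

/-- the step used in the definition of the germ -/
noncomputable def stp (h : E → F) (x v : E) : ℝ := rad h x / (2 * (1 + ‖v‖))

theorem stp_pos (h : E → F) (x v : E) : 0 < stp h x v := by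
  unfold stp
  have := rad_pos h x
  positivity

theorem stp_mul_lt (h : E → F) (x v : E) : stp h x v * ‖v‖ < rad h x := by
  unfold stp
  have hr := rad_pos h x
  have hv := norm_nonneg v
  rw [div_mul_eq_mul_div, div_lt_iff₀ (by positivity)]
  nlinarith

/-- the germ of `h` at `x` -/
noncomputable def germ (h : E → F) (x v : E) : F := (stp h x v)⁻¹ • (h (x + stp h x v • v) - h x)

@[simp] theorem germ_zero (h : E → F) (x : E) : germ h x 0 = 0 := by simp [germ]

/-- slopes along a ray are constant inside the radius of conicality -/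
theorem ConR.slope_eq {h : E → F} {x : E} {r : ℝ} (H : ConR h x r) {v : E} {s t : ℝ} (hs : 0 < s) (ht : 0 < t)
    (hsv : s * ‖v‖ < r) (htv : t * ‖v‖ < r) :
    s⁻¹ • (h (x + s • v) - h x) = t⁻¹ • (h (x + t • v) - h x) := by
  wlog hst : s ≤ t generalizing s t with W
  · exact (W ht hs htv hsv (le_of_not_ge hst)).symm
  · have h1 := H (t • v) (by rwa [norm_smul, Real.norm_of_nonneg ht.le]) (s / t)
      ⟨by positivity, by rw [div_le_one ht]; exact hst⟩
    have h2 : (s / t) • (t • v) = s • v := by
      rw [smul_smul, div_mul_cancel₀ _ ht.ne']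
    rw [h2] at h1
    rw [h1, add_sub_cancel_left, smul_smul]
    congr 1
    field_simp

/-- the germ can be computed with any small step -/
theorem ConAt.germ_eq {h : E → F} {x : E} (hx : ConAt h x) {v : E} {s : ℝ} (hs : 0 < s) (hsv : s * ‖v‖ < rad h x) :
    germ h x v = s⁻¹ • (h (x + s • v) - h x) :=
  hx.conR.slope_eq (stp_pos h x v) hs (stp_mul_lt h x v) hsv

theorem ConAt.apply_add {h : E → F} {x : E} (hx : ConAt h x) {v : E} (hv : ‖v‖ < rad h x) :
    h (x + v) = h x + germ h x v := by
  rw [hx.germ_eq one_pos (by simpa using hv)]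
  simp

theorem ConAt.apply_add_smul {h : E → F} {x : E} (hx : ConAt h x) {v : E} {s : ℝ} (hs : 0 ≤ s)
    (hsv : s * ‖v‖ < rad h x) : h (x + s • v) = h x + s • germ h x v := by
  rcases hs.eq_or_lt with rfl | hs
  · simp
  · rw [hx.germ_eq hs hsv, smul_smul, mul_inv_cancel₀ hs.ne', one_smul]
    abel

/-- uniqueness of the germ value in one direction -/
theorem ConAt.germ_unique {h : E → F} {x : E} (hx : ConAt h x) {v : E} {w : F} {ε : ℝ} (hε : 0 < ε)
    (H : ∀ s : ℝ, 0 < s → s < ε → h (x + s • v) = h x + s • w) : germ h x v = w := by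
  have hr := rad_pos h x
  set s : ℝ := min (ε / 2) (rad h x / (2 * (1 + ‖v‖))) with hsdef
  have hs : 0 < s := lt_min (by positivity) (by positivity)
  have hs1 : s < ε := lt_of_le_of_lt (min_le_left _ _) (by linarith)
  have hs2 : s * ‖v‖ < rad h x := by
    have h1 : s ≤ stp h x v := min_le_right _ _
    exact lt_of_le_of_lt (mul_le_mul_of_nonneg_right h1 (norm_nonneg v)) (stp_mul_lt h x v)
  rw [hx.germ_eq hs hs2, H s hs hs1, add_sub_cancel_left, smul_smul, inv_mul_cancel₀ hs.ne', one_smul]

theorem ConAt.posHom {h : E → F} {x : E} (hx : ConAt h x) : PosHom (germ h x) := by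
  intro c hc v
  rcases hc.eq_or_lt with rfl | hc
  · simp
  · have hr := rad_pos h x
    refine hx.germ_unique (ε := rad h x / (1 + ‖c • v‖)) (by positivity) ?_
    intro s hs hs1
    rw [lt_div_iff₀ (by positivity)] at hs1
    have h1 : s * ‖c • v‖ < rad h x := by nlinarith
    have h2 : (s * c) * ‖v‖ < rad h x := by
      rw [norm_smul, Real.norm_of_nonneg hc.le] at h1
      linarith [h1, mul_assoc s c ‖v‖]
    rw [smul_smul, hx.apply_add_smul (by positivity) h2, smul_smul]

theorem ConAt.eventually {h : E → F} {x : E} (hx : ConAt h x) :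
    ∀ᶠ y in 𝓝 x, h y = h x + germ h x (y - x) := by
  filter_upwards [ball_mem_nhds x (rad_pos h x)] with y hy
  have := hx.apply_add (v := y - x) (by simpa [mem_ball, dist_eq_norm] using hy)
  simpa using this

/-- constructing a germ: if near `x` the map is `h x + H (· - x)` with `H` positively homogeneous. -/
theorem conR_of_eq {h : E → F} {x : E} {r : ℝ} {H : E → F} (hH : PosHom H)
    (hr : ∀ v : E, ‖v‖ < r → h (x + v) = h x + H v) : ConR h x r := by
  intro v hv t ht
  have h1 : ‖t • v‖ < r := by
    rw [norm_smul, Real.norm_of_nonneg ht.1]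
    exact lt_of_le_of_lt (by nlinarith [norm_nonneg v, ht.2]) hv
  rw [hr _ h1, hr _ hv, add_sub_cancel_left, hH t ht.1]

theorem germ_eq_of {h : E → F} {x : E} {r : ℝ} (hr0 : 0 < r) {H : E → F} (hH : PosHom H)
    (hr : ∀ v : E, ‖v‖ < r → h (x + v) = h x + H v) : germ h x = H := by
  have hx : ConAt h x := ⟨r, hr0, conR_of_eq hH hr⟩
  funext v
  refine hx.germ_unique (ε := r / (1 + ‖v‖)) (by positivity) ?_
  intro s hs hs1
  rw [lt_div_iff₀ (by positivity)] at hs1
  rw [hr (s • v) (by rw [norm_smul, Real.norm_of_nonneg hs.le]; nlinarith), hH s hs.le]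

/-- the conicality radius may be enlarged: `ConR` and the germ identity are the same thing. -/
theorem ConR.apply_add {h : E → F} {x : E} {r : ℝ} (hr0 : 0 < r) (H : ConR h x r) {v : E} (hv : ‖v‖ < r) :
    h (x + v) = h x + germ h x v := by
  have hx : ConAt h x := ⟨r, hr0, H⟩
  have hr := rad_pos h x
  set s : ℝ := rad h x / (2 * (1 + ‖v‖) * (1 + rad h x)) with hsdef
  have hs : 0 < s := by positivity
  have hs1 : s ≤ 1 := by
    rw [hsdef, div_le_one (by positivity)]
    nlinarith [norm_nonneg v, mul_nonneg hr.le (norm_nonneg v)]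
  have hs2 : s * ‖v‖ < rad h x := by
    rw [hsdef, div_mul_eq_mul_div, div_lt_iff₀ (by positivity)]
    nlinarith [norm_nonneg v, mul_nonneg hr.le (norm_nonneg v), mul_pos hr hr, mul_nonneg (mul_pos hr hr).le (norm_nonneg v)]
  have hs3 : s * ‖v‖ < r := lt_of_le_of_lt (mul_le_of_le_one_left (norm_nonneg v) hs1) hv
  rw [hx.germ_eq hs hs2, H.slope_eq hs one_pos hs3 (by simpa using hv)]
  simp

/-- germs of locally equal maps agree -/
theorem germ_congr {h g : E → F} {x : E} (hx : ConAt h x) (e : ∀ᶠ y in 𝓝 x, h y = g y) :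
    ConAt g x ∧ germ g x = germ h x := by
  obtain ⟨r, hr, hb⟩ := Metric.eventually_nhds_iff_ball.1 e
  have e0 : h x = g x := hb x (mem_ball_self hr)
  have key : ∀ v : E, ‖v‖ < min r (rad h x) → g (x + v) = g x + germ h x v := by
    intro v hv
    rw [← hb (x + v) (by simpa [mem_ball, dist_eq_norm] using lt_of_lt_of_le hv (min_le_left _ _)), ← e0]
    exact hx.apply_add (lt_of_lt_of_le hv (min_le_right _ _))
  have hm : 0 < min r (rad h x) := lt_min hr (rad_pos h x)
  exact ⟨⟨_, hm, conR_of_eq hx.posHom key⟩, germ_eq_of hm hx.posHom key⟩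

/-! ### the lineality space -/

/-- the lineality space of the germ: directions along which the germ is translation-additive. -/
noncomputable def Tan (h : E → F) (x : E) : Submodule ℝ E where
  carrier := {u | ∀ (τ : ℝ) (v : E), germ h x (τ • u + v) = τ • germ h x u + germ h x v}
  zero_mem' := by
    intro τ v
    simp
  add_mem' := by
    intro a b ha hb τ v
    have h1 : germ h x (a + b) = germ h x a + germ h x b := by
      have := ha 1 b
      simpa using this
    rw [h1, smul_add τ a b, add_assoc, ha τ, hb τ, smul_add, add_assoc]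
  smul_mem' := by
    intro c a ha τ v
    have h1 : germ h x (c • a) = c • germ h x a := by
      have := ha c 0
      simpa using this
    rw [h1, smul_smul, smul_smul, ha (τ * c) v]

theorem mem_Tan {h : E → F} {x u : E} :
    u ∈ Tan h x ↔ ∀ (τ : ℝ) (v : E), germ h x (τ • u + v) = τ • germ h x u + germ h x v := Iff.rfl

theorem germ_add_of_mem {h : E → F} {x u : E} (hu : u ∈ Tan h x) (v : E) :
    germ h x (u + v) = germ h x u + germ h x v := by simpa using hu 1 v

theorem germ_smul_of_mem {h : E → F} {x u : E} (hu : u ∈ Tan h x) (c : ℝ) :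
    germ h x (c • u) = c • germ h x u := by simpa using hu c 0

theorem ConAt.mem_Tan_iff {h : E → F} {x : E} (hx : ConAt h x) {u : E} :
    u ∈ Tan h x ↔ ∀ v : E, germ h x (u + v) = germ h x u + germ h x v := by
  refine ⟨fun hu v => germ_add_of_mem hu v, fun H => ?_⟩
  have hpos := hx.posHom
  have hneg : germ h x (-u) = - germ h x u := by
    have := H (-u)
    rw [add_neg_cancel, germ_zero] at this
    exact (neg_eq_of_add_eq_zero_right this.symm).symm
  have hsub : ∀ v, germ h x (-u + v) = - germ h x u + germ h x v := by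
    intro v
    have := H (-u + v)
    rw [add_neg_cancel_left] at this
    rw [this]; abel
  intro τ v
  rcases lt_trichotomy τ 0 with hτ | rfl | hτ
  · have h1 : τ • u + v = (-τ) • (-u + (-τ)⁻¹ • v) := by
      rw [smul_add, smul_smul, mul_inv_cancel₀ (neg_ne_zero.2 hτ.ne), one_smul, smul_neg, neg_smul, neg_neg]
    rw [h1, hpos (-τ) (by linarith), hsub, hpos _ (by rw [inv_nonneg]; linarith), smul_add, smul_smul,
      mul_inv_cancel₀ (neg_ne_zero.2 hτ.ne), one_smul, smul_neg, neg_smul, neg_neg]
  · simp
  · have h1 : τ • u + v = τ • (u + τ⁻¹ • v) := by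
      rw [smul_add, smul_smul, mul_inv_cancel₀ hτ.ne', one_smul]
    rw [h1, hpos τ hτ.le, H, hpos _ (inv_nonneg.2 hτ.le), smul_add, smul_smul, mul_inv_cancel₀ hτ.ne', one_smul]

/-- the linear map induced by the germ on the lineality space -/
noncomputable def tanMap (h : E → F) (x : E) : Tan h x →ₗ[ℝ] F where
  toFun u := germ h x u
  map_add' u v := germ_add_of_mem u.2 v
  map_smul' c u := germ_smul_of_mem u.2 c

@[simp] theorem tanMap_apply (h : E → F) (x : E) (u : Tan h x) : tanMap h x u = germ h x u := rfl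

end Crest.Agent.R096.Germ_879
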