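import Crest.Agent.R096.Germ1_879

/-!
# R096: germs at nearby points (helper879; P5-GERM)

`y = x + u`, `‖u‖ < rad h x`, `h` conical about `y`:
* `germ_near`      : `germ h (x+u) (τ • u + v) = τ • germ h x u + germ h (x+u) v`   (205's key trick)
* `Tan_le_near`    : `Tan h x ≤ Tan h (x+u)`, `self_mem_Tan_near : u ∈ Tan h (x+u)`
* `germ_eq_of_mem` : `u ∈ Tan h x → germ h (x+u) = germ h x`
* `germ_scale`     : `germ h (x + c • u) = germ h (x+u)`; `germ_trans : germ h (x+(t+u)) = germ h (x+u)`, `t ∈ Tan h x`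
* `finrank_Tan_lt` : the dimension of the lineality space jumps off `x + Tan h x`.
-/

set_option autoImplicit false

namespace Crest.Agent.R096.Germ_879

open Set Metric Filter Topology

variable {E F : Type*} [NormedAddCommGroup E] [NormedSpace ℝ E] [NormedAddCommGroup F] [NormedSpace ℝ F]

/-- the germ at a nearby point, computed from the germ at `x`. -/
theorem near_step {h : E → F} {x u : E} (hx : ConAt h x) (hu : ‖u‖ < rad h x) (hy : ConAt h (x + u)) (w : E) :
    ∃ ε > 0, ∀ s : ℝ, 0 ≤ s → s < ε → germ h x (u + s • w) = germ h x u + s • germ h (x + u) w := by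
  have hr := rad_pos h x
  have hr' := rad_pos h (x + u)
  have hd : 0 < rad h x - ‖u‖ := sub_pos.2 hu
  refine ⟨min ((rad h x - ‖u‖) / (1 + ‖w‖)) (rad h (x + u) / (1 + ‖w‖)), lt_min (by positivity) (by positivity), ?_⟩
  intro s hs hs1
  have h1 : s * (1 + ‖w‖) < rad h x - ‖u‖ := by
    rw [← lt_div_iff₀ (by positivity)]; exact lt_of_lt_of_le hs1 (min_le_left _ _)
  have h2 : s * (1 + ‖w‖) < rad h (x + u) := by
    rw [← lt_div_iff₀ (by positivity)]; exact lt_of_lt_of_le hs1 (min_le_right _ _)
  have h3 : ‖u + s • w‖ < rad h x := by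
    refine lt_of_le_of_lt (norm_add_le _ _) ?_
    rw [norm_smul, Real.norm_of_nonneg hs]
    nlinarith
  have e1 := hx.apply_add h3
  have e2 := hx.apply_add hu
  have e3 := hy.apply_add_smul (v := w) hs (by nlinarith)
  rw [← add_assoc, e3, e2, add_assoc] at e1
  exact (add_left_cancel e1).symm

/-- uniqueness form of `near_step`. -/
theorem germ_near_unique {h : E → F} {x u : E} (hx : ConAt h x) (hu : ‖u‖ < rad h x) (hy : ConAt h (x + u))
    {w : E} {z : F} {ε : ℝ} (hε : 0 < ε) (H : ∀ s : ℝ, 0 < s → s < ε → germ h x (u + s • w) = germ h x u + s • z) :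
    germ h (x + u) w = z := by
  obtain ⟨δ, hδ, H'⟩ := near_step hx hu hy w
  set s : ℝ := min (ε / 2) (δ / 2)
  have hs : 0 < s := lt_min (by positivity) (by positivity)
  have h1 : s < ε := lt_of_le_of_lt (min_le_left _ _) (by linarith)
  have h2 : s < δ := lt_of_le_of_lt (min_le_right _ _) (by linarith)
  have e := (H' s hs.le h2).symm.trans (H s hs h1)
  have e' := add_left_cancel e
  have := congrArg (fun z => s⁻¹ • z) e'
  simpa [smul_smul, inv_mul_cancel₀ hs.ne'] using this

/-- KEY (205): homogeneity about `x` and about `x + u`. -/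
theorem germ_near {h : E → F} {x u : E} (hx : ConAt h x) (hu : ‖u‖ < rad h x) (hy : ConAt h (x + u))
    (τ : ℝ) (v : E) : germ h (x + u) (τ • u + v) = τ • germ h x u + germ h (x + u) v := by
  obtain ⟨δ, hδ, H⟩ := near_step hx hu hy v
  refine germ_near_unique hx hu hy (ε := min (1 / (2 * (1 + |τ|))) (δ / 2)) (lt_min (by positivity) (by positivity)) ?_
  intro s hs hs1
  have h1 : s * (2 * (1 + |τ|)) < 1 := by
    rw [← lt_div_iff₀ (by positivity)]; exact lt_of_lt_of_le hs1 (min_le_left _ _)
  have h2 : s < δ / 2 := lt_of_lt_of_le hs1 (min_le_right _ _)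
  have h3 : |s * τ| < 1 / 2 := by
    rw [abs_mul, abs_of_pos hs]
    nlinarith
  set c : ℝ := 1 + s * τ with hc
  have hc1 : 1 / 2 < c := by
    have := neg_abs_le (s * τ)
    rw [hc]; linarith
  have hc0 : 0 < c := by linarith
  have h4 : s / c < δ := by
    rw [div_lt_iff₀ hc0]
    nlinarith
  have e1 : u + s • (τ • u + v) = c • (u + (s / c) • v) := by
    rw [smul_add c, smul_smul c, mul_div_cancel₀ _ hc0.ne', hc, add_smul, one_smul, smul_add, smul_smul, add_assoc]
  rw [e1, hx.posHom c hc0.le, H (s / c) (by positivity) h4, smul_add c, smul_smul c, mul_div_cancel₀ _ hc0.ne', hc,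
    add_smul, one_smul, smul_add, smul_smul, add_assoc]

/-- the direction `y - x` belongs to the lineality space at `y`, with the germ value computed at `x`. -/
theorem germ_near_self {h : E → F} {x u : E} (hx : ConAt h x) (hu : ‖u‖ < rad h x) (hy : ConAt h (x + u)) :
    germ h (x + u) u = germ h x u := by
  simpa using germ_near hx hu hy 1 0

theorem self_mem_Tan_near {h : E → F} {x u : E} (hx : ConAt h x) (hu : ‖u‖ < rad h x) (hy : ConAt h (x + u)) :
    u ∈ Tan h (x + u) := by
  intro τ v
  rw [germ_near hx hu hy, germ_near_self hx hu hy]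

theorem germ_near_of_mem {h : E → F} {x u t : E} (hx : ConAt h x) (hu : ‖u‖ < rad h x) (hy : ConAt h (x + u))
    (ht : t ∈ Tan h x) (τ : ℝ) (v : E) :
    germ h (x + u) (τ • t + v) = τ • germ h x t + germ h (x + u) v := by
  obtain ⟨δ, hδ, H⟩ := near_step hx hu hy v
  refine germ_near_unique hx hu hy hδ ?_
  intro s hs hs1
  have e1 : u + s • (τ • t + v) = (s * τ) • t + (u + s • v) := by
    rw [smul_add, smul_smul]; abel
  rw [e1, ht, H s hs.le hs1, smul_add, smul_smul]
  abel

theorem germ_near_eq_of_mem {h : E → F} {x u t : E} (hx : ConAt h x) (hu : ‖u‖ < rad h x) (hy : ConAt h (x + u))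
    (ht : t ∈ Tan h x) : germ h (x + u) t = germ h x t := by
  simpa using germ_near_of_mem hx hu hy ht 1 0

theorem Tan_le_near {h : E → F} {x u : E} (hx : ConAt h x) (hu : ‖u‖ < rad h x) (hy : ConAt h (x + u)) :
    Tan h x ≤ Tan h (x + u) := by
  intro t ht τ v
  rw [germ_near_of_mem hx hu hy ht, germ_near_eq_of_mem hx hu hy ht]

/-- along the stratum the germ is constant. -/
theorem germ_eq_of_mem {h : E → F} {x u : E} (hx : ConAt h x) (hu : ‖u‖ < rad h x) (hy : ConAt h (x + u))
    (hT : u ∈ Tan h x) : germ h (x + u) = germ h x := by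
  funext w
  refine germ_near_unique hx hu hy (ε := 1) one_pos ?_
  intro s hs _
  rw [germ_add_of_mem hT, hx.posHom s hs.le]

theorem Tan_eq_of_germ_eq {h : E → F} {x y : E} (e : germ h y = germ h x) : Tan h y = Tan h x := by
  ext u
  rw [mem_Tan, mem_Tan, e]

theorem Tan_eq_of_mem {h : E → F} {x u : E} (hx : ConAt h x) (hu : ‖u‖ < rad h x) (hy : ConAt h (x + u))
    (hT : u ∈ Tan h x) : Tan h (x + u) = Tan h x := Tan_eq_of_germ_eq (germ_eq_of_mem hx hu hy hT)

/-- scale invariance of germs on rays from `x`. -/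
theorem germ_scale {h : E → F} {x u : E} (hx : ConAt h x) (hu : ‖u‖ < rad h x) (hy : ConAt h (x + u))
    {c : ℝ} (hc : 0 < c) (hcu : ‖c • u‖ < rad h x) (hy' : ConAt h (x + c • u)) :
    germ h (x + c • u) = germ h (x + u) := by
  funext w
  obtain ⟨δ, hδ, H⟩ := near_step hx hu hy w
  refine germ_near_unique hx hcu hy' (ε := δ * c) (by positivity) ?_
  intro s hs hs1
  have e1 : c • u + s • w = c • (u + (s / c) • w) := by
    rw [smul_add, smul_smul, mul_div_cancel₀ _ hc.ne']
  rw [e1, hx.posHom c hc.le, H (s / c) (by positivity) (by rwa [div_lt_iff₀ hc]), smul_add, smul_smul,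
    mul_div_cancel₀ _ hc.ne', ← hx.posHom c hc.le]

/-- translation invariance of germs along the lineality space. -/
theorem germ_trans {h : E → F} {x u t : E} (hx : ConAt h x) (hu : ‖u‖ < rad h x) (hy : ConAt h (x + u))
    (ht : t ∈ Tan h x) (htu : ‖t + u‖ < rad h x) (hy' : ConAt h (x + (t + u))) :
    germ h (x + (t + u)) = germ h (x + u) := by
  funext w
  obtain ⟨δ, hδ, H⟩ := near_step hx hu hy w
  refine germ_near_unique hx htu hy' hδ ?_
  intro s hs hs1
  rw [add_assoc, germ_add_of_mem ht, H s hs.le hs1, germ_add_of_mem ht, add_assoc]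

theorem Tan_lt_near {h : E → F} {x u : E} (hx : ConAt h x) (hu : ‖u‖ < rad h x) (hy : ConAt h (x + u))
    (hT : u ∉ Tan h x) : Tan h x < Tan h (x + u) :=
  lt_of_le_of_ne (Tan_le_near hx hu hy) fun e => hT (e ▸ self_mem_Tan_near hx hu hy)

theorem finrank_Tan_lt [FiniteDimensional ℝ E] {h : E → F} {x u : E} (hx : ConAt h x) (hu : ‖u‖ < rad h x)
    (hy : ConAt h (x + u)) (hT : u ∉ Tan h x) :
    Module.finrank ℝ (Tan h x) < Module.finrank ℝ (Tan h (x + u)) :=
  Submodule.finrank_lt_finrank_of_lt (Tan_lt_near hx hu hy hT)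

theorem finrank_Tan_le [FiniteDimensional ℝ E] {h : E → F} {x u : E} (hx : ConAt h x) (hu : ‖u‖ < rad h x)
    (hy : ConAt h (x + u)) : Module.finrank ℝ (Tan h x) ≤ Module.finrank ℝ (Tan h (x + u)) :=
  Submodule.finrank_mono (Tan_le_near hx hu hy)

/-- the stratum of `x` near `x` is the affine space `x + Tan h x`. -/
theorem mem_Tan_iff_finrank_eq [FiniteDimensional ℝ E] {h : E → F} {x u : E} (hx : ConAt h x) (hu : ‖u‖ < rad h x)
    (hy : ConAt h (x + u)) : u ∈ Tan h x ↔ Module.finrank ℝ (Tan h (x + u)) = Module.finrank ℝ (Tan h x) := by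
  constructor
  · intro hT; rw [Tan_eq_of_mem hx hu hy hT]
  · intro e
    by_contra hT
    exact absurd e (finrank_Tan_lt hx hu hy hT).ne'

/-- vertices (trivial lineality space) are isolated: no other one in the ball of conicality. -/
theorem eq_of_Tan_eq_bot {h : E → F} {x y : E} (hx : ConAt h x) (hy : ConAt h y) (hxy : ‖y - x‖ < rad h x)
    (hT : Tan h y = ⊥) : y = x := by
  have h1 := self_mem_Tan_near (u := y - x) hx hxy (by simpa using hy)
  rw [add_sub_cancel, hT, Submodule.mem_bot, sub_eq_zero] at h1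
  exact h1

/-- affine points: the germ is linear. -/
theorem Tan_eq_top_iff {h : E → F} {x : E} : Tan h x = ⊤ ↔ ∃ A : E →ₗ[ℝ] F, germ h x = A := by
  constructor
  · intro H
    have hm : ∀ u, u ∈ Tan h x := fun u => by rw [H]; trivial
    exact ⟨{ toFun := germ h x
             map_add' := fun u v => germ_add_of_mem (hm u) v
             map_smul' := fun c u => germ_smul_of_mem (hm u) c }, rfl⟩
  · rintro ⟨A, hA⟩
    rw [eq_top_iff]
    intro u _ τ v
    rw [hA, map_add, map_smul]

end Crest.Agent.R096.Germ_879
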