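import Crest.Agent.R096.Germ2_879

/-!
# R096: finiteness of germs on compact sets, continuity, bounds, local Lipschitz (helper879; P5-GERM)
-/

set_option autoImplicit false

namespace Crest.Agent.R096.Germ_879

open Set Metric Filter Topology

variable {E F : Type*} [NormedAddCommGroup E] [NormedSpace ℝ E] [NormedAddCommGroup F] [NormedSpace ℝ F]

/-- the germ is continuous as soon as `h` is continuous near `x`. -/
theorem ConAt.continuous_germ {h : E → F} {x : E} (hx : ConAt h x) (hc : ∀ᶠ y in 𝓝 x, ContinuousAt h y) :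
    Continuous (germ h x) := by
  obtain ⟨δ, hδ, hb⟩ := Metric.eventually_nhds_iff_ball.1 hc
  have hr := rad_pos h x
  rw [continuous_iff_continuousAt]
  intro v₀
  set m : ℝ := min δ (rad h x)
  have hm : 0 < m := lt_min hδ hr
  set s : ℝ := m / (2 * (2 + ‖v₀‖)) with hs
  have hs0 : 0 < s := by positivity
  have hsm : ∀ v ∈ ball v₀ 1, s * ‖v‖ < m := by
    intro v hv
    have h1 : ‖v‖ ≤ ‖v₀‖ + 1 := by
      have := norm_le_norm_add_norm_sub' v v₀
      rw [mem_ball, dist_eq_norm] at hv
      linarith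
    rw [hs, div_mul_eq_mul_div, div_lt_iff₀ (by positivity)]
    nlinarith [norm_nonneg v₀, norm_nonneg v]
  have e : ∀ v ∈ ball v₀ 1, germ h x v = s⁻¹ • (h (x + s • v) - h x) := fun v hv =>
    hx.germ_eq hs0 (lt_of_lt_of_le (hsm v hv) (min_le_right _ _))
  have hc0 : ContinuousAt (fun v => s⁻¹ • (h (x + s • v) - h x)) v₀ := by
    have h1 : ContinuousAt h (x + s • v₀) := by
      apply hb
      have := hsm v₀ (mem_ball_self one_pos)
      rw [mem_ball, dist_eq_norm, add_sub_cancel_left, norm_smul, Real.norm_of_nonneg hs0.le]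
      exact lt_of_lt_of_le this (min_le_left _ _)
    have h2 : ContinuousAt (fun v : E => x + s • v) v₀ := by fun_prop
    have h3 : ContinuousAt (fun v : E => h (x + s • v)) v₀ := ContinuousAt.comp (f := fun v : E => x + s • v) h1 h2
    exact (h3.sub continuousAt_const).const_smul _
  exact hc0.congr (Filter.eventually_of_mem (ball_mem_nhds v₀ one_pos) fun v hv => (e v hv).symm)

omit [NormedSpace ℝ E] [NormedSpace ℝ F] in
theorem continuousAt_near {h : E → F} {Ω : Set E} (hΩ : IsOpen Ω) (hc : ContinuousOn h Ω) {x : E} (hx : x ∈ Ω) :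
    ∀ᶠ y in 𝓝 x, ContinuousAt h y :=
  Filter.eventually_of_mem (hΩ.mem_nhds hx) fun _ hy => hc.continuousAt (hΩ.mem_nhds hy)

/-- a continuous positively homogeneous map on a finite dimensional space is bounded. -/
theorem PosHom.bound [FiniteDimensional ℝ E] {H : E → F} (hH : PosHom H) (hc : Continuous H) :
    ∃ C : ℝ, 0 ≤ C ∧ ∀ v, ‖H v‖ ≤ C * ‖v‖ := by
  obtain ⟨C, hC⟩ := (isCompact_sphere (0 : E) 1).exists_bound_of_continuousOn hc.continuousOn
  refine ⟨max C 0, le_max_right _ _, fun v => ?_⟩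
  rcases eq_or_ne v 0 with rfl | hv
  · simp [hH.zero]
  · have hn : 0 < ‖v‖ := norm_pos_iff.2 hv
    have h1 : H v = ‖v‖ • H (‖v‖⁻¹ • v) := by
      rw [← hH _ hn.le, smul_smul, mul_inv_cancel₀ hn.ne', one_smul]
    have h2 : ‖H (‖v‖⁻¹ • v)‖ ≤ C := hC _ (by
      rw [mem_sphere_zero_iff_norm, norm_smul, norm_inv, norm_norm, inv_mul_cancel₀ hn.ne'])
    rw [h1, norm_smul, norm_norm, mul_comm]
    exact mul_le_mul_of_nonneg_right (h2.trans (le_max_left _ _)) hn.le

/-- a positively homogeneous map with no zero on the sphere is bounded below. -/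
theorem PosHom.lower [FiniteDimensional ℝ E] {H : E → F} (hH : PosHom H) (hc : Continuous H)
    (h0 : ∀ v, H v = 0 → v = 0) : ∃ c : ℝ, 0 < c ∧ ∀ v, c * ‖v‖ ≤ ‖H v‖ := by
  rcases subsingleton_or_nontrivial E with hE | hE
  · exact ⟨1, one_pos, fun v => by rw [Subsingleton.elim v 0]; simp⟩
  obtain ⟨v₀, hv₀, hmin⟩ := (isCompact_sphere (0 : E) 1).exists_isMinOn
    (NormedSpace.sphere_nonempty.2 zero_le_one) hc.norm.continuousOn
  have hpos : 0 < ‖H v₀‖ := by
    rw [norm_pos_iff]
    intro h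
    have h' := h0 v₀ h
    rw [h', mem_sphere_zero_iff_norm, norm_zero] at hv₀
    exact zero_ne_one hv₀
  refine ⟨‖H v₀‖, hpos, fun v => ?_⟩
  rcases eq_or_ne v 0 with rfl | hv
  · simp
  · have hn : 0 < ‖v‖ := norm_pos_iff.2 hv
    have h1 : H v = ‖v‖ • H (‖v‖⁻¹ • v) := by
      rw [← hH _ hn.le, smul_smul, mul_inv_cancel₀ hn.ne', one_smul]
    have h2 : ‖H v₀‖ ≤ ‖H (‖v‖⁻¹ • v)‖ := hmin (by
      rw [mem_sphere_zero_iff_norm, norm_smul, norm_inv, norm_norm, inv_mul_cancel₀ hn.ne'])
    rw [h1, norm_smul, norm_norm, mul_comm]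
    exact mul_le_mul_of_nonneg_left h2 hn.le

section finite

variable [FiniteDimensional ℝ E]

/-- a continuous linear projection with kernel a given subspace. -/
theorem exists_proj (T : Submodule ℝ E) : ∃ P : E →L[ℝ] E, (∀ u, u - P u ∈ T) ∧ (∀ u, P u ∈ T → P u = 0) ∧
    (∀ u ∈ T, P u = 0) ∧ (∀ u, P (P u) = P u) := by
  obtain ⟨N, hN⟩ := T.exists_isCompl
  set q : E →ₗ[ℝ] E := N.subtype ∘ₗ Submodule.projectionOnto N T hN.symm with hq
  have hqa : ∀ u, q u = (Submodule.projectionOnto N T hN.symm u : E) := fun u => rfl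
  have hqq : ∀ u, q (q u) = q u := by
    intro u
    rw [hqa, hqa, Submodule.projectionOnto_apply_left]
  have hker : ∀ u, q u = 0 ↔ u ∈ T := by
    intro u
    rw [hqa, Submodule.coe_eq_zero]
    exact Submodule.projectionOnto_apply_eq_zero_iff hN.symm
  refine ⟨LinearMap.toContinuousLinearMap q, ?_, ?_, ?_, ?_⟩
  · intro u
    show u - q u ∈ T
    rw [← hker, map_sub, hqq, sub_self]
  · intro u hu
    show q u = 0
    have h1 : q (q u) = 0 := (hker _).2 hu
    rwa [hqq] at h1
  · intro u hu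
    exact (hker u).2 hu
  · intro u
    exact hqq u

/-- near every point only finitely many germs occur. -/
theorem finite_germ_near {h : E → F} {Ω : Set E} (hΩ : IsOpen Ω) (hh : LocConical h Ω) :
    ∀ x ∈ Ω, ∃ δ > 0, ball x δ ⊆ Ω ∧ (germ h '' ball x δ).Finite := by
  have main : ∀ k : ℕ, ∀ x ∈ Ω, Module.finrank ℝ E ≤ Module.finrank ℝ (Tan h x) + k →
      ∃ δ > 0, ball x δ ⊆ Ω ∧ (germ h '' ball x δ).Finite := by
    intro k
    induction k with
    | zero =>
      intro x hx hk
      have hcx := hh.conAt hx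
      obtain ⟨ε, hε, hb⟩ := Metric.isOpen_iff.1 hΩ x hx
      have hT : Tan h x = ⊤ := Submodule.eq_top_of_finrank_eq
        (le_antisymm (Submodule.finrank_le _) (by simpa using hk))
      have hm : 0 < min ε (rad h x) := lt_min hε (rad_pos h x)
      refine ⟨min ε (rad h x), hm, (ball_subset_ball (min_le_left _ _)).trans hb, ?_⟩
      refine (Set.finite_singleton (germ h x)).subset ?_
      rintro _ ⟨y, hy, rfl⟩
      have hy1 : ‖y - x‖ < min ε (rad h x) := by rwa [mem_ball, dist_eq_norm] at hy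
      have hyΩ : y ∈ Ω := hb (ball_subset_ball (min_le_left _ _) hy)
      have := germ_eq_of_mem (u := y - x) hcx (lt_of_lt_of_le hy1 (min_le_right _ _))
        (by simpa using hh.conAt hyΩ) (by rw [hT]; trivial)
      simpa using this
    | succ k ih =>
      intro x hx hk
      have hcx := hh.conAt hx
      obtain ⟨ε, hε, hb⟩ := Metric.isOpen_iff.1 hΩ x hx
      set ρ : ℝ := min ε (rad h x) / 2 with hρ
      have hm : 0 < min ε (rad h x) := lt_min hε (rad_pos h x)
      have hρ0 : 0 < ρ := by positivity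
      have hρε : ρ < ε := by have := min_le_left ε (rad h x); rw [hρ]; linarith
      have hρr : ρ < rad h x := by have := min_le_right ε (rad h x); rw [hρ]; linarith
      have hmemΩ : ∀ u : E, ‖u‖ ≤ ρ → x + u ∈ Ω := fun u hu => hb (by
        rw [mem_ball, dist_eq_norm, add_sub_cancel_left]; exact lt_of_le_of_lt hu hρε)
      obtain ⟨P, hP1, hP2, hP3, hP4⟩ := exists_proj (Tan h x)
      set S : Set E := (fun ω : E => x + ω) '' (sphere 0 ρ ∩ {ω | P ω = ω}) with hS
      have hScomp : IsCompact S := by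
        apply IsCompact.image _ (by fun_prop)
        exact (isCompact_sphere 0 ρ).inter_right (isClosed_eq P.continuous continuous_id)
      have hfin : (germ h '' S).Finite := by
        refine hScomp.induction_on (p := fun t => (germ h '' t).Finite) (by simp) ?_ ?_ ?_
        · intro s t hst ht
          exact ht.subset (image_mono hst)
        · intro s t hs ht
          rw [image_union]; exact hs.union ht
        · rintro z ⟨ω, ⟨hω1, hω2⟩, rfl⟩
          have hω1' : ‖ω‖ = ρ := by simpa using hω1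
          have hω2' : P ω = ω := hω2
          have hzΩ : x + ω ∈ Ω := hmemΩ ω hω1'.le
          have hnot : ω ∉ Tan h x := by
            intro hmem
            have h1 := hP3 ω hmem
            rw [hω2'] at h1
            rw [h1, norm_zero] at hω1'
            exact hρ0.ne hω1'
          have hlt := finrank_Tan_lt hcx (by rw [hω1']; exact hρr) (hh.conAt hzΩ) hnot
          obtain ⟨δ, hδ, _, hδ2⟩ := ih (x + ω) hzΩ (by omega)
          exact ⟨ball (x + ω) δ, mem_nhdsWithin_of_mem_nhds (ball_mem_nhds _ hδ), hδ2⟩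
      refine ⟨ρ / (1 + ‖P‖), by positivity, ?_, ?_⟩
      · refine (ball_subset_ball ?_).trans hb
        have h1 : ρ / (1 + ‖P‖) ≤ ρ := div_le_self hρ0.le (by linarith [norm_nonneg P])
        linarith
      refine (hfin.union (Set.finite_singleton (germ h x))).subset ?_
      rintro _ ⟨y, hy, rfl⟩
      set u : E := y - x with hu
      have hyu : y = x + u := by rw [hu]; abel
      have hun : ‖u‖ < ρ / (1 + ‖P‖) := by rwa [mem_ball, dist_eq_norm] at hy
      have hun' : ‖u‖ * (1 + ‖P‖) < ρ := by rwa [lt_div_iff₀ (by positivity)] at hun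
      have hur : ‖u‖ < ρ := by nlinarith [norm_nonneg u, norm_nonneg P, mul_nonneg (norm_nonneg u) (norm_nonneg P)]
      have hPu : ‖P u‖ < ρ := lt_of_le_of_lt (P.le_opNorm u) (by nlinarith [norm_nonneg u, norm_nonneg P])
      rw [hyu]
      by_cases h0 : P u = 0
      · right
        have huT : u ∈ Tan h x := by simpa [h0] using hP1 u
        exact germ_eq_of_mem hcx (hur.trans hρr) (hh.conAt (hmemΩ u hur.le)) huT
      · left
        have hPn : 0 < ‖P u‖ := norm_pos_iff.2 h0
        have e1 : germ h (x + u) = germ h (x + P u) := by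
          have h1 : u = (u - P u) + P u := by abel
          have h2 := germ_trans (u := P u) (t := u - P u) hcx (hPu.trans hρr) (hh.conAt (hmemΩ _ hPu.le)) (hP1 u)
            (by rw [← h1]; exact hur.trans hρr) (by rw [← h1]; exact hh.conAt (hmemΩ _ hur.le))
          rwa [← h1] at h2
        set ω : E := (ρ / ‖P u‖) • P u with hω
        have hωn : ‖ω‖ = ρ := by
          rw [hω, norm_smul, Real.norm_of_nonneg (by positivity), div_mul_cancel₀ _ hPn.ne']
        have hωP : P ω = ω := by rw [hω, map_smul, hP4]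
        have e2 : germ h (x + P u) = germ h (x + ω) := by
          have h3 : (‖P u‖ / ρ) • ω = P u := by
            rw [hω, smul_smul, div_mul_div_cancel₀ hρ0.ne', div_self hPn.ne', one_smul]
          have h4 := germ_scale (u := ω) (c := ‖P u‖ / ρ) hcx (by rw [hωn]; exact hρr) (hh.conAt (hmemΩ _ hωn.le))
            (by positivity) (by rw [h3]; exact hPu.trans hρr) (by rw [h3]; exact hh.conAt (hmemΩ _ hPu.le))
          rwa [h3] at h4
        rw [e1, e2]
        exact ⟨x + ω, ⟨ω, ⟨by simpa using hωn, hωP⟩, rfl⟩, rfl⟩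
  intro x hx
  exact main (Module.finrank ℝ E) x hx (by omega)

/-- finitely many germs on every compact subset. -/
theorem finite_germ_image {h : E → F} {Ω : Set E} (hΩ : IsOpen Ω) (hh : LocConical h Ω) {K : Set E}
    (hK : IsCompact K) (hKΩ : K ⊆ Ω) : (germ h '' K).Finite := by
  refine hK.induction_on (p := fun t => (germ h '' t).Finite) (by simp) ?_ ?_ ?_
  · intro s t hst ht
    exact ht.subset (image_mono hst)
  · intro s t hs ht
    rw [image_union]; exact hs.union ht
  · intro x hx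
    obtain ⟨δ, hδ, _, h2⟩ := finite_germ_near hΩ hh x (hKΩ hx)
    exact ⟨ball x δ, mem_nhdsWithin_of_mem_nhds (ball_mem_nhds _ hδ), h2⟩

/-- uniform bound of the germs on a compact set. -/
theorem germ_bound {h : E → F} {Ω : Set E} (hΩ : IsOpen Ω) (hh : LocConical h Ω) (hc : ContinuousOn h Ω) {K : Set E}
    (hK : IsCompact K) (hKΩ : K ⊆ Ω) : ∃ C : ℝ, 0 ≤ C ∧ ∀ x ∈ K, ∀ v, ‖germ h x v‖ ≤ C * ‖v‖ := by
  have hfin := finite_germ_image hΩ hh hK hKΩ
  have hex : ∀ H ∈ germ h '' K, ∃ C : ℝ, 0 ≤ C ∧ ∀ v, ‖H v‖ ≤ C * ‖v‖ := by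
    rintro _ ⟨x, hx, rfl⟩
    have hcx := hh.conAt (hKΩ hx)
    exact hcx.posHom.bound (hcx.continuous_germ (continuousAt_near hΩ hc (hKΩ hx)))
  choose! C hC0 hC using hex
  obtain ⟨M, hM⟩ := (hfin.image C).bddAbove
  refine ⟨max M 0, le_max_right _ _, fun x hx v => ?_⟩
  refine (hC _ ⟨x, hx, rfl⟩ v).trans (mul_le_mul_of_nonneg_right ?_ (norm_nonneg v))
  exact (hM ⟨_, ⟨x, hx, rfl⟩, rfl⟩).trans (le_max_left _ _)

end finite

/-- Lipschitz bound along a segment from bounds of the germs. -/
theorem norm_sub_le_of_germ {h : E → F} {a b : E} {C : ℝ} (hcon : ∀ y ∈ segment ℝ a b, ConAt h y)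
    (hc : ContinuousOn h (segment ℝ a b)) (hC : ∀ y ∈ segment ℝ a b, ∀ v, ‖germ h y v‖ ≤ C * ‖v‖) :
    ‖h b - h a‖ ≤ C * ‖b - a‖ := by
  set f : ℝ → F := fun t => h (a + t • (b - a)) with hf
  have hseg : ∀ t ∈ Icc (0 : ℝ) 1, a + t • (b - a) ∈ segment ℝ a b := by
    intro t ht
    rw [segment_eq_image']
    exact ⟨t, ht, rfl⟩
  have hcf : ContinuousOn f (Icc 0 1) :=
    hc.comp (by fun_prop) hseg
  have hder : ∀ t ∈ Ico (0 : ℝ) 1, HasDerivWithinAt f (germ h (a + t • (b - a)) (b - a)) (Ici t) t := by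
    intro t ht
    have hy := hcon _ (hseg t ⟨ht.1, ht.2.le⟩)
    set y := a + t • (b - a) with hydef
    have hr := rad_pos h y
    set g : ℝ → F := fun s => h y + (s - t) • germ h y (b - a) with hg
    have hg' : HasDerivWithinAt g (germ h y (b - a)) (Ici t) t := by
      have h1 : HasDerivAt (fun s : ℝ => s - t) 1 t := (hasDerivAt_id t).sub_const t
      have h2 := (h1.smul_const (germ h y (b - a))).const_add (h y)
      simpa [hg] using h2.hasDerivWithinAt
    refine hg'.congr_of_eventuallyEq ?_ (by simp [hf, hg, hydef])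
    have hev : ∀ᶠ s in 𝓝 t, (s - t) * ‖b - a‖ < rad h y := by
      have : ContinuousAt (fun s : ℝ => (s - t) * ‖b - a‖) t := by fun_prop
      have h3 := this.eventually (gt_mem_nhds (a := rad h y) (by simpa using hr))
      exact h3
    filter_upwards [mem_nhdsWithin_of_mem_nhds hev, self_mem_nhdsWithin] with s hs hst
    have hst' : 0 ≤ s - t := sub_nonneg.2 hst
    have e : a + s • (b - a) = y + (s - t) • (b - a) := by
      rw [hydef, add_assoc, ← add_smul]; congr 2; ring
    show h (a + s • (b - a)) = h y + (s - t) • germ h y (b - a)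
    rw [e]
    exact hy.apply_add_smul hst' hs
  have := norm_image_sub_le_of_norm_deriv_right_le_segment hcf hder
    (C := C * ‖b - a‖) (fun t ht => hC _ (hseg t ⟨ht.1, ht.2.le⟩) _) 1 (right_mem_Icc.2 zero_le_one)
  simpa [hf] using this

/-- Lipschitz on convex sets. -/
theorem lipschitzOnWith_of_germ {h : E → F} {s : Set E} (hs : Convex ℝ s) {C : NNReal} (hcon : ∀ y ∈ s, ConAt h y)
    (hc : ContinuousOn h s) (hC : ∀ y ∈ s, ∀ v, ‖germ h y v‖ ≤ C * ‖v‖) : LipschitzOnWith C h s := by
  refine LipschitzOnWith.of_dist_le_mul fun a ha b hb => ?_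
  have hsub := hs.segment_subset hb ha
  have := norm_sub_le_of_germ (a := b) (b := a) (C := C) (fun y hy => hcon y (hsub hy)) (hc.mono hsub)
    (fun y hy => hC y (hsub hy))
  rwa [dist_eq_norm, dist_eq_norm]

theorem exists_lipschitzOnWith_near [FiniteDimensional ℝ E] {h : E → F} {Ω : Set E} (hΩ : IsOpen Ω)
    (hh : LocConical h Ω) (hc : ContinuousOn h Ω) {x : E} (hx : x ∈ Ω) :
    ∃ δ > 0, ∃ C : NNReal, ball x δ ⊆ Ω ∧ LipschitzOnWith C h (ball x δ) := by
  obtain ⟨ε, hε, hb⟩ := Metric.isOpen_iff.1 hΩ x hx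
  have hsub : closedBall x (ε / 2) ⊆ Ω := (closedBall_subset_ball (by linarith)).trans hb
  obtain ⟨C, hC0, hC⟩ := germ_bound hΩ hh hc (isCompact_closedBall x (ε / 2)) hsub
  refine ⟨ε / 2, by positivity, ⟨C, hC0⟩, ball_subset_closedBall.trans hsub, ?_⟩
  exact lipschitzOnWith_of_germ (convex_ball _ _) (fun y hy => hh.conAt (hsub (ball_subset_closedBall hy)))
    (hc.mono (ball_subset_closedBall.trans hsub)) (fun y hy => hC y (ball_subset_closedBall hy))

end Crest.Agent.R096.Germ_879
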