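import Crest.Agent.R096.Germ3_879

/-!
# R096: locally conical homeomorphisms: germs are bi-Lipschitz homeomorphisms, the inverse is locally conical
(helper879; P5-GERM)
-/

set_option autoImplicit false
set_option linter.unusedSectionVars false

namespace Crest.Agent.R096.Germ_879

open Set Metric Filter Topology

variable {E F : Type*} [NormedAddCommGroup E] [NormedSpace ℝ E] [NormedAddCommGroup F] [NormedSpace ℝ F]

/-- two-sided data of a homeomorphism of open sets (inverse as data). -/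
structure HomeoOn (h : E → F) (k : F → E) (Ω : Set E) (Λ : Set F) : Prop where
  openΩ : IsOpen Ω
  openΛ : IsOpen Λ
  maps : MapsTo h Ω Λ
  maps' : MapsTo k Λ Ω
  left : ∀ x ∈ Ω, k (h x) = x
  right : ∀ y ∈ Λ, h (k y) = y
  cont : ContinuousOn h Ω
  cont' : ContinuousOn k Λ

namespace HomeoOn

variable {h : E → F} {k : F → E} {Ω : Set E} {Λ : Set F}

theorem symm (H : HomeoOn h k Ω Λ) : HomeoOn k h Λ Ω :=
  ⟨H.openΛ, H.openΩ, H.maps', H.maps, H.right, H.left, H.cont', H.cont⟩

theorem injOn (H : HomeoOn h k Ω Λ) : InjOn h Ω := fun x hx y hy e => by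
  rw [← H.left x hx, ← H.left y hy, e]

theorem isOpen_image (H : HomeoOn h k Ω Λ) {U : Set E} (hU : IsOpen U) (hUΩ : U ⊆ Ω) : IsOpen (h '' U) := by
  have e : h '' U = Λ ∩ k ⁻¹' U := by
    ext y
    constructor
    · rintro ⟨x, hx, rfl⟩
      exact ⟨H.maps (hUΩ hx), by rw [mem_preimage, H.left x (hUΩ hx)]; exact hx⟩
    · rintro ⟨hy, hy'⟩
      exact ⟨k y, hy', H.right y hy⟩
  rw [e]
  exact H.cont'.isOpen_inter_preimage H.openΛ hU

end HomeoOn

/-- injectivity of the germ. -/
theorem germ_injective {h : E → F} {Ω : Set E} (hΩ : IsOpen Ω) (hinj : InjOn h Ω) {x : E} (hx : x ∈ Ω)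
    (hcx : ConAt h x) : Function.Injective (germ h x) := by
  intro v w e
  obtain ⟨ε, hε, hb⟩ := Metric.isOpen_iff.1 hΩ x hx
  have hr := rad_pos h x
  set m : ℝ := min ε (rad h x)
  have hm : 0 < m := lt_min hε hr
  set s : ℝ := m / (2 * (1 + ‖v‖ + ‖w‖)) with hs
  have hs0 : 0 < s := by positivity
  have h1 : s * ‖v‖ < m := by
    rw [hs, div_mul_eq_mul_div, div_lt_iff₀ (by positivity)]
    nlinarith [norm_nonneg v, norm_nonneg w]
  have h2 : s * ‖w‖ < m := by
    rw [hs, div_mul_eq_mul_div, div_lt_iff₀ (by positivity)]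
    nlinarith [norm_nonneg v, norm_nonneg w]
  have e1 := hcx.apply_add_smul (v := v) hs0.le (lt_of_lt_of_le h1 (min_le_right _ _))
  have e2 := hcx.apply_add_smul (v := w) hs0.le (lt_of_lt_of_le h2 (min_le_right _ _))
  rw [e, ← e2] at e1
  have h3 : x + s • v ∈ Ω := hb (by
    rw [mem_ball, dist_eq_norm, add_sub_cancel_left, norm_smul, Real.norm_of_nonneg hs0.le]
    exact lt_of_lt_of_le h1 (min_le_left _ _))
  have h4 : x + s • w ∈ Ω := hb (by
    rw [mem_ball, dist_eq_norm, add_sub_cancel_left, norm_smul, Real.norm_of_nonneg hs0.le]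
    exact lt_of_lt_of_le h2 (min_le_left _ _))
  have h5 := add_left_cancel (hinj h3 h4 e1)
  have := congrArg (fun z => s⁻¹ • z) h5
  simpa [smul_smul, inv_mul_cancel₀ hs0.ne'] using this

section homeo

variable {h : E → F} {k : F → E} {Ω : Set E} {Λ : Set F}

/-- the germ of the inverse, and its conicality: no compactness needed. -/
theorem HomeoOn.conAt_symm (H : HomeoOn h k Ω Λ) {x : E} (hx : x ∈ Ω) (hcx : ConAt h x) :
    ConAt k (h x) ∧ (∀ v, germ k (h x) (germ h x v) = v) ∧ (∀ w, germ h x (germ k (h x) w) = w) := by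
  obtain ⟨ε, hε, hb⟩ := Metric.isOpen_iff.1 H.openΩ x hx
  set m : ℝ := min ε (rad h x) with hmdef
  have hm : 0 < m := lt_min hε (rad_pos h x)
  have hinj := germ_injective H.openΩ H.injOn hx hcx
  have hpos := hcx.posHom
  -- `h` maps the ball onto an open neighbourhood of `h x`
  have hopen : IsOpen (h '' ball x m) := H.isOpen_image isOpen_ball ((ball_subset_ball (min_le_left _ _)).trans hb)
  obtain ⟨δ, hδ, hδb⟩ := Metric.isOpen_iff.1 hopen (h x) ⟨x, mem_ball_self hm, rfl⟩
  -- solving `germ h x v = w`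
  have hsol : ∀ w : F, ‖w‖ < δ → ∃ v : E, ‖v‖ < m ∧ germ h x v = w ∧ k (h x + w) = x + v := by
    intro w hw
    obtain ⟨y, hy, e⟩ := hδb (show h x + w ∈ ball (h x) δ by
      rw [mem_ball, dist_eq_norm, add_sub_cancel_left]; exact hw)
    have hy' : ‖y - x‖ < m := by rwa [mem_ball, dist_eq_norm] at hy
    refine ⟨y - x, hy', ?_, ?_⟩
    · have := hcx.apply_add (v := y - x) (lt_of_lt_of_le hy' (min_le_right _ _))
      rw [add_sub_cancel, e] at this
      exact (add_left_cancel this).symm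
    · rw [← e, H.left y (hb (ball_subset_ball (min_le_left _ _) hy))]
      abel
  have hsurj : Function.Surjective (germ h x) := by
    intro w
    have hw : 0 < 1 + ‖w‖ := by positivity
    set s : ℝ := δ / (2 * (1 + ‖w‖)) with hs
    have hs0 : 0 < s := by positivity
    obtain ⟨v, _, hv, _⟩ := hsol (s • w) (by
      rw [norm_smul, Real.norm_of_nonneg hs0.le, hs, div_mul_eq_mul_div, div_lt_iff₀ (by positivity)]
      nlinarith [norm_nonneg w])
    refine ⟨s⁻¹ • v, ?_⟩
    rw [hpos _ (inv_nonneg.2 hs0.le), hv, smul_smul, inv_mul_cancel₀ hs0.ne', one_smul]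
  set G : E ≃ F := Equiv.ofBijective _ ⟨hinj, hsurj⟩ with hG
  have hGs : ∀ v, G v = germ h x v := fun v => rfl
  have hGpos : PosHom (G.symm : F → E) := by
    intro c hc w
    apply G.injective
    rw [G.apply_symm_apply, hGs, hpos c hc, ← hGs, G.apply_symm_apply]
  have hloc : ∀ w : F, ‖w‖ < δ → k (h x + w) = k (h x) + G.symm w := by
    intro w hw
    obtain ⟨v, _, hv, e⟩ := hsol w hw
    have : G.symm w = v := by
      apply G.injective
      rw [G.apply_symm_apply, hGs, hv]
    rw [e, this, H.left x hx]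
  have hgerm : germ k (h x) = G.symm := germ_eq_of hδ hGpos hloc
  refine ⟨⟨δ, hδ, conR_of_eq hGpos hloc⟩, fun v => ?_, fun w => ?_⟩
  · rw [hgerm, ← hGs, G.symm_apply_apply]
  · rw [hgerm, ← hGs, G.apply_symm_apply]

theorem HomeoOn.locConical_symm (H : HomeoOn h k Ω Λ) (hh : LocConical h Ω) : LocConical k Λ := by
  intro y hy
  have := (H.conAt_symm (H.maps' hy) (hh.conAt (H.maps' hy))).1
  rwa [H.right y hy] at this

/-- the lineality space of the inverse. -/
theorem HomeoOn.mem_Tan_symm (H : HomeoOn h k Ω Λ) {x : E} (hx : x ∈ Ω) (hcx : ConAt h x) {u : E}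
    (hu : u ∈ Tan h x) : germ h x u ∈ Tan k (h x) := by
  obtain ⟨hck, h1, h2⟩ := H.conAt_symm hx hcx
  intro τ w
  have e : τ • germ h x u + w = germ h x (τ • u + germ k (h x) w) := by
    rw [hu, h2]
  rw [e, h1, h1]

theorem HomeoOn.mem_Tan_iff_symm (H : HomeoOn h k Ω Λ) {x : E} (hx : x ∈ Ω) (hcx : ConAt h x) {u : E} :
    germ h x u ∈ Tan k (h x) ↔ u ∈ Tan h x := by
  refine ⟨fun hu => ?_, H.mem_Tan_symm hx hcx⟩
  obtain ⟨hck, h1, h2⟩ := H.conAt_symm hx hcx
  have := H.symm.mem_Tan_symm (x := h x) (H.maps hx) hck hu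
  rwa [h1, H.left x hx] at this

/-- linear equivalence between the lineality spaces. -/
noncomputable def HomeoOn.tanEquiv (H : HomeoOn h k Ω Λ) {x : E} (hx : x ∈ Ω) (hcx : ConAt h x) :
    Tan h x ≃ₗ[ℝ] Tan k (h x) where
  toFun u := ⟨germ h x u, H.mem_Tan_symm hx hcx u.2⟩
  map_add' u v := Subtype.ext (germ_add_of_mem u.2 v)
  map_smul' c u := Subtype.ext (germ_smul_of_mem u.2 c)
  invFun w := ⟨germ k (h x) w, by
    rw [← H.mem_Tan_iff_symm hx hcx, (H.conAt_symm hx hcx).2.2]; exact w.2⟩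
  left_inv u := Subtype.ext ((H.conAt_symm hx hcx).2.1 u)
  right_inv w := Subtype.ext ((H.conAt_symm hx hcx).2.2 w)

theorem HomeoOn.finrank_Tan (H : HomeoOn h k Ω Λ) {x : E} (hx : x ∈ Ω) (hcx : ConAt h x) :
    Module.finrank ℝ (Tan k (h x)) = Module.finrank ℝ (Tan h x) :=
  (LinearEquiv.finrank_eq (H.tanEquiv hx hcx)).symm

/-- the germ as a homeomorphism. -/
noncomputable def HomeoOn.germHomeo (H : HomeoOn h k Ω Λ) {x : E} (hx : x ∈ Ω) (hcx : ConAt h x) : E ≃ₜ F where
  toFun := germ h x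
  invFun := germ k (h x)
  left_inv := (H.conAt_symm hx hcx).2.1
  right_inv := (H.conAt_symm hx hcx).2.2
  continuous_toFun := hcx.continuous_germ (continuousAt_near H.openΩ H.cont hx)
  continuous_invFun := (H.conAt_symm hx hcx).1.continuous_germ (continuousAt_near H.openΛ H.cont' (H.maps hx))

@[simp] theorem HomeoOn.germHomeo_apply (H : HomeoOn h k Ω Λ) {x : E} (hx : x ∈ Ω) (hcx : ConAt h x) (v : E) :
    H.germHomeo hx hcx v = germ h x v := rfl

@[simp] theorem HomeoOn.germHomeo_symm_apply (H : HomeoOn h k Ω Λ) {x : E} (hx : x ∈ Ω) (hcx : ConAt h x) (w : F) :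
    (H.germHomeo hx hcx).symm w = germ k (h x) w := rfl

end homeo

/-! ### the germ is itself globally conical -/

theorem PosHom.conR {H : E → F} (hH : PosHom H) (r : ℝ) : ConR H 0 r := by
  intro v _ t ht
  rw [zero_add, zero_add, hH t ht.1, hH.zero, zero_add, sub_zero]

theorem PosHom.conAt {H : E → F} (hH : PosHom H) : ConAt H 0 := ⟨1, one_pos, hH.conR 1⟩

theorem PosHom.germ {H : E → F} (hH : PosHom H) : germ H 0 = H :=
  germ_eq_of one_pos hH (fun v _ => by rw [zero_add, hH.zero, zero_add])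

/-- conicality of a positively homogeneous map is scale invariant. -/
theorem PosHom.conR_smul {H : E → F} (hH : PosHom H) {x : E} {r c : ℝ} (hc : 0 < c) (hx : ConR H x r) :
    ConR H (c • x) (c * r) := by
  intro v hv t ht
  have h1 : ‖c⁻¹ • v‖ < r := by
    rw [norm_smul, norm_inv, Real.norm_of_nonneg hc.le, inv_mul_lt_iff₀ hc]
    exact hv
  have h2 := hx (c⁻¹ • v) h1 t ht
  have e1 : c • x + t • v = c • (x + t • c⁻¹ • v) := by
    rw [smul_add, smul_comm t, smul_smul c c⁻¹, mul_inv_cancel₀ hc.ne', one_smul]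
  have e2 : c • x + v = c • (x + c⁻¹ • v) := by
    rw [smul_add, smul_smul c c⁻¹, mul_inv_cancel₀ hc.ne', one_smul]
  rw [e1, e2, hH c hc.le, hH c hc.le, hH c hc.le, h2, smul_add, smul_comm c t, smul_sub c]

/-- near `x`, conicality of `h` at `x + u` with radius `r` is conicality of the germ at `u`. -/
theorem conR_iff_germ {h : E → F} {x u : E} {r ρ : ℝ} (hρ : ∀ v : E, ‖v‖ < ρ → h (x + v) = h x + germ h x v)
    (hur : ‖u‖ + r ≤ ρ) (hr : 0 ≤ r) : ConR h (x + u) r ↔ ConR (germ h x) u r := by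
  rcases hr.eq_or_lt with rfl | hr
  · exact ⟨fun _ v hv => absurd hv (not_lt.2 (norm_nonneg v)), fun _ v hv => absurd hv (not_lt.2 (norm_nonneg v))⟩
  have key : ∀ w : E, ‖w‖ < r → h (x + u + w) = h x + germ h x (u + w) := by
    intro w hw
    rw [add_assoc, hρ]
    exact lt_of_le_of_lt (norm_add_le _ _) (by linarith)
  have key0 : h (x + u) = h x + germ h x u := by simpa using key 0 (by simpa using hr)
  have hts : ∀ v : E, ‖v‖ < r → ∀ t ∈ Icc (0 : ℝ) 1, ‖t • v‖ < r := by
    intro v hv t ht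
    rw [norm_smul, Real.norm_of_nonneg ht.1]
    exact lt_of_le_of_lt (mul_le_of_le_one_left (norm_nonneg v) ht.2) hv
  constructor
  · intro H v hv t ht
    have := H v hv t ht
    rw [key _ (hts v hv t ht), key v hv, key0, add_sub_add_left_eq_sub, add_assoc] at this
    exact add_left_cancel this
  · intro H v hv t ht
    have := H v hv t ht
    rw [key _ (hts v hv t ht), key v hv, key0, add_sub_add_left_eq_sub, add_assoc, this]

end Crest.Agent.R096.Germ_879
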