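import Crest.Agent.R096.Germ4_879

/-!
# R096: the conic radius (helper879; P5-GERM)

`crad h Ω x` = the largest `r ≤ 1` with `ball x r ⊆ Ω` and `h` conical about `x` on `ball x r`.
-/

set_option autoImplicit false
set_option linter.unusedSectionVars false

namespace Crest.Agent.R096.Germ_879

open Set Metric Filter Topology

variable {E F : Type*} [NormedAddCommGroup E] [NormedSpace ℝ E] [NormedAddCommGroup F] [NormedSpace ℝ F]

/-! ### the near lemmas with an arbitrary radius of conicality -/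

theorem ConR.near_step {h : E → F} {x u : E} {ρ : ℝ} (hρ : ConR h x ρ) (hu : ‖u‖ < ρ) (hy : ConAt h (x + u)) (w : E) :
    ∃ ε > 0, ∀ s : ℝ, 0 ≤ s → s < ε → germ h x (u + s • w) = germ h x u + s • germ h (x + u) w := by
  have hρ0 : 0 < ρ := lt_of_le_of_lt (norm_nonneg u) hu
  have hr' := rad_pos h (x + u)
  have hd : 0 < ρ - ‖u‖ := sub_pos.2 hu
  refine ⟨min ((ρ - ‖u‖) / (1 + ‖w‖)) (rad h (x + u) / (1 + ‖w‖)), lt_min (by positivity) (by positivity), ?_⟩
  intro s hs hs1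
  have h1 : s * (1 + ‖w‖) < ρ - ‖u‖ := by
    rw [← lt_div_iff₀ (by positivity)]; exact lt_of_lt_of_le hs1 (min_le_left _ _)
  have h2 : s * (1 + ‖w‖) < rad h (x + u) := by
    rw [← lt_div_iff₀ (by positivity)]; exact lt_of_lt_of_le hs1 (min_le_right _ _)
  have h3 : ‖u + s • w‖ < ρ := by
    refine lt_of_le_of_lt (norm_add_le _ _) ?_
    rw [norm_smul, Real.norm_of_nonneg hs]
    nlinarith
  have e1 := hρ.apply_add hρ0 h3
  have e2 := hρ.apply_add hρ0 hu
  have e3 := hy.apply_add_smul (v := w) hs (by nlinarith)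
  rw [← add_assoc, e3, e2, add_assoc] at e1
  exact (add_left_cancel e1).symm

theorem ConR.germ_near_unique {h : E → F} {x u : E} {ρ : ℝ} (hρ : ConR h x ρ) (hu : ‖u‖ < ρ) (hy : ConAt h (x + u))
    {w : E} {z : F} {ε : ℝ} (hε : 0 < ε) (H : ∀ s : ℝ, 0 < s → s < ε → germ h x (u + s • w) = germ h x u + s • z) :
    germ h (x + u) w = z := by
  obtain ⟨δ, hδ, H'⟩ := hρ.near_step hu hy w
  set s : ℝ := min (ε / 2) (δ / 2)
  have hs : 0 < s := lt_min (by positivity) (by positivity)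
  have h1 : s < ε := lt_of_le_of_lt (min_le_left _ _) (by linarith)
  have h2 : s < δ := lt_of_le_of_lt (min_le_right _ _) (by linarith)
  have e := (H' s hs.le h2).symm.trans (H s hs h1)
  have e' := add_left_cancel e
  have := congrArg (fun z => s⁻¹ • z) e'
  simpa [smul_smul, inv_mul_cancel₀ hs.ne'] using this

theorem ConR.conAt {h : E → F} {x : E} {ρ : ℝ} (hρ : ConR h x ρ) (h0 : 0 < ρ) : ConAt h x := ⟨ρ, h0, hρ⟩

theorem ConR.germ_near {h : E → F} {x u : E} {ρ : ℝ} (hρ : ConR h x ρ) (hu : ‖u‖ < ρ) (hy : ConAt h (x + u))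
    (τ : ℝ) (v : E) : germ h (x + u) (τ • u + v) = τ • germ h x u + germ h (x + u) v := by
  have hx : ConAt h x := hρ.conAt (lt_of_le_of_lt (norm_nonneg u) hu)
  obtain ⟨δ, hδ, H⟩ := hρ.near_step hu hy v
  refine hρ.germ_near_unique hu hy (ε := min (1 / (2 * (1 + |τ|))) (δ / 2)) (lt_min (by positivity) (by positivity)) ?_
  intro s hs hs1
  have h1 : s * (2 * (1 + |τ|)) < 1 := by
    rw [← lt_div_iff₀ (by positivity)]; exact lt_of_lt_of_le hs1 (min_le_left _ _)
  have h2 : s < δ / 2 := lt_of_lt_of_le hs1 (min_le_right _ _)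
  have h3 : |s * τ| < 1 / 2 := by
    rw [abs_mul, abs_of_pos hs]
    nlinarith
  set c : ℝ := 1 + s * τ with hc
  have hc1 : 1 / 2 < c := by
    have := neg_abs_le (s * τ)
    rw [hc]; linarith
  have hc0 : 0 < c := by linarith
  have h4 : s / c < δ := by
    rw [div_lt_iff₀ hc0]
    nlinarith
  have e1 : u + s • (τ • u + v) = c • (u + (s / c) • v) := by
    rw [smul_add c, smul_smul c, mul_div_cancel₀ _ hc0.ne', hc, add_smul, one_smul, smul_add, smul_smul, add_assoc]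
  rw [e1, hx.posHom c hc0.le, H (s / c) (by positivity) h4, smul_add c, smul_smul c, mul_div_cancel₀ _ hc0.ne', hc,
    add_smul, one_smul, smul_add, smul_smul, add_assoc]

theorem ConR.self_mem_Tan_near {h : E → F} {x u : E} {ρ : ℝ} (hρ : ConR h x ρ) (hu : ‖u‖ < ρ) (hy : ConAt h (x + u)) :
    u ∈ Tan h (x + u) := by
  intro τ v
  have e : germ h (x + u) u = germ h x u := by simpa using hρ.germ_near hu hy 1 0
  rw [hρ.germ_near hu hy, e]

theorem ConR.germ_near_of_mem {h : E → F} {x u t : E} {ρ : ℝ} (hρ : ConR h x ρ) (hu : ‖u‖ < ρ) (hy : ConAt h (x + u))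
    (ht : t ∈ Tan h x) (τ : ℝ) (v : E) :
    germ h (x + u) (τ • t + v) = τ • germ h x t + germ h (x + u) v := by
  obtain ⟨δ, hδ, H⟩ := hρ.near_step hu hy v
  refine hρ.germ_near_unique hu hy hδ ?_
  intro s hs hs1
  have e1 : u + s • (τ • t + v) = (s * τ) • t + (u + s • v) := by
    rw [smul_add, smul_smul]; abel
  rw [e1, ht, H s hs.le hs1, smul_add, smul_smul]
  abel

theorem ConR.Tan_le_near {h : E → F} {x u : E} {ρ : ℝ} (hρ : ConR h x ρ) (hu : ‖u‖ < ρ) (hy : ConAt h (x + u)) :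
    Tan h x ≤ Tan h (x + u) := by
  intro t ht τ v
  have e : germ h (x + u) t = germ h x t := by simpa using hρ.germ_near_of_mem hu hy ht 1 0
  rw [hρ.germ_near_of_mem hu hy ht, e]

theorem ConR.germ_eq_of_mem {h : E → F} {x u : E} {ρ : ℝ} (hρ : ConR h x ρ) (hu : ‖u‖ < ρ) (hy : ConAt h (x + u))
    (hT : u ∈ Tan h x) : germ h (x + u) = germ h x := by
  have hx : ConAt h x := hρ.conAt (lt_of_le_of_lt (norm_nonneg u) hu)
  funext w
  refine hρ.germ_near_unique hu hy (ε := 1) one_pos ?_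
  intro s hs _
  rw [germ_add_of_mem hT, hx.posHom s hs.le]

theorem ConR.germ_scale {h : E → F} {x u : E} {ρ : ℝ} (hρ : ConR h x ρ) (hu : ‖u‖ < ρ) (hy : ConAt h (x + u))
    {c : ℝ} (hc : 0 < c) (hcu : ‖c • u‖ < ρ) (hy' : ConAt h (x + c • u)) :
    germ h (x + c • u) = germ h (x + u) := by
  have hx : ConAt h x := hρ.conAt (lt_of_le_of_lt (norm_nonneg u) hu)
  funext w
  obtain ⟨δ, hδ, H⟩ := hρ.near_step hu hy w
  refine hρ.germ_near_unique hcu hy' (ε := δ * c) (by positivity) ?_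
  intro s hs hs1
  have e1 : c • u + s • w = c • (u + (s / c) • w) := by
    rw [smul_add, smul_smul, mul_div_cancel₀ _ hc.ne']
  rw [e1, hx.posHom c hc.le, H (s / c) (by positivity) (by rwa [div_lt_iff₀ hc]), smul_add, smul_smul,
    mul_div_cancel₀ _ hc.ne', ← hx.posHom c hc.le]

theorem ConR.germ_trans {h : E → F} {x u t : E} {ρ : ℝ} (hρ : ConR h x ρ) (hu : ‖u‖ < ρ) (hy : ConAt h (x + u))
    (ht : t ∈ Tan h x) (htu : ‖t + u‖ < ρ) (hy' : ConAt h (x + (t + u))) :
    germ h (x + (t + u)) = germ h (x + u) := by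
  funext w
  obtain ⟨δ, hδ, H⟩ := hρ.near_step hu hy w
  refine hρ.germ_near_unique htu hy' hδ ?_
  intro s hs hs1
  rw [add_assoc, germ_add_of_mem ht, H s hs.le hs1, germ_add_of_mem ht, add_assoc]

theorem ConR.finrank_Tan_le [FiniteDimensional ℝ E] {h : E → F} {x u : E} {ρ : ℝ} (hρ : ConR h x ρ) (hu : ‖u‖ < ρ)
    (hy : ConAt h (x + u)) : Module.finrank ℝ (Tan h x) ≤ Module.finrank ℝ (Tan h (x + u)) :=
  Submodule.finrank_mono (hρ.Tan_le_near hu hy)

theorem ConR.finrank_Tan_lt [FiniteDimensional ℝ E] {h : E → F} {x u : E} {ρ : ℝ} (hρ : ConR h x ρ) (hu : ‖u‖ < ρ)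
    (hy : ConAt h (x + u)) (hT : u ∉ Tan h x) :
    Module.finrank ℝ (Tan h x) < Module.finrank ℝ (Tan h (x + u)) :=
  Submodule.finrank_lt_finrank_of_lt
    (lt_of_le_of_ne (hρ.Tan_le_near hu hy) fun e => hT (e ▸ hρ.self_mem_Tan_near hu hy))

theorem ConR.Tan_eq_of_mem {h : E → F} {x u : E} {ρ : ℝ} (hρ : ConR h x ρ) (hu : ‖u‖ < ρ) (hy : ConAt h (x + u))
    (hT : u ∈ Tan h x) : Tan h (x + u) = Tan h x := Tan_eq_of_germ_eq (hρ.germ_eq_of_mem hu hy hT)

/-! ### the conic radius -/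

/-- the conic radius, capped by one. -/
noncomputable def crad (h : E → F) (Ω : Set E) (x : E) : ℝ :=
  sSup {r : ℝ | 0 ≤ r ∧ r ≤ 1 ∧ ball x r ⊆ Ω ∧ ConR h x r}

theorem crad_bdd (h : E → F) (Ω : Set E) (x : E) :
    BddAbove {r : ℝ | 0 ≤ r ∧ r ≤ 1 ∧ ball x r ⊆ Ω ∧ ConR h x r} := ⟨1, fun _ hr => hr.2.1⟩

theorem crad_zero_mem (h : E → F) (Ω : Set E) (x : E) :
    (0 : ℝ) ∈ {r : ℝ | 0 ≤ r ∧ r ≤ 1 ∧ ball x r ⊆ Ω ∧ ConR h x r} :=
  ⟨le_rfl, zero_le_one, by simp, fun v hv => absurd hv (not_lt.2 (norm_nonneg v))⟩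

theorem le_crad {h : E → F} {Ω : Set E} {x : E} {r : ℝ} (h0 : 0 ≤ r) (h1 : r ≤ 1) (hb : ball x r ⊆ Ω)
    (hr : ConR h x r) : r ≤ crad h Ω x := le_csSup (crad_bdd h Ω x) ⟨h0, h1, hb, hr⟩

theorem crad_nonneg (h : E → F) (Ω : Set E) (x : E) : 0 ≤ crad h Ω x :=
  le_csSup (crad_bdd h Ω x) (crad_zero_mem h Ω x)

theorem crad_le_one (h : E → F) (Ω : Set E) (x : E) : crad h Ω x ≤ 1 :=
  csSup_le ⟨0, crad_zero_mem h Ω x⟩ fun _ hr => hr.2.1

theorem exists_of_lt_crad {h : E → F} {Ω : Set E} {x : E} {s : ℝ} (hs : s < crad h Ω x) :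
    ∃ r, s < r ∧ 0 ≤ r ∧ r ≤ 1 ∧ ball x r ⊆ Ω ∧ ConR h x r := by
  obtain ⟨r, hr, hsr⟩ := exists_lt_of_lt_csSup ⟨0, crad_zero_mem h Ω x⟩ hs
  exact ⟨r, hsr, hr⟩

theorem conR_crad (h : E → F) (Ω : Set E) (x : E) : ConR h x (crad h Ω x) := by
  intro v hv
  obtain ⟨r, hvr, _, _, _, hr⟩ := exists_of_lt_crad hv
  exact hr v hvr

theorem ball_crad_subset (h : E → F) (Ω : Set E) (x : E) : ball x (crad h Ω x) ⊆ Ω := by
  intro y hy
  obtain ⟨r, hvr, _, _, hb, _⟩ := exists_of_lt_crad hy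
  exact hb hvr

theorem add_mem_of_lt_crad {h : E → F} {Ω : Set E} {x u : E} (hu : ‖u‖ < crad h Ω x) : x + u ∈ Ω :=
  ball_crad_subset h Ω x (by rwa [mem_ball, dist_eq_norm, add_sub_cancel_left])

theorem crad_pos {h : E → F} {Ω : Set E} (hΩ : IsOpen Ω) {x : E} (hx : x ∈ Ω) (hcx : ConAt h x) :
    0 < crad h Ω x := by
  obtain ⟨ε, hε, hb⟩ := Metric.isOpen_iff.1 hΩ x hx
  have hm : 0 < min (min ε (rad h x)) 1 := lt_min (lt_min hε (rad_pos h x)) one_pos
  refine lt_of_lt_of_le hm (le_crad hm.le (min_le_right _ _) ?_ ?_)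
  · exact (ball_subset_ball ((min_le_left _ _).trans (min_le_left _ _))).trans hb
  · exact hcx.conR.mono ((min_le_left _ _).trans (min_le_right _ _))

theorem apply_add_of_lt_crad {h : E → F} {Ω : Set E} {x v : E} (hv : ‖v‖ < crad h Ω x) :
    h (x + v) = h x + germ h x v :=
  (conR_crad h Ω x).apply_add (lt_of_le_of_lt (norm_nonneg v) hv) hv

/-- along a stratum the conic radius drops at most like the distance. -/
theorem crad_sub_le {h : E → F} {Ω : Set E} {x u : E} (hu : ‖u‖ < crad h Ω x)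
    (hT : u ∈ Tan h x) : crad h Ω x - ‖u‖ ≤ crad h Ω (x + u) := by
  have hx0 : 0 < crad h Ω x := lt_of_le_of_lt (norm_nonneg u) hu
  have hcx : ConAt h x := (conR_crad h Ω x).conAt hx0
  refine le_crad (by linarith) (by linarith [crad_le_one h Ω x, norm_nonneg u]) ?_ ?_
  · refine (ball_subset_ball' ?_).trans (ball_crad_subset h Ω x)
    rw [dist_eq_norm, add_sub_cancel_left]; linarith
  · refine conR_of_eq (H := germ h x) hcx.posHom ?_
    intro v hv
    have h1 : ‖u + v‖ < crad h Ω x := lt_of_le_of_lt (norm_add_le _ _) (by linarith)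
    rw [add_assoc, apply_add_of_lt_crad h1, germ_add_of_mem hT, apply_add_of_lt_crad hu, add_assoc]

/-- the conic radius is 1-Lipschitz along a stratum. -/
theorem abs_crad_sub_le {h : E → F} {Ω : Set E} (hh : LocConical h Ω) {x u : E} (hu : ‖u‖ < crad h Ω x)
    (hT : u ∈ Tan h x) : |crad h Ω (x + u) - crad h Ω x| ≤ ‖u‖ := by
  have h1 := crad_sub_le hu hT
  rw [abs_le]
  refine ⟨by linarith, ?_⟩
  have hyΩ : x + u ∈ Ω := add_mem_of_lt_crad hu
  by_cases hlt : ‖u‖ < crad h Ω (x + u)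
  · have hT' : -u ∈ Tan h (x + u) := by
      rw [(conR_crad h Ω x).Tan_eq_of_mem hu (hh.conAt hyΩ) hT]
      exact Submodule.neg_mem _ hT
    have := crad_sub_le (x := x + u) (u := -u) (by rwa [norm_neg]) hT'
    rw [norm_neg, add_neg_cancel_right] at this
    linarith
  · have := crad_nonneg h Ω x
    push Not at hlt
    linarith

/-- a point inside the conic ball has a bigger lineality space containing the direction. -/
theorem Tan_le_of_lt_crad {h : E → F} {Ω : Set E} (hh : LocConical h Ω) {x z : E} (hz : ‖z - x‖ < crad h Ω x) :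
    Tan h x ≤ Tan h z ∧ z - x ∈ Tan h z := by
  have hzΩ : x + (z - x) ∈ Ω := add_mem_of_lt_crad hz
  have h1 := (conR_crad h Ω x).Tan_le_near hz (hh.conAt hzΩ)
  have h2 := (conR_crad h Ω x).self_mem_Tan_near hz (hh.conAt hzΩ)
  rw [add_sub_cancel] at h1 h2
  exact ⟨h1, h2⟩

/-- the conic radius is at most the distance to any point of a lower stratum. -/
theorem crad_le_norm_sub [FiniteDimensional ℝ E] {h : E → F} {Ω : Set E} (hh : LocConical h Ω) {x z : E}
    (hlow : Module.finrank ℝ (Tan h z) < Module.finrank ℝ (Tan h x)) : crad h Ω x ≤ ‖z - x‖ := by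
  by_contra hlt
  push Not at hlt
  exact absurd (Submodule.finrank_mono (Tan_le_of_lt_crad hh hlt).1) (not_le.2 hlow)

/-- two points of the same stratum inside a conic ball differ by a tangent vector. -/
theorem sub_mem_Tan_of_finrank_eq [FiniteDimensional ℝ E] {h : E → F} {Ω : Set E} (hh : LocConical h Ω) {x z : E}
    (hz : ‖z - x‖ < crad h Ω x) (he : Module.finrank ℝ (Tan h z) = Module.finrank ℝ (Tan h x)) :
    z - x ∈ Tan h x ∧ Tan h z = Tan h x ∧ germ h z = germ h x := by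
  obtain ⟨h1, h2⟩ := Tan_le_of_lt_crad hh hz
  have h3 : Tan h x = Tan h z := Submodule.eq_of_le_of_finrank_eq h1 he.symm
  refine ⟨h3 ▸ h2, h3.symm, ?_⟩
  have hzΩ : x + (z - x) ∈ Ω := add_mem_of_lt_crad hz
  have := (conR_crad h Ω x).germ_eq_of_mem hz (hh.conAt hzΩ) (h3 ▸ h2)
  rwa [add_sub_cancel] at this

/-- homogeneity of the conic radius about `x`, easy half. -/
theorem mul_crad_le {h : E → F} {Ω : Set E} {x u : E} {c r : ℝ} (hc : 0 < c) (hc1 : c ≤ 1)
    (hr0 : 0 ≤ r) (hr : r ≤ crad h Ω (x + u)) (hur : ‖u‖ + r ≤ crad h Ω x) : c * r ≤ crad h Ω (x + c • u) := by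
  rcases hr0.eq_or_lt with rfl | hr0'
  · simpa using crad_nonneg h Ω (x + c • u)
  have hx0 : 0 < crad h Ω x := by linarith [norm_nonneg u]
  have hcx : ConAt h x := (conR_crad h Ω x).conAt hx0
  have happ : ∀ v : E, ‖v‖ < crad h Ω x → h (x + v) = h x + germ h x v := fun v hv => apply_add_of_lt_crad hv
  have hcr : c * r ≤ r := mul_le_of_le_one_left hr0 hc1
  have hcu : ‖c • u‖ = c * ‖u‖ := by rw [norm_smul, Real.norm_of_nonneg hc.le]
  have hcu1 : c * ‖u‖ ≤ ‖u‖ := mul_le_of_le_one_left (norm_nonneg u) hc1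
  have h1 : ConR h (x + u) r := (conR_crad h Ω (x + u)).mono hr
  have h2 : ConR (germ h x) u r := (conR_iff_germ happ hur hr0).1 h1
  have h3 := hcx.posHom.conR_smul hc h2
  have h4 : ConR h (x + c • u) (c * r) :=
    (conR_iff_germ happ (by rw [hcu]; linarith) (by positivity)).2 h3
  refine le_crad (by positivity) ?_ ?_ h4
  · have := crad_le_one h Ω (x + u)
    linarith
  · refine (ball_subset_ball' ?_).trans (ball_crad_subset h Ω x)
    rw [dist_eq_norm, add_sub_cancel_left, hcu]; linarith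

/-- homogeneity of the conic radius about `x`. -/
theorem crad_smul {h : E → F} {Ω : Set E} {x u : E} {c : ℝ} (hc : 0 < c) (hc1 : c ≤ 1)
    (hlt : ‖u‖ + crad h Ω (x + u) < crad h Ω x) :
    crad h Ω (x + c • u) = c * crad h Ω (x + u) := by
  have hx1 := crad_le_one h Ω x
  have hx0 : 0 < crad h Ω x := by linarith [norm_nonneg u, crad_nonneg h Ω (x + u)]
  have hcx : ConAt h x := (conR_crad h Ω x).conAt hx0
  have happ : ∀ v : E, ‖v‖ < crad h Ω x → h (x + v) = h x + germ h x v := fun v hv => apply_add_of_lt_crad hv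
  apply le_antisymm _ (mul_crad_le hc hc1 (crad_nonneg _ _ _) le_rfl hlt.le)
  by_contra hlt'
  push Not at hlt'
  set r := crad h Ω (x + u) with hr
  have hr0 : 0 ≤ r := crad_nonneg _ _ _
  have hcu : ‖c • u‖ = c * ‖u‖ := by rw [norm_smul, Real.norm_of_nonneg hc.le]
  -- choose an intermediate radius
  set s : ℝ := min (crad h Ω (x + c • u)) (c * (crad h Ω x - ‖u‖)) with hs
  have h1 : c * r < s := lt_min hlt' (by nlinarith)
  have hs0 : 0 ≤ s := le_trans (by positivity) h1.le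
  have hs1 : s ≤ crad h Ω (x + c • u) := min_le_left _ _
  have hs2 : s ≤ c * (crad h Ω x - ‖u‖) := min_le_right _ _
  have h2 : ConR h (x + c • u) s := (conR_crad h Ω _).mono hs1
  have hcx' : c * crad h Ω x ≤ crad h Ω x := mul_le_of_le_one_left hx0.le hc1
  have h3 : ConR (germ h x) (c • u) s := (conR_iff_germ happ (by rw [hcu]; nlinarith) hs0).1 h2
  have h4 := hcx.posHom.conR_smul (inv_pos.2 hc) h3
  rw [smul_smul, inv_mul_cancel₀ hc.ne', one_smul] at h4
  have h5 : c⁻¹ * s ≤ crad h Ω x - ‖u‖ := by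
    rw [inv_mul_le_iff₀ hc]; exact hs2
  have h6 : ConR h (x + u) (c⁻¹ * s) := (conR_iff_germ happ (by linarith) (by positivity)).2 h4
  have h7 : c⁻¹ * s ≤ r := by
    refine le_crad (by positivity) (by linarith [norm_nonneg u]) ?_ h6
    refine (ball_subset_ball' ?_).trans (ball_crad_subset h Ω x)
    rw [dist_eq_norm, add_sub_cancel_left]; linarith
  rw [inv_mul_le_iff₀ hc] at h7
  linarith

end Crest.Agent.R096.Germ_879
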