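import Crest.Agent.R096.Germ5_879

/-!
# R096: affine points are dense, germs are finite selections of linear maps; isolated vertices; quantitative
conic radius (helper879; P5-GERM)
-/

set_option autoImplicit false
set_option linter.unusedSectionVars false

namespace Crest.Agent.R096.Germ_879

open Set Metric Filter Topology

variable {E F : Type*} [NormedAddCommGroup E] [NormedSpace ℝ E] [NormedAddCommGroup F] [NormedSpace ℝ F]
  [FiniteDimensional ℝ E]

/-- points where `h` is affine (linear germ) are dense. -/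
theorem exists_affine_near {h : E → F} {Ω : Set E} (hΩ : IsOpen Ω) (hh : LocConical h Ω) :
    ∀ x ∈ Ω, ∀ ε > 0, ∃ y ∈ Ω, ‖y - x‖ < ε ∧ Tan h y = ⊤ := by
  have main : ∀ k : ℕ, ∀ x ∈ Ω, Module.finrank ℝ E ≤ Module.finrank ℝ (Tan h x) + k →
      ∀ ε > 0, ∃ y ∈ Ω, ‖y - x‖ < ε ∧ Tan h y = ⊤ := by
    intro k
    induction k with
    | zero =>
      intro x hx hk ε hε
      refine ⟨x, hx, by simpa using hε, Submodule.eq_top_of_finrank_eq
        (le_antisymm (Submodule.finrank_le _) (by simpa using hk))⟩
    | succ k ih =>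
      intro x hx hk ε hε
      by_cases hT : Tan h x = ⊤
      · exact ⟨x, hx, by simpa using hε, hT⟩
      · obtain ⟨u, hu⟩ : ∃ u, u ∉ Tan h x := by
          by_contra hcon
          push Not at hcon
          exact hT (eq_top_iff.2 fun u _ => hcon u)
        have hcx := hh.conAt hx
        have hc0 := crad_pos hΩ hx hcx
        set m : ℝ := min (ε / 2) (crad h Ω x) with hm
        have hm0 : 0 < m := lt_min (by positivity) hc0
        set s : ℝ := m / (2 * (1 + ‖u‖)) with hs
        have hs0 : 0 < s := by positivity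
        have hsu : ‖s • u‖ < m := by
          rw [norm_smul, Real.norm_of_nonneg hs0.le, hs, div_mul_eq_mul_div, div_lt_iff₀ (by positivity)]
          nlinarith [norm_nonneg u]
        have hsT : s • u ∉ Tan h x := by
          intro hmem
          apply hu
          have := Submodule.smul_mem _ s⁻¹ hmem
          rwa [smul_smul, inv_mul_cancel₀ hs0.ne', one_smul] at this
        have hyΩ : x + s • u ∈ Ω := add_mem_of_lt_crad (lt_of_lt_of_le hsu (min_le_right _ _))
        have hlt := (conR_crad h Ω x).finrank_Tan_lt (lt_of_lt_of_le hsu (min_le_right _ _)) (hh.conAt hyΩ) hsT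
        obtain ⟨y, hyΩ', hy1, hy2⟩ := ih (x + s • u) hyΩ (by omega) (ε / 2) (by positivity)
        refine ⟨y, hyΩ', ?_, hy2⟩
        have h1 : y - x = (y - (x + s • u)) + s • u := by abel
        have h2 : ‖s • u‖ < ε / 2 := lt_of_lt_of_le hsu (min_le_left _ _)
        rw [h1]
        exact lt_of_le_of_lt (norm_add_le _ _) (by linarith)
  intro x hx
  exact main (Module.finrank ℝ E) x hx (by omega)

/-- continuous linear form of the germ at an affine point. -/
theorem exists_clm_of_top {h : E → F} {x : E} (hT : Tan h x = ⊤) : ∃ A : E →L[ℝ] F, germ h x = A := by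
  obtain ⟨A, hA⟩ := Tan_eq_top_iff.1 hT
  exact ⟨LinearMap.toContinuousLinearMap A, by rw [hA]; rfl⟩

/-- the germ is a selection of finitely many linear maps, each of which is the germ of `h` at some affine point
arbitrarily near. -/
theorem germ_selection {h : E → F} {Ω : Set E} (hΩ : IsOpen Ω) (hh : LocConical h Ω) (hc : ContinuousOn h Ω)
    {p : E} (hp : p ∈ Ω) {ρ : ℝ} (hρ : 0 < ρ) : ∃ S : Finset (E →L[ℝ] F),
      (∀ x, ∃ A ∈ S, germ h p x = A x) ∧
      (∀ A ∈ S, ∃ y ∈ Ω, ‖y - p‖ < ρ ∧ germ h y = A) := by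
  classical
  have hcp := hh.conAt hp
  have hr := crad_pos hΩ hp hcp
  set m : ℝ := min (crad h Ω p) ρ / 2 with hm
  have hmin : 0 < min (crad h Ω p) ρ := lt_min hr hρ
  have hm0 : 0 < m := by positivity
  have hmr : m < crad h Ω p := by have := min_le_left (crad h Ω p) ρ; rw [hm]; linarith
  have hmρ : m < ρ := by have := min_le_right (crad h Ω p) ρ; rw [hm]; linarith
  have hsub : closedBall p m ⊆ Ω := (closedBall_subset_ball hmr).trans (ball_crad_subset h Ω p)
  have hfin := finite_germ_image hΩ hh (isCompact_closedBall p m) hsub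
  set 𝒮 : Set (E →L[ℝ] F) := {A | (A : E → F) ∈ germ h '' closedBall p m} with h𝒮
  have hfin' : 𝒮.Finite := hfin.preimage (DFunLike.coe_injective.injOn)
  refine ⟨hfin'.toFinset, ?_, ?_⟩
  · -- closed set of good directions
    have hclosed : IsClosed {w : E | ∃ A ∈ hfin'.toFinset, germ h p w = A w} := by
      have e : {w : E | ∃ A ∈ hfin'.toFinset, germ h p w = A w} = ⋃ A ∈ hfin'.toFinset, {w | germ h p w = A w} := by
        ext w; simp
      rw [e]
      refine isClosed_biUnion_finset fun A _ => ?_
      exact isClosed_eq (hcp.continuous_germ (continuousAt_near hΩ hc hp)) A.continuous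
    have key : ∀ u : E, ‖u‖ < m → u ∈ {w : E | ∃ A ∈ hfin'.toFinset, germ h p w = A w} := by
      intro u hu
      rw [← hclosed.closure_eq, Metric.mem_closure_iff]
      intro ε hε
      have huΩ : p + u ∈ Ω := add_mem_of_lt_crad (hu.trans hmr)
      obtain ⟨y, hyΩ, hy1, hy2⟩ := exists_affine_near hΩ hh (p + u) huΩ (min ε (m - ‖u‖)) (lt_min hε (by linarith))
      have hy3 : ‖y - p‖ < m := by
        have h1 : y - p = (y - (p + u)) + u := by abel
        rw [h1]
        have := lt_of_lt_of_le hy1 (min_le_right _ _)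
        exact lt_of_le_of_lt (norm_add_le _ _) (by linarith)
      obtain ⟨A, hA⟩ := exists_clm_of_top hy2
      refine ⟨y - p, ⟨A, ?_, ?_⟩, ?_⟩
      · rw [Set.Finite.mem_toFinset]
        exact ⟨y, by rw [mem_closedBall, dist_eq_norm]; exact hy3.le, hA⟩
      · have h2 := (conR_crad h Ω p).germ_near (u := y - p) (hy3.trans hmr) (by simpa using hh.conAt hyΩ) 1 0
        rw [add_sub_cancel, one_smul, add_zero, one_smul, germ_zero, add_zero, hA] at h2
        exact h2.symm
      · rw [dist_eq_norm]
        have h1 : u - (y - p) = -(y - (p + u)) := by abel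
        rw [h1, norm_neg]
        exact lt_of_lt_of_le hy1 (min_le_left _ _)
    intro x
    set s : ℝ := m / (2 * (1 + ‖x‖)) with hs
    have hs0 : 0 < s := by positivity
    obtain ⟨A, hA, e⟩ := key (s • x) (by
      rw [norm_smul, Real.norm_of_nonneg hs0.le, hs, div_mul_eq_mul_div, div_lt_iff₀ (by positivity)]
      nlinarith [norm_nonneg x])
    refine ⟨A, hA, ?_⟩
    rw [hcp.posHom s hs0.le, map_smul] at e
    have := congrArg (fun z => s⁻¹ • z) e
    simpa [smul_smul, inv_mul_cancel₀ hs0.ne'] using this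
  · intro A hA
    rw [Set.Finite.mem_toFinset] at hA
    obtain ⟨y, hy, e⟩ := hA
    refine ⟨y, hsub hy, ?_, e⟩
    rw [mem_closedBall, dist_eq_norm] at hy
    exact lt_of_le_of_lt hy hmρ

/-- vertices are isolated inside `Ω`. -/
theorem vertex_isolated {h : E → F} {Ω : Set E} (hh : LocConical h Ω) {x y : E}
    (hxy : ‖y - x‖ < crad h Ω x) (hT : Tan h y = ⊥) : y = x := by
  have := (Tan_le_of_lt_crad hh hxy).2
  rw [hT, Submodule.mem_bot, sub_eq_zero] at this
  exact this

/-! ### quantitative conic radius -/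

/-- LOWER BOUND of the conic radius by the distance to the lower strata, locally uniformly. -/
theorem crad_lower_near {h : E → F} {Ω : Set E} (hΩ : IsOpen Ω) (hh : LocConical h Ω) :
    ∀ x ∈ Ω, ∃ δ > 0, ∃ c > 0, ball x δ ⊆ Ω ∧ ∀ p ∈ ball x δ, ∀ d : ℝ, 0 ≤ d → d ≤ 1 →
      (∀ z ∈ Ω, Module.finrank ℝ (Tan h z) < Module.finrank ℝ (Tan h p) → d ≤ ‖z - p‖) → c * d ≤ crad h Ω p := by
  have main : ∀ k : ℕ, ∀ x ∈ Ω, Module.finrank ℝ E ≤ Module.finrank ℝ (Tan h x) + k →
      ∃ δ > 0, ∃ c > 0, ball x δ ⊆ Ω ∧ ∀ p ∈ ball x δ, ∀ d : ℝ, 0 ≤ d → d ≤ 1 →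
      (∀ z ∈ Ω, Module.finrank ℝ (Tan h z) < Module.finrank ℝ (Tan h p) → d ≤ ‖z - p‖) →
        c * d ≤ crad h Ω p := by
    intro k
    -- the points of the stratum of `x` are treated in the same way for all `k`
    have onT : ∀ x ∈ Ω, ∀ u : E, ‖u‖ ≤ crad h Ω x / 2 → u ∈ Tan h x → ∀ d : ℝ, 0 ≤ d → d ≤ 1 →
        crad h Ω x / 2 * d ≤ crad h Ω (x + u) := by
      intro x hx u hu hT d hd hd1
      have h0 := crad_pos hΩ hx (hh.conAt hx)
      have := crad_sub_le (h := h) (Ω := Ω) (x := x) (u := u) (by linarith) hT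
      nlinarith
    induction k with
    | zero =>
      intro x hx hk
      have h0 := crad_pos hΩ hx (hh.conAt hx)
      have hT : Tan h x = ⊤ := Submodule.eq_top_of_finrank_eq
        (le_antisymm (Submodule.finrank_le _) (by simpa using hk))
      refine ⟨crad h Ω x / 2, by positivity, crad h Ω x / 2, by positivity,
        (ball_subset_ball (by linarith)).trans (ball_crad_subset h Ω x), ?_⟩
      intro p hp d hd hd1 _
      have hp' : ‖p - x‖ < crad h Ω x / 2 := by rwa [mem_ball, dist_eq_norm] at hp
      have := onT x hx (p - x) hp'.le (by rw [hT]; trivial) d hd hd1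
      rwa [add_sub_cancel] at this
    | succ k ih =>
      intro x hx hk
      have hcx := hh.conAt hx
      have h0 := crad_pos hΩ hx hcx
      have h01 := crad_le_one h Ω x
      set ρ : ℝ := crad h Ω x / 4 with hρ
      have hρ0 : 0 < ρ := by positivity
      have hmemΩ : ∀ u : E, ‖u‖ < crad h Ω x → x + u ∈ Ω := fun u hu => add_mem_of_lt_crad hu
      obtain ⟨P, hP1, hP2, hP3, hP4⟩ := exists_proj (Tan h x)
      set S : Set E := (fun ω : E => x + ω) '' (sphere 0 ρ ∩ {ω | P ω = ω}) with hS
      have hScomp : IsCompact S := by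
        apply IsCompact.image _ (by fun_prop)
        exact (isCompact_sphere 0 ρ).inter_right (isClosed_eq P.continuous continuous_id)
      obtain ⟨cS, hcS0, hcS⟩ : ∃ c > 0, ∀ q ∈ S, ∀ d : ℝ, 0 ≤ d → d ≤ 1 →
          (∀ z ∈ Ω, Module.finrank ℝ (Tan h z) < Module.finrank ℝ (Tan h q) → d ≤ ‖z - q‖) →
            c * d ≤ crad h Ω q := by
        refine hScomp.induction_on (p := fun t => ∃ c > 0, ∀ q ∈ t, ∀ d : ℝ, 0 ≤ d → d ≤ 1 →
          (∀ z ∈ Ω, Module.finrank ℝ (Tan h z) < Module.finrank ℝ (Tan h q) → d ≤ ‖z - q‖) →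
            c * d ≤ crad h Ω q) ⟨1, one_pos, by simp⟩ ?_ ?_ ?_
        · rintro s t hst ⟨c, hc0, hc⟩
          exact ⟨c, hc0, fun q hq => hc q (hst hq)⟩
        · rintro s t ⟨c, hc0, hc⟩ ⟨c', hc0', hc'⟩
          refine ⟨min c c', lt_min hc0 hc0', ?_⟩
          rintro q (hq | hq) d hd hd1 H
          · exact (mul_le_mul_of_nonneg_right (min_le_left _ _) hd).trans (hc q hq d hd hd1 H)
          · exact (mul_le_mul_of_nonneg_right (min_le_right _ _) hd).trans (hc' q hq d hd hd1 H)
        · rintro z ⟨ω, ⟨hω1, hω2⟩, rfl⟩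
          have hω1' : ‖ω‖ = ρ := by simpa using hω1
          have hω2' : P ω = ω := hω2
          have hωr : ‖ω‖ < crad h Ω x := by rw [hω1', hρ]; linarith
          have hzΩ : x + ω ∈ Ω := hmemΩ ω hωr
          have hnot : ω ∉ Tan h x := by
            intro hmem
            have h1 := hP3 ω hmem
            rw [hω2'] at h1
            rw [h1, norm_zero] at hω1'
            exact hρ0.ne hω1'
          have hlt := (conR_crad h Ω x).finrank_Tan_lt hωr (hh.conAt hzΩ) hnot
          obtain ⟨δ, hδ, c, hc, _, H⟩ := ih (x + ω) hzΩ (by omega)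
          exact ⟨ball (x + ω) δ, mem_nhdsWithin_of_mem_nhds (ball_mem_nhds _ hδ), c, hc, H⟩
      have hPn := norm_nonneg P
      set δ : ℝ := ρ / (2 + ‖P‖) with hδ
      have hδ0 : 0 < δ := by positivity
      have hδρ : δ ≤ ρ / 2 := by
        rw [hδ, div_le_div_iff₀ (by positivity) (by positivity)]
        nlinarith
      refine ⟨δ, hδ0, min (min cS 1) (crad h Ω x / 2), lt_min (lt_min hcS0 one_pos) (by positivity),
        (ball_subset_ball (by rw [hρ] at hδρ; linarith)).trans (ball_crad_subset h Ω x), ?_⟩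
      intro p hp d hd hd1 Hd
      set u : E := p - x with hu
      have hpu : p = x + u := by rw [hu]; abel
      have hun : ‖u‖ < δ := by rwa [mem_ball, dist_eq_norm] at hp
      have hun' : ‖u‖ * (2 + ‖P‖) < ρ := by rwa [hδ, lt_div_iff₀ (by positivity)] at hun
      have hu2 : ‖u‖ < ρ / 2 := lt_of_lt_of_le hun hδρ
      have hcr4 : crad h Ω x = 4 * ρ := by rw [hρ]; ring
      have hPu : ‖P u‖ < ρ := lt_of_le_of_lt (P.le_opNorm u) (by nlinarith [norm_nonneg u])
      by_cases hz : P u = 0
      · have huT : u ∈ Tan h x := by simpa [hz] using hP1 u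
        have h1 := onT x hx u (by rw [hcr4]; linarith) huT d hd hd1
        rw [hpu]
        exact (mul_le_mul_of_nonneg_right (min_le_right _ _) hd).trans h1
      · have hPp : 0 < ‖P u‖ := norm_pos_iff.2 hz
        set l : ℝ := ‖P u‖ / ρ with hl
        have hl0 : 0 < l := by positivity
        have hl1 : l < 1 := by rwa [hl, div_lt_one hρ0]
        set ω : E := (ρ / ‖P u‖) • P u with hω
        have hωn : ‖ω‖ = ρ := by
          rw [hω, norm_smul, Real.norm_of_nonneg (by positivity), div_mul_cancel₀ _ hPp.ne']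
        have hωP : P ω = ω := by rw [hω, map_smul, hP4]
        have hlω : l • ω = P u := by
          rw [hω, hl, smul_smul, div_mul_div_cancel₀ hρ0.ne', div_self hPp.ne', one_smul]
        set t : E := u - P u with ht
        have htT : t ∈ Tan h x := hP1 u
        have hutω : u = t + l • ω := by rw [hlω, ht]; abel
        have htn : ‖t‖ < 3 / 2 * ρ := by
          rw [ht]
          exact lt_of_le_of_lt (norm_sub_le _ _) (by linarith)
        have hq : x + ω ∈ S := ⟨ω, ⟨by simpa using hωn, hωP⟩, rfl⟩
        have hωr : ‖ω‖ < crad h Ω x := by rw [hωn, hcr4]; linarith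
        have hqΩ : x + ω ∈ Ω := hmemΩ ω hωr
        -- comparison of the lineality spaces under `w ↦ t + l • w`
        have hcmp : ∀ w : E, ‖w‖ < 2 * ρ → x + w ∈ Ω ∧ x + (t + l • w) ∈ Ω ∧
            germ h (x + (t + l • w)) = germ h (x + w) := by
          intro w hw
          have hwr : ‖w‖ < crad h Ω x := by rw [hcr4]; linarith
          have hlw : ‖l • w‖ < 2 * ρ := by
            rw [norm_smul, Real.norm_of_nonneg hl0.le]
            exact lt_of_le_of_lt (mul_le_of_le_one_left (norm_nonneg w) hl1.le) hw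
          have hlwr : ‖l • w‖ < crad h Ω x := by rw [hcr4]; linarith
          have htw : ‖t + l • w‖ < crad h Ω x := by
            rw [hcr4]
            exact lt_of_le_of_lt (norm_add_le _ _) (by linarith)
          refine ⟨hmemΩ w hwr, hmemΩ _ htw, ?_⟩
          have e1 := (conR_crad h Ω x).germ_scale hwr (hh.conAt (hmemΩ w hwr)) hl0 hlwr (hh.conAt (hmemΩ _ hlwr))
          have e2 := (conR_crad h Ω x).germ_trans hlwr (hh.conAt (hmemΩ _ hlwr)) htT htw (hh.conAt (hmemΩ _ htw))
          rw [e2, e1]
        have hpq : germ h p = germ h (x + ω) := by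
          rw [hpu, hutω]
          exact (hcmp ω (by rw [hωn]; linarith)).2.2
        have hTpq : Tan h p = Tan h (x + ω) := Tan_eq_of_germ_eq hpq
        have hnot : ω ∉ Tan h x := by
          intro hmem
          have h1 := hP3 ω hmem
          rw [hωP] at h1
          rw [h1, norm_zero] at hωn
          exact hρ0.ne hωn
        have hlt := (conR_crad h Ω x).finrank_Tan_lt hωr (hh.conAt hqΩ) hnot
        -- `d ≤ l * ρ`
        have hdl : d ≤ l * ρ := by
          have htr : ‖t‖ < crad h Ω x := by rw [hcr4]; linarith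
          have h2 := Hd (x + t) (hmemΩ t htr) (by
            rw [hTpq, (conR_crad h Ω x).Tan_eq_of_mem htr (hh.conAt (hmemΩ t htr)) htT]; exact hlt)
          have e : x + t - p = -(l • ω) := by rw [hpu, hutω]; abel
          rw [e, norm_neg, norm_smul, Real.norm_of_nonneg hl0.le, hωn] at h2
          exact h2
        have hdl' : d / l ≤ ρ := by rw [div_le_iff₀ hl0]; linarith
        have h3 := hcS (x + ω) hq (d / l) (by positivity) (by linarith) (by
          intro z hzΩ hzlt
          rw [div_le_iff₀ hl0]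
          by_cases hzb : ‖z - x‖ < 2 * ρ
          · obtain ⟨_, h4, h5⟩ := hcmp (z - x) hzb
            have h6 := Hd _ h4 (by
              rw [hTpq, Tan_eq_of_germ_eq h5, add_sub_cancel]; exact hzlt)
            have e : x + (t + l • (z - x)) - p = l • (z - (x + ω)) := by
              rw [hpu, hutω, smul_sub, smul_sub, smul_add]; abel
            rw [e, norm_smul, Real.norm_of_nonneg hl0.le] at h6
            linarith
          · push Not at hzb
            have h7 : ρ ≤ ‖z - (x + ω)‖ := by
              have h8 : z - x = (z - (x + ω)) + ω := by abel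
              rw [h8] at hzb
              have := norm_add_le (z - (x + ω)) ω
              linarith
            nlinarith)
        -- transfer of the radius
        set r : ℝ := min (crad h Ω (x + ω)) ρ with hr
        have hr0 : 0 ≤ r := le_min (crad_nonneg _ _ _) hρ0.le
        have hr1 : r ≤ crad h Ω (x + ω) := min_le_left _ _
        have hrρ : r ≤ ρ := min_le_right _ _
        have happ : ∀ v : E, ‖v‖ < crad h Ω x → h (x + v) = h x + germ h x v := fun v hv => apply_add_of_lt_crad hv
        have h9 : ConR (germ h x) ω r :=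
          (conR_iff_germ happ (by rw [hωn, hcr4]; linarith) hr0).1 ((conR_crad h Ω (x + ω)).mono hr1)
        have h10 : ConR (germ h x) (l • ω) (l * r) := hcx.posHom.conR_smul hl0 h9
        have h11 : ConR (germ h x) (t + l • ω) (l * r) := by
          intro v hv τ hτ
          rw [add_assoc, add_assoc, germ_add_of_mem htT, germ_add_of_mem htT, germ_add_of_mem htT, h10 v hv τ hτ,
            add_sub_add_left_eq_sub, add_assoc]
        have hlr : l * r ≤ ρ := by nlinarith
        have h12 : ConR h p (l * r) := by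
          rw [hpu, hutω]
          refine (conR_iff_germ happ ?_ (by positivity)).2 h11
          rw [← hutω, hcr4]; linarith
        have h13 : l * r ≤ crad h Ω p := by
          refine le_crad (by positivity) (by linarith) ?_ h12
          refine (ball_subset_ball' ?_).trans (ball_crad_subset h Ω x)
          have : dist p x = ‖u‖ := by rw [dist_eq_norm]
          rw [this, hcr4]; linarith
        have h14 : min cS 1 * d ≤ l * r := by
          have h15 : min cS 1 * (d / l) ≤ r := by
            refine le_min ?_ ?_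
            · exact (mul_le_mul_of_nonneg_right (min_le_left _ _) (by positivity)).trans h3
            · exact (mul_le_mul_of_nonneg_right (min_le_right _ _) (by positivity)).trans (by linarith)
          have h16 := mul_le_mul_of_nonneg_left h15 hl0.le
          have e : l * (min cS 1 * (d / l)) = min cS 1 * d := by field_simp
          rwa [e] at h16
        exact (mul_le_mul_of_nonneg_right (min_le_left _ _) hd).trans (h14.trans h13)
  intro x hx
  exact main (Module.finrank ℝ E) x hx (by omega)

/-- LOWER BOUND on compact sets. -/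
theorem crad_lower {h : E → F} {Ω : Set E} (hΩ : IsOpen Ω) (hh : LocConical h Ω) {K : Set E} (hK : IsCompact K)
    (hKΩ : K ⊆ Ω) : ∃ c > 0, ∀ p ∈ K, ∀ d : ℝ, 0 ≤ d → d ≤ 1 →
      (∀ z ∈ Ω, Module.finrank ℝ (Tan h z) < Module.finrank ℝ (Tan h p) → d ≤ ‖z - p‖) → c * d ≤ crad h Ω p := by
  refine hK.induction_on (p := fun t => ∃ c > 0, ∀ q ∈ t, ∀ d : ℝ, 0 ≤ d → d ≤ 1 →
    (∀ z ∈ Ω, Module.finrank ℝ (Tan h z) < Module.finrank ℝ (Tan h q) → d ≤ ‖z - q‖) →
      c * d ≤ crad h Ω q) ⟨1, one_pos, by simp⟩ ?_ ?_ ?_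
  · rintro s t hst ⟨c, hc0, hc⟩
    exact ⟨c, hc0, fun q hq => hc q (hst hq)⟩
  · rintro s t ⟨c, hc0, hc⟩ ⟨c', hc0', hc'⟩
    refine ⟨min c c', lt_min hc0 hc0', ?_⟩
    rintro q (hq | hq) d hd hd1 H
    · exact (mul_le_mul_of_nonneg_right (min_le_left _ _) hd).trans (hc q hq d hd hd1 H)
    · exact (mul_le_mul_of_nonneg_right (min_le_right _ _) hd).trans (hc' q hq d hd hd1 H)
  · intro x hx
    obtain ⟨δ, hδ, c, hc, _, H⟩ := crad_lower_near hΩ hh x (hKΩ hx)
    exact ⟨ball x δ, mem_nhdsWithin_of_mem_nhds (ball_mem_nhds _ hδ), c, hc, H⟩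

end Crest.Agent.R096.Germ_879
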