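import Crest.Agent.R096.Germ6_879
import Crest.Agent.R096.P5Spec_205

/-!
# R096: `MollAt` (class of 119/205) for locally conical maps at points whose lineality space has codimension `≤ 1`;
transport of `MollAt` (helper879; P5-GERM)
-/

set_option autoImplicit false
set_option linter.unusedSectionVars false

namespace Crest.Agent.R096.Germ_879

open Set Metric Filter Topology MeasureTheory
open Crest.Agent.R096.P5Spec_205 (MollAt)
open scoped NNReal

/-! ### a determinant functional for a hyperplane -/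

section det

variable {E : Type*} [NormedAddCommGroup E] [NormedSpace ℝ E] [FiniteDimensional ℝ E]

theorem exists_det_functional (T : Submodule ℝ E) (hT : Module.finrank ℝ E = Module.finrank ℝ T + 1) {u : E}
    (hu : u ∉ T) (A : E →L[ℝ] E) : ∃ D : E →ₗ[ℝ] ℝ, (∀ t ∈ T, D (A t) = 0) ∧
      ∀ C : E →L[ℝ] E, (∀ t ∈ T, C t = A t) → C.det = D (C u) := by
  classical
  set m := Module.finrank ℝ T with hm
  let b' : Module.Basis (Fin m) ℝ T := Module.finBasis ℝ T
  have hli : ∀ (c : ℝ), ∀ x ∈ T, c • u + x = 0 → c = 0 := by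
    intro c x hx hc
    by_contra hc0
    apply hu
    have : u = c⁻¹ • (-x) := by
      rw [eq_inv_smul_iff₀ hc0]
      exact eq_neg_of_add_eq_zero_left hc
    rw [this]
    exact T.smul_mem _ (T.neg_mem hx)
  have hq : Module.finrank ℝ (E ⧸ T) = 1 := by
    have := Submodule.finrank_quotient_add_finrank T
    omega
  have hne : (Submodule.Quotient.mk u : E ⧸ T) ≠ 0 := by
    rwa [Ne, Submodule.Quotient.mk_eq_zero]
  have hsp : ∀ z : E, ∃ c : ℝ, z + c • u ∈ T := by
    intro z
    obtain ⟨c, hc⟩ := (finrank_eq_one_iff_of_nonzero' _ hne).1 hq (Submodule.Quotient.mk z)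
    refine ⟨-c, ?_⟩
    rw [← Submodule.Quotient.mk_eq_zero, Submodule.Quotient.mk_add, Submodule.Quotient.mk_smul, ← hc]
    simp
  let b : Module.Basis (Fin (m + 1)) ℝ E := Module.Basis.mkFinCons u b' hli hsp
  have hb : (b : Fin (m + 1) → E) = Fin.cons u ((↑) ∘ b') := Module.Basis.coe_mkFinCons u b' hli hsp
  let tail : Fin m → E := fun i => A (b' i)
  let D : E →ₗ[ℝ] ℝ := b.det.toMultilinearMap.toLinearMap (Fin.cons 0 tail : Fin (m + 1) → E) 0
  have hD : ∀ w, D w = b.det (Fin.cons w tail : Fin (m + 1) → E) := by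
    intro w
    show b.det (Function.update (Fin.cons 0 tail : Fin (m + 1) → E) 0 w) = _
    rw [Fin.update_cons_zero]
  refine ⟨D, ?_, ?_⟩
  · intro t ht
    have h1 : ∀ i, D (A (b' i)) = 0 := by
      intro i
      rw [hD]
      refine b.det.map_eq_zero_of_eq _ (i := 0) (j := i.succ) ?_ (Fin.succ_ne_zero i).symm
      rw [Fin.cons_zero, Fin.cons_succ]
    have h2 : (D ∘ₗ (A : E →ₗ[ℝ] E) ∘ₗ T.subtype) = 0 := b'.ext fun i => by simpa using h1 i
    have h3 := LinearMap.congr_fun h2 ⟨t, ht⟩
    simpa using h3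
  · intro C hC
    have h1 := b.det_comp (C : E →ₗ[ℝ] E) b
    rw [Module.Basis.det_self, mul_one] at h1
    rw [ContinuousLinearMap.det, ← h1, hD]
    congr 1
    funext i
    refine Fin.cases ?_ (fun j => ?_) i
    · simp [hb]
    · simp [hb, tail, hC]

end det

/-! ### differentiability of conical maps -/

section diff

variable {E F : Type*} [NormedAddCommGroup E] [NormedSpace ℝ E] [NormedAddCommGroup F] [NormedSpace ℝ F]

theorem ConAt.germ_eq_fderiv {h : E → F} {y : E} (hy : ConAt h y) (hd : DifferentiableAt ℝ h y) (v : E) :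
    germ h y v = fderiv ℝ h y v := by
  have h1 : HasDerivWithinAt (fun t : ℝ => h (y + t • v)) (fderiv ℝ h y v) (Ici 0) 0 := by
    have h2 : HasFDerivAt h (fderiv ℝ h y) (y + (0 : ℝ) • v) := by simpa using hd.hasFDerivAt
    have h3 : HasDerivAt (fun t : ℝ => y + t • v) v 0 := by
      simpa using ((hasDerivAt_id (0 : ℝ)).smul_const v).const_add y
    exact (h2.comp_hasDerivAt (0 : ℝ) h3).hasDerivWithinAt
  have h4 : HasDerivWithinAt (fun t : ℝ => h (y + t • v)) (germ h y v) (Ici 0) 0 := by
    have h5 : HasDerivWithinAt (fun t : ℝ => h y + t • germ h y v) (germ h y v) (Ici 0) 0 := by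
      simpa using (((hasDerivAt_id (0 : ℝ)).smul_const (germ h y v)).const_add (h y)).hasDerivWithinAt
    refine h5.congr_of_eventuallyEq ?_ (by simp)
    have hev : ∀ᶠ s in 𝓝 (0 : ℝ), s * ‖v‖ < rad h y := by
      have : ContinuousAt (fun s : ℝ => s * ‖v‖) 0 := by fun_prop
      exact this.eventually (gt_mem_nhds (a := rad h y) (by simpa using rad_pos h y))
    filter_upwards [mem_nhdsWithin_of_mem_nhds hev, self_mem_nhdsWithin] with s hs hs0
    exact hy.apply_add_smul hs0 hs
  have huniq := (uniqueDiffWithinAt_Ici (0 : ℝ)).eq_deriv (Ici (0 : ℝ)) h4 h1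
  exact huniq

theorem ConAt.Tan_eq_top_of_differentiableAt {h : E → F} {y : E} (hy : ConAt h y) (hd : DifferentiableAt ℝ h y) :
    Tan h y = ⊤ :=
  Tan_eq_top_iff.2 ⟨(fderiv ℝ h y : E →ₗ[ℝ] F), funext fun v => hy.germ_eq_fderiv hd v⟩

end diff

section moll

variable {E : Type*} [NormedAddCommGroup E] [InnerProductSpace ℝ E] [MeasureSpace E]

/-- transport of `MollAt` under local equality up to translations. -/
theorem MollAt.transport [BorelSpace E] [FiniteDimensional ℝ E] [(volume : Measure E).IsAddHaarMeasure]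
    {f g : E → E} {x₀ x₁ c : E} {r : ℝ} (hr : 0 < r)
    (hf : MollAt f x₀) (hg : ∀ v, ‖v‖ < r → g (x₁ + v) = c + f (x₀ + v)) : MollAt g x₁ := by
  obtain ⟨r', hr', K, hK1, hK2, hK3, ⟨L, hL⟩, hae⟩ := hf
  have hm : 0 < min r r' := lt_min hr hr'
  have hg' : ∀ y, ‖y - x₁‖ < r → g y = c + f (y + (x₀ - x₁)) := by
    intro y hy
    have := hg (y - x₁) hy
    rw [add_sub_cancel] at this
    rw [this]
    congr 2
    abel
  refine ⟨min r r', hm, K, hK1, hK2, hK3, ⟨L, ?_⟩, ?_⟩
  · refine LipschitzOnWith.of_dist_le_mul fun a ha b hb => ?_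
    rw [mem_ball, dist_eq_norm] at ha hb
    have ha' : a + (x₀ - x₁) ∈ ball x₀ r' := by
      rw [mem_ball, dist_eq_norm]
      have : a + (x₀ - x₁) - x₀ = a - x₁ := by abel
      rw [this]; exact lt_of_lt_of_le ha (min_le_right _ _)
    have hb' : b + (x₀ - x₁) ∈ ball x₀ r' := by
      rw [mem_ball, dist_eq_norm]
      have : b + (x₀ - x₁) - x₀ = b - x₁ := by abel
      rw [this]; exact lt_of_lt_of_le hb (min_le_right _ _)
    have h1 := hL.dist_le_mul _ ha' _ hb'
    rw [hg' a (lt_of_lt_of_le ha (min_le_left _ _)), hg' b (lt_of_lt_of_le hb (min_le_left _ _)), dist_add_left]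
    rwa [dist_add_right] at h1
  · have h1 : ∀ᵐ y ∂(volume : Measure E), y + (x₀ - x₁) ∈ ball x₀ r' → fderiv ℝ f (y + (x₀ - x₁)) ∈ K :=
      (measurePreserving_add_right (volume : Measure E) (x₀ - x₁)).quasiMeasurePreserving.ae hae
    filter_upwards [h1] with y hy hyb
    rw [mem_ball, dist_eq_norm] at hyb
    have hy' : y + (x₀ - x₁) ∈ ball x₀ r' := by
      rw [mem_ball, dist_eq_norm]
      have : y + (x₀ - x₁) - x₀ = y - x₁ := by abel
      rw [this]; exact lt_of_lt_of_le hyb (min_le_right _ _)
    have he : g =ᶠ[𝓝 y] fun z => c + f (z + (x₀ - x₁)) := by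
      have hopen : IsOpen {z : E | ‖z - x₁‖ < r} := isOpen_lt (by fun_prop) continuous_const
      filter_upwards [hopen.mem_nhds (lt_of_lt_of_le hyb (min_le_left _ _))] with z hz
      exact hg' z hz
    rw [he.fderiv_eq, fderiv_const_add, fderiv_comp_add_right]
    exact hy hy'

/-- scaling of `MollAt` for positively homogeneous maps. -/
theorem MollAt.of_smul [BorelSpace E] [FiniteDimensional ℝ E] [(volume : Measure E).IsAddHaarMeasure]
    {f : E → E} (hf : PosHom f) {x : E} {t : ℝ} (ht : 0 < t) (h : MollAt f (t • x)) : MollAt f x := by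
  obtain ⟨r, hr, K, hK1, hK2, hK3, ⟨L, hL⟩, hae⟩ := h
  have hmem : ∀ y ∈ ball x (r / t), t • y ∈ ball (t • x) r := by
    intro y hy
    rw [mem_ball, dist_eq_norm] at hy ⊢
    rw [← smul_sub, norm_smul, Real.norm_of_nonneg ht.le]
    rw [lt_div_iff₀ ht] at hy
    linarith
  have hsc : ∀ y, f y = t⁻¹ • f (t • y) := by
    intro y
    rw [hf t ht.le, smul_smul, inv_mul_cancel₀ ht.ne', one_smul]
  refine ⟨r / t, by positivity, K, hK1, hK2, hK3, ⟨L, ?_⟩, ?_⟩
  · refine LipschitzOnWith.of_dist_le_mul fun a ha b hb => ?_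
    have h1 := hL.dist_le_mul _ (hmem a ha) _ (hmem b hb)
    rw [hf t ht.le, hf t ht.le, dist_smul₀, dist_smul₀, Real.norm_of_nonneg ht.le] at h1
    have h2 : t * dist (f a) (f b) ≤ t * (L * dist a b) := by linarith
    exact le_of_mul_le_mul_left h2 ht
  · have h1 : ∀ᵐ y ∂(volume : Measure E), t • y ∈ ball (t • x) r → fderiv ℝ f (t • y) ∈ K :=
      (Measure.quasiMeasurePreserving_smul (volume : Measure E) ht.ne').ae hae
    filter_upwards [h1] with y hy hyb
    have e : fderiv ℝ f y = fderiv ℝ f (t • y) := by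
      have h2 : f = fun z => t⁻¹ • f (t • z) := funext hsc
      have h3 : fderiv ℝ f y = fderiv ℝ (fun z => t⁻¹ • f (t • z)) y := by rw [← h2]
      have h4 : (fun z => t⁻¹ • f (t • z)) = t⁻¹ • (fun z => f (t • z)) := rfl
      rw [h3, h4, fderiv_const_smul_field, Pi.smul_apply, fderiv_comp_smul, smul_smul, inv_mul_cancel₀ ht.ne', one_smul]
    rw [e]
    exact hy (hmem y hyb)

/-- MOLL AT FOLDS: a continuous locally conical map whose affine germs have positive determinant is in the class
`MollAt` at every point whose lineality space has codimension at most one. -/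
theorem mollAt_of_codim_le_one [BorelSpace E] [FiniteDimensional ℝ E] [(volume : Measure E).IsAddHaarMeasure]
    {h : E → E} {Ω : Set E} (hΩ : IsOpen Ω) (hh : LocConical h Ω) (hc : ContinuousOn h Ω)
    (hdet : ∀ y ∈ Ω, ∀ A : E →L[ℝ] E, germ h y = A → 0 < A.det) {p : E} (hp : p ∈ Ω)
    (hcod : Module.finrank ℝ E ≤ Module.finrank ℝ (Tan h p) + 1) : MollAt h p := by
  obtain ⟨δ, hδ, L, hδΩ, hL⟩ := exists_lipschitzOnWith_near hΩ hh hc hp
  have hcr := crad_pos hΩ hp (hh.conAt hp)
  set r : ℝ := min δ (crad h Ω p) / 2 with hrdef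
  have hmin : 0 < min δ (crad h Ω p) := lt_min hδ hcr
  have hr : 0 < r := by positivity
  have hrδ : r < δ := by have := min_le_left δ (crad h Ω p); rw [hrdef]; linarith
  have hrc : r < crad h Ω p := by have := min_le_right δ (crad h Ω p); rw [hrdef]; linarith
  have hsub : closedBall p r ⊆ Ω := (closedBall_subset_ball hrc).trans (ball_crad_subset h Ω p)
  have hfin := finite_germ_image hΩ hh (isCompact_closedBall p r) hsub
  set S : Set (E →L[ℝ] E) := {A | (A : E → E) ∈ germ h '' closedBall p r} with hS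
  have hSfin : S.Finite := hfin.preimage (DFunLike.coe_injective.injOn)
  -- all elements of `S` agree with the germ at `p` on `Tan h p`
  have hagree : ∀ A ∈ S, ∀ t ∈ Tan h p, A t = germ h p t := by
    rintro A ⟨y, hy, e⟩ t ht
    rw [mem_closedBall, dist_eq_norm] at hy
    have h1 := (conR_crad h Ω p).germ_near_of_mem (u := y - p) (lt_of_le_of_lt hy hrc)
      (by simpa using hh.conAt (hsub (by rwa [mem_closedBall, dist_eq_norm]))) ht 1 0
    simp only [add_sub_cancel, one_smul, add_zero, germ_zero] at h1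
    rw [← h1, e]
  have hdetS : ∀ A ∈ S, 0 < A.det := by
    rintro A ⟨y, hy, e⟩
    exact hdet y (hsub hy) A e
  -- positivity of the determinant on the convex hull
  have hK3 : ∀ A ∈ convexHull ℝ S, 0 < A.det := by
    by_cases htop : Tan h p = ⊤
    · obtain ⟨A₀, hA₀⟩ := exists_clm_of_top htop
      have hSsub : S ⊆ {A₀} := by
        intro A hA
        rw [mem_singleton_iff]
        ext t
        rw [hagree A hA t (by rw [htop]; trivial), hA₀]
      have h0 : 0 < A₀.det := hdet p hp A₀ hA₀
      intro A hA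
      have h1 := convexHull_min hSsub (convex_singleton A₀) hA
      rw [mem_singleton_iff] at h1
      rw [h1]; exact h0
    · obtain ⟨u, hu⟩ : ∃ u, u ∉ Tan h p := by
        by_contra hcon
        push Not at hcon
        exact htop (eq_top_iff.2 fun u _ => hcon u)
      have hlt : Module.finrank ℝ (Tan h p) < Module.finrank ℝ E :=
        Submodule.finrank_lt htop
      have hT : Module.finrank ℝ E = Module.finrank ℝ (Tan h p) + 1 := by omega
      rcases S.eq_empty_or_nonempty with hem | ⟨A₀, hA₀⟩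
      · intro A hA
        rw [hem, convexHull_empty] at hA
        exact absurd hA (notMem_empty A)
      · obtain ⟨D, _, hD⟩ := exists_det_functional (Tan h p) hT hu A₀
        have hSsub : S ⊆ {C : E →L[ℝ] E | (∀ t ∈ Tan h p, C t = A₀ t) ∧ 0 < D (C u)} := by
          intro C hC
          have h1 : ∀ t ∈ Tan h p, C t = A₀ t := fun t ht => by rw [hagree C hC t ht, hagree A₀ hA₀ t ht]
          refine ⟨h1, ?_⟩
          rw [← hD C h1]
          exact hdetS C hC
        have hconv : Convex ℝ {C : E →L[ℝ] E | (∀ t ∈ Tan h p, C t = A₀ t) ∧ 0 < D (C u)} := by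
          rintro C ⟨hC1, hC2⟩ C' ⟨hC1', hC2'⟩ a b ha hb hab
          refine ⟨fun t ht => ?_, ?_⟩
          · rw [add_apply, smul_apply, smul_apply, hC1 t ht,
              hC1' t ht, ← add_smul, hab, one_smul]
          · rw [add_apply, smul_apply, smul_apply, map_add,
              map_smul, map_smul, smul_eq_mul, smul_eq_mul]
            rcases ha.eq_or_lt with rfl | ha'
            · have : b = 1 := by linarith
              rw [this]; simpa using hC2'
            · have := mul_pos ha' hC2
              have := mul_nonneg hb hC2'.le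
              linarith
        intro A hA
        obtain ⟨h1, h2⟩ := convexHull_min hSsub hconv hA
        rw [hD A h1]
        exact h2
  refine ⟨r, hr, convexHull ℝ S, convex_convexHull ℝ S, hSfin.isCompact_convexHull ℝ, hK3,
    ⟨L, hL.mono (ball_subset_ball hrδ.le)⟩, ?_⟩
  have hrad := (hL.mono (ball_subset_ball hrδ.le)).ae_differentiableWithinAt_of_mem (μ := (volume : Measure E))
  filter_upwards [hrad] with y hy hyb
  have hd : DifferentiableAt ℝ h y := (hy hyb).differentiableAt (isOpen_ball.mem_nhds hyb)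
  have hyΩ : y ∈ Ω := hsub (ball_subset_closedBall hyb)
  refine subset_convexHull ℝ S ⟨y, ball_subset_closedBall hyb, ?_⟩
  funext v
  exact (hh.conAt hyΩ).germ_eq_fderiv hd v

end moll

end Crest.Agent.R096.Germ_879
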