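import Crest.Agent.R096.GermM_879

/-!
Row 96 (S0127), helper879.  P5-GERM: the structure `P5Spec_205.Germs` for a locally conical
homeomorphism between open sets of a three dimensional space, all of whose affine germs have positive
determinant; the set `Z` of vertices and edge points is relatively closed and null.
-/

set_option autoImplicit false
set_option linter.unusedSectionVars false
set_option linter.style.longLine false

open Set Metric MeasureTheory Filter Topology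
open scoped NNReal

namespace Crest.Agent.R096.Germ_879

open Crest.Agent.R096.P5Spec_205 (MollAt)

section dir

variable {E F : Type*} [NormedAddCommGroup E] [NormedSpace ℝ E] [NormedAddCommGroup F] [NormedSpace ℝ F]

open Classical in
/-- a unit vector along which `H` splits linearly (junk value `0` if there is none); it depends on `H` only. -/
noncomputable def dir (H : E → F) : E :=
  if hx : ∃ e : E, ‖e‖ = 1 ∧ ∀ (x : E) (s : ℝ), H (x + s • e) = H x + s • H e then hx.choose else 0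

theorem dir_spec {H : E → F} (hx : ∃ e : E, ‖e‖ = 1 ∧ ∀ (x : E) (s : ℝ), H (x + s • e) = H x + s • H e) :
    ‖dir H‖ = 1 ∧ ∀ (x : E) (s : ℝ), H (x + s • dir H) = H x + s • H (dir H) := by
  unfold dir
  rw [dif_pos hx]
  exact hx.choose_spec

theorem mem_Tan_iff' {h : E → F} {p u : E} :
    u ∈ Tan h p ↔ ∀ (x : E) (s : ℝ), germ h p (x + s • u) = germ h p x + s • germ h p u := by
  rw [mem_Tan]
  constructor
  · intro H x s
    rw [add_comm x, H s x, add_comm]
  · intro H s x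
    rw [add_comm, H x s, add_comm]

theorem norm_smul_inv_norm_aux {u : E} (hu : u ≠ 0) : ‖‖u‖⁻¹ • u‖ = 1 := by
  rw [norm_smul, norm_inv, norm_norm, inv_mul_cancel₀ (norm_ne_zero_iff.2 hu)]

theorem dir_mem_Tan {h : E → F} {p : E} (hT : Tan h p ≠ ⊥) : ‖dir (germ h p)‖ = 1 ∧ dir (germ h p) ∈ Tan h p := by
  obtain ⟨u, hu, hu0⟩ := (Submodule.ne_bot_iff _).1 hT
  have hex : ∃ e : E, ‖e‖ = 1 ∧ ∀ (x : E) (s : ℝ), germ h p (x + s • e) = germ h p x + s • germ h p e := by
    refine ⟨‖u‖⁻¹ • u, norm_smul_inv_norm_aux hu0, ?_⟩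
    rw [← mem_Tan_iff']
    exact (Tan h p).smul_mem _ hu
  have := dir_spec hex
  exact ⟨this.1, mem_Tan_iff'.2 this.2⟩

theorem mem_Tan_iff_dir [FiniteDimensional ℝ E] {h : E → F} {p : E} (hT : Module.finrank ℝ (Tan h p) = 1) {v : E} :
    v ∈ Tan h p ↔ ∃ s : ℝ, v = s • dir (germ h p) := by
  have hne : Tan h p ≠ ⊥ := by
    intro h0
    rw [h0, finrank_bot] at hT
    exact zero_ne_one hT
  obtain ⟨h1, h2⟩ := dir_mem_Tan hne
  constructor
  · intro hv
    have hd : (⟨dir (germ h p), h2⟩ : Tan h p) ≠ 0 := by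
      intro h0
      have : dir (germ h p) = 0 := congrArg Subtype.val h0
      rw [this, norm_zero] at h1
      exact zero_ne_one h1
    obtain ⟨s, hs⟩ := (finrank_eq_one_iff_of_nonzero' _ hd).1 hT ⟨v, hv⟩
    exact ⟨s, (congrArg Subtype.val hs).symm⟩
  · rintro ⟨s, rfl⟩
    exact (Tan h p).smul_mem _ h2

end dir

section sets

variable {E F : Type*} [NormedAddCommGroup E] [NormedSpace ℝ E] [NormedAddCommGroup F] [NormedSpace ℝ F]

/-- vertices -/
def VSet (h : E → F) (Ω : Set E) : Set E := {p | p ∈ Ω ∧ Module.finrank ℝ (Tan h p) = 0}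

/-- vertices and edge points -/
def ZSet (h : E → F) (Ω : Set E) : Set E := {p | p ∈ Ω ∧ Module.finrank ℝ (Tan h p) ≤ 1}

theorem VSet_subset_ZSet (h : E → F) (Ω : Set E) : VSet h Ω ⊆ ZSet h Ω := fun p hp => ⟨hp.1, by rw [hp.2]; exact zero_le_one⟩

theorem ZSet_subset (h : E → F) (Ω : Set E) : ZSet h Ω ⊆ Ω := fun _ hp => hp.1

/-- `Z` is relatively closed. -/
theorem ZSet_closed [FiniteDimensional ℝ E] {h : E → F} {Ω : Set E} (hΩ : IsOpen Ω) (hh : LocConical h Ω) {q : E}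
    (hq : q ∈ Ω) (hqZ : q ∉ ZSet h Ω) : ∃ r > 0, ∀ y ∈ ball q r, y ∉ ZSet h Ω := by
  refine ⟨crad h Ω q, crad_pos hΩ hq (hh.conAt hq), fun y hy hyZ => hqZ ⟨hq, ?_⟩⟩
  rw [mem_ball, dist_eq_norm] at hy
  have h1 := (conR_crad h Ω q).finrank_Tan_le hy (by simpa using hh.conAt hyZ.1)
  rw [add_sub_cancel] at h1
  exact h1.trans hyZ.2

/-- vertices are isolated. -/
theorem VSet_isolated [FiniteDimensional ℝ E] {h : E → F} {Ω : Set E} (hΩ : IsOpen Ω) (hh : LocConical h Ω) {q : E}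
    (hq : q ∈ Ω) : ∃ r > 0, ball q r ∩ VSet h Ω ⊆ {q} := by
  refine ⟨crad h Ω q, crad_pos hΩ hq (hh.conAt hq), ?_⟩
  rintro y ⟨hy, hyV⟩
  rw [mem_ball, dist_eq_norm] at hy
  exact vertex_isolated hh hy (Submodule.finrank_eq_zero.1 hyV.2)

end sets

section null

variable {E F : Type*} [NormedAddCommGroup E] [NormedSpace ℝ E] [FiniteDimensional ℝ E] [MeasurableSpace E] [BorelSpace E]
  [NormedAddCommGroup F] [NormedSpace ℝ F] [FiniteDimensional ℝ F]

/-- almost every point is an affine point. -/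
theorem null_not_affine (μ : Measure E) [μ.IsAddHaarMeasure] {h : E → F} {Ω : Set E} (hΩ : IsOpen Ω)
    (hh : LocConical h Ω) (hc : ContinuousOn h Ω) : μ {y | y ∈ Ω ∧ Tan h y ≠ ⊤} = 0 := by
  apply measure_null_of_locally_null
  rintro x ⟨hx, -⟩
  obtain ⟨δ, hδ, C, hsub, hL⟩ := exists_lipschitzOnWith_near hΩ hh hc hx
  refine ⟨{y | y ∈ Ω ∧ Tan h y ≠ ⊤} ∩ ball x δ, ?_, ?_⟩
  · exact inter_mem self_mem_nhdsWithin (mem_nhdsWithin_of_mem_nhds (ball_mem_nhds x hδ))
  · have hr : ∀ᵐ y ∂μ, y ∈ ball x δ → DifferentiableWithinAt ℝ h (ball x δ) y :=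
      hL.ae_differentiableWithinAt_of_mem
    rw [ae_iff] at hr
    refine measure_mono_null ?_ hr
    rintro y ⟨⟨hy, hT⟩, hyb⟩
    rw [Set.mem_ofPred_eq]
    push Not
    refine ⟨hyb, fun hd => hT ?_⟩
    exact (hh.conAt hy).Tan_eq_top_of_differentiableAt (hd.differentiableAt (isOpen_ball.mem_nhds hyb))

theorem null_ZSet (μ : Measure E) [μ.IsAddHaarMeasure] {h : E → F} {Ω : Set E} (hΩ : IsOpen Ω)
    (hh : LocConical h Ω) (hc : ContinuousOn h Ω) (hdim : 2 ≤ Module.finrank ℝ E) : μ (ZSet h Ω) = 0 := by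
  refine measure_mono_null ?_ (null_not_affine μ hΩ hh hc)
  rintro y ⟨hy, hT⟩
  refine ⟨hy, fun h0 => ?_⟩
  rw [h0, finrank_top] at hT
  omega

end null

section main

variable {E : Type*} [NormedAddCommGroup E] [InnerProductSpace ℝ E] [MeasureSpace E] [BorelSpace E]
  [FiniteDimensional ℝ E] [(volume : Measure E).IsAddHaarMeasure]

/-- **GERM** (helper205 #7463): the germ data of a locally conical homeomorphism. -/
theorem germs_of_homeoOn {h k : E → E} {Ω Λ : Set E} (hfin : Module.finrank ℝ E = 3) (H : HomeoOn h k Ω Λ)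
    (hh : LocConical h Ω) (hdet : ∀ y ∈ Ω, ∀ A : E →L[ℝ] E, germ h y = A → 0 < A.det) :
    P5Spec_205.Germs h Ω (VSet h Ω) (ZSet h Ω) (germ h) (fun p => dir (germ h p)) := by
  have hΩ := H.openΩ
  have hc := H.cont
  have conR_of : ∀ {p : E} {r : ℝ}, p ∈ Ω → (∀ v, ‖v‖ < r → h (p + v) = h p + germ h p v) → ConR h p r :=
    fun hp hr => conR_of_eq (hh.conAt hp).posHom hr
  have hone : ∀ p ∈ ZSet h Ω, p ∉ VSet h Ω → Module.finrank ℝ (Tan h p) = 1 := by
    intro p hp hpV
    have h1 : Module.finrank ℝ (Tan h p) ≠ 0 := fun h0 => hpV ⟨hp.1, h0⟩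
    have h2 := hp.2
    omega
  have hmoll : ∀ p ∈ Ω, p ∉ ZSet h Ω → MollAt h p := by
    intro p hp hpZ
    refine mollAt_of_codim_le_one hΩ hh hc hdet hp ?_
    by_contra hcon
    exact hpZ ⟨hp, by omega⟩
  have hhomeo : ∀ p ∈ Ω, IsHomeomorph (germ h p) := fun p hp =>
    (H.germHomeo hp (hh.conAt hp)).isHomeomorph
  have hpl : ∀ p ∈ Ω, ∃ S : Finset (E →L[ℝ] E), ∀ x, ∃ A ∈ S, germ h p x = A x := by
    intro p hp
    obtain ⟨S, hS, -⟩ := germ_selection hΩ hh hc hp one_pos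
    exact ⟨S, hS⟩
  refine ⟨VSet_subset_ZSet h Ω, ZSet_subset h Ω, ?_, hhomeo, fun p hp => (hh.conAt hp).posHom, hpl, hmoll, ?_, ?_, ?_, ?_⟩
  · intro p hp
    exact ⟨crad h Ω p, crad_pos hΩ hp (hh.conAt hp), ball_crad_subset h Ω p, fun v hv => apply_add_of_lt_crad hv⟩
  · -- edge germs
    intro p hp hpV
    have h1 := hone p hp hpV
    have hne : Tan h p ≠ ⊥ := by
      intro h0
      rw [h0, finrank_bot] at h1
      exact zero_ne_one h1
    obtain ⟨hd1, hd2⟩ := dir_mem_Tan hne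
    refine ⟨hd1, hhomeo p hp.1, (hh.conAt hp.1).posHom, mem_Tan_iff'.1 hd2, hpl p hp.1, ?_⟩
    intro x hx
    have hxT : x ∉ Tan h p := by
      rw [mem_Tan_iff_dir h1]
      push Not
      exact hx
    have hcr := crad_pos hΩ hp.1 (hh.conAt hp.1)
    set t : ℝ := crad h Ω p / (2 * (1 + ‖x‖)) with ht
    have hn := norm_nonneg x
    have ht0 : 0 < t := by positivity
    have htx : t * ‖x‖ < crad h Ω p / 2 := by
      rw [ht, div_mul_eq_mul_div, div_lt_div_iff₀ (by positivity) two_pos]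
      nlinarith
    have htx' : ‖t • x‖ < crad h Ω p / 2 := by rwa [norm_smul, Real.norm_of_nonneg ht0.le]
    have hmem : p + t • x ∈ Ω := add_mem_of_lt_crad (by linarith)
    have htT : t • x ∉ Tan h p := fun hcon => hxT (by
      have := (Tan h p).smul_mem t⁻¹ hcon
      rwa [smul_smul, inv_mul_cancel₀ ht0.ne', one_smul] at this)
    have h2 := (conR_crad h Ω p).finrank_Tan_lt (by linarith) (hh.conAt hmem) htT
    have h3 : MollAt h (p + t • x) := hmoll _ hmem (fun hZ => by have := hZ.2; omega)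
    refine MollAt.of_smul (hh.conAt hp.1).posHom ht0 ?_
    refine MollAt.transport (r := crad h Ω p / 2) (c := -h p) (by linarith) h3 ?_
    intro v hv
    have h4 : ‖t • x + v‖ < crad h Ω p := by
      have := norm_add_le (t • x) v
      linarith
    have h5 := apply_add_of_lt_crad h4
    rw [add_assoc, h5]
    abel
  · -- `Z` is a line near an edge point
    intro p hp hpV r hr0 hr hrr v hv
    have h1 := hone p hp hpV
    have hR := conR_of hp.1 hrr
    have hmem : p + v ∈ Ω := hr (by rwa [mem_ball, dist_eq_norm, add_sub_cancel_left])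
    refine ⟨?_, ?_⟩
    · rw [← mem_Tan_iff_dir h1]
      constructor
      · intro hZ
        by_contra hvT
        have h2 := hR.finrank_Tan_lt hv (hh.conAt hmem) hvT
        have := hZ.2
        omega
      · intro hvT
        refine ⟨hmem, ?_⟩
        rw [hR.Tan_eq_of_mem hv (hh.conAt hmem) hvT, h1]
    · intro hV
      have h2 := hR.finrank_Tan_le hv (hh.conAt hmem)
      rw [hV.2, h1] at h2
      omega
  · -- constancy along edges
    intro p hp hpV r hr0 hr hrr s hs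
    have h1 := hone p hp hpV
    have hne : Tan h p ≠ ⊥ := by
      intro h0
      rw [h0, finrank_bot] at h1
      exact zero_ne_one h1
    obtain ⟨hd1, hd2⟩ := dir_mem_Tan hne
    have hR := conR_of hp.1 hrr
    have hv : ‖s • dir (germ h p)‖ < r := by rwa [norm_smul, hd1, mul_one, Real.norm_eq_abs]
    have hmem : p + s • dir (germ h p) ∈ Ω := hr (by rwa [mem_ball, dist_eq_norm, add_sub_cancel_left])
    have h2 : germ h (p + s • dir (germ h p)) = germ h p :=
      hR.germ_eq_of_mem hv (hh.conAt hmem) ((Tan h p).smul_mem s hd2)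
    exact ⟨h2, by rw [h2]⟩
  · -- cones
    intro q hq r hr0 hr hrr v hv0 hv
    have hR := conR_of hq hrr
    have hmem : q + v ∈ Ω := hr (by rwa [mem_ball, dist_eq_norm, add_sub_cancel_left])
    refine ⟨?_, ?_⟩
    · intro hV
      have h1 := hR.self_mem_Tan_near hv (hh.conAt hmem)
      rw [Submodule.finrank_eq_zero.1 hV.2, Submodule.mem_bot] at h1
      exact hv0 h1
    · intro t ht0 ht1
      have hle : ‖t • v‖ ≤ ‖v‖ := by
        rw [norm_smul, Real.norm_of_nonneg ht0.le]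
        exact mul_le_of_le_one_left (norm_nonneg v) ht1
      have hmem' : q + t • v ∈ Ω := hr (by rw [mem_ball, dist_eq_norm, add_sub_cancel_left]; linarith)
      have h1 : germ h (q + t • v) = germ h (q + v) :=
        hR.germ_scale hv (hh.conAt hmem) ht0 (by linarith) (hh.conAt hmem')
      refine ⟨?_, h1, by rw [h1]⟩
      have h2 := Tan_eq_of_germ_eq h1
      constructor
      · rintro ⟨_, h3⟩
        exact ⟨hmem, by rwa [h2] at h3⟩
      · rintro ⟨_, h3⟩
        exact ⟨hmem', by rwa [h2]⟩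

/-- conversion of helper205's `HomeoOn` into the one used in `Germ4_879`. -/
theorem exists_homeoOn {h : E → E} {Ω Λ : Set E} (hΩ : IsOpen Ω) (hΛ : IsOpen Λ) (H : P5Spec_205.HomeoOn h Ω Λ) :
    ∃ k : E → E, HomeoOn h k Ω Λ := by
  obtain ⟨hb, hcont, k, hk, hkl⟩ := H
  have hkr : ∀ y ∈ Λ, k y ∈ Ω ∧ h (k y) = y := by
    intro y hy
    obtain ⟨x, hx, rfl⟩ := hb.surjOn hy
    rw [hkl x hx]
    exact ⟨hx, rfl⟩
  exact ⟨k, hΩ, hΛ, hb.mapsTo, fun y hy => (hkr y hy).1, hkl, fun y hy => (hkr y hy).2, hcont, hk⟩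

/-- **GERM**, with helper205's `HomeoOn`. -/
theorem germs_of {h : E → E} {Ω Λ : Set E} (hfin : Module.finrank ℝ E = 3) (hΩ : IsOpen Ω) (hΛ : IsOpen Λ)
    (H : P5Spec_205.HomeoOn h Ω Λ) (hh : LocConical h Ω)
    (hdet : ∀ y ∈ Ω, ∀ A : E →L[ℝ] E, germ h y = A → 0 < A.det) :
    P5Spec_205.Germs h Ω (VSet h Ω) (ZSet h Ω) (germ h) (fun p => dir (germ h p)) ∧
      (∀ x ∈ Ω, x ∉ ZSet h Ω → ∃ r > 0, ∀ y ∈ ball x r, y ∉ ZSet h Ω) ∧ volume (ZSet h Ω) = 0 ∧
      (∀ x ∈ Ω, ∃ r > 0, ball x r ∩ VSet h Ω ⊆ {x}) := by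
  obtain ⟨k, hk⟩ := exists_homeoOn hΩ hΛ H
  exact ⟨germs_of_homeoOn hfin hk hh hdet, fun x hx hxZ => ZSet_closed hΩ hh hx hxZ,
    null_ZSet volume hΩ hh H.cont (by omega), fun x hx => VSet_isolated hΩ hh hx⟩

end main

end Crest.Agent.R096.Germ_879
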