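import Crest.Agent.R096.Msb4_432

/-!
# Row 96 (helper628), (G3), (G4): the scale of the tiles of a block and the distance to its wall

All distances in the coordinates `ψ` of the block.
-/

set_option autoImplicit false
set_option linter.unusedSectionVars false

open Set Metric Topology Filter

namespace Crest.Agent.R096.Gfr_628

open Crest.Agent.R096.Msh_715 Crest.Agent.R096.Mal_874 Crest.Agent.R096.Cut_874
open Crest.Agent.R096.Msh_810 Crest.Agent.R096.Msb_432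

variable {n : ℕ}

section size

variable {W : Set (Fin n → ℝ)} {C : ℝ} {hC : 1 < C} {kc k : ℕ} {a : Fin n → ℝ} {h : C ≤ 2 ^ kc}
  {hk : kc ≤ k}

/-- at distance `(C + 1) 2^-κ` from the wall the scale is at most `κ` -/
theorem blkE_K_le_of {κ : ℕ} (hκ : kc ≤ κ) {x : Fin n → ℝ} (hx : (C + 1) / 2 ^ κ ≤ infDist x W) :
    K (blkE W C hC kc k a h hk) x ≤ κ := by
  have h2 : 0 < C := by linarith
  have hp : (0 : ℝ) < 2 ^ κ := by positivity
  refine K_le_of fun y hy => ?_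
  rw [blkE_ρ, blkE_C]
  have h3 := infDist_le_infDist_add_dist (s := W) (x := x) (y := y)
  have h4 : (C + 1) / 2 ^ κ = C / 2 ^ κ + (2 ^ κ)⁻¹ := by rw [add_div, one_div]
  have h5 : C / 2 ^ κ ≤ C / 2 ^ kc :=
    div_le_div_of_nonneg_left h2.le (by positivity) (pow_le_pow_right₀ (by norm_num) hκ)
  have h6 : C / 2 ^ κ ≤ max (C / 2 ^ k) (min (C / 2 ^ kc) (infDist y W)) :=
    (le_min h5 (by linarith)).trans (le_max_right _ _)
  calc C = 2 ^ κ * (C / 2 ^ κ) := by field_simp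
    _ ≤ _ := mul_le_mul_of_nonneg_left h6 (by positivity)

/-- a point of scale above `kc` is close to the wall -/
theorem blkE_lt_of_K {x : Fin n → ℝ} {κ : ℕ} (hκ : kc ≤ κ)
    (hx : κ < K (blkE W C hC kc k a h hk) x) : infDist x W < (C + 1) / 2 ^ κ := by
  by_contra hcon
  push Not at hcon
  exact absurd (blkE_K_le_of (hC := hC) (a := a) (h := h) (hk := hk) hκ hcon) (not_le.2 hx)

end size

variable {E : Type*} [NormedAddCommGroup E] [NormedSpace ℝ E]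

section blk

variable (Q : CB E n) (k : ℕ) (hk : Q.kc ≤ k)

/-- **a cube of scale above `kc` is close to the wall** -/
theorem cube_wall {τ : Top (Q.D k hk)} (hτ : Q.kc < τ.1.1.k) {y : E}
    (hy : y ∈ P ((Q.T0 k hk).H τ)) : infDist (Q.ψ y) Q.W < 15 / 2 ^ τ.1.1.k := by
  obtain ⟨x, hx, hx0, hxK⟩ := τ.1.2
  obtain ⟨m, hm⟩ : ∃ m, τ.1.1.k = m + 1 := ⟨τ.1.1.k - 1, by omega⟩
  have h1 : infDist x Q.W < (6 + 1) / 2 ^ m := by
    refine blkE_lt_of_K (by omega : Q.kc ≤ m) (k := k) (a := Q.a') (h := Q.six_le) (hk := hk)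
      (hC := by norm_num) ?_
    have h2 : m < K (Q.D k hk) x := by rw [hxK, hm]; exact Nat.lt_succ_self m
    exact h2
  have h2 : Q.ψ y ∈ Cu Q.a' τ.1.1.k τ.1.1.z := (Q.tile_T0 k hk).1 hy
  have h3 : x ∈ τ.1.c := τ.1.o_subset_c hx
  rw [τ.c_eq] at h3
  have h4 : dist (Q.ψ y) x ≤ 1 / 2 ^ τ.1.1.k := dist_cube h2 h3
  have h5 := infDist_le_infDist_add_dist (s := Q.W) (x := Q.ψ y) (y := x)
  rw [hm] at h4 ⊢
  have hp : (0 : ℝ) < 2 ^ m := by positivity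
  rw [pow_succ] at h4 ⊢
  have h6 : (15 : ℝ) / (2 ^ m * 2) = (6 + 1) / 2 ^ m + 1 / (2 ^ m * 2) := by
    field_simp
    norm_num
  rw [h6]
  linarith

/-- **a cube of scale below `k` is not close to the wall** -/
theorem cube_wall' {τ : Top (Q.D k hk)} (hτ : τ.1.1.k < k) {y : E}
    (hy : y ∈ P ((Q.T0 k hk).H τ)) : 6 / 2 ^ τ.1.1.k ≤ infDist (Q.ψ y) Q.W := by
  have h2 : Q.ψ y ∈ Cu Q.a' τ.1.1.k τ.1.1.z := (Q.tile_T0 k hk).1 hy
  have h3 : Q.ψ y ∈ τ.1.c := by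
    rw [τ.c_eq]
    exact h2
  have h4 := (τ.1.size h3).1
  have h5 : (6 : ℝ) ≤ 2 ^ τ.1.1.k * max (6 / 2 ^ k) (min (6 / 2 ^ Q.kc) (infDist (Q.ψ y) Q.W)) := h4
  have hp : (0 : ℝ) < 2 ^ τ.1.1.k := by positivity
  have h6 : (2 : ℝ) ^ τ.1.1.k < 2 ^ k := pow_lt_pow_right₀ (by norm_num) hτ
  have h7 : (6 : ℝ) / 2 ^ τ.1.1.k ≤ max (6 / 2 ^ k) (min (6 / 2 ^ Q.kc) (infDist (Q.ψ y) Q.W)) := by
    rw [div_le_iff₀' hp]
    exact h5
  rcases le_max_iff.1 h7 with h8 | h8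
  · exact absurd h8 (not_le.2 (div_lt_div_of_pos_left (by norm_num) hp h6))
  · exact h8.trans (min_le_right _ _)

/-- (G3) scales of touching cubes -/
theorem cube_scale {τ τ' : Top (Q.D k hk)}
    (h : (P ((Q.T0 k hk).H τ) ∩ P ((Q.T0 k hk).H τ')).Nonempty) : τ.1.1.k ≤ τ'.1.1.k + 1 := by
  obtain ⟨y, h1, h2⟩ := h
  have h3 : Q.ψ y ∈ τ.1.c := by
    rw [τ.c_eq]
    exact (Q.tile_T0 k hk).1 h1
  have h4 : Q.ψ y ∈ τ'.1.c := by
    rw [τ'.c_eq]
    exact (Q.tile_T0 k hk).1 h2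
  exact Cel.scale_le h3 h4

end blk

/-! ### in the mesh -/

section mesh

variable [NeZero n] {J : Type*} (M : MD E n J) {k : J → ℕ} (hk : M.Sc k) (a : Fin n → ℝ)
  {v : J → E} (hv : M.Adm v)

/-- the scale of an inner tile of the block `j`: the scale of the cube, `kc` for the shell pieces
and the core -/
noncomputable def sclI {j : J} (i : M.IIx hk a hv j) : ℕ :=
  match i.1 with
  | Sum.inl τ => τ.1.1.1.k
  | Sum.inr _ => (M.Q j).kc

/-- the scale of a tile of `meshS` in the block `j` -/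
noncomputable def sclS : {t // t ∉ cores M hk a hv} ⊕ CIx M → ℕ
  | Sum.inl ⟨Sum.inl p, _⟩ => p.1.par.1.1.k
  | Sum.inl ⟨Sum.inr ⟨_, i⟩, _⟩ => sclI M hk a hv i
  | Sum.inr c => (M.Q c.1).kc

variable {M hk a hv}

theorem sclI_le {j : J} (i : M.IIx hk a hv j) : (M.Q j).kc ≤ sclI M hk a hv i ∧
    sclI M hk a hv i ≤ k j := by
  obtain ⟨i, hi⟩ := i
  rcases i with τ | τ
  · exact ⟨(M.Bk v j).kc_le (k j) (hk.kc j), (M.Bk v j).le_k (k j) (hk.kc j)⟩
  · exact ⟨le_rfl, hk.kc j⟩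

/-- **(G4)** an inner tile of scale above `kc` is close to the wall -/
theorem inner_wall {j : J} (i : M.IIx hk a hv j) (h : (M.Q j).kc < sclI M hk a hv i) {y : E}
    (hy : y ∈ P ((M.mesh hk a hv).H (Sum.inr ⟨j, i⟩))) :
    infDist ((M.Q j).ψ y) (M.Bk v j).W < 15 / 2 ^ sclI M hk a hv i := by
  obtain ⟨i, hi⟩ := i
  rcases i with τ | τ
  · exact cube_wall (M.Bk v j) (k j) (hk.kc j) (τ := τ.1) h hy
  · exact absurd h (lt_irrefl _)

/-- an inner tile of scale below `k j` is not close to the wall -/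
theorem inner_wall' {j : J} (i : M.IIx hk a hv j) (h : sclI M hk a hv i < k j) {y : E}
    (hy : y ∈ P ((M.mesh hk a hv).H (Sum.inr ⟨j, i⟩))) :
    6 / 2 ^ sclI M hk a hv i ≤ infDist ((M.Q j).ψ y) (M.Bk v j).W := by
  obtain ⟨i, hi⟩ := i
  rcases i with τ | τ
  · exact cube_wall' (M.Bk v j) (k j) (hk.kc j) (τ := τ.1) h hy
  · have h1 := bp_dist (M.Bk v j) ((M.Bk v j).P_inr_sub (k j) (hk.kc j) τ hy)
    refine le_trans ?_ h1
    have h2 : (0 : ℝ) < 2 ^ (M.Q j).kc := by positivity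
    show (6 : ℝ) / 2 ^ (M.Q j).kc ≤ 7 / 2 ^ (M.Q j).kc
    exact div_le_div_of_nonneg_right (by norm_num) h2.le

end mesh

end Crest.Agent.R096.Gfr_628
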