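import Mathlib

/-!
# Grid combinatorics of a box in `ι → ℤ` (crossing edges of the boundary)

`inB a b x` : the lattice point `x` lies in the box `[a, b]`.
A lattice edge is a pair `(x, i)` (from `x` to `x + e i`), `Cr a b (x, i)`: exactly one of its
ends lies in the box.  `sq x i j` = the four edges of the unit square `x, x+e i, x+e j, x+e i+e j`.

* `sq_card` : a square has 0 or 2 crossing edges;
* `cr_conn` : (at least two directions) any two crossing edges are joined by a chain of crossing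
  edges, two consecutive ones in a common square;
* `box_conn` : the box is connected through its edges.
-/

namespace Crest.Agent.R096.Gg_113

variable {ι : Type*} [DecidableEq ι]

/-- unit vector -/
def e (i : ι) : ι → ℤ := Pi.single i 1

@[simp] theorem e_same (i : ι) : (e i : ι → ℤ) i = 1 := by simp [e]

theorem e_ne {i j : ι} (h : j ≠ i) : (e i : ι → ℤ) j = 0 := by simp [e, h]

theorem e_ne_zero (i : ι) : (e i : ι → ℤ) ≠ 0 := by
  intro h
  have := congrFun h i
  simp at this

/-- the lattice box -/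
def inB (a b x : ι → ℤ) : Prop := ∀ i, a i ≤ x i ∧ x i ≤ b i

/-- crossing edge -/
def Cr (a b : ι → ℤ) (k : (ι → ℤ) × ι) : Prop := ¬ (inB a b k.1 ↔ inB a b (k.1 + e k.2))

/-- the four edges of a unit square -/
def sqe (x : ι → ℤ) (i j : ι) : Fin 4 → (ι → ℤ) × ι :=
  ![(x, i), (x, j), (x + e i, j), (x + e j, i)]

/-- the set of the four edges of a unit square -/
def sq (x : ι → ℤ) (i j : ι) : Set ((ι → ℤ) × ι) := Set.range (sqe x i j)

theorem mem_sq {x : ι → ℤ} {i j : ι} {k : (ι → ℤ) × ι} :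
    k ∈ sq x i j ↔ k = (x, i) ∨ k = (x, j) ∨ k = (x + e i, j) ∨ k = (x + e j, i) := by
  constructor
  · rintro ⟨t, rfl⟩
    fin_cases t <;> simp [sqe]
  · rintro (h | h | h | h)
    · exact ⟨0, h.symm⟩
    · exact ⟨1, h.symm⟩
    · exact ⟨2, h.symm⟩
    · exact ⟨3, h.symm⟩

section square

variable {a b x : ι → ℤ} {i j : ι}

theorem inB_split (hij : i ≠ j) (u v : ℤ) (y : ι → ℤ) (hi : y i = u) (hj : y j = v)
    (ho : ∀ k, k ≠ i → k ≠ j → y k = x k) :
    inB a b y ↔ (∀ k, k ≠ i → k ≠ j → a k ≤ x k ∧ x k ≤ b k) ∧ (a i ≤ u ∧ u ≤ b i) ∧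
      (a j ≤ v ∧ v ≤ b j) := by
  constructor
  · intro h
    refine ⟨fun k h1 h2 => ?_, ?_, ?_⟩
    · rw [← ho k h1 h2]; exact h k
    · rw [← hi]; exact h i
    · rw [← hj]; exact h j
  · rintro ⟨h1, h2, h3⟩ k
    by_cases hki : k = i
    · subst hki; rw [hi]; exact h2
    · by_cases hkj : k = j
      · subst hkj; rw [hj]; exact h3
      · rw [ho k hki hkj]; exact h1 k hki hkj

theorem sum4 (P A0 A1 B0 B1 C1 C2 C3 C4 : Prop) [Decidable C1] [Decidable C2] [Decidable C3]
    [Decidable C4]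
    (c1 : C1 ↔ ¬ ((P ∧ A0 ∧ B0) ↔ (P ∧ A1 ∧ B0)))
    (c2 : C2 ↔ ¬ ((P ∧ A0 ∧ B0) ↔ (P ∧ A0 ∧ B1)))
    (c3 : C3 ↔ ¬ ((P ∧ A1 ∧ B0) ↔ (P ∧ A1 ∧ B1)))
    (c4 : C4 ↔ ¬ ((P ∧ A0 ∧ B1) ↔ (P ∧ A1 ∧ B1))) :
    (if C1 then 1 else 0) + ((if C2 then 1 else 0) + ((if C3 then 1 else 0) +
      (if C4 then 1 else 0))) = 0 ∨
    (if C1 then 1 else 0) + ((if C2 then 1 else 0) + ((if C3 then 1 else 0) +
      (if C4 then 1 else 0))) = 2 := by
  by_cases hP : P <;> by_cases h1 : A0 <;> by_cases h2 : A1 <;> by_cases h3 : B0 <;>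
    by_cases h4 : B1 <;> simp [hP, h1, h2, h3, h4] at c1 c2 c3 c4 <;> simp [c1, c2, c3, c4]

theorem sqe_inj (x : ι → ℤ) (hij : i ≠ j) : Function.Injective (sqe x i j) := by
  have n1 : ((x, i) : (ι → ℤ) × ι) ≠ (x, j) := by simp [hij]
  have n2 : ((x, i) : (ι → ℤ) × ι) ≠ (x + e i, j) := by simp [hij]
  have n3 : ((x, i) : (ι → ℤ) × ι) ≠ (x + e j, i) := by
    simp [e_ne_zero]
  have n4 : ((x, j) : (ι → ℤ) × ι) ≠ (x + e i, j) := by simp [e_ne_zero]
  have n5 : ((x, j) : (ι → ℤ) × ι) ≠ (x + e j, i) := by simp [hij.symm]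
  have n6 : ((x + e i, j) : (ι → ℤ) × ι) ≠ (x + e j, i) := by simp [hij.symm]
  intro s t h
  fin_cases s <;> fin_cases t <;> first
    | rfl
    | exact absurd h n1
    | exact absurd h n2
    | exact absurd h n3
    | exact absurd h n4
    | exact absurd h n5
    | exact absurd h n6
    | exact absurd h.symm n1
    | exact absurd h.symm n2
    | exact absurd h.symm n3
    | exact absurd h.symm n4
    | exact absurd h.symm n5
    | exact absurd h.symm n6

theorem sqe_card (a b : ι → ℤ) (x : ι → ℤ) (hij : i ≠ j)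
    [DecidablePred fun t => Cr a b (sqe x i j t)] :
    (Finset.univ.filter fun t => Cr a b (sqe x i j t)).card = 0 ∨
    (Finset.univ.filter fun t => Cr a b (sqe x i j t)).card = 2 := by
  have h0 := inB_split (a := a) (b := b) (x := x) hij (x i) (x j) x rfl rfl (fun _ _ _ => rfl)
  have h1 := inB_split (a := a) (b := b) (x := x) hij (x i + 1) (x j) (x + e i)
    (by simp) (by simp [e_ne hij.symm]) (fun k h1 h2 => by simp [e_ne h1])
  have h2 := inB_split (a := a) (b := b) (x := x) hij (x i) (x j + 1) (x + e j)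
    (by simp [e_ne hij]) (by simp) (fun k h1 h2 => by simp [e_ne h2])
  have h3 := inB_split (a := a) (b := b) (x := x) hij (x i + 1) (x j + 1) (x + e i + e j)
    (by simp [e_ne hij]) (by simp [e_ne hij.symm]) (fun k h1 h2 => by simp [e_ne h1, e_ne h2])
  have h3' : inB a b (x + e j + e i) ↔ inB a b (x + e i + e j) := by
    rw [add_right_comm]
  have c1 : Cr a b (sqe x i j 0) ↔ ¬ (inB a b x ↔ inB a b (x + e i)) := Iff.rfl
  have c2 : Cr a b (sqe x i j 1) ↔ ¬ (inB a b x ↔ inB a b (x + e j)) := Iff.rfl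
  have c3 : Cr a b (sqe x i j 2) ↔ ¬ (inB a b (x + e i) ↔ inB a b (x + e i + e j)) := Iff.rfl
  have c4 : Cr a b (sqe x i j 3) ↔ ¬ (inB a b (x + e j) ↔ inB a b (x + e i + e j)) := by
    rw [← h3']; rfl
  rw [h0, h1] at c1
  rw [h0, h2] at c2
  rw [h1, h3] at c3
  rw [h2, h3] at c4
  have := sum4 _ _ _ _ _ _ _ _ _ c1 c2 c3 c4
  rw [Finset.card_filter, Fin.sum_univ_four]
  simpa only [add_assoc] using this

/-- (G1) a lattice square has 0 or 2 crossing edges -/
theorem sq_card (a b : ι → ℤ) (x : ι → ℤ) (hij : i ≠ j) :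
    {k | k ∈ sq x i j ∧ Cr a b k}.ncard = 0 ∨ {k | k ∈ sq x i j ∧ Cr a b k}.ncard = 2 := by
  classical
  have : {k | k ∈ sq x i j ∧ Cr a b k} =
      sqe x i j '' ((Finset.univ.filter fun t => Cr a b (sqe x i j t) : Finset (Fin 4)) :
        Set (Fin 4)) := by
    ext k
    simp only [sq, Set.mem_ofPred_eq, Set.mem_range, Finset.coe_filter, Finset.mem_univ, true_and,
      Set.mem_image]
    constructor
    · rintro ⟨⟨t, rfl⟩, h⟩
      exact ⟨t, h, rfl⟩
    · rintro ⟨t, h, rfl⟩
      exact ⟨⟨t, rfl⟩, h⟩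
  rw [this, Set.ncard_image_of_injective _ (sqe_inj x hij), Set.ncard_coe_finset]
  exact sqe_card a b x hij

end square

section conn

variable {a b x y : ι → ℤ} {i j : ι}

/-- a unit step inside `P` -/
def St (P : (ι → ℤ) → Prop) (x y : ι → ℤ) : Prop := P x ∧ P y ∧ ∃ i, y = x + e i ∨ x = y + e i

theorem St.symm {P : (ι → ℤ) → Prop} (h : St P x y) : St P y x := by
  obtain ⟨h1, h2, i, h3⟩ := h
  exact ⟨h2, h1, i, h3.symm⟩

/-- (G3) the box is connected through its edges -/
theorem box_conn [Fintype ι] (hx : inB a b x) (hy : inB a b y) :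
    Relation.ReflTransGen (St (inB a b)) x y := by
  obtain ⟨n, hn⟩ : ∃ n, n = ∑ i, (x i - y i).natAbs := ⟨_, rfl⟩
  induction n using Nat.strong_induction_on generalizing x with
  | _ n ih =>
    by_cases hxy : x = y
    · rw [hxy]
    obtain ⟨i, hi⟩ : ∃ i, x i ≠ y i := by
      by_contra h
      push Not at h
      exact hxy (funext h)
    rcases lt_or_gt_of_ne hi with h | h
    · have hz : inB a b (x + e i) := by
        intro k
        by_cases hk : k = i
        · subst hk
          have h1 := hx k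
          have h2 := hy k
          simp only [Pi.add_apply, e_same]
          omega
        · have h1 := hx k
          simpa [e_ne hk] using h1
      refine Relation.ReflTransGen.head ⟨hx, hz, i, Or.inl rfl⟩ (ih _ ?_ hz rfl)
      rw [hn]
      refine Finset.sum_lt_sum (fun k _ => ?_) ⟨i, Finset.mem_univ _, ?_⟩
      · by_cases hk : k = i
        · subst hk
          simp only [Pi.add_apply, e_same]
          omega
        · simp [e_ne hk]
      · simp only [Pi.add_apply, e_same]
        omega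
    · have hz : inB a b (x - e i) := by
        intro k
        by_cases hk : k = i
        · subst hk
          have h1 := hx k
          have h2 := hy k
          simp only [Pi.sub_apply, e_same]
          omega
        · have h1 := hx k
          simpa [e_ne hk] using h1
      refine Relation.ReflTransGen.head ⟨hx, hz, i, Or.inr (by simp)⟩ (ih _ ?_ hz rfl)
      rw [hn]
      refine Finset.sum_lt_sum (fun k _ => ?_) ⟨i, Finset.mem_univ _, ?_⟩
      · by_cases hk : k = i
        · subst hk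
          simp only [Pi.sub_apply, e_same]
          omega
        · simp [e_ne hk]
      · simp only [Pi.sub_apply, e_same]
        omega

theorem cr_iff (hab : ∀ i, a i ≤ b i) :
    Cr a b (x, i) ↔ (x i = b i ∨ x i = a i - 1) ∧ ∀ k, k ≠ i → a k ≤ x k ∧ x k ≤ b k := by
  have h1 : inB a b x ↔ (a i ≤ x i ∧ x i ≤ b i) ∧ ∀ k, k ≠ i → a k ≤ x k ∧ x k ≤ b k := by
    constructor
    · intro h
      exact ⟨h i, fun k _ => h k⟩
    · rintro ⟨h1, h2⟩ k
      by_cases hk : k = i
      · subst hk; exact h1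
      · exact h2 k hk
  have h2 : inB a b (x + e i) ↔ (a i ≤ x i + 1 ∧ x i + 1 ≤ b i) ∧
      ∀ k, k ≠ i → a k ≤ x k ∧ x k ≤ b k := by
    constructor
    · intro h
      refine ⟨by simpa using h i, fun k hk => by simpa [e_ne hk] using h k⟩
    · rintro ⟨h1, h2⟩ k
      by_cases hk : k = i
      · subst hk; simpa using h1
      · simpa [e_ne hk] using h2 k hk
  have hi := hab i
  unfold Cr
  simp only [h1, h2]
  generalize (∀ k, k ≠ i → a k ≤ x k ∧ x k ≤ b k) = P
  by_cases hP : P
  · simp only [hP, and_true]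
    constructor
    · intro h
      by_contra hc
      push Not at hc
      apply h
      obtain ⟨h3, h4⟩ := hc
      constructor <;> intro h5 <;> omega
    · intro h h'
      omega
  · simp only [hP, and_false, not_true_eq_false]

/-- two crossing edges in a common square -/
def Adj (a b : ι → ℤ) (k k' : (ι → ℤ) × ι) : Prop :=
  Cr a b k ∧ Cr a b k' ∧ ∃ x i j, i ≠ j ∧ k ∈ sq x i j ∧ k' ∈ sq x i j

theorem Adj.symm {k k' : (ι → ℤ) × ι} (h : Adj a b k k') : Adj a b k' k := by
  obtain ⟨h1, h2, x, i, j, h3, h4, h5⟩ := h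
  exact ⟨h2, h1, x, i, j, h3, h5, h4⟩

theorem adj_step {k : ι} (hk : k ≠ i) (h1 : Cr a b (x, i)) (h2 : Cr a b (x + e k, i)) :
    Adj a b (x, i) (x + e k, i) :=
  ⟨h1, h2, x, i, k, hk.symm, by simp [mem_sq], by simp [mem_sq]⟩

theorem side_conn [Fintype ι] (hab : ∀ i, a i ≤ b i) (hx : Cr a b (x, i)) (hy : Cr a b (y, i))
    (hxy : x i = y i) : Relation.ReflTransGen (Adj a b) (x, i) (y, i) := by
  have hx' := (cr_iff hab).1 hx
  have hy' := (cr_iff hab).1 hy
  set a' := Function.update a i (x i) with ha'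
  set b' := Function.update b i (x i) with hb'
  have key : ∀ z, inB a' b' z ↔ z i = x i ∧ ∀ k, k ≠ i → a k ≤ z k ∧ z k ≤ b k := by
    intro z
    constructor
    · intro h
      refine ⟨?_, fun k hk => ?_⟩
      · have := h i
        simp only [ha', hb', Function.update_self] at this
        omega
      · have := h k
        simpa [ha', hb', Function.update_of_ne hk] using this
    · rintro ⟨h1, h2⟩ k
      by_cases hk : k = i
      · subst hk
        simp [ha', hb', h1]
      · simpa [ha', hb', Function.update_of_ne hk] using h2 k hk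
  have hcr : ∀ z, inB a' b' z → Cr a b (z, i) := by
    intro z hz
    rw [key] at hz
    rw [cr_iff hab]
    exact ⟨by rw [hz.1]; exact hx'.1, hz.2⟩
  have h := box_conn (a := a') (b := b') (x := x) (y := y) ((key x).2 ⟨rfl, hx'.2⟩)
    ((key y).2 ⟨hxy.symm, hy'.2⟩)
  refine h.lift (fun z => ((z, i) : (ι → ℤ) × ι)) ?_
  rintro u v ⟨hu, hv, k, hk⟩
  have hki : k ≠ i := by
    rintro rfl
    have h1 := ((key u).1 hu).1
    have h2 := ((key v).1 hv).1
    rcases hk with hk | hk
    · rw [hk] at h2; simp at h2; omega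
    · rw [hk] at h1; simp at h1; omega
  rcases hk with hk | hk
  · subst hk
    exact adj_step hki (hcr _ hu) (hcr _ hv)
  · subst hk
    exact (adj_step hki (hcr _ hv) (hcr _ hu)).symm

/-- the corner between two sides -/
theorem corner (hab : ∀ i, a i ≤ b i) (hij : i ≠ j) {c d : ℤ} (hc : c = b i ∨ c = a i - 1)
    (hd : d = b j ∨ d = a j - 1) :
    ∃ x y : ι → ℤ, x i = c ∧ y j = d ∧ Adj a b (x, i) (y, j) := by
  set w : ι → ℤ := Function.update (Function.update a i c) j d with hw
  have wi : w i = c := by simp [hw, hij]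
  have wj : w j = d := by simp [hw]
  have wk : ∀ k, k ≠ i → k ≠ j → w k = a k := by
    intro k h1 h2
    simp [hw, h1, h2]
  have hai := hab i
  have haj := hab j
  have A : ∃ x, x i = c ∧ Cr a b (x, i) ∧ (x, i) ∈ sq w i j := by
    rcases hd with hd | hd
    · refine ⟨w, wi, ?_, by simp [mem_sq]⟩
      rw [cr_iff hab]
      refine ⟨by rw [wi]; exact hc, fun k hk => ?_⟩
      by_cases hkj : k = j
      · subst hkj; rw [wj]; omega
      · rw [wk k hk hkj]; exact ⟨le_rfl, hab k⟩
    · refine ⟨w + e j, by simp [wi, e_ne hij], ?_, by simp [mem_sq]⟩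
      rw [cr_iff hab]
      refine ⟨by simp only [Pi.add_apply, wi, e_ne hij, add_zero]; exact hc, fun k hk => ?_⟩
      by_cases hkj : k = j
      · subst hkj; simp only [Pi.add_apply, wj, e_same]; omega
      · simp only [Pi.add_apply, wk k hk hkj, e_ne hkj, add_zero]; exact ⟨le_rfl, hab k⟩
  have B : ∃ y, y j = d ∧ Cr a b (y, j) ∧ (y, j) ∈ sq w i j := by
    rcases hc with hc | hc
    · refine ⟨w, wj, ?_, by simp [mem_sq]⟩
      rw [cr_iff hab]
      refine ⟨by rw [wj]; exact hd, fun k hk => ?_⟩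
      by_cases hki : k = i
      · subst hki; rw [wi]; omega
      · rw [wk k hki hk]; exact ⟨le_rfl, hab k⟩
    · refine ⟨w + e i, by simp [wj, e_ne hij.symm], ?_, by simp [mem_sq]⟩
      rw [cr_iff hab]
      refine ⟨by simp only [Pi.add_apply, wj, e_ne hij.symm, add_zero]; exact hd, fun k hk => ?_⟩
      by_cases hki : k = i
      · subst hki; simp only [Pi.add_apply, wi, e_same]; omega
      · simp only [Pi.add_apply, wk k hki hk, e_ne hki, add_zero]; exact ⟨le_rfl, hab k⟩
  obtain ⟨x, x1, x2, x3⟩ := A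
  obtain ⟨y, y1, y2, y3⟩ := B
  exact ⟨x, y, x1, y1, x2, y2, w, i, j, hij, x3, y3⟩

theorem cr_conn_ne [Fintype ι] (hab : ∀ i, a i ≤ b i) (hij : i ≠ j) (hx : Cr a b (x, i))
    (hy : Cr a b (y, j)) : Relation.ReflTransGen (Adj a b) (x, i) (y, j) := by
  obtain ⟨u, v, hu, hv, h⟩ := corner hab hij ((cr_iff hab).1 hx).1 ((cr_iff hab).1 hy).1
  exact (side_conn hab hx h.1 hu.symm).trans
    ((Relation.ReflTransGen.single h).trans (side_conn hab h.2.1 hy hv))

/-- (G2) any two crossing edges are joined by a chain of crossing edges, two consecutive ones in a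
common square. -/
theorem cr_conn [Fintype ι] [Nontrivial ι] (hab : ∀ i, a i ≤ b i) {k k' : (ι → ℤ) × ι}
    (hk : Cr a b k) (hk' : Cr a b k') : Relation.ReflTransGen (Adj a b) k k' := by
  obtain ⟨x, i⟩ := k
  obtain ⟨y, j⟩ := k'
  by_cases hij : i = j
  · subst hij
    obtain ⟨l, hl⟩ := exists_ne i
    have hz : Cr a b (b, l) := by
      rw [cr_iff hab]
      exact ⟨Or.inl rfl, fun k _ => ⟨hab k, le_rfl⟩⟩
    exact (cr_conn_ne hab hl.symm hk hz).trans (cr_conn_ne hab hl hz hk')
  · exact cr_conn_ne hab hij hk hk'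

end conn

end Crest.Agent.R096.Gg_113
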