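import Mathlib

/-!
# A connected level set between two boundary arcs (unicoherence of a convex set)

`no_sep` : on a convex set `F`, two disjoint closed sets `K1`, `K2` neither of which separates
`v` from `w` do not separate them together.
`clopen_sep` : separation of a compact set by components.
`exists_join` : some component of `{u = t}` meets both `P` and `P'`.
-/

set_option autoImplicit false

open Set Metric Topology unitInterval

namespace Crest.Agent.R096.Gg2_113

section lift

variable {E : Type*} [AddCommGroup E] [Module ℝ E] [TopologicalSpace E] [IsTopologicalAddGroup E]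
  [ContinuousSMul ℝ E]

theorem exists_lift {F : Set E} (hF : Convex ℝ F) {g : E → AddCircle (1 : ℝ)}
    (hg : ContinuousOn g F) :
    ∃ θ : E → ℝ, ContinuousOn θ F ∧ ∀ x ∈ F, ((θ x : ℝ) : AddCircle (1 : ℝ)) = g x := by
  classical
  rcases F.eq_empty_or_nonempty with rfl | ⟨x0, hx0⟩
  · exact ⟨fun _ => 0, continuousOn_empty _, fun x hx => absurd hx (notMem_empty x)⟩
  obtain ⟨θ0, hθ0⟩ := QuotientAddGroup.mk_surjective (g x0)
  have hmem : ∀ (s : I) (a : F), x0 + (s : ℝ) • ((a : E) - x0) ∈ F := by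
    intro s a
    have := hF hx0 a.2 (sub_nonneg.2 s.2.2) s.2.1 (by ring)
    convert this using 1
    module
  have hc : Continuous fun p : I × F => g (x0 + (p.1 : ℝ) • ((p.2 : E) - x0)) := by
    have h1 : Continuous fun p : I × F => (⟨x0 + (p.1 : ℝ) • ((p.2 : E) - x0),
        hmem p.1 p.2⟩ : F) := by
      refine Continuous.subtype_mk ?_ _
      fun_prop
    exact (continuousOn_iff_continuous_domRestrict.1 hg).comp h1
  set H : C(I × F, AddCircle (1 : ℝ)) :=
    ⟨fun p => g (x0 + (p.1 : ℝ) • ((p.2 : E) - x0)), hc⟩ with hH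
  set f : C(F, ℝ) := ContinuousMap.const F θ0 with hf
  have H0 : ∀ a, H (0, a) = ((f a : ℝ) : AddCircle (1 : ℝ)) := by
    intro a
    show g (x0 + ((0 : I) : ℝ) • ((a : E) - x0)) = ((θ0 : ℝ) : AddCircle (1 : ℝ))
    rw [Set.Icc.coe_zero, zero_smul, add_zero]
    exact hθ0.symm
  have cov := AddCircle.isCoveringMap_coe (1 : ℝ)
  set Λ := cov.liftHomotopy H f H0 with hΛ
  have hl : ∀ p, ((Λ p : ℝ) : AddCircle (1 : ℝ)) = H p := fun p =>
    congrFun (cov.liftHomotopy_lifts H f H0) p
  refine ⟨fun x => if h : x ∈ F then Λ (1, ⟨x, h⟩) else 0, ?_, ?_⟩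
  · rw [continuousOn_iff_continuous_domRestrict]
    have : F.domRestrict (fun x => if h : x ∈ F then Λ (1, ⟨x, h⟩) else 0) =
        fun a : F => Λ (1, a) := by
      ext a
      simp [Set.domRestrict, a.2]
    rw [this]
    fun_prop
  · intro x hx
    simp only [hx, dif_pos]
    rw [hl]
    show g (x0 + ((1 : I) : ℝ) • (x - x0)) = g x
    rw [Set.Icc.coe_one, one_smul, add_sub_cancel]

end lift

theorem const_of_int {X : Type*} [TopologicalSpace X] {C : Set X} (hC : IsPreconnected C)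
    {f : X → ℝ} (hf : ContinuousOn f C) (hi : ∀ x ∈ C, ((f x : ℝ) : AddCircle (1 : ℝ)) = 0)
    {v w : X} (hv : v ∈ C) (hw : w ∈ C) : f v = f w := by
  have hint : ∀ x ∈ C, ∃ n : ℤ, f x = n := by
    intro x hx
    have := hi x hx
    rw [AddCircle.coe_eq_zero_iff] at this
    obtain ⟨n, hn⟩ := this
    exact ⟨n, by rw [← hn]; simp⟩
  have key : ∀ v ∈ C, ∀ w ∈ C, ¬ f v < f w := by
    intro v hv w hw hlt
    obtain ⟨m, hm⟩ := hint v hv
    obtain ⟨n, hn⟩ := hint w hw
    have hmn : m + 1 ≤ n := by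
      rw [hm, hn] at hlt
      exact_mod_cast hlt
    have hmn' : (m : ℝ) + 1 ≤ n := by exact_mod_cast hmn
    obtain ⟨z, hz, e⟩ := hC.intermediate_value hv hw hf
      (show (m : ℝ) + 1 / 2 ∈ Icc (f v) (f w) by constructor <;> linarith)
    obtain ⟨l, hl⟩ := hint z hz
    rw [hl] at e
    have h1 : (m : ℝ) < l := by linarith
    have h2 : (l : ℝ) < m + 1 := by linarith
    have h1' : m < l := by exact_mod_cast h1
    have h2' : l < m + 1 := by exact_mod_cast h2
    omega
  exact le_antisymm (not_lt.1 (key w hw v hv)) (not_lt.1 (key v hv w hw))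

section sep

variable {E : Type*} [NormedAddCommGroup E] [NormedSpace ℝ E]

/-- two disjoint closed sets neither of which separates `v`, `w` in the convex set `F` -/
theorem no_sep {F : Set E} (hF : Convex ℝ F) {K1 K2 : Set E} (h1 : IsClosed K1) (h2 : IsClosed K2)
    (hd : Disjoint K1 K2) {u : E → ℝ} (hu : ContinuousOn u F) {t : ℝ}
    (hK : ∀ z ∈ F, u z = t → z ∈ K1 ∪ K2) {C1 C2 : Set E} (hC1 : IsPreconnected C1)
    (hC2 : IsPreconnected C2) (hF1 : C1 ⊆ F) (hF2 : C2 ⊆ F) (hd1 : Disjoint C1 K1)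
    (hd2 : Disjoint C2 K2) {v w : E} (hv1 : v ∈ C1) (hv2 : v ∈ C2) (hw1 : w ∈ C1) (hw2 : w ∈ C2)
    (hv : u v < t) (hw : t < u w) : False := by
  classical
  obtain ⟨φ, φ1, φ2, -⟩ := exists_continuous_zero_one_of_isClosed h1 h2 hd
  -- continuity of a piecewise function
  have pc : ∀ {Y : Type} [TopologicalSpace Y] (C : Set E) (hC : C ⊆ F) (f g : E → Y),
      ContinuousOn f C → ContinuousOn g C → (∀ x ∈ C, u x = t → f x = g x) →
      ContinuousOn (fun x => if t ≤ u x then f x else g x) C := by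
    intro Y _ C hC f g hf hg hfg
    have huC : Continuous (C.domRestrict u) := (hu.mono hC).domRestrict
    rw [continuousOn_iff_continuous_domRestrict]
    have := Continuous.if_le (f' := fun a : C => f a) (g' := fun a : C => g a)
      (f := fun _ : C => t) (g := fun a : C => u a) hf.domRestrict hg.domRestrict
      continuous_const huC (fun a ha => hfg a a.2 ha.symm)
    exact this
  set g : E → AddCircle (1 : ℝ) := fun x => if t ≤ u x then ((φ x : ℝ) : AddCircle (1 : ℝ)) else 0
    with hg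
  have one0 : (((1 : ℝ)) : AddCircle (1 : ℝ)) = 0 := AddCircle.coe_period 1
  have hgc : ContinuousOn g F := by
    refine pc F Subset.rfl _ _ ?_ continuousOn_const ?_
    · exact ((AddCircle.continuous_mk' (1 : ℝ)).comp φ.continuous).continuousOn
    · intro x hx hxt
      rcases hK x hx hxt with h | h
      · rw [φ1 h]; simp
      · rw [φ2 h]; simp
  obtain ⟨θ, hθ, hθg⟩ := exists_lift hF hgc
  -- on `C1`
  have e1 : θ v = θ w - (φ w - 1) := by
    have hc : ContinuousOn (fun x => θ x - (if t ≤ u x then φ x - 1 else 0)) C1 := by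
      refine (hθ.mono hF1).sub (pc C1 hF1 _ _ ?_ continuousOn_const ?_)
      · exact (φ.continuous.sub continuous_const).continuousOn
      · intro x hx hxt
        rcases hK x (hF1 hx) hxt with h | h
        · exact absurd h (disjoint_left.1 hd1 hx)
        · rw [φ2 h]; simp
    have := const_of_int hC1 hc (fun x hx => ?_) hv1 hw1
    · simpa [not_le.2 hv, hw.le] using this
    · by_cases h : t ≤ u x
      · simp only [h, if_true, AddCircle.coe_sub, hθg x (hF1 hx), hg, one0]
        simp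
      · simp only [h, if_false, AddCircle.coe_sub, hθg x (hF1 hx), hg]
        simp
  have e2 : θ v = θ w - φ w := by
    have hc : ContinuousOn (fun x => θ x - (if t ≤ u x then φ x else 0)) C2 := by
      refine (hθ.mono hF2).sub (pc C2 hF2 _ _ φ.continuous.continuousOn continuousOn_const ?_)
      intro x hx hxt
      rcases hK x (hF2 hx) hxt with h | h
      · rw [φ1 h]; simp
      · exact absurd h (disjoint_left.1 hd2 hx)
    have := const_of_int hC2 hc (fun x hx => ?_) hv2 hw2
    · simpa [not_le.2 hv, hw.le] using this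
    · by_cases h : t ≤ u x
      · simp only [h, if_true, AddCircle.coe_sub, hθg x (hF2 hx), hg]
        simp
      · simp only [h, if_false, AddCircle.coe_sub, hθg x (hF2 hx), hg]
        simp
  linarith

end sep

/-- in a compact set two closed parts which no component joins are separated -/
theorem clopen_sep {X : Type*} [TopologicalSpace X] [T2Space X] {L P P' : Set X} (hL : IsCompact L)
    (hP : IsClosed P) (hP' : IsClosed P') (hPL : P ⊆ L) (hPL' : P' ⊆ L)
    (h : ∀ p ∈ P, ∀ q ∈ P', q ∉ connectedComponentIn L p) :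
    ∃ K1 K2 : Set X, IsCompact K1 ∧ IsCompact K2 ∧ Disjoint K1 K2 ∧ K1 ∪ K2 = L ∧ P ⊆ K1 ∧
      P' ⊆ K2 := by
  classical
  have : CompactSpace L := isCompact_iff_compactSpace.1 hL
  -- for every point of `P` a clopen set
  have h1 : ∀ p : L, (p : X) ∈ P → ∃ Z : Set L, IsClopen Z ∧ p ∈ Z ∧
      ∀ q ∈ Z, (q : X) ∉ P' := by
    intro p hp
    by_contra hcon
    push Not at hcon
    have hcc : connectedComponent p = ⋂ s : { s : Set L // IsClopen s ∧ p ∈ s }, (s : Set L) :=
      connectedComponent_eq_iInter_isClopen p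
    have hQ : IsCompact ((↑) ⁻¹' P' : Set L) :=
      (hP'.preimage continuous_subtype_val).isCompact
    have hne : (((↑) ⁻¹' P' : Set L) ∩ ⋂ s : { s : Set L // IsClopen s ∧ p ∈ s }, (s : Set L)).Nonempty := by
      refine hQ.inter_iInter_nonempty _ (fun s => s.2.1.isClosed) ?_
      intro F
      have hcl : IsClopen (⋂ s ∈ F, (s : Set L)) := by
        refine Set.Finite.isClopen_biInter (Finset.finite_toSet F) ?_
        intro s _
        exact s.2.1
      have hpm : p ∈ ⋂ s ∈ F, ((s : { s : Set L // IsClopen s ∧ p ∈ s }) : Set L) :=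
        mem_iInter₂.2 fun s _ => s.2.2
      obtain ⟨q, hq1, hq2⟩ := hcon _ hcl hpm
      exact ⟨q, hq2, hq1⟩
    obtain ⟨q, hq1, hq2⟩ := hne
    rw [← hcc] at hq2
    refine h p hp q hq1 ?_
    rw [connectedComponentIn_eq_image p.2]
    exact ⟨q, hq2, rfl⟩
  have h2 : ∀ p : L, ∃ Z : Set L, IsClopen Z ∧ ((p : X) ∈ P → p ∈ Z) ∧ ∀ q ∈ Z, (q : X) ∉ P' := by
    intro p
    by_cases hp : (p : X) ∈ P
    · obtain ⟨Z, a, b, c⟩ := h1 p hp
      exact ⟨Z, a, fun _ => b, c⟩
    · exact ⟨∅, isClopen_empty, fun h => absurd h hp, fun q hq => absurd hq (notMem_empty q)⟩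
  choose Z hZc hZm hZP using h2
  have hPc : IsCompact ((↑) ⁻¹' P : Set L) := (hP.preimage continuous_subtype_val).isCompact
  obtain ⟨F, hF⟩ := hPc.elim_finite_subcover (fun p : L => Z p) (fun p => (hZc p).isOpen)
    (fun p hp => mem_iUnion.2 ⟨p, hZm p hp⟩)
  set W : Set L := ⋃ p ∈ F, Z p with hW
  have hWc : IsClopen W := Set.Finite.isClopen_biUnion (Finset.finite_toSet F) fun p _ => hZc p
  refine ⟨(↑) '' W, (↑) '' Wᶜ, ?_, ?_, ?_, ?_, ?_, ?_⟩
  · exact hWc.isClosed.isCompact.image continuous_subtype_val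
  · exact hWc.compl.isClosed.isCompact.image continuous_subtype_val
  · rw [disjoint_left]
    rintro _ ⟨a, ha, rfl⟩ ⟨b, hb, e⟩
    have : b = a := Subtype.ext e
    exact hb (this ▸ ha)
  · rw [← image_union, union_compl_self, image_univ, Subtype.range_coe]
  · intro p hp
    exact ⟨⟨p, hPL hp⟩, hF hp, rfl⟩
  · intro q hq
    refine ⟨⟨q, hPL' hq⟩, ?_, rfl⟩
    intro hqW
    rw [hW, mem_iUnion₂] at hqW
    obtain ⟨p, -, hp⟩ := hqW
    exact hZP p _ hp hq

/-- some component of the level set meets both `P` and `P'` -/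
theorem exists_join {E : Type*} [NormedAddCommGroup E] [NormedSpace ℝ E] {F : Set E}
    (hF : Convex ℝ F) (hFc : IsCompact F) {u : E → ℝ} (hu : ContinuousOn u F) {t : ℝ}
    {P P' C1 C2 : Set E} (hP : IsClosed P) (hP' : IsClosed P')
    (hPs : P ⊆ {z | z ∈ F ∧ u z = t}) (hPs' : P' ⊆ {z | z ∈ F ∧ u z = t})
    (hC1 : IsPreconnected C1) (hC2 : IsPreconnected C2) (hF1 : C1 ⊆ F) (hF2 : C2 ⊆ F)
    (h1 : ∀ z ∈ C1, u z = t → z ∈ P') (h2 : ∀ z ∈ C2, u z = t → z ∈ P)
    {v w : E} (hv1 : v ∈ C1) (hv2 : v ∈ C2) (hw1 : w ∈ C1) (hw2 : w ∈ C2)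
    (hv : u v < t) (hw : t < u w) :
    ∃ p ∈ P, ∃ q ∈ P', q ∈ connectedComponentIn {z | z ∈ F ∧ u z = t} p := by
  by_contra hcon
  push Not at hcon
  have hL : IsCompact {z | z ∈ F ∧ u z = t} := by
    have : {z | z ∈ F ∧ u z = t} = F ∩ u ⁻¹' {t} := by ext z; simp
    rw [this]
    exact hFc.of_isClosed_subset (hu.preimage_isClosed_of_isClosed hFc.isClosed
      isClosed_singleton) inter_subset_left
  obtain ⟨K1, K2, c1, c2, hd, hU, p1, p2⟩ := clopen_sep hL hP hP' hPs hPs' hcon
  have hs1 : K1 ⊆ {z | z ∈ F ∧ u z = t} := hU ▸ subset_union_left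
  have hs2 : K2 ⊆ {z | z ∈ F ∧ u z = t} := hU ▸ subset_union_right
  refine no_sep hF c1.isClosed c2.isClosed hd hu (t := t) (fun z hz e => ?_) hC1 hC2 hF1 hF2 ?_ ?_
    hv1 hv2 hw1 hw2 hv hw
  · rw [hU]; exact ⟨hz, e⟩
  · rw [disjoint_left]
    intro z hz hk
    exact (disjoint_left.1 hd) hk (p2 (h1 z hz (hs1 hk).2))
  · rw [disjoint_left]
    intro z hz hk
    exact (disjoint_left.1 hd) (p1 (h2 z hz (hs2 hk).2)) hk

end Crest.Agent.R096.Gg2_113
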