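import Crest.Agent.R096.Msh3_715
import Crest.Agent.R096.Gg1_113

/-!
# Cells of a tiling near a cubical grid

The closed cell of a point depends only on the tiles (as sets).  If all the tiles through `x` are
lattice cubes in the affine coordinates `Λ`, then `T.cc x`, `T.oc x`, `T.dim x` are given by the
lattice cell of `Λ x`.
-/

set_option autoImplicit false
set_option linter.unusedSectionVars false

open Set Metric Topology Filter

namespace Crest.Agent.R096.Gg5_113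

open Crest.Agent.R096.Msh_715

section intrinsic

variable {E : Type*} [NormedAddCommGroup E] [NormedSpace ℝ E] {Om : Set E} {ι : Type*}
  (T : Tiling Om ι)

/-- the closed cell of `x` is determined by the tiles through `x` -/
theorem mem_cc_iff {x y : E} :
    y ∈ T.cc x ↔ ∀ i ∈ T.at_ x, y ∈ P (T.H i) ∧ ∃ s : ℝ, 0 < s ∧ x + s • (x - y) ∈ P (T.H i) := by
  constructor
  · intro hy i hi
    refine ⟨T.cc_sub_tile hi hy, ?_⟩
    have h1 : ∀ h ∈ T.H i, h.1 x = h.2 → h.1 (x - y) ≤ 0 := by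
      intro h hh e
      rw [map_sub, (hy i hi h hh).2 e, e, sub_self]
    have h2 := (mem_P_small (T.mem_at.1 hi) h1).and self_mem_nhdsWithin
    obtain ⟨s, hs1, hs2⟩ := h2.exists
    exact ⟨s, hs2, hs1⟩
  · intro hy i hi h hh
    obtain ⟨h1, s, hs, h2⟩ := hy i hi
    refine ⟨h1 h hh, fun e => le_antisymm (h1 h hh) ?_⟩
    have h3 := h2 h hh
    rw [map_add, map_smul, map_sub, smul_eq_mul, e] at h3
    nlinarith

theorem mem_oc_iff {x y : E} (hx : x ∈ Om) : y ∈ T.oc x ↔ y ∈ T.cc x ∧ x ∈ T.cc y := by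
  constructor
  · intro hy
    refine ⟨T.oc_sub_cc x hy, ?_⟩
    rw [T.cc_eq_of_mem_oc hx hy]
    exact T.self_mem_cc x
  · rintro ⟨h1, h2⟩
    exact T.mem_oc_of_mem_cc h1 h2

theorem mem_V_iff {x v : E} (hx : x ∈ Om) :
    v ∈ T.V x ↔ ∃ s : ℝ, 0 < s ∧ x + s • v ∈ T.cc x := by
  constructor
  · intro hv
    obtain ⟨r, hr, hb⟩ := T.exists_ball_oc hx
    have hn : 0 < ‖v‖ + 1 := by positivity
    refine ⟨r / (‖v‖ + 1), by positivity, T.oc_sub_cc x (hb _ ((T.V x).smul_mem _ hv) ?_)⟩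
    rw [norm_smul, Real.norm_of_nonneg (by positivity), div_mul_eq_mul_div, div_lt_iff₀ hn]
    nlinarith [norm_nonneg v]
  · rintro ⟨s, hs, h⟩
    have h1 := T.sub_mem_V h
    rw [add_sub_cancel_left] at h1
    have h2 := (T.V x).smul_mem s⁻¹ h1
    rwa [smul_smul, inv_mul_cancel₀ hs.ne', one_smul] at h2

end intrinsic

section lattice

variable {κ : Type*} [Fintype κ]

/-- the closed lattice cube -/
def cub (n : κ → ℤ) : Set (κ → ℝ) := {y | ∀ i, (n i : ℝ) ≤ y i ∧ y i ≤ n i + 1}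

/-- the closed lattice cell of `w` -/
def ccell (w : κ → ℝ) : Set (κ → ℝ) := {y | ∀ i, (⌊w i⌋ : ℝ) ≤ y i ∧ y i ≤ ⌈w i⌉}

theorem self_mem_ccell (w : κ → ℝ) : w ∈ ccell w := fun _ => ⟨Int.floor_le _, Int.le_ceil _⟩

theorem floor_ceil_of_ne {r : ℝ} (h : ∀ n : ℤ, r ≠ n) : (⌊r⌋ : ℝ) < r ∧ r < ⌈r⌉ ∧
    (⌈r⌉ : ℝ) = ⌊r⌋ + 1 := by
  have h1 : (⌊r⌋ : ℝ) < r := lt_of_le_of_ne (Int.floor_le r) (fun e => h _ e.symm)
  have h2 : r < ⌈r⌉ := lt_of_le_of_ne (Int.le_ceil r) (fun e => h _ e)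
  refine ⟨h1, h2, ?_⟩
  have h3 : ⌈r⌉ = ⌊r⌋ + 1 := by
    have h4 : ⌊r⌋ < ⌈r⌉ := by exact_mod_cast h1.trans h2
    have h5 := Int.ceil_le_floor_add_one r
    omega
  rw [h3]
  push_cast
  ring

theorem face_cub {n : κ → ℤ} {w y : κ → ℝ} (hw : w ∈ cub n) :
    (y ∈ cub n ∧ ∃ s : ℝ, 0 < s ∧ w + s • (w - y) ∈ cub n) ↔ y ∈ ccell w := by
  constructor
  · rintro ⟨hy, s, hs, h⟩ i
    have h1 := hw i
    have h2 := hy i
    have h3 := h i
    simp only [Pi.add_apply, Pi.smul_apply, Pi.sub_apply, smul_eq_mul] at h3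
    rcases eq_or_lt_of_le h1.1 with e | e
    · have : y i = n i := by nlinarith
      rw [← e, this]
      simp
    rcases eq_or_lt_of_le h1.2 with e' | e'
    · have : y i = n i + 1 := by nlinarith
      have e2 : w i = ((n i + 1 : ℤ) : ℝ) := by push_cast; exact e'
      rw [e2, this, Int.floor_intCast, Int.ceil_intCast]
      push_cast
      simp
    · have f1 : ⌊w i⌋ = n i := by
        rw [Int.floor_eq_iff]
        exact ⟨e.le, e'⟩
      have f2 : ⌈w i⌉ = n i + 1 := by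
        rw [Int.ceil_eq_iff]
        push_cast
        constructor
        · linarith
        · exact e'.le
      rw [f1, f2]
      push_cast
      exact h2
  · intro hy
    have hyc : y ∈ cub n := by
      intro i
      have h1 := hw i
      have h2 := hy i
      have f1 : (n i : ℝ) ≤ ⌊w i⌋ := by exact_mod_cast Int.le_floor.2 h1.1
      have f2 : (⌈w i⌉ : ℝ) ≤ n i + 1 := by
        have : ⌈w i⌉ ≤ n i + 1 := Int.ceil_le.2 (by push_cast; exact h1.2)
        exact_mod_cast this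
      exact ⟨f1.trans h2.1, h2.2.trans f2⟩
    refine ⟨hyc, ?_⟩
    have hev : ∀ i : κ, ∀ᶠ s in 𝓝[>] (0 : ℝ), (n i : ℝ) ≤ w i + s * (w i - y i) ∧
        w i + s * (w i - y i) ≤ n i + 1 := by
      intro i
      by_cases hint : ∀ m : ℤ, w i ≠ m
      · obtain ⟨h1, h2, h3⟩ := floor_ceil_of_ne hint
        have f1 : (n i : ℝ) ≤ ⌊w i⌋ := by exact_mod_cast Int.le_floor.2 (hw i).1
        have f2 : (⌈w i⌉ : ℝ) ≤ n i + 1 := by
          have : ⌈w i⌉ ≤ n i + 1 := Int.ceil_le.2 (by push_cast; exact (hw i).2)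
          exact_mod_cast this
        have hc : Tendsto (fun s : ℝ => w i + s * (w i - y i)) (𝓝 0)
            (𝓝 (w i + 0 * (w i - y i))) := by
          apply Continuous.tendsto
          fun_prop
        rw [zero_mul, add_zero] at hc
        have g1 := hc.eventually (lt_mem_nhds (f1.trans_lt h1))
        have g2 := hc.eventually (gt_mem_nhds (h2.trans_le f2))
        exact ((g1.and g2).filter_mono nhdsWithin_le_nhds).mono fun s hs => ⟨hs.1.le, hs.2.le⟩
      · push Not at hint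
        obtain ⟨m, hm⟩ := hint
        have h2 := hy i
        rw [hm, Int.floor_intCast, Int.ceil_intCast] at h2
        have e : y i = w i := by rw [hm]; exact le_antisymm h2.2 h2.1
        filter_upwards with s
        rw [e, sub_self, mul_zero, add_zero]
        exact hw i
    obtain ⟨s, hs1, hs2⟩ := ((eventually_all.2 hev).and self_mem_nhdsWithin).exists
    exact ⟨s, hs2, fun i => hs1 i⟩

/-- the noninteger coordinates -/
def nz (w : κ → ℝ) : Set κ := {i | ∀ m : ℤ, w i ≠ m}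

end lattice

section grid

variable {E : Type*} [NormedAddCommGroup E] [NormedSpace ℝ E] {Om : Set E} {ι : Type*}
  (T : Tiling Om ι) {κ : Type*} [Fintype κ] (Λ : E ≃ᵃ[ℝ] (κ → ℝ))

/-- all the tiles through `x` are lattice cubes -/
def Gr (x : E) : Prop := x ∈ Om ∧ ∀ i ∈ T.at_ x, ∃ n : κ → ℤ, P (T.H i) = Λ ⁻¹' cub n

theorem map_ext (x y : E) (s : ℝ) : Λ (x + s • (x - y)) = Λ x + s • (Λ x - Λ y) := by
  have h1 : x + s • (x - y) = (s • (x - y)) +ᵥ x := by rw [vadd_eq_add, add_comm]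
  have h2 : Λ.linear (x - y) = Λ x - Λ y := by
    have := Λ.toAffineMap.linearMap_vsub x y
    simpa using this
  rw [h1, AffineEquiv.map_vadd, map_smul, h2, vadd_eq_add, add_comm]

variable {T Λ}

theorem Gr.mono {x y : E} (h : Gr T Λ x) (hy : y ∈ Om) (hxy : x ∈ T.cc y) : Gr T Λ y :=
  ⟨hy, fun i hi => h.2 i (T.at_sub_of_mem_cc hxy hi)⟩

theorem Gr.cc {x : E} (h : Gr T Λ x) : T.cc x = Λ ⁻¹' ccell (Λ x) := by
  obtain ⟨hx, hG⟩ := h
  obtain ⟨i0, hi0⟩ := T.at_nonempty hx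
  have key : ∀ i ∈ T.at_ x, ∀ y, (y ∈ P (T.H i) ∧ ∃ s : ℝ, 0 < s ∧ x + s • (x - y) ∈ P (T.H i)) ↔
      Λ y ∈ ccell (Λ x) := by
    intro i hi y
    obtain ⟨n, hn⟩ := hG i hi
    have hxn : Λ x ∈ cub n := by
      have : x ∈ P (T.H i) := hi
      rw [hn] at this
      exact this
    rw [hn, ← face_cub hxn]
    simp only [mem_preimage, map_ext]
  ext y
  rw [mem_cc_iff]
  constructor
  · intro hy
    exact (key i0 hi0 y).1 (hy i0 hi0)
  · intro hy i hi
    exact (key i hi y).2 hy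

theorem map_add' (x v : E) : Λ (x + v) = Λ x + Λ.linear v := by
  have h1 : x + v = v +ᵥ x := by rw [vadd_eq_add, add_comm]
  rw [h1, AffineEquiv.map_vadd, vadd_eq_add, add_comm]

theorem Gr.V {x : E} (h : Gr T Λ x) {v : E} :
    v ∈ T.V x ↔ ∀ i, i ∉ nz (Λ x) → (Λ.linear v) i = 0 := by
  rw [mem_V_iff T h.1, h.cc]
  simp only [mem_preimage, map_add', map_smul]
  constructor
  · rintro ⟨s, hs, hc⟩ i hi
    unfold nz at hi
    rw [mem_ofPred_eq] at hi
    push Not at hi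
    obtain ⟨m, hm⟩ := hi
    have h1 := hc i
    simp only [Pi.add_apply, Pi.smul_apply, smul_eq_mul] at h1
    rw [hm, Int.floor_intCast, Int.ceil_intCast] at h1
    have h2 : s * (Λ.linear v) i = 0 := le_antisymm (by linarith [h1.2]) (by linarith [h1.1])
    rcases mul_eq_zero.1 h2 with h3 | h3
    · exact absurd h3 hs.ne'
    · exact h3
  · intro hv
    have hev : ∀ i : κ, ∀ᶠ s in 𝓝[>] (0 : ℝ), (⌊Λ x i⌋ : ℝ) ≤ Λ x i + s * (Λ.linear v) i ∧
        Λ x i + s * (Λ.linear v) i ≤ ⌈Λ x i⌉ := by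
      intro i
      by_cases hi : i ∈ nz (Λ x)
      · obtain ⟨h1, h2, -⟩ := floor_ceil_of_ne hi
        have hc : Tendsto (fun s : ℝ => Λ x i + s * (Λ.linear v) i) (𝓝 0)
            (𝓝 (Λ x i + 0 * (Λ.linear v) i)) := by
          apply Continuous.tendsto
          fun_prop
        rw [zero_mul, add_zero] at hc
        exact (((hc.eventually (lt_mem_nhds h1)).and (hc.eventually (gt_mem_nhds h2))).filter_mono
          nhdsWithin_le_nhds).mono fun s hs => ⟨hs.1.le, hs.2.le⟩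
      · filter_upwards with s
        rw [hv i hi, mul_zero, add_zero]
        exact ⟨Int.floor_le _, Int.le_ceil _⟩
    obtain ⟨s, hs1, hs2⟩ := ((eventually_all.2 hev).and self_mem_nhdsWithin).exists
    exact ⟨s, hs2, fun i => hs1 i⟩

theorem Gr.dim {x : E} (h : Gr T Λ x) : T.dim x = (nz (Λ x)).ncard := by
  classical
  have h1 : (T.V x).map (Λ.linear : E →ₗ[ℝ] (κ → ℝ)) =
      ⨅ i ∈ (nz (Λ x))ᶜ, LinearMap.ker (LinearMap.proj i : (κ → ℝ) →ₗ[ℝ] ℝ) := by
    ext w
    rw [Submodule.mem_map]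
    simp only [Submodule.mem_iInf, LinearMap.mem_ker, LinearMap.proj_apply, mem_compl_iff]
    constructor
    · rintro ⟨v, hv, rfl⟩ i hi
      exact h.V.1 hv i hi
    · intro hw
      refine ⟨Λ.linear.symm w, h.V.2 ?_, ?_⟩
      · intro i hi
        rw [LinearEquiv.apply_symm_apply]
        exact hw i hi
      · exact LinearEquiv.apply_symm_apply _ _
  have h2 : Module.finrank ℝ ((T.V x).map (Λ.linear : E →ₗ[ℝ] (κ → ℝ))) = T.dim x :=
    LinearEquiv.finrank_map_eq Λ.linear (T.V x)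
  rw [← h2, h1]
  have e := LinearMap.iInfKerProjEquiv ℝ (fun _ : κ => ℝ) (I := nz (Λ x)) (J := (nz (Λ x))ᶜ)
    disjoint_compl_right (by rw [union_compl_self])
  rw [e.finrank_eq, Module.finrank_fintype_fun_eq_card, ← Nat.card_eq_fintype_card]
  rfl

end grid

end Crest.Agent.R096.Gg5_113
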