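import Crest.Agent.R096.Gg5_113

/-!
# The crossing edges of a lattice box in a tiling which is a cubical grid near the box

All the combinatorial fields of `Sk2_855.Box` for the box `[a, b]` of the lattice, in the affine
coordinates `Λ`.
-/

set_option autoImplicit false
set_option linter.unusedSectionVars false

open Set Metric Topology Filter

namespace Crest.Agent.R096.Gg6_113

open Crest.Agent.R096.Msh_715 Crest.Agent.R096.Gg_113 Crest.Agent.R096.Gg5_113

section lattice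

variable {κ : Type*} [DecidableEq κ] {a b : κ → ℤ}

/-- midpoint of a lattice edge -/
noncomputable def mid (k : (κ → ℤ) × κ) : κ → ℝ :=
  fun j => (k.1 j : ℝ) + if j = k.2 then 1 / 2 else 0

theorem mid_same (k : (κ → ℤ) × κ) : mid k k.2 = k.1 k.2 + 1 / 2 := by simp [mid]

theorem mid_ne {k : (κ → ℤ) × κ} {j : κ} (h : j ≠ k.2) : mid k j = k.1 j := by simp [mid, h]

theorem half_ne (m n : ℤ) : (m : ℝ) + 1 / 2 ≠ n := by
  intro h
  have h1 : ((2 * m + 1 : ℤ) : ℝ) = ((2 * n : ℤ) : ℝ) := by push_cast; linarith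
  have h2 : 2 * m + 1 = 2 * n := by exact_mod_cast h1
  omega

theorem floor_half (m : ℤ) : ⌊(m : ℝ) + 1 / 2⌋ = m := by
  rw [Int.floor_eq_iff]; constructor <;> linarith

theorem ceil_half (m : ℤ) : ⌈(m : ℝ) + 1 / 2⌉ = m + 1 := by
  rw [Int.ceil_eq_iff]; push_cast; constructor <;> linarith

theorem nz_mid (k : (κ → ℤ) × κ) : nz (mid k) = {k.2} := by
  ext j
  rw [mem_singleton_iff]
  constructor
  · intro hj
    by_contra hne
    exact hj (k.1 j) (mid_ne hne)
  · rintro rfl m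
    rw [mid_same]
    exact half_ne _ _

theorem mem_ccell_mid {k : (κ → ℤ) × κ} {y : κ → ℝ} :
    y ∈ ccell (mid k) ↔ (∀ j, j ≠ k.2 → y j = k.1 j) ∧
      (k.1 k.2 : ℝ) ≤ y k.2 ∧ y k.2 ≤ k.1 k.2 + 1 := by
  constructor
  · intro h
    refine ⟨fun j hj => ?_, ?_⟩
    · have := h j
      rw [mid_ne hj, Int.floor_intCast, Int.ceil_intCast] at this
      exact le_antisymm this.2 this.1
    · have := h k.2
      rw [mid_same, floor_half, ceil_half] at this
      push_cast at this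
      exact this
  · rintro ⟨h1, h2⟩ j
    by_cases hj : j = k.2
    · subst hj
      rw [mid_same, floor_half, ceil_half]
      push_cast
      exact h2
    · rw [mid_ne hj, Int.floor_intCast, Int.ceil_intCast, h1 j hj]
      exact ⟨le_rfl, le_rfl⟩

theorem mid_region (hab : ∀ i, a i ≤ b i) {k : (κ → ℤ) × κ} (hk : Cr a b k) (i : κ) :
    (a i : ℝ) - 1 ≤ mid k i ∧ mid k i ≤ b i + 1 := by
  obtain ⟨x, l⟩ := k
  rw [cr_iff hab] at hk
  have hl : (a l : ℝ) ≤ b l := by exact_mod_cast hab l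
  by_cases hi : i = l
  · subst hi
    have e : mid (x, i) i = x i + 1 / 2 := mid_same (x, i)
    rw [e]
    rcases hk.1 with h | h
    · rw [h]; constructor <;> linarith
    · rw [h]; push_cast; constructor <;> linarith
  · have e : mid (x, l) i = x i := mid_ne hi
    rw [e]
    obtain ⟨h1, h2⟩ := hk.2 i hi
    have h1' : (a i : ℝ) ≤ x i := by exact_mod_cast h1
    have h2' : (x i : ℝ) ≤ b i := by exact_mod_cast h2
    constructor <;> linarith

theorem mid_inj {k k' : (κ → ℤ) × κ} (h1 : mid k' ∈ ccell (mid k)) (h2 : mid k ∈ ccell (mid k')) :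
    k' = k := by
  rw [mem_ccell_mid] at h1 h2
  obtain ⟨h1, h1'⟩ := h1
  obtain ⟨h2, h2'⟩ := h2
  have e2 : k'.2 = k.2 := by
    by_contra hne
    have := h1 k'.2 hne
    rw [mid_same] at this
    exact half_ne _ _ this
  have e1 : k'.1 = k.1 := by
    funext j
    by_cases hj : j = k.2
    · subst hj
      rw [← e2, mid_same] at h1'
      rw [e2] at h1'
      have h3 : (k.1 k.2 : ℝ) < k'.1 k.2 + 1 := by linarith [h1'.1]
      have h4 : (k'.1 k.2 : ℝ) < k.1 k.2 + 1 := by linarith [h1'.2]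
      have h3' : k.1 k.2 < k'.1 k.2 + 1 := by exact_mod_cast h3
      have h4' : k'.1 k.2 < k.1 k.2 + 1 := by exact_mod_cast h4
      omega
    · have := h1 j hj
      rw [mid_ne (by rw [e2]; exact hj)] at this
      exact_mod_cast this
  exact Prod.ext e1 e2

/-- the edges of a square cell -/
theorem mid_mem_ccell_iff {w : κ → ℝ} {i j : κ} (hij : i ≠ j) (hnz : nz w = {i, j})
    {k : (κ → ℤ) × κ} : mid k ∈ ccell w ↔ k ∈ sq (fun m => ⌊w m⌋) i j := by
  have hi : ∀ m : ℤ, w i ≠ m := by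
    have : i ∈ nz w := by rw [hnz]; simp
    exact this
  have hj : ∀ m : ℤ, w j ≠ m := by
    have : j ∈ nz w := by rw [hnz]; simp
    exact this
  have hm : ∀ m, m ≠ i → m ≠ j → w m = ⌊w m⌋ := by
    intro m h1 h2
    have : m ∉ nz w := by rw [hnz]; simp [h1, h2]
    unfold nz at this
    rw [mem_ofPred_eq] at this
    push Not at this
    obtain ⟨n, hn⟩ := this
    rw [hn, Int.floor_intCast]
  have hcm : ∀ m, m ≠ i → m ≠ j → (⌈w m⌉ : ℝ) = ⌊w m⌋ := by
    intro m h1 h2
    rw [hm m h1 h2]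
    simp
  have ci := (floor_ceil_of_ne hi).2.2
  have cj := (floor_ceil_of_ne hj).2.2
  obtain ⟨y, l⟩ := k
  rw [mem_sq]
  constructor
  · intro h
    have h0 : ∀ m, m ≠ i → m ≠ j → m ≠ l ∧ y m = ⌊w m⌋ := by
      intro m h1 h2
      have h3 := h m
      rw [hcm m h1 h2] at h3
      have h4 : mid (y, l) m = ⌊w m⌋ := le_antisymm h3.2 h3.1
      have h5 : m ≠ l := by
        rintro rfl
        have e : mid (y, m) m = y m + 1 / 2 := mid_same (y, m)
        rw [e] at h4
        exact half_ne _ _ h4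
      have e : mid (y, l) m = y m := mid_ne h5
      rw [e] at h4
      exact ⟨h5, by exact_mod_cast h4⟩
    have hl : l = i ∨ l = j := by
      by_contra hcon
      push Not at hcon
      exact (h0 l hcon.1 hcon.2).1 rfl
    have key : ∀ {p q : κ}, p ≠ q → (∀ m, m ≠ p → m ≠ q → y m = ⌊w m⌋) → l = p →
        (⌈w p⌉ : ℝ) = ⌊w p⌋ + 1 → (⌈w q⌉ : ℝ) = ⌊w q⌋ + 1 →
        y = (fun m => ⌊w m⌋) ∨ y = (fun m => ⌊w m⌋) + e q := by
      intro p q hpq hh hlp cp cq
      subst hlp
      have hp := h l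
      have e1 : mid (y, l) l = y l + 1 / 2 := mid_same (y, l)
      rw [e1, cp] at hp
      have yp : y l = ⌊w l⌋ := by
        have a1 : (⌊w l⌋ : ℝ) < y l + 1 := by linarith [hp.1]
        have a2 : (y l : ℝ) < ⌊w l⌋ + 1 := by linarith [hp.2]
        have a1' : ⌊w l⌋ < y l + 1 := by exact_mod_cast a1
        have a2' : y l < ⌊w l⌋ + 1 := by exact_mod_cast a2
        omega
      have hq := h q
      have e2 : mid (y, l) q = y q := mid_ne (fun h => hpq h.symm)
      rw [e2, cq] at hq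
      have yq : y q = ⌊w q⌋ ∨ y q = ⌊w q⌋ + 1 := by
        have a1' : ⌊w q⌋ ≤ y q := by exact_mod_cast hq.1
        have a2' : y q ≤ ⌊w q⌋ + 1 := by exact_mod_cast hq.2
        omega
      rcases yq with yq | yq
      · left
        funext m
        by_cases m1 : m = l
        · subst m1; exact yp
        · by_cases m2 : m = q
          · subst m2; exact yq
          · exact hh m m1 m2
      · right
        funext m
        by_cases m1 : m = l
        · subst m1; simp [yp, e_ne hpq]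
        · by_cases m2 : m = q
          · subst m2; simp [yq]
          · simp [hh m m1 m2, e_ne m2]
    rcases hl with hl | hl
    · rcases key hij (fun m h1 h2 => (h0 m h1 h2).2) hl ci cj with h1 | h1
      · left; rw [h1, hl]
      · right; right; right; rw [h1, hl]
    · rcases key hij.symm (fun m h1 h2 => (h0 m h2 h1).2) hl cj ci with h1 | h1
      · right; left; rw [h1, hl]
      · right; right; left; rw [h1, hl]
  · intro h m
    by_cases m1 : m = i
    · subst m1
      rw [ci]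
      rcases h with h | h | h | h
      · obtain ⟨rfl, rfl⟩ := Prod.mk.inj h
        rw [show mid (fun m => ⌊w m⌋, l) l = ((⌊w l⌋ : ℤ) : ℝ) + 1 / 2 from mid_same _]
        constructor <;> linarith
      · obtain ⟨rfl, rfl⟩ := Prod.mk.inj h
        rw [show mid (fun m => ⌊w m⌋, l) m = ((⌊w m⌋ : ℤ) : ℝ) from mid_ne hij]
        constructor <;> linarith
      · obtain ⟨rfl, rfl⟩ := Prod.mk.inj h
        rw [show mid ((fun m => ⌊w m⌋) + e m, l) m = (((fun m => ⌊w m⌋) + e m) m : ℤ) from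
          mid_ne hij]
        simp
      · obtain ⟨rfl, rfl⟩ := Prod.mk.inj h
        rw [show mid ((fun m => ⌊w m⌋) + e j, l) l = (((fun m => ⌊w m⌋) + e j) l : ℤ) + 1 / 2 from
          mid_same _]
        simp only [Pi.add_apply, e_ne hij, add_zero]
        constructor <;> linarith
    · by_cases m2 : m = j
      · subst m2
        rw [cj]
        rcases h with h | h | h | h
        · obtain ⟨rfl, rfl⟩ := Prod.mk.inj h
          rw [show mid (fun m => ⌊w m⌋, l) m = ((⌊w m⌋ : ℤ) : ℝ) from mid_ne m1]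
          constructor <;> linarith
        · obtain ⟨rfl, rfl⟩ := Prod.mk.inj h
          rw [show mid (fun m => ⌊w m⌋, l) l = ((⌊w l⌋ : ℤ) : ℝ) + 1 / 2 from mid_same _]
          constructor <;> linarith
        · obtain ⟨rfl, rfl⟩ := Prod.mk.inj h
          rw [show mid ((fun m => ⌊w m⌋) + e i, l) l =
            (((fun m => ⌊w m⌋) + e i) l : ℤ) + 1 / 2 from mid_same _]
          simp only [Pi.add_apply, e_ne m1, add_zero]
          constructor <;> linarith
        · obtain ⟨rfl, rfl⟩ := Prod.mk.inj h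
          rw [show mid ((fun m => ⌊w m⌋) + e m, l) m = (((fun m => ⌊w m⌋) + e m) m : ℤ) from
            mid_ne m1]
          simp
      · rw [hcm m m1 m2]
        have : mid (y, l) m = ⌊w m⌋ := by
          rcases h with h | h | h | h
          · obtain ⟨rfl, rfl⟩ := Prod.mk.inj h
            exact mid_ne m1
          · obtain ⟨rfl, rfl⟩ := Prod.mk.inj h
            exact mid_ne m2
          · obtain ⟨rfl, rfl⟩ := Prod.mk.inj h
            rw [mid_ne m2]
            simp [e_ne m1]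
          · obtain ⟨rfl, rfl⟩ := Prod.mk.inj h
            rw [mid_ne m1]
            simp [e_ne m2]
        rw [this]
        exact ⟨le_rfl, le_rfl⟩

end lattice

section grid

variable {E : Type*} [NormedAddCommGroup E] [NormedSpace ℝ E] [FiniteDimensional ℝ E]
  {Om : Set E} {ι : Type*} {T : Tiling Om ι} {κ : Type*} [Fintype κ] [DecidableEq κ]
  {Λ : E ≃ᵃ[ℝ] (κ → ℝ)} {a b : κ → ℤ}

variable (T Λ a b) in
/-- the tiling is the unit lattice grid in the coordinates `Λ` near the box `[a, b]` -/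
def GB : Prop := ∀ x : E, (∀ i, (a i : ℝ) - 1 ≤ Λ x i ∧ Λ x i ≤ b i + 1) → Gr T Λ x

variable (a b) in
/-- the crossing edges -/
def K : Type _ := {k : (κ → ℤ) × κ // Cr a b k}

theorem finite_K (hab : ∀ i, a i ≤ b i) : Finite (K a b) := by
  have : {k : (κ → ℤ) × κ | Cr a b k} ⊆
      (Set.Icc (fun i => a i - 1) (fun i => b i + 1)) ×ˢ (univ : Set κ) := by
    rintro ⟨x, l⟩ hk
    refine ⟨?_, mem_univ _⟩
    rw [mem_ofPred_eq, cr_iff hab] at hk
    have key : ∀ i, a i - 1 ≤ x i ∧ x i ≤ b i + 1 := by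
      intro i
      have := hab i
      by_cases hi : i = l
      · subst hi
        rcases hk.1 with h | h <;> omega
      · have := hk.2 i hi
        omega
    exact ⟨fun i => (key i).1, fun i => (key i).2⟩
  exact ((Set.finite_Icc _ _).prod finite_univ).subset this

variable (Λ) in
/-- the midpoint of a crossing edge -/
noncomputable def ek (k : (κ → ℤ) × κ) : E := Λ.symm (mid k)

@[simp] theorem Λ_ek (k : (κ → ℤ) × κ) : Λ (ek Λ k) = mid k := by
  simp [ek]

theorem gr_ek (hab : ∀ i, a i ≤ b i) (hG : GB T Λ a b) {k : (κ → ℤ) × κ} (hk : Cr a b k) :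
    Gr T Λ (ek Λ k) := by
  apply hG
  intro i
  rw [Λ_ek]
  exact mid_region hab hk i

theorem ek_mem (hab : ∀ i, a i ≤ b i) (hG : GB T Λ a b) {k : (κ → ℤ) × κ} (hk : Cr a b k) :
    ek Λ k ∈ Om := (gr_ek hab hG hk).1

theorem dim_ek (hab : ∀ i, a i ≤ b i) (hG : GB T Λ a b) {k : (κ → ℤ) × κ} (hk : Cr a b k) :
    T.dim (ek Λ k) = 1 := by
  rw [(gr_ek hab hG hk).dim, Λ_ek, nz_mid, ncard_singleton]

theorem ek_inj (hab : ∀ i, a i ≤ b i) (hG : GB T Λ a b) {k k' : (κ → ℤ) × κ} (hk : Cr a b k)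
    (hk' : Cr a b k') (h : ek Λ k' ∈ T.oc (ek Λ k)) : k' = k := by
  have g := gr_ek hab hG hk
  have g' := gr_ek hab hG hk'
  rw [mem_oc_iff T g.1, g.cc, g'.cc] at h
  simp only [mem_preimage, Λ_ek] at h
  exact mid_inj h.1 h.2

theorem mem_cc_ek (hab : ∀ i, a i ≤ b i) (hG : GB T Λ a b) {k : (κ → ℤ) × κ} (hk : Cr a b k)
    {x : E} : x ∈ T.cc (ek Λ k) ↔ (∀ j, j ≠ k.2 → Λ x j = k.1 j) ∧
      (k.1 k.2 : ℝ) ≤ Λ x k.2 ∧ Λ x k.2 ≤ k.1 k.2 + 1 := by
  rw [(gr_ek hab hG hk).cc, mem_preimage, Λ_ek, mem_ccell_mid]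

/-- the crossing edges of a 2-cell -/
theorem mem_cc_two (hab : ∀ i, a i ≤ b i) (hG : GB T Λ a b) {x : E} (hx : x ∈ Om)
    (hd : T.dim x = 2) {k : (κ → ℤ) × κ} (hk : Cr a b k) (hkx : ek Λ k ∈ T.cc x) :
    ∃ i j, i ≠ j ∧ Gr T Λ x ∧ nz (Λ x) = {i, j} ∧
      ∀ k' : (κ → ℤ) × κ, ek Λ k' ∈ T.cc x ↔ k' ∈ sq (fun m => ⌊Λ x m⌋) i j := by
  have g : Gr T Λ x := (gr_ek hab hG hk).mono hx hkx
  have h1 := g.dim
  rw [hd] at h1
  obtain ⟨i, j, hij, hnz⟩ := ncard_eq_two.1 h1.symm
  refine ⟨i, j, hij, g, hnz, fun k' => ?_⟩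
  rw [← mid_mem_ccell_iff hij hnz, g.cc, mem_preimage, Λ_ek]

theorem two (hab : ∀ i, a i ≤ b i) (hG : GB T Λ a b) {x : E} (hx : x ∈ Om)
    (hd : T.dim x = 2) (h : ∃ k : K a b, ek Λ k.1 ∈ T.cc x) :
    ∃ k k' : K a b, k ≠ k' ∧ ek Λ k.1 ∈ T.cc x ∧ ek Λ k'.1 ∈ T.cc x ∧
      ∀ k'' : K a b, ek Λ k''.1 ∈ T.cc x → k'' = k ∨ k'' = k' := by
  obtain ⟨k0, h0⟩ := h
  obtain ⟨i, j, hij, g, hnz, hall⟩ := mem_cc_two hab hG hx hd k0.2 h0
  rcases sq_card a b (fun m => ⌊Λ x m⌋) hij with h2 | h2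
  · exfalso
    have hfin : {k | k ∈ sq (fun m => ⌊Λ x m⌋) i j ∧ Cr a b k}.Finite :=
      (finite_range _).subset fun k hk => hk.1
    rw [ncard_eq_zero hfin] at h2
    have : k0.1 ∈ {k | k ∈ sq (fun m => ⌊Λ x m⌋) i j ∧ Cr a b k} := ⟨(hall _).1 h0, k0.2⟩
    rw [h2] at this
    exact this
  · obtain ⟨k, k', hkk, e⟩ := ncard_eq_two.1 h2
    have hk : k ∈ sq (fun m => ⌊Λ x m⌋) i j ∧ Cr a b k := by
      have : k ∈ ({k, k'} : Set _) := by simp
      rw [← e] at this
      exact this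
    have hk' : k' ∈ sq (fun m => ⌊Λ x m⌋) i j ∧ Cr a b k' := by
      have : k' ∈ ({k, k'} : Set _) := by simp
      rw [← e] at this
      exact this
    refine ⟨⟨k, hk.2⟩, ⟨k', hk'.2⟩, fun h => hkk (congrArg Subtype.val h), (hall _).2 hk.1,
      (hall _).2 hk'.1, fun k'' hk'' => ?_⟩
    have : k''.1 ∈ {k | k ∈ sq (fun m => ⌊Λ x m⌋) i j ∧ Cr a b k} := ⟨(hall _).1 hk'', k''.2⟩
    rw [e] at this
    rcases this with h | h
    · exact Or.inl (Subtype.ext h)
    · exact Or.inr (Subtype.ext h)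

/-- centre of a lattice square -/
noncomputable def cen (x : κ → ℤ) (i j : κ) : κ → ℝ :=
  fun m => (x m : ℝ) + if m = i ∨ m = j then 1 / 2 else 0

theorem nz_cen (x : κ → ℤ) (i j : κ) : nz (cen x i j) = {i, j} := by
  ext m
  rw [mem_insert_iff, mem_singleton_iff]
  constructor
  · intro hm
    by_contra hne
    exact hm (x m) (by simp [cen, hne])
  · intro hm n
    simp only [cen, hm, if_true]
    exact half_ne _ _

theorem floor_cen (x : κ → ℤ) (i j : κ) : (fun m => ⌊cen x i j m⌋) = x := by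
  funext m
  by_cases hm : m = i ∨ m = j
  · simp only [cen, hm, if_true]
    exact floor_half _
  · simp [cen, hm]

theorem sq_bound (hab : ∀ i, a i ≤ b i) {x : κ → ℤ} {i j : κ} (hij : i ≠ j)
    {k : (κ → ℤ) × κ} (hk : Cr a b k) (hks : k ∈ sq x i j) (m : κ) :
    a m - 1 ≤ x m ∧ x m ≤ b m := by
  have hm := hab m
  rw [mem_sq] at hks
  rcases hks with h | h | h | h <;> subst h <;> rw [cr_iff hab] at hk <;> obtain ⟨h1, h2⟩ := hk
  · by_cases hmi : m = i
    · subst hmi; rcases h1 with h1 | h1 <;> omega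
    · have := h2 m hmi; omega
  · by_cases hmi : m = j
    · subst hmi; rcases h1 with h1 | h1 <;> omega
    · have := h2 m hmi; omega
  · by_cases hmj : m = j
    · subst hmj
      simp only [Pi.add_apply, e_ne hij.symm, add_zero] at h1
      rcases h1 with h1 | h1 <;> omega
    · have h3 := h2 m hmj
      by_cases hmi : m = i
      · subst hmi; simp only [Pi.add_apply, e_same] at h3; omega
      · simp only [Pi.add_apply, e_ne hmi, add_zero] at h3; omega
  · by_cases hmi : m = i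
    · subst hmi
      simp only [Pi.add_apply, e_ne hij, add_zero] at h1
      rcases h1 with h1 | h1 <;> omega
    · have h3 := h2 m hmi
      by_cases hmj : m = j
      · subst hmj; simp only [Pi.add_apply, e_same] at h3; omega
      · simp only [Pi.add_apply, e_ne hmj, add_zero] at h3; omega

theorem adj_cell (hab : ∀ i, a i ≤ b i) (hG : GB T Λ a b) {k k' : (κ → ℤ) × κ}
    (h : Adj a b k k') : ∃ x ∈ Om, T.dim x = 2 ∧ ek Λ k ∈ T.cc x ∧ ek Λ k' ∈ T.cc x := by
  obtain ⟨hk, hk', z, i, j, hij, h1, h2⟩ := h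
  have hreg : ∀ m, (a m : ℝ) - 1 ≤ cen z i j m ∧ cen z i j m ≤ b m + 1 := by
    intro m
    obtain ⟨g1, g2⟩ := sq_bound hab hij hk h1 m
    have g1' : (a m : ℝ) - 1 ≤ z m := by exact_mod_cast g1
    have g2' : (z m : ℝ) ≤ b m := by exact_mod_cast g2
    unfold cen
    split_ifs <;> constructor <;> linarith
  have g : Gr T Λ (Λ.symm (cen z i j)) := by
    apply hG
    intro m
    rw [AffineEquiv.apply_symm_apply]
    exact hreg m
  have hΛ : Λ (Λ.symm (cen z i j)) = cen z i j := AffineEquiv.apply_symm_apply _ _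
  refine ⟨Λ.symm (cen z i j), g.1, ?_, ?_, ?_⟩
  · rw [g.dim, hΛ, nz_cen, ncard_pair hij]
  · rw [g.cc, mem_preimage, Λ_ek, hΛ, mid_mem_ccell_iff hij (nz_cen z i j), floor_cen]
    exact h1
  · rw [g.cc, mem_preimage, Λ_ek, hΛ, mid_mem_ccell_iff hij (nz_cen z i j), floor_cen]
    exact h2

theorem conn [Nontrivial κ] (hab : ∀ i, a i ≤ b i) (hG : GB T Λ a b) (k k' : K a b) :
    Relation.ReflTransGen
      (fun k k' : K a b => ∃ x ∈ Om, T.dim x = 2 ∧ ek Λ k.1 ∈ T.cc x ∧ ek Λ k'.1 ∈ T.cc x) k k' := by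
  have h := cr_conn hab k.2 k'.2
  have key : ∀ (k1 : (κ → ℤ) × κ), Relation.ReflTransGen (Adj a b) k.1 k1 → ∀ hk1 : Cr a b k1,
      Relation.ReflTransGen
      (fun k k' : K a b => ∃ x ∈ Om, T.dim x = 2 ∧ ek Λ k.1 ∈ T.cc x ∧ ek Λ k'.1 ∈ T.cc x) k
        ⟨k1, hk1⟩ := by
    intro k1 hk1
    induction hk1 with
    | refl => intro _; exact Relation.ReflTransGen.refl
    | @tail k2 k3 _ hst ih =>
      intro h3
      exact (ih hst.1).tail (adj_cell hab hG hst)
  exact key k'.1 h k'.2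

/-- the two vertices of a crossing edge -/
theorem verts (hab : ∀ i, a i ≤ b i) (hG : GB T Λ a b) {k : (κ → ℤ) × κ} (hk : Cr a b k) :
    ∃ p q : κ → ℤ, inB a b p ∧ ¬ inB a b q ∧
      Λ.symm (fun j => (p j : ℝ)) ∈ T.cc (ek Λ k) ∧ Λ.symm (fun j => (q j : ℝ)) ∈ T.cc (ek Λ k) ∧
      T.dim (Λ.symm (fun j => (p j : ℝ))) = 0 ∧ T.dim (Λ.symm (fun j => (q j : ℝ))) = 0 ∧
      (∀ j, j ≠ k.2 → p j = q j) ∧ (∀ j, |(q j : ℝ) - p j| ≤ 1) := by
  have hcc : ∀ p : κ → ℤ, (∀ j, j ≠ k.2 → p j = k.1 j) → (p k.2 = k.1 k.2 ∨ p k.2 = k.1 k.2 + 1) →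
      Λ.symm (fun j => (p j : ℝ)) ∈ T.cc (ek Λ k) ∧ T.dim (Λ.symm (fun j => (p j : ℝ))) = 0 := by
    intro p h1 h2
    have hm : Λ.symm (fun j => (p j : ℝ)) ∈ T.cc (ek Λ k) := by
      rw [mem_cc_ek hab hG hk, AffineEquiv.apply_symm_apply]
      refine ⟨fun j hj => by rw [h1 j hj], ?_⟩
      rcases h2 with h2 | h2
      · rw [h2]; constructor <;> linarith
      · rw [h2]; push_cast; constructor <;> linarith
    refine ⟨hm, ?_⟩
    have g : Gr T Λ (Λ.symm (fun j => (p j : ℝ))) := by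
      apply hG
      rw [AffineEquiv.apply_symm_apply]
      intro j
      have hj := hab j
      obtain ⟨x, l⟩ := k
      rw [cr_iff hab] at hk
      have : a j - 1 ≤ p j ∧ p j ≤ b j + 1 := by
        by_cases hjl : j = l
        · subst hjl
          rcases h2 with h2 | h2 <;> rcases hk.1 with h3 | h3 <;> simp only at h2 <;> omega
        · have h3 := hk.2 j hjl
          have h4 := h1 j hjl
          simp only at h4
          omega
      have t1 : (a j : ℝ) - 1 ≤ p j := by exact_mod_cast this.1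
      have t2 : (p j : ℝ) ≤ b j + 1 := by exact_mod_cast this.2
      exact ⟨t1, t2⟩
    rw [g.dim, AffineEquiv.apply_symm_apply]
    have : nz (fun j => (p j : ℝ)) = ∅ := by
      ext j
      simp only [mem_empty_iff_false, iff_false]
      intro hj
      exact hj (p j) rfl
    rw [this, ncard_empty]
  have hx := hcc k.1 (fun _ _ => rfl) (Or.inl rfl)
  have hy := hcc (k.1 + e k.2) (fun j hj => by simp [e_ne hj]) (Or.inr (by simp))
  have hne : ∀ j, j ≠ k.2 → k.1 j = (k.1 + e k.2) j := fun j hj => by simp [e_ne hj]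
  have hd : ∀ j, |(((k.1 + e k.2) j : ℤ) : ℝ) - k.1 j| ≤ 1 := by
    intro j
    by_cases hj : j = k.2
    · subst hj; simp
    · simp [e_ne hj]
  have hd' : ∀ j, |((k.1 j : ℤ) : ℝ) - ((k.1 + e k.2) j : ℤ)| ≤ 1 := by
    intro j
    rw [abs_sub_comm]
    exact hd j
  by_cases hB : inB a b k.1
  · have hB' : ¬ inB a b (k.1 + e k.2) := fun h => hk ⟨fun _ => h, fun _ => hB⟩
    exact ⟨k.1, k.1 + e k.2, hB, hB', hx.1, hy.1, hx.2, hy.2, hne, hd⟩
  · have hB' : inB a b (k.1 + e k.2) := by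
      by_contra h
      exact hk ⟨fun h' => absurd h' hB, fun h' => absurd h' h⟩
    exact ⟨k.1 + e k.2, k.1, hB', hB, hy.1, hx.1, hy.2, hx.2, fun j hj => (hne j hj).symm, hd'⟩

/-- a point of the 1-skeleton in the shell between the box `[a, b]` and `(a - 1, b + 1)` lies on a
crossing edge -/
theorem shell_pt (hab : ∀ i, a i ≤ b i) (hG : GB T Λ a b) {x : E}
    (h1 : T.dim x ≤ 1) (hr : ∀ i, (a i : ℝ) - 1 < Λ x i ∧ Λ x i < b i + 1)
    (ho : ∃ i, Λ x i < a i ∨ (b i : ℝ) < Λ x i) :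
    ∃ k : K a b, x ∈ T.oc (ek Λ k.1) := by
  have g : Gr T Λ x := hG x fun i => ⟨(hr i).1.le, (hr i).2.le⟩
  obtain ⟨i, hi⟩ := ho
  have hri := hr i
  have hab' : (a i : ℝ) ≤ b i := by exact_mod_cast hab i
  have hin : i ∈ nz (Λ x) := by
    intro n hn
    rw [hn] at hi hri
    rcases hi with hi | hi
    · have t1 : n < a i := by exact_mod_cast hi
      have t2 : a i - 1 < n := by exact_mod_cast hri.1
      omega
    · have t1 : b i < n := by exact_mod_cast hi
      have t2 : n < b i + 1 := by exact_mod_cast hri.2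
      omega
  have hnz : ∀ j, j ≠ i → ∃ n : ℤ, Λ x j = n := by
    intro j hj
    by_contra hcon
    push Not at hcon
    have hjn : j ∈ nz (Λ x) := hcon
    have : ({i, j} : Set κ).ncard ≤ (nz (Λ x)).ncard :=
      ncard_le_ncard (by rintro m (rfl | rfl) <;> assumption) (toFinite _)
    rw [ncard_pair hj.symm, ← g.dim] at this
    omega
  set z : κ → ℤ := fun m => ⌊Λ x m⌋ with hz
  have hzj : ∀ j, j ≠ i → Λ x j = z j := by
    intro j hj
    obtain ⟨n, hn⟩ := hnz j hj
    simp only [hz, hn, Int.floor_intCast]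
  have hcr : Cr a b (z, i) := by
    rw [cr_iff hab]
    refine ⟨?_, fun j hj => ?_⟩
    · rcases hi with hi | hi
      · right
        rw [hz]
        simp only
        rw [Int.floor_eq_iff]
        push_cast
        constructor <;> linarith
      · left
        rw [hz]
        simp only
        rw [Int.floor_eq_iff]
        exact ⟨hi.le, hri.2⟩
    · have h2 := hr j
      rw [hzj j hj] at h2
      have t1 : a j - 1 < z j := by exact_mod_cast h2.1
      have t2 : z j < b j + 1 := by exact_mod_cast h2.2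
      omega
  refine ⟨⟨(z, i), hcr⟩, ?_⟩
  have gk := gr_ek hab hG hcr
  rw [mem_oc_iff T gk.1, g.cc, mem_cc_ek hab hG hcr]
  obtain ⟨f1, f2, f3⟩ := floor_ceil_of_ne hin
  refine ⟨⟨hzj, f1.le, by rw [hz]; simp only; linarith⟩, ?_⟩
  rw [mem_preimage, Λ_ek]
  intro j
  by_cases hj : j = i
  · subst hj
    rw [show mid (z, j) j = (z j : ℝ) + 1 / 2 from mid_same _, f3]
    rw [hz]
    constructor <;> simp only <;> linarith
  · rw [show mid (z, i) j = (z j : ℝ) from mid_ne hj, hzj j hj, Int.floor_intCast,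
      Int.ceil_intCast]
    exact ⟨le_rfl, le_rfl⟩

end grid

end Crest.Agent.R096.Gg6_113
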