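import Crest.Agent.R096.Nr5_527

/-!
# R096 (row 96), GIANTS-INST, part 1 (helper537): the geometry of the family of all cores

`Mbf_337.Cores` (exact and tiny cores).  `Kc T J c := KJ T (J c)` (for `c ∈ X` this is the core tile):
compact, inside `Om`, pairwise disjoint, locally finite; `X0 T J` = complement of the open cores:
closed; `Om ⊆ X0 ∪ ⋃ Kc`; in `Kc c`: `x ∈ X0 ↔ x ∈ frontier (Kc c)`.
-/

set_option autoImplicit false
set_option linter.unusedSectionVars false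

open Set Filter Topology Metric

namespace Crest.Agent.R096.Gia_537

open Crest.Agent.R096.Brk1_582 Crest.Agent.R096.Brk3_582
open Crest.Agent.R096.Brk5_582
open Crest.Agent.R096.Bsp_628
open Crest.Agent.R096.SkC1_961 (E3 Hom3 FoamD Cfg th NN)
open Crest.Agent.R096.Msh_715
open Crest.Agent.R96.Push_899
open Crest.Agent.R096.Mbf_337 (KJ sb gau)
open Crest.Agent.R096.Nr_527 (mem_KJ J_sub J0_sub V_inside open_only)

variable {δ κ0 R c0 : ℝ} {La Om : Set E3} {ι : Type} {Φ : FoamD δ κ0 R c0 La}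
  {T : Tiling Om ι} {f : E3 → E3} {κ1 κ2 : ℝ} {X : Set Φ.F} {J0 J V : Φ.F → Set ι} {ct : Φ.F → ι}
  {A : Φ.F → E3 ≃ᵃ[ℝ] E3} {lam : Φ.F → ℝ} {z : Φ.F → E3} {θ : Φ.F → E3 → E3} {φ : Φ.F → E3 → ℝ}

/-- the tiles of a core are finitely many -/
theorem V_finite (hC : Mbf_337.Cores Φ T f κ1 κ2 X J0 J V ct A lam z θ φ) (c : Φ.F) :
    (V c).Finite := by
  by_cases hc : c ∈ X
  · rw [(hC.one c hc).2.2]; exact Set.finite_singleton _
  · exact (hC.tiny c hc).finV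

theorem J_finite (hC : Mbf_337.Cores Φ T f κ1 κ2 X J0 J V ct A lam z θ φ) (c : Φ.F) :
    (J c).Finite := (V_finite hC c).subset (J_sub hC c)

theorem KJ_mono {K K' : Set ι} (h : K ⊆ K') : KJ T K ⊆ KJ T K' := by
  intro x hx
  obtain ⟨i, hi, hxi⟩ := mem_KJ.1 hx
  exact mem_KJ.2 ⟨i, h hi, hxi⟩

theorem KJ_sub_Om {K : Set ι} : KJ T K ⊆ Om := by
  intro x hx
  obtain ⟨i, hi, hxi⟩ := mem_KJ.1 hx
  exact T.sub i hxi

theorem KJ_compact {K : Set ι} (hK : K.Finite) : IsCompact (KJ T K) :=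
  hK.isCompact_biUnion fun i _ => T.cpt i

/-- **disjoint as sets** -/
theorem KV_disj (hLa : IsOpen La) (hC : Mbf_337.Cores Φ T f κ1 κ2 X J0 J V ct A lam z θ φ)
    {c c' : Φ.F} (hne : c ≠ c') : Disjoint (KJ T (V c)) (KJ T (V c')) := by
  rw [disjoint_left]
  intro x hx hx'
  have h1 := open_only Φ hLa (V_inside hC hx)
  have h2 := open_only Φ hLa (V_inside hC hx')
  exact hne (h2.2 c h1.1)

/-- the core of the brick `c` -/
abbrev Kc (T : Tiling Om ι) (J : Φ.F → Set ι) (c : Φ.F) : Set E3 := KJ T (J c)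

theorem Kc_sub (c : Φ.F) : Kc T J c ⊆ Om := KJ_sub_Om

theorem Kc_compact (hC : Mbf_337.Cores Φ T f κ1 κ2 X J0 J V ct A lam z θ φ) (c : Φ.F) :
    IsCompact (Kc T J c) := KJ_compact (J_finite hC c)

theorem Kc_disj (hLa : IsOpen La) (hC : Mbf_337.Cores Φ T f κ1 κ2 X J0 J V ct A lam z θ φ)
    {c c' : Φ.F} (hne : c ≠ c') : Disjoint (Kc T J c) (Kc T J c') :=
  (KV_disj hLa hC hne).mono (KJ_mono (J_sub hC c)) (KJ_mono (J_sub hC c'))

theorem Kc_exact (hC : Mbf_337.Cores Φ T f κ1 κ2 X J0 J V ct A lam z θ φ) {c : Φ.F} (hc : c ∈ X) :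
    Kc T J c = P (T.H (ct c)) := by
  show KJ T (J c) = _
  rw [(hC.one c hc).2.1]
  simp [KJ]

/-- **local finiteness** -/
theorem KV_lf (hC : Mbf_337.Cores Φ T f κ1 κ2 X J0 J V ct A lam z θ φ) {x : E3} (hx : x ∈ Om) :
    ∃ U ∈ 𝓝 x, {c : Φ.F | (KJ T (V c) ∩ U).Nonempty}.Finite := by
  classical
  obtain ⟨i0, -⟩ := T.cov x hx
  have : Nonempty ι := ⟨i0⟩
  obtain ⟨r, hr, hf⟩ := T.lf x hx
  refine ⟨ball x r, ball_mem_nhds x hr, ?_⟩
  have hch : ∀ c ∈ {c : Φ.F | (KJ T (V c) ∩ ball x r).Nonempty}, ∃ i ∈ V c,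
      (P (T.H i) ∩ ball x r).Nonempty := by
    rintro c ⟨y, hy, hyr⟩
    obtain ⟨i, hi, hyi⟩ := mem_KJ.1 hy
    exact ⟨i, hi, y, hyi, hyr⟩
  choose! t ht ht2 using hch
  refine Set.Finite.of_finite_image (f := t) (hf.subset ?_) ?_
  · rintro _ ⟨c, hc, rfl⟩
    exact ht2 c hc
  · intro c hc c' hc' he
    by_contra hne
    have h1 := ht c hc
    have h2 := ht c' hc'
    have he' : t c = t c' := he
    rw [← he'] at h2
    exact disjoint_left.1 (hC.disj c c' hne) h1 h2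

theorem Kc_lf (hC : Mbf_337.Cores Φ T f κ1 κ2 X J0 J V ct A lam z θ φ) {x : E3} (hx : x ∈ Om) :
    ∃ U ∈ 𝓝 x, {c : Φ.F | (Kc T J c ∩ U).Nonempty}.Finite := by
  obtain ⟨U, hU, hf⟩ := KV_lf hC hx
  refine ⟨U, hU, hf.subset ?_⟩
  rintro c ⟨y, hy, hyU⟩
  exact ⟨y, KJ_mono (J_sub hC c) hy, hyU⟩

/-- complement of the open cores -/
def X0 (T : Tiling Om ι) (J : Φ.F → Set ι) : Set E3 := (⋃ c : Φ.F, interior (Kc T J c))ᶜ

theorem X0_closed : IsClosed (X0 (Φ := Φ) T J) := by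
  unfold X0
  exact (isOpen_iUnion fun _ => isOpen_interior).isClosed_compl

theorem cov : Om ⊆ X0 (Φ := Φ) T J ∪ ⋃ c : Φ.F, Kc T J c := by
  intro x _
  by_cases h : x ∈ ⋃ c : Φ.F, interior (Kc T J c)
  · obtain ⟨c, hc⟩ := mem_iUnion.1 h
    exact Or.inr (mem_iUnion.2 ⟨c, interior_subset hc⟩)
  · exact Or.inl h

/-- **the boundary of a core** -/
theorem mem_X0_iff (hLa : IsOpen La) (hC : Mbf_337.Cores Φ T f κ1 κ2 X J0 J V ct A lam z θ φ)
    {c : Φ.F} {x : E3} (hx : x ∈ Kc T J c) : x ∈ X0 T J ↔ x ∈ frontier (Kc T J c) := by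
  have hcl : IsClosed (Kc T J c) := (Kc_compact hC c).isClosed
  rw [hcl.frontier_eq]
  constructor
  · intro h
    exact ⟨hx, fun h' => h (mem_iUnion.2 ⟨c, h'⟩)⟩
  · rintro ⟨-, h⟩ h'
    obtain ⟨c', hc'⟩ := mem_iUnion.1 h'
    by_cases he : c' = c
    · subst he; exact h hc'
    · exact disjoint_left.1 (Kc_disj hLa hC he) (interior_subset hc') hx

/-- the clause `bd` of `Giants.trn` -/
theorem bd_ball (hLa : IsOpen La) (hC : Mbf_337.Cores Φ T f κ1 κ2 X J0 J V ct A lam z θ φ)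
    {c : Φ.F} {x : E3} (hx : x ∈ Kc T J c) (hx0 : x ∈ X0 T J) :
    ∀ ε > (0:ℝ), ∃ w ∈ ball x ε, w ∉ Kc T J c := by
  intro ε hε
  have h1 := (mem_X0_iff hLa hC hx).1 hx0
  rw [frontier_eq_closure_inter_closure] at h1
  obtain ⟨w, hw1, hw2⟩ := Metric.mem_closure_iff.1 h1.2 ε hε
  exact ⟨w, by rw [mem_ball, dist_comm]; exact hw2, hw1⟩

/-- the frontier of a core is in `X0` -/
theorem frontier_sub (hLa : IsOpen La) (hC : Mbf_337.Cores Φ T f κ1 κ2 X J0 J V ct A lam z θ φ)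
    (c : Φ.F) : frontier (Kc T J c) ⊆ X0 T J ∩ Kc T J c := fun x hx => by
  have h1 := (Kc_compact hC c).isClosed.frontier_subset hx
  exact ⟨(mem_X0_iff hLa hC h1).2 hx, h1⟩

/-- a tile which is in no core has no point in an open core -/
theorem tile_sub_X0 {i : ι} (hi : ∀ c : Φ.F, i ∉ J c) : P (T.H i) ⊆ X0 T J := by
  intro x hx h
  obtain ⟨c, hc⟩ := mem_iUnion.1 h
  exact Nr_527.not_mem_interior_KJ (hi c) hx hc

/-- **`Om ∩ X0` is covered by the other tiles and the boundaries of the cores** -/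
theorem X0_cov (hLa : IsOpen La) (hC : Mbf_337.Cores Φ T f κ1 κ2 X J0 J V ct A lam z θ φ)
    {x : E3} (hx : x ∈ Om) (hx0 : x ∈ X0 (Φ := Φ) T J) :
    ∃ i, (∀ c : Φ.F, i ∉ J c) ∧ x ∈ P (T.H i) := by
  by_contra hcon
  push Not at hcon
  -- all the tiles through `x` are in cores, hence in one core `c`
  obtain ⟨i0, hi0⟩ := T.cov x hx
  have hall : ∀ i, x ∈ P (T.H i) → ∃ c : Φ.F, i ∈ J c := by
    intro i hi
    by_contra h
    push Not at h
    exact hcon i h hi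
  obtain ⟨c, hc⟩ := hall i0 hi0
  have hsame : ∀ i, x ∈ P (T.H i) → i ∈ J c := by
    intro i hi
    obtain ⟨c', hc'⟩ := hall i hi
    by_cases he : c = c'
    · subst he; exact hc'
    · exact absurd (mem_KJ.2 ⟨i, hc', hi⟩)
        (disjoint_left.1 (Kc_disj hLa hC he) (mem_KJ.2 ⟨i0, hc, hi0⟩))
  obtain ⟨r, hr, hsub, hat⟩ := T.exists_ball hx
  refine hx0 (mem_iUnion.2 ⟨c, mem_interior.2 ⟨ball x r, ?_, isOpen_ball, mem_ball_self hr⟩⟩)
  intro y hy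
  obtain ⟨j, hj⟩ := T.cov y (hsub hy)
  exact mem_KJ.2 ⟨j, hsame j (hat y hy hj), hj⟩

end Crest.Agent.R096.Gia_537
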