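import Crest.Agent.R096.Gia3_537
import Crest.Agent.R096.Bin9_181
import Crest.Agent.R096.Ecm4_446
import Crest.Agent.R096.Cog1_609

/-!
# R096 (row 96), GIANTS-INST, part 4 (helper537): the boundary map of a type R core

* `bdP_grid` : `Gia_537.bdP (grid ..) a = Bin_181.bdP P b m a`;
* `thP` : the exact map `th` as `PLEquiv (core tile) (P c)`, `thB` : on the boundaries;
* `eR` : `e = rcR ∘ th : PLEquiv (K_c ∩ X0) (bdP C c)` (181's real nodes) = the input `e` of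
  `coreTh_R`;
* `ThR` : `R ∘ th` for a PL homeomorphism `R` of the brick which is `rcR` on the boundary.
-/

set_option autoImplicit false
set_option linter.unusedSectionVars false
set_option linter.unusedVariables false
set_option linter.deprecated false
set_option linter.style.longLine false

open Set Filter Topology Metric Module

namespace Crest.Agent.R096.Gia_537

open Crest.Agent.R096.Ce_537 (PLOn PLEquiv cube sph IsBall Cplx)
open Crest.Agent.R096.Bd_416 Crest.Agent.R096.Mg_441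
open Crest.Agent.R096.Brk1_582 Crest.Agent.R096.Brk2_582 Crest.Agent.R096.Brk3_582
open Crest.Agent.R096.Brk5_582 Crest.Agent.R096.Brk6_582
open Crest.Agent.R096.Bsp_628
open Crest.Agent.R096.Grd_714
open Crest.Agent.R096.Xp_537
open Crest.Agent.R096.SkC1_961 (E3 Hom3 FoamD Cfg th NN)
open Crest.Agent.R096.Msh_715
open Crest.Agent.R96.Push_899
open Crest.Agent.R096.Mbf_337 (KJ)
open Crest.Agent.R096.Nr_527

section grid

variable {E : Type*} [NormedAddCommGroup E] [NormedSpace ℝ E] [CompleteSpace E] {I : Type*}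
  {P : I → Set E} {b : Set I → E} {m : I → ℕ} {La : Set E}

/-- the two boundaries of a brick -/
theorem bdP_grid (F : Foam La P b 4) (hQ : Quads P b) (hne : ∀ c, (P c).Nonempty)
    (hm : ∀ c, 0 < m c) (a : I) : bdP (grid F hQ hne hm) a = Bin_181.bdP P b m a := by
  rw [Bin_181.bdP_eq F hQ hm]
  ext y
  constructor
  · rintro ⟨q, hq, hy⟩
    refine ⟨mem_P_of_gr F hQ hm hy hq, ?_⟩
    obtain ⟨c, c', hne', h1, h2⟩ := q.two
    by_cases h : c = a
    · exact ⟨c', fun h' => hne' (h.trans h'.symm), mem_P_of_gr F hQ hm hy h2⟩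
    · exact ⟨c, h, mem_P_of_gr F hQ hm hy h1⟩
  · rintro ⟨h0, c1, hne', h1⟩
    by_contra hcon
    have h2 : act P y = {a} := act_of_top F hQ hm h0 fun q hq hy => hcon ⟨q, hq, hy⟩
    have h3 : c1 ∈ act P y := h1
    rw [h2] at h3
    exact hne' h3

end grid

section core

variable {δ κ0 R c0 : ℝ} {La Om : Set E3} {ι : Type} {Φ : FoamD δ κ0 R c0 La}
  {T : Tiling Om ι} {f : E3 → E3} {κ1 κ2 : ℝ} {c : Φ.F} {i : ι} {A : E3 ≃ᵃ[ℝ] E3} {lam : ℝ} {z : E3}

open Crest.Agent.R096.Ecm_446 (th_mem th_inj th_surj)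

/-- the inverse of the exact map -/
noncomputable def thi (A : E3 ≃ᵃ[ℝ] E3) (lam : ℝ) (z y : E3) : E3 :=
  A.symm (fun k => z k + lam * y k)

theorem th_thi (hl : 0 < lam) (y : E3) : th A lam z (thi A lam z y) = y := by
  funext k
  unfold th thi
  rw [AffineEquiv.apply_symm_apply, add_sub_cancel_left, mul_div_cancel_left₀ _ hl.ne']

theorem thi_th (hl : 0 < lam) (x : E3) : thi A lam z (th A lam z x) = x := by
  unfold thi th
  have : (fun k => z k + lam * ((A x k - z k) / lam)) = A x := by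
    funext k
    rw [mul_div_cancel₀ _ hl.ne']
    ring
  rw [this, AffineEquiv.symm_apply_apply]

/-- the exact map is an affine homeomorphism -/
theorem exists_B (A : E3 ≃ᵃ[ℝ] E3) (hl : 0 < lam) (z : E3) :
    ∃ B : E3 ≃ᵃ[ℝ] E3, (∀ x, B x = th A lam z x) ∧ ∀ y, B.symm y = thi A lam z y := by
  obtain ⟨B, hB⟩ := Cog_609.exists_thE A hl z
  refine ⟨B, hB, fun y => ?_⟩
  rw [AffineEquiv.symm_apply_eq, hB, th_thi hl]

/-- **the exact map as PL homeomorphism of the core tile onto the brick** -/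
noncomputable def thP (hE : Mbf_337.Exact Φ T f κ1 κ2 c i A lam z) :
    PLEquiv (P (T.H i)) (Pc Φ.F c) where
  f := th A lam z
  g := thi A lam z
  pf := by
    obtain ⟨B, h1, h2⟩ := exists_B A hE.lam0 z
    exact (Ce_537.plOn_affine (B : E3 →ᵃ[ℝ] E3) _).congr fun x _ => (h1 x).symm
  pg := by
    obtain ⟨B, h1, h2⟩ := exists_B A hE.lam0 z
    exact (Ce_537.plOn_affine (B.symm : E3 →ᵃ[ℝ] E3) _).congr fun x _ => (h2 x).symm
  mf := fun x hx => (th_mem hE).1 hx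
  mg := fun y hy => (th_mem hE).2 (by rw [th_thi hE.lam0]; exact hy)
  li := fun x _ => thi_th hE.lam0 x
  ri := fun y _ => th_thi hE.lam0 y

@[simp] theorem thP_f (hE : Mbf_337.Exact Φ T f κ1 κ2 c i A lam z) : (thP hE).f = th A lam z := rfl
@[simp] theorem thP_g (hE : Mbf_337.Exact Φ T f κ1 κ2 c i A lam z) : (thP hE).g = thi A lam z := rfl

/-- the exact map and the boundaries -/
theorem th_frontier (hLa : IsOpen La) (hE : Mbf_337.Exact Φ T f κ1 κ2 c i A lam z) {m : Φ.F → ℕ}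
    (hm : ∀ a, 0 < m a) {x : E3} : x ∈ frontier (P (T.H i)) ↔
      th A lam z x ∈ Bin_181.bdP (Pc Φ.F) (bc (F := Φ.F)) m c := by
  obtain ⟨B, h1, h2⟩ := exists_B A hE.lam0 z
  have hBf : (B : E3 → E3) = th A lam z := funext h1
  have h3 : P (T.H i) = B ⁻¹' (Pc Φ.F c) := by
    ext x
    rw [mem_preimage, h1]
    exact th_mem hE
  rw [h3]
  have h4 : frontier (B ⁻¹' (Pc Φ.F c)) = B ⁻¹' (frontier (Pc Φ.F c)) :=
    (B.toContinuousAffineEquiv.toHomeomorph.preimage_frontier (Pc Φ.F c)).symm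
  rw [h4, mem_preimage, h1, Vb_965.frontier_cell (foam4 Φ hLa), Lset_zero (foam4 Φ hLa),
    Bin_181.bdP_eq (foam4 Φ hLa) (quads4 Φ) hm]

/-- **the exact map on the boundary** -/
noncomputable def thB (hLa : IsOpen La) (hE : Mbf_337.Exact Φ T f κ1 κ2 c i A lam z) {m : Φ.F → ℕ}
    (hm : ∀ a, 0 < m a) {S : Set E3} (hS : S = frontier (P (T.H i))) :
    PLEquiv S (Bin_181.bdP (Pc Φ.F) (bc (F := Φ.F)) m c) :=
  (thP hE).restr (by rw [hS]; exact (T.cpt i).isClosed.frontier_subset)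
    (by
      rw [Bin_181.bdP_eq (foam4 Φ hLa) (quads4 Φ) hm]
      exact fun y hy => hy.1)
    (fun x hx => by
      rw [hS] at hx
      exact (th_frontier hLa hE hm).1 hx)
    (fun y hy => by
      rw [hS]
      refine (th_frontier hLa hE hm).2 ?_
      rw [show th A lam z ((thP hE).g y) = y from th_thi hE.lam0 y]
      exact hy)

theorem thB_f (hLa : IsOpen La) (hE : Mbf_337.Exact Φ T f κ1 κ2 c i A lam z) {m : Φ.F → ℕ}
    (hm : ∀ a, 0 < m a) {S : Set E3} (hS : S = frontier (P (T.H i))) :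
    (thB hLa hE hm hS).f = th A lam z := rfl

theorem thB_g (hLa : IsOpen La) (hE : Mbf_337.Exact Φ T f κ1 κ2 c i A lam z) {m : Φ.F → ℕ}
    (hm : ∀ a, 0 < m a) {S : Set E3} (hS : S = frontier (P (T.H i))) :
    (thB hLa hE hm hS).g = thi A lam z := rfl

/-- change of the target by an equality -/
def castT {E F : Type*} [NormedAddCommGroup E] [NormedSpace ℝ E] [NormedAddCommGroup F]
    [NormedSpace ℝ F] {A : Set E} {B B' : Set F} (e : PLEquiv A B) (h : B = B') : PLEquiv A B' where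
  f := e.f
  g := e.g
  pf := e.pf
  pg := h ▸ e.pg
  mf := h ▸ e.mf
  mg := h ▸ e.mg
  li := e.li
  ri := h ▸ e.ri

variable {n : Φ.F → ℕ → ℝ} {m m' : Φ.F → ℕ} (hN : ∀ a, StrictMono (n a)) (hN0 : ∀ a, n a 0 = 0)
  (hNm : ∀ a, n a (m' a) = m a) (hm' : ∀ c, 0 < m' c) (hm : ∀ c, 0 < m c)

/-- **`e = rcR ∘ th`** on the boundary of a type R core -/
noncomputable def eR (hLa : IsOpen La) (hE : Mbf_337.Exact Φ T f κ1 κ2 c i A lam z) {S : Set E3}
    (hS : S = frontier (P (T.H i))) : PLEquiv S (bdP (grd Φ hLa hm) c) :=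
  castT ((thB hLa hE hm' hS).trans
    (Bin_181.rcR hN hN0 hNm (foam4 Φ hLa) (quads4 Φ) hm' hm c))
    (bdP_grid (foam4 Φ hLa) (quads4 Φ) (ne4 Φ) hm c).symm

theorem eR_f (hLa : IsOpen La) (hE : Mbf_337.Exact Φ T f κ1 κ2 c i A lam z) {S : Set E3}
    (hS : S = frontier (P (T.H i))) (x : E3) : (eR hN hN0 hNm hm' hm hLa hE hS).f x =
      (Bin_181.rcR hN hN0 hNm (foam4 Φ hLa) (quads4 Φ) hm' hm c).f (th A lam z x) := rfl

theorem eR_g (hLa : IsOpen La) (hE : Mbf_337.Exact Φ T f κ1 κ2 c i A lam z) {S : Set E3}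
    (hS : S = frontier (P (T.H i))) (y : E3) : (eR hN hN0 hNm hm' hm hLa hE hS).g y =
      thi A lam z ((Bin_181.rcR hN hN0 hNm (foam4 Φ hLa) (quads4 Φ) hm' hm c).g y) := rfl

/-- the structure `ekS` does not see the cast -/
theorem ekS_eR (hLa : IsOpen La) (hE : Mbf_337.Exact Φ T f κ1 κ2 c i A lam z) {S : Set E3}
    (hS : S = frontier (P (T.H i))) {Jf : Type} (κ0 : ℝ) (q : Cel (Pc Φ.F) m) (fa : Jf → Φ.F)
    (lv : Jf → ℕ) :
    Bin_181.ekS (grd Φ hLa hm) (bc (F := Φ.F)) κ0 q fa lv (eR hN hN0 hNm hm' hm hLa hE hS) =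
    Bin_181.ekS (grd Φ hLa hm) (bc (F := Φ.F)) κ0 q fa lv ((thB hLa hE hm' hS).trans
      (Bin_181.rcR hN hN0 hNm (foam4 Φ hLa) (quads4 Φ) hm' hm c)) := rfl

/-- **`Th = R ∘ th`** -/
noncomputable def ThR (hE : Mbf_337.Exact Φ T f κ1 κ2 c i A lam z)
    (R : PLEquiv (Pc Φ.F c) (Pc Φ.F c)) : PLEquiv (P (T.H i)) (Pc Φ.F c) := (thP hE).trans R

theorem ThR_he (hLa : IsOpen La) (hE : Mbf_337.Exact Φ T f κ1 κ2 c i A lam z) {S : Set E3}
    (hS : S = frontier (P (T.H i))) {R : PLEquiv (Pc Φ.F c) (Pc Φ.F c)}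
    (hR : ∀ y ∈ Bin_181.bdP (Pc Φ.F) (bc (F := Φ.F)) m' c, R.f y =
      (Bin_181.rcR hN hN0 hNm (foam4 Φ hLa) (quads4 Φ) hm' hm c).f y) :
    ∀ x ∈ S, (eR hN hN0 hNm hm' hm hLa hE hS).f x = (ThR hE R).f x := by
  intro x hx
  rw [eR_f]
  rw [hS] at hx
  exact (hR _ ((th_frontier hLa hE hm').1 hx)).symm

theorem ThR_hei (hLa : IsOpen La) (hE : Mbf_337.Exact Φ T f κ1 κ2 c i A lam z) {S : Set E3}
    (hS : S = frontier (P (T.H i))) {R : PLEquiv (Pc Φ.F c) (Pc Φ.F c)}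
    (hR : ∀ y ∈ Bin_181.bdP (Pc Φ.F) (bc (F := Φ.F)) m' c, R.f y =
      (Bin_181.rcR hN hN0 hNm (foam4 Φ hLa) (quads4 Φ) hm' hm c).f y) :
    ∀ y ∈ bdP (grd Φ hLa hm) c, (eR hN hN0 hNm hm' hm hLa hE hS).g y = (ThR hE R).g y := by
  intro y hy
  set rc := Bin_181.rcR hN hN0 hNm (foam4 Φ hLa) (quads4 Φ) hm' hm c with hrc
  have hy' : y ∈ Bin_181.bdP (Pc Φ.F) (bc (F := Φ.F)) m c := by
    rw [← bdP_grid (foam4 Φ hLa) (quads4 Φ) (ne4 Φ) hm c]; exact hy
  have h1 : rc.g y ∈ Bin_181.bdP (Pc Φ.F) (bc (F := Φ.F)) m' c := rc.mg hy'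
  have h2 : rc.g y ∈ Pc Φ.F c :=
    ((Set.ext_iff.1 (Bin_181.bdP_eq (foam4 Φ hLa) (quads4 Φ) hm') (rc.g y)).1 h1).1
  have h3 : R.f (rc.g y) = y := by rw [hR _ h1, rc.ri y hy']
  have h4 : R.g y = rc.g y := by rw [← h3, R.li _ h2, h3]
  rw [eR_g]
  show thi A lam z (rc.g y) = thi A lam z (R.g y)
  rw [h4]

end core

end Crest.Agent.R096.Gia_537
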