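import Crest.Agent.R096.Gia7_537
import Crest.Agent.R096.At14_241

/-!
# R096 (row 96), GIANTS-INST, part 8 (helper537): block (9) `tiny` over the seam `Front`

**`front_tiny`** = `tiny_front` with 241's `front_sq`.
-/

set_option autoImplicit false
set_option linter.unusedSectionVars false
set_option linter.unusedVariables false
set_option linter.style.longLine false

open Set Filter Topology Metric Module

namespace Crest.Agent.R096.Gia_537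

open Crest.Agent.R096.Ce_537 Crest.Agent.R096.Bd_416 Crest.Agent.R096.Mg_441
  Crest.Agent.R096.Xp_537 Crest.Agent.R096.Grd_714
open Crest.Agent.R096.St_147 Crest.Agent.R096.Seq_213 Crest.Agent.R096.Lm_117
open Crest.Agent.R096.Msh_715 Crest.Agent.R096.Cpo_642
open Crest.Agent.R096.Brk1_582 Crest.Agent.R096.Brk2_582 Crest.Agent.R096.Brk3_582
open Crest.Agent.R096.Brk5_582 Crest.Agent.R096.Bsp_628
open Crest.Agent.R096.Ac_117 Crest.Agent.R096.Frn_337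
open Crest.Agent.R096.Cp_298 Crest.Agent.R096.Gm_298 Crest.Agent.R096.Gl_422
open Crest.Agent.R096.SkB_662 Crest.Agent.R096.Shg_334
open Crest.Agent.R096.On_441 (Lf xlf)
open Crest.Agent.R096.Agl5_543 Crest.Agent.R096.Ori_543
open Crest.Agent.R096.Init_543 (JJ fr3)
open Crest.Agent.R096.SkC1_961 (E3 Hom3 FoamD Cfg th NN)
open Crest.Agent.R096.Mbf_337 (KJ sb)
open Crest.Agent.R096.Ar_241 (cod Tr0 SheetData Exact TopC)
open Crest.Agent.R096.Fin_147 (Xout XM Ktc gr)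
open Crest.Agent.R096.Shp_334 (OnMesh)

variable {δ κ0 R c0 : ℝ} {La Om : Set E3} {ι : Type}
variable {Φ : FoamD δ κ0 R c0 La} {T : Tiling Om ι} {X : Set Φ.F} {J0 Jt : Φ.F → Set ι}
  {ι3 : Type} {T3 : Tiling Om ι3} {KK : Ti X → Set E3} {c3 : ι → ι3}
variable {f : E3 → E3} {V : Φ.F → Set ι} {ct : Φ.F → ι} {κ1 κ2 : ℝ}
  {A : Φ.F → E3 ≃ᵃ[ℝ] E3} {lam : Φ.F → ℝ} {z : Φ.F → E3} {θ : Φ.F → E3 → E3} {φ : Φ.F → E3 → ℝ}
variable [Nonempty T3.Cell] {hH : ∀ k, CoreH T3 (KK k)}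
    {hdis : ∀ k k', k ≠ k' → Disjoint (KK k) (KK k')} {hne : ∃ c, OutK T3 KK c}
    {L : Φ.F → Finset ℝ} {Qd : Quads (ι3 ⊕ Ti X) Φ.F (Init_543.QK (Pc Φ.F))}
    {s₀ : GSt (mK fr3 hH hdis) (fun j : JJ Φ L => j.1)} {far₀ : JJ Φ L → Set E3}
    {Gc : Φ.F → Set E3} {Zc : Φ.F → Set (QK (belK T3 KK))}
    {lam₀ : JJ Φ L → QK (belK T3 KK) → ZMod 2} {v₀ v₁ : Φ.F → QK (belK T3 KK)}
    {κ : Φ.F → ℕ} {hfin : ∀ a, {j : JJ Φ L | j.1 = a}.Finite} {kap : Φ.F → ℕ}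
    {s : GSt (mK fr3 hH hdis) (fam' (fun j : JJ Φ L => j.1) (Rk κ kap))}
    {far : Nm' (fun j : JJ Φ L => j.1) (Rk κ kap) → Set E3} {β : E3 → E3}
    {lm : Nm' (fun j : JJ Φ L => j.1) (Rk κ kap) →
      {c : QK (belK T3 KK) // pO T3 KK c3 ct c} → ZMod 2}

/-- **BLOCK (9) over the seam `Front`: the literal hypothesis `tiny` of 147's `fin_stG`** -/
theorem front_tiny (hLa : IsOpen La) (hf : Hom3 f Om La) (hs : Nr_527.Small δ κ0 R κ1 κ2)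
    (hC : Mbf_337.Cores Φ T f κ1 κ2 X J0 Jt V ct A lam z θ φ)
    (hL : Lay Φ T X J0 Jt T3 KK c3)
    (hFr : Front T f J0 Jt V ct c3 hH hdis hne Qd s₀ far₀ Gc Zc lam₀ v₀ v₁)
    (hκ : ∀ m, {c | κ c ≤ m}.Finite)
    (hO : StO (Lp c3 ct hH hdis hne) (oriK fr3 hH hdis) (fun c => tauK T3 KK c.1) (RelM T3)
      (lmK fr3 hH hdis hne).W1 Qd κ s₀ far₀ (fun c => {v | v.1 ∈ Zc c})
      (fun j v => lam₀ j v.1) (fun c => sv (pO T3 KK c3 ct) (pO_ne hne) (v₀ c))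
      (fun c => sv (pO T3 KK c3 ct) (pO_ne hne) (v₁ c)) hfin kap s far β lm)
    {hf1 : ∀ a, {j | hO.cmb.fam j = a}.Finite} (hm : ∀ a, 0 < Mg_441.mm hf1 a)
    (hnp : ∀ c : Φ.F, (Pc Φ.F c).Nonempty) (q0 : Cel (Pc Φ.F) (Mg_441.mm hf1))
    {Gf : Gd E3 (Nm' (fun j : JJ Φ L => j.1) (Rk κ kap))} {Pp : ∀ q, hO.cmb.I q → Set E3}
    {cc : ∀ q, hO.cmb.I q → E3 → ℝ}
    (H : Inv hO.cmb (fun q => setK T3 KK q.1) univ Gf Pp cc)
    (Xc : Cplx (Om ∩ Xout (Kcs T KK ct)) {c : QK (belK T3 KK) // pO T3 KK c3 ct c}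
      (fun c => dimK (belK T3 KK) (fun c => c.1.dim) c.1) (fun q => setK T3 KK q.1))
    {Rb : Set {c : QK (belK T3 KK) // pO T3 KK c3 ct c}}
    (hR : ∀ q ∈ Rb, dimK (belK T3 KK) (fun c => c.1.dim) q.1 ≤ 2)
    (MG : Mi_117.MGeo hO.lfs (Lf lm) (xlf hO.lab.lab) (fun q => setK T3 KK q.1) Rb cc)
    {κf : ℝ} (hκf : 0 < κf ∧ κf < 1) {a : Φ.F} (ha : a ∉ X) :
    ∃ Th : PLEquiv (Kcs T KK ct a) (coreF (gr Φ hLa hnp hm) κf (.top a) 0),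
      (∀ x ∈ Kcs T KK ct a, x ∈ frontier (Kcs T KK ct a) ↔
        sl (gr Φ hLa hnp hm) κf (Th.f x) (.top a) = 0) ∧
      ∀ x ∈ frontier (Kcs T KK ct a),
        gG (Tq (bc (F := Φ.F)) (Mg_441.mm hf1)) (merge hf1 Gf) x =
          cG (gr Φ hLa hnp hm) κf Th.f x ∧
        gtop hm q0 (merge hf1 Gf) x = ctop (gr Φ hLa hnp hm) κf (.top a) Th.f x ∧
        ∀ u ∈ (gr Φ hLa hnp hm).cell (gtop hm q0 (merge hf1 Gf) x),
          gtr (co (Pc Φ.F) (bc (F := Φ.F)) (Mg_441.mm hf1)) (merge hf1 Gf) x u =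
            ctr (gr Φ hLa hnp hm) κf Th.f Th.g x u :=
  tiny_front hLa hf hs hC hL hFr hκ hO hm hnp q0 H MG.bls hκf ha
    (At_241.front_sq hFr hFr.actO (fun _ hc => Mi_117.Lay.keepX hL hC hc)
      (fun _ _ h => Kcs_disj hLa hC hL h) hκ hO H Xc hR MG hLa hm hnp a)

end Crest.Agent.R096.Gia_537
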