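import Crest.Agent.R096.Gin1_635
import Crest.Agent.R096.Bmd5_798

/-!
Row 96 (S0127), NO0 for `p ≥ 3` (helper635): **798's structure `GenN` for `fN`** (`ExBlkN`, Bmd5_798) from the
blocks `(Q0 j).tr (w0 j)`, the good sets and the energies.

* **`cfN`** : `Cores` and `Fine` for every admissible mesh over `M` (maps `trA (trA (A0 c) (w0 c)) (v c)`);
* **`genN_of`**.
-/

set_option autoImplicit false
set_option linter.unusedSectionVars false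
set_option linter.style.longLine false
set_option linter.unusedVariables false

open Set Filter Topology Metric MeasureTheory
open scoped ENNReal

namespace Crest.Agent.R096.Gin_635

open Crest.Agent.R096.Bsp_628 Crest.Agent.R096.Brk1_582
open Crest.Agent.R096.Bxs_627 (zz ctr cb CoriE)
open Crest.Agent.R096.Brk3_582 Crest.Agent.R096.Brk5_582 Crest.Agent.R096.Core_124
open Crest.Agent.R096.Msh_715 Crest.Agent.R096.Ls_222 Crest.Agent.R96.Sg1_199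
open Crest.Agent.R096.SkC1_961 (E3 FoamD Hom3 th)
open Crest.Agent.R096.Mbf_337 (sb Cores Exact Words Fine)
open Crest.Agent.R096.EaX_766 (lin cbx)
open Crest.Agent.R096.Exa_365 (GoodW)
open Crest.Agent.R096.Mal_874 Crest.Agent.R096.Msh_810
open Crest.Agent.R96.Pm_199 (Dec)
open Crest.Agent.R096.Fns_360 Crest.Agent.R096.Mdd_360
open Crest.Agent.R096.Wd_120 (CoreAt)
open Crest.Agent.R096.Bxc1_635 Crest.Agent.R096.Fnn_635 Crest.Agent.R096.Bpn_635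
open Crest.Agent.R96.Eam_466 (FineX FineT TLAt)
open Crest.Agent.R096.Pgn_112 (ZD WordsOk)
open Crest.Agent.R096.Gno_324 (cap capD)
open Crest.Agent.R096.Bmd_798 (UX ctu Av GenN)

noncomputable section

variable {La Om : Set E3} {f : E3 → E3} {F : Set (Bx (Fin 3))} {δ κ0 R c0 : ℝ}

/-- **`Cores` and `Fine` over `fN`**, blocks `(Q0 c).tr (w0 c)`, all bricks -/
theorem cfN (hLa : IsOpen La) (hδ : 0 < δ) (hR : 0 < R)
    (bf : BoxFoam La F δ κ0) (cmp : Cmp F R) (hκ0 : 1 ≤ κ0) (hc : 0 < c0)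
    (hc2 : c0 * (8 * κ0) ≤ 1) (lam : F → ℝ) (hl : ∀ c, 0 < lam c) (hl4 : ∀ c, lam c ≤ 1 / 4)
    {lam0 : ℝ} (h00 : 0 < lam0) (hl0 : ∀ c, lam0 ≤ lam c)
    {κ1f κ2f τ1 τ κ1 κ2 η : ℝ} (hκ1 : 0 ≤ κ1f) (hτ1 : 0 ≤ τ1) (hτ : 0 ≤ τ)
    (h2 : κ2f ≤ 1 / 4) (hκ8 : (κ1f + τ1 + τ) * κ0 ≤ 1 / 8)
    (hκ12 : (κ1f + τ1 + τ) * κ0 ≤ κ2f - τ1 - τ) (n3 : κ1f + τ1 + τ ≤ κ1)
    (n4 : κ2 ≤ κ2f - τ1 - τ)
    {A0 : F → E3 ≃ᵃ[ℝ] E3} (hcor : ∀ c, CoriE Om f (A0 c) c.1 (lam c) κ1f κ2f)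
    (M : MD E3 3 (UX F)) (hφ : M.φ = ContinuousLinearEquiv.refl ℝ E3)
    (hOmM : M.φ ⁻¹' M.D0.Om = Om)
    {Q0 : UX F → CB E3 3} {w0 : F → E3} (hMQ : M.Q = fun c => (Q0 c).tr (w0 c.1))
    (hK : ∀ c : UX F, (Q0 c).Kc = A0 c ⁻¹' cbx c.1.1 (lam c))
    (hw : ∀ c : F, ‖(A0 c).linear (w0 c)‖ ≤ τ1 * (lam c * c.1.sz) ∧
      ∀ k, |(A0 c).linear (w0 c) k| ≤ τ1 * (lam c * c.1.side k))
    (hroom : ∀ c : UX F, cthickening (M.r c) (M.Q c).N ⊆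
      A0 c ⁻¹' cbx c.1.1 ((1 + 2 * κ2f) * lam c))
    (hsm : ∀ (c : UX F) (v : E3), ‖v‖ ≤ M.r c → ‖(A0 c).linear v‖ ≤ τ * (lam c * c.1.1.sz) ∧
      ∀ k, |(A0 c).linear v k| ≤ τ * (lam c * c.1.1.side k))
    (Y : RD M) {uA : UX F → ℝ} (huA0 : ∀ c, 0 ≤ uA c)
    (huA : ∀ (c : UX F), ∀ x y, ‖A0 c y - A0 c x‖ ≤ uA c * dist ((Q0 c).ψ x) ((Q0 c).ψ y))
    (hη : ∀ c : UX F, uA c * (Y.R c / 2 ^ (Q0 c).kc) ≤ η * c.1.1.sz)
    (hε : KIT δ κ0 R c0 lam0 * (η + 2 * (κ1f + τ1 + τ)) ≤ κ1)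
    (hF : ∀ y ∈ Om, FineS (fN bf cmp hκ0 hc hc2 lam hl hl4) f κ1
      (closedBall y (M.D0.ρ y) ∩ (Om ∩ offO f (O34 lam))))
    {k : UX F → ℕ} (hk : M.Sc k) (a : Fin 3 → ℝ) {v : UX F → E3} (hv : M.Adm v) :
    Cores (fN bf cmp hκ0 hc hc2 lam hl hl4) (M.mesh hk a hv) f κ1 κ2 univ
      (fun b => {ctu M hk a hv b}) (fun b => {ctu M hk a hv b}) (fun b => {ctu M hk a hv b})
      (ctu M hk a hv) (Av (fun c => trA (A0 c) (w0 c)) v) lam (fun c => zz c.1 (lam c))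
      (fun _ x => x) (fun _ _ => 0) ∧
    Fine (fN bf cmp hκ0 hc hc2 lam hl hl4) (M.mesh hk a hv) f κ1
      (fun b => {ctu M hk a hv b}) := by
  have hX : ∀ c : F, c ∈ (univ : Set F) := fun c => mem_univ c
  have h := exfineN hX hLa hδ hR bf cmp hκ0 hc hc2 lam hl hl4 h00 hl0 hκ1 hτ1 hτ h2 hκ8 hκ12 n3 n4
    hcor M hφ hOmM (w0 := fun c => w0 c.1) hMQ hK (fun c => hw c.1) hroom hsm Y huA0 huA hη hε
    (x := (ZD0 hX).x) (Rz := (ZD0 hX).R) hF hk a hv (ct0 := ctu M hk a hv) (fun c => rfl)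
  refine ⟨?_, ?_⟩
  · exact
      { disj := by
          intro c c' hcc
          rw [disjoint_singleton]
          intro e
          have h1 := (Sigma.mk.inj_iff.1 (Sum.inr_injective e)).1
          exact hcc (congrArg Subtype.val h1)
        one := fun _ _ => ⟨rfl, rfl, rfl⟩
        exact_ := fun c _ => h.1 ⟨c, mem_univ c⟩
        tiny := fun c hcc => absurd (mem_univ c) hcc }
  · have h2 : ∀ i, (∀ c : F, i ∉ ({ctu M hk a hv c} : Set _)) →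
        FineT (fN bf cmp hκ0 hc hc2 lam hl hl4) (M.mesh hk a hv) f κ1 i := by
      intro i hi
      exact h.2 i (fun c _ hic => hi c (by rw [mem_singleton_iff]; exact hic))
        (fun c => (c.2 (hX c.1)).elim)
    exact
      { psi := fun i hi x hx y hy c hcx => (h2 i hi x hx y hy c).1 hcx
        lev := fun i hi x hx y hy c => (h2 i hi x hx y hy c).2 }

/-- **798's `GenN` for `fN`**, all bricks exact, blocks `(Q0 c).tr (w0 c)`; the good shifts `s ∈ Gd c` are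
those with `GoodW` at the total shift `w0 c + s` and the block energy `en`. -/
theorem genN_of {δ κ0 R : ℝ} (hδ : 0 < δ) (hκ0 : 1 ≤ κ0) (hR : 1 ≤ R) {κp lam0 : ℝ} (hκp : 0 < κp)
    (h00 : 0 < lam0) (Mx : ℕ) :
    ∃ κw : ℝ, 0 < κw ∧ ∀ (La Om : Set E3), IsOpen La → ∀ (F : Set (Bx (Fin 3)))
      (bf : BoxFoam La F δ κ0) (cmp : Cmp F R) (c0 : ℝ) (hc : 0 < c0) (hc2 : c0 * (8 * κ0) ≤ 1)
      (lam : F → ℝ) (hl : ∀ c, 0 < lam c) (hl4 : ∀ c, lam c ≤ 1 / 4), (∀ c, lam0 ≤ lam c) →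
      ∀ (f : E3 → E3) (p : ℝ), 1 ≤ p → ContinuousOn f Om →
      ∀ (Df : E3 → E3 →L[ℝ] E3) (κ1f κ2f τ1 τ κ1 κ2 η : ℝ), 0 ≤ κ1f → 0 ≤ τ1 → 0 ≤ τ →
      κ2f ≤ 1 / 4 → (κ1f + τ1 + τ) * κ0 ≤ 1 / 8 → (κ1f + τ1 + τ) * κ0 ≤ κ2f - τ1 - τ →
      κ1f + τ1 + τ ≤ κ1 → κ2 ≤ κ2f - τ1 - τ → 0 ≤ κ2 → κ1f + τ1 + τ ≤ κw →
      KIT δ κ0 R c0 lam0 * (η + 2 * (κ1f + τ1 + τ)) ≤ κ1 →
      ∀ (A0 : F → E3 ≃ᵃ[ℝ] E3), (∀ c, CoriE Om f (A0 c) c.1 (lam c) κ1f κ2f) →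
      ∀ (M : MD E3 3 (UX F)), M.φ = ContinuousLinearEquiv.refl ℝ E3 → M.φ ⁻¹' M.D0.Om = Om →
      ∀ (Q0 : UX F → CB E3 3) (kb : UX F → ℕ) (hkb : ∀ c, (Q0 c).kc ≤ kb c) (w0 : F → E3),
      M.Q = (fun c => (Q0 c).tr (w0 c.1)) →
      (∀ c : UX F, (Q0 c).Kc = A0 c ⁻¹' cbx c.1.1 (lam c)) →
      (∀ c : F, ‖(A0 c).linear (w0 c)‖ ≤ τ1 * (lam c * c.1.sz) ∧
        ∀ k, |(A0 c).linear (w0 c) k| ≤ τ1 * (lam c * c.1.side k)) →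
      (∀ c : UX F, cthickening (M.r c) (M.Q c).N ⊆
        A0 c ⁻¹' cbx c.1.1 ((1 + 2 * κ2f) * lam c)) →
      (∀ (c : UX F) (v : E3), ‖v‖ ≤ M.r c → ‖(A0 c).linear v‖ ≤ τ * (lam c * c.1.1.sz) ∧
        ∀ k, |(A0 c).linear v k| ≤ τ * (lam c * c.1.1.side k)) →
      ∀ (Y : RD M) (uA : UX F → ℝ), (∀ c, 0 ≤ uA c) →
      (∀ (c : UX F), ∀ x y, ‖A0 c y - A0 c x‖ ≤ uA c * dist ((Q0 c).ψ x) ((Q0 c).ψ y)) →
      (∀ c : UX F, uA c * (Y.R c / 2 ^ (Q0 c).kc) ≤ η * c.1.1.sz) →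
      (∀ y ∈ Om, FineS (fN bf cmp hκ0 hc hc2 lam hl hl4) f κ1
        (closedBall y (M.D0.ρ y) ∩ (Om ∩ offO f (O34 lam)))) →
      ∀ (Mc : F → ℕ) (ηw : ℝ≥0∞), (∀ c : UX F, Mc c ≤ Mx) →
      (∀ c : UX F, 0 < Mc c ∧ ∀ x ∈ (Q0 c).Kc,
        x ∉ I (((Q0 c).T (kb c) (hkb c)).H ((Q0 c).cix (kb c) (hkb c))) →
        ((Q0 c).T (kb c) (hkb c)).cc x = {y | y ∈ (Q0 c).Kc ∧ ∀ a : F,
          (⌊Mc c * sc (Pc F) (bc (F := F)) (th (A0 c) (lam c) (zz c.1.1 (lam c)) x) a⌋₊ : ℝ) ≤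
            Mc c * sc (Pc F) (bc (F := F)) (th (A0 c) (lam c) (zz c.1.1 (lam c)) y) a ∧
          Mc c * sc (Pc F) (bc (F := F)) (th (A0 c) (lam c) (zz c.1.1 (lam c)) y) a ≤
            ⌈Mc c * sc (Pc F) (bc (F := F)) (th (A0 c) (lam c) (zz c.1.1 (lam c)) x) a⌉₊} ∧
        ((Q0 c).T (kb c) (hkb c)).dim x = {a : F |
          ⌊Mc c * sc (Pc F) (bc (F := F)) (th (A0 c) (lam c) (zz c.1.1 (lam c)) x) a⌋₊ <
          ⌈Mc c * sc (Pc F) (bc (F := F)) (th (A0 c) (lam c) (zz c.1.1 (lam c)) x) a⌉₊}.ncard) →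
      ηw ≠ ∞ → (ηw ^ (1 / p)).toReal ≤ κw →
      ∀ (D' : E3 → E3 →L[ℝ] E3) (k0 : UX F → ℕ) (hk0 : ∀ j, (M.Q j).kc ≤ k0 j) (κr : UX F → ℕ)
      (Gd : UX F → Set E3) (B : UX F → ℝ≥0∞) (B0 : ℕ) (R0 : ℝ),
      (∀ j x, ‖(M.Q j).ψ x‖ ≤ ‖x‖) → (∀ j, Y.B j ≤ B0) → (∀ j, Y.R j ≤ R0) →
      (∀ j m, ∃ c : ℤ, 2 ^ κr j * (Y.d j : ℝ) * (M.Q j).a' m = c) →
      (∀ j, Gd j ⊆ Mfa_880.BxM M j) → (∀ j, MeasurableSet (Gd j)) → (∀ j, volume (Gd j) ≠ 0) →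
      (∀ c : UX F, ∀ s ∈ Gd c, GoodW p Om f Df (A0 c)
        (fun e : {e // e ∈ eIn ((Q0 c).T (kb c) (hkb c)) ((Q0 c).cix (kb c) (hkb c))} => ea e.1)
        (fun e => ev e.1) ηw (w0 c + s)) →
      (∀ j, ∀ s ∈ Gd j, ∑' c, (Mfa_880.QU M Y k0 hk0 j).EnC (Pmc_112.Gd' D') p c s ≤ B j) →
      GenN (fN bf cmp hκ0 hc hc2 lam hl hl4) Om f D' p κp κ1 κ2 (fun c => trA (A0 c) (w0 c)) lam
        (fun c => zz c.1 (lam c)) Mc B0 R0 M Y k0 hk0 κr Gd B := by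
  obtain ⟨κw, hκw, H⟩ := wordsN hδ hκ0 hR hκp h00 Mx
  refine ⟨κw, hκw, ?_⟩
  intro La Om hLa F bf cmp c0 hc hc2 lam hl hl4 hl0 f p hp hf Df κ1f κ2f τ1 τ κ1 κ2 η hκ1f hτ1
    hτ h2 hκ8 hκ12 n3 n4 hκ2 n5 hε A0 hcor M hφ hOmM Q0 kb hkb w0 hMQ hK hw hroom hsm Y uA huA0 huA
    hη hF Mc ηw hMx hgrid hη1 hη2 D' k0 hk0 κr Gd B B0 R0 hψ hbB hbR h0 hGd hGm hG0 hgood hen
  have hX : ∀ c : F, c ∈ (univ : Set F) := fun c => mem_univ c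
  have hsum : τ1 + τ ≤ κ2f := by
    have : 0 ≤ (κ1f + τ1 + τ) * κ0 := by positivity
    linarith
  have hvr : ∀ (v : UX F → E3), (∀ j, v j ∈ Gd j) → ∀ j, ‖v j‖ ≤ M.r j := by
    intro v hv j
    have h1 : ‖M.φ (v j)‖ ≤ M.r j := hGd j (hv j)
    rw [hφ] at h1
    exact h1
  exact
    { φ := hφ
      hOm := hOmM
      ψ1 := hψ
      bB := hbB
      bR := hbR
      h0 := h0
      Gds := hGd
      Gdm := hGm
      Gd0 := hG0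
      cf := by
        intro cc hcc k hk a v hv _
        have hOm' : (cap M cc hcc).φ ⁻¹' (cap M cc hcc).D0.Om = Om := by
          have h3 : (cap M cc hcc).D0.Om = M.D0.Om := Gno_324.capD_Om M.D0 cc hcc
          rw [h3]
          exact hOmM
        exact cfN hLa hδ (by linarith : (0:ℝ) < R) bf cmp hκ0 hc hc2 lam hl hl4 h00 hl0 hκ1f hτ1 hτ
          h2 hκ8 hκ12 n3 n4 hcor (cap M cc hcc) hφ hOm' hMQ hK hw hroom hsm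
          (Szn_849.rdCap M hcc Y) huA0 huA hη hε (fun y hy => (hF y hy).mono
            (inter_subset_inter_left _ (closedBall_subset_closedBall (min_le_left _ _)))) hk a hv
      words := by
        intro v hv Om' hOm' D0 hC hD
        subst hOm'
        exact H La _ hLa F bf cmp c0 hc hc2 lam hl hl4 hl0 univ hX f p hp hf Df κ1f κ2f τ1 τ κ1 κ2
          n5 hsum hκ2 A0 hcor Q0 kb hkb (fun c => w0 c.1) (fun c => Mc c) ηw hMx hK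
          (fun c => hw c.1) hgrid hη1 hη2 v (fun c => hsm c (v c) (hvr v hv c))
          (fun c => hgood c (v c) (hv c)) D0 hC (fun c => by
            have h1 := hD c
            rw [hMQ] at h1
            exact h1)
      en := hen }

end

end Crest.Agent.R096.Gin_635
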