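import Crest.Agent.R096.Gin2_635
import Crest.Agent.R096.Mdd15_360
import Crest.Agent.R096.Eds6_746

/-!
Row 96 (S0127), NO0 for `p ≥ 3` (helper635): **field `words` of 798's `GenN` for `ΦN`**, from 360's `BlkXi`, the
small translations and 365's `GoodW` on all edges `EB` of the blocks.
-/

set_option autoImplicit false
set_option linter.unusedSectionVars false
set_option linter.style.longLine false
set_option linter.unusedVariables false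

open Set Filter Topology Metric MeasureTheory
open scoped ENNReal

namespace Crest.Agent.R096.Gin_635

open Crest.Agent.R096.Bsp_628 Crest.Agent.R096.Brk1_582
open Crest.Agent.R096.Bxs_627 (zz ctr cb CoriE)
open Crest.Agent.R096.Brk3_582 Crest.Agent.R096.Brk5_582 Crest.Agent.R096.Core_124
open Crest.Agent.R096.Msh_715 Crest.Agent.R096.Ls_222 Crest.Agent.R96.Sg1_199
open Crest.Agent.R096.SkC1_961 (E3 FoamD Hom3 th)
open Crest.Agent.R096.Mbf_337 (sb Cores Exact Words Fine)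
open Crest.Agent.R096.EaX_766 (lin cbx)
open Crest.Agent.R096.Exa_365 (GoodW)
open Crest.Agent.R096.Mal_874 Crest.Agent.R096.Msh_810
open Crest.Agent.R96.Pm_199 (Dec)
open Crest.Agent.R096.Fns_360 Crest.Agent.R096.Mdd_360
open Crest.Agent.R096.Wd_120 (CoreAt)
open Crest.Agent.R096.Bxc1_635 Crest.Agent.R096.Fnn_635 Crest.Agent.R096.Bpn_635
open Crest.Agent.R096.Pgn_112 (WordsOk)
open Crest.Agent.R096.Bmd_798 (UX ctu Av GenN)
open Crest.Agent.R096.Dic6_582 (dF kF dF_pos)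
open Crest.Agent.R096.Np_962 (ΦN Md cN_pos cN_le kF_one)
open Crest.Agent.R096.Npr_582 (cN)
open Crest.Agent.R096.Eds_746 (EB core_sub_EB goodW_comp)

noncomputable section

/-- **field `words` of `GenN` for `ΦN`**: `κw` depends on `q, κp, lam0, m`; `w0` = pre-translations, `v` = room
shifts, `GoodW` on all edges `EB` of the original blocks at the TOTAL shift `w0 c + v c`. -/
theorem wordsGN {q : ℕ} (hq : 1 ≤ q) {κp lam0 : ℝ} (hκp : 0 < κp) (h00 : 0 < lam0) {m : ℕ}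
    (hm : 0 < m) :
    ∃ κw : ℝ, 0 < κw ∧ ∀ (La Om : Set E3), IsOpen La → ∀ (F : Set (Bx (Fin 3)))
      (bf : BoxFoam La F (dF q) (kF q)) (cmp : Cmp F 6)
      (lam : F → ℝ) (hl : ∀ c, 0 < lam c) (hl4 : ∀ c, lam c ≤ 1 / 4), (∀ c, lam0 ≤ lam c) →
      ∀ (f : E3 → E3) (p : ℝ), 1 ≤ p → ContinuousOn f Om →
      ∀ (Df : E3 → E3 →L[ℝ] E3) (κ1f κ2f τ1 τ κ1 κ2 : ℝ), κ1f + τ1 + τ ≤ κw →
      τ1 + τ ≤ κ2f → 0 ≤ κ2 →
      ∀ (A : F → E3 ≃ᵃ[ℝ] E3), (∀ c, CoriE Om f (A c) c.1 (lam c) κ1f κ2f) →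
      ∀ (Bn Nb : ℕ) (R0 κ4 : ℝ) (i : F → ℕ) (Q0 : F → CB E3 3),
      (∀ c, BlkXi F Bn R0 m Nb κ4 (i c) c (A c) (lam c) (Q0 c)) →
      ∀ (kb : F → ℕ) (hkb : ∀ c, (Q0 c).kc ≤ kb c) (w0 : F → E3) (ηw : ℝ≥0∞),
      (∀ c : F, ‖(A c).linear (w0 c)‖ ≤ τ1 * (lam c * c.1.sz) ∧
        ∀ k, |(A c).linear (w0 c) k| ≤ τ1 * (lam c * c.1.side k)) →
      ηw ≠ ∞ → (ηw ^ (1 / p)).toReal ≤ κw →
      ∀ (M : MD E3 3 (UX F)), M.Q = (fun j => (Q0 j.1).tr (w0 j.1)) →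
      ∀ v : UX F → E3, (∀ j : UX F, ‖(A j.1).linear (v j)‖ ≤ τ * (lam j.1 * j.1.1.sz) ∧
        ∀ k, |(A j.1).linear (v j) k| ≤ τ * (lam j.1 * j.1.1.side k)) →
      (∀ j : UX F, GoodW p Om f Df (A j.1) (fun e : EB (Q0 j.1) (kb j.1) (hkb j.1) => ea e.1)
        (fun e => ev e.1) ηw (w0 j.1 + v j)) →
      ∀ Om' : Set E3, Om' = Om → ∀ D0 : Dec Om' (ΦN bf cmp lam hl hl4).F,
      Cores (ΦN bf cmp lam hl hl4) D0.T f κ1 κ2 univ D0.J0 D0.J D0.V D0.ct D0.A D0.lam D0.z D0.θ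
        D0.φ →
      (∀ c : UX F, D0.lam c.1 = lam c.1 ∧ D0.z c.1 = zz c.1.1 (lam c.1) ∧
        D0.A c.1 = trA (trA (A c.1) (w0 c.1)) (v c) ∧
        D0.M c.1 = m ∧ CoreAt D0.T (D0.ct c.1) ((M.Q c).tr (v c))) →
      WordsOk (ΦN bf cmp lam hl hl4) f κp (κp / 64) univ D0 := by
  obtain ⟨κw, hκw, H⟩ := wordsN (dF_pos hq) (kF_one q) (by norm_num : (1:ℝ) ≤ 6) hκp h00 m
  refine ⟨κw, hκw, ?_⟩
  intro La Om hLa F bf cmp lam hl hl4 hl0 f p hp hf Df κ1f κ2f τ1 τ κ1 κ2 n1 n2 hκ2 A hcor Bn Nb R0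
    κ4 i Q0 hQ kb hkb w0 ηw hw hη1 hη2 M hMQ v hv hgood Om' hOm' D0 hC hD
  subst hOm'
  refine H La _ hLa F bf cmp (cN q) (cN_pos q) (cN_le q) lam hl hl4 hl0 univ (fun c => mem_univ c) f
    p hp hf Df κ1f κ2f τ1 τ κ1 κ2 n1 n2 hκ2 A hcor (fun j => Q0 j.1) (fun j => kb j.1)
    (fun j => hkb j.1) (fun j => w0 j.1) (fun _ => m) ηw (fun _ => le_rfl) (fun j => (hQ j.1).Kc)
    (fun j => hw j.1) (fun j => ⟨hm, fun x hx hx' => (hQ j.1).grid (kb j.1) (hkb j.1) x hx hx'⟩)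
    hη1 hη2 v hv (fun j => ?_) D0 hC (fun j => ?_)
  · exact goodW_comp (hgood j) (fun e : {e // e ∈ eIn ((Q0 j.1).T (kb j.1) (hkb j.1))
      ((Q0 j.1).cix (kb j.1) (hkb j.1))} => (⟨e.1, core_sub_EB _ _ _ e.2⟩ : EB (Q0 j.1) (kb j.1) (hkb j.1)))
  · have h1 := hD j
    rw [hMQ] at h1
    exact h1

end

end Crest.Agent.R096.Gin_635
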