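import Crest.Agent.R096.Gl3_422

/-!
# R096 (row 96), LABK (helper422), part 1: the label data `LabIn` of a state from the pattern on the
boundary of ONE cell per family.

* `path_in_cell`   : two vertices of a cell are joined by 1-cells of the cell;
* `Fr0`            : frozen 1-cells of a family without points of the family;
* `LabIn.of_path`  : rope = (path in `Fr0`) + (path with known parities) + (path in `Fr0`);
* `LabIn.of_core`  : the middle part runs on the boundary of a cell which is never active.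
-/

set_option autoImplicit false
set_option linter.unusedSectionVars false

open Set Relation

namespace Crest.Agent.R096.Gl_422

open Crest.Agent.R096.St_147 Crest.Agent.R096.Seq_213 Crest.Agent.R096.Seq_213.GSt
  Crest.Agent.R096.Lm_117 Crest.Agent.R096.Ac_117 Crest.Agent.R096.Cp_298

variable {ι Φ W Q : Type} [PartialOrder Q] {dim : Q → ℕ} {M : MeshC ι Φ W}
variable {J C K : Type} {fam : J → C} {L : LM M Q dim}

open Classical in
/-- two vertices of a cell are joined by 1-cells of the cell -/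
theorem path_in_cell (L : LM M Q dim) (c : Q) {v v' : Q} (hv : v ≤ c) (hv' : v' ≤ c)
    (h0 : dim v = 0) (h0' : dim v' = 0) : ReflTransGen (Ed L {e | e ≤ c}) v v' := by
  have h := L.conn c (fun x => if ReflTransGen (Ed L {e | e ≤ c}) v x then 1 else 0)
    (fun e he h1 => by
      have a1 : Ed L {e | e ≤ c} (L.en e false) (L.en e true) := ⟨e, he, h1, false, rfl, rfl⟩
      have a2 : Ed L {e | e ≤ c} (L.en e true) (L.en e false) := ⟨e, he, h1, true, rfl, rfl⟩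
      by_cases hx : ReflTransGen (Ed L {e | e ≤ c}) v (L.en e false)
      · rw [if_pos hx, if_pos (hx.tail a1)]
      · rw [if_neg hx, if_neg (fun h' => hx (h'.tail a2))]) v v' hv hv' h0 h0'
  by_contra hcon
  rw [if_pos ReflTransGen.refl, if_neg hcon] at h
  exact absurd h (by decide)

/-- the frozen 1-cells of the family `a` without points of `a` (`Fre` of 662) -/
def Fr0 (L : LM M Q dim) (Qd : Quads ι C K) (s₀ : GSt M fam) (a : C) : Set Q :=
  {e | FrE L Qd a e ∧ ∀ w ∈ s₀.P, fam (s₀.lab w) = a → w ∉ L.toSk.On1 e}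

theorem path_mono' {Z Z' : Set Q} (h : ∀ e ∈ Z, dim e = 1 → e ∈ Z') {v v' : Q}
    (hp : ReflTransGen (Ed L Z) v v') : ReflTransGen (Ed L Z') v v' := by
  induction hp with
  | refl => exact .refl
  | tail _ hs ih =>
    obtain ⟨e, a1, a2, a3⟩ := hs
    exact ih.tail ⟨e, h e a1 a2, a2, a3⟩

/-- a partial label and a label -/
theorem GLab.diff' {Y : Finset W} {lam φ : Q → ZMod 2} (h : GLab L Y lam) {Z : Set Q}
    (hφ : ∀ e ∈ Z, dim e = 1 → φ (L.en e false) + φ (L.en e true) = nW Y (L.On1 e))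
    {v v' : Q} (hp : ReflTransGen (Ed L Z) v v') : lam v + φ v = lam v' + φ v' := by
  induction hp with
  | refl => rfl
  | @tail a b _ hs ih =>
    obtain ⟨e, h1, h2, c, rfl, rfl⟩ := hs
    rw [ih]
    have e1 := h e h2
    have e2 := hφ e h1 h2
    have e4 : ∀ a b c d x : ZMod 2, a + b = x → c + d = x → a + c = b + d := by decide
    have e5 : ∀ a b c d x : ZMod 2, a + b = x → c + d = x → b + d = a + c := by decide
    cases c
    · exact e4 _ _ _ _ _ e1 e2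
    · exact e5 _ _ _ _ _ e1 e2

variable {Qd : Quads ι C K} {s₀ : GSt M fam} {G : C → Set W} {Z : C → Set Q} {v₀ v₁ : C → Q}

/-- **LABEL DATA FROM A ROPE WITH KNOWN PARITIES** -/
theorem LabIn.of_path (hW : ∀ w ∈ s₀.P, w ∈ L.W1) (has : ∀ j, HasLab L (G (fam j)) (Z (fam j)))
    (sat : ∀ j, ∀ w ∈ G (fam j), ∀ x ∈ L.W1, L.ed x = L.ed w → x ∈ G (fam j))
    (supp : ∀ w ∈ s₀.P, w ∈ G (fam (s₀.lab w)))
    (act : ∀ j k, Qd.In k (fam j) → ∀ w ∈ L.W1, Int M (Qd.Act k) w → w ∈ G (fam j))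
    (far : ∀ j, v₁ (fam j) ∈ Z (fam j)) {S : C → Set Q}
    (hS : ∀ j, ∀ e ∈ S (fam j), dim e = 1 → FrE L Qd (fam j) e) {u₀ u₁ : C → Q}
    (hp0 : ∀ j, ReflTransGen (Ed L (Fr0 L Qd s₀ (fam j))) (v₀ (fam j)) (u₀ (fam j)))
    (hm : ∀ j, ReflTransGen (Ed L (S (fam j))) (u₀ (fam j)) (u₁ (fam j)))
    (hp1 : ∀ j, ReflTransGen (Ed L (Fr0 L Qd s₀ (fam j))) (u₁ (fam j)) (v₁ (fam j)))
    (φ : J → Q → ZMod 2) (h1 : ∀ j, φ j (u₀ (fam j)) + φ j (u₁ (fam j)) = 1)
    (hφ : ∀ j, ∀ e ∈ S (fam j), dim e = 1 →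
      φ j (L.en e false) + φ j (L.en e true) = nW (gp s₀ j) (L.On1 e)) :
    ∃ lam₀, LabIn L Qd s₀ G Z lam₀ v₀ v₁ := by
  have hex : ∀ j : J, ∃ lam : Q → ZMod 2, GLab L (gp s₀ j) lam ∧ ∀ v ∈ Z (fam j), lam v = 0 := by
    intro j
    refine has j (gp s₀ j) (fun w hw => hW w (mem_gp.1 hw).1) (fun w hw => ?_) (gp_even s₀ j)
    obtain ⟨h2, h4⟩ := mem_gp.1 hw
    have h5 := supp w h2
    rwa [h4] at h5
  choose lam h2 h4 using hex
  have hno : ∀ j, ∀ e ∈ Fr0 L Qd s₀ (fam j), dim e = 1 → ∀ w ∈ gp s₀ j, w ∉ L.On1 e := by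
    rintro j e ⟨-, he⟩ - w hw
    obtain ⟨a1, a2⟩ := mem_gp.1 hw
    exact he w a1 (by rw [a2])
  refine ⟨lam, has, sat, supp, act, h2, ?_, ?_, far, ?_⟩
  · intro j
    have e1 := (h2 j).const (hno j) (hp0 j)
    have e2 := (h2 j).diff' (hφ j) (hm j)
    have e3 := (h2 j).const (hno j) (hp1 j)
    have e4 := h4 j _ (far j)
    have e5 := h1 j
    rw [e1]
    rw [e3, e4] at e2
    have key : ∀ a b c : ZMod 2, a + b = 0 + c → b + c = 1 → a = 1 := by decide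
    exact key _ _ _ e2 e5
  · intro j
    exact h4 j _ (far j)
  · intro j
    refine ((path_mono ?_ (hp0 j)).trans ?_).trans (path_mono ?_ (hp1 j))
    · exact fun e he => he.1
    · exact path_mono' (hS j) (hm j)
    · exact fun e he => he.1

/-- **LABEL DATA FROM THE PATTERN ON THE BOUNDARY OF ONE CELL PER FAMILY**: `ca a` is a cell with
tile `qa a` (giant core, core tile), never active -/
theorem LabIn.of_core (hW : ∀ w ∈ s₀.P, w ∈ L.W1)
    (has : ∀ j, HasLab L (G (fam j)) (Z (fam j)))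
    (sat : ∀ j, ∀ w ∈ G (fam j), ∀ x ∈ L.W1, L.ed x = L.ed w → x ∈ G (fam j))
    (supp : ∀ w ∈ s₀.P, w ∈ G (fam (s₀.lab w)))
    (act : ∀ j k, Qd.In k (fam j) → ∀ w ∈ L.W1, Int M (Qd.Act k) w → w ∈ G (fam j))
    (far : ∀ j, v₁ (fam j) ∈ Z (fam j)) (ca : C → Q) (qa : C → ι)
    (hcf : ∀ j, ∀ e ≤ ca (fam j), dim e = 1 → ∃ F, e ≤ L.cf F ∧ qa (fam j) ∈ M.side F)
    (hact : ∀ j k, Qd.In k (fam j) → qa (fam j) ∉ Qd.Act k) {u₀ u₁ : C → Q}
    (hu0 : ∀ j, u₀ (fam j) ≤ ca (fam j) ∧ dim (u₀ (fam j)) = 0)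
    (hu1 : ∀ j, u₁ (fam j) ≤ ca (fam j) ∧ dim (u₁ (fam j)) = 0)
    (hp0 : ∀ j, ReflTransGen (Ed L (Fr0 L Qd s₀ (fam j))) (v₀ (fam j)) (u₀ (fam j)))
    (hp1 : ∀ j, ReflTransGen (Ed L (Fr0 L Qd s₀ (fam j))) (u₁ (fam j)) (v₁ (fam j)))
    (φ : J → Q → ZMod 2) (h1 : ∀ j, φ j (u₀ (fam j)) + φ j (u₁ (fam j)) = 1)
    (hφ : ∀ j, ∀ e ≤ ca (fam j), dim e = 1 →
      φ j (L.en e false) + φ j (L.en e true) = nW (gp s₀ j) (L.On1 e)) :
    ∃ lam₀, LabIn L Qd s₀ G Z lam₀ v₀ v₁ := by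
  refine LabIn.of_path hW has sat supp act far (S := fun a => {e | e ≤ ca a}) ?_ hp0 ?_ hp1 φ h1
    (fun j e he h => hφ j e he h)
  · intro j e he hd k hk
    obtain ⟨F, h2, h4⟩ := hcf j e he hd
    exact ⟨F, h2, qa (fam j), h4, hact j k hk⟩
  · intro j
    exact path_in_cell L _ (hu0 j).1 (hu1 j).1 (hu0 j).2 (hu1 j).2

end Crest.Agent.R096.Gl_422
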