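import Crest.Agent.R096.Gk1_422
import Crest.Agent.R096.Gl7_422

/-!
# R096 (row 96), LABK (helper422), part 2: the parity of an exact level of a piecewise affine
function on a 1-cell of a tiling.
-/

set_option autoImplicit false
set_option linter.unusedSectionVars false

open Set Relation Module

namespace Crest.Agent.R096.Gl_422

open Crest.Agent.R096.St_147 Crest.Agent.R096.Lm_117 Crest.Agent.R096.Ac_117
  Crest.Agent.R096.Cp_298 Crest.Agent.R096.Msh_715 Crest.Agent.R096.Agl5_543
  Crest.Agent.R096.Ori_543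

variable {E : Type} [NormedAddCommGroup E] [NormedSpace ℝ E] [FiniteDimensional ℝ E]
variable {Om : Set E} {ι : Type} {T : Tiling Om ι} [Nonempty T.Cell]

/-- a point of a 1-cell which is not an end -/
theorem mem_W1_of_edge {e : T.Cell} (he : e.dim = 1) {w : E} (hw : w ∈ e.set)
    (h0 : w ≠ epE e false) (h1 : w ≠ epE e true) : w ∈ W1 T ∧ edC T w = e := by
  have hO := Crest.Agent.R096.Cm_117.cell_sub e hw
  obtain ⟨q1, q2, q3⟩ := ep_spec he
  have hcc : T.cc e.pt = segment ℝ (epE e false) (epE e true) := e.set_eq.symm.trans q2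
  have hw' : w ∈ T.cc e.pt := by rw [← e.set_eq]; exact hw
  have hle : T.dim w ≤ 1 := (T.dim_le hw').trans_eq he
  have hd : T.dim w = 1 := by
    rcases Nat.lt_or_ge (T.dim w) 1 with h | h
    · have h2 := T.vertex_of_edge e.pt_mem he hcc hw' (by omega)
      rcases h2 with h2 | h2
      · exact absurd h2 h0
      · exact absurd h2 h1
    · omega
  have hW : w ∈ W1 T := ⟨hO, hd⟩
  exact ⟨hW, (edC_eq hW he).2 hw⟩

theorem aff_line (g : E →ᵃ[ℝ] ℝ) (p q : E) (s : ℝ) :
    g (p + s • (q - p)) = g p + s * (g q - g p) := by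
  have h1 := AffineMap.apply_lineMap g p q s
  rw [AffineMap.lineMap_apply, AffineMap.lineMap_apply] at h1
  simp only [vsub_eq_sub, vadd_eq_add, smul_eq_mul] at h1
  rw [add_comm p, h1]; ring

/-- **parity of an exact level on a 1-cell** -/
theorem exact_parity {e : T.Cell} (he : e.dim = 1) {u : E → ℝ} {t : ℝ}
    (haff : ∃ g : E →ᵃ[ℝ] ℝ, EqOn u g e.set) (hne : ∀ b, u (epE e b) ≠ t) {Y : Finset E}
    (hY : ∀ w ∈ e.set, T.dim w = 1 → (w ∈ Y ↔ u w = t)) :
    ind (t < u (epE e false)) + ind (t < u (epE e true)) =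
      nW Y {w | w ∈ W1 T ∧ edC T w = e} := by
  classical
  obtain ⟨g, hg⟩ := haff
  obtain ⟨q1, q2, q3⟩ := ep_spec he
  set p := epE e false with hp
  set q := epE e true with hq
  have hup : u p = g p := hg (q3 false).2
  have huq : u q = g q := hg (q3 true).2
  have hnp := hne false
  have hnq := hne true
  rw [← hp, hup] at hnp
  rw [← hq, huq] at hnq
  rw [hup, huq]
  have hseg : ∀ w ∈ e.set, ∃ s ∈ Icc (0:ℝ) 1, w = p + s • (q - p) ∧
      u w = g p + s * (g q - g p) := by
    intro w hw
    have hw' := hw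
    rw [q2, segment_eq_image'] at hw'
    obtain ⟨s, hs, rfl⟩ := hw'
    exact ⟨s, hs, rfl, (hg hw).trans (aff_line g p q s)⟩
  by_cases hsame : (t < g p ↔ t < g q)
  · -- no point
    have h0 : ∀ w ∈ Y, w ∉ {w | w ∈ W1 T ∧ edC T w = e} := by
      rintro w hw ⟨h1, h2⟩
      have hwe : w ∈ e.set := (edC_eq h1 he).1 h2
      have hut := (hY w hwe h1.2).1 hw
      obtain ⟨s, hs, -, h5⟩ := hseg w hwe
      rw [h5] at hut
      obtain ⟨s0, s1⟩ := hs
      rcases lt_or_gt_of_ne hnp with h6 | h6
      · have h7 : g q < t := lt_of_le_of_ne (not_lt.1 (fun h => absurd (hsame.2 h) (not_lt.2 h6.le))) hnq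
        rcases le_total (g p) (g q) with h8 | h8
        · nlinarith [mul_nonneg (sub_nonneg.2 s1) (sub_nonneg.2 h8)]
        · nlinarith [mul_nonneg s0 (sub_nonneg.2 h8)]
      · have h7 : t < g q := hsame.1 h6
        rcases le_total (g p) (g q) with h8 | h8
        · nlinarith [mul_nonneg s0 (sub_nonneg.2 h8)]
        · nlinarith [mul_nonneg (sub_nonneg.2 s1) (sub_nonneg.2 h8)]
    rw [nW_empty h0, ind_congr hsame]
    exact CharTwo.add_self_eq_zero _
  · have hopp : (t < g p ↔ ¬ t < g q) := by tauto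
    rw [ind_add_not hopp]
    symm
    have hd : g q - g p ≠ 0 := by
      intro h
      have : g q = g p := by linarith
      rw [this] at hsame
      exact hsame Iff.rfl
    set s : ℝ := (t - g p) / (g q - g p) with hs
    have hst : s * (g q - g p) = t - g p := div_mul_cancel₀ _ hd
    have hs01 : 0 < s ∧ s < 1 := by
      by_cases h1 : t < g p
      · have h2 : g q < t := lt_of_le_of_ne (not_lt.1 (hopp.1 h1)) hnq
        have h3 : g q - g p < 0 := by linarith
        exact ⟨div_pos_of_neg_of_neg (by linarith) h3, by rw [hs, div_lt_one_of_neg h3]; linarith⟩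
      · have h2 : t < g q := by
          by_contra h
          exact h1 (hopp.2 h)
        have h1' : g p < t := lt_of_le_of_ne (not_lt.1 h1) hnp
        have h3 : 0 < g q - g p := by linarith
        exact ⟨div_pos (by linarith) h3, by rw [hs, div_lt_one h3]; linarith⟩
    set w : E := p + s • (q - p) with hw
    have hwe : w ∈ e.set := by
      rw [q2, segment_eq_image']
      exact ⟨s, ⟨hs01.1.le, hs01.2.le⟩, rfl⟩
    have huw : u w = t := by
      rw [hg hwe, hw, aff_line, hst]; ring
    have hwp : w ≠ p := by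
      intro h
      rw [h, hup] at huw
      exact hnp huw
    have hwq : w ≠ q := by
      intro h
      rw [h, huq] at huw
      exact hnq huw
    obtain ⟨m1, m2⟩ := mem_W1_of_edge he hwe hwp hwq
    refine nW_one (p := w) ((hY w hwe m1.2).2 huw) ⟨m1, m2⟩ ?_
    rintro x hx ⟨h1, h2⟩
    have hxe : x ∈ e.set := (edC_eq h1 he).1 h2
    have hut := (hY x hxe h1.2).1 hx
    obtain ⟨s', -, h4, h5⟩ := hseg x hxe
    have : s' = s := by
      have h6 : s' * (g q - g p) = s * (g q - g p) := by rw [hst]; linarith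
      exact mul_right_cancel₀ hd h6
    rw [h4, this]

end Crest.Agent.R096.Gl_422
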