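import Crest.Agent.R096.Gl11_422

/-!
# R096 (row 96), LABK (helper422), part 4: `LabIn` over `lmK` with a partial label `φ` on the boundary
of one core per family (exact pattern or exact word).
-/

set_option autoImplicit false
set_option linter.unusedSectionVars false

open Set Relation Module

namespace Crest.Agent.R096.Gl_422

open Crest.Agent.R096.St_147 Crest.Agent.R096.Seq_213 Crest.Agent.R096.Seq_213.GSt
  Crest.Agent.R096.Lm_117 Crest.Agent.R096.Ac_117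
  Crest.Agent.R096.Cp_298 Crest.Agent.R096.Msh_715 Crest.Agent.R096.Agl5_543
  Crest.Agent.R096.Ori_543 Crest.Agent.R096.Coh_184 Crest.Agent.R096.Gm_298

variable {E : Type} [NormedAddCommGroup E] [NormedSpace ℝ E] [FiniteDimensional ℝ E]
variable {Om : Set E} {ι : Type} {T : Tiling Om ι} {κ : Type} {Kc : κ → Set E} [Nonempty T.Cell]

/-- **parity of a level with an exact word on a 1-cell**: `s` = the exact level function, the points
of `Y` on the 1-cell are the points with `l = t` -/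
theorem word_parity {e : T.Cell} (he : e.dim = 1) {s l : E → ℝ} {t : ℝ} {Y : Finset E}
    (hl : ∀ b, l (epE e b) ≠ t)
    (h1 : (s (epE e false) < t ∧ t < s (epE e true)) ∨
      (s (epE e true) < t ∧ t < s (epE e false)) → ∃! y, y ∈ e.set ∧ l y = t)
    (h2 : ¬ ((s (epE e false) < t ∧ t < s (epE e true)) ∨
      (s (epE e true) < t ∧ t < s (epE e false))) → ∀ y ∈ e.set, l y ≠ t)
    (hs : ∀ b, s (epE e b) ≠ t)
    (hY : ∀ w ∈ e.set, T.dim w = 1 → (w ∈ Y ↔ l w = t)) :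
    ind (t < s (epE e false)) + ind (t < s (epE e true)) =
      nW Y {w | w ∈ W1 T ∧ edC T w = e} := by
  classical
  have hsf := hs false
  have hst := hs true
  by_cases hc : (s (epE e false) < t ∧ t < s (epE e true)) ∨
      (s (epE e true) < t ∧ t < s (epE e false))
  · obtain ⟨y, ⟨hye, hyt⟩, huniq⟩ := h1 hc
    have hopp : (t < s (epE e false) ↔ ¬ t < s (epE e true)) := by
      rcases hc with ⟨a1, a2⟩ | ⟨a1, a2⟩
      · exact ⟨fun h => absurd h (not_lt.2 a1.le), fun h => absurd a2 h⟩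
      · exact ⟨fun _ => not_lt.2 a1.le, fun _ => a2⟩
    rw [ind_add_not hopp]
    symm
    obtain ⟨m1, m2⟩ := mem_W1_of_edge he hye (fun h => hl false (h ▸ hyt))
      (fun h => hl true (h ▸ hyt))
    refine nW_one (p := y) ((hY y hye m1.2).2 hyt) ⟨m1, m2⟩ ?_
    rintro x hx ⟨a1, a2⟩
    have hxe : x ∈ e.set := (edC_eq a1 he).1 a2
    exact huniq x ⟨hxe, (hY x hxe a1.2).1 hx⟩
  · have hno := h2 hc
    have hsame : (t < s (epE e false) ↔ t < s (epE e true)) := by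
      constructor
      · intro h
        by_contra h'
        exact hc (Or.inr ⟨lt_of_le_of_ne (not_lt.1 h') hst, h⟩)
      · intro h
        by_contra h'
        exact hc (Or.inl ⟨lt_of_le_of_ne (not_lt.1 h') hsf, h⟩)
    rw [nW_empty, ind_congr hsame]
    · exact CharTwo.add_self_eq_zero _
    · rintro w hw ⟨a1, a2⟩
      have hwe : w ∈ e.set := (edC_eq a1 he).1 a2
      exact hno w hwe ((hY w hwe a1.2).1 hw)

variable {h3 : finrank ℝ E = 3} {hH : ∀ c, CoreH T (Kc c)}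
  {hdis : ∀ c c', c ≠ c' → Disjoint (Kc c) (Kc c')} {hne : ∃ c, OutK T Kc c}
variable {J C K : Type} {fam : J → C} {Qd : Quads (ι ⊕ κ) C K} {s₀ : GSt (mK h3 hH hdis) fam}

/-- the partial label as a function on the cells of `lmK` -/
noncomputable def exφ (T : Tiling Om ι) (Kc : κ → Set E) (φ : T.Cell → ZMod 2) :
    QK (belK T Kc) → ZMod 2
  | Sum.inl c => φ c.1
  | Sum.inr _ => 0

/-- **`LabIn` over `meshK` from bodies and a partial label on one core per family** -/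
theorem labIn_Kφ {G : C → Set E} {Z : C → Set (QK (belK T Kc))}
    {v₀ v₁ : C → QK (belK T Kc)} (hW : ∀ w ∈ s₀.P, w ∈ (lmK h3 hH hdis hne).W1)
    (has : ∀ j, HasLab (lmK h3 hH hdis hne) (G (fam j)) (Z (fam j)))
    (sat : ∀ j, ∀ w ∈ G (fam j), ∀ x ∈ (lmK h3 hH hdis hne).W1,
      (lmK h3 hH hdis hne).ed x = (lmK h3 hH hdis hne).ed w → x ∈ G (fam j))
    (supp : ∀ w ∈ s₀.P, w ∈ G (fam (s₀.lab w)))
    (act : ∀ j k, Qd.In k (fam j) → ∀ w ∈ (lmK h3 hH hdis hne).W1,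
      Int (mK h3 hH hdis) (Qd.Act k) w → w ∈ G (fam j))
    (far : ∀ j, v₁ (fam j) ∈ Z (fam j)) (kc : C → κ)
    (hact : ∀ j k, Qd.In k (fam j) → Sum.inr (kc (fam j)) ∉ Qd.Act k)
    (φ : J → T.Cell → ZMod 2)
    (hφ : ∀ j, ∀ e : T.Cell, e.dim = 1 → e.set ⊆ frontier (Kc (kc (fam j))) →
      φ j (enC e false) + φ j (enC e true) = nW (gp s₀ j) {w | w ∈ W1 T ∧ edC T w = e})
    (u₀ u₁ : C → T.Cell) (o₀ : ∀ a, OutK T Kc (u₀ a)) (o₁ : ∀ a, OutK T Kc (u₁ a))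
    (hu0 : ∀ j, (u₀ (fam j)).set ⊆ frontier (Kc (kc (fam j))) ∧ (u₀ (fam j)).dim = 0)
    (hu1 : ∀ j, (u₁ (fam j)).set ⊆ frontier (Kc (kc (fam j))) ∧ (u₁ (fam j)).dim = 0)
    (h1 : ∀ j, φ j (u₀ (fam j)) + φ j (u₁ (fam j)) = 1)
    (hp0 : ∀ j, ReflTransGen (Ed (lmK h3 hH hdis hne) (Fr0 (lmK h3 hH hdis hne) Qd s₀ (fam j)))
      (v₀ (fam j)) (oc (u₀ (fam j)) (o₀ _)))
    (hp1 : ∀ j, ReflTransGen (Ed (lmK h3 hH hdis hne) (Fr0 (lmK h3 hH hdis hne) Qd s₀ (fam j)))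
      (oc (u₁ (fam j)) (o₁ _)) (v₁ (fam j))) :
    ∃ lam₀, LabIn (lmK h3 hH hdis hne) Qd s₀ G Z lam₀ v₀ v₁ := by
  refine LabIn.of_core hW has sat supp act far (fun a => QK.k _ (kc a))
    (fun a => Sum.inr (kc a)) ?_ hact (u₀ := fun a => oc (u₀ a) (o₀ a))
    (u₁ := fun a => oc (u₁ a) (o₁ a)) ?_ ?_ hp0 hp1 (fun j => exφ T Kc (φ j)) h1 ?_
  · intro j e he hd
    obtain ⟨c, h, rfl, hcd, hc⟩ := le_giant he hd
    exact face_giant h hcd hc
  · exact fun j => ⟨(hu0 j).1, (hu0 j).2⟩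
  · exact fun j => ⟨(hu1 j).1, (hu1 j).2⟩
  · intro j e he hd
    obtain ⟨c, h, rfl, hcd, hc⟩ := le_giant he hd
    obtain ⟨o1, e1⟩ := en_K (h3 := h3) (hH := hH) (hdis := hdis) (hne := hne) h hcd false
    obtain ⟨o2, e2⟩ := en_K (h3 := h3) (hH := hH) (hdis := hdis) (hne := hne) h hcd true
    rw [e1, e2, on_K h]
    exact hφ j c hcd hc

/-- the same with the bodies `D a` -/
theorem labIn_KDφ (D : C → Set E) (hW : ∀ w ∈ s₀.P, w ∈ (lmK h3 hH hdis hne).W1)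
    (hD : ∀ j, IsCompact (D (fam j))) (hDO : ∀ j, D (fam j) ⊆ Om)
    (hfr : ∀ j, IsPreconnected (frontier (D (fam j)))) (htr : ∀ j, TrivF (ZMod 2) (D (fam j)))
    (supp : ∀ w ∈ s₀.P, (∀ q, w ∈ Msh_715.P (T.H q) →
      Msh_715.P (T.H q) ⊆ interior (D (fam (s₀.lab w)))) ∧
      ∀ c, w ∈ Kc c → Kc c ⊆ interior (D (fam (s₀.lab w))))
    (act : ∀ j k, Qd.In k (fam j) → Qd.Act k ⊆ AD T Kc (D (fam j)))
    {v₀ v₁ : C → QK (belK T Kc)} (far : ∀ j, v₁ (fam j) ∈ ZK T Kc (D (fam j))) (kc : C → κ)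
    (hact : ∀ j k, Qd.In k (fam j) → Sum.inr (kc (fam j)) ∉ Qd.Act k)
    (φ : J → T.Cell → ZMod 2)
    (hφ : ∀ j, ∀ e : T.Cell, e.dim = 1 → e.set ⊆ frontier (Kc (kc (fam j))) →
      φ j (enC e false) + φ j (enC e true) = nW (gp s₀ j) {w | w ∈ W1 T ∧ edC T w = e})
    (u₀ u₁ : C → T.Cell) (o₀ : ∀ a, OutK T Kc (u₀ a)) (o₁ : ∀ a, OutK T Kc (u₁ a))
    (hu0 : ∀ j, (u₀ (fam j)).set ⊆ frontier (Kc (kc (fam j))) ∧ (u₀ (fam j)).dim = 0)
    (hu1 : ∀ j, (u₁ (fam j)).set ⊆ frontier (Kc (kc (fam j))) ∧ (u₁ (fam j)).dim = 0)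
    (h1 : ∀ j, φ j (u₀ (fam j)) + φ j (u₁ (fam j)) = 1)
    (hp0 : ∀ j, ReflTransGen (Ed (lmK h3 hH hdis hne) (Fr0 (lmK h3 hH hdis hne) Qd s₀ (fam j)))
      (v₀ (fam j)) (oc (u₀ (fam j)) (o₀ _)))
    (hp1 : ∀ j, ReflTransGen (Ed (lmK h3 hH hdis hne) (Fr0 (lmK h3 hH hdis hne) Qd s₀ (fam j)))
      (oc (u₁ (fam j)) (o₁ _)) (v₁ (fam j))) :
    ∃ lam₀, LabIn (lmK h3 hH hdis hne) Qd s₀ (fun c => GD h3 hH hdis (D c))
      (fun c => ZK T Kc (D c)) lam₀ v₀ v₁ := by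
  refine labIn_Kφ hW (fun j => hasLab_K (hD j) (hDO j) (hfr j) (htr j))
    (fun j w hw x hx he => GD_satK hw hx he) (fun w hw => ?_)
    (fun j k hk w _ hi => GD_act (act j k hk) hi) far kc hact φ hφ u₀ u₁ o₀ o₁ hu0 hu1 h1 hp0 hp1
  exact GD_of (hne := hne) (hW w hw) (supp w hw).1 (supp w hw).2

end Crest.Agent.R096.Gl_422
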