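import Crest.Agent.R096.Gl9_422
import Crest.Agent.R096.Cp13_298
import Crest.Agent.R096.F2_422

/-!
# R096 (row 96), GLUE-STATE over a mesh with labels, part 10 (helper422): `state_final` for the mesh
of a tiling.
-/

set_option autoImplicit false
set_option linter.unusedSectionVars false

open Set Relation Module

namespace Crest.Agent.R096.Gl_422

open Crest.Agent.R096.St_147 Crest.Agent.R096.Seq_213 Crest.Agent.R096.Seq_213.GSt
  Crest.Agent.R096.Lm_117 Crest.Agent.R096.Ac_117 Crest.Agent.R096.Cp_298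
  Crest.Agent.R096.Msh_715 Crest.Agent.R096.Agl5_543 Crest.Agent.R096.Ori_543

variable {E : Type} [NormedAddCommGroup E] [NormedSpace ℝ E] [FiniteDimensional ℝ E]
variable {Om : Set E} {ι : Type} {T : Tiling Om ι} [Nonempty T.Cell]

/-- a point near a point of a 1-cell lies on the same 1-cell -/
theorem relM_ed {x w : E} (h : RelM T x w) (hw : w ∈ W1 T) : x ∈ W1 T ∧ edC T x = edC T w := by
  have hx : x ∈ W1 T := h.mem hw
  refine ⟨hx, ?_⟩
  rcases h with rfl | ⟨-, h⟩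
  · rfl
  · apply Tiling.Cell.ext
    rw [edC_set hx.1, edC_set hw.1]
    exact T.cc_eq_of_mem_oc hw.1 h

/-- **THE FINAL STATE WITH LABELS OVER A TILING** (from 543's initial state) -/
theorem state_final_T (h3 : finrank ℝ E = 3) {C K J : Type} {fam : J → C} (Qd : Quads ι C K)
    (κ : C → ℕ) (hκ : ∀ m, {k | dlt Qd κ k = m}.Finite) (s₀ : GSt (meshC T h3) fam)
    (far₀ : J → Set E) (h₀ : s₀.Inv Qd far₀) (hP₀ : ∀ w ∈ s₀.P, w ∈ Om ∧ T.dim w = 1)
    (hfin : ∀ F, (s₀.P ∩ (meshC T h3).On F).Finite) (hfam : ∀ a, {j | fam j = a}.Finite)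
    {D : C → Set E} {lam₀ : J → E → ZMod 2} {v₀ v₁ : C → E}
    (hL : Gs_422.LabIn Qd s₀ D lam₀ v₀ v₁) :
    ∃ (kap : C → ℕ), (∀ c, κ c ≤ kap c) ∧ (∀ c k, Qd.In k c → dlt Qd κ k ≤ kap c) ∧
      (∀ c, kap c = κ c ∨ ∃ k, Qd.In k c ∧ kap c = dlt Qd κ k) ∧
    ∃ (s : GSt (meshC T h3) (fam' fam (fun c => 2 ^ (kap c - κ c))))
      (far : Nm' fam (fun c => 2 ^ (kap c - κ c)) → Set E) (σ : E → ZMod 2) (β : E → E)
      (lam : Nm' fam (fun c => 2 ^ (kap c - κ c)) → T.Cell → ZMod 2),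
      s.Inv Qd far ∧ TS s (oriM h3) σ ∧
      (∀ j x, x ∈ far j → σ x = sgm (lmT T h3) (tauT T) s₀ (fun j v => lam₀ j v.pt) (β x)) ∧
      s.P ⊆ VM T ∧
      (∀ F, (s.P ∩ (meshC T h3).On F).Finite) ∧ LF (lmT T h3) s ∧
      Cps (oriM h3) Qd (RelM T) s₀ far₀ (sgm (lmT T h3) (tauT T) s₀ (fun j v => lam₀ j v.pt))
        (fun y : Nm' fam (fun c => 2 ^ (kap c - κ c)) => y.1) (fun y => (y.2 : ℕ)) s far β ∧
      (∀ A : Set E, (∀ x y, RelM T x y → (x ∈ A ↔ y ∈ A)) →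
        wsum s (wgt kap) A ≤ wsum s₀ (wgt κ) A) ∧
      (∀ (k : K) (i : Qd.Nm (fam' fam (fun c => 2 ^ (kap c - κ c))) k),
        (s.res Qd k i).Good (Qd.Act k) (s.farK Qd far k) ∧ NoClosed (s.res Qd k i) (Qd.Act k)) ∧
      LabOut (lmT T h3) Qd s (fun c => ZT T (D c))
        (fun y : Nm' fam (fun c => 2 ^ (kap c - κ c)) => y.1) (fun j v => lam₀ j v.pt)
        (fun c => edC T (v₀ c)) (fun c => edC T (v₁ c)) lam ∧
      ∀ y : Nm' fam (fun c => 2 ^ (kap c - κ c)),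
        rk (lmT T h3) s lam (fin_copies _ hfam) y =
          2 ^ (kap (fam y.1) - κ (fam y.1)) *
            rk (lmT T h3) s₀ (fun j v => lam₀ j v.pt) hfam y.1 + y.2 :=
  state_final (L := lmT T h3) (O := oriM h3) F_422.p3 (dirT h3) (hasParM h3) RelM.refl
    (fun _ _ _ => RelM.trans) (fun _ _ => RelM.mem) (fun _ h => h) (fun _ _ => relM_ed)
    fin_below_T (face_T h3) Qd κ hκ s₀ far₀ h₀ hP₀ hfin hfam
    (labIn_T h3 hP₀ hL)

end Crest.Agent.R096.Gl_422
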