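import Crest.Agent.R096.Gl5_422
import Crest.Agent.R096.Cp10_298

/-!
# R096 (row 96), GLUE-STATE over a mesh with labels, part 6 (helper422): the number of a sheet of the
final state of `wseq`: `rk (j, l) = R c * rk₀ j + l`.
-/

set_option autoImplicit false
set_option linter.unusedSectionVars false

open Set Relation

namespace Crest.Agent.R096.Gl_422

open Crest.Agent.R096.St_147 Crest.Agent.R096.Seq_213 Crest.Agent.R096.Seq_213.GSt
  Crest.Agent.R096.Lm_117 Crest.Agent.R096.Ac_117 Crest.Agent.R096.Cp_298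

variable {ι Φ W Q : Type} [PartialOrder Q] {dim : Q → ℕ} {M : MeshC ι Φ W}
variable {J C K : Type} {fam : J → C}

theorem fin_copies (R : C → ℕ) (hfin : ∀ a, {j | fam j = a}.Finite) :
    ∀ a, {y : Nm' fam R | fam' fam R y = a}.Finite := by
  intro a
  have h1 : ({j | fam j = a} ×ˢ (Finset.range (R a) : Set ℕ)).Finite :=
    (hfin a).prod (Finset.finite_toSet _)
  refine Finite.of_finite_image (f := nuF) (h1.subset ?_) (nuF_inj.injOn)
  rintro _ ⟨y, hy, rfl⟩
  refine ⟨hy, ?_⟩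
  rw [Finset.mem_coe, Finset.mem_range]
  have h2 : fam y.1 = a := hy
  rw [← h2]
  exact y.2.2

/-- **the number of a copy** -/
theorem rk_copies {L : LM M Q dim} {O : Ori M} {τ : Q → ZMod 2} {Qd : Quads ι C K}
    {Rel : W → W → Prop} {s₀ : GSt M fam} {far₀ : J → Set W} {R : C → ℕ}
    {s : GSt M (fam' fam R)} {far : Nm' fam R → Set W} {β : W → W} {lam₀ : J → Q → ZMod 2}
    {lam : Nm' fam R → Q → ZMod 2} {Z : C → Set Q} {v₀ v₁ : C → Q} (D : Dir L O τ)
    (h : Cps O Qd Rel s₀ far₀ (sgm L τ s₀ lam₀) (fun y : Nm' fam R => y.1)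
      (fun y => (y.2 : ℕ)) s far β)
    (hR : ∀ x w, Rel x w → w ∈ L.W1 → x ∈ L.W1 ∧ L.ed x = L.ed w)
    (hP0 : ∀ w ∈ s₀.P, w ∈ L.W1) (hface : ∀ w ∈ s₀.P, ∃ F, w ∈ M.On F)
    (hI₀ : s₀.Inv Qd far₀) (hI : s.Inv Qd far)
    (D1 : LabOut L Qd s Z (fun y : Nm' fam R => y.1) lam₀ v₀ v₁ lam)
    (hlb : ∀ j, Lbd L s₀ (fam j) lam₀ (v₀ (fam j)) (v₁ (fam j))) (hfin : ∀ a, {j | fam j = a}.Finite)
    (y : Nm' fam R) :
    rk L s lam (fin_copies R hfin) y = R (fam y.1) * rk L s₀ lam₀ hfin y.1 + y.2 := by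
  classical
  set A := (sib (fin_copies R hfin) y).filter (fun j' => j' ≠ y ∧ Ins L s lam y j') with hA
  set B := (sib hfin y.1).filter (fun j' => j' ≠ y.1 ∧ Ins L s₀ lam₀ y.1 j') with hB
  have eA : rk L s lam (fin_copies R hfin) y = A.card := by
    unfold rk ord
    rw [hA]
    congr
  have eB : rk L s₀ lam₀ hfin y.1 = B.card := by
    unfold rk ord
    rw [hB]
  rw [eA, eB]
  have hins : ∀ i : Nm' fam R, fam i.1 = fam y.1 → (i.1 ≠ y.1 →
      (Ins L s lam y i ↔ Ins L s₀ lam₀ y.1 i.1)) ∧ (i.1 = y.1 → (i.2 : ℕ) ≠ y.2 →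
      (Ins L s lam y i ↔ (i.2 : ℕ) < y.2)) := by
    intro i hi
    refine ⟨fun hne => ?_, fun he hm => ?_⟩
    · exact ins_other D h hR hP0 hface (fun _ => rfl) hI₀ hI D1
        (fun i => hlb i.1) (j := y) (j' := i) hi.symm
        (Ne.symm hne)
    · exact ins_same D h hR hP0 hface (fun _ => rfl) hI₀ hI D1
        (fun i => hlb i.1) (j := y) (j' := i) he.symm
        (Ne.symm hm)
  have e1 : A.image nuF = (B ×ˢ Finset.range (R (fam y.1))) ∪
      ({y.1} ×ˢ Finset.range (y.2 : ℕ)) := by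
    ext ⟨i, l⟩
    simp only [Finset.mem_image, Finset.mem_union, Finset.mem_product, Finset.mem_range,
      Finset.mem_singleton]
    constructor
    · rintro ⟨x, hx, hxe⟩
      obtain ⟨h1, h2, h3⟩ := Finset.mem_filter.1 hx
      have h4' : fam' fam R x = fam' fam R y := mem_sib.1 h1
      have h4 : fam x.1 = fam y.1 := h4'
      have e1 : x.1 = i := congrArg Prod.fst hxe
      have e2 : (x.2 : ℕ) = l := congrArg Prod.snd hxe
      by_cases hxy : x.1 = y.1
      · right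
        have hne : (x.2 : ℕ) ≠ y.2 := fun e => h2 (nm_ext hxy e)
        exact ⟨by rw [← e1, hxy], by rw [← e2]; exact ((hins x h4).2 hxy hne).1 h3⟩
      · left
        refine ⟨Finset.mem_filter.2 ⟨mem_sib.2 (by rw [← e1]; exact h4), by rw [← e1]; exact hxy,
          by rw [← e1]; exact ((hins x h4).1 hxy).1 h3⟩, ?_⟩
        rw [← e2, ← h4]
        exact x.2.2
    · rintro (⟨h1, h2⟩ | ⟨h1, h2⟩)
      · obtain ⟨h4, h5, h6⟩ := Finset.mem_filter.1 h1
        have h7 : fam i = fam y.1 := mem_sib.1 h4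
        refine ⟨⟨i, ⟨l, by rw [h7]; exact h2⟩⟩, Finset.mem_filter.2 ⟨mem_sib.2 h7, ?_, ?_⟩, rfl⟩
        · intro e
          exact h5 (congrArg Sigma.fst e)
        · exact ((hins ⟨i, ⟨l, by rw [h7]; exact h2⟩⟩ h7).1 h5).2 h6
      · subst h1
        have hl : l < R (fam y.1) := h2.trans y.2.2
        refine ⟨⟨y.1, ⟨l, hl⟩⟩, Finset.mem_filter.2 ⟨mem_sib.2 rfl, ?_, ?_⟩, rfl⟩
        · intro e
          have h4 : ((⟨y.1, ⟨l, hl⟩⟩ : Nm' fam R).2 : ℕ) = y.2 := by rw [e]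
          have h5 : l = (y.2 : ℕ) := h4
          omega
        · exact ((hins ⟨y.1, ⟨l, hl⟩⟩ rfl).2 rfl (by show l ≠ _; omega)).2 h2
  have e2 : A.card = (A.image nuF).card := (Finset.card_image_of_injective A nuF_inj).symm
  rw [e2, e1, Finset.card_union_of_disjoint, Finset.card_product, Finset.card_product,
    Finset.card_range, Finset.card_singleton, Finset.card_range, one_mul, mul_comm]
  rw [Finset.disjoint_left]
  rintro ⟨i, l⟩ h1 h2
  have h4 := (Finset.mem_filter.1 (Finset.mem_product.1 h1).1).2.1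
  exact h4 (Finset.mem_singleton.1 (Finset.mem_product.1 h2).1)

end Crest.Agent.R096.Gl_422
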