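import Crest.Agent.R096.Cm3_117
import Crest.Agent.R096.Shp2_334

/-!
# R096 (row 96), ARR-SH (helper334), part 3: `SH1` and `SConn` from the global state (`GSt.H1`,
`GSt.Conn` of helper213)

`Dic C s j` : dictionary between the pieces of a `Cmb` and the points, chords, tiles of a global
state over any mesh `M : MeshC ι Φ W`.

* `Dic.sh1 : s.H1 j → SH1 C j`, `Dic.sconn : s.Conn j → SConn C j`, `Dic.finite3`;
* `cmb_dic` : the dictionary for helper117's `cmb` over `meshC T h3`.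
-/

set_option autoImplicit false

open Set Metric Module

namespace Crest.Agent.R096.Shp_334

open Crest.Agent.R096.Bd_416 Crest.Agent.R096.Seq_213 Crest.Agent.R096.St_147

open scoped Classical

/-! ### the dictionary -/

section dic

variable {Q : Type} [PartialOrder Q] {dim : Q → ℕ} {J Fam : Type}
variable {ι Φ W : Type} {M : MeshC ι Φ W} {fam : J → Fam}

/-- dictionary between the pieces of the sheet `j` and the points, chords and tiles of the state -/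
structure Dic (C : Cmb Q dim J Fam) (s : GSt M fam) (j : J) where
  pt : Pce C j 1 → W
  inj : Function.Injective pt
  mem : ∀ a, pt a ∈ s.P ∧ s.lab (pt a) = j
  sur : ∀ w ∈ s.P, s.lab w = j → ∃ a, pt a = w
  /-- `y` is the chord `(F,w)` -/
  ch : Φ → W → Pce C j 2 → Prop
  ch_ex : ∀ F w, s.At F w → s.lab w = j → ∃ y, ch F w y
  ch_un : ∀ F w y y', ch F w y → ch F w y' → y = y'
  ch_sur : ∀ y, ∃ F w, s.At F w ∧ s.lab w = j ∧ ch F w y
  sub : ∀ F w y, s.At F w → s.lab w = j → ch F w y → ∀ a,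
    (Sub C a y ↔ pt a = w ∨ pt a = s.mu F w)
  /-- the tile piece `t` of the cell `q` contains the point `w` -/
  In : ι → W → Pce C j 3 → Prop
  in_un : ∀ q w t t', In q w t → In q w t' → t = t'
  tile : ∀ q F w y, q ∈ M.side F → s.At F w → s.lab w = j → ch F w y →
    ∃ t, In q w t ∧ In q (s.mu F w) t ∧ Sub C y t

namespace Dic

variable {C : Cmb Q dim J Fam} {s : GSt M fam} {j : J} (D : Dic C s j)
include D

lemma mu_j {F : Φ} {w : W} (h : s.At F w) (hj : s.lab w = j) :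
    s.mu F w ∈ s.P ∧ s.lab (s.mu F w) = j :=
  ⟨(s.mu_mem h.1 h.2).1, by rw [s.mu_lab h.1 h.2, hj]⟩

/-- the two ends of a chord -/
lemma ends {F : Φ} {w : W} {y : Pce C j 2} (h : s.At F w) (hj : s.lab w = j) (hy : D.ch F w y) :
    ∃ a b, D.pt a = w ∧ D.pt b = s.mu F w ∧ a ≠ b ∧ Sub C a y ∧ Sub C b y := by
  obtain ⟨a, ha⟩ := D.sur w h.1 hj
  obtain ⟨b, hb⟩ := D.sur _ (D.mu_j h hj).1 (D.mu_j h hj).2
  refine ⟨a, b, ha, hb, ?_, (D.sub F w y h hj hy a).2 (Or.inl ha),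
    (D.sub F w y h hj hy b).2 (Or.inr hb)⟩
  rintro rfl
  exact s.mu_ne h.1 h.2 (hb.symm.trans ha)

/-- **`H¹ = 0`** -/
theorem sh1 (h1 : s.H1 j) : SH1 C j := by
  intro κ' hκ'
  choose ψ' hψ' using hκ'
  let κ : Φ → W → ZMod 2 := fun F w => if h : ∃ y, D.ch F w y then κ' h.choose else 0
  have hκ : ∀ F w y, D.ch F w y → κ F w = κ' y := by
    intro F w y hy
    have h : ∃ y, D.ch F w y := ⟨y, hy⟩
    have e1 : κ F w = κ' h.choose := by simp only [κ]; rw [dif_pos h]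
    rw [e1, D.ch_un F w _ _ h.choose_spec hy]
  obtain ⟨Ψ, hΨ⟩ := h1 κ (by
    intro q
    let ψ : W → ZMod 2 := fun w => if h : ∃ ta : Pce C j 3 × Pce C j 1, D.In q w ta.1 ∧
      D.pt ta.2 = w then ψ' h.choose.1 h.choose.2 else 0
    have hψ : ∀ w t a, D.In q w t → D.pt a = w → ψ w = ψ' t a := by
      intro w t a ht ha
      have h : ∃ ta : Pce C j 3 × Pce C j 1, D.In q w ta.1 ∧ D.pt ta.2 = w := ⟨(t, a), ht, ha⟩
      have e1 : ψ w = ψ' h.choose.1 h.choose.2 := by simp only [ψ]; rw [dif_pos h]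
      rw [e1, D.in_un q w _ t h.choose_spec.1 ht, D.inj (h.choose_spec.2.trans ha.symm)]
    refine ⟨ψ, fun F w hq hAt hj => ?_⟩
    obtain ⟨y, hy⟩ := D.ch_ex F w hAt hj
    obtain ⟨t, ht1, ht2, hty⟩ := D.tile q F w y hq hAt hj hy
    obtain ⟨a, b, ha, hb, hab, hay, hby⟩ := D.ends hAt hj hy
    rw [hκ F w y hy, hψ w t a ht1 ha, hψ _ t b ht2 hb]
    exact hψ' t y hty a b hay hby hab)
  refine ⟨fun a => Ψ (D.pt a), fun y a b ha hb hab => ?_⟩
  obtain ⟨F, w, hAt, hj, hy⟩ := D.ch_sur y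
  have h2 := hΨ F w hAt hj
  rw [hκ F w y hy] at h2
  rw [h2]
  rcases (D.sub F w y hAt hj hy a).1 ha with ha | ha <;>
    rcases (D.sub F w y hAt hj hy b).1 hb with hb | hb
  · exact absurd (D.inj (ha.trans hb.symm)) hab
  · show _ = Ψ (D.pt a) + Ψ (D.pt b)
    rw [ha, hb]
  · show _ = Ψ (D.pt a) + Ψ (D.pt b)
    rw [ha, hb, add_comm]
  · exact absurd (D.inj (ha.trans hb.symm)) hab

/-- **connectedness** -/
theorem sconn (hc : s.Conn j) : SConn C j := by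
  obtain ⟨⟨w, hw, hwj⟩, hc⟩ := hc
  refine ⟨?_, ?_⟩
  · obtain ⟨a, -⟩ := D.sur w hw hwj
    exact ⟨a⟩
  · intro Z hZ a b haZ
    have h1 := hc {w | ∃ a ∈ Z, D.pt a = w} (by
      rintro F w ⟨a, haZ, ha⟩ hAt hj
      obtain ⟨y, hy⟩ := D.ch_ex F w hAt hj
      obtain ⟨a', b', ha', hb', hab, hay, hby⟩ := D.ends hAt hj hy
      have e : a = a' := D.inj (ha.trans ha'.symm)
      subst e
      exact ⟨b', hZ y a b' hay hby haZ, hb'⟩) (D.pt a) ⟨a, haZ, rfl⟩ (D.mem a).1 (D.mem a).2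
      (D.pt b) (D.mem b).1 (D.mem b).2
    obtain ⟨b', hb'Z, hb'⟩ := h1
    rw [← D.inj hb']
    exact hb'Z

/-- finitely many points -/
theorem finite1 : Finite (Pce C j 1) := by
  have h1 := s.fin (fam j)
  have h2 : {w | w ∈ s.P ∧ s.lab w = j}.Finite := h1.subset fun w hw => ⟨hw.1, by rw [hw.2]⟩
  have := h2.to_subtype
  exact Finite.of_injective (β := {w | w ∈ s.P ∧ s.lab w = j}) (fun a => ⟨D.pt a, D.mem a⟩)
    (fun a b hab => D.inj (congrArg Subtype.val hab))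

end Dic

end dic

/-- finitely many tiles -/
theorem finite3 {Q : Type} [PartialOrder Q] {dim : Q → ℕ} {J Fam : Type}
    {E : Type*} [NormedAddCommGroup E] [NormedSpace ℝ E]
    {C : Cmb Q dim J Fam} {K : Q → Set E} {g : Gd E J}
    {P : ∀ q, C.I q → Set E} {c : ∀ q, C.I q → E → ℝ} {Ω : Set E}
    (H : Inv C K univ g P c) (X : Crest.Agent.R096.Ce_537.Cplx Ω Q dim K) {j : J}
    (hB : Bls C K c j) [Finite (Pce C j 1)] : Finite (Pce C j 3) := by
  choose v hv using exists_sub_pt H X hB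
  have hfin : ∀ a : Pce C j 1, {t : Pce C j 3 | Sub C a t}.Finite := by
    intro a
    have h1 : {i | (K i ∩ {pt hB a}).Nonempty}.Finite :=
      X.finite_meet isCompact_singleton (singleton_subset_iff.2 (X.sub _ (pt_mem hB a).1))
    have h2 : (⋃ q ∈ {i | (K i ∩ {pt hB a}).Nonempty},
        ((fun x : C.I q => (⟨q, x⟩ : Σ e, C.I e)) '' univ)).Finite :=
      h1.biUnion fun q _ => finite_univ.image _
    refine Set.Finite.of_finite_image (f := fun y : Pce C j 3 => y.1) (h2.subset ?_)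
      (Subtype.val_injective.injOn)
    rintro _ ⟨y, ⟨hlt, -⟩, rfl⟩
    refine mem_biUnion (show y.1.1 ∈ {i | (K i ∩ {pt hB a}).Nonempty} from
      ⟨_, X.subset hlt.le (pt_mem hB a).1, rfl⟩) ⟨y.1.2, mem_univ _, rfl⟩
  have h3 : (univ : Set (Pce C j 3)) = ⋃ a : Pce C j 1, {t | Sub C a t} := by
    ext t
    simp only [mem_univ, mem_iUnion, true_iff]
    exact ⟨v t, hv t⟩
  have h4 : (univ : Set (Pce C j 3)).Finite := by
    rw [h3]
    exact Set.finite_iUnion hfin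
  exact finite_univ_iff.1 h4

/-! ### the dictionary for `cmb` -/

section cmb

open Crest.Agent.R096.Msh_715 Crest.Agent.R096.Agl5_543 Crest.Agent.R096.Cm_117
  Crest.Agent.R096.Lab_184 Crest.Agent.R096.Pat5_543 Crest.Agent.R096.Coh_184

variable {E : Type} [NormedAddCommGroup E] [NormedSpace ℝ E]
variable {Om : Set E} {ι : Type} {T : Tiling Om ι}
variable [FiniteDimensional ℝ E] {h3 : finrank ℝ E = 3} {J Fm : Type} {fam : J → Fm}
variable {s : GSt (meshC T h3) fam}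

/-- a cell is determined by a point of its own dimension -/
lemma cell_eq_of_dim {c : T.Cell} {w : E} (hw : w ∈ c.set) (hO : w ∈ Om) (hd : T.dim w = c.dim) :
    c = T.cl hO := by
  refine T.eq_cl hO ?_
  by_contra hn
  rw [c.set_eq] at hw
  have := T.dim_lt hw hn
  have h2 : T.dim c.pt = c.dim := rfl
  omega

/-- the cell of a tile -/
noncomputable def tcell (T : Tiling Om ι) (q : ι) : T.Cell :=
  T.cl (T.sub q (I_sub_P _ (T.ne q).choose_spec))

lemma tcell_set (q : ι) : (tcell T q).set = P (T.H q) := by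
  unfold tcell
  rw [T.cl_set, T.cc_eq_tile (T.ne q).choose_spec]

include h3 in
lemma tcell_dim (q : ι) : (tcell T q).dim = 3 := by
  unfold tcell
  rw [T.dim_cl]
  have h1 := (T.V_eq_top_iff (T.sub q (I_sub_P _ (T.ne q).choose_spec))).2
    ⟨q, (T.ne q).choose_spec⟩
  show finrank ℝ (T.V _) = 3
  rw [h1, finrank_top, h3]

lemma le_tcell {F : C2 T} {q : ι} (h : q ∈ F.side h3) : F.1 ≤ tcell T q := by
  rw [Tiling.Cell.le_def, tcell_set, F.1.set_eq]
  exact T.cc_sub_tile (C2.mem_side.1 h)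

lemma lt_tcell {F : C2 T} {q : ι} (h : q ∈ F.side h3) : F.1 < tcell T q := by
  refine lt_of_le_of_ne (le_tcell h) fun h' => ?_
  have h1 := F.2
  rw [h', tcell_dim (h3 := h3)] at h1
  norm_num at h1

/-- the pieces of a 2-cell are the chords -/
lemma piece_two {F : C2 T} {w w' : Pt s F.1}
    (h : (Quot.mk _ w : Pc s F.1) = Quot.mk _ w') : w'.1 = w.1 ∨ w'.1 = s.mu F w.1 := by
  let g : Pc s F.1 → Set E := Quot.lift (fun a => ({a.1, s.mu F a.1} : Set E)) (by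
    rintro a b ⟨F', hF', haF, hb⟩
    have hFF : F' = F := by
      apply Subtype.ext
      have h1 : F'.1 ≤ F.1 := hF'
      rcases h1.eq_or_lt with h2 | h2
      · exact h2
      · have h4 := dim_lt_cell h2
        rw [F'.2, F.2] at h4
        exact absurd h4 (lt_irrefl _)
    subst hFF
    have hmm := s.mu_mu a.2.1 (mem_On haF a.2.2.2)
    show ({a.1, s.mu F' a.1} : Set E) = {b.1, s.mu F' b.1}
    rw [hb, hmm]
    exact Set.pair_comm _ _)
  have h1 : ({w.1, s.mu F w.1} : Set E) = {w'.1, s.mu F w'.1} := congrArg g h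
  have h2 : w'.1 ∈ ({w.1, s.mu F w.1} : Set E) := by rw [h1]; exact Or.inl rfl
  exact h2

variable (h : LF s) (hon : ∀ w ∈ s.P, w ∈ Om ∧ T.dim w = 1) (Lam : J → E → ZMod 2)
  (hLam : ∀ j, ∀ e ∈ Om, T.dim e = 1 → ∀ a b, T.cc e = segment ℝ a b →
      Lam j a + Lam j b = (((gPts s j : Set E) ∩ T.cc e).ncard : ZMod 2)) (j : J)

lemma dim_le_set {c : T.Cell} {w : E} (hw : w ∈ c.set) : T.dim w ≤ c.dim := cell_dim_set c hw

/-- **the dictionary for helper117's `cmb`** -/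
noncomputable def cmb_dic : Dic (cmb h hon Lam hLam) s j where
  pt a := rep h (c := a.1.1) a.1.2
  inj := by
    rintro ⟨⟨e, x⟩, he, hx⟩ ⟨⟨e', x'⟩, he', hx'⟩ hab
    have h1 := rep_mem h (c := e) x
    have h2 := rep_mem h (c := e') x'
    have hab' : rep h (c := e) x = rep h (c := e') x' := hab
    rw [← hab'] at h2
    obtain ⟨g1, -⟩ := mem_pts.1 h1
    obtain ⟨g2, -⟩ := mem_pts.1 h2
    have hO := (hon _ g1.1).1
    have he0 : e.dim = 1 := he
    have he0' : e'.dim = 1 := he'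
    have e1 := cell_eq_of_dim g1.2.1 hO (by rw [g1.2.2, he0])
    have e2 := cell_eq_of_dim g2.2.1 hO (by rw [g2.2.2, he0'])
    have e3 : e = e' := e1.trans e2.symm
    subst e3
    have e4 : x = x' := pts_disj h1 h2
    subst e4
    rfl
  mem a := by
    obtain ⟨⟨e, x⟩, he, hx⟩ := a
    obtain ⟨g1, g2⟩ := mem_pts.1 (rep_mem h (c := e) x)
    refine ⟨g1.1, ?_⟩
    have h2 : pcol s e x = j := hx
    rw [← g2] at h2
    exact h2
  sur w hw hj := by
    obtain ⟨hO, hd⟩ := hon w hw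
    let W0 : Pt s (T.cl hO) := ⟨w, hw, T.self_mem_cc w, hd⟩
    refine ⟨⟨⟨T.cl hO, (Quot.mk _ W0 : Pc s (T.cl hO))⟩, (T.dim_cl hO).trans hd, hj⟩, ?_⟩
    exact pts_edge ((T.dim_cl hO).trans hd) (Quot.mk _ W0 : Pc s (T.cl hO)) (rep_mem h _)
      (mem_pts.2 ⟨W0.2, rfl⟩)
  ch F w y := ∃ h' : w ∈ s.P ∧ w ∈ F.1.set ∧ T.dim w = 1,
    y.1 = ⟨F.1, (Quot.mk _ ⟨w, h'⟩ : Pc s F.1)⟩
  ch_ex F w hAt hj := by
    have h' : w ∈ s.P ∧ w ∈ F.1.set ∧ T.dim w = 1 := ⟨hAt.1, hAt.2.1, hAt.2.2⟩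
    exact ⟨⟨⟨F.1, (Quot.mk _ ⟨w, h'⟩ : Pc s F.1)⟩, F.2, hj⟩, h', rfl⟩
  ch_un := by
    rintro F w y y' ⟨h1, e1⟩ ⟨h2, e2⟩
    exact Subtype.ext (e1.trans e2.symm)
  ch_sur := by
    rintro ⟨⟨c, x⟩, hc, hx⟩
    obtain ⟨w, rfl⟩ := Quot.exists_rep x
    refine ⟨⟨c, hc⟩, w.1, ⟨w.2.1, w.2.2.1, w.2.2.2⟩, hx, w.2, rfl⟩
  sub := by
    rintro F w ⟨⟨c, x⟩, hc, hx⟩ hAt hj ⟨h', e⟩ ⟨⟨e', u⟩, he', hu⟩
    obtain ⟨rfl, e⟩ := Sigma.mk.inj e
    have e := eq_of_heq e
    subst e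
    obtain ⟨u0, rfl⟩ := Quot.exists_rep u
    have hrep : rep h (c := e') (Quot.mk _ u0) = u0.1 :=
      pts_edge he' _ (rep_mem h _) (mem_pts.2 ⟨u0.2, rfl⟩)
    have hO := (hon _ u0.2.1).1
    constructor
    · rintro ⟨hlt, hup⟩
      have hup' : (Quot.mk _ (pin s (le_of_lt hlt) u0) : Pc s F.1) = Quot.mk _ ⟨w, h'⟩ := hup
      rcases piece_two hup'.symm with h2 | h2
      · left; exact hrep.trans h2
      · right; exact hrep.trans h2
    · intro h2
      have h2' : u0.1 = w ∨ u0.1 = s.mu F w := by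
        rcases h2 with h2 | h2
        · exact Or.inl (hrep.symm.trans h2)
        · exact Or.inr (hrep.symm.trans h2)
      have hmem : u0.1 ∈ F.1.set := by
        rcases h2' with h2 | h2
        · rw [h2]; exact h'.2.1
        · rw [h2]; exact (s.mu_mem hAt.1 hAt.2).2.1
      have hcell : e' = T.cl hO := cell_eq_of_dim u0.2.2.1 hO (by
        have : e'.dim = 1 := he'
        rw [this]; exact u0.2.2.2)
      have hle : e' ≤ F.1 := by
        rw [Tiling.Cell.le_def, hcell, T.cl_set]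
        exact cell_cc F.1 _ hmem
      have hlt : e' < F.1 := lt_of_le_of_ne hle (fun h4 => by
        have h5 : e'.dim = 1 := he'
        rw [h4, F.2] at h5
        norm_num at h5)
      refine ⟨hlt, ?_⟩
      show (Quot.mk _ (pin s (le_of_lt hlt) u0) : Pc s F.1) = Quot.mk _ ⟨w, h'⟩
      rcases h2' with h2 | h2
      · congr 1
        exact Subtype.ext h2
      · exact (Quot.sound ⟨F, Subset.refl _, h'.2.1, h2⟩).symm
  In q w t := t.1.1 = tcell T q ∧ w ∈ pts h t.1.1 t.1.2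
  in_un := by
    rintro q w ⟨⟨c, x⟩, hc, hx⟩ ⟨⟨c', x'⟩, hc', hx'⟩ ⟨h1, h2⟩ ⟨h1', h2'⟩
    obtain rfl : c = c' := h1.trans h1'.symm
    obtain rfl : x = x' := pts_disj h2 h2'
    rfl
  tile := by
    rintro q F w ⟨⟨c, x⟩, hc, hx⟩ hq hAt hj ⟨h', e⟩
    obtain ⟨rfl, e⟩ := Sigma.mk.inj e
    have e := eq_of_heq e
    subst e
    have hlt := lt_tcell (h3 := h3) hq
    have hm := s.mu_mem hAt.1 hAt.2
    let w0 : Pt s F.1 := ⟨w, h'⟩
    let w1 : Pt s F.1 := ⟨s.mu F w, hm.1, hm.2.1, hm.2.2⟩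
    have hrel : (Quot.mk _ w0 : Pc s F.1) = Quot.mk _ w1 :=
      Quot.sound ⟨F, Subset.refl _, h'.2.1, rfl⟩
    refine ⟨⟨⟨tcell T q, pup s hlt.le (Quot.mk _ w0)⟩, tcell_dim (h3 := h3) q, ?_⟩, ⟨rfl, ?_⟩,
      ⟨rfl, ?_⟩, hlt, rfl⟩
    · show pcol s _ (pup s hlt.le (Quot.mk _ w0)) = j
      rw [pcol_pup]; exact hx
    · exact (mem_pts_pup hlt.le h'.2.1).2 ⟨_, rfl, mem_pts.2 ⟨w0.2, rfl⟩⟩
    · refine (mem_pts_pup hlt.le hm.2.1).2 ⟨Quot.mk _ w1, ?_, mem_pts.2 ⟨w1.2, rfl⟩⟩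
      show pup s hlt.le (Quot.mk _ w1) = pup s hlt.le (Quot.mk _ w0)
      rw [hrel]

end cmb

end Crest.Agent.R096.Shp_334
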