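import Crest.Agent.R096.Lm7_117
import Crest.Agent.R096.Shp3_334

/-!
# R096 (row 96), LMesh, part 8: helper334's dictionary for the CMB of a labelled mesh (helper117)
-/

set_option autoImplicit false
set_option linter.unusedSectionVars false

open Set

namespace Crest.Agent.R096.Lm_117

open Crest.Agent.R096.St_147 Crest.Agent.R096.Ac_117 Crest.Agent.R096.Seq_213
open Crest.Agent.R096.Bd_416 (Cmb)
open Crest.Agent.R096.Shp_334 (Dic)

variable {ι Φ W Q J C : Type} {M : MeshC ι Φ W} [PartialOrder Q] {dim : Q → ℕ}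
variable {L : LM M Q dim} (X : Top3 L) {fam : J → C} {s : GSt M fam}

/-- a piece of a face is a chord -/
lemma piece_two {F : Φ} {w w' : Pt L s (L.cf F)}
    (h : (Quot.mk _ w : Pc L s (L.cf F)) = Quot.mk _ w') : w'.1 = w.1 ∨ w'.1 = s.mu F w.1 := by
  have hwF := on_of_in w.2.2
  refine quot_inv (L := L) (s := s) (c := L.cf F) (fun x => x = w.1 ∨ x = s.mu F w.1) ?_ h
    (Or.inl rfl)
  intro G hG u hu huG hh
  have hGF : G = F := L.cf_inj _ _ (eq_of_dim L.toSk hG (by rw [L.cf_dim, L.cf_dim]))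
  subst hGF
  rcases hh with rfl | rfl
  · exact Or.inr rfl
  · left
    exact s.mu_mu w.2.1 hwF

lemma ed_lt_cf {F : Φ} {w : W} (hw : w ∈ M.On F) : L.ed w < L.cf F := by
  have h1 := (L.on_iff F w).1 hw
  refine lt_of_le_of_ne h1.2 (fun h => ?_)
  have h2 := L.ed_dim w h1.1
  rw [h, L.cf_dim] at h2
  omega

variable (h : LF L s) (hon : ∀ w ∈ s.P, w ∈ L.W1) (Lam : J → Q → ZMod 2)
  (hLam : ∀ j c, L.toSk.XL (gP s j) (Lam j) c) (tc : ι → Q) (tc3 : ∀ q, dim (tc q) = 3)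
  (htc : ∀ q F, q ∈ M.side F → L.cf F ≤ tc q) (j : J)

/-- **the dictionary for `cmb` over a labelled mesh** -/
noncomputable def lm_dic : Dic (cmb h Lam hLam) s j where
  pt a := rep h (c := a.1.1) a.1.2
  inj := by
    rintro ⟨⟨e, x⟩, he, hx⟩ ⟨⟨e', x'⟩, he', hx'⟩ hab
    have hab' : rep h (c := e) x = rep h (c := e') x' := hab
    have h1 := (rep_on h (c := e) he x).2
    have h2 := (rep_on h (c := e') he' x').2
    rw [hab', h2] at h1
    subst h1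
    have e4 : x = x' := rep_inj h _ hab'
    subst e4
    rfl
  mem a := by
    obtain ⟨⟨e, x⟩, he, hx⟩ := a
    have h1 := rep_mem h (c := e) x
    refine ⟨(pts_in h1).1, ?_⟩
    have h2 : pcol L s e x = j := hx
    rw [pcol_pts h1] at h2
    exact h2
  sur w hw hj := by
    have hd := L.ed_dim w (hon w hw)
    let W0 : Pt L s (L.ed w) := ⟨w, hw, hon w hw, le_rfl⟩
    refine ⟨⟨⟨L.ed w, (Quot.mk _ W0 : Pc L s (L.ed w))⟩, hd, hj⟩, ?_⟩
    exact pts_edge hd (Quot.mk _ W0 : Pc L s (L.ed w)) (rep_mem h _)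
      (mem_pts.2 ⟨W0.2, rfl⟩)
  ch F w y := ∃ h' : w ∈ s.P ∧ w ∈ L.toSk.In (L.cf F),
    y.1 = ⟨L.cf F, (Quot.mk _ ⟨w, h'⟩ : Pc L s (L.cf F))⟩
  ch_ex F w hAt hj := by
    have h' : w ∈ s.P ∧ w ∈ L.toSk.In (L.cf F) := ⟨hAt.1, on_in le_rfl hAt.2⟩
    exact ⟨⟨⟨L.cf F, (Quot.mk _ ⟨w, h'⟩ : Pc L s (L.cf F))⟩, L.cf_dim F, hj⟩, h', rfl⟩
  ch_un := by
    rintro F w y y' ⟨h1, e1⟩ ⟨h2, e2⟩
    exact Subtype.ext (e1.trans e2.symm)
  ch_sur := by
    rintro ⟨⟨c, x⟩, hc, hx⟩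
    obtain ⟨F, rfl⟩ := X.cf_sur c hc
    obtain ⟨w, rfl⟩ := Quot.exists_rep x
    exact ⟨F, w.1, ⟨w.2.1, on_of_in w.2.2⟩, hx, w.2, rfl⟩
  sub := by
    rintro F w ⟨⟨c, x⟩, hc, hx⟩ hAt hj ⟨h', e⟩ ⟨⟨e', u⟩, he', hu⟩
    obtain ⟨rfl, e⟩ := Sigma.mk.inj e
    have e := eq_of_heq e
    subst e
    obtain ⟨u0, rfl⟩ := Quot.exists_rep u
    have hrep : rep h (c := e') (Quot.mk _ u0) = u0.1 :=
      pts_edge he' _ (rep_mem h _) (mem_pts.2 ⟨u0.2, rfl⟩)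
    constructor
    · rintro ⟨hlt, hup⟩
      have hup' : (Quot.mk _ (pin L s (le_of_lt hlt) u0) : Pc L s (L.cf F)) = Quot.mk _ ⟨w, h'⟩ :=
        hup
      rcases piece_two hup'.symm with h2 | h2
      · left; exact hrep.trans h2
      · right; exact hrep.trans h2
    · intro h2
      have h2' : u0.1 = w ∨ u0.1 = s.mu F w := by
        rcases h2 with h2 | h2
        · exact Or.inl (hrep.symm.trans h2)
        · exact Or.inr (hrep.symm.trans h2)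
      have hmem : u0.1 ∈ M.On F := by
        rcases h2' with h2 | h2
        · rw [h2]; exact hAt.2
        · rw [h2]; exact (s.mu_mem hAt.1 hAt.2).2
      have hed : L.ed u0.1 = e' := eq_of_dim L.toSk u0.2.2.2 (by
        rw [L.ed_dim _ u0.2.2.1]; exact he'.le)
      have hlt : e' < L.cf F := hed ▸ ed_lt_cf hmem
      refine ⟨hlt, ?_⟩
      show (Quot.mk _ (pin L s (le_of_lt hlt) u0) : Pc L s (L.cf F)) = Quot.mk _ ⟨w, h'⟩
      rcases h2' with h2 | h2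
      · congr 1
        exact Subtype.ext h2
      · exact (Quot.sound (r := Rel L s (L.cf F)) ⟨F, le_rfl, hAt.2, h2⟩).symm
  In q w t := t.1.1 = tc q ∧ w ∈ pts h t.1.1 t.1.2
  in_un := by
    rintro q w ⟨⟨c, x⟩, hc, hx⟩ ⟨⟨c', x'⟩, hc', hx'⟩ ⟨h1, h2⟩ ⟨h1', h2'⟩
    obtain rfl : c = c' := h1.trans h1'.symm
    obtain rfl : x = x' := pts_disj h2 h2'
    rfl
  tile := by
    rintro q F w ⟨⟨c, x⟩, hc, hx⟩ hq hAt hj ⟨h', e⟩
    obtain ⟨rfl, e⟩ := Sigma.mk.inj e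
    have e := eq_of_heq e
    subst e
    have hlt : L.cf F < tc q := lt_of_le_of_ne (htc q F hq) (fun h => by
      have h1 := L.cf_dim F
      rw [h, tc3] at h1
      omega)
    have hm := s.mu_mem hAt.1 hAt.2
    let w0 : Pt L s (L.cf F) := ⟨w, h'⟩
    let w1 : Pt L s (L.cf F) := ⟨s.mu F w, hm.1, on_in le_rfl hm.2⟩
    have hrel : (Quot.mk _ w0 : Pc L s (L.cf F)) = Quot.mk _ w1 :=
      Quot.sound (r := Rel L s (L.cf F)) ⟨F, le_rfl, hAt.2, rfl⟩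
    refine ⟨⟨⟨tc q, pup L s hlt.le (Quot.mk _ w0)⟩, tc3 q, ?_⟩, ⟨rfl, ?_⟩,
      ⟨rfl, ?_⟩, hlt, rfl⟩
    · exact (pcol_pup L s hlt.le (Quot.mk _ w0 : Pc L s (L.cf F))).trans hx
    · exact (mem_pts_pup hlt.le h'.2).2 ⟨_, rfl, mem_pts.2 ⟨w0.2, rfl⟩⟩
    · refine (mem_pts_pup hlt.le (on_in le_rfl hm.2)).2 ⟨Quot.mk _ w1, ?_, mem_pts.2 ⟨w1.2, rfl⟩⟩
      show pup L s hlt.le (Quot.mk _ w1) = pup L s hlt.le (Quot.mk _ w0)
      rw [hrel]

end Crest.Agent.R096.Lm_117
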