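import Crest.Agent.R096.On3_441
import Crest.Agent.R096.Gl6_422
import Crest.Agent.R096.Lm8_117
import Crest.Agent.R096.Cp10_298
import Crest.Agent.R096.Cp14_298
import Crest.Agent.R096.F2_422

/-!
# R096 (row 96), STATE HALF, cut 1 (helper662): the middle seam over a labelled mesh

`StI` : an initial state `s₀ : GSt M fam` with invariant, labels, weights over any `L : LM M Q dim`;
`StO` : the final state of 298's weighted sequence with everything which the placement consumes;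
`exists_out : StI → StO`.
-/

set_option autoImplicit false
set_option linter.style.longLine false
set_option linter.unusedSectionVars false

open Set Relation
open scoped ENNReal

namespace Crest.Agent.R096.SkB_662

open Crest.Agent.R096.St_147 Crest.Agent.R096.Seq_213 Crest.Agent.R096.Seq_213.GSt
  Crest.Agent.R096.Bd_416 Crest.Agent.R096.Mg_441 Crest.Agent.R096.Lm_117
  Crest.Agent.R096.Grd_714 Crest.Agent.R096.Cp_298 Crest.Agent.R096.Gl_422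
  Crest.Agent.R096.On_441

variable {ι Φ W Q J C K : Type} {M : MeshC ι Φ W} [PartialOrder Q] {dim : Q → ℕ}

/-- the number of copies of a sheet of the family `c` -/
abbrev Rk (κ kap : C → ℕ) (c : C) : ℕ := 2 ^ (kap c - κ c)

/-- **input of the state half** -/
structure StI (L : LM M Q dim) (O : Ori M) (τ : Q → ZMod 2) (Rel : W → W → Prop) (V : Set W)
    (Qd : Quads ι C K) (κ : C → ℕ) {fam : J → C} (s₀ : GSt M fam) (far₀ : J → Set W)
    (G : C → Set W) (Z : C → Set Q) (lam₀ : J → Q → ZMod 2) (v₀ v₁ : C → Q) : Prop where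
  top : Top3 L
  dir : Dir L O τ
  par : WS.HasPar O Rel V
  refl : ∀ x, Rel x x
  trans : ∀ x y z, Rel x y → Rel y z → Rel x z
  memV : ∀ x y, Rel x y → y ∈ V → x ∈ V
  rel : ∀ x w, Rel x w → w ∈ L.W1 → x ∈ L.W1 ∧ L.ed x = L.ed w
  V1 : V ⊆ L.W1
  VF : ∀ w ∈ V, ∃ F, w ∈ M.On F
  /-- the candidate points of a cell lie on finitely many faces -/
  loc : ∀ c, ∃ S : Finset Φ, ∀ w ∈ V, L.ed w ≤ c → ∃ F ∈ S, w ∈ M.On F
  lf : ∀ m, {c | κ c ≤ m}.Finite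
  inv : s₀.Inv Qd far₀
  PV : s₀.P ⊆ V
  fin : ∀ F, (s₀.P ∩ M.On F).Finite
  finJ : ∀ a, {j | fam j = a}.Finite
  lab : LabIn L Qd s₀ G Z lam₀ v₀ v₁

/-- **output of the state half** -/
structure StO (L : LM M Q dim) (O : Ori M) (τ : Q → ZMod 2) (Rel : W → W → Prop) (V : Set W)
    (Qd : Quads ι C K) (κ : C → ℕ) {fam : J → C} (s₀ : GSt M fam) (far₀ : J → Set W)
    (Z : C → Set Q) (lam₀ : J → Q → ZMod 2) (v₀ v₁ : C → Q)
    (hfin : ∀ a, {j | fam j = a}.Finite) (kap : C → ℕ) (s : GSt M (fam' fam (Rk κ kap)))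
    (far : Nm' fam (Rk κ kap) → Set W) (β : W → W)
    (lam : Nm' fam (Rk κ kap) → Q → ZMod 2) : Prop where
  le : ∀ c, κ c ≤ kap c
  dlt_le : ∀ c k, Qd.In k c → dlt Qd κ k ≤ kap c
  eq : ∀ c, kap c = κ c ∨ ∃ k, Qd.In k c ∧ kap c = dlt Qd κ k
  inv : s.Inv Qd far
  PV : s.P ⊆ V
  fin : ∀ F, (s.P ∩ M.On F).Finite
  cps : Cps O Qd Rel s₀ far₀ (sgm L τ s₀ lam₀) (fun y : Nm' fam (Rk κ kap) => y.1)
    (fun y => (y.2 : ℕ)) s far β
  wt : ∀ E : Set W, (∀ x y, Rel x y → (x ∈ E ↔ y ∈ E)) →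
    wsum s (wgt kap) E ≤ wsum s₀ (wgt κ) E
  good : ∀ (k : K) (i : Qd.Nm (fam' fam (Rk κ kap)) k),
    (s.res Qd k i).Good (Qd.Act k) (s.farK Qd far k) ∧ NoClosed (s.res Qd k i) (Qd.Act k)
  lfs : LF L s
  lab : LabOut L Qd s Z (fun y : Nm' fam (Rk κ kap) => y.1) lam₀ v₀ v₁ lam
  rk : ∀ y : Nm' fam (Rk κ kap), Gl_422.rk L s lam (fin_copies (Rk κ kap) hfin) y =
    Rk κ kap (fam y.1) * Gl_422.rk L s₀ lam₀ hfin y.1 + y.2

section
variable {L : LM M Q dim} {O : Ori M} {τ : Q → ZMod 2} {Rel : W → W → Prop} {V : Set W}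
  {Qd : Quads ι C K} {κ : C → ℕ} {fam : J → C} {s₀ : GSt M fam} {far₀ : J → Set W}
  {G : C → Set W} {Z : C → Set Q} {lam₀ : J → Q → ZMod 2} {v₀ v₁ : C → Q}

/-- local finiteness from finiteness on the faces -/
theorem lf_of_fin {J' : Type} {fam' : J' → C} {s : GSt M fam'} (hV : s.P ⊆ V)
    (loc : ∀ c, ∃ S : Finset Φ, ∀ w ∈ V, L.ed w ≤ c → ∃ F ∈ S, w ∈ M.On F)
    (fin : ∀ F, (s.P ∩ M.On F).Finite) : LF L s := by
  intro c
  obtain ⟨S, hS⟩ := loc c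
  refine (S.finite_toSet.biUnion (t := fun F => s.P ∩ M.On F) fun F _ => fin F).subset ?_
  rintro w ⟨hw, -, hwc⟩
  obtain ⟨F, hF, hwF⟩ := hS w (hV hw) hwc
  exact mem_biUnion (Finset.mem_coe.2 hF) ⟨hw, hwF⟩

/-- **THE STATE HALF, CUT 1** -/
theorem exists_out (h : StI L O τ Rel V Qd κ s₀ far₀ G Z lam₀ v₀ v₁) :
    ∃ (kap : C → ℕ) (s : GSt M (fam' fam (Rk κ kap))) (far : Nm' fam (Rk κ kap) → Set W)
      (β : W → W) (lam : Nm' fam (Rk κ kap) → Q → ZMod 2),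
      StO L O τ Rel V Qd κ s₀ far₀ Z lam₀ v₀ v₁ h.finJ kap s far β lam := by
  have hlb : ∀ j, Lbd L s₀ (fam j) lam₀ (v₀ (fam j)) (v₁ (fam j)) := by
    intro j
    refine ⟨fun j' _ => h.inv.conn j', fun j' _ => h.lab.lab j', fun j' hj => ?_,
      fun j' hj => ?_, ⟨_, h.lab.rope j⟩⟩
    · rw [← hj]; exact h.lab.one j'
    · rw [← hj]; exact h.lab.zero j'
  have hσ₀ : TS s₀ O (sgm L τ s₀ lam₀) := ts_of_lab h.dir h.lab.lab
  have hP1 : ∀ w ∈ s₀.P, w ∈ L.W1 := fun w hw => h.V1 (h.PV hw)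
  have hPF : ∀ w ∈ s₀.P, ∃ F, w ∈ M.On F := fun w hw => h.VF w (h.PV hw)
  obtain ⟨kap, k1, k2, k3, s, far, σ, β, a1, -, -, a4, a5, a6, a7, a8⟩ :=
    wseq F_422.p3 O h.par h.refl h.trans h.memV Qd κ (dlt_finite Qd h.lf) s₀ far₀ h.inv
      (sgm L τ s₀ lam₀) hσ₀ h.PV h.fin
  obtain ⟨lam, hlam⟩ := exists_lam a6 h.rel hP1 (fun _ => rfl) h.inv a1 h.lab
  exact ⟨kap, s, far, β, lam, ⟨k1, k2, k3, a1, a4, a5, a6, a7, a8, lf_of_fin a4 h.loc a5, hlam,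
    fun y => rk_copies (R := Rk κ kap) h.dir a6 h.rel hP1 hPF h.inv a1 hlam hlb h.finJ y⟩⟩

end

end Crest.Agent.R096.SkB_662
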