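import Crest.Agent.R096.Gk3_422
import Crest.Agent.R096.Gm3_298
import Crest.Agent.R096.SkB1_662

/-!
# R096 (row 96), GLUE-STATE for merged meshes (helper422): the input `StI` of 662's middle seam over
helper117's labelled mesh `lmK` with giant cells, and `LabIn` over `lmK` from bodies and one exact
core per family.
-/

set_option autoImplicit false
set_option linter.unusedSectionVars false

open Set Relation Module

namespace Crest.Agent.R096.Gl_422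

open Crest.Agent.R096.St_147 Crest.Agent.R096.Seq_213 Crest.Agent.R096.Seq_213.GSt
  Crest.Agent.R096.Lm_117 Crest.Agent.R096.Ac_117
  Crest.Agent.R096.Cp_298 Crest.Agent.R096.Msh_715 Crest.Agent.R096.Agl5_543
  Crest.Agent.R096.Ori_543 Crest.Agent.R096.Coh_184 Crest.Agent.R096.Gm_298
  Crest.Agent.R096.SkB_662

variable {E : Type} [NormedAddCommGroup E] [NormedSpace ℝ E] [FiniteDimensional ℝ E]
variable {Om : Set E} {ι : Type} {T : Tiling Om ι} {κ : Type} {Kc : κ → Set E} [Nonempty T.Cell]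
variable {h3 : finrank ℝ E = 3} {hH : ∀ c, CoreH T (Kc c)}
  {hdis : ∀ c c', c ≠ c' → Disjoint (Kc c) (Kc c')} {hne : ∃ c, OutK T Kc c}
variable {J C K : Type} {fam : J → C} {Qd : Quads (ι ⊕ κ) C K} {s₀ : GSt (mK h3 hH hdis) fam}

theorem relM_memK {x y : E} (h : RelM T x y) (hy : y ∈ (lmK h3 hH hdis hne).W1) :
    x ∈ (lmK h3 hH hdis hne).W1 := (relK h hy).1

/-- the candidate points of a cell lie on finitely many faces -/
theorem loc_K (c : QK (belK T Kc)) :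
    ∃ S : Finset {F : C2 T // ¬ (((meshC T h3).side F).map (piK T Kc)).IsDiag},
      ∀ w ∈ (lmK h3 hH hdis hne).W1, (lmK h3 hH hdis hne).ed w ≤ c →
        ∃ F ∈ S, w ∈ (mK h3 hH hdis).On F := by
  classical
  have h1 : {e : QK (belK T Kc) | e ≤ c ∧ dimK (belK T Kc) (fun c => c.1.dim) e = 1}.Finite :=
    (finite_leK c hH).subset fun e he => he.1
  have h2 : ∀ e : {e // e ∈ h1.toFinset}, ∃ F, e.1 ≤ (lmK h3 hH hdis hne).cf F := fun e =>
    cfK (h3 := h3) (hH := hH) (hdis := hdis) (hne := hne) e.1 (h1.mem_toFinset.1 e.2).2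
  choose f hf using h2
  refine ⟨h1.toFinset.attach.image f, fun w hw hwc => ?_⟩
  have he : (lmK h3 hH hdis hne).ed w ∈ h1.toFinset :=
    h1.mem_toFinset.2 ⟨hwc, (lmK h3 hH hdis hne).ed_dim w hw⟩
  refine ⟨f ⟨_, he⟩, Finset.mem_image.2 ⟨_, Finset.mem_attach _ _, rfl⟩, ?_⟩
  exact ((lmK h3 hH hdis hne).on_iff _ w).2 ⟨hw, hf ⟨_, he⟩⟩

/-- **`LabIn` over `meshK` from bodies `D a`, one exact core `kc a` per family, and ropes** -/
theorem labIn_KD (D : C → Set E) (hW : ∀ w ∈ s₀.P, w ∈ (lmK h3 hH hdis hne).W1)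
    (hD : ∀ j, IsCompact (D (fam j))) (hDO : ∀ j, D (fam j) ⊆ Om)
    (hfr : ∀ j, IsPreconnected (frontier (D (fam j)))) (htr : ∀ j, TrivF (ZMod 2) (D (fam j)))
    (supp : ∀ w ∈ s₀.P, (∀ q, w ∈ Msh_715.P (T.H q) →
      Msh_715.P (T.H q) ⊆ interior (D (fam (s₀.lab w)))) ∧
      ∀ c, w ∈ Kc c → Kc c ⊆ interior (D (fam (s₀.lab w))))
    (act : ∀ j k, Qd.In k (fam j) → Qd.Act k ⊆ AD T Kc (D (fam j)))
    {v₀ v₁ : C → QK (belK T Kc)} (far : ∀ j, v₁ (fam j) ∈ ZK T Kc (D (fam j))) (kc : C → κ)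
    (hact : ∀ j k, Qd.In k (fam j) → Sum.inr (kc (fam j)) ∉ Qd.Act k)
    (u : C → E → ℝ) (t : J → ℝ)
    (haff : ∀ j, ∀ e : T.Cell, e.dim = 1 → e.set ⊆ frontier (Kc (kc (fam j))) →
      ∃ g : E →ᵃ[ℝ] ℝ, EqOn (u (fam j)) g e.set)
    (hvt : ∀ j, ∀ v ∈ frontier (Kc (kc (fam j))), T.dim v = 0 → u (fam j) v ≠ t j)
    (hpat : ∀ j, ∀ w ∈ frontier (Kc (kc (fam j))), T.dim w = 1 →
      ((w ∈ s₀.P ∧ s₀.lab w = j) ↔ u (fam j) w = t j))
    (u₀ u₁ : C → T.Cell) (o₀ : ∀ a, OutK T Kc (u₀ a)) (o₁ : ∀ a, OutK T Kc (u₁ a))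
    (hu0 : ∀ j, (u₀ (fam j)).set ⊆ frontier (Kc (kc (fam j))) ∧ (u₀ (fam j)).dim = 0 ∧
      u (fam j) (u₀ (fam j)).pt < t j)
    (hu1 : ∀ j, (u₁ (fam j)).set ⊆ frontier (Kc (kc (fam j))) ∧ (u₁ (fam j)).dim = 0 ∧
      t j < u (fam j) (u₁ (fam j)).pt)
    (hp0 : ∀ j, ReflTransGen (Ed (lmK h3 hH hdis hne) (Fr0 (lmK h3 hH hdis hne) Qd s₀ (fam j)))
      (v₀ (fam j)) (oc (u₀ (fam j)) (o₀ _)))
    (hp1 : ∀ j, ReflTransGen (Ed (lmK h3 hH hdis hne) (Fr0 (lmK h3 hH hdis hne) Qd s₀ (fam j)))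
      (oc (u₁ (fam j)) (o₁ _)) (v₁ (fam j))) :
    ∃ lam₀, LabIn (lmK h3 hH hdis hne) Qd s₀ (fun c => GD h3 hH hdis (D c))
      (fun c => ZK T Kc (D c)) lam₀ v₀ v₁ := by
  refine labIn_K hW (fun j => hasLab_K (hD j) (hDO j) (hfr j) (htr j))
    (fun j w hw x hx he => GD_satK hw hx he) (fun w hw => ?_)
    (fun j k hk w _ hi => GD_act (act j k hk) hi) far kc hact u t haff hvt hpat u₀ u₁ o₀ o₁ hu0 hu1
    hp0 hp1
  exact GD_of (hne := hne) (hW w hw) (supp w hw).1 (supp w hw).2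

/-- **the input of the state half for a merged mesh with giant cells** -/
theorem stI_K {κ₀ : C → ℕ} {far₀ : J → Set E} {G : C → Set E} {Z : C → Set (QK (belK T Kc))}
    {lam₀ : J → QK (belK T Kc) → ZMod 2} {v₀ v₁ : C → QK (belK T Kc)}
    (hκ : ∀ m, {c | κ₀ c ≤ m}.Finite) (hI : s₀.Inv Qd far₀)
    (hon : ∀ w ∈ s₀.P, w ∈ (lmK h3 hH hdis hne).W1)
    (hfin : ∀ F, (s₀.P ∩ (mK h3 hH hdis).On F).Finite)
    (hJ : ∀ a, {j | fam j = a}.Finite) (h : LabIn (lmK h3 hH hdis hne) Qd s₀ G Z lam₀ v₀ v₁) :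
    StI (lmK h3 hH hdis hne) (oriK h3 hH hdis) (tauK T Kc) (RelM T)
      (lmK h3 hH hdis hne).W1 Qd κ₀ s₀ far₀ G Z lam₀ v₀ v₁ where
  top := top3K h3 hH hdis hne
  dir := dirK
  par := hasParK
  refl := RelM.refl
  trans := fun _ _ _ => RelM.trans
  memV := fun _ _ h hy => relM_memK h hy
  rel := fun _ _ h hw => relK h hw
  V1 := fun _ hw => hw
  VF := fun _ hw => faceK hw
  loc := loc_K
  lf := hκ
  inv := hI
  PV := hon
  fin := hfin
  finJ := hJ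
  lab := h

end Crest.Agent.R096.Gl_422
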