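import Crest.Agent.R096.Lm1_117
import Crest.Agent.R096.Seq3_213
import Crest.Agent.R096.Ginv2_543

/-!
# R096 (row 96), GLUE-STATE over a mesh with labels, part 1 (helper422)

`s : GSt M fam` over ANY mesh `M` with labels `L : LM M Q dim` (117): the sheets are even on every
face, sides of points are constant along connected sheets of the same family, first point of a path
of 1-cells.
-/

set_option autoImplicit false
set_option linter.unusedSectionVars false

open Set Relation

namespace Crest.Agent.R096.Gl_422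

open Crest.Agent.R096.St_147 Crest.Agent.R096.Seq_213 Crest.Agent.R096.Lm_117
  Crest.Agent.R096.Ac_117

variable {ι Φ W Q : Type} [PartialOrder Q] {dim : Q → ℕ} {M : MeshC ι Φ W}
variable {J C K : Type} {fam : J → C}

/-! ### the points of a sheet -/

theorem fin_gp (s : GSt M fam) (j : J) : {w | w ∈ s.P ∧ s.lab w = j}.Finite :=
  (s.fin (fam j)).subset fun _ hw => ⟨hw.1, by rw [hw.2]⟩

/-- the points of the sheet `j` -/
noncomputable def gp (s : GSt M fam) (j : J) : Finset W := (fin_gp s j).toFinset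

theorem mem_gp {s : GSt M fam} {j : J} {w : W} : w ∈ gp s j ↔ w ∈ s.P ∧ s.lab w = j := by
  unfold gp; rw [Set.Finite.mem_toFinset]; rfl

/-- **sheets are even on every face** -/
theorem gp_even (s : GSt M fam) (j : J) (F : Φ) : nW (gp s j) (M.On F) = 0 := by
  classical
  rw [nW_card]
  have h1 : ∑ _q ∈ (gp s j).filter (fun q => q ∈ M.On F), (1 : ZMod 2) = 0 := by
    refine Finset.sum_involution (fun q _ => s.mu F q) (fun q hq => by decide)
      (fun q hq _ => ?_) (fun q hq => ?_) (fun q hq => ?_)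
    · obtain ⟨h1, h2⟩ := Finset.mem_filter.1 hq
      exact s.mu_ne (mem_gp.1 h1).1 h2
    · obtain ⟨h1, h2⟩ := Finset.mem_filter.1 hq
      obtain ⟨h4, h5⟩ := mem_gp.1 h1
      obtain ⟨b1, b2⟩ := s.mu_mem h4 h2
      exact Finset.mem_filter.2 ⟨mem_gp.2 ⟨b1, (s.mu_lab h4 h2).trans h5⟩, b2⟩
    · obtain ⟨h1, h2⟩ := Finset.mem_filter.1 hq
      exact s.mu_mu (mem_gp.1 h1).1 h2
  rw [Finset.sum_const, nsmul_eq_mul, mul_one] at h1
  convert h1

/-- number mod 2 of the points of `Y` on `F` between `w` and `w'` -/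
noncomputable def bet (M : MeshC ι Φ W) (F : Φ) (Y : Finset W) (w w' : W) : ZMod 2 :=
  open Classical in ((Y.filter (fun q => q ∈ M.On F ∧ M.Btw F w w' q)).card : ZMod 2)

theorem btw_symm (M : MeshC ι Φ W) {F : Φ} {w w' q : W} : M.Btw F w w' q ↔ M.Btw F w' w q := by
  unfold MeshC.Btw
  exact or_comm

/-- positions of two points outside `Y` -/
theorem cntP_add {F : Φ} {Y : Finset W} {w w' : W} (hw : w ∈ M.On F) (hw' : w' ∈ M.On F)
    (hwY : w ∉ Y) (hwY' : w' ∉ Y) :
    cntP M Y F (M.pos F w) + cntP M Y F (M.pos F w') = bet M F Y w w' := by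
  classical
  have key : ∀ {w w' : W}, w ∈ M.On F → w' ∈ M.On F → w ∉ Y → w' ∉ Y →
      M.pos F w ≤ M.pos F w' →
      cntP M Y F (M.pos F w) + cntP M Y F (M.pos F w') = bet M F Y w w' := by
    intro w w' hw hw' hwY hwY' hle
    unfold cntP bet
    have e : Y.filter (fun v => v ∈ M.On F ∧ M.pos F v < M.pos F w') =
        Y.filter (fun v => v ∈ M.On F ∧ M.pos F v < M.pos F w) ∪
          Y.filter (fun q => q ∈ M.On F ∧ M.Btw F w w' q) := by
      ext q
      simp only [Finset.mem_union, Finset.mem_filter]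
      constructor
      · rintro ⟨h1, h2, h4⟩
        by_cases h5 : M.pos F q < M.pos F w
        · exact Or.inl ⟨h1, h2, h5⟩
        · refine Or.inr ⟨h1, h2, Or.inl ⟨lt_of_le_of_ne (not_lt.1 h5) fun e => ?_, h4⟩⟩
          exact hwY (by rw [M.pos_inj F hw h2 e]; exact h1)
      · rintro (⟨h1, h2, h4⟩ | ⟨h1, h2, h4 | h4⟩)
        · exact ⟨h1, h2, h4.trans_le hle⟩
        · exact ⟨h1, h2, h4.2⟩
        · exact absurd (h4.1.trans h4.2) (not_lt.2 hle)
    have hd : Disjoint (Y.filter (fun v => v ∈ M.On F ∧ M.pos F v < M.pos F w))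
        (Y.filter (fun q => q ∈ M.On F ∧ M.Btw F w w' q)) := by
      rw [Finset.disjoint_left]
      intro q h1 h2
      obtain ⟨-, -, h4⟩ := Finset.mem_filter.1 h1
      obtain ⟨-, -, h5 | h5⟩ := Finset.mem_filter.1 h2
      · exact lt_asymm h4 h5.1
      · exact absurd (h5.1.trans h5.2) (not_lt.2 hle)
    rw [e, Finset.card_union_of_disjoint hd, Nat.cast_add, ← add_assoc, Lm_117.add_self, zero_add]
  rcases le_total (M.pos F w) (M.pos F w') with h | h
  · exact key hw hw' hwY hwY' h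
  · rw [add_comm, key hw' hw hwY' hwY h]
    unfold bet
    simp only [btw_symm M (w := w') (w' := w)]

/-- a chord of `j'` separates an even number of points of the sheet `j` of the same family -/
theorem bet_chord {s : GSt M fam} {j j' : J} (hfam : fam j = fam j') (hne : j ≠ j')
    {F : Φ} {w : W} (hw : w ∈ s.P) (hwF : w ∈ M.On F) (hwj : s.lab w = j') :
    bet M F (gp s j) w (s.mu F w) = 0 := by
  classical
  unfold bet
  have hon : ∀ q ∈ (gp s j).filter (fun q => q ∈ M.On F ∧ M.Btw F w (s.mu F w) q),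
      q ∈ s.P ∧ s.lab q = j ∧ q ∈ M.On F := by
    intro q hq
    obtain ⟨h1, h2, -⟩ := Finset.mem_filter.1 hq
    obtain ⟨h4, h5⟩ := mem_gp.1 h1
    exact ⟨h4, h5, h2⟩
  have hmlab := s.mu_lab hw hwF
  have h1 : ∑ _q ∈ (gp s j).filter (fun q => q ∈ M.On F ∧ M.Btw F w (s.mu F w) q),
      (1 : ZMod 2) = 0 := by
    refine Finset.sum_involution (fun q _ => s.mu F q) (fun q hq => by decide)
      (fun q hq _ => ?_) (fun q hq => ?_) (fun q hq => ?_)
    · obtain ⟨a1, a2, a3⟩ := hon q hq
      exact s.mu_ne a1 a3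
    · obtain ⟨a1, a2, a3⟩ := hon q hq
      obtain ⟨b1, b2⟩ := s.mu_mem a1 a3
      have b3 := s.mu_lab a1 a3
      have hnl : ¬ M.Lace F w (s.mu F w) q (s.mu F q) := by
        refine s.nc hw hwF a1 a3 (by rw [hwj, a2, hfam]) ?_ ?_
        · rintro rfl; exact hne (a2.symm.trans hwj)
        · rintro rfl
          exact hne (a2.symm.trans (hmlab.trans hwj))
      have hl : (M.Btw F w (s.mu F w) q ↔ M.Btw F w (s.mu F w) (s.mu F q)) := by
        by_contra hcon
        exact hnl hcon
      obtain ⟨-, -, hq3⟩ := Finset.mem_filter.1 hq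
      exact Finset.mem_filter.2 ⟨mem_gp.2 ⟨b1, b3.trans a2⟩, b2, hl.1 hq3⟩
    · obtain ⟨a1, a2, a3⟩ := hon q hq
      exact s.mu_mu a1 a3
  rw [Finset.sum_const, nsmul_eq_mul, mul_one] at h1
  convert h1

/-! ### labels -/

variable {L : LM M Q dim}

/-- `lam` is a global label of `Y` -/
def GLab (L : LM M Q dim) (Y : Finset W) (lam : Q → ZMod 2) : Prop :=
  ∀ e, dim e = 1 → lam (L.en e false) + lam (L.en e true) = nW Y (L.On1 e)

theorem GLab.xl {Y : Finset W} {lam : Q → ZMod 2} (h : GLab L Y lam) (c : Q) :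
    L.XL Y lam c := fun e _ he => h e he

/-- the labels of two points of a face -/
theorem GLab.ext_add {Y : Finset W} {lam : Q → ZMod 2} (h : GLab L Y lam) {F : Φ}
    (hY : nW Y (M.On F) = 0) {w w' : W} (hw : w ∈ M.On F) (hw' : w' ∈ M.On F) (hwY : w ∉ Y)
    (hwY' : w' ∉ Y) : L.ext Y lam w + L.ext Y lam w' = bet M F Y w w' := by
  obtain ⟨h1, h2⟩ := L.face F Y hY
  obtain ⟨v, hv, hv0⟩ := L.base (L.cf F)
  have a1 := (h.xl (L.cf F)).unique_ext h1 (fun _ _ => Iff.rfl) hv hv0 ((L.on_iff F w).1 hw)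
  have a2 := (h.xl (L.cf F)).unique_ext h1 (fun _ _ => Iff.rfl) hv hv0 ((L.on_iff F w').1 hw')
  rw [h2 w hw hwY] at a1
  rw [h2 w' hw' hwY'] at a2
  rw [← cntP_add hw hw' hwY hwY']
  have e : ∀ a b x y z : ZMod 2, a + x = z → b + y = z → a + b = x + y := by decide
  exact e _ _ _ _ _ a1 a2

/-- **the side of the points of a sheet with respect to another sheet of the family is constant** -/
theorem side_const {s : GSt M fam} {j j' : J} (hfam : fam j = fam j') (hne : j ≠ j')
    (hconn : s.Conn j') {lam : Q → ZMod 2} (h : GLab L (gp s j) lam) {w w' : W} (hw : w ∈ s.P)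
    (hwj : s.lab w = j') (hw' : w' ∈ s.P) (hwj' : s.lab w' = j') :
    L.ext (gp s j) lam w = L.ext (gp s j) lam w' := by
  have hnot : ∀ {u : W}, s.lab u = j' → u ∉ gp s j := fun hu hu' =>
    hne ((mem_gp.1 hu').2.symm.trans hu)
  refine (hconn.2 {u | L.ext (gp s j) lam u = L.ext (gp s j) lam w} ?_ w rfl hw hwj w' hw'
    hwj').symm
  rintro F u hu hat hul
  have hm := s.mu_mem hat.1 hat.2
  have hml : s.lab (s.mu F u) = j' := (s.mu_lab hat.1 hat.2).trans hul
  have e1 := h.ext_add (gp_even s j F) hat.2 hm.2 (hnot hul) (hnot hml)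
  rw [bet_chord hfam hne hat.1 hat.2 hul] at e1
  show L.ext (gp s j) lam (s.mu F u) = L.ext (gp s j) lam w
  rw [← CharTwo.add_eq_zero.1 e1]
  exact hu

/-! ### paths of 1-cells -/

/-- `v`, `v'` are the ends of a 1-cell in `Z` -/
def Ed (L : LM M Q dim) (Z : Set Q) (v v' : Q) : Prop :=
  ∃ e ∈ Z, dim e = 1 ∧ ∃ b : Bool, v = L.en e b ∧ v' = L.en e (!b)

theorem Ed.symm {Z : Set Q} {v v' : Q} (h : Ed L Z v v') : Ed L Z v' v := by
  obtain ⟨e, h1, h2, b, h4, h5⟩ := h
  exact ⟨e, h1, h2, !b, h5, by rw [Bool.not_not]; exact h4⟩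

theorem Ed.mono {Z Z' : Set Q} (hZ : Z ⊆ Z') {v v' : Q} (h : Ed L Z v v') : Ed L Z' v v' := by
  obtain ⟨e, h1, h2⟩ := h
  exact ⟨e, hZ h1, h2⟩

theorem path_symm {Z : Set Q} {v v' : Q} (h : ReflTransGen (Ed L Z) v v') :
    ReflTransGen (Ed L Z) v' v := by
  induction h with
  | refl => exact .refl
  | tail _ h ih => exact .head h.symm ih

theorem path_mono {Z Z' : Set Q} (hZ : Z ⊆ Z') {v v' : Q} (h : ReflTransGen (Ed L Z) v v') :
    ReflTransGen (Ed L Z') v v' := by
  induction h with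
  | refl => exact .refl
  | tail _ h ih => exact ih.tail (h.mono hZ)

/-- labels of two patterns with the same number of points on the 1-cells of `Z` -/
theorem GLab.diff {Y Y' : Finset W} {lam lam' : Q → ZMod 2} (h : GLab L Y lam)
    (h' : GLab L Y' lam') {Z : Set Q} (hZ : ∀ e ∈ Z, dim e = 1 → nW Y (L.On1 e) = nW Y' (L.On1 e))
    {v v' : Q} (hp : ReflTransGen (Ed L Z) v v') : lam v + lam' v = lam v' + lam' v' := by
  induction hp with
  | refl => rfl
  | @tail a b _ hs ih =>
    obtain ⟨e, h1, h2, c, rfl, rfl⟩ := hs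
    rw [ih]
    have e1 := h e h2
    have e2 := h' e h2
    have e3 := hZ e h1 h2
    have e4 : ∀ a b c d x : ZMod 2, a + b = x → c + d = x → a + c = b + d := by decide
    have e5 : ∀ a b c d x : ZMod 2, a + b = x → c + d = x → b + d = a + c := by decide
    cases c
    · exact e4 _ _ _ _ _ (e1.trans e3) e2
    · exact e5 _ _ _ _ _ (e1.trans e3) e2

/-- labels are constant along paths of 1-cells without points -/
theorem GLab.const {Y : Finset W} {lam : Q → ZMod 2} (h : GLab L Y lam) {Z : Set Q}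
    (hZ : ∀ e ∈ Z, dim e = 1 → ∀ w ∈ Y, w ∉ L.On1 e) {v v' : Q}
    (hp : ReflTransGen (Ed L Z) v v') : lam v = lam v' := by
  have h0 : GLab L (∅ : Finset W) (fun _ => 0) := by
    intro e _
    rw [nW_empty (fun w hw => absurd hw (Finset.notMem_empty w)), add_zero]
  have h1 := h.diff h0 (Z := Z) (fun e he h1 => by
    rw [nW_empty (hZ e he h1), nW_empty (fun w hw => absurd hw (Finset.notMem_empty w))]) hp
  simpa using h1

/-- **FIRST POINT**: if a property of the labels of finitely many sheets changes along a path of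
1-cells, there is a vertex `a` with the property and a point `w` of one of the sheets for which the
labels of the other sheets are their labels at `a`. -/
theorem first_pt {s : GSt M fam} {I : Finset J} {lam : J → Q → ZMod 2}
    (hl : ∀ i ∈ I, GLab L (gp s i) (lam i)) {A : (J → ZMod 2) → Prop}
    (hA : ∀ x y, (∀ i ∈ I, x i = y i) → A x → A y) {Z : Set Q} {v v' : Q}
    (hp : ReflTransGen (Ed L Z) v v') (h1 : A (fun i => lam i v)) (h2 : ¬ A (fun i => lam i v')) :
    ∃ a, A (fun i => lam i a) ∧ ∃ w ∈ s.P, s.lab w ∈ I ∧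
      ∀ i' ∈ I, i' ≠ s.lab w → L.ext (gp s i') (lam i') w = lam i' a := by
  classical
  induction hp with
  | refl => exact absurd h1 h2
  | @tail a b _ hs ih =>
    by_cases ha : A (fun i => lam i a)
    swap
    · exact ih ha
    obtain ⟨e, heZ, he, c, rfl, rfl⟩ := hs
    set R : Finset W := (I.biUnion (gp s)).filter (fun w => w ∈ L.On1 e) with hR
    have hne : R.Nonempty := by
      by_contra hcon
      rw [Finset.not_nonempty_iff_eq_empty] at hcon
      refine h2 (hA _ _ (fun i hi => ?_) ha)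
      have e1 := hl i hi e he
      have e2 : nW (gp s i) (L.On1 e) = 0 := nW_empty fun w hw hwe => by
        have : w ∈ R := Finset.mem_filter.2 ⟨Finset.mem_biUnion.2 ⟨i, hi, hw⟩, hwe⟩
        rw [hcon] at this
        exact Finset.notMem_empty w this
      rw [e2] at e1
      have e3 := CharTwo.add_eq_zero.1 e1
      cases c
      · exact e3
      · exact e3.symm
    have hRm : ∀ w ∈ R, w ∈ L.On1 e ∧ w ∈ s.P ∧ s.lab w ∈ I := by
      intro w hw
      obtain ⟨h4, h5⟩ := Finset.mem_filter.1 hw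
      obtain ⟨i, hi, hwi⟩ := Finset.mem_biUnion.1 h4
      obtain ⟨h6, h7⟩ := mem_gp.1 hwi
      exact ⟨h5, h6, by rw [h7]; exact hi⟩
    refine ⟨L.en e c, ha, ?_⟩
    cases c
    · -- smallest parameter
      obtain ⟨w, hw, hmin⟩ := R.exists_min_image L.t hne
      obtain ⟨h4, h5, h6⟩ := hRm w hw
      refine ⟨w, h5, h6, fun i' hi' hne' => ?_⟩
      unfold Sk.ext
      have e1 : L.pre (gp s i') w = 0 := by
        unfold Sk.pre
        refine nW_empty fun x hx hx' => ?_
        obtain ⟨a1, a2, a3⟩ := hx'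
        rw [h4.2] at a2
        have : x ∈ R := Finset.mem_filter.2 ⟨Finset.mem_biUnion.2 ⟨i', hi', hx⟩, a1, a2⟩
        exact absurd a3 (not_lt.2 (hmin x this))
      rw [e1, add_zero, h4.2]
    · -- largest parameter
      obtain ⟨w, hw, hmax⟩ := R.exists_max_image L.t hne
      obtain ⟨h4, h5, h6⟩ := hRm w hw
      refine ⟨w, h5, h6, fun i' hi' hne' => ?_⟩
      unfold Sk.ext
      have e1 : L.pre (gp s i') w = nW (gp s i') (L.On1 e) := by
        unfold Sk.pre
        refine nW_congr fun x hx => ⟨fun ⟨a1, a2, _⟩ => ⟨a1, a2.trans h4.2⟩, fun ⟨a1, a2⟩ =>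
          ⟨a1, a2.trans h4.2.symm, ?_⟩⟩
        have hxR : x ∈ R := Finset.mem_filter.2 ⟨Finset.mem_biUnion.2 ⟨i', hi', hx⟩, a1, a2⟩
        refine lt_of_le_of_ne (hmax x hxR) fun et => ?_
        have exw := L.t_inj x a1 w h4.1 (a2.trans h4.2.symm) et
        rw [exw] at hx
        exact hne' (mem_gp.1 hx).2.symm
      rw [e1, h4.2, ← hl i' hi' e he]
      have e4 : ∀ a b : ZMod 2, a + (a + b) = b := by decide
      exact e4 _ _

end Crest.Agent.R096.Gl_422
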