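import Crest.Agent.R096.Gl1_422

/-!
# R096 (row 96), GLUE-STATE over a mesh with labels, part 2 (helper422): the sheets of one family are
totally ordered by inclusion of their insides (NEST), as soon as all labels are 1 at one vertex and 0
at another one (joined by 1-cells).
-/

set_option autoImplicit false
set_option linter.unusedSectionVars false

open Set Relation

namespace Crest.Agent.R096.Gl_422

open Crest.Agent.R096.St_147 Crest.Agent.R096.Seq_213 Crest.Agent.R096.Lm_117
  Crest.Agent.R096.Ac_117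

variable {ι Φ W Q : Type} [PartialOrder Q] {dim : Q → ℕ} {M : MeshC ι Φ W}
variable {J C K : Type} {fam : J → C}

/-- the sheet `j` lies inside the sheet `j'` -/
def Ins (L : LM M Q dim) (s : GSt M fam) (lam : J → Q → ZMod 2) (j j' : J) : Prop :=
  ∀ w ∈ s.P, s.lab w = j → L.ext (gp s j') (lam j') w = 1

/-- the sheet `j` lies outside the sheet `j'` -/
def Out (L : LM M Q dim) (s : GSt M fam) (lam : J → Q → ZMod 2) (j j' : J) : Prop :=
  ∀ w ∈ s.P, s.lab w = j → L.ext (gp s j') (lam j') w = 0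

/-- labelled sheets of the family `c`: label 1 at `v₀`, 0 at `v₁` -/
structure Lbd (L : LM M Q dim) (s : GSt M fam) (c : C) (lam : J → Q → ZMod 2) (v₀ v₁ : Q) : Prop where
  conn : ∀ j, fam j = c → s.Conn j
  lab : ∀ j, fam j = c → GLab L (gp s j) (lam j)
  one : ∀ j, fam j = c → lam j v₀ = 1
  zero : ∀ j, fam j = c → lam j v₁ = 0
  path : ∃ Z : Set Q, ReflTransGen (Ed L Z) v₀ v₁

variable {L : LM M Q dim} {s : GSt M fam} {c : C} {lam : J → Q → ZMod 2} {v₀ v₁ : Q}

theorem Lbd.ins_of_pt (h : Lbd L s c lam v₀ v₁) {j j' : J} (hj : fam j = c) (hj' : fam j' = c)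
    (hne : j' ≠ j) {w : W} (hw : w ∈ s.P) (hl : s.lab w = j)
    (h1 : L.ext (gp s j') (lam j') w = 1) : Ins L s lam j j' := by
  intro w' hw' hl'
  rw [← h1]
  exact side_const (hj'.trans hj.symm) hne (h.conn j hj) (h.lab j' hj') hw' hl' hw hl

theorem Lbd.out_of_pt (h : Lbd L s c lam v₀ v₁) {j j' : J} (hj : fam j = c) (hj' : fam j' = c)
    (hne : j' ≠ j) {w : W} (hw : w ∈ s.P) (hl : s.lab w = j)
    (h1 : L.ext (gp s j') (lam j') w = 0) : Out L s lam j j' := by
  intro w' hw' hl'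
  rw [← h1]
  exact side_const (hj'.trans hj.symm) hne (h.conn j hj) (h.lab j' hj') hw' hl' hw hl

theorem Lbd.not_both (h : Lbd L s c lam v₀ v₁) {j j' : J} (hj : fam j = c)
    (h1 : Ins L s lam j j') (h2 : Out L s lam j j') : False := by
  obtain ⟨⟨w, hw, hl⟩, -⟩ := h.conn j hj
  have e1 := h1 w hw hl
  rw [h2 w hw hl] at e1
  exact absurd e1 (by decide)

/-- a nonempty finite set of sheets of the family has an innermost sheet -/
theorem Lbd.inner (h : Lbd L s c lam v₀ v₁) {I : Finset J} (hI : I.Nonempty)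
    (hf : ∀ i ∈ I, fam i = c) : ∃ i ∈ I, ∀ i' ∈ I, i' ≠ i → Ins L s lam i i' := by
  obtain ⟨W, hW⟩ := h.path
  obtain ⟨i₀, hi₀⟩ := hI
  obtain ⟨a, ha, w, hw, hwI, h1⟩ := first_pt (I := I) (fun i hi => h.lab i (hf i hi))
    (A := fun x => ∀ i ∈ I, x i = 1) (fun x y hxy hx i hi => by rw [← hxy i hi]; exact hx i hi) hW
    (fun i hi => h.one i (hf i hi))
    (fun hcon => by
      have e1 : lam i₀ v₁ = 1 := hcon i₀ hi₀
      have e2 := h.zero i₀ (hf i₀ hi₀)
      rw [e2] at e1
      exact absurd e1 (by decide))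
  refine ⟨s.lab w, hwI, fun i' hi' hne => ?_⟩
  exact h.ins_of_pt (hf _ hwI) (hf i' hi') hne hw rfl (by rw [h1 i' hi' hne]; exact ha i' hi')

/-- a nonempty finite set of sheets of the family has an outermost sheet -/
theorem Lbd.outer (h : Lbd L s c lam v₀ v₁) {I : Finset J} (hI : I.Nonempty)
    (hf : ∀ i ∈ I, fam i = c) : ∃ i ∈ I, ∀ i' ∈ I, i' ≠ i → Out L s lam i i' := by
  obtain ⟨W, hW⟩ := h.path
  obtain ⟨i₀, hi₀⟩ := hI
  obtain ⟨a, ha, w, hw, hwI, h1⟩ := first_pt (I := I) (fun i hi => h.lab i (hf i hi))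
    (A := fun x => ∀ i ∈ I, x i = 0) (fun x y hxy hx i hi => by rw [← hxy i hi]; exact hx i hi)
    (path_symm hW) (fun i hi => h.zero i (hf i hi))
    (fun hcon => by
      have e1 : lam i₀ v₀ = 0 := hcon i₀ hi₀
      have e2 := h.one i₀ (hf i₀ hi₀)
      rw [e2] at e1
      exact absurd e1 (by decide))
  refine ⟨s.lab w, hwI, fun i' hi' hne => ?_⟩
  exact h.out_of_pt (hf _ hwI) (hf i' hi') hne hw rfl (by rw [h1 i' hi' hne]; exact ha i' hi')

/-- **two sheets of the family are nested** -/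
theorem Lbd.tri (h : Lbd L s c lam v₀ v₁) {j j' : J} (hj : fam j = c) (hj' : fam j' = c)
    (hne : j ≠ j') : (Ins L s lam j j' ∧ Out L s lam j' j) ∨ (Ins L s lam j' j ∧ Out L s lam j j') := by
  classical
  have hf : ∀ i ∈ ({j, j'} : Finset J), fam i = c := by
    intro i hi
    rcases Finset.mem_insert.1 hi with rfl | hi
    · exact hj
    · rw [Finset.mem_singleton.1 hi]; exact hj'
  have hn : ({j, j'} : Finset J).Nonempty := ⟨j, Finset.mem_insert_self _ _⟩
  have hjI : j ∈ ({j, j'} : Finset J) := Finset.mem_insert_self _ _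
  have hjI' : j' ∈ ({j, j'} : Finset J) := Finset.mem_insert_of_mem (Finset.mem_singleton_self _)
  have h1 : Ins L s lam j j' ∨ Ins L s lam j' j := by
    obtain ⟨i, hi, h1⟩ := h.inner hn hf
    rcases Finset.mem_insert.1 hi with rfl | hi
    · exact Or.inl (h1 j' hjI' hne.symm)
    · rw [Finset.mem_singleton.1 hi] at h1
      exact Or.inr (h1 j hjI hne)
  have h2 : Out L s lam j j' ∨ Out L s lam j' j := by
    obtain ⟨i, hi, h1⟩ := h.outer hn hf
    rcases Finset.mem_insert.1 hi with rfl | hi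
    · exact Or.inl (h1 j' hjI' hne.symm)
    · rw [Finset.mem_singleton.1 hi] at h1
      exact Or.inr (h1 j hjI hne)
  rcases h1 with h1 | h1
  · rcases h2 with h2 | h2
    · exact (h.not_both hj h1 h2).elim
    · exact Or.inl ⟨h1, h2⟩
  · rcases h2 with h2 | h2
    · exact Or.inr ⟨h1, h2⟩
    · exact (h.not_both hj' h1 h2).elim

theorem Lbd.asymm (h : Lbd L s c lam v₀ v₁) {j j' : J} (hj : fam j = c) (hj' : fam j' = c)
    (hne : j ≠ j') (h1 : Ins L s lam j j') : ¬ Ins L s lam j' j := by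
  intro h2
  rcases h.tri hj hj' hne with ⟨-, h4⟩ | ⟨-, h4⟩
  · exact h.not_both hj' h2 h4
  · exact h.not_both hj h1 h4

theorem Lbd.out_of_not (h : Lbd L s c lam v₀ v₁) {j j' : J} (hj : fam j = c) (hj' : fam j' = c)
    (hne : j ≠ j') (h1 : ¬ Ins L s lam j j') : Ins L s lam j' j ∧ Out L s lam j j' := by
  rcases h.tri hj hj' hne with ⟨h2, -⟩ | h2
  · exact absurd h2 h1
  · exact h2

/-- **transitivity** -/
theorem Lbd.trans (h : Lbd L s c lam v₀ v₁) {j j' j'' : J} (hj : fam j = c) (hj' : fam j' = c)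
    (hj'' : fam j'' = c) (n1 : j ≠ j') (n2 : j' ≠ j'') (h1 : Ins L s lam j j')
    (h2 : Ins L s lam j' j'') : j ≠ j'' ∧ Ins L s lam j j'' := by
  classical
  have n3 : j ≠ j'' := by
    rintro rfl
    exact h.asymm hj hj' n1 h1 h2
  refine ⟨n3, ?_⟩
  by_contra hcon
  have hf : ∀ i ∈ ({j, j', j''} : Finset J), fam i = c := by
    intro i hi
    simp only [Finset.mem_insert, Finset.mem_singleton] at hi
    rcases hi with rfl | rfl | rfl
    · exact hj
    · exact hj'
    · exact hj''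
  obtain ⟨i, hi, h4⟩ := h.inner (I := {j, j', j''}) ⟨j, by simp⟩ hf
  simp only [Finset.mem_insert, Finset.mem_singleton] at hi h4
  rcases hi with rfl | rfl | rfl
  · exact hcon (h4 j'' (Or.inr (Or.inr rfl)) n3.symm)
  · exact h.asymm hj hj' n1 h1 (h4 j (Or.inl rfl) n1)
  · exact h.asymm hj' hj'' n2 h2 (h4 j' (Or.inr (Or.inl rfl)) n2)

/-- **labels are nested** -/
theorem Lbd.mono (h : Lbd L s c lam v₀ v₁) {j j' : J} (hj : fam j = c) (hj' : fam j' = c)
    (hne : j ≠ j') (h1 : Ins L s lam j j') {Z : Set Q} {v : Q}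
    (hv : ReflTransGen (Ed L Z) v v₁) (hv1 : lam j v = 1) : lam j' v = 1 := by
  classical
  by_contra hcon
  have hz : ∀ x : ZMod 2, x ≠ 1 → x = 0 := by decide
  have hcon0 := hz _ hcon
  have hf : ∀ i ∈ ({j, j'} : Finset J), fam i = c := by
    intro i hi
    rcases Finset.mem_insert.1 hi with rfl | hi
    · exact hj
    · rw [Finset.mem_singleton.1 hi]; exact hj'
  have hjI : j ∈ ({j, j'} : Finset J) := Finset.mem_insert_self _ _
  have hjI' : j' ∈ ({j, j'} : Finset J) := Finset.mem_insert_of_mem (Finset.mem_singleton_self _)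
  obtain ⟨a, ha, w, hw, hwI, h4⟩ := first_pt (I := {j, j'})
    (fun i hi => h.lab i (hf i hi)) (A := fun x => x j = 1 ∧ x j' = 0)
    (fun x y hxy hx => ⟨by rw [← hxy j hjI]; exact hx.1, by rw [← hxy j' hjI']; exact hx.2⟩) hv
    ⟨hv1, hcon0⟩ (fun hcon => by
      have e1 : lam j v₁ = 1 := hcon.1
      rw [h.zero j hj] at e1
      exact absurd e1 (by decide))
  have ha1 : lam j a = 1 := ha.1
  have ha2 : lam j' a = 0 := ha.2
  rcases Finset.mem_insert.1 hwI with e | e
  · have e1 := h4 j' hjI' (by rw [e]; exact hne.symm)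
    rw [h1 w hw e, ha2] at e1
    exact absurd e1 (by decide)
  · have e' := Finset.mem_singleton.1 e
    have e1 := h4 j hjI (by rw [e']; exact hne)
    have h5 : Out L s lam j' j := by
      rcases h.tri hj hj' hne with ⟨-, h5⟩ | ⟨h5, -⟩
      · exact h5
      · exact absurd h5 (h.asymm hj hj' hne h1)
    rw [h5 w hw e', ha1] at e1
    exact absurd e1 (by decide)

/-! ### the order number -/

open Classical in
/-- number of the sheets of the family outside `j` -/
noncomputable def ord (L : LM M Q dim) (s : GSt M fam) (lam : J → Q → ZMod 2) (A : Finset J) (j : J) : ℕ :=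
  (A.filter (fun j' => j' ≠ j ∧ Ins L s lam j j')).card

theorem Lbd.ord_lt (h : Lbd L s c lam v₀ v₁) {A : Finset J} (hA : ∀ j ∈ A, fam j = c) {j j' : J}
    (hj : j ∈ A) (hj' : j' ∈ A) (hne : j ≠ j') (h1 : Ins L s lam j j') :
    ord L s lam A j' < ord L s lam A j := by
  classical
  unfold ord
  refine Finset.card_lt_card ⟨?_, ?_⟩
  · intro i hi
    obtain ⟨hiA, hi1, hi2⟩ := Finset.mem_filter.1 hi
    obtain ⟨h4, h5⟩ := h.trans (hA j hj) (hA j' hj') (hA i hiA) hne hi1.symm h1 hi2
    exact Finset.mem_filter.2 ⟨hiA, h4.symm, h5⟩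
  · intro hsub
    have h2 : j' ∈ A.filter (fun i => i ≠ j ∧ Ins L s lam j i) :=
      Finset.mem_filter.2 ⟨hj', hne.symm, h1⟩
    have h4 := hsub h2
    exact (Finset.mem_filter.1 h4).2.1 rfl

/-- **the order number determines the sheet** -/
theorem Lbd.ord_inj (h : Lbd L s c lam v₀ v₁) {A : Finset J} (hA : ∀ j ∈ A, fam j = c) :
    Set.InjOn (ord L s lam A) A := by
  intro j hj j' hj' e
  by_contra hne
  rcases h.tri (hA j hj) (hA j' hj') hne with ⟨h1, -⟩ | ⟨h1, -⟩
  · have := h.ord_lt hA hj hj' hne h1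
    omega
  · have := h.ord_lt hA hj' hj (Ne.symm hne) h1
    omega

theorem ord_lt_card {A : Finset J} {j : J} (hj : j ∈ A) : ord L s lam A j < A.card := by
  classical
  unfold ord
  refine Finset.card_lt_card ⟨Finset.filter_subset _ _, fun hsub => ?_⟩
  exact (Finset.mem_filter.1 (hsub hj)).2.1 rfl



/-! ### the number of a sheet of its family -/

/-- the sheets of the family of `j` -/
noncomputable def sib (hfin : ∀ a, {j | fam j = a}.Finite) (j : J) : Finset J :=
  (hfin (fam j)).toFinset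

theorem mem_sib {hfin : ∀ a, {j | fam j = a}.Finite} {j i : J} :
    i ∈ sib hfin j ↔ fam i = fam j := by
  unfold sib; rw [Finite.mem_toFinset]; rfl

/-- the number of the sheets of the family outside `j` -/
noncomputable def rk (L : LM M Q dim) (s : GSt M fam) (lam : J → Q → ZMod 2)
    (hfin : ∀ a, {j | fam j = a}.Finite) (j : J) : ℕ := ord L s lam (sib hfin j) j

theorem sib_congr {hfin : ∀ a, {j | fam j = a}.Finite} {j j' : J} (h : fam j = fam j') :
    sib hfin j = sib hfin j' := by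
  ext i
  rw [mem_sib, mem_sib, h]

/-- **order**: `j` lies inside `j'` iff its number is larger -/
theorem Lbd.ins_iff (h : Lbd L s c lam v₀ v₁) (hfin : ∀ a, {j | fam j = a}.Finite) {j j' : J}
    (hj : fam j = c) (hj' : fam j' = c) (hne : j ≠ j') :
    Ins L s lam j j' ↔ rk L s lam hfin j' < rk L s lam hfin j := by
  have hA : ∀ i ∈ sib hfin j, fam i = c := fun i hi => (mem_sib.1 hi).trans hj
  have hjm : j ∈ sib hfin j := mem_sib.2 rfl
  have hjm' : j' ∈ sib hfin j := mem_sib.2 (hj'.trans hj.symm)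
  unfold rk
  rw [sib_congr (hfin := hfin) (hj'.trans hj.symm)]
  constructor
  · intro h1
    exact h.ord_lt hA hjm hjm' hne h1
  · intro h1
    by_contra hcon
    obtain ⟨h2, -⟩ := h.out_of_not hj hj' hne hcon
    exact absurd (h.ord_lt hA hjm' hjm hne.symm h2) (not_lt.2 h1.le)

theorem Lbd.rk_inj (h : Lbd L s c lam v₀ v₁) (hfin : ∀ a, {j | fam j = a}.Finite) {j j' : J}
    (hj : fam j = c) (hj' : fam j' = c) (he : rk L s lam hfin j = rk L s lam hfin j') :
    j = j' := by
  by_contra hne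
  by_cases h1 : Ins L s lam j j'
  · have := (h.ins_iff hfin hj hj' hne).1 h1
    omega
  · obtain ⟨h2, -⟩ := h.out_of_not hj hj' hne h1
    have := (h.ins_iff hfin hj' hj (Ne.symm hne)).1 h2
    omega

theorem rk_lt (hfin : ∀ a, {j | fam j = a}.Finite) (j : J) :
    rk L s lam hfin j < (sib hfin j).card := ord_lt_card (mem_sib.2 rfl)

/-- the label of `j'` at any point of `j` -/
theorem Lbd.ext_iff (h : Lbd L s c lam v₀ v₁) (hfin : ∀ a, {j | fam j = a}.Finite) {j j' : J}
    (hj : fam j = c) (hj' : fam j' = c) (hne : j ≠ j') {w : W} (hw : w ∈ s.P)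
    (hl : s.lab w = j) :
    L.ext (gp s j') (lam j') w = 1 ↔ rk L s lam hfin j' < rk L s lam hfin j := by
  rw [← h.ins_iff hfin hj hj' hne]
  constructor
  · intro h1
    exact h.ins_of_pt hj hj' hne.symm hw hl h1
  · intro h1
    exact h1 w hw hl

end Crest.Agent.R096.Gl_422
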