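import Crest.Agent.R096.Gl3_422

/-!
# R096 (row 96), GLUE-STATE over a mesh with labels, part 4 (helper422): labels give a transversal
orientation (`TS` of 298).

`Dir L O τ`: along a 1-cell the positions on a face are monotone in the parameter `t`, increasing iff
`O.dir F = τ`; vertices do not separate points of a 1-cell.
-/

set_option autoImplicit false
set_option linter.unusedSectionVars false

open Set Relation

namespace Crest.Agent.R096.Gl_422

open Crest.Agent.R096.St_147 Crest.Agent.R096.Seq_213 Crest.Agent.R096.Seq_213.GSt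
  Crest.Agent.R096.Lm_117 Crest.Agent.R096.Ac_117 Crest.Agent.R096.Cp_298

variable {ι Φ W Q : Type} [PartialOrder Q] {dim : Q → ℕ} {M : MeshC ι Φ W}
variable {J J1 C K : Type} {fam : J → C} {fam1 : J1 → C}

/-- positions, parameters and directions along the 1-cells -/
structure Dir (L : LM M Q dim) (O : Ori M) (τ : Q → ZMod 2) : Prop where
  dir : ∀ F e, e ≤ L.cf F → ∀ x ∈ L.On1 e, ∀ y ∈ L.On1 e, O.dir F x = O.dir F y
  up : ∀ F e, e ≤ L.cf F → ∀ x ∈ L.On1 e, ∀ y ∈ L.On1 e, L.t x < L.t y → O.dir F x = τ e →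
    M.pos F x < M.pos F y
  down : ∀ F e, e ≤ L.cf F → ∀ x ∈ L.On1 e, ∀ y ∈ L.On1 e, L.t x < L.t y → O.dir F x ≠ τ e →
    M.pos F y < M.pos F x
  vtx : ∀ F e, e ≤ L.cf F → ∀ x ∈ L.On1 e, ∀ y ∈ L.On1 e, ∀ v, v ≤ L.cf F → dim v = 0 →
    (M.pos F x < L.vpos F v ↔ M.pos F y < L.vpos F v)

open Classical in
/-- indicator in `ZMod 2` -/
noncomputable def ind (P : Prop) : ZMod 2 := if P then 1 else 0

theorem ind_pos {P : Prop} (h : P) : ind P = 1 := by unfold ind; rw [if_pos h]

theorem ind_neg {P : Prop} (h : ¬ P) : ind P = 0 := by unfold ind; rw [if_neg h]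

theorem ind_congr {P P' : Prop} (h : P ↔ P') : ind P = ind P' := by
  rw [propext h]

theorem ind_add_not {P P' : Prop} (h : P ↔ ¬ P') : ind P + ind P' = 1 := by
  by_cases hp : P
  · rw [ind_pos hp, ind_neg (h.1 hp), add_zero]
  · have : P' := by
      by_contra h'
      exact hp (h.2 h')
    rw [ind_neg hp, ind_pos this, zero_add]

theorem z2_add_ne {a b : ZMod 2} (h : a ≠ b) : a + b = 1 := by
  revert a b; decide

/-- replacing one point by another one -/
theorem nW_swap [DecidableEq W] {Y : Finset W} {X : Set W} {w u : W} (hw : w ∈ Y) (hu : u ∉ Y) :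
    nW (insert u (Y.erase w)) X = nW Y X + (ind (w ∈ X) + ind (u ∈ X)) := by
  have h1 : u ∉ Y.erase w := fun h => hu (Finset.mem_of_mem_erase h)
  unfold nW
  rw [Finset.sum_insert h1]
  have h2 := Finset.add_sum_erase Y (fun w => (open Classical in if w ∈ X then (1 : ZMod 2) else 0)) hw
  rw [← h2]
  unfold ind
  have e : ∀ a b c : ZMod 2, a + b = c + b + (c + a) := by decide
  exact e _ _ _

theorem cntP_nW (Y : Finset W) (F : Φ) (x : ℝ) :
    cntP M Y F x = nW Y {v | v ∈ M.On F ∧ M.pos F v < x} := by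
  classical
  rw [nW_card]
  unfold cntP
  congr 2
  ext v
  simp

section dir

variable {L : LM M Q dim} {O : Ori M} {τ : Q → ZMod 2}

/-- order on a face and along the 1-cell -/
theorem Dir.pos_iff (D : Dir L O τ) {F : Φ} {e : Q} (he : e ≤ L.cf F) {x y : W}
    (hx : x ∈ L.On1 e) (hy : y ∈ L.On1 e) (hd : O.dir F x = τ e) :
    M.pos F x < M.pos F y ↔ L.t x < L.t y := by
  constructor
  · intro h
    by_contra hcon
    rcases eq_or_lt_of_le (not_lt.1 hcon) with h1 | h1
    · have := L.t_inj y hy.1 x hx.1 (hy.2.trans hx.2.symm) h1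
      rw [this] at h
      exact lt_irrefl _ h
    · exact lt_asymm h (D.up F e he y hy x hx h1 ((D.dir F e he y hy x hx).trans hd))
  · intro h
    exact D.up F e he x hx y hy h hd

theorem Dir.pos_iff' (D : Dir L O τ) {F : Φ} {e : Q} (he : e ≤ L.cf F) {x y : W}
    (hx : x ∈ L.On1 e) (hy : y ∈ L.On1 e) (hd : O.dir F x ≠ τ e) :
    M.pos F x < M.pos F y ↔ L.t y < L.t x := by
  constructor
  · intro h
    by_contra hcon
    rcases eq_or_lt_of_le (not_lt.1 hcon) with h1 | h1
    · have := L.t_inj x hx.1 y hy.1 (hx.2.trans hy.2.symm) h1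
      rw [this] at h
      exact lt_irrefl _ h
    · exact lt_asymm h (D.down F e he x hx y hy h1 hd)
  · intro h
    exact D.down F e he y hy x hx h (by rw [D.dir F e he y hy x hx]; exact hd)

/-- **label before a point outside the pattern** -/
theorem GLab.at_out {Y : Finset W} {lam : Q → ZMod 2} (h : GLab L Y lam) {F : Φ}
    (hY : nW Y (M.On F) = 0) {w : W} (hw : w ∈ M.On F) (hwY : w ∉ Y) {v : Q} (hv : v ≤ L.cf F)
    (hv0 : dim v = 0) :
    L.ext Y lam w = lam v + cntP M Y F (L.vpos F v) + cntP M Y F (M.pos F w) := by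
  obtain ⟨h1, h2⟩ := L.face F Y hY
  have a1 := (h.xl (L.cf F)).unique_ext h1 (fun _ _ => Iff.rfl) hv hv0 ((L.on_iff F w).1 hw)
  rw [h2 w hw hwY] at a1
  have e : ∀ a b z : ZMod 2, a + b = z → a = z + b := by decide
  exact e _ _ _ a1

/-- **label before a point of the pattern, in the direction of the positions** -/
theorem GLab.at_in (D : Dir L O τ) {Y : Finset W} {lam : Q → ZMod 2} (h : GLab L Y lam) {F : Φ}
    (hY : nW Y (M.On F) = 0) {w : W} (hw : w ∈ M.On F) (hwY : w ∈ Y) {v : Q} (hv : v ≤ L.cf F)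
    (hv0 : dim v = 0) :
    L.ext Y lam w + (O.dir F w + τ (L.ed w)) =
      lam v + cntP M Y F (L.vpos F v) + cntP M Y F (M.pos F w) := by
  classical
  obtain ⟨hw1, hwF⟩ := (L.on_iff F w).1 hw
  obtain ⟨u, ⟨hu1, hue⟩, huY⟩ := ((L.inf w hw1).sdiff Y.finite_toSet).nonempty
  have huY : u ∉ Y := fun h' => huY (Finset.mem_coe.2 h')
  have huw : u ≠ w := fun h' => huY (by rw [h']; exact hwY)
  have hwe : w ∈ L.On1 (L.ed w) := ⟨hw1, rfl⟩
  have hu : u ∈ L.On1 (L.ed w) := ⟨hu1, hue⟩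
  have huF : u ∈ M.On F := (L.on_iff F u).2 ⟨hu1, by rw [hue]; exact hwF⟩
  set Y' : Finset W := insert u (Y.erase w) with hY'
  have hwY' : w ∉ Y' := by
    rw [hY', Finset.mem_insert, not_or]
    exact ⟨huw.symm, Finset.notMem_erase _ _⟩
  have e1 : nW Y' (M.On F) = 0 := by
    rw [hY', nW_swap hwY huY, hY, ind_pos hw, ind_pos huF]; decide
  have h' : GLab L Y' lam := by
    intro e he
    rw [h e he, hY', nW_swap hwY huY]
    have : ind (w ∈ L.On1 e) = ind (u ∈ L.On1 e) := ind_congr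
      ⟨fun h1 => ⟨hu1, hue.trans h1.2⟩, fun h1 => ⟨hw1, hue.symm.trans h1.2⟩⟩
    rw [this, Lm_117.add_self, add_zero]
  have e2 := h'.at_out e1 hw hwY' hv hv0
  have e3 : L.ext Y' lam w = L.ext Y lam w + ind (L.t u < L.t w) := by
    unfold Sk.ext Sk.pre
    have hn : ¬ (w ∈ {x | x ∈ L.W1 ∧ L.ed x = L.ed w ∧ L.t x < L.t w}) :=
      fun h1 => lt_irrefl _ h1.2.2
    rw [hY', nW_swap hwY huY, ind_neg hn, zero_add, add_assoc]
    congr 2
    exact ind_congr ⟨fun h1 => h1.2.2, fun h1 => ⟨hu1, hue, h1⟩⟩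
  have e4 : cntP M Y' F (L.vpos F v) = cntP M Y F (L.vpos F v) := by
    rw [cntP_nW, cntP_nW, hY', nW_swap hwY huY]
    have : ind (w ∈ {v' | v' ∈ M.On F ∧ M.pos F v' < L.vpos F v}) =
        ind (u ∈ {v' | v' ∈ M.On F ∧ M.pos F v' < L.vpos F v}) := ind_congr
      ⟨fun h1 => ⟨huF, (D.vtx F _ hwF w hwe u hu v hv hv0).1 h1.2⟩,
        fun h1 => ⟨hw, (D.vtx F _ hwF w hwe u hu v hv hv0).2 h1.2⟩⟩
    rw [this, Lm_117.add_self, add_zero]
  have e5 : cntP M Y' F (M.pos F w) = cntP M Y F (M.pos F w) + ind (M.pos F u < M.pos F w) := by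
    have hn : ¬ (w ∈ {v' | v' ∈ M.On F ∧ M.pos F v' < M.pos F w}) := fun h1 => lt_irrefl _ h1.2
    rw [cntP_nW, cntP_nW, hY', nW_swap hwY huY, ind_neg hn, zero_add]
    congr 1
    exact ind_congr ⟨fun h1 => h1.2, fun h1 => ⟨huF, h1⟩⟩
  have e6 : ind (L.t u < L.t w) + ind (M.pos F u < M.pos F w) = O.dir F w + τ (L.ed w) := by
    by_cases hd : O.dir F u = τ (L.ed w)
    · rw [ind_congr (D.pos_iff hwF hu hwe hd), Lm_117.add_self,
        ← D.dir F _ hwF u hu w hwe, hd, Lm_117.add_self]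
    · have hne : ¬ L.t u < L.t w ↔ L.t w < L.t u := by
        constructor
        · intro h1
          refine lt_of_le_of_ne (not_lt.1 h1) fun h2 => huw ?_
          exact (L.t_inj w hw1 u hu1 hue.symm h2).symm
        · intro h1
          exact not_lt.2 h1.le
      have : L.t u < L.t w ↔ ¬ M.pos F u < M.pos F w := by
        rw [D.pos_iff' hwF hu hwe hd, ← hne, not_not]
      rw [ind_add_not this, ← D.dir F _ hwF u hu w hwe, z2_add_ne hd]
  rw [e3, e4, e5] at e2
  have e : ∀ a b x y z d : ZMod 2, a + b = z + (x + y) → b + y = d → a + d = z + x := by decide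
  exact e _ _ _ _ _ _ (e2.trans (by ring)) e6

/-- a chord separates an even number of points of its own sheet -/
theorem bet_own {s : GSt M fam} {j : J} {F : Φ} {w : W} (hw : w ∈ s.P) (hwF : w ∈ M.On F)
    (hwj : s.lab w = j) : bet M F (gp s j) w (s.mu F w) = 0 := by
  classical
  unfold bet
  have hmu := s.mu_mem hw hwF
  have hirr : ∀ {q : W}, M.Btw F w (s.mu F w) q → q ≠ w ∧ q ≠ s.mu F w := by
    intro q hq
    constructor
    · rintro rfl
      rcases hq with h | h
      · exact lt_irrefl _ h.1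
      · exact lt_irrefl _ h.2
    · rintro rfl
      rcases hq with h | h
      · exact lt_irrefl _ h.2
      · exact lt_irrefl _ h.1
  have h1 : ∑ _q ∈ (gp s j).filter (fun q => q ∈ M.On F ∧ M.Btw F w (s.mu F w) q),
      (1 : ZMod 2) = 0 := by
    refine Finset.sum_involution (fun q _ => s.mu F q) (fun q hq => by decide)
      (fun q hq _ => ?_) (fun q hq => ?_) (fun q hq => ?_)
    · obtain ⟨a0, a3, -⟩ := Finset.mem_filter.1 hq
      exact s.mu_ne (mem_gp.1 a0).1 a3
    · obtain ⟨a0, a3, hq3⟩ := Finset.mem_filter.1 hq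
      obtain ⟨a1, a2⟩ := mem_gp.1 a0
      obtain ⟨b1, b2⟩ := s.mu_mem a1 a3
      have b3 := s.mu_lab a1 a3
      obtain ⟨n1, n2⟩ := hirr hq3
      have hnl : ¬ M.Lace F w (s.mu F w) q (s.mu F q) :=
        s.nc hw hwF a1 a3 (by rw [hwj, a2]) n1 n2
      have hl : (M.Btw F w (s.mu F w) q ↔ M.Btw F w (s.mu F w) (s.mu F q)) := by
        by_contra hcon
        exact hnl hcon
      exact Finset.mem_filter.2 ⟨mem_gp.2 ⟨b1, b3.trans a2⟩, b2, hl.1 hq3⟩
    · obtain ⟨a0, a3, -⟩ := Finset.mem_filter.1 hq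
      exact s.mu_mu (mem_gp.1 a0).1 a3
  rw [Finset.sum_const, nsmul_eq_mul, mul_one] at h1
  convert h1

/-- positions of two points of the pattern -/
theorem cntP_add_in {F : Φ} {Y : Finset W} {w w' : W} (hw : w ∈ M.On F) (hw' : w' ∈ M.On F)
    (hwY : w ∈ Y) (hwY' : w' ∈ Y) (hne : w ≠ w') :
    cntP M Y F (M.pos F w) + cntP M Y F (M.pos F w') = bet M F Y w w' + 1 := by
  classical
  have key : ∀ {w w' : W}, w ∈ M.On F → w' ∈ M.On F → w ∈ Y → w' ∈ Y →
      M.pos F w < M.pos F w' →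
      cntP M Y F (M.pos F w) + cntP M Y F (M.pos F w') = bet M F Y w w' + 1 := by
    intro w w' hw hw' hwY hwY' hle
    unfold cntP bet
    have e : Y.filter (fun v => v ∈ M.On F ∧ M.pos F v < M.pos F w') =
        (Y.filter (fun v => v ∈ M.On F ∧ M.pos F v < M.pos F w) ∪
          Y.filter (fun q => q ∈ M.On F ∧ M.Btw F w w' q)) ∪ {w} := by
      ext q
      simp only [Finset.mem_union, Finset.mem_filter, Finset.mem_singleton]
      constructor
      · rintro ⟨h1, h2, h4⟩
        by_cases h5 : M.pos F q < M.pos F w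
        · exact Or.inl (Or.inl ⟨h1, h2, h5⟩)
        · rcases eq_or_lt_of_le (not_lt.1 h5) with h6 | h6
          · exact Or.inr (M.pos_inj F h2 hw h6.symm)
          · exact Or.inl (Or.inr ⟨h1, h2, Or.inl ⟨h6, h4⟩⟩)
      · rintro ((⟨h1, h2, h4⟩ | ⟨h1, h2, h4 | h4⟩) | rfl)
        · exact ⟨h1, h2, h4.trans hle⟩
        · exact ⟨h1, h2, h4.2⟩
        · exact absurd (h4.1.trans h4.2) (not_lt.2 hle.le)
        · exact ⟨hwY, hw, hle⟩
    have hd : Disjoint (Y.filter (fun v => v ∈ M.On F ∧ M.pos F v < M.pos F w))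
        (Y.filter (fun q => q ∈ M.On F ∧ M.Btw F w w' q)) := by
      rw [Finset.disjoint_left]
      intro q h1 h2
      obtain ⟨-, -, h4⟩ := Finset.mem_filter.1 h1
      obtain ⟨-, -, h5 | h5⟩ := Finset.mem_filter.1 h2
      · exact lt_asymm h4 h5.1
      · exact absurd (h5.1.trans h5.2) (not_lt.2 hle.le)
    have hd' : Disjoint (Y.filter (fun v => v ∈ M.On F ∧ M.pos F v < M.pos F w) ∪
        Y.filter (fun q => q ∈ M.On F ∧ M.Btw F w w' q)) {w} := by
      rw [Finset.disjoint_singleton_right, Finset.mem_union, not_or]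
      refine ⟨fun h1 => ?_, fun h1 => ?_⟩
      · exact lt_irrefl _ (Finset.mem_filter.1 h1).2.2
      · obtain ⟨-, -, h5 | h5⟩ := Finset.mem_filter.1 h1
        · exact lt_irrefl _ h5.1
        · exact lt_irrefl _ h5.2
    rw [e, Finset.card_union_of_disjoint hd', Finset.card_union_of_disjoint hd,
      Finset.card_singleton, Nat.cast_add, Nat.cast_add, Nat.cast_one]
    have e2 : ∀ a b : ZMod 2, a + (a + b + 1) = b + 1 := by decide
    exact e2 _ _
  rcases lt_trichotomy (M.pos F w) (M.pos F w') with h | h | h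
  · exact key hw hw' hwY hwY' h
  · exact absurd (M.pos_inj F hw hw' h) hne
  · rw [add_comm, key hw' hw hwY' hwY h]
    unfold bet
    simp only [btw_symm M (w := w') (w' := w)]

/-- the transversal orientation given by labels: label before the point, in the direction of `O` -/
noncomputable def sgm (L : LM M Q dim) (τ : Q → ZMod 2) (s : GSt M fam) (lam : J → Q → ZMod 2)
    (w : W) : ZMod 2 := τ (L.ed w) + L.ext (gp s (s.lab w)) (lam (s.lab w)) w

/-- **labels give a transversal orientation** -/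
theorem ts_of_lab (D : Dir L O τ) {s : GSt M fam} {lam : J → Q → ZMod 2}
    (hl : ∀ j, GLab L (gp s j) (lam j)) : TS s O (sgm L τ s lam) := by
  intro F w hat
  obtain ⟨hw, hwF⟩ := hat
  obtain ⟨hm, hmF⟩ := s.mu_mem hw hwF
  have hml := s.mu_lab hw hwF
  obtain ⟨v, hv, hv0⟩ := L.base (L.cf F)
  have h1 := GLab.at_in D (hl (s.lab w)) (gp_even s _ F) hwF (mem_gp.2 ⟨hw, rfl⟩) hv hv0
  have h2 := GLab.at_in D (hl (s.lab w)) (gp_even s _ F) hmF (mem_gp.2 ⟨hm, hml⟩) hv hv0
  have h4 := cntP_add_in hwF hmF (mem_gp.2 ⟨hw, rfl⟩) (mem_gp.2 ⟨hm, hml⟩) (s.mu_ne hw hwF).symm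
  rw [bet_own hw hwF rfl, zero_add] at h4
  unfold sgm
  rw [hml]
  have e : ∀ a b d d' t t' z x y : ZMod 2, a + (d + t) = z + x → b + (d' + t') = z + y →
      x + y = 1 → t + a + (t' + b) + (d + d') = 1 := by decide
  exact e _ _ _ _ _ _ _ _ _ h1 h2 h4

end dir

end Crest.Agent.R096.Gl_422
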