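import Crest.Agent.R096.Gl4_422

/-!
# R096 (row 96), GLUE-STATE over a mesh with labels, part 5 (helper422): ORDER OF THE COPIES.

`σ₀` = orientation given by the labels of the initial state (`sgm`).  For two sheets `j ≠ j'` of a
family of the final state: if the originals are different, `j` lies inside `j'` iff `p j` lies inside
`p j'`; if the originals agree, `j` lies inside `j'` iff `m j' < m j`.
-/

set_option autoImplicit false
set_option linter.unusedSectionVars false

open Set Relation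

namespace Crest.Agent.R096.Gl_422

open Crest.Agent.R096.St_147 Crest.Agent.R096.Seq_213 Crest.Agent.R096.Seq_213.GSt
  Crest.Agent.R096.Lm_117 Crest.Agent.R096.Ac_117 Crest.Agent.R096.Cp_298

variable {ι Φ W Q : Type} [PartialOrder Q] {dim : Q → ℕ} {M : MeshC ι Φ W}
variable {J J1 C K : Type} {fam : J → C} {fam1 : J1 → C}

/-- along a path of 1-cells in `Z` on which the label of a sheet changes there is a point of the
sheet; both ends of its 1-cell are joined with the beginning -/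
theorem exists_pt {L : LM M Q dim} {Y : Finset W} {lam : Q → ZMod 2} (h : GLab L Y lam)
    {Z : Set Q} {v v' : Q} (hp : ReflTransGen (Ed L Z) v v') (hne : lam v ≠ lam v') :
    ∃ x ∈ Y, x ∈ L.W1 ∧ L.ed x ∈ Z ∧ ∀ b, ReflTransGen (Ed L Z) v (L.en (L.ed x) b) := by
  induction hp with
  | refl => exact absurd rfl hne
  | @tail a b hab hs ih =>
    by_cases ha : lam v = lam a
    swap
    · exact ih ha
    have hs' := hs
    obtain ⟨e, heZ, he, c, rfl, rfl⟩ := hs'
    have h1 : nW Y (L.On1 e) ≠ 0 := by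
      rw [← h e he]
      intro h0
      apply hne
      rw [ha]
      have e1 := CharTwo.add_eq_zero.1 h0
      cases c
      · exact e1
      · exact e1.symm
    obtain ⟨x, hx, hxe⟩ : ∃ x ∈ Y, x ∈ L.On1 e := by
      by_contra hcon
      push Not at hcon
      exact h1 (nW_empty hcon)
    refine ⟨x, hx, hxe.1, by rw [hxe.2]; exact heZ, fun b => ?_⟩
    rw [hxe.2]
    by_cases hbc : b = c
    · rw [hbc]; exact hab
    · have : b = !c := by
        revert hbc; cases b <;> cases c <;> simp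
      rw [this]
      exact hab.tail hs

section cps

variable {L : LM M Q dim} {O : Ori M} {τ : Q → ZMod 2} {Qd : Quads ι C K} {Rel : W → W → Prop}
  {s₀ : GSt M fam} {far₀ : J → Set W} {σ₀ : W → ZMod 2} {p : J1 → J} {m : J1 → ℕ}
  {s : GSt M fam1} {far : J1 → Set W} {β : W → W} {lam₀ : J → Q → ZMod 2}
  {lam : J1 → Q → ZMod 2}

variable (D : Dir L O τ) (h : Cps O Qd Rel s₀ far₀ σ₀ p m s far β)
  (hR : ∀ x w, Rel x w → w ∈ L.W1 → x ∈ L.W1 ∧ L.ed x = L.ed w)
  (hP0 : ∀ w ∈ s₀.P, w ∈ L.W1)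
include D h hR hP0

/-- **order along a 1-cell** -/
theorem t_lt_iff {x y : W} (hx : x ∈ s.P) (hy : y ∈ s.P) (he : L.ed y = L.ed x) {F : Φ}
    (hF : L.ed x ≤ L.cf F) (hne : β x ≠ β y) :
    L.t x < L.t y ↔ L.t (β x) < L.t (β y) := by
  have hx1 := on_final h hR hP0 x hx
  have hy1 := on_final h hR hP0 y hy
  have hbx := hP0 _ (h.mem hx)
  have hby := hP0 _ (h.mem hy)
  have ebx := ed_final h hR hP0 hx
  have eby := ed_final h hR hP0 hy
  have ax : x ∈ L.On1 (L.ed x) := ⟨hx1, rfl⟩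
  have ay : y ∈ L.On1 (L.ed x) := ⟨hy1, he⟩
  have bx : β x ∈ L.On1 (L.ed x) := ⟨hbx, ebx.symm⟩
  have by' : β y ∈ L.On1 (L.ed x) := ⟨hby, eby.symm.trans he⟩
  have atx : s.At F x := ⟨hx, (L.on_iff F x).2 ⟨hx1, hF⟩⟩
  have aty : s.At F y := ⟨hy, (L.on_iff F y).2 ⟨hy1, by rw [he]; exact hF⟩⟩
  have obx : β x ∈ M.On F := (L.on_iff F _).2 ⟨hbx, by rw [← ebx]; exact hF⟩
  have oby : β y ∈ M.On F := (L.on_iff F _).2 ⟨hby, by rw [← eby, he]; exact hF⟩
  have hpos : M.pos F x < M.pos F y ↔ M.pos F (β x) < M.pos F (β y) := by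
    constructor
    · intro h1
      by_contra h2
      rcases eq_or_lt_of_le (not_lt.1 h2) with h4 | h4
      · exact hne (M.pos_inj F oby obx h4).symm
      · exact lt_asymm h1 (h.lt aty atx h4)
    · intro h1
      exact h.lt atx aty h1
  by_cases hd : O.dir F x = τ (L.ed x)
  · rw [← D.pos_iff hF ax ay hd, ← D.pos_iff hF bx by' ((D.dir F _ hF _ bx _ ax).trans hd), hpos]
  · have hpos' : M.pos F y < M.pos F x ↔ M.pos F (β y) < M.pos F (β x) := by
      constructor
      · intro h1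
        by_contra h2
        rcases eq_or_lt_of_le (not_lt.1 h2) with h4 | h4
        · exact hne (M.pos_inj F obx oby h4)
        · exact lt_asymm h1 (h.lt atx aty h4)
      · intro h1
        exact h.lt aty atx h1
    have hdy : O.dir F y ≠ τ (L.ed x) := by rw [D.dir F _ hF _ ay _ ax]; exact hd
    have hdb : O.dir F (β y) ≠ τ (L.ed x) := by rw [D.dir F _ hF _ by' _ ax]; exact hd
    rw [← D.pos_iff' hF ay ax hdy, ← D.pos_iff' hF by' bx hdb, hpos']

/-- **labels at frozen points**: the label of the final sheet `j'` at `x` is the label of its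
original at `β x`, changed by 1 if the parallel point of `j'` lies before `x` -/
theorem ext_frozen (hp : ∀ j, fam (p j) = fam1 j) (hI₀ : s₀.Inv Qd far₀) (hI : s.Inv Qd far)
    {j' : J1} {x : W} (hx : x ∈ s.P) (hfr : FrE L Qd (fam1 j') (L.ed x)) {F : Φ}
    (hF : L.ed x ≤ L.cf F)
    (hv : lam j' (L.en (L.ed x) false) = lam₀ (p j') (L.en (L.ed x) false)) :
    L.ext (gp s j') (lam j') x = L.ext (gp s₀ (p j')) (lam₀ (p j')) (β x) +
      ind (∃ y ∈ far j', β y = β x ∧ L.t y < L.t x) := by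
  classical
  have hx1 := on_final h hR hP0 x hx
  have ebx := ed_final h hR hP0 hx
  have hb := bij_final h hR hP0 hp hI₀ hI hfr
  have hfar : ∀ z, z ∈ gp s j' → L.ed z = L.ed x → z ∈ far j' := by
    intro z hz hze
    obtain ⟨h1, h2⟩ := mem_gp.1 hz
    have := mem_far (L := L) hI h1 (on_final h hR hP0 z h1) (by rw [h2, hze]; exact hfr)
    rwa [h2] at this
  set A : Finset W := (gp s j').filter (fun z => z ∈ {z | z ∈ L.W1 ∧ L.ed z = L.ed x ∧
    L.t z < L.t x}) with hA
  set B : Finset W := (gp s₀ (p j')).filter (fun w => w ∈ {w | w ∈ L.W1 ∧ L.ed w = L.ed (β x) ∧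
    L.t w < L.t (β x)}) with hB
  have e1 : (A.filter (fun z => ¬ β z = β x)).card = B.card := by
    refine Finset.card_bij (fun z _ => β z) ?_ ?_ ?_
    · intro z hz
      obtain ⟨h1, h2⟩ := Finset.mem_filter.1 hz
      obtain ⟨h4, h5, h6, h7⟩ := Finset.mem_filter.1 h1
      obtain ⟨a1, a2⟩ := mem_gp.1 h4
      obtain ⟨b1, b2, b3, b4⟩ := hb.mapsTo ⟨a1, a2, h5, h6⟩
      refine Finset.mem_filter.2 ⟨mem_gp.2 ⟨b1, b2⟩, b3, b4.trans ebx, ?_⟩
      exact (t_lt_iff D h hR hP0 a1 hx h6.symm (by rw [h6]; exact hF) h2).1 h7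
    · intro z hz z' hz' e
      have h1 := (Finset.mem_filter.1 (Finset.mem_filter.1 hz).1)
      have h2 := (Finset.mem_filter.1 (Finset.mem_filter.1 hz').1)
      obtain ⟨a1, a2⟩ := mem_gp.1 h1.1
      obtain ⟨a3, a4⟩ := mem_gp.1 h2.1
      exact hb.injOn ⟨a1, a2, h1.2.1, h1.2.2.1⟩ ⟨a3, a4, h2.2.1, h2.2.2.1⟩ e
    · intro w hw
      obtain ⟨h4, h5, h6, h7⟩ := Finset.mem_filter.1 hw
      obtain ⟨a1, a2⟩ := mem_gp.1 h4
      obtain ⟨z, ⟨b1, b2, b3, b4⟩, rfl⟩ := hb.surjOn ⟨a1, a2, h5, h6.trans ebx.symm⟩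
      have hne : β z ≠ β x := fun e => by rw [e] at h7; exact lt_irrefl _ h7
      refine ⟨z, Finset.mem_filter.2 ⟨Finset.mem_filter.2 ⟨mem_gp.2 ⟨b1, b2⟩, b3, b4, ?_⟩, hne⟩,
        rfl⟩
      exact (t_lt_iff D h hR hP0 b1 hx b4.symm (by rw [b4]; exact hF) hne).2 h7
  have e2 : (((A.filter (fun z => β z = β x)).card : ℕ) : ZMod 2) =
      ind (∃ y ∈ far j', β y = β x ∧ L.t y < L.t x) := by
    by_cases hex : ∃ y ∈ far j', β y = β x ∧ L.t y < L.t x
    · rw [ind_pos hex]
      obtain ⟨y, hy, hyx, hyt⟩ := hex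
      obtain ⟨b1, b2⟩ := hI.far_mem hy
      have hy1 := on_final h hR hP0 y b1
      have hye : L.ed y = L.ed x := by
        rw [ed_final h hR hP0 b1, hyx, ← ebx]
      have : A.filter (fun z => β z = β x) = {y} := by
        ext z
        rw [Finset.mem_singleton]
        constructor
        · intro hz
          obtain ⟨h1, h2⟩ := Finset.mem_filter.1 hz
          obtain ⟨h4, h5, h6, h7⟩ := Finset.mem_filter.1 h1
          exact h.far_uniq (hfar z h4 h6) hy (h2.trans hyx.symm)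
        · rintro rfl
          exact Finset.mem_filter.2 ⟨Finset.mem_filter.2 ⟨mem_gp.2 ⟨b1, b2⟩, hy1, hye, hyt⟩, hyx⟩
      rw [this, Finset.card_singleton, Nat.cast_one]
    · rw [ind_neg hex]
      have : A.filter (fun z => β z = β x) = ∅ := by
        rw [Finset.filter_eq_empty_iff]
        intro z hz he
        obtain ⟨h4, h5, h6, h7⟩ := Finset.mem_filter.1 hz
        exact hex ⟨z, hfar z h4 h6, he, h7⟩
      rw [this, Finset.card_empty, Nat.cast_zero]
  have e3 : L.pre (gp s j') x = L.pre (gp s₀ (p j')) (β x) +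
      ind (∃ y ∈ far j', β y = β x ∧ L.t y < L.t x) := by
    unfold Sk.pre
    rw [nW_card, nW_card]
    have e4 : (A.card : ZMod 2) = (B.card : ZMod 2) +
        ind (∃ y ∈ far j', β y = β x ∧ L.t y < L.t x) := by
      rw [← Finset.card_filter_add_card_filter_not (s := A) (fun z => β z = β x), Nat.cast_add,
        e2, e1, add_comm]
    convert e4
  unfold Sk.ext
  rw [e3, hv, ← ebx, add_assoc]

end cps

section order

variable {L : LM M Q dim} {O : Ori M} {τ : Q → ZMod 2} {Qd : Quads ι C K} {Rel : W → W → Prop}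
  {s₀ : GSt M fam} {far₀ : J → Set W} {p : J1 → J} {m : J1 → ℕ}
  {s : GSt M fam1} {far : J1 → Set W} {β : W → W} {lam₀ : J → Q → ZMod 2}
  {lam : J1 → Q → ZMod 2} {Z : C → Set Q} {v₀ v₁ : C → Q}

/-- a frozen point of every final sheet -/
theorem exists_frozen (D1 : LabOut L Qd s Z p lam₀ v₀ v₁ lam) (j : J1) :
    ∃ x ∈ s.P, s.lab x = j ∧ FrE L Qd (fam1 j) (L.ed x) ∧
      ∀ b, ReflTransGen (Ed L {e | FrE L Qd (fam1 j) e}) (v₀ (fam1 j)) (L.en (L.ed x) b) := by
  obtain ⟨x, hx, -, h2, h4⟩ := exists_pt (D1.lab j) (D1.rope j)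
    (by rw [D1.one j, D1.zero j]; decide)
  obtain ⟨a1, a2⟩ := mem_gp.1 hx
  exact ⟨x, a1, a2, h2, h4⟩

variable (D : Dir L O τ) (h : Cps O Qd Rel s₀ far₀ (sgm L τ s₀ lam₀) p m s far β)
  (hR : ∀ x w, Rel x w → w ∈ L.W1 → x ∈ L.W1 ∧ L.ed x = L.ed w)
  (hP0 : ∀ w ∈ s₀.P, w ∈ L.W1) (hface : ∀ w ∈ s₀.P, ∃ F, w ∈ M.On F)
  (hp : ∀ j, fam (p j) = fam1 j) (hI₀ : s₀.Inv Qd far₀) (hI : s.Inv Qd far)
  (D1 : LabOut L Qd s Z p lam₀ v₀ v₁ lam) 
  (hlb : ∀ j, Lbd L s₀ (fam1 j) lam₀ (v₀ (fam1 j)) (v₁ (fam1 j)))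
include D h hR hP0 hface hp hI₀ hI D1 hlb

/-- **different originals** -/
theorem ins_other {j j' : J1} (hf : fam1 j = fam1 j') (hne : p j ≠ p j') :
    Ins L s lam j j' ↔ Ins L s₀ lam₀ (p j) (p j') := by
  obtain ⟨x, hx, hxl, hfr, hreach⟩ := exists_frozen D1 j
  have hx1 := D1.on x hx
  have hxf : x ∈ far j := by
    have := mem_far (L := L) hI hx hx1 (by rw [hxl]; exact hfr)
    rwa [hxl] at this
  obtain ⟨b1, b2⟩ := hI₀.far_mem (h.far_mem hxf)
  obtain ⟨F, hF⟩ := hface _ b1
  have hF' : L.ed x ≤ L.cf F := by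
    rw [ed_final h hR hP0 hx]; exact ((L.on_iff F _).1 hF).2
  rw [hf] at hfr hreach
  have e1 := ext_frozen D h hR hP0 hp hI₀ hI hx hfr hF' (D1.frz j' _ (hreach false))
  rw [ind_neg, add_zero] at e1
  swap
  · rintro ⟨y, hy, hyx, -⟩
    apply hne
    rw [← b2, ← hyx]
    exact (hI₀.far_mem (h.far_mem hy)).2
  have hne1 : j' ≠ j := fun e => hne (by rw [e])
  constructor
  · intro h1
    refine (hlb j').ins_of_pt (hp j |>.trans hf) (hp j') hne.symm b1 b2 ?_
    rw [← e1]
    exact h1 x hx hxl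
  · intro h1
    refine (D1.lbd j').ins_of_pt hf rfl hne1 hx hxl ?_
    rw [e1]
    exact h1 _ b1 b2

/-- **the same original**: bigger copy number = further inside -/
theorem ins_same {j j' : J1} (he : p j = p j') (hm : m j ≠ m j') :
    Ins L s lam j j' ↔ m j' < m j := by
  have hf : fam1 j = fam1 j' := by rw [← hp, ← hp, he]
  have hne1 : j' ≠ j := fun e => hm (by rw [e])
  obtain ⟨x, hx, hxl, hfr, hreach⟩ := exists_frozen D1 j
  have hx1 := D1.on x hx
  have hxf : x ∈ far j := by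
    have := mem_far (L := L) hI hx hx1 (by rw [hxl]; exact hfr)
    rwa [hxl] at this
  have hbf := h.far_mem hxf
  obtain ⟨b1, b2⟩ := hI₀.far_mem hbf
  obtain ⟨F, hF⟩ := hface _ b1
  have ebx := ed_final h hR hP0 hx
  have hbe : L.ed (β x) ≤ L.cf F := ((L.on_iff F _).1 hF).2
  have hF' : L.ed x ≤ L.cf F := by rw [ebx]; exact hbe
  obtain ⟨y, hy, hyx⟩ := h.far_ex (j := j') (by rw [← he]; exact hbf)
  obtain ⟨c1, c2⟩ := hI.far_mem hy
  have hy1 := D1.on y c1
  have hye : L.ed y = L.ed x := by rw [ed_final h hR hP0 c1, hyx, ← ebx]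
  rw [hf] at hfr hreach
  have e1 := ext_frozen D h hR hP0 hp hI₀ hI hx hfr hF' (D1.frz j' _ (hreach false))
  have e2 : ind (∃ y ∈ far j', β y = β x ∧ L.t y < L.t x) = ind (L.t y < L.t x) := by
    refine ind_congr ⟨?_, fun h1 => ⟨y, hy, hyx, h1⟩⟩
    rintro ⟨z, hz, hzx, hzt⟩
    have := h.far_uniq hz hy (hzx.trans hyx.symm)
    rwa [← this]
  rw [e2, ← he] at e1
  -- the own label of the original
  set a : ZMod 2 := L.ext (gp s₀ (p j)) (lam₀ (p j)) (β x) with ha
  have hsg : sgm L τ s₀ lam₀ (β x) = τ (L.ed x) + a := by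
    unfold sgm
    rw [b2, ← ebx]
  have ax : x ∈ L.On1 (L.ed x) := ⟨hx1, rfl⟩
  have ay : y ∈ L.On1 (L.ed x) := ⟨hy1, hye⟩
  have bx : β x ∈ L.On1 (L.ed x) := ⟨hP0 _ b1, ebx.symm⟩
  have hdx : O.dir F (β x) = O.dir F x := D.dir F _ hF' _ bx _ ax
  have hdy : O.dir F y = O.dir F x := D.dir F _ hF' _ ay _ ax
  have oxF : x ∈ M.On F := (L.on_iff F x).2 ⟨hx1, hF'⟩
  have oyF : y ∈ M.On F := (L.on_iff F y).2 ⟨hy1, by rw [hye]; exact hF'⟩
  have hxy : x ≠ y := by
    rintro rfl
    exact hne1 (c2.symm.trans hxl)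
  -- `t y < t x` iff ...
  have key : (m j < m j' → (L.t y < L.t x ↔ a = 1)) ∧ (m j' < m j → (L.t y < L.t x ↔ a = 0)) := by
    have hz : ∀ z : ZMod 2, z = 0 ∨ z = 1 := by decide
    have n01 : (0 : ZMod 2) ≠ 1 := by decide
    constructor
    · intro hmm
      obtain ⟨u1, u2⟩ := h.far_ord he hmm hxf hy hyx.symm oxF
      rw [hsg, hdx] at u1 u2
      by_cases hd : O.dir F x = τ (L.ed x)
      · have hd' : O.dir F y = τ (L.ed x) := hdy.trans hd
        rcases hz a with h0 | h0
        · have h4 := u1 (by rw [hd, h0, add_zero, Lm_117.add_self])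
          have h5 := (D.pos_iff hF' ax ay hd).1 h4
          rw [h0]
          exact ⟨fun h6 => absurd h6 (not_lt.2 h5.le), fun h6 => absurd h6 n01⟩
        · have h4 := u2 (by rw [hd, h0]; generalize τ (L.ed x) = z; revert z; decide)
          have h5 := (D.pos_iff hF' ay ax hd').1 h4
          exact ⟨fun _ => h0, fun _ => h5⟩
      · have hd' : O.dir F y ≠ τ (L.ed x) := by rw [hdy]; exact hd
        have hs := z2_add_ne hd
        rcases hz a with h0 | h0
        · have h4 := u2 (by rw [h0, add_zero, add_comm]; exact hs)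
          have h5 := (D.pos_iff' hF' ay ax hd').1 h4
          rw [h0]
          exact ⟨fun h6 => absurd h6 (not_lt.2 h5.le), fun h6 => absurd h6 n01⟩
        · have h4 := u1 (by
            rw [h0]
            generalize τ (L.ed x) = z at hs ⊢
            generalize O.dir F x = z' at hs ⊢
            revert z z'; decide)
          have h5 := (D.pos_iff' hF' ax ay hd).1 h4
          exact ⟨fun _ => h0, fun _ => h5⟩
    · intro hmm
      obtain ⟨u1, u2⟩ := h.far_ord he.symm hmm hy hxf hyx oyF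
      rw [hyx, hsg, hdx] at u1 u2
      by_cases hd : O.dir F x = τ (L.ed x)
      · have hd' : O.dir F y = τ (L.ed x) := hdy.trans hd
        rcases hz a with h0 | h0
        · have h4 := u1 (by rw [hd, h0, add_zero, Lm_117.add_self])
          have h5 := (D.pos_iff hF' ay ax hd').1 h4
          exact ⟨fun _ => h0, fun _ => h5⟩
        · have h4 := u2 (by rw [hd, h0]; generalize τ (L.ed x) = z; revert z; decide)
          have h5 := (D.pos_iff hF' ax ay hd).1 h4
          rw [h0]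
          exact ⟨fun h6 => absurd h6 (not_lt.2 h5.le), fun h6 => absurd h6.symm n01⟩
      · have hd' : O.dir F y ≠ τ (L.ed x) := by rw [hdy]; exact hd
        have hs := z2_add_ne hd
        rcases hz a with h0 | h0
        · have h4 := u2 (by rw [h0, add_zero, add_comm]; exact hs)
          have h5 := (D.pos_iff' hF' ax ay hd).1 h4
          exact ⟨fun _ => h0, fun _ => h5⟩
        · have h4 := u1 (by
            rw [h0]
            generalize τ (L.ed x) = z at hs ⊢
            generalize O.dir F x = z' at hs ⊢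
            revert z z'; decide)
          have h5 := (D.pos_iff' hF' ay ax hd').1 h4
          rw [h0]
          exact ⟨fun h6 => absurd h6 (not_lt.2 h5.le), fun h6 => absurd h6.symm n01⟩
  have hz : ∀ z : ZMod 2, z = 0 ∨ z = 1 := by decide
  constructor
  · intro h1
    by_contra hcon
    have hmm : m j < m j' := lt_of_le_of_ne (not_lt.1 hcon) hm
    have h2 := h1 x hx hxl
    rw [e1] at h2
    have h4 := key.1 hmm
    rcases hz a with h0 | h0
    · rw [h0, ind_neg (fun h5 => by have := h4.1 h5; rw [h0] at this; exact absurd this (by decide)),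
        add_zero] at h2
      exact absurd h2 (by decide)
    · rw [h0, ind_pos (h4.2 h0)] at h2
      exact absurd h2 (by decide)
  · intro hmm
    refine (D1.lbd j').ins_of_pt hf rfl hne1 hx hxl ?_
    rw [e1]
    have h4 := key.2 hmm
    rcases hz a with h0 | h0
    · rw [ind_pos (h4.2 h0), h0, zero_add]
    · rw [ind_neg (fun h5 => by have := h4.1 h5; rw [h0] at this; exact absurd this (by decide)),
        h0, add_zero]

end order

end Crest.Agent.R096.Gl_422
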