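import Crest.Agent.R096.Mrg5_715
import Crest.Agent.R096.Lab5_184

/-!
# R096 / GLUE-STATE for merged meshes (helper298): labels of patterns which are even only on the
2-cells outside the interiors of the cores

`labels_merged` : labels with compact support on all 1-cells outside the interiors of the cores.
-/

set_option autoImplicit false

open Set Filter Topology Metric Module

namespace Crest.Agent.R096.Gm_298

open Crest.Agent.R096.Msh_715 Crest.Agent.R096.Coh_184 Crest.Agent.R096.Agl5_543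
  Crest.Agent.R096.Lab_184

variable {E : Type} [NormedAddCommGroup E] [NormedSpace ℝ E] [FiniteDimensional ℝ E]
variable {Om : Set E} {ι : Type} {T : Tiling Om ι}

/-- exactness on one edge -/
theorem exact_edge {Y : Finset E} {x : E} (hx : x ∈ Om) (hd : T.dim x = 1) :
    ∃ lam : E → ZMod 2, T.Exact (kap T Y) lam (T.cc x) := by
  obtain ⟨lam, h⟩ := T.exact_cell1 (c := fun e => (((Y : Set E) ∩ e.set).ncard : ZMod 2)) hx hd
  refine ⟨lam, fun e he h1 a b hab => ?_⟩
  have h2 := h e he h1 a b hab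
  rw [Tiling.kapC_cl _ (T.cc_sub_Om hx he)] at h2
  rw [h2]
  rfl

/-- **labels on the frontier of a core** -/
theorem exact_frontier (h3 : finrank ℝ E = 3) {K : Set E} (hK : CoreH T K) {Y : Finset E}
    (hY : ∀ w ∈ Y, T.dim w = 1)
    (heven : ∀ x ∈ frontier K, T.dim x = 2 → Even ((Y : Set E) ∩ T.cc x).ncard) :
    ∃ ψ : E → ZMod 2, ∀ e ∈ Om, T.dim e = 1 → T.cc e ⊆ frontier K → ∀ a b : E,
      T.cc e = segment ℝ a b → ψ a - ψ b = kap T Y e a b := by
  set S := frontier K with hSdef
  have hS : IsCompact S := hK.cpt.of_isClosed_subset isClosed_frontier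
    hK.cpt.isClosed.frontier_subset
  have hSO : S ⊆ Om := hK.cpt.isClosed.frontier_subset.trans hK.sub
  have hfin := T.finite_cells hS hSO
  let J := {c : Set E // (∃ x ∈ Om, c = T.cc x) ∧ (c ∩ S).Nonempty ∧ c ⊆ S}
  have hJfin : Finite J := by
    have : {c : Set E | (∃ x ∈ Om, c = T.cc x) ∧ (c ∩ S).Nonempty ∧ c ⊆ S}.Finite :=
      hfin.subset fun c hc => ⟨hc.1, hc.2.1⟩
    exact this
  have hrep : ∀ j : J, ∃ x ∈ S, j.1 = T.cc x := by
    rintro ⟨c, ⟨x, hx, rfl⟩, hne, hcS⟩
    exact ⟨x, hcS (T.self_mem_cc x), rfl⟩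
  obtain ⟨ψ, hψ⟩ := T.glue (J := J) (Q := fun j => j.1) (S := S) (κ := kap T Y)
    (fun j => by
      obtain ⟨x, hx, e⟩ := hrep j
      rw [e]; exact T.isClosed_cc x)
    (fun j => j.2.2.2.trans hSO)
    (fun j y hy => by
      obtain ⟨x, hx, e⟩ := hrep j
      rw [e] at hy ⊢
      exact T.cc_sub_of_mem hy)
    hK.triv
    (fun x hx => mem_iUnion.2 ⟨⟨T.cc x, ⟨x, hSO hx, rfl⟩, ⟨x, T.self_mem_cc x, hx⟩, hK.cc x hx⟩,
      T.self_mem_cc x⟩)
    (fun j => by
      rw [Set.inter_eq_left.2 j.2.2.2]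
      obtain ⟨x, hx, e⟩ := hrep j
      rw [e]; exact (T.convex_cc x).isPreconnected)
    (fun j => by
      obtain ⟨x, hx, e⟩ := hrep j
      rw [e]
      have hd := dim_le_two (T := T) h3 hK.core hK.sub hK.cc hx
      rcases Nat.lt_or_ge (T.dim x) 1 with h | h
      · refine ⟨fun _ => 0, Tiling.Exact.of_dim T _ fun y hy => ?_⟩
        have := T.dim_le hy
        omega
      rcases Nat.lt_or_ge (T.dim x) 2 with h' | h'
      · exact exact_edge (hSO hx) (by omega)
      · exact exact_cell2 hY (hSO hx) (by omega) (heven x hx (by omega)))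
  exact ⟨ψ, hψ⟩

section merged

variable {κ : Type} {Kc : κ → Set E}

/-- the closed cell of a point of the interior of a core lies in the core -/
theorem cc_sub_core {K : Set E} (hK : CoreH T K) {x y : E} (hx : x ∈ Om) (hy : y ∈ T.cc x)
    (hyi : y ∈ interior K) : x ∈ interior K := by
  obtain ⟨q, hq⟩ := T.at_nonempty hx
  have h1 : Msh_715.P (T.H q) ⊆ K :=
    T.sub_of_mem_interior hK.cpt.isClosed hK.cc (T.cc_sub_tile hq hy) hyi
  by_contra hxi
  have h2 : x ∈ frontier K := by
    rw [hK.cpt.isClosed.frontier_eq]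
    exact ⟨h1 hq, hxi⟩
  have h3 := hK.cc x h2 hy
  rw [hK.cpt.isClosed.frontier_eq] at h3
  exact h3.2 hyi

theorem cc_sub_core' {K : Set E} (hK : CoreH T K) {x : E} (hx : x ∈ interior K) :
    T.cc x ⊆ K := by
  obtain ⟨q, hq⟩ := T.at_nonempty (hK.sub (interior_subset hx))
  exact (T.cc_sub_tile hq).trans (T.sub_of_mem_interior hK.cpt.isClosed hK.cc hq hx)

open Classical in
/-- **LABELS FOR MERGED MESHES**: `Y` is even on every 2-cell which is not inside a core -/
theorem labels_merged (h3 : finrank ℝ E = 3) (hH : ∀ c, CoreH T (Kc c))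
    (hdis : ∀ c c', c ≠ c' → Disjoint (Kc c) (Kc c')) {Y : Finset E}
    (hY : ∀ w ∈ Y, T.dim w = 1)
    (heven : ∀ x ∈ Om, T.dim x = 2 → (∀ c, x ∉ interior (Kc c)) →
      Even ((Y : Set E) ∩ T.cc x).ncard)
    {D : Set E} (hD : IsCompact D) (hDO : D ⊆ Om) (hfr : IsPreconnected (frontier D))
    (ht : TrivF (ZMod 2) D) (hsupp : ∀ w ∈ Y, ∀ q, w ∈ Msh_715.P (T.H q) →
      Msh_715.P (T.H q) ⊆ interior D)
    (hcore : ∀ w ∈ Y, ∀ c, w ∈ Kc c → Kc c ⊆ interior D) :
    ∃ lam : E → ZMod 2, (∀ v ∉ D, lam v = 0) ∧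
      (∀ q, ¬ Msh_715.P (T.H q) ⊆ interior D → ∀ v ∈ Msh_715.P (T.H q), lam v = 0) ∧
      ∀ e ∈ Om, T.dim e = 1 → (∀ c, e ∉ interior (Kc c)) → ∀ a b, T.cc e = segment ℝ a b →
        lam a + lam b = (((Y : Set E) ∩ T.cc e).ncard : ZMod 2) := by
  -- labels on the frontiers of the cores
  have hfront : ∀ c, ∃ ψ : E → ZMod 2, (∀ e ∈ Om, T.dim e = 1 → T.cc e ⊆ frontier (Kc c) →
      ∀ a b : E, T.cc e = segment ℝ a b → ψ a - ψ b = kap T Y e a b) ∧
      ((∀ w ∈ Y, w ∉ Kc c) → ψ = fun _ => 0) := by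
    intro c
    by_cases hc : ∀ w ∈ Y, w ∉ Kc c
    · refine ⟨fun _ => 0, fun e he h1 hef a b _ => ?_, fun _ => rfl⟩
      have : (Y : Set E) ∩ T.cc e = ∅ := by
        rw [Set.eq_empty_iff_forall_notMem]
        rintro w ⟨hw1, hw2⟩
        exact hc w hw1 ((hH c).cpt.isClosed.frontier_subset (hef hw2))
      unfold kap
      rw [this]; simp
    · obtain ⟨ψ, hψ⟩ := exact_frontier h3 (hH c) hY (fun x hx hd =>
        heven x ((hH c).sub ((hH c).cpt.isClosed.frontier_subset hx)) hd (fun c' hx' => by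
          by_cases hcc : c' = c
          · subst hcc
            rw [(hH c').cpt.isClosed.frontier_eq] at hx
            exact hx.2 hx'
          · exact Set.disjoint_left.1 (hdis c' c hcc) (interior_subset hx')
              ((hH c).cpt.isClosed.frontier_subset hx)))
      exact ⟨ψ, hψ, fun h => absurd h hc⟩
  choose ψ hψ hψ0 using hfront
  -- the potentials on the cores
  let Ψ : κ → E → ZMod 2 := fun c v => if v ∈ frontier (Kc c) then ψ c v else 0
  let κ' : E → E → E → ZMod 2 := fun e a b =>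
    if h : ∃ c, e ∈ interior (Kc c) then Ψ h.choose a - Ψ h.choose b else kap T Y e a b
  have hin : ∀ {e c}, e ∈ interior (Kc c) → ∀ a b, κ' e a b = Ψ c a - Ψ c b := by
    intro e c he a b
    have h : ∃ c, e ∈ interior (Kc c) := ⟨c, he⟩
    have hc : h.choose = c := by
      by_contra hne
      exact Set.disjoint_left.1 (hdis _ _ hne) (interior_subset h.choose_spec)
        (interior_subset he)
    show (if h : ∃ c, e ∈ interior (Kc c) then Ψ h.choose a - Ψ h.choose b else kap T Y e a b) = _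
    rw [dif_pos h, hc]
  have hout : ∀ {e}, (∀ c, e ∉ interior (Kc c)) → ∀ a b, κ' e a b = kap T Y e a b := by
    intro e he a b
    have h : ¬ ∃ c, e ∈ interior (Kc c) := by push Not; exact he
    show (if h : ∃ c, e ∈ interior (Kc c) then Ψ h.choose a - Ψ h.choose b else kap T Y e a b) = _
    rw [dif_neg h]
  obtain ⟨lam, h1, -, h2, h4⟩ := potential (T := T) (κ := κ') h3 hD hDO hfr ht
    (by
      intro x hx hd
      by_cases hxi : ∃ c, x ∈ interior (Kc c)
      · obtain ⟨c, hc⟩ := hxi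
        refine ⟨Ψ c, fun e he h1 a b hab => ?_⟩
        have heK : e ∈ Kc c := cc_sub_core' (hH c) hc he
        by_cases hei : e ∈ interior (Kc c)
        · rw [hin hei]
        · have hef : e ∈ frontier (Kc c) := by
            rw [(hH c).cpt.isClosed.frontier_eq]; exact ⟨heK, hei⟩
          have hcc := (hH c).cc e hef
          obtain ⟨-, -, ha, hb, -⟩ := T.dim_ends (T.cc_sub_Om hx he) h1 hab
          rw [hout (fun c' hc' => by
            by_cases hcc' : c' = c
            · subst hcc'; exact hei hc'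
            · exact Set.disjoint_left.1 (hdis c' c hcc') (interior_subset hc') heK)]
          rw [← hψ c e (T.cc_sub_Om hx he) h1 hcc a b hab]
          show (if a ∈ frontier (Kc c) then ψ c a else 0) -
            (if b ∈ frontier (Kc c) then ψ c b else 0) = _
          rw [if_pos (hcc ha), if_pos (hcc hb)]
      · push Not at hxi
        obtain ⟨lam, hlam⟩ := exact_cell2 hY hx hd (heven x hx hd hxi)
        refine ⟨lam, fun e he h1 a b hab => ?_⟩
        rw [hout (fun c hc => hxi c (cc_sub_core (hH c) hx he hc))]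
        exact hlam e he h1 a b hab)
    (by
      intro q hq e he h1 a b hab
      by_cases hei : ∃ c, e ∈ interior (Kc c)
      · obtain ⟨c, hc⟩ := hei
        rw [hin hc]
        have hqK : Msh_715.P (T.H q) ⊆ Kc c :=
          T.sub_of_mem_interior (hH c).cpt.isClosed (hH c).cc he hc
        have h0 : ψ c = fun _ => 0 := hψ0 c fun w hw hwK => hq (hqK.trans (hcore w hw c hwK))
        show (0 : ZMod 2) - 0 = (if a ∈ frontier (Kc c) then ψ c a else 0) -
          (if b ∈ frontier (Kc c) then ψ c b else 0)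
        rw [h0]
        simp
      · push Not at hei
        rw [hout hei]
        have : (Y : Set E) ∩ T.cc e = ∅ := by
          rw [Set.eq_empty_iff_forall_notMem]
          rintro w ⟨hw1, hw2⟩
          exact hq (hsupp w hw1 q (T.cc_sub_tile (i := q) he hw2))
        show (0 : ZMod 2) - 0 = kap T Y e a b
        unfold kap
        rw [this]; simp)
  refine ⟨lam, h1, h2, fun e he h5 hei a b hab => ?_⟩
  have h6 := h4 e he h5 a b hab
  rw [hout hei] at h6
  rw [← CharTwo.sub_eq_add, h6]
  rfl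

end merged

end Crest.Agent.R096.Gm_298
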