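import Crest.Agent.R096.Gm1_298
import Crest.Agent.R096.Lm10_117
import Crest.Agent.R096.Gl4_422

/-!
# R096 / GLUE-STATE for merged meshes, part 2 (helper298): labels (`HasLab` of 422) for 117's
labelled meshes `lmO` (cells outside the cores) and `lmK` (with the giant cells) over 715's `meshK`
-/

set_option autoImplicit false
set_option linter.unusedSectionVars false

open Set Filter Topology Metric Module

namespace Crest.Agent.R096.Gm_298

open Crest.Agent.R096.Msh_715 Crest.Agent.R096.Coh_184 Crest.Agent.R096.Agl5_543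
  Crest.Agent.R096.Lab_184 Crest.Agent.R096.Lm_117 Crest.Agent.R096.St_147
  Crest.Agent.R096.Seq_213 Crest.Agent.R096.Gl_422

/-! ### abstract -/

section gen

variable {ι Φ W Q κ : Type} [PartialOrder Q] {dim : Q → ℕ} {M : MeshC ι Φ W}

/-- `Int` depends only on the 1-cell of the point -/
theorem int_sat (L : LM M Q dim) {A : Set ι} {w x : W} (hw : w ∈ L.W1) (hx : x ∈ L.W1)
    (he : L.ed x = L.ed w) (h : Int M A w) : Int M A x := by
  have hon : ∀ F, x ∈ M.On F ↔ w ∈ M.On F := fun F => by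
    rw [L.on_iff, L.on_iff, he]
    exact ⟨fun h => ⟨hw, h.2⟩, fun h => ⟨hx, h.2⟩⟩
  obtain ⟨⟨F, hF⟩, h2⟩ := h
  exact ⟨⟨F, (hon F).2 hF⟩, fun G hG => h2 G ((hon G).1 hG)⟩

theorem int_W1 (L : LM M Q dim) {A : Set ι} {w : W} (h : Int M A w) : w ∈ L.W1 := by
  obtain ⟨⟨F, hF⟩, -⟩ := h
  exact ((L.on_iff F w).1 hF).1

theorem int_mono {A B : Set ι} (hAB : A ⊆ B) {w : W} (h : Int M A w) : Int M B w :=
  ⟨h.1, fun F hF q hq => hAB (h.2 F hF q hq)⟩

theorem nW_ncard {Y : Finset W} {X X' : Set W} (h : ∀ w ∈ Y, (w ∈ X ↔ w ∈ X')) :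
    nW Y X = (((Y : Set W) ∩ X').ncard : ZMod 2) := by
  classical
  rw [nW_card]
  congr 1
  have : (Y : Set W) ∩ X' = ((Y.filter (· ∈ X) : Finset W) : Set W) := by
    ext w
    rw [Finset.coe_filter]
    exact ⟨fun ⟨h1, h2⟩ => ⟨h1, (h w h1).2 h2⟩, fun ⟨h1, h2⟩ => ⟨h1, (h w h1).1 h2⟩⟩
  rw [this, Set.ncard_coe_finset]

variable {b : Bel Q κ}

/-- labels of a mesh with extra cells -/
theorem glab_glue {L : LM M Q dim} (H : BelH L.toSk M L.cf b) {Y : Finset W}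
    {lam : Q → ZMod 2} (h : GLab L Y lam) : GLab (L.glue b H) Y (Sum.elim lam (fun _ => 0)) := by
  intro e he
  rcases e with e | k
  · have h1 := glue_On1 L.toSk H e
    have h2 := h e he
    rw [← h1] at h2
    exact h2
  · exact absurd (show (3 : ℕ) = 1 from he) (by norm_num)

theorem hasLab_glue {L : LM M Q dim} (H : BelH L.toSk M L.cf b) {G : Set W} {Z : Set Q}
    (h : HasLab L G Z) : HasLab (L.glue b H) G (QK.c b '' Z) := by
  intro Y h1 h2 h3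
  obtain ⟨lam, h4, h5⟩ := h Y h1 h2 h3
  refine ⟨_, glab_glue H h4, ?_⟩
  rintro _ ⟨v, hv, rfl⟩
  exact h5 v hv

end gen

variable {E : Type} [NormedAddCommGroup E] [NormedSpace ℝ E] [FiniteDimensional ℝ E]
variable {Om : Set E} {ι : Type} {T : Tiling Om ι} {κ : Type} {Kc : κ → Set E}

/-- a cell outside the interiors of the cores lies in a tile outside the cores -/
theorem exists_tile_out (hdis : ∀ c c', c ≠ c' → Disjoint (Kc c) (Kc c'))
    {x : E} (hx : x ∈ Om) (h : ∀ c, x ∉ interior (Kc c)) :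
    ∃ q ∈ T.at_ x, ∀ c, ¬ Msh_715.P (T.H q) ⊆ Kc c := by
  by_contra hcon
  push Not at hcon
  obtain ⟨q0, hq0⟩ := T.at_nonempty hx
  obtain ⟨c0, hc0⟩ := hcon q0 hq0
  obtain ⟨r, hr, hO, hb⟩ := T.exists_ball hx
  refine h c0 (mem_interior.2 ⟨ball x r, fun y hy => ?_, isOpen_ball, mem_ball_self hr⟩)
  obtain ⟨q, hq⟩ := T.cov y (hO hy)
  have hqx := hb y hy hq
  obtain ⟨c, hc⟩ := hcon q hqx
  have : c = c0 := by
    by_contra hne
    exact Set.disjoint_left.1 (hdis c c0 hne) (hc hqx) (hc0 hq0)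
  subst this
  exact hc hq

/-- a cell which is not inside a core lies in a tile outside the cores -/
theorem outK_of (hdis : ∀ c c', c ≠ c' → Disjoint (Kc c) (Kc c')) {x : T.Cell}
    (h : ∀ c, x.pt ∉ interior (Kc c)) : OutK T Kc x := by
  obtain ⟨q, hq, h1⟩ := exists_tile_out hdis x.pt_mem h
  refine ⟨q, h1, ?_⟩
  rw [x.set_eq]
  exact T.cc_sub_tile hq

theorem not_int_of (hH : ∀ c, CoreH T (Kc c)) {x : T.Cell} (h : OutK T Kc x) (c : κ) :
    x.pt ∉ interior (Kc c) := by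
  intro hc
  obtain ⟨q, hq, hle⟩ := h
  exact hq c (T.sub_of_mem_interior (hH c).cpt.isClosed (hH c).cc (hle (pt_set x)) hc)

theorem exists_outK [hne : Nonempty T.Cell] (hH : ∀ c, CoreH T (Kc c))
    (hdis : ∀ c c', c ≠ c' → Disjoint (Kc c) (Kc c')) : ∃ x, OutK T Kc x := by
  obtain ⟨x⟩ := id hne
  by_cases hκ : Nonempty κ
  · obtain ⟨c⟩ := hκ
    obtain ⟨z, hz⟩ := (hH c).nt.nonempty
    have hzO := (hH c).sub ((hH c).cpt.isClosed.frontier_subset hz)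
    refine ⟨T.cl hzO, out_of_frontier hH hdis (k := c) ?_⟩
    rw [T.cl_set]
    exact (hH c).cc z hz
  · exact ⟨x, outK_of hdis fun c => (hκ ⟨c⟩).elim⟩

/-- the cells of the merged mesh inside `D` -/
def AD (T : Tiling Om ι) (Kc : κ → Set E) (D : Set E) : Set (ι ⊕ κ) :=
  {k | (∀ q, k = Sum.inl q → Msh_715.P (T.H q) ⊆ interior D) ∧
    ∀ c, k = Sum.inr c → Kc c ⊆ interior D}

/-- the points inside `D` -/
def GD (h3 : finrank ℝ E = 3) (hH : ∀ c, CoreH T (Kc c))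
    (hdis : ∀ c c', c ≠ c' → Disjoint (Kc c) (Kc c')) (D : Set E) : Set E :=
  {w | Int (mK h3 hH hdis) (AD T Kc D) w}

/-- the vertices which are not inside `D` -/
def ZO (T : Tiling Om ι) (Kc : κ → Set E) (D : Set E) : Set {c : T.Cell // OutK T Kc c} :=
  {v | v.1.pt ∉ D ∨ ∃ q, v.1.pt ∈ Msh_715.P (T.H q) ∧ ¬ Msh_715.P (T.H q) ⊆ interior D}

/-- the vertices which are not inside `D` -/
def ZK (T : Tiling Om ι) (Kc : κ → Set E) (D : Set E) : Set (QK (belK T Kc)) :=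
  QK.c _ '' ZO T Kc D

section has

variable {h3 : finrank ℝ E = 3} {hH : ∀ c, CoreH T (Kc c)}
  {hdis : ∀ c c', c ≠ c' → Disjoint (Kc c) (Kc c')}

theorem GD_act {D : Set E} {A : Set (ι ⊕ κ)} (hA : A ⊆ AD T Kc D) {w : E}
    (hi : Int (mK h3 hH hdis) A w) : w ∈ GD h3 hH hdis D := int_mono hA hi

theorem exists_face_out {w : E} (hw : w ∈ Om) (hd : T.dim w = 1) {q : ι}
    (hq : w ∈ Msh_715.P (T.H q)) : ∃ F : C2 T, w ∈ F.On ∧ q ∈ F.side h3 := by
  obtain ⟨x₁, hx1, x₂, hx2, hd1, hd2, hq1, hq2, hp1, hp2, hne, huniq⟩ :=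
    Agl3_543.two_cells T h3 hw hd hq
  refine ⟨mk2 T hx1 hd1, ⟨hp1, hd⟩, ?_⟩
  have e : T.at_ (mk2 T hx1 hd1).pt = T.at_ x₁ := T.at_eq_of_mem_oc hx1 (T.pt_cl hx1)
  rw [C2.mem_side, e]
  exact hq1

variable [Nonempty T.Cell] {hne : ∃ c, OutK T Kc c}

theorem W1K_eqO : (lmK h3 hH hdis hne).W1 = (lmO h3 hH hdis hne).W1 := rfl

theorem edO_eq {w : E} (hw : w ∈ (lmO h3 hH hdis hne).W1) :
    ((lmO h3 hH hdis hne).ed w).1 = edC T w := subEd_eq hw.2

theorem enO_eq {e : {c : T.Cell // OutK T Kc c}} (hd : e.1.dim = 1) (b : Bool) :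
    ((lmO h3 hH hdis hne).en e b).1 = enC e.1 b :=
  subEn_eq (L := skT T) (hp := outK_down) (e := e) hd b

/-- the candidate points of `lmO` and `lmK` -/
theorem mem_W1O {w : E} : w ∈ (lmO h3 hH hdis hne).W1 ↔
      w ∈ Om ∧ T.dim w = 1 ∧ ∀ c, w ∉ interior (Kc c) := by
  constructor
  · rintro ⟨⟨h1, h2⟩, h4⟩
    have h4' : OutK T Kc (edC T w) := h4
    refine ⟨h1, h2, fun c hc => not_int_of hH h4' c (cc_sub_core (hH c) (edC T w).pt_mem ?_ hc)⟩
    rw [← (edC T w).set_eq, edC_set h1]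
    exact T.self_mem_cc w
  · rintro ⟨h1, h2, h4⟩
    refine ⟨⟨h1, h2⟩, ?_⟩
    obtain ⟨q, hq, h5⟩ := exists_tile_out hdis h1 h4
    refine ⟨q, h5, ?_⟩
    show (edC T w).set ⊆ _
    rw [edC_set h1]
    exact T.cc_sub_tile hq

theorem mem_W1K {w : E} : w ∈ (lmK h3 hH hdis hne).W1 ↔
      w ∈ Om ∧ T.dim w = 1 ∧ ∀ c, w ∉ interior (Kc c) :=
  mem_W1O (h3 := h3) (hH := hH) (hdis := hdis) (hne := hne)

theorem GD_W1 {D : Set E} {w : E} (hw : w ∈ GD h3 hH hdis D) :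
    w ∈ Om ∧ T.dim w = 1 ∧ ∀ c, w ∉ interior (Kc c) :=
  mem_W1O.1 (int_W1 (lmO h3 hH hdis (exists_outK hH hdis)) hw)

theorem GD_satO {D : Set E} {w : E} (hw : w ∈ GD h3 hH hdis D) {x : E}
    (hx : x ∈ (lmO h3 hH hdis hne).W1)
    (he : (lmO h3 hH hdis hne).ed x = (lmO h3 hH hdis hne).ed w) : x ∈ GD h3 hH hdis D :=
  int_sat _ (int_W1 _ hw) hx he hw

theorem GD_satK {D : Set E} {w : E} (hw : w ∈ GD h3 hH hdis D) {x : E}
    (hx : x ∈ (lmK h3 hH hdis hne).W1)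
    (he : (lmK h3 hH hdis hne).ed x = (lmK h3 hH hdis hne).ed w) : x ∈ GD h3 hH hdis D :=
  int_sat _ (int_W1 _ hw) hx he hw

/-- the cores at a point of `GD` lie inside `D` -/
theorem GD_core {D : Set E} {w : E} (hw : w ∈ GD h3 hH hdis D) {c : κ} (hc : w ∈ Kc c) :
    Kc c ⊆ interior D := by
  obtain ⟨h1, h2, h4⟩ := GD_W1 hw
  have hf : w ∈ frontier (Kc c) := by
    rw [(hH c).cpt.isClosed.frontier_eq]; exact ⟨hc, h4 c⟩
  have hK : ∀ c, Core (Kc c) := fun c => (hH c).core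
  have hKO : ∀ c, Kc c ⊆ Om := fun c => (hH c).sub
  have hs : ∀ c, ∀ x ∈ frontier (Kc c), T.cc x ⊆ frontier (Kc c) := fun c => (hH c).cc
  have h5 := fcK_sub (h3 := h3) (hK := hK) (hKO := hKO) (hs := hs) (edK T Kc hs h1 hf h2) true
  have h6 := (face_iff h3 hK hKO hs hdis _ c).1 h5.1
  have hon : w ∈ (mK h3 hH hdis).On ⟨_, h6.1⟩ := by
    refine ⟨h5.2 ?_, h2⟩
    show w ∈ (T.cl h1).set
    rw [T.cl_set]; exact T.self_mem_cc w
  exact (hw.2 _ hon (Sum.inr c) h6.2).2 c rfl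

/-- the tiles at a point of `GD` lie inside `D` -/
theorem GD_tile {D : Set E} {w : E} (hw : w ∈ GD h3 hH hdis D) {q : ι}
    (hq : w ∈ Msh_715.P (T.H q)) : Msh_715.P (T.H q) ⊆ interior D := by
  obtain ⟨h1, h2, h4⟩ := GD_W1 hw
  by_cases hc : ∃ c, Msh_715.P (T.H q) ⊆ Kc c
  · obtain ⟨c, hc⟩ := hc
    exact hc.trans (GD_core hw (hc hq))
  push Not at hc
  obtain ⟨F, hF, hqF⟩ := exists_face_out (h3 := h3) h1 h2 hq
  have hnd := out_face h3 F ⟨q, hc, C2.sub_tile (h3 := h3) hqF⟩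
  have hm : Sum.inl q ∈ ((meshC T h3).side F).map (piK T Kc) :=
    mem_map_iff.2 ⟨q, hqF, piK_inl.2 ⟨rfl, hc⟩⟩
  exact (hw.2 ⟨F, hnd⟩ hF (Sum.inl q) hm).1 q rfl

/-- converse: tiles and cores at `w` inside `D` -/
theorem GD_of {D : Set E} {w : E} (hw : w ∈ (lmO h3 hH hdis hne).W1)
    (ht : ∀ q, w ∈ Msh_715.P (T.H q) → Msh_715.P (T.H q) ⊆ interior D)
    (hc : ∀ c, w ∈ Kc c → Kc c ⊆ interior D) : w ∈ GD h3 hH hdis D := by
  obtain ⟨h1, h2, h4⟩ := mem_W1O.1 hw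
  obtain ⟨q, hq, h5⟩ := exists_tile_out hdis h1 h4
  obtain ⟨F, hF, hqF⟩ := exists_face_out (h3 := h3) h1 h2 hq
  refine ⟨⟨⟨F, out_face h3 F ⟨q, h5, C2.sub_tile (h3 := h3) hqF⟩⟩, hF⟩, ?_⟩
  intro G hG k hk
  have hk' : k ∈ ((meshC T h3).side G.1).map (piK T Kc) := hk
  obtain ⟨q', hq', hk''⟩ := mem_map_iff.1 hk'
  have hw' : w ∈ Msh_715.P (T.H q') := C2.sub_tile (h3 := h3) hq' hG.1
  refine ⟨fun q hq => ?_, fun c hcc => ?_⟩
  · rw [hq, piK_inl] at hk''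
    obtain ⟨rfl, -⟩ := hk''
    exact ht _ hw'
  · rw [hcc, piK_inr hdis] at hk''
    exact hc c (hk'' hw')

/-- **LABELS EXIST OUTSIDE THE CORES** -/
theorem hasLab_O {D : Set E} (hD : IsCompact D) (hDO : D ⊆ Om) (hfr : IsPreconnected (frontier D))
    (ht : TrivF (ZMod 2) D) : HasLab (lmO h3 hH hdis hne) (GD h3 hH hdis D) (ZO T Kc D) := by
  intro Y hY1 hYG hev
  have hY : ∀ w ∈ Y, T.dim w = 1 := fun w hw => (mem_W1O.1 (hY1 w hw)).2.1
  obtain ⟨lam, h1, h2, h4⟩ := labels_merged (T := T) (Y := Y) h3 hH hdis hY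
    (by
      intro x hx hd hxi
      obtain ⟨q, hq, h5⟩ := exists_tile_out hdis hx hxi
      have hset : (mk2 T hx hd).set = T.cc x := T.cl_set hx
      have h6 := hev ⟨mk2 T hx hd, out_face h3 _ ⟨q, h5, by
        show (mk2 T hx hd).set ⊆ _
        rw [hset]
        exact T.cc_sub_tile hq⟩⟩
      rw [nW_ncard (X' := T.cc x) (fun w hw => ?_)] at h6
      · exact (ZMod.natCast_eq_zero_iff_even).1 h6
      · show (w ∈ (mk2 T hx hd).set ∧ T.dim w = 1) ↔ _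
        rw [hset]
        exact ⟨fun h => h.1, fun h => ⟨h, hY w hw⟩⟩)
    hD hDO hfr ht (fun w hw q hq => GD_tile (hYG w hw) hq)
    (fun w hw c hc => GD_core (hYG w hw) hc)
  refine ⟨fun c => lam c.1.pt, ?_, ?_⟩
  · intro e he
    have hd : e.1.dim = 1 := he
    show lam ((lmO h3 hH hdis hne).en e false).1.pt + lam ((lmO h3 hH hdis hne).en e true).1.pt = _
    rw [enO_eq hd, enO_eq hd, en_pt hd, en_pt hd]
    have h5 := h4 e.1.pt e.1.pt_mem hd (fun c => not_int_of hH e.2 c)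
      (epE e.1 false) (epE e.1 true) (by rw [← e.1.set_eq]; exact (ep_spec hd).2.1)
    rw [h5]
    symm
    apply nW_ncard
    intro w hw
    have hw1 : w ∈ W1 T := (hY1 w hw).1
    have h6 : (lmO h3 hH hdis hne).On1 e = (skT T).On1 e.1 :=
      sub_On1 (L := skT T) (p := OutK T Kc) (hp := outK_down) (hne := hne) e
    rw [h6, ← e.1.set_eq]
    constructor
    · rintro ⟨-, h7⟩
      exact (edC_eq hw1 hd).1 h7
    · intro h7
      exact ⟨hw1, (edC_eq hw1 hd).2 h7⟩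
  · rintro v (hv | ⟨q, hq, hqD⟩)
    · exact h1 _ hv
    · exact h2 q hqD _ hq

/-- **LABELS EXIST FOR THE MERGED MESH WITH THE GIANT CELLS** -/
theorem hasLab_K {D : Set E} (hD : IsCompact D) (hDO : D ⊆ Om) (hfr : IsPreconnected (frontier D))
    (ht : TrivF (ZMod 2) D) : HasLab (lmK h3 hH hdis hne) (GD h3 hH hdis D) (ZK T Kc D) :=
  hasLab_glue _ (hasLab_O hD hDO hfr ht)

end has

end Crest.Agent.R096.Gm_298
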