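import Crest.Agent.R096.Gn2_296
import Crest.Agent.R096.Cb4_609

/-!
# R096/Gn3_296 (helper296, row 96, P2-GEN, N2): one cell, `stepStmt : StepStmt`
-/

set_option autoImplicit false
set_option linter.unusedSectionVars false

namespace Crest.Agent.R096.Gn_296

open Set Metric Crest.Agent.R096.Ce_537 Crest.Agent.R096.Cb_609
open Crest.Agent.R096.Pl Crest.Agent.R096.Gp_702

variable {E : Type*} [NormedAddCommGroup E] [NormedSpace ℝ E]
  {F : Type*} [NormedAddCommGroup F] [NormedSpace ℝ F] {k : ℕ}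

/-! ### extension over two balls with a common face -/

theorem extend_pairs {C0 C1 D R0 R1 Q : Set E} {X0 X1 D' S0 S1 Q' : Set F}
    (h0 : BallPair k C0 R0 D Q) (h1 : BallPair k C1 R1 D Q) (hC : C0 ∩ C1 = D)
    (h0' : BallPair k X0 S0 D' Q') (h1' : BallPair k X1 S1 D' Q') (hX : X0 ∩ X1 = D')
    (hR : R0 ∩ R1 = Q) (hS : S0 ∩ S1 = Q') (φ : PLEquiv (R0 ∪ R1) (S0 ∪ S1))
    (e0 : φ.f '' R0 = S0) (e1 : φ.f '' R1 = S1) :
    ∃ Ψ : PLEquiv (C0 ∪ C1) (X0 ∪ X1), EqOn Ψ.f φ.f (R0 ∪ R1) ∧ Ψ.f '' C0 = X0 ∧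
      Ψ.f '' C1 = X1 := by
  have eg0 : φ.g '' S0 = R0 := image_g φ subset_union_left e0
  have eg1 : φ.g '' S1 = R1 := image_g φ subset_union_right e1
  let φ0 : PLEquiv R0 S0 := φ.restr subset_union_left subset_union_left
    (fun x hx => e0.subset ⟨x, hx, rfl⟩) (fun x hx => eg0.subset ⟨x, hx, rfl⟩)
  let φ1 : PLEquiv R1 S1 := φ.restr subset_union_right subset_union_right
    (fun x hx => e1.subset ⟨x, hx, rfl⟩) (fun x hx => eg1.subset ⟨x, hx, rfl⟩)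
  have eQ : φ0.f '' Q = Q' := by
    show φ.f '' Q = Q'
    rw [← hR, φ.injOn.image_inter subset_union_left subset_union_right, e0, e1, hS]
  obtain ⟨Ψ0, a1, a2, a3⟩ := h0.extend h0' φ0 eQ
  have a4 : Ψ0.g '' D' = D := image_g Ψ0 h0.subset₂ a3
  let δ : PLEquiv D D' := Ψ0.restr h0.subset₂ h0'.subset₂
    (fun x hx => a3.subset ⟨x, hx, rfl⟩) (fun x hx => a4.subset ⟨x, hx, rfl⟩)
  have hQR0 : Q ⊆ R0 := h0.ball₁.subset
  have hQS0 : Q' ⊆ S0 := h0'.ball₁.subset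
  have uf : EqOn φ1.f δ.f (R1 ∩ D) := by
    intro x hx
    rw [h1.inter] at hx
    exact (a1 (hQR0 hx)).symm
  have ug : EqOn φ1.g δ.g (S1 ∩ D') := by
    intro x hx
    rw [h1'.inter] at hx
    exact (a2 (hQS0 hx)).symm
  let u : PLEquiv (R1 ∪ D) (S1 ∪ D') := glue φ1 δ h1.ball₁.isClosed h1.ball₂.isClosed
    h1'.ball₁.isClosed h1'.ball₂.isClosed uf ug
  obtain ⟨Ψ1, b1, b2⟩ := h1.ball.extend h1'.ball u
  have hf : EqOn Ψ0.f Ψ1.f (C0 ∩ C1) := by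
    intro x hx
    rw [hC] at hx
    rw [b1 (Or.inr hx)]
    exact (glue_f₂ φ1 δ _ _ _ _ uf ug hx).symm
  have hg : EqOn Ψ0.g Ψ1.g (X0 ∩ X1) := by
    intro x hx
    rw [hX] at hx
    rw [b2 (Or.inr hx)]
    exact (glue_g₂ φ1 δ _ _ _ _ uf ug hx).symm
  refine ⟨glue Ψ0 Ψ1 h0.ball.isClosed h1.ball.isClosed h0'.ball.isClosed h1'.ball.isClosed hf hg,
    ?_, ?_, ?_⟩
  · rintro x (hx | hx)
    · rw [glue_f₁ Ψ0 Ψ1 _ _ _ _ hf hg (h0.subset₁ hx)]
      exact a1 hx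
    · rw [glue_f₂ Ψ0 Ψ1 _ _ _ _ hf hg (h1.subset₁ hx), b1 (Or.inl hx)]
      exact glue_f₁ φ1 δ _ _ _ _ uf ug hx
  · exact (image_congr fun x hx => glue_f₁ Ψ0 Ψ1 _ _ _ _ hf hg hx).trans Ψ0.image_eq
  · exact (image_congr fun x hx => glue_f₂ Ψ0 Ψ1 _ _ _ _ hf hg hx).trans Ψ1.image_eq

/-! ### product pairs -/

/-- sign of `z + cl c z` on the model: the upper half -/
theorem ballPair_prod_model (k : ℕ) : BallPair k
    {q : (Fin k → ℝ) × ℝ | ‖q‖ ≤ 1 ∧ 0 ≤ q.2} {q | ‖q‖ ≤ 1 ∧ q.2 = 0} {q | ‖q‖ = 1 ∧ 0 ≤ q.2}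
    {q | ‖q‖ = 1 ∧ q.2 = 0} := by
  let G := cubeH (kopPi k) (plMap_norm k)
  have hG : PLH G := PLH_cubeH _ _
  have h := (ballPair_up k).plh hG
  have hnorm : ∀ p, ‖G p‖ = N1 p := fun p => norm_cubeH _ _ p
  have hz : ∀ p : (Fin k → ℝ) × ℝ, (G p).2 = p.2 + cl ‖p.1‖ p.2 := fun p => rfl
  have himg : ∀ (P : ℝ → Prop) (Q : ℝ → Prop)
      (_ : ∀ p : (Fin k → ℝ) × ℝ, Q (p.2 + cl ‖p.1‖ p.2) ↔ Q p.2),
      G '' {p | P (N1 p) ∧ Q p.2} = {y | P ‖y‖ ∧ Q y.2} := by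
    intro P Q hQ
    ext y
    constructor
    · rintro ⟨p, ⟨h1, h2⟩, rfl⟩
      refine ⟨by rw [hnorm]; exact h1, ?_⟩
      rw [hz]
      exact (hQ p).2 h2
    · rintro ⟨h1, h2⟩
      obtain ⟨p, rfl⟩ := G.surjective y
      refine ⟨p, ⟨by rw [← hnorm]; exact h1, ?_⟩, rfl⟩
      rw [hz] at h2
      exact (hQ p).1 h2
  have hs0 : ∀ p : (Fin k → ℝ) × ℝ, (p.2 + cl ‖p.1‖ p.2 = 0 ↔ p.2 = 0) := by
    intro p
    have h1 := (sign_cl (z := p.2) (norm_nonneg p.1)).1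
    have h2 := (sign_cl (z := p.2) (norm_nonneg p.1)).2
    constructor
    · intro h; exact le_antisymm (h2.1 h.le) (h1.1 h.ge)
    · intro h; exact le_antisymm (h2.2 h.le) (h1.2 h.ge)
  have e0 : G '' Up k = {q : (Fin k → ℝ) × ℝ | ‖q‖ ≤ 1 ∧ 0 ≤ q.2} := by
    rw [← himg (fun s => s ≤ 1) (fun s => 0 ≤ s) fun p => (sign_cl (norm_nonneg _)).1]
    congr 1
    ext p
    show 0 ≤ p.2 ∧ p.2 + ‖p.1‖ ≤ 1 ↔ N1 p ≤ 1 ∧ 0 ≤ p.2
    constructor
    · rintro ⟨a, b⟩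
      refine ⟨?_, a⟩
      show ‖p.1‖ + |p.2| ≤ 1
      rw [abs_of_nonneg a]; linarith
    · rintro ⟨a, b⟩
      have : ‖p.1‖ + |p.2| ≤ 1 := a
      rw [abs_of_nonneg b] at this
      exact ⟨b, by linarith⟩
  have e1 : G '' Mid k = {q : (Fin k → ℝ) × ℝ | ‖q‖ ≤ 1 ∧ q.2 = 0} := by
    rw [← himg (fun s => s ≤ 1) (fun s => s = 0) hs0]
    congr 1
    ext p
    show p.2 = 0 ∧ ‖p.1‖ ≤ 1 ↔ N1 p ≤ 1 ∧ p.2 = 0
    constructor
    · rintro ⟨a, b⟩
      refine ⟨?_, a⟩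
      show ‖p.1‖ + |p.2| ≤ 1
      rw [a, abs_zero]; linarith
    · rintro ⟨a, b⟩
      have : ‖p.1‖ + |p.2| ≤ 1 := a
      rw [b, abs_zero] at this
      exact ⟨b, by linarith⟩
  have e2 : G '' Kp (Fin k → ℝ) = {q : (Fin k → ℝ) × ℝ | ‖q‖ = 1 ∧ 0 ≤ q.2} := by
    rw [← himg (fun s => s = 1) (fun s => 0 ≤ s) fun p => (sign_cl (norm_nonneg _)).1]
    congr 1
    ext p
    exact and_comm
  have e3 : G '' Eqt (Fin k → ℝ) = {q : (Fin k → ℝ) × ℝ | ‖q‖ = 1 ∧ q.2 = 0} := by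
    rw [← Kp_inter_Km, image_inter G.injective, e2]
    have e4 : G '' Km (Fin k → ℝ) = {q : (Fin k → ℝ) × ℝ | ‖q‖ = 1 ∧ q.2 ≤ 0} := by
      rw [← himg (fun s => s = 1) (fun s => s ≤ 0) fun p => (sign_cl (norm_nonneg _)).2]
      congr 1
      ext p
      exact and_comm
    rw [e4]
    ext y
    constructor
    · rintro ⟨⟨h1, h2⟩, _, h3⟩; exact ⟨h1, le_antisymm h3 h2⟩
    · rintro ⟨h1, h2⟩; exact ⟨⟨h1, h2.ge⟩, h1, h2.le⟩
  rw [e0, e1, e2, e3] at h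
  exact h

theorem norm_prod_lt_iff' {q : (Fin k → ℝ) × ℝ} (hq : 0 ≤ q.2) :
    (‖q‖ ≤ 1 ↔ q.1 ∈ cube k ∧ q.2 ≤ 1) ∧
    (‖q‖ = 1 ↔ (q.1 ∈ sph k ∧ q.2 ≤ 1) ∨ (q.1 ∈ cube k ∧ q.2 = 1)) := by
  rw [mem_closedBall_zero_iff, mem_sphere_zero_iff_norm, Prod.norm_def, Real.norm_eq_abs,
    abs_of_nonneg hq]
  constructor
  · exact max_le_iff
  · constructor
    · intro h
      rcases max_choice ‖q.1‖ q.2 with h1 | h1
      · left
        rw [h1] at h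
        exact ⟨h, by rw [← h1] at h; exact h ▸ le_max_right _ _⟩
      · right
        rw [h1] at h
        exact ⟨by rw [← h1] at h; exact h ▸ le_max_left _ _, h⟩
    · rintro (⟨h1, h2⟩ | ⟨h1, h2⟩)
      · rw [h1]; exact max_eq_left h2
      · rw [h2]; exact max_eq_right h1

/-- **product pair**: bottom | rest -/
theorem ballPair_prod {R Q : Set E} (h : IsBall k R Q) {t : ℝ} (ht : 0 < t) :
    BallPair k (R ×ˢ Icc 0 t) (R ×ˢ {(0:ℝ)}) (Q ×ˢ Icc 0 t ∪ R ×ˢ {t}) (Q ×ˢ {(0:ℝ)}) := by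
  obtain ⟨e, he⟩ := h
  have hm := ballPair_prod_model k
  let f : (Fin k → ℝ) × ℝ → E × ℝ := fun q => (e.f q.1, t * q.2)
  let g : E × ℝ → (Fin k → ℝ) × ℝ := fun q => (e.g q.1, q.2 / t)
  have hset : {q : (Fin k → ℝ) × ℝ | ‖q‖ ≤ 1 ∧ 0 ≤ q.2} = cube k ×ˢ Icc 0 1 := by
    ext q
    constructor
    · rintro ⟨h1, h2⟩
      have := (norm_prod_lt_iff' h2).1.1 h1
      exact ⟨this.1, h2, this.2⟩
    · rintro ⟨h1, h2, h3⟩
      exact ⟨(norm_prod_lt_iff' h2).1.2 ⟨h1, h3⟩, h2⟩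
  rw [hset] at hm
  have hpf : PLOn f (cube k ×ˢ Icc (0:ℝ) 1) := by
    have := PLOn_prodMap e.pf ((PLMap.const_mul t PLMap.id).plOn (Icc (0:ℝ) 1))
    exact this
  have hpg : PLOn g (R ×ˢ Icc (0:ℝ) t) := by
    have := PLOn_prodMap e.pg ((PLMap.id.div_const t).plOn (Icc (0:ℝ) t))
    exact this
  let Ee : PLEquiv (cube k ×ˢ Icc (0:ℝ) 1) (R ×ˢ Icc (0:ℝ) t) :=
    { f := f
      g := g
      pf := hpf
      pg := hpg
      mf := by
        rintro ⟨x, s⟩ ⟨hx, hs1, hs2⟩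
        simp only at hx hs1 hs2
        exact ⟨e.mf hx, mul_nonneg ht.le hs1, by
          show t * s ≤ t
          nlinarith⟩
      mg := by
        rintro ⟨x, s⟩ ⟨hx, hs1, hs2⟩
        simp only at hx hs1 hs2
        exact ⟨e.mg hx, div_nonneg hs1 ht.le, (div_le_one ht).2 hs2⟩
      li := by
        rintro ⟨x, s⟩ ⟨hx, -⟩
        simp only at hx
        exact Prod.ext (e.li x hx) (mul_div_cancel_left₀ s ht.ne')
      ri := by
        rintro ⟨x, s⟩ ⟨hx, -⟩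
        simp only at hx
        exact Prod.ext (e.ri x hx) (mul_div_cancel₀ s ht.ne') }
  have hP := hm.map Ee
  have himg : ∀ (A : Set (Fin k → ℝ)) (A' : Set E), e.f '' A = A' → ∀ (I J : Set ℝ),
      (fun s => t * s) '' I = J → f '' (A ×ˢ I) = A' ×ˢ J := by
    rintro A _ rfl I _ rfl
    ext ⟨x, s⟩
    constructor
    · rintro ⟨⟨y, r⟩, ⟨hy, hr⟩, h2⟩
      have h3 := congrArg Prod.fst h2
      have h4 := congrArg Prod.snd h2
      exact ⟨⟨y, hy, h3⟩, ⟨r, hr, h4⟩⟩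
    · rintro ⟨⟨y, hy, h3⟩, ⟨r, hr, h4⟩⟩
      exact ⟨(y, r), ⟨hy, hr⟩, Prod.ext h3 h4⟩
  have hI : (fun s => t * s) '' Icc (0:ℝ) 1 = Icc 0 t := by
    ext s
    constructor
    · rintro ⟨r, ⟨h1, h2⟩, rfl⟩
      exact ⟨mul_nonneg ht.le h1, by show t * r ≤ t; nlinarith⟩
    · rintro ⟨h1, h2⟩
      exact ⟨s / t, ⟨div_nonneg h1 ht.le, (div_le_one ht).2 h2⟩, mul_div_cancel₀ s ht.ne'⟩
  have e1 : Ee.f '' {q : (Fin k → ℝ) × ℝ | ‖q‖ ≤ 1 ∧ q.2 = 0} = R ×ˢ {(0:ℝ)} := by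
    have : {q : (Fin k → ℝ) × ℝ | ‖q‖ ≤ 1 ∧ q.2 = 0} = cube k ×ˢ {(0:ℝ)} := by
      ext q
      constructor
      · rintro ⟨h1, h2⟩
        exact ⟨((norm_prod_lt_iff' h2.ge).1.1 h1).1, h2⟩
      · rintro ⟨h1, h2⟩
        have h2' : q.2 = 0 := h2
        exact ⟨(norm_prod_lt_iff' h2'.ge).1.2 ⟨h1, by rw [h2']; exact zero_le_one⟩, h2'⟩
    rw [this]
    exact himg _ _ e.image_eq _ _ (by simp)
  have e2 : Ee.f '' {q : (Fin k → ℝ) × ℝ | ‖q‖ = 1 ∧ 0 ≤ q.2} = Q ×ˢ Icc 0 t ∪ R ×ˢ {t} := by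
    have : {q : (Fin k → ℝ) × ℝ | ‖q‖ = 1 ∧ 0 ≤ q.2} = sph k ×ˢ Icc 0 1 ∪ cube k ×ˢ {(1:ℝ)} := by
      ext q
      constructor
      · rintro ⟨h1, h2⟩
        rcases (norm_prod_lt_iff' h2).2.1 h1 with h3 | h3
        · exact Or.inl ⟨h3.1, h2, h3.2⟩
        · exact Or.inr h3
      · rintro (⟨h1, h2, h3⟩ | ⟨h1, h2⟩)
        · exact ⟨(norm_prod_lt_iff' h2).2.2 (Or.inl ⟨h1, h3⟩), h2⟩
        · have h2' : q.2 = 1 := h2
          have h3 : 0 ≤ q.2 := by rw [h2']; exact zero_le_one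
          exact ⟨(norm_prod_lt_iff' h3).2.2 (Or.inr ⟨h1, h2'⟩), h3⟩
    rw [this, image_union]
    congr 1
    · exact himg _ _ he _ _ hI
    · exact himg _ _ e.image_eq _ _ (by simp)
  have e3 : Ee.f '' {q : (Fin k → ℝ) × ℝ | ‖q‖ = 1 ∧ q.2 = 0} = Q ×ˢ {(0:ℝ)} := by
    have : {q : (Fin k → ℝ) × ℝ | ‖q‖ = 1 ∧ q.2 = 0} = sph k ×ˢ {(0:ℝ)} := by
      ext q
      constructor
      · rintro ⟨h1, h2⟩
        rcases (norm_prod_lt_iff' h2.ge).2.1 h1 with h3 | h3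
        · exact ⟨h3.1, h2⟩
        · exact absurd (h2.symm.trans h3.2) zero_ne_one
      · rintro ⟨h1, h2⟩
        have h2' : q.2 = 0 := h2
        exact ⟨(norm_prod_lt_iff' h2'.ge).2.2 (Or.inl ⟨h1, by rw [h2']; exact zero_le_one⟩), h2'⟩
    rw [this]
    exact himg _ _ he _ _ (by simp)
  rw [e1, e2, e3] at hP
  exact hP

/-- **product pair**: top | rest -/
theorem ballPair_prod_top {R Q : Set E} (h : IsBall k R Q) {t : ℝ} (ht : 0 < t) :
    BallPair k (R ×ˢ Icc 0 t) (R ×ˢ {t}) (Q ×ˢ Icc 0 t ∪ R ×ˢ {(0:ℝ)}) (Q ×ˢ {t}) := by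
  have hP := ballPair_prod h ht
  have hp : PLMap (fun q : E × ℝ => (q.1, t - q.2)) :=
    PLMap.id.fst.prodMk ((PLMap.const t).sub PLMap.id.snd)
  let Ee : PLEquiv (R ×ˢ Icc (0:ℝ) t) (R ×ˢ Icc (0:ℝ) t) :=
    { f := fun q => (q.1, t - q.2)
      g := fun q => (q.1, t - q.2)
      pf := hp.plOn _
      pg := hp.plOn _
      mf := by
        rintro ⟨x, s⟩ ⟨hx, hs1, hs2⟩
        simp only at hx hs1 hs2
        exact ⟨hx, by show 0 ≤ t - s; linarith, by show t - s ≤ t; linarith⟩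
      mg := by
        rintro ⟨x, s⟩ ⟨hx, hs1, hs2⟩
        simp only at hx hs1 hs2
        exact ⟨hx, by show 0 ≤ t - s; linarith, by show t - s ≤ t; linarith⟩
      li := fun q _ => Prod.ext rfl (sub_sub_cancel t q.2)
      ri := fun q _ => Prod.ext rfl (sub_sub_cancel t q.2) }
  have himg : ∀ (A : Set E) (I J : Set ℝ), (fun s => t - s) '' I = J →
      Ee.f '' (A ×ˢ I) = A ×ˢ J := by
    rintro A I _ rfl
    ext ⟨x, s⟩
    constructor
    · rintro ⟨⟨y, r⟩, ⟨hy, hr⟩, h2⟩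
      have h3 : y = x := congrArg Prod.fst h2
      have h4 : t - r = s := congrArg Prod.snd h2
      exact ⟨h3 ▸ hy, ⟨r, hr, h4⟩⟩
    · rintro ⟨hx, ⟨r, hr, h4⟩⟩
      exact ⟨(x, r), ⟨hx, hr⟩, Prod.ext rfl h4⟩
  have hI : (fun s => t - s) '' Icc (0:ℝ) t = Icc 0 t := by
    rw [image_const_sub_Icc, sub_self, sub_zero]
  have h := hP.map Ee
  rw [image_union, himg R {0} {t} (by simp), himg Q _ _ hI, himg R {t} {0} (by simp),
    himg Q {0} {t} (by simp)] at h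
  exact h

theorem extend_pairs' {C0 C1 D R0 R1 Q U W : Set E} {X0 X1 D' S0 S1 Q' U' W' : Set F}
    (h0 : BallPair k C0 R0 D Q) (h1 : BallPair k C1 R1 D Q) (hC : C0 ∩ C1 = D)
    (h0' : BallPair k X0 S0 D' Q') (h1' : BallPair k X1 S1 D' Q') (hX : X0 ∩ X1 = D')
    (hR : R0 ∩ R1 = Q) (hS : S0 ∩ S1 = Q') (hU : R0 ∪ R1 = U) (hU' : S0 ∪ S1 = U')
    (hW : C0 ∪ C1 = W) (hW' : X0 ∪ X1 = W') (φ : PLEquiv U U')
    (e0 : φ.f '' R0 = S0) (e1 : φ.f '' R1 = S1) :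
    ∃ Ψ : PLEquiv W W', EqOn Ψ.f φ.f U ∧ Ψ.f '' C0 = X0 ∧ Ψ.f '' C1 = X1 := by
  subst hU hU' hW hW'
  exact extend_pairs h0 h1 hC h0' h1' hX hR hS φ e0 e1

/-! ### cones in a box -/

section Step

variable {n : ℕ} {l h c : Fin n → ℝ}

theorem joinable_bb (hl : ∀ j, l j < c j) (hh : ∀ j, c j < h j) : Joinable c (bb l h) := by
  have key : ∀ {x x' : Fin n → ℝ}, x ∈ bb l h → x' ∈ bb l h → ∀ {r r' : ℝ}, 0 < r → 0 ≤ r' →
      (∀ j, r * (x j - c j) = r' * (x' j - c j)) → r ≤ r' := by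
    rintro x x' ⟨-, j, hj⟩ ⟨hx', -⟩ r r' hr hr' he
    by_contra hlt
    rw [not_le] at hlt
    have h1 := he j
    have h2 := hl j
    have h3 := hh j
    have h4 := hx'.1 j
    have h5 := hx'.2 j
    rcases hj with hj | hj
    · rw [hj] at h1
      nlinarith [mul_le_mul_of_nonneg_left h4 hr']
    · rw [hj] at h1
      nlinarith [mul_le_mul_of_nonneg_left h5 hr']
  intro x hx x' hx' t ht t' ht' heq
  have hr : 0 < 1 - t := by linarith [ht.2]
  have hr' : 0 ≤ 1 - t' := by linarith [ht'.2]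
  have hj : ∀ j, (1 - t) * (x j - c j) = (1 - t') * (x' j - c j) := fun j => by
    have := congrFun heq j
    simp only [Pi.add_apply, Pi.smul_apply, smul_eq_mul] at this
    linear_combination this
  have h1 := key hx hx' hr hr' hj
  have h2 := key hx' hx (lt_of_lt_of_le hr h1) hr.le fun j => (hj j).symm
  have h3 : 1 - t = 1 - t' := le_antisymm h1 h2
  refine ⟨?_, by linarith⟩
  ext j
  have h4 := hj j
  rw [← h3] at h4
  have h5 := mul_left_cancel₀ hr.ne' h4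
  linarith

theorem cone1_eq (R : Set (Fin n → ℝ)) : cone1 c R = coneSet c R := by
  ext y
  constructor
  · rintro ⟨x, hx, r, hr, rfl⟩
    refine ⟨x, hx, 1 - r, ⟨by linarith [hr.2], by linarith [hr.1]⟩, ?_⟩
    rw [sub_sub_cancel, smul_sub, sub_smul, one_smul]
    abel
  · rintro ⟨x, hx, t, ht, rfl⟩
    refine ⟨x, hx, 1 - t, ⟨by linarith [ht.2], by linarith [ht.1]⟩, ?_⟩
    rw [smul_sub, sub_smul 1 t c, one_smul]
    abel

theorem cone1_sub (hl : ∀ j, l j < c j) (hh : ∀ j, c j < h j) {R : Set (Fin n → ℝ)}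
    (hR : R ⊆ bb l h) : cone1 c R ⊆ Icc l h := by
  rintro _ ⟨x, hx, r, hr, rfl⟩
  have hc : c ∈ Icc l h := ⟨fun j => (hl j).le, fun j => (hh j).le⟩
  have := (convex_Icc l h).add_smul_sub_mem hc (hR hx).1 hr
  exact this

/-- **the two cones** -/
theorem cones {m : ℕ} {R0 R1 Q : Set (Fin n → ℝ)} (hn : n = m + 1) (hl : ∀ j, l j < c j)
    (hh : ∀ j, c j < h j) (h0 : IsBall m R0 Q) (h1 : IsBall m R1 Q) (hi : R0 ∩ R1 = Q)
    (hu : R0 ∪ R1 = bb l h) :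
    BallPair m (cone1 c R0) R0 (insert c (cone1 c Q)) Q ∧
    BallPair m (cone1 c R1) R1 (insert c (cone1 c Q)) Q ∧
    cone1 c R0 ∩ cone1 c R1 = insert c (cone1 c Q) ∧ cone1 c R0 ∪ cone1 c R1 = Icc l h := by
  have hj := joinable_bb hl hh
  have hR0 : R0 ⊆ bb l h := by rw [← hu]; exact subset_union_left
  have hR1 : R1 ⊆ bb l h := by rw [← hu]; exact subset_union_right
  have j0 : Joinable c R0 := fun x hx x' hx' => hj x (hR0 hx) x' (hR0 hx')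
  have j1 : Joinable c R1 := fun x hx x' hx' => hj x (hR1 hx) x' (hR1 hx')
  have p0 : BallPair m (cone1 c R0) R0 (insert c (cone1 c Q)) Q := by
    rw [cone1_eq, cone1_eq]; exact BallPair.coneFrom h0 j0
  have p1 : BallPair m (cone1 c R1) R1 (insert c (cone1 c Q)) Q := by
    rw [cone1_eq, cone1_eq]; exact BallPair.coneFrom h1 j1
  have hint : cone1 c R0 ∩ cone1 c R1 = insert c (cone1 c Q) := by
    apply Subset.antisymm
    · rw [cone1_eq, cone1_eq, cone1_eq]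
      rintro y ⟨⟨x, hx, t, ht, h2⟩, x', hx', t', ht', h3⟩
      by_cases ht1 : t = 1
      · left
        rw [h2, ht1]; simp
      · right
        have := (hj x (hR0 hx) x' (hR1 hx') t ⟨ht.1, lt_of_le_of_ne ht.2 ht1⟩ t' ht'
          (h2.symm.trans h3)).1
        subst this
        exact ⟨x, by rw [← hi]; exact ⟨hx, hx'⟩, t, ht, h2⟩
    · exact subset_inter p0.subset₂ p1.subset₂
  refine ⟨p0, p1, hint, ?_⟩
  have hg := (p0.symm.glue p1.symm hint).ball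
  rw [hu] at hg
  have hlh : ∀ j, l j < h j := fun j => (hl j).trans (hh j)
  have hb : IsBall (m + 1) (Icc l h) (bb l h) := by subst hn; exact isBall_box hlh
  exact ball_eq_of_subset hg hb (union_subset (cone1_sub hl hh hR0) (cone1_sub hl hh hR1))

/-! ### the collar -/

/-- one coordinate of the collar -/
noncomputable def kr (l h w s : ℝ) : ℝ := max ((w + l) / 2 + s) (min w ((w + h) / 2 - s))

theorem kr_lt {l h w w' s : ℝ} (hw : w < w') : kr l h w s < kr l h w' s :=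
  max_lt_max (by linarith) (min_lt_min hw (by linarith))

theorem kr_ge {l h w s : ℝ} (hw : l ≤ w) : l + s ≤ kr l h w s :=
  le_max_of_le_left (by linarith)

theorem kr_le {l h w s : ℝ} (hw : w ≤ h) (hs : 4 * s ≤ h - l) : kr l h w s ≤ h - s :=
  max_le (by linarith) ((min_le_right _ _).trans (by linarith))

theorem kr_left {l h s : ℝ} (hs : 0 ≤ s) : kr l h l s = l + s := by
  unfold kr
  rw [max_eq_left]
  · ring
  · exact (min_le_left _ _).trans (by linarith)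

theorem kr_right {l h s : ℝ} (hs : 0 ≤ s) (h4 : 4 * s ≤ h - l) : kr l h h s = h - s := by
  unfold kr
  rw [min_eq_right (by linarith), max_eq_right (by linarith)]
  ring

theorem kr_zero {l h w : ℝ} (h1 : l ≤ w) (h2 : w ≤ h) : kr l h w 0 = w := by
  unfold kr
  rw [min_eq_left (by linarith), max_eq_right (by linarith)]

theorem kr_surj {l h s y : ℝ} (hlh : l ≤ h) (hs : 0 ≤ s) (h4 : 4 * s ≤ h - l)
    (h1 : l + s ≤ y) (h2 : y ≤ h - s) : ∃ w, l ≤ w ∧ w ≤ h ∧ kr l h w s = y := by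
  have hc : ContinuousOn (fun w => kr l h w s) (Icc l h) := by
    unfold kr
    fun_prop
  have h3 := intermediate_value_Icc hlh hc
  simp only [kr_left hs, kr_right hs h4] at h3
  obtain ⟨w, hw, h5⟩ := h3 ⟨h1, h2⟩
  exact ⟨w, hw.1, hw.2, h5⟩

theorem kap_eq (ω : Fin n → ℝ) (s : ℝ) (j : Fin n) : kap l h ω s j = kr (l j) (h j) (ω j) s := rfl

theorem kap_pl (l h : Fin n → ℝ) : PLMap (fun p : (Fin n → ℝ) × ℝ => kap l h p.1 p.2) := by
  refine Ax_914.plMap_pi fun j => ?_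
  have h1 : PLMap (fun p : (Fin n → ℝ) × ℝ => p.1 j) := (Ax_914.plMap_apply j).comp PLMap.id.fst
  exact (((h1.add_const _).div_const _).add PLMap.id.snd).max
    (h1.min (((h1.add_const _).div_const _).sub PLMap.id.snd))

theorem kap_inj {t : ℝ} (h4 : ∀ j, 4 * t < h j - l j) :
    InjOn (fun p : (Fin n → ℝ) × ℝ => kap l h p.1 p.2) (bb l h ×ˢ Icc 0 t) := by
  have key : ∀ {ω ω' : Fin n → ℝ} {s s' : ℝ}, ω ∈ bb l h → ω' ∈ bb l h → s ∈ Icc 0 t →
      s' ∈ Icc 0 t → kap l h ω s = kap l h ω' s' → s' ≤ s := by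
    rintro ω ω' s s' ⟨-, j, hj⟩ ⟨hω', -⟩ hs hs' he
    have h1 := congrFun he j
    rw [kap_eq, kap_eq] at h1
    have h2 := hω'.1 j
    have h3 := hω'.2 j
    have h5 := h4 j
    rcases hj with hj | hj
    · rw [hj, kr_left hs.1] at h1
      have := kr_ge (h := h j) (s := s') h2
      linarith
    · rw [hj, kr_right hs.1 (by linarith [hs.2])] at h1
      have := kr_le (l := l j) (s := s') h3 (by linarith [hs'.2])
      linarith
  rintro ⟨ω, s⟩ ⟨hω, hs⟩ ⟨ω', s'⟩ ⟨hω', hs'⟩ he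
  simp only at hω hs hω' hs' he
  have e : s = s' := le_antisymm (key hω' hω hs' hs he.symm) (key hω hω' hs hs' he)
  subst e
  refine Prod.ext ?_ rfl
  funext j
  have h1 := congrFun he j
  rw [kap_eq, kap_eq] at h1
  rcases lt_trichotomy (ω j) (ω' j) with h2 | h2 | h2
  · exact absurd h1 (kr_lt h2).ne
  · exact h2
  · exact absurd h1 (kr_lt h2).ne'

theorem kap_inj' (t : ℝ) : InjOn (fun ω : Fin n → ℝ => kap l h ω t) univ := by
  intro ω _ ω' _ he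
  funext j
  have h1 := congrFun he j
  simp only [kap_eq] at h1
  rcases lt_trichotomy (ω j) (ω' j) with h2 | h2 | h2
  · exact absurd h1 (kr_lt h2).ne
  · exact h2
  · exact absurd h1 (kr_lt h2).ne'

theorem kap_zero {ω : Fin n → ℝ} (hω : ω ∈ Icc l h) : kap l h ω 0 = ω := by
  funext j
  rw [kap_eq]
  exact kr_zero (hω.1 j) (hω.2 j)

theorem kap_image {t : ℝ} (hlh : ∀ j, l j < h j) (ht : 0 ≤ t) (h4 : ∀ j, 4 * t < h j - l j) :
    (fun ω : Fin n → ℝ => kap l h ω t) '' Icc l h = Icc (fun j => l j + t) (fun j => h j - t) := by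
  ext y
  constructor
  · rintro ⟨ω, hω, rfl⟩
    exact ⟨fun j => kr_ge (hω.1 j), fun j => kr_le (hω.2 j) (h4 j).le⟩
  · rintro ⟨h1, h2⟩
    choose w hw1 hw2 hw3 using fun j => kr_surj (hlh j).le ht (h4 j).le (h1 j) (h2 j)
    exact ⟨w, ⟨hw1, hw2⟩, funext hw3⟩

theorem colr_eq (R : Set (Fin n → ℝ)) (t : ℝ) :
    colr l h R t = (fun p : (Fin n → ℝ) × ℝ => kap l h p.1 p.2) '' (R ×ˢ Icc 0 t) := by
  ext y
  constructor
  · rintro ⟨ω, hω, s, hs, rfl⟩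
    exact ⟨(ω, s), ⟨hω, hs⟩, rfl⟩
  · rintro ⟨⟨ω, s⟩, ⟨hω, hs⟩, rfl⟩
    exact ⟨ω, hω, s, hs, rfl⟩

/-- **the collars** -/
theorem collars {m : ℕ} {R0 R1 Q : Set (Fin n → ℝ)} (hn : n = m + 1) (hlh : ∀ j, l j < h j)
    {t : ℝ} (ht : 0 < t) (h4 : ∀ j, 4 * t < h j - l j) (h0 : IsBall m R0 Q) (h1 : IsBall m R1 Q)
    (hi : R0 ∩ R1 = Q) (hu : R0 ∪ R1 = bb l h) :
    ∃ D, BallPair m (colr l h R0 t) R0 D Q ∧
      BallPair m (colr l h R1 t ∪ Icc (fun j => l j + t) (fun j => h j - t)) R1 D Q ∧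
      colr l h R0 t ∩ (colr l h R1 t ∪ Icc (fun j => l j + t) (fun j => h j - t)) = D ∧
      colr l h R0 t ∪ (colr l h R1 t ∪ Icc (fun j => l j + t) (fun j => h j - t)) = Icc l h := by
  have hR0 : R0 ⊆ bb l h := by rw [← hu]; exact subset_union_left
  have hR1 : R1 ⊆ bb l h := by rw [← hu]; exact subset_union_right
  have hQ0 : Q ⊆ R0 := h0.subset
  have hQ1 : Q ⊆ R1 := h1.subset
  have hbb : bb l h ⊆ Icc l h := fun y hy => hy.1
  set κ : (Fin n → ℝ) × ℝ → (Fin n → ℝ) := fun p => kap l h p.1 p.2 with hκ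
  have hpl := kap_pl l h
  have hinj := kap_inj (l := l) (h := h) h4
  have m0 : R0 ×ˢ Icc 0 t ⊆ bb l h ×ˢ Icc 0 t := prod_mono hR0 Subset.rfl
  have m1 : R1 ×ˢ Icc 0 t ⊆ bb l h ×ˢ Icc 0 t := prod_mono hR1 Subset.rfl
  -- bottom
  have hbot : ∀ {A : Set (Fin n → ℝ)}, A ⊆ bb l h → κ '' (A ×ˢ {(0:ℝ)}) = A := by
    intro A hA
    ext y
    constructor
    · rintro ⟨⟨ω, s⟩, ⟨hω, hs⟩, rfl⟩
      have hs' : s = 0 := hs
      subst hs'
      show kap l h ω 0 ∈ A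
      rw [kap_zero (hbb (hA hω))]; exact hω
    · intro hy
      exact ⟨(y, 0), ⟨hy, rfl⟩, kap_zero (hbb (hA hy))⟩
  have htop : ∀ A : Set (Fin n → ℝ), κ '' (A ×ˢ {t}) = (fun ω => kap l h ω t) '' A := by
    intro A
    ext y
    constructor
    · rintro ⟨⟨ω, s⟩, ⟨hω, hs⟩, rfl⟩
      have hs' : s = t := hs
      subst hs'
      exact ⟨ω, hω, rfl⟩
    · rintro ⟨ω, hω, rfl⟩
      exact ⟨(ω, t), ⟨hω, rfl⟩, rfl⟩
  -- membership in the shrunken box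
  have hct : ∀ {ω : Fin n → ℝ} {s : ℝ}, ω ∈ bb l h → s ∈ Icc 0 t →
      κ (ω, s) ∈ Icc (fun j => l j + t) (fun j => h j - t) → s = t := by
    rintro ω s ⟨-, j, hj⟩ hs ⟨a1, a2⟩
    have b1 := a1 j
    have b2 := a2 j
    have h5 := h4 j
    simp only [hκ, kap_eq] at b1 b2
    rcases hj with hj | hj
    · rw [hj, kr_left hs.1] at b1
      exact le_antisymm hs.2 (by linarith)
    · rw [hj, kr_right hs.1 (by linarith [hs.2])] at b2
      exact le_antisymm hs.2 (by linarith)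
  have hbox := kap_image (l := l) (h := h) hlh ht.le h4
  -- the first ball
  have P0 : BallPair m (colr l h R0 t) R0 (κ '' (Q ×ˢ Icc 0 t ∪ R0 ×ˢ {t})) Q := by
    have := (ballPair_prod h0 ht).image_injOn (hpl.plOn _) (hinj.mono m0)
    rw [hbot hR0, hbot (hQ0.trans hR0)] at this
    rw [colr_eq]
    exact this
  -- the collar over the second side
  have P1 : BallPair m (colr l h R1 t) ((fun ω => kap l h ω t) '' R1)
      (κ '' (Q ×ˢ Icc 0 t) ∪ R1) ((fun ω => kap l h ω t) '' Q) := by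
    have := (ballPair_prod_top h1 ht).image_injOn (hpl.plOn _) (hinj.mono m1)
    rw [htop, htop, image_union, hbot hR1] at this
    rw [colr_eq]
    exact this
  -- the small box
  have hboxB : IsBall (m + 1) (Icc l h) (R1 ∪ R0) := by
    rw [union_comm, hu]
    subst hn
    exact isBall_box hlh
  have P2 : BallPair m (Icc (fun j => l j + t) (fun j => h j - t)) ((fun ω => kap l h ω t) '' R1)
      ((fun ω => kap l h ω t) '' R0) ((fun ω => kap l h ω t) '' Q) := by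
    have hb : BallPair m (Icc l h) R1 R0 Q := ⟨hboxB, h1, h0, by rw [inter_comm]; exact hi⟩
    have hpt : PLMap (fun ω : Fin n → ℝ => kap l h ω t) :=
      hpl.comp (PLMap.id.prodMk (PLMap.const t))
    have := hb.image_injOn (hpt.plOn _) ((kap_inj' t).mono (subset_univ _))
    rw [hbox] at this
    exact this
  have hi12 : colr l h R1 t ∩ Icc (fun j => l j + t) (fun j => h j - t) =
      (fun ω => kap l h ω t) '' R1 := by
    apply Subset.antisymm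
    · rintro y ⟨⟨ω, hω, s, hs, rfl⟩, hy⟩
      have := hct (hR1 hω) hs hy
      subst this
      exact ⟨ω, hω, rfl⟩
    · rintro _ ⟨ω, hω, rfl⟩
      refine ⟨⟨ω, hω, t, ⟨ht.le, le_rfl⟩, rfl⟩, ?_⟩
      rw [← hbox]
      exact ⟨ω, hbb (hR1 hω), rfl⟩
  have P3 := P1.glue P2 hi12
  set D := κ '' (Q ×ˢ Icc 0 t ∪ R0 ×ˢ {t}) with hD
  have hDe : D = κ '' (Q ×ˢ Icc 0 t) ∪ (fun ω => kap l h ω t) '' R0 := by
    rw [hD, image_union, htop]
  have P4 : BallPair m (colr l h R1 t ∪ Icc (fun j => l j + t) (fun j => h j - t)) R1 D Q := by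
    refine ⟨?_, h1, P0.ball₂, ?_⟩
    · have := P3.ball
      have e : R1 ∪ D = κ '' (Q ×ˢ Icc 0 t) ∪ R1 ∪ (fun ω => kap l h ω t) '' R0 := by
        rw [hDe, ← union_assoc, union_comm R1]
      rw [e]
      exact this
    · apply Subset.antisymm
      · rintro y ⟨hy, ⟨ω, s⟩, hp, he⟩
        have hyb := hR1 hy
        have e1 : κ (y, 0) = y := kap_zero (hbb hyb)
        have hmem : (ω, s) ∈ bb l h ×ˢ Icc 0 t := by
          rcases hp with hp | hp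
          · exact ⟨hR0 (hQ0 hp.1), hp.2⟩
          · have : s = t := hp.2
            exact ⟨hR0 hp.1, by show s ∈ Icc 0 t; rw [this]; exact ⟨ht.le, le_rfl⟩⟩
        have h5 := hinj hmem ⟨hyb, le_rfl, ht.le⟩ (he.trans e1.symm)
        rw [h5] at hp
        rcases hp with hp | hp
        · exact hp.1
        · have : (0:ℝ) = t := hp.2
          exact absurd this ht.ne
      · intro y hy
        exact ⟨hQ1 hy, (y, 0), Or.inl ⟨hy, le_rfl, ht.le⟩, kap_zero (hbb (hR0 (hQ0 hy)))⟩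
  have hiD : colr l h R0 t ∩ (colr l h R1 t ∪ Icc (fun j => l j + t) (fun j => h j - t)) = D := by
    apply Subset.antisymm
    · rintro y ⟨⟨ω, hω, s, hs, rfl⟩, hy⟩
      rcases hy with ⟨ω', hω', s', hs', he⟩ | hy
      · have h5 : ((ω, s) : (Fin n → ℝ) × ℝ) = (ω', s') :=
          hinj (show (ω, s) ∈ bb l h ×ˢ Icc 0 t from ⟨hR0 hω, hs⟩)
            (show (ω', s') ∈ bb l h ×ˢ Icc 0 t from ⟨hR1 hω', hs'⟩) he
        have h6 : ω = ω' := congrArg Prod.fst h5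
        refine ⟨(ω, s), Or.inl ⟨?_, hs⟩, rfl⟩
        show ω ∈ Q
        rw [← hi]
        exact ⟨hω, h6 ▸ hω'⟩
      · have := hct (hR0 hω) hs hy
        exact ⟨(ω, s), Or.inr ⟨hω, this⟩, rfl⟩
    · rintro _ ⟨⟨ω, s⟩, hp, rfl⟩
      rcases hp with ⟨hp1, hp2⟩ | ⟨hp1, hp2⟩
      · exact ⟨⟨ω, hQ0 hp1, s, hp2, rfl⟩, Or.inl ⟨ω, hQ1 hp1, s, hp2, rfl⟩⟩
      · have hs : s = t := hp2
        subst hs
        refine ⟨⟨ω, hp1, s, ⟨ht.le, le_rfl⟩, rfl⟩, Or.inr ?_⟩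
        rw [← hbox]
        exact ⟨ω, hbb (hR0 hp1), rfl⟩
  refine ⟨D, P0, P4, hiD, ?_⟩
  have hg := (P0.symm.glue P4.symm hiD).ball
  have hsub0 : ∀ {A : Set (Fin n → ℝ)}, A ⊆ bb l h → colr l h A t ⊆ Icc l h := by
    rintro A hA y ⟨ω, hω, s, hs, rfl⟩
    have hω' := hbb (hA hω)
    refine ⟨fun j => ?_, fun j => ?_⟩
    · have := kr_ge (h := h j) (s := s) (hω'.1 j)
      rw [kap_eq]
      linarith [hs.1]
    · have := kr_le (l := l j) (s := s) (hω'.2 j) (by linarith [hs.2, h4 j])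
      rw [kap_eq]
      linarith [hs.1]
  refine ball_eq_of_subset hg (by rw [union_comm]; exact hboxB) (union_subset (hsub0 hR0)
    (union_subset (hsub0 hR1) ?_))
  rintro y ⟨h5, h6⟩
  refine ⟨fun j => ?_, fun j => ?_⟩
  · have := h5 j
    simp only at this
    linarith
  · have := h6 j
    simp only at this
    linarith

end Step

/-- **(N2)** -/
theorem stepStmt : StepStmt := by
  intro k hk l h c t hl hh ht h4 R0 R1 th phi hR0 hR1 e0 e1
  obtain ⟨m, rfl⟩ : ∃ m, k = m + 1 := ⟨k - 1, by omega⟩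
  have hlh : ∀ j, l j < h j := fun j => (hl j).trans (hh j)
  have hm := ballPair_cube m
  have hps : Hp m ⊆ sph (m + 1) := fun y hy => hy.1
  have hms : Hm m ⊆ sph (m + 1) := fun y hy => hy.1
  have hes : He m ⊆ sph (m + 1) := fun y hy => hy.1
  have g0 : th.g '' Hp m = R0 := image_g th hR0 e0
  have g1 : th.g '' Hm m = R1 := image_g th hR1 e1
  set Q := th.g '' He m with hQ
  have b0 : IsBall m R0 Q := by
    have := hm.ball₁.map (th.symm.restrImage hps)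
    rw [← g0]
    exact this
  have b1 : IsBall m R1 Q := by
    have := hm.ball₂.map (th.symm.restrImage hms)
    rw [← g1]
    exact this
  have ginj : InjOn th.g (sph (m + 1)) := th.symm.injOn
  have hi : R0 ∩ R1 = Q := by
    rw [← g0, ← g1, ← ginj.image_inter hps hms, hm.inter]
  have hu : R0 ∪ R1 = bb l h := by
    rw [← g0, ← g1, ← image_union, Hp_union_Hm]
    exact th.symm.image_eq
  -- the images under phi
  have hQR0 : Q ⊆ R0 := b0.subset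
  have c0 : IsBall m (phi.f '' R0) (phi.f '' Q) := b0.map (phi.restrImage hR0)
  have c1 : IsBall m (phi.f '' R1) (phi.f '' Q) := b1.map (phi.restrImage hR1)
  have ci : phi.f '' R0 ∩ phi.f '' R1 = phi.f '' Q := by
    rw [← phi.injOn.image_inter hR0 hR1, hi]
  have cu : phi.f '' R0 ∪ phi.f '' R1 = bb l h := by
    rw [← image_union, hu, phi.image_eq]
  obtain ⟨p0, p1, p2, p3⟩ := cones rfl hl hh b0 b1 hi hu
  obtain ⟨D, q0, q1, q2, q3⟩ := collars rfl hlh ht h4 c0 c1 ci cu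
  obtain ⟨Ψ, a1, a2, a3⟩ := extend_pairs' p0 p1 p2 q0 q1 q2 hi ci hu cu p3 q3 phi rfl rfl
  exact ⟨Ψ, a1, a2, a3⟩

end Crest.Agent.R096.Gn_296
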