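import Crest.Agent.R096.No0_477

/-!
# Row 96 (S0127), NO0 / GEO (helper324), part 1: lattice cells of a tiling

`cc_of_P` : the closed cells of a tiling depend only on the tiles as sets.
`cc_lat` : if every tile through `x` is a cube of the lattice `a + r ℤ³` then `T.cc x = lc a r x`
(`lc a r x` = the points which satisfy all closed lattice inequalities which `x` satisfies) and
`T.V x` = the coordinate directions in which `x` is not on a lattice plane.
-/

set_option autoImplicit false
set_option linter.style.longLine false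
set_option linter.unusedSectionVars false

open MeasureTheory Set Filter Topology Metric
open scoped ENNReal

namespace Crest.Agent.R096.Gno_324

open Crest.Agent.R096.Msh_715 Crest.Agent.R096.SkC1_961 Crest.Agent.R096.No0_477
open Crest.Agent.R096.SkN1_477 (E2 emb usq side)

noncomputable section

/-- the lattice cell of `x`: the points which satisfy all closed inequalities of the lattice
`a + r ℤ³` which `x` satisfies -/
def lc (a : E3) (r : ℝ) (x : E3) : Set E3 :=
  {y | ∀ i (z : ℤ), (a i + r * z ≤ x i → a i + r * z ≤ y i) ∧ (x i ≤ a i + r * z → y i ≤ a i + r * z)}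

/-- the coordinate `i` of `x` is on a lattice plane -/
def onp (a : E3) (r : ℝ) (x : E3) (i : Fin 3) : Prop := ∃ z : ℤ, x i = a i + r * z

theorem lc_eq_of_onp {a : E3} {r : ℝ} {x y : E3} (hy : y ∈ lc a r x) {i : Fin 3}
    (h : onp a r x i) : y i = x i := by
  obtain ⟨z, hz⟩ := h
  obtain ⟨h1, h2⟩ := hy i z
  have h3 := h1 hz.ge
  have h4 := h2 hz.le
  linarith

/-- the lattice cube -/
def lcub (a : E3) (r : ℝ) (z : Fin 3 → ℤ) : Set E3 :=
  {y | ∀ i, a i + r * z i ≤ y i ∧ y i ≤ a i + r * (z i + 1)}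

theorem lcub_eq_cub (a : E3) (r : ℝ) (z : Fin 3 → ℤ) :
    lcub a r z = cub (fun i => a i + r * z i) r := by
  ext y
  unfold lcub cub
  refine forall_congr' fun i => ?_
  have e : a i + r * ((z i : ℝ) + 1) = a i + r * z i + r := by ring
  rw [e]

section tiling

variable {Om : Set E3} {ι : Type*} (T : Tiling Om ι)

/-- **the closed cells depend only on the tiles as sets** -/
theorem mem_cc_of_P {x y : E3} : y ∈ T.cc x ↔ ∀ i ∈ T.at_ x, y ∈ P (T.H i) ∧
    ∃ᶠ s in 𝓝[>] (0 : ℝ), x + s • (x - y) ∈ P (T.H i) := by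
  constructor
  · intro hy i hi
    refine ⟨T.cc_sub_tile hi hy, ?_⟩
    refine (mem_P_small (v := x - y) hi ?_).frequently
    intro h hh e
    have h2 := (hy i hi h hh).2 e
    rw [map_sub, h2, e, sub_self]
  · intro hy i hi h hh
    obtain ⟨h1, h2⟩ := hy i hi
    refine ⟨h1 h hh, fun e => le_antisymm (h1 h hh) ?_⟩
    obtain ⟨s, hs, hs0⟩ := (h2.and_eventually self_mem_nhdsWithin).exists
    have h3 := hs h hh
    have hs1 : (0 : ℝ) < s := hs0
    rw [map_add, map_smul, map_sub, smul_eq_mul, e] at h3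
    nlinarith

/-- all tiles through `x` are lattice cubes -/
def Lat (a : E3) (r : ℝ) (x : E3) : Prop := ∀ i ∈ T.at_ x, ∃ z : Fin 3 → ℤ, P (T.H i) = lcub a r z

variable {T}

theorem exists_tile_towards {x : E3} (hx : x ∈ Om) (v : E3) :
    ∃ i ∈ T.at_ x, ∃ s : ℝ, 0 < s ∧ x + s • v ∈ P (T.H i) := by
  obtain ⟨ρ, hρ, hb, hat⟩ := T.exists_ball hx
  have h1 : ∀ᶠ s in 𝓝[>] (0 : ℝ), x + s • v ∈ ball x ρ := by
    have hc : Tendsto (fun s : ℝ => x + s • v) (𝓝[>] 0) (𝓝 x) := by
      have : Tendsto (fun s : ℝ => x + s • v) (𝓝 0) (𝓝 (x + (0 : ℝ) • v)) :=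
        (continuous_const.add (continuous_id.smul continuous_const)).tendsto 0
      rw [zero_smul, add_zero] at this
      exact this.mono_left nhdsWithin_le_nhds
    exact hc.eventually (ball_mem_nhds x hρ)
  obtain ⟨s, hs, hs0⟩ := (h1.and self_mem_nhdsWithin).exists
  obtain ⟨i, hi⟩ := T.cov _ (hb hs)
  exact ⟨i, hat _ hs hi, s, hs0, hi⟩

theorem lcub_le {r : ℝ} (hr : 0 < r) {a : E3} {z : Fin 3 → ℤ} {i : Fin 3} {t : ℤ} {p : ℝ}
    (h1 : a i + r * t < p) (h2 : p ≤ a i + r * (z i + 1)) : a i + r * t ≤ a i + r * z i := by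
  have h3 : (t : ℝ) < z i + 1 := by
    have : r * (t : ℝ) < r * (z i + 1) := by linarith
    exact lt_of_mul_lt_mul_left this hr.le
  have h4 : t ≤ z i := by
    have : (t : ℝ) < ((z i + 1 : ℤ) : ℝ) := by push_cast; exact h3
    have := Int.cast_lt.1 this
    omega
  have h5 : (t : ℝ) ≤ z i := by exact_mod_cast h4
  nlinarith

theorem le_lcub {r : ℝ} (hr : 0 < r) {a : E3} {z : Fin 3 → ℤ} {i : Fin 3} {t : ℤ} {p : ℝ}
    (h1 : p < a i + r * t) (h2 : a i + r * z i ≤ p) : a i + r * (z i + 1) ≤ a i + r * t := by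
  have h3 : (z i : ℝ) < t := by
    have : r * (z i : ℝ) < r * t := by linarith
    exact lt_of_mul_lt_mul_left this hr.le
  have h4 : z i < t := Int.cast_lt.1 h3
  have h5 : (z i : ℝ) + 1 ≤ t := by exact_mod_cast h4
  nlinarith

/-- **the closed cell at a point all of whose tiles are lattice cubes** -/
theorem cc_lat {a : E3} {r : ℝ} (hr : 0 < r) {x : E3} (hx : x ∈ Om) (hL : Lat T a r x) :
    T.cc x = lc a r x := by
  ext y
  constructor
  · intro hy i z
    constructor
    · intro h
      obtain ⟨j, hj, s, hs, hjs⟩ := exists_tile_towards (T := T) hx (Pi.single i (1 : ℝ))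
      obtain ⟨w, hw⟩ := hL j hj
      have h1 : x + s • (Pi.single i (1 : ℝ) : E3) ∈ lcub a r w := hw ▸ hjs
      have h2 : y ∈ lcub a r w := hw ▸ T.cc_sub_tile hj hy
      have h3 := (h1 i).2
      simp only [Pi.add_apply, Pi.smul_apply, Pi.single_eq_same, smul_eq_mul, mul_one] at h3
      exact (lcub_le hr (p := x i + s) (by linarith) h3).trans (h2 i).1
    · intro h
      obtain ⟨j, hj, s, hs, hjs⟩ := exists_tile_towards (T := T) hx (-Pi.single i (1 : ℝ))
      obtain ⟨w, hw⟩ := hL j hj
      have h1 : x + s • (-Pi.single i (1 : ℝ) : E3) ∈ lcub a r w := hw ▸ hjs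
      have h2 : y ∈ lcub a r w := hw ▸ T.cc_sub_tile hj hy
      have h3 := (h1 i).1
      simp only [Pi.add_apply, Pi.smul_apply, Pi.neg_apply, Pi.single_eq_same, smul_eq_mul, mul_neg,
        mul_one] at h3
      exact (h2 i).2.trans (le_lcub hr (p := x i + -s) (by linarith) h3)
  · intro hy
    rw [mem_cc_of_P]
    intro j hj
    obtain ⟨w, hw⟩ := hL j hj
    have hxw : x ∈ lcub a r w := by rw [← hw]; exact hj
    rw [hw]
    have hyw : y ∈ lcub a r w := by
      intro i
      have h1 := hy i (w i)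
      have h2 := hy i (w i + 1)
      push_cast at h2
      exact ⟨h1.1 (hxw i).1, h2.2 (hxw i).2⟩
    refine ⟨hyw, Eventually.frequently ?_⟩
    have key : ∀ i, ∀ᶠ s in 𝓝[>] (0 : ℝ), a i + r * w i ≤ x i + s * (x i - y i) ∧
        x i + s * (x i - y i) ≤ a i + r * (w i + 1) := by
      intro i
      have hc : Tendsto (fun s : ℝ => x i + s * (x i - y i)) (𝓝[>] 0) (𝓝 (x i)) := by
        have : Tendsto (fun s : ℝ => x i + s * (x i - y i)) (𝓝 0) (𝓝 (x i + 0 * (x i - y i))) :=
          (continuous_const.add (continuous_id.mul continuous_const)).tendsto 0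
        rw [zero_mul, add_zero] at this
        exact this.mono_left nhdsWithin_le_nhds
      have hl : ∀ᶠ s in 𝓝[>] (0 : ℝ), a i + r * w i ≤ x i + s * (x i - y i) := by
        rcases (hxw i).1.lt_or_eq with h | h
        · exact (hc.eventually (lt_mem_nhds h)).mono fun s hs => hs.le
        · have : y i = x i := lc_eq_of_onp hy ⟨w i, h.symm⟩
          refine Eventually.of_forall fun s => ?_
          rw [this, sub_self, mul_zero, add_zero]
          exact h.le
      have hu : ∀ᶠ s in 𝓝[>] (0 : ℝ), x i + s * (x i - y i) ≤ a i + r * (w i + 1) := by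
        rcases (hxw i).2.lt_or_eq with h | h
        · exact (hc.eventually (gt_mem_nhds h)).mono fun s hs => hs.le
        · have : y i = x i := lc_eq_of_onp hy ⟨w i + 1, by push_cast; exact h⟩
          refine Eventually.of_forall fun s => ?_
          rw [this, sub_self, mul_zero, add_zero]
          exact h.le
      exact hl.and hu
    exact (eventually_all.2 key).mono fun s hs i => hs i

/-- the direction space -/
theorem mem_V_lat {a : E3} {r : ℝ} (hr : 0 < r) {x : E3} (hx : x ∈ Om) (hL : Lat T a r x) {v : E3} :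
    v ∈ T.V x ↔ ∀ i, onp a r x i → v i = 0 := by
  constructor
  · intro hv i hi
    obtain ⟨ρ, hρ, hb⟩ := T.exists_ball_oc hx
    obtain ⟨s, hs, hs1⟩ : ∃ s : ℝ, 0 < s ∧ s * ‖v‖ < ρ := by
      refine ⟨ρ / (2 * (‖v‖ + 1)), by positivity, ?_⟩
      rw [div_mul_eq_mul_div, div_lt_iff₀ (by positivity)]
      nlinarith [norm_nonneg v]
    have h1 : x + s • v ∈ T.cc x := T.oc_sub_cc x (hb _ (Submodule.smul_mem _ _ hv) (by
      rw [norm_smul, Real.norm_eq_abs, abs_of_pos hs]; exact hs1))
    rw [cc_lat hr hx hL] at h1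
    have h2 := lc_eq_of_onp h1 hi
    simp only [Pi.add_apply, Pi.smul_apply, smul_eq_mul, add_eq_left, mul_eq_zero] at h2
    rcases h2 with h2 | h2
    · exact absurd h2 hs.ne'
    · exact h2
  · intro hv
    have key : ∀ i, ∀ᶠ s in 𝓝[>] (0 : ℝ), ∀ z : ℤ,
        (a i + r * z ≤ x i → a i + r * z ≤ x i + s * v i) ∧
        (x i ≤ a i + r * z → x i + s * v i ≤ a i + r * z) := by
      intro i
      by_cases hi : onp a r x i
      · refine Eventually.of_forall fun s z => ?_
        rw [hv i hi, mul_zero, add_zero]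
        exact ⟨id, id⟩
      · have h1 : a i + r * ⌊(x i - a i) / r⌋ < x i := by
          have h2 := Int.floor_le ((x i - a i) / r)
          rw [le_div_iff₀ hr] at h2
          refine lt_of_le_of_ne (by linarith) fun h => hi ⟨_, h.symm⟩
        have h2 : x i < a i + r * (⌊(x i - a i) / r⌋ + 1) := by
          have h3 := Int.lt_floor_add_one ((x i - a i) / r)
          rw [div_lt_iff₀ hr] at h3
          linarith
        have hc : Tendsto (fun s : ℝ => x i + s * v i) (𝓝[>] 0) (𝓝 (x i)) := by
          have : Tendsto (fun s : ℝ => x i + s * v i) (𝓝 0) (𝓝 (x i + 0 * v i)) :=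
            (continuous_const.add (continuous_id.mul continuous_const)).tendsto 0
          rw [zero_mul, add_zero] at this
          exact this.mono_left nhdsWithin_le_nhds
        filter_upwards [hc.eventually (lt_mem_nhds h1), hc.eventually (gt_mem_nhds h2)] with s h3 h4 z
        constructor
        · intro h5
          have h6 : z ≤ ⌊(x i - a i) / r⌋ := by
            rw [Int.le_floor, le_div_iff₀ hr]; linarith
          have h7 : (z : ℝ) ≤ ⌊(x i - a i) / r⌋ := by exact_mod_cast h6
          nlinarith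
        · intro h5
          have h6 : ⌊(x i - a i) / r⌋ < z := by
            rw [Int.floor_lt, div_lt_iff₀ hr]
            refine lt_of_le_of_ne (by linarith) fun h => hi ⟨z, by linarith⟩
          have h7 : (⌊(x i - a i) / r⌋ : ℝ) + 1 ≤ z := by exact_mod_cast h6
          nlinarith
    obtain ⟨s, hs, hs0⟩ := ((eventually_all.2 key).and self_mem_nhdsWithin).exists
    have hs1 : (0 : ℝ) < s := hs0
    have h1 : x + s • v ∈ T.cc x := by
      rw [cc_lat hr hx hL]
      exact fun i z => hs i z
    have h2 := T.sub_mem_V h1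
    rw [add_sub_cancel_left] at h2
    have h3 := Submodule.smul_mem _ s⁻¹ h2
    rwa [smul_smul, inv_mul_cancel₀ hs1.ne', one_smul] at h3

open scoped Classical in
/-- the dimension -/
theorem dim_lat {a : E3} {r : ℝ} (hr : 0 < r) {x : E3} (hx : x ∈ Om) (hL : Lat T a r x) :
    T.dim x = Fintype.card {i // ¬ onp a r x i} := by
  have h1 : T.V x = ⨅ i ∈ {i | onp a r x i},
      LinearMap.ker (LinearMap.proj i : E3 →ₗ[ℝ] ℝ) := by
    ext v
    rw [mem_V_lat hr hx hL]
    simp only [mem_ofPred_eq, Submodule.mem_iInf, LinearMap.mem_ker, LinearMap.proj_apply]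
  have e := LinearMap.iInfKerProjEquiv ℝ (fun _ : Fin 3 => ℝ) (I := {i | ¬ onp a r x i})
    (J := {i | onp a r x i}) (by rw [Set.disjoint_left]; intro i h1 h2; exact h1 h2)
    (by intro i _; by_cases h : onp a r x i; exacts [Or.inr h, Or.inl h])
  have h2 : T.dim x = Module.finrank ℝ (⨅ i ∈ {i | onp a r x i},
      LinearMap.ker (LinearMap.proj i : E3 →ₗ[ℝ] ℝ) : Submodule ℝ E3) := by
    rw [← h1]; rfl
  rw [h2, e.finrank_eq, Module.finrank_fintype_fun_eq_card]
  exact Fintype.card_congr (Equiv.refl _)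

end tiling

end

end Crest.Agent.R096.Gno_324
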