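import Crest.Agent.R096.Gno2_324

/-!
# Row 96 (S0127), NO0 / GEO (helper324), part 3: the block of squares, counting

`exists_block` : `o, M, Zs` for every shift `a` and every small `r`.
`count_cub` : the number of squares whose cubes lie in `A` is at most `vol A / r³`.
`tendsto_thick` : volumes of translated thickenings of finitely many compact sets.
-/

set_option autoImplicit false
set_option linter.style.longLine false
set_option linter.unusedSectionVars false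

open MeasureTheory Set Filter Topology Metric
open scoped ENNReal

namespace Crest.Agent.R096.Gno_324

open Crest.Agent.R096.Msh_715 Crest.Agent.R096.SkC1_961 Crest.Agent.R096.No0_477

noncomputable section

/-- the integers `m` with `|L (b + r m)| ≤ 1 / 2` -/
theorem exists_Zs {L : ℕ} (hL : 1 ≤ L) {r : ℝ} (hr : 0 < r) (hrL : 4 * L * r ≤ 1) (b : ℝ) :
    ∃ Zs : Finset ℤ, (∀ m, m ∈ Zs ↔ |(L : ℝ) * (b + r * m)| ≤ 1 / 2) ∧
      3 / (4 * L) ≤ (Zs.card : ℝ) * r ∧ (Zs.card : ℝ) * r ≤ 5 / (4 * L) := by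
  have hL0 : (0 : ℝ) < L := by exact_mod_cast hL
  set p : ℝ := (-(1 / (2 * L)) - b) / r with hp
  set q : ℝ := (1 / (2 * L) - b) / r with hq
  have hpq : q - p = 1 / (L * r) := by
    rw [hp, hq]; field_simp; ring
  have h4 : 4 ≤ q - p := by
    rw [hpq, le_div_iff₀ (by positivity)]; linarith
  have hc1 : ((⌊q⌋ : ℤ) : ℝ) ≤ q := Int.floor_le q
  have hc2 : q < (⌊q⌋ : ℤ) + 1 := Int.lt_floor_add_one q
  have hc3 : p ≤ (⌈p⌉ : ℤ) := Int.le_ceil p
  have hc4 : ((⌈p⌉ : ℤ) : ℝ) < p + 1 := Int.ceil_lt_add_one p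
  have hle : ⌈p⌉ ≤ ⌊q⌋ := by
    have : ((⌈p⌉ : ℤ) : ℝ) ≤ (⌊q⌋ : ℤ) := by linarith
    exact_mod_cast this
  have hcard : ((Finset.Icc ⌈p⌉ ⌊q⌋).card : ℝ) = (⌊q⌋ : ℤ) + 1 - (⌈p⌉ : ℤ) := by
    rw [Int.card_Icc]
    have h1 : 0 ≤ ⌊q⌋ + 1 - ⌈p⌉ := by omega
    have h2 : (((⌊q⌋ + 1 - ⌈p⌉).toNat : ℤ) : ℝ) = ((⌊q⌋ + 1 - ⌈p⌉ : ℤ) : ℝ) := by
      rw [Int.toNat_of_nonneg h1]
    have h3 : (((⌊q⌋ + 1 - ⌈p⌉).toNat : ℤ) : ℝ) = (((⌊q⌋ + 1 - ⌈p⌉).toNat : ℕ) : ℝ) := by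
      push_cast; rfl
    rw [← h3, h2]
    push_cast
    ring
  refine ⟨Finset.Icc ⌈p⌉ ⌊q⌋, ?_, ?_, ?_⟩
  · intro m
    rw [Finset.mem_Icc, Int.ceil_le, Int.le_floor, hp, hq, div_le_iff₀ hr, le_div_iff₀ hr, abs_le]
    have e1 : (L : ℝ) * (1 / (2 * L)) = 1 / 2 := by field_simp
    constructor
    · rintro ⟨h1, h2⟩
      have h3 : -(1 / (2 * (L : ℝ))) ≤ b + r * m := by linarith
      have h5 : b + r * m ≤ 1 / (2 * (L : ℝ)) := by linarith
      constructor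
      · nlinarith
      · nlinarith
    · rintro ⟨h1, h2⟩
      have h3 : (L : ℝ) * (-(1 / (2 * L))) ≤ L * (b + r * m) := by linarith
      have h5 : (L : ℝ) * (b + r * m) ≤ L * (1 / (2 * L)) := by linarith
      have h6 := le_of_mul_le_mul_left h3 hL0
      have h7 := le_of_mul_le_mul_left h5 hL0
      constructor <;> linarith
  · rw [hcard]
    have h1 : q - p - 1 ≤ (⌊q⌋ : ℤ) + 1 - (⌈p⌉ : ℤ) := by linarith
    have h2 : (q - p - 1) * r ≤ ((⌊q⌋ : ℤ) + 1 - (⌈p⌉ : ℤ)) * r := mul_le_mul_of_nonneg_right h1 hr.le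
    refine le_trans ?_ h2
    rw [hpq, sub_mul, one_mul]
    have e : 1 / ((L : ℝ) * r) * r = 1 / L := by field_simp
    rw [e]
    have h3 : r ≤ 1 / (4 * L) := by
      rw [le_div_iff₀ (by positivity)]; linarith
    have e2 : (3 : ℝ) / (4 * L) = 1 / L - 1 / (4 * L) := by field_simp; ring
    rw [e2]
    linarith
  · rw [hcard]
    have h1 : ((⌊q⌋ : ℤ) : ℝ) + 1 - (⌈p⌉ : ℤ) ≤ q - p + 1 := by linarith
    have h2 := mul_le_mul_of_nonneg_right h1 hr.le
    refine h2.trans ?_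
    rw [hpq, add_mul, one_mul]
    have e : 1 / ((L : ℝ) * r) * r = 1 / L := by field_simp
    rw [e]
    have h3 : r ≤ 1 / (4 * L) := by
      rw [le_div_iff₀ (by positivity)]; linarith
    have e2 : (5 : ℝ) / (4 * L) = 1 / L + 1 / (4 * L) := by field_simp; ring
    rw [e2]
    linarith

/-- **the block of squares** -/
theorem exists_block {L : ℕ} (hL : 1 ≤ L) {η r : ℝ} (hη : η ≤ 1 / 8) (hr : 0 < r) (hrη : 4 * r ≤ η)
    (hrL : 4 * L * r ≤ 1) (a : E3) :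
    ∃ (o : Fin 2 → ℤ) (M : ℕ) (Zs : Finset ℤ), 0 < M ∧
      (∀ j : Fin 2, a j.castSucc + r * o j ≤ -(1 - η) ∧ -(1 - η) - r < a j.castSucc + r * o j ∧
        -1 < a j.castSucc + r * o j) ∧
      (∀ j : Fin 2, 1 - η ≤ a j.castSucc + r * (o j + M) ∧
        a j.castSucc + r * (o j + M) ≤ 1 - η + 2 * r ∧ a j.castSucc + r * (o j + M) < 1) ∧
      Zs.Nonempty ∧ (∀ m, m ∈ Zs ↔ |(L : ℝ) * (a 2 + r * m)| ≤ 1 / 2) ∧
      (∀ m ∈ Zs, ∀ v : Fin 2 → ℕ, (∀ j, v j < M) → ∀ x ∈ cub (vx a r o m v) r,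
        (∀ j : Fin 2, |x j.castSucc| ≤ 1 - η + 2 * r) ∧ |(L : ℝ) * x 2| ≤ 1 / 2 + L * r) ∧
      2 / L ≤ ((Zs.card : ℝ) * M ^ 2) * r ^ 3 ∧ ((Zs.card : ℝ) * M ^ 2) * r ^ 3 ≤ 5 / L := by
  have hL0 : (0 : ℝ) < L := by exact_mod_cast hL
  obtain ⟨Zs, hZ, hZ1, hZ2⟩ := exists_Zs hL hr hrL (a 2)
  set o : Fin 2 → ℤ := fun j => ⌊(-(1 - η) - a j.castSucc) / r⌋ with ho
  set M : ℕ := ⌈2 * (1 - η) / r⌉₊ + 1 with hM
  have hpos : 0 ≤ 2 * (1 - η) / r := by
    apply div_nonneg _ hr.le; linarith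
  have hM1 : 2 * (1 - η) + r ≤ r * M := by
    have h1 := Nat.le_ceil (2 * (1 - η) / r)
    rw [div_le_iff₀ hr] at h1
    rw [hM]; push_cast
    linarith
  have hM2 : r * M ≤ 2 * (1 - η) + 2 * r := by
    have h1 := (Nat.ceil_lt_add_one hpos).le
    have h2 := mul_le_mul_of_nonneg_right h1 hr.le
    rw [add_mul, div_mul_cancel₀ _ hr.ne', one_mul] at h2
    rw [hM]; push_cast
    linarith
  have lo : ∀ j : Fin 2, a j.castSucc + r * o j ≤ -(1 - η) ∧ -(1 - η) - r < a j.castSucc + r * o j := by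
    intro j
    have h1 := Int.floor_le ((-(1 - η) - a j.castSucc) / r)
    have h2 := Int.lt_floor_add_one ((-(1 - η) - a j.castSucc) / r)
    rw [le_div_iff₀ hr] at h1
    rw [div_lt_iff₀ hr] at h2
    simp only [ho]
    constructor <;> linarith
  have hi : ∀ j : Fin 2, 1 - η ≤ a j.castSucc + r * (o j + M) ∧
      a j.castSucc + r * (o j + M) ≤ 1 - η + 2 * r := by
    intro j
    obtain ⟨h1, h2⟩ := lo j
    rw [mul_add]
    constructor <;> linarith
  have hne : Zs.Nonempty := by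
    rw [Finset.nonempty_iff_ne_empty]
    rintro rfl
    simp only [Finset.card_empty, Nat.cast_zero, zero_mul] at hZ1
    have : (0 : ℝ) < 3 / (4 * L) := by positivity
    linarith
  refine ⟨o, M, Zs, by rw [hM]; omega, fun j => ⟨(lo j).1, (lo j).2, by linarith [(lo j).2]⟩,
    fun j => ⟨(hi j).1, (hi j).2, by linarith [(hi j).2]⟩, hne, hZ, ?_, ?_, ?_⟩
  · intro m hm v hv x hx
    constructor
    · intro j
      obtain ⟨h1, h2⟩ := hx j.castSucc
      rw [vx_eq] at h1 h2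
      have e : (vz o m v j.castSucc : ℝ) = o j + v j := by
        fin_cases j <;> simp [vz]
      rw [e] at h1 h2
      have h3 : ((v j : ℝ)) + 1 ≤ M := by exact_mod_cast hv j
      have h4 : (0 : ℝ) ≤ v j := Nat.cast_nonneg _
      obtain ⟨h5, h6⟩ := lo j
      obtain ⟨h7, h8⟩ := hi j
      rw [abs_le]
      constructor
      · nlinarith
      · nlinarith
    · obtain ⟨h1, h2⟩ := hx 2
      rw [vx_eq] at h1 h2
      have e : vz o m v 2 = m := by simp [vz]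
      rw [e] at h1 h2
      have h3 := abs_le.1 ((hZ m).1 hm)
      rw [abs_le]
      constructor
      · nlinarith
      · nlinarith
  · have h1 : (7 / 4 : ℝ) ≤ r * M := by linarith
    have h2 : (49 / 16 : ℝ) ≤ (r * M) ^ 2 := by nlinarith
    have e : ((Zs.card : ℝ) * M ^ 2) * r ^ 3 = (Zs.card * r) * (r * M) ^ 2 := by ring
    rw [e]
    have h3 : (0 : ℝ) < 3 / (4 * L) := by positivity
    calc (2 : ℝ) / L ≤ 3 / (4 * L) * (49 / 16) := by
          rw [div_mul_div_comm, div_le_div_iff₀ hL0 (by positivity)]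
          nlinarith
      _ ≤ (Zs.card * r) * (r * M) ^ 2 := mul_le_mul hZ1 h2 (by norm_num) (by positivity)
  · have h0 : 0 ≤ r * (M : ℝ) := by positivity
    have h1 : r * M ≤ (2 : ℝ) := by linarith
    have h2 : (r * M) ^ 2 ≤ (4 : ℝ) := by nlinarith
    have e : ((Zs.card : ℝ) * M ^ 2) * r ^ 3 = (Zs.card * r) * (r * M) ^ 2 := by ring
    rw [e]
    calc (Zs.card * r) * (r * M) ^ 2 ≤ 5 / (4 * L) * 4 := mul_le_mul hZ2 h2 (by positivity) (by positivity)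
      _ = 5 / L := by field_simp

/-! ### counting -/

theorem vz_injective (o : Fin 2 → ℤ) : Function.Injective fun q : ℤ × (Fin 2 → ℕ) => vz o q.1 q.2 := by
  rintro ⟨m, v⟩ ⟨m', v'⟩ h
  have h0 := congrFun h 0
  have h1 := congrFun h 1
  have h2 := congrFun h 2
  simp only [vz, Matrix.cons_val_zero, Matrix.cons_val_one, Matrix.cons_val] at h0 h1 h2
  refine Prod.ext h2 ?_
  funext j
  fin_cases j
  · show v 0 = v' 0
    omega
  · show v 1 = v' 1
    omega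

/-- the open cube -/
def ocub (w : E3) (r : ℝ) : Set E3 := {x | ∀ i, w i < x i ∧ x i < w i + r}

theorem ocub_eq (w : E3) (r : ℝ) : ocub w r = Set.pi univ fun i => Ioo (w i) (w i + r) := by
  ext x
  simp [ocub, Set.mem_pi]

theorem vol_ocub (w : E3) {r : ℝ} (hr : 0 < r) : volume (ocub w r) = ENNReal.ofReal (r ^ 3) := by
  rw [ocub_eq, Real.volume_pi_Ioo]
  simp only [add_sub_cancel_left, Finset.prod_const, Finset.card_univ, Fintype.card_fin]
  rw [ENNReal.ofReal_pow hr.le]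

theorem ocub_sub (w : E3) (r : ℝ) : ocub w r ⊆ cub w r := fun _ hx i => ⟨(hx i).1.le, (hx i).2.le⟩

theorem measurableSet_ocub (w : E3) (r : ℝ) : MeasurableSet (ocub w r) := by
  rw [ocub_eq]
  exact MeasurableSet.univ_pi fun i => measurableSet_Ioo

theorem ocub_disjoint (a : E3) {r : ℝ} (hr : 0 < r) (o : Fin 2 → ℤ) {q q' : ℤ × (Fin 2 → ℕ)}
    (h : q ≠ q') : Disjoint (ocub (vx a r o q.1 q.2) r) (ocub (vx a r o q'.1 q'.2) r) := by
  rw [Set.disjoint_left]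
  intro x hx hx'
  have hne : vz o q.1 q.2 ≠ vz o q'.1 q'.2 := fun e => h (vz_injective o e)
  obtain ⟨i, hi⟩ := Function.ne_iff.1 hne
  obtain ⟨h1, h2⟩ := hx i
  obtain ⟨h3, h4⟩ := hx' i
  rw [vx_eq] at h1 h2 h3 h4
  rcases lt_or_gt_of_ne hi with h5 | h5
  · have h6 : (vz o q.1 q.2 i : ℝ) + 1 ≤ vz o q'.1 q'.2 i := by exact_mod_cast h5
    nlinarith
  · have h6 : (vz o q'.1 q'.2 i : ℝ) + 1 ≤ vz o q.1 q.2 i := by exact_mod_cast h5
    nlinarith

/-- **counting squares** -/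
theorem count_cub (a : E3) {r : ℝ} (hr : 0 < r) (o : Fin 2 → ℤ) (B : Finset (ℤ × (Fin 2 → ℕ)))
    (A : Set E3) (h : ∀ q ∈ B, cub (vx a r o q.1 q.2) r ⊆ A) :
    (B.card : ℝ≥0∞) * ENNReal.ofReal (r ^ 3) ≤ volume A := by
  have h1 : volume (⋃ q ∈ B, ocub (vx a r o q.1 q.2) r) = ∑ q ∈ B, volume (ocub (vx a r o q.1 q.2) r) :=
    measure_biUnion_finset (fun q _ q' _ hne => ocub_disjoint a hr o hne)
      fun q _ => measurableSet_ocub _ _
  have h2 : ∑ q ∈ B, volume (ocub (vx a r o q.1 q.2) r) = (B.card : ℝ≥0∞) * ENNReal.ofReal (r ^ 3) := by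
    rw [Finset.sum_congr rfl fun q _ => vol_ocub _ hr, Finset.sum_const, nsmul_eq_mul]
  rw [← h2, ← h1]
  exact measure_mono (Set.iUnion₂_subset fun q hq => (ocub_sub _ _).trans (h q hq))

/-- counting squares, real version: if `vol A ≤ ε / L` then at most `ε / 2` of the squares -/
theorem count_real (a : E3) {r : ℝ} (hr : 0 < r) (o : Fin 2 → ℤ) (B : Finset (ℤ × (Fin 2 → ℕ)))
    (A : Set E3) (h : ∀ q ∈ B, cub (vx a r o q.1 q.2) r ⊆ A) {L : ℕ} (hL : 1 ≤ L) {N0 ε : ℝ}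
    (hN : 2 / L ≤ N0 * r ^ 3) (hε : 0 ≤ ε) (hA : volume A ≤ ENNReal.ofReal (2 * ε / L)) :
    (B.card : ℝ) ≤ ε * N0 := by
  have hL0 : (0 : ℝ) < L := by exact_mod_cast hL
  have h1 := (count_cub a hr o B A h).trans hA
  have h2 : ENNReal.ofReal ((B.card : ℝ) * r ^ 3) ≤ ENNReal.ofReal (2 * ε / L) := by
    rw [ENNReal.ofReal_mul (Nat.cast_nonneg _), ENNReal.ofReal_natCast]
    exact h1
  have h3 := (ENNReal.ofReal_le_ofReal_iff (by positivity)).1 h2
  have h4 : 2 * ε / L ≤ ε * N0 * r ^ 3 := by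
    calc 2 * ε / L = ε * (2 / L) := by ring
      _ ≤ ε * (N0 * r ^ 3) := mul_le_mul_of_nonneg_left hN hε
      _ = ε * N0 * r ^ 3 := by ring
  exact le_of_mul_le_mul_right (h3.trans h4) (by positivity)

/-! ### thickenings of finitely many compact sets, up to translations -/

/-- volumes of thickenings of finitely many compact sets -/
theorem thick_sum {J : Type*} (S : Finset J) (N : J → Set E3) (hN : ∀ j ∈ S, IsCompact (N j))
    {ε : ℝ} (hε : 0 < ε) :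
    ∃ ρ > 0, ∀ r, r ≤ ρ → ∑ j ∈ S, volume (cthickening r (N j)) ≤
      ∑ j ∈ S, volume (N j) + ENNReal.ofReal ε := by
  have h1 : Tendsto (fun r => ∑ j ∈ S, volume (cthickening r (N j))) (𝓝 0)
      (𝓝 (∑ j ∈ S, volume (N j))) := by
    refine tendsto_finsetSum _ fun j hj => ?_
    exact tendsto_measure_cthickening_of_isCompact (hN j hj)
  have hfin : ∑ j ∈ S, volume (N j) ≠ ⊤ :=
    (ENNReal.sum_lt_top.2 fun j hj => (hN j hj).measure_lt_top).ne
  have h2 : ∀ᶠ r in 𝓝 (0 : ℝ), ∑ j ∈ S, volume (cthickening r (N j)) <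
      ∑ j ∈ S, volume (N j) + ENNReal.ofReal ε := by
    refine h1.eventually (gt_mem_nhds ?_)
    exact ENNReal.lt_add_right hfin (by simpa using hε)
  obtain ⟨ρ, hρ, hb⟩ := Metric.eventually_nhds_iff.1 h2
  refine ⟨ρ / 2, by linarith, fun r hr => ?_⟩
  rcases le_total r 0 with h | h
  · refine (Finset.sum_le_sum fun j _ => measure_mono (cthickening_mono h (N j))).trans ?_
    refine (hb (y := 0) (by simpa using hρ)).le
  · refine (hb (y := r) ?_).le
    rw [Real.dist_eq, sub_zero, abs_of_nonneg h]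
    linarith

end

end Crest.Agent.R096.Gno_324
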