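import Crest.Agent.R096.Mal8_874

/-!
# Row 96, library (MESH-AL), part 9: the aligned mesh, classification of its tiles
-/

set_option autoImplicit false

open Set Filter Topology Metric

namespace Crest.Agent.R096.Mal_874

open Msh_715 Cut_874 Msh_810

variable {n : ℕ} {E : Type*} [NormedAddCommGroup E] [NormedSpace ℝ E]

/-- data of the aligned mesh: outer frame and outer Whitney data, blocks with their frames, walls
(in the outer coordinates) and scales `k j` at the walls -/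
structure AD (E : Type*) [NormedAddCommGroup E] [NormedSpace ℝ E] (n : ℕ) (J : Type*) where
  φ : E ≃L[ℝ] (Fin n → ℝ)
  D : Dat n
  ψ : J → E ≃L[ℝ] (Fin n → ℝ)
  a' : J → Fin n → ℝ
  κ : J → ℕ
  Z : J → Set (Fin n → ℤ)
  k : J → ℕ
  W : J → Set (Fin n → ℝ)
  fin : ∀ j, (Z j).Finite
  ne : ∀ j, (W j).Nonempty
  wall : ∀ j, ∀ x ∈ frontier (blk (ψ j) (a' j) (κ j) (Z j)), φ x ∈ W j
  sub : ∀ j, blk (ψ j) (a' j) (κ j) (Z j) ⊆ φ ⁻¹' D.Om
  dis : ∀ j l, j ≠ l → Disjoint (blk (ψ j) (a' j) (κ j) (Z j)) (blk (ψ l) (a' l) (κ l) (Z l))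
  lf : ∀ x ∈ φ ⁻¹' D.Om, ∃ r > 0,
    {j | (blk (ψ j) (a' j) (κ j) (Z j) ∩ ball x r).Nonempty}.Finite
  zone : ∀ j x, infDist x (W j) < 5 / 2 ^ k j → K D x = k j
  zdis : ∀ j l, j ≠ l → ∀ x, infDist x (W j) < 5 / 2 ^ k j → 5 / 2 ^ k l ≤ infDist x (W l)

namespace AD

variable {J : Type*} (M : AD E n J)

/-- the block `j` -/
def N (j : J) : Set E := blk (M.ψ j) (M.a' j) (M.κ j) (M.Z j)

/-- the outer Whitney tiling -/
noncomputable def T0 : Tiling (M.φ ⁻¹' M.D.Om) (Top M.D) := tiling M.φ M.D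

/-- the outer tiling cut along the walls -/
noncomputable def T1 : Tiling (M.φ ⁻¹' M.D.Om) (CutIx M.T0 (AF M.T0 M.ψ M.a' M.κ M.Z)) :=
  outer M.T0 M.ψ M.a' M.κ M.Z

theorem isCompact_N (j : J) : IsCompact (M.N j) := blk_compact (M.fin j)

theorem wlf : WLF M.T0 M.ψ M.a' M.κ M.Z := WLF.of_lf M.fin M.lf

theorem isUn (j : J) : IsUn M.T1 (M.N j) := isUn_outer M.wlf (M.sub j)

/-- the inner tilings -/
structure In (M : AD E n J) {Om' : J → Set E} {ι' : J → Type*}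
    (S : ∀ j, Tiling (Om' j) (ι' j)) : Prop where
  un : ∀ j, IsUn (S j) (M.N j)
  sub : ∀ j, M.N j ⊆ Om' j

variable {Om' : J → Set E} {ι' : J → Type*} {S : ∀ j, Tiling (Om' j) (ι' j)}

/-- **the aligned mesh** -/
noncomputable def mesh (hS : M.In S) :
    Tiling (M.φ ⁻¹' M.D.Om) ({p // p ∉ {p | P (M.T1.H p) ⊆ ⋃ j, M.N j}} ⊕
      Σ j, {i : ι' j // P ((S j).H i) ⊆ M.N j}) :=
  blocks M.T1 S M.isUn hS.un M.isCompact_N hS.sub M.dis M.lf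

variable {M}

theorem mesh_inl (hS : M.In S) (p : {p // p ∉ {p | P (M.T1.H p) ⊆ ⋃ j, M.N j}}) :
    (M.mesh hS).H (Sum.inl p) = M.T1.H p.1 := rfl

theorem mesh_inr (hS : M.In S) (p : Σ j, {i : ι' j // P ((S j).H i) ⊆ M.N j}) :
    (M.mesh hS).H (Sum.inr p) = (S p.1).H p.2.1 := rfl

/-- outer pieces miss the interiors of the blocks -/
theorem outer_interior {p : CutIx M.T0 (AF M.T0 M.ψ M.a' M.κ M.Z)}
    (hp : ¬ P (M.T1.H p) ⊆ ⋃ j, M.N j) (j : J) {x : E} (hx : x ∈ P (M.T1.H p)) :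
    x ∉ interior (M.N j) := by
  intro hxi
  exact hp (((M.isUn j).at_sub hxi hx).trans (Set.subset_iUnion M.N j))

theorem frontier_of {p : CutIx M.T0 (AF M.T0 M.ψ M.a' M.κ M.Z)}
    (hp : ¬ P (M.T1.H p) ⊆ ⋃ j, M.N j) {j : J} {x : E} (hx : x ∈ P (M.T1.H p)) (hxN : x ∈ M.N j) :
    x ∈ frontier (M.N j) :=
  ⟨subset_closure hxN, outer_interior hp j hx⟩

theorem tile_T0 (τ : Top M.D) {x : E} : x ∈ P (M.T0.H τ) ↔ M.φ x ∈ Cu M.D.a τ.1.1.k τ.1.1.z := by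
  have h := P_Hc M.φ M.D.a τ.1.1.k τ.1.1.z
  change x ∈ P (Hc M.φ M.D.a τ.1.1.k τ.1.1.z) ↔ _
  rw [h]
  rfl

/-- the scale of a tile at a point of a zone -/
theorem zone_k {j : J} {x : E} (hx : infDist (M.φ x) (M.W j) < 5 / 2 ^ M.k j) {τ : Top M.D}
    (hτ : x ∈ P (M.T0.H τ)) : τ.1.1.k = M.k j := by
  refine tile_k_eq (φ := M.φ) (D := M.D) (x := x) hτ ?_
  have h1 : IsOpen {y : Fin n → ℝ | infDist y (M.W j) < 5 / 2 ^ M.k j} :=
    isOpen_lt (continuous_infDist_pt _) continuous_const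
  filter_upwards [h1.mem_nhds hx] with y hy
  exact M.zone j y hy

/-- a tile of the zone is small -/
theorem zone_dist {j : J} {τ : Top M.D} (hk : τ.1.1.k = M.k j) {x y : E} (hx : x ∈ P (M.T0.H τ))
    (hy : y ∈ P (M.T0.H τ)) : infDist (M.φ y) (M.W j) ≤ infDist (M.φ x) (M.W j) + 1 / 2 ^ M.k j := by
  have h1 := infDist_le_infDist_add_dist (s := M.W j) (x := M.φ y) (y := M.φ x)
  have h2 := dist_le_of_mem_Cu ((tile_T0 τ).1 hy) ((tile_T0 τ).1 hx)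
  rw [hk] at h2
  have hp : (0 : ℝ) < 2 ^ M.k j := by positivity
  have h3 : dist (M.φ y) (M.φ x) ≤ 1 / 2 ^ M.k j := by
    rw [le_div_iff₀' hp]
    exact h2
  linarith

/-- a tile which has a point near the wall `j` meets no other wall -/
theorem zone_wall {j l : J} {τ : Top M.D} {x : E} (hx : x ∈ P (M.T0.H τ))
    (hxj : infDist (M.φ x) (M.W j) ≤ 3 / 2 ^ M.k j)
    (hl : (P (M.T0.H τ) ∩ frontier (M.N l)).Nonempty) : l = j := by
  have hp : (0 : ℝ) < 1 / 2 ^ M.k j := by positivity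
  have hpl : (0 : ℝ) < 5 / 2 ^ M.k l := by positivity
  have e3 : (3 : ℝ) / 2 ^ M.k j = 3 * (1 / 2 ^ M.k j) := by ring
  have e5 : (5 : ℝ) / 2 ^ M.k j = 5 * (1 / 2 ^ M.k j) := by ring
  have hk : τ.1.1.k = M.k j := zone_k (by rw [e5]; rw [e3] at hxj; linarith) hx
  obtain ⟨y, hy, hyl⟩ := hl
  by_contra hne
  have h1 := zone_dist hk hx hy
  have h2 : infDist (M.φ y) (M.W j) < 5 / 2 ^ M.k j := by
    rw [e5]; rw [e3] at hxj; linarith
  have h3 := M.zdis j l (fun h => hne h.symm) (M.φ y) h2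
  rw [infDist_zero_of_mem (M.wall l y hyl)] at h3
  linarith

/-- **dichotomy for outer tiles**: either the tile has the configuration of the Whitney mesh, or it is
near a wall -/
theorem outer_dich (hS : M.In S) (p : {p // p ∉ {p | P (M.T1.H p) ⊆ ⋃ j, M.N j}}) :
    (P ((M.mesh hS).H (Sum.inl p)) = P (M.T0.H p.1.par) ∧
      cfg (M.mesh hS) (Sum.inl p) = cfg M.T0 p.1.par ∧
      ∀ j, Disjoint (P (M.T0.H p.1.par)) (frontier (M.N j))) ∨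
    ∃ j, p.1.par.1.1.k = M.k j ∧
      ∀ x ∈ P (M.T0.H p.1.par), infDist (M.φ x) (M.W j) ≤ 2 / 2 ^ M.k j := by
  by_cases h : ∀ τ : Top M.D, (P (M.T0.H τ) ∩ P (M.T0.H p.1.par)).Nonempty →
      ∀ j, Disjoint (P (M.T0.H τ)) (frontier (M.N j))
  · left
    have hself : (P (M.T0.H p.1.par) ∩ P (M.T0.H p.1.par)).Nonempty := by
      obtain ⟨x, hx⟩ := M.T0.ne p.1.par
      exact ⟨x, I_sub_P _ hx, I_sub_P _ hx⟩
    have h0 := h p.1.par hself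
    have hA : AF M.T0 M.ψ M.a' M.κ M.Z p.1.par = ∅ := AF_empty h0
    have hP : P (M.T1.H p.1) = P (M.T0.H p.1.par) := by
      refine Set.Subset.antisymm (cut_tile_sub (hA := AF_ne) p.1) ?_
      intro x hx
      refine mem_P_cutH.2 ⟨hx, ?_, ?_⟩
      · intro a ha
        have h1 : a ∈ AF M.T0 M.ψ M.a' M.κ M.Z p.1.par := p.1.2.1 ha
        rw [hA] at h1
        exact absurd h1 (Finset.notMem_empty _)
      · intro a ha
        have h1 : a ∈ AF M.T0 M.ψ M.a' M.κ M.Z p.1.par := ha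
        rw [hA] at h1
        exact absurd h1 (Finset.notMem_empty _)
    refine ⟨hP, ?_, h0⟩
    have h1 : cfg M.T1 p.1 = cfg M.T0 p.1.par := by
      refine cfg_cut (hA := AF_ne) fun τ hτ => ?_
      exact AF_empty (h τ hτ)
    rw [← h1]
    refine cfg_off ?_
    rw [Set.disjoint_left]
    intro x hx hxN
    obtain ⟨j, hj⟩ := Set.mem_iUnion.1 hxN
    have hx0 : x ∈ P (M.T0.H p.1.par) := hP ▸ hx
    exact Set.disjoint_left.1 (h0 j) hx0 (frontier_of p.2 hx hj)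
  · right
    push Not at h
    obtain ⟨τ, ⟨x, hx1, hx2⟩, j, hj⟩ := h
    obtain ⟨y, hy1, hy2⟩ := Set.not_disjoint_iff.1 hj
    have hp : (0 : ℝ) < 1 / 2 ^ M.k j := by positivity
    have e2 : (2 : ℝ) / 2 ^ M.k j = 2 * (1 / 2 ^ M.k j) := by ring
    have e5 : (5 : ℝ) / 2 ^ M.k j = 5 * (1 / 2 ^ M.k j) := by ring
    have hy0 : infDist (M.φ y) (M.W j) = 0 := infDist_zero_of_mem (M.wall j y hy2)
    have hkτ : τ.1.1.k = M.k j := zone_k (by rw [hy0, e5]; linarith) hy1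
    have h3 := zone_dist hkτ hy1 hx1
    have hkp : p.1.par.1.1.k = M.k j := zone_k (x := x) (by rw [hy0] at h3; rw [e5]; linarith) hx2
    refine ⟨j, hkp, fun z hz => ?_⟩
    have h4 := zone_dist hkp hx2 hz
    rw [hy0] at h3
    rw [e2]
    linarith

/-- the outer tiles with the configuration of the Whitney mesh are in the universal list -/
theorem outer_univ (τ : Top M.D) : ∃ z : Fin n → ℤ,
    (fun K => ((chi M.φ M.D.a (τ.1.1.k + 1)).trans (trz z)) '' K) '' cfg M.T0 τ ∈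
      simL (N0 n) 1 2 := sim_univ M.φ M.D τ

/-- **the outer tiles near the wall `j`** -/
theorem outer_layer (hS : M.In S) {j : J} (p : {p // p ∉ {p | P (M.T1.H p) ⊆ ⋃ j, M.N j}})
    (hk : p.1.par.1.1.k = M.k j)
    (hx : ∀ x ∈ P (M.T0.H p.1.par), infDist (M.φ x) (M.W j) ≤ 2 / 2 ^ M.k j)
    {𝒩 : Finset (Fin n → ℝ)} {d : ℕ} (hd0 : 0 < d) (h𝒩 : ∀ ν ∈ 𝒩, ∀ m, ∃ c : ℤ, ν m = c / d)
    {χ : E ≃ᵃ[ℝ] (Fin n → ℝ)} (F0 : Fr χ (M.k j) 𝒩 d M.φ M.D.a)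
    (F : Fr χ (M.k j) 𝒩 d (M.ψ j) (M.a' j)) (hκ : M.κ j ≤ M.k j)
    (hin : ∀ i, P ((S j).H i) ⊆ M.N j → (P ((S j).H i) ∩ frontier (M.N j)).Nonempty →
      ∀ h ∈ (S j).H i, ∃ ν, ∃ t : ℤ, GF χ (2 ^ M.k j) 𝒩 d h ν t) {R : ℝ}
    (hR : ∀ z : Fin n → ℤ, ∀ x y : E, M.φ x ∈ Cu M.D.a (M.k j) z → M.φ y ∈ Cu M.D.a (M.k j) z →
      ∀ m, |χ y m - χ x m| ≤ R) :
    ∃ z : Fin n → ℤ, (fun K => (χ.trans (trz z)) '' K) '' cfg (M.mesh hS) (Sum.inl p) ∈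
      simL 𝒩 d R := by
  have hp : (0 : ℝ) < 1 / 2 ^ M.k j := by positivity
  have e2 : (2 : ℝ) / 2 ^ M.k j = 2 * (1 / 2 ^ M.k j) := by ring
  have e3 : (3 : ℝ) / 2 ^ M.k j = 3 * (1 / 2 ^ M.k j) := by ring
  have e5 : (5 : ℝ) / 2 ^ M.k j = 5 * (1 / 2 ^ M.k j) := by ring
  have hsub : P ((M.mesh hS).H (Sum.inl p)) ⊆ P (M.T0.H p.1.par) :=
    cut_tile_sub (hA := AF_ne) p.1
  refine sim_layer hd0 h𝒩 F0 ?_ ?_ ?_
  · rintro q hq ⟨y, hy1, hy2⟩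
    have hy1' : y ∈ P (M.T0.H q.par) := cut_tile_sub (hA := AF_ne) q hy1
    have h3 := hx y (hsub hy2)
    have hkq : q.par.1.1.k = M.k j := zone_k (by rw [e2] at h3; rw [e5]; linarith) hy1'
    refine ⟨hkq.le, fun l hl => ?_⟩
    obtain rfl : l = j := zone_wall hy1' (by rw [e2] at h3; rw [e3]; linarith) hl
    exact ⟨F, hκ⟩
  · rintro l i hi ⟨y, hy1, hy2⟩
    have hyl : y ∈ M.N l := hi hy1
    have hyf : y ∈ frontier (M.N l) := frontier_of p.2 hy2 hyl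
    have h3 := hx y (hsub hy2)
    obtain rfl : l = j := zone_wall (hsub hy2) (by rw [e2] at h3; rw [e3]; linarith)
      ⟨y, hsub hy2, hyf⟩
    exact hin i hi ⟨y, hy1, hyf⟩
  · intro x hx' y hy' m
    have h1 := (tile_T0 _).1 (hsub hx')
    have h2 := (tile_T0 _).1 (hsub hy')
    rw [hk] at h1 h2
    exact hR _ x y h1 h2 m

/-- **dichotomy for inner tiles** -/
theorem inner_dich (hS : M.In S) (j : J) (i : {i : ι' j // P ((S j).H i) ⊆ M.N j}) :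
    cfg (M.mesh hS) (Sum.inr ⟨j, i⟩) = cfg (S j) i.1 ∨
      (P ((S j).H i.1) ∩ frontier (M.N j)).Nonempty := by
  by_cases h : (P ((S j).H i.1) ∩ frontier (M.N j)).Nonempty
  · exact Or.inr h
  · left
    refine cfg_in ?_
    intro x hx
    by_contra hcon
    exact h ⟨x, hx, subset_closure (i.2 hx), hcon⟩

/-- **the inner tiles near the wall `j`** -/
theorem inner_layer (hS : M.In S) {j : J} (i : {i : ι' j // P ((S j).H i) ⊆ M.N j})
    {𝒩 : Finset (Fin n → ℝ)} {d : ℕ} (hd0 : 0 < d) (h𝒩 : ∀ ν ∈ 𝒩, ∀ m, ∃ c : ℤ, ν m = c / d)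
    {χ : E ≃ᵃ[ℝ] (Fin n → ℝ)} (F0 : Fr χ (M.k j) 𝒩 d M.φ M.D.a)
    (F : Fr χ (M.k j) 𝒩 d (M.ψ j) (M.a' j)) (hκ : M.κ j ≤ M.k j)
    (hin : ∀ l, (P ((S j).H l) ∩ P ((S j).H i.1)).Nonempty →
      ∀ h ∈ (S j).H l, ∃ ν, ∃ t : ℤ, GF χ (2 ^ M.k j) 𝒩 d h ν t) {R : ℝ}
    (hR : ∀ x ∈ P ((S j).H i.1), ∀ y ∈ P ((S j).H i.1), ∀ m, |χ y m - χ x m| ≤ R) :
    ∃ z : Fin n → ℤ, (fun K => (χ.trans (trz z)) '' K) '' cfg (M.mesh hS) (Sum.inr ⟨j, i⟩) ∈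
      simL 𝒩 d R := by
  have hp : (0 : ℝ) < 1 / 2 ^ M.k j := by positivity
  have e3 : (3 : ℝ) / 2 ^ M.k j = 3 * (1 / 2 ^ M.k j) := by ring
  have e5 : (5 : ℝ) / 2 ^ M.k j = 5 * (1 / 2 ^ M.k j) := by ring
  refine sim_layer hd0 h𝒩 F0 ?_ ?_ hR
  · rintro q hq ⟨y, hy1, hy2⟩
    have hyf : y ∈ frontier (M.N j) := frontier_of hq hy1 (i.2 hy2)
    have hy1' : y ∈ P (M.T0.H q.par) := cut_tile_sub (hA := AF_ne) q hy1
    have h0 : infDist (M.φ y) (M.W j) = 0 := infDist_zero_of_mem (M.wall j y hyf)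
    have hkq : q.par.1.1.k = M.k j := zone_k (by rw [h0, e5]; linarith) hy1'
    refine ⟨hkq.le, fun l hl => ?_⟩
    obtain rfl : l = j := zone_wall hy1' (by rw [h0, e3]; linarith) hl
    exact ⟨F, hκ⟩
  · rintro l i' hi' ⟨y, hy1, hy2⟩
    have hlj : l = j := by
      by_contra hne
      exact Set.disjoint_left.1 (M.dis l j hne) (hi' hy1) (i.2 hy2)
    subst hlj
    exact hin i' ⟨y, hy1, hy2⟩

end AD

end Crest.Agent.R096.Mal_874
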