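import Crest.Agent.R096.Gno3_324
import Crest.Agent.R096.Mal9_874

/-!
# Row 96 (S0127), NO0 / GEO (helper324), part 4: uniform squares of the aligned mesh

`Ug_ad` : a square whose cube is in the zone of scale `k` of the outer mesh and at distance `> r` of all
blocks is uniform in `M.mesh hS`; `bad_ad` : the number of the other squares.
-/

set_option autoImplicit false
set_option linter.style.longLine false
set_option linter.unusedSectionVars false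

open MeasureTheory Set Filter Topology Metric
open scoped ENNReal

namespace Crest.Agent.R096.Gno_324

open Crest.Agent.R096.Msh_715 Crest.Agent.R096.SkC1_961 Crest.Agent.R096.No0_477
open Crest.Agent.R096.Mal_874 Crest.Agent.R096.Cut_874 Crest.Agent.R096.Msh_810

noncomputable section

/-- dyadic cubes are lattice cubes -/
theorem Cu_eq_lcub {a : E3} {k : ℕ} {r : ℝ} (hr : r = 1 / 2 ^ k) (z : Fin 3 → ℤ) :
    Msh_810.Cu a k z = lcub a r z := by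
  have hp : (0 : ℝ) < 2 ^ k := by positivity
  ext x
  rw [mem_Cu]
  unfold lcub ps
  refine forall_congr' fun i => ?_
  rw [hr]
  constructor
  · rintro ⟨h1, h2⟩
    constructor
    · have : (z i : ℝ) / 2 ^ k ≤ x i - a i := by rw [div_le_iff₀' hp]; exact h1
      have e : 1 / (2 : ℝ) ^ k * z i = z i / 2 ^ k := by ring
      rw [e]; linarith
    · have : x i - a i ≤ ((z i : ℝ) + 1) / 2 ^ k := by rw [le_div_iff₀' hp]; exact h2
      have e : 1 / (2 : ℝ) ^ k * (z i + 1) = (z i + 1) / 2 ^ k := by ring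
      rw [e]; linarith
  · rintro ⟨h1, h2⟩
    constructor
    · have e : 1 / (2 : ℝ) ^ k * z i = z i / 2 ^ k := by ring
      rw [e] at h1
      rw [← div_le_iff₀' hp]; linarith
    · have e : 1 / (2 : ℝ) ^ k * (z i + 1) = (z i + 1) / 2 ^ k := by ring
      rw [e] at h2
      rw [← le_div_iff₀' hp]; linarith

theorem dist_le_of_mem_lcub {a : E3} {r : ℝ} (hr : 0 ≤ r) {z : Fin 3 → ℤ} {x y : E3}
    (hx : x ∈ lcub a r z) (hy : y ∈ lcub a r z) : dist x y ≤ r := by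
  rw [dist_pi_le_iff hr]
  intro i
  rw [Real.dist_eq, abs_le]
  obtain ⟨h1, h2⟩ := hx i
  obtain ⟨h3, h4⟩ := hy i
  constructor <;> linarith

variable {J : Type} {M : AD E3 3 J} {Om' : J → Set E3} {ι' : J → Type}
  {S : ∀ j, Tiling (Om' j) (ι' j)}

/-- an outer tile through a point of scale `k` which is far from the blocks is a lattice cube -/
theorem outer_lcub (hφ : ∀ x, M.φ x = x) (hS : M.In S) {k : ℕ} {r : ℝ} (hr : r = 1 / 2 ^ k) {x : E3}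
    (hK : ∀ᶠ y in 𝓝 x, K M.D y = k) (hN : ∀ j, ∀ y ∈ M.N j, r < dist x y)
    {i : {p // p ∉ {p | P (M.T1.H p) ⊆ ⋃ j, M.N j}} ⊕ Σ j, {i : ι' j // P ((S j).H i) ⊆ M.N j}}
    (hi : x ∈ P ((M.mesh hS).H i)) :
    (∃ p, i = Sum.inl p) ∧ ∃ z : Fin 3 → ℤ, P ((M.mesh hS).H i) = lcub M.D.a r z := by
  have hr0 : 0 < r := by rw [hr]; positivity
  rcases i with p | ⟨j, q⟩
  · refine ⟨⟨p, rfl⟩, ?_⟩
    have hx1 : x ∈ P (M.T1.H p.1) := hi
    have hx0 : x ∈ P (M.T0.H p.1.par) := cut_tile_sub (hA := AF_ne) p.1 hx1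
    have hk : p.1.par.1.1.k = k := by
      refine tile_k_eq (φ := M.φ) (D := M.D) (x := x) hx0 ?_
      rw [hφ]; exact hK
    have hP0 : P (M.T0.H p.1.par) = lcub M.D.a r p.1.par.1.1.z := by
      ext y
      rw [AD.tile_T0, hφ, hk, Cu_eq_lcub hr]
    have hfr : ∀ j, Disjoint (P (M.T0.H p.1.par)) (frontier (M.N j)) := by
      intro j
      rw [Set.disjoint_left]
      intro y hy hyf
      have hyN : y ∈ M.N j := by
        have := frontier_subset_closure hyf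
        rwa [(M.isCompact_N j).isClosed.closure_eq] at this
      have h1 := hN j y hyN
      rw [hP0] at hy hx0
      have h2 := dist_le_of_mem_lcub hr0.le hx0 hy
      linarith
    have hA : AF M.T0 M.ψ M.a' M.κ M.Z p.1.par = ∅ := AF_empty hfr
    have hP : P (M.T1.H p.1) = P (M.T0.H p.1.par) := by
      refine Set.Subset.antisymm (cut_tile_sub (hA := AF_ne) p.1) ?_
      intro y hy
      refine mem_P_cutH.2 ⟨hy, ?_, ?_⟩
      · intro a ha
        have h1 : a ∈ AF M.T0 M.ψ M.a' M.κ M.Z p.1.par := p.1.2.1 ha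
        rw [hA] at h1
        exact absurd h1 (Finset.notMem_empty _)
      · intro a ha
        have h1 : a ∈ AF M.T0 M.ψ M.a' M.κ M.Z p.1.par := ha
        rw [hA] at h1
        exact absurd h1 (Finset.notMem_empty _)
    exact ⟨_, hP.trans hP0⟩
  · exfalso
    have hx : x ∈ M.N j := q.2 hi
    have h1 := hN j x hx
    rw [dist_self] at h1
    linarith

/-- **uniform squares of the aligned mesh** -/
theorem Ug_ad (hφ : ∀ x, M.φ x = x) (hS : M.In S)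
    {Ex : Set ({p // p ∉ {p | P (M.T1.H p) ⊆ ⋃ j, M.N j}} ⊕ Σ j, {i : ι' j // P ((S j).H i) ⊆ M.N j})}
    (hEx : ∀ i ∈ Ex, ∀ p, i ≠ Sum.inl p) {k : ℕ} {r : ℝ} (hr : r = 1 / 2 ^ k) {o : Fin 2 → ℤ} {m : ℤ}
    {v : Fin 2 → ℕ} (hOm : cub (vx M.D.a r o m v) r ⊆ M.D.Om)
    (hK : ∀ x ∈ cub (vx M.D.a r o m v) r, ∀ᶠ y in 𝓝 x, K M.D y = k)
    (hN : ∀ x ∈ cub (vx M.D.a r o m v) r, ∀ j, ∀ y ∈ M.N j, r < dist x y) :
    Ug (M.mesh hS) Ex M.D.a r o m v := by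
  refine ⟨fun x hx => ?_, fun x hx i hi => ?_⟩
  · show M.φ x ∈ M.D.Om
    rw [hφ]; exact hOm hx
  · obtain ⟨⟨p, hp⟩, h2⟩ := outer_lcub hφ hS hr (hK x hx) (hN x hx) hi
    exact ⟨fun hE => hEx i hE p hp, h2⟩

open scoped Classical in
/-- **the number of the other squares**: `A` contains the `2 r`-neighbourhoods of the blocks near the
squares -/
theorem bad_ad (hφ : ∀ x, M.φ x = x) (hS : M.In S)
    {Ex : Set ({p // p ∉ {p | P (M.T1.H p) ⊆ ⋃ j, M.N j}} ⊕ Σ j, {i : ι' j // P ((S j).H i) ⊆ M.N j})}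
    (hEx : ∀ i ∈ Ex, ∀ p, i ≠ Sum.inl p) {k : ℕ} {r : ℝ} (hr : r = 1 / 2 ^ k) {o : Fin 2 → ℤ}
    {Mm : ℕ} {Zs : Finset ℤ} {B : Set E3}
    (hB : ∀ m ∈ Zs, ∀ v : Fin 2 → ℕ, (∀ j, v j < Mm) → cub (vx M.D.a r o m v) r ⊆ B)
    (hOm : B ⊆ M.D.Om) (hK : ∀ x ∈ B, ∀ᶠ y in 𝓝 x, K M.D y = k) {A : Set E3}
    (hA : ∀ j, ∀ y ∈ M.N j, (∃ x ∈ B, dist x y ≤ r) → closedBall y (2 * r) ⊆ A) {L : ℕ} (hL : 1 ≤ L)
    {N0 ε : ℝ} (hN : 2 / L ≤ N0 * r ^ 3) (hε : 0 ≤ ε) (hvol : volume A ≤ ENNReal.ofReal (2 * ε / L)) :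
    (((Fc Mm Zs).filter fun q => ¬ Ug (M.mesh hS) Ex M.D.a r o q.1 q.2).card : ℝ) ≤ ε * N0 := by
  have hr0 : 0 < r := by rw [hr]; positivity
  refine count_real M.D.a hr0 o _ A (fun q hq => ?_) hL hN hε hvol
  obtain ⟨hq1, hq2⟩ := Finset.mem_filter.1 hq
  have hq3 : q.1 ∈ Zs ∧ ∀ j, q.2 j < Mm := by
    unfold Fc at hq1
    rw [Finset.mem_product, Fintype.mem_piFinset] at hq1
    exact ⟨hq1.1, fun j => Finset.mem_range.1 (hq1.2 j)⟩
  have hsub := hB q.1 hq3.1 q.2 hq3.2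
  by_contra hcon
  refine hq2 (Ug_ad hφ hS hEx hr (hsub.trans hOm) (fun x hx => hK x (hsub hx)) ?_)
  intro x hx j y hy
  by_contra hlt
  push Not at hlt
  refine hcon fun x' hx' => hA j y hy ⟨x, hsub hx, hlt⟩ ?_
  rw [cub_vx] at hx hx'
  have h1 := dist_le_of_mem_lcub hr0.le hx' hx
  rw [mem_closedBall]
  have h2 := dist_triangle x' x y
  linarith

/-- the 2-cells of the aligned mesh: `NOGeo` -/
theorem nogeo_ad (hS : M.In S)
    (Ex : Set ({p // p ∉ {p | P (M.T1.H p) ⊆ ⋃ j, M.N j}} ⊕ Σ j, {i : ι' j // P ((S j).H i) ⊆ M.N j}))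
    {L : ℕ} {η r : ℝ} (hr0 : 0 < r) (hr : r ≠ 0) (o : Fin 2 → ℤ) {Mm : ℕ} (hM : 0 < Mm)
    {Zs : Finset ℤ}
    (lo : ∀ j : Fin 2, M.D.a j.castSucc + r * o j ≤ -(1 - η) ∧ -1 < M.D.a j.castSucc + r * o j)
    (hi : ∀ j : Fin 2, 1 - η ≤ M.D.a j.castSucc + r * (o j + Mm) ∧
      M.D.a j.castSucc + r * (o j + Mm) < 1)
    (zne : Zs.Nonempty) (zs : ∀ m ∈ Zs, |(L : ℝ) * (M.D.a 2 + r * m)| ≤ 1 / 2) :
    NOGeo (M.mesh hS) Ex 𝒬0 L η r hr M.D.a o Mm Zs (Ug (M.mesh hS) Ex M.D.a r o) :=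
  nogeo_of (M.mesh hS) Ex hr0 hr M.D.a o hM lo hi zne zs

end

end Crest.Agent.R096.Gno_324
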