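import Crest.Agent.R096.Gp0_702

/-!
# R096 (row 96), P2-GEN, leaf (N1) (helper120): the normal form is cellular for `(1/32) ℤ³`

`Gp1_120.cellStmt : Gp_702.CellStmt`.

`round` : rounding one coordinate at distance `≤ dep (dim)` from an integer does not change the
status of a point; by induction over the dimension of the cell.
-/

set_option autoImplicit false

open Set Metric Topology

namespace Crest.Agent.R096.Gp1_120

open Ce_537 Msh_715 Gp_702

/-! ### the one-dimensional collar -/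

/-- one coordinate of the collar -/
noncomputable def k1 (L H w s : ℝ) : ℝ := max ((w + L) / 2 + s) (min w ((w + H) / 2 - s))

/-- the inverse of the collar -/
noncomputable def i1 (L H v s : ℝ) : ℝ :=
  if v ≤ L + 2 * s then 2 * (v - s) - L else if H - 2 * s ≤ v then 2 * (v + s) - H else v

section One

variable {L H w v s : ℝ}

theorem k1_low (_hs : s ≤ 1 / 8) (_hLH : L + 1 ≤ H) (h1 : w ≤ L + 2 * s) :
    k1 L H w s = (w + L) / 2 + s := by
  unfold k1
  rw [max_eq_left]
  exact (min_le_left _ _).trans (by linarith)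

theorem k1_high (hs : s ≤ 1 / 8) (hLH : L + 1 ≤ H) (h1 : H - 2 * s ≤ w) :
    k1 L H w s = (w + H) / 2 - s := by
  unfold k1
  have e1 : min w ((w + H) / 2 - s) = (w + H) / 2 - s := min_eq_right (by linarith)
  rw [e1, max_eq_right]
  linarith

theorem k1_mid (h1 : L + 2 * s ≤ w) (h2 : w ≤ H - 2 * s) : k1 L H w s = w := by
  unfold k1
  have e1 : min w ((w + H) / 2 - s) = w := min_eq_left (by linarith)
  rw [e1, max_eq_right]
  linarith

/-- trichotomy -/
theorem k1_cases (hs : s ≤ 1 / 8) (hLH : L + 1 ≤ H) :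
    (w ≤ L + 2 * s ∧ k1 L H w s = (w + L) / 2 + s) ∨
    (H - 2 * s ≤ w ∧ k1 L H w s = (w + H) / 2 - s) ∨
    (L + 2 * s < w ∧ w < H - 2 * s ∧ k1 L H w s = w) := by
  rcases le_or_gt w (L + 2 * s) with h1 | h1
  · exact Or.inl ⟨h1, k1_low hs hLH h1⟩
  rcases le_or_gt (H - 2 * s) w with h2 | h2
  · exact Or.inr (Or.inl ⟨h2, k1_high hs hLH h2⟩)
  · exact Or.inr (Or.inr ⟨h1, h2, k1_mid h1.le h2.le⟩)

theorem k1_ge (h0 : 0 ≤ s) (hs : s ≤ 1 / 8) (hLH : L + 1 ≤ H) (hL : L ≤ w) :
    L + s ≤ k1 L H w s := by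
  rcases k1_cases (w := w) hs hLH with ⟨h, e⟩ | ⟨h, e⟩ | ⟨h, h', e⟩ <;> rw [e] <;> linarith

theorem k1_le (h0 : 0 ≤ s) (hs : s ≤ 1 / 8) (hLH : L + 1 ≤ H) (hH : w ≤ H) :
    k1 L H w s ≤ H - s := by
  rcases k1_cases (w := w) hs hLH with ⟨h, e⟩ | ⟨h, e⟩ | ⟨h, h', e⟩ <;> rw [e] <;> linarith

theorem i1_low (h1 : v ≤ L + 2 * s) : i1 L H v s = 2 * (v - s) - L := if_pos h1

theorem i1_high (hs : s ≤ 1 / 8) (hLH : L + 1 ≤ H) (h1 : H - 2 * s ≤ v) :
    i1 L H v s = 2 * (v + s) - H := by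
  unfold i1
  rw [if_neg (by linarith), if_pos h1]

theorem i1_mid (h1 : L + 2 * s < v) (h2 : v < H - 2 * s) : i1 L H v s = v := by
  unfold i1
  rw [if_neg (by linarith), if_neg (by linarith)]

theorem i1_k1 (hs : s ≤ 1 / 8) (hLH : L + 1 ≤ H) : i1 L H (k1 L H w s) s = w := by
  rcases k1_cases (w := w) hs hLH with ⟨h, e⟩ | ⟨h, e⟩ | ⟨h, h', e⟩
  · rw [e, i1_low (by linarith)]; ring
  · rw [e, i1_high hs hLH (by linarith)]; ring
  · rw [e, i1_mid h h']

theorem k1_i1 (hs : s ≤ 1 / 8) (hLH : L + 1 ≤ H) : k1 L H (i1 L H v s) s = v := by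
  rcases le_or_gt v (L + 2 * s) with h1 | h1
  · rw [i1_low h1, k1_low hs hLH (by linarith)]; ring
  rcases le_or_gt (H - 2 * s) v with h2 | h2
  · rw [i1_high hs hLH h2, k1_high hs hLH (by linarith)]; ring
  · rw [i1_mid h1 h2, k1_mid h1.le h2.le]

theorem i1_mem (h0 : 0 ≤ s) (hs : s ≤ 1 / 8) (hLH : L + 1 ≤ H) (hv1 : L + s ≤ v)
    (hv2 : v ≤ H - s) : L ≤ i1 L H v s ∧ i1 L H v s ≤ H := by
  rcases le_or_gt v (L + 2 * s) with h1 | h1
  · rw [i1_low h1]; constructor <;> linarith
  rcases le_or_gt (H - 2 * s) v with h2 | h2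
  · rw [i1_high hs hLH h2]; constructor <;> linarith
  · rw [i1_mid h1 h2]; constructor <;> linarith

end One

/-! ### the collar of an integer box -/

section Box

variable {l h : Fin 3 → ℤ}

theorem kapZ_ne {ω : E3} {s : ℝ} {j : Fin 3} (hj : l j ≠ h j) :
    kapZ l h ω s j = k1 (l j) (h j) (ω j) s := by
  simp [kapZ, hj, k1]

theorem kapZ_eq {ω : E3} {s : ℝ} {j : Fin 3} (hj : l j = h j) : kapZ l h ω s j = ω j := by
  simp [kapZ, hj]

theorem gap (hl : l ≤ h) {j : Fin 3} (hj : l j ≠ h j) : (l j : ℝ) + 1 ≤ h j := by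
  have h1 : l j < h j := lt_of_le_of_ne (hl j) hj
  exact_mod_cast h1

theorem not_zop {y : E3} (hy : y ∈ zcl l h) (hn : y ∉ zop l h) :
    ∃ j, l j ≠ h j ∧ (y j = l j ∨ y j = h j) := by
  by_contra hc
  push Not at hc
  apply hn
  intro j
  by_cases hj : l j = h j
  · refine Or.inl ⟨hj, ?_⟩
    have h1 := hy j
    rw [← hj] at h1
    exact le_antisymm h1.2 h1.1
  · obtain ⟨h1, h2⟩ := hc j hj
    exact Or.inr ⟨lt_of_le_of_ne (hy j).1 (Ne.symm h1), lt_of_le_of_ne (hy j).2 h2⟩

theorem not_zop' {y : E3} {j : Fin 3} (hj : l j ≠ h j) (hy : y j = l j ∨ y j = h j) :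
    y ∉ zop l h := by
  intro hz
  rcases hz j with h1 | h1
  · exact hj h1.1
  · rcases hy with e | e
    · exact (ne_of_gt h1.1) e
    · exact (ne_of_lt h1.2) e

theorem upd_mem {y : E3} (hy : y ∈ zcl l h) {i : Fin 3} {m : ℤ}
    (hm : |y i - m| < 1) : Function.update y i (m : ℝ) ∈ zcl l h := by
  intro j
  by_cases hj : j = i
  · subst hj
    rw [Function.update_self]
    obtain ⟨h1, h2⟩ := abs_lt.1 hm
    have a1 : (l j : ℝ) < m + 1 := by linarith [(hy j).1]
    have a2 : (m : ℝ) < h j + 1 := by linarith [(hy j).2]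
    have b1 : l j < m + 1 := by exact_mod_cast a1
    have b2 : m < h j + 1 := by exact_mod_cast a2
    exact ⟨by exact_mod_cast Int.lt_add_one_iff.1 b1, by exact_mod_cast Int.lt_add_one_iff.1 b2⟩
  · rw [Function.update_of_ne hj]
    exact hy j

/-- the point lies in the collar zone -/
def Col (l h : Fin 3 → ℤ) (d : ℝ) (y : E3) : Prop :=
  ∃ j, l j ≠ h j ∧ (y j - l j ≤ d ∨ h j - y j ≤ d)

theorem exists_kap (hl : l ≤ h) {d : ℝ} (hd : d ≤ 1 / 8) {y : E3} (hy : y ∈ zcl l h)
    (hc : Col l h d y) : ∃ ω ∈ zcl l h \ zop l h, ∃ s ∈ Icc (0 : ℝ) d, y = kapZ l h ω s := by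
  classical
  obtain ⟨j1, hj1, hc⟩ := hc
  obtain ⟨j0, hj0, hmin⟩ := Finset.exists_min_image (Finset.univ.filter fun j => l j ≠ h j)
    (fun j => min (y j - l j) (h j - y j)) ⟨j1, by simp [hj1]⟩
  have hj0' : l j0 ≠ h j0 := by simpa using hj0
  set s := min (y j0 - l j0) (h j0 - y j0) with hs
  have h0 : 0 ≤ s := le_min (by linarith [(hy j0).1]) (by linarith [(hy j0).2])
  have hsd : s ≤ d := by
    refine (hmin j1 (by simp [hj1])).trans ?_
    rcases hc with h1 | h1
    · exact (min_le_left _ _).trans h1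
    · exact (min_le_right _ _).trans h1
  have hs8 : s ≤ 1 / 8 := hsd.trans hd
  have hv : ∀ j, l j ≠ h j → (l j : ℝ) + s ≤ y j ∧ y j ≤ h j - s := by
    intro j hj
    have h1 := hmin j (by simp [hj])
    have h2 := h1.trans (min_le_left _ _)
    have h3 := h1.trans (min_le_right _ _)
    exact ⟨by linarith, by linarith⟩
  refine ⟨fun j => if l j = h j then y j else i1 (l j) (h j) (y j) s, ⟨?_, ?_⟩, s, ⟨h0, hsd⟩, ?_⟩
  · intro j
    by_cases hj : l j = h j
    · simp only [hj, if_true]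
      have := hy j
      rw [hj] at this
      exact this
    · simp only [hj, if_false]
      exact i1_mem h0 hs8 (gap hl hj) (hv j hj).1 (hv j hj).2
  · apply not_zop' hj0'
    simp only [hj0', if_false]
    rcases min_choice (y j0 - l j0) (h j0 - y j0) with e | e
    · left
      rw [← hs] at e
      rw [i1_low (by linarith)]
      linarith
    · right
      rw [← hs] at e
      rw [i1_high hs8 (gap hl hj0') (by linarith)]
      linarith
  · funext j
    by_cases hj : l j = h j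
    · rw [kapZ_eq hj]
      simp [hj]
    · rw [kapZ_ne hj]
      simp only [hj, if_false]
      rw [k1_i1 hs8 (gap hl hj)]

theorem col_of_kap (hl : l ≤ h) {d s : ℝ} (hd : d ≤ 1 / 8) {ω : E3} (hω : ω ∈ zcl l h \ zop l h)
    (hs : s ∈ Icc (0 : ℝ) d) : Col l h d (kapZ l h ω s) := by
  obtain ⟨j, hj, hb⟩ := not_zop hω.1 hω.2
  have hs8 : s ≤ 1 / 8 := hs.2.trans hd
  refine ⟨j, hj, ?_⟩
  rw [kapZ_ne hj]
  rcases hb with e | e
  · left
    rw [e, k1_low hs8 (gap hl hj) (by linarith [hs.1])]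
    linarith [hs.2]
  · right
    rw [e, k1_high hs8 (gap hl hj) (by linarith [hs.1])]
    linarith [hs.2]

theorem kap_s_le (hl : l ≤ h) {s s' : ℝ} (h0 : 0 ≤ s) (h8 : s ≤ 1 / 8) (h0' : 0 ≤ s')
    (h8' : s' ≤ 1 / 8) {ω ω' : E3} (hω : ω ∈ zcl l h) (hω' : ω' ∈ zcl l h \ zop l h)
    (e : kapZ l h ω s = kapZ l h ω' s') : s ≤ s' := by
  obtain ⟨j, hj, hb⟩ := not_zop hω'.1 hω'.2
  have ej := congrFun e j
  rw [kapZ_ne hj, kapZ_ne hj] at ej
  have g := gap hl hj
  have a1 := k1_ge h0 h8 g (hω j).1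
  have a2 := k1_le h0 h8 g (hω j).2
  rcases hb with e1 | e1
  · rw [e1, k1_low (w := (l j : ℝ)) h8' g (by linarith)] at ej
    linarith
  · rw [e1, k1_high (w := (h j : ℝ)) h8' g (by linarith)] at ej
    linarith

theorem kap_inj (hl : l ≤ h) {s s' : ℝ} (h0 : 0 ≤ s) (h8 : s ≤ 1 / 8) (h0' : 0 ≤ s')
    (h8' : s' ≤ 1 / 8) {ω ω' : E3} (hω : ω ∈ zcl l h \ zop l h) (hω' : ω' ∈ zcl l h \ zop l h)
    (e : kapZ l h ω s = kapZ l h ω' s') : ω = ω' := by
  have es : s = s' := le_antisymm (kap_s_le hl h0 h8 h0' h8' hω.1 hω' e)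
    (kap_s_le hl h0' h8' h0 h8 hω'.1 hω e.symm)
  subst es
  funext j
  have ej := congrFun e j
  by_cases hj : l j = h j
  · rwa [kapZ_eq hj, kapZ_eq hj] at ej
  · rw [kapZ_ne hj, kapZ_ne hj] at ej
    have g := gap hl hj
    rw [← i1_k1 (w := ω j) h8 g, ej, i1_k1 h8 g]

end Box

/-! ### depths -/

theorem dep_pos (k : ℕ) : 0 < dep k := by unfold dep; positivity

theorem dep_anti {k k' : ℕ} (hk : k ≤ k') : dep k' ≤ dep k := by
  unfold dep
  exact mul_le_mul_of_nonneg_left (pow_le_pow_of_le_one (by norm_num) (by norm_num) hk)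
    (by norm_num)

theorem dep_half {k k' : ℕ} (hk : k < k') : 2 * dep k' ≤ dep k := by
  have h1 : dep k' ≤ dep (k + 1) := dep_anti hk
  have h2 : 2 * dep (k + 1) = dep k := by unfold dep; rw [pow_succ]; ring
  linarith

theorem dep_le {k : ℕ} (hk : k ≠ 0) : dep k ≤ 1 / 8 := by
  have h1 : dep k ≤ dep 1 := dep_anti (Nat.one_le_iff_ne_zero.2 hk)
  have h2 : dep 1 = 1 / 8 := by unfold dep; norm_num
  linarith

/-! ### cells -/

section Main

variable {ι : Type} {T : Tiling (univ : Set E3) ι} {S R0 R1 : Set E3} {Φ : E3 ≃ₜ E3}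

theorem bd_of_mem {x y w : E3} (hy : y ∈ T.cc x \ T.oc x) (hw : w ∈ T.cc y) :
    w ∈ T.cc x \ T.oc x :=
  ⟨T.cc_sub_of_mem hy.1 hw, fun h =>
    Set.disjoint_left.1 (T.disjoint_oc_cc (mem_univ x) hy.1 hy.2) h hw⟩

theorem image_bd (hN : Norm T S R0 Φ) (x : E3) :
    Φ '' (T.cc x \ T.oc x) = T.cc x \ T.oc x := by
  apply Subset.antisymm
  · rintro _ ⟨y, hy, rfl⟩
    have h1 : Φ y ∈ T.cc y := by
      rw [← hN.cell y]
      exact ⟨y, T.self_mem_cc y, rfl⟩
    exact bd_of_mem hy h1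
  · intro y hy
    have h1 : y ∈ Φ '' T.cc y := by
      rw [hN.cell y]
      exact T.self_mem_cc y
    obtain ⟨w, hw, e⟩ := h1
    exact ⟨w, bd_of_mem hy hw, e⟩

theorem mem_cr (hN : Norm T S R0 Φ) {x : E3} (hx : Cr T S x) {l h : Fin 3 → ℤ}
    (h1 : T.cc x = zcl l h) (h2 : T.oc x = zop l h) (hl : l ≤ h) {y : E3} (hy : y ∈ T.cc x) :
    y ∈ Φ '' R0 ↔ ∃ ω ∈ T.cc x \ T.oc x, ω ∈ Φ '' R0 ∧ ∃ s ∈ Icc (0 : ℝ) (dep (T.dim x)),
      y = kapZ l h ω s := by
  have e := hN.col x hx l h h1 h2 hl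
  have a1 : y ∈ Φ '' R0 ↔ y ∈ Φ '' (R0 ∩ T.cc x) := by
    rw [image_inter Φ.injective, hN.cell]
    exact ⟨fun h => ⟨h, hy⟩, fun h => h.1⟩
  have a2 : Φ '' (R0 ∩ (T.cc x \ T.oc x)) = Φ '' R0 ∩ (T.cc x \ T.oc x) := by
    rw [image_inter Φ.injective, image_bd hN]
  rw [a1, e, a2]
  constructor
  · rintro ⟨ω, hω, s, hs, e⟩
    exact ⟨ω, hω.2, hω.1, s, hs, e⟩
  · rintro ⟨ω, hω, hω', s, hs, e⟩
    exact ⟨ω, ⟨hω', hω⟩, s, hs, e⟩

theorem const_noncr (hR : Sides T S R0 R1) (hN : Norm T S R0 Φ) {x : E3} (hx : ¬ Cr T S x)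
    {y z : E3} (hy : y ∈ T.cc x) (hz : z ∈ T.cc x) : y ∈ Φ '' R0 → z ∈ Φ '' R0 := by
  rintro ⟨w, hw, rfl⟩
  have hy' : Φ (Φ w) = Φ w := hN.fix x hx _ hy
  have hw' : Φ w = w := Φ.injective hy'
  have hwR : Φ w ∈ R0 := by rw [hw']; exact hw
  rcases hR.noncr x hx with h | h
  · exact ⟨z, h hz, hN.fix x hx z hz⟩
  · exfalso
    apply hx
    refine ⟨Φ w, hy, ?_⟩
    rw [← hR.inter]
    exact ⟨hwR, h hy⟩

theorem dim_ne_zero (hA : Adapted T S) {x : E3} (hx : Cr T S x) : T.dim x ≠ 0 := by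
  intro h0
  obtain ⟨y, hy, hyS⟩ := hx
  rw [T.cc_eq_singleton (T.dim_eq_zero_iff.1 h0)] at hy
  rw [mem_singleton_iff] at hy
  subst hy
  exact hA.vert y hyS h0

/-- on the collar -/
theorem iff_kap (hN : Norm T S R0 Φ) {x : E3} (hx : Cr T S x) {l h : Fin 3 → ℤ}
    (h1 : T.cc x = zcl l h) (h2 : T.oc x = zop l h) (hl : l ≤ h) (hd : dep (T.dim x) ≤ 1 / 8)
    {y ω : E3} (hy : y ∈ T.cc x) (hω : ω ∈ T.cc x \ T.oc x) {s : ℝ}
    (hs : s ∈ Icc (0 : ℝ) (dep (T.dim x))) (e : y = kapZ l h ω s) :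
    y ∈ Φ '' R0 ↔ ω ∈ Φ '' R0 := by
  rw [mem_cr hN hx h1 h2 hl hy]
  constructor
  · rintro ⟨ω', hω', hN', s', hs', e'⟩
    rw [h1, h2] at hω hω'
    have : ω' = ω := kap_inj hl hs'.1 (hs'.2.trans hd) hs.1 (hs.2.trans hd) hω' hω
      (e'.symm.trans e)
    rwa [this] at hN'
  · intro hω'
    exact ⟨ω, hω, hω', s, hs, e⟩

/-- **rounding** -/
theorem round (hT : Bxs T) (hA : Adapted T S) (hR : Sides T S R0 R1) (hN : Norm T S R0 Φ) :
    ∀ n, ∀ x, T.dim x = n → ∀ y ∈ T.cc x, ∀ (i : Fin 3) (m : ℤ), |y i - m| ≤ dep n →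
      (y ∈ Φ '' R0 ↔ Function.update y i (m : ℝ) ∈ Φ '' R0) := by
  intro n
  induction n using Nat.strong_induction_on with
  | _ n ih =>
  intro x hx y hy i m hm
  have IH : ∀ w, T.dim w < n → ∀ (i : Fin 3) (m : ℤ), |w i - m| ≤ dep (T.dim w) →
      (w ∈ Φ '' R0 ↔ Function.update w i (m : ℝ) ∈ Φ '' R0) :=
    fun w hw i m h => ih _ hw w rfl w (T.self_mem_cc w) i m h
  obtain ⟨l, h, hl, h1, h2⟩ := hT x
  have hm1 : |y i - m| < 1 := by
    have a1 : dep n ≤ dep 0 := dep_anti (Nat.zero_le n)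
    have a2 : dep 0 = 1 / 4 := by unfold dep; norm_num
    linarith
  have hy' : Function.update y i (m : ℝ) ∈ T.cc x := by
    rw [h1] at hy ⊢
    exact upd_mem hy hm1
  by_cases hyo : y ∈ T.oc x
  swap
  · have hlt : T.dim y < n := hx ▸ T.dim_lt hy hyo
    exact IH y hlt i m (hm.trans (dep_anti hlt.le))
  by_cases hc : Cr T S x
  swap
  · exact ⟨const_noncr hR hN hc hy hy', const_noncr hR hN hc hy' hy⟩
  have hn0 : n ≠ 0 := hx ▸ dim_ne_zero hA hc
  have hd : dep n ≤ 1 / 8 := dep_le hn0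
  have hd' : dep (T.dim x) ≤ 1 / 8 := by rw [hx]; exact hd
  have hd0 := dep_pos n
  -- one step on the boundary
  have step : ∀ v ∈ T.cc x \ T.oc x, ∀ (j : Fin 3) (a : ℝ),
      (a = v j ∨ ∃ m : ℤ, a = m ∧ |v j - m| ≤ 2 * dep n) →
      Function.update v j a ∈ T.cc x \ T.oc x ∧
        (v ∈ Φ '' R0 ↔ Function.update v j a ∈ Φ '' R0) := by
    intro v hv j a ha
    rcases ha with rfl | ⟨m, rfl, hvm⟩
    · rw [Function.update_eq_self]
      exact ⟨hv, Iff.rfl⟩
    · have hlt : T.dim v < n := hx ▸ T.dim_lt hv.1 hv.2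
      obtain ⟨l', h', hl', e1, e2⟩ := hT v
      refine ⟨bd_of_mem hv ?_, IH v hlt j m (hvm.trans (dep_half hlt))⟩
      have hself := T.self_mem_cc v
      rw [e1] at hself ⊢
      exact upd_mem hself (by linarith)
  -- three steps
  have RR : ∀ w ∈ T.cc x \ T.oc x, ∀ z : E3,
      (∀ j, z j = w j ∨ ∃ m : ℤ, z j = m ∧ |w j - m| ≤ 2 * dep n) →
      (w ∈ Φ '' R0 ↔ z ∈ Φ '' R0) := by
    intro w hw z hz
    obtain ⟨a1, b1⟩ := step w hw 0 (z 0) (hz 0)
    obtain ⟨a2, b2⟩ := step _ a1 1 (z 1) (by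
      rw [Function.update_of_ne (by decide)]
      exact hz 1)
    obtain ⟨a3, b3⟩ := step _ a2 2 (z 2) (by
      rw [Function.update_of_ne (by decide), Function.update_of_ne (by decide)]
      exact hz 2)
    have e : Function.update (Function.update (Function.update w 0 (z 0)) 1 (z 1)) 2 (z 2) = z := by
      funext j
      fin_cases j <;> simp [Function.update]
    rw [e] at b3
    exact b1.trans (b2.trans b3)
  by_cases hi : l i = h i
  · -- degenerate coordinate
    have h3 : y i = l i := by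
      rw [h1] at hy
      have := hy i
      rw [← hi] at this
      exact le_antisymm this.2 this.1
    have h4 : m = l i := by
      rw [h3] at hm1
      have : |l i - m| < 1 := by exact_mod_cast hm1
      have := Int.abs_lt_one_iff.1 this
      omega
    rw [h4, ← h3, Function.update_eq_self]
  have hyz : y ∈ zcl l h := h1 ▸ hy
  have gi := gap hl hi
  obtain ⟨hm2, hm3⟩ := abs_le.1 hm
  by_cases hcol : Col l h (dep n) y
  swap
  · -- both outside the collar
    have not_col : ∀ w ∈ T.cc x, ¬ Col l h (dep n) w → w ∉ Φ '' R0 := by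
      intro w hw hwc hwN
      rw [mem_cr hN hc h1 h2 hl hw] at hwN
      obtain ⟨ω, hω, -, s, hs, e⟩ := hwN
      rw [hx] at hs
      rw [h1, h2] at hω
      exact hwc (e ▸ col_of_kap hl hd hω hs)
    have n1 : ¬ Col l h (dep n) (Function.update y i (m : ℝ)) := by
      rintro ⟨j, hj, hj'⟩
      by_cases e : j = i
      · subst e
        rw [Function.update_self] at hj'
        have c1 : ¬ (y j - l j ≤ dep n) := fun h => hcol ⟨j, hj, Or.inl h⟩
        have c2 : ¬ ((h j : ℝ) - y j ≤ dep n) := fun h => hcol ⟨j, hj, Or.inr h⟩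
        have c3 : (l j : ℝ) < m := by linarith
        have c4 : (m : ℝ) < h j := by linarith
        have c5 : (l j : ℝ) + 1 ≤ m := by
          have : l j < m := by exact_mod_cast c3
          exact_mod_cast this
        have c6 : (m : ℝ) + 1 ≤ h j := by
          have : m < h j := by exact_mod_cast c4
          exact_mod_cast this
        rcases hj' with h5 | h5 <;> linarith
      · rw [Function.update_of_ne e] at hj'
        exact hcol ⟨j, hj, hj'⟩
    exact ⟨fun h5 => absurd h5 (not_col y hy hcol), fun h5 => absurd h5 (not_col _ hy' n1)⟩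
  obtain ⟨ω, hω, s, hs, e⟩ := exists_kap hl hd hyz hcol
  have hω' : ω ∈ T.cc x \ T.oc x := by rw [h1, h2]; exact hω
  have hs8 : s ≤ 1 / 8 := hs.2.trans hd
  have key : y ∈ Φ '' R0 ↔ ω ∈ Φ '' R0 :=
    iff_kap hN hc h1 h2 hl hd' hy hω' (by rw [hx]; exact hs) e
  -- coordinates of `ω`
  have hωj : ∀ j, l j ≠ h j → ω j = i1 (l j) (h j) (y j) s := by
    intro j hj
    rw [e, kapZ_ne hj, i1_k1 hs8 (gap hl hj)]
  have hωd : ∀ j, l j = h j → ω j = y j := by
    intro j hj
    rw [e, kapZ_eq hj]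
  have hys : ∀ j, l j ≠ h j → (l j : ℝ) + s ≤ y j ∧ y j ≤ h j - s := by
    intro j hj
    rw [e, kapZ_ne hj]
    exact ⟨k1_ge hs.1 hs8 (gap hl hj) (hω.1 j).1, k1_le hs.1 hs8 (gap hl hj) (hω.1 j).2⟩
  rw [key]
  by_cases hml : m = l i ∨ m = h i
  · -- the rounded point is on the boundary
    have hyb : Function.update y i (m : ℝ) ∈ T.cc x \ T.oc x := by
      refine ⟨hy', ?_⟩
      rw [h2]
      apply not_zop' hi
      rw [Function.update_self]
      rcases hml with h5 | h5
      · exact Or.inl (by rw [h5])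
      · exact Or.inr (by rw [h5])
    have hs2 := hs.2
    have hs1 := hs.1
    let z : E3 := fun j => if j = i then (m : ℝ) else if l j = h j then y j else
      if y j ≤ l j + 2 * s then (l j : ℝ) else if (h j : ℝ) - 2 * s ≤ y j then (h j : ℝ) else y j
    have z1 : ω ∈ Φ '' R0 ↔ z ∈ Φ '' R0 := by
      apply RR ω hω'
      intro j
      by_cases hji : j = i
      · subst hji
        refine Or.inr ⟨m, by simp [z], ?_⟩
        rw [hωj j hi]
        obtain ⟨y1, y2⟩ := hys j hi
        rcases le_or_gt (y j) (l j + 2 * s) with q | q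
        · rw [i1_low q]
          have hmm : m = l j := by
            rcases hml with h5 | h5
            · exact h5
            · exfalso
              rw [h5] at hm2 hm3
              linarith
          rw [hmm]
          rw [abs_le]
          constructor <;> linarith
        rcases le_or_gt ((h j : ℝ) - 2 * s) (y j) with q' | q'
        · rw [i1_high hs8 gi q']
          have hmm : m = h j := by
            rcases hml with h5 | h5
            · exfalso
              rw [h5] at hm2 hm3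
              linarith
            · exact h5
          rw [hmm]
          rw [abs_le]
          constructor <;> linarith
        · rw [i1_mid q q']
          rw [abs_le]
          constructor <;> linarith
      · by_cases hj : l j = h j
        · left
          simp only [z, hji, if_false, hj, if_true]
          exact (hωd j hj).symm
        · rw [hωj j hj]
          obtain ⟨y1, y2⟩ := hys j hj
          rcases le_or_gt (y j) (l j + 2 * s) with q | q
          · right
            refine ⟨l j, by simp only [z, hji, if_false, hj, q, if_true], ?_⟩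
            rw [i1_low q, abs_le]
            constructor <;> linarith
          rcases le_or_gt ((h j : ℝ) - 2 * s) (y j) with q' | q'
          · right
            refine ⟨h j, by simp only [z, hji, if_false, hj, not_le.2 q, q', if_true], ?_⟩
            rw [i1_high hs8 (gap hl hj) q', abs_le]
            constructor <;> linarith
          · left
            rw [i1_mid q q']
            simp only [z, hji, if_false, hj, not_le.2 q, not_le.2 q']
    have z2 : Function.update y i (m : ℝ) ∈ Φ '' R0 ↔ z ∈ Φ '' R0 := by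
      apply RR _ hyb
      intro j
      by_cases hji : j = i
      · subst hji
        left
        simp [z]
      · rw [Function.update_of_ne hji]
        by_cases hj : l j = h j
        · left
          simp only [z, hji, if_false, hj, if_true]
        · obtain ⟨y1, y2⟩ := hys j hj
          rcases le_or_gt (y j) (l j + 2 * s) with q | q
          · right
            refine ⟨l j, by simp only [z, hji, if_false, hj, q, if_true], ?_⟩
            rw [abs_le]
            constructor <;> linarith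
          rcases le_or_gt ((h j : ℝ) - 2 * s) (y j) with q' | q'
          · right
            refine ⟨h j, by simp only [z, hji, if_false, hj, not_le.2 q, q', if_true], ?_⟩
            rw [abs_le]
            constructor <;> linarith
          · left
            simp only [z, hji, if_false, hj, not_le.2 q, not_le.2 q']
    exact z1.trans z2.symm
  · -- interior integer
    push Not at hml
    have c3 : (l i : ℝ) + 1 ≤ m := by
      have a1 : (l i : ℝ) < m + 1 := by
        have := (hyz i).1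
        linarith
      have a2 : l i < m + 1 := by exact_mod_cast a1
      have a3 : l i < m := lt_of_le_of_ne (Int.lt_add_one_iff.1 a2) (Ne.symm hml.1)
      exact_mod_cast a3
    have c4 : (m : ℝ) + 1 ≤ h i := by
      have a1 : (m : ℝ) < h i + 1 := by
        have := (hyz i).2
        linarith
      have a2 : m < h i + 1 := by exact_mod_cast a1
      have a3 : m < h i := lt_of_le_of_ne (Int.lt_add_one_iff.1 a2) hml.2
      exact_mod_cast a3
    have hωi : ω i = y i := by
      rw [hωj i hi, i1_mid]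
      · linarith
      · linarith
    obtain ⟨b1, b2⟩ := step ω hω' i (m : ℝ) (Or.inr ⟨m, rfl, by rw [hωi, abs_le]; constructor <;> linarith⟩)
    rw [b2]
    refine (iff_kap hN hc h1 h2 hl hd' hy' b1 (s := s) (by rw [hx]; exact hs) ?_).symm
    funext j
    by_cases hji : j = i
    · subst hji
      rw [Function.update_self, kapZ_ne hi, Function.update_self, k1_mid (by linarith [hs.1]) (by linarith [hs.1])]
    · rw [Function.update_of_ne hji]
      by_cases hj : l j = h j
      · rw [kapZ_eq hj, Function.update_of_ne hji, hωd j hj]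
      · rw [kapZ_ne hj, Function.update_of_ne hji, hωj j hj, k1_i1 hs8 (gap hl hj)]

/-! ### the final statement -/

theorem same_zop {x x' : E3} (hs : Same x x') {l h : Fin 3 → ℤ} (hx : x ∈ zop l h) :
    x' ∈ zop l h := by
  intro j
  obtain ⟨a1, a2⟩ := hs j (32 * l j)
  obtain ⟨b1, b2⟩ := hs j (32 * h j)
  push_cast at a1 a2 b1 b2
  rcases hx j with ⟨e, hj⟩ | ⟨hj1, hj2⟩
  · refine Or.inl ⟨e, ?_⟩
    apply le_antisymm
    · by_contra hc
      have := a2.2 (by linarith)
      linarith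
    · by_contra hc
      have := a1.2 (by linarith)
      linarith
  · refine Or.inr ⟨?_, ?_⟩
    · have := a2.1 (by linarith)
      linarith
    · have := b1.1 (by linarith)
      linarith

theorem same_upd {x x' : E3} (hs : Same x x') (i : Fin 3) (a : ℝ) :
    Same (Function.update x i a) (Function.update x' i a) := by
  intro j m
  by_cases hj : j = i
  · subst hj
    rw [Function.update_self, Function.update_self]
    exact ⟨Iff.rfl, Iff.rfl⟩
  · rw [Function.update_of_ne hj, Function.update_of_ne hj]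
    exact hs j m

theorem dep_int {k : ℕ} (hk : k ≤ 3) : ∃ c : ℤ, 32 * dep k = c := by
  unfold dep
  interval_cases k
  · exact ⟨8, by norm_num⟩
  · exact ⟨4, by norm_num⟩
  · exact ⟨2, by norm_num⟩
  · exact ⟨1, by norm_num⟩

theorem same_low {x x' : E3} (hs : Same x x') {j : Fin 3} {a : ℤ} {d : ℝ} {c : ℤ}
    (hd : 32 * d = c) (h : x j - a ≤ d) : x' j - a ≤ d := by
  obtain ⟨a1, a2⟩ := hs j (32 * a + c)
  push_cast at a1 a2
  by_contra hc
  have := a2.2 (by linarith)
  linarith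

theorem same_high {x x' : E3} (hs : Same x x') {j : Fin 3} {a : ℤ} {d : ℝ} {c : ℤ}
    (hd : 32 * d = c) (h : a - x j ≤ d) : a - x' j ≤ d := by
  obtain ⟨a1, a2⟩ := hs j (32 * a - c)
  push_cast at a1 a2
  by_contra hc
  have := a1.2 (by linarith)
  linarith

/-- **(N1)** the normal form is cellular for the lattice `(1/32) ℤ³` -/
theorem cellStmt : CellStmt := by
  intro ι T S hT hA R0 R1 hR Φ hN
  suffices H : ∀ n, ∀ x x', T.dim x = n → Same x x' → x ∈ Φ '' R0 → x' ∈ Φ '' R0 from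
    fun x x' h => H _ x x' rfl h
  intro n
  induction n using Nat.strong_induction_on with
  | _ n ih =>
  intro x x' hx hs hxN
  obtain ⟨l, h, hl, h1, h2⟩ := hT x
  have hxo : x ∈ zop l h := h2 ▸ T.self_mem_oc x
  have hx'o : x' ∈ zop l h := same_zop hs hxo
  have hx'c : x' ∈ T.cc x := T.oc_sub_cc x (by rw [h2]; exact hx'o)
  by_cases hc : Cr T S x
  swap
  · exact const_noncr hR hN hc (T.self_mem_cc x) hx'c hxN
  have hn0 : n ≠ 0 := hx ▸ dim_ne_zero hA hc
  have hd : dep n ≤ 1 / 8 := dep_le hn0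
  have hd0 := dep_pos n
  have hn3 : n ≤ 3 := by
    rw [← hx]
    refine (T.dim_le_finrank x).trans ?_
    simp
  obtain ⟨c, hcd⟩ := dep_int hn3
  obtain ⟨ω, hω, -, s, hs', e⟩ := (mem_cr hN hc h1 h2 hl (T.self_mem_cc x)).1 hxN
  rw [hx] at hs'
  rw [h1, h2] at hω
  have hcol : Col l h (dep n) (kapZ l h ω s) := col_of_kap hl hd hω hs'
  rw [← e] at hcol
  obtain ⟨j, hj, hjd⟩ := hcol
  have g := gap hl hj
  have hxz : x ∈ zcl l h := h1 ▸ T.self_mem_cc x
  have hx'z : x' ∈ zcl l h := h1 ▸ hx'c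
  -- the integer to which we round
  obtain ⟨m, hm, q1, q2⟩ : ∃ m : ℤ, (m = l j ∨ m = h j) ∧ |x j - m| ≤ dep n ∧
      |x' j - m| ≤ dep n := by
    rcases hjd with h3 | h3
    · refine ⟨l j, Or.inl rfl, ?_, ?_⟩
      · rw [abs_le]
        exact ⟨by linarith [(hxz j).1], h3⟩
      · rw [abs_le]
        exact ⟨by linarith [(hx'z j).1], same_low hs hcd h3⟩
    · refine ⟨h j, Or.inr rfl, ?_, ?_⟩
      · rw [abs_le]
        exact ⟨by linarith, by linarith [(hxz j).2]⟩
      · have := same_high hs hcd h3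
        rw [abs_le]
        exact ⟨by linarith, by linarith [(hx'z j).2]⟩
  have hA1 : Function.update x j (m : ℝ) ∈ T.cc x \ T.oc x := by
    refine ⟨?_, ?_⟩
    · rw [h1]
      exact upd_mem hxz (by linarith)
    · rw [h2]
      apply not_zop' hj
      rw [Function.update_self]
      rcases hm with h5 | h5
      · exact Or.inl (by rw [h5])
      · exact Or.inr (by rw [h5])
  have hlt : T.dim (Function.update x j (m : ℝ)) < n := hx ▸ T.dim_lt hA1.1 hA1.2
  have r1 := (round hT hA hR hN n x hx x (T.self_mem_cc x) j m q1).1 hxN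
  have r2 := ih _ hlt _ (Function.update x' j (m : ℝ)) rfl (same_upd hs j m) r1
  exact (round hT hA hR hN n x hx x' hx'c j m q2).2 r2

end Main

end Crest.Agent.R096.Gp1_120
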