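import Crest.Agent.R096.Gq2_451
import Crest.Agent.R096.Gp0_702

/-!
# R096 (row 96), P2-GEN, N4 (helper451), part 3: `SidesStmt`
-/

set_option autoImplicit false

open Set Topology Filter Metric Module

namespace Crest.Agent.R096.Gq_451

open Crest.Agent.R096.Msh_715 Crest.Agent.R096.Coh_184

section gen

variable {E : Type*} [NormedAddCommGroup E] [NormedSpace ℝ E] [FiniteDimensional ℝ E]
variable {ι : Type*} {T : Tiling (univ : Set E) ι} {S : Set E} {ctr : E → E} {lam : E → ZMod 2}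

/-- both sides accumulate at every point of `S` -/
theorem Con.acc (h : Con T S ctr) (hl : IsLb T S lam) (i : ZMod 2) {x : E} (hx : x ∈ S) :
    x ∈ closure ((sd T S ctr lam i \ S) ∩ T.cc x) := by
  induction hd : T.dim x using Nat.strong_induction_on generalizing x with
  | _ d ih =>
    have hm : (T.cc x ∩ S).Nonempty := ⟨x, T.self_mem_cc x, hx⟩
    have hc := h.mem x hm
    have hseg : ∀ y ∈ T.cc x, ∀ t : ℝ, 0 ≤ t → t ≤ 1 → ctr x + t • (y - ctr x) ∈ T.cc x := by
      intro y hy t h0 h1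
      have := (T.convex_cc x) (T.oc_sub_cc x hc) hy (a := 1 - t) (b := t) (by linarith) h0 (by ring)
      have e : ctr x + t • (y - ctr x) = (1 - t) • ctr x + t • y := by
        rw [smul_sub, sub_smul, one_smul]; abel
      rw [e]; exact this
    rcases h.ray hm with e | ⟨y, hy, t, h0, h1, e⟩
    · obtain ⟨y, ⟨hys, hyb⟩, hyS⟩ := h.bdry_sd hl i hm
      have hlim : Tendsto (fun t : ℝ => ctr x + t • (y - ctr x)) (𝓝[>] 0) (𝓝 (ctr x)) := by
        have : Tendsto (fun t : ℝ => ctr x + t • (y - ctr x)) (𝓝 0)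
            (𝓝 (ctr x + (0 : ℝ) • (y - ctr x))) := by
          apply Continuous.tendsto; fun_prop
        rw [zero_smul, add_zero] at this
        exact this.mono_left nhdsWithin_le_nhds
      rw [e.symm] at hlim
      refine mem_closure_of_tendsto hlim ?_
      have : ∀ᶠ t in 𝓝[>] (0 : ℝ), t < 1 :=
        (gt_mem_nhds (zero_lt_one' ℝ)).filter_mono nhdsWithin_le_nhds
      filter_upwards [this, self_mem_nhdsWithin] with t ht1 ht0
      have ht0 : (0 : ℝ) < t := ht0
      rw [e.symm] at hseg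
      rw [e.symm] at hc
      have k1 := (h.sd_cone (lam := lam) (i := i) hm hyb ht0 ht1.le).2 hys
      have k2 := (h.cone x hm y hyb t ht0 ht1.le).not.2 hyS
      rw [e.symm] at k1 k2
      exact ⟨⟨k1, k2⟩, hseg y hyb.1 t ht0.le ht1.le⟩
    · have hyS : y ∈ S := (h.cone x hm y hy t h0 h1.le).1 (e ▸ hx)
      have h2 := ih _ (hd ▸ T.dim_lt hy.1 hy.2) hyS rfl
      have hcont : Continuous fun w : E => ctr x + t • (w - ctr x) := by fun_prop
      have h3 : ctr x + t • (y - ctr x) ∈ closure ((fun w : E => ctr x + t • (w - ctr x)) ''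
          ((sd T S ctr lam i \ S) ∩ T.cc y)) :=
        image_closure_subset_closure_image hcont ⟨y, h2, rfl⟩
      rw [← e] at h3
      refine closure_mono ?_ h3
      rintro _ ⟨w, ⟨⟨hw1, hw2⟩, hw3⟩, rfl⟩
      have hwb : w ∈ T.cc x \ T.oc x := by
        refine ⟨T.cc_sub_of_mem hy.1 hw3, fun hxo => ?_⟩
        exact Set.disjoint_left.1 (T.disjoint_oc_cc (mem_univ x) hy.1 hy.2) hxo hw3
      exact ⟨⟨(h.sd_cone hm hwb h0 h1.le).2 hw1, (h.cone x hm w hwb t h0 h1.le).not.2 hw2⟩,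
        hseg w hwb.1 t h0.le h1.le⟩

theorem Con.compl_sd (h : Con T S ctr) (hl : IsLb T S lam) :
    (sd T S ctr lam 1)ᶜ = sd T S ctr lam 0 \ S ∧ (sd T S ctr lam 0)ᶜ = sd T S ctr lam 1 \ S := by
  have h1 := h.inter hl
  constructor
  · ext x
    constructor
    · intro hx
      rcases h.cover lam x with h2 | h2
      · exact ⟨h2, fun h3 => hx (h.sub_sd 1 h3)⟩
      · exact (hx h2).elim
    · rintro ⟨h2, h3⟩ h4
      exact h3 (h1 ▸ ⟨h2, h4⟩)
  · ext x
    constructor
    · intro hx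
      rcases h.cover lam x with h2 | h2
      · exact (hx h2).elim
      · exact ⟨h2, fun h3 => hx (h.sub_sd 0 h3)⟩
    · rintro ⟨h2, h3⟩ h4
      exact h3 (h1 ▸ ⟨h4, h2⟩)

/-- a segment which misses `S` stays in one side -/
theorem Con.pre_side (h : Con T S ctr) (hl : IsLb T S lam) {i : ZMod 2} {C : Set E}
    (hC : IsPreconnected C) (hCS : C ∩ S = ∅) {x y : E} (hx : x ∈ C) (hy : y ∈ C)
    (hxi : x ∈ sd T S ctr lam i) : y ∈ sd T S ctr lam i := by
  have key : ∀ j k : ZMod 2, (sd T S ctr lam k)ᶜ = sd T S ctr lam j \ S →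
      (sd T S ctr lam j)ᶜ = sd T S ctr lam k \ S → x ∈ sd T S ctr lam j → y ∈ sd T S ctr lam j := by
    intro j k e1 e2 hxj
    have hcov : C ⊆ (sd T S ctr lam k)ᶜ ∪ (sd T S ctr lam j)ᶜ := by
      intro w hw
      have hwS : w ∉ S := fun hwS => by
        have : w ∈ C ∩ S := ⟨hw, hwS⟩
        rw [hCS] at this; exact this
      by_cases hwk : w ∈ sd T S ctr lam k
      · right; rw [e2]; exact ⟨hwk, hwS⟩
      · left; exact hwk
    have hxS : x ∉ S := fun hwS => by
      have : x ∈ C ∩ S := ⟨hx, hwS⟩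
      rw [hCS] at this; exact this
    have hdis : Disjoint (sd T S ctr lam k)ᶜ (sd T S ctr lam j)ᶜ := by
      rw [Set.disjoint_left]
      intro w hw1 hw2
      rw [e1] at hw1
      exact hw2 hw1.1
    have h3 := hC.subset_left_of_subset_union (h.isClosed_sd hl k).isOpen_compl
      (h.isClosed_sd hl j).isOpen_compl hdis hcov ⟨x, hx, by rw [e1]; exact ⟨hxj, hxS⟩⟩
    have h4 := h3 hy
    rw [e1] at h4
    exact h4.1
  obtain ⟨e1, e2⟩ := h.compl_sd hl
  have : ∀ i : ZMod 2, i = 0 ∨ i = 1 := by decide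
  rcases this i with rfl | rfl
  · exact key 0 1 e1 e2 hxi
  · exact key 1 0 e2 e1 hxi

/-- the sides are conical with respect to any apex -/
theorem Con.sd_apex (h : Con T S ctr) (hl : IsLb T S lam) {i : ZMod 2} {z y : E} {t : ℝ}
    (hz : ∀ s : ℝ, 0 < s → s ≤ 1 → (z + s • (y - z) ∈ S ↔ y ∈ S)) (h0 : 0 < t) (h1 : t ≤ 1) :
    (z + t • (y - z) ∈ sd T S ctr lam i ↔ y ∈ sd T S ctr lam i) := by
  by_cases hyS : y ∈ S
  · exact ⟨fun _ => h.sub_sd i hyS, fun _ => h.sub_sd i ((hz t h0 h1).2 hyS)⟩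
  · have hC : IsPreconnected ((fun s : ℝ => z + s • (y - z)) '' Ioc 0 1) :=
      isPreconnected_Ioc.image _ (by fun_prop)
    have hCS : ((fun s : ℝ => z + s • (y - z)) '' Ioc 0 1) ∩ S = ∅ := by
      rw [Set.eq_empty_iff_forall_notMem]
      rintro _ ⟨⟨s, hs, rfl⟩, hsS⟩
      exact hyS ((hz s hs.1 hs.2).1 hsS)
    have ht : z + t • (y - z) ∈ ((fun s : ℝ => z + s • (y - z)) '' Ioc 0 1) := ⟨t, ⟨h0, h1⟩, rfl⟩
    have hy : y ∈ ((fun s : ℝ => z + s • (y - z)) '' Ioc 0 1) :=
      ⟨1, ⟨zero_lt_one, le_refl _⟩, by simp⟩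
    exact ⟨fun h2 => h.pre_side hl hC hCS ht hy h2, fun h2 => h.pre_side hl hC hCS hy ht h2⟩

end gen

/-! ### isolated points are not two-sided -/

theorem preconn_punctured {E : Type*} [NormedAddCommGroup E] [NormedSpace ℝ E]
    (h : 1 < Module.rank ℝ E) (z : E) (r : ℝ) : IsPreconnected (ball z r \ {z}) := by
  have h1 : ball z r \ {z} = (fun p : ℝ × E => z + p.1 • p.2) '' (Ioo 0 r ×ˢ sphere (0 : E) 1) := by
    ext x
    constructor
    · rintro ⟨hx, hne⟩
      have hne : x - z ≠ 0 := sub_ne_zero.2 hne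
      have hn : 0 < ‖x - z‖ := norm_pos_iff.2 hne
      refine ⟨(‖x - z‖, ‖x - z‖⁻¹ • (x - z)), ⟨⟨hn, ?_⟩, ?_⟩, ?_⟩
      · rw [mem_ball, dist_eq_norm] at hx; exact hx
      · rw [mem_sphere_zero_iff_norm, norm_smul, norm_inv, norm_norm, inv_mul_cancel₀ hn.ne']
      · simp only [smul_smul, mul_inv_cancel₀ hn.ne', one_smul]; abel
    · rintro ⟨⟨t, u⟩, ⟨⟨h0, h1⟩, hu⟩, rfl⟩
      simp only at h0 h1 hu ⊢
      rw [mem_sphere_zero_iff_norm] at hu
      refine ⟨?_, ?_⟩
      · rw [mem_ball, dist_eq_norm, add_sub_cancel_left, norm_smul, hu, mul_one, Real.norm_eq_abs,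
          abs_of_pos h0]; exact h1
      · rw [mem_singleton_iff, add_eq_left, smul_eq_zero]
        rintro (h2 | h2)
        · exact h0.ne' h2
        · rw [h2, norm_zero] at hu; exact zero_ne_one hu
  rw [h1]
  exact (isPreconnected_Ioo.prod (isPreconnected_sphere h _ _)).image _ (by fun_prop)

theorem not_isolated {E : Type*} [NormedAddCommGroup E] [NormedSpace ℝ E]
    (h : 1 < Module.rank ℝ E) {S : Set E} {z : E} (hS : Ax_914.TwoSidedAt S z) {r : ℝ}
    (hr : 0 < r) : ∃ y ∈ ball z r, y ∈ S ∧ y ≠ z := by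
  by_contra hcon
  push Not at hcon
  obtain ⟨U, P, N, hU, hP, hN, hzU, hUb, -, -, hPN, hUS, hzP, hzN⟩ := hS r hr
  obtain ⟨ρ, hρ, hb⟩ := Metric.isOpen_iff.1 hU z hzU
  have hsub : ball z ρ \ {z} ⊆ P ∪ N := by
    rintro y ⟨hy, hyz⟩
    rw [← hUS]
    exact ⟨hb hy, fun hyS => hyz (hcon y (hUb (hb hy)) hyS)⟩
  have hpre := preconn_punctured h z ρ
  -- both `P` and `N` meet the punctured ball
  have hmeet : ∀ A : Set E, z ∈ closure A → IsOpen A → ((ball z ρ \ {z}) ∩ A).Nonempty := by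
    intro A hzA hA
    obtain ⟨y, hyb, hyA⟩ := mem_closure_iff.1 hzA _ isOpen_ball (mem_ball_self hρ)
    by_cases hyz : y = z
    · subst hyz
      -- move a little inside `A`
      obtain ⟨δ, hδ, hbA⟩ := Metric.isOpen_iff.1 hA y hyA
      have : Nontrivial E := by
        rcases subsingleton_or_nontrivial E with hs | hs
        · have := rank_subsingleton' ℝ E
          rw [this] at h; exact absurd h (by simp)
        · exact hs
      obtain ⟨w, hw⟩ := exists_ne (0 : E)
      have hwn : 0 < ‖w‖ := norm_pos_iff.2 hw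
      have hm : 0 < min δ ρ := lt_min hδ hρ
      have hnorm : ‖(min δ ρ / (2 * ‖w‖)) • w‖ = min δ ρ / 2 := by
        rw [norm_smul, Real.norm_eq_abs, abs_of_pos (by positivity)]; field_simp
      have hmem : ∀ τ : ℝ, min δ ρ ≤ τ → y + (min δ ρ / (2 * ‖w‖)) • w ∈ ball y τ := by
        intro τ hτ
        rw [mem_ball, dist_eq_norm, add_sub_cancel_left, hnorm]; linarith
      refine ⟨y + (min δ ρ / (2 * ‖w‖)) • w, ⟨hmem ρ (min_le_right _ _), ?_⟩,
        hbA (hmem δ (min_le_left _ _))⟩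
      rw [mem_singleton_iff, add_eq_left]
      intro h0
      rw [h0, norm_zero] at hnorm
      linarith
    · exact ⟨y, ⟨hyb, hyz⟩, hyA⟩
  obtain ⟨y, hy, hyN⟩ := hmeet N hzN hN
  have h1 := hpre.subset_left_of_subset_union hP hN hPN hsub (hmeet P hzP hP)
  exact Set.disjoint_left.1 hPN (h1 hy) hyN

/-! ### the statement -/

open Gp_702

variable {ι : Type} {T : Tiling (univ : Set E3) ι} {S : Set E3}

theorem con_of (hA : Adapted T S) (hS : ∀ x ∈ S, Ax_914.TwoSidedAt S x) :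
    Con T S (fun x => Classical.epsilon (Apex T S x)) := by
  have hap : ∀ x, (T.cc x ∩ S).Nonempty → Apex T S x (Classical.epsilon (Apex T S x)) := by
    intro x hx
    obtain ⟨z, h1, h2, h3⟩ := hA.cen x hx
    exact Classical.epsilon_spec (p := Apex T S x) ⟨z, h1, h2, h3⟩
  have h3 : finrank ℝ E3 = 3 := by simp [E3]
  refine ⟨hA.cpt, fun z hz => (hap z hz).1, fun z hz => (hap z hz).2.1, ?_,
    fun z hz => (hap z hz).2.2, fun v hv hvS => hA.vert v hvS hv, ?_, ?_⟩
  · intro z w hw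
    have : Apex T S w = Apex T S z := by
      funext c
      unfold Apex
      rw [T.oc_eq_of_mem (mem_univ z) hw, T.cc_eq_of_mem_oc (mem_univ z) hw]
    simp only [this]
  · intro z hz hm
    have h1 := hap z hm
    have h2 := hA.two _ h1.2.1 (by rw [T.dim_eq_of_mem_oc (mem_univ z) h1.1]; exact hz)
    rw [T.oc_eq_of_mem (mem_univ z) h1.1, T.cc_eq_of_mem_oc (mem_univ z) h1.1] at h2
    exact h2
  · intro z hz hm
    have h1 := hap z hm
    rcases Nat.lt_or_ge 2 (T.dim z) with h4 | h4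
    · have h5 : T.dim z = 3 := by
        have := T.dim_le_finrank z
        rw [h3] at this; omega
      by_contra hne
      set c := Classical.epsilon (Apex T S z) with hc
      have hcS : c ∈ S := h1.2.1
      -- the open cell is open
      have hV : T.V z = ⊤ := by
        apply Submodule.eq_top_of_finrank_eq
        rw [h3]; exact h5
      obtain ⟨q, hq⟩ := (T.V_eq_top_iff (mem_univ z)).1 hV
      have hopen : IsOpen (T.oc z) := by
        rw [T.oc_eq_tile hq]; exact isOpen_I _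
      obtain ⟨r, hr, hb⟩ := Metric.isOpen_iff.1 hopen c h1.1
      obtain ⟨y, hy, hyS, hyc⟩ := not_isolated (by
        rw [← finrank_eq_rank, h3]; norm_cast) (hS c hcS) hr
      obtain ⟨w, hw, t, ht0, ht1, e, -⟩ := ray_exists (mem_univ z) h1.1 (T.oc_sub_cc z (hb hy)) hyc
      exact hne ⟨w, hw, (h1.2.2 w hw t ht0 ht1).1 (e ▸ hyS)⟩
    · have h5 : T.dim z = 2 := by omega
      have h2 := hA.two _ h1.2.1 (by rw [T.dim_eq_of_mem_oc (mem_univ z) h1.1]; exact h5)
      rw [T.oc_eq_of_mem (mem_univ z) h1.1, T.cc_eq_of_mem_oc (mem_univ z) h1.1] at h2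
      exact nonempty_of_ncard_ne_zero (by rw [h2]; norm_num)

/-- **(N4)** -/
theorem sidesStmt : SidesStmt := by
  intro ι T S _ hA hS
  have h := con_of hA hS
  have h3 : finrank ℝ E3 = 3 := by simp [E3]
  obtain ⟨lam, D, hD, -, hD1, hD2, hl⟩ := h.exists_labels h3
  have hl : IsLb T S lam := hl
  set ctr := fun x => Classical.epsilon (Apex T S x)
  obtain ⟨e1, e2⟩ := h.compl_sd hl
  have hacc : ∀ i, ∀ x ∈ S, x ∈ closure (sd T S ctr lam i \ S) := fun i x hx =>
    closure_mono inter_subset_left (h.acc hl i hx)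
  have hcl1 := h.isClosed_sd hl 1
  have hcl0 := h.isClosed_sd hl 0
  have hint : sd T S ctr lam 1 \ S ⊆ interior (sd T S ctr lam 1) := by
    refine interior_maximal Set.sdiff_subset ?_
    rw [← e2]; exact hcl0.isOpen_compl
  have hint' : interior (sd T S ctr lam 1) ∩ S = ∅ := by
    rw [Set.eq_empty_iff_forall_notMem]
    rintro x ⟨hx1, hx2⟩
    obtain ⟨y, hy1, hy2⟩ := mem_closure_iff.1 (hacc 0 x hx2) _ isOpen_interior hx1
    have h4 := interior_subset hy1
    rw [← e1] at hy2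
    exact hy2 h4
  refine ⟨sd T S ctr lam 1, sd T S ctr lam 0, ?_, hcl0, ?_, ?_, ?_, ?_, ?_, ?_, ?_, ?_⟩
  · exact hD.of_isClosed_subset hcl1 (h.sd_sub hD1 hD2)
  · ext x
    simp only [mem_union, mem_univ, iff_true]
    exact (h.cover lam x).symm
  · rw [inter_comm]; exact h.inter hl
  · rw [hcl1.frontier_eq]
    ext x
    constructor
    · rintro ⟨hx1, hx2⟩
      by_contra hxS
      exact hx2 (hint ⟨hx1, hxS⟩)
    · intro hx
      refine ⟨h.sub_sd 1 hx, fun hx2 => ?_⟩
      have : x ∈ interior (sd T S ctr lam 1) ∩ S := ⟨hx2, hx⟩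
      rw [hint'] at this; exact this
  · apply Subset.antisymm
    · exact hcl1.closure_subset_iff.2 interior_subset
    · intro x hx
      by_cases hxS : x ∈ S
      · exact closure_mono hint (hacc 1 x hxS)
      · exact subset_closure (hint ⟨hx, hxS⟩)
  · intro x hx
    have hx : T.cc x ∩ S = ∅ := by rwa [Cr, not_nonempty_iff_eq_empty] at hx
    obtain ⟨v, hv, hv0⟩ := T.exists_vertex (mem_univ x)
    have h4 := h.cell_sd hl hx hv hv0
    have : ∀ i : ZMod 2, i = 0 ∨ i = 1 := by decide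
    rcases this (lam v) with e | e
    · right; rw [e] at h4; exact h4
    · left; rw [e] at h4; exact h4
  · intro x z hz y hy t h0 h1
    exact h.sd_apex hl (fun s h0 h1 => hz.2.2 y hy s h0 h1) h0 h1
  · intro x z hz y hy t h0 h1
    exact h.sd_apex hl (fun s h0 h1 => hz.2.2 y hy s h0 h1) h0 h1
  · intro x hx hc a b hab
    obtain ⟨ha, hb, ha', hb', -⟩ := T.dim_ends (mem_univ x) hx hab
    have h4 : lam a ≠ lam b := (hl x hx a b hab).2 hc
    have hv : ∀ v, T.dim v = 0 → v ∈ sd T S ctr lam (lam v) := by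
      intro v hv0
      have hvS : T.cc v ∩ S = ∅ := by
        rw [T.cc_eq_singleton (T.dim_eq_zero_iff.1 hv0)]
        exact singleton_inter_eq_empty.2 (h.vert v hv0)
      exact Sd.base v v hvS (T.self_mem_cc v) hv0 rfl
    have h5 := hv a ha
    have h6 := hv b hb
    have key : ∀ i j : ZMod 2, i ≠ j → (i = 0 ∧ j = 1) ∨ (i = 1 ∧ j = 0) := by decide
    rcases key _ _ h4 with ⟨k1, k2⟩ | ⟨k1, k2⟩
    · right; rw [k1] at h5; rw [k2] at h6; exact ⟨h5, h6⟩
    · left; rw [k1] at h5; rw [k2] at h6; exact ⟨h5, h6⟩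

end Crest.Agent.R096.Gq_451
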