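import Crest.Agent.R096.Ex0_914

/-!
# R096 (row 96), P2-GEN (EXIST), piece (X12) (helper835)

* `hrep` : the convex hull of a finite set is a finite intersection of closed half spaces
  (Fourier-Motzkin elimination, one variable at a time);
* `genStmt : Ex_914.GenStmt`.
-/

set_option autoImplicit false

open Set Metric Topology

namespace Crest.Agent.R096.Gst_835

open Msh_715 Gp_702 Ex_914

/-! ### elimination of one variable -/

theorem fm_step {ι : Type*} (s : Finset ι) (α β : ι → ℝ) :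
    (∃ t : ℝ, ∀ i ∈ s, α i ≤ t * β i) ↔ (∀ i ∈ s, β i = 0 → α i ≤ 0) ∧
      ∀ i ∈ s, ∀ j ∈ s, 0 < β i → β j < 0 → α i / β i ≤ α j / β j := by
  classical
  constructor
  · rintro ⟨t, ht⟩
    refine ⟨fun i hi h0 => ?_, fun i hi j hj hpi hnj => ?_⟩
    · have := ht i hi
      rwa [h0, mul_zero] at this
    · have h1 : α i / β i ≤ t := (div_le_iff₀ hpi).2 (ht i hi)
      have h2 : t ≤ α j / β j := (le_div_iff_of_neg hnj).2 (ht j hj)
      exact h1.trans h2
  · rintro ⟨h0, h1⟩
    by_cases hL : (s.filter fun i => 0 < β i).Nonempty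
    · obtain ⟨i0, hi0, hmax⟩ := (s.filter fun i => 0 < β i).exists_max_image
        (fun i => α i / β i) hL
      rw [Finset.mem_filter] at hi0
      refine ⟨α i0 / β i0, fun i hi => ?_⟩
      rcases lt_trichotomy (β i) 0 with h | h | h
      · exact (le_div_iff_of_neg h).1 (h1 i0 hi0.1 i hi hi0.2 h)
      · rw [h, mul_zero]; exact h0 i hi h
      · exact (div_le_iff₀ h).1 (hmax i (Finset.mem_filter.2 ⟨hi, h⟩))
    · by_cases hU : (s.filter fun i => β i < 0).Nonempty
      · obtain ⟨i0, hi0, hmin⟩ := (s.filter fun i => β i < 0).exists_min_image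
          (fun i => α i / β i) hU
        rw [Finset.mem_filter] at hi0
        refine ⟨α i0 / β i0, fun i hi => ?_⟩
        rcases lt_trichotomy (β i) 0 with h | h | h
        · exact (le_div_iff_of_neg h).1 (hmin i (Finset.mem_filter.2 ⟨hi, h⟩))
        · rw [h, mul_zero]; exact h0 i hi h
        · exact absurd ⟨i, Finset.mem_filter.2 ⟨hi, h⟩⟩ hL
      · refine ⟨0, fun i hi => ?_⟩
        rw [zero_mul]
        rcases lt_trichotomy (β i) 0 with h | h | h
        · exact absurd ⟨i, Finset.mem_filter.2 ⟨hi, h⟩⟩ hU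
        · exact h0 i hi h
        · exact absurd ⟨i, Finset.mem_filter.2 ⟨hi, h⟩⟩ hL

section Hrep

variable {V : Type*} [NormedAddCommGroup V] [NormedSpace ℝ V]

/-- elimination of one variable for affine functions -/
theorem fm_affine (s : Finset ((V →L[ℝ] ℝ) × ℝ × ℝ)) :
    ∃ H : Finset ((V →L[ℝ] ℝ) × ℝ), ∀ x, x ∈ P H ↔
      ∃ t : ℝ, ∀ i ∈ s, i.1 x + i.2.1 ≤ t * i.2.2 := by
  classical
  refine ⟨(s.filter fun i => i.2.2 = 0).image (fun i => (i.1, -i.2.1)) ∪
    ((s.filter fun i => 0 < i.2.2) ×ˢ (s.filter fun i => i.2.2 < 0)).image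
      (fun p => (p.1.2.2⁻¹ • p.1.1 - p.2.2.2⁻¹ • p.2.1,
        p.2.2.2⁻¹ * p.2.2.1 - p.1.2.2⁻¹ * p.1.2.1)), fun x => ?_⟩
  rw [fm_step s (fun i => i.1 x + i.2.1) (fun i => i.2.2)]
  constructor
  · intro hx
    refine ⟨fun i hi h0 => ?_, fun i hi j hj hpi hnj => ?_⟩
    · have := hx (i.1, -i.2.1) (Finset.mem_union_left _ (Finset.mem_image.2
        ⟨i, Finset.mem_filter.2 ⟨hi, h0⟩, rfl⟩))
      simp only at this
      linarith
    · have := hx (i.2.2⁻¹ • i.1 - j.2.2⁻¹ • j.1, j.2.2⁻¹ * j.2.1 - i.2.2⁻¹ * i.2.1)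
        (Finset.mem_union_right _ (Finset.mem_image.2 ⟨(i, j), Finset.mem_product.2
          ⟨Finset.mem_filter.2 ⟨hi, hpi⟩, Finset.mem_filter.2 ⟨hj, hnj⟩⟩, rfl⟩))
      simp only [sub_apply, smul_apply,
        smul_eq_mul] at this
      rw [div_eq_inv_mul, div_eq_inv_mul]
      linarith
  · rintro ⟨h0, h1⟩ h hh
    rcases Finset.mem_union.1 hh with hh | hh
    · obtain ⟨i, hi, rfl⟩ := Finset.mem_image.1 hh
      rw [Finset.mem_filter] at hi
      have := h0 i hi.1 hi.2
      simp only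
      linarith
    · obtain ⟨⟨i, j⟩, hp, rfl⟩ := Finset.mem_image.1 hh
      rw [Finset.mem_product, Finset.mem_filter, Finset.mem_filter] at hp
      have := h1 i hp.1.1 j hp.2.1 hp.1.2 hp.2.2
      simp only [sub_apply, smul_apply, smul_eq_mul]
      rw [div_eq_inv_mul, div_eq_inv_mul] at this
      linarith

/-- the join of a point and a bounded nonempty polyhedron is a polyhedron -/
theorem hrep_insert {H : Finset ((V →L[ℝ] ℝ) × ℝ)} (hne : (P H).Nonempty)
    (hb : Bornology.IsBounded (P H)) (v : V) :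
    ∃ H' : Finset ((V →L[ℝ] ℝ) × ℝ), P H' = convexJoin ℝ {v} (P H) := by
  classical
  obtain ⟨H', hH'⟩ := fm_affine
    (insert ((0 : V →L[ℝ] ℝ), (0 : ℝ), (1 : ℝ)) (insert ((0 : V →L[ℝ] ℝ), (-1 : ℝ), (-1 : ℝ))
      (H.image fun h => (h.1, -h.1 v, h.2 - h.1 v))))
  refine ⟨H', ?_⟩
  ext x
  rw [hH', convexJoin_singleton_left]
  simp only [mem_iUnion, exists_prop]
  constructor
  · rintro ⟨t, ht⟩
    have ht0 : 0 ≤ t := by
      have := ht ((0 : V →L[ℝ] ℝ), (0 : ℝ), (1 : ℝ)) (Finset.mem_insert_self _ _)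
      simpa using this
    have ht1 : t ≤ 1 := by
      have := ht ((0 : V →L[ℝ] ℝ), (-1 : ℝ), (-1 : ℝ))
        (Finset.mem_insert_of_mem (Finset.mem_insert_self _ _))
      simp only [zero_apply] at this
      linarith
    have hH : ∀ h ∈ H, h.1 x - h.1 v ≤ t * (h.2 - h.1 v) := by
      intro h hh
      have := ht (h.1, -h.1 v, h.2 - h.1 v) (Finset.mem_insert_of_mem
        (Finset.mem_insert_of_mem (Finset.mem_image.2 ⟨h, hh, rfl⟩)))
      simp only at this
      linarith
    obtain ⟨y0, hy0⟩ := hne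
    rcases ht0.eq_or_lt with h0 | h0
    · -- `x = v`
      subst h0
      have hxv : x = v := by
        obtain ⟨R, hR⟩ := hb.exists_norm_le
        by_contra hne'
        have hpos : 0 < ‖x - v‖ := norm_pos_iff.2 (sub_ne_zero.2 hne')
        have hmem : ∀ s : ℝ, 0 ≤ s → y0 + s • (x - v) ∈ P H := by
          intro s hs h hh
          have h1 := hH h hh
          have h2 := hy0 h hh
          simp only [map_add, map_smul, map_sub, smul_eq_mul]
          rw [zero_mul] at h1
          nlinarith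
        have hR0 : 0 ≤ R := (norm_nonneg _).trans (hR _ hy0)
        have h3 := hR _ (hmem ((R + ‖y0‖ + 1) / ‖x - v‖) (by positivity))
        have h4 : ‖((R + ‖y0‖ + 1) / ‖x - v‖) • (x - v)‖ = R + ‖y0‖ + 1 := by
          rw [norm_smul, Real.norm_eq_abs, abs_of_nonneg (by positivity)]
          field_simp
        have h5 := norm_sub_norm_le (((R + ‖y0‖ + 1) / ‖x - v‖) • (x - v)) (-y0)
        rw [norm_neg, sub_neg_eq_add, add_comm _ y0, h4] at h5
        linarith
      exact ⟨y0, hy0, hxv ▸ left_mem_segment ℝ _ _⟩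
    · refine ⟨v + t⁻¹ • (x - v), ?_, 1 - t, t, by linarith, h0.le, by ring, ?_⟩
      · intro h hh
        have h1 := hH h hh
        simp only [map_add, map_smul, map_sub, smul_eq_mul]
        have h2 : t⁻¹ * (h.1 x - h.1 v) ≤ h.2 - h.1 v := by
          rw [inv_mul_le_iff₀ h0]; exact h1
        linarith
      · rw [smul_add, smul_smul, mul_inv_cancel₀ h0.ne', one_smul, sub_smul, one_smul]
        abel
  · rintro ⟨y, hy, a, b, ha, hb', hab, rfl⟩
    refine ⟨b, fun i hi => ?_⟩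
    rcases Finset.mem_insert.1 hi with rfl | hi
    · simp [hb']
    rcases Finset.mem_insert.1 hi with rfl | hi
    · simp only [zero_apply]; linarith
    obtain ⟨h, hh, rfl⟩ := Finset.mem_image.1 hi
    have h1 := hy h hh
    simp only [map_add, map_smul, smul_eq_mul]
    have h2 : a = 1 - b := by linarith
    subst h2
    nlinarith

/-- the H-representation of the convex hull of a finite set -/
theorem hrep (hpt : ∀ v : V, ∃ H : Finset ((V →L[ℝ] ℝ) × ℝ), P H = {v}) {s : Set V}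
    (hs : s.Finite) : ∃ H : Finset ((V →L[ℝ] ℝ) × ℝ), P H = convexHull ℝ s := by
  classical
  induction s, hs using Set.Finite.induction_on with
  | empty =>
    refine ⟨{(0, -1)}, ?_⟩
    rw [convexHull_empty]
    ext x
    simp only [P, Finset.mem_singleton, forall_eq, zero_apply,
      mem_empty_iff_false, iff_false]
    show ¬ ((0 : ℝ) ≤ -1)
    norm_num
  | @insert v s hv hs ih =>
    obtain ⟨H, hH⟩ := ih
    rcases s.eq_empty_or_nonempty with rfl | hne
    · obtain ⟨H1, hH1⟩ := hpt v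
      exact ⟨H1, by rw [hH1]; simp⟩
    · have hne' : (P H).Nonempty := by rw [hH]; exact hne.mono (subset_convexHull ℝ s)
      have hb : Bornology.IsBounded (P H) := by
        rw [hH]; exact (isBounded_convexHull.2 hs.isBounded)
      obtain ⟨H', hH'⟩ := hrep_insert hne' hb v
      exact ⟨H', by rw [hH', convexHull_insert hne, hH]⟩

end Hrep

theorem hpt3 (v : E3) : ∃ H : Finset ((E3 →L[ℝ] ℝ) × ℝ), P H = {v} := by
  classical
  refine ⟨(Finset.univ.image fun j : Fin 3 => ((ContinuousLinearMap.proj j : E3 →L[ℝ] ℝ), v j)) ∪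
    (Finset.univ.image fun j : Fin 3 => (-(ContinuousLinearMap.proj j : E3 →L[ℝ] ℝ), -v j)), ?_⟩
  ext x
  rw [mem_singleton_iff]
  constructor
  · intro hx
    funext j
    have h1 := hx (ContinuousLinearMap.proj j, v j) (Finset.mem_union_left _
      (Finset.mem_image.2 ⟨j, Finset.mem_univ _, rfl⟩))
    have h2 := hx (-ContinuousLinearMap.proj j, -v j) (Finset.mem_union_right _
      (Finset.mem_image.2 ⟨j, Finset.mem_univ _, rfl⟩))
    simp only [ContinuousLinearMap.proj_apply, neg_apply] at h1 h2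
    linarith
  · rintro rfl h hh
    rcases Finset.mem_union.1 hh with hh | hh
    · obtain ⟨j, -, rfl⟩ := Finset.mem_image.1 hh
      exact le_refl _
    · obtain ⟨j, -, rfl⟩ := Finset.mem_image.1 hh
      exact le_refl _

/-! ### determined by signs -/

theorem Det.mono {F F' : Finset Af} {S : Set E3} (h : Det F S) (hF : F ⊆ F') : Det F' S :=
  fun x y hs hx => h x y (fun f hf => hs f (hF hf)) hx

theorem Det.filter {F : Finset Af} {S : Set E3} (h : Det F S) [DecidablePred fun f : Af => f.1 ≠ 0] :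
    Det (F.filter fun f => f.1 ≠ 0) S := by
  intro x y hs hx
  refine h x y (fun f hf => ?_) hx
  by_cases h0 : f.1 = 0
  · simp only [ev, h0, zero_apply]
  · exact hs f (Finset.mem_filter.2 ⟨hf, h0⟩)

theorem det_P (H : Finset ((E3 →L[ℝ] ℝ) × ℝ)) : ∃ F : Finset Af, Det F (P H) := by
  classical
  refine ⟨H.image fun h => (h.1, -h.2), fun x y hs hx h hh => ?_⟩
  have h1 := hs (h.1, -h.2) (Finset.mem_image.2 ⟨h, hh, rfl⟩)
  have h2 := hx h hh
  have h3 : ev (h.1, -h.2) x ≤ 0 := by simp only [ev]; linarith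
  have h4 : ev (h.1, -h.2) y ≤ 0 := by
    by_contra hc
    rw [not_le] at hc
    rw [sign_pos hc] at h1
    exact absurd (sign_eq_one_iff.1 h1) (not_lt.2 h3)
  simp only [ev] at h4
  linarith

theorem det_poly {S : Set E3} (h : Gp_702.Poly S) : ∃ F : Finset Af, (∀ f ∈ F, f.1 ≠ 0) ∧
    Det F S := by
  classical
  obtain ⟨C, hf, hc, rfl⟩ := h
  have h1 : ∀ c ∈ C, ∃ F : Finset Af, Det F c := by
    intro c hC
    obtain ⟨s, hs, rfl⟩ := hc c hC
    obtain ⟨H, hH⟩ := hrep hpt3 hs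
    rw [← hH]
    exact det_P H
  choose! G hG using h1
  have h2 : Det (hf.toFinset.biUnion G) (⋃₀ C) := by
    rintro x y hs ⟨c, hC, hx⟩
    refine ⟨c, hC, hG c hC x y (fun f hf' => hs f ?_) hx⟩
    exact Finset.mem_biUnion.2 ⟨c, hf.mem_toFinset.2 hC, hf'⟩
  refine ⟨(hf.toFinset.biUnion G).filter fun f => f.1 ≠ 0, fun f hf' => (Finset.mem_filter.1 hf').2,
    Det.filter h2⟩

/-! ### general position -/

/-- a parameter avoiding finitely many linear conditions -/
theorem exists_param {ι : Type*} (s : Finset ι) (p q : ι → ℝ) :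
    ∃ t : ℝ, ∀ i ∈ s, (p i ≠ 0 ∨ q i ≠ 0) → p i + t * q i ≠ 0 := by
  classical
  obtain ⟨t, ht⟩ := Infinite.exists_notMem_finset (s.image fun i => -p i / q i)
  refine ⟨t, fun i hi hpq h0 => ht ?_⟩
  by_cases hq : q i = 0
  · rw [hq, mul_zero, add_zero] at h0
    exact absurd h0 (hpq.resolve_right (not_not.2 hq))
  · refine Finset.mem_image.2 ⟨i, hi, ?_⟩
    field_simp
    linarith

theorem fexp (f : E3 →L[ℝ] ℝ) (x : E3) :
    f x = x 0 * f (Pi.single 0 1) + x 1 * f (Pi.single 1 1) + x 2 * f (Pi.single 2 1) := by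
  have h : x = x 0 • (Pi.single 0 1 : E3) + x 1 • (Pi.single 1 1 : E3)
      + x 2 • (Pi.single 2 1 : E3) := by
    funext j
    fin_cases j <;> simp
  conv_lhs => rw [h]
  simp only [map_add, map_smul, smul_eq_mul]

theorem fzero {f : E3 →L[ℝ] ℝ} (h0 : f (Pi.single 0 1) = 0) (h1 : f (Pi.single 1 1) = 0)
    (h2 : f (Pi.single 2 1) = 0) : f = 0 := by
  ext x
  · rw [fexp f x, h0, h1, h2]; simp

/-- a lower triangular change of coordinates -/
noncomputable def tri (a b c : ℝ) : E3 ≃L[ℝ] E3 :=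
  LinearEquiv.toContinuousLinearEquiv
  { toFun := fun x => ![x 0, a * x 0 + x 1, b * x 0 + c * x 1 + x 2]
    invFun := fun y => ![y 0, y 1 - a * y 0, y 2 - b * y 0 - c * (y 1 - a * y 0)]
    map_add' := fun x y => by
      funext j
      fin_cases j <;> simp <;> ring
    map_smul' := fun r x => by
      funext j
      fin_cases j <;> simp <;> ring
    left_inv := fun x => by
      funext j
      fin_cases j <;> simp <;> ring
    right_inv := fun x => by
      funext j
      fin_cases j <;> simp <;> ring }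

theorem tri_apply (a b c : ℝ) (x : E3) :
    tri a b c x = ![x 0, a * x 0 + x 1, b * x 0 + c * x 1 + x 2] := rfl

theorem f_tri0 (f : E3 →L[ℝ] ℝ) (a b c : ℝ) : f (tri a b c (Pi.single 0 1)) =
    f (Pi.single 0 1) + a * f (Pi.single 1 1) + b * f (Pi.single 2 1) := by
  rw [tri_apply, fexp f]
  simp

theorem f_tri1 (f : E3 →L[ℝ] ℝ) (a b c : ℝ) : f (tri a b c (Pi.single 1 1)) =
    f (Pi.single 1 1) + c * f (Pi.single 2 1) := by
  rw [tri_apply, fexp f]
  simp

theorem exists_B (F : Finset (E3 →L[ℝ] ℝ)) (hF : ∀ f ∈ F, f ≠ 0) : ∃ B : E3 ≃L[ℝ] E3,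
    (∀ f ∈ F, f (B (Pi.single 0 1)) ≠ 0) ∧ ∀ f ∈ F, ∀ g ∈ F,
      f (B (Pi.single 0 1)) * g (B (Pi.single 1 1)) =
        f (B (Pi.single 1 1)) * g (B (Pi.single 0 1)) → ∃ c : ℝ, g = c • f := by
  classical
  obtain ⟨b, hb⟩ := exists_param F (fun f => f (Pi.single 0 1)) (fun f => f (Pi.single 2 1))
  obtain ⟨a, ha⟩ := exists_param F (fun f => f (Pi.single 0 1) + b * f (Pi.single 2 1))
    (fun f => f (Pi.single 1 1))
  have hu : ∀ f ∈ F, f (Pi.single 0 1) + a * f (Pi.single 1 1) + b * f (Pi.single 2 1) ≠ 0 := by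
    intro f hf
    have h1 := ha f hf (by
      by_cases h1 : f (Pi.single 1 1) = 0
      · left
        refine hb f hf ?_
        by_contra hc
        push Not at hc
        exact hF f hf (fzero hc.1 h1 hc.2)
      · exact Or.inr h1)
    intro h0
    apply h1
    linarith
  let u : (E3 →L[ℝ] ℝ) → ℝ := fun f =>
    f (Pi.single 0 1) + a * f (Pi.single 1 1) + b * f (Pi.single 2 1)
  obtain ⟨c, hc⟩ := exists_param (F ×ˢ F)
    (fun p => u p.1 * p.2 (Pi.single 1 1) - u p.2 * p.1 (Pi.single 1 1))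
    (fun p => u p.1 * p.2 (Pi.single 2 1) - u p.2 * p.1 (Pi.single 2 1))
  refine ⟨tri a b c, fun f hf => by rw [f_tri0]; exact hu f hf, fun f hf g hg h => ?_⟩
  rw [f_tri0, f_tri0, f_tri1, f_tri1] at h
  have huf : u f ≠ 0 := hu f hf
  have h1 := hc (f, g) (Finset.mem_product.2 ⟨hf, hg⟩)
  have h2 : ¬ (u f * g (Pi.single 1 1) - u g * f (Pi.single 1 1) ≠ 0 ∨
      u f * g (Pi.single 2 1) - u g * f (Pi.single 2 1) ≠ 0) := by
    intro h3
    refine h1 h3 ?_
    simp only [u] at *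
    linarith
  push Not at h2
  refine ⟨u g / u f, ?_⟩
  have h3 : u f • g - u g • f = 0 := by
    refine fzero ?_ ?_ ?_
    · simp only [sub_apply, smul_apply, smul_eq_mul]
      obtain ⟨h4, h5⟩ := h2
      have h6 : u f * u g - u g * u f = 0 := by ring
      simp only [u] at h4 h5 h6 ⊢
      linear_combination h6 - a * h4 - b * h5
    · simp only [sub_apply, smul_apply, smul_eq_mul]
      exact h2.1
    · simp only [sub_apply, smul_apply, smul_eq_mul]
      exact h2.2
  have h4 : u f • g = u g • f := sub_eq_zero.1 h3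
  rw [div_eq_inv_mul, mul_smul, ← h4, smul_smul, inv_mul_cancel₀ huf, one_smul]

/-- **(X12)** -/
theorem genStmt : GenStmt := by
  classical
  intro S hS
  obtain ⟨F, hF0, hD⟩ := det_poly hS
  obtain ⟨B, hB0, hB1⟩ := exists_B (F.image fun f => f.1) (by
    intro f hf
    obtain ⟨g, hg, rfl⟩ := Finset.mem_image.1 hf
    exact hF0 g hg)
  have hB0' : ∀ f ∈ F, f.1 (B (Pi.single 0 1)) ≠ 0 := fun f hf =>
    hB0 f.1 (Finset.mem_image.2 ⟨f, hf, rfl⟩)
  -- the translation
  obtain ⟨s, hs⟩ : ∃ s : ℝ, ∀ f ∈ F, ∀ q : Fin 3 → ℚ,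
      f.1 (B (fun j => (q j : ℝ))) + f.2 - s * f.1 (B (Pi.single 0 1)) ≠ 0 := by
    have hcount : (⋃ f ∈ F, range fun q : Fin 3 → ℚ =>
        (f.1 (B (fun j => (q j : ℝ))) + f.2) / f.1 (B (Pi.single 0 1))).Countable :=
      F.countable_toSet.biUnion fun f _ => countable_range _
    have hne : (⋃ f ∈ F, range fun q : Fin 3 → ℚ =>
        (f.1 (B (fun j => (q j : ℝ))) + f.2) / f.1 (B (Pi.single 0 1)))ᶜ.Nonempty :=
      (hcount.dense_compl ℝ).nonempty
    obtain ⟨s, hs⟩ := hne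
    refine ⟨s, fun f hf q h0 => hs ?_⟩
    refine mem_biUnion hf ⟨q, ?_⟩
    have := hB0' f hf
    simp only
    rw [div_eq_iff this]
    linarith
  let τ : E3 := s • (Pi.single 0 1 : E3)
  let L : E3 ≃ₜ E3 := B.symm.toHomeomorph.trans (Homeomorph.addRight τ)
  have hL : ∀ x, L x = B.symm x + τ := fun x => rfl
  have hLP : Pl.PLH L := (Pl.PLH_clm B.symm).trans (Pl.PLH_add τ)
  let φ : Af → Af := fun f => (f.1.comp (B : E3 →L[ℝ] E3), f.2 - f.1 (B τ))
  have hφ : ∀ f x, ev (φ f) (L x) = ev f x := by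
    intro f x
    simp only [ev, φ, hL, ContinuousLinearMap.comp_apply, ContinuousLinearEquiv.coe_coe,
      map_add, ContinuousLinearEquiv.apply_symm_apply]
    ring
  have hBτ : ∀ f : Af, f.1 (B τ) = s * f.1 (B (Pi.single 0 1)) := by
    intro f
    simp only [τ, map_smul, smul_eq_mul]
  refine ⟨L, hLP, F.image φ, ⟨?_, ?_, ?_⟩, ?_⟩
  · intro f hf
    obtain ⟨g, hg, rfl⟩ := Finset.mem_image.1 hf
    intro h0
    apply hB0' g hg
    have := congrArg (fun h : E3 →L[ℝ] ℝ => h (Pi.single 0 1)) h0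
    simpa [φ] using this
  · intro f hf q
    obtain ⟨g, hg, rfl⟩ := Finset.mem_image.1 hf
    have := hs g hg q
    intro h0
    apply this
    simp only [ev, φ, ContinuousLinearMap.comp_apply, ContinuousLinearEquiv.coe_coe, hBτ] at h0
    linarith
  · intro f hf g hg h
    obtain ⟨f', hf', rfl⟩ := Finset.mem_image.1 hf
    obtain ⟨g', hg', rfl⟩ := Finset.mem_image.1 hg
    obtain ⟨c, hc⟩ := hB1 f'.1 (Finset.mem_image.2 ⟨f', hf', rfl⟩) g'.1
      (Finset.mem_image.2 ⟨g', hg', rfl⟩) h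
    refine ⟨c, ?_⟩
    ext x
    simp only [φ, ContinuousLinearMap.comp_apply, smul_apply, hc]
  · rintro _ y hsg ⟨x, hx, rfl⟩
    refine ⟨L.symm y, hD x _ (fun f hf => ?_) hx, L.apply_symm_apply y⟩
    have h1 := hsg (φ f) (Finset.mem_image.2 ⟨f, hf, rfl⟩)
    rw [hφ] at h1
    rw [h1, ← hφ f (L.symm y), L.apply_symm_apply]

end Crest.Agent.R096.Gst_835
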