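import Crest.Agent.R096.GpK3_702
import Crest.Agent.R096.Gq3_451
import Crest.Agent.R096.Gn3_296
import Crest.Agent.R096.Gp1_120
import Crest.Agent.R096.Frt1_324
import Crest.Agent.R096.Gst1_835
import Crest.Agent.R096.Rs2_161
import Crest.Agent.R096.Til3_324

/-!
# R096 (row 96), P2-GEN, assembly (helper702)
-/

set_option autoImplicit false

open Set Metric Topology

namespace Crest.Agent.R096.Gp_702

/-- (NORM) from the last leaf -/
theorem norm_of_th (h7 : ThStmt) : NormStmt :=
  norm_of Gq_451.sidesStmt Gn_296.stepStmt h7 skel Gp1_120.cellStmt Frt_324.front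

/-- (EXIST) from the last leaf -/
theorem exist_of_mac (h3 : Ex_914.MacStmt) : ExistStmt :=
  Ex_914.exist_of Gst_835.genStmt h3 (Til_324.til Rs1_161.rayStmt)

end Crest.Agent.R096.Gp_702
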