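import Crest.Agent.R096.Gp0_702

/-!
# R096 (row 96), P2-GEN, part K1 (helper702): charts of box cells
-/

set_option autoImplicit false

open Set Metric Topology Filter

namespace Crest.Agent.R096.Gp_702

open Ce_537 Msh_715

section Chart

variable {ι : Type} {T : Tiling (univ : Set E3) ι}

theorem mem_zop {l h : Fin 3 → ℤ} {y : E3} :
    y ∈ zop l h ↔ ∀ j, (l j = h j ∧ y j = (l j : ℝ)) ∨ ((l j : ℝ) < y j ∧ y j < (h j : ℝ)) := Iff.rfl

theorem mem_zcl {l h : Fin 3 → ℤ} {y : E3} :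
    y ∈ zcl l h ↔ ∀ j, (l j : ℝ) ≤ y j ∧ y j ≤ (h j : ℝ) := Iff.rfl

theorem zop_sub_zcl {l h : Fin 3 → ℤ} (_hl : l ≤ h) : zop l h ⊆ zcl l h := by
  intro y hy j
  rcases hy j with ⟨e, e1⟩ | ⟨e, e1⟩
  · rw [e1, ← e]; exact ⟨le_rfl, le_rfl⟩
  · exact ⟨e.le, e1.le⟩

theorem zcl_eq_of_eq {l h : Fin 3 → ℤ} {y : E3} (hy : y ∈ zcl l h) {j : Fin 3} (e : l j = h j) :
    y j = (l j : ℝ) := by
  have := hy j
  rw [← e] at this
  exact le_antisymm this.2 this.1

theorem zop_lt {l h : Fin 3 → ℤ} {y : E3} (hy : y ∈ zop l h) {j : Fin 3} (e : l j ≠ h j) :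
    (l j : ℝ) < y j ∧ y j < (h j : ℝ) := by
  rcases hy j with ⟨e1, -⟩ | e1
  · exact absurd e1 e
  · exact e1

/-- directions of a box cell -/
theorem mem_V_iff {x : E3} {l h : Fin 3 → ℤ} (hl : l ≤ h) (hcc : T.cc x = zcl l h)
    (hoc : T.oc x = zop l h) (v : E3) : v ∈ T.V x ↔ ∀ j, l j = h j → v j = 0 := by
  have hx : x ∈ zop l h := hoc ▸ T.self_mem_oc x
  constructor
  · intro hv j hj
    obtain ⟨r, hr, hb⟩ := T.exists_ball_oc (mem_univ x)
    obtain ⟨s, hs0, hs⟩ : ∃ s : ℝ, 0 < s ∧ ‖s • v‖ < r := by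
      refine ⟨r / (2 * (‖v‖ + 1)), by positivity, ?_⟩
      rw [norm_smul, Real.norm_eq_abs, abs_of_pos (by positivity)]
      have h1 : 0 ≤ ‖v‖ := norm_nonneg v
      rw [div_mul_eq_mul_div, div_lt_iff₀ (by positivity)]
      nlinarith
    have h1 := hb _ ((T.V x).smul_mem s hv) hs
    rw [hoc] at h1
    have h2 := zcl_eq_of_eq (zop_sub_zcl hl h1) hj
    have h3 := zcl_eq_of_eq (zop_sub_zcl hl hx) hj
    have h4 : x j + s * v j = (l j : ℝ) := h2
    have h5 : s * v j = 0 := by linarith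
    rcases mul_eq_zero.1 h5 with e | e
    · exact absurd e hs0.ne'
    · exact e
  · intro hv
    have hev : ∀ᶠ s : ℝ in 𝓝 0, x + s • v ∈ zop l h := by
      have : ∀ j, ∀ᶠ s : ℝ in 𝓝 0, (l j = h j ∧ (x + s • v) j = (l j : ℝ)) ∨
          ((l j : ℝ) < (x + s • v) j ∧ (x + s • v) j < (h j : ℝ)) := by
        intro j
        rcases hx j with ⟨e, e1⟩ | ⟨e, e1⟩
        · refine Eventually.of_forall fun s => Or.inl ⟨e, ?_⟩
          show x j + s * v j = _
          rw [hv j e, e1]; ring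
        · have hc : Continuous fun s : ℝ => (x + s • v) j := by
            show Continuous fun s : ℝ => x j + s * v j
            fun_prop
          have h0 : (x + (0 : ℝ) • v) j = x j := by simp
          have h1 : ∀ᶠ s : ℝ in 𝓝 0, (l j : ℝ) < (x + s • v) j :=
            hc.continuousAt.eventually (lt_mem_nhds (by
              show (l j : ℝ) < (x + (0 : ℝ) • v) j
              rw [h0]; exact e))
          have h2 : ∀ᶠ s : ℝ in 𝓝 0, (x + s • v) j < (h j : ℝ) :=
            hc.continuousAt.eventually (gt_mem_nhds (by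
              show (x + (0 : ℝ) • v) j < (h j : ℝ)
              rw [h0]; exact e1))
          filter_upwards [h1, h2] with s a b
          exact Or.inr ⟨a, b⟩
      filter_upwards [eventually_all.2 this] with s hs using hs
    obtain ⟨s, hs, hs0⟩ := ((hev.filter_mono nhdsWithin_le_nhds).and
      (self_mem_nhdsWithin : Ioi (0 : ℝ) ∈ 𝓝[>] 0)).exists
    have h1 : x + s • v ∈ T.cc x := by rw [hcc]; exact zop_sub_zcl hl hs
    have h2 := T.sub_mem_V h1
    have h3 : s • v ∈ T.V x := by simpa using h2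
    have h4 := (T.V x).smul_mem s⁻¹ h3
    rwa [smul_smul, inv_mul_cancel₀ (ne_of_gt hs0), one_smul] at h4

/-- dimension of a box cell -/
theorem dim_eq_card {x : E3} {l h : Fin 3 → ℤ} (hl : l ≤ h) (hcc : T.cc x = zcl l h)
    (hoc : T.oc x = zop l h) : T.dim x = Fintype.card {j : Fin 3 // l j ≠ h j} := by
  let f : ({j : Fin 3 // l j ≠ h j} → ℝ) →ₗ[ℝ] E3 :=
    { toFun := fun y j => if hj : l j ≠ h j then y ⟨j, hj⟩ else 0
      map_add' := by
        intro a b
        ext j
        simp only [Pi.add_apply]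
        split_ifs <;> simp
      map_smul' := by
        intro c a
        ext j
        simp only [Pi.smul_apply, RingHom.id_apply, smul_eq_mul]
        split_ifs <;> simp }
  have hf : Function.Injective f := by
    intro a b hab
    ext ⟨j, hj⟩
    have := congrFun hab j
    simp only [f, LinearMap.coe_mk, AddHom.coe_mk] at this
    rw [dif_pos hj, dif_pos hj] at this
    exact this
  have hr : LinearMap.range f = T.V x := by
    ext v
    rw [mem_V_iff hl hcc hoc]
    constructor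
    · rintro ⟨y, rfl⟩ j hj
      simp only [f, LinearMap.coe_mk, AddHom.coe_mk]
      rw [dif_neg (by simpa using hj)]
    · intro hv
      refine ⟨fun j => v j, ?_⟩
      ext j
      simp only [f, LinearMap.coe_mk, AddHom.coe_mk]
      split_ifs with hj
      · rfl
      · exact (hv j (by simpa using hj)).symm
  have := LinearMap.finrank_range_of_inj hf
  rw [hr] at this
  show Module.finrank ℝ (T.V x) = _
  rw [this]
  simp

end Chart

/-! ### the chart -/

section Emb

variable {k : ℕ} (l h : Fin 3 → ℤ) (e : Fin k ≃ {j : Fin 3 // l j ≠ h j})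

/-- the chart -/
noncomputable def emb : (Fin k → ℝ) →ᵃ[ℝ] E3 where
  toFun y := fun j => if hj : l j ≠ h j then y (e.symm ⟨j, hj⟩) else (l j : ℝ)
  linear :=
    { toFun := fun y j => if hj : l j ≠ h j then y (e.symm ⟨j, hj⟩) else 0
      map_add' := by
        intro a b
        ext j
        simp only [Pi.add_apply]
        split_ifs <;> simp
      map_smul' := by
        intro c a
        ext j
        simp only [Pi.smul_apply, RingHom.id_apply, smul_eq_mul]
        split_ifs <;> simp }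
  map_vadd' := by
    intro p v
    ext j
    simp only [vadd_eq_add, Pi.add_apply, LinearMap.coe_mk, AddHom.coe_mk]
    split_ifs <;> simp

theorem emb_pos (y : Fin k → ℝ) {j : Fin 3} (hj : l j ≠ h j) :
    emb l h e y j = y (e.symm ⟨j, hj⟩) := by
  show (if hj : l j ≠ h j then y (e.symm ⟨j, hj⟩) else (l j : ℝ)) = _
  rw [dif_pos hj]

theorem emb_neg (y : Fin k → ℝ) {j : Fin 3} (hj : l j = h j) : emb l h e y j = (l j : ℝ) := by
  show (if hj : l j ≠ h j then y (e.symm ⟨j, hj⟩) else (l j : ℝ)) = _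
  rw [dif_neg (by simpa using hj)]

/-- the inverse chart -/
def prj : E3 →ₗ[ℝ] (Fin k → ℝ) where
  toFun x := fun i => x (e i)
  map_add' _ _ := rfl
  map_smul' _ _ := rfl

theorem prj_apply (x : E3) (i : Fin k) : prj l h e x i = x (e i) := rfl

theorem prj_emb (y : Fin k → ℝ) : prj l h e (emb l h e y) = y := by
  ext i
  rw [prj_apply, emb_pos l h e y (e i).2]
  congr 1
  exact e.symm_apply_apply i

theorem emb_prj {w : E3} (hw : w ∈ zcl l h) : emb l h e (prj l h e w) = w := by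
  ext j
  by_cases hj : l j = h j
  · rw [emb_neg l h e _ hj, zcl_eq_of_eq hw hj]
  · rw [emb_pos l h e _ hj, prj_apply, e.apply_symm_apply]

/-- lower and upper corner in the chart -/
def lo (i : Fin k) : ℝ := (l (e i) : ℝ)
def hi (i : Fin k) : ℝ := (h (e i) : ℝ)

variable {l h}

theorem one_le_hi_sub_lo (hl : l ≤ h) (i : Fin k) : 1 ≤ hi l h e i - lo l h e i := by
  have h1 : l (e i) ≠ h (e i) := (e i).2
  have h2 : l (e i) + 1 ≤ h (e i) := by
    have h0 : l (e i) ≤ h (e i) := hl (e i)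
    omega
  have h3 : ((l (e i) : ℤ) : ℝ) + 1 ≤ ((h (e i) : ℤ) : ℝ) := by exact_mod_cast h2
  show (1 : ℝ) ≤ (h (e i) : ℝ) - (l (e i) : ℝ)
  linarith

theorem emb_mem_zcl (_hl : l ≤ h) {y : Fin k → ℝ} :
    emb l h e y ∈ zcl l h ↔ y ∈ Icc (lo l h e) (hi l h e) := by
  constructor
  · intro hy
    refine ⟨fun i => ?_, fun i => ?_⟩
    · have := (hy (e i)).1
      rwa [emb_pos l h e y (e i).2, show e.symm ⟨(e i : Fin 3), (e i).2⟩ = i from
        e.symm_apply_apply i] at this
    · have := (hy (e i)).2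
      rwa [emb_pos l h e y (e i).2, show e.symm ⟨(e i : Fin 3), (e i).2⟩ = i from
        e.symm_apply_apply i] at this
  · intro hy j
    by_cases hj : l j = h j
    · rw [emb_neg l h e y hj, ← hj]; exact ⟨le_rfl, le_rfl⟩
    · rw [emb_pos l h e y hj]
      have h1 := hy.1 (e.symm ⟨j, hj⟩)
      have h2 := hy.2 (e.symm ⟨j, hj⟩)
      simp only [lo, hi, e.apply_symm_apply] at h1 h2
      exact ⟨h1, h2⟩

theorem emb_mem_zop (_hl : l ≤ h) {y : Fin k → ℝ} :
    emb l h e y ∈ zop l h ↔ ∀ i, lo l h e i < y i ∧ y i < hi l h e i := by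
  constructor
  · intro hy i
    have := zop_lt hy (e i).2
    rwa [emb_pos l h e y (e i).2, show e.symm ⟨(e i : Fin 3), (e i).2⟩ = i from
        e.symm_apply_apply i] at this
  · intro hy j
    by_cases hj : l j = h j
    · left
      exact ⟨hj, emb_neg l h e y hj⟩
    · right
      rw [emb_pos l h e y hj]
      have h1 := hy (e.symm ⟨j, hj⟩)
      simp only [lo, hi, e.apply_symm_apply] at h1
      exact h1

theorem emb_mem_bd (hl : l ≤ h) {y : Fin k → ℝ} :
    emb l h e y ∈ zcl l h \ zop l h ↔ y ∈ bb (lo l h e) (hi l h e) := by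
  rw [Set.mem_sdiff, emb_mem_zcl e hl, emb_mem_zop e hl]
  constructor
  · rintro ⟨h1, h2⟩
    refine ⟨h1, ?_⟩
    by_contra h3
    apply h2
    intro i
    refine ⟨lt_of_le_of_ne (h1.1 i) fun h4 => h3 ⟨i, Or.inl h4.symm⟩,
      lt_of_le_of_ne (h1.2 i) fun h4 => h3 ⟨i, Or.inr h4⟩⟩
  · rintro ⟨h1, i, h2⟩
    refine ⟨h1, fun h3 => ?_⟩
    rcases h2 with h2 | h2
    · exact absurd h2 (h3 i).1.ne'
    · exact absurd h2 (h3 i).2.ne

theorem prj_mem_Icc (hl : l ≤ h) {w : E3} (hw : w ∈ zcl l h) :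
    prj l h e w ∈ Icc (lo l h e) (hi l h e) := by
  rw [← emb_mem_zcl e hl, emb_prj l h e hw]; exact hw

theorem prj_mem_bb (hl : l ≤ h) {w : E3} (hw : w ∈ zcl l h \ zop l h) :
    prj l h e w ∈ bb (lo l h e) (hi l h e) := by
  rw [← emb_mem_bd e hl, emb_prj l h e hw.1]; exact hw

theorem emb_kap (y : Fin k → ℝ) (s : ℝ) :
    emb l h e (kap (lo l h e) (hi l h e) y s) = kapZ l h (emb l h e y) s := by
  ext j
  by_cases hj : l j = h j
  · rw [emb_neg l h e _ hj]
    show _ = if l j = h j then _ else _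
    rw [if_pos hj, emb_neg l h e _ hj]
  · rw [emb_pos l h e _ hj]
    show _ = if l j = h j then _ else _
    rw [if_neg hj, emb_pos l h e _ hj]
    simp only [kap, lo, hi, e.apply_symm_apply]

theorem emb_cone (c y : Fin k → ℝ) (r : ℝ) :
    emb l h e (c + r • (y - c)) = emb l h e c + r • (emb l h e y - emb l h e c) := by
  ext j
  by_cases hj : l j = h j
  · show _ = emb l h e c j + r * (emb l h e y j - emb l h e c j)
    rw [emb_neg l h e _ hj, emb_neg l h e _ hj, emb_neg l h e _ hj]; ring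
  · show _ = emb l h e c j + r * (emb l h e y j - emb l h e c j)
    rw [emb_pos l h e _ hj, emb_pos l h e _ hj, emb_pos l h e _ hj]
    rfl

theorem image_emb_cone1 (c : Fin k → ℝ) (R : Set (Fin k → ℝ)) :
    emb l h e '' cone1 c R = cone1 (emb l h e c) (emb l h e '' R) := by
  ext w
  constructor
  · rintro ⟨_, ⟨y, hy, r, hr, rfl⟩, rfl⟩
    exact ⟨_, ⟨y, hy, rfl⟩, r, hr, emb_cone e c y r⟩
  · rintro ⟨_, ⟨y, hy, rfl⟩, r, hr, rfl⟩
    exact ⟨_, ⟨y, hy, r, hr, rfl⟩, emb_cone e c y r⟩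

theorem image_emb_colr (R : Set (Fin k → ℝ)) (t : ℝ) :
    emb l h e '' colr (lo l h e) (hi l h e) R t =
      {y | ∃ ω ∈ emb l h e '' R, ∃ s ∈ Icc (0 : ℝ) t, y = kapZ l h ω s} := by
  ext w
  constructor
  · rintro ⟨_, ⟨y, hy, r, hr, rfl⟩, rfl⟩
    exact ⟨_, ⟨y, hy, rfl⟩, r, hr, emb_kap e y r⟩
  · rintro ⟨_, ⟨y, hy, rfl⟩, r, hr, rfl⟩
    exact ⟨_, ⟨y, hy, r, hr, rfl⟩, emb_kap e y r⟩

theorem plOn_emb (K : Set (Fin k → ℝ)) : PLOn (emb l h e) K := plOn_affine _ K

theorem plOn_prj (K : Set E3) : PLOn (prj l h e) K :=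
  plOn_affine (prj l h e).toAffineMap K

/-- chart of the closed cell -/
noncomputable def chC (hl : l ≤ h) : PLEquiv (Icc (lo l h e) (hi l h e)) (zcl l h) where
  f := emb l h e
  g := prj l h e
  pf := plOn_emb e _
  pg := plOn_prj e _
  mf := fun _ hy => (emb_mem_zcl e hl).2 hy
  mg := fun _ hw => prj_mem_Icc e hl hw
  li := fun _ _ => prj_emb l h e _
  ri := fun _ hw => emb_prj l h e hw

/-- chart of the boundary -/
noncomputable def chB (hl : l ≤ h) : PLEquiv (bb (lo l h e) (hi l h e)) (zcl l h \ zop l h) where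
  f := emb l h e
  g := prj l h e
  pf := plOn_emb e _
  pg := plOn_prj e _
  mf := fun _ hy => (emb_mem_bd e hl).2 hy
  mg := fun _ hw => prj_mem_bb e hl hw
  li := fun _ _ => prj_emb l h e _
  ri := fun _ hw => emb_prj l h e hw.1

end Emb

end Crest.Agent.R096.Gp_702
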