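import Crest.Agent.R096.GpK1_702

/-!
# R096 (row 96), P2-GEN, part K2 (helper702): the step in one cell of the tiling
-/

set_option autoImplicit false

open Set Metric Topology Filter

namespace Crest.Agent.R096.Gp_702

open Ce_537 Msh_715

theorem zcl_inj {l h l' h' : Fin 3 → ℤ} (hl : l ≤ h) (hl' : l' ≤ h') (he : zcl l h = zcl l' h') :
    l = l' ∧ h = h' := by
  have m1 : ∀ {a b : Fin 3 → ℤ}, a ≤ b → (fun j => (a j : ℝ)) ∈ zcl a b := by
    intro a b hab j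
    exact ⟨le_rfl, Int.cast_le.2 (hab j)⟩
  have m2 : ∀ {a b : Fin 3 → ℤ}, a ≤ b → (fun j => (b j : ℝ)) ∈ zcl a b := by
    intro a b hab j
    exact ⟨Int.cast_le.2 (hab j), le_rfl⟩
  have a1 := m1 hl
  have a2 := m2 hl
  have b1 := m1 hl'
  have b2 := m2 hl'
  rw [he] at a1 a2
  rw [← he] at b1 b2
  constructor
  · ext j
    have h1 : (l' j : ℝ) ≤ (l j : ℝ) := (a1 j).1
    have h2 : (l j : ℝ) ≤ (l' j : ℝ) := (b1 j).1
    exact_mod_cast le_antisymm h2 h1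
  · ext j
    have h1 : (h j : ℝ) ≤ (h' j : ℝ) := (a2 j).2
    have h2 : (h' j : ℝ) ≤ (h j : ℝ) := (b2 j).2
    exact_mod_cast le_antisymm h1 h2

theorem dep_pos (k : ℕ) : 0 < dep k := by unfold dep; positivity

theorem dep_le_quarter {k : ℕ} : dep k ≤ 1 / 4 := by
  unfold dep
  have : ((1 : ℝ) / 2) ^ k ≤ 1 := pow_le_one₀ (by norm_num) (by norm_num)
  linarith

theorem dep_succ (k : ℕ) : dep (k + 1) = dep k / 2 := by
  unfold dep
  rw [pow_succ]; ring

theorem four_dep_lt {k : ℕ} (hk : 0 < k) : 4 * dep k < 1 := by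
  obtain ⟨m, rfl⟩ : ∃ m, k = m + 1 := ⟨k - 1, by omega⟩
  rw [dep_succ]
  have := dep_le_quarter (k := m)
  linarith

/-- one box -/
theorem step_box (h2 : StepStmt) {k : ℕ} (hk : 0 < k) {l h : Fin 3 → ℤ} (hl : l ≤ h)
    (e : Fin k ≃ {j : Fin 3 // l j ≠ h j}) {z : E3} (hz : z ∈ zop l h) {A B R0 R1 : Set E3}
    (hA : A = zcl l h) (hB : B = zop l h) (th : PLEquiv (A \ B) (sph k))
    (h0 : th.f '' (R0 ∩ (A \ B)) = Hu hk) (h1 : th.f '' (R1 ∩ (A \ B)) = Hd hk)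
    (φ : PLEquiv (A \ B) (A \ B)) :
    ∃ Ψ : PLEquiv A A, EqOn Ψ.f φ.f (A \ B) ∧ Ψ.f '' cone1 z (R0 ∩ (A \ B)) =
      {y | ∃ ω ∈ φ.f '' (R0 ∩ (A \ B)), ∃ s ∈ Icc (0 : ℝ) (dep k), y = kapZ l h ω s} := by
  subst hA hB
  have ep : ∀ Q : Set E3, Q ⊆ zcl l h → emb l h e '' (prj l h e '' Q) = Q := by
    intro Q hQ
    rw [image_image]
    ext w
    constructor
    · rintro ⟨v, hv, rfl⟩
      beta_reduce
      rw [emb_prj l h e (hQ hv)]; exact hv
    · intro hw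
      exact ⟨w, hw, emb_prj l h e (hQ hw)⟩
  have hsub : ∀ R : Set E3, R ∩ (zcl l h \ zop l h) ⊆ zcl l h := fun R w hw => hw.2.1
  have hpb : ∀ R : Set E3, prj l h e '' (R ∩ (zcl l h \ zop l h)) ⊆
      bb (lo l h e) (hi l h e) := by
    rintro R _ ⟨w, hw, rfl⟩
    exact prj_mem_bb e hl hw.2
  have hth : ∀ R : Set E3, ((chB e hl).trans th).f '' (prj l h e '' (R ∩ (zcl l h \ zop l h))) =
      th.f '' (R ∩ (zcl l h \ zop l h)) := by
    intro R
    have : ((chB e hl).trans th).f '' (prj l h e '' (R ∩ (zcl l h \ zop l h))) =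
        th.f '' (emb l h e '' (prj l h e '' (R ∩ (zcl l h \ zop l h)))) := by
      rw [image_image th.f]; rfl
    rw [this, ep _ (hsub R)]
  obtain ⟨Psi, hP1, hP2, -⟩ := h2 k hk (lo l h e) (hi l h e) (prj l h e z) (dep k)
    (fun i => (zop_lt hz (e i).2).1) (fun i => (zop_lt hz (e i).2).2) (dep_pos k)
    (fun i => lt_of_lt_of_le (four_dep_lt hk) (one_le_hi_sub_lo e hl i))
    (prj l h e '' (R0 ∩ (zcl l h \ zop l h))) (prj l h e '' (R1 ∩ (zcl l h \ zop l h)))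
    ((chB e hl).trans th) (((chB e hl).trans φ).trans (chB e hl).symm) (hpb R0) (hpb R1)
    (by rw [hth, h0]) (by rw [hth, h1])
  refine ⟨((chC e hl).symm.trans Psi).trans (chC e hl), ?_, ?_⟩
  · intro w hw
    have e1 : Psi.f (prj l h e w) = prj l h e (φ.f (emb l h e (prj l h e w))) :=
      hP1 (prj_mem_bb e hl hw)
    show emb l h e (Psi.f (prj l h e w)) = φ.f w
    rw [e1, emb_prj l h e hw.1, emb_prj l h e (φ.mf hw).1]
  · have e1 : (((chC e hl).symm.trans Psi).trans (chC e hl)).f '' cone1 z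
        (R0 ∩ (zcl l h \ zop l h)) =
        emb l h e '' (Psi.f '' (prj l h e '' cone1 z (R0 ∩ (zcl l h \ zop l h)))) := by
      rw [image_image, image_image]; rfl
    have e2 : prj l h e '' cone1 z (R0 ∩ (zcl l h \ zop l h)) =
        cone1 (prj l h e z) (prj l h e '' (R0 ∩ (zcl l h \ zop l h))) := by
      ext w
      constructor
      · rintro ⟨_, ⟨y, hy, r, hr, rfl⟩, rfl⟩
        exact ⟨_, ⟨y, hy, rfl⟩, r, hr, by rw [map_add, map_smul, map_sub]⟩
      · rintro ⟨_, ⟨y, hy, rfl⟩, r, hr, rfl⟩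
        exact ⟨_, ⟨y, hy, r, hr, rfl⟩, by rw [map_add, map_smul, map_sub]⟩
    rw [e1, e2, hP2, image_emb_colr]
    have e3 : emb l h e '' ((((chB e hl).trans φ).trans (chB e hl).symm).f ''
        (prj l h e '' (R0 ∩ (zcl l h \ zop l h)))) = φ.f '' (R0 ∩ (zcl l h \ zop l h)) := by
      have : emb l h e '' ((((chB e hl).trans φ).trans (chB e hl).symm).f ''
          (prj l h e '' (R0 ∩ (zcl l h \ zop l h)))) =
          emb l h e '' (prj l h e '' (φ.f '' (emb l h e '' (prj l h e ''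
            (R0 ∩ (zcl l h \ zop l h)))))) := by
        simp only [image_image]; rfl
      rw [this, ep _ (hsub R0), ep _ ?_]
      rintro _ ⟨w, hw, rfl⟩
      exact (φ.mf hw.2).1
    rw [e3]

/-- `sph k` meets the upper half -/
theorem Hu_nonempty {k : ℕ} (hk : 0 < k) : (Hu hk).Nonempty := by
  have : Nonempty (Fin k) := ⟨⟨0, hk⟩⟩
  refine ⟨fun _ => 1, ?_, by norm_num⟩
  rw [mem_sphere_zero_iff_norm, pi_norm_const]
  simp

section Cells

variable {ι : Type} {T : Tiling (univ : Set E3) ι} {S R0 R1 : Set E3}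

/-- `R0` is a cone in every crossing cell of positive dimension -/
theorem inter_eq_cone (hR : Sides T S R0 R1) {x z : E3} (hz : Apex T S x z)
    (hne : (R0 ∩ (T.cc x \ T.oc x)).Nonempty) :
    R0 ∩ T.cc x = cone1 z (R0 ∩ (T.cc x \ T.oc x)) := by
  have hzc : z ∈ T.cc x := T.oc_sub_cc x hz.1
  have hzR : z ∈ R0 := by
    have : z ∈ R0 ∩ R1 := by rw [hR.inter]; exact hz.2.1
    exact this.1
  ext w
  constructor
  · rintro ⟨hw0, hwc⟩
    by_cases hwz : w = z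
    · subst hwz
      obtain ⟨y, hy⟩ := hne
      exact ⟨y, hy, 0, ⟨le_rfl, zero_le_one⟩, by simp⟩
    · have hv : w - z ∈ T.V z := by
        have h1 : w ∈ T.cc z := by rw [T.cc_eq_of_mem_oc (mem_univ x) hz.1]; exact hwc
        exact T.sub_mem_V h1
      obtain ⟨t, ht0, ht1, ht2, ht3⟩ := T.exists_exit (mem_univ z) hv (sub_ne_zero.2 hwz)
      rw [T.cc_eq_of_mem_oc (mem_univ x) hz.1] at ht1
      rw [T.oc_eq_of_mem (mem_univ x) hz.1] at ht2 ht3
      have ht : 1 ≤ t := by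
        by_contra hlt
        push Not at hlt
        apply ht2
        have h1 := T.move_mem_oc (x := z) (y := w) (by
          rw [T.cc_eq_of_mem_oc (mem_univ x) hz.1]; exact hwc) (s := 1 - t) (by linarith)
          (by linarith)
        rw [T.oc_eq_of_mem (mem_univ x) hz.1] at h1
        have h2 : z + t • (w - z) = w + (1 - t) • (z - w) := by module
        rw [h2]; exact h1
      have hy : z + t • (w - z) ∈ T.cc x \ T.oc x := ⟨ht1, ht2⟩
      have hwe : w = z + t⁻¹ • ((z + t • (w - z)) - z) := by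
        rw [add_sub_cancel_left, smul_smul, inv_mul_cancel₀ ht0.ne', one_smul]
        abel
      have ht' : t⁻¹ ≤ 1 := inv_le_one_of_one_le₀ ht
      refine ⟨z + t • (w - z), ⟨?_, hy⟩, t⁻¹, ⟨by positivity, ht'⟩, hwe⟩
      rw [← hR.cone0 x z hz _ hy t⁻¹ (by positivity) ht', ← hwe]
      exact hw0
  · rintro ⟨y, ⟨hy0, hyb⟩, r, ⟨hr0, hr1⟩, rfl⟩
    refine ⟨?_, ?_⟩
    · rcases hr0.eq_or_lt with rfl | hr
      · simpa using hzR
      · exact (hR.cone0 x z hz y hyb r hr hr1).2 hy0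
    · have := (T.convex_cc x).add_smul_sub_mem hzc hyb.1 ⟨hr0, hr1⟩
      exact this

/-- **one cell of the tiling** -/
theorem cellStep (h2 : StepStmt) (h7 : ThStmt) (hT : Bxs T) (hA : Adapted T S)
    (hR : Sides T S R0 R1) {x : E3} (hx : Cr T S x) (hk : 0 < T.dim x)
    (φ : PLEquiv (T.cc x \ T.oc x) (T.cc x \ T.oc x)) :
    ∃ Ψ : PLEquiv (T.cc x) (T.cc x), EqOn Ψ.f φ.f (T.cc x \ T.oc x) ∧
      ∀ l h : Fin 3 → ℤ, T.cc x = zcl l h → T.oc x = zop l h → l ≤ h →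
      Ψ.f '' (R0 ∩ T.cc x) = {y | ∃ ω ∈ φ.f '' (R0 ∩ (T.cc x \ T.oc x)),
        ∃ s ∈ Icc (0 : ℝ) (dep (T.dim x)), y = kapZ l h ω s} := by
  obtain ⟨l, h, hl, hcc, hoc⟩ := hT x
  obtain ⟨z, hz1, hz2, hz3⟩ := hA.cen x hx
  have hz : Apex T S x z := ⟨hz1, hz2, hz3⟩
  obtain ⟨th, h0, h1⟩ := h7 ι T S hT hA R0 R1 hR x hx hk
  have hcard := dim_eq_card hl hcc hoc
  let e : Fin (T.dim x) ≃ {j : Fin 3 // l j ≠ h j} := (Fintype.equivFinOfCardEq hcard.symm).symm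
  obtain ⟨Ψ, hΨ1, hΨ2⟩ := step_box h2 hk hl e (hoc ▸ hz1) hcc hoc th h0 h1 φ
  refine ⟨Ψ, hΨ1, ?_⟩
  intro l' h' hcc' hoc' hl'
  obtain ⟨rfl, rfl⟩ := zcl_inj hl hl' (hcc.symm.trans hcc')
  rw [← hΨ2, inter_eq_cone hR hz]
  rw [← image_nonempty (f := th.f), h0]
  exact Hu_nonempty hk

end Cells

end Crest.Agent.R096.Gp_702
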