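import Crest.Agent.R096.GpK2_702

/-!
# R096 (row 96), P2-GEN, part K3 (helper702): the skeleton recursion (N5)
-/

set_option autoImplicit false

open Set Metric Topology Filter

namespace Crest.Agent.R096.Gp_702

open Ce_537 Msh_715

section Skel

variable {ι : Type} (T : Tiling (univ : Set E3) ι) (S R0 : Set E3)

/-- statement of the induction on the skeletons -/
structure Sk (k : ℕ) (F G : E3 → E3) : Prop where
  mf : ∀ x, T.dim x ≤ k → MapsTo F (T.cc x) (T.cc x)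
  mg : ∀ x, T.dim x ≤ k → MapsTo G (T.cc x) (T.cc x)
  li : ∀ x, T.dim x ≤ k → ∀ y ∈ T.cc x, G (F y) = y
  ri : ∀ x, T.dim x ≤ k → ∀ y ∈ T.cc x, F (G y) = y
  pf : ∀ x, T.dim x ≤ k → PLOn F (T.cc x)
  pg : ∀ x, T.dim x ≤ k → PLOn G (T.cc x)
  fix : ∀ x, T.dim x ≤ k → ¬ Cr T S x → ∀ y ∈ T.cc x, F y = y
  col : ∀ x, T.dim x ≤ k → Cr T S x → ∀ l h : Fin 3 → ℤ, T.cc x = zcl l h → T.oc x = zop l h →
    l ≤ h → F '' (R0 ∩ T.cc x) = {y | ∃ ω ∈ F '' (R0 ∩ (T.cc x \ T.oc x)),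
      ∃ s ∈ Icc (0 : ℝ) (dep (T.dim x)), y = kapZ l h ω s}

variable {T S R0}

theorem Cr_iff_of_mem_oc {x y : E3} (hy : y ∈ T.oc x) : Cr T S y ↔ Cr T S x := by
  unfold Cr
  rw [T.cc_eq_of_mem_oc (mem_univ x) hy]

theorem not_Cr_of_mem_cc {x y : E3} (hx : ¬ Cr T S x) (hy : y ∈ T.cc x) : ¬ Cr T S y := by
  intro h
  exact hx (h.mono (inter_subset_inter_left _ (T.cc_sub_of_mem hy)))

/-- crossing cells have positive dimension -/
theorem dim_pos_of_Cr (hA : Adapted T S) {x : E3} (hx : Cr T S x) : 0 < T.dim x := by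
  obtain ⟨y, hy, hyS⟩ := hx
  exact lt_of_lt_of_le (Nat.pos_of_ne_zero (hA.vert y hyS)) (T.dim_le hy)

theorem mem_bd_cc {x y w : E3} (hy : y ∈ T.cc x \ T.oc x) (hw : w ∈ T.cc y) :
    w ∈ T.cc x \ T.oc x := by
  refine ⟨T.cc_sub_of_mem hy.1 hw, fun h => ?_⟩
  have := T.disjoint_oc_cc (mem_univ x) hy.1 hy.2
  exact (Set.disjoint_left.1 this) h hw

theorem bd_eq_iUnion (x : E3) : T.cc x \ T.oc x =
    ⋃ c ∈ {c : Set E3 | (∃ z ∈ (univ : Set E3), c = T.cc z) ∧ c ⊆ T.cc x \ T.oc x}, c := by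
  ext w
  simp only [mem_iUnion, exists_prop]
  constructor
  · intro hw
    exact ⟨T.cc w, ⟨⟨w, mem_univ w, rfl⟩, fun v hv => mem_bd_cc hw hv⟩, T.self_mem_cc w⟩
  · rintro ⟨c, ⟨-, hc⟩, hw⟩
    exact hc hw

theorem plOn_bd {F : E3 → E3} {x : E3} (h : ∀ y ∈ T.cc x \ T.oc x, PLOn F (T.cc y)) :
    PLOn F (T.cc x \ T.oc x) := by
  rw [bd_eq_iUnion]
  refine plOn_biUnion _ ?_ ?_ ?_
  · refine (T.finite_below (mem_univ x)).subset ?_
    rintro c ⟨h1, h2⟩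
    exact ⟨h1, h2.trans sdiff_subset⟩
  · rintro c ⟨⟨z, -, rfl⟩, h2⟩
    exact h z (h2 (T.self_mem_cc z))
  · rintro c ⟨⟨z, -, rfl⟩, h2⟩
    exact T.isClosed_cc z

/-- base -/
theorem Sk.zero (hA : Adapted T S) : Sk T S R0 0 (fun x => x) (fun x => x) where
  mf := fun _ _ _ h => h
  mg := fun _ _ _ h => h
  li := fun _ _ _ _ => rfl
  ri := fun _ _ _ _ => rfl
  pf := fun _ _ => plOn_id _
  pg := fun _ _ => plOn_id _
  fix := fun _ _ _ _ _ => rfl
  col := by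
    intro x hx hC
    exact absurd (dim_pos_of_Cr hA hC) (by omega)

/-- the equivalence of the boundary of a cell -/
def Sk.bdE {k : ℕ} {F G : E3 → E3} (h : Sk T S R0 k F G) {x : E3} (hx : T.dim x = k + 1) :
    PLEquiv (T.cc x \ T.oc x) (T.cc x \ T.oc x) :=
  have hd : ∀ y ∈ T.cc x \ T.oc x, T.dim y ≤ k := fun y hy => by
    have := T.dim_lt hy.1 hy.2
    omega
  { f := F
    g := G
    pf := plOn_bd fun y hy => h.pf y (hd y hy)
    pg := plOn_bd fun y hy => h.pg y (hd y hy)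
    mf := fun y hy => mem_bd_cc hy (h.mf y (hd y hy) (T.self_mem_cc y))
    mg := fun y hy => mem_bd_cc hy (h.mg y (hd y hy) (T.self_mem_cc y))
    li := fun y hy => h.li y (hd y hy) y (T.self_mem_cc y)
    ri := fun y hy => h.ri y (hd y hy) y (T.self_mem_cc y) }

/-- step -/
theorem Sk.succ {R1 : Set E3} (h2 : StepStmt) (h7 : ThStmt) (hT : Bxs T) (hA : Adapted T S)
    (hR : Sides T S R0 R1) {k : ℕ} {F G : E3 → E3} (h : Sk T S R0 k F G) :
    ∃ F' G' : E3 → E3, Sk T S R0 (k + 1) F' G' := by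
  classical
  -- functions on the crossing cells
  have key : ∀ c : Set E3, ∃ f g : E3 → E3, ∀ x, T.cc x = c → T.dim x = k + 1 → Cr T S x →
      PLOn f c ∧ PLOn g c ∧ MapsTo f c c ∧ MapsTo g c c ∧ (∀ y ∈ c, g (f y) = y) ∧
      (∀ y ∈ c, f (g y) = y) ∧ (∀ y ∈ c \ T.oc x, f y = F y) ∧ (∀ y ∈ c \ T.oc x, g y = G y) ∧
      ∀ l h : Fin 3 → ℤ, T.cc x = zcl l h → T.oc x = zop l h → l ≤ h →
        f '' (R0 ∩ T.cc x) = {y | ∃ ω ∈ F '' (R0 ∩ (T.cc x \ T.oc x)),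
          ∃ s ∈ Icc (0 : ℝ) (dep (T.dim x)), y = kapZ l h ω s} := by
    intro c
    by_cases hc : ∃ x, T.cc x = c ∧ T.dim x = k + 1 ∧ Cr T S x
    · obtain ⟨x, rfl, hd, hx⟩ := hc
      obtain ⟨Ψ, hΨ1, hΨ2⟩ := cellStep h2 h7 hT hA hR hx (by omega) (h.bdE hd)
      refine ⟨Ψ.f, Ψ.g, fun x' hx' _ _ => ?_⟩
      have hox : T.oc x' = T.oc x :=
        T.oc_eq_of_mem (mem_univ x) ((T.cc_eq_iff (mem_univ x)).1 hx')
      have hdx : T.dim x' = T.dim x :=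
        T.dim_eq_of_mem_oc (mem_univ x) ((T.cc_eq_iff (mem_univ x)).1 hx')
      refine ⟨Ψ.pf, Ψ.pg, Ψ.mf, Ψ.mg, Ψ.li, Ψ.ri, ?_, ?_, ?_⟩
      · rw [hox]
        intro y hy
        exact hΨ1 hy
      · rw [hox]
        intro y hy
        -- `G y` lies on the boundary and `f (G y) = F (G y) = y`
        have h1 : G y ∈ T.cc x \ T.oc x := (h.bdE hd).mg hy
        have h2 : Ψ.f (G y) = y := by
          rw [hΨ1 h1]
          exact (h.bdE hd).ri y hy
        calc Ψ.g y = Ψ.g (Ψ.f (G y)) := by rw [h2]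
          _ = G y := Ψ.li _ h1.1
      · rw [hox, hdx, hx']
        exact hΨ2
    · refine ⟨id, id, fun x h1 h2 h3 => absurd ⟨x, h1, h2, h3⟩ hc⟩
  choose f g hfg using key
  let F' : E3 → E3 := fun x => if Cr T S x ∧ T.dim x = k + 1 then f (T.cc x) x else
    if T.dim x ≤ k then F x else x
  let G' : E3 → E3 := fun x => if Cr T S x ∧ T.dim x = k + 1 then g (T.cc x) x else
    if T.dim x ≤ k then G x else x
  -- (A)
  have A1 : ∀ x, T.dim x ≤ k → EqOn F' F (T.cc x) := by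
    intro x hx y hy
    have hd : T.dim y ≤ k := (T.dim_le hy).trans hx
    simp only [F']
    rw [if_neg (by omega), if_pos hd]
  have A2 : ∀ x, T.dim x ≤ k → EqOn G' G (T.cc x) := by
    intro x hx y hy
    have hd : T.dim y ≤ k := (T.dim_le hy).trans hx
    simp only [G']
    rw [if_neg (by omega), if_pos hd]
  -- (B)
  have B1 : ∀ x, T.dim x = k + 1 → Cr T S x → EqOn F' (f (T.cc x)) (T.cc x) := by
    intro x hx hC y hy
    by_cases hyo : y ∈ T.oc x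
    · simp only [F']
      rw [if_pos ⟨(Cr_iff_of_mem_oc hyo).2 hC, (T.dim_eq_of_mem_oc (mem_univ x) hyo).trans hx⟩,
        T.cc_eq_of_mem_oc (mem_univ x) hyo]
    · have hd : T.dim y ≤ k := by have := T.dim_lt hy hyo; omega
      rw [A1 y hd (T.self_mem_cc y)]
      exact ((hfg (T.cc x) x rfl hx hC).2.2.2.2.2.2.1 y ⟨hy, hyo⟩).symm
  have B2 : ∀ x, T.dim x = k + 1 → Cr T S x → EqOn G' (g (T.cc x)) (T.cc x) := by
    intro x hx hC y hy
    by_cases hyo : y ∈ T.oc x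
    · simp only [G']
      rw [if_pos ⟨(Cr_iff_of_mem_oc hyo).2 hC, (T.dim_eq_of_mem_oc (mem_univ x) hyo).trans hx⟩,
        T.cc_eq_of_mem_oc (mem_univ x) hyo]
    · have hd : T.dim y ≤ k := by have := T.dim_lt hy hyo; omega
      rw [A2 y hd (T.self_mem_cc y)]
      exact ((hfg (T.cc x) x rfl hx hC).2.2.2.2.2.2.2.1 y ⟨hy, hyo⟩).symm
  -- (C)
  have C1 : ∀ x, T.dim x = k + 1 → ¬ Cr T S x → EqOn F' (fun y => y) (T.cc x) := by
    intro x hx hC y hy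
    by_cases hyo : y ∈ T.oc x
    · simp only [F']
      have hd : T.dim y = k + 1 := (T.dim_eq_of_mem_oc (mem_univ x) hyo).trans hx
      rw [if_neg (fun h => hC ((Cr_iff_of_mem_oc hyo).1 h.1)), if_neg (by omega)]
    · have hd : T.dim y ≤ k := by have := T.dim_lt hy hyo; omega
      rw [A1 y hd (T.self_mem_cc y)]
      exact h.fix y hd (not_Cr_of_mem_cc hC hy) y (T.self_mem_cc y)
  have C2 : ∀ x, T.dim x = k + 1 → ¬ Cr T S x → EqOn G' (fun y => y) (T.cc x) := by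
    intro x hx hC y hy
    by_cases hyo : y ∈ T.oc x
    · simp only [G']
      have hd : T.dim y = k + 1 := (T.dim_eq_of_mem_oc (mem_univ x) hyo).trans hx
      rw [if_neg (fun h => hC ((Cr_iff_of_mem_oc hyo).1 h.1)), if_neg (by omega)]
    · have hd : T.dim y ≤ k := by have := T.dim_lt hy hyo; omega
      rw [A2 y hd (T.self_mem_cc y)]
      have h1 := h.fix y hd (not_Cr_of_mem_cc hC hy) y (T.self_mem_cc y)
      have h2 := h.li y hd y (T.self_mem_cc y)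
      rw [h1] at h2
      exact h2
  -- three cases
  have cases3 : ∀ x, T.dim x ≤ k + 1 → T.dim x ≤ k ∨ (T.dim x = k + 1 ∧ Cr T S x) ∨
      (T.dim x = k + 1 ∧ ¬ Cr T S x) := by
    intro x hx
    by_cases h1 : T.dim x ≤ k
    · exact Or.inl h1
    · by_cases h2 : Cr T S x
      · exact Or.inr (Or.inl ⟨by omega, h2⟩)
      · exact Or.inr (Or.inr ⟨by omega, h2⟩)
  have mf : ∀ x, T.dim x ≤ k + 1 → MapsTo F' (T.cc x) (T.cc x) := by
    intro x hx
    rcases cases3 x hx with h1 | ⟨h1, h2⟩ | ⟨h1, h2⟩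
    · exact (h.mf x h1).congr (A1 x h1).symm
    · exact (hfg (T.cc x) x rfl h1 h2).2.2.1.congr (B1 x h1 h2).symm
    · exact (mapsTo_id _).congr (C1 x h1 h2).symm
  have mg : ∀ x, T.dim x ≤ k + 1 → MapsTo G' (T.cc x) (T.cc x) := by
    intro x hx
    rcases cases3 x hx with h1 | ⟨h1, h2⟩ | ⟨h1, h2⟩
    · exact (h.mg x h1).congr (A2 x h1).symm
    · exact (hfg (T.cc x) x rfl h1 h2).2.2.2.1.congr (B2 x h1 h2).symm
    · exact (mapsTo_id _).congr (C2 x h1 h2).symm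
  refine ⟨F', G', mf, mg, ?_, ?_, ?_, ?_, ?_, ?_⟩
  · intro x hx y hy
    rcases cases3 x hx with h1 | ⟨h1, h2⟩ | ⟨h1, h2⟩
    · rw [A1 x h1 hy, A2 x h1 (h.mf x h1 hy)]
      exact h.li x h1 y hy
    · rw [B1 x h1 h2 hy, B2 x h1 h2 ((hfg (T.cc x) x rfl h1 h2).2.2.1 hy)]
      exact (hfg (T.cc x) x rfl h1 h2).2.2.2.2.1 y hy
    · rw [C1 x h1 h2 hy, C2 x h1 h2 hy]
  · intro x hx y hy
    rcases cases3 x hx with h1 | ⟨h1, h2⟩ | ⟨h1, h2⟩
    · rw [A2 x h1 hy, A1 x h1 (h.mg x h1 hy)]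
      exact h.ri x h1 y hy
    · rw [B2 x h1 h2 hy, B1 x h1 h2 ((hfg (T.cc x) x rfl h1 h2).2.2.2.1 hy)]
      exact (hfg (T.cc x) x rfl h1 h2).2.2.2.2.2.1 y hy
    · rw [C2 x h1 h2 hy, C1 x h1 h2 hy]
  · intro x hx
    rcases cases3 x hx with h1 | ⟨h1, h2⟩ | ⟨h1, h2⟩
    · exact (h.pf x h1).congr (A1 x h1)
    · exact (hfg (T.cc x) x rfl h1 h2).1.congr (B1 x h1 h2)
    · exact (plOn_id _).congr (C1 x h1 h2)
  · intro x hx
    rcases cases3 x hx with h1 | ⟨h1, h2⟩ | ⟨h1, h2⟩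
    · exact (h.pg x h1).congr (A2 x h1)
    · exact (hfg (T.cc x) x rfl h1 h2).2.1.congr (B2 x h1 h2)
    · exact (plOn_id _).congr (C2 x h1 h2)
  · intro x hx hC y hy
    rcases cases3 x hx with h1 | ⟨h1, h2⟩ | ⟨h1, h2⟩
    · rw [A1 x h1 hy]; exact h.fix x h1 hC y hy
    · exact absurd h2 hC
    · exact C1 x h1 h2 hy
  · intro x hx hC l m hcc hoc hl
    rcases cases3 x hx with h1 | ⟨h1, h2⟩ | ⟨h1, h2⟩
    · rw [((A1 x h1).mono inter_subset_right).image_eq,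
        ((A1 x h1).mono (inter_subset_right.trans sdiff_subset)).image_eq]
      exact h.col x h1 hC l m hcc hoc hl
    · have e1 : F' '' (R0 ∩ (T.cc x \ T.oc x)) = F '' (R0 ∩ (T.cc x \ T.oc x)) := by
        refine image_congr fun y hy => ?_
        have hd : T.dim y ≤ k := by have := T.dim_lt hy.2.1 hy.2.2; omega
        exact A1 y hd (T.self_mem_cc y)
      rw [((B1 x h1 h2).mono inter_subset_right).image_eq, e1]
      exact (hfg (T.cc x) x rfl h1 h2).2.2.2.2.2.2.2.2 l m hcc hoc hl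
    · exact absurd hC h2

/-- a map which is PL on all cells is continuous -/
theorem continuous_of_cells {F : E3 → E3} (h : ∀ x, PLOn F (T.cc x)) : Continuous F := by
  rw [continuous_iff_continuousAt]
  intro x
  obtain ⟨r, hr, hfin⟩ := T.lf_cells (mem_univ x)
  have h1 : PLOn F (⋃ c ∈ {c : Set E3 | (∃ z ∈ (univ : Set E3), c = T.cc z) ∧
      (c ∩ ball x r).Nonempty}, c) := by
    refine plOn_biUnion _ hfin ?_ ?_
    · rintro c ⟨⟨z, -, rfl⟩, -⟩
      exact h z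
    · rintro c ⟨⟨z, -, rfl⟩, -⟩
      exact T.isClosed_cc z
  refine h1.1.continuousAt ?_
  refine mem_of_superset (ball_mem_nhds x hr) fun y hy => ?_
  simp only [mem_iUnion, exists_prop]
  exact ⟨T.cc y, ⟨⟨y, mem_univ y, rfl⟩, y, T.self_mem_cc y, hy⟩, T.self_mem_cc y⟩

/-- PL on all cells and the identity on the non-crossing ones -/
theorem plMap_of_cells (hA : Adapted T S) {F : E3 → E3} (h : ∀ x, PLOn F (T.cc x))
    (hfix : ∀ x, ¬ Cr T S x → F x = x) : Pl.PLMap F := by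
  refine ⟨continuous_of_cells h, ?_⟩
  have hfin := T.finite_cells hA.cpt (subset_univ S)
  have h1 : PLOn F (⋃ c ∈ {c : Set E3 | (∃ z ∈ (univ : Set E3), c = T.cc z) ∧
      (c ∩ S).Nonempty}, c) := by
    refine plOn_biUnion _ hfin ?_ ?_
    · rintro c ⟨⟨z, -, rfl⟩, -⟩
      exact h z
    · rintro c ⟨⟨z, -, rfl⟩, -⟩
      exact T.isClosed_cc z
  obtain ⟨-, G, hG⟩ := h1
  refine ⟨insert (AffineMap.id ℝ E3) (G : Set (E3 →ᵃ[ℝ] E3)), G.finite_toSet.insert _,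
    fun x => ?_⟩
  by_cases hx : Cr T S x
  · obtain ⟨g, hg, hgx⟩ := hG x (by
      simp only [mem_iUnion, exists_prop]
      exact ⟨T.cc x, ⟨⟨x, mem_univ x, rfl⟩, hx⟩, T.self_mem_cc x⟩)
    exact ⟨g, mem_insert_of_mem _ hg, hgx⟩
  · exact ⟨_, mem_insert _ _, hfix x hx⟩

end Skel

/-- **(N5)** -/
theorem skel : SkelStmt := by
  intro h2 h7 ι T S hT hA R0 R1 hR
  obtain ⟨F1, G1, s1⟩ := (Sk.zero (R0 := R0) hA).succ h2 h7 hT hA hR
  obtain ⟨F2, G2, s2⟩ := s1.succ h2 h7 hT hA hR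
  obtain ⟨F, G, s⟩ := s2.succ h2 h7 hT hA hR
  have hd : ∀ x, T.dim x ≤ 0 + 1 + 1 + 1 := fun x => by
    have := T.dim_le_finrank x
    simpa using this
  have hFfix : ∀ x, ¬ Cr T S x → F x = x := fun x hx => s.fix x (hd x) hx x (T.self_mem_cc x)
  have hGfix : ∀ x, ¬ Cr T S x → G x = x := fun x hx => by
    have h1 := s.li x (hd x) x (T.self_mem_cc x)
    rwa [hFfix x hx] at h1
  have li : ∀ x, G (F x) = x := fun x => s.li x (hd x) x (T.self_mem_cc x)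
  have ri : ∀ x, F (G x) = x := fun x => s.ri x (hd x) x (T.self_mem_cc x)
  have hF : Pl.PLMap F := plMap_of_cells hA (fun x => s.pf x (hd x)) hFfix
  have hG : Pl.PLMap G := plMap_of_cells hA (fun x => s.pg x (hd x)) hGfix
  refine ⟨Pl.mkH F G hF hG li ri, Pl.PLH_mkH _ _ _ _ _ _, ?_, ?_, ?_⟩
  · intro x
    refine Subset.antisymm ?_ ?_
    · rintro _ ⟨y, hy, rfl⟩
      exact s.mf x (hd x) hy
    · intro y hy
      exact ⟨G y, s.mg x (hd x) hy, ri y⟩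
  · intro x hx y hy
    exact s.fix x (hd x) hx y hy
  · intro x hx l h hcc hoc hl
    exact s.col x (hd x) hx l h hcc hoc hl

end Crest.Agent.R096.Gp_702
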