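import Crest.Agent.R096.GpK3_702
import Crest.Agent.R096.Gn2_296

/-!
# R096 (row 96), P2-GEN (N7) (helper702): the boundary of a crossing cell of dimension 1 or 2
-/

set_option autoImplicit false

open Set Metric Topology Filter

namespace Crest.Agent.R096.Gp_702

open Ce_537 Msh_715

section PL

variable {E F : Type*} [NormedAddCommGroup E] [NormedSpace ℝ E]
  [NormedAddCommGroup F] [NormedSpace ℝ F]

theorem plOn_singleton (f : E → F) (a : E) : PLOn f {a} := by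
  refine (plOn_const (f a) {a}).congr ?_
  rintro y rfl
  rfl

theorem plOn_pair (f : E → F) (a b : E) : PLOn f {a, b} := by
  have := (plOn_singleton f a).union (plOn_singleton f b) isClosed_singleton isClosed_singleton
  rwa [singleton_union] at this

open Classical in
/-- two-point sets -/
noncomputable def pairE {a b : E} {c d : F} (hab : a ≠ b) (hcd : c ≠ d) :
    PLEquiv ({a, b} : Set E) ({c, d} : Set F) where
  f := fun y => if y = a then c else d
  g := fun y => if y = c then a else b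
  pf := plOn_pair _ a b
  pg := plOn_pair _ c d
  mf := by
    rintro y (rfl | rfl)
    · simp
    · simp [hab.symm]
  mg := by
    rintro y (rfl | rfl)
    · simp
    · simp [hcd.symm]
  li := by
    rintro y (rfl | rfl)
    · simp
    · simp [hab.symm, hcd.symm]
  ri := by
    rintro y (rfl | rfl)
    · simp
    · simp [hcd.symm, hab.symm]

theorem pairE_left {a b : E} {c d : F} (hab : a ≠ b) (hcd : c ≠ d) :
    (pairE hab hcd).f a = c := by
  simp [pairE]

theorem pairE_right {a b : E} {c d : F} (hab : a ≠ b) (hcd : c ≠ d) :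
    (pairE hab hcd).f b = d := by
  simp [pairE, hab.symm]

end PL

theorem sph_one : sph 1 = {(fun _ => 1 : Fin 1 → ℝ), (fun _ => -1 : Fin 1 → ℝ)} := by
  ext y
  rw [mem_sphere_zero_iff_norm, mem_insert_iff, mem_singleton_iff]
  have h1 : ‖y‖ = |y 0| := by
    refine le_antisymm ?_ (norm_le_pi_norm y 0)
    rw [pi_norm_le_iff_of_nonneg (abs_nonneg _)]
    intro i
    rw [Subsingleton.elim i 0]
    exact le_rfl
  rw [h1]
  constructor
  · intro h
    rcases abs_eq (by norm_num : (0 : ℝ) ≤ 1) |>.1 h with h | h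
    · left
      ext i
      rw [Subsingleton.elim i 0, h]
    · right
      ext i
      rw [Subsingleton.elim i 0, h]
  · rintro (rfl | rfl) <;> simp

theorem Hu_one (hk : 0 < 1) : Hu (k := 1) hk = {(fun _ => 1 : Fin 1 → ℝ)} := by
  ext y
  have : (y ∈ Hu (k := 1) hk) ↔ (y ∈ sph 1 ∧ 0 ≤ y 0) := Iff.rfl
  rw [this, sph_one]
  constructor
  · rintro ⟨rfl | rfl, h⟩
    · rfl
    · norm_num at h
  · rintro rfl
    exact ⟨Or.inl rfl, by norm_num⟩

theorem Hd_one (hk : 0 < 1) : Hd (k := 1) hk = {(fun _ => -1 : Fin 1 → ℝ)} := by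
  ext y
  have : (y ∈ Hd (k := 1) hk) ↔ (y ∈ sph 1 ∧ y 0 ≤ 0) := Iff.rfl
  rw [this, sph_one]
  constructor
  · rintro ⟨rfl | rfl, h⟩
    · norm_num at h
    · rfl
  · rintro rfl
    exact ⟨Or.inr rfl, by norm_num⟩

theorem isClosed_bb {k : ℕ} (l h : Fin k → ℝ) : IsClosed (bb l h) := by
  have : bb l h = Icc l h ∩ ⋃ j, {y : Fin k → ℝ | y j = l j ∨ y j = h j} := by
    ext y
    simp [bb]
  rw [this]
  refine isClosed_Icc.inter (isClosed_iUnion_of_finite fun j => ?_)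
  exact (isClosed_eq (continuous_apply j) continuous_const).union
    (isClosed_eq (continuous_apply j) continuous_const)

section Cells

variable {ι : Type} {T : Tiling (univ : Set E3) ι} {S R0 R1 : Set E3}

theorem S_sub (hR : Sides T S R0 R1) : S ⊆ R0 ∧ S ⊆ R1 := by
  rw [← hR.inter]
  exact ⟨inter_subset_left, inter_subset_right⟩

/-- the two ends of a crossing 1-cell lie on different sides -/
theorem sides_edge (hA : Adapted T S) (hR : Sides T S R0 R1) {p : E3} (hp : Cr T S p)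
    (hd : T.dim p = 1) : ∃ a b : E3, a ≠ b ∧ T.cc p \ T.oc p = {a, b} ∧
      a ∈ R0 ∧ a ∉ R1 ∧ b ∈ R1 ∧ b ∉ R0 := by
  obtain ⟨a, b, hab, hcc, hoc, ha, hb, -, -⟩ := T.edge_eq (mem_univ p) hd
  have hbd : T.cc p \ T.oc p = {a, b} := by
    rw [hcc, hoc]
    ext y
    constructor
    · rintro ⟨h1, h2⟩
      rw [← insert_endpoints_openSegment] at h1
      rcases h1 with h1 | h1 | h1
      · exact Or.inl h1
      · exact Or.inr h1
      · exact absurd h1 h2
    · rintro (rfl | rfl)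
      · refine ⟨left_mem_segment _ _ _, fun h => hab ?_⟩
        exact left_mem_openSegment_iff.1 h
      · refine ⟨right_mem_segment _ _ _, fun h => hab ?_⟩
        exact right_mem_openSegment_iff.1 h
  have haS : a ∉ S := fun h => hA.vert a h ha
  have hbS : b ∉ S := fun h => hA.vert b h hb
  have hnot : ∀ y, y ∉ S → ¬ (y ∈ R0 ∧ y ∈ R1) := fun y hy h => hy (by rw [← hR.inter]; exact h)
  rcases hR.edge p hd hp a b hcc with ⟨h0, h1⟩ | ⟨h0, h1⟩
  · exact ⟨a, b, hab, hbd, h0, fun h => hnot a haS ⟨h0, h⟩, h1, fun h => hnot b hbS ⟨h, h1⟩⟩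
  · refine ⟨b, a, hab.symm, by rw [hbd, pair_comm], h1, fun h => hnot b hbS ⟨h1, h⟩, h0,
      fun h => hnot a haS ⟨h, h0⟩⟩

/-- **dimension 1** -/
theorem th_dim1 (hA : Adapted T S) (hR : Sides T S R0 R1) {x : E3} (hx : Cr T S x)
    (hd : T.dim x = 1) : ∃ th : PLEquiv (T.cc x \ T.oc x) (sph 1),
      th.f '' (R0 ∩ (T.cc x \ T.oc x)) = Hu (k := 1) one_pos ∧
      th.f '' (R1 ∩ (T.cc x \ T.oc x)) = Hd (k := 1) one_pos := by
  obtain ⟨a, b, hab, hbd, ha0, ha1, hb1, hb0⟩ := sides_edge hA hR hx hd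
  have hcd : (fun _ => 1 : Fin 1 → ℝ) ≠ (fun _ => -1 : Fin 1 → ℝ) := by
    intro h
    have := congrFun h 0
    norm_num at this
  have h0 : R0 ∩ {a, b} = {a} := by
    ext y
    constructor
    · rintro ⟨h1, rfl | rfl⟩
      · rfl
      · exact absurd h1 hb0
    · rintro rfl
      exact ⟨ha0, Or.inl rfl⟩
  have h1 : R1 ∩ {a, b} = {b} := by
    ext y
    constructor
    · rintro ⟨h1, rfl | rfl⟩
      · exact absurd h1 ha1
      · rfl
    · rintro rfl
      exact ⟨hb1, Or.inr rfl⟩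
  rw [hbd, sph_one, h0, h1, Hu_one, Hd_one]
  refine ⟨pairE hab hcd, ?_, ?_⟩
  · rw [image_singleton, pairE_left]
  · rw [image_singleton, pairE_right]

/-- both sides occur on the boundary of a cell with a boundary point of `S` in a 1-cell -/
theorem sides_bd (hA : Adapted T S) (hR : Sides T S R0 R1) {x p : E3} (hp : p ∈ T.cc x \ T.oc x)
    (hpS : p ∈ S) (hd : T.dim p = 1) :
    (∃ a ∈ T.cc x \ T.oc x, a ∈ R0 ∧ a ∉ R1) ∧ (∃ b ∈ T.cc x \ T.oc x, b ∈ R1 ∧ b ∉ R0) := by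
  obtain ⟨a, b, -, hbd, ha0, ha1, hb1, hb0⟩ := sides_edge hA hR ⟨p, T.self_mem_cc p, hpS⟩ hd
  have ha : a ∈ T.cc p \ T.oc p := by rw [hbd]; exact Or.inl rfl
  have hb : b ∈ T.cc p \ T.oc p := by rw [hbd]; exact Or.inr rfl
  exact ⟨⟨a, mem_bd_cc hp ha.1, ha0, ha1⟩, ⟨b, mem_bd_cc hp hb.1, hb1, hb0⟩⟩

/-- transport from the chart -/
theorem th_of_chart {k : ℕ} (hk : 0 < k) {l h : Fin 3 → ℤ} (hl : l ≤ h)
    (e : Fin k ≃ {j : Fin 3 // l j ≠ h j}) {A B : Set E3} (hA : A = zcl l h) (hB : B = zop l h)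
    (th' : PLEquiv (bb (lo l h e) (hi l h e)) (sph k))
    (h0 : th'.f '' {y | y ∈ bb (lo l h e) (hi l h e) ∧ emb l h e y ∈ R0} = Hu hk)
    (h1 : th'.f '' {y | y ∈ bb (lo l h e) (hi l h e) ∧ emb l h e y ∈ R1} = Hd hk) :
    ∃ th : PLEquiv (A \ B) (sph k), th.f '' (R0 ∩ (A \ B)) = Hu hk ∧
      th.f '' (R1 ∩ (A \ B)) = Hd hk := by
  subst hA hB
  have key : ∀ R : Set E3, ((chB e hl).symm.trans th').f '' (R ∩ (zcl l h \ zop l h)) =
      th'.f '' {y | y ∈ bb (lo l h e) (hi l h e) ∧ emb l h e y ∈ R} := by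
    intro R
    ext w
    constructor
    · rintro ⟨v, ⟨hv1, hv2⟩, rfl⟩
      refine ⟨prj l h e v, ⟨prj_mem_bb e hl hv2, ?_⟩, rfl⟩
      rw [emb_prj l h e hv2.1]; exact hv1
    · rintro ⟨v, ⟨hv1, hv2⟩, rfl⟩
      refine ⟨emb l h e v, ⟨hv2, (emb_mem_bd e hl).2 hv1⟩, ?_⟩
      show th'.f (prj l h e (emb l h e v)) = _
      rw [prj_emb]
  exact ⟨(chB e hl).symm.trans th', by rw [key, h0], by rw [key, h1]⟩

/-- **dimension 2** -/
theorem th_dim2 (h3 : Circ2Stmt) (hT : Bxs T) (hA : Adapted T S) (hR : Sides T S R0 R1) {x : E3}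
    (hx : Cr T S x) (hd : T.dim x = 2) : ∃ th : PLEquiv (T.cc x \ T.oc x) (sph 2),
      th.f '' (R0 ∩ (T.cc x \ T.oc x)) = Hu (k := 2) two_pos ∧
      th.f '' (R1 ∩ (T.cc x \ T.oc x)) = Hd (k := 2) two_pos := by
  obtain ⟨l, h, hl, hcc, hoc⟩ := hT x
  obtain ⟨z, hz1, hz2, hz3⟩ := hA.cen x hx
  have hdz : T.dim z = 2 := (T.dim_eq_of_mem_oc (mem_univ x) hz1).trans hd
  have htwo := hA.two z hz2 hdz
  rw [T.cc_eq_of_mem_oc (mem_univ x) hz1, T.oc_eq_of_mem (mem_univ x) hz1] at htwo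
  obtain ⟨p, q, hpq, hS⟩ := ncard_eq_two.1 htwo
  have hp : p ∈ (T.cc x \ T.oc x) ∩ S := by rw [hS]; exact Or.inl rfl
  have hq : q ∈ (T.cc x \ T.oc x) ∩ S := by rw [hS]; exact Or.inr rfl
  have hdp : T.dim p = 1 := by
    have h1 := T.dim_lt hp.1.1 hp.1.2
    have h2 := hA.vert p hp.2
    omega
  obtain ⟨⟨a, ha, ha0, ha1⟩, ⟨b, hb, hb1, hb0⟩⟩ := sides_bd hA hR hp.1 hp.2 hdp
  have hcard := dim_eq_card hl hcc hoc
  rw [hd] at hcard
  let e : Fin 2 ≃ {j : Fin 3 // l j ≠ h j} := (Fintype.equivFinOfCardEq hcard.symm).symm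
  have hbd : ∀ {y}, y ∈ T.cc x \ T.oc x ↔ y ∈ zcl l h \ zop l h := by
    intro y; rw [hcc, hoc]
  have hcl : ∀ R : Set E3, IsClosed R → IsClosed {y | y ∈ bb (lo l h e) (hi l h e) ∧
      emb l h e y ∈ R} := fun R hR =>
    (isClosed_bb _ _).inter (hR.preimage (emb l h e).continuous_of_finiteDimensional)
  have hSu := hR.union
  have hSi := hR.inter
  have hne : ∀ R : Set E3, ∀ a ∈ T.cc x \ T.oc x, a ∈ R → a ∉ S →
      {y | y ∈ bb (lo l h e) (hi l h e) ∧ emb l h e y ∈ R} ≠ {prj l h e p, prj l h e q} := by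
    intro R a ha haR haS heq
    have h1 : prj l h e a ∈ {y | y ∈ bb (lo l h e) (hi l h e) ∧ emb l h e y ∈ R} := by
      refine ⟨prj_mem_bb e hl (hbd.1 ha), ?_⟩
      rw [emb_prj l h e (hbd.1 ha).1]; exact haR
    rw [heq] at h1
    rcases h1 with h1 | h1
    · have h2 := congrArg (emb l h e) h1
      rw [emb_prj l h e (hbd.1 ha).1, emb_prj l h e (hbd.1 hp.1).1] at h2
      exact haS (h2 ▸ hp.2)
    · have h2 := congrArg (emb l h e) h1
      rw [emb_prj l h e (hbd.1 ha).1, emb_prj l h e (hbd.1 hq.1).1] at h2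
      exact haS (h2 ▸ hq.2)
  obtain ⟨th', h0, h1⟩ := h3 (lo l h e) (hi l h e)
    (fun j => by have := one_le_hi_sub_lo e hl j; linarith)
    (prj l h e p) (prj l h e q)
    (fun h4 => hpq (by
      have h5 := congrArg (emb l h e) h4
      rwa [emb_prj l h e (hbd.1 hp.1).1, emb_prj l h e (hbd.1 hq.1).1] at h5))
    {y | y ∈ bb (lo l h e) (hi l h e) ∧ emb l h e y ∈ R0}
    {y | y ∈ bb (lo l h e) (hi l h e) ∧ emb l h e y ∈ R1}
    (hcl R0 hR.cpt.isClosed) (hcl R1 hR.closed1)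
    (by
      ext y
      constructor
      · rintro (h | h) <;> exact h.1
      · intro hy
        have h6 : emb l h e y ∈ R0 ∪ R1 := by rw [hSu]; exact mem_univ _
        rcases h6 with h6 | h6
        · exact Or.inl ⟨hy, h6⟩
        · exact Or.inr ⟨hy, h6⟩)
    (by
      ext y
      constructor
      · rintro ⟨⟨h6, h7⟩, -, h8⟩
        have h9 : emb l h e y ∈ S := by rw [← hSi]; exact ⟨h7, h8⟩
        have h10 : emb l h e y ∈ (T.cc x \ T.oc x) ∩ S := ⟨hbd.2 ((emb_mem_bd e hl).2 h6), h9⟩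
        rw [hS] at h10
        rcases h10 with h10 | h10
        · left
          rw [← h10, prj_emb]
        · right
          rw [mem_singleton_iff, ← h10, prj_emb]
      · have h11 : ∀ r, r ∈ (T.cc x \ T.oc x) ∩ S → prj l h e r ∈
            {y | y ∈ bb (lo l h e) (hi l h e) ∧ emb l h e y ∈ R0} ∩
            {y | y ∈ bb (lo l h e) (hi l h e) ∧ emb l h e y ∈ R1} := by
          intro r hr
          have h12 := prj_mem_bb e hl (hbd.1 hr.1)
          refine ⟨⟨h12, ?_⟩, h12, ?_⟩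
          · rw [emb_prj l h e (hbd.1 hr.1).1]; exact (S_sub hR).1 hr.2
          · rw [emb_prj l h e (hbd.1 hr.1).1]; exact (S_sub hR).2 hr.2
        rintro (rfl | rfl)
        · exact h11 p hp
        · exact h11 q hq)
    (hne R0 a ha ha0 (fun h => ha1 ((S_sub hR).2 h)))
    (hne R1 b hb hb1 (fun h => hb0 ((S_sub hR).1 h)))
  exact th_of_chart two_pos hl e hcc hoc th' h0 h1

end Cells

end Crest.Agent.R096.Gp_702
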