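import Crest.Agent.R096.Lab5_184

/-!
# R096 (row 96), P2-GEN, N4 (helper451): labels and sides of a conical set

`Con T S ctr` : a compact set `S` which meets every cell of the tiling `T` of the whole space in a
cone with apex `ctr z` over its trace on the relative boundary, misses the vertices and meets the
relative boundary of a 2-cell in two points.  Then the vertices have labels in `ZMod 2` which change
exactly along the 1-cells meeting `S`, and `S` has two closed sides `sd 0`, `sd 1`, which are conical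
too.
-/

set_option autoImplicit false

open Set Topology Filter Metric Module

namespace Crest.Agent.R096.Gq_451

open Crest.Agent.R096.Msh_715 Crest.Agent.R096.Coh_184

variable {E : Type*} [NormedAddCommGroup E] [NormedSpace ℝ E]
variable {Om : Set E} {ι : Type*} {T : Tiling Om ι}

/-- rays from a point of the open cell stay in the open cell until they leave -/
theorem ray_oc {z c y : E} (hz : z ∈ Om) (hc : c ∈ T.oc z) (hy : y ∈ T.cc z) {t : ℝ} (h0 : 0 ≤ t)
    (h1 : t < 1) : c + t • (y - c) ∈ T.oc z := by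
  have h2 := T.move_mem_oc (x := c) (y := y) (by rw [T.cc_eq_of_mem_oc hz hc]; exact hy)
    (s := 1 - t) (by linarith) (by linarith)
  rw [T.oc_eq_of_mem hz hc] at h2
  have : y + (1 - t) • (c - y) = c + t • (y - c) := by
    rw [sub_smul, one_smul]; rw [smul_sub, smul_sub]; abel
  rwa [this] at h2

/-- every point of a closed cell lies on a ray from `c` to the relative boundary -/
theorem ray_exists {z c w : E} (hz : z ∈ Om) (hc : c ∈ T.oc z) (hw : w ∈ T.cc z) (hne : w ≠ c) :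
    ∃ y ∈ T.cc z \ T.oc z, ∃ t : ℝ, 0 < t ∧ t ≤ 1 ∧ w = c + t • (y - c) ∧ (w ∈ T.oc z → t < 1) := by
  have hcO : c ∈ Om := T.cc_sub_Om hz (T.oc_sub_cc z hc)
  have hv : w - c ∈ T.V c := T.sub_mem_V (by rw [T.cc_eq_of_mem_oc hz hc]; exact hw)
  obtain ⟨t, ht0, h1, h2, h3⟩ := T.exists_exit hcO hv (sub_ne_zero.2 hne)
  rw [T.cc_eq_of_mem_oc hz hc] at h1
  rw [T.oc_eq_of_mem hz hc] at h2 h3
  have ht1 : 1 ≤ t := by
    by_contra hlt
    push Not at hlt
    exact h2 (ray_oc hz hc hw ht0.le hlt)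
  have hw' : w = c + t⁻¹ • (c + t • (w - c) - c) := by
    rw [add_sub_cancel_left, smul_smul, inv_mul_cancel₀ ht0.ne', one_smul]; abel
  refine ⟨_, ⟨h1, h2⟩, t⁻¹, by positivity, inv_le_one_of_one_le₀ ht1, hw', fun hoc => ?_⟩
  rcases eq_or_lt_of_le ht1 with e | e
  · rw [← e, one_smul, add_sub_cancel] at h2
    exact (h2 hoc).elim
  · exact inv_lt_one_of_one_lt₀ e

/-- the ray and the position on it are unique -/
theorem ray_unique {z c y y' : E} (hz : z ∈ Om) (hc : c ∈ T.oc z) (hy : y ∈ T.cc z \ T.oc z)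
    (hy' : y' ∈ T.cc z \ T.oc z) {t t' : ℝ} (h0 : 0 < t) (h0' : 0 < t')
    (h : c + t • (y - c) = c + t' • (y' - c)) : t = t' ∧ y = y' := by
  have h1 : t • (y - c) = t' • (y' - c) := add_left_cancel h
  have key : ∀ {y y' : E} {t t' : ℝ}, y ∈ T.cc z \ T.oc z → y' ∈ T.cc z \ T.oc z → 0 < t → 0 < t' →
      t • (y - c) = t' • (y' - c) → ¬ t < t' := by
    intro y y' t t' hy hy' h0 h0' h1 hlt
    apply hy'.2
    have h2 : y' - c = (t / t') • (y - c) := by
      rw [div_eq_inv_mul, mul_smul, h1, smul_smul, inv_mul_cancel₀ h0'.ne', one_smul]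
    have h3 : y' = c + (t / t') • (y - c) := by rw [← h2]; abel
    rw [h3]
    exact ray_oc hz hc hy.1 (by positivity) ((div_lt_one h0').2 hlt)
  have ht : t = t' := le_antisymm (not_lt.1 (key hy' hy h0' h0 h1.symm)) (not_lt.1 (key hy hy' h0 h0' h1))
  subst ht
  refine ⟨rfl, ?_⟩
  have h2 : y - c = y' - c := by
    have := congrArg (fun v => t⁻¹ • v) h1
    simpa [smul_smul, inv_mul_cancel₀ h0.ne'] using this
  exact sub_left_injective h2

/-! ### conical sets and their labels -/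

/-- a compact set which is conical with respect to a tiling of the whole space -/
structure Con {ι : Type*} (T : Tiling (univ : Set E) ι) (S : Set E) (ctr : E → E) : Prop where
  cpt : IsCompact S
  mem : ∀ z, (T.cc z ∩ S).Nonempty → ctr z ∈ T.oc z
  on : ∀ z, (T.cc z ∩ S).Nonempty → ctr z ∈ S
  cell : ∀ z w, w ∈ T.oc z → ctr w = ctr z
  cone : ∀ z, (T.cc z ∩ S).Nonempty → ∀ y ∈ T.cc z \ T.oc z, ∀ t : ℝ, 0 < t → t ≤ 1 →
    (ctr z + t • (y - ctr z) ∈ S ↔ y ∈ S)
  vert : ∀ v, T.dim v = 0 → v ∉ S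
  two : ∀ z, T.dim z = 2 → (T.cc z ∩ S).Nonempty → ((T.cc z \ T.oc z) ∩ S).ncard = 2
  bdn : ∀ z, 2 ≤ T.dim z → (T.cc z ∩ S).Nonempty → ((T.cc z \ T.oc z) ∩ S).Nonempty

section labels

variable [FiniteDimensional ℝ E] {ι : Type*} {T : Tiling (univ : Set E) ι} {S : Set E} {ctr : E → E}

/-- a point of `S` in a closed 1-cell is the centre -/
theorem Con.eq_ctr (h : Con T S ctr) {z w : E} (hz : T.dim z = 1) (hw : w ∈ T.cc z) (hwS : w ∈ S) :
    w = ctr z := by
  by_contra hne
  have hm : (T.cc z ∩ S).Nonempty := ⟨w, hw, hwS⟩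
  obtain ⟨y, hy, t, h0, h1, e, -⟩ := ray_exists (mem_univ z) (h.mem z hm) hw hne
  have hyS : y ∈ S := (h.cone z hm y hy t h0 h1).1 (e ▸ hwS)
  have := T.dim_lt hy.1 hy.2
  exact h.vert y (by omega) hyS

theorem Con.finite1 (h : Con T S ctr) : {w | w ∈ S ∧ T.dim w = 1}.Finite := by
  have h1 := T.finite_cells h.cpt (subset_univ S)
  refine Set.Finite.of_finite_image (f := T.cc) (h1.subset ?_) ?_
  · rintro _ ⟨w, ⟨hw, -⟩, rfl⟩
    exact ⟨⟨w, mem_univ w, rfl⟩, w, T.self_mem_cc w, hw⟩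
  · rintro w ⟨hw, hw1⟩ w' ⟨hw', hw1'⟩ e
    have e1 := h.eq_ctr hw1 (T.self_mem_cc w) hw
    have e2 := h.eq_ctr hw1' (T.self_mem_cc w') hw'
    have h2 : w' ∈ T.oc w := (T.cc_eq_iff (mem_univ w)).1 (by exact e.symm)
    rw [e1, e2, h.cell w w' h2]

/-- the points of `S` on the 1-cells -/
noncomputable def Con.Q (h : Con T S ctr) : Finset E := h.finite1.toFinset

theorem Con.mem_Q (h : Con T S ctr) {w : E} : w ∈ h.Q ↔ w ∈ S ∧ T.dim w = 1 := by
  simp [Con.Q]

theorem Con.evPat (h : Con T S ctr) : Lab_184.EvPat T h.Q := by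
  refine ⟨fun w hw => ⟨mem_univ w, (h.mem_Q.1 hw).2⟩, fun x _ hd => ?_⟩
  by_cases hm : (T.cc x ∩ S).Nonempty
  · have : ((h.Q : Set E) ∩ T.cc x) = (T.cc x \ T.oc x) ∩ S := by
      ext w
      simp only [mem_inter_iff, Finset.mem_coe, h.mem_Q, Set.mem_sdiff]
      constructor
      · rintro ⟨⟨h1, h2⟩, h3⟩
        exact ⟨⟨h3, fun h4 => by have := T.dim_eq_of_mem_oc (mem_univ x) h4; omega⟩, h1⟩
      · rintro ⟨⟨h1, h2⟩, h3⟩
        refine ⟨⟨h3, ?_⟩, h1⟩
        have h4 := T.dim_lt h1 h2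
        have h5 : T.dim w ≠ 0 := fun h5 => h.vert w h5 h3
        omega
    rw [this, h.two x hd hm]
    exact even_two
  · have : ((h.Q : Set E) ∩ T.cc x) = ∅ := by
      rw [Set.eq_empty_iff_forall_notMem]
      rintro w ⟨h1, h2⟩
      exact hm ⟨w, h2, (h.mem_Q.1 h1).1⟩
    rw [this, ncard_empty]
    exact Even.zero

/-- **labels** of a conical set -/
theorem Con.exists_labels (h : Con T S ctr) (h3 : finrank ℝ E = 3) :
    ∃ (lam : E → ZMod 2) (D : Set E), IsCompact D ∧ (∀ v ∉ D, lam v = 0) ∧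
      (∀ q, (P (T.H q) ∩ S).Nonempty → P (T.H q) ⊆ D) ∧
      (∀ q, ¬ P (T.H q) ⊆ D → ∀ v ∈ P (T.H q), lam v = 0) ∧
      ∀ e, T.dim e = 1 → ∀ a b, T.cc e = segment ℝ a b → (lam a ≠ lam b ↔ (T.cc e ∩ S).Nonempty) := by
  have hfin := T.finite_tiles h.cpt (subset_univ S)
  have hK : IsCompact (⋃ i ∈ {i | (P (T.H i) ∩ S).Nonempty}, P (T.H i)) :=
    hfin.isCompact_biUnion fun i _ => T.cpt i
  obtain ⟨r, hr⟩ := hK.isBounded.subset_ball_lt 0 0
  obtain ⟨hr0, hr⟩ := hr
  have hint : interior (closedBall (0 : E) r) = ball 0 r := interior_closedBall _ hr0.ne'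
  have : ProperSpace E := FiniteDimensional.proper ℝ E
  have hne : (interior (closedBall (0 : E) r)).Nonempty := by
    rw [hint]; exact ⟨0, mem_ball_self hr0⟩
  have hfr := Lab_184.isPreconnected_frontier h3 (isCompact_closedBall (0 : E) r)
    (convex_closedBall _ _) hne
  have ht : TrivF (ZMod 2) (closedBall (0 : E) r) := by
    have := Lab_184.trivF_convex (A := ZMod 2) (isCompact_closedBall (0 : E) r)
      (convex_closedBall _ _) (g := id) continuousOn_id (injOn_id _)
    rwa [image_id] at this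
  have hsup : ∀ q, (P (T.H q) ∩ S).Nonempty → P (T.H q) ⊆ interior (closedBall (0 : E) r) := by
    intro q hq
    rw [hint]
    exact (subset_biUnion_of_mem (u := fun i => P (T.H i)) hq).trans hr
  obtain ⟨lam, h1, h2, h4⟩ := Lab_184.labels h3 h.evPat (isCompact_closedBall (0 : E) r)
    (subset_univ _) hfr ht (fun w hw q hq => hsup q ⟨w, hq, (h.mem_Q.1 hw).1⟩)
  refine ⟨lam, closedBall 0 r, isCompact_closedBall _ _, h1,
    fun q hq => (hsup q hq).trans interior_subset,
    fun q hq => h2 q fun h' => hq (h'.trans interior_subset), fun e he a b hab => ?_⟩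
  have h5 := h4 e (mem_univ e) he a b hab
  by_cases hm : (T.cc e ∩ S).Nonempty
  · have : ((h.Q : Set E) ∩ T.cc e) = {ctr e} := by
      ext w
      simp only [mem_inter_iff, Finset.mem_coe, h.mem_Q, mem_singleton_iff]
      constructor
      · rintro ⟨⟨h6, -⟩, h7⟩
        exact h.eq_ctr he h7 h6
      · rintro rfl
        have h8 := h.mem e hm
        exact ⟨⟨h.on e hm, by rw [T.dim_eq_of_mem_oc (mem_univ e) h8]; exact he⟩,
          T.oc_sub_cc e h8⟩
    rw [this, ncard_singleton] at h5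
    simp only [hm, iff_true]
    intro h6
    rw [h6] at h5
    have : ∀ a : ZMod 2, a + a ≠ ((1 : ℕ) : ZMod 2) := by decide
    exact this _ h5
  · have : ((h.Q : Set E) ∩ T.cc e) = ∅ := by
      rw [Set.eq_empty_iff_forall_notMem]
      rintro w ⟨h1, h2⟩
      exact hm ⟨w, h2, (h.mem_Q.1 h1).1⟩
    rw [this, ncard_empty] at h5
    simp only [hm, iff_false, not_not]
    have : ∀ a b : ZMod 2, a + b = ((0 : ℕ) : ZMod 2) → a = b := by decide
    exact this _ _ h5

end labels

end Crest.Agent.R096.Gq_451
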