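import Crest.Agent.R096.Gq1_451

/-!
# R096 (row 96), P2-GEN, N4 (helper451), part 2: the two closed sides of a conical set
-/

set_option autoImplicit false

open Set Topology Filter Metric Module

namespace Crest.Agent.R096.Gq_451

open Crest.Agent.R096.Msh_715 Crest.Agent.R096.Coh_184

variable {E : Type*} [NormedAddCommGroup E] [NormedSpace ℝ E]
variable {ι : Type*} {T : Tiling (univ : Set E) ι} {S : Set E} {ctr : E → E}

/-- `v` is a vertex label function of the conical set `S` -/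
def IsLb (T : Tiling (univ : Set E) ι) (S : Set E) (lam : E → ZMod 2) : Prop :=
  ∀ e, T.dim e = 1 → ∀ a b, T.cc e = segment ℝ a b → (lam a ≠ lam b ↔ (T.cc e ∩ S).Nonempty)

/-- the closed side `i` -/
inductive Sd (T : Tiling (univ : Set E) ι) (S : Set E) (ctr : E → E) (lam : E → ZMod 2)
    (i : ZMod 2) : E → Prop
  | base (x v : E) : T.cc x ∩ S = ∅ → v ∈ T.cc x → T.dim v = 0 → lam v = i → Sd T S ctr lam i x
  | ctr (z : E) : (T.cc z ∩ S).Nonempty → Sd T S ctr lam i (ctr z)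
  | cone (z y : E) (t : ℝ) : (T.cc z ∩ S).Nonempty → y ∈ T.cc z \ T.oc z →
      Sd T S ctr lam i y → 0 < t → t < 1 → Sd T S ctr lam i (ctr z + t • (y - ctr z))

/-- the closed side `i`, as a set -/
def sd (T : Tiling (univ : Set E) ι) (S : Set E) (ctr : E → E) (lam : E → ZMod 2)
    (i : ZMod 2) : Set E := {x | Sd T S ctr lam i x}

variable [FiniteDimensional ℝ E] {lam : E → ZMod 2}

/-- labels are constant on the cells which miss `S` -/
theorem IsLb.const (hl : IsLb T S lam) {x v w : E} (hx : T.cc x ∩ S = ∅) (hv : v ∈ T.cc x)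
    (hw : w ∈ T.cc x) (hv0 : T.dim v = 0) (hw0 : T.dim w = 0) : lam v = lam w := by
  refine T.const_cell (mem_univ x) (φ := lam) (fun e he h1 a b hab => ?_) v hv w hw hv0 hw0
  have h2 := hl e h1 a b hab
  by_contra hne
  obtain ⟨y, hy, hyS⟩ := h2.1 hne
  have : y ∈ T.cc x ∩ S := ⟨T.cc_sub_of_mem he hy, hyS⟩
  rw [hx] at this; exact this

/-- inversion: on a cell which misses `S` -/
theorem Con.sd_base (h : Con T S ctr) (hl : IsLb T S lam) {i : ZMod 2} {x v : E}
    (hx : T.cc x ∩ S = ∅) (hv : v ∈ T.cc x) (hv0 : T.dim v = 0) :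
    Sd T S ctr lam i x ↔ lam v = i := by
  refine ⟨fun hs => ?_, fun hs => Sd.base x v hx hv hv0 hs⟩
  cases hs with
  | base _ v' h1 h2 h3 h4 => rw [← h4]; exact hl.const hx hv h2 hv0 h3
  | ctr z hz =>
    have : ctr z ∈ T.cc (ctr z) ∩ S := ⟨T.self_mem_cc _, h.on z hz⟩
    rw [hx] at this; exact this.elim
  | cone z y t hz hy hs h0 h1 =>
    exfalso
    have h2 : ctr z + t • (y - ctr z) ∈ T.oc z := ray_oc (mem_univ z) (h.mem z hz) hy.1 h0.le h1
    rw [T.cc_eq_of_mem_oc (mem_univ z) h2] at hx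
    obtain ⟨w, hw⟩ := hz
    rw [hx] at hw; exact hw

/-- inversion: on a cell which meets `S` -/
theorem Con.sd_cone (h : Con T S ctr) {i : ZMod 2} {z y : E} {t : ℝ}
    (hz : (T.cc z ∩ S).Nonempty) (hy : y ∈ T.cc z \ T.oc z) (h0 : 0 < t) (h1 : t ≤ 1) :
    Sd T S ctr lam i (ctr z + t • (y - ctr z)) ↔ Sd T S ctr lam i y := by
  rcases eq_or_lt_of_le h1 with rfl | h1
  · rw [one_smul, add_sub_cancel]
  refine ⟨fun hs => ?_, fun hs => Sd.cone z y t hz hy hs h0 h1⟩
  have h2 : ctr z + t • (y - ctr z) ∈ T.oc z := ray_oc (mem_univ z) (h.mem z hz) hy.1 h0.le h1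
  have hne : ctr z + t • (y - ctr z) ≠ ctr z := by
    intro e
    have h3 : t • (y - ctr z) = 0 := by simpa using e
    rcases smul_eq_zero.1 h3 with h4 | h4
    · exact h0.ne' h4
    · apply hy.2
      rw [sub_eq_zero.1 h4]; exact h.mem z hz
  generalize hx : ctr z + t • (y - ctr z) = x at hs h2 hne
  cases hs with
  | base _ v' a1 a2 a3 a4 =>
    rw [T.cc_eq_of_mem_oc (mem_univ z) h2] at a1
    obtain ⟨w, hw⟩ := hz
    rw [a1] at hw; exact hw.elim
  | ctr z' hz' =>
    exfalso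
    have h3 := h.mem z' hz'
    have e1 := h.cell z (ctr z') h2
    have e2 := h.cell z' (ctr z') h3
    exact hne (e2.symm.trans e1 ▸ rfl)
  | cone z' y' t' hz' hy' hs' h0' h1' =>
    have h3 : ctr z' + t' • (y' - ctr z') ∈ T.oc z' :=
      ray_oc (mem_univ z') (h.mem z' hz') hy'.1 h0'.le h1'
    have e0 : ctr z' = ctr z := (h.cell z' _ h3).symm.trans (h.cell z _ h2)
    have e3 : T.oc z' = T.oc z := by
      rw [← T.oc_eq_of_mem (mem_univ z') h3, T.oc_eq_of_mem (mem_univ z) h2]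
    have e4 : T.cc z' = T.cc z := by
      rw [← T.cc_eq_of_mem_oc (mem_univ z') h3, T.cc_eq_of_mem_oc (mem_univ z) h2]
    rw [e0] at hx
    rw [e3, e4] at hy'
    obtain ⟨-, e5⟩ := ray_unique (mem_univ z) (h.mem z hz) hy hy' h0 h0' hx
    rw [e5]; exact hs'

/-- the description of the points by rays -/
theorem Con.ray (h : Con T S ctr) {x : E} (hx : (T.cc x ∩ S).Nonempty) :
    x = ctr x ∨ ∃ y ∈ T.cc x \ T.oc x, ∃ t : ℝ, 0 < t ∧ t < 1 ∧ x = ctr x + t • (y - ctr x) := by
  by_cases hne : x = ctr x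
  · exact Or.inl hne
  · obtain ⟨y, hy, t, h0, h1, e, h2⟩ := ray_exists (mem_univ x) (h.mem x hx) (T.self_mem_cc x) hne
    exact Or.inr ⟨y, hy, t, h0, h2 (T.self_mem_oc x), e⟩

theorem Con.sub_sd (h : Con T S ctr) (i : ZMod 2) : S ⊆ sd T S ctr lam i := by
  intro x
  induction hd : T.dim x using Nat.strong_induction_on generalizing x with
  | _ d ih =>
    intro hx
    have hm : (T.cc x ∩ S).Nonempty := ⟨x, T.self_mem_cc x, hx⟩
    rcases h.ray hm with e | ⟨y, hy, t, h0, h1, e⟩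
    · rw [e]; exact Sd.ctr x hm
    · have hyS : y ∈ S := (h.cone x hm y hy t h0 h1.le).1 (e ▸ hx)
      have hlt := T.dim_lt hy.1 hy.2
      have h2 : Sd T S ctr lam i y := ih _ (hd ▸ hlt) rfl hyS
      show Sd T S ctr lam i x
      rw [e]
      exact Sd.cone x y t hm hy h2 h0 h1

theorem Con.cover (h : Con T S ctr) (lam : E → ZMod 2) (x : E) :
    x ∈ sd T S ctr lam 0 ∨ x ∈ sd T S ctr lam 1 := by
  induction hd : T.dim x using Nat.strong_induction_on generalizing x with
  | _ d ih =>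
    by_cases hm : (T.cc x ∩ S).Nonempty
    · rcases h.ray hm with e | ⟨y, hy, t, h0, h1, e⟩
      · left; rw [e]; exact Sd.ctr x hm
      · have hlt := T.dim_lt hy.1 hy.2
        rcases ih _ (hd ▸ hlt) y rfl with h2 | h2
        · left; show Sd T S ctr lam 0 x; rw [e]; exact Sd.cone x y t hm hy h2 h0 h1
        · right; show Sd T S ctr lam 1 x; rw [e]; exact Sd.cone x y t hm hy h2 h0 h1
    · rw [not_nonempty_iff_eq_empty] at hm
      obtain ⟨v, hv, hv0⟩ := T.exists_vertex (mem_univ x)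
      have : ∀ a : ZMod 2, a = 0 ∨ a = 1 := by decide
      rcases this (lam v) with e | e
      · left; exact Sd.base x v hm hv hv0 e
      · right; exact Sd.base x v hm hv hv0 e

theorem Con.inter (h : Con T S ctr) (hl : IsLb T S lam) :
    sd T S ctr lam 0 ∩ sd T S ctr lam 1 = S := by
  apply Subset.antisymm
  · intro x
    induction hd : T.dim x using Nat.strong_induction_on generalizing x with
    | _ d ih =>
      rintro ⟨hx0, hx1⟩
      by_cases hm : (T.cc x ∩ S).Nonempty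
      · rcases h.ray hm with e | ⟨y, hy, t, h0, h1, e⟩
        · rw [e]; exact h.on x hm
        · have hlt := T.dim_lt hy.1 hy.2
          have h2 : y ∈ S := ih _ (hd ▸ hlt) rfl
            ⟨(h.sd_cone hm hy h0 h1.le).1 (e ▸ hx0), (h.sd_cone hm hy h0 h1.le).1 (e ▸ hx1)⟩
          rw [e]; exact (h.cone x hm y hy t h0 h1.le).2 h2
      · rw [not_nonempty_iff_eq_empty] at hm
        obtain ⟨v, hv, hv0⟩ := T.exists_vertex (mem_univ x)
        have e0 := (h.sd_base hl hm hv hv0).1 hx0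
        have e1 := (h.sd_base hl hm hv hv0).1 hx1
        rw [e0] at e1
        exact absurd e1 (by decide)
  · exact fun x hx => ⟨h.sub_sd 0 hx, h.sub_sd 1 hx⟩

/-- a cell which misses `S` lies in one side -/
theorem Con.cell_sd (h : Con T S ctr) (hl : IsLb T S lam) {z v : E} (hz : T.cc z ∩ S = ∅)
    (hv : v ∈ T.cc z) (hv0 : T.dim v = 0) : T.cc z ⊆ sd T S ctr lam (lam v) := by
  intro x hx
  have hm : T.cc x ∩ S = ∅ := by
    apply subset_empty_iff.1
    rw [← hz]
    exact inter_subset_inter_left _ (T.cc_sub_of_mem hx)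
  obtain ⟨w, hw, hw0⟩ := T.exists_vertex (mem_univ x)
  exact Sd.base x w hm hw hw0 (hl.const hz (T.cc_sub_of_mem hx hw) hv hw0 hv0)

/-- the trace of a side on a cell which meets `S` is a cone -/
theorem Con.sd_inter (h : Con T S ctr) {i : ZMod 2} {z : E} (hz : (T.cc z ∩ S).Nonempty) :
    sd T S ctr lam i ∩ T.cc z = insert (ctr z)
      ((fun p : E × ℝ => ctr z + p.2 • (p.1 - ctr z)) ''
        ((sd T S ctr lam i ∩ (T.cc z \ T.oc z)) ×ˢ Icc 0 1)) := by
  ext x
  constructor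
  · rintro ⟨hx, hxz⟩
    by_cases hne : x = ctr z
    · exact Or.inl hne
    · obtain ⟨y, hy, t, h0, h1, e, -⟩ := ray_exists (mem_univ z) (h.mem z hz) hxz hne
      refine Or.inr ⟨(y, t), ⟨⟨?_, hy⟩, h0.le, h1⟩, e.symm⟩
      exact (h.sd_cone hz hy h0 h1).1 (e ▸ hx)
  · rintro (rfl | ⟨⟨y, t⟩, ⟨⟨hy1, hy2⟩, h0, h1⟩, rfl⟩)
    · exact ⟨Sd.ctr z hz, T.oc_sub_cc z (h.mem z hz)⟩
    · refine ⟨?_, ?_⟩
      · rcases eq_or_lt_of_le h0 with e | h0
        · simp only at e
          show Sd T S ctr lam i (ctr z + t • (y - ctr z))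
          rw [← e, zero_smul, add_zero]; exact Sd.ctr z hz
        · exact (h.sd_cone hz hy2 h0 h1).2 hy1
      · have hc := T.oc_sub_cc z (h.mem z hz)
        have := (T.convex_cc z) hc hy2.1 (a := 1 - t) (b := t) (by simp only at h1; linarith) h0
          (by ring)
        simp only
        have e : ctr z + t • (y - ctr z) = (1 - t) • ctr z + t • y := by
          rw [smul_sub, sub_smul, one_smul]; abel
        rw [e]; exact this

theorem finite_bdry (T : Tiling (univ : Set E) ι) (z : E) :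
    ∃ s : Set (Set E), s.Finite ∧ (∀ c ∈ s, ∃ w ∈ T.cc z \ T.oc z, c = T.cc w) ∧
      T.cc z \ T.oc z = ⋃₀ s := by
  refine ⟨{c | ∃ w ∈ T.cc z \ T.oc z, c = T.cc w}, ?_, fun c hc => hc, ?_⟩
  · refine (T.finite_below (mem_univ z)).subset ?_
    rintro c ⟨w, hw, rfl⟩
    exact ⟨⟨w, mem_univ w, rfl⟩, T.cc_sub_of_mem hw.1⟩
  · ext x
    constructor
    · intro hx
      exact ⟨T.cc x, ⟨x, hx, rfl⟩, T.self_mem_cc x⟩
    · rintro ⟨_, ⟨w, hw, rfl⟩, hx⟩
      refine ⟨T.cc_sub_of_mem hw.1 hx, fun hxo => ?_⟩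
      exact Set.disjoint_left.1 (T.disjoint_oc_cc (mem_univ z) hw.1 hw.2) hxo hx

theorem Con.isClosed_inter (h : Con T S ctr) (hl : IsLb T S lam) (i : ZMod 2) (z : E) :
    IsClosed (sd T S ctr lam i ∩ T.cc z) := by
  induction hd : T.dim z using Nat.strong_induction_on generalizing z with
  | _ d ih =>
    by_cases hm : (T.cc z ∩ S).Nonempty
    · rw [h.sd_inter hm]
      obtain ⟨s, hs, hs1, hs2⟩ := finite_bdry T z
      have hcl : IsCompact (sd T S ctr lam i ∩ (T.cc z \ T.oc z)) := by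
        have hsub : sd T S ctr lam i ∩ (T.cc z \ T.oc z) ⊆ T.cc z :=
          inter_subset_right.trans Set.sdiff_subset
        refine (T.isCompact_cc (mem_univ z)).of_isClosed_subset ?_ hsub
        rw [hs2, sUnion_eq_biUnion, inter_iUnion₂]
        refine hs.isClosed_biUnion fun c hc => ?_
        obtain ⟨w, hw, rfl⟩ := hs1 c hc
        exact ih _ (hd ▸ T.dim_lt hw.1 hw.2) w rfl
      have : IsCompact ((fun p : E × ℝ => ctr z + p.2 • (p.1 - ctr z)) ''
          ((sd T S ctr lam i ∩ (T.cc z \ T.oc z)) ×ˢ Icc 0 1)) :=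
        (hcl.prod isCompact_Icc).image (by fun_prop)
      exact (this.insert _).isClosed
    · rw [not_nonempty_iff_eq_empty] at hm
      obtain ⟨v, hv, hv0⟩ := T.exists_vertex (mem_univ z)
      by_cases hi : lam v = i
      · subst hi
        rw [inter_eq_right.2 (h.cell_sd hl hm hv hv0)]
        exact T.isClosed_cc z
      · have : sd T S ctr lam i ∩ T.cc z = ∅ := by
          rw [Set.eq_empty_iff_forall_notMem]
          rintro x ⟨hx1, hx2⟩
          have h1 := h.cell_sd hl hm hv hv0 hx2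
          have hmx : T.cc x ∩ S = ∅ := by
            apply subset_empty_iff.1
            rw [← hm]
            exact inter_subset_inter_left _ (T.cc_sub_of_mem hx2)
          obtain ⟨w, hw, hw0⟩ := T.exists_vertex (mem_univ x)
          exact hi (((h.sd_base hl hmx hw hw0).1 h1).symm.trans ((h.sd_base hl hmx hw hw0).1 hx1))
        rw [this]; exact isClosed_empty

theorem isClosed_of_cells (T : Tiling (univ : Set E) ι) {R : Set E}
    (hR : ∀ z, IsClosed (R ∩ T.cc z)) : IsClosed R := by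
  have : R = ⋃ q, (R ∩ P (T.H q)) := by
    rw [← inter_iUnion]
    apply (inter_eq_self_of_subset_left _).symm
    intro x _
    obtain ⟨q, hq⟩ := T.cov x (mem_univ x)
    exact mem_iUnion.2 ⟨q, hq⟩
  rw [this]
  refine LocallyFinite.isClosed_iUnion (fun x => ?_) (fun q => ?_)
  · obtain ⟨r, hr, hf⟩ := T.lf x (mem_univ x)
    refine ⟨ball x r, ball_mem_nhds x hr, hf.subset fun q hq => ?_⟩
    obtain ⟨y, hy1, hy2⟩ := hq
    exact ⟨y, hy1.2, hy2⟩
  · obtain ⟨z, hz⟩ := T.ne q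
    rw [← T.cc_eq_tile hz]
    exact hR z

/-- the sides are closed -/
theorem Con.isClosed_sd (h : Con T S ctr) (hl : IsLb T S lam) (i : ZMod 2) :
    IsClosed (sd T S ctr lam i) := isClosed_of_cells T (h.isClosed_inter hl i)

/-- a cell which meets `S` has vertices of both labels -/
theorem Con.exists_vertex (h : Con T S ctr) (hl : IsLb T S lam) (i : ZMod 2) {z : E}
    (hz : (T.cc z ∩ S).Nonempty) : ∃ v ∈ T.cc z, T.dim v = 0 ∧ lam v = i := by
  induction hd : T.dim z using Nat.strong_induction_on generalizing z with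
  | _ d ih =>
    rcases Nat.lt_or_ge d 2 with h2 | h2
    · have h0 : T.dim z ≠ 0 := by
        intro h0
        obtain ⟨w, hw, hwS⟩ := hz
        rw [T.cc_eq_singleton (T.dim_eq_zero_iff.1 h0), mem_singleton_iff] at hw
        exact h.vert z h0 (hw ▸ hwS)
      have h1 : T.dim z = 1 := by omega
      obtain ⟨a, b, hne, e1, e2, ha, hb, hae, hbe⟩ := T.edge_eq (mem_univ z) h1
      have h3 := (hl z h1 a b e1).2 hz
      by_cases hi : lam a = i
      · exact ⟨a, hae, ha, hi⟩
      · refine ⟨b, hbe, hb, ?_⟩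
        have : ∀ x y i : ZMod 2, x ≠ y → x ≠ i → y = i := by decide
        exact this _ _ _ h3 hi
    · obtain ⟨w, hw, hwS⟩ := h.bdn z (hd ▸ h2) hz
      obtain ⟨v, hv, hv0, hvi⟩ := ih _ (hd ▸ T.dim_lt hw.1 hw.2) (z := w)
        ⟨w, T.self_mem_cc w, hwS⟩ rfl
      exact ⟨v, T.cc_sub_of_mem hw.1 hv, hv0, hvi⟩

/-- both sides appear on the relative boundary, off `S` -/
theorem Con.bdry_sd (h : Con T S ctr) (hl : IsLb T S lam) (i : ZMod 2) {z : E}
    (hz : (T.cc z ∩ S).Nonempty) : ((sd T S ctr lam i ∩ (T.cc z \ T.oc z)) \ S).Nonempty := by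
  obtain ⟨v, hv, hv0, hvi⟩ := h.exists_vertex hl i hz
  have hvS : T.cc v ∩ S = ∅ := by
    rw [T.cc_eq_singleton (T.dim_eq_zero_iff.1 hv0)]
    exact singleton_inter_eq_empty.2 (h.vert v hv0)
  have hoc : v ∉ T.oc z := by
    intro hvo
    rw [← T.cc_eq_of_mem_oc (mem_univ z) hvo] at hz
    rw [hvS] at hz
    exact not_nonempty_empty hz
  exact ⟨v, ⟨Sd.base v v hvS (T.self_mem_cc v) hv0 hvi, hv, hoc⟩, h.vert v hv0⟩

/-- the side of a nonzero label is bounded -/
theorem Con.sd_sub (h : Con T S ctr) {D : Set E}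
    (h1 : ∀ q, (P (T.H q) ∩ S).Nonempty → P (T.H q) ⊆ D)
    (h2 : ∀ q, ¬ P (T.H q) ⊆ D → ∀ v ∈ P (T.H q), lam v = 0) : sd T S ctr lam 1 ⊆ D := by
  intro x hx
  obtain ⟨q, hq⟩ := T.cov x (mem_univ x)
  by_cases hm : (T.cc x ∩ S).Nonempty
  · obtain ⟨w, hw, hwS⟩ := hm
    exact h1 q ⟨w, T.cc_sub_tile hq hw, hwS⟩ hq
  · by_contra hxD
    rw [not_nonempty_iff_eq_empty] at hm
    cases hx with
    | base _ v a1 a2 a3 a4 =>
      have := h2 q (fun hs => hxD (hs hq)) v (T.cc_sub_tile hq a2)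
      rw [this] at a4
      exact absurd a4 (by decide)
    | ctr z hz =>
      have : ctr z ∈ T.cc (ctr z) ∩ S := ⟨T.self_mem_cc _, h.on z hz⟩
      rw [hm] at this; exact this.elim
    | cone z y t hz hy hs h0 h1 =>
      have h3 : ctr z + t • (y - ctr z) ∈ T.oc z := ray_oc (mem_univ z) (h.mem z hz) hy.1 h0.le h1
      rw [T.cc_eq_of_mem_oc (mem_univ z) h3] at hm
      obtain ⟨w, hw⟩ := hz
      rw [hm] at hw; exact hw.elim

end Crest.Agent.R096.Gq_451
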