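import Crest.Agent.R096.Ac10_117

/-!
# R096 (row 96), ARR (D2), part 1: the run of the deeper closed cycle as a connected set (helper117)
-/

set_option autoImplicit false

open Set

namespace Crest.Agent.R096.Ac_117

variable {Q Z L : Type*} {A : Arr Q Z L} {X : Type*} [TopologicalSpace X]

/-- a picture of an arrangement: every piece is a preconnected set which contains the points of its
two ends -/
structure Pic (A : Arr Q Z L) (X : Type*) [TopologicalSpace X] where
  cu : Q → Set X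
  vz : Z → X
  vl : L → X
  pre : ∀ p, IsPreconnected (cu p)
  mz : ∀ z c j, vz z ∈ cu (A.pc z c j)
  ml : ∀ l i, vl l ∈ cu (A.lp l i)

namespace Pic

variable (G : Pic A X)

/-- the point of an end -/
def pnt : Drt Z L → X
  | Sum.inl (z, _, _) => G.vz z
  | Sum.inr (l, _) => G.vl l

lemma pnt_mem (d : Drt Z L) : G.pnt d ∈ G.cu (A.pce d) := by
  rcases d with ⟨z, c, j⟩ | ⟨l, i⟩
  · exact G.mz z c j
  · exact G.ml l i

lemma pnt_nx (d : Drt Z L) : G.pnt (Arr.nx d) = G.pnt d := by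
  rcases d with ⟨z, c, j⟩ | ⟨l, i⟩ <;> rfl

end Pic

/-- **the run of the deeper cycle is connected**: the two double points `z`, `arc z` lie in one
preconnected set of pieces of the deeper cycle inside the shallower one -/
theorem Dep.run_conn (E : Dep A) (G : Pic A X) [Finite Z] [Finite L] (z : Z) {Y : Set X}
    (hY : ∀ p, E.k p = E.dy z → (∀ i, E.I (E.sx z) p i = 1) → G.cu p ⊆ Y) :
    ∃ B ⊆ Y, IsPreconnected B ∧ G.vz z ∈ B ∧ G.vz (E.arc z) ∈ B := by
  have key : ∀ d ∈ E.run z, ∃ B ⊆ Y, IsPreconnected B ∧ G.vz z ∈ B ∧ G.pnt d ∈ B := by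
    refine cls_ind (P := fun d => ∃ B ⊆ Y, IsPreconnected B ∧ G.vz z ∈ B ∧ G.pnt d ∈ B) ?_ ?_ ?_
    · have h := E.run_prop _ (E.rd_mem z)
      exact ⟨G.cu (A.pce (E.rd z)), hY _ h.1 h.2, G.pre _, G.pnt_mem (E.rd z), G.pnt_mem (E.rd z)⟩
    · rintro d hd ⟨B, hB, hpre, hz, hp⟩
      have h := E.run_prop _ hd
      have h1 := G.pnt_mem (A.flip d)
      rw [A.pce_flip'] at h1
      exact ⟨B ∪ G.cu (A.pce d), union_subset hB (hY _ h.1 h.2),
        hpre.union (G.pnt d) hp (G.pnt_mem d) (G.pre _), Or.inl hz, Or.inr h1⟩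
    · rintro d hd ⟨B, hB, hpre, hz, hp⟩
      refine ⟨B, hB, hpre, hz, ?_⟩
      rcases E.nxx_eq_or (E.sx z) (E.dc z) d with h | h
      · rw [h]; exact hp
      · rw [h, G.pnt_nx]; exact hp
  exact key _ (E.arc_spec z).1

end Crest.Agent.R096.Ac_117
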