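import Crest.Agent.R096.Fx3_689

/-!
# R096 (row 96), ARR (D2), part 2: arcs of a face with the crossings of a chord diagram (helper117)

`GeoD D X`: every chord of the diagram `D` is a path `γ a` in `X`, with band functions `f b`: the
sign of `f b` at the ends of `γ a` is the side of the diagram, exactly one zero on `γ a` if the
chords cross, none otherwise.  Then the crossings occur along `γ a` in the order of the diagram, and
the sides of the sub-arcs are those of the diagram.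
-/

set_option autoImplicit false

open Set

namespace Crest.Agent.R096.Gr_117

open Crest.Agent.R096.Fx_689

/-- paths and band functions of a chord diagram -/
structure GeoD {C : Type*} (D : Dg C) (X : Type*) [TopologicalSpace X] where
  γ : C → ℝ → X
  f : C → X → ℝ
  contγ : ∀ a, ContinuousOn (γ a) (Icc 0 1)
  cont : ∀ a b, ContinuousOn (fun t => f b (γ a t)) (Icc 0 1)
  own : ∀ a, ∀ t ∈ Icc (0:ℝ) 1, f a (γ a t) = 0
  crs : ∀ a b, D.X a b → ∃ t ∈ Icc (0:ℝ) 1, f b (γ a t) = 0 ∧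
    ∀ t' ∈ Icc (0:ℝ) 1, f b (γ a t') = 0 → t' = t
  ncrs : ∀ a b, a ≠ b → ¬ D.X a b → ∀ t ∈ Icc (0:ℝ) 1, f b (γ a t) ≠ 0
  zer : ∀ a b, ∀ t ∈ Icc (0:ℝ) 1, f b (γ a t) = 0 → ∃ t' ∈ Icc (0:ℝ) 1, γ a t = γ b t'
  s0 : ∀ a b, a ≠ b → (D.inn b (D.lo a) = 1 → 0 < f b (γ a 0)) ∧
    (D.inn b (D.lo a) = 0 → f b (γ a 0) < 0)
  s1 : ∀ a b, a ≠ b → (D.inn b (D.hi a) = 1 → 0 < f b (γ a 1)) ∧
    (D.inn b (D.hi a) = 0 → f b (γ a 1) < 0)

namespace GeoD

variable {C : Type*} {D : Dg C} {X : Type*} [TopologicalSpace X] (G : GeoD D X)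

lemma z2 (a : ZMod 2) : a = 0 ∨ a = 1 := by revert a; decide

open Classical in
/-- parameter of the crossing with `b` on `a` -/
noncomputable def cr (a b : C) : ℝ := if h : D.X a b then (G.crs a b h).choose else 0

lemma cr_mem {a b : C} (h : D.X a b) : G.cr a b ∈ Icc (0:ℝ) 1 := by
  unfold cr
  rw [dif_pos h]
  exact (G.crs a b h).choose_spec.1

lemma cr_zero {a b : C} (h : D.X a b) : G.f b (G.γ a (G.cr a b)) = 0 := by
  unfold cr
  rw [dif_pos h]
  exact (G.crs a b h).choose_spec.2.1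

lemma cr_uniq {a b : C} (h : D.X a b) {t : ℝ} (ht : t ∈ Icc (0:ℝ) 1) (h0 : G.f b (G.γ a t) = 0) :
    t = G.cr a b := by
  unfold cr
  rw [dif_pos h]
  exact (G.crs a b h).choose_spec.2.2 t ht h0

/-- the crossing point -/
lemma cr_symm {a b : C} (h : D.X a b) : G.γ a (G.cr a b) = G.γ b (G.cr b a) := by
  obtain ⟨t', ht', e⟩ := G.zer a b _ (G.cr_mem h) (G.cr_zero h)
  have h1 : G.f a (G.γ b t') = 0 := by
    rw [← e]; exact G.own a _ (G.cr_mem h)
  rw [e, G.cr_uniq (D.X_symm h) ht' h1]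

/-- sign of a function without zero on an interval -/
lemma sign_const {g : ℝ → ℝ} {u v : ℝ} (hg : ContinuousOn g (Icc u v))
    (h0 : ∀ t ∈ Icc u v, g t ≠ 0) {t t' : ℝ} (ht : t ∈ Icc u v) (ht' : t' ∈ Icc u v)
    (h : 0 < g t) : 0 < g t' := by
  by_contra hneg
  rw [not_lt] at hneg
  have hpre : IsPreconnected (g '' Icc u v) := (isPreconnected_Icc).image _ hg
  have h1 : (0:ℝ) ∈ g '' Icc u v :=
    hpre.ordConnected.out ⟨t', ht', rfl⟩ ⟨t, ht, rfl⟩ ⟨hneg, h.le⟩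
  obtain ⟨s, hs, e⟩ := h1
  exact h0 s hs e

lemma sign_const' {g : ℝ → ℝ} {u v : ℝ} (hg : ContinuousOn g (Icc u v))
    (h0 : ∀ t ∈ Icc u v, g t ≠ 0) {t t' : ℝ} (ht : t ∈ Icc u v) (ht' : t' ∈ Icc u v)
    (h : g t < 0) : g t' < 0 := by
  have := sign_const (g := fun t => - g t) hg.neg (fun t ht => neg_ne_zero.2 (h0 t ht)) ht ht'
    (neg_pos.2 h)
  exact neg_pos.1 this

/-- signs of an unlaced chord -/
lemma unl_pos {a b : C} (hne : a ≠ b) (h : ¬ D.X a b) (hi : D.inn b (D.lo a) = 1) {t : ℝ}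
    (ht : t ∈ Icc (0:ℝ) 1) : 0 < G.f b (G.γ a t) :=
  sign_const (G.cont a b) (G.ncrs a b hne h) (left_mem_Icc.2 zero_le_one) ht ((G.s0 a b hne).1 hi)

lemma unl_neg {a b : C} (hne : a ≠ b) (h : ¬ D.X a b) (hi : D.inn b (D.lo a) = 0) {t : ℝ}
    (ht : t ∈ Icc (0:ℝ) 1) : G.f b (G.γ a t) < 0 :=
  sign_const' (G.cont a b) (G.ncrs a b hne h) (left_mem_Icc.2 zero_le_one) ht ((G.s0 a b hne).2 hi)

/-- signs of a laced chord before the crossing -/
lemma bef {a b : C} (h : D.X a b) {t : ℝ} (ht : t ∈ Icc (0:ℝ) 1) (hlt : t < G.cr a b) :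
    (D.inn b (D.lo a) = 1 → 0 < G.f b (G.γ a t)) ∧ (D.inn b (D.lo a) = 0 → G.f b (G.γ a t) < 0) := by
  have hne := D.X_ne h
  have hsub : Icc (0:ℝ) t ⊆ Icc 0 1 := Icc_subset_Icc le_rfl ht.2
  have h0 : ∀ t' ∈ Icc (0:ℝ) t, G.f b (G.γ a t') ≠ 0 := fun t' ht' h0 => by
    have := G.cr_uniq h (hsub ht') h0
    linarith [ht'.2]
  have hc := (G.cont a b).mono hsub
  exact ⟨fun hi => sign_const hc h0 (left_mem_Icc.2 ht.1) (right_mem_Icc.2 ht.1)
      ((G.s0 a b hne).1 hi), fun hi => sign_const' hc h0 (left_mem_Icc.2 ht.1)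
      (right_mem_Icc.2 ht.1) ((G.s0 a b hne).2 hi)⟩

/-- signs of a laced chord after the crossing -/
lemma aft {a b : C} (h : D.X a b) {t : ℝ} (ht : t ∈ Icc (0:ℝ) 1) (hlt : G.cr a b < t) :
    (D.inn b (D.hi a) = 1 → 0 < G.f b (G.γ a t)) ∧ (D.inn b (D.hi a) = 0 → G.f b (G.γ a t) < 0) := by
  have hne := D.X_ne h
  have hsub : Icc t (1:ℝ) ⊆ Icc 0 1 := Icc_subset_Icc ht.1 le_rfl
  have h0 : ∀ t' ∈ Icc t (1:ℝ), G.f b (G.γ a t') ≠ 0 := fun t' ht' h0 => by
    have := G.cr_uniq h (hsub ht') h0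
    linarith [ht'.1]
  have hc := (G.cont a b).mono hsub
  exact ⟨fun hi => sign_const hc h0 (right_mem_Icc.2 ht.2) (left_mem_Icc.2 ht.2)
      ((G.s1 a b hne).1 hi), fun hi => sign_const' hc h0 (right_mem_Icc.2 ht.2)
      (left_mem_Icc.2 ht.2) ((G.s1 a b hne).2 hi)⟩

/-- two chords of one family: sign of one on the other -/
lemma X_fam' {a b b' : C} (h : D.X a b) (h' : D.X a b') : ¬ D.X b b' := by
  intro hX
  have h1 := D.X_fam h
  have h2 := D.X_fam h'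
  have h3 := D.X_fam hX
  cases ha : D.fam a <;> cases hb : D.fam b <;> cases hb' : D.fam b' <;> simp_all

/-- **the crossings occur in the order of the diagram** -/
theorem cr_lt {a b b' : C} (h : D.X a b) (h' : D.X a b') (he : D.e a b < D.e a b') :
    G.cr a b < G.cr a b' := by
  have hne : b ≠ b' := fun e => by rw [e] at he; exact lt_irrefl _ he
  have hX := X_fam' h h'
  have hmem := G.cr_mem h
  -- the point on `b`
  obtain ⟨t', ht', e⟩ := G.zer a b _ hmem (G.cr_zero h)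
  have hl := D.lt a
  have hl1 := D.lt b
  have hl2 := D.lt b'
  have q1 := D.ne a b
  have q2 := D.ne b a
  have q3 := D.ne a b'
  have q4 := D.ne b' a
  have q5 := D.ne b b'
  have q6 := D.ne b' b
  have q7 : D.lo b ≠ D.lo b' := fun h => hne (D.lo_inj _ _ h)
  have q8 : D.hi b ≠ D.hi b' := fun h => hne (D.hi_inj _ _ h)
  -- the sign of `b'` at the crossing of `b` is the sign before the crossing of `b'`
  have key : D.inn b' (D.lo b) = D.inn b' (D.lo a) := by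
    unfold Dg.X at h h' hX
    unfold Dg.e at he
    unfold Dg.inn
    split_ifs at he ⊢ <;> first | rfl | (exfalso; omega)
  have key2 : D.inn b' (D.hi a) = D.inn b' (D.lo a) + 1 := D.inn_flip h'
  rcases z2 (D.inn b' (D.lo a)) with h0 | h0
  · have p1 : G.f b' (G.γ a (G.cr a b)) < 0 := by
      rw [e]
      exact G.unl_neg hne hX (by rw [key, h0]) ht'
    by_contra hcon
    rw [not_lt] at hcon
    rcases hcon.lt_or_eq with hlt | heq
    · have := (G.aft h' hmem hlt).1 (by rw [key2, h0]; rfl)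
      linarith
    · have := G.cr_zero h'
      rw [heq] at this
      linarith
  · have p1 : 0 < G.f b' (G.γ a (G.cr a b)) := by
      rw [e]
      exact G.unl_pos hne hX (by rw [key, h0]) ht'
    by_contra hcon
    rw [not_lt] at hcon
    rcases hcon.lt_or_eq with hlt | heq
    · have := (G.aft h' hmem hlt).2 (by rw [key2, h0]; rfl)
      linarith
    · have := G.cr_zero h'
      rw [heq] at this
      linarith

/-- the parameters of the piece over `(k, k+1)` -/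
def seg (a : C) (k : ℕ) : Set ℝ :=
  {t | t ∈ Icc (0:ℝ) 1 ∧ (∀ b, D.X a b → D.e a b ≤ k → G.cr a b ≤ t) ∧
    ∀ b, D.X a b → k < D.e a b → t ≤ G.cr a b}

/-- the piece over `(k, k+1)` -/
def cu (a : C) (k : ℕ) : Set X := G.γ a '' G.seg a k

lemma seg_ord (a : C) (k : ℕ) : (G.seg a k).OrdConnected := by
  refine ⟨?_⟩
  rintro t ⟨h1, h2, h3⟩ t' ⟨h1', h2', h3'⟩ u hu
  exact ⟨⟨h1.1.trans hu.1, hu.2.trans h1'.2⟩, fun b hb hk => (h2 b hb hk).trans hu.1,
    fun b hb hk => hu.2.trans (h3' b hb hk)⟩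

lemma cu_pre (a : C) (k : ℕ) : IsPreconnected (G.cu a k) :=
  (G.seg_ord a k).isPreconnected.image _ ((G.contγ a).mono fun _ h => h.1)

lemma cu_own {a : C} {k : ℕ} {x : X} (hx : x ∈ G.cu a k) : G.f a x = 0 := by
  obtain ⟨t, ht, rfl⟩ := hx
  exact G.own a t ht.1

/-- **the sides of the piece are those of the diagram** -/
theorem cu_side {a b : C} (hne : b ≠ a) {k : ℕ} {x : X} (hx : x ∈ G.cu a k) :
    (D.ep b a k = 1 → 0 ≤ G.f b x) ∧ (D.ep b a k = 0 → G.f b x ≤ 0) := by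
  obtain ⟨t, ht, rfl⟩ := hx
  unfold Dg.ep
  by_cases hX : D.X a b
  · by_cases hk : D.e a b ≤ k
    · rw [if_pos ⟨hX, hk⟩]
      rcases (ht.2.1 b hX hk).lt_or_eq with hlt | heq
      · exact ⟨fun h => ((G.aft hX ht.1 hlt).1 h).le, fun h => ((G.aft hX ht.1 hlt).2 h).le⟩
      · rw [← heq, G.cr_zero hX]; exact ⟨fun _ => le_rfl, fun _ => le_rfl⟩
    · rw [if_neg (fun h => hk h.2)]
      rcases (ht.2.2 b hX (not_le.1 hk)).lt_or_eq with hlt | heq
      · exact ⟨fun h => ((G.bef hX ht.1 hlt).1 h).le, fun h => ((G.bef hX ht.1 hlt).2 h).le⟩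
      · rw [heq, G.cr_zero hX]; exact ⟨fun _ => le_rfl, fun _ => le_rfl⟩
  · rw [if_neg (fun h => hX h.1)]
    exact ⟨fun h => (G.unl_pos (Ne.symm hne) hX h ht.1).le,
      fun h => (G.unl_neg (Ne.symm hne) hX h ht.1).le⟩

/-- the lower node of a piece -/
lemma lo_mem {a b : C} {k : ℕ} (h : D.X a b) (hk : D.e a b ≤ k)
    (hm : ∀ b', D.X a b' → D.e a b' ≤ k → D.e a b' ≤ D.e a b) : G.γ a (G.cr a b) ∈ G.cu a k := by
  refine ⟨_, ⟨G.cr_mem h, fun b' h' hk' => ?_, fun b' h' hk' => ?_⟩, rfl⟩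
  · rcases (hm b' h' hk').lt_or_eq with hlt | heq
    · exact (G.cr_lt h' h hlt).le
    · rw [D.e_inj h' h heq]
  · exact (G.cr_lt h h' (lt_of_le_of_lt hk hk')).le

/-- the upper node of a piece -/
lemma hi_mem {a b : C} {k : ℕ} (h : D.X a b) (hk : k < D.e a b)
    (hm : ∀ b', D.X a b' → k < D.e a b' → D.e a b ≤ D.e a b') : G.γ a (G.cr a b) ∈ G.cu a k := by
  refine ⟨_, ⟨G.cr_mem h, fun b' h' hk' => ?_, fun b' h' hk' => ?_⟩, rfl⟩
  · exact (G.cr_lt h' h (lt_of_le_of_lt hk' hk)).le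
  · rcases (hm b' h' hk').lt_or_eq with hlt | heq
    · exact (G.cr_lt h h' hlt).le
    · rw [D.e_inj h h' heq]

/-- the lower end -/
lemma zero_mem {a : C} {k : ℕ} (hm : ∀ b', D.X a b' → k < D.e a b') : G.γ a 0 ∈ G.cu a k :=
  ⟨_, ⟨left_mem_Icc.2 zero_le_one, fun b' h' hk' => absurd hk' (not_le.2 (hm b' h')),
    fun _ h' _ => (G.cr_mem h').1⟩, rfl⟩

/-- the upper end -/
lemma one_mem {a : C} {k : ℕ} (hm : ∀ b', D.X a b' → D.e a b' ≤ k) : G.γ a 1 ∈ G.cu a k :=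
  ⟨_, ⟨right_mem_Icc.2 zero_le_one, fun _ h' _ => (G.cr_mem h').2,
    fun b' h' hk' => absurd hk' (not_lt.2 (hm b' h'))⟩, rfl⟩

end GeoD

end Crest.Agent.R096.Gr_117
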