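import Crest.Agent.R096.Gr1_117
import Crest.Agent.R096.Gr2_117
import Crest.Agent.R096.Ac9_117

/-!
# R096 (row 96), ARR (D2), part 3: the sub-chords of the boundary of a cell as sub-arcs (helper117)
-/

set_option autoImplicit false
set_option linter.unusedSectionVars false

open Set

namespace Crest.Agent.R096.Gr_117

open Crest.Agent.R096.Fx_689 Crest.Agent.R096.St_147 Crest.Agent.R096.Wk_689
  Crest.Agent.R096.Ac_117

variable {ι Φ W I : Type} {M : MeshC ι Φ W} {col : I → Bool} {s : St M col} {q : ι}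

/-- the double point of two crossing chords -/
lemma exists_dbl {F : Φ} (a b : Ch s F) (h : (dg s F).X a b) {x : Bool}
    (hx : col (s.lab a.1) = x) : ∃ z : s.Dbl, z.F = F ∧ z.e x = a.1 ∧ z.e (!x) = b.1 ∧
      (dg s F).e a b = rk s F (z.key x) := by
  subst hx
  cases ha : (dg s F).fam a
  · have ha' : col (s.lab a.1) = false := ha
    rw [ha']
    exact ⟨mkD a b ha h, rfl, rfl, rfl, (e_mkD a b ha h).1⟩
  · have ha' : col (s.lab a.1) = true := ha
    have hb : (dg s F).fam b = false := by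
      have := (dg s F).X_fam h
      cases hb : (dg s F).fam b
      · rfl
      · exact absurd (ha.trans hb.symm) this
    rw [ha']
    exact ⟨mkD b a hb ((dg s F).X_symm h), rfl, rfl, rfl, (e_mkD b a hb ((dg s F).X_symm h)).2⟩

/-- nodes below a piece -/
lemma e_le_iff {F : Φ} (a b : Ch s F) (_ : (dg s F).X a b) {x : Bool} (p : s.Sub x)
    (hp : chd p = (F, a.1)) {z : s.Dbl} (hz : z.F = F) (hza : z.e x = a.1)
    (he : (dg s F).e a b = rk s F (z.key x)) :
    (dg s F).e a b ≤ rk s F (start p) ↔ z.key x ≤ start p := by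
  have hx : col (s.lab a.1) = x := by
    have := chd_col p
    rw [hp] at this
    exact this
  subst hx
  constructor
  · intro hle
    have h1 := pc_start a p hp
    have h2 : (dg s F).lo a ≤ rk s F (start p) := lo_le_start a p hp
    have h3 := pc_max a h2 (abv z _) (Prod.ext hz hza) (by
      show rk s F (z.key _) ≤ _
      rw [← he]; exact hle)
    rw [h1] at h3
    exact h3
  · intro hle
    rw [he]
    exact rk_mono s F hle

/-- the picture of a cell: paths and band functions on its faces -/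
structure FG (s : St M col) (q : ι) (X : Type*) [TopologicalSpace X] where
  G : ∀ F, q ∈ M.side F → GeoD (dg s F) X
  pt : W → X
  e0 : ∀ F (h : q ∈ M.side F) (a : Ch s F), (G F h).γ a 0 = pt a.1
  e1 : ∀ F (h : q ∈ M.side F) (a : Ch s F), (G F h).γ a 1 = pt (s.mu F a.1)

variable {X : Type*} [TopologicalSpace X] (D : FG s q X)

namespace FG

/-- the sub-arc of a sub-chord -/
noncomputable def cuP (p : Qq s q) : Set X :=
  (D.G (chd p.1.2).1 p.2).cu (pch p.1.2) (rk s (chd p.1.2).1 (start p.1.2))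

lemma cuP_eq {F : Φ} (a : Ch s F) {x : Bool} (p : s.Sub x) (hp : chd p = (F, a.1))
    (hq : q ∈ M.side F) (hq' : q ∈ M.side (chd p).1) :
    D.cuP ⟨⟨x, p⟩, hq'⟩ = (D.G F hq).cu a (rk s F (start p)) := by
  have h1 : (chd p).1 = F := by rw [hp]
  subst h1
  have h2 : a = pch p := Subtype.ext (congrArg Prod.snd hp).symm
  subst h2
  rfl

/-- the double point -/
noncomputable def vz (z : Zq s q) : X :=
  (D.G z.1.F z.2).γ (cz z.1 true) ((D.G z.1.F z.2).cr (cz z.1 true) (cz z.1 false))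

lemma vz_eq (z : Zq s q) (x : Bool) : D.vz z =
    (D.G z.1.F z.2).γ (cz z.1 x) ((D.G z.1.F z.2).cr (cz z.1 x) (cz z.1 (!x))) := by
  cases x
  · exact (D.G z.1.F z.2).cr_symm (cz_X z.1 true)
  · rfl

lemma mem_abv (z : Zq s q) (x : Bool) (hq : q ∈ M.side (chd (abv z.1 x)).1) :
    D.vz z ∈ D.cuP ⟨⟨x, abv z.1 x⟩, hq⟩ := by
  rw [D.cuP_eq (cz z.1 x) (abv z.1 x) rfl z.2, D.vz_eq z x]
  have h1 : rk s z.1.F (start (abv z.1 x)) = (dg s z.1.F).e (cz z.1 x) (cz z.1 (!x)) := rk_key z.1 x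
  rw [h1]
  exact (D.G z.1.F z.2).lo_mem (cz_X z.1 x) le_rfl (fun b' _ hb => hb)

lemma mem_bel (z : Zq s q) (x : Bool) (hq : q ∈ M.side (chd (bel z.1 x)).1) :
    D.vz z ∈ D.cuP ⟨⟨x, bel z.1 x⟩, hq⟩ := by
  have hb := bel_spec z.1 x
  have hbc := below_chd hb
  rw [D.cuP_eq (cz z.1 x) (bel z.1 x) hbc z.2, D.vz_eq z x]
  have hs := below_start hb
  have hiff := e_le_iff (cz z.1 x) (cz z.1 (!x)) (cz_X z.1 x) (bel z.1 x) hbc rfl rfl
    (rk_key z.1 x).symm
  refine (D.G z.1.F z.2).hi_mem (cz_X z.1 x) ?_ ?_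
  · by_contra hcon
    exact absurd (hiff.1 (not_lt.1 hcon)) (not_le.2 hs.1)
  · intro b' hb' hk
    obtain ⟨z', h1, h2, -, h4⟩ := exists_dbl (cz z.1 x) b' hb' (z.1.colr x)
    have hiff' := e_le_iff (cz z.1 x) b' hb' (bel z.1 x) hbc h1 h2 h4
    have h5 : start (bel z.1 x) < z'.key x := by
      by_contra hcon
      exact absurd (hiff'.2 (not_lt.1 hcon)) (not_le.2 hk)
    have h6 := hs.2 (abv z' x) (by rw [hbc]; exact Prod.ext h1 h2)
    have h7 : z.1.key x ≤ z'.key x := by
      by_contra hcon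
      exact h6 ⟨h5, not_le.1 hcon⟩
    rw [h4, ← rk_key z.1 x]
    exact rk_mono s _ h7

lemma mem_ini {F : Φ} (hF : q ∈ M.side F) (a : Ch s F) {x : Bool}
    (p : s.Sub x) (hp : chd p = (F, a.1)) (hst : start p = M.pos F a.1)
    (hq : q ∈ M.side (chd p).1) : D.pt a.1 ∈ D.cuP ⟨⟨x, p⟩, hq⟩ := by
  rw [D.cuP_eq a p hp hF, ← D.e0 F hF a]
  apply (D.G F hF).zero_mem
  intro b' hb'
  rw [hst]
  exact ((dg s F).e_mem hb').1

lemma mem_top {F : Φ} (hF : q ∈ M.side F) (a : Ch s F) {x : Bool}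
    (p : s.Sub x) (hp : chd p = (F, a.1)) (ht : IsTop p)
    (hq : q ∈ M.side (chd p).1) : D.pt (s.mu F a.1) ∈ D.cuP ⟨⟨x, p⟩, hq⟩ := by
  rw [D.cuP_eq a p hp hF, ← D.e1 F hF a]
  apply (D.G F hF).one_mem
  intro b' hb'
  have hx : col (s.lab a.1) = x := by
    have := chd_col p
    rw [hp] at this
    exact this
  obtain ⟨z', h1, h2, -, h4⟩ := exists_dbl a b' hb' hx
  rw [h4]
  apply rk_mono
  exact top_iff.1 ht (abv z' x) (by rw [hp]; exact Prod.ext h1 h2)

/-- the points of an end dart -/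
lemma mem_ed {F : Φ} {w : W} (hat : s.At F w) (hF : q ∈ M.side F)
    (hq : q ∈ M.side (chd (ed hat).p).1) : D.pt w ∈ D.cuP ⟨⟨(ed hat).x, (ed hat).p⟩, hq⟩ := by
  have hn := node_ed hat
  have hf : (chd (ed hat).p).1 = F := fc_ed hat
  have hp := pt_ed hat
  generalize ed hat = d at hn hf hp hq ⊢
  obtain ⟨x, p, b⟩ := d
  have hf' : (chd p).1 = F := hf
  subst hf'
  cases b
  · have hp' : (chd p).2 = w := hp
    rw [← hp']
    refine D.mem_ini hF (pch p) p rfl ?_ hq
    cases p with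
    | inl a => rfl
    | inr z => exact absurd hn (by simp [node, prv])
  · have hp' : s.mu (chd p).1 (chd p).2 = w := hp
    rw [← hp']
    exact D.mem_top hF (pch p) p rfl (nxt_none.1 hn) hq

/-- **the picture of the arrangement on the boundary of the cell** -/
noncomputable def pic (S : SphM M q) : Pic (arr S s) X where
  cu := D.cuP
  vz := D.vz
  vl := fun w => D.pt w.1
  pre := fun p => (D.G _ p.2).cu_pre _ _
  mz := by
    intro z c j
    show D.vz z ∈ D.cuP (pcQ (Sum.inl (z, c, j)))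
    have key : ∀ b : Bool, ∀ (hq : q ∈ M.side (fc (dz z.1 c b))),
        D.vz z ∈ D.cuP (pD (dz z.1 c b) hq) := by
      intro b hq
      cases b
      · exact D.mem_abv z c hq
      · exact D.mem_bel z c hq
    exact key _ (toD_side (Sum.inl (z, c, j)))
  ml := by
    intro w i
    exact D.mem_ed (fa_at w i) (fa_side w i).1 (toD_side (Sum.inr (w, i)))

end FG

end Crest.Agent.R096.Gr_117
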