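import Crest.Agent.R096.Gr3_117
import Crest.Agent.R096.Cm9_117
import Crest.Agent.R096.Bd8_416

/-!
# R096 (row 96), ARR (D2), part 4: the chords of a face as pieces, counting formulas (helper117)
-/

set_option autoImplicit false
set_option linter.unusedSectionVars false

open Set Topology Filter Metric Module

namespace Crest.Agent.R096.Gr_117

open Crest.Agent.R096.Msh_715 Crest.Agent.R096.Lab_184 Crest.Agent.R096.Agl5_543
  Crest.Agent.R096.Pat5_543 Crest.Agent.R096.Coh_184 Crest.Agent.R096.Seq_213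
  Crest.Agent.R096.St_147 Crest.Agent.R096.Wk_689 Crest.Agent.R096.Ac_117
  Crest.Agent.R096.Fx_689 Crest.Agent.R096.Cm_117
open Crest.Agent.R096.Bd_416 (sg sg_add sg_sum sg_or sg_sq)

variable {E : Type} [NormedAddCommGroup E] [NormedSpace ℝ E]
variable {Om : Set E} {ι : Type} {T : Tiling Om ι}
variable [FiniteDimensional ℝ E] {h3 : finrank ℝ E = 3} {J C I K : Type} {fam : J → C}
variable {col : I → Bool}
variable {s : GSt (meshC T h3) fam} {r : St (meshC T h3) col} {q : ι} {c : T.Cell}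

lemma face_eq {F F' : C2 T} (h : F'.set ⊆ F.set) : F' = F := by
  have h1 : F'.1 ≤ F.1 := Tiling.Cell.le_def.2 h
  by_contra hne
  have h2 : F'.1 < F.1 := lt_of_le_of_ne h1 (fun h' => hne (Subtype.ext h'))
  have h4 := dim_lt_cell h2
  have h5 : F'.1.dim = 2 := F'.2
  have h6 : F.1.dim = 2 := F.2
  omega

/-- the piece of a chord in its face -/
noncomputable def chP (R : ResOf s r) {F : C2 T} (a : Ch r F) : Pc s F.1 :=
  Quot.mk _ ⟨a.1, R.sub _ a.2.1.1, a.2.1.2.1, a.2.1.2.2⟩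

variable (R : ResOf s r)

lemma mem_pts_ch {h : LF s} {F : C2 T} (a : Ch r F) {w : E} :
    w ∈ pts h F.1 (chP R a) ↔ w = a.1 ∨ w = r.mu F a.1 := by
  have ha : a.1 ∈ pts h F.1 (chP R a) :=
    mem_pts.2 ⟨⟨R.sub _ a.2.1.1, a.2.1.2.1, a.2.1.2.2⟩, rfl⟩
  constructor
  · intro hw
    obtain ⟨h', e⟩ := mem_pts.1 hw
    let g : Pc s F.1 → Set E := Quot.lift (fun v => {v.1, s.mu F v.1}) (by
      rintro v v' ⟨F', hF', hv, hv'⟩
      have hFF : F' = F := face_eq hF'
      subst hFF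
      show ({v.1, s.mu F' v.1} : Set E) = {v'.1, s.mu F' v'.1}
      rw [hv', s.mu_mu v.2.1 (mem_On hv v.2.2.2), Set.pair_comm])
    have h1 : ({w, s.mu F w} : Set E) = {a.1, s.mu F a.1} := congrArg g e
    have h2 : w ∈ ({a.1, s.mu F a.1} : Set E) := h1 ▸ Set.mem_insert _ _
    rw [R.mu]
    exact h2
  · rintro (rfl | rfl)
    · exact ha
    · rw [R.mu]
      exact mu_pts ha (Subset.refl _) a.2.1.2.1

lemma chP_inj {F : C2 T} {a b : Ch r F} (h : LF s) (hab : chP R a = chP R b) : a = b := by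
  have h1 : a.1 ∈ pts h F.1 (chP R b) := by
    rw [← hab]; exact (mem_pts_ch R a).2 (Or.inl rfl)
  rcases (mem_pts_ch R b).1 h1 with h2 | h2
  · exact Subtype.ext h2
  · exfalso
    have h4 := a.2.2
    rw [h2, r.mu_mu b.2.1.1 b.2.1.2] at h4
    exact lt_asymm h4 b.2.2

lemma pup_ch {h : LF s} {x : Pc s c} {F : C2 T} (hF : F.1 ≤ c) (a : Ch r F) :
    pup s hF (chP R a) = x ↔ a.1 ∈ pts h c x := by
  rw [mem_pts]
  constructor
  · intro e
    exact ⟨⟨R.sub _ a.2.1.1, hF a.2.1.2.1, a.2.1.2.2⟩, e⟩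
  · rintro ⟨h', e⟩
    exact e

open Classical in
/-- the chords of the piece `x` on the face -/
noncomputable def chs (h : LF s) (x : Pc s c) (r : St (meshC T h3) col) (F : C2 T) :
    Finset (Ch r F) := Finset.univ.filter (fun a => a.1 ∈ pts h c x)

lemma mem_chs {h : LF s} {x : Pc s c} {F : C2 T} {a : Ch r F} :
    a ∈ chs h x r F ↔ a.1 ∈ pts h c x := by
  classical
  unfold chs
  rw [Finset.mem_filter]
  exact ⟨fun h => h.2, fun h => ⟨Finset.mem_univ _, h⟩⟩

open Classical in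
lemma img_chs {h : LF s} {x : Pc s c} (hx : ∀ w ∈ pts h c x, w ∈ r.P) {F : C2 T} (hF : F.1 ≤ c)
    (Y : Finset (Pc s F.1)) (hY : ∀ y, y ∈ Y ↔ pup s hF y = x) :
    Y = (chs h x r F).image (chP R) := by
  ext y
  rw [hY, Finset.mem_image]
  constructor
  · intro hy
    obtain ⟨w, rfl⟩ := Quot.exists_rep y
    have hwx : w.1 ∈ pts h c x := mem_pts.2 ⟨⟨w.2.1, hF w.2.2.1, w.2.2.2⟩, hy⟩
    have hat : r.At F w.1 := ⟨hx _ hwx, w.2.2.1, w.2.2.2⟩
    by_cases hlt : (meshC T h3).pos F w.1 < (meshC T h3).pos F (r.mu F w.1)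
    · refine ⟨⟨w.1, hat, hlt⟩, mem_chs.2 hwx, rfl⟩
    · have hne : (meshC T h3).pos F w.1 ≠ (meshC T h3).pos F (r.mu F w.1) :=
        pos_ne r hat (At.mu r hat) (fun h' => r.mu_ne hat.1 hat.2 h'.symm)
      have hlt' : (meshC T h3).pos F (r.mu F w.1) <
          (meshC T h3).pos F (r.mu F (r.mu F w.1)) := by
        rw [r.mu_mu hat.1 hat.2]
        exact lt_of_le_of_ne (not_lt.1 hlt) (Ne.symm hne)
      let a : Ch r F := ⟨r.mu F w.1, At.mu r hat, hlt'⟩
      refine ⟨a, mem_chs.2 ?_, ?_⟩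
      · exact (mem_mu R (fun _ h' => hF h') hat).2 hwx
      · have h1 : w.1 ∈ pts h F.1 (chP R a) := by
          rw [mem_pts_ch R a]
          right
          show w.1 = r.mu F (r.mu F w.1)
          rw [r.mu_mu hat.1 hat.2]
        obtain ⟨h', e⟩ := mem_pts.1 h1
        exact e.symm
  · rintro ⟨a, ha, rfl⟩
    exact (pup_ch R hF a).2 (mem_chs.1 ha)

lemma prod_chs {h : LF s} {x : Pc s c} (hx : ∀ w ∈ pts h c x, w ∈ r.P) {F : C2 T} (hF : F.1 ≤ c)
    (Y : Finset (Pc s F.1)) (hY : ∀ y, y ∈ Y ↔ pup s hF y = x) (f : Pc s F.1 → ℝ) :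
    ∏ y ∈ Y, f y = ∏ a ∈ chs h x r F, f (chP R a) := by
  classical
  rw [img_chs R hx hF Y hY, Finset.prod_image]
  intro a _ b _ hab
  exact chP_inj R h hab

lemma lamF_nQ (F : C2 T) (Q : Finset E) (p : E) :
    lamF F Q p = nQ Q {w | w ∈ F.set ∧ F.pos w < F.pos p} := by
  classical
  unfold lamF nQ
  refine Finset.sum_congr rfl fun w _ => ?_
  by_cases hw : w ∈ F.set ∧ F.pos w < F.pos p
  · have hw' : w ∈ {w | w ∈ F.set ∧ F.pos w < F.pos p} := hw
    rw [if_pos hw, if_pos hw']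
  · have hw' : ¬ w ∈ {w | w ∈ F.set ∧ F.pos w < F.pos p} := hw
    rw [if_neg hw, if_neg hw']

lemma lamF_chs {h : LF s} {x : Pc s c} (hx : ∀ w ∈ pts h c x, w ∈ r.P) {F : C2 T} (hF : F.1 ≤ c)
    (v : E) : lamF F (pts h c x) v = ∑ a ∈ chs h x r F, lamF F (pts h F.1 (chP R a)) v := by
  classical
  have := h.pc F.1
  let _ : Fintype (Pc s F.1) := Fintype.ofFinite _
  let Y : Finset (Pc s F.1) := Finset.univ.filter (fun y => pup s hF y = x)
  have hY : ∀ y, y ∈ Y ↔ pup s hF y = x := fun y =>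
    ⟨fun h => (Finset.mem_filter.1 h).2, fun h => Finset.mem_filter.2 ⟨Finset.mem_univ _, h⟩⟩
  have h1 : nQ (pts h c x) {w | w ∈ F.set ∧ F.pos w < F.pos v} =
      ∑ y ∈ Y, nQ (pts h F.1 y) {w | w ∈ F.set ∧ F.pos w < F.pos v} := by
    refine nQ_pieces Y (fun w hw => ?_) (fun w hw => hw.1)
    rw [mem_pts_pup hF hw]
    constructor
    · rintro ⟨y, h1, h2⟩
      exact ⟨y, (hY y).2 h1, h2⟩
    · rintro ⟨y, h1, h2⟩
      exact ⟨y, (hY y).1 h1, h2⟩
  rw [lamF_nQ, h1, img_chs R hx hF Y hY, Finset.sum_image (fun a _ b _ hab => chP_inj R h hab)]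
  exact Finset.sum_congr rfl fun a _ => (lamF_nQ F _ v).symm

/-- the position label of one chord -/
lemma lamF_ch {h : LF s} {F : C2 T} (b : Ch r F) {w : E} (hw : r.At F w)
    (hne : w ∉ pts h F.1 (chP R b)) :
    lamF F (pts h F.1 (chP R b)) w = (dg r F).inn b (rk r F ((meshC T h3).pos F w)) := by
  classical
  have h1 : pts h F.1 (chP R b) = {b.1, r.mu F b.1} := by
    ext v
    rw [mem_pts_ch R b, Finset.mem_insert, Finset.mem_singleton]
  have hbm : b.1 ≠ r.mu F b.1 := fun h' => r.mu_ne b.2.1.1 b.2.1.2 h'.symm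
  have hwb : w ≠ b.1 := fun h' => hne ((mem_pts_ch R b).2 (Or.inl h'))
  have hwb' : w ≠ r.mu F b.1 := fun h' => hne ((mem_pts_ch R b).2 (Or.inr h'))
  have hm := At.mu r b.2.1
  have q1 : b.1 ∈ F.set := b.2.1.2.1
  have q2 : r.mu F b.1 ∈ F.set := hm.2.1
  have p1 : (meshC T h3).pos F b.1 < (meshC T h3).pos F (r.mu F b.1) := b.2.2
  have p2 := pos_ne r hw b.2.1 hwb
  have p3 := pos_ne r hw hm hwb'
  have r1 : (dg r F).lo b < rk r F ((meshC T h3).pos F w) ↔
      (meshC T h3).pos F b.1 < (meshC T h3).pos F w := rk_lt_iff r b.2.1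
  have r2 : rk r F ((meshC T h3).pos F w) < (dg r F).hi b ↔
      (meshC T h3).pos F w < (meshC T h3).pos F (r.mu F b.1) := rk_lt_iff r hw
  unfold lamF Dg.inn
  rw [h1, Finset.sum_pair hbm]
  have e1 : ∀ v, v ∈ F.set → (v ∈ F.set ∧ F.pos v < F.pos w ↔
      (meshC T h3).pos F v < (meshC T h3).pos F w) := fun v hv => ⟨fun h => h.2, fun h => ⟨hv, h⟩⟩
  simp only [e1 _ q1, e1 _ q2, r1, r2]
  rcases lt_or_gt_of_ne p2 with g1 | g1
  · have g2 : ¬ (meshC T h3).pos F b.1 < (meshC T h3).pos F w := not_lt.2 g1.le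
    have g3 : ¬ (meshC T h3).pos F (r.mu F b.1) < (meshC T h3).pos F w :=
      not_lt.2 (g1.trans p1).le
    rw [if_neg g2, if_neg g3, if_neg (fun h => g2 h.1), add_zero]
  · rcases lt_or_gt_of_ne p3 with g2 | g2
    · rw [if_pos g1, if_neg (not_lt.2 g2.le), if_pos ⟨g1, g2⟩, add_zero]
    · rw [if_pos g1, if_pos g2, if_neg (fun h => absurd h.2 (not_lt.2 g2.le))]
      decide

/-- sums of functions which are constant along the chords -/
lemma S_const {Y : Type*} [Fintype Y] [DecidableEq Y] (D : Dg Y) (u : Y → ℕ → ZMod 2)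
    (U v : Y → ZMod 2) (hu : ∀ y k, u y k = U y) : D.S u v = ∑ y, U y * v y := by
  have hc : ∀ x y, D.c u x y = 0 := by
    intro x y
    unfold Dg.c
    rw [hu, hu]
    exact add_self _
  have hd : ∀ x, D.d u x = U x := by
    intro x
    unfold Dg.d
    rw [hu]
    simp [hc]
  unfold Dg.S
  simp only [hc, hd, zero_mul, ite_self, Finset.sum_const_zero, add_zero]

open Classical in
/-- **the inside function as a count** -/
lemma inS_count {h : LF s} {x : Pc s c} (p : Qq r q) (i : Bool)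
    (hp : (chd p.1.2).2 ∉ pts h c x) :
    inS h x p i = kap h x (chd p.1.2).1 + ∑ b ∈ chs h x r (chd p.1.2).1,
      (dg r (chd p.1.2).1).ep b (pch p.1.2) (rk r (chd p.1.2).1 (start p.1.2)) := by
  unfold inS sd
  congr 1
  rw [S_const (dg r (chd p.1.2).1) _ (fun b => if b.1 ∈ pts h c x then 1 else 0) _ (by
    intro y k
    show (if (chd (pc y k)).2 ∈ pts h c x then (1 : ZMod 2) else 0) = _
    rw [pc_chd])]
  unfold chs
  rw [Finset.sum_filter]
  apply Finset.sum_congr rfl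
  intro b _
  by_cases hb : b.1 ∈ pts h c x
  · have hne : b ≠ pch p.1.2 := fun h' => hp (by rw [h'] at hb; exact hb)
    rw [if_pos hb, if_pos hb, if_neg hne, one_mul]
  · rw [if_neg hb, if_neg hb, zero_mul]

end Crest.Agent.R096.Gr_117
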