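import Crest.Agent.R096.Gr4_117

/-!
# R096 (row 96), ARR (D2), part 5: the two ends of an arc of the pairing lie in one connected part
of {c_y = 0, 0 ≤ c_x} on the boundary of the tile (helper117)
-/

set_option autoImplicit false
set_option linter.unusedSectionVars false

open Set Topology Filter Metric Module

namespace Crest.Agent.R096.Gr_117

open Crest.Agent.R096.Msh_715 Crest.Agent.R096.Lab_184 Crest.Agent.R096.Agl5_543
  Crest.Agent.R096.Pat5_543 Crest.Agent.R096.Coh_184 Crest.Agent.R096.Seq_213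
  Crest.Agent.R096.St_147 Crest.Agent.R096.Wk_689 Crest.Agent.R096.Ac_117
  Crest.Agent.R096.Fx_689 Crest.Agent.R096.Cm_117
open Crest.Agent.R096.Bd_416 (sg sg_add sg_sum sg_or sg_sq sg_zero sg_one)

variable {E : Type} [NormedAddCommGroup E] [NormedSpace ℝ E]
variable {Om : Set E} {ι : Type} {T : Tiling Om ι}
variable [FiniteDimensional ℝ E] {h3 : finrank ℝ E = 3} {J C I : Type} {fam : J → C}
variable {col : I → Bool}
variable {s : GSt (meshC T h3) fam} {r : St (meshC T h3) col} {q : ι} {c : T.Cell}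

/-- **the geometric facts on a face**: the zero sets of the chords are arcs, one crossing for a laced
pair, none otherwise, signs at the end points = labels -/
structure BG (h : LF s) (R : ResOf s r) (K : T.Cell → Set E)
    (cb : ∀ c : T.Cell, Pc s c → E → ℝ) (pt : E → E) (F : C2 T) : Prop where
  cont : ∀ a : Ch r F, ContinuousOn (cb F.1 (chP R a)) (K F.1)
  arc : ∀ a : Ch r F, ∃ γ : ℝ → E, ContinuousOn γ (Icc 0 1) ∧ InjOn γ (Icc 0 1) ∧
    γ '' Icc 0 1 = {z | z ∈ K F.1 ∧ cb F.1 (chP R a) z = 0} ∧ γ 0 = pt a.1 ∧ γ 1 = pt (r.mu F a.1)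
  one : ∀ a b : Ch r F, (dg r F).X a b →
    ∃ p, {z | z ∈ K F.1 ∧ cb F.1 (chP R a) z = 0 ∧ cb F.1 (chP R b) z = 0} = {p}
  non : ∀ a b : Ch r F, a ≠ b → ¬ (dg r F).X a b →
    {z | z ∈ K F.1 ∧ cb F.1 (chP R a) z = 0 ∧ cb F.1 (chP R b) z = 0} = ∅
  sign : ∀ w, r.At F w → ∀ b : Ch r F, w ∉ pts h F.1 (chP R b) →
    (nl h F.1 (chP R b) w = 1 → 0 < cb F.1 (chP R b) (pt w)) ∧
    (nl h F.1 (chP R b) w = 0 → cb F.1 (chP R b) (pt w) < 0)

variable {h : LF s} {R : ResOf s r} {K : T.Cell → Set E}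
  {cb : ∀ c : T.Cell, Pc s c → E → ℝ} {pt : E → E}

/-- the label of the base vertex for the position label -/
noncomputable def kp (h : LF s) (R : ResOf s r) {F : C2 T} (b : Ch r F) : ZMod 2 :=
  lamF F (pts h F.1 (chP R b)) (bv F.1)

lemma nl_kp {F : C2 T} (b : Ch r F) {w : E} (hw : r.At F w) (hne : w ∉ pts h F.1 (chP R b)) :
    nl h F.1 (chP R b) w = kp h R b + (dg r F).inn b (rk r F ((meshC T h3).pos F w)) := by
  have h1 := kap_eq (h := h) (x := chP R b) (F := F) (Subset.refl _) hw.2.1 (le_of_eq hw.2.2) hne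
  rw [h1, lamF_ch R b hw hne]
  unfold Cm_117.kap kp
  rw [nl_bv, zero_add]

lemma not_ch {F : C2 T} {a b : Ch r F} (hab : a ≠ b) : a.1 ∉ pts h F.1 (chP R b) := by
  intro h1
  rcases (mem_pts_ch R b).1 h1 with h2 | h2
  · exact hab (Subtype.ext h2)
  · have h4 := a.2.2
    rw [h2, r.mu_mu b.2.1.1 b.2.1.2] at h4
    exact lt_asymm h4 b.2.2

lemma not_ch' {F : C2 T} {a b : Ch r F} (hab : a ≠ b) : r.mu F a.1 ∉ pts h F.1 (chP R b) := by
  intro h1
  rw [mem_mu R (c := F.1) (Subset.refl _) a.2.1] at h1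
  exact not_ch hab h1

lemma sg_sign {k l : ZMod 2} {t : ℝ} (h : (k + l = 1 → 0 < t) ∧ (k + l = 0 → t < 0)) :
    (l = 1 → 0 < sg k * t) ∧ (l = 0 → sg k * t < 0) := by
  rcases GeoD.z2 k with rfl | rfl
  · rw [sg_zero, one_mul]
    exact ⟨fun hl => h.1 (by rw [hl]; rfl), fun hl => h.2 (by rw [hl]; rfl)⟩
  · rw [sg_one]
    refine ⟨fun hl => ?_, fun hl => ?_⟩
    · have := h.2 (by rw [hl]; decide)
      linarith
    · have := h.1 (by rw [hl]; decide)
      linarith

lemma sg_ne (a : ZMod 2) : sg a ≠ 0 := by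
  rcases sg_or a with h | h <;> rw [h] <;> norm_num

/-- **the geometric diagram of a face** -/
noncomputable def geoD {F : C2 T} (B : BG h R K cb pt F) : GeoD (dg r F) E where
  γ a := (B.arc a).choose
  f b z := sg (kp h R b) * cb F.1 (chP R b) z
  contγ a := (B.arc a).choose_spec.1
  cont a b := by
    refine continuousOn_const.mul ((B.cont b).comp (B.arc a).choose_spec.1 ?_)
    intro t ht
    have : (B.arc a).choose t ∈ (B.arc a).choose '' Icc 0 1 := ⟨t, ht, rfl⟩
    rw [(B.arc a).choose_spec.2.2.1] at this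
    exact this.1
  own a t ht := by
    have : (B.arc a).choose t ∈ (B.arc a).choose '' Icc 0 1 := ⟨t, ht, rfl⟩
    rw [(B.arc a).choose_spec.2.2.1] at this
    rw [this.2, mul_zero]
  crs a b hX := by
    obtain ⟨p, hp⟩ := B.one a b hX
    have hpm : p ∈ {z | z ∈ K F.1 ∧ cb F.1 (chP R a) z = 0 ∧ cb F.1 (chP R b) z = 0} := by
      rw [hp]; rfl
    have h1 : p ∈ (B.arc a).choose '' Icc 0 1 := by
      rw [(B.arc a).choose_spec.2.2.1]; exact ⟨hpm.1, hpm.2.1⟩
    obtain ⟨t, ht, e⟩ := h1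
    refine ⟨t, ht, ?_, ?_⟩
    · rw [e, hpm.2.2, mul_zero]
    · intro t' ht' h0
      have h2 : (B.arc a).choose t' ∈ (B.arc a).choose '' Icc 0 1 := ⟨t', ht', rfl⟩
      rw [(B.arc a).choose_spec.2.2.1] at h2
      have h3' : cb F.1 (chP R b) ((B.arc a).choose t') = 0 := by
        rcases mul_eq_zero.1 h0 with h4 | h4
        · exact absurd h4 (sg_ne _)
        · exact h4
      have h4 : (B.arc a).choose t' ∈
          {z | z ∈ K F.1 ∧ cb F.1 (chP R a) z = 0 ∧ cb F.1 (chP R b) z = 0} := ⟨h2.1, h2.2, h3'⟩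
      rw [hp] at h4
      exact (B.arc a).choose_spec.2.1 ht' ht (h4.trans e.symm)
  ncrs a b hab hX t ht h0 := by
    have h2 : (B.arc a).choose t ∈ (B.arc a).choose '' Icc 0 1 := ⟨t, ht, rfl⟩
    rw [(B.arc a).choose_spec.2.2.1] at h2
    have h3' : cb F.1 (chP R b) ((B.arc a).choose t) = 0 := by
      rcases mul_eq_zero.1 h0 with h4 | h4
      · exact absurd h4 (sg_ne _)
      · exact h4
    have h4 : (B.arc a).choose t ∈
        {z | z ∈ K F.1 ∧ cb F.1 (chP R a) z = 0 ∧ cb F.1 (chP R b) z = 0} := ⟨h2.1, h2.2, h3'⟩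
    rw [B.non a b hab hX] at h4
    exact h4
  zer a b t ht h0 := by
    have h2 : (B.arc a).choose t ∈ (B.arc a).choose '' Icc 0 1 := ⟨t, ht, rfl⟩
    rw [(B.arc a).choose_spec.2.2.1] at h2
    have h3' : cb F.1 (chP R b) ((B.arc a).choose t) = 0 := by
      rcases mul_eq_zero.1 h0 with h4 | h4
      · exact absurd h4 (sg_ne _)
      · exact h4
    have h4 : (B.arc a).choose t ∈ (B.arc b).choose '' Icc 0 1 := by
      rw [(B.arc b).choose_spec.2.2.1]; exact ⟨h2.1, h3'⟩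
    obtain ⟨t', ht', e⟩ := h4
    exact ⟨t', ht', e.symm⟩
  s0 a b hab := by
    have e : (B.arc a).choose 0 = pt a.1 := (B.arc a).choose_spec.2.2.2.1
    rw [e]
    have h1 := B.sign a.1 a.2.1 b (not_ch hab)
    rw [nl_kp b a.2.1 (not_ch hab)] at h1
    exact sg_sign h1
  s1 a b hab := by
    have e : (B.arc a).choose 1 = pt (r.mu F a.1) := (B.arc a).choose_spec.2.2.2.2
    rw [e]
    have h1 := B.sign (r.mu F a.1) (At.mu r a.2.1) b (not_ch' hab)
    rw [nl_kp b (At.mu r a.2.1) (not_ch' hab)] at h1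
    exact sg_sign h1

/-- the picture of the boundary of the tile -/
noncomputable def fg (B : ∀ F, q ∈ (meshC T h3).side F → BG h R K cb pt F) : FG r q E where
  G F hF := geoD (B F hF)
  pt := pt
  e0 F hF a := ((B F hF).arc a).choose_spec.2.2.2.1
  e1 F hF a := ((B F hF).arc a).choose_spec.2.2.2.2

/-- the band function of a chord vanishes on its sub-arcs -/
lemma cuP_own (B : ∀ F, q ∈ (meshC T h3).side F → BG h R K cb pt F) (p : Qq r q) {z : E}
    (hz : z ∈ (fg B).cuP p) : z ∈ K (chd p.1.2).1.1 ∧ cb _ (chP R (pch p.1.2)) z = 0 := by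
  obtain ⟨t, ht, rfl⟩ := hz
  have h2 : ((B _ p.2).arc (pch p.1.2)).choose t ∈
      ((B _ p.2).arc (pch p.1.2)).choose '' Icc 0 1 := ⟨t, ht.1, rfl⟩
  rw [((B _ p.2).arc (pch p.1.2)).choose_spec.2.2.1] at h2
  exact h2

/-- the relation between the band functions of the tile and of its faces -/
def R2 (h : LF s) (q : ι) (c : T.Cell) (K : T.Cell → Set E)
    (cb : ∀ c : T.Cell, Pc s c → E → ℝ) : Prop :=
  ∀ (F : C2 T) (hF : F.1 ≤ c), q ∈ (meshC T h3).side F → ∀ (x : Pc s c) (Y : Finset (Pc s F.1)),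
    (∀ y, y ∈ Y ↔ pup s hF y = x) → ∀ z ∈ K F.1,
      -2 * cb c x z = sg (nl h c x (bv F.1)) * ∏ y ∈ Y, (-2 * cb F.1 y z)

lemma face_le (hc : c.set = Msh_715.P (T.H q)) {F : C2 T} (hF : q ∈ (meshC T h3).side F) :
    F.1 ≤ c := Tiling.Cell.le_def.2 (face_sub hc hF)

lemma r2_chs (hr : R2 h q c K cb) (hc : c.set = Msh_715.P (T.H q)) {x : Pc s c}
    (hx : ∀ w ∈ pts h c x, w ∈ r.P) {F : C2 T} (hF : q ∈ (meshC T h3).side F) {z : E}
    (hz : z ∈ K F.1) : -2 * cb c x z =
      sg (nl h c x (bv F.1)) * ∏ a ∈ chs h x r F, (-2 * cb F.1 (chP R a) z) := by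
  classical
  have := h.pc F.1
  let _ : Fintype (Pc s F.1) := Fintype.ofFinite _
  have hle := face_le hc hF
  let Y : Finset (Pc s F.1) := Finset.univ.filter (fun y => pup s hle y = x)
  have hY : ∀ y, y ∈ Y ↔ pup s hle y = x := fun y =>
    ⟨fun h => (Finset.mem_filter.1 h).2, fun h => Finset.mem_filter.2 ⟨Finset.mem_univ _, h⟩⟩
  rw [hr F hle hF x Y hY z hz, prod_chs R hx hle Y hY]

/-- the band function of the own cycle vanishes -/
lemma own_zero (hr : R2 h q c K cb) (hc : c.set = Msh_715.P (T.H q))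
    (B : ∀ F, q ∈ (meshC T h3).side F → BG h R K cb pt F) (p : Qq r q) {z : E}
    (hz : z ∈ (fg B).cuP p) : cb c (cyc R hc p) z = 0 := by
  have h1 := cuP_own B p hz
  have h2 := r2_chs (R := R) hr hc (pts_P' R hc h p) p.2 h1.1
  have h3' : ∏ a ∈ chs h (cyc R hc p) r (chd p.1.2).1,
      (-2 * cb (chd p.1.2).1.1 (chP R a) z) = 0 := by
    refine Finset.prod_eq_zero (i := pch p.1.2) ?_ ?_
    · rw [mem_chs]
      exact (mem_pts_cyc R hc h p _).2 rfl
    · rw [h1.2, mul_zero]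
  rw [h3', mul_zero] at h2
  linarith

/-- **the sign of the band function of another cycle is its inside function** -/
theorem side_nonneg (hr : R2 h q c K cb) (hc : c.set = Msh_715.P (T.H q))
    (B : ∀ F, q ∈ (meshC T h3).side F → BG h R K cb pt F) (p : Qq r q) {x : Pc s c}
    (hx : ∀ w ∈ pts h c x, w ∈ r.P) (hp : (chd p.1.2).2 ∉ pts h c x) {z : E}
    (hz : z ∈ (fg B).cuP p) (i : Bool) : 0 ≤ sg (inS h x p i) * (-2 * cb c x z) := by
  classical
  have h1 := cuP_own B p hz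
  have h2 := r2_chs (R := R) hr hc hx p.2 h1.1
  set F := (chd p.1.2).1 with hF
  set k := rk r F (start p.1.2) with hk
  rw [inS_count p i hp, sg_add, h2]
  have hkap : Cm_117.kap h x F = nl h c x (bv F.1) + ∑ a ∈ chs h x r F, kp h R a := by
    unfold Cm_117.kap kp
    rw [lamF_chs R hx (face_le hc p.2) (bv F.1)]
  rw [hkap, sg_add, sg_sum, sg_sum]
  have e1 : sg (nl h c x (bv F.1)) * (∏ a ∈ chs h x r F, sg (kp h R a)) *
      (∏ a ∈ chs h x r F, sg ((dg r F).ep a (pch p.1.2) k)) *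
      (sg (nl h c x (bv F.1)) * ∏ a ∈ chs h x r F, (-2 * cb F.1 (chP R a) z)) =
      (sg (nl h c x (bv F.1)) * sg (nl h c x (bv F.1))) *
      ∏ a ∈ chs h x r F, (sg ((dg r F).ep a (pch p.1.2) k) *
        (-2 * (sg (kp h R a) * cb F.1 (chP R a) z))) := by
    rw [Finset.prod_mul_distrib, Finset.prod_mul_distrib, Finset.prod_mul_distrib,
      Finset.prod_mul_distrib]
    ring
  rw [e1, sg_sq, one_mul]
  apply Finset.prod_nonneg
  intro a ha
  have hne : a ≠ pch p.1.2 := by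
    intro h'
    rw [mem_chs, h'] at ha
    exact hp ha
  have h4 := (geoD (B _ p.2)).cu_side hne hz
  rcases GeoD.z2 ((dg r F).ep a (pch p.1.2) k) with h5 | h5
  · rw [h5, sg_zero, one_mul]
    have h6 : sg (kp h R a) * cb F.1 (chP R a) z ≤ 0 := h4.2 h5
    linarith
  · rw [h5, sg_one]
    have h6 : 0 ≤ sg (kp h R a) * cb F.1 (chP R a) z := h4.1 h5
    linarith

/-- the cycle of colour `b` at a double point -/
noncomputable def cyZ (R : ResOf s r) (hc : c.set = Msh_715.P (T.H q)) (z : Zq r q) (b : Bool) :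
    Pc s c := Quot.mk _ ⟨z.1.e b, ptc R hc (z.1.at_ b) z.2⟩

lemma cyZ_eq (hc : c.set = Msh_715.P (T.H q)) (z : Zq r q) (b j : Bool) :
    cyc R hc (pcQ (Sum.inl (z, b, j))) = cyZ R hc z b := cyc_dj R hc z.2 b j

/-- **(D2)** the two ends of an arc of the pairing lie in one connected part of
`{c_y = 0, 0 ≤ c_x}` on the boundary of the tile (`y` = deeper, `x` = shallower cycle at `z`) -/
theorem run_tile (S : SphM (meshC T h3) q) (hc : c.set = Msh_715.P (T.H q))
    {rk : Pc s c → ℕ} (hinj : Function.Injective rk) (hord : Ord h c rk)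
    (B : ∀ F, q ∈ (meshC T h3).side F → BG h R K cb pt F) (hr : R2 h q c K cb)
    (z : Zq r q) {b : Bool} (hb : rk (cyZ R hc z b) < rk (cyZ R hc z (!b))) :
    ∃ A ⊆ {v | (∃ F : C2 T, q ∈ (meshC T h3).side F ∧ v ∈ K F.1) ∧ cb c (cyZ R hc z b) v = 0 ∧
        0 ≤ cb c (cyZ R hc z (!b)) v},
      IsPreconnected A ∧ (fg B).vz z ∈ A ∧
        (fg B).vz ((depC S R hc h rk hinj hord).arc z) ∈ A := by
  set Ed := depC S R hc h rk hinj hord with hE
  have hkz : ∀ (u : Zq r q) (b : Bool), Ed.kz u b = rk (cyZ R hc u b) := by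
    intro u b
    show rk (cyc R hc ((arr S r).pc u b false)) = _
    have : (arr S r).pc u b false = pcQ (Sum.inl (u, b, false)) := rfl
    rw [this, cyZ_eq]
  have hdc : Ed.dc z = b := Ed.dc_eq (by rw [hkz, hkz]; exact hb)
  have hdy : Ed.dy z = rk (cyZ R hc z b) := by
    show Ed.kz z (Ed.dc z) = _
    rw [hdc, hkz]
  have hsx : Ed.sx z = rk (cyZ R hc z (!b)) := by
    show Ed.kz z (!Ed.dc z) = _
    rw [hdc, hkz]
  refine Ed.run_conn ((fg B).pic S) z ?_
  intro p hk hI v hv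
  have hk' : rk (cyc R hc p) = rk (cyZ R hc z b) := hk.trans hdy
  have hcy : cyc R hc p = cyZ R hc z b := hinj hk'
  have hv' : v ∈ (fg B).cuP p := hv
  refine ⟨⟨_, p.2, (cuP_own B p hv').1⟩, ?_, ?_⟩
  · rw [← hcy]
    exact own_zero hr hc B p hv'
  · -- the inside function
    have hx : cyc R hc (pcQ (Sum.inl (z, !b, false))) = cyZ R hc z (!b) := cyZ_eq hc z (!b) false
    have hI1 : inS h (cyZ R hc z (!b)) p true = 1 := by
      have h1 := hI true
      rw [hsx, ← hx] at h1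
      have h2 := (cycs S R hc h).dep_I rk (fun _ _ h' => hinj h')
        (fun p p' => lam_dep S R hc h hord p p') (pcQ (Sum.inl (z, !b, false)))
      have h4 : Ed.I (rk (cyc R hc (pcQ (Sum.inl (z, !b, false))))) =
        inS h (cyc R hc (pcQ (Sum.inl (z, !b, false)))) := h2
      rw [h4, hx] at h1
      exact h1
    have hxP : ∀ w ∈ pts h c (cyZ R hc z (!b)), w ∈ r.P := by
      rw [← hx]
      exact pts_P' R hc h _
    have hp : (chd p.1.2).2 ∉ pts h c (cyZ R hc z (!b)) := by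
      intro h'
      have h1 := (mem_pts_cyc R hc h p _).1 h'
      rw [hcy] at h1
      rw [h1] at hb
      exact lt_irrefl _ hb
    have h5 := side_nonneg hr hc B p hxP hp hv' true
    rw [hI1, sg_one] at h5
    linarith

/-- the double point on its face -/
lemma vz_mem (B : ∀ F, q ∈ (meshC T h3).side F → BG h R K cb pt F) (z : Zq r q) (b : Bool) :
    (fg B).vz z ∈ K z.1.F.1 ∧ cb z.1.F.1 (chP R (cz z.1 b)) ((fg B).vz z) = 0 := by
  rw [(fg B).vz_eq z b]
  have h1 := (geoD (B _ z.2)).cr_mem (cz_X z.1 b)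
  have h2 : ((B _ z.2).arc (cz z.1 b)).choose ((geoD (B _ z.2)).cr (cz z.1 b) (cz z.1 (!b))) ∈
      ((B _ z.2).arc (cz z.1 b)).choose '' Icc 0 1 := ⟨_, h1, rfl⟩
  rw [((B _ z.2).arc (cz z.1 b)).choose_spec.2.2.1] at h2
  exact h2

/-- the double point is the only common point of its two chords -/
lemma vz_unique (B : ∀ F, q ∈ (meshC T h3).side F → BG h R K cb pt F) (z : Zq r q) {v : E}
    (hv : v ∈ K z.1.F.1) (h0 : ∀ b, cb z.1.F.1 (chP R (cz z.1 b)) v = 0) : v = (fg B).vz z := by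
  obtain ⟨p, hp⟩ := (B _ z.2).one _ _ (cz_X z.1 true)
  have h1 : v ∈ ({p} : Set E) := by rw [← hp]; exact ⟨hv, h0 true, h0 false⟩
  have h2 : (fg B).vz z ∈ ({p} : Set E) := by
    rw [← hp]; exact ⟨(vz_mem B z true).1, (vz_mem B z true).2, (vz_mem B z false).2⟩
  rw [h1, h2]

/-- both ends of an arc are on the same closed cycles -/
lemma cyZ_arc (S : SphM (meshC T h3) q) (hc : c.set = Msh_715.P (T.H q))
    {rk : Pc s c → ℕ} (hinj : Function.Injective rk) (hord : Ord h c rk) (z : Zq r q) (b : Bool) :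
    cyZ R hc ((depC S R hc h rk hinj hord).arc z) b = cyZ R hc z b := by
  have hkz : ∀ (u : Zq r q) (b : Bool),
      (depC S R hc h rk hinj hord).kz u b = rk (cyZ R hc u b) := by
    intro u b
    show rk (cyc R hc ((arr S r).pc u b false)) = _
    have : (arr S r).pc u b false = pcQ (Sum.inl (u, b, false)) := rfl
    rw [this, cyZ_eq]
  apply hinj
  rw [← hkz, ← hkz]
  exact (depC S R hc h rk hinj hord).kz_arc z b

end Crest.Agent.R096.Gr_117
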