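import Crest.Agent.R096.Grd7_714

/-!
# R096 (row 96), GRID, part 10 (helper714): homotheties about the centres, comparison of `Tq` and `T`
-/

set_option autoImplicit false
set_option linter.unusedSectionVars false
set_option linter.unusedVariables false

open Set

namespace Crest.Agent.R096.Grd_714

open Crest.Agent.R096.Brk1_582 Crest.Agent.R096.Brk2_582 Crest.Agent.R096.Brk6_582

variable {E : Type*} [NormedAddCommGroup E] [NormedSpace ℝ E] {I : Type*}
variable {b : Set I → E} {P : I → Set E} {m : I → ℕ}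

/-- boxes are convex -/
theorem Gx.convex_bx {q : Gx P m} {g g' : I → ℝ} (hg : g ∈ q.bx) (hg' : g' ∈ q.bx) {μ : ℝ}
    (h0 : 0 ≤ μ) (h1 : μ ≤ 1) : g' + μ • (g - g') ∈ q.bx := by
  intro c
  have a := hg c
  have a' := hg' c
  simp only [Pi.add_apply, Pi.smul_apply, Pi.sub_apply, smul_eq_mul]
  constructor
  · nlinarith [a.1, a.2, a'.1, a'.2]
  · nlinarith [a.1, a.2, a'.1, a'.2]

theorem Fr.tl_ctr (X : Fr E) (s t μ : ℝ) (h0 : 0 ≤ μ) :
    X.tl (1 / 2 + μ * (s - 1 / 2), 1 / 2 + μ * (t - 1 / 2)) =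
      X.tl (1 / 2, 1 / 2) + μ • (X.tl (s, t) - X.tl (1 / 2, 1 / 2)) := by
  have hmin : min (1 / 2 + μ * (s - 1 / 2)) (1 / 2 + μ * (t - 1 / 2)) =
      1 / 2 + μ * (min s t - 1 / 2) := by
    rcases le_total s t with h | h
    · rw [min_eq_left h, min_eq_left (by nlinarith)]
    · rw [min_eq_right h, min_eq_right (by nlinarith)]
  simp only [Fr.tl, Fr.pt, tw, hmin, min_self]
  module

section foam

variable {La : Set E} [CompleteSpace E] (F : Foam La P b 4)
include F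
variable (hQ : Quads P b)
include hQ

/-- **`Tq` commutes with the homotheties about the centre of a cell** -/
theorem Tq_ctr (hm : ∀ c, 0 < m c) (q : Gx P m) {g : I → ℝ} (hg : g ∈ q.bx) {μ : ℝ} (h0 : 0 ≤ μ)
    (h1 : μ ≤ 1) : Tq b m (q.ctr + μ • (g - q.ctr)) =
      Tq b m q.ctr + μ • (Tq b m g - Tq b m q.ctr) := by
  have hc := q.ctr_mem.1
  have hg' := Gx.convex_bx hg hc h0 h1
  rcases q.free_cases F hm with hf | ⟨c1, hf⟩ | ⟨c1, c2, hne, hf⟩
  · have e : g = q.ctr := by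
      funext c
      rw [Gx.eq_of_mem (by rw [hf]; simp) hg, Gx.eq_of_mem (by rw [hf]; simp) hc]
    rw [e, sub_self, smul_zero, add_zero, sub_self, smul_zero, add_zero]
  · obtain ⟨p, f, -, hpf⟩ := frame1 F hQ hm q hf
    rw [hpf _ hg', hpf _ hg, hpf _ hc]
    simp only [Pi.add_apply, Pi.smul_apply, Pi.sub_apply, smul_eq_mul]
    module
  · obtain ⟨X, hX⟩ := frame2 F hQ hm q hne hf
    rw [hX _ hg', hX _ hg, hX _ hc]
    have m1 : c1 ∈ q.free := by rw [hf]; simp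
    have m2 : c2 ∈ q.free := by rw [hf]; simp
    have l1 : (q.hi c1 : ℝ) = q.lo c1 + 1 := by exact_mod_cast Gx.hi_eq m1
    have l2 : (q.hi c2 : ℝ) = q.lo c2 + 1 := by exact_mod_cast Gx.hi_eq m2
    have e1 : (q.hi c1 : ℝ) - q.ctr c1 = 1 / 2 := by unfold Gx.ctr; rw [l1]; ring
    have e2 : (q.hi c2 : ℝ) - q.ctr c2 = 1 / 2 := by unfold Gx.ctr; rw [l2]; ring
    rw [e1, e2, ← X.tl_ctr _ _ _ h0]
    congr 1
    refine Prod.ext ?_ ?_
    · simp only [Pi.add_apply, Pi.smul_apply, Pi.sub_apply, smul_eq_mul]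
      linear_combination (1 - μ) * e1
    · simp only [Pi.add_apply, Pi.smul_apply, Pi.sub_apply, smul_eq_mul]
      linear_combination (1 - μ) * e2

end foam

/-! ### comparison of `Tq` and `T` -/

/-- the interpolation at the integer points -/
theorem itp_int (ν : ℕ → ℕ → ℝ) (i j : ℕ) : itp ν ((i : ℝ), (j : ℝ)) = ν i j := by
  simp [itp, itc]

/-- **`Tq = T` at the points with integer coordinates in the active directions** -/
theorem Tq_int (hm : ∀ c, 0 < m c) {g : I → ℝ}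
    (h : ∀ c, 0 < g c → g c < m c → ∃ n : ℕ, g c = n) : Tq b m g = T b (lv m g) := by
  by_cases hav : ∃ c1 c2 : I, c1 ≠ c2 ∧ av (lv m g) = {c1, c2}
  · obtain ⟨c1, c2, hne, hav⟩ := hav
    rw [Tq, Bn_eq (sym_Nm m) hne hav]
    have m1 : c1 ∈ av (lv m g) := by rw [hav]; simp
    have m2 : c2 ∈ av (lv m g) := by rw [hav]; simp
    have pos : ∀ c ∈ av (lv m g), 0 < g c ∧ g c < m c := by
      intro c hc
      have hmc : (0 : ℝ) < m c := by exact_mod_cast hm c
      refine ⟨?_, (lv_lt_one hm).1 hc.2⟩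
      have := hc.1
      simp only [lv] at this
      by_contra h3
      push Not at h3
      exact absurd this (not_lt.2 (div_nonpos_of_nonpos_of_nonneg h3 hmc.le))
    obtain ⟨n1, e1⟩ := h c1 (pos c1 m1).1 (pos c1 m1).2
    obtain ⟨n2, e2⟩ := h c2 (pos c2 m2).1 (pos c2 m2).2
    have p1 : (0 : ℝ) < m c1 := by exact_mod_cast hm c1
    have p2 : (0 : ℝ) < m c2 := by exact_mod_cast hm c2
    have eN : Nm m c1 c2 (1 - lv m g c1, 1 - lv m g c2) =
        min (1 - lv m g c1) (1 - lv m g c2) := by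
      have : Nm m c1 c2 (1 - lv m g c1, 1 - lv m g c2) =
          itp (nu (m c1) (m c2)) ((n1 : ℝ), (n2 : ℝ)) := by
        simp only [Nm, Nf, lv]
        congr 1
        refine Prod.ext ?_ ?_
        · simp only; rw [e1]; field_simp; ring
        · simp only; rw [e2]; field_simp; ring
      rw [this, itp_int, nu]
      simp only [lv, e1, e2]
    rw [eN, sub_self, zero_smul, add_zero]
  · rw [Tq, Bn, dif_neg hav]

/-- **`Tq = T` in a quad which is a parallelogram** -/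
theorem Tq_par {g : I → ℝ} (h : ∀ c1 c2, c1 ≠ c2 → av (lv m g) = {c1, c2} →
    b {c | lv m g c < 1} + b {c | lv m g c = 0} =
      b (insert c1 {c | lv m g c = 0}) + b (insert c2 {c | lv m g c = 0})) :
    Tq b m g = T b (lv m g) := by
  by_cases hav : ∃ c1 c2 : I, c1 ≠ c2 ∧ av (lv m g) = {c1, c2}
  · obtain ⟨c1, c2, hne, hav⟩ := hav
    rw [Tq, Bn_eq (sym_Nm m) hne hav, h c1 c2 hne hav, add_sub_cancel_left, sub_self, smul_zero,
      add_zero]
  · rw [Tq, Bn, dif_neg hav]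

/-- for equal numbers of levels the heights are `min` -/
theorem Nf_self {n : ℕ} (hn : 0 < n) {w : ℝ × ℝ} (hw : w ∈ Sc) : Nf n n w = min w.1 w.2 := by
  have hn' : (0 : ℝ) < n := by exact_mod_cast hn
  set g1 : ℝ := n * (1 - w.1) with hg1
  set g2 : ℝ := n * (1 - w.2) with hg2
  have k1 : g1 ∈ Icc (0 : ℝ) n := ⟨mul_nonneg hn'.le (by linarith [hw.1.2]), by
    nlinarith [hw.1.1]⟩
  have k2 : g2 ∈ Icc (0 : ℝ) n := ⟨mul_nonneg hn'.le (by linarith [hw.2.2]), by
    nlinarith [hw.2.1]⟩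
  have e1 : w.1 = 1 - g1 / n := by rw [hg1]; field_simp; ring
  have e2 : w.2 = 1 - g2 / n := by rw [hg2]; field_simp; ring
  obtain ⟨p, hp, hp'⟩ := exists_cell hn k1
  obtain ⟨q, hq, hq'⟩ := exists_cell hn k2
  have hI : Nf n n w = itc (nu n n) p (p + 1) q (q + 1) (g1, g2) :=
    itp_box (nu n n) (i' := p) (i := p + 1) (j' := q) (j := q + 1) (by omega) le_rfl (by omega)
      le_rfl hp'.1 (by push_cast; exact hp'.2) hq'.1 (by push_cast; exact hq'.2)
  rw [hI, e1, e2]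
  have dv : ∀ {x y : ℝ}, x ≤ y → 1 - y / n ≤ 1 - x / n := fun h => by
    have := (div_le_div_iff_of_pos_right hn').2 h
    linarith
  have val1 : ∀ i j : ℕ, i ≤ j → nu n n i j = 1 - (j : ℝ) / n := fun i j h =>
    min_eq_right (dv (by exact_mod_cast h))
  have val2 : ∀ i j : ℕ, j ≤ i → nu n n i j = 1 - (i : ℝ) / n := fun i j h =>
    min_eq_left (dv (by exact_mod_cast h))
  rcases lt_trichotomy p q with h | h | h
  · have hpq : ((p : ℝ) + 1) ≤ q := by exact_mod_cast h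
    rw [min_eq_right (dv (by linarith [hp'.2, hq'.1]))]
    simp only [itc]
    rw [val1 (p + 1) (q + 1) (by omega), val1 (p + 1) q (by omega), val1 p (q + 1) (by omega),
      val1 p q (by omega)]
    push_cast
    ring
  · subst h
    simp only [itc]
    rw [val1 (p + 1) (p + 1) le_rfl, val2 (p + 1) p (by omega), val1 p (p + 1) (by omega),
      val1 p p le_rfl]
    rcases le_total g1 g2 with h | h
    · rw [min_eq_right (dv h), min_eq_right (by linarith)]
      push_cast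
      ring
    · rw [min_eq_left (dv h), min_eq_left (by linarith)]
      push_cast
      ring
  · have hpq : ((q : ℝ) + 1) ≤ p := by exact_mod_cast h
    rw [min_eq_left (dv (by linarith [hq'.2, hp'.1]))]
    simp only [itc]
    rw [val2 (p + 1) (q + 1) (by omega), val2 (p + 1) q (by omega), val2 p (q + 1) (by omega),
      val2 p q (by omega)]
    push_cast
    ring

/-- the interpolated heights are near `min` -/
theorem abs_Nf_sub {n1 n2 : ℕ} (h1 : 0 < n1) (h2 : 0 < n2) {w : ℝ × ℝ} (hw : w ∈ Sc) :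
    |Nf n1 n2 w - min w.1 w.2| ≤ 1 / n1 + 1 / n2 := by
  have hn1 : (0 : ℝ) < n1 := by exact_mod_cast h1
  have hn2 : (0 : ℝ) < n2 := by exact_mod_cast h2
  set g1 : ℝ := n1 * (1 - w.1) with hg1
  set g2 : ℝ := n2 * (1 - w.2) with hg2
  have k1 : g1 ∈ Icc (0 : ℝ) n1 := ⟨mul_nonneg hn1.le (by linarith [hw.1.2]), by
    nlinarith [hw.1.1]⟩
  have k2 : g2 ∈ Icc (0 : ℝ) n2 := ⟨mul_nonneg hn2.le (by linarith [hw.2.2]), by
    nlinarith [hw.2.1]⟩
  have e1 : w.1 = 1 - g1 / n1 := by rw [hg1]; field_simp; ring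
  have e2 : w.2 = 1 - g2 / n2 := by rw [hg2]; field_simp; ring
  have hI : Nf n1 n2 w = itp (nu n1 n2) (g1, g2) := rfl
  set i := ⌈g1⌉₊ with hi
  set j := ⌈g2⌉₊ with hj
  have i1 : g1 ≤ i := Nat.le_ceil _
  have j1 : g2 ≤ j := Nat.le_ceil _
  have i2 : (i : ℝ) < g1 + 1 := Nat.ceil_lt_add_one k1.1
  have j2 : (j : ℝ) < g2 + 1 := Nat.ceil_lt_add_one k2.1
  have i3 : (i : ℝ) ≤ n1 := by exact_mod_cast Nat.ceil_le.2 k1.2
  have j3 : (j : ℝ) ≤ n2 := by exact_mod_cast Nat.ceil_le.2 k2.2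
  have a1 := itp_m1 h1 h2 k1.1 i1 i3 k2
  have a2 := itp_m2 h1 h2 k2.1 j1 j3 (x := (i : ℝ)) ⟨Nat.cast_nonneg _, i3⟩
  rw [itp_int] at a2
  have d1 : ((i : ℝ) - g1) / n1 ≤ 1 / n1 := (div_le_div_iff_of_pos_right hn1).2 (by linarith)
  have d2 : ((j : ℝ) - g2) / n2 ≤ 1 / n2 := (div_le_div_iff_of_pos_right hn2).2 (by linarith)
  have c1 : 1 - (i : ℝ) / n1 ≤ 1 - g1 / n1 := by
    have := (div_le_div_iff_of_pos_right hn1).2 i1
    linarith
  have c2 : 1 - (j : ℝ) / n2 ≤ 1 - g2 / n2 := by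
    have := (div_le_div_iff_of_pos_right hn2).2 j1
    linarith
  have c3 : 1 - g1 / n1 ≤ 1 - (i : ℝ) / n1 + 1 / n1 := by
    have : ((i : ℝ) - g1) / n1 = (i : ℝ) / n1 - g1 / n1 := by ring
    linarith
  have c4 : 1 - g2 / n2 ≤ 1 - (j : ℝ) / n2 + 1 / n2 := by
    have : ((j : ℝ) - g2) / n2 = (j : ℝ) / n2 - g2 / n2 := by ring
    linarith
  have p1 : 0 < 1 / (n1 : ℝ) := one_div_pos.2 hn1
  have p2 : 0 < 1 / (n2 : ℝ) := one_div_pos.2 hn2
  have b1 : nu n1 n2 i j ≤ min w.1 w.2 := by rw [e1, e2]; exact min_le_min c1 c2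
  have b2 : min w.1 w.2 ≤ nu n1 n2 i j + (1 / n1 + 1 / n2) := by
    rw [e1, e2, nu, min_add]
    exact min_le_min (by linarith) (by linarith)
  rw [hI, abs_le]
  constructor <;> linarith

/-- `Tq` is near `T` -/
theorem norm_Tq_sub_T (hm : ∀ c, 0 < m c) {g : I → ℝ} (hg : ∀ c, 0 ≤ g c ∧ g c ≤ m c) {c1 c2 : I}
    (hne : c1 ≠ c2) (hav : av (lv m g) = {c1, c2}) :
    ‖Tq b m g - T b (lv m g)‖ ≤ (1 / m c1 + 1 / m c2) *
      ‖b {c | lv m g c < 1} + b {c | lv m g c = 0} - b (insert c1 {c | lv m g c = 0}) -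
        b (insert c2 {c | lv m g c = 0})‖ := by
  have hlv : ∀ c, lv m g c ∈ Icc (0 : ℝ) 1 := fun c =>
    ⟨(lv_nonneg hm).2 (hg c).1, (lv_le_one hm).2 (hg c).2⟩
  rw [Tq, Bn_eq (sym_Nm m) hne hav, add_sub_cancel_left, norm_smul]
  refine mul_le_mul_of_nonneg_right ?_ (norm_nonneg _)
  rw [Real.norm_eq_abs]
  exact abs_Nf_sub (hm c1) (hm c2) ⟨⟨by simp only; linarith [(hlv c1).2], by
    simp only; linarith [(hlv c1).1]⟩, ⟨by simp only; linarith [(hlv c2).2], by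
    simp only; linarith [(hlv c2).1]⟩⟩

/-- **`Tq = T` when all numbers of levels are equal in the quad** -/
theorem Tq_eq_T (hm : ∀ c, 0 < m c) {g : I → ℝ} (hg : ∀ c, 0 ≤ g c ∧ g c ≤ m c)
    (h : ∀ c1 c2, c1 ≠ c2 → av (lv m g) = {c1, c2} → m c1 = m c2) :
    Tq b m g = T b (lv m g) := by
  by_cases hav : ∃ c1 c2 : I, c1 ≠ c2 ∧ av (lv m g) = {c1, c2}
  · obtain ⟨c1, c2, hne, hav⟩ := hav
    have hlv : ∀ c, lv m g c ∈ Icc (0 : ℝ) 1 := fun c =>
      ⟨(lv_nonneg hm).2 (hg c).1, (lv_le_one hm).2 (hg c).2⟩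
    have hN : Nm m c1 c2 (1 - lv m g c1, 1 - lv m g c2) =
        min (1 - lv m g c1) (1 - lv m g c2) := by
      rw [Nm, h c1 c2 hne hav]
      exact Nf_self (hm c2) ⟨⟨by simp only; linarith [(hlv c1).2], by
        simp only; linarith [(hlv c1).1]⟩, ⟨by simp only; linarith [(hlv c2).2], by
        simp only; linarith [(hlv c2).1]⟩⟩
    rw [Tq, Bn_eq (sym_Nm m) hne hav, hN, sub_self, zero_smul, add_zero]
  · rw [Tq, Bn, dif_neg hav]

end Crest.Agent.R096.Grd_714
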