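import Mathlib

/-!
# R096 (row 96), GRID, part 1 (helper714): the planar bilinear quadrilateral

Coordinates `(a, b)` relative to the corner `C`: `C = (0,0)`, `P' = (1,0)`, `P = (0,1)`,
`v = (1 + α, 1 + β)` with `-1 < α`, `-1 < β`, `-1 ≤ α + β` (convex quadrilateral, 180 degrees are
allowed at `v`).  `w = (1,1)` is `v`, `w = (0,0)` is `C`.
`bil α β w = (w₂ (1 + α w₁), w₁ (1 + β w₂))`.
-/

set_option autoImplicit false

open Set

namespace Crest.Agent.R096.Grd_714

/-- shape of a quadrilateral -/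
structure Shp (α β : ℝ) : Prop where
  ha : -1 < α
  hb : -1 < β
  hs : -1 ≤ α + β

/-- the bilinear chart -/
def bil (α β : ℝ) (w : ℝ × ℝ) : ℝ × ℝ := (w.2 * (1 + α * w.1), w.1 * (1 + β * w.2))

/-- equation of the line `w₁ = c` -/
def F1 (α β c : ℝ) (p : ℝ × ℝ) : ℝ := (1 + α * c) * (p.2 - c) - β * c * p.1

/-- equation of the line `w₂ = c` -/
def F2 (α β c : ℝ) (p : ℝ × ℝ) : ℝ := (1 + β * c) * (p.1 - c) - α * c * p.2

theorem F1_bil (α β c : ℝ) (w : ℝ × ℝ) :
    F1 α β c (bil α β w) = (w.1 - c) * (1 + α * c + β * w.2) := by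
  simp only [F1, bil]; ring

theorem F2_bil (α β c : ℝ) (w : ℝ × ℝ) :
    F2 α β c (bil α β w) = (w.2 - c) * (1 + β * c + α * w.1) := by
  simp only [F2, bil]; ring

section pos

variable {α β : ℝ} (h : Shp α β)

include h

theorem Shp.swap : Shp β α := ⟨h.hb, h.ha, by linarith [h.hs]⟩

theorem Shp.one_add_pos {c : ℝ} (h0 : 0 ≤ c) (h1 : c ≤ 1) : 0 < 1 + α * c := by
  have ha := h.ha
  have e : 1 + α * c = (1 - c) + c * (1 + α) := by ring
  rw [e]
  rcases h0.eq_or_lt with rfl | h0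
  · norm_num
  · have := mul_pos h0 (show 0 < 1 + α by linarith)
    linarith

theorem Shp.pos1 {c w : ℝ} (hc0 : 0 ≤ c) (hc1 : c < 1) (hw0 : 0 ≤ w) (hw1 : w ≤ 1) :
    0 < 1 + α * c + β * w := by
  have h1 := h.ha
  have h2 := h.hb
  have h3 := h.hs
  have e : 1 + α * c + β * w = (1 - c) * (1 - w) + (1 - w) * c * (1 + α) +
      (1 - c) * w * (1 + β) + c * w * (1 + α + β) := by ring
  rw [e]
  have t4 : 0 ≤ c * w * (1 + α + β) := by
    apply mul_nonneg (mul_nonneg hc0 hw0); linarith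
  have t2 : 0 ≤ (1 - w) * c * (1 + α) := by
    apply mul_nonneg (mul_nonneg (by linarith) hc0); linarith
  have t3 : 0 ≤ (1 - c) * w * (1 + β) := by
    apply mul_nonneg (mul_nonneg (by linarith) hw0); linarith
  have t1 : 0 ≤ (1 - c) * (1 - w) := mul_nonneg (by linarith) (by linarith)
  rcases hw1.eq_or_lt with rfl | hw
  · have : 0 < (1 - c) * 1 * (1 + β) := by
      apply mul_pos (by linarith); linarith
    linarith
  · have : 0 < (1 - c) * (1 - w) := mul_pos (by linarith) (by linarith)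
    linarith

theorem Shp.pos1' {c w : ℝ} (hc0 : 0 ≤ c) (hc1 : c ≤ 1) (hw0 : 0 ≤ w) (hw1 : w < 1) :
    0 < 1 + α * c + β * w := by
  have := h.swap.pos1 hw0 hw1 hc0 hc1
  linarith

theorem Shp.nonneg1 {c w : ℝ} (hc0 : 0 ≤ c) (hc1 : c ≤ 1) (hw0 : 0 ≤ w) (hw1 : w ≤ 1) :
    0 ≤ 1 + α * c + β * w := by
  rcases hc1.eq_or_lt with rfl | hc
  · rcases hw1.eq_or_lt with rfl | hw
    · linarith [h.hs]
    · exact (h.pos1' hc0 le_rfl hw0 hw).le
  · exact (h.pos1 hc0 hc hw0 hw1).le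

/-- the bilinear chart is injective on the square -/
theorem bil_inj {w w' : ℝ × ℝ} (h1 : w.1 ∈ Icc (0 : ℝ) 1) (h2 : w.2 ∈ Icc (0 : ℝ) 1)
    (h1' : w'.1 ∈ Icc (0 : ℝ) 1) (h2' : w'.2 ∈ Icc (0 : ℝ) 1)
    (he : bil α β w = bil α β w') : w = w' := by
  have e1 := F1_bil α β w'.1 w
  rw [he, F1_bil, sub_self, zero_mul] at e1
  have e2 := F2_bil α β w'.2 w
  rw [he, F2_bil, sub_self, zero_mul] at e2
  have e3 := F1_bil α β w.1 w'
  rw [← he, F1_bil, sub_self, zero_mul] at e3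
  have e4 := F2_bil α β w.2 w'
  rw [← he, F2_bil, sub_self, zero_mul] at e4
  have key1 : w.1 = w'.1 := by
    by_contra hne
    have hd : w.1 - w'.1 ≠ 0 := sub_ne_zero.2 hne
    have hd' : w'.1 - w.1 ≠ 0 := sub_ne_zero.2 (Ne.symm hne)
    have f1 : 1 + α * w'.1 + β * w.2 = 0 := by
      rcases mul_eq_zero.1 e1.symm with h | h
      · exact absurd h hd
      · exact h
    have f3 : 1 + α * w.1 + β * w'.2 = 0 := by
      rcases mul_eq_zero.1 e3.symm with h | h
      · exact absurd h hd'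
      · exact h
    rcases lt_or_gt_of_ne hne with hlt | hlt
    · exact absurd f3 (h.pos1 h1.1 (hlt.trans_le h1'.2) h2'.1 h2'.2).ne'
    · exact absurd f1 (h.pos1 h1'.1 (hlt.trans_le h1.2) h2.1 h2.2).ne'
  have key2 : w.2 = w'.2 := by
    by_contra hne
    have hd : w.2 - w'.2 ≠ 0 := sub_ne_zero.2 hne
    have hd' : w'.2 - w.2 ≠ 0 := sub_ne_zero.2 (Ne.symm hne)
    have f1 : 1 + β * w'.2 + α * w.1 = 0 := by
      rcases mul_eq_zero.1 e2.symm with h | h
      · exact absurd h hd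
      · exact h
    have f3 : 1 + β * w.2 + α * w'.1 = 0 := by
      rcases mul_eq_zero.1 e4.symm with h | h
      · exact absurd h hd'
      · exact h
    rcases lt_or_gt_of_ne hne with hlt | hlt
    · exact absurd f3 (h.swap.pos1 h2.1 (hlt.trans_le h2'.2) h1'.1 h1'.2).ne'
    · exact absurd f1 (h.swap.pos1 h2'.1 (hlt.trans_le h2.2) h1.1 h1.2).ne'
  exact Prod.ext key1 key2

omit h in
/-- the closed region of the quadrilateral -/
def Rg (α β : ℝ) : Set (ℝ × ℝ) :=
  {p | 0 ≤ p.1 ∧ 0 ≤ p.2 ∧ F1 α β 1 p ≤ 0 ∧ F2 α β 1 p ≤ 0}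

theorem bil_mem_Rg {w : ℝ × ℝ} (h1 : w.1 ∈ Icc (0 : ℝ) 1) (h2 : w.2 ∈ Icc (0 : ℝ) 1) :
    bil α β w ∈ Rg α β := by
  refine ⟨mul_nonneg h2.1 (h.one_add_pos h1.1 h1.2).le,
    mul_nonneg h1.1 (h.swap.one_add_pos h2.1 h2.2).le, ?_, ?_⟩
  · rw [F1_bil]
    have := h.nonneg1 zero_le_one le_rfl h2.1 h2.2
    have h3 : w.1 - 1 ≤ 0 := by linarith [h1.2]
    exact mul_nonpos_of_nonpos_of_nonneg h3 this
  · rw [F2_bil]
    have := h.swap.nonneg1 zero_le_one le_rfl h1.1 h1.2
    have h3 : w.2 - 1 ≤ 0 := by linarith [h2.2]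
    exact mul_nonpos_of_nonpos_of_nonneg h3 this

/-- the bilinear chart is onto the region -/
theorem exists_bil {p : ℝ × ℝ} (hp : p ∈ Rg α β) :
    ∃ w : ℝ × ℝ, w.1 ∈ Icc (0 : ℝ) 1 ∧ w.2 ∈ Icc (0 : ℝ) 1 ∧ bil α β w = p := by
  obtain ⟨a, b⟩ := p
  obtain ⟨ha, hb, h1, h2⟩ := hp
  simp only at ha hb
  have hcont : ContinuousOn (fun c : ℝ => F1 α β c (a, b)) (Icc 0 1) := by
    simp only [F1]; fun_prop
  have h0 : 0 ≤ F1 α β 0 (a, b) := by simp [F1]; exact hb
  obtain ⟨c, hc, hFc⟩ := intermediate_value_Icc' (zero_le_one' ℝ) hcont ⟨h1, h0⟩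
  simp only [F1] at hFc
  have hpc := h.one_add_pos hc.1 hc.2
  have hb' : b = c * (1 + β * (a / (1 + α * c))) := by
    have e1 : (1 + α * c) * (a / (1 + α * c)) = a := by field_simp
    have e2 : (1 + α * c) * (b - c * (1 + β * (a / (1 + α * c)))) = 0 := by
      have : (1 + α * c) * (b - c * (1 + β * (a / (1 + α * c)))) =
        (1 + α * c) * (b - c) - β * c * ((1 + α * c) * (a / (1 + α * c))) := by ring
      rw [this, e1]; exact hFc
    rcases mul_eq_zero.1 e2 with h5 | h5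
    · exact absurd h5 hpc.ne'
    · linarith
  have hw2 : 0 ≤ a / (1 + α * c) := div_nonneg ha hpc.le
  have hbil : bil α β (c, a / (1 + α * c)) = (a, b) := by
    simp only [bil]
    refine Prod.ext ?_ ?_
    · simp only; field_simp
    · simp only; exact hb'.symm
  by_cases hle : a / (1 + α * c) ≤ 1
  · exact ⟨(c, a / (1 + α * c)), hc, ⟨hw2, hle⟩, hbil⟩
  push Not at hle
  -- then `c = 1`, `α + β = -1`
  have e2 : F2 α β 1 (a, b) = (a / (1 + α * c) - 1) * (1 + β * 1 + α * c) := by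
    rw [← hbil, F2_bil]
  have hnn := h.swap.nonneg1 zero_le_one le_rfl hc.1 hc.2
  have hz : 1 + β * 1 + α * c = 0 := by
    rcases hnn.eq_or_lt with h3 | h3
    · exact h3.symm
    · rw [e2] at h2
      have : 0 < (a / (1 + α * c) - 1) * (1 + β * 1 + α * c) := mul_pos (by linarith) h3
      linarith
  have hc1 : c = 1 := by
    by_contra hne
    have := h.swap.pos1' zero_le_one le_rfl hc.1 (lt_of_le_of_ne hc.2 hne)
    linarith
  subst hc1
  have hs : β = -1 - α := by linarith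
  have hα : α < 0 := by
    have := h.hb
    linarith
  have ha1 : 0 < 1 + α := by linarith [h.ha]
  rw [mul_one] at hle
  have hal : 1 + α < a := by
    rwa [lt_div_iff₀ ha1, one_mul] at hle
  have hab : b = 1 - a := by
    have h5 : b - 1 = β * (a / (1 + α * 1)) := by linarith [hb']
    rw [hs] at h5
    have h6 : (-1 - α) * (a / (1 + α * 1)) = -a := by
      rw [mul_one]; field_simp; ring
    linarith
  refine ⟨(b / (1 + β), 1), ⟨?_, ?_⟩, ⟨zero_le_one, le_rfl⟩, ?_⟩
  · exact div_nonneg hb (by linarith [h.hb])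
  · simp only
    rw [div_le_one (by linarith [h.hb])]
    linarith
  · have hb1 : 0 < 1 + β := by linarith [h.hb]
    simp only [bil]
    refine Prod.ext ?_ ?_
    · simp only
      have : α = -(1 + β) := by linarith
      rw [this]
      field_simp
      linarith
    · simp only; field_simp

omit h in
/-- the open region of the quadrilateral -/
def Rgo (α β : ℝ) : Set (ℝ × ℝ) :=
  {p | 0 < p.1 ∧ 0 < p.2 ∧ F1 α β 1 p < 0 ∧ F2 α β 1 p < 0}

omit h in
/-- the open square -/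
def So : Set (ℝ × ℝ) := {w | w.1 ∈ Ioo (0 : ℝ) 1 ∧ w.2 ∈ Ioo (0 : ℝ) 1}

omit h in
/-- the closed square -/
def Sc : Set (ℝ × ℝ) := {w | w.1 ∈ Icc (0 : ℝ) 1 ∧ w.2 ∈ Icc (0 : ℝ) 1}

omit h in
theorem So_sub : So ⊆ Sc := fun _ hw => ⟨Ioo_subset_Icc_self hw.1, Ioo_subset_Icc_self hw.2⟩

omit h in
theorem Rgo_sub : Rgo α β ⊆ Rg α β := fun _ hp => ⟨hp.1.le, hp.2.1.le, hp.2.2.1.le, hp.2.2.2.le⟩

theorem bil_mapsTo : MapsTo (bil α β) Sc (Rg α β) := fun _ hw => bil_mem_Rg h hw.1 hw.2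

theorem bil_injOn : InjOn (bil α β) Sc := fun _ hw _ hw' he =>
  bil_inj h hw.1 hw.2 hw'.1 hw'.2 he

theorem bil_bijOn : BijOn (bil α β) Sc (Rg α β) :=
  ⟨bil_mapsTo h, bil_injOn h, fun _ hp => by
    obtain ⟨w, h1, h2, h3⟩ := exists_bil h hp
    exact ⟨w, ⟨h1, h2⟩, h3⟩⟩

theorem bil_mem_Rgo {w : ℝ × ℝ} (hw : w ∈ Sc) : bil α β w ∈ Rgo α β ↔ w ∈ So := by
  constructor
  · rintro ⟨h1, h2, h3, h4⟩
    rw [F1_bil] at h3
    rw [F2_bil] at h4
    refine ⟨⟨lt_of_le_of_ne hw.1.1 ?_, lt_of_le_of_ne hw.1.2 ?_⟩,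
      ⟨lt_of_le_of_ne hw.2.1 ?_, lt_of_le_of_ne hw.2.2 ?_⟩⟩
    · intro he; rw [bil, ← he] at h2; simp at h2
    · intro he; rw [he] at h3; simp at h3
    · intro he; rw [bil, ← he] at h1; simp at h1
    · intro he; rw [he] at h4; simp at h4
  · rintro ⟨h1, h2⟩
    refine ⟨mul_pos h2.1 (h.one_add_pos h1.1.le h1.2.le),
      mul_pos h1.1 (h.swap.one_add_pos h2.1.le h2.2.le), ?_, ?_⟩
    · rw [F1_bil]
      have := h.pos1' zero_le_one le_rfl h2.1.le h2.2
      exact mul_neg_of_neg_of_pos (by linarith [h1.2]) this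
    · rw [F2_bil]
      have := h.swap.pos1' zero_le_one le_rfl h1.1.le h1.2
      exact mul_neg_of_neg_of_pos (by linarith [h2.2]) this

omit h in
/-- the piecewise affine chart -/
noncomputable def tw (α β : ℝ) (w : ℝ × ℝ) : ℝ × ℝ :=
  (w.2 + α * min w.1 w.2, w.1 + β * min w.1 w.2)

omit h in
theorem tw_of_le {w : ℝ × ℝ} (hw : w.2 ≤ w.1) :
    tw α β w = ((1 + α) * w.2, w.1 + β * w.2) := by
  simp only [tw, min_eq_right hw]
  refine Prod.ext ?_ rfl
  simp only; ring

omit h in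
theorem tw_of_ge {w : ℝ × ℝ} (hw : w.1 ≤ w.2) :
    tw α β w = (w.2 + α * w.1, (1 + β) * w.1) := by
  simp only [tw, min_eq_left hw]
  refine Prod.ext rfl ?_
  simp only; ring

theorem tw_mapsTo : MapsTo (tw α β) Sc (Rg α β) := by
  rintro ⟨w1, w2⟩ ⟨h1, h2⟩
  simp only at h1 h2
  have ha := h.ha
  have hb := h.hb
  have hs := h.hs
  rcases le_total w2 w1 with hle | hle
  · rw [tw_of_le hle]
    refine ⟨mul_nonneg (by linarith) h2.1, ?_, ?_, ?_⟩
    · simp only; nlinarith [h2.1]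
    · simp only [F1]; nlinarith [h1.2]
    · simp only [F2]
      have : (1 + β * 1) * ((1 + α) * w2 - 1) - α * 1 * (w1 + β * w2) =
        (1 + α + β) * (w2 - 1) - α * (w1 - 1) := by ring
      rw [this]
      rcases le_total 0 α with h5 | h5
      · -- α ≥ 0 : (1+β)(w2-1) + α (w2 - w1)
        have : (1 + α + β) * (w2 - 1) - α * (w1 - 1) = (1 + β) * (w2 - 1) + α * (w2 - w1) := by ring
        rw [this]
        nlinarith [h2.2]
      · nlinarith [h1.2, h2.2]
  · rw [tw_of_ge hle]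
    refine ⟨?_, mul_nonneg (by linarith) h1.1, ?_, ?_⟩
    · simp only; nlinarith [h1.1]
    · simp only [F1]
      have : (1 + α * 1) * ((1 + β) * w1 - 1) - β * 1 * (w2 + α * w1) =
        (1 + α + β) * (w1 - 1) - β * (w2 - 1) := by ring
      rw [this]
      rcases le_total 0 β with h5 | h5
      · have : (1 + α + β) * (w1 - 1) - β * (w2 - 1) = (1 + α) * (w1 - 1) + β * (w1 - w2) := by ring
        rw [this]
        nlinarith [h1.2]
      · nlinarith [h1.2, h2.2]
    · simp only [F2]; nlinarith [h2.2]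

omit h in
theorem tw_sign1 {w : ℝ × ℝ} (hw : w.2 ≤ w.1) :
    (1 + α) * (tw α β w).2 - (1 + β) * (tw α β w).1 = (1 + α) * (w.1 - w.2) := by
  rw [tw_of_le hw]; ring

omit h in
theorem tw_sign2 {w : ℝ × ℝ} (hw : w.1 ≤ w.2) :
    (1 + α) * (tw α β w).2 - (1 + β) * (tw α β w).1 = (1 + β) * (w.1 - w.2) := by
  rw [tw_of_ge hw]; ring

theorem tw_inj {w w' : ℝ × ℝ} (he : tw α β w = tw α β w') : w = w' := by
  have ha := h.ha
  have hb := h.hb
  have hap : 0 < 1 + α := by linarith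
  have hbp : 0 < 1 + β := by linarith
  rcases le_total w.2 w.1 with h1 | h1 <;> rcases le_total w'.2 w'.1 with h2 | h2
  · rw [tw_of_le h1, tw_of_le h2, Prod.mk.injEq] at he
    have e2 : w.2 = w'.2 := mul_left_cancel₀ hap.ne' he.1
    refine Prod.ext ?_ e2
    have := he.2; rw [e2] at this; linarith
  · have s1 := tw_sign1 (α := α) (β := β) h1
    have s2 := tw_sign2 (α := α) (β := β) h2
    rw [he, s2] at s1
    have g1 : 0 ≤ (1 + α) * (w.1 - w.2) := mul_nonneg hap.le (by linarith)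
    have g2 : (1 + β) * (w'.1 - w'.2) ≤ 0 := mul_nonpos_of_nonneg_of_nonpos hbp.le (by linarith)
    have k1 : (1 + α) * (w.1 - w.2) = 0 := by linarith
    have k2 : (1 + β) * (w'.1 - w'.2) = 0 := by linarith
    have m1 : w.1 = w.2 := by
      rcases mul_eq_zero.1 k1 with h | h
      · exact absurd h hap.ne'
      · linarith
    have m2 : w'.1 = w'.2 := by
      rcases mul_eq_zero.1 k2 with h | h
      · exact absurd h hbp.ne'
      · linarith
    rw [tw_of_le h1, tw_of_ge h2, Prod.mk.injEq] at he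
    have e2 : w.2 = w'.2 := by
      have := he.1; rw [m2] at this
      exact mul_left_cancel₀ hap.ne' (by linarith)
    exact Prod.ext (by rw [m1, m2, e2]) e2
  · have s1 := tw_sign2 (α := α) (β := β) h1
    have s2 := tw_sign1 (α := α) (β := β) h2
    rw [he, s2] at s1
    have g1 : 0 ≤ (1 + α) * (w'.1 - w'.2) := mul_nonneg hap.le (by linarith)
    have g2 : (1 + β) * (w.1 - w.2) ≤ 0 := mul_nonpos_of_nonneg_of_nonpos hbp.le (by linarith)
    have k1 : (1 + α) * (w'.1 - w'.2) = 0 := by linarith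
    have k2 : (1 + β) * (w.1 - w.2) = 0 := by linarith
    have m1 : w'.1 = w'.2 := by
      rcases mul_eq_zero.1 k1 with h | h
      · exact absurd h hap.ne'
      · linarith
    have m2 : w.1 = w.2 := by
      rcases mul_eq_zero.1 k2 with h | h
      · exact absurd h hbp.ne'
      · linarith
    rw [tw_of_ge h1, tw_of_le h2, Prod.mk.injEq] at he
    have e2 : w.2 = w'.2 := by
      have := he.1; rw [m2] at this
      exact mul_left_cancel₀ hap.ne' (by linarith)
    exact Prod.ext (by rw [m1, m2, e2]) e2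
  · rw [tw_of_ge h1, tw_of_ge h2, Prod.mk.injEq] at he
    have e2 : w.1 = w'.1 := mul_left_cancel₀ hbp.ne' he.2
    refine Prod.ext e2 ?_
    have := he.1; rw [e2] at this; linarith

theorem exists_tw {p : ℝ × ℝ} (hp : p ∈ Rg α β) : ∃ w ∈ Sc, tw α β w = p := by
  obtain ⟨a, b⟩ := p
  obtain ⟨ha, hb, h1, h2⟩ := hp
  simp only [F1, F2] at ha hb h1 h2
  have hap : 0 < 1 + α := by linarith [h.ha]
  have hbp : 0 < 1 + β := by linarith [h.hb]
  rcases le_total ((1 + β) * a) ((1 + α) * b) with hle | hle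
  · have e : (1 + α) * (a / (1 + α)) = a := by field_simp
    set t := a / (1 + α) with ht
    have ht0 : 0 ≤ t := div_nonneg ha hap.le
    have g1 : t ≤ b - β * t := by
      have : (1 + α) * ((1 + β) * t) ≤ (1 + α) * b := by
        rw [← e] at hle
        linarith [hle, show (1 + β) * ((1 + α) * t) = (1 + α) * ((1 + β) * t) by ring]
      have := le_of_mul_le_mul_left this hap
      linarith
    have g2 : b - β * t ≤ 1 := by
      have : (1 + α) * (b - β * t) ≤ (1 + α) * 1 := by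
        have : (1 + α) * (b - β * t) = (1 + α) * b - β * ((1 + α) * t) := by ring
        rw [this, e]; linarith
      exact le_of_mul_le_mul_left this hap
    refine ⟨(b - β * t, t), ⟨⟨ht0.trans g1, g2⟩, ⟨ht0, g1.trans g2⟩⟩, ?_⟩
    rw [tw_of_le g1]
    refine Prod.ext e ?_
    simp only; ring
  · have e : (1 + β) * (b / (1 + β)) = b := by field_simp
    set t := b / (1 + β) with ht
    have ht0 : 0 ≤ t := div_nonneg hb hbp.le
    have g1 : t ≤ a - α * t := by
      have : (1 + β) * ((1 + α) * t) ≤ (1 + β) * a := by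
        rw [← e] at hle
        linarith [hle, show (1 + α) * ((1 + β) * t) = (1 + β) * ((1 + α) * t) by ring]
      have := le_of_mul_le_mul_left this hbp
      linarith
    have g2 : a - α * t ≤ 1 := by
      have : (1 + β) * (a - α * t) ≤ (1 + β) * 1 := by
        have : (1 + β) * (a - α * t) = (1 + β) * a - α * ((1 + β) * t) := by ring
        rw [this, e]; linarith
      exact le_of_mul_le_mul_left this hbp
    refine ⟨(t, a - α * t), ⟨⟨ht0, g1.trans g2⟩, ⟨ht0.trans g1, g2⟩⟩, ?_⟩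
    rw [tw_of_ge g1]
    refine Prod.ext ?_ e
    simp only; ring

theorem tw_injOn : InjOn (tw α β) Sc := fun _ _ _ _ he => tw_inj h he

theorem tw_bijOn : BijOn (tw α β) Sc (Rg α β) :=
  ⟨tw_mapsTo h, tw_injOn h, fun _ hp => by
    obtain ⟨w, h1, h2⟩ := exists_tw h hp
    exact ⟨w, h1, h2⟩⟩

theorem tw_mem_Rgo {w : ℝ × ℝ} (hw : w ∈ Sc) : tw α β w ∈ Rgo α β ↔ w ∈ So := by
  have ha := h.ha
  have hb := h.hb
  have hs := h.hs
  obtain ⟨w1, w2⟩ := w
  obtain ⟨h1, h2⟩ := hw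
  simp only at h1 h2
  rcases le_total w2 w1 with hle | hle
  · rw [tw_of_le hle]
    constructor
    · rintro ⟨g1, g2, g3, g4⟩
      simp only [F1, F2] at g1 g2 g3 g4
      have k1 : 0 < w2 := by
        rcases h2.1.eq_or_lt with he | he
        · rw [← he] at g1; simp at g1
        · exact he
      have k2 : w1 < 1 := by
        refine lt_of_le_of_ne h1.2 fun he => ?_
        rw [he] at g3
        have : (1 + α * 1) * (1 + β * w2 - 1) - β * 1 * ((1 + α) * w2) = 0 := by ring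
        linarith
      exact ⟨⟨k1.trans_le hle, k2⟩, ⟨k1, hle.trans_lt k2⟩⟩
    · rintro ⟨g1, g2⟩
      simp only at g1 g2
      refine ⟨mul_pos (by linarith) g2.1, ?_, ?_, ?_⟩
      · simp only; nlinarith [g2.1]
      · simp only [F1]; nlinarith [g1.2]
      · simp only [F2]
        rcases le_total 0 α with h5 | h5
        · have : (1 + β * 1) * ((1 + α) * w2 - 1) - α * 1 * (w1 + β * w2) =
            (1 + β) * (w2 - 1) + α * (w2 - w1) := by ring
          rw [this]
          nlinarith [g2.2]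
        · have : (1 + β * 1) * ((1 + α) * w2 - 1) - α * 1 * (w1 + β * w2) =
            (1 + α + β) * (w2 - 1) - α * (w1 - 1) := by ring
          rw [this]
          rcases hs.eq_or_lt with h6 | h6
          · have h7 : 1 + α + β = 0 := by linarith
            have h8 : α < 0 := by linarith
            rw [h7]; nlinarith [g1.2]
          · nlinarith [g1.2, g2.2]
  · rw [tw_of_ge hle]
    constructor
    · rintro ⟨g1, g2, g3, g4⟩
      simp only [F1, F2] at g1 g2 g3 g4
      have k1 : 0 < w1 := by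
        rcases h1.1.eq_or_lt with he | he
        · rw [← he] at g2; simp at g2
        · exact he
      have k2 : w2 < 1 := by
        refine lt_of_le_of_ne h2.2 fun he => ?_
        rw [he] at g4
        have : (1 + β * 1) * (1 + α * w1 - 1) - α * 1 * ((1 + β) * w1) = 0 := by ring
        linarith
      exact ⟨⟨k1, hle.trans_lt k2⟩, ⟨k1.trans_le hle, k2⟩⟩
    · rintro ⟨g1, g2⟩
      simp only at g1 g2
      refine ⟨?_, mul_pos (by linarith) g1.1, ?_, ?_⟩
      · simp only; nlinarith [g1.1]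
      · simp only [F1]
        rcases le_total 0 β with h5 | h5
        · have : (1 + α * 1) * ((1 + β) * w1 - 1) - β * 1 * (w2 + α * w1) =
            (1 + α) * (w1 - 1) + β * (w1 - w2) := by ring
          rw [this]
          nlinarith [g1.2]
        · have : (1 + α * 1) * ((1 + β) * w1 - 1) - β * 1 * (w2 + α * w1) =
            (1 + α + β) * (w1 - 1) - β * (w2 - 1) := by ring
          rw [this]
          rcases hs.eq_or_lt with h6 | h6
          · have h7 : 1 + α + β = 0 := by linarith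
            have h8 : β < 0 := by linarith
            rw [h7]; nlinarith [g2.2]
          · nlinarith [g1.2, g2.2]
      · simp only [F2]; nlinarith [g2.2]

/-- the open regions are the same for both charts -/
theorem exists_tw_of_bil {w : ℝ × ℝ} (hw : w ∈ So) : ∃ w' ∈ So, tw α β w' = bil α β w := by
  obtain ⟨w', h1, h2⟩ := exists_tw h (bil_mapsTo h (So_sub hw))
  refine ⟨w', (tw_mem_Rgo h h1).1 ?_, h2⟩
  rw [h2]; exact (bil_mem_Rgo h (So_sub hw)).2 hw

theorem exists_bil_of_tw {w : ℝ × ℝ} (hw : w ∈ So) : ∃ w' ∈ So, bil α β w' = tw α β w := by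
  obtain ⟨w', h1, h2, h3⟩ := exists_bil h (tw_mapsTo h (So_sub hw))
  refine ⟨w', (bil_mem_Rgo h ⟨h1, h2⟩).1 ?_, h3⟩
  rw [h3]; exact (tw_mem_Rgo h (So_sub hw)).2 hw

omit h in
theorem F1_comb (c : ℝ) (p q : ℝ × ℝ) (s t : ℝ) (hst : s + t = 1) :
    F1 α β c (s • p + t • q) = s * F1 α β c p + t * F1 α β c q := by
  have : s = 1 - t := by linarith
  subst this
  simp only [F1, Prod.fst_add, Prod.snd_add, Prod.smul_fst, Prod.smul_snd, smul_eq_mul]
  ring

omit h in
theorem F2_comb (c : ℝ) (p q : ℝ × ℝ) (s t : ℝ) (hst : s + t = 1) :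
    F2 α β c (s • p + t • q) = s * F2 α β c p + t * F2 α β c q := by
  have : s = 1 - t := by linarith
  subst this
  simp only [F2, Prod.fst_add, Prod.snd_add, Prod.smul_fst, Prod.smul_snd, smul_eq_mul]
  ring

omit h in
theorem convex_Rg : Convex ℝ (Rg α β) := by
  rintro p ⟨p1, p2, p3, p4⟩ q ⟨q1, q2, q3, q4⟩ s t hs ht hst
  refine ⟨?_, ?_, ?_, ?_⟩
  · simp only [Prod.fst_add, Prod.smul_fst, smul_eq_mul]; positivity
  · simp only [Prod.snd_add, Prod.smul_snd, smul_eq_mul]; positivity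
  · rw [F1_comb 1 p q s t hst]; nlinarith
  · rw [F2_comb 1 p q s t hst]; nlinarith

omit h in
/-- the segments from a point of the open region run in the open region -/
theorem seg_Rgo {p c : ℝ × ℝ} (hp : p ∈ Rg α β) (hc : c ∈ Rgo α β) {t : ℝ}
    (ht : t ∈ Ioc (0 : ℝ) 1) : (1 - t) • p + t • c ∈ Rgo α β := by
  obtain ⟨p1, p2, p3, p4⟩ := hp
  obtain ⟨c1, c2, c3, c4⟩ := hc
  have h1 : 0 ≤ 1 - t := by linarith [ht.2]
  refine ⟨?_, ?_, ?_, ?_⟩
  · simp only [Prod.fst_add, Prod.smul_fst, smul_eq_mul]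
    have := mul_pos ht.1 c1
    have := mul_nonneg h1 p1
    linarith
  · simp only [Prod.snd_add, Prod.smul_snd, smul_eq_mul]
    have := mul_pos ht.1 c2
    have := mul_nonneg h1 p2
    linarith
  · rw [F1_comb 1 p c (1 - t) t (by ring)]
    have := mul_pos ht.1 (neg_pos.2 c3)
    have := mul_nonneg h1 (neg_nonneg.2 p3)
    linarith
  · rw [F2_comb 1 p c (1 - t) t (by ring)]
    have := mul_pos ht.1 (neg_pos.2 c4)
    have := mul_nonneg h1 (neg_nonneg.2 p4)
    linarith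

omit h in
theorem isOpen_Rgo : IsOpen (Rgo α β) := by
  have c1 : Continuous (F1 α β 1) := by unfold F1; fun_prop
  have c2 : Continuous (F2 α β 1) := by unfold F2; fun_prop
  exact (isOpen_lt continuous_const continuous_fst).inter
    ((isOpen_lt continuous_const continuous_snd).inter
      ((isOpen_lt c1 continuous_const).inter (isOpen_lt c2 continuous_const)))

omit h in
theorem ext_Rgo {z : ℝ × ℝ} (hz : z ∈ Rgo α β) (c : ℝ × ℝ) :
    ∃ ε : ℝ, 0 < ε ∧ z + ε • (z - c) ∈ Rg α β := by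
  have hc : Continuous (fun ε : ℝ => z + ε • (z - c)) := by fun_prop
  have h0 : (fun ε : ℝ => z + ε • (z - c)) 0 ∈ Rgo α β := by simpa using hz
  have h1 := hc.continuousAt.preimage_mem_nhds (isOpen_Rgo.mem_nhds h0)
  obtain ⟨r, hr, hb⟩ := Metric.mem_nhds_iff.1 h1
  refine ⟨r / 2, by positivity, Rgo_sub (hb ?_)⟩
  rw [Metric.mem_ball, Real.dist_eq, sub_zero, abs_of_pos (by positivity)]
  linarith

omit h in
theorem isCompact_Sc : IsCompact Sc := by
  have : Sc = Icc (0 : ℝ) 1 ×ˢ Icc (0 : ℝ) 1 := rfl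
  rw [this]
  exact isCompact_Icc.prod isCompact_Icc

omit h in
theorem continuous_bil : Continuous (bil α β) := by unfold bil; fun_prop

omit h in
theorem continuous_tw : Continuous (tw α β) := by unfold tw; fun_prop

theorem isCompact_Rg : IsCompact (Rg α β) := by
  rw [← (bil_bijOn h).image_eq]
  exact isCompact_Sc.image continuous_bil

end pos

section frame

variable {E : Type*} [NormedAddCommGroup E] [NormedSpace ℝ E]

/-- a quadrilateral in `E`: corner `O` (`w = 0`), `f1`, `f2` = the sides at `O`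
(`f1` towards `w = (0,1)`, `f2` towards `w = (1,0)`) -/
structure Fr (E : Type*) [NormedAddCommGroup E] [NormedSpace ℝ E] where
  O : E
  f1 : E
  f2 : E
  α : ℝ
  β : ℝ
  shp : Shp α β
  li : ∀ s t : ℝ, s • f1 + t • f2 = 0 → s = 0 ∧ t = 0

namespace Fr

variable (X : Fr E)

/-- the affine map -/
def pt (p : ℝ × ℝ) : E := X.O + (p.1 • X.f1 + p.2 • X.f2)

/-- bilinear chart -/
def bl (w : ℝ × ℝ) : E := X.pt (bil X.α X.β w)

/-- piecewise affine chart -/
noncomputable def tl (w : ℝ × ℝ) : E := X.pt (tw X.α X.β w)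

/-- the closed quadrilateral -/
def cell : Set E := X.pt '' Rg X.α X.β

/-- the open quadrilateral -/
def opn : Set E := X.pt '' Rgo X.α X.β

theorem pt_inj {p q : ℝ × ℝ} (h : X.pt p = X.pt q) : p = q := by
  have h1 := add_left_cancel h
  have h2 : (p.1 - q.1) • X.f1 + (p.2 - q.2) • X.f2 = 0 := by
    rw [sub_smul, sub_smul]
    rw [← sub_eq_zero] at h1
    rw [← h1]; abel
  obtain ⟨h3, h4⟩ := X.li _ _ h2
  exact Prod.ext (by linarith) (by linarith)

theorem pt_comb {s t : ℝ} (hst : s + t = 1) (p q : ℝ × ℝ) :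
    s • X.pt p + t • X.pt q = X.pt (s • p + t • q) := by
  have : s = 1 - t := by linarith
  subst this
  simp only [pt, Prod.fst_add, Prod.snd_add, Prod.smul_fst, Prod.smul_snd, smul_eq_mul]
  module

theorem pt_ext (p q : ℝ × ℝ) (ε : ℝ) :
    X.pt p + ε • (X.pt p - X.pt q) = X.pt (p + ε • (p - q)) := by
  simp only [pt, Prod.fst_add, Prod.snd_add, Prod.smul_fst, Prod.smul_snd, smul_eq_mul,
    Prod.fst_sub, Prod.snd_sub]
  module

theorem continuous_pt : Continuous X.pt := by unfold pt; fun_prop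

theorem bl_mem {w : ℝ × ℝ} (hw : w ∈ Sc) : X.bl w ∈ X.cell := ⟨_, bil_mapsTo X.shp hw, rfl⟩

theorem tl_mem {w : ℝ × ℝ} (hw : w ∈ Sc) : X.tl w ∈ X.cell := ⟨_, tw_mapsTo X.shp hw, rfl⟩

theorem bl_mem_opn {w : ℝ × ℝ} (hw : w ∈ Sc) : X.bl w ∈ X.opn ↔ w ∈ So := by
  rw [← bil_mem_Rgo X.shp hw]
  constructor
  · rintro ⟨p, hp, he⟩
    rwa [← X.pt_inj he]
  · exact fun h => ⟨_, h, rfl⟩

theorem tl_mem_opn {w : ℝ × ℝ} (hw : w ∈ Sc) : X.tl w ∈ X.opn ↔ w ∈ So := by
  rw [← tw_mem_Rgo X.shp hw]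
  constructor
  · rintro ⟨p, hp, he⟩
    rwa [← X.pt_inj he]
  · exact fun h => ⟨_, h, rfl⟩

theorem bl_bijOn : BijOn X.bl Sc X.cell :=
  ⟨fun _ hw => X.bl_mem hw, fun _ hw _ hw' he => bil_injOn X.shp hw hw' (X.pt_inj he), by
    rintro _ ⟨p, hp, rfl⟩
    obtain ⟨w, h1, h2⟩ := (bil_bijOn X.shp).surjOn hp
    exact ⟨w, h1, by rw [bl, h2]⟩⟩

theorem tl_bijOn : BijOn X.tl Sc X.cell :=
  ⟨fun _ hw => X.tl_mem hw, fun _ hw _ hw' he => tw_injOn X.shp hw hw' (X.pt_inj he), by
    rintro _ ⟨p, hp, rfl⟩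
    obtain ⟨w, h1, h2⟩ := (tw_bijOn X.shp).surjOn hp
    exact ⟨w, h1, by rw [tl, h2]⟩⟩

theorem exists_tl_of_bl {w : ℝ × ℝ} (hw : w ∈ So) : ∃ w' ∈ So, X.tl w' = X.bl w := by
  obtain ⟨w', h1, h2⟩ := exists_tw_of_bil X.shp hw
  exact ⟨w', h1, by rw [tl, h2, bl]⟩

theorem exists_bl_of_tl {w : ℝ × ℝ} (hw : w ∈ So) : ∃ w' ∈ So, X.bl w' = X.tl w := by
  obtain ⟨w', h1, h2⟩ := exists_bil_of_tw X.shp hw
  exact ⟨w', h1, by rw [bl, h2, tl]⟩

theorem convex_cell : Convex ℝ X.cell := by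
  rintro _ ⟨p, hp, rfl⟩ _ ⟨q, hq, rfl⟩ s t hs ht hst
  rw [X.pt_comb hst]
  exact ⟨_, convex_Rg hp hq hs ht hst, rfl⟩

theorem isCompact_cell : IsCompact X.cell := (isCompact_Rg X.shp).image X.continuous_pt

theorem seg_opn {y c : E} (hy : y ∈ X.cell) (hc : c ∈ X.opn) {t : ℝ} (ht : t ∈ Ioc (0 : ℝ) 1) :
    (1 - t) • y + t • c ∈ X.opn := by
  obtain ⟨p, hp, rfl⟩ := hy
  obtain ⟨q, hq, rfl⟩ := hc
  rw [X.pt_comb (by ring)]
  exact ⟨_, seg_Rgo hp hq ht, rfl⟩

theorem ext_opn {z c : E} (hz : z ∈ X.opn) (hc : c ∈ X.cell) :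
    ∃ ε : ℝ, 0 < ε ∧ z + ε • (z - c) ∈ X.cell := by
  obtain ⟨p, hp, rfl⟩ := hz
  obtain ⟨q, hq, rfl⟩ := hc
  obtain ⟨ε, h1, h2⟩ := ext_Rgo hp q
  exact ⟨ε, h1, by rw [X.pt_ext]; exact ⟨_, h2, rfl⟩⟩

/-- the determinant of a sub-rectangle -/
def dt (x y : ℝ) : ℝ := 1 + X.α * x + X.β * y

/-- **a sub-rectangle of a quadrilateral is a quadrilateral** -/
noncomputable def sub {x x' y y' : ℝ} (hx0 : 0 ≤ x) (hx : x < x') (hx1 : x' ≤ 1) (hy0 : 0 ≤ y) (hy : y < y')
    (hy1 : y' ≤ 1) : Fr E where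
  O := X.bl (x, y)
  f1 := (y' - y) • ((1 + X.α * x) • X.f1 + (X.β * x) • X.f2)
  f2 := (x' - x) • ((X.α * y) • X.f1 + (1 + X.β * y) • X.f2)
  α := (x' - x) * X.α / X.dt x y
  β := (y' - y) * X.β / X.dt x y
  shp := by
    have hD : 0 < X.dt x y := X.shp.pos1 hx0 (hx.trans_le hx1) hy0 (hy.le.trans hy1)
    refine ⟨?_, ?_, ?_⟩
    · rw [lt_div_iff₀ hD]
      have := X.shp.pos1' (hx0.trans hx.le) hx1 hy0 (hy.trans_le hy1)
      unfold dt; nlinarith
    · rw [lt_div_iff₀ hD]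
      have := X.shp.pos1 hx0 (hx.trans_le hx1) (hy0.trans hy.le) hy1
      unfold dt; nlinarith
    · rw [← add_div, le_div_iff₀ hD]
      have := X.shp.nonneg1 (hx0.trans hx.le) hx1 (hy0.trans hy.le) hy1
      unfold dt; nlinarith
  li := by
    intro s t hst
    have hD : 0 < X.dt x y := X.shp.pos1 hx0 (hx.trans_le hx1) hy0 (hy.le.trans hy1)
    have h1 : (s * (y' - y) * (1 + X.α * x) + t * (x' - x) * (X.α * y)) • X.f1 +
        (s * (y' - y) * (X.β * x) + t * (x' - x) * (1 + X.β * y)) • X.f2 = 0 := by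
      rw [← hst]; module
    obtain ⟨h2, h3⟩ := X.li _ _ h1
    have hk : 0 < y' - y := by linarith
    have hh : 0 < x' - x := by linarith
    have e1 : s * (y' - y) * X.dt x y = 0 := by
      have : s * (y' - y) * X.dt x y =
        (1 + X.β * y) * (s * (y' - y) * (1 + X.α * x) + t * (x' - x) * (X.α * y)) -
        (X.α * y) * (s * (y' - y) * (X.β * x) + t * (x' - x) * (1 + X.β * y)) := by
        unfold dt; ring
      rw [this, h2, h3]; ring
    have e2 : t * (x' - x) * X.dt x y = 0 := by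
      have : t * (x' - x) * X.dt x y =
        (1 + X.α * x) * (s * (y' - y) * (X.β * x) + t * (x' - x) * (1 + X.β * y)) -
        (X.β * x) * (s * (y' - y) * (1 + X.α * x) + t * (x' - x) * (X.α * y)) := by
        unfold dt; ring
      rw [this, h2, h3]; ring
    constructor
    · rcases mul_eq_zero.1 e1 with h | h
      · rcases mul_eq_zero.1 h with h | h
        · exact h
        · exact absurd h hk.ne'
      · exact absurd h hD.ne'
    · rcases mul_eq_zero.1 e2 with h | h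
      · rcases mul_eq_zero.1 h with h | h
        · exact h
        · exact absurd h hh.ne'
      · exact absurd h hD.ne'

/-- the bilinear chart of the sub-rectangle is the restriction -/
theorem sub_bl {x x' y y' : ℝ} (hx0 : 0 ≤ x) (hx : x < x') (hx1 : x' ≤ 1) (hy0 : 0 ≤ y)
    (hy : y < y') (hy1 : y' ≤ 1) (s t : ℝ) :
    (X.sub hx0 hx hx1 hy0 hy hy1).bl (s, t) = X.bl (x + s * (x' - x), y + t * (y' - y)) := by
  have hD : 0 < X.dt x y := X.shp.pos1 hx0 (hx.trans_le hx1) hy0 (hy.le.trans hy1)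
  simp only [bl, pt, sub, bil]
  set A := X.α / X.dt x y with hA
  set B := X.β / X.dt x y with hB
  have a1 : X.α = A * X.dt x y := by rw [hA]; field_simp
  have b1 : X.β = B * X.dt x y := by rw [hB]; field_simp
  have a2 : (x' - x) * X.α / X.dt x y = (x' - x) * A := by rw [hA]; ring
  have b2 : (y' - y) * X.β / X.dt x y = (y' - y) * B := by rw [hB]; ring
  rw [a2, b2]
  have k1 : X.α = A * (1 + X.α * x) + B * (X.α * y) := by
    have : A * (1 + X.α * x) + B * (X.α * y) = A * X.dt x y := by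
      have : B * X.α = A * X.β := by rw [hA, hB]; ring
      calc A * (1 + X.α * x) + B * (X.α * y) = A * (1 + X.α * x) + (B * X.α) * y := by ring
        _ = A * (1 + X.α * x) + (A * X.β) * y := by rw [this]
        _ = A * X.dt x y := by unfold dt; ring
    rw [this]; exact a1
  have k2 : X.β = A * (X.β * x) + B * (1 + X.β * y) := by
    have : A * (X.β * x) + B * (1 + X.β * y) = B * X.dt x y := by
      have : A * X.β = B * X.α := by rw [hA, hB]; ring
      calc A * (X.β * x) + B * (1 + X.β * y) = (A * X.β) * x + B * (1 + X.β * y) := by ring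
        _ = (B * X.α) * x + B * (1 + X.β * y) := by rw [this]
        _ = B * X.dt x y := by unfold dt; ring
    rw [this]; exact b1
  have c1 : (y + t * (y' - y)) * (1 + X.α * (x + s * (x' - x))) =
      y * (1 + X.α * x) + t * (1 + (x' - x) * A * s) * ((y' - y) * (1 + X.α * x)) +
        s * (1 + (y' - y) * B * t) * ((x' - x) * (X.α * y)) := by
    linear_combination (s * t * (x' - x) * (y' - y)) * k1
  have c2 : (x + s * (x' - x)) * (1 + X.β * (y + t * (y' - y))) =
      x * (1 + X.β * y) + t * (1 + (x' - x) * A * s) * ((y' - y) * (X.β * x)) +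
        s * (1 + (y' - y) * B * t) * ((x' - x) * (1 + X.β * y)) := by
    linear_combination (s * t * (x' - x) * (y' - y)) * k2
  rw [c1, c2]
  module

end Fr

end frame

end Crest.Agent.R096.Grd_714
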