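import Crest.Agent.R096.Brk6_582
import Crest.Agent.R096.Grd1_714

/-!
# R096 (row 96), GRID, part 2 (helper714): the bilinear coordinates `Bb` of the 2-skeleton of a foam
-/

set_option autoImplicit false
set_option linter.unusedSectionVars false

open Set

namespace Crest.Agent.R096.Grd_714

open Crest.Agent.R096.Brk1_582 Crest.Agent.R096.Brk2_582 Crest.Agent.R096.Brk6_582

variable {E : Type*} [NormedAddCommGroup E] [NormedSpace ℝ E] {I : Type*}
variable {La : Set E} {P : I → Set E} {b : Set I → E}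

/-- convex position of the quadrilateral `v P' C P` (180 degrees are allowed at `v`) -/
def QC (v P' C P : E) : Prop :=
  (∀ s t : ℝ, s • (P' - C) + t • (P - C) = 0 → s = 0 ∧ t = 0) ∧
  ∃ x y : ℝ, 0 < x ∧ 0 < y ∧ 1 ≤ x + y ∧ v - C = x • (P' - C) + y • (P - C)

/-- all quads of the foam are in convex position -/
def Quads (P : I → Set E) (b : Set I → E) : Prop :=
  ∀ (A : Set I) (c1 c2 : I), A.ncard = 2 → c1 ∉ A → c2 ∉ A → c1 ≠ c2 →
    (fc P (insert c2 (insert c1 A))).Nonempty →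
    QC (b (insert c2 (insert c1 A))) (b (insert c2 A)) (b A) (b (insert c1 A))

/-- the frame of a quadrilateral -/
noncomputable def QC.fr {v P' C P : E} (h : QC v P' C P) : Fr E where
  O := C
  f1 := P' - C
  f2 := P - C
  α := h.2.choose - 1
  β := h.2.choose_spec.choose - 1
  shp := by
    obtain ⟨h1, h2, h3, _⟩ := h.2.choose_spec.choose_spec
    exact ⟨by linarith, by linarith, by linarith⟩
  li := h.1

theorem QC.fr_v {v P' C P : E} (h : QC v P' C P) :
    v = C + ((1 + h.fr.α) • (P' - C) + (1 + h.fr.β) • (P - C)) := by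
  obtain ⟨_, _, _, h4⟩ := h.2.choose_spec.choose_spec
  have e1 : 1 + h.fr.α = h.2.choose := by simp [QC.fr]
  have e2 : 1 + h.fr.β = h.2.choose_spec.choose := by simp [QC.fr]
  rw [e1, e2, ← h4]; abel

theorem QC.fr_cross {v P' C P : E} (h : QC v P' C P) :
    h.fr.α • h.fr.f1 + h.fr.β • h.fr.f2 = v + C - P - P' := by
  have hv := h.fr_v
  have e : h.fr.α • h.fr.f1 + h.fr.β • h.fr.f2 =
      (C + ((1 + h.fr.α) • (P' - C) + (1 + h.fr.β) • (P - C))) + C - P - P' := by
    have e1 : h.fr.f1 = P' - C := rfl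
    have e2 : h.fr.f2 = P - C := rfl
    rw [e1, e2]; module
  rw [e, ← hv]

theorem Fr.bl_tl (X : Fr E) (w : ℝ × ℝ) : X.bl w = X.tl w +
    (w.1 * w.2 - min w.1 w.2) • (X.α • X.f1 + X.β • X.f2) := by
  simp only [Fr.bl, Fr.tl, Fr.pt, bil, tw]
  module

section

/-- the 2-skeleton of the cube complex -/
def K2 (P : I → Set E) : Set (I → ℝ) := {u | u ∈ K P ∧ ∃ c c', c ≠ c' ∧ u c = 0 ∧ u c' = 0}

/-- `u` lies in the closed square `A, c1, c2` -/
structure InSq (A : Set I) (c1 c2 : I) (u : I → ℝ) : Prop where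
  zero : ∀ c ∈ A, u c = 0
  one : ∀ c, c ∉ A → c ≠ c1 → c ≠ c2 → u c = 1
  m1 : u c1 ∈ Icc (0 : ℝ) 1
  m2 : u c2 ∈ Icc (0 : ℝ) 1

open Classical in
/-- **bilinear coordinates** on the 2-skeleton of the cube complex -/
noncomputable def Bb (b : Set I → E) (u : I → ℝ) : E :=
  if h : ∃ c1 c2 : I, c1 ≠ c2 ∧ av u = {c1, c2} then
    T b u + ((1 - u h.choose) * (1 - u h.choose_spec.choose) -
      min (1 - u h.choose) (1 - u h.choose_spec.choose)) •
      (b {c | u c < 1} + b {c | u c = 0} - b (insert h.choose {c | u c = 0}) -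
        b (insert h.choose_spec.choose {c | u c = 0}))
  else T b u

theorem cor_symm (u : I → ℝ) (y : E) (g : I → E) {c1 c2 d1 d2 : I} (h1 : d1 ≠ d2)
    (h2 : ({c1, c2} : Set I) = {d1, d2}) :
    ((1 - u d1) * (1 - u d2) - min (1 - u d1) (1 - u d2)) • (y - g d1 - g d2) =
      ((1 - u c1) * (1 - u c2) - min (1 - u c1) (1 - u c2)) • (y - g c1 - g c2) := by
  have k1 : d1 = c1 ∨ d1 = c2 := by
    have : d1 ∈ ({d1, d2} : Set I) := by simp
    rw [← h2] at this
    simpa using this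
  have k2 : d2 = c1 ∨ d2 = c2 := by
    have : d2 ∈ ({d1, d2} : Set I) := by simp
    rw [← h2] at this
    simpa using this
  rcases k1 with k1 | k1 <;> rcases k2 with k2 | k2
  · exact absurd (k1.trans k2.symm) h1
  · rw [k1, k2]
  · rw [k1, k2, mul_comm (1 - u c2), min_comm (1 - u c2)]
    congr 1
    abel
  · exact absurd (k1.trans k2.symm) h1

theorem Bb_eq {u : I → ℝ} {c1 c2 : I} (hne : c1 ≠ c2) (hav : av u = {c1, c2}) :
    Bb b u = T b u + ((1 - u c1) * (1 - u c2) - min (1 - u c1) (1 - u c2)) •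
      (b {c | u c < 1} + b {c | u c = 0} - b (insert c1 {c | u c = 0}) -
        b (insert c2 {c | u c = 0})) := by
  have h : ∃ c1 c2 : I, c1 ≠ c2 ∧ av u = {c1, c2} := ⟨c1, c2, hne, hav⟩
  rw [Bb, dif_pos h]
  congr 1
  have hs := h.choose_spec.choose_spec
  exact cor_symm u (b {c | u c < 1} + b {c | u c = 0}) (fun c => b (insert c {c | u c = 0})) hs.1
    (hav.symm.trans hs.2)

theorem Bb_of_ncard {u : I → ℝ} (h : (av u).ncard ≠ 2) : Bb b u = T b u := by
  rw [Bb, dif_neg]
  rintro ⟨c1, c2, hne, hav⟩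
  exact h (by rw [hav, ncard_pair hne])

end

section sq

variable [CompleteSpace E] (F : Foam La P b 4)
include F

theorem T_fr {A : Set I} (hA : A.Nonempty) {c1 c2 : I} (hc1 : c1 ∉ A) (hc2 : c2 ∉ A)
    (hne : c1 ≠ c2) (hfc : (fc P (insert c2 (insert c1 A))).Nonempty)
    (hq : QC (b (insert c2 (insert c1 A))) (b (insert c2 A)) (b A) (b (insert c1 A)))
    {u : I → ℝ} (hu : InSq A c1 c2 u) : T b u = hq.fr.tl (1 - u c1, 1 - u c2) := by
  have hv := hq.fr_v
  rcases le_total (u c1) (u c2) with h | h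
  · rw [T_two F hA hc1 hc2 hne hfc hu.zero hu.m1.1 h hu.m2.2 hu.one, Fr.tl,
      tw_of_le (by simp only; linarith)]
    conv_lhs => rw [hv]
    simp only [Fr.pt, QC.fr]
    module
  · have hfc' : (fc P (insert c1 (insert c2 A))).Nonempty := by rwa [insert_comm]
    rw [T_two F hA hc2 hc1 hne.symm hfc' hu.zero hu.m2.1 h hu.m1.2
      (fun c h1 h2 h3 => hu.one c h1 h3 h2), insert_comm c1 c2 A, Fr.tl,
      tw_of_ge (by simp only; linarith)]
    conv_lhs => rw [hv]
    simp only [Fr.pt, QC.fr]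
    module

omit F [CompleteSpace E] in
theorem InSq.av_sub {A : Set I} {c1 c2 : I} {u : I → ℝ} (hu : InSq A c1 c2 u) :
    av u ⊆ {c1, c2} := by
  intro c hc
  by_contra hn
  simp only [mem_insert_iff, mem_singleton_iff, not_or] at hn
  by_cases hA : c ∈ A
  · exact absurd (hu.zero c hA) hc.1.ne'
  · exact absurd (hu.one c hA hn.1 hn.2) hc.2.ne

theorem Bb_fr {A : Set I} (hA : A.Nonempty) {c1 c2 : I} (hc1 : c1 ∉ A) (hc2 : c2 ∉ A)
    (hne : c1 ≠ c2) (hfc : (fc P (insert c2 (insert c1 A))).Nonempty)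
    (hq : QC (b (insert c2 (insert c1 A))) (b (insert c2 A)) (b A) (b (insert c1 A)))
    {u : I → ℝ} (hu : InSq A c1 c2 u) : Bb b u = hq.fr.bl (1 - u c1, 1 - u c2) := by
  have hT := T_fr F hA hc1 hc2 hne hfc hq hu
  have key : hq.fr.bl (1 - u c1, 1 - u c2) = hq.fr.tl (1 - u c1, 1 - u c2) +
      ((1 - u c1) * (1 - u c2) - min (1 - u c1) (1 - u c2)) •
        (b (insert c2 (insert c1 A)) + b A - b (insert c1 A) - b (insert c2 A)) := by
    rw [hq.fr.bl_tl, hq.fr_cross]
  by_cases h2 : (av u).ncard = 2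
  · have hav : av u = {c1, c2} := by
      apply Set.eq_of_subset_of_ncard_le hu.av_sub
      rw [ncard_pair hne, h2]
    have h1 : 0 < u c1 ∧ u c1 < 1 := by
      have : c1 ∈ av u := by rw [hav]; simp
      exact this
    have h2 : 0 < u c2 ∧ u c2 < 1 := by
      have : c2 ∈ av u := by rw [hav]; simp
      exact this
    have hZ : {c | u c = 0} = A := by
      ext c
      constructor
      · intro (hc : u c = 0)
        by_contra hcA
        by_cases e1 : c = c1
        · subst e1; exact h1.1.ne' hc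
        by_cases e2 : c = c2
        · subst e2; exact h2.1.ne' hc
        · rw [hu.one c hcA e1 e2] at hc; exact one_ne_zero hc
      · exact hu.zero c
    have hL : {c | u c < 1} = insert c2 (insert c1 A) := by
      ext c
      simp only [mem_insert_iff]
      constructor
      · intro (hc : u c < 1)
        by_contra hn
        simp only [not_or] at hn
        rw [hu.one c hn.2.2 hn.2.1 hn.1] at hc
        exact lt_irrefl _ hc
      · rintro (rfl | rfl | hc)
        · exact h2.2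
        · exact h1.2
        · show u c < 1
          rw [hu.zero c hc]; exact one_pos
    rw [Bb_eq hne hav, hT, hZ, hL, key]
  · rw [Bb_of_ncard h2, hT, key]
    have hz : (1 - u c1) * (1 - u c2) - min (1 - u c1) (1 - u c2) = 0 := by
      have h3 : ¬ (c1 ∈ av u ∧ c2 ∈ av u) := by
        rintro ⟨h4, h5⟩
        apply h2
        have : av u = {c1, c2} := by
          apply Subset.antisymm hu.av_sub
          rintro c (rfl | rfl) <;> assumption
        rw [this, ncard_pair hne]
      have m1 := hu.m1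
      have m2 := hu.m2
      by_cases h4 : c1 ∈ av u
      · have h5 : c2 ∉ av u := fun h => h3 ⟨h4, h⟩
        have h6 : u c2 = 0 ∨ u c2 = 1 := by
          by_contra h7
          push Not at h7
          exact h5 ⟨lt_of_le_of_ne m2.1 (Ne.symm h7.1), lt_of_le_of_ne m2.2 h7.2⟩
        rcases h6 with h6 | h6
        · rw [h6, sub_zero, mul_one, min_eq_left (by linarith [m1.1]), sub_self]
        · rw [h6, sub_self, mul_zero, min_eq_right (by linarith [m1.2]), sub_self]
      · have h6 : u c1 = 0 ∨ u c1 = 1 := by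
          by_contra h7
          push Not at h7
          exact h4 ⟨lt_of_le_of_ne m1.1 (Ne.symm h7.1), lt_of_le_of_ne m1.2 h7.2⟩
        rcases h6 with h6 | h6
        · rw [h6, sub_zero, one_mul, min_eq_right (by linarith [m2.1]), sub_self]
        · rw [h6, sub_self, zero_mul, min_eq_left (by linarith [m2.2]), sub_self]
    rw [hz, zero_smul, add_zero]

/-- a point of the 2-skeleton has at most one active coordinate or lies in an open square -/
theorem K2_cases {u : I → ℝ} (hu : u ∈ K2 P) : (av u).ncard ≤ 1 ∨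
    ∃ c1 c2 : I, c1 ≠ c2 ∧ av u = {c1, c2} ∧ {c | u c = 0}.ncard = 2 ∧
      {c | u c < 1} = insert c2 (insert c1 {c | u c = 0}) ∧ c1 ∉ {c | u c = 0} ∧
      c2 ∉ {c | u c = 0} ∧ InSq {c | u c = 0} c1 c2 u := by
  obtain ⟨hK, c, c', hcc, h0, h0'⟩ := hu
  have hLfin := F.K_finite hK
  have hZne := F.K_zero_nonempty hK
  have hL4 : {c | u c < 1}.ncard ≤ 4 := F.ncard_le_of_fc (F.K_lt_nonempty hK) hK.2.2
  have hZfin : {c | u c = 0}.Finite := hLfin.subset fun c (hc : u c = 0) => by
    show u c < 1; rw [hc]; exact one_pos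
  have hZ2 : 2 ≤ {c | u c = 0}.ncard := by
    rw [← ncard_pair hcc]
    apply ncard_le_ncard _ hZfin
    rintro x (rfl | rfl)
    · exact h0
    · exact h0'
  have hun : {c | u c < 1} = {c | u c = 0} ∪ av u := by
    ext c
    simp only [av, mem_union, mem_ofPred_eq]
    constructor
    · intro h
      rcases (hK.1 c).1.eq_or_lt with h' | h'
      · exact Or.inl h'.symm
      · exact Or.inr ⟨h', h⟩
    · rintro (h | h)
      · rw [h]; exact one_pos
      · exact h.2
  have hdis : Disjoint {c | u c = 0} (av u) := by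
    rw [Set.disjoint_left]
    intro c (hc : u c = 0) hc'
    exact hc'.1.ne' hc
  have hcard : {c | u c < 1}.ncard = {c | u c = 0}.ncard + (av u).ncard := by
    rw [hun, ncard_union_eq hdis hZfin (F.av_finite hK)]
  by_cases h1 : (av u).ncard ≤ 1
  · exact Or.inl h1
  right
  have h2 : (av u).ncard = 2 := by omega
  obtain ⟨c1, c2, hne, hav⟩ := ncard_eq_two.1 h2
  have m1 : c1 ∈ av u := by rw [hav]; simp
  have m2 : c2 ∈ av u := by rw [hav]; simp
  refine ⟨c1, c2, hne, hav, by omega, ?_, fun h => m1.1.ne' h, fun h => m2.1.ne' h,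
    fun c hc => hc, fun c hc hc1 hc2 => ?_, ⟨m1.1.le, m1.2.le⟩, ⟨m2.1.le, m2.2.le⟩⟩
  · rw [hun, hav]
    ext c
    simp only [mem_union, mem_insert_iff, mem_singleton_iff]
    tauto
  · by_contra h3
    have h4 : c ∈ av u := ⟨lt_of_le_of_ne (hK.1 c).1 (Ne.symm hc), lt_of_le_of_ne (hK.1 c).2 h3⟩
    rw [hav] at h4
    simp only [mem_insert_iff, mem_singleton_iff] at h4
    tauto

variable (hQ : Quads P b)
include hQ

open Classical in
/-- (K) the bilinear point is a `T` point of the same type -/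
theorem exists_T_of_Bb {u : I → ℝ} (hu : u ∈ K2 P) : ∃ v ∈ K2 P, T b v = Bb b u ∧
    {c | v c = 0} = {c | u c = 0} ∧ {c | v c < 1} = {c | u c < 1} := by
  rcases K2_cases F hu with h | ⟨c1, c2, hne, hav, hZ, hL, n1, n2, hin⟩
  · exact ⟨u, hu, (Bb_of_ncard (by omega)).symm, rfl, rfl⟩
  have hZne := F.K_zero_nonempty hu.1
  have hfc : (fc P (insert c2 (insert c1 {c | u c = 0}))).Nonempty := by rw [← hL]; exact hu.1.2.2
  have hq := hQ _ c1 c2 hZ n1 n2 hne hfc
  have m1 : c1 ∈ av u := by rw [hav]; simp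
  have m2 : c2 ∈ av u := by rw [hav]; simp
  obtain ⟨w', hw', he⟩ := hq.fr.exists_tl_of_bl (w := (1 - u c1, 1 - u c2))
    ⟨⟨by simp only; linarith [m1.2], by simp only; linarith [m1.1]⟩,
      ⟨by simp only; linarith [m2.2], by simp only; linarith [m2.1]⟩⟩
  obtain ⟨g1, g2⟩ := hw'
  let v : I → ℝ := Function.update (Function.update u c1 (1 - w'.1)) c2 (1 - w'.2)
  have v1 : v c1 = 1 - w'.1 := by simp [v, Function.update_of_ne hne]
  have v2 : v c2 = 1 - w'.2 := by simp [v]
  have v3 : ∀ c, c ≠ c1 → c ≠ c2 → v c = u c := fun c h1 h2 => by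
    simp [v, Function.update_of_ne h1, Function.update_of_ne h2]
  have hZv : {c | v c = 0} = {c | u c = 0} := by
    ext c
    by_cases e1 : c = c1
    · subst e1
      simp only [mem_ofPred_eq, v1]
      exact ⟨fun h => absurd h (by linarith [g1.2]), fun h => absurd h m1.1.ne'⟩
    by_cases e2 : c = c2
    · subst e2
      simp only [mem_ofPred_eq, v2]
      exact ⟨fun h => absurd h (by linarith [g2.2]), fun h => absurd h m2.1.ne'⟩
    simp only [mem_ofPred_eq, v3 c e1 e2]
  have hLv : {c | v c < 1} = {c | u c < 1} := by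
    ext c
    by_cases e1 : c = c1
    · subst e1
      simp only [mem_ofPred_eq, v1]
      exact ⟨fun _ => m1.2, fun _ => by linarith [g1.1]⟩
    by_cases e2 : c = c2
    · subst e2
      simp only [mem_ofPred_eq, v2]
      exact ⟨fun _ => m2.2, fun _ => by linarith [g2.1]⟩
    simp only [mem_ofPred_eq, v3 c e1 e2]
  have hvK : v ∈ K2 P := by
    obtain ⟨hK, c, c', hcc, h0, h0'⟩ := hu
    refine ⟨⟨fun c => ?_, ?_, ?_⟩, c, c', hcc, ?_, ?_⟩
    · by_cases e1 : c = c1
      · subst e1; rw [v1]; constructor <;> linarith [g1.1, g1.2]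
      by_cases e2 : c = c2
      · subst e2; rw [v2]; constructor <;> linarith [g2.1, g2.2]
      rw [v3 c e1 e2]; exact hK.1 c
    · obtain ⟨d, hd⟩ := hK.2.1
      exact ⟨d, by have : d ∈ {c | v c = 0} := by rw [hZv]; exact hd
                   exact this⟩
    · rw [hLv]; exact hK.2.2
    · have : c ∈ {c | v c = 0} := by rw [hZv]; exact h0
      exact this
    · have : c' ∈ {c | v c = 0} := by rw [hZv]; exact h0'
      exact this
  have hvin : InSq {c | u c = 0} c1 c2 v := by
    refine ⟨fun c hc => ?_, fun c hc h1 h2 => ?_, ?_, ?_⟩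
    · have : c ∈ {c | v c = 0} := by rw [hZv]; exact hc
      exact this
    · rw [v3 c h1 h2]; exact hin.one c hc h1 h2
    · exact hvK.1.1 c1
    · exact hvK.1.1 c2
  refine ⟨v, hvK, ?_, hZv, hLv⟩
  rw [T_fr F hZne n1 n2 hne hfc hq hvin, Bb_fr F hZne n1 n2 hne hfc hq hin, ← he, v1, v2]
  simp

open Classical in
/-- (K') a `T` point is a bilinear point of the same type -/
theorem exists_Bb_of_T {u : I → ℝ} (hu : u ∈ K2 P) : ∃ v ∈ K2 P, Bb b v = T b u ∧
    {c | v c = 0} = {c | u c = 0} ∧ {c | v c < 1} = {c | u c < 1} := by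
  rcases K2_cases F hu with h | ⟨c1, c2, hne, hav, hZ, hL, n1, n2, hin⟩
  · exact ⟨u, hu, (Bb_of_ncard (by omega)), rfl, rfl⟩
  have hZne := F.K_zero_nonempty hu.1
  have hfc : (fc P (insert c2 (insert c1 {c | u c = 0}))).Nonempty := by rw [← hL]; exact hu.1.2.2
  have hq := hQ _ c1 c2 hZ n1 n2 hne hfc
  have m1 : c1 ∈ av u := by rw [hav]; simp
  have m2 : c2 ∈ av u := by rw [hav]; simp
  obtain ⟨w', hw', he⟩ := hq.fr.exists_bl_of_tl (w := (1 - u c1, 1 - u c2))
    ⟨⟨by simp only; linarith [m1.2], by simp only; linarith [m1.1]⟩,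
      ⟨by simp only; linarith [m2.2], by simp only; linarith [m2.1]⟩⟩
  obtain ⟨g1, g2⟩ := hw'
  let v : I → ℝ := Function.update (Function.update u c1 (1 - w'.1)) c2 (1 - w'.2)
  have v1 : v c1 = 1 - w'.1 := by simp [v, Function.update_of_ne hne]
  have v2 : v c2 = 1 - w'.2 := by simp [v]
  have v3 : ∀ c, c ≠ c1 → c ≠ c2 → v c = u c := fun c h1 h2 => by
    simp [v, Function.update_of_ne h1, Function.update_of_ne h2]
  have hZv : {c | v c = 0} = {c | u c = 0} := by
    ext c
    by_cases e1 : c = c1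
    · subst e1
      simp only [mem_ofPred_eq, v1]
      exact ⟨fun h => absurd h (by linarith [g1.2]), fun h => absurd h m1.1.ne'⟩
    by_cases e2 : c = c2
    · subst e2
      simp only [mem_ofPred_eq, v2]
      exact ⟨fun h => absurd h (by linarith [g2.2]), fun h => absurd h m2.1.ne'⟩
    simp only [mem_ofPred_eq, v3 c e1 e2]
  have hLv : {c | v c < 1} = {c | u c < 1} := by
    ext c
    by_cases e1 : c = c1
    · subst e1
      simp only [mem_ofPred_eq, v1]
      exact ⟨fun _ => m1.2, fun _ => by linarith [g1.1]⟩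
    by_cases e2 : c = c2
    · subst e2
      simp only [mem_ofPred_eq, v2]
      exact ⟨fun _ => m2.2, fun _ => by linarith [g2.1]⟩
    simp only [mem_ofPred_eq, v3 c e1 e2]
  have hvK : v ∈ K2 P := by
    obtain ⟨hK, c, c', hcc, h0, h0'⟩ := hu
    refine ⟨⟨fun c => ?_, ?_, ?_⟩, c, c', hcc, ?_, ?_⟩
    · by_cases e1 : c = c1
      · subst e1; rw [v1]; constructor <;> linarith [g1.1, g1.2]
      by_cases e2 : c = c2
      · subst e2; rw [v2]; constructor <;> linarith [g2.1, g2.2]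
      rw [v3 c e1 e2]; exact hK.1 c
    · obtain ⟨d, hd⟩ := hK.2.1
      exact ⟨d, by have : d ∈ {c | v c = 0} := by rw [hZv]; exact hd
                   exact this⟩
    · rw [hLv]; exact hK.2.2
    · have : c ∈ {c | v c = 0} := by rw [hZv]; exact h0
      exact this
    · have : c' ∈ {c | v c = 0} := by rw [hZv]; exact h0'
      exact this
  have hvin : InSq {c | u c = 0} c1 c2 v := by
    refine ⟨fun c hc => ?_, fun c hc h1 h2 => ?_, ?_, ?_⟩
    · have : c ∈ {c | v c = 0} := by rw [hZv]; exact hc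
      exact this
    · rw [v3 c h1 h2]; exact hin.one c hc h1 h2
    · exact hvK.1.1 c1
    · exact hvK.1.1 c2
  refine ⟨v, hvK, ?_, hZv, hLv⟩
  rw [T_fr F hZne n1 n2 hne hfc hq hin, Bb_fr F hZne n1 n2 hne hfc hq hvin, ← he, v1, v2]
  simp

/-- the cells through the bilinear point -/
theorem act_Bb {u : I → ℝ} (hu : u ∈ K2 P) : act P (Bb b u) = {c | u c = 0} := by
  obtain ⟨v, hv, h1, h2, _⟩ := exists_T_of_Bb F hQ hu
  rw [← h1, F.act_T hv.1, h2]

/-- **`Bb` is injective on the 2-skeleton** -/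
theorem Bb_injOn : InjOn (Bb b) (K2 P) := by
  intro u hu u' hu' he
  obtain ⟨v, hv, h1, h2, h3⟩ := exists_T_of_Bb F hQ hu
  obtain ⟨v', hv', h1', h2', h3'⟩ := exists_T_of_Bb F hQ hu'
  have hvv : v = v' := F.T_injOn hv.1 hv'.1 (by rw [h1, h1', he])
  subst hvv
  rw [h2] at h2'
  rw [h3] at h3'
  have hav : av u = av u' := by
    ext c
    have a1 := Set.ext_iff.1 h2' c
    have a2 := Set.ext_iff.1 h3' c
    simp only [mem_ofPred_eq] at a1 a2
    simp only [av, mem_ofPred_eq]
    have p1 := (hu.1.1 c).1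
    have p2 := (hu'.1.1 c).1
    constructor
    · rintro ⟨q1, q2⟩
      exact ⟨lt_of_le_of_ne p2 fun h => q1.ne' (a1.2 h.symm), a2.1 q2⟩
    · rintro ⟨q1, q2⟩
      exact ⟨lt_of_le_of_ne p1 fun h => q1.ne' (a1.1 h.symm), a2.2 q2⟩
  rcases K2_cases F hu with h | ⟨c1, c2, hne, hav1, hZ, hL, n1, n2, hin⟩
  · rw [Bb_of_ncard (by omega), Bb_of_ncard (by rw [← hav]; omega)] at he
    exact F.T_injOn hu.1 hu'.1 he
  have hZne := F.K_zero_nonempty hu.1
  have hfc : (fc P (insert c2 (insert c1 {c | u c = 0}))).Nonempty := by rw [← hL]; exact hu.1.2.2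
  have hq := hQ _ c1 c2 hZ n1 n2 hne hfc
  have hin' : InSq {c | u c = 0} c1 c2 u' := by
    refine ⟨fun c hc => ?_, fun c hc d1 d2 => ?_, hu'.1.1 c1, hu'.1.1 c2⟩
    · have := (Set.ext_iff.1 h2' c).1 hc
      exact this
    · have k1 : u' c ≠ 0 := fun h => hc ((Set.ext_iff.1 h2' c).2 h)
      have k2 : c ∉ av u' := by
        rw [← hav, hav1]
        simp only [mem_insert_iff, mem_singleton_iff, not_or]
        exact ⟨d1, d2⟩
      by_contra k3
      exact k2 ⟨lt_of_le_of_ne (hu'.1.1 c).1 (Ne.symm k1), lt_of_le_of_ne (hu'.1.1 c).2 k3⟩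
  rw [Bb_fr F hZne n1 n2 hne hfc hq hin, Bb_fr F hZne n1 n2 hne hfc hq hin'] at he
  have hmem : ∀ {z : I → ℝ}, InSq {c | u c = 0} c1 c2 z → (1 - z c1, 1 - z c2) ∈ Sc := by
    intro z hz
    exact ⟨⟨by simp only; linarith [hz.m1.2], by simp only; linarith [hz.m1.1]⟩,
      ⟨by simp only; linarith [hz.m2.2], by simp only; linarith [hz.m2.1]⟩⟩
  have := hq.fr.bl_bijOn.injOn (hmem hin) (hmem hin') he
  rw [Prod.mk.injEq] at this
  funext c
  by_cases hcZ : u c = 0
  · rw [hcZ]; exact (hin'.zero c hcZ).symm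
  by_cases e1 : c = c1
  · subst e1; linarith [this.1]
  by_cases e2 : c = c2
  · subst e2; linarith [this.2]
  rw [hin.one c hcZ e1 e2, hin'.one c hcZ e1 e2]

/-- **`Bb` is onto the 2-skeleton** -/
theorem exists_Bb {y : E} (hy : y ∈ La) {c c' : I} (hne : c ≠ c') (hc : y ∈ P c) (hc' : y ∈ P c') :
    ∃ u ∈ K2 P, Bb b u = y := by
  have h1 : sc P b y ∈ K2 P :=
    ⟨F.sc_mem_K hy, c, c', hne, (F.sc_eq_zero hy).2 hc, (F.sc_eq_zero hy).2 hc'⟩
  obtain ⟨v, hv, h2, _⟩ := exists_Bb_of_T F hQ h1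
  exact ⟨v, hv, by rw [h2, F.T_sc hy]⟩

theorem Bb_mem_La {u : I → ℝ} (hu : u ∈ K2 P) : Bb b u ∈ La := by
  obtain ⟨v, hv, h1, _⟩ := exists_T_of_Bb F hQ hu
  rw [← h1]; exact F.T_mem_La hv.1

end sq

end Crest.Agent.R096.Grd_714
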