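import Crest.Agent.R096.Grt1_714

/-!
# R096 (row 96), GRID, T at the grid points, part 2 (helper714): the interpolated heights

`itp ν g` = PL interpolation of `ν : ℕ → ℕ → ℝ` on the integer grid (fold = the diagonal from the
upper corner to the lower corner of every unit square); `Nf n1 n2` = interpolation of
`min w₁ w₂` on the `n1 × n2` grid; `adm_Nf`.
-/

set_option autoImplicit false
set_option linter.unusedVariables false

open Set

namespace Crest.Agent.R096.Grd_714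

/-- the formula on the box `[i', i] × [j', j]` -/
def itc (ν : ℕ → ℕ → ℝ) (i' i j' j : ℕ) (g : ℝ × ℝ) : ℝ :=
  ν i j + (j - g.2) * (ν i j' - ν i j) + (i - g.1) * (ν i' j - ν i j) +
    min (i - g.1) (j - g.2) * (ν i' j' - ν i' j - ν i j' + ν i j)

/-- the interpolation -/
noncomputable def itp (ν : ℕ → ℕ → ℝ) (g : ℝ × ℝ) : ℝ :=
  itc ν ⌊g.1⌋₊ ⌈g.1⌉₊ ⌊g.2⌋₊ ⌈g.2⌉₊ g

theorem itc_lo1 (ν : ℕ → ℕ → ℝ) {i' j' j : ℕ} {g : ℝ × ℝ} (h1 : g.1 = i')
    (h2 : (j : ℝ) - g.2 ∈ Icc (0 : ℝ) 1) :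
    itc ν i' (i' + 1) j' j g = itc ν i' i' j' j g := by
  simp only [itc, h1]
  have e1 : (((i' + 1 : ℕ) : ℝ) - i') = 1 := by push_cast; ring
  rw [e1, sub_self, min_eq_right h2.2, min_eq_left h2.1]
  ring

theorem itc_hi1 (ν : ℕ → ℕ → ℝ) {i i' j' j : ℕ} {g : ℝ × ℝ} (h1 : g.1 = i)
    (h2 : (j : ℝ) - g.2 ∈ Icc (0 : ℝ) 1) :
    itc ν i' i j' j g = itc ν i i j' j g := by
  simp only [itc, h1]
  rw [sub_self, min_eq_left h2.1]
  ring

theorem itc_lo2 (ν : ℕ → ℕ → ℝ) {i i' j' : ℕ} {g : ℝ × ℝ} (h1 : g.2 = j')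
    (h2 : (i : ℝ) - g.1 ∈ Icc (0 : ℝ) 1) :
    itc ν i' i j' (j' + 1) g = itc ν i' i j' j' g := by
  simp only [itc, h1]
  have e1 : (((j' + 1 : ℕ) : ℝ) - j') = 1 := by push_cast; ring
  rw [e1, sub_self, min_eq_left h2.2, min_eq_right h2.1]
  ring

theorem itc_hi2 (ν : ℕ → ℕ → ℝ) {i i' j' j : ℕ} {g : ℝ × ℝ} (h1 : g.2 = j)
    (h2 : (i : ℝ) - g.1 ∈ Icc (0 : ℝ) 1) :
    itc ν i' i j' j g = itc ν i' i j j g := by
  simp only [itc, h1]
  rw [sub_self, min_eq_right h2.1]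
  ring

/-- change of the first interval -/
theorem itc_box1 (ν : ℕ → ℕ → ℝ) {i' i j' j : ℕ} (h : i' ≤ i) (h1 : i ≤ i' + 1) {g : ℝ × ℝ}
    (g1 : (i' : ℝ) ≤ g.1) (g1' : g.1 ≤ i) (h2 : (j : ℝ) - g.2 ∈ Icc (0 : ℝ) 1) :
    itc ν i' i j' j g = itc ν ⌊g.1⌋₊ ⌈g.1⌉₊ j' j g := by
  rcases g1.eq_or_lt with e | e
  · -- `g.1 = i'`
    have e' : g.1 = i' := e.symm
    have e1 : ⌊g.1⌋₊ = i' := by rw [e']; exact Nat.floor_natCast _
    have e2 : ⌈g.1⌉₊ = i' := by rw [e']; exact Nat.ceil_natCast _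
    rw [e1, e2]
    rcases h.eq_or_lt with hh | hh
    · rw [hh]
    · have : i = i' + 1 := by omega
      subst this
      exact itc_lo1 ν e' h2
  · rcases g1'.eq_or_lt with f | f
    · have e1 : ⌊g.1⌋₊ = i := by rw [f]; exact Nat.floor_natCast _
      have e2 : ⌈g.1⌉₊ = i := by rw [f]; exact Nat.ceil_natCast _
      rw [e1, e2]
      exact itc_hi1 ν f h2
    · have hlt : i' < i := by exact_mod_cast e.trans f
      have hi : i = i' + 1 := by omega
      subst hi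
      have g0 : 0 ≤ g.1 := (Nat.cast_nonneg _).trans e.le
      have e1 : ⌊g.1⌋₊ = i' := by
        rw [Nat.floor_eq_iff g0]
        exact ⟨e.le, by push_cast at f; exact f⟩
      have e2 : ⌈g.1⌉₊ = i' + 1 := by
        rw [Nat.ceil_eq_iff (by omega)]
        refine ⟨?_, f.le⟩
        simpa using e
      rw [e1, e2]

/-- change of the second interval -/
theorem itc_box2 (ν : ℕ → ℕ → ℝ) {i' i j' j : ℕ} (h : j' ≤ j) (h1 : j ≤ j' + 1) {g : ℝ × ℝ}
    (g2 : (j' : ℝ) ≤ g.2) (g2' : g.2 ≤ j) (h2 : (i : ℝ) - g.1 ∈ Icc (0 : ℝ) 1) :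
    itc ν i' i j' j g = itc ν i' i ⌊g.2⌋₊ ⌈g.2⌉₊ g := by
  rcases g2.eq_or_lt with e | e
  · have e' : g.2 = j' := e.symm
    have e1 : ⌊g.2⌋₊ = j' := by rw [e']; exact Nat.floor_natCast _
    have e2 : ⌈g.2⌉₊ = j' := by rw [e']; exact Nat.ceil_natCast _
    rw [e1, e2]
    rcases h.eq_or_lt with hh | hh
    · rw [hh]
    · have : j = j' + 1 := by omega
      subst this
      exact itc_lo2 ν e' h2
  · rcases g2'.eq_or_lt with f | f
    · have e1 : ⌊g.2⌋₊ = j := by rw [f]; exact Nat.floor_natCast _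
      have e2 : ⌈g.2⌉₊ = j := by rw [f]; exact Nat.ceil_natCast _
      rw [e1, e2]
      exact itc_hi2 ν f h2
    · have hlt : j' < j := by exact_mod_cast e.trans f
      have hi : j = j' + 1 := by omega
      subst hi
      have g0 : 0 ≤ g.2 := (Nat.cast_nonneg _).trans e.le
      have e1 : ⌊g.2⌋₊ = j' := by
        rw [Nat.floor_eq_iff g0]
        exact ⟨e.le, by push_cast at f; exact f⟩
      have e2 : ⌈g.2⌉₊ = j' + 1 := by
        rw [Nat.ceil_eq_iff (by omega)]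
        refine ⟨?_, f.le⟩
        simpa using e
      rw [e1, e2]

theorem sub_mem_of {i' i : ℕ} (h1 : i ≤ i' + 1) {g : ℝ} (g1 : (i' : ℝ) ≤ g) (g1' : g ≤ i) :
    (i : ℝ) - g ∈ Icc (0 : ℝ) 1 := by
  have : (i : ℝ) ≤ i' + 1 := by exact_mod_cast h1
  constructor <;> linarith

/-- **the interpolation on a box** -/
theorem itp_box (ν : ℕ → ℕ → ℝ) {i' i j' j : ℕ} (h : i' ≤ i) (h1 : i ≤ i' + 1) (k : j' ≤ j)
    (k1 : j ≤ j' + 1) {g : ℝ × ℝ} (g1 : (i' : ℝ) ≤ g.1) (g1' : g.1 ≤ i)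
    (g2 : (j' : ℝ) ≤ g.2) (g2' : g.2 ≤ j) : itp ν g = itc ν i' i j' j g := by
  rw [itc_box1 ν h h1 g1 g1' (sub_mem_of k1 g2 g2')]
  have g0 : 0 ≤ g.1 := (Nat.cast_nonneg _).trans g1
  rw [itc_box2 ν k k1 g2 g2' (sub_mem_of (Nat.ceil_le_floor_add_one _) (Nat.floor_le g0)
    (Nat.le_ceil _))]
  rfl

/-- the swap of the variables -/
theorem itp_swap (ν : ℕ → ℕ → ℝ) (g : ℝ × ℝ) : itp (fun i j => ν j i) (g.2, g.1) = itp ν g := by
  simp only [itp, itc, min_comm]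
  ring

/-- the values of `min` at the grid points -/
noncomputable def nu (n1 n2 : ℕ) (i j : ℕ) : ℝ := min (1 - (i : ℝ) / n1) (1 - (j : ℝ) / n2)

/-- the data of a unit square -/
structure Cd (h k a b c : ℝ) : Prop where
  h0 : 0 < h
  k0 : 0 < k
  a0 : 0 ≤ a
  b0 : 0 ≤ b
  c0 : 0 ≤ c
  ak : a + c ≤ k
  bh : b + c ≤ h
  ab : a = 0 ∨ b = 0

theorem cd_min {h k : ℝ} (hh : 0 < h) (hk : 0 < k) (X Y : ℝ) :
    Cd h k (min X (Y + k) - min X Y) (min (X + h) Y - min X Y)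
      (min (X + h) (Y + k) - min (X + h) Y - min X (Y + k) + min X Y) := by
  refine ⟨hh, hk, ?_, ?_, ?_, ?_, ?_, ?_⟩
  · exact sub_nonneg.2 (min_le_min le_rfl (by linarith))
  · exact sub_nonneg.2 (min_le_min (by linarith) le_rfl)
  · rcases le_total X Y with h1 | h1
    · rw [min_eq_left h1, min_eq_left (show X ≤ Y + k by linarith)]
      have := min_le_min (le_refl (X + h)) (show Y ≤ Y + k by linarith)
      linarith
    · rw [min_eq_right h1, min_eq_right (show Y ≤ X + h by linarith)]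
      have := min_le_min (show X ≤ X + h by linarith) (le_refl (Y + k))
      linarith
  · have h1 : min (X + h) (Y + k) ≤ min (X + h) Y + k := by
      rw [min_add]
      exact min_le_min (by linarith) le_rfl
    linarith
  · have h1 : min (X + h) (Y + k) ≤ min X (Y + k) + h := by
      rw [min_add]
      exact min_le_min le_rfl (by linarith)
    linarith
  · rcases le_total X Y with h1 | h1
    · left
      rw [min_eq_left h1, min_eq_left (show X ≤ Y + k by linarith), sub_self]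
    · right
      rw [min_eq_right h1, min_eq_right (show Y ≤ X + h by linarith), sub_self]

/-- the data of the unit square `[p, p+1] × [q, q+1]` -/
theorem cd_nu {n1 n2 : ℕ} (h1 : 0 < n1) (h2 : 0 < n2) (p q : ℕ) :
    Cd (1 / (n1 : ℝ)) (1 / (n2 : ℝ)) (nu n1 n2 (p + 1) q - nu n1 n2 (p + 1) (q + 1))
      (nu n1 n2 p (q + 1) - nu n1 n2 (p + 1) (q + 1))
      (nu n1 n2 p q - nu n1 n2 p (q + 1) - nu n1 n2 (p + 1) q + nu n1 n2 (p + 1) (q + 1)) := by
  have k1 : (0 : ℝ) < n1 := by exact_mod_cast h1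
  have k2 : (0 : ℝ) < n2 := by exact_mod_cast h2
  have := cd_min (one_div_pos.2 k1) (one_div_pos.2 k2) (1 - ((p + 1 : ℕ) : ℝ) / n1)
    (1 - ((q + 1 : ℕ) : ℝ) / n2)
  have e1 : 1 - ((p + 1 : ℕ) : ℝ) / n1 + 1 / n1 = 1 - (p : ℝ) / n1 := by push_cast; ring
  have e2 : 1 - ((q + 1 : ℕ) : ℝ) / n2 + 1 / n2 = 1 - (q : ℝ) / n2 := by push_cast; ring
  rw [e1, e2] at this
  exact this

/-- monotonicity can be checked on the unit intervals -/
theorem mono_chain {f : ℝ → ℝ} : ∀ n : ℕ, (∀ p < n, MonotoneOn f (Icc (p : ℝ) (p + 1))) →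
    MonotoneOn f (Icc (0 : ℝ) n)
  | 0, _ => by
    rw [Nat.cast_zero, Icc_self]
    exact (subsingleton_singleton).monotoneOn f
  | n + 1, H => by
    have h1 := mono_chain n fun p hp => H p (by omega)
    have h2 := H n (by omega)
    have h3 := h1.union_right h2 (isGreatest_Icc (Nat.cast_nonneg n))
      (isLeast_Icc (by linarith))
    rwa [Icc_union_Icc_eq_Icc (Nat.cast_nonneg n) (by linarith),
      show (n : ℝ) + 1 = ((n + 1 : ℕ) : ℝ) by push_cast; ring] at h3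

section adm

variable {n1 n2 : ℕ} (h1 : 0 < n1) (h2 : 0 < n2)
include h1 h2

/-- the box formula of the heights -/
theorem itp_nu_box {p q : ℕ} {g : ℝ × ℝ} (g1 : g.1 ∈ Icc (p : ℝ) (p + 1))
    (g2 : g.2 ∈ Icc (q : ℝ) (q + 1)) :
    ∃ a b c v : ℝ, Cd (1 / (n1 : ℝ)) (1 / (n2 : ℝ)) a b c ∧
      ∀ g' : ℝ × ℝ, g'.1 ∈ Icc (p : ℝ) (p + 1) → g'.2 ∈ Icc (q : ℝ) (q + 1) →
      itp (nu n1 n2) g' = v + (q + 1 - g'.2) * a + (p + 1 - g'.1) * b +
        min (p + 1 - g'.1) (q + 1 - g'.2) * c := by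
  refine ⟨_, _, _, nu n1 n2 (p + 1) (q + 1), cd_nu h1 h2 p q, fun g' k1 k2 => ?_⟩
  rw [itp_box (nu n1 n2) (i' := p) (i := p + 1) (j' := q) (j := q + 1) (by omega) (by omega)
    (by omega) (by omega) k1.1 (by push_cast; exact k1.2) k2.1 (by push_cast; exact k2.2)]
  simp only [itc]
  push_cast
  rfl

omit h1 h2 in
/-- the fractional cell of a coordinate -/
theorem exists_cell {n : ℕ} (hn : 0 < n) {t : ℝ} (ht : t ∈ Icc (0 : ℝ) n) :
    ∃ q : ℕ, q < n ∧ t ∈ Icc (q : ℝ) (q + 1) := by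
  rcases ht.2.eq_or_lt with h | h
  · refine ⟨n - 1, by omega, ?_⟩
    have : ((n - 1 : ℕ) : ℝ) = n - 1 := by
      rw [Nat.cast_sub (by omega)]; simp
    rw [this, h]
    constructor <;> linarith
  · refine ⟨⌊t⌋₊, (Nat.floor_lt ht.1).2 h, Nat.floor_le ht.1, ?_⟩
    exact (Nat.lt_floor_add_one t).le

theorem itp_m1 {s t y : ℝ} (hs : 0 ≤ s) (hst : s ≤ t) (ht : t ≤ n1) (hy : y ∈ Icc (0 : ℝ) n2) :
    itp (nu n1 n2) (t, y) ≤ itp (nu n1 n2) (s, y) ∧
      itp (nu n1 n2) (s, y) - itp (nu n1 n2) (t, y) ≤ (t - s) / n1 := by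
  obtain ⟨q, hq, hyq⟩ := exists_cell h2 hy
  have hn1 : (0 : ℝ) < n1 := by exact_mod_cast h1
  have H : ∀ p : ℕ, ∀ s ∈ Icc (p : ℝ) (p + 1), ∀ t ∈ Icc (p : ℝ) (p + 1), s ≤ t →
      itp (nu n1 n2) (t, y) ≤ itp (nu n1 n2) (s, y) ∧
      itp (nu n1 n2) (s, y) - itp (nu n1 n2) (t, y) ≤ (t - s) / n1 := by
    intro p s hs t ht hst
    obtain ⟨a, b, c, v, hc, hf⟩ := itp_nu_box h1 h2 (g := (s, y)) hs hyq
    rw [hf (s, y) hs hyq, hf (t, y) ht hyq]
    simp only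
    have k1 : min ((p : ℝ) + 1 - t) (q + 1 - y) ≤ min ((p : ℝ) + 1 - s) (q + 1 - y) :=
      min_le_min (by linarith) le_rfl
    have k2 : min ((p : ℝ) + 1 - s) (q + 1 - y) ≤ min ((p : ℝ) + 1 - t) (q + 1 - y) + (t - s) := by
      rw [min_add]
      exact min_le_min (by linarith) (by linarith)
    have k3 := mul_le_mul_of_nonneg_right k1 hc.c0
    have k4 := mul_le_mul_of_nonneg_right k2 hc.c0
    have k5 := mul_nonneg (sub_nonneg.2 hst) hc.b0
    have k6 := mul_le_mul_of_nonneg_left hc.bh (sub_nonneg.2 hst)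
    have e : (t - s) / n1 = (t - s) * (1 / n1) := by ring
    rw [e]
    constructor
    · nlinarith
    · nlinarith
  have M1 : MonotoneOn (fun t => -itp (nu n1 n2) (t, y)) (Icc (0 : ℝ) n1) := by
    apply mono_chain n1
    intro p _ s hs t ht hst
    have := (H p s hs t ht hst).1
    simp only
    linarith
  have M2 : MonotoneOn (fun t => itp (nu n1 n2) (t, y) + t / n1) (Icc (0 : ℝ) n1) := by
    apply mono_chain n1
    intro p _ s hs t ht hst
    have := (H p s hs t ht hst).2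
    simp only
    rw [sub_div] at this
    linarith
  have a1 := M1 ⟨hs, hst.trans ht⟩ ⟨hs.trans hst, ht⟩ hst
  have a2 := M2 ⟨hs, hst.trans ht⟩ ⟨hs.trans hst, ht⟩ hst
  simp only at a1 a2
  rw [sub_div]
  constructor <;> linarith

end adm

theorem nu_swap (n1 n2 : ℕ) : (fun i j => nu n2 n1 j i) = nu n1 n2 := by
  funext i j
  simp only [nu, min_comm]

theorem itp_nu_swap (n1 n2 : ℕ) (g : ℝ × ℝ) :
    itp (nu n2 n1) (g.2, g.1) = itp (nu n1 n2) g := by
  rw [← itp_swap (nu n1 n2) g, ← nu_swap n2 n1]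

theorem itp_m2 {n1 n2 : ℕ} (h1 : 0 < n1) (h2 : 0 < n2) {s t x : ℝ} (hs : 0 ≤ s) (hst : s ≤ t)
    (ht : t ≤ n2) (hx : x ∈ Icc (0 : ℝ) n1) :
    itp (nu n1 n2) (x, t) ≤ itp (nu n1 n2) (x, s) ∧
      itp (nu n1 n2) (x, s) - itp (nu n1 n2) (x, t) ≤ (t - s) / n2 := by
  have := itp_m1 h2 h1 hs hst ht hx
  rw [← itp_nu_swap n1 n2 (x, t), ← itp_nu_swap n1 n2 (x, s)]
  exact this

/-- the strict inequality -/
theorem itp_st {n1 n2 : ℕ} (h1 : 0 < n1) (h2 : 0 < n2) {s s' t t' : ℝ} (hs : 0 ≤ s)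
    (hss : s < s') (hs' : s' ≤ n1) (ht : 0 ≤ t) (htt : t < t') (ht' : t' ≤ n2) :
    itp (nu n1 n2) (s, t) - itp (nu n1 n2) (s', t') < (s' - s) / n1 + (t' - t) / n2 := by
  have hn1 : (0 : ℝ) < n1 := by exact_mod_cast h1
  have hn2 : (0 : ℝ) < n2 := by exact_mod_cast h2
  -- the unit square above `(s, t)`
  set p := ⌊s⌋₊ with hp
  set q := ⌊t⌋₊ with hq
  have p1 : (p : ℝ) ≤ s := Nat.floor_le hs
  have p2 : s < p + 1 := Nat.lt_floor_add_one s
  have q1 : (q : ℝ) ≤ t := Nat.floor_le ht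
  have q2 : t < q + 1 := Nat.lt_floor_add_one t
  set s1 := min s' (p + 1) with hs1
  set t1 := min t' (q + 1) with ht1
  have a1 : s < s1 := lt_min hss p2
  have a2 : s1 ≤ s' := min_le_left _ _
  have a3 : s1 ≤ p + 1 := min_le_right _ _
  have b1 : t < t1 := lt_min htt q2
  have b2 : t1 ≤ t' := min_le_left _ _
  have b3 : t1 ≤ q + 1 := min_le_right _ _
  have k1 := (itp_m1 h1 h2 (s := s1) (t := s') (y := t1) (by linarith) a2 hs'
    ⟨by linarith, b2.trans ht'⟩).2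
  have k2 := (itp_m2 h1 h2 (s := t1) (t := t') (x := s') (by linarith) b2 ht'
    ⟨by linarith, hs'⟩).2
  have k3 : itp (nu n1 n2) (s, t) - itp (nu n1 n2) (s1, t1) < (s1 - s) / n1 + (t1 - t) / n2 := by
    obtain ⟨a, b, c, v, hc, hf⟩ := itp_nu_box h1 h2 (g := (s, t)) (p := p) (q := q)
      ⟨p1, p2.le⟩ ⟨q1, q2.le⟩
    rw [hf (s, t) ⟨p1, p2.le⟩ ⟨q1, q2.le⟩, hf (s1, t1) ⟨by simp only; linarith, a3⟩
      ⟨by simp only; linarith, b3⟩]
    simp only
    have e1 : (s1 - s) / n1 = (s1 - s) * (1 / n1) := by ring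
    have e2 : (t1 - t) / n2 = (t1 - t) * (1 / n2) := by ring
    rw [e1, e2]
    have d1 : 0 < s1 - s := by linarith
    have d2 : 0 < t1 - t := by linarith
    have m0 : min ((p : ℝ) + 1 - s) (q + 1 - t) - min ((p : ℝ) + 1 - s1) (q + 1 - t1) <
        (s1 - s) + (t1 - t) := by
      rcases le_total ((p : ℝ) + 1 - s1) (q + 1 - t1) with k | k
      · rw [min_eq_left k]
        have := min_le_left ((p : ℝ) + 1 - s) (q + 1 - t)
        linarith
      · rw [min_eq_right k]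
        have := min_le_right ((p : ℝ) + 1 - s) (q + 1 - t)
        linarith
    have c1 := mul_le_mul_of_nonneg_left hc.ak d2.le
    have c2 := mul_le_mul_of_nonneg_left hc.bh d1.le
    rcases hc.c0.eq_or_lt with e | e
    · -- `c = 0`
      have hc0 : c = 0 := e.symm
      rw [hc0] at c1 c2 ⊢
      rcases hc.ab with ha | hb
      · rw [ha] at c1 ⊢
        have := mul_pos d2 hc.k0
        nlinarith
      · rw [hb] at c2 ⊢
        have := mul_pos d1 hc.h0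
        nlinarith
    · have := mul_lt_mul_of_pos_left m0 e
      nlinarith
  have f1 : (s' - s) / n1 = (s' - s1) / n1 + (s1 - s) / n1 := by ring
  have f2 : (t' - t) / n2 = (t' - t1) / n2 + (t1 - t) / n2 := by ring
  linarith

/-- the heights on the unit square -/
noncomputable def Nf (n1 n2 : ℕ) (w : ℝ × ℝ) : ℝ :=
  itp (nu n1 n2) ((n1 : ℝ) * (1 - w.1), (n2 : ℝ) * (1 - w.2))

theorem Nf_swap (n1 n2 : ℕ) (x y : ℝ) : Nf n2 n1 (y, x) = Nf n1 n2 (x, y) := by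
  simp only [Nf]
  exact itp_nu_swap n1 n2 ((n1 : ℝ) * (1 - x), (n2 : ℝ) * (1 - y))

/-- the heights on the side `w₁ = 1` -/
theorem itp_bd_one {n1 n2 : ℕ} (h2 : 0 < n2) {t : ℝ} (ht : t ∈ Icc (0 : ℝ) n2) :
    itp (nu n1 n2) (0, t) = 1 - t / n2 := by
  have hn2 : (0 : ℝ) < n2 := by exact_mod_cast h2
  obtain ⟨q, hq, htq⟩ := exists_cell h2 ht
  rw [itp_box (nu n1 n2) (i' := 0) (i := 0) (j' := q) (j := q + 1) le_rfl (by omega)
    (by omega) (by omega) (by simp) (by simp) htq.1 (by push_cast; exact htq.2)]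
  have e : ∀ j : ℕ, nu n1 n2 0 j = 1 - (j : ℝ) / n2 := by
    intro j
    simp only [nu, Nat.cast_zero, zero_div, sub_zero]
    exact min_eq_right (by
      have : 0 ≤ (j : ℝ) / n2 := by positivity
      linarith)
  simp only [itc, e]
  push_cast
  ring

/-- the heights on the side `w₁ = 0` -/
theorem itp_bd_zero {n1 n2 : ℕ} (h1 : 0 < n1) (h2 : 0 < n2) {t : ℝ} (ht : t ∈ Icc (0 : ℝ) n2) :
    itp (nu n1 n2) (n1, t) = 0 := by
  have hn1 : (0 : ℝ) < n1 := by exact_mod_cast h1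
  have hn2 : (0 : ℝ) < n2 := by exact_mod_cast h2
  obtain ⟨q, hq, htq⟩ := exists_cell h2 ht
  rw [itp_box (nu n1 n2) (i' := n1) (i := n1) (j' := q) (j := q + 1) le_rfl (by omega)
    (by omega) (by omega) (by simp) (by simp) htq.1 (by push_cast; exact htq.2)]
  have e : ∀ j : ℕ, j ≤ n2 → nu n1 n2 n1 j = 0 := by
    intro j hj
    have : (j : ℝ) / n2 ≤ 1 := by
      rw [div_le_one hn2]; exact_mod_cast hj
    simp only [nu, div_self hn1.ne', sub_self]
    exact min_eq_left (by linarith)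
  simp only [itc, e q hq.le, e (q + 1) hq]
  simp

/-- **the interpolated heights are admissible** -/
theorem adm_Nf {n1 n2 : ℕ} (h1 : 0 < n1) (h2 : 0 < n2) : Adm (Nf n1 n2) := by
  have hn1 : (0 : ℝ) < n1 := by exact_mod_cast h1
  have hn2 : (0 : ℝ) < n2 := by exact_mod_cast h2
  have lvl : ∀ {n : ℕ}, 0 < n → ∀ {x : ℝ}, x ∈ Icc (0 : ℝ) 1 → (n : ℝ) * (1 - x) ∈ Icc (0 : ℝ) n := by
    intro n hn x hx
    have : (0 : ℝ) < n := by exact_mod_cast hn
    constructor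
    · exact mul_nonneg this.le (by linarith [hx.2])
    · nlinarith [hx.1]
  have dv : ∀ {n : ℕ}, 0 < n → ∀ x x' : ℝ, ((n : ℝ) * (1 - x') - n * (1 - x)) / n = x - x' := by
    intro n hn x x'
    have : (0 : ℝ) < n := by exact_mod_cast hn
    field_simp
    ring
  refine ⟨?_, ?_, ?_, ?_⟩
  · intro x x' y hx hx' hy hle
    have := itp_m1 h1 h2 (s := n1 * (1 - x)) (t := n1 * (1 - x')) (y := n2 * (1 - y))
      (lvl h1 hx).1 (by nlinarith) (lvl h1 hx').2 (lvl h2 hy)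
    rw [dv h1 x x'] at this
    exact this
  · intro x y y' hx hy hy' hle
    have := itp_m2 h1 h2 (s := n2 * (1 - y)) (t := n2 * (1 - y')) (x := n1 * (1 - x))
      (lvl h2 hy).1 (by nlinarith) (lvl h2 hy').2 (lvl h1 hx)
    rw [dv h2 y y'] at this
    exact this
  · intro x x' y y' hx hx' hy hy' hlx hly
    have := itp_st h1 h2 (s := n1 * (1 - x)) (s' := n1 * (1 - x')) (t := n2 * (1 - y))
      (t' := n2 * (1 - y')) (lvl h1 hx).1 (by nlinarith) (lvl h1 hx').2 (lvl h2 hy).1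
      (by nlinarith) (lvl h2 hy').2
    rw [dv h1 x x', dv h2 y y'] at this
    exact this
  · rintro ⟨x, y⟩ ⟨hx, hy⟩ hn
    simp only at hx hy ⊢
    have hcases : x = 0 ∨ x = 1 ∨ y = 0 ∨ y = 1 := by
      by_contra hcon
      push Not at hcon
      exact hn ⟨⟨lt_of_le_of_ne hx.1 (Ne.symm hcon.1), lt_of_le_of_ne hx.2 hcon.2.1⟩,
        ⟨lt_of_le_of_ne hy.1 (Ne.symm hcon.2.2.1), lt_of_le_of_ne hy.2 hcon.2.2.2⟩⟩
    rcases hcases with rfl | rfl | rfl | rfl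
    · rw [min_eq_left hy.1]
      simp only [Nf, sub_zero, mul_one]
      exact itp_bd_zero h1 h2 (lvl h2 hy)
    · rw [min_eq_right hy.2]
      simp only [Nf, sub_self, mul_zero]
      rw [itp_bd_one h2 (lvl h2 hy)]
      field_simp
      ring
    · rw [min_eq_right hx.1, ← Nf_swap]
      simp only [Nf, sub_zero, mul_one]
      exact itp_bd_zero h2 h1 (lvl h1 hx)
    · rw [min_eq_left hx.2, ← Nf_swap]
      simp only [Nf, sub_self, mul_zero]
      rw [itp_bd_one h1 (lvl h1 hx)]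
      field_simp
      ring

end Crest.Agent.R096.Grd_714
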