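import Crest.Agent.R096.Grt1_714
import Crest.Agent.R096.Grd2_714

/-!
# R096 (row 96), GRID, T at the grid points, part 3 (helper714): the 2-skeleton with general heights

`Bn b N u = T b u + (N c1 c2 w - min w₁ w₂) • (v + C - P - P')`, `w = (1 - u c1, 1 - u c2)`, for a
symmetric family `N c1 c2` of admissible heights (`Fam N`).
-/

set_option autoImplicit false
set_option linter.unusedSectionVars false
set_option linter.unusedVariables false

open Set

namespace Crest.Agent.R096.Grd_714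

open Crest.Agent.R096.Brk1_582 Crest.Agent.R096.Brk2_582 Crest.Agent.R096.Brk6_582

variable {E : Type*} [NormedAddCommGroup E] [NormedSpace ℝ E] {I : Type*}
variable {La : Set E} {P : I → Set E} {b : Set I → E} {N : I → I → ℝ × ℝ → ℝ}

namespace Fr

variable (X : Fr E)

/-- the chart of the height `n` -/
noncomputable def nl (n : ℝ × ℝ → ℝ) (w : ℝ × ℝ) : E := X.pt (tn X.α X.β n w)

theorem nl_tl (n : ℝ × ℝ → ℝ) (w : ℝ × ℝ) : X.nl n w = X.tl w +
    (n w - min w.1 w.2) • (X.α • X.f1 + X.β • X.f2) := by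
  simp only [nl, Fr.tl, Fr.pt, tn, tw]
  module

theorem nl_injOn {n : ℝ × ℝ → ℝ} (A : Adm n) : InjOn (X.nl n) Sc :=
  fun _ hw _ hw' he => A.tn_injOn X.shp hw hw' (X.pt_inj he)

theorem nl_mem {n : ℝ × ℝ → ℝ} (A : Adm n) {w : ℝ × ℝ} (hw : w ∈ Sc) : X.nl n w ∈ X.cell :=
  ⟨_, A.tn_mapsTo X.shp hw, rfl⟩

theorem exists_tl_of_nl {n : ℝ × ℝ → ℝ} (A : Adm n) {w : ℝ × ℝ} (hw : w ∈ So) :
    ∃ w' ∈ So, X.tl w' = X.nl n w := by
  obtain ⟨w', h1, h2⟩ := exists_tw X.shp (A.tn_mapsTo X.shp (So_sub hw))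
  refine ⟨w', (tw_mem_Rgo X.shp h1).1 ?_, by rw [Fr.tl, h2, nl]⟩
  rw [h2]; exact (A.tn_mem_Rgo X.shp (So_sub hw)).2 hw

theorem exists_nl_of_tl {n : ℝ × ℝ → ℝ} (A : Adm n) {w : ℝ × ℝ} (hw : w ∈ So) :
    ∃ w' ∈ So, X.nl n w' = X.tl w := by
  obtain ⟨w', h1, h2⟩ := A.tn_surj X.shp (tw_mapsTo X.shp (So_sub hw))
  refine ⟨w', (A.tn_mem_Rgo X.shp h1).1 ?_, by rw [Fr.tl, nl, h2]⟩
  rw [h2]; exact (tw_mem_Rgo X.shp (So_sub hw)).2 hw

end Fr

open Classical in
/-- **the modified coordinates** on the 2-skeleton of the cube complex -/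
noncomputable def Bn (b : Set I → E) (N : I → I → ℝ × ℝ → ℝ) (u : I → ℝ) : E :=
  if h : ∃ c1 c2 : I, c1 ≠ c2 ∧ av u = {c1, c2} then
    T b u + (N h.choose h.choose_spec.choose (1 - u h.choose, 1 - u h.choose_spec.choose) -
      min (1 - u h.choose) (1 - u h.choose_spec.choose)) •
      (b {c | u c < 1} + b {c | u c = 0} - b (insert h.choose {c | u c = 0}) -
        b (insert h.choose_spec.choose {c | u c = 0}))
  else T b u

/-- symmetric families -/
def Sym (N : I → I → ℝ × ℝ → ℝ) : Prop := ∀ c c' x y, N c' c (y, x) = N c c' (x, y)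

theorem cor_symm'' (hN : Sym N) (u : I → ℝ) (y : E) (g : I → E) {c1 c2 d1 d2 : I} (h1 : d1 ≠ d2)
    (h2 : ({c1, c2} : Set I) = {d1, d2}) :
    (N d1 d2 (1 - u d1, 1 - u d2) - min (1 - u d1) (1 - u d2)) • (y - g d1 - g d2) =
      (N c1 c2 (1 - u c1, 1 - u c2) - min (1 - u c1) (1 - u c2)) • (y - g c1 - g c2) := by
  have k1 : d1 = c1 ∨ d1 = c2 := by
    have : d1 ∈ ({d1, d2} : Set I) := by simp
    rw [← h2] at this
    simpa using this
  have k2 : d2 = c1 ∨ d2 = c2 := by
    have : d2 ∈ ({d1, d2} : Set I) := by simp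
    rw [← h2] at this
    simpa using this
  rcases k1 with k1 | k1 <;> rcases k2 with k2 | k2
  · exact absurd (k1.trans k2.symm) h1
  · rw [k1, k2]
  · rw [k1, k2, hN c1 c2, min_comm (1 - u c2)]
    congr 1
    abel
  · exact absurd (k1.trans k2.symm) h1

theorem Bn_eq (hN : Sym N) {u : I → ℝ} {c1 c2 : I} (hne : c1 ≠ c2) (hav : av u = {c1, c2}) :
    Bn b N u = T b u + (N c1 c2 (1 - u c1, 1 - u c2) - min (1 - u c1) (1 - u c2)) •
      (b {c | u c < 1} + b {c | u c = 0} - b (insert c1 {c | u c = 0}) -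
        b (insert c2 {c | u c = 0})) := by
  have h : ∃ c1 c2 : I, c1 ≠ c2 ∧ av u = {c1, c2} := ⟨c1, c2, hne, hav⟩
  rw [Bn, dif_pos h]
  congr 1
  have hs := h.choose_spec.choose_spec
  exact cor_symm'' hN u (b {c | u c < 1} + b {c | u c = 0}) (fun c => b (insert c {c | u c = 0}))
    hs.1 (hav.symm.trans hs.2)

theorem Bn_of_ncard {u : I → ℝ} (h : (av u).ncard ≠ 2) : Bn b N u = T b u := by
  rw [Bn, dif_neg]
  rintro ⟨c1, c2, hne, hav⟩
  exact h (by rw [hav, ncard_pair hne])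

section sq

variable (A : ∀ c1 c2, Adm (N c1 c2)) (hN : Sym N) [CompleteSpace E] (F : Foam La P b 4)
include A hN F

theorem Bn_fr {Z : Set I} (hA : Z.Nonempty) {c1 c2 : I} (hc1 : c1 ∉ Z) (hc2 : c2 ∉ Z)
    (hne : c1 ≠ c2) (hfc : (fc P (insert c2 (insert c1 Z))).Nonempty)
    (hq : QC (b (insert c2 (insert c1 Z))) (b (insert c2 Z)) (b Z) (b (insert c1 Z)))
    {u : I → ℝ} (hu : InSq Z c1 c2 u) :
    Bn b N u = hq.fr.nl (N c1 c2) (1 - u c1, 1 - u c2) := by
  have hT := T_fr F hA hc1 hc2 hne hfc hq hu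
  have key : hq.fr.nl (N c1 c2) (1 - u c1, 1 - u c2) = hq.fr.tl (1 - u c1, 1 - u c2) +
      (N c1 c2 (1 - u c1, 1 - u c2) - min (1 - u c1) (1 - u c2)) •
        (b (insert c2 (insert c1 Z)) + b Z - b (insert c1 Z) - b (insert c2 Z)) := by
    rw [hq.fr.nl_tl, hq.fr_cross]
  by_cases h2 : (av u).ncard = 2
  · have hav : av u = {c1, c2} := by
      apply Set.eq_of_subset_of_ncard_le hu.av_sub
      rw [ncard_pair hne, h2]
    have h1 : 0 < u c1 ∧ u c1 < 1 := by
      have : c1 ∈ av u := by rw [hav]; simp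
      exact this
    have h2 : 0 < u c2 ∧ u c2 < 1 := by
      have : c2 ∈ av u := by rw [hav]; simp
      exact this
    have hZ : {c | u c = 0} = Z := by
      ext c
      constructor
      · intro (hc : u c = 0)
        by_contra hcA
        by_cases e1 : c = c1
        · subst e1; exact h1.1.ne' hc
        by_cases e2 : c = c2
        · subst e2; exact h2.1.ne' hc
        · rw [hu.one c hcA e1 e2] at hc; exact one_ne_zero hc
      · exact hu.zero c
    have hL : {c | u c < 1} = insert c2 (insert c1 Z) := by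
      ext c
      simp only [mem_insert_iff]
      constructor
      · intro (hc : u c < 1)
        by_contra hn
        simp only [not_or] at hn
        rw [hu.one c hn.2.2 hn.2.1 hn.1] at hc
        exact lt_irrefl _ hc
      · rintro (rfl | rfl | hc)
        · exact h2.2
        · exact h1.2
        · show u c < 1
          rw [hu.zero c hc]; exact one_pos
    rw [Bn_eq hN hne hav, hT, hZ, hL, key]
  · rw [Bn_of_ncard h2, hT, key]
    have hz : N c1 c2 (1 - u c1, 1 - u c2) - min (1 - u c1) (1 - u c2) = 0 := by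
      have m1 := hu.m1
      have m2 := hu.m2
      have hin : ((1 - u c1, 1 - u c2) : ℝ × ℝ) ∈ Sc :=
        ⟨⟨by simp only; linarith [m1.2], by simp only; linarith [m1.1]⟩,
          ⟨by simp only; linarith [m2.2], by simp only; linarith [m2.1]⟩⟩
      rw [(A c1 c2).bd _ hin, sub_self]
      intro ho
      apply h2
      have : av u = {c1, c2} := by
        apply Subset.antisymm hu.av_sub
        have k1 := ho.1
        have k2 := ho.2
        simp only [mem_Ioo] at k1 k2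
        rintro c (rfl | rfl)
        · exact ⟨by linarith [k1.2], by linarith [k1.1]⟩
        · exact ⟨by linarith [k2.2], by linarith [k2.1]⟩
      rw [this, ncard_pair hne]
    rw [hz, zero_smul, add_zero]

variable (hQ : Quads P b)
include hQ

open Classical in
/-- (K) the `Bn` point is a `T` point of the same type -/
theorem exists_T_of_Bn {u : I → ℝ} (hu : u ∈ K2 P) : ∃ v ∈ K2 P, T b v = Bn b N u ∧
    {c | v c = 0} = {c | u c = 0} ∧ {c | v c < 1} = {c | u c < 1} := by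
  rcases K2_cases F hu with h | ⟨c1, c2, hne, hav, hZ, hL, n1, n2, hin⟩
  · exact ⟨u, hu, (Bn_of_ncard (by omega)).symm, rfl, rfl⟩
  have hZne := F.K_zero_nonempty hu.1
  have hfc : (fc P (insert c2 (insert c1 {c | u c = 0}))).Nonempty := by rw [← hL]; exact hu.1.2.2
  have hq := hQ _ c1 c2 hZ n1 n2 hne hfc
  have m1 : c1 ∈ av u := by rw [hav]; simp
  have m2 : c2 ∈ av u := by rw [hav]; simp
  obtain ⟨w', hw', he⟩ := hq.fr.exists_tl_of_nl (A c1 c2) (w := (1 - u c1, 1 - u c2))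
    ⟨⟨by simp only; linarith [m1.2], by simp only; linarith [m1.1]⟩,
      ⟨by simp only; linarith [m2.2], by simp only; linarith [m2.1]⟩⟩
  obtain ⟨g1, g2⟩ := hw'
  let v : I → ℝ := Function.update (Function.update u c1 (1 - w'.1)) c2 (1 - w'.2)
  have v1 : v c1 = 1 - w'.1 := by simp [v, Function.update_of_ne hne]
  have v2 : v c2 = 1 - w'.2 := by simp [v]
  have v3 : ∀ c, c ≠ c1 → c ≠ c2 → v c = u c := fun c h1 h2 => by
    simp [v, Function.update_of_ne h1, Function.update_of_ne h2]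
  have hZv : {c | v c = 0} = {c | u c = 0} := by
    ext c
    by_cases e1 : c = c1
    · subst e1
      simp only [mem_ofPred_eq, v1]
      exact ⟨fun h => absurd h (by linarith [g1.2]), fun h => absurd h m1.1.ne'⟩
    by_cases e2 : c = c2
    · subst e2
      simp only [mem_ofPred_eq, v2]
      exact ⟨fun h => absurd h (by linarith [g2.2]), fun h => absurd h m2.1.ne'⟩
    simp only [mem_ofPred_eq, v3 c e1 e2]
  have hLv : {c | v c < 1} = {c | u c < 1} := by
    ext c
    by_cases e1 : c = c1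
    · subst e1
      simp only [mem_ofPred_eq, v1]
      exact ⟨fun _ => m1.2, fun _ => by linarith [g1.1]⟩
    by_cases e2 : c = c2
    · subst e2
      simp only [mem_ofPred_eq, v2]
      exact ⟨fun _ => m2.2, fun _ => by linarith [g2.1]⟩
    simp only [mem_ofPred_eq, v3 c e1 e2]
  have hvK : v ∈ K2 P := by
    obtain ⟨hK, c, c', hcc, h0, h0'⟩ := hu
    refine ⟨⟨fun c => ?_, ?_, ?_⟩, c, c', hcc, ?_, ?_⟩
    · by_cases e1 : c = c1
      · subst e1; rw [v1]; constructor <;> linarith [g1.1, g1.2]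
      by_cases e2 : c = c2
      · subst e2; rw [v2]; constructor <;> linarith [g2.1, g2.2]
      rw [v3 c e1 e2]; exact hK.1 c
    · obtain ⟨d, hd⟩ := hK.2.1
      exact ⟨d, by have : d ∈ {c | v c = 0} := by rw [hZv]; exact hd
                   exact this⟩
    · rw [hLv]; exact hK.2.2
    · have : c ∈ {c | v c = 0} := by rw [hZv]; exact h0
      exact this
    · have : c' ∈ {c | v c = 0} := by rw [hZv]; exact h0'
      exact this
  have hvin : InSq {c | u c = 0} c1 c2 v := by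
    refine ⟨fun c hc => ?_, fun c hc h1 h2 => ?_, ?_, ?_⟩
    · have : c ∈ {c | v c = 0} := by rw [hZv]; exact hc
      exact this
    · rw [v3 c h1 h2]; exact hin.one c hc h1 h2
    · exact hvK.1.1 c1
    · exact hvK.1.1 c2
  refine ⟨v, hvK, ?_, hZv, hLv⟩
  rw [T_fr F hZne n1 n2 hne hfc hq hvin, Bn_fr A hN F hZne n1 n2 hne hfc hq hin, ← he, v1, v2]
  simp

open Classical in
/-- (K') a `T` point is a `Bn` point of the same type -/
theorem exists_Bn_of_T {u : I → ℝ} (hu : u ∈ K2 P) : ∃ v ∈ K2 P, Bn b N v = T b u ∧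
    {c | v c = 0} = {c | u c = 0} ∧ {c | v c < 1} = {c | u c < 1} := by
  rcases K2_cases F hu with h | ⟨c1, c2, hne, hav, hZ, hL, n1, n2, hin⟩
  · exact ⟨u, hu, (Bn_of_ncard (by omega)), rfl, rfl⟩
  have hZne := F.K_zero_nonempty hu.1
  have hfc : (fc P (insert c2 (insert c1 {c | u c = 0}))).Nonempty := by rw [← hL]; exact hu.1.2.2
  have hq := hQ _ c1 c2 hZ n1 n2 hne hfc
  have m1 : c1 ∈ av u := by rw [hav]; simp
  have m2 : c2 ∈ av u := by rw [hav]; simp
  obtain ⟨w', hw', he⟩ := hq.fr.exists_nl_of_tl (A c1 c2) (w := (1 - u c1, 1 - u c2))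
    ⟨⟨by simp only; linarith [m1.2], by simp only; linarith [m1.1]⟩,
      ⟨by simp only; linarith [m2.2], by simp only; linarith [m2.1]⟩⟩
  obtain ⟨g1, g2⟩ := hw'
  let v : I → ℝ := Function.update (Function.update u c1 (1 - w'.1)) c2 (1 - w'.2)
  have v1 : v c1 = 1 - w'.1 := by simp [v, Function.update_of_ne hne]
  have v2 : v c2 = 1 - w'.2 := by simp [v]
  have v3 : ∀ c, c ≠ c1 → c ≠ c2 → v c = u c := fun c h1 h2 => by
    simp [v, Function.update_of_ne h1, Function.update_of_ne h2]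
  have hZv : {c | v c = 0} = {c | u c = 0} := by
    ext c
    by_cases e1 : c = c1
    · subst e1
      simp only [mem_ofPred_eq, v1]
      exact ⟨fun h => absurd h (by linarith [g1.2]), fun h => absurd h m1.1.ne'⟩
    by_cases e2 : c = c2
    · subst e2
      simp only [mem_ofPred_eq, v2]
      exact ⟨fun h => absurd h (by linarith [g2.2]), fun h => absurd h m2.1.ne'⟩
    simp only [mem_ofPred_eq, v3 c e1 e2]
  have hLv : {c | v c < 1} = {c | u c < 1} := by
    ext c
    by_cases e1 : c = c1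
    · subst e1
      simp only [mem_ofPred_eq, v1]
      exact ⟨fun _ => m1.2, fun _ => by linarith [g1.1]⟩
    by_cases e2 : c = c2
    · subst e2
      simp only [mem_ofPred_eq, v2]
      exact ⟨fun _ => m2.2, fun _ => by linarith [g2.1]⟩
    simp only [mem_ofPred_eq, v3 c e1 e2]
  have hvK : v ∈ K2 P := by
    obtain ⟨hK, c, c', hcc, h0, h0'⟩ := hu
    refine ⟨⟨fun c => ?_, ?_, ?_⟩, c, c', hcc, ?_, ?_⟩
    · by_cases e1 : c = c1
      · subst e1; rw [v1]; constructor <;> linarith [g1.1, g1.2]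
      by_cases e2 : c = c2
      · subst e2; rw [v2]; constructor <;> linarith [g2.1, g2.2]
      rw [v3 c e1 e2]; exact hK.1 c
    · obtain ⟨d, hd⟩ := hK.2.1
      exact ⟨d, by have : d ∈ {c | v c = 0} := by rw [hZv]; exact hd
                   exact this⟩
    · rw [hLv]; exact hK.2.2
    · have : c ∈ {c | v c = 0} := by rw [hZv]; exact h0
      exact this
    · have : c' ∈ {c | v c = 0} := by rw [hZv]; exact h0'
      exact this
  have hvin : InSq {c | u c = 0} c1 c2 v := by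
    refine ⟨fun c hc => ?_, fun c hc h1 h2 => ?_, ?_, ?_⟩
    · have : c ∈ {c | v c = 0} := by rw [hZv]; exact hc
      exact this
    · rw [v3 c h1 h2]; exact hin.one c hc h1 h2
    · exact hvK.1.1 c1
    · exact hvK.1.1 c2
  refine ⟨v, hvK, ?_, hZv, hLv⟩
  rw [T_fr F hZne n1 n2 hne hfc hq hin, Bn_fr A hN F hZne n1 n2 hne hfc hq hvin, ← he, v1, v2]
  simp

/-- the cells through the `Bn` point -/
theorem act_Bn {u : I → ℝ} (hu : u ∈ K2 P) : act P (Bn b N u) = {c | u c = 0} := by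
  obtain ⟨v, hv, h1, h2, _⟩ := exists_T_of_Bn A hN F hQ hu
  rw [← h1, F.act_T hv.1, h2]

/-- **`Bn` is injective on the 2-skeleton** -/
theorem Bn_injOn : InjOn (Bn b N) (K2 P) := by
  intro u hu u' hu' he
  obtain ⟨v, hv, h1, h2, h3⟩ := exists_T_of_Bn A hN F hQ hu
  obtain ⟨v', hv', h1', h2', h3'⟩ := exists_T_of_Bn A hN F hQ hu'
  have hvv : v = v' := F.T_injOn hv.1 hv'.1 (by rw [h1, h1', he])
  subst hvv
  rw [h2] at h2'
  rw [h3] at h3'
  have hav : av u = av u' := by
    ext c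
    have a1 := Set.ext_iff.1 h2' c
    have a2 := Set.ext_iff.1 h3' c
    simp only [mem_ofPred_eq] at a1 a2
    simp only [av, mem_ofPred_eq]
    have p1 := (hu.1.1 c).1
    have p2 := (hu'.1.1 c).1
    constructor
    · rintro ⟨q1, q2⟩
      exact ⟨lt_of_le_of_ne p2 fun h => q1.ne' (a1.2 h.symm), a2.1 q2⟩
    · rintro ⟨q1, q2⟩
      exact ⟨lt_of_le_of_ne p1 fun h => q1.ne' (a1.1 h.symm), a2.2 q2⟩
  rcases K2_cases F hu with h | ⟨c1, c2, hne, hav1, hZ, hL, n1, n2, hin⟩
  · rw [Bn_of_ncard (by omega), Bn_of_ncard (by rw [← hav]; omega)] at he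
    exact F.T_injOn hu.1 hu'.1 he
  have hZne := F.K_zero_nonempty hu.1
  have hfc : (fc P (insert c2 (insert c1 {c | u c = 0}))).Nonempty := by rw [← hL]; exact hu.1.2.2
  have hq := hQ _ c1 c2 hZ n1 n2 hne hfc
  have hin' : InSq {c | u c = 0} c1 c2 u' := by
    refine ⟨fun c hc => ?_, fun c hc d1 d2 => ?_, hu'.1.1 c1, hu'.1.1 c2⟩
    · have := (Set.ext_iff.1 h2' c).1 hc
      exact this
    · have k1 : u' c ≠ 0 := fun h => hc ((Set.ext_iff.1 h2' c).2 h)
      have k2 : c ∉ av u' := by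
        rw [← hav, hav1]
        simp only [mem_insert_iff, mem_singleton_iff, not_or]
        exact ⟨d1, d2⟩
      by_contra k3
      exact k2 ⟨lt_of_le_of_ne (hu'.1.1 c).1 (Ne.symm k1), lt_of_le_of_ne (hu'.1.1 c).2 k3⟩
  rw [Bn_fr A hN F hZne n1 n2 hne hfc hq hin, Bn_fr A hN F hZne n1 n2 hne hfc hq hin'] at he
  have hmem : ∀ {z : I → ℝ}, InSq {c | u c = 0} c1 c2 z → (1 - z c1, 1 - z c2) ∈ Sc := by
    intro z hz
    exact ⟨⟨by simp only; linarith [hz.m1.2], by simp only; linarith [hz.m1.1]⟩,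
      ⟨by simp only; linarith [hz.m2.2], by simp only; linarith [hz.m2.1]⟩⟩
  have := (hq.fr.nl_injOn (A c1 c2)) (hmem hin) (hmem hin') he
  rw [Prod.mk.injEq] at this
  funext c
  by_cases hcZ : u c = 0
  · rw [hcZ]; exact (hin'.zero c hcZ).symm
  by_cases e1 : c = c1
  · subst e1; linarith [this.1]
  by_cases e2 : c = c2
  · subst e2; linarith [this.2]
  rw [hin.one c hcZ e1 e2, hin'.one c hcZ e1 e2]

/-- **`Bn` is onto the 2-skeleton** -/
theorem exists_Bn {y : E} (hy : y ∈ La) {c c' : I} (hne : c ≠ c') (hc : y ∈ P c) (hc' : y ∈ P c') :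
    ∃ u ∈ K2 P, Bn b N u = y := by
  have h1 : sc P b y ∈ K2 P :=
    ⟨F.sc_mem_K hy, c, c', hne, (F.sc_eq_zero hy).2 hc, (F.sc_eq_zero hy).2 hc'⟩
  obtain ⟨v, hv, h2, _⟩ := exists_Bn_of_T A hN F hQ h1
  exact ⟨v, hv, by rw [h2, F.T_sc hy]⟩

theorem Bn_mem_La {u : I → ℝ} (hu : u ∈ K2 P) : Bn b N u ∈ La := by
  obtain ⟨v, hv, h1, _⟩ := exists_T_of_Bn A hN F hQ hu
  rw [← h1]; exact F.T_mem_La hv.1

end sq

end Crest.Agent.R096.Grd_714
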