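import Crest.Agent.R096.Grd3_714
import Crest.Agent.R096.Grt2_714
import Crest.Agent.R096.Grt3_714

/-!
# R096 (row 96), GRID, part 4 (helper714): the PL map `Tq` of the grid (T at the grid points)

`Tq b m g = Bn b (Nf (m c) (m c')) (lv m g)` (level units).  `frame2`, `frame1`: `Tq` on the boxes.
-/

set_option autoImplicit false
set_option linter.unusedSectionVars false
set_option linter.unusedVariables false

open Set

namespace Crest.Agent.R096.Grd_714

open Crest.Agent.R096.Brk1_582 Crest.Agent.R096.Brk2_582 Crest.Agent.R096.Brk6_582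

variable {E : Type*} [NormedAddCommGroup E] [NormedSpace ℝ E] {I : Type*}

/-- the family of the interpolated heights -/
noncomputable def Nm (m : I → ℕ) (c c' : I) : ℝ × ℝ → ℝ := Nf (m c) (m c')

theorem adm_Nm {m : I → ℕ} (hm : ∀ c, 0 < m c) (c c' : I) : Adm (Nm m c c') :=
  adm_Nf (hm c) (hm c')

theorem sym_Nm (m : I → ℕ) : Sym (Nm m) := fun c c' x y => Nf_swap (m c) (m c') x y

/-- **the piecewise affine map of the grid** (`g` in level units) -/
noncomputable def Tq (b : Set I → E) (m : I → ℕ) (g : I → ℝ) : E := Bn b (Nm m) (lv m g)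

variable {b : Set I → E} {P : I → Set E} {m : I → ℕ}

section cd

variable {α β h k a bb c : ℝ} (S : Shp α β) (hc : Cd h k a bb c)
include S hc

theorem Cd.aux {r q : ℝ} : h * k * (1 + α * r + β * q) = h * k + h * α * (r * k) + k * β * (q * h) := by
  ring

theorem Cd.det_pos : 0 < h * k + k * β * bb + h * α * a := by
  obtain ⟨h0, k0, a0, b0, c0, ak, bh, ab⟩ := hc
  have r0 : 0 ≤ a / k := div_nonneg a0 k0.le
  have q0 : 0 ≤ bb / h := div_nonneg b0 h0.le
  have r1 : a / k ≤ 1 := (div_le_one k0).2 (by linarith)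
  have q1 : bb / h ≤ 1 := (div_le_one h0).2 (by linarith)
  have D0 : 0 < 1 + α * (a / k) + β * (bb / h) := by
    rcases ab with h1 | h1
    · rw [h1, zero_div]
      exact S.pos1 le_rfl one_pos q0 q1
    · rw [h1, zero_div]
      exact S.pos1' r0 r1 le_rfl one_pos
  have e1 : a / k * k = a := div_mul_cancel₀ _ k0.ne'
  have e2 : bb / h * h = bb := div_mul_cancel₀ _ h0.ne'
  have e : h * k + k * β * bb + h * α * a = h * k * (1 + α * (a / k) + β * (bb / h)) := by
    have e3 : h * k * (1 + α * (a / k) + β * (bb / h)) =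
      h * k + h * α * (a / k * k) + k * β * (bb / h * h) := by ring
    rw [e3, e1, e2]; ring
  rw [e]
  exact mul_pos (mul_pos h0 k0) D0

theorem Cd.det1_pos : 0 < h * k + k * β * bb + h * α * (a + c) := by
  obtain ⟨h0, k0, a0, b0, c0, ak, bh, ab⟩ := hc
  have r0 : 0 ≤ (a + c) / k := div_nonneg (by linarith) k0.le
  have q0 : 0 ≤ bb / h := div_nonneg b0 h0.le
  have r1 : (a + c) / k ≤ 1 := (div_le_one k0).2 ak
  have q1 : bb / h ≤ 1 := (div_le_one h0).2 (by linarith)
  have D0 : 0 < 1 + α * ((a + c) / k) + β * (bb / h) := by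
    rcases ab with h1 | h1
    · rcases c0.eq_or_lt with h2 | h2
      · rw [h1, ← h2, add_zero, zero_div]
        exact S.pos1 le_rfl one_pos q0 q1
      · exact S.pos1' r0 r1 q0 ((div_lt_one h0).2 (by linarith))
    · rw [h1, zero_div]
      exact S.pos1' r0 r1 le_rfl one_pos
  have e1 : (a + c) / k * k = a + c := div_mul_cancel₀ _ k0.ne'
  have e2 : bb / h * h = bb := div_mul_cancel₀ _ h0.ne'
  have e : h * k + k * β * bb + h * α * (a + c) =
      h * k * (1 + α * ((a + c) / k) + β * (bb / h)) := by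
    have e3 : h * k * (1 + α * ((a + c) / k) + β * (bb / h)) =
      h * k + h * α * ((a + c) / k * k) + k * β * (bb / h * h) := by ring
    rw [e3, e1, e2]; ring
  rw [e]
  exact mul_pos (mul_pos h0 k0) D0

theorem Cd.det2_pos : 0 < h * k + k * β * (bb + c) + h * α * a := by
  obtain ⟨h0, k0, a0, b0, c0, ak, bh, ab⟩ := hc
  have r0 : 0 ≤ a / k := div_nonneg a0 k0.le
  have q0 : 0 ≤ (bb + c) / h := div_nonneg (by linarith) h0.le
  have r1 : a / k ≤ 1 := (div_le_one k0).2 (by linarith)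
  have q1 : (bb + c) / h ≤ 1 := (div_le_one h0).2 bh
  have D0 : 0 < 1 + α * (a / k) + β * ((bb + c) / h) := by
    rcases ab with h1 | h1
    · rw [h1, zero_div]
      exact S.pos1 le_rfl one_pos q0 q1
    · rcases c0.eq_or_lt with h2 | h2
      · rw [h1, ← h2, add_zero, zero_div]
        exact S.pos1' r0 r1 le_rfl one_pos
      · exact S.pos1 r0 ((div_lt_one k0).2 (by linarith)) q0 q1
  have e1 : a / k * k = a := div_mul_cancel₀ _ k0.ne'
  have e2 : (bb + c) / h * h = bb + c := div_mul_cancel₀ _ h0.ne'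
  have e : h * k + k * β * (bb + c) + h * α * a =
      h * k * (1 + α * (a / k) + β * ((bb + c) / h)) := by
    have e3 : h * k * (1 + α * (a / k) + β * ((bb + c) / h)) =
      h * k + h * α * (a / k * k) + k * β * ((bb + c) / h * h) := by ring
    rw [e3, e1, e2]; ring
  rw [e]
  exact mul_pos (mul_pos h0 k0) D0

theorem Cd.det3_nonneg : 0 ≤ h * k + k * β * (bb + c) + h * α * (a + c) := by
  obtain ⟨h0, k0, a0, b0, c0, ak, bh, ab⟩ := hc
  have r0 : 0 ≤ (a + c) / k := div_nonneg (by linarith) k0.le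
  have q0 : 0 ≤ (bb + c) / h := div_nonneg (by linarith) h0.le
  have r1 : (a + c) / k ≤ 1 := (div_le_one k0).2 ak
  have q1 : (bb + c) / h ≤ 1 := (div_le_one h0).2 bh
  have D0 : 0 ≤ 1 + α * ((a + c) / k) + β * ((bb + c) / h) := S.nonneg1 r0 r1 q0 q1
  have e1 : (a + c) / k * k = a + c := div_mul_cancel₀ _ k0.ne'
  have e2 : (bb + c) / h * h = bb + c := div_mul_cancel₀ _ h0.ne'
  have e : h * k + k * β * (bb + c) + h * α * (a + c) =
      h * k * (1 + α * ((a + c) / k) + β * ((bb + c) / h)) := by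
    have e3 : h * k * (1 + α * ((a + c) / k) + β * ((bb + c) / h)) =
      h * k + h * α * ((a + c) / k * k) + k * β * ((bb + c) / h * h) := by ring
    rw [e3, e1, e2]; ring
  rw [e]
  exact mul_nonneg (mul_pos h0 k0).le D0

theorem Cd.shp : Shp (α * c * h / (h * k + k * β * bb + h * α * a))
    (β * c * k / (h * k + k * β * bb + h * α * a)) := by
  have Dp := hc.det_pos S
  refine ⟨?_, ?_, ?_⟩
  · rw [lt_div_iff₀ Dp]
    have := hc.det1_pos S
    nlinarith
  · rw [lt_div_iff₀ Dp]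
    have := hc.det2_pos S
    nlinarith
  · rw [← add_div, le_div_iff₀ Dp]
    have := hc.det3_nonneg S
    nlinarith

end cd

/-- the frame of a unit square -/
noncomputable def Fr.cel (X : Fr E) {h k a bb c : ℝ} (hc : Cd h k a bb c) (x y v : ℝ) : Fr E where
  O := X.pt (y + X.α * v, x + X.β * v)
  f1 := (k + X.α * a) • X.f1 + (X.β * a) • X.f2
  f2 := (X.α * bb) • X.f1 + (h + X.β * bb) • X.f2
  α := X.α * c * h / (h * k + k * X.β * bb + h * X.α * a)
  β := X.β * c * k / (h * k + k * X.β * bb + h * X.α * a)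
  shp := hc.shp X.shp
  li := by
    intro s t hst
    have h1 : (s * (k + X.α * a) + t * (X.α * bb)) • X.f1 +
        (s * (X.β * a) + t * (h + X.β * bb)) • X.f2 = 0 := by
      rw [← hst]; module
    obtain ⟨h2, h3⟩ := X.li _ _ h1
    have Dp := hc.det_pos X.shp
    have e1 : s * (h * k + k * X.β * bb + h * X.α * a) = 0 := by
      have : s * (h * k + k * X.β * bb + h * X.α * a) =
        (h + X.β * bb) * (s * (k + X.α * a) + t * (X.α * bb)) -
        (X.α * bb) * (s * (X.β * a) + t * (h + X.β * bb)) := by ring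
      rw [this, h2, h3]; ring
    have e2 : t * (h * k + k * X.β * bb + h * X.α * a) = 0 := by
      have : t * (h * k + k * X.β * bb + h * X.α * a) =
        (k + X.α * a) * (s * (X.β * a) + t * (h + X.β * bb)) -
        (X.β * a) * (s * (k + X.α * a) + t * (X.α * bb)) := by ring
      rw [this, h2, h3]; ring
    exact ⟨(mul_eq_zero.1 e1).resolve_right Dp.ne', (mul_eq_zero.1 e2).resolve_right Dp.ne'⟩

theorem Fr.cel_cross (X : Fr E) {h k a bb c : ℝ} (hc : Cd h k a bb c) (x y v : ℝ) :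
    (X.cel hc x y v).α • (X.cel hc x y v).f1 + (X.cel hc x y v).β • (X.cel hc x y v).f2 =
      c • (X.α • X.f1 + X.β • X.f2) := by
  have Dp := (hc.det_pos X.shp).ne'
  simp only [Fr.cel]
  set D := h * k + k * X.β * bb + h * X.α * a with hD
  have e1 : (X.α * c * h / D) * (k + X.α * a) + (X.β * c * k / D) * (X.α * bb) = c * X.α := by
    rw [div_mul_eq_mul_div, div_mul_eq_mul_div, ← add_div, div_eq_iff Dp, hD]; ring
  have e2 : (X.α * c * h / D) * (X.β * a) + (X.β * c * k / D) * (h + X.β * bb) = c * X.β := by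
    rw [div_mul_eq_mul_div, div_mul_eq_mul_div, ← add_div, div_eq_iff Dp, hD]; ring
  calc (X.α * c * h / D) • ((k + X.α * a) • X.f1 + (X.β * a) • X.f2) +
        (X.β * c * k / D) • ((X.α * bb) • X.f1 + (h + X.β * bb) • X.f2)
      = ((X.α * c * h / D) * (k + X.α * a) + (X.β * c * k / D) * (X.α * bb)) • X.f1 +
        ((X.α * c * h / D) * (X.β * a) + (X.β * c * k / D) * (h + X.β * bb)) • X.f2 := by module
    _ = _ := by rw [e1, e2]; module

theorem Fr.cel_tl (X : Fr E) {h k a bb c : ℝ} (hc : Cd h k a bb c) (x y v s t : ℝ) :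
    (X.cel hc x y v).tl (s, t) =
      X.pt (y + k * t + X.α * (v + t * a + s * bb + min s t * c),
        x + h * s + X.β * (v + t * a + s * bb + min s t * c)) := by
  have e : (X.cel hc x y v).tl (s, t) = (X.cel hc x y v).O + (t • (X.cel hc x y v).f1 +
      s • (X.cel hc x y v).f2) + min s t • ((X.cel hc x y v).α • (X.cel hc x y v).f1 +
        (X.cel hc x y v).β • (X.cel hc x y v).f2) := by
    simp only [Fr.tl, Fr.pt, tw]; module
  rw [e, X.cel_cross]
  simp only [Fr.cel, Fr.pt]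
  module

open Classical in
/-- the point of the box with parameters `w` -/
noncomputable def pq (q : Gx P m) (c1 c2 : I) (w : ℝ × ℝ) : I → ℝ := fun c =>
  if c = c1 then q.hi c - w.1 else if c = c2 then q.hi c - w.2 else q.hi c

theorem pq_1 (q : Gx P m) (c1 c2 : I) (w : ℝ × ℝ) : pq q c1 c2 w c1 = q.hi c1 - w.1 := by
  simp [pq]

theorem pq_2 (q : Gx P m) {c1 c2 : I} (hne : c1 ≠ c2) (w : ℝ × ℝ) :
    pq q c1 c2 w c2 = q.hi c2 - w.2 := by
  simp [pq, hne.symm]

theorem mem_pq {q : Gx P m} {c1 c2 : I} (hne : c1 ≠ c2) (hf : q.free = {c1, c2}) {w : ℝ × ℝ}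
    (hw : w ∈ Sc) : pq q c1 c2 w ∈ q.bx := by
  obtain ⟨h1, h2⟩ := hw
  intro c
  by_cases e1 : c = c1
  · subst e1
    rw [pq_1]
    have h3 : q.hi c = q.lo c + 1 := Gx.hi_eq (by rw [hf]; simp)
    rw [h3]; push_cast
    constructor <;> linarith [h1.1, h1.2]
  by_cases e2 : c = c2
  · subst e2
    rw [pq_2 q hne]
    have h3 : q.hi c = q.lo c + 1 := Gx.hi_eq (by rw [hf]; simp)
    rw [h3]; push_cast
    constructor <;> linarith [h2.1, h2.2]
  have h3 : c ∉ q.free := by rw [hf]; simp [e1, e2]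
  simp only [pq, e1, e2, if_false]
  rw [Gx.lo_eq h3]
  exact ⟨le_rfl, le_rfl⟩

theorem eq_pq {q : Gx P m} {c1 c2 : I} (hne : c1 ≠ c2) (hf : q.free = {c1, c2}) {g : I → ℝ}
    (hg : g ∈ q.bx) : g = pq q c1 c2 (q.hi c1 - g c1, q.hi c2 - g c2) := by
  funext c
  by_cases e1 : c = c1
  · subst e1; rw [pq_1]; simp
  by_cases e2 : c = c2
  · subst e2; rw [pq_2 q hne]; simp
  have h3 : c ∉ q.free := by rw [hf]; simp [e1, e2]
  simp only [pq, e1, e2, if_false]
  exact Gx.eq_of_mem h3 hg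

theorem par_mem {q : Gx P m} {c1 c2 : I} (hf : q.free = {c1, c2}) {g : I → ℝ}
    (hg : g ∈ q.bx) : ((q.hi c1 : ℝ) - g c1, (q.hi c2 : ℝ) - g c2) ∈ Sc := by
  have h1 : q.hi c1 = q.lo c1 + 1 := Gx.hi_eq (by rw [hf]; simp)
  have h2 : q.hi c2 = q.lo c2 + 1 := Gx.hi_eq (by rw [hf]; simp)
  have k1 := hg c1
  have k2 := hg c2
  rw [h1] at k1
  rw [h2] at k2
  push_cast at k1 k2
  refine ⟨⟨?_, ?_⟩, ⟨?_, ?_⟩⟩ <;> simp only [h1, h2] <;> push_cast <;> linarith [k1.1, k1.2, k2.1, k2.2]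

open Classical in
/-- the point of the segment box with parameter `s` -/
noncomputable def p1 (q : Gx P m) (c1 : I) (s : ℝ) : I → ℝ := fun c =>
  if c = c1 then q.hi c - s else q.hi c

theorem p1_1 (q : Gx P m) (c1 : I) (s : ℝ) : p1 q c1 s c1 = q.hi c1 - s := by simp [p1]

theorem mem_p1 {q : Gx P m} {c1 : I} (hf : q.free = {c1}) {s : ℝ} (hs : s ∈ Icc (0 : ℝ) 1) :
    p1 q c1 s ∈ q.bx := by
  intro c
  by_cases e1 : c = c1
  · subst e1
    rw [p1_1]
    have h3 : q.hi c = q.lo c + 1 := Gx.hi_eq (by rw [hf]; simp)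
    rw [h3]; push_cast
    constructor <;> linarith [hs.1, hs.2]
  have h3 : c ∉ q.free := by rw [hf]; simp [e1]
  simp only [p1, e1, if_false]
  rw [Gx.lo_eq h3]
  exact ⟨le_rfl, le_rfl⟩

theorem eq_p1 {q : Gx P m} {c1 : I} (hf : q.free = {c1}) {g : I → ℝ}
    (hg : g ∈ q.bx) : g = p1 q c1 (q.hi c1 - g c1) := by
  funext c
  by_cases e1 : c = c1
  · subst e1; rw [p1_1]; simp
  have h3 : c ∉ q.free := by rw [hf]; simp [e1]
  simp only [p1, e1, if_false]
  exact Gx.eq_of_mem h3 hg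

theorem par1_mem {q : Gx P m} {c1 : I} (hf : q.free = {c1}) {g : I → ℝ}
    (hg : g ∈ q.bx) : (q.hi c1 : ℝ) - g c1 ∈ Icc (0 : ℝ) 1 := by
  have h1 : q.hi c1 = q.lo c1 + 1 := Gx.hi_eq (by rw [hf]; simp)
  have k1 := hg c1
  rw [h1] at k1
  push_cast at k1
  rw [h1]; push_cast
  constructor <;> linarith [k1.1, k1.2]

theorem hi_mem (q : Gx P m) : (fun c => (q.hi c : ℝ)) ∈ q.bx := fun c =>
  ⟨Nat.cast_le.2 (q.le c), le_rfl⟩

theorem lo_mem (q : Gx P m) : (fun c => (q.lo c : ℝ)) ∈ q.bx := fun c =>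
  ⟨le_rfl, Nat.cast_le.2 (q.le c)⟩

section foam

variable {La : Set E} [CompleteSpace E] (F : Foam La P b 4)
include F

theorem Gx.L_fin (q : Gx P m) (hm : ∀ c, 0 < m c) : {c | q.lo c < m c}.Finite := by
  refine F.finite_of_fc ?_ q.face
  obtain ⟨c, c', _, h, _⟩ := q.two
  refine ⟨c, ?_⟩
  have := q.le c
  have := hm c
  show q.lo c < m c
  omega

theorem Gx.L_card (q : Gx P m) (hm : ∀ c, 0 < m c) : {c | q.lo c < m c}.ncard ≤ 4 := by
  refine F.ncard_le_of_fc ?_ q.face
  obtain ⟨c, c', _, h, _⟩ := q.two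
  refine ⟨c, ?_⟩
  have := q.le c
  have := hm c
  show q.lo c < m c
  omega

omit F [CompleteSpace E] in
theorem Gx.Z_sub (q : Gx P m) (hm : ∀ c, 0 < m c) : {c | q.hi c = 0} ⊆ {c | q.lo c < m c} := by
  intro c (hc : q.hi c = 0)
  have := q.le c
  have := hm c
  show q.lo c < m c
  omega

theorem Gx.Z_card (q : Gx P m) (hm : ∀ c, 0 < m c) : 2 ≤ {c | q.hi c = 0}.ncard := by
  obtain ⟨c, c', hne, h, h'⟩ := q.two
  rw [← ncard_pair hne]
  apply ncard_le_ncard _ ((q.L_fin F hm).subset (q.Z_sub hm))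
  rintro x (rfl | rfl)
  · exact h
  · exact h'

omit F [CompleteSpace E] in
theorem Gx.free_sub (q : Gx P m) : q.free ⊆ {c | q.lo c < m c} \ {c | q.hi c = 0} := by
  intro c hc
  have h1 : q.lo c < q.hi c := hc
  have h2 := q.him c
  refine ⟨?_, fun (h : q.hi c = 0) => ?_⟩
  · show q.lo c < m c; omega
  · omega

theorem Gx.diff_card (q : Gx P m) (hm : ∀ c, 0 < m c) :
    ({c | q.lo c < m c} \ {c | q.hi c = 0}).ncard + {c | q.hi c = 0}.ncard ≤ 4 := by
  rw [ncard_sdiff_add_ncard_of_subset (q.Z_sub hm) (q.L_fin F hm)]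
  exact q.L_card F hm

theorem Gx.free_fin (q : Gx P m) (hm : ∀ c, 0 < m c) : q.free.Finite :=
  ((q.L_fin F hm).subset sdiff_subset).subset q.free_sub

theorem Gx.free_card (q : Gx P m) (hm : ∀ c, 0 < m c) : q.free.ncard ≤ 2 := by
  have h1 := q.diff_card F hm
  have h2 := q.Z_card F hm
  have h3 := ncard_le_ncard q.free_sub ((q.L_fin F hm).subset sdiff_subset)
  omega

omit F [CompleteSpace E] in
theorem lv_zero {q : Gx P m} {g : I → ℝ} (hg : g ∈ q.bx) {c : I} (hc : q.hi c = 0) :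
    lv m g c = 0 := by
  have h1 := hg c
  rw [hc] at h1
  have h2 : (0 : ℝ) ≤ q.lo c := Nat.cast_nonneg _
  have h3 : g c ≤ 0 := by simpa using h1.2
  have h4 : g c = 0 := le_antisymm h3 (h2.trans h1.1)
  rw [lv, h4, zero_div]

omit F [CompleteSpace E] in
theorem lv_one (hm : ∀ c, 0 < m c) {q : Gx P m} {g : I → ℝ} (hg : g ∈ q.bx) {c : I}
    (hc : ¬ q.lo c < m c) : lv m g c = 1 := by
  have h1 := hg c
  have h2 := q.le c
  have h3 := q.him c
  have e1 : q.lo c = m c := by omega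
  have e2 : q.hi c = m c := by omega
  rw [e1, e2] at h1
  have h4 : (0 : ℝ) < m c := by exact_mod_cast hm c
  rw [lv, le_antisymm h1.2 h1.1, div_self h4.ne']

/-- the square of a box with two non trivial colours -/
theorem sq_of (q : Gx P m) (hm : ∀ c, 0 < m c) {c1 c2 : I} (hne : c1 ≠ c2)
    (h1 : c1 ∈ {c | q.lo c < m c} \ {c | q.hi c = 0})
    (h2 : c2 ∈ {c | q.lo c < m c} \ {c | q.hi c = 0}) :
    {c | q.hi c = 0}.ncard = 2 ∧
    {c | q.lo c < m c} = insert c2 (insert c1 {c | q.hi c = 0}) ∧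
    ∀ g ∈ q.bx, InSq {c | q.hi c = 0} c1 c2 (lv m g) := by
  have k1 := q.diff_card F hm
  have k2 := q.Z_card F hm
  have k3 : 2 ≤ ({c | q.lo c < m c} \ {c | q.hi c = 0}).ncard := by
    rw [← ncard_pair hne]
    apply ncard_le_ncard _ ((q.L_fin F hm).subset sdiff_subset)
    rintro x (rfl | rfl)
    · exact h1
    · exact h2
  have k4 : ({c1, c2} : Set I) = {c | q.lo c < m c} \ {c | q.hi c = 0} := by
    apply Set.eq_of_subset_of_ncard_le
    · rintro x (rfl | rfl)
      · exact h1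
      · exact h2
    · rw [ncard_pair hne]; omega
    · exact (q.L_fin F hm).subset sdiff_subset
  have k5 : {c | q.lo c < m c} = insert c2 (insert c1 {c | q.hi c = 0}) := by
    ext c
    have a1 := Set.ext_iff.1 k4 c
    have a2 := @Gx.Z_sub _ _ _ _ P m q hm c
    simp only [mem_insert_iff, mem_singleton_iff, mem_sdiff, mem_ofPred_eq] at a1 a2 ⊢
    tauto
  refine ⟨by omega, k5, fun g hg => ⟨fun c hc => lv_zero hg hc, fun c hc hc1 hc2 => ?_, ?_, ?_⟩⟩
  · apply lv_one hm hg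
    intro h
    have : c ∈ {c | q.lo c < m c} := h
    rw [k5] at this
    simp only [mem_insert_iff] at this
    tauto
  · exact (q.bx_sub hm hg).1.1 c1
  · exact (q.bx_sub hm hg).1.1 c2

variable (hQ : Quads P b)
include hQ

/-- **the frame of a grid rectangle** -/
theorem frame2 (hm : ∀ c, 0 < m c) (q : Gx P m) {c1 c2 : I} (hne : c1 ≠ c2)
    (hf : q.free = {c1, c2}) :
    ∃ X : Fr E, ∀ g ∈ q.bx, Tq b m g = X.tl (q.hi c1 - g c1, q.hi c2 - g c2) := by
  have m1 : c1 ∈ q.free := by rw [hf]; simp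
  have m2 : c2 ∈ q.free := by rw [hf]; simp
  have h1 := q.free_sub m1
  have h2 := q.free_sub m2
  obtain ⟨hZ, hL, hin⟩ := sq_of F q hm hne h1 h2
  have hfc : (fc P (insert c2 (insert c1 {c | q.hi c = 0}))).Nonempty := by
    rw [← hL]; exact q.face
  have hq := hQ _ c1 c2 hZ h1.2 h2.2 hne hfc
  have hZne : {c | q.hi c = 0}.Nonempty := by
    obtain ⟨c, c', _, h, _⟩ := q.two
    exact ⟨c, h⟩
  have p1 : (0 : ℝ) < m c1 := by exact_mod_cast hm c1
  have p2 : (0 : ℝ) < m c2 := by exact_mod_cast hm c2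
  have q1 : q.hi c1 = q.lo c1 + 1 := Gx.hi_eq m1
  have q2 : q.hi c2 = q.lo c2 + 1 := Gx.hi_eq m2
  have hc := cd_nu (hm c1) (hm c2) (q.lo c1) (q.lo c2)
  refine ⟨hq.fr.cel hc (1 - ((q.lo c1 + 1 : ℕ) : ℝ) / m c1) (1 - ((q.lo c2 + 1 : ℕ) : ℝ) / m c2)
    (nu (m c1) (m c2) (q.lo c1 + 1) (q.lo c2 + 1)), fun g hg => ?_⟩
  have e := Bn_fr (adm_Nm hm) (sym_Nm m) F hZne h1.2 h2.2 hne hfc hq (hin g hg)
  have k1 := hg c1
  have k2 := hg c2
  rw [q1] at k1
  rw [q2] at k2
  have eN : Nm m c1 c2 (1 - lv m g c1, 1 - lv m g c2) = itp (nu (m c1) (m c2)) (g c1, g c2) := by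
    simp only [Nm, Nf, lv]
    congr 1
    refine Prod.ext ?_ ?_
    · simp only; field_simp; ring
    · simp only; field_simp; ring
  have eI := itp_box (nu (m c1) (m c2)) (i' := q.lo c1) (i := q.lo c1 + 1) (j' := q.lo c2)
    (j := q.lo c2 + 1) (g := (g c1, g c2)) (by omega) le_rfl (by omega) le_rfl k1.1 k1.2 k2.1 k2.2
  rw [Tq, e, Fr.nl, Fr.cel_tl, tn, eN, eI, q1, q2]
  simp only [itc, lv]
  congr 1
  refine Prod.ext ?_ ?_
  · simp only; push_cast; field_simp; ring
  · simp only; push_cast; field_simp; ring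

/-- **`Tq` is injective on the 2-skeleton** -/
theorem Tq_injOn (hm : ∀ c, 0 < m c) : InjOn (Tq b m) (G2 P m) := fun _ hg _ hg' he =>
  lv_inj hm (Bn_injOn (adm_Nm hm) (sym_Nm m) F hQ hg hg' he)

/-- **the foam cells through a grid point** -/
theorem act_Tq (hm : ∀ c, 0 < m c) {g : I → ℝ} (hg : g ∈ G2 P m) :
    act P (Tq b m g) = {c | g c = 0} := by
  rw [Tq, act_Bn (adm_Nm hm) (sym_Nm m) F hQ hg]
  ext c
  exact lv_eq_zero hm

theorem Tq_mem_iff (hm : ∀ c, 0 < m c) {g : I → ℝ} (hg : g ∈ G2 P m) {c : I} :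
    Tq b m g ∈ P c ↔ g c = 0 := by
  have := Set.ext_iff.1 (act_Tq F hQ hm hg) c
  exact this

theorem Tq_mem_La (hm : ∀ c, 0 < m c) {g : I → ℝ} (hg : g ∈ G2 P m) : Tq b m g ∈ La :=
  Bn_mem_La (adm_Nm hm) (sym_Nm m) F hQ hg

/-- **`Tq` is onto the 2-skeleton** -/
theorem exists_Tq (hm : ∀ c, 0 < m c) {y : E} (hy : y ∈ La) {c c' : I} (hne : c ≠ c')
    (hc : y ∈ P c) (hc' : y ∈ P c') : ∃ g ∈ G2 P m, Tq b m g = y := by
  obtain ⟨u, hu, rfl⟩ := exists_Bn (adm_Nm hm) (sym_Nm m) F hQ hy hne hc hc'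
  set g : I → ℝ := fun c => m c * u c with hgd
  have e : lv m g = u := by
    funext c
    have h2 : (0 : ℝ) < m c := by exact_mod_cast hm c
    simp only [lv, hgd]
    field_simp
  refine ⟨g, ?_, by rw [Tq, e]⟩
  show lv m g ∈ K2 P
  rw [e]; exact hu

/-- **the frame of a grid edge** -/
theorem frame1 (hm : ∀ c, 0 < m c) (q : Gx P m) {c1 : I} (hf : q.free = {c1}) :
    ∃ p f : E, f ≠ 0 ∧ ∀ g ∈ q.bx, Tq b m g = p + ((q.hi c1 : ℝ) - g c1) • f := by
  have m1 : c1 ∈ q.free := by rw [hf]; simp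
  have h1 := q.free_sub m1
  have hZne : {c | q.hi c = 0}.Nonempty := by
    obtain ⟨c, c', _, h, _⟩ := q.two
    exact ⟨c, h⟩
  have p1' : (0 : ℝ) < m c1 := by exact_mod_cast hm c1
  have q1 : q.hi c1 = q.lo c1 + 1 := Gx.hi_eq m1
  have key : ∃ p f : E, ∀ g ∈ q.bx, Tq b m g = p + ((q.hi c1 : ℝ) - g c1) • f := by
    by_cases hR : ∃ c2, c2 ≠ c1 ∧ c2 ∈ {c | q.lo c < m c} \ {c | q.hi c = 0}
    · obtain ⟨c2, hne, h2⟩ := hR
      obtain ⟨hZ, hL, hin⟩ := sq_of F q hm hne.symm h1 h2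
      have hfc : (fc P (insert c2 (insert c1 {c | q.hi c = 0}))).Nonempty := by
        rw [← hL]; exact q.face
      have hq := hQ _ c1 c2 hZ h1.2 h2.2 hne.symm hfc
      have n2 : c2 ∉ q.free := by rw [hf]; simpa using hne
      have p2 : (0 : ℝ) < m c2 := by exact_mod_cast hm c2
      have q2 : q.lo c2 = q.hi c2 := Gx.lo_eq n2
      set j := q.hi c2 with hj
      set v := nu (m c1) (m c2) (q.lo c1 + 1) j with hv
      set a := nu (m c1) (m c2) (q.lo c1) j - nu (m c1) (m c2) (q.lo c1 + 1) j with ha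
      refine ⟨hq.fr.pt (1 - (j : ℝ) / m c2 + hq.fr.α * v,
        1 - ((q.lo c1 + 1 : ℕ) : ℝ) / m c1 + hq.fr.β * v),
        (hq.fr.α * a) • hq.fr.f1 + (1 / m c1 + hq.fr.β * a) • hq.fr.f2, fun g hg => ?_⟩
      have e := Bn_fr (adm_Nm hm) (sym_Nm m) F hZne h1.2 h2.2 hne.symm hfc hq (hin g hg)
      have k1 := hg c1
      have k2 : g c2 = j := Gx.eq_of_mem n2 hg
      rw [q1] at k1
      have eN : Nm m c1 c2 (1 - lv m g c1, 1 - lv m g c2) =
          itp (nu (m c1) (m c2)) (g c1, g c2) := by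
        simp only [Nm, Nf, lv]
        congr 1
        refine Prod.ext ?_ ?_
        · simp only; field_simp; ring
        · simp only; field_simp; ring
      have eI := itp_box (nu (m c1) (m c2)) (i' := q.lo c1) (i := q.lo c1 + 1) (j' := j)
        (j := j) (g := (g c1, g c2)) (by omega) le_rfl le_rfl (by omega) k1.1 k1.2 k2.ge k2.le
      rw [Tq, e, Fr.nl, tn, eN, eI, q1]
      have hmin : min (((q.lo c1 + 1 : ℕ) : ℝ) - g c1) ((j : ℝ) - g c2) = 0 := by
        rw [k2, sub_self]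
        exact min_eq_right (by linarith [k1.2])
      have eC : itc (nu (m c1) (m c2)) (q.lo c1) (q.lo c1 + 1) j j (g c1, g c2) =
          v + (((q.lo c1 + 1 : ℕ) : ℝ) - g c1) * a := by
        simp only [itc, hmin]
        rw [hv, ha]; ring
      rw [eC]
      have el1 : 1 - lv m g c1 = 1 - ((q.lo c1 + 1 : ℕ) : ℝ) / m c1 +
          (((q.lo c1 + 1 : ℕ) : ℝ) - g c1) * (1 / m c1) := by
        simp only [lv]; ring
      have el2 : 1 - lv m g c2 = 1 - (j : ℝ) / m c2 := by
        simp only [lv, k2]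
      rw [el1, el2]
      simp only [Fr.pt]
      module
    · push Not at hR
      have hL : {c | q.lo c < m c} = insert c1 {c | q.hi c = 0} := by
        ext c
        have a2 := @Gx.Z_sub _ _ _ _ P m q hm c
        have a3 := hR c
        have a4 := h1.1
        simp only [mem_insert_iff, mem_sdiff, mem_ofPred_eq] at a2 a3 a4 ⊢
        constructor
        · intro h
          by_contra h5
          push Not at h5
          exact a3 h5.1 ⟨h, h5.2⟩
        · rintro (rfl | h)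
          · exact a4
          · exact a2 h
      have hfc : (fc P (insert c1 {c | q.hi c = 0})).Nonempty := by
        rw [← hL]; exact q.face
      refine ⟨b {c | q.hi c = 0} + (1 - (q.hi c1 : ℝ) / m c1) •
        (b (insert c1 {c | q.hi c = 0}) - b {c | q.hi c = 0}),
        (1 / (m c1 : ℝ)) • (b (insert c1 {c | q.hi c = 0}) - b {c | q.hi c = 0}),
        fun g hg => ?_⟩
      have hoth : ∀ c, c ∉ {c | q.hi c = 0} → c ≠ c1 → lv m g c = 1 := by
        intro c hc hcc
        apply lv_one hm hg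
        intro h
        have : c ∈ {c | q.lo c < m c} := h
        rw [hL] at this
        simp only [mem_insert_iff] at this
        tauto
      have hav : (av (lv m g)).ncard ≠ 2 := by
        have : av (lv m g) ⊆ {c1} := by
          intro c hc
          by_contra hcc
          by_cases hz : q.hi c = 0
          · exact hc.1.ne' (lv_zero hg hz)
          · exact hc.2.ne (hoth c hz hcc)
        have := ncard_le_ncard this
        rw [ncard_singleton] at this
        omega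
      rw [Tq, Bn_of_ncard hav, T_one F hZne hfc (fun c hc => lv_zero hg hc)
        ((q.bx_sub hm hg).1.1 c1) hoth]
      have e1 : lv m g c1 = (q.hi c1 : ℝ) / m c1 - ((q.hi c1 : ℝ) - g c1) * (1 / m c1) := by
        rw [lv]; field_simp; ring
      rw [e1]
      module
  obtain ⟨p, f, h⟩ := key
  refine ⟨p, f, ?_, h⟩
  rintro rfl
  have e1 := h _ (hi_mem q)
  have e2 := h _ (lo_mem q)
  rw [smul_zero, add_zero] at e1 e2
  have := Tq_injOn F hQ hm (q.bx_sub hm (hi_mem q)) (q.bx_sub hm (lo_mem q)) (e1.trans e2.symm)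
  have h3 := congrFun this c1
  simp only [Nat.cast_inj] at h3
  have h4 := Gx.hi_eq m1
  omega

end foam

end Crest.Agent.R096.Grd_714
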