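import Crest.Agent.R096.Grd4_714

/-!
# R096 (row 96), GRID, part 5 (helper714): the grid cells are convex, `Tq` is a bijection

`Rin C O`: `C` convex compact, `O` its relative interior.
-/

set_option autoImplicit false
set_option linter.unusedSectionVars false

open Set

namespace Crest.Agent.R096.Grd_714

open Crest.Agent.R096.Brk1_582 Crest.Agent.R096.Brk2_582 Crest.Agent.R096.Brk6_582

variable {E : Type*} [NormedAddCommGroup E] [NormedSpace ℝ E] {I : Type*}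

/-- `O` is the relative interior of the compact convex set `C` -/
structure Rin (C O : Set E) : Prop where
  conv : Convex ℝ C
  cpt : IsCompact C
  sub : O ⊆ C
  seg : ∀ y ∈ C, ∀ c ∈ O, ∀ t ∈ Ioc (0 : ℝ) 1, (1 - t) • y + t • c ∈ O
  ext : ∀ z ∈ O, ∀ c ∈ C, ∃ ε : ℝ, 0 < ε ∧ z + ε • (z - c) ∈ C

theorem Fr.rin (X : Fr E) : Rin X.cell X.opn where
  conv := X.convex_cell
  cpt := X.isCompact_cell
  sub := by
    rintro _ ⟨p, hp, rfl⟩
    exact ⟨p, Rgo_sub hp, rfl⟩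
  seg := fun _ hy _ hc _ ht => X.seg_opn hy hc ht
  ext := fun _ hz _ hc => X.ext_opn hz hc

theorem rin_seg (p f : E) : Rin ((fun s : ℝ => p + s • f) '' Icc 0 1)
    ((fun s : ℝ => p + s • f) '' Ioo 0 1) where
  conv := by
    rintro _ ⟨s, hs, rfl⟩ _ ⟨t, ht, rfl⟩ a b ha hb hab
    refine ⟨a * s + b * t, (convex_Icc (0 : ℝ) 1) hs ht ha hb hab, ?_⟩
    have : p = (a + b) • p := by rw [hab, one_smul]
    calc p + (a * s + b * t) • f = (a + b) • p + (a * s + b * t) • f := by rw [← this]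
      _ = a • (p + s • f) + b • (p + t • f) := by module
  cpt := isCompact_Icc.image (by fun_prop)
  sub := image_mono Ioo_subset_Icc_self
  seg := by
    rintro _ ⟨s, hs, rfl⟩ _ ⟨r, hr, rfl⟩ t ht
    refine ⟨(1 - t) * s + t * r, ⟨?_, ?_⟩, by module⟩
    · have h1 : 0 ≤ (1 - t) * s := mul_nonneg (by linarith [ht.2]) hs.1
      have h2 : 0 < t * r := mul_pos ht.1 hr.1
      linarith
    · have h1 : (1 - t) * s ≤ (1 - t) * 1 := mul_le_mul_of_nonneg_left hs.2 (by linarith [ht.2])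
      have h2 : t * r < t * 1 := mul_lt_mul_of_pos_left hr.2 ht.1
      linarith
  ext := by
    rintro _ ⟨r, hr, rfl⟩ _ ⟨s, hs, rfl⟩
    refine ⟨min r (1 - r), lt_min hr.1 (by linarith [hr.2]), r + min r (1 - r) * (r - s), ?_,
      by module⟩
    have h0 : 0 < min r (1 - r) := lt_min hr.1 (by linarith [hr.2])
    have h1 : min r (1 - r) ≤ r := min_le_left _ _
    have h2 : min r (1 - r) ≤ 1 - r := min_le_right _ _
    have h3 : r - s ≤ 1 := by linarith [hr.2, hs.1]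
    have h4 : -1 ≤ r - s := by linarith [hr.1, hs.2]
    have h5 : min r (1 - r) * (r - s) ≤ min r (1 - r) * 1 := mul_le_mul_of_nonneg_left h3 h0.le
    have h6 : min r (1 - r) * (-1) ≤ min r (1 - r) * (r - s) := mul_le_mul_of_nonneg_left h4 h0.le
    constructor <;> linarith

theorem rin_pt (p : E) : Rin ({p} : Set E) {p} where
  conv := convex_singleton p
  cpt := isCompact_singleton
  sub := Subset.rfl
  seg := by
    rintro _ rfl _ rfl t ht
    rw [mem_singleton_iff, ← add_smul]; simp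
  ext := by
    rintro _ rfl _ rfl
    exact ⟨1, one_pos, by simp⟩

variable {b : Set I → E} {P : I → Set E} {m : I → ℕ}

/-- the open box -/
def Gx.obx (q : Gx P m) : Set (I → ℝ) :=
  {g | g ∈ q.bx ∧ ∀ c ∈ q.free, (q.lo c : ℝ) < g c ∧ g c < q.hi c}

/-- the centre of a grid cell -/
noncomputable def Gx.ctr (q : Gx P m) : I → ℝ := fun c => ((q.lo c : ℝ) + q.hi c) / 2

theorem Gx.obx_sub {q : Gx P m} : q.obx ⊆ q.bx := fun _ h => h.1

theorem Gx.flb_of_obx (hm : ∀ c, 0 < m c) {q : Gx P m} {g : I → ℝ} (hg : g ∈ q.obx) :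
    flb hm g (q.bx_sub hm hg.1) = q := flb_eq hm _ hg.1 hg.2

theorem flb_mem_obx (hm : ∀ c, 0 < m c) {g : I → ℝ} (hg : g ∈ G2 P m) : g ∈ (flb hm g hg).obx :=
  ⟨mem_flb hm hg, fun _ hc => mem_open_of_flb hm hg hc⟩

theorem Gx.ctr_mem (q : Gx P m) : q.ctr ∈ q.obx := by
  refine ⟨fun c => ?_, fun c hc => ?_⟩
  · have h : (q.lo c : ℝ) ≤ q.hi c := by exact_mod_cast q.le c
    unfold Gx.ctr
    constructor <;> linarith
  · have h : (q.lo c : ℝ) < q.hi c := by exact_mod_cast (show q.lo c < q.hi c from hc)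
    unfold Gx.ctr
    constructor <;> linarith

theorem Gx.zero_of_bx {q : Gx P m} {g : I → ℝ} (hg : g ∈ q.bx) {c : I} (hc : q.hi c = 0) :
    g c = 0 := by
  have h1 := hg c
  rw [hc] at h1
  have h2 : (0 : ℝ) ≤ q.lo c := Nat.cast_nonneg _
  have h3 : g c ≤ 0 := by simpa using h1.2
  exact le_antisymm h3 (h2.trans h1.1)

/-- on an open box the vanishing coordinates are those of the box -/
theorem Gx.zero_iff_of_obx {q : Gx P m} {g : I → ℝ} (hg : g ∈ q.obx) {c : I} :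
    g c = 0 ↔ q.hi c = 0 := by
  refine ⟨fun h => ?_, fun h => Gx.zero_of_bx hg.1 h⟩
  by_cases hc : c ∈ q.free
  · have h1 := (hg.2 c hc).1
    rw [h] at h1
    exact absurd h1 (not_lt.2 (Nat.cast_nonneg _))
  · have h1 := Gx.eq_of_mem hc hg.1
    rw [h] at h1
    exact_mod_cast h1.symm

/-- ... and the coordinates below the maximum are those of the box -/
theorem Gx.lt_iff_of_obx {q : Gx P m} {g : I → ℝ} (hg : g ∈ q.obx) {c : I} :
    g c < m c ↔ q.lo c < m c := by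
  constructor
  · intro h
    exact_mod_cast (hg.1 c).1.trans_lt h
  · intro h
    by_cases hc : c ∈ q.free
    · exact (hg.2 c hc).2.trans_le (by exact_mod_cast q.him c)
    · rw [Gx.eq_of_mem hc hg.1, ← Gx.lo_eq hc]
      exact_mod_cast h

section images

variable {q : Gx P m} {φ : (I → ℝ) → E}

theorem img2 {c1 c2 : I} (hne : c1 ≠ c2) (hf : q.free = {c1, c2}) {ψ : ℝ × ℝ → E}
    (h : ∀ g ∈ q.bx, φ g = ψ (q.hi c1 - g c1, q.hi c2 - g c2)) :
    φ '' q.bx = ψ '' Sc ∧ φ '' q.obx = ψ '' So := by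
  have m1 : c1 ∈ q.free := by rw [hf]; simp
  have m2 : c2 ∈ q.free := by rw [hf]; simp
  have l1 : (q.hi c1 : ℝ) = q.lo c1 + 1 := by exact_mod_cast Gx.hi_eq m1
  have l2 : (q.hi c2 : ℝ) = q.lo c2 + 1 := by exact_mod_cast Gx.hi_eq m2
  have k : ∀ w ∈ Sc, φ (pq q c1 c2 w) = ψ w := by
    intro w hw
    rw [h _ (mem_pq hne hf hw), pq_1, pq_2 q hne]
    simp
  constructor
  · apply Subset.antisymm
    · rintro _ ⟨g, hg, rfl⟩
      exact ⟨_, par_mem hf hg, (h g hg).symm⟩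
    · rintro _ ⟨w, hw, rfl⟩
      exact ⟨_, mem_pq hne hf hw, k w hw⟩
  · apply Subset.antisymm
    · rintro _ ⟨g, hg, rfl⟩
      refine ⟨_, ?_, (h g hg.1).symm⟩
      have a1 := hg.2 c1 m1
      have a2 := hg.2 c2 m2
      refine ⟨⟨?_, ?_⟩, ⟨?_, ?_⟩⟩ <;> simp only <;> linarith [a1.1, a1.2, a2.1, a2.2]
    · rintro _ ⟨w, hw, rfl⟩
      refine ⟨_, ⟨mem_pq hne hf (So_sub hw), fun c hc => ?_⟩, k w (So_sub hw)⟩
      rw [hf] at hc
      rcases hc with rfl | rfl
      · rw [pq_1]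
        constructor <;> linarith [hw.1.1, hw.1.2]
      · rw [pq_2 q hne]
        constructor <;> linarith [hw.2.1, hw.2.2]

theorem img1 {c1 : I} (hf : q.free = {c1}) {ψ : ℝ → E}
    (h : ∀ g ∈ q.bx, φ g = ψ (q.hi c1 - g c1)) :
    φ '' q.bx = ψ '' Icc 0 1 ∧ φ '' q.obx = ψ '' Ioo 0 1 := by
  have m1 : c1 ∈ q.free := by rw [hf]; simp
  have l1 : (q.hi c1 : ℝ) = q.lo c1 + 1 := by exact_mod_cast Gx.hi_eq m1
  have k : ∀ w ∈ Icc (0 : ℝ) 1, φ (p1 q c1 w) = ψ w := by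
    intro w hw
    rw [h _ (mem_p1 hf hw), p1_1]
    simp
  constructor
  · apply Subset.antisymm
    · rintro _ ⟨g, hg, rfl⟩
      exact ⟨_, par1_mem hf hg, (h g hg).symm⟩
    · rintro _ ⟨w, hw, rfl⟩
      exact ⟨_, mem_p1 hf hw, k w hw⟩
  · apply Subset.antisymm
    · rintro _ ⟨g, hg, rfl⟩
      refine ⟨_, ?_, (h g hg.1).symm⟩
      have a1 := hg.2 c1 m1
      constructor <;> linarith [a1.1, a1.2]
    · rintro _ ⟨w, hw, rfl⟩
      refine ⟨_, ⟨mem_p1 hf (Ioo_subset_Icc_self hw), fun c hc => ?_⟩,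
        k w (Ioo_subset_Icc_self hw)⟩
      rw [hf] at hc
      obtain rfl : c = c1 := hc
      rw [p1_1]
      constructor <;> linarith [hw.1, hw.2]

theorem img0 (hf : q.free = ∅) :
    φ '' q.bx = {φ fun c => (q.hi c : ℝ)} ∧ φ '' q.obx = {φ fun c => (q.hi c : ℝ)} := by
  have h1 : q.bx = {fun c => (q.hi c : ℝ)} := by
    apply Subset.antisymm
    · intro g hg
      funext c
      exact Gx.eq_of_mem (by rw [hf]; simp) hg
    · rintro _ rfl
      exact hi_mem q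
  have h2 : q.obx = {fun c => (q.hi c : ℝ)} := by
    apply Subset.antisymm
    · intro g hg
      funext c
      exact Gx.eq_of_mem (by rw [hf]; simp) hg.1
    · rintro _ rfl
      exact ⟨hi_mem q, fun c hc => by rw [hf] at hc; exact absurd hc (by simp)⟩
  rw [h1, h2]
  simp

theorem inj1 {c1 : I} (hf : q.free = {c1}) {g g' : I → ℝ} (hg : g ∈ q.bx) (hg' : g' ∈ q.bx)
    (h : g c1 = g' c1) : g = g' := by
  rw [eq_p1 hf hg, eq_p1 hf hg', h]

theorem inj2 {c1 c2 : I} (hne : c1 ≠ c2) (hf : q.free = {c1, c2}) {g g' : I → ℝ} (hg : g ∈ q.bx)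
    (hg' : g' ∈ q.bx) (h : g c1 = g' c1) (h' : g c2 = g' c2) : g = g' := by
  rw [eq_pq hne hf hg, eq_pq hne hf hg', h, h']

end images

section foam

variable {La : Set E} [CompleteSpace E] (F : Foam La P b 4)
include F

theorem Gx.free_cases (q : Gx P m) (hm : ∀ c, 0 < m c) :
    q.free = ∅ ∨ (∃ c1, q.free = {c1}) ∨ ∃ c1 c2, c1 ≠ c2 ∧ q.free = {c1, c2} := by
  have h := q.free_card F hm
  have hfin := q.free_fin F hm
  interval_cases h2 : q.free.ncard
  · exact Or.inl ((ncard_eq_zero hfin).1 h2)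
  · exact Or.inr (Or.inl (ncard_eq_one.1 h2))
  · obtain ⟨x, y, hxy, h3⟩ := ncard_eq_two.1 h2
    exact Or.inr (Or.inr ⟨x, y, hxy, h3⟩)

variable (hQ : Quads P b)
include hQ

/-- **the structure of a grid cell** : a convex compact set and its relative interior. -/
theorem rin_cell (hm : ∀ c, 0 < m c) (q : Gx P m) :
    Rin (Tq b m '' q.bx) (Tq b m '' q.obx) := by
  rcases q.free_cases F hm with hf | ⟨c1, hf⟩ | ⟨c1, c2, hne, hf⟩
  · obtain ⟨a1, a2⟩ := img0 (φ := Tq b m) hf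
    rw [a1, a2]; exact rin_pt _
  · obtain ⟨p, f, hf0, hpf⟩ := frame1 F hQ hm q hf
    obtain ⟨a1, a2⟩ := img1 (φ := Tq b m) (ψ := fun s => p + s • f) hf hpf
    rw [a1, a2]; exact rin_seg _ _
  · obtain ⟨X, hX⟩ := frame2 F hQ hm q hne hf
    obtain ⟨a1, a2⟩ := img2 (φ := Tq b m) (ψ := X.tl) hne hf hX
    have b1 : X.tl '' Sc = X.cell := X.tl_bijOn.image_eq
    have opn_sub : X.opn ⊆ X.cell := X.rin.sub
    have b2 : X.tl '' So = X.opn := by
      apply Subset.antisymm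
      · rintro _ ⟨w, hw, rfl⟩
        exact (X.tl_mem_opn (So_sub hw)).2 hw
      · intro y hy
        have := opn_sub hy
        rw [← b1] at this
        obtain ⟨w, hw, rfl⟩ := this
        exact ⟨w, (X.tl_mem_opn hw).1 hy, rfl⟩
    rw [a1, a2, b1, b2]; exact X.rin

/-- **the structure of a grid cell** -/
theorem cell_spec (hm : ∀ c, 0 < m c) (q : Gx P m) :
    (Tq b m '' q.bx).Nonempty ∧ (Tq b m '' q.obx).Nonempty ∧
    Rin (Tq b m '' q.bx) (Tq b m '' q.obx) ∧ InjOn (Tq b m) q.bx :=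
  ⟨⟨_, q.ctr, q.ctr_mem.1, rfl⟩, ⟨_, q.ctr, q.ctr_mem, rfl⟩, rin_cell F hQ hm q,
    (Tq_injOn F hQ hm).mono (q.bx_sub hm)⟩

/-- the open cell of a grid cell -/
theorem mem_opn_iff (hm : ∀ c, 0 < m c) {q : Gx P m} {y : E} :
    y ∈ Tq b m '' q.obx ↔ y ∈ Tq b m '' q.bx ∧ ∀ p < q, y ∉ Tq b m '' p.bx := by
  constructor
  · rintro ⟨g, hg, rfl⟩
    refine ⟨⟨g, hg.1, rfl⟩, ?_⟩
    rintro p hp ⟨g', hg', he⟩
    have e := Tq_injOn F hQ hm (p.bx_sub hm hg') (q.bx_sub hm hg.1) he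
    subst e
    have h1 := flb_le hm (q.bx_sub hm hg.1) hg'
    rw [Gx.flb_of_obx hm hg] at h1
    exact hp.not_ge h1
  · rintro ⟨⟨g, hg, rfl⟩, h⟩
    have hG := q.bx_sub hm hg
    have h1 := flb_le hm hG hg
    rcases h1.eq_or_lt with h2 | h2
    · refine ⟨g, ?_, rfl⟩
      rw [← h2]; exact flb_mem_obx hm hG
    · exact absurd ⟨g, mem_flb hm hG, rfl⟩ (h _ h2)

end foam

end Crest.Agent.R096.Grd_714
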