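import Crest.Agent.R096.Grd1_714

/-!
# R096 (row 96), GRID, T at the grid points, part 1 (helper714): the bijection lemma

`Adm N`: `N` on the unit square, nondecreasing and 1-Lipschitz in each variable, with a strict
inequality, and `N = min` on the boundary.  Then `tn α β N w = (w₂ + α N w, w₁ + β N w)` is a
bijection of the square onto the quadrilateral `Rg α β`.
-/

set_option autoImplicit false

open Set

namespace Crest.Agent.R096.Grd_714

/-- admissible heights on the unit square -/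
structure Adm (N : ℝ × ℝ → ℝ) : Prop where
  m1 : ∀ x x' y : ℝ, x ∈ Icc (0 : ℝ) 1 → x' ∈ Icc (0 : ℝ) 1 → y ∈ Icc (0 : ℝ) 1 → x' ≤ x →
    N (x', y) ≤ N (x, y) ∧ N (x, y) - N (x', y) ≤ x - x'
  m2 : ∀ x y y' : ℝ, x ∈ Icc (0 : ℝ) 1 → y ∈ Icc (0 : ℝ) 1 → y' ∈ Icc (0 : ℝ) 1 → y' ≤ y →
    N (x, y') ≤ N (x, y) ∧ N (x, y) - N (x, y') ≤ y - y'
  st : ∀ x x' y y' : ℝ, x ∈ Icc (0 : ℝ) 1 → x' ∈ Icc (0 : ℝ) 1 → y ∈ Icc (0 : ℝ) 1 →
    y' ∈ Icc (0 : ℝ) 1 → x' < x → y' < y → N (x, y) - N (x', y') < (x - x') + (y - y')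
  bd : ∀ w ∈ Sc, w ∉ So → N w = min w.1 w.2

/-- the map of the height `N` -/
def tn (α β : ℝ) (N : ℝ × ℝ → ℝ) (w : ℝ × ℝ) : ℝ × ℝ := (w.2 + α * N w, w.1 + β * N w)

namespace Adm

variable {N : ℝ × ℝ → ℝ} (A : Adm N)
include A

theorem diff {w w' : ℝ × ℝ} (hw : w ∈ Sc) (hw' : w' ∈ Sc) :
    N w - N w' ≤ max (w.1 - w'.1) 0 + max (w.2 - w'.2) 0 := by
  obtain ⟨x, y⟩ := w
  obtain ⟨x', y'⟩ := w'
  obtain ⟨hx, hy⟩ := hw
  obtain ⟨hx', hy'⟩ := hw'
  simp only at hx hy hx' hy' ⊢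
  have hX : max x x' ∈ Icc (0 : ℝ) 1 := ⟨le_max_of_le_left hx.1, max_le hx.2 hx'.2⟩
  have hY : max y y' ∈ Icc (0 : ℝ) 1 := ⟨le_max_of_le_left hy.1, max_le hy.2 hy'.2⟩
  have h1 := (A.m1 (max x x') x y hX hx hy (le_max_left _ _)).1
  have h2 := (A.m2 (max x x') (max y y') y hX hY hy (le_max_left _ _)).1
  have h3 := (A.m2 (max x x') (max y y') y' hX hY hy' (le_max_right _ _)).2
  have h4 := (A.m1 (max x x') x' y' hX hx' hy' (le_max_right _ _)).2
  have e1 : max x x' - x' = max (x - x') 0 := by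
    rcases le_total x x' with h | h
    · rw [max_eq_right h, max_eq_right (by linarith), sub_self]
    · rw [max_eq_left h, max_eq_left (by linarith)]
  have e2 : max y y' - y' = max (y - y') 0 := by
    rcases le_total y y' with h | h
    · rw [max_eq_right h, max_eq_right (by linarith), sub_self]
    · rw [max_eq_left h, max_eq_left (by linarith)]
  linarith

theorem abs_diff {w w' : ℝ × ℝ} (hw : w ∈ Sc) (hw' : w' ∈ Sc) :
    |N w - N w'| ≤ |w.1 - w'.1| + |w.2 - w'.2| := by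
  rw [abs_le]
  have h1 := A.diff hw hw'
  have h2 := A.diff hw' hw
  have a1 : max (w.1 - w'.1) 0 ≤ |w.1 - w'.1| := max_le (le_abs_self _) (abs_nonneg _)
  have a2 : max (w.2 - w'.2) 0 ≤ |w.2 - w'.2| := max_le (le_abs_self _) (abs_nonneg _)
  have a3 : max (w'.1 - w.1) 0 ≤ |w.1 - w'.1| := by
    rw [abs_sub_comm]; exact max_le (le_abs_self _) (abs_nonneg _)
  have a4 : max (w'.2 - w.2) 0 ≤ |w.2 - w'.2| := by
    rw [abs_sub_comm]; exact max_le (le_abs_self _) (abs_nonneg _)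
  constructor <;> linarith

theorem continuousOn : ContinuousOn N Sc := by
  intro w hw
  rw [ContinuousWithinAt, tendsto_iff_dist_tendsto_zero]
  have h1 : Filter.Tendsto (fun w' : ℝ × ℝ => |w'.1 - w.1| + |w'.2 - w.2|) (nhdsWithin w Sc)
      (nhds 0) := by
    have hc : Continuous (fun w' : ℝ × ℝ => |w'.1 - w.1| + |w'.2 - w.2|) := by fun_prop
    have := (hc.tendsto w).mono_left (nhdsWithin_le_nhds (s := Sc))
    simpa using this
  refine squeeze_zero' (Filter.Eventually.of_forall fun _ => dist_nonneg) ?_ h1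
  filter_upwards [self_mem_nhdsWithin] with w' hw'
  rw [Real.dist_eq]
  exact A.abs_diff hw' hw

theorem le_1 {w : ℝ × ℝ} (hw : w ∈ Sc) : N w ≤ w.1 := by
  have h0 : ((0 : ℝ), w.2) ∈ Sc := ⟨⟨le_rfl, zero_le_one⟩, hw.2⟩
  have h1 := (A.m1 w.1 0 w.2 hw.1 ⟨le_rfl, zero_le_one⟩ hw.2 hw.1.1).2
  have h2 := A.bd _ h0 (fun h => lt_irrefl _ h.1.1)
  simp only at h2
  rw [min_eq_left hw.2.1] at h2
  linarith

theorem le_2 {w : ℝ × ℝ} (hw : w ∈ Sc) : N w ≤ w.2 := by
  have h0 : (w.1, (0 : ℝ)) ∈ Sc := ⟨hw.1, ⟨le_rfl, zero_le_one⟩⟩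
  have h1 := (A.m2 w.1 w.2 0 hw.1 hw.2 ⟨le_rfl, zero_le_one⟩ hw.2.1).2
  have h2 := A.bd _ h0 (fun h => lt_irrefl _ h.2.1)
  simp only at h2
  rw [min_eq_right hw.1.1] at h2
  linarith

theorem nonneg {w : ℝ × ℝ} (hw : w ∈ Sc) : 0 ≤ N w := by
  have h0 : ((0 : ℝ), w.2) ∈ Sc := ⟨⟨le_rfl, zero_le_one⟩, hw.2⟩
  have h1 := (A.m1 w.1 0 w.2 hw.1 ⟨le_rfl, zero_le_one⟩ hw.2 hw.1.1).1
  have h2 := A.bd _ h0 (fun h => lt_irrefl _ h.1.1)
  simp only at h2
  rw [min_eq_left hw.2.1] at h2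
  linarith

theorem ge_1 {w : ℝ × ℝ} (hw : w ∈ Sc) : w.2 - N w ≤ 1 - w.1 := by
  have h0 : ((1 : ℝ), w.2) ∈ Sc := ⟨⟨zero_le_one, le_rfl⟩, hw.2⟩
  have h1 := (A.m1 1 w.1 w.2 ⟨zero_le_one, le_rfl⟩ hw.1 hw.2 hw.1.2).2
  have h2 := A.bd _ h0 (fun h => lt_irrefl _ h.1.2)
  simp only at h2
  rw [min_eq_right hw.2.2] at h2
  linarith

theorem ge_2 {w : ℝ × ℝ} (hw : w ∈ Sc) : w.1 - N w ≤ 1 - w.2 := by
  have h0 : (w.1, (1 : ℝ)) ∈ Sc := ⟨hw.1, ⟨zero_le_one, le_rfl⟩⟩
  have h1 := (A.m2 w.1 1 w.2 hw.1 ⟨zero_le_one, le_rfl⟩ hw.2 hw.2.2).2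
  have h2 := A.bd _ h0 (fun h => lt_irrefl _ h.2.2)
  simp only at h2
  rw [min_eq_left hw.1.2] at h2
  linarith

variable {α β : ℝ} (h : Shp α β)
include h

/-- the key inequality along a line of direction `-(β, α)` -/
theorem line {w w' : ℝ × ℝ} (hw : w ∈ Sc) (hw' : w' ∈ Sc) {μ : ℝ} (hμ : 0 ≤ μ)
    (e1 : w.1 - w'.1 = -(β * μ)) (e2 : w.2 - w'.2 = -(α * μ)) : N w - N w' ≤ μ := by
  have h1 := A.diff hw hw'
  rw [e1, e2] at h1
  have ha := h.ha
  have hb := h.hb
  have hs := h.hs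
  rcases le_total 0 α with p | p <;> rcases le_total 0 β with q | q
  · rw [max_eq_right (by nlinarith), max_eq_right (by nlinarith)] at h1
    linarith
  · rw [max_eq_left (by nlinarith), max_eq_right (by nlinarith)] at h1
    nlinarith
  · rw [max_eq_right (by nlinarith), max_eq_left (by nlinarith)] at h1
    nlinarith
  · rw [max_eq_left (by nlinarith), max_eq_left (by nlinarith)] at h1
    nlinarith

/-- strict version -/
theorem line_lt {w w' : ℝ × ℝ} (hw : w ∈ Sc) (hw' : w' ∈ Sc) {μ : ℝ} (hμ : 0 < μ)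
    (e1 : w.1 - w'.1 = -(β * μ)) (e2 : w.2 - w'.2 = -(α * μ)) : N w - N w' < μ := by
  have h1 := A.diff hw hw'
  rw [e1, e2] at h1
  have ha := h.ha
  have hb := h.hb
  have hs := h.hs
  rcases le_or_gt 0 α with p | p <;> rcases le_or_gt 0 β with q | q
  · rw [max_eq_right (by nlinarith), max_eq_right (by nlinarith)] at h1
    linarith
  · rw [max_eq_left (by nlinarith), max_eq_right (by nlinarith)] at h1
    nlinarith
  · rw [max_eq_right (by nlinarith), max_eq_left (by nlinarith)] at h1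
    nlinarith
  · have k1 : w'.1 < w.1 := by nlinarith
    have k2 : w'.2 < w.2 := by nlinarith
    have := A.st w.1 w'.1 w.2 w'.2 hw.1 hw'.1 hw.2 hw'.2 k1 k2
    rw [e1, e2] at this
    have e : N (w.1, w.2) - N (w'.1, w'.2) = N w - N w' := rfl
    rw [e] at this
    nlinarith

theorem tn_injOn : InjOn (tn α β N) Sc := by
  have key : ∀ w ∈ Sc, ∀ w' ∈ Sc, tn α β N w = tn α β N w' → ¬ 0 < N w - N w' := by
    intro w hw w' hw' he hlt
    have h1 := congrArg Prod.fst he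
    have h2 := congrArg Prod.snd he
    simp only [tn] at h1 h2
    have := A.line_lt h hw hw' hlt (by linarith) (by linarith)
    exact lt_irrefl _ this
  intro w hw w' hw' he
  have k1 := key w hw w' hw' he
  have k2 := key w' hw' w hw he.symm
  have k3 : N w = N w' := by
    rcases lt_trichotomy (N w) (N w') with h | h | h
    · exact absurd (by linarith) k2
    · exact h
    · exact absurd (by linarith) k1
  have h1 := congrArg Prod.fst he
  have h2 := congrArg Prod.snd he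
  simp only [tn, k3] at h1 h2
  exact Prod.ext (by linarith) (by linarith)

theorem tn_mapsTo : MapsTo (tn α β N) Sc (Rg α β) := by
  intro w hw
  have n0 := A.nonneg hw
  have n1 := A.le_1 hw
  have n2 := A.le_2 hw
  have n3 := A.ge_1 hw
  have n4 := A.ge_2 hw
  have ha := h.ha
  have hb := h.hb
  have hs := h.hs
  have w1 := hw.1.2
  have w2 := hw.2.2
  refine ⟨?_, ?_, ?_, ?_⟩
  · simp only [tn]
    rcases le_total 0 α with p | p
    · have := mul_nonneg p n0
      linarith [hw.2.1]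
    · nlinarith [hw.2.1]
  · simp only [tn]
    rcases le_total 0 β with p | p
    · have := mul_nonneg p n0
      linarith [hw.1.1]
    · nlinarith [hw.1.1]
  · have e : F1 α β 1 (tn α β N w) = -((1 + α) * (1 - w.1)) - β * (w.2 - N w) := by
      simp only [F1, tn]; ring
    rw [e]
    rcases le_total 0 β with p | p
    · have := mul_nonneg p (sub_nonneg.2 n2)
      have := mul_nonneg (show 0 ≤ 1 + α by linarith) (sub_nonneg.2 w1)
      linarith
    · have k1 : -β * (w.2 - N w) ≤ -β * (1 - w.1) := mul_le_mul_of_nonneg_left n3 (by linarith)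
      have k2 := mul_nonneg (show 0 ≤ 1 + α + β by linarith) (sub_nonneg.2 w1)
      nlinarith
  · have e : F2 α β 1 (tn α β N w) = -((1 + β) * (1 - w.2)) - α * (w.1 - N w) := by
      simp only [F2, tn]; ring
    rw [e]
    rcases le_total 0 α with p | p
    · have := mul_nonneg p (sub_nonneg.2 n1)
      have := mul_nonneg (show 0 ≤ 1 + β by linarith) (sub_nonneg.2 w2)
      linarith
    · have k1 : -α * (w.1 - N w) ≤ -α * (1 - w.2) := mul_le_mul_of_nonneg_left n4 (by linarith)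
      have k2 := mul_nonneg (show 0 ≤ 1 + α + β by linarith) (sub_nonneg.2 w2)
      nlinarith

omit A h in
theorem isOpen_So : IsOpen So := by
  have : So = Ioo (0 : ℝ) 1 ×ˢ Ioo (0 : ℝ) 1 := rfl
  rw [this]
  exact isOpen_Ioo.prod isOpen_Ioo

omit A h in
/-- the exit point of the square on a ray -/
theorem exit {w d : ℝ × ℝ} (hw : w ∈ Sc) (hd : d ≠ 0) :
    ∃ t : ℝ, 0 ≤ t ∧ w + t • d ∈ Sc ∧ w + t • d ∉ So := by
  set T : Set ℝ := {t | 0 ≤ t ∧ w + t • d ∈ Sc} with hT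
  have hn : 0 < ‖d‖ := norm_pos_iff.2 hd
  obtain ⟨R, hR⟩ := isCompact_Sc.isBounded.exists_norm_le
  have hcl : IsClosed T := by
    refine IsClosed.inter isClosed_Ici ?_
    exact isCompact_Sc.isClosed.preimage (by fun_prop : Continuous fun t : ℝ => w + t • d)
  have hbd : T ⊆ Icc 0 ((R + ‖w‖) / ‖d‖) := by
    rintro t ⟨h1, h2⟩
    refine ⟨h1, ?_⟩
    rw [le_div_iff₀ hn]
    have h3 := hR _ h2
    have h4 : ‖t • d‖ = t * ‖d‖ := by rw [norm_smul, Real.norm_eq_abs, abs_of_nonneg h1]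
    rw [← h4]
    calc ‖t • d‖ = ‖(w + t • d) - w‖ := by rw [add_sub_cancel_left]
      _ ≤ ‖w + t • d‖ + ‖w‖ := norm_sub_le _ _
      _ ≤ R + ‖w‖ := by linarith
  have hcpt : IsCompact T := isCompact_Icc.of_isClosed_subset hcl hbd
  obtain ⟨t, ht, hmax⟩ := hcpt.exists_isGreatest ⟨0, le_rfl, by simpa using hw⟩
  refine ⟨t, ht.1, ht.2, fun hso => ?_⟩
  have hc : Continuous (fun ε : ℝ => w + (t + ε) • d) := by fun_prop
  have h0 : (fun ε : ℝ => w + (t + ε) • d) 0 ∈ So := by simpa using hso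
  have h1 := hc.continuousAt.preimage_mem_nhds (isOpen_So.mem_nhds h0)
  obtain ⟨r, hr, hb⟩ := Metric.mem_nhds_iff.1 h1
  have h2 : r / 2 ∈ Metric.ball (0 : ℝ) r := by
    rw [Metric.mem_ball, Real.dist_eq, sub_zero, abs_of_pos (by positivity)]
    linarith
  have h3 : t + r / 2 ∈ T := ⟨by linarith [ht.1], So_sub (hb h2)⟩
  have h4 := hmax h3
  linarith

theorem tn_surj {p : ℝ × ℝ} (hp : p ∈ Rg α β) : ∃ w ∈ Sc, tn α β N w = p := by
  obtain ⟨w0, hw0, rfl⟩ := exists_tw h hp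
  by_cases hz : β = 0 ∧ α = 0
  · obtain ⟨rfl, rfl⟩ := hz
    exact ⟨w0, hw0, by simp [tn, tw]⟩
  have hd : ((-β, -α) : ℝ × ℝ) ≠ 0 := by
    intro hh
    rw [Prod.mk_eq_zero] at hh
    exact hz ⟨by linarith [hh.1], by linarith [hh.2]⟩
  have hd' : ((β, α) : ℝ × ℝ) ≠ 0 := by
    intro hh
    rw [Prod.mk_eq_zero] at hh
    exact hz ⟨hh.1, hh.2⟩
  obtain ⟨tp, tp0, tpS, tpO⟩ := exit hw0 hd
  obtain ⟨tm, tm0, tmS, tmO⟩ := exit hw0 hd'
  set l : ℝ → ℝ × ℝ := fun t => w0 + t • ((-β, -α) : ℝ × ℝ) with hl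
  have l1 : ∀ t, (l t).1 = w0.1 - β * t := fun t => by simp [hl]; ring
  have l2 : ∀ t, (l t).2 = w0.2 - α * t := fun t => by simp [hl]; ring
  have em : w0 + tm • ((β, α) : ℝ × ℝ) = l (-tm) := by
    simp only [hl]; ext <;> simp
  rw [em] at tmS tmO
  have hlS : ∀ t ∈ Icc (-tm) tp, l t ∈ Sc := by
    intro t ht
    have p1 := tmS.1
    have p2 := tmS.2
    have q1 := tpS.1
    have q2 := tpS.2
    change (l tp).1 ∈ _ at q1
    change (l tp).2 ∈ _ at q2
    rw [l1] at p1 q1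
    rw [l2] at p2 q2
    refine ⟨?_, ?_⟩
    · rw [l1]
      rcases le_total 0 β with s | s
      · constructor <;> nlinarith [ht.1, ht.2, p1.1, p1.2, q1.1, q1.2]
      · constructor <;> nlinarith [ht.1, ht.2, p1.1, p1.2, q1.1, q1.2]
    · rw [l2]
      rcases le_total 0 α with s | s
      · constructor <;> nlinarith [ht.1, ht.2, p2.1, p2.2, q2.1, q2.2]
      · constructor <;> nlinarith [ht.1, ht.2, p2.1, p2.2, q2.1, q2.2]
  have hlc : Continuous l := by simp only [hl]; fun_prop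
  have hG : ContinuousOn (fun t => N (l t) - (min w0.1 w0.2 + t)) (Icc (-tm) tp) := by
    refine ContinuousOn.sub (A.continuousOn.comp hlc.continuousOn hlS) (by fun_prop)
  -- the model heights
  have Amin : ∀ w ∈ Sc, ∀ w' ∈ Sc, min w.1 w.2 - min w'.1 w'.2 ≤
      max (w.1 - w'.1) 0 + max (w.2 - w'.2) 0 := by
    intro w _ w' _
    have a1 := le_max_left (w.1 - w'.1) 0
    have a2 := le_max_left (w.2 - w'.2) 0
    have a3 := le_max_right (w.1 - w'.1) 0
    have a4 := le_max_right (w.2 - w'.2) 0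
    rcases le_total w'.1 w'.2 with k | k
    · rw [min_eq_left k]
      have := min_le_left w.1 w.2
      linarith
    · rw [min_eq_right k]
      have := min_le_right w.1 w.2
      linarith
  have lin : ∀ w ∈ Sc, ∀ w' ∈ Sc, ∀ μ : ℝ, 0 ≤ μ → w.1 - w'.1 = -(β * μ) →
      w.2 - w'.2 = -(α * μ) → min w.1 w.2 - min w'.1 w'.2 ≤ μ := by
    intro w hw w' hw' μ hμ e1 e2
    have h1 := Amin w hw w' hw'
    rw [e1, e2] at h1
    have ha := h.ha
    have hb := h.hb
    have hs := h.hs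
    rcases le_total 0 α with p | p <;> rcases le_total 0 β with q | q
    · rw [max_eq_right (by nlinarith), max_eq_right (by nlinarith)] at h1
      linarith
    · rw [max_eq_left (by nlinarith), max_eq_right (by nlinarith)] at h1
      nlinarith
    · rw [max_eq_right (by nlinarith), max_eq_left (by nlinarith)] at h1
      nlinarith
    · rw [max_eq_left (by nlinarith), max_eq_left (by nlinarith)] at h1
      nlinarith
  have hle : -tm ≤ tp := by linarith
  have g1 : N (l tp) - (min w0.1 w0.2 + tp) ≤ 0 := by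
    have e := A.bd (l tp) tpS tpO
    have k := lin (l tp) tpS w0 hw0 tp tp0 (by rw [l1]; ring) (by rw [l2]; ring)
    rw [e]; linarith
  have g2 : 0 ≤ N (l (-tm)) - (min w0.1 w0.2 + -tm) := by
    have e := A.bd (l (-tm)) tmS tmO
    have k := lin w0 hw0 (l (-tm)) tmS tm tm0 (by rw [l1]; ring) (by rw [l2]; ring)
    rw [e]; linarith
  obtain ⟨t, ht, h0⟩ := intermediate_value_Icc' hle hG ⟨g1, g2⟩
  refine ⟨l t, hlS t ht, ?_⟩
  have hN : N (l t) = min w0.1 w0.2 + t := by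
    have : N (l t) - (min w0.1 w0.2 + t) = 0 := h0
    linarith
  simp only [tn, tw, hN, l1, l2]
  ext <;> simp only <;> ring

theorem tn_bijOn : BijOn (tn α β N) Sc (Rg α β) :=
  ⟨A.tn_mapsTo h, A.tn_injOn h, fun p hp => by
    obtain ⟨w, hw, e⟩ := A.tn_surj h hp
    exact ⟨w, hw, e⟩⟩

theorem tn_mem_Rgo {w : ℝ × ℝ} (hw : w ∈ Sc) : tn α β N w ∈ Rgo α β ↔ w ∈ So := by
  constructor
  · intro hR
    by_contra hn
    have e := A.bd w hw hn
    have e2 : tn α β N w = tw α β w := by simp only [tn, tw, e]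
    rw [e2, tw_mem_Rgo h hw] at hR
    exact hn hR
  · intro hwo
    by_contra hn
    obtain ⟨w', hw', e⟩ := exists_tw h (A.tn_mapsTo h hw)
    have hno : w' ∉ So := by
      intro hh
      rw [← tw_mem_Rgo h hw', e] at hh
      exact hn hh
    have e3 : tn α β N w' = tw α β w' := by
      have := A.bd w' hw' hno
      simp only [tn, tw, this]
    have e4 : w' = w := A.tn_injOn h hw' hw (e3.trans e)
    exact hno (e4 ▸ hwo)

end Adm

end Crest.Agent.R096.Grd_714
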