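import Crest.Agent.R096.Cp6_298
import Crest.Agent.R096.Ori3_543
import Crest.Agent.R096.Fin2_441
import Crest.Agent.R096.Cm3_117
import Crest.Agent.R096.Main3_4

/-!
# R096 (row 96), GLUE-STATE part 1 (helper422): what a later state with copies (`Cps` of 298) over the
mesh of a tiling gives: points, local finiteness, parities and labels of the final sheets in the
tiles which are active in no quad of the family.
-/

set_option autoImplicit false
set_option linter.unusedSectionVars false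

open Set Metric Relation

namespace Crest.Agent.R096.Gs_422

open Crest.Agent.R096.Msh_715 Crest.Agent.R096.Agl5_543 Crest.Agent.R096.St_147
  Crest.Agent.R096.Seq_213 Crest.Agent.R096.Lab_184 Crest.Agent.R096.Cp_298
  Crest.Agent.R096.Ori_543

variable {E : Type} [NormedAddCommGroup E] [NormedSpace ℝ E] [FiniteDimensional ℝ E]
variable {Om : Set E} {ι J J1 C K : Type} {T : Tiling Om ι} {h3 : Module.finrank ℝ E = 3}
variable {fam : J → C} {fam1 : J1 → C}

/-- the tile `q` is active in no quad of the family `c` -/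
def CFr (Q : Quads ι C K) (c : C) (q : ι) : Prop := ∀ k, Q.In k c → q ∉ Q.Act k

/-- points in tiles which are active in no quad of their family are marked -/
theorem mem_far_of_frozen {s : GSt (meshC T h3) fam} {Q : Quads ι C K} {far : J → Set E}
    (hI : s.Inv Q far) {w : E} (hw : w ∈ s.P) (hO : w ∈ Om) (hd : T.dim w = 1) {q : ι}
    (hq : w ∈ Msh_715.P (T.H q)) (hf : CFr Q (fam (s.lab w)) q) : w ∈ far (s.lab w) := by
  rcases hI.loc hw with h | ⟨k, hk, hint⟩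
  · exact h
  · exact absurd (Fin_441.act_of_int hO hd hint hq) (hf k hk)

/-- finitely many points on every 2-cell: finitely many points in every cell -/
theorem lf_of_faces {s : GSt (meshC T h3) fam} (hon : ∀ w ∈ s.P, w ∈ Om ∧ T.dim w = 1)
    (hF : ∀ F : C2 T, (s.P ∩ F.On).Finite) : Cm_117.LF s := by
  intro c
  have h1 : {i : T.Cell | (i.set ∩ c.set).Nonempty}.Finite :=
    T.cplx.finite_meet (T.cplx.isCompact c) (T.cplx.sub c)
  have h2 : {F : C2 T | (F.set ∩ c.set).Nonempty}.Finite :=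
    h1.preimage (f := fun F : C2 T => F.1) (fun _ _ _ _ e => Subtype.ext e)
  refine (h2.biUnion (t := fun F : C2 T => s.P ∩ F.On) fun F _ => hF F).subset ?_
  rintro w ⟨hw, hwc⟩
  obtain ⟨hO, hd⟩ := hon w hw
  obtain ⟨F, hwF⟩ := exists_on h3 hO hd
  exact mem_biUnion (show F ∈ {F : C2 T | (F.set ∩ c.set).Nonempty} from ⟨w, hwF.1, hwc⟩)
    ⟨hw, hwF⟩

section cps

variable {Q : Quads ι C K} {δ : E → ℝ} {s₀ : GSt (meshC T h3) fam} {far₀ : J → Set E}
  {σ₀ : E → ZMod 2} {p : J1 → J} {m : J1 → ℕ} {s : GSt (meshC T h3) fam1} {far : J1 → Set E}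
  {β : E → E}

variable (h : Cps (oriM h3) Q (Near T δ) s₀ far₀ σ₀ p m s far β)
  (hP0 : ∀ w ∈ s₀.P, w ∈ Om ∧ T.dim w = 1)
include h hP0

theorem oc_final {x : E} (hx : x ∈ s.P) : x ∈ T.oc (β x) := (h.rel hx).1

/-- the points of the final state lie on the 1-cells -/
theorem on_final : ∀ x ∈ s.P, x ∈ Om ∧ T.dim x = 1 := by
  intro x hx
  obtain ⟨h1, h2⟩ := hP0 _ (h.mem hx)
  have h4 := oc_final h hP0 hx
  exact ⟨T.cc_sub_Om h1 (T.oc_sub_cc _ h4), (T.dim_eq_of_mem_oc h1 h4).trans h2⟩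

theorem cc_final {x : E} (hx : x ∈ s.P) : T.cc x = T.cc (β x) :=
  T.cc_eq_of_mem_oc (hP0 _ (h.mem hx)).1 (oc_final h hP0 hx)

theorem mem_cc_iff {x e : E} (hx : x ∈ s.P) : x ∈ T.cc e ↔ β x ∈ T.cc e := by
  have h1 := cc_final h hP0 hx
  constructor
  · intro h2
    exact T.cc_sub_of_mem h2 (by rw [h1]; exact T.self_mem_cc _)
  · intro h2
    exact T.cc_sub_of_mem h2 (by rw [← h1]; exact T.self_mem_cc _)

theorem mem_tile_iff {x : E} {q : ι} (hx : x ∈ s.P) :
    x ∈ Msh_715.P (T.H q) ↔ β x ∈ Msh_715.P (T.H q) := by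
  have h1 := cc_final h hP0 hx
  constructor
  · intro h2
    exact T.cc_sub_tile (x := x) h2 (by rw [h1]; exact T.self_mem_cc _)
  · intro h2
    exact T.cc_sub_tile (x := β x) h2 (by rw [← h1]; exact T.self_mem_cc _)

/-- local finiteness of the final state -/
theorem lf_final (hp : ∀ j, fam (p j) = fam1 j) (hI₀ : s₀.Inv Q far₀) (hI : s.Inv Q far)
    (hfin : ∀ F : C2 T, (s₀.P ∩ F.On).Finite) : Cm_117.LF s :=
  lf_of_faces (on_final h hP0) fun F => h.finite hp hI₀ hI (F := F) (hfin F)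

/-- the bijection of a final sheet and its original in a tile active in no quad of the family -/
theorem bij_final (hp : ∀ j, fam (p j) = fam1 j) (hI₀ : s₀.Inv Q far₀) (hI : s.Inv Q far)
    {j : J1} {q : ι} (hf : CFr Q (fam1 j) q) {X : Set E} (hX : X ⊆ Msh_715.P (T.H q))
    (hXc : ∀ x ∈ s.P, (x ∈ X ↔ β x ∈ X)) :
    BijOn β {x | x ∈ s.P ∧ s.lab x = j ∧ x ∈ X} {w | w ∈ s₀.P ∧ s₀.lab w = p j ∧ w ∈ X} := by
  have hfar : ∀ x, x ∈ s.P → s.lab x = j → x ∈ X → x ∈ far j := by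
    intro x hx hl hxX
    obtain ⟨h1, h2⟩ := on_final h hP0 x hx
    have := mem_far_of_frozen hI hx h1 h2 (hX hxX) (by rw [hl]; exact hf)
    rwa [hl] at this
  refine ⟨?_, ?_, ?_⟩
  · rintro x ⟨hx, hl, hxX⟩
    have h1 := h.far_mem (hfar x hx hl hxX)
    obtain ⟨h2, h4⟩ := hI₀.far_mem h1
    exact ⟨h2, h4, (hXc x hx).1 hxX⟩
  · rintro x ⟨hx, hl, hxX⟩ y ⟨hy, hl', hyX⟩ e
    exact h.far_uniq (hfar x hx hl hxX) (hfar y hy hl' hyX) e
  · rintro w ⟨hw, hl, hwX⟩
    obtain ⟨h1, h2⟩ := hP0 w hw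
    have h4 := mem_far_of_frozen hI₀ hw h1 h2 (hX hwX) (by rw [hl, hp]; exact hf)
    rw [hl] at h4
    obtain ⟨x, hx, rfl⟩ := h.far_ex h4
    obtain ⟨h5, h6⟩ := hI.far_mem hx
    exact ⟨x, ⟨h5, h6, (hXc x h5).2 hwX⟩, rfl⟩

/-- **parities of a final sheet and of its original agree on the 1-cells of a tile which is active
in no quad of the family** -/
theorem par_final (hp : ∀ j, fam (p j) = fam1 j) (hI₀ : s₀.Inv Q far₀) (hI : s.Inv Q far)
    {j : J1} {q : ι} (hf : CFr Q (fam1 j) q) {e : E} (heq : e ∈ Msh_715.P (T.H q)) :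
    Fin_441.par T (gPts s j) e = Fin_441.par T (gPts s₀ (p j)) e := by
  classical
  have hsub : T.cc e ⊆ Msh_715.P (T.H q) := T.cc_sub_tile (x := e) heq
  have hb := bij_final h hP0 hp hI₀ hI hf hsub (fun x hx => mem_cc_iff h hP0 hx)
  have hcard : ((gPts s j).filter (fun u => u ∈ T.cc e)).card =
      ((gPts s₀ (p j)).filter (fun u => u ∈ T.cc e)).card := by
    refine Finset.card_bij (fun x _ => β x) ?_ ?_ ?_
    · intro x hx
      obtain ⟨h1, h2⟩ := Finset.mem_filter.1 hx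
      obtain ⟨h4, h5⟩ := mem_gPts.1 h1
      obtain ⟨a1, a2, a3⟩ := hb.mapsTo ⟨h4, h5, h2⟩
      exact Finset.mem_filter.2 ⟨mem_gPts.2 ⟨a1, a2⟩, a3⟩
    · intro x hx y hy exy
      obtain ⟨h1, h2⟩ := Finset.mem_filter.1 hx
      obtain ⟨h4, h5⟩ := mem_gPts.1 h1
      obtain ⟨h1', h2'⟩ := Finset.mem_filter.1 hy
      obtain ⟨h4', h5'⟩ := mem_gPts.1 h1'
      exact hb.injOn ⟨h4, h5, h2⟩ ⟨h4', h5', h2'⟩ exy
    · intro w hw
      obtain ⟨h1, h2⟩ := Finset.mem_filter.1 hw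
      obtain ⟨h4, h5⟩ := mem_gPts.1 h1
      obtain ⟨x, ⟨a1, a2, a3⟩, rfl⟩ := hb.surjOn ⟨h4, h5, h2⟩
      exact ⟨x, Finset.mem_filter.2 ⟨mem_gPts.2 ⟨a1, a2⟩, a3⟩, rfl⟩
  unfold Fin_441.par
  rw [hcard]

/-- a tile active in no quad of the family without points of the original sheet has no points of
the final sheet -/
theorem empty_final (hp : ∀ j, fam (p j) = fam1 j) (hI₀ : s₀.Inv Q far₀) (hI : s.Inv Q far)
    {j : J1} {q : ι} (hf : CFr Q (fam1 j) q)
    (he : ∀ w ∈ s₀.P, s₀.lab w = p j → w ∉ Msh_715.P (T.H q)) :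
    ∀ x ∈ gPts s j, x ∉ Msh_715.P (T.H q) := by
  intro x hx hxq
  obtain ⟨h1, h2⟩ := mem_gPts.1 hx
  have hb := bij_final h hP0 hp hI₀ hI hf (Subset.refl _) (fun x hx => mem_tile_iff h hP0 hx)
  obtain ⟨a1, a2, a3⟩ := hb.mapsTo ⟨h1, h2, hxq⟩
  exact he _ a1 a2 a3

end cps

/-! ### labels along paths of 1-cells -/

/-- two patterns with the same parities on the 1-cells of the tiles of `W` -/
theorem diff_of_par {Q Q' : Finset E} {lam lam' : E → ZMod 2} (h : Main_4.IsLab T Q lam)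
    (h' : Main_4.IsLab T Q' lam') {W : Set ι}
    (hW : ∀ q ∈ W, ∀ e ∈ Msh_715.P (T.H q), T.dim e = 1 → Fin_441.par T Q e = Fin_441.par T Q' e)
    {v v' : E} (hp : ReflTransGen (Main_4.Edg T W) v v') : lam v + lam' v = lam v' + lam' v' := by
  classical
  induction hp with
  | refl => rfl
  | @tail a b _ hs ih =>
    obtain ⟨w, h1, h2, h4, i, h5, h6⟩ := hs
    rw [ih]
    have e1 := h w h1 h2 _ _ h4
    have e2 := h' w h1 h2 _ _ h4
    have e3 : Fin_441.par T Q w = Fin_441.par T Q' w := hW i h5 w h6 h2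
    have e4 : ∀ a b c d : ZMod 2, a + b = c + d → a + c = b + d := by decide
    exact e4 _ _ _ _ (e1.trans (e3.trans e2.symm))

section cps2

variable {Q : Quads ι C K} {δ : E → ℝ} {s₀ : GSt (meshC T h3) fam} {far₀ : J → Set E}
  {σ₀ : E → ZMod 2} {p : J1 → J} {m : J1 → ℕ} {s : GSt (meshC T h3) fam1} {far : J1 → Set E}
  {β : E → E}

/-- **labels along a path in tiles active in no quad of the family** -/
theorem lab_frozen (h : Cps (oriM h3) Q (Near T δ) s₀ far₀ σ₀ p m s far β)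
    (hP0 : ∀ w ∈ s₀.P, w ∈ Om ∧ T.dim w = 1) (hp : ∀ j, fam (p j) = fam1 j)
    (hI₀ : s₀.Inv Q far₀) (hI : s.Inv Q far) {j : J1} {lam lam₀ : E → ZMod 2}
    (hl : Main_4.IsLab T (gPts s j) lam) (hl₀ : Main_4.IsLab T (gPts s₀ (p j)) lam₀) {v v' : E}
    (hv : ReflTransGen (Main_4.Edg T {q | CFr Q (fam1 j) q}) v v') :
    lam v + lam₀ v = lam v' + lam₀ v' :=
  diff_of_par hl hl₀ (fun _ hq _ he _ => par_final h hP0 hp hI₀ hI hq he) hv

/-- **labels along a path in tiles active in no quad of the family and without points of the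
original sheet** -/
theorem lab_empty (h : Cps (oriM h3) Q (Near T δ) s₀ far₀ σ₀ p m s far β)
    (hP0 : ∀ w ∈ s₀.P, w ∈ Om ∧ T.dim w = 1) (hp : ∀ j, fam (p j) = fam1 j)
    (hI₀ : s₀.Inv Q far₀) (hI : s.Inv Q far) {j : J1} {lam : E → ZMod 2}
    (hl : Main_4.IsLab T (gPts s j) lam) {W : Set ι} (hW : ∀ q ∈ W, CFr Q (fam1 j) q ∧
      ∀ w ∈ s₀.P, s₀.lab w = p j → w ∉ Msh_715.P (T.H q)) {v v' : E}
    (hv : ReflTransGen (Main_4.Edg T W) v v') : lam v = lam v' :=
  hl.const (W := W) (fun q hq => empty_final h hP0 hp hI₀ hI (hW q hq).1 (hW q hq).2) hv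

end cps2

end Crest.Agent.R096.Gs_422
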