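import Crest.Agent.R096.Msb4_432

/-!
# Row 96: the aligned mesh with subdivided cores, part 8: every tile is good, with a finite list of
data (the common source of the uniform constants)
-/

set_option autoImplicit false
set_option linter.unusedSectionVars false

open Set Metric Topology Filter

namespace Crest.Agent.R096.Msb_432

open Crest.Agent.R096.Msh_715 Crest.Agent.R096.Msh_715.Tiling Crest.Agent.R096.Mal_874
open Crest.Agent.R096.Gsm_432 Crest.Agent.R096.Msh_810 Crest.Agent.R096.Cut_874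

universe w

variable {n : ℕ}

/-- **every tile of `meshS` is good**, in a frame of bounded distortion, with data in a finite
list -/
theorem good_meshS (E : Type) [NormedAddCommGroup E] [NormedSpace ℝ E] [FiniteDimensional ℝ E]
    [NeZero n] {Ps : Set ((Fin n → Fin n → ℤ) × ℕ)} (hPs : Ps.Finite) (c0 R0 Lo : ℝ) {B0 : ℕ} :
    ∃ (Ls : Set (Finset (Fin n → ℝ) × ℕ)) (R L1 L2 : ℝ), Ls.Finite ∧ (∀ p ∈ Ls, 0 < p.2) ∧
      (∀ p ∈ Ls, ∀ ν ∈ p.1, ∀ m, ∃ c : ℤ, ν m = c / p.2) ∧ 0 < L1 ∧ 0 ≤ L2 ∧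
      ∀ {J : Type w} (M : MD E n J) {k : J → ℕ} (hk : M.Sc k)
      (a : Fin n → ℝ) {v : J → E} (hv : M.Adm v) (X : RD M), RP X a v k →
      (∀ j, (X.A j, X.d j) ∈ Ps) → (∀ j, X.c j ≤ c0) → (∀ j, X.B j ≤ B0) → (∀ j, X.R j ≤ R0) →
      (∀ v, ‖M.φ v‖ ≤ Lo * ‖v‖) → (∀ v, ‖v‖ ≤ Lo * ‖M.φ v‖) →
      ∀ t, ∃ (κ : ℕ) (ψ : E ≃L[ℝ] (Fin n → ℝ)) (a' : Fin n → ℝ) (p : Finset (Fin n → ℝ) × ℕ),
        p ∈ Ls ∧ Scl M hk a hv t κ ∧ Good (meshS M hk a hv) t (chi ψ a' κ) κ p.1 p.2 R ∧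
        (∀ v, ‖ψ v‖ ≤ L1 * ‖v‖) ∧ ∀ v, ‖v‖ ≤ L2 * ‖ψ v‖ := by
  classical
  obtain ⟨a0, ha0⟩ := (hPs.image fun p : (Fin n → Fin n → ℤ) × ℕ =>
    ∑ m, ∑ l, |(p.1 m l : ℝ)|).bddAbove
  set L1 : ℝ := (|a0| + 1) * (|Lo| + 1) with hL1d
  set L2 : ℝ := (|Lo| + 1) * (|c0| + 1) with hL2d
  have hL1 : 0 < L1 := by positivity
  have hL2 : 0 ≤ L2 := by positivity
  set Ls : Set (Finset (Fin n → ℝ) × ℕ) := {(N0 n, 1)} ∪ {(NB n B0, 1)} ∪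
    (fun p : (Fin n → Fin n → ℤ) × ℕ => (NR p.1 p.2, p.2)) '' {p ∈ Ps | 0 < p.2} with hLs
  have hfin : Ls.Finite := ((finite_singleton _).union (finite_singleton _)).union
    ((hPs.subset (sep_subset _ _)).image _)
  have hpos : ∀ p ∈ Ls, 0 < p.2 := by
    rintro p ((rfl | rfl) | ⟨q, hq, rfl⟩)
    · exact one_pos
    · exact one_pos
    · exact hq.2
  have hrat : ∀ p ∈ Ls, ∀ ν ∈ p.1, ∀ m, ∃ c : ℤ, ν m = c / p.2 := by
    rintro p ((rfl | rfl) | ⟨q, hq, rfl⟩)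
    · exact N0_rat one_pos
    · exact NB_rat B0 one_pos
    · exact NR_rat q.1 hq.2
  refine ⟨Ls, max 2 (max R0 c0), L1, L2, hfin, hpos, hrat, hL1, hL2,
    fun {J} M {k} hk a {v} hv X RPx hA hc hB hR hLo hLo' => ?_⟩
  have hLL : Lo ≤ |Lo| + 1 := (le_abs_self Lo).trans (by linarith)
  have hφ1 : ∀ v, ‖M.φ v‖ ≤ L1 * ‖v‖ := by
    intro v
    have h1 := hLo v
    have h2 : Lo * ‖v‖ ≤ (|Lo| + 1) * ‖v‖ := mul_le_mul_of_nonneg_right hLL (norm_nonneg _)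
    have h3 : 0 ≤ |a0| * ((|Lo| + 1) * ‖v‖) := by positivity
    rw [hL1d]
    nlinarith
  have hφ2 : ∀ v, ‖v‖ ≤ L2 * ‖M.φ v‖ := by
    intro v
    have h1 := hLo' v
    have h2 : Lo * ‖M.φ v‖ ≤ (|Lo| + 1) * ‖M.φ v‖ :=
      mul_le_mul_of_nonneg_right hLL (norm_nonneg _)
    have h3 : 0 ≤ |c0| * ((|Lo| + 1) * ‖M.φ v‖) := by positivity
    rw [hL2d]
    nlinarith
  have hψ1 : ∀ j v, ‖(M.Q j).ψ v‖ ≤ L1 * ‖v‖ := by
    intro j v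
    have h1 := norm_rat (X.dpos j) (X.rat j) v
    have h2 : ∑ m, ∑ l, |(X.A j m l : ℝ)| ≤ |a0| + 1 :=
      (ha0 (mem_image_of_mem _ (hA j))).trans ((le_abs_self a0).trans (by linarith))
    have h3 : ‖M.φ v‖ ≤ (|Lo| + 1) * ‖v‖ :=
      (hLo v).trans (mul_le_mul_of_nonneg_right hLL (norm_nonneg _))
    calc ‖(M.Q j).ψ v‖ ≤ (∑ m, ∑ l, |(X.A j m l : ℝ)|) * ‖M.φ v‖ := h1
      _ ≤ (|a0| + 1) * ((|Lo| + 1) * ‖v‖) :=
        mul_le_mul h2 h3 (norm_nonneg _) (by positivity)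
      _ = L1 * ‖v‖ := by rw [hL1d]; ring
  have hψ2 : ∀ j v, ‖v‖ ≤ L2 * ‖(M.Q j).ψ v‖ := by
    intro j v
    have h1 := X.cn j v 0
    rw [map_zero, map_zero, dist_zero_right, dist_zero_right] at h1
    have h2 : X.c j ≤ |c0| + 1 := (hc j).trans ((le_abs_self c0).trans (by linarith))
    have h3 : ‖M.φ v‖ ≤ (|c0| + 1) * ‖(M.Q j).ψ v‖ :=
      h1.trans (mul_le_mul_of_nonneg_right h2 (norm_nonneg _))
    calc ‖v‖ ≤ Lo * ‖M.φ v‖ := hLo' v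
      _ ≤ (|Lo| + 1) * ‖M.φ v‖ := mul_le_mul_of_nonneg_right hLL (norm_nonneg _)
      _ ≤ (|Lo| + 1) * ((|c0| + 1) * ‖(M.Q j).ψ v‖) :=
        mul_le_mul_of_nonneg_left h3 (by positivity)
      _ = L2 * ‖(M.Q j).ψ v‖ := by rw [hL2d]; ring
  have m0 : (N0 n, 1) ∈ Ls := Or.inl (Or.inl rfl)
  have mB : (NB n B0, 1) ∈ Ls := Or.inl (Or.inr rfl)
  have mR : ∀ j, (NR (X.A j) (X.d j), X.d j) ∈ Ls := fun j =>
    Or.inr ⟨_, ⟨hA j, X.dpos j⟩, rfl⟩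
  have r1 : (1 : ℝ) ≤ max 2 (max R0 c0) := le_trans (by norm_num) (le_max_left _ _)
  have r2 : ∀ j, X.c j ≤ max 2 (max R0 c0) := fun j =>
    (hc j).trans ((le_max_right _ _).trans (le_max_right _ _))
  have r3 : ∀ j, X.R j ≤ max 2 (max R0 c0) := fun j =>
    (hR j).trans ((le_max_left _ _).trans (le_max_right _ _))
  rintro (⟨t, ht⟩ | c)
  · rcases t with p | ⟨j, i⟩
    · rcases outer_goodS M hk a hv X RPx p with hg | ⟨j, hj, hg⟩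
      · exact ⟨_, M.φ, a, _, m0, Or.inl rfl, good_mono hg subset_rfl (le_max_left _ _),
          hφ1, hφ2⟩
      · exact ⟨_, M.φ, a, _, mR j, Or.inr ⟨j, rfl, hj⟩, good_mono hg subset_rfl (r2 j),
          hφ1, hφ2⟩
    · have hi : i ≠ M.core hk a hv j := by
        rintro rfl
        exact ht ⟨j, rfl⟩
      rcases inner_goodS M hk a hv X RPx i hi with ⟨τ, hτ, hg⟩ | hg | ⟨-, hg⟩
      · refine ⟨_, _, _, _, m0, ⟨?_, ?_⟩, good_mono hg subset_rfl (le_max_left _ _),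
          hψ1 j, hψ2 j⟩
        · have := (M.Bk v j).kc_le (k j) (hk.kc j) (τ := τ.1)
          exact this.trans (Nat.le_succ _)
        · exact Nat.succ_le_succ ((M.Bk v j).le_k (k j) (hk.kc j) (τ := τ.1))
      · exact ⟨_, _, _, _, mB, ⟨le_rfl, (hk.kc j).trans (Nat.le_succ _)⟩,
          good_mono hg (NB_mono (hB j)) (r3 j), hψ1 j, hψ2 j⟩
      · exact ⟨_, _, _, _, mR j, ⟨hk.kc j, Nat.le_succ _⟩,
          good_mono hg subset_rfl (r2 j), hφ1, hφ2⟩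
  · exact ⟨_, _, _, _, mB, rfl, good_mono (cube_goodS M hk a hv X c) (NB_mono (hB _)) r1,
      hψ1 _, hψ2 _⟩

end Crest.Agent.R096.Msb_432
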