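import Crest.Agent.R096.Nbr4_896
import Crest.Agent.R096.Msb8_432

/-!
# Row 96 (S0127), helper476: the true scale of the tiles of `meshS`  ((G3), (G4) of 622 #11737)

`scl t` : scale of the parent cube (outer pieces), scale of the cube (graded inner tiles), `kc` (shell
tiles and cubes of the core).
-/

set_option autoImplicit false
set_option linter.unusedSectionVars false

open Set Metric Topology Filter

namespace Crest.Agent.R096.Gsc_476

open Crest.Agent.R096.Msh_715 Crest.Agent.R096.Msh_715.Tiling Crest.Agent.R096.Mal_874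
open Crest.Agent.R096.Msh_810 Crest.Agent.R096.Cut_874 Crest.Agent.R096.Msb_432
open Crest.Agent.R096.Gsm_432 Crest.Agent.R096.Nbr_896

universe w

variable {n : ℕ}

/-! ### one block -/

section blk

variable {E : Type*} [NormedAddCommGroup E] [NormedSpace ℝ E]
variable (Q : CB E n) (k : ℕ) (hk : Q.kc ≤ k)

/-- the true scale of a tile of the block tiling -/
def iscl : ({i // i ∉ {i | P ((Q.T0 k hk).H i) ⊆ Q.S.bp Q.ψ Q.a' Q.kc}} ⊕ Q.S.Ix) → ℕ
  | Sum.inl τ => τ.1.1.1.k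
  | Sum.inr _ => Q.kc

theorem kc_le_iscl (t) : Q.kc ≤ iscl Q k hk t := by
  rcases t with τ | i
  · exact Q.kc_le k hk
  · exact le_rfl

theorem iscl_le (t) : iscl Q k hk t ≤ k := by
  rcases t with τ | i
  · exact Q.le_k k hk
  · exact hk

/-- the scale function of the block at the points of a tile -/
theorem iscl_K [NeZero n] {t : {i // i ∉ {i | P ((Q.T0 k hk).H i) ⊆ Q.S.bp Q.ψ Q.a' Q.kc}} ⊕ Q.S.Ix}
    {x : E} (hx : x ∈ P ((Q.T k hk).H t)) :
    iscl Q k hk t ≤ K (Q.D k hk) (Q.ψ x) ∧ K (Q.D k hk) (Q.ψ x) ≤ iscl Q k hk t + 1 := by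
  rcases t with τ | i
  · have hx' : τ.1 ∈ (tiling Q.ψ (Q.D k hk)).at_ x := hx
    exact ⟨tile_k_le hx', K_le_succ (Msh_810.mem_at.1 hx')⟩
  · have h1 : Q.near 1 x := by
      have := Q.near_of_bp (Q.P_inr_sub k hk i hx)
      intro l
      have h := this l
      constructor <;> linarith [h.1, h.2]
    rw [(Q.near_K k hk h1).self_of_nhds]
    exact ⟨le_rfl, Nat.le_succ _⟩

/-- the scale function in the core -/
theorem K_Kc [NeZero n] {x : E} (hx : x ∈ Q.Kc) : K (Q.D k hk) (Q.ψ x) = Q.kc := by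
  have h1 : Q.near 1 x := by
    have := Q.near_of_bp (Kc_sub_bp _ hx)
    intro l
    have h := this l
    constructor <;> linarith [h.1, h.2]
  exact (Q.near_K k hk h1).self_of_nhds

/-- near the wall the scale function is `k` -/
theorem K_wall {x : E} (hx : infDist (Q.ψ x) Q.W < 12 / 2 ^ k) : K (Q.D k hk) (Q.ψ x) = k :=
  blkE_K_wall (lt_of_lt_of_eq hx (by norm_num))

/-- a point of the enlarged box is not near the wall -/
theorem not_near_wall [NeZero n] {x : E} (hx : Q.near 1 x) (hf : x ∈ frontier Q.N) : False := by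
  have h2 : Q.near 2 x := by
    intro l
    have h := hx l
    constructor <;> linarith [h.1, h.2]
  have h3 := Q.near_infDist h2
  rw [Q.frontier_N] at hf
  rw [infDist_zero_of_mem (show Q.ψ x ∈ Q.W from hf)] at h3
  have : (0:ℝ) < (6 + 1) / 2 ^ Q.kc := by positivity
  linarith

/-- a tile which meets the wall has scale `k` -/
theorem iscl_wall [NeZero n]
    {t : {i // i ∉ {i | P ((Q.T0 k hk).H i) ⊆ Q.S.bp Q.ψ Q.a' Q.kc}} ⊕ Q.S.Ix}
    {x : E} (hx : x ∈ P ((Q.T k hk).H t)) (hf : x ∈ frontier Q.N) : iscl Q k hk t = k := by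
  rcases t with τ | i
  · refine Q.wall_k k hk (τ := τ.1) hx ?_
    rw [Q.frontier_N] at hf
    rw [infDist_zero_of_mem (show Q.ψ x ∈ Q.W from hf)]
    positivity
  · exfalso
    refine not_near_wall Q (x := x) ?_ hf
    have := Q.near_of_bp (Q.P_inr_sub k hk i hx)
    intro l
    have h := this l
    constructor <;> linarith [h.1, h.2]

/-- **where the scale is larger than `kc` we are near the wall** -/
theorem infDist_of_K {x : Fin n → ℝ} (h : Q.kc < K (Q.D k hk) x) :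
    infDist x Q.W < 14 / 2 ^ K (Q.D k hk) x := by
  set κ := K (Q.D k hk) x with hκ
  have hp : (0:ℝ) < 2 ^ Q.kc := by positivity
  have hpκ : (0:ℝ) < 2 ^ κ := by positivity
  have h7 : infDist x Q.W < 7 / 2 ^ Q.kc := by
    by_contra hcon
    push Not at hcon
    have : K (Q.D k hk) x = Q.kc := blkE_K_deep (C := 6) (by norm_num; exact hcon)
    omega
  have hup := K_upper (D := Q.D k hk) (x := x) (blkE_pos x)
  have hC : (Q.D k hk).C = 6 := rfl
  have hρ : (Q.D k hk).ρ x = max (6 / 2 ^ k) (min (6 / 2 ^ Q.kc) (infDist x Q.W)) := rfl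
  rw [hC, ← hκ] at hup
  rw [lt_div_iff₀ hpκ]
  rcases le_total (infDist x Q.W) (6 / 2 ^ Q.kc) with h6 | h6
  · have h1 : infDist x Q.W ≤ (Q.D k hk).ρ x := by
      rw [hρ, min_eq_right h6]
      exact le_max_right _ _
    nlinarith
  · have h1 : 6 / 2 ^ Q.kc ≤ (Q.D k hk).ρ x := by
      rw [hρ, min_eq_left h6]
      exact le_max_right _ _
    have h2 : 2 ^ κ * (6 / 2 ^ Q.kc) < (2:ℝ) * 6 + 2 :=
      lt_of_le_of_lt (mul_le_mul_of_nonneg_left h1 hpκ.le) hup
    have h3 : (2:ℝ) ^ κ < 2 ^ Q.kc * 4 := by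
      rw [← mul_div_assoc, div_lt_iff₀ hp] at h2
      nlinarith
    have h4 : κ < Q.kc + 2 := by
      by_contra hcon
      push Not at hcon
      have := pow_le_pow_right₀ (one_le_two (α := ℝ)) hcon
      rw [pow_add] at this
      linarith
    have h5 : (2:ℝ) ^ κ = 2 ^ Q.kc * 2 := by
      rw [show κ = Q.kc + 1 by omega, pow_succ]
    rw [h5]
    rw [lt_div_iff₀ hp] at h7
    nlinarith

/-- the wall is closed; a nearest point -/
theorem exists_wall [NeZero n] {x : E} {r : ℝ} (h : infDist (Q.ψ x) Q.W ≤ r) :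
    ∃ z ∈ frontier Q.N, ‖Q.ψ x - Q.ψ z‖ ≤ r := by
  have hc : IsCompact Q.W := by
    have h1 : IsCompact (pc Q.a' Q.kc (bx Q.al Q.be)) := pc_compact (bx_finite _ _)
    exact h1.of_isClosed_subset isClosed_frontier h1.isClosed.frontier_subset
  obtain ⟨w, hw, e⟩ := hc.exists_infDist_eq_dist Q.W_ne (Q.ψ x)
  refine ⟨Q.ψ.symm w, ?_, ?_⟩
  · rw [Q.frontier_N, mem_preimage, ContinuousLinearEquiv.apply_symm_apply]
    exact hw
  · rw [ContinuousLinearEquiv.apply_symm_apply, ← dist_eq_norm, ← e]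
    exact h

end blk

/-! ### the mesh -/

section mesh

variable [NeZero n] {E : Type*} [NormedAddCommGroup E] [NormedSpace ℝ E]
variable {J : Type*} (M : MD E n J) {k : J → ℕ} (hk : M.Sc k) (a : Fin n → ℝ)
  {v : J → E} (hv : M.Adm v)

/-- **the true scale of a tile** -/
noncomputable def scl : {t // t ∉ cores M hk a hv} ⊕ CIx M → ℕ
  | Sum.inl ⟨Sum.inl p, _⟩ => p.1.par.1.1.k
  | Sum.inl ⟨Sum.inr ⟨j, i⟩, _⟩ => iscl (M.Bk v j) (k j) (hk.kc j) i.1
  | Sum.inr c => (M.Q c.1).kc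

/-- a tile is outer or lies in a block -/
theorem outer_or (t : {t // t ∉ cores M hk a hv} ⊕ CIx M) :
    (∃ p, ∃ h, t = Sum.inl ⟨Sum.inl p, h⟩) ∨ ∃ j, P ((meshS M hk a hv).H t) ⊆ (M.Bk v j).N := by
  rcases t with ⟨p | ⟨j, i⟩, ht⟩ | ⟨j, z⟩
  · exact Or.inl ⟨p, ht, rfl⟩
  · exact Or.inr ⟨j, i.2⟩
  · exact Or.inr ⟨j, fun x hx => Kc_sub_N _ (cubH_sub (M := M) (v := v) ⟨j, z⟩ hx)⟩

/-- an outer piece does not lie in a block -/
theorem not_outer {j : J} {p : M.OIx hk a hv} {h}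
    (hN : P ((meshS M hk a hv).H (Sum.inl ⟨Sum.inl p, h⟩)) ⊆ (M.Bk v j).N) : False := by
  obtain ⟨x, hx⟩ := (meshS M hk a hv).ne (Sum.inl ⟨Sum.inl p, h⟩)
  have h1 : I ((meshS M hk a hv).H (Sum.inl ⟨Sum.inl p, h⟩)) ⊆ (M.Bk v j).N :=
    fun y hy => hN (I_sub_P _ hy)
  have h2 : x ∈ interior (M.Bk v j).N := interior_maximal h1 (isOpen_I _) hx
  have h3 := M.outer_touch hk a hv p (x := x) (I_sub_P _ hx) (hN (I_sub_P _ hx))
  exact h3.2 h2

/-- the blocks are disjoint -/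
theorem same_block {j l : J} {x : E} (hj : x ∈ (M.Bk v j).N) (hl : x ∈ (M.Bk v l).N) (a : Fin n → ℝ)
    (hk : M.Sc k) (hv : M.Adm v) : j = l := by
  by_contra hne
  exact Set.disjoint_left.1 ((M.ad hk a hv).dis j l hne) hj hl

/-- **the scale function of the block at the points of a tile of the block** -/
theorem scl_K {j : J} {t : {t // t ∉ cores M hk a hv} ⊕ CIx M}
    (hN : P ((meshS M hk a hv).H t) ⊆ (M.Bk v j).N) {x : E}
    (hx : x ∈ P ((meshS M hk a hv).H t)) :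
    scl M hk a hv t ≤ K ((M.Bk v j).D (k j) (hk.kc j)) ((M.Q j).ψ x) ∧
      K ((M.Bk v j).D (k j) (hk.kc j)) ((M.Q j).ψ x) ≤ scl M hk a hv t + 1 := by
  rcases t with ⟨p | ⟨l, i⟩, ht⟩ | ⟨l, z⟩
  · exact (not_outer M hk a hv hN).elim
  · obtain rfl : l = j := same_block M (i.2 hx) (hN hx) a hk hv
    exact iscl_K (M.Bk v l) (k l) (hk.kc l) hx
  · have hx' : x ∈ (M.Bk v l).Kc := cubH_sub (M := M) (v := v) ⟨l, z⟩ hx
    obtain rfl : l = j := same_block M (Kc_sub_N _ hx') (hN hx) a hk hv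
    have h1 := K_Kc (M.Bk v l) (k l) (hk.kc l) hx'
    rw [show (M.Q l).ψ x = (M.Bk v l).ψ x from rfl, h1]
    exact ⟨le_rfl, Nat.le_succ _⟩

/-- the scale function of the outer mesh at the points of an outer piece -/
theorem scl_K_out {p : M.OIx hk a hv} {h} {x : E}
    (hx : x ∈ P ((meshS M hk a hv).H (Sum.inl ⟨Sum.inl p, h⟩))) :
    scl M hk a hv (Sum.inl ⟨Sum.inl p, h⟩) ≤ K (M.ad hk a hv).D (M.φ x) ∧
      K (M.ad hk a hv).D (M.φ x) ≤ scl M hk a hv (Sum.inl ⟨Sum.inl p, h⟩) + 1 := by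
  have hsub : P ((M.mesh hk a hv).H (Sum.inl p)) ⊆ P ((M.ad hk a hv).T0.H p.1.par) :=
    cut_tile_sub (hA := AF_ne) p.1
  have hx' : p.1.par ∈ (tiling M.φ (M.ad hk a hv).D).at_ x := hsub hx
  exact ⟨tile_k_le hx', K_le_succ (Msh_810.mem_at.1 hx')⟩

/-- **a tile which meets the wall of block `j` has scale `k j`** -/
theorem scl_wall {j : J} {t : {t // t ∉ cores M hk a hv} ⊕ CIx M} {x : E}
    (hx : x ∈ P ((meshS M hk a hv).H t)) (hf : x ∈ frontier (M.Bk v j).N) :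
    scl M hk a hv t = k j := by
  have hxN : x ∈ (M.Bk v j).N := (M.Bk v j).frontier_sub hf
  rcases t with ⟨p | ⟨l, i⟩, ht⟩ | ⟨l, z⟩
  · have hsub : P ((M.mesh hk a hv).H (Sum.inl p)) ⊆ P ((M.ad hk a hv).T0.H p.1.par) :=
      cut_tile_sub (hA := AF_ne) p.1
    exact zone_par M hk a hv hf (hsub hx)
  · obtain rfl : l = j := same_block M (i.2 hx) hxN a hk hv
    exact iscl_wall (M.Bk v l) (k l) (hk.kc l) hx hf
  · exfalso
    have hx' : x ∈ (M.Bk v l).Kc := cubH_sub (M := M) (v := v) ⟨l, z⟩ hx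
    obtain rfl : l = j := same_block M (Kc_sub_N _ hx') hxN a hk hv
    refine not_near_wall (M.Bk v l) (x := x) ?_ hf
    have := (M.Bk v l).near_of_bp (Kc_sub_bp _ hx')
    intro m
    have h := this m
    constructor <;> linarith [h.1, h.2]

/-- **(G3)** the scales of neighbours differ by at most one -/
theorem scl_nbr {t t' : {t // t ∉ cores M hk a hv} ⊕ CIx M}
    (h : (P ((meshS M hk a hv).H t) ∩ P ((meshS M hk a hv).H t')).Nonempty) :
    scl M hk a hv t' ≤ scl M hk a hv t + 1 := by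
  obtain ⟨x, hx, hx'⟩ := h
  rcases outer_or M hk a hv t with ⟨p, hp, rfl⟩ | ⟨j, hj⟩ <;>
    rcases outer_or M hk a hv t' with ⟨p', hp', rfl⟩ | ⟨j', hj'⟩
  · exact (scl_K_out M hk a hv hx').1.trans (scl_K_out M hk a hv hx).2
  · have hf := M.outer_touch hk a hv p hx (hj' hx')
    rw [scl_wall M hk a hv hx hf, scl_wall M hk a hv hx' hf]
    exact Nat.le_succ _
  · have hf := M.outer_touch hk a hv p' hx' (hj hx)
    rw [scl_wall M hk a hv hx hf, scl_wall M hk a hv hx' hf]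
    exact Nat.le_succ _
  · obtain rfl := same_block M (hj hx) (hj' hx') a hk hv
    exact (scl_K M hk a hv hj' hx').1.trans (scl_K M hk a hv hj hx).2

/-- a tile of block `j` has scale in `[kc, k j]` -/
theorem scl_mem {j : J} {t : {t // t ∉ cores M hk a hv} ⊕ CIx M}
    (hN : P ((meshS M hk a hv).H t) ⊆ (M.Bk v j).N) :
    (M.Q j).kc ≤ scl M hk a hv t ∧ scl M hk a hv t ≤ k j := by
  rcases t with ⟨p | ⟨l, i⟩, ht⟩ | ⟨l, z⟩
  · exact (not_outer M hk a hv hN).elim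
  · obtain ⟨x, hx⟩ := (meshS M hk a hv).ne (Sum.inl ⟨Sum.inr ⟨l, i⟩, ht⟩)
    have hx := I_sub_P _ hx
    obtain rfl : l = j := same_block M (i.2 hx) (hN hx) a hk hv
    exact ⟨kc_le_iscl (M.Bk v l) (k l) (hk.kc l) i.1, iscl_le (M.Bk v l) (k l) (hk.kc l) i.1⟩
  · obtain ⟨x, hx⟩ := (meshS M hk a hv).ne (Sum.inr ⟨l, z⟩)
    have hx := I_sub_P _ hx
    have hx' : x ∈ (M.Bk v l).Kc := cubH_sub (M := M) (v := v) ⟨l, z⟩ hx
    obtain rfl : l = j := same_block M (Kc_sub_N _ hx') (hN hx) a hk hv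
    exact ⟨le_rfl, hk.kc l⟩

/-- a tile of scale `< k j` does not meet the wall of block `j` -/
theorem off_wall {j : J} {t : {t // t ∉ cores M hk a hv} ⊕ CIx M}
    (h : scl M hk a hv t < k j) :
    Disjoint (P ((meshS M hk a hv).H t)) (frontier (M.Bk v j).N) := by
  rw [Set.disjoint_left]
  intro x hx hf
  have := scl_wall M hk a hv hx hf
  omega

/-- **the neighbours of a tile of block `j` of scale `< k j` lie in the block** -/
theorem nbr_in {j : J} {t t' : {t // t ∉ cores M hk a hv} ⊕ CIx M}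
    (hN : P ((meshS M hk a hv).H t) ⊆ (M.Bk v j).N) (h : scl M hk a hv t < k j)
    (ht : (P ((meshS M hk a hv).H t) ∩ P ((meshS M hk a hv).H t')).Nonempty) :
    P ((meshS M hk a hv).H t') ⊆ (M.Bk v j).N := by
  obtain ⟨x, hx, hx'⟩ := ht
  rcases outer_or M hk a hv t' with ⟨p', hp', rfl⟩ | ⟨j', hj'⟩
  · have hf := M.outer_touch hk a hv p' hx' (hN hx)
    have := scl_wall M hk a hv hx hf
    omega
  · obtain rfl := same_block M (hN hx) (hj' hx') a hk hv
    exact hj'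

/-- **(G4), inner tiles** : a tile of block `j` with scale `> kc` is near the wall -/
theorem near_wall_scl {j : J} {t : {t // t ∉ cores M hk a hv} ⊕ CIx M}
    (hN : P ((meshS M hk a hv).H t) ⊆ (M.Bk v j).N) (h : (M.Q j).kc < scl M hk a hv t) {y : E}
    (hy : y ∈ P ((meshS M hk a hv).H t)) :
    ∃ z ∈ frontier (M.Bk v j).N, ‖(M.Q j).ψ y - (M.Q j).ψ z‖ ≤ 14 / 2 ^ scl M hk a hv t := by
  have h1 := (scl_K M hk a hv hN hy).1
  have h2 : (M.Bk v j).kc < K ((M.Bk v j).D (k j) (hk.kc j)) ((M.Q j).ψ y) := lt_of_lt_of_le h h1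
  have h3 := infDist_of_K (M.Bk v j) (k j) (hk.kc j) h2
  refine exists_wall (M.Bk v j) (h3.le.trans ?_)
  exact div_le_div_of_nonneg_left (by norm_num) (by positivity)
    (pow_le_pow_right₀ (by norm_num) h1)

/-- **(G4), inner tiles, with `K`** -/
theorem near_wall {j : J} {t : {t // t ∉ cores M hk a hv} ⊕ CIx M} {K0 : ℕ}
    (hN : P ((meshS M hk a hv).H t) ⊆ (M.Bk v j).N) (h : k j ≤ scl M hk a hv t + K0)
    (hK : (M.Q j).kc + K0 < k j) {y : E} (hy : y ∈ P ((meshS M hk a hv).H t)) :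
    ∃ z ∈ frontier (M.Bk v j).N, ‖(M.Q j).ψ y - (M.Q j).ψ z‖ ≤ 14 * 2 ^ K0 / 2 ^ k j := by
  obtain ⟨z, hz, h1⟩ := near_wall_scl M hk a hv hN (by omega) hy
  refine ⟨z, hz, h1.trans ?_⟩
  rw [div_le_div_iff₀ (by positivity) (by positivity)]
  have h2 : (2:ℝ) ^ k j ≤ 2 ^ scl M hk a hv t * 2 ^ K0 := by
    rw [← pow_add]
    exact pow_le_pow_right₀ (by norm_num) h
  calc (14:ℝ) * 2 ^ k j ≤ 14 * (2 ^ scl M hk a hv t * 2 ^ K0) := by gcongr
    _ = 14 * 2 ^ K0 * 2 ^ scl M hk a hv t := by ring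

/-- **(G4), outer pieces** which meet the block -/
theorem near_wall_out {j : J} {p : M.OIx hk a hv} {h}
    (hN : (P ((meshS M hk a hv).H (Sum.inl ⟨Sum.inl p, h⟩)) ∩ (M.Bk v j).N).Nonempty) {y : E}
    (hy : y ∈ P ((meshS M hk a hv).H (Sum.inl ⟨Sum.inl p, h⟩))) :
    ∃ z ∈ frontier (M.Bk v j).N, z ∈ P ((meshS M hk a hv).H (Sum.inl ⟨Sum.inl p, h⟩)) ∧
      ‖M.φ y - M.φ z‖ ≤ 1 / 2 ^ k j := by
  obtain ⟨z, hz, hzN⟩ := hN
  have hf := M.outer_touch hk a hv p hz hzN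
  have hsub : P ((M.mesh hk a hv).H (Sum.inl p)) ⊆ P ((M.ad hk a hv).T0.H p.1.par) :=
    cut_tile_sub (hA := AF_ne) p.1
  have hkp : p.1.par.1.1.k = k j := zone_par M hk a hv hf (hsub hz)
  have h1 := dist_cube ((AD.tile_T0 (M := M.ad hk a hv) _).1 (hsub hy))
    ((AD.tile_T0 (M := M.ad hk a hv) _).1 (hsub hz))
  rw [hkp, dist_eq_norm] at h1
  exact ⟨z, hf, hz, h1⟩

end mesh

end Crest.Agent.R096.Gsc_476
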