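import Crest.Agent.R096.Lm3_812
import Crest.Agent.R096.Agl2_543

/-!
# The local move in a tiling, part 2 (helper812, row 96, 2SK)

`exists_codim_one`: a point of the mesh which is not inside a tile lies in a closed cell of
codimension one.  `tiling_move`, `mesh_of_tiling`: the instance of `Srg_465.Mesh`.
-/

set_option autoImplicit false

namespace Crest.Agent.R096.Lm_812

open Set Metric MeasureTheory Crest.Agent.R096.Pl Crest.Agent.R096.Ce_537 Crest.Agent.R096.Msh_715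

section Cod

variable {E : Type*} [NormedAddCommGroup E] [NormedSpace ℝ E] [FiniteDimensional ℝ E]

/-- finitely many proper subspaces (translated) do not cover an open set -/
theorem exists_notMem_affine {J : Type*} {s : Set J} (hs : s.Finite) (c : J → E)
    (W : J → Submodule ℝ E) (hW : ∀ j ∈ s, Module.finrank ℝ (W j) < Module.finrank ℝ E)
    {O : Set E} (hO : IsOpen O) (hne : O.Nonempty) :
    ∃ z ∈ O, ∀ j ∈ s, z - c j ∉ W j := by
  let _ : MeasurableSpace E := borel E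
  have : BorelSpace E := ⟨rfl⟩
  have h0 : ∀ j ∈ s, (Measure.addHaar : Measure E) {z | z - c j ∈ W j} = 0 := by
    intro j hj
    have hne : AffineSubspace.mk' (c j) (W j) ≠ ⊤ := by
      intro h
      have h1 : (AffineSubspace.mk' (c j) (W j)).direction = ⊤ := by
        rw [h]; exact AffineSubspace.direction_top ℝ E E
      rw [AffineSubspace.direction_mk'] at h1
      have := hW j hj
      rw [h1, finrank_top] at this
      exact lt_irrefl _ this
    have h2 := Measure.addHaar_affineSubspace (Measure.addHaar : Measure E) _ hne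
    convert h2 using 2
    ext z
    simp [AffineSubspace.mem_mk', vsub_eq_sub]
  have h1 : (Measure.addHaar : Measure E) (⋃ j ∈ s, {z | z - c j ∈ W j}) = 0 :=
    (measure_biUnion_null_iff hs.countable).2 h0
  have h2 : 0 < (Measure.addHaar : Measure E) O := hO.measure_pos _ hne
  by_contra hcon
  push Not at hcon
  have : O ⊆ ⋃ j ∈ s, {z | z - c j ∈ W j} := by
    intro z hz
    obtain ⟨j, hj, hzj⟩ := hcon z hz
    exact mem_biUnion hj hzj
  exact absurd (measure_mono_null this h1) h2.ne'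

variable {Om : Set E} {ι : Type*} (T : Tiling Om ι)

/-- a point which is not inside a tile lies in a closed cell of codimension one -/
theorem exists_codim_one {p : E} (hp : p ∈ Om) (hd : T.dim p < Module.finrank ℝ E) :
    ∃ x ∈ Om, T.dim x + 1 = Module.finrank ℝ E ∧ p ∈ T.cc x := by
  classical
  obtain ⟨r, hr, hO, hb⟩ := Agl2_543.good_ball T hp
  obtain ⟨r', hr', hfin⟩ := T.lf_cells hp
  by_contra hcon
  push Not at hcon
  set ρ := min r r' with hρ
  have hρ0 : 0 < ρ := lt_min hr hr'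
  have hdim : ∀ y ∈ ball p ρ, T.dim y + 1 < Module.finrank ℝ E ∨ ∃ i, y ∈ I (T.H i) := by
    intro y hy
    have hyr : y ∈ ball p r := ball_subset_ball (min_le_left _ _) hy
    have hyO := hO hyr
    have h1 := T.dim_le_finrank y
    have h2 := hcon y hyO
    by_cases h3 : T.dim y = Module.finrank ℝ E
    · right
      exact (T.V_eq_top_iff hyO).1 (Submodule.eq_top_of_finrank_eq h3)
    · left
      have h4 : T.dim y + 1 ≠ Module.finrank ℝ E := fun h5 =>
        h2 h5 (Agl2_543.mem_cc_of_good T hb hyr)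
      omega
  -- the low dimensional cells near `p`
  set s : Set (Set E) := {c | (∃ z ∈ Om, c = T.cc z) ∧ (c ∩ ball p r').Nonempty ∧
    ∃ z ∈ Om, c = T.cc z ∧ T.dim z + 1 < Module.finrank ℝ E} with hs
  have hsfin : s.Finite := hfin.subset fun c hc => ⟨hc.1, hc.2.1⟩
  choose! z hzO hzc hzd using fun (c : Set E) (hc : c ∈ s) => hc.2.2
  have hlow : ∀ y ∈ ball p ρ, T.dim y + 1 < Module.finrank ℝ E →
      T.cc y ∈ s ∧ y - z (T.cc y) ∈ T.V (z (T.cc y)) := by
    intro y hy h1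
    have hyO := hO (ball_subset_ball (min_le_left _ _) hy)
    have h2 : T.cc y ∈ s := ⟨⟨y, hyO, rfl⟩,
      ⟨y, T.self_mem_cc y, ball_subset_ball (min_le_right _ _) hy⟩, y, hyO, rfl, h1⟩
    refine ⟨h2, T.sub_mem_V ?_⟩
    rw [← hzc _ h2]; exact T.self_mem_cc y
  -- a tile through `p`
  obtain ⟨q, hq⟩ := T.at_nonempty hp
  have hpq : p ∉ I (T.H q) := Agl2_543.notMem_I_of_dim T hp hd q
  obtain ⟨z0, hz0⟩ := T.ne q
  -- a point of the ball outside the tile, off the low dimensional cells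
  obtain ⟨h, hh, hhp⟩ : ∃ h ∈ T.H q, h.1 p = h.2 := by
    by_contra hc
    push Not at hc
    exact hpq fun h hh => lt_of_le_of_ne (hq h hh) (hc h hh)
  have hv : h.1 (z0 - p) < 0 := by
    have := hz0 h hh
    rw [map_sub, hhp]; linarith
  have hsmall : ∀ v : E, ∃ t : ℝ, 0 < t ∧ p + t • v ∈ ball p ρ := by
    intro v
    refine ⟨ρ / (2 * (‖v‖ + 1)), by positivity, ?_⟩
    rw [mem_ball, dist_eq_norm, add_sub_cancel_left, norm_smul, Real.norm_eq_abs,
      abs_of_pos (by positivity)]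
    have h1 : 0 < ‖v‖ + 1 := by positivity
    calc ρ / (2 * (‖v‖ + 1)) * ‖v‖ ≤ ρ / (2 * (‖v‖ + 1)) * (‖v‖ + 1) := by gcongr; linarith
      _ = ρ / 2 := by field_simp
      _ < ρ := by linarith
  have hO1 : IsOpen (ball p ρ ∩ {y | h.2 < h.1 y}) :=
    isOpen_ball.inter (isOpen_lt continuous_const h.1.continuous)
  have hne1 : (ball p ρ ∩ {y | h.2 < h.1 y}).Nonempty := by
    obtain ⟨t, ht, hb'⟩ := hsmall (-(z0 - p))
    refine ⟨_, hb', ?_⟩
    show h.2 < h.1 (p + t • -(z0 - p))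
    rw [map_add, map_smul, map_neg, hhp, smul_eq_mul]
    nlinarith
  obtain ⟨z1, ⟨hz1b, hz1h⟩, hz1⟩ := exists_notMem_affine hsfin z (fun c => T.V (z c))
    (fun c hc => by have := hzd c hc; show T.dim (z c) < _; omega) hO1 hne1
  have hO2 : IsOpen (ball p ρ ∩ I (T.H q)) := isOpen_ball.inter (isOpen_I _)
  have hne2 : (ball p ρ ∩ I (T.H q)).Nonempty := by
    obtain ⟨t, ht, hb'⟩ := hsmall (z0 - p)
    have hmin : 0 < min t 1 := lt_min ht one_pos
    refine ⟨p + min t 1 • (z0 - p), ?_, ?_⟩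
    · rw [mem_ball, dist_eq_norm, add_sub_cancel_left, norm_smul, Real.norm_eq_abs,
        abs_of_pos hmin]
      rw [mem_ball, dist_eq_norm, add_sub_cancel_left, norm_smul, Real.norm_eq_abs,
        abs_of_pos ht] at hb'
      exact (mul_le_mul_of_nonneg_right (min_le_left _ _) (norm_nonneg _)).trans_lt hb'
    · intro k hk
      have h1 := hz0 k hk
      have h2 := hq k hk
      rw [map_add, map_smul, map_sub, smul_eq_mul]
      have h3 : min t 1 ≤ 1 := min_le_right _ _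
      nlinarith
  obtain ⟨z2, ⟨hz2b, hz2I⟩, hz2⟩ := exists_notMem_affine hsfin (fun _ => z1)
    (fun c => T.V (z c) ⊔ Submodule.span ℝ {z c - z1})
    (fun c hc => by
      have h1 := Submodule.finrank_add_le_finrank_add_finrank (T.V (z c))
        (Submodule.span ℝ {z c - z1})
      have h2 := finrank_span_le_card (R := ℝ) ({z c - z1} : Set E)
      have h3 := hzd c hc
      simp only [toFinset_singleton, Finset.card_singleton] at h2
      show Module.finrank ℝ ↥(T.V (z c) ⊔ Submodule.span ℝ {z c - z1}) < _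
      have h4 : Module.finrank ℝ (T.V (z c)) = T.dim (z c) := rfl
      omega) hO2 hne2
  -- the segment
  have hseg : ∀ y ∈ segment ℝ z1 z2, ∃ i, y ∈ I (T.H i) := by
    intro y hy
    have hyb : y ∈ ball p ρ := (convex_ball p ρ).segment_subset hz1b hz2b hy
    rcases hdim y hyb with h1 | h1
    · exfalso
      obtain ⟨h2, h3⟩ := hlow y hyb h1
      rw [segment_eq_image_lineMap] at hy
      obtain ⟨t, ⟨ht0, ht1⟩, rfl⟩ := hy
      rw [AffineMap.lineMap_apply_module'] at h2 h3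
      set y := t • (z2 - z1) + z1 with hyd
      rcases ht0.eq_or_lt with h4 | h4
      · rw [← h4, zero_smul, zero_add] at hyd
        rw [hyd] at h2 h3
        exact hz1 _ h2 h3
      · apply hz2 _ h2
        have h5 : z2 - z1 = t⁻¹ • (y - z (T.cc y)) + t⁻¹ • (z (T.cc y) - z1) := by
          rw [← smul_add, sub_add_sub_cancel, hyd, add_sub_cancel_right, smul_smul,
            inv_mul_cancel₀ h4.ne', one_smul]
        rw [h5]
        exact Submodule.add_mem _ (Submodule.mem_sup_left (Submodule.smul_mem _ _ h3))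
          (Submodule.mem_sup_right (Submodule.smul_mem _ _ (Submodule.mem_span_singleton_self _)))
    · exact h1
  have hpre : IsPreconnected (segment ℝ z1 z2) := (convex_segment z1 z2).isPreconnected
  have hsub : segment ℝ z1 z2 ⊆ I (T.H q) := by
    refine hpre.subset_left_of_subset_union (isOpen_I (T.H q))
      (isOpen_iUnion fun j : {j // j ≠ q} => isOpen_I (T.H j)) ?_ ?_
      ⟨z2, right_mem_segment ℝ z1 z2, hz2I⟩
    · rw [disjoint_iUnion_right]
      exact fun j => T.dis q j (Ne.symm j.2)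
    · intro y hy
      obtain ⟨j, hj⟩ := hseg y hy
      by_cases hjq : j = q
      · left; rw [← hjq]; exact hj
      · right; exact mem_iUnion.2 ⟨⟨j, hjq⟩, hj⟩
  have h9 := (hsub (left_mem_segment ℝ z1 z2)) h hh
  exact absurd h9 (not_lt.2 (le_of_lt hz1h))

end Cod

section Tiling

variable {E : Type*} [NormedAddCommGroup E] [NormedSpace ℝ E] [FiniteDimensional ℝ E]
  {Om : Set E} {ι : Type*} (T : Tiling Om ι)

open Sk2_855 (sk1)
open Srg_465 (MvS Mesh)

/-- the mesh off the faces, plus one open face, is open -/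
theorem isOpen_star (h3 : Module.finrank ℝ E = 3) {x : E} (hx : x ∈ Om) (hd : T.dim x = 2) :
    IsOpen {y | y ∈ Om ∧ (T.dim y = 3 ∨ y ∈ T.oc x)} := by
  rw [isOpen_iff]
  rintro p ⟨hp, hpx⟩
  obtain ⟨r, hr, hO, hb⟩ := Agl2_543.good_ball T hp
  refine ⟨r, hr, fun y hy => ?_⟩
  have hyO := hO hy
  have hpy := Agl2_543.mem_cc_of_good T hb hy
  have h1 := T.dim_le_finrank y
  rw [h3] at h1
  refine ⟨hyO, ?_⟩
  rcases hpx with h2 | h2
  · left
    have := T.dim_le hpy
    omega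
  · have h4 : T.dim p = 2 := by rw [T.dim_eq_of_mem_oc hx h2, hd]
    by_cases h5 : p ∈ T.oc y
    · right
      have e1 := T.oc_eq_of_mem hyO h5
      have e2 := T.oc_eq_of_mem hx h2
      rw [← e2, e1]; exact T.self_mem_oc y
    · left
      have := T.dim_lt hpy h5
      omega

theorem frontier_of_dim {x : E} (hx : x ∈ Om) (hd : T.dim x < Module.finrank ℝ E) {i : ι}
    (hi : i ∈ T.at_ x) : T.cc x ⊆ frontier (P (T.H i)) := by
  intro y hy
  have hyP : y ∈ P (T.H i) := T.cc_sub_tile hi hy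
  refine ⟨subset_closure hyP, fun hint => ?_⟩
  have hyd : T.dim y < Module.finrank ℝ E := (T.dim_le hy).trans_lt hd
  have hyI : y ∉ I (T.H i) := Agl2_543.notMem_I_of_dim T (T.cc_sub_Om hx hy) hyd i
  obtain ⟨h, hh, hhy⟩ : ∃ h ∈ T.H i, h.1 y = h.2 := by
    by_contra hc
    push Not at hc
    exact hyI fun h hh => lt_of_le_of_ne (hyP h hh) (hc h hh)
  obtain ⟨z, hz⟩ := T.ne i
  obtain ⟨ρ, hρ, hb⟩ := Metric.isOpen_iff.1 isOpen_interior y hint
  have hmem : y + (ρ / (2 * (‖y - z‖ + 1))) • (y - z) ∈ ball y ρ := by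
    rw [mem_ball, dist_eq_norm, add_sub_cancel_left, norm_smul, Real.norm_eq_abs,
      abs_of_pos (by positivity)]
    have h1 : 0 < ‖y - z‖ + 1 := by positivity
    calc ρ / (2 * (‖y - z‖ + 1)) * ‖y - z‖ ≤ ρ / (2 * (‖y - z‖ + 1)) * (‖y - z‖ + 1) := by
          gcongr; linarith
      _ = ρ / 2 := by field_simp
      _ < ρ := by linarith
  have h2 := (interior_subset (hb hmem)) h hh
  rw [map_add, map_smul, map_sub, hhy, smul_eq_mul] at h2
  have h4 := hz h hh
  have h5 : 0 < ρ / (2 * (‖y - z‖ + 1)) := by positivity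
  nlinarith

theorem interior_P (i : ι) : interior (P (T.H i)) = I (T.H i) := by
  apply Subset.antisymm
  · intro y hy
    have hyP := interior_subset hy
    by_contra hyI
    have hyO : y ∈ Om := T.sub i hyP
    have h1 : T.dim y < Module.finrank ℝ E := Agl2_543.dim_lt_finrank T hyO (i := i) hyP hyI
    exact (frontier_of_dim T hyO h1 (i := i) hyP (T.self_mem_cc y)).2 hy
  · exact interior_maximal (I_sub_P _) (isOpen_I _)

/-- **the local move in a tiling**, the identity near the other faces -/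
theorem tiling_move (h3 : Module.finrank ℝ E = 3)
    (hP2 : ∀ A B Γ : Set ((ℝ × ℝ) × ℝ), IsBall 2 A Γ → IsBall 2 B Γ → A ∩ B = Γ → StdS A B)
    {x : E} (hx : x ∈ Om) (hd : T.dim x = 2) {Fc D Γ O : Set E} (hFc : IsBall 2 Fc Γ)
    (hsub : Fc ⊆ T.cc x \ sk1 T) (hO : IsOpen O) (hOF : O ∩ T.cc x = Fc \ Γ)
    (hD : IsBall 2 D Γ) (hDO : D ⊆ Om)
    (hdis : ∀ y ∈ Om, T.dim y = 2 → Disjoint (D \ Γ) (T.cc y)) :
    ∃ ψ : E ≃ₜ E, MvS Om (sk1 T) ψ ∧
      (∀ y ∈ Om, T.dim y = 2 → T.cc y ≠ T.cc x → ∀ z ∈ T.cc y, ∀ᶠ w in nhds z, ψ w = w) ∧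
      (∀ z ∈ T.cc x \ Fc, ∀ᶠ w in nhds z, ψ w = w) ∧ ψ '' Fc = D := by
  have hoc : Fc ⊆ T.oc x := by
    intro z hz
    by_contra hn
    have h1 := hsub hz
    have h2 := T.dim_lt h1.1 hn
    exact h1.2 ⟨T.cc_sub_Om hx h1.1, by omega⟩
  have hcover : D \ Γ ⊆ ⋃ i, I (T.H i) := by
    rintro y ⟨hyD, hyΓ⟩
    have hyO := hDO hyD
    by_contra hn
    have h1 : T.dim y < Module.finrank ℝ E := by
      refine lt_of_le_of_ne (T.dim_le_finrank y) fun e => hn ?_
      obtain ⟨i, hi⟩ := (T.V_eq_top_iff hyO).1 (Submodule.eq_top_of_finrank_eq e)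
      exact mem_iUnion.2 ⟨i, hi⟩
    obtain ⟨x', hx', hd', hy'⟩ := exists_codim_one T hyO h1
    exact disjoint_left.1 (hdis x' hx' (by omega)) ⟨hyD, hyΓ⟩ hy'
  obtain ⟨i, hDi, hDcl⟩ := exists_cell hD (fun i => isOpen_I (T.H i)) (fun i j => T.dis i j) hcover
  have hDP : D ⊆ P (T.H i) := hDcl.trans (closure_minimal (I_sub_P _) (isClosed_P _))
  -- the rim is not empty
  obtain ⟨γ, hγ⟩ : Γ.Nonempty := (Pb_812.isConnected_rim le_rfl hD).nonempty
  have hγx : γ ∈ T.oc x := hoc (hFc.subset hγ)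
  have hix : i ∈ T.at_ x := by
    rw [← T.at_eq_of_mem_oc hx hγx]; exact hDP (hD.subset hγ)
  set U : Set E := {y | y ∈ Om ∧ (T.dim y = 3 ∨ y ∈ T.oc x)} with hU
  have hUO : IsOpen U := isOpen_star T h3 hx hd
  have hIU : interior (P (T.H i)) ⊆ U := by
    rw [interior_P]
    intro y hy
    refine ⟨T.sub i (I_sub_P _ hy), Or.inl ?_⟩
    have h1 := (T.V_eq_top_iff (T.sub i (I_sub_P _ hy))).2 ⟨i, hy⟩
    show Module.finrank ℝ (T.V y) = 3
    rw [h1, finrank_top, h3]
  obtain ⟨ψ, h1, ⟨C, hCU, hC, hCψ⟩, h2, h4⟩ := disc_move_E h3 hP2 (P := P (T.H i))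
    (Q := T.cc x) (convex_P _) (isClosed_P _) (vp_cc T hx)
    (frontier_of_dim T hx (by omega) hix) (hsub.trans sdiff_subset) ⟨O, hO, hOF⟩ hFc hD
    (by rw [interior_P]; exact hDi) hUO hIU (fun z hz => ⟨T.cc_sub_Om hx (hsub hz).1, Or.inr (hoc hz)⟩)
  refine ⟨ψ, ⟨h1, C, hC, hCU.trans fun y hy => hy.1, ?_, hCψ⟩, ?_, h2, h4⟩
  · rw [disjoint_left]
    rintro y hyC ⟨-, hy⟩
    rcases (hCU hyC).2 with h5 | h5
    · omega
    · rw [T.dim_eq_of_mem_oc hx h5] at hy; omega
  · intro y hy hyd hne z hz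
    have hzU : z ∉ U := by
      rintro ⟨hzO, h5 | h5⟩
      · have := T.dim_le hz; omega
      · by_cases h6 : z ∈ T.oc y
        · apply hne
          rw [← T.cc_eq_of_mem_oc hy h6, T.cc_eq_of_mem_oc hx h5]
        · have h7 := T.dim_lt hz h6
          rw [T.dim_eq_of_mem_oc hx h5] at h7
          omega
    have hzC : z ∈ Cᶜ := fun h => hzU (hCU h)
    filter_upwards [hC.isClosed.isOpen_compl.mem_nhds hzC] with w hw
    exact hCψ w hw

/-- the closed 2-cells -/
def FaceT (T : Tiling Om ι) : Type _ := {c : Set E // ∃ x ∈ Om, T.dim x = 2 ∧ c = T.cc x}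

theorem face_meet {k k' : FaceT T} (h : k ≠ k') : k.1 ∩ k'.1 ⊆ sk1 T := by
  obtain ⟨c, x, hx, hd, rfl⟩ := k
  obtain ⟨c', x', hx', hd', rfl⟩ := k'
  rintro y ⟨hy, hy'⟩
  refine ⟨T.cc_sub_Om hx hy, ?_⟩
  by_contra hn
  have h1 : y ∈ T.oc x := by
    by_contra h2; have := T.dim_lt hy h2; omega
  have h2 : y ∈ T.oc x' := by
    by_contra h2; have := T.dim_lt hy' h2; omega
  apply h
  apply Subtype.ext
  show T.cc x = T.cc x'
  rw [← T.cc_eq_of_mem_oc hx h1, T.cc_eq_of_mem_oc hx' h2]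

/-- **the local move for the family of the closed 2-cells, near version** -/
theorem mesh_move_near (h3 : Module.finrank ℝ E = 3)
    (hP2 : ∀ A B Γ : Set ((ℝ × ℝ) × ℝ), IsBall 2 A Γ → IsBall 2 B Γ → A ∩ B = Γ → StdS A B)
    (k : FaceT T) (Fc D Γ O : Set E) (hFc : IsBall 2 Fc Γ) (hsub : Fc ⊆ k.1 \ sk1 T)
    (hO : IsOpen O) (hOF : O ∩ k.1 = Fc \ Γ) (hD : IsBall 2 D Γ) (hDO : D ⊆ Om)
    (hdis : ∀ k' : FaceT T, Disjoint (D \ Γ) k'.1) :
    ∃ ψ : E ≃ₜ E, MvS Om (sk1 T) ψ ∧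
      (∀ k' : FaceT T, k' ≠ k → ∀ z ∈ k'.1, ∀ᶠ w in nhds z, ψ w = w) ∧
      (∀ z ∈ k.1 \ Fc, ∀ᶠ w in nhds z, ψ w = w) ∧ ψ '' Fc = D := by
  obtain ⟨c, x, hx, hd, rfl⟩ := k
  obtain ⟨ψ, h1, h2, h4, h5⟩ := tiling_move T h3 hP2 hx hd hFc hsub hO hOF hD hDO
    (fun y hy hyd => hdis ⟨T.cc y, y, hy, hyd, rfl⟩)
  refine ⟨ψ, h1, ?_, h4, h5⟩
  rintro ⟨c', y, hy, hyd, rfl⟩ hne
  exact h2 y hy hyd fun e => hne (Subtype.ext e)

/-- **the instance of `Mesh`** -/
theorem mesh_of_tiling (h3 : Module.finrank ℝ E = 3)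
    (hP2 : ∀ A B Γ : Set ((ℝ × ℝ) × ℝ), IsBall 2 A Γ → IsBall 2 B Γ → A ∩ B = Γ → StdS A B) :
    Mesh Om (sk1 T) (fun k : FaceT T => k.1) where
  comp := by
    rintro ⟨c, x, hx, hd, rfl⟩
    exact T.isCompact_cc hx
  sub := by
    rintro ⟨c, x, hx, hd, rfl⟩
    exact T.cc_sub_Om hx
  meet := fun k k' h => face_meet T h
  move := mesh_move_near T h3 hP2

end Tiling

end Crest.Agent.R096.Lm_812
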