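import Crest.Agent.R096.Gau2_812
import Crest.Agent.R096.Mal5_874
import Crest.Agent.R096.Lm4_812

/-!
# Row 96 (S0127), 2SK for tiles (helper812): GAPSIM

For a finite list of shapes the gap between a tile and the cells which do not meet it, the inradius
and the number of crossing edges are uniform.
-/

set_option autoImplicit false
set_option linter.unusedSectionVars false

open Set Metric Topology

namespace Crest.Agent.R096.Sk3_812

open Crest.Agent.R096.Msh_715
open Crest.Agent.R096.Ce_537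
open Crest.Agent.R096.Sk2_855
open Crest.Agent.R096.Ub_113
open Crest.Agent.R096.Sk3_270 (One exists_min)
open Crest.Agent.R096.Mal_874

/-! ### set level -/

section sets

variable {F : Type*} [NormedAddCommGroup F] [NormedSpace ℝ F]

theorem pair_gap {K L : Set F} {c : F} (hc : c ∈ K) (hK : IsCompact K) (hKc : Convex ℝ K)
    (hL : IsCompact L) (hd : Disjoint K L) :
    ∃ β > 0, ∀ z ∈ L, ∀ t : ℝ, 0 < t → t < 1 + 4 * β → c + t⁻¹ • (z - c) ∉ K := by
  obtain ⟨δ, hδ, hdis⟩ := hd.exists_thickenings hK hL.isClosed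
  obtain ⟨D, hD⟩ := hK.isBounded.subset_closedBall c
  set D' := max D 1 with hD'
  have hD'p : 0 < D' := by positivity
  refine ⟨δ / (4 * D'), by positivity, fun z hz t ht0 ht hw => ?_⟩
  set w := c + t⁻¹ • (z - c) with hwdef
  have hzw : z = c + t • (w - c) := by
    rw [hwdef, add_sub_cancel_left, smul_smul, mul_inv_cancel₀ ht0.ne', one_smul]
    abel
  rcases le_or_gt t 1 with h1 | h1
  · have hzK : z ∈ K := by
      rw [hzw]
      exact hKc.add_smul_sub_mem hc hw ⟨ht0.le, h1⟩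
    exact Set.disjoint_left.1 hd hzK hz
  · have e : z - w = (t - 1) • (w - c) := by
      have e1 : z - w = (c + t • (w - c)) - w := by rw [← hzw]
      rw [e1, sub_smul, one_smul]
      abel
    have h2 : ‖w - c‖ ≤ D' := by
      have := hD hw
      rw [mem_closedBall, dist_eq_norm] at this
      exact this.trans (le_max_left _ _)
    have h3 : ‖z - w‖ < δ := by
      rw [e, norm_smul, Real.norm_eq_abs, abs_of_pos (by linarith)]
      have h4 : 4 * (δ / (4 * D')) * D' = δ := by field_simp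
      calc (t - 1) * ‖w - c‖ ≤ (t - 1) * D' := mul_le_mul_of_nonneg_left h2 (by linarith)
        _ < (4 * (δ / (4 * D'))) * D' := mul_lt_mul_of_pos_right (by linarith) hD'p
        _ = δ := h4
    refine Set.disjoint_left.1 hdis (?_ : z ∈ thickening δ K) (self_subset_thickening hδ L hz)
    rw [mem_thickening_iff]
    exact ⟨w, hw, by rw [dist_eq_norm]; exact h3⟩

open Classical in
/-- the centre -/
noncomputable def ctr (K : Set F) : F := if h : (interior K).Nonempty then h.some else 0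

theorem ctr_mem {K : Set F} (h : (interior K).Nonempty) : ctr K ∈ interior K := by
  unfold ctr
  rw [dif_pos h]
  exact h.some_mem

/-- **uniform gap for a finite list of shapes** -/
theorem list_gap {𝓕 : Set (Set F)} (hF : 𝓕.Finite) : ∃ β > 0, ∃ r > 0, ∀ K ∈ 𝓕, IsCompact K →
    Convex ℝ K → (interior K).Nonempty → closedBall (ctr K) r ⊆ K ∧
      ∀ L ∈ 𝓕, IsCompact L → Disjoint K L → ∀ z ∈ L, ∀ t : ℝ, 0 < t → t < 1 + 4 * β →
        ctr K + t⁻¹ • (z - ctr K) ∉ K := by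
  have := hF.to_subtype
  have h1 : ∀ p : 𝓕 × 𝓕, ∃ β > 0, IsCompact p.1.1 → Convex ℝ p.1.1 → (interior p.1.1).Nonempty →
      IsCompact p.2.1 → Disjoint p.1.1 p.2.1 → ∀ z ∈ p.2.1, ∀ t : ℝ, 0 < t → t < 1 + 4 * β →
        ctr p.1.1 + t⁻¹ • (z - ctr p.1.1) ∉ p.1.1 := by
    rintro ⟨⟨K, _⟩, ⟨L, _⟩⟩
    by_cases h : IsCompact K ∧ Convex ℝ K ∧ (interior K).Nonempty ∧ IsCompact L ∧ Disjoint K L
    · obtain ⟨β, h2, h3⟩ := pair_gap (interior_subset (ctr_mem h.2.2.1)) h.1 h.2.1 h.2.2.2.1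
        h.2.2.2.2
      exact ⟨β, h2, fun _ _ _ _ _ => h3⟩
    · exact ⟨1, one_pos, fun a b c d e => absurd ⟨a, b, c, d, e⟩ h⟩
  choose v hv hv' using h1
  obtain ⟨β, h2, h3⟩ := exists_min v hv
  have h4 : ∀ K : 𝓕, ∃ r > 0, (interior K.1).Nonempty → closedBall (ctr K.1) r ⊆ K.1 := by
    rintro ⟨K, _⟩
    by_cases h : (interior K).Nonempty
    · obtain ⟨r, hr, h5⟩ := Metric.nhds_basis_closedBall.mem_iff.1
        (mem_interior_iff_mem_nhds.1 (ctr_mem h))
      exact ⟨r, hr, fun _ => h5⟩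
    · exact ⟨1, one_pos, fun h' => absurd h' h⟩
  choose w hw hw' using h4
  obtain ⟨r, h5, h6⟩ := exists_min w hw
  refine ⟨β, h2, r, h5, fun K hK a b c => ⟨?_, fun L hL d e z hz t ht0 ht => ?_⟩⟩
  · exact (closedBall_subset_closedBall (h6 ⟨K, hK⟩)).trans (hw' ⟨K, hK⟩ c)
  · exact hv' (⟨K, hK⟩, ⟨L, hL⟩) a b c d e z hz t ht0
      (lt_of_lt_of_le ht (by linarith [h3 (⟨K, hK⟩, ⟨L, hL⟩)]))

end sets

/-! ### the star of a tile -/

section star

variable {E : Type} [NormedAddCommGroup E] [NormedSpace ℝ E] [FiniteDimensional ℝ E]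
  {Om : Set E} {ι : Type*} (T : Tiling Om ι) (i : ι)

/-- the point lies in a tile which meets the tile `i` -/
def Star (y : E) : Prop := ∃ l, y ∈ P (T.H l) ∧ (P (T.H l) ∩ P (T.H i)).Nonempty

/-- the gap for the cells of the star is a gap for all points -/
theorem gap_of_star {hne : (T.H i).Nonempty} {c : E} (hc : c ∈ I (T.H i)) {g : ℝ}
    (hstar : ∀ y, Star T i y → Disjoint (T.cc y) (P (T.H i)) →
      g ≤ ug (T.H i) hne c (AffineEquiv.refl ℝ E) y) (hg : 0 ≤ g)
    {x : E} (hx2 : x ∈ Om → Disjoint (T.cc x) (P (T.H i))) :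
    g ≤ ug (T.H i) hne c (AffineEquiv.refl ℝ E) x := by
  set S : Set E := ⋃ l ∈ {l | (P (T.H l) ∩ P (T.H i)).Nonempty}, P (T.H l) with hS
  have hfin := T.finite_tiles (T.cpt i) (T.sub i)
  have hSc : IsCompact S := hfin.isCompact_biUnion fun l _ => T.cpt l
  have hSmem : ∀ y, y ∈ S ↔ Star T i y := by
    intro y
    simp only [hS, mem_iUnion, Star, mem_ofPred_eq, exists_prop]
    exact ⟨fun ⟨l, h1, h2⟩ => ⟨l, h2, h1⟩, fun ⟨l, h1, h2⟩ => ⟨l, h2, h1⟩⟩
  by_cases hxS : x ∈ S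
  · obtain ⟨l, hl, h2⟩ := (hSmem x).1 hxS
    exact hstar x ⟨l, hl, h2⟩ (hx2 (T.sub l hl))
  · have hcP : c ∈ P (T.H i) := I_sub_P _ hc
    have hcS : c ∈ S := (hSmem c).2 ⟨i, hcP, c, hcP, hcP⟩
    set γ : ℝ → E := fun θ => c + θ • (x - c) with hγ
    have hγc : Continuous γ := by fun_prop
    set W : Set ℝ := Icc 0 1 ∩ γ ⁻¹' S with hW
    have hWc : IsCompact W := isCompact_Icc.inter_right (hSc.isClosed.preimage hγc)
    have hW0 : (0 : ℝ) ∈ W := ⟨by simp, by
      show c + (0 : ℝ) • (x - c) ∈ S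
      rw [zero_smul, add_zero]; exact hcS⟩
    obtain ⟨θ, hθ, hmax⟩ := hWc.exists_isMaxOn ⟨0, hW0⟩ continuousOn_id
    have hmax' : ∀ θ' ∈ W, θ' ≤ θ := fun θ' h => hmax h
    set y := γ θ with hy
    have hyS : y ∈ S := hθ.2
    have hθ1 : θ < 1 := by
      refine lt_of_le_of_ne hθ.1.2 ?_
      rintro rfl
      apply hxS
      have : γ 1 = x := by show c + (1 : ℝ) • (x - c) = x; rw [one_smul]; abel
      rw [← this]; exact hyS
    have hyO : y ∈ Om := by
      obtain ⟨l, hl, _⟩ := (hSmem y).1 hyS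
      exact T.sub l hl
    have hdis : Disjoint (T.cc y) (P (T.H i)) := by
      rw [Set.disjoint_left]
      intro w hw hwi
      obtain ⟨r, hr, hrO, hrat⟩ := T.exists_ball hyO
      -- points of the ball lie in the star
      have hball : ball y r ⊆ S := by
        intro z hz
        obtain ⟨l, hl⟩ := T.at_nonempty (hrO hz)
        have h1 : l ∈ T.at_ y := hrat z hz hl
        have h2 : l ∈ T.at_ w := T.at_sub_of_mem_cc hw h1
        exact (hSmem z).2 ⟨l, hl, w, h2, hwi⟩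
      have hev : ∀ᶠ θ' in 𝓝[>] θ, γ θ' ∈ ball y r :=
        (hγc.continuousAt.tendsto.mono_left nhdsWithin_le_nhds).eventually (ball_mem_nhds _ hr)
      have hev2 : ∀ᶠ θ' in 𝓝[>] θ, θ' ∈ Ioo θ 1 := Ioo_mem_nhdsGT hθ1
      obtain ⟨θ', h1, h2⟩ := (hev.and hev2).exists
      have h3 := hmax' θ' ⟨⟨hθ.1.1.trans h2.1.le, h2.2.le⟩, hball h1⟩
      exact absurd h2.1 (not_lt.2 h3)
    have h1 := hstar y ((hSmem y).1 hyS) hdis
    have hθ0 : 0 < θ := by
      rcases hθ.1.1.lt_or_eq with h | h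
      · exact h
      · exfalso
        have h2 : y = c := by
          rw [hy, ← h]; show c + (0 : ℝ) • (x - c) = c; rw [zero_smul, add_zero]
        rw [h2] at hdis
        exact Set.disjoint_left.1 hdis (T.self_mem_cc c) hcP
    have h2 := ug_hom hne hc (AffineEquiv.refl ℝ E) hθ0.le x
    have h3 : (AffineEquiv.refl ℝ E) c + θ • (x - (AffineEquiv.refl ℝ E) c) = y := rfl
    rw [h3] at h2
    set gx := ug (T.H i) hne c (AffineEquiv.refl ℝ E) x with hgx
    rw [h2] at h1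
    have h5 : 0 ≤ gx := by
      by_contra hn
      have : θ * gx < 0 := mul_neg_of_pos_of_neg hθ0 (not_le.1 hn)
      linarith
    nlinarith

/-- the gap from the set level -/
theorem le_ug_of {hne : (T.H i).Nonempty} {c : E} (hc : c ∈ I (T.H i)) {g : ℝ} (hg : 0 < g)
    {x : E} (h : ∀ t : ℝ, 0 < t → t < g → c + t⁻¹ • (x - c) ∉ P (T.H i)) :
    g ≤ ug (T.H i) hne c (AffineEquiv.refl ℝ E) x := by
  by_contra hn
  rw [not_le] at hn
  set gx := ug (T.H i) hne c (AffineEquiv.refl ℝ E) x with hgx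
  have ht0 : 0 < max gx (g / 2) := lt_max_of_lt_right (by linarith)
  have htg : max gx (g / 2) < g := max_lt hn (by linarith)
  refine h _ ht0 htg ?_
  have h1 := ug_hom hne hc (AffineEquiv.refl ℝ E) (inv_nonneg.2 ht0.le) x
  have h2 := ug_le_one_iff hne hc (AffineEquiv.refl ℝ E)
    (y := c + (max gx (g / 2))⁻¹ • (x - c))
  refine h2.1 ?_
  have h3 : (AffineEquiv.refl ℝ E) c + (max gx (g / 2))⁻¹ • (x - (AffineEquiv.refl ℝ E) c) =
    c + (max gx (g / 2))⁻¹ • (x - c) := rfl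
  rw [h3] at h1
  rw [h1, inv_mul_le_iff₀ ht0, mul_one]
  exact le_max_left _ _

end star

end Crest.Agent.R096.Sk3_812
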