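import Crest.Agent.R096.Gsim1_812

/-!
# Row 96 (S0127), 2SK for tiles (helper812): GAPSIM, part 2: tilings in good form
-/

set_option autoImplicit false
set_option linter.unusedSectionVars false

open Set Metric Topology

namespace Crest.Agent.R096.Sk3_812

open Crest.Agent.R096.Msh_715
open Crest.Agent.R096.Ce_537
open Crest.Agent.R096.Sk2_855
open Crest.Agent.R096.Ub_113
open Crest.Agent.R096.Sk3_270 (One exists_min)
open Crest.Agent.R096.Mal_874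

variable {n : ℕ} {E : Type} [NormedAddCommGroup E] [NormedSpace ℝ E] [FiniteDimensional ℝ E]

/-- the star of the tile `i` is in good form -/
structure GStar {Om : Set E} {ι : Type*} (T : Tiling Om ι) (i : ι) (χ : E ≃ᵃ[ℝ] (Fin n → ℝ))
    (s : ℝ) (𝒩 : Finset (Fin n → ℝ)) (d : ℕ) (R : ℝ) : Prop where
  good : ∀ l, (P (T.H l) ∩ P (T.H i)).Nonempty → ∀ l', (P (T.H l') ∩ P (T.H l)).Nonempty →
    ∀ h ∈ T.H l', ∃ ν, ∃ t : ℤ, GF χ s 𝒩 d h ν t
  bd : ∀ l, (P (T.H l) ∩ P (T.H i)).Nonempty → ∀ l', (P (T.H l') ∩ P (T.H i)).Nonempty →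
    ∀ x ∈ P (T.H l), ∀ y ∈ P (T.H l'), ∀ m, |χ y m - χ x m| ≤ R

section

variable {Om : Set E} {ι : Type*} {T : Tiling Om ι} {i : ι} {χ : E ≃ᵃ[ℝ] (Fin n → ℝ)}
    {s : ℝ} {𝒩 : Finset (Fin n → ℝ)} {d : ℕ} {R : ℝ}

/-- the cells of the star have shapes of the list -/
theorem GStar.shape (Q : GStar T i χ s 𝒩 d R) (hs : 0 < s) (hd : 0 < d)
    (h𝒩 : ∀ ν ∈ 𝒩, ∀ m, ∃ c : ℤ, ν m = c / d) {x0 : E} (hx0 : x0 ∈ P (T.H i)) {x : E}
    (hx : Star T i x) : (χ.trans (trz fun m => ⌊χ x0 m⌋)) '' T.cc x ∈ shpT 𝒩 d R := by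
  obtain ⟨l0, hl0, hl0i⟩ := hx
  have hii : (P (T.H i) ∩ P (T.H i)).Nonempty := ⟨x0, hx0, hx0⟩
  obtain ⟨S, hS, e⟩ := cc_shape' (x := x) hs hd h𝒩 (R := R) (le_bnd (R := R))
    (fun l hl h hh => Q.good l0 hl0i l ⟨x, hl, hl0⟩ h hh) (i₀ := l0) hl0
    (fun y hy => Q.bd l0 hl0i l0 hl0i x hl0 y hy)
  refine ⟨S, hS, fun m => ⌊χ x m⌋ - ⌊χ x0 m⌋, ?_, ?_⟩
  · intro m
    have h1 := Int.floor_le (χ x m)
    have h2 := Int.lt_floor_add_one (χ x m)
    have h3 := Int.floor_le (χ x0 m)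
    have h4 := Int.lt_floor_add_one (χ x0 m)
    have h5 := abs_le.1 (Q.bd i hii l0 hl0i x0 hx0 x hl0 m)
    have h6 := le_abs_self R
    push_cast
    rw [abs_le]
    constructor <;> linarith
  · ext u
    simp only [Set.mem_image, Set.mem_ofPred_eq]
    constructor
    · rintro ⟨y, hy, rfl⟩
      rw [e] at hy
      have h1 : (fun m => (χ.trans (trz fun m => ⌊χ x0 m⌋)) y m - ((⌊χ x m⌋ - ⌊χ x0 m⌋ : ℤ) : ℝ)) =
          fun m => χ y m - (⌊χ x m⌋ : ℝ) := by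
        funext m
        rw [AffineEquiv.trans_apply, trz_apply]
        push_cast
        ring
      rw [h1]
      exact hy
    · intro hu
      refine ⟨(χ.trans (trz fun m => ⌊χ x0 m⌋)).symm u, ?_, by simp⟩
      rw [e]
      simp only [Set.mem_ofPred_eq]
      have h1 : (fun m => χ ((χ.trans (trz fun m => ⌊χ x0 m⌋)).symm u) m - (⌊χ x m⌋ : ℝ)) =
          fun m => u m - ((⌊χ x m⌋ - ⌊χ x0 m⌋ : ℤ) : ℝ) := by
        funext m
        have h2 : (χ.trans (trz fun m => ⌊χ x0 m⌋)) ((χ.trans (trz fun m => ⌊χ x0 m⌋)).symm u) m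
            = u m := by simp
        rw [AffineEquiv.trans_apply, trz_apply] at h2
        push_cast
        linarith
      rw [h1]
      exact hu

theorem star_of_crs (k : KT T i) : Star T i k.e := by
  obtain ⟨h1, h2, h3, w, hw, hwi⟩ := k.crs
  obtain ⟨l, hl⟩ := T.at_nonempty h1
  exact ⟨l, hl, w, T.at_sub_of_mem_cc hw hl, hwi⟩

theorem card_KT (Q : GStar T i χ s 𝒩 d R) (hs : 0 < s) (hd : 0 < d)
    (h𝒩 : ∀ ν ∈ 𝒩, ∀ m, ∃ c : ℤ, ν m = c / d) : Nat.card (KT T i) ≤ (shpT 𝒩 d R).ncard := by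
  obtain ⟨x0, hx0⟩ := T.ne i
  have hx0' := I_sub_P _ hx0
  have hfin := shpT_finite 𝒩 d R
  have := hfin.to_subtype
  rw [← Nat.card_coe_set_eq]
  refine Nat.card_le_card_of_injective (fun k : KT T i =>
    (⟨(χ.trans (trz fun m => ⌊χ x0 m⌋)) '' T.cc k.e, Q.shape hs hd h𝒩 hx0' (star_of_crs k)⟩ :
      shpT 𝒩 d R)) ?_
  intro k k' h
  have h1 : (χ.trans (trz fun m => ⌊χ x0 m⌋)) '' T.cc k.e =
      (χ.trans (trz fun m => ⌊χ x0 m⌋)) '' T.cc k'.e := congrArg (fun p : shpT 𝒩 d R => p.1) h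
  have h2 := (Set.image_injective.2 (χ.trans (trz fun m => ⌊χ x0 m⌋)).injective) h1
  apply Subtype.ext
  apply Tiling.Cell.ext
  rw [Tiling.Cell.set_eq, Tiling.Cell.set_eq]
  exact h2

end

/-- **GAPSIM** : uniform gap, inradius and number of crossing edges -/
theorem gapsim (𝒩 : Finset (Fin n → ℝ)) {d : ℕ} (hd : 0 < d)
    (h𝒩 : ∀ ν ∈ 𝒩, ∀ m, ∃ c : ℤ, ν m = c / d) (R : ℝ) :
    ∃ β > 0, ∃ r > 0, ∃ nc : ℕ, ∀ {Om : Set E} {ι : Type} (T : Tiling Om ι) (i : ι)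
      (χ : E ≃ᵃ[ℝ] (Fin n → ℝ)) (s : ℝ), 0 < s → GStar T i χ s 𝒩 d R →
      ∃ c ∈ I (T.H i), (∀ y, ‖χ y - χ c‖ ≤ r → y ∈ P (T.H i)) ∧ Nat.card (KT T i) ≤ nc ∧
        ∀ hne : (T.H i).Nonempty, (∀ x ∉ Om, 1 + 4 * β ≤ ug (T.H i) hne c (AffineEquiv.refl ℝ E) x) ∧
          ∀ x ∈ Om, Disjoint (T.cc x) (P (T.H i)) →
            1 + 4 * β ≤ ug (T.H i) hne c (AffineEquiv.refl ℝ E) x := by
  obtain ⟨β, hβ, r, hr, h⟩ := list_gap (shpT_finite 𝒩 d R)
  refine ⟨β, hβ, r, hr, (shpT 𝒩 d R).ncard, ?_⟩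
  intro Om ι T i χ s hs Q
  obtain ⟨x0, hx0⟩ := T.ne i
  have hx0' := I_sub_P _ hx0
  set ψ : E ≃ᵃ[ℝ] (Fin n → ℝ) := χ.trans (trz fun m => ⌊χ x0 m⌋) with hψ
  have hψc : Continuous ψ := ψ.toAffineMap.continuous_of_finiteDimensional
  have hψc' : Continuous ψ.symm := ψ.symm.toAffineMap.continuous_of_finiteDimensional
  let ψh : E ≃ₜ (Fin n → ℝ) := ⟨ψ.toEquiv, hψc, hψc'⟩
  set K : Set (Fin n → ℝ) := ψ '' P (T.H i) with hK
  have hKF : K ∈ shpT 𝒩 d R := by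
    have h1 := Q.shape hs hd h𝒩 hx0' (x := x0) ⟨i, hx0', x0, hx0', hx0'⟩
    rwa [T.cc_eq_tile hx0] at h1
  have hKc : IsCompact K := (T.cpt i).image hψc
  have hKv : Convex ℝ K := (convex_P _).affine_image ψ.toAffineMap
  have hint : interior K = ψ '' I (T.H i) := by
    rw [← Lm_812.interior_P T i]
    exact (ψh.image_interior (P (T.H i))).symm
  have hKi : (interior K).Nonempty := by
    rw [hint]
    exact ⟨_, mem_image_of_mem _ hx0⟩
  obtain ⟨h1, h2⟩ := h K hKF hKc hKv hKi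
  obtain ⟨c, hcI, hc⟩ : ∃ c ∈ I (T.H i), ψ c = ctr K := by
    have := ctr_mem hKi
    rw [hint] at this
    exact this
  refine ⟨c, hcI, fun y hy => ?_, card_KT Q hs hd h𝒩, fun hne => ?_⟩
  · have h3 : ψ y ∈ closedBall (ctr K) r := by
      rw [mem_closedBall, dist_eq_norm, ← hc]
      refine le_trans (le_of_eq ?_) hy
      congr 1
      funext m
      rw [Pi.sub_apply, Pi.sub_apply, hψ, AffineEquiv.trans_apply, AffineEquiv.trans_apply,
        trz_apply, trz_apply]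
      ring
    obtain ⟨y', hy', e⟩ := h1 h3
    rwa [ψ.injective e] at hy'
  · have hstar : ∀ y, Star T i y → Disjoint (T.cc y) (P (T.H i)) →
        1 + 4 * β ≤ ug (T.H i) hne c (AffineEquiv.refl ℝ E) y := by
      intro y hy hdis
      refine le_ug_of T i hcI (by positivity) fun t ht0 ht hmem => ?_
      have hL := Q.shape hs hd h𝒩 hx0' hy
      obtain ⟨l, hl, hli⟩ := hy
      have hyO := T.sub l hl
      have hLc : IsCompact (ψ '' T.cc y) := (T.isCompact_cc hyO).image hψc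
      have hLd : Disjoint K (ψ '' T.cc y) := by
        rw [hK]
        exact (Set.disjoint_image_iff ψ.injective).2 hdis.symm
      refine h2 _ hL hLc hLd (ψ y) (mem_image_of_mem _ (T.self_mem_cc y)) t ht0 ht ?_
      refine ⟨_, hmem, ?_⟩
      rw [← hc]
      have h3 := ψ.toAffineMap.map_vadd c (t⁻¹ • (y - c))
      have h4 := ψ.toAffineMap.linearMap_vsub y c
      simp only [AffineEquiv.coe_toAffineMap, AffineEquiv.linear_toAffineMap, vadd_eq_add,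
        vsub_eq_sub, LinearEquiv.coe_coe, map_smul] at h3 h4
      rw [add_comm c, h3, h4, add_comm]
    refine ⟨fun x hx => ?_, fun x hx hdis => ?_⟩
    · exact gap_of_star T i hcI hstar (by positivity) fun h' => absurd h' hx
    · exact gap_of_star T i hcI hstar (by positivity) fun _ => hdis

/-- cells of dimension `≤ 1` which are neither inside the tile nor crossing -/
theorem disjoint_of_not_crs {Om : Set E} {ι : Type*} {T : Tiling Om ι} {i : ι} {x : E}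
    (hx : x ∈ sk1 T) (h1 : x ∉ P (T.H i)) (h2 : ¬ Crs T i x) : Disjoint (T.cc x) (P (T.H i)) := by
  by_contra hn
  rw [Set.not_disjoint_iff_nonempty_inter] at hn
  have hd : T.dim x ≤ 1 := hx.2
  rcases Nat.lt_or_ge 0 (T.dim x) with h | h
  · exact h2 ⟨hx.1, by omega, h1, hn⟩
  · have h0 : T.dim x = 0 := by omega
    obtain ⟨w, hw, hwi⟩ := hn
    rw [T.cc_eq_singleton (T.dim_eq_zero_iff.1 h0)] at hw
    rw [mem_singleton_iff] at hw
    rw [hw] at hwi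
    exact h1 hwi

end Crest.Agent.R096.Sk3_812
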