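import Crest.Agent.R096.Tgr4_335
import Crest.Agent.R096.Msh4_715

/-!
# Row 96, GAPSIM (helper432), part 1: the closed cells of a tiling without H-representations

`fcell 𝒯 u` = intersection of the minimal faces of `u` in the sets of the family `𝒯` through `u`.
The closed cells of a tiling near a tile `i` are the `fcell`s of the family of the tiles which touch
the tile `i` (truncated by a neighbourhood `W` of the tile, in an affine frame `B`).
-/

set_option autoImplicit false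
set_option linter.unusedSectionVars false

open Set Metric Topology Filter

namespace Crest.Agent.R096.Gsm_432

open Crest.Agent.R096.Msh_715 Crest.Agent.R096.Msh_715.Tiling

section hom

variable {F : Type*} [NormedAddCommGroup F] [NormedSpace ℝ F]

/-- the homothetic image with centre `c` -/
def hom (c : F) (t : ℝ) (K : Set F) : Set F := (fun z => c + t • (z - c)) '' K

theorem hom_eq (c : F) (t : ℝ) (K : Set F) : hom c t K = AffineMap.homothety c t '' K := by
  unfold hom
  refine image_congr fun z _ => ?_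
  rw [AffineMap.homothety_apply, vsub_eq_sub, vadd_eq_add, add_comm]

theorem hom_mono {K : Set F} (hK : Convex ℝ K) {c : F} (hc : c ∈ K) {s t : ℝ} (hs : 0 ≤ s)
    (hst : s ≤ t) : hom c s K ⊆ hom c t K := by
  rintro _ ⟨z, hz, rfl⟩
  rcases (hs.trans hst).eq_or_lt with h0 | h0
  · have : s = t := le_antisymm hst (by rw [← h0]; exact hs)
    subst this
    exact ⟨z, hz, rfl⟩
  · refine ⟨c + (s / t) • (z - c), ?_, ?_⟩
    · exact hK.add_smul_sub_mem hc hz ⟨by positivity, (div_le_one h0).2 hst⟩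
    · simp only [add_sub_cancel_left, smul_smul]
      rw [mul_div_cancel₀ _ h0.ne']

theorem sub_hom {K : Set F} (hK : Convex ℝ K) {c : F} (hc : c ∈ K) {t : ℝ} (ht : 1 ≤ t) :
    K ⊆ hom c t K := by
  refine subset_trans ?_ (hom_mono hK hc zero_le_one ht)
  intro z hz
  exact ⟨z, hz, by simp⟩

theorem isCompact_hom {K : Set F} (hK : IsCompact K) (c : F) (t : ℝ) : IsCompact (hom c t K) :=
  hK.image (by fun_prop)

theorem sub_interior_hom {K : Set F} (hK : Convex ℝ K) {c : F} (hc : c ∈ interior K) {t : ℝ}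
    (ht : 1 < t) : K ⊆ interior (hom c t K) := by
  rw [hom_eq]
  exact subset_closure.trans (hK.closure_subset_interior_image_homothety_of_one_lt hc t ht)

/-- a compact set has a homothetic image in any neighbourhood -/
theorem exists_hom_sub {K O : Set F} (hK : IsCompact K) (hO : IsOpen O) (hKO : K ⊆ O) (c : F) :
    ∃ β > 0, hom c (1 + 4 * β) K ⊆ O := by
  obtain ⟨δ, hδ, h1⟩ := hK.exists_thickening_subset_open hO hKO
  obtain ⟨D, hD⟩ := hK.isBounded.subset_closedBall c
  have hD0 : 0 < |D| + 1 := by positivity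
  refine ⟨δ / (4 * (|D| + 1)), by positivity, ?_⟩
  rintro _ ⟨z, hz, rfl⟩
  refine h1 (mem_thickening_iff.2 ⟨z, hz, ?_⟩)
  have h2 : ‖z - c‖ ≤ |D| := by
    rw [← dist_eq_norm]
    exact (mem_closedBall.1 (hD hz)).trans (le_abs_self D)
  have e : c + (1 + 4 * (δ / (4 * (|D| + 1)))) • (z - c) - z = (δ / (|D| + 1)) • (z - c) := by
    have e1 : 4 * (δ / (4 * (|D| + 1))) = δ / (|D| + 1) := by field_simp
    rw [e1, add_smul, one_smul]
    abel
  rw [dist_eq_norm, e, norm_smul, Real.norm_of_nonneg (by positivity), div_mul_eq_mul_div,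
    div_lt_iff₀ hD0]
  nlinarith

variable {E : Type*} [NormedAddCommGroup E] [NormedSpace ℝ E]

theorem aff_comb (B : E ≃ᵃ[ℝ] F) (x y : E) (t : ℝ) :
    B (x + t • (y - x)) = B x + t • (B y - B x) := by
  have h2 := B.toAffineMap.map_vadd x (t • (y - x))
  have h3 := B.toAffineMap.linearMap_vsub y x
  simp only [AffineEquiv.coe_toAffineMap, vadd_eq_add, vsub_eq_sub, map_smul] at h2 h3
  rw [add_comm x, h2, h3, add_comm]

theorem aff_comb' (B : E ≃ᵃ[ℝ] F) (x y : E) (t : ℝ) :
    B (x - t • (y - x)) = B x - t • (B y - B x) := by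
  have := aff_comb B x y (-t)
  rwa [neg_smul, neg_smul, ← sub_eq_add_neg, ← sub_eq_add_neg] at this

theorem image_hom (B : E ≃ᵃ[ℝ] F) (c : E) (t : ℝ) (K : Set E) :
    B '' hom c t K = hom (B c) t (B '' K) := by
  unfold hom
  rw [image_image, image_image]
  exact image_congr fun z _ => aff_comb B c z t

end hom

/-! ### minimal faces -/

section fcell

variable {F : Type*} [NormedAddCommGroup F] [NormedSpace ℝ F]

/-- intersection of the minimal faces of `u` in the sets of the family through `u` -/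
def fcell (𝒯 : Set (Set F)) (u : F) : Set F :=
  {v | ∀ Q ∈ 𝒯, u ∈ Q → v ∈ Q ∧ ∃ ε > (0 : ℝ), u - ε • (v - u) ∈ Q}

variable {E : Type*} [NormedAddCommGroup E] [NormedSpace ℝ E] {Om : Set E} {ι : Type*}
  {T : Tiling Om ι}

/-- the closed cell of a point by minimal faces -/
theorem mem_cc_iff {x y : E} : y ∈ T.cc x ↔
    ∀ i ∈ T.at_ x, y ∈ P (T.H i) ∧ ∃ ε > (0 : ℝ), x - ε • (y - x) ∈ P (T.H i) := by
  constructor
  · intro hy i hi
    refine ⟨T.cc_sub_tile hi hy, ?_⟩
    have h1 : ∀ᶠ s in 𝓝[>] (0 : ℝ), x + s • (x - y) ∈ P (T.H i) := by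
      refine mem_P_small hi fun h hh e => ?_
      rw [map_sub, e, (hy i hi h hh).2 e, sub_self]
    obtain ⟨s, hs, hs0⟩ := (h1.and self_mem_nhdsWithin).exists
    refine ⟨s, hs0, ?_⟩
    have e : x - s • (y - x) = x + s • (x - y) := by
      rw [smul_sub, smul_sub]; abel
    rw [e]
    exact hs
  · intro hy i hi h hh
    obtain ⟨h1, ε, hε, h2⟩ := hy i hi
    refine ⟨h1 h hh, fun e => le_antisymm (h1 h hh) ?_⟩
    have h3 := h2 h hh
    simp only [map_sub, map_smul, smul_eq_mul] at h3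
    rw [e] at h3
    have h4 : 0 ≤ ε * (h.1 y - h.2) := by linarith
    have h5 := nonneg_of_mul_nonneg_right h4 hε
    linarith

/-- the tiles which touch the tile `i` -/
def star (T : Tiling Om ι) (i : ι) : Set ι := {j | (P (T.H j) ∩ P (T.H i)).Nonempty}

theorem self_mem_star (i : ι) : i ∈ star T i := by
  obtain ⟨x, hx⟩ := T.ne i
  exact ⟨x, I_sub_P _ hx, I_sub_P _ hx⟩

theorem star_finite (i : ι) : (star T i).Finite := T.finite_tiles (T.cpt i) (T.sub i)

/-- the union of the tiles which touch the tile `i` -/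
def Ust (T : Tiling Om ι) (i : ι) : Set E := ⋃ j ∈ star T i, P (T.H j)

theorem Ust_sub (i : ι) : Ust T i ⊆ Om := iUnion₂_subset fun j _ => T.sub j

theorem sub_interior_Ust (i : ι) : P (T.H i) ⊆ interior (Ust T i) := by
  intro x hx
  obtain ⟨r, hr, hO, hb⟩ := T.exists_ball (T.sub i hx)
  refine mem_interior.2 ⟨ball x r, fun y hy => ?_, isOpen_ball, mem_ball_self hr⟩
  obtain ⟨j, hj⟩ := T.cov y (hO hy)
  have h1 : x ∈ P (T.H j) := hb y hy hj
  exact mem_biUnion (show j ∈ star T i from ⟨x, h1, hx⟩) hj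

/-- in the interior of the star there are only tiles of the star -/
theorem at_sub_star {i : ι} {x : E} (hx : x ∈ interior (Ust T i)) : T.at_ x ⊆ star T i := by
  intro l hl
  have h1 : x ∈ closure (I (T.H l)) := P_sub_closure_I (T.ne l) hl
  obtain ⟨z, hz1, hz2⟩ := mem_closure_iff.1 h1 _ isOpen_interior hx
  obtain ⟨j, hj, hzj⟩ := mem_iUnion₂.1 (interior_subset hz1)
  have h2 := T.at_eq_singleton hz2
  have h3 : j ∈ T.at_ z := hzj
  rw [h2, mem_singleton_iff] at h3
  exact h3 ▸ hj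

theorem at_sub_star_of_meet {i : ι} {x : E} (h : (T.cc x ∩ P (T.H i)).Nonempty) :
    T.at_ x ⊆ star T i := by
  obtain ⟨y, hy1, hy2⟩ := h
  exact fun l hl => ⟨y, T.cc_sub_tile hl hy1, hy2⟩

/-- the tiles which touch the tile `i`, in the frame `B`, truncated by `W` -/
def stT (T : Tiling Om ι) (i : ι) (B : E ≃ᵃ[ℝ] F) (W : Set F) : Set (Set F) :=
  {Q | ∃ j, (P (T.H j) ∩ P (T.H i)).Nonempty ∧ Q = B '' P (T.H j) ∩ W}

theorem stT_eq (T : Tiling Om ι) (i : ι) (B : E ≃ᵃ[ℝ] F) (W : Set F) :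
    stT T i B W = (fun j => B '' P (T.H j) ∩ W) '' star T i := by
  ext Q
  constructor
  · rintro ⟨j, hj, rfl⟩
    exact ⟨j, hj, rfl⟩
  · rintro ⟨j, hj, rfl⟩
    exact ⟨j, hj, rfl⟩

theorem stT_finite (i : ι) (B : E ≃ᵃ[ℝ] F) (W : Set F) : (stT T i B W).Finite := by
  rw [stT_eq]
  exact (star_finite i).image _

theorem sUnion_stT (i : ι) (B : E ≃ᵃ[ℝ] F) (W : Set F) :
    ⋃₀ stT T i B W = B '' Ust T i ∩ W := by
  rw [stT_eq, sUnion_image, Ust, image_iUnion₂, iUnion₂_inter]

/-- **the closed cells are determined by the tiles which touch the tile `i`** -/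
theorem fcell_eq {i : ι} {x : E} {B : E ≃ᵃ[ℝ] F} {W : Set F} (hW : B x ∈ interior W)
    (hx : x ∈ Om) (hat : T.at_ x ⊆ star T i) :
    fcell (stT T i B W) (B x) = B '' T.cc x ∩ W := by
  ext v
  obtain ⟨y, rfl⟩ := B.surjective v
  constructor
  · intro hv
    have hmem : ∀ j ∈ T.at_ x, B y ∈ B '' P (T.H j) ∩ W ∧
        ∃ ε > (0 : ℝ), B x - ε • (B y - B x) ∈ B '' P (T.H j) ∩ W := fun j hj =>
      hv _ ⟨j, hat hj, rfl⟩ ⟨mem_image_of_mem _ hj, interior_subset hW⟩
    refine ⟨mem_image_of_mem _ (mem_cc_iff.2 fun j hj => ?_), ?_⟩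
    · obtain ⟨⟨h1, -⟩, ε, hε, h2, -⟩ := hmem j hj
      refine ⟨(B.injective.mem_set_image).1 h1, ε, hε, ?_⟩
      rw [← aff_comb'] at h2
      exact (B.injective.mem_set_image).1 h2
    · obtain ⟨j, hj⟩ := T.at_nonempty hx
      exact (hmem j hj).1.2
  · rintro ⟨hy, hyW⟩ Q ⟨j, hj, rfl⟩ ⟨hxj, -⟩
    have hxj' : j ∈ T.at_ x := (B.injective.mem_set_image).1 hxj
    have hy' : y ∈ T.cc x := (B.injective.mem_set_image).1 hy
    obtain ⟨h1, ε0, hε0, h2⟩ := mem_cc_iff.1 hy' j hxj'
    refine ⟨⟨mem_image_of_mem _ h1, hyW⟩, ?_⟩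
    -- a small `ε`
    have hc : Tendsto (fun s : ℝ => B x - s • (B y - B x)) (𝓝 0)
        (𝓝 (B x - (0 : ℝ) • (B y - B x))) := by
      apply Continuous.tendsto
      fun_prop
    rw [zero_smul, sub_zero] at hc
    have h3 : ∀ᶠ s in 𝓝[>] (0 : ℝ), B x - s • (B y - B x) ∈ interior W :=
      (hc.eventually (isOpen_interior.mem_nhds hW)).filter_mono nhdsWithin_le_nhds
    have h4 : ∀ᶠ s in 𝓝[>] (0 : ℝ), s < ε0 :=
      (gt_mem_nhds hε0).filter_mono nhdsWithin_le_nhds
    obtain ⟨s, ⟨hs1, hs2⟩, hs0⟩ := ((h3.and h4).and self_mem_nhdsWithin).exists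
    have hs0' : (0 : ℝ) < s := hs0
    refine ⟨s, hs0', ?_, interior_subset hs1⟩
    rw [← aff_comb']
    refine mem_image_of_mem _ ?_
    have h5 := (convex_P (T.H j)).add_smul_sub_mem (x := x) (y := x - ε0 • (y - x)) hxj' h2
      (t := s / ε0) ⟨by positivity, (div_le_one hε0).2 hs2.le⟩
    have e : x + (s / ε0) • (x - ε0 • (y - x) - x) = x - s • (y - x) := by
      rw [sub_sub_cancel_left, smul_neg, smul_smul, div_mul_cancel₀ _ hε0.ne', ← sub_eq_add_neg]
    rw [e] at h5
    exact h5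

end fcell

end Crest.Agent.R096.Gsm_432
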