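import Crest.Agent.R096.Gsm1_432

/-!
# Row 96, GAPSIM (helper432), part 2: the constants of a tile and of the tiles which touch it

`GP W K0 𝒯 c β ρ D nc` is a property of the pair (tile `K0`, family `𝒯` of the truncated tiles which
touch it); `exists_GP`: it holds for some constants; `GP.gapT`: it gives the gap of every tile with
this pair.
-/

set_option autoImplicit false
set_option linter.unusedSectionVars false

open Set Metric Topology Filter

namespace Crest.Agent.R096.Gsm_432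

open Crest.Agent.R096.Msh_715 Crest.Agent.R096.Msh_715.Tiling Crest.Agent.R096.Tgr_335

variable {F : Type*} [NormedAddCommGroup F] [NormedSpace ℝ F] [FiniteDimensional ℝ F]
variable {E : Type*} [NormedAddCommGroup E] [NormedSpace ℝ E] [FiniteDimensional ℝ E]
variable {Om : Set E} {ι : Type*} {T : Tiling Om ι}

/-- constants of a pair (tile, truncated tiles which touch it) -/
structure GP (W : Set F) (K0 : Set F) (𝒯 : Set (Set F)) (c : F) (β ρ D : ℝ) (nc : ℕ) : Prop where
  cvx : Convex ℝ K0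
  cen : c ∈ interior K0
  ball : closedBall c ρ ⊆ K0
  bdd : K0 ⊆ closedBall c D
  sub : hom c (1 + 4 * β) K0 ⊆ interior (⋃₀ 𝒯)
  subW : hom c (1 + 4 * β) K0 ⊆ interior W
  meet : ∀ u ∈ hom c (1 + 4 * β) K0, (fcell 𝒯 u ∩ K0).Nonempty
  fin : {C | ∃ u ∈ hom c (1 + 4 * β) K0, C = fcell 𝒯 u}.Finite
  card : {C | ∃ u ∈ hom c (1 + 4 * β) K0, C = fcell 𝒯 u}.ncard ≤ nc
  fin' : 𝒯.Finite
  card' : 𝒯.ncard ≤ nc

theorem GP.mono {W K0 : Set F} {𝒯 : Set (Set F)} {c : F} {β ρ D : ℝ} {nc : ℕ}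
    (h : GP W K0 𝒯 c β ρ D nc) {β' ρ' D' : ℝ} {nc' : ℕ} (hβ0 : 0 ≤ β') (hβ : β' ≤ β) (hρ : ρ' ≤ ρ)
    (hD : D ≤ D') (hn : nc ≤ nc') : GP W K0 𝒯 c β' ρ' D' nc' := by
  have hh : hom c (1 + 4 * β') K0 ⊆ hom c (1 + 4 * β) K0 :=
    hom_mono h.cvx (interior_subset h.cen) (by linarith) (by linarith)
  have hs : {C | ∃ u ∈ hom c (1 + 4 * β') K0, C = fcell 𝒯 u} ⊆
      {C | ∃ u ∈ hom c (1 + 4 * β) K0, C = fcell 𝒯 u} := by
    rintro C ⟨u, hu, rfl⟩
    exact ⟨u, hh hu, rfl⟩
  exact
    { cvx := h.cvx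
      cen := h.cen
      ball := (closedBall_subset_closedBall hρ).trans h.ball
      bdd := h.bdd.trans (closedBall_subset_closedBall hD)
      sub := hh.trans h.sub
      subW := hh.trans h.subW
      meet := fun u hu => h.meet u (hh hu)
      fin := h.fin.subset hs
      card := (ncard_le_ncard hs h.fin).trans (h.card.trans hn)
      fin' := h.fin'
      card' := h.card'.trans hn }

theorem isOpenMap_aff (B : E ≃ᵃ[ℝ] F) : IsOpenMap B := by
  have h1 : Continuous B.symm := B.symm.toAffineMap.continuous_of_finiteDimensional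
  intro U hU
  have e : B '' U = B.symm ⁻¹' U := B.toEquiv.image_eq_preimage_symm U
  rw [e]
  exact hU.preimage h1

theorem continuous_aff (B : E ≃ᵃ[ℝ] F) : Continuous B :=
  B.toAffineMap.continuous_of_finiteDimensional

theorem image_interior_aff (B : E ≃ᵃ[ℝ] F) (K : Set E) : B '' interior K = interior (B '' K) := by
  apply Subset.antisymm
  · exact interior_maximal (image_mono interior_subset) (isOpenMap_aff B _ isOpen_interior)
  · intro v hv
    obtain ⟨y, rfl⟩ := B.surjective v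
    refine mem_image_of_mem _ (mem_interior.2 ⟨B ⁻¹' interior (B '' K), fun z hz => ?_,
      isOpen_interior.preimage (continuous_aff B), hv⟩)
    exact (B.injective.mem_set_image).1 (interior_subset hz)

/-- the cells of a tiling near a tile: those which miss the tile are at a positive distance -/
theorem exists_gap1 (i : ι) {c : E} (hc : c ∈ interior (P (T.H i))) : ∃ β > 0, hom c (1 + 4 * β) (P (T.H i)) ⊆ interior (Ust T i) ∧
    (∀ x ∈ hom c (1 + 4 * β) (P (T.H i)), (T.cc x ∩ P (T.H i)).Nonempty) := by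
  obtain ⟨β1, hβ1, h1⟩ := exists_hom_sub (T.cpt i) isOpen_interior (sub_interior_Ust (T := T) i) c
  have hDc : IsCompact (hom c (1 + 4 * β1) (P (T.H i))) := isCompact_hom (T.cpt i) _ _
  have hDO : hom c (1 + 4 * β1) (P (T.H i)) ⊆ Om :=
    h1.trans (interior_subset.trans (Ust_sub i))
  have hfin := T.finite_cells hDc hDO
  set 𝒞 := {C : Set E | (∃ x ∈ Om, C = T.cc x) ∧
    (C ∩ hom c (1 + 4 * β1) (P (T.H i))).Nonempty} with h𝒞
  set N : Set E := ⋃ C ∈ {C ∈ 𝒞 | Disjoint C (P (T.H i))}, C with hN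
  have hNc : IsClosed N := by
    refine (hfin.subset (sep_subset _ _)).isClosed_biUnion ?_
    rintro C ⟨⟨⟨x, -, rfl⟩, -⟩, -⟩
    exact T.isClosed_cc x
  have hd : P (T.H i) ⊆ Nᶜ := by
    intro y hy hyN
    obtain ⟨C, ⟨-, hC⟩, hyC⟩ := mem_iUnion₂.1 hyN
    exact disjoint_left.1 hC hyC hy
  obtain ⟨β2, hβ2, h2⟩ := exists_hom_sub (T.cpt i) (isOpen_interior.inter hNc.isOpen_compl)
    (subset_inter (sub_interior_hom (convex_P (T.H i)) hc (t := 1 + 4 * β1)
      (by linarith)) hd) c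
  refine ⟨β2, hβ2, h2.trans (inter_subset_left.trans (interior_subset.trans h1)), fun x hx => ?_⟩
  obtain ⟨h3, h4⟩ := h2 hx
  have hxO : x ∈ Om := hDO (interior_subset h3)
  by_contra hcon
  rw [not_nonempty_iff_eq_empty, ← disjoint_iff_inter_eq_empty] at hcon
  exact h4 (mem_biUnion (show T.cc x ∈ {C ∈ 𝒞 | Disjoint C (P (T.H i))} from
    ⟨⟨⟨x, hxO, rfl⟩, x, T.self_mem_cc x, interior_subset h3⟩, hcon⟩) (T.self_mem_cc x))

/-- **one pair has constants** -/
theorem exists_GP {i : ι} {B : E ≃ᵃ[ℝ] F} {W : Set F} (hW : B '' P (T.H i) ⊆ interior W) {c : F}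
    (hc : c ∈ interior (B '' P (T.H i))) :
    ∃ β > 0, ∃ ρ > 0, ∃ D, ∃ nc : ℕ, GP W (B '' P (T.H i)) (stT T i B W) c β ρ D nc := by
  have hcpt : IsCompact (B '' P (T.H i)) := (T.cpt i).image (continuous_aff B)
  obtain ⟨c0, rfl⟩ := B.surjective c
  have hc0 : c0 ∈ interior (P (T.H i)) := by
    rw [← image_interior_aff] at hc
    exact (B.injective.mem_set_image).1 hc
  obtain ⟨β1, hβ1, h1, h2⟩ := exists_gap1 i hc0
  obtain ⟨β2, hβ2, h3⟩ := exists_hom_sub hcpt isOpen_interior hW (B c0)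
  obtain ⟨ρ, hρ, hball⟩ := Metric.nhds_basis_closedBall.mem_iff.1 (mem_interior_iff_mem_nhds.1 hc)
  obtain ⟨D, hD⟩ := hcpt.isBounded.subset_closedBall (B c0)
  set β := min β1 β2 with hβ
  have hβ0 : 0 < β := lt_min hβ1 hβ2
  have hcP : c0 ∈ P (T.H i) := interior_subset hc0
  have hcv : Convex ℝ (B '' P (T.H i)) := (convex_P (T.H i)).affine_image B.toAffineMap
  have hs1 : hom c0 (1 + 4 * β) (P (T.H i)) ⊆ hom c0 (1 + 4 * β1) (P (T.H i)) :=
    hom_mono (convex_P _) hcP (by linarith) (by linarith [min_le_left β1 β2])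
  have hs2 : hom (B c0) (1 + 4 * β) (B '' P (T.H i)) ⊆ hom (B c0) (1 + 4 * β2) (B '' P (T.H i)) :=
    hom_mono hcv (mem_image_of_mem _ hcP) (by linarith) (by linarith [min_le_right β1 β2])
  have hcell : ∀ x ∈ hom c0 (1 + 4 * β) (P (T.H i)),
      fcell (stT T i B W) (B x) = B '' T.cc x ∩ W := by
    intro x hx
    refine fcell_eq (h3 (hs2 ?_)) (Ust_sub i (interior_subset (h1 (hs1 hx))))
      (at_sub_star (h1 (hs1 hx)))
    rw [← image_hom]
    exact mem_image_of_mem _ hx
  have hfin : {C | ∃ u ∈ hom (B c0) (1 + 4 * β) (B '' P (T.H i)), C = fcell (stT T i B W) u}.Finite := by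
    have hDc : IsCompact (hom c0 (1 + 4 * β) (P (T.H i))) := isCompact_hom (T.cpt i) _ _
    have hDO : hom c0 (1 + 4 * β) (P (T.H i)) ⊆ Om :=
      hs1.trans (h1.trans (interior_subset.trans (Ust_sub i)))
    refine ((T.finite_cells hDc hDO).image fun C => B '' C ∩ W).subset ?_
    rintro C ⟨u, hu, rfl⟩
    rw [← image_hom] at hu
    obtain ⟨x, hx, rfl⟩ := hu
    exact ⟨T.cc x, ⟨⟨x, hDO hx, rfl⟩, x, T.self_mem_cc x, hx⟩, (hcell x hx).symm⟩
  refine ⟨β, hβ0, ρ, hρ, D, max ({C | ∃ u ∈ hom (B c0) (1 + 4 * β) (B '' P (T.H i)),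
    C = fcell (stT T i B W) u}.ncard) (stT T i B W).ncard, ?_⟩
  exact
    { cvx := hcv
      cen := hc
      ball := hball
      bdd := hD
      sub := by
        rw [sUnion_stT, interior_inter, ← image_interior_aff]
        refine subset_inter ?_ (hs2.trans h3)
        rw [← image_hom]
        exact image_mono (hs1.trans h1)
      subW := hs2.trans h3
      meet := by
        intro u hu
        rw [← image_hom] at hu
        obtain ⟨x, hx, rfl⟩ := hu
        rw [hcell x hx]
        obtain ⟨y, hy1, hy2⟩ := h2 x (hs1 hx)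
        exact ⟨B y, ⟨mem_image_of_mem _ hy1, interior_subset (hW (mem_image_of_mem _ hy2))⟩,
          mem_image_of_mem _ hy2⟩
      fin := hfin
      card := le_max_left _ _
      fin' := stT_finite i B W
      card' := le_max_right _ _ }

/-- **the gap of a tile** -/
structure GapT (T : Tiling Om ι) (i : ι) (B : E ≃ᵃ[ℝ] F) (c : E) (β ρ D : ℝ) (nc : ℕ) : Prop where
  mem : c ∈ I (T.H i)
  ball : closedBall (B c) ρ ⊆ B '' P (T.H i)
  bdd : B '' P (T.H i) ⊆ closedBall (B c) D
  gap : ∀ x ∈ Om, Disjoint (T.cc x) (P (T.H i)) → x ∉ hom c (1 + 4 * β) (P (T.H i))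
  sub : hom c (1 + 4 * β) (P (T.H i)) ⊆ interior (Ust T i)
  edges : Nat.card (KT T i) ≤ nc
  nbr : (star T i).ncard ≤ nc

theorem I_eq_interior (i : ι) : interior (P (T.H i)) = I (T.H i) := by
  apply Subset.antisymm
  · intro x hx
    by_contra hcon
    have hcon' : ∃ h ∈ T.H i, ¬ h.1 x < h.2 := by
      by_contra hh
      push Not at hh
      exact hcon hh
    obtain ⟨h, hh, hlt⟩ := hcon'
    obtain ⟨z, hz⟩ := T.ne i
    have hxe : h.1 x = h.2 := le_antisymm (interior_subset hx h hh) (not_lt.1 hlt)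
    have hc : Tendsto (fun s : ℝ => x + s • (x - z)) (𝓝 0) (𝓝 (x + (0 : ℝ) • (x - z))) := by
      apply Continuous.tendsto
      fun_prop
    rw [zero_smul, add_zero] at hc
    have h3 : ∀ᶠ s in 𝓝[>] (0 : ℝ), x + s • (x - z) ∈ P (T.H i) :=
      (hc.eventually (mem_interior_iff_mem_nhds.1 hx)).filter_mono nhdsWithin_le_nhds
    obtain ⟨s, hs, hs0⟩ := (h3.and self_mem_nhdsWithin).exists
    have hs0' : (0 : ℝ) < s := hs0
    have h4 := hs h hh
    have h5 := hz h hh
    simp only [map_add, map_smul, map_sub, smul_eq_mul] at h4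
    nlinarith
  · exact interior_maximal (I_sub_P _) (isOpen_I _)

/-- **the constants of the pair give the gap of every tile with this pair** -/
theorem GP.gapT {i : ι} {B : E ≃ᵃ[ℝ] F} {W : Set F} {c : F} {β ρ D : ℝ} {nc : ℕ} (hβ : 0 < β)
    (h : GP W (B '' P (T.H i)) (stT T i B W) c β ρ D nc) :
    GapT T i B (B.symm c) β ρ D nc := by
  have hBc : B (B.symm c) = c := B.apply_symm_apply c
  have hhom : ∀ x, x ∈ hom (B.symm c) (1 + 4 * β) (P (T.H i)) ↔
      B x ∈ hom c (1 + 4 * β) (B '' P (T.H i)) := by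
    intro x
    have e := image_hom B (B.symm c) (1 + 4 * β) (P (T.H i))
    rw [hBc] at e
    rw [← e, B.injective.mem_set_image]
  have hWi : B '' P (T.H i) ⊆ interior W :=
    (sub_hom h.cvx (interior_subset h.cen) (by linarith)).trans h.subW
  have hU : hom (B.symm c) (1 + 4 * β) (P (T.H i)) ⊆ interior (Ust T i) := by
    intro x hx
    have h1 := h.sub ((hhom x).1 hx)
    rw [sUnion_stT, interior_inter, ← image_interior_aff] at h1
    exact (B.injective.mem_set_image).1 h1.1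
  have hcell : ∀ x ∈ hom (B.symm c) (1 + 4 * β) (P (T.H i)),
      fcell (stT T i B W) (B x) = B '' T.cc x ∩ W := fun x hx =>
    fcell_eq (h.subW ((hhom x).1 hx)) (Ust_sub i (interior_subset (hU hx))) (at_sub_star (hU hx))
  have hcI : B.symm c ∈ interior (P (T.H i)) := by
    have h1 := h.cen
    rw [← image_interior_aff, ← hBc] at h1
    exact (B.injective.mem_set_image).1 h1
  refine ⟨?_, ?_, ?_, ?_, hU, ?_, ?_⟩
  · rw [← I_eq_interior]
    exact hcI
  · rw [hBc]; exact h.ball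
  · rw [hBc]; exact h.bdd
  · intro x hx hd hxh
    obtain ⟨v, hv1, hv2⟩ := h.meet _ ((hhom x).1 hxh)
    rw [hcell x hxh] at hv1
    obtain ⟨y, hy, rfl⟩ := hv1.1
    exact disjoint_left.1 hd hy ((B.injective.mem_set_image).1 hv2)
  · -- a point of the open edge near the tile
    have hpt : ∀ k : KT T i, ∃ x ∈ hom (B.symm c) (1 + 4 * β) (P (T.H i)), x ∈ T.oc k.e := by
      intro k
      obtain ⟨w, hw1, hw2⟩ := k.crs.meet
      have hc : Tendsto (fun s : ℝ => w + s • (k.e - w)) (𝓝 0) (𝓝 (w + (0 : ℝ) • (k.e - w))) := by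
        apply Continuous.tendsto
        fun_prop
      rw [zero_smul, add_zero] at hc
      have h3 : ∀ᶠ s in 𝓝[>] (0 : ℝ),
          w + s • (k.e - w) ∈ hom (B.symm c) (1 + 4 * β) (P (T.H i)) :=
        (hc.eventually (mem_interior_iff_mem_nhds.1 (sub_interior_hom (convex_P (T.H i)) hcI
          (t := 1 + 4 * β) (by linarith) hw2))).filter_mono nhdsWithin_le_nhds
      have h4 : ∀ᶠ s in 𝓝[>] (0 : ℝ), s < 1 :=
        (gt_mem_nhds (zero_lt_one' ℝ)).filter_mono nhdsWithin_le_nhds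
      obtain ⟨s, ⟨hs1, hs2⟩, hs0⟩ := ((h3.and h4).and self_mem_nhdsWithin).exists
      exact ⟨_, hs1, T.move_mem_oc hw1 hs0 hs2.le⟩
    choose p hp1 hp2 using hpt
    have hfin : Finite {C | ∃ u ∈ hom c (1 + 4 * β) (B '' P (T.H i)), C = fcell (stT T i B W) u} :=
      h.fin.to_subtype
    have hcc : ∀ k : KT T i, T.cc (p k) = T.cc k.e := fun k =>
      T.cc_eq_of_mem_oc k.crs.om (hp2 k)
    have h5 : Nat.card (KT T i) ≤
        Nat.card {C | ∃ u ∈ hom c (1 + 4 * β) (B '' P (T.H i)), C = fcell (stT T i B W) u} := by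
      refine Nat.card_le_card_of_injective (β := {C | ∃ u ∈ hom c (1 + 4 * β) (B '' P (T.H i)),
        C = fcell (stT T i B W) u}) (fun k => ⟨fcell (stT T i B W) (B (p k)), B (p k),
          (hhom _).1 (hp1 k), rfl⟩) ?_
      intro k k' hkk
      have h6 : fcell (stT T i B W) (B (p k)) = fcell (stT T i B W) (B (p k')) :=
        Subtype.ext_iff.1 hkk
      rw [hcell _ (hp1 k), hcell _ (hp1 k'), hcc k, hcc k'] at h6
      have h7 : ∀ m m' : KT T i, B '' T.cc m.e ∩ W = B '' T.cc m'.e ∩ W → p m ∈ T.cc m'.e := by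
        intro m m' hm
        have h8 : B (p m) ∈ B '' T.cc m.e ∩ W :=
          ⟨mem_image_of_mem _ (T.oc_sub_cc _ (hp2 m)),
            interior_subset (h.subW ((hhom _).1 (hp1 m)))⟩
        rw [hm] at h8
        exact (B.injective.mem_set_image).1 h8.1
      have h9 := T.cc_sub_of_mem (h7 k k' h6)
      have h10 := T.cc_sub_of_mem (h7 k' k h6.symm)
      rw [hcc] at h9 h10
      exact KT.ext (Subset.antisymm h9 h10)
    exact h5.trans (by rw [Nat.card_coe_set_eq]; exact h.card)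
  · -- the number of the tiles which touch the tile
    refine le_trans ?_ h.card'
    rw [stT_eq]
    refine (InjOn.ncard_image ?_).ge
    intro j hj l hl hjl
    obtain ⟨x, hx1, hx2⟩ := hj
    have h1 : x ∈ closure (I (T.H j)) := P_sub_closure_I (T.ne j) hx1
    have h2 : IsOpen (B ⁻¹' interior W) := isOpen_interior.preimage (continuous_aff B)
    obtain ⟨z, hz1, hz2⟩ := mem_closure_iff.1 h1 _ h2 (hWi (mem_image_of_mem _ hx2))
    have h3 : B z ∈ B '' P (T.H j) ∩ W :=
      ⟨mem_image_of_mem _ (I_sub_P _ hz2), interior_subset hz1⟩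
    have h4 : B z ∈ B '' P (T.H l) ∩ W := by
      have : B '' P (T.H j) ∩ W = B '' P (T.H l) ∩ W := hjl
      rw [← this]; exact h3
    have h5 : l ∈ T.at_ z := (B.injective.mem_set_image).1 h4.1
    rw [T.at_eq_singleton hz2, mem_singleton_iff] at h5
    exact h5.symm

end Crest.Agent.R096.Gsm_432
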