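import Crest.Agent.R096.Mal1_874

/-!
# Row 96, library (MESH-AL), part 2: finitely many shapes

If every inequality of every tile at `x` is of the form `ν · χ ≤ t / d` with `ν` in a finite set of
rational vectors and `t` an integer (`χ` = scaled coordinates), and one tile at `x` is small, then the
closed cell of `x` is an integer translate of a member of a finite list of shapes which depends only on
the vectors, on `d` and on the size of the small tile.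
-/

set_option autoImplicit false

open Set Filter Topology Metric

namespace Crest.Agent.R096.Mal_874

open Msh_715 Cut_874

variable {n : ℕ}

/-- the scalar product of the coordinates -/
def dt (ν u : Fin n → ℝ) : ℝ := ∑ m, ν m * u m

theorem dt_sub (ν u v : Fin n → ℝ) : dt ν (fun m => u m - v m) = dt ν u - dt ν v := by
  unfold dt
  rw [← Finset.sum_sub_distrib]
  exact Finset.sum_congr rfl fun m _ => by ring

/-- the norm dual to the sup norm -/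
def n1 (ν : Fin n → ℝ) : ℝ := ∑ m, |ν m|

theorem n1_nonneg (ν : Fin n → ℝ) : 0 ≤ n1 ν := Finset.sum_nonneg fun _ _ => abs_nonneg _

theorem dt_le {ν u : Fin n → ℝ} {R : ℝ} (h : ∀ m, |u m| ≤ R) : |dt ν u| ≤ R * n1 ν := by
  unfold dt n1
  refine (Finset.abs_sum_le_sum_abs _ _).trans ?_
  rw [Finset.mul_sum]
  refine Finset.sum_le_sum fun m _ => ?_
  rw [abs_mul, mul_comm]
  exact mul_le_mul_of_nonneg_right (h m) (abs_nonneg _)

/-- the shape of a system of inequalities and equations -/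
def shp (C1 C2 : Set ((Fin n → ℝ) × ℝ)) : Set (Fin n → ℝ) :=
  {u | (∀ p ∈ C1, dt p.1 u ≤ p.2) ∧ ∀ p ∈ C2, dt p.1 u = p.2}

/-- the admissible pairs (vector, threshold) -/
def thr (𝒩 : Finset (Fin n → ℝ)) (d : ℕ) (B : ℝ) : Set ((Fin n → ℝ) × ℝ) :=
  {p | p.1 ∈ 𝒩 ∧ ∃ t : ℤ, |(t : ℝ)| ≤ B ∧ p.2 = t / d}

/-- the list of shapes -/
def shapes (𝒩 : Finset (Fin n → ℝ)) (d : ℕ) (B : ℝ) : Set (Set (Fin n → ℝ)) :=
  {S | ∃ C1 ⊆ thr 𝒩 d B, ∃ C2 ⊆ thr 𝒩 d B, S = shp C1 C2}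

theorem thr_finite (𝒩 : Finset (Fin n → ℝ)) (d : ℕ) (B : ℝ) : (thr 𝒩 d B).Finite := by
  have h1 : {t : ℤ | |(t : ℝ)| ≤ B}.Finite := by
    refine (Set.finite_Icc (-⌈B⌉) ⌈B⌉).subset ?_
    intro t ht
    have h0 : |(t : ℝ)| ≤ B := ht
    have h2 := abs_le.1 h0
    have h3 : (t : ℝ) ≤ (⌈B⌉ : ℤ) := h2.2.trans (Int.le_ceil B)
    have h4 : (-(⌈B⌉ : ℤ) : ℝ) ≤ t := by
      have := Int.le_ceil B
      linarith
    exact ⟨by exact_mod_cast h4, by exact_mod_cast h3⟩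
  refine ((𝒩.finite_toSet).prod (h1.image fun t : ℤ => (t : ℝ) / d)).subset ?_
  rintro p ⟨hp, t, ht, e⟩
  exact ⟨hp, t, ht, e.symm⟩

/-- **the list of shapes is finite** -/
theorem shapes_finite (𝒩 : Finset (Fin n → ℝ)) (d : ℕ) (B : ℝ) : (shapes 𝒩 d B).Finite := by
  have h := (thr_finite 𝒩 d B).finite_subsets
  refine (h.image2 shp h).subset ?_
  rintro S ⟨C1, h1, C2, h2, rfl⟩
  exact ⟨C1, h1, C2, h2, rfl⟩

variable {E : Type*} [NormedAddCommGroup E] [NormedSpace ℝ E]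
variable {Om : Set E} {ι : Type*}

/-- the inequality `h` is `ν · χ ≤ t / d` -/
structure GF (χ : E → Fin n → ℝ) (s : ℝ) (𝒩 : Finset (Fin n → ℝ)) (d : ℕ)
    (h : (E →L[ℝ] ℝ) × ℝ) (ν : Fin n → ℝ) (t : ℤ) : Prop where
  mem : ν ∈ 𝒩
  eq : ∀ y, s * (h.1 y - h.2) = dt ν (χ y) - t / d

/-- a polytope is determined by its inequalities which are near `x` -/
theorem mem_P_of_near {H : Finset ((E →L[ℝ] ℝ) × ℝ)} {x y : E} (hx : x ∈ P H)
    {near : ((E →L[ℝ] ℝ) × ℝ) → Prop}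
    (hn : ∀ h ∈ H, ∀ z ∈ P H, h.1 z = h.2 → near h)
    (hy : ∀ h ∈ H, near h → h.1 y ≤ h.2) : y ∈ P H := by
  classical
  by_contra hcon
  have hex : (H.filter fun h => h.2 < h.1 y).Nonempty := by
    by_contra hne
    rw [Finset.not_nonempty_iff_eq_empty] at hne
    apply hcon
    intro h hh
    by_contra hlt
    have : h ∈ H.filter fun h => h.2 < h.1 y := Finset.mem_filter.2 ⟨hh, not_le.1 hlt⟩
    rw [hne] at this
    exact absurd this (Finset.notMem_empty _)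
  obtain ⟨h0, hh0, hmin⟩ := Finset.exists_min_image _
    (fun h : (E →L[ℝ] ℝ) × ℝ => (h.2 - h.1 x) / (h.1 y - h.1 x)) hex
  obtain ⟨h0H, h0y⟩ := Finset.mem_filter.1 hh0
  have h0x := hx h0 h0H
  have hd0 : 0 < h0.1 y - h0.1 x := by linarith
  set r := (h0.2 - h0.1 x) / (h0.1 y - h0.1 x) with hr
  have hr0 : 0 ≤ r := div_nonneg (by linarith) hd0.le
  have hr1 : r ≤ 1 := by rw [hr, div_le_one hd0]; linarith
  have hform : ∀ h : (E →L[ℝ] ℝ) × ℝ, h.1 (x + r • (y - x)) = h.1 x + r * (h.1 y - h.1 x) := by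
    intro h; simp only [map_add, map_smul, map_sub, smul_eq_mul]
  have hz : x + r • (y - x) ∈ P H := by
    intro h hh
    rw [hform]
    have h1 := hx h hh
    by_cases h2 : h.1 y ≤ h.2
    · nlinarith
    · push Not at h2
      have hd : 0 < h.1 y - h.1 x := by linarith
      have h3 := hmin h (Finset.mem_filter.2 ⟨hh, h2⟩)
      rw [le_div_iff₀ hd] at h3
      linarith
  have he : h0.1 (x + r • (y - x)) = h0.2 := by
    rw [hform, hr, div_mul_cancel₀ _ hd0.ne']; ring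
  exact absurd (hy h0 h0H (hn h0 h0H _ hz he)) (not_le.2 h0y)

/-- **the closed cells have finitely many shapes** (explicit base point) -/
theorem cc_shape' {T : Tiling Om ι} {χ : E → Fin n → ℝ} {s : ℝ} (hs : 0 < s)
    {𝒩 : Finset (Fin n → ℝ)} {d : ℕ} (hd : 0 < d) (h𝒩 : ∀ ν ∈ 𝒩, ∀ m, ∃ c : ℤ, ν m = c / d)
    {R B : ℝ} (hB : ∀ ν ∈ 𝒩, (R + 1) * n1 ν * d ≤ B) {x : E}
    (hgood : ∀ i ∈ T.at_ x, ∀ h ∈ T.H i, ∃ ν, ∃ t : ℤ, GF χ s 𝒩 d h ν t)
    {i₀ : ι} (hi₀ : i₀ ∈ T.at_ x) (hR : ∀ y ∈ P (T.H i₀), ∀ m, |χ y m - χ x m| ≤ R) :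
    ∃ S ∈ shapes 𝒩 d B, T.cc x = {y | (fun m => χ y m - (⌊χ x m⌋ : ℝ)) ∈ S} := by
  have hd' : (0 : ℝ) < d := by exact_mod_cast hd
  set z : Fin n → ℤ := fun m => ⌊χ x m⌋ with hz
  -- the near inequalities
  let L : Set ((Fin n → ℝ) × ℤ) := {q | q.1 ∈ 𝒩 ∧ |dt q.1 (χ x) - q.2 / d| ≤ R * n1 q.1 ∧
    ∃ i ∈ T.at_ x, ∃ h ∈ T.H i, GF χ s 𝒩 d h q.1 q.2}
  let f : (Fin n → ℝ) × ℤ → (Fin n → ℝ) × ℝ := fun q => (q.1, q.2 / d - dt q.1 (fun m => (z m : ℝ)))
  -- thresholds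
  have hthr : ∀ q ∈ L, f q ∈ thr 𝒩 d B := by
    rintro ⟨ν, t⟩ ⟨hν, hnear, -⟩
    refine ⟨hν, ?_⟩
    choose c hc using h𝒩 ν hν
    refine ⟨t - ∑ m, c m * z m, ?_, ?_⟩
    · have e : ((t - ∑ m, c m * z m : ℤ) : ℝ) = d * (t / d - dt ν (fun m => (z m : ℝ))) := by
        unfold dt
        push_cast
        rw [mul_sub, mul_div_cancel₀ _ hd'.ne', Finset.mul_sum]
        congr 1
        refine Finset.sum_congr rfl fun m _ => ?_
        rw [hc m]
        field_simp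
      rw [e, abs_mul, abs_of_pos hd']
      have h1 : |dt ν (fun m => χ x m - z m)| ≤ 1 * n1 ν := by
        refine dt_le fun m => ?_
        rw [hz]
        have h2 := Int.floor_le (χ x m)
        have h3 := Int.lt_floor_add_one (χ x m)
        rw [abs_le]
        constructor <;> simp only <;> linarith
      rw [dt_sub] at h1
      have h2 : |(t : ℝ) / d - dt ν (fun m => (z m : ℝ))| ≤ (R + 1) * n1 ν := by
        have h3 := abs_le.1 h1
        have h4 := abs_le.1 hnear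
        simp only at h4
        rw [abs_le]
        constructor <;> linarith [h3.1, h3.2, h4.1, h4.2]
      calc (d : ℝ) * |(t : ℝ) / d - dt ν (fun m => (z m : ℝ))| ≤ d * ((R + 1) * n1 ν) :=
            mul_le_mul_of_nonneg_left h2 hd'.le
        _ = (R + 1) * n1 ν * d := by ring
        _ ≤ B := hB ν hν
    · show (t : ℝ) / d - dt ν (fun m => (z m : ℝ)) = ((t - ∑ m, c m * z m : ℤ) : ℝ) / d
      unfold dt
      push_cast
      rw [sub_div, Finset.sum_div]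
      congr 1
      refine Finset.sum_congr rfl fun m _ => ?_
      rw [hc m]
      field_simp
  refine ⟨shp (f '' L) (f '' {q | q ∈ L ∧ dt q.1 (χ x) = q.2 / d}),
    ⟨_, ?_, _, ?_, rfl⟩, ?_⟩
  · rintro _ ⟨q, hq, rfl⟩; exact hthr q hq
  · rintro _ ⟨q, hq, rfl⟩; exact hthr q hq.1
  -- sign conversions
  have hle : ∀ {h : (E →L[ℝ] ℝ) × ℝ} {ν : Fin n → ℝ} {t : ℤ}, GF χ s 𝒩 d h ν t → ∀ y,
      (h.1 y ≤ h.2 ↔ dt ν (χ y) ≤ t / d) := by
    intro h ν t hg y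
    have h1 := hg.eq y
    constructor
    · intro h2
      nlinarith
    · intro h2
      by_contra h3
      push Not at h3
      nlinarith
  have heq : ∀ {h : (E →L[ℝ] ℝ) × ℝ} {ν : Fin n → ℝ} {t : ℤ}, GF χ s 𝒩 d h ν t → ∀ y,
      (h.1 y = h.2 ↔ dt ν (χ y) = t / d) := by
    intro h ν t hg y
    have h1 := hg.eq y
    constructor
    · intro h2
      rw [h2, sub_self, mul_zero] at h1
      linarith
    · intro h2
      rw [h2, sub_self] at h1
      rcases mul_eq_zero.1 h1 with h3 | h3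
      · exact absurd h3 hs.ne'
      · linarith
  -- distance of a far inequality
  have hfar : ∀ {h : (E →L[ℝ] ℝ) × ℝ} {ν : Fin n → ℝ} {t : ℤ}, GF χ s 𝒩 d h ν t →
      ∀ y ∈ P (T.H i₀), |dt ν (χ y) - dt ν (χ x)| ≤ R * n1 ν := by
    intro h ν t _ y hy
    rw [← dt_sub]
    exact dt_le (hR y hy)
  ext y
  simp only [Set.mem_ofPred_eq]
  constructor
  · intro hy
    constructor
    · rintro _ ⟨⟨ν, t⟩, ⟨hν, hnear, i, hi, h, hh, hg⟩, rfl⟩
      show dt ν (fun m => χ y m - (z m : ℝ)) ≤ (t : ℝ) / d - dt ν (fun m => (z m : ℝ))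
      rw [dt_sub]
      have := (hle hg y).1 (hy i hi h hh).1
      linarith
    · rintro _ ⟨⟨ν, t⟩, ⟨⟨hν, hnear, i, hi, h, hh, hg⟩, he⟩, rfl⟩
      show dt ν (fun m => χ y m - (z m : ℝ)) = (t : ℝ) / d - dt ν (fun m => (z m : ℝ))
      rw [dt_sub]
      have := (heq hg y).1 ((hy i hi h hh).2 ((heq hg x).2 he))
      linarith
  · rintro ⟨h1, h2⟩
    have hL : ∀ i ∈ T.at_ x, ∀ h ∈ T.H i, ∀ ν, ∀ t : ℤ, GF χ s 𝒩 d h ν t →
        |dt ν (χ x) - t / d| ≤ R * n1 ν → h.1 y ≤ h.2 ∧ (h.1 x = h.2 → h.1 y = h.2) := by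
      intro i hi h hh ν t hg hnear
      have hq : ((ν, t) : (Fin n → ℝ) × ℤ) ∈ L := ⟨hg.mem, hnear, i, hi, h, hh, hg⟩
      constructor
      · have h3 := h1 _ ⟨_, hq, rfl⟩
        change dt ν (fun m => χ y m - (z m : ℝ)) ≤ (t : ℝ) / d - dt ν (fun m => (z m : ℝ)) at h3
        rw [dt_sub] at h3
        exact (hle hg y).2 (by linarith)
      · intro e
        have h3 := h2 _ ⟨_, ⟨hq, (heq hg x).1 e⟩, rfl⟩
        change dt ν (fun m => χ y m - (z m : ℝ)) = (t : ℝ) / d - dt ν (fun m => (z m : ℝ)) at h3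
        rw [dt_sub] at h3
        exact (heq hg y).2 (by linarith)
    -- `y` is in the small tile
    have hyi : y ∈ P (T.H i₀) := by
      refine mem_P_of_near (near := fun h => ∃ ν, ∃ t : ℤ, GF χ s 𝒩 d h ν t ∧
        |dt ν (χ x) - t / d| ≤ R * n1 ν) hi₀ ?_ ?_
      · intro h hh w hw e
        obtain ⟨ν, t, hg⟩ := hgood i₀ hi₀ h hh
        refine ⟨ν, t, hg, ?_⟩
        rw [← (heq hg w).1 e, abs_sub_comm]
        exact hfar hg w hw
      · rintro h hh ⟨ν, t, hg, hnear⟩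
        exact (hL i₀ hi₀ h hh ν t hg hnear).1
    intro i hi h hh
    obtain ⟨ν, t, hg⟩ := hgood i hi h hh
    by_cases hnear : |dt ν (χ x) - t / d| ≤ R * n1 ν
    · exact hL i hi h hh ν t hg hnear
    · push Not at hnear
      have hx := (hle hg x).1 (hi h hh)
      rw [abs_of_nonpos (by linarith)] at hnear
      have h3 := abs_le.1 (hfar hg y hyi)
      have h4 := hfar hg x hi₀
      rw [sub_self, abs_zero] at h4
      constructor
      · exact (hle hg y).2 (by linarith [h3.2])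
      · intro e
        have := (heq hg x).1 e
        linarith

/-- **the closed cells have finitely many shapes** -/
theorem cc_shape {T : Tiling Om ι} {χ : E → Fin n → ℝ} {s : ℝ} (hs : 0 < s)
    {𝒩 : Finset (Fin n → ℝ)} {d : ℕ} (hd : 0 < d) (h𝒩 : ∀ ν ∈ 𝒩, ∀ m, ∃ c : ℤ, ν m = c / d)
    {R B : ℝ} (hB : ∀ ν ∈ 𝒩, (R + 1) * n1 ν * d ≤ B) {x : E}
    (hgood : ∀ i ∈ T.at_ x, ∀ h ∈ T.H i, ∃ ν, ∃ t : ℤ, GF χ s 𝒩 d h ν t)
    {i₀ : ι} (hi₀ : i₀ ∈ T.at_ x) (hR : ∀ y ∈ P (T.H i₀), ∀ m, |χ y m - χ x m| ≤ R) :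
    ∃ z : Fin n → ℤ, ∃ S ∈ shapes 𝒩 d B, T.cc x = {y | (fun m => χ y m - z m) ∈ S} :=
  ⟨fun m => ⌊χ x m⌋, cc_shape' hs hd h𝒩 hB hgood hi₀ hR⟩

end Crest.Agent.R096.Mal_874
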