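import Crest.Agent.R096.Gsm3_432
import Crest.Agent.R096.Mal2_874

/-!
# Row 96, GAPSIM (helper432), part 4: the gap of a tile under the hypotheses of `Mal_874.sim_tile`
-/

set_option autoImplicit false
set_option linter.unusedSectionVars false

open Set Metric Topology Filter

namespace Crest.Agent.R096.Gsm_432

open Crest.Agent.R096.Msh_715 Crest.Agent.R096.Msh_715.Tiling Crest.Agent.R096.Tgr_335
open Crest.Agent.R096.Mal_874 (GF dt n1 thr thr_finite dt_le n1_nonneg)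

universe u v

variable {n : ℕ}

/-- translation by an integer vector -/
noncomputable def tz (z : Fin n → ℤ) : (Fin n → ℝ) ≃ᵃ[ℝ] (Fin n → ℝ) :=
  AffineEquiv.constVAdd ℝ (Fin n → ℝ) (fun m => -(z m : ℝ))

theorem tz_apply (z : Fin n → ℤ) (u : Fin n → ℝ) (m : Fin n) : tz z u m = u m - z m := by
  show (-(z m : ℝ)) + u m = u m - z m
  ring

/-- the list of the truncated polytopes -/
def lst (𝒩 : Finset (Fin n → ℝ)) (d : ℕ) (r : ℝ) : Set (Set (Fin n → ℝ)) :=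
  {S | ∃ C ⊆ thr 𝒩 d (r * d * ∑ ν ∈ 𝒩, n1 ν),
    S = {u | (∀ p ∈ C, dt p.1 u ≤ p.2) ∧ u ∈ closedBall (0 : Fin n → ℝ) r}}

theorem lst_finite (𝒩 : Finset (Fin n → ℝ)) (d : ℕ) (r : ℝ) : (lst 𝒩 d r).Finite := by
  have h := (thr_finite 𝒩 d (r * d * ∑ ν ∈ 𝒩, n1 ν)).finite_subsets
  refine (h.image fun C : Set ((Fin n → ℝ) × ℝ) =>
    {u | (∀ p ∈ C, dt p.1 u ≤ p.2) ∧ u ∈ closedBall (0 : Fin n → ℝ) r}).subset ?_
  rintro S ⟨C, hC, rfl⟩
  exact ⟨C, hC, rfl⟩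

theorem dt_add (ν u v : Fin n → ℝ) : dt ν (fun m => u m - v m) = dt ν u - dt ν v := by
  unfold dt
  rw [← Finset.sum_sub_distrib]
  exact Finset.sum_congr rfl fun m _ => by ring

variable {E : Type u} [NormedAddCommGroup E] [NormedSpace ℝ E]

/-- a truncated polytope with inequalities in good form is in the list -/
theorem mem_lst {H : Finset ((E →L[ℝ] ℝ) × ℝ)} {χ : E ≃ᵃ[ℝ] (Fin n → ℝ)} {s : ℝ} (hs : 0 < s)
    {z : Fin n → ℤ} {𝒩 : Finset (Fin n → ℝ)} {d : ℕ} (hd : 0 < d)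
    (h𝒩 : ∀ ν ∈ 𝒩, ∀ m, ∃ c : ℤ, ν m = c / d) {r : ℝ} (hr : 0 ≤ r)
    (hgood : ∀ h ∈ H, ∃ ν, ∃ t : ℤ, GF χ s 𝒩 d h ν t)
    (hmeet : ∃ y ∈ P H, χ.trans (tz z) y ∈ closedBall (0 : Fin n → ℝ) r) :
    (χ.trans (tz z)) '' P H ∩ closedBall (0 : Fin n → ℝ) r ∈ lst 𝒩 d r := by
  have hd' : (0 : ℝ) < d := by exact_mod_cast hd
  set B := χ.trans (tz z) with hB
  have hBa : ∀ y m, B y m = χ y m - z m := fun y m => by
    rw [hB, AffineEquiv.trans_apply, tz_apply]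
  have hball : ∀ u ∈ closedBall (0 : Fin n → ℝ) r, ∀ ν : Fin n → ℝ, |dt ν u| ≤ r * n1 ν := by
    intro u hu ν
    refine dt_le fun m => ?_
    rw [mem_closedBall_zero_iff] at hu
    have := (norm_le_pi_norm u m).trans hu
    rwa [Real.norm_eq_abs] at this
  refine ⟨{p | p ∈ thr 𝒩 d (r * d * ∑ ν ∈ 𝒩, n1 ν) ∧
    ∃ h ∈ H, ∀ y, s * (h.1 y - h.2) = dt p.1 (B y) - p.2}, fun p hp => hp.1, ?_⟩
  ext u
  constructor
  · rintro ⟨⟨y, hy, rfl⟩, hu⟩
    refine ⟨?_, hu⟩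
    rintro p ⟨-, h, hh, e⟩
    have h1 := e y
    have h2 := hy h hh
    nlinarith
  · rintro ⟨hu, hur⟩
    obtain ⟨y, rfl⟩ := B.surjective u
    refine ⟨mem_image_of_mem _ ?_, hur⟩
    intro h hh
    obtain ⟨ν, t, hν, e⟩ := hgood h hh
    choose c hc using h𝒩 ν hν
    set p2 : ℝ := ((t - ∑ m, c m * z m : ℤ) : ℝ) / d with hp2
    have e1 : p2 = t / d - dt ν (fun m => (z m : ℝ)) := by
      rw [hp2]
      unfold dt
      push_cast
      rw [sub_div, Finset.sum_div]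
      congr 1
      refine Finset.sum_congr rfl fun m _ => ?_
      rw [hc m]
      ring
    have e2 : ∀ y, s * (h.1 y - h.2) = dt ν (B y) - p2 := by
      intro y
      have e3 : B y = fun m => χ y m - (z m : ℝ) := funext fun m => hBa y m
      rw [e y, e3, dt_add, e1]
      ring
    have hsuff : dt ν (B y) ≤ p2 := by
      by_cases hnear : |((t - ∑ m, c m * z m : ℤ) : ℝ)| ≤ r * d * ∑ ν ∈ 𝒩, n1 ν
      · exact hu (ν, p2) ⟨⟨hν, _, hnear, rfl⟩, h, hh, e2⟩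
      · have h1 : n1 ν ≤ ∑ ν ∈ 𝒩, n1 ν :=
          Finset.single_le_sum (fun ν _ => n1_nonneg ν) hν
        have h2 : r * n1 ν < |p2| := by
          rw [hp2, abs_div, abs_of_pos hd', lt_div_iff₀ hd']
          calc r * n1 ν * d = r * d * n1 ν := by ring
            _ ≤ r * d * ∑ ν ∈ 𝒩, n1 ν := by gcongr
            _ < _ := not_le.1 hnear
        rcases le_or_gt 0 p2 with h3 | h3
        · rw [abs_of_nonneg h3] at h2
          exact ((le_abs_self _).trans (hball _ hur ν)).trans h2.le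
        · exfalso
          rw [abs_of_neg h3] at h2
          obtain ⟨y0, hy0, hy0r⟩ := hmeet
          have h4 := hball _ hy0r ν
          have h5 := e2 y0
          have h6 := hy0 h hh
          have h7 := neg_abs_le (dt ν (B y0))
          nlinarith
    have h3 := e2 y
    by_contra hcon
    have h4 : 0 < h.1 y - h.2 := by linarith [not_le.1 hcon]
    have h5 := mul_pos hs h4
    linarith

variable [FiniteDimensional ℝ E]

theorem GapT.of_tz {Om : Set E} {ι : Type v} {T : Tiling Om ι} {i : ι}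
    {χ : E ≃ᵃ[ℝ] (Fin n → ℝ)} {z : Fin n → ℤ} {c : E} {β ρ D : ℝ} {nc : ℕ}
    (h : GapT T i (χ.trans (tz z)) c β ρ D nc) : GapT T i χ c β ρ D nc := by
  have e : ∀ x y : E, (χ.trans (tz z)) x - (χ.trans (tz z)) y = χ x - χ y := by
    intro x y
    funext m
    rw [Pi.sub_apply, Pi.sub_apply, AffineEquiv.trans_apply, AffineEquiv.trans_apply, tz_apply,
      tz_apply]
    ring
  refine ⟨h.mem, ?_, ?_, h.gap, h.sub, h.edges, h.nbr⟩
  · intro u hu
    obtain ⟨y, rfl⟩ := χ.surjective u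
    have h1 : (χ.trans (tz z)) y ∈ closedBall ((χ.trans (tz z)) c) ρ := by
      rw [mem_closedBall, dist_eq_norm, e]
      rwa [mem_closedBall, dist_eq_norm] at hu
    exact mem_image_of_mem _ (((χ.trans (tz z)).injective.mem_set_image).1 (h.ball h1))
  · rintro _ ⟨y, hy, rfl⟩
    have h1 := h.bdd (mem_image_of_mem _ hy)
    rw [mem_closedBall, dist_eq_norm, e] at h1
    rwa [mem_closedBall, dist_eq_norm]

variable (E)

/-- **the gap of a tile under the hypotheses of `sim_tile`**, with constants which depend only on the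
normal vectors, on the denominator and on the size of the tile -/
theorem gap_tile (𝒩 : Finset (Fin n → ℝ)) {d : ℕ} (hd : 0 < d)
    (h𝒩 : ∀ ν ∈ 𝒩, ∀ m, ∃ c : ℤ, ν m = c / d) (R : ℝ) :
    ∃ β > 0, ∃ ρ > 0, ∃ D, ∃ nc : ℕ, ∀ {Om : Set E} {ι : Type v} (T : Tiling Om ι) (i : ι)
      (χ : E ≃ᵃ[ℝ] (Fin n → ℝ)) (s : ℝ), 0 < s →
      (∀ l, (P (T.H l) ∩ P (T.H i)).Nonempty → ∀ h ∈ T.H l, ∃ ν, ∃ t : ℤ, GF χ s 𝒩 d h ν t) →
      (∀ x ∈ P (T.H i), ∀ y ∈ P (T.H i), ∀ m, |χ y m - χ x m| ≤ R) →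
      ∃ c, GapT T i χ c β ρ D nc := by
  have hr : (0 : ℝ) < |R| + 2 := by positivity
  obtain ⟨β, hβ, ρ, hρ, D, nc, h⟩ := gapsim E (closedBall (0 : Fin n → ℝ) (|R| + 2))
    (((lst_finite 𝒩 d (|R| + 2))).prod (lst_finite 𝒩 d (|R| + 2)).finite_subsets)
  refine ⟨β, hβ, ρ, hρ, D, nc, fun {Om ι} T i χ s hs hgood hR => ?_⟩
  obtain ⟨x0, hx0⟩ := T.ne i
  have hx0' := I_sub_P _ hx0
  set z : Fin n → ℤ := fun m => ⌊χ x0 m⌋ with hz
  have hW' : (χ.trans (tz z)) '' P (T.H i) ⊆ Metric.ball (0 : Fin n → ℝ) (|R| + 2) := by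
    rintro _ ⟨y, hy, rfl⟩
    rw [mem_ball_zero_iff, pi_norm_lt_iff hr]
    intro m
    rw [AffineEquiv.trans_apply, tz_apply, Real.norm_eq_abs, abs_lt]
    have h1 := Int.floor_le (χ x0 m)
    have h2 := Int.lt_floor_add_one (χ x0 m)
    have h3 := abs_le.1 (hR x0 hx0' y hy m)
    have h4 := le_abs_self R
    constructor <;> simp only [hz] <;> linarith
  have hW : (χ.trans (tz z)) '' P (T.H i) ⊆ interior (closedBall (0 : Fin n → ℝ) (|R| + 2)) :=
    hW'.trans ball_subset_interior_closedBall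
  have hmem : ∀ l, (P (T.H l) ∩ P (T.H i)).Nonempty →
      (χ.trans (tz z)) '' P (T.H l) ∩ closedBall (0 : Fin n → ℝ) (|R| + 2) ∈
        lst 𝒩 d (|R| + 2) := by
    rintro l ⟨y, hy1, hy2⟩
    exact mem_lst hs hd h𝒩 hr.le (hgood l ⟨y, hy1, hy2⟩)
      ⟨y, hy1, ball_subset_closedBall (hW' (mem_image_of_mem _ hy2))⟩
  refine ⟨_, (h T i (χ.trans (tz z)) hW ⟨?_, ?_⟩).of_tz⟩
  · have h1 := hmem i ⟨x0, hx0', hx0'⟩
    rwa [inter_eq_left.2 (hW'.trans ball_subset_closedBall)] at h1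
  · rintro Q ⟨j, hj, rfl⟩
    exact hmem j hj

end Crest.Agent.R096.Gsm_432
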