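import Crest.Agent.R096.Ebr3_95
import Crest.Agent.R096.Bar2_106
import Crest.Agent.R096.Bgf7_4
import Crest.Agent.R096.Ncl3_458

/-!
# Row 96, DOORS, barriers (helper63), part 1: the target facts for the patch function `Gm` (106)

`G := Gm l0 mm ra a Z ∘ sb Φ` on the frontier of the brick `c`, for a moat `Mo (Pc Φ.F) c a Z p m`.

* `Gc`, `PR` (parameters of the rectangle), `gam_mem`, `gam_Gc`, `sur_Gc`;
* `abs_Gc_sub_le`, `lip_Gc` : `Gc` is Lipschitz on the brick;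
* **`gt_Gc`** : `Ebr1_95.GT` for `Gc`;
* **`gm_Gc`** : `Bgf_4.GM` for `Gc`, between any `lo ≥ 0` and `hi ≤ s1`.
-/

set_option autoImplicit false
set_option linter.unusedSectionVars false

open Set Topology Filter Metric Module

namespace Crest.Agent.R096.Gtm_63

open Crest.Agent.R096.Bsp_628 Crest.Agent.R096.Brk1_582 Crest.Agent.R096.Brk2_582
  Crest.Agent.R096.Brk3_582 Crest.Agent.R096.Brk5_582 Crest.Agent.R096.Init_543
  Crest.Agent.R096.Mbf_337 Crest.Agent.R096.Exa_560 Crest.Agent.R096.Ess5_95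
  Crest.Agent.R096.Ebr1_95 Crest.Agent.R096.Ebr3_95 Crest.Agent.R096.Bar_106
  Crest.Agent.R096.Bgf_4 Crest.Agent.R096.Coh_184
open Crest.Agent.R096.SkC1_961 (E3 Hom3 IsPush FoamD)

variable {δ κ0 R c0 : ℝ} {La : Set E3} {Φ : FoamD δ κ0 R c0 La}

/-- the patch function of the moat `(Z, a)` as a function on the target -/
noncomputable def Gc (Φ : FoamD δ κ0 R c0 La) (l0 mm ra : ℝ) (a : Φ.F) (Z : Set Φ.F)
    (q : E3) : ℝ := Gm l0 mm ra a Z (sb Φ q)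

/-- admissible parameters of a patch -/
structure PR (l0 mm ra s1 : ℝ) : Prop where
  l0p : 0 < l0
  rap : 0 < ra
  s1p : 0 < s1
  hl : l0 * s1 < 1
  hlo : ra * s1 < mm
  hhi : ra * s1 < 1 - mm

variable {c a p m : Φ.F} {Z : Set Φ.F} {l0 mm ra s1 : ℝ}

theorem PR.mono (h : PR l0 mm ra s1) {s : ℝ} (hs0 : 0 < s) (hs : s ≤ s1) : PR l0 mm ra s :=
  ⟨h.l0p, h.rap, hs0, (mul_le_mul_of_nonneg_left hs h.l0p.le).trans_lt h.hl,
    (mul_le_mul_of_nonneg_left hs h.rap.le).trans_lt h.hlo,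
    (mul_le_mul_of_nonneg_left hs h.rap.le).trans_lt h.hhi⟩

theorem PR.rct (h : PR l0 mm ra s1) {x : ℝ × ℝ} (hx : Nr l0 mm ra x ≤ s1) : x ∈ Rct := by
  unfold Nr at hx
  rw [max_le_iff, div_le_iff₀ h.l0p, div_le_iff₀ h.rap, abs_le, abs_le] at hx
  have h1 := h.hl
  have h2 := h.hlo
  have h3 := h.hhi
  rw [mul_comm] at h1 h2 h3
  refine ⟨⟨?_, ?_⟩, ?_, ?_⟩
  · show (0 : ℝ) ≤ x.1
    linarith [hx.2.1]
  · show x.1 ≤ 1
    linarith [hx.2.2]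
  · show -1 ≤ x.2
    linarith [hx.1.1]
  · show x.2 ≤ 1
    linarith [hx.1.2]

theorem gam_mem (hLa : IsOpen La) (hM : Mo (Pc Φ.F) c a Z p m) {x : ℝ × ℝ} (hx : x ∈ Rct) :
    gam (bc (F := Φ.F)) a Z p m x ∈ frontier c.1.set := by
  rw [frontier_c Φ hLa c]
  exact hM.gam_mem (foam4 Φ hLa) hx

theorem gam_Gc (hLa : IsOpen La) (hM : Mo (Pc Φ.F) c a Z p m) {x : ℝ × ℝ} (hx : x ∈ Rct) :
    Gc Φ l0 mm ra a Z (gam (bc (F := Φ.F)) a Z p m x) = Nr l0 mm ra x :=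
  hM.Gm_gam (foam4 Φ hLa) hx

theorem sb_mem (hLa : IsOpen La) {q : E3} (hq : q ∈ c.1.set) (e : Φ.F) :
    0 ≤ sb Φ q e ∧ sb Φ q e ≤ 1 :=
  ((foam4 Φ hLa).sc_mem_K ((foam4 Φ hLa).sub c hq)).1 e

theorem Gc_nonneg (h : PR l0 mm ra s1) (q : E3) : 0 ≤ Gc Φ l0 mm ra a Z q := by
  unfold Gc Gm
  exact le_max_of_le_right (div_nonneg (abs_nonneg _) h.rap.le)

/-- **the patch is covered by the chart** -/
theorem sur_Gc (hLa : IsOpen La) (hM : Mo (Pc Φ.F) c a Z p m) (h : PR l0 mm ra s1) {q : E3}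
    (hq : q ∈ frontier c.1.set) (hG : Gc Φ l0 mm ra a Z q ≤ s1) :
    ∃ x, Nr l0 mm ra x ≤ s1 ∧ gam (bc (F := Φ.F)) a Z p m x = q := by
  rw [frontier_c Φ hLa c] at hq
  have hG' := hG
  unfold Gc Gm at hG'
  rw [max_le_iff, div_le_iff₀ h.l0p, div_le_iff₀ h.rap, abs_le] at hG'
  have h1 := h.hl
  have h2 := h.hlo
  have h3 := h.hhi
  rw [mul_comm] at h1 h2 h3
  obtain ⟨hx, he⟩ := hM.eq_gam (foam4 Φ hLa) hq.1 hq.2 (by
    show 0 < sb Φ q a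
    linarith [hG'.2.1]) (by
    show sb Φ q a < 1
    linarith [hG'.2.2]) (by
    show Fm a Z (sb Φ q) < 1
    linarith [hG'.1])
  refine ⟨_, ?_, he.symm⟩
  have h4 := gam_Gc (l0 := l0) (mm := mm) (ra := ra) hLa hM hx
  rw [← h4, ← he]
  exact hG

/-! ### Lipschitz -/

/-- `Gc` is Lipschitz for the sup norm of the levels -/
theorem abs_Gc_sub_le (hLa : IsOpen La) (hl : 0 < l0) (hra : 0 < ra) {c' : Φ.F} {q q' : E3}
    (hq : q ∈ c.1.set) (hq' : q' ∈ c'.1.set) {r : ℝ} (h : ∀ e, |sb Φ q e - sb Φ q' e| ≤ r) :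
    |Gc Φ l0 mm ra a Z q - Gc Φ l0 mm ra a Z q'| ≤ max (r / l0) (r / ra) :=
  Gm_sub_le hl hra (sb_mem hLa hq) (sb_mem hLa hq') h

/-- the Lipschitz constant of `Gc` on the brick `c` -/
noncomputable def Lg (Φ : FoamD δ κ0 R c0 La) (c : Φ.F) (l0 ra : ℝ) : ℝ :=
  max (1 / l0) (1 / ra) * (Cs 3 δ R / c.1.sz)

theorem Lg_nonneg (hδ : 0 < δ) (hR : 0 < R) (hl : 0 < l0) : 0 ≤ Lg Φ c l0 ra := by
  have hs : 0 < c.1.sz := Bx.sz_pos (Φ.bf.pos _ c.2)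
  exact mul_nonneg (le_max_of_le_left (by positivity)) (div_nonneg (Cs_nonneg hδ hR) hs.le)

theorem abs_Gc_sub_le_norm (hLa : IsOpen La) (hδ : 0 < δ) (hR : 0 < R) (hl : 0 < l0)
    (hra : 0 < ra) {q q' : E3} (hq : q ∈ c.1.set) (hq' : q' ∈ c.1.set) :
    |Gc Φ l0 mm ra a Z q - Gc Φ l0 mm ra a Z q'| ≤ Lg Φ c l0 ra * ‖q - q'‖ := by
  have h1 : ∀ e, |sb Φ q e - sb Φ q' e| ≤ Cs 3 δ R / c.1.sz * ‖q - q'‖ := fun e => by
    have h2 := Ncl_458.sc_lip_P Φ.bf hLa hδ hR Φ.cmp hq hq' e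
    rw [Fintype.card_fin] at h2
    exact h2
  have hs : 0 < c.1.sz := Bx.sz_pos (Φ.bf.pos _ c.2)
  have h0 : 0 ≤ Cs 3 δ R / c.1.sz * ‖q - q'‖ :=
    mul_nonneg (div_nonneg (Cs_nonneg hδ hR) hs.le) (norm_nonneg _)
  refine (abs_Gc_sub_le hLa hl hra hq hq' h1).trans ?_
  unfold Lg
  rw [mul_assoc]
  refine max_le ?_ ?_
  · rw [div_eq_mul_one_div, mul_comm]
    exact mul_le_mul_of_nonneg_right (le_max_left _ _) h0
  · rw [div_eq_mul_one_div, mul_comm]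
    exact mul_le_mul_of_nonneg_right (le_max_right _ _) h0

theorem lip_Gc (hLa : IsOpen La) (hδ : 0 < δ) (hR : 0 < R) (hl : 0 < l0) (hra : 0 < ra) :
    LipschitzOnWith (Lg Φ c l0 ra).toNNReal (Gc Φ l0 mm ra a Z) c.1.set := by
  refine LipschitzOnWith.of_dist_le_mul fun q hq q' hq' => ?_
  rw [Real.dist_eq, dist_eq_norm, Real.coe_toNNReal _ (Lg_nonneg hδ hR hl)]
  exact abs_Gc_sub_le_norm hLa hδ hR hl hra hq hq'

theorem frontier_sub (hLa : IsOpen La) (c : Φ.F) : frontier c.1.set ⊆ c.1.set := by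
  rw [frontier_c Φ hLa c]
  exact fun q hq => hq.1

theorem cont_Gc (hLa : IsOpen La) (hδ : 0 < δ) (hR : 0 < R) (hl : 0 < l0) (hra : 0 < ra) :
    ContinuousOn (Gc Φ l0 mm ra a Z) (frontier c.1.set) :=
  (lip_Gc hLa hδ hR hl hra).continuousOn.mono (frontier_sub hLa c)

/-! ### the two structures -/

/-- **`GT` for the patch function** -/
theorem gt_Gc (hLa : IsOpen La) (hδ : 0 < δ) (hR : 0 < R) (hM : Mo (Pc Φ.F) c a Z p m)
    (h : PR l0 mm ra s1) {g0 z0 τ z1 g1 : ℝ} (h0 : 0 ≤ g0) (hgz : g0 ≤ z0) (hz : z0 ≤ τ)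
    (hτ : τ ≤ z1) (hzg : z1 ≤ g1) (hg1 : g1 ≤ s1) :
    GT Φ c (Gc Φ l0 mm ra a Z) g0 z0 τ z1 g1 :=
  gt_of_chart hLa (cont_Gc hLa hδ hR h.l0p h.rap) h.l0p h.rap
    ((hM.continuousOn_gam (foam4 Φ hLa)).mono fun _ hx => h.rct hx)
    (fun _ hx => ⟨gam_mem hLa hM (h.rct hx), gam_Gc hLa hM (h.rct hx)⟩)
    (fun _ hq hG => sur_Gc hLa hM h hq hG) h0 hgz hz hτ hzg hg1

theorem set_le_eq (hLa : IsOpen La) (hM : Mo (Pc Φ.F) c a Z p m) (h : PR l0 mm ra s1) {t : ℝ}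
    (ht : t ≤ s1) : {q | q ∈ frontier c.1.set ∧ Gc Φ l0 mm ra a Z q ≤ t} =
      gam (bc (F := Φ.F)) a Z p m '' {x | Nr l0 mm ra x ≤ t} := by
  ext q
  constructor
  · rintro ⟨h1, h2⟩
    obtain ⟨x, hx, rfl⟩ := sur_Gc hLa hM h h1 (h2.trans ht)
    refine ⟨x, ?_, rfl⟩
    show Nr l0 mm ra x ≤ t
    rw [← gam_Gc hLa hM (h.rct hx)]; exact h2
  · rintro ⟨x, hx, rfl⟩
    have h1 := h.rct (le_trans hx ht)
    exact ⟨gam_mem hLa hM h1, by rw [gam_Gc hLa hM h1]; exact hx⟩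

theorem set_eq_eq (hLa : IsOpen La) (hM : Mo (Pc Φ.F) c a Z p m) (h : PR l0 mm ra s1) {t : ℝ}
    (ht : t ≤ s1) : {q | q ∈ frontier c.1.set ∧ Gc Φ l0 mm ra a Z q = t} =
      gam (bc (F := Φ.F)) a Z p m '' {x | Nr l0 mm ra x = t} := by
  ext q
  constructor
  · rintro ⟨h1, h2⟩
    obtain ⟨x, hx, rfl⟩ := sur_Gc hLa hM h h1 (h2.le.trans ht)
    refine ⟨x, ?_, rfl⟩
    show Nr l0 mm ra x = t
    rw [← gam_Gc hLa hM (h.rct hx)]; exact h2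
  · rintro ⟨x, hx, rfl⟩
    have hx' : Nr l0 mm ra x = t := hx
    have h1 := h.rct (hx'.le.trans ht)
    exact ⟨gam_mem hLa hM h1, by rw [gam_Gc hLa hM h1]; exact hx⟩

theorem ball_eq (h : PR l0 mm ra s1) (t : ℝ) : {x | Nr l0 mm ra x ≤ t} =
    Icc (mm - ra * t) (mm + ra * t) ×ˢ Icc (-(l0 * t)) (l0 * t) := by
  ext x
  show Nr l0 mm ra x ≤ t ↔ _
  unfold Nr
  rw [max_le_iff, div_le_iff₀ h.l0p, div_le_iff₀ h.rap, abs_le, abs_le, mem_prod, mem_Icc, mem_Icc,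
    mul_comm t, mul_comm t]
  constructor
  · rintro ⟨⟨h1, h2⟩, h3, h4⟩
    exact ⟨⟨by linarith, by linarith⟩, h1, h2⟩
  · rintro ⟨⟨h3, h4⟩, h1, h2⟩
    exact ⟨⟨h1, h2⟩, by linarith, by linarith⟩

/-- a sublevel of the patch function has trivial torsors -/
theorem trivF_Gc {B : Type*} [AddCommGroup B] (hLa : IsOpen La) (hM : Mo (Pc Φ.F) c a Z p m)
    (h : PR l0 mm ra s1) {t : ℝ} (ht : t ≤ s1) :
    TrivF B {q | q ∈ frontier c.1.set ∧ Gc Φ l0 mm ra a Z q ≤ t} := by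
  rw [set_le_eq hLa hM h ht]
  have hsub : {x | Nr l0 mm ra x ≤ t} ⊆ Rct := fun x hx => h.rct (le_trans hx ht)
  refine Lab_184.trivF_convex ?_ ?_ ((hM.continuousOn_gam (foam4 Φ hLa)).mono hsub)
    ((hM.gam_injOn (foam4 Φ hLa)).mono hsub)
  · rw [ball_eq h]; exact isCompact_Icc.prod isCompact_Icc
  · rw [ball_eq h]; exact (convex_Icc _ _).prod (convex_Icc _ _)

/-- the point of the patch at height `t` on its horizontal axis -/
theorem gam_ax (hLa : IsOpen La) (hM : Mo (Pc Φ.F) c a Z p m) (h : PR l0 mm ra s1) {t : ℝ}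
    (ht0 : 0 ≤ t) (ht : t ≤ s1) :
    gam (bc (F := Φ.F)) a Z p m (mm + ra * t, 0) ∈ frontier c.1.set ∧
      Gc Φ l0 mm ra a Z (gam (bc (F := Φ.F)) a Z p m (mm + ra * t, 0)) = t := by
  have h1 : Nr l0 mm ra (mm + ra * t, 0) = t := by
    unfold Nr
    have h2 := h.rap
    simp only [abs_zero, zero_div, add_sub_cancel_left, abs_mul, abs_of_pos h2,
      abs_of_nonneg ht0]
    rw [mul_div_cancel_left₀ _ h2.ne', max_eq_right ht0]
  have h2 := h.rct (h1.le.trans ht)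
  exact ⟨gam_mem hLa hM h2, (gam_Gc hLa hM h2).trans h1⟩

/-- **`GM` for the patch function** -/
theorem gm_Gc (hLa : IsOpen La) (hδ : 0 < δ) (hR : 0 < R) (hM : Mo (Pc Φ.F) c a Z p m)
    (h : PR l0 mm ra s1) {lo hi : ℝ} (h0 : 0 ≤ lo) (hlh : lo < hi) (hhi : hi ≤ s1) :
    GM Φ c (Gc Φ l0 mm ra a Z) lo hi where
  lo0 := h0
  lt := hlh
  lip := ⟨_, (lip_Gc hLa hδ hR h.l0p h.rap).mono (frontier_sub hLa c)⟩
  low := ⟨_, (gam_ax hLa hM h h0 (hlh.le.trans hhi)).1,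
    (gam_ax hLa hM h h0 (hlh.le.trans hhi)).2.le⟩
  high := ⟨_, (gam_ax hLa hM h (h0.trans hlh.le) hhi).1,
    (gam_ax hLa hM h (h0.trans hlh.le) hhi).2.ge⟩
  eq := fun t ht => by
    rw [set_eq_eq hLa hM h (ht.2.le.trans hhi)]
    exact (preconn_Nr_eq h.l0p h.rap t).image _ ((hM.continuousOn_gam (foam4 Φ hLa)).mono
      fun x hx => h.rct (le_trans (le_of_eq hx) (ht.2.le.trans hhi)))
  triv := fun t ht => trivF_Gc hLa hM h (ht.2.le.trans hhi)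

end Crest.Agent.R096.Gtm_63
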