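import Crest.Agent.R096.Cns4_778
import Crest.Agent.R096.Ebr8_95

/-!
# R096 (row 96), DOORS, NE1 (helper395): leaf G4 of 778, **the top part of a barrier over an end wall
is connected**

* `gma_conn_on` : 778's `gma_conn` over a part `Bs` of the frontier of the brick;
* `Gle`, `Gge`  : the part of the barrier of record above `ρ3 + 7 d` with `lev am ≤ t0` (`t0 ≤ lev am`);
* `gle_conn`, `gge_conn` : they are connected; `mem_gle`, `mem_gge` : the points of the name `m` on a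
  tile with a point above `ρ3 + 8 d` in the end zone lie in them;
* **`exists_top_le`, `exists_top_ge`** : the literal of G4 for both end walls.
-/

set_option autoImplicit false
set_option linter.unusedSectionVars false
set_option linter.unusedVariables false
set_option linter.style.longLine false

open Set Topology Filter Metric Module Relation
open scoped Classical

namespace Crest.Agent.R096.Gtp_395

open Crest.Agent.R096.Msh_715 Crest.Agent.R096.Coh_184 Crest.Agent.R096.Lab_184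
  Crest.Agent.R096.Main_4 Crest.Agent.R096.Agl5_543
  Crest.Agent.R096.Seq_213 Crest.Agent.R096.St_147 Crest.Agent.R096.Door_501
  Crest.Agent.R096.Twr_438 Crest.Agent.R096.Exa_560
  Crest.Agent.R096.Ess3_95 Crest.Agent.R096.Ess4_95
  Crest.Agent.R096.Dfi_471 Crest.Agent.R096.Sla_184
  Crest.Agent.R096.Brk1_582 Crest.Agent.R096.Brk2_582 Crest.Agent.R096.Brk3_582
  Crest.Agent.R096.Brk5_582 Crest.Agent.R096.Bsp_628 Crest.Agent.R096.Init_543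
  Crest.Agent.R096.Dib_438 Crest.Agent.R096.Rop_441
  Crest.Agent.R096.Frs_662 Crest.Agent.R096.Cg_501 Crest.Agent.R096.SecW_892
  Crest.Agent.R096.Nmd1_698 Crest.Agent.R096.Pbn_147 Crest.Agent.R096.Bar_106
  Crest.Agent.R096.Ebr1_95 Crest.Agent.R096.Ebr3_95
  Crest.Agent.R096.Ebr4_95 Crest.Agent.R096.Ebr8_95 Crest.Agent.R096.Bgf_4
  Crest.Agent.R096.Ess5_95 Crest.Agent.R096.Cns_778
open Crest.Agent.R096.Sgo_298 (RmA rout ActR)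
open Crest.Agent.R096.Mbf_337 (KJ Tiny Cores Fine Words sb gau)
open Crest.Agent.R096.SkC1_961 (E3 FoamD Hom3 IsPush)
open Crest.Agent.R096.Frn_337 (Ti)
open Crest.Agent.R096.Ess7_95 (KT)
open Crest.Agent.R096.Bmf_416 (coT coT_fin)
open Crest.Agent.R096.Sphg_316
open Crest.Agent.R96.Push_899

section gen

variable {δ κ0 R c0 : ℝ} {La Om : Set E3} {ι : Type} {Φ : FoamD δ κ0 R c0 La}
  {T : Tiling Om ι} {f g : E3 → E3}
  {J0 J V : Φ.F → Set ι} {θ : Φ.F → E3 → E3} {Mo : Type} {co : Mo → Φ.F}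
  {ρ1 ρ2 ρ3 ρ4 d : Mo → ℝ} {G : Mo → E3 → ℝ} {rm h lo hi ω : Mo → ℝ} {q₀ : Mo → E3}
  {g0 ε rr : Mo → ℝ}

/-- **the upper part of a barrier over a part `Bs` of the frontier of the brick is connected** -/
theorem gma_conn_on (hB : BarF Φ T f J0 J V θ co ρ1 ρ2 ρ3 ρ4 d G rm h lo hi ω q₀ g0)
    (hLa : IsOpen La) (H : Hm f g Om La) (hε : ∀ m, ε m ∈ Ioo (lo m) (hi m)) {m : Mo} {Bs : Set E3}
    (hE : IsPreconnected {q | q ∈ frontier (co m).1.set ∧ G m q = ε m ∧ q ∈ Bs})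
    (hL : IsPreconnected {q | q ∈ frontier (co m).1.set ∧ G m q ≤ ε m ∧ q ∈ Bs})
    (hn : {q | q ∈ frontier (co m).1.set ∧ G m q = ε m ∧ q ∈ Bs}.Nonempty)
    (h0 : 0 < rr m) (h1 : rm m - h m * ε m < rr m) (h2 : rr m ≤ rm m + h m * ε m) :
    IsPreconnected (Gma Om Φ f co (lM Φ co rm h hi G) ε rr m ∩ {x | Φ.Psi (f x) ∈ Bs}) := by
  obtain ⟨p, hP⟩ := hB.pol hLa m
  have hr := hB.room m
  have hG := hB.gm m
  have hh := hB.h0 m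
  have hεm := hε m
  have hεhi : h m * ε m < h m * hi m := mul_lt_mul_of_pos_left hεm.2 hh
  have hd := hr.d0
  have ha1 : rm m + h m * ε m ≤ ρ4 m := by linarith [hB.a1' m]
  have hε0 : 0 < ε m := lt_of_le_of_lt hG.lo0 hεm.1
  have hhε : 0 < h m * ε m := mul_pos hh hε0
  set a1 : ℝ := rm m + h m * ε m with ha1d
  set A : Set E3 := {q | q ∈ frontier (co m).1.set ∧ G m q = ε m ∧ q ∈ Bs} with hA
  set B : Set E3 := {q | q ∈ frontier (co m).1.set ∧ G m q ≤ ε m ∧ q ∈ Bs} with hBd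
  have c1 := hP.prod_conn (A := A) (fun q hq => hq.1) hE h0 ha1
  have c2 := hP.prod_conn (A := B) (fun q hq => hq.1) hL (h0.trans_le h2) ha1
  obtain ⟨q, hq, hqe, hqB⟩ := hn
  have hmem : a1 ∈ Ioc 0 (ρ4 m) := ⟨h0.trans_le h2, ha1⟩
  have e1 := hP.gau a1 hmem q hq
  have e2 := hP.psi a1 hmem q hq
  have m1 : p (a1, q) ∈ {y | (rr m ≤ ga Φ (co m) y ∧ ga Φ (co m) y ≤ a1) ∧ Φ.Psi y ∈ A} :=
    ⟨⟨by rw [e1]; exact h2, e1.le⟩, by rw [e2]; exact ⟨hq, hqe, hqB⟩⟩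
  have m2 : p (a1, q) ∈ {y | (a1 ≤ ga Φ (co m) y ∧ ga Φ (co m) y ≤ a1) ∧ Φ.Psi y ∈ B} :=
    ⟨⟨e1.ge, e1.le⟩, by rw [e2]; exact ⟨hq, hqe.le, hqB⟩⟩
  have c3 := c1.union (p (a1, q)) m1 m2 c2
  have hb : Bod (Φ.B (co m)).lo (Pc Φ.F (co m)) := Pse_316.bod_brick Φ (co m) (hB.pt m)
  have hgf : ga Φ (co m) = Ng (Φ.B (co m)).lo (Pc Φ.F (co m)) :=
    funext (Etg_163.gg_eq Φ (co m))
  have hDL : {y | ga Φ (co m) y ≤ ρ4 m} ⊆ La := by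
    rw [hgf]
    exact (hb.le_sub hr.r4.le).trans (Φ.bf.sub (co m).1 (co m).2)
  have c4 := H.preconn_pre (D := _) (fun y hy => hDL (show ga Φ (co m) y ≤ ρ4 m by
    rcases hy with hy | hy
    · exact hy.1.2.trans ha1
    · exact hy.1.2.trans ha1)) c3
  have e : Gma Om Φ f co (lM Φ co rm h hi G) ε rr m ∩ {x | Φ.Psi (f x) ∈ Bs} = Om ∩ f ⁻¹'
      ({y | (rr m ≤ ga Φ (co m) y ∧ ga Φ (co m) y ≤ a1) ∧ Φ.Psi y ∈ A} ∪
        {y | (a1 ≤ ga Φ (co m) y ∧ ga Φ (co m) y ≤ a1) ∧ Φ.Psi y ∈ B}) := by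
    ext x
    constructor
    · rintro ⟨⟨k1, k2, k3⟩, k4⟩
      obtain ⟨n1, n2, n3, n4⟩ := hB.pos hεm.2 k2
      have hfr := (hP.inv (f x) (h0.trans_le k3) (n2.trans ha1)).1
      refine ⟨k1, ?_⟩
      rcases n4 with n | n | n
      · linarith
      · exact Or.inr ⟨⟨n.ge, n.le⟩, hfr, n3, k4⟩
      · exact Or.inl ⟨⟨k3, n2⟩, hfr, n, k4⟩
    · rintro ⟨k1, k2⟩
      have key : rr m ≤ ga Φ (co m) (f x) ∧ ga Φ (co m) (f x) ≤ a1 ∧ G m (Φ.Psi (f x)) ≤ ε m ∧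
          (ga Φ (co m) (f x) = a1 ∨ G m (Φ.Psi (f x)) = ε m) ∧ Φ.Psi (f x) ∈ Bs := by
        rcases k2 with ⟨⟨n1, n2⟩, n3⟩ | ⟨⟨n1, n2⟩, n3⟩
        · exact ⟨n1, n2, n3.2.1.le, Or.inr n3.2.1, n3.2.2⟩
        · exact ⟨h2.trans n1, n2, n3.2.1, Or.inl (le_antisymm n2 n1), n3.2.2⟩
      obtain ⟨n1, n2, n3, n4, n5⟩ := key
      refine ⟨⟨k1, (bl_eq_iff hεm.2).2 ?_, n1⟩, n5⟩
      have u1 : |ga Φ (co m) (f x) - rm m| / h m ≤ ε m := by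
        rw [div_le_iff₀ hh, abs_le]
        constructor <;> linarith
      rcases n4 with n | n
      · rw [n]
        have u2 : |a1 - rm m| / h m = ε m := by
          rw [ha1d, add_sub_cancel_left, abs_of_pos hhε, mul_div_cancel_left₀ _ hh.ne']
        rw [u2]
        exact max_eq_left n3
      · rw [n]
        exact max_eq_right u1
  rw [e]
  exact c4

end gen

section mach

variable {δ κ0 R c0 : ℝ} {La Om : Set E3} {ι : Type} {Φ : FoamD δ κ0 R c0 La} {T : Tiling Om ι}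
  {f g : E3 → E3} {κ1 κ2 μ : ℝ} {X : Set Φ.F} {J0 J V : Φ.F → Set ι}
  {ct ct' : Φ.F → ι} {Aj : Φ.F → E3 ≃ᵃ[ℝ] E3} {lam : Φ.F → ℝ} {z : Φ.F → E3}
  {θ : Φ.F → E3 → E3} {φ : Φ.F → E3 → ℝ} {r₀ : Φ.F → ℝ} {ρ1 ρ2 ρ3 ρ4 d : Φ.F → ℝ}
  {L : Φ.F → Finset ℝ} [Nonempty (JJ Φ L)] {hG : GF Φ r₀ T f L} {bp : JJ Φ L → E3}
  {Nn : BM Φ X → Set ℝ} {q₀ : BM Φ X → E3} {ε : BM Φ X → ℝ} {bm : BM Φ X → E3}
  {hGB : GFB Φ r₀ T f L (lRc Φ X μ ρ1 ρ3 d) ε}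
  {v0B v1B : ∀ c, BM Φ X → VxK T (KT T J X) c}

/-- the part of the barrier above `ρ3 + 7 d` with `lev am ≤ t0` -/
abbrev Gle (Om : Set E3) (Φ : FoamD δ κ0 R c0 La) (f : E3 → E3) (X : Set Φ.F) (μ : ℝ)
    (ρ1 ρ3 d : Φ.F → ℝ) (ε t0 : BM Φ X → ℝ) (m : BM Φ X) : Set E3 :=
  GmT Om Φ f X μ ρ1 ρ3 d ε m ∩ {x | Φ.Psi (f x) ∈ {q | sb Φ q m.am ≤ t0 m}}

/-- the part of the barrier above `ρ3 + 7 d` with `t0 ≤ lev am` -/
abbrev Gge (Om : Set E3) (Φ : FoamD δ κ0 R c0 La) (f : E3 → E3) (X : Set Φ.F) (μ : ℝ)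
    (ρ1 ρ3 d : Φ.F → ℝ) (ε t0 : BM Φ X → ℝ) (m : BM Φ X) : Set E3 :=
  GmT Om Φ f X μ ρ1 ρ3 d ε m ∩ {x | Φ.Psi (f x) ∈ {q | t0 m ≤ sb Φ q m.am}}

theorem gle_lev {t0 : BM Φ X → ℝ} {m : BM Φ X} {x : E3}
    (hx : x ∈ Gle Om Φ f X μ ρ1 ρ3 d ε t0 m) : Φ.lev m.am (f x) ≤ t0 m := hx.2

theorem gge_lev {t0 : BM Φ X → ℝ} {m : BM Φ X} {x : E3}
    (hx : x ∈ Gge Om Φ f X μ ρ1 ρ3 d ε t0 m) : t0 m ≤ Φ.lev m.am (f x) := hx.2

section conn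

variable (hLa : IsOpen La) (H : Hm f g Om La)
  (hB : BarOut Φ T f κ1 μ X J0 J V θ hG bp Nn ρ1 ρ2 ρ3 ρ4 d q₀ ε bm hGB v0B v1B)
  (hμ : 0 < μ) (hμ1 : μ ≤ 1 / 2)
include hLa H hB hμ hμ1

theorem gle_conn {t0 : BM Φ X → ℝ} {m : BM Φ X} (h1 : 5 * μ / 16 ≤ t0 m)
    (h2 : t0 m ≤ 1 - 5 * μ / 16) :
    IsPreconnected (Gle Om Φ f X μ ρ1 ρ3 d ε t0 m) := by
  obtain ⟨p, q, hM⟩ := m.mo
  have hε := hB.lv m
  have hN := Ebr6_95.nm_rec' (s := μ / 16) hμ hμ1 (by positivity) (by linarith)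
  have hle : ε m ≤ 1 + μ / 16 := hε.2.le.trans (hiB_le (μ / 16) m.co)
  have hra : 0 < 1 / 2 - 5 * μ / 16 := by linarith
  have k1 : 1 * (1 / 2 - 5 * μ / 16) < ε m * (1 / 2 - 5 * μ / 16) :=
    mul_lt_mul_of_pos_right hε.1 hra
  obtain ⟨a1, a2, a3⟩ := moat_le (t0 := t0 m) (τ := ε m) hLa hM hN (by linarith [hε.1]) hle
    (by linarith) (by linarith)
  obtain ⟨c1, c2, c3, c4, c5, c6, c7⟩ := caps hB.barF hB.lv m
  exact gma_conn_on (rr := fun m : BM Φ X => ρ3 m.co + 7 * d m.co) hB.barF hLa H hB.lv (m := m)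
    a1 a2 a3 (by show 0 < ρ3 m.co + 7 * d m.co; linarith)
    (by show _ < ρ3 m.co + 7 * d m.co; linarith) (by show ρ3 m.co + 7 * d m.co ≤ _; linarith)

theorem gge_conn {t0 : BM Φ X → ℝ} {m : BM Φ X} (h1 : 5 * μ / 16 ≤ t0 m)
    (h2 : t0 m ≤ 1 - 5 * μ / 16) :
    IsPreconnected (Gge Om Φ f X μ ρ1 ρ3 d ε t0 m) := by
  obtain ⟨p, q, hM⟩ := m.mo
  have hε := hB.lv m
  have hN := Ebr6_95.nm_rec' (s := μ / 16) hμ hμ1 (by positivity) (by linarith)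
  have hle : ε m ≤ 1 + μ / 16 := hε.2.le.trans (hiB_le (μ / 16) m.co)
  have hra : 0 < 1 / 2 - 5 * μ / 16 := by linarith
  have k1 : 1 * (1 / 2 - 5 * μ / 16) < ε m * (1 / 2 - 5 * μ / 16) :=
    mul_lt_mul_of_pos_right hε.1 hra
  obtain ⟨a1, a2, a3⟩ := moat_ge (t0 := t0 m) (τ := ε m) hLa hM hN (by linarith [hε.1]) hle
    (by linarith) (by linarith)
  obtain ⟨c1, c2, c3, c4, c5, c6, c7⟩ := caps hB.barF hB.lv m
  exact gma_conn_on (rr := fun m : BM Φ X => ρ3 m.co + 7 * d m.co) hB.barF hLa H hB.lv (m := m)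
    a1 a2 a3 (by show 0 < ρ3 m.co + 7 * d m.co; linarith)
    (by show _ < ρ3 m.co + 7 * d m.co; linarith) (by show ρ3 m.co + 7 * d m.co ≤ _; linarith)

omit hLa H hμ hμ1 in
/-- a point of the name `m` on a tile with a point above `ρ3 + 8 d` -/
theorem near_top {m : BM Φ X} {w x : E3} {q : ι} (hw : w ∈ (stB hGB bp bm).P)
    (hl : (stB hGB bp bm).lab w = Sum.inr m) (hwq : w ∈ P (T.H q)) (hx : x ∈ P (T.H q))
    (hg : ρ3 m.co + 8 * d m.co ≤ ga Φ m.co (f x)) :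
    w ∈ GmT Om Φ f X μ ρ1 ρ3 d ε m ∧ |Φ.lev m.am (f w) - Φ.lev m.am (f x)| ≤ d m.co := by
  obtain ⟨g1, -, g2, -⟩ := hB.pos m w hw hl
  obtain ⟨g3, g4⟩ := hB.gau m w hw hl
  have hr := (hB.rm m.co m.co_notMem).2
  obtain ⟨o1, -, o2⟩ := hr.tile_osc hwq (by linarith [hr.d0]) (by linarith [hr.d0, hr.r34]) hx
  refine ⟨⟨g1, g2, ?_⟩, o2 m.am⟩
  have := (abs_le.1 o1).1
  show ρ3 m.co + 7 * d m.co ≤ ga Φ m.co (f w)
  linarith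

omit hLa H hμ hμ1 in
theorem mem_gle {t0 : BM Φ X → ℝ} {m : BM Φ X} {w x : E3} {q : ι} (hw : w ∈ (stB hGB bp bm).P)
    (hl : (stB hGB bp bm).lab w = Sum.inr m) (hwq : w ∈ P (T.H q)) (hx : x ∈ P (T.H q))
    (hg : ρ3 m.co + 8 * d m.co ≤ ga Φ m.co (f x)) (ht : Φ.lev m.am (f x) + d m.co ≤ t0 m) :
    w ∈ Gle Om Φ f X μ ρ1 ρ3 d ε t0 m := by
  obtain ⟨h1, h2⟩ := near_top hB hw hl hwq hx hg
  refine ⟨h1, ?_⟩
  show Φ.lev m.am (f w) ≤ t0 m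
  linarith [(abs_le.1 h2).2]

omit hLa H hμ hμ1 in
theorem mem_gge {t0 : BM Φ X → ℝ} {m : BM Φ X} {w x : E3} {q : ι} (hw : w ∈ (stB hGB bp bm).P)
    (hl : (stB hGB bp bm).lab w = Sum.inr m) (hwq : w ∈ P (T.H q)) (hx : x ∈ P (T.H q))
    (hg : ρ3 m.co + 8 * d m.co ≤ ga Φ m.co (f x)) (ht : t0 m ≤ Φ.lev m.am (f x) - d m.co) :
    w ∈ Gge Om Φ f X μ ρ1 ρ3 d ε t0 m := by
  obtain ⟨h1, h2⟩ := near_top hB hw hl hwq hx hg
  refine ⟨h1, ?_⟩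
  show t0 m ≤ Φ.lev m.am (f w)
  linarith [(abs_le.1 h2).1]

/-- **G4, the end wall `lev am ≤ 3 μ / 8`** -/
theorem exists_top_le (hκ : κ1 < μ / 32) :
    ∃ Gn : BM Φ X → Set E3, (∀ m, IsPreconnected (Gn m)) ∧
      (∀ m, Gn m ⊆ GmT Om Φ f X μ ρ1 ρ3 d ε m) ∧
      (∀ m, ∀ x ∈ Gn m, Φ.lev m.am (f x) ≤ 3 * μ / 8 + 2 * d m.co) ∧
      ∀ m, ∀ w ∈ (stB hGB bp bm).P, (stB hGB bp bm).lab w = Sum.inr m →
        (∃ q, w ∈ P (T.H q) ∧ ∃ x ∈ P (T.H q), ga Φ m.co (f x) = ρ3 m.co + 9 * d m.co ∧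
          Φ.lev m.am (f x) ≤ 3 * μ / 8) → w ∈ Gn m := by
  refine ⟨Gle Om Φ f X μ ρ1 ρ3 d ε (fun m => 3 * μ / 8 + 2 * d m.co), fun m => ?_,
    fun m x hx => hx.1, fun m x hx => gle_lev hx, ?_⟩
  · have h1 := (hB.rm m.co m.co_notMem).1
    have h2 := (hB.rm m.co m.co_notMem).2.d0
    exact gle_conn hLa H hB hμ hμ1 (by show _ ≤ 3 * μ / 8 + 2 * d m.co; linarith)
      (by show 3 * μ / 8 + 2 * d m.co ≤ _; linarith)
  · rintro m w hw hl ⟨q, hwq, x, hx, h1, h2⟩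
    have h3 := (hB.rm m.co m.co_notMem).2.d0
    exact mem_gle hB hw hl hwq hx (by linarith)
      (by show _ ≤ 3 * μ / 8 + 2 * d m.co; linarith)

/-- **G4, the end wall `1 - 3 μ / 8 ≤ lev am`** -/
theorem exists_top_ge (hκ : κ1 < μ / 32) :
    ∃ Gn : BM Φ X → Set E3, (∀ m, IsPreconnected (Gn m)) ∧
      (∀ m, Gn m ⊆ GmT Om Φ f X μ ρ1 ρ3 d ε m) ∧
      (∀ m, ∀ x ∈ Gn m, 1 - 3 * μ / 8 - 2 * d m.co ≤ Φ.lev m.am (f x)) ∧
      ∀ m, ∀ w ∈ (stB hGB bp bm).P, (stB hGB bp bm).lab w = Sum.inr m →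
        (∃ q, w ∈ P (T.H q) ∧ ∃ x ∈ P (T.H q), ga Φ m.co (f x) = ρ3 m.co + 9 * d m.co ∧
          1 - 3 * μ / 8 ≤ Φ.lev m.am (f x)) → w ∈ Gn m := by
  refine ⟨Gge Om Φ f X μ ρ1 ρ3 d ε (fun m => 1 - 3 * μ / 8 - 2 * d m.co), fun m => ?_,
    fun m x hx => hx.1, fun m x hx => gge_lev hx, ?_⟩
  · have h1 := (hB.rm m.co m.co_notMem).1
    have h2 := (hB.rm m.co m.co_notMem).2.d0
    exact gge_conn hLa H hB hμ hμ1 (by show _ ≤ 1 - 3 * μ / 8 - 2 * d m.co; linarith)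
      (by show 1 - 3 * μ / 8 - 2 * d m.co ≤ _; linarith)
  · rintro m w hw hl ⟨q, hwq, x, hx, h1, h2⟩
    have h3 := (hB.rm m.co m.co_notMem).2.d0
    exact mem_gge hB hw hl hwq hx (by linarith)
      (by show 1 - 3 * μ / 8 - 2 * d m.co ≤ _; linarith)

end conn

end mach

end Crest.Agent.R096.Gtp_395
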