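import Mathlib

/-!
# R096 (row 96), P2-GEN, EXIST (helper451), part 0: plane arrangements in steep position; Cousin slabs
-/

set_option autoImplicit false

open Set Topology Filter Metric Module

namespace Crest.Agent.R096.Gx_451

/-- the space -/
abbrev E3 := Fin 3 → ℝ

/-- a family of planes -/
structure Arr (I : Type) where
  a : I → (E3 →L[ℝ] ℝ)
  c : I → ℝ

variable {I : Type} (A : Arr I)

/-- the planes -/
def Arr.H (i : I) : Set E3 := {x | A.a i x = A.c i}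

theorem Arr.mem_H {i : I} {x : E3} : x ∈ A.H i ↔ A.a i x = A.c i := Iff.rfl

theorem Arr.isClosed_H (i : I) : IsClosed (A.H i) :=
  isClosed_eq (A.a i).continuous continuous_const

/-- intersection lines are not horizontal; `C` bounds the slopes -/
def Arr.Steep (C : ℝ) : Prop := ∀ i j, A.H i ≠ A.H j → ∀ x ∈ A.H i ∩ A.H j,
  ∀ y ∈ A.H i ∩ A.H j, |x 0 - y 0| ≤ C * |x 2 - y 2| ∧ |x 1 - y 1| ≤ C * |x 2 - y 2|

/-- no rational point on a plane -/
def Arr.Irr : Prop := ∀ i, ∀ q : Fin 3 → ℚ, (fun j => (q j : ℝ)) ∉ A.H i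

/-- the traces of the intersection lines at height `t` -/
def Arr.Tr (t : ℝ) : Set E3 := {m | m 2 = t ∧ ∃ i j, A.H i ≠ A.H j ∧ m ∈ A.H i ∩ A.H j}

/-- planes which meet a small cube about a trace contain the trace -/
def Arr.Good (t ρ : ℝ) : Prop :=
  ∀ m ∈ A.Tr t, ∀ i, (A.H i ∩ closedBall m ρ).Nonempty → m ∈ A.H i

variable {A} {C : ℝ}

theorem Arr.Steep.eq (h : A.Steep C) {i j : I} (hij : A.H i ≠ A.H j) {x y : E3}
    (hx : x ∈ A.H i ∩ A.H j) (hy : y ∈ A.H i ∩ A.H j) (h2 : x 2 = y 2) : x = y := by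
  obtain ⟨h0, h1⟩ := h i j hij x hx y hy
  rw [h2, sub_self, abs_zero, mul_zero] at h0 h1
  funext k
  fin_cases k
  · have : |x 0 - y 0| = 0 := le_antisymm (by linarith) (abs_nonneg _)
    exact sub_eq_zero.1 (abs_eq_zero.1 this)
  · have : |x 1 - y 1| = 0 := le_antisymm (by linarith) (abs_nonneg _)
    exact sub_eq_zero.1 (abs_eq_zero.1 this)
  · exact h2

theorem Arr.Steep.tr_finite [Finite I] (h : A.Steep C) (t : ℝ) : (A.Tr t).Finite := by
  classical
  have : A.Tr t ⊆ ⋃ p : I × I, {m | A.H p.1 ≠ A.H p.2 ∧ m ∈ A.H p.1 ∩ A.H p.2 ∧ m 2 = t} := by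
    rintro m ⟨h2, i, j, hij, hm⟩
    exact mem_iUnion.2 ⟨(i, j), hij, hm, h2⟩
  refine (finite_iUnion fun p => ?_).subset this
  refine Set.Subsingleton.finite ?_
  rintro x ⟨hij, hx, hx2⟩ y ⟨_, hy, hy2⟩
  exact h.eq hij hx hy (hx2.trans hy2.symm)

theorem Arr.Steep.exists_good [Finite I] (h : A.Steep C) (t : ℝ) : ∃ ρ > 0, A.Good t ρ := by
  have h1 : ∀ᶠ ρ in 𝓝[>] (0 : ℝ), ∀ m ∈ A.Tr t, ∀ i, (A.H i ∩ closedBall m ρ).Nonempty →
      m ∈ A.H i := by
    rw [Filter.eventually_all_finite (h.tr_finite t)]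
    intro m _
    rw [Filter.eventually_all]
    intro i
    by_cases hm : m ∈ A.H i
    · exact Filter.Eventually.of_forall fun _ _ => hm
    · obtain ⟨ε, hε, hb⟩ := Metric.isOpen_iff.1 (A.isClosed_H i).isOpen_compl m hm
      have h2 : ∀ᶠ ρ in 𝓝[>] (0 : ℝ), ρ < ε := (gt_mem_nhds hε).filter_mono nhdsWithin_le_nhds
      filter_upwards [h2] with ρ hρ hne
      obtain ⟨y, hy1, hy2⟩ := hne
      exact (hb (closedBall_subset_ball hρ hy2) hy1).elim
  obtain ⟨ρ, hρ, hρ0⟩ := (h1.and self_mem_nhdsWithin).exists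
  exact ⟨ρ, hρ0, hρ⟩

/-- intersection lines reach every height -/
theorem Arr.Steep.exists_at (h : A.Steep C) {i j : I} (hij : A.H i ≠ A.H j) {x : E3}
    (hx : x ∈ A.H i ∩ A.H j) (t : ℝ) : ∃ m ∈ A.H i ∩ A.H j, m 2 = t := by
  have hk : LinearMap.ker (((A.a i : E3 →ₗ[ℝ] ℝ)).prod (A.a j : E3 →ₗ[ℝ] ℝ)) ≠ ⊥ := by
    apply LinearMap.ker_ne_bot_of_finrank_lt
    simp
  obtain ⟨v, hv, hv0⟩ := Submodule.exists_mem_ne_zero_of_ne_bot hk
  rw [LinearMap.mem_ker] at hv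
  have hvi : A.a i v = 0 := congrArg Prod.fst hv
  have hvj : A.a j v = 0 := congrArg Prod.snd hv
  have hline : ∀ s : ℝ, x + s • v ∈ A.H i ∩ A.H j := by
    intro s
    constructor
    · rw [A.mem_H, map_add, map_smul, hvi, smul_zero, add_zero]; exact hx.1
    · rw [A.mem_H, map_add, map_smul, hvj, smul_zero, add_zero]; exact hx.2
  have hv2 : v 2 ≠ 0 := by
    intro h2
    apply hv0
    have := h.eq hij (hline 1) hx (by simp [h2])
    simpa using this
  refine ⟨x + ((t - x 2) / v 2) • v, hline _, ?_⟩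
  simp only [Pi.add_apply, Pi.smul_apply, smul_eq_mul]
  field_simp
  ring

/-- different traces are far from each other -/
theorem Arr.Good.far (h : A.Steep C) {t ρ : ℝ} (hg : A.Good t ρ) {m m' : E3} (hm : m ∈ A.Tr t)
    (hm' : m' ∈ A.Tr t) (hb : m' ∈ closedBall m ρ) : m' = m := by
  obtain ⟨h2', i, j, hij, hi, hj⟩ := hm'
  have h3 := hg m hm i ⟨m', hi, hb⟩
  have h4 := hg m hm j ⟨m', hj, hb⟩
  exact h.eq hij ⟨hi, hj⟩ ⟨h3, h4⟩ (h2'.trans hm.1.symm)

/-! ### Cousin -/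

theorem cousin (ρ : ℝ → ℝ) (hρ : ∀ t, 0 < ρ t) (B : ℝ) :
    ∃ (n : ℕ) (z : ℕ → ℚ) (t : ℕ → ℝ), (z 0 : ℝ) < -B ∧ B < z n ∧
      ∀ k < n, (z k : ℝ) < t k ∧ t k < z (k + 1) ∧ (z (k + 1) : ℝ) - z k ≤ ρ (t k) := by
  set P : ℚ → Prop := fun y => ∃ (n : ℕ) (z : ℕ → ℚ) (t : ℕ → ℝ), (z 0 : ℝ) < -B ∧ z n = y ∧
      ∀ k < n, (z k : ℝ) < t k ∧ t k < z (k + 1) ∧ (z (k + 1) : ℝ) - z k ≤ ρ (t k) with hP
  suffices hs : ∃ y : ℚ, B < y ∧ P y by
    obtain ⟨y, hy, n, z, t, h0, h1, h2⟩ := hs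
    exact ⟨n, z, t, h0, by rw [h1]; exact hy, h2⟩
  have htr : ∀ y, P y → ∀ ε : ℝ, 0 < ε → ∃ y' : ℚ, (y : ℝ) - ε < y' ∧ (y' : ℝ) < y ∧ P y' := by
    rintro y ⟨n, z, t, h0, h1, h2⟩ ε hε
    rcases n with _ | n
    · obtain ⟨y', hy1, hy2⟩ := exists_rat_btwn (show (y : ℝ) - ε < y by linarith)
      refine ⟨y', hy1, hy2, 0, fun _ => y', t, ?_, rfl, fun k hk => absurd hk (Nat.not_lt_zero k)⟩
      rw [h1] at h0
      linarith
    · obtain ⟨h3, h4, h5⟩ := h2 n (Nat.lt_succ_self n)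
      rw [h1] at h4 h5
      obtain ⟨y', hy1, hy2⟩ := exists_rat_btwn (show max ((y : ℝ) - ε) (t n) < y from
        max_lt (by linarith) h4)
      refine ⟨y', lt_of_le_of_lt (le_max_left _ _) hy1, hy2, n + 1, Function.update z (n + 1) y', t,
        ?_, by simp, fun k hk => ?_⟩
      · rw [Function.update_of_ne (by omega)]; exact h0
      · rw [Function.update_of_ne (show k ≠ n + 1 by omega)]
        rcases Nat.lt_or_ge k n with hkn | hkn
        · rw [Function.update_of_ne (show k + 1 ≠ n + 1 by omega)]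
          exact h2 k hk
        · have : k = n := by omega
          subst this
          rw [Function.update_self]
          exact ⟨h3, lt_of_le_of_lt (le_max_right _ _) hy1, by linarith⟩
  have hex : ∀ y, P y → ∀ (s : ℝ) (y' : ℚ), (y : ℝ) < s → s < y' → (y' : ℝ) - y ≤ ρ s → P y' := by
    rintro y ⟨n, z, t, h0, h1, h2⟩ s y' h3 h4 h5
    refine ⟨n + 1, Function.update z (n + 1) y', Function.update t n s, ?_, by simp, fun k hk => ?_⟩
    · rw [Function.update_of_ne (by omega)]; exact h0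
    · rw [Function.update_of_ne (show k ≠ n + 1 by omega)]
      rcases Nat.lt_or_ge k n with hkn | hkn
      · rw [Function.update_of_ne (show k + 1 ≠ n + 1 by omega),
          Function.update_of_ne (show k ≠ n by omega)]
        exact h2 k hkn
      · have : k = n := by omega
        subst this
        rw [Function.update_self, Function.update_self, h1]
        exact ⟨h3, h4, h5⟩
  by_contra hcon
  push Not at hcon
  set X : Set ℝ := {r | ∃ y : ℚ, P y ∧ (y : ℝ) = r} with hX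
  have hne : X.Nonempty := by
    obtain ⟨y, hy⟩ := exists_rat_lt (-B)
    exact ⟨y, y, ⟨0, fun _ => y, fun _ => 0, hy, rfl, fun k hk => absurd hk (Nat.not_lt_zero k)⟩, rfl⟩
  have hbd : BddAbove X := by
    refine ⟨B, ?_⟩
    rintro r ⟨y, hy, rfl⟩
    by_contra hlt
    push Not at hlt
    exact hcon y hlt hy
  set s := sSup X with hs
  have hρs := hρ s
  obtain ⟨_, ⟨y, hy, rfl⟩, hys⟩ := exists_lt_of_lt_csSup hne (show s - ρ s / 4 < s by linarith)
  have hyle : (y : ℝ) ≤ s := le_csSup hbd ⟨y, hy, rfl⟩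
  obtain ⟨y', h1, h2, h3⟩ := htr y hy (ρ s / 4) (by linarith)
  obtain ⟨y'', h4, h5⟩ := exists_rat_btwn (show s < s + ρ s / 4 by linarith)
  have h6 := hex y' h3 s y'' (by linarith) h4 (by linarith)
  have h7 : (y'' : ℝ) ≤ s := le_csSup hbd ⟨y'', h6, rfl⟩
  linarith

end Crest.Agent.R096.Gx_451
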