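import Crest.Agent.R096.Red2_58

/-!
Row 96 (S0127), `p ≤ 2`, COMPOSITE B, leaf [L4] of helper622 #11433 (helper821), part 1:
**(2a) from an `L^p` bound on the tube.**  Hoelder on `B × [0,1]` and helper58's `red_edges` (the target
squeeze `R` does not destroy near-optimality), integrated over the translations.
-/

set_option autoImplicit false

namespace Crest.Agent.R096.H2a_821

open MeasureTheory Set Filter Topology
open Crest.AnalysisR.VecCalc3 Crest.AnalysisR.Sobolev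
open Crest.Agent.R96.Lu_538
open Crest.Agent.R096.Sk_962 (SH)
open scoped ENNReal

noncomputable section

variable {x v : R3} {B S : Set R3}

/-- the measure on `B × [0,1]` -/
def mu (B : Set R3) : Measure (R3 × ℝ) :=
  (volume.restrict B).prod (volume.restrict (Icc (0:ℝ) 1))

theorem mu_univ (B : Set R3) : mu B univ = volume B := by
  unfold mu
  rw [← univ_prod_univ, Measure.prod_prod]
  simp

/-- `(w, τ) ↦ x + w + τ v` maps null sets back to null sets -/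
theorem qmp (h : ∀ w ∈ B, ∀ τ ∈ Icc (0:ℝ) 1, x + w + τ • v ∈ S) :
    Measure.QuasiMeasurePreserving (fun q : R3 × ℝ => x + q.1 + q.2 • v) (mu B)
      (volume.restrict S) := by
  have hm : Measurable (fun q : R3 × ℝ => x + q.1 + q.2 • v) := by fun_prop
  refine ⟨hm, Measure.AbsolutelyContinuous.mk fun s hs h0 => ?_⟩
  rw [Measure.map_apply hm hs]
  unfold mu
  rw [Measure.prod_apply_symm (hm hs)]
  rw [lintegral_eq_zero_iff' (measurable_measure_prodMk_right (hm hs)).aemeasurable]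
  filter_upwards [ae_restrict_mem measurableSet_Icc] with τ hτ
  have h1 : MeasurableSet ((fun w : R3 => (w, τ)) ⁻¹' ((fun q : R3 × ℝ => x + q.1 + q.2 • v) ⁻¹' s)) :=
    (hm.comp (by fun_prop : Measurable fun w : R3 => (w, τ))) hs
  rw [Measure.restrict_apply h1]
  rw [Measure.restrict_apply hs] at h0
  have hsub : ((fun w : R3 => (w, τ)) ⁻¹' ((fun q : R3 × ℝ => x + q.1 + q.2 • v) ⁻¹' s)) ∩ B ⊆
      (fun w : R3 => w + (x + τ • v)) ⁻¹' (s ∩ S) := by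
    rintro w ⟨hw, hwB⟩
    have e : w + (x + τ • v) = x + w + τ • v := by abel
    show w + (x + τ • v) ∈ s ∩ S
    rw [e]
    exact ⟨hw, h w hwB τ hτ⟩
  refine measure_mono_null hsub ?_
  rw [measure_preimage_add_right]
  exact h0

theorem lint_eq (h : ∀ w ∈ B, ∀ τ ∈ Icc (0:ℝ) 1, x + w + τ • v ∈ S)
    {F : R3 → ℝ≥0∞} (hF : AEMeasurable F (volume.restrict S)) :
    ∫⁻ w in B, ∫⁻ τ in Icc (0:ℝ) 1, F (x + w + τ • v) =
      ∫⁻ q, F (x + q.1 + q.2 • v) ∂(mu B) := by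
  have h1 : AEMeasurable (fun q : R3 × ℝ => F (x + q.1 + q.2 • v)) (mu B) :=
    hF.comp_quasiMeasurePreserving (qmp h)
  unfold mu
  rw [lintegral_prod _ h1]

/-- **Hoelder on `B × [0,1]`** -/
theorem hold (h : ∀ w ∈ B, ∀ τ ∈ Icc (0:ℝ) 1, x + w + τ • v ∈ S)
    {F : R3 → ℝ≥0∞} (hF : AEMeasurable F (volume.restrict S)) {p : ℝ} (hp : 1 ≤ p) :
    ∫⁻ w in B, ∫⁻ τ in Icc (0:ℝ) 1, F (x + w + τ • v) ≤
      (∫⁻ w in B, ∫⁻ τ in Icc (0:ℝ) 1, F (x + w + τ • v) ^ p) ^ (1 / p) *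
        (volume B) ^ (1 - 1 / p) := by
  have h1 : AEMeasurable (fun q : R3 × ℝ => F (x + q.1 + q.2 • v)) (mu B) :=
    hF.comp_quasiMeasurePreserving (qmp h)
  rw [lint_eq h hF, lint_eq h (hF.pow_const p), ← mu_univ B]
  rcases hp.eq_or_lt with rfl | hp1
  · simp
  · set q : ℝ := p / (p - 1) with hq
    have hpq : p.HolderConjugate q := Real.HolderConjugate.conjExponent hp1
    have key := ENNReal.lintegral_mul_le_Lp_mul_Lq (mu B) hpq h1
      (g := fun _ => (1:ℝ≥0∞)) aemeasurable_const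
    have e1 : (fun q : R3 × ℝ => F (x + q.1 + q.2 • v)) * (fun _ => (1:ℝ≥0∞)) =
        fun q => F (x + q.1 + q.2 • v) := by
      ext a; simp
    rw [e1] at key
    have e2 : ∫⁻ _ : R3 × ℝ, (1:ℝ≥0∞) ^ q ∂(mu B) = mu B univ := by
      simp
    have e3 : 1 / q = 1 - 1 / p := by
      rw [hq]
      field_simp
    rw [e2, e3] at key
    exact key

/-- **the `L¹` bound from the `L^p` bound** -/
theorem l1_of_lp
    (h : ∀ w ∈ B, ∀ τ ∈ Icc (0:ℝ) 1, x + w + τ • v ∈ S)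
    {F : R3 → ℝ≥0∞} (hF : AEMeasurable F (volume.restrict S)) {p : ℝ} (hp : 1 ≤ p) {η : ℝ≥0∞}
    (hE : ∫⁻ w in B, ∫⁻ τ in Icc (0:ℝ) 1, F (x + w + τ • v) ^ p ≤ η ^ p * volume B) :
    ∫⁻ w in B, ∫⁻ τ in Icc (0:ℝ) 1, F (x + w + τ • v) ≤ η * volume B := by
  have hp0 : 0 < p := by linarith
  have hp1 : 0 ≤ 1 / p := by positivity
  have hp2 : 0 ≤ 1 - 1 / p := by
    rw [sub_nonneg, div_le_one hp0]
    exact hp
  refine (hold h hF hp).trans ?_
  calc (∫⁻ w in B, ∫⁻ τ in Icc (0:ℝ) 1, F (x + w + τ • v) ^ p) ^ (1 / p) *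
        (volume B) ^ (1 - 1 / p)
      ≤ (η ^ p * volume B) ^ (1 / p) * (volume B) ^ (1 - 1 / p) := by
        gcongr
    _ = η * volume B := by
        rw [ENNReal.mul_rpow_of_nonneg _ _ hp1, ← ENNReal.rpow_mul, mul_one_div_cancel hp0.ne',
          ENNReal.rpow_one, mul_assoc, ← ENNReal.rpow_add_of_nonneg _ _ hp1 hp2]
        norm_num

/-- **the target squeeze, integrated over the translations** -/
theorem red_B {p : ℝ} {Om La : Set R3} (hOm : IsOpen Om) {g : R3 → R3}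
    {G G2 : Fin 3 → R3 → R3} {R : R3 → R3} (hg : SH p Om La g G)
    (hRg : SH p Om La (fun x => R (g x)) G2) {ψ : Fin 3 → ℝ → ℝ} {σ : ℝ} (hσ : 0 ≤ σ)
    (hm : ∀ a, Monotone (ψ a)) (hL : ∀ a x y, |ψ a x - ψ a y| ≤ |x - y|)
    (h0 : ∀ a x, 0 ≤ ψ a x) (h1 : ∀ a x, ψ a x ≤ σ) {O : Set R3}
    (hR : ∀ y ∈ O, ∀ a, R y a = y a - ψ a (y a)) (hB : MeasurableSet B)
    (hBO : ∀ w ∈ B, ∀ t ∈ Icc (0:ℝ) 1, x + w + t • v ∈ Om ∧ g (x + w + t • v) ∈ O) (u : R3) :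
    ∫⁻ w in B, ∫⁻ t in Icc (0:ℝ) 1, ‖Gmat G2 (x + w + t • v) v - u‖ₑ ≤
      7 * (∫⁻ w in B, ∫⁻ t in Icc (0:ℝ) 1, ‖Gmat G (x + w + t • v) v - u‖ₑ) +
        ENNReal.ofReal (3 * σ) * volume B := by
  have key := Crest.Agent.R096.Red_58.red_edges hOm hg hRg hσ hm hL h0 h1 hR
    (ι := Unit) (fun _ => x) (fun _ => v)
  have e : ∀ (F : ℝ → ℝ≥0∞), ∫⁻ t in Icc (0:ℝ) 1, F t = ∫⁻ t in Ioc (0:ℝ) 1, F t := fun F =>
    setLIntegral_congr Ioc_ae_eq_Icc.symm
  calc ∫⁻ w in B, ∫⁻ t in Icc (0:ℝ) 1, ‖Gmat G2 (x + w + t • v) v - u‖ₑ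
      ≤ ∫⁻ w in B, (7 * (∫⁻ t in Icc (0:ℝ) 1, ‖Gmat G (x + w + t • v) v - u‖ₑ) +
          ENNReal.ofReal (3 * σ)) := by
        refine lintegral_mono_ae ?_
        filter_upwards [ae_restrict_of_ae key, ae_restrict_mem hB] with w hw hwB
        rw [e, e]
        exact hw () (hBO w hwB) u
    _ = _ := by
        rw [lintegral_add_right _ measurable_const, lintegral_const_mul' _ _ (by norm_num),
          setLIntegral_const]

end

end Crest.Agent.R096.H2a_821
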