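import Crest.Agent.R096.H2a1_821
import Crest.Agent.R096.Fub1_216

/-!
Row 96 (S0127), `p ≤ 2`, COMPOSITE B, leaf [L4] of helper622 #11433 (helper821), part 2:
**(2a) = (h2a) of [L1] for `f₂ = R ∘ g` from the tube estimates (N) of `cob_main`**, summed over the pieces
of the edge and over the cells of the system.
-/

set_option autoImplicit false

namespace Crest.Agent.R096.H2a_821

open MeasureTheory Set Filter Topology Metric
open Crest.AnalysisR.VecCalc3 Crest.AnalysisR.Sobolev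
open Crest.Agent.R96.Lu_538
open Crest.Agent.R096.Sk_962 (SH)
open Crest.Agent.R096.Mal_874 (CB)
open Crest.Agent.R096.Pin_753
open Crest.Agent.R096.Sq_55
open Crest.Agent.R096.Fub_216
open Crest.Agent.R096.Sqt_143 (sg isCompact_sg)
open scoped ENNReal

noncomputable section

variable {Q : CB R3 3} {k0 : ℕ}

theorem aem_Gv {Om La : Set R3} {p : ℝ} {f : R3 → R3} {G : Fin 3 → R3 → R3}
    (hf : SH p Om La f G) (L : R3 →L[ℝ] R3) (v : R3) {S : Set R3} (hS : S ⊆ Om) :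
    AEMeasurable (fun y => ‖Gmat G y v - L v‖ₑ) (volume.restrict S) := by
  have h1 : AEStronglyMeasurable (Gmat G) (volume.restrict Om) :=
    aesm_Gmat fun j => (hf.memG j).1
  have h2 : AEStronglyMeasurable (fun y => Gmat G y v - L v) (volume.restrict Om) :=
    ((ContinuousLinearMap.apply ℝ R3 v).continuous.comp_aestronglyMeasurable h1).sub
      aestronglyMeasurable_const
  exact (h2.enorm).mono_measure (Measure.restrict_mono hS le_rfl)

/-- **(2a) from an `L^p` bound on the tube of the edge** -/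
theorem h2a_tube {p : ℝ} (hp : 1 ≤ p) {Om La : Set R3} (hOm : IsOpen Om) {g : R3 → R3}
    {G G2 : Fin 3 → R3 → R3} {R : R3 → R3} (hg : SH p Om La g G)
    (hRg : SH p Om La (fun x => R (g x)) G2) {ψ : Fin 3 → ℝ → ℝ} {σ : ℝ} (hσ : 0 ≤ σ)
    (hm : ∀ a, Monotone (ψ a)) (hL : ∀ a x y, |ψ a x - ψ a y| ≤ |x - y|)
    (h0 : ∀ a x, 0 ≤ ψ a x) (h1 : ∀ a x, ψ a x ≤ σ) {O : Set R3}
    (hR : ∀ y ∈ O, ∀ a, R y a = y a - ψ a (y a))
    {κ : ℝ} (hκ : 0 < κ) (cnd : ∀ v, κ / 4 * ‖v‖ ≤ ‖Q.ψ v‖) {u : ℝ}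
    (hu : 4 * κ⁻¹ / (5 * 2 ^ k0) ≤ u) {x v : R3} (hv : v ≠ 0)
    (hT : cthickening u (sg (w2.symm x) (w2.symm v)) ⊆ w2 ⁻¹' Om)
    (hO : ∀ z ∈ cthickening u (sg (w2.symm x) (w2.symm v)), g (w2 z) ∈ O)
    (L : R3 →L[ℝ] R3) {η : ℝ≥0∞}
    (hN : ENNReal.ofReal ((5 * 2 ^ k0) ^ 2 / (4 * dv Q.ψ * ‖Q.ψ v‖)) *
      (∫⁻ z in cthickening u (sg (w2.symm x) (w2.symm v)), ‖Gmat G (w2 z) v - L v‖ₑ ^ p) ≤
        η ^ p) :
    ∫⁻ w in Tw Q k0, ∫⁻ τ in Icc (0:ℝ) 1, ‖Gmat G2 (x + w + τ • v) v - L v‖ₑ ≤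
      (7 * η + ENNReal.ofReal (3 * σ)) * volume (Tw Q k0) := by
  set T := cthickening u (sg (w2.symm x) (w2.symm v)) with hTdef
  have hmem := seg_add_Tw (k0 := k0) hκ cnd hu x v
  have hTO : w2 '' T ⊆ Om := by
    rintro _ ⟨z, hz, rfl⟩
    exact hT hz
  have hBO : ∀ w ∈ Tw Q k0, ∀ t ∈ Icc (0:ℝ) 1, x + w + t • v ∈ Om ∧ g (x + w + t • v) ∈ O := by
    intro w hw t ht
    obtain ⟨z, hz, he⟩ := hmem w hw t ht
    refine ⟨hTO ⟨z, hz, he⟩, ?_⟩
    rw [← he]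
    exact hO z hz
  have hF := aem_Gv hg L v hTO
  have key := red_B (x := x) (v := v) hOm hg hRg hσ hm hL h0 h1 hR (measurableSet_Tw Q k0) hBO (L v)
  refine key.trans ?_
  have h2 := l1_of_lp hmem hF hp (η := η) (by
    refine (fub_tube hκ cnd hu hv (hF.pow_const p)).trans ?_
    rw [coef_eq, mul_right_comm]
    gcongr)
  rw [add_mul, mul_assoc]
  gcongr

/-- the tube of an edge is covered by the tubes of its pieces -/
theorem sg_pieces {a v : Fin 3 → ℝ} {m : ℕ} {t : ℕ → ℝ} (h0 : t 0 = 0) (hm : t m = 1)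
    (ht : ∀ i < m, t i < t (i + 1)) :
    sg a v ⊆ ⋃ i ∈ Finset.range m, sg (a + t i • v) ((t (i + 1) - t i) • v) := by
  rintro _ ⟨τ, hτ, rfl⟩
  have hex : ∃ i, i < m ∧ t i ≤ τ ∧ τ ≤ t (i + 1) := by
    by_contra hcon
    push Not at hcon
    have hle : ∀ i ≤ m, t i ≤ τ := by
      intro i
      induction i with
      | zero => intro _; rw [h0]; exact hτ.1
      | succ i ih =>
        intro hi
        exact (hcon i (by omega) (ih (by omega))).le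
    have hmpos : 0 < m := by
      rcases Nat.eq_zero_or_pos m with h | h
      · subst h; rw [h0] at hm; norm_num at hm
      · exact h
    have h1 := hcon (m - 1) (by omega) (hle _ (by omega))
    rw [Nat.sub_add_cancel hmpos, hm] at h1
    exact absurd hτ.2 (not_le.2 h1)
  obtain ⟨i, him, h1, h2⟩ := hex
  have hlt := ht i him
  refine mem_iUnion₂.2 ⟨i, Finset.mem_range.2 him, (τ - t i) / (t (i + 1) - t i), ⟨?_, ?_⟩, ?_⟩
  · exact div_nonneg (by linarith) (by linarith)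
  · rw [div_le_one (by linarith)]; linarith
  · show a + t i • v + ((τ - t i) / (t (i + 1) - t i)) • (t (i + 1) - t i) • v = a + τ • v
    rw [smul_smul, div_mul_cancel₀ _ (by linarith : t (i + 1) - t i ≠ 0), add_assoc, ← add_smul]
    congr 2
    ring

theorem sg_sub {a v : Fin 3 → ℝ} {s r : ℝ} (hs : s ∈ Icc (0:ℝ) 1) (hr : r ∈ Icc (0:ℝ) 1) :
    sg (a + s • v) ((r - s) • v) ⊆ sg a v := by
  rintro _ ⟨τ, hτ, rfl⟩
  refine ⟨s + τ * (r - s), ⟨?_, ?_⟩, ?_⟩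
  · nlinarith [hs.1, hr.1, hτ.1, hτ.2, mul_nonneg hτ.1 hr.1, mul_nonneg (sub_nonneg.2 hτ.2) hs.1]
  · nlinarith [hs.2, hr.2, hτ.1, hτ.2, mul_nonneg hτ.1 (sub_nonneg.2 hr.2),
      mul_nonneg (sub_nonneg.2 hτ.2) (sub_nonneg.2 hs.2)]
  · show a + (s + τ * (r - s)) • v = a + s • v + τ • (r - s) • v
    rw [smul_smul, add_assoc, ← add_smul]

theorem sg_rev (a v : Fin 3 → ℝ) : sg (a + v) (-v) = sg a v := by
  ext y
  constructor
  · rintro ⟨τ, hτ, rfl⟩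
    refine ⟨1 - τ, ⟨by linarith [hτ.2], by linarith [hτ.1]⟩, ?_⟩
    show a + (1 - τ) • v = a + v + τ • (-v)
    rw [sub_smul, one_smul, smul_neg]
    abel
  · rintro ⟨τ, hτ, rfl⟩
    refine ⟨1 - τ, ⟨by linarith [hτ.2], by linarith [hτ.1]⟩, ?_⟩
    show a + v + (1 - τ) • (-v) = a + τ • v
    rw [sub_smul, one_smul, smul_neg]
    abel

theorem cth_mem {E : Set (Fin 3 → ℝ)} (hE : IsCompact E) {u : ℝ} (hu : 0 ≤ u) {z : Fin 3 → ℝ} :
    z ∈ cthickening u E ↔ ∃ y ∈ E, dist z y ≤ u := by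
  rw [hE.cthickening_eq_biUnion_closedBall hu]
  simp only [mem_iUnion₂, mem_closedBall, exists_prop]

theorem tube_pieces {a v : Fin 3 → ℝ} {m : ℕ} {t : ℕ → ℝ} (h0 : t 0 = 0) (hm : t m = 1)
    (ht : ∀ i < m, t i < t (i + 1)) {u : ℝ} (hu : 0 ≤ u) :
    cthickening u (sg a v) ⊆
      ⋃ i ∈ Finset.range m, cthickening u (sg (a + t i • v) ((t (i + 1) - t i) • v)) := by
  intro z hz
  obtain ⟨y, hy, hzy⟩ := (cth_mem (isCompact_sg a v) hu).1 hz
  obtain ⟨i, hi, hyi⟩ := mem_iUnion₂.1 (sg_pieces h0 hm ht hy)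
  exact mem_iUnion₂.2 ⟨i, hi, (cth_mem (isCompact_sg _ _) hu).2 ⟨y, hyi, hzy⟩⟩

/-- the `L^p` bound on a set from the bounds on the pieces (directions `λ_i v`) -/
theorem tube_sum {I : Type*} (s : Finset I) {T : Set (Fin 3 → ℝ)} {A : I → Set (Fin 3 → ℝ)}
    (hT : T ⊆ ⋃ i ∈ s, A i) {p : ℝ} (hp : 0 ≤ p) (G : Fin 3 → R3 → R3) (L : R3 →L[ℝ] R3) (v : R3)
    {lam : I → ℝ} (hlam : ∀ i ∈ s, lam i ≠ 0) {b : I → ℝ≥0∞}
    (hb : ∀ i ∈ s, ∫⁻ z in A i, ‖Gmat G (w2 z) (lam i • v) - L (lam i • v)‖ₑ ^ p ≤ b i) :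
    ∫⁻ z in T, ‖Gmat G (w2 z) v - L v‖ₑ ^ p ≤ ∑ i ∈ s, ENNReal.ofReal ((|lam i| ^ p)⁻¹) * b i := by
  calc ∫⁻ z in T, ‖Gmat G (w2 z) v - L v‖ₑ ^ p
      ≤ ∫⁻ z in ⋃ i ∈ s, A i, ‖Gmat G (w2 z) v - L v‖ₑ ^ p := lintegral_mono_set hT
    _ ≤ ∑ i ∈ s, ∫⁻ z in A i, ‖Gmat G (w2 z) v - L v‖ₑ ^ p := by
        classical
        clear hlam hb hT
        induction s using Finset.induction_on with
        | empty => simp
        | insert j s hj ih =>
          rw [Finset.set_biUnion_insert, Finset.sum_insert hj]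
          exact (lintegral_union_le _ _ _).trans (by gcongr)
    _ ≤ _ := by
        refine Finset.sum_le_sum fun i hi => ?_
        have hl : 0 < |lam i| := abs_pos.2 (hlam i hi)
        have e : ∀ z, ‖Gmat G (w2 z) v - L v‖ₑ ^ p = ENNReal.ofReal ((|lam i| ^ p)⁻¹) *
            ‖Gmat G (w2 z) (lam i • v) - L (lam i • v)‖ₑ ^ p := by
          intro z
          rw [map_smul, map_smul, ← smul_sub, enorm_smul, ENNReal.mul_rpow_of_nonneg _ _ hp,
            ← mul_assoc, Real.enorm_eq_ofReal_abs, ENNReal.ofReal_rpow_of_nonneg hl.le hp,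
            ← ENNReal.ofReal_mul (by positivity), inv_mul_cancel₀ (by positivity),
            ENNReal.ofReal_one, one_mul]
        simp_rw [e]
        rw [lintegral_const_mul' _ _ ENNReal.ofReal_ne_top]
        gcongr
        exact hb i hi

end

end Crest.Agent.R096.H2a_821
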