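import Crest.Agent.R096.H2a2_821

/-!
Row 96 (S0127), `p ≤ 2`, COMPOSITE B, leaf [L4] of helper622 #11433 (helper821), part 3:
**`h2a_of_N`: (h2a) of [L1] from the tube estimates (N) of `cob_main`**, and bounds for the constant
`(5 2^k0)² / (4 dv ‖ψ v‖)`.
-/

set_option autoImplicit false

namespace Crest.Agent.R096.H2a_821

open MeasureTheory Set Filter Topology Metric
open Crest.AnalysisR.VecCalc3 Crest.AnalysisR.Sobolev
open Crest.Agent.R96.Lu_538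
open Crest.Agent.R096.Sk_962 (SH)
open Crest.Agent.R096.Mal_874 (CB)
open Crest.Agent.R096.Pin_753
open Crest.Agent.R096.Sq_55
open Crest.Agent.R096.Fub_216
open Crest.Agent.R96.En10_199 (P3 P3_mp)
open Crest.Agent.R096.Sqt_143 (sg isCompact_sg)
open Crest.Agent.R96.Hole_348 (norm_toLp_le)
open scoped ENNReal

noncomputable section

variable {Q : CB R3 3} {k0 : ℕ}

/-- the volume of the `ψ`-unit cube is at least `(κ/8)³` -/
theorem dv_ge {κ : ℝ} (hκ : 0 < κ) (cnd : ∀ v, ‖Q.ψ v‖ ≤ 4 * κ⁻¹ * ‖v‖) :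
    (κ / 8) ^ 3 ≤ dv Q.ψ := by
  have h1 := vol_psi Q.ψ (closedBall 0 1)
  rw [Real.volume_pi_closedBall _ zero_le_one, Fintype.card_fin,
    ← ENNReal.ofReal_mul (dv_pos _).le] at h1
  have h2 : volume (P3 ⁻¹' (Q.ψ ⁻¹' closedBall (0 : Fin 3 → ℝ) 1)) =
      volume (Q.ψ ⁻¹' closedBall (0 : Fin 3 → ℝ) 1) :=
    P3_mp.measure_preimage_emb P3.toHomeomorph.measurableEmbedding _
  have h3 : closedBall (0 : Fin 3 → ℝ) (κ / 8) ⊆ P3 ⁻¹' (Q.ψ ⁻¹' closedBall (0 : Fin 3 → ℝ) 1) := by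
    intro z hz
    rw [mem_closedBall_zero_iff] at hz
    show Q.ψ (P3 z) ∈ closedBall 0 1
    rw [mem_closedBall_zero_iff]
    have h4 : ‖P3 z‖ ≤ 2 * ‖z‖ := norm_toLp_le z
    calc ‖Q.ψ (P3 z)‖ ≤ 4 * κ⁻¹ * ‖P3 z‖ := cnd _
      _ ≤ 4 * κ⁻¹ * (2 * (κ / 8)) := by gcongr; linarith
      _ = 1 := by field_simp; norm_num
  have h5 := measure_mono (μ := volume) h3
  rw [h2, h1, Real.volume_pi_closedBall _ (by positivity), Fintype.card_fin] at h5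
  have h6 := (ENNReal.ofReal_le_ofReal_iff (by have := dv_pos Q.ψ; positivity)).1 h5
  have e1 : (2 * (κ / 8)) ^ 3 = 8 * (κ / 8) ^ 3 := by ring
  have e2 : dv Q.ψ * (2 * 1) ^ 3 = 8 * dv Q.ψ := by ring
  rw [e1, e2] at h6
  linarith

/-- **the constant of Fubini + Hoelder** -/
theorem coef_le {κ : ℝ} (hκ : 0 < κ) (cnd1 : ∀ v, κ / 4 * ‖v‖ ≤ ‖Q.ψ v‖)
    (cnd2 : ∀ v, ‖Q.ψ v‖ ≤ 4 * κ⁻¹ * ‖v‖) {v : R3} (hv : v ≠ 0) :
    (5 * 2 ^ k0) ^ 2 / (4 * dv Q.ψ * ‖Q.ψ v‖) ≤ 12800 * 4 ^ k0 / (κ ^ 4 * ‖v‖) := by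
  have h1 := dv_ge hκ cnd2
  have h2 := cnd1 v
  have hv' : 0 < ‖v‖ := norm_pos_iff.2 hv
  have e1 : ((5:ℝ) * 2 ^ k0) ^ 2 = 25 * 4 ^ k0 := by
    rw [mul_pow, ← pow_mul, mul_comm k0 2, pow_mul]
    norm_num
  rw [e1]
  have h0 := dv_pos Q.ψ
  have h3 : 4 * (κ / 8) ^ 3 * (κ / 4 * ‖v‖) ≤ 4 * dv Q.ψ * ‖Q.ψ v‖ :=
    mul_le_mul (by linarith) h2 (by positivity) (by positivity)
  calc 25 * (4:ℝ) ^ k0 / (4 * dv Q.ψ * ‖Q.ψ v‖)
      ≤ 25 * 4 ^ k0 / (4 * (κ / 8) ^ 3 * (κ / 4 * ‖v‖)) := by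
        apply div_le_div_of_nonneg_left (by positivity) (by positivity) h3
    _ = 12800 * 4 ^ k0 / (κ ^ 4 * ‖v‖) := by
        field_simp
        norm_num

set_option maxHeartbeats 1000000 in
/-- **[L4]: (h2a) from (N)**; the pieces `[t_i, t_{i+1}]` of the edge `x + [0,1] v` (helper432's `ed_chain`),
cells `k ∈ s i` covering the tube of the piece `i`, (N) in the form
`∫_(P k ∩ tube) ≤ ofReal ((K ‖w2 v_i‖)^p) * J i k + e i k`. -/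
theorem h2a_of_N {p : ℝ} (hp : 1 ≤ p) {Om La : Set R3} (hOm : IsOpen Om) {g : R3 → R3}
    {G G2 : Fin 3 → R3 → R3} {R : R3 → R3} (hg : SH p Om La g G)
    (hRg : SH p Om La (fun x => R (g x)) G2) {ψ : Fin 3 → ℝ → ℝ} {σ : ℝ} (hσ : 0 ≤ σ)
    (hm : ∀ a, Monotone (ψ a)) (hL : ∀ a x y, |ψ a x - ψ a y| ≤ |x - y|)
    (h0 : ∀ a x, 0 ≤ ψ a x) (h1 : ∀ a x, ψ a x ≤ σ) {O : Set R3}
    (hR : ∀ y ∈ O, ∀ a, R y a = y a - ψ a (y a))
    {κ : ℝ} (hκ : 0 < κ) (cnd1 : ∀ v, κ / 4 * ‖v‖ ≤ ‖Q.ψ v‖)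
    (cnd2 : ∀ v, ‖Q.ψ v‖ ≤ 4 * κ⁻¹ * ‖v‖) {u : ℝ}
    (hu : 4 * κ⁻¹ / (5 * 2 ^ k0) ≤ u) {x v : R3} (hv : v ≠ 0)
    (hT : cthickening u (sg (w2.symm x) (w2.symm v)) ⊆ w2 ⁻¹' Om)
    (hO : ∀ z ∈ cthickening u (sg (w2.symm x) (w2.symm v)), g (w2 z) ∈ O)
    (L : R3 →L[ℝ] R3)
    -- the pieces
    {m : ℕ} {t : ℕ → ℝ} (ht0 : t 0 = 0) (htm : t m = 1) (ht : ∀ i < m, t i < t (i + 1))
    -- the cells
    {κX : Type*} {PP : κX → Set (Fin 3 → ℝ)} (s : ℕ → Finset κX)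
    (hcov : ∀ i < m, cthickening u (sg (w2.symm x + t i • w2.symm v)
      ((t (i + 1) - t i) • w2.symm v)) ⊆ ⋃ k ∈ s i, PP k)
    {K : ℝ} (hK : 0 ≤ K) (J e : ℕ → κX → ℝ≥0∞)
    (N : ∀ i < m, ∀ k ∈ s i, ∫⁻ z in PP k ∩ cthickening u (sg (w2.symm x + t i • w2.symm v)
        ((t (i + 1) - t i) • w2.symm v)),
        ‖Gmat G (w2 z) (w2 ((t (i + 1) - t i) • w2.symm v)) -
          L (w2 ((t (i + 1) - t i) • w2.symm v))‖ₑ ^ p ≤
      ENNReal.ofReal ((K * ‖w2 ((t (i + 1) - t i) • w2.symm v)‖) ^ p) * J i k + e i k)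
    -- the numbers
    {κw : ℝ} {n : ℕ} {η : ℝ} (hη : 0 ≤ η) (hsm : 7 * (η * ‖v‖) + 3 * σ ≤ κw * ‖v‖ / (512 * n))
    (hnum : ENNReal.ofReal (12800 * 4 ^ k0 / (κ ^ 4 * ‖v‖)) *
      (∑ i ∈ Finset.range m, ∑ k ∈ s i, (ENNReal.ofReal ((K * ‖v‖) ^ p) * J i k +
        ENNReal.ofReal (((t (i + 1) - t i) ^ p)⁻¹) * e i k)) ≤ ENNReal.ofReal ((η * ‖v‖) ^ p)) :
    ∫⁻ w in Tw Q k0, ∫⁻ τ in Icc (0:ℝ) 1, ‖Gmat G2 (x + w + τ • v) v - L v‖ₑ ≤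
      ENNReal.ofReal (κw * ‖v‖ / (512 * n)) * volume (Tw Q k0) := by
  have hp0 : 0 ≤ p := by linarith
  have hu0 : 0 ≤ u := le_trans (by positivity) hu
  have hv' : 0 < ‖v‖ := norm_pos_iff.2 hv
  have hww : ∀ c : ℝ, w2 (c • w2.symm v) = c • v := fun c => rfl
  -- the sum over the pieces and the cells
  have hsum := tube_sum ((Finset.range m).sigma s)
    (T := cthickening u (sg (w2.symm x) (w2.symm v)))
    (A := fun q => PP q.2 ∩ cthickening u (sg (w2.symm x + t q.1 • w2.symm v)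
        ((t (q.1 + 1) - t q.1) • w2.symm v))) (by
      intro z hz
      obtain ⟨i, hi, hzi⟩ := mem_iUnion₂.1 (tube_pieces ht0 htm ht hu0 hz)
      obtain ⟨k, hk, hzk⟩ := mem_iUnion₂.1 (hcov i (Finset.mem_range.1 hi) hzi)
      exact mem_iUnion₂.2 ⟨⟨i, k⟩, Finset.mem_sigma.2 ⟨hi, hk⟩, hzk, hzi⟩) hp0 G L v
    (lam := fun q => t (q.1 + 1) - t q.1)
    (fun q hq => (sub_pos.2 (ht q.1 (Finset.mem_range.1 (Finset.mem_sigma.1 hq).1))).ne')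
    (b := fun q => ENNReal.ofReal ((K * ‖w2 ((t (q.1 + 1) - t q.1) • w2.symm v)‖) ^ p) * J q.1 q.2 +
      e q.1 q.2)
    (fun q hq => by
      have hq' := Finset.mem_sigma.1 hq
      have := N q.1 (Finset.mem_range.1 hq'.1) q.2 hq'.2
      rwa [hww] at this)
  rw [Finset.sum_sigma] at hsum
  have key := h2a_tube (Q := Q) (k0 := k0) hp hOm hg hRg hσ hm hL h0 h1 hR hκ cnd1 hu hv hT hO L
    (η := ENNReal.ofReal (η * ‖v‖)) (by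
      rw [ENNReal.ofReal_rpow_of_nonneg (by positivity) hp0]
      refine le_trans ?_ hnum
      refine mul_le_mul' (ENNReal.ofReal_le_ofReal (coef_le hκ cnd1 cnd2 hv)) ?_
      · refine hsum.trans (Finset.sum_le_sum fun i hi => Finset.sum_le_sum fun k hk => ?_)
        have hlt := sub_pos.2 (ht i (Finset.mem_range.1 hi))
        rw [mul_add, abs_of_pos hlt, ← mul_assoc, hww, norm_smul, Real.norm_eq_abs,
          abs_of_pos hlt, ← ENNReal.ofReal_mul (by positivity)]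
        have e1 : ((t (i + 1) - t i) ^ p)⁻¹ * (K * ((t (i + 1) - t i) * ‖v‖)) ^ p =
            (K * ‖v‖) ^ p := by
          rw [show K * ((t (i + 1) - t i) * ‖v‖) = (t (i + 1) - t i) * (K * ‖v‖) by ring,
            Real.mul_rpow hlt.le (by positivity), ← mul_assoc,
            inv_mul_cancel₀ (Real.rpow_pos_of_pos hlt p).ne', one_mul]
        rw [e1])
  refine key.trans ?_
  gcongr
  rw [show (7:ℝ≥0∞) = ENNReal.ofReal 7 by norm_num, ← ENNReal.ofReal_mul (by norm_num),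
    ← ENNReal.ofReal_add (by positivity) (by positivity)]
  exact ENNReal.ofReal_le_ofReal hsm

end

end Crest.Agent.R096.H2a_821
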