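import Crest.Agent.R096.H2a3_821

/-!
Row 96 (S0127), `p ≤ 2`, COMPOSITE B, leaf [C3] of helper622 #11695 (helper821), part 1:
**the numbers of (2a)**: `hnum` of `h2a_of_N` from three inequalities between constants.
-/

set_option autoImplicit false

namespace Crest.Agent.R096.H2a_821

open MeasureTheory Set Filter Topology Metric
open scoped ENNReal

noncomputable section

/-- constant of the balls: `A1 * θ ≤ η ^ p / 3`, `2^-k0 ≤ θ ‖v‖` -/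
def A1 (p κ K Cb : ℝ) (np nc nw : ℕ) : ℝ :=
  52432 * (np * nc * nw) * (K ^ p * (1 + Cb) ^ 3 * κ⁻¹ ^ p / κ ^ 7)

/-- constant of the energies on the edges: `A2 * η₁ ^ p ≤ η ^ p / 3` -/
def A2 (p κ K CTM CJ : ℝ) (np nc : ℕ) : ℝ :=
  8192 * (np * nc) * (K ^ p * (CTM * CJ) / κ ^ 6)

theorem A1_nonneg {p κ K Cb : ℝ} (hκ : 0 < κ) (hK : 0 ≤ K) (hCb : 0 ≤ Cb) (np nc nw : ℕ) :
    0 ≤ A1 p κ K Cb np nc nw := by
  unfold A1
  have : 0 ≤ K ^ p := Real.rpow_nonneg hK p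
  have : 0 ≤ κ⁻¹ ^ p := Real.rpow_nonneg (inv_nonneg.2 hκ.le) p
  positivity

theorem A2_nonneg {p κ K CTM CJ : ℝ} (hκ : 0 < κ) (hK : 0 ≤ K) (hC : 0 ≤ CTM) (hCJ : 0 ≤ CJ)
    (np nc : ℕ) : 0 ≤ A2 p κ K CTM CJ np nc := by
  unfold A2
  have : 0 ≤ K ^ p := Real.rpow_nonneg hK p
  positivity

/-- the choice of a small number, any power -/
theorem exists_pow_small {A q y : ℝ} (hA : 0 ≤ A) (hq : 0 < q) (hy : 0 < y) :
    ∃ η₁ : ℝ, 0 < η₁ ∧ ∀ x, 0 ≤ x → x ≤ η₁ → A * x ^ q ≤ y := by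
  refine ⟨(y / (A + 1)) ^ (1 / q), by positivity, fun x hx hx1 => ?_⟩
  have h1 : x ^ q ≤ y / (A + 1) := by
    calc x ^ q ≤ ((y / (A + 1)) ^ (1 / q)) ^ q := Real.rpow_le_rpow hx hx1 hq.le
      _ = y / (A + 1) := by
        rw [← Real.rpow_mul (by positivity), one_div_mul_cancel hq.ne', Real.rpow_one]
  calc A * x ^ q ≤ A * (y / (A + 1)) := by gcongr
    _ ≤ y := by
        rw [← mul_div_assoc, div_le_iff₀ (by positivity)]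
        nlinarith

theorem exists_lin_small {A y : ℝ} (hA : 0 ≤ A) (hy : 0 < y) :
    ∃ θ₁ : ℝ, 0 < θ₁ ∧ ∀ x, 0 ≤ x → x ≤ θ₁ → A * x ≤ y := by
  obtain ⟨θ₁, h1, h2⟩ := exists_pow_small hA one_pos hy
  exact ⟨θ₁, h1, fun x hx hx1 => by simpa using h2 x hx hx1⟩

/-- one error for finitely many conditions -/
theorem exists_eps_fin {I : Type*} [Finite I] {X Y : I → ℝ≥0∞} (hX : ∀ i, X i ≠ ∞)
    (hY : ∀ i, Y i ≠ 0) : ∃ ε : ℝ≥0∞, ε ≠ 0 ∧ ε ≠ ∞ ∧ ∀ i, X i * ε ≤ Y i := by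
  classical
  cases nonempty_fintype I
  have h1 : ∀ i, ∃ ε : ℝ≥0∞, ε ≠ 0 ∧ X i * ε ≤ Y i := by
    intro i
    refine ⟨Y i / (X i + 1), ?_, ?_⟩
    · rw [Ne, ENNReal.div_eq_zero_iff]
      push Not
      exact ⟨hY i, ENNReal.add_ne_top.2 ⟨hX i, ENNReal.one_ne_top⟩⟩
    · calc X i * (Y i / (X i + 1)) ≤ (X i + 1) * (Y i / (X i + 1)) := by
            gcongr
            exact le_self_add
        _ ≤ Y i := ENNReal.mul_div_le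
  choose e he1 he2 using h1
  by_cases hI : Nonempty I
  · refine ⟨min 1 (Finset.univ.inf' Finset.univ_nonempty e), ?_, ?_, fun i => ?_⟩
    · obtain ⟨i, -, hi⟩ := Finset.exists_mem_eq_inf' Finset.univ_nonempty e
      rw [hi]
      exact (lt_min one_pos (pos_iff_ne_zero.2 (he1 i))).ne'
    · exact ((min_le_left _ _).trans_lt ENNReal.one_lt_top).ne
    · exact (mul_le_mul' le_rfl ((min_le_right _ _).trans
        (Finset.inf'_le _ (Finset.mem_univ i)))).trans (he2 i)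
  · exact ⟨1, one_ne_zero, ENNReal.one_ne_top, fun i => (hI ⟨i⟩).elim⟩

theorem real_balls {p κ K Cb θ η V : ℝ} {np nc nw k0 : ℕ} (hκ : 0 < κ) (hK : 0 ≤ K)
    (hCb : 0 ≤ Cb) (hV : 0 < V) (hη : 0 ≤ η) (hθ : 1 / 2 ^ k0 ≤ θ * V)
    (h1 : A1 p κ K Cb np nc nw * θ ≤ η ^ p / 3) :
    12800 * 4 ^ k0 / (κ ^ 4 * V) * ((np * nc) * ((K * V) ^ p *
      (κ⁻¹ ^ p * (nw * (2 * ((1 + Cb) * (4 * κ⁻¹ / (5 * 2 ^ k0)))) ^ 3)))) ≤ (η * V) ^ p / 3 := by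
  have hVp : 0 < V ^ p := Real.rpow_pos_of_pos hV p
  have hKp : 0 ≤ K ^ p := Real.rpow_nonneg hK p
  have hκp : 0 ≤ κ⁻¹ ^ p := Real.rpow_nonneg (inv_nonneg.2 hκ.le) p
  have h4 : (4:ℝ) ^ k0 = 2 ^ k0 * 2 ^ k0 := by
    rw [← mul_pow]; norm_num
  have e1 : 12800 * 4 ^ k0 / (κ ^ 4 * V) * ((np * nc) * ((K * V) ^ p *
      (κ⁻¹ ^ p * (nw * (2 * ((1 + Cb) * (4 * κ⁻¹ / (5 * 2 ^ k0)))) ^ 3)))) =
      (262144 / 5) * (np * nc * nw) * (K ^ p * (1 + Cb) ^ 3 * κ⁻¹ ^ p / κ ^ 7) *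
        ((1 / 2 ^ k0) * V⁻¹) * V ^ p := by
    rw [Real.mul_rpow hK hV.le, h4]
    field_simp
    ring
  rw [e1]
  have h2 : (1 / 2 ^ k0) * V⁻¹ ≤ θ := by
    rw [← div_eq_mul_inv, div_le_iff₀ hV]
    exact hθ
  have h0 : 0 ≤ K ^ p * (1 + Cb) ^ 3 * κ⁻¹ ^ p / κ ^ 7 := by positivity
  have hθ0 : 0 ≤ θ := le_trans (by positivity) h2
  calc (262144 / 5) * (np * nc * nw) * (K ^ p * (1 + Cb) ^ 3 * κ⁻¹ ^ p / κ ^ 7) *
        ((1 / 2 ^ k0) * V⁻¹) * V ^ p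
      ≤ A1 p κ K Cb np nc nw * θ * V ^ p := by
        unfold A1
        gcongr
        norm_num
    _ ≤ (η ^ p / 3) * V ^ p := by gcongr
    _ = (η * V) ^ p / 3 := by
        rw [Real.mul_rpow hη hV.le]; ring

theorem real_edges {p κ K CTM CJ η η₁ V : ℝ} {np nc k0 : ℕ} (hκ : 0 < κ) (hK : 0 ≤ K)
    (hV : 0 < V) (hη : 0 ≤ η) (h2 : A2 p κ K CTM CJ np nc * η₁ ^ p ≤ η ^ p / 3) :
    12800 * 4 ^ k0 / (κ ^ 4 * V) * ((np * nc) * ((K * V) ^ p *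
      (CTM * (CJ * (4 * κ⁻¹ / (5 * 2 ^ k0)) ^ 2 * V * η₁ ^ p)))) ≤ (η * V) ^ p / 3 := by
  have hVp : 0 < V ^ p := Real.rpow_pos_of_pos hV p
  have h4 : (4:ℝ) ^ k0 = 2 ^ k0 * 2 ^ k0 := by
    rw [← mul_pow]; norm_num
  have e1 : 12800 * 4 ^ k0 / (κ ^ 4 * V) * ((np * nc) * ((K * V) ^ p *
      (CTM * (CJ * (4 * κ⁻¹ / (5 * 2 ^ k0)) ^ 2 * V * η₁ ^ p)))) =
      A2 p κ K CTM CJ np nc * η₁ ^ p * V ^ p := by
    unfold A2
    rw [Real.mul_rpow hK hV.le, h4]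
    field_simp
    ring
  rw [e1]
  calc A2 p κ K CTM CJ np nc * η₁ ^ p * V ^ p ≤ (η ^ p / 3) * V ^ p := by gcongr
    _ = (η * V) ^ p / 3 := by
        rw [Real.mul_rpow hη hV.le]; ring

/-- **the numbers of (2a)** -/
theorem hnum_of {p κ K Cb CTM CJ θ η η₁ V : ℝ} {np nc nw k0 : ℕ} (hκ : 0 < κ) (hK : 0 ≤ K)
    (hCb : 0 ≤ Cb) (hCT : 0 ≤ CTM) (hCJ : 0 ≤ CJ) (hV : 0 < V) (hη : 0 ≤ η) (hη₁ : 0 ≤ η₁)
    (hθ : 1 / 2 ^ k0 ≤ θ * V)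
    (h1 : A1 p κ K Cb np nc nw * θ ≤ η ^ p / 3)
    (h2 : A2 p κ K CTM CJ np nc * η₁ ^ p ≤ η ^ p / 3)
    {m : ℕ} (hm : m ≤ np) {κX : Type*} {s : ℕ → Finset κX} (hs : ∀ i < m, (s i).card ≤ nc)
    {J : ℕ → κX → ℝ≥0∞}
    (hJ : ∀ i < m, ∀ k ∈ s i, J i k ≤
      ENNReal.ofReal (CTM * (CJ * (4 * κ⁻¹ / (5 * 2 ^ k0)) ^ 2 * V * η₁ ^ p)) +
        ENNReal.ofReal (κ⁻¹ ^ p * (nw * (2 * ((1 + Cb) * (4 * κ⁻¹ / (5 * 2 ^ k0)))) ^ 3)))
    {lam : ℕ → ℝ} {ε : ℝ≥0∞}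
    (h3 : (ENNReal.ofReal (12800 * 4 ^ k0 / (κ ^ 4 * V)) *
      ∑ i ∈ Finset.range m, ∑ _k ∈ s i, ENNReal.ofReal (lam i)) * ε ≤
        ENNReal.ofReal ((η * V) ^ p / 3)) :
    ENNReal.ofReal (12800 * 4 ^ k0 / (κ ^ 4 * V)) *
      (∑ i ∈ Finset.range m, ∑ k ∈ s i, (ENNReal.ofReal ((K * V) ^ p) * J i k +
        ENNReal.ofReal (lam i) * ε)) ≤ ENNReal.ofReal ((η * V) ^ p) := by
  set u : ℝ := 4 * κ⁻¹ / (5 * 2 ^ k0) with hu
  set B1 : ℝ := CTM * (CJ * u ^ 2 * V * η₁ ^ p) with hB1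
  set B2 : ℝ := κ⁻¹ ^ p * (nw * (2 * ((1 + Cb) * u)) ^ 3) with hB2
  have hηp : 0 ≤ η₁ ^ p := Real.rpow_nonneg hη₁ p
  have hκp : 0 ≤ κ⁻¹ ^ p := Real.rpow_nonneg (inv_nonneg.2 hκ.le) p
  have hu0 : 0 ≤ u := by positivity
  have hB1' : 0 ≤ B1 := by positivity
  have hB2' : 0 ≤ B2 := by positivity
  have hKV : 0 ≤ (K * V) ^ p := Real.rpow_nonneg (by positivity) p
  have hηV : 0 ≤ (η * V) ^ p := Real.rpow_nonneg (by positivity) p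
  have hc : 0 ≤ 12800 * 4 ^ k0 / (κ ^ 4 * V) := by positivity
  have l1 : ∑ i ∈ Finset.range m, ∑ k ∈ s i, ENNReal.ofReal ((K * V) ^ p) * J i k ≤
      ENNReal.ofReal ((np * nc) * ((K * V) ^ p * (B1 + B2))) := by
    calc ∑ i ∈ Finset.range m, ∑ k ∈ s i, ENNReal.ofReal ((K * V) ^ p) * J i k
        ≤ ∑ _i ∈ Finset.range m, (nc : ℝ≥0∞) * ENNReal.ofReal ((K * V) ^ p * (B1 + B2)) := by
          refine Finset.sum_le_sum fun i hi => ?_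
          have hi' := Finset.mem_range.1 hi
          refine (Finset.sum_le_card_nsmul _ _ (ENNReal.ofReal ((K * V) ^ p * (B1 + B2)))
            fun k hk => ?_).trans ?_
          · rw [ENNReal.ofReal_mul hKV, ENNReal.ofReal_add hB1' hB2']
            gcongr
            exact hJ i hi' k hk
          · rw [nsmul_eq_mul]
            gcongr
            exact_mod_cast hs i hi'
      _ = (m : ℝ≥0∞) * ((nc : ℝ≥0∞) * ENNReal.ofReal ((K * V) ^ p * (B1 + B2))) := by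
          rw [Finset.sum_const, Finset.card_range, nsmul_eq_mul]
      _ ≤ (np : ℝ≥0∞) * ((nc : ℝ≥0∞) * ENNReal.ofReal ((K * V) ^ p * (B1 + B2))) := by
          gcongr
      _ = _ := by
          rw [ENNReal.ofReal_mul (p := (np:ℝ) * nc) (by positivity),
            ENNReal.ofReal_mul (p := (np:ℝ)) (by positivity),
            ENNReal.ofReal_natCast, ENNReal.ofReal_natCast, mul_assoc]
  have l2 : ENNReal.ofReal (12800 * 4 ^ k0 / (κ ^ 4 * V)) *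
      ENNReal.ofReal ((np * nc) * ((K * V) ^ p * (B1 + B2))) ≤
      ENNReal.ofReal ((η * V) ^ p / 3 + (η * V) ^ p / 3) := by
    rw [← ENNReal.ofReal_mul hc]
    refine ENNReal.ofReal_le_ofReal ?_
    have r1 := real_edges (k0 := k0) (η₁ := η₁) hκ hK hV hη h2
    have r2 := real_balls (k0 := k0) (θ := θ) hκ hK hCb hV hη hθ h1
    calc _ = 12800 * 4 ^ k0 / (κ ^ 4 * V) * ((np * nc) * ((K * V) ^ p * B1)) +
          12800 * 4 ^ k0 / (κ ^ 4 * V) * ((np * nc) * ((K * V) ^ p * B2)) := by ring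
      _ ≤ _ := add_le_add r1 r2
  calc ENNReal.ofReal (12800 * 4 ^ k0 / (κ ^ 4 * V)) *
      (∑ i ∈ Finset.range m, ∑ k ∈ s i, (ENNReal.ofReal ((K * V) ^ p) * J i k +
        ENNReal.ofReal (lam i) * ε))
      = ENNReal.ofReal (12800 * 4 ^ k0 / (κ ^ 4 * V)) *
          (∑ i ∈ Finset.range m, ∑ k ∈ s i, ENNReal.ofReal ((K * V) ^ p) * J i k) +
        (ENNReal.ofReal (12800 * 4 ^ k0 / (κ ^ 4 * V)) *
          ∑ i ∈ Finset.range m, ∑ _k ∈ s i, ENNReal.ofReal (lam i)) * ε := by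
        simp_rw [Finset.sum_add_distrib, ← Finset.sum_mul]
        ring
    _ ≤ ENNReal.ofReal ((η * V) ^ p / 3 + (η * V) ^ p / 3) + ENNReal.ofReal ((η * V) ^ p / 3) := by
        gcongr
        exact (mul_le_mul' le_rfl l1).trans l2
    _ = ENNReal.ofReal ((η * V) ^ p) := by
        rw [← ENNReal.ofReal_add (by positivity) (by positivity)]
        congr 1
        ring

end

end Crest.Agent.R096.H2a_821
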