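import Crest.Agent.R096.Sqt14_143
import Crest.Agent.R096.Cbs2_296

/-!
Row 96 (S0127), helper143.  COMPOSITE B, [C2] and the numbers of one long edge: 296's `Jt_le` for tubes in a
good cube without unsqueezed faces in the zone, and the right sides of `cob_main` (E), (N) in numbers.
-/

set_option autoImplicit false
set_option linter.unusedSectionVars false
set_option linter.style.longLine false

open Set Metric Filter Topology MeasureTheory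
open scoped ENNReal NNReal

namespace Crest.Agent.R096.Sqt_143

open Crest.AnalysisR.VecCalc3
open Crest.Agent.R096.Msh_715 (P I Tiling)
open Crest.Agent.R096.Sq_55 (E3 Sys w2)
open Crest.Agent.R096.Cob_622 (EF Jt CE)
open Crest.Agent.R096.Efi_296
open Crest.Agent.R096.Cbs_296
open Crest.Agent.R096.Slb_296
open Crest.Agent.R096.Fce_793 (pt)
open Crest.Agent.R96.Coarse_538 (seg)
open Crest.Agent.R96.Lu_538 (Gmat)
open Crest.Agent.R096.Br_695 (En)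

noncomputable section

variable {OmR : Set R3} {ι : Type*} {T : Tiling OmR ι} {Om : Set R3} {κe κf : Type*}
  {x v : κe → R3} {e : κf → Fin 2 → R3} {xx : κf → R3} {a : R3} {Q : κf → Set (ℝ × ℝ)}
  {s : Finset ι} {pr : (Te T).Cell → Prop} {g : R3 → ℝ≥0∞}
  {c : ι → E3} {R : ι → ℝ≥0} {ρ : E3 → ℝ≥0} {m : ι → ℝ≥0} {X : Sys s (reps (Te T) s pr)}

/-- the data of the tile `k` in the good cube `C` (closed), shape numbers `n`, `nE`, lengths `≤ V`, no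
unsqueezed face in the zone of `E`, `u` -/
structure Zn (T : Tiling OmR ι) (s : Finset ι) (pr : (Te T).Cell → Prop) (R : ι → ℝ≥0)
    (ρ : E3 → ℝ≥0) (m : ι → ℝ≥0) (x v : κe → R3) (a : R3) (me : EgS (Te T) s → κe) (C : Set R3)
    (n nE : ℕ) (V : ℝ) (k : s) (E : Set E3) (u : ℝ) : Prop where
  hr : ∀ y : reps (Te T) s pr, (k : ι) ∈ (Te T).at_ (y : E3) → ρ y ≤ m k * R k
  hn : {y : reps (Te T) s pr | (k : ι) ∈ (Te T).at_ (y : E3)}.ncard ≤ n
  hnE : {c : EgS (Te T) s | c.1.set ⊆ P ((Te T).H k)}.ncard ≤ nE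
  hV : ∀ c : EgS (Te T) s, c.1.set ⊆ P ((Te T).H k) → ‖v (me c)‖ ≤ V
  hC : ∀ c : EgS (Te T) s, c.1.set ⊆ P ((Te T).H k) → seg x v a (me c) ⊆ C
  hno : ∀ b : FcS (Te T) s pr,
    ¬ (b.1.set ∩ (P ((Te T).H k) ∩ cthickening (25 * (m k : ℝ)^4 * u) E)).Nonempty

theorem Jt_zn (h : SysOf (Te T) s pr c R ρ m X) (hG : GoodA Om g x v e xx a)
    (hQ : ∀ φ, IsCompact (Q φ))
    {me : EgS (Te T) s → κe} {mf : FcS (Te T) s pr → κf}
    (hme : ∀ c, w2 '' c.1.set = seg x v a (me c))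
    (hmf : ∀ c, w2 '' c.1.set = pt (e (mf c)) (a + xx (mf c)) '' Q (mf c)) {B0 : Set R3}
    (hB0 : IsClosed B0) {C : Set R3} {n nE : ℕ} {V : ℝ} {k : s} {E : Set E3} {u : ℝ}
    (hZ : Zn T s pr R ρ m x v a me C n nE V k E u) {b : ℝ≥0∞}
    (hb : ∀ c : EgS (Te T) s, c.1.set ⊆ P ((Te T).H k) →
      ∫⁻ σ in Icc 0 1 ∩ pl (v (me c)) (a + x (me c)) ⁻¹' B0,
        Om.indicator g (pl (v (me c)) (a + x (me c)) σ) ≤ b) :
    Jt (efLoc hG hQ hme hmf X h.rim h.Z hB0) k E u ≤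
      ENNReal.ofReal (34848 * (m k : ℝ)^9 * n * nE * V * u^2) * b := by
  classical
  refine (Cbs_296.Jt_le h hG hQ hme hmf hB0 k E u hZ.hr hZ.hn).trans ?_
  have h1 : (Finset.univ.filter fun b : FcS (Te T) s pr =>
      (b.1.set ∩ (P ((Te T).H k) ∩ cthickening (25 * (m k : ℝ)^4 * u) E)).Nonempty) = ∅ := by
    rw [Finset.filter_eq_empty_iff]
    exact fun b _ => hZ.hno b
  have h2 : (Finset.univ.filter fun c : EgS (Te T) s => c.1.set ⊆ P ((Te T).H k)).card ≤ nE := by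
    rw [← Set.ncard_coe_finset]
    refine le_trans (le_of_eq ?_) hZ.hnE
    congr 1
    ext y
    rw [Finset.mem_coe, Finset.mem_filter]
    exact ⟨fun h => h.2, fun h => ⟨Finset.mem_univ _, h⟩⟩
  rw [h1, Finset.sum_empty, mul_zero, add_zero]
  have h3 : (∑ c ∈ Finset.univ.filter fun c : EgS (Te T) s => c.1.set ⊆ P ((Te T).H k),
      eI Om g x v a B0 (me c)) ≤ nE * (ENNReal.ofReal (32 * V) * b) := by
    refine (Finset.sum_le_card_nsmul _ _ (ENNReal.ofReal (32 * V) * b) fun c hc => ?_).trans ?_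
    · have hc' := (Finset.mem_filter.1 hc).2
      unfold eI
      refine mul_le_mul' (ENNReal.ofReal_le_ofReal ?_) (hb c hc')
      have := hZ.hV c hc'
      linarith
    · rw [nsmul_eq_mul]
      gcongr
  refine (mul_le_mul' le_rfl h3).trans (le_of_eq ?_)
  rw [← ENNReal.ofReal_natCast nE, ← mul_assoc, ← mul_assoc, ← ENNReal.ofReal_mul (by positivity),
    ← ENNReal.ofReal_mul (by positivity)]
  congr 2
  ring

/-- **near tubes** -/
theorem Jt_near_sys {p : ℝ} {G : Fin 3 → R3 → R3} {L : R3 →L[ℝ] R3}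
    (h : SysOf (Te T) s pr c R ρ m X)
    (hG : GoodA Om (fun y => ‖Gmat G y - L‖ₑ ^ p) x v e xx a)
    (hQ : ∀ φ, IsCompact (Q φ))
    {me : EgS (Te T) s → κe} {mf : FcS (Te T) s pr → κf}
    (hme : ∀ c, w2 '' c.1.set = seg x v a (me c))
    (hmf : ∀ c, w2 '' c.1.set = pt (e (mf c)) (a + xx (mf c)) '' Q (mf c)) {B0 : Set R3}
    (hB0 : IsClosed B0) {C : Set R3} {n nE : ℕ} {V η' : ℝ} {k : s} {E : Set E3} {u : ℝ}
    (hZ : Zn T s pr R ρ m x v a me C n nE V k E u) (hV0 : 0 ≤ V)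
    (hg : ∀ i, ∫⁻ σ in Ioc (0:ℝ) 1, C.indicator (fun y => ‖Gmat G y - L‖ₑ ^ p)
      (a + x i + σ • v i) ≤ ENNReal.ofReal η') :
    Jt (efLoc hG hQ hme hmf X h.rim h.Z hB0) k E u ≤
      ENNReal.ofReal (34848 * (m k : ℝ)^9 * n * nE * V * u^2 * η') := by
  refine (Jt_zn h hG hQ hme hmf hB0 hZ (b := ENNReal.ofReal η')
    fun c hc => edge_near (hZ.hC c hc) (hg (me c)) _).trans (le_of_eq ?_)
  rw [← ENNReal.ofReal_mul (by positivity)]

/-- **energy tubes** -/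
theorem Jt_en_sys {p : ℝ} (hp1 : 1 ≤ p) (hp2 : p ≤ 2) {G : Fin 3 → R3 → R3} {L : R3 →L[ℝ] R3}
    (h : SysOf (Te T) s pr c R ρ m X)
    (hG : GoodA Om (En p G) x v e xx a)
    (hQ : ∀ φ, IsCompact (Q φ))
    {me : EgS (Te T) s → κe} {mf : FcS (Te T) s pr → κf}
    (hme : ∀ c, w2 '' c.1.set = seg x v a (me c))
    (hmf : ∀ c, w2 '' c.1.set = pt (e (mf c)) (a + xx (mf c)) '' Q (mf c)) {B0 : Set R3}
    (hB0 : IsClosed B0) {C : Set R3} {n nE : ℕ} {V η' : ℝ} {k : s} {E : Set E3} {u : ℝ}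
    (hZ : Zn T s pr R ρ m x v a me C n nE V k E u)
    (hg : ∀ i, ∫⁻ σ in Ioc (0:ℝ) 1, C.indicator (fun y => ‖Gmat G y - L‖ₑ ^ p)
      (a + x i + σ • v i) ≤ ENNReal.ofReal η') (hη' : ENNReal.ofReal η' ≤ ‖L‖ₑ ^ p) :
    Jt (efLoc hG hQ hme hmf X h.rim h.Z hB0) k E u ≤
      ENNReal.ofReal (34848 * (m k : ℝ)^9 * n * nE * V * u^2) * (12 * ‖L‖ₑ ^ p) := by
  refine Jt_zn h hG hQ hme hmf hB0 hZ
    fun c hc => (edge_en hp1 hp2 L (hZ.hC c hc) (hg (me c)) _).trans ?_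
  calc 6 * ‖L‖ₑ ^ p + 6 * ENNReal.ofReal η' ≤ 6 * ‖L‖ₑ ^ p + 6 * ‖L‖ₑ ^ p := by gcongr
    _ = _ := by ring

/-- the structural constant of the energy of a tube -/
def AE (p : ℝ) (K M : ℝ≥0) (n nE : ℕ) (cV : ℝ) : ℝ :=
  CE p K M * (418176 * (M : ℝ)^9 * n * nE * cV) + 1

lemma CT_nonneg {p : ℝ} (hp : p < 3) (M : ℝ≥0) : 0 ≤ CT p M := by
  have h1 : 0 < 1 - Sq_55.qn 3 p := by
    have := Sq_55.qn_lt (n := 3) (p := p) (by exact_mod_cast hp)
    linarith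
  have h2 : 0 < 1 - Sq_55.qF p := by
    have := Sq_55.qF_lt p
    linarith
  unfold CT
  positivity

lemma CE_nonneg {p : ℝ} (hp : p < 3) (K M : ℝ≥0) : 0 ≤ CE p K M := by
  have := CT_nonneg hp M
  unfold CE; positivity

/-- **the right side of (E) in numbers** -/
theorem energy_num {p : ℝ} (hp1 : 1 ≤ p) (hp2 : p ≤ 2) {G : Fin 3 → R3 → R3} {L : R3 →L[ℝ] R3}
    (h : SysOf (Te T) s pr c R ρ m X)
    (hG : GoodA Om (En p G) x v e xx a)
    (hQ : ∀ φ, IsCompact (Q φ))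
    {me : EgS (Te T) s → κe} {mf : FcS (Te T) s pr → κf}
    (hme : ∀ c, w2 '' c.1.set = seg x v a (me c))
    (hmf : ∀ c, w2 '' c.1.set = pt (e (mf c)) (a + xx (mf c)) '' Q (mf c)) {B0 : Set R3}
    (hB0 : IsClosed B0) {C : Set R3} {n nE : ℕ} {V η' : ℝ} {k : s} {E : Set E3} {u : ℝ}
    (hZ : Zn T s pr R ρ m x v a me C n nE V k E u)
    (hg : ∀ i, ∫⁻ σ in Ioc (0:ℝ) 1, C.indicator (fun y => ‖Gmat G y - L‖ₑ ^ p)
      (a + x i + σ • v i) ≤ ENNReal.ofReal η') (hη' : ENNReal.ofReal η' ≤ ‖L‖ₑ ^ p)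
    {K M : ℝ≥0} (hM : m k = M) {cV V0 : ℝ} (hV0 : 0 ≤ V0) (hcV : 0 ≤ cV) (hVc : V ≤ cV * V0)
    {ε : ℝ≥0∞} (hε : ε ≤ ENNReal.ofReal (u^2 * V0) * ‖L‖ₑ ^ p) :
    ENNReal.ofReal (CE p K (X.m k)) * Jt (efLoc hG hQ hme hmf X h.rim h.Z hB0) k E u + ε ≤
      ENNReal.ofReal (AE p K M n nE cV * u^2 * V0) * ‖L‖ₑ ^ p := by
  have hCE := CE_nonneg (p := p) (by linarith) K M
  have h1 := Jt_en_sys hp1 hp2 h hG hQ hme hmf hB0 hZ hg hη'
  have h2 : ENNReal.ofReal (34848 * (m k : ℝ)^9 * n * nE * V * u^2) * (12 * ‖L‖ₑ ^ p) ≤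
      ENNReal.ofReal (418176 * (M : ℝ)^9 * n * nE * cV * u^2 * V0) * ‖L‖ₑ ^ p := by
    rw [hM, ← mul_assoc, ← ENNReal.ofReal_ofNat 12, ← ENNReal.ofReal_mul' (by norm_num)]
    refine mul_le_mul' (ENNReal.ofReal_le_ofReal ?_) le_rfl
    calc 34848 * (M : ℝ)^9 * n * nE * V * u^2 * 12 =
          418176 * (M : ℝ)^9 * n * nE * u^2 * V := by ring
      _ ≤ 418176 * (M : ℝ)^9 * n * nE * u^2 * (cV * V0) := by gcongr
      _ = _ := by ring
  rw [h.em, hM]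
  calc _ ≤ ENNReal.ofReal (CE p K M) *
        (ENNReal.ofReal (418176 * (M : ℝ)^9 * n * nE * cV * u^2 * V0) * ‖L‖ₑ ^ p) +
        ENNReal.ofReal (u^2 * V0) * ‖L‖ₑ ^ p :=
        add_le_add (mul_le_mul' le_rfl (h1.trans h2)) hε
    _ = _ := by
        rw [← mul_assoc, ← ENNReal.ofReal_mul hCE, ← add_mul,
          ← ENNReal.ofReal_add (by positivity) (by positivity)]
        congr 2
        unfold AE
        ring

end

end Crest.Agent.R096.Sqt_143
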