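import Crest.Agent.R096.H2n2_821
import Crest.Agent.R096.Cob10_622
import Crest.Agent.R096.Sqt15_143
import Crest.Agent.R096.Msb7_432

/-!
Row 96 (S0127), `p ≤ 2`, COMPOSITE B, [C3] of helper622 #11695 (helper821), part 3: **`h2a_T`: (h2a) for one
M-edge from the last clause of 622's `cob_T`** and from 143's `Zn` data of the tiles at the pieces of the
edge; number of exceptional points (`nW_le`), near-tube parameters (`exists_NP`), `CT_mono`.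
-/

set_option autoImplicit false
set_option linter.style.longLine false
set_option linter.unusedSectionVars false

namespace Crest.Agent.R096.H2a_821

open MeasureTheory Set Filter Topology Metric
open Crest.AnalysisR.VecCalc3 Crest.AnalysisR.Sobolev
open Crest.Agent.R96.Lu_538
open Crest.Agent.R096.Sk_962 (SH)
open Crest.Agent.R096.Mal_874 (CB)
open Crest.Agent.R096.Msh_715 (P I Tiling)
open Crest.Agent.R096.Pin_753
open Crest.Agent.R096.Sq_55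
open Crest.Agent.R096.Fub_216
open Crest.Agent.R096.Cob_622
open Crest.Agent.R096.Efi_296
open Crest.Agent.R096.Cbs_296
open Crest.Agent.R096.Slb_296
open Crest.Agent.R096.Fce_793 (pt cc)
open Crest.Agent.R96.Coarse_538 (seg)
open Crest.Agent.R96.En10_199 (P3)
open Crest.Agent.R096.Sqt_143 (sg isCompact_sg CT Edge OnC OnF Zn Jt_near_sys)
open scoped ENNReal NNReal

noncomputable section

/-! ### numbers -/

theorem CT_mono {p : ℝ} (hp : p < 3) {m M : ℝ≥0} (h : m ≤ M) : CT p m ≤ CT p M := by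
  have h1 : 0 < 1 - Sq_55.qn 3 p := by
    have := Sq_55.qn_lt (n := 3) (p := p) (by exact_mod_cast hp)
    linarith
  have h2 : 0 < 1 - Sq_55.qF p := by
    have := Sq_55.qF_lt p
    linarith
  have h' : (m:ℝ) ≤ M := by exact_mod_cast h
  unfold Sqt_143.CT
  gcongr

theorem sg_vec {a v a' v' : E3} (h : sg a v = sg a' v') : v = v' ∨ v = -v' := by
  rw [sg_eq_segment, sg_eq_segment] at h
  rcases Msb_432.seg_eq h with ⟨h1, h2⟩ | ⟨h1, h2⟩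
  · left
    rw [h1] at h2
    exact add_left_cancel h2
  · right
    have h3 : a' + (v' + v) = a' + 0 := by
      rw [add_zero]
      conv_rhs => rw [← h2, h1]
      abel
    have h4 := add_left_cancel h3
    exact eq_neg_of_add_eq_zero_right h4

section count

variable {Om : Set E3} {ι : Type*} {T : Tiling Om ι} {s : Finset ι} {pr : T.Cell → Prop}
  {c : ι → E3} {R : ι → ℝ≥0} {ρ : E3 → ℝ≥0} {m : ι → ℝ≥0} {X : Sys s (reps T s pr)}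

/-- the number of exceptional points of an edge -/
theorem nW_le (h : SysOf T s pr c R ρ m X) {E : T.Cell} {a0 v0 : E3} (hav : E.set = sg a0 v0)
    {na nf : ℕ} (hna : (T.at_ E.pt).ncard ≤ na)
    (hnf : ∀ i ∈ T.at_ E.pt, {y : reps T s pr | i ∈ T.at_ (y : E3)}.ncard ≤ nf) (n : ℕ) :
    nW X a0 v0 n ≤ (na + na * nf) * n + 2 := by
  have hfin := T.at_finite E.pt_mem
  have hpt : ∃ t ∈ Icc (0:ℝ) 1, a0 + t • v0 = E.pt := by
    have h2 : E.pt ∈ E.set := pt_mem_set E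
    rw [hav] at h2
    obtain ⟨t, ht, h3⟩ := h2
    exact ⟨t, ht, h3⟩
  obtain ⟨t, ht, h3⟩ := hpt
  have h1 : {k : s | OnC (X.C k) a0 v0}.ncard ≤ na := by
    refine le_trans ?_ hna
    refine Set.ncard_le_ncard_of_injOn (fun k : s => (k : ι)) (fun k hk => ?_)
      (fun k _ l _ hkl => Subtype.ext hkl) hfin
    have h4 := (hk t ht).1
    rw [h3, h.eP] at h4
    exact h4
  have h2 : {j : reps T s pr | OnF (X.F j) a0 v0}.ncard ≤ na * nf := by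
    have hsub : {j : reps T s pr | OnF (X.F j) a0 v0} ⊆
        ⋃ i ∈ hfin.toFinset, {y : reps T s pr | i ∈ T.at_ (y : E3)} := by
      intro j hj
      have h4 := (hj t ht).1
      rw [h3] at h4
      obtain ⟨i, hi, hiP⟩ := h.K_sub_at j h4
      exact mem_iUnion₂.2 ⟨i, hfin.mem_toFinset.2 hiP, hi⟩
    refine (Set.ncard_le_ncard hsub (Set.toFinite _)).trans ?_
    refine (Finset.set_ncard_biUnion_le _ _).trans ?_
    refine (Finset.sum_le_card_nsmul _ _ nf fun i hi => hnf i (hfin.mem_toFinset.1 hi)).trans ?_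
    rw [smul_eq_mul]
    refine Nat.mul_le_mul_right _ ?_
    rw [← Set.ncard_eq_toFinset_card _ hfin]
    exact hna
  unfold nW
  have := Nat.mul_le_mul_right n (Nat.add_le_add h1 h2)
  omega

end count

section one

variable {OmR La : Set R3} {ι : Type*} {T : Tiling OmR ι} {κe κf : Type*}
  {xe ve : κe → R3} {ee : κf → Fin 2 → R3} {xx : κf → R3} {aa : R3} {Qf : κf → Set (ℝ × ℝ)}
  {s : Finset ι} {pr : (Te T).Cell → Prop}
  {c : ι → E3} {R : ι → ℝ≥0} {ρ : E3 → ℝ≥0} {ms : ι → ℝ≥0} {X : Sys s (reps (Te T) s pr)}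

/-- 143's `Jt_near_sys`, the deviations are only needed for the 1-cells of the tiles of `s` in `C` -/
theorem Jt_near_w {p : ℝ} {Om : Set R3} {G : Fin 3 → R3 → R3} {L : R3 →L[ℝ] R3}
    (h : SysOf (Te T) s pr c R ρ ms X)
    (hG : GoodA Om (fun y => ‖Gmat G y - L‖ₑ ^ p) xe ve ee xx aa)
    (hQ : ∀ φ, IsCompact (Qf φ))
    {me : EgS (Te T) s → κe} {mf : FcS (Te T) s pr → κf}
    (hme : ∀ c, w2 '' c.1.set = seg xe ve aa (me c))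
    (hmf : ∀ c, w2 '' c.1.set = pt (ee (mf c)) (aa + xx (mf c)) '' Qf (mf c)) {B0 : Set R3}
    (hB0 : IsClosed B0) {C : Set R3} {n nE : ℕ} {V η' : ℝ} {k : s} {E : Set E3} {u : ℝ}
    (hZ : Zn T s pr R ρ ms xe ve aa me C n nE V k E u) (hV0 : 0 ≤ V)
    (hg : ∀ c : EgS (Te T) s, seg xe ve aa (me c) ⊆ C →
      ∫⁻ σ in Ioc (0:ℝ) 1, C.indicator (fun y => ‖Gmat G y - L‖ₑ ^ p)
        (aa + xe (me c) + σ • ve (me c)) ≤ ENNReal.ofReal η') :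
    Jt (efLoc hG hQ hme hmf X h.rim h.Z hB0) k E u ≤
      ENNReal.ofReal (34848 * (ms k : ℝ)^9 * n * nE * V * u^2 * η') := by
  refine (Sqt_143.Jt_zn h hG hQ hme hmf hB0 hZ (b := ENNReal.ofReal η')
    fun c hc => Sqt_143.edge_near (hZ.hC c hc) (hg c (hZ.hC c hc)) _).trans (le_of_eq ?_)
  rw [← ENNReal.ofReal_mul (by positivity)]

set_option maxHeartbeats 1000000 in
/-- **(h2a) for one M-edge from the last clause of `cob_T`**; the deviations are only needed for the closed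
1-cells of the tiles of `s` in `C` -/
theorem h2a_Tw {Q : CB R3 3} {k0 : ℕ} {p : ℝ} (hp : 1 ≤ p) (hp3 : p < 3) (hOm : IsOpen OmR)
    {g : R3 → R3} {G Gg G2 : Fin 3 → R3 → R3} {Rr : R3 → R3} (hg : SH p OmR La g Gg)
    (hRg : SH p OmR La (fun x => Rr (g x)) G2) {ψ : Fin 3 → ℝ → ℝ} {σ : ℝ} (hσ : 0 ≤ σ)
    (hm : ∀ a, Monotone (ψ a)) (hL : ∀ a x y, |ψ a x - ψ a y| ≤ |x - y|)
    (h0 : ∀ a x, 0 ≤ ψ a x) (h1 : ∀ a x, ψ a x ≤ σ) {O : Set R3}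
    (hR : ∀ y ∈ O, ∀ a, Rr y a = y a - ψ a (y a))
    {κ : ℝ} (hκ : 0 < κ) (cnd1 : ∀ v, κ / 4 * ‖v‖ ≤ ‖Q.ψ v‖)
    (cnd2 : ∀ v, ‖Q.ψ v‖ ≤ 4 * κ⁻¹ * ‖v‖) {x v : R3} (hv : v ≠ 0) {u : ℝ}
    (hu : u = 4 * κ⁻¹ / (5 * 2 ^ k0))
    (hT : cthickening u (sg (w2.symm x) (w2.symm v)) ⊆ w2 ⁻¹' OmR)
    (hO : ∀ z ∈ cthickening u (sg (w2.symm x) (w2.symm v)), g (w2 z) ∈ O)
    {L : R3 →L[ℝ] R3} (hLn : ‖L‖ ≤ κ⁻¹)
    -- the system and the last clause of `cob_T`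
    (h : SysOf (Te T) s pr c R ρ ms X)
    (hG : GoodA OmR (fun y => ‖Gmat G y - L‖ₑ ^ p) xe ve ee xx aa)
    (hQ : ∀ φ, IsCompact (Qf φ))
    {me : EgS (Te T) s → κe} {mf : FcS (Te T) s pr → κf}
    (hme : ∀ c, w2 '' c.1.set = seg xe ve aa (me c))
    (hmf : ∀ c, w2 '' c.1.set = pt (ee (mf c)) (aa + xx (mf c)) '' Qf (mf c))
    {Sn : Set (EgS (Te T) s)} (np : ∀ c : Sn, NP X ms u c.1.1) {ε : ℝ≥0∞}
    (hN : ∀ (c : Sn) (k : s), SmallR R ms u k → NoF T s pr ms u c.1.1 k →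
        ∫⁻ x in P ((Te T).H k) ∩ cthickening u c.1.1.set,
          ‖Gmat Gg (w2 x) (w2 (np c).v0) - L (w2 (np c).v0)‖ₑ ^ p ≤
        ENNReal.ofReal ((2 * (2113 * (ms k : ℝ)^4 * ‖w2 (np c).v0‖))^p) *
          (ENNReal.ofReal (CT p (ms k)) *
            Jt (efLoc hG hQ hme hmf X h.rim h.Z
              (isClosed_Bz c.1.1.set (25 * (ms k : ℝ)^4 * u))) k c.1.1.set u +
          ‖L‖ₑ ^ p * (nW X (np c).a0 (np c).v0 (np c).n *
            ENNReal.ofReal ((2 * ((1 + (np c).b0 * (1 + 4 * (((np c).M : ℝ) * (np c).M)) *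
              ‖(np c).v0‖) * u))^3))) + ε)
    -- the deviations along the edges in the good cube `C`
    {C : Set R3} {η₁ : ℝ} (hη₁ : 0 ≤ η₁)
    (hdev : ∀ c : EgS (Te T) s, seg xe ve aa (me c) ⊆ C →
      ∫⁻ σ in Ioc (0:ℝ) 1, C.indicator (fun y => ‖Gmat G y - L‖ₑ ^ p)
        (aa + xe (me c) + σ • ve (me c)) ≤ ENNReal.ofReal (η₁ ^ p))
    -- pieces and cells
    {m : ℕ} {t : ℕ → ℝ} (ht0 : t 0 = 0) (htm : t m = 1) (ht : ∀ i < m, t i < t (i + 1))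
    (cs : ℕ → Sn) (hcs : ∀ i < m, (cs i).1.1.set = sg (w2.symm x + t i • w2.symm v)
      ((t (i + 1) - t i) • w2.symm v))
    (si : ℕ → Finset s)
    (hcov : ∀ i < m, cthickening u (sg (w2.symm x + t i • w2.symm v)
      ((t (i + 1) - t i) • w2.symm v)) ⊆ ⋃ k ∈ si i, P ((Te T).H k))
    {n nE nP nc nw : ℕ} {V cV Cb : ℝ} (hV : V ≤ cV * ‖v‖) (hV0 : 0 ≤ V) (hcV : 0 ≤ cV)
    (hsm : ∀ i < m, ∀ k ∈ si i, SmallR R ms u k)
    (hZ : ∀ i < m, ∀ k ∈ si i, Zn T s pr R ρ ms xe ve aa me C n nE V k (cs i).1.1.set u)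
    (hmP : m ≤ nP) (hnc : ∀ i < m, (si i).card ≤ nc) {M : ℝ≥0}
    (hM : ∀ i < m, ∀ k ∈ si i, ms k ≤ M)
    (hnw : ∀ i < m, nW X (np (cs i)).a0 (np (cs i)).v0 (np (cs i)).n ≤ nw) (hCb : 0 ≤ Cb)
    (hCb1 : ∀ i < m, (np (cs i)).b0 * (1 + 4 * (((np (cs i)).M : ℝ) * (np (cs i)).M)) *
      ‖(np (cs i)).v0‖ ≤ Cb)
    -- the numbers
    {κw θ : ℝ} {nM : ℕ} {η : ℝ} (hη : 0 ≤ η)
    (hsmall : 7 * (η * ‖v‖) + 3 * σ ≤ κw * ‖v‖ / (512 * nM))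
    (hθ : 1 / 2 ^ k0 ≤ θ * ‖v‖)
    (n1 : A1 p κ (4226 * (M:ℝ) ^ 4) Cb nP nc nw * θ ≤ η ^ p / 3)
    (n2 : A2 p κ (4226 * (M:ℝ) ^ 4) (CT p M) (34848 * (M:ℝ) ^ 9 * n * nE * cV) nP nc * η₁ ^ p ≤
      η ^ p / 3)
    (n3 : (ENNReal.ofReal (12800 * 4 ^ k0 / (κ ^ 4 * ‖v‖)) *
      ∑ i ∈ Finset.range m, ∑ _k ∈ si i, ENNReal.ofReal (((t (i + 1) - t i) ^ p)⁻¹)) * ε ≤
        ENNReal.ofReal ((η * ‖v‖) ^ p / 3)) :
    ∫⁻ w in Tw Q k0, ∫⁻ τ in Icc (0:ℝ) 1, ‖Gmat G2 (x + w + τ • v) v - L v‖ₑ ≤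
      ENNReal.ofReal (κw * ‖v‖ / (512 * nM)) * volume (Tw Q k0) := by
  have hp0 : 0 ≤ p := by linarith
  have hv' : 0 < ‖v‖ := norm_pos_iff.2 hv
  have hu0 : 0 ≤ u := by rw [hu]; positivity
  have hK0 : (0:ℝ) ≤ 4226 * (M:ℝ) ^ 4 := by positivity
  have hηp : 0 ≤ η₁ ^ p := Real.rpow_nonneg hη₁ p
  have hκp : 0 ≤ κ⁻¹ ^ p := Real.rpow_nonneg (inv_nonneg.2 hκ.le) p
  have hCT : 0 ≤ CT p M := Sqt_143.CT_nonneg hp3 M
  have hCJ : (0:ℝ) ≤ 34848 * (M:ℝ) ^ 9 * n * nE * cV := by positivity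
  set CJ : ℝ := 34848 * (M:ℝ) ^ 9 * n * nE * cV with hCJd
  set JJ : ℝ≥0∞ := ENNReal.ofReal (CT p M * (CJ * u ^ 2 * ‖v‖ * η₁ ^ p)) +
    ENNReal.ofReal (κ⁻¹ ^ p * (nw * (2 * ((1 + Cb) * u)) ^ 3)) with hJJ
  refine h2a_of_N hp hOm hg hRg hσ hm hL h0 h1 hR hκ cnd1 cnd2 hu.ge hv hT hO L ht0 htm ht
    (PP := fun k : s => P ((Te T).H k)) si hcov hK0 (fun _ _ => JJ) (fun _ _ => ε) ?_ hη hsmall ?_
  · intro i hi k hk
    have key := hN (cs i) k (hsm i hi k hk) (fun b hb => (hZ i hi k hk).hno ⟨b, hb⟩)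
    rw [← hcs i hi]
    have b3 : (np (cs i)).v0 = (t (i + 1) - t i) • w2.symm v ∨
        (np (cs i)).v0 = -((t (i + 1) - t i) • w2.symm v) := by
      refine sg_vec (a := (np (cs i)).a0) (a' := w2.symm x + t i • w2.symm v) ?_
      rw [← hcs i hi, ← (np (cs i)).hav]
    have e1 : ∀ z, ‖Gmat Gg (w2 z) (w2 ((t (i + 1) - t i) • w2.symm v)) -
        L (w2 ((t (i + 1) - t i) • w2.symm v))‖ₑ = ‖Gmat Gg (w2 z) (w2 (np (cs i)).v0) -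
          L (w2 (np (cs i)).v0)‖ₑ := by
      intro z
      rcases b3 with h | h
      · rw [h]
      · have hneg : w2 (-((t (i + 1) - t i) • w2.symm v)) =
            -w2 ((t (i + 1) - t i) • w2.symm v) := rfl
        rw [h, hneg, map_neg, map_neg, ← neg_sub', enorm_neg]
    have e2 : ‖w2 (np (cs i)).v0‖ = ‖w2 ((t (i + 1) - t i) • w2.symm v)‖ := by
      rcases b3 with h | h
      · rw [h]
      · have hneg : w2 (-((t (i + 1) - t i) • w2.symm v)) =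
            -w2 ((t (i + 1) - t i) • w2.symm v) := rfl
        rw [h, hneg, norm_neg]
    have hMk : (ms k : ℝ) ≤ M := by exact_mod_cast hM i hi k hk
    simp_rw [e1]
    refine key.trans ?_
    refine add_le_add ?_ le_rfl
    rw [e2]
    refine mul_le_mul' (ENNReal.ofReal_le_ofReal (Real.rpow_le_rpow (by positivity) ?_ hp0))
      (add_le_add ?_ ?_)
    · have h4 : (ms k : ℝ) ^ 4 ≤ (M:ℝ) ^ 4 := pow_le_pow_left₀ (by positivity) hMk 4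
      have h5 := mul_le_mul_of_nonneg_right h4
        (norm_nonneg (w2 ((t (i + 1) - t i) • w2.symm v)))
      linarith
    · rw [ENNReal.ofReal_mul hCT]
      refine mul_le_mul' (ENNReal.ofReal_le_ofReal (CT_mono hp3 (hM i hi k hk))) ?_
      refine (Jt_near_w h hG hQ hme hmf _ (hZ i hi k hk) hV0 hdev).trans ?_
      refine ENNReal.ofReal_le_ofReal ?_
      calc 34848 * (ms k : ℝ)^9 * n * nE * V * u^2 * η₁ ^ p ≤
            34848 * (M : ℝ)^9 * n * nE * (cV * ‖v‖) * u^2 * η₁ ^ p := by gcongr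
        _ = _ := by rw [hCJd]; ring
    · rw [ENNReal.ofReal_mul hκp]
      refine mul_le_mul' ?_ ?_
      · rw [← ENNReal.ofReal_rpow_of_nonneg (inv_nonneg.2 hκ.le) hp0]
        refine ENNReal.rpow_le_rpow ?_ hp0
        rw [← ofReal_norm]
        exact ENNReal.ofReal_le_ofReal hLn
      · rw [ENNReal.ofReal_mul (Nat.cast_nonneg nw), ENNReal.ofReal_natCast]
        refine mul_le_mul' (by exact_mod_cast hnw i hi) (ENNReal.ofReal_le_ofReal ?_)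
        have hb := (np (cs i)).edge.βpos
        refine pow_le_pow_left₀ (by positivity) ?_ 3
        have := hCb1 i hi
        gcongr
  · have h3 := hnum_of (κ := κ) (K := 4226 * (M:ℝ) ^ 4) (CTM := CT p M) (CJ := CJ) (p := p)
      hκ hK0 hCb hCT hCJ hv' hη hη₁ hθ n1 n2 hmP hnc (J := fun _ _ => JJ)
      (fun i hi k hk => by rw [hJJ, hu]) n3
    exact h3

/-- **(h2a) for one M-edge from the last clause of `cob_T`** -/
theorem h2a_T {Q : CB R3 3} {k0 : ℕ} {p : ℝ} (hp : 1 ≤ p) (hp3 : p < 3) (hOm : IsOpen OmR)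
    {g : R3 → R3} {G Gg G2 : Fin 3 → R3 → R3} {Rr : R3 → R3} (hg : SH p OmR La g Gg)
    (hRg : SH p OmR La (fun x => Rr (g x)) G2) {ψ : Fin 3 → ℝ → ℝ} {σ : ℝ} (hσ : 0 ≤ σ)
    (hm : ∀ a, Monotone (ψ a)) (hL : ∀ a x y, |ψ a x - ψ a y| ≤ |x - y|)
    (h0 : ∀ a x, 0 ≤ ψ a x) (h1 : ∀ a x, ψ a x ≤ σ) {O : Set R3}
    (hR : ∀ y ∈ O, ∀ a, Rr y a = y a - ψ a (y a))
    {κ : ℝ} (hκ : 0 < κ) (cnd1 : ∀ v, κ / 4 * ‖v‖ ≤ ‖Q.ψ v‖)
    (cnd2 : ∀ v, ‖Q.ψ v‖ ≤ 4 * κ⁻¹ * ‖v‖) {x v : R3} (hv : v ≠ 0) {u : ℝ}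
    (hu : u = 4 * κ⁻¹ / (5 * 2 ^ k0))
    (hT : cthickening u (sg (w2.symm x) (w2.symm v)) ⊆ w2 ⁻¹' OmR)
    (hO : ∀ z ∈ cthickening u (sg (w2.symm x) (w2.symm v)), g (w2 z) ∈ O)
    {L : R3 →L[ℝ] R3} (hLn : ‖L‖ ≤ κ⁻¹)
    -- the system and the last clause of `cob_T`
    (h : SysOf (Te T) s pr c R ρ ms X)
    (hG : GoodA OmR (fun y => ‖Gmat G y - L‖ₑ ^ p) xe ve ee xx aa)
    (hQ : ∀ φ, IsCompact (Qf φ))
    {me : EgS (Te T) s → κe} {mf : FcS (Te T) s pr → κf}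
    (hme : ∀ c, w2 '' c.1.set = seg xe ve aa (me c))
    (hmf : ∀ c, w2 '' c.1.set = pt (ee (mf c)) (aa + xx (mf c)) '' Qf (mf c))
    {Sn : Set (EgS (Te T) s)} (np : ∀ c : Sn, NP X ms u c.1.1) {ε : ℝ≥0∞}
    (hN : ∀ (c : Sn) (k : s), SmallR R ms u k → NoF T s pr ms u c.1.1 k →
        ∫⁻ x in P ((Te T).H k) ∩ cthickening u c.1.1.set,
          ‖Gmat Gg (w2 x) (w2 (np c).v0) - L (w2 (np c).v0)‖ₑ ^ p ≤
        ENNReal.ofReal ((2 * (2113 * (ms k : ℝ)^4 * ‖w2 (np c).v0‖))^p) *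
          (ENNReal.ofReal (CT p (ms k)) *
            Jt (efLoc hG hQ hme hmf X h.rim h.Z
              (isClosed_Bz c.1.1.set (25 * (ms k : ℝ)^4 * u))) k c.1.1.set u +
          ‖L‖ₑ ^ p * (nW X (np c).a0 (np c).v0 (np c).n *
            ENNReal.ofReal ((2 * ((1 + (np c).b0 * (1 + 4 * (((np c).M : ℝ) * (np c).M)) *
              ‖(np c).v0‖) * u))^3))) + ε)
    -- the deviations along the edges in the good cube `C`
    {C : Set R3} {η₁ : ℝ} (hη₁ : 0 ≤ η₁)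
    (hdev : ∀ i, ∫⁻ σ in Ioc (0:ℝ) 1, C.indicator (fun y => ‖Gmat G y - L‖ₑ ^ p)
      (aa + xe i + σ • ve i) ≤ ENNReal.ofReal (η₁ ^ p))
    -- pieces and cells
    {m : ℕ} {t : ℕ → ℝ} (ht0 : t 0 = 0) (htm : t m = 1) (ht : ∀ i < m, t i < t (i + 1))
    (cs : ℕ → Sn) (hcs : ∀ i < m, (cs i).1.1.set = sg (w2.symm x + t i • w2.symm v)
      ((t (i + 1) - t i) • w2.symm v))
    (si : ℕ → Finset s)
    (hcov : ∀ i < m, cthickening u (sg (w2.symm x + t i • w2.symm v)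
      ((t (i + 1) - t i) • w2.symm v)) ⊆ ⋃ k ∈ si i, P ((Te T).H k))
    {n nE nP nc nw : ℕ} {V cV Cb : ℝ} (hV : V ≤ cV * ‖v‖) (hV0 : 0 ≤ V) (hcV : 0 ≤ cV)
    (hsm : ∀ i < m, ∀ k ∈ si i, SmallR R ms u k)
    (hZ : ∀ i < m, ∀ k ∈ si i, Zn T s pr R ρ ms xe ve aa me C n nE V k (cs i).1.1.set u)
    (hmP : m ≤ nP) (hnc : ∀ i < m, (si i).card ≤ nc) {M : ℝ≥0}
    (hM : ∀ i < m, ∀ k ∈ si i, ms k ≤ M)
    (hnw : ∀ i < m, nW X (np (cs i)).a0 (np (cs i)).v0 (np (cs i)).n ≤ nw) (hCb : 0 ≤ Cb)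
    (hCb1 : ∀ i < m, (np (cs i)).b0 * (1 + 4 * (((np (cs i)).M : ℝ) * (np (cs i)).M)) *
      ‖(np (cs i)).v0‖ ≤ Cb)
    -- the numbers
    {κw θ : ℝ} {nM : ℕ} {η : ℝ} (hη : 0 ≤ η)
    (hsmall : 7 * (η * ‖v‖) + 3 * σ ≤ κw * ‖v‖ / (512 * nM))
    (hθ : 1 / 2 ^ k0 ≤ θ * ‖v‖)
    (n1 : A1 p κ (4226 * (M:ℝ) ^ 4) Cb nP nc nw * θ ≤ η ^ p / 3)
    (n2 : A2 p κ (4226 * (M:ℝ) ^ 4) (CT p M) (34848 * (M:ℝ) ^ 9 * n * nE * cV) nP nc * η₁ ^ p ≤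
      η ^ p / 3)
    (n3 : (ENNReal.ofReal (12800 * 4 ^ k0 / (κ ^ 4 * ‖v‖)) *
      ∑ i ∈ Finset.range m, ∑ _k ∈ si i, ENNReal.ofReal (((t (i + 1) - t i) ^ p)⁻¹)) * ε ≤
        ENNReal.ofReal ((η * ‖v‖) ^ p / 3)) :
    ∫⁻ w in Tw Q k0, ∫⁻ τ in Icc (0:ℝ) 1, ‖Gmat G2 (x + w + τ • v) v - L v‖ₑ ≤
      ENNReal.ofReal (κw * ‖v‖ / (512 * nM)) * volume (Tw Q k0) :=
  h2a_Tw hp hp3 hOm hg hRg hσ hm hL h0 h1 hR hκ cnd1 cnd2 hv hu hT hO hLn h hG hQ hme hmf np hN hη₁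
    (fun c _ => hdev (me c)) ht0 htm ht cs hcs si hcov hV hV0 hcV hsm hZ hmP hnc hM hnw hCb hCb1 hη
    hsmall hθ n1 n2 n3

/-- **near-tube parameters** from 55's / 296's `Edge` -/
theorem exists_NP {us : ι → ℝ≥0}
    (hEd : ∀ (i : ι) (x a v : E3) (w : ℝ≥0), i ∈ s → x ∈ P ((Te T).H i) → (Te T).dim x = 1 →
        (Te T).cc x = segment ℝ a (a + v) → 1 ≤ w →
        (∀ k ∈ s, (P ((Te T).H k) ∩ P ((Te T).H i)).Nonempty →
          us k ≤ w ∧ R k ≤ w * R i ∧ R i ≤ w * R k) →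
        Edge X a v (R i / (8 * w^9)) (8 * w^9 / R i) ⌊w⌋₊)
    {E : (Te T).Cell} (hd : E.dim = 1) {i : ι} (hi : i ∈ s) (hiE : i ∈ (Te T).at_ E.pt)
    {w : ℝ≥0} (hw : 1 ≤ w)
    (hsh : ∀ k ∈ s, (P ((Te T).H k) ∩ P ((Te T).H i)).Nonempty →
      us k ≤ w ∧ R k ≤ w * R i ∧ R i ≤ w * R k)
    {M : ℝ≥0} (hM : 1 ≤ M) (hMC : ∀ k : s, (k : ι) ∈ (Te T).at_ E.pt → ms k ≤ M) {u : ℝ}
    (hu : (1 + 4 * ((M : ℝ) * M)) * u ≤ R i / (8 * w^9)) :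
    ∃ np : NP X ms u E, np.b0 = 8 * w^9 / R i ∧ np.n = ⌊w⌋₊ ∧ np.M = M ∧
      ∃ y ∈ E.set, ∃ y' ∈ E.set, np.v0 = y' - y := by
  obtain ⟨y, y', -, hyy, -, -, -, hy, hy'⟩ := (Te T).edge_eq E.pt_mem hd
  have hcc : (Te T).cc E.pt = segment ℝ y (y + (y' - y)) := by rw [add_sub_cancel]; exact hyy
  have hset : E.set = segment ℝ y (y + (y' - y)) := by rw [E.set_eq, hcc]
  refine ⟨{ a0 := y, v0 := y' - y, hav := by rw [hset, sg_eq_segment], u0 := R i / (8 * w^9),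
            b0 := 8 * w^9 / R i, n := ⌊w⌋₊,
            edge := hEd i E.pt y (y' - y) w hi hiE hd hcc hw hsh, M := M, hM := hM, hMC := hMC,
            hu := hu }, rfl, rfl, rfl, y, ?_, y', ?_, rfl⟩
  · rw [E.set_eq]; exact hy
  · rw [E.set_eq]; exact hy'

end one

end

end Crest.Agent.R096.H2a_821
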