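import Crest.Agent.R096.H2n3_821
import Crest.Agent.R096.Oi1_961

/-!
Row 96 (S0127), `p ≤ 2`, COMPOSITE B, (O1)(A) of helper961 #11913 (helper821): **`h2a_longE`: (h2a) for one
M-edge** from `LongE`, `NearE`, `OutN`; the choice of the numbers (`exists_num2a`, `exists_eps2a`).
-/

set_option autoImplicit false
set_option linter.style.longLine false
set_option linter.unusedSectionVars false

namespace Crest.Agent.R096.H2a_821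

open MeasureTheory Set Filter Topology Metric
open Crest.AnalysisR.VecCalc3 Crest.AnalysisR.Sobolev
open Crest.Agent.R96.Lu_538
open Crest.Agent.R096.Sk_962 (SH)
open Crest.Agent.R096.Mal_874 (CB)
open Crest.Agent.R096.Msh_715 (P I Tiling)
open Crest.Agent.R096.Pin_753
open Crest.Agent.R096.Sq_55 (E3 Sys w2)
open Crest.Agent.R096.Cob_622
open Crest.Agent.R096.Efi_296
open Crest.Agent.R096.Cbs_296
open Crest.Agent.R096.Slb_296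
open Crest.Agent.R096.Fce_793 (pt cc)
open Crest.Agent.R96.Coarse_538 (seg)
open Crest.Agent.R96.En10_199 (P3)
open Crest.Agent.R096.Sqt_143 (sg isCompact_sg CT Zn Edge)
open Crest.Agent.R096.Oi_961
open scoped ENNReal NNReal

noncomputable section

variable {OmR La : Set R3} {ι : Type*} {T : Tiling OmR ι} {κe κf : Type*}
  {xe ve : κe → R3} {ee : κf → Fin 2 → R3} {xx : κf → R3} {aa : R3} {Qf : κf → Set (ℝ × ℝ)}
  {s : Finset ι} {pr : (Te T).Cell → Prop}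
  {c : ι → E3} {R : ι → ℝ≥0} {ρ : E3 → ℝ≥0} {ms : ι → ℝ≥0} {X : Sys s (reps (Te T) s pr)}

/-- **(h2a) for one M-edge** `e` -/
theorem h2a_longE {Q : CB R3 3} {k0 : ℕ} {p : ℝ} (hp : 1 ≤ p) (hp3 : p < 3) (hOm : IsOpen OmR)
    {g : R3 → R3} {G Gg G2 : Fin 3 → R3 → R3} {Rr : R3 → R3} (hg : SH p OmR La g Gg)
    (hRg : SH p OmR La (fun x => Rr (g x)) G2) {ψ : Fin 3 → ℝ → ℝ} {σ : ℝ} (hσ : 0 ≤ σ)
    (hm : ∀ a, Monotone (ψ a)) (hL : ∀ a x y, |ψ a x - ψ a y| ≤ |x - y|)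
    (h0 : ∀ a x, 0 ≤ ψ a x) (h1 : ∀ a x, ψ a x ≤ σ) {O : Set R3}
    (hR : ∀ y ∈ O, ∀ a, Rr y a = y a - ψ a (y a))
    {κ : ℝ} (hκ : 0 < κ) (cnd1 : ∀ v, κ / 4 * ‖v‖ ≤ ‖Q.ψ v‖)
    (cnd2 : ∀ v, ‖Q.ψ v‖ ≤ 4 * κ⁻¹ * ‖v‖) {e : R3 × R3} {u : ℝ}
    (hu : u = 4 * κ⁻¹ / (5 * 2 ^ k0))
    (hT : cthickening u (sg (w2.symm e.1) (w2.symm (e.2 - e.1))) ⊆ w2 ⁻¹' OmR)
    (hO : ∀ z ∈ cthickening u (sg (w2.symm e.1) (w2.symm (e.2 - e.1))), g (w2 z) ∈ O)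
    {L : R3 →L[ℝ] R3} (hLn : ‖L‖ ≤ κ⁻¹)
    (h : SysOf (Te T) s pr c R ρ ms X)
    (hG : GoodA OmR (fun y => ‖Gmat G y - L‖ₑ ^ p) xe ve ee xx aa)
    (hQ : ∀ φ, IsCompact (Qf φ))
    {me : EgS (Te T) s → κe} {mf : FcS (Te T) s pr → κf}
    (hme : ∀ c, w2 '' c.1.set = seg xe ve aa (me c))
    (hmf : ∀ c, w2 '' c.1.set = pt (ee (mf c)) (aa + xx (mf c)) '' Qf (mf c))
    {Sn : Set (EgS (Te T) s)} (npp : ∀ c : Sn, NP X ms u c.1.1) {ε : ℝ≥0∞}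
    (hN : OutN h hG hQ hme hmf Gg u npp ε)
    {C : Set R3} {η₁ : ℝ} (hη₁ : 0 ≤ η₁)
    (hdev : ∀ c : EgS (Te T) s, seg xe ve aa (me c) ⊆ C →
      ∫⁻ σ in Ioc (0:ℝ) 1, C.indicator (fun y => ‖Gmat G y - L‖ₑ ^ p)
        (aa + xe (me c) + σ • ve (me c)) ≤ ENNReal.ofReal (η₁ ^ p))
    {n nE nP nc nw : ℕ} {lam cV Cb : ℝ} {M : ℝ≥0} (hlam : 0 < lam) (hcV : 0 ≤ cV)
    (hCb : 0 ≤ Cb)
    {m' : ℕ} {t : ℕ → ℝ} {S : ℕ → Finset s}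
    (hLE : LongE T s pr R ρ ms xe ve aa me C n nE nP nc lam cV M u e m' t S)
    (hNE : NearE X npp nw Cb e m' t)
    -- the numbers
    {κw θ : ℝ} {nM : ℕ} {η : ℝ} (hη : 0 ≤ η)
    (hsmall : 7 * (η * ‖e.2 - e.1‖) + 3 * σ ≤ κw * ‖e.2 - e.1‖ / (512 * nM))
    (hθ : 1 / 2 ^ k0 ≤ θ * ‖e.2 - e.1‖)
    (n1 : A1 p κ (4226 * (M:ℝ) ^ 4) Cb nP nc nw * θ ≤ η ^ p / 3)
    (n2 : A2 p κ (4226 * (M:ℝ) ^ 4) (CT p M) (34848 * (M:ℝ) ^ 9 * n * nE * cV) nP nc * η₁ ^ p ≤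
      η ^ p / 3)
    (n3 : (ENNReal.ofReal (12800 * 4 ^ k0 / (κ ^ 4 * ‖e.2 - e.1‖)) *
      ∑ i ∈ Finset.range m', ∑ _k ∈ S i, ENNReal.ofReal (((t (i + 1) - t i) ^ p)⁻¹)) * ε ≤
        ENNReal.ofReal ((η * ‖e.2 - e.1‖) ^ p / 3)) :
    ∫⁻ w in Tw Q k0, ∫⁻ τ in Icc (0:ℝ) 1,
        ‖Gmat G2 (e.1 + w + τ • (e.2 - e.1)) (e.2 - e.1) - L (e.2 - e.1)‖ₑ ≤
      ENNReal.ofReal (κw * ‖e.2 - e.1‖ / (512 * nM)) * volume (Tw Q k0) := by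
  have hm' : 0 < m' := by
    rcases Nat.eq_zero_or_pos m' with h2 | h2
    · exfalso
      have h3 := hLE.tm
      rw [h2, hLE.t0] at h3
      exact zero_ne_one h3
    · exact h2
  obtain ⟨c0, -⟩ := hNE.cell 0 hm'
  have hex : ∀ i, ∃ c : Sn, i < m' → c.1.1.set = pce e t i ∧
      nW X (npp c).a0 (npp c).v0 (npp c).n ≤ nw ∧ 0 ≤ (npp c).b0 ∧
      (npp c).b0 * (1 + 4 * (((npp c).M : ℝ) * (npp c).M)) * ‖(npp c).v0‖ ≤ Cb := by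
    intro i
    by_cases hi : i < m'
    · obtain ⟨c, hc⟩ := hNE.cell i hi
      exact ⟨c, fun _ => hc⟩
    · exact ⟨c0, fun h => absurd h hi⟩
  choose cs hcs using hex
  refine h2a_Tw hp hp3 hOm hg hRg hσ hm hL h0 h1 hR hκ cnd1 cnd2 hLE.ne hu hT hO hLn h hG hQ hme hmf
    npp hN hη₁ hdev hLE.t0 hLE.tm (fun i hi => lt_of_lt_of_le (lt_add_of_pos_right _ hlam) (hLE.gap i hi)) cs (fun i hi => (hcs i hi).1) S hLE.cov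
    (V := cV * ‖e.2 - e.1‖) le_rfl (by positivity) hcV hLE.sml (fun i hi k hk => ?_) hLE.num
    hLE.card (M := M) (fun i hi k hk => by
      have h7 := hLE.em i hi k hk
      first | exact h7 | exact h7.le) (fun i hi => (hcs i hi).2.1) hCb
    (fun i hi => (hcs i hi).2.2.2) hη hsmall hθ n1 n2 n3
  rw [(hcs i hi).1]
  exact hLE.zn i hi k hk

/-- **the choice of the numbers of (2a)**: `η`, then `θ0 ≤ θ₀`, `η₁ ≤ η₁⁰`, `σ ≤ σ₀ s`; `V = ‖e.2 - e.1‖`,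
`c₀ = κ / 4 * c * c1` from 227's `len_M_tr` -/
theorem exists_num2a {p κ cV Cb κw c₀ : ℝ} (M : ℝ≥0) (n nE nP nc nw : ℕ) {nM : ℕ} (hp : 1 ≤ p)
    (hp3 : p < 3) (hκ : 0 < κ) (hcV : 0 ≤ cV) (hCb : 0 ≤ Cb) (hκw : 0 < κw) (hc₀ : 0 < c₀)
    (hnM : 0 < nM) :
    ∃ η : ℝ, 0 < η ∧ ∃ θ₀ : ℝ, 0 < θ₀ ∧ ∃ η₀ : ℝ, 0 < η₀ ∧ ∃ σ₀ : ℝ, 0 < σ₀ ∧
    ∀ (s θ0 η₁ σ V : ℝ) (k0 : ℕ), 0 ≤ θ0 → θ0 ≤ θ₀ → 0 ≤ η₁ → η₁ ≤ η₀ → σ ≤ σ₀ * s →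
      c₀ * s ≤ V → 1 / 2 ^ k0 ≤ θ0 * s →
      7 * (η * V) + 3 * σ ≤ κw * V / (512 * nM) ∧ 1 / 2 ^ k0 ≤ θ0 / c₀ * V ∧
      A1 p κ (4226 * (M:ℝ) ^ 4) Cb nP nc nw * (θ0 / c₀) ≤ η ^ p / 3 ∧
      A2 p κ (4226 * (M:ℝ) ^ 4) (CT p M) (34848 * (M:ℝ) ^ 9 * n * nE * cV) nP nc * η₁ ^ p ≤
        η ^ p / 3 := by
  have hp0 : 0 < p := by linarith
  have hnM' : (0:ℝ) < nM := by exact_mod_cast hnM
  have hK0 : (0:ℝ) ≤ 4226 * (M:ℝ) ^ 4 := by positivity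
  have hCT : 0 ≤ CT p M := Sqt_143.CT_nonneg hp3 M
  have hCJ : (0:ℝ) ≤ 34848 * (M:ℝ) ^ 9 * n * nE * cV := by positivity
  set η : ℝ := κw / (7168 * nM) with hη
  have hη0 : 0 < η := by positivity
  have hηp : 0 < η ^ p / 3 := by
    have := Real.rpow_pos_of_pos hη0 p
    positivity
  obtain ⟨θ₁, hθ₁, h1⟩ := exists_lin_small (A1_nonneg (p := p) hκ hK0 hCb nP nc nw) hηp
  obtain ⟨η₀, hη₀, h2⟩ := exists_pow_small (A2_nonneg (p := p) hκ hK0 hCT hCJ nP nc) hp0 hηp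
  refine ⟨η, hη0, θ₁ * c₀, by positivity, η₀, hη₀, κw * c₀ / (3072 * nM), by positivity, ?_⟩
  intro s θ0 η₁ σ V k0 ht0 ht1 he0 he1 hσ hV hk
  refine ⟨?_, ?_, h1 _ (by positivity) ?_, h2 _ he0 he1⟩
  · have e1 : 7 * (η * V) = κw * V / (1024 * nM) := by
      rw [hη]; field_simp; ring
    have e2 : 3 * σ ≤ κw * V / (1024 * nM) := by
      calc 3 * σ ≤ 3 * (κw * c₀ / (3072 * nM) * s) := by linarith
        _ = κw * (c₀ * s) / (1024 * nM) := by field_simp; ring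
        _ ≤ κw * V / (1024 * nM) := by gcongr
    have e3 : κw * V / (512 * nM) = κw * V / (1024 * nM) + κw * V / (1024 * nM) := by
      field_simp; ring
    rw [e1, e3]
    linarith
  · calc 1 / 2 ^ k0 ≤ θ0 * s := hk
      _ = θ0 / c₀ * (c₀ * s) := by field_simp
      _ ≤ θ0 / c₀ * V := by gcongr
  · rw [div_le_iff₀ hc₀]
    exact ht1

/-- **the last error `ε`** for finitely many M-edges -/
theorem exists_eps2a {I κX : Type*} [Finite I] {p κ η : ℝ} (hη : 0 < η) {V : I → ℝ}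
    (hV : ∀ i, 0 < V i) (k0 : ℕ) (m : I → ℕ) (t : I → ℕ → ℝ) (S : I → ℕ → Finset κX) :
    ∃ ε : ℝ≥0∞, ε ≠ 0 ∧ ε ≠ ∞ ∧ ∀ q : I, ∀ ε' ≤ ε,
      (ENNReal.ofReal (12800 * 4 ^ k0 / (κ ^ 4 * V q)) *
        ∑ i ∈ Finset.range (m q), ∑ _k ∈ S q i,
          ENNReal.ofReal (((t q (i + 1) - t q i) ^ p)⁻¹)) * ε' ≤
        ENNReal.ofReal ((η * V q) ^ p / 3) := by
  obtain ⟨ε, h1, h2, h3⟩ := exists_eps_fin
    (X := fun q : I => ENNReal.ofReal (12800 * 4 ^ k0 / (κ ^ 4 * V q)) *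
        ∑ i ∈ Finset.range (m q), ∑ _k ∈ S q i,
          ENNReal.ofReal (((t q (i + 1) - t q i) ^ p)⁻¹))
    (Y := fun q : I => ENNReal.ofReal ((η * V q) ^ p / 3)) (fun q => by
      refine ENNReal.mul_ne_top ENNReal.ofReal_ne_top ?_
      exact (ENNReal.sum_lt_top.2 fun i _ => ENNReal.sum_lt_top.2 fun _ _ =>
        ENNReal.ofReal_lt_top).ne) (fun q => by
      rw [Ne, ENNReal.ofReal_eq_zero, not_le]
      have := Real.rpow_pos_of_pos (mul_pos hη (hV q)) p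
      positivity)
  exact ⟨ε, h1, h2, fun q ε' hε' => (mul_le_mul' le_rfl hε').trans (h3 q)⟩

/-- **the last error `ε`, uniform**: one `ε` for all edges of length `≥ V₀` with gaps `≥ lam` -/
theorem exists_eps2u {p κ η V₀ lam : ℝ} (hp : 0 ≤ p) (hκ : 0 < κ) (hη : 0 < η) (hV₀ : 0 < V₀)
    (hlam : 0 < lam) (nP nc k0 : ℕ) :
    ∃ ε : ℝ≥0∞, ε ≠ 0 ∧ ε ≠ ∞ ∧ ∀ ε' ≤ ε, ∀ V : ℝ, V₀ ≤ V → ∀ (m' : ℕ) (t : ℕ → ℝ) {κX : Type*}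
      (S : ℕ → Finset κX), (∀ i < m', t i + lam ≤ t (i + 1)) → m' ≤ nP →
      (∀ i < m', (S i).card ≤ nc) →
      (ENNReal.ofReal (12800 * 4 ^ k0 / (κ ^ 4 * V)) *
        ∑ i ∈ Finset.range m', ∑ _k ∈ S i,
          ENNReal.ofReal (((t (i + 1) - t i) ^ p)⁻¹)) * ε' ≤
        ENNReal.ofReal ((η * V) ^ p / 3) := by
  obtain ⟨ε, h1, h2, h3⟩ := exists_eps_fin (I := Unit)
    (X := fun _ => ENNReal.ofReal (12800 * 4 ^ k0 / (κ ^ 4 * V₀)) *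
      ((nP * nc : ℕ) * ENNReal.ofReal ((lam ^ p)⁻¹)))
    (Y := fun _ => ENNReal.ofReal ((η * V₀) ^ p / 3)) (fun _ =>
      ENNReal.mul_ne_top ENNReal.ofReal_ne_top
        (ENNReal.mul_ne_top (ENNReal.natCast_ne_top _) ENNReal.ofReal_ne_top)) (fun _ => by
      rw [Ne, ENNReal.ofReal_eq_zero, not_le]
      have := Real.rpow_pos_of_pos (mul_pos hη hV₀) p
      positivity)
  refine ⟨ε, h1, h2, fun ε' hε' V hV m' t κX S hgap hm hc => ?_⟩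
  have h4 : (∑ i ∈ Finset.range m', ∑ _k ∈ S i, ENNReal.ofReal (((t (i + 1) - t i) ^ p)⁻¹)) ≤
      (nP * nc : ℕ) * ENNReal.ofReal ((lam ^ p)⁻¹) := by
    calc (∑ i ∈ Finset.range m', ∑ _k ∈ S i, ENNReal.ofReal (((t (i + 1) - t i) ^ p)⁻¹))
        ≤ ∑ i ∈ Finset.range m', (nc : ℝ≥0∞) * ENNReal.ofReal ((lam ^ p)⁻¹) := by
          refine Finset.sum_le_sum fun i hi => ?_
          have hi' := Finset.mem_range.1 hi
          rw [Finset.sum_const, nsmul_eq_mul]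
          refine mul_le_mul' (by exact_mod_cast hc i hi') (ENNReal.ofReal_le_ofReal ?_)
          refine inv_anti₀ (Real.rpow_pos_of_pos hlam p) ?_
          refine Real.rpow_le_rpow hlam.le ?_ hp
          have := hgap i hi'
          linarith
      _ = (m' : ℝ≥0∞) * ((nc : ℝ≥0∞) * ENNReal.ofReal ((lam ^ p)⁻¹)) := by
          rw [Finset.sum_const, nsmul_eq_mul, Finset.card_range]
      _ ≤ (nP : ℝ≥0∞) * ((nc : ℝ≥0∞) * ENNReal.ofReal ((lam ^ p)⁻¹)) := by gcongr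
      _ = _ := by rw [← mul_assoc, Nat.cast_mul]
  have h5 : ENNReal.ofReal (12800 * 4 ^ k0 / (κ ^ 4 * V)) ≤
      ENNReal.ofReal (12800 * 4 ^ k0 / (κ ^ 4 * V₀)) := by
    apply ENNReal.ofReal_le_ofReal
    gcongr
  refine (mul_le_mul' (mul_le_mul' h5 h4) hε').trans ((h3 ()).trans ?_)
  apply ENNReal.ofReal_le_ofReal
  gcongr

/-! ### the parameters of the near tubes -/

/-- **the cells for which there are near-tube parameters with bounds** `nw`, `Cb` -/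
def SnS (X : Sys s (reps (Te T) s pr)) (ms : ι → ℝ≥0) (u : ℝ) (nw : ℕ) (Cb : ℝ) :
    Set (EgS (Te T) s) :=
  {c | ∃ np : NP X ms u c.1, nW X np.a0 np.v0 np.n ≤ nw ∧ 0 ≤ np.b0 ∧
    np.b0 * (1 + 4 * ((np.M : ℝ) * np.M)) * ‖np.v0‖ ≤ Cb}

/-- **the parameters** -/
def npS (X : Sys s (reps (Te T) s pr)) (ms : ι → ℝ≥0) (u : ℝ) (nw : ℕ) (Cb : ℝ) :
    ∀ c : SnS X ms u nw Cb, NP X ms u c.1.1 := fun c => c.2.choose

theorem npS_spec {u : ℝ} {nw : ℕ} {Cb : ℝ} (c : SnS X ms u nw Cb) :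
    nW X (npS X ms u nw Cb c).a0 (npS X ms u nw Cb c).v0 (npS X ms u nw Cb c).n ≤ nw ∧
      0 ≤ (npS X ms u nw Cb c).b0 ∧
      (npS X ms u nw Cb c).b0 * (1 + 4 * (((npS X ms u nw Cb c).M : ℝ) * (npS X ms u nw Cb c).M)) *
        ‖(npS X ms u nw Cb c).v0‖ ≤ Cb := c.2.choose_spec

/-- **`NearE` for the cells `SnS`** -/
theorem nearE_of {u : ℝ} {nw : ℕ} {Cb : ℝ} {e : R3 × R3} {m' : ℕ} {t : ℕ → ℝ}
    (h : ∀ i < m', ∃ c : EgS (Te T) s, c.1.set = pce e t i ∧ c ∈ SnS X ms u nw Cb) :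
    NearE X (npS X ms u nw Cb) nw Cb e m' t where
  cell i hi := by
    obtain ⟨c, hc, hcS⟩ := h i hi
    exact ⟨⟨c, hcS⟩, hc, npS_spec ⟨c, hcS⟩⟩

/-- **membership in `SnS`** from the Edge clause of 296's `exists_sys_s`, for a 1-cell at a tile `i` with
shape number `w`; `vR` = sizes of the 1-cell / `R i` -/
theorem mem_SnS (h : SysOf (Te T) s pr c R ρ ms X) {us : ι → ℝ≥0}
    (hEd : ∀ (i : ι) (x a v : E3) (w : ℝ≥0), i ∈ s → x ∈ P ((Te T).H i) → (Te T).dim x = 1 →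
        (Te T).cc x = segment ℝ a (a + v) → 1 ≤ w →
        (∀ k ∈ s, (P ((Te T).H k) ∩ P ((Te T).H i)).Nonempty →
          us k ≤ w ∧ R k ≤ w * R i ∧ R i ≤ w * R k) →
        Edge X a v (R i / (8 * w^9)) (8 * w^9 / R i) ⌊w⌋₊)
    (E : EgS (Te T) s) {i : ι} (hi : i ∈ s) (hiE : i ∈ (Te T).at_ E.1.pt) (hRi : 0 < R i)
    {w : ℝ≥0} (hw : 1 ≤ w)
    (hsh : ∀ k ∈ s, (P ((Te T).H k) ∩ P ((Te T).H i)).Nonempty →
      us k ≤ w ∧ R k ≤ w * R i ∧ R i ≤ w * R k)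
    {M : ℝ≥0} (hM : 1 ≤ M) (hMC : ∀ k : s, (k : ι) ∈ (Te T).at_ E.1.pt → ms k ≤ M) {u : ℝ}
    (hu : (1 + 4 * ((M : ℝ) * M)) * u ≤ R i / (8 * w^9))
    {na nf : ℕ} (hna : ((Te T).at_ E.1.pt).ncard ≤ na)
    (hnf : ∀ i ∈ (Te T).at_ E.1.pt,
      {y : reps (Te T) s pr | i ∈ (Te T).at_ (y : E3)}.ncard ≤ nf)
    {vR : ℝ} (hvR : ∀ y ∈ E.1.set, ∀ y' ∈ E.1.set, ‖y' - y‖ ≤ vR * R i)
    {nw : ℕ} (hnw : (na + na * nf) * ⌊w⌋₊ + 2 ≤ nw) {Cb : ℝ}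
    (hCb : 8 * (w:ℝ)^9 * (1 + 4 * ((M : ℝ) * M)) * vR ≤ Cb) :
    E ∈ SnS X ms u nw Cb := by
  obtain ⟨np, h1, h2, h3, y, hy, y', hy', h4⟩ :=
    exists_NP (ms := ms) hEd E.2.1 hi hiE hw hsh hM hMC hu
  have hRi' : (0:ℝ) < R i := by exact_mod_cast hRi
  refine ⟨np, ?_, ?_, ?_⟩
  · rw [h2]
    exact (nW_le h np.hav hna hnf _).trans hnw
  · rw [h1]; positivity
  · rw [h1, h3, h4]
    refine le_trans ?_ hCb
    have h5 := hvR y hy y' hy'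
    calc 8 * (w:ℝ)^9 / R i * (1 + 4 * ((M : ℝ) * M)) * ‖y' - y‖ ≤
          8 * (w:ℝ)^9 / R i * (1 + 4 * ((M : ℝ) * M)) * (vR * R i) := by gcongr
      _ = _ := by field_simp

end

end Crest.Agent.R096.H2a_821
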