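import Crest.Agent.R096.H2n4_821
import Crest.Agent.R096.Sqt17_143
import Crest.Agent.R096.Cbs4_296

/-!
Row 96 (S0127), `p ≤ 2`, COMPOSITE B, (O1)(D4) of helper961 (helper821): **`nearE_deep`**: the near-tube
parameters of the pieces of a long edge, from 143's `DeepS`.
-/

set_option autoImplicit false
set_option linter.style.longLine false
set_option linter.unusedSectionVars false

namespace Crest.Agent.R096.H2a_821

open MeasureTheory Set Filter Topology Metric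
open Crest.AnalysisR.VecCalc3
open Crest.Agent.R096.Msh_715 (P I Tiling)
open Crest.Agent.R096.Sq_55 (E3 Sys w2)
open Crest.Agent.R096.Cob_622
open Crest.Agent.R096.Efi_296
open Crest.Agent.R096.Cbs_296
open Crest.Agent.R96.En10_199 (P3)
open Crest.Agent.R096.Sqt_143 (sg Edge DeepS)
open Crest.Agent.R096.Oi_961
open scoped ENNReal NNReal

noncomputable section

variable {OmR : Set R3} {ι : Type*} {T : Tiling OmR ι}
  {s : Finset ι} {pr : (Te T).Cell → Prop}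
  {c : ι → E3} {R : ι → ℝ≥0} {ρ : E3 → ℝ≥0} {ms : ι → ℝ≥0} {X : Sys s (reps (Te T) s pr)}

/-- **a 1-cell whose tiles are deep has near-tube parameters** -/
theorem mem_SnS_deep (h : SysOf (Te T) s pr c R ρ ms X) {us : ι → ℝ≥0}
    (hEd : ∀ (i : ι) (x a v : E3) (w : ℝ≥0), i ∈ s → x ∈ P ((Te T).H i) → (Te T).dim x = 1 →
        (Te T).cc x = segment ℝ a (a + v) → 1 ≤ w →
        (∀ k ∈ s, (P ((Te T).H k) ∩ P ((Te T).H i)).Nonempty →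
          us k ≤ w ∧ R k ≤ w * R i ∧ R i ≤ w * R k) →
        Edge X a v (R i / (8 * w^9)) (8 * w^9 / R i) ⌊w⌋₊)
    {u : ℝ} {C : Set R3} {M : ℝ≥0} {nb : ℕ} {D : Set ι} (hD : DeepS T s pr R ms ρ u C M nb D)
    (hM1 : 1 ≤ M) {w : ℝ≥0} (hw : 1 ≤ w)
    (hnbr : ∀ i ∈ D, ∀ k ∈ s, (P ((Te T).H k) ∩ P ((Te T).H i)).Nonempty →
      us k ≤ w ∧ R k ≤ w * R i ∧ R i ≤ w * R k)
    (hu : ∀ i ∈ D, (1 + 4 * ((M : ℝ) * M)) * u ≤ R i / (8 * w^9))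
    {vR : ℝ} (hvR : ∀ i ∈ D, ∀ y ∈ P (T.H i), ∀ z ∈ P (T.H i), ‖z - y‖ ≤ vR * R i)
    {nw : ℕ} (hnw : (nb + nb * nb) * ⌊w⌋₊ + 2 ≤ nw) {Cb : ℝ}
    (hCb : 8 * (w:ℝ)^9 * (1 + 4 * ((M : ℝ) * M)) * vR ≤ Cb)
    (E : EgS (Te T) s) (hE : (Te T).at_ E.1.pt ⊆ D) : E ∈ SnS X ms u nw Cb := by
  obtain ⟨i, hi⟩ := (Te T).at_nonempty E.1.pt_mem
  have hiD := hE hi
  have his := hD.sub i hiD
  have hRi : 0 < R i := by
    have h1 := h.R_pos ⟨i, his⟩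
    rwa [h.eR] at h1
  refine mem_SnS h hEd E his hi hRi hw (hnbr i hiD) hM1 (fun k hk => hD.hM k (hE hk)) (hu i hiD)
    (na := nb) (nf := nb) ?_ ?_ (vR := vR) ?_ hnw hCb
  · exact (Set.ncard_le_ncard (at_sub_nbT hi) (finite_nbT _ _)).trans (hD.hnb i hiD)
  · intro l hl
    exact (ncard_faces_le (Te T) s pr l).trans (hD.hnb l (hE hl))
  · intro y hy y' hy'
    have hsub : E.1.set ⊆ P ((Te T).H i) := by
      rw [E.1.set_eq]
      exact (Te T).cc_sub_tile hi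
    have h1 : w2 y ∈ P (T.H i) := by rw [← image_P_Te]; exact mem_image_of_mem _ (hsub hy)
    have h2 : w2 y' ∈ P (T.H i) := by rw [← image_P_Te]; exact mem_image_of_mem _ (hsub hy')
    exact (Fub_216.norm_w2_symm_le (w2 y' - w2 y)).trans (hvR i hiD _ h1 _ h2)

/-- **(D4): `NearE` for an edge all of whose pieces have deep tiles** -/
theorem nearE_deep (h : SysOf (Te T) s pr c R ρ ms X) {us : ι → ℝ≥0}
    (hEd : ∀ (i : ι) (x a v : E3) (w : ℝ≥0), i ∈ s → x ∈ P ((Te T).H i) → (Te T).dim x = 1 →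
        (Te T).cc x = segment ℝ a (a + v) → 1 ≤ w →
        (∀ k ∈ s, (P ((Te T).H k) ∩ P ((Te T).H i)).Nonempty →
          us k ≤ w ∧ R k ≤ w * R i ∧ R i ≤ w * R k) →
        Edge X a v (R i / (8 * w^9)) (8 * w^9 / R i) ⌊w⌋₊)
    {u : ℝ} {C : Set R3} {M : ℝ≥0} {nb : ℕ} {D : Set ι} (hD : DeepS T s pr R ms ρ u C M nb D)
    (hM1 : 1 ≤ M) {w : ℝ≥0} (hw : 1 ≤ w)
    (hnbr : ∀ i ∈ D, ∀ k ∈ s, (P ((Te T).H k) ∩ P ((Te T).H i)).Nonempty →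
      us k ≤ w ∧ R k ≤ w * R i ∧ R i ≤ w * R k)
    (hu : ∀ i ∈ D, (1 + 4 * ((M : ℝ) * M)) * u ≤ R i / (8 * w^9))
    {vR : ℝ} (hvR : ∀ i ∈ D, ∀ y ∈ P (T.H i), ∀ z ∈ P (T.H i), ‖z - y‖ ≤ vR * R i)
    {nw : ℕ} (hnw : (nb + nb * nb) * ⌊w⌋₊ + 2 ≤ nw) {Cb : ℝ}
    (hCb : 8 * (w:ℝ)^9 * (1 + 4 * ((M : ℝ) * M)) * vR ≤ Cb)
    {e : R3 × R3} {m' : ℕ} {t : ℕ → ℝ}
    (hcell : ∀ i < m', ∃ c : EgS (Te T) s, c.1.set = pce e t i)
    (hdeep : ∀ i < m', ∀ l, (P ((Te T).H l) ∩ pce e t i).Nonempty → l ∈ D) :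
    NearE X (npS X ms u nw Cb) nw Cb e m' t := by
  refine nearE_of fun i hi => ?_
  obtain ⟨c, hc⟩ := hcell i hi
  refine ⟨c, hc, mem_SnS_deep h hEd hD hM1 hw hnbr hu hvR hnw hCb c fun l hl => ?_⟩
  refine hdeep i hi l ⟨c.1.pt, hl, ?_⟩
  rw [← hc]
  exact pt_mem_set _

end

end Crest.Agent.R096.H2a_821
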