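import Crest.Agent.R096.Sk2a_855
import Crest.Agent.R096.SkC1_961

/-!
# The inverse of a locally PL homeomorphism is locally PL (helper816, row 96)
-/

set_option autoImplicit false

open Set Filter Topology Metric

namespace Crest.Agent.R096.LpInv_816

open Ce_537

variable {E F : Type*} [NormedAddCommGroup E] [NormedSpace ℝ E] [NormedAddCommGroup F]
  [NormedSpace ℝ F]

/-- a continuous selection of finitely many affine maps agrees with one of them on a nonempty
open set -/
theorem exists_open_eq {f : E → F} [DecidableEq (E →ᵃ[ℝ] F)]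
    (hcont : ∀ a : E →ᵃ[ℝ] F, Continuous a) (S : Finset (E →ᵃ[ℝ] F)) :
    ∀ V : Set E, IsOpen V → V.Nonempty → ContinuousOn f V → (∀ z ∈ V, ∃ a ∈ S, f z = a z) →
      ∃ a ∈ S, ∃ W : Set E, IsOpen W ∧ W.Nonempty ∧ W ⊆ V ∧ ∀ z ∈ W, f z = a z := by
  induction S using Finset.induction_on with
  | empty =>
    intro V _ hne _ h
    obtain ⟨z, hz⟩ := hne
    obtain ⟨a, ha, -⟩ := h z hz
    simp at ha
  | insert a S _ ih =>
    intro V hV hne hf h
    let V' : Set E := V ∩ (fun z => f z - a z) ⁻¹' {0}ᶜ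
    have hV' : IsOpen V' :=
      (hf.sub (hcont a).continuousOn).isOpen_inter_preimage hV isOpen_compl_singleton
    rcases V'.eq_empty_or_nonempty with h0 | h0
    · refine ⟨a, Finset.mem_insert_self _ _, V, hV, hne, Subset.rfl, fun z hz => ?_⟩
      by_contra hn
      have : z ∈ V' := ⟨hz, fun h1 => hn (sub_eq_zero.1 h1)⟩
      rw [h0] at this; exact this
    · obtain ⟨b, hb, W, h1, h2, h3, h4⟩ := ih V' hV' h0 (hf.mono inter_subset_left) (by
        rintro z ⟨hz, hz'⟩
        obtain ⟨b, hb, e⟩ := h z hz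
        rcases Finset.mem_insert.1 hb with rfl | hb
        · exact absurd (sub_eq_zero.2 e) hz'
        · exact ⟨b, hb, e⟩)
      exact ⟨b, Finset.mem_insert_of_mem hb, W, h1, h2, h3.trans inter_subset_left, h4⟩

/-- where a continuous injective map is a selection of finitely many affine maps, it is a
selection of the injective ones -/
theorem exists_injective [FiniteDimensional ℝ E] {f : E → F} {S : Finset (E →ᵃ[ℝ] F)} {U : Set E}
    (hU : IsOpen U) (hf : ContinuousOn f U) (hi : InjOn f U)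
    (h : ∀ z ∈ U, ∃ a ∈ S, f z = a z) {z : E} (hz : z ∈ U) :
    ∃ a ∈ S, Function.Injective a ∧ f z = a z := by
  classical
  have hcont : ∀ a : E →ᵃ[ℝ] F, Continuous a := fun a => a.continuous_of_finiteDimensional
  by_contra hn
  push Not at hn
  let S1 := S.filter fun a : E →ᵃ[ℝ] F => Function.Injective (a : E → F)
  let S2 := S.filter fun a : E →ᵃ[ℝ] F => ¬ Function.Injective (a : E → F)
  let V : Set E := U ∩ ⋂ a ∈ S1, (U ∩ (fun z => f z - a z) ⁻¹' {0}ᶜ)
  have hV : IsOpen V := hU.inter (isOpen_biInter_finset fun a _ =>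
    (hf.sub (hcont a).continuousOn).isOpen_inter_preimage hU isOpen_compl_singleton)
  have hVz : z ∈ V := by
    refine ⟨hz, mem_iInter₂.2 fun a ha => ⟨hz, fun h1 => ?_⟩⟩
    have ha' := Finset.mem_filter.1 ha
    exact hn a ha'.1 ha'.2 (sub_eq_zero.1 h1)
  obtain ⟨a, ha, W, hW, ⟨w, hw⟩, hWV, hWa⟩ := exists_open_eq hcont S2 V hV ⟨z, hVz⟩
    (hf.mono inter_subset_left) (by
      rintro w ⟨hw, hw'⟩
      obtain ⟨a, ha, e⟩ := h w hw
      refine ⟨a, Finset.mem_filter.2 ⟨ha, fun hinj => ?_⟩, e⟩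
      have := mem_iInter₂.1 hw' a (Finset.mem_filter.2 ⟨ha, hinj⟩)
      exact this.2 (sub_eq_zero.2 e))
  have hna := (Finset.mem_filter.1 ha).2
  rw [← AffineMap.linear_injective_iff] at hna
  obtain ⟨v, hv0, hv⟩ : ∃ v, a.linear v = 0 ∧ v ≠ 0 := by
    by_contra hc
    push Not at hc
    exact hna ((injective_iff_map_eq_zero _).2 fun v hv => hc v hv)
  have hl : Tendsto (fun s : ℝ => w + s • v) (𝓝[>] 0) (𝓝 w) := by
    have hc : Continuous fun s : ℝ => w + s • v := by fun_prop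
    have h3 := hc.tendsto 0
    rw [zero_smul, add_zero] at h3
    exact h3.mono_left nhdsWithin_le_nhds
  obtain ⟨s, hs, hs0⟩ := ((hl.eventually (hW.mem_nhds hw)).and self_mem_nhdsWithin).exists
  have hs0 : 0 < s := hs0
  have e1 : f (w + s • v) = f w := by
    rw [hWa _ hs, hWa _ hw]
    have : a (w + s • v) = a w + a.linear (s • v) := by
      rw [add_comm w, ← vadd_eq_add, a.map_vadd, vadd_eq_add, add_comm]
    rw [this, map_smul, hv0, smul_zero, add_zero]
  have e2 := hi (hWV hs).1 (hWV hw).1 e1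
  have : s • v = 0 := by simpa using e2
  rcases smul_eq_zero.1 this with h1 | h1
  · exact hs0.ne' h1
  · exact hv h1

/-- an injective affine map has an affine left inverse -/
theorem exists_leftInv (a : E →ᵃ[ℝ] F) (ha : Function.Injective a) :
    ∃ b : F →ᵃ[ℝ] E, ∀ z, b (a z) = z := by
  have h1 : Function.Injective a.linear := (AffineMap.linear_injective_iff a).2 ha
  obtain ⟨r, hr⟩ := LinearMap.exists_leftInverse_of_injective a.linear
    (LinearMap.ker_eq_bot.2 h1)
  refine ⟨r.toAffineMap - AffineMap.const ℝ _ (r (a 0)), fun z => ?_⟩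
  show r (a z) - r (a 0) = z
  have h2 : a z = a.linear z + a 0 := by
    have := a.map_vadd 0 z
    simpa using this
  rw [h2, map_add, add_sub_cancel_right]
  have := congrArg (fun g : E →ₗ[ℝ] E => g z) hr
  exact this

/-- **the inverse of a locally PL homeomorphism between open sets is locally PL** -/
theorem locPL_inv [FiniteDimensional ℝ E] {Om : Set E} {La : Set F} (hOm : IsOpen Om)
    (hLa : IsOpen La) {f : E → F} {g : F → E} (hf : LocPL f Om) (hg : ContinuousOn g La)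
    (mg : MapsTo g La Om) (hgf : ∀ x ∈ Om, g (f x) = x) (hfg : ∀ y ∈ La, f (g y) = y) :
    LocPL g La := by
  classical
  intro y hy
  obtain ⟨r, hr, hc, S, hS⟩ := hf (g y) (mg hy)
  obtain ⟨r1, hr1, hb⟩ := Metric.isOpen_iff.1 hOm (g y) (mg hy)
  let ρ := min r r1
  have hρ : 0 < ρ := lt_min hr hr1
  have hsub : ball (g y) ρ ⊆ ball (g y) r := ball_subset_ball (min_le_left _ _)
  have hsub1 : ball (g y) ρ ⊆ Om := (ball_subset_ball (min_le_right _ _)).trans hb
  have hga : ContinuousAt g y := hg.continuousAt (hLa.mem_nhds hy)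
  have h1 : ∀ᶠ w in 𝓝 y, w ∈ La ∧ g w ∈ ball (g y) ρ := by
    have h2 : ∀ᶠ w in 𝓝 y, w ∈ La := hLa.mem_nhds hy
    exact h2.and (hga (ball_mem_nhds _ hρ))
  obtain ⟨r', hr', hball⟩ := Metric.eventually_nhds_iff_ball.1 h1
  have hinj : InjOn f (ball (g y) ρ) := fun a ha b hb' hab => by
    rw [← hgf a (hsub1 ha), ← hgf b (hsub1 hb'), hab]
  have key := fun z (hz : z ∈ ball (g y) ρ) =>
    exists_injective (S := S) isOpen_ball (hc.mono hsub) hinj (fun z hz => hS z (hsub hz)) hz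
  have hex : ∀ a : E →ᵃ[ℝ] F, ∃ b : F →ᵃ[ℝ] E, Function.Injective a → ∀ z, b (a z) = z := by
    intro a
    by_cases ha : Function.Injective a
    · obtain ⟨b, hb'⟩ := exists_leftInv a ha
      exact ⟨b, fun _ => hb'⟩
    · exact ⟨AffineMap.const ℝ _ 0, fun h => absurd h ha⟩
  choose inv hinv using hex
  refine ⟨r', hr', hg.mono fun w hw => (hball w hw).1, S.image inv, fun w hw => ?_⟩
  obtain ⟨hwL, hwg⟩ := hball w hw
  obtain ⟨a, ha, hai, e⟩ := key (g w) hwg
  refine ⟨inv a, Finset.mem_image_of_mem _ ha, ?_⟩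
  rw [hfg w hwL] at e
  have e2 := hinv a hai (g w)
  rw [← e] at e2
  exact e2.symm

/-- the same for 696's `LocPL` (same definition) -/
theorem locPL_inv' [FiniteDimensional ℝ E] {Om : Set E} {La : Set F} (hOm : IsOpen Om)
    (hLa : IsOpen La) {f : E → F} {g : F → E} (hf : Str_696.LocPL f Om) (hg : ContinuousOn g La)
    (mg : MapsTo g La Om) (hgf : ∀ x ∈ Om, g (f x) = x) (hfg : ∀ y ∈ La, f (g y) = y) :
    Str_696.LocPL g La := by
  have h1 : LocPL f Om := fun x hx => by
    obtain ⟨r, hr, S, h1, h2⟩ := hf x hx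
    exact ⟨r, hr, h1, S, h2⟩
  intro y hy
  obtain ⟨r, hr, h2, S, h3⟩ := locPL_inv hOm hLa h1 hg mg hgf hfg y hy
  exact ⟨r, hr, S, h2, h3⟩

theorem locPL_iff {h : E → F} {Om : Set E} : Str_696.LocPL h Om ↔ LocPL h Om := by
  constructor
  · intro hf x hx
    obtain ⟨r, hr, S, h1, h2⟩ := hf x hx
    exact ⟨r, hr, h1, S, h2⟩
  · intro hf x hx
    obtain ⟨r, hr, h1, S, h2⟩ := hf x hx
    exact ⟨r, hr, S, h1, h2⟩

/-- **from the output of the machine to the PL homeomorphism of 2SK** -/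
theorem HP_of_hom3 {Om La : Set SkC1_961.E3} (hOm : IsOpen Om) (hLa : IsOpen La)
    {g : SkC1_961.E3 → SkC1_961.E3} (h : SkC1_961.Hom3 g Om La) (hg : Str_696.LocPL g Om) :
    ∃ gi : SkC1_961.E3 → SkC1_961.E3, Sk2_855.HP Om La g gi := by
  obtain ⟨gi, mf, mg, h1, h2, h3, h4⟩ := h
  refine ⟨gi, mf, mg, h1, h2, locPL_iff.1 hg, locPL_inv hOm hLa (locPL_iff.1 hg) h4 mg h1 h2⟩

theorem hom3_of_HP {Om La : Set SkC1_961.E3} {g gi : SkC1_961.E3 → SkC1_961.E3}
    (H : Sk2_855.HP Om La g gi) : SkC1_961.Hom3 g Om La := by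
  refine ⟨gi, H.mt, H.mti, H.li, H.ri, H.contOn, fun y hy => ?_⟩
  obtain ⟨r, hr, hp⟩ := H.pli y hy
  exact (hp.1.continuousAt (ball_mem_nhds y hr)).continuousWithinAt

end Crest.Agent.R096.LpInv_816
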