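import Crest.Agent.R096.Br6_695
import Crest.Agent.R096.Ea0_961
import Crest.Agent.R096.LpInv1_816

/-!
# Row 96 (helper812): `happ` from `EA0 p`

The hypothesis `happ` (`C⁰`-approximation by locally PL homeomorphisms onto the same target) of all the
2SK theorems, from `EA0 p` with no exact core (`X = ∅`) on a foam of small bricks.
-/

set_option autoImplicit false
set_option linter.unusedSectionVars false
set_option linter.style.longLine false

open MeasureTheory Set Filter Metric Module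
open scoped ENNReal NNReal Topology

namespace Crest.Agent.R096.Hap_812

open Crest.AnalysisR.VecCalc3 Crest.AnalysisR.Sobolev
open Crest.Agent.R096.Sk_962 (SH)
open Crest.Agent.R096.Bsp_628
open Crest.Agent.R96.En10_199
open Crest.Agent.R096.SkC1_961 (E3 Hom3)
open Crest.Agent.R096.Er_594
open Crest.Agent.R096.ThC6_766 (Scale exists_scale)
open Crest.Agent.R096.Brk5_582 (Cmp)
open Crest.Agent.R096.Ea0_961 (EA0 cb0)
open Crest.Agent.R096.Br_695 (δf δf_pos exists_foam_t star_of_scale Mf)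
open Crest.Agent.R096.Sk2_855 (HP)

/-- a scale below a positive function of the source point -/
theorem exists_w3 {Om La : Set E3} (hL : IsOpen La) {f : E3 → E3} (hf : Hom3 f Om La)
    {η : E3 → ℝ} (hη : ContinuousOn η Om) (hη0 : ∀ x ∈ Om, 0 < η x) {C : ℝ} (hC : 0 ≤ C) :
    ∃ w : E3 → ℝ, Scale La w ∧ ∀ x ∈ Om, C * w (f x) ≤ η x := by
  obtain ⟨w, hw, hwη⟩ := Br_695.exists_w (Om := P3.symm ⁻¹' Om) (La := P3.symm ⁻¹' La)
    (hL.preimage P3.symm.continuous) (homeo_of' hf) (η := fun y => η (P3.symm y))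
    (hη.comp P3.symm.continuous.continuousOn fun x hx => hx) (fun x hx => hη0 _ hx) hC
  rw [symm_pre] at hw
  refine ⟨w, hw, fun x hx => ?_⟩
  have h1 : P3 x ∈ P3.symm ⁻¹' Om := by
    change P3.symm (P3 x) ∈ Om
    rwa [P3.symm_apply_apply]
  have h2 := hwη _ h1
  rw [r3_P3, P3.symm_apply_apply, P3.symm_apply_apply] at h2
  have h3 := mul_nonneg hC (hw.nonneg (f x))
  linarith

/-- **`happ` from `EA0 p`**, with a variable tolerance -/
theorem happ_of_ea0' {p : ℝ} (hE : EA0 p) {Om La : Set E3} {f : E3 → E3} {D : E3 → E3 →L[ℝ] E3}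
    (hO : IsOpen Om) (hOb : Bornology.IsBounded Om) (hOc : IsConnected Om) (hL : IsOpen La)
    (hLb : Bornology.IsBounded La) (hLc : IsConnected La) (hS : SH3 p Om La f D) {η : E3 → ℝ}
    (hη : ContinuousOn η Om) (hη0 : ∀ x ∈ Om, 0 < η x) :
    ∃ h hi : E3 → E3, HP Om La h hi ∧ ∀ x ∈ Om, ‖h x - f x‖ ≤ η x := by
  have hM : 4 / dl (Fin 3) 3 ≤ Mf := le_max_left _ _
  have hM2 : 2 ≤ Mf := le_max_right _ _
  obtain ⟨C, hC0, hC⟩ := hE δf 3 6 (1 / 4) (1 / 4) 1 1 δf_pos (by norm_num) (by norm_num)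
    (by norm_num) (by norm_num) (by norm_num) le_rfl le_rfl le_rfl
  obtain ⟨κ1, hκ1, M0, hM0⟩ := hC 1 one_pos 0 (by norm_num)
  obtain ⟨κw, hκw, h1⟩ := hM0 M0 le_rfl
  obtain ⟨CA, κt, hκt, h2⟩ := h1 0
  obtain ⟨w, hw, hwη⟩ := exists_w3 hL hS.homeo hη hη0 (C := C) C.2
  obtain ⟨F, BF, hcmp, hdy, hsz, hsz'⟩ := exists_foam_t hLb hw one_pos le_rfl hM hM2
  have hsz1 : ∀ c ∈ F, ∀ x ∈ c.set, c.sz ≤ w x := fun c hc x hx =>
    (hsz c hc x hx).trans (min_le_right _ _)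
  have hst := star_of_scale hw BF hcmp hsz1
  obtain ⟨g, g1, g2, g3, g4, g5⟩ := h2 Om La f D hO hOb hOc hL hLb hLc hS 1 one_pos F BF hcmp
    (fun c hc => by
      obtain ⟨S, s1, s2, s3, s4⟩ := hst ⟨c, hc⟩
      exact ⟨S, s1, s2, s3, fun c' hc' h => s4 ⟨c', hc'⟩ h⟩)
    ∅ (fun _ => AffineEquiv.refl ℝ E3) (fun _ => 1 / 2) (fun _ => cb0) (fun _ => 3)
    (fun _ => le_rfl) (fun _ => 0) (fun c hc => absurd hc (notMem_empty c))
    (fun c hc => absurd hc (notMem_empty c)) (fun c hc => absurd hc (notMem_empty c)) 1 one_pos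
  obtain ⟨gi, hg⟩ := LpInv_816.HP_of_hom3 hO hL g1 g2
  refine ⟨g, gi, hg, fun x hx => ?_⟩
  obtain ⟨fi, f1, f2, f3, f4, f5, f6⟩ := hS.homeo
  obtain ⟨c, hc, hxc⟩ := BF.cov _ (f1 hx)
  have h3 := g3 x hx ⟨c, hc⟩ hxc
  have h4 := hsz1 c hc _ hxc
  have h5 := hwη x hx
  have h6 : (C : ℝ) * c.sz ≤ C * w (f x) := mul_le_mul_of_nonneg_left h4 C.2
  exact h3.trans (h6.trans h5)

/-- **`happ` from `EA0 p`** -/
theorem happ_of_ea0 {p : ℝ} (hE : EA0 p) {Om La : Set E3} {f : E3 → E3} {D : E3 → E3 →L[ℝ] E3}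
    (hO : IsOpen Om) (hOb : Bornology.IsBounded Om) (hOc : IsConnected Om) (hL : IsOpen La)
    (hLb : Bornology.IsBounded La) (hLc : IsConnected La) (hS : SH3 p Om La f D) :
    ∀ η > 0, ∃ h hi : E3 → E3, HP Om La h hi ∧ ∀ x ∈ Om, ‖h x - f x‖ ≤ η := fun _ hη =>
  happ_of_ea0' hE hO hOb hOc hL hLb hLc hS continuousOn_const fun _ _ => hη

/-- **`happ` on `R3`**, with a variable tolerance -/
theorem happ_r3' {p : ℝ} (hp : 1 ≤ p) (hE : EA0 p) {Om La : Set R3} {f : R3 → R3}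
    {G : Fin 3 → R3 → R3} (hO : IsOpen Om) (hOb : Bornology.IsBounded Om) (hOc : IsConnected Om)
    (hL : IsOpen La) (hLb : Bornology.IsBounded La) (hLc : IsConnected La) (hS : SH p Om La f G)
    {η : R3 → ℝ} (hη : ContinuousOn η Om) (hη0 : ∀ x ∈ Om, 0 < η x) :
    ∃ h hi : R3 → R3, HP Om La h hi ∧ ∀ x ∈ Om, ‖h x - f x‖ ≤ η x := by
  have hc : ContinuousOn (fun x => η (P3 x) / 2) (P3 ⁻¹' Om) :=
    (hη.comp P3.continuous.continuousOn fun x hx => hx).div_const _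
  obtain ⟨g, gi, hg, hgf⟩ := happ_of_ea0' hE (isOpen_pre hO) (isBounded_pre hOb)
    (isConnected_pre hOc) (isOpen_pre hL) (isBounded_pre hLb) (isConnected_pre hLc)
    (sh3_of hp hO hS) (η := fun x => η (P3 x) / 2) hc (fun x hx => by
      have := hη0 _ hx
      positivity)
  refine ⟨r3 g, r3 gi, ⟨?_, ?_, ?_, ?_, ?_, ?_⟩, ?_⟩
  · intro y hy
    have h1 : P3.symm y ∈ P3 ⁻¹' Om := by
      change P3 (P3.symm y) ∈ Om
      rwa [P3.apply_symm_apply]
    exact hg.mt h1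
  · intro y hy
    have h1 : P3.symm y ∈ P3 ⁻¹' La := by
      change P3 (P3.symm y) ∈ La
      rwa [P3.apply_symm_apply]
    exact hg.mti h1
  · intro y hy
    have h1 : P3.symm y ∈ P3 ⁻¹' Om := by
      change P3 (P3.symm y) ∈ Om
      rwa [P3.apply_symm_apply]
    change P3 (gi (P3.symm (P3 (g (P3.symm y))))) = y
    rw [P3.symm_apply_apply, hg.li _ h1, P3.apply_symm_apply]
  · intro y hy
    have h1 : P3.symm y ∈ P3 ⁻¹' La := by
      change P3 (P3.symm y) ∈ La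
      rwa [P3.apply_symm_apply]
    change P3 (g (P3.symm (P3 (gi (P3.symm y))))) = y
    rw [P3.symm_apply_apply, hg.ri _ h1, P3.apply_symm_apply]
  · exact LpInv_816.locPL_iff.1 (locPL_r3 (LpInv_816.locPL_iff.2 hg.pl))
  · exact LpInv_816.locPL_iff.1 (locPL_r3 (LpInv_816.locPL_iff.2 hg.pli))
  · intro y hy
    have h1 : P3.symm y ∈ P3 ⁻¹' Om := by
      change P3 (P3.symm y) ∈ Om
      rwa [P3.apply_symm_apply]
    have h2 := hgf _ h1
    rw [P3.apply_symm_apply] at h2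
    have h3 := norm_r3_sub_le g f y
    linarith

/-- **`happ` on `R3`** -/
theorem happ_r3 {p : ℝ} (hp : 1 ≤ p) (hE : EA0 p) {Om La : Set R3} {f : R3 → R3}
    {G : Fin 3 → R3 → R3} (hO : IsOpen Om) (hOb : Bornology.IsBounded Om) (hOc : IsConnected Om)
    (hL : IsOpen La) (hLb : Bornology.IsBounded La) (hLc : IsConnected La)
    (hS : SH p Om La f G) :
    ∀ η > 0, ∃ h hi : R3 → R3, HP Om La h hi ∧ ∀ x ∈ Om, ‖h x - f x‖ ≤ η := fun _ hη =>
  happ_r3' hp hE hO hOb hOc hL hLb hLc hS continuousOn_const fun _ _ => hη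

/-- **fine `happ` (753 (G1)), `E3`**: tolerance a positive continuous function on the target -/
theorem happ_fine {p : ℝ} (hE : EA0 p) {Om La : Set E3} {f : E3 → E3} {D : E3 → E3 →L[ℝ] E3}
    (hO : IsOpen Om) (hOb : Bornology.IsBounded Om) (hOc : IsConnected Om) (hL : IsOpen La)
    (hLb : Bornology.IsBounded La) (hLc : IsConnected La) (hS : SH3 p Om La f D) :
    ∀ ζ : E3 → ℝ, ContinuousOn ζ La → (∀ y ∈ La, 0 < ζ y) →
      ∃ h hi : E3 → E3, HP Om La h hi ∧ ∀ x ∈ Om, ‖h x - f x‖ ≤ ζ (f x) := by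
  intro ζ hζ hζ0
  obtain ⟨fi, f1, f2, f3, f4, f5, f6⟩ := hS.homeo
  exact happ_of_ea0' hE hO hOb hOc hL hLb hLc hS (η := fun x => ζ (f x)) (hζ.comp f5 f1)
    fun x hx => hζ0 _ (f1 hx)

/-- **fine `happ` (753 (G1)), `R3`** -/
theorem happ_fine_r3 {p : ℝ} (hp : 1 ≤ p) (hE : EA0 p) {Om La : Set R3} {f : R3 → R3}
    {G : Fin 3 → R3 → R3} (hO : IsOpen Om) (hOb : Bornology.IsBounded Om) (hOc : IsConnected Om)
    (hL : IsOpen La) (hLb : Bornology.IsBounded La) (hLc : IsConnected La)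
    (hS : SH p Om La f G) :
    ∀ ζ : R3 → ℝ, ContinuousOn ζ La → (∀ y ∈ La, 0 < ζ y) →
      ∃ h hi : R3 → R3, HP Om La h hi ∧ ∀ x ∈ Om, ‖h x - f x‖ ≤ ζ (f x) := by
  intro ζ hζ hζ0
  obtain ⟨fi, f1, f2, f3, f4, f5, f6⟩ := hS.homeo
  exact happ_r3' hp hE hO hOb hOc hL hLb hLc hS (η := fun x => ζ (f x)) (hζ.comp f5 f1)
    fun x hx => hζ0 _ (f1 hx)

end Crest.Agent.R096.Hap_812
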