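import Crest.Agent.R096.Fub1_216
import Crest.Agent.R096.Tra1_227

/-!
Row 96 (S0127), helper82, COMPOSITE B, leaf [C5] of 622: **the inequality (2b)** (the hypothesis `h2b` of
227's `tra_of_sum`) from energy bounds of the tubes of the LONG edges and from the number of the SHORT
ones: all the numbers.
-/

set_option autoImplicit false
set_option linter.unusedSectionVars false
set_option linter.style.longLine false

open Set Metric Filter Topology MeasureTheory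
open scoped ENNReal NNReal

namespace Crest.Agent.R096.Hb_82

open Crest.AnalysisR.VecCalc3 Crest.AnalysisR.Sobolev
open Crest.Agent.R096.Msh_715 Crest.Agent.R096.Mal_874
open Crest.Agent.R096.Pin_753
open Crest.Agent.R096.Fub_216
open Crest.Agent.R96.En10_199 (P3 P3_mp)

noncomputable section

/-- lower bound of the determinant -/
theorem det_ge {L : R3 →L[ℝ] R3} {κ : ℝ} (hκ : 0 < κ) (hL : ∀ v, κ * ‖v‖ ≤ ‖L v‖) :
    κ ^ 3 ≤ |L.det| := by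
  have hinj : Function.Injective L := by
    intro x y hxy
    have h1 := hL (x - y)
    rw [map_sub, hxy, sub_self, norm_zero] at h1
    have h2 : ‖x - y‖ ≤ 0 := by
      by_contra h
      have := mul_pos hκ (not_le.1 h)
      linarith
    exact sub_eq_zero.1 (norm_le_zero_iff.1 h2)
  have hsurj : Function.Surjective L :=
    (LinearMap.injective_iff_surjective (f := (L : R3 →ₗ[ℝ] R3))).1 hinj
  have h1 : closedBall (0 : R3) κ ⊆ L '' closedBall 0 1 := by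
    intro y hy
    obtain ⟨x, rfl⟩ := hsurj y
    refine ⟨x, ?_, rfl⟩
    rw [mem_closedBall_zero_iff] at hy ⊢
    have h2 := (hL x).trans hy
    nlinarith
  have h2 := measure_mono (μ := (volume : Measure R3)) h1
  rw [Measure.addHaar_image_continuousLinearMap, Measure.addHaar_closedBall' _ _ hκ.le] at h2
  have h3 : (0 : ℝ≥0∞) < volume (closedBall (0 : R3) 1) := measure_closedBall_pos _ _ one_pos
  have h4 : volume (closedBall (0 : R3) 1) ≠ ∞ := measure_closedBall_lt_top.ne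
  have h5 := (ENNReal.mul_le_mul_iff_left h3.ne' h4).1 h2
  have h6 : Module.finrank ℝ R3 = 3 := by simp [R3]
  rw [h6] at h5
  exact (ENNReal.ofReal_le_ofReal_iff (abs_nonneg _)).1 h5

/-- lower bound of the volume of the `ψ`-unit cube -/
theorem dv_ge {ψ : R3 ≃L[ℝ] (Fin 3 → ℝ)} {κ : ℝ} (hκ : 0 < κ)
    (h : ∀ v, ‖ψ v‖ ≤ 4 * κ⁻¹ * ‖v‖) : κ ^ 3 / 512 ≤ dv ψ := by
  have hn : ∀ z : Fin 3 → ℝ, ‖P3 z‖ ≤ 2 * ‖z‖ := by
    intro z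
    have e1 : P3 z = WithLp.toLp 2 z := rfl
    rw [e1, EuclideanSpace.norm_eq]
    refine Real.sqrt_le_iff.2 ⟨by positivity, ?_⟩
    have h1 : ∀ i, ‖z i‖ ^ 2 ≤ ‖z‖ ^ 2 := fun i => by
      have := norm_le_pi_norm z i
      have h0 := norm_nonneg (z i)
      nlinarith
    calc ∑ i, ‖(WithLp.toLp 2 z : EuclideanSpace ℝ (Fin 3)) i‖ ^ 2 ≤ ∑ _i : Fin 3, ‖z‖ ^ 2 :=
          Finset.sum_le_sum fun i _ => h1 i
      _ = 3 * ‖z‖ ^ 2 := by simp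
      _ ≤ (2 * ‖z‖) ^ 2 := by nlinarith [norm_nonneg z]
  have h1 : P3 '' closedBall 0 (κ / 8) ⊆ ψ ⁻¹' closedBall 0 1 := by
    rintro _ ⟨z, hz, rfl⟩
    rw [mem_preimage, mem_closedBall_zero_iff]
    rw [mem_closedBall_zero_iff] at hz
    calc ‖ψ (P3 z)‖ ≤ 4 * κ⁻¹ * ‖P3 z‖ := h _
      _ ≤ 4 * κ⁻¹ * (2 * (κ / 8)) := by
          gcongr
          exact (hn z).trans (by gcongr)
      _ = 1 := by field_simp; norm_num
  have h2 := measure_mono (μ := (volume : Measure R3)) h1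
  have h3 : volume (P3 '' closedBall (0 : Fin 3 → ℝ) (κ / 8)) =
      volume (closedBall (0 : Fin 3 → ℝ) (κ / 8)) := by
    rw [← P3_mp.measure_preimage_emb P3.toHomeomorph.measurableEmbedding,
      preimage_image_eq _ P3.injective]
  rw [h3, vol_psi, Real.volume_pi_closedBall _ (by positivity),
    Real.volume_pi_closedBall _ zero_le_one, Fintype.card_fin,
    ← ENNReal.ofReal_mul (dv_pos _).le] at h2
  have h4 := (ENNReal.ofReal_le_ofReal_iff (by have := dv_pos ψ; positivity)).1 h2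
  nlinarith

/-- the constant of one edge -/
def Ct (κ : ℝ) : ℝ := 12800 * κ⁻¹ ^ 10

theorem Ct_pos {κ : ℝ} (hκ : 0 < κ) : 0 < Ct κ := by unfold Ct; positivity

variable {p : ℝ} {D : R3 → R3 →L[ℝ] R3} {L : R3 →L[ℝ] R3} {Q : CB R3 3} {k0 : ℕ} {κ : ℝ}

/-- **one edge** -/
theorem term_le (hp : 1 ≤ p) (hp3 : p ≤ 3) (hκ : 0 < κ)
    (cnd : ∀ v, κ / 4 * ‖v‖ ≤ ‖Q.ψ v‖ ∧ ‖Q.ψ v‖ ≤ 4 * κ⁻¹ * ‖v‖)
    (hL : ∀ v, κ * ‖v‖ ≤ ‖L v‖) (hL' : ‖L‖ ≤ κ⁻¹)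
    {x v : R3} {S : Set R3} (mS : MeasurableSet S)
    (hD : AEStronglyMeasurable D (volume.restrict S))
    (ht : ∀ w ∈ Tw Q k0, ∀ τ ∈ Icc (0:ℝ) 1, x + w + τ • v ∈ S) :
    ENNReal.ofReal (‖L‖ ^ p / |L.det|) * (ENNReal.ofReal (‖L v‖ ^ (3 - p)) *
      ∫⁻ w in Tw Q k0, ∫⁻ τ in Icc (0:ℝ) 1, ‖D (x + w + τ • v) v‖ₑ ^ p) ≤
    ENNReal.ofReal (Ct κ * (‖v‖ ^ 2 * 4 ^ k0)) * (∫⁻ y in S, ‖D y‖ₑ ^ p) * volume (Tw Q k0) := by
  have hp0 : 0 < p := by linarith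
  rcases eq_or_ne v 0 with rfl | hv
  · have e : ∀ w : R3, ∀ τ : ℝ, ‖D (x + w + τ • (0 : R3)) 0‖ₑ ^ p = 0 := by
      intro w τ
      rw [map_zero, enorm_zero, ENNReal.zero_rpow_of_pos hp0]
    simp only [e]
    simp
  have hvn : 0 < ‖v‖ := norm_pos_iff.2 hv
  have hψ : 0 < ‖Q.ψ v‖ := lt_of_lt_of_le (by positivity) (cnd v).1
  have hdet := det_ge hκ hL
  have hdet0 : 0 < |L.det| := lt_of_lt_of_le (by positivity) hdet
  have hdv := dv_ge hκ fun v => (cnd v).2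
  have hdv0 := dv_pos Q.ψ
  have hLpos : 0 < ‖L‖ := by
    have h1 := (hL v).trans (L.le_opNorm v)
    have h2 : κ ≤ ‖L‖ := le_of_mul_le_mul_right h1 hvn
    linarith
  -- pointwise
  have h1 : ∫⁻ w in Tw Q k0, ∫⁻ τ in Icc (0:ℝ) 1, ‖D (x + w + τ • v) v‖ₑ ^ p ≤
      ENNReal.ofReal (‖v‖ ^ p) *
        ∫⁻ w in Tw Q k0, ∫⁻ τ in Icc (0:ℝ) 1, ‖D (x + w + τ • v)‖ₑ ^ p := by
    rw [← lintegral_const_mul' _ _ ENNReal.ofReal_ne_top]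
    refine lintegral_mono fun w => ?_
    rw [← lintegral_const_mul' _ _ ENNReal.ofReal_ne_top]
    refine lintegral_mono fun τ => ?_
    have e1 : ENNReal.ofReal (‖v‖ ^ p) = ‖v‖ₑ ^ p := by
      rw [← ofReal_norm, ENNReal.ofReal_rpow_of_nonneg (norm_nonneg _) hp0.le]
    rw [e1, mul_comm, ← ENNReal.mul_rpow_of_nonneg _ _ hp0.le]
    exact ENNReal.rpow_le_rpow (ContinuousLinearMap.le_opENorm _ _) hp0.le
  have h2 := fub_B (Q := Q) (k0 := k0) hv mS (F := fun y => ‖D y‖ₑ ^ p) (hD.enorm.pow_const p) ht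
  rw [coef_eq] at h2
  set I := ∫⁻ y in S, ‖D y‖ₑ ^ p with hI
  set V := volume (Tw Q k0) with hV
  have h3 : ENNReal.ofReal (‖L v‖ ^ (3 - p)) ≤ ENNReal.ofReal ((‖L‖ * ‖v‖) ^ (3 - p)) :=
    ENNReal.ofReal_le_ofReal (Real.rpow_le_rpow (norm_nonneg _) (L.le_opNorm v) (by linarith))
  calc ENNReal.ofReal (‖L‖ ^ p / |L.det|) * (ENNReal.ofReal (‖L v‖ ^ (3 - p)) *
      ∫⁻ w in Tw Q k0, ∫⁻ τ in Icc (0:ℝ) 1, ‖D (x + w + τ • v) v‖ₑ ^ p)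
      ≤ ENNReal.ofReal (‖L‖ ^ p / |L.det|) * (ENNReal.ofReal ((‖L‖ * ‖v‖) ^ (3 - p)) *
        (ENNReal.ofReal (‖v‖ ^ p) *
          (ENNReal.ofReal ((5 * 2 ^ k0) ^ 2 / (4 * dv Q.ψ * ‖Q.ψ v‖)) * V * I))) := by
        gcongr
        exact h1.trans (mul_le_mul' le_rfl h2)
    _ = ENNReal.ofReal ((‖L‖ ^ p / |L.det|) * ((‖L‖ * ‖v‖) ^ (3 - p) * (‖v‖ ^ p *
          ((5 * 2 ^ k0) ^ 2 / (4 * dv Q.ψ * ‖Q.ψ v‖))))) * I * V := by
        rw [ENNReal.ofReal_mul (by positivity), ENNReal.ofReal_mul (by positivity),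
          ENNReal.ofReal_mul (by positivity)]
        ring
    _ ≤ ENNReal.ofReal (Ct κ * (‖v‖ ^ 2 * 4 ^ k0)) * I * V := by
        refine mul_le_mul' (mul_le_mul' (ENNReal.ofReal_le_ofReal ?_) le_rfl) le_rfl
        have e1 : (‖L‖ * ‖v‖) ^ (3 - p) = ‖L‖ ^ (3 - p) * ‖v‖ ^ (3 - p) :=
          Real.mul_rpow (norm_nonneg _) (norm_nonneg _)
        have e2 : ‖L‖ ^ p * ‖L‖ ^ (3 - p) = ‖L‖ ^ 3 := by
          rw [← Real.rpow_add hLpos, ← Real.rpow_natCast]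
          congr 1
          norm_num
        have e3 : ‖v‖ ^ (3 - p) * ‖v‖ ^ p = ‖v‖ ^ 3 := by
          rw [← Real.rpow_add hvn, ← Real.rpow_natCast]
          congr 1
          norm_num
        have e4 : (‖L‖ ^ p / |L.det|) * ((‖L‖ * ‖v‖) ^ (3 - p) * (‖v‖ ^ p *
            ((5 * 2 ^ k0) ^ 2 / (4 * dv Q.ψ * ‖Q.ψ v‖)))) =
            (‖L‖ ^ p * ‖L‖ ^ (3 - p)) * (‖v‖ ^ (3 - p) * ‖v‖ ^ p) *
              ((5 * 2 ^ k0) ^ 2) / (|L.det| * (4 * dv Q.ψ * ‖Q.ψ v‖)) := by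
          rw [e1]
          field_simp
        rw [e4, e2, e3]
        have e5 : ((5 : ℝ) * 2 ^ k0) ^ 2 = 25 * 4 ^ k0 := by
          rw [mul_pow, ← pow_mul, mul_comm k0 2, pow_mul]
          norm_num
        rw [e5]
        have h4 : ‖L‖ ^ 3 ≤ κ⁻¹ ^ 3 := by gcongr
        have hki : 0 < κ⁻¹ := inv_pos.2 hκ
        rw [div_le_iff₀ (by positivity)]
        have h5 : κ ^ 3 * (4 * (κ ^ 3 / 512) * (κ / 4 * ‖v‖)) ≤
            |L.det| * (4 * dv Q.ψ * ‖Q.ψ v‖) := by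
          gcongr
          exact (cnd v).1
        calc ‖L‖ ^ 3 * ‖v‖ ^ 3 * (25 * 4 ^ k0) ≤ κ⁻¹ ^ 3 * ‖v‖ ^ 3 * (25 * 4 ^ k0) := by gcongr
          _ = Ct κ * (‖v‖ ^ 2 * 4 ^ k0) * (κ ^ 3 * (4 * (κ ^ 3 / 512) * (κ / 4 * ‖v‖))) := by
              unfold Ct
              field_simp
              ring
          _ ≤ Ct κ * (‖v‖ ^ 2 * 4 ^ k0) * (|L.det| * (4 * dv Q.ψ * ‖Q.ψ v‖)) := by
              have := Ct_pos hκ
              gcongr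

/-- **(2b) from the LONG edges (`e ∉ Sh`) and the SHORT edges (`e ∈ Sh`)** -/
theorem h2b_of (hk : Q.kc ≤ k0) (hp : 1 ≤ p) (hp3 : p ≤ 3) (hκ : 0 < κ)
    (cnd : ∀ v, κ / 4 * ‖v‖ ≤ ‖Q.ψ v‖ ∧ ‖Q.ψ v‖ ≤ 4 * κ⁻¹ * ‖v‖)
    (hL : ∀ v, κ * ‖v‖ ≤ ‖L v‖) (hL' : ‖L‖ ≤ κ⁻¹)
    (S : R3 × R3 → Set R3) (mS : ∀ e ∈ Ed Q k0 hk, MeasurableSet (S e))
    (hD : ∀ e ∈ Ed Q k0 hk, AEStronglyMeasurable D (volume.restrict (S e)))
    (ht : ∀ e ∈ Ed Q k0 hk, ∀ w ∈ Tw Q k0, ∀ τ ∈ Icc (0:ℝ) 1, e.1 + w + τ • (e.2 - e.1) ∈ S e)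
    (Sh : Set (R3 × R3)) {c0 c1 C1 : ℝ} {c2 : ℝ≥0} {er : ℝ≥0∞} (hc1 : 0 ≤ c1)
    (hlong : ∀ e ∈ Ed Q k0 hk, e ∉ Sh → ∫⁻ y in S e, ‖D y‖ₑ ^ p ≤
      ENNReal.ofReal (c1 * ‖L‖ ^ p * ‖e.2 - e.1‖ / 4 ^ k0))
    (hshort : ∀ e ∈ Ed Q k0 hk, e ∈ Sh → ‖e.2 - e.1‖ ≤ c0 / 2 ^ k0)
    (hcount : ∑' e : Ed Q k0 hk, ENNReal.ofReal (‖e.1.2 - e.1.1‖ ^ 3) ≤ c2 * volume (Q.N \ Q.Kc))
    (hC1 : 512 * Ct κ * c1 * c2 ≤ C1)
    (her : ENNReal.ofReal (512 * Ct κ * c0 ^ 2) *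
      (∑' e : Ed Q k0 hk, Sh.indicator (fun e => ∫⁻ y in S e, ‖D y‖ₑ ^ p) e.1) ≤ er) :
    ENNReal.ofReal (‖L‖ ^ p / |L.det|) *
        (∑' e : Ed Q k0 hk, ENNReal.ofReal (‖L (e.1.2 - e.1.1)‖ ^ (3 - p)) *
          ∫⁻ w in Tw Q k0, ∫⁻ τ in Icc (0:ℝ) 1,
            ‖D (e.1.1 + w + τ • (e.1.2 - e.1.1)) (e.1.2 - e.1.1)‖ₑ ^ p) ≤
      ENNReal.ofReal (1 / 512) *
        (ENNReal.ofReal (C1 * ‖L‖ ^ p) * volume (Q.N \ Q.Kc) + er) * volume (Tw Q k0) := by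
  have hCt := Ct_pos hκ
  rw [← ENNReal.tsum_mul_left]
  set J : R3 × R3 → ℝ≥0∞ := Sh.indicator (fun e => ∫⁻ y in S e, ‖D y‖ₑ ^ p) with hJ
  have h1 : ∀ e : Ed Q k0 hk, ENNReal.ofReal (‖L‖ ^ p / |L.det|) *
      (ENNReal.ofReal (‖L (e.1.2 - e.1.1)‖ ^ (3 - p)) *
          ∫⁻ w in Tw Q k0, ∫⁻ τ in Icc (0:ℝ) 1,
            ‖D (e.1.1 + w + τ • (e.1.2 - e.1.1)) (e.1.2 - e.1.1)‖ₑ ^ p) ≤
      (ENNReal.ofReal (Ct κ * c1 * ‖L‖ ^ p) * ENNReal.ofReal (‖e.1.2 - e.1.1‖ ^ 3) +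
        ENNReal.ofReal (Ct κ * c0 ^ 2) * J e.1) * volume (Tw Q k0) := by
    intro e
    refine (term_le hp hp3 hκ cnd hL hL' (mS e.1 e.2) (hD e.1 e.2) (ht e.1 e.2)).trans ?_
    refine mul_le_mul' ?_ le_rfl
    by_cases he : e.1 ∈ Sh
    · refine le_trans ?_ le_add_self
      rw [hJ, indicator_of_mem he]
      refine mul_le_mul' (ENNReal.ofReal_le_ofReal ?_) le_rfl
      have h2 := hshort e.1 e.2 he
      have h3 : ‖e.1.2 - e.1.1‖ ^ 2 * 4 ^ k0 ≤ c0 ^ 2 := by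
        have h4 : ‖e.1.2 - e.1.1‖ * 2 ^ k0 ≤ c0 := by
          rwa [le_div_iff₀ (by positivity)] at h2
        have h5 : ‖e.1.2 - e.1.1‖ ^ 2 * 4 ^ k0 = (‖e.1.2 - e.1.1‖ * 2 ^ k0) ^ 2 := by
          rw [mul_pow, ← pow_mul, mul_comm k0 2, pow_mul]
          norm_num
        rw [h5]
        exact pow_le_pow_left₀ (by positivity) h4 2
      gcongr
    · refine le_trans ?_ le_self_add
      refine (mul_le_mul' le_rfl (hlong e.1 e.2 he)).trans (le_of_eq ?_)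
      rw [← ENNReal.ofReal_mul (by positivity), ← ENNReal.ofReal_mul (by positivity)]
      congr 1
      field_simp
  refine (ENNReal.tsum_le_tsum h1).trans ?_
  rw [ENNReal.tsum_mul_right, ENNReal.tsum_add, ENNReal.tsum_mul_left, ENNReal.tsum_mul_left]
  refine mul_le_mul' ?_ le_rfl
  rw [mul_add]
  refine add_le_add ?_ ?_
  · calc ENNReal.ofReal (Ct κ * c1 * ‖L‖ ^ p) *
          ∑' e : Ed Q k0 hk, ENNReal.ofReal (‖e.1.2 - e.1.1‖ ^ 3)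
        ≤ ENNReal.ofReal (Ct κ * c1 * ‖L‖ ^ p) * (c2 * volume (Q.N \ Q.Kc)) :=
          mul_le_mul' le_rfl hcount
      _ = ENNReal.ofReal (Ct κ * c1 * ‖L‖ ^ p * c2) * volume (Q.N \ Q.Kc) := by
          rw [ENNReal.ofReal_mul' c2.coe_nonneg, ENNReal.ofReal_coe_nnreal]
          ring
      _ ≤ ENNReal.ofReal (1 / 512 * (C1 * ‖L‖ ^ p)) * volume (Q.N \ Q.Kc) := by
          refine mul_le_mul' (ENNReal.ofReal_le_ofReal ?_) le_rfl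
          have h6 : 0 ≤ ‖L‖ ^ p := by positivity
          nlinarith
      _ = ENNReal.ofReal (1 / 512) * (ENNReal.ofReal (C1 * ‖L‖ ^ p) * volume (Q.N \ Q.Kc)) := by
          rw [ENNReal.ofReal_mul (by norm_num), mul_assoc]
  · calc ENNReal.ofReal (Ct κ * c0 ^ 2) * ∑' e : Ed Q k0 hk, J e.1
        = ENNReal.ofReal (1 / 512) * (ENNReal.ofReal (512 * Ct κ * c0 ^ 2) *
          ∑' e : Ed Q k0 hk, J e.1) := by
          rw [← mul_assoc, ← ENNReal.ofReal_mul (by norm_num)]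
          congr 2
          ring
      _ ≤ _ := mul_le_mul' le_rfl her

end

end Crest.Agent.R096.Hb_82
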