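import Crest.Agent.R096.Lnk1_726
import Crest.Agent.R096.Gsc5_476
import Crest.Agent.R096.Hb3_82

/-!
Row 96 (S0127), helper82, COMPOSITE B, (O1), leaves (C), (D): **the zone of an edge of a block**: if no point
of the edge is near the wall (`NW`), every tile which meets the zone of the edge is deep; tiles which meet the
tube of an edge with a point near the wall are small and near the wall.
-/

set_option autoImplicit false
set_option linter.unusedSectionVars false
set_option linter.style.longLine false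

open Set Metric Topology Filter

namespace Crest.Agent.R096.Hb_82

open Crest.AnalysisR.VecCalc3 Crest.AnalysisR.Sobolev
open Crest.Agent.R096.Msh_715 Crest.Agent.R096.Mal_874
open Crest.Agent.R096.Pin_753
open Crest.Agent.R096.Ca_855
open Crest.Agent.R096.Ca_855.MIn (BQ)
open Crest.Agent.R096.Sht_726 (NW)
open Crest.Agent.R096.Lnk_726
open Crest.Agent.R096.Gsc_476
open Crest.Agent.R096.Sq_55 (w2)
open Crest.Agent.R096.She_227 (sE)

/-- the segment from a point of a set to a point outside of it meets the frontier -/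
theorem exists_frontier_seg {E : Type*} [NormedAddCommGroup E] [NormedSpace ℝ E] {S : Set E}
    {y z : E} (hy : y ∈ S) (hz : z ∉ S) : ∃ q ∈ segment ℝ y z, q ∈ frontier S := by
  have h1 : IsPreconnected (segment ℝ y z) := (convex_segment y z).isPreconnected
  by_contra hcon
  push Not at hcon
  have h2 : segment ℝ y z ⊆ interior S ∪ (closure S)ᶜ := by
    intro q hq
    have h3 := hcon q hq
    by_cases hi : q ∈ interior S
    · exact Or.inl hi
    · right
      intro hc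
      exact h3 ⟨hc, hi⟩
  have hyi : y ∈ interior S := by
    rcases h2 (left_mem_segment ℝ y z) with h | h
    · exact h
    · exact absurd (subset_closure hy) h
  have hzo : z ∈ (closure S)ᶜ := by
    rcases h2 (right_mem_segment ℝ y z) with h | h
    · exact absurd (interior_subset h) hz
    · exact h
  obtain ⟨q, -, hq1, hq2⟩ := h1 (interior S) (closure S)ᶜ isOpen_interior isClosed_closure.isOpen_compl
    h2 ⟨y, left_mem_segment ℝ y z, hyi⟩ ⟨z, right_mem_segment ℝ y z, hzo⟩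
  exact hq2 (subset_closure (interior_subset hq1))

section T

variable {κ : ℝ} {Bs : ℕ} {Om W : Set R3} {ρ₀ : R3 → ℝ} {J : Type} [Finite J]
  {Qb : J → CB R3 3} {k0 Nn : ℕ} {σ : ℝ}

/-- the scale function of the block at the points of a tile of the block -/
theorem sclT_KQ (h : MIn Om W ρ₀ Qb k0 σ) {a : R3} (ha : ‖a‖ ≤ σ / 8) {j : J} {t : h.ιT a}
    (hN : P ((h.T a).H t) ⊆ ((Qb j).tr a).N) {x : R3} (hx : x ∈ P ((h.T a).H t)) :
    sclT h a t ≤ KQ ((Qb j).tr a) k0 (h.hk j) x ∧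
      KQ ((Qb j).tr a) k0 (h.hk j) x ≤ sclT h a t + 1 := by
  have e0 := h.cl_eq ha
  have eN : h.M.Bk (fun _ => h.cl a) j = (Qb j).tr a := by
    show (Qb j).tr (h.cl a) = (Qb j).tr a
    rw [e0]
  have h3 := scl_K h.M h.sc (0 + h.M.φ (h.cl a)) (h.adm a) (j := j) (t := t) (x := x)
    (by rw [eN]; exact hN) hx
  rw! (castMode := .all) [eN] at h3
  exact h3

/-- **a tile which meets the zone of a point far from the wall is deep** -/
theorem deep_near (hκ : 0 < κ) (h : MIn Om W ρ₀ Qb k0 σ)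
    (hb : ∀ j, BQ κ Bs Nn (Qb j) k0) {a : R3} (ha : ‖a‖ ≤ σ / 8) {j : J} {N K1 : ℕ} {ρz : ℝ}
    (hρN : 4 * κ⁻¹ * ρz ≤ 6 * 2 ^ N) (hK : K1 + 1 ≤ N) (hkc : (Qb j).kc + K1 ≤ k0)
    {y z : R3} (hyN : y ∈ ((Qb j).tr a).N) (hno : ¬ NW ((Qb j).tr a) k0 (N + 1) y)
    (hyz : ‖z - y‖ ≤ ρz / 2 ^ k0) {t : h.ιT a} (hz : z ∈ P ((h.T a).H t)) :
    P ((h.T a).H t) ⊆ ((Qb j).tr a).N ∧ sclT h a t + K1 ≤ k0 := by
  have hi : 0 < κ⁻¹ := inv_pos.2 hκ
  set Q := (Qb j).tr a with hQ
  have hψ : ∀ q : R3, ‖q - y‖ ≤ ρz / 2 ^ k0 → ‖Q.ψ (q - y)‖ ≤ (4 * κ⁻¹ * ρz) / 2 ^ k0 := by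
    intro q hq
    refine ((hb j).cnd (q - y)).2.trans ?_
    rw [mul_div_assoc]
    exact mul_le_mul_of_nonneg_left hq (by positivity)
  have hnw : ∀ q : R3, ‖q - y‖ ≤ ρz / 2 ^ k0 → ¬ NW Q k0 N q := fun q hq hc =>
    hno (NW_near Q hc (hψ q hq) hρN)
  have hzN : z ∈ Q.N := by
    by_contra hcon
    obtain ⟨q, hq1, hq2⟩ := exists_frontier_seg hyN hcon
    have h1 : ‖q - y‖ ≤ ρz / 2 ^ k0 := by
      rw [segment_eq_image'] at hq1
      obtain ⟨τ, hτ, rfl⟩ := hq1
      simp only [add_sub_cancel_left]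
      rw [norm_smul, Real.norm_eq_abs, abs_of_nonneg hτ.1]
      calc τ * ‖z - y‖ ≤ 1 * ‖z - y‖ := mul_le_mul_of_nonneg_right hτ.2 (norm_nonneg _)
        _ = ‖z - y‖ := one_mul _
        _ ≤ _ := hyz
    refine hnw q h1 ?_
    rw [Q.frontier_N] at hq2
    show infDist (Q.ψ q) Q.W ≤ 6 * 2 ^ N / 2 ^ k0
    rw [infDist_zero_of_mem (show Q.ψ q ∈ Q.W from hq2)]
    positivity
  have hnz := hnw z hyz
  obtain ⟨h1, h2⟩ := off_wall_T h ha hz hzN hnz
  refine ⟨h1, ?_⟩
  have h3 : sclT h a t ≤ KQ Q k0 (h.hk j) z := (sclT_KQ h ha h1 hz).1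
  have h5 := KQ_le Q (h.hk j) hnz
  have h6 : Q.kc = (Qb j).kc := rfl
  omega

end T

end Crest.Agent.R096.Hb_82
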