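import Crest.Agent.R096.She2_227
import Crest.Agent.R096.Cbs4_296
import Crest.Agent.R096.Shp4_432
import Crest.Agent.R096.Cnt1_726

/-!
Row 96 (S0127), helper82: **the number of the pieces of an edge of a block** (edges at the wall included):
at most `2 ^ nc`, `nc` = number of the neighbours of a tile which contains the edge.
-/

set_option autoImplicit false
set_option linter.unusedSectionVars false
set_option linter.style.longLine false

open Set Metric Topology Filter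

namespace Crest.Agent.R096.Hb_82

open Crest.AnalysisR.VecCalc3 Crest.AnalysisR.Sobolev
open Crest.Agent.R096.Msh_715 Crest.Agent.R096.Mal_874
open Crest.Agent.R096.Pin_753
open Crest.Agent.R096.Efi_296 Crest.Agent.R096.Cbs_296
open Crest.Agent.R096.Sq_55 (w2)
open Crest.Agent.R096.She_227 (exists_EgS)
open Crest.Agent.R96.En10_199 (P3)
open Crest.Agent.R096.Cob_622

/-- the parameter of a point of a segment of a line -/
theorem mem_piece {p v : R3} (hv : v ≠ 0) {τ s t : ℝ} (hst : s ≤ t)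
    (h : p + τ • v ∈ segment ℝ (p + s • v) (p + t • v)) : s ≤ τ ∧ τ ≤ t := by
  rw [segment_eq_image'] at h
  obtain ⟨θ, hθ, h1⟩ := h
  have h2 : (s + θ * (t - s) - τ) • v = 0 := by
    have h3 : p + s • v + θ • (p + t • v - (p + s • v)) = p + (s + θ * (t - s)) • v := by
      module
    simp only at h1
    rw [h3] at h1
    have h4 := add_left_cancel h1
    rw [sub_smul, h4, sub_self]
  rcases smul_eq_zero.1 h2 with h3 | h3
  · have h0 := hθ.1
    have h4 := hθ.2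
    constructor <;> nlinarith
  · exact absurd h3 hv

variable {Om : Set R3} {ι : Type*} {T : Tiling Om ι}

/-- **the number of the pieces** -/
theorem chain_bd {p v : R3} {n : ℕ} {t : ℕ → ℝ} (hlt : ∀ i < n, t i < t (i + 1))
    (hpc : ∀ i < n, ∃ y ∈ Om, T.dim y = 1 ∧
      T.cc y = segment ℝ (p + t i • v) (p + t (i + 1) • v))
    {k : ι} (hk : ∀ i < n, segment ℝ (p + t i • v) (p + t (i + 1) • v) ⊆ P (T.H k)) :
    n ≤ 2 ^ (nbT (Te T) k).ncard := by
  classical
  rcases Nat.eq_zero_or_pos n with rfl | hn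
  · exact Nat.zero_le _
  have hv : v ≠ 0 := by
    rintro rfl
    obtain ⟨y, hy, hd, hcc⟩ := hpc 0 hn
    have h1 : T.cc y = segment ℝ p (p + (0 : R3)) := by
      rw [hcc]; simp
    exact (Skc_565.edge_ends hy hd h1).1 rfl
  have hmono : ∀ i j, i ≤ j → j ≤ n → t i ≤ t j := by
    intro i j hij
    induction j, hij using Nat.le_induction with
    | base => exact fun _ => le_rfl
    | succ m _ ih => exact fun hm => (ih (by omega)).trans (hlt m (by omega)).le
  have hex : ∀ i : Fin n, ∃ c : EgS (Te T) {k}, c.1.set =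
      w2 ⁻¹' (segment ℝ (p + t i • v) (p + t (i + 1) • v)) := by
    intro i
    obtain ⟨y, hy, hd, hcc⟩ := hpc i i.2
    have hyk : y ∈ P (T.H k) := hk i i.2 (hcc ▸ T.self_mem_cc y)
    obtain ⟨c, hc⟩ := exists_EgS (s := {k}) hy hd (Finset.mem_singleton_self k) hyk
    exact ⟨c, by rw [hc, hcc]⟩
  choose c hc using hex
  have hinj : Function.Injective c := by
    have key : ∀ i j : Fin n, (i : ℕ) < j → c i ≠ c j := by
      intro i j hij he
      have h1 : w2 ⁻¹' (segment ℝ (p + t i • v) (p + t (i + 1) • v)) =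
          w2 ⁻¹' (segment ℝ (p + t j • v) (p + t (j + 1) • v)) := by
        rw [← hc i, ← hc j, he]
      have h2 := (w2.surjective.preimage_injective) h1
      have h3 : p + t i • v ∈ segment ℝ (p + t j • v) (p + t (j + 1) • v) := by
        rw [← h2]; exact left_mem_segment ℝ _ _
      have h4 := mem_piece hv (hlt j j.2).le h3
      have h5 := hlt i i.2
      have h6 := hmono (i + 1) j hij j.2.le
      linarith [h4.1]
    intro i j he
    rcases lt_trichotomy (i : ℕ) j with h | h | h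
    · exact absurd he (key i j h)
    · exact Fin.ext h
    · exact absurd he.symm (key j i h)
  have h1 : (Finset.univ.image c).card = n := by
    rw [Finset.card_image_of_injective _ hinj, Finset.card_univ, Fintype.card_fin]
  rw [← h1]
  refine (Finset.card_le_card ?_).trans (card_edges_le (Te T) {k} k)
  intro b hb
  rw [Finset.mem_image] at hb
  obtain ⟨i, -, rfl⟩ := hb
  rw [Finset.mem_filter]
  refine ⟨Finset.mem_univ _, ?_⟩
  rw [hc, Te_P]
  exact preimage_mono (hk i i.2)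

/-! ### the mesh `h.T a` of 855 -/

section tile

/-- a 1-cell in the block lies in a tile of the block which is not the core -/
theorem exists_tile3 (Q : CB R3 3) (k : ℕ) (hk : Q.kc ≤ k) {x : R3} (hd : (Q.T k hk).dim x = 1)
    (hN : (Q.T k hk).cc x ⊆ Q.N) :
    ∃ t, P ((Q.T k hk).H t) ⊆ Q.N ∧ t ≠ Q.cix k hk ∧ t ∈ (Q.T k hk).at_ x := by
  have hOm : Q.ψ ⁻¹' (Q.D k hk).Om = univ := by rw [Q.D_Om, preimage_univ]
  have hx : x ∈ Q.ψ ⁻¹' (Q.D k hk).Om := by rw [hOm]; exact mem_univ _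
  obtain ⟨i, hi, hiN⟩ := Q.un_N k hk x (hN ((Q.T k hk).self_mem_cc x))
  by_cases hic : i = Q.cix k hk
  · have hint : x ∈ interior Q.N := by
      refine Q.bp_int (Q.P_inr_sub k hk Q.S.core ?_)
      rw [hic] at hi
      exact hi
    obtain ⟨j, hj, hjn⟩ := Cnt_726.exists_other (Q.T k hk) hx (Q.cix k hk) (by rw [hd]; simp)
    exact ⟨j, (Q.un_N k hk).at_sub hint hj, hjn, hj⟩
  · exact ⟨i, hiN, hic, hi⟩

/-- the tiles of the block other than the core are tiles of `meshS` -/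
theorem meshS_tile {n : ℕ} {E : Type*} [NormedAddCommGroup E] [NormedSpace ℝ E] [NeZero n]
    {J : Type*} (M : MD E n J) {k : J → ℕ} (hk : M.Sc k) (a : Fin n → ℝ) {v : J → E}
    (hv : M.Adm v) {j : J} {t} (hN : P (((M.Bk v j).T (k j) (hk.kc j)).H t) ⊆ (M.Bk v j).N)
    (hc : t ≠ (M.Bk v j).cix (k j) (hk.kc j)) :
    ∃ t', P ((Crest.Agent.R096.Msb_432.meshS M hk a hv).H t') =
      P (((M.Bk v j).T (k j) (hk.kc j)).H t) := by
  refine ⟨Sum.inl ⟨Sum.inr ⟨j, ⟨t, hN⟩⟩, ?_⟩, rfl⟩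
  rintro ⟨l, hl⟩
  simp only [Sum.inr.injEq] at hl
  obtain ⟨rfl, hl2⟩ := Sigma.mk.inj_iff.1 hl
  have h3 := congrArg Subtype.val (eq_of_heq hl2)
  exact hc h3

variable {W : Set R3} {ρ₀ : R3 → ℝ} {J : Type} [Finite J] {Qb : J → CB R3 3} {k0 : ℕ} {σ : ℝ}

open Crest.Agent.R096.Ca_855 in
/-- **an edge of the block `j` lies in one tile of `h.T a`**, which lies in the block -/
theorem exists_tile_T (h : MIn Om W ρ₀ Qb k0 σ) {a : R3} (ha : ‖a‖ ≤ σ / 8) (j : J) {e : R3 × R3}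
    (he : e ∈ Ed ((Qb j).tr a) k0 (h.hk j)) :
    ∃ t : h.ιT a, segment ℝ e.1 e.2 ⊆ P ((h.T a).H t) ∧
      P ((h.T a).H t) ⊆ ((Qb j).tr a).N := by
  obtain ⟨x, hd, hcc, hN⟩ := he
  obtain ⟨t, h1, h2, h3⟩ := exists_tile3 ((Qb j).tr a) k0 (h.hk j) hd (hcc ▸ hN)
  have h4 : segment ℝ e.1 e.2 ⊆ P ((((Qb j).tr a).T k0 (h.hk j)).H t) :=
    hcc ▸ (((Qb j).tr a).T k0 (h.hk j)).cc_sub_tile h3
  have e0 := h.cl_eq ha
  have eN : (Qb j).tr a = h.M.Bk (fun _ => h.cl a) j := by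
    show (Qb j).tr a = (Qb j).tr (h.cl a)
    rw [e0]
  have key : ∀ (Q' : CB R3 3) (hQ : Q' = h.M.Bk (fun _ => h.cl a) j) (hk' : Q'.kc ≤ k0) (t),
      P ((Q'.T k0 hk').H t) ⊆ Q'.N → t ≠ Q'.cix k0 hk' →
      ∃ t' : h.ιT a, P ((h.T a).H t') = P ((Q'.T k0 hk').H t) := by
    rintro Q' rfl hk' t h1 h2
    obtain ⟨t', ht'⟩ := meshS_tile h.M h.sc (0 + h.M.φ (h.cl a)) (h.adm a) (j := j) (t := t) h1 h2
    exact ⟨t', ht'⟩
  obtain ⟨t', ht'⟩ := key _ eN (h.hk j) t h1 h2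
  exact ⟨t', by rw [ht']; exact h4, by rw [ht']; exact h1⟩

open Crest.Agent.R096.Ca_855 in
/-- **every edge of the block (edges at the wall included) is a chain of at most `2 ^ nc` edges of
`h.T a`**; `nc` = bound for the numbers of neighbours (855's `exists_tile`, 753's `TileC`) -/
theorem chain_T_bd (h : MIn Om W ρ₀ Qb k0 σ) {a : R3} (ha : ‖a‖ ≤ σ / 8) {nc : ℕ}
    (hnc : ∀ t, {l | (P ((h.T a).H l) ∩ P ((h.T a).H t)).Nonempty}.ncard ≤ nc) (j : J)
    {e : R3 × R3} (he : e ∈ Ed ((Qb j).tr a) k0 (h.hk j)) :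
    ∃ (m : ℕ) (t : ℕ → ℝ), 0 < m ∧ m ≤ 2 ^ nc ∧ t 0 = 0 ∧ t m = 1 ∧ (∀ i < m, t i < t (i + 1)) ∧
      (∀ i, i ≤ m → 0 ≤ t i ∧ t i ≤ 1) ∧
      ∀ i < m, ∃ y ∈ Om, (h.T a).dim y = 1 ∧
        (h.T a).cc y = segment ℝ (e.1 + t i • (e.2 - e.1)) (e.1 + t (i + 1) • (e.2 - e.1)) := by
  obtain ⟨m, t, h1, h2, h3, h4, h5, h6, h7⟩ := h.ed_chain ha j he
  obtain ⟨k, hk1, hk2⟩ := exists_tile_T h ha j he
  refine ⟨m, t, h1, ?_, h2, h3, h4, fun i hi => ⟨(h5 i hi).1, (h5 i hi).2.1⟩, h6⟩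
  refine (chain_bd h4 h6 (k := k) fun i hi => ?_).trans ?_
  · have hmem : ∀ l ≤ m, e.1 + t l • (e.2 - e.1) ∈ segment ℝ e.1 e.2 := fun l hl => by
      rw [segment_eq_image']
      exact ⟨t l, ⟨(h5 l hl).1, (h5 l hl).2.1⟩, rfl⟩
    exact ((convex_segment _ _).segment_subset (hmem i hi.le) (hmem (i + 1) hi)).trans hk1
  · refine Nat.pow_le_pow_right (by norm_num) (le_trans (le_of_eq ?_) (hnc k))
    congr 1
    ext l
    show (P ((Te (h.T a)).H l) ∩ P ((Te (h.T a)).H k)).Nonempty ↔ _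
    rw [Te_P, Te_P, ← preimage_inter]
    constructor
    · rintro ⟨y, hy⟩
      exact ⟨w2 y, hy⟩
    · rintro ⟨y, hy⟩
      refine ⟨w2.symm y, ?_⟩
      rw [mem_preimage, w2.apply_symm_apply]
      exact hy

end tile

end Crest.Agent.R096.Hb_82
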