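import Crest.Agent.R096.Ecm4_446
import Crest.Agent.R096.Leaf2_965

/-!
# R096 (row 96), HCONN (helper315), part 1: one level of a family crosses the boundary of an exact
core in ONE circle (combinatorially)

* `ring_class` (abstract, over 446's `CG`): `Pt` = a set of points such that every cell of dimension 1
  over the height `s` contains one of them, `S` = a class which is closed under 'both in one cell of
  dimension ≤ 2'; the ring `{U . a = s}` of the boundary of the tile is preconnected: then `S` contains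
  all of them or none.
-/

set_option autoImplicit false
set_option linter.unusedSectionVars false
set_option linter.style.longLine false

open Set Topology Filter

namespace Crest.Agent.R096.Hcn_315

open Crest.Agent.R096.Msh_715 Crest.Agent.R096.Ecm_446

section abs

variable {E : Type} [NormedAddCommGroup E] [NormedSpace ℝ E] [FiniteDimensional ℝ E]
variable {Om : Set E} {ι : Type} {C : Type}
variable {T : Tiling Om ι} {i₀ : ι} {U : E → C → ℝ}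

/-- the ring of height `s` -/
def Rg (T : Tiling Om ι) (i₀ : ι) (U : E → C → ℝ) (a : C) (s : ℝ) : Set E :=
  {x | x ∈ P (T.H i₀) ∧ T.dim x ≤ 2 ∧ U x a = s}

/-- two disjoint relatively open parts of a preconnected set -/
theorem class_of_preconn {R : Set E} (hR : IsPreconnected R) {A B : E → Prop}
    (hAB : ∀ x ∈ R, A x ∨ B x) (hdis : ∀ x ∈ R, A x → B x → False)
    (hA : ∀ x ∈ R, A x → ∀ᶠ y in 𝓝 x, y ∈ R → A y)
    (hB : ∀ x ∈ R, B x → ∀ᶠ y in 𝓝 x, y ∈ R → B y) {x y : E} (hx : x ∈ R) (hy : y ∈ R)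
    (hxA : A x) : A y := by
  by_contra hyA
  have hyB : B y := (hAB y hy).resolve_left hyA
  obtain ⟨z, hz, hz1, hz2⟩ := hR (interior {z | z ∈ R → A z}) (interior {z | z ∈ R → B z})
    isOpen_interior isOpen_interior (fun z hz => by
      rcases hAB z hz with h | h
      · exact Or.inl (mem_interior_iff_mem_nhds.2 (hA z hz h))
      · exact Or.inr (mem_interior_iff_mem_nhds.2 (hB z hz h)))
    ⟨x, hx, mem_interior_iff_mem_nhds.2 (hA x hx hxA)⟩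
    ⟨y, hy, mem_interior_iff_mem_nhds.2 (hB y hy hyB)⟩
  exact hdis z hz (interior_subset hz1 hz) (interior_subset hz2 hz)

/-- **ring class** -/
theorem ring_class (G : CG T i₀ U) {a : C} {s : ℝ} (hs : ∀ n : ℕ, s ≠ n)
    (hR : IsPreconnected (Rg T i₀ U a s))
    (mid : ∀ x ∈ P (T.H i₀), T.dim x = 2 → ∃ y ∈ P (T.H i₀), U y a = U x a ∧
      ∀ b, b ≠ a → U y b = ⌊U x b⌋₊)
    {Pt : Set E} (ex : ∀ x ∈ Rg T i₀ U a s, T.dim x = 1 → ∃ w ∈ T.cc x, w ∈ Pt)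
    {S : Set E} (prop : ∀ x ∈ Rg T i₀ U a s, ∀ w ∈ T.cc x, ∀ w' ∈ T.cc x, w ∈ Pt → w' ∈ Pt →
      w ∈ S → w' ∈ S)
    {x x' w w' : E} (hx : x ∈ Rg T i₀ U a s) (hx' : x' ∈ Rg T i₀ U a s) (hw : w ∈ T.cc x)
    (hw' : w' ∈ T.cc x') (hp : w ∈ Pt) (hp' : w' ∈ Pt) (hwS : w ∈ S) : w' ∈ S := by
  -- the direction `a` is free on the ring
  have hfree : ∀ z ∈ Rg T i₀ U a s, ⌊U z a⌋₊ < ⌈U z a⌉₊ := by
    rintro z ⟨h1, h2, h3⟩
    by_contra hno
    exact hs _ (by rw [← h3]; exact (flo_fix (G.nn z h1 a) hno).1)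
  have hdim : ∀ z ∈ Rg T i₀ U a s, T.dim z = 1 ∨ T.dim z = 2 := by
    intro z hz
    have h1 := G.dim z hz.1 hz.2.1
    have h2 : 0 < T.dim z := by
      rw [h1, Set.ncard_pos (G.fin z hz.1 hz.2.1)]
      exact ⟨a, hfree z hz⟩
    have := hz.2.1
    omega
  -- a point in every cell
  have hex : ∀ z ∈ Rg T i₀ U a s, ∃ w ∈ T.cc z, w ∈ Pt := by
    intro z hz
    rcases hdim z hz with h | h
    · exact ex z hz h
    obtain ⟨y, hyP, hya, hyb⟩ := mid z hz.1 h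
    have hyz : y ∈ T.cc z := by
      rw [G.cell z hz.1 hz.2.1]
      refine ⟨hyP, fun b => ?_⟩
      by_cases hb : b = a
      · rw [hb, hya]; exact ⟨Nat.floor_le (G.nn z hz.1 a), Nat.le_ceil _⟩
      · rw [hyb b hb]; exact ⟨le_rfl, by exact_mod_cast Nat.floor_le_ceil _⟩
    have hyd : T.dim y ≤ 2 := (T.dim_le hyz).trans hz.2.1
    have hyR : y ∈ Rg T i₀ U a s := ⟨hyP, hyd, by rw [hya]; exact hz.2.2⟩
    have hy1 : T.dim y = 1 := by
      rw [G.dim y hyP hyd, Set.ncard_eq_one]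
      refine ⟨a, ?_⟩
      ext b
      simp only [mem_ofPred_eq, mem_singleton_iff]
      constructor
      · intro h1
        by_contra h2
        rw [hyb b h2, Nat.floor_natCast, Nat.ceil_natCast] at h1
        exact lt_irrefl _ h1
      · rintro rfl; exact hfree y hyR
    obtain ⟨w, h1, h2⟩ := ex y hyR hy1
    exact ⟨w, T.cc_sub_of_mem hyz h1, h2⟩
  have hOm : ∀ z ∈ Rg T i₀ U a s, z ∈ Om := fun z hz => T.sub i₀ hz.1
  have key := class_of_preconn hR (A := fun z => ∃ w ∈ T.cc z, w ∈ Pt ∧ w ∈ S)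
    (B := fun z => ∃ w ∈ T.cc z, w ∈ Pt ∧ w ∉ S)
    (fun z hz => by
      obtain ⟨w, h1, h2⟩ := hex z hz
      by_cases h3 : w ∈ S
      · exact Or.inl ⟨w, h1, h2, h3⟩
      · exact Or.inr ⟨w, h1, h2, h3⟩)
    (by
      rintro z hz ⟨w, h1, h2, h3⟩ ⟨w', h1', h2', h3'⟩
      exact h3' (prop z hz w h1 w' h1' h2 h2' h3))
    (by
      rintro z hz ⟨w, h1, h2⟩
      filter_upwards [T.eventually_mem_cc (hOm z hz)] with y hy _
      exact ⟨w, T.cc_sub_of_mem hy.2 h1, h2⟩)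
    (by
      rintro z hz ⟨w, h1, h2⟩
      filter_upwards [T.eventually_mem_cc (hOm z hz)] with y hy _
      exact ⟨w, T.cc_sub_of_mem hy.2 h1, h2⟩) hx hx' ⟨w, hw, hp, hwS⟩
  obtain ⟨v, h1, h2, h3⟩ := key
  exact prop x' hx' v h1 w' hw' h2 hp' h3

/-- **the two ends of an edge in a free direction** have different heights -/
theorem ends_ne (G : CG T i₀ U) {x : E} (hx : x ∈ P (T.H i₀)) (h1 : T.dim x = 1) {a : C}
    (ha : ⌊U x a⌋₊ < ⌈U x a⌉₊) {p r : E} (hpr : p ≠ r) (hp0 : T.dim p = 0) (hr0 : T.dim r = 0)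
    (hp : p ∈ T.cc x) (hr : r ∈ T.cc x) :
    (U p a = ⌊U x a⌋₊ ∧ U r a = ⌈U x a⌉₊) ∨ (U r a = ⌊U x a⌋₊ ∧ U p a = ⌈U x a⌉₊) := by
  have hd : T.dim x ≤ 2 := by omega
  have hc : ⌈U x a⌉₊ = ⌊U x a⌋₊ + 1 := le_antisymm (Nat.ceil_le_floor_add_one _) ha
  obtain ⟨p1, p2, p3⟩ := G.sub hx hd hp
  obtain ⟨r1, r2, r3⟩ := G.sub hx hd hr
  have pv := G.vtx p1 hp0
  have rv := G.vtx r1 hr0
  have hset : {b | ⌊U x b⌋₊ < ⌈U x b⌉₊} = {a} := by
    have h3 := G.dim x hx hd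
    rw [h1] at h3
    obtain ⟨b, hb⟩ := Set.ncard_eq_one.1 h3.symm
    have : a ∈ {b | ⌊U x b⌋₊ < ⌈U x b⌉₊} := ha
    rw [hb] at this ⊢
    rw [mem_singleton_iff.1 this]
  have hoth : ∀ b, b ≠ a → U p b = U r b := by
    intro b hb
    have hn : ¬ ⌊U x b⌋₊ < ⌈U x b⌉₊ := by
      intro h
      have : b ∈ {b | ⌊U x b⌋₊ < ⌈U x b⌉₊} := h
      rw [hset] at this
      exact hb this
    have h4 := (flo_fix (G.nn x hx b) hn).2
    have k1 := p3 b
    have k2 := r3 b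
    rw [h4] at k1 k2
    exact (le_antisymm k1.2 k1.1).trans (le_antisymm k2.1 k2.2)
  have hne : U p a ≠ U r a := by
    intro h
    have hall : ∀ b, U p b = U r b := fun b => by
      by_cases hb : b = a
      · rw [hb]; exact h
      · exact hoth b hb
    have e : r ∈ T.cc p := by
      rw [G.cell p p1 p2]
      refine ⟨r1, fun b => ?_⟩
      rw [← hall b]
      exact ⟨Nat.floor_le (G.nn p p1 b), Nat.le_ceil _⟩
    rw [T.cc_eq_singleton (T.dim_eq_zero_iff.1 hp0)] at e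
    exact hpr e.symm
  have q1 := p3 a
  have q2 := r3 a
  rw [hc] at q1 q2 ⊢
  rw [pv a] at q1 hne ⊢
  rw [rv a] at q2 hne ⊢
  have q1' : ⌊U x a⌋₊ ≤ ⌊U p a⌋₊ ∧ ⌊U p a⌋₊ ≤ ⌊U x a⌋₊ + 1 := by exact_mod_cast q1
  have q2' : ⌊U x a⌋₊ ≤ ⌊U r a⌋₊ ∧ ⌊U r a⌋₊ ≤ ⌊U x a⌋₊ + 1 := by exact_mod_cast q2
  have hne' : ⌊U p a⌋₊ ≠ ⌊U r a⌋₊ := fun h => hne (by exact_mod_cast h)
  rcases (show (⌊U p a⌋₊ = ⌊U x a⌋₊ ∧ ⌊U r a⌋₊ = ⌊U x a⌋₊ + 1) ∨
    (⌊U r a⌋₊ = ⌊U x a⌋₊ ∧ ⌊U p a⌋₊ = ⌊U x a⌋₊ + 1) by omega) with h | h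
  · left; exact ⟨by rw [h.1], by rw [h.2]⟩
  · right; exact ⟨by rw [h.1], by rw [h.2]⟩

end abs

end Crest.Agent.R096.Hcn_315
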