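import Crest.Agent.R096.Hcn1_315

/-!
# R096 (row 96), HCONN (helper315), part 2: the instance for the exact cores of `Mbf_337`

* `ring_conn`  : the rings `{U . a = s}` of the boundary of an exact core are preconnected;
* `ring_pt`    : every point of a level on a 1-cell of the core lies on the 1-cell of a ring point;
* `circle`     : (abstract class `S`) one level = one circle;
* `hconn_exact`: for 543's families of sheets (`GFam`): a set which is closed under the chords of the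
  sheet `j` on the faces of the core and contains one point of the sheet on the core contains ALL points
  of the level on the 1-cells of the core.
-/

set_option autoImplicit false
set_option linter.unusedSectionVars false
set_option linter.style.longLine false

open Set Topology Filter

namespace Crest.Agent.R096.Hcn_315

open Crest.Agent.R096.Msh_715 Crest.Agent.R096.Ecm_446
open Crest.Agent.R096.Brk1_582 Crest.Agent.R096.Brk2_582 Crest.Agent.R096.Brk3_582
open Crest.Agent.R096.Brk5_582 Crest.Agent.R096.Bsp_628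
open Crest.Agent.R096.Agl5_543 Crest.Agent.R096.Ginv_543
open Crest.Agent.R096.Agl4_543 Crest.Agent.R096.Init_543 Crest.Agent.R096.Exc_965
open Crest.Agent.R096.SkC1_961 (E3 FoamD th)
open Crest.Agent.R096.Mbf_337
open Crest.Agent.R096.Leaf_965 (thH thH_apply not_mem_I_iff)

variable {δ κ0 R c0 : ℝ} {La Om : Set E3} {ι : Type} {Φ : FoamD δ κ0 R c0 La} {T : Tiling Om ι}
  {f : E3 → E3}

section core

variable {κ1 κ2 : ℝ} {c : Φ.F} {i : ι} {A : E3 ≃ᵃ[ℝ] E3} {lam : ℝ} {z : E3} {M : ℕ}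

/-- a point of a tile outside its open tile lies on a cell of dimension at most 2 -/
theorem dim_le_two {x : E3} (hx : x ∈ Msh_715.P (T.H i)) (hI : x ∉ Msh_715.I (T.H i)) :
    T.dim x ≤ 2 := by
  have h1 : T.dim x ≤ 3 := by
    have := T.dim_le_finrank x
    simpa using this
  rcases h1.eq_or_lt with h | h
  · exfalso
    have h2 : T.V x = ⊤ := Submodule.eq_top_of_finrank_eq (by
      have : Module.finrank ℝ (T.V x) = 3 := h
      rw [this]; simp)
    obtain ⟨k, hk⟩ := (T.V_eq_top_iff (T.sub i hx)).1 h2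
    by_cases hki : k = i
    · rw [hki] at hk; exact hI hk
    · exact (Set.disjoint_left.1 (disjoint_P_I (T.ne i) (T.dis i k (Ne.symm hki)))) hx hk
  · omega

variable (hLa : IsOpen La) (h : Exact Φ T f κ1 κ2 c i A lam z)
include hLa h

theorem dim_iff {x : E3} (hx : x ∈ Msh_715.P (T.H i)) :
    T.dim x ≤ 2 ↔ ∃ e, e ≠ c ∧ th A lam z x ∈ Pc Φ.F e := by
  rw [← not_mem_I_iff h hLa hx]
  exact ⟨fun hd => not_I_of_dim hx hd, fun hI => dim_le_two hx hI⟩

/-- **the rings are preconnected** -/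
theorem ring_conn (hM : 0 < M) {a : Φ.F} (hac : a ≠ c) (hne : (Pc Φ.F c ∩ Pc Φ.F a).Nonempty)
    {s : ℝ} (h0 : 0 < s) (h1 : s < M) : IsPreconnected (Rg T i (U Φ A lam z M) a s) := by
  have hl := h.lam0
  have hM' : (0 : ℝ) < M := by exact_mod_cast hM
  have h2 := (isPreconnected_ring (κ := Fin 3) Φ.bf hLa (by simp) hac hne (t := s / M)
    (by positivity) (by rw [div_lt_one hM']; exact h1)).1
  have h3 : Rg T i (U Φ A lam z M) a s =
      (thH A lam hl.ne' z).symm '' (ring (Pc Φ.F) (bc (F := Φ.F)) c a (s / M)) := by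
    rw [Homeomorph.image_symm]
    ext x
    rw [mem_preimage, thH_apply]
    constructor
    · rintro ⟨g1, g2, g3⟩
      refine ⟨(th_mem h).1 g1, (dim_iff hLa h g1).1 g2, ?_⟩
      have g4 : (M : ℝ) * sb Φ (th A lam z x) a = s := g3
      show sb Φ (th A lam z x) a = s / M
      rw [← g4]; field_simp
    · rintro ⟨g1, g2, g3⟩
      have g5 : x ∈ Msh_715.P (T.H i) := (th_mem h).2 g1
      refine ⟨g5, (dim_iff hLa h g5).2 g2, ?_⟩
      have g4 : sb Φ (th A lam z x) a = s / M := g3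
      show (M : ℝ) * sb Φ (th A lam z x) a = s
      rw [g4]; field_simp
  rw [h3]
  exact h2.image _ (Homeomorph.continuous _).continuousOn

/-- points with the heights of `x`, some of them rounded down -/
theorem mid_pt (hM : 0 < M) {x : E3} (hx : x ∈ Msh_715.P (T.H i)) (a : Φ.F) :
    ∃ y ∈ Msh_715.P (T.H i), U Φ A lam z M y a = U Φ A lam z M x a ∧
      ∀ b, b ≠ a → U Φ A lam z M y b = ⌊U Φ A lam z M x b⌋₊ := by
  classical
  have F := foamΦ hLa Φ
  have hM' : (0 : ℝ) < M := by exact_mod_cast hM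
  have hu : sb Φ (th A lam z x) ∈ K (Pc Φ.F) := F.sc_mem_K (th_La h hx)
  have hc : sb Φ (th A lam z x) c = 0 := (F.sc_eq_zero (th_La h hx)).2 ((th_mem h).1 hx)
  set u := sb Φ (th A lam z x) with hu'
  have k1 := hu.1
  have hle : ∀ b, (⌊(M : ℝ) * u b⌋₊ : ℝ) / M ≤ u b := fun b => by
    rw [div_le_iff₀ hM', mul_comm (u b)]
    exact Nat.floor_le (mul_nonneg hM'.le (k1 b).1)
  have hv : (fun b => if b = a then u b else (⌊(M : ℝ) * u b⌋₊ : ℝ) / M) ∈ K (Pc Φ.F) := by
    refine ⟨fun b => ?_, ⟨c, ?_⟩, ?_⟩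
    · by_cases hb : b = a
      · simp only [hb, if_true]; exact k1 a
      · simp only [hb, if_false]; exact ⟨by positivity, (hle b).trans (k1 b).2⟩
    · by_cases hb : c = a
      · simp only [hb, if_true]; rw [← hb]; exact hc
      · simp only [hb, if_false, hc]; simp
    · have e : {b | (if b = a then u b else (⌊(M : ℝ) * u b⌋₊ : ℝ) / M) < 1} = {b | u b < 1} := by
        ext b
        simp only [mem_ofPred_eq]
        by_cases hb : b = a
        · simp only [hb, if_true]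
        · simp only [hb, if_false]
          constructor
          · intro h'
            by_contra hn
            have h5 : u b = 1 := le_antisymm (k1 b).2 (not_lt.1 hn)
            rw [h5, mul_one, Nat.floor_natCast, div_self hM'.ne'] at h'
            exact lt_irrefl _ h'
          · exact fun h' => (hle b).trans_lt h'
      rw [e]
      exact hu.2.2
  obtain ⟨y, hy, h1⟩ := exists_pt hLa h hv (by
    by_cases hb : c = a
    · simp only [hb, if_true]; rw [← hb]; exact hc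
    · simp only [hb, if_false, hc]; simp)
  refine ⟨y, hy, ?_, fun b hb => ?_⟩
  · unfold U
    rw [h1 a]
    simp [hu']
  · unfold U
    rw [h1 b]
    simp only [hb, if_false]
    rw [mul_div_cancel₀ _ hM'.ne']

/-- a point in the middle of an edge -/
theorem set_pt (hM : 0 < M) {x : E3} (hx : x ∈ Msh_715.P (T.H i)) {a : Φ.F} (hac : a ≠ c)
    (hx1 : U Φ A lam z M x a < M) {s : ℝ} (h0 : 0 ≤ s) (h1 : s < M) :
    ∃ y ∈ Msh_715.P (T.H i), U Φ A lam z M y a = s ∧
      ∀ b, b ≠ a → U Φ A lam z M y b = U Φ A lam z M x b := by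
  classical
  have F := foamΦ hLa Φ
  have hM' : (0 : ℝ) < M := by exact_mod_cast hM
  have hu : sb Φ (th A lam z x) ∈ K (Pc Φ.F) := F.sc_mem_K (th_La h hx)
  have hc : sb Φ (th A lam z x) c = 0 := (F.sc_eq_zero (th_La h hx)).2 ((th_mem h).1 hx)
  have hx1' : sb Φ (th A lam z x) a < 1 := by
    have : (M : ℝ) * sb Φ (th A lam z x) a < M := hx1
    nlinarith
  set u := sb Φ (th A lam z x) with hu'
  have k1 := hu.1
  have hs : s / M < 1 := by rw [div_lt_one hM']; exact h1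
  have hv : (fun b => if b = a then s / M else u b) ∈ K (Pc Φ.F) := by
    refine ⟨fun b => ?_, ⟨c, by simp only [hac.symm, if_false]; exact hc⟩, ?_⟩
    · by_cases hb : b = a
      · simp only [hb, if_true]; exact ⟨by positivity, hs.le⟩
      · simp only [hb, if_false]; exact k1 b
    · have e : {b | (if b = a then s / M else u b) < 1} = {b | u b < 1} := by
        ext b
        simp only [mem_ofPred_eq]
        by_cases hb : b = a
        · simp only [hb, if_true]; exact ⟨fun _ => hx1', fun _ => hs⟩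
        · simp only [hb, if_false]
      rw [e]
      exact hu.2.2
  obtain ⟨y, hy, h2⟩ := exists_pt hLa h hv (by simp only [hac.symm, if_false]; exact hc)
  refine ⟨y, hy, ?_, fun b hb => ?_⟩
  · unfold U
    rw [h2 a]
    simp only [if_true]
    rw [mul_div_cancel₀ _ hM'.ne']
  · unfold U
    rw [h2 b]
    simp only [hb, if_false]
    rfl

end core

section circle

variable {κ1 κ2 : ℝ} {X : Set Φ.F} {ct : Φ.F → ι} {A : Φ.F → E3 ≃ᵃ[ℝ] E3} {lam : Φ.F → ℝ}
  {z : Φ.F → E3} {M : Φ.F → ℕ} {L : Φ.F → Finset ℝ} {c : Φ.F}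

/-- the points of the level `t` of the family `a` on the 1-cells of the core `c` -/
def Pts (Φ : FoamD δ κ0 R c0 La) (T : Tiling Om ι) (f : E3 → E3) (i : ι) (a : Φ.F) (t : ℝ) : Set E3 :=
  {w | w ∈ Msh_715.P (T.H i) ∧ T.dim w = 1 ∧ Φ.lev a (f w) = t}

variable (hLa : IsOpen La) (hc : c ∈ X)
  (hE : Exact Φ T f κ1 κ2 c (ct c) (A c) (lam c) (z c)) (hW : Words Φ T f X ct A lam z M L)
  {a : Φ.F} {t : ℝ} (ht : t ∈ L a)
include hLa hc hE hW ht

/-- **every point of the level on a 1-cell of the core lies on the 1-cell of a ring point** -/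
theorem ring_pt {w : E3} (hw : w ∈ Pts Φ T f (ct c) a t) :
    ∃ k : ℕ, (k : ℝ) < M c * t ∧ M c * t < k + 1 ∧ a ≠ c ∧ (Pc Φ.F c ∩ Pc Φ.F a).Nonempty ∧
      (k : ℝ) + 1 ≤ M c ∧
      ∃ x ∈ Rg T (ct c) (U Φ (A c) (lam c) (z c) (M c)) a (k + 1/2), w ∈ T.cc x := by
  obtain ⟨hwP, hw1, hwt⟩ := hw
  have hgr := grid_of_words hW hc
  have G := cg_of_grid hLa hE hgr
  have hM := hgr.1
  have hM' : (0 : ℝ) < M c := by exact_mod_cast hM
  have F := foamΦ hLa Φ
  have hd : T.dim w ≤ 2 := by omega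
  obtain ⟨p, r, -, hseg, -, -, -, hp, hr⟩ := T.edge_eq (T.sub _ hwP) hw1
  obtain ⟨-, -, -, -, -, w2⟩ := hW.word c hc w hwP hw1 a t ht p r hseg
  have hcr : (sb Φ (th (A c) (lam c) (z c) p) a < t ∧ t < sb Φ (th (A c) (lam c) (z c) r) a) ∨
      (sb Φ (th (A c) (lam c) (z c) r) a < t ∧ t < sb Φ (th (A c) (lam c) (z c) p) a) := by
    by_contra hno
    exact w2 hno w (T.self_mem_cc w) hwt
  set u := U Φ (A c) (lam c) (z c) (M c) with hu
  have hUp := (G.sub hwP hd hp).2.2 a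
  have hUr := (G.sub hwP hd hr).2.2 a
  have hceil : (⌈u w a⌉₊ : ℝ) ≤ ⌊u w a⌋₊ + 1 := by exact_mod_cast Nat.ceil_le_floor_add_one _
  have hband : (⌊u w a⌋₊ : ℝ) < M c * t ∧ M c * t < ⌊u w a⌋₊ + 1 := by
    have e1 : u p a = M c * sb Φ (th (A c) (lam c) (z c) p) a := rfl
    have e2 : u r a = M c * sb Φ (th (A c) (lam c) (z c) r) a := rfl
    rcases hcr with ⟨g1, g2⟩ | ⟨g1, g2⟩
    · have k1 := mul_lt_mul_of_pos_left g1 hM'
      have k2 := mul_lt_mul_of_pos_left g2 hM'
      constructor <;> linarith [hUp.1, hUr.2]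
    · have k1 := mul_lt_mul_of_pos_left g1 hM'
      have k2 := mul_lt_mul_of_pos_left g2 hM'
      constructor <;> linarith [hUr.1, hUp.2]
  have hfree : ⌊u w a⌋₊ < ⌈u w a⌉₊ := by
    by_contra hno
    have h4 := (flo_fix (G.nn w hwP a) hno)
    have k1 := hUp
    have k2 := hUr
    rw [h4.2] at k1 k2
    have e1 : u p a = u r a := (le_antisymm k1.2 k1.1).trans (le_antisymm k2.1 k2.2)
    have e2 : sb Φ (th (A c) (lam c) (z c) p) a = sb Φ (th (A c) (lam c) (z c) r) a :=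
      mul_left_cancel₀ hM'.ne' e1
    rcases hcr with ⟨g1, g2⟩ | ⟨g1, g2⟩ <;> linarith
  have hsc1 : ∀ b, sb Φ (th (A c) (lam c) (z c) w) b ≤ 1 := fun b =>
    ((F.sc_mem_K (th_La hE hwP)).1 b).2
  have hlt : u w a < M c := by
    have h5 : sb Φ (th (A c) (lam c) (z c) w) a < 1 := by
      refine lt_of_le_of_ne (hsc1 a) fun h6 => ?_
      have h7 : u w a = M c := by
        show (M c : ℝ) * sb Φ (th (A c) (lam c) (z c) w) a = M c
        rw [h6, mul_one]
      rw [h7, Nat.floor_natCast, Nat.ceil_natCast] at hfree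
      exact lt_irrefl _ hfree
    show (M c : ℝ) * sb Φ (th (A c) (lam c) (z c) w) a < M c
    nlinarith
  have hpos : 0 < u w a := by
    refine lt_of_le_of_ne (G.nn w hwP a) fun h6 => ?_
    rw [← h6] at hfree
    simp at hfree
  have hk1 : (⌊u w a⌋₊ : ℝ) + 1 ≤ M c := by
    have h5 : (⌊u w a⌋₊ : ℝ) < M c := (Nat.floor_le (G.nn w hwP a)).trans_lt hlt
    have h6 : ⌊u w a⌋₊ + 1 ≤ M c := by exact_mod_cast h5
    exact_mod_cast h6
  have hs0 : sb Φ (th (A c) (lam c) (z c) w) c = 0 :=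
    (F.sc_eq_zero (th_La hE hwP)).2 ((th_mem hE).1 hwP)
  have hac : a ≠ c := by
    rintro rfl
    have h5 : u w a = 0 := by
      show (M a : ℝ) * sb Φ (th (A a) (lam a) (z a) w) a = 0
      rw [hs0, mul_zero]
    exact hpos.ne' h5
  have hfc := (F.sc_mem_K (th_La hE hwP)).2.2
  have hne : (Pc Φ.F c ∩ Pc Φ.F a).Nonempty := by
    obtain ⟨y, hy⟩ := hfc
    have hy' : ∀ e ∈ {e | sb Φ (th (A c) (lam c) (z c) w) e < 1}, y ∈ Pc Φ.F e := fun e he => by
      have := mem_iInter₂.1 hy e he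
      exact this
    refine ⟨y, hy' c (by show sb Φ _ c < 1; rw [hs0]; exact one_pos), hy' a ?_⟩
    have h5 : (M c : ℝ) * sb Φ (th (A c) (lam c) (z c) w) a < M c := hlt
    show sb Φ (th (A c) (lam c) (z c) w) a < 1
    nlinarith
  obtain ⟨x, hxP, hxa, hxb⟩ := set_pt hLa hE hM hwP hac hlt (s := ⌊u w a⌋₊ + 1/2) (by positivity)
    (by linarith)
  -- the point is on the boundary of the tile
  obtain ⟨e, hec, hwe⟩ := (dim_iff hLa hE hwP).1 hd
  have hea : e ≠ a := by
    rintro rfl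
    have h5 : u w e = 0 := by
      show (M c : ℝ) * sb Φ (th (A c) (lam c) (z c) w) e = 0
      have : sb Φ (th (A c) (lam c) (z c) w) e = 0 := (F.sc_eq_zero (th_La hE hwP)).2 hwe
      rw [this, mul_zero]
    exact hpos.ne' h5
  have hxd : T.dim x ≤ 2 := by
    refine (dim_iff hLa hE hxP).2 ⟨e, hec, ?_⟩
    have h5 : sb Φ (th (A c) (lam c) (z c) x) e = 0 := by
      have h6 := hxb e hea
      have h7 : sb Φ (th (A c) (lam c) (z c) w) e = 0 := (F.sc_eq_zero (th_La hE hwP)).2 hwe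
      have h8 : (M c : ℝ) * sb Φ (th (A c) (lam c) (z c) x) e =
        M c * sb Φ (th (A c) (lam c) (z c) w) e := h6
      rw [mul_left_cancel₀ hM'.ne' h8, h7]
    exact (F.sc_eq_zero (th_La hE hxP)).1 h5
  refine ⟨⌊u w a⌋₊, hband.1, hband.2, hac, hne, hk1, x, ⟨hxP, hxd, hxa⟩, ?_⟩
  rw [G.cell x hxP hxd]
  refine ⟨hwP, fun b => ?_⟩
  by_cases hb : b = a
  · rw [hb]
    have hxa' : u x a = ⌊u w a⌋₊ + 1/2 := hxa
    have e1 : ⌊u x a⌋₊ = ⌊u w a⌋₊ := by
      rw [hxa', Nat.floor_eq_iff (by positivity)]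
      constructor <;> linarith
    have e2 : ⌈u x a⌉₊ = ⌊u w a⌋₊ + 1 := by
      rw [hxa', Nat.ceil_eq_iff (by omega)]
      constructor
      · have : ((⌊u w a⌋₊ + 1 - 1 : ℕ) : ℝ) = ⌊u w a⌋₊ := by simp
        rw [this]; linarith
      · push_cast; linarith
    rw [e1, e2]
    refine ⟨Nat.floor_le (G.nn w hwP a), ?_⟩
    exact (Nat.le_ceil _).trans (by exact_mod_cast Nat.ceil_le_floor_add_one _)
  · have h5 : u x b = u w b := hxb b hb
    rw [h5]
    exact ⟨Nat.floor_le (G.nn w hwP b), Nat.le_ceil _⟩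

/-- **ONE CIRCLE**: a class of points of the level which is closed inside the faces of the core and
contains one of them contains all of them. -/
theorem circle (vert : ∀ x ∈ Msh_715.P (T.H (ct c)), T.dim x = 0 → Φ.lev a (f x) ≠ t)
    {S : Set E3} (hS : ∀ x ∈ Msh_715.P (T.H (ct c)), T.dim x = 2 → ∀ w ∈ T.cc x, ∀ w' ∈ T.cc x,
      w ∈ Pts Φ T f (ct c) a t → w' ∈ Pts Φ T f (ct c) a t → w ∈ S → w' ∈ S)
    {w w' : E3} (hw : w ∈ Pts Φ T f (ct c) a t) (hw' : w' ∈ Pts Φ T f (ct c) a t) (hwS : w ∈ S) :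
    w' ∈ S := by
  have hgr := grid_of_words hW hc
  have G := cg_of_grid hLa hE hgr
  have hM := hgr.1
  have hM' : (0 : ℝ) < M c := by exact_mod_cast hM
  have Wd := cw_of_words hW hc hM (J := Unit) (fam := fun _ => a) (t := fun _ => t) (fun _ => ht)
  obtain ⟨k, k1, k2, hac, hne, hkM, x, hx, hwx⟩ := ring_pt hLa hc hE hW ht hw
  obtain ⟨k', k1', k2', -, -, -, x', hx', hwx'⟩ := ring_pt hLa hc hE hW ht hw'
  have hkk : k' = k := by
    have h1 : (k : ℝ) < k' + 1 := k1.trans k2'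
    have h2 : (k' : ℝ) < k + 1 := k1'.trans k2
    have h1' : k < k' + 1 := by exact_mod_cast h1
    have h2' : k' < k + 1 := by exact_mod_cast h2
    omega
  subst hkk
  set u := U Φ (A c) (lam c) (z c) (M c) with hu
  have hsn : ∀ n : ℕ, ((k' : ℝ) + 1/2) ≠ n := by
    intro n hn
    have h1 : (2 * k' + 1 : ℝ) = 2 * n := by linarith
    have h2 : 2 * k' + 1 = 2 * n := by exact_mod_cast h1
    omega
  have hfl : ∀ y ∈ Rg T (ct c) u a (k' + 1/2), ⌊u y a⌋₊ = k' ∧ ⌈u y a⌉₊ = k' + 1 := by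
    rintro y ⟨-, -, h3⟩
    rw [h3]
    constructor
    · rw [Nat.floor_eq_iff (by positivity)]
      constructor <;> linarith
    · rw [Nat.ceil_eq_iff (by omega)]
      constructor
      · have : ((k' + 1 - 1 : ℕ) : ℝ) = k' := by simp
        rw [this]; linarith
      · push_cast; linarith
  refine ring_class G hsn (ring_conn hLa hE hM hac hne (by positivity) (by linarith))
    (fun y hy _ => mid_pt hLa hE hM hy a) (Pt := Pts Φ T f (ct c) a t) ?_ (S := S) ?_ hx hx' hwx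
    hwx' hw hw' hwS
  · -- a point on every edge of the ring
    intro y hy hy1
    obtain ⟨p, r, hpr, hseg, -, hp0, hr0, hp, hr⟩ := T.edge_eq (T.sub _ hy.1) hy1
    obtain ⟨e1, e2⟩ := hfl y hy
    obtain ⟨-, -, -, -, h5, -⟩ := hW.word c hc y hy.1 hy1 a t ht p r hseg
    have h6 := ends_ne G hy.1 hy1 (by rw [e1, e2]; omega) hpr hp0 hr0 hp hr
    rw [e1, e2] at h6
    have hcr : (sb Φ (th (A c) (lam c) (z c) p) a < t ∧ t < sb Φ (th (A c) (lam c) (z c) r) a) ∨
        (sb Φ (th (A c) (lam c) (z c) r) a < t ∧ t < sb Φ (th (A c) (lam c) (z c) p) a) := by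
      rcases h6 with ⟨g1, g2⟩ | ⟨g1, g2⟩
      · left
        have g1' : (M c : ℝ) * sb Φ (th (A c) (lam c) (z c) p) a = k' := g1
        have g2' : (M c : ℝ) * sb Φ (th (A c) (lam c) (z c) r) a = k' + 1 := by
          rw [show (k' : ℝ) + 1 = ((k' + 1 : ℕ) : ℝ) by push_cast; ring]; exact g2
        constructor <;> nlinarith
      · right
        have g1' : (M c : ℝ) * sb Φ (th (A c) (lam c) (z c) r) a = k' := g1
        have g2' : (M c : ℝ) * sb Φ (th (A c) (lam c) (z c) p) a = k' + 1 := by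
          rw [show (k' : ℝ) + 1 = ((k' + 1 : ℕ) : ℝ) by push_cast; ring]; exact g2
        constructor <;> nlinarith
    obtain ⟨v, ⟨hv, hvt⟩, -⟩ := h5 hcr
    obtain ⟨v1, v2, -⟩ := G.sub hy.1 hy.2.1 hv
    refine ⟨v, hv, v1, ?_, hvt⟩
    have h7 : T.dim v ≤ 1 := (T.dim_le hv).trans hy1.le
    rcases Nat.lt_or_ge (T.dim v) 1 with h8 | h8
    · exact absurd hvt (vert v v1 (by omega))
    · omega
  · -- closed inside the cells
    intro y hy v hv v' hv' hvP hvP' hvS
    have h7 : T.dim v ≤ T.dim y := T.dim_le hv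
    have h8 := hy.2.1
    have h9 := hvP.2.1
    rcases (show T.dim y = 1 ∨ T.dim y = 2 by omega) with h | h
    · have := Wd.one y hy.1 h () v hv v' hv' hvP.2.2 hvP'.2.2
      rw [← this]; exact hvS
    · exact hS y hy.1 h v hv v' hv' hvP hvP' hvS

/-- **HCONN for the initial state** (543's families): the chords of the sheet `j` on the faces of the
exact core form one circle; strong form: ALL points of the level on the 1-cells of the core are in
`S j` and in the class. -/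
theorem hconn_exact (h3 : Module.finrank ℝ E3 = 3) {J : Type} [Nonempty J] {C : Type} {fam : J → C}
    {uu : J → E3 → ℝ} {cc : J → ℝ} {Sh : J → Set E3} (h : GFam T uu cc Sh fam) (j : J)
    (vert : ∀ x ∈ Msh_715.P (T.H (ct c)), T.dim x = 0 → Φ.lev a (f x) ≠ t)
    (hSh : ∀ w ∈ Sh j, w ∈ Msh_715.P (T.H (ct c)) → T.dim w = 1 → Φ.lev a (f w) = t)
    {X' : Set E3} (hX : ∀ (F : C2 T) (w : E3), ct c ∈ F.side h3 → w ∈ Sh j → w ∈ F.On → w ∈ X' →
      h.mu h3 F w ∈ X')
    {w w' : E3} (hw : w ∈ Sh j) (hw1 : T.dim w = 1) (hwP : w ∈ Msh_715.P (T.H (ct c)))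
    (hw'1 : T.dim w' = 1) (hw'P : w' ∈ Msh_715.P (T.H (ct c))) (hw't : Φ.lev a (f w') = t)
    (hwX : w ∈ X') : w' ∈ Sh j ∧ w' ∈ X' := by
  have hgr := grid_of_words hW hc
  have G := cg_of_grid hLa hE hgr
  have Wd := cw_of_words hW hc hgr.1 (J := Unit) (fam := fun _ => a) (t := fun _ => t) (fun _ => ht)
  refine circle hLa hc hE hW ht vert (S := {v | v ∈ Sh j ∧ v ∈ X'}) ?_ ⟨hwP, hw1, hSh w hw hwP hw1⟩
    ⟨hw'P, hw'1, hw't⟩ ⟨hw, hwX⟩
  rintro x hxP hx2 v hv v' hv' hvP hvP' ⟨hvS, hvX⟩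
  have hxO : x ∈ Om := T.sub _ hxP
  set Gf : C2 T := mk2 T hxO hx2 with hGf
  have hGset : Gf.set = T.cc x := mk2_set hxO hx2
  have hGq : ct c ∈ Gf.side h3 := by
    rw [C2.mem_side]
    have h5 : Gf.pt ∈ T.oc x := T.pt_cl hxO
    rw [T.at_eq_of_mem_oc hxO h5]
    exact hxP
  have hvG : v ∈ Gf.On := ⟨by rw [hGset]; exact hv, hvP.2.1⟩
  obtain ⟨hvpts, hvlab⟩ := (h.mem_pts_iff (w := v)).2 ⟨hvS, hvP.2.1.le⟩
  obtain ⟨⟨m1, ⟨m2, m3⟩, -⟩, -⟩ := h.mu_spec h3 hvpts hvG
  rw [hvlab] at m2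
  set m := h.mu h3 Gf v with hm
  have hmx : m ∈ T.cc x := by rw [← hGset]; exact m3.1
  have hmP : m ∈ Msh_715.P (T.H (ct c)) := C2.sub_tile (h3 := h3) hGq m3.1
  have hmt : Φ.lev a (f m) = t := hSh m m2 hmP m3.2
  have hmX : m ∈ X' := hX Gf v hGq hvS hvG hvX
  rcases CW.two G Wd hxP hx2 (j := ()) hv hmx hv' hvP.2.1 m3.2 hvP'.2.1 hvP.2.2 hmt hvP'.2.2 with
    e | e | e
  · exact absurd e.symm m1
  · rw [← e]; exact ⟨hvS, hvX⟩
  · rw [← e]; exact ⟨m2, hmX⟩

end circle

end Crest.Agent.R096.Hcn_315
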