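import Crest.Agent.R096.Hdr4_334
import Crest.Agent.R096.Dfo1_539

/-!
# R096 (row 96), DOORS (helper334), part 5: (E2) at the giants of the state after CUT

`two_S3` : the input `H2` of 662's `leafBC` (= the field `twoT` of `FrontM`) for the machine.
-/

set_option autoImplicit false
set_option linter.unusedSectionVars false
set_option linter.unusedVariables false
set_option linter.style.longLine false

open Set Topology Filter Metric Module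
open scoped Classical

namespace Crest.Agent.R096.Hdr_334

open Crest.Agent.R096.Msh_715 Crest.Agent.R096.Agl5_543 Crest.Agent.R096.St_147
  Crest.Agent.R096.Seq_213 Crest.Agent.R096.Door_501 Crest.Agent.R096.Sla_184
  Crest.Agent.R096.Twr_438 Crest.Agent.R096.Exa_560 Crest.Agent.R096.Ess3_95
  Crest.Agent.R096.Ess4_95 Crest.Agent.R096.Dfi_539 Crest.Agent.R096.Dfi_471
  Crest.Agent.R096.Cg_501 Crest.Agent.R096.Sgd_298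
open Crest.Agent.R096.Brk1_582 Crest.Agent.R096.Brk2_582 Crest.Agent.R096.Brk3_582
  Crest.Agent.R096.Brk5_582 Crest.Agent.R096.Bsp_628 Crest.Agent.R096.Init_543
open Crest.Agent.R096.Mbf_337 (sb KJ Tiny gau Cores Fine)
open Crest.Agent.R096.SkC1_961 (E3 FoamD Hom3)
open Crest.Agent.R096.Frn_337 (Ti)
open Crest.Agent.R096.Frs_662 (slC)
open Crest.Agent.R096.Lm_117 Crest.Agent.R096.SkB_662 Crest.Agent.R096.Qdl_662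
  Crest.Agent.R096.Dfo_539

variable {δ κ0 R c0 : ℝ} {La Om : Set E3} {ι : Type} {Φ : FoamD δ κ0 R c0 La} {T : Tiling Om ι}
  {f g : E3 → E3} {κ1 κ2 μ : ℝ} {X : Set Φ.F} {J0 Jt V : Φ.F → Set ι}
  {ct ct' : Φ.F → ι} {A : Φ.F → E3 ≃ᵃ[ℝ] E3} {lam : Φ.F → ℝ} {z : Φ.F → E3}
  {θ : Φ.F → E3 → E3} {φ : Φ.F → E3 → ℝ} {r₀ : Φ.F → ℝ} {ε s₁ : ℝ}

variable {Mo : Type} {n : Ti X → ℕ} {hn : ∀ c, 0 < n c} {hLa : IsOpen La}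
  {hC : Cores Φ T f κ1 κ2 X J0 Jt V ct A lam z θ φ}
  {hR : InitR Φ T f g J0 ct' r₀}
  {hM : Mesh0 T (Pc Φ.F) (bc (F := Φ.F)) (RF Φ r₀) f (KorJ Φ J0) ε} {hε : ε < s₁} {hε1 : ε < 1}
  {L : Φ.F → Finset ℝ} [Nonempty (JJ Φ L ⊕ Mo)]
  {s : GSt (meshC T fr3) (Sum.map (fun j : JJ Φ L => j.1) (id : Mo → Mo))}
  {r : JJ Φ L ⊕ Mo → E3} {nb : Ti X → Φ.F ⊕ Mo → Prop}
  {v0 v1 : ∀ c, Φ.F ⊕ Mo → VxK T (slC hLa hC n hn).K c} {u : Ti X → Φ.F ⊕ Mo → E3 → ℝ}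
  {Aw Bw : Ti X → Φ.F ⊕ Mo → ℝ}
  {Lv : ∀ c, Φ.F ⊕ Mo → Lev T (frontier ((slC hLa hC n hn).K c)) (JJ Φ L ⊕ Mo)}
  {Tw : Twrs ((slC hLa hC n hn).sh fr3) (slC hLa hC n hn).n
    (outK (slC hLa hC n hn).hH (slC hLa hC n hn).dis s r)} {l0 : E3 → JJ Φ L ⊕ Mo}

/-- **(E2) at the giants of the state after CUT** -/
theorem two_S3 (hδ : 0 < δ) (hR0 : 0 < R) (hμ0 : 0 < μ) (hμ1 : μ ≤ 1 / 2) (hκ1 : 0 ≤ κ1)
    (hs : (Cn δ R + 1) * κ1 < s₁) (hs1 : s₁ + Cn δ R * κ1 ≤ μ / 2)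
    (LO : LevOut s nb u Aw Bw Lv) (tt : TwOut (slC hLa hC n hn) fr3 s r v0 v1 Lv Tw)
    (hnb : ∀ (c : Ti X) a, a ≠ c.1 → (Pc Φ.F c.1 ∩ Pc Φ.F a).Nonempty → nb c (Sum.inl a))
    (hu : ∀ c a x, u c (Sum.inl a) x = sb Φ (θ c.1 x) a)
    (hA : ∀ c a, 1 - μ ≤ Aw c (Sum.inl a)) (hB : ∀ c a, Bw c (Sum.inl a) ≤ 1 - μ / 2)
    {re : Ti X → ℝ}
    (h1 : ∀ c : Ti X, ∀ x ∈ frontier (KJ T (Jt c.1)), gau c.1.1 (Φ.B c.1).lo (f x) ≤ re c)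
    (h2 : ∀ c : Ti X, ∀ i, (∃ x ∈ P (T.H i), gau c.1.1 (Φ.B c.1).lo (f x) ≤ re c) → i ∈ V c.1)
    {am : Mo → Φ.F} {Act : Φ.F → Set (T.RIdx (slC hLa hC n hn).HH ⊕ Ti X)}
    {s₃ : GSt ((slC hLa hC n hn).mn fr3) (fun j : JJ Φ L => j.1)}
    (D3 : CutOut (s2 (slC hLa hC n hn) fr3 Tw l0) am Act s₃)
    (hAct : ∀ a (k : Ti X), Sum.inr k ∉ Act a) :
    ∀ (k : Init_543.QK (Pc Φ.F)) (c : Ti X), c.1 ∈ k.Z → ∀ j j' : JJ Φ L, j.1 ∈ k.B →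
      j'.1 ∈ k.B → j.1 ≠ j'.1 →
      Two s₃ ((qdT (fun p : T.RIdx (slC hLa hC n hn).HH => p.tile) (fun p => Sla.P3_sub p)
        (slC hLa hC n hn).KK hLa hR hM hε hε1).Act k) {Sum.inr c} j j' := by
  intro k c hc j j' hj hj' hjj
  refine D3.two ?_ (two_s2 (l0 := l0) hδ hR0 hμ0 hμ1 hκ1 hs hs1 LO tt hnb hu hA hB h1 h2 k c hc
    j j' hj hj' hjj)
  rintro F ⟨q, hq, hqc⟩
  have e : q = Sum.inr c := hqc
  subst e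
  exact ⟨⟨_, hq, hAct _ c⟩, ⟨_, hq, hAct _ c⟩⟩

end Crest.Agent.R096.Hdr_334
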