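import Crest.Agent.R096.Clo5_441
import Crest.Agent.R096.Gl3_422

/-!
# R096 (row 96), ROPES (helper441), part 1

* `detour`  : a compact connected set `A` may be led round compact disjoint cores `K c`: replace
  `A ∩ K c` by a connected patch which contains `A ∩ frontier (K c)`;
* `rope_Ed` : two vertices of cells which meet a compact connected set are joined by a path of
  1-cells (422's `Ed`) of cells which meet it.
-/

set_option autoImplicit false
set_option linter.unusedSectionVars false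

open Set Relation

namespace Crest.Agent.R096.Rop_441

open Crest.Agent.R096.Ce_537 Crest.Agent.R096.Clo_441
open Crest.Agent.R096.St_147 Crest.Agent.R096.Lm_117 Crest.Agent.R096.Gl_422
  Crest.Agent.R096.Seq_213

section detour

variable {X : Type*} [TopologicalSpace X] [T2Space X] {κ : Type*}

/-- the set `A` led round the cores -/
def det (A : Set X) (K pat : κ → Set X) : Set X :=
  (A \ ⋃ c, interior (K c)) ∪ ⋃ c ∈ {c | (A ∩ K c).Nonempty}, pat c

/-- **DETOUR.** -/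
theorem detour {A : Set X} (hA : IsCompact A) (hAc : IsPreconnected A) {K pat : κ → Set X}
    (hK : ∀ c, IsClosed (K c)) (hdisj : ∀ c c', c ≠ c' → Disjoint (K c) (K c'))
    (hfin : {c | (A ∩ K c).Nonempty}.Finite)
    (hpat : ∀ c, (A ∩ K c).Nonempty → (pat c).Nonempty ∧ IsPreconnected (pat c))
    (hfr : ∀ c, (A ∩ K c) \ interior (K c) ⊆ pat c) :
    IsPreconnected (det A K pat) := by
  classical
  rw [isPreconnected_closed_iff]
  intro U V hU hV hcov hUn hVn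
  by_contra hcon
  rw [Set.not_nonempty_iff_eq_empty] at hcon
  set S : Set κ := {c | (A ∩ K c).Nonempty} with hS
  have hno : ∀ x ∈ det A K pat, x ∈ U → x ∈ V → False := fun x h1 h2 h3 => by
    have : x ∈ det A K pat ∩ (U ∩ V) := ⟨h1, h2, h3⟩
    rw [hcon] at this
    exact this
  have hpd : ∀ c ∈ S, pat c ⊆ det A K pat := fun c hc x hx => Or.inr (mem_biUnion hc hx)
  -- every patch lies on one side
  have hside : ∀ c ∈ S, pat c ⊆ U ∨ pat c ⊆ V := by
    intro c hc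
    by_contra h
    push Not at h
    obtain ⟨x, hx, hxU⟩ := Set.not_subset.1 h.1
    obtain ⟨y, hy, hyV⟩ := Set.not_subset.1 h.2
    have hxV : x ∈ V := (hcov (hpd c hc hx)).resolve_left hxU
    have hyU : y ∈ U := (hcov (hpd c hc hy)).resolve_right hyV
    obtain ⟨z, hz, hzU, hzV⟩ := isPreconnected_closed_iff.1 (hpat c hc).2 U V hU hV
      ((hpd c hc).trans hcov) ⟨y, hy, hyU⟩ ⟨x, hx, hxV⟩
    exact hno z (hpd c hc hz) hzU hzV
  have hint : IsOpen (⋃ c, interior (K c)) := isOpen_iUnion fun c => isOpen_interior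
  have hAd : ∀ x ∈ A, x ∉ (⋃ c, interior (K c)) → x ∈ det A K pat := fun x h1 h2 => Or.inl ⟨h1, h2⟩
  -- the two closed parts of `A`
  have part : ∀ U : Set X, IsClosed U → IsClosed ((A ∩ U) \ (⋃ c, interior (K c)) ∪
      ⋃ c ∈ {c | c ∈ S ∧ pat c ⊆ U}, (A ∩ K c)) := by
    intro U hU
    refine IsClosed.union ?_ ?_
    · rw [Set.sdiff_eq]
      exact (hA.isClosed.inter hU).inter hint.isClosed_compl
    · exact (hfin.subset fun c hc => hc.1).isClosed_biUnion fun c _ => hA.isClosed.inter (hK c)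
  have hne : ∀ U : Set X, (det A K pat ∩ U).Nonempty → (∀ c ∈ S, (pat c ∩ U).Nonempty → pat c ⊆ U) →
      (A ∩ ((A ∩ U) \ (⋃ c, interior (K c)) ∪ ⋃ c ∈ {c | c ∈ S ∧ pat c ⊆ U}, (A ∩ K c))).Nonempty := by
    rintro U ⟨x, hx, hxU⟩ hs
    rcases hx with ⟨h1, h2⟩ | hx
    · exact ⟨x, h1, Or.inl ⟨⟨h1, hxU⟩, h2⟩⟩
    · obtain ⟨c, hc, hxc⟩ := mem_iUnion₂.1 hx
      obtain ⟨z, hz⟩ := id hc
      exact ⟨z, hz.1, Or.inr (mem_biUnion (show c ∈ {c | c ∈ S ∧ pat c ⊆ U} from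
        ⟨hc, hs c hc ⟨x, hxc, hxU⟩⟩) hz)⟩
  have hcovA : A ⊆ ((A ∩ U) \ (⋃ c, interior (K c)) ∪ ⋃ c ∈ {c | c ∈ S ∧ pat c ⊆ U}, (A ∩ K c)) ∪
      ((A ∩ V) \ (⋃ c, interior (K c)) ∪ ⋃ c ∈ {c | c ∈ S ∧ pat c ⊆ V}, (A ∩ K c)) := by
    intro x hx
    by_cases hxK : ∃ c, x ∈ K c
    · obtain ⟨c, hc⟩ := hxK
      have hcS : c ∈ S := ⟨x, hx, hc⟩
      rcases hside c hcS with h | h
      · exact Or.inl (Or.inr (mem_biUnion (show c ∈ {c | c ∈ S ∧ pat c ⊆ U} from ⟨hcS, h⟩)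
          ⟨hx, hc⟩))
      · exact Or.inr (Or.inr (mem_biUnion (show c ∈ {c | c ∈ S ∧ pat c ⊆ V} from ⟨hcS, h⟩)
          ⟨hx, hc⟩))
    · have h2 : x ∉ (⋃ c, interior (K c)) := by
        intro h
        obtain ⟨c, hc⟩ := mem_iUnion.1 h
        exact hxK ⟨c, interior_subset hc⟩
      rcases hcov (hAd x hx h2) with h | h
      · exact Or.inl (Or.inl ⟨⟨hx, h⟩, h2⟩)
      · exact Or.inr (Or.inl ⟨⟨hx, h⟩, h2⟩)
  have hsU : ∀ c ∈ S, (pat c ∩ U).Nonempty → pat c ⊆ U := by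
    rintro c hc ⟨x, hx, hxU⟩
    rcases hside c hc with h | h
    · exact h
    · exact (hno x (hpd c hc hx) hxU (h hx)).elim
  have hsV : ∀ c ∈ S, (pat c ∩ V).Nonempty → pat c ⊆ V := by
    rintro c hc ⟨x, hx, hxV⟩
    rcases hside c hc with h | h
    · exact (hno x (hpd c hc hx) (h hx) hxV).elim
    · exact h
  obtain ⟨z, hzA, hz1, hz2⟩ := isPreconnected_closed_iff.1 hAc _ _ (part U hU) (part V hV) hcovA
    (hne U hUn hsU) (hne V hVn hsV)
  rcases hz1 with ⟨⟨-, hzU⟩, hzi⟩ | hz1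
  · rcases hz2 with ⟨⟨-, hzV⟩, -⟩ | hz2
    · exact hno z (hAd z hzA hzi) hzU hzV
    · obtain ⟨c, ⟨hcS, hcV⟩, -, hzc⟩ := mem_iUnion₂.1 hz2
      have h1 : z ∈ pat c := hfr c ⟨⟨hzA, hzc⟩, fun h => hzi (mem_iUnion.2 ⟨c, h⟩)⟩
      exact hno z (hpd c hcS h1) hzU (hcV h1)
  · obtain ⟨c, ⟨hcS, hcU⟩, -, hzc⟩ := mem_iUnion₂.1 hz1
    rcases hz2 with ⟨⟨-, hzV⟩, hzi⟩ | hz2
    · have h1 : z ∈ pat c := hfr c ⟨⟨hzA, hzc⟩, fun h => hzi (mem_iUnion.2 ⟨c, h⟩)⟩
      exact hno z (hpd c hcS h1) (hcU h1) hzV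
    · obtain ⟨c', ⟨hcS', hcV'⟩, -, hzc'⟩ := mem_iUnion₂.1 hz2
      by_cases hcc : c = c'
      · subst hcc
        obtain ⟨x, hx⟩ := (hpat c hcS).1
        exact hno x (hpd c hcS hx) (hcU hx) (hcV' hx)
      · exact Set.disjoint_left.1 (hdisj c c' hcc) hzc hzc'

/-- the detour is compact -/
theorem isCompact_det {A : Set X} (hA : IsCompact A) {K pat : κ → Set X}
    (hfin : {c | (A ∩ K c).Nonempty}.Finite)
    (hpat : ∀ c, (A ∩ K c).Nonempty → IsCompact (pat c)) : IsCompact (det A K pat) := by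
  have hint : IsOpen (⋃ c, interior (K c)) := isOpen_iUnion fun c => isOpen_interior
  refine IsCompact.union ?_ (hfin.isCompact_biUnion fun c hc => hpat c hc)
  rw [Set.sdiff_eq]
  exact hA.inter_right hint.isClosed_compl

end detour

section rope

variable {E : Type*} [NormedAddCommGroup E] [NormedSpace ℝ E] {Ω : Set E}
variable {ι Φ W Q : Type} [PartialOrder Q] {dim : Q → ℕ} {M : MeshC ι Φ W} {K : Q → Set E}

/-- an open cell is not empty -/
theorem exists_opn_pt (X : Cplx Ω Q dim K) (e : Q) : ∃ x, Opn K e x := by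
  obtain ⟨f, hf⟩ := X.isBall e
  have h0 : (0 : Fin (dim e) → ℝ) ∈ cube (dim e) := by
    simp [cube]
  refine ⟨f.f 0, f.mf h0, fun j hj hx => ?_⟩
  have h1 : f.f 0 ∈ f.f '' sph (dim e) := by
    rw [hf]
    exact mem_biUnion (show j ∈ {j | j < e} from hj) hx
  obtain ⟨y, hy, hye⟩ := h1
  have h2 : y = 0 := by
    rw [← f.li y (sph_subset_cube hy), hye, f.li 0 h0]
  rw [h2] at hy
  simp [sph] at hy

/-- two vertices of a 1-cell -/
theorem edge_Ed (L : LM M Q dim) {Z : Set Q} {e a b : Q} (he : dim e = 1) (heZ : e ∈ Z)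
    (ha : a ≤ e) (hb : b ≤ e) (ha0 : dim a = 0) (hb0 : dim b = 0) :
    ReflTransGen (Ed L Z) a b := by
  have lt : ∀ {x : Q}, x ≤ e → dim x = 0 → x < e := by
    intro x hx h0
    refine lt_of_le_of_ne hx ?_
    rintro rfl
    omega
  rcases L.en_all e he a (lt ha ha0) with h1 | h1 <;>
    rcases L.en_all e he b (lt hb hb0) with h2 | h2
  · rw [h1, h2]
  · exact ReflTransGen.single ⟨e, heZ, he, false, h1, h2⟩
  · exact ReflTransGen.single ⟨e, heZ, he, true, h1, h2⟩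
  · rw [h1, h2]

/-- a set of 1-cells with a path is monotone -/
theorem path_mono {L : LM M Q dim} {Z Z' : Set Q} (h : Z ⊆ Z') {v v' : Q}
    (hp : ReflTransGen (Ed L Z) v v') : ReflTransGen (Ed L Z') v v' :=
  ReflTransGen.mono (fun _ _ (hab : Ed L Z _ _) => hab.mono h) _ _ hp

/-- **ROPE**: a path of 1-cells along a compact connected set covered by the cells of `Jc` -/
theorem rope_EdJ (X : Cplx Ω Q dim K) (L : LM M Q dim) {A : Set E} (hA : IsCompact A)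
    (hAc : IsPreconnected A) {Jc : Set Q} (hcov : A ⊆ ⋃ i ∈ Jc, K i) {i i' v v' : Q}
    (hi : i ∈ Jc) (hiA : (K i ∩ A).Nonempty) (hv : v ≤ i) (hv0 : dim v = 0)
    (hi' : i' ∈ Jc) (hiA' : (K i' ∩ A).Nonempty) (hv' : v' ≤ i') (hv0' : dim v' = 0) :
    ReflTransGen (Ed L {e | ∃ i ∈ Jc, e ≤ i ∧ (K i ∩ A).Nonempty}) v v' := by
  have key := label_const X (J := Jc) hA hAc hcov
    (P := {x | ∃ e, dim e = 1 ∧ Opn K e x ∧ ¬∃ i ∈ Jc, e ≤ i ∧ (K i ∩ A).Nonempty})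
    (lam := fun b => ReflTransGen (Ed L {e | ∃ i ∈ Jc, e ≤ i ∧ (K i ∩ A).Nonempty}) v b)
    ?_ ?_ (i := i) (i' := i') (v := v) (v' := v') hi hiA hv hv0 hi' hiA' hv' hv0'
  · exact key ▸ (ReflTransGen.refl : ReflTransGen (Ed L _) v v)
  · -- the edges of the rope carry no bad point
    intro m hmJ hm j hj hj1
    rw [Set.disjoint_left]
    rintro x hxj ⟨e, he1, heo, hbad⟩
    have hle : e ≤ j := X.opn_le heo hxj
    exact hbad ⟨m, hmJ, hle.trans hj, hm⟩
  · intro e he1 hd a ha b hb ha0 hb0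
    -- `e` is an edge of the rope
    have hgood : ∃ i ∈ Jc, e ≤ i ∧ (K i ∩ A).Nonempty := by
      by_contra hbad
      obtain ⟨x, hx⟩ := exists_opn_pt X e
      exact Set.disjoint_left.1 hd hx.1 ⟨e, he1, hx, hbad⟩
    have h1 := edge_Ed (Z := {e | ∃ i ∈ Jc, e ≤ i ∧ (K i ∩ A).Nonempty}) L he1 hgood ha hb ha0 hb0
    have h2 := edge_Ed (Z := {e | ∃ i ∈ Jc, e ≤ i ∧ (K i ∩ A).Nonempty}) L he1 hgood hb ha hb0 ha0
    exact propext ⟨fun h => h.trans h1, fun h => h.trans h2⟩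

/-- **ROPE**: a path of 1-cells along a compact connected set -/
theorem rope_Ed (X : Cplx Ω Q dim K) (L : LM M Q dim) {A : Set E} (hA : IsCompact A)
    (hAc : IsPreconnected A) (hAO : A ⊆ Ω) {i i' v v' : Q} (hi : (K i ∩ A).Nonempty)
    (hi' : (K i' ∩ A).Nonempty) (hv : v ≤ i) (hv0 : dim v = 0) (hv' : v' ≤ i')
    (hv0' : dim v' = 0) :
    ReflTransGen (Ed L {e | ∃ i, e ≤ i ∧ (K i ∩ A).Nonempty}) v v' := by
  have h := rope_EdJ X L hA hAc (Jc := Set.univ)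
    (fun x hx => by
      obtain ⟨i, hi⟩ := X.cover x (hAO hx)
      exact mem_biUnion (Set.mem_univ i) hi)
    (Set.mem_univ i) hi hv hv0 (Set.mem_univ i') hi' hv' hv0'
  refine path_mono ?_ h
  rintro e ⟨i, _, h1, h2⟩
  exact ⟨i, h1, h2⟩

variable {J C Kq : Type} {fam : J → C}

/-- 1-cells frozen for the family `a` and without points of the family `a` -/
def FrN (L : LM M Q dim) (Qd : Quads ι C Kq) (s : GSt M fam) (a : C) : Set Q :=
  {e | FrE L Qd a e ∧ ∀ w ∈ s.P, L.ed w = e → fam (s.lab w) ≠ a}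

/-- **FROZEN ROPE.** `No` = the tiles outside the cores, `A` = compact connected set covered by
them; the tiles of `No` which meet `A` are not active for `a` and carry no point of `a`. -/
theorem rope_frozen (X : Cplx Ω Q dim K) (L : LM M Q dim) {Qd : Quads ι C Kq} {s : GSt M fam}
    {a : C} {No : Set ι} {tc : ι → Q}
    (hmid : ∀ q ∈ No, ∀ e, dim e = 1 → e ≤ tc q → ∃ F, e ≤ L.cf F ∧ q ∈ M.side F)
    {A : Set E} (hA : IsCompact A) (hAc : IsPreconnected A) (hcov : A ⊆ ⋃ q ∈ No, K (tc q))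
    (hgood : ∀ q ∈ No, (K (tc q) ∩ A).Nonempty → (∀ k, Qd.In k a → q ∉ Qd.Act k) ∧
      ∀ w ∈ s.P, L.ed w ≤ tc q → fam (s.lab w) ≠ a)
    {q q' : ι} {v v' : Q} (hq : q ∈ No) (hqA : (K (tc q) ∩ A).Nonempty) (hv : v ≤ tc q)
    (hv0 : dim v = 0) (hq' : q' ∈ No) (hqA' : (K (tc q') ∩ A).Nonempty) (hv' : v' ≤ tc q')
    (hv0' : dim v' = 0) :
    ReflTransGen (Ed L (FrN L Qd s a)) v v' := by
  have h := rope_EdJ X L hA hAc (Jc := tc '' No) (by rw [biUnion_image]; exact hcov)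
    (mem_image_of_mem _ hq) hqA hv hv0 (mem_image_of_mem _ hq') hqA' hv' hv0'
  refine ReflTransGen.mono ?_ _ _ h
  rintro x y ⟨e, ⟨_, ⟨p, hp, rfl⟩, hep, hpA⟩, he1, b, h1, h2⟩
  obtain ⟨g1, g2⟩ := hgood p hp hpA
  refine ⟨e, ⟨fun k hk => ?_, fun w hw hwe => g2 w hw (hwe ▸ hep)⟩, he1, b, h1, h2⟩
  obtain ⟨F, hF1, hF2⟩ := hmid p hp e he1 hep
  exact ⟨F, hF1, p, hF2, g1 k hk⟩

theorem frN_fr {L : LM M Q dim} {Qd : Quads ι C Kq} {s : GSt M fam} {a : C} {v v' : Q}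
    (h : ReflTransGen (Ed L (FrN L Qd s a)) v v') :
    ReflTransGen (Ed L {e | FrE L Qd a e}) v v' := path_mono (fun _ he => he.1) h

/-- labels are constant along a path without points -/
theorem lam_path {L : LM M Q dim} {Qd : Quads ι C Kq} {s : GSt M fam} {a : C} {v v' : Q}
    (h : ReflTransGen (Ed L (FrN L Qd s a)) v v') {j : J} (hj : fam j = a) {lam : Q → ZMod 2}
    (hlam : GLab L (gp s j) lam) : lam v' = lam v := by
  induction h with
  | refl => rfl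
  | tail _ hbc ih =>
    obtain ⟨e, ⟨-, he⟩, he1, b, rfl, rfl⟩ := hbc
    rw [← ih]
    have h1 : nW (gp s j) (L.On1 e) = 0 := nW_empty fun w hw hwe => by
      obtain ⟨h2, h4⟩ := mem_gp.1 hw
      exact he w h2 hwe.2 (by rw [h4, hj])
    have h2 := (hlam.xl e) e le_rfl he1
    rw [h1] at h2
    have h4 : lam (L.en e false) = lam (L.en e true) := by
      have e1 : ∀ x y : ZMod 2, x + y = 0 → x = y := by decide
      exact e1 _ _ h2
    cases b
    · exact h4.symm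
    · exact h4

end rope

end Crest.Agent.R096.Rop_441
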