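import Crest.Agent.R096.Ecm6_446
import Crest.Agent.R096.Rop1_441

/-!
# R096 (row 96), BASE-R, leaf (d) of 446 (helper955), part 1: the labels on the boundary of an exact
core, discrete half

`Stp`     : from a vertex of the tile one can go down / up in one direction along a 1-cell;
`Same`    : a 1-cell with both ends on the same side of the sheet carries no point of the sheet;
`hl_core` : `lam₀ j v = 1 ↔ (κ v).pt ∈ V j` at all vertices of the tile, as soon as this holds at the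
            vertices of height `0` (label 1) and of height `N` (label 0).
-/

set_option autoImplicit false
set_option linter.unusedSectionVars false

open Set Relation

namespace Crest.Agent.R096.Hl_955

open Crest.Agent.R096.Msh_715
open Crest.Agent.R096.St_147 Crest.Agent.R096.Seq_213 Crest.Agent.R096.Seq_213.GSt
  Crest.Agent.R096.Lm_117 Crest.Agent.R096.Ac_117 Crest.Agent.R096.Gl_422
open Crest.Agent.R096.Lab_184 Crest.Agent.R096.Agl5_543
open Crest.Agent.R096.Ecm_446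

variable {E : Type} [NormedAddCommGroup E] [NormedSpace ℝ E] [FiniteDimensional ℝ E]
variable {Om : Set E} {ι : Type} {C J : Type}

/-- from every vertex of the tile `i₀` one can go one step down and up in the direction `a` along a
1-cell of the tile -/
structure Stp (T : Tiling Om ι) (i₀ : ι) (U : E → C → ℝ) (N : ℕ) : Prop where
  down : ∀ v ∈ P (T.H i₀), T.dim v = 0 → ∀ a, ∀ n : ℕ, U v a = (n + 1 : ℕ) → n + 1 < N →
    ∃ x ∈ P (T.H i₀), T.dim x = 1 ∧ (∀ c, c ≠ a → U x c = U v c) ∧ (n : ℝ) < U x a ∧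
      U x a < (n + 1 : ℕ)
  up : ∀ v ∈ P (T.H i₀), T.dim v = 0 → ∀ a, ∀ n : ℕ, 0 < n → U v a = n → n < N →
    ∃ x ∈ P (T.H i₀), T.dim x = 1 ∧ (∀ c, c ≠ a → U x c = U v c) ∧ (n : ℝ) < U x a ∧
      U x a < (n + 1 : ℕ)

/-- a 1-cell of the tile with both ends on the same side of the sheet carries no point of the
sheet -/
def Same (T : Tiling Om ι) (i₀ : ι) (U : E → C → ℝ) (fam : J → C) (τ : J → ℝ) (X : J → Set E) :
    Prop :=
  ∀ x ∈ P (T.H i₀), T.dim x = 1 → ∀ j,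
    ((∀ y ∈ T.cc x, T.dim y = 0 → U y (fam j) < τ j) ∨
      (∀ y ∈ T.cc x, T.dim y = 0 → τ j ≤ U y (fam j))) → ∀ y ∈ T.cc x, y ∉ X j

theorem flo_mid {r : ℝ} {n : ℕ} (h1 : (n : ℝ) < r) (h2 : r < (n + 1 : ℕ)) :
    ⌊r⌋₊ = n ∧ ⌈r⌉₊ = n + 1 := by
  have e1 : ⌊r⌋₊ = n := by
    rw [Nat.floor_eq_iff ((Nat.cast_nonneg n).trans h1.le)]
    push_cast at h2
    exact ⟨h1.le, h2⟩
  refine ⟨e1, le_antisymm (Nat.ceil_le.2 h2.le) ?_⟩
  exact Nat.lt_ceil.2 h1

section core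

variable {ι' Φ Q : Type} [PartialOrder Q] {dim : Q → ℕ} {M : MeshC ι' Φ E} {L : LM M Q dim}
variable {T : Tiling Om ι} {i₀ : ι} {κ : Q → T.Cell} {fam : J → C} {s : GSt M fam}
  {U : E → C → ℝ} {τ : J → ℝ} {X V : J → Set E} {lam₀ : J → Q → ZMod 2}

/-- two vertices of a 1-cell of the tile without points of the sheet -/
theorem lam_edge (hT : OnT T L.toSk κ) (hF : Full T i₀ κ)
    (hX : ∀ w ∈ s.P, w ∈ P (T.H i₀) → w ∈ X (s.lab w)) {j : J}
    (hlab : GLab L (gp s j) (lam₀ j)) {x : E} (hx : x ∈ P (T.H i₀)) (h1 : T.dim x = 1)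
    (hcc : T.cc x ⊆ P (T.H i₀)) (hno : ∀ y ∈ T.cc x, y ∉ X j) {v w : Q} (hv0 : dim v = 0)
    (hw0 : dim w = 0) (hv : (κ v).pt ∈ T.cc x) (hw : (κ w).pt ∈ T.cc x) :
    lam₀ j v = lam₀ j w := by
  have hxO : x ∈ Om := T.sub _ hx
  have hcl : (T.cl hxO).set = T.cc x := T.cl_set hxO
  have hD : T.cl hxO ∈ Dc T i₀ := by
    refine ⟨by rw [hcl]; exact hcc, ?_⟩
    rw [T.dim_cl hxO]
    omega
  obtain ⟨e, he⟩ := hF.sur _ hD
  have hed : dim e = 1 := by
    rw [← hT.dim e, he, T.dim_cl hxO, h1]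
  have hle : ∀ {u : Q}, dim u = 0 → (κ u).pt ∈ T.cc x → u ≤ e := by
    intro u hu0 hu
    obtain ⟨p, hp, hpe⟩ := hT.down e (κ u) (by
      rw [he, Tiling.Cell.le_def, hcl, (κ u).set_eq]
      exact T.cc_sub_of_mem hu)
    rwa [← hF.inj _ _ hpe]
  have hp := Crest.Agent.R096.Rop_441.edge_Ed (Z := {e}) L hed (mem_singleton e) (hle hv0 hv)
    (hle hw0 hw) hv0 hw0
  refine hlab.const ?_ hp
  rintro e' he' - y hy hye
  rw [mem_singleton_iff.1 he'] at hye
  obtain ⟨hyP, hyj⟩ := mem_gp.1 hy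
  have hyx : y ∈ T.cc x := by
    rw [← hcl, ← he, ← hye.2, hT.ed y hye.1]
    exact T.self_mem_cc y
  exact hno y hyx (hyj ▸ hX y hyP (hcc hyx))

/-- **LABELS ON THE BOUNDARY OF AN EXACT CORE** -/
theorem hl_core (hT : OnT T L.toSk κ) (hF : Full T i₀ κ) (G : CG T i₀ U) {N : ℕ}
    (S : Stp T i₀ U N) (hS : Same T i₀ U fam τ X)
    (side : ∀ v ∈ P (T.H i₀), T.dim v = 0 → ∀ j, v ∈ V j ↔ U v (fam j) < τ j)
    (hX : ∀ w ∈ s.P, w ∈ P (T.H i₀) → w ∈ X (s.lab w))
    (hτ : ∀ j, 0 < τ j ∧ τ j < N)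
    (hU : ∀ v ∈ P (T.H i₀), T.dim v = 0 → ∀ a, U v a ≤ N)
    (hlab : ∀ j, GLab L (gp s j) (lam₀ j))
    (low : ∀ v ∈ Dk i₀ κ, dim v = 0 → ∀ j, U (κ v).pt (fam j) = 0 → lam₀ j v = 1)
    (high : ∀ v ∈ Dk i₀ κ, dim v = 0 → ∀ j, U (κ v).pt (fam j) = N → lam₀ j v = 0) :
    ∀ v ∈ Dk i₀ κ, dim v = 0 → ∀ j, lam₀ j v = 1 ↔ (κ v).pt ∈ V j := by
  -- the cell of a point of the tile
  have key : ∀ x ∈ P (T.H i₀), T.dim x = 1 → ∀ a, ∀ n : ℕ, (n : ℝ) < U x a → U x a < (n + 1 : ℕ) →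
      ∀ v ∈ P (T.H i₀), T.dim v = 0 → (∀ c, c ≠ a → U x c = U v c) → (n : ℝ) ≤ U v a →
      U v a ≤ (n + 1 : ℕ) → v ∈ T.cc x := by
    intro x hx hd a n h1 h2 v hv hv0 he h3 h4
    rw [G.cell x hx (by omega)]
    refine ⟨hv, fun c => ?_⟩
    by_cases hc : c = a
    · subst hc
      obtain ⟨e1, e2⟩ := flo_mid h1 h2
      rw [e1, e2]; exact ⟨h3, h4⟩
    · rw [← he c hc]
      exact ⟨Nat.floor_le (G.nn x hx c), Nat.le_ceil _⟩
  -- the other end
  have oth : ∀ x ∈ P (T.H i₀), T.dim x = 1 → ∀ y ∈ T.cc x, T.dim y = 0 →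
      ∃ w ∈ Dk i₀ κ, dim w = 0 ∧ (κ w).pt = y := by
    intro x hx hd y hy hy0
    obtain ⟨h1, h2, -⟩ := G.sub hx (by omega) hy
    have hO : y ∈ Om := T.sub _ h1
    obtain ⟨w, hw⟩ := hF.sur (T.cl hO) (by
      refine ⟨?_, ?_⟩
      · rw [T.cl_set hO, T.cc_eq_singleton (T.dim_eq_zero_iff.1 hy0)]
        exact singleton_subset_iff.2 h1
      · rw [T.dim_cl hO]
        omega)
    have h4 : (κ w).pt = y := pt_vertex hy0 (by rw [hw, T.cl_set])
    refine ⟨w, ?_, ?_, h4⟩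
    · show κ w ∈ Dc T i₀
      rw [hw]
      refine ⟨?_, ?_⟩
      · rw [T.cl_set hO, T.cc_eq_singleton (T.dim_eq_zero_iff.1 hy0)]
        exact singleton_subset_iff.2 h1
      · rw [T.dim_cl hO]
        omega
    · rw [← hT.dim w]
      show T.dim (κ w).pt = 0
      rw [h4, hy0]
  have hccP : ∀ x ∈ P (T.H i₀), T.dim x = 1 → T.cc x ⊆ P (T.H i₀) := fun x hx hd y hy =>
    (G.sub hx (by omega) hy).1
  have lower : ∀ j, ∀ n : ℕ, ∀ v ∈ Dk i₀ κ, dim v = 0 → U (κ v).pt (fam j) = n → (n : ℝ) < τ j →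
      lam₀ j v = 1 := by
    intro j n
    induction n with
    | zero =>
      intro v hv h0 hu _
      exact low v hv h0 j (by simpa using hu)
    | succ n ih =>
      intro v hv h0 hu hlt
      have hd : T.dim (κ v).pt = 0 := (hT.dim v).trans h0
      have hvP := (dc_pt hv).1
      have hnN : n + 1 < N := by
        have := hlt.trans (hτ j).2
        exact_mod_cast this
      obtain ⟨x, hx, hx1, hxc, g1, g2⟩ := S.down _ hvP hd (fam j) n hu hnN
      have hvx : (κ v).pt ∈ T.cc x := key x hx hx1 (fam j) n g1 g2 _ hvP hd hxc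
        (by rw [hu]; exact_mod_cast Nat.le_succ n) hu.le
      obtain ⟨y, hy, hy0, hyU⟩ := G.exists_lo hx (by omega)
      obtain ⟨e1, e2⟩ := flo_mid g1 g2
      obtain ⟨w, hw, hw0, hwy⟩ := oth x hx hx1 y hy hy0
      have hno : ∀ y ∈ T.cc x, y ∉ X j := by
        refine hS x hx hx1 j (Or.inl fun y' hy' _ => ?_)
        have h3 := ((G.sub hx (by omega) hy').2.2 (fam j)).2
        rw [e2] at h3
        exact lt_of_le_of_lt h3 hlt
      rw [lam_edge hT hF hX (hlab j) hx hx1 (hccP x hx hx1) hno h0 hw0 hvx (hwy ▸ hy)]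
      refine ih w hw hw0 ?_ ?_
      · rw [hwy, hyU, e1]
      · refine lt_trans ?_ hlt
        exact_mod_cast Nat.lt_succ_self n
  have upper : ∀ j, ∀ m n : ℕ, n + m = N → ∀ v ∈ Dk i₀ κ, dim v = 0 → U (κ v).pt (fam j) = n →
      τ j ≤ n → lam₀ j v = 0 := by
    intro j m
    induction m with
    | zero =>
      intro n hn v hv h0 hu _
      exact high v hv h0 j (by rw [hu]; exact_mod_cast hn)
    | succ m ih =>
      intro n hn v hv h0 hu hle
      have hd : T.dim (κ v).pt = 0 := (hT.dim v).trans h0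
      have hvP := (dc_pt hv).1
      have hn0 : 0 < n := by
        have := (hτ j).1.trans_le hle
        exact_mod_cast this
      obtain ⟨x, hx, hx1, hxc, g1, g2⟩ := S.up _ hvP hd (fam j) n hn0 hu (by omega)
      have hvx : (κ v).pt ∈ T.cc x := key x hx hx1 (fam j) n g1 g2 _ hvP hd hxc hu.ge
        (by rw [hu]; exact_mod_cast Nat.le_succ n)
      obtain ⟨y, hy, hy0, hyU⟩ := G.exists_hi hx (by omega)
      obtain ⟨e1, e2⟩ := flo_mid g1 g2
      obtain ⟨w, hw, hw0, hwy⟩ := oth x hx hx1 y hy hy0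
      have hno : ∀ y ∈ T.cc x, y ∉ X j := by
        refine hS x hx hx1 j (Or.inr fun y' hy' _ => ?_)
        have h3 := ((G.sub hx (by omega) hy').2.2 (fam j)).1
        rw [e1] at h3
        exact hle.trans h3
      rw [lam_edge hT hF hX (hlab j) hx hx1 (hccP x hx hx1) hno h0 hw0 hvx (hwy ▸ hy)]
      refine ih (n + 1) (by omega) w hw hw0 ?_ ?_
      · rw [hwy, hyU, e2]
      · refine hle.trans ?_
        exact_mod_cast Nat.le_succ n
  intro v hv h0 j
  have hd : T.dim (κ v).pt = 0 := (hT.dim v).trans h0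
  have hvP := (dc_pt hv).1
  have hu := G.vtx hvP hd (fam j)
  rw [side _ hvP hd j]
  constructor
  · intro h1
    by_contra hcon
    rw [not_lt, hu] at hcon
    have hle : ⌊U (κ v).pt (fam j)⌋₊ ≤ N := by
      have := hU _ hvP hd (fam j)
      rw [hu] at this
      exact_mod_cast this
    rw [upper j (N - ⌊U (κ v).pt (fam j)⌋₊) _ (by omega) v hv h0 hu hcon] at h1
    exact zero_ne_one h1
  · intro h1
    rw [hu] at h1
    exact lower j _ v hv h0 hu h1

end core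

end Crest.Agent.R096.Hl_955
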