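import Crest.Agent.R096.Hl1_955
import Crest.Agent.R096.Ecm4_446
import Crest.Agent.R096.Rop3_441
import Crest.Agent.R096.Leaf2_965

/-!
# R096 (row 96), BASE-R, leaf (d) of 446 (helper955), part 2: `Stp` and `Same` for the literal exact
cores of `Mbf_337`
-/

set_option autoImplicit false
set_option linter.unusedSectionVars false
set_option linter.style.longLine false

open Set Relation

namespace Crest.Agent.R096.Hl_955

open Crest.Agent.R096.Bsp_628 Crest.Agent.R096.Brk1_582 Crest.Agent.R096.Brk3_582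
open Crest.Agent.R096.Brk5_582 Crest.Agent.R096.Msh_715
open Crest.Agent.R096.SkC1_961 (E3 FoamD th)
open Crest.Agent.R096.Mbf_337 (sb Words)
open Crest.Agent.R096.Ecm_446 Crest.Agent.R096.Rop_441

variable {δ κ0 R c0 : ℝ} {La Om : Set E3} {ι : Type} {Φ : FoamD δ κ0 R c0 La} {T : Tiling Om ι}
  {f : E3 → E3} {κ1 κ2 : ℝ} {c : Φ.F} {i : ι} {A : E3 ≃ᵃ[ℝ] E3} {lam : ℝ} {z : E3} {M : ℕ}

/-- a point of the tile with the heights of the vertex `v` except in the direction `a` -/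
theorem exists_mid (hLa : IsOpen La) (h : Mbf_337.Exact Φ T f κ1 κ2 c i A lam z)
    (hG : Grid Φ T i A lam z M) {v : E3} (hv : v ∈ P (T.H i)) (h0 : T.dim v = 0) {a : Φ.F}
    (hav : 0 < sb Φ (th A lam z v) a) {u : Φ.F → ℝ} (hu : u ∈ K (Pc Φ.F))
    (hua : ∀ e, e ≠ a → u e = sb Φ (th A lam z v) e) {n : ℕ} (h1 : (n : ℝ) < M * u a)
    (h2 : M * u a < (n + 1 : ℕ)) :
    ∃ x ∈ P (T.H i), T.dim x = 1 ∧ (∀ e, e ≠ a → Ecm_446.U Φ A lam z M x e = Ecm_446.U Φ A lam z M v e) ∧
      (n : ℝ) < Ecm_446.U Φ A lam z M x a ∧ Ecm_446.U Φ A lam z M x a < (n + 1 : ℕ) := by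
  have F := foamΦ hLa Φ
  have G := cg_of_grid hLa h hG
  obtain ⟨hM, hg⟩ := hG
  have hac : a ≠ c := by
    rintro rfl
    have h5 : sb Φ (th A lam z v) a = 0 := (F.sc_eq_zero (th_La h hv)).2 ((th_mem h).1 hv)
    rw [h5] at hav
    exact lt_irrefl _ hav
  have huc : u c = 0 := by
    rw [hua c hac.symm]
    exact (F.sc_eq_zero (th_La h hv)).2 ((th_mem h).1 hv)
  obtain ⟨y, hy, hys⟩ := exists_pt hLa h hu huc
  have hvI : v ∉ I (T.H i) := not_I_of_dim hv (by omega)
  obtain ⟨e, hec, hev⟩ := (Leaf_965.not_mem_I_iff h hLa hv).1 hvI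
  have hea : e ≠ a := by
    rintro rfl
    have h5 : sb Φ (th A lam z v) e = 0 := (F.sc_eq_zero (th_La h hv)).2 hev
    rw [h5] at hav
    exact lt_irrefl _ hav
  have hyI : y ∉ I (T.H i) := by
    refine (Leaf_965.not_mem_I_iff h hLa hy).2 ⟨e, hec, (F.sc_eq_zero (th_La h hy)).1 ?_⟩
    have h5 : sb Φ (th A lam z y) e = 0 := by
      rw [hys e, hua e hea]
      exact (F.sc_eq_zero (th_La h hv)).2 hev
    exact h5
  refine ⟨y, hy, ?_, ?_, ?_, ?_⟩
  · rw [(hg y hy hyI).2]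
    have hset : {a : Φ.F | ⌊(M : ℝ) * sb Φ (th A lam z y) a⌋₊ < ⌈(M : ℝ) * sb Φ (th A lam z y) a⌉₊} = {a} := by
      ext e
      simp only [mem_ofPred_eq, mem_singleton_iff]
      by_cases hea : e = a
      · subst hea
        rw [hys e]
        obtain ⟨e1, e2⟩ := flo_mid h1 h2
        rw [e1, e2]
        exact ⟨fun _ => rfl, fun _ => Nat.lt_succ_self n⟩
      · rw [hys e, hua e hea]
        have h5 := G.vtx hv h0 e
        obtain ⟨e1, e2⟩ := flo_nat h5
        unfold Ecm_446.U at e1 e2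
        rw [e1, e2]
        exact ⟨fun h => absurd h (lt_irrefl _), fun h => absurd h hea⟩
    rw [hset, ncard_singleton]
  · intro e he
    unfold Ecm_446.U
    rw [hys e, hua e he]
  · unfold Ecm_446.U
    rw [hys a]; exact h1
  · unfold Ecm_446.U
    rw [hys a]; exact h2

/-- **one step down and up** -/
theorem stp_of_grid (hLa : IsOpen La) (h : Mbf_337.Exact Φ T f κ1 κ2 c i A lam z)
    (hG : Grid Φ T i A lam z M) : Stp T i (Ecm_446.U Φ A lam z M) M := by
  have F := foamΦ hLa Φ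
  have hM := hG.1
  have hM' : (0 : ℝ) < M := by exact_mod_cast hM
  constructor
  · intro v hv h0 a n hu hn
    have hu' : (M : ℝ) * sb Φ (th A lam z v) a = (n + 1 : ℕ) := hu
    have hK : sb Φ (th A lam z v) ∈ K (Pc Φ.F) := F.sc_mem_K (th_La h hv)
    have hn1 : (0 : ℝ) < (n + 1 : ℕ) := by positivity
    have ha0 : 0 < sb Φ (th A lam z v) a := by
      by_contra hcon
      rw [not_lt] at hcon
      nlinarith
    have hnM : ((n + 1 : ℕ) : ℝ) < M := by exact_mod_cast hn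
    have ha1 : sb Φ (th A lam z v) a < 1 := by
      by_contra hcon
      rw [not_lt] at hcon
      nlinarith
    set r : ℝ := ((n : ℝ) + 1 / 2) / (n + 1 : ℕ) with hr
    have hr0 : 0 ≤ r := by positivity
    have hr1 : r ≤ 1 := by
      rw [hr, div_le_one hn1]; push_cast; linarith
    have hrn : (M : ℝ) * (r * sb Φ (th A lam z v) a) = n + 1 / 2 := by
      rw [mul_left_comm, hu', hr]
      field_simp
    refine exists_mid hLa h hG hv h0 ha0 (scl_mem_K (D := {a}) hr0 hr1 hK ?_) ?_ ?_ ?_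
    · rintro e rfl; exact ha1
    · intro e he
      exact scl_not he
    · rw [scl_mem (mem_singleton a), hrn]; linarith
    · rw [scl_mem (mem_singleton a), hrn]; push_cast; linarith
  · intro v hv h0 a n hn0 hu hn
    have hu' : (M : ℝ) * sb Φ (th A lam z v) a = n := hu
    have hK : sb Φ (th A lam z v) ∈ K (Pc Φ.F) := F.sc_mem_K (th_La h hv)
    have hn1 : (0 : ℝ) < n := by exact_mod_cast hn0
    have ha0 : 0 < sb Φ (th A lam z v) a := by
      by_contra hcon
      rw [not_lt] at hcon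
      nlinarith
    have hnM : (n : ℝ) + 1 ≤ M := by exact_mod_cast hn
    set r : ℝ := ((n : ℝ) + 1 / 2) / M with hr
    have hrn : (M : ℝ) * r = n + 1 / 2 := by
      rw [hr]; field_simp
    refine exists_mid hLa h hG hv h0 ha0 (raise_mem_K hK ha0 (r := r) ?_ ?_) ?_ ?_ ?_
    · rw [hr, le_div_iff₀ hM', mul_comm, hu']; linarith
    · rw [hr, div_le_one hM']; linarith
    · intro e he
      unfold Function.update
      rw [dif_neg he]
    · unfold Function.update
      rw [dif_pos rfl, hrn]; linarith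
    · unfold Function.update
      rw [dif_pos rfl, hrn]; push_cast; linarith

/-- **words** -/
theorem same_of_words {X : Set Φ.F} {ct : Φ.F → ι} {A : Φ.F → E3 ≃ᵃ[ℝ] E3} {lam : Φ.F → ℝ}
    {z : Φ.F → E3} {M : Φ.F → ℕ} {L : Φ.F → Finset ℝ} (W : Words Φ T f X ct A lam z M L) {c : Φ.F}
    (hc : c ∈ X) (hM : 0 < M c) {J : Type} {fam : J → Φ.F} {t : J → ℝ} (ht : ∀ j, t j ∈ L (fam j)) :
    Same T (ct c) (Ecm_446.U Φ (A c) (lam c) (z c) (M c)) fam (fun j => M c * t j)
      (fun j => {y | Φ.lev (fam j) (f y) = t j}) := by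
  have hM' : (0 : ℝ) < M c := by exact_mod_cast hM
  intro x hx h1 j hs y hy hyj
  obtain ⟨a, b, -, e, -⟩ := T.edge_eq (T.sub _ hx) h1
  obtain ⟨da, db, ha, hb, -⟩ := T.dim_ends (T.sub _ hx) h1 e
  obtain ⟨-, -, -, -, -, h3⟩ := W.word c hc x hx h1 (fam j) (t j) (ht j) a b e
  refine h3 ?_ y hy hyj
  rcases hs with hs | hs
  · have g1 := hs a ha da
    have g2 := hs b hb db
    unfold Ecm_446.U at g1 g2
    rw [mul_lt_mul_iff_right₀ hM'] at g1 g2
    rintro (⟨-, h5⟩ | ⟨-, h5⟩)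
    · exact lt_asymm g2 h5
    · exact lt_asymm g1 h5
  · have g1 := hs a ha da
    have g2 := hs b hb db
    unfold Ecm_446.U at g1 g2
    rw [mul_le_mul_iff_right₀ hM'] at g1 g2
    rintro (⟨h4, -⟩ | ⟨h4, -⟩)
    · exact absurd h4 (not_lt.2 g1)
    · exact absurd h4 (not_lt.2 g2)

end Crest.Agent.R096.Hl_955
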