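import Crest.Agent.R096.Rop4_441
import Crest.Agent.R096.SkB1b_662

/-!
# Row 96 (S0127), (K4) over the labelled mesh, part 1 (helper527)

`k4in` : 662's `K4In` for the cells of the tiles outside the cores, with
`y q := va · (xq q)`, `xq q` ANY point of a tile outside the cores which contains `q`, from 441's ropes (`Env`, `zero_path`,
`far_path`), `Deep` at the base vertices `v₀ a` and a far point at some vertex of `Z a`.
-/

set_option autoImplicit false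
set_option linter.unusedSectionVars false
set_option linter.unusedVariables false

open Set Relation

namespace Crest.Agent.R096.Kin_527

open Crest.Agent.R096.Brk1_582 Crest.Agent.R096.Brk2_582 Crest.Agent.R096.Init_543
  Crest.Agent.R096.Vb_965 Crest.Agent.R096.Ce_537 Crest.Agent.R096.St_147 Crest.Agent.R096.Lm_117
  Crest.Agent.R096.Gl_422 Crest.Agent.R096.Seq_213 Crest.Agent.R096.Msh_715
  Crest.Agent.R096.Rop_441 Crest.Agent.R096.SkB_662
open Crest.Agent.R096.Grd_714 (K2)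

variable {E V : Type} [NormedAddCommGroup E] [NormedSpace ℝ E] [FiniteDimensional ℝ E]
  [NormedAddCommGroup V] [NormedSpace ℝ V] [FiniteDimensional ℝ V]
variable {I ι : Type} {Om : Set E} {La : Set V} {P : I → Set V} {b : Set I → V}
  {R : V → V} {f : E → V} {g : V → E} {Kc : I → Set E} {T : Tiling Om ι} {Kor : Set ι}
variable {ι' Φ Q Kq J : Type} [PartialOrder Q] {dim : Q → ℕ} {M : MeshC ι' Φ E} {K : Q → Set E}
  {fam : J → I}
variable {s ε η0 η : ℝ} {L : LM M Q dim} {Qd : Quads ι' I Kq} {No : Set ι'}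
  {ti : ι' → ι} {tc : ι' → Q} {s₀ : GSt M fam}

/-- **(K4) for the cells of the tiles outside the cores** -/
theorem k4in {Ω : Set E} (X : Cplx Ω Q dim K)
    (hE : Env T P b R f Kor s K L Qd No ti tc)
    (hk : ∀ q ∈ Kor, ∃ c, Msh_715.P (T.H q) ⊆ Kc c)
    (H : Hm f g Om La) (F : Foam La P b 4) (hR : Ret La P R)
    {th : I → E → V} {tau : I → V → E} (hC : CorT Om P b R f Kc th tau η0)
    (hM : Mesh0 T P b R f Kor ε)
    (hV : Module.finrank ℝ V = 3) {θ : ℝ} (hθ0 : 0 ≤ θ) (h00 : 0 ≤ η0) (h01 : θ + η0 ≤ η)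
    (hε : 0 ≤ ε) (hs : ε + (η + η0) < s) (hs1 : s ≤ 1 / 2)
    (hL : LevOn P b R f s K L s₀ No tc) (hLa : IsPreconnected La)
    (hS : ∀ a c, c ≠ a → IsPreconnected (Lset La P b c 0 \ P a))
    (hint : ∀ i ∈ No, ∀ x ∈ K (tc i), ∀ c, x ∉ interior (Kc c))
    {Z : I → Set Q} {v₀ : I → Q}
    (hv₀ : ∀ j, Deep Om La P b R f Kc tau η θ dim K No tc (fam j) (v₀ (fam j)))
    (hv₁ : ∀ j, ∃ v' ∈ Z (fam j), dim v' = 0 ∧ ∃ i ∈ No, v' ≤ tc i ∧
      ∃ x ∈ K (tc i), 1 - θ ≤ va P b R f (fam j) x)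
    {D : Set Q} {xq : Q → E} (hD : ∀ q ∈ D, ∃ i ∈ No, q ≤ tc i ∧ xq q ∈ K (tc i)) :
    K4In L Qd s₀ Z v₀ P D (fun q a => va P b R f a (xq q)) := by
  have hεs : ε < s := by linarith
  have hOm : ∀ i ∈ No, ∀ x ∈ K (tc i), x ∈ Om := fun i hi x hx => by
    rw [hE.set i hi] at hx; exact T.sub _ hx
  have hosc : ∀ i ∈ No, ∀ x ∈ K (tc i), ∀ x' ∈ K (tc i), ∀ a,
      |va P b R f a x - va P b R f a x'| ≤ ε := fun i hi x hx x' hx' a => by
    rw [hE.set i hi] at hx hx'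
    exact hM.osc (ti i) (hE.no i hi) x hx x' hx' a
  refine ⟨fun q hq => ?_, fun q hq w hw hwq => ?_, fun q hq k a hka w hw hwq hint' => ?_,
    fun q hq j hj => ?_, fun q hq j hj => ?_⟩
  · obtain ⟨i, hi, hqi, hxi⟩ := hD q hq
    have hy := mem_La H F hR (hOm i hi _ hxi)
    rw [hE.set i hi] at hxi
    obtain ⟨c, c', hne, h1, h2⟩ := hM.wall (ti i) (hE.no i hi) _ hxi
    exact ⟨F.sc_mem_K hy, c, c', hne, (F.sc_eq_zero hy).2 h1, (F.sc_eq_zero hy).2 h2⟩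
  · obtain ⟨i, hi, hqi, hxi⟩ := hD q hq
    obtain ⟨w1, w2, w3⟩ := hL w hw i hi (hwq.2.trans hqi)
    have h := abs_le.1 (hosc i hi _ hxi w w1 (fam (s₀.lab w)))
    exact ⟨by show 0 < va P b R f _ _; linarith [h.1], by show va P b R f _ _ < 1; linarith [h.2]⟩
  · obtain ⟨i, hi, hqi, hxi⟩ := hD q hq
    obtain ⟨F', hF1, hF2⟩ := hE.mid i hi (L.ed w) (L.ed_dim w hwq.1) (hwq.2.trans hqi)
    have hact : i ∈ Qd.Act k := hint'.2 F' ((L.on_iff F' w).2 ⟨hwq.1, hF1⟩) i hF2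
    obtain ⟨k', ⟨-, x₀, hx₀, hx₁, -⟩, hk'⟩ := hE.act i hi k hact
    have h3 := hx₁ a (hk' a hka)
    rw [← hE.set i hi] at hx₀
    have h := abs_le.1 (hosc i hi _ hxi x₀ hx₀ a)
    exact ⟨by show 0 < va P b R f _ _; linarith [h.1, h3.1],
      by show va P b R f _ _ < 1; linarith [h.2, h3.2]⟩
  · obtain ⟨i, hi, hqi, hxi⟩ := hD q hq
    obtain ⟨v, hv, hv0⟩ := L.base q
    refine ⟨v, hv, hv0, ?_⟩
    have hd : Deep Om La P b R f Kc tau η θ dim K No tc (fam j) v :=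
      deep_of_zero H F hR hC hi (hv.trans hqi) hv0 hxi (hOm i hi _ hxi) (hint i hi _ hxi)
        (by rw [show va P b R f (fam j) (xq q) = 0 from hj]; exact hθ0)
    exact zero_path X hE hk H F hR hC hM hV hθ0 h00 h01 hε hs hs1 hL (hv₀ j) hd
  · obtain ⟨i, hi, hqi, hxi⟩ := hD q hq
    obtain ⟨v, hv, hv0⟩ := L.base q
    obtain ⟨v', hv', hv'0, i', hi', hvi', x', hx', hx1'⟩ := hv₁ j
    refine ⟨v, hv, hv0, v', hv', ?_⟩
    exact far_path X hE hk H F hR hC hM hV hθ0 h00 h01 hε hs hs1 hLa (hS (fam j)) hL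
      (hOm i' hi' _ hx') hx1' (hOm i hi _ hxi)
      (by rw [show va P b R f (fam j) (xq q) = 1 from hj]; linarith) (hint i hi _ hxi) hi' hvi' hv'0
      (Or.inl ⟨hint i' hi' _ hx', hx'⟩) hi (hv.trans hqi) hv0 hxi

end Crest.Agent.R096.Kin_527
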