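import Crest.Agent.R096.Hl2_955
import Crest.Agent.R096.Ecm5_446
import Crest.Agent.R096.Kin1_527
import Crest.Agent.R096.Hlf1_847

/-!
# R096 (row 96), BASE-R, leaf (d) of 446 (helper955), part 3: the labels at the vertices outside the
interiors of the cores with `va a` near `0` or near `1` (441's ropes), and the labels on the boundary
of an exact core, for ANY labelled mesh
-/

set_option autoImplicit false
set_option linter.unusedSectionVars false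
set_option linter.unusedVariables false
set_option linter.style.longLine false

open Set Relation

namespace Crest.Agent.R096.Hl_955

open Crest.Agent.R096.Brk1_582 Crest.Agent.R096.Brk2_582 Crest.Agent.R096.Init_543
  Crest.Agent.R096.Vb_965 Crest.Agent.R096.Ce_537 Crest.Agent.R096.St_147 Crest.Agent.R096.Lm_117
  Crest.Agent.R096.Gl_422 Crest.Agent.R096.Seq_213 Crest.Agent.R096.Msh_715
  Crest.Agent.R096.Rop_441 Crest.Agent.R096.SkB_662 Crest.Agent.R096.Ecm_446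
  Crest.Agent.R096.Ac_117

variable {E V : Type} [NormedAddCommGroup E] [NormedSpace ℝ E] [FiniteDimensional ℝ E]
  [NormedAddCommGroup V] [NormedSpace ℝ V] [FiniteDimensional ℝ V]
variable {I ι : Type} {Om : Set E} {La : Set V} {P : I → Set V} {b : Set I → V}
  {R : V → V} {f : E → V} {g : V → E} {Kc : I → Set E} {T : Tiling Om ι} {Kor : Set ι}
variable {ι' Φ Q Kq J : Type} [PartialOrder Q] {dim : Q → ℕ} {M : MeshC ι' Φ E} {K : Q → Set E}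
  {fam : J → I}
variable {s ε η0 η : ℝ} {L : LM M Q dim} {Qd : Quads ι' I Kq} {No : Set ι'}
  {ti : ι' → ι} {tc : ι' → Q} {s₀ : GSt M fam}

/-- labels are constant along the ropes -/
theorem lam_fr0 {a : I} {v v' : Q} (h : ReflTransGen (Ed L (Fr0 L Qd s₀ a)) v v') {j : J}
    (hj : fam j = a) {lam : Q → ZMod 2} (hlam : GLab L (gp s₀ j) lam) : lam v = lam v' := by
  refine hlam.const ?_ h
  rintro e ⟨-, he⟩ he1 w hw hwe
  obtain ⟨h1, h2⟩ := mem_gp.1 hw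
  exact he w h1 (by rw [h2, hj]) hwe

/-- a vertex outside the interiors of the cores is a vertex of a tile outside the cores -/
theorem exists_no {Ω : Set E} (X : Cplx Ω Q dim K)
    (hE : Env T P b R f Kor s K L Qd No ti tc)
    (hk : ∀ q ∈ Kor, ∃ c, Msh_715.P (T.H q) ⊆ Kc c)
    (hdis : ∀ c c', c ≠ c' → Disjoint (Kc c) (Kc c')) {v : Q} (h0 : dim v = 0) {x : E}
    (hxv : x ∈ K v) (hx : x ∈ Om) (hxi : ∀ c, x ∉ interior (Kc c)) :
    ∃ q ∈ No, v ≤ tc q ∧ x ∈ K (tc q) := by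
  obtain ⟨i, hi, hxi'⟩ := exists_out T hk hdis hx hxi
  obtain ⟨q, hq, rfl⟩ := hE.sur i hi
  have h1 : x ∈ K (tc q) := by rw [hE.set q hq]; exact hxi'
  refine ⟨q, hq, X.opn_le ⟨hxv, fun j hj => ?_⟩ h1, h1⟩
  have := L.dim_lt j v hj
  omega

section ropes

variable {Ω : Set E} (X : Cplx Ω Q dim K)
  (hE : Env T P b R f Kor s K L Qd No ti tc)
  (hk : ∀ q ∈ Kor, ∃ c, Msh_715.P (T.H q) ⊆ Kc c)
  (H : Hm f g Om La) (F : Foam La P b 4) (hR : Ret La P R)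
  {th : I → E → V} {tau : I → V → E} (hC : CorT Om P b R f Kc th tau η0)
  (hM : Mesh0 T P b R f Kor ε)
  (hV : Module.finrank ℝ V = 3) {θ : ℝ} (hθ0 : 0 ≤ θ) (h00 : 0 ≤ η0) (h01 : θ + η0 ≤ η)
  (hε : 0 ≤ ε) (hs : ε + (η + η0) < s) (hs1 : s ≤ 1 / 2)
  (hL : LevOn P b R f s K L s₀ No tc)
include X hE hk H F hR hC hM hV hθ0 h00 h01 hε hs hs1 hL

/-- **LOW**: the label of `j` is 1 at the vertices with `va (fam j) ≤ θ` -/
theorem lam_low {j : J} {lam : Q → ZMod 2} (hlam : GLab L (gp s₀ j) lam) {v₀ : Q}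
    (hv₀ : Deep Om La P b R f Kc tau η θ dim K No tc (fam j) v₀) (h1 : lam v₀ = 1) {v : Q}
    (h0 : dim v = 0) {x : E} (hxv : x ∈ K v) (hx : x ∈ Om) (hxi : ∀ c, x ∉ interior (Kc c))
    (hva : va P b R f (fam j) x ≤ θ) : lam v = 1 := by
  obtain ⟨q, hq, hvq, hxq⟩ := exists_no X hE hk hC.disj h0 hxv hx hxi
  have h2 := zero_path X hE hk H F hR hC hM hV hθ0 h00 h01 hε hs hs1 hL hv₀
    (deep_of_zero H F hR hC hq hvq h0 hxq hx hxi hva)
  rw [← lam_fr0 h2 rfl hlam, h1]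

/-- **HIGH**: the label of `j` is 0 at the vertices with `va (fam j) ≥ 1 - θ` -/
theorem lam_high (hLa : IsPreconnected La) {j : J}
    (hS : ∀ c, c ≠ fam j → IsPreconnected (Lset La P b c 0 \ P (fam j)))
    {lam : Q → ZMod 2} (hlam : GLab L (gp s₀ j) lam) {v₁ : Q} (h1 : lam v₁ = 0)
    (hd1 : dim v₁ = 0) {i : ι'} (hi : i ∈ No) (hv₁ : v₁ ≤ tc i) {x₁ : E} (hx₁ : x₁ ∈ K (tc i))
    (hxi₁ : ∀ c, x₁ ∉ interior (Kc c)) (hva₁ : 1 - θ ≤ va P b R f (fam j) x₁) {v : Q}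
    (h0 : dim v = 0) {x : E} (hxv : x ∈ K v) (hx : x ∈ Om) (hxi : ∀ c, x ∉ interior (Kc c))
    (hva : 1 - θ ≤ va P b R f (fam j) x) : lam v = 0 := by
  obtain ⟨q, hq, hvq, hxq⟩ := exists_no X hE hk hC.disj h0 hxv hx hxi
  have hO : x₁ ∈ Om := by
    rw [hE.set i hi] at hx₁; exact T.sub _ hx₁
  have h2 := far_path X hE hk H F hR hC hM hV hθ0 h00 h01 hε hs hs1 hLa hS hL hO hva₁ hx hva hxi
    hi hv₁ hd1 (Or.inl ⟨hxi₁, hx₁⟩) hq hvq h0 hxq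
  rw [← lam_fr0 h2 rfl hlam, h1]

/-- **LABELS ON THE BOUNDARY OF AN EXACT CORE, ANY LABELLED MESH.** `T'` = a tiling which contains the
core tile `i₀` and of which the cells of `L` are cells (`OnT`); `U` = heights (`M` times the exact
coordinates), `N` = number of steps. -/
theorem hl_mesh (hLa : IsPreconnected La)
    (hS : ∀ a c, c ≠ a → IsPreconnected (Lset La P b c 0 \ P a))
    {Z : I → Set Q} {G₀ : I → Set E} {lam₀ : J → Q → ZMod 2} {v₀ v₁ : I → Q}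
    (hlab : LabIn L Qd s₀ G₀ Z lam₀ v₀ v₁)
    (hv₀ : ∀ j, Deep Om La P b R f Kc tau η θ dim K No tc (fam j) (v₀ (fam j)))
    (hv₁ : ∀ j, dim (v₁ (fam j)) = 0 ∧ ∃ i ∈ No, v₁ (fam j) ≤ tc i ∧
      ∃ x ∈ K (tc i), (∀ c, x ∉ interior (Kc c)) ∧ 1 - θ ≤ va P b R f (fam j) x)
    {Om' : Set E} {ι₂ : Type} {T' : Tiling Om' ι₂} {i₀ : ι₂} {κ : Q → T'.Cell}
    (hT : OnT T' L.toSk κ) (hF : Full T' i₀ κ) {U : E → I → ℝ} (G : CG T' i₀ U) {N : ℕ}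
    (S : Stp T' i₀ U N) {τ : J → ℝ} {Xl Vl : J → Set E} (hSame : Same T' i₀ U fam τ Xl)
    (side : ∀ v ∈ Msh_715.P (T'.H i₀), T'.dim v = 0 → ∀ j, v ∈ Vl j ↔ U v (fam j) < τ j)
    (hX : ∀ w ∈ s₀.P, w ∈ Msh_715.P (T'.H i₀) → w ∈ Xl (s₀.lab w))
    (hτ : ∀ j, 0 < τ j ∧ τ j < N)
    (hU : ∀ v ∈ Msh_715.P (T'.H i₀), T'.dim v = 0 → ∀ a, U v a ≤ N)
    (hK : ∀ v ∈ Dk i₀ κ, dim v = 0 → (κ v).pt ∈ K v)
    (hout : ∀ v ∈ Msh_715.P (T'.H i₀), T'.dim v = 0 → v ∈ Om ∧ ∀ c, v ∉ interior (Kc c))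
    (hcl : ∀ v ∈ Msh_715.P (T'.H i₀), T'.dim v = 0 → ∀ a,
      (U v a = 0 → va P b R f a v ≤ θ) ∧ (U v a = N → 1 - θ ≤ va P b R f a v)) :
    ∀ v ∈ Dk i₀ κ, dim v = 0 → ∀ j, lam₀ j v = 1 ↔ (κ v).pt ∈ Vl j := by
  refine hl_core hT hF G S hSame side hX hτ hU hlab.lab ?_ ?_
  · intro v hv h0 j hu
    have hd : T'.dim (κ v).pt = 0 := (hT.dim v).trans h0
    obtain ⟨h1, h2⟩ := hout _ (dc_pt hv).1 hd
    exact lam_low X hE hk H F hR hC hM hV hθ0 h00 h01 hε hs hs1 hL (hlab.lab j) (hv₀ j)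
      (hlab.one j) h0 (hK v hv h0) h1 h2 ((hcl _ (dc_pt hv).1 hd _).1 hu)
  · intro v hv h0 j hu
    have hd : T'.dim (κ v).pt = 0 := (hT.dim v).trans h0
    obtain ⟨h1, h2⟩ := hout _ (dc_pt hv).1 hd
    obtain ⟨g0, i, g1, g2, x₁, g3, g4, g5⟩ := hv₁ j
    exact lam_high X hE hk H F hR hC hM hV hθ0 h00 h01 hε hs hs1 hL hLa (hS (fam j)) (hlab.lab j)
      (hlab.zero j) g0 g1 g2 g3 g4 g5 h0 (hK v hv h0) h1 h2 ((hcl _ (dc_pt hv).1 hd _).2 hu)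

end ropes

end Crest.Agent.R096.Hl_955
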