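import Crest.Agent.R096.Rop7_441
import Crest.Agent.R096.Lbp2_543
import Crest.Agent.R096.Csub8_487

/-!
# R096 (row 96), ROPES (helper441), part 8: the slice `X = univ`, results
-/

set_option autoImplicit false
set_option linter.unusedSectionVars false

open Set Relation Module

namespace Crest.Agent.R096.Rop_441

open Crest.Agent.R096.Brk1_582 Crest.Agent.R096.Brk2_582 Crest.Agent.R096.Brk3_582
  Crest.Agent.R096.Brk5_582 Crest.Agent.R096.Bsp_628 Crest.Agent.R096.Init_543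
  Crest.Agent.R096.Vb_965 Crest.Agent.R096.Msh_715 Crest.Agent.R096.St_147
  Crest.Agent.R096.Seq_213 Crest.Agent.R096.Lm_117 Crest.Agent.R096.Gl_422
  Crest.Agent.R096.SkB_662 Crest.Agent.R096.SkMv_362 Crest.Agent.R096.Cpo_642
  Crest.Agent.R096.Ce_537 Crest.Agent.R096.Agl5_543 Crest.Agent.R096.Ecm_446
  Crest.Agent.R096.Cp_298 Crest.Agent.R096.Kin_527 Crest.Agent.R096.Ac_117
open Crest.Agent.R096.SkC1_961 (E3 Hom3 FoamD)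
open Crest.Agent.R096.Mbf_337 (KJ sb)
open Crest.Agent.R096.Gia_537 (Kc Kc_sub Kc_compact Kc_disj Kc_exact)

section gen

variable {δ κ0 R c0 : ℝ} {La Om : Set E3} {ι : Type} {Φ : FoamD δ κ0 R c0 La}
  {T : Tiling Om ι} {f g : E3 → E3} {κ1 κ2 s₁ : ℝ} {X : Set Φ.F} {J0 J V : Φ.F → Set ι}
  {ct : Φ.F → ι}
  {A : Φ.F → E3 ≃ᵃ[ℝ] E3} {lam : Φ.F → ℝ} {z : Φ.F → E3} {θ : Φ.F → E3 → E3} {φ : Φ.F → E3 → ℝ}
  {ct' : Φ.F → ι} {r₀ : Φ.F → ℝ}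

/-- in the core `c` the function of `c` is zero -/
theorem va_core (hLa : IsOpen La) (hR : InitR Φ T f g J0 ct' r₀)
    (hC : Mbf_337.Cores Φ T f κ1 κ2 X J0 J V ct A lam z θ φ) {c : Φ.F} {x : E3}
    (hx : x ∈ Kc T J c) : va (Pc Φ.F) (bc (F := Φ.F)) (RF Φ r₀) f c x = 0 ∧
      RF Φ r₀ (f x) ∈ Pc Φ.F c := by
  have h := Nr_527.V_inside hC (Gia_537.KJ_mono (Nr_527.J_sub hC c) hx)
  have h1 : f x ∈ Pc Φ.F c := Bx.mem_set.2 fun k => ⟨(h k).1.le, (h k).2.le⟩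
  have h2 := (retF Φ hLa hR.pos hR.le_one).cell c h1
  exact ⟨((foam4 Φ hLa).sc_eq_zero ((foam4 Φ hLa).sub c h2)).2 h2, h2⟩

/-- in the core `c` the function of a brick which does not touch `c` is one -/
theorem va_core_one (hLa : IsOpen La) (hR : InitR Φ T f g J0 ct' r₀)
    (hC : Mbf_337.Cores Φ T f κ1 κ2 X J0 J V ct A lam z θ φ) {a c : Φ.F}
    (hac : ¬ (Pc Φ.F c ∩ Pc Φ.F a).Nonempty) {x : E3} (hx : x ∈ Kc T J c) :
    va (Pc Φ.F) (bc (F := Φ.F)) (RF Φ r₀) f a x = 1 :=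
  Lbp_543.sc_one_of_not_touch (foam4 Φ hLa) hac (va_core hLa hR hC hx).2

/-- over a common point of the bricks `c`, `a` there is a point of the frontier of the core `c` with
small level -/
theorem exists_touch (hLa : IsOpen La) (hN : Num δ κ0 R c0 κ2 κ1 s₁)
    (hR : InitR Φ T f g J0 ct' r₀)
    (hC : Mbf_337.Cores Φ T f κ1 κ2 X J0 J V ct A lam z θ φ) {a c : Φ.F} (hne : c ≠ a)
    (hac : (Pc Φ.F c ∩ Pc Φ.F a).Nonempty) :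
    ∃ x ∈ frontier (Kc T J c),
      va (Pc Φ.F) (bc (F := Φ.F)) (RF Φ r₀) f a x ≤ θN δ κ0 R c0 κ2 κ1 := by
  obtain ⟨y, hyc, hya⟩ := hac
  have hCT := corT hLa hN.hδ hN.hR hN.hκ0 hN.hκ1 hN.hκ2 hN.hκ hN.hκn hC hR
  have F := foam4 Φ hLa
  have hyL : y ∈ La := F.sub c hyc
  have hfr : y ∈ frontier (Pc Φ.F c) := by
    rw [frontier_cell F, Lset_zero F]
    exact ⟨hyc, a, hne.symm, hya⟩
  refine ⟨tauC hC c y, hCT.taum c hfr, ?_⟩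
  have h1 := hCT.close c _ (hCT.taum c hfr) a
  rw [hCT.ri c y hfr, (F.sc_eq_zero hyL).2 hya, abs_le] at h1
  have := hN.hκ1
  unfold θN
  linarith [h1.1]

end gen

section slice

variable {δ κ0 R c0 : ℝ} {La Om : Set E3} {ι : Type} {Φ : FoamD δ κ0 R c0 La}
  {T : Tiling Om ι} {f g : E3 → E3} [Nonempty T.Cell] {J0 : Φ.F → Set ι} {ct' : Φ.F → ι}
  {r₀ : Φ.F → ℝ} {κ1 s₁ : ℝ} {hLa : IsOpen La} {hR : InitR Φ T f g J0 ct' r₀}
  {hM : Mesh0 T (Pc Φ.F) (bc (F := Φ.F)) (RF Φ r₀) f (KorJ Φ J0) κ1} {h1 : κ1 < s₁}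
  {h2 : κ1 < 1} {ct : Φ.F → ι} {κ : Φ.F → ℕ} {L : Φ.F → Finset ℝ} [Nonempty (JJ Φ L)]
  {hG : GF Φ r₀ T f L} {D : Φ.F → Set E3} {bp : JJ Φ L → E3} {lam₀ : JJ Φ L → E3 → ZMod 2}
  {v₀ v₁ : Φ.F → E3} {far₀ : JJ Φ L → Set E3} {kap : Φ.F → ℕ}
  {s : GSt (meshC T fr3) (fam' (fun j : JJ Φ L => j.1) (Rk κ kap))}
  {far : Nm' (fun j : JJ Φ L => j.1) (Rk κ kap) → Set E3} {β : E3 → E3}
  {lam : Nm' (fun j : JJ Φ L => j.1) (Rk κ kap) → Qx T ct → ZMod 2}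
  {κ2 : ℝ} {J V : Φ.F → Set ι} {A : Φ.F → E3 ≃ᵃ[ℝ] E3} {lm : Φ.F → ℝ} {z : Φ.F → E3}
  {θ : Φ.F → E3 → E3} {φ : Φ.F → E3 → ℝ}

/-- points of dimension `≤ 2` are outside the open cores, if all cores are exact -/
theorem out_x (hC : Mbf_337.Cores Φ T f κ1 κ2 univ J0 J V ct A lm z θ φ) {x : E3}
    (hd : T.dim x ≤ 2) (c : Φ.F) : x ∉ interior (Kc T J c) := by
  rw [Kc_exact hC (mem_univ c), Csub_487.interior_tile]
  intro h
  have := dim_I h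
  have h3 : finrank ℝ E3 = 3 := by simp
  rw [h3] at this
  omega

theorem hct_x (hC : Mbf_337.Cores Φ T f κ1 κ2 univ J0 J V ct A lm z θ φ) (a : Φ.F) :
    ct a ∈ KorJ Φ J0 := ⟨a, by rw [(hC.one a (mem_univ a)).1]; rfl⟩

/-- the cell of a vertex -/
theorem sv_vx {v : E3} (hv : v ∈ Om) (hd : T.dim v = 0) :
    (sv (notTile T ct) (px_ne T ct) (edC T v)).1 = edC T v ∧ (edC T v).dim = 0 ∧
      (edC T v).set = {v} := by
  have h0 := edC_vertex hv hd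
  refine ⟨?_, h0.1, ?_⟩
  · rw [sv_eq (px_two T ct _ (by rw [h0.1]; norm_num))]
  · rw [edC_set hv, T.cc_eq_singleton (T.dim_eq_zero_iff.1 hd)]

theorem sv_le (hC : Mbf_337.Cores Φ T f κ1 κ2 univ J0 J V ct A lm z θ φ) {v : E3} (hv : v ∈ Om)
    (hd : T.dim v = 0) {q : ι} (hq : q ∉ KorJ Φ J0) (hvq : v ∈ P (T.H q)) :
    sv (notTile T ct) (px_ne T ct) (edC T v) ≤ tcx T ct q := by
  rw [le_tcx (hct_x hC) hq, (sv_vx (ct := ct) hv hd).1, (sv_vx (ct := ct) hv hd).2.2]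
  exact singleton_subset_iff.2 hvq

/-- **deep vertices** -/
theorem deep_x (hLa : IsOpen La) (hN : Num δ κ0 R c0 κ2 κ1 s₁) (hR : InitR Φ T f g J0 ct' r₀)
    (hC : Mbf_337.Cores Φ T f κ1 κ2 univ J0 J V ct A lm z θ φ) {a : Φ.F} {v : E3} (hv : v ∈ Om)
    (hd : T.dim v = 0) {q : ι} (hq : q ∉ KorJ Φ J0) (hvq : v ∈ P (T.H q)) {x : E3}
    (hx : x ∈ P (T.H q)) (hxd : T.dim x ≤ 2)
    (hl : va (Pc Φ.F) (bc (F := Φ.F)) (RF Φ r₀) f a x ≤ θN δ κ0 R c0 κ2 κ1) :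
    Deep Om La (Pc Φ.F) (bc (F := Φ.F)) (RF Φ r₀) f (Kc T J) (tauC hC) (ηN δ κ0 R c0 κ2 κ1)
      (θN δ κ0 R c0 κ2 κ1) (fun c : Qx T ct => c.1.dim) (fun c => c.1.set) (KorJ Φ J0)ᶜ
      (tcx T ct) a (sv (notTile T ct) (px_ne T ct) (edC T v)) := by
  refine deep_of_zero hR.hm (foam4 Φ hLa) (retF Φ hLa hR.pos hR.le_one)
    (corT hLa hN.hδ hN.hR hN.hκ0 hN.hκ1 hN.hκ2 hN.hκ hN.hκn hC hR) (q := q) hq
    (sv_le hC hv hd hq hvq) ?_ (x := x) ?_ (T.sub q hx) (fun c => out_x hC hxd c) hl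
  · show (sv (notTile T ct) (px_ne T ct) (edC T v)).1.dim = 0
    rw [(sv_vx (ct := ct) hv hd).1]; exact (sv_vx (ct := ct) hv hd).2.1
  · show x ∈ (tcx T ct q).1.set
    rw [tcx_eq (ne_of_notKor (hct_x hC) hq), tcell_set]
    exact hx

theorem exists_tile_x (hLa : IsOpen La)
    (hC : Mbf_337.Cores Φ T f κ1 κ2 univ J0 J V ct A lm z θ φ) {x : E3} (hx : x ∈ Om)
    (hd : T.dim x ≤ 2) : ∃ q, q ∉ KorJ Φ J0 ∧ x ∈ P (T.H q) :=
  exists_out T (kor_sub0 hC) (fun _ _ h => Kc_disj hLa hC h) hx fun c => out_x hC hd c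

theorem hS_x (hLa : IsOpen La) (a c : Φ.F) (h : c ≠ a) :
    IsPreconnected (Lset La (Pc Φ.F) (bc (F := Φ.F)) c 0 \ Pc Φ.F a) := preconn_brick Φ hLa h

/-- **zero ropes over `Lx`** -/
theorem zero_x (hN : Num δ κ0 R c0 κ2 κ1 s₁)
    (hC : Mbf_337.Cores Φ T f κ1 κ2 univ J0 J V ct A lm z θ φ)
    {μ : ℝ} (hμ : s₁ ≤ μ) (hm : ∀ c, ∀ t ∈ L c, μ ≤ t ∧ t ≤ 1 - μ) {a : Φ.F} {v v' : Qx T ct}
    (hv : Deep Om La (Pc Φ.F) (bc (F := Φ.F)) (RF Φ r₀) f (Kc T J) (tauC hC)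
      (ηN δ κ0 R c0 κ2 κ1) (θN δ κ0 R c0 κ2 κ1) (fun c : Qx T ct => c.1.dim) (fun c => c.1.set)
      (KorJ Φ J0)ᶜ (tcx T ct) a v)
    (hv' : Deep Om La (Pc Φ.F) (bc (F := Φ.F)) (RF Φ r₀) f (Kc T J) (tauC hC)
      (ηN δ κ0 R c0 κ2 κ1) (θN δ κ0 R c0 κ2 κ1) (fun c : Qx T ct => c.1.dim) (fun c => c.1.set)
      (KorJ Φ J0)ᶜ (tcx T ct) a v') :
    ReflTransGen (Ed (Lx T ct) (Fr0 (Lx T ct) (qdF hLa hR hM h1 h2) (st0 hG bp) a)) v v' :=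
  zero_path (cplxX T ct) (env_x (hct_x hC)) (kor_sub0 hC) hR.hm (foam4 Φ hLa)
    (retF Φ hLa hR.pos hR.le_one)
    (corT hLa hN.hδ hN.hR hN.hκ0 hN.hκ1 hN.hκ2 hN.hκ hN.hκn hC hR) hM (by simp) hN.hθ hN.h00 le_rfl
    hN.hκ1 hN.hs hN.hs1 (levOn_x hLa hR (hct_x hC) hμ hm) hv hv'

/-- **far ropes over `Lx`** -/
theorem far_x (hLc : IsPreconnected La) (hN : Num δ κ0 R c0 κ2 κ1 s₁)
    (hC : Mbf_337.Cores Φ T f κ1 κ2 univ J0 J V ct A lm z θ φ)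
    {μ : ℝ} (hμ : s₁ ≤ μ) (hm : ∀ c, ∀ t ∈ L c, μ ≤ t ∧ t ≤ 1 - μ) {a : Φ.F} {v v' : E3}
    (hv : v ∈ Om) (hd : T.dim v = 0)
    (hl : 1 - θN δ κ0 R c0 κ2 κ1 ≤ va (Pc Φ.F) (bc (F := Φ.F)) (RF Φ r₀) f a v)
    (hv' : v' ∈ Om) (hd' : T.dim v' = 0)
    (hl' : 1 - θN δ κ0 R c0 κ2 κ1 ≤ va (Pc Φ.F) (bc (F := Φ.F)) (RF Φ r₀) f a v') :
    ReflTransGen (Ed (Lx T ct) (Fr0 (Lx T ct) (qdF hLa hR hM h1 h2) (st0 hG bp) a))
      (sv (notTile T ct) (px_ne T ct) (edC T v)) (sv (notTile T ct) (px_ne T ct) (edC T v')) := by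
  obtain ⟨q, hq, hvq⟩ := exists_tile_x hLa hC hv (by omega)
  obtain ⟨q', hq', hvq'⟩ := exists_tile_x hLa hC hv' (by omega)
  have e : ∀ {q : ι}, q ∉ KorJ Φ J0 → ∀ {x : E3}, x ∈ P (T.H q) → x ∈ (tcx T ct q).1.set :=
    fun {q} hq {x} hx => by
      rw [tcx_eq (ne_of_notKor (hct_x hC) hq), tcell_set]; exact hx
  have e0 : ∀ {v : E3}, v ∈ Om → T.dim v = 0 →
      (sv (notTile T ct) (px_ne T ct) (edC T v)).1.dim = 0 := fun {v} hv hd => by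
    rw [(sv_vx (ct := ct) hv hd).1]; exact (sv_vx (ct := ct) hv hd).2.1
  exact far_path (cplxX T ct) (env_x (hct_x hC)) (kor_sub0 hC) hR.hm (foam4 Φ hLa)
    (retF Φ hLa hR.pos hR.le_one)
    (corT hLa hN.hδ hN.hR hN.hκ0 hN.hκ1 hN.hκ2 hN.hκ hN.hκn hC hR) hM (by simp) hN.hθ hN.h00 le_rfl
    hN.hκ1 hN.hs hN.hs1 hLc (fun c h => hS_x hLa a c h) (levOn_x hLa hR (hct_x hC) hμ hm)
    hv hl hv' hl' (fun c => out_x hC (by omega) c) (q := q) hq (sv_le hC hv hd hq hvq) (e0 hv hd)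
    (Or.inl ⟨fun c => out_x hC (by omega) c, e hq hvq⟩) (q' := q') hq' (sv_le hC hv' hd' hq' hvq')
    (e0 hv' hd') (e hq' hvq')

theorem fr0_frE {Q : Type} [PartialOrder Q] {dim : Q → ℕ} {ι' Φ' W C K Jn : Type}
    {M : MeshC ι' Φ' W} {Lm : LM M Q dim} {Qd : Quads ι' C K} {fam : Jn → C} {s₀ : GSt M fam}
    {a : C} {v v' : Q} (h : ReflTransGen (Ed Lm (Fr0 Lm Qd s₀ a)) v v') :
    ReflTransGen (Ed Lm {e | FrE Lm Qd a e}) v v' := path_mono (fun _ he => he.1) h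

/-- **446's `hpath`**: a frozen path from `v₀ a` to a vertex of the core tile `ct c` -/
theorem hpath_x (hLc : IsPreconnected La) (hN : Num δ κ0 R c0 κ2 κ1 s₁)
    (hC : Mbf_337.Cores Φ T f κ1 κ2 univ J0 J V ct A lm z θ φ)
    {μ : ℝ} (hμ : s₁ ≤ μ) (hm : ∀ c, ∀ t ∈ L c, μ ≤ t ∧ t ≤ 1 - μ)
    (hI : InitS hLa hR hM h1 h2 hG D bp lam₀ v₀ v₁)
    (hi : StIx hLa hR hM h1 h2 ct κ hG D bp lam₀ v₀ v₁ far₀) (c a : Φ.F)
    (ha : ∃ j : JJ Φ L, j.1 = a) :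
    ∃ v ∈ Dk (ct c) (fun c : Qx T ct => c.1), v.1.dim = 0 ∧
      ReflTransGen (Ed (Lx T ct) {e | FrE (Lx T ct) (qdF hLa hR hM h1 h2) a e})
        (sv (notTile T ct) (px_ne T ct) (edC T (v₀ a))) v := by
  obtain ⟨j, rfl⟩ := ha
  have hmem : ∀ {v : E3}, v ∈ P (T.H (ct c)) → T.dim v = 0 →
      sv (notTile T ct) (px_ne T ct) (edC T v) ∈ Dk (ct c) (fun c : Qx T ct => c.1) ∧
      (sv (notTile T ct) (px_ne T ct) (edC T v)).1.dim = 0 := by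
    intro v hv hd
    have hvO := T.sub _ hv
    obtain ⟨e1, e2, e3⟩ := sv_vx (ct := ct) hvO hd
    refine ⟨⟨?_, ?_⟩, ?_⟩
    · show (sv (notTile T ct) (px_ne T ct) (edC T v)).1.set ⊆ _
      rw [e1, e3]; exact singleton_subset_iff.2 hv
    · show (sv (notTile T ct) (px_ne T ct) (edC T v)).1.dim ≤ 2
      rw [e1, e2]; norm_num
    · rw [e1]; exact e2
  have hdeep0 : Deep Om La (Pc Φ.F) (bc (F := Φ.F)) (RF Φ r₀) f (Kc T J) (tauC hC)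
      (ηN δ κ0 R c0 κ2 κ1) (θN δ κ0 R c0 κ2 κ1) (fun c : Qx T ct => c.1.dim) (fun c => c.1.set)
      (KorJ Φ J0)ᶜ (tcx T ct) j.1 (sv (notTile T ct) (px_ne T ct) (edC T (v₀ j.1))) := by
    obtain ⟨b1, b2, b3⟩ := hI.deep j.1
    obtain ⟨q, hq, hvq⟩ := exists_tile_x hLa hC b1 (by omega)
    refine deep_x hLa hN hR hC b1 b2 hq hvq hvq (by omega) ?_
    have h4 : va (Pc Φ.F) (bc (F := Φ.F)) (RF Φ r₀) f j.1 (v₀ j.1) = _ :=
      hR.v_eq' Φ hLa b1 (by omega) j.1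
    rw [h4]
    have := hN.h00
    unfold θN
    linarith
  have hKc : Kc T J c = P (T.H (ct c)) := Kc_exact hC (mem_univ c)
  -- a point of the frontier of the core with small level
  have hzero : ∀ x ∈ P (T.H (ct c)), T.dim x ≤ 2 →
      va (Pc Φ.F) (bc (F := Φ.F)) (RF Φ r₀) f j.1 x ≤ θN δ κ0 R c0 κ2 κ1 →
      ∃ v ∈ Dk (ct c) (fun c : Qx T ct => c.1), v.1.dim = 0 ∧
        ReflTransGen (Ed (Lx T ct) {e | FrE (Lx T ct) (qdF hLa hR hM h1 h2) j.1 e})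
          (sv (notTile T ct) (px_ne T ct) (edC T (v₀ j.1))) v := by
    intro x hx hxd hxl
    have hxO := T.sub _ hx
    obtain ⟨v, hv, hd⟩ := exists_vertex T hxO
    have hvc : v ∈ P (T.H (ct c)) := T.cc_sub_tile hx hv
    obtain ⟨q, hq, hxq⟩ := exists_tile_x hLa hC hxO hxd
    have hvq : v ∈ P (T.H q) := T.cc_sub_tile hxq hv
    obtain ⟨m1, m2⟩ := hmem hvc hd
    exact ⟨_, m1, m2, fr0_frE (zero_x (hLa := hLa) (hR := hR) (hM := hM) (h1 := h1) (h2 := h2)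
      (hG := hG) (bp := bp) hN hC hμ hm hdeep0
      (deep_x hLa hN hR hC (T.sub _ hvc) hd hq hvq hxq hxd hxl))⟩
  -- a vertex of the core tile
  obtain ⟨y, hy⟩ := T.ne (ct c)
  obtain ⟨v, hv, hd⟩ := exists_vertex T (T.sub _ (I_sub_P _ hy))
  have hvc : v ∈ P (T.H (ct c)) := T.cc_sub_tile (I_sub_P _ hy) hv
  by_cases hjc : c = j.1
  · refine hzero v hvc (by omega) ?_
    subst hjc
    rw [(va_core hLa hR hC (by rw [hKc]; exact hvc)).1]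
    exact hN.hθ
  by_cases hac : (Pc Φ.F c ∩ Pc Φ.F j.1).Nonempty
  · obtain ⟨x, hx, hxl⟩ := exists_touch hLa hN hR hC hjc hac
    rw [hKc] at hx
    have hxP : x ∈ P (T.H (ct c)) := (T.cpt _).isClosed.frontier_subset hx
    refine hzero x hxP ?_ hxl
    have hxO := T.sub _ hxP
    have h3 : finrank ℝ E3 = 3 := by simp
    by_contra hcon
    have hle : T.dim x ≤ finrank ℝ E3 := Submodule.finrank_le _
    have hV : T.V x = ⊤ := by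
      refine Submodule.eq_top_of_finrank_eq ?_
      have : T.dim x = 3 := by omega
      rw [h3]; exact this
    obtain ⟨i, hi⟩ := (T.V_eq_top_iff hxO).1 hV
    by_cases hic : i = ct c
    · subst hic
      rw [← Csub_487.interior_tile] at hi
      exact hx.2 hi
    · exact not_mem_I (T := T) (fun e => hic e.symm) hxP hi
  · obtain ⟨m1, m2⟩ := hmem hvc hd
    have hone : va (Pc Φ.F) (bc (F := Φ.F)) (RF Φ r₀) f j.1 v = 1 :=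
      va_core_one hLa hR hC hac (by rw [hKc]; exact hvc)
    obtain ⟨b1, b2, b3⟩ := hI.far j.1
    have h4 : va (Pc Φ.F) (bc (F := Φ.F)) (RF Φ r₀) f j.1 (v₁ j.1) = _ :=
      hR.v_eq' Φ hLa b1 (by omega) j.1
    have hθ := hN.hθ
    have h00 := hN.h00
    refine ⟨_, m1, m2, (hi.lab.rope j).trans (fr0_frE (far_x (hLa := hLa) (hR := hR) (hM := hM)
      (h1 := h1) (h2 := h2) (hG := hG) (bp := bp) hLc hN hC hμ hm b1 b2 ?_
      (T.sub _ hvc) hd ?_))⟩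
    · rw [h4]; unfold θN; linarith
    · rw [hone]; linarith

theorem deep0_x (hN : Num δ κ0 R c0 κ2 κ1 s₁)
    (hC : Mbf_337.Cores Φ T f κ1 κ2 univ J0 J V ct A lm z θ φ)
    (hI : InitS hLa hR hM h1 h2 hG D bp lam₀ v₀ v₁) (a : Φ.F) :
    Deep Om La (Pc Φ.F) (bc (F := Φ.F)) (RF Φ r₀) f (Kc T J) (tauC hC)
      (ηN δ κ0 R c0 κ2 κ1) (θN δ κ0 R c0 κ2 κ1) (fun c : Qx T ct => c.1.dim) (fun c => c.1.set)
      (KorJ Φ J0)ᶜ (tcx T ct) a (sv (notTile T ct) (px_ne T ct) (edC T (v₀ a))) := by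
  obtain ⟨b1, b2, b3⟩ := hI.deep a
  obtain ⟨q, hq, hvq⟩ := exists_tile_x hLa hC b1 (by omega)
  refine deep_x hLa hN hR hC b1 b2 hq hvq hvq (by omega) ?_
  have h4 : va (Pc Φ.F) (bc (F := Φ.F)) (RF Φ r₀) f a (v₀ a) = _ :=
    hR.v_eq' Φ hLa b1 (by omega) a
  rw [h4]
  have := hN.h00
  unfold θN
  linarith

/-- every closed cell of `Lx` lies in a tile outside the cores -/
theorem cell_x (hLa : IsOpen La) (hC : Mbf_337.Cores Φ T f κ1 κ2 univ J0 J V ct A lm z θ φ)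
    (q : Qx T ct) : ∃ i ∈ (KorJ Φ J0)ᶜ, q ≤ tcx T ct i := by
  have hq := q.1.pt_mem
  have hout : ∀ c : Φ.F, q.1.pt ∉ interior (Kc T J c) := by
    intro c
    rw [Kc_exact hC (mem_univ c), Csub_487.interior_tile]
    intro hI
    refine q.2 c ?_
    rw [q.1.set_eq, T.cc_eq_tile hI]
  obtain ⟨i, hi, hqi⟩ := exists_out T (kor_sub0 hC) (fun _ _ h => Kc_disj hLa hC h) hq hout
  refine ⟨i, hi, (le_tcx (hct_x hC) hi).2 ?_⟩
  rw [q.1.set_eq]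
  exact T.cc_sub_tile hqi

/-- **(K4) FOR `X = univ`** -/
theorem meshExA_x (hLc : IsPreconnected La) (hN : Num δ κ0 R c0 κ2 κ1 s₁)
    (hC : Mbf_337.Cores Φ T f κ1 κ2 univ J0 J V ct A lm z θ φ)
    {μ : ℝ} (hμ : s₁ ≤ μ) (hm : ∀ c, ∀ t ∈ L c, μ ≤ t ∧ t ≤ 1 - μ)
    (hI : InitS hLa hR hM h1 h2 hG D bp lam₀ v₀ v₁)
    (hi : StIx hLa hR hM h1 h2 ct κ hG D bp lam₀ v₀ v₁ far₀)
    (h : StOx hLa hR hM h1 h2 ct κ hG D bp lam₀ v₀ v₁ far₀ kap s far β lam) :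
    MeshExA Φ T f J0 h.cmb (fun c : Qx T ct => c.1.set) univ := by
  refine meshExA_env h hi (cplxX T ct) (env_x (hct_x hC)) (kor_sub0 hC) hR.hm (foam4 Φ hLa)
    (retF Φ hLa hR.pos hR.le_one)
    (corT hLa hN.hδ hN.hR hN.hκ0 hN.hκ1 hN.hκ2 hN.hκ hN.hκn hC hR) hM hN.hθ hN.h00 le_rfl
    hN.hκ1 hN.hs hN.hs1 (levOn_x hLa hR (hct_x hC) hμ hm) hLc (fun a c h => hS_x hLa a c h)
    ?_ (fun j => deep0_x hN hC hI j.1) (fun j => ?_) (fun q _ => cell_x hLa hC q)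
    (fun i hi c hc => hi ⟨c, hc⟩) ?_
  · intro i hi x hx c
    have hx' : x ∈ P (T.H i) := by
      have h4 : x ∈ (tcx T ct i).1.set := hx
      rwa [tcx_eq (ne_of_notKor (hct_x hC) hi), tcell_set] at h4
    have hJ : i ∉ KorJ Φ J := by
      rintro ⟨c', hc'⟩
      refine hi ⟨c', ?_⟩
      rw [(hC.one c' (mem_univ c')).1]
      rwa [(hC.one c' (mem_univ c')).2.1] at hc'
    exact int_J hJ hx' c
  · obtain ⟨b1, b2, b3⟩ := hI.far j.1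
    obtain ⟨q, hq, hvq⟩ := exists_tile_x hLa hC b1 (by omega)
    have h4 : va (Pc Φ.F) (bc (F := Φ.F)) (RF Φ r₀) f j.1 (v₁ j.1) = _ :=
      hR.v_eq' Φ hLa b1 (by omega) j.1
    refine ⟨_, hi.lab.far j, ?_, q, hq, sv_le hC b1 b2 hq hvq, v₁ j.1, ?_, ?_⟩
    · show (sv (notTile T ct) (px_ne T ct) (edC T (v₁ j.1))).1.dim = 0
      rw [(sv_vx (ct := ct) b1 b2).1]; exact (sv_vx (ct := ct) b1 b2).2.1
    · show v₁ j.1 ∈ (tcx T ct q).1.set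
      rw [tcx_eq (ne_of_notKor (hct_x hC) hq), tcell_set]; exact hvq
    · rw [h4]
      have := hN.h00
      unfold θN
      linarith
  · intro i hi x hx
    exact RF_Psi hLa hR (T.sub _ hx) fun c => notMem_hole' hR hi hx c

end slice

end Crest.Agent.R096.Rop_441
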