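import Crest.Agent.R096.Hl3_955
import Crest.Agent.R096.Rop8_441

/-!
# R096 (row 96), BASE-R, leaf (d) of 446 (helper955), part 4: **`hl` for the slice `X = univ`** (362's
`Lx`), and the closeness of `va` and the exact coordinates at the points of an exact core.
-/

set_option autoImplicit false
set_option linter.unusedSectionVars false
set_option linter.unusedVariables false
set_option linter.style.longLine false

open Set Relation Module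

namespace Crest.Agent.R096.Hl_955

open Crest.Agent.R096.Brk1_582 Crest.Agent.R096.Brk2_582 Crest.Agent.R096.Brk3_582
  Crest.Agent.R096.Brk5_582 Crest.Agent.R096.Bsp_628 Crest.Agent.R096.Init_543
  Crest.Agent.R096.Vb_965 Crest.Agent.R096.Msh_715 Crest.Agent.R096.St_147
  Crest.Agent.R096.Seq_213 Crest.Agent.R096.Lm_117 Crest.Agent.R096.Gl_422
  Crest.Agent.R096.SkB_662 Crest.Agent.R096.SkMv_362 Crest.Agent.R096.Cpo_642
  Crest.Agent.R096.Ce_537 Crest.Agent.R096.Agl5_543 Crest.Agent.R096.Ecm_446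
  Crest.Agent.R096.Cp_298 Crest.Agent.R096.Kin_527 Crest.Agent.R096.Ac_117
  Crest.Agent.R096.Rop_441
open Crest.Agent.R096.SkC1_961 (E3 Hom3 FoamD th)
open Crest.Agent.R096.Mbf_337 (KJ sb)
open Crest.Agent.R096.Gia_537 (Kc Kc_sub Kc_compact Kc_disj Kc_exact)
open Crest.Agent.R096.Exa_560 (Cn Cn_nonneg)

section gen

variable {δ κ0 R c0 : ℝ} {La Om : Set E3} {ι : Type} {Φ : FoamD δ κ0 R c0 La}
  {T : Tiling Om ι} {f g : E3 → E3} {κ1 κ2 s₁ : ℝ} {J0 : Φ.F → Set ι}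
  {ct' : Φ.F → ι} {r₀ : Φ.F → ℝ}

/-- **CLOSE**: at a vertex of the exact core tile `va` is close to the exact coordinates -/
theorem va_close (hLa : IsOpen La) (hN : Num δ κ0 R c0 κ2 κ1 s₁) (hR : InitR Φ T f g J0 ct' r₀)
    {c : Φ.F} {i : ι} {A : E3 ≃ᵃ[ℝ] E3} {lam : ℝ} {z : E3}
    (hE : Mbf_337.Exact Φ T f κ1 κ2 c i A lam z) {x : E3} (hx : x ∈ P (T.H i)) (hd : T.dim x ≤ 2)
    (a : Φ.F) : |va (Pc Φ.F) (bc (F := Φ.F)) (RF Φ r₀) f a x - sb Φ (th A lam z x) a| ≤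
      η0F δ κ0 R c0 κ2 κ1 := by
  have h1 : va (Pc Φ.F) (bc (F := Φ.F)) (RF Φ r₀) f a x = Φ.lev a (f x) :=
    hR.v_eq' Φ hLa (T.sub _ hx) hd a
  rw [h1]
  refine (Hlf_847.close_lev hE hLa hN.hδ hN.hR hN.hκ1 hN.hκ2 hN.hκ hx (not_I_of_dim hx hd) a).trans ?_
  have h2 := mul_nonneg (Cn_nonneg hN.hδ hN.hR) hN.hκ1
  unfold η0F
  linarith

/-- the two extreme cases -/
theorem va_ends (hLa : IsOpen La) (hN : Num δ κ0 R c0 κ2 κ1 s₁) (hR : InitR Φ T f g J0 ct' r₀)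
    {c : Φ.F} {i : ι} {A : E3 ≃ᵃ[ℝ] E3} {lam : ℝ} {z : E3}
    (hE : Mbf_337.Exact Φ T f κ1 κ2 c i A lam z) {M : ℕ} (hM : 0 < M) {x : E3}
    (hx : x ∈ P (T.H i)) (hd : T.dim x ≤ 2) (a : Φ.F) :
    (Ecm_446.U Φ A lam z M x a = 0 →
      va (Pc Φ.F) (bc (F := Φ.F)) (RF Φ r₀) f a x ≤ θN δ κ0 R c0 κ2 κ1) ∧
    (Ecm_446.U Φ A lam z M x a = M →
      1 - θN δ κ0 R c0 κ2 κ1 ≤ va (Pc Φ.F) (bc (F := Φ.F)) (RF Φ r₀) f a x) := by
  have hM' : (0 : ℝ) < M := by exact_mod_cast hM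
  have h1 := abs_le.1 (va_close hLa hN hR hE hx hd a)
  have h2 := hN.hκ1
  unfold Ecm_446.U θN
  constructor
  · intro h
    have h3 : sb Φ (th A lam z x) a = 0 := by
      rcases mul_eq_zero.1 h with h | h
      · exact absurd h hM'.ne'
      · exact h
    rw [h3] at h1
    linarith [h1.2]
  · intro h
    have h3 : sb Φ (th A lam z x) a = 1 := by
      have h4 : (M : ℝ) * sb Φ (th A lam z x) a = M * 1 := by rw [mul_one]; exact h
      exact mul_left_cancel₀ hM'.ne' h4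
    rw [h3] at h1
    linarith [h1.1]

end gen

section slice

variable {δ κ0 R c0 : ℝ} {La Om : Set E3} {ι : Type} {Φ : FoamD δ κ0 R c0 La}
  {T : Tiling Om ι} {f g : E3 → E3} [Nonempty T.Cell] {J0 : Φ.F → Set ι} {ct' : Φ.F → ι}
  {r₀ : Φ.F → ℝ} {κ1 s₁ : ℝ} {hLa : IsOpen La} {hR : InitR Φ T f g J0 ct' r₀}
  {hM : Mesh0 T (Pc Φ.F) (bc (F := Φ.F)) (RF Φ r₀) f (KorJ Φ J0) κ1} {h1 : κ1 < s₁}
  {h2 : κ1 < 1} {ct : Φ.F → ι} {κ : Φ.F → ℕ} {L : Φ.F → Finset ℝ} [Nonempty (JJ Φ L)]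
  {hG : GF Φ r₀ T f L} {D : Φ.F → Set E3} {bp : JJ Φ L → E3} {lam₀ : JJ Φ L → E3 → ZMod 2}
  {v₀ v₁ : Φ.F → E3} {far₀ : JJ Φ L → Set E3}
  {κ2 : ℝ} {J V : Φ.F → Set ι} {A : Φ.F → E3 ≃ᵃ[ℝ] E3} {lm : Φ.F → ℝ} {z : Φ.F → E3}
  {θ : Φ.F → E3 → E3} {φ : Φ.F → E3 → ℝ} {M : Φ.F → ℕ}

/-- **`hl` FOR THE SLICE `X = univ`** (hypothesis of 362's `disc_x`) -/
theorem hl_x (hLc : IsPreconnected La) (hN : Num δ κ0 R c0 κ2 κ1 s₁)
    (hC : Mbf_337.Cores Φ T f κ1 κ2 univ J0 J V ct A lm z θ φ)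
    (hW : Mbf_337.Words Φ T f univ ct A lm z M L)
    {μ : ℝ} (hμ0 : 0 < μ) (hμ : s₁ ≤ μ) (hm : ∀ c, ∀ t ∈ L c, μ ≤ t ∧ t ≤ 1 - μ)
    (hI : InitS hLa hR hM h1 h2 hG D bp lam₀ v₀ v₁)
    (hi : StIx hLa hR hM h1 h2 ct κ hG D bp lam₀ v₀ v₁ far₀) (c : Φ.F) :
    ∀ v ∈ Dk (ct c) (fun c : Qx T ct => c.1), v.1.dim = 0 → ∀ j : JJ Φ L,
      lam₀ j v.1.pt = 1 ↔ Φ.lev j.1 (f v.1.pt) < j.2.1 := by
  have hE := hC.exact_ c (mem_univ c)
  have hg := grid_of_words hW (mem_univ c)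
  have hM0 := hg.1
  have hM' : (0 : ℝ) < M c := by exact_mod_cast hM0
  have F := foamΦ hLa Φ
  have hlab : ∀ j : JJ Φ L, GLab (Lx T ct) (gp (st0 hG bp) j) (fun v : Qx T ct => lam₀ j v.1.pt) :=
    hi.lab.lab
  -- the cell of a vertex of the core tile
  have hsv : ∀ v : Qx T ct, v.1.dim = 0 → sv (notTile T ct) (px_ne T ct) (edC T v.1.pt) = v := by
    intro v h0
    have hO : v.1.pt ∈ Om := v.1.pt_mem
    have h3 := sv_vx (ct := ct) hO h0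
    refine Subtype.ext (Tiling.Cell.ext ?_)
    rw [h3.1, h3.2.2, v.1.set_eq, T.cc_eq_singleton (T.dim_eq_zero_iff.1 h0)]
  refine hl_core (s := st0 hG bp) (fam := fun j : JJ Φ L => j.1)
    (X := fun j : JJ Φ L => {y | Φ.lev j.1 (f y) = j.2.1})
    (V := fun j : JJ Φ L => {y | Φ.lev j.1 (f y) < j.2.1})
    (τ := fun j : JJ Φ L => M c * j.2.1) (N := M c)
    (lam₀ := fun j v => lam₀ j v.1.pt) onT_x (full_x (ct c)) (cg_of_grid hLa hE hg)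
    (stp_of_grid hLa hE hg) (same_of_words hW (mem_univ c) hM0 fun j => j.2.2)
    (cw_of_words hW (mem_univ c) hM0 fun j => j.2.2).side ?_ ?_ ?_ hlab ?_ ?_
  · intro w hw _
    exact (st0_mem hLa hR hw).2.2
  · intro j
    have h3 := hm _ _ j.2.2
    refine ⟨mul_pos hM' (hμ0.trans_le h3.1), ?_⟩
    have h4 : j.2.1 < 1 := by linarith [h3.2]
    nlinarith
  · intro v hv _ a
    show (M c : ℝ) * sb Φ (th (A c) (lm c) (z c) v) a ≤ M c
    have := ((F.sc_mem_K (th_La hE hv)).1 a).2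
    have h4 : sb Φ (th (A c) (lm c) (z c) v) a ≤ 1 := this
    nlinarith
  · intro v hv h0 j hu
    have hP : v.1.pt ∈ P (T.H (ct c)) := (dc_pt hv).1
    have hd : T.dim v.1.pt = 0 := h0
    have hd2 : T.dim v.1.pt ≤ 2 := by omega
    obtain ⟨q, hq, hvq⟩ := exists_tile_x (J0 := J0) (J := J) hLa hC v.1.pt_mem (by omega)
    have h3 := zero_x (hLa := hLa) (hR := hR) (hM := hM) (h1 := h1) (h2 := h2) (hG := hG)
      (bp := bp) hN hC hμ hm (deep0_x hN hC hI j.1)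
      (deep_x hLa hN hR hC v.1.pt_mem hd hq hvq hvq (by omega)
        ((va_ends hLa hN hR hE hM0 hP hd2 j.1).1 hu))
    have h4 := lam_fr0 h3 rfl (hlab j)
    rw [hsv v h0] at h4
    rw [← h4]
    exact hi.lab.one j
  · intro v hv h0 j hu
    have hP : v.1.pt ∈ P (T.H (ct c)) := (dc_pt hv).1
    have hd : T.dim v.1.pt = 0 := h0
    have hd2 : T.dim v.1.pt ≤ 2 := by omega
    obtain ⟨b1, b2, b3⟩ := hI.far j.1
    have h5 : va (Pc Φ.F) (bc (F := Φ.F)) (RF Φ r₀) f j.1 (v₁ j.1) = _ :=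
      hR.v_eq' Φ hLa b1 (by omega) j.1
    have h00 := hN.h00
    have h3 := far_x (hLa := hLa) (hR := hR) (hM := hM) (h1 := h1) (h2 := h2) (hG := hG)
      (bp := bp) hLc hN hC hμ hm b1 b2 (by rw [h5]; unfold θN; linarith) v.1.pt_mem hd
      ((va_ends hLa hN hR hE hM0 hP hd2 j.1).2 hu)
    have h4 := lam_fr0 h3 rfl (hlab j)
    rw [hsv v h0] at h4
    rw [← h4]
    exact hi.lab.zero j

end slice

end Crest.Agent.R096.Hl_955
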