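import Crest.Agent.R096.Mo4_119

/-!
# C3-HM, part 1 (helper695, row 96 P5): homogeneous mollification of a conic map

`hm ν K ε x = ∫ K (x - ε ‖x‖ y) dν(y)`: elementary properties.
-/

set_option autoImplicit false

open MeasureTheory Metric Set Filter Topology
open scoped ENNReal NNReal ContDiff

namespace Crest.Agent.R096.Hm_695

open Crest.Agent.R096.Mo_119

variable {E : Type*} [NormedAddCommGroup E] [InnerProductSpace ℝ E] [FiniteDimensional ℝ E]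
  [MeasurableSpace E] [BorelSpace E]

/-- positively homogeneous of degree one -/
def Conic (H : E → E) : Prop := ∀ c : ℝ, 0 ≤ c → ∀ x, H (c • x) = c • H x

/-- homogeneous mollification -/
noncomputable def hm (ν : Measure E) (K : E → E) (ε : ℝ) (x : E) : E :=
  avg ν K (fun z => ε * ‖z‖) x

section elementary

omit [FiniteDimensional ℝ E] [MeasurableSpace E] [BorelSpace E] in
lemma Conic.zero {K : E → E} (hc : Conic K) : K 0 = 0 := by
  have := hc 0 le_rfl 0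
  simpa using this

omit [FiniteDimensional ℝ E] [MeasurableSpace E] [BorelSpace E] in
/-- an upper Lipschitz bound for conic maps may be checked at unit vectors -/
lemma Conic.lip {K : E → E} (hc : Conic K) {b : ℝ}
    (h : ∀ x y : E, ‖x‖ = 1 → ‖y‖ ≤ 1 → ‖K x - K y‖ ≤ b * ‖x - y‖) (x y : E) :
    ‖K x - K y‖ ≤ b * ‖x - y‖ := by
  wlog hxy : ‖y‖ ≤ ‖x‖ generalizing x y with H
  · have := H y x (le_of_not_ge hxy)
    rwa [norm_sub_rev, norm_sub_rev y x] at this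
  rcases eq_or_ne x 0 with hx | hx
  · subst hx
    have : y = 0 := by
      rw [norm_zero] at hxy; exact norm_le_zero_iff.1 hxy
    subst this; simp
  have hx0 : 0 < ‖x‖ := norm_pos_iff.2 hx
  have h1 := h (‖x‖⁻¹ • x) (‖x‖⁻¹ • y) (by simp [norm_smul, hx0.ne']) (by
    rw [norm_smul, norm_inv, norm_norm]
    rw [inv_mul_le_iff₀ hx0, mul_one]; exact hxy)
  rw [hc _ (inv_nonneg.2 hx0.le), hc _ (inv_nonneg.2 hx0.le), ← smul_sub, ← smul_sub, norm_smul,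
    norm_smul, norm_inv, norm_norm] at h1
  have h2 := mul_le_mul_of_nonneg_left h1 hx0.le
  calc ‖K x - K y‖ = ‖x‖ * (‖x‖⁻¹ * ‖K x - K y‖) := by field_simp
    _ ≤ ‖x‖ * (b * (‖x‖⁻¹ * ‖x - y‖)) := h2
    _ = b * ‖x - y‖ := by field_simp

omit [FiniteDimensional ℝ E] [MeasurableSpace E] [BorelSpace E] in
/-- a lower Lipschitz bound for conic maps may be checked at unit vectors -/
lemma Conic.lower {K : E → E} (hc : Conic K) {b : ℝ}
    (h : ∀ x y : E, ‖x‖ = 1 → ‖y‖ ≤ 1 → b * ‖x - y‖ ≤ ‖K x - K y‖) (x y : E) :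
    b * ‖x - y‖ ≤ ‖K x - K y‖ := by
  wlog hxy : ‖y‖ ≤ ‖x‖ generalizing x y with H
  · have := H y x (le_of_not_ge hxy)
    rwa [norm_sub_rev, norm_sub_rev (K y) (K x)] at this
  rcases eq_or_ne x 0 with hx | hx
  · subst hx
    have : y = 0 := by
      rw [norm_zero] at hxy; exact norm_le_zero_iff.1 hxy
    subst this; simp
  have hx0 : 0 < ‖x‖ := norm_pos_iff.2 hx
  have h1 := h (‖x‖⁻¹ • x) (‖x‖⁻¹ • y) (by simp [norm_smul, hx0.ne']) (by
    rw [norm_smul, norm_inv, norm_norm]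
    rw [inv_mul_le_iff₀ hx0, mul_one]; exact hxy)
  rw [hc _ (inv_nonneg.2 hx0.le), hc _ (inv_nonneg.2 hx0.le), ← smul_sub, ← smul_sub, norm_smul,
    norm_smul, norm_inv, norm_norm] at h1
  have h2 := mul_le_mul_of_nonneg_left h1 hx0.le
  calc b * ‖x - y‖ = ‖x‖ * (b * (‖x‖⁻¹ * ‖x - y‖)) := by field_simp
    _ ≤ ‖x‖ * (‖x‖⁻¹ * ‖K x - K y‖) := h2
    _ = ‖K x - K y‖ := by field_simp

variable {μ ν : Measure E}

omit [BorelSpace E] in
lemma hm_zero (hk : Ker μ ν) (K : E → E) : hm ν K 0 = K := by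
  have := hk.prob
  funext x
  simp [hm, avg]

omit [FiniteDimensional ℝ E] [BorelSpace E] in
lemma hm_conic {K : E → E} (hc : Conic K) (ε : ℝ) : Conic (hm ν K ε) := by
  intro c hc0 x
  simp only [hm, avg]
  rw [← integral_smul]
  congr 1
  funext y
  rw [← hc c hc0]
  congr 1
  rw [norm_smul, Real.norm_eq_abs, abs_of_nonneg hc0, smul_sub, smul_smul]
  congr 2
  ring

lemma hm_integrable (hk : Ker μ ν) {K : E → E} {L : ℝ≥0} (hL : LipschitzWith L K) (ε : ℝ)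
    (x : E) : Integrable (fun y : E => K (x - (ε * ‖x‖) • y)) ν := by
  have := hk.prob
  have hcont : Continuous (fun y : E => K (x - (ε * ‖x‖) • y)) := hL.continuous.comp (by fun_prop)
  refine Integrable.of_bound hcont.aestronglyMeasurable (‖K x‖ + L * |ε * ‖x‖|) ?_
  filter_upwards [hk.supp] with y hy
  have h1 := hL.norm_sub_le (x - (ε * ‖x‖) • y) x
  have h2 : ‖x - (ε * ‖x‖) • y - x‖ ≤ |ε * ‖x‖| := by
    rw [sub_sub_cancel_left, norm_neg, norm_smul, Real.norm_eq_abs]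
    exact mul_le_of_le_one_right (abs_nonneg _) hy
  calc ‖K (x - (ε * ‖x‖) • y)‖ = ‖K x + (K (x - (ε * ‖x‖) • y) - K x)‖ := by congr 1; abel
    _ ≤ ‖K x‖ + ‖K (x - (ε * ‖x‖) • y) - K x‖ := norm_add_le _ _
    _ ≤ ‖K x‖ + L * |ε * ‖x‖| := by gcongr; exact h1.trans (by gcongr)

lemma hm_lip (hk : Ker μ ν) {K : E → E} {L : ℝ≥0} (hL : LipschitzWith L K) (ε : ℝ) (x y : E) :
    ‖hm ν K ε x - hm ν K ε y‖ ≤ L * (1 + |ε|) * ‖x - y‖ := by
  have := hk.prob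
  have e : hm ν K ε x - hm ν K ε y
      = ∫ z, (K (x - (ε * ‖x‖) • z) - K (y - (ε * ‖y‖) • z)) ∂ν := by
    rw [integral_sub (hm_integrable hk hL ε x) (hm_integrable hk hL ε y)]; rfl
  rw [e]
  have hb : ∀ᵐ z ∂ν, ‖K (x - (ε * ‖x‖) • z) - K (y - (ε * ‖y‖) • z)‖
      ≤ L * (1 + |ε|) * ‖x - y‖ := by
    filter_upwards [hk.supp] with z hz
    refine (hL.norm_sub_le _ _).trans ?_
    rw [mul_assoc]
    refine mul_le_mul_of_nonneg_left ?_ L.coe_nonneg
    have e2 : x - (ε * ‖x‖) • z - (y - (ε * ‖y‖) • z) = (x - y) - (ε * (‖x‖ - ‖y‖)) • z := by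
      rw [mul_sub, sub_smul]; abel
    rw [e2]
    calc ‖(x - y) - (ε * (‖x‖ - ‖y‖)) • z‖ ≤ ‖x - y‖ + ‖(ε * (‖x‖ - ‖y‖)) • z‖ := norm_sub_le _ _
      _ = ‖x - y‖ + |ε| * |‖x‖ - ‖y‖| * ‖z‖ := by
          rw [norm_smul, Real.norm_eq_abs, abs_mul]
      _ ≤ ‖x - y‖ + |ε| * ‖x - y‖ * 1 := by
          gcongr
          exact abs_norm_sub_norm_le x y
      _ = (1 + |ε|) * ‖x - y‖ := by ring
  calc _ ≤ (L * (1 + |ε|) * ‖x - y‖) * ν.real univ := norm_integral_le_of_norm_le_const hb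
    _ = _ := by simp

lemma hm_lipt (hk : Ker μ ν) {K : E → E} {L : ℝ≥0} (hL : LipschitzWith L K) (ε ε' : ℝ) (x : E) :
    ‖hm ν K ε x - hm ν K ε' x‖ ≤ L * |ε - ε'| * ‖x‖ := by
  have := hk.prob
  have e : hm ν K ε x - hm ν K ε' x
      = ∫ z, (K (x - (ε * ‖x‖) • z) - K (x - (ε' * ‖x‖) • z)) ∂ν := by
    rw [integral_sub (hm_integrable hk hL ε x) (hm_integrable hk hL ε' x)]; rfl
  rw [e]
  have hb : ∀ᵐ z ∂ν, ‖K (x - (ε * ‖x‖) • z) - K (x - (ε' * ‖x‖) • z)‖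
      ≤ L * |ε - ε'| * ‖x‖ := by
    filter_upwards [hk.supp] with z hz
    refine (hL.norm_sub_le _ _).trans ?_
    rw [mul_assoc]
    refine mul_le_mul_of_nonneg_left ?_ L.coe_nonneg
    have e2 : x - (ε * ‖x‖) • z - (x - (ε' * ‖x‖) • z) = - (((ε - ε') * ‖x‖) • z) := by
      rw [sub_mul, sub_smul]; abel
    rw [e2, norm_neg, norm_smul, Real.norm_eq_abs, abs_mul, abs_norm]
    calc |ε - ε'| * ‖x‖ * ‖z‖ ≤ |ε - ε'| * ‖x‖ * 1 := by gcongr
      _ = _ := by ring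
  calc _ ≤ (L * |ε - ε'| * ‖x‖) * ν.real univ := norm_integral_le_of_norm_le_const hb
    _ = _ := by simp

end elementary

section smooth

omit [MeasurableSpace E] [BorelSpace E] in
/-- a globally smooth radius which agrees with `ε ‖·‖` near `x₀` -/
lemma exists_radius_loc {ε : ℝ} {x₀ : E} (hx : x₀ ≠ 0) :
    ∃ η : E → ℝ, ContDiff ℝ ∞ η ∧ η =ᶠ[𝓝 x₀] fun z => ε * ‖z‖ := by
  have hx0 : 0 < ‖x₀‖ := norm_pos_iff.2 hx
  let χ : ContDiffBump x₀ := ⟨‖x₀‖ / 4, ‖x₀‖ / 2, by positivity, by linarith⟩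
  refine ⟨fun z => χ z * (ε * ‖z‖), ?_, ?_⟩
  · rw [contDiff_iff_contDiffAt]
    intro z
    by_cases hz : z = 0
    · have h0 : z ∉ tsupport χ := by
        rw [χ.tsupport_eq, hz, mem_closedBall, dist_comm, dist_zero_right]
        simp only [not_le]
        show ‖x₀‖ / 2 < ‖x₀‖
        linarith
      have h1 : (fun z => χ z * (ε * ‖z‖)) =ᶠ[𝓝 z] fun _ => 0 := by
        filter_upwards [notMem_tsupport_iff_eventuallyEq.1 h0] with w hw
        rw [hw]; simp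
      exact contDiffAt_const.congr_of_eventuallyEq h1
    · have h1 : ContDiffAt ℝ ∞ (fun w : E => ‖w‖) z := contDiffAt_id.norm ℝ hz
      exact (χ.contDiffAt).mul (contDiffAt_const.mul h1)
  · filter_upwards [χ.eventuallyEq_one] with z hz
    rw [hz]; simp

lemma hm_contDiffAt {μ : Measure E} [μ.IsAddHaarMeasure] {ρ : E → ℝ} (hd : Dens μ ρ)
    {K : E → E} (hK : Continuous K) {ε : ℝ} (hε : 0 < ε) {x₀ : E} (hx : x₀ ≠ 0) :
    ContDiffAt ℝ ∞ (hm (kerM μ ρ) K ε) x₀ := by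
  obtain ⟨η, hη, he⟩ := exists_radius_loc (ε := ε) hx
  have hx0 : 0 < ‖x₀‖ := norm_pos_iff.2 hx
  have hpos : 0 < η x₀ := by rw [he.eq_of_nhds]; positivity
  refine (hd.contDiffAt_avg hK hη hpos).congr_of_eventuallyEq ?_
  filter_upwards [he] with z hz
  simp only [hm, avg, hz]

lemma hm_fderiv_sub_le {μ ν : Measure E} [μ.IsAddHaarMeasure] (hk : Ker μ ν)
    {K : E → E} {L : ℝ≥0} (hL : LipschitzWith L K) {ε : ℝ} (hε : 0 < ε) {x₀ : E} (hx : x₀ ≠ 0) :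
    ‖fderiv ℝ (hm ν K ε) x₀ - avgD ν K (ε * ‖x₀‖) x₀‖ ≤ L * ε := by
  have hx0 : 0 < ‖x₀‖ := norm_pos_iff.2 hx
  have hlip : LipschitzWith (⟨ε, hε.le⟩ : ℝ≥0) (fun z : E => ε * ‖z‖) := by
    refine LipschitzWith.of_dist_le_mul fun a b => ?_
    rw [Real.dist_eq, ← mul_sub, abs_mul, abs_of_pos hε, dist_eq_norm]
    exact mul_le_mul_of_nonneg_left (abs_norm_sub_norm_le a b) hε.le
  have hd : HasFDerivAt (fun z : E => ε * ‖z‖) (fderiv ℝ (fun z : E => ε * ‖z‖) x₀) x₀ := by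
    have h1 : ContDiffAt ℝ 1 (fun w : E => ‖w‖) x₀ := contDiffAt_id.norm ℝ hx
    exact ((contDiffAt_const.mul h1).differentiableAt one_ne_zero).hasFDerivAt
  have h1 := hk.norm_fderiv_avg_sub_le hL hd univ_mem (hlip.lipschitzOnWith (s := univ))
    (by positivity)
  refine h1.trans ?_
  have h2 : ‖fderiv ℝ (fun z : E => ε * ‖z‖) x₀‖ ≤ ε := by
    have := norm_fderiv_le_of_lipschitz ℝ hlip (x₀ := x₀)
    exact this
  gcongr

end smooth

end Crest.Agent.R096.Hm_695
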