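import Crest.Agent.R096.Hm1_695

/-!
# C3-HM, part 2 (helper695, row 96 P5): uniform derivative cones, bi-Lipschitz bounds
-/

set_option autoImplicit false

open MeasureTheory Metric Set Filter Topology
open scoped ENNReal NNReal ContDiff

namespace Crest.Agent.R096.Hm_695

open Crest.Agent.R096.Mo_119

variable {E : Type*} [NormedAddCommGroup E] [InnerProductSpace ℝ E] [FiniteDimensional ℝ E]
  [MeasurableSpace E] [BorelSpace E]

section
variable {μ ν : Measure E}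

omit [FiniteDimensional ℝ E] [BorelSpace E] in
/-- a conic map which is `Moll` off `0` is locally Lipschitz near the unit sphere -/
lemma exists_loc_lip [ProperSpace E] {K : E → E} (hm : ∀ x, x ≠ 0 → MollAt μ K x) :
    ∃ δ > 0, ∃ L : ℝ, 0 ≤ L ∧ ∀ x ∈ sphere (0 : E) 1, ∀ y, ‖x - y‖ < δ →
      ‖K x - K y‖ ≤ L * ‖x - y‖ := by
  refine (isCompact_sphere (0 : E) 1).induction_on
    (p := fun s => ∃ δ > 0, ∃ L : ℝ, 0 ≤ L ∧ ∀ x ∈ s, ∀ y, ‖x - y‖ < δ →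
      ‖K x - K y‖ ≤ L * ‖x - y‖) ?_ ?_ ?_ ?_
  · exact ⟨1, one_pos, 0, le_rfl, fun x hx => absurd hx (notMem_empty x)⟩
  · rintro s t hst ⟨δ, hδ, L, hL, h⟩
    exact ⟨δ, hδ, L, hL, fun x hx => h x (hst hx)⟩
  · rintro s t ⟨δ, hδ, L, hL, h⟩ ⟨δ', hδ', L', hL', h'⟩
    refine ⟨min δ δ', lt_min hδ hδ', max L L', le_max_of_le_left hL, ?_⟩
    rintro x (hx | hx) y hy
    · refine (h x hx y (hy.trans_le (min_le_left _ _))).trans ?_
      gcongr; exact le_max_left _ _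
    · refine (h' x hx y (hy.trans_le (min_le_right _ _))).trans ?_
      gcongr; exact le_max_right _ _
  · intro x₀ hx₀
    have hne : x₀ ≠ 0 := by
      rintro rfl; simp at hx₀
    obtain ⟨r, hr, C, -, -, -, ⟨L, hL⟩, -⟩ := hm x₀ hne
    refine ⟨ball x₀ (r / 2), mem_nhdsWithin_of_mem_nhds (ball_mem_nhds _ (by positivity)),
      r / 2, by positivity, L, L.coe_nonneg, fun x hx y hy => ?_⟩
    have h1 : x ∈ ball x₀ r := ball_subset_ball (by linarith) hx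
    have h2 : y ∈ ball x₀ r := by
      rw [mem_ball] at hx ⊢
      calc dist y x₀ ≤ dist y x + dist x x₀ := dist_triangle _ _ _
        _ < r := by rw [dist_comm y x, dist_eq_norm x y]; linarith
    have := hL.dist_le_mul x h1 y h2
    rwa [dist_eq_norm, dist_eq_norm] at this

omit [BorelSpace E] in
/-- a continuous conic map which is `Moll` off `0` is globally Lipschitz -/
theorem exists_lip {K : E → E} (hcont : Continuous K) (hc : Conic K)
    (hm : ∀ x, x ≠ 0 → MollAt μ K x) : ∃ L : ℝ≥0, LipschitzWith L K := by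
  have : ProperSpace E := FiniteDimensional.proper_real E
  obtain ⟨δ, hδ, L, hL, h⟩ := exists_loc_lip hm
  obtain ⟨B, hB⟩ := (isCompact_closedBall (0 : E) 1).exists_bound_of_continuousOn
    (f := K) hcont.continuousOn
  have hB0 : 0 ≤ B := (norm_nonneg _).trans (hB 0 (by simp))
  have key := hc.lip (b := max L (2 * B / δ)) ?_
  · refine ⟨⟨max L (2 * B / δ), le_max_of_le_left hL⟩, LipschitzWith.of_dist_le_mul fun x y => ?_⟩
    rw [dist_eq_norm, dist_eq_norm]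
    exact key x y
  · intro x y hx hy
    by_cases hxy : ‖x - y‖ < δ
    · refine (h x (by simpa using hx) y hxy).trans ?_
      gcongr; exact le_max_left _ _
    · push Not at hxy
      have h1 : ‖K x‖ ≤ B := hB x (by simp [hx])
      have h2 : ‖K y‖ ≤ B := hB y (by simpa using hy)
      calc ‖K x - K y‖ ≤ ‖K x‖ + ‖K y‖ := norm_sub_le _ _
        _ ≤ (2 * B / δ) * δ := by rw [div_mul_cancel₀ _ hδ.ne']; linarith
        _ ≤ max L (2 * B / δ) * ‖x - y‖ :=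
            mul_le_mul (le_max_right _ _) hxy hδ.le (le_max_of_le_left hL)

/-- the derivative condition near `x₀` -/
structure Cone (μ ν : Measure E) (K : E → E) (ε₁ m δ : ℝ) (C : Set (E →L[ℝ] E)) (x₀ : E) :
    Prop where
  conv : Convex ℝ C
  comp : IsCompact C
  low : ∀ A ∈ C, 0 < A.det ∧ ∀ v, m * ‖v‖ ≤ ‖A v‖
  mem : ∀ ε, 0 < ε → ε < ε₁ → ∀ x ∈ ball x₀ δ, fderiv ℝ (hm ν K ε) x ∈ C
  ae : ∀ᵐ x ∂μ, x ∈ ball x₀ δ → fderiv ℝ K x ∈ C
  far : δ ≤ ‖x₀‖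

omit [FiniteDimensional ℝ E] [BorelSpace E] in
lemma Cone.mono {K : E → E} {ε₁ m δ ε₁' m' δ' : ℝ} {C : Set (E →L[ℝ] E)} {x₀ : E}
    (h : Cone μ ν K ε₁ m δ C x₀) (h1 : ε₁' ≤ ε₁) (h2 : m' ≤ m) (h3 : δ' ≤ δ) :
    Cone μ ν K ε₁' m' δ' C x₀ := by
  refine ⟨h.conv, h.comp, fun A hA => ⟨(h.low A hA).1, fun v => ?_⟩, fun ε h0 hε x hx => ?_, ?_,
    h3.trans h.far⟩
  · refine le_trans ?_ ((h.low A hA).2 v)
    gcongr
  · exact h.mem ε h0 (hε.trans_le h1) x (ball_subset_ball h3 hx)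
  · filter_upwards [h.ae] with x hx hx2 using hx (ball_subset_ball h3 hx2)

lemma exists_cone_loc [μ.IsAddHaarMeasure] (hk : Ker μ ν) {K : E → E} {L : ℝ≥0}
    (hL : LipschitzWith L K) {x₀ : E} (hx₀ : x₀ ≠ 0) (hm : MollAt μ K x₀) :
    ∃ ε₁ > 0, ∃ m > 0, ∃ δ > 0, ∀ x₁ ∈ ball x₀ δ, ∃ C, Cone μ ν K ε₁ m δ C x₁ := by
  obtain ⟨r, hr, C, hconv, hcomp, hdet, -, hae⟩ := hm
  obtain ⟨t, ht, htC⟩ := exists_tol hcomp hdet
  have hx0 : 0 < ‖x₀‖ := norm_pos_iff.2 hx₀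
  have hps : ProperSpace (E →L[ℝ] E) := FiniteDimensional.proper_real _
  set δ' := min (r / 2) (‖x₀‖ / 2) with hδ'
  have hδ0 : 0 < δ' := lt_min (by positivity) (by positivity)
  have hδr : δ' ≤ r / 2 := min_le_left _ _
  have hδx : δ' ≤ ‖x₀‖ / 2 := min_le_right _ _
  refine ⟨min (r / (4 * ‖x₀‖)) (t / (L + 1)), lt_min (by positivity) (by positivity), t, ht,
    δ' / 2, by positivity, fun x₁ hx₁ => ⟨cthickening t C, ?_, ?_, ?_, ?_, ?_, ?_⟩⟩
  · exact hconv.cthickening t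
  · exact hcomp.cthickening
  · exact htC
  · intro ε hε0 hε x hx
    have hxb : ‖x - x₀‖ < δ' := by
      rw [← dist_eq_norm]
      rw [mem_ball] at hx hx₁
      calc dist x x₀ ≤ dist x x₁ + dist x₁ x₀ := dist_triangle _ _ _
        _ < δ' := by linarith
    have hxn : ‖x‖ ≤ 2 * ‖x₀‖ := by
      calc ‖x‖ = ‖x₀ + (x - x₀)‖ := by congr 1; abel
        _ ≤ ‖x₀‖ + ‖x - x₀‖ := norm_add_le _ _
        _ ≤ 2 * ‖x₀‖ := by linarith
    have hxpos : x ≠ 0 := by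
      rintro rfl
      rw [zero_sub, norm_neg] at hxb
      linarith
    have hx1 : 0 < ‖x‖ := norm_pos_iff.2 hxpos
    have hε1 : ε < r / (4 * ‖x₀‖) := hε.trans_le (min_le_left _ _)
    have hε2 : ε < t / (L + 1) := hε.trans_le (min_le_right _ _)
    have h1 : ε * ‖x‖ < r / 2 := by
      rw [lt_div_iff₀ (by positivity)] at hε1
      nlinarith
    have hmem := hk.avgD_mem_loc (hL.lipschitzOnWith (s := ball x₀ r)) hconv hcomp.isClosed hae
      (x := x) (c := ε * ‖x‖) (by positivity) (by linarith)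
    refine mem_cthickening_of_dist_le _ _ _ _ hmem ?_
    rw [dist_eq_norm]
    refine (hm_fderiv_sub_le hk hL hε0 hxpos).trans ?_
    rw [lt_div_iff₀ (by positivity)] at hε2
    have hL0 : (0:ℝ) ≤ L := L.coe_nonneg
    nlinarith
  · filter_upwards [hae] with x hx hx2
    have : x ∈ ball x₀ r := by
      rw [mem_ball] at hx2 hx₁ ⊢
      calc dist x x₀ ≤ dist x x₁ + dist x₁ x₀ := dist_triangle _ _ _
        _ < r := by linarith
    exact self_subset_cthickening C (hx this)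
  · rw [mem_ball, dist_eq_norm] at hx₁
    have : ‖x₀‖ ≤ ‖x₁‖ + ‖x₁ - x₀‖ := by
      calc ‖x₀‖ = ‖x₁ - (x₁ - x₀)‖ := by congr 1; abel
        _ ≤ _ := norm_sub_le _ _
    linarith

theorem exists_cone [μ.IsAddHaarMeasure] (hk : Ker μ ν) {K : E → E} {L : ℝ≥0}
    (hL : LipschitzWith L K) (hm : ∀ x, x ≠ 0 → MollAt μ K x) :
    ∃ ε₁ > 0, ∃ m > 0, ∃ δ > 0, ∀ x₀ ∈ sphere (0 : E) 1, ∃ C, Cone μ ν K ε₁ m δ C x₀ := by
  have : ProperSpace E := FiniteDimensional.proper_real E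
  refine (isCompact_sphere (0 : E) 1).induction_on
    (p := fun s => ∃ ε₁ > 0, ∃ m > 0, ∃ δ > 0, ∀ x₀ ∈ s, ∃ C, Cone μ ν K ε₁ m δ C x₀) ?_ ?_ ?_ ?_
  · exact ⟨1, one_pos, 1, one_pos, 1, one_pos, fun x hx => absurd hx (notMem_empty x)⟩
  · rintro s t hst ⟨ε₁, h1, m, h2, δ, h3, h⟩
    exact ⟨ε₁, h1, m, h2, δ, h3, fun x hx => h x (hst hx)⟩
  · rintro s t ⟨ε₁, h1, m, h2, δ, h3, h⟩ ⟨ε₁', h1', m', h2', δ', h3', h'⟩
    refine ⟨min ε₁ ε₁', lt_min h1 h1', min m m', lt_min h2 h2', min δ δ', lt_min h3 h3', ?_⟩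
    rintro x (hx | hx)
    · obtain ⟨C, hC⟩ := h x hx
      exact ⟨C, hC.mono (min_le_left _ _) (min_le_left _ _) (min_le_left _ _)⟩
    · obtain ⟨C, hC⟩ := h' x hx
      exact ⟨C, hC.mono (min_le_right _ _) (min_le_right _ _) (min_le_right _ _)⟩
  · intro x₀ hx₀
    have hne : x₀ ≠ 0 := by
      rintro rfl; simp at hx₀
    obtain ⟨ε₁, h1, m, h2, δ, h3, h⟩ := exists_cone_loc hk hL hne (hm x₀ hne)
    exact ⟨ball x₀ δ, mem_nhdsWithin_of_mem_nhds (ball_mem_nhds _ h3), ε₁, h1, m, h2, δ, h3, h⟩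

end

section
variable {μ : Measure E}

/-- the segment form for `ε > 0` -/
lemma Cone.seg_pos [μ.IsAddHaarMeasure] {ρ : E → ℝ} (hd : Dens μ ρ) {K : E → E}
    (hK : Continuous K) {ε₁ m δ : ℝ} {C : Set (E →L[ℝ] E)} {x₀ : E}
    (h : Cone μ (kerM μ ρ) K ε₁ m δ C x₀) {ε : ℝ} (h0 : 0 < ε) (hε : ε < ε₁) {x y : E}
    (hx : x ∈ ball x₀ δ) (hy : y ∈ ball x₀ δ) :
    ∃ A ∈ C, hm (kerM μ ρ) K ε x - hm (kerM μ ρ) K ε y = A (x - y) := by
  refine exists_seg (convex_ball x₀ δ) h.conv h.comp.isClosed (fun z hz => ?_)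
    (fun z hz => h.mem ε h0 hε z hz) hx hy
  have hz0 : z ≠ 0 := by
    rintro rfl
    rw [mem_ball, dist_comm, dist_zero_right] at hz
    linarith [h.far]
  exact (hm_contDiffAt hd hK h0 hz0).of_le (by norm_cast)

/-- the segment form for `ε ≥ 0` -/
lemma Cone.seg [μ.IsAddHaarMeasure] {ρ : E → ℝ} (hd : Dens μ ρ) {K : E → E} {L : ℝ≥0}
    (hL : LipschitzWith L K) {ε₁ m δ : ℝ} (hε₁ : 0 < ε₁) {C : Set (E →L[ℝ] E)} {x₀ : E}
    (h : Cone μ (kerM μ ρ) K ε₁ m δ C x₀) {ε : ℝ} (h0 : 0 ≤ ε) (hε : ε < ε₁) {x y : E}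
    (hx : x ∈ ball x₀ δ) (hy : y ∈ ball x₀ δ) :
    ∃ A ∈ C, hm (kerM μ ρ) K ε x - hm (kerM μ ρ) K ε y = A (x - y) := by
  rcases h0.eq_or_lt with h0 | h0
  swap
  · exact h.seg_pos hd hL.continuous h0 hε hx hy
  subst h0
  have hev : IsClosed ((fun A : E →L[ℝ] E => A (x - y)) '' C) := by
    have : IsCompact ((fun A : E →L[ℝ] E => A (x - y)) '' C) :=
      h.comp.image (by fun_prop)
    exact this.isClosed
  have hcont : Continuous fun e : ℝ => hm (kerM μ ρ) K e x - hm (kerM μ ρ) K e y := by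
    have h1 : ∀ z : E, Continuous fun e : ℝ => hm (kerM μ ρ) K e z := by
      intro z
      have : LipschitzWith (L * ‖z‖₊) fun e : ℝ => hm (kerM μ ρ) K e z := by
        refine LipschitzWith.of_dist_le_mul fun a b => ?_
        rw [dist_eq_norm, Real.dist_eq]
        refine (hm_lipt hd.ker hL a b z).trans (le_of_eq ?_)
        push_cast
        ring
      exact this.continuous
    exact (h1 x).sub (h1 y)
  have hmem : hm (kerM μ ρ) K 0 x - hm (kerM μ ρ) K 0 y ∈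
      ((fun A : E →L[ℝ] E => A (x - y)) '' C) := by
    have ht : Tendsto (fun e : ℝ => hm (kerM μ ρ) K e x - hm (kerM μ ρ) K e y) (𝓝[>] 0)
        (𝓝 (hm (kerM μ ρ) K 0 x - hm (kerM μ ρ) K 0 y)) :=
      (hcont.tendsto 0).mono_left nhdsWithin_le_nhds
    refine hev.mem_of_tendsto ht ?_
    filter_upwards [Ioo_mem_nhdsGT hε₁] with e he
    obtain ⟨A, hA, hAe⟩ := h.seg_pos hd hL.continuous he.1 he.2 hx hy
    exact ⟨A, hA, hAe.symm⟩
  obtain ⟨A, hA, hAe⟩ := hmem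
  exact ⟨A, hA, hAe.symm⟩

end

end Crest.Agent.R096.Hm_695
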