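import Crest.Agent.R096.Vx2_270

/-!
# Slow radial interpolation, part 3: one step of `CORE3` along a Moll family

* `Fam.MollU F μ S η` : off a null set, near every point of `S`, the derivatives of `K t`, `t` near
  `t₀`, lie in a compact convex set whose closed `η`-neighbourhood has positive determinant;
* `Fam.mollAt_phi` : then the interpolated map is `MollAt` on `S`, if `3 M ε ≤ η`;
* `Fam.Mo` : `MollAt` off `0`, locally uniformly in `(t, x)`; `Fam.Mo.exists_unif`;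
* `CoreAt μ K`, `coreAt_linear`, `Fam.Mo.coreAt`.
-/

set_option autoImplicit false
set_option linter.unusedSectionVars false

open MeasureTheory Metric Set Filter Topology
open scoped ENNReal NNReal

namespace Crest.Agent.R096.Vx_270

open Crest.Agent.R096.Mo_119 (MollAt)

variable {E : Type*} [NormedAddCommGroup E] [NormedSpace ℝ E] [FiniteDimensional ℝ E]
  [MeasurableSpace E] [BorelSpace E]

namespace Fam

/-- uniform Moll condition on the set `S`, with slack `η` -/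
def MollU (F : Fam E) (μ : Measure E) (S : Set E) (η : ℝ) : Prop :=
  ∀ t₀ : ℝ, ∀ x₀ ∈ S, ∃ r > 0, ∃ C : Set (E →L[ℝ] E), Convex ℝ C ∧ IsCompact C ∧
    (∀ A ∈ cthickening η C, 0 < A.det) ∧
    ∀ᵐ x ∂μ, ∀ t, |t - t₀| < r → x ∈ ball x₀ r → DifferentiableAt ℝ (F.K t) x ∧
      fderiv ℝ (F.K t) x ∈ C

theorem mollAt_phi (F : Fam E) {μ : Measure E} [μ.IsAddHaarMeasure] {S : Set E} {η : ℝ}
    (hU : F.MollU μ S η) {τ : ℝ → ℝ} {ε : ℝ} (hτ : Slow τ ε) (hη : 3 * F.M * ε ≤ η) {x₀ : E}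
    (hx₀ : x₀ ∈ S) (h0 : x₀ ≠ 0) : MollAt μ (F.phi τ) x₀ := by
  have : ProperSpace (E →L[ℝ] E) := FiniteDimensional.proper_real _
  have hM := F.M_pos
  have hε := hτ.nonneg
  have hη0 : 0 ≤ η := le_trans (by positivity) hη
  obtain ⟨r, hr, C, hC1, hC2, hC3, hC4⟩ := hU (F.par τ x₀) x₀ hx₀
  have hpar : ∀ᶠ y in 𝓝 x₀, |F.par τ y - F.par τ x₀| < r := by
    have := (F.continuousAt_par hτ h0).tendsto
    have h := this.eventually (Metric.ball_mem_nhds _ hr)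
    filter_upwards [h] with y hy
    rwa [Real.dist_eq] at hy
  have hne : ∀ᶠ y in 𝓝 x₀, y ≠ 0 := isOpen_ne.mem_nhds h0
  obtain ⟨r', hr', hb⟩ := Metric.eventually_nhds_iff_ball.1 (hpar.and hne)
  refine ⟨min r r', lt_min hr hr', cthickening η C, hC1.cthickening η, hC2.cthickening, hC3,
    ⟨_, (F.lipschitz_phi hτ).lipschitzOnWith⟩, ?_⟩
  have hrad : ∀ᵐ x ∂μ, DifferentiableAt ℝ (F.phi τ) x := (F.lipschitz_phi hτ).ae_differentiableAt
  filter_upwards [hC4, hrad] with x h1 h2 hx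
  have hxr : x ∈ ball x₀ r := ball_subset_ball (min_le_left _ _) hx
  have hxr' : x ∈ ball x₀ r' := ball_subset_ball (min_le_right _ _) hx
  obtain ⟨h3, h4⟩ := hb x hxr'
  obtain ⟨h5, h6⟩ := h1 (F.par τ x) h3 hxr
  have h7 := F.fderiv_close hτ h4 h2 h5
  rw [← dist_eq_norm] at h7
  exact mem_cthickening_of_dist_le _ _ _ _ h6 (h7.trans hη)

/-- `MollAt` off `0`, locally uniformly in `(t, x)`, off a null set that does not depend on `t`;
`K` is constant for `t ≤ 0` and for `t ≥ 1`. -/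
structure Mo (F : Fam E) (μ : Measure E) : Prop where
  cst0 : ∀ t ≤ 0, F.K t = F.K 0
  cst1 : ∀ t, 1 ≤ t → F.K t = F.K 1
  loc : ∀ t₀ ∈ Icc (0 : ℝ) 1, ∀ x₀ : E, ‖x₀‖ = 1 → ∃ r > 0, ∃ C : Set (E →L[ℝ] E), Convex ℝ C ∧
    IsCompact C ∧ (∀ A ∈ C, 0 < A.det) ∧
    ∀ᵐ x ∂μ, ∀ t ∈ Icc (0 : ℝ) 1, |t - t₀| < r → x ∈ ball x₀ r → DifferentiableAt ℝ (F.K t) x ∧
      fderiv ℝ (F.K t) x ∈ C

lemma Mo.K_proj {F : Fam E} {μ : Measure E} (h : F.Mo μ) (t : ℝ) :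
    F.K t = F.K (max 0 (min 1 t)) := by
  rcases le_total t 0 with h0 | h0
  · rw [h.cst0 t h0, max_eq_left]
    exact (min_le_right _ _).trans h0
  · rcases le_total t 1 with h1 | h1
    · rw [min_eq_right h1, max_eq_right h0]
    · rw [h.cst1 t h1, min_eq_left h1, max_eq_right zero_le_one]

theorem Mo.exists_unif {F : Fam E} {μ : Measure E} [μ.IsAddHaarMeasure] (h : F.Mo μ) :
    ∃ η > 0, F.MollU μ {0}ᶜ η := by
  classical
  have : ProperSpace (E →L[ℝ] E) := FiniteDimensional.proper_real _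
  have : ProperSpace E := FiniteDimensional.proper_real _
  choose! r hr C hC1 hC2 hC3 hC4 using h.loc
  -- tolerances
  have htol : ∀ t₀ ∈ Icc (0 : ℝ) 1, ∀ x₀ : E, ‖x₀‖ = 1 → ∃ η > 0, ∀ B ∈ cthickening η (C t₀ x₀),
      0 < B.det := by
    intro t₀ ht₀ x₀ hx₀
    have hU : IsOpen {B : E →L[ℝ] E | 0 < B.det} :=
      isOpen_lt continuous_const ContinuousLinearMap.continuous_det
    obtain ⟨d, hd, hdU⟩ := (hC2 t₀ ht₀ x₀ hx₀).exists_cthickening_subset_open hU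
      (hC3 t₀ ht₀ x₀ hx₀)
    exact ⟨d, hd, fun B hB => hdU hB⟩
  choose! η hη hη' using htol
  -- compactness
  set Q : Set (ℝ × E) := Icc (0 : ℝ) 1 ×ˢ sphere (0 : E) 1 with hQ
  have hQc : IsCompact Q := isCompact_Icc.prod (isCompact_sphere 0 1)
  have hmem : ∀ q ∈ Q, q.1 ∈ Icc (0 : ℝ) 1 ∧ ‖q.2‖ = 1 := by
    rintro ⟨t, x⟩ ⟨h1, h2⟩
    exact ⟨h1, by simpa using h2⟩
  obtain ⟨s, hs⟩ := hQc.elim_nhds_subcover' (fun q _ => ball q (r q.1 q.2 / 2))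
    (fun q hq => ball_mem_nhds q (half_pos (hr _ (hmem q hq).1 _ (hmem q hq).2)))
  -- the minimum of the tolerances
  have hηpos : ∃ η₀ > 0, ∀ q ∈ s, η₀ ≤ η q.1.1 q.1.2 := by
    rcases s.eq_empty_or_nonempty with hs0 | hs0
    · exact ⟨1, one_pos, by simp [hs0]⟩
    · refine ⟨s.inf' hs0 fun q => η q.1.1 q.1.2, ?_, fun q hq => Finset.inf'_le _ hq⟩
      rw [gt_iff_lt, Finset.lt_inf'_iff]
      intro q _
      exact hη _ (hmem q.1 q.2).1 _ (hmem q.1 q.2).2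
  obtain ⟨η₀, hη₀, hle⟩ := hηpos
  refine ⟨η₀, hη₀, ?_⟩
  intro t₀ x₀ hx₀
  have hx0 : x₀ ≠ 0 := hx₀
  have hn : 0 < ‖x₀‖ := norm_pos_iff.2 hx0
  set t₁ := max 0 (min 1 t₀) with ht₁
  have ht₁m : t₁ ∈ Icc (0 : ℝ) 1 := ⟨le_max_left _ _, max_le zero_le_one (min_le_left _ _)⟩
  set x₁ := ‖x₀‖⁻¹ • x₀ with hx₁
  have hx₁n : ‖x₁‖ = 1 := by
    rw [hx₁, norm_smul, norm_inv, norm_norm, inv_mul_cancel₀ hn.ne']
  have hq₁ : (t₁, x₁) ∈ Q := ⟨ht₁m, by simpa using hx₁n⟩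
  have hcov := hs hq₁
  simp only [mem_iUnion] at hcov
  obtain ⟨q, hq, hball⟩ := hcov
  rw [mem_ball, Prod.dist_eq] at hball
  have hb1 : dist t₁ q.1.1 < r q.1.1 q.1.2 / 2 := (le_max_left _ _).trans_lt hball
  have hb2 : dist x₁ q.1.2 < r q.1.1 q.1.2 / 2 := (le_max_right _ _).trans_lt hball
  have hqm := hmem q.1 q.2
  set ρ := r q.1.1 q.1.2 with hρ
  have hρ0 : 0 < ρ := hr _ hqm.1 _ hqm.2
  refine ⟨min (ρ / 2) (ρ / 2 * ‖x₀‖), lt_min (half_pos hρ0) (mul_pos (half_pos hρ0) hn),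
    C q.1.1 q.1.2, hC1 _ hqm.1 _ hqm.2, hC2 _ hqm.1 _ hqm.2, ?_, ?_⟩
  · intro A hA
    exact hη' _ hqm.1 _ hqm.2 A (cthickening_mono (hle q hq) _ hA)
  · have hae := hC4 _ hqm.1 _ hqm.2
    have hae2 := Mo_119.ae_comp hae 0 (c := -‖x₀‖⁻¹) (neg_ne_zero.2 (inv_pos.2 hn).ne')
    filter_upwards [hae2] with x hx t ht hxb
    have e : (0 : E) - (-‖x₀‖⁻¹) • x = ‖x₀‖⁻¹ • x := by rw [neg_smul, zero_sub, neg_neg]
    rw [e] at hx
    have hpt : |max 0 (min 1 t) - t₁| ≤ |t - t₀| := by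
      rw [ht₁]
      refine (abs_max_sub_max_le_max _ _ _ _).trans ?_
      rw [sub_self, abs_zero]
      refine max_le (abs_nonneg _) ?_
      refine (abs_min_sub_min_le_max _ _ _ _).trans ?_
      rw [sub_self, abs_zero]
      exact max_le (abs_nonneg _) le_rfl
    have h1 : |max 0 (min 1 t) - q.1.1| < ρ := by
      have h2 : |t₁ - q.1.1| < ρ / 2 := by rwa [← Real.dist_eq]
      calc |max 0 (min 1 t) - q.1.1| = |(max 0 (min 1 t) - t₁) + (t₁ - q.1.1)| := by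
            congr 1; ring
        _ ≤ |max 0 (min 1 t) - t₁| + |t₁ - q.1.1| := abs_add_le _ _
        _ < ρ / 2 + ρ / 2 :=
            add_lt_add (hpt.trans_lt (ht.trans_le (min_le_left _ _))) h2
        _ = ρ := by ring
    have h3 : ‖x₀‖⁻¹ • x ∈ ball q.1.2 ρ := by
      rw [mem_ball]
      calc dist (‖x₀‖⁻¹ • x) q.1.2 ≤ dist (‖x₀‖⁻¹ • x) x₁ + dist x₁ q.1.2 := dist_triangle _ _ _
        _ < ρ / 2 + ρ / 2 := by
            refine add_lt_add ?_ hb2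
            rw [hx₁, dist_eq_norm, ← smul_sub, norm_smul, norm_inv, norm_norm,
              inv_mul_lt_iff₀ hn]
            rw [mem_ball_iff_norm] at hxb
            have := hxb.trans_le (min_le_right _ _)
            linarith [mul_comm (ρ / 2) ‖x₀‖]
        _ = ρ := by ring
    have hm : max 0 (min 1 t) ∈ Icc (0 : ℝ) 1 :=
      ⟨le_max_left _ _, max_le zero_le_one (min_le_left _ _)⟩
    obtain ⟨h4, h5⟩ := hx _ hm h1 h3
    rw [← h.K_proj t] at h4 h5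
    have h6 := fderiv_smul_of_hom (F.hom t) (inv_pos.2 hn) x
    rw [h6] at h5
    refine ⟨?_, h5⟩
    -- differentiability by homogeneity
    by_contra hnd
    have h7 : DifferentiableAt ℝ (F.K t) x := by
      have e2 : F.K t = fun y => ‖x₀‖ • F.K t (‖x₀‖⁻¹ • y) := by
        funext y
        rw [← F.hom t _ _ hn, smul_smul, mul_inv_cancel₀ hn.ne', one_smul]
      rw [e2]
      have h8 : DifferentiableAt ℝ (fun y : E => ‖x₀‖⁻¹ • y) x :=
        differentiableAt_id.const_smul _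
      exact (DifferentiableAt.comp x (g := F.K t) h4 h8).const_smul _
    exact hnd h7

end Fam

/-- the slow cut-off of slope `ε` -/
noncomputable def cut (ε : ℝ) (s : ℝ) : ℝ := max 0 (min 1 (-(ε * s)))

lemma cut_slow {ε : ℝ} (hε : 0 ≤ ε) : Slow (cut ε) ε := by
  refine ⟨hε, fun a b => ?_⟩
  unfold cut
  refine (abs_max_sub_max_le_max _ _ _ _).trans ?_
  rw [sub_self, abs_zero]
  have h0 : 0 ≤ ε * |a - b| := by positivity
  refine max_le h0 ?_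
  refine (abs_min_sub_min_le_max _ _ _ _).trans ?_
  rw [sub_self, abs_zero]
  refine max_le h0 ?_
  have : -(ε * a) - -(ε * b) = -(ε * (a - b)) := by ring
  rw [this, abs_neg, abs_mul, abs_of_nonneg hε]

lemma cut_of_nonneg {ε s : ℝ} (hε : 0 ≤ ε) (hs : 0 ≤ s) : cut ε s = 0 := by
  unfold cut
  rw [max_eq_left]
  refine (min_le_right _ _).trans ?_
  have : 0 ≤ ε * s := by positivity
  linarith

lemma cut_of_le {ε s : ℝ} (hε : 0 < ε) (hs : s ≤ -ε⁻¹) : cut ε s = 1 := by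
  unfold cut
  have h : 1 ≤ -(ε * s) := by
    have := mul_le_mul_of_nonneg_left hs hε.le
    rw [mul_neg, mul_inv_cancel₀ hε.ne'] at this
    linarith
  rw [min_eq_left h, max_eq_right zero_le_one]

/-- `K` extends from the complement of the unit ball to a homeomorphism which is `MollAt`
everywhere. -/
def CoreAt (μ : Measure E) (K : E → E) : Prop :=
  ∃ Φ : E → E, IsHomeomorph Φ ∧ (∀ x, 1 ≤ ‖x‖ → Φ x = K x) ∧ (∀ x, MollAt μ Φ x) ∧
    ∃ C : ℝ≥0, LipschitzWith C Φ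

theorem coreAt_linear {μ : Measure E} {L : E →L[ℝ] E} (hL : 0 < L.det) :
    CoreAt μ (fun x => L x) := by
  refine ⟨fun x => L x, ?_, fun _ _ => rfl, mollAt_linear hL, ‖L‖₊, L.lipschitz⟩
  have h : (fun x => L x) = (L.toContinuousLinearEquivOfDetNeZero hL.ne') := by
    funext x; simp
  rw [h]
  exact (L.toContinuousLinearEquivOfDetNeZero hL.ne').toHomeomorph.isHomeomorph

/-- **One step of CORE3 along a Moll family.** -/
theorem Fam.Mo.coreAt {F : Fam E} {μ : Measure E} [μ.IsAddHaarMeasure] (h : F.Mo μ)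
    (h1 : CoreAt μ (F.K 1)) (hN : ∀ x, F.G.N x = ‖x‖) : CoreAt μ (F.K 0) := by
  obtain ⟨Φ', hΦh, hΦK, hΦM, C', hC'⟩ := h1
  obtain ⟨η, hη, hU⟩ := h.exists_unif
  have hM := F.M_pos
  -- choice of the slope
  obtain ⟨ε, hε, hε1, hε2⟩ : ∃ ε > 0, ε * F.M ^ 4 ≤ 1 / 4 ∧ 3 * F.M * ε ≤ η := by
    refine ⟨min (1 / 4 / F.M ^ 4) (η / (3 * F.M)), by positivity, ?_, ?_⟩
    · have := min_le_left (1 / 4 / F.M ^ 4) (η / (3 * F.M))
      rwa [le_div_iff₀ (by positivity)] at this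
    · have := min_le_right (1 / 4 / F.M ^ 4) (η / (3 * F.M))
      rw [le_div_iff₀ (by positivity)] at this
      linarith
  have hτ : Slow (cut ε) ε := cut_slow hε.le
  set ρ₁ := Real.exp (-ε⁻¹) with hρ₁
  have hρ₁0 : 0 < ρ₁ := Real.exp_pos _
  have hρ₁1 : ρ₁ < 1 := by
    rw [hρ₁, Real.exp_lt_one_iff]
    have := inv_pos.2 hε
    linarith
  set ρ := ρ₁ / 2 with hρ
  have hρ0 : 0 < ρ := half_pos hρ₁0
  -- the interpolated homeomorphism
  set Φ₀ : E ≃ₜ E := F.homeo hτ hε1 with hΦ₀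
  have hΦ₀a : ∀ x, Φ₀ x = F.phi (cut ε) x := fun x => rfl
  have hout : ∀ x, 1 ≤ ‖x‖ → Φ₀ x = F.K 0 x := by
    intro x hx
    rw [hΦ₀a, Fam.phi, Fam.par, cut_of_nonneg hε.le]
    rw [hN]
    exact Real.log_nonneg hx
  have hin : ∀ x, ‖x‖ ≤ ρ₁ → Φ₀ x = F.K 1 x := by
    intro x hx
    rcases eq_or_ne x 0 with h0 | h0
    · subst h0
      rw [hΦ₀a, F.phi_zero, F.K_zero]
    · have hn : 0 < ‖x‖ := norm_pos_iff.2 h0
      rw [hΦ₀a, Fam.phi, Fam.par, cut_of_le hε]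
      rw [hN, Real.log_le_iff_le_exp hn]
      exact hx
  -- the homeomorphism Θ
  set Θ : E → E := fun x => F.J 1 (ρ • Φ' (ρ⁻¹ • x)) with hΘ
  have hsc : ∀ x : E, ‖ρ⁻¹ • x‖ = ρ⁻¹ * ‖x‖ := fun x => by
    rw [norm_smul, Real.norm_eq_abs, abs_of_pos (inv_pos.2 hρ0)]
  have hΘout : ∀ x, ρ ≤ ‖x‖ → Θ x = x := by
    intro x hx
    have h2 : 1 ≤ ‖ρ⁻¹ • x‖ := by
      rw [hsc]
      have := mul_le_mul_of_nonneg_left hx (inv_pos.2 hρ0).le
      rwa [inv_mul_cancel₀ hρ0.ne'] at this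
    simp only [hΘ]
    rw [hΦK _ h2, ← F.hom 1 _ _ hρ0, smul_smul, mul_inv_cancel₀ hρ0.ne', one_smul, F.JK]
  have hΘh : IsHomeomorph Θ := by
    have hJ : IsHomeomorph (F.J 1) := by
      have hcJ : LipschitzWith ⟨F.M, hM.le⟩ (F.J 1) := LipschitzWith.of_dist_le_mul fun x y => by
        rw [dist_eq_norm, dist_eq_norm]; exact F.lipJ 1 x y
      have hcK : LipschitzWith ⟨F.M, hM.le⟩ (F.K 1) := LipschitzWith.of_dist_le_mul fun x y => by
        rw [dist_eq_norm, dist_eq_norm]; exact F.lipK 1 x y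
      exact (Homeomorph.mk ⟨F.J 1, F.K 1, F.KJ 1, F.JK 1⟩ hcJ.continuous
        hcK.continuous).isHomeomorph
    have hs1 : IsHomeomorph (fun x : E => ρ • x) :=
      (Homeomorph.smulOfNeZero ρ hρ0.ne').isHomeomorph
    have hs2 : IsHomeomorph (fun x : E => ρ⁻¹ • x) :=
      (Homeomorph.smulOfNeZero ρ⁻¹ (inv_pos.2 hρ0).ne').isHomeomorph
    exact hJ.comp (hs1.comp (hΦh.comp hs2))
  have hΘL : LipschitzWith (⟨F.M, hM.le⟩ * C') Θ := by
    refine LipschitzWith.of_dist_le_mul fun x y => ?_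
    rw [dist_eq_norm, dist_eq_norm]
    have h2 := F.lipJ 1 (ρ • Φ' (ρ⁻¹ • x)) (ρ • Φ' (ρ⁻¹ • y))
    have h3 := hC'.dist_le_mul (ρ⁻¹ • x) (ρ⁻¹ • y)
    rw [dist_eq_norm, dist_eq_norm, ← smul_sub, hsc] at h3
    rw [← smul_sub, norm_smul, Real.norm_eq_abs, abs_of_pos hρ0] at h2
    calc ‖Θ x - Θ y‖ ≤ F.M * (ρ * ‖Φ' (ρ⁻¹ • x) - Φ' (ρ⁻¹ • y)‖) := h2
      _ ≤ F.M * (ρ * (C' * (ρ⁻¹ * ‖x - y‖))) := by gcongr
      _ = F.M * C' * ‖x - y‖ := by field_simp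
  have hΘball : ∀ x, ‖x‖ < ρ → ‖Θ x‖ < ρ := by
    intro x hx
    by_contra hcon
    push Not at hcon
    have h2 : Θ (Θ x) = Θ x := hΘout _ hcon
    have h3 := hΘh.injective h2
    rw [h3] at hcon
    linarith
  refine ⟨fun x => Φ₀ (Θ x), Φ₀.isHomeomorph.comp hΘh, ?_, ?_, ?_⟩
  · intro x hx
    show Φ₀ (Θ x) = F.K 0 x
    rw [hΘout x (by linarith), hout x hx]
  · intro x
    rcases lt_or_ge ‖x‖ ρ₁ with hx | hx
    · -- inner ball
      have hev : (fun y => ρ • Φ' (ρ⁻¹ • y)) =ᶠ[𝓝 x] fun y => Φ₀ (Θ y) := by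
        have : ∀ᶠ y in 𝓝 x, ‖y‖ < ρ₁ := (isOpen_lt continuous_norm continuous_const).mem_nhds hx
        filter_upwards [this] with y hy
        have h2 : ‖Θ y‖ ≤ ρ₁ := by
          rcases lt_or_ge ‖y‖ ρ with hy' | hy'
          · exact (hΘball y hy').le.trans (by linarith)
          · rw [hΘout y hy']; exact hy.le
        rw [hin _ h2]
        simp only [hΘ]
        rw [F.KJ]
      exact MollAt.congr (MollAt.rescale hρ0 (hΦM _)) hev
    · -- outside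
      have hρx : ρ < ‖x‖ := by linarith
      have hx0 : x ≠ 0 := by
        rw [← norm_pos_iff]; linarith
      have hev : F.phi (cut ε) =ᶠ[𝓝 x] fun y => Φ₀ (Θ y) := by
        have : ∀ᶠ y in 𝓝 x, ρ < ‖y‖ := (isOpen_lt continuous_const continuous_norm).mem_nhds hρx
        filter_upwards [this] with y hy
        rw [hΘout y hy.le, hΦ₀a]
      exact MollAt.congr (F.mollAt_phi hU hτ hε2 (x₀ := x) hx0 hx0) hev
  · exact ⟨_, (F.lipschitz_phi hτ).comp hΘL⟩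

end Crest.Agent.R096.Vx_270
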