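import Crest.Agent.R096.Hm2_695
import Crest.Agent.R096.Vx3_270

/-!
# C3-HM, part 3 (helper695, row 96 P5): bijectivity, and the family in the format of helper270
-/

set_option autoImplicit false

open MeasureTheory Metric Set Filter Topology
open scoped ENNReal NNReal ContDiff

namespace Crest.Agent.R096.Hm_695

open Crest.Agent.R096.Mo_119

variable {E : Type*} [NormedAddCommGroup E] [InnerProductSpace ℝ E] [FiniteDimensional ℝ E]
  [MeasurableSpace E] [BorelSpace E]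

section
variable {μ : Measure E}

/-- uniform lower Lipschitz bound -/
theorem exists_lower [μ.IsAddHaarMeasure] {ρ : E → ℝ} (hd : Dens μ ρ) {K : E → E} {L : ℝ≥0}
    (hL : LipschitzWith L K) (hc : Conic K) (hi : Function.Injective K)
    {ε₁ m δ : ℝ} (hε₁ : 0 < ε₁) (hm0 : 0 < m) (hδ : 0 < δ)
    (h : ∀ x₀ ∈ sphere (0 : E) 1, ∃ C, Cone μ (kerM μ ρ) K ε₁ m δ C x₀) :
    ∃ ε₂ > 0, ∃ m' > 0, ε₂ ≤ ε₁ ∧ ∀ ε, 0 ≤ ε → ε < ε₂ → ∀ x y,
      m' * ‖x - y‖ ≤ ‖hm (kerM μ ρ) K ε x - hm (kerM μ ρ) K ε y‖ := by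
  have : ProperSpace E := FiniteDimensional.proper_real E
  -- lower bound away from the diagonal
  obtain ⟨c, hc0, hcb⟩ : ∃ c > 0, ∀ x y : E, ‖x‖ = 1 → ‖y‖ ≤ 1 → δ ≤ ‖x - y‖ →
      2 * c ≤ ‖K x - K y‖ := by
    set S : Set (E × E) := {p | ‖p.1‖ = 1 ∧ ‖p.2‖ ≤ 1 ∧ δ ≤ ‖p.1 - p.2‖} with hS
    have hSc : IsCompact S := by
      have h1 : IsClosed S := by
        have a1 : IsClosed {p : E × E | ‖p.1‖ = 1} := isClosed_eq (by fun_prop) (by fun_prop)
        have a2 : IsClosed {p : E × E | ‖p.2‖ ≤ 1} := isClosed_le (by fun_prop) (by fun_prop)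
        have a3 : IsClosed {p : E × E | δ ≤ ‖p.1 - p.2‖} :=
          isClosed_le (by fun_prop) (by fun_prop)
        exact a1.inter (a2.inter a3)
      refine ((isCompact_closedBall (0 : E) 1).prod (isCompact_closedBall (0 : E) 1)).of_isClosed_subset
        h1 ?_
      rintro ⟨x, y⟩ ⟨hx, hy, -⟩
      simp only at hx hy
      exact ⟨by simp [hx], by simpa using hy⟩
    rcases S.eq_empty_or_nonempty with he | hne
    · refine ⟨1, one_pos, fun x y hx hy hxy => ?_⟩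
      have : (x, y) ∈ S := ⟨hx, hy, hxy⟩
      rw [he] at this
      exact absurd this (notMem_empty _)
    · have hcont : Continuous fun p : E × E => ‖K p.1 - K p.2‖ :=
        ((hL.continuous.comp continuous_fst).sub (hL.continuous.comp continuous_snd)).norm
      obtain ⟨p, hp, hmin⟩ := hSc.exists_isMinOn hne hcont.continuousOn
      have hpos : 0 < ‖K p.1 - K p.2‖ := by
        rw [norm_pos_iff, sub_ne_zero]
        intro he
        have h1 := hi he
        have h2 := hp.2.2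
        rw [h1, sub_self, norm_zero] at h2
        linarith
      refine ⟨‖K p.1 - K p.2‖ / 2, by positivity, fun x y hx hy hxy => ?_⟩
      have : (x, y) ∈ S := ⟨hx, hy, hxy⟩
      have := hmin this
      simp only [mem_ofPred_eq] at this
      linarith
  set ε₂ := min ε₁ (c / (2 * L + 1)) with hε₂
  have hε₂0 : 0 < ε₂ := lt_min hε₁ (by positivity)
  refine ⟨ε₂, hε₂0, min m (c / 2), lt_min hm0 (by positivity), min_le_left _ _, ?_⟩
  intro ε h0 hε
  have hε1 : ε < ε₁ := hε.trans_le (min_le_left _ _)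
  have hε2 : ε < c / (2 * L + 1) := hε.trans_le (min_le_right _ _)
  refine (hm_conic hc ε).lower ?_
  intro x y hx hy
  obtain ⟨C, hC⟩ := h x (by simpa using hx)
  by_cases hxy : ‖x - y‖ < δ
  · obtain ⟨A, hA, hAe⟩ := hC.seg hd hL hε₁ h0 hε1 (mem_ball_self hδ)
      (show y ∈ ball x δ by rwa [mem_ball, dist_comm, dist_eq_norm])
    rw [hAe]
    refine le_trans ?_ ((hC.low A hA).2 _)
    gcongr
    exact min_le_left _ _
  · push Not at hxy
    have h1 := hcb x y hx hy hxy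
    have hk := hd.ker
    have h2 := hm_lipt hk hL ε 0 x
    have h3 := hm_lipt hk hL ε 0 y
    rw [hm_zero hk, sub_zero, abs_of_nonneg h0] at h2 h3
    have hL0 : (0:ℝ) ≤ L := L.coe_nonneg
    have h2' : ‖hm (kerM μ ρ) K ε x - K x‖ ≤ L * ε := by
      refine h2.trans ?_
      rw [hx, mul_one]
    have h3' : ‖hm (kerM μ ρ) K ε y - K y‖ ≤ L * ε := by
      refine h3.trans ?_
      calc (L:ℝ) * ε * ‖y‖ ≤ L * ε * 1 := by gcongr
        _ = _ := mul_one _
    have h4 : (L:ℝ) * ε ≤ c / 2 := by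
      rw [lt_div_iff₀ (by positivity)] at hε2
      nlinarith
    have h5 : ‖K x - K y‖ ≤ ‖hm (kerM μ ρ) K ε x - hm (kerM μ ρ) K ε y‖ + 2 * (L * ε) := by
      calc ‖K x - K y‖ = ‖(hm (kerM μ ρ) K ε x - hm (kerM μ ρ) K ε y)
            - (hm (kerM μ ρ) K ε x - K x) + (hm (kerM μ ρ) K ε y - K y)‖ := by
            congr 1; abel
        _ ≤ ‖(hm (kerM μ ρ) K ε x - hm (kerM μ ρ) K ε y)
            - (hm (kerM μ ρ) K ε x - K x)‖ + ‖hm (kerM μ ρ) K ε y - K y‖ := norm_add_le _ _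
        _ ≤ ‖hm (kerM μ ρ) K ε x - hm (kerM μ ρ) K ε y‖
            + ‖hm (kerM μ ρ) K ε x - K x‖ + ‖hm (kerM μ ρ) K ε y - K y‖ := by
            gcongr; exact norm_sub_le _ _
        _ ≤ _ := by linarith
    have h6 : ‖x - y‖ ≤ 2 := by
      calc ‖x - y‖ ≤ ‖x‖ + ‖y‖ := norm_sub_le _ _
        _ ≤ 2 := by linarith
    calc min m (c / 2) * ‖x - y‖ ≤ (c / 2) * 2 := by
          gcongr
          exact min_le_right _ _
      _ ≤ _ := by linarith

omit [FiniteDimensional ℝ E] [MeasurableSpace E] [BorelSpace E] in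
/-- the derivative of a conic map is invariant under dilations -/
lemma Conic.fderiv_smul {f : E → E} (hc : Conic f) {c : ℝ} (hc0 : 0 < c) (x : E) :
    fderiv ℝ f (c • x) = fderiv ℝ f x := by
  have h1 : fderiv ℝ (fun y => f (c • y)) x = c • fderiv ℝ f (c • x) := fderiv_comp_smul c
  have h2 : (fun y => f (c • y)) = c • f := by
    funext y; simp [hc c hc0.le]
  rw [h2, fderiv_const_smul_field] at h1
  have h3 := congrArg (fun A : E →L[ℝ] E => c⁻¹ • A) h1
  simp only [Pi.smul_apply, smul_smul, inv_mul_cancel₀ hc0.ne', one_smul] at h3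
  exact h3.symm

/-- the cone condition at an arbitrary point `x₀ ≠ 0` -/
theorem Cone.scale [μ.IsAddHaarMeasure] {ν : Measure E} {K : E → E} (hc : Conic K)
    {ε₁ m δ : ℝ} {C : Set (E →L[ℝ] E)} {x₀ : E} (hx₀ : x₀ ≠ 0)
    (h : Cone μ ν K ε₁ m δ C (‖x₀‖⁻¹ • x₀)) : Cone μ ν K ε₁ m (‖x₀‖ * δ) C x₀ := by
  have hx0 : 0 < ‖x₀‖ := norm_pos_iff.2 hx₀
  have hball : ∀ x ∈ ball x₀ (‖x₀‖ * δ), ‖x₀‖⁻¹ • x ∈ ball (‖x₀‖⁻¹ • x₀) δ := by
    intro x hx
    rw [mem_ball, dist_eq_norm] at hx ⊢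
    rw [← smul_sub, norm_smul, norm_inv, norm_norm, inv_mul_lt_iff₀ hx0]
    exact hx
  refine ⟨h.conv, h.comp, h.low, fun ε h0 hε x hx => ?_, ?_, ?_⟩
  · have h1 := h.mem ε h0 hε _ (hball x hx)
    rwa [(hm_conic hc ε).fderiv_smul (inv_pos.2 hx0)] at h1
  · have h1 := ae_comp (μ := μ) (P := fun x => x ∈ ball (‖x₀‖⁻¹ • x₀) δ → fderiv ℝ K x ∈ C)
      h.ae 0 (c := -‖x₀‖⁻¹) (by
        have := (inv_pos.2 hx0).ne'
        exact neg_ne_zero.2 this)
    filter_upwards [h1] with x hx hxb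
    have e : (0:E) - (-‖x₀‖⁻¹) • x = ‖x₀‖⁻¹ • x := by rw [neg_smul]; simp
    rw [e] at hx
    have h2 := hx (hball x hxb)
    rwa [hc.fderiv_smul (inv_pos.2 hx0)] at h2
  · have h1 := h.far
    rw [norm_smul, norm_inv, norm_norm, inv_mul_cancel₀ hx0.ne'] at h1
    calc ‖x₀‖ * δ ≤ ‖x₀‖ * 1 := by gcongr
      _ = ‖x₀‖ := mul_one _

omit [MeasurableSpace E] [BorelSpace E] in
/-- surjectivity of the homogeneous mollification -/
theorem surjective_of_lower {f : E → E} (hE : 1 < Module.finrank ℝ E) (hc : Conic f) {b : ℝ≥0}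
    (hb : LipschitzWith b f) {m : ℝ} (hm : 0 < m) (hlow : ∀ x y, m * ‖x - y‖ ≤ ‖f x - f y‖)
    (hs : ∀ x, x ≠ 0 → ContDiffAt ℝ ∞ f x) (hdet : ∀ x, x ≠ 0 → 0 < (fderiv ℝ f x).det) :
    Function.Surjective f := by
  have hanti : AntilipschitzWith (⟨m⁻¹, (inv_pos.2 hm).le⟩ : ℝ≥0) f := by
    refine AntilipschitzWith.of_le_mul_dist fun x y => ?_
    rw [dist_eq_norm, dist_eq_norm]
    show ‖x - y‖ ≤ m⁻¹ * ‖f x - f y‖
    rw [le_inv_mul_iff₀ hm]
    exact hlow x y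
  have hinj : Function.Injective f := hanti.injective
  have hcl : IsClosed (range f) := hanti.isClosed_range hb.uniformContinuous
  have hopen : IsOpen (f '' {0}ᶜ) := by
    rw [isOpen_iff_mem_nhds]
    rintro _ ⟨x, hx, rfl⟩
    have hx' : x ≠ 0 := hx
    have h1 : HasStrictFDerivAt f (((fderiv ℝ f x).toContinuousLinearEquivOfDetNeZero
        (hdet x hx').ne' : E ≃L[ℝ] E) : E →L[ℝ] E) x := by
      have := (hs x hx').hasStrictFDerivAt (by simp)
      simpa using this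
    rw [← h1.map_nhds_eq_of_equiv]
    exact image_mem_map (isOpen_compl_singleton.mem_nhds hx)
  have hrank : 1 < Module.rank ℝ E := by
    rw [← Module.finrank_eq_rank]; exact_mod_cast hE
  have hconn : IsPreconnected ({0}ᶜ : Set E) :=
    (isConnected_compl_singleton_of_one_lt_rank hrank 0).isPreconnected
  have hnt : Nontrivial E := Module.nontrivial_of_finrank_pos (R := ℝ) (by omega)
  obtain ⟨x₀, hx₀⟩ := exists_ne (0 : E)
  have hne : ∀ x, x ≠ 0 → f x ≠ 0 := fun x hx he => hx (hinj (by rw [he, hc.zero]))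
  have hsub : ({0}ᶜ : Set E) ⊆ f '' {0}ᶜ := by
    refine hconn.subset_of_closure_inter_subset hopen
      ⟨f x₀, hne x₀ hx₀, mem_image_of_mem f hx₀⟩ ?_
    rintro y ⟨hy, hy0⟩
    have h1 : y ∈ range f := closure_minimal (image_subset_range _ _) hcl hy
    obtain ⟨x, rfl⟩ := h1
    refine mem_image_of_mem f ?_
    rintro rfl
    exact hy0 hc.zero
  intro y
  by_cases hy : y = 0
  · exact ⟨0, by rw [hc.zero, hy]⟩
  · obtain ⟨x, -, hx⟩ := hsub (show y ∈ ({0}ᶜ : Set E) from hy)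
    exact ⟨x, hx⟩

/-- clamp to `[0,1]` -/
noncomputable def clamp (t : ℝ) : ℝ := max 0 (min t 1)

lemma clamp_nonneg (t : ℝ) : 0 ≤ clamp t := le_max_left _ _

lemma clamp_le (t : ℝ) : clamp t ≤ 1 := max_le zero_le_one (min_le_right _ _)

lemma clamp_of_nonpos {t : ℝ} (h : t ≤ 0) : clamp t = 0 := by
  rw [clamp, min_eq_left (by linarith), max_eq_left h]

lemma clamp_of_one_le {t : ℝ} (h : 1 ≤ t) : clamp t = 1 := by
  rw [clamp, min_eq_right h, max_eq_right zero_le_one]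

lemma clamp_pos {t : ℝ} (h : 0 < t) : 0 < clamp t := lt_max_of_lt_right (lt_min h one_pos)

lemma clamp_lip (s t : ℝ) : |clamp s - clamp t| ≤ |s - t| := by
  have h1 : |clamp s - clamp t| ≤ |min s 1 - min t 1| := by
    have := abs_max_sub_max_le_max (0:ℝ) (min s 1) 0 (min t 1)
    simpa [clamp] using this
  have h2 : |min s 1 - min t 1| ≤ |s - t| := by
    have := abs_min_sub_min_le_max s 1 t 1
    simpa using this
  exact h1.trans h2

/-- **C3-HM.** A conic homeomorphism which is `Moll` off the origin is the end point of a Lipschitz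
family of conic bi-Lipschitz homeomorphisms, smooth off the origin with positive determinant for
`t > 0`, uniformly in the convex class. -/
theorem exists_family (μ : Measure E) [μ.IsAddHaarMeasure] (hE : 1 < Module.finrank ℝ E)
    {K : E → E} (hK : IsHomeomorph K)
    (hc : ∀ c : ℝ, 0 ≤ c → ∀ x, K (c • x) = c • K x) (hM : ∀ x, x ≠ 0 → MollAt μ K x) :
    ∃ F : Vx_270.Fam E, (∀ x, F.G.N x = ‖x‖) ∧ (∀ t ≤ 0, F.K t = K) ∧
      (∀ t, 1 ≤ t → F.K t = F.K 1) ∧ (∀ t > 0, ContDiffOn ℝ ∞ (F.K t) {0}ᶜ) ∧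
      (∀ t > 0, ∀ x, x ≠ 0 → 0 < (fderiv ℝ (F.K t) x).det) ∧
      ∀ x₀, x₀ ≠ 0 → ∃ r > 0, ∃ C : Set (E →L[ℝ] E), Convex ℝ C ∧ IsCompact C ∧
        (∀ A ∈ C, 0 < A.det) ∧
        (∀ t, ∀ x ∈ ball x₀ r, ∀ y ∈ ball x₀ r, ∃ A ∈ C, F.K t x - F.K t y = A (x - y)) ∧
        ∀ t, ∀ᵐ y ∂μ, y ∈ ball x₀ r → fderiv ℝ (F.K t) y ∈ C := by
  have hcc : Conic K := hc
  obtain ⟨L, hL⟩ := exists_lip hK.continuous hcc hM
  obtain ⟨ρ, hd⟩ := exists_dens μ
  have hk := hd.ker
  obtain ⟨ε₁, hε₁, m, hm0, δ, hδ, hcone⟩ := exists_cone hk hL hM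
  obtain ⟨ε₂, hε₂, m', hm', hε₂₁, hlow⟩ :=
    exists_lower hd hL hcc hK.injective hε₁ hm0 hδ hcone
  set ν := kerM μ ρ with hν
  set ε₀ := ε₂ / 2 with hε₀
  have hε₀0 : 0 < ε₀ := by positivity
  set e : ℝ → ℝ := fun t => ε₀ * clamp t with he
  have he0 : ∀ t, 0 ≤ e t := fun t => mul_nonneg hε₀0.le (clamp_nonneg t)
  have he2 : ∀ t, e t < ε₂ := fun t => by
    calc ε₀ * clamp t ≤ ε₀ * 1 := by gcongr; exact clamp_le t
      _ < ε₂ := by rw [hε₀]; linarith
  have hcone' : ∀ x₀ : E, x₀ ≠ 0 → ∃ C, Cone μ ν K ε₁ m (‖x₀‖ * δ) C x₀ := by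
    intro x₀ hx₀
    have hx0 : 0 < ‖x₀‖ := norm_pos_iff.2 hx₀
    obtain ⟨C, hC⟩ := hcone (‖x₀‖⁻¹ • x₀) (by simp [norm_smul, hx0.ne'])
    exact ⟨C, hC.scale hcc hx₀⟩
  have hdet : ∀ ε, 0 < ε → ε < ε₂ → ∀ x : E, x ≠ 0 → 0 < (fderiv ℝ (hm ν K ε) x).det := by
    intro ε h0 hε x hx
    obtain ⟨C, hC⟩ := hcone' x hx
    exact (hC.low _ (hC.mem ε h0 (hε.trans_le hε₂₁) x
      (mem_ball_self (mul_pos (norm_pos_iff.2 hx) hδ)))).1
  have hlipn : ∀ ε, 0 ≤ ε → ε < ε₂ → ∀ x y,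
      ‖hm ν K ε x - hm ν K ε y‖ ≤ L * (1 + ε₂) * ‖x - y‖ := by
    intro ε h0 hε x y
    refine (hm_lip hk hL ε x y).trans ?_
    rw [abs_of_nonneg h0]
    gcongr
  have hbij : ∀ ε, 0 ≤ ε → ε < ε₂ → Function.Bijective (hm ν K ε) := by
    intro ε h0 hε
    rcases h0.eq_or_lt with h0' | h0'
    · rw [← h0', hm_zero hk]; exact hK.bijective
    · have hlw := hlow ε h0 hε
      refine ⟨fun x y hxy => ?_, ?_⟩
      · have := hlw x y
        rw [hxy, sub_self, norm_zero] at this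
        have h1 : ‖x - y‖ ≤ 0 := by
          by_contra hcon
          push Not at hcon
          nlinarith
        exact sub_eq_zero.1 (norm_le_zero_iff.1 h1)
      · have hb : LipschitzWith (⟨L * (1 + ε₂), by positivity⟩ : ℝ≥0) (hm ν K ε) :=
          LipschitzWith.of_dist_le_mul fun x y => by
            rw [dist_eq_norm, dist_eq_norm]; exact hlipn ε h0 hε x y
        exact surjective_of_lower hE (hm_conic hcc ε) hb hm' hlw
          (fun x hx => hm_contDiffAt hd hL.continuous h0' hx) (hdet ε h0' hε)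
  have hbe : ∀ t, Function.Bijective (hm ν K (e t)) := fun t => hbij _ (he0 t) (he2 t)
  let J : ℝ → E → E := fun t => (Equiv.ofBijective _ (hbe t)).symm
  have hJK : ∀ t x, J t (hm ν K (e t) x) = x := fun t x =>
    (Equiv.ofBijective _ (hbe t)).symm_apply_apply x
  have hKJ : ∀ t x, hm ν K (e t) (J t x) = x := fun t x =>
    (Equiv.ofBijective _ (hbe t)).apply_symm_apply x
  let M : ℝ := 1 + L * (1 + ε₂) + m'⁻¹ + L * ε₀
  have hM0 : 0 ≤ L * (1 + ε₂) := by positivity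
  have hM1 : 0 ≤ m'⁻¹ := by positivity
  have hM2 : 0 ≤ L * ε₀ := by positivity
  let F : Vx_270.Fam E :=
    { K := fun t => hm ν K (e t)
      J := J
      M := M
      hM := by simp only [M]; linarith
      hom := fun t c x hc0 => hm_conic hcc (e t) c hc0.le x
      JK := hJK
      KJ := hKJ
      lipK := fun t x y => by
        refine (hlipn (e t) (he0 t) (he2 t) x y).trans ?_
        refine mul_le_mul_of_nonneg_right ?_ (norm_nonneg _)
        simp only [M]; linarith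
      lipJ := fun t x y => by
        have h1 := hlow (e t) (he0 t) (he2 t) (J t x) (J t y)
        rw [hKJ, hKJ] at h1
        have h2 : ‖J t x - J t y‖ ≤ m'⁻¹ * ‖x - y‖ := by
          rw [le_inv_mul_iff₀ hm']; exact h1
        refine h2.trans (mul_le_mul_of_nonneg_right ?_ (norm_nonneg _))
        simp only [M]; linarith
      G := Vx_270.Gauge.ofNorm E
      lipt := fun s t x => by
        have h1 := hm_lipt hk hL (e s) (e t) x
        have h2 : |e s - e t| ≤ ε₀ * |s - t| := by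
          simp only [he]
          rw [← mul_sub, abs_mul, abs_of_pos hε₀0]
          exact mul_le_mul_of_nonneg_left (clamp_lip s t) hε₀0.le
        have hL0 : (0:ℝ) ≤ L := L.coe_nonneg
        calc _ ≤ L * |e s - e t| * ‖x‖ := h1
          _ ≤ L * (ε₀ * |s - t|) * ‖x‖ := by gcongr
          _ = (L * ε₀) * |s - t| * ‖x‖ := by ring
          _ ≤ M * |s - t| * ‖x‖ := by
              gcongr
              simp only [M]; linarith }
  have hFK : ∀ t, F.K t = hm ν K (e t) := fun t => rfl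
  have hepos : ∀ t > 0, 0 < e t := fun t ht => mul_pos hε₀0 (clamp_pos ht)
  refine ⟨F, fun x => rfl, fun t ht => ?_, fun t ht => ?_, fun t ht => ?_,
    fun t ht x hx => ?_, fun x₀ hx₀ => ?_⟩
  · rw [hFK]
    simp only [he]
    rw [clamp_of_nonpos ht, mul_zero, hm_zero hk]
  · rw [hFK, hFK]
    simp only [he]
    rw [clamp_of_one_le ht, clamp_of_one_le le_rfl]
  · rw [hFK]
    intro x hx
    exact (hm_contDiffAt hd hL.continuous (hepos t ht) hx).contDiffWithinAt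
  · rw [hFK]
    exact hdet _ (hepos t ht) (he2 t) x hx
  · obtain ⟨C, hC⟩ := hcone' x₀ hx₀
    have hr : 0 < ‖x₀‖ * δ := mul_pos (norm_pos_iff.2 hx₀) hδ
    refine ⟨‖x₀‖ * δ, hr, C, hC.conv, hC.comp, fun A hA => (hC.low A hA).1, ?_, ?_⟩
    · intro t x hx y hy
      rw [hFK]
      exact hC.seg hd hL hε₁ (he0 t) ((he2 t).trans_le hε₂₁) hx hy
    · intro t
      rw [hFK]
      rcases (he0 t).eq_or_lt with h0 | h0
      · rw [← h0, hm_zero hk]; exact hC.ae
      · exact Eventually.of_forall fun y hy => hC.mem _ h0 ((he2 t).trans_le hε₂₁) y hy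

/-- the family in the format `Fam.Mo` of helper270 -/
theorem exists_mo (μ : Measure E) [μ.IsAddHaarMeasure] (hE : 1 < Module.finrank ℝ E)
    {K : E → E} (hK : IsHomeomorph K)
    (hc : ∀ c : ℝ, 0 ≤ c → ∀ x, K (c • x) = c • K x) (hM : ∀ x, x ≠ 0 → MollAt μ K x) :
    ∃ F : Vx_270.Fam E, F.Mo μ ∧ (∀ x, F.G.N x = ‖x‖) ∧ F.K 0 = K ∧
      ContDiffOn ℝ ∞ (F.K 1) {0}ᶜ ∧ ∀ x, x ≠ 0 → 0 < (fderiv ℝ (F.K 1) x).det := by
  obtain ⟨F, hG, h0, h1, hs, hdet, hloc⟩ := exists_family μ hE hK hc hM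
  obtain ⟨L, hL⟩ := exists_lip hK.continuous hc hM
  refine ⟨F, ⟨fun t ht => by rw [h0 t ht, h0 0 le_rfl], h1, ?_⟩, hG, h0 0 le_rfl,
    hs 1 one_pos, hdet 1 one_pos⟩
  intro t₀ _ x₀ hx₀
  have hne : x₀ ≠ 0 := by
    rintro rfl; simp at hx₀
  obtain ⟨r, hr, C, hC1, hC2, hC3, -, hC5⟩ := hloc x₀ hne
  refine ⟨min r 1, lt_min hr one_pos, C, hC1, hC2, hC3, ?_⟩
  have hae : ∀ᵐ x ∂μ, DifferentiableAt ℝ K x := hL.ae_differentiableAt
  have hpos : ∀ t > 0, ∀ x ∈ ball x₀ (min r 1), x ≠ 0 ∧ DifferentiableAt ℝ (F.K t) x ∧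
      fderiv ℝ (F.K t) x ∈ C := by
    intro t ht x hx
    have hx0 : x ≠ 0 := by
      rintro rfl
      rw [mem_ball, dist_comm, dist_zero_right, hx₀] at hx
      linarith [min_le_right r 1]
    have hxr : x ∈ ball x₀ r := ball_subset_ball (min_le_left _ _) hx
    have hd : ContDiffAt ℝ ∞ (F.K t) x := (hs t ht).contDiffAt (isOpen_compl_singleton.mem_nhds hx0)
    refine ⟨hx0, hd.differentiableAt (by simp), ?_⟩
    -- continuity of the derivative and density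
    have hcont : ContinuousAt (fderiv ℝ (F.K t)) x :=
      hd.continuousAt_fderiv (by simp)
    by_contra hcon
    have hopen : ∀ᶠ y in 𝓝 x, fderiv ℝ (F.K t) y ∉ C ∧ y ∈ ball x₀ r :=
      (hcont.eventually (hC2.isClosed.isOpen_compl.mem_nhds hcon)).and
        (isOpen_ball.mem_nhds hxr)
    have hz : μ {y | ¬ (y ∈ ball x₀ r → fderiv ℝ (F.K t) y ∈ C)} = 0 := hC5 t
    have hn : {y | fderiv ℝ (F.K t) y ∉ C ∧ y ∈ ball x₀ r} ∈ 𝓝 x := hopen
    have hp := MeasureTheory.Measure.measure_pos_of_mem_nhds μ hn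
    have hle : μ {y | fderiv ℝ (F.K t) y ∉ C ∧ y ∈ ball x₀ r} ≤ 0 := by
      rw [← hz]
      refine measure_mono fun y hy => ?_
      simp only [mem_ofPred_eq, Classical.not_imp] at hy ⊢
      exact ⟨hy.2, hy.1⟩
    exact absurd hle (not_le.2 hp)
  filter_upwards [hae, hC5 0] with x hx1 hx2 t ht _ hx
  rcases ht.1.eq_or_lt with ht0 | ht0
  · rw [← ht0]
    refine ⟨by rw [h0 0 le_rfl]; exact hx1, hx2 (ball_subset_ball (min_le_left _ _) hx)⟩
  · exact (hpos t ht0 x hx).2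

/-- **C3-HM in the language `CoreAt`**: it suffices to fill smooth conic diffeomorphisms. -/
theorem coreAt_of_smooth (μ : Measure E) [μ.IsAddHaarMeasure] (hE : 1 < Module.finrank ℝ E)
    (h : ∀ G : E → E, IsHomeomorph G → (∀ c : ℝ, 0 ≤ c → ∀ x, G (c • x) = c • G x) →
      ContDiffOn ℝ ∞ G {0}ᶜ → (∀ x, x ≠ 0 → 0 < (fderiv ℝ G x).det) → Vx_270.CoreAt μ G)
    {K : E → E} (hK : IsHomeomorph K) (hc : ∀ c : ℝ, 0 ≤ c → ∀ x, K (c • x) = c • K x)
    (hM : ∀ x, x ≠ 0 → MollAt μ K x) : Vx_270.CoreAt μ K := by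
  obtain ⟨F, hF, hG, h0, h1, h2⟩ := exists_mo μ hE hK hc hM
  rw [← h0]
  refine hF.coreAt (h _ ?_ ?_ h1 h2) hG
  · have hcK : LipschitzWith ⟨F.M, F.M_pos.le⟩ (F.K 1) := LipschitzWith.of_dist_le_mul fun x y => by
      rw [dist_eq_norm, dist_eq_norm]; exact F.lipK 1 x y
    have hcJ : LipschitzWith ⟨F.M, F.M_pos.le⟩ (F.J 1) := LipschitzWith.of_dist_le_mul fun x y => by
      rw [dist_eq_norm, dist_eq_norm]; exact F.lipJ 1 x y
    exact (Homeomorph.mk ⟨F.K 1, F.J 1, F.JK 1, F.KJ 1⟩ hcK.continuous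
      hcJ.continuous).isHomeomorph
  · intro c hc0 x
    rcases hc0.eq_or_lt with h | h
    · rw [← h, zero_smul, zero_smul]; exact F.K_zero 1
    · exact F.hom 1 c x h

end

end Crest.Agent.R096.Hm_695
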