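import Mathlib

/-!
Row 96 (S0127), helper627.  Hole-opening lemma (961 #9403), part 1: radial maps.
-/

set_option autoImplicit false
set_option linter.unusedSectionVars false
set_option linter.style.longLine false

namespace Crest.Agent.R096.Ho_627

open Set Metric

variable {V : Type*} [NormedAddCommGroup V] [InnerProductSpace ℝ V]

/-- radial map with profile `g`. -/
noncomputable def rad (g : ℝ → ℝ) (v : V) : V := (g ‖v‖ / ‖v‖) • v

lemma norm_rad {g : ℝ → ℝ} (h0 : g 0 = 0) (hp : ∀ t, 0 ≤ t → 0 ≤ g t) (v : V) :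
    ‖rad g v‖ = g ‖v‖ := by
  rw [rad, norm_smul, Real.norm_eq_abs, abs_of_nonneg (div_nonneg (hp _ (norm_nonneg v)) (norm_nonneg v))]
  by_cases h : ‖v‖ = 0
  · rw [h, h0]; simp
  · field_simp

lemma inner_rad_le {f g : ℝ → ℝ} (hf0 : f 0 = 0) (hf : ∀ t, 0 ≤ t → 0 ≤ f t) (hg0 : g 0 = 0)
    (hg : ∀ t, 0 ≤ t → 0 ≤ g t) (v w : V) :
    inner ℝ (rad f v) (rad g w) ≤ f ‖v‖ * g ‖w‖ := by
  have h := real_inner_le_norm (rad f v) (rad g w)
  rwa [norm_rad hf0 hf, norm_rad hg0 hg] at h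

lemma inner_rad_self {f g : ℝ → ℝ} (hf0 : f 0 = 0) (v : V) :
    inner ℝ (rad f v) (rad g v) = f ‖v‖ * g ‖v‖ := by
  rw [rad, rad, real_inner_smul_left, real_inner_smul_right, real_inner_self_eq_norm_sq]
  by_cases h : ‖v‖ = 0
  · rw [h, hf0]; simp
  · field_simp

lemma rad_mono {f g : ℝ → ℝ} (hf0 : f 0 = 0) (hf : ∀ t, 0 ≤ t → 0 ≤ f t) (hg0 : g 0 = 0)
    (hg : ∀ t, 0 ≤ t → 0 ≤ g t) (hfm : Monotone f) (hgm : Monotone g) (v w : V) :
    0 ≤ inner ℝ (rad f v - rad f w) (rad g v - rad g w) := by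
  rw [inner_sub_left, inner_sub_right, inner_sub_right, inner_rad_self hf0, inner_rad_self hf0]
  have h1 := inner_rad_le hf0 hf hg0 hg v w
  have h2 := inner_rad_le hf0 hf hg0 hg w v
  have h3 : 0 ≤ (f ‖v‖ - f ‖w‖) * (g ‖v‖ - g ‖w‖) := by
    rcases le_total ‖v‖ ‖w‖ with h | h
    · exact mul_nonneg_of_nonpos_of_nonpos (sub_nonpos.2 (hfm h)) (sub_nonpos.2 (hgm h))
    · exact mul_nonneg (sub_nonneg.2 (hfm h)) (sub_nonneg.2 (hgm h))
  nlinarith

lemma rad_lip {g : ℝ → ℝ} {K : ℝ} (hK : 0 ≤ K) (h0 : g 0 = 0) (hp : ∀ t, 0 ≤ t → 0 ≤ g t)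
    (hl : ∀ a b, |g a - g b| ≤ K * |a - b|) (v w : V) :
    ‖rad g v - rad g w‖ ≤ K * ‖v - w‖ := by
  have hle : ∀ t, 0 ≤ t → g t ≤ K * t := by
    intro t ht
    have := hl t 0
    rw [h0, sub_zero, sub_zero, abs_of_nonneg (hp t ht), abs_of_nonneg ht] at this
    exact this
  by_cases hv : ‖v‖ = 0
  · have hv' := norm_eq_zero.1 hv
    have hr : rad g v = 0 := by rw [hv', rad]; simp
    rw [hr, hv', zero_sub, zero_sub, norm_neg, norm_neg, norm_rad h0 hp]
    exact hle _ (norm_nonneg _)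
  by_cases hw : ‖w‖ = 0
  · have hw' := norm_eq_zero.1 hw
    have hr : rad g w = 0 := by rw [hw', rad]; simp
    rw [hr, hw', sub_zero, sub_zero, norm_rad h0 hp]
    exact hle _ (norm_nonneg _)
  have ha : 0 < ‖v‖ := lt_of_le_of_ne (norm_nonneg _) (Ne.symm hv)
  have hb : 0 < ‖w‖ := lt_of_le_of_ne (norm_nonneg _) (Ne.symm hw)
  have hga := hp _ ha.le
  have hgb := hp _ hb.le
  have hla := hle _ ha.le
  have hlb := hle _ hb.le
  have hc := real_inner_le_norm v w
  have hlab := hl ‖v‖ ‖w‖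
  set a := ‖v‖ with hadef
  set b := ‖w‖ with hbdef
  set c := inner ℝ v w with hcdef
  have hsq : (K * |a - b|) ^ 2 = K ^ 2 * (a - b) ^ 2 := by rw [mul_pow, sq_abs]
  have h1 : (g a - g b) ^ 2 ≤ K ^ 2 * (a - b) ^ 2 := by
    rw [← hsq, ← sq_abs (g a - g b)]
    exact pow_le_pow_left₀ (abs_nonneg _) hlab 2
  -- kappa
  set k : ℝ := (g a / a) * (g b / b) with hk
  have hkab : k * (a * b) = g a * g b := by rw [hk]; field_simp
  have hkK : k ≤ K ^ 2 := by
    have e1 : g a / a ≤ K := by rw [div_le_iff₀ ha]; exact hla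
    have e2 : g b / b ≤ K := by rw [div_le_iff₀ hb]; exact hlb
    have e3 : 0 ≤ g b / b := div_nonneg hgb hb.le
    calc k ≤ K * K := mul_le_mul e1 e2 e3 hK
      _ = K ^ 2 := by ring
  have h2 : ‖rad g v - rad g w‖ ^ 2 = g a ^ 2 + g b ^ 2 - 2 * (k * c) := by
    rw [norm_sub_sq_real, norm_rad h0 hp, norm_rad h0 hp, rad, rad, real_inner_smul_left,
      real_inner_smul_right, hk]
    ring
  have h3 : ‖v - w‖ ^ 2 = a ^ 2 + b ^ 2 - 2 * c := by
    rw [norm_sub_sq_real]; ring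
  have h4 : ‖rad g v - rad g w‖ ^ 2 ≤ (K * ‖v - w‖) ^ 2 := by
    rw [h2, mul_pow, h3]
    have h5 : 0 ≤ (K ^ 2 - k) * (a * b - c) := mul_nonneg (sub_nonneg.2 hkK) (sub_nonneg.2 hc)
    nlinarith
  exact le_of_sq_le_sq h4 (mul_nonneg hK (norm_nonneg _))

/-- profile of the ball retraction. -/
noncomputable def capf (s t : ℝ) : ℝ := max 0 (min t s)

/-- profile of the collapse. -/
noncomputable def colf (s t : ℝ) : ℝ := max 0 (min t (2 * t - 2 * s))

section
variable {s : ℝ}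

lemma capf_zero (hs : 0 ≤ s) : capf s 0 = 0 := by simp [capf, hs]
lemma colf_zero (_hs : 0 ≤ s) : colf s 0 = 0 := by
  unfold colf; rw [max_eq_left]; apply min_le_of_left_le; exact le_rfl
lemma capf_nonneg (t : ℝ) : 0 ≤ capf s t := le_max_left _ _
lemma colf_nonneg (t : ℝ) : 0 ≤ colf s t := le_max_left _ _
lemma capf_mono : Monotone (capf s) := fun _ _ h =>
  max_le_max le_rfl (min_le_min h le_rfl)
lemma colf_mono : Monotone (colf s) := fun a b h =>
  max_le_max le_rfl (min_le_min h (by linarith))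
lemma capf_lip (a b : ℝ) : |capf s a - capf s b| ≤ 1 * |a - b| := by
  rw [one_mul]
  calc |capf s a - capf s b| ≤ |min a s - min b s| := by
        have := abs_max_sub_max_le_max 0 (min a s) 0 (min b s)
        simpa [capf] using this
    _ ≤ |a - b| := by
        have := abs_min_sub_min_le_max a s b s
        simpa using this
lemma colf_lip (a b : ℝ) : |colf s a - colf s b| ≤ 2 * |a - b| := by
  calc |colf s a - colf s b| ≤ |min a (2 * a - 2 * s) - min b (2 * b - 2 * s)| := by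
        have := abs_max_sub_max_le_max 0 (min a (2 * a - 2 * s)) 0 (min b (2 * b - 2 * s))
        simpa [colf] using this
    _ ≤ max |a - b| |2 * a - 2 * s - (2 * b - 2 * s)| := abs_min_sub_min_le_max _ _ _ _
    _ ≤ 2 * |a - b| := by
        apply max_le
        · linarith [abs_nonneg (a - b)]
        · have : 2 * a - 2 * s - (2 * b - 2 * s) = 2 * (a - b) := by ring
          rw [this, abs_mul]; simp

lemma capf_le (hs : 0 ≤ s) (t : ℝ) : capf s t ≤ s := max_le hs (min_le_right _ _)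
lemma capf_of_le {t : ℝ} (ht : 0 ≤ t) (h : t ≤ s) : capf s t = t := by
  rw [capf, min_eq_left h, max_eq_right ht]
lemma capf_of_ge (hs : 0 ≤ s) {t : ℝ} (h : s ≤ t) : capf s t = s := by
  rw [capf, min_eq_right h, max_eq_right hs]
lemma colf_of_le {t : ℝ} (h : t ≤ s) : colf s t = 0 := by
  rw [colf, max_eq_left]
  exact min_le_of_right_le (by linarith)
lemma colf_of_ge (hs : 0 ≤ s) {t : ℝ} (h : 2 * s ≤ t) : colf s t = t := by
  rw [colf, min_eq_left (by linarith), max_eq_right (by linarith)]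
lemma colf_pos {t : ℝ} (hs : 0 ≤ s) (h : s < t) : 0 < colf s t := by
  rw [colf]
  exact lt_max_of_lt_right (lt_min (by linarith) (by linarith))
lemma colf_le {t : ℝ} (ht : 0 ≤ t) : colf s t ≤ t := max_le ht (min_le_left _ _)
lemma colf_ge {t : ℝ} (hs : 0 ≤ s) : t - s ≤ colf s t := by
  rw [colf]
  rcases le_total t s with h | h
  · exact le_max_of_le_left (by linarith)
  · exact le_max_of_le_right (le_min (by linarith) (by linarith))
lemma colf_strict {a b : ℝ} (ha : s < a) (hab : a < b) (hs : 0 ≤ s) : colf s a < colf s b := by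
  rw [colf, colf, max_eq_right (le_min (by linarith) (by linarith)),
    max_eq_right (le_min (by linarith) (by linarith))]
  exact lt_min (lt_of_le_of_lt (min_le_left _ _) hab)
    (lt_of_le_of_lt (min_le_right _ _) (by linarith))
end

end Crest.Agent.R096.Ho_627
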