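import Crest.Agent.R096.Ho1_627

/-!
Row 96 (S0127), helper627.  Hole-opening lemma (961 #9403), part 2: the collapse of a separated
family of balls and its subgradients.
-/

set_option autoImplicit false
set_option linter.unusedSectionVars false
set_option linter.style.longLine false

namespace Crest.Agent.R096.Ho_627

open Set Metric

variable {V : Type*} [NormedAddCommGroup V] [InnerProductSpace ℝ V] {ι : Type*}
variable {yc : ι → V} {s : ι → ℝ}

/-- separated family of balls. -/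
structure Sep (yc : ι → V) (s : ι → ℝ) : Prop where
  pos : ∀ c, 0 < s c
  sep : ∀ c c', c ≠ c' → 8 * s c + 8 * s c' < ‖yc c - yc c'‖

lemma rad_colf_ge {t : ℝ} (ht : 0 ≤ t) {v : V} (h : 2 * t ≤ ‖v‖) : rad (colf t) v = v := by
  rw [rad, colf_of_ge ht h]
  by_cases hv : ‖v‖ = 0
  · rw [norm_eq_zero.1 hv]; simp
  · rw [div_self hv, one_smul]

lemma rad_colf_le {t : ℝ} {v : V} (h : ‖v‖ ≤ t) : rad (colf t) v = 0 := by
  rw [rad, colf_of_le h]; simp

lemma rad_capf_le {t : ℝ} {v : V} (h : ‖v‖ ≤ t) : rad (capf t) v = v := by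
  rw [rad, capf_of_le (norm_nonneg v) h]
  by_cases hv : ‖v‖ = 0
  · rw [norm_eq_zero.1 hv]; simp
  · rw [div_self hv, one_smul]

lemma norm_colf {t : ℝ} (ht : 0 ≤ t) (v : V) : ‖rad (colf t) v‖ = colf t ‖v‖ :=
  norm_rad (colf_zero ht) (fun _ _ => colf_nonneg _) v

lemma norm_capf {t : ℝ} (ht : 0 ≤ t) (v : V) : ‖rad (capf t) v‖ = capf t ‖v‖ :=
  norm_rad (capf_zero ht) (fun _ _ => capf_nonneg _) v

lemma rad_colf_sub {t : ℝ} (ht : 0 ≤ t) (v : V) : ‖rad (colf t) v - v‖ ≤ t := by
  by_cases hv : ‖v‖ = 0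
  · rw [norm_eq_zero.1 hv, rad]; simpa using ht
  have ha : 0 < ‖v‖ := lt_of_le_of_ne (norm_nonneg _) (Ne.symm hv)
  have h1 : rad (colf t) v - v = (colf t ‖v‖ / ‖v‖ - 1) • v := by rw [rad, sub_smul, one_smul]
  rw [h1, norm_smul, Real.norm_eq_abs]
  have h2 : |colf t ‖v‖ / ‖v‖ - 1| * ‖v‖ = |colf t ‖v‖ - ‖v‖| := by
    rw [show colf t ‖v‖ / ‖v‖ - 1 = (colf t ‖v‖ - ‖v‖) / ‖v‖ by field_simp, abs_div,
      abs_of_pos ha]
    field_simp
  rw [h2, abs_le]
  have h3 := colf_ge (t := ‖v‖) ht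
  have h4 := colf_le (s := t) (norm_nonneg v)
  constructor <;> linarith

lemma rad_colf_lip {t : ℝ} (ht : 0 ≤ t) (v w : V) :
    ‖rad (colf t) v - rad (colf t) w‖ ≤ 2 * ‖v - w‖ :=
  rad_lip (by norm_num) (colf_zero ht) (fun _ _ => colf_nonneg _) colf_lip v w

lemma rad_capf_lip {t : ℝ} (ht : 0 ≤ t) (v w : V) :
    ‖rad (capf t) v - rad (capf t) w‖ ≤ ‖v - w‖ := by
  have := rad_lip (by norm_num) (capf_zero ht) (fun _ _ => capf_nonneg _) capf_lip v w
  rwa [one_mul] at this

lemma rad_colf_inj {t : ℝ} (ht : 0 ≤ t) {v w : V} (h : rad (colf t) v = rad (colf t) w)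
    (h0 : rad (colf t) v ≠ 0) : v = w := by
  have hn : colf t ‖v‖ = colf t ‖w‖ := by rw [← norm_colf ht, ← norm_colf ht, h]
  have hp : 0 < colf t ‖v‖ := by rw [← norm_colf ht]; exact norm_pos_iff.2 h0
  have hv : t < ‖v‖ := by
    by_contra hcon
    rw [colf_of_le (not_lt.1 hcon)] at hp
    exact lt_irrefl _ hp
  have hw : t < ‖w‖ := by
    by_contra hcon
    rw [hn, colf_of_le (not_lt.1 hcon)] at hp
    exact lt_irrefl _ hp
  have hvw : ‖v‖ = ‖w‖ := by
    rcases lt_trichotomy ‖v‖ ‖w‖ with hl | hl | hl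
    · exact absurd hn (colf_strict hv hl ht).ne
    · exact hl
    · exact absurd hn (colf_strict hw hl ht).ne'
  rw [rad, rad, ← hvw] at h
  have hk : colf t ‖v‖ / ‖v‖ ≠ 0 := (div_pos hp (lt_of_le_of_lt ht hv)).ne'
  exact smul_right_injective V hk h

open Classical in
/-- collapse of the balls of the subfamily `A`. -/
noncomputable def col (yc : ι → V) (s : ι → ℝ) (A : Set ι) (y : V) : V :=
  if h : ∃ c ∈ A, ‖y - yc c‖ < 2 * s c then
    yc h.choose + rad (colf (s h.choose)) (y - yc h.choose) else y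

lemma Sep.uniq (h : Sep yc s) {c c' : ι} {y : V} (hc : ‖y - yc c‖ < 2 * s c)
    (hc' : ‖y - yc c'‖ < 2 * s c') : c = c' := by
  by_contra hne
  have h1 := h.sep c c' hne
  have h2 : ‖yc c - yc c'‖ ≤ ‖y - yc c‖ + ‖y - yc c'‖ := by
    have : yc c - yc c' = (y - yc c') - (y - yc c) := by abel
    rw [this]
    refine (norm_sub_le _ _).trans ?_
    linarith
  have := h.pos c
  have := h.pos c'
  linarith

lemma col_in (h : Sep yc s) {A : Set ι} {c : ι} {y : V} (hc : c ∈ A)
    (hy : ‖y - yc c‖ < 2 * s c) : col yc s A y = yc c + rad (colf (s c)) (y - yc c) := by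
  have hex : ∃ c ∈ A, ‖y - yc c‖ < 2 * s c := ⟨c, hc, hy⟩
  have hch : hex.choose = c := h.uniq hex.choose_spec.2 hy
  rw [col, dif_pos hex, hch]

lemma col_out {A : Set ι} {y : V} (hy : ∀ c ∈ A, 2 * s c ≤ ‖y - yc c‖) : col yc s A y = y := by
  rw [col, dif_neg]
  rintro ⟨c, hc, hlt⟩
  exact absurd hlt (not_lt.2 (hy c hc))

/-- in the ball of `c` or in no ball at all. -/
lemma col_form (h : Sep yc s) {A : Set ι} {c : ι} {y : V} (hc : c ∈ A)
    (hy : ∀ c' ∈ A, c' ≠ c → 2 * s c' ≤ ‖y - yc c'‖) :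
    col yc s A y = yc c + rad (colf (s c)) (y - yc c) := by
  by_cases hyc : ‖y - yc c‖ < 2 * s c
  · exact col_in h hc hyc
  · rw [col_out, rad_colf_ge (h.pos c).le (not_lt.1 hyc)]
    · abel
    · intro c' hc'
      by_cases hcc : c' = c
      · rw [hcc]; exact not_lt.1 hyc
      · exact hy c' hc' hcc

lemma col_near (h : Sep yc s) {A : Set ι} {c : ι} {y : V} (hc : c ∈ A)
    (hy : ‖y - yc c‖ < 2 * s c) : ‖col yc s A y - y‖ ≤ s c := by
  rw [col_in h hc hy]
  have : yc c + rad (colf (s c)) (y - yc c) - y = rad (colf (s c)) (y - yc c) - (y - yc c) := by abel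
  rw [this]
  exact rad_colf_sub (h.pos c).le _

lemma col_lip (h : Sep yc s) (A : Set ι) (y y' : V) :
    ‖col yc s A y - col yc s A y'‖ ≤ 2 * ‖y - y'‖ := by
  -- two points governed by the same formula
  have key : ∀ c ∈ A, col yc s A y = yc c + rad (colf (s c)) (y - yc c) →
      col yc s A y' = yc c + rad (colf (s c)) (y' - yc c) →
      ‖col yc s A y - col yc s A y'‖ ≤ 2 * ‖y - y'‖ := by
    intro c _ h1 h2
    rw [h1, h2]
    have := rad_colf_lip (h.pos c).le (y - yc c) (y' - yc c)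
    rw [show y - yc c - (y' - yc c) = y - y' by abel] at this
    rw [show yc c + rad (colf (s c)) (y - yc c) - (yc c + rad (colf (s c)) (y' - yc c)) =
      rad (colf (s c)) (y - yc c) - rad (colf (s c)) (y' - yc c) by abel]
    exact this
  by_cases h1 : ∃ c ∈ A, ‖y - yc c‖ < 2 * s c
  · obtain ⟨c, hc, hyc⟩ := h1
    by_cases h2 : ∀ c' ∈ A, c' ≠ c → 2 * s c' ≤ ‖y' - yc c'‖
    · exact key c hc (col_in h hc hyc) (col_form h hc h2)
    · push Not at h2
      obtain ⟨c', hc', hne, hyc'⟩ := h2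
      have e1 := col_near h hc hyc
      have e2 := col_near h hc' hyc'
      have e3 := h.sep c c' (Ne.symm hne)
      have e4 : ‖yc c - yc c'‖ ≤ ‖y - yc c‖ + ‖y - y'‖ + ‖y' - yc c'‖ := by
        have : yc c - yc c' = -(y - yc c) + (y - y') + (y' - yc c') := by abel
        rw [this]
        refine (norm_add₃_le).trans ?_
        rw [norm_neg]
      have e5 : ‖col yc s A y - col yc s A y'‖ ≤ ‖col yc s A y - y‖ + ‖y - y'‖ + ‖col yc s A y' - y'‖ := by
        have : col yc s A y - col yc s A y' = (col yc s A y - y) + (y - y') + -(col yc s A y' - y') := by abel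
        rw [this]
        refine (norm_add₃_le).trans ?_
        rw [norm_neg]
      have := h.pos c
      have := h.pos c'
      linarith
  · push Not at h1
    by_cases h2 : ∃ c ∈ A, ‖y' - yc c‖ < 2 * s c
    · obtain ⟨c, hc, hyc⟩ := h2
      exact key c hc (col_form h hc fun c' hc' _ => h1 c' hc') (col_in h hc hyc)
    · push Not at h2
      rw [col_out h1, col_out h2]
      linarith [norm_nonneg (y - y')]

/-- the position of `y` seen from `c` when the ball of `c` is not collapsed. -/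
noncomputable def pos (yc : ι → V) (s : ι → ℝ) (c : ι) (y : V) : V := col yc s {c}ᶜ y - yc c

/-- the subgradient. -/
noncomputable def xi (yc : ι → V) (s : ι → ℝ) (c : ι) (y : V) : V := rad (capf (s c)) (pos yc s c y)

lemma pos_alt (h : Sep yc s) (c : ι) (y : V) :
    (‖y - yc c‖ < 2 * s c ∧ pos yc s c y = y - yc c) ∨
      (2 * s c ≤ ‖y - yc c‖ ∧ 2 * s c ≤ ‖pos yc s c y‖ ∧ pos yc s c y = col yc s univ y - yc c) := by
  by_cases hy : ‖y - yc c‖ < 2 * s c
  · left
    refine ⟨hy, ?_⟩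
    rw [pos, col_out]
    intro c' hc'
    by_contra hcon
    exact hc' (h.uniq (not_le.1 hcon) hy)
  · right
    have hy' := not_lt.1 hy
    by_cases h2 : ∃ c', c' ≠ c ∧ ‖y - yc c'‖ < 2 * s c'
    · obtain ⟨c', hne, hyc'⟩ := h2
      have e1 : col yc s {c}ᶜ y = yc c' + rad (colf (s c')) (y - yc c') := col_in h hne hyc'
      have e2 : col yc s univ y = yc c' + rad (colf (s c')) (y - yc c') := col_in h (mem_univ _) hyc'
      refine ⟨hy', ?_, by rw [pos, e1, e2]⟩
      rw [pos, e1]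
      have e3 := h.sep c' c hne
      have e4 : ‖rad (colf (s c')) (y - yc c')‖ ≤ 2 * s c' := by
        rw [norm_colf (h.pos c').le]
        exact (colf_le (norm_nonneg _)).trans hyc'.le
      have e5 : ‖yc c' - yc c‖ ≤ ‖yc c' + rad (colf (s c')) (y - yc c') - yc c‖ +
          ‖rad (colf (s c')) (y - yc c')‖ := by
        have : yc c' - yc c = (yc c' + rad (colf (s c')) (y - yc c') - yc c) -
          rad (colf (s c')) (y - yc c') := by abel
        rw [this]
        exact norm_sub_le _ _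
      have := h.pos c
      have := h.pos c'
      linarith
    · push Not at h2
      have e1 : col yc s {c}ᶜ y = y := col_out fun c' hc' => h2 c' hc'
      have e2 : col yc s univ y = y := col_out fun c' _ => by
        by_cases hcc : c' = c
        · rw [hcc]; exact hy'
        · exact h2 c' hcc
      refine ⟨hy', ?_, ?_⟩
      · rw [pos, e1]; exact hy'
      · rw [pos, e1, e2]

lemma col_sub (h : Sep yc s) (c : ι) (y : V) :
    col yc s univ y - yc c = rad (colf (s c)) (pos yc s c y) := by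
  rcases pos_alt h c y with ⟨h1, h2⟩ | ⟨h1, h2, h3⟩
  · rw [h2, col_in h (mem_univ c) h1]; abel
  · rw [rad_colf_ge (h.pos c).le h2, h3]

lemma xi_norm (h : Sep yc s) (c : ι) (y : V) : ‖xi yc s c y‖ ≤ s c := by
  rw [xi, norm_capf (h.pos c).le]
  exact capf_le (h.pos c).le _

lemma xi_lip (h : Sep yc s) (c : ι) (y y' : V) :
    ‖xi yc s c y - xi yc s c y'‖ ≤ 2 * ‖y - y'‖ := by
  refine (rad_capf_lip (h.pos c).le _ _).trans ?_
  have := col_lip h {c}ᶜ y y'
  rw [pos, pos, show col yc s {c}ᶜ y - yc c - (col yc s {c}ᶜ y' - yc c) =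
    col yc s {c}ᶜ y - col yc s {c}ᶜ y' by abel]
  exact this

lemma xi_mono (h : Sep yc s) (c : ι) (y y' : V) :
    0 ≤ inner ℝ (xi yc s c y - xi yc s c y') (col yc s univ y - col yc s univ y') := by
  have e : col yc s univ y - col yc s univ y' =
      rad (colf (s c)) (pos yc s c y) - rad (colf (s c)) (pos yc s c y') := by
    rw [← col_sub h, ← col_sub h]; abel
  rw [e]
  exact rad_mono (capf_zero (h.pos c).le) (fun _ _ => capf_nonneg _) (colf_zero (h.pos c).le)
    (fun _ _ => colf_nonneg _) capf_mono colf_mono _ _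

/-- `xi` is a nonnegative multiple of `z - yc c` unless `z = yc c`. -/
lemma xi_par (h : Sep yc s) (c : ι) (y : V) :
    col yc s univ y = yc c ∨ ∃ k : ℝ, 0 ≤ k ∧ xi yc s c y = k • (col yc s univ y - yc c) := by
  by_cases hz : ‖pos yc s c y‖ ≤ s c
  · left
    have := col_sub h c y
    rw [rad_colf_le hz] at this
    exact sub_eq_zero.1 this
  · right
    have hp := colf_pos (h.pos c).le (not_le.1 hz)
    refine ⟨capf (s c) ‖pos yc s c y‖ / colf (s c) ‖pos yc s c y‖,
      div_nonneg (capf_nonneg _) hp.le, ?_⟩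
    rw [col_sub h, xi, rad, rad, smul_smul]
    congr 1
    field_simp

lemma of_col_eq (h : Sep yc s) {c : ι} {y : V} (hz : col yc s univ y = yc c) :
    ‖y - yc c‖ ≤ s c ∧ xi yc s c y = y - yc c := by
  have h1 := col_sub h c y
  rw [hz, sub_self] at h1
  have h2 : ‖pos yc s c y‖ ≤ s c := by
    by_contra hcon
    have h3 := colf_pos (h.pos c).le (not_le.1 hcon)
    rw [← norm_colf (h.pos c).le, ← h1, norm_zero] at h3
    exact lt_irrefl _ h3
  have hp := h.pos c
  rcases pos_alt h c y with ⟨h3, h4⟩ | ⟨h3, h4, h5⟩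
  · rw [h4] at h2
    exact ⟨h2, by rw [xi, h4, rad_capf_le h2]⟩
  · linarith

lemma of_xi_lt (h : Sep yc s) {c : ι} {y : V} (hx : ‖xi yc s c y‖ < s c) :
    xi yc s c y = y - yc c ∧ col yc s univ y = yc c := by
  rw [xi, norm_capf (h.pos c).le] at hx
  have h2 : ‖pos yc s c y‖ ≤ s c := by
    by_contra hcon
    rw [capf_of_ge (h.pos c).le (not_le.1 hcon).le] at hx
    exact lt_irrefl _ hx
  have hp := h.pos c
  have h6 := col_sub h c y
  rw [rad_colf_le h2] at h6
  rcases pos_alt h c y with ⟨h3, h4⟩ | ⟨h3, h4, h5⟩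
  · exact ⟨by rw [xi, rad_capf_le h2, h4], sub_eq_zero.1 h6⟩
  · linarith

lemma of_ball (h : Sep yc s) {c : ι} {y : V} (hy : ‖y - yc c‖ ≤ s c) :
    xi yc s c y = y - yc c ∧ col yc s univ y = yc c := by
  have hp := h.pos c
  have h1 : ‖y - yc c‖ < 2 * s c := by linarith
  rcases pos_alt h c y with ⟨h3, h4⟩ | ⟨h3, h4, h5⟩
  · refine ⟨by rw [xi, h4, rad_capf_le hy], ?_⟩
    rw [col_in h (mem_univ c) h1, rad_colf_le hy, add_zero]
  · linarith

/-- `col` is injective away from the centres. -/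
lemma col_inj (h : Sep yc s) {y y' : V} (he : col yc s univ y = col yc s univ y')
    (hne : ∀ c, col yc s univ y ≠ yc c) : y = y' := by
  have key : ∀ c, ‖y - yc c‖ < 2 * s c → ∀ c', ‖y' - yc c'‖ < 2 * s c' → y = y' := by
    intro c hc c' hc'
    have e1 := col_in h (mem_univ c) hc
    have e2 := col_in h (mem_univ c') hc'
    have f1 : ‖col yc s univ y - yc c‖ < 2 * s c := by
      rw [e1, add_sub_cancel_left, norm_colf (h.pos c).le]
      exact lt_of_le_of_lt (colf_le (norm_nonneg _)) hc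
    have f2 : ‖col yc s univ y - yc c'‖ < 2 * s c' := by
      rw [he, e2, add_sub_cancel_left, norm_colf (h.pos c').le]
      exact lt_of_le_of_lt (colf_le (norm_nonneg _)) hc'
    have hcc := h.uniq f1 f2
    subst hcc
    have e3 : rad (colf (s c)) (y - yc c) = rad (colf (s c)) (y' - yc c) := by
      have := he
      rw [e1, e2] at this
      exact add_left_cancel this
    have e4 : rad (colf (s c)) (y - yc c) ≠ 0 := by
      intro h0
      rw [h0, add_zero] at e1
      exact hne c e1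
    have := rad_colf_inj (h.pos c).le e3 e4
    exact sub_left_injective this
  -- if one of them is in a ball, so is the other one
  have key2 : ∀ u u' : V, col yc s univ u = col yc s univ u' → (∃ c, ‖u - yc c‖ < 2 * s c) →
      ∃ c', ‖u' - yc c'‖ < 2 * s c' := by
    rintro u u' hu ⟨c, hc⟩
    by_contra hcon
    push Not at hcon
    rw [col_out fun c' _ => hcon c'] at hu
    have e1 := col_in h (mem_univ c) hc
    have f1 : ‖u' - yc c‖ < 2 * s c := by
      rw [← hu, e1, add_sub_cancel_left, norm_colf (h.pos c).le]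
      exact lt_of_le_of_lt (colf_le (norm_nonneg _)) hc
    exact absurd f1 (not_lt.2 (hcon c))
  by_cases h1 : ∃ c, ‖y - yc c‖ < 2 * s c
  · obtain ⟨c', hc'⟩ := key2 y y' he h1
    obtain ⟨c, hc⟩ := h1
    exact key c hc c' hc'
  · have h2 : ¬ ∃ c, ‖y' - yc c‖ < 2 * s c := fun h2 => h1 (key2 y' y he.symm h2)
    push Not at h1 h2
    rw [col_out fun c _ => h1 c, col_out fun c _ => h2 c] at he
    exact he

end Crest.Agent.R096.Ho_627
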