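import Crest.Agent.R096.Ho2_627
import Crest.Agent.R096.ThC6_766
import Crest.Agent.R332.FullTop

/-!
Row 96 (S0127), helper627.  Hole-opening lemma (961 #9403), part 3: data, the implicit equation.
-/

set_option autoImplicit false
set_option linter.unusedSectionVars false
set_option linter.style.longLine false

namespace Crest.Agent.R096.Ho_627

open Set Metric
open Crest.Agent.R096.ThC6_766

variable {V : Type*} [NormedAddCommGroup V] [InnerProductSpace ℝ V] {ι : Type*}

/-- data of the hole-opening lemma: a monotone Lipschitz map `th`, equal to the identity off `L`,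
and a locally finite family of holes: centres `yc c`, radii `R c`. -/
structure Holes (L : Set V) (C : ℝ) (e : V → ℝ) (th : V → V) (yc : ι → V) (R : ι → ℝ) : Prop where
  op : IsOpen L
  sc : Scale L e
  C2 : C ≤ 2
  mono : ∀ y y', 0 ≤ inner ℝ (th y - th y') (y - y')
  lip : ∀ y y', ‖th y - th y'‖ ≤ C * ‖y - y'‖
  near : ∀ y, ‖th y - y‖ ≤ e y
  pos : ∀ c, 0 < R c
  small : ∀ c, R c ≤ e (th (yc c)) / 8
  disj : ∀ c c', c ≠ c' → 2 * R c + 2 * R c' < ‖th (yc c) - th (yc c')‖
  fin : ∀ p ∈ L, ∃ r : ℝ, 0 < r ∧ {c | (closedBall (th (yc c)) (2 * R c) ∩ ball p r).Nonempty}.Finite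

variable {L : Set V} {C : ℝ} {e : V → ℝ} {th : V → V} {yc : ι → V} {R : ι → ℝ}

lemma Scale.memL {L : Set V} {e : V → ℝ} (h : Scale L e) {y : V} (hy : 0 < e y) : y ∈ L := by
  by_contra hcon
  rw [h.off y hcon] at hy
  exact lt_irrefl _ hy

namespace Holes

lemma off (h : Holes L C e th yc R) {y : V} (hy : y ∉ L) : th y = y := by
  have h1 := h.near y
  rw [h.sc.off y hy] at h1
  exact sub_eq_zero.1 (norm_eq_zero.1 (le_antisymm h1 (norm_nonneg _)))

lemma memL (h : Holes L C e th yc R) {y : V} (hy : y ∈ L) : th y ∈ L := by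
  apply Scale.memL h.sc
  have h1 := h.sc.lip y (th y)
  have h2 := h.near y
  rw [norm_sub_rev] at h2
  have h3 := h.sc.pos y hy
  linarith

lemma pL (h : Holes L C e th yc R) (c : ι) : th (yc c) ∈ L := by
  apply Scale.memL h.sc
  have h1 := h.small c
  have h2 := h.pos c
  linarith

lemma cen (h : Holes L C e th yc R) (c : ι) : yc c ∈ L := by
  by_contra hcon
  have h1 := h.pL c
  rw [h.off hcon] at h1
  exact hcon h1

lemma sep (h : Holes L C e th yc R) : Sep yc (fun c => R c / 8) := by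
  refine ⟨fun c => by have := h.pos c; positivity, fun c c' hne => ?_⟩
  have h1 := h.disj c c' hne
  have h2 := h.lip (yc c) (yc c')
  have h3 : C * ‖yc c - yc c'‖ ≤ 2 * ‖yc c - yc c'‖ :=
    mul_le_mul_of_nonneg_right h.C2 (norm_nonneg _)
  show 8 * (R c / 8) + 8 * (R c' / 8) < _
  linarith

lemma ballp (h : Holes L C e th yc R) {c : ι} {q : V} (hq : ‖q - th (yc c)‖ ≤ 2 * R c) : q ∈ L := by
  apply Scale.memL h.sc
  have h1 := h.sc.lip (th (yc c)) q
  rw [norm_sub_rev] at h1
  have h2 := h.small c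
  have h3 := h.pos c
  linarith

lemma bally (h : Holes L C e th yc R) {c : ι} {y : V} (hy : ‖y - yc c‖ ≤ R c) : y ∈ L := by
  apply Scale.memL h.sc
  have h1 := h.sc.lip (yc c) y
  rw [norm_sub_rev] at h1
  have h2 := h.small c
  have h3 := h.pos c
  have h4 := h.sc.lip (th (yc c)) (yc c)
  have h5 := h.near (yc c)
  have h6 := h.sc.pos _ (h.cen c)
  linarith

/-- two active holes agree. -/
lemma uniq (h : Holes L C e th yc R) {c c' : ι} {q : V} (hc : ‖q - th (yc c)‖ < 2 * R c)
    (hc' : ‖q - th (yc c')‖ ≤ 2 * R c') : c = c' := by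
  by_contra hne
  have h1 := h.disj c c' hne
  have h2 : ‖th (yc c) - th (yc c')‖ ≤ ‖q - th (yc c)‖ + ‖q - th (yc c')‖ := by
    have : th (yc c) - th (yc c') = (q - th (yc c')) - (q - th (yc c)) := by abel
    rw [this]
    refine (norm_sub_le _ _).trans ?_
    linarith
  linarith

end Holes

/-! ### cut-offs -/

/-- cut-off of a hole. -/
noncomputable def om (r t : ℝ) : ℝ := max 0 (min 1 (2 - t / r))

lemma om_nonneg (r t : ℝ) : 0 ≤ om r t := le_max_left _ _
lemma om_le_one (r t : ℝ) : om r t ≤ 1 := max_le zero_le_one (min_le_left _ _)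
lemma om_one {r t : ℝ} (hr : 0 < r) (ht : t ≤ r) : om r t = 1 := by
  have : t / r ≤ 1 := by rw [div_le_one hr]; exact ht
  rw [om, min_eq_left (by linarith), max_eq_right zero_le_one]
lemma om_zero {r t : ℝ} (hr : 0 < r) (ht : 2 * r ≤ t) : om r t = 0 := by
  have : 2 ≤ t / r := by rw [le_div_iff₀ hr]; exact ht
  rw [om, max_eq_left]
  exact min_le_of_right_le (by linarith)
lemma om_le {r t : ℝ} (hr : 0 < r) (ht : t ≤ 2 * r) : om r t * r ≤ 2 * r - t := by
  have h1 : t / r ≤ 2 := by rw [div_le_iff₀ hr]; exact ht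
  have h2 : om r t ≤ 2 - t / r := max_le (by linarith) (min_le_right _ _)
  calc om r t * r ≤ (2 - t / r) * r := mul_le_mul_of_nonneg_right h2 hr.le
    _ = 2 * r - t := by field_simp
lemma om_lip {r : ℝ} (hr : 0 < r) (a b : ℝ) : |om r a - om r b| * r ≤ |a - b| := by
  have h1 : |om r a - om r b| ≤ |a / r - b / r| := by
    calc |om r a - om r b| ≤ |min 1 (2 - a / r) - min 1 (2 - b / r)| := by
          have := abs_max_sub_max_le_max 0 (min 1 (2 - a / r)) 0 (min 1 (2 - b / r))
          simpa [om] using this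
      _ ≤ |(2 - a / r) - (2 - b / r)| := by
          have := abs_min_sub_min_le_max 1 (2 - a / r) 1 (2 - b / r)
          simpa using this
      _ = |a / r - b / r| := by
          rw [show (2 - a / r) - (2 - b / r) = -(a / r - b / r) by ring, abs_neg]
  calc |om r a - om r b| * r ≤ |a / r - b / r| * r := mul_le_mul_of_nonneg_right h1 hr.le
    _ = |a - b| := by
        rw [← sub_div, abs_div, abs_of_pos hr]; field_simp

open Classical in
/-- the strength of the pull towards the identity. -/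
noncomputable def del (Z : Set V) (q : V) : ℝ :=
  if Z.Nonempty then min (infDist q Z / 32) (1 / 8) else 1 / 8

lemma del_nonneg (Z : Set V) (q : V) : 0 ≤ del Z q := by
  unfold del
  split_ifs
  · exact le_min (div_nonneg infDist_nonneg (by norm_num)) (by norm_num)
  · norm_num

lemma del_le (Z : Set V) (q : V) : del Z q ≤ 1 / 8 := by
  unfold del
  split_ifs
  · exact min_le_right _ _
  · exact le_rfl

lemma del_lip (Z : Set V) (q q' : V) : |del Z q - del Z q'| ≤ ‖q - q'‖ / 32 := by
  unfold del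
  split_ifs with h
  · have h1 := abs_min_sub_min_le_max (infDist q Z / 32) (1 / 8) (infDist q' Z / 32) (1 / 8)
    rw [sub_self, abs_zero, max_eq_left (abs_nonneg _)] at h1
    refine h1.trans ?_
    rw [← sub_div, abs_div, abs_of_pos (show (0:ℝ) < 32 by norm_num)]
    refine div_le_div_of_nonneg_right ?_ (by norm_num)
    rw [abs_le]
    have e1 := infDist_le_infDist_add_dist (s := Z) (x := q) (y := q')
    have e2 := infDist_le_infDist_add_dist (s := Z) (x := q') (y := q)
    rw [dist_comm] at e2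
    rw [dist_eq_norm] at e1 e2
    constructor <;> linarith
  · rw [sub_self, abs_zero]; positivity

lemma del_eq_zero {Z : Set V} (hZ : IsClosed Z) {q : V} : del Z q = 0 ↔ q ∈ Z := by
  unfold del
  split_ifs with h
  · rw [hZ.mem_iff_infDist_zero h]
    constructor
    · intro h1
      rcases min_choice (infDist q Z / 32) (1 / 8 : ℝ) with h2 | h2
      · rw [h2] at h1; linarith
      · rw [h2] at h1; norm_num at h1
    · intro h1
      rw [h1]; norm_num
  · constructor
    · intro h1; norm_num at h1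
    · intro h1; exact absurd ⟨q, h1⟩ h

lemma del_le_dist {Z : Set V} {p : V} (hp : p ∈ Z) (q : V) : del Z q ≤ ‖q - p‖ / 32 := by
  unfold del
  rw [if_pos ⟨p, hp⟩]
  refine (min_le_left _ _).trans (div_le_div_of_nonneg_right ?_ (by norm_num))
  rw [← dist_eq_norm]
  exact infDist_le_dist_of_mem hp

/-- complement of `L` and cores. -/
def ZZ (L : Set V) (th : V → V) (yc : ι → V) (R : ι → ℝ) : Set V :=
  Lᶜ ∪ ⋃ c, closedBall (th (yc c)) (R c / 16)

lemma Holes.closedZ (h : Holes L C e th yc R) : IsClosed (ZZ L th yc R) := by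
  rw [← isOpen_compl_iff, Metric.isOpen_iff]
  intro q hq
  have hqL : q ∈ L := by
    by_contra hcon
    exact hq (Or.inl hcon)
  have hqc : ∀ c, q ∉ closedBall (th (yc c)) (R c / 16) := fun c hc => hq (Or.inr (mem_iUnion.2 ⟨c, hc⟩))
  obtain ⟨r, hr, hfin⟩ := h.fin q hqL
  have hop : IsOpen (L ∩ ⋂ c ∈ {c | (closedBall (th (yc c)) (2 * R c) ∩ ball q r).Nonempty},
      (closedBall (th (yc c)) (R c / 16))ᶜ) :=
    h.op.inter (hfin.isOpen_biInter fun c _ => isClosed_closedBall.isOpen_compl)
  obtain ⟨r', hr', hsub⟩ := Metric.isOpen_iff.1 hop q ⟨hqL, mem_iInter₂.2 fun c _ => hqc c⟩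
  refine ⟨min r r', lt_min hr hr', fun x hx => ?_⟩
  rintro (hxL | hxc)
  · exact hxL (hsub (ball_subset_ball (min_le_right _ _) hx)).1
  · obtain ⟨c, hc⟩ := mem_iUnion.1 hxc
    have h1 : c ∈ {c | (closedBall (th (yc c)) (2 * R c) ∩ ball q r).Nonempty} :=
      ⟨x, closedBall_subset_closedBall (by have := h.pos c; linarith) hc,
        ball_subset_ball (min_le_left _ _) hx⟩
    exact mem_iInter₂.1 (hsub (ball_subset_ball (min_le_right _ _) hx)).2 c h1 hc

/-! ### the sum over the holes -/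

open Classical in
/-- the contribution of the active hole. -/
noncomputable def TT (th : V → V) (yc : ι → V) (R : ι → ℝ) (q y : V) : V :=
  if h : ∃ c, ‖q - th (yc c)‖ < 2 * R c then
    om (R h.choose) ‖q - th (yc h.choose)‖ • xi yc (fun c => R c / 8) h.choose y else 0

lemma TT_act (h : Holes L C e th yc R) {c : ι} {q : V} (hq : ‖q - th (yc c)‖ < 2 * R c) (y : V) :
    TT th yc R q y = om (R c) ‖q - th (yc c)‖ • xi yc (fun c => R c / 8) c y := by
  have hex : ∃ c, ‖q - th (yc c)‖ < 2 * R c := ⟨c, hq⟩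
  have hch : hex.choose = c := h.uniq hex.choose_spec hq.le
  rw [TT, dif_pos hex, hch]

lemma TT_none {q : V} (hq : ∀ c, 2 * R c ≤ ‖q - th (yc c)‖) (y : V) : TT th yc R q y = 0 := by
  rw [TT, dif_neg]
  push Not
  exact hq

lemma TT_lip_y (h : Holes L C e th yc R) (q y y' : V) :
    ‖TT th yc R q y - TT th yc R q y'‖ ≤ 2 * ‖y - y'‖ := by
  by_cases hq : ∃ c, ‖q - th (yc c)‖ < 2 * R c
  · obtain ⟨c, hc⟩ := hq
    rw [TT_act h hc, TT_act h hc, ← smul_sub, norm_smul, Real.norm_eq_abs,
      abs_of_nonneg (om_nonneg _ _)]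
    have h1 := xi_lip h.sep c y y'
    have h2 := om_le_one (R c) ‖q - th (yc c)‖
    calc om (R c) ‖q - th (yc c)‖ * ‖xi yc (fun c => R c / 8) c y - xi yc (fun c => R c / 8) c y'‖
        ≤ 1 * (2 * ‖y - y'‖) := mul_le_mul h2 h1 (norm_nonneg _) zero_le_one
      _ = 2 * ‖y - y'‖ := one_mul _
  · push Not at hq
    rw [TT_none hq, TT_none hq, sub_self, norm_zero]; positivity

/-- the variation of one term. -/
lemma om_var (h : Holes L C e th yc R) (c : ι) (q q' y : V) :
    ‖om (R c) ‖q - th (yc c)‖ • xi yc (fun c => R c / 8) c y -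
      om (R c) ‖q' - th (yc c)‖ • xi yc (fun c => R c / 8) c y‖ ≤ ‖q - q'‖ / 8 := by
  rw [← sub_smul, norm_smul, Real.norm_eq_abs]
  have h1 := om_lip (h.pos c) ‖q - th (yc c)‖ ‖q' - th (yc c)‖
  have h2 : |‖q - th (yc c)‖ - ‖q' - th (yc c)‖| ≤ ‖q - q'‖ := by
    have := abs_norm_sub_norm_le (q - th (yc c)) (q' - th (yc c))
    rwa [show q - th (yc c) - (q' - th (yc c)) = q - q' by abel] at this
  have h3 : ‖xi yc (fun c => R c / 8) c y‖ ≤ R c / 8 := xi_norm h.sep c y
  have h4 := abs_nonneg (om (R c) ‖q - th (yc c)‖ - om (R c) ‖q' - th (yc c)‖)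
  calc _ ≤ |om (R c) ‖q - th (yc c)‖ - om (R c) ‖q' - th (yc c)‖| * (R c / 8) :=
        mul_le_mul_of_nonneg_left h3 h4
    _ = (|om (R c) ‖q - th (yc c)‖ - om (R c) ‖q' - th (yc c)‖| * R c) / 8 := by ring
    _ ≤ ‖q - q'‖ / 8 := by linarith

lemma TT_small (h : Holes L C e th yc R) {c : ι} {q q' : V} (hc : ‖q - th (yc c)‖ < 2 * R c)
    (hc' : 2 * R c ≤ ‖q' - th (yc c)‖) (y : V) : ‖TT th yc R q y‖ ≤ ‖q - q'‖ / 8 := by
  have := om_var h c q q' y
  rwa [om_zero (h.pos c) hc', zero_smul, sub_zero, ← TT_act h hc] at this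

lemma TT_lip_q (h : Holes L C e th yc R) (q q' y : V) :
    ‖TT th yc R q y - TT th yc R q' y‖ ≤ ‖q - q'‖ / 4 := by
  have hn := norm_nonneg (q - q')
  by_cases h1 : ∃ c, ‖q - th (yc c)‖ < 2 * R c
  · obtain ⟨c, hc⟩ := h1
    by_cases h2 : ‖q' - th (yc c)‖ < 2 * R c
    · rw [TT_act h hc, TT_act h h2]
      refine (om_var h c q q' y).trans (by linarith)
    · have e1 := TT_small h hc (not_lt.1 h2) y
      by_cases h3 : ∃ c, ‖q' - th (yc c)‖ < 2 * R c
      · obtain ⟨c', hc'⟩ := h3
        have h4 : 2 * R c' ≤ ‖q - th (yc c')‖ := by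
          by_contra hcon
          have := h.uniq hc (not_le.1 hcon).le
          subst this
          exact h2 hc'
        have e2 := TT_small h hc' h4 y
        rw [norm_sub_rev q' q] at e2
        refine (norm_sub_le _ _).trans (by linarith)
      · push Not at h3
        rw [TT_none h3, sub_zero]
        linarith
  · push Not at h1
    rw [TT_none h1, zero_sub, norm_neg]
    by_cases h3 : ∃ c, ‖q' - th (yc c)‖ < 2 * R c
    · obtain ⟨c', hc'⟩ := h3
      have e2 := TT_small h hc' (h1 c') y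
      rw [norm_sub_rev q' q] at e2
      linarith
    · push Not at h3
      rw [TT_none h3, norm_zero]; positivity

/-! ### the implicit equation -/

/-- right hand side of the implicit equation. -/
noncomputable def FF (L : Set V) (th : V → V) (yc : ι → V) (R : ι → ℝ) (y q : V) : V :=
  th (col yc (fun c => R c / 8) univ y) +
    del (ZZ L th yc R) q • rad (capf 4) (col yc (fun c => R c / 8) univ y - q) + TT th yc R q y

lemma FF_contr (h : Holes L C e th yc R) (y q q' : V) :
    ‖FF L th yc R y q - FF L th yc R y q'‖ ≤ ‖q - q'‖ / 2 := by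
  have h1 := TT_lip_q h q q' y
  set z := col yc (fun c => R c / 8) univ y with hz
  set Z := ZZ L th yc R with hZ
  have h2 : ‖del Z q • rad (capf 4) (z - q) - del Z q' • rad (capf 4) (z - q')‖ ≤ ‖q - q'‖ / 4 := by
    have e1 : del Z q • rad (capf 4) (z - q) - del Z q' • rad (capf 4) (z - q') =
        (del Z q - del Z q') • rad (capf 4) (z - q) +
          del Z q' • (rad (capf 4) (z - q) - rad (capf 4) (z - q')) := by
      rw [sub_smul, smul_sub]; abel
    rw [e1]
    refine (norm_add_le _ _).trans ?_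
    rw [norm_smul, norm_smul, Real.norm_eq_abs, Real.norm_eq_abs, abs_of_nonneg (del_nonneg _ _)]
    have e2 := del_lip Z q q'
    have e3 : ‖rad (capf 4) (z - q)‖ ≤ 4 := by
      rw [norm_capf (by norm_num)]; exact capf_le (by norm_num) _
    have e4 : ‖rad (capf 4) (z - q) - rad (capf 4) (z - q')‖ ≤ ‖q - q'‖ := by
      have := rad_capf_lip (t := 4) (by norm_num) (z - q) (z - q')
      rwa [show z - q - (z - q') = -(q - q') by abel, norm_neg] at this
    have e5 := del_le Z q'
    have e6 : |del Z q - del Z q'| * ‖rad (capf 4) (z - q)‖ ≤ ‖q - q'‖ / 32 * 4 :=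
      mul_le_mul e2 e3 (norm_nonneg _) (by positivity)
    have e7 : del Z q' * ‖rad (capf 4) (z - q) - rad (capf 4) (z - q')‖ ≤ 1 / 8 * ‖q - q'‖ :=
      mul_le_mul e5 e4 (norm_nonneg _) (by norm_num)
    linarith
  have e8 : FF L th yc R y q - FF L th yc R y q' =
      (del Z q • rad (capf 4) (z - q) - del Z q' • rad (capf 4) (z - q')) +
        (TT th yc R q y - TT th yc R q' y) := by
    rw [FF, FF]; abel
  rw [e8]
  refine (norm_add_le _ _).trans ?_
  linarith

lemma FF_lip (h : Holes L C e th yc R) (y y' q : V) :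
    ‖FF L th yc R y q - FF L th yc R y' q‖ ≤ 25 / 4 * ‖y - y'‖ := by
  have h1 := TT_lip_y h q y y'
  set z := col yc (fun c => R c / 8) univ y with hz
  set z' := col yc (fun c => R c / 8) univ y' with hz'
  set Z := ZZ L th yc R with hZ
  have hzz : ‖z - z'‖ ≤ 2 * ‖y - y'‖ := col_lip h.sep univ y y'
  have h2 : ‖th z - th z'‖ ≤ 4 * ‖y - y'‖ := by
    have e1 := h.lip z z'
    have e2 : C * ‖z - z'‖ ≤ 2 * ‖z - z'‖ := mul_le_mul_of_nonneg_right h.C2 (norm_nonneg _)
    linarith
  have h3 : ‖del Z q • rad (capf 4) (z - q) - del Z q • rad (capf 4) (z' - q)‖ ≤ 1 / 8 * (2 * ‖y - y'‖) := by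
    rw [← smul_sub, norm_smul, Real.norm_eq_abs, abs_of_nonneg (del_nonneg _ _)]
    have e4 : ‖rad (capf 4) (z - q) - rad (capf 4) (z' - q)‖ ≤ 2 * ‖y - y'‖ := by
      have := rad_capf_lip (t := 4) (by norm_num) (z - q) (z' - q)
      rw [show z - q - (z' - q) = z - z' by abel] at this
      exact this.trans hzz
    exact mul_le_mul (del_le Z q) e4 (norm_nonneg _) (by norm_num)
  have e8 : FF L th yc R y q - FF L th yc R y' q = (th z - th z') +
      (del Z q • rad (capf 4) (z - q) - del Z q • rad (capf 4) (z' - q)) +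
        (TT th yc R q y - TT th yc R q y') := by
    rw [FF, FF]; abel
  rw [e8]
  refine norm_add₃_le.trans ?_
  linarith

lemma exists_fix [CompleteSpace V] (h : Holes L C e th yc R) (y : V) :
    ∃ q, FF L th yc R y q = q := by
  have hc : ContractingWith (1 / 2) (FF L th yc R y) := by
    refine ⟨by
      rw [← NNReal.coe_lt_coe]; norm_num, LipschitzWith.of_dist_le_mul fun q q' => ?_⟩
    rw [dist_eq_norm, dist_eq_norm]
    have := FF_contr h y q q'
    push_cast
    linarith
  exact ⟨_, hc.fixedPoint_isFixedPt⟩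

lemma fix_lip (h : Holes L C e th yc R) {y y' q q' : V} (hq : FF L th yc R y q = q)
    (hq' : FF L th yc R y' q' = q') : ‖q - q'‖ ≤ 25 / 2 * ‖y - y'‖ := by
  have h1 := FF_contr h y q q'
  have h2 := FF_lip h y y' q'
  have h3 : ‖q - q'‖ ≤ ‖FF L th yc R y q - FF L th yc R y q'‖ +
      ‖FF L th yc R y q' - FF L th yc R y' q'‖ := by
    have h4 := norm_add_le (FF L th yc R y q - FF L th yc R y q') (FF L th yc R y q' - FF L th yc R y' q')
    rw [sub_add_sub_cancel] at h4
    have h5 : ‖q - q'‖ = ‖FF L th yc R y q - FF L th yc R y' q'‖ := by rw [hq, hq']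
    rw [h5]
    exact h4
  linarith

lemma fix_uniq (h : Holes L C e th yc R) {y q q' : V} (hq : FF L th yc R y q = q)
    (hq' : FF L th yc R y q' = q') : q = q' := by
  have h1 := fix_lip h hq hq'
  rw [sub_self, norm_zero, mul_zero] at h1
  exact sub_eq_zero.1 (norm_eq_zero.1 (le_antisymm h1 (norm_nonneg _)))

end Crest.Agent.R096.Ho_627
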