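import Crest.Agent.R096.Ho3_627

/-!
Row 96 (S0127), helper627.  Hole-opening lemma (961 #9403), part 4: the homeomorphism.
-/

set_option autoImplicit false
set_option linter.unusedSectionVars false
set_option linter.style.longLine false

namespace Crest.Agent.R096.Ho_627

open Set Metric Filter Topology
open Crest.Agent.R096.ThC6_766

variable {V : Type*} [NormedAddCommGroup V] [InnerProductSpace ℝ V] {ι : Type*}
variable {L : Set V} {C : ℝ} {e : V → ℝ} {th : V → V} {yc : ι → V} {R : ι → ℝ}

lemma TT_le_act (h : Holes L C e th yc R) {c : ι} {q : V} (hq : ‖q - th (yc c)‖ < 2 * R c) (y : V) :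
    ‖TT th yc R q y‖ ≤ om (R c) ‖q - th (yc c)‖ * R c / 8 := by
  rw [TT_act h hq, norm_smul, Real.norm_eq_abs, abs_of_nonneg (om_nonneg _ _)]
  have h1 : ‖xi yc (fun c => R c / 8) c y‖ ≤ R c / 8 := xi_norm h.sep c y
  have := mul_le_mul_of_nonneg_left h1 (om_nonneg (R c) ‖q - th (yc c)‖)
  linarith

lemma TT_le (h : Holes L C e th yc R) (q y : V) : ‖TT th yc R q y‖ ≤ e q / 60 := by
  by_cases hq : ∃ c, ‖q - th (yc c)‖ < 2 * R c
  · obtain ⟨c, hc⟩ := hq
    have h1 := TT_le_act h hc y
    have h2 := om_le_one (R c) ‖q - th (yc c)‖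
    have h3 := h.pos c
    have h4 : om (R c) ‖q - th (yc c)‖ * R c ≤ 1 * R c := mul_le_mul_of_nonneg_right h2 h3.le
    have h5 := h.small c
    have h6 := h.sc.lip (th (yc c)) q
    rw [norm_sub_rev] at h6
    linarith
  · push Not at hq
    rw [TT_none hq, norm_zero]
    have := h.sc.nonneg q
    positivity

lemma col_e (h : Holes L C e th yc R) (y : V) :
    ‖col yc (fun c => R c / 8) univ y - y‖ ≤ e y / 50 := by
  by_cases hy : ∃ c, ‖y - yc c‖ < 2 * (R c / 8)
  · obtain ⟨c, hc⟩ := hy
    have h1 := col_near h.sep (mem_univ c) hc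
    have h2 := h.pos c
    have h3 := h.small c
    have h4 := h.sc.lip (th (yc c)) (yc c)
    have h5 := h.near (yc c)
    have h6 := h.sc.lip (yc c) y
    rw [norm_sub_rev] at h6
    have h7 : ‖col yc (fun c => R c / 8) univ y - y‖ ≤ R c / 8 := h1
    linarith
  · push Not at hy
    have h1 : col yc (fun c => R c / 8) univ y = y := col_out fun c _ => hy c
    rw [h1, sub_self, norm_zero]
    have := h.sc.nonneg y
    positivity

/-- the solution is close to `z`, hence the truncation is not seen. -/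
lemma sol_eq (h : Holes L C e th yc R) {y q : V} (hq : FF L th yc R y q = q) :
    ‖col yc (fun c => R c / 8) univ y - q‖ ≤ 4 ∧
    q = th (col yc (fun c => R c / 8) univ y) +
      del (ZZ L th yc R) q • (col yc (fun c => R c / 8) univ y - q) + TT th yc R q y := by
  have hq' := hq
  rw [FF] at hq
  set z := col yc (fun c => R c / 8) univ y with hz
  set Z := ZZ L th yc R with hZ
  have h1 := TT_le h q y
  have h2 := h.sc.le_one q
  have h3 : ‖del Z q • rad (capf 4) (z - q)‖ ≤ 1 / 2 := by
    rw [norm_smul, Real.norm_eq_abs, abs_of_nonneg (del_nonneg _ _)]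
    have e3 : ‖rad (capf 4) (z - q)‖ ≤ 4 := by
      rw [norm_capf (by norm_num)]; exact capf_le (by norm_num) _
    have := mul_le_mul (del_le Z q) e3 (norm_nonneg _) (by norm_num)
    linarith
  have h4 := h.near z
  have h5 := h.sc.le_one z
  have h6 : ‖z - q‖ ≤ ‖th z - z‖ + ‖del Z q • rad (capf 4) (z - q)‖ + ‖TT th yc R q y‖ := by
    have : z - q = -((th z - z) + del Z q • rad (capf 4) (z - q) + TT th yc R q y) := by
      nth_rewrite 1 [← hq]
      abel
    calc ‖z - q‖ = ‖(th z - z) + del Z q • rad (capf 4) (z - q) + TT th yc R q y‖ := by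
          conv_lhs => rw [this]
          rw [norm_neg]
      _ ≤ _ := norm_add₃_le
  have h7 : ‖z - q‖ ≤ 4 := by linarith
  refine ⟨h7, ?_⟩
  rw [rad_capf_le h7] at hq
  exact hq.symm

lemma sol_near (h : Holes L C e th yc R) {y q : V} (hq : FF L th yc R y q = q) :
    ‖q - y‖ ≤ 5 / 4 * e y := by
  obtain ⟨-, h2⟩ := sol_eq h hq
  have h8 := col_e h y
  set z := col yc (fun c => R c / 8) univ y with hz
  set Z := ZZ L th yc R with hZ
  have h1 := TT_le h q y
  have h3 : ‖del Z q • (z - q)‖ ≤ 1 / 8 * ‖z - q‖ := by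
    rw [norm_smul, Real.norm_eq_abs, abs_of_nonneg (del_nonneg _ _)]
    exact mul_le_mul_of_nonneg_right (del_le Z q) (norm_nonneg _)
  have h4 := h.near z
  have h6 : ‖z - q‖ ≤ ‖th z - z‖ + ‖del Z q • (z - q)‖ + ‖TT th yc R q y‖ := by
    have : z - q = -((th z - z) + del Z q • (z - q) + TT th yc R q y) := by
      nth_rewrite 1 [h2]
      abel
    calc ‖z - q‖ = ‖(th z - z) + del Z q • (z - q) + TT th yc R q y‖ := by
          conv_lhs => rw [this]
          rw [norm_neg]
      _ ≤ _ := norm_add₃_le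
  have h7 := h.sc.lip q z
  rw [norm_sub_rev] at h7
  have h9 := h.sc.lip z y
  have h10 : ‖q - y‖ ≤ ‖z - q‖ + ‖z - y‖ := by
    have : q - y = -(z - q) + (z - y) := by abel
    rw [this]
    refine (norm_add_le _ _).trans ?_
    rw [norm_neg]
  have h11 := h.sc.nonneg y
  linarith

lemma TT_mono (h : Holes L C e th yc R) (q y y' : V) :
    0 ≤ inner ℝ (TT th yc R q y - TT th yc R q y')
      (col yc (fun c => R c / 8) univ y - col yc (fun c => R c / 8) univ y') := by
  by_cases hq : ∃ c, ‖q - th (yc c)‖ < 2 * R c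
  · obtain ⟨c, hc⟩ := hq
    rw [TT_act h hc, TT_act h hc, ← smul_sub, real_inner_smul_left]
    exact mul_nonneg (om_nonneg _ _) (xi_mono h.sep c y y')
  · push Not at hq
    rw [TT_none hq, TT_none hq, sub_self, inner_zero_left]

/-- a solution with `z` a centre is near the image of this centre. -/
lemma near_center (h : Holes L C e th yc R) {y q : V} (hq : FF L th yc R y q = q) {c : ι}
    (hz : col yc (fun c => R c / 8) univ y = yc c) : ‖q - th (yc c)‖ ≤ R c := by
  obtain ⟨h1, h2⟩ := sol_eq h hq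
  rw [hz] at h1 h2
  have hpZ : th (yc c) ∈ ZZ L th yc R := Or.inr (mem_iUnion.2 ⟨c, by
    rw [mem_closedBall, dist_self]; have := h.pos c; positivity⟩)
  have h3 := del_le_dist hpZ q
  set t := ‖q - th (yc c)‖ with ht
  have h0 : 0 ≤ t := norm_nonneg _
  have h4 : ‖del (ZZ L th yc R) q • (yc c - q)‖ ≤ t / 8 := by
    rw [norm_smul, Real.norm_eq_abs, abs_of_nonneg (del_nonneg _ _)]
    have := mul_le_mul h3 h1 (norm_nonneg _) (by positivity)
    linarith
  have h5 : t ≤ t / 8 + ‖TT th yc R q y‖ := by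
    have e1 : q - th (yc c) = del (ZZ L th yc R) q • (yc c - q) + TT th yc R q y := by
      nth_rewrite 1 [h2]
      abel
    have e2 : t ≤ ‖del (ZZ L th yc R) q • (yc c - q)‖ + ‖TT th yc R q y‖ := by
      rw [ht]
      conv_lhs => rw [e1]
      exact norm_add_le _ _
    linarith
  have hpos := h.pos c
  by_cases hact : ∃ c', ‖q - th (yc c')‖ < 2 * R c'
  · obtain ⟨c', hc'⟩ := hact
    have h6 := TT_le_act h hc' y
    by_cases hcc : c' = c
    · subst hcc
      have h7 := om_le_one (R c') ‖q - th (yc c')‖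
      have h8 : om (R c') ‖q - th (yc c')‖ * R c' ≤ 1 * R c' := mul_le_mul_of_nonneg_right h7 hpos.le
      linarith
    · exfalso
      have h7 := h.disj c' c hcc
      have h8 := om_le (h.pos c') hc'.le
      have h9 : ‖th (yc c') - th (yc c)‖ ≤ ‖q - th (yc c')‖ + t := by
        have : th (yc c') - th (yc c) = (q - th (yc c)) - (q - th (yc c')) := by abel
        rw [this]
        refine (norm_sub_le _ _).trans ?_
        linarith
      linarith
  · push Not at hact
    rw [TT_none hact, norm_zero] at h5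
    linarith

/-- a solution off `L`. -/
lemma sol_off (h : Holes L C e th yc R) {y q : V} (hq : FF L th yc R y q = q) (hL : q ∉ L) :
    y = q := by
  obtain ⟨-, h2⟩ := sol_eq h hq
  have hdel : del (ZZ L th yc R) q = 0 := (del_eq_zero h.closedZ).2 (Or.inl hL)
  have hact : ∀ c, 2 * R c ≤ ‖q - th (yc c)‖ := fun c => by
    by_contra hcon
    exact hL (h.ballp (not_le.1 hcon).le)
  rw [hdel, zero_smul, add_zero, TT_none hact, add_zero] at h2
  have hzL : col yc (fun c => R c / 8) univ y ∉ L := fun hz => hL (h2 ▸ h.memL hz)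
  have hz : col yc (fun c => R c / 8) univ y = q := by rw [h.off hzL] at h2; exact h2.symm
  have hout : ∀ c ∈ (univ : Set ι), 2 * (R c / 8) ≤ ‖y - yc c‖ := by
    intro c _
    by_contra hcon
    have hlt := not_le.1 hcon
    have e1 := col_in h.sep (mem_univ c) hlt
    apply hzL
    apply h.bally (c := c)
    rw [e1, add_sub_cancel_left, norm_colf (by have := h.pos c; positivity)]
    have := h.pos c
    have := colf_le (s := R c / 8) (norm_nonneg (y - yc c))
    linarith
  rw [col_out hout] at hz
  exact hz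

/-- a solution in a core. -/
lemma sol_core (h : Holes L C e th yc R) {y q : V} (hq : FF L th yc R y q = q) {c : ι}
    (hc : ‖q - th (yc c)‖ ≤ R c / 16) : y = yc c + (q - th (yc c)) := by
  obtain ⟨-, h2⟩ := sol_eq h hq
  have hpos := h.pos c
  have hdel : del (ZZ L th yc R) q = 0 := (del_eq_zero h.closedZ).2 (Or.inr (mem_iUnion.2
    ⟨c, by rwa [mem_closedBall, dist_eq_norm]⟩))
  rw [hdel, zero_smul, add_zero, TT_act h (c := c) (by linarith), om_one hpos (by linarith),
    one_smul] at h2
  have hx : 0 ≤ inner ℝ (th (col yc (fun c => R c / 8) univ y) - th (yc c))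
      (xi yc (fun c => R c / 8) c y) := by
    rcases xi_par h.sep c y with h3 | ⟨k, hk, h3⟩
    · rw [h3, sub_self, inner_zero_left]
    · rw [h3, real_inner_smul_right]
      exact mul_nonneg hk (h.mono _ _)
  have hsq : ‖xi yc (fun c => R c / 8) c y‖ ^ 2 ≤ ‖q - th (yc c)‖ ^ 2 := by
    have e1 : q - th (yc c) = (th (col yc (fun c => R c / 8) univ y) - th (yc c)) +
        xi yc (fun c => R c / 8) c y := by
      nth_rewrite 1 [h2]
      abel
    rw [e1, norm_add_sq_real]
    have := sq_nonneg ‖th (col yc (fun c => R c / 8) univ y) - th (yc c)‖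
    linarith
  have hn : ‖xi yc (fun c => R c / 8) c y‖ ≤ ‖q - th (yc c)‖ := by
    exact (sq_le_sq₀ (norm_nonneg _) (norm_nonneg _)).1 hsq
  have hlt : ‖xi yc (fun c => R c / 8) c y‖ < R c / 8 := by linarith
  obtain ⟨e2, e3⟩ := of_xi_lt h.sep hlt
  rw [e2, e3] at h2
  have e4 : q - th (yc c) = y - yc c := by
    nth_rewrite 1 [h2]
    abel
  rw [e4]; abel

lemma sol_inj (h : Holes L C e th yc R) {y y' q : V} (hq : FF L th yc R y q = q)
    (hq' : FF L th yc R y' q = q) : y = y' := by
  by_cases hZ : q ∈ ZZ L th yc R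
  · rcases hZ with hL | hc
    · rw [sol_off h hq hL, sol_off h hq' hL]
    · obtain ⟨c, hc⟩ := mem_iUnion.1 hc
      rw [mem_closedBall, dist_eq_norm] at hc
      rw [sol_core h hq hc, sol_core h hq' hc]
  · have hdel : 0 < del (ZZ L th yc R) q := lt_of_le_of_ne (del_nonneg _ _) fun h0 =>
      hZ ((del_eq_zero h.closedZ).1 h0.symm)
    obtain ⟨-, h1⟩ := sol_eq h hq
    obtain ⟨-, h2⟩ := sol_eq h hq'
    have hT := TT_mono h q y y'
    set z := col yc (fun c => R c / 8) univ y with hz
    set z' := col yc (fun c => R c / 8) univ y' with hz'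
    have h3 : (th z - th z') + del (ZZ L th yc R) q • (z - z') +
        (TT th yc R q y - TT th yc R q y') = 0 := by
      have e1 : (th z - th z') + del (ZZ L th yc R) q • (z - z') +
        (TT th yc R q y - TT th yc R q y') =
        (th z + del (ZZ L th yc R) q • (z - q) + TT th yc R q y) -
        (th z' + del (ZZ L th yc R) q • (z' - q) + TT th yc R q y') := by
        rw [smul_sub, smul_sub, smul_sub]; abel
      rw [e1, ← h1, ← h2, sub_self]
    have h4 : inner ℝ ((th z - th z') + del (ZZ L th yc R) q • (z - z') +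
        (TT th yc R q y - TT th yc R q y')) (z - z') = (0 : ℝ) := by
      rw [h3, inner_zero_left]
    rw [inner_add_left, inner_add_left, real_inner_smul_left, real_inner_self_eq_norm_sq] at h4
    have h5 := h.mono z z'
    have h6 : del (ZZ L th yc R) q * ‖z - z'‖ ^ 2 ≤ 0 := by linarith
    have h7 : ‖z - z'‖ ^ 2 ≤ 0 := by
      by_contra hcon
      have := mul_pos hdel (not_le.1 hcon)
      linarith
    have h8 : z = z' := by
      have : ‖z - z'‖ = 0 := by
        have := sq_nonneg ‖z - z'‖
        exact pow_eq_zero_iff (two_ne_zero) |>.1 (le_antisymm h7 this)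
      exact sub_eq_zero.1 (norm_eq_zero.1 this)
    by_cases hc : ∃ c, z = yc c
    · obtain ⟨c, hc⟩ := hc
      have hc' : z' = yc c := h8 ▸ hc
      obtain ⟨-, e1⟩ := of_col_eq h.sep hc
      obtain ⟨-, e2⟩ := of_col_eq h.sep hc'
      have e3 := near_center h hq hc
      have hpos := h.pos c
      rw [h8, sub_self, sub_self, smul_zero, zero_add, zero_add,
        TT_act h (c := c) (by linarith), TT_act h (c := c) (by linarith), om_one hpos e3,
        one_smul, one_smul, e1, e2] at h3
      have : y - y' = 0 := by rw [← h3]; abel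
      exact sub_eq_zero.1 this
    · push Not at hc
      exact col_inj h.sep h8 hc

lemma core_sol (h : Holes L C e th yc R) {y : V} {c : ι} (hy : ‖y - yc c‖ ≤ R c / 16) :
    FF L th yc R y (th (yc c) + (y - yc c)) = th (yc c) + (y - yc c) := by
  have hpos := h.pos c
  obtain ⟨e1, e2⟩ := of_ball h.sep (c := c) (y := y) (by
    show ‖y - yc c‖ ≤ R c / 8
    linarith)
  have e3 : th (yc c) + (y - yc c) - th (yc c) = y - yc c := by abel
  have hdel : del (ZZ L th yc R) (th (yc c) + (y - yc c)) = 0 :=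
    (del_eq_zero h.closedZ).2 (Or.inr (mem_iUnion.2 ⟨c, by
      rw [mem_closedBall, dist_eq_norm, e3]; exact hy⟩))
  rw [FF, hdel, zero_smul, add_zero, TT_act h (c := c) (by rw [e3]; linarith), e3,
    om_one hpos (by linarith), one_smul, e1, e2]

lemma free_sol {y : V} (hy : th y = y)
    (h1 : ∀ c, R c / 4 ≤ ‖y - yc c‖) (h2 : ∀ c, 2 * R c ≤ ‖y - th (yc c)‖) :
    FF L th yc R y y = y := by
  have e1 : col yc (fun c => R c / 8) univ y = y := col_out fun c _ => by
    have := h1 c
    linarith
  rw [FF, e1, TT_none h2, hy, sub_self, add_zero]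
  have : rad (capf 4) (0 : V) = 0 := by rw [rad, smul_zero]
  rw [this, smul_zero, add_zero]

/-- **the hole-opening lemma.** -/
theorem hole_opening [FiniteDimensional ℝ V] (h : Holes L C e th yc R) :
    ∃ Th : V ≃ₜ V, (∀ y, y ∉ L → Th y = y) ∧ (∀ y, Th y ∈ L ↔ y ∈ L) ∧
      (∀ y, ‖Th y - y‖ ≤ 5 / 4 * e y) ∧
      (∀ y y', ‖Th y - Th y'‖ ≤ 25 / 2 * ‖y - y'‖) ∧
      (∀ c y, ‖y - yc c‖ ≤ R c / 16 → Th y = th (yc c) + (y - yc c)) ∧
      (∀ c y, ‖Th y - th (yc c)‖ ≤ R c / 16 → y = yc c + (Th y - th (yc c))) ∧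
      (∀ y, th y = y → (∀ c, R c / 4 ≤ ‖y - yc c‖) → (∀ c, 2 * R c ≤ ‖y - th (yc c)‖) →
        Th y = y) := by
  have hcomp : CompleteSpace V := FiniteDimensional.complete ℝ V
  have hprop : ProperSpace V := FiniteDimensional.proper_real V
  choose T hT using exists_fix h
  have hlip : ∀ y y', ‖T y - T y'‖ ≤ 25 / 2 * ‖y - y'‖ := fun y y' => fix_lip h (hT y) (hT y')
  have hcont : Continuous T := by
    have : LipschitzWith (25 / 2 : ℝ).toNNReal T := by
      apply LipschitzWith.of_dist_le_mul
      intro y y'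
      rw [dist_eq_norm, dist_eq_norm, Real.coe_toNNReal _ (by norm_num)]
      exact hlip y y'
    exact this.continuous
  have hnear : ∀ y, ‖T y - y‖ ≤ 5 / 4 * e y := fun y => sol_near h (hT y)
  have hnear2 : ∀ y, ‖T y - y‖ ≤ 2 := fun y => by
    have := hnear y
    have := h.sc.le_one y
    linarith
  have hinj : Function.Injective T := fun y y' hyy => sol_inj h (hT y) (by
    rw [hyy]; exact hT y')
  have hsurj : Function.Surjective T := by
    intro q0
    obtain ⟨x, hx⟩ := R332.Full.exists_zero_of_inner_pos (fun x => T x - q0)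
      (hcont.sub continuous_const) (‖q0‖ + 3) (by positivity) (by
      intro x hx
      have e1 : T x - q0 = x + ((T x - x) - q0) := by abel
      rw [e1, inner_add_left, real_inner_self_eq_norm_sq]
      have e2 : |inner ℝ ((T x - x) - q0) x| ≤ ‖(T x - x) - q0‖ * ‖x‖ := abs_real_inner_le_norm _ _
      have e3 : ‖(T x - x) - q0‖ ≤ 2 + ‖q0‖ := (norm_sub_le _ _).trans (by
        have := hnear2 x
        linarith)
      have e4 : ‖(T x - x) - q0‖ * ‖x‖ ≤ (2 + ‖q0‖) * ‖x‖ :=
        mul_le_mul_of_nonneg_right e3 (norm_nonneg _)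
      have e5 := (abs_le.1 e2).1
      have e6 := norm_nonneg q0
      nlinarith)
    exact ⟨x, sub_eq_zero.1 hx⟩
  have hclosed : IsClosedMap T := by
    have hp : IsProperMap T := by
      rw [isProperMap_iff_tendsto_cocompact]
      refine ⟨hcont, ?_⟩
      rw [← Metric.cobounded_eq_cocompact, ← tendsto_norm_atTop_iff_cobounded]
      have e1 : Tendsto (fun y : V => ‖y‖ - 2) (Bornology.cobounded V) atTop :=
        tendsto_atTop_add_const_right _ (-2 : ℝ) tendsto_norm_cobounded_atTop
      refine tendsto_atTop_mono (fun y => ?_) e1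
      have e2 := hnear2 y
      have e3 := norm_sub_norm_le y (y - T y)
      rw [sub_sub_cancel] at e3
      rw [norm_sub_rev] at e2
      linarith
    exact hp.isClosedMap
  let Eq : V ≃ V := Equiv.ofBijective T ⟨hinj, hsurj⟩
  have huniq : ∀ y q, FF L th yc R y q = q → T y = q := fun y q hq => fix_uniq h (hT y) hq
  have hoff : ∀ y, y ∉ L → T y = y := fun y hy => huniq y y (free_sol (h.off hy) (fun c => by
      by_contra hcon
      have := h.pos c
      exact hy (h.bally (c := c) (by linarith))) (fun c => by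
      by_contra hcon
      exact hy (h.ballp (not_le.1 hcon).le)))
  refine ⟨Eq.toHomeomorphOfContinuousClosed hcont hclosed, hoff, ?_, hnear, hlip, ?_, ?_, ?_⟩
  · intro y
    show T y ∈ L ↔ y ∈ L
    constructor
    · intro hy
      by_contra hcon
      rw [hoff y hcon] at hy
      exact hcon hy
    · intro hy
      by_contra hcon
      have := hinj (hoff _ hcon)
      rw [this] at hcon
      exact hcon hy
  · intro c y hy
    exact huniq y _ (core_sol h hy)
  · intro c y hy
    exact sol_core h (hT y) hy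
  · intro y h1 h2 h3
    exact huniq y y (free_sol h1 h2 h3)

end Crest.Agent.R096.Ho_627
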