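import Crest.Agent.R096.Bxs1_627
import Crest.Agent.R096.Dic6_582
import Crest.Agent.R96.PnU1_849
import Crest.Agent.R96.Push20_899

/-!
Row 96 (S0127), helper29.  NO0, p ≥ 3: (S2) of 899 #11139: the stretched centres of a brick foam are
good holes of TOPH.
-/

set_option autoImplicit false

open Set Filter Topology Metric

noncomputable section

namespace Crest.Agent.R096.Hok_29

open Crest.Agent.R096.Bsp_628 Crest.Agent.R96.Push_899 Crest.Agent.R96.PnU_849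
  Crest.Agent.R096.Bxs_627 Crest.Agent.R096.Dic6_582
open Crest.AnalysisR.VecCalc3 Crest.Agent.R96.En10_199

/-! ### the stretch expands -/

section Gam

variable {ι : Type*} [Fintype ι] [Nonempty ι] [DecidableEq ι]

theorem Gm_inv_Gm (k : ι) {G : ℝ} (hG : 1 ≤ G) (y : EE ι) : Gm k G⁻¹ (Gm k G y) = y :=
  Gm_Gm (inv_mul_cancel₀ (by positivity)) y

theorem Gm_Gm_inv (k : ι) {G : ℝ} (hG : 1 ≤ G) (y : EE ι) : Gm k G (Gm k G⁻¹ y) = y :=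
  Gm_Gm (mul_inv_cancel₀ (by positivity)) y

/-- `Γ` expands -/
theorem norm_sub_le_Gm (k : ι) {G : ℝ} (hG : 1 ≤ G) (y y' : EE ι) :
    ‖y - y'‖ ≤ ‖Gm k G y - Gm k G y'‖ := by
  have h := norm_Gm_inv_le (k := k) hG (Gm k G y - Gm k G y')
  rwa [← Gm_sub, Gm_inv_Gm k hG, Gm_inv_Gm k hG] at h

/-- `Γ⁻¹` contracts -/
theorem norm_Gm_inv_sub_le (k : ι) {G : ℝ} (hG : 1 ≤ G) (y y' : EE ι) :
    ‖Gm k G⁻¹ y - Gm k G⁻¹ y'‖ ≤ ‖y - y'‖ := by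
  rw [Gm_sub]; exact norm_Gm_inv_le hG _

theorem norm_Gm_sub_le (k : ι) {G : ℝ} (hG : 1 ≤ G) (y y' : EE ι) :
    ‖Gm k G y - Gm k G y'‖ ≤ G * ‖y - y'‖ := by
  rw [Gm_sub]; exact norm_Gm_le hG _

end Gam

/-! ### the holes -/

section Holes

variable {La : Set (Fin 3 → ℝ)} {F : Set (Bx (Fin 3))} {δ κ0 : ℝ}

/-- centre of the hole of a brick in the stretched coordinates -/
def Pc3 (G : ℝ) (Q : Bx (Fin 3)) : EE (Fin 3) := Gm 2 G (P3 (ctr Q))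

theorem Pc3_mem (BF : BoxFoam La F δ κ0) {G : ℝ} (c : F) : Pc3 G c.1 ∈ Gm 2 G '' LaE La := by
  refine ⟨P3 (ctr c.1), ?_, rfl⟩
  exact BF.sub c.1 c.2 (ctr_mem (BF.pos c.1 c.2))

theorem holes_disj_Gm (BF : BoxFoam La F δ κ0) (hκ : 0 < κ0) {G : ℝ} (hG : 1 ≤ G) (c c' : F)
    (hne : c ≠ c') : 2 * rad κ0 c.1 + 2 * rad κ0 c'.1 < ‖Pc3 G c.1 - Pc3 G c'.1‖ :=
  (holes_disj BF hκ c c' hne).trans_le (norm_sub_le_Gm 2 hG _ _)

theorem holes_fin_Gm (BF : BoxFoam La F δ κ0) (hκ : 1 ≤ κ0) {G : ℝ} (hG : 1 ≤ G) {q : EE (Fin 3)}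
    (hq : q ∈ Gm 2 G '' LaE La) :
    ∃ r : ℝ, 0 < r ∧
      {c : F | (closedBall (Pc3 G c.1) (2 * rad κ0 c.1) ∩ ball q r).Nonempty}.Finite := by
  obtain ⟨q0, hq0, rfl⟩ := hq
  obtain ⟨r, hr, hf⟩ := holes_fin BF hκ (q := q0) hq0
  refine ⟨r, hr, hf.subset ?_⟩
  rintro c ⟨y, hy, hyq⟩
  refine ⟨Gm 2 G⁻¹ y, ?_, ?_⟩
  · rw [mem_closedBall, dist_eq_norm] at hy ⊢
    have h := norm_Gm_inv_sub_le 2 hG y (Pc3 G c.1)
    rw [Pc3, Gm_inv_Gm 2 hG] at h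
    exact h.trans hy
  · rw [mem_ball, dist_eq_norm] at hyq ⊢
    have h := norm_Gm_inv_sub_le 2 hG y (Gm 2 G q0)
    rw [Gm_inv_Gm 2 hG] at h
    exact h.trans_lt hyq

end Holes

/-- **(S2) of 899 #11139: `holes_ok`** -/
theorem holes_ok {La : Set (Fin 3 → ℝ)} {F : Set (Bx (Fin 3))} {q : ℕ}
    (bf : BoxFoam La F (dF q) (kF q)) {G : ℝ} (hG : 1 ≤ G) :
    (∀ c : F, Gm 2 G (P3 (ctr c.1)) ∈ Gm 2 G '' LaE La) ∧
    (∀ c : F, 0 < c.1.sz / (8 * kF q)) ∧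
    (∀ i j : F, i ≠ j → 2 * (i.1.sz / (8 * kF q)) + 2 * (j.1.sz / (8 * kF q)) <
      ‖Gm 2 G (P3 (ctr i.1)) - Gm 2 G (P3 (ctr j.1))‖) ∧
    (∀ z ∈ Gm 2 G '' LaE La, ∃ r : ℝ, 0 < r ∧
      {i : F | (closedBall (Gm 2 G (P3 (ctr i.1))) (2 * (i.1.sz / (8 * kF q))) ∩
        ball z r).Nonempty}.Finite) := by
  have hκ : 0 < kF q := by linarith [one_le_kF q]
  refine ⟨fun c => Pc3_mem bf c, fun c => ?_, fun i j h => holes_disj_Gm bf hκ hG i j h,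
    fun z hz => holes_fin_Gm bf (one_le_kF q) hG hz⟩
  have := Bx.sz_pos (bf.pos _ c.2)
  positivity

end Crest.Agent.R096.Hok_29
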