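import Crest.Agent.R096.Tmap2_212
import Crest.Agent.R096.Ttr1_565
import Crest.Agent.R096.Cov1_58
import Crest.Agent.R096.Br6_695

/-!
Row 96 (S0127), p ≤ 2, helper685.  **[INS]**: the data `InP` of a block of `PreIN p` (in `R3`) are the data
`InS` of `EA0 p` (in `E3`).  Part 1: algebra of an affine map `A` near the affine map of the good cube,
and the clauses `gam`, `tra`.
-/

set_option autoImplicit false
set_option linter.style.longLine false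
set_option linter.unusedSectionVars false

open MeasureTheory Set Filter Topology Metric
open scoped ENNReal NNReal

namespace Crest.Agent.R096.Ins_685

open Crest.AnalysisR.VecCalc3 Crest.AnalysisR.Sobolev
open Crest.Agent.R096.Bsp_628 Crest.Agent.R096.Brk1_582 Crest.Agent.R096.Brk3_582
open Crest.Agent.R096.Msh_715 Crest.Agent.R096.Mal_874
open Crest.Agent.R096.Sk_962 (SH)
open Crest.Agent.R096.SkC1_961 (E3 Hom3)
open Crest.Agent.R096.Er_594 (e3 D3 norm_P3_symm_le norm_P3_le norm_le_P3 norm_le_P3_symm vol_P3)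
open Crest.Agent.R096.EaX_766 (cbx lin)
open Crest.Agent.R096.Br_695 (lin_apply det_le)
open Crest.Agent.R96.Lu_538 (Gmat)
open Crest.Agent.R96.Intr_538 (cel par)
open Crest.Agent.R96.Coarse_538 (vt Cb)
open Crest.Agent.R96.En10_199 (P3)
open Crest.Agent.R096.Tmap_212 (mp)
open Crest.Agent.R096.Ttr_565 (InP4 T4)

noncomputable section

/-- `L` seen in `E3` -/
def L3 (L : R3 →L[ℝ] R3) : E3 →L[ℝ] E3 :=
  (P3.symm : R3 →L[ℝ] E3).comp (L.comp (P3 : E3 →L[ℝ] R3))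

theorem L3_apply (L : R3 →L[ℝ] R3) (v : E3) : L3 L v = P3.symm (L (P3 v)) := rfl

theorem D3_eq_L3 (G : Fin 3 → R3 → R3) (x : E3) : D3 G x = L3 (Gmat G (P3 x)) := rfl

theorem det_L3 (L : R3 →L[ℝ] R3) : (L3 L).det = L.det :=
  Crest.Agent.R096.Er_594.det_conj' P3.toLinearEquiv (L : R3 →ₗ[ℝ] R3)

theorem norm_L3 (L : R3 →L[ℝ] R3) : ‖L3 L‖ ≤ 2 * ‖L‖ := by
  refine ContinuousLinearMap.opNorm_le_bound _ (by positivity) fun v => ?_
  rw [L3_apply]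
  calc ‖P3.symm (L (P3 v))‖ ≤ ‖L (P3 v)‖ := norm_P3_symm_le _
    _ ≤ ‖L‖ * ‖P3 v‖ := L.le_opNorm _
    _ ≤ ‖L‖ * (2 * ‖v‖) := by gcongr; exact norm_P3_le v
    _ = 2 * ‖L‖ * ‖v‖ := by ring

section lin

variable {L : R3 →L[ℝ] R3} {κ kl : ℝ} {A : E3 ≃ᵃ[ℝ] E3}

theorem low_L3 (low : ∀ v, κ * ‖v‖ ≤ ‖L v‖) (hκ : 0 < κ) (v : E3) : κ / 2 * ‖v‖ ≤ ‖L3 L v‖ := by
  have h1 := low (P3 v)
  have h2 := norm_le_P3_symm (L (P3 v))
  have h3 := norm_le_P3 v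
  rw [L3_apply]
  nlinarith

/-- **the linear part of `A` is bounded below** -/
theorem low_lin (hκ : 0 < κ) (low : ∀ v, κ * ‖v‖ ≤ ‖L v‖) (hkl : kl ≤ κ / 8)
    (hl : ∀ v, ‖lin A v - L3 L v‖ ≤ kl * ‖v‖) (v : E3) : κ / 4 * ‖v‖ ≤ ‖lin A v‖ := by
  have h1 := low_L3 low hκ v
  have h2 := hl v
  have h3 : kl * ‖v‖ ≤ κ / 8 * ‖v‖ := mul_le_mul_of_nonneg_right hkl (norm_nonneg _)
  have h4 : ‖L3 L v‖ ≤ ‖lin A v‖ + ‖lin A v - L3 L v‖ := by
    have : L3 L v = lin A v - (lin A v - L3 L v) := by abel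
    calc ‖L3 L v‖ = ‖lin A v - (lin A v - L3 L v)‖ := by rw [← this]
      _ ≤ _ := norm_sub_le _ _
  have h5 := norm_nonneg v
  nlinarith

theorem kap_le (low : ∀ v, κ * ‖v‖ ≤ ‖L v‖) : κ ≤ ‖L‖ := by
  have h1 := low (EuclideanSpace.single 0 1)
  have h2 := L.le_opNorm (EuclideanSpace.single 0 1)
  have h3 : ‖(EuclideanSpace.single (0 : Fin 3) (1 : ℝ) : R3)‖ = 1 := by simp
  rw [h3, mul_one] at h1 h2
  exact h1.trans h2

theorem norm_lin_le (hκ : 0 < κ) (low : ∀ v, κ * ‖v‖ ≤ ‖L v‖) (hkl : kl ≤ κ / 8)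
    (hl : ∀ v, ‖lin A v - L3 L v‖ ≤ kl * ‖v‖) : ‖lin A‖ ≤ 3 * ‖L‖ := by
  have h0 := kap_le low
  refine ContinuousLinearMap.opNorm_le_bound _ (by positivity) fun v => ?_
  have h1 := (L3 L).le_opNorm v
  have h2 : ‖L3 L‖ * ‖v‖ ≤ 2 * ‖L‖ * ‖v‖ := mul_le_mul_of_nonneg_right (norm_L3 L) (norm_nonneg _)
  have h3 : kl * ‖v‖ ≤ κ / 8 * ‖v‖ := mul_le_mul_of_nonneg_right hkl (norm_nonneg _)
  have h4 : ‖lin A v‖ ≤ ‖lin A v - L3 L v‖ + ‖L3 L v‖ := norm_le_norm_sub_add _ _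
  have h5 := hl v
  have h6 := norm_nonneg v
  have h7 : κ / 8 * ‖v‖ ≤ ‖L‖ * ‖v‖ := mul_le_mul_of_nonneg_right (by linarith) h6
  linarith

theorem lin_le_L (hκ : 0 < κ) (low : ∀ v, κ * ‖v‖ ≤ ‖L v‖) (hkl : kl ≤ κ / 8)
    (hl : ∀ v, ‖lin A v - L3 L v‖ ≤ kl * ‖v‖) (v : E3) : ‖lin A v‖ ≤ 2 * ‖L (P3 v)‖ := by
  have h1 := low (P3 v)
  have h2 : ‖L3 L v‖ ≤ ‖L (P3 v)‖ := norm_P3_symm_le _
  have h3 : kl * ‖v‖ ≤ κ / 8 * ‖v‖ := mul_le_mul_of_nonneg_right hkl (norm_nonneg _)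
  have h4 : ‖lin A v‖ ≤ ‖lin A v - L3 L v‖ + ‖L3 L v‖ := norm_le_norm_sub_add _ _
  have h5 := hl v
  have h6 := norm_le_P3 v
  have h7 : κ / 8 * ‖v‖ ≤ κ * ‖P3 v‖ := by
    have : κ / 8 * ‖v‖ ≤ κ / 8 * ‖P3 v‖ := mul_le_mul_of_nonneg_left h6 (by positivity)
    have := norm_nonneg (P3 v)
    nlinarith
  linarith

/-- `lin A⁻¹` -/
theorem lin_symm_apply (A : E3 ≃ᵃ[ℝ] E3) (v : E3) : lin A (lin A.symm v) = v := by
  have h1 := lin_apply A.symm v 0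
  rw [sub_zero] at h1
  rw [h1, lin_apply, A.apply_symm_apply, A.apply_symm_apply, sub_zero]

theorem det_L_le (hκ : 0 < κ) (low : ∀ v, κ * ‖v‖ ≤ ‖L v‖) (hkl : kl ≤ κ / 8)
    (hl : ∀ v, ‖lin A v - L3 L v‖ ≤ kl * ‖v‖) : |L.det| ≤ 27 / 8 * |(lin A).det| := by
  set S : E3 →L[ℝ] E3 := (L3 L).comp (lin A.symm) with hS
  have hS1 : ‖S‖ ≤ 3 / 2 := by
    refine ContinuousLinearMap.opNorm_le_bound _ (by positivity) fun v => ?_
    set u := lin A.symm v with hu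
    have h1 : lin A u = v := lin_symm_apply A v
    have h2 := low_lin hκ low hkl hl u
    rw [h1] at h2
    have h3 := hl u
    rw [h1] at h3
    have h4 : ‖S v‖ ≤ ‖v‖ + ‖v - L3 L u‖ := by
      have : S v = v - (v - L3 L u) := by
        rw [sub_sub_cancel]; rfl
      rw [this]
      exact norm_sub_le _ _
    have h5 : kl * ‖u‖ ≤ κ / 8 * ‖u‖ := mul_le_mul_of_nonneg_right hkl (norm_nonneg _)
    linarith
  have h1 : S.comp (lin A) = L3 L := by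
    ext1 v
    show L3 L (lin A.symm (lin A v)) = L3 L v
    congr 1
    have := lin_apply A v 0
    rw [sub_zero] at this
    rw [this, lin_apply, A.symm_apply_apply, A.symm_apply_apply, sub_zero]
  have h2 : (L3 L).det = S.det * (lin A).det := by
    rw [← h1]
    exact LinearMap.det_comp _ _
  rw [← det_L3, h2, abs_mul]
  refine mul_le_mul_of_nonneg_right ?_ (abs_nonneg _)
  refine (det_le (by norm_num) hS1).trans (by norm_num)

theorem det_lin_pos (A : E3 ≃ᵃ[ℝ] E3) : 0 < |(lin A).det| := by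
  rw [abs_pos]
  intro h
  have h1 : (lin A).comp (lin A.symm) = ContinuousLinearMap.id ℝ E3 := by
    ext1 v
    exact lin_symm_apply A v
  have h2 : (lin A).det * (lin A.symm).det = 1 := by
    have h3 : ((lin A).comp (lin A.symm)).det = (lin A).det * (lin A.symm).det :=
      LinearMap.det_comp _ _
    rw [← h3, h1]
    exact LinearMap.det_id
  rw [h, zero_mul] at h2
  exact zero_ne_one h2

theorem det_L_pos (hκ : 0 < κ) (low : ∀ v, κ * ‖v‖ ≤ ‖L v‖) : 0 < |L.det| := by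
  rw [abs_pos]
  intro h
  have h1 : LinearMap.ker (L : R3 →ₗ[ℝ] R3) = ⊥ := by
    rw [LinearMap.ker_eq_bot']
    intro v hv
    have h2 := low v
    have h3 : L v = 0 := hv
    rw [h3, norm_zero] at h2
    have h4 : ‖v‖ = 0 := by
      have := norm_nonneg v
      nlinarith
    exact norm_eq_zero.1 h4
  have h2 : LinearMap.det (L : R3 →ₗ[ℝ] R3) = 0 := h
  exact absurd (LinearMap.bot_lt_ker_of_det_eq_zero h2) (by rw [h1]; exact lt_irrefl _)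

/-- the prefactor of (2b) -/
theorem pref_le {p : ℝ} (hp : 0 ≤ p) (hp3 : p ≤ 3) (hκ : 0 < κ) (low : ∀ v, κ * ‖v‖ ≤ ‖L v‖)
    (hkl : kl ≤ κ / 8) (hl : ∀ v, ‖lin A v - L3 L v‖ ≤ kl * ‖v‖) :
    ‖lin A‖ ^ p / |(lin A).det| ≤ 100 * (‖L‖ ^ p / |L.det|) := by
  have h1 := det_lin_pos A
  have h2 := det_L_pos hκ low
  have h3 := det_L_le hκ low hkl hl
  have h4 := norm_lin_le hκ low hkl hl
  have h5 : ‖lin A‖ ^ p ≤ 27 * ‖L‖ ^ p := by
    calc ‖lin A‖ ^ p ≤ (3 * ‖L‖) ^ p := Real.rpow_le_rpow (norm_nonneg _) h4 hp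
      _ = 3 ^ p * ‖L‖ ^ p := Real.mul_rpow (by norm_num) (norm_nonneg _)
      _ ≤ 3 ^ (3 : ℝ) * ‖L‖ ^ p := by
          refine mul_le_mul_of_nonneg_right ?_ (by positivity)
          exact Real.rpow_le_rpow_of_exponent_le (by norm_num) hp3
      _ = 27 * ‖L‖ ^ p := by
          congr 1
          norm_num
  have h6 : 0 ≤ ‖L‖ ^ p := by positivity
  rw [div_le_iff₀ h1]
  have h7 : 100 * (‖L‖ ^ p / |L.det|) * |(lin A).det| = 100 * ‖L‖ ^ p * (|(lin A).det| / |L.det|) := by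
    ring
  have h8 : 8 / 27 ≤ |(lin A).det| / |L.det| := by
    rw [le_div_iff₀ h2]
    linarith
  rw [h7]
  nlinarith [mul_le_mul_of_nonneg_left h8 h6]

end lin

end

end Crest.Agent.R096.Ins_685
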