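import Crest.Agent.R096.Ins1_685

/-!
Row 96 (S0127), p ≤ 2, helper685.  **[INS]**, part 2: `InP` of a block of `PreIN p` ⟹ `InS` of `EA0 p`.
-/

set_option autoImplicit false
set_option linter.style.longLine false
set_option linter.unusedSectionVars false
set_option linter.unusedVariables false

open MeasureTheory Set Filter Topology Metric
open scoped ENNReal NNReal

namespace Crest.Agent.R096.Ins_685

open Crest.AnalysisR.VecCalc3 Crest.AnalysisR.Sobolev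
open Crest.Agent.R096.Bsp_628 Crest.Agent.R096.Brk1_582 Crest.Agent.R096.Brk3_582
open Crest.Agent.R096.Msh_715 Crest.Agent.R096.Mal_874
open Crest.Agent.R096.Sk_962 (SH)
open Crest.Agent.R096.SkC1_961 (E3 Hom3)
open Crest.Agent.R096.Er_594 (e3 D3 norm_P3_symm_le norm_P3_le norm_le_P3 norm_le_P3_symm vol_P3)
open Crest.Agent.R096.EaX_766 (cbx lin)
open Crest.Agent.R096.Br_695 (lin_apply det_le)
open Crest.Agent.R96.Lu_538 (Gmat)
open Crest.Agent.R96.Intr_538 (cel par)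
open Crest.Agent.R96.Coarse_538 (vt Cb)
open Crest.Agent.R96.En10_199 (P3)
open Crest.Agent.R096.Tmap_212 (mp)
open Crest.Agent.R096.Ttr_565 (InP4 T4)
open Crest.Agent.R096.Pin_753 (Bk InP)
open Crest.Agent.R096.Ea0_961 (InS)

noncomputable section

variable {p : ℝ} {f : R3 → R3} {G : Fin 3 → R3 → R3} {C1 κw s κ ka kl κw' : ℝ} {b z : R3}
  {L : R3 →L[ℝ] R3} {er : ℝ≥0∞} {A : E3 ≃ᵃ[ℝ] E3}

theorem preT4 (Q : CB E3 3) (k0 : ℕ) : P3 ⁻¹' T4 (mp P3 Q) k0 = Ea0_961.Tw Q k0 := by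
  ext w
  show (∀ l, 0 ≤ Q.ψ (P3.symm (P3 w)) l ∧ Q.ψ (P3.symm (P3 w)) l ≤ 1 / (10 * 2 ^ k0)) ↔ _
  rw [P3.symm_apply_apply]
  rfl

theorem cc_sub_Kc (Q : CB E3 3) {k0 : ℕ} (hk : Q.kc ≤ k0) {x y : E3} (hx : x ∈ Q.Kc)
    (hy : y ∈ (Q.T k0 hk).cc x) : y ∈ Q.Kc := by
  rw [← Q.P_core k0 hk] at hx ⊢
  exact fun h hh => (hy (Q.cix k0 hk) hx h hh).1

theorem vol_shell_mp (Q : CB E3 3) : volume ((mp P3 Q).N \ (mp P3 Q).Kc) = volume (Q.N \ Q.Kc) := by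
  rw [← vol_P3, preimage_sdiff, Tmap_212.pre_N_mp, Tmap_212.pre_Kc_mp]

/-- the term of (2b) at one edge -/
theorem term_le (hp : 0 ≤ p) (hp3 : p ≤ 3) (hκ : 0 < κ) (low : ∀ v, κ * ‖v‖ ≤ ‖L v‖)
    (hkl : kl ≤ κ / 8) (hl : ∀ v, ‖lin A v - L3 L v‖ ≤ kl * ‖v‖) (u v w : E3) :
    ENNReal.ofReal (‖lin A (v - u)‖ ^ (3 - p)) *
      (∫⁻ τ in Icc (0:ℝ) 1, ‖D3 G (u + w + τ • (v - u)) (v - u)‖ₑ ^ p) ≤
    8 * (ENNReal.ofReal (‖L (P3 v - P3 u)‖ ^ (3 - p)) *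
      (∫⁻ τ in Icc (0:ℝ) 1, ‖Gmat G (P3 u + P3 w + τ • (P3 v - P3 u)) (P3 v - P3 u)‖ₑ ^ p)) := by
  rw [← mul_assoc]
  refine mul_le_mul' ?_ (lintegral_mono fun τ => ENNReal.rpow_le_rpow ?_ hp)
  · have h8 : (8 : ℝ≥0∞) = ENNReal.ofReal 8 := by simp
    rw [h8, ← ENNReal.ofReal_mul (by norm_num)]
    apply ENNReal.ofReal_le_ofReal
    have h1 := lin_le_L hκ low hkl hl (v - u)
    rw [map_sub P3] at h1
    calc ‖lin A (v - u)‖ ^ (3 - p) ≤ (2 * ‖L (P3 v - P3 u)‖) ^ (3 - p) :=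
          Real.rpow_le_rpow (norm_nonneg _) h1 (by linarith)
      _ = 2 ^ (3 - p) * ‖L (P3 v - P3 u)‖ ^ (3 - p) := Real.mul_rpow (by norm_num) (norm_nonneg _)
      _ ≤ 2 ^ (3 : ℝ) * ‖L (P3 v - P3 u)‖ ^ (3 - p) := by
          refine mul_le_mul_of_nonneg_right ?_ (by positivity)
          exact Real.rpow_le_rpow_of_exponent_le (by norm_num) (by linarith)
      _ = _ := by
          congr 1
          norm_num
  · rw [D3_eq_L3, L3_apply, ← ofReal_norm, ← ofReal_norm]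
    apply ENNReal.ofReal_le_ofReal
    refine (norm_P3_symm_le _).trans (le_of_eq ?_)
    simp only [map_add, map_sub, map_smul]

/-- the integral of (2a) at one edge -/
theorem near_le (hκ : 0 < κ) (low : ∀ v, κ * ‖v‖ ≤ ‖L v‖)
    (hkl : kl ≤ κ / 8) (hl : ∀ v, ‖lin A v - L3 L v‖ ≤ kl * ‖v‖) (hkw : 0 ≤ κw)
    (hkl0 : 0 ≤ kl) (n2 : 2 * κw + kl ≤ κ / 4 * κw') (u v w : E3)
    (h : ∫⁻ τ in Icc (0:ℝ) 1, ‖Gmat G (P3 u + P3 w + τ • (P3 v - P3 u)) (P3 v - P3 u) -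
      L (P3 v - P3 u)‖ₑ ≤ ENNReal.ofReal (κw * ‖P3 v - P3 u‖)) :
    ∫⁻ τ in Icc (0:ℝ) 1, ‖D3 G (u + w + τ • (v - u)) (v - u) - lin A (v - u)‖ₑ ≤
      ENNReal.ofReal (κw' * ‖lin A (v - u)‖) := by
  have hpt : ∀ τ : ℝ, ‖D3 G (u + w + τ • (v - u)) (v - u) - lin A (v - u)‖ₑ ≤
      ‖Gmat G (P3 u + P3 w + τ • (P3 v - P3 u)) (P3 v - P3 u) - L (P3 v - P3 u)‖ₑ +
        ENNReal.ofReal (kl * ‖v - u‖) := by
    intro τ
    rw [← ofReal_norm, ← ofReal_norm, ← ENNReal.ofReal_add (norm_nonneg _) (by positivity)]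
    apply ENNReal.ofReal_le_ofReal
    have e1 : D3 G (u + w + τ • (v - u)) (v - u) - lin A (v - u) =
        P3.symm (Gmat G (P3 u + P3 w + τ • (P3 v - P3 u)) (P3 v - P3 u) - L (P3 v - P3 u)) -
          (lin A (v - u) - L3 L (v - u)) := by
      rw [D3_eq_L3, L3_apply, L3_apply, map_sub P3.symm]
      simp only [map_add, map_sub, map_smul]
      abel
    rw [e1]
    exact (norm_sub_le _ _).trans (add_le_add (norm_P3_symm_le _) (hl _))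
  calc ∫⁻ τ in Icc (0:ℝ) 1, ‖D3 G (u + w + τ • (v - u)) (v - u) - lin A (v - u)‖ₑ
      ≤ ∫⁻ τ in Icc (0:ℝ) 1, (‖Gmat G (P3 u + P3 w + τ • (P3 v - P3 u)) (P3 v - P3 u) -
          L (P3 v - P3 u)‖ₑ + ENNReal.ofReal (kl * ‖v - u‖)) := lintegral_mono hpt
    _ = (∫⁻ τ in Icc (0:ℝ) 1, ‖Gmat G (P3 u + P3 w + τ • (P3 v - P3 u)) (P3 v - P3 u) -
          L (P3 v - P3 u)‖ₑ) + ENNReal.ofReal (kl * ‖v - u‖) := by
        rw [lintegral_add_right _ measurable_const, setLIntegral_const, Real.volume_Icc]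
        norm_num
    _ ≤ ENNReal.ofReal (κw * ‖P3 v - P3 u‖) + ENNReal.ofReal (kl * ‖v - u‖) := by gcongr
    _ = ENNReal.ofReal (κw * ‖P3 v - P3 u‖ + kl * ‖v - u‖) := by
        rw [← ENNReal.ofReal_add (by positivity) (by positivity)]
    _ ≤ ENNReal.ofReal (κw' * ‖lin A (v - u)‖) := by
        apply ENNReal.ofReal_le_ofReal
        have h1 : ‖P3 v - P3 u‖ ≤ 2 * ‖v - u‖ := by
          rw [← map_sub]
          exact norm_P3_le _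
        have h2 := low_lin hκ low hkl hl (v - u)
        have h3 : κw * ‖P3 v - P3 u‖ ≤ κw * (2 * ‖v - u‖) := mul_le_mul_of_nonneg_left h1 hkw
        have h4 : (2 * κw + kl) * ‖v - u‖ ≤ κ / 4 * κw' * ‖v - u‖ :=
          mul_le_mul_of_nonneg_right n2 (norm_nonneg _)
        have hkw' : 0 ≤ κw' := by
          by_contra hc
          have : κ / 4 * κw' < 0 := mul_neg_of_pos_of_neg (by positivity) (not_le.1 hc)
          linarith
        have h5 : κw' * (κ / 4 * ‖v - u‖) ≤ κw' * ‖lin A (v - u)‖ :=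
          mul_le_mul_of_nonneg_left h2 hkw'
        nlinarith

/-- **[INS], core**: the data in `R3` of the block `mp P3 Q` give the data in `E3` of `Q` -/
theorem ins_core (hp : 0 ≤ p) (hp3 : p ≤ 3) {Om : Set R3} (Q : CB E3 3) {k0 : ℕ} (hk : Q.kc ≤ k0)
    (H : InP4 p f (Gmat G) C1 κw s b L z er (mp P3 Q) k0 hk)
    (hκ : 0 < κ) (low : ∀ v, κ * ‖v‖ ≤ ‖L v‖) (hkl0 : 0 ≤ kl) (hkl : kl ≤ κ / 8)
    (hl : ∀ v, ‖lin A v - L3 L v‖ ≤ kl * ‖v‖) (hkw : 0 ≤ κw)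
    (hA : ∀ x ∈ closedBall (P3.symm z) s, ‖A x - P3.symm (Bk b L z (P3 x))‖ ≤ ka * s)
    (hN : ∀ y ∈ Q.Kc, ∀ w, ‖Q.ψ w‖ ≤ 1 / (10 * 2 ^ k0) → y + w ∈ closedBall (P3.symm z) s)
    {Cc κ1 κ2 lam : ℝ} {M : ℕ} {c : Bx (Fin 3)} (hCc : 0 ≤ Cc)
    (n1 : (κw + ka) * s ≤ κw' * (lam * c.sz) / M) (n2 : 2 * κw + kl ≤ κ / 4 * κw')
    {t r : ℝ} (hts : t ≤ s) (hsub : closedBall (P3.symm z) t ⊆ P3 ⁻¹' Om)
    (hcl : ∀ x ∈ closedBall (P3.symm z) t, ‖e3 f x - P3.symm (Bk b L z (P3 x))‖ ≤ r)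
    (hcor : ∀ x : E3, (x ∈ P3 ⁻¹' Om ∧ e3 f x ∈ cbx c lam) ∨ A x ∈ cbx c ((1 + 2 * κ2) * lam) →
      x ∈ closedBall (P3.symm z) t)
    (n3 : r + ka * s ≤ κ1 * (lam * c.sz)) :
    InS p (P3 ⁻¹' Om) (e3 f) (D3 G) Cc κ1 κ2 κw' M c A lam
      (1000 * (ENNReal.ofReal (C1 * ‖L‖ ^ p) * volume (Q.N \ Q.Kc) + er)) Q k0 hk := by
  refine ⟨?_, ?_, ?_⟩
  · intro x hx
    have h1 := hcor x hx
    refine ⟨hsub h1, ?_⟩
    have h2 := hcl x h1
    have h3 := hA x (closedBall_subset_closedBall hts h1)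
    have e1 : e3 f x - A x = (e3 f x - P3.symm (Bk b L z (P3 x))) -
        (A x - P3.symm (Bk b L z (P3 x))) := by abel
    rw [e1]
    exact (norm_sub_le _ _).trans ((add_le_add h2 h3).trans n3)
  · intro x hx hd y hy w hw
    have hx' : P3 x ∈ (mp P3 Q).Kc := (Tmap_212.mem_Kc_mp' P3 Q).2 hx
    have hd' : ((mp P3 Q).T k0 hk).dim (P3 x) = 1 := by
      rw [Tmap_212.T_dim P3 Q k0 hk]; exact hd
    have hy' : P3 y ∈ ((mp P3 Q).T k0 hk).cc (P3 x) := by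
      rw [Tmap_212.T_cc P3 Q k0 hk]; exact ⟨y, hy, rfl⟩
    have hw' : ‖(mp P3 Q).ψ (P3 w)‖ ≤ 1 / (10 * 2 ^ k0) := by
      rw [Tmap_212.mp_ψ, P3.symm_apply_apply]; exact hw
    have h1 := H.gam (P3 x) hx' hd' (P3 y) hy' (P3 w) hw'
    have hyK : y ∈ Q.Kc := cc_sub_Kc Q hk hx hy
    have h3 := hA (y + w) (hN y hyK w hw)
    have e1 : e3 f (y + w) - A (y + w) =
        P3.symm (f (P3 y + P3 w) - Bk b L z (P3 y + P3 w)) -
        (A (y + w) - P3.symm (Bk b L z (P3 (y + w)))) := by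
      rw [map_sub P3.symm, ← map_add P3]
      show P3.symm (f (P3 (y + w))) - _ = _
      abel
    rw [e1]
    refine (norm_sub_le _ _).trans (le_trans (add_le_add ((norm_P3_symm_le _).trans h1) h3) ?_)
    linarith
  · obtain ⟨Gd, hG1, hG2⟩ := H.tra
    refine ⟨P3 ⁻¹' Gd, ?_, ?_⟩
    · rw [← preT4, ← preimage_sdiff, vol_P3, vol_P3]
      exact hG1
    · intro w hw hwT
      have hwT' : P3 w ∈ T4 (mp P3 Q) k0 := by
        rw [← preT4] at hwT; exact hwT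
      obtain ⟨g1, g2⟩ := hG2 (P3 w) hw hwT'
      refine ⟨?_, ?_⟩
      · intro e he heK
        have he' : (P3 e.1, P3 e.2) ∈ Pin_753.Ed (mp P3 Q) k0 hk := by
          rw [Tmap_212.mem_Ed, P3.symm_apply_apply, P3.symm_apply_apply]
          exact he
        have h1 := g1 _ he' ((Tmap_212.seg_Kc Q).2 heK)
        exact near_le hκ low hkl hl hkw hkl0 n2 e.1 e.2 w h1
      · have hpr := pref_le hp hp3 hκ low hkl hl
        have h1 : ∑' e : Ea0_961.Ed Q k0 hk, ENNReal.ofReal (‖lin A (e.1.2 - e.1.1)‖ ^ (3 - p)) *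
            (∫⁻ τ in Icc (0:ℝ) 1, ‖D3 G (e.1.1 + w + τ • (e.1.2 - e.1.1)) (e.1.2 - e.1.1)‖ₑ ^ p) ≤
            8 * ∑' e : Pin_753.Ed (mp P3 Q) k0 hk,
              ENNReal.ofReal (‖L (e.1.2 - e.1.1)‖ ^ (3 - p)) *
              (∫⁻ τ in Icc (0:ℝ) 1,
                ‖Gmat G (e.1.1 + P3 w + τ • (e.1.2 - e.1.1)) (e.1.2 - e.1.1)‖ₑ ^ p) := by
          rw [Tmap_212.tsum_Ed Q k0 hk (fun e => ENNReal.ofReal (‖L (e.2 - e.1)‖ ^ (3 - p)) *
              (∫⁻ τ in Icc (0:ℝ) 1,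
                ‖Gmat G (e.1 + P3 w + τ • (e.2 - e.1)) (e.2 - e.1)‖ₑ ^ p)), ← ENNReal.tsum_mul_left]
          exact ENNReal.tsum_le_tsum fun e => term_le hp hp3 hκ low hkl hl _ _ _
        have h100 : ENNReal.ofReal (‖lin A‖ ^ p / |(lin A).det|) ≤
            100 * ENNReal.ofReal (‖L‖ ^ p / |L.det|) := by
          have e8 : (100 : ℝ≥0∞) = ENNReal.ofReal 100 := by simp
          rw [e8, ← ENNReal.ofReal_mul (by norm_num)]
          exact ENNReal.ofReal_le_ofReal hpr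
        have h2 := mul_le_mul' h100 h1
        refine h2.trans ?_
        calc 100 * ENNReal.ofReal (‖L‖ ^ p / |L.det|) * (8 * ∑' e : Pin_753.Ed (mp P3 Q) k0 hk,
              ENNReal.ofReal (‖L (e.1.2 - e.1.1)‖ ^ (3 - p)) *
              (∫⁻ τ in Icc (0:ℝ) 1,
                ‖Gmat G (e.1.1 + P3 w + τ • (e.1.2 - e.1.1)) (e.1.2 - e.1.1)‖ₑ ^ p))
            = 800 * (ENNReal.ofReal (‖L‖ ^ p / |L.det|) * ∑' e : Pin_753.Ed (mp P3 Q) k0 hk,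
              ENNReal.ofReal (‖L (e.1.2 - e.1.1)‖ ^ (3 - p)) *
              (∫⁻ τ in Icc (0:ℝ) 1,
                ‖Gmat G (e.1.1 + P3 w + τ • (e.1.2 - e.1.1)) (e.1.2 - e.1.1)‖ₑ ^ p)) := by ring
          _ ≤ 1000 * (ENNReal.ofReal (‖L‖ ^ p / |L.det|) * ∑' e : Pin_753.Ed (mp P3 Q) k0 hk,
              ENNReal.ofReal (‖L (e.1.2 - e.1.1)‖ ^ (3 - p)) *
              (∫⁻ τ in Icc (0:ℝ) 1,
                ‖Gmat G (e.1.1 + P3 w + τ • (e.1.2 - e.1.1)) (e.1.2 - e.1.1)‖ₑ ^ p)) := by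
              gcongr; norm_num
          _ ≤ 1000 * (ENNReal.ofReal (C1 * ‖L‖ ^ p) * volume ((mp P3 Q).N \ (mp P3 Q).Kc) + er) := by
              gcongr
          _ = 1000 * (ENNReal.ofReal (C1 * ‖L‖ ^ p) * volume (Q.N \ Q.Kc) + er) := by
              rw [vol_shell_mp]
          _ ≤ _ := le_add_self

end

end Crest.Agent.R096.Ins_685
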