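import Mathlib

/-!
# R096 (S0127), leaf P2-SHORT, part (I1): islands on a planar grid

`u` is a function on the vertices of a rectangular grid which is small on the boundary and has
small total variation `W` along the edges.  Then `{u > t'}` (for a good `t' ∈ (t/2, t)`) is covered
by pairwise separated rectangles of total (half) perimeter at most `W / t`.
-/

set_option autoImplicit false

namespace Crest.Agent.R096.Isl_968

open Finset

/-- king move or equal -/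
def King (x y : ℤ × ℤ) : Prop := |x.1 - y.1| ≤ 1 ∧ |x.2 - y.2| ≤ 1

lemma King.symm {x y : ℤ × ℤ} (h : King x y) : King y x := by
  unfold King at *
  rw [abs_sub_comm y.1, abs_sub_comm y.2]
  exact h

/-- half perimeter of a rectangle (number of columns + number of rows) -/
def sz (r : (ℤ × ℤ) × (ℤ × ℤ)) : ℤ := (r.2.1 - r.1.1 + 1) + (r.2.2 - r.1.2 + 1)

lemma sz_nonneg {r : (ℤ × ℤ) × (ℤ × ℤ)} (h : r.1 ≤ r.2) : 2 ≤ sz r := by
  have h1 := h.1
  have h2 := h.2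
  unfold sz
  omega

/-- the four kinds of boundary vertices -/
def bd (d : ℤ × ℤ) (K : Finset (ℤ × ℤ)) : Finset (ℤ × ℤ) := K.filter (fun x => x + d ∉ K)

/-- number of boundary edges -/
def per (K : Finset (ℤ × ℤ)) : ℕ :=
  (bd (0, 1) K).card + (bd (0, -1) K).card + (bd (1, 0) K).card + (bd (-1, 0) K).card

/-- connectedness by king moves -/
def Conn (K : Finset (ℤ × ℤ)) : Prop :=
  ∀ X : Finset (ℤ × ℤ), X ⊆ K → X.Nonempty → (∀ x ∈ X, ∀ y ∈ K, King x y → y ∈ X) → X = K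

lemma king_add {d : ℤ × ℤ} (h1 : |d.1| ≤ 1) (h2 : |d.2| ≤ 1) (x : ℤ × ℤ) : King x (x + d) := by
  unfold King
  constructor
  · simpa using h1
  · simpa using h2

lemma per_union {K L : Finset (ℤ × ℤ)} (hd : Disjoint K L)
    (hs : ∀ x ∈ K, ∀ y ∈ L, ¬ King x y) : per (K ∪ L) = per K + per L := by
  have key : ∀ d : ℤ × ℤ, |d.1| ≤ 1 → |d.2| ≤ 1 →
      (bd d (K ∪ L)).card = (bd d K).card + (bd d L).card := by
    intro d h1 h2
    have : bd d (K ∪ L) = bd d K ∪ bd d L := by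
      ext x
      simp only [bd, mem_filter, mem_union, not_or]
      constructor
      · rintro ⟨hx | hx, h3, h4⟩
        · exact Or.inl ⟨hx, h3⟩
        · exact Or.inr ⟨hx, h4⟩
      · rintro (⟨hx, h3⟩ | ⟨hx, h3⟩)
        · exact ⟨Or.inl hx, h3, fun h4 => hs x hx _ h4 (king_add h1 h2 x)⟩
        · exact ⟨Or.inr hx, fun h4 => hs _ h4 x hx (king_add h1 h2 x).symm, h3⟩
    rw [this, card_union_of_disjoint]
    exact hd.mono (filter_subset _ _) (filter_subset _ _)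
  unfold per
  rw [key (0, 1) (by simp) (by simp), key (0, -1) (by simp) (by simp),
    key (1, 0) (by simp) (by simp), key (-1, 0) (by simp) (by simp)]
  ring

/-- the columns (rows) of a connected set form an interval -/
lemma Conn.col {K : Finset (ℤ × ℤ)} (hK : Conn K) (p : ℤ × ℤ → ℤ)
    (hp : ∀ x y, King x y → |p x - p y| ≤ 1) {x y : ℤ × ℤ} (hx : x ∈ K) (hy : y ∈ K) {i : ℤ}
    (h1 : p x ≤ i) (h2 : i ≤ p y) : ∃ z ∈ K, p z = i := by
  classical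
  by_contra hno
  push Not at hno
  have hX : (K.filter (fun z => p z < i)) = K := by
    refine hK _ (filter_subset _ _) ⟨x, ?_⟩ ?_
    · rw [mem_filter]
      exact ⟨hx, lt_of_le_of_ne h1 (hno x hx)⟩
    · intro a ha b hb hab
      rw [mem_filter] at ha ⊢
      refine ⟨hb, ?_⟩
      have h3 := hp a b hab
      have h4 := hno b hb
      rw [abs_le] at h3
      have := ha.2
      omega
  have : y ∈ K.filter (fun z => p z < i) := by rw [hX]; exact hy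
  rw [mem_filter] at this
  omega

/-- every column of `K` contains a point whose upper neighbour is not in `K` -/
lemma top_mem {K : Finset (ℤ × ℤ)} {x : ℤ × ℤ} (hx : x ∈ K) (s : ℤ) (hs : s = 1 ∨ s = -1) :
    ∃ z ∈ bd (0, s) K, z.1 = x.1 := by
  classical
  obtain ⟨z, hz, hmax⟩ := (K.filter (fun z => z.1 = x.1)).exists_max_image (fun z => s * z.2)
    ⟨x, by simp [hx]⟩
  rw [mem_filter] at hz
  refine ⟨z, ?_, hz.2⟩
  unfold bd
  rw [mem_filter]
  refine ⟨hz.1, fun h => ?_⟩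
  have h2 := hmax (z + (0, s)) (by rw [mem_filter]; exact ⟨h, by simp [hz.2]⟩)
  simp only [Prod.snd_add] at h2
  rcases hs with rfl | rfl <;> omega

lemma right_mem {K : Finset (ℤ × ℤ)} {x : ℤ × ℤ} (hx : x ∈ K) (s : ℤ) (hs : s = 1 ∨ s = -1) :
    ∃ z ∈ bd (s, 0) K, z.2 = x.2 := by
  classical
  obtain ⟨z, hz, hmax⟩ := (K.filter (fun z => z.2 = x.2)).exists_max_image (fun z => s * z.1)
    ⟨x, by simp [hx]⟩
  rw [mem_filter] at hz
  refine ⟨z, ?_, hz.2⟩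
  unfold bd
  rw [mem_filter]
  refine ⟨hz.1, fun h => ?_⟩
  have h2 := hmax (z + (s, 0)) (by rw [mem_filter]; exact ⟨h, by simp [hz.2]⟩)
  simp only [Prod.fst_add] at h2
  rcases hs with rfl | rfl <;> omega

lemma card_ge {D : Finset (ℤ × ℤ)} (p : ℤ × ℤ → ℤ) {a b : ℤ}
    (h : ∀ i, a ≤ i → i ≤ b → ∃ z ∈ D, p z = i) : b - a + 1 ≤ D.card := by
  classical
  have h1 : Finset.Icc a b ⊆ D.image p := by
    intro i hi
    rw [Finset.mem_Icc] at hi
    obtain ⟨z, hz, hzi⟩ := h i hi.1 hi.2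
    exact Finset.mem_image.2 ⟨z, hz, hzi⟩
  have h2 := (Finset.card_le_card h1).trans Finset.card_image_le
  rw [Int.card_Icc] at h2
  omega

/-- a connected set lies in a rectangle of half perimeter at most half of the number of its boundary
edges -/
lemma Conn.rect {K : Finset (ℤ × ℤ)} (hK : Conn K) (hne : K.Nonempty) :
    ∃ r : (ℤ × ℤ) × (ℤ × ℤ), r.1 ≤ r.2 ∧ (∀ x ∈ K, r.1 ≤ x ∧ x ≤ r.2) ∧
      (∀ c, (∀ x ∈ K, c ≤ x) → c ≤ r.1) ∧ (∀ c, (∀ x ∈ K, x ≤ c) → r.2 ≤ c) ∧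
      2 * sz r ≤ per K := by
  classical
  obtain ⟨x1, hx1, m1⟩ := K.exists_min_image (fun z => z.1) hne
  obtain ⟨x2, hx2, m2⟩ := K.exists_max_image (fun z => z.1) hne
  obtain ⟨y1, hy1, n1⟩ := K.exists_min_image (fun z => z.2) hne
  obtain ⟨y2, hy2, n2⟩ := K.exists_max_image (fun z => z.2) hne
  have hc : ∀ i, x1.1 ≤ i → i ≤ x2.1 → ∃ z ∈ K, z.1 = i := fun i h1 h2 =>
    hK.col (fun z => z.1) (fun x y h => h.1) hx1 hx2 h1 h2
  have hr : ∀ i, y1.2 ≤ i → i ≤ y2.2 → ∃ z ∈ K, z.2 = i := fun i h1 h2 =>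
    hK.col (fun z => z.2) (fun x y h => h.2) hy1 hy2 h1 h2
  refine ⟨((x1.1, y1.2), (x2.1, y2.2)), ⟨m1 x2 hx2, n1 y2 hy2⟩, fun x hx =>
    ⟨⟨m1 x hx, n1 x hx⟩, ⟨m2 x hx, n2 x hx⟩⟩, fun c hc => ⟨(hc x1 hx1).1, (hc y1 hy1).2⟩,
    fun c hc => ⟨(hc x2 hx2).1, (hc y2 hy2).2⟩, ?_⟩
  have e1 : x2.1 - x1.1 + 1 ≤ ((bd (0, 1) K).card : ℤ) := card_ge (fun z => z.1) (fun i h1 h2 => by
    obtain ⟨z, hz, hzi⟩ := hc i h1 h2
    obtain ⟨y, hy, hyi⟩ := top_mem hz 1 (Or.inl rfl)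
    exact ⟨y, hy, hyi.trans hzi⟩)
  have e2 : x2.1 - x1.1 + 1 ≤ ((bd (0, -1) K).card : ℤ) := card_ge (fun z => z.1) (fun i h1 h2 => by
    obtain ⟨z, hz, hzi⟩ := hc i h1 h2
    obtain ⟨y, hy, hyi⟩ := top_mem hz (-1) (Or.inr rfl)
    exact ⟨y, hy, hyi.trans hzi⟩)
  have e3 : y2.2 - y1.2 + 1 ≤ ((bd (1, 0) K).card : ℤ) := card_ge (fun z => z.2) (fun i h1 h2 => by
    obtain ⟨z, hz, hzi⟩ := hr i h1 h2
    obtain ⟨y, hy, hyi⟩ := right_mem hz 1 (Or.inl rfl)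
    exact ⟨y, hy, hyi.trans hzi⟩)
  have e4 : y2.2 - y1.2 + 1 ≤ ((bd (-1, 0) K).card : ℤ) := card_ge (fun z => z.2) (fun i h1 h2 => by
    obtain ⟨z, hz, hzi⟩ := hr i h1 h2
    obtain ⟨y, hy, hyi⟩ := right_mem hz (-1) (Or.inr rfl)
    exact ⟨y, hy, hyi.trans hzi⟩)
  unfold sz per
  push_cast
  linarith

/-- every nonempty finite set has a connected component -/
lemma exists_comp (U : Finset (ℤ × ℤ)) (hU : U.Nonempty) :
    ∃ K ⊆ U, K.Nonempty ∧ Conn K ∧ ∀ x ∈ K, ∀ y ∈ U \ K, ¬ King x y := by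
  classical
  let P : Finset (ℤ × ℤ) → Prop := fun K => K ⊆ U ∧ K.Nonempty ∧ ∀ x ∈ K, ∀ y ∈ U, King x y → y ∈ K
  have hex : ∃ n, ∃ K, P K ∧ K.card = n := ⟨U.card, U, ⟨Subset.refl _, hU, fun _ _ y hy _ => hy⟩, rfl⟩
  obtain ⟨K, hK, hn⟩ := Nat.find_spec hex
  refine ⟨K, hK.1, hK.2.1, ?_, ?_⟩
  · intro X hX hXne hcl
    have hPX : P X := ⟨hX.trans hK.1, hXne, fun x hx y hy h =>
      hcl x hx y (hK.2.2 x (hX hx) y hy h) h⟩
    have := Nat.find_min' hex ⟨X, hPX, rfl⟩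
    exact Finset.eq_of_subset_of_card_le hX (by omega)
  · intro x hx y hy h
    rw [mem_sdiff] at hy
    exact hy.2 (hK.2.2 x hx y hy.1 h)

/-- a family of rectangles inside the box `[A, B]`, covering `U`, of total half perimeter `≤ c` -/
def Cov (A B : ℤ × ℤ) (U : Finset (ℤ × ℤ)) (c : ℤ) (F : Finset ((ℤ × ℤ) × (ℤ × ℤ))) : Prop :=
  (∀ r ∈ F, r.1 ≤ r.2 ∧ A ≤ r.1 ∧ r.2 ≤ B) ∧ (∀ x ∈ U, ∃ r ∈ F, r.1 ≤ x ∧ x ≤ r.2) ∧
    2 * ∑ r ∈ F, sz r ≤ c

lemma exists_cov (A B : ℤ × ℤ) : ∀ n : ℕ, ∀ U : Finset (ℤ × ℤ), U.card = n →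
    (∀ x ∈ U, A ≤ x ∧ x ≤ B) → ∃ F, Cov A B U (per U) F := by
  classical
  intro n
  induction n using Nat.strong_induction_on with
  | _ n ih =>
    intro U hn hAB
    rcases U.eq_empty_or_nonempty with rfl | hU
    · exact ⟨∅, by simp [Cov]⟩
    obtain ⟨K, hKU, hKne, hKc, hsep⟩ := exists_comp U hU
    obtain ⟨r, h1, h2, h3, h4, h5⟩ := hKc.rect hKne
    have hlt : (U \ K).card < n := by
      rw [← hn]
      refine Finset.card_lt_card ⟨sdiff_subset, fun h => ?_⟩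
      obtain ⟨x, hx⟩ := hKne
      have := h (hKU hx)
      rw [mem_sdiff] at this
      exact this.2 hx
    obtain ⟨F, hF1, hF2, hF3⟩ := ih _ hlt (U \ K) rfl (fun x hx => hAB x (mem_sdiff.1 hx).1)
    have hper : per U = per K + per (U \ K) := by
      have := per_union (K := K) (L := U \ K) disjoint_sdiff hsep
      rwa [union_sdiff_of_subset hKU] at this
    refine ⟨insert r F, ?_, ?_, ?_⟩
    · intro s hs
      rw [mem_insert] at hs
      rcases hs with rfl | hs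
      · exact ⟨h1, h3 A (fun x hx => (hAB x (hKU hx)).1), h4 B (fun x hx => (hAB x (hKU hx)).2)⟩
      · exact hF1 s hs
    · intro x hx
      by_cases hxK : x ∈ K
      · exact ⟨r, mem_insert_self _ _, h2 x hxK⟩
      · obtain ⟨s, hs, hxs⟩ := hF2 x (mem_sdiff.2 ⟨hx, hxK⟩)
        exact ⟨s, mem_insert_of_mem hs, hxs⟩
    · by_cases hrF : r ∈ F
      · rw [insert_eq_of_mem hrF, hper]
        push_cast
        have : 0 ≤ (per K : ℤ) := by positivity
        linarith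
      · rw [sum_insert hrF, hper]
        push_cast
        linarith

/-- two rectangles are separated: no king move between them -/
def Sepd (r s : (ℤ × ℤ) × (ℤ × ℤ)) : Prop :=
  ∀ x y : ℤ × ℤ, r.1 ≤ x → x ≤ r.2 → s.1 ≤ y → y ≤ s.2 → ¬ King x y

lemma sz_join {r s : (ℤ × ℤ) × (ℤ × ℤ)} {x y : ℤ × ℤ} (hr1 : r.1 ≤ x) (hr2 : x ≤ r.2)
    (hs1 : s.1 ≤ y) (hs2 : y ≤ s.2) (h : King x y) :
    sz (r.1 ⊓ s.1, r.2 ⊔ s.2) ≤ sz r + sz s := by
  obtain ⟨h1, h2⟩ := h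
  rw [abs_le] at h1 h2
  obtain ⟨a1, a2⟩ := hr1
  obtain ⟨b1, b2⟩ := hr2
  obtain ⟨c1, c2⟩ := hs1
  obtain ⟨d1, d2⟩ := hs2
  unfold sz
  simp only [Prod.fst_inf, Prod.fst_sup, Prod.snd_inf, Prod.snd_sup]
  have e1 : min r.1.1 s.1.1 = r.1.1 ∨ min r.1.1 s.1.1 = s.1.1 := min_choice _ _
  have e2 : min r.1.2 s.1.2 = r.1.2 ∨ min r.1.2 s.1.2 = s.1.2 := min_choice _ _
  have e3 : max r.2.1 s.2.1 = r.2.1 ∨ max r.2.1 s.2.1 = s.2.1 := max_choice _ _
  have e4 : max r.2.2 s.2.2 = r.2.2 ∨ max r.2.2 s.2.2 = s.2.2 := max_choice _ _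
  change (max r.2.1 s.2.1 - min r.1.1 s.1.1 + 1) + (max r.2.2 s.2.2 - min r.1.2 s.1.2 + 1) ≤ _
  rcases e1 with e1 | e1 <;> rcases e2 with e2 | e2 <;> rcases e3 with e3 | e3 <;>
    rcases e4 with e4 | e4 <;> rw [e1, e2, e3, e4] <;> omega

/-- **covering by pairwise separated rectangles** -/
theorem exists_sep_cov (A B : ℤ × ℤ) (U : Finset (ℤ × ℤ)) (hAB : ∀ x ∈ U, A ≤ x ∧ x ≤ B) :
    ∃ F, Cov A B U (per U) F ∧ ∀ r ∈ F, ∀ s ∈ F, r ≠ s → Sepd r s := by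
  classical
  obtain ⟨F0, hF0⟩ := exists_cov A B _ U rfl hAB
  have hex : ∃ n, ∃ F, Cov A B U (per U) F ∧ F.card = n := ⟨_, F0, hF0, rfl⟩
  obtain ⟨F, hF, hn⟩ := Nat.find_spec hex
  refine ⟨F, hF, fun r hr s hs hrs x y h1 h2 h3 h4 hk => ?_⟩
  obtain ⟨hF1, hF2, hF3⟩ := hF
  set t : (ℤ × ℤ) × (ℤ × ℤ) := (r.1 ⊓ s.1, r.2 ⊔ s.2) with ht
  have hsr : s ∈ F.erase r := mem_erase.2 ⟨hrs.symm, hs⟩
  have hsum : ∑ q ∈ F, sz q = sz r + (sz s + ∑ q ∈ (F.erase r).erase s, sz q) := by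
    rw [← add_sum_erase _ _ hr, ← add_sum_erase _ _ hsr]
  have hcard : ((F.erase r).erase s).card + 2 = F.card := by
    have e1 := card_erase_add_one hr
    have e2 := card_erase_add_one hsr
    omega
  have hcov : Cov A B U (per U) (insert t ((F.erase r).erase s)) := by
    refine ⟨?_, ?_, ?_⟩
    · intro q hq
      rw [mem_insert] at hq
      rcases hq with rfl | hq
      · obtain ⟨i1, i2, i3⟩ := hF1 r hr
        obtain ⟨j1, j2, j3⟩ := hF1 s hs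
        exact ⟨(inf_le_left.trans i1).trans le_sup_left, le_inf i2 j2, sup_le i3 j3⟩
      · exact hF1 q (mem_of_mem_erase (mem_of_mem_erase hq))
    · intro z hz
      obtain ⟨q, hq, hz1, hz2⟩ := hF2 z hz
      by_cases hqr : q = r
      · subst hqr
        exact ⟨t, mem_insert_self _ _, inf_le_left.trans hz1, hz2.trans le_sup_left⟩
      by_cases hqs : q = s
      · subst hqs
        exact ⟨t, mem_insert_self _ _, inf_le_right.trans hz1, hz2.trans le_sup_right⟩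
      · exact ⟨q, mem_insert_of_mem (mem_erase.2 ⟨hqs, mem_erase.2 ⟨hqr, hq⟩⟩), hz1, hz2⟩
    · have hj : sz t ≤ sz r + sz s := sz_join h1 h2 h3 h4 hk
      by_cases htm : t ∈ (F.erase r).erase s
      · rw [insert_eq_of_mem htm]
        have h5 := sz_nonneg (hF1 r hr).1
        have h6 := sz_nonneg (hF1 s hs).1
        linarith
      · rw [sum_insert htm]
        linarith
  have hlt : (insert t ((F.erase r).erase s)).card < F.card := by
    have := card_insert_le t ((F.erase r).erase s)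
    omega
  have := Nat.find_min' hex ⟨_, hcov, rfl⟩
  omega

end Crest.Agent.R096.Isl_968
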