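import Mathlib

/-!
# R096 (S0127), leaf P2-SHORT, parts (I2) and (S1)

* `levels_le`: Markov + Tonelli on levels: the levels `t` at which the total weight of the faces
  whose range contains `t` is at least `lam` have measure at most `(1 / lam) ∑ o_q |I_q|`.
* `ediam_le_sum`: a finite family of sets of diameters `≤ o_q` with connected union has a union of
  diameter at most `∑ o_q`.
* `exists_centre(s)`: choice of the centres `z_c`, brick by brick, outside null sets, with two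
  averages under control.
-/

set_option autoImplicit false

namespace Crest.Agent.R096.Isl_968

open MeasureTheory Set
open scoped ENNReal

/-- **(I2)** levels which are hit with total weight `≥ lam` -/
theorem levels_le {ι : Type*} [Countable ι] (I : ι → Set ℝ) (hI : ∀ q, MeasurableSet (I q))
    (o : ι → ℝ≥0∞) {lam : ℝ≥0∞} (h0 : lam ≠ 0) (ht : lam ≠ ∞) :
    volume {t | lam ≤ ∑' q, (I q).indicator (fun _ => o q) t} ≤
      (∑' q, o q * volume (I q)) / lam := by
  have hm : ∀ q, Measurable (fun t => (I q).indicator (fun _ => o q) t) := fun q =>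
    measurable_const.indicator (hI q)
  refine (meas_ge_le_lintegral_div (Measurable.tsum hm).aemeasurable h0 ht).trans ?_
  gcongr
  rw [lintegral_tsum (fun q => (hm q).aemeasurable)]
  refine ENNReal.tsum_le_tsum fun q => ?_
  rw [lintegral_indicator (hI q), setLIntegral_const]

/-- finite real form of **(I2)** with Cauchy-Schwarz: `d q` bounds the length of the range of the
level function on the face `q`, `o q` the oscillation whose sum is to be made small -/
theorem levels_le_sqrt {ι : Type*} (s : Finset ι) (lo hi : ι → ℝ) (d o : ι → ℝ)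
    (hd : ∀ q ∈ s, hi q - lo q ≤ d q) (hd0 : ∀ q ∈ s, 0 ≤ d q) (ho : ∀ q ∈ s, 0 ≤ o q)
    {lam : ℝ} (h0 : 0 < lam) :
    volume {t : ℝ | lam ≤ ∑ q ∈ s, (Icc (lo q) (hi q)).indicator (fun _ => o q) t} ≤
      ENNReal.ofReal (Real.sqrt (∑ q ∈ s, d q ^ 2) * Real.sqrt (∑ q ∈ s, o q ^ 2) / lam) := by
  classical
  have key := levels_le (ι := s) (fun q => Icc (lo q) (hi q)) (fun q => measurableSet_Icc)
    (fun q => ENNReal.ofReal (o q)) (lam := ENNReal.ofReal lam) (by simpa using h0) ENNReal.ofReal_ne_top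
  have hsub : {t : ℝ | lam ≤ ∑ q ∈ s, (Icc (lo q) (hi q)).indicator (fun _ => o q) t} ⊆
      {t | ENNReal.ofReal lam ≤ ∑' q : s, (Icc (lo q) (hi q)).indicator
        (fun _ => ENNReal.ofReal (o q)) t} := by
    intro t ht
    simp only [mem_ofPred_eq] at ht ⊢
    rw [tsum_fintype, Finset.sum_coe_sort s (fun q => (Icc (lo q) (hi q)).indicator
      (fun _ => ENNReal.ofReal (o q)) t)]
    refine (ENNReal.ofReal_le_ofReal ht).trans (le_of_eq ?_)
    rw [ENNReal.ofReal_sum_of_nonneg]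
    · refine Finset.sum_congr rfl fun q _ => ?_
      by_cases h : t ∈ Icc (lo q) (hi q)
      · rw [indicator_of_mem h, indicator_of_mem h]
      · rw [indicator_of_notMem h, indicator_of_notMem h, ENNReal.ofReal_zero]
    · intro q hq
      exact indicator_nonneg (fun _ _ => ho q hq) t
  refine (measure_mono hsub).trans (key.trans ?_)
  rw [tsum_fintype, Finset.sum_coe_sort s (fun q => ENNReal.ofReal (o q) *
    volume (Icc (lo q) (hi q))), ENNReal.ofReal_div_of_pos h0]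
  gcongr
  have h1 : ∀ q ∈ s, ENNReal.ofReal (o q) * volume (Icc (lo q) (hi q)) ≤
      ENNReal.ofReal (d q * o q) := by
    intro q hq
    rw [Real.volume_Icc, mul_comm (d q), ENNReal.ofReal_mul (ho q hq)]
    gcongr
    exact hd q hq
  refine (Finset.sum_le_sum h1).trans ?_
  rw [← ENNReal.ofReal_sum_of_nonneg (fun q hq => mul_nonneg (hd0 q hq) (ho q hq))]
  refine ENNReal.ofReal_le_ofReal ?_
  exact Real.sum_mul_le_sqrt_mul_sqrt s d o

/-- a finite family of sets linked together has a union of diameter at most the sum of the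
diameters -/
theorem ediam_le_sum {X ι : Type*} [PseudoEMetricSpace X] (s : Finset ι) (A : ι → Set X)
    (o : ι → ℝ≥0∞) (ho : ∀ q ∈ s, Metric.ediam (A q) ≤ o q)
    (hlink : ∀ s' ⊆ s, s'.Nonempty → s' ≠ s → ∃ q ∈ s', ∃ q' ∈ s, q' ∉ s' ∧ (A q ∩ A q').Nonempty) :
    Metric.ediam (⋃ q ∈ s, A q) ≤ ∑ q ∈ s, o q := by
  classical
  rcases s.eq_empty_or_nonempty with rfl | ⟨q0, hq0⟩
  · simp
  let P : Finset ι → Prop := fun s' => s'.Nonempty ∧ Metric.ediam (⋃ q ∈ s', A q) ≤ ∑ q ∈ s', o q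
  have hP0 : P {q0} := ⟨Finset.singleton_nonempty _, by simpa using ho q0 hq0⟩
  obtain ⟨m, hm, hmax⟩ := (s.powerset.filter P).exists_max_image (fun t => t.card)
    ⟨{q0}, by simp [hq0, hP0]⟩
  rw [Finset.mem_filter, Finset.mem_powerset] at hm
  obtain ⟨hms, hmne, hmd⟩ := hm
  by_cases hms' : m = s
  · rwa [hms'] at hmd
  obtain ⟨q, hq, q', hq', hqm, hne⟩ := hlink m hms hmne hms'
  exfalso
  have hins : P (insert q' m) := by
    refine ⟨Finset.insert_nonempty _ _, ?_⟩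
    rw [Finset.set_biUnion_insert, Finset.sum_insert hqm]
    have hne' : (A q' ∩ ⋃ q ∈ m, A q).Nonempty := by
      obtain ⟨x, hx1, hx2⟩ := hne
      exact ⟨x, hx2, mem_iUnion₂.2 ⟨q, hq, hx1⟩⟩
    exact (Metric.ediam_union_le hne').trans (add_le_add (ho q' hq') hmd)
  have := hmax (insert q' m) (by
    rw [Finset.mem_filter, Finset.mem_powerset]
    exact ⟨Finset.insert_subset hq' hms, hins⟩)
  rw [Finset.card_insert_of_notMem hqm] at this
  omega

/-- the same for closed sets with preconnected union -/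
theorem ediam_le_sum_of_preconnected {X ι : Type*} [PseudoEMetricSpace X] (s : Finset ι)
    (A : ι → Set X) (o : ι → ℝ≥0∞) (ho : ∀ q ∈ s, Metric.ediam (A q) ≤ o q)
    (hc : ∀ q ∈ s, IsClosed (A q)) (hne : ∀ q ∈ s, (A q).Nonempty)
    (hp : IsPreconnected (⋃ q ∈ s, A q)) :
    Metric.ediam (⋃ q ∈ s, A q) ≤ ∑ q ∈ s, o q := by
  classical
  refine ediam_le_sum s A o ho fun s' hs' hne' hss' => ?_
  obtain ⟨q1, hq1⟩ := hne'
  obtain ⟨q2, hq2, hq2'⟩ : ∃ q ∈ s, q ∉ s' := by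
    by_contra h
    push Not at h
    exact hss' (Finset.Subset.antisymm hs' h)
  by_contra hno
  push Not at hno
  have hC1 : IsClosed (⋃ q ∈ s', A q) := by
    refine Set.Finite.isClosed_biUnion s'.finite_toSet (fun q hq => hc q (hs' hq))
  have hC2 : IsClosed (⋃ q ∈ s \ s', A q) := by
    refine Set.Finite.isClosed_biUnion (s \ s').finite_toSet (fun q hq => hc q ?_)
    exact (Finset.mem_sdiff.1 hq).1
  obtain ⟨x1, hx1⟩ := hne q1 (hs' hq1)
  obtain ⟨x2, hx2⟩ := hne q2 hq2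
  have hcl := (isPreconnected_closed_iff.1 hp) _ _ hC1 hC2 (by
      intro x hx
      obtain ⟨q, hq, hxq⟩ := mem_iUnion₂.1 hx
      by_cases h : q ∈ s'
      · exact Or.inl (mem_iUnion₂.2 ⟨q, h, hxq⟩)
      · exact Or.inr (mem_iUnion₂.2 ⟨q, Finset.mem_sdiff.2 ⟨hq, h⟩, hxq⟩))
    ⟨x1, mem_iUnion₂.2 ⟨q1, hs' hq1, hx1⟩, mem_iUnion₂.2 ⟨q1, hq1, hx1⟩⟩
    ⟨x2, mem_iUnion₂.2 ⟨q2, hq2, hx2⟩, mem_iUnion₂.2 ⟨q2, Finset.mem_sdiff.2 ⟨hq2, hq2'⟩, hx2⟩⟩
  obtain ⟨x, -, hxa, hxb⟩ := hcl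
  obtain ⟨q, hq, hxq⟩ := mem_iUnion₂.1 hxa
  obtain ⟨q', hq', hxq'⟩ := mem_iUnion₂.1 hxb
  rw [Finset.mem_sdiff] at hq'
  have := hno q hq q' hq'.1 hq'.2
  exact (Set.mem_empty_iff_false x).1 (this ▸ ⟨hxq, hxq'⟩)

/-- **(S1), one brick**: two averages at once -/
theorem exists_centre {α : Type*} [MeasurableSpace α] (ν : Measure α) [IsProbabilityMeasure ν]
    {g φ : α → ℝ≥0∞} (hg : AEMeasurable g ν) (hφ : AEMeasurable φ ν) {N : Set α} (hN : ν N = 0) :
    ∃ z, z ∉ N ∧ g z ≤ 4 * ∫⁻ x, g x ∂ν ∧ φ z ≤ 4 * ∫⁻ x, φ x ∂ν := by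
  have key : ∀ h : α → ℝ≥0∞, AEMeasurable h ν → ν {x | 4 * ∫⁻ x, h x ∂ν < h x} ≤ 1 / 4 := by
    intro h hh
    by_cases h0 : ∫⁻ x, h x ∂ν = 0
    · have h1 : h =ᵐ[ν] 0 := (lintegral_eq_zero_iff' hh).1 h0
      have h2 : ν {x | 4 * ∫⁻ x, h x ∂ν < h x} = 0 := by
        rw [h0, mul_zero]
        refine measure_mono_null (fun x hx => ?_) h1
        simp only [mem_ofPred_eq] at hx
        intro h3
        exact hx.ne' h3
      rw [h2]
      exact zero_le
    by_cases ht : ∫⁻ x, h x ∂ν = ∞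
    · have h2 : {x | 4 * ∫⁻ x, h x ∂ν < h x} = ∅ := by
        rw [ht, ENNReal.mul_top (by norm_num)]
        simp
      rw [h2, measure_empty]
      exact zero_le
    have h4 : (4 : ℝ≥0∞) * ∫⁻ x, h x ∂ν ≠ 0 := mul_ne_zero (by norm_num) h0
    have h5 : (4 : ℝ≥0∞) * ∫⁻ x, h x ∂ν ≠ ∞ := ENNReal.mul_ne_top (by norm_num) ht
    have hsub : {x | 4 * ∫⁻ x, h x ∂ν < h x} ⊆ {x | 4 * ∫⁻ x, h x ∂ν ≤ h x} := by
      intro x hx
      rw [mem_ofPred_eq] at hx ⊢
      exact hx.le
    refine (measure_mono hsub).trans ((meas_ge_le_lintegral_div hh h4 h5).trans (le_of_eq ?_))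
    rw [ENNReal.div_eq_inv_mul, ENNReal.mul_inv (Or.inl (by norm_num)) (Or.inl (by norm_num)),
      mul_assoc, ENNReal.inv_mul_cancel h0 ht, mul_one, one_div]
  by_contra hno
  push Not at hno
  have hcov : (univ : Set α) ⊆ N ∪ ({x | 4 * ∫⁻ x, g x ∂ν < g x} ∪ {x | 4 * ∫⁻ x, φ x ∂ν < φ x}) := by
    intro x _
    by_cases hx : x ∈ N
    · exact Or.inl hx
    by_cases hx2 : g x ≤ 4 * ∫⁻ x, g x ∂ν
    · exact Or.inr (Or.inr (hno x hx hx2))
    · exact Or.inr (Or.inl (not_le.1 hx2))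
  have h1 : (1 : ℝ≥0∞) ≤ 0 + (1 / 4 + 1 / 4) := by
    calc (1 : ℝ≥0∞) = ν univ := measure_univ.symm
      _ ≤ _ := measure_mono hcov
      _ ≤ _ := measure_union_le _ _
      _ ≤ _ := by
          rw [hN]
          gcongr
          exact (measure_union_le _ _).trans (add_le_add (key g hg) (key φ hφ))
  have h2 : (0 : ℝ≥0∞) + (1 / 4 + 1 / 4) = 1 / 2 := by
    rw [zero_add, ← ENNReal.add_div]
    rw [ENNReal.div_eq_div_iff] <;> norm_num
  rw [h2] at h1
  norm_num at h1

/-- **(S1)**: choice of all the centres; afterwards the cubes `q` violated by some centre have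
small total weight -/
theorem exists_centres {α κ Q : Type*} [MeasurableSpace α] [Countable Q] (ν : κ → Measure α)
    [∀ c, IsProbabilityMeasure (ν c)] {g : κ → α → ℝ≥0∞} (hg : ∀ c, AEMeasurable (g c) (ν c))
    {N : κ → Set α} (hN : ∀ c, ν c (N c) = 0) (V : κ → Q → Set α)
    (hV : ∀ c q, MeasurableSet (V c q)) (a : Q → ℝ≥0∞) :
    ∃ z : κ → α, (∀ c, z c ∉ N c) ∧ (∀ c, g c (z c) ≤ 4 * ∫⁻ x, g c x ∂(ν c)) ∧
      ∑' q, ({q : Q | ∃ c, z c ∈ V c q}).indicator a q ≤ 4 * ∑' q, a q * ∑' c, ν c (V c q) := by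
  classical
  have hm : ∀ c, Measurable (fun x => ∑' q, (V c q).indicator (fun _ => a q) x) := fun c =>
    Measurable.tsum fun q => measurable_const.indicator (hV c q)
  choose z hz1 hz2 hz3 using fun c => exists_centre (ν c) (hg c) (hm c).aemeasurable (hN c)
  refine ⟨z, hz1, hz2, ?_⟩
  have h1 : ∀ c, (∑' q, (V c q).indicator (fun _ => a q) (z c)) ≤ 4 * ∑' q, a q * ν c (V c q) := by
    intro c
    refine (hz3 c).trans (le_of_eq ?_)
    rw [lintegral_tsum (fun q => (measurable_const.indicator (hV c q)).aemeasurable)]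
    congr 1
    refine tsum_congr fun q => ?_
    rw [lintegral_indicator (hV c q), setLIntegral_const]
  calc ∑' q, ({q : Q | ∃ c, z c ∈ V c q}).indicator a q
      ≤ ∑' q, ∑' c, (V c q).indicator (fun _ => a q) (z c) := by
        refine ENNReal.tsum_le_tsum fun q => ?_
        by_cases h : ∃ c, z c ∈ V c q
        · obtain ⟨c, hc⟩ := h
          rw [indicator_of_mem (show q ∈ {q : Q | ∃ c, z c ∈ V c q} from ⟨c, hc⟩)]
          refine le_trans ?_ (ENNReal.le_tsum c)
          rw [indicator_of_mem hc]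
        · rw [indicator_of_notMem (show q ∉ {q : Q | ∃ c, z c ∈ V c q} from h)]
          exact zero_le
    _ = ∑' c, ∑' q, (V c q).indicator (fun _ => a q) (z c) := ENNReal.tsum_comm
    _ ≤ ∑' c, 4 * ∑' q, a q * ν c (V c q) := ENNReal.tsum_le_tsum h1
    _ = 4 * ∑' c, ∑' q, a q * ν c (V c q) := ENNReal.tsum_mul_left
    _ = 4 * ∑' q, ∑' c, a q * ν c (V c q) := by rw [ENNReal.tsum_comm]
    _ = 4 * ∑' q, a q * ∑' c, ν c (V c q) := by
        congr 1
        exact tsum_congr fun q => ENNReal.tsum_mul_left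

end Crest.Agent.R096.Isl_968
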