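import Crest.Agent.R096.Bd7_416

/-!
# R096 (row 96), BOTTOM HALF, collar of an exact core (helper337)

`Gd.sqI b` : the band structure on `Z × [0,1]` which is `g` at `r = 0` and `g.sq b` at `r = 1`.
The mid levels of the bands do not move.
-/

set_option autoImplicit false
set_option linter.unusedVariables false
set_option linter.unusedSectionVars false

open Set Metric

namespace Crest.Agent.R096.Kb_337

open Crest.Agent.R096.Ce_537 Crest.Agent.R096.Bd_416

/-! ### the one dimensional formula -/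

/-- shift of the plateau -/
noncomputable def dd (b r : ℝ) : ℝ := (1/2 - b) * (1 - r)

/-- the squeeze at depth `r` -/
noncomputable def S1 (b r t : ℝ) : ℝ :=
  cl (t + max 0 ((t - dd b r) / (2 * b) - t) + min 0 ((t + dd b r) / (2 * b) - t))

/-- the inverse on the band -/
noncomputable def R1 (b r s : ℝ) : ℝ :=
  s + min 0 (2 * b * s + dd b r - s) + max 0 (2 * b * s - dd b r - s)

/-- half width of the band -/
noncomputable def be (b r : ℝ) : ℝ := 1/2 - (1/2 - b) * r

lemma div_ge {b t : ℝ} (h0 : 0 < b) (h2 : b < 1/2) (ht : 0 ≤ t) : t ≤ t / (2 * b) := by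
  rw [le_div_iff₀ (by linarith)]; nlinarith

section oned

variable {b r t s : ℝ} (h0 : 0 < b) (h2 : b < 1/2) (hr : r ∈ Icc (0:ℝ) 1)
include h0 h2 hr

lemma dd_nn : 0 ≤ dd b r := mul_nonneg (by linarith) (by linarith [hr.2])

lemma dd_le : dd b r ≤ 1/2 - b := by
  unfold dd; nlinarith [hr.1]

lemma be_eq : be b r = b + dd b r := by unfold be dd; ring

lemma be_pos : 0 < be b r := by rw [be_eq h0 h2 hr]; linarith [dd_nn h0 h2 hr]

lemma be_le : be b r ≤ 1/2 := by rw [be_eq h0 h2 hr]; linarith [dd_le h0 h2 hr]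


/-- for `t ≥ 0` -/
lemma S1_pos (ht : 0 ≤ t) : S1 b r t = cl (max t ((t - dd b r) / (2 * b))) := by
  have h3 : 0 ≤ (t + dd b r) / (2 * b) - t := by
    have h4 := dd_nn h0 h2 hr
    have h5 : t / (2 * b) ≤ (t + dd b r) / (2 * b) := by
      apply div_le_div_of_nonneg_right (by linarith) (by linarith)
    linarith [div_ge h0 h2 ht]
  unfold S1
  rw [min_eq_left h3, add_zero]
  congr 1
  rcases le_total ((t - dd b r) / (2 * b) - t) 0 with h | h
  · rw [max_eq_left h, max_eq_left (by linarith)]; ring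
  · rw [max_eq_right h, max_eq_right (by linarith)]; ring

lemma S1_neg (t : ℝ) : S1 b r (-t) = - S1 b r t := by
  have cln : ∀ x : ℝ, cl (-x) = - cl x := by
    intro x
    unfold cl
    rcases le_total x (1/2) with h | h
    · rw [min_eq_left h]
      rcases le_total (-1/2) x with h' | h'
      · rw [max_eq_right h', min_eq_left (by linarith), max_eq_right (by linarith)]
      · rw [max_eq_left h', min_eq_right (by linarith), max_eq_right (by norm_num)]; norm_num
    · rw [min_eq_right h, max_eq_right (by norm_num : (-1/2 : ℝ) ≤ 1/2), min_eq_left (by linarith),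
        max_eq_left (by linarith)]; norm_num
  unfold S1
  rw [← cln]
  congr 1
  have e1 : (-t - dd b r) / (2 * b) - -t = -((t + dd b r) / (2 * b) - t) := by ring
  have e2 : (-t + dd b r) / (2 * b) - -t = -((t - dd b r) / (2 * b) - t) := by ring
  rw [e1, e2]
  have e3 : ∀ x : ℝ, max 0 (-x) = - min 0 x := by
    intro x
    rcases le_total x 0 with h | h
    · rw [min_eq_right h, max_eq_right (by linarith)]
    · rw [min_eq_left h, max_eq_left (by linarith)]; ring
  have e4 : ∀ x : ℝ, min 0 (-x) = - max 0 x := by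
    intro x
    rcases le_total x 0 with h | h
    · rw [max_eq_left h, min_eq_left (by linarith)]; ring
    · rw [max_eq_right h, min_eq_right (by linarith)]
  rw [e3, e4]; ring

lemma R1_neg (s : ℝ) : R1 b r (-s) = - R1 b r s := by
  unfold R1
  have e1 : 2 * b * -s + dd b r - -s = -(2 * b * s - dd b r - s) := by ring
  have e2 : 2 * b * -s - dd b r - -s = -(2 * b * s + dd b r - s) := by ring
  rw [e1, e2]
  have e3 : ∀ x : ℝ, max 0 (-x) = - min 0 x := by
    intro x
    rcases le_total x 0 with h | h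
    · rw [min_eq_right h, max_eq_right (by linarith)]
    · rw [min_eq_left h, max_eq_left (by linarith)]; ring
  have e4 : ∀ x : ℝ, min 0 (-x) = - max 0 x := by
    intro x
    rcases le_total x 0 with h | h
    · rw [max_eq_left h, min_eq_left (by linarith)]; ring
    · rw [max_eq_right h, min_eq_right (by linarith)]
  rw [e3, e4]; ring

/-- for `s ≥ 0` -/
lemma R1_pos (hs : 0 ≤ s) : R1 b r s = min s (2 * b * s + dd b r) := by
  have h3 : 2 * b * s - dd b r - s ≤ 0 := by
    have h4 := dd_nn h0 h2 hr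
    nlinarith
  unfold R1
  rw [max_eq_left h3, add_zero]
  rcases le_total (2 * b * s + dd b r - s) 0 with h | h
  · rw [min_eq_right h, min_eq_right (by linarith)]; ring
  · rw [min_eq_left h, min_eq_left (by linarith)]; ring

lemma S1_mem : S1 b r t ∈ I2 := cl_mem _

lemma R1_pos' (hs : 0 ≤ s) (hs2 : s ≤ 1/2) : 0 ≤ R1 b r s ∧ R1 b r s ≤ be b r := by
  rw [R1_pos h0 h2 hr hs, be_eq h0 h2 hr]
  have h4 := dd_nn h0 h2 hr
  refine ⟨le_min hs (by positivity), (min_le_right _ _).trans ?_⟩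
  nlinarith

lemma abs_R1 (hs : s ∈ I2) : |R1 b r s| ≤ be b r := by
  rcases le_total 0 s with h | h
  · obtain ⟨h3, h4⟩ := R1_pos' h0 h2 hr h hs.2
    rw [abs_of_nonneg h3]; exact h4
  · obtain ⟨h3, h4⟩ := R1_pos' h0 h2 hr (s := -s) (by linarith) (by linarith [hs.1])
    rw [R1_neg h0 h2 hr] at h3 h4
    rw [abs_of_nonpos (by linarith)]; exact h4

lemma R1_mem (hs : s ∈ I2) : R1 b r s ∈ I2 := by
  have h3 := abs_le.1 ((abs_R1 h0 h2 hr hs).trans (be_le h0 h2 hr))
  exact ⟨by linarith [h3.1], h3.2⟩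

lemma S1_R1_pos (hs : 0 ≤ s) (hs2 : s ≤ 1/2) : S1 b r (R1 b r s) = s := by
  have hR := R1_pos' h0 h2 hr hs hs2
  rw [S1_pos h0 h2 hr hR.1, R1_pos h0 h2 hr hs]
  have hb : 0 < 2 * b := by linarith
  have key : max (min s (2 * b * s + dd b r)) ((min s (2 * b * s + dd b r) - dd b r) / (2 * b))
      = s := by
    rcases le_total s (2 * b * s + dd b r) with h | h
    · rw [min_eq_left h]
      apply max_eq_left
      rw [div_le_iff₀ hb]; linarith
    · rw [min_eq_right h]
      have e : (2 * b * s + dd b r - dd b r) / (2 * b) = s := by field_simp; ring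
      rw [e]
      exact max_eq_right h
  rw [key]
  exact cl_of_mem ⟨by linarith, hs2⟩

lemma S1_R1 (hs : s ∈ I2) : S1 b r (R1 b r s) = s := by
  rcases le_total 0 s with h | h
  · exact S1_R1_pos h0 h2 hr h hs.2
  · have h3 := S1_R1_pos h0 h2 hr (s := -s) (by linarith) (by linarith [hs.1])
    rw [R1_neg h0 h2 hr, S1_neg h0 h2 hr] at h3
    linarith

lemma S1_le_pos (ht : 0 ≤ t) (htb : t ≤ be b r) :
    S1 b r t = max t ((t - dd b r) / (2 * b)) := by
  rw [S1_pos h0 h2 hr ht]
  have hb : 0 < 2 * b := by linarith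
  apply cl_of_mem
  refine ⟨by linarith [le_max_left t ((t - dd b r) / (2 * b))], max_le (htb.trans
    (be_le h0 h2 hr)) ?_⟩
  rw [div_le_iff₀ hb]
  rw [be_eq h0 h2 hr] at htb
  linarith

lemma R1_S1_pos (ht : 0 ≤ t) (htb : t ≤ be b r) : R1 b r (S1 b r t) = t := by
  have hb : 0 < 2 * b := by linarith
  rw [S1_le_pos h0 h2 hr ht htb, R1_pos h0 h2 hr (ht.trans (le_max_left _ _))]
  rcases le_total ((t - dd b r) / (2 * b)) t with h | h
  · rw [max_eq_left h]
    apply min_eq_left
    rw [div_le_iff₀ hb] at h; linarith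
  · rw [max_eq_right h]
    have e : 2 * b * ((t - dd b r) / (2 * b)) + dd b r = t := by field_simp; ring
    rw [e]
    exact min_eq_right h

lemma R1_S1 (ht : |t| ≤ be b r) : R1 b r (S1 b r t) = t := by
  obtain ⟨h3, h4⟩ := abs_le.1 ht
  rcases le_total 0 t with h | h
  · exact R1_S1_pos h0 h2 hr h h4
  · have h5 := R1_S1_pos h0 h2 hr (t := -t) (by linarith) (by linarith)
    rw [S1_neg h0 h2 hr, R1_neg h0 h2 hr] at h5
    linarith

lemma S1_out_pos (ht : be b r ≤ t) : S1 b r t = 1/2 := by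
  have hb : 0 < 2 * b := by linarith
  have h3 := be_pos h0 h2 hr
  rw [S1_pos h0 h2 hr (by linarith)]
  apply cl_of_ge
  refine le_trans ?_ (le_max_right _ _)
  rw [le_div_iff₀ hb]
  rw [be_eq h0 h2 hr] at ht
  linarith

lemma S1_out (ht : be b r ≤ |t|) : S1 b r t = -1/2 ∨ S1 b r t = 1/2 := by
  rcases le_total 0 t with h | h
  · rw [abs_of_nonneg h] at ht
    exact Or.inr (S1_out_pos h0 h2 hr ht)
  · rw [abs_of_nonpos h] at ht
    have h5 := S1_out_pos h0 h2 hr ht
    rw [S1_neg h0 h2 hr] at h5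
    left; linarith

lemma S1_half (ht : t = -1/2 ∨ t = 1/2) : S1 b r t = t := by
  have h3 := be_le h0 h2 hr
  rcases ht with rfl | rfl
  · have h5 := S1_out_pos h0 h2 hr (t := 1/2) h3
    have h6 := S1_neg h0 h2 hr (b := b) (r := r) (1/2)
    rw [h5] at h6
    rw [show (-1/2 : ℝ) = -(1/2) by norm_num, h6]
  · exact S1_out_pos h0 h2 hr h3

end oned

/-- at depth `1`: the squeeze -/
lemma S1_one {b t : ℝ} (h0 : 0 < b) (h2 : b < 1/2) : S1 b 1 t = cl (t / (2 * b)) := by
  have hd : dd b 1 = 0 := by unfold dd; ring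
  unfold S1
  rw [hd, sub_zero, add_zero]
  congr 1
  rcases le_total 0 t with h | h
  · have h3 := div_ge h0 h2 h
    rw [max_eq_right (by linarith), min_eq_left (by linarith)]; ring
  · have h3 := div_ge h0 h2 (t := -t) (by linarith)
    rw [neg_div] at h3
    rw [max_eq_left (by linarith), min_eq_right (by linarith)]; ring

/-- at depth `0`: nothing -/
lemma S1_zero {b t : ℝ} (h0 : 0 < b) (h2 : b < 1/2) (ht : t ∈ I2) : S1 b 0 t = t := by
  have hr : (0:ℝ) ∈ Icc (0:ℝ) 1 := ⟨le_rfl, zero_le_one⟩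
  have hbe : be b 0 = 1/2 := by unfold be; ring
  have key : ∀ u : ℝ, 0 ≤ u → u ≤ 1/2 → S1 b 0 u = u := by
    intro u hu hu2
    rw [S1_le_pos h0 h2 hr hu (by rw [hbe]; exact hu2)]
    apply max_eq_left
    have hd : dd b 0 = 1/2 - b := by unfold dd; ring
    rw [hd, div_le_iff₀ (by linarith)]
    nlinarith
  rcases le_total 0 t with h | h
  · exact key t h ht.2
  · have h5 := key (-t) (by linarith) (by linarith [ht.1])
    rw [S1_neg h0 h2 hr] at h5
    linarith

lemma R1_zero {b s : ℝ} (h0 : 0 < b) (h2 : b < 1/2) (hs : s ∈ I2) : R1 b 0 s = s := by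
  have hr : (0:ℝ) ∈ Icc (0:ℝ) 1 := ⟨le_rfl, zero_le_one⟩
  have h3 := S1_R1 h0 h2 hr hs
  rwa [S1_zero h0 h2 (R1_mem h0 h2 hr hs)] at h3

lemma R1_one {b s : ℝ} (h0 : 0 < b) (h2 : b < 1/2) (hs : s ∈ I2) : R1 b 1 s = 2 * b * s := by
  have hd : dd b 1 = 0 := by unfold dd; ring
  unfold R1
  rw [hd, sub_zero, add_zero]
  rcases le_total 0 s with h | h
  · rw [min_eq_right (by nlinarith), max_eq_left (by nlinarith)]; ring
  · rw [min_eq_left (by nlinarith), max_eq_right (by nlinarith)]; ring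

/-- the mid level is fixed -/
lemma S1_mid {b r : ℝ} (h0 : 0 < b) (h2 : b < 1/2) (hr : r ∈ Icc (0:ℝ) 1) {t : ℝ} :
    S1 b r t = 0 ↔ t = 0 := by
  constructor
  · intro h
    by_cases hb : |t| ≤ be b r
    · have h3 := R1_S1 h0 h2 hr hb
      rw [h] at h3
      have : R1 b r 0 = 0 := by
        have := R1_neg h0 h2 hr (b := b) (r := r) 0
        rw [neg_zero] at this; linarith
      rw [this] at h3; exact h3.symm
    · rcases S1_out h0 h2 hr (not_le.1 hb).le with h3 | h3 <;> rw [h] at h3 <;> norm_num at h3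
  · rintro rfl
    have := S1_neg h0 h2 hr (b := b) (r := r) 0
    rw [neg_zero] at this; linarith

section pl

variable {E : Type*} [NormedAddCommGroup E] [NormedSpace ℝ E] {b : ℝ} {Z : Set E} {r t : E → ℝ}

lemma pl_dd (hr : PLOn r Z) : PLOn (fun z => dd b (r z)) Z := by
  have : PLOn (fun z => (1/2 - b) * (-(r z) + 1)) Z := pl_mul _ (pl_add_const (pl_neg hr) 1)
  refine this.congr fun z _ => ?_
  unfold dd; ring

lemma pl_S1 (hr : PLOn r Z) (ht : PLOn t Z) : PLOn (fun z => S1 b (r z) (t z)) Z := by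
  unfold S1
  exact pl_cl (pl_add (pl_add ht (pl_max (plOn_const (0:ℝ) _)
    (pl_sub (pl_div (pl_sub ht (pl_dd hr)) _) ht))) (pl_min (plOn_const (0:ℝ) _)
    (pl_sub (pl_div (pl_add ht (pl_dd hr)) _) ht)))

lemma pl_R1 (hr : PLOn r Z) (ht : PLOn t Z) : PLOn (fun z => R1 b (r z) (t z)) Z := by
  unfold R1
  exact pl_add (pl_add ht (pl_min (plOn_const (0:ℝ) _)
    (pl_sub (pl_add (pl_mul (2 * b) ht) (pl_dd hr)) ht))) (pl_max (plOn_const (0:ℝ) _)
    (pl_sub (pl_sub (pl_mul (2 * b) ht) (pl_dd hr)) ht))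

lemma pl_be (hr : PLOn r Z) : PLOn (fun z => be b (r z)) Z := by
  have : PLOn (fun z => -((1/2 - b) * r z) + 1/2) Z := pl_add_const (pl_neg (pl_mul _ hr)) _
  refine this.congr fun z _ => ?_
  unfold be; ring

end pl

end Crest.Agent.R096.Kb_337
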