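import Crest.Agent.R096.Kb1_337

/-!
# R096 (row 96), BOTTOM HALF, collar of an exact core, part 2 (helper337)

`g.sqI b` on `Z × [0,1]`.
-/

set_option autoImplicit false
set_option linter.unusedVariables false
set_option linter.unusedSectionVars false

open Set Metric

namespace Crest.Agent.R096.Kb_337

open Crest.Agent.R096.Ce_537 Crest.Agent.R096.Bd_416

variable {E : Type*} [NormedAddCommGroup E] [NormedSpace ℝ E] {κ : Type*}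

/-- **the collar**: `g` at `r = 0`, `g.sq b` at `r = 1` -/
noncomputable def sqI (g : Gd E κ) (b : ℝ) : Gd (E × ℝ) κ := by
  classical
  exact
  { G := fun a z => if z.1 ∈ g.B a then
        g.lev a z.1 + 1/2 + S1 b z.2 (g.G a z.1 - g.lev a z.1 - 1/2) else g.G a z.1
    B := fun a => {z | z.1 ∈ g.B a ∧ |g.G a z.1 - g.lev a z.1 - 1/2| ≤ be b z.2}
    lev := fun a z => g.lev a z.1
    tr := fun a p => (g.tr a (p.1.1, R1 b p.1.2 p.2), p.1.2) }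

variable {g : Gd E κ} {b : ℝ} {Z : Set E}

lemma sqI_G_mem {a : κ} {z : E × ℝ} (h : z.1 ∈ g.B a) : (sqI g b).G a z =
    g.lev a z.1 + 1/2 + S1 b z.2 (g.G a z.1 - g.lev a z.1 - 1/2) := by
  simp [sqI, h]

lemma sqI_G_notMem {a : κ} {z : E × ℝ} (h : z.1 ∉ g.B a) : (sqI g b).G a z = g.G a z.1 := by
  simp [sqI, h]

lemma sqI_B {a : κ} {z : E × ℝ} : z ∈ (sqI g b).B a ↔
    z.1 ∈ g.B a ∧ |g.G a z.1 - g.lev a z.1 - 1/2| ≤ be b z.2 := Iff.rfl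

lemma sqI_lev {a : κ} {z : E × ℝ} : (sqI g b).lev a z = g.lev a z.1 := rfl

lemma sqI_tr {a : κ} {z : E × ℝ} {s : ℝ} :
    (sqI g b).tr a (z, s) = (g.tr a (z.1, R1 b z.2 s), z.2) := rfl

lemma sqI_G_int (h : g.Is Z) (h0 : 0 < b) (h2 : b < 1/2) {a : κ} {z : E × ℝ} (hz : z.1 ∈ Z)
    (hr : z.2 ∈ Icc (0:ℝ) 1) (hi : g.G a z.1 ∈ Zs) : (sqI g b).G a z = g.G a z.1 := by
  by_cases hB : z.1 ∈ g.B a
  · rw [sqI_G_mem hB]
    have h3 : g.G a z.1 - g.lev a z.1 - 1/2 = -1/2 ∨ g.G a z.1 - g.lev a z.1 - 1/2 = 1/2 := by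
      refine half_of_int (h.ab a z.1 hz hB) ?_
      have := Zs.sub_mem (Zs.sub_mem hi (h.li a z.1 hz hB)) (int_mem_Zs 1)
      convert this using 1; push_cast; ring
    rw [S1_half h0 h2 hr h3]; ring
  · exact sqI_G_notMem hB

/-- at `r = 1` -/
theorem sqI_one (h0 : 0 < b) (h2 : b < 1/2) (a : κ) (z : E) :
    (sqI g b).G a (z, 1) = (g.sq b).G a z ∧ ((z, (1:ℝ)) ∈ (sqI g b).B a ↔ z ∈ (g.sq b).B a) ∧
    (sqI g b).lev a (z, 1) = (g.sq b).lev a z ∧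
    ∀ s ∈ I2, (sqI g b).tr a ((z, 1), s) = ((g.sq b).tr a (z, s), 1) := by
  have hbe : be b 1 = b := by unfold be; ring
  refine ⟨?_, ?_, rfl, fun s hs => ?_⟩
  · by_cases h : z ∈ g.B a
    · rw [sqI_G_mem (z := (z, (1:ℝ))) h, Gd.sq_G_mem h, S1_one h0 h2]
    · rw [sqI_G_notMem (z := (z, (1:ℝ))) h, Gd.sq_G_notMem h]
  · rw [sqI_B, hbe]; exact Iff.rfl
  · show (g.tr a (z, R1 b 1 s), (1:ℝ)) = (g.tr a (z, 2 * b * s), 1)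
    rw [R1_one h0 h2 hs]

/-- at `r = 0` -/
theorem sqI_zero (h : g.Is Z) (h0 : 0 < b) (h2 : b < 1/2) (a : κ) {z : E} (hz : z ∈ Z) :
    (sqI g b).G a (z, 0) = g.G a z ∧ ((z, (0:ℝ)) ∈ (sqI g b).B a ↔ z ∈ g.B a) ∧
    (sqI g b).lev a (z, 0) = g.lev a z ∧
    ∀ s ∈ I2, (sqI g b).tr a ((z, 0), s) = (g.tr a (z, s), 0) := by
  have hbe : be b 0 = 1/2 := by unfold be; ring
  refine ⟨?_, ?_, rfl, fun s hs => ?_⟩
  · by_cases hB : z ∈ g.B a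
    · rw [sqI_G_mem (z := (z, (0:ℝ))) hB, S1_zero h0 h2 (h.ab a z hz hB)]
      ring
    · rw [sqI_G_notMem (z := (z, (0:ℝ))) hB]
  · rw [sqI_B, hbe]
    refine ⟨fun h => h.1, fun hB => ⟨hB, ?_⟩⟩
    have := h.ab a z hz hB
    exact abs_le.2 ⟨by linarith [this.1], this.2⟩
  · show (g.tr a (z, R1 b 0 s), (0:ℝ)) = (g.tr a (z, s), 0)
    rw [R1_zero h0 h2 hs]

/-- the mid levels are products -/
theorem sqI_mid (h0 : 0 < b) (h2 : b < 1/2) {a : κ} {z : E × ℝ} (hr : z.2 ∈ Icc (0:ℝ) 1)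
    (hB : z.1 ∈ g.B a) :
    (sqI g b).G a z = g.lev a z.1 + 1/2 ↔ g.G a z.1 = g.lev a z.1 + 1/2 := by
  rw [sqI_G_mem hB]
  constructor
  · intro h
    have h1 : S1 b z.2 (g.G a z.1 - g.lev a z.1 - 1/2) = 0 := by linarith
    rw [S1_mid h0 h2 hr] at h1
    linarith
  · intro h
    have h1 : S1 b z.2 (g.G a z.1 - g.lev a z.1 - 1/2) = 0 := by
      rw [S1_mid h0 h2 hr]; linarith
    rw [h1]; ring

/-- **the collar is a band structure** -/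
theorem sqI_is (h : g.Is Z) (hZ : IsClosed Z) (h0 : 0 < b) (h2 : b < 1/2) :
    (sqI g b).Is (Z ×ˢ Icc (0:ℝ) 1) where
  pG a := by
    have c0 : IsClosed ((Z ∩ g.B a) ×ˢ Icc (0:ℝ) 1) := (h.cB a).prod isClosed_Icc
    have c1 : IsClosed ((Z ∩ (g.G a) ⁻¹' (Zs : Set ℝ)) ×ˢ Icc (0:ℝ) 1) :=
      ((h.pG a).1.preimage_isClosed_of_isClosed hZ isClosed_Zs).prod isClosed_Icc
    have hU : Z ×ˢ Icc (0:ℝ) 1 ⊆ ((Z ∩ g.B a) ×ˢ Icc (0:ℝ) 1) ∪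
        ((Z ∩ (g.G a) ⁻¹' (Zs : Set ℝ)) ×ˢ Icc (0:ℝ) 1) := by
      rintro z ⟨hz, hr⟩
      by_cases hi : g.G a z.1 ∈ Zs
      · exact Or.inr ⟨⟨hz, hi⟩, hr⟩
      · exact Or.inl ⟨⟨hz, h.nB a z.1 hz hi⟩, hr⟩
    refine PLOn.mono (PLOn.union ?_ ?_ c0 c1) hU
    · have e1 : PLOn (fun z : E × ℝ => z.1) ((Z ∩ g.B a) ×ˢ Icc (0:ℝ) 1) := pl_fst (plOn_id _)
      have e2 : PLOn (fun z : E × ℝ => z.2) ((Z ∩ g.B a) ×ˢ Icc (0:ℝ) 1) := pl_snd (plOn_id _)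
      have e3 : PLOn (fun z : E × ℝ => g.lev a z.1) ((Z ∩ g.B a) ×ˢ Icc (0:ℝ) 1) :=
        (h.plev a).comp e1 (fun z hz => hz.1)
      have e4 : PLOn (fun z : E × ℝ => g.G a z.1) ((Z ∩ g.B a) ×ˢ Icc (0:ℝ) 1) :=
        (h.pG a).comp e1 (fun z hz => hz.1.1)
      have e5 : PLOn (fun z : E × ℝ => g.lev a z.1 + 1/2 +
          S1 b z.2 (g.G a z.1 - g.lev a z.1 - 1/2)) ((Z ∩ g.B a) ×ˢ Icc (0:ℝ) 1) :=
        pl_add (pl_add_const e3 _) (pl_S1 e2 (pl_sub_const (pl_sub e4 e3) _))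
      exact e5.congr fun z hz => sqI_G_mem hz.1.2
    · have e1 : PLOn (fun z : E × ℝ => z.1) ((Z ∩ (g.G a) ⁻¹' (Zs : Set ℝ)) ×ˢ Icc (0:ℝ) 1) :=
        pl_fst (plOn_id _)
      have e4 : PLOn (fun z : E × ℝ => g.G a z.1)
          ((Z ∩ (g.G a) ⁻¹' (Zs : Set ℝ)) ×ˢ Icc (0:ℝ) 1) :=
        (h.pG a).comp e1 (fun z hz => hz.1.1)
      exact e4.congr fun z hz => sqI_G_int h h0 h2 hz.1.1 hz.2 hz.1.2
  cB a := by
    have e1 : ContinuousOn (fun z : E × ℝ => |g.G a z.1 - g.lev a z.1 - 1/2| - be b z.2)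
        ((Z ∩ g.B a) ×ˢ Icc (0:ℝ) 1) := by
      have e3 : PLOn (fun z : E × ℝ => g.lev a z.1) ((Z ∩ g.B a) ×ˢ Icc (0:ℝ) 1) :=
        (h.plev a).comp (pl_fst (plOn_id _)) (fun z hz => hz.1)
      have e4 : PLOn (fun z : E × ℝ => g.G a z.1) ((Z ∩ g.B a) ×ˢ Icc (0:ℝ) 1) :=
        (h.pG a).comp (pl_fst (plOn_id _)) (fun z hz => hz.1.1)
      have e5 : PLOn (fun z : E × ℝ => be b z.2) ((Z ∩ g.B a) ×ˢ Icc (0:ℝ) 1) :=
        pl_be (pl_snd (plOn_id _))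
      exact (continuous_abs.comp_continuousOn (pl_sub_const (pl_sub e4 e3) _).1).sub e5.1
    have := e1.preimage_isClosed_of_isClosed ((h.cB a).prod isClosed_Icc) (isClosed_Iic (a := 0))
    have e : (Z ×ˢ Icc (0:ℝ) 1) ∩ (sqI g b).B a = ((Z ∩ g.B a) ×ˢ Icc (0:ℝ) 1) ∩
        (fun z : E × ℝ => |g.G a z.1 - g.lev a z.1 - 1/2| - be b z.2) ⁻¹' Iic 0 := by
      apply Set.ext
      intro z
      constructor
      · rintro ⟨⟨hz, hr⟩, hB, hb⟩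
        exact ⟨⟨⟨hz, hB⟩, hr⟩, by show _ - _ ≤ (0:ℝ); linarith⟩
      · rintro ⟨⟨⟨hz, hB⟩, hr⟩, hb⟩
        refine ⟨⟨hz, hr⟩, hB, ?_⟩
        have : |g.G a z.1 - g.lev a z.1 - 1/2| - be b z.2 ≤ 0 := hb
        linarith
    rw [e]
    exact this
  nB a z hz hn := by
    have hB : z.1 ∈ g.B a := by
      by_contra hB
      rw [sqI_G_notMem hB] at hn
      exact hB (h.nB a z.1 hz.1 hn)
    refine ⟨hB, ?_⟩
    by_contra hc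
    refine hn ?_
    rw [sqI_G_mem hB]
    have h4 := Zs.add_mem (Zs.add_mem (h.li a z.1 hz.1 hB)
      (half_int (S1_out h0 h2 hz.2 (not_le.1 hc).le))) (int_mem_Zs 1)
    convert h4 using 1; push_cast; ring
  li a z hz hB := h.li a z.1 hz.1 hB.1
  ab a z hz hB := by
    rw [sqI_G_mem hB.1]
    show _ - g.lev a z.1 - 1/2 ∈ I2
    have := cl_mem (g.G a z.1 - g.lev a z.1 - 1/2 + max 0 ((g.G a z.1 - g.lev a z.1 - 1/2
      - dd b z.2) / (2 * b) - (g.G a z.1 - g.lev a z.1 - 1/2)) + min 0 ((g.G a z.1 - g.lev a z.1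
      - 1/2 + dd b z.2) / (2 * b) - (g.G a z.1 - g.lev a z.1 - 1/2)))
    have e : g.lev a z.1 + 1/2 + S1 b z.2 (g.G a z.1 - g.lev a z.1 - 1/2) - g.lev a z.1 - 1/2
      = S1 b z.2 (g.G a z.1 - g.lev a z.1 - 1/2) := by ring
    rw [e]; exact this
  pt a := by
    refine pl_pair ((h.pt a).comp (pl_pair (pl_fst (pl_fst (plOn_id _)))
      (pl_R1 (pl_snd (pl_fst (plOn_id _))) (pl_snd (plOn_id _)))) ?_) (pl_snd (pl_fst (plOn_id _)))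
    intro q hq
    exact ⟨⟨hq.1.1.1, hq.1.2.1⟩, R1_mem h0 h2 hq.1.1.2 hq.2⟩
  tZ a z hz hB s hs := ⟨h.tZ a z.1 hz.1 hB.1 _ (R1_mem h0 h2 hz.2 hs), hz.2⟩
  tB a z hz hB s hs := by
    have hs' := R1_mem h0 h2 hz.2 hs
    refine ⟨h.tB a z.1 hz.1 hB.1 _ hs', ?_⟩
    show |g.G a (g.tr a (z.1, R1 b z.2 s)) - g.lev a (g.tr a (z.1, R1 b z.2 s)) - 1/2| ≤ be b z.2
    rw [h.tG a z.1 hz.1 hB.1 _ hs', h.tl a z.1 hz.1 hB.1 _ hs']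
    have := abs_R1 h0 h2 hz.2 hs
    convert this using 2; ring
  tl a z hz hB s hs := h.tl a z.1 hz.1 hB.1 _ (R1_mem h0 h2 hz.2 hs)
  tG a z hz hB s hs := by
    have hs' := R1_mem h0 h2 hz.2 hs
    show (sqI g b).G a (g.tr a (z.1, R1 b z.2 s), z.2) = g.lev a z.1 + 1/2 + s
    rw [sqI_G_mem (z := (g.tr a (z.1, R1 b z.2 s), z.2)) (h.tB a z.1 hz.1 hB.1 _ hs')]
    show g.lev a (g.tr a (z.1, R1 b z.2 s)) + 1/2 + S1 b z.2 (g.G a (g.tr a (z.1, R1 b z.2 s)) -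
      g.lev a (g.tr a (z.1, R1 b z.2 s)) - 1/2) = _
    rw [h.tG a z.1 hz.1 hB.1 _ hs', h.tl a z.1 hz.1 hB.1 _ hs']
    have e : g.lev a z.1 + 1/2 + R1 b z.2 s - g.lev a z.1 - 1/2 = R1 b z.2 s := by ring
    rw [e, S1_R1 h0 h2 hz.2 hs]
  ts a z hz hB := by
    show (g.tr a (z.1, R1 b z.2 ((sqI g b).G a z - g.lev a z.1 - 1/2)), z.2) = z
    rw [sqI_G_mem hB.1]
    have e : g.lev a z.1 + 1/2 + S1 b z.2 (g.G a z.1 - g.lev a z.1 - 1/2) - g.lev a z.1 - 1/2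
      = S1 b z.2 (g.G a z.1 - g.lev a z.1 - 1/2) := by ring
    rw [e, R1_S1 h0 h2 hz.2 hB.2, h.ts a z.1 hz.1 hB.1]
  tt a z hz hB s hs s' hs' := by
    show (g.tr a (g.tr a (z.1, R1 b z.2 s), R1 b z.2 s'), z.2) = (g.tr a (z.1, R1 b z.2 s'), z.2)
    rw [h.tt a z.1 hz.1 hB.1 _ (R1_mem h0 h2 hz.2 hs) _ (R1_mem h0 h2 hz.2 hs')]
  oG a c hac z hz hB s hs := by
    have hs' := R1_mem h0 h2 hz.2 hs
    show (sqI g b).G c (g.tr a (z.1, R1 b z.2 s), z.2) = (sqI g b).G c z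
    by_cases hc : z.1 ∈ g.B c
    · rw [sqI_G_mem hc, sqI_G_mem (z := (g.tr a (z.1, R1 b z.2 s), z.2))
        (h.oB a c hac z.1 hz.1 hB.1 hc _ hs')]
      show g.lev c (g.tr a (z.1, R1 b z.2 s)) + 1/2 + S1 b z.2 (g.G c (g.tr a (z.1, R1 b z.2 s)) -
        g.lev c (g.tr a (z.1, R1 b z.2 s)) - 1/2) = _
      rw [h.oG a c hac z.1 hz.1 hB.1 _ hs', h.ol a c hac z.1 hz.1 hB.1 hc _ hs']
    · rw [sqI_G_notMem hc, sqI_G_notMem (z := (g.tr a (z.1, R1 b z.2 s), z.2))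
        (h.notMem_tr hz.1 hB.1 hc hs')]
      exact h.oG a c hac z.1 hz.1 hB.1 _ hs'
  oB a c hac z hz hB hc s hs := by
    have hs' := R1_mem h0 h2 hz.2 hs
    refine ⟨h.oB a c hac z.1 hz.1 hB.1 hc.1 _ hs', ?_⟩
    show |g.G c (g.tr a (z.1, R1 b z.2 s)) - g.lev c (g.tr a (z.1, R1 b z.2 s)) - 1/2| ≤ be b z.2
    rw [h.oG a c hac z.1 hz.1 hB.1 _ hs', h.ol a c hac z.1 hz.1 hB.1 hc.1 _ hs']
    exact hc.2
  ol a c hac z hz hB hc s hs := h.ol a c hac z.1 hz.1 hB.1 hc.1 _ (R1_mem h0 h2 hz.2 hs)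
  oc a c hac z hz hB hc s hs t ht := by
    show (g.tr a (g.tr c (z.1, R1 b z.2 t), R1 b z.2 s), z.2) =
      (g.tr c (g.tr a (z.1, R1 b z.2 s), R1 b z.2 t), z.2)
    rw [h.oc a c hac z.1 hz.1 hB.1 hc.1 _ (R1_mem h0 h2 hz.2 hs) _ (R1_mem h0 h2 hz.2 ht)]

end Crest.Agent.R096.Kb_337
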