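import Crest.Agent.R096.Kb2_337
import Crest.Agent.R096.Bin1_181

/-!
# R096 (row 96), COLLAR of an exact core: the PL collar chart of a (thin) shell (helper315)

`Q = [-1,1]^n` (sup norm), `0 < ε < 1`, `lam = ε / (1-ε)`, shell `{1-ε ≤ ‖x‖ ≤ 1}`:
`z_j = x_j + clamp (lam x_j, ±(1-‖x‖))`, `r = (‖x‖ - (1-ε)) / ε`; inverse
`x_j = z_j - clamp (ε z_j, ± ε (1-r))`.  Identity on `‖x‖ = 1`, homothety on `‖x‖ = 1-ε`.
`shellE N` : the same for the affine cube `N⁻¹ Q`.
-/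

set_option autoImplicit false
set_option linter.unusedSectionVars false

open Set Metric

namespace Crest.Agent.R096.Kbc_315

open Crest.Agent.R096.Ce_537 Crest.Agent.R096.Bd_416 Crest.Agent.R096.Kb_337
open Crest.Agent.R096.Bin_181

/-- clamp to `[-h, h]` -/
noncomputable def cp (h t : ℝ) : ℝ := max (-h) (min h t)

lemma cp_of_abs {h t : ℝ} (ht : |t| ≤ h) : cp h t = t := by
  obtain ⟨h1, h2⟩ := abs_le.1 ht
  unfold cp; rw [min_eq_right h2, max_eq_right h1]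

lemma cp_neg {h : ℝ} (hh : 0 ≤ h) (t : ℝ) : cp h (-t) = - cp h t := by
  unfold cp
  rcases le_total t (-h) with h1 | h1
  · rw [min_eq_left (by linarith), max_eq_right (by linarith), min_eq_right (by linarith),
      max_eq_left h1]; ring
  rcases le_total t h with h2 | h2
  · rw [min_eq_right (by linarith), max_eq_right (by linarith), min_eq_right h2,
      max_eq_right h1]
  · rw [min_eq_right (by linarith), max_eq_left (by linarith), min_eq_left h2,
      max_eq_right (by linarith)]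

lemma cp_of_ge {h t : ℝ} (hh : 0 ≤ h) (ht : h ≤ t) : cp h t = h := by
  unfold cp; rw [min_eq_left ht, max_eq_right (by linarith)]

lemma cp_abs {h : ℝ} (hh : 0 ≤ h) (t : ℝ) : |cp h t| ≤ h := by
  unfold cp
  rw [abs_le]
  exact ⟨le_max_left _ _, max_le (by linarith) (min_le_left _ _)⟩

lemma cp_nonneg {h t : ℝ} (hh : 0 ≤ h) (ht : 0 ≤ t) : 0 ≤ cp h t :=
  le_max_of_le_right (le_min hh ht)

lemma cp_le {h t : ℝ} (ht : 0 ≤ t) (hh : 0 ≤ h) : cp h t ≤ t := by
  unfold cp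
  exact max_le (by linarith) (min_le_right _ _)

lemma cp_mono {h s t : ℝ} (hst : s ≤ t) : cp h s ≤ cp h t :=
  max_le_max le_rfl (min_le_min le_rfl hst)

/-- the clamp is 1-Lipschitz in both variables -/
lemma cp_lip {h h' s t : ℝ} : |cp h s - cp h' t| ≤ max |h - h'| |s - t| := by
  unfold cp
  refine (abs_max_sub_max_le_max _ _ _ _).trans ?_
  refine max_le ?_ ((abs_min_sub_min_le_max _ _ _ _).trans le_rfl)
  rw [neg_sub_neg, abs_sub_comm]
  exact le_max_left _ _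

/-- the coordinate map of the collar, `h = 1 - ‖x‖` -/
noncomputable def zf (ε h x : ℝ) : ℝ := x + cp h (ε / (1 - ε) * x)

/-- its inverse -/
noncomputable def yg (ε h z : ℝ) : ℝ := z - cp h (ε * z)

section one

variable {ε h : ℝ} (he : 0 < ε) (he1 : ε < 1) (hh : 0 ≤ h)
include he he1 hh

lemma zf_neg (x : ℝ) : zf ε h (-x) = - zf ε h x := by
  unfold zf; rw [mul_neg, cp_neg hh]; ring

lemma yg_neg (x : ℝ) : yg ε h (-x) = - yg ε h x := by
  unfold yg; rw [mul_neg, cp_neg hh]; ring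

lemma lam_pos : 0 < ε / (1 - ε) := div_pos he (by linarith)

lemma yg_zf (x : ℝ) : yg ε h (zf ε h x) = x := by
  have h1 : (1 - ε) ≠ 0 := by linarith
  have hl := lam_pos he he1 hh
  have key : ∀ x, 0 ≤ x → yg ε h (zf ε h x) = x := by
    intro x hx
    unfold yg zf
    rcases le_total (ε / (1 - ε) * x) h with h2 | h2
    · have e1 : cp h (ε / (1 - ε) * x) = ε / (1 - ε) * x :=
        cp_of_abs (by rw [abs_of_nonneg (by positivity)]; exact h2)
      have e2 : ε * (x + ε / (1 - ε) * x) = ε / (1 - ε) * x := by field_simp; ring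
      rw [e1, e2, e1]; ring
    · rw [cp_of_ge hh h2]
      have h3 : h * (1 - ε) ≤ ε * x := by
        have : h * (1 - ε) ≤ (ε / (1 - ε) * x) * (1 - ε) :=
          mul_le_mul_of_nonneg_right h2 (by linarith)
        have e : (ε / (1 - ε) * x) * (1 - ε) = ε * x := by field_simp
        linarith
      rw [cp_of_ge hh (by nlinarith)]; ring
  rcases le_total 0 x with h2 | h2
  · exact key x h2
  · have := key (-x) (by linarith)
    rw [zf_neg he he1 hh, yg_neg he he1 hh] at this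
    linarith

lemma zf_yg (z : ℝ) : zf ε h (yg ε h z) = z := by
  have h1 : (1 - ε) ≠ 0 := by linarith
  have hl := lam_pos he he1 hh
  have key : ∀ z, 0 ≤ z → zf ε h (yg ε h z) = z := by
    intro z hz
    unfold yg zf
    rcases le_total (ε * z) h with h2 | h2
    · have e1 : cp h (ε * z) = ε * z :=
        cp_of_abs (by rw [abs_of_nonneg (by positivity)]; exact h2)
      have e2 : ε / (1 - ε) * (z - ε * z) = ε * z := by field_simp
      rw [e1, e2, e1]; ring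
    · rw [cp_of_ge hh h2]
      have h3 : h ≤ ε / (1 - ε) * (z - h) := by
        have e : (ε / (1 - ε) * (z - h)) * (1 - ε) = ε * (z - h) := by field_simp
        have h4 : h * (1 - ε) ≤ (ε / (1 - ε) * (z - h)) * (1 - ε) := by rw [e]; nlinarith
        exact le_of_mul_le_mul_right h4 (by linarith)
      rw [cp_of_ge hh h3]; ring
  rcases le_total 0 z with h2 | h2
  · exact key z h2
  · have := key (-z) (by linarith)
    rw [yg_neg he he1 hh, zf_neg he he1 hh] at this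
    linarith

lemma abs_zf (x : ℝ) : |zf ε h x| = zf ε h |x| := by
  have hl := lam_pos he he1 hh
  have key : ∀ x, 0 ≤ x → 0 ≤ zf ε h x := fun x hx =>
    add_nonneg hx (cp_nonneg hh (by positivity))
  rcases le_total 0 x with h2 | h2
  · rw [abs_of_nonneg h2, abs_of_nonneg (key x h2)]
  · have := key (-x) (by linarith)
    rw [zf_neg he he1 hh] at this
    rw [abs_of_nonpos h2, zf_neg he he1 hh, abs_of_nonpos (by linarith)]

lemma yg_nonneg {x : ℝ} (hx : 0 ≤ x) : 0 ≤ yg ε h x := by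
  have h1 : cp h (ε * x) ≤ ε * x := cp_le (by positivity) hh
  unfold yg
  nlinarith

lemma abs_yg (x : ℝ) : |yg ε h x| = yg ε h |x| := by
  rcases le_total 0 x with h2 | h2
  · rw [abs_of_nonneg h2, abs_of_nonneg (yg_nonneg he he1 hh h2)]
  · have := yg_nonneg he he1 hh (neg_nonneg.2 h2)
    rw [yg_neg he he1 hh] at this
    rw [abs_of_nonpos h2, yg_neg he he1 hh, abs_of_nonpos (by linarith)]

lemma zf_mono {x y : ℝ} (hxy : x ≤ y) : zf ε h x ≤ zf ε h y := by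
  have hl := lam_pos he he1 hh
  unfold zf
  exact add_le_add hxy (cp_mono (mul_le_mul_of_nonneg_left hxy hl.le))

lemma yg_mono {x y : ℝ} (hxy : x ≤ y) : yg ε h x ≤ yg ε h y := by
  have h1 : cp h (ε * y) - cp h (ε * x) ≤ ε * (y - x) := by
    have h2 := cp_lip (h := h) (h' := h) (s := ε * y) (t := ε * x)
    rw [sub_self, abs_zero, max_eq_right (abs_nonneg _)] at h2
    have h3 := (abs_le.1 h2).2
    rwa [← mul_sub, abs_of_nonneg (mul_nonneg he.le (by linarith))] at h3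
  unfold yg
  nlinarith

lemma zf_top (hhe : h ≤ ε) : zf ε h (1 - h) = 1 := by
  have h1 : h ≤ ε / (1 - ε) * (1 - h) := by
    have e : (ε / (1 - ε) * (1 - h)) * (1 - ε) = ε * (1 - h) := by
      have h1 : (1 - ε) ≠ 0 := by linarith
      field_simp
    have h4 : h * (1 - ε) ≤ (ε / (1 - ε) * (1 - h)) * (1 - ε) := by rw [e]; nlinarith
    exact le_of_mul_le_mul_right h4 (by linarith)
  unfold zf
  rw [cp_of_ge hh h1]; ring

lemma yg_top (hhe : h ≤ ε) : yg ε h 1 = 1 - h := by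
  unfold yg
  rw [mul_one, cp_of_ge hh hhe]

end one

lemma zf_zero (ε : ℝ) (x : ℝ) : zf ε 0 x = x := by
  unfold zf cp
  rw [neg_zero]
  rcases le_total 0 (ε / (1 - ε) * x) with h | h
  · rw [min_eq_left h, max_self, add_zero]
  · rw [min_eq_right h, max_eq_left h, add_zero]

lemma yg_zero (ε : ℝ) (x : ℝ) : yg ε 0 x = x := by
  unfold yg cp
  rw [neg_zero]
  rcases le_total 0 (ε * x) with h | h
  · rw [min_eq_left h, max_self, sub_zero]
  · rw [min_eq_right h, max_eq_left h, sub_zero]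

/-- on the inner boundary the collar map is the homothety -/
lemma yg_eps {ε : ℝ} (he : 0 < ε) {z : ℝ} (hz : |z| ≤ 1) : yg ε ε z = (1 - ε) * z := by
  unfold yg
  rw [cp_of_abs (by rw [abs_mul, abs_of_pos he]; nlinarith)]; ring

lemma zf_eps {ε : ℝ} (he : 0 < ε) (he1 : ε < 1) {x : ℝ} (hx : |x| ≤ 1 - ε) :
    zf ε ε x = x / (1 - ε) := by
  have h1 : (1 - ε) ≠ 0 := by linarith
  unfold zf
  rw [cp_of_abs]
  · field_simp; ring
  · rw [abs_mul, abs_of_pos (div_pos he (by linarith)), div_mul_eq_mul_div, div_le_iff₀ (by linarith)]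
    nlinarith

lemma zf_lip {ε h h' x x' : ℝ} (he : 0 < ε) (he2 : ε ≤ 1/2) :
    |zf ε h x - zf ε h' x'| ≤ 2 * |x - x'| + |h - h'| := by
  have hl : 0 < ε / (1 - ε) := div_pos he (by linarith)
  have hl1 : ε / (1 - ε) ≤ 1 := by rw [div_le_one (by linarith)]; linarith
  have h1 := cp_lip (h := h) (h' := h') (s := ε / (1 - ε) * x) (t := ε / (1 - ε) * x')
  have h2 : |ε / (1 - ε) * x - ε / (1 - ε) * x'| ≤ |x - x'| := by
    rw [← mul_sub, abs_mul, abs_of_pos hl]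
    nlinarith [abs_nonneg (x - x')]
  have h3 : |zf ε h x - zf ε h' x'| ≤ |x - x'| + |cp h (ε / (1 - ε) * x) - cp h' (ε / (1 - ε) * x')| := by
    unfold zf
    have e : x + cp h (ε / (1 - ε) * x) - (x' + cp h' (ε / (1 - ε) * x'))
      = (x - x') + (cp h (ε / (1 - ε) * x) - cp h' (ε / (1 - ε) * x')) := by ring
    rw [e]; exact abs_add_le _ _
  have h4 := max_le_add_of_nonneg (abs_nonneg (h - h')) (abs_nonneg (x - x'))
  have h5 := h1.trans ((max_le_max le_rfl h2).trans h4)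
  linarith

lemma yg_lip {ε h h' z z' : ℝ} (he : 0 < ε) (he2 : ε ≤ 1/2) :
    |yg ε h z - yg ε h' z'| ≤ 2 * |z - z'| + |h - h'| := by
  have h1 := cp_lip (h := h) (h' := h') (s := ε * z) (t := ε * z')
  have h2 : |ε * z - ε * z'| ≤ |z - z'| := by
    rw [← mul_sub, abs_mul, abs_of_pos he]
    nlinarith [abs_nonneg (z - z')]
  have h3 : |yg ε h z - yg ε h' z'| ≤ |z - z'| + |cp h (ε * z) - cp h' (ε * z')| := by
    unfold yg
    have e : z - cp h (ε * z) - (z' - cp h' (ε * z'))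
      = (z - z') - (cp h (ε * z) - cp h' (ε * z')) := by ring
    rw [e]; exact abs_sub _ _
  have h4 := max_le_add_of_nonneg (abs_nonneg (h - h')) (abs_nonneg (z - z'))
  have h5 := h1.trans ((max_le_max le_rfl h2).trans h4)
  linarith

/-! ### the shell of the cube -/

variable {n : ℕ}

/-- the shell `1 - ε ≤ ‖x‖ ≤ 1` -/
def Shl (n : ℕ) (ε : ℝ) : Set (Fin n → ℝ) := {x | 1 - ε ≤ ‖x‖ ∧ ‖x‖ ≤ 1}

/-- the collar map -/
noncomputable def cF (ε : ℝ) (x : Fin n → ℝ) : (Fin n → ℝ) × ℝ :=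
  (fun j => zf ε (1 - ‖x‖) (x j), (‖x‖ - (1 - ε)) / ε)

/-- its inverse -/
noncomputable def cG (ε : ℝ) (z : (Fin n → ℝ) × ℝ) : Fin n → ℝ :=
  fun j => yg ε (ε * (1 - z.2)) (z.1 j)

section shell

variable {ε : ℝ} (he : 0 < ε) (he1 : ε < 1)
include he he1

lemma norm_zf {x : Fin n → ℝ} (hx : x ∈ Shl n ε) : ‖fun j => zf ε (1 - ‖x‖) (x j)‖ = 1 := by
  have hh : 0 ≤ 1 - ‖x‖ := by linarith [hx.2]
  have hx0 : x ≠ 0 := by rintro rfl; have := hx.1; rw [norm_zero] at this; linarith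
  have ht : zf ε (1 - ‖x‖) ‖x‖ = 1 := by
    have := zf_top he he1 hh (by linarith [hx.1])
    rwa [sub_sub_cancel] at this
  apply le_antisymm
  · rw [pi_norm_le_iff_of_nonneg zero_le_one]
    intro i
    rw [Real.norm_eq_abs, abs_zf he he1 hh]
    exact (zf_mono he he1 hh (abs_apply_le x i)).trans ht.le
  · obtain ⟨i, hi⟩ := exists_coord hx0
    calc (1:ℝ) = |zf ε (1 - ‖x‖) (x i)| := by rw [abs_zf he he1 hh, ← hi, ht]
      _ ≤ _ := abs_apply_le (fun j => zf ε (1 - ‖x‖) (x j)) i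

lemma norm_yg {ω : Fin n → ℝ} {r : ℝ} (hω : ω ∈ sph n) (hr : r ∈ Icc (0:ℝ) 1) :
    ‖fun j => yg ε (ε * (1 - r)) (ω j)‖ = 1 - ε * (1 - r) := by
  have h1 : ‖ω‖ = 1 := by simpa using hω
  have hx0 : ω ≠ 0 := by rintro rfl; rw [norm_zero] at h1; norm_num at h1
  have hh : 0 ≤ ε * (1 - r) := mul_nonneg he.le (by linarith [hr.2])
  have hhe : ε * (1 - r) ≤ ε := by nlinarith [hr.1]
  have ht := yg_top he he1 hh hhe
  apply le_antisymm
  · rw [pi_norm_le_iff_of_nonneg (by linarith)]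
    intro i
    rw [Real.norm_eq_abs, abs_yg he he1 hh, ← ht]
    exact yg_mono he he1 hh (by rw [← h1]; exact abs_apply_le ω i)
  · obtain ⟨i, hi⟩ := exists_coord hx0
    calc 1 - ε * (1 - r) = |yg ε (ε * (1 - r)) (ω i)| := by
          rw [abs_yg he he1 hh, ← hi, h1, ht]
      _ ≤ _ := abs_apply_le (fun j => yg ε (ε * (1 - r)) (ω j)) i

end shell

section pl

variable {E : Type*} [NormedAddCommGroup E] [NormedSpace ℝ E]

lemma pl_cp {h t : E → ℝ} {Z : Set E} (hh : PLOn h Z) (ht : PLOn t Z) :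
    PLOn (fun z => cp (h z) (t z)) Z := pl_max (pl_neg hh) (pl_min hh ht)

lemma pl_zf (ε : ℝ) {h x : E → ℝ} {Z : Set E} (hh : PLOn h Z) (hx : PLOn x Z) :
    PLOn (fun z => zf ε (h z) (x z)) Z := pl_add hx (pl_cp hh (pl_mul _ hx))

lemma pl_yg (ε : ℝ) {h x : E → ℝ} {Z : Set E} (hh : PLOn h Z) (hx : PLOn x Z) :
    PLOn (fun z => yg ε (h z) (x z)) Z := pl_sub hx (pl_cp hh (pl_mul _ hx))

end pl

/-- **THE PL COLLAR CHART OF THE CUBE** -/
noncomputable def cubeC (n : ℕ) {ε : ℝ} (he : 0 < ε) (he1 : ε < 1) :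
    PLEquiv (Shl n ε) (sph n ×ˢ Icc (0:ℝ) 1) where
  f := cF ε
  g := cG ε
  pf := by
    refine pl_pair (pl_pi fun i => pl_zf ε ?_ (pl_apply (plOn_id _) i)) ?_
    · exact pl_sub (plOn_const _ _) (pl_norm _)
    · exact pl_div (pl_sub_const (pl_norm _) _) _
  pg := pl_pi fun i => pl_yg ε (pl_mul _ (pl_sub (plOn_const _ _) (pl_snd (plOn_id _))))
    (pl_apply (pl_fst (plOn_id _)) i)
  mf x hx := ⟨by
      rw [mem_sphere_zero_iff_norm]
      exact norm_zf he he1 hx, by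
      show 0 ≤ (‖x‖ - (1 - ε)) / ε
      exact div_nonneg (by linarith [hx.1]) he.le, by
      show (‖x‖ - (1 - ε)) / ε ≤ 1
      rw [div_le_one he]; linarith [hx.2]⟩
  mg z hz := by
    have h1 := norm_yg he he1 hz.1 hz.2
    have h2 := hz.2.1
    have h3 := hz.2.2
    exact ⟨by show 1 - ε ≤ ‖fun j => yg ε (ε * (1 - z.2)) (z.1 j)‖; rw [h1]; nlinarith,
      by show ‖fun j => yg ε (ε * (1 - z.2)) (z.1 j)‖ ≤ 1; rw [h1]; nlinarith⟩
  li x hx := by
    have e : ε * (1 - (‖x‖ - (1 - ε)) / ε) = 1 - ‖x‖ := by field_simp; ring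
    funext j
    show yg ε (ε * (1 - (‖x‖ - (1 - ε)) / ε)) (zf ε (1 - ‖x‖) (x j)) = x j
    rw [e]
    exact yg_zf he he1 (by linarith [hx.2]) _
  ri z hz := by
    have h1 := norm_yg he he1 hz.1 hz.2
    have e : 1 - (1 - ε * (1 - z.2)) = ε * (1 - z.2) := by ring
    refine Prod.ext ?_ ?_
    · funext j
      show zf ε (1 - ‖fun j => yg ε (ε * (1 - z.2)) (z.1 j)‖) (yg ε (ε * (1 - z.2)) (z.1 j)) = z.1 j
      rw [h1, e]
      exact zf_yg he he1 (mul_nonneg he.le (by linarith [hz.2.2])) _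
    · show (‖fun j => yg ε (ε * (1 - z.2)) (z.1 j)‖ - (1 - ε)) / ε = z.2
      rw [h1]; field_simp; ring

/-- outer boundary -/
lemma cF_outer (ε : ℝ) {x : Fin n → ℝ} (he : 0 < ε) (hx : ‖x‖ = 1) : cF ε x = (x, 1) := by
  refine Prod.ext ?_ ?_
  · funext j
    show zf ε (1 - ‖x‖) (x j) = x j
    rw [hx, sub_self, zf_zero]
  · show (‖x‖ - (1 - ε)) / ε = 1
    rw [hx]; field_simp; ring

/-- inner boundary: homothety -/
lemma cF_inner {ε : ℝ} (he : 0 < ε) (he1 : ε < 1) {x : Fin n → ℝ} (hx : ‖x‖ = 1 - ε) :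
    cF ε x = ((1 - ε)⁻¹ • x, 0) := by
  refine Prod.ext ?_ ?_
  · funext j
    show zf ε (1 - ‖x‖) (x j) = (1 - ε)⁻¹ * x j
    rw [hx, sub_sub_cancel, zf_eps he he1 (by rw [← hx]; exact abs_apply_le x j), div_eq_inv_mul]
  · show (‖x‖ - (1 - ε)) / ε = 0
    rw [hx, sub_self, zero_div]

lemma cG_outer (ε : ℝ) (z : Fin n → ℝ) : cG ε (z, 1) = z := by
  funext j
  show yg ε (ε * (1 - 1)) (z j) = z j
  rw [sub_self, mul_zero, yg_zero]

lemma cG_inner {ε : ℝ} (he : 0 < ε) {z : Fin n → ℝ} (hz : ‖z‖ = 1) :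
    cG ε (z, 0) = (1 - ε) • z := by
  funext j
  show yg ε (ε * (1 - 0)) (z j) = (1 - ε) * z j
  rw [sub_zero, mul_one, yg_eps he (by rw [← hz]; exact abs_apply_le z j)]

/-- Lipschitz bounds -/
lemma cF_lip {ε : ℝ} (he : 0 < ε) (he2 : ε ≤ 1/2) (x x' : Fin n → ℝ) :
    ‖(cF ε x).1 - (cF ε x').1‖ ≤ 3 * ‖x - x'‖ ∧ |(cF ε x).2 - (cF ε x').2| ≤ ε⁻¹ * ‖x - x'‖ := by
  have h0 : |(1 - ‖x‖) - (1 - ‖x'‖)| ≤ ‖x - x'‖ := by
    rw [show (1 - ‖x‖) - (1 - ‖x'‖) = ‖x'‖ - ‖x‖ by ring, abs_sub_comm]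
    exact abs_norm_sub_norm_le _ _
  constructor
  · rw [pi_norm_le_iff_of_nonneg (by positivity)]
    intro j
    have h1 := zf_lip (h := 1 - ‖x‖) (h' := 1 - ‖x'‖) (x := x j) (x' := x' j) he he2
    have h2 : |x j - x' j| ≤ ‖x - x'‖ := abs_apply_le (x - x') j
    show |zf ε (1 - ‖x‖) (x j) - zf ε (1 - ‖x'‖) (x' j)| ≤ _
    linarith
  · have e : (cF ε x).2 - (cF ε x').2 = ε⁻¹ * (‖x‖ - ‖x'‖) := by
      show (‖x‖ - (1 - ε)) / ε - (‖x'‖ - (1 - ε)) / ε = _
      field_simp; ring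
    rw [e, abs_mul, abs_of_pos (inv_pos.2 he)]
    exact mul_le_mul_of_nonneg_left (abs_norm_sub_norm_le _ _) (inv_pos.2 he).le

lemma cG_lip {ε : ℝ} (he : 0 < ε) (he2 : ε ≤ 1/2) (z z' : (Fin n → ℝ) × ℝ) :
    ‖cG ε z - cG ε z'‖ ≤ 2 * ‖z.1 - z'.1‖ + ε * |z.2 - z'.2| := by
  rw [pi_norm_le_iff_of_nonneg (by positivity)]
  intro j
  have h1 := yg_lip (h := ε * (1 - z.2)) (h' := ε * (1 - z'.2)) (z := z.1 j) (z' := z'.1 j) he he2
  have h2 : |z.1 j - z'.1 j| ≤ ‖z.1 - z'.1‖ := abs_apply_le (z.1 - z'.1) j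
  have h3 : |ε * (1 - z.2) - ε * (1 - z'.2)| = ε * |z.2 - z'.2| := by
    rw [show ε * (1 - z.2) - ε * (1 - z'.2) = ε * (z'.2 - z.2) by ring, abs_mul, abs_of_pos he,
      abs_sub_comm]
  show |yg ε (ε * (1 - z.2)) (z.1 j) - yg ε (ε * (1 - z'.2)) (z'.1 j)| ≤ _
  linarith

end Crest.Agent.R096.Kbc_315
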