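import Crest.Agent.R096.Kbc1_315

/-!
# R096 (row 96), COLLAR of an exact core, part 2 (helper315)

* `sg b r` : the level function of `sqI` as a function of the level, monotone and Lipschitz;
* `colE N` : the PL collar chart of the shell of the affine cube `N⁻¹ Q`;
* `colG N g b` : `sqI g b` pulled back to the shell: `= g.sq b` on the outer boundary
  (`colG_outer`), `= g` up to the homothety on the inner boundary (`colG_inner`), `Is`, Lipschitz.
-/

set_option autoImplicit false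
set_option linter.unusedSectionVars false

open Set Metric

namespace Crest.Agent.R096.Kbc_315

open Crest.Agent.R096.Ce_537 Crest.Agent.R096.Bd_416 Crest.Agent.R096.Kb_337
open Crest.Agent.R096.Bin_181

/-! ### the level function of the collar -/

section lip

variable {b : ℝ} (h0 : 0 < b) (h2 : b < 1/2)
include h0 h2

lemma S1_at_zero {r : ℝ} (hr : r ∈ Icc (0:ℝ) 1) : S1 b r 0 = 0 := (S1_mid h0 h2 hr).2 rfl

lemma cl_lip (s t : ℝ) : |cl s - cl t| ≤ |s - t| := by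
  unfold cl
  refine (abs_max_sub_max_le_max _ _ _ _).trans (max_le (by simp) ?_)
  refine (abs_min_sub_min_le_max _ _ _ _).trans (max_le le_rfl (by simp))

lemma S1_lip_pos {r r' t t' : ℝ} (hr : r ∈ Icc (0:ℝ) 1) (hr' : r' ∈ Icc (0:ℝ) 1) (ht : 0 ≤ t)
    (ht' : 0 ≤ t') :
    |S1 b r t - S1 b r' t'| ≤ (|t - t'| + (1/2 - b) * |r - r'|) / (2 * b) := by
  have hb : 0 < 2 * b := by linarith
  rw [S1_pos h0 h2 hr ht, S1_pos h0 h2 hr' ht']
  refine (cl_lip h0 h2 _ _).trans ((abs_max_sub_max_le_max _ _ _ _).trans ?_)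
  have hd : |dd b r - dd b r'| = (1/2 - b) * |r - r'| := by
    unfold dd
    rw [show (1/2 - b) * (1 - r) - (1/2 - b) * (1 - r') = (1/2 - b) * (r' - r) by ring, abs_mul,
      abs_of_nonneg (by linarith : (0:ℝ) ≤ 1/2 - b), abs_sub_comm]
  have hn : 0 ≤ (1/2 - b) * |r - r'| := mul_nonneg (by linarith) (abs_nonneg _)
  refine max_le ?_ ?_
  · rw [le_div_iff₀ hb]
    nlinarith [abs_nonneg (t - t')]
  · rw [← sub_div, abs_div, abs_of_pos hb]
    refine div_le_div_of_nonneg_right ?_ hb.le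
    rw [show t - dd b r - (t' - dd b r') = (t - t') - (dd b r - dd b r') by ring, ← hd]
    exact abs_sub _ _

lemma S1_lip {r r' t t' : ℝ} (hr : r ∈ Icc (0:ℝ) 1) (hr' : r' ∈ Icc (0:ℝ) 1) :
    |S1 b r t - S1 b r' t'| ≤ (|t - t'| + (1/2 - b) * |r - r'|) / (2 * b) := by
  have hb : 0 < 2 * b := by linarith
  have hn : 0 ≤ (1/2 - b) * |r - r'| := mul_nonneg (by linarith) (abs_nonneg _)
  have key : ∀ {r r' t t' : ℝ}, r ∈ Icc (0:ℝ) 1 → r' ∈ Icc (0:ℝ) 1 → 0 ≤ t → t' ≤ 0 →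
      |S1 b r t - S1 b r' t'| ≤ |t - t'| / (2 * b) := by
    intro r r' t t' hr hr' ht ht'
    have e1 := S1_lip_pos h0 h2 hr hr ht le_rfl
    have e2 := S1_lip_pos h0 h2 hr' hr' (neg_nonneg.2 ht') le_rfl
    rw [sub_self, abs_zero, mul_zero, add_zero, sub_zero, S1_at_zero h0 h2 hr, sub_zero,
      abs_of_nonneg ht] at e1
    rw [sub_self, abs_zero, mul_zero, add_zero, sub_zero, S1_at_zero h0 h2 hr', sub_zero,
      S1_neg h0 h2 hr', abs_neg, abs_neg, abs_of_nonpos ht'] at e2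
    calc |S1 b r t - S1 b r' t'| ≤ |S1 b r t| + |S1 b r' t'| := abs_sub _ _
      _ ≤ t / (2 * b) + -t' / (2 * b) := add_le_add e1 e2
      _ = |t - t'| / (2 * b) := by rw [abs_of_nonneg (by linarith)]; ring
  have mono : ∀ x : ℝ, |t - t'| / (2 * b) ≤ (|t - t'| + (1/2 - b) * |r - r'|) / (2 * b) := fun _ =>
    div_le_div_of_nonneg_right (by linarith) hb.le
  rcases le_total 0 t with ht | ht <;> rcases le_total 0 t' with ht' | ht'
  · exact S1_lip_pos h0 h2 hr hr' ht ht'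
  · exact (key hr hr' ht ht').trans (mono 0)
  · rw [abs_sub_comm, abs_sub_comm t t', abs_sub_comm r r']
    rw [abs_sub_comm t t', abs_sub_comm r r'] at mono
    exact (key hr' hr ht' ht).trans (mono 0)
  · have e := S1_lip_pos h0 h2 hr hr' (neg_nonneg.2 ht) (neg_nonneg.2 ht')
    rw [S1_neg h0 h2 hr, S1_neg h0 h2 hr', neg_sub_neg, neg_sub_neg, abs_sub_comm (S1 b r' t'),
      abs_sub_comm t' t] at e
    exact e

end lip

/-- the level function of the collar at depth `r` -/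
noncomputable def sg (b r v : ℝ) : ℝ := ⌊v⌋ + 1/2 + S1 b r (v - ⌊v⌋ - 1/2)

section sg

variable {b r : ℝ} (h0 : 0 < b) (h2 : b < 1/2) (hr : r ∈ Icc (0:ℝ) 1)
include h0 h2 hr

lemma sg_int (k : ℤ) : sg b r k = k := by
  unfold sg
  rw [Int.floor_intCast, sub_self, zero_sub, show (-(1/2) : ℝ) = -1/2 by norm_num,
    S1_half h0 h2 hr (Or.inl rfl)]
  ring

/-- on a band -/
lemma sg_band {k : ℤ} {v : ℝ} (h1 : (k : ℝ) ≤ v) (h3 : v ≤ k + 1) :
    sg b r v = k + 1/2 + S1 b r (v - k - 1/2) := by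
  rcases eq_or_lt_of_le h3 with h | h
  · have e : v = ((k + 1 : ℤ) : ℝ) := by rw [h]; push_cast; ring
    have e2 : v - k - 1/2 = 1/2 := by rw [h]; ring
    rw [e2, S1_half h0 h2 hr (Or.inr rfl), e, sg_int h0 h2 hr]
    push_cast; ring
  · have hf : ⌊v⌋ = k := Int.floor_eq_iff.2 ⟨h1, h⟩
    unfold sg
    rw [hf]

lemma sg_sub_floor (v : ℝ) : 0 ≤ sg b r v - ⌊v⌋ ∧ sg b r v - ⌊v⌋ ≤ (v - ⌊v⌋) / (2 * b) := by
  have e := S1_lip h0 h2 (t := v - ⌊v⌋ - 1/2) (t' := -1/2) hr hr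
  rw [S1_half h0 h2 hr (Or.inl rfl), sub_self, abs_zero, mul_zero, add_zero,
    show v - ⌊v⌋ - 1/2 - -1/2 = v - ⌊v⌋ by ring, abs_of_nonneg (sub_nonneg.2 (Int.floor_le v))] at e
  have h3 := (S1_mem h0 h2 hr (t := v - ⌊v⌋ - 1/2)).1
  have h4 := (abs_le.1 e).2
  unfold sg
  constructor <;> linarith

lemma ceil_sub_sg (v : ℝ) : 0 ≤ ⌊v⌋ + 1 - sg b r v ∧
    ⌊v⌋ + 1 - sg b r v ≤ (⌊v⌋ + 1 - v) / (2 * b) := by
  have e := S1_lip h0 h2 (t := 1/2) (t' := v - ⌊v⌋ - 1/2) hr hr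
  rw [S1_half h0 h2 hr (Or.inr rfl), sub_self, abs_zero, mul_zero, add_zero,
    show 1/2 - (v - ⌊v⌋ - 1/2) = ⌊v⌋ + 1 - v by ring,
    abs_of_nonneg (sub_nonneg.2 (Int.lt_floor_add_one v).le)] at e
  have h3 := (S1_mem h0 h2 hr (t := v - ⌊v⌋ - 1/2)).2
  have h4 := (abs_le.1 e).2
  unfold sg
  constructor <;> linarith

lemma sg_lip_v (v v' : ℝ) : |sg b r v - sg b r v'| ≤ |v - v'| / (2 * b) := by
  have hb : 0 < 2 * b := by linarith
  have hb1 : 2 * b ≤ 1 := by linarith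
  have key : ∀ v v' : ℝ, v ≤ v' → |sg b r v - sg b r v'| ≤ |v - v'| / (2 * b) := by
    intro v v' hv
    have hfl : ⌊v⌋ ≤ ⌊v'⌋ := Int.floor_mono hv
    rcases hfl.eq_or_lt with he | hlt
    · have e := S1_lip h0 h2 (t := v - ⌊v⌋ - 1/2) (t' := v' - ⌊v'⌋ - 1/2) hr hr
      rw [sub_self, abs_zero, mul_zero, add_zero, he,
        show v - ⌊v'⌋ - 1/2 - (v' - ⌊v'⌋ - 1/2) = v - v' by ring] at e
      unfold sg
      rw [he, show (⌊v'⌋ : ℝ) + 1/2 + S1 b r (v - ⌊v'⌋ - 1/2) - (⌊v'⌋ + 1/2 + S1 b r (v' - ⌊v'⌋ - 1/2))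
        = S1 b r (v - ⌊v'⌋ - 1/2) - S1 b r (v' - ⌊v'⌋ - 1/2) by ring]
      exact e
    · obtain ⟨a1, a2⟩ := sg_sub_floor h0 h2 hr v'
      obtain ⟨c1, c2⟩ := ceil_sub_sg h0 h2 hr v
      have hk : ((⌊v⌋ : ℝ) + 1) ≤ ⌊v'⌋ := by exact_mod_cast hlt
      have hz : (⌊v'⌋ : ℝ) - (⌊v⌋ + 1) ≤ (⌊v'⌋ - (⌊v⌋ + 1)) / (2 * b) := by
        rw [le_div_iff₀ hb]; nlinarith
      rw [abs_sub_comm, abs_of_nonneg (by linarith), abs_sub_comm v v', abs_of_nonneg (by linarith)]
      calc sg b r v' - sg b r v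
          = (sg b r v' - ⌊v'⌋) + (⌊v'⌋ - (⌊v⌋ + 1)) + (⌊v⌋ + 1 - sg b r v) := by ring
        _ ≤ (v' - ⌊v'⌋) / (2 * b) + (⌊v'⌋ - (⌊v⌋ + 1)) / (2 * b) + (⌊v⌋ + 1 - v) / (2 * b) := by
            linarith
        _ = (v' - v) / (2 * b) := by ring
  rcases le_total v v' with h | h
  · exact key v v' h
  · rw [abs_sub_comm, abs_sub_comm v v']; exact key v' v h

end sg

lemma sg_lip {b r r' : ℝ} (h0 : 0 < b) (h2 : b < 1/2) (hr : r ∈ Icc (0:ℝ) 1)
    (hr' : r' ∈ Icc (0:ℝ) 1) (v v' : ℝ) :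
    |sg b r v - sg b r' v'| ≤ (|v - v'| + (1/2 - b) * |r - r'|) / (2 * b) := by
  have e1 := sg_lip_v h0 h2 hr' v v'
  have e2 := S1_lip h0 h2 (t := v - ⌊v⌋ - 1/2) (t' := v - ⌊v⌋ - 1/2) hr hr'
  rw [sub_self, abs_zero, zero_add] at e2
  have e3 : |sg b r v - sg b r' v| ≤ ((1/2 - b) * |r - r'|) / (2 * b) := by
    unfold sg
    rw [show (⌊v⌋ : ℝ) + 1/2 + S1 b r (v - ⌊v⌋ - 1/2) - (⌊v⌋ + 1/2 + S1 b r' (v - ⌊v⌋ - 1/2))
        = S1 b r (v - ⌊v⌋ - 1/2) - S1 b r' (v - ⌊v⌋ - 1/2) by ring]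
    exact e2
  calc |sg b r v - sg b r' v'| ≤ |sg b r v - sg b r' v| + |sg b r' v - sg b r' v'| :=
        abs_sub_le _ _ _
    _ ≤ ((1/2 - b) * |r - r'|) / (2 * b) + |v - v'| / (2 * b) := add_le_add e3 e1
    _ = _ := by ring

section sqI

variable {E : Type*} [NormedAddCommGroup E] [NormedSpace ℝ E] {κ : Type*}

/-- **the level function of `sqI`** -/
theorem sqI_sg {g : Gd E κ} {b : ℝ} {Z : Set E} (h : g.Is Z) (h0 : 0 < b) (h2 : b < 1/2) (a : κ)
    {z : E × ℝ} (hz : z.1 ∈ Z) (hr : z.2 ∈ Icc (0:ℝ) 1) :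
    (sqI g b).G a z = sg b z.2 (g.G a z.1) := by
  by_cases hB : z.1 ∈ g.B a
  · obtain ⟨k, hk⟩ := mem_Zs.1 (h.li a z.1 hz hB)
    have hab := h.ab a z.1 hz hB
    rw [hk] at hab
    have h3 : (-1/2 : ℝ) ≤ g.G a z.1 - k - 1/2 := hab.1
    have h4 : g.G a z.1 - k - 1/2 ≤ 1/2 := hab.2
    rw [sqI_G_mem hB, hk, sg_band h0 h2 hr (k := k) (by linarith) (by linarith)]
  · rw [sqI_G_notMem hB]
    have h1 : g.G a z.1 ∈ Zs := by
      by_contra hc
      exact hB (h.nB _ z.1 hz hc)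
    obtain ⟨k, hk⟩ := mem_Zs.1 h1
    rw [hk, sg_int h0 h2 hr]

end sqI

/-! ### the chart of the shell of an affine cube -/

section chart

variable {E : Type*} [NormedAddCommGroup E] [NormedSpace ℝ E] [FiniteDimensional ℝ E]
variable {n : ℕ} (N : E ≃ᵃ[ℝ] (Fin n → ℝ)) {ε : ℝ}

/-- the shell -/
def shN (N : E ≃ᵃ[ℝ] (Fin n → ℝ)) (ε : ℝ) : Set E := N ⁻¹' Shl n ε
/-- the outer boundary -/
def bdN (N : E ≃ᵃ[ℝ] (Fin n → ℝ)) : Set E := N ⁻¹' sph n
/-- the inner boundary -/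
def inN (N : E ≃ᵃ[ℝ] (Fin n → ℝ)) (ε : ℝ) : Set E := N ⁻¹' sphere 0 (1 - ε)

lemma cont_N : Continuous N := N.toAffineMap.continuous_of_finiteDimensional

lemma isClosed_shN : IsClosed (shN N ε) :=
  IsClosed.preimage (cont_N N) ((isClosed_le continuous_const continuous_norm).inter
    (isClosed_le continuous_norm continuous_const))

lemma isClosed_bdN : IsClosed (bdN N) := IsClosed.preimage (cont_N N) isClosed_sphere

lemma isClosed_inN : IsClosed (inN N ε) := IsClosed.preimage (cont_N N) isClosed_sphere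

lemma mem_bdN {x : E} : x ∈ bdN N ↔ ‖N x‖ = 1 := mem_sphere_zero_iff_norm
lemma mem_inN {x : E} : x ∈ inN N ε ↔ ‖N x‖ = 1 - ε := mem_sphere_zero_iff_norm

lemma pl_N {V : Type*} [NormedAddCommGroup V] [NormedSpace ℝ V] {f : V → E} {K : Set V}
    (hf : PLOn f K) : PLOn (fun x => N (f x)) K :=
  (plOn_affine N.toAffineMap univ).comp hf (mapsTo_univ _ _)

lemma pl_Ns {V : Type*} [NormedAddCommGroup V] [NormedSpace ℝ V] {f : V → Fin n → ℝ} {K : Set V}
    (hf : PLOn f K) : PLOn (fun x => N.symm (f x)) K :=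
  (plOn_affine N.symm.toAffineMap univ).comp hf (mapsTo_univ _ _)

variable (he : 0 < ε) (he1 : ε < 1)

/-- **the PL collar chart** -/
noncomputable def colE : PLEquiv (shN N ε) (bdN N ×ˢ Icc (0:ℝ) 1) where
  f x := (N.symm (cF ε (N x)).1, (cF ε (N x)).2)
  g z := N.symm (cG ε (N z.1, z.2))
  pf := by
    have h := (cubeC n he he1).pf.comp (pl_N N (plOn_id (shN N ε))) (fun x hx => hx)
    exact pl_pair (pl_Ns N (pl_fst h)) (pl_snd h)
  pg := by
    have h : PLOn (fun z : E × ℝ => (N z.1, z.2)) (bdN N ×ˢ Icc (0:ℝ) 1) :=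
      pl_pair (pl_N N (pl_fst (plOn_id _))) (pl_snd (plOn_id _))
    exact pl_Ns N ((cubeC n he he1).pg.comp h (fun z hz => ⟨hz.1, hz.2⟩))
  mf x hx := by
    have h := (cubeC n he he1).mf hx
    refine ⟨?_, h.2⟩
    show N (N.symm (cF ε (N x)).1) ∈ sph n
    rw [AffineEquiv.apply_symm_apply]
    exact h.1
  mg z hz := by
    have h := (cubeC n he he1).mg (show (N z.1, z.2) ∈ sph n ×ˢ Icc (0:ℝ) 1 from ⟨hz.1, hz.2⟩)
    show N (N.symm (cG ε (N z.1, z.2))) ∈ Shl n ε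
    rw [AffineEquiv.apply_symm_apply]
    exact h
  li x hx := by
    show N.symm (cG ε (N (N.symm (cF ε (N x)).1), (cF ε (N x)).2)) = x
    rw [AffineEquiv.apply_symm_apply]
    have h := (cubeC n he he1).li (N x) hx
    have h' : cG ε (cF ε (N x)) = N x := h
    rw [Prod.mk.eta, h', AffineEquiv.symm_apply_apply]
  ri z hz := by
    have h := (cubeC n he he1).ri (N z.1, z.2) ⟨hz.1, hz.2⟩
    have h' : cF ε (cG ε (N z.1, z.2)) = (N z.1, z.2) := h
    show (N.symm (cF ε (N (N.symm (cG ε (N z.1, z.2))))).1,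
      (cF ε (N (N.symm (cG ε (N z.1, z.2))))).2) = z
    rw [AffineEquiv.apply_symm_apply, h']
    simp only [AffineEquiv.symm_apply_apply]

lemma colE_outer {x : E} (hx : x ∈ bdN N) : (colE N he he1).f x = (x, 1) := by
  show (N.symm (cF ε (N x)).1, (cF ε (N x)).2) = (x, 1)
  rw [cF_outer ε he ((mem_bdN N).1 hx)]
  simp only [AffineEquiv.symm_apply_apply]

lemma colE_g_outer (z : E) : (colE N he he1).g (z, 1) = z := by
  show N.symm (cG ε (N z, 1)) = z
  rw [cG_outer, AffineEquiv.symm_apply_apply]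

/-- the homothety of the inner boundary -/
noncomputable def homE : PLEquiv (inN N ε) (bdN N) where
  f x := N.symm ((1 - ε)⁻¹ • N x)
  g z := N.symm ((1 - ε) • N z)
  pf := pl_Ns N (pl_smul _ (pl_N N (plOn_id _)))
  pg := pl_Ns N (pl_smul _ (pl_N N (plOn_id _)))
  mf x hx := by
    rw [mem_bdN, AffineEquiv.apply_symm_apply, norm_smul, (mem_inN N).1 hx, norm_inv,
      Real.norm_of_nonneg (by linarith : (0:ℝ) ≤ 1 - ε)]
    exact inv_mul_cancel₀ (by linarith)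
  mg z hz := by
    rw [mem_inN, AffineEquiv.apply_symm_apply, norm_smul, (mem_bdN N).1 hz,
      Real.norm_of_nonneg (by linarith : (0:ℝ) ≤ 1 - ε), mul_one]
  li x _ := by
    rw [AffineEquiv.apply_symm_apply, smul_smul, mul_inv_cancel₀ (by linarith), one_smul,
      AffineEquiv.symm_apply_apply]
  ri z _ := by
    rw [AffineEquiv.apply_symm_apply, smul_smul, inv_mul_cancel₀ (by linarith), one_smul,
      AffineEquiv.symm_apply_apply]

lemma colE_inner {x : E} (hx : x ∈ inN N ε) :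
    (colE N he he1).f x = ((homE N he1).f x, 0) := by
  show (N.symm (cF ε (N x)).1, (cF ε (N x)).2) = (N.symm ((1 - ε)⁻¹ • N x), 0)
  rw [cF_inner he he1 ((mem_inN N).1 hx)]

lemma colE_g_inner {z : E} (hz : z ∈ bdN N) :
    (colE N he he1).g (z, 0) = (homE N he1).g z := by
  show N.symm (cG ε (N z, 0)) = N.symm ((1 - ε) • N z)
  rw [cG_inner he ((mem_bdN N).1 hz)]

lemma inN_sub (he : 0 < ε) : inN N ε ⊆ shN N ε := fun x hx => by
  have h := (mem_inN N).1 hx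
  exact ⟨h.ge, by rw [h]; linarith⟩

lemma bdN_sub (he : 0 < ε) : bdN N ⊆ shN N ε := fun x hx => by
  have h := (mem_bdN N).1 hx
  exact ⟨by rw [h]; linarith, h.le⟩

/-- Lipschitz bounds of the chart in the coordinates `N` -/
lemma colE_lip (he2 : ε ≤ 1/2) (x x' : E) :
    ‖N ((colE N he he1).f x).1 - N ((colE N he he1).f x').1‖ ≤ 3 * ‖N x - N x'‖ ∧
      |((colE N he he1).f x).2 - ((colE N he he1).f x').2| ≤ ε⁻¹ * ‖N x - N x'‖ := by
  have h := cF_lip he he2 (N x) (N x')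
  refine ⟨?_, h.2⟩
  show ‖N (N.symm (cF ε (N x)).1) - N (N.symm (cF ε (N x')).1)‖ ≤ _
  rw [AffineEquiv.apply_symm_apply, AffineEquiv.apply_symm_apply]
  exact h.1

end chart

/-! ### the band structure of the collar -/

section band

variable {E : Type*} [NormedAddCommGroup E] [NormedSpace ℝ E] [FiniteDimensional ℝ E] {κ : Type*}
variable {n : ℕ} (N : E ≃ᵃ[ℝ] (Fin n → ℝ)) {ε : ℝ} (he : 0 < ε) (he1 : ε < 1)
variable (g : Gd E κ) {b : ℝ}

/-- **the band structure of the collar** -/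
noncomputable def colG (b : ℝ) : Gd E κ := pulg (sqI g b) (colE N he he1).f (colE N he he1).g

variable {g}

theorem colG_is (h : g.Is (bdN N)) (h0 : 0 < b) (h2 : b < 1/2) :
    (colG N he he1 g b).Is (shN N ε) :=
  is_pulg (sqI_is h (isClosed_bdN N) h0 h2) (isClosed_shN N) _

/-- outer boundary: the squeezed structure -/
theorem colG_outer (h0 : 0 < b) (h2 : b < 1/2) :
    (g.sq b).Eqs (colG N he he1 g b) (bdN N) where
  G a z hz := by
    show (sqI g b).G a ((colE N he he1).f z) = _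
    rw [colE_outer N he he1 hz]; exact (sqI_one h0 h2 a z).1
  B a z hz := by
    show (colE N he he1).f z ∈ (sqI g b).B a ↔ _
    rw [colE_outer N he he1 hz]; exact (sqI_one h0 h2 a z).2.1
  lev a z hz _ := by
    show (sqI g b).lev a ((colE N he he1).f z) = _
    rw [colE_outer N he he1 hz]; exact (sqI_one h0 h2 a z).2.2.1
  tr a z hz _ s hs := by
    show (colE N he he1).g ((sqI g b).tr a ((colE N he he1).f z, s)) = _
    rw [colE_outer N he he1 hz, (sqI_one h0 h2 a z).2.2.2 s hs, colE_g_outer]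

/-- inner boundary: the structure itself, transported by the homothety -/
theorem colG_inner (h : g.Is (bdN N)) (h0 : 0 < b) (h2 : b < 1/2) :
    (pulg g (homE N he1).f (homE N he1).g).Eqs (colG N he he1 g b) (inN N ε) where
  G a z hz := by
    show (sqI g b).G a ((colE N he he1).f z) = g.G a ((homE N he1).f z)
    rw [colE_inner N he he1 hz]
    exact (sqI_zero h h0 h2 a ((homE N he1).mf hz)).1
  B a z hz := by
    show (colE N he he1).f z ∈ (sqI g b).B a ↔ (homE N he1).f z ∈ g.B a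
    rw [colE_inner N he he1 hz]
    exact (sqI_zero h h0 h2 a ((homE N he1).mf hz)).2.1
  lev a z hz _ := by
    show (sqI g b).lev a ((colE N he he1).f z) = g.lev a ((homE N he1).f z)
    rw [colE_inner N he he1 hz]
    exact (sqI_zero h h0 h2 a ((homE N he1).mf hz)).2.2.1
  tr a z hz hB s hs := by
    have hB' : (homE N he1).f z ∈ g.B a := hB
    show (colE N he he1).g ((sqI g b).tr a ((colE N he he1).f z, s)) =
      (homE N he1).g (g.tr a ((homE N he1).f z, s))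
    rw [colE_inner N he he1 hz,
      (sqI_zero h h0 h2 a ((homE N he1).mf hz)).2.2.2 s hs,
      colE_g_inner N he he1 (h.tZ a _ ((homE N he1).mf hz) hB' s hs)]

/-- the mid levels are products -/
theorem colG_mid (h0 : 0 < b) (h2 : b < 1/2) {a : κ} {x : E} (hx : x ∈ shN N ε)
    (hB : ((colE N he he1).f x).1 ∈ g.B a) :
    (colG N he he1 g b).G a x = g.lev a ((colE N he he1).f x).1 + 1/2 ↔
      g.G a ((colE N he he1).f x).1 = g.lev a ((colE N he he1).f x).1 + 1/2 :=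
  sqI_mid h0 h2 ((colE N he he1).mf hx).2 hB

/-- the level function of the collar -/
theorem colG_sg (h : g.Is (bdN N)) (h0 : 0 < b) (h2 : b < 1/2) (a : κ) {x : E}
    (hx : x ∈ shN N ε) : (colG N he he1 g b).G a x =
      sg b ((colE N he he1).f x).2 (g.G a ((colE N he he1).f x).1) :=
  sqI_sg h h0 h2 a ((colE N he he1).mf hx).1 ((colE N he he1).mf hx).2

/-- **Lipschitz estimate of the levels on the collar** (`z x` = first component of the chart, which is
3-Lipschitz in the coordinates `N` by `colE_lip`) -/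
theorem colG_lip (h : g.Is (bdN N)) (h0 : 0 < b) (h2 : b < 1/2) (he2 : ε ≤ 1/2) (a : κ) {x x' : E}
    (hx : x ∈ shN N ε) (hx' : x' ∈ shN N ε) :
    |(colG N he he1 g b).G a x - (colG N he he1 g b).G a x'| ≤
      (|g.G a ((colE N he he1).f x).1 - g.G a ((colE N he he1).f x').1| +
        (1/2 - b) * (ε⁻¹ * ‖N x - N x'‖)) / (2 * b) := by
  have hb : 0 < 2 * b := by linarith
  rw [colG_sg N he he1 h h0 h2 a hx, colG_sg N he he1 h h0 h2 a hx']
  refine (sg_lip h0 h2 ((colE N he he1).mf hx).2 ((colE N he he1).mf hx').2 _ _).trans ?_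
  refine div_le_div_of_nonneg_right ?_ hb.le
  have h3 := (colE_lip N he he1 he2 x x').2
  have h4 : (0:ℝ) ≤ 1/2 - b := by linarith
  have h5 := mul_le_mul_of_nonneg_left h3 h4
  linarith

end band

end Crest.Agent.R096.Kbc_315
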