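import Crest.Agent.R096.FpDefs_812

/-!
# Row 96, P5-FINEFAN (helper161): the fine Kuhn fan on the boundary of the cube, part 1

Lattice points of `[-N, N]³`, Kuhn cells of the boundary, uniqueness of the coordinates by the
quadratic function `G(p) = Σ p_i² + Σ (p_i - p_j)²` (every Kuhn cell is the zero set of
`G - affine ≥ 0`, a sum of six terms `t (t - 1)`).
-/

set_option autoImplicit false

open Module Finset

namespace Crest.Agent.R096.Kf_161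

open Crest.Agent.R096.Fp_812

/-- `ℝ³` -/
abbrev E3 : Type := EuclideanSpace ℝ (Fin 3)

/-- lattice points of the cube `[-N, N]³` -/
abbrev LP (N : ℕ) : Type := Fin 3 → (Finset.Icc (-(N : ℤ)) N)

/-- integer coordinates -/
def co {N : ℕ} (p : LP N) (i : Fin 3) : ℤ := (p i : ℤ)

theorem co_le {N : ℕ} (p : LP N) (i : Fin 3) : |co p i| ≤ N := by
  have h := (p i).2
  rw [Finset.mem_Icc] at h
  exact abs_le.2 h

theorem co_inj {N : ℕ} {p q : LP N} (h : ∀ i, co p i = co q i) : p = q :=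
  funext fun i => Subtype.ext (h i)

/-- the generator `p / N` -/
noncomputable def gen {N : ℕ} (p : LP N) : E3 := WithLp.toLp 2 fun i => (co p i : ℝ) / N

theorem gen_apply {N : ℕ} (p : LP N) (i : Fin 3) : gen p i = (co p i : ℝ) / N := rfl

/-- Kuhn triangle `p, p + e_{σ 0}, p + e_{σ 0} + e_{σ 1}` in the face `|x_{σ 2}| = N` -/
structure Tri {N : ℕ} (σ : Equiv.Perm (Fin 3)) (p q r : LP N) : Prop where
  face : |co p (σ 2)| = N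
  q0 : co q (σ 0) = co p (σ 0) + 1
  q1 : co q (σ 1) = co p (σ 1)
  q2 : co q (σ 2) = co p (σ 2)
  r0 : co r (σ 0) = co p (σ 0) + 1
  r1 : co r (σ 1) = co p (σ 1) + 1
  r2 : co r (σ 2) = co p (σ 2)

/-- cells -/
def IsCell {N : ℕ} (c : Finset (LP N)) : Prop :=
  ∃ (σ : Equiv.Perm (Fin 3)) (p q r : LP N), Tri σ p q r ∧ c = {p, q, r}

theorem Tri.pq {N : ℕ} {σ : Equiv.Perm (Fin 3)} {p q r : LP N} (h : Tri σ p q r) : p ≠ q := by
  rintro rfl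
  have := h.q0
  omega

theorem Tri.pr {N : ℕ} {σ : Equiv.Perm (Fin 3)} {p q r : LP N} (h : Tri σ p q r) : p ≠ r := by
  rintro rfl
  have := h.r0
  omega

theorem Tri.qr {N : ℕ} {σ : Equiv.Perm (Fin 3)} {p q r : LP N} (h : Tri σ p q r) : q ≠ r := by
  rintro rfl
  have := h.r1
  have := h.q1
  omega

theorem IsCell.card {N : ℕ} {c : Finset (LP N)} (h : IsCell c) : c.card = 3 := by
  obtain ⟨σ, p, q, r, ht, rfl⟩ := h
  rw [Finset.card_eq_three]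
  exact ⟨p, q, r, ht.pq, ht.pr, ht.qr, rfl⟩

/-! ### the test function -/

/-- `t (t - 1)` -/
def tt (t : ℤ) : ℤ := t * (t - 1)

theorem tt_nonneg (t : ℤ) : 0 ≤ tt t := by
  unfold tt
  rcases le_or_gt t 0 with h | h
  · nlinarith
  · have : 1 ≤ t := h
    nlinarith

theorem tt_eq_zero {t : ℤ} (h : tt t = 0) : t = 0 ∨ t = 1 := by
  unfold tt at h
  rcases mul_eq_zero.1 h with h | h
  · exact Or.inl h
  · exact Or.inr (by omega)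

/-- the test function of a cell with base point `b` (integer coordinates) and order `σ` -/
def Hf (σ : Equiv.Perm (Fin 3)) (b x : Fin 3 → ℤ) : ℤ :=
  tt (x (σ 0) - b (σ 0)) + tt (x (σ 1) - b (σ 1)) + tt (x (σ 2) - b (σ 2))
    + tt ((x (σ 0) - b (σ 0)) - (x (σ 1) - b (σ 1)))
    + tt ((x (σ 0) - b (σ 0)) - (x (σ 2) - b (σ 2)))
    + tt ((x (σ 1) - b (σ 1)) - (x (σ 2) - b (σ 2)))

/-- the quadratic function -/
def Gq (x : Fin 3 → ℤ) : ℤ :=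
  4 * (x 0 ^ 2 + x 1 ^ 2 + x 2 ^ 2) - (x 0 + x 1 + x 2) ^ 2

theorem sum_perm (σ : Equiv.Perm (Fin 3)) (f : Fin 3 → ℤ) :
    f (σ 0) + f (σ 1) + f (σ 2) = f 0 + f 1 + f 2 := by
  have h1 := Equiv.sum_comp σ f
  simp only [Fin.sum_univ_three] at h1
  exact h1

theorem Gq_perm (σ : Equiv.Perm (Fin 3)) (x : Fin 3 → ℤ) :
    Gq x = 4 * (x (σ 0) ^ 2 + x (σ 1) ^ 2 + x (σ 2) ^ 2) - (x (σ 0) + x (σ 1) + x (σ 2)) ^ 2 := by
  have h1 := sum_perm σ x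
  have h2 := sum_perm σ (fun i => x i ^ 2)
  rw [h1, h2]
  rfl

/-- `Hf = Gq - affine` -/
theorem Hf_eq (σ : Equiv.Perm (Fin 3)) (b : Fin 3 → ℤ) :
    ∃ c0 c1 c2 c3 : ℤ, (∀ x : Fin 3 → ℤ, Hf σ b x = Gq x + c0 + c1 * x (σ 0) + c2 * x (σ 1)
      + c3 * x (σ 2)) := by
  refine ⟨Gq b + (3 * b (σ 0) + b (σ 1) - b (σ 2)),
    -(6 * b (σ 0) - 2 * b (σ 1) - 2 * b (σ 2)) - 3,
    -(6 * b (σ 1) - 2 * b (σ 0) - 2 * b (σ 2)) - 1,
    -(6 * b (σ 2) - 2 * b (σ 0) - 2 * b (σ 1)) + 1, fun x => ?_⟩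
  rw [Gq_perm σ x, Gq_perm σ b]
  unfold Hf tt
  ring

theorem Hf_nonneg (σ : Equiv.Perm (Fin 3)) (b x : Fin 3 → ℤ) : 0 ≤ Hf σ b x := by
  unfold Hf
  have h1 := tt_nonneg (x (σ 0) - b (σ 0))
  have h2 := tt_nonneg (x (σ 1) - b (σ 1))
  have h3 := tt_nonneg (x (σ 2) - b (σ 2))
  have h4 := tt_nonneg ((x (σ 0) - b (σ 0)) - (x (σ 1) - b (σ 1)))
  have h5 := tt_nonneg ((x (σ 0) - b (σ 0)) - (x (σ 2) - b (σ 2)))
  have h6 := tt_nonneg ((x (σ 1) - b (σ 1)) - (x (σ 2) - b (σ 2)))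
  omega

/-- the differences where `Hf` vanishes: `1 ≥ t0 ≥ t1 ≥ t2 ≥ 0` -/
theorem Hf_zero {σ : Equiv.Perm (Fin 3)} {b x : Fin 3 → ℤ} (h : Hf σ b x = 0) :
    (x (σ 0) - b (σ 0) = 0 ∧ x (σ 1) - b (σ 1) = 0 ∧ x (σ 2) - b (σ 2) = 0) ∨
    (x (σ 0) - b (σ 0) = 1 ∧ x (σ 1) - b (σ 1) = 0 ∧ x (σ 2) - b (σ 2) = 0) ∨
    (x (σ 0) - b (σ 0) = 1 ∧ x (σ 1) - b (σ 1) = 1 ∧ x (σ 2) - b (σ 2) = 0) ∨
    (x (σ 0) - b (σ 0) = 1 ∧ x (σ 1) - b (σ 1) = 1 ∧ x (σ 2) - b (σ 2) = 1) := by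
  unfold Hf at h
  have h1 := tt_nonneg (x (σ 0) - b (σ 0))
  have h2 := tt_nonneg (x (σ 1) - b (σ 1))
  have h3 := tt_nonneg (x (σ 2) - b (σ 2))
  have h4 := tt_nonneg ((x (σ 0) - b (σ 0)) - (x (σ 1) - b (σ 1)))
  have h5 := tt_nonneg ((x (σ 0) - b (σ 0)) - (x (σ 2) - b (σ 2)))
  have h6 := tt_nonneg ((x (σ 1) - b (σ 1)) - (x (σ 2) - b (σ 2)))
  have g1 := tt_eq_zero (t := x (σ 0) - b (σ 0)) (by omega)
  have g2 := tt_eq_zero (t := x (σ 1) - b (σ 1)) (by omega)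
  have g3 := tt_eq_zero (t := x (σ 2) - b (σ 2)) (by omega)
  have g4 := tt_eq_zero (t := (x (σ 0) - b (σ 0)) - (x (σ 1) - b (σ 1))) (by omega)
  have g5 := tt_eq_zero (t := (x (σ 0) - b (σ 0)) - (x (σ 2) - b (σ 2))) (by omega)
  have g6 := tt_eq_zero (t := (x (σ 1) - b (σ 1)) - (x (σ 2) - b (σ 2))) (by omega)
  omega

theorem Tri.Hf_p {N : ℕ} {σ : Equiv.Perm (Fin 3)} {p q r : LP N} (_h : Tri σ p q r) :
    Hf σ (co p) (co p) = 0 := by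
  unfold Hf tt
  simp

theorem Tri.Hf_q {N : ℕ} {σ : Equiv.Perm (Fin 3)} {p q r : LP N} (h : Tri σ p q r) :
    Hf σ (co p) (co q) = 0 := by
  unfold Hf tt
  rw [h.q0, h.q1, h.q2]
  ring

theorem Tri.Hf_r {N : ℕ} {σ : Equiv.Perm (Fin 3)} {p q r : LP N} (h : Tri σ p q r) :
    Hf σ (co p) (co r) = 0 := by
  unfold Hf tt
  rw [h.r0, h.r1, h.r2]
  ring

end Crest.Agent.R096.Kf_161
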