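import Crest.Agent.R096.Kf1_161

/-!
# Row 96, P5-FINEFAN (helper161): the fine Kuhn fan, part 2: uniqueness and existence
-/

set_option autoImplicit false

open Module Finset

namespace Crest.Agent.R096.Kf_161

open Crest.Agent.R096.Fp_812

variable {N : ℕ}

theorem exists_sig (σ : Equiv.Perm (Fin 3)) (l : Fin 3) : l = σ 0 ∨ l = σ 1 ∨ l = σ 2 := by
  obtain ⟨m, rfl⟩ := σ.surjective l
  fin_cases m
  · exact Or.inl rfl
  · exact Or.inr (Or.inl rfl)
  · exact Or.inr (Or.inr rfl)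

theorem sig01 (σ : Equiv.Perm (Fin 3)) : σ 0 ≠ σ 1 := fun h => by
  have := σ.injective h
  exact absurd this (by decide)

theorem sig02 (σ : Equiv.Perm (Fin 3)) : σ 0 ≠ σ 2 := fun h => by
  have := σ.injective h
  exact absurd this (by decide)

theorem sig12 (σ : Equiv.Perm (Fin 3)) : σ 1 ≠ σ 2 := fun h => by
  have := σ.injective h
  exact absurd this (by decide)

/-- coordinates of a represented point -/
theorem rep_apply {c : Finset (LP N)} {a : LP N → ℝ} {x : E3} (h : Rep gen c a x) (l : Fin 3) :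
    ∑ v, a v * ((co v l : ℝ) / N) = x l := by
  rw [← h.sum]
  simp [gen_apply]

theorem sum_tri {σ : Equiv.Perm (Fin 3)} {p q r : LP N} (ht : Tri σ p q r) {a : LP N → ℝ}
    (hoff : ∀ i, i ∉ ({p, q, r} : Finset (LP N)) → a i = 0) (f : LP N → ℝ) :
    ∑ v, a v * f v = a p * f p + a q * f q + a r * f r := by
  rw [← Finset.sum_subset (Finset.subset_univ ({p, q, r} : Finset (LP N)))]
  · rw [Finset.sum_insert (by simp [ht.pq, ht.pr]), Finset.sum_insert (by simp [ht.qr]),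
      Finset.sum_singleton]
    ring
  · intro v _ hv
    rw [hoff v hv, zero_mul]

/-- the total weight is the sup norm: first half -/
theorem abs_face (hN : 0 < N) {σ : Equiv.Perm (Fin 3)} {p q r : LP N} (ht : Tri σ p q r)
    {a : LP N → ℝ} {x : E3} (h : Rep gen {p, q, r} a x) : |x (σ 2)| = ∑ v, a v := by
  have hN' : (N : ℝ) ≠ 0 := by positivity
  have h1 := rep_apply h (σ 2)
  rw [sum_tri ht h.off] at h1
  have h2 := sum_tri ht h.off (fun _ => 1)
  simp only [mul_one] at h2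
  rw [h2, ← h1, ht.q2, ht.r2]
  have h3 : |(co p (σ 2) : ℝ) / N| = 1 := by
    rw [abs_div, Nat.abs_cast, div_eq_one_iff_eq hN']
    have := ht.face
    exact_mod_cast this
  have e : a p * ((co p (σ 2) : ℝ) / N) + a q * ((co p (σ 2) : ℝ) / N)
      + a r * ((co p (σ 2) : ℝ) / N) = (a p + a q + a r) * ((co p (σ 2) : ℝ) / N) := by ring
  rw [e, abs_mul, h3, mul_one, abs_of_nonneg]
  have := h.nonneg p
  have := h.nonneg q
  have := h.nonneg r
  positivity

theorem abs_le_sum (hN : 0 < N) {c : Finset (LP N)} {a : LP N → ℝ} {x : E3}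
    (h : Rep gen c a x) (l : Fin 3) : |x l| ≤ ∑ v, a v := by
  rw [← rep_apply h l]
  refine (Finset.abs_sum_le_sum_abs _ _).trans (Finset.sum_le_sum fun v _ => ?_)
  rw [abs_mul, abs_of_nonneg (h.nonneg v)]
  have h3 : |(co v l : ℝ) / N| ≤ 1 := by
    rw [abs_div, Nat.abs_cast, div_le_one (by positivity)]
    have := co_le v l
    exact_mod_cast this
  exact mul_le_of_le_one_right (h.nonneg v) h3

/-- the weighted sum of the test function -/
theorem sum_Hf (hN : 0 < N) (σ : Equiv.Perm (Fin 3)) (b : Fin 3 → ℤ) {c c' : Finset (LP N)}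
    {a a' : LP N → ℝ} {x : E3} (h : Rep gen c a x) (h' : Rep gen c' a' x)
    (hs : ∑ v, a v = ∑ v, a' v) :
    ∑ v, a v * (Hf σ b (co v) : ℝ) - ∑ v, a' v * (Hf σ b (co v) : ℝ)
      = ∑ v, a v * (Gq (co v) : ℝ) - ∑ v, a' v * (Gq (co v) : ℝ) := by
  have hN' : (N : ℝ) ≠ 0 := by positivity
  obtain ⟨c0, c1, c2, c3, hc⟩ := Hf_eq σ b
  have key : ∀ (a : LP N → ℝ) (c : Finset (LP N)), Rep gen c a x →
      ∑ v, a v * (Hf σ b (co v) : ℝ) = ∑ v, a v * (Gq (co v) : ℝ) + c0 * ∑ v, a v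
        + c1 * (N * x (σ 0)) + c2 * (N * x (σ 1)) + c3 * (N * x (σ 2)) := by
    intro a c h
    rw [← rep_apply h (σ 0), ← rep_apply h (σ 1), ← rep_apply h (σ 2)]
    simp only [Finset.mul_sum, ← Finset.sum_add_distrib]
    refine Finset.sum_congr rfl fun v _ => ?_
    rw [hc]
    push_cast
    field_simp
  rw [key a c h, key a' c' h', hs]
  ring

theorem eq_zero_of_ind {b ψ : LP N → ℝ} {v : LP N} (h0 : ∑ p, b p * ψ p = 0) (hv : ψ v = 1)
    (h : ∀ p, p ≠ v → b p ≠ 0 → ψ p = 0) : b v = 0 := by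
  rw [Finset.sum_eq_single v] at h0
  · rwa [hv, mul_one] at h0
  · intro p _ hp
    by_cases hb : b p = 0
    · rw [hb, zero_mul]
    · rw [h p hp hb, mul_zero]
  · intro hh
    exact absurd (Finset.mem_univ _) hh

theorem uniq (hN : 0 < N) {c c' : Finset (LP N)} (hc : IsCell c) (hc' : IsCell c')
    {a a' : LP N → ℝ} {x : E3} (h : Rep gen c a x) (h' : Rep gen c' a' x) : a = a' := by
  obtain ⟨σ, p, q, r, ht, rfl⟩ := hc
  obtain ⟨σ', p', q', r', ht', rfl⟩ := hc'
  have hN' : (N : ℝ) ≠ 0 := by positivity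
  -- total weights
  have hs : ∑ v, a v = ∑ v, a' v := by
    refine le_antisymm ?_ ?_
    · rw [← abs_face hN ht h]; exact abs_le_sum hN h' _
    · rw [← abs_face hN ht' h']; exact abs_le_sum hN h _
  -- the test functions
  have e1 := sum_Hf hN σ (co p) h h' hs
  have e2 := sum_Hf hN σ' (co p') h h' hs
  have e3 : ∑ v, a v * (Hf σ (co p) (co v) : ℝ) = 0 := by
    rw [sum_tri ht h.off, ht.Hf_p, ht.Hf_q, ht.Hf_r]
    simp
  have e4 : ∑ v, a' v * (Hf σ' (co p') (co v) : ℝ) = 0 := by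
    rw [sum_tri ht' h'.off, ht'.Hf_p, ht'.Hf_q, ht'.Hf_r]
    simp
  have n1 : ∀ v, 0 ≤ a' v * (Hf σ (co p) (co v) : ℝ) := fun v =>
    mul_nonneg (h'.nonneg v) (by exact_mod_cast Hf_nonneg _ _ _)
  have n2 : ∀ v, 0 ≤ a v * (Hf σ' (co p') (co v) : ℝ) := fun v =>
    mul_nonneg (h.nonneg v) (by exact_mod_cast Hf_nonneg _ _ _)
  have s1 : 0 ≤ ∑ v, a' v * (Hf σ (co p) (co v) : ℝ) := Finset.sum_nonneg fun v _ => n1 v
  have s2 : 0 ≤ ∑ v, a v * (Hf σ' (co p') (co v) : ℝ) := Finset.sum_nonneg fun v _ => n2 v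
  have e5 : ∑ v, a' v * (Hf σ (co p) (co v) : ℝ) = 0 := by linarith
  rw [Finset.sum_eq_zero_iff_of_nonneg fun v _ => n1 v] at e5
  -- support of the difference
  have hsup : ∀ v, a v - a' v ≠ 0 → Hf σ (co p) (co v) = 0 := by
    intro v hv
    by_cases h1 : v ∈ ({p, q, r} : Finset (LP N))
    · simp only [Finset.mem_insert, Finset.mem_singleton] at h1
      rcases h1 with rfl | rfl | rfl
      · exact ht.Hf_p
      · exact ht.Hf_q
      · exact ht.Hf_r
    · rw [h.off v h1, zero_sub, neg_ne_zero] at hv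
      have := e5 v (Finset.mem_univ _)
      rcases mul_eq_zero.1 this with h2 | h2
      · exact absurd h2 hv
      · exact_mod_cast h2
  -- moments of the difference
  have m0 : ∑ v, (a v - a' v) = 0 := by rw [Finset.sum_sub_distrib, hs, sub_self]
  have m1 : ∀ l, ∑ v, (a v - a' v) * (co v l : ℝ) = 0 := by
    intro l
    have f1 := rep_apply h l
    have f2 := rep_apply h' l
    have f3 : ∀ a : LP N → ℝ, ∑ v, a v * (co v l : ℝ) = N * ∑ v, a v * ((co v l : ℝ) / N) := by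
      intro a
      rw [Finset.mul_sum]
      refine Finset.sum_congr rfl fun v _ => ?_
      field_simp
    simp only [sub_mul, Finset.sum_sub_distrib]
    rw [f3 a, f3 a', f1, f2, sub_self]
  have mA : ∀ d0 d1 d2 d3 : ℝ, ∑ v, (a v - a' v) * (d0 + d1 * (co v (σ 0) : ℝ)
      + d2 * (co v (σ 1) : ℝ) + d3 * (co v (σ 2) : ℝ)) = 0 := by
    intro d0 d1 d2 d3
    have e : ∀ v, (a v - a' v) * (d0 + d1 * (co v (σ 0) : ℝ)
      + d2 * (co v (σ 1) : ℝ) + d3 * (co v (σ 2) : ℝ)) = d0 * (a v - a' v)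
      + d1 * ((a v - a' v) * (co v (σ 0) : ℝ)) + d2 * ((a v - a' v) * (co v (σ 1) : ℝ))
      + d3 * ((a v - a' v) * (co v (σ 2) : ℝ)) := fun v => by ring
    simp only [e, Finset.sum_add_distrib, ← Finset.mul_sum, m0, m1, mul_zero, add_zero]
  have hext : ∀ v w : LP N, co v (σ 0) = co w (σ 0) → co v (σ 1) = co w (σ 1) →
      co v (σ 2) = co w (σ 2) → v = w := by
    intro v w g0 g1 g2
    refine co_inj fun l => ?_
    rcases exists_sig σ l with rfl | rfl | rfl
    · exact g0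
    · exact g1
    · exact g2
  funext v
  by_contra hne
  have hv0 : a v - a' v ≠ 0 := sub_ne_zero.2 hne
  have hz := Hf_zero (hsup v hv0)
  refine hv0 ?_
  rcases hz with ⟨t0, t1, t2⟩ | ⟨t0, t1, t2⟩ | ⟨t0, t1, t2⟩ | ⟨t0, t1, t2⟩
  · have t0' : (co v (σ 0) : ℝ) - co p (σ 0) = 0 := by exact_mod_cast t0
    refine eq_zero_of_ind (b := fun v => a v - a' v) (mA (1 + co p (σ 0)) (-1) 0 0)
      (by linarith) fun w hw hb => ?_
    have hz' := Hf_zero (hsup w hb)
    have hwt : co w (σ 0) - co p (σ 0) = 1 := by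
      rcases hz' with ⟨g0, g1, g2⟩ | ⟨g0, g1, g2⟩ | ⟨g0, g1, g2⟩ | ⟨g0, g1, g2⟩
      · exact absurd (hext w v (by omega) (by omega) (by omega)) hw
      · exact g0
      · exact g0
      · exact g0
    have : (co w (σ 0) : ℝ) - co p (σ 0) = 1 := by exact_mod_cast hwt
    linarith
  · have t0' : (co v (σ 0) : ℝ) - co p (σ 0) = 1 := by exact_mod_cast t0
    have t1' : (co v (σ 1) : ℝ) - co p (σ 1) = 0 := by exact_mod_cast t1
    refine eq_zero_of_ind (b := fun v => a v - a' v)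
      (mA (co p (σ 1) - co p (σ 0)) 1 (-1) 0) (by linarith) fun w hw hb => ?_
    have hz' := Hf_zero (hsup w hb)
    have hwt : (co w (σ 0) - co p (σ 0)) - (co w (σ 1) - co p (σ 1)) = 0 := by
      rcases hz' with ⟨g0, g1, g2⟩ | ⟨g0, g1, g2⟩ | ⟨g0, g1, g2⟩ | ⟨g0, g1, g2⟩
      · omega
      · exact absurd (hext w v (by omega) (by omega) (by omega)) hw
      · omega
      · omega
    have : ((co w (σ 0) : ℝ) - co p (σ 0)) - ((co w (σ 1) : ℝ) - co p (σ 1)) = 0 := by
      exact_mod_cast hwt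
    linarith
  · have t1' : (co v (σ 1) : ℝ) - co p (σ 1) = 1 := by exact_mod_cast t1
    have t2' : (co v (σ 2) : ℝ) - co p (σ 2) = 0 := by exact_mod_cast t2
    refine eq_zero_of_ind (b := fun v => a v - a' v)
      (mA (co p (σ 2) - co p (σ 1)) 0 1 (-1)) (by linarith) fun w hw hb => ?_
    have hz' := Hf_zero (hsup w hb)
    have hwt : (co w (σ 1) - co p (σ 1)) - (co w (σ 2) - co p (σ 2)) = 0 := by
      rcases hz' with ⟨g0, g1, g2⟩ | ⟨g0, g1, g2⟩ | ⟨g0, g1, g2⟩ | ⟨g0, g1, g2⟩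
      · omega
      · omega
      · exact absurd (hext w v (by omega) (by omega) (by omega)) hw
      · omega
    have : ((co w (σ 1) : ℝ) - co p (σ 1)) - ((co w (σ 2) : ℝ) - co p (σ 2)) = 0 := by
      exact_mod_cast hwt
    linarith
  · have t2' : (co v (σ 2) : ℝ) - co p (σ 2) = 1 := by exact_mod_cast t2
    refine eq_zero_of_ind (b := fun v => a v - a' v)
      (mA (-co p (σ 2)) 0 0 1) (by linarith) fun w hw hb => ?_
    have hz' := Hf_zero (hsup w hb)
    have hwt : co w (σ 2) - co p (σ 2) = 0 := by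
      rcases hz' with ⟨g0, g1, g2⟩ | ⟨g0, g1, g2⟩ | ⟨g0, g1, g2⟩ | ⟨g0, g1, g2⟩
      · omega
      · omega
      · omega
      · exact absurd (hext w v (by omega) (by omega) (by omega)) hw
    have : (co w (σ 2) : ℝ) - co p (σ 2) = 0 := by exact_mod_cast hwt
    linarith

end Crest.Agent.R096.Kf_161
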