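import Crest.Agent.R096.Kf2_161

/-!
# Row 96, P5-FINEFAN (helper161): the fine Kuhn fan, part 3: existence, the fan, shape bounds

`kuhn N hN : Fan (LP N) E3`; `kuhn_cell`: every cell has generators `v₀, v₁, v₂` with
`N (v₁ - v₀) = e_j`, `N (v₂ - v₀) = e_j + e_k`, `|v₀ i| = 1`, `{i, j, k} = {0, 1, 2}`,
norms in `[1, 2]`, distances `≤ 2 / N`, determinant `± 1`, bounded coordinates.
-/

set_option autoImplicit false

open Module Finset

namespace Crest.Agent.R096.Kf_161

open Crest.Agent.R096.Fp_812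

variable {N : ℕ}

/-- a lattice point from integer coordinates -/
theorem exists_lp {f : Fin 3 → ℤ} (h : ∀ l, -(N : ℤ) ≤ f l ∧ f l ≤ N) :
    ∃ p : LP N, ∀ l, co p l = f l :=
  ⟨fun l => ⟨f l, Finset.mem_Icc.2 (h l)⟩, fun _ => rfl⟩

theorem exists_max (x : E3) : ∃ i, ∀ l, |x l| ≤ |x i| := by
  obtain ⟨i, _, hi⟩ := Finset.exists_max_image (Finset.univ : Finset (Fin 3)) (fun l => |x l|)
    ⟨0, Finset.mem_univ _⟩
  exact ⟨i, fun l => hi l (Finset.mem_univ _)⟩

theorem exists_perm (x : E3) (u : Fin 3 → ℝ) : ∃ σ : Equiv.Perm (Fin 3),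
    (∀ l, |x l| ≤ |x (σ 2)|) ∧ u (σ 1) ≤ u (σ 0) := by
  obtain ⟨i, hi⟩ := exists_max x
  rcases le_total (u ((Equiv.swap i 2) 1)) (u ((Equiv.swap i 2) 0)) with h | h
  · exact ⟨Equiv.swap i 2, fun l => by rw [Equiv.swap_apply_right]; exact hi l, h⟩
  · refine ⟨(Equiv.swap 0 1).trans (Equiv.swap i 2), fun l => ?_, ?_⟩
    · have : (Equiv.swap (0 : Fin 3) 1) 2 = 2 := by decide
      rw [Equiv.trans_apply, this, Equiv.swap_apply_right]
      exact hi l
    · rw [Equiv.trans_apply, Equiv.trans_apply, Equiv.swap_apply_left, Equiv.swap_apply_right]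
      exact h

/-- the cell at a point of the unit sphere of the sup norm (scaled by `N`) -/
theorem exists_rep (hN : 0 < N) {x : E3} (hx : x ≠ 0) :
    ∃ c : Finset (LP N), IsCell c ∧ ∃ a, Rep gen c a x := by
  classical
  have hNr : (0 : ℝ) < N := by exact_mod_cast hN
  -- `s` = sup norm
  obtain ⟨i, hi⟩ := exists_max x
  set s : ℝ := |x i| with hs
  have hs0 : 0 < s := by
    rcases (abs_nonneg (x i)).eq_or_lt with h | h
    · exfalso
      refine hx ?_
      ext l
      have := hi l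
      rw [hs, ← h] at this
      simpa using this
    · exact h
  set y : Fin 3 → ℝ := fun l => N * x l / s with hy
  have hyN : ∀ l, -(N : ℝ) ≤ y l ∧ y l ≤ N := by
    intro l
    have h1 := abs_le.1 (hi l)
    constructor
    · rw [hy]; simp only; rw [le_div_iff₀ hs0]; nlinarith
    · rw [hy]; simp only; rw [div_le_iff₀ hs0]; nlinarith
  set P : Fin 3 → ℤ := fun l => min ⌊y l⌋ (N - 1) with hP
  have hPl : ∀ l, -(N : ℤ) ≤ P l := by
    intro l
    refine le_min ?_ (by omega)
    rw [Int.le_floor]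
    push_cast
    exact (hyN l).1
  have hPu : ∀ l, P l + 1 ≤ N := by
    intro l
    have : P l ≤ N - 1 := min_le_right _ _
    omega
  have hu0 : ∀ l, 0 ≤ y l - P l := by
    intro l
    have h1 : (P l : ℝ) ≤ (⌊y l⌋ : ℝ) := by exact_mod_cast min_le_left _ _
    have h2 := Int.floor_le (y l)
    linarith
  have hu1 : ∀ l, y l - P l ≤ 1 := by
    intro l
    rcases min_choice ⌊y l⌋ ((N : ℤ) - 1) with h | h
    · have h1 : P l = ⌊y l⌋ := h
      rw [h1]
      have := Int.lt_floor_add_one (y l)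
      linarith
    · have h1 : P l = (N : ℤ) - 1 := h
      rw [h1]
      push_cast
      linarith [(hyN l).2]
  obtain ⟨σ, hσ, hord⟩ := exists_perm x (fun l => y l - P l)
  have hsσ : |x (σ 2)| = s := le_antisymm (hi _) (hσ i)
  -- sign
  obtain ⟨ε, hε, hyε⟩ : ∃ ε : ℤ, |ε| = N ∧ y (σ 2) = ε := by
    rcases abs_choice (x (σ 2)) with h | h
    · refine ⟨N, by simp, ?_⟩
      rw [hy]
      simp only
      rw [← h, hsσ, mul_div_assoc, div_self hs0.ne', mul_one]
      simp
    · refine ⟨-N, by simp, ?_⟩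
      rw [hy]
      simp only
      have : x (σ 2) = -s := by rw [← hsσ, h, neg_neg]
      rw [this, mul_neg, neg_div, mul_div_assoc, div_self hs0.ne', mul_one]
      simp
  have hεN := abs_le.1 hε.le
  -- the three points
  obtain ⟨p, hp⟩ := exists_lp (N := N) (f := fun l => if l = σ 2 then ε else P l) (fun l => by
    split_ifs
    · exact hεN
    · exact ⟨hPl l, by have := hPu l; omega⟩)
  obtain ⟨q, hq⟩ := exists_lp (N := N) (f := fun l => if l = σ 2 then ε else
      if l = σ 0 then P l + 1 else P l) (fun l => by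
    split_ifs
    · exact hεN
    · exact ⟨by have := hPl l; omega, hPu l⟩
    · exact ⟨hPl l, by have := hPu l; omega⟩)
  obtain ⟨r, hr⟩ := exists_lp (N := N) (f := fun l => if l = σ 2 then ε else P l + 1) (fun l => by
    split_ifs
    · exact hεN
    · exact ⟨by have := hPl l; omega, hPu l⟩)
  have n02 := sig02 σ
  have n12 := sig12 σ
  have n01 := sig01 σ
  have ht : Tri σ p q r :=
    { face := by rw [hp]; simp [hε]
      q0 := by rw [hp, hq]; simp [n02]
      q1 := by rw [hp, hq]; simp [n12, n01.symm]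
      q2 := by rw [hp, hq]; simp
      r0 := by rw [hp, hr]; simp [n02]
      r1 := by rw [hp, hr]; simp [n12]
      r2 := by rw [hp, hr]; simp }
  refine ⟨{p, q, r}, ⟨σ, p, q, r, ht, rfl⟩, ?_⟩
  set u0 := y (σ 0) - P (σ 0) with hu0d
  set u1 := y (σ 1) - P (σ 1) with hu1d
  have hR : Rep gen {p, q, r} ((s * (1 - u0)) • Pi.single p 1 + (s * (u0 - u1)) • Pi.single q 1
      + (s * u1) • Pi.single r 1)
      ((s * (1 - u0)) • gen p + (s * (u0 - u1)) • gen q + (s * u1) • gen r) := by
    refine Rep.add (Rep.add (Rep.smul ?_ (Rep.self (by simp))) (Rep.smul ?_ (Rep.self (by simp))))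
      (Rep.smul ?_ (Rep.self (by simp)))
    · exact mul_nonneg hs0.le (by linarith [hu1 (σ 0)])
    · exact mul_nonneg hs0.le (by linarith)
    · exact mul_nonneg hs0.le (hu0 (σ 1))
  have hxe : (s * (1 - u0)) • gen p + (s * (u0 - u1)) • gen q + (s * u1) • gen r = x := by
    ext l
    simp only [PiLp.add_apply, PiLp.smul_apply, gen_apply, smul_eq_mul]
    have hyx : x l = s * y l / N := by
      rw [hy]
      field_simp
    rw [hyx]
    rcases exists_sig σ l with rfl | rfl | rfl
    · rw [ht.q0, ht.r0, hp]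
      simp only [n02, if_false]
      have : y (σ 0) = P (σ 0) + u0 := by rw [hu0d]; ring
      rw [this]
      push_cast
      ring
    · rw [ht.q1, ht.r1, hp]
      simp only [n12, if_false]
      have : y (σ 1) = P (σ 1) + u1 := by rw [hu1d]; ring
      rw [this]
      push_cast
      ring
    · rw [ht.q2, ht.r2, hp]
      simp only [if_true]
      rw [hyε]
      ring
  rw [hxe] at hR
  exact ⟨_, hR⟩

/-- there is a cell -/
theorem exists_cell (hN : 0 < N) : ∃ c : Finset (LP N), IsCell c := by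
  have hx : (EuclideanSpace.single (0 : Fin 3) (1 : ℝ) : E3) ≠ 0 := by
    intro h
    have := congrArg (fun v : E3 => v 0) h
    simp at this
  obtain ⟨c, hc, _⟩ := exists_rep hN hx
  exact ⟨c, hc⟩

open Classical in
/-- **the fine Kuhn fan** -/
noncomputable def kuhn (N : ℕ) (hN : 0 < N) : Fan (LP N) E3 where
  v := gen
  T := Finset.univ.filter IsCell
  card c hc := by
    rw [(Finset.mem_filter.1 hc).2.card]
    simp
  cov x := by
    by_cases hx : x = 0
    · obtain ⟨c, hc⟩ := exists_cell hN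
      refine ⟨c, Finset.mem_filter.2 ⟨Finset.mem_univ _, hc⟩, 0, fun _ => le_rfl, fun _ _ => rfl, ?_⟩
      simp [hx]
    · obtain ⟨c, hc, a, ha⟩ := exists_rep hN hx
      exact ⟨c, Finset.mem_filter.2 ⟨Finset.mem_univ _, hc⟩, a, ha⟩
  uniq c hc c' hc' a a' x h h' :=
    uniq hN (Finset.mem_filter.1 hc).2 (Finset.mem_filter.1 hc').2 h h'

theorem kuhn_v (N : ℕ) (hN : 0 < N) : (kuhn N hN).v = gen := rfl

theorem mem_kuhn {hN : 0 < N} {c : Finset (LP N)} : c ∈ (kuhn N hN).T ↔ IsCell c := by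
  classical
  unfold kuhn
  simp

/-! ### shape -/

/-- shape of a cell -/
structure Shape (N : ℕ) (i j k : Fin 3) (v₀ v₁ v₂ : E3) : Prop where
  ij : i ≠ j
  ik : i ≠ k
  jk : j ≠ k
  face : |v₀ i| = 1
  le : ∀ l, |v₀ l| ≤ 1
  le1 : ∀ l, |v₁ l| ≤ 1
  le2 : ∀ l, |v₂ l| ≤ 1
  e1 : (N : ℝ) • (v₁ - v₀) = EuclideanSpace.single j 1
  e2 : (N : ℝ) • (v₂ - v₀) = EuclideanSpace.single j 1 + EuclideanSpace.single k 1

theorem gen_le (hN : 0 < N) (p : LP N) (l : Fin 3) : |gen p l| ≤ 1 := by
  have h3 : |(co p l : ℝ)| ≤ (N : ℝ) := by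
    have := co_le p l
    rw [← Int.cast_abs]
    exact_mod_cast this
  rw [gen_apply, abs_div, Nat.abs_cast]
  exact (div_le_one (by positivity)).2 h3

theorem kuhn_shape (hN : 0 < N) {c : Finset (LP N)} (hc : IsCell c) :
    ∃ p q r : LP N, p ≠ q ∧ p ≠ r ∧ q ≠ r ∧ c = {p, q, r} ∧
      ∃ i j k : Fin 3, Shape N i j k (gen p) (gen q) (gen r) := by
  obtain ⟨σ, p, q, r, ht, rfl⟩ := hc
  have hN' : (N : ℝ) ≠ 0 := by positivity
  have n02 := sig02 σ
  have n12 := sig12 σ
  have n01 := sig01 σ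
  refine ⟨p, q, r, ht.pq, ht.pr, ht.qr, rfl, σ 2, σ 0, σ 1,
    { ij := n02.symm, ik := n12.symm, jk := n01, face := ?_, le := gen_le hN p,
      le1 := gen_le hN q, le2 := gen_le hN r, e1 := ?_, e2 := ?_ }⟩
  · rw [gen_apply, abs_div, Nat.abs_cast, div_eq_one_iff_eq hN']
    have := ht.face
    exact_mod_cast this
  · ext l
    simp only [PiLp.smul_apply, PiLp.sub_apply, gen_apply, smul_eq_mul, PiLp.single_apply]
    rcases exists_sig σ l with rfl | rfl | rfl
    · rw [ht.q0]; push_cast; simp; field_simp; ring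
    · rw [ht.q1]; simp [n01.symm]
    · rw [ht.q2]; simp [n02.symm]
  · ext l
    simp only [PiLp.smul_apply, PiLp.sub_apply, PiLp.add_apply, gen_apply, smul_eq_mul,
      PiLp.single_apply]
    rcases exists_sig σ l with rfl | rfl | rfl
    · rw [ht.r0]; push_cast; simp [n01]; field_simp; ring
    · rw [ht.r1]; push_cast; simp [n01.symm]; field_simp; ring
    · rw [ht.r2]; simp [n02.symm, n12.symm]

end Crest.Agent.R096.Kf_161
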