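import Crest.Agent.R096.Kf3_161

/-!
# Row 96, P5-FINEFAN (helper161): the fine Kuhn fan, part 4: bounds

Norms in `[1, 2]`, distances `≤ 2 / N`, determinant `± 1`, bounded coordinates in the frame
`v₀, N (v₁ - v₀), N (v₂ - v₀)`, closeness of the generators of a cell to its points.
-/

set_option autoImplicit false

open Module Finset

namespace Crest.Agent.R096.Kf_161

open Crest.Agent.R096.Fp_812

variable {N : ℕ}

theorem apply_le_norm (x : E3) (l : Fin 3) : |x l| ≤ ‖x‖ := by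
  have := PiLp.norm_apply_le x l
  rwa [Real.norm_eq_abs] at this

theorem norm_le_two {x : E3} {s : ℝ} (hs : 0 ≤ s) (h : ∀ l, |x l| ≤ s) : ‖x‖ ≤ 2 * s := by
  rw [EuclideanSpace.norm_eq]
  refine Real.sqrt_le_iff.2 ⟨by positivity, ?_⟩
  rw [Fin.sum_univ_three]
  simp only [Real.norm_eq_abs]
  have h0 := pow_le_pow_left₀ (abs_nonneg _) (h 0) 2
  have h1 := pow_le_pow_left₀ (abs_nonneg _) (h 1) 2
  have h2 := pow_le_pow_left₀ (abs_nonneg _) (h 2) 2
  nlinarith [sq_nonneg s]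

theorem fin3_cases {i j k : Fin 3} (ij : i ≠ j) (ik : i ≠ k) (jk : j ≠ k) (l : Fin 3) :
    l = i ∨ l = j ∨ l = k := by
  revert i j k l
  decide

namespace Shape

variable {i j k : Fin 3} {v₀ v₁ v₂ : E3}

theorem app1 (h : Shape N i j k v₀ v₁ v₂) (l : Fin 3) :
    (N : ℝ) * (v₁ l - v₀ l) = if l = j then 1 else 0 := by
  have := congrArg (fun x : E3 => x l) h.e1
  simpa only [PiLp.smul_apply, PiLp.sub_apply, smul_eq_mul, PiLp.single_apply] using this

theorem app2 (h : Shape N i j k v₀ v₁ v₂) (l : Fin 3) :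
    (N : ℝ) * (v₂ l - v₀ l) = (if l = j then 1 else 0) + (if l = k then 1 else 0) := by
  have := congrArg (fun x : E3 => x l) h.e2
  simpa only [PiLp.smul_apply, PiLp.sub_apply, PiLp.add_apply, smul_eq_mul,
    PiLp.single_apply] using this

theorem eq_i (hN : 0 < N) (h : Shape N i j k v₀ v₁ v₂) : v₁ i = v₀ i ∧ v₂ i = v₀ i := by
  have hN' : (N : ℝ) ≠ 0 := by positivity
  have h1 := h.app1 i
  have h2 := h.app2 i
  rw [if_neg h.ij] at h1
  rw [if_neg h.ij, if_neg h.ik, add_zero] at h2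
  constructor
  · rcases mul_eq_zero.1 h1 with g | g
    · exact absurd g hN'
    · linarith
  · rcases mul_eq_zero.1 h2 with g | g
    · exact absurd g hN'
    · linarith

theorem one_le_norm (h : Shape N i j k v₀ v₁ v₂) (hN : 0 < N) :
    1 ≤ ‖v₀‖ ∧ 1 ≤ ‖v₁‖ ∧ 1 ≤ ‖v₂‖ := by
  obtain ⟨g1, g2⟩ := h.eq_i hN
  refine ⟨?_, ?_, ?_⟩
  · rw [← h.face]; exact apply_le_norm _ _
  · rw [← h.face, ← g1]; exact apply_le_norm _ _
  · rw [← h.face, ← g2]; exact apply_le_norm _ _

theorem norm_le_two' (h : Shape N i j k v₀ v₁ v₂) : ‖v₀‖ ≤ 2 ∧ ‖v₁‖ ≤ 2 ∧ ‖v₂‖ ≤ 2 := by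
  have e : (2 : ℝ) = 2 * 1 := by norm_num
  rw [e]
  exact ⟨norm_le_two zero_le_one h.le, norm_le_two zero_le_one h.le1,
    norm_le_two zero_le_one h.le2⟩

/-- distances -/
theorem dist_le (h : Shape N i j k v₀ v₁ v₂) (hN : 0 < N) :
    ‖v₁ - v₀‖ ≤ 2 / N ∧ ‖v₂ - v₀‖ ≤ 2 / N ∧ ‖v₂ - v₁‖ ≤ 2 / N := by
  have hNr : (0 : ℝ) < N := by exact_mod_cast hN
  have key : ∀ v : E3, (∀ l, |(N : ℝ) * v l| ≤ 1) → ‖v‖ ≤ 2 / N := by
    intro v hv
    have h1 : ‖v‖ ≤ 2 * (1 / N) := by
      refine norm_le_two (by positivity) fun l => ?_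
      have := hv l
      rw [abs_mul, Nat.abs_cast] at this
      rw [le_div_iff₀ hNr]
      linarith
    rwa [mul_one_div] at h1
  refine ⟨key _ fun l => ?_, key _ fun l => ?_, key _ fun l => ?_⟩
  · rw [PiLp.sub_apply, h.app1 l]
    split_ifs <;> simp
  · rw [PiLp.sub_apply, h.app2 l]
    split_ifs with g1 g2
    · exact absurd (g1.symm.trans g2) h.jk
    · simp
    · simp
    · simp
  · have h3 : (N : ℝ) * (v₂ - v₁) l = (N : ℝ) * (v₂ l - v₀ l) - (N : ℝ) * (v₁ l - v₀ l) := by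
      rw [PiLp.sub_apply]; ring
    rw [h3, h.app1 l, h.app2 l]
    split_ifs <;> simp

/-- **coordinates in the frame `v₀, N (v₁ - v₀), N (v₂ - v₀)`** -/
theorem coords (h : Shape N i j k v₀ v₁ v₂) (x : E3) : ∃ α β γ : ℝ,
    x = α • v₀ + β • ((N : ℝ) • (v₁ - v₀)) + γ • ((N : ℝ) • (v₂ - v₀)) ∧
      |α| ≤ ‖x‖ ∧ |β| ≤ 4 * ‖x‖ ∧ |γ| ≤ 2 * ‖x‖ := by
  have hi0 : v₀ i ≠ 0 := by
    intro h0
    have := h.face
    rw [h0, abs_zero] at this
    exact absurd this (by norm_num)
  set α := x i / v₀ i with hα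
  set γ := x k - α * v₀ k with hγ
  set β := x j - α * v₀ j - γ with hβ
  have hαx : |α| ≤ ‖x‖ := by
    rw [hα, abs_div, h.face, div_one]
    exact apply_le_norm _ _
  have hγx : |γ| ≤ 2 * ‖x‖ := by
    rw [hγ]
    refine (abs_sub _ _).trans ?_
    rw [abs_mul]
    have h1 := apply_le_norm x k
    have h2 := mul_le_mul hαx (h.le k) (abs_nonneg _) (norm_nonneg x)
    linarith
  have hβx : |β| ≤ 4 * ‖x‖ := by
    rw [hβ]
    refine (abs_sub _ _).trans ?_
    have h1 := apply_le_norm x j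
    have h2 := mul_le_mul hαx (h.le j) (abs_nonneg _) (norm_nonneg x)
    have h3 := abs_sub (x j) (α * v₀ j)
    rw [abs_mul] at h3
    linarith
  refine ⟨α, β, γ, ?_, hαx, hβx, hγx⟩
  rw [h.e1, h.e2]
  ext l
  simp only [PiLp.add_apply, PiLp.smul_apply, smul_eq_mul, PiLp.single_apply]
  rcases fin3_cases h.ij h.ik h.jk l with rfl | rfl | rfl
  · simp only [h.ij, h.ik, if_false, add_zero, mul_zero]
    rw [hα]
    field_simp
  · simp only [h.jk, if_false, if_true, add_zero]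
    rw [hβ]
    ring
  · simp only [h.jk.symm, if_false, if_true, zero_add]
    rw [hγ]
    ring

/-- **determinant `± 1`** -/
theorem abs_det (h : Shape N i j k v₀ v₁ v₂) :
    |(Matrix.of ![fun l => v₀ l, fun l => ((N : ℝ) • (v₁ - v₀)) l,
      fun l => ((N : ℝ) • (v₂ - v₀)) l]).det| = 1 := by
  rw [h.e1, h.e2]
  have hf := h.face
  have hij := h.ij
  have hik := h.ik
  have hjk := h.jk
  rw [Matrix.det_fin_three]
  simp only [Matrix.of_apply, Matrix.cons_val_zero, Matrix.cons_val_one, Matrix.cons_val,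
    PiLp.add_apply, PiLp.single_apply]
  fin_cases i <;> fin_cases j <;> fin_cases k <;> simp_all

end Shape

/-- the generators of a cell are close to the points of its cone -/
theorem near (hN : 0 < N) {c : Finset (LP N)} (hc : IsCell c) {a : LP N → ℝ} {x : E3}
    (h : Rep gen c a x) {v : LP N} (hv : v ∈ c) :
    ‖x - (∑ w, a w) • gen v‖ ≤ (∑ w, a w) * (2 / N) ∧ ‖x‖ / 2 ≤ ∑ w, a w ∧ ∑ w, a w ≤ ‖x‖ := by
  obtain ⟨p, q, r, hpq, hpr, hqr, rfl, i, j, k, hS⟩ := kuhn_shape hN hc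
  obtain ⟨d1, d2, d3⟩ := hS.dist_le hN
  have hsum : ∀ f : LP N → E3, ∑ w, a w • f w = a p • f p + a q • f q + a r • f r := by
    intro f
    rw [← Finset.sum_subset (Finset.subset_univ ({p, q, r} : Finset (LP N)))]
    · rw [Finset.sum_insert (by simp [hpq, hpr]), Finset.sum_insert (by simp [hqr]),
        Finset.sum_singleton]
      abel
    · intro w _ hw
      rw [h.off w hw, zero_smul]
  have hsum1 : ∑ w, a w = a p + a q + a r := by
    rw [← Finset.sum_subset (Finset.subset_univ ({p, q, r} : Finset (LP N)))]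
    · rw [Finset.sum_insert (by simp [hpq, hpr]), Finset.sum_insert (by simp [hqr]),
        Finset.sum_singleton]
      ring
    · intro w _ hw
      exact h.off w hw
  have h0 := h.nonneg p
  have h1 := h.nonneg q
  have h2 := h.nonneg r
  have hd : ∀ w ∈ ({p, q, r} : Finset (LP N)), ∀ w' ∈ ({p, q, r} : Finset (LP N)),
      ‖gen w - gen w'‖ ≤ 2 / N := by
    have hz : (0 : ℝ) ≤ 2 / N := by positivity
    intro w hw w' hw'
    simp only [Finset.mem_insert, Finset.mem_singleton] at hw hw'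
    rcases hw with rfl | rfl | rfl <;> rcases hw' with rfl | rfl | rfl
    · simpa using hz
    · rw [norm_sub_rev]; exact d1
    · rw [norm_sub_rev]; exact d2
    · exact d1
    · simpa using hz
    · rw [norm_sub_rev]; exact d3
    · exact d2
    · exact d3
    · simpa using hz
  refine ⟨?_, ?_, ?_⟩
  · have e : x - (∑ w, a w) • gen v
        = a p • (gen p - gen v) + a q • (gen q - gen v) + a r • (gen r - gen v) := by
      rw [← h.sum, hsum, hsum1]
      module
    rw [e, hsum1]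
    have g : ∀ w ∈ ({p, q, r} : Finset (LP N)), ‖a w • (gen w - gen v)‖ ≤ a w * (2 / N) := by
      intro w hw
      rw [norm_smul, Real.norm_of_nonneg (h.nonneg w)]
      exact mul_le_mul_of_nonneg_left (hd w hw v hv) (h.nonneg w)
    have g1 := g p (by simp)
    have g2 := g q (by simp)
    have g3 := g r (by simp)
    calc _ ≤ ‖a p • (gen p - gen v)‖ + ‖a q • (gen q - gen v)‖ + ‖a r • (gen r - gen v)‖ :=
          norm_add₃_le
      _ ≤ _ := by linarith
  · have := norm_le_two (x := x) (by rw [hsum1]; positivity) (abs_le_sum hN h)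
    linarith
  · obtain ⟨σ, p', q', r', ht, hc'⟩ := hc
    rw [hc'] at h
    rw [← abs_face hN ht h]
    exact apply_le_norm _ _

end Crest.Agent.R096.Kf_161
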