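import Crest.Agent.R096.Kin1_527
import Crest.Agent.R096.Oa4_527

/-!
# Row 96 (S0127), (K4) over the labelled mesh, part 2 (helper527)

`meshEx_of` : `Oa_527.MeshEx` of the final placement `h.cmb` from `K4In` with `y q = va · (xq q)`,
for any set `D` of cells, each in a tile of `Tl` which is in no `J0 c` and on which the retraction
composed with `f` is `Psi ∘ f`.
-/

set_option autoImplicit false
set_option linter.unusedSectionVars false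
set_option linter.unusedVariables false

open Set Relation

namespace Crest.Agent.R096.Kin_527

open Crest.Agent.R096.Brk1_582 Crest.Agent.R096.Brk3_582 Crest.Agent.R096.Init_543
  Crest.Agent.R096.Ce_537 Crest.Agent.R096.St_147 Crest.Agent.R096.Lm_117
  Crest.Agent.R096.Gl_422 Crest.Agent.R096.Seq_213 Crest.Agent.R096.Msh_715
  Crest.Agent.R096.SkB_662 Crest.Agent.R096.Mg_441 Crest.Agent.R096.Cp_298
open Crest.Agent.R096.SkC1_961 (E3 FoamD)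
open Crest.Agent.R096.Mbf_337 (sb KJ)

variable {δ κ0 R0 c0 : ℝ} {La Om : Set E3} {ι : Type} {Φ : FoamD δ κ0 R0 c0 La}
  {Tl : Tiling Om ι} {f : E3 → E3} {R : E3 → E3} {J0 : Φ.F → Set ι}

/-- the coordinates of `543` are those of `337` -/
theorem va_eq_sb {x : E3} (h : R (f x) = Φ.Psi (f x)) :
    (fun a => va (Pc Φ.F) (bc (F := Φ.F)) R f a x) = sb Φ (Φ.Psi (f x)) := by
  funext a
  show sc (Pc Φ.F) (bc (F := Φ.F)) (R (f x)) a = sc (Pc Φ.F) (bc (F := Φ.F)) (Φ.Psi (f x)) a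
  rw [h]

variable {ι' Ff Q Kq J : Type} [PartialOrder Q] {dim : Q → ℕ} {M : MeshC ι' Ff E3}
  {K : Q → Set E3} {L : LM M Q dim} {O : Ori M} {τ : Q → ZMod 2} {Rel : E3 → E3 → Prop}
  {V : Set E3} {Qd : Quads ι' Φ.F Kq} {κ : Φ.F → ℕ} {fam : J → Φ.F} {s₀ : GSt M fam}
  {far₀ : J → Set E3} {G : Φ.F → Set E3} {Z : Φ.F → Set Q} {lam₀ : J → Q → ZMod 2}
  {v₀ v₁ : Φ.F → Q} {hfin : ∀ a, {j | fam j = a}.Finite} {kap : Φ.F → ℕ}
  {s : GSt M (fam' fam (Rk κ kap))} {far : Nm' fam (Rk κ kap) → Set E3} {β : E3 → E3}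
  {lam : Nm' fam (Rk κ kap) → Q → ZMod 2}

/-- **(K4) in the form of the bottom assembly** -/
theorem meshEx_of (h : StO L O τ Rel V Qd κ s₀ far₀ Z lam₀ v₀ v₁ hfin kap s far β lam)
    (hi : StI L O τ Rel V Qd κ s₀ far₀ G Z lam₀ v₀ v₁) {D : Set Q} {xq : Q → E3}
    (hK : K4In L Qd s₀ Z v₀ (Pc Φ.F) D (fun q a => va (Pc Φ.F) (bc (F := Φ.F)) R f a (xq q)))
    (hD : ∀ q ∈ D, ∃ i, (∀ c, i ∉ J0 c) ∧ K q ⊆ P (Tl.H i) ∧ xq q ∈ P (Tl.H i) ∧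
      R (f (xq q)) = Φ.Psi (f (xq q))) : Oa_527.MeshEx Φ Tl f J0 h.cmb K D := by
  intro q hq
  obtain ⟨i, h1, h2, h3, h4⟩ := hD q hq
  refine ⟨i, h1, h2, xq q, h3, ?_⟩
  rw [← va_eq_sb h4]
  exact h.ex hi hK hq

/-- **(K4) for all base points of the tile** (534 #11010 (b)) -/
def MeshExA {δ κ0 R0 c0 : ℝ} {La Om : Set E3} {ι : Type} (Φ : FoamD δ κ0 R0 c0 La)
    (Tl : Tiling Om ι) (f : E3 → E3) (J0 : Φ.F → Set ι) {Q : Type} [PartialOrder Q] {dim : Q → ℕ}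
    {Jc : Type} (Cc : Bd_416.Cmb Q dim Jc Φ.F) (K : Q → Set E3) (D : Set Q) : Prop :=
  ∀ q ∈ D, ∃ i, (∀ c, i ∉ J0 c) ∧ K q ⊆ P (Tl.H i) ∧
    ∀ x0 ∈ P (Tl.H i), Ex Cc (Pc Φ.F) q (sb Φ (Φ.Psi (f x0)))

theorem MeshExA.meshEx {Cc : Bd_416.Cmb Q dim J Φ.F} {D : Set Q}
    (h : MeshExA Φ Tl f J0 Cc K D) : Oa_527.MeshEx Φ Tl f J0 Cc K D := by
  intro q hq
  obtain ⟨i, h1, h2, h3⟩ := h q hq
  obtain ⟨x, hx⟩ := Tl.ne i
  exact ⟨i, h1, h2, x, I_sub_P _ hx, h3 x (I_sub_P _ hx)⟩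

/-- **(K4) for all base points**, from `K4In` for every choice of the base points -/
theorem meshExA_of (h : StO L O τ Rel V Qd κ s₀ far₀ Z lam₀ v₀ v₁ hfin kap s far β lam)
    (hi : StI L O τ Rel V Qd κ s₀ far₀ G Z lam₀ v₀ v₁) {D : Set Q} {iq : Q → ι}
    (hD : ∀ q ∈ D, (∀ c, iq q ∉ J0 c) ∧ K q ⊆ P (Tl.H (iq q)) ∧
      ∀ x ∈ P (Tl.H (iq q)), R (f x) = Φ.Psi (f x))
    (hK : ∀ xq : Q → E3, (∀ q ∈ D, xq q ∈ P (Tl.H (iq q))) →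
      K4In L Qd s₀ Z v₀ (Pc Φ.F) D (fun q a => va (Pc Φ.F) (bc (F := Φ.F)) R f a (xq q))) :
    MeshExA Φ Tl f J0 h.cmb K D := by
  classical
  intro q hq
  obtain ⟨h1, h2, h3⟩ := hD q hq
  refine ⟨iq q, h1, h2, fun x0 hx0 => ?_⟩
  have hne : ∀ i, (P (Tl.H i)).Nonempty := fun i => (Tl.ne i).mono (I_sub_P _)
  have h4 := hK (fun p => if p = q then x0 else (hne (iq p)).some) (fun p _ => by
    by_cases hp : p = q
    · subst hp; simpa using hx0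
    · simpa [hp] using (hne (iq p)).some_mem)
  have h5 := h.ex hi h4 hq
  simp only [if_true] at h5
  rw [va_eq_sb (h3 x0 hx0)] at h5
  exact h5

/-- **(K4) for all base points, tiles outside the cores**, from 441's ropes -/
theorem meshExA_env (h : StO L O τ Rel V Qd κ s₀ far₀ Z lam₀ v₀ v₁ hfin kap s far β lam)
    (hi : StI L O τ Rel V Qd κ s₀ far₀ G Z lam₀ v₀ v₁) {Ω : Set E3} (X : Cplx Ω Q dim K)
    {Kor : Set ι} {No : Set ι'} {ti : ι' → ι} {tc : ι' → Q} {σ ε η0 η θ : ℝ} {g : E3 → E3}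
    {Kc : Φ.F → Set E3} {th : Φ.F → E3 → E3} {tau : Φ.F → E3 → E3}
    (hE : Rop_441.Env Tl (Pc Φ.F) (bc (F := Φ.F)) R f Kor σ K L Qd No ti tc)
    (hk : ∀ q ∈ Kor, ∃ c, Msh_715.P (Tl.H q) ⊆ Kc c)
    (H : Hm f g Om La) (F : Brk1_582.Foam La (Pc Φ.F) (bc (F := Φ.F)) 4) (hR : Ret La (Pc Φ.F) R)
    (hC : Rop_441.CorT Om (Pc Φ.F) (bc (F := Φ.F)) R f Kc th tau η0)
    (hM : Mesh0 Tl (Pc Φ.F) (bc (F := Φ.F)) R f Kor ε)
    (hθ0 : 0 ≤ θ) (h00 : 0 ≤ η0) (h01 : θ + η0 ≤ η)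
    (hε : 0 ≤ ε) (hs : ε + (η + η0) < σ) (hs1 : σ ≤ 1 / 2)
    (hL : Rop_441.LevOn (Pc Φ.F) (bc (F := Φ.F)) R f σ K L s₀ No tc) (hLa : IsPreconnected La)
    (hS : ∀ a c, c ≠ a → IsPreconnected
      (Brk2_582.Lset La (Pc Φ.F) (bc (F := Φ.F)) c 0 \ Pc Φ.F a))
    (hint : ∀ i ∈ No, ∀ x ∈ K (tc i), ∀ c, x ∉ interior (Kc c))
    (hv₀ : ∀ j, Rop_441.Deep Om La (Pc Φ.F) (bc (F := Φ.F)) R f Kc tau η θ dim K No tc (fam j)
      (v₀ (fam j)))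
    (hv₁ : ∀ j, ∃ v' ∈ Z (fam j), dim v' = 0 ∧ ∃ i ∈ No, v' ≤ tc i ∧
      ∃ x ∈ K (tc i), 1 - θ ≤ va (Pc Φ.F) (bc (F := Φ.F)) R f (fam j) x)
    {D : Set Q} (hD : ∀ q ∈ D, ∃ i ∈ No, q ≤ tc i) (hJ : ∀ i ∈ No, ∀ c, ti i ∉ J0 c)
    (hRP : ∀ i ∈ No, ∀ x ∈ P (Tl.H (ti i)), R (f x) = Φ.Psi (f x)) :
    MeshExA Φ Tl f J0 h.cmb K D := by
  classical
  intro q hq
  obtain ⟨i, hi', hqi⟩ := hD q hq
  have hsub : K q ⊆ P (Tl.H (ti i)) := by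
    rw [← hE.set i hi']; exact X.subset hqi
  have key : MeshExA Φ Tl f J0 h.cmb K {q} := by
    refine meshExA_of (R := R) h hi (iq := fun _ => ti i) ?_ ?_
    · rintro p rfl
      exact ⟨hJ i hi', hsub, hRP i hi'⟩
    · intro xq hxq
      exact k4in X hE hk H F hR hC hM (by simp) hθ0 h00 h01 hε hs hs1 hL hLa hS hint hv₀ hv₁
        (D := {q}) (xq := xq) (by
          rintro p rfl
          exact ⟨i, hi', hqi, by rw [hE.set i hi']; exact hxq _ rfl⟩)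
  exact key q rfl

end Crest.Agent.R096.Kin_527
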