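import Crest.Agent.R096.Vrt1_422

/-!
# R096 (row 96), DOORS (helper422): vertical paths of the layered mesh, part 2: frozen 1-cells of
`lmK`, the column over a vertex as a path of frozen 1-cells without points of a family.
-/

set_option autoImplicit false
set_option linter.unusedSectionVars false

open Set Relation Module

namespace Crest.Agent.R096.Vrt_422

open Crest.Agent.R096.St_147 Crest.Agent.R096.Seq_213 Crest.Agent.R096.Seq_213.GSt
  Crest.Agent.R096.Lm_117 Crest.Agent.R096.Ac_117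
  Crest.Agent.R096.Cp_298 Crest.Agent.R096.Msh_715 Crest.Agent.R096.Agl5_543
  Crest.Agent.R096.Ori_543 Crest.Agent.R096.Coh_184 Crest.Agent.R096.Gl_422
  Crest.Agent.R096.Sla_184 Crest.Agent.R096.Sla_184.Sla

variable {E : Type} [NormedAddCommGroup E] [NormedSpace ℝ E] [FiniteDimensional ℝ E]
variable {Om : Set E} {ι κ : Type}

section frozen

variable {T : Tiling Om ι} {Kc : κ → Set E} [Nonempty T.Cell]
variable {h3 : finrank ℝ E = 3} {hH : ∀ c, CoreH T (Kc c)}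
  {hdis : ∀ c c', c ≠ c' → Disjoint (Kc c) (Kc c')} {hne : ∃ c, OutK T Kc c}
  {C K : Type} {Qd : Quads (ι ⊕ κ) C K}

/-- **a 1-cell of the outside is frozen if a tile outside the cores at it is not active** (or a
giant) -/
theorem frE_K {c : T.Cell} (h : OutK T Kc c) (he : c.dim = 1) {a : C}
    (hf : ∀ k, Qd.In k a → (∃ q, c.pt ∈ P (T.H q) ∧ (∀ k', ¬ P (T.H q) ⊆ Kc k') ∧
      Sum.inl q ∉ Qd.Act k) ∨ ∃ k', c.set ⊆ frontier (Kc k') ∧ Sum.inr k' ∉ Qd.Act k) :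
    FrE (lmK h3 hH hdis hne) Qd a (oc c h) := by
  intro k hk
  rcases hf k hk with ⟨q, hq, hout, hqA⟩ | ⟨k', hk', hA⟩
  · have hq' : q ∈ T.at_ c.pt := hq
    obtain ⟨x₁, hx1, x₂, hx2, hd1, hd2, hq1, hq2, hp1, hp2, hne', huniq⟩ :=
      Agl3_543.two_cells T h3 c.pt_mem he hq'
    have hin : q ∈ (meshC T h3).side (mk2 T hx1 hd1) := by
      show q ∈ (mk2 T hx1 hd1).side h3
      rw [C2.mem_side]
      have h5 : (mk2 T hx1 hd1).pt ∈ T.oc x₁ := T.pt_cl hx1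
      rw [T.at_eq_of_mem_oc hx1 h5]
      exact hq1
    have hF : OutK T Kc (mk2 T hx1 hd1).1 := ⟨q, hout, C2.sub_tile (h3 := h3) hin⟩
    refine ⟨⟨mk2 T hx1 hd1, out_face h3 _ hF⟩, ?_, Sum.inl q, ?_, hqA⟩
    · show c.set ⊆ (mk2 T hx1 hd1).set
      rw [c.set_eq, mk2_set hx1 hd1]
      exact T.cc_sub_of_mem hp1
    · show Sum.inl q ∈ ((meshC T h3).side (mk2 T hx1 hd1)).map (piK T Kc)
      rw [mem_map_iff]
      exact ⟨q, hin, piK_inl.2 ⟨rfl, hout⟩⟩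
  · obtain ⟨F, h1, h2⟩ := face_giant (h3 := h3) (hH := hH) (hdis := hdis) (hne := hne) h he hk'
    exact ⟨F, h1, _, h2, hA⟩

/-- the edge relation of `lmK` from the ends of a 1-cell of the tiling -/
theorem ed_K {c p q : T.Cell} (h : OutK T Kc c) (he : c.dim = 1) {Z : Set (QK (belK T Kc))}
    (hZ : oc c h ∈ Z) (hp : OutK T Kc p) (hq : OutK T Kc q) {b : Bool} (h1 : enC c b = p)
    (h2 : enC c (!b) = q) : Ed (lmK h3 hH hdis hne) Z (oc p hp) (oc q hq) := by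
  obtain ⟨o1, e1⟩ := en_K (h3 := h3) (hH := hH) (hdis := hdis) (hne := hne) h he b
  obtain ⟨o2, e2⟩ := en_K (h3 := h3) (hH := hH) (hdis := hdis) (hne := hne) h he (!b)
  subst h1
  subst h2
  exact ⟨oc c h, hZ, he, b, e1.symm, e2.symm⟩

variable {J : Type} {fam : J → C} {s : GSt (mK h3 hH hdis) fam}

/-- frozen 1-cells without points of the family -/
theorem fr0_K {c : T.Cell} (h : OutK T Kc c) (he : c.dim = 1) {a : C}
    (hf : ∀ k, Qd.In k a → (∃ q, c.pt ∈ P (T.H q) ∧ (∀ k', ¬ P (T.H q) ⊆ Kc k') ∧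
      Sum.inl q ∉ Qd.Act k) ∨ ∃ k', c.set ⊆ frontier (Kc k') ∧ Sum.inr k' ∉ Qd.Act k)
    (hp : ∀ w ∈ s.P, w ∈ c.set → T.dim w = 1 → fam (s.lab w) ≠ a) :
    oc c h ∈ Fr0 (lmK h3 hH hdis hne) Qd s a := by
  refine ⟨frE_K h he hf, fun w hw hfa hw1 => ?_⟩
  rw [on_K h] at hw1
  obtain ⟨h1, h2⟩ := hw1
  refine hp w hw ?_ h1.2 hfa
  rw [← h2, edC_set h1.1]
  exact T.self_mem_cc w

end frozen

section col

variable {T : Tiling Om ι} {S : Sla T κ} {c : κ} {v x : E} {j : ℕ} [Nonempty S.T3.Cell]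

/-- the copies of a vertex are vertices of the outside of the shrunk cores -/
theorem outK_hc (hv : v ∈ S.Bd c) (hj : j ≤ S.n c) : OutK S.T3 S.KK (edC S.T3 (S.hc c v j)) := by
  have key : ∀ {i : ℕ}, i < S.n c → S.hc c v j ∈ S.T3.cc (S.vc c v i) →
      OutK S.T3 S.KK (edC S.T3 (S.hc c v j)) := by
    intro i hi h
    refine outK_down _ (edC S.T3 (S.vc c v i)) ?_ (outK_InL (vc_inL hv hi))
    rw [edC_le (hc_Om hv hj), edC_set (vc_Om hv hi)]
    exact h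
  rcases Nat.lt_or_ge j (S.n c) with h | h
  · exact key h (hc_vc hv h)
  · have e : j = S.n c := le_antisymm hj h
    subst e
    have h0 := S.npos c
    have h1 := hc_vc' hv (j := S.n c - 1) (by omega)
    rw [show S.n c - 1 + 1 = S.n c from by omega] at h1
    exact key (by omega) h1

variable {h3 : finrank ℝ E = 3} {hH : ∀ c, CoreH S.T3 (S.KK c)} {hne : ∃ c, OutK S.T3 S.KK c}
  {C K : Type} {Qd : Quads (T.RIdx S.HH ⊕ κ) C K} {J : Type} {fam : J → C}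
  {s : GSt (mK h3 hH dis_KK) fam} {a : C}

/-- **one vertical step** -/
theorem vert_step (hv : v ∈ S.Bd c) (hD : S.D c v = 1) (hj : j < S.n c)
    (hf : ∀ k, Qd.In k a → ∃ q, S.vc c v j ∈ P (S.T3.H q) ∧ Sum.inl q ∉ Qd.Act k)
    (hp : ∀ w ∈ s.P, w ∈ S.O c v → S.InL c j w → fam (s.lab w) ≠ a) :
    Ed (lmK h3 hH dis_KK hne) (Fr0 (lmK h3 hH dis_KK hne) Qd s a)
      (oc (edC S.T3 (S.hc c v j)) (outK_hc hv hj.le))
      (oc (edC S.T3 (S.hc c v (j + 1))) (outK_hc hv hj)) := by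
  obtain ⟨b, h1, h2⟩ := vc_ends hv hD hj
  have hL := vc_inL hv hj
  have hO := vc_Om hv hj
  have hdim : (edC S.T3 (S.vc c v j)).dim = 1 := edC_dim ⟨hO, vc_dim hv hD j⟩
  have hpt : (edC S.T3 (S.vc c v j)).pt ∈ S.T3.oc (S.vc c v j) := by
    rw [edC_cl hO]; exact S.T3.pt_cl hO
  refine ed_K (outK_InL hL) hdim ?_ _ _ h1 h2
  refine fr0_K _ hdim (fun k hk => Or.inl ?_) ?_
  · obtain ⟨q, hq, hA⟩ := hf k hk
    have hq1 : q ∈ S.T3.at_ (S.vc c v j) := hq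
    refine ⟨q, ?_, fun k' hk' => InL.not_KK hL k' (hk' hq), hA⟩
    have := S.T3.at_eq_of_mem_oc hO hpt
    rw [← this] at hq1
    exact hq1
  · intro w hw hw1 hw2
    rw [edC_set hO] at hw1
    have h4 : w ∈ S.T3.oc (S.vc c v j) := by
      refine Slc_184.mem_oc_of_dim hw1 ?_
      rw [vc_dim hv hD j, hw2]
    obtain ⟨h5, h6, h7⟩ := (mem_oc_vc hv hj).1 h4
    exact hp w hw h5 ⟨h5.1.1, hj, h6, h7⟩

/-- **the column over a vertex of the frontier of a core** -/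
theorem col_path (hv : v ∈ frontier (S.K c)) (h0 : T.dim v = 0)
    (hf : ∀ k, Qd.In k a → ∀ i < S.n c, ∃ q, S.vc c v i ∈ P (S.T3.H q) ∧ Sum.inl q ∉ Qd.Act k)
    (hp : ∀ i < S.n c, ∀ w ∈ s.P, w ∈ S.O c v → S.InL c i w → fam (s.lab w) ≠ a)
    (hj : j ≤ S.n c) :
    ReflTransGen (Ed (lmK h3 hH dis_KK hne) (Fr0 (lmK h3 hH dis_KK hne) Qd s a))
      (oc (edC S.T3 (S.hc c v 0)) (outK_hc (fr_Bd hv) (Nat.zero_le _)))
      (oc (edC S.T3 (S.hc c v j)) (outK_hc (fr_Bd hv) hj)) := by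
  have hD := D_vx hv h0
  induction j with
  | zero => exact .refl
  | succ j ih =>
    exact (ih (Nat.le_of_succ_le hj)).tail
      (vert_step (fr_Bd hv) hD hj (fun k hk => hf k hk j hj) (hp j hj))

/-- the vertices of the layers are the points of the columns -/
theorem vertex_col (hx : S.OnS c j x) (h0 : S.T3.dim x = 0) :
    S.hc c x 0 ∈ frontier (S.K c) ∧ T.dim (S.hc c x 0) = 0 ∧ x = S.hc c (S.hc c x 0) j := by
  have hB := hx.bd
  have hD : S.D c x = 1 := by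
    have := hx.dim3
    omega
  have hd := base_dim hB
  have hf := base_fr hB
  have hO := hc_O hB 0
  refine ⟨hf, by omega, ?_⟩
  have hBf := fr_Bd hf
  have hD' : S.D c (S.hc c x 0) = 1 := by rw [hc_D hB 0, hD]
  refine lv_unique hBf hD' ?_ (O_C hBf (hc_O hBf j)) ?_
  · rw [C_eq hB hO]; exact self_C hB
  · rw [hx.2.2, (hc_onS hBf hx.2.1).2.2]

/-- a vertex on a layer cell -/
theorem exists_vertex_layer (hx : S.InL c j x) :
    ∃ y ∈ S.T3.cc x, S.T3.dim y = 0 ∧ ∃ i, i ≤ S.n c ∧ S.OnS c i y := by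
  obtain ⟨y, h1, h2⟩ := S.T3.exists_vertex hx.mem
  obtain ⟨h4, h5, h6⟩ := (hx.cc).1 h1
  have hK : y ∈ S.K c := C_K hx.bd h4
  refine ⟨y, h1, h2, ?_⟩
  have h7 : S.t c (S.n c) ≤ S.φ c y := (S.t_le (Nat.succ_le_of_lt hx.2.1) le_rfl).trans h5
  rcases onS_or_inL hK h7 with ⟨i, hi⟩ | ⟨i, hi⟩
  · exact ⟨i, hi.2.1, hi⟩
  · exfalso
    have h8 := hi.dim3
    have h9 := (onS_fr (base_fr hi.bd)).dim3
    have h10 : S.D c (S.hc c y 0) = S.D c y := hc_D hi.bd 0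
    omega

end col

end Crest.Agent.R096.Vrt_422
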