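import Crest.Agent.R096.Sla7_184
import Crest.Agent.R096.Vrt2_422

/-!
# Row 96 (S0127), (K4) over the layered mesh (helper527), part 3: the tiles of `T` around the
points of the layers of `Sla`.
-/

set_option autoImplicit false
set_option linter.unusedSectionVars false
set_option linter.unusedVariables false

open Set Relation Module

namespace Crest.Agent.R096.Kin_527

open Crest.Agent.R096.Msh_715 Crest.Agent.R096.Agl5_543 Crest.Agent.R096.Sla_184
  Crest.Agent.R096.Sla_184.Sla Crest.Agent.R096.Vrt_422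

variable {E : Type} [NormedAddCommGroup E] [NormedSpace ℝ E] [FiniteDimensional ℝ E]
variable {Om : Set E} {ι κ : Type} {T : Tiling Om ι} {S : Sla T κ} {c : κ} {x y v w : E} {j : ℕ}
  {i : ι}

/-- the virtual cell of a point of the band lies in every inner tile at the point -/
theorem C_sub_tile (hx : x ∈ S.Bd c) (hi : P (T.H i) ⊆ S.K c) (hxi : x ∈ P (T.H i)) :
    S.C c x ⊆ P (T.H i) := by
  obtain ⟨z, hz⟩ := T.ne i
  have hzK : z ∈ interior (S.K c) := interior_maximal ((I_sub_P _).trans hi) (isOpen_I _) hz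
  have h1 : x ∈ T.cc z := by rw [T.cc_eq_tile hz]; exact hxi
  have h2 := dn_cc hx (in_iff.2 hzK) h1
  have h3 := T.cc_sub_of_mem h2
  rw [T.cc_eq_tile hz] at h3
  exact h3

/-- an inner point of a column: the foot is in every tile at the point -/
theorem foot_mem (hv : v ∈ S.Bd c) (hw : w ∈ S.O c v) (hi : P (T.H i) ⊆ S.K c)
    (hwi : w ∈ P (T.H i)) : v ∈ P (T.H i) :=
  C_sub_tile hw.1 hi hwi (O_C hw.1 (O_symm hv hw))

/-- a piece outside the remaining cores in a given tile at a given point -/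
theorem exists_out_piece (h3 : finrank ℝ E = 3) (hw : w ∈ Om) (hwi : w ∈ P (T.H i))
    (hout : ∀ c, w ∉ interior (S.KK c)) :
    ∃ p : T.RIdx S.HH, p.tile = i ∧ w ∈ P (S.T3.H p) ∧ ∀ k, ¬ P (S.T3.H p) ⊆ S.KK k := by
  rcases S.tile_or i with hi | ⟨c, hi⟩
  · refine ⟨S.ot i hi, rfl, by rw [ot_P hi]; exact hwi, fun k hk => hi k ?_⟩
    rw [ot_P hi] at hk
    exact hk.trans KK_K
  · have hwK : w ∈ S.K c := hi hwi
    have hφ : S.t c (S.n c) ≤ S.φ c w := by
      by_contra h
      push Not at h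
      exact hout c (mem_int_KK.2 ⟨hwK, h⟩)
    rcases hφ.lt_or_eq with h | h
    · obtain ⟨p, hp, hwp⟩ := T.exists_piece S.h0 hwi
      exact ⟨p, hp, hwp, fun k hk => Vrt_422.not_KK hwK h k (hk hwp)⟩
    · have hS : S.OnS c (S.n c) w := ⟨hwK, le_rfl, h.symm⟩
      -- an inner point of the tile in the band
      obtain ⟨z, hz⟩ := T.ne i
      have hA := S.aff c i hi
      have hzi : z ∈ P (T.H i) := I_sub_P _ hz
      obtain ⟨s, hs0, hs1, hs⟩ : ∃ s : ℝ, 0 < s ∧ s ≤ 1 ∧
          S.a c < S.φ c w + s * (S.φ c z - S.φ c w) := by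
        have ha : S.a c < S.φ c w := hS.bd.2
        by_cases hzw : S.φ c w ≤ S.φ c z
        · exact ⟨1, one_pos, le_rfl, by linarith⟩
        · push Not at hzw
          have hD : 0 < S.φ c w - S.φ c z := by linarith
          refine ⟨min 1 ((S.φ c w - S.a c) / (2 * (S.φ c w - S.φ c z))), ?_, min_le_left _ _, ?_⟩
          · have : 0 < S.φ c w - S.a c := by linarith
            positivity
          · have h1 : min 1 ((S.φ c w - S.a c) / (2 * (S.φ c w - S.φ c z))) *
                (S.φ c w - S.φ c z) ≤ (S.φ c w - S.a c) / 2 := by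
              calc _ ≤ (S.φ c w - S.a c) / (2 * (S.φ c w - S.φ c z)) * (S.φ c w - S.φ c z) :=
                    mul_le_mul_of_nonneg_right (min_le_right _ _) hD.le
                _ = _ := by field_simp
            nlinarith
      have hy : w + s • (z - w) ∈ I (T.H i) := mem_I_of_move hwi hz hs0 hs1
      set y := w + s • (z - w) with hydef
      have hyP : y ∈ P (T.H i) := I_sub_P _ hy
      have hyφ : S.φ c y = S.φ c w + s * (S.φ c z - S.φ c w) := hA.line hwi hzi hyP
      have hyI : S.In c y :=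
        in_iff.2 (interior_maximal ((I_sub_P _).trans hi) (isOpen_I _) hy)
      have hyB : y ∈ S.Bo c := ⟨hyI, by rw [hyφ]; exact hs⟩
      have hyd : T.dim y = 3 := by
        have h1 := (T.V_eq_top_iff (T.sub i hyP)).2 ⟨i, hy⟩
        show finrank ℝ (T.V y) = 3
        rw [h1, finrank_top, h3]
      have hyD : S.D c y = 3 := by rw [D_in hyI, hyd]
      have hyb := Bo_sub hyB
      have hbd : T.dim (S.hc c y 0) = 2 := by have := base_dim hyb; omega
      let G := fx h3 (base_fr hyb) hbd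
      have hG : G.1.1.pt ∈ S.O c y :=
        O_trans hyb (hc_O hyb 0) (fx_O (base_fr hyb) hbd)
      have hC : S.C c G.1.1.pt = P (T.H i) := by
        rw [C_eq hyb hG]
        unfold Sla.C
        rw [dn_in hyI, T.cc_eq_tile hy]
      have hn := S.npos c
      have hj : S.n c - 1 < S.n c := by omega
      have hj1 : S.n c - 1 + 1 = S.n c := by omega
      refine ⟨tg G (S.n c - 1), ?_, ?_, tg_not G hj⟩
      · obtain ⟨x0, hx0⟩ := (tg G (S.n c - 1)).ne
        have h1 : x0 ∈ P (S.T3.H (tg G (S.n c - 1))) := I_sub_P _ hx0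
        have h2 := ((tg_P G hj).1 h1).1
        rw [hC] at h2
        have h4 : x0 ∈ I (T.H (tg G (S.n c - 1)).tile) := (tg G (S.n c - 1)).I_sub hx0
        have h5 : i ∈ T.at_ x0 := h2
        rw [T.at_eq_singleton h4, mem_singleton_iff] at h5
        exact h5.symm
      · refine (tg_P G hj).2 ⟨by rw [hC]; exact hwi, ?_, ?_⟩
        · rw [hj1]; exact h.le
        · rw [← h]; exact S.t_le (by omega) le_rfl

/-- **the foot of a vertex of a layer** -/
theorem exists_foot [Nonempty S.T3.Cell] (h3 : finrank ℝ E = 3) (hx : x ∈ S.K c) (hout : x ∉ interior (S.KK c))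
    (h0 : S.T3.dim x = 0) : ∃ j ≤ S.n c, ∃ v ∈ frontier (S.K c), T.dim v = 0 ∧
      x = S.hc c v j ∧ ∀ i, P (T.H i) ⊆ S.K c → x ∈ P (T.H i) → v ∈ P (T.H i) := by
  have hφ : S.t c (S.n c) ≤ S.φ c x := by
    by_contra h
    push Not at h
    exact hout (mem_int_KK.2 ⟨hx, h⟩)
  obtain ⟨j, hj, hS, hD⟩ := vert3 hx hφ h0
  obtain ⟨h1, h2, h4⟩ := vertex_col hS h0
  refine ⟨j, hj, S.hc c x 0, h1, h2, h4, fun i hi hxi => ?_⟩
  exact C_sub_tile hS.bd hi hxi (O_C hS.bd (hc_O hS.bd 0))

end Crest.Agent.R096.Kin_527
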