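import Mathlib

/-! Row 96, P1-LAB (helper184), part 2: counting labels on a circle. -/

set_option autoImplicit false

open Set Topology Filter Metric

namespace Crest.Agent.R096.Lab_184

variable {X : Type*} [TopologicalSpace X]

/-- a parametrised circle: `γ : ℝ → X` continuous, `2`-periodic, injective on `[0,2)` -/
structure Loop (γ : ℝ → X) (C : Set X) : Prop where
  cont : Continuous γ
  per : ∀ θ, γ (θ + 2) = γ θ
  inj : InjOn γ (Ico 0 2)
  img : γ '' (Ico 0 2) = C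

namespace Loop

variable {γ : ℝ → X} {C : Set X} (h : Loop γ C)

include h

theorem mem (θ : ℝ) (h0 : 0 ≤ θ) (h4 : θ < 4) : γ θ ∈ C := by
  rcases lt_or_ge θ 2 with h2 | h2
  · rw [← h.img]; exact ⟨θ, ⟨h0, h2⟩, rfl⟩
  · rw [← h.img]
    refine ⟨θ - 2, ⟨by linarith, by linarith⟩, ?_⟩
    rw [← h.per (θ - 2)]; congr 1; ring

theorem inj_shift {α : ℝ} (h0 : 0 ≤ α) (h2 : α ≤ 2) : InjOn γ (Ico α (α + 2)) := by
  intro x hx y hy hxy
  have key : ∀ z ∈ Ico α (α + 2), ∃ z' ∈ Ico (0 : ℝ) 2, γ z' = γ z ∧ (z = z' ∨ z = z' + 2) ∧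
      (z = z' ↔ z < 2) := by
    intro z hz
    rcases lt_or_ge z 2 with h3 | h3
    · exact ⟨z, ⟨h0.trans hz.1, h3⟩, rfl, Or.inl rfl, by simp [h3]⟩
    · refine ⟨z - 2, ⟨by linarith, by linarith [hz.2]⟩, ?_, Or.inr (by ring), ?_⟩
      · rw [← h.per (z - 2)]; congr 1; ring
      · constructor
        · intro h4; linarith
        · intro h4; linarith
  obtain ⟨x', hx', hx1, hx2, hx3⟩ := key x hx
  obtain ⟨y', hy', hy1, hy2, hy3⟩ := key y hy
  have h4 : x' = y' := h.inj hx' hy' (by rw [hx1, hy1, hxy])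
  subst h4
  rcases hx2 with rfl | hx2
  · rcases hy2 with h5 | h5
    · exact h5.symm
    · exfalso
      have := hx.1
      have := hy.2
      linarith
  · rcases hy2 with h5 | h5
    · exfalso
      have := hy.1
      have := hx.2
      linarith
    · linarith

/-- an arc between `a = γ α` and `b = γ β`, `α < β < α + 2`: a closed connected set `J` containing
`a, b`, such that `J \ {a,b}` is connected, is one of the two arcs. -/
theorem arc_aux {α β : ℝ} (h0 : 0 ≤ α) (hαβ : α < β) (hβ : β < α + 2) (hα2 : α ≤ 2)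
    {J : Set X} (hJ : IsPreconnected J) (ha : γ α ∈ J) (hb : γ β ∈ J) [T2Space X]
    (hsub : J \ {γ α, γ β} ⊆ γ '' Icc α β) : J = γ '' Icc α β := by
  have hinj := h.inj_shift h0 hα2
  apply Subset.antisymm
  · intro x hx
    by_cases hx2 : x ∈ ({γ α, γ β} : Set X)
    · rcases hx2 with rfl | hx2
      · exact ⟨α, ⟨le_rfl, hαβ.le⟩, rfl⟩
      · rw [mem_singleton_iff] at hx2; subst hx2
        exact ⟨β, ⟨hαβ.le, le_rfl⟩, rfl⟩
    · exact hsub ⟨hx, hx2⟩
  · rintro _ ⟨θ, hθ, rfl⟩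
    by_contra hθJ
    have hJsub : J ⊆ γ '' Icc α θ ∪ γ '' Icc θ β := by
      intro x hx
      have hx' : x ∈ γ '' Icc α β := by
        by_cases hx2 : x ∈ ({γ α, γ β} : Set X)
        · rcases hx2 with rfl | hx2
          · exact ⟨α, ⟨le_rfl, hαβ.le⟩, rfl⟩
          · rw [mem_singleton_iff] at hx2; subst hx2
            exact ⟨β, ⟨hαβ.le, le_rfl⟩, rfl⟩
        · exact hsub ⟨hx, hx2⟩
      obtain ⟨t, ht, rfl⟩ := hx'
      rcases le_total t θ with h1 | h1
      · left; exact ⟨t, ⟨ht.1, h1⟩, rfl⟩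
      · right; exact ⟨t, ⟨h1, ht.2⟩, rfl⟩
    have hcl1 : IsClosed (γ '' Icc α θ) := (isCompact_Icc.image h.cont).isClosed
    have hcl2 : IsClosed (γ '' Icc θ β) := (isCompact_Icc.image h.cont).isClosed
    obtain ⟨x, hxJ, ⟨t1, ht1, hx1⟩, ⟨t2, ht2, hx2⟩⟩ :=
      (isPreconnected_closed_iff.1 hJ) _ _ hcl1 hcl2 hJsub
        ⟨γ α, ha, α, ⟨le_rfl, hθ.1⟩, rfl⟩ ⟨γ β, hb, β, ⟨hθ.2, le_rfl⟩, rfl⟩
    have h5 : t1 = t2 := hinj ⟨ht1.1, by linarith [ht1.2, hθ.2]⟩
      ⟨hθ.1.trans ht2.1, by linarith [ht2.2]⟩ (hx1.trans hx2.symm)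
    have h6 : t1 = θ := le_antisymm ht1.2 (h5 ▸ ht2.1)
    rw [h6] at hx1
    rw [hx1] at hθJ
    exact hθJ hxJ

theorem arc [T2Space X] {α β : ℝ} (h0 : 0 ≤ α) (hαβ : α < β) (hβ : β < 2)
    {J : Set X} (hJ : IsPreconnected J) (ha : γ α ∈ J) (hb : γ β ∈ J)
    (hJC : J ⊆ C) (hJ' : IsPreconnected (J \ {γ α, γ β})) :
    J = γ '' Icc α β ∨ J = γ '' Icc β (α + 2) := by
  have hcl1 : IsClosed (γ '' Icc α β) := (isCompact_Icc.image h.cont).isClosed
  have hcl2 : IsClosed (γ '' Icc β (α + 2)) := (isCompact_Icc.image h.cont).isClosed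
  have hcov : J \ {γ α, γ β} ⊆ γ '' Icc α β ∪ γ '' Icc β (α + 2) := by
    intro x hx
    have hxC := hJC hx.1
    rw [← h.img] at hxC
    obtain ⟨t, ht, rfl⟩ := hxC
    rcases lt_or_ge t α with h1 | h1
    · right
      refine ⟨t + 2, ⟨by linarith [ht.1], by linarith⟩, h.per t⟩
    · rcases le_total t β with h2 | h2
      · left; exact ⟨t, ⟨h1, h2⟩, rfl⟩
      · right; exact ⟨t, ⟨h2, by linarith [ht.2]⟩, rfl⟩
  have hdis : ∀ x ∈ J \ {γ α, γ β}, x ∈ γ '' Icc α β → x ∈ γ '' Icc β (α + 2) → False := by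
    rintro x ⟨_, hx⟩ ⟨t1, ht1, rfl⟩ ⟨t2, ht2, hx2⟩
    rcases eq_or_lt_of_le ht2.2 with h3 | h3
    · rw [h3, h.per] at hx2
      exact hx (Or.inl hx2.symm)
    · have := h.inj_shift h0 (by linarith) ⟨ht1.1, by linarith [ht1.2]⟩
        ⟨by linarith [ht2.1], h3⟩ hx2.symm
      subst this
      have : t1 = β := le_antisymm ht1.2 ht2.1
      subst this
      exact hx (Or.inr rfl)
  have hor : J \ {γ α, γ β} ⊆ γ '' Icc α β ∨ J \ {γ α, γ β} ⊆ γ '' Icc β (α + 2) := by
    by_contra hcon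
    push Not at hcon
    obtain ⟨h1, h2⟩ := hcon
    obtain ⟨x, hx, hx1⟩ := not_subset.1 h1
    obtain ⟨y, hy, hy1⟩ := not_subset.1 h2
    have hx2 := (hcov hx).resolve_left hx1
    have hy2 := (hcov hy).resolve_right hy1
    obtain ⟨z, hz, hz1, hz2⟩ := (isPreconnected_closed_iff.1 hJ') _ _ hcl1 hcl2 hcov
      ⟨y, hy, hy2⟩ ⟨x, hx, hx2⟩
    exact hdis z hz hz1 hz2
  rcases hor with h1 | h1
  · left
    exact h.arc_aux h0 hαβ (by linarith) (by linarith) hJ ha hb h1
  · right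
    have hpa : γ (α + 2) = γ α := h.per α
    refine h.arc_aux (α := β) (β := α + 2) (by linarith) (by linarith) (by linarith) (by linarith)
      hJ hb (by rw [hpa]; exact ha) ?_
    rw [hpa, pair_comm]; exact h1

/-- the position of a point -/
noncomputable def _root_.Crest.Agent.R096.Lab_184.lpos (γ : ℝ → X) (p : X) : ℝ :=
  Function.invFunOn γ (Ico 0 2) p

theorem lpos_mem {p : X} (hp : p ∈ C) : lpos γ p ∈ Ico (0 : ℝ) 2 ∧ γ (lpos γ p) = p := by
  rw [← h.img] at hp
  exact ⟨Function.invFunOn_mem hp, Function.invFunOn_eq hp⟩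

theorem lpos_eq {t : ℝ} (ht : t ∈ Ico (0 : ℝ) 2) : lpos γ (γ t) = t := by
  have h1 := h.lpos_mem (p := γ t) (by rw [← h.img]; exact ⟨t, ht, rfl⟩)
  exact h.inj h1.1 ht h1.2

theorem mem_arc1 {α β : ℝ} (h0 : 0 ≤ α) (hβ : β < 2) {p : X} (hp : p ∈ C) :
    p ∈ γ '' Icc α β ↔ α ≤ lpos γ p ∧ lpos γ p ≤ β := by
  constructor
  · rintro ⟨t, ht, rfl⟩
    rw [h.lpos_eq ⟨h0.trans ht.1, ht.2.trans_lt hβ⟩]; exact ht
  · intro h1
    exact ⟨lpos γ p, h1, (h.lpos_mem hp).2⟩

theorem mem_arc2 {α β : ℝ} (h0 : 0 ≤ α) (hαβ : α < β) (hβ : β < 2) {p : X} (hp : p ∈ C) :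
    p ∈ γ '' Icc β (α + 2) ↔ lpos γ p ≤ α ∨ β ≤ lpos γ p := by
  constructor
  · rintro ⟨t, ht, rfl⟩
    rcases lt_or_ge t 2 with h1 | h1
    · rw [h.lpos_eq ⟨by linarith [ht.1], h1⟩]; right; exact ht.1
    · have : γ t = γ (t - 2) := by rw [← h.per (t - 2)]; congr 1; ring
      rw [this, h.lpos_eq ⟨by linarith, by linarith [ht.2]⟩]; left; linarith [ht.2]
  · rintro (h1 | h1)
    · refine ⟨lpos γ p + 2, ⟨by linarith [(h.lpos_mem hp).1.1], by linarith⟩, ?_⟩
      rw [h.per]; exact (h.lpos_mem hp).2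
    · exact ⟨lpos γ p, ⟨h1, by linarith [(h.lpos_mem hp).1.2]⟩, (h.lpos_mem hp).2⟩

/-- the number of points of `Q` before `p` -/
noncomputable def _root_.Crest.Agent.R096.Lab_184.cnt (γ : ℝ → X) (Q : Finset X) (p : X) : ℕ :=
  by classical exact (Q.filter fun w => lpos γ w < lpos γ p).card

/-- the counting label changes along an arc by the number of points on the arc -/
theorem arc_count [T2Space X] {Q : Finset X} (hQ : ↑Q ⊆ C) (heven : Even Q.card) {a b : X}
    (hab : a ≠ b) {J : Set X} (hJ : IsPreconnected J) (ha : a ∈ J) (hb : b ∈ J) (haQ : a ∉ Q)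
    (hbQ : b ∉ Q) (hJC : J ⊆ C) (hJ' : IsPreconnected (J \ {a, b})) [DecidablePred (· ∈ J)] :
    ((cnt γ Q a : ℕ) : ZMod 2) + (cnt γ Q b : ℕ) = ((Q.filter (· ∈ J)).card : ZMod 2) := by
  classical
  -- WLOG `pos a < pos b`
  have main : ∀ a b : X, a ∈ J → b ∈ J → a ∉ Q → b ∉ Q → IsPreconnected (J \ {a, b}) →
      lpos γ a < lpos γ b →
      ((cnt γ Q a : ℕ) : ZMod 2) + (cnt γ Q b : ℕ) = ((Q.filter (· ∈ J)).card : ZMod 2) := by
    intro a b ha hb haQ hbQ hJ' hlt
    obtain ⟨⟨ha0, ha2⟩, hga⟩ := h.lpos_mem (hJC ha)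
    obtain ⟨⟨hb0, hb2⟩, hgb⟩ := h.lpos_mem (hJC hb)
    set α := lpos γ a with hα
    set β := lpos γ b with hβ
    have hpe : ∀ w ∈ Q, lpos γ w ≠ α ∧ lpos γ w ≠ β := by
      intro w hw
      have hwC : w ∈ C := hQ hw
      have hgw := (h.lpos_mem hwC).2
      constructor
      · intro h1; apply haQ; rw [h1, hga] at hgw; rwa [hgw]
      · intro h1; apply hbQ; rw [h1, hgb] at hgw; rwa [hgw]
    have hsplit : (Q.filter fun w => lpos γ w < β).card =
        (Q.filter fun w => lpos γ w < α).card +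
          (Q.filter fun w => α < lpos γ w ∧ lpos γ w < β).card := by
      rw [← Finset.card_union_of_disjoint]
      · congr 1
        ext w
        simp only [Finset.mem_filter, Finset.mem_union]
        constructor
        · rintro ⟨h1, h2⟩
          rcases lt_or_gt_of_ne (hpe w h1).1 with h3 | h3
          · left; exact ⟨h1, h3⟩
          · right; exact ⟨h1, h3, h2⟩
        · rintro (⟨h1, h2⟩ | ⟨h1, h2, h3⟩)
          · exact ⟨h1, h2.trans hlt⟩
          · exact ⟨h1, h3⟩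
      · rw [Finset.disjoint_left]
        intro w h1 h2
        have := (Finset.mem_filter.1 h1).2
        have := (Finset.mem_filter.1 h2).2.1
        linarith
    have hA : ((cnt γ Q a : ℕ) : ZMod 2) + (cnt γ Q b : ℕ) =
        ((Q.filter fun w => α < lpos γ w ∧ lpos γ w < β).card : ZMod 2) := by
      have e1 : cnt γ Q a = (Q.filter fun w => lpos γ w < α).card := rfl
      have e2 : cnt γ Q b = (Q.filter fun w => lpos γ w < β).card := rfl
      rw [e1, e2, hsplit]
      push_cast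
      rw [← add_assoc, CharTwo.add_self_eq_zero, zero_add]
    rw [hA]
    rcases h.arc ha0 hlt hb2 hJ (by rw [hga]; exact ha) (by rw [hgb]; exact hb) hJC
      (by rw [hga, hgb]; exact hJ') with hJe | hJe
    · congr 2
      ext w
      simp only [Finset.mem_filter]
      constructor
      · rintro ⟨h1, h2, h3⟩
        refine ⟨h1, ?_⟩
        rw [hJe, h.mem_arc1 ha0 hb2 (hQ h1)]
        exact ⟨h2.le, h3.le⟩
      · rintro ⟨h1, h2⟩
        rw [hJe, h.mem_arc1 ha0 hb2 (hQ h1)] at h2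
        exact ⟨h1, lt_of_le_of_ne h2.1 (Ne.symm (hpe w h1).1), lt_of_le_of_ne h2.2 (hpe w h1).2⟩
    · have hsum : Q.card = (Q.filter fun w => α < lpos γ w ∧ lpos γ w < β).card +
          (Q.filter (· ∈ J)).card := by
        rw [← Finset.card_union_of_disjoint]
        · congr 1
          ext w
          simp only [Finset.mem_filter, Finset.mem_union]
          constructor
          · intro h1
            by_cases h2 : α < lpos γ w ∧ lpos γ w < β
            · left; exact ⟨h1, h2⟩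
            · right
              refine ⟨h1, ?_⟩
              rw [hJe, h.mem_arc2 ha0 hlt hb2 (hQ h1)]
              rcases le_or_gt (lpos γ w) α with h3 | h3
              · left; exact h3
              · right; by_contra h4; push Not at h4; exact h2 ⟨h3, h4⟩
          · rintro (h1 | h1) <;> exact h1.1
        · rw [Finset.disjoint_left]
          intro w h1 h2
          obtain ⟨h3, h4, h5⟩ := Finset.mem_filter.1 h1
          have h6 := (Finset.mem_filter.1 h2).2
          rw [hJe, h.mem_arc2 ha0 hlt hb2 (hQ h3)] at h6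
          rcases h6 with h6 | h6 <;> linarith
      have h7 : ((Q.card : ℕ) : ZMod 2) = 0 := by
        rw [ZMod.natCast_eq_zero_iff]; exact heven.two_dvd
      rw [hsum] at h7
      push_cast at h7
      exact CharTwo.add_eq_zero.1 h7
  have hne : lpos γ a ≠ lpos γ b := by
    intro h1
    have h2 := (h.lpos_mem (hJC ha)).2
    have h3 := (h.lpos_mem (hJC hb)).2
    rw [h1, h3] at h2
    exact hab h2.symm
  rcases lt_or_gt_of_ne hne with h1 | h1
  · exact main a b ha hb haQ hbQ hJ' h1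
  · rw [add_comm]
    exact main b a hb ha hbQ haQ (by rw [pair_comm]; exact hJ') h1

end Loop

end Crest.Agent.R096.Lab_184
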