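import Crest.Agent.R096.Agl5_543

/-!
# Row 96, DOORS / SLC (helper316), part 1: the interlacing relation of a 2-cell, topologically

* `LaceR a b c d` : the pairs `{a,b}`, `{c,d}` of reals are interlaced.
* `C2.lace_iff_conn` : on a 2-cell, `{u,v}` and `{x,y}` are interlaced iff no preconnected subset of
  the boundary circle minus `{u,v}` contains `x` and `y`.
* `C2.lace_map` : an injective continuous map between the boundaries of two 2-cells preserves `Lace`.
* `C2.lace_loop` : reading off `Lace` from any parametrised simple loop in the boundary.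
-/

set_option autoImplicit false

open Set Metric Filter Topology

namespace Crest.Agent.R096.Lac_316

open Crest.Agent.R096.St_147 Crest.Agent.R096.Msh_715 Crest.Agent.R096.Agl5_543
  Crest.Agent.R096.Pat5_543

/-- the pairs `{a, b}` and `{c, d}` of real numbers are interlaced -/
def LaceR (a b c d : ℝ) : Prop :=
  ¬ (((a < c ∧ c < b) ∨ (b < c ∧ c < a)) ↔ ((a < d ∧ d < b) ∨ (b < d ∧ d < a)))

theorem lace_def {ι Φ W : Type} (M : MeshC ι Φ W) (F : Φ) (u v x y : W) :
    M.Lace F u v x y ↔ LaceR (M.pos F u) (M.pos F v) (M.pos F x) (M.pos F y) := Iff.rfl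

/-- **three pairings**: four different reals form exactly one interlaced pair of pairs -/
theorem laceR_iff {a b c d : ℝ} (hab : a ≠ b) (hac : a ≠ c) (had : a ≠ d) (hbc : b ≠ c)
    (hbd : b ≠ d) (hcd : c ≠ d) : LaceR a b c d ↔ ¬ LaceR a c b d ∧ ¬ LaceR a d b c := by
  have e1 : b < a ↔ ¬ a < b := by rw [not_lt]; exact ⟨le_of_lt, fun h => lt_of_le_of_ne h hab.symm⟩
  have e2 : c < a ↔ ¬ a < c := by rw [not_lt]; exact ⟨le_of_lt, fun h => lt_of_le_of_ne h hac.symm⟩
  have e3 : d < a ↔ ¬ a < d := by rw [not_lt]; exact ⟨le_of_lt, fun h => lt_of_le_of_ne h had.symm⟩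
  have e4 : c < b ↔ ¬ b < c := by rw [not_lt]; exact ⟨le_of_lt, fun h => lt_of_le_of_ne h hbc.symm⟩
  have e5 : d < b ↔ ¬ b < d := by rw [not_lt]; exact ⟨le_of_lt, fun h => lt_of_le_of_ne h hbd.symm⟩
  have e6 : d < c ↔ ¬ c < d := by rw [not_lt]; exact ⟨le_of_lt, fun h => lt_of_le_of_ne h hcd.symm⟩
  unfold LaceR
  rw [e1, e2, e3, e4, e5, e6]
  by_cases h1 : a < b <;> by_cases h2 : a < c <;> by_cases h3 : a < d <;> by_cases h4 : b < c <;>
    by_cases h5 : b < d <;> by_cases h6 : c < d <;> simp only [h1, h2, h3, h4, h5, h6] <;>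
    first
      | (simp; done)
      | (exfalso; simp only [not_lt] at *; linarith)

theorem LaceR.swap {a b c d : ℝ} : LaceR a b c d ↔ LaceR a b d c := by
  unfold LaceR
  exact not_congr iff_comm

theorem LaceR.swap' {a b c d : ℝ} : LaceR a b c d ↔ LaceR b a c d := by
  unfold LaceR
  rw [or_comm, or_comm (a := a < d ∧ d < b)]


/-! ### the boundary circle of a 2-cell -/

section cell

variable {E : Type} [NormedAddCommGroup E] [NormedSpace ℝ E] [FiniteDimensional ℝ E]
variable {Om : Set E} {ι : Type} {T : Tiling Om ι}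

/-- the boundary point with angle `s` -/
noncomputable def cir (F : C2 T) (s : ℝ) : E := F.par (Complex.exp ((s : ℂ) * Complex.I))

theorem exp_mem (s : ℝ) : Complex.exp ((s : ℂ) * Complex.I) ∈ sphere (0 : ℂ) 1 := by
  rw [mem_sphere_zero_iff_norm, Complex.norm_exp_ofReal_mul_I]

theorem cir_mem (F : C2 T) (s : ℝ) : cir F s ∈ F.bd := by
  rw [← F.isDisc.bd]
  exact mem_image_of_mem _ (exp_mem s)

theorem continuous_cir (F : C2 T) : Continuous (cir F) :=
  F.isDisc.cont.comp_continuous (by fun_prop) fun s => sphere_subset_closedBall (exp_mem s)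

theorem cir_add (F : C2 T) (s : ℝ) : cir F (s + 2 * Real.pi) = cir F s := by
  unfold cir
  congr 1
  rw [Complex.ofReal_add, add_mul, Complex.exp_add]
  have : Complex.exp (((2 * Real.pi : ℝ) : ℂ) * Complex.I) = 1 := by
    rw [Complex.ofReal_mul, Complex.ofReal_ofNat]
    exact Complex.exp_two_pi_mul_I
  rw [this, mul_one]

theorem pos_cir (F : C2 T) {s : ℝ} (h1 : -Real.pi < s) (h2 : s ≤ Real.pi) :
    F.pos (cir F s) = s := by
  unfold C2.pos cir
  rw [F.inv_par (sphere_subset_closedBall (exp_mem s)), Complex.arg_exp_mul_I]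
  exact (toIocMod_eq_self Real.two_pi_pos).2 ⟨h1, by linarith⟩

theorem cir_pos (F : C2 T) {w : E} (hw : w ∈ F.bd) : cir F (F.pos w) = w := by
  unfold cir
  rw [F.exp_pos hw]
  exact (F.inv_mem (F.bd_sub hw)).2

/-- a preconnected subset of the circle minus `{u, v}` stays on one side -/
theorem not_lace_of_conn (F : C2 T) {u v x y : E} (hu : u ∈ F.bd) (hv : v ∈ F.bd) {K : Set E}
    (hK : IsPreconnected K) (hKF : K ⊆ F.bd) (huK : u ∉ K) (hvK : v ∉ K) (hx : x ∈ K)
    (hy : y ∈ K) : ¬ LaceR (F.pos u) (F.pos v) (F.pos x) (F.pos y) := by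
  -- reduction to `pos u ≤ pos v`
  have main : ∀ u v : E, u ∈ F.bd → v ∈ F.bd → u ∉ K → v ∉ K → F.pos u ≤ F.pos v →
      ∀ x y : E, x ∈ K → y ∈ K → F.pos u < F.pos x → F.pos x < F.pos v →
        F.pos u < F.pos y ∧ F.pos y < F.pos v := by
    intro u v hu hv huK hvK huv x y hx hy h1 h2
    by_contra hcon
    set a := F.pos u with ha
    set b := F.pos v with hb
    have hpi := F.pos_le_pi v
    have hpi' := F.neg_pi_lt_pos u
    set A : Set E := cir F '' Icc a b with hA
    set B : Set E := cir F '' Icc b (a + 2 * Real.pi) with hB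
    have hAc : IsClosed A := (isCompact_Icc.image (continuous_cir F)).isClosed
    have hBc : IsClosed B := (isCompact_Icc.image (continuous_cir F)).isClosed
    have hcov : K ⊆ A ∪ B := by
      intro w hw
      have hwb := hKF hw
      by_cases hwa : a ≤ F.pos w ∧ F.pos w ≤ b
      · exact Or.inl ⟨F.pos w, hwa, cir_pos F hwb⟩
      · right
        by_cases hlt : F.pos w < a
        · refine ⟨F.pos w + 2 * Real.pi, ⟨?_, by linarith⟩, ?_⟩
          · have := F.neg_pi_lt_pos w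
            linarith
          · rw [cir_add]; exact cir_pos F hwb
        · have hb' : b < F.pos w := by
            by_contra h
            exact hwa ⟨not_lt.1 hlt, not_lt.1 h⟩
          refine ⟨F.pos w, ⟨hb'.le, ?_⟩, cir_pos F hwb⟩
          have := F.pos_le_pi w
          linarith
    have hyB : y ∈ B := by
      rcases hcov hy with h | h
      · exfalso
        obtain ⟨s, hs, hsy⟩ := h
        have h3 : F.pos y = s := by
          rw [← hsy, pos_cir F (by linarith [hs.1]) (by linarith [hs.2])]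
        apply hcon
        rw [h3]
        refine ⟨lt_of_le_of_ne hs.1 ?_, lt_of_le_of_ne hs.2 ?_⟩
        · intro e
          apply huK
          rw [← cir_pos F hu, ← ha, e, hsy]
          exact hy
        · intro e
          apply hvK
          rw [← cir_pos F hv, ← hb, ← e, hsy]
          exact hy
      · exact h
    obtain ⟨z, hzK, ⟨s, hs, hsz⟩, ⟨t, ht, htz⟩⟩ := (isPreconnected_closed_iff.1 hK) A B hAc hBc
      hcov ⟨x, hx, F.pos x, ⟨h1.le, h2.le⟩, cir_pos F (hKF hx)⟩ ⟨y, hy, hyB⟩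
    have h3 : F.pos z = s := by
      rw [← hsz, pos_cir F (by linarith [hs.1]) (by linarith [hs.2])]
    have hsu : s ≠ a := by
      intro e
      apply huK
      rw [← cir_pos F hu, ← ha, ← e, hsz]
      exact hzK
    have hsv : s ≠ b := by
      intro e
      apply hvK
      rw [← cir_pos F hv, ← hb, ← e, hsz]
      exact hzK
    have hs1 : a < s := lt_of_le_of_ne hs.1 hsu.symm
    have hs2 : s < b := lt_of_le_of_ne hs.2 hsv
    by_cases htp : t ≤ Real.pi
    · have h4 : F.pos z = t := by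
        rw [← htz, pos_cir F (by linarith [ht.1]) htp]
      have := ht.1
      linarith
    · have h4 : F.pos z = t - 2 * Real.pi := by
        have h5 : cir F (t - 2 * Real.pi) = z := by
          rw [← htz, ← cir_add F (t - 2 * Real.pi)]
          congr 1
          ring
        rw [← h5, pos_cir F (by linarith) (by linarith [ht.2])]
      have := ht.2
      linarith
  intro hL
  rcases le_total (F.pos u) (F.pos v) with huv | huv
  · apply hL
    constructor
    · rintro (⟨h1, h2⟩ | ⟨h1, h2⟩)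
      · exact Or.inl (main u v hu hv huK hvK huv x y hx hy h1 h2)
      · exfalso; linarith
    · rintro (⟨h1, h2⟩ | ⟨h1, h2⟩)
      · exact Or.inl (main u v hu hv huK hvK huv y x hy hx h1 h2)
      · exfalso; linarith
  · apply hL
    constructor
    · rintro (⟨h1, h2⟩ | ⟨h1, h2⟩)
      · exfalso; linarith
      · exact Or.inr (main v u hv hu hvK huK huv x y hx hy h1 h2)
    · rintro (⟨h1, h2⟩ | ⟨h1, h2⟩)
      · exfalso; linarith
      · exact Or.inr (main v u hv hu hvK huK huv y x hy hx h1 h2)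

end cell

/-! ### real numbers: the arc between two numbers -/

/-- not interlaced in a loop `[α, β]` with `α ~ β`: an arc from `c` to `d` missing `a` and `b` -/
theorem exists_arc {a b c d : ℝ} (hac : a ≠ c) (had : a ≠ d) (hbc : b ≠ c) (hbd : b ≠ d)
    (h : ¬ LaceR a b c d) : (∀ s ∈ uIcc c d, s ≠ a ∧ s ≠ b) ∨
      (∀ s, s ≤ min c d → s ≠ a ∧ s ≠ b) ∧ (∀ s, max c d ≤ s → s ≠ a ∧ s ≠ b) := by
  rw [LaceR, not_not] at h
  by_cases h1 : a ∈ uIcc c d ∨ b ∈ uIcc c d
  · right
    -- both numbers are inside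
    have key : (min c d < a ∧ a < max c d) ∧ (min c d < b ∧ b < max c d) := by
      have aux : ∀ a b c d : ℝ, a ≠ c → a ≠ d → b ≠ c → b ≠ d → c ≤ d →
          (((a < c ∧ c < b) ∨ (b < c ∧ c < a)) ↔ ((a < d ∧ d < b) ∨ (b < d ∧ d < a))) →
          c ≤ a → a ≤ d → (c < a ∧ a < d) ∧ (c < b ∧ b < d) := by
        intro a b c d hac had hbc hbd hcd h h2 h3
        have h2' := lt_of_le_of_ne h2 hac.symm
        have h3' := lt_of_le_of_ne h3 had
        refine ⟨⟨h2', h3'⟩, ?_⟩
        by_contra hcon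
        rcases lt_or_gt_of_ne hbc with h4 | h4
        · rcases h.1 (Or.inr ⟨h4, h2'⟩) with h5 | h5 <;> linarith [h5.1, h5.2]
        · have h5 : d < b := by
            by_contra h6
            exact hcon ⟨h4, lt_of_le_of_ne (not_lt.1 h6) hbd⟩
          rcases h.2 (Or.inl ⟨h3', h5⟩) with h6 | h6 <;> linarith [h6.1, h6.2]
      have h' : (((b < c ∧ c < a) ∨ (a < c ∧ c < b)) ↔ ((b < d ∧ d < a) ∨ (a < d ∧ d < b))) := by
        rw [or_comm, h, or_comm]
      rcases le_total c d with hcd | hcd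
      · rw [min_eq_left hcd, max_eq_right hcd]
        rw [uIcc_of_le hcd, mem_Icc, mem_Icc] at h1
        rcases h1 with h1 | h1
        · exact aux a b c d hac had hbc hbd hcd h h1.1 h1.2
        · exact (aux b a c d hbc hbd hac had hcd h' h1.1 h1.2).symm
      · rw [min_eq_right hcd, max_eq_left hcd]
        rw [uIcc_of_ge hcd, mem_Icc, mem_Icc] at h1
        rcases h1 with h1 | h1
        · exact aux a b d c had hac hbd hbc hcd h.symm h1.1 h1.2
        · exact (aux b a d c hbd hbc had hac hcd h'.symm h1.1 h1.2).symm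
    refine ⟨fun s hs => ⟨?_, ?_⟩, fun s hs => ⟨?_, ?_⟩⟩
    · intro e; rw [e] at hs; exact absurd key.1.1 (not_lt.2 hs)
    · intro e; rw [e] at hs; exact absurd key.2.1 (not_lt.2 hs)
    · intro e; rw [e] at hs; exact absurd key.1.2 (not_lt.2 hs)
    · intro e; rw [e] at hs; exact absurd key.2.2 (not_lt.2 hs)
  · left
    push Not at h1
    intro s hs
    exact ⟨fun e => h1.1 (e ▸ hs), fun e => h1.2 (e ▸ hs)⟩

section cell

variable {E : Type} [NormedAddCommGroup E] [NormedSpace ℝ E] [FiniteDimensional ℝ E]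
variable {Om : Set E} {ι : Type} {T : Tiling Om ι}
variable {X : Type*} [TopologicalSpace X]

omit [FiniteDimensional ℝ E] in
/-- not interlaced in a loop: a connected piece of the loop missing two points -/
theorem conn_of_loop {γ : ℝ → X} {α β : ℝ} (hγ : ContinuousOn γ (Icc α β)) (hαβ : α < β)
    (hper : γ α = γ β) (hinj : InjOn γ (Ico α β)) {a b c d : ℝ} (ha : a ∈ Ico α β)
    (hb : b ∈ Ico α β) (hc : c ∈ Ico α β) (hd : d ∈ Ico α β) (hac : a ≠ c) (had : a ≠ d)
    (hbc : b ≠ c) (hbd : b ≠ d) (h : ¬ LaceR a b c d) :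
    ∃ K : Set X, IsPreconnected K ∧ K ⊆ γ '' Icc α β ∧ γ a ∉ K ∧ γ b ∉ K ∧ γ c ∈ K ∧ γ d ∈ K := by
  have hne : ∀ s ∈ Icc α β, ∀ t ∈ Ico α β, s ≠ t → (s = β → t ≠ α) → γ s ≠ γ t := by
    intro s hs t ht hst hβ e
    rcases hs.2.lt_or_eq with h1 | h1
    · exact hst (hinj ⟨hs.1, h1⟩ ht e)
    · rw [h1, ← hper] at e
      exact hβ h1 (hinj ⟨le_rfl, hαβ⟩ ht e).symm
  rcases exists_arc hac had hbc hbd h with h1 | ⟨h1, h2⟩
  · have hsub : uIcc c d ⊆ Ico α β := by
      intro s hs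
      rw [mem_uIcc] at hs
      rcases hs with hs | hs
      · exact ⟨hc.1.trans hs.1, hs.2.trans_lt hd.2⟩
      · exact ⟨hd.1.trans hs.1, hs.2.trans_lt hc.2⟩
    refine ⟨γ '' uIcc c d, ?_, image_mono (hsub.trans Ico_subset_Icc_self), ?_, ?_,
      mem_image_of_mem _ left_mem_uIcc, mem_image_of_mem _ right_mem_uIcc⟩
    · exact isPreconnected_uIcc.image _ (hγ.mono (hsub.trans Ico_subset_Icc_self))
    · rintro ⟨s, hs, e⟩
      exact (h1 s hs).1 (hinj (hsub hs) ha e)
    · rintro ⟨s, hs, e⟩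
      exact (h1 s hs).2 (hinj (hsub hs) hb e)
  · -- the arc through the base point
    have hmin : α ≤ min c d := le_min hc.1 hd.1
    have hmax : max c d ≤ β := max_le hc.2.le hd.2.le
    have hminβ : min c d < β := (min_le_left _ _).trans_lt hc.2
    have hmaxα : α ≤ max c d := hc.1.trans (le_max_left _ _)
    refine ⟨γ '' Icc α (min c d) ∪ γ '' Icc (max c d) β, ?_, ?_, ?_, ?_, ?_, ?_⟩
    · refine IsPreconnected.union (γ α) (mem_image_of_mem _ ⟨le_rfl, hmin⟩)
        (by rw [hper]; exact mem_image_of_mem _ ⟨hmax, le_rfl⟩)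
        (isPreconnected_Icc.image _ (hγ.mono (Icc_subset_Icc_right hminβ.le)))
        (isPreconnected_Icc.image _ (hγ.mono (Icc_subset_Icc_left hmaxα)))
    · exact union_subset (image_mono (Icc_subset_Icc_right hminβ.le))
        (image_mono (Icc_subset_Icc_left hmaxα))
    · rintro (⟨s, hs, e⟩ | ⟨s, hs, e⟩)
      · exact (h1 s hs.2).1 (hinj ⟨hs.1, hs.2.trans_lt hminβ⟩ ha e)
      · exact hne s ⟨hmaxα.trans hs.1, hs.2⟩ a ha (h2 s hs.1).1
          (fun _ e' => (h1 a (by rw [e']; exact hmin)).1 rfl) e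
    · rintro (⟨s, hs, e⟩ | ⟨s, hs, e⟩)
      · exact (h1 s hs.2).2 (hinj ⟨hs.1, hs.2.trans_lt hminβ⟩ hb e)
      · exact hne s ⟨hmaxα.trans hs.1, hs.2⟩ b hb (h2 s hs.1).2
          (fun _ e' => (h1 b (by rw [e']; exact hmin)).2 rfl) e
    · rcases le_total c d with hcd | hcd
      · exact Or.inl (mem_image_of_mem _ ⟨hc.1, by rw [min_eq_left hcd]⟩)
      · exact Or.inr (mem_image_of_mem _ ⟨by rw [max_eq_left hcd], hc.2.le⟩)
    · rcases le_total c d with hcd | hcd
      · exact Or.inr (mem_image_of_mem _ ⟨by rw [max_eq_right hcd], hd.2.le⟩)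
      · exact Or.inl (mem_image_of_mem _ ⟨hd.1, by rw [min_eq_right hcd]⟩)

/-- **reading `Lace` from a parametrised simple loop in the boundary of a 2-cell** -/
theorem lace_loop (F : C2 T) {γ : ℝ → E} {α β : ℝ} (hγ : ContinuousOn γ (Icc α β)) (hαβ : α < β)
    (hper : γ α = γ β) (hinj : InjOn γ (Ico α β)) (hF : ∀ s ∈ Icc α β, γ s ∈ F.bd)
    {a b c d : ℝ} (ha : a ∈ Ico α β) (hb : b ∈ Ico α β) (hc : c ∈ Ico α β) (hd : d ∈ Ico α β)
    (hab : a ≠ b) (hac : a ≠ c) (had : a ≠ d) (hbc : b ≠ c) (hbd : b ≠ d) (hcd : c ≠ d) :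
    LaceR (F.pos (γ a)) (F.pos (γ b)) (F.pos (γ c)) (F.pos (γ d)) ↔ LaceR a b c d := by
  have one : ∀ a b c d : ℝ, a ∈ Ico α β → b ∈ Ico α β → c ∈ Ico α β → d ∈ Ico α β → a ≠ c →
      a ≠ d → b ≠ c → b ≠ d → ¬ LaceR a b c d →
      ¬ LaceR (F.pos (γ a)) (F.pos (γ b)) (F.pos (γ c)) (F.pos (γ d)) := by
    intro a b c d ha hb hc hd hac had hbc hbd h
    obtain ⟨K, hK, hKs, haK, hbK, hcK, hdK⟩ :=
      conn_of_loop hγ hαβ hper hinj ha hb hc hd hac had hbc hbd h
    refine not_lace_of_conn F (hF a (Ico_subset_Icc_self ha)) (hF b (Ico_subset_Icc_self hb)) hK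
      ?_ haK hbK hcK hdK
    intro z hz
    obtain ⟨s, hs, rfl⟩ := hKs hz
    exact hF s hs
  have hne : ∀ s ∈ Ico α β, ∀ t ∈ Ico α β, s ≠ t → F.pos (γ s) ≠ F.pos (γ t) := by
    intro s hs t ht hst e
    exact hst (hinj hs ht (F.pos_injOn (hF s (Ico_subset_Icc_self hs))
      (hF t (Ico_subset_Icc_self ht)) e))
  constructor
  · intro h
    by_contra h'
    exact one a b c d ha hb hc hd hac had hbc hbd h' h
  · intro h
    rw [laceR_iff hab hac had hbc hbd hcd] at h
    rw [laceR_iff (hne a ha b hb hab) (hne a ha c hc hac) (hne a ha d hd had)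
      (hne b hb c hc hbc) (hne b hb d hd hbd) (hne c hc d hd hcd)]
    exact ⟨one a c b d ha hc hb hd hab had hbc.symm hcd h.1,
      one a d b c ha hd hb hc hab hac hbd.symm hcd.symm h.2⟩

/-- the standard loop of a 2-cell -/
theorem not_lace_iff_conn (F : C2 T) {u v x y : E} (hu : u ∈ F.bd) (hv : v ∈ F.bd)
    (hx : x ∈ F.bd) (hy : y ∈ F.bd) (hux : u ≠ x) (huy : u ≠ y) (hvx : v ≠ x) (hvy : v ≠ y) :
    ¬ LaceR (F.pos u) (F.pos v) (F.pos x) (F.pos y) ↔
      ∃ K : Set E, IsPreconnected K ∧ K ⊆ F.bd ∧ u ∉ K ∧ v ∉ K ∧ x ∈ K ∧ y ∈ K := by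
  constructor
  · intro h
    -- the loop `s ↦ cir F s` on `(-π, π]`, reversed
    have hpi := Real.pi_pos
    have hm : ∀ w : E, -F.pos w ∈ Ico (-Real.pi) Real.pi := fun w =>
      ⟨neg_le_neg (F.pos_le_pi w), by have := F.neg_pi_lt_pos w; linarith⟩
    have hnl : ¬ LaceR (-F.pos u) (-F.pos v) (-F.pos x) (-F.pos y) := by
      intro h'
      apply h
      unfold LaceR at h' ⊢
      simp only [neg_lt_neg_iff] at h'
      intro h''
      apply h'
      constructor
      · rintro (⟨h1, h2⟩ | ⟨h1, h2⟩)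
        · rcases h''.1 (Or.inr ⟨h2, h1⟩) with h3 | h3
          · exact Or.inr ⟨h3.2, h3.1⟩
          · exact Or.inl ⟨h3.2, h3.1⟩
        · rcases h''.1 (Or.inl ⟨h2, h1⟩) with h3 | h3
          · exact Or.inr ⟨h3.2, h3.1⟩
          · exact Or.inl ⟨h3.2, h3.1⟩
      · rintro (⟨h1, h2⟩ | ⟨h1, h2⟩)
        · rcases h''.2 (Or.inr ⟨h2, h1⟩) with h3 | h3
          · exact Or.inr ⟨h3.2, h3.1⟩
          · exact Or.inl ⟨h3.2, h3.1⟩
        · rcases h''.2 (Or.inl ⟨h2, h1⟩) with h3 | h3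
          · exact Or.inr ⟨h3.2, h3.1⟩
          · exact Or.inl ⟨h3.2, h3.1⟩
    have hneq : ∀ {w z : E}, w ∈ F.bd → z ∈ F.bd → w ≠ z → -F.pos w ≠ -F.pos z := by
      intro w z hw hz hne e
      exact hne (F.pos_injOn hw hz (neg_inj.1 e))
    have hcn : ∀ {w : E}, w ∈ F.bd → cir F (- -F.pos w) = w := by
      intro w hw; rw [neg_neg]; exact cir_pos F hw
    obtain ⟨K, hK, hKs, h1, h2, h3, h4⟩ := conn_of_loop (γ := fun s => cir F (-s))
      (α := -Real.pi) (β := Real.pi) ((continuous_cir F).comp continuous_neg).continuousOn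
      (by linarith) (by
        show cir F (- -Real.pi) = cir F (-Real.pi)
        rw [neg_neg, ← cir_add F (-Real.pi)]
        congr 1; ring)
      (by
        intro s hs t ht e
        have h5 : F.pos (cir F (-s)) = F.pos (cir F (-t)) := congrArg F.pos e
        rw [pos_cir F (by linarith [hs.2]) (by linarith [hs.1]),
          pos_cir F (by linarith [ht.2]) (by linarith [ht.1])] at h5
        linarith) (hm u) (hm v) (hm x) (hm y) (hneq hu hx hux) (hneq hu hy huy)
      (hneq hv hx hvx) (hneq hv hy hvy) hnl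
    simp only [hcn hu, hcn hv, hcn hx, hcn hy] at h1 h2 h3 h4
    refine ⟨K, hK, ?_, h1, h2, h3, h4⟩
    intro z hz
    obtain ⟨s, -, rfl⟩ := hKs hz
    exact cir_mem F _
  · rintro ⟨K, hK, hKs, h1, h2, h3, h4⟩
    exact not_lace_of_conn F hu hv hK hKs h1 h2 h3 h4

variable {E' : Type} [NormedAddCommGroup E'] [NormedSpace ℝ E'] [FiniteDimensional ℝ E']
variable {Om' : Set E'} {ι' : Type} {T' : Tiling Om' ι'}

/-- **an injective continuous map between the boundaries of two 2-cells preserves `Lace`** -/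
theorem lace_map (F : C2 T) (F' : C2 T') {h : E → E'} (hc : ContinuousOn h F.bd)
    (hi : InjOn h F.bd) (hm : ∀ z ∈ F.bd, h z ∈ F'.bd) {u v x y : E} (hu : u ∈ F.bd)
    (hv : v ∈ F.bd) (hx : x ∈ F.bd) (hy : y ∈ F.bd) (huv : u ≠ v) (hux : u ≠ x) (huy : u ≠ y)
    (hvx : v ≠ x) (hvy : v ≠ y) (hxy : x ≠ y) :
    LaceR (F'.pos (h u)) (F'.pos (h v)) (F'.pos (h x)) (F'.pos (h y)) ↔
      LaceR (F.pos u) (F.pos v) (F.pos x) (F.pos y) := by
  have one : ∀ u v x y : E, u ∈ F.bd → v ∈ F.bd → x ∈ F.bd → y ∈ F.bd → u ≠ x → u ≠ y →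
      v ≠ x → v ≠ y → ¬ LaceR (F.pos u) (F.pos v) (F.pos x) (F.pos y) →
      ¬ LaceR (F'.pos (h u)) (F'.pos (h v)) (F'.pos (h x)) (F'.pos (h y)) := by
    intro u v x y hu hv hx hy hux huy hvx hvy hl
    obtain ⟨K, hK, hKs, h1, h2, h3, h4⟩ :=
      (not_lace_iff_conn F hu hv hx hy hux huy hvx hvy).1 hl
    refine not_lace_of_conn F' (hm u hu) (hm v hv) (hK.image _ (hc.mono hKs)) ?_ ?_ ?_
      (mem_image_of_mem _ h3) (mem_image_of_mem _ h4)
    · rintro _ ⟨z, hz, rfl⟩
      exact hm z (hKs hz)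
    · rintro ⟨z, hz, e⟩
      exact h1 (hi (hKs hz) hu e ▸ hz)
    · rintro ⟨z, hz, e⟩
      exact h2 (hi (hKs hz) hv e ▸ hz)
  have hne : ∀ {s t : E}, s ∈ F.bd → t ∈ F.bd → s ≠ t → F.pos s ≠ F.pos t := fun hs ht hst e =>
    hst (F.pos_injOn hs ht e)
  have hne' : ∀ {s t : E}, s ∈ F.bd → t ∈ F.bd → s ≠ t → F'.pos (h s) ≠ F'.pos (h t) :=
    fun hs ht hst e => hst (hi hs ht (F'.pos_injOn (hm _ hs) (hm _ ht) e))
  constructor
  · intro hl
    by_contra h'
    exact one u v x y hu hv hx hy hux huy hvx hvy h' hl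
  · intro hl
    rw [laceR_iff (hne hu hv huv) (hne hu hx hux) (hne hu hy huy) (hne hv hx hvx)
      (hne hv hy hvy) (hne hx hy hxy)] at hl
    rw [laceR_iff (hne' hu hv huv) (hne' hu hx hux) (hne' hu hy huy) (hne' hv hx hvx)
      (hne' hv hy hvy) (hne' hx hy hxy)]
    exact ⟨one u x v y hu hx hv hy huv huy hvx.symm hxy hl.1,
      one u y v x hu hy hv hx huv hux hvy.symm hxy.symm hl.2⟩

end cell

end Crest.Agent.R096.Lac_316
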