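import Crest.Agent.R096.Lac1_441
import Crest.Agent.R096.Door6_501

/-!
# Row 96 (helper441): the cyclic order on a vertical face (trapezoid) of a layer

* `qd q0 p0 p1 q1` : the loop `q0 → p0 → p1 → q1 → q0` on `[-1, 3]`;
* `Trap B q0 p0 p1 q1` : `B` is the union of the four sides, which only meet in the corners;
* `lace_vert` : the clause `lace_vf` of `Door6_501.Col`.
-/

set_option autoImplicit false

open Set

namespace Crest.Agent.R096.Lac_441

open Crest.Agent.R096.Agl5_543 Crest.Agent.R096.Agl1_543 Crest.Agent.R096.Agl2_543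
  Crest.Agent.R096.Agl3_543 Crest.Agent.R096.Pat5_543 Crest.Agent.R096.St_147
  Crest.Agent.R096.Msh_715 Crest.Agent.R096.Door_501

variable {E : Type} [NormedAddCommGroup E] [NormedSpace ℝ E]

/-- the clamp to `[0, 1]` -/
def cl1 (x : ℝ) : ℝ := max 0 (min 1 x)

theorem cl1_cont : Continuous cl1 := continuous_const.max (continuous_const.min continuous_id)

theorem cl1_of_le {x : ℝ} (h : x ≤ 0) : cl1 x = 0 := by
  unfold cl1
  rw [min_eq_right (h.trans zero_le_one), max_eq_left h]

theorem cl1_of_ge {x : ℝ} (h : 1 ≤ x) : cl1 x = 1 := by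
  unfold cl1
  rw [min_eq_left h, max_eq_right zero_le_one]

theorem cl1_of_mem {x : ℝ} (h0 : 0 ≤ x) (h1 : x ≤ 1) : cl1 x = x := by
  unfold cl1
  rw [min_eq_right h1, max_eq_right h0]

/-- the loop `q0 → p0 → p1 → q1 → q0` -/
noncomputable def qd (q0 p0 p1 q1 : E) (s : ℝ) : E :=
  q0 + cl1 (s + 1) • (p0 - q0) + cl1 s • (p1 - p0) + cl1 (s - 1) • (q1 - p1) +
    cl1 (s - 2) • (q0 - q1)

variable {q0 p0 p1 q1 : E}

theorem qd_cont : Continuous (qd q0 p0 p1 q1) := by
  unfold qd
  have h := cl1_cont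
  fun_prop

theorem qd_left {s : ℝ} (h0 : -1 ≤ s) (h1 : s ≤ 0) :
    qd q0 p0 p1 q1 s = AffineMap.lineMap q0 p0 (s + 1) := by
  unfold qd
  rw [cl1_of_mem (by linarith) (by linarith), cl1_of_le h1, cl1_of_le (by linarith),
    cl1_of_le (by linarith), AffineMap.lineMap_apply_module']
  module

theorem qd_top {s : ℝ} (h0 : 0 ≤ s) (h1 : s ≤ 1) :
    qd q0 p0 p1 q1 s = AffineMap.lineMap p0 p1 s := by
  unfold qd
  rw [cl1_of_ge (by linarith), cl1_of_mem h0 h1, cl1_of_le (by linarith),
    cl1_of_le (by linarith), AffineMap.lineMap_apply_module']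
  module

theorem qd_right {s : ℝ} (h0 : 1 ≤ s) (h1 : s ≤ 2) :
    qd q0 p0 p1 q1 s = AffineMap.lineMap p1 q1 (s - 1) := by
  unfold qd
  rw [cl1_of_ge (by linarith), cl1_of_ge h0, cl1_of_mem (by linarith) (by linarith),
    cl1_of_le (by linarith), AffineMap.lineMap_apply_module']
  module

theorem qd_bot {s : ℝ} (h0 : 2 ≤ s) (h1 : s ≤ 3) :
    qd q0 p0 p1 q1 s = AffineMap.lineMap q1 q0 (s - 2) := by
  unfold qd
  rw [cl1_of_ge (by linarith), cl1_of_ge (by linarith), cl1_of_ge (by linarith),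
    cl1_of_mem (by linarith) (by linarith), AffineMap.lineMap_apply_module']
  module

theorem qd_bot' {t : ℝ} (h0 : 0 ≤ t) (h1 : t ≤ 1) :
    qd q0 p0 p1 q1 (3 - t) = AffineMap.lineMap q0 q1 t := by
  rw [qd_bot (by linarith) (by linarith), AffineMap.lineMap_apply_module',
    AffineMap.lineMap_apply_module']
  module

/-- `B` is the boundary of a quadrilateral: the four sides meet only in the corners. -/
structure Trap (B : Set E) (q0 p0 p1 q1 : E) : Prop where
  eq : B = segment ℝ q0 p0 ∪ segment ℝ p0 p1 ∪ segment ℝ p1 q1 ∪ segment ℝ q1 q0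
  n1 : q0 ≠ p0
  n2 : p0 ≠ p1
  n3 : p1 ≠ q1
  n4 : q1 ≠ q0
  c1 : ∀ {x}, x ∈ segment ℝ q0 p0 → x ∈ segment ℝ p0 p1 → x = p0
  c2 : ∀ {x}, x ∈ segment ℝ p0 p1 → x ∈ segment ℝ p1 q1 → x = p1
  c3 : ∀ {x}, x ∈ segment ℝ p1 q1 → x ∈ segment ℝ q1 q0 → x = q1
  c4 : ∀ {x}, x ∈ segment ℝ q1 q0 → x ∈ segment ℝ q0 p0 → x = q0
  d1 : ∀ {x}, x ∈ segment ℝ q0 p0 → x ∉ segment ℝ p1 q1
  d2 : ∀ {x}, x ∈ segment ℝ p0 p1 → x ∉ segment ℝ q1 q0

theorem lm_mem {a b : E} {t : ℝ} (h0 : 0 ≤ t) (h1 : t ≤ 1) :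
    AffineMap.lineMap a b t ∈ segment ℝ a b := by
  rw [segment_eq_image_lineMap]
  exact ⟨t, ⟨h0, h1⟩, rfl⟩

theorem lm_inj {a b : E} (h : a ≠ b) {s t : ℝ}
    (e : AffineMap.lineMap a b s = (AffineMap.lineMap a b t : E)) : s = t :=
  AffineMap.lineMap_injective ℝ h e

theorem lm_one {a b : E} (h : a ≠ b) {s : ℝ} (e : AffineMap.lineMap a b s = b) : s = 1 :=
  lm_inj h (e.trans (AffineMap.lineMap_apply_one a b).symm)

theorem lm_zero {a b : E} (h : a ≠ b) {s : ℝ} (e : AffineMap.lineMap a b s = a) : s = 0 :=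
  lm_inj h (e.trans (AffineMap.lineMap_apply_zero a b).symm)

theorem qd_ends : qd q0 p0 p1 q1 (-1) = qd q0 p0 p1 q1 3 := by
  rw [qd_left le_rfl (by norm_num), qd_bot (by norm_num) le_rfl]
  norm_num

theorem Trap.injOn {B : Set E} (h : Trap B q0 p0 p1 q1) :
    InjOn (qd q0 p0 p1 q1) (Ico (-1) 3) := by
  have main : ∀ s t : ℝ, -1 ≤ s → s < t → t < 3 → qd q0 p0 p1 q1 s ≠ qd q0 p0 p1 q1 t := by
    intro s t hs hst ht e
    rcases lt_or_ge s 0 with hs0 | hs0
    · have es := qd_left (q0 := q0) (p0 := p0) (p1 := p1) (q1 := q1) hs hs0.le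
      have ms : qd q0 p0 p1 q1 s ∈ segment ℝ q0 p0 := by
        rw [es]; exact lm_mem (by linarith) (by linarith)
      rcases lt_or_ge t 0 with ht0 | ht0
      · rw [es, qd_left (by linarith) ht0.le] at e
        have := lm_inj h.n1 e
        linarith
      · rcases lt_or_ge t 1 with ht1 | ht1
        · have mt : qd q0 p0 p1 q1 s ∈ segment ℝ p0 p1 := by
            rw [e, qd_top ht0 ht1.le]; exact lm_mem ht0 ht1.le
          have h1 := h.c1 ms mt
          rw [es] at h1
          have := lm_one h.n1 h1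
          linarith
        · rcases lt_or_ge t 2 with ht2 | ht2
          · have mt : qd q0 p0 p1 q1 s ∈ segment ℝ p1 q1 := by
              rw [e, qd_right ht1 ht2.le]; exact lm_mem (by linarith) (by linarith)
            exact h.d1 ms mt
          · have et := qd_bot (q0 := q0) (p0 := p0) (p1 := p1) (q1 := q1) ht2 ht.le
            have mt : qd q0 p0 p1 q1 t ∈ segment ℝ q1 q0 := by
              rw [et]; exact lm_mem (by linarith) (by linarith)
            rw [e] at ms
            have h1 := h.c4 mt ms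
            rw [et] at h1
            have := lm_one h.n4 h1
            linarith
    · rcases lt_or_ge s 1 with hs1 | hs1
      · have es := qd_top (q0 := q0) (p0 := p0) (p1 := p1) (q1 := q1) hs0 hs1.le
        have ms : qd q0 p0 p1 q1 s ∈ segment ℝ p0 p1 := by
          rw [es]; exact lm_mem (by linarith) (by linarith)
        rcases lt_or_ge t 1 with ht1 | ht1
        · rw [es, qd_top (by linarith) ht1.le] at e
          have := lm_inj h.n2 e
          linarith
        · rcases lt_or_ge t 2 with ht2 | ht2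
          · have mt : qd q0 p0 p1 q1 s ∈ segment ℝ p1 q1 := by
              rw [e, qd_right ht1 ht2.le]; exact lm_mem (by linarith) (by linarith)
            have h1 := h.c2 ms mt
            rw [es] at h1
            have := lm_one h.n2 h1
            linarith
          · have mt : qd q0 p0 p1 q1 s ∈ segment ℝ q1 q0 := by
              rw [e, qd_bot ht2 ht.le]; exact lm_mem (by linarith) (by linarith)
            exact h.d2 ms mt
      · rcases lt_or_ge s 2 with hs2 | hs2
        · have es := qd_right (q0 := q0) (p0 := p0) (p1 := p1) (q1 := q1) hs1 hs2.le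
          have ms : qd q0 p0 p1 q1 s ∈ segment ℝ p1 q1 := by
            rw [es]; exact lm_mem (by linarith) (by linarith)
          rcases lt_or_ge t 2 with ht2 | ht2
          · rw [es, qd_right (by linarith) ht2.le] at e
            have := lm_inj h.n3 e
            linarith
          · have mt : qd q0 p0 p1 q1 s ∈ segment ℝ q1 q0 := by
              rw [e, qd_bot ht2 ht.le]; exact lm_mem (by linarith) (by linarith)
            have h1 := h.c3 ms mt
            rw [es] at h1
            have := lm_one h.n3 h1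
            linarith
        · rw [qd_bot hs2 (by linarith), qd_bot (by linarith) ht.le] at e
          have := lm_inj h.n4 e
          linarith
  intro s hs t ht e
  rcases lt_trichotomy s t with h1 | h1 | h1
  · exact absurd e (main s t hs.1 h1 ht.2)
  · exact h1
  · exact absurd e.symm (main t s ht.1 h1 hs.2)

theorem Trap.image {B : Set E} (h : Trap B q0 p0 p1 q1) :
    qd q0 p0 p1 q1 '' Icc (-1) 3 = B := by
  rw [h.eq]
  apply Subset.antisymm
  · rintro _ ⟨s, hs, rfl⟩
    rcases le_total s 0 with h0 | h0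
    · rw [qd_left hs.1 h0]
      exact Or.inl (Or.inl (Or.inl (lm_mem (by linarith [hs.1]) (by linarith))))
    · rcases le_total s 1 with h1 | h1
      · rw [qd_top h0 h1]
        exact Or.inl (Or.inl (Or.inr (lm_mem h0 h1)))
      · rcases le_total s 2 with h2 | h2
        · rw [qd_right h1 h2]
          exact Or.inl (Or.inr (lm_mem (by linarith) (by linarith)))
        · rw [qd_bot h2 hs.2]
          exact Or.inr (lm_mem (by linarith) (by linarith [hs.2]))
  · rintro x (((hx | hx) | hx) | hx)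
    · rw [segment_eq_image_lineMap] at hx
      obtain ⟨t, ht, rfl⟩ := hx
      refine ⟨t - 1, ⟨by linarith [ht.1], by linarith [ht.2]⟩, ?_⟩
      rw [qd_left (by linarith [ht.1]) (by linarith [ht.2])]
      congr 1; ring
    · rw [segment_eq_image_lineMap] at hx
      obtain ⟨t, ht, rfl⟩ := hx
      exact ⟨t, ⟨by linarith [ht.1], by linarith [ht.2]⟩, qd_top ht.1 ht.2⟩
    · rw [segment_eq_image_lineMap] at hx
      obtain ⟨t, ht, rfl⟩ := hx
      refine ⟨t + 1, ⟨by linarith [ht.1], by linarith [ht.2]⟩, ?_⟩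
      rw [qd_right (by linarith [ht.1]) (by linarith [ht.2])]
      congr 1; ring
    · rw [segment_eq_image_lineMap] at hx
      obtain ⟨t, ht, rfl⟩ := hx
      refine ⟨t + 2, ⟨by linarith [ht.1], by linarith [ht.2]⟩, ?_⟩
      rw [qd_bot (by linarith [ht.1]) (by linarith [ht.2])]
      congr 1; ring

section lace

variable [FiniteDimensional ℝ E] {Om : Set E} {ι : Type} {T : Tiling Om ι}

/-- interlacing on a quadrilateral -/
theorem lace_qd (h3 : Module.finrank ℝ E = 3) (F : C2 T) (h : Trap F.bd q0 p0 p1 q1)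
    {a b c d : ℝ} (ha : a ∈ Ico (-1 : ℝ) 3) (hb : b ∈ Ico (-1 : ℝ) 3) (hc : c ∈ Ico (-1 : ℝ) 3)
    (hd : d ∈ Ico (-1 : ℝ) 3) (hac : a ≠ c) (had : a ≠ d) (hbc : b ≠ c) (hbd : b ≠ d) :
    (meshC T h3).Lace F (qd q0 p0 p1 q1 a) (qd q0 p0 p1 q1 b) (qd q0 p0 p1 q1 c)
      (qd q0 p0 p1 q1 d) ↔ lac a b c d :=
  lace_param h3 F qd_cont.continuousOn qd_ends h.injOn h.image ha hb hc hd hac had hbc hbd

variable {ι0 Φ0 W : Type} {M0 : MeshC ι0 Φ0 W} {k0 : ι0} {Vx Ed : Type}

/-- position of the points of a vertical face, general parameters -/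
noncomputable def vP (S : Shell M0 k0 Vx Ed) (e : Ed) (τ τ' : W → ℝ) (σ : Bool → ℝ) :
    S.Pnt → ℝ
  | Sum.inl w => τ w
  | Sum.inr (Sum.inl w) => 3 - τ' w
  | Sum.inr (Sum.inr v) => by
      classical
      exact if v = S.en e false then σ false - 1 else 1 + σ true

/-- **clause `lace_vf`**: the cyclic order on a vertical face of a layer.  `τ`, `τ'` are affine
parameters of the points of the upper and of the lower side, `σ b` of the points on the vertical
edges (`σ false` from the bottom, `σ true` from the top). -/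
theorem lace_vert (h3 : Module.finrank ℝ E = 3) (F : C2 T) (h : Trap F.bd q0 p0 p1 q1)
    (S : Shell M0 k0 Vx Ed) (e : Ed) {top bot : W → E} {vt : Vx → E} {τ τ' : W → ℝ}
    {σ : Bool → ℝ}
    (hτ : ∀ w ∈ S.OnE e, 0 < τ w ∧ τ w < 1) (hτ' : ∀ w ∈ S.OnE e, 0 < τ' w ∧ τ' w < 1)
    (hσ : ∀ b, 0 < σ b ∧ σ b < 1)
    (mτ : ∀ w ∈ S.OnE e, ∀ w' ∈ S.OnE e, (τ w < τ w' ↔ S.t w < S.t w'))
    (mτ' : ∀ w ∈ S.OnE e, ∀ w' ∈ S.OnE e, (τ' w < τ' w' ↔ S.t w < S.t w'))
    (htop : ∀ w ∈ S.OnE e, top w = AffineMap.lineMap p0 p1 (τ w))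
    (hbot : ∀ w ∈ S.OnE e, bot w = AffineMap.lineMap q0 q1 (τ' w))
    (hv0 : vt (S.en e false) = AffineMap.lineMap q0 p0 (σ false))
    (hv1 : vt (S.en e true) = AffineMap.lineMap p1 q1 (σ true))
    {a b c d : S.Pnt} (ha : a ∈ S.On (Sum.inr (Sum.inr e)))
    (hb : b ∈ S.On (Sum.inr (Sum.inr e))) (hc : c ∈ S.On (Sum.inr (Sum.inr e)))
    (hd : d ∈ S.On (Sum.inr (Sum.inr e))) (hac : a ≠ c) (had : a ≠ d)
    (hbc : b ≠ c) (hbd : b ≠ d) :
    (meshC T h3).Lace F (Sum.elim top (Sum.elim bot vt) a) (Sum.elim top (Sum.elim bot vt) b)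
      (Sum.elim top (Sum.elim bot vt) c) (Sum.elim top (Sum.elim bot vt) d) ↔
      S.mesh.Lace (Sum.inr (Sum.inr e)) a b c d := by
  have hen : S.en e true ≠ S.en e false := fun h => S.en_ne e h.symm
  -- the parameter of every point
  have key : ∀ x : S.Pnt, x ∈ S.On (Sum.inr (Sum.inr e)) →
      vP S e τ τ' σ x ∈ Ico (-1 : ℝ) 3 ∧
        Sum.elim top (Sum.elim bot vt) x = qd q0 p0 p1 q1 (vP S e τ τ' σ x) := by
    rintro x (⟨w, hw, rfl⟩ | ⟨w, hw, rfl⟩ | ⟨b, rfl⟩)
    · have h1 := hτ w hw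
      refine ⟨⟨?_, ?_⟩, ?_⟩
      · show -1 ≤ τ w; linarith [h1.1]
      · show τ w < 3; linarith [h1.2]
      · show top w = _
        rw [htop w hw]
        exact (qd_top h1.1.le h1.2.le).symm
    · have h1 := hτ' w hw
      refine ⟨⟨?_, ?_⟩, ?_⟩
      · show -1 ≤ 3 - τ' w; linarith [h1.2]
      · show 3 - τ' w < 3; linarith [h1.1]
      · show bot w = _
        rw [hbot w hw]
        exact (qd_bot' h1.1.le h1.2.le).symm
    · have h1 := hσ b
      cases b
      · have e1 : vP S e τ τ' σ (Sum.inr (Sum.inr (S.en e false))) = σ false - 1 := if_pos rfl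
        rw [e1]
        refine ⟨⟨by linarith [h1.1], by linarith [h1.2]⟩, ?_⟩
        show vt (S.en e false) = _
        rw [hv0, qd_left (by linarith [h1.1]) (by linarith [h1.2])]
        congr 1; ring
      · have e1 : vP S e τ τ' σ (Sum.inr (Sum.inr (S.en e true))) = 1 + σ true := if_neg hen
        rw [e1]
        refine ⟨⟨by linarith [h1.1], by linarith [h1.2]⟩, ?_⟩
        show vt (S.en e true) = _
        rw [hv1, qd_right (by linarith [h1.1]) (by linarith [h1.2])]
        congr 1; ring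
  -- the order of the parameters is the order of the positions
  have ord : ∀ x y : S.Pnt, x ∈ S.On (Sum.inr (Sum.inr e)) → y ∈ S.On (Sum.inr (Sum.inr e)) →
      (S.pos (Sum.inr (Sum.inr e)) x < S.pos (Sum.inr (Sum.inr e)) y ↔
        vP S e τ τ' σ x < vP S e τ τ' σ y) := by
    have pf : S.pos (Sum.inr (Sum.inr e)) (Sum.inr (Sum.inr (S.en e false))) = -1 / 2 :=
      if_pos rfl
    have pt : S.pos (Sum.inr (Sum.inr e)) (Sum.inr (Sum.inr (S.en e true))) = 3 / 2 :=
      if_neg hen
    have vf : vP S e τ τ' σ (Sum.inr (Sum.inr (S.en e false))) = σ false - 1 := if_pos rfl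
    have vt' : vP S e τ τ' σ (Sum.inr (Sum.inr (S.en e true))) = 1 + σ true := if_neg hen
    have hf := hσ false
    have ht := hσ true
    have yes : ∀ {a b c d : ℝ}, a < b → c < d → (a < b ↔ c < d) :=
      fun h1 h2 => ⟨fun _ => h2, fun _ => h1⟩
    have no : ∀ {a b c d : ℝ}, b ≤ a → d ≤ c → (a < b ↔ c < d) :=
      fun h1 h2 => ⟨fun h => absurd h (not_lt.2 h1), fun h => absurd h (not_lt.2 h2)⟩
    rintro x y (⟨w, hw, rfl⟩ | ⟨w, hw, rfl⟩ | ⟨b, rfl⟩) (⟨w', hw', rfl⟩ | ⟨w', hw', rfl⟩ | ⟨b', rfl⟩)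
    · exact (mτ w hw w' hw').symm
    · have h1 := hτ w hw
      have h2 := hτ' w' hw'
      have h3 := S.t_lt hw
      have h4 := S.t_lt hw'
      refine yes (show S.t w < 3 - S.t w' by linarith) (show τ w < 3 - τ' w' by linarith [h1.2, h2.2])
    · have h1 := hτ w hw
      have h3 := S.t_lt hw
      have h4 := S.t_pos hw
      cases b'
      · rw [pf, vf]
        exact no (show _ ≤ S.t w by linarith) (show _ ≤ τ w by linarith [h1.1, hf.2])
      · rw [pt, vt']
        exact yes (show S.t w < _ by linarith) (show τ w < _ by linarith [h1.2, ht.1])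
    · have h1 := hτ' w hw
      have h2 := hτ w' hw'
      have h3 := S.t_lt hw
      have h4 := S.t_lt hw'
      exact no (show S.t w' ≤ 3 - S.t w by linarith) (show τ w' ≤ 3 - τ' w by linarith [h1.2, h2.2])
    · have h1 := mτ' w' hw' w hw
      constructor
      · intro h
        have h5 : 3 - S.t w < 3 - S.t w' := h
        have := h1.2 (by linarith)
        show 3 - τ' w < 3 - τ' w'
        linarith
      · intro h
        have h5 : 3 - τ' w < 3 - τ' w' := h
        have := h1.1 (by linarith)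
        show 3 - S.t w < 3 - S.t w'
        linarith
    · have h1 := hτ' w hw
      have h3 := S.t_lt hw
      have h4 := S.t_pos hw
      cases b'
      · rw [pf, vf]
        exact no (show _ ≤ 3 - S.t w by linarith) (show _ ≤ 3 - τ' w by linarith [h1.2, hf.2])
      · rw [pt, vt']
        exact no (show _ ≤ 3 - S.t w by linarith) (show _ ≤ 3 - τ' w by linarith [h1.2, ht.2])
    · have h1 := hτ w' hw'
      have h3 := S.t_lt hw'
      have h4 := S.t_pos hw'
      cases b
      · rw [pf, vf]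
        exact yes (show _ < S.t w' by linarith) (show _ < τ w' by linarith [h1.1, hf.2])
      · rw [pt, vt']
        exact no (show S.t w' ≤ _ by linarith) (show τ w' ≤ _ by linarith [h1.2, ht.1])
    · have h1 := hτ' w' hw'
      have h3 := S.t_lt hw'
      have h4 := S.t_pos hw'
      cases b
      · rw [pf, vf]
        exact yes (show _ < 3 - S.t w' by linarith) (show _ < 3 - τ' w' by linarith [h1.2, hf.2])
      · rw [pt, vt']
        exact yes (show _ < 3 - S.t w' by linarith) (show _ < 3 - τ' w' by linarith [h1.2, ht.2])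
    · cases b <;> cases b'
      · exact no le_rfl le_rfl
      · rw [pf, pt, vf, vt']
        exact yes (by norm_num) (by linarith [hf.2, ht.1])
      · rw [pf, pt, vf, vt']
        exact no (by norm_num) (by linarith [hf.2, ht.1])
      · exact no le_rfl le_rfl
  have inj : ∀ x y : S.Pnt, x ∈ S.On (Sum.inr (Sum.inr e)) → y ∈ S.On (Sum.inr (Sum.inr e)) →
      x ≠ y → vP S e τ τ' σ x ≠ vP S e τ τ' σ y := by
    intro x y hx hy hne heq
    apply hne
    refine S.mesh.pos_inj (Sum.inr (Sum.inr e)) hx hy (le_antisymm ?_ ?_)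
    · exact not_lt.1 fun h => absurd heq ((ord y x hy hx).1 h).ne'
    · exact not_lt.1 fun h => absurd heq ((ord x y hx hy).1 h).ne
  rw [(key a ha).2, (key b hb).2, (key c hc).2, (key d hd).2,
    lace_qd h3 F h (key a ha).1 (key b hb).1 (key c hc).1 (key d hd).1 (inj a c ha hc hac)
      (inj a d ha hd had) (inj b c hb hc hbc) (inj b d hb hd hbd)]
  unfold MeshC.Lace MeshC.Btw lac
  rw [← ord a c ha hc, ← ord c b hc hb, ← ord b c hb hc, ← ord c a hc ha, ← ord a d ha hd,
    ← ord d b hd hb, ← ord b d hb hd, ← ord d a hd ha]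
  rfl

end lace

end Crest.Agent.R096.Lac_441
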