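import Crest.Agent.R096.ThC8_766

/-!
Row 96 (S0127), helper766.  The 2-skeleton of the generic Laguerre system: a locally finite family
of compact convex pieces of hyperplanes, at most `(n+1 choose 2)` through every point (6 in R^3).
-/

set_option autoImplicit false
set_option linter.unusedSectionVars false
set_option linter.style.longLine false

namespace Crest.Agent.R096.Lag1_766

open Set Filter Topology Metric
open Crest.Agent.R096.ThC3_766
open Crest.Agent.R096.ThC6_766
open Crest.Agent.R096.ThC7_766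
open Crest.Agent.R096.ThC8_766

variable {V : Type*} [NormedAddCommGroup V] [InnerProductSpace ℝ V]
variable {L : Set V} {C : ℝ} {e : V → ℝ} {D S : Set V} {a : S → V} {c : S → ℝ}
    {Phi : V → ℝ} {th : V → V}

/-- near a point only the indices active at the point can be active. -/
theorem act_usc (he : Scale L e) (h : Lag L C e D S a c Phi th) {p : V} (hp : p ∈ L) :
    ∃ r : ℝ, 0 < r ∧ ball p r ⊆ L ∧ ∀ p' ∈ ball p r, act a c p' ⊆ act a c p := by
  classical
  obtain ⟨F, hF⟩ := act_local he h hp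
  have hep := he.pos p hp
  -- for k in F not active at p, k is not active near p
  have h1 : ∀ k ∈ F, ∃ r : ℝ, 0 < r ∧ ∀ p' ∈ ball p r, k ∈ act a c p' → k ∈ act a c p := by
    intro k _
    by_cases hk : k ∈ act a c p
    · exact ⟨1, one_pos, fun _ _ _ => hk⟩
    · have hcl := isClosed_act a c k
      have hop : IsOpen {p | k ∈ act a c p}ᶜ := hcl.isOpen_compl
      obtain ⟨r, hr, hrs⟩ := Metric.isOpen_iff.1 hop p hk
      exact ⟨r, hr, fun p' hp' hk' => absurd hk' (hrs hp')⟩
  choose! r hr hrp using h1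
  have hfin : ∃ ρ : ℝ, 0 < ρ ∧ ρ ≤ e p ∧ ∀ k ∈ F, ρ ≤ r k := by
    rcases F.eq_empty_or_nonempty with rfl | hne
    · exact ⟨e p, hep, le_rfl, by simp⟩
    · refine ⟨min (e p) (F.inf' hne r), lt_min hep ((Finset.lt_inf'_iff hne).2 hr),
        min_le_left _ _, fun k hk => (min_le_right _ _).trans (Finset.inf'_le _ hk)⟩
  obtain ⟨ρ, hρ, hρe, hρr⟩ := hfin
  refine ⟨ρ, hρ, fun p' hp' => (hF p' (ball_subset_closedBall (ball_subset_ball hρe hp'))).1,
    fun p' hp' k hk => ?_⟩
  have hkF : k ∈ F := (hF p' (ball_subset_closedBall (ball_subset_ball hρe hp'))).2.1 hk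
  exact hrp k hkF p' (ball_subset_ball (hρr k hkF) hp') hk

/-- at most `n+1` active indices. -/
theorem act_card [FiniteDimensional ℝ V] (h : Lag L C e D S a c Phi th) {p : V} (hp : p ∈ L) :
    (act a c p).ncard ≤ Module.finrank ℝ V + 1 := by
  classical
  have hai := h.affineIndependent p
  have hfin := h.fin p hp
  let _ : Fintype (act a c p) := hfin.fintype
  have h1 := hai.card_le_finrank_succ
  have h2 := Submodule.finrank_le (vectorSpan ℝ (Set.range fun k : act a c p => a k))
  rw [← Nat.card_coe_set_eq, Nat.card_eq_fintype_card]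
  omega

/-- the centres of the active cells are pairwise different. -/
theorem act_inj (h : Lag L C e D S a c Phi th) {p : V} {k l : S} (hk : k ∈ act a c p)
    (hl : l ∈ act a c p) (hkl : k ≠ l) : a k ≠ a l := by
  intro heq
  have hinj := (h.affineIndependent p).injective
  have := @hinj ⟨k, hk⟩ ⟨l, hl⟩ heq
  exact hkl (congrArg Subtype.val this)

/-- the piece of the 2-skeleton that belongs to a pair of cells. -/
def piece (L : Set V) (a : S → V) (c : S → ℝ) (s : Finset S) : Set V :=
  {p | p ∈ L ∧ (s : Set S) ⊆ act a c p}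

lemma piece_eq (s : Finset S) (hs : s.Nonempty) : piece L a c s = ⋂ k ∈ s, cell L a c k := by
  ext p
  simp only [piece, cell, mem_ofPred_eq, mem_iInter]
  constructor
  · rintro ⟨h1, h2⟩ k hk
    exact ⟨h1, h2 hk⟩
  · intro h
    obtain ⟨k, hk⟩ := hs
    exact ⟨(h k hk).1, fun l hl => (h l hl).2⟩

lemma piece_convex (he : Scale L e) (h : Lag L C e D S a c Phi th) (s : Finset S)
    (hs : s.Nonempty) : Convex ℝ (piece L a c s) := by
  rw [piece_eq s hs]
  exact convex_iInter₂ fun k _ => cell_convex he h k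

lemma piece_compact [ProperSpace V] (he : Scale L e) (h : Lag L C e D S a c Phi th) (s : Finset S)
    (hs : s.Nonempty) : IsCompact (piece L a c s) := by
  rw [piece_eq s hs]
  obtain ⟨k, hk⟩ := hs
  refine (cell_compact he h k).of_isClosed_subset ?_ (iInter₂_subset k hk)
  exact isClosed_biInter fun l _ => (cell_compact he h l).isClosed

/-- index type of the faces: pairs of cells that meet. -/
def Pair (L : Set V) (a : S → V) (c : S → ℝ) : Type _ :=
  {s : Finset S // s.card = 2 ∧ (piece L a c s).Nonempty}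

/-- **the 2-skeleton**: pieces `P i` of hyperplanes with unit normals `n i`. -/
theorem pieces [FiniteDimensional ℝ V] (he : Scale L e) (h : Lag L C e D S a c Phi th) :
    ∃ (n : Pair L a c → V) (t : Pair L a c → ℝ),
      (∀ i, ‖n i‖ = 1) ∧
      (∀ i, ∀ x ∈ piece L a c i.1, inner ℝ (n i) x = t i) ∧
      (∀ i : Pair L a c, IsCompact (piece L a c i.1) ∧ Convex ℝ (piece L a c i.1) ∧
        piece L a c i.1 ⊆ L) ∧
      (∀ x ∈ L, ∃ r : ℝ, 0 < r ∧ ball x r ⊆ L ∧
        {i : Pair L a c | (piece L a c i.1 ∩ ball x r).Nonempty} ⊆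
          {i : Pair L a c | x ∈ piece L a c i.1}) ∧
      (∀ x ∈ L, {i : Pair L a c | x ∈ piece L a c i.1}.Finite ∧
        {i : Pair L a c | x ∈ piece L a c i.1}.ncard ≤ (Module.finrank ℝ V + 1).choose 2) ∧
      (∀ y ∈ D, y ∈ L → ∃ i : Pair L a c, th y ∈ piece L a c i.1) := by
  classical
  have : ProperSpace V := FiniteDimensional.proper_real V
  have hex : ∀ i : Pair L a c, ∃ (n : V) (t : ℝ), ‖n‖ = 1 ∧ ∀ x ∈ piece L a c i.1, inner ℝ n x = t := by
    rintro ⟨s, hs, p, hpL, hps⟩
    obtain ⟨k, l, hkl, rfl⟩ := Finset.card_eq_two.1 hs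
    have hk : k ∈ act a c p := hps (by simp)
    have hl : l ∈ act a c p := hps (by simp)
    have hne : a k - a l ≠ 0 := sub_ne_zero.2 (act_inj h hk hl hkl)
    refine ⟨‖a k - a l‖⁻¹ • (a k - a l), ‖a k - a l‖⁻¹ * (c k - c l), ?_, ?_⟩
    · rw [norm_smul, norm_inv, norm_norm]
      exact inv_mul_cancel₀ (norm_ne_zero_iff.2 hne)
    · rintro x ⟨hxL, hx⟩
      have hxk : k ∈ act a c x := hx (by simp)
      have hxl : l ∈ act a c x := hx (by simp)
      have h1 := hxk l
      have h2 := hxl k
      rw [real_inner_smul_left, inner_sub_left]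
      congr 1
      linarith
  choose n t hn ht using hex
  have hne : ∀ i : Pair L a c, i.1.Nonempty := fun i => by
    rw [← Finset.card_pos, i.2.1]; norm_num
  refine ⟨n, t, hn, ht, fun i => ⟨piece_compact he h i.1 (hne i), piece_convex he h i.1 (hne i),
    fun x hx => hx.1⟩, ?_, ?_, ?_⟩
  · intro x hx
    obtain ⟨r, hr, hrL, hact⟩ := act_usc he h hx
    refine ⟨r, hr, hrL, ?_⟩
    rintro i ⟨y, hy, hyb⟩
    exact ⟨hx, hy.2.trans (hact y hyb)⟩
  · intro x hx
    have hfin := h.fin x hx
    have himg : (fun i : Pair L a c => i.1) '' {i : Pair L a c | x ∈ piece L a c i.1} ⊆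
        ((hfin.toFinset.powersetCard 2 : Finset (Finset S)) : Set (Finset S)) := by
      rintro _ ⟨i, hi, rfl⟩
      rw [Finset.mem_coe, Finset.mem_powersetCard]
      refine ⟨fun k hk => ?_, i.2.1⟩
      rw [Set.Finite.mem_toFinset]
      exact hi.2 hk
    have hinj : Set.InjOn (fun i : Pair L a c => i.1) {i : Pair L a c | x ∈ piece L a c i.1} :=
      fun i _ j _ hij => Subtype.ext hij
    have hfin2 : {i : Pair L a c | x ∈ piece L a c i.1}.Finite :=
      Set.Finite.of_finite_image ((Finset.finite_toSet _).subset himg) hinj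
    refine ⟨hfin2, ?_⟩
    rw [← Set.InjOn.ncard_image hinj]
    refine (Set.ncard_le_ncard himg (Finset.finite_toSet _)).trans ?_
    rw [Set.ncard_coe_finset, Finset.card_powersetCard]
    apply Nat.choose_le_choose
    rw [← Set.ncard_eq_toFinset_card (act a c x) hfin]
    exact act_card h hx
  · intro y hy hyL
    obtain ⟨k, hk, l, hl, hkl⟩ := two_active h hy hyL
    have hmem := h.mem y hyL
    have hpiece : th y ∈ piece L a c {k, l} := by
      refine ⟨hmem, ?_⟩
      intro j hj
      simp only [Finset.coe_insert, Finset.coe_singleton, mem_insert_iff, mem_singleton_iff] at hj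
      rcases hj with rfl | rfl
      · exact hk
      · exact hl
    exact ⟨⟨{k, l}, Finset.card_pair hkl, ⟨_, hpiece⟩⟩, hpiece⟩

/-- uniform version on compact sets: sets of small diameter meet few pieces. -/
theorem pieces_uniform (he : Scale L e) (h : Lag L C e D S a c Phi th) {K : Set V}
    (hK : IsCompact K) (hKL : K ⊆ L) :
    ∃ s : ℝ, 0 < s ∧ ∀ x ∈ K, ∃ q ∈ L, ball x s ⊆ L ∧
      {i : Pair L a c | (piece L a c i.1 ∩ ball x s).Nonempty} ⊆
        {i : Pair L a c | q ∈ piece L a c i.1} := by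
  classical
  choose! r hr hrL hact using fun (p : V) (hp : p ∈ L) => act_usc he h hp
  obtain ⟨t, htK, ht⟩ := hK.elim_nhds_subcover (fun p => ball p (r p / 2))
    (fun p hp => ball_mem_nhds p (half_pos (hr p (hKL hp))))
  have hfin : ∃ ρ : ℝ, 0 < ρ ∧ ∀ k ∈ t, ρ ≤ r k / 2 := by
    rcases t.eq_empty_or_nonempty with rfl | hne
    · exact ⟨1, one_pos, by simp⟩
    · exact ⟨t.inf' hne (fun p => r p / 2), (Finset.lt_inf'_iff hne).2 fun p hp =>
        half_pos (hr p (hKL (htK p hp))), fun k hk => Finset.inf'_le _ hk⟩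
  obtain ⟨ρ, hρ, hρr⟩ := hfin
  refine ⟨ρ, hρ, fun x hx => ?_⟩
  obtain ⟨q, hq⟩ := mem_iUnion.1 (ht hx)
  obtain ⟨hqt, hxq⟩ := mem_iUnion.1 hq
  have hqL := hKL (htK q hqt)
  have hsub : ball x ρ ⊆ ball q (r q) := by
    intro y hy
    rw [mem_ball] at *
    have h1 := dist_triangle y x q
    have h2 := hρr q hqt
    linarith
  refine ⟨q, hqL, hsub.trans (hrL q hqL), ?_⟩
  rintro i ⟨y, hy, hyb⟩
  exact ⟨hqL, hy.2.trans (hact q hqL y (hsub hyb))⟩

end Crest.Agent.R096.Lag1_766
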