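import Crest.Agent.R096.Dfi3_471
import Crest.Agent.R096.Clo3_441

/-!
# Row 96, DOORS, (Y) of 539 #11432 (helper471): barrier points over a region without traces are
joined by vertical chords with points on the boundary of the shrunk core

`Mon`        : the points of `D` stay in the patterns once they are there.
`Vcl`        : `X` is closed under the chords (of the name `i`) on the vertical faces over `B`.
`down`       : an exact point `hp j w` over `B` is joined straight down with `hp (n c) w`.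
`walk`       : a vertex point `vc v j` is joined with an exact point, if `v` is joined with a vertex
               which never moves, by edges of `B` without trace points.
`EA`, `VA`   : edges / vertices of the cells of the sphere which meet `A`.
`join`       : `A` compact and connected: `VA` is connected by edges of `EA`.
`y_lemma`    : **(Y)**.
-/

set_option autoImplicit false
set_option linter.unusedSectionVars false
set_option linter.style.longLine false

open Set Module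
open scoped Classical

namespace Crest.Agent.R096.Yl_471

open Crest.Agent.R096.Msh_715 Crest.Agent.R096.Agl5_543 Crest.Agent.R096.St_147
  Crest.Agent.R096.Seq_213 Crest.Agent.R096.Door_501 Crest.Agent.R096.Sla_184
  Crest.Agent.R096.Twr_438 Crest.Agent.R096.Exa_560 Crest.Agent.R096.Ess3_95
  Crest.Agent.R096.Ess4_95 Crest.Agent.R096.Dfi_539 Crest.Agent.R096.Dfi_471
open Crest.Agent.R096.Sla_184.Sla (hf vf old tg F0 Fn Out OnS InL In)

variable {E : Type} [NormedAddCommGroup E] [NormedSpace ℝ E] [FiniteDimensional ℝ E]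
variable {Om : Set E} {ι : Type} {T : Tiling Om ι} {κ : Type} {S : Sla T κ}
  {h3 : finrank ℝ E = 3} {J C : Type} {fam : J → C}

section core

variable {s : GSt (S.m0 h3) fam} {Tw : Twrs (S.sh h3) S.n s} {l0 : E → J}
  {c : κ} {a : C} {j : ℕ} {i : J} {w x : E} {B : Set (S.Ed c)} {D X : Set E}

/-- **(MON)**: the points of `D` stay -/
def Mon (Tw : Twrs (S.sh h3) S.n s) (c : κ) (a : C) (D : Set E) : Prop :=
  ∀ j, ∀ w ∈ ((Tw.tw c a).pat j).P, w ∈ D → w ∈ ((Tw.tw c a).pat (j + 1)).P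

/-- `X` is closed under the chords of the name `i` on the vertical faces over `B` -/
def Vcl (Tw : Twrs (S.sh h3) S.n s) (l0 : E → J) (c : κ) (B : Set (S.Ed c)) (i : J)
    (X : Set E) : Prop :=
  ∀ e ∈ B, ∀ j, j < S.n c → ∀ x ∈ X, x ∈ (s2 S h3 Tw l0).P → (s2 S h3 Tw l0).lab x = i →
    x ∈ (S.mn h3).On (vf h3 e j) → (s2 S h3 Tw l0).mu (vf h3 e j) x ∈ X

/-- an edge of `B` from `v` to `v'` -/
def Stp (S : Sla T κ) (h3 : finrank ℝ E = 3) (c : κ) (B : Set (S.Ed c)) (v v' : S.Vx c) : Prop :=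
  ∃ e ∈ B, ∃ b, (S.sh h3 c).en e b = v ∧ (S.sh h3 c).en e (!b) = v'

/-- **straight down** -/
theorem down (hmon : Mon Tw c a D) (hX : Vcl Tw l0 c B i X) {e : S.Ed c} (he : e ∈ B)
    (hw : w ∈ e.1.opn) (hwD : w ∈ D) : ∀ {j : ℕ}, j ≤ S.n c → w ∈ ((Tw.tw c a).pat j).P →
      S.hp c j w ∈ X → (s2 S h3 Tw l0).lab (S.hp c j w) = i →
      w ∈ ((Tw.tw c a).pat (S.n c)).P ∧ S.hp c (S.n c) w ∈ X ∧
        (s2 S h3 Tw l0).lab (S.hp c (S.n c) w) = i := by
  have key : ∀ d j, j + d = S.n c → w ∈ ((Tw.tw c a).pat j).P → S.hp c j w ∈ X →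
      (s2 S h3 Tw l0).lab (S.hp c j w) = i → w ∈ ((Tw.tw c a).pat (S.n c)).P ∧
        S.hp c (S.n c) w ∈ X ∧ (s2 S h3 Tw l0).lab (S.hp c (S.n c) w) = i := by
    intro d
    induction d with
    | zero =>
      intro j hj h1 h2 h4
      have : j = S.n c := hj
      subst this
      exact ⟨h1, h2, h4⟩
    | succ d ih =>
      intro j hj h1 h2 h4
      have hj' : j < S.n c := by omega
      have g1 := hmon j w h1 hwD
      have hF : S.hp c j w ∈ (S.mn h3).On (vf h3 e j) :=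
        (Sla.on_vf_hp hj'.le hj' hw).2 ⟨rfl, Or.inl rfl⟩
      have hx : (Sum.inl w : (S.sh h3 c).Pnt) ∈ ((Tw.tw c a).mv j).P' :=
        ((Tw.tw c a).mv j).top_mem_P'.2 h1
      have hxF : (Sum.inl w : (S.sh h3 c).Pnt) ∈ (S.sh h3 c).On (Sum.inr (Sum.inr e)) :=
        (S.sh h3 c).top_mem_vert.2 hw
      have hmu : (s2 S h3 Tw l0).mu (vf h3 e j) (S.hp c j w) = S.hp c (j + 1) w := by
        have h5 := mu_vf (l0 := l0) hj' hx hxF
        rw [Move.mu'_vert_nqe _ _ (((Tw.tw c a).mv j).top_not_qe (Twrs.mem_B.2 g1))] at h5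
        exact h5
      have hP := mem_hp (l0 := l0) hj'.le h1
      have h6 := hX e he j hj' _ h2 hP h4 hF
      rw [hmu] at h6
      have h7 := (s2 S h3 Tw l0).mu_lab hP hF
      rw [hmu, h4] at h7
      exact ih (j + 1) (by omega) g1 h6 h7
  intro j hj
  exact key (S.n c - j) j (by omega)

/-- **the walk**: a vertex point of the layer `j` is joined with an exact point of the layer -/
theorem walk (hmon : Mon Tw c a D) (hX : Vcl Tw l0 c B i X)
    (hB : ∀ e ∈ B, ∀ j, ∀ w ∈ ((Tw.tw c a).pat j).P, w ∈ e.1.opn → w ∈ D)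
    (hj : j < S.n c) {v v' : S.Vx c} (hw : Relation.ReflTransGen (Stp S h3 c B) v v')
    (hv' : v' ∉ ((Tw.tw c a).mv j).Qv) (hv : v ∈ ((Tw.tw c a).mv j).Qv)
    (hvX : S.vc c v.1 j ∈ X) (hl : (s2 S h3 Tw l0).lab (S.vc c v.1 j) = i) :
    ∃ e ∈ B, ∃ w, w ∈ e.1.opn ∧ w ∈ D ∧ w ∈ ((Tw.tw c a).pat (S.n c)).P ∧
      S.hp c (S.n c) w ∈ X ∧ (s2 S h3 Tw l0).lab (S.hp c (S.n c) w) = i := by
  induction hw using Relation.ReflTransGen.head_induction_on with
  | refl => exact absurd hv hv'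
  | @head v v1 h1 _ ih =>
    obtain ⟨e, he, b, hb, hb'⟩ := h1
    have hF : S.vc c v.1 j ∈ (S.mn h3).On (vf h3 e j) := (Sla.on_vf_vp hj hj).2 ⟨rfl, b, hb⟩
    have hx : (Sum.inr (Sum.inr v) : (S.sh h3 c).Pnt) ∈ ((Tw.tw c a).mv j).P' :=
      ((Tw.tw c a).mv j).vert_mem_P'.2 hv
    have hq : (Sum.inr (Sum.inr v) : (S.sh h3 c).Pnt) ∈ ((Tw.tw c a).mv j).qe :=
      ((Tw.tw c a).mv j).vert_mem_qe.2 hv
    have hxF : (Sum.inr (Sum.inr v) : (S.sh h3 c).Pnt) ∈ (S.sh h3 c).On (Sum.inr (Sum.inr e)) :=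
      Or.inr (Or.inr ⟨b, by rw [hb]⟩)
    have hpr := ((Tw.tw c a).mv j).pr_spec ((Tw.tw c a).par j) e _
      (((Tw.tw c a).mv j).mem_qon.2 ⟨hq, hxF⟩)
    have hmu := mu_vf (l0 := l0) hj hx hxF
    rw [Move.mu'_vert_qe _ _ hq] at hmu
    have hP := mem_vp (l0 := l0) hj hv
    have h6 := hX e he j hj _ hvX hP hl hF
    have h7 := (s2 S h3 Tw l0).mu_lab hP hF
    have e1 : Twrs.emb (S.cols h3) c j (Sum.inr (Sum.inr v)) = S.vc c v.1 j := rfl
    rw [e1] at hmu
    rw [hmu] at h6 h7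
    rw [hl] at h7
    obtain ⟨g1, g2, -, -, -⟩ := hpr
    obtain ⟨y, hy⟩ : ∃ y, y = ((Tw.tw c a).mv j).pr ((Tw.tw c a).par j) e
      (Sum.inr (Sum.inr v)) := ⟨_, rfl⟩
    rw [← hy] at g1 g2 h6 h7
    obtain ⟨g3, g4⟩ := ((Tw.tw c a).mv j).mem_qon.1 g1
    rcases y with w | w | v''
    · -- a top point: impossible
      exfalso
      obtain ⟨p1, p2, -⟩ := ((Tw.tw c a).mv j).top_mem_qe.1 g3
      have p4 : w ∈ e.1.opn := (S.sh h3 c).top_mem_vert.1 g4
      exact p2 (Twrs.mem_B.2 (hmon j w p1 (hB e he j w p1 p4)))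
    · -- a bottom point
      obtain ⟨p1, -⟩ := ((Tw.tw c a).mv j).bot_mem_qe.1 g3
      have p4 : w ∈ e.1.opn := (S.sh h3 c).bot_mem_vert.1 g4
      have p5 := Twrs.mem_B.1 p1
      have p6 := hB e he (j + 1) w p5 p4
      obtain ⟨q1, q2, q4⟩ := down hmon hX he p4 p6 (show j + 1 ≤ S.n c by omega) p5 h6 h7
      exact ⟨e, he, w, p4, p6, q1, q2, q4⟩
    · -- the other end of the edge
      have p1 := ((Tw.tw c a).mv j).vert_mem_qe.1 g3
      have p2 : v'' = v1 := by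
        rcases g4 with ⟨_, _, h⟩ | ⟨_, _, h⟩ | ⟨b', h⟩
        · cases h
        · cases h
        · have h8 : v'' = (S.sh h3 c).en e b' := Sum.inr.inj (Sum.inr.inj h)
          have h9 : b' = !b := by
            by_contra hne
            have h10 : b' = b := by
              cases b <;> cases b' <;> simp_all
            rw [h10, hb] at h8
            exact g2 (by rw [h8])
          rw [h8, h9, hb']
      rw [p2] at p1 h6 h7
      exact ih p1 h6 h7

end core

/-! ### regions -/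

section region

variable {c : κ} {A : Set E}

/-- the edges of the cells of the sphere which meet `A` -/
def EA (S : Sla T κ) (c : κ) (A : Set E) : Set (S.Ed c) :=
  {e | ∃ q : T.Cell, q.set ⊆ frontier (S.K c) ∧ e.1.set ⊆ q.set ∧ (q.set ∩ A).Nonempty}

/-- the vertices of the cells of the sphere which meet `A` -/
def VA (S : Sla T κ) (c : κ) (A : Set E) : Set (S.Vx c) :=
  {v | ∃ q : T.Cell, q.set ⊆ frontier (S.K c) ∧ v.1 ∈ q.set ∧ (q.set ∩ A).Nonempty}

/-- **the vertices near a connected set are joined by edges near the set** -/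
theorem join (hA : IsCompact A) (hAc : IsPreconnected A) (hAf : A ⊆ frontier (S.K c))
    {v v' : S.Vx c} (hv : v ∈ VA S c A) (hv' : v' ∈ VA S c A) :
    Relation.ReflTransGen (Stp S h3 c (EA S c A)) v v' := by
  have hAO : A ⊆ Om := fun x hx =>
    (S.hH c).sub ((S.hH c).cpt.isClosed.frontier_subset (hAf hx))
  let Jc : Set T.Cell := {q | q.set ⊆ frontier (S.K c)}
  let R := Relation.ReflTransGen (Stp S h3 c (EA S c A))
  let lam : T.Cell → Prop := fun q =>
    ∃ h : T.dim q.pt = 0 ∧ q.pt ∈ frontier (S.K c), R v ⟨q.pt, h.1, h.2⟩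
  let GE : T.Cell → Prop := fun e =>
    ∃ q : T.Cell, q.set ⊆ frontier (S.K c) ∧ e.set ⊆ q.set ∧ (q.set ∩ A).Nonempty
  have hcov : A ⊆ ⋃ i ∈ Jc, i.set := by
    intro x hx
    refine mem_biUnion (show T.cl (hAO hx) ∈ Jc from ?_) ?_
    · show (T.cl (hAO hx)).set ⊆ _
      rw [T.cl_set]; exact (S.hH c).cc x (hAf hx)
    · rw [T.cl_set]; exact T.self_mem_cc x
  obtain ⟨q, hq, hvq, hqA⟩ := hv
  obtain ⟨q', hq', hvq', hqA'⟩ := hv'
  have hvO : v.1 ∈ Om := (S.hH c).sub ((S.hH c).cpt.isClosed.frontier_subset v.2.2)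
  have hvO' : v'.1 ∈ Om := (S.hH c).sub ((S.hH c).cpt.isClosed.frontier_subset v'.2.2)
  have hle : ∀ {x : E} (hx : x ∈ Om) {q : T.Cell}, x ∈ q.set → T.cl hx ≤ q := by
    intro x hx q hxq
    refine Tiling.Cell.le_def.2 ?_
    rw [T.cl_set]
    rw [q.set_eq] at hxq ⊢
    exact T.cc_sub_of_mem hxq
  have hcl : ∀ (w : S.Vx c) (hw : w.1 ∈ Om), lam (T.cl hw) ↔ R v w := by
    intro w hw
    have hset : (T.cl hw).set = {w.1} := by
      rw [T.cl_set]; exact T.cc_eq_singleton (T.dim_eq_zero_iff.1 w.2.1)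
    have hp : (T.cl hw).pt = w.1 := by
      have h1 : (T.cl hw).pt ∈ (T.cl hw).set := (T.cl hw).opn_sub (T.self_mem_oc _)
      rw [hset] at h1
      exact h1
    constructor
    · rintro ⟨h, h'⟩
      have h2 : (⟨(T.cl hw).pt, h.1, h.2⟩ : S.Vx c) = w := Subtype.ext hp
      rwa [h2] at h'
    · intro h
      refine ⟨⟨by rw [hp]; exact w.2.1, by rw [hp]; exact w.2.2⟩, ?_⟩
      have h2 : (⟨(T.cl hw).pt, by rw [hp]; exact w.2.1, by rw [hp]; exact w.2.2⟩ : S.Vx c) = w :=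
        Subtype.ext hp
      rwa [h2]
  have key := Clo_441.label_const (Tiling.cplx (T := T)) (J := Jc) hA hAc hcov
    (P := {x | ∃ e : T.Cell, e.dim = 1 ∧ x ∈ e.opn ∧ ¬ GE e}) (lam := lam) ?_ ?_
    (i := q) (v := T.cl hvO) (i' := q') (v' := T.cl hvO') hq hqA (hle hvO hvq)
    ((T.dim_cl _).trans v.2.1) hq' hqA' (hle hvO' hvq') ((T.dim_cl _).trans v'.2.1)
  · have h1 : lam (T.cl hvO) := (hcl v hvO).2 Relation.ReflTransGen.refl
    rw [key] at h1
    exact (hcl v' hvO').1 h1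
  · -- clean
    intro m hm hmA j hj hj1
    rw [Set.disjoint_left]
    rintro x hxj ⟨e, he, hxe, hG⟩
    have h1 : T.dim x = 1 := (T.dim_eq_of_mem_oc e.pt_mem hxe).trans he
    have hxj' : x ∈ T.cc j.pt := by
      rw [← j.set_eq]; exact hxj
    have h2 : x ∈ j.opn := by
      by_contra h4
      have h5 := T.dim_lt hxj' h4
      have h6 : T.dim j.pt = 1 := hj1
      omega
    have hxO : x ∈ Om := T.cc_sub_Om e.pt_mem (T.oc_sub_cc _ hxe)
    have h6 : e = j := (T.eq_cl hxO hxe).trans (T.eq_cl hxO h2).symm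
    rw [h6] at hG
    exact hG ⟨m, hm, Tiling.Cell.le_def.1 hj, hmA⟩
  · -- constant along a clean edge
    intro e he hd p hp p' hp' hp0 hp0'
    have hG : GE e := by
      by_contra h
      exact Set.disjoint_left.1 hd (e.opn_sub (T.self_mem_oc _)) ⟨e, he, T.self_mem_oc _, h⟩
    obtain ⟨m, hm1, hm2, hm4⟩ := hG
    have hef : e.set ⊆ frontier (S.K c) := hm2.trans hm1
    let e' : S.Ed c := ⟨e, he, hef⟩
    have heB : e' ∈ EA S c A := ⟨m, hm1, hm2, hm4⟩
    have hend : ∀ r : T.Cell, r ≤ e → r.dim = 0 → ∃ (h : T.dim r.pt = 0 ∧ r.pt ∈ frontier (S.K c))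
        (b : Bool), (S.sh h3 c).en e' b = ⟨r.pt, h.1, h.2⟩ := by
      intro r hr hr0
      have hpr : r.pt ∈ e.set := Tiling.Cell.le_def.1 hr (r.opn_sub (T.self_mem_oc _))
      obtain ⟨b, hb⟩ := (endK_iff e' ⟨r.pt, hr0, hef hpr⟩).2 hpr
      exact ⟨⟨hr0, hef hpr⟩, b, hb⟩
    obtain ⟨h1, b, hb⟩ := hend p hp hp0
    obtain ⟨h1', b', hb'⟩ := hend p' hp' hp0'
    have hstep : ∀ b b' : Bool, R v ((S.sh h3 c).en e' b) → R v ((S.sh h3 c).en e' b') := by
      intro b b' h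
      by_cases hbb : b' = b
      · rw [hbb]; exact h
      · have h4 : b' = !b := by cases b <;> cases b' <;> simp_all
        rw [h4]
        exact Relation.ReflTransGen.tail h ⟨e', heB, b, rfl, rfl⟩
    apply propext
    constructor
    · rintro ⟨h, h'⟩
      refine ⟨h1', ?_⟩
      rw [← hb']
      refine hstep b b' ?_
      rw [hb]
      exact h'
    · rintro ⟨h, h'⟩
      refine ⟨h1, ?_⟩
      rw [← hb]
      refine hstep b' b ?_
      rw [hb']
      exact h'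

end region

/-! ### (Y) -/

section y

variable [Nonempty J] {s : GSt (meshC T h3) fam} {r : J → E}
  {v0 v1 : ∀ c, C → VxK T S.K c} {L : ∀ c, C → Lev T (frontier (S.K c)) J}
  {Tw : Twrs (S.sh h3) S.n (outK S.hH S.dis s r)} {l0 : E → J}
  {c : κ} {a : C} {i : J} {A X : Set E} {h : E}

/-- **(Y)**: `A ⊆ frontier (K c)` compact and connected, no cell of the sphere which meets `A`
carries a point of the trace of the family `a`, one vertex in `A` never moves.  Every point of the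
layers (family `a`) over `A` is joined by chords on the vertical faces over the cells which meet
`A` with a point of the boundary of the shrunk core. -/
theorem y_lemma (tt : TwOut S h3 s r v0 v1 L Tw)
    (hmon : Mon Tw c a {w | w ∈ (exa h3 S.hH S.dis (L c a)).P})
    (hA : IsCompact A) (hAc : IsPreconnected A) (hAf : A ⊆ frontier (S.K c))
    (hno : ∀ w ∈ (trc S.hH S.dis s r c a).P, ∀ q : T.Cell, q.set ⊆ frontier (S.K c) →
      w ∈ q.set → ¬ (q.set ∩ A).Nonempty)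
    {v' : S.Vx c} (hv' : v'.1 ∈ A)
    (hR : ∀ i, ¬ Rgn (S.sh h3 c) (v0 c a) (v1 c a) (trc S.hH S.dis s r c a)
      (exa h3 S.hH S.dis (L c a)) i v')
    (hX : Vcl Tw l0 c (EA S c A) i X) (hhX : h ∈ X) (hl : (s2 S h3 Tw l0).lab h = i)
    (hh : (∃ j w, j ≤ S.n c ∧ w ∈ ((Tw.tw c a).pat j).P ∧ w ∈ A ∧ h = S.hp c j w) ∨
      ∃ j, ∃ v : S.Vx c, j < S.n c ∧ v ∈ ((Tw.tw c a).mv j).Qv ∧ v.1 ∈ A ∧ h = S.vc c v.1 j) :
    ∃ e ∈ EA S c A, ∃ w, w ∈ e.1.opn ∧ w ∈ (exa h3 S.hH S.dis (L c a)).P ∧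
      S.hp c (S.n c) w ∈ X ∧ S.hp c (S.n c) w ∈ (s2 S h3 Tw l0).P ∧
      (s2 S h3 Tw l0).lab (S.hp c (S.n c) w) = i := by
  have hB : ∀ e ∈ EA S c A, ∀ j, ∀ w ∈ ((Tw.tw c a).pat j).P, w ∈ e.1.opn →
      w ∈ {w | w ∈ (exa h3 S.hH S.dis (L c a)).P} := by
    rintro e ⟨q, hq, heq, hqA⟩ j w hw hwe
    rcases tt.fits c a j w hw with h1 | h1
    · exact absurd hqA (hno w h1.1 q hq (heq (e.1.opn_sub hwe)))
    · exact h1.1
  have hself : ∀ {x : E} {q : T.Cell}, q.set ⊆ frontier (S.K c) → x ∈ q.set → x ∈ A →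
      (q.set ∩ A).Nonempty := fun _ h1 h2 => ⟨_, h1, h2⟩
  rcases hh with ⟨j, w, hj, hw, hwA, rfl⟩ | ⟨j, v, hj, hv, hvA, rfl⟩
  · obtain ⟨e, he⟩ := pat_onE hw
    have heB : e ∈ EA S c A := ⟨e.1, e.2.2, Subset.rfl, w, e.1.opn_sub he, hwA⟩
    obtain ⟨g1, g2, g3⟩ := down hmon hX heB he (hB e heB j w hw he) hj hw hhX hl
    exact ⟨e, heB, w, he, hB e heB _ w g1 he, g2, mem_hp le_rfl g1, g3⟩
  · have hvt : ∀ v : S.Vx c, v.1 ∈ A → v ∈ VA S c A := by
      intro v hvA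
      have hO : v.1 ∈ Om := (S.hH c).sub ((S.hH c).cpt.isClosed.frontier_subset v.2.2)
      refine ⟨T.cl hO, ?_, ?_, v.1, ?_, hvA⟩
      · rw [T.cl_set]; exact (S.hH c).cc _ v.2.2
      · rw [T.cl_set]; exact T.self_mem_cc _
      · rw [T.cl_set]; exact T.self_mem_cc _
    obtain ⟨e, he, w, g1, g2, g4, g5, g6⟩ := walk hmon hX hB hj
      (join (h3 := h3) hA hAc hAf (hvt v hvA) (hvt v' hv'))
      (fun h1 => hR _ (tt.rgn c a j v' h1)) hv hhX hl
    exact ⟨e, he, w, g1, g2, g5, mem_hp le_rfl g4, g6⟩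

end y

end Crest.Agent.R096.Yl_471
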