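import Crest.Agent.R096.Tro3_147
import Crest.Agent.R096.Yl1_471
import Crest.Agent.R096.Exa14_560

/-!
# R096 (row 96), DOORS, NEWIN (helper498), (O): late columns

`down_late` : a point of the pattern of level `j ≥ jm` (patterns kept from `jm` on) is joined
straight down with its copy on the boundary of the shrunk core;
`late_in`   : a point of the sheet `j` on a late face which carries a barrier point of the family of
`j` is in every set which is closed under the `K3`-chords and contains the points on the giants.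
-/

set_option autoImplicit false
set_option linter.unusedSectionVars false
set_option linter.unusedVariables false
set_option linter.style.longLine false

open Set Relation Module Topology Filter Metric
open scoped Classical

namespace Crest.Agent.R096.Lat_498

open Crest.Agent.R096.Msh_715 Crest.Agent.R096.Agl5_543 Crest.Agent.R096.St_147
  Crest.Agent.R096.Seq_213 Crest.Agent.R096.Door_501 Crest.Agent.R096.Sla_184
  Crest.Agent.R096.Twr_438 Crest.Agent.R096.Exa_560 Crest.Agent.R096.Ess3_95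
  Crest.Agent.R096.Ess4_95 Crest.Agent.R096.Dfi_539 Crest.Agent.R096.Dfi_471
open Crest.Agent.R096.Sla_184.Sla (hf vf old tg F0 Fn Out OnS InL In)

section core

variable {E : Type} [NormedAddCommGroup E] [NormedSpace ℝ E] [FiniteDimensional ℝ E]
variable {Om : Set E} {ι : Type} {T : Tiling Om ι} {κ : Type} {S : Sla T κ}
  {h3 : finrank ℝ E = 3} {J C : Type} {fam : J → C}
variable {s : GSt (S.m0 h3) fam} {Tw : Twrs (S.sh h3) S.n s} {l0 : E → J}
  {c : κ} {a : C} {j : ℕ} {i : J} {w x : E} {X : Set E}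

/-- **straight down, late** -/
theorem down_late {jm : ℕ} {e : S.Ed c} (hw : w ∈ e.1.opn)
    (hpat : ∀ j, jm ≤ j → j < S.n c → w ∈ ((Tw.tw c a).pat j).P → w ∈ ((Tw.tw c a).pat (j + 1)).P)
    {K : S.Fn h3 → E → Prop}
    (hX : ∀ F x, (s2 S h3 Tw l0).At F x → (s2 S h3 Tw l0).lab x = i → K F x →
      (x ∈ X ↔ (s2 S h3 Tw l0).mu F x ∈ X))
    (hK : ∀ j, jm ≤ j → j < S.n c → K (vf h3 e j) (S.hp c j w))
    (hG : w ∈ ((Tw.tw c a).pat (S.n c)).P → (s2 S h3 Tw l0).lab (S.hp c (S.n c) w) = i →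
      S.hp c (S.n c) w ∈ X) :
    ∀ {j : ℕ}, jm ≤ j → j ≤ S.n c → w ∈ ((Tw.tw c a).pat j).P →
      (s2 S h3 Tw l0).lab (S.hp c j w) = i → S.hp c j w ∈ X := by
  have key : ∀ d j, jm ≤ j → j + d = S.n c → w ∈ ((Tw.tw c a).pat j).P →
      (s2 S h3 Tw l0).lab (S.hp c j w) = i → S.hp c j w ∈ X := by
    intro d
    induction d with
    | zero =>
      intro j _ hj h1 h4
      have : j = S.n c := hj
      subst this
      exact hG h1 h4
    | succ d ih =>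
      intro j hjm hj h1 h4
      have hj' : j < S.n c := by omega
      have g1 := hpat j hjm hj' h1
      have hF : S.hp c j w ∈ (S.mn h3).On (vf h3 e j) :=
        (Sla.on_vf_hp hj'.le hj' hw).2 ⟨rfl, Or.inl rfl⟩
      have hx : (Sum.inl w : (S.sh h3 c).Pnt) ∈ ((Tw.tw c a).mv j).P' :=
        ((Tw.tw c a).mv j).top_mem_P'.2 h1
      have hxF : (Sum.inl w : (S.sh h3 c).Pnt) ∈ (S.sh h3 c).On (Sum.inr (Sum.inr e)) :=
        (S.sh h3 c).top_mem_vert.2 hw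
      have hmu : (s2 S h3 Tw l0).mu (vf h3 e j) (S.hp c j w) = S.hp c (j + 1) w := by
        have h5 := mu_vf (l0 := l0) hj' hx hxF
        rw [Move.mu'_vert_nqe _ _ (((Tw.tw c a).mv j).top_not_qe (Twrs.mem_B.2 g1))] at h5
        exact h5
      have hP := mem_hp (l0 := l0) hj'.le h1
      have h7 := (s2 S h3 Tw l0).mu_lab hP hF
      rw [hmu, h4] at h7
      have h6 := ih (j + 1) (by omega) (by omega) g1 h7
      rw [hX _ _ ⟨hP, hF⟩ h4 (hK j hjm hj'), hmu]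
      exact h6
  intro j hjm hj
  exact key (S.n c - j) j hjm (by omega)

/-- a point of the state with layers on the level `j` of the edge `e` -/
theorem pat_of_hp {e : S.Ed c} (hw : w ∈ e.1.opn) (hj : j ≤ S.n c)
    (hP : S.hp c j w ∈ (s2 S h3 Tw l0).P) (hl : fam ((s2 S h3 Tw l0).lab (S.hp c j w)) = a) :
    w ∈ ((Tw.tw c a).pat j).P := by
  rcases Nat.eq_zero_or_pos j with h0 | h0
  · subst h0
    rw [Sla.hp_zero] at hP hl
    obtain ⟨h1, h2⟩ := s2_out hP (Sla.out_fr (Sla.ed_opn_fr e hw))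
    rw [h2] at hl
    exact (Tw.P0 c a w).2 ⟨h1, hl, e, hw⟩
  · have hIn : S.In c (S.hp c j w) := (at_hp e hw h0 hj).1
    rcases s2_in hP hIn with ⟨a', j', u, g0, g1, g2, g3, g4, g5⟩ | ⟨a', j', v, g1, g2, g3, g4, g5⟩
    · obtain ⟨e', he'⟩ := pat_onE g2
      have h5 := Sla.hp_inj hj g1 hw he' g3
      obtain ⟨h7, h8⟩ := h5
      subst h7 h8
      rw [hl] at g5
      subst g5
      exact g2
    · exfalso
      have h5 := Sla.hp_D e hw hj
      rw [g3, Sla.vc_D (Sla.vx_bd v) j', Sla.vx_D v] at h5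
      omega

/-- all cells over one face lie in the same tile -/
theorem tg_same (G : (S.sh h3 c).Fk) {j j' : ℕ} (hj : j < S.n c) (hj' : j' < S.n c) :
    (tg G j).tile = (tg G j').tile := by
  obtain ⟨h1, h2⟩ := tg_tile (S := S) (h3 := h3) (c := c) (G := G) hj
  obtain ⟨g1, g2⟩ := tg_tile (S := S) (h3 := h3) (c := c) (G := G) hj'
  refine inner_unique (hH := S.hH) (hdis := S.dis) G ?_ h2 ?_ g2
  · rw [C2.mem_side]
    exact h1
  · rw [C2.mem_side]
    exact g1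

/-- the late faces at the core `c`: level faces from level `jm` on, vertical faces from layer `jm` -/
def LateF (S : Sla T κ) (h3 : finrank ℝ E = 3) (c : κ) (jm : ℕ) (F : S.Fn h3) : Prop :=
  (∃ (G : (S.sh h3 c).Fk) (i : ℕ), jm ≤ i ∧ i ≤ S.n c ∧ F = hf G i) ∨
    ∃ (e : S.Ed c) (i : ℕ), jm ≤ i ∧ i < S.n c ∧ F = vf h3 e i

/-- **a point of the family `a` on a late face**: a copy of a point of an edge `e`, and the cells over
one of the faces at `e` lie in the tile of one side of the face -/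
theorem late_pt {jm : ℕ} {F : S.Fn h3} (hF : LateF S h3 c jm F) {y : E}
    (hy : (s2 S h3 Tw l0).At F y) (hl : fam ((s2 S h3 Tw l0).lab y) = a)
    (hQ : ∀ j, jm ≤ j → j < S.n c → ((Tw.tw c a).mv j).Qv = ∅) :
    ∃ e : S.Ed c, ∃ w ∈ e.1.opn, ∃ i, jm ≤ i ∧ i ≤ S.n c ∧ y = S.hp c i w ∧
      w ∈ ((Tw.tw c a).pat i).P ∧ ∃ G : (S.sh h3 c).Fk, (∃ b, (S.sh h3 c).fc e b = G.1) ∧
        ∃ i0, i0 < S.n c ∧ (Sum.inl (tg G i0) : T.RIdx S.HH ⊕ κ) ∈ (S.mn h3).side F := by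
  obtain ⟨hyP, hyF⟩ := hy
  rcases hF with ⟨G, i, h1, h2, rfl⟩ | ⟨e, i, h1, h2, rfl⟩
  · obtain ⟨w, hw, rfl⟩ := (Sla.on_hf h2).1 hyF
    obtain ⟨e, b, heb, hwe⟩ := ((S.sh h3 c).onE G.2).1 hw
    have hwe' : w ∈ e.1.opn := hwe
    refine ⟨e, w, hwe', i, h1, h2, rfl, pat_of_hp hwe' h2 hyP hl, G, ⟨b, heb⟩, ?_⟩
    rcases Nat.lt_or_ge i (S.n c) with h | h
    · refine ⟨i, h, ?_⟩
      rcases Nat.eq_zero_or_pos i with h0 | h0
      · subst h0
        exact Sla.side_top G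
      · obtain ⟨k, rfl⟩ := Nat.exists_eq_succ_of_ne_zero h0.ne'
        rw [Sla.side_mid G h]
        exact Sym2.mem_mk_right _ _
    · have h5 : i = S.n c := by omega
      subst h5
      have hn := S.npos c
      refine ⟨S.n c - 1, by omega, ?_⟩
      rw [Sla.side_bot G (j := S.n c - 1) (by omega)]
      exact Sym2.mem_mk_left _ _
  · -- a vertical face
    have hG : ∃ i0, i0 < S.n c ∧ (Sum.inl (tg (⟨(S.sh h3 c).fc e false,
        (S.sh h3 c).fc_side e false⟩ : (S.sh h3 c).Fk) i0) : T.RIdx S.HH ⊕ κ) ∈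
          (S.mn h3).side (vf h3 e i) := by
      refine ⟨i, h2, ?_⟩
      rw [Sla.side_vf e h2]
      exact Sym2.mem_mk_left _ _
    obtain ⟨a', x0, g1, g2, g3, -⟩ := on_vf (l0 := l0) h2 hyP hyF
    rcases x0 with w | w | v
    · have hw : w ∈ e.1.opn := (S.sh h3 c).top_mem_vert.1 g2
      have g3' : y = S.hp c i w := g3
      subst g3'
      exact ⟨e, w, hw, i, h1, h2.le, rfl, pat_of_hp hw h2.le hyP hl, _, ⟨false, rfl⟩, hG⟩
    · have hw : w ∈ e.1.opn := (S.sh h3 c).bot_mem_vert.1 g2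
      have g3' : y = S.hp c (i + 1) w := g3
      subst g3'
      exact ⟨e, w, hw, i + 1, by omega, h2, rfl, pat_of_hp hw h2 hyP hl, _, ⟨false, rfl⟩, hG⟩
    · exfalso
      have hv := ((Tw.tw c a').mv i).vert_mem_P'.1 g1
      have g3' : y = S.vc c v.1 i := g3
      have h5 := lab_vp (l0 := l0) h2 hv
      rw [← g3'] at h5
      rw [h5, Tw.labv hv] at hl
      subst hl
      rw [hQ i h1 h2] at hv
      simp at hv

end core

section main

open Crest.Agent.R096.Brk1_582 Crest.Agent.R096.Brk2_582 Crest.Agent.R096.Brk3_582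
open Crest.Agent.R096.Brk5_582 Crest.Agent.R096.Bsp_628
open Crest.Agent.R096.Seq_213.GSt
open Crest.Agent.R096.Lm_117 Crest.Agent.R096.Ginv_543
open Crest.Agent.R096.Init_543
open Crest.Agent.R096.SkC1_961 (E3 Hom3 FoamD)
open Crest.Agent.R096.Mbf_337 (KJ sb gau Cores Tiny Words)
open Crest.Agent.R096.Frn_337 (Ti cti Lay)
open Crest.Agent.R096.SkB_662 Crest.Agent.R096.Qdl_662 Crest.Agent.R096.Dinv_106
open Crest.Agent.R096.Dis_184
open Crest.Agent.R096.Frk_441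
open Crest.Agent.R096.Tro_914 Crest.Agent.R096.Pbn_147 Crest.Agent.R096.Tro_147
  Crest.Agent.R096.Cg_501 Crest.Agent.R096.Sgd_298
  Crest.Agent.R096.Sgo_298

variable {δ κ0 R c0 : ℝ} {La Om : Set E3} {ι : Type} {Φ : FoamD δ κ0 R c0 La}
  {T : Tiling Om ι} {f g : E3 → E3} {s₁ σ' tb ε : ℝ} {X : Set Φ.F} {J0 : Φ.F → Set ι}
  {ct' : Φ.F → ι} {r₀ : Φ.F → ℝ} {S : Sla T (Ti X)} {L : Φ.F → Finset ℝ} [Nonempty (JJ Φ L)]
  {hLa : IsOpen La} {hR : InitR Φ T f g J0 ct' r₀}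
  {hM : Mesh0 T (Pc Φ.F) (bc (F := Φ.F)) (RF Φ r₀) f (KorJ Φ J0) ε} {hε : ε < s₁} {hε1 : ε < 1}
  {s₃ : GSt (S.mn fr3) (fun j : JJ Φ L => j.1)} {Mo : Type}
  {s : GSt (S.m0 fr3) (Sum.map (fun j : JJ Φ L => j.1) (id : Mo → Mo))}
  {Tw : Twrs (S.sh fr3) S.n s} {l0 : E3 → JJ Φ L ⊕ Mo} {am : Mo → Φ.F}

/-- **(O): A POINT OF `j` ON A LATE FACE WITH A BARRIER POINT OF ITS FAMILY IS IN `X`** -/
theorem late_in (hσ : tb + ε ≤ σ') (posσ : PosT T f J0 S s₃ σ') {lb : ℝ} (hlb : lb + ε < tb)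
    {j : JJ Φ L} {k : Init_543.QK (Pc Φ.F)} (hkB : j.1 ∈ k.B) {c : Ti X} {jm : ℕ}
    (hpat : ∀ i, jm ≤ i → i < S.n c →
      ((Tw.tw c (Sum.inl j.1)).pat i).P ⊆ ((Tw.tw c (Sum.inl j.1)).pat (i + 1)).P)
    (hQ : ∀ i, jm ≤ i → i < S.n c → ((Tw.tw c (Sum.inl j.1)).mv i).Qv = ∅) {Y : Set E3}
    (hY : ∀ F w, (s2 S fr3 Tw l0).At F w → (s2 S fr3 Tw l0).lab w = Sum.inl j →
      K3 s₃ (qS S hLa hR hM hε hε1) j k F w → (w ∈ Y ↔ (s2 S fr3 Tw l0).mu F w ∈ Y))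
    (hG : ∀ F w, Sum.inr c ∈ (S.mn fr3).side F → (s2 S fr3 Tw l0).At F w →
      (s2 S fr3 Tw l0).lab w = Sum.inl j → w ∈ Y)
    {F : S.Fn fr3} (hF : LateF S fr3 c jm F) {y h : E3} (hy : (s2 S fr3 Tw l0).At F y)
    (hyl : (s2 S fr3 Tw l0).lab y = Sum.inl j) (hh : (s2 S fr3 Tw l0).At F h)
    (hp : ∀ p : T.RIdx S.HH, (∀ k', ¬ P (S.T3.H p) ⊆ S.KK k') → h ∈ P (S.T3.H p) →
      p.tile ∉ KorJ Φ J0 → ∀ e, e ≠ j.1 → ∃ x ∈ P (T.H p.tile),
        Φ.lev e (f x) ≤ lb ∨ 1 - lb ≤ Φ.lev e (f x)) : y ∈ Y := by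
  have hfam : Sum.map (fun j : JJ Φ L => j.1) (id : Mo → Mo) ((s2 S fr3 Tw l0).lab y) =
      Sum.inl j.1 := by rw [hyl]; rfl
  obtain ⟨e, w, hw, i, h1, h2, rfl, h4, G, ⟨b, hGe⟩, i0, h5, h6⟩ := late_pt hF hy hfam hQ
  obtain ⟨hhp, hpK, -⟩ := sideN_tile hh.2 h6
  have hact : (tg G i0).tile ∉ Act0 T (Pc Φ.F) (bc (F := Φ.F)) (RF Φ r₀) f (KorJ Φ J0) tb k :=
    bar_act hLa hR hM hlb hkB fun h3 => hp _ hpK hhp h3
  refine down_late (jm := jm) hw (fun i' a1 a2 a3 => hpat i' a1 a2 a3) hY ?_ ?_ h1 h2 h4 hyl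
  · intro i' a1 a2 hA hl
    refine kfree_side hσ posσ (p := tg G i') ?_ ?_ hA ?_
    · rw [Sla.side_vf e a2]
      have hG' : G = ⟨(S.sh fr3 c).fc e b, (S.sh fr3 c).fc_side e b⟩ := Subtype.ext hGe.symm
      rw [hG']
      cases b
      · exact Sym2.mem_mk_left _ _
      · exact Sym2.mem_mk_right _ _
    · rw [tg_same G a2 h5]
      exact hact
    · rw [hl]
      exact (qin k _).2 hkB
  · intro a1 a2
    obtain ⟨G', hG'⟩ : ∃ G' : (S.sh fr3 c).Fk, (S.sh fr3 c).fc e b = G'.1 := ⟨G, hGe⟩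
    have hwG : w ∈ (S.m0 fr3).On G.1 := by
      rw [(S.sh fr3 c).onE G.2]
      exact ⟨e, b, hGe, hw⟩
    have hn := S.npos c
    refine hG (hf G (S.n c)) _ ?_ ⟨mem_hp le_rfl a1, (Sla.on_hf le_rfl).2 ⟨w, hwG, rfl⟩⟩ a2
    rw [Sla.side_bot G (j := S.n c - 1) (by omega)]
    exact Sym2.mem_mk_right _ _

end main

end Crest.Agent.R096.Lat_498
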