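import Crest.Agent.R096.Sla2_184

/-!
# Row 96, DOORS, leaf SLC in the format of `Mbf_337.Tiny` (helper184), part 3: level points, level
edges, the maps `hc`, `vc`, `hp`.
-/

set_option autoImplicit false
set_option linter.unusedSectionVars false

open Set Filter Topology Metric
open scoped Classical

namespace Crest.Agent.R096.Sla_184

open Crest.Agent.R096.Msh_715 Crest.Agent.R096.Agl5_543 Crest.Agent.R096.St_147
  Crest.Agent.R096.Slc_184

variable {E : Type} [NormedAddCommGroup E] [NormedSpace ℝ E] [FiniteDimensional ℝ E]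
variable {Om : Set E} {ι : Type}

namespace Sla

variable {T : Tiling Om ι} {κ : Type} {S : Sla T κ} {c : κ} {x y z w : E} {j : ℕ}

theorem onS_of_C (hx : x ∈ S.Bd c) (hy : y ∈ S.C c x) (hj : j ≤ S.n c) (h : S.φ c y = S.t c j) :
    S.OnS c j y := ⟨C_K hx hy, hj, h⟩

theorem inL_of_C (hx : x ∈ S.Bd c) (hy : y ∈ S.C c x) (hj : j < S.n c)
    (h : S.t c (j + 1) < S.φ c y) (h' : S.φ c y < S.t c j) : S.InL c j y :=
  ⟨C_K hx hy, hj, h, h'⟩

/-! ### level points -/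

/-- point of the level `j` in the virtual open cell of `x` -/
noncomputable def hc (S : Sla T κ) (c : κ) (x : E) (j : ℕ) : E := S.lv c x (S.t c (min j (S.n c)))

/-- point of the layer `j` in the virtual open cell of `x` -/
noncomputable def vc (S : Sla T κ) (c : κ) (x : E) (j : ℕ) : E :=
  S.lv c x (S.mid c (min j (S.n c - 1)))

theorem hc_aux (hx : x ∈ S.Bd c) (j : ℕ) : S.hc c x j ∈ S.O c x ∧
    S.φ c (S.hc c x j) = S.t c (min j (S.n c)) :=
  lv_mem hx (S.a_lt_t (min_le_right _ _)) (S.t_le (Nat.zero_le _) (min_le_right _ _))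

theorem vc_aux (hx : x ∈ S.Bd c) (j : ℕ) : S.vc c x j ∈ S.O c x ∧
    S.φ c (S.vc c x j) = S.mid c (min j (S.n c - 1)) := by
  have h : min j (S.n c - 1) < S.n c := by have := S.npos c; omega
  exact lv_mem hx (S.a_lt_mid h) (S.mid_le h)

theorem hc_O (hx : x ∈ S.Bd c) (j : ℕ) : S.hc c x j ∈ S.O c x := (hc_aux hx j).1

theorem vc_O (hx : x ∈ S.Bd c) (j : ℕ) : S.vc c x j ∈ S.O c x := (vc_aux hx j).1

theorem hc_onS' (hx : x ∈ S.Bd c) (j : ℕ) : S.OnS c (min j (S.n c)) (S.hc c x j) :=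
  ⟨(hc_O hx j).1.1, min_le_right _ _, (hc_aux hx j).2⟩

theorem hc_onS (hx : x ∈ S.Bd c) (hj : j ≤ S.n c) : S.OnS c j (S.hc c x j) := by
  have := hc_onS' hx j
  rwa [min_eq_left hj] at this

theorem vc_inL' (hx : x ∈ S.Bd c) (j : ℕ) : S.InL c (min j (S.n c - 1)) (S.vc c x j) := by
  have h : min j (S.n c - 1) < S.n c := by have := S.npos c; omega
  refine ⟨(vc_O hx j).1.1, h, ?_, ?_⟩
  · rw [(vc_aux hx j).2]; exact S.lt_mid h
  · rw [(vc_aux hx j).2]; exact S.mid_lt h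

theorem vc_inL (hx : x ∈ S.Bd c) (hj : j < S.n c) : S.InL c j (S.vc c x j) := by
  have := vc_inL' hx j
  rwa [min_eq_left (by omega)] at this

theorem hc_D (hx : x ∈ S.Bd c) (j : ℕ) : S.D c (S.hc c x j) = S.D c x := D_eq hx (hc_O hx j)

theorem vc_D (hx : x ∈ S.Bd c) (j : ℕ) : S.D c (S.vc c x j) = S.D c x := D_eq hx (vc_O hx j)

theorem hc_dim3 (hx : x ∈ S.Bd c) (j : ℕ) : S.T3.dim (S.hc c x j) + 1 = S.D c x := by
  rw [(hc_onS' hx j).dim3, hc_D hx]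

theorem vc_dim3 (hx : x ∈ S.Bd c) (j : ℕ) : S.T3.dim (S.vc c x j) = S.D c x := by
  rw [(vc_inL' hx j).dim3, vc_D hx]

theorem mem_O_iff (hx : x ∈ S.Bd c) (hy : y ∈ S.O c x) : z ∈ S.O c y ↔ z ∈ S.O c x :=
  ⟨fun h => O_trans hx hy h, fun h => O_trans hy.1 (O_symm hx hy) h⟩

theorem mem_cc_hc (hx : x ∈ S.Bd c) (hj : j ≤ S.n c) :
    y ∈ S.T3.cc (S.hc c x j) ↔ y ∈ S.C c x ∧ S.φ c y = S.t c j := by
  rw [(hc_onS hx hj).cc, C_eq hx (hc_O hx j)]

theorem mem_oc_hc (hx : x ∈ S.Bd c) (hj : j ≤ S.n c) :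
    y ∈ S.T3.oc (S.hc c x j) ↔ y ∈ S.O c x ∧ S.φ c y = S.t c j := by
  rw [(hc_onS hx hj).oc, mem_O_iff hx (hc_O hx j)]

theorem mem_cc_vc (hx : x ∈ S.Bd c) (hj : j < S.n c) :
    y ∈ S.T3.cc (S.vc c x j) ↔ y ∈ S.C c x ∧ S.t c (j + 1) ≤ S.φ c y ∧ S.φ c y ≤ S.t c j := by
  rw [(vc_inL hx hj).cc, C_eq hx (vc_O hx j)]

theorem mem_oc_vc (hx : x ∈ S.Bd c) (hj : j < S.n c) :
    y ∈ S.T3.oc (S.vc c x j) ↔ y ∈ S.O c x ∧ S.t c (j + 1) < S.φ c y ∧ S.φ c y < S.t c j := by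
  rw [(vc_inL hx hj).oc, mem_O_iff hx (vc_O hx j)]

/-- the layers at a point between the slices -/
theorem layer_cases (hx : x ∈ S.Bd c) (hj : j < S.n c) (h : S.t c (j + 1) ≤ S.φ c x)
    (h' : S.φ c x ≤ S.t c j) : S.OnS c j x ∨ S.OnS c (j + 1) x ∨ S.InL c j x := by
  rcases eq_or_lt_of_le h with h1 | h1
  · exact Or.inr (Or.inl ⟨hx.1, hj, h1.symm⟩)
  · rcases eq_or_lt_of_le h' with h2 | h2
    · exact Or.inl ⟨hx.1, hj.le, h2⟩
    · exact Or.inr (Or.inr ⟨hx.1, hj, h1, h2⟩)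

theorem bd_of_C (hx : x ∈ S.Bd c) (hy : y ∈ S.C c x) (hj : j < S.n c)
    (h : S.t c (j + 1) ≤ S.φ c y) : y ∈ S.Bd c := ⟨C_K hx hy, (S.a_lt_t hj).trans_le h⟩

/-! ### the shells -/

/-- edges of the shell -/
abbrev Ed (S : Sla T κ) (c : κ) : Type := EdK T S.K c

/-- vertices of the shell -/
abbrev Vx (S : Sla T κ) (c : κ) : Type := VxK T S.K c

theorem ed_fr (e : S.Ed c) : e.1.pt ∈ frontier (S.K c) := e.2.2 (e.1.opn_sub (T.self_mem_oc _))

theorem ed_onS (e : S.Ed c) : S.OnS c 0 e.1.pt := onS_fr (ed_fr e)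

theorem ed_bd (e : S.Ed c) : e.1.pt ∈ S.Bd c := (ed_onS e).bd

theorem ed_D (e : S.Ed c) : S.D c e.1.pt = 2 := by
  rw [D_fr (ed_fr e)]
  have : T.dim e.1.pt = 1 := e.2.1
  omega

theorem vx_fr (v : S.Vx c) : v.1 ∈ frontier (S.K c) := v.2.2

theorem vx_onS (v : S.Vx c) : S.OnS c 0 v.1 := onS_fr (vx_fr v)

theorem vx_bd (v : S.Vx c) : v.1 ∈ S.Bd c := (vx_onS v).bd

theorem vx_D (v : S.Vx c) : S.D c v.1 = 1 := by
  rw [D_fr (vx_fr v), v.2.1]

theorem mem_set_ed (e : S.Ed c) : y ∈ e.1.set ↔ y ∈ S.C c e.1.pt ∧ S.φ c y = S.t c 0 := by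
  rw [e.1.set_eq, ← (out_fr (ed_fr e)).cc, (ed_onS e).cc]

theorem mem_opn_ed (e : S.Ed c) : y ∈ e.1.opn ↔ y ∈ S.O c e.1.pt ∧ S.φ c y = S.t c 0 := by
  show y ∈ T.oc e.1.pt ↔ _
  rw [← (out_fr (ed_fr e)).oc, (ed_onS e).oc]

theorem endp_fr (e : S.Ed c) (b : Bool) : endp e.1 b ∈ frontier (S.K c) :=
  e.2.2 (endp_mem e.2.1 b).1

theorem endp_onS (e : S.Ed c) (b : Bool) : S.OnS c 0 (endp e.1 b) := onS_fr (endp_fr e b)

theorem endp_bd (e : S.Ed c) (b : Bool) : endp e.1 b ∈ S.Bd c := (endp_onS e b).bd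

theorem endp_D (e : S.Ed c) (b : Bool) : S.D c (endp e.1 b) = 1 := by
  rw [D_fr (endp_fr e b), (endp_mem e.2.1 b).2]

theorem endp_C (e : S.Ed c) (b : Bool) : endp e.1 b ∈ S.C c e.1.pt :=
  ((mem_set_ed e).1 (endp_mem e.2.1 b).1).1

/-- equality of edges -/
theorem ed_eq {e e' : S.Ed c} (h : e'.1.pt ∈ S.O c e.1.pt) : e = e' := by
  apply Subtype.ext
  apply Tiling.Cell.ext
  rw [e.1.set_eq, e'.1.set_eq]
  exact (T.cc_eq_of_mem_oc e.1.pt_mem ((O_fr (ed_fr e) (ed_fr e')).1 h)).symm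

/-- the edge of a point -/
noncomputable def edx (hx : x ∈ frontier (S.K c)) (hd : T.dim x = 1) : S.Ed c :=
  edK T S.K (fun c => (S.hH c).cc) (out_fr hx).1 hx hd

theorem edx_opn (hx : x ∈ frontier (S.K c)) (hd : T.dim x = 1) : x ∈ (edx hx hd).1.opn := by
  show x ∈ (T.cl (out_fr hx).1).opn
  rw [T.opn_cl]; exact T.self_mem_oc x

theorem edx_set (hx : x ∈ frontier (S.K c)) (hd : T.dim x = 1) : (edx hx hd).1.set = T.cc x := rfl

theorem edx_O (hx : x ∈ frontier (S.K c)) (hd : T.dim x = 1) : (edx hx hd).1.pt ∈ S.O c x :=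
  (O_fr hx (ed_fr _)).2 (T.pt_cl (out_fr hx).1)

theorem vx_eq {v v' : S.Vx c} (h : v'.1 ∈ S.O c v.1) : v = v' := by
  apply Subtype.ext
  exact lv_unique (vx_bd v) (vx_D v) (self_C (vx_bd v)) (O_C (vx_bd v) h)
    ((vx_onS v).2.2.trans (vx_onS v').2.2.symm)

/-- on a vertex the level 0 point is the vertex -/
theorem hc_zero_vx (hx : S.OnS c 0 x) (hd : S.D c x = 1) : S.hc c x 0 = x :=
  lv_unique hx.bd hd (O_C hx.bd (hc_O hx.bd 0)) (self_C hx.bd)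
    ((hc_onS hx.bd (Nat.zero_le _)).2.2.trans hx.2.2.symm)

/-- corners -/
theorem cor_mem (e : S.Ed c) (b : Bool) (hj : j ≤ S.n c) :
    S.hc c (endp e.1 b) j ∈ S.T3.cc (S.hc c e.1.pt j) := by
  rw [mem_cc_hc (ed_bd e) hj]
  exact ⟨C_sub (ed_bd e) (endp_bd e b) (endp_C e b) (O_C (endp_bd e b) (hc_O (endp_bd e b) j)),
    (hc_onS (endp_bd e b) hj).2.2⟩

theorem cor_dim3 (e : S.Ed c) (b : Bool) (j : ℕ) : S.T3.dim (S.hc c (endp e.1 b) j) = 0 := by
  have h1 := hc_dim3 (endp_bd e b) j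
  have h2 := endp_D e b
  omega

theorem endp_sep (e : S.Ed c) (h : endp e.1 true ∈ S.O c (endp e.1 false)) : False := by
  have h1 := lv_unique (endp_bd e false) (endp_D e false) (self_C (endp_bd e false))
    (O_C (endp_bd e false) h) ((endp_onS e false).2.2.trans (endp_onS e true).2.2.symm)
  exact (lft_rgt e.2.1).1 h1

theorem cor_ne (e : S.Ed c) (j k : ℕ) :
    S.hc c (endp e.1 false) j ≠ S.hc c (endp e.1 true) k := by
  intro h
  have h1 := hc_O (endp_bd e false) j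
  have h2 := hc_O (endp_bd e true) k
  rw [← h] at h2
  exact endp_sep e (O_trans (endp_bd e false) h1 (O_symm (endp_bd e true) h2))

/-- the level edges -/
theorem lvl_edge (e : S.Ed c) (hj : j ≤ S.n c) :
    S.T3.cc (S.hc c e.1.pt j) = segment ℝ (S.hc c (endp e.1 false) j) (S.hc c (endp e.1 true) j) ∧
    S.T3.oc (S.hc c e.1.pt j) =
      openSegment ℝ (S.hc c (endp e.1 false) j) (S.hc c (endp e.1 true) j) := by
  have hO : S.hc c e.1.pt j ∈ Om := (hc_onS (ed_bd e) hj).mem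
  have hd : S.T3.dim (S.hc c e.1.pt j) = 1 := by
    have h1 := hc_dim3 (ed_bd e) j
    have h2 := ed_D e
    omega
  obtain ⟨a, b, -, h1, h2, -, -, -, -⟩ := S.T3.edge_eq hO hd
  have hP := S.T3.vertex_of_edge hO hd h1 (cor_mem e false hj) (cor_dim3 e false j)
  have hQ := S.T3.vertex_of_edge hO hd h1 (cor_mem e true hj) (cor_dim3 e true j)
  have hne := cor_ne e j j
  rcases hP with hP | hP <;> rcases hQ with hQ | hQ
  · exact absurd (hP.trans hQ.symm) hne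
  · rw [hP, hQ]; exact ⟨h1, h2⟩
  · rw [hP, hQ, segment_symm, openSegment_symm]; exact ⟨h1, h2⟩
  · exact absurd (hP.trans hQ.symm) hne

/-! ### the copies of the points of the edges -/

/-- the copy of `w` on the level `j` -/
noncomputable def hp (S : Sla T κ) (c : κ) (j : ℕ) (w : E) : E :=
  if j = 0 then w else if h : w ∈ Om then
    S.hc c (lft (T.cl h)) j +
      par T w • (S.hc c (rgt (T.cl h)) j - S.hc c (lft (T.cl h)) j)
  else w

theorem hp_zero (w : E) : S.hp c 0 w = w := if_pos rfl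

theorem hp_eq (e : S.Ed c) (hw : w ∈ e.1.opn) (j : ℕ) :
    S.hp c j w = S.hc c (endp e.1 false) j +
      par T w • (S.hc c (endp e.1 true) j - S.hc c (endp e.1 false) j) := by
  have hO : w ∈ Om := opn_sub_Om e.1 hw
  have he : T.cl hO = e.1 := (T.eq_cl hO hw).symm
  unfold hp
  by_cases hj : j = 0
  · rw [if_pos hj, hj, hc_zero_vx (endp_onS e false) (endp_D e false),
      hc_zero_vx (endp_onS e true) (endp_D e true)]
    obtain ⟨s, hs, e1⟩ := exists_par e.2.1 hw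
    have h2 := (par_eq e.2.1 hs).2
    rw [← e1] at h2
    rw [h2]
    exact e1
  · rw [if_neg hj, dif_pos hO, he]
    rfl

theorem par_mem (e : S.Ed c) (hw : w ∈ e.1.opn) : par T w ∈ Ioo (0 : ℝ) 1 := by
  obtain ⟨s, hs, e1⟩ := exists_par e.2.1 hw
  have h2 := (par_eq e.2.1 hs).2
  rw [← e1] at h2
  rw [h2]; exact hs

theorem hp_mem (e : S.Ed c) (hw : w ∈ e.1.opn) (hj : j ≤ S.n c) :
    S.hp c j w ∈ S.T3.oc (S.hc c e.1.pt j) := by
  rw [(lvl_edge e hj).2, hp_eq e hw, openSegment_eq_image']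
  exact ⟨_, par_mem e hw, rfl⟩

theorem exists_hp (e : S.Ed c) (hj : j ≤ S.n c) (hx : x ∈ S.T3.oc (S.hc c e.1.pt j)) :
    ∃ w ∈ e.1.opn, S.hp c j w = x := by
  rw [(lvl_edge e hj).2, openSegment_eq_image'] at hx
  obtain ⟨s, hs, rfl⟩ := hx
  obtain ⟨h1, h2⟩ := par_eq e.2.1 hs
  refine ⟨_, h1, ?_⟩
  rw [hp_eq e h1, h2]

theorem hp_O (e : S.Ed c) (hw : w ∈ e.1.opn) (hj : j ≤ S.n c) : S.hp c j w ∈ S.O c e.1.pt :=
  ((mem_oc_hc (ed_bd e) hj).1 (hp_mem e hw hj)).1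

theorem hp_onS (e : S.Ed c) (hw : w ∈ e.1.opn) (hj : j ≤ S.n c) : S.OnS c j (S.hp c j w) := by
  have h := (mem_oc_hc (ed_bd e) hj).1 (hp_mem e hw hj)
  exact onS_of_C (ed_bd e) (O_C (ed_bd e) h.1) hj h.2

theorem hp_D (e : S.Ed c) (hw : w ∈ e.1.opn) (hj : j ≤ S.n c) : S.D c (S.hp c j w) = 2 := by
  rw [D_eq (ed_bd e) (hp_O e hw hj), ed_D e]

theorem hp_dim3 (e : S.Ed c) (hw : w ∈ e.1.opn) (hj : j ≤ S.n c) :
    S.T3.dim (S.hp c j w) = 1 := by
  have h1 := (hp_onS e hw hj).dim3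
  have h2 := hp_D e hw hj
  omega

theorem hp_inj {e e' : S.Ed c} {w' : E} {j' : ℕ} (hj : j ≤ S.n c) (hj' : j' ≤ S.n c)
    (hw : w ∈ e.1.opn) (hw' : w' ∈ e'.1.opn) (h : S.hp c j w = S.hp c j' w') :
    j = j' ∧ w = w' := by
  have h1 := hp_onS e hw hj
  have h2 := hp_onS e' hw' hj'
  rw [← h] at h2
  have hjj : j = j' := S.t_inj hj hj' (h1.2.2.symm.trans h2.2.2)
  subst hjj
  refine ⟨rfl, ?_⟩
  have h3 := hp_O e hw hj
  have h4 := hp_O e' hw' hj'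
  rw [← h] at h4
  have h5 : e'.1.pt ∈ S.O c e.1.pt := O_trans (ed_bd e) h3 (O_symm (ed_bd e') h4)
  have he : e = e' := ed_eq h5
  subst he
  rw [hp_eq e hw, hp_eq e hw'] at h
  have h6 : (par T w - par T w') •
      (S.hc c (endp e.1 true) j - S.hc c (endp e.1 false) j) = 0 := by
    rw [sub_smul, sub_eq_zero]
    exact add_left_cancel h
  rcases smul_eq_zero.1 h6 with h7 | h7
  · obtain ⟨s, hs, e1⟩ := exists_par e.2.1 hw
    obtain ⟨s', hs', e1'⟩ := exists_par e.2.1 hw'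
    have g1 := (par_eq e.2.1 hs).2
    have g2 := (par_eq e.2.1 hs').2
    rw [← e1] at g1
    rw [← e1'] at g2
    rw [g1, g2, sub_eq_zero] at h7
    rw [e1, e1', h7]
  · exact absurd (sub_eq_zero.1 h7).symm (cor_ne e j j)

/-- the base point of a point of the band -/
theorem base_onS (hx : x ∈ S.Bd c) : S.OnS c 0 (S.hc c x 0) := hc_onS hx (Nat.zero_le _)

theorem base_fr (hx : x ∈ S.Bd c) : S.hc c x 0 ∈ frontier (S.K c) := (base_onS hx).fr

theorem base_dim (hx : x ∈ S.Bd c) : T.dim (S.hc c x 0) + 1 = S.D c x := by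
  rw [← D_fr (base_fr hx), hc_D hx]

/-- every point of a level edge is a copy -/
theorem exists_hp_of (hx : S.OnS c j x) (hd : S.T3.dim x = 1) :
    ∃ e : S.Ed c, e.1.pt ∈ S.O c x ∧ x ∈ S.O c e.1.pt ∧ ∃ w ∈ e.1.opn, S.hp c j w = x := by
  have hj := hx.2.1
  have hd2 : S.D c x = 2 := by have := hx.dim3; omega
  have hd3 : T.dim (S.hc c x 0) = 1 := by have := base_dim hx.bd; omega
  set e : S.Ed c := edx (base_fr hx.bd) hd3 with he
  have h1 : e.1.pt ∈ S.O c x := O_trans hx.bd (hc_O hx.bd 0) (edx_O (base_fr hx.bd) hd3)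
  have h2 : x ∈ S.O c e.1.pt := O_symm hx.bd h1
  refine ⟨e, h1, h2, exists_hp e hj ?_⟩
  rw [mem_oc_hc (ed_bd e) hj]
  exact ⟨h2, hx.2.2⟩

/-! ### the points of the vertical edges -/

theorem layer_inj {j' : ℕ} (h1 : S.InL c j x) (h2 : S.InL c j' x) : j = j' := by
  rcases lt_trichotomy j j' with h7 | h7 | h7
  · have := S.t_le (c := c) (show j + 1 ≤ j' by omega) h2.2.1.le
    have := h1.2.2.1
    have := h2.2.2.2
    linarith
  · exact h7
  · have := S.t_le (c := c) (show j' + 1 ≤ j by omega) h1.2.1.le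
    have := h2.2.2.1
    have := h1.2.2.2
    linarith

theorem vp_inj {v v' : S.Vx c} {j' : ℕ} (hj : j < S.n c) (hj' : j' < S.n c)
    (h : S.vc c v.1 j = S.vc c v'.1 j') : j = j' ∧ v = v' := by
  have h1 := vc_inL (vx_bd v) hj
  have h2 := vc_inL (vx_bd v') hj'
  rw [← h] at h2
  refine ⟨layer_inj h1 h2, ?_⟩
  have h3 := vc_O (vx_bd v) j
  have h4 := vc_O (vx_bd v') j'
  rw [← h] at h4
  exact vx_eq (O_trans (vx_bd v) h3 (O_symm (vx_bd v') h4))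

end Sla

end Crest.Agent.R096.Sla_184
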