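import Crest.Agent.R096.Slp1_316
import Crest.Agent.R096.Sla3_184
import Crest.Agent.R096.Cb2_609

/-!
# Row 96, DOORS_final, leaf LAY (helper316), part 1: **the remaining core is a PL ball**

Over 184's `Sla`: the band `{s ≤ φ ≤ t}` of a core is a complex over the poset
`FC × {lo, hi < mid}`; so `{φ ≤ t}` is PL homeomorphic to the core.

* `cplx_band`      : the band as a complex.
* `exists_squeeze` : `S.K c ≅ {x ∈ S.K c | φ x ≤ t}`, identity below `s`, frontier onto `{φ = t}`.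
* `ball_le`        : `{x ∈ S.K c | φ x ≤ t}` is a ball if the core is one.
-/

set_option autoImplicit false
set_option linter.unusedSectionVars false

open Set Filter Topology Metric
open scoped Classical

namespace Crest.Agent.R096.Lay_316

open Crest.Agent.R096.Msh_715 Crest.Agent.R096.Slc_184 Crest.Agent.R096.Sla_184
  Crest.Agent.R096.Ce_537 Crest.Agent.R096.Slp_316

/-- the three kinds of cells over a cell of the frontier -/
inductive L3 : Type
  | lo : L3
  | hi : L3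
  | mid : L3

instance : PartialOrder L3 where
  le i j := i = j ∨ j = .mid
  le_refl i := Or.inl rfl
  le_trans i j k h1 h2 := by
    rcases h2 with rfl | rfl
    · exact h1
    · exact Or.inr rfl
  le_antisymm i j h1 h2 := by
    rcases h1 with rfl | rfl
    · rfl
    · rcases h2 with h | h
      · exact h.symm
      · exact h

theorem L3.le_def {i j : L3} : i ≤ j ↔ i = j ∨ j = .mid := Iff.rfl

instance : Finite L3 := by
  refine Finite.of_injective (fun i : L3 => match i with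
    | .lo => (0 : Fin 3)
    | .hi => 1
    | .mid => 2) ?_
  intro i j h
  cases i <;> cases j <;> simp_all

/-- dimension of the fibre -/
def L3.d : L3 → ℕ
  | .lo => 0
  | .hi => 0
  | .mid => 1

/-- interval of levels -/
def L3.cl (s t : ℝ) : L3 → Set ℝ
  | .lo => {s}
  | .hi => {t}
  | .mid => Icc s t

/-- open interval of levels -/
def L3.op (s t : ℝ) : L3 → Set ℝ
  | .lo => {s}
  | .hi => {t}
  | .mid => Ioo s t

variable {E : Type} [NormedAddCommGroup E] [NormedSpace ℝ E] [FiniteDimensional ℝ E]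
variable {Om : Set E} {ι : Type} {T : Tiling Om ι} {κ : Type} {S : Sla T κ} {c : κ}

/-- cells of the band -/
def bcell (S : Sla T κ) (c : κ) (s t : ℝ) (p : FC S c × L3) : Set E :=
  {y | y ∈ S.C c p.1.pt ∧ S.φ c y ∈ p.2.cl s t}

/-- the band -/
def band (S : Sla T κ) (c : κ) (s t : ℝ) : Set E := {y | y ∈ S.K c ∧ s ≤ S.φ c y ∧ S.φ c y ≤ t}

/-! ### points of the band -/

theorem cel_le' {q : FC S c} {y : E} (hB : y ∈ S.Bd c) (hy : y ∈ S.C c q.pt) :
    cel S c hB ≤ q := by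
  obtain ⟨h1, -⟩ := Sla.lv_mem hB (S.a_lt_t (Nat.zero_le _)) le_rfl
  rw [FC.le_iff]
  show (mkF (top_fr hB)).set ⊆ q.set
  have h2 : S.lv c y (S.t c 0) ∈ S.C c q.pt :=
    Sla.C_sub q.pt_Bd hB hy (Sla.O_C hB h1)
  rw [mkF_set, q.set_eq]
  have h4 : S.lv c y (S.t c 0) ∈ T.cc q.pt := by
    rw [← Sla.C_fr q.pt_fr]
    exact ⟨h2, top_fr hB⟩
  exact T.cc_sub_of_mem h4

theorem lower_of_not_O' {q : FC S c} {y : E} (hB : y ∈ S.Bd c) (hy : y ∈ S.C c q.pt)
    (hO : y ∉ S.O c q.pt) : ∃ k < q, y ∈ S.C c k.pt := by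
  refine ⟨cel S c hB, lt_of_le_of_ne (cel_le' hB hy) fun h => hO ?_,
    Sla.O_C (cel S c hB).pt_Bd (cel_O hB)⟩
  have := cel_O hB
  rwa [h] at this

theorem not_O_of_lower' {k q : FC S c} (h : k < q) {y : E} (hB : y ∈ S.Bd c)
    (hy : y ∈ S.C c k.pt) : y ∉ S.O c q.pt := by
  intro hO
  have h1 := D_le k.pt_Bd hB hy
  have h2 := Sla.D_eq q.pt_Bd hO
  rw [k.D_pt] at h1
  rw [q.D_pt] at h2
  have := FC.dim_lt h
  omega

theorem mem_cl_of_op {s t : ℝ} {i : L3} {r : ℝ} (h : r ∈ i.op s t) :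
    r ∈ i.cl s t := by
  cases i
  · exact h
  · exact h
  · exact Ioo_subset_Icc_self h

theorem cl_sub {s t : ℝ} (hst : s < t) {i : L3} {r : ℝ} (h : r ∈ i.cl s t) : s ≤ r ∧ r ≤ t := by
  cases i
  · have : r = s := h
    rw [this]; exact ⟨le_rfl, hst.le⟩
  · have : r = t := h
    rw [this]; exact ⟨hst.le, le_rfl⟩
  · exact h

theorem cl_mono {s t : ℝ} (hst : s < t) {i j : L3} (hij : i ≤ j) {r : ℝ} (h : r ∈ i.cl s t) :
    r ∈ j.cl s t := by
  rcases L3.le_def.1 hij with rfl | rfl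
  · exact h
  · exact cl_sub hst h

theorem cl_lower {s t : ℝ} {i : L3} {r : ℝ} (h : r ∈ i.cl s t)
    (h' : r ∉ i.op s t) : ∃ j < i, r ∈ j.cl s t := by
  cases i
  · exact absurd h h'
  · exact absurd h h'
  · obtain ⟨h1, h2⟩ : s ≤ r ∧ r ≤ t := h
    rcases eq_or_lt_of_le h1 with h3 | h3
    · refine ⟨.lo, lt_of_le_of_ne (Or.inr rfl) (by simp), h3.symm⟩
    · rcases eq_or_lt_of_le h2 with h4 | h4
      · exact ⟨.hi, lt_of_le_of_ne (Or.inr rfl) (by simp), h4⟩
      · exact absurd ⟨h3, h4⟩ h'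

theorem op_lower {s t : ℝ} {i j : L3} (hij : j < i) {r : ℝ} (h : r ∈ j.cl s t) :
    r ∉ i.op s t := by
  have h1 : j ≠ i := hij.ne
  rcases L3.le_def.1 hij.le with h2 | rfl
  · exact absurd h2 h1
  · cases j
    · rintro ⟨h3, -⟩
      have : r = s := h
      linarith
    · rintro ⟨-, h3⟩
      have : r = t := h
      linarith
    · exact absurd rfl h1

theorem op_unique {s t : ℝ} (hst : s < t) {i j : L3} {r : ℝ} (h : r ∈ i.op s t)
    (h' : r ∈ j.op s t) : i = j := by
  have e1 : ∀ {r : ℝ}, r ∈ L3.lo.op s t → r = s := fun h => h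
  have e2 : ∀ {r : ℝ}, r ∈ L3.hi.op s t → r = t := fun h => h
  have e3 : ∀ {r : ℝ}, r ∈ L3.mid.op s t → s < r ∧ r < t := fun h => h
  cases i <;> cases j <;> first
    | rfl
    | (exfalso; first
        | (have g1 := e1 h; have g2 := e2 h'; linarith)
        | (have g1 := e2 h; have g2 := e1 h'; linarith)
        | (have g1 := e1 h; have g2 := e3 h'; linarith [g2.1])
        | (have g1 := e2 h; have g2 := e3 h'; linarith [g2.2])
        | (have g1 := e3 h; have g2 := e1 h'; linarith [g1.1])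
        | (have g1 := e3 h; have g2 := e2 h'; linarith [g1.2]))

variable {s t : ℝ}

theorem bcell_Bd (has : S.a c < s) (hst : s < t) {p : FC S c × L3} {y : E}
    (hy : y ∈ bcell S c s t p) : y ∈ S.Bd c :=
  ⟨Sla.C_K p.1.pt_Bd hy.1, has.trans_le (cl_sub hst hy.2).1⟩

/-- the lower cells -/
theorem bcell_bd (has : S.a c < s) (hst : s < t) (p : FC S c × L3) :
    ⋃ k ∈ {k | k < p}, bcell S c s t k =
      {y | y ∈ bcell S c s t p ∧ ¬ (y ∈ S.O c p.1.pt ∧ S.φ c y ∈ p.2.op s t)} := by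
  ext y
  rw [mem_iUnion₂]
  constructor
  · rintro ⟨k, hk, hy⟩
    have hle : k.1 ≤ p.1 ∧ k.2 ≤ p.2 := Prod.le_def.1 (le_of_lt (show k < p from hk))
    have hB := bcell_Bd has hst hy
    refine ⟨⟨C_mono hle.1 hy.1, cl_mono hst hle.2 hy.2⟩, ?_⟩
    rintro ⟨h1, h2⟩
    rcases eq_or_lt_of_le hle.1 with h3 | h3
    · have h4 : k.2 < p.2 := lt_of_le_of_ne hle.2 fun h => (ne_of_lt (show k < p from hk))
        (Prod.ext h3 h)
      exact op_lower h4 hy.2 h2
    · exact not_O_of_lower' h3 hB hy.1 h1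
  · rintro ⟨h1, h2⟩
    have hB := bcell_Bd has hst h1
    by_cases hO : y ∈ S.O c p.1.pt
    · obtain ⟨j, hj, hyj⟩ := cl_lower h1.2 (fun h => h2 ⟨hO, h⟩)
      refine ⟨(p.1, j), ?_, h1.1, hyj⟩
      have h5 : ((p.1, j) : FC S c × L3) ≤ p := ⟨le_refl p.1, hj.le⟩
      exact lt_of_le_of_ne h5 fun h : (p.1, j) = p => hj.ne (congrArg Prod.snd h)
    · obtain ⟨k, hk, hyk⟩ := lower_of_not_O' hB h1.1 hO
      refine ⟨(k, p.2), ?_, hyk, h1.2⟩
      have h5 : ((k, p.2) : FC S c × L3) ≤ p := ⟨hk.le, le_refl p.2⟩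
      exact lt_of_le_of_ne h5 fun h : (k, p.2) = p => hk.ne (congrArg Prod.fst h)

theorem bopn_iff (has : S.a c < s) (hst : s < t) {p : FC S c × L3} {y : E} :
    Opn (bcell S c s t) p y ↔ y ∈ S.O c p.1.pt ∧ S.φ c y ∈ p.2.op s t := by
  have h := bcell_bd has hst p
  constructor
  · rintro ⟨h1, h2⟩
    by_contra hn
    have h3 : y ∈ ⋃ k ∈ {k | k < p}, bcell S c s t k := by rw [h]; exact ⟨h1, hn⟩
    obtain ⟨k, hk, hy⟩ := mem_iUnion₂.1 h3
    exact h2 k hk hy
  · rintro ⟨h1, h2⟩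
    have h3 : y ∈ bcell S c s t p := ⟨Sla.O_C p.1.pt_Bd h1, mem_cl_of_op h2⟩
    refine ⟨h3, fun k hk hy => ?_⟩
    have h4 : y ∈ ⋃ k ∈ {k | k < p}, bcell S c s t k := mem_iUnion₂.2 ⟨k, hk, hy⟩
    rw [h] at h4
    exact h4.2 ⟨h1, h2⟩

/-- the complex of a band, given the balls -/
theorem cplx_of (has : S.a c < s) (hst : s < t)
    (hb : ∀ p : FC S c × L3, IsBall (p.1.dim + p.2.d) (bcell S c s t p)
      {y | y ∈ bcell S c s t p ∧ ¬ (y ∈ S.O c p.1.pt ∧ S.φ c y ∈ p.2.op s t)}) :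
    Cplx (band S c s t) (FC S c × L3) (fun p => p.1.dim + p.2.d) (bcell S c s t) where
  isBall p := by rw [bcell_bd has hst p]; exact hb p
  mono p k h := by
    have hle : k.1 ≤ p.1 ∧ k.2 ≤ p.2 := Prod.le_def.1 (le_of_lt h)
    have h2 : k.2.d ≤ p.2.d := by
      rcases L3.le_def.1 hle.2 with h | h
      · rw [h]
      · rw [h]
        cases k.2
        · exact Nat.zero_le _
        · exact Nat.zero_le _
        · exact le_rfl
    rcases eq_or_lt_of_le hle.1 with h3 | h3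
    · have h4 : k.2 ≠ p.2 := fun h' => (ne_of_lt h) (Prod.ext h3 h')
      have h5 : k.2.d < p.2.d := by
        rcases L3.le_def.1 hle.2 with h | h
        · exact absurd h h4
        · rw [h] at h4 ⊢
          cases hk : k.2
          · exact Nat.zero_lt_one
          · exact Nat.zero_lt_one
          · exact absurd hk h4
      rw [h3]; omega
    · have := FC.dim_lt h3
      omega
  disj p k x h1 h2 := by
    obtain ⟨g1, g2⟩ := (bopn_iff has hst).1 h1
    obtain ⟨g3, g4⟩ := (bopn_iff has hst).1 h2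
    exact Prod.ext (eq_of_O g1 g3) (op_unique hst g2 g4)
  sub p y hy := ⟨(bcell_Bd has hst hy).1, cl_sub hst hy.2⟩
  cover x hx := by
    have hB : x ∈ S.Bd c := ⟨hx.1, has.trans_le hx.2.1⟩
    exact ⟨(cel S c hB, .mid), Sla.O_C (cel S c hB).pt_Bd (cel_O hB), hx.2⟩
  lf x _ := by
    have := finite_FC S c
    exact ⟨1, one_pos, Set.toFinite _⟩

/-- the complex of a layer -/
theorem cplx_layer {j : ℕ} (hj : j < S.n c) :
    Cplx (band S c (S.t c (j + 1)) (S.t c j)) (FC S c × L3) (fun p => p.1.dim + p.2.d)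
      (bcell S c (S.t c (j + 1)) (S.t c j)) := by
  refine cplx_of (S.a_lt_t hj) (S.anti c j hj) fun p => ?_
  have hs1 : ∀ (k : ℕ), k ≤ S.n c → IsBall p.1.dim (sec S c k p.1)
      {y | y ∈ sec S c k p.1 ∧ y ∉ S.O c p.1.pt} := by
    intro k hk
    have h1 := (cplx_sec (S := S) (c := c) hk).isBall p.1
    have h2 : ⋃ i ∈ {i | i < p.1}, sec S c k i = {y | y ∈ sec S c k p.1 ∧ y ∉ S.O c p.1.pt} := by
      ext y
      rw [mem_iUnion₂]
      constructor
      · rintro ⟨i, hi, hy⟩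
        exact ⟨sec_mono (le_of_lt hi) hy, not_O_of_lower hk hi hy⟩
      · rintro ⟨h3, h4⟩
        obtain ⟨i, hi, hy⟩ := lower_of_not_O hk h3 h4
        exact ⟨i, hi, hy⟩
    rwa [h2] at h1
  obtain ⟨q, i⟩ := p
  cases i
  · have e1 : bcell S c (S.t c (j + 1)) (S.t c j) (q, .lo) = sec S c (j + 1) q := rfl
    have e2 : {y | y ∈ bcell S c (S.t c (j + 1)) (S.t c j) (q, .lo) ∧
        ¬ (y ∈ S.O c q.pt ∧ S.φ c y ∈ L3.lo.op (S.t c (j + 1)) (S.t c j))} =
        {y | y ∈ sec S c (j + 1) q ∧ y ∉ S.O c q.pt} := by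
      ext y
      constructor
      · rintro ⟨h1, h2⟩
        exact ⟨h1, fun h => h2 ⟨h, h1.2⟩⟩
      · rintro ⟨h1, h2⟩
        exact ⟨h1, fun h => h2 h.1⟩
    show IsBall (q.dim + 0) _ _
    rw [add_zero]
    have := hs1 (j + 1) hj
    rw [← e2, ← e1] at this
    exact this
  · have e1 : bcell S c (S.t c (j + 1)) (S.t c j) (q, .hi) = sec S c j q := rfl
    have e2 : {y | y ∈ bcell S c (S.t c (j + 1)) (S.t c j) (q, .hi) ∧
        ¬ (y ∈ S.O c q.pt ∧ S.φ c y ∈ L3.hi.op (S.t c (j + 1)) (S.t c j))} =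
        {y | y ∈ sec S c j q ∧ y ∉ S.O c q.pt} := by
      ext y
      constructor
      · rintro ⟨h1, h2⟩
        exact ⟨h1, fun h => h2 ⟨h, h1.2⟩⟩
      · rintro ⟨h1, h2⟩
        exact ⟨h1, fun h => h2 h.1⟩
    show IsBall (q.dim + 0) _ _
    rw [add_zero]
    have := hs1 j hj.le
    rw [← e2, ← e1] at this
    exact this
  · have hv := Sla.vc_inL q.pt_Bd hj
    have h1 := S.T3.isBall_cell hv.mem
    have e0 : S.T3.dim (S.vc c q.pt j) = q.dim + 1 := by
      rw [Sla.vc_dim3 q.pt_Bd j, q.D_pt]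
    have e1 : bcell S c (S.t c (j + 1)) (S.t c j) (q, .mid) = S.T3.cc (S.vc c q.pt j) := by
      ext y
      rw [Sla.mem_cc_vc q.pt_Bd hj]
      exact Iff.rfl
    have e2 : {y | y ∈ bcell S c (S.t c (j + 1)) (S.t c j) (q, .mid) ∧
        ¬ (y ∈ S.O c q.pt ∧ S.φ c y ∈ L3.mid.op (S.t c (j + 1)) (S.t c j))} =
        S.T3.cc (S.vc c q.pt j) \ S.T3.oc (S.vc c q.pt j) := by
      ext y
      rw [Set.mem_sdiff, ← e1, Sla.mem_oc_vc q.pt_Bd hj]
      exact Iff.rfl
    show IsBall (q.dim + 1) _ _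
    rw [e2, e1, ← e0]
    exact h1

/-! ### new levels for one core -/

/-- the slicing data of one core with new levels -/
noncomputable def one (S : Sla T κ) (c : κ) (n : ℕ) (hn : 0 < n) (l : ℕ → ℝ)
    (h0 : l 0 = S.t c 0) (anti : ∀ j, j < n → l (j + 1) < l j) (gt : S.a c < l n) :
    Sla T Unit where
  K := fun _ => S.K c
  φ := fun _ => S.φ c
  a := fun _ => S.a c
  n := fun _ => n
  t := fun _ => l
  hH := fun _ => S.hH c
  dis := fun _ _ h => absurd rfl h
  cont := fun _ => S.cont c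
  aff := fun _ => S.aff c
  le := fun _ x hx => by rw [h0]; exact S.le c x hx
  fr := fun _ x hx => by rw [h0]; exact S.fr c x hx
  vert := fun _ v hv hd => by rw [h0]; exact S.vert c v hv hd
  tr := fun _ => S.tr c
  st := fun _ => S.st c
  npos := fun _ => hn
  anti := fun _ => anti
  gt := fun _ => gt

/-- **the band as a complex**, any two levels -/
theorem cplx_band (has : S.a c < s) (hst : s < t) (ht : t ≤ S.t c 0) :
    Cplx (band S c s t) (FC S c × L3) (fun p => p.1.dim + p.2.d) (bcell S c s t) := by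
  rcases eq_or_lt_of_le ht with h | h
  · exact cplx_layer (S := one S c 1 one_pos (fun j => if j = 0 then t else s) (by simp [h])
      (fun j hj => by
        have : j = 0 := by omega
        subst this
        simpa using hst) (by simpa using has)) (c := ()) (j := 0) one_pos
  · exact cplx_layer (S := one S c 2 two_pos
      (fun j => if j = 0 then S.t c 0 else if j = 1 then t else s) (by simp)
      (fun j hj => by
        rcases (show j = 0 ∨ j = 1 by omega) with rfl | rfl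
        · simpa using h
        · simpa using hst) (by simpa using has)) (c := ()) (j := 1) one_lt_two

/-! ### the squeeze -/

theorem isClosed_le (S : Sla T κ) (c : κ) (r : ℝ) : IsClosed {x | x ∈ S.K c ∧ S.φ c x ≤ r} :=
  (S.cont c).preimage_isClosed_of_isClosed (S.closed c) isClosed_Iic

theorem isClosed_band (S : Sla T κ) (c : κ) (s t : ℝ) : IsClosed (band S c s t) :=
  (S.cont c).preimage_isClosed_of_isClosed (S.closed c) isClosed_Icc

/-- **the squeeze** of a core onto `{φ ≤ t}`, identity on `{φ ≤ s}` -/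
theorem exists_squeeze (S : Sla T κ) (c : κ) (has : S.a c < s) (hst : s < t) (ht : t ≤ S.t c 0) :
    ∃ e : PLEquiv (S.K c) {x | x ∈ S.K c ∧ S.φ c x ≤ t},
      (∀ x ∈ S.K c, S.φ c x ≤ s → e.f x = x) ∧
      (∀ y ∈ S.K c, S.φ c y ≤ s → e.g y = y) ∧
      (∀ q : FC S c, e.f '' bcell S c s (S.t c 0) (q, .mid) = bcell S c s t (q, .mid)) ∧
      (∀ q : FC S c, e.f '' q.set = {y | y ∈ S.C c q.pt ∧ S.φ c y = t}) ∧
      e.f '' frontier (S.K c) = {x | x ∈ S.K c ∧ S.φ c x = t} := by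
  have hst0 : s < S.t c 0 := hst.trans_le ht
  have := finite_FC S c
  have C0 := cplx_band (S := S) (c := c) has hst0 le_rfl
  have C1 := cplx_band (S := S) (c := c) has hst ht
  have hlo : ∀ (t' : ℝ) (q : FC S c), bcell S c s t' (q, .lo) = {y | y ∈ S.C c q.pt ∧ S.φ c y = s} :=
    fun t' q => rfl
  obtain ⟨e0, k1, k2, k3, k4⟩ := Cb_609.cellExt_finite_rel C0 C1 {p | p.2 = .lo}
    (fun i hi j hj => by
      have h1 : j.2 ≤ i.2 := (Prod.le_def.1 (le_of_lt hj)).2
      rw [show i.2 = L3.lo from hi] at h1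
      rcases L3.le_def.1 h1 with h | h
      · exact h
      · exact absurd h (by simp))
    (fun x => x) (fun x => x) (fun _ _ => plOn_id _) (fun _ _ => plOn_id _)
    (fun i hi x hx => by
      obtain ⟨q, l⟩ := i
      obtain rfl : l = L3.lo := hi
      exact hx)
    (fun i hi x hx => by
      obtain ⟨q, l⟩ := i
      obtain rfl : l = L3.lo := hi
      exact hx)
    (fun _ _ _ _ => rfl) (fun _ _ _ _ => rfl)
  have hW : ∀ {t' x}, x ∈ band S c s t' → x ∈ S.Bd c := fun hx => ⟨hx.1, has.trans_le hx.2.1⟩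
  -- on the level `s` the map is the identity
  have hs0 : ∀ x ∈ S.K c, S.φ c x = s → e0.f x = x ∧ e0.g x = x := by
    intro x hx hxs
    have hB : x ∈ S.Bd c := ⟨hx, by rw [hxs]; exact has⟩
    have hq : x ∈ S.C c (cel S c hB).pt := Sla.O_C (cel S c hB).pt_Bd (cel_O hB)
    exact ⟨k3 (cel S c hB, .lo) rfl ⟨hq, hxs⟩, k4 (cel S c hB, .lo) rfl ⟨hq, hxs⟩⟩
  let F : E → E := fun x => if S.φ c x ≤ s then x else e0.f x
  let G : E → E := fun x => if S.φ c x ≤ s then x else e0.g x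
  have hF1 : ∀ x, S.φ c x ≤ s → F x = x := fun x hx => if_pos hx
  have hG1 : ∀ x, S.φ c x ≤ s → G x = x := fun x hx => if_pos hx
  have hF2 : ∀ x ∈ band S c s (S.t c 0), F x = e0.f x := by
    intro x hx
    by_cases h : S.φ c x ≤ s
    · rw [hF1 x h, (hs0 x hx.1 (le_antisymm h hx.2.1)).1]
    · exact if_neg h
  have hG2 : ∀ x ∈ band S c s t, G x = e0.g x := by
    intro x hx
    by_cases h : S.φ c x ≤ s
    · rw [hG1 x h, (hs0 x hx.1 (le_antisymm h hx.2.1)).2]
    · exact if_neg h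
  have hcovK : S.K c ⊆ {x | x ∈ S.K c ∧ S.φ c x ≤ s} ∪ band S c s (S.t c 0) := by
    intro x hx
    rcases le_total (S.φ c x) s with h | h
    · exact Or.inl ⟨hx, h⟩
    · exact Or.inr ⟨hx, h, S.le c x hx⟩
  have hcovT : {x | x ∈ S.K c ∧ S.φ c x ≤ t} ⊆
      {x | x ∈ S.K c ∧ S.φ c x ≤ s} ∪ band S c s t := by
    rintro x ⟨hx, hxt⟩
    rcases le_total (S.φ c x) s with h | h
    · exact Or.inl ⟨hx, h⟩
    · exact Or.inr ⟨hx, h, hxt⟩
  let e : PLEquiv (S.K c) {x | x ∈ S.K c ∧ S.φ c x ≤ t} :=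
    { f := F
      g := G
      pf := (((plOn_id _).congr fun x hx => hF1 x hx.2).union (e0.pf.congr hF2)
        (isClosed_le S c s) (isClosed_band S c s _)).mono hcovK
      pg := (((plOn_id _).congr fun x hx => hG1 x hx.2).union (e0.pg.congr hG2)
        (isClosed_le S c s) (isClosed_band S c s _)).mono hcovT
      mf := by
        intro x hx
        rcases hcovK hx with h | h
        · rw [hF1 x h.2]; exact ⟨hx, h.2.trans hst.le⟩
        · rw [hF2 x h]
          have := e0.mf h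
          exact ⟨this.1, this.2.2⟩
      mg := by
        intro x hx
        rcases hcovT hx with h | h
        · rw [hG1 x h.2]; exact hx.1
        · rw [hG2 x h]
          exact (e0.mg h).1
      li := by
        intro x hx
        rcases hcovK hx with h | h
        · rw [hF1 x h.2, hG1 x h.2]
        · rw [hF2 x h, hG2 _ (e0.mf h), e0.li x h]
      ri := by
        intro x hx
        rcases hcovT hx with h | h
        · rw [hG1 x h.2, hF1 x h.2]
        · rw [hG2 x h, hF2 _ (e0.mg h), e0.ri x h] }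
  have hef : ∀ x, e.f x = F x := fun _ => rfl
  have hcell : ∀ p : FC S c × L3, e.f '' bcell S c s (S.t c 0) p = bcell S c s t p := by
    intro p
    rw [← k1 p]
    refine image_congr fun x hx => ?_
    rw [hef, hF2 x (C0.sub p hx)]
  have hhi : ∀ q : FC S c, bcell S c s (S.t c 0) (q, .hi) = q.set := by
    intro q
    rw [← sec_zero q]
    rfl
  refine ⟨e, fun x hx h => hF1 x h, fun y hy h => hG1 y h, fun q => hcell (q, .mid), fun q => ?_,
    ?_⟩
  · rw [← hhi q]
    exact hcell (q, .hi)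
  · ext y
    constructor
    · rintro ⟨x, hx, rfl⟩
      have h1 : x ∈ bcell S c s (S.t c 0) (mkF hx, .hi) := by
        rw [hhi, mkF_set]; exact T.self_mem_cc x
      have h2 : e.f x ∈ bcell S c s t (mkF hx, .hi) := by
        rw [← hcell]; exact mem_image_of_mem _ h1
      exact ⟨(bcell_Bd has hst h2).1, h2.2⟩
    · rintro ⟨hy, hyt⟩
      have hB : y ∈ S.Bd c := ⟨hy, by rw [hyt]; exact has.trans hst⟩
      have h1 : y ∈ bcell S c s t (cel S c hB, .hi) :=
        ⟨Sla.O_C (cel S c hB).pt_Bd (cel_O hB), hyt⟩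
      rw [← hcell] at h1
      obtain ⟨x, hx, rfl⟩ := h1
      rw [hhi] at hx
      exact ⟨x, (cel S c hB).2 hx, rfl⟩

/-- **`{φ ≤ t}` is a PL ball** if the core is one -/
theorem ball_le (S : Sla T κ) (c : κ) (hat : S.a c < t) (ht : t ≤ S.t c 0)
    (hb : IsBall 3 (S.K c) (frontier (S.K c))) :
    IsBall 3 {x | x ∈ S.K c ∧ S.φ c x ≤ t} {x | x ∈ S.K c ∧ S.φ c x = t} := by
  obtain ⟨e, -, -, -, -, h⟩ := exists_squeeze S c (s := (S.a c + t) / 2) (by linarith)
    (by linarith) ht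
  have h1 := hb.map e
  rwa [h] at h1

end Crest.Agent.R096.Lay_316
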