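import Crest.Agent.R96.Nu6_199
import Crest.Agent.R096.Chs1_879

/-!
# R096 (row 96), LB-BASE, part 1 (helper290): change of frame by the DIAMETER (112 #10580 (B))

`AAc n (B '' S)` is a lower bound for the inradius in the frame `B`: the ball of radius
`1 / AAc n (B '' S)` round `B (e.f 0)` (in the span of `B '' S`) is contained in `B '' S`
(`e.g` maps the relative boundary to the sphere).  Hence

`dist (A y) (A z) ≤ diam (A '' S) / 2 * AAc n (B '' S) * dist (B y) (B z)`  (`y, z ∈ S`)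

for any two frames: no bound for `AAc` in the frame `A` is needed.
-/

set_option autoImplicit false
set_option linter.style.longLine false
set_option linter.unusedSectionVars false

open Set Metric Filter Topology

namespace Crest.Agent.R096.Lbb_290

open Crest.Agent.R096.Ce_537 Crest.Agent.R096.Bd_416 Crest.Agent.R96.Nu1_199
open Crest.Agent.R96.Nu2_199 Crest.Agent.R96.Nu3_199 Crest.Agent.R96.Nu4_199
open Crest.Agent.R96.Nu5_199

noncomputable section

variable {E : Type*} [NormedAddCommGroup E] [NormedSpace ℝ E]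

/-- a point of the relative interior can be moved a little in every direction of the body -/
theorem ri_move {S : Set E} (hS : Convex ℝ S) {p y z : E} (hp : p ∈ ri S) (hy : y ∈ S) (hz : z ∈ S) :
    ∃ t : ℝ, 0 < t ∧ p + t • (y - z) ∈ S := by
  obtain ⟨s, hs, h1⟩ := hp.2 z hz
  refine ⟨s / (1 + s), by positivity, ?_⟩
  have h2 := hS h1 hy (a := 1 / (1 + s)) (b := s / (1 + s)) (by positivity) (by positivity)
    (by field_simp)
  convert h2 using 1
  have h3 : (1 + s) ≠ 0 := by positivity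
  have e1 : (1 / (1 + s)) • (p + s • (p - z)) + (s / (1 + s)) • y =
      ((1 / (1 + s)) * (1 + s)) • p + (s / (1 + s)) • (y - z) := by
    module
  rw [e1, one_div, inv_mul_cancel₀ h3, one_smul]

/-- **exit argument**: if every relative boundary point has `N`-distance `≥ r` from `p`, then
`p + v ∈ S` for `v = c (y - z)` of length `≤ r`. -/
theorem mem_of_dist {S : Set E} (hS : Convex ℝ S) (hc : IsCompact S) {p y z : E} (hp : p ∈ S)
    (hy : y ∈ S) (hz : z ∈ S) {r : ℝ} {N : E → ℝ}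
    (hN : ∀ (t : ℝ) (v : E), 0 ≤ t → N (t • v) = t * N v)
    (hb : ∀ x ∈ S, x ∉ ri S → r ≤ N (x - p)) {c : ℝ} (hcp : 0 < c) (hr : 0 < r)
    (hv : N (c • (y - z)) ≤ r) :
    p + c • (y - z) ∈ S := by
  set v := c • (y - z) with hvd
  set D : Set ℝ := Icc (0 : ℝ) 1 ∩ (fun t : ℝ => p + t • v) ⁻¹' S with hD
  have hcont : Continuous fun t : ℝ => p + t • v := by fun_prop
  have hDc : IsCompact D := isCompact_Icc.inter_right (hc.isClosed.preimage hcont)
  have h0 : (0 : ℝ) ∈ D := ⟨⟨le_rfl, zero_le_one⟩, by simpa using hp⟩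
  have hs := hDc.sSup_mem ⟨0, h0⟩
  set s := sSup D with hsd
  have hle : ∀ t ∈ D, t ≤ s := fun t ht => le_csSup hDc.bddAbove ht
  rcases eq_or_lt_of_le hs.1.2 with h1 | h1
  · have h2 : p + s • v ∈ S := hs.2
    rwa [h1, one_smul] at h2
  · exfalso
    have h2 : p + s • v ∈ S := hs.2
    by_cases h3 : p + s • v ∈ ri S
    · obtain ⟨t, ht, h4⟩ := ri_move hS h3 hy hz
      have h5 : p + (s + t / c) • v ∈ S := by
        have : p + s • v + t • (y - z) = p + (s + t / c) • v := by
          rw [hvd, smul_smul, smul_smul, add_assoc, ← add_smul]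
          congr 2
          field_simp
        rwa [← this]
      -- a point of the segment
      have h6 : 0 < t / c := by positivity
      set t' := min (s + t / c) 1 with ht'
      have h7 : s < t' := lt_min (by linarith) h1
      have h8 : t' ∈ D := by
        refine ⟨⟨by linarith [hs.1.1], min_le_right _ _⟩, ?_⟩
        show p + t' • v ∈ S
        have h9 : 0 < s + t / c := by linarith [hs.1.1]
        have h10 := hS hp h5 (a := 1 - t' / (s + t / c)) (b := t' / (s + t / c))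
          (by
            have : t' / (s + t / c) ≤ 1 := by
              rw [div_le_one h9]; exact min_le_left _ _
            linarith)
          (div_nonneg (by linarith [hs.1.1]) h9.le) (by ring)
        have e1 : ∀ α β : ℝ, ∀ w : E, (1 - α) • p + α • (p + β • w) = p + (α * β) • w := by
          intro α β w
          module
        rw [e1, div_mul_cancel₀ _ h9.ne'] at h10
        exact h10
      have := hle t' h8
      linarith
    · have h4 := hb _ h2 h3
      rw [add_sub_cancel_left, hN s v hs.1.1] at h4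
      rcases eq_or_lt_of_le hs.1.1 with h5 | h5
      · rw [← h5, zero_mul] at h4
        linarith
      · nlinarith

section

variable [FiniteDimensional ℝ E]

/-- the chart is globally Lipschitz in the frame `B` -/
theorem glob_g {n : ℕ} {S : Set E} (h1 : Convex ℝ S) {e : PLEquiv (cube n) S} {a : ℝ} (ha : 0 < a)
    (B : E ≃ᵃ[ℝ] E) (he : ∀ z ∈ S, MB B (fun x => x) a e.g S z) :
    ∀ z ∈ S, ∀ z' ∈ S, dist (e.g z') (e.g z) ≤ a * dist (B z') (B z) := by
  intro z hz z' hz'
  have hBK : Convex ℝ (B '' S) := h1.affine_image (B : E →ᵃ[ℝ] E)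
  have h3 : ∀ u ∈ B '' S, ∀ᶠ v in 𝓝[B '' S] u,
      dist (e.g (B.symm v)) (e.g (B.symm u)) ≤ a * dist v u := by
    rintro _ ⟨x, hx', rfl⟩
    rw [B.symm_apply_apply]
    have h4 : Tendsto B.symm (𝓝[B '' S] (B x)) (𝓝[S] x) := by
      refine tendsto_nhdsWithin_iff.2 ⟨?_, ?_⟩
      · have h5 := ((B.symm : E →ᵃ[ℝ] E).continuous_of_finiteDimensional.tendsto (B x)).mono_left
          (nhdsWithin_le_nhds (s := B '' S))
        simpa using h5
      · filter_upwards [self_mem_nhdsWithin] with v hv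
        obtain ⟨w, hw, rfl⟩ := hv
        rwa [B.symm_apply_apply]
    filter_upwards [h4.eventually (he x hx')] with v hv
    rwa [B.apply_symm_apply] at hv
  have h8 := Chs_879.lip_of_local ha.le (f := fun v => e.g (B.symm v)) hBK h3 (B z)
    (mem_image_of_mem _ hz) (B z') (mem_image_of_mem _ hz')
  simpa only [B.symm_apply_apply] using h8

/-- **the inradius in the frame `B` is at least `1 / AAc n (B '' S)`** -/
theorem inball {n : ℕ} {S : Set E} (h1 : Convex ℝ S) (h2 : IsCompact S) (h3 : S.Nonempty)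
    (h4 : IsBall n S (S \ ri S)) : ∃ p ∈ S, ∀ (B : E ≃ᵃ[ℝ] E), ∀ y ∈ S, ∀ z ∈ S, ∀ c : ℝ,
      c * (AAc n (B '' S) * dist (B y) (B z)) ≤ 1 → 0 < c → p + c • (y - z) ∈ S := by
  obtain ⟨e, he1, he⟩ := AAc_spec h1 h2 h3 h4
  have h0 : (0 : Fin n → ℝ) ∈ cube n := by simp [cube]
  refine ⟨e.f 0, e.mf h0, fun B y hy z hz c hc hc0 => ?_⟩
  set a := AAc n (B '' S) with had
  have ha : 0 < a := AAc_pos _ _
  have hg := glob_g h1 ha B (he B).2
  have hlin : ∀ x x' : E, dist (B x) (B x') = ‖B.linear (x - x')‖ := by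
    intro x x'
    rw [dist_eq_norm]
    congr 1
    have := (B : E →ᵃ[ℝ] E).linearMap_vsub x x'
    simpa using this.symm
  refine mem_of_dist h1 h2 (e.mf h0) hy hz (r := 1 / a) (N := fun v => ‖B.linear v‖) ?_ ?_ hc0
    (by positivity) ?_
  · intro t v ht
    show ‖B.linear (t • v)‖ = t * ‖B.linear v‖
    rw [map_smul, norm_smul, Real.norm_of_nonneg ht]
  · intro x hx hxr
    show 1 / a ≤ ‖B.linear (x - e.f 0)‖
    have h5 : x ∈ e.f '' sph n := by rw [he1]; exact ⟨hx, hxr⟩
    obtain ⟨w, hw, rfl⟩ := h5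
    have h6 := hg (e.f 0) (e.mf h0) (e.f w) hx
    rw [e.li 0 h0, e.li w (sph_subset_cube hw), hlin] at h6
    have h7 : dist w 0 = 1 := by
      rw [dist_zero_right]
      simpa [sph] using hw
    rw [h7] at h6
    rw [div_le_iff₀ ha]
    linarith
  · show ‖B.linear (c • (y - z))‖ ≤ 1 / a
    rw [map_smul, norm_smul, Real.norm_of_nonneg hc0.le, ← hlin, le_div_iff₀ ha]
    linarith

/-- **CHANGE OF THE FRAME BY THE DIAMETER**: `A` against `B`. -/
theorem frame_diam {n : ℕ} {S : Set E} (h1 : Convex ℝ S) (h2 : IsCompact S) (h3 : S.Nonempty)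
    (h4 : IsBall n S (S \ ri S)) (A B : E ≃ᵃ[ℝ] E) {y z : E} (hy : y ∈ S) (hz : z ∈ S) :
    dist (A y) (A z) ≤ Metric.diam (A '' S) / 2 * AAc n (B '' S) * dist (B y) (B z) := by
  obtain ⟨p, hp, H⟩ := inball h1 h2 h3 h4
  set a := AAc n (B '' S) with had
  have ha : 0 < a := AAc_pos _ _
  rcases eq_or_ne y z with rfl | hne
  · simp
  have hd : 0 < dist (B y) (B z) := dist_pos.2 fun h => hne (B.injective h)
  set c := 1 / (a * dist (B y) (B z)) with hc
  have hc0 : 0 < c := by positivity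
  have hc1 : c * (a * dist (B y) (B z)) ≤ 1 := by
    rw [hc, one_div, inv_mul_cancel₀ (by positivity)]
  have h5 := H B y hy z hz c hc1 hc0
  have h6 := H B z hz y hy c (by rw [dist_comm (B z)]; exact hc1) hc0
  have hb : Bornology.IsBounded (A '' S) :=
    (h2.image (A : E →ᵃ[ℝ] E).continuous_of_finiteDimensional).isBounded
  have h7 := Metric.dist_le_diam_of_mem hb (mem_image_of_mem A h5) (mem_image_of_mem A h6)
  have hlin : ∀ x x' : E, dist (A x) (A x') = ‖A.linear (x - x')‖ := by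
    intro x x'
    rw [dist_eq_norm]
    congr 1
    have := (A : E →ᵃ[ℝ] E).linearMap_vsub x x'
    simpa using this.symm
  rw [hlin, show p + c • (y - z) - (p + c • (z - y)) = (2 * c) • (y - z) by module, map_smul,
    norm_smul, Real.norm_of_nonneg (by positivity), ← hlin] at h7
  have h8 : dist (A y) (A z) ≤ Metric.diam (A '' S) / (2 * c) := by
    rw [le_div_iff₀ (by positivity)]
    linarith
  refine h8.trans (le_of_eq ?_)
  rw [hc]
  field_simp

/-- change of the frame for local Lipschitz bounds -/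
theorem LB.frame_diam {n : ℕ} {S : Set E} (h1 : Convex ℝ S) (h2 : IsCompact S) (h3 : S.Nonempty)
    (h4 : IsBall n S (S \ ri S)) (A B : E ≃ᵃ[ℝ] E) {z : E} (hz : z ∈ S) {L : ℝ} (hL : 0 ≤ L)
    {f : E → ℝ} (hf : LB A L f S z) :
    LB B (L * (Metric.diam (A '' S) / 2 * AAc n (B '' S))) f S z := by
  filter_upwards [hf, self_mem_nhdsWithin] with y h5 hy
  refine h5.trans ?_
  rw [mul_assoc]
  exact mul_le_mul_of_nonneg_left (Lbb_290.frame_diam h1 h2 h3 h4 A B hy hz) hL

/-- the same with any bound `D` of the distances in the frame `A` -/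
theorem frame_D {n : ℕ} {S : Set E} (h1 : Convex ℝ S) (h2 : IsCompact S) (h3 : S.Nonempty)
    (h4 : IsBall n S (S \ ri S)) (A B : E ≃ᵃ[ℝ] E) {D : ℝ}
    (hD : ∀ y ∈ S, ∀ z ∈ S, dist (A y) (A z) ≤ D) {y z : E} (hy : y ∈ S) (hz : z ∈ S) :
    dist (A y) (A z) ≤ D / 2 * AAc n (B '' S) * dist (B y) (B z) := by
  have hD0 : 0 ≤ D := by
    obtain ⟨x, hx⟩ := h3
    simpa using hD x hx x hx
  have h5 : Metric.diam (A '' S) ≤ D := by
    refine Metric.diam_le_of_forall_dist_le hD0 ?_
    rintro _ ⟨x, hx, rfl⟩ _ ⟨x', hx', rfl⟩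
    exact hD x hx x' hx'
  refine (Lbb_290.frame_diam h1 h2 h3 h4 A B hy hz).trans ?_
  have h6 := (AAc_pos n (B '' S)).le
  gcongr

theorem LB.frame_D {n : ℕ} {S : Set E} (h1 : Convex ℝ S) (h2 : IsCompact S) (h3 : S.Nonempty)
    (h4 : IsBall n S (S \ ri S)) (A B : E ≃ᵃ[ℝ] E) {D : ℝ}
    (hD : ∀ y ∈ S, ∀ z ∈ S, dist (A y) (A z) ≤ D) {z : E} (hz : z ∈ S) {L : ℝ} (hL : 0 ≤ L)
    {f : E → ℝ} (hf : LB A L f S z) : LB B (L * (D / 2 * AAc n (B '' S))) f S z := by
  filter_upwards [hf, self_mem_nhdsWithin] with y h5 hy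
  refine h5.trans ?_
  rw [mul_assoc]
  exact mul_le_mul_of_nonneg_left (Lbb_290.frame_D h1 h2 h3 h4 A B hD hy hz) hL

end

/-! ### the base of the mesh -/

section

variable [FiniteDimensional ℝ E]
variable {Q : Type} [PartialOrder Q] {dim : Q → ℕ} {J Fam : Type}
variable {C : Cmb Q dim J Fam} {K : Q → Set E} {Ω : Set E}
variable {R : Set Q} {wt : J → ℝ} {δ : Q → ℝ} {c0 : ∀ q, C.I q → E → ℝ}

/-- **base of the mesh in every frame**, from a bound in one frame `A` per cell: only the diameter of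
the cell in the frame `A` enters (416: `hbaseD`; 112: the conclusion). -/
theorem base_num (X : Cplx Ω Q dim K) (hconv : ∀ τ, Convex ℝ (K τ))
    (hcpt : ∀ τ, IsCompact (K τ)) (hbd : ∀ τ, bdS K τ = K τ \ ri (K τ))
    (hw : ∀ j, 0 < wt j) (hδ : ∀ q, 0 < δ q) {K₀ : Q → ℝ}
    (hbaseD : ∀ q ∈ R, ∃ (A : E ≃ᵃ[ℝ] E) (L D : ℝ), 0 ≤ L ∧
      (∀ y ∈ K q, ∀ z ∈ K q, dist (A y) (A z) ≤ D) ∧ L * D ≤ K₀ q ∧
      ∀ x, ∀ z ∈ K q, LB A (L * (Wd C wt q + δ q) / wt (C.col q x)) (c0 q x) (K q) z) :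
    ∀ q ∈ R, ∀ B : E ≃ᵃ[ℝ] E, ∀ x, ∀ z ∈ K q,
      LB B (K₀ q * (AAc (dim q) (B '' K q) * (Wd C wt q + δ q)) / wt (C.col q x)) (c0 q x) (K q) z := by
  intro q hq B x z hz
  obtain ⟨A, L, D, hL, hD, hLD, hA⟩ := hbaseD q hq
  have hb : IsBall (dim q) (K q) (K q \ ri (K q)) := by
    rw [← hbd]; exact X.isBall q
  have hwx := hw (C.col q x)
  have hW : 0 ≤ Wd C wt q + δ q := by
    have h1 := Wd_nonneg (C := C) hw q
    have h2 := hδ q
    linarith
  have hD0 : 0 ≤ D := by simpa using hD z hz z hz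
  have h1 := Lbb_290.LB.frame_D (hconv q) (hcpt q) hb.nonempty hb A B hD hz (by positivity) (hA x z hz)
  refine h1.mono ?_
  rw [div_mul_eq_mul_div]
  refine div_le_div_of_nonneg_right ?_ hwx.le
  have ha := (AAc_pos (dim q) (B '' K q)).le
  have h3 : L * (D / 2) ≤ K₀ q := by
    have : 0 ≤ L * D := mul_nonneg hL hD0
    linarith
  calc L * (Wd C wt q + δ q) * (D / 2 * AAc (dim q) (B '' K q))
      = (L * (D / 2)) * (AAc (dim q) (B '' K q) * (Wd C wt q + δ q)) := by ring
    _ ≤ K₀ q * (AAc (dim q) (B '' K q) * (Wd C wt q + δ q)) :=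
        mul_le_mul_of_nonneg_right h3 (mul_nonneg ha hW)

end

end

end Crest.Agent.R096.Lbb_290
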