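import Crest.Agent.R96.Nu5_199
import Crest.Agent.R096.Chs1_879

/-!
# R096 (row 96), NUMBERS, (B) of 112 #10580 (helper835): affine functions in all frames

`exists_room`: every convex body `S` with chart constant `AAc n (B '' S)` contains, for one point `z0`
and ALL frames `B` at once, the `B`-ball of radius `1 / AAc n (B '' S)` round `z0` in its own span.
`aff_slope`: an affine function whose oscillation on a `ρ`-fat part `τ ⊆ S` is at most `D` has slope at
most `D / ρ * AAc n (B '' S)` in every frame `B`.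
-/

set_option autoImplicit false
set_option linter.unusedSectionVars false

open Set Metric Filter Topology

namespace Crest.Agent.R096.Lbb_835

open Crest.Agent.R096.Ce_537 Crest.Agent.R096.Bd_416 Crest.Agent.R96.Nu3_199
open Crest.Agent.R96.Nu4_199 Crest.Agent.R96.Nu5_199

variable {E : Type*} [NormedAddCommGroup E] [NormedSpace ℝ E] [FiniteDimensional ℝ E]

/-- from a relatively interior point one can go in all directions of the span -/
theorem ri_dir {S : Set E} (hc : Convex ℝ S) {z : E} (hz : z ∈ ri S) {v : E}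
    (hv : v ∈ (affineSpan ℝ S).direction) : ∃ t : ℝ, 0 < t ∧ z + t • v ∈ S := by
  obtain ⟨c, hcS, r, hr, hball⟩ := exists_rad hc ⟨z, hz.1⟩
  rcases eq_or_ne v 0 with rfl | hv0
  · exact ⟨1, one_pos, by simpa using hz.1⟩
  have hn : 0 < ‖v‖ := norm_pos_iff.2 hv0
  set l := r / ‖v‖ with hl
  have hl0 : 0 < l := div_pos hr hn
  have hw : c + (-l) • v ∈ S := by
    refine hball _ (Submodule.smul_mem _ _ hv) ?_
    rw [norm_smul, norm_neg, Real.norm_eq_abs, abs_of_pos hl0, hl]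
    field_simp
    exact le_rfl
  obtain ⟨s, hs, hsw⟩ := hz.2 _ hw
  refine ⟨s * l / (1 + s), by positivity, ?_⟩
  have := hc hsw hcS (a := 1 / (1 + s)) (b := s / (1 + s)) (by positivity) (by positivity)
    (by field_simp)
  convert this using 1
  have h1 : (1 + s) ≠ 0 := by positivity
  have e1 : (1 / (1 + s)) • (z + s • (z - (c + (-l) • v))) + (s / (1 + s)) • c =
      ((1 / (1 + s)) * (1 + s)) • z + ((1 / (1 + s)) * (-s) + s / (1 + s)) • c +
        ((1 / (1 + s)) * (s * l)) • v := by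
    module
  rw [e1]
  have e2 : (1 / (1 + s)) * (1 + s) = 1 := by field_simp
  have e3 : (1 / (1 + s)) * (-s) + s / (1 + s) = 0 := by field_simp; ring
  rw [e2, e3, one_smul, zero_smul, add_zero]
  congr 2
  ring

/-- the global bound of the chart in the frame `B` -/
theorem chart_lip {n : ℕ} {S : Set E} (h1 : Convex ℝ S) {e : PLEquiv (cube n) S}
    {B : E ≃ᵃ[ℝ] E} {a : ℝ} (ha : 0 ≤ a) (h : ∀ z ∈ S, MB B (fun x => x) a e.g S z) :
    ∀ z ∈ S, ∀ z' ∈ S, dist (e.g z') (e.g z) ≤ a * dist (B z') (B z) := by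
  intro z hz z' hz'
  have hBK : Convex ℝ (B '' S) := h1.affine_image (B : E →ᵃ[ℝ] E)
  have h3 : ∀ u ∈ B '' S, ∀ᶠ v in 𝓝[B '' S] u,
      dist (e.g (B.symm v)) (e.g (B.symm u)) ≤ a * dist v u := by
    rintro _ ⟨x, hx', rfl⟩
    rw [B.symm_apply_apply]
    have h4 : Tendsto B.symm (𝓝[B '' S] (B x)) (𝓝[S] x) := by
      refine tendsto_nhdsWithin_iff.2 ⟨?_, ?_⟩
      · have h5 := ((B.symm : E →ᵃ[ℝ] E).continuous_of_finiteDimensional.tendsto (B x)).mono_left
          (nhdsWithin_le_nhds (s := B '' S))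
        have h6 : (B.symm : E →ᵃ[ℝ] E) (B x) = x := B.symm_apply_apply x
        rw [h6] at h5
        exact h5
      · filter_upwards [self_mem_nhdsWithin] with v hv
        obtain ⟨y, hy, rfl⟩ := hv
        rw [B.symm_apply_apply]; exact hy
    filter_upwards [h4.eventually (h x hx')] with v hv
    have h7 : B (B.symm v) = v := B.apply_symm_apply v
    rw [h7] at hv
    exact hv
  have h8 := Crest.Agent.R096.Chs_879.lip_of_local ha (f := fun v => e.g (B.symm v)) hBK h3 (B z)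
    (mem_image_of_mem _ hz) (B z') (mem_image_of_mem _ hz')
  simpa only [B.symm_apply_apply] using h8

/-- **THE ROOM OF A CONVEX BODY IN ALL FRAMES** -/
theorem exists_room {n : ℕ} {S : Set E} (h1 : Convex ℝ S) (h2 : IsCompact S)
    (h3 : S.Nonempty) (h4 : IsBall n S (S \ ri S)) : ∃ z0 ∈ S, ∀ B : E ≃ᵃ[ℝ] E,
      ∀ v ∈ (affineSpan ℝ S).direction, AAc n (B '' S) * ‖B.linear v‖ < 1 → z0 + v ∈ S := by
  obtain ⟨e, he, hB⟩ := AAc_spec h1 h2 h3 h4
  have h0 : (0 : Fin n → ℝ) ∈ cube n := by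
    show (0 : Fin n → ℝ) ∈ closedBall 0 1
    simp
  refine ⟨e.f 0, e.mf h0, fun B v hv hlt => ?_⟩
  set z0 := e.f 0 with hz0
  have hz0S : z0 ∈ S := e.mf h0
  have hg0 : e.g z0 = 0 := e.li 0 h0
  have ha := AAc_pos n (B '' S)
  by_contra hcon
  -- the last point of the segment in `S`
  have hγ : Continuous fun t : ℝ => z0 + t • v := by fun_prop
  set A : Set ℝ := Icc (0 : ℝ) 1 ∩ (fun t : ℝ => z0 + t • v) ⁻¹' S with hA
  have hAc : IsCompact A := isCompact_Icc.inter_right (h2.isClosed.preimage hγ)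
  have h0A : (0 : ℝ) ∈ A := ⟨⟨le_rfl, zero_le_one⟩, by simpa using hz0S⟩
  have htA : sSup A ∈ A := hAc.sSup_mem ⟨0, h0A⟩
  set t := sSup A with ht
  have htop : ∀ s ∈ A, s ≤ t := fun s hs => le_csSup hAc.bddAbove hs
  have ht1 : t < 1 := by
    refine lt_of_le_of_ne htA.1.2 fun h => hcon ?_
    have := htA.2
    rw [h] at this
    simpa using this
  have hz : z0 + t • v ∈ S := htA.2
  -- it is on the relative boundary
  have hbd : z0 + t • v ∈ S \ ri S := by
    refine ⟨hz, fun hri => ?_⟩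
    obtain ⟨s, hs, hsS⟩ := ri_dir h1 hri hv
    have hm : ∀ l : ℝ, 0 ≤ l → l ≤ s → z0 + (t + l) • v ∈ S := by
      intro l hl hls
      have := h1 hz hsS (a := 1 - l / s) (b := l / s) (by
        rw [sub_nonneg]; exact (div_le_one hs).2 hls) (by positivity) (by ring)
      convert this using 1
      have e1 : (1 - l / s) • (z0 + t • v) + (l / s) • (z0 + t • v + s • v) =
          z0 + t • v + ((l / s) * s) • v := by module
      rw [e1, div_mul_cancel₀ _ hs.ne']
      module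
    set l := min s (1 - t) with hl
    have hl0 : 0 < l := lt_min hs (by linarith)
    have hmem : t + l ∈ A := by
      refine ⟨⟨by linarith [htA.1.1], ?_⟩, hm l hl0.le (min_le_left _ _)⟩
      have := min_le_right s (1 - t)
      rw [← hl] at this
      linarith
    linarith [htop _ hmem]
  rw [← he] at hbd
  obtain ⟨w, hw, hwz⟩ := hbd
  have hwc : w ∈ cube n := sph_subset_cube hw
  have hgw : e.g (z0 + t • v) = w := by rw [← hwz]; exact e.li w hwc
  have hnw : ‖w‖ = 1 := by simpa using hw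
  have hlip := chart_lip h1 ha.le (hB B).2 z0 hz0S (z0 + t • v) hz
  rw [hgw, hg0, dist_zero_right, hnw] at hlip
  have hd : dist (B (z0 + t • v)) (B z0) = t * ‖B.linear v‖ := by
    have : B (z0 + t • v) = t • B.linear v + B z0 := by
      have h1 : B (t • v +ᵥ z0) = B.linear (t • v) +ᵥ B z0 := B.map_vadd _ _
      rw [vadd_eq_add, vadd_eq_add, map_smul] at h1
      rw [add_comm z0]
      exact h1
    rw [this, dist_eq_norm, add_sub_cancel_right, norm_smul, Real.norm_eq_abs,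
      abs_of_nonneg htA.1.1]
  rw [hd] at hlip
  have h5 : AAc n (B '' S) * (t * ‖B.linear v‖) ≤ AAc n (B '' S) * ‖B.linear v‖ := by
    refine mul_le_mul_of_nonneg_left ?_ ha.le
    have := norm_nonneg (B.linear v)
    nlinarith
  linarith

/-- **AFFINE FUNCTIONS WITH BOUNDED OSCILLATION ON A FAT PART, IN ALL FRAMES** -/
theorem aff_slope {n : ℕ} {S : Set E} (h1 : Convex ℝ S) (h2 : IsCompact S)
    (h3 : S.Nonempty) (h4 : IsBall n S (S \ ri S)) {τ : Set E} {v0 : E} {ρ : ℝ} (hρ : 0 < ρ)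
    (hτ : ∀ s ∈ S, v0 + ρ • s ∈ τ) {ℓ : E →ᵃ[ℝ] ℝ} {D : ℝ}
    (hosc : ∀ x ∈ τ, ∀ y ∈ τ, ℓ x - ℓ y ≤ D) (B : E ≃ᵃ[ℝ] E) {u : E}
    (hu : u ∈ (affineSpan ℝ S).direction) :
    |ℓ.linear u| ≤ D / ρ * AAc n (B '' S) * ‖B.linear u‖ := by
  obtain ⟨z0, hz0, hroom⟩ := exists_room h1 h2 h3 h4
  have ha := AAc_pos n (B '' S)
  rcases eq_or_ne u 0 with rfl | hu0
  · simp
  have hBu : 0 < ‖B.linear u‖ := by
    rw [norm_pos_iff]
    intro h
    apply hu0
    have := B.linear.injective (h.trans (map_zero B.linear).symm)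
    exact this
  set l := 1 / (2 * AAc n (B '' S) * ‖B.linear u‖) with hl
  have hl0 : 0 < l := by positivity
  have hll : AAc n (B '' S) * (l * ‖B.linear u‖) = 1 / 2 := by
    rw [hl]; field_simp
  have hp : z0 + l • u ∈ S := by
    refine hroom B _ (Submodule.smul_mem _ _ hu) ?_
    rw [map_smul, norm_smul, Real.norm_eq_abs, abs_of_pos hl0, hll]
    norm_num
  have hm : z0 + (-l) • u ∈ S := by
    refine hroom B _ (Submodule.smul_mem _ _ hu) ?_
    rw [map_smul, norm_smul, norm_neg, Real.norm_eq_abs, abs_of_pos hl0, hll]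
    norm_num
  have hd : ℓ (v0 + ρ • (z0 + l • u)) - ℓ (v0 + ρ • (z0 + (-l) • u)) = 2 * ρ * l * ℓ.linear u := by
    rw [← vsub_eq_sub, ← AffineMap.linearMap_vsub, vsub_eq_sub]
    have : v0 + ρ • (z0 + l • u) - (v0 + ρ • (z0 + (-l) • u)) = (2 * ρ * l) • u := by module
    rw [this, map_smul, smul_eq_mul]
  have k1 := hosc _ (hτ _ hp) _ (hτ _ hm)
  have k2 := hosc _ (hτ _ hm) _ (hτ _ hp)
  have k3 : |2 * ρ * l * ℓ.linear u| ≤ D := by
    rw [← hd, abs_le]
    constructor <;> linarith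
  rw [abs_mul, abs_of_pos (by positivity)] at k3
  have k4 : |ℓ.linear u| ≤ D / (2 * ρ * l) := by
    rw [le_div_iff₀ (by positivity)]
    linarith
  refine k4.trans (le_of_eq ?_)
  rw [hl]
  field_simp

/-- the same, as a bound between two points of the body -/
theorem aff_lip {n : ℕ} {S : Set E} (h1 : Convex ℝ S) (h2 : IsCompact S)
    (h3 : S.Nonempty) (h4 : IsBall n S (S \ ri S)) {τ : Set E} {v0 : E} {ρ : ℝ} (hρ : 0 < ρ)
    (hτ : ∀ s ∈ S, v0 + ρ • s ∈ τ) {ℓ : E →ᵃ[ℝ] ℝ} {D : ℝ}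
    (hosc : ∀ x ∈ τ, ∀ y ∈ τ, ℓ x - ℓ y ≤ D) (B : E ≃ᵃ[ℝ] E) {x y : E} (hx : x ∈ S)
    (hy : y ∈ S) : |ℓ x - ℓ y| ≤ D / ρ * AAc n (B '' S) * dist (B x) (B y) := by
  have hd : x - y ∈ (affineSpan ℝ S).direction := by
    rw [← vsub_eq_sub]
    exact AffineSubspace.vsub_mem_direction (subset_affineSpan ℝ S hx) (subset_affineSpan ℝ S hy)
  have k := aff_slope h1 h2 h3 h4 hρ hτ hosc B hd
  have e1 : ℓ.linear (x - y) = ℓ x - ℓ y := by
    rw [← vsub_eq_sub, AffineMap.linearMap_vsub, vsub_eq_sub]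
  have e2 : B.linear (x - y) = B x - B y := by
    have : (B : E →ᵃ[ℝ] E).linear (x -ᵥ y) = (B : E →ᵃ[ℝ] E) x -ᵥ (B : E →ᵃ[ℝ] E) y :=
      AffineMap.linearMap_vsub _ _ _
    simpa using this
  rw [e1, e2] at k
  rwa [dist_eq_norm]

/-- **PL functions**: finitely many closed pieces, slope bound of the affine piece on the body -/
theorem LB_of_pieces {S : Set E} {κ : Type*} [Finite κ] {τ : κ → Set E}
    (hτ : ∀ i, IsClosed (τ i)) (hcov : ∀ y ∈ S, ∃ i, y ∈ τ i) {f : E → ℝ} {ℓ : κ → E →ᵃ[ℝ] ℝ}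
    (hf : ∀ i, ∀ y ∈ S, y ∈ τ i → f y = ℓ i y) {B : E ≃ᵃ[ℝ] E} {Λ : ℝ}
    (hb : ∀ i, ∀ x ∈ S, ∀ y ∈ S, |ℓ i x - ℓ i y| ≤ Λ * dist (B x) (B y)) {z : E} (hz : z ∈ S) :
    LB B Λ f S z := by
  have h1 : ∀ᶠ y in 𝓝[S] z, ∀ i, z ∉ τ i → y ∉ τ i := by
    refine Filter.eventually_all.2 fun i => ?_
    by_cases hi : z ∈ τ i
    · exact Eventually.of_forall fun y h => absurd hi h
    · have : ∀ᶠ y in 𝓝[S] z, y ∉ τ i :=
        Filter.Eventually.filter_mono nhdsWithin_le_nhds ((hτ i).isOpen_compl.mem_nhds hi)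
      exact this.mono fun y hy _ => hy
  filter_upwards [h1, self_mem_nhdsWithin] with y hy hyS
  obtain ⟨i, hi⟩ := hcov y hyS
  have hzi : z ∈ τ i := by
    by_contra h
    exact hy i h hi
  rw [hf i y hyS hi, hf i z hz hzi]
  exact hb i y hyS z hz

/-- **THE FORM FOR THE BASE**: on the body `S` the function `f` is affine on finitely many closed
pieces, every one of which contains a `ρ`-homothetic copy of `S` on which the affine function has
oscillation at most `D`: then `f` is `D / ρ * AAc n (B '' S)`-Lipschitz in EVERY frame `B`. -/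
theorem LB_fat {n : ℕ} {S : Set E} (h1 : Convex ℝ S) (h2 : IsCompact S) (h3 : S.Nonempty)
    (h4 : IsBall n S (S \ ri S)) {κ : Type*} [Finite κ] {τ : κ → Set E}
    (hτ : ∀ i, IsClosed (τ i)) (hcov : ∀ y ∈ S, ∃ i, y ∈ τ i) {f : E → ℝ} {ℓ : κ → E →ᵃ[ℝ] ℝ}
    (hf : ∀ i, ∀ y ∈ S, y ∈ τ i → f y = ℓ i y) {ρ D : ℝ} (hρ : 0 < ρ)
    (hfat : ∀ i, ∃ v0 : E, ∀ s ∈ S, v0 + ρ • s ∈ S ∧ v0 + ρ • s ∈ τ i)
    (hosc : ∀ x ∈ S, ∀ y ∈ S, f x - f y ≤ D) (B : E ≃ᵃ[ℝ] E) {z : E} (hz : z ∈ S) :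
    LB B (D / ρ * AAc n (B '' S)) f S z := by
  refine LB_of_pieces hτ hcov hf (fun i x hx y hy => ?_) hz
  obtain ⟨v0, hv⟩ := hfat i
  refine aff_lip h1 h2 h3 h4 (τ := S ∩ τ i) hρ (fun s hs => hv s hs) (fun x hx y hy => ?_) B hx hy
  rw [← hf i x hx.1 hx.2, ← hf i y hy.1 hy.2]
  exact hosc x hx.1 y hy.1

end Crest.Agent.R096.Lbb_835
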