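import Crest.Agent.R096.Init12_543
import Crest.Agent.R096.Etg7_163

/-! Row 96 (helper438), DOORS-ESS, LAB-POS, part 1: facts in the target: connected parts of the walls,
shells from a gauge sphere to the walls, connectivity of the touching graph off one brick -/

set_option autoImplicit false
set_option linter.unusedSectionVars false
set_option linter.style.haveILetI false

open Set Topology Filter

namespace Crest.Agent.R096.Lbp_438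

open Crest.Agent.R096.Coh_184 Crest.Agent.R096.Brk1_582 Crest.Agent.R096.Brk2_582
open Crest.Agent.R096.Bsp_628 Crest.Agent.R096.Brk3_582 Crest.Agent.R096.Vb_965
open Crest.Agent.R096.Exc_965 Crest.Agent.R96.Push_899 Crest.Agent.R096.SkC1_961
open Crest.Agent.R096.Sphg_316 Crest.Agent.R096.Etg_163
open Crest.Agent.R096.Pse_316 (gau_eq bod_brick)

variable {δ κ0 R c0 : ℝ} {La : Set E3} (Φ : FoamD δ κ0 R c0 La)

/-- the wall of the brick `c` -/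
def Wl (c : Φ.F) : Set E3 := {q | q ∈ Pc Φ.F c ∧ ∃ d, d ≠ c ∧ q ∈ Pc Φ.F d}

variable {Φ} {a c d e : Φ.F} {t θ r ρ : ℝ}

theorem preconn_Wl (hLa : IsOpen La) : IsPreconnected (Wl Φ c) := by
  have F := Brk3_582.foam Φ.bf hLa
  have h3 : Module.finrank ℝ E3 = 3 := by simp [E3]
  have hD := isPreconnected_Lset F h3 (cell_nonempty Φ c) le_rfl one_pos
  rw [Lset_zero F] at hD
  exact hD

theorem frontier_Wl (hLa : IsOpen La) : frontier (Pc Φ.F c) = Wl Φ c :=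
  frontier_eq (Brk3_582.foam Φ.bf hLa) c

theorem Wl_nonempty (hLa : IsOpen La) : (Wl Φ c).Nonempty := by
  rw [← frontier_Wl hLa]
  have F := Brk3_582.foam Φ.bf hLa
  have h : Nontrivial E3 := inferInstance
  exact nonempty_frontier_iff.2 ⟨cell_nonempty Φ c, fun h =>
    noncompact_univ E3 (h ▸ F.cpt c)⟩

theorem lev_wall (hLa : IsOpen La) {q : E3} (hq : q ∈ Wl Φ c) :
    Φ.Psi q = q ∧ Φ.lev a q = sc (Pc Φ.F) (bc (F := Φ.F)) q a := by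
  obtain ⟨h1, d, h2, h3⟩ := hq
  have h4 := ((pushD Φ hLa).wall c d h2 q h1 h3).2
  exact ⟨h4, by unfold FoamD.lev; rw [h4]⟩

/-- the level of `a` is one on the cells which do not touch `a` -/
theorem sc_one (hLa : IsOpen La) (h : ¬ (Pc Φ.F a ∩ Pc Φ.F c).Nonempty) {q : E3}
    (hq : q ∈ Pc Φ.F c) : sc (Pc Φ.F) (bc (F := Φ.F)) q a = 1 := by
  have F := Brk3_582.foam Φ.bf hLa
  have hqL := F.sub c hq
  by_contra h1
  apply h
  obtain ⟨z, hz⟩ := F.sc_lt_one_fc hqL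
  refine ⟨z, mem_fc.1 hz a (lt_of_le_of_ne (F.sc_le_one hqL a) h1), mem_fc.1 hz c ?_⟩
  show sc _ _ q c < 1
  rw [(F.sc_eq_zero hqL).2 hq]; exact one_pos

/-- **the part `{θ ≤ s_a}` of the wall of `c` is connected**, for all `c ≠ a` -/
theorem preconn_hi (hLa : IsOpen La) (hac : a ≠ c) (h0 : 0 < θ) (h1 : θ < 1) :
    IsPreconnected (Dge (Pc Φ.F) (bc (F := Φ.F)) c a θ) ∧
      (Dge (Pc Φ.F) (bc (F := Φ.F)) c a θ).Nonempty := by
  by_cases h : (Pc Φ.F a ∩ Pc Φ.F c).Nonempty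
  · exact preconn_Dge Φ.bf hLa hac h h0 h1
  · have h2 : Dge (Pc Φ.F) (bc (F := Φ.F)) c a θ = Wl Φ c := by
      ext q
      refine ⟨fun hq => ⟨hq.1, hq.2.1⟩, fun hq => ⟨hq.1, hq.2, ?_⟩⟩
      rw [sc_one hLa h hq.1]; exact h1.le
    rw [h2]
    exact ⟨preconn_Wl hLa, Wl_nonempty hLa⟩

theorem Dge_sub_Wl : Dge (Pc Φ.F) (bc (F := Φ.F)) c a θ ⊆ Wl Φ c := fun _ h => ⟨h.1, h.2.1⟩

theorem Dle_sub_Wl : Dle (Pc Φ.F) (bc (F := Φ.F)) c a θ ⊆ Wl Φ c := fun _ h => ⟨h.1, h.2.1⟩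

/-- the centre of the wall of `c` and `d` -/
theorem bb_mem (hLa : IsOpen La) (hac : a ≠ c) (had : a ≠ d) (hcd : c ≠ d)
    (h : (Pc Φ.F c ∩ Pc Φ.F d).Nonempty) (h1 : θ ≤ 1) :
    bc (F := Φ.F) {c, d} ∈ Dge (Pc Φ.F) (bc (F := Φ.F)) c a θ ∧
      bc (F := Φ.F) {c, d} ∈ Dge (Pc Φ.F) (bc (F := Φ.F)) d a θ := by
  classical
  have F := Brk3_582.foam Φ.bf hLa
  obtain ⟨y, hy1, hy2⟩ := h
  have hA : (fc (Pc Φ.F) {c, d}).Nonempty := by
    refine ⟨y, mem_fc.2 fun x hx => ?_⟩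
    rcases hx with rfl | hx
    · exact hy1
    · rw [mem_singleton_iff.1 hx]; exact hy2
  have hAn : ({c, d} : Set Φ.F).Nonempty := ⟨c, by simp⟩
  have hm := mem_fc.1 (F.mem _ hAn hA)
  have hc := hm c (by simp)
  have hd := hm d (by simp)
  have hs := F.sc_b hAn hA a
  rw [if_neg (by simp [hac, had])] at hs
  exact ⟨⟨hc, ⟨d, hcd.symm, hd⟩, by rw [hs]; exact h1⟩, ⟨hd, ⟨c, hcd, hc⟩, by rw [hs]; exact h1⟩⟩

/-- **the touching graph off one brick is connected** -/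
theorem good_all (hLa : IsOpen La) (hLc : IsPreconnected La) {G : Φ.F → Prop} (he : e ≠ a)
    (hGe : G e) (hst : ∀ c d, c ≠ a → d ≠ a → (Pc Φ.F c ∩ Pc Φ.F d).Nonempty → G c → G d) :
    ∀ c, c ≠ a → G c := by
  classical
  have F := Brk3_582.foam Φ.bf hLa
  have hne : ∀ c, (Pc Φ.F c).Nonempty := cell_nonempty Φ
  -- one neighbour
  have h1 : ∃ c, c ≠ a ∧ (Pc Φ.F c ∩ Pc Φ.F a).Nonempty ∧ G c := by
    by_contra hcon
    push Not at hcon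
    have h2 := Init_543.touch_induction F hLc hne (X := {c | c ≠ a ∧ G c}) ?_ (a := e) ⟨he, hGe⟩ a
    · exact h2.1 rfl
    · rintro c ⟨hc, hG⟩ c' hcc
      have hc' : c' ≠ a := by
        rintro rfl
        exact hcon c hc hcc hG
      exact ⟨hc', hst c c' hc hc' hcc hG⟩
  obtain ⟨c1, hc1, ⟨y1, hy1, hy1'⟩, hG1⟩ := h1
  -- all neighbours
  have hfin := F.finite_meet (F.cpt a) (F.sub a)
  have h2 : ∀ c, c ≠ a → (Pc Φ.F c ∩ Pc Φ.F a).Nonempty → G c := by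
    intro c2 hc2 hn2
    by_contra hG2
    obtain ⟨y2, hy2, hy2'⟩ := hn2
    have hcl : ∀ Q : Φ.F → Prop, IsClosed (⋃ c ∈ {c | (Pc Φ.F c ∩ Pc Φ.F a).Nonempty ∧ c ≠ a ∧
        Q c}, Pc Φ.F c) := fun Q =>
      (hfin.subset fun c hc => hc.1).isClosed_biUnion fun c _ => (F.cpt c).isClosed
    have h3 := isPreconnected_closed_iff.1 (preconn_Wl (c := a) hLa) _ _ (hcl G) (hcl fun c => ¬ G c)
      (by
        rintro q ⟨hqa, d, hda, hqd⟩
        by_cases hG : G d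
        · exact Or.inl (mem_iUnion₂.2 ⟨d, ⟨⟨q, hqd, hqa⟩, hda, hG⟩, hqd⟩)
        · exact Or.inr (mem_iUnion₂.2 ⟨d, ⟨⟨q, hqd, hqa⟩, hda, hG⟩, hqd⟩))
      ⟨y1, ⟨hy1', c1, hc1, hy1⟩, mem_iUnion₂.2 ⟨c1, ⟨⟨y1, hy1, hy1'⟩, hc1, hG1⟩, hy1⟩⟩
      ⟨y2, ⟨hy2', c2, hc2, hy2⟩, mem_iUnion₂.2 ⟨c2, ⟨⟨y2, hy2, hy2'⟩, hc2, hG2⟩, hy2⟩⟩
    obtain ⟨y, -, h4, h5⟩ := h3
    obtain ⟨c, hc, hyc⟩ := mem_iUnion₂.1 h4
    obtain ⟨d, hd, hyd⟩ := mem_iUnion₂.1 h5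
    exact hd.2.2 (hst c d hc.2.1 hd.2.1 ⟨y, hyc, hyd⟩ hc.2.2)
  have h3 : ∀ c, c ∈ {c | c = a ∨ G c} := by
    refine Init_543.touch_induction F hLc hne ?_ (a := a) (Or.inl rfl)
    rintro c hc c' hcc
    by_cases hc'a : c' = a
    · exact Or.inl hc'a
    · right
      by_cases hca : c = a
      · subst hca
        exact h2 c' hc'a (by rwa [inter_comm])
      · exact hst c c' hca hc'a hcc (hc.resolve_left hca)
  exact fun c hc => (h3 c).resolve_left hc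

/-! ### shells up to the wall -/

section shell

variable (hLa : IsOpen La) (hpt : (Φ.B c).lo = (Φ.B c).hi) (hr1 : r < 1)
  (hray : Mbf_337.RayTo Φ c r) (h0 : 0 < ρ) (hρ : ρ ≤ r)
include hLa hpt hr1 hray h0 hρ

/-- **the shell between a gauge sphere and the wall** over a connected part of the wall -/
theorem shell_wall {D : Set E3} (hDs : D ⊆ Wl Φ c)
    (hDc : IsCompact D) (hD : IsPreconnected D) :
    IsPreconnected {y | y ∈ c.1.set ∧ Φ.Psi y ∈ D ∧ ρ ≤ gg Φ c y} ∧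
      D ⊆ {y | y ∈ c.1.set ∧ Φ.Psi y ∈ D ∧ ρ ≤ gg Φ c y} := by
  have F := Brk3_582.foam Φ.bf hLa
  have S := str_of Φ hLa hpt (h0.trans_le hρ) hr1 hray
  have h1 : {y | y ∈ c.1.set ∧ Φ.Psi y ∈ D ∧ ρ ≤ gg Φ c y} =
      {y | y ∈ Pc Φ.F c ∧ Φ.Psi y ∈ D ∧
        ρ ≤ mus (Pc Φ.F) Φ.Psi (muD Φ) c (Φ.B c).lo r y ∧
        mus (Pc Φ.F) Φ.Psi (muD Φ) c (Φ.B c).lo r y ≤ 1} := by
    ext y
    constructor
    · rintro ⟨h2, h3, h4⟩
      rw [gg_eq] at h4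
      refine ⟨h2, h3, (le_mus_iff F (pushD Φ hLa) S h2 hρ).2 h4,
        ((push_mus F (pushD Φ hLa) S).mu_mem y (F.sub c h2)).2⟩
    · rintro ⟨h2, h3, h4, -⟩
      refine ⟨h2, h3, ?_⟩
      rw [gg_eq]
      exact (le_mus_iff F (pushD Φ hLa) S h2 hρ).1 h4
  refine ⟨?_, ?_⟩
  · rw [h1]
    exact (preconn_shell F (push_mus F (pushD Φ hLa) S) h0 (hρ.trans hr1.le) le_rfl
      (fun q hq => hDs hq) hDc hD).1
  · intro q hq
    obtain ⟨h2, d, h3, h4⟩ := hDs hq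
    refine ⟨h2, ?_, ?_⟩
    · rw [(lev_wall (a := c) hLa (hDs hq)).1]; exact hq
    · rw [gg_eq, Ng_wall F (pushD Φ hLa) S h3 h2 h4]
      exact hρ.trans hr1.le

end shell

end Crest.Agent.R096.Lbp_438
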