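import Crest.Agent.R096.Lbp1_438

/-! Row 96 (helper438), DOORS-ESS, LAB-POS, part 2: **labels of a sheet near the walls and near the
tiny cores** (`LabP`), from the label data `Dat` of one sheet -/

set_option autoImplicit false
set_option linter.unusedSectionVars false
set_option linter.style.haveILetI false

open Set Topology Filter

namespace Crest.Agent.R096.Lbp_438

open Crest.Agent.R096.Coh_184 Crest.Agent.R096.Brk1_582 Crest.Agent.R096.Brk2_582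
open Crest.Agent.R096.Bsp_628 Crest.Agent.R096.Brk3_582 Crest.Agent.R096.Vb_965
open Crest.Agent.R096.Exc_965 Crest.Agent.R96.Push_899 Crest.Agent.R096.SkC1_961
open Crest.Agent.R096.Sphg_316 Crest.Agent.R096.Etg_163 Crest.Agent.R096.Main_4
open Crest.Agent.R096.Msh_715
open Crest.Agent.R096.Pse_316 (gau_eq bod_brick)

variable {δ κ0 R c0 : ℝ} {La Om : Set E3} {ι : Type}

/-- **LAB-POS near the core `c`** (outside every gauge ball which contains the tiles `J0 c`) -/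
def LabP (Φ : FoamD δ κ0 R c0 La) (T : Tiling Om ι) (f : E3 → E3) (J0 : Φ.F → Set ι) (κ1 : ℝ)
    (a : Φ.F) (t : ℝ) (lm : E3 → ZMod 2) (c : Φ.F) : Prop :=
  ∀ ρ r : ℝ, 0 < ρ → ρ ≤ r → r < 1 → Mbf_337.RayTo Φ c r →
    (∀ x ∈ Mbf_337.KJ T (J0 c), Mbf_337.gau c.1 (Φ.B c).lo (f x) < ρ) →
    ∀ q, ∀ x ∈ Msh_715.P (T.H q), f x ∈ c.1.set → ρ ≤ Mbf_337.gau c.1 (Φ.B c).lo (f x) →
      ∀ v ∈ Msh_715.P (T.H q), T.dim v = 0 →
        (Φ.lev a (f x) < t - κ1 → lm v = 1) ∧ (t + κ1 < Φ.lev a (f x) → lm v = 0)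

/-- **label data** of one sheet of the brick `a` at the level `t`: `Q` = its points, `lm` = label -/
structure Dat (Φ : FoamD δ κ0 R c0 La) (T : Tiling Om ι) (f : E3 → E3) (J0 : Φ.F → Set ι) (κ1 : ℝ)
    (a : Φ.F) (t : ℝ) (Q : Finset E3) (lm : E3 → ZMod 2) : Prop where
  hf : Hom3 f Om La
  k0 : 0 ≤ κ1
  t0 : κ1 < t
  t1 : t + κ1 < 1
  lab : IsLab T Q lm
  inside : ∀ c, ∀ q ∈ J0 c, ∀ x ∈ Msh_715.P (T.H q), ∀ k, c.1.lo k < f x k ∧ f x k < c.1.hi k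
  lev : ∀ q, (∀ c, q ∉ J0 c) → ∀ x ∈ Msh_715.P (T.H q), ∀ y ∈ Msh_715.P (T.H q),
    |Φ.lev a (f y) - Φ.lev a (f x)| ≤ κ1
  pts : ∀ u ∈ Q, Φ.lev a (f u) = t
  off : ∀ u ∈ Q, f u ∉ Pc Φ.F a
  cell : ∀ q, (∀ c, q ∉ J0 c) → ∀ x ∈ Msh_715.P (T.H q), f x ∈ Pc Φ.F a → Φ.lev a (f x) = 0
  one : ∃ v ∈ VM T {x ∈ Om | f x ∈ Pc Φ.F a}, lm v = 1
  far : ∃ e, e ≠ a ∧ ∀ v ∈ VM T {x ∈ Om | f x ∈ Pc Φ.F e}, lm v = 0

variable {Φ : FoamD δ κ0 R c0 La} {T : Tiling Om ι} {f : E3 → E3} {J0 : Φ.F → Set ι} {κ1 : ℝ}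
variable {a c : Φ.F} {t θ r ρ : ℝ} {Q : Finset E3} {lm : E3 → ZMod 2}

/-- a point of the open brick `c` is in no other brick -/
theorem eq_of_open (hLa : IsOpen La) {y : E3} (hy : ∀ k, c.1.lo k < y k ∧ y k < c.1.hi k)
    {d : Φ.F} (hd : y ∈ Pc Φ.F d) : d = c := by
  by_contra h
  have h1 : y ∈ Pc Φ.F c := interior_subset (show y ∈ interior c.1.set from interior_box.2 hy)
  have h2 : y ∈ frontier (Pc Φ.F c) := by
    rw [frontier_Wl hLa]; exact ⟨h1, d, h, hd⟩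
  have h3 : y ∈ interior (Pc Φ.F c) := interior_box.2 hy
  exact disjoint_interior_frontier.le_bot ⟨h3, h2⟩

namespace Dat

variable (D : Dat Φ T f J0 κ1 a t Q lm)
include D

theorem not_J0_wall (hLa : IsOpen La) {x : E3} (hx : f x ∈ Wl Φ c) {q : ι}
    (hq : x ∈ Msh_715.P (T.H q)) : ∀ d, q ∉ J0 d := by
  intro d hd
  obtain ⟨h1, c', h2, h3⟩ := hx
  have h4 := D.inside d q hd x hq
  have h5 := eq_of_open hLa h4 h1
  have h6 := eq_of_open hLa h4 h3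
  exact h2 (h6.trans h5.symm)

/-- the label is constant on a connected set all tiles of which are fine and far from the level -/
theorem const {A : Set E3} (hA : IsPreconnected {x ∈ Om | f x ∈ A})
    (hq : ∀ q x, x ∈ Msh_715.P (T.H q) → f x ∈ A →
      (∀ c, q ∉ J0 c) ∧ κ1 < |t - Φ.lev a (f x)|) {v w : E3}
    (hv : v ∈ VM T {x ∈ Om | f x ∈ A}) (hw : w ∈ VM T {x ∈ Om | f x ∈ A}) : lm v = lm w := by
  refine D.lab.const_geom hA (fun x hx => hx.1) (fun q hqA u hu huq => ?_) hv hw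
  obtain ⟨x, hxq, hxO, hxA⟩ := hqA
  obtain ⟨h1, h2⟩ := hq q x hxq hxA
  have h3 := D.lev q h1 x hxq u huq
  rw [D.pts u hu] at h3
  linarith

theorem exists_pre {y : E3} (hy : y ∈ La) : ∃ x ∈ Om, f x = y := by
  obtain ⟨g, a1, a2, a3, a4, a5, a6⟩ := D.hf
  exact ⟨g y, a2 hy, a4 y hy⟩

theorem exists_vm {y : E3} (hy : y ∈ La) : ∃ v, ∀ A : Set E3, y ∈ A → v ∈ VM T {x ∈ Om | f x ∈ A} := by
  obtain ⟨x, hx, hxy⟩ := D.exists_pre hy
  obtain ⟨q, hq⟩ := T.cov x hx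
  obtain ⟨v, hv, h0⟩ := exists_vertex_tile hq
  exact ⟨v, fun A hA => mem_VM hq ⟨hx, by rw [hxy]; exact hA⟩ hv h0⟩

/-- the label is one at `P a` -/
theorem at_cell (hLa : IsOpen La) {v : E3} (hv : v ∈ VM T {x ∈ Om | f x ∈ Pc Φ.F a}) : lm v = 1 := by
  have F := Brk3_582.foam Φ.bf hLa
  obtain ⟨w, hw, h1⟩ := D.one
  rw [← h1]
  refine D.lab.const_geom (isPreconnected_hom D.hf (F.cvx a).isPreconnected (F.sub a))
    (fun x hx => hx.1) (fun q hqA u hu huq => ?_) hv hw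
  obtain ⟨x, hxq, hxO, hxA⟩ := hqA
  by_cases h : ∀ c, q ∉ J0 c
  · -- a fine tile
    have h3 := D.lev q h x hxq u huq
    rw [D.pts u hu] at h3
    rw [D.cell q h x hxq hxA, sub_zero] at h3
    have h6 := abs_le.1 h3
    linarith [h6.2, D.t0]
  · push Not at h
    obtain ⟨d, hd⟩ := h
    have h4 := eq_of_open hLa (D.inside d q hd x hxq) hxA
    subst h4
    exact D.off u hu (interior_subset (show f u ∈ interior a.1.set from
      interior_box.2 (D.inside a q hd u huq)))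

/-- the label is one at the walls below the level -/
theorem wall_lo (hLa : IsOpen La) (hac : a ≠ c) (hne : (Pc Φ.F a ∩ Pc Φ.F c).Nonempty)
    (h0 : 0 ≤ θ) (hθ : θ < t - κ1) {v : E3}
    (hv : v ∈ VM T {x ∈ Om | f x ∈ Dle (Pc Φ.F) (bc (F := Φ.F)) c a θ}) : lm v = 1 := by
  have F := Brk3_582.foam Φ.bf hLa
  have ht1 := D.t1
  have hk := D.k0
  obtain ⟨y, hy1, hy2⟩ := hne
  obtain ⟨w, hw⟩ := D.exists_vm (F.sub c hy2)
  have hyD : y ∈ Dle (Pc Φ.F) (bc (F := Φ.F)) c a θ := by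
    refine ⟨hy2, ⟨a, hac, hy1⟩, ?_⟩
    rw [(F.sc_eq_zero (F.sub a hy1)).2 hy1]; exact h0
  rw [← D.at_cell hLa (hw _ hy1)]
  refine D.const (isPreconnected_hom D.hf (preconn_Dle F hac ⟨y, hy1, hy2⟩ h0 (by linarith)).1
    fun q hq => F.sub c hq.1) (fun q x hxq hx => ⟨D.not_J0_wall hLa (Dle_sub_Wl hx) hxq, ?_⟩) hv
    (hw _ hyD)
  rw [(lev_wall (a := a) hLa (Dle_sub_Wl hx)).2]
  have := hx.2.2
  exact lt_of_lt_of_le (by linarith) (le_abs_self _)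

/-- the label is zero at the walls above the level -/
theorem wall_hi (hLa : IsOpen La) (hLc : IsPreconnected La) (hθ : t + κ1 < θ) (hθ1 : θ < 1)
    (hac : a ≠ c) {v : E3}
    (hv : v ∈ VM T {x ∈ Om | f x ∈ Dge (Pc Φ.F) (bc (F := Φ.F)) c a θ}) : lm v = 0 := by
  have F := Brk3_582.foam Φ.bf hLa
  have ht1 := D.t1
  have ht0 := D.t0
  have hk := D.k0
  have hconst : ∀ c, a ≠ c → ∀ v ∈ VM T {x ∈ Om | f x ∈ Dge (Pc Φ.F) (bc (F := Φ.F)) c a θ},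
      ∀ w ∈ VM T {x ∈ Om | f x ∈ Dge (Pc Φ.F) (bc (F := Φ.F)) c a θ}, lm v = lm w := by
    intro c hac v hv w hw
    refine D.const (isPreconnected_hom D.hf (preconn_hi hLa hac (by linarith) hθ1).1
      fun q hq => F.sub c hq.1) (fun q x hxq hx => ⟨D.not_J0_wall hLa (Dge_sub_Wl hx) hxq, ?_⟩)
      hv hw
    rw [(lev_wall (a := a) hLa (Dge_sub_Wl hx)).2]
    have := hx.2.2
    exact lt_of_lt_of_le (by linarith) (neg_le_abs _)
  obtain ⟨e, hea, he⟩ := D.far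
  refine good_all hLa hLc (a := a) (e := e)
    (G := fun c => ∀ v ∈ VM T {x ∈ Om | f x ∈ Dge (Pc Φ.F) (bc (F := Φ.F)) c a θ}, lm v = 0)
    hea ?_ ?_ c hac.symm v hv
  · intro v hv
    have h1 : {x ∈ Om | f x ∈ Dge (Pc Φ.F) (bc (F := Φ.F)) e a θ} ⊆ {x ∈ Om | f x ∈ Pc Φ.F e} :=
      fun x hx => ⟨hx.1, hx.2.1⟩
    exact he v (VM_mono h1 hv)
  · intro c d hc hd hcd hG v hv
    by_cases h : c = d
    · subst h; exact hG v hv
    · obtain ⟨h1, h2⟩ := bb_mem hLa (θ := θ) hc.symm hd.symm h hcd hθ1.le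
      obtain ⟨w, hw⟩ := D.exists_vm (F.sub c h1.1)
      rw [hconst d hd.symm v hv w (hw _ h2)]
      exact hG w (hw _ h1)

/-- **LAB-POS near a point hole** -/
theorem labP (hLa : IsOpen La) (hLc : IsPreconnected La) (hac : a ≠ c)
    (hne : (Pc Φ.F a ∩ Pc Φ.F c).Nonempty) (hpt : (Φ.B c).lo = (Φ.B c).hi) :
    LabP Φ T f J0 κ1 a t lm c := by
  intro ρ r h0 hρ hr1 hray hJ q x hxq hxc hxρ v hv hv0
  have F := Brk3_582.foam Φ.bf hLa
  have ht1 := D.t1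
  have ht0 := D.t0
  have hk := D.k0
  have hS := str_of Φ hLa hpt (h0.trans_le hρ) hr1 hray
  -- the push of a point of the shell is on the wall
  have hwall : ∀ y ∈ c.1.set, ρ ≤ Mbf_337.gau c.1 (Φ.B c).lo y → Φ.Psi y ∈ Wl Φ c := by
    intro y hy h
    have h' : ρ ≤ gg Φ c y := h
    rw [gg_eq] at h'
    exact (pushD Φ hLa).mem c y hy (pos_of F (pushD Φ hLa) hS hy
      (hS.bod.pos.1 (h0.trans_le h')))
  -- tiles at points of the shell are fine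
  have hfine : ∀ q x, x ∈ Msh_715.P (T.H q) → f x ∈ c.1.set →
      ρ ≤ Mbf_337.gau c.1 (Φ.B c).lo (f x) → ∀ d, q ∉ J0 d := by
    intro q x hxq hxc hxρ d hd
    have h1 := eq_of_open hLa (D.inside d q hd x hxq) hxc
    subst h1
    have h2 := hJ x (mem_biUnion hd hxq)
    linarith
  have hO : x ∈ Om := T.sub q hxq
  constructor
  · intro hlev
    set θ := max (Φ.lev a (f x)) 0 with hθ
    have hθ0 : 0 ≤ θ := le_max_right _ _
    have hθ1 : θ < t - κ1 := max_lt hlev (by linarith)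
    obtain ⟨h1, h2⟩ := shell_wall hLa hpt hr1 hray h0 hρ
      (Dle_sub_Wl (c := c) (a := a) (θ := θ)) (isCompact_Dle F)
      (preconn_Dle F hac hne hθ0 (by linarith)).1
    obtain ⟨y, hy⟩ := (preconn_Dle F (t := θ) hac hne hθ0 (by linarith)).2
    obtain ⟨w, hw⟩ := D.exists_vm (F.sub c hy.1)
    rw [← D.wall_lo hLa hac hne hθ0 hθ1 (hw _ hy)]
    refine D.const (isPreconnected_hom D.hf h1 fun q hq => F.sub c hq.1)
      (fun q x hxq hx => ⟨hfine q x hxq hx.1 hx.2.2, ?_⟩) ?_ (hw _ (h2 hy))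
    · have h3 : Φ.lev a (f x) ≤ θ := hx.2.1.2.2
      exact lt_of_lt_of_le (by linarith) (le_abs_self _)
    · refine mem_VM hxq ⟨hO, hxc, ?_, hxρ⟩ hv hv0
      obtain ⟨g1, g2⟩ := hwall _ hxc hxρ
      exact ⟨g1, g2, le_max_left _ _⟩
  · intro hlev
    -- a level between
    obtain ⟨θ, hθ0, hθ1⟩ : ∃ θ, t + κ1 < θ ∧ θ < min (Φ.lev a (f x)) 1 :=
      exists_between (lt_min hlev ht1)
    have hθx : θ < Φ.lev a (f x) := hθ1.trans_le (min_le_left _ _)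
    have hθ1' : θ < 1 := hθ1.trans_le (min_le_right _ _)
    have hd := preconn_hi (θ := θ) hLa hac (by linarith) hθ1'
    obtain ⟨h1, h2⟩ := shell_wall hLa hpt hr1 hray h0 hρ
      (Dge_sub_Wl (c := c) (a := a) (θ := θ)) (isCompact_Dge F) hd.1
    obtain ⟨y, hy⟩ := hd.2
    obtain ⟨w, hw⟩ := D.exists_vm (F.sub c hy.1)
    rw [← D.wall_hi hLa hLc hθ0 hθ1' hac (hw _ hy)]
    refine D.const (isPreconnected_hom D.hf h1 fun q hq => F.sub c hq.1)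
      (fun q x hxq hx => ⟨hfine q x hxq hx.1 hx.2.2, ?_⟩) ?_ (hw _ (h2 hy))
    · have h3 : θ ≤ Φ.lev a (f x) := hx.2.1.2.2
      exact lt_of_lt_of_le (by linarith) (neg_le_abs _)
    · refine mem_VM hxq ⟨hO, hxc, ?_, hxρ⟩ hv hv0
      obtain ⟨g1, g2⟩ := hwall _ hxc hxρ
      exact ⟨g1, g2, hθx.le⟩

/-- **a point of the sheet in a tile at a wall** -/
theorem exists_wall_pt (hLa : IsOpen La) (hLc : IsPreconnected La) :
    ∃ r ∈ Q, ∃ q, r ∈ Msh_715.P (T.H q) ∧ ∃ c, ∃ x ∈ Msh_715.P (T.H q), f x ∈ Wl Φ c := by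
  have F := Brk3_582.foam Φ.bf hLa
  have ht1 := D.t1
  have ht0 := D.t0
  have hk := D.k0
  obtain ⟨y, hya, c, hca, hyc⟩ := Wl_nonempty (c := a) hLa
  obtain ⟨θ, hθ0, hθ1⟩ := exists_between ht1
  obtain ⟨z, hz⟩ := (preconn_hi (θ := θ) hLa hca.symm (by linarith) hθ1).2
  obtain ⟨v, hv⟩ := D.exists_vm (F.sub a hya)
  obtain ⟨w, hw⟩ := D.exists_vm (F.sub c hz.1)
  have h1 : lm v = 1 := D.at_cell hLa (hv _ hya)
  have h2 : lm w = 0 := D.wall_hi hLa hLc hθ0 hθ1 hca.symm (hw _ hz)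
  obtain ⟨q, ⟨x, hxq, -, hx⟩, u, hu, huq⟩ := D.lab.reach_geom
    (isPreconnected_hom D.hf (preconn_Wl (c := c) hLa) fun q hq => F.sub c hq.1)
    (fun x hx => hx.1) (hv (Wl Φ c) ⟨hyc, a, hca.symm, hya⟩) (hw (Wl Φ c) (Dge_sub_Wl hz))
    (by rw [h1, h2]; exact one_ne_zero)
  exact ⟨u, hu, q, huq, c, x, hxq, hx⟩

end Dat

end Crest.Agent.R096.Lbp_438
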