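import Crest.Agent.R096.Fl1_835
import Crest.Agent.R096.Grd10_714
import Crest.Agent.R096.Bin8_181

/-!
# R096 (row 96), LIP-CORE (helper714), part 1: calculus

* `lip_of_local` : a pointwise Lipschitz bound (inside a convex set) is a Lipschitz bound
* `pr s g = ⌊g⌋ + 1/2 + cl (s (g - ⌊g⌋ - 1/2))` : the one dimensional clamps on every unit interval
* radial coordinates of a box
* nearby points of the 2-skeleton lie in one closed grid cell
-/

set_option autoImplicit false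
set_option linter.unusedSectionVars false

open Set Filter Topology

namespace Crest.Agent.R096.Lco_714

open Crest.Agent.R096.Brk1_582 Crest.Agent.R096.Brk2_582 Crest.Agent.R096.Brk6_582
open Crest.Agent.R096.Grd_714

/-! ### local Lipschitz bounds -/

section loc

variable {E F : Type*} [NormedAddCommGroup E] [NormedSpace ℝ E] [NormedAddCommGroup F]

theorem cont_of_local {K : Set E} {S : ℝ} {f : E → F} {x : E}
    (h : ∀ᶠ y in 𝓝[K] x, ‖f y - f x‖ ≤ S * ‖y - x‖) : ContinuousWithinAt f K x := by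
  have h1 : Tendsto (fun y => f y - f x) (𝓝[K] x) (𝓝 0) := by
    have h2 : Tendsto (fun y : E => S * ‖y - x‖) (𝓝[K] x) (𝓝 0) := by
      have : Tendsto (fun y : E => S * ‖y - x‖) (𝓝 x) (𝓝 (S * ‖x - x‖)) := by
        apply Continuous.tendsto
        fun_prop
      have h3 := this.mono_left (nhdsWithin_le_nhds (s := K))
      simpa using h3
    exact squeeze_zero_norm' h h2
  have h3 := h1.add_const (f x)
  simpa [ContinuousWithinAt] using h3

theorem seg_lip {φ : ℝ → F} {c : ℝ} (hφ : ContinuousOn φ (Icc 0 1))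
    (h : ∀ t ∈ Ico (0 : ℝ) 1, ∀ᶠ s in 𝓝[>] t, s ≤ 1 → ‖φ s - φ t‖ ≤ c * (s - t)) :
    ‖φ 1 - φ 0‖ ≤ c := by
  set S : Set ℝ := {t | ‖φ t - φ 0‖ ≤ c * t} with hS
  have hcl : IsClosed (S ∩ Icc 0 1) := by
    have h1 : ContinuousOn (fun t => ‖φ t - φ 0‖ - c * t) (Icc 0 1) := by
      intro t ht
      exact ((hφ t ht).sub continuousWithinAt_const).norm.sub
        (continuousWithinAt_const.mul continuousWithinAt_id)
    have h2 := h1.preimage_isClosed_of_isClosed isClosed_Icc (isClosed_Iic (a := (0:ℝ)))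
    have h3 : S ∩ Icc 0 1 = Icc 0 1 ∩ (fun t => ‖φ t - φ 0‖ - c * t) ⁻¹' Iic 0 := by
      ext t
      simp only [hS, mem_inter_iff, mem_ofPred_eq, mem_preimage, mem_Iic, sub_nonpos]
      tauto
    rw [h3]
    exact h2
  have h0 : (0 : ℝ) ∈ S := by simp [hS]
  have h1 := hcl.Icc_subset_of_forall_mem_nhdsWithin h0 (by
    rintro t ⟨ht, ht2⟩
    have h1' : ∀ᶠ s in 𝓝[>] t, s < 1 := by
      have : Ioo t 1 ∈ 𝓝[>] t := Ioo_mem_nhdsGT ht2.2
      filter_upwards [this] with s hs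
      exact hs.2
    filter_upwards [h t ht2, h1'] with s hs hs1
    have hs' := hs hs1.le
    have h4 : ‖φ s - φ 0‖ ≤ ‖φ s - φ t‖ + ‖φ t - φ 0‖ := by
      have : φ s - φ 0 = (φ s - φ t) + (φ t - φ 0) := by abel
      rw [this]
      exact norm_add_le _ _
    have h5 : ‖φ t - φ 0‖ ≤ c * t := ht
    change ‖φ s - φ 0‖ ≤ c * s
    linarith)
  have h2 : (1 : ℝ) ∈ S := h1 (right_mem_Icc.2 zero_le_one)
  have h3 : ‖φ 1 - φ 0‖ ≤ c * 1 := h2
  linarith

/-- **pointwise Lipschitz on a convex set ⟹ Lipschitz** -/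
theorem lip_of_local {K : Set E} (hK : Convex ℝ K) {S : ℝ} {f : E → F}
    (h : ∀ x ∈ K, ∀ᶠ y in 𝓝[K] x, ‖f y - f x‖ ≤ S * ‖y - x‖) {x y : E} (hx : x ∈ K)
    (hy : y ∈ K) : ‖f y - f x‖ ≤ S * ‖y - x‖ := by
  set φ : ℝ → F := fun t => f (x + t • (y - x)) with hφ
  have hm : ∀ t ∈ Icc (0 : ℝ) 1, x + t • (y - x) ∈ K := fun t ht => hK.add_smul_sub_mem hx hy ht
  have hc : Continuous (fun t : ℝ => x + t • (y - x)) := by fun_prop
  have h1 := seg_lip (φ := φ) (c := S * ‖y - x‖)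
    (by
      intro t ht
      have h2 := cont_of_local (h _ (hm t ht))
      exact h2.comp (f := fun t : ℝ => x + t • (y - x)) hc.continuousWithinAt hm)
    (by
      intro t ht
      have h2 := h _ (hm t ⟨ht.1, ht.2.le⟩)
      have h3 : Tendsto (fun s : ℝ => x + s • (y - x)) (𝓝[>] t) (𝓝 (x + t • (y - x))) :=
        (hc.tendsto t).mono_left nhdsWithin_le_nhds
      have h2' := eventually_nhdsWithin_iff.1 h2
      filter_upwards [h3.eventually h2', self_mem_nhdsWithin] with s hs hst hs1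
      have hst' : t < s := hst
      have hs' := hs (hm s ⟨ht.1.trans hst'.le, hs1⟩)
      have e : x + s • (y - x) - (x + t • (y - x)) = (s - t) • (y - x) := by
        rw [sub_smul]; abel
      rw [e, norm_smul, Real.norm_eq_abs, abs_of_pos (by linarith)] at hs'
      change ‖f (x + s • (y - x)) - f (x + t • (y - x))‖ ≤ S * ‖y - x‖ * (s - t)
      linarith)
  have e1 : φ 1 = f y := by simp [hφ]
  have e0 : φ 0 = f x := by simp [hφ]
  rwa [e1, e0] at h1

end loc

/-! ### the clamps on the unit intervals -/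

open Crest.Agent.R096.Bd_416 (cl cl_mem cl_of_mem cl_of_le cl_of_ge abs_cl_sub)

/-- clamp with slope `s` on every unit interval -/
noncomputable def pr (s g : ℝ) : ℝ := ⌊g⌋ + 1/2 + cl (s * (g - ⌊g⌋ - 1/2))

theorem pr_eq {s g : ℝ} (hs : 1 ≤ s) {k : ℤ} (h0 : (k : ℝ) ≤ g) (h1 : g ≤ k + 1) :
    pr s g = k + 1/2 + cl (s * (g - k - 1/2)) := by
  rcases h1.lt_or_eq with h | h
  · have : ⌊g⌋ = k := Int.floor_eq_iff.2 ⟨h0, h⟩
    rw [pr, this]
  · have : ⌊g⌋ = k + 1 := Int.floor_eq_iff.2 ⟨by push_cast; linarith, by push_cast; linarith⟩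
    rw [pr, this, h]
    push_cast
    rw [cl_of_le (by nlinarith), cl_of_ge (by nlinarith)]
    ring

theorem pr_int {s : ℝ} (hs : 1 ≤ s) (k : ℤ) : pr s k = k := by
  rw [pr_eq hs le_rfl (by linarith), cl_of_le (by nlinarith)]
  ring

theorem pr_nat {s : ℝ} (hs : 1 ≤ s) (k : ℕ) : pr s k = k := by
  have := pr_int hs (k : ℤ)
  exact_mod_cast this

theorem pr_one (g : ℝ) : pr 1 g = g := by
  have h0 := Int.floor_le g
  have h1 := Int.lt_floor_add_one g
  rw [pr, cl_of_mem (by constructor <;> linarith)]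
  ring

theorem pr_mem {s g : ℝ} (hs : 1 ≤ s) {k : ℤ} (h0 : (k : ℝ) ≤ g) (h1 : g ≤ k + 1) :
    (k : ℝ) ≤ pr s g ∧ pr s g ≤ k + 1 := by
  rw [pr_eq hs h0 h1]
  have := cl_mem (s * (g - k - 1/2))
  constructor <;> linarith [this.1, this.2]

theorem pr_mem_nat {s g : ℝ} (hs : 1 ≤ s) {l h : ℕ} (hlh : h ≤ l + 1) (h0 : (l : ℝ) ≤ g)
    (h1 : g ≤ h) : (l : ℝ) ≤ pr s g ∧ pr s g ≤ h := by
  rcases Nat.eq_or_lt_of_le hlh with h2 | h2
  · have h3 := pr_mem hs (k := (l : ℤ)) (by exact_mod_cast h0) (by subst h2; exact_mod_cast h1)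
    subst h2
    exact_mod_cast h3
  · have h4 : g = l := le_antisymm (h1.trans (by exact_mod_cast (by omega : h ≤ l))) h0
    rw [h4, pr_nat hs]
    exact ⟨le_rfl, h4 ▸ h1⟩

theorem pr_lip {s s' g g' : ℝ} (hs : 1 ≤ s) (hs' : 1 ≤ s') {k : ℤ} (h0 : (k : ℝ) ≤ g)
    (h1 : g ≤ k + 1) (h0' : (k : ℝ) ≤ g') (h1' : g' ≤ k + 1) :
    |pr s g - pr s' g'| ≤ s * |g - g'| + |s - s'| / 2 := by
  rw [pr_eq hs h0 h1, pr_eq hs' h0' h1']
  have e : (k : ℝ) + 1/2 + cl (s * (g - k - 1/2)) - (k + 1/2 + cl (s' * (g' - k - 1/2))) =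
      cl (s * (g - k - 1/2)) - cl (s' * (g' - k - 1/2)) := by ring
  rw [e]
  refine (abs_cl_sub _ _).trans ?_
  have e2 : s * (g - k - 1/2) - s' * (g' - k - 1/2) = s * (g - g') + (s - s') * (g' - k - 1/2) := by
    ring
  rw [e2]
  refine (abs_add_le _ _).trans ?_
  rw [abs_mul, abs_mul, abs_of_pos (by linarith : (0:ℝ) < s)]
  have h3 : |g' - k - 1/2| ≤ 1/2 := by rw [abs_le]; constructor <;> linarith
  have h4 := mul_le_mul_of_nonneg_left h3 (abs_nonneg (s - s'))
  linarith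

/-! ### radial coordinates -/

section rad

variable {E : Type*} [NormedAddCommGroup E] [NormedSpace ℝ E] (A : E ≃L[ℝ] E) (o : E)

/-- the gauge of the convex body `o + A '' closedBall 0 1` -/
noncomputable def rho (y : E) : ℝ := ‖A.symm (y - o)‖

/-- the radial projection to the boundary -/
noncomputable def zz (y : E) : E := o + (rho A o y)⁻¹ • (y - o)

variable {A o}

theorem rho_nonneg (y : E) : 0 ≤ rho A o y := norm_nonneg _

theorem rho_center : rho A o o = 0 := by simp [rho]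

theorem rho_pos {y : E} (h : y ≠ o) : 0 < rho A o y := by
  rw [rho, norm_pos_iff]
  intro h'
  exact h (sub_eq_zero.1 ((A.symm.map_eq_zero_iff).1 h'))

theorem rho_add_smul {t : ℝ} (ht : 0 ≤ t) (y : E) : rho A o (o + t • (y - o)) = t * rho A o y := by
  rw [rho, add_sub_cancel_left, map_smul, norm_smul, Real.norm_eq_abs, abs_of_nonneg ht, rho]

theorem rho_zz {y : E} (h : y ≠ o) : rho A o (zz A o y) = 1 := by
  have h1 := rho_pos (A := A) h
  rw [zz, rho_add_smul (inv_nonneg.2 h1.le), inv_mul_cancel₀ h1.ne']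

theorem add_zz {y : E} (h : y ≠ o) : o + rho A o y • (zz A o y - o) = y := by
  have h1 := rho_pos (A := A) h
  rw [zz, add_sub_cancel_left, smul_smul, mul_inv_cancel₀ h1.ne', one_smul]
  abel

theorem zz_smul {t : ℝ} (ht : 0 < t) {y : E} (hy : rho A o y = 1) :
    zz A o (o + t • (y - o)) = y := by
  rw [zz, rho_add_smul ht.le, hy, mul_one, add_sub_cancel_left, smul_smul,
    inv_mul_cancel₀ ht.ne', one_smul]
  abel

theorem continuous_rho : Continuous (rho A o) := by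
  unfold rho
  fun_prop

variable {a h : ℝ} (ha : ∀ v, ‖A.symm v‖ ≤ a * ‖v‖) (hh : ∀ w, ‖A w‖ ≤ h * ‖w‖)
include ha

theorem rho_lip (y y' : E) : |rho A o y - rho A o y'| ≤ a * ‖y - y'‖ := by
  unfold rho
  refine (abs_norm_sub_norm_le _ _).trans ?_
  rw [← map_sub]
  refine (ha _).trans (le_of_eq ?_)
  congr 2
  abel

include hh

theorem norm_sub_le_rho (y : E) : ‖y - o‖ ≤ h * rho A o y := by
  have := hh (A.symm (y - o))
  rwa [A.apply_symm_apply] at this

/-- the radial projection is Lipschitz on `1/2 ≤ rho` -/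
theorem zz_lip {y y' : E} (h1 : 1/2 ≤ rho A o y) (h2 : 1/2 ≤ rho A o y') :
    ‖zz A o y - zz A o y'‖ ≤ 2 * (1 + h * a) * ‖y - y'‖ := by
  have p1 : 0 < rho A o y := by linarith
  have p2 : 0 < rho A o y' := by linarith
  have e : zz A o y - zz A o y' =
      (rho A o y)⁻¹ • (y - y') + ((rho A o y)⁻¹ - (rho A o y')⁻¹) • (y' - o) := by
    unfold zz
    module
  rw [e]
  refine (norm_add_le _ _).trans ?_
  rw [norm_smul, norm_smul, Real.norm_eq_abs, Real.norm_eq_abs, abs_of_pos (inv_pos.2 p1)]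
  have h3 : (rho A o y)⁻¹ ≤ 2 := by
    rw [inv_le_comm₀ p1 two_pos]; linarith
  have h4 : |(rho A o y)⁻¹ - (rho A o y')⁻¹| * ‖y' - o‖ ≤ 2 * (h * a) * ‖y - y'‖ := by
    have e2 : (rho A o y)⁻¹ - (rho A o y')⁻¹ =
        (rho A o y)⁻¹ * (rho A o y')⁻¹ * (rho A o y' - rho A o y) := by
      field_simp
    rw [e2, abs_mul, abs_of_pos (by positivity), abs_sub_comm]
    have h5 := rho_lip (A := A) (o := o) ha y y'
    have h6 := norm_sub_le_rho (A := A) (o := o) ha hh y'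
    have hh0 : 0 ≤ h := by
      have h8 : 0 ≤ h * rho A o y' := (norm_nonneg _).trans h6
      exact nonneg_of_mul_nonneg_left h8 p2
    have h9 : 0 ≤ a * ‖y - y'‖ := (abs_nonneg _).trans h5
    calc (rho A o y)⁻¹ * (rho A o y')⁻¹ * |rho A o y - rho A o y'| * ‖y' - o‖
        ≤ (rho A o y)⁻¹ * (rho A o y')⁻¹ * (a * ‖y - y'‖) * (h * rho A o y') := by
          refine mul_le_mul ?_ h6 (norm_nonneg _) (by positivity)
          exact mul_le_mul_of_nonneg_left h5 (by positivity)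
      _ = (rho A o y)⁻¹ * (h * (a * ‖y - y'‖)) := by field_simp
      _ ≤ 2 * (h * (a * ‖y - y'‖)) := by
        refine mul_le_mul_of_nonneg_right h3 ?_
        exact mul_nonneg hh0 ((abs_nonneg _).trans h5)
      _ = 2 * (h * a) * ‖y - y'‖ := by ring
  have h7 := mul_le_mul_of_nonneg_right h3 (norm_nonneg (y - y'))
  linarith

end rad

/-! ### nearby points lie in one closed grid cell -/

theorem floor_near (x : ℝ) : ∃ ε > 0, ∀ x', 0 ≤ x' → |x' - x| < ε → (⌊x'⌋₊ : ℝ) ≤ x ∧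
    x ≤ ⌈x'⌉₊ := by
  have h1 := Int.lt_floor_add_one x
  have h2 := Int.ceil_lt_add_one x
  refine ⟨min (⌊x⌋ + 1 - x) (x - ⌈x⌉ + 1), lt_min (by linarith) (by linarith), ?_⟩
  intro x' hx' h
  have h3 := abs_lt.1 (h.trans_le (min_le_left _ _))
  have h4 := abs_lt.1 (h.trans_le (min_le_right _ _))
  constructor
  · have h5 : ⌊x'⌋ < ⌊x⌋ + 1 := Int.floor_lt.2 (by push_cast; linarith [h3.2])
    have h6 : ⌊x'⌋ ≤ ⌊x⌋ := by omega
    have h7 : (⌊x'⌋ : ℝ) ≤ x := le_trans (by exact_mod_cast h6) (Int.floor_le x)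
    rwa [← natCast_floor_eq_intCast_floor hx'] at h7
  · have h5 : ⌈x⌉ - 1 < ⌈x'⌉ := Int.lt_ceil.2 (by push_cast; linarith [h4.1])
    have h6 : ⌈x⌉ ≤ ⌈x'⌉ := by omega
    have h7 : x ≤ (⌈x'⌉ : ℝ) := le_trans (Int.le_ceil x) (by exact_mod_cast h6)
    rwa [← natCast_ceil_eq_intCast_ceil hx'] at h7

section cells

variable {E : Type*} [NormedAddCommGroup E] [NormedSpace ℝ E] {I : Type*}
variable {b : Set I → E} {P : I → Set E} {m : I → ℕ}

theorem near_cell (hm : ∀ c, 0 < m c) (g : I → ℝ) {N : Set I} (hN : N.Finite) :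
    ∃ ε > 0, ∀ g' (hg' : g' ∈ G2 P m), (∀ a ∈ N, |g' a - g a| < ε) → (∀ a, a ∉ N → g' a = g a) →
      g ∈ (flb hm g' hg').bx := by
  classical
  choose e he h using fun a => floor_near (g a)
  have h1 : ∃ ε > 0, ∀ a ∈ N, ε ≤ e a := by
    have : ∀ S : Finset I, ∃ ε > 0, ∀ a ∈ S, ε ≤ e a := by
      intro S
      induction S using Finset.induction_on with
      | empty => exact ⟨1, one_pos, fun a ha => absurd ha (Finset.notMem_empty a)⟩
      | insert x S _ ih =>
        obtain ⟨ε, h1, h2⟩ := ih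
        refine ⟨min ε (e x), lt_min h1 (he x), fun a ha => ?_⟩
        rcases Finset.mem_insert.1 ha with rfl | ha
        · exact min_le_right _ _
        · exact (min_le_left _ _).trans (h2 a ha)
    obtain ⟨ε, h1, h2⟩ := this hN.toFinset
    exact ⟨ε, h1, fun a ha => h2 a (hN.mem_toFinset.2 ha)⟩
  obtain ⟨ε, hε, h2⟩ := h1
  refine ⟨ε, hε, fun g' hg' h3 h4 a => ?_⟩
  have h0 := G2_nonneg hm hg' a
  by_cases ha : a ∈ N
  · exact h a (g' a) h0 ((h3 a ha).trans_le (h2 a ha))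
  · have := h4 a ha
    exact ⟨this ▸ Nat.floor_le h0, this ▸ Nat.le_ceil _⟩

end cells

end Crest.Agent.R096.Lco_714
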