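import Crest.Agent.R096.Lco1_714
import Crest.Agent.R096.Cst2_476

/-!
# R096 (row 96), LIP-CORE (helper714), part 2: `st κ ∘ R` is uniformly Lipschitz on the core cell

`lip_core` : `R` keeps the shells of `P c` and is radial over `Y : bd P c → bd P c` near the boundary;
the level coordinates of `Y` are `L m a / D a`-Lipschitz.  Then `st κ ∘ R` is Lipschitz with a constant
which does not depend on `κ ≤ 1/2` and on the numbers of levels `m`.
-/

set_option autoImplicit false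
set_option linter.unusedSectionVars false
set_option linter.unusedVariables false

open Set Metric Filter Topology

namespace Crest.Agent.R096.Lco_714

open Crest.Agent.R096.Ce_537 Crest.Agent.R096.Bd_416 Crest.Agent.R096.Xp_537
open Crest.Agent.R096.Brk1_582 Crest.Agent.R096.Brk2_582 Crest.Agent.R096.Brk6_582
open Crest.Agent.R096.Grd_714 Crest.Agent.R096.Bin_181 Crest.Agent.R096.Fl_835
open Crest.Agent.R096.Cst_476

variable {E : Type*} [NormedAddCommGroup E] [NormedSpace ℝ E] {I : Type*}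
variable {b : Set I → E} {P : I → Set E} {m : I → ℕ}
variable {La : Set E} [CompleteSpace E] (F : Foam La P b 4) (hQ : Quads P b)
  (hne : ∀ c, (P c).Nonempty) (hm : ∀ c, 0 < m c)
variable {κ : ℝ} {c : I}
variable {A : E ≃L[ℝ] E} {a0 h0 : ℝ}

/-- data of the radial map on one core -/
structure Rad (P : I → Set E) (b : Set I → E) (m : I → ℕ) (D : I → ℝ) (c : I) (κ : ℝ)
    (A : E ≃L[ℝ] E) (a0 h0 S L K2 : ℝ) (R Y : E → E) : Prop where
  ball : P c = {y | rho A (b {c}) y ≤ 1}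
  ha : ∀ v, ‖A.symm v‖ ≤ a0 * ‖v‖
  hh : ∀ w, ‖A w‖ ≤ h0 * ‖w‖
  lip : ∀ x ∈ P c, ∀ x' ∈ P c, ‖R x' - R x‖ ≤ S * ‖x' - x‖
  inn : ∀ x ∈ P c, rho A (b {c}) x ≤ 1 - κ → rho A (b {c}) (R x) ≤ 1 - κ
  shell : ∀ x ∈ P c, 1 - κ ≤ rho A (b {c}) x →
    R x = b {c} + rho A (b {c}) x • (Y (zz A (b {c}) x) - b {c})
  wall : ∀ z, rho A (b {c}) z = 1 → Y z ∈ P c ∧ ∃ c', c' ≠ c ∧ Y z ∈ P c'
  co : ∀ z z', rho A (b {c}) z = 1 → rho A (b {c}) z' = 1 → ∀ a,
    D a * |co P b m (Y z) a - co P b m (Y z') a| ≤ L * m a * ‖z - z'‖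
  step : StepLe P b D
  D0 : ∀ a, 0 ≤ D a
  Da : ∀ a, (P a ∩ P c).Nonempty → D a * a0 ≤ K2

include hm in
/-- the shell estimate -/
theorem Rad.shell_lip {D : I → ℝ} {S L K2 : ℝ} {R Y : E → E}
    (X : Rad P b m D c κ A a0 h0 S L K2 R Y) (hκ : 0 < κ) (hκ2 : κ ≤ 1/2) (hL : 0 ≤ L)
    (hK : 0 ≤ K2) {x : E} (hx : x ∈ P c) (hρ : 1 - κ ≤ rho A (b {c}) x) :
    ∀ᶠ x' in 𝓝[P c] x, 1 - κ ≤ rho A (b {c}) x' →
      ‖st (grid F hQ hne hm) κ (R x') - st (grid F hQ hne hm) κ (R x)‖ ≤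
        (8 * (1 + h0 * a0) * L + 2 * K2) * ‖x' - x‖ := by
  set o := b {c} with ho
  have hκ' : 0 < κ ∧ κ < 1 := ⟨hκ, by linarith⟩
  have hρ0 : 0 < rho A o x := by linarith
  have hxo : x ≠ o := by
    intro e; rw [e, rho_center] at hρ0; exact lt_irrefl _ hρ0
  -- continuity of the wall point
  have hcR : ContinuousWithinAt R (P c) x := by
    refine cont_of_local (S := S) ?_
    filter_upwards [self_mem_nhdsWithin] with x' hx'
    exact X.lip x hx x' hx'
  set W : E → E := fun x' => o + (rho A o x')⁻¹ • (R x' - o) with hW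
  have hcW : ContinuousWithinAt W (P c) x := by
    have h1 : ContinuousWithinAt (fun x' => (rho A o x')⁻¹) (P c) x :=
      (continuous_rho.continuousWithinAt).inv₀ hρ0.ne'
    exact continuousWithinAt_const.add (h1.smul (hcR.sub continuousWithinAt_const))
  have hWY : ∀ x' ∈ P c, 1 - κ ≤ rho A o x' → W x' = Y (zz A o x') ∧
      rho A o (zz A o x') = 1 := by
    intro x' hx' h'
    have p : 0 < rho A o x' := by linarith
    have hne' : x' ≠ o := by
      intro e; rw [e, rho_center] at p; exact lt_irrefl _ p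
    refine ⟨?_, rho_zz hne'⟩
    have h2 : R x' = o + rho A o x' • (Y (zz A o x') - o) := X.shell x' hx' h'
    simp only [hW]
    rw [h2, add_sub_cancel_left, smul_smul, inv_mul_cancel₀ p.ne', one_smul]
    abel
  have hyx := hWY x hx hρ
  have hyP : W x ∈ P c := by rw [hyx.1]; exact (X.wall _ hyx.2).1
  have hsh := hcW.eventually (share F hQ hne hm hyP)
  filter_upwards [hsh, self_mem_nhdsWithin] with x' hs hx' hρ'
  have hyx' := hWY x' hx' hρ'
  obtain ⟨w1, w2⟩ := X.wall _ hyx'.2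
  obtain ⟨q, hq, hq1, hq2⟩ := hs (by rw [hyx'.1]; exact w1) (by rw [hyx'.1]; exact w2)
  have hle : rho A o x ≤ 1 := by rw [X.ball] at hx; exact hx
  have hle' : rho A o x' ≤ 1 := by rw [X.ball] at hx'; exact hx'
  -- the parameter
  have par : ∀ x' ∈ P c, 1 - κ ≤ rho A o x' → rho A o x' ≤ 1 →
      R x' = (1 - κ * ((1 - rho A o x') / κ)) • W x' + (κ * ((1 - rho A o x') / κ)) • o := by
    intro x' hx' h' h1
    have h2 : R x' = o + rho A o x' • (Y (zz A o x') - o) := X.shell x' hx' h'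
    rw [(hWY x' hx' h').1, h2, mul_div_cancel₀ _ hκ.ne']
    module
  rw [par x' hx' hρ' hle', par x hx hρ hle]
  have hL' : ∀ x', 1 - κ ≤ rho A o x' → rho A o x' ≤ 1 →
      0 ≤ (1 - rho A o x') / κ ∧ (1 - rho A o x') / κ ≤ 1 := by
    intro x' h1 h2
    refine ⟨div_nonneg (by linarith) hκ.le, ?_⟩
    rw [div_le_one hκ]; linarith
  obtain ⟨r0, r1⟩ := hL' x hρ hle
  obtain ⟨r0', r1'⟩ := hL' x' hρ' hle'
  have hzz := zz_lip (A := A) (o := o) X.ha X.hh (y := x') (y' := x) (by linarith) (by linarith)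
  have hrl := rho_lip (A := A) (o := o) X.ha x' x
  have hh0 : 0 ≤ 1 + h0 * a0 := by
    have h2 : 0 ≤ 2 * (1 + h0 * a0) * ‖x' - x‖ := (norm_nonneg _).trans hzz
    by_cases hxx : x' = x
    · -- use the two bounds at `x`
      have h3 := norm_sub_le_rho (A := A) (o := o) X.ha X.hh x
      have h4 : 0 < ‖x - o‖ := norm_pos_iff.2 (sub_ne_zero.2 hxo)
      have h5 := rho_lip (A := A) (o := o) X.ha x o
      rw [rho_center, sub_zero, abs_of_pos hρ0] at h5
      have ha' : 0 < a0 := by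
        by_contra hcon
        have : a0 * ‖x - o‖ ≤ 0 := mul_nonpos_of_nonpos_of_nonneg (not_lt.1 hcon) h4.le
        linarith
      have hh' : 0 < h0 := by
        by_contra hcon
        have : h0 * rho A o x ≤ 0 := mul_nonpos_of_nonpos_of_nonneg (not_lt.1 hcon) hρ0.le
        linarith
      positivity
    · have h3 : 0 < ‖x' - x‖ := norm_pos_iff.2 (sub_ne_zero.2 hxx)
      by_contra hcon
      have h4 : 2 * (1 + h0 * a0) * ‖x' - x‖ < 0 :=
        mul_neg_of_neg_of_pos (by linarith) h3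
      linarith
  set T : ℝ := (2 * (1 + h0 * a0) * L + K2 / 2) * ‖x' - x‖ with hT
  have hT0 : 0 ≤ T := by positivity
  have main := core_st_lip F hQ hne hm hκ' X.step hq (y := W x') (y' := W x) hq2 hq1 r0' r1' r0 r1
    (M := T / (1 - κ)) (div_nonneg hT0 (by linarith)) (by
      intro a ha
      refine ⟨X.D0 a, ?_⟩
      have hm1 : (1 : ℝ) ≤ m a := by exact_mod_cast hm a
      rw [mul_div_cancel₀ _ (by linarith : (1 - κ) ≠ 0)]
      have h1 := X.co (zz A o x') (zz A o x) hyx'.2 hyx.2 a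
      rw [← hyx.1, ← hyx'.1] at h1
      -- the neighbour
      have hPa : (P a ∩ P c).Nonempty := by
        obtain ⟨y, hy⟩ := q.face
        rw [mem_fc] at hy
        refine ⟨y, hy a ?_, hy c ?_⟩
        · have := Gx.hi_eq ha
          have := q.him a
          show q.lo a < m a
          omega
        · have := q.le c
          have := hm c
          show q.lo c < m c
          omega
      have h2 := X.Da a hPa
      have h3 : κ / 2 * |(1 - rho A o x') / κ - (1 - rho A o x) / κ| =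
          |rho A o x' - rho A o x| / 2 := by
        rw [← sub_div, abs_div, abs_of_pos hκ]
        have : |1 - rho A o x' - (1 - rho A o x)| = |rho A o x' - rho A o x| := by
          rw [← abs_neg]; congr 1; ring
        rw [this]
        field_simp
      rw [h3]
      have h4 : D a * (|rho A o x' - rho A o x| / 2) ≤ K2 / 2 * ‖x' - x‖ := by
        have := mul_le_mul_of_nonneg_left hrl (X.D0 a)
        have h5 : D a * (a0 * ‖x' - x‖) ≤ K2 * ‖x' - x‖ := by
          rw [← mul_assoc]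
          exact mul_le_mul_of_nonneg_right h2 (norm_nonneg _)
        linarith
      have h6 : L * m a * ‖zz A o x' - zz A o x‖ ≤
          L * m a * (2 * (1 + h0 * a0) * ‖x' - x‖) :=
        mul_le_mul_of_nonneg_left hzz (by positivity)
      have h7 : K2 / 2 * ‖x' - x‖ ≤ K2 / 2 * ‖x' - x‖ * m a :=
        le_mul_of_one_le_right (by positivity) hm1
      calc D a * (|Grd_714.co P b m (W x') a - Grd_714.co P b m (W x) a| +
            |rho A o x' - rho A o x| / 2)
          = D a * |Grd_714.co P b m (W x') a - Grd_714.co P b m (W x) a| +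
            D a * (|rho A o x' - rho A o x| / 2) := by ring
        _ ≤ L * m a * (2 * (1 + h0 * a0) * ‖x' - x‖) + K2 / 2 * ‖x' - x‖ * m a :=
          add_le_add (h1.trans h6) (h4.trans h7)
        _ = T * m a := by rw [hT]; ring)
  refine main.trans ?_
  have h8 : 2 * (T / (1 - κ)) ≤ 4 * T := by
    rw [← mul_div_assoc, div_le_iff₀ (by linarith)]
    nlinarith
  refine h8.trans (le_of_eq ?_)
  rw [hT]; ring

/-- the inner copy -/
theorem Rad.inner_lip {D : I → ℝ} {S L K2 : ℝ} {R Y : E → E}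
    (X : Rad P b m D c κ A a0 h0 S L K2 R Y) (hκ : 0 < κ) (hκ2 : κ ≤ 1/2) {x x' : E}
    (hx : x ∈ P c) (hx' : x' ∈ P c) (hρ : rho A (b {c}) x ≤ 1 - κ)
    (hρ' : rho A (b {c}) x' ≤ 1 - κ) :
    ‖st (grid F hQ hne hm) κ (R x') - st (grid F hQ hne hm) κ (R x)‖ ≤
        2 * S * ‖x' - x‖ := by
  have hκ' : 0 < κ ∧ κ < 1 := ⟨hκ, by linarith⟩
  have key : ∀ x ∈ P c, rho A (b {c}) x ≤ 1 - κ →
      st (grid F hQ hne hm) κ (R x) = b {c} + (1 - κ)⁻¹ • (R x - b {c}) := by
    intro x hx hρ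
    have h1 := X.inn x hx hρ
    have h2 : b {c} + (1 - κ)⁻¹ • (R x - b {c}) ∈ P c := by
      rw [X.ball, mem_ofPred_eq, rho_add_smul (inv_nonneg.2 (by linarith)),
        inv_mul_le_iff₀ (by linarith)]
      linarith
    have h3 := (core_in F hQ hne hm hκ' h2).1
    have e : (1 - κ) • (b {c} + (1 - κ)⁻¹ • (R x - b {c})) + κ • b {c} = R x := by
      rw [smul_add, smul_smul, mul_inv_cancel₀ (by linarith : (1 - κ) ≠ 0), one_smul]
      module
    rwa [e] at h3
  rw [key x hx hρ, key x' hx' hρ']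
  have e : b {c} + (1 - κ)⁻¹ • (R x' - b {c}) - (b {c} + (1 - κ)⁻¹ • (R x - b {c})) =
      (1 - κ)⁻¹ • (R x' - R x) := by module
  rw [e, norm_smul, Real.norm_eq_abs, abs_of_pos (inv_pos.2 (by linarith))]
  have h1 : (1 - κ)⁻¹ ≤ 2 := by
    rw [inv_le_comm₀ (by linarith) two_pos]; linarith
  have h2 := X.lip x hx x' hx'
  calc (1 - κ)⁻¹ * ‖R x' - R x‖ ≤ 2 * ‖R x' - R x‖ :=
        mul_le_mul_of_nonneg_right h1 (norm_nonneg _)
    _ ≤ 2 * (S * ‖x' - x‖) := by linarith
    _ = 2 * S * ‖x' - x‖ := by ring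

/-- **LIP-CORE** -/
theorem Rad.lip_core {D : I → ℝ} {S L K2 : ℝ} {R Y : E → E}
    (X : Rad P b m D c κ A a0 h0 S L K2 R Y) (hκ : 0 < κ) (hκ2 : κ ≤ 1/2) (hL : 0 ≤ L)
    (hK : 0 ≤ K2) {x x' : E} (hx : x ∈ P c) (hx' : x' ∈ P c) :
    ‖st (grid F hQ hne hm) κ (R x') - st (grid F hQ hne hm) κ (R x)‖ ≤
        max (2 * S) (8 * (1 + h0 * a0) * L + 2 * K2) * ‖x' - x‖ := by
  refine Lco_714.lip_of_local (F.cvx c) (f := fun x => st (grid F hQ hne hm) κ (R x)) ?_ hx hx'
  intro x hx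
  set o := b {c} with ho
  have hc := (continuous_rho (A := A) (o := o)).continuousAt (x := x)
  have m1 : ∀ x' : E, 2 * S * ‖x' - x‖ ≤
      max (2 * S) (8 * (1 + h0 * a0) * L + 2 * K2) * ‖x' - x‖ := fun x' =>
    mul_le_mul_of_nonneg_right (le_max_left _ _) (norm_nonneg _)
  have m2 : ∀ x' : E, (8 * (1 + h0 * a0) * L + 2 * K2) * ‖x' - x‖ ≤
      max (2 * S) (8 * (1 + h0 * a0) * L + 2 * K2) * ‖x' - x‖ := fun x' =>
    mul_le_mul_of_nonneg_right (le_max_right _ _) (norm_nonneg _)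
  rcases lt_trichotomy (rho A o x) (1 - κ) with h | h | h
  · filter_upwards [nhdsWithin_le_nhds (hc.eventually (gt_mem_nhds h)),
      self_mem_nhdsWithin] with x' h1 hx'
    exact (X.inner_lip F hQ hne hm hκ hκ2 hx hx' h.le (le_of_lt h1)).trans (m1 x')
  · filter_upwards [X.shell_lip F hQ hne hm hκ hκ2 hL hK hx h.ge, self_mem_nhdsWithin]
      with x' h1 hx'
    rcases le_total (rho A o x') (1 - κ) with h2 | h2
    · exact (X.inner_lip F hQ hne hm hκ hκ2 hx hx' h.le h2).trans (m1 x')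
    · exact (h1 h2).trans (m2 x')
  · filter_upwards [nhdsWithin_le_nhds (hc.eventually (lt_mem_nhds h)),
      X.shell_lip F hQ hne hm hκ hκ2 hL hK hx h.le] with x' h1 h2
    exact (h2 (le_of_lt h1)).trans (m2 x')

end Crest.Agent.R096.Lco_714
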