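import Crest.Agent.R096.Lm5_117
import Crest.Agent.R096.Ac9_117

/-!
# R096 (row 96), LMesh, part 11: laminarity over a labelled mesh; the closed chord cycles of a
two-colour state on the boundary of a tile (helper117)
-/

set_option autoImplicit false
set_option linter.unusedSectionVars false

open Set

namespace Crest.Agent.R096.Lm_117

open Crest.Agent.R096.St_147 Crest.Agent.R096.Ac_117 Crest.Agent.R096.Seq_213
open Crest.Agent.R096.Wk_689

/-! ### laminarity -/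

section lam

variable {Q W : Type} [PartialOrder Q] {dim : Q → ℕ} {L : Sk W Q dim}

/-- number mod 2 of the points of `Y` on `e` below the position `x` -/
noncomputable def preN (L : Sk W Q dim) (Y : Finset W) (e : Q) (x : ℝ) : ZMod 2 :=
  nW Y {w | w ∈ L.W1 ∧ L.ed w = e ∧ L.t w < x}

lemma preN_pre {Y : Finset W} {w : W} : preN L Y (L.ed w) (L.t w) = L.pre Y w := rfl

lemma preN_in {Y : Finset W} {e : Q} {x : ℝ} {u : W} (hu : u ∈ Y) (hu1 : u ∈ L.W1)
    (hue : L.ed u = e) (hx : L.t u < x)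
    (hmax : ∀ w ∈ Y, w ∈ L.W1 → L.ed w = e → L.t w < x → L.t w ≤ L.t u) :
    preN L Y e x = preN L Y e (L.t u) + 1 := by
  have h1 : nW Y ({u} : Set W) = 1 := nW_one hu rfl (fun w _ h => h)
  unfold preN
  rw [← h1]
  apply nW_union
  · intro w hw
    constructor
    · rintro ⟨a1, a2, a3⟩
      rcases eq_or_lt_of_le (hmax w hw a1 a2 a3) with h | h
      · right
        exact L.t_inj w a1 u hu1 (a2.trans hue.symm) h
      · left; exact ⟨a1, a2, h⟩
    · rintro (⟨a1, a2, a3⟩ | h)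
      · exact ⟨a1, a2, a3.trans hx⟩
      · have h' : w = u := h
        subst h'
        exact ⟨hu1, hue, hx⟩
  · rintro w _ ⟨⟨-, -, a3⟩, h⟩
    have h' : w = u := h
    subst h'
    exact lt_irrefl _ a3

lemma preN_out {Y : Finset W} {e : Q} {x : ℝ} {u : W} (hu : u ∉ Y) (hu1 : u ∈ L.W1)
    (hue : L.ed u = e) (hx : L.t u < x)
    (hmax : ∀ w ∈ Y, w ∈ L.W1 → L.ed w = e → L.t w < x → L.t w ≤ L.t u) :
    preN L Y e x = preN L Y e (L.t u) := by
  unfold preN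
  apply nW_congr
  intro w hw
  constructor
  · rintro ⟨a1, a2, a3⟩
    refine ⟨a1, a2, lt_of_le_of_ne (hmax w hw a1 a2 a3) (fun h => ?_)⟩
    have := L.t_inj w a1 u hu1 (a2.trans hue.symm) h
    exact hu (this ▸ hw)
  · rintro ⟨a1, a2, a3⟩
    exact ⟨a1, a2, a3.trans hx⟩

lemma preN_low {Y : Finset W} {e : Q} {x : ℝ}
    (h : ∀ w ∈ Y, w ∈ L.W1 → L.ed w = e → ¬ L.t w < x) : preN L Y e x = 0 :=
  nW_empty fun w hw h' => h w hw h'.1 h'.2.1 h'.2.2

lemma exists_big (Y : Finset W) (t : W → ℝ) : ∃ x, ∀ w ∈ Y, t w < x := by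
  classical
  obtain ⟨x, hx⟩ := (Y.image t).finite_toSet.bddAbove
  refine ⟨x + 1, fun w hw => ?_⟩
  have := hx (Finset.mem_coe.2 (Finset.mem_image_of_mem t hw))
  linarith

variable {Y Y' : Finset W} {a b : Q → ZMod 2} {β : ZMod 2} {c : Q}

/-- along an edge -/
lemma hh_edge (hd : ∀ w ∈ Y, w ∉ Y')
    (h1 : ∀ w ∈ Y', w ∈ L.In c → L.ext Y a w = 1)
    (h2 : ∀ w ∈ Y, w ∈ L.In c → L.ext Y' b w = β) {e : Q} (he : e ≤ c) (x : ℝ) :
    (a (L.en e false) + preN L Y e x + 1) * (b (L.en e false) + preN L Y' e x + β) =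
      (a (L.en e false) + 1) * (b (L.en e false) + β) := by
  classical
  have key : ∀ u : W, u ∈ L.W1 → L.ed u = e → (u ∈ Y ∨ u ∈ Y') →
      (a (L.en e false) + preN L Y e (L.t u) + 1) *
        (b (L.en e false) + preN L Y' e (L.t u) + β) = 0 := by
    intro u hu1 hue hu
    have hin : u ∈ L.In c := ⟨hu1, hue ▸ he⟩
    rcases hu with hu | hu
    · have h3 := h2 u hu hin
      unfold Sk.ext at h3
      rw [← preN_pre, hue] at h3
      rw [h3, add_self, mul_zero]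
    · have h3 := h1 u hu hin
      unfold Sk.ext at h3
      rw [← preN_pre, hue] at h3
      rw [h3, add_self, zero_mul]
  let S : Finset W := (Y ∪ Y').filter (fun u => u ∈ L.W1 ∧ L.ed u = e)
  have hS : ∀ u, u ∈ S ↔ (u ∈ Y ∨ u ∈ Y') ∧ u ∈ L.W1 ∧ L.ed u = e := by
    intro u
    simp only [S, Finset.mem_filter, Finset.mem_union]
  by_cases hSx : (S.filter (fun u => L.t u < x)).Nonempty
  · -- the value at `x` is zero
    obtain ⟨u, hu, humax⟩ := Finset.exists_max_image _ L.t hSx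
    rw [Finset.mem_filter, hS] at hu
    have hmax : ∀ w, (w ∈ Y ∨ w ∈ Y') → w ∈ L.W1 → L.ed w = e → L.t w < x → L.t w ≤ L.t u :=
      fun w hw a1 a2 a3 => humax w (Finset.mem_filter.2 ⟨(hS w).2 ⟨hw, a1, a2⟩, a3⟩)
    have hL : (a (L.en e false) + preN L Y e x + 1) *
        (b (L.en e false) + preN L Y' e x + β) = 0 := by
      have h3 := key u hu.1.2.1 hu.1.2.2 hu.1.1
      rcases hu.1.1 with hY | hY
      · have e2 := preN_out (L := L) (Y := Y') (hd u hY) hu.1.2.1 hu.1.2.2 hu.2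
          (fun w hw => hmax w (Or.inr hw))
        have h4 := h2 u hY ⟨hu.1.2.1, hu.1.2.2 ▸ he⟩
        unfold Sk.ext at h4
        rw [← preN_pre, hu.1.2.2] at h4
        rw [e2, h4, add_self, mul_zero]
      · have hYn : u ∉ Y := fun h => hd u h hY
        have e2 := preN_out (L := L) (Y := Y) hYn hu.1.2.1 hu.1.2.2 hu.2
          (fun w hw => hmax w (Or.inl hw))
        have h4 := h1 u hY ⟨hu.1.2.1, hu.1.2.2 ▸ he⟩
        unfold Sk.ext at h4
        rw [← preN_pre, hu.1.2.2] at h4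
        rw [e2, h4, add_self, zero_mul]
    -- the value at the first point
    obtain ⟨u0, hu0, hmin⟩ := Finset.exists_min_image S L.t ⟨u, (hS u).2 hu.1⟩
    rw [hS] at hu0
    have h5 := key u0 hu0.2.1 hu0.2.2 hu0.1
    have e3 : preN L Y e (L.t u0) = 0 := preN_low fun w hw a1 a2 a3 =>
      absurd (hmin w ((hS w).2 ⟨Or.inl hw, a1, a2⟩)) (not_le.2 a3)
    have e4 : preN L Y' e (L.t u0) = 0 := preN_low fun w hw a1 a2 a3 =>
      absurd (hmin w ((hS w).2 ⟨Or.inr hw, a1, a2⟩)) (not_le.2 a3)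
    rw [e3, e4, add_zero, add_zero] at h5
    rw [hL, h5]
  · rw [Finset.not_nonempty_iff_eq_empty] at hSx
    have hno : ∀ w, (w ∈ Y ∨ w ∈ Y') → w ∈ L.W1 → L.ed w = e → ¬ L.t w < x := by
      intro w hw a1 a2 a3
      have : w ∈ S.filter (fun u => L.t u < x) := Finset.mem_filter.2 ⟨(hS w).2 ⟨hw, a1, a2⟩, a3⟩
      rw [hSx] at this
      exact absurd this (Finset.notMem_empty _)
    rw [preN_low (fun w hw => hno w (Or.inl hw)), preN_low (fun w hw => hno w (Or.inr hw)),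
      add_zero, add_zero]

/-- **laminarity on the 1-skeleton** -/
theorem lam_skel (ha : L.XL Y a c) (hb : L.XL Y' b c) (hd : ∀ w ∈ Y, w ∉ Y')
    (h1 : ∀ w ∈ Y', w ∈ L.In c → L.ext Y a w = 1)
    (h2 : ∀ w ∈ Y, w ∈ L.In c → L.ext Y' b w = β) (ha0 : a (bv L c) = 0) (hb0 : b (bv L c) = 0)
    (hne : ∃ w ∈ Y', w ∈ L.In c) :
    β = 0 ∧ (∀ v ≤ c, dim v = 0 → b v = 1 → a v = 1) ∧
      ∀ w ∈ L.In c, L.ext Y' b w = 1 → L.ext Y a w = 1 := by
  classical
  have hconst : ∀ v ≤ c, dim v = 0 → (a v + 1) * (b v + β) = β := by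
    intro v hv h0
    have h3 := L.conn c (fun v => (a v + 1) * (b v + β)) (by
      intro e he h1'
      obtain ⟨x, hx⟩ := exists_big (Y ∪ Y') L.t
      have h4 := hh_edge (L := L) hd h1 h2 he x
      have e1 : preN L Y e x = nW Y (L.On1 e) := nW_congr fun w hw =>
        ⟨fun h => ⟨h.1, h.2.1⟩, fun h => ⟨h.1, h.2, hx w (Finset.mem_union_left _ hw)⟩⟩
      have e2 : preN L Y' e x = nW Y' (L.On1 e) := nW_congr fun w hw =>
        ⟨fun h => ⟨h.1, h.2.1⟩, fun h => ⟨h.1, h.2, hx w (Finset.mem_union_right _ hw)⟩⟩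
      rw [e1, e2, ← ha e he h1', ← hb e he h1'] at h4
      have k : ∀ p q : ZMod 2, p + (p + q) = q := by decide
      rw [k, k] at h4
      exact h4.symm) v (bv L c) hv (bv_le L c) h0 (bv_dim L c)
    have h4 : (a v + 1) * (b v + β) = (a (bv L c) + 1) * (b (bv L c) + β) := h3
    rw [h4, ha0, hb0]; ring
  have hpt : ∀ w ∈ L.In c, (L.ext Y a w + 1) * (L.ext Y' b w + β) = β := by
    intro w hw
    have h3 := hh_edge (L := L) hd h1 h2 hw.2 (L.t w)
    rw [hconst _ ((L.en_lt _ (L.ed_dim w hw.1) false).le.trans hw.2)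
      (L.en_dim _ (L.ed_dim w hw.1) false)] at h3
    exact h3
  have hβ : β = 0 := by
    obtain ⟨w, hw, hwc⟩ := hne
    rw [← hpt w hwc, h1 w hw hwc, add_self, zero_mul]
  refine ⟨hβ, ?_, ?_⟩
  · intro v hv h0 hbv
    have h3 := hconst v hv h0
    rw [hβ, hbv] at h3
    have k : ∀ p : ZMod 2, (p + 1) * (1 + 0) = 0 → p = 1 := by decide
    exact k _ h3
  · intro w hw hbw
    have h3 := hpt w hw
    rw [hβ, hbw] at h3
    have k : ∀ p : ZMod 2, (p + 1) * (1 + 0) = 0 → p = 1 := by decide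
    exact k _ h3

end lam

/-! ### the closed chord cycles -/

variable {ι Φ W Q J C I K : Type} {M : MeshC ι Φ W} [PartialOrder Q] {dim : Q → ℕ}
variable {L : LM M Q dim} {fam : J → C} {col : I → Bool}

/-- `r` is the restriction of `s` to some families -/
structure ResOf (s : GSt M fam) (r : St M col) : Prop where
  sub : ∀ w ∈ r.P, w ∈ s.P
  mu : ∀ F w, r.mu F w = s.mu F w
  cl : ∀ w ∈ r.P, ∀ w' ∈ s.P, fam (s.lab w') = fam (s.lab w) → w' ∈ r.P
  colr : ∀ w ∈ r.P, ∀ w' ∈ r.P, (col (r.lab w) = col (r.lab w') ↔ fam (s.lab w) = fam (s.lab w'))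

theorem resOf (s : GSt M fam) (Qd : Quads ι C K) (k : K) (i0 : Qd.Nm fam k) :
    ResOf s (s.res Qd k i0) where
  sub := fun _ hw => (GSt.mem_res.1 hw).1
  mu := fun _ _ => rfl
  cl := fun w hw w' hw' hf => by
    rw [GSt.mem_res] at hw ⊢
    exact ⟨hw', by rw [hf]; exact hw.2⟩
  colr := fun w hw w' hw' => by
    rw [GSt.mem_res] at hw hw'
    rw [GSt.res_lab hw.2, GSt.res_lab hw'.2]
    exact Qd.cl_eq_iff fam k ⟨_, hw.2⟩ ⟨_, hw'.2⟩

variable {s : GSt M fam} {r : St M col}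

variable {q : ι} {c : Q}

lemma ptc (R : ResOf s r) (hc : ∀ F, q ∈ M.side F ↔ L.cf F ≤ c) {F : Φ} {w : W} (hat : r.At F w)
    (hq : q ∈ M.side F) : w ∈ s.P ∧ w ∈ L.toSk.In c :=
  ⟨R.sub w hat.1, on_in ((hc F).1 hq) hat.2⟩

/-- the closed chord cycle of a sub-chord -/
noncomputable def cyc (R : ResOf s r) (hc : ∀ F, q ∈ M.side F ↔ L.cf F ≤ c) (p : Qq r q) : Pc L s c :=
  Quot.mk _ ⟨(chd p.1.2).2, ptc R hc (chd_at p.1.2) p.2⟩

lemma mk_congr {w w' : W} (h : w = w') (hw : w ∈ s.P ∧ w ∈ L.toSk.In c)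
    (hw' : w' ∈ s.P ∧ w' ∈ L.toSk.In c) :
    (Quot.mk _ ⟨w, hw⟩ : Pc L s c) = Quot.mk _ ⟨w', hw'⟩ := by
  subst h; rfl

variable (R : ResOf s r) (hc : ∀ F, q ∈ M.side F ↔ L.cf F ≤ c)

include R in
lemma mk_mu {F : Φ} (hF : L.cf F ≤ c) {w : W} (hat : r.At F w)
    (hw : w ∈ s.P ∧ w ∈ L.toSk.In c)
    (hw' : r.mu F w ∈ s.P ∧ r.mu F w ∈ L.toSk.In c) :
    (Quot.mk _ ⟨r.mu F w, hw'⟩ : Pc L s c) = Quot.mk _ ⟨w, hw⟩ :=
  (Quot.sound (r := Rel L s c) ⟨F, hF, hat.2, R.mu F w⟩).symm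

lemma cyc_pt (d : Dart r) (h : q ∈ M.side (fc d)) :
    cyc R hc (pD d h) = Quot.mk _ ⟨pt d, ptc R hc (pt_at d) h⟩ := by
  obtain ⟨x, p, b⟩ := d
  cases b
  · rfl
  · exact (mk_mu R ((hc _).1 h) (chd_at p) (ptc R hc (chd_at p) h)
      (ptc R hc (pt_at ⟨x, p, true⟩) h)).symm

lemma chd_dj (z : r.Dbl) (x j : Bool) : chd (dj z x j).p = (z.F, z.e x) := by
  unfold dj
  cases (!(xor j (lowIn z x)))
  · rfl
  · exact below_chd (bel_spec z x)

lemma cyc_dj {z : r.Dbl} (hz : q ∈ M.side z.F) (x j : Bool) :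
    cyc R hc (pcQ (Sum.inl (⟨z, hz⟩, x, j))) =
      Quot.mk _ ⟨z.e x, ptc R hc (z.at_ x) hz⟩ := by
  apply mk_congr
  show (chd (dj z x j).p).2 = z.e x
  rw [chd_dj]

lemma cyc_lp (w : Lq r q) (i : Bool) :
    cyc R hc (pcQ (Sum.inr (w, i))) = Quot.mk _ ⟨w.1, ptc R hc (fa_at w i) (fa_side w i).1⟩ := by
  refine (cyc_pt R hc (ed (fa_at w i)) (toD_side (Sum.inr (w, i)))).trans ?_
  apply mk_congr
  rw [pt_ed]

lemma cyc_nx (d : Drt (Zq r q) (Lq r q)) : cyc R hc (pcQ (Arr.nx d)) = cyc R hc (pcQ d) := by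
  rcases d with ⟨z, x, j⟩ | ⟨w, i⟩
  · show cyc R hc (pcQ (Sum.inl (z, x, !j))) = _
    exact (cyc_dj R hc z.2 x (!j)).trans (cyc_dj R hc z.2 x j).symm
  · show cyc R hc (pcQ (Sum.inr (w, !i))) = _
    exact (cyc_lp R hc w (!i)).trans (cyc_lp R hc w i).symm

/-! ### connectedness of the cycles -/

section conn

variable {X : Set (Qq r q)} (hX : ∀ d : Drt (Zq r q) (Lq r q), pcQ d ∈ X → pcQ (Arr.nx d) ∈ X)

include hX

lemma x_z {z : r.Dbl} (hz : q ∈ M.side z.F) (x : Bool)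
    (h1 : q ∈ M.side (chd (bel z x)).1) (h2 : q ∈ M.side (chd (abv z x)).1) :
    (⟨⟨x, bel z x⟩, h1⟩ : Qq r q) ∈ X ↔ (⟨⟨x, abv z x⟩, h2⟩ : Qq r q) ∈ X := by
  obtain ⟨j, e1, e2⟩ := bel_abv z x
  have f1 : (⟨⟨x, bel z x⟩, h1⟩ : Qq r q) = pcQ (Sum.inl (⟨z, hz⟩, x, j)) := by
    apply Subtype.ext
    show (⟨x, bel z x⟩ : Σ x : Bool, r.Sub x) = ⟨(dj z x j).x, (dj z x j).p⟩
    rw [← e1]; rfl
  have f2 : (⟨⟨x, abv z x⟩, h2⟩ : Qq r q) = pcQ (Sum.inl (⟨z, hz⟩, x, !j)) := by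
    apply Subtype.ext
    show (⟨x, abv z x⟩ : Σ x : Bool, r.Sub x) = ⟨(dj z x (!j)).x, (dj z x (!j)).p⟩
    rw [← e2]; rfl
  rw [f1, f2]
  constructor
  · intro h; exact hX _ h
  · intro h
    have := hX _ h
    have e3 : Arr.nx (Sum.inl (⟨z, hz⟩, x, !j) : Drt (Zq r q) (Lq r q)) =
        Sum.inl (⟨z, hz⟩, x, j) := by
      show (Sum.inl (⟨z, hz⟩, x, !!j) : Drt (Zq r q) (Lq r q)) = _
      rw [Bool.not_not]
    rwa [e3] at this

/-- the first piece of the chord of a piece -/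
noncomputable def fstp {x : Bool} (p : r.Sub x) : r.Sub x := Sum.inl ⟨chd p, chd_at p, chd_low p, chd_col p⟩

lemma x_fst {x : Bool} (p : r.Sub x) (hp : q ∈ M.side (chd p).1) :
    (⟨⟨x, p⟩, hp⟩ : Qq r q) ∈ X ↔ (⟨⟨x, fstp p⟩, hp⟩ : Qq r q) ∈ X := by
  by_contra hbad
  -- the lowest bad double point
  have hne : {z : r.Dbl | ∃ hz : q ∈ M.side (chd (Sum.inr z : r.Sub x)).1,
      ¬ ((⟨⟨x, Sum.inr z⟩, hz⟩ : Qq r q) ∈ X ↔
        (⟨⟨x, fstp (Sum.inr z)⟩, hz⟩ : Qq r q) ∈ X)}.Nonempty := by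
    cases p with
    | inl a => exact absurd Iff.rfl hbad
    | inr z => exact ⟨z, hp, hbad⟩
  obtain ⟨z, ⟨hz, hzb⟩, hmin⟩ := Set.exists_min_image _ (fun z : r.Dbl => z.key x)
    (Set.toFinite _) hne
  have hb := bel_spec z x
  have hbc := below_chd hb
  have hbs : q ∈ M.side (chd (bel z x)).1 := by
    rw [hbc]; exact hz
  have h1 := x_z hX (z := z) hz x hbs hz
  apply hzb
  refine (h1.symm : _ ↔ (⟨⟨x, bel z x⟩, hbs⟩ : Qq r q) ∈ X).trans ?_
  have hfst : ∀ p' : r.Sub x, ∀ (hp' : q ∈ M.side (chd p').1), chd p' = (z.F, z.e x) →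
      ((⟨⟨x, fstp p'⟩, hp'⟩ : Qq r q) ∈ X ↔ (⟨⟨x, fstp (Sum.inr z)⟩, hz⟩ : Qq r q) ∈ X) := by
    intro p' hp' he
    have : fstp p' = fstp (Sum.inr z : r.Sub x) := by
      unfold fstp
      congr 1
      exact Subtype.ext he
    have e1 : (⟨⟨x, fstp p'⟩, hp'⟩ : Qq r q) = ⟨⟨x, fstp (Sum.inr z)⟩, hz⟩ := by
      apply Subtype.ext
      show (⟨x, fstp p'⟩ : Σ x : Bool, r.Sub x) = ⟨x, fstp (Sum.inr z)⟩
      rw [this]
    rw [e1]
  obtain ⟨b0, hbe0⟩ : ∃ b0, bel z x = b0 := ⟨_, rfl⟩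
  rcases b0 with a | z'
  · -- the piece below is the first one
    have h2 := hfst (bel z x) hbs hbc
    have h4 : fstp (bel z x) = bel z x := by
      rw [hbe0]; rfl
    have e1 : (⟨⟨x, fstp (bel z x)⟩, hbs⟩ : Qq r q) = ⟨⟨x, bel z x⟩, hbs⟩ := by
      apply Subtype.ext
      show (⟨x, fstp (bel z x)⟩ : Σ x : Bool, r.Sub x) = ⟨x, bel z x⟩
      rw [h4]
    rw [e1] at h2
    exact h2
  · have h5 : z'.key x < z.key x := by
      have := (below_start hb).1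
      rw [hbe0] at this
      exact this
    have hc' : chd (Sum.inr z' : r.Sub x) = (z.F, z.e x) := by rw [← hbe0]; exact hbc
    have hz' : q ∈ M.side (chd (Sum.inr z' : r.Sub x)).1 := by rw [hc']; exact hz
    have h6 : (⟨⟨x, Sum.inr z'⟩, hz'⟩ : Qq r q) ∈ X ↔
        (⟨⟨x, fstp (Sum.inr z')⟩, hz'⟩ : Qq r q) ∈ X := by
      by_contra hcon
      exact absurd (hmin z' ⟨hz', hcon⟩) (not_le.2 h5)
    have h7 := hfst (Sum.inr z') hz' hc'
    have e1 : (⟨⟨x, bel z x⟩, hbs⟩ : Qq r q) = ⟨⟨x, Sum.inr z'⟩, hz'⟩ := by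
      apply Subtype.ext
      show (⟨x, bel z x⟩ : Σ x : Bool, r.Sub x) = ⟨x, Sum.inr z'⟩
      rw [hbe0]
    rw [e1]
    exact h6.trans h7

/-- pieces of one chord -/
lemma x_chord {p p' : Qq r q} (h : chd p.1.2 = chd p'.1.2) : p ∈ X ↔ p' ∈ X := by
  obtain ⟨⟨x, p⟩, hp⟩ := p
  obtain ⟨⟨x', p'⟩, hp'⟩ := p'
  have h' : chd p = chd p' := h
  have hx : x = x' := by
    rw [← chd_col p, ← chd_col p', h']
  subst hx
  rw [x_fst hX p hp, x_fst hX p' hp']
  have e1 : (⟨⟨x, fstp p⟩, hp⟩ : Qq r q) = ⟨⟨x, fstp p'⟩, hp'⟩ := by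
    apply Subtype.ext
    show (⟨x, fstp p⟩ : Σ x : Bool, r.Sub x) = ⟨x, fstp p'⟩
    have : fstp p = fstp p' := by
      unfold fstp
      congr 1
      exact Subtype.ext h'
    rw [this]
  rw [e1]

/-- `w` is an end point of the chord of the piece -/
def IsEnd (p : Qq r q) (w : W) : Prop :=
  (chd p.1.2).2 = w ∨ r.mu (chd p.1.2).1 (chd p.1.2).2 = w

omit hX in
lemma isEnd_at {p : Qq r q} {w : W} (h : IsEnd p w) : r.At (chd p.1.2).1 w := by
  rcases h with h | h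
  · rw [← h]; exact chd_at p.1.2
  · rw [← h]; exact At.mu r (chd_at p.1.2)

omit hX in
lemma lo_dart (d : Dart r) : r.lo (fc d) (pt d) = (chd d.p).2 := by
  obtain ⟨x, p, b⟩ := d
  cases b
  · exact lo_eq_of_lt (chd_low p)
  · exact lo_mu_of_lt (chd_at p) (chd_low p)

omit hX in
lemma isEnd_lo {p : Qq r q} {w : W} (h : IsEnd p w) :
    r.lo (chd p.1.2).1 w = (chd p.1.2).2 := by
  rcases h with h | h
  · rw [← h]; exact lo_eq_of_lt (chd_low p.1.2)
  · rw [← h]; exact lo_mu_of_lt (chd_at p.1.2) (chd_low p.1.2)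

/-- all pieces of the chords which end at `w` -/
lemma x_ends (w : Lq r q) {i : Bool} (h : pcQ (Sum.inr (w, i)) ∈ X) :
    ∀ p : Qq r q, IsEnd p w.1 → p ∈ X := by
  have hall : ∀ j, pcQ (Sum.inr (w, j)) ∈ X := by
    intro j
    rcases bool_or_not j i with rfl | rfl
    · exact h
    · exact hX _ h
  intro p hp
  obtain ⟨j, hj⟩ := exists_fa w p.2 (isEnd_at hp).2
  refine (x_chord hX (p' := pcQ (Sum.inr (w, j))) ?_).2 (hall j)
  show chd p.1.2 = chd (ed (fa_at w j)).p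
  have h1 : fc (ed (fa_at w j)) = fa w j := fc_ed _
  have h2 := lo_dart (ed (fa_at w j))
  rw [pt_ed, h1] at h2
  apply Prod.ext
  · rw [hj]; exact h1.symm
  · rw [← h2, ← hj]; exact (isEnd_lo hp).symm

omit hX in
lemma isEnd_pc (w : Lq r q) (i : Bool) : IsEnd (pcQ (Sum.inr (w, i))) w.1 := by
  have h : pt (ed (fa_at w i)) = w.1 := pt_ed _
  show (chd (ed (fa_at w i)).p).2 = w.1 ∨ r.mu (chd (ed (fa_at w i)).p).1
    (chd (ed (fa_at w i)).p).2 = w.1
  unfold pt at h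
  rcases hb : (ed (fa_at w i)).b
  · rw [hb] at h; exact Or.inl h
  · rw [hb] at h; exact Or.inr h

include R hc in
/-- **the closed chord cycles are connected** -/
theorem x_cyc {p p' : Qq r q} (h : cyc R hc p = cyc R hc p') (hp : p ∈ X) : p' ∈ X := by
  -- a predicate on points
  have hinv : ∀ a b : Pt L s c, Rel L s c a b →
      (a.1 ∈ r.P → ∀ p : Qq r q, IsEnd p a.1 → p ∈ X) =
      (b.1 ∈ r.P → ∀ p : Qq r q, IsEnd p b.1 → p ∈ X) := by
    have one : ∀ a b : Pt L s c, (∃ F : Φ, L.cf F ≤ c ∧ a.1 ∈ M.On F ∧ b.1 = s.mu F a.1) →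
        (a.1 ∈ r.P → ∀ p : Qq r q, IsEnd p a.1 → p ∈ X) →
        (b.1 ∈ r.P → ∀ p : Qq r q, IsEnd p b.1 → p ∈ X) := by
      rintro a b ⟨F, hF, haF, hb⟩ ha hbP
      have hqF : q ∈ M.side F := (hc F).2 hF
      have haP : a.1 ∈ r.P := by
        refine R.cl b.1 hbP a.1 a.2.1 ?_
        rw [hb, s.mu_lab a.2.1 haF]
      have hat : r.At F a.1 := ⟨haP, haF⟩
      let w : Lq r q := ⟨a.1, haP, F, hqF, hat.2⟩
      have hbm : r.mu F a.1 = b.1 := by rw [R.mu, hb]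
      have hatb : r.At F b.1 := by rw [← hbm]; exact At.mu r hat
      let w' : Lq r q := ⟨b.1, hbP, F, hqF, hatb.2⟩
      obtain ⟨i, hi⟩ := exists_fa w' hqF hatb.2
      refine x_ends hX w' (i := i) (ha haP _ ?_)
      -- the end piece at `b` on `F` is on the chord of `a`
      have hc1 : (chd (ed (fa_at w' i)).p).1 = F := by
        have : fc (ed (fa_at w' i)) = fa w' i := fc_ed _
        rw [hi]; exact this
      have hend := isEnd_pc w' i
      show (chd (ed (fa_at w' i)).p).2 = a.1 ∨ r.mu (chd (ed (fa_at w' i)).p).1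
        (chd (ed (fa_at w' i)).p).2 = a.1
      have hend' : (chd (ed (fa_at w' i)).p).2 = b.1 ∨ r.mu (chd (ed (fa_at w' i)).p).1
        (chd (ed (fa_at w' i)).p).2 = b.1 := hend
      rw [hc1] at hend' ⊢
      have hmb : r.mu F b.1 = a.1 := by rw [← hbm]; exact r.mu_mu hat.1 hat.2
      rcases hend' with h1 | h1
      · right; rw [h1]; exact hmb
      · left
        have hat2 : r.At F (chd (ed (fa_at w' i)).p).2 := by
          have := chd_at (ed (fa_at w' i)).p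
          rwa [hc1] at this
        rw [← r.mu_mu hat2.1 hat2.2, h1, hmb]
    intro a b hab
    apply propext
    constructor
    · exact one a b hab
    · refine one b a ?_
      obtain ⟨F, hF, haF, hb⟩ := hab
      have hm := s.mu_mem a.2.1 haF
      refine ⟨F, hF, by rw [hb]; exact hm.2, ?_⟩
      rw [hb, s.mu_mu a.2.1 haF]
  let g : Pc L s c → Prop := Quot.lift (fun a => a.1 ∈ r.P → ∀ p : Qq r q, IsEnd p a.1 → p ∈ X) hinv
  have hgp : g (cyc R hc p) := by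
    intro _
    have hat := chd_at p.1.2
    let w : Lq r q := ⟨(chd p.1.2).2, hat.1, _, p.2, hat.2⟩
    obtain ⟨i, hi⟩ := exists_fa w p.2 hat.2
    refine x_ends hX w (i := i) ?_
    refine (x_chord hX (p' := p) ?_).2 hp
    show chd (ed (fa_at w i)).p = chd p.1.2
    have h1 : fc (ed (fa_at w i)) = fa w i := fc_ed _
    have h2 := lo_dart (ed (fa_at w i))
    rw [pt_ed, h1] at h2
    have h3' : r.lo (chd p.1.2).1 (chd p.1.2).2 = (chd p.1.2).2 := lo_eq_of_lt (chd_low p.1.2)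
    have h4 : r.lo (fa w i) w.1 = (chd p.1.2).2 := by
      have : r.lo (fa w i) w.1 = r.lo (chd p.1.2).1 (chd p.1.2).2 := by
        exact congrArg (fun G => r.lo G (chd p.1.2).2) hi.symm
      rw [this, h3']
    apply Prod.ext
    · exact h1.trans hi.symm
    · exact h2.symm.trans h4
  have hgp' : g (cyc R hc p') := h ▸ hgp
  exact hgp' (chd_at p'.1.2).1 p' (Or.inl rfl)

end conn



end Crest.Agent.R096.Lm_117
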