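import Crest.Agent.R096.Lm11_117

/-!
# R096 (row 96), LMesh, part 12: the inside function of a closed chord cycle on the boundary of a
tile of a labelled mesh (helper117)
-/

set_option autoImplicit false
set_option linter.unusedSectionVars false

open Set

namespace Crest.Agent.R096.Lm_117

open Crest.Agent.R096.St_147 Crest.Agent.R096.Ac_117 Crest.Agent.R096.Seq_213
open Crest.Agent.R096.Wk_689

variable {ι Φ W Q J C I K : Type} {M : MeshC ι Φ W} [PartialOrder Q] {dim : Q → ℕ}
variable {L : LM M Q dim} {fam : J → C} {col : I → Bool}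
variable {s : GSt M fam} {r : St M col} {q : ι} {c : Q}

open Classical in
/-- the jump of a piece -/
noncomputable def jx (h : LF L s) (x : Pc L s c) (b : Bool) (p : r.Sub b) : ZMod 2 :=
  if (chd p).2 ∈ pts h c x then 1 else 0

lemma jx_evD (h : LF L s) (x : Pc L s c) (F : Φ) : EvD (jx (r := r) h x) F := by
  intro z _
  unfold jx
  have e1 : ∀ b, chd (bel z b) = (z.F, z.e b) := fun b => below_chd (bel_spec z b)
  have e2 : ∀ b, chd (abv z b) = (z.F, z.e b) := fun b => rfl
  rw [e1, e1, e2, e2, add_self, add_self, add_zero]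

/-- partners on the faces of the cell -/
lemma mem_mu (R : ResOf s r) {h : LF L s} {x : Pc L s c} {F : Φ} (hF : L.cf F ≤ c) {w : W}
    (hat : r.At F w) : r.mu F w ∈ pts h c x ↔ w ∈ pts h c x := by
  constructor
  · intro hw
    have h1 := mu_pts hw hF (At.mu r hat).2
    rw [← R.mu, r.mu_mu hat.1 hat.2] at h1
    exact h1
  · intro hw
    rw [R.mu]
    exact mu_pts hw hF hat.2

lemma mem_lo (R : ResOf s r) {h : LF L s} {x : Pc L s c} {F : Φ} (hF : L.cf F ≤ c) {w : W}
    (hat : r.At F w) : r.lo F w ∈ pts h c x ↔ w ∈ pts h c x := by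
  unfold St.lo
  split_ifs
  · rfl
  · exact mem_mu R hF hat

open Classical in
lemma jx_ed (R : ResOf s r) {h : LF L s} {x : Pc L s c} {F : Φ} (hF : L.cf F ≤ c) {w : W}
    (hat : r.At F w) : jx h x (ed hat).x (ed hat).p = if w ∈ pts h c x then 1 else 0 := by
  have h1 := lo_dart (ed hat)
  rw [pt_ed, fc_ed] at h1
  unfold jx
  rw [← h1]
  by_cases hw : w ∈ pts h c x
  · rw [if_pos hw, if_pos ((mem_lo R hF hat).2 hw)]
  · rw [if_neg hw, if_neg (fun h' => hw ((mem_lo R hF hat).1 h'))]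

open Classical in
lemma gF_lamF (R : ResOf s r) {h : LF L s} {x : Pc L s c} (hx : ∀ w ∈ pts h c x, w ∈ r.P) {F : Φ}
    (hF : L.cf F ≤ c) (w : W) :
    gF (jx (r := r) h x) F (M.pos F w) = cntP M (pts h c x) F (M.pos F w) := by
  rw [gF_eq (jx_evD h x F)]
  unfold cntP
  have h1 : ∀ v ∈ r.P.filter (fun v => v ∈ M.On F ∧
      M.pos F v < M.pos F w),
      ue (jx (r := r) h x) F v = if v ∈ pts h c x then 1 else 0 := by
    intro v hv
    obtain ⟨a1, a2, -⟩ := Finset.mem_filter.1 hv
    have hat : r.At F v := ⟨a1, a2⟩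
    rw [ue_ed hat]
    exact jx_ed R hF hat
  rw [Finset.sum_congr rfl h1, ← Finset.sum_filter, Finset.sum_const, nsmul_eq_mul, mul_one]
  congr 2
  ext v
  simp only [Finset.mem_filter]
  constructor
  · rintro ⟨⟨a1, a2, a3⟩, a4⟩
    exact ⟨a4, a2, a3⟩
  · rintro ⟨a1, a2, a3⟩
    exact ⟨⟨hx v a1, a2, a3⟩, a1⟩

/-- **the side of a piece of the closed chord cycle `x`** -/
noncomputable def inS (h : LF L s) (x : Pc L s c) (p : Qq r q) (i : Bool) : ZMod 2 :=
  kap h x (chd p.1.2).1 + sd (jx h x) p.1.2 i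

open Classical in
lemma inS_end (R : ResOf s r) (hc : ∀ F, q ∈ M.side F ↔ L.cf F ≤ c) {h : LF L s} {x : Pc L s c}
    (hx : ∀ w ∈ pts h c x, w ∈ r.P) (w : Lq r q) (b i : Bool) :
    inS h x (pcQ (Sum.inr (w, b))) i = kap h x (fa w b) + cntP M (pts h c x) (fa w b) (M.pos (fa w b) w.1) +
      (if xor i (upb w b) = true then (if w.1 ∈ pts h c x then 1 else 0) else 0) := by
  have hF := (hc _).1 (fa_side w b).1
  have hat := fa_at w b
  have hend := Wk_689.end_ed hat
  obtain ⟨-, -, h3'⟩ := face_side (jx (r := r) h x) (fa w b) (jx_evD h x _)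
  obtain ⟨g1, g2⟩ := h3' _ _ _ hend
  have hfc : (chd (ed hat).p).1 = fa w b := fc_ed _
  have e0 : inS h x (pcQ (Sum.inr (w, b))) i = kap h x (fa w b) + sd (jx h x) (ed hat).p i := by
    show kap h x (chd (ed hat).p).1 + sd (jx h x) (ed hat).p i = _
    rw [hfc]
  rw [gF_lamF R hx hF, jx_ed R hF hat] at g1 g2
  rw [e0, add_assoc]
  congr 1
  unfold upb
  by_cases hlt : M.pos (fa w b) (r.mu (fa w b) w.1) < M.pos (fa w b) w.1
  · rw [decide_eq_true hlt]
    obtain ⟨k1, k2⟩ := g2 hlt
    cases i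
    · simp only [Bool.xor_true, Bool.not_false, if_true]; exact k2
    · simp only [Bool.xor_true, Bool.not_true, Bool.false_eq_true, if_false, add_zero]; exact k1
  · rw [decide_eq_false hlt]
    have hne : M.pos (fa w b) w.1 ≠ M.pos (fa w b) (r.mu (fa w b) w.1) :=
      pos_ne r hat (At.mu r hat) (fun h' => r.mu_ne hat.1 hat.2 h'.symm)
    obtain ⟨k1, k2⟩ := g1 (lt_of_le_of_ne (not_lt.1 hlt) hne)
    cases i
    · simp only [Bool.xor_false, Bool.false_eq_true, if_false, add_zero]; exact k1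
    · simp only [Bool.xor_false, if_true]; exact k2

/-- off the points of `x` the value is the label -/
lemma inS_end' (R : ResOf s r) (hc : ∀ F, q ∈ M.side F ↔ L.cf F ≤ c) {h : LF L s} {x : Pc L s c}
    (hx : ∀ w ∈ pts h c x, w ∈ r.P) (w : Lq r q) (b i : Bool) (hw : w.1 ∉ pts h c x) :
    inS h x (pcQ (Sum.inr (w, b))) i = nlw h c x w.1 := by
  classical
  have hF := (hc _).1 (fa_side w b).1
  have h2 := (fa_side w b).2
  rw [inS_end R hc hx w b i, if_neg hw, ite_self, add_zero,
    kap_eq hF h2 hw]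


lemma even_On {h : LF L s} {x : Pc L s c} {F : Φ} (hF : L.cf F ≤ c) :
    (open Classical in Even ((pts h c x).filter (fun v => v ∈ M.On F)).card) := by
  classical
  have h1 := even_pts (h := h) (x := x) hF
  unfold nW at h1
  rw [← ZMod.natCast_eq_zero_iff_even, ← h1, Finset.card_filter, Nat.cast_sum]
  apply Finset.sum_congr rfl
  intro v _
  by_cases hvF : v ∈ M.On F
  · rw [if_pos hvF, if_pos hvF]; rfl
  · rw [if_neg hvF, if_neg hvF]; rfl

open Classical in
/-- **the two faces at a point** -/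
lemma kap_opp (S : SphM M q) (hc : ∀ F, q ∈ M.side F ↔ L.cf F ≤ c) (h : LF L s) (x : Pc L s c)
    {F F' : Φ} (hF : q ∈ M.side F) (hF' : q ∈ M.side F') (hne : F ≠ F')
    {w : W} (hw : w ∈ M.On F) (hw' : w ∈ M.On F') :
    kap h x F + cntP M (pts h c x) F (M.pos F w) = kap h x F' + cntP M (pts h c x) F' (M.pos F' w) +
      (if w ∈ pts h c x ∧ S.opp w = true then 1 else 0) := by
  have hFc := (hc _).1 hF
  have hFc' := (hc _).1 hF'
  by_cases hwx : w ∈ pts h c x
  · obtain ⟨κ, hκ⟩ := S.sph (pts h c x) (fun G hG => even_On ((hc _).1 hG))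
    have hwW := (L.on_iff F w).1 hw
    obtain ⟨v, ⟨hv1, hve⟩, hvx⟩ := (L.inf w hwW.1).exists_notMem_finset (pts h c x)
    have hvF : v ∈ M.On F := (L.on_iff F v).2 ⟨hv1, by rw [hve]; exact hwW.2⟩
    have hvF' : v ∈ M.On F' := (L.on_iff F' v).2 ⟨hv1, by rw [hve]; exact ((L.on_iff F' w).1 hw').2⟩
    have a1 := hκ F F' v hF hF' hne hvF hvF'
    have a2 := hκ F F' w hF hF' hne hw hw'
    rw [if_neg (fun h' => hvx h'.1), add_zero] at a1
    have b1 := kap_eq (h := h) (x := x) hFc hvF hvx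
    have b2 := kap_eq (h := h) (x := x) hFc' hvF' hvx
    rw [b1] at b2
    generalize kap h x F = k1 at b2 ⊢
    generalize kap h x F' = k2 at b2 ⊢
    generalize cntP M (pts h c x) F (M.pos F v) = l1 at a1 b2
    generalize cntP M (pts h c x) F' (M.pos F' v) = l2 at a1 b2
    generalize cntP M (pts h c x) F (M.pos F w) = m1 at a2 ⊢
    generalize cntP M (pts h c x) F' (M.pos F' w) = m2 at a2 ⊢
    generalize (if w ∈ pts h c x ∧ S.opp w = true then (1 : ZMod 2) else 0) = o at a2 ⊢
    generalize κ F = n1 at a1 a2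
    generalize κ F' = n2 at a1 a2
    clear hκ
    have e : ∀ k1 k2 l1 l2 m1 m2 o n1 n2 : ZMod 2, k1 + l1 = k2 + l2 → n1 + l1 = n2 + l2 →
        n1 + m1 = n2 + m2 + o → k1 + m1 = k2 + m2 + o := by
      intro k1 k2 l1 l2 m1 m2 o n1 n2 h1 h2 h3
      have h4 : k1 + m1 = (k1 + l1) - (n1 + l1) + (n1 + m1) := by ring
      rw [h4, h1, h2, h3]; ring
    exact e _ _ _ _ _ _ _ _ _ b2 a1 a2
  · rw [if_neg (fun h' => hwx h'.1), add_zero,
      ← kap_eq hFc hw hwx, ← kap_eq hFc' hw' hwx]

/-- **the inside function is a colouring** -/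
theorem inS_colr (S : SphM M q) (R : ResOf s r) (hc : ∀ F, q ∈ M.side F ↔ L.cf F ≤ c)
    {h : LF L s} {x : Pc L s c} (hx : ∀ w ∈ pts h c x, w ∈ r.P) :
    (arr S r).Colr (fun p => jx h x p.1.1 p.1.2) (inS h x) where
  jump := by
    intro p
    have h1 := sd_add (u := jx (r := r) h x) p.1.2 (jx_evD h x _)
    show kap h x (chd p.1.2).1 + sd (jx h x) p.1.2 false +
      (kap h x (chd p.1.2).1 + sd (jx h x) p.1.2 true) = jx h x p.1.1 p.1.2
    rw [← h1]
    generalize kap h x (chd p.1.2).1 = k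
    generalize sd (jx (r := r) h x) p.1.2 false = a
    generalize sd (jx (r := r) h x) p.1.2 true = b
    revert k a b; decide
  quad := by
    intro z i j
    obtain ⟨-, h2, -⟩ := face_side (jx (r := r) h x) z.1.F (jx_evD h x _)
    have h3' := h2 z.1 rfl i j
    have e1 : ∀ c j, (chd (dj z.1 c j).p).1 = z.1.F := fun c j => dj_fc z.1 c j
    let t : (x : Bool) → r.Sub x → Bool → ZMod 2 := fun b p i => sd (jx (r := r) h x) p i
    have h4 : t (dj z.1 true j).x (dj z.1 true j).p i = t (dj z.1 false i).x (dj z.1 false i).p j := by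
      rw [dj_qd z.1 true j, dj_qd z.1 false i]
      exact h3'
    show kap h x (chd (dj z.1 true j).p).1 + t (dj z.1 true j).x (dj z.1 true j).p i =
      kap h x (chd (dj z.1 false i).p).1 + t (dj z.1 false i).x (dj z.1 false i).p j
    rw [e1, e1, h4]
  lk := by
    classical
    intro w i
    show inS h x (pcQ (Sum.inr (w, false))) i =
      inS h x (pcQ (Sum.inr (w, true))) (xor i (xor (S.opp w.1) (xor (upb w false) (upb w true))))
    rw [inS_end R hc hx, inS_end R hc hx]
    have h1 := kap_opp S hc h x (fa_side w false).1 (fa_side w true).1 (fa_ne w)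
      (fa_side w false).2 (fa_side w true).2
    rw [h1]
    by_cases hw : w.1 ∈ pts h c x
    · generalize kap h x (fa w true) + cntP M (pts h c x) (fa w true) (M.pos (fa w true) w.1) = a
      cases i <;> cases S.opp w.1 <;> cases upb w false <;> cases upb w true <;>
        simp [hw] <;> (revert a; decide)
    · rw [if_neg (fun h' => hw h'.1), if_neg hw, ite_self, ite_self, add_zero, add_zero]



end Crest.Agent.R096.Lm_117
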