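import Crest.Agent.R096.Lm12_117
import Crest.Agent.R096.Ac10_117

/-!
# R096 (row 96), LMesh, part 13: `Dep` of a two-family restriction of a global state on the boundary
of a tile of a labelled mesh; the arc pairing (helper117)
-/

set_option autoImplicit false
set_option linter.unusedSectionVars false

open Set

namespace Crest.Agent.R096.Lm_117

open Crest.Agent.R096.St_147 Crest.Agent.R096.Ac_117 Crest.Agent.R096.Seq_213
open Crest.Agent.R096.Wk_689

variable {ι Φ W Q J C I K : Type} {M : MeshC ι Φ W} [PartialOrder Q] {dim : Q → ℕ}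
variable {L : LM M Q dim} {fam : J → C} {col : I → Bool}
variable {s : GSt M fam} {r : St M col} {q : ι} {c : Q}

lemma mem_pts_cyc (R : ResOf s r) (hc : ∀ F, q ∈ M.side F ↔ L.cf F ≤ c) (h : LF L s) (p : Qq r q)
    (x : Pc L s c) : (chd p.1.2).2 ∈ pts h c x ↔ cyc R hc p = x := by
  rw [mem_pts]
  constructor
  · rintro ⟨h', e⟩
    exact e
  · intro e
    exact ⟨ptc R hc (chd_at p.1.2) p.2, e⟩

lemma pts_P (R : ResOf s r) {h : LF L s} {x : Pc L s c} {v : W} (hv : v ∈ pts h c x) (hvr : v ∈ r.P) :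
    ∀ w ∈ pts h c x, w ∈ r.P := by
  intro w hw
  refine R.cl v hvr w (pts_in hw).1 ?_
  rw [← pcol_pts hw, ← pcol_pts hv]

lemma pts_P' (R : ResOf s r) (hc : ∀ F, q ∈ M.side F ↔ L.cf F ≤ c) (h : LF L s) (p : Qq r q) :
    ∀ w ∈ pts h c (cyc R hc p), w ∈ r.P :=
  pts_P R ((mem_pts_cyc R hc h p _).2 rfl) (chd_at p.1.2).1

/-- **the closed cycles of the restriction on the boundary of the tile** -/
noncomputable def cycs (S : SphM M q) (R : ResOf s r)
    (hc : ∀ F, q ∈ M.side F ↔ L.cf F ≤ c) (h : LF L s) : Cyc (arr S r) (Pc L s c) where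
  cy := cyc R hc
  t := inS h
  cy_nx d := by
    rw [arr_pce, arr_pce]; exact cyc_nx R hc d
  conn X hX p p' h' hp := by
    refine x_cyc R hc (X := X) (fun d hd => ?_) h' hp
    have := hX d (by rw [arr_pce]; exact hd)
    rw [arr_pce] at this
    exact this
  off p p' hne := by
    have h1 := (inS_colr S R hc (h := h) (x := cyc R hc p) (pts_P' R hc h p)).jump p'
    rw [h1]
    exact if_neg (fun h' => hne ((mem_pts_cyc R hc h p' _).1 h'))
  on p p' he := by
    have h1 := (inS_colr S R hc (h := h) (x := cyc R hc p) (pts_P' R hc h p)).jump p'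
    rw [h1]
    exact if_pos ((mem_pts_cyc R hc h p' _).2 he)
  quad p := (inS_colr S R hc (h := h) (x := cyc R hc p) (pts_P' R hc h p)).quad
  lk p := (inS_colr S R hc (h := h) (x := cyc R hc p) (pts_P' R hc h p)).lk

/-- an end piece of the cycle of a piece -/
lemma exists_end (R : ResOf s r) (hc : ∀ F, q ∈ M.side F ↔ L.cf F ≤ c) (p : Qq r q) :
    ∃ (w : Lq r q) (i : Bool), w.1 = (chd p.1.2).2 ∧ cyc R hc (pcQ (Sum.inr (w, i))) = cyc R hc p := by
  have hat := chd_at p.1.2
  let w : Lq r q := ⟨(chd p.1.2).2, hat.1, _, p.2, hat.2⟩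
  refine ⟨w, false, rfl, ?_⟩
  rw [cyc_lp]
  exact mk_congr rfl _ _

lemma fam_cyc (R : ResOf s r) (hc : ∀ F, q ∈ M.side F ↔ L.cf F ≤ c) {p p' : Qq r q}
    (hcol : p.1.1 = p'.1.1) : fam (pcol L s c (cyc R hc p)) = fam (pcol L s c (cyc R hc p')) := by
  have h1 := chd_col p.1.2
  have h2 := chd_col p'.1.2
  exact (R.colr _ (chd_at p.1.2).1 _ (chd_at p'.1.2).1).1 (by rw [h1, h2, hcol])

/-- the order of the depths: outer closed cycles are deeper -/
def Ord (h : LF L s) (c : Q) (rk : Pc L s c → ℕ) : Prop :=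
  ∀ x x' : Pc L s c, x ≠ x' → fam (pcol L s c x) = fam (pcol L s c x') → nlw h c x (rep h x') = 1 →
    rk x < rk x'

theorem lam_dep (S : SphM M q) (R : ResOf s r) (hc : ∀ F, q ∈ M.side F ↔ L.cf F ≤ c)
    (h : LF L s) {rk : Pc L s c → ℕ} (hord : Ord h c rk) (p p' : Qq r q)
    (hcol : (arr S r).col p = (arr S r).col p') (hne : cyc R hc p ≠ cyc R hc p')
    (h1 : inS h (cyc R hc p) p' true = 1) :
    rk (cyc R hc p) < rk (cyc R hc p') ∧ inS h (cyc R hc p') p true = 0 ∧
      ∀ p'', cyc R hc p'' ≠ cyc R hc p → cyc R hc p'' ≠ cyc R hc p' →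
        ∃ e, cyc R hc e = cyc R hc p'' ∧
          (inS h (cyc R hc p') e true = 1 → inS h (cyc R hc p) e true = 1) := by
  have hfam := fam_cyc R hc hcol
  set x := cyc R hc p with hx
  set x' := cyc R hc p' with hx'
  have hxP : ∀ w ∈ pts h c x, w ∈ r.P := pts_P' R hc h p
  have hxP' : ∀ w ∈ pts h c x', w ∈ r.P := pts_P' R hc h p'
  let V := cycs S R hc h
  -- labels of `x` on `x'`
  have k1 : nlw h c x (rep h x') = 1 := by
    obtain ⟨w, i, hw, he⟩ := exists_end R hc p'
    have hwx' : w.1 ∈ pts h c x' := by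
      rw [hw]; exact (mem_pts_cyc R hc h p' _).2 rfl
    have hwx : w.1 ∉ pts h c x := fun h' => hne (pts_disj h' hwx')
    have e1 : inS h x (pcQ (Sum.inr (w, i))) true = inS h x p' true :=
      V.const (p := p) (p' := p') (r := pcQ (Sum.inr (w, i))) hcol.symm (Ne.symm hne) he true true
    rw [inS_end' R hc hxP w i true hwx, h1] at e1
    rw [← e1]
    exact side_const (Ne.symm hne) hfam.symm (rep_mem h x') hwx'
  have k2 := lam_skel (c := c) (Y := pts h c x) (Y' := pts h c x') (a := nl h c x)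
    (b := nl h c x') (β := nlw h c x' (rep h x)) (nl_xl h c x) (nl_xl h c x')
    (fun w hw hw' => hne (pts_disj hw hw'))
    (fun w hw _ => (side_const (Ne.symm hne) hfam.symm hw (rep_mem h x')).trans k1)
    (fun w hw _ => side_const hne hfam hw (rep_mem h x)) (nl_bv h c x) (nl_bv h c x')
    ⟨rep h x', rep_mem h x', (pts_in (rep_mem h x')).2⟩
  obtain ⟨k2, -, k3⟩ := k2
  refine ⟨hord x x' hne hfam k1, ?_, ?_⟩
  · obtain ⟨w, i, hw, he⟩ := exists_end R hc p
    have hwx : w.1 ∈ pts h c x := by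
      rw [hw]; exact (mem_pts_cyc R hc h p _).2 rfl
    have hwx' : w.1 ∉ pts h c x' := fun h' => hne (pts_disj hwx h')
    have e1 : inS h x' (pcQ (Sum.inr (w, i))) true = inS h x' p true :=
      V.const (p := p') (p' := p) (r := pcQ (Sum.inr (w, i))) hcol hne he true true
    rw [← e1, inS_end' R hc hxP' w i true hwx', side_const hne hfam hwx (rep_mem h x)]
    exact k2
  · intro p'' g1 g2
    obtain ⟨w, i, hw, he⟩ := exists_end R hc p''
    have hwx : w.1 ∉ pts h c x := fun h' => g1 ((mem_pts_cyc R hc h p'' _).1 (by rw [← hw]; exact h'))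
    have hwx' : w.1 ∉ pts h c x' :=
      fun h' => g2 ((mem_pts_cyc R hc h p'' _).1 (by rw [← hw]; exact h'))
    refine ⟨pcQ (Sum.inr (w, i)), he, ?_⟩
    rw [inS_end' R hc hxP w i true hwx, inS_end' R hc hxP' w i true hwx']
    have hwc : w.1 ∈ L.toSk.In c := by
      obtain ⟨F, hF, hwF⟩ := w.2.2
      exact on_in ((hc F).1 hF) hwF
    exact k3 w.1 hwc

/-- **`Dep` from the labels and any ranks** -/
noncomputable def depC (S : SphM M q) (R : ResOf s r) (hc : ∀ F, q ∈ M.side F ↔ L.cf F ≤ c)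
    (h : LF L s) (rk : Pc L s c → ℕ) (hinj : Function.Injective rk) (hord : Ord h c rk) :
    Dep (arr S r) :=
  (cycs S R hc h).dep rk (fun _ _ h' => hinj h') (fun p p' => lam_dep S R hc h hord p p')


/-- **(ARCS) for a two-family restriction: the pairing of the double points on the boundaries of
the active tiles.**  `rk q` = any injective ranks of the closed chord cycles of the tile (small =
deep) such that outer cycles of one family are deeper. -/
theorem exists_arcs (R : ResOf s r) (h : LF L s) (Act : Set ι)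
    (tc : ι → Q)
    (htc : ∀ q ∈ Act, ∀ F, q ∈ M.side F ↔ L.cf F ≤ tc q) (S : ∀ q ∈ Act, SphM M q) (rk : ∀ q, Pc L s (tc q) → ℕ)
    (hinj : ∀ q ∈ Act, Function.Injective (rk q)) (hord : ∀ q ∈ Act, Ord h (tc q) (rk q)) :
    ∃ A : r.Arcs Act, ∀ (q : ι) (hq : q ∈ Act) (z : r.Dbl) (hz : q ∈ M.side z.F),
      A.arc q z = ((depC (S q hq) R (htc q hq) h (rk q) (hinj q hq) (hord q hq)).arc ⟨z, hz⟩).1 :=
  arcs_of_dep Act (faceSide r) S
    (fun q hq => depC (S q hq) R (htc q hq) h (rk q) (hinj q hq) (hord q hq))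

/-- the same for the quads of 213 -/
theorem exists_arcs_quad (s : GSt M fam) (h : LF L s) (Qd : Quads ι C K) (k : K)
    (i0 : Qd.Nm fam k) (tc : ι → Q)
    (htc : ∀ q ∈ Qd.Act k, ∀ F, q ∈ M.side F ↔ L.cf F ≤ tc q) (S : ∀ q ∈ Qd.Act k, SphM M q) (rk : ∀ q, Pc L s (tc q) → ℕ)
    (hinj : ∀ q ∈ Qd.Act k, Function.Injective (rk q))
    (hord : ∀ q ∈ Qd.Act k, Ord h (tc q) (rk q)) :
    ∃ A : (s.res Qd k i0).Arcs (Qd.Act k),
      ∀ (q : ι) (hq : q ∈ Qd.Act k) (z : (s.res Qd k i0).Dbl) (hz : q ∈ M.side z.F),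
      A.arc q z = ((depC (S q hq) (resOf s Qd k i0) (htc q hq) h (rk q) (hinj q hq)
        (hord q hq)).arc ⟨z, hz⟩).1 :=
  exists_arcs (resOf s Qd k i0) h (Qd.Act k) tc htc S rk hinj hord



end Crest.Agent.R096.Lm_117
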