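import Crest.Agent.R096.Lm13_117
import Crest.Agent.R096.Gr3_117

/-!
# R096 (row 96), LMesh, part 14: the chords of a face of a labelled mesh as pieces, counting formulas
(helper117)
-/

set_option autoImplicit false
set_option linter.unusedSectionVars false

open Set

namespace Crest.Agent.R096.Lm_117

open Crest.Agent.R096.St_147 Crest.Agent.R096.Ac_117 Crest.Agent.R096.Seq_213
open Crest.Agent.R096.Wk_689 Crest.Agent.R096.Fx_689 Crest.Agent.R096.Gr_117
open Crest.Agent.R096.Bd_416 (sg sg_add sg_sum sg_or sg_sq)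

variable {ι Φ W Q J C I : Type} {M : MeshC ι Φ W} [PartialOrder Q] {dim : Q → ℕ}
variable {L : LM M Q dim} {fam : J → C} {col : I → Bool}
variable {s : GSt M fam} {r : St M col} {q : ι} {c : Q}

/-- the piece of a chord in its face -/
noncomputable def chP (R : ResOf s r) {F : Φ} (a : Ch r F) : Pc L s (L.cf F) :=
  Quot.mk _ ⟨a.1, R.sub _ a.2.1.1, on_in le_rfl a.2.1.2⟩

variable (R : ResOf s r)

lemma mem_pts_ch {h : LF L s} {F : Φ} (a : Ch r F) {w : W} :
    w ∈ pts h (L.cf F) (chP R a) ↔ w = a.1 ∨ w = r.mu F a.1 := by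
  have ha : a.1 ∈ pts h (L.cf F) (chP R a) :=
    mem_pts.2 ⟨⟨R.sub _ a.2.1.1, on_in le_rfl a.2.1.2⟩, rfl⟩
  constructor
  · intro hw
    obtain ⟨h', e⟩ := mem_pts.1 hw
    let g : Pc L s (L.cf F) → Set W := Quot.lift (fun v => {v.1, s.mu F v.1}) (by
      rintro v v' ⟨F', hF', hv, hv'⟩
      have hFF : F' = F := L.cf_inj _ _ (eq_of_dim L.toSk hF' (by rw [L.cf_dim, L.cf_dim]))
      subst hFF
      show ({v.1, s.mu F' v.1} : Set W) = {v'.1, s.mu F' v'.1}
      rw [hv', s.mu_mu v.2.1 hv, Set.pair_comm])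
    have h1 : ({w, s.mu F w} : Set W) = {a.1, s.mu F a.1} := congrArg g e
    have h2 : w ∈ ({a.1, s.mu F a.1} : Set W) := h1 ▸ Set.mem_insert _ _
    rw [R.mu]
    exact h2
  · rintro (rfl | rfl)
    · exact ha
    · rw [R.mu]
      exact mu_pts ha le_rfl a.2.1.2

lemma chP_inj {F : Φ} {a b : Ch r F} (h : LF L s)
    (hab : (chP R a : Pc L s (L.cf F)) = chP R b) : a = b := by
  have h1 : a.1 ∈ pts h (L.cf F) (chP R b) := by
    rw [← hab]; exact (mem_pts_ch R a).2 (Or.inl rfl)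
  rcases (mem_pts_ch R b).1 h1 with h2 | h2
  · exact Subtype.ext h2
  · exfalso
    have h4 := a.2.2
    rw [h2, r.mu_mu b.2.1.1 b.2.1.2] at h4
    exact lt_asymm h4 b.2.2

lemma pup_ch {h : LF L s} {x : Pc L s c} {F : Φ} (hF : L.cf F ≤ c) (a : Ch r F) :
    pup L s hF (chP R a) = x ↔ a.1 ∈ pts h c x := by
  rw [mem_pts]
  constructor
  · intro e
    exact ⟨⟨R.sub _ a.2.1.1, on_in hF a.2.1.2⟩, e⟩
  · rintro ⟨h', e⟩
    exact e

open Classical in
/-- the chords of the piece `x` on the face -/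
noncomputable def chs (h : LF L s) (x : Pc L s c) (r : St M col) (F : Φ) :
    Finset (Ch r F) := Finset.univ.filter (fun a => a.1 ∈ pts h c x)

lemma mem_chs {h : LF L s} {x : Pc L s c} {F : Φ} {a : Ch r F} :
    a ∈ chs h x r F ↔ a.1 ∈ pts h c x := by
  classical
  unfold chs
  rw [Finset.mem_filter]
  exact ⟨fun h => h.2, fun h => ⟨Finset.mem_univ _, h⟩⟩

open Classical in
lemma img_chs {h : LF L s} {x : Pc L s c} (hx : ∀ w ∈ pts h c x, w ∈ r.P) {F : Φ} (hF : L.cf F ≤ c)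
    (Y : Finset (Pc L s (L.cf F))) (hY : ∀ y, y ∈ Y ↔ pup L s hF y = x) :
    Y = (chs h x r F).image (chP R) := by
  ext y
  rw [hY, Finset.mem_image]
  constructor
  · intro hy
    obtain ⟨w, rfl⟩ := Quot.exists_rep y
    have hwx : w.1 ∈ pts h c x := mem_pts.2 ⟨⟨w.2.1, Sk.In_mono hF w.2.2⟩, hy⟩
    have hat : r.At F w.1 := ⟨hx _ hwx, on_of_in w.2.2⟩
    by_cases hlt : M.pos F w.1 < M.pos F (r.mu F w.1)
    · refine ⟨⟨w.1, hat, hlt⟩, mem_chs.2 hwx, rfl⟩
    · have hne : M.pos F w.1 ≠ M.pos F (r.mu F w.1) :=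
        pos_ne r hat (At.mu r hat) (fun h' => r.mu_ne hat.1 hat.2 h'.symm)
      have hlt' : M.pos F (r.mu F w.1) <
          M.pos F (r.mu F (r.mu F w.1)) := by
        rw [r.mu_mu hat.1 hat.2]
        exact lt_of_le_of_ne (not_lt.1 hlt) (Ne.symm hne)
      let a : Ch r F := ⟨r.mu F w.1, At.mu r hat, hlt'⟩
      refine ⟨a, mem_chs.2 ?_, ?_⟩
      · exact (mem_mu R hF hat).2 hwx
      · have h1 : w.1 ∈ pts h (L.cf F) (chP R a) := by
          rw [mem_pts_ch R a]
          right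
          show w.1 = r.mu F (r.mu F w.1)
          rw [r.mu_mu hat.1 hat.2]
        obtain ⟨h', e⟩ := mem_pts.1 h1
        exact e.symm
  · rintro ⟨a, ha, rfl⟩
    exact (pup_ch R hF a).2 (mem_chs.1 ha)

lemma prod_chs {h : LF L s} {x : Pc L s c} (hx : ∀ w ∈ pts h c x, w ∈ r.P) {F : Φ} (hF : L.cf F ≤ c)
    (Y : Finset (Pc L s (L.cf F))) (hY : ∀ y, y ∈ Y ↔ pup L s hF y = x) (f : Pc L s (L.cf F) → ℝ) :
    ∏ y ∈ Y, f y = ∏ a ∈ chs h x r F, f (chP R a) := by
  classical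
  rw [img_chs R hx hF Y hY, Finset.prod_image]
  intro a _ b _ hab
  exact chP_inj R h hab

lemma cnt_chs {h : LF L s} {x : Pc L s c} (hx : ∀ w ∈ pts h c x, w ∈ r.P) {F : Φ}
    (hF : L.cf F ≤ c) (t : ℝ) : cntP M (pts h c x) F t =
      ∑ a ∈ chs h x r F, cntP M (pts h (L.cf F) (chP R a)) F t := by
  classical
  have := h.pc (L.cf F)
  let _ : Fintype (Pc L s (L.cf F)) := Fintype.ofFinite _
  let Y : Finset (Pc L s (L.cf F)) := Finset.univ.filter (fun y => pup L s hF y = x)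
  have hY : ∀ y, y ∈ Y ↔ pup L s hF y = x := fun y =>
    ⟨fun h => (Finset.mem_filter.1 h).2, fun h => Finset.mem_filter.2 ⟨Finset.mem_univ _, h⟩⟩
  have e0 : ∀ y : Finset W, cntP M y F t = nW y {w | w ∈ M.On F ∧ M.pos F w < t} := by
    intro y
    rw [nW_card]
    unfold cntP
    congr 2
    ext v
    simp only [Finset.mem_filter, mem_ofPred_eq]
  have h1 : nW (pts h c x) {w | w ∈ M.On F ∧ M.pos F w < t} =
      ∑ y ∈ Y, nW (pts h (L.cf F) y) {w | w ∈ M.On F ∧ M.pos F w < t} :=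
    nW_pieces Y (mem_pieces hF x Y hY) (fun w hw => on_in le_rfl hw.1)
  rw [e0, h1, img_chs R hx hF Y hY, Finset.sum_image (fun a _ b _ hab => chP_inj R h hab)]
  exact Finset.sum_congr rfl fun a _ => (e0 _).symm

/-- the position label of one chord -/
lemma cnt_ch {h : LF L s} {F : Φ} (b : Ch r F) {w : W} (hw : r.At F w)
    (hne : w ∉ pts h (L.cf F) (chP R b)) :
    cntP M (pts h (L.cf F) (chP R b)) F (M.pos F w) = (dg r F).inn b (rk r F (M.pos F w)) := by
  classical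
  have h1 : pts h (L.cf F) (chP R b) = {b.1, r.mu F b.1} := by
    ext v
    rw [mem_pts_ch R b, Finset.mem_insert, Finset.mem_singleton]
  have hbm : b.1 ≠ r.mu F b.1 := fun h' => r.mu_ne b.2.1.1 b.2.1.2 h'.symm
  have hwb : w ≠ b.1 := fun h' => hne ((mem_pts_ch R b).2 (Or.inl h'))
  have hwb' : w ≠ r.mu F b.1 := fun h' => hne ((mem_pts_ch R b).2 (Or.inr h'))
  have hm := At.mu r b.2.1
  have q1 : b.1 ∈ M.On F := b.2.1.2
  have q2 : r.mu F b.1 ∈ M.On F := hm.2
  have p1 : M.pos F b.1 < M.pos F (r.mu F b.1) := b.2.2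
  have p2 := pos_ne r hw b.2.1 hwb
  have p3 := pos_ne r hw hm hwb'
  have r1 : (dg r F).lo b < rk r F (M.pos F w) ↔
      M.pos F b.1 < M.pos F w := rk_lt_iff r b.2.1
  have r2 : rk r F (M.pos F w) < (dg r F).hi b ↔
      M.pos F w < M.pos F (r.mu F b.1) := rk_lt_iff r hw
  rw [cntP_sum]
  unfold Dg.inn
  rw [h1, Finset.sum_pair hbm]
  have e1 : ∀ v, v ∈ M.On F → (v ∈ M.On F ∧ M.pos F v < M.pos F w ↔
      M.pos F v < M.pos F w) := fun v hv => ⟨fun h => h.2, fun h => ⟨hv, h⟩⟩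
  simp only [e1 _ q1, e1 _ q2, r1, r2]
  rcases lt_or_gt_of_ne p2 with g1 | g1
  · have g2 : ¬ M.pos F b.1 < M.pos F w := not_lt.2 g1.le
    have g3 : ¬ M.pos F (r.mu F b.1) < M.pos F w :=
      not_lt.2 (g1.trans p1).le
    rw [if_neg g2, if_neg g3, if_neg (fun h => g2 h.1), add_zero]
  · rcases lt_or_gt_of_ne p3 with g2 | g2
    · rw [if_pos g1, if_neg (not_lt.2 g2.le), if_pos ⟨g1, g2⟩, add_zero]
    · rw [if_pos g1, if_pos g2, if_neg (fun h => absurd h.2 (not_lt.2 g2.le))]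
      decide

/-- sums of functions which are constant along the chords -/
lemma S_const {Y : Type*} [Fintype Y] [DecidableEq Y] (D : Dg Y) (u : Y → ℕ → ZMod 2)
    (U v : Y → ZMod 2) (hu : ∀ y k, u y k = U y) : D.S u v = ∑ y, U y * v y := by
  have hc : ∀ x y, D.c u x y = 0 := by
    intro x y
    unfold Dg.c
    rw [hu, hu]
    exact add_self _
  have hd : ∀ x, D.d u x = U x := by
    intro x
    unfold Dg.d
    rw [hu]
    simp [hc]
  unfold Dg.S
  simp only [hc, hd, zero_mul, ite_self, Finset.sum_const_zero, add_zero]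

open Classical in
/-- **the inside function as a count** -/
lemma inS_count {h : LF L s} {x : Pc L s c} (p : Qq r q) (i : Bool)
    (hp : (chd p.1.2).2 ∉ pts h c x) :
    inS h x p i = kap h x (chd p.1.2).1 + ∑ b ∈ chs h x r (chd p.1.2).1,
      (dg r (chd p.1.2).1).ep b (pch p.1.2) (rk r (chd p.1.2).1 (start p.1.2)) := by
  unfold inS sd
  congr 1
  rw [S_const (dg r (chd p.1.2).1) _ (fun b => if b.1 ∈ pts h c x then 1 else 0) _ (by
    intro y k
    show (if (chd (pc y k)).2 ∈ pts h c x then (1 : ZMod 2) else 0) = _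
    rw [pc_chd])]
  unfold chs
  rw [Finset.sum_filter]
  apply Finset.sum_congr rfl
  intro b _
  by_cases hb : b.1 ∈ pts h c x
  · have hne : b ≠ pch p.1.2 := fun h' => hp (by rw [h'] at hb; exact hb)
    rw [if_pos hb, if_pos hb, if_neg hne, one_mul]
  · rw [if_neg hb, if_neg hb, zero_mul]



end Crest.Agent.R096.Lm_117
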