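import Crest.Agent.R096.Ac6_117

/-!
# R096 (row 96), LMesh, part 1: meshes with a labelled 1-skeleton, abstractly (helper117)

`Sk W Q dim` : the 1-skeleton of a cell complex `Q` (poset of all closed cells) with candidate points
`W1` on its 1-cells.  `LM M Q dim` : the 2-cells of the mesh `M : MeshC` are 2-cells of `Q`; the
positions on a 2-cell are labels (`face`), every even set of points has a label on every cell
(`cell`), the 1-skeleton of every cell is connected (`conn`).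
Instances: tilings, subcomplexes, merged meshes.
-/

set_option autoImplicit false

open Set

namespace Crest.Agent.R096.Lm_117

open Crest.Agent.R096.St_147 Crest.Agent.R096.Ac_117

variable {ι Φ W Q : Type}

open Classical in
/-- number mod 2 of the points of `Y` in `X` -/
noncomputable def nW (Y : Finset W) (X : Set W) : ZMod 2 := ∑ w ∈ Y, if w ∈ X then 1 else 0

lemma nW_congr {Y : Finset W} {X X' : Set W} (h : ∀ w ∈ Y, (w ∈ X ↔ w ∈ X')) :
    nW Y X = nW Y X' := by
  classical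
  unfold nW
  apply Finset.sum_congr rfl
  intro w hw
  by_cases h1 : w ∈ X
  · rw [if_pos h1, if_pos ((h w hw).1 h1)]
  · rw [if_neg h1, if_neg (fun h2 => h1 ((h w hw).2 h2))]

lemma nW_empty {Y : Finset W} {X : Set W} (h : ∀ w ∈ Y, w ∉ X) : nW Y X = 0 := by
  classical
  unfold nW
  apply Finset.sum_eq_zero
  intro w hw
  rw [if_neg (h w hw)]

lemma nW_union {Y : Finset W} {X X' Z : Set W} (h : ∀ w ∈ Y, (w ∈ Z ↔ (w ∈ X ∨ w ∈ X')))
    (hd : ∀ w ∈ Y, ¬ (w ∈ X ∧ w ∈ X')) : nW Y Z = nW Y X + nW Y X' := by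
  classical
  unfold nW
  rw [← Finset.sum_add_distrib]
  apply Finset.sum_congr rfl
  intro w hw
  have h1 := h w hw
  have h2 := hd w hw
  by_cases hX : w ∈ X <;> by_cases hX' : w ∈ X' <;> simp_all

lemma nW_congr' {Y Y' : Finset W} {X : Set W} (h : ∀ w ∈ X, (w ∈ Y ↔ w ∈ Y')) :
    nW Y X = nW Y' X := by
  classical
  unfold nW
  rw [← Finset.sum_filter, ← Finset.sum_filter]
  congr 1
  ext w
  simp only [Finset.mem_filter]
  constructor
  · rintro ⟨h1, h2⟩; exact ⟨(h w h2).1 h1, h2⟩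
  · rintro ⟨h1, h2⟩; exact ⟨(h w h2).2 h1, h2⟩

lemma nW_card (Y : Finset W) (X : Set W) :
    nW Y X = (open Classical in ((Y.filter (· ∈ X)).card : ZMod 2)) := by
  classical
  unfold nW
  rw [Finset.card_filter, Nat.cast_sum]
  apply Finset.sum_congr rfl
  intro w _
  split_ifs <;> simp

lemma nW_one {Y : Finset W} {X : Set W} {p : W} (hp : p ∈ Y) (hpX : p ∈ X)
    (h : ∀ w ∈ Y, w ∈ X → w = p) : nW Y X = 1 := by
  classical
  unfold nW
  rw [Finset.sum_eq_single p]
  · rw [if_pos hpX]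
  · intro w hw hne
    rw [if_neg (fun hX => hne (h w hw hX))]
  · intro h'; exact absurd hp h'

lemma add_self (a : ZMod 2) : a + a = 0 := CharTwo.add_self_eq_zero a

/-- the 1-skeleton of a cell complex with candidate points on its 1-cells -/
structure Sk (W Q : Type) [PartialOrder Q] (dim : Q → ℕ) where
  /-- the candidate points -/
  W1 : Set W
  /-- the 1-cell of a point -/
  ed : W → Q
  /-- the two ends of a 1-cell -/
  en : Q → Bool → Q
  /-- the position of a point on its 1-cell, from `en _ false` to `en _ true` -/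
  t : W → ℝ
  ed_dim : ∀ w ∈ W1, dim (ed w) = 1
  inf : ∀ w ∈ W1, {w' | w' ∈ W1 ∧ ed w' = ed w}.Infinite
  t_inj : ∀ w ∈ W1, ∀ w' ∈ W1, ed w = ed w' → t w = t w' → w = w'
  en_dim : ∀ e, dim e = 1 → ∀ b, dim (en e b) = 0
  en_lt : ∀ e, dim e = 1 → ∀ b, en e b < e
  en_all : ∀ e, dim e = 1 → ∀ v, v < e → v = en e false ∨ v = en e true
  en_ne : ∀ e, dim e = 1 → en e false ≠ en e true
  dim_lt : ∀ c d : Q, c < d → dim c < dim d
  base : ∀ c, ∃ v, v ≤ c ∧ dim v = 0
  /-- the 1-skeleton of a cell is connected -/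
  conn : ∀ (c : Q) (φ : Q → ZMod 2), (∀ e, e ≤ c → dim e = 1 → φ (en e false) = φ (en e true)) →
    ∀ v v', v ≤ c → v' ≤ c → dim v = 0 → dim v' = 0 → φ v = φ v'

namespace Sk

variable [PartialOrder Q] {dim : Q → ℕ} (L : Sk W Q dim)

/-- the points of a 1-cell -/
def On1 (e : Q) : Set W := {w | w ∈ L.W1 ∧ L.ed w = e}

/-- the points in a cell -/
def In (c : Q) : Set W := {w | w ∈ L.W1 ∧ L.ed w ≤ c}

/-- `lam` is a label of `Y` on the vertices of the cell `c` -/
def XL (Y : Finset W) (lam : Q → ZMod 2) (c : Q) : Prop :=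
  ∀ e, e ≤ c → dim e = 1 → lam (L.en e false) + lam (L.en e true) = nW Y (L.On1 e)

/-- number mod 2 of the points of `Y` before `w` on its 1-cell -/
noncomputable def pre (Y : Finset W) (w : W) : ZMod 2 :=
  nW Y {x | x ∈ L.W1 ∧ L.ed x = L.ed w ∧ L.t x < L.t w}

/-- the label at a point -/
noncomputable def ext (Y : Finset W) (lam : Q → ZMod 2) (w : W) : ZMod 2 :=
  lam (L.en (L.ed w) false) + L.pre Y w

variable {L}

lemma In_mono {c d : Q} (h : c ≤ d) : L.In c ⊆ L.In d := fun _ hw => ⟨hw.1, hw.2.trans h⟩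

lemma XL.mono {Y : Finset W} {lam : Q → ZMod 2} {c c' : Q} (h : L.XL Y lam c) (hc : c' ≤ c) :
    L.XL Y lam c' := fun e he => h e (he.trans hc)

lemma XL.add_const {Y : Finset W} {lam : Q → ZMod 2} {c : Q} (h : L.XL Y lam c) (k : ZMod 2) :
    L.XL Y (fun v => lam v + k) c := by
  intro e he h1
  rw [← h e he h1]
  have := add_self k
  linear_combination this

lemma pre_congr {Y Y' : Finset W} {c : Q} (hY : ∀ w ∈ L.In c, (w ∈ Y ↔ w ∈ Y')) {w : W}
    (hw : L.ed w ≤ c) : L.pre Y w = L.pre Y' w :=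
  nW_congr' fun x hx => hY x ⟨hx.1, hx.2.1 ▸ hw⟩

/-- **uniqueness** -/
theorem XL.unique {Y Y' : Finset W} {lam lam' : Q → ZMod 2} {c : Q} (h : L.XL Y lam c)
    (h' : L.XL Y' lam' c) (hY : ∀ w ∈ L.In c, (w ∈ Y ↔ w ∈ Y')) {v v' : Q} (hv : v ≤ c)
    (hv' : v' ≤ c) (h0 : dim v = 0) (h0' : dim v' = 0) :
    lam v + lam' v = lam v' + lam' v' := by
  refine L.conn c (fun v => lam v + lam' v) ?_ v v' hv hv' h0 h0'
  intro e he h1
  have e1 := h e he h1
  have e2 := h' e he h1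
  have e3 : nW Y (L.On1 e) = nW Y' (L.On1 e) :=
    nW_congr' fun w hw => hY w ⟨hw.1, hw.2.symm ▸ he⟩
  rw [← e3, ← e1] at e2
  have e4 : ∀ a b c d : ZMod 2, c + d = a + b → a + c = b + d := by decide
  exact e4 _ _ _ _ e2

/-- uniqueness at the points -/
theorem XL.unique_ext {Y Y' : Finset W} {lam lam' : Q → ZMod 2} {c : Q} (h : L.XL Y lam c)
    (h' : L.XL Y' lam' c) (hY : ∀ w ∈ L.In c, (w ∈ Y ↔ w ∈ Y')) {v : Q} {w : W} (hv : v ≤ c)
    (h0 : dim v = 0) (hw : w ∈ L.In c) :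
    L.ext Y lam w + L.ext Y' lam' w = lam v + lam' v := by
  unfold ext
  rw [← L.pre_congr hY hw.2]
  have h1 := h.unique h' hY ((L.en_lt _ (L.ed_dim w hw.1) false).le.trans hw.2) hv
    (L.en_dim _ (L.ed_dim w hw.1) false) h0
  rw [← h1]
  have := add_self (L.pre Y w)
  linear_combination this

end Sk

/-- **a mesh with labels** -/
structure LM (M : MeshC ι Φ W) (Q : Type) [PartialOrder Q] (dim : Q → ℕ) extends Sk W Q dim where
  /-- the cell of a 2-cell of the mesh -/
  cf : Φ → Q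
  cf_dim : ∀ F, dim (cf F) = 2
  cf_inj : ∀ F F', cf F = cf F' → F = F'
  on_iff : ∀ F w, w ∈ M.On F ↔ w ∈ W1 ∧ ed w ≤ cf F
  /-- the position of a vertex on the boundary of a 2-cell -/
  vpos : Φ → Q → ℝ
  /-- the positions on a 2-cell are labels -/
  face : ∀ (F : Φ) (Y : Finset W), nW Y (M.On F) = 0 →
    toSk.XL Y (fun v => cntP M Y F (vpos F v)) (cf F) ∧
    ∀ w ∈ M.On F, w ∉ Y → toSk.ext Y (fun v => cntP M Y F (vpos F v)) w = cntP M Y F (M.pos F w)
  /-- labels exist on every cell -/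
  cell : ∀ (c : Q) (Y : Finset W), (∀ F, cf F ≤ c → nW Y (M.On F) = 0) → ∃ lam, toSk.XL Y lam c

end Crest.Agent.R096.Lm_117
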