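import Crest.Agent.R096.PlSph_296

/-!
# The local move (helper812, row 96, 2SK)

`exists_move`: if `Fc ∪ D` is a standard sphere bounding `K`, `Q` is a convex cell with
`Q ∩ K = Fc` and `Fc \ D` is open in `Q`, then a PL homeomorphism supported in any neighbourhood of
`K` maps `Fc` onto `D` and is the identity on `Q \ Fc` (the push of helper296 across the double
cone, `ε` small by domination on the cells of `Q`).
-/

namespace Crest.Agent.R096.Lm_812

open Set Metric Crest.Agent.R096.Pl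

variable {F : Type*} [NormedAddCommGroup F] [NormedSpace ℝ F]

/-- the slightly larger double cones lie in any neighbourhood of the double cone -/
theorem exists_eps_nhds [FiniteDimensional ℝ F] {U : Set (F × ℝ)} (hU : IsOpen U)
    (hK : {p : F × ℝ | N1 p ≤ 1} ⊆ U) :
    ∃ e : ℝ, 0 < e ∧ ∀ ε : ℝ, 0 < ε → ε ≤ e → ∀ p : F × ℝ,
      ‖p.1‖ + |p.2| / (1 + ε) ≤ 1 → p ∈ U := by
  have hc : IsCompact {p : F × ℝ | N1 p ≤ 1} := by
    refine Metric.isCompact_of_isClosed_isBounded (isClosed_le N1_continuous continuous_const) ?_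
    refine (Metric.isBounded_closedBall (x := (0 : F × ℝ)) (r := 1)).subset fun p hp => ?_
    rw [mem_closedBall, dist_zero_right]
    exact (norm_le_N1 p).trans hp
  obtain ⟨δ, hδ, hδU⟩ := hc.exists_thickening_subset_open hU hK
  refine ⟨δ / 2, by positivity, fun ε hε hεδ p hp => hδU ?_⟩
  rw [mem_thickening_iff]
  have h1 : 0 < 1 + ε := by linarith
  have hp2 : |p.2| ≤ 1 + ε := by
    have h2 : |p.2| / (1 + ε) ≤ 1 := by have := norm_nonneg p.1; linarith
    rwa [div_le_one h1] at h2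
  refine ⟨(p.1, p.2 / (1 + ε)), ?_, ?_⟩
  · show ‖p.1‖ + |p.2 / (1 + ε)| ≤ 1
    rw [abs_div, abs_of_pos h1]; exact hp
  · rw [Prod.dist_eq, dist_self, max_eq_right dist_nonneg, Real.dist_eq]
    have e : p.2 - p.2 / (1 + ε) = p.2 * (ε / (1 + ε)) := by field_simp; ring
    rw [e, abs_mul, abs_of_pos (show (0 : ℝ) < ε / (1 + ε) by positivity)]
    calc |p.2| * (ε / (1 + ε)) ≤ (1 + ε) * (ε / (1 + ε)) :=
          mul_le_mul_of_nonneg_right hp2 (by positivity)
      _ = ε := by field_simp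
      _ < δ := by linarith

/-- **the local move**, the identity near the points of `Q \ Fc` -/
theorem exists_move_near (hF : PolyNorm F) [FiniteDimensional ℝ F] [Nontrivial F]
    {Fc D K Q U : Set (F × ℝ)} (hS : StdS Fc D) (hKc : IsCompact K) (hsub : Fc ∪ D ⊆ K)
    (hop : IsOpen (K \ (Fc ∪ D))) (hne : (K \ (Fc ∪ D)).Nonempty) (hU : IsOpen U) (hKU : K ⊆ U)
    (hQ : VP Q) (hQK : Q ∩ K = Fc) (hrel : ∃ O, IsOpen O ∧ Fc \ D = Q ∩ O) :
    ∃ ψ : (F × ℝ) ≃ₜ (F × ℝ), PLH ψ ∧ (∀ x, x ∉ U → ψ x = x) ∧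
      (∀ x ∈ Q \ Fc, ∀ᶠ y in nhds x, ψ y = y) ∧
      ψ '' Fc = D ∧ ∀ x ∈ Fc ∩ D, ψ x = x := by
  classical
  obtain ⟨H, hH, h1, h2⟩ := hS
  obtain ⟨O, hO, hFO⟩ := hrel
  have hS1 : H '' S1 F = Fc ∪ D := by rw [← Kp_union_Km, image_union, h1, h2]
  have hKeq : K = H '' {p | N1 p ≤ 1} := by
    refine eq_inside hKc (by rw [hS1]; exact hsub) (by rw [hS1]; exact hop) (by rw [hS1]; exact hne)
  have memK : ∀ x, x ∈ K ↔ N1 (H.symm x) ≤ 1 := by
    intro x
    rw [hKeq]
    constructor
    · rintro ⟨p, hp, rfl⟩; rw [H.symm_apply_apply]; exact hp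
    · intro hx; exact ⟨H.symm x, hx, H.apply_symm_apply x⟩
  have memFc : ∀ x, x ∈ Fc ↔ H.symm x ∈ Kp F := by
    intro x
    rw [← h1]
    constructor
    · rintro ⟨p, hp, rfl⟩; rw [H.symm_apply_apply]; exact hp
    · intro hx; exact ⟨H.symm x, hx, H.apply_symm_apply x⟩
  have memD : ∀ x, x ∈ D ↔ H.symm x ∈ Km F := by
    intro x
    rw [← h2]
    constructor
    · rintro ⟨p, hp, rfl⟩; rw [H.symm_apply_apply]; exact hp
    · intro hx; exact ⟨H.symm x, hx, H.apply_symm_apply x⟩
  -- step A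
  obtain ⟨e, he, hA⟩ := exists_eps_nhds (F := F) (U := H ⁻¹' U) (hU.preimage H.continuous) (by
    intro p hp
    exact hKU (by rw [hKeq]; exact ⟨p, hp, rfl⟩))
  -- step B
  let g : F × ℝ → ℝ := fun x => N1 (H.symm x) - 1
  let w : F × ℝ → ℝ := fun x => |(H.symm x).2|
  have hgPL : PLMap g := ((N1_pl hF).comp hH.2).sub (PLMap.const 1)
  have hwPL : PLMap w := (hH.2.snd).abs
  obtain ⟨𝒞, hfin, hVP, hUn, haff, -⟩ := hgPL.cells hQ (A := ∅) finite_empty
  have key : ∀ C ∈ 𝒞, ¬ C ⊆ Fc → ∃ M : ℝ, 0 < M ∧ ∀ x ∈ C, 0 < w x → w x ≤ M * g x := by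
    intro C hC hCF
    have hCQ : C ⊆ Q := by rw [← hUn]; exact subset_sUnion_of_mem hC
    refine domination (hVP C hC) hwPL hgPL fun x hx hwx => ?_
    by_contra hgx
    push Not at hgx
    have hxK : x ∈ K := by rw [memK]; simp only [g] at hgx; linarith
    have hxF : x ∈ Fc := by rw [← hQK]; exact ⟨hCQ hx, hxK⟩
    have hxKp := (memFc x).1 hxF
    have hxD : x ∉ D := by
      intro hxD
      have h3 := (memD x).1 hxD
      have h4 : (H.symm x).2 = 0 := le_antisymm h3.1 hxKp.1
      simp only [w, h4, abs_zero, lt_irrefl] at hwx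
    have hxO : x ∈ O := by
      have : x ∈ Q ∩ O := by rw [← hFO]; exact ⟨hxF, hxD⟩
      exact this.2
    obtain ⟨y, hy, hyF⟩ := not_subset.1 hCF
    obtain ⟨a, ha⟩ := haff C hC
    have hgx0 : g x = 0 := by
      have : N1 (H.symm x) = 1 := hxKp.2
      simp only [g, this, sub_self]
    -- a point of the segment near x
    have hcont : ContinuousAt (fun t : ℝ => (1 - t) • x + t • y) 0 := by fun_prop
    have hev : ∀ᶠ t in nhds (0 : ℝ), (1 - t) • x + t • y ∈ O := by
      refine hcont.eventually_mem (hO.mem_nhds ?_)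
      simpa using hxO
    obtain ⟨r, hr, hr'⟩ := Metric.eventually_nhds_iff.1 hev
    let t : ℝ := min (r / 2) 1
    have ht0 : 0 < t := lt_min (by positivity) one_pos
    have ht1 : t ≤ 1 := min_le_right _ _
    have htr : dist t 0 < r := by
      rw [Real.dist_eq, sub_zero, abs_of_pos ht0]
      exact (min_le_left _ _).trans_lt (by linarith)
    have hz : (1 - t) • x + t • y ∈ C :=
      (hVP C hC).convex hx hy (by linarith) ht0.le (by ring)
    have hzF : (1 - t) • x + t • y ∈ Fc := by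
      have : (1 - t) • x + t • y ∈ Fc \ D := by rw [hFO]; exact ⟨hCQ hz, hr' htr⟩
      exact this.1
    have hgz : g ((1 - t) • x + t • y) = 0 := by
      have : N1 (H.symm ((1 - t) • x + t • y)) = 1 := ((memFc _).1 hzF).2
      simp only [g, this, sub_self]
    have hgy : g y = 0 := by
      rw [ha _ hz, affine_comb a (by ring), ← ha _ hx, ← ha _ hy, hgx0] at hgz
      have : t * g y = 0 := by linarith
      rcases mul_eq_zero.1 this with h | h
      · exact absurd h ht0.ne'
      · exact h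
    apply hyF
    rw [← hQK]
    refine ⟨hCQ hy, ?_⟩
    rw [memK]
    simp only [g] at hgy
    linarith
  choose! M hM hMle using key
  obtain ⟨B, hB⟩ := (hfin.image M).bddAbove
  let ε : ℝ := min e (1 / max B 1)
  have hB1 : 0 < max B 1 := lt_max_of_lt_right one_pos
  have hε : 0 < ε := lt_min he (by positivity)
  have hεe : ε ≤ e := min_le_left _ _
  have hεB : max B 1 * ε ≤ 1 := by
    calc max B 1 * ε ≤ max B 1 * (1 / max B 1) := mul_le_mul_of_nonneg_left (min_le_right _ _) hB1.le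
      _ = 1 := by field_simp
  obtain ⟨P, hP, hP1, hP2⟩ := exists_push (F := F) hF.pl hε
  have hPKp : P '' Kp F = Km F := by
    rw [← ep_image, ← em_image, ← image_comp]
    refine image_congr fun x hx => ?_
    have hx' : ‖x‖ ≤ 1 := by simpa using hx
    simp only [Function.comp, ep]
    exact hP1 x hx'
  refine ⟨H.symm.trans (P.trans H), hH.symm.trans (hP.trans hH), ?_, ?_, ?_, ?_⟩
  · intro x hx
    have hu : H.symm x ∉ H ⁻¹' U := by
      simp only [mem_preimage, H.apply_symm_apply]; exact hx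
    have : 1 ≤ ‖(H.symm x).1‖ + |(H.symm x).2| / (1 + ε) := by
      by_contra h
      push Not at h
      exact hu (hA ε hε hεe _ h.le)
    show H (P (H.symm x)) = x
    rw [hP2 _ this, H.apply_symm_apply]
  · rintro x ⟨hxQ, hxF⟩
    have hgx : 0 < g x := by
      by_contra h
      push Not at h
      apply hxF
      rw [← hQK]
      refine ⟨hxQ, ?_⟩
      rw [memK]
      simp only [g] at h
      linarith
    have hxQ' := hxQ
    rw [← hUn] at hxQ'
    obtain ⟨C, hC, hxC⟩ := hxQ'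
    have hCF : ¬ C ⊆ Fc := fun h => hxF (h hxC)
    have h1ε : 0 < 1 + ε := by linarith
    have hmain : 1 < ‖(H.symm x).1‖ + |(H.symm x).2| / (1 + ε) := by
      have hN : ‖(H.symm x).1‖ + |(H.symm x).2| = 1 + g x := by
        simp only [g, N1]; ring
      have hw0 : 0 ≤ w x := abs_nonneg _
      have hwle : w x * ε ≤ g x := by
        rcases hw0.eq_or_lt with h0 | h0
        · rw [← h0, zero_mul]; exact hgx.le
        · have h3 := hMle C hC hCF x hxC h0
          have h4 : M C ≤ max B 1 := (hB (mem_image_of_mem _ hC)).trans (le_max_left _ _)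
          calc w x * ε ≤ (M C * g x) * ε := mul_le_mul_of_nonneg_right h3 hε.le
            _ ≤ (max B 1 * g x) * ε := by gcongr
            _ = (max B 1 * ε) * g x := by ring
            _ ≤ 1 * g x := mul_le_mul_of_nonneg_right hεB hgx.le
            _ = g x := one_mul _
      have h5 : |(H.symm x).2| / (1 + ε) = |(H.symm x).2| - w x * (ε / (1 + ε)) := by
        simp only [w]; field_simp; ring
      have h6 : w x * (ε / (1 + ε)) < g x := by
        have e6 : w x * (ε / (1 + ε)) = (w x * ε) / (1 + ε) := by ring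
        rw [e6, div_lt_iff₀ h1ε]; nlinarith
      rw [h5]; linarith
    have hcont : Continuous fun y => ‖(H.symm y).1‖ + |(H.symm y).2| / (1 + ε) :=
      ((continuous_fst.comp H.symm.continuous).norm).add
        (((continuous_snd.comp H.symm.continuous).abs).div_const _)
    filter_upwards [(isOpen_lt continuous_const hcont).mem_nhds hmain] with y hy
    show H (P (H.symm y)) = y
    rw [hP2 _ (le_of_lt hy), H.apply_symm_apply]
  · have e1 : (H.symm.trans (P.trans H)) '' Fc = H '' (P '' (H.symm '' Fc)) := by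
      rw [← image_comp, ← image_comp]; rfl
    rw [e1, ← h1, ← image_comp H.symm H]
    have e2 : (H.symm ∘ H) '' Kp F = Kp F := by
      have : (H.symm ∘ H : F × ℝ → F × ℝ) = id := by ext1 p; simp
      rw [this, image_id]
    rw [e2, hPKp, h2]
  · rintro x ⟨hxF, hxD⟩
    have h3 := (memFc x).1 hxF
    have h4 := (memD x).1 hxD
    have h5 : (H.symm x).2 = 0 := le_antisymm h4.1 h3.1
    have h6 : ‖(H.symm x).1‖ = 1 := by
      have := h3.2
      simp only [N1, h5, abs_zero, add_zero] at this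
      exact this
    show H (P (H.symm x)) = x
    rw [hP2 _ (by rw [h5, h6]; simp), H.apply_symm_apply]

/-- **the local move** -/
theorem exists_move (hF : PolyNorm F) [FiniteDimensional ℝ F] [Nontrivial F]
    {Fc D K Q U : Set (F × ℝ)} (hS : StdS Fc D) (hKc : IsCompact K) (hsub : Fc ∪ D ⊆ K)
    (hop : IsOpen (K \ (Fc ∪ D))) (hne : (K \ (Fc ∪ D)).Nonempty) (hU : IsOpen U) (hKU : K ⊆ U)
    (hQ : VP Q) (hQK : Q ∩ K = Fc) (hrel : ∃ O, IsOpen O ∧ Fc \ D = Q ∩ O) :
    ∃ ψ : (F × ℝ) ≃ₜ (F × ℝ), PLH ψ ∧ (∀ x, x ∉ U → ψ x = x) ∧ (∀ x ∈ Q \ Fc, ψ x = x) ∧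
      ψ '' Fc = D ∧ ∀ x ∈ Fc ∩ D, ψ x = x := by
  obtain ⟨ψ, h1, h2, h3, h4⟩ := exists_move_near hF hS hKc hsub hop hne hU hKU hQ hQK hrel
  exact ⟨ψ, h1, h2, fun x hx => (h3 x hx).self_of_nhds, h4⟩

end Crest.Agent.R096.Lm_812
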