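import Crest.Agent.R096.Srg2_465
import Crest.Agent.R096.Sk2a_855

/-!
# R096 (row 96), 2SK-SURG, part 3: the induction (helper465)

* `Mesh Om S F`: the faces `F k` (they meet only in `S`) and the local move (812's `disc_move`).
* `Lvls La u K Z I`: the level spheres of the target.
* `St ..`: a homeomorphism of `Om` onto `La` with regular levels; `𝒜 t D`: the allowed discs.
* `surgery`: a PL homeomorphism of the source, supported off `S`, moving points of faces only into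
  allowed discs, after which on a smaller interval no face has a circle with an allowed side.
-/

set_option autoImplicit false
set_option linter.unusedSectionVars false

open Set Metric Topology Filter

namespace Crest.Agent.R096.Srg_465

open Ce_537 Pl Cb_609
open Sk2_855 (HP)

variable {E : Type*} [NormedAddCommGroup E] [NormedSpace ℝ E]

/-- a PL homeomorphism of the space, supported in a compact part of `Om` off `S` -/
structure MvS (Om S : Set E) (ψ : E ≃ₜ E) : Prop where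
  plh : PLH ψ
  supp : ∃ K : Set E, IsCompact K ∧ K ⊆ Om ∧ Disjoint K S ∧ ∀ x, x ∉ K → ψ x = x

namespace MvS

variable {Om S : Set E} {ψ φ : E ≃ₜ E}

theorem refl : MvS Om S (Homeomorph.refl E) :=
  ⟨PLH.refl, ∅, isCompact_empty, empty_subset _, empty_disjoint _, fun _ _ => rfl⟩

theorem eq_on (h : MvS Om S ψ) {x : E} (hx : x ∈ S) : ψ x = x := by
  obtain ⟨K, -, -, hd, hK⟩ := h.supp
  exact hK x fun hxK => (disjoint_left.1 hd) hxK hx

theorem mapsTo (h : MvS Om S ψ) : MapsTo ψ Om Om := by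
  obtain ⟨K, -, hO, -, hK⟩ := h.supp
  intro x hx
  by_contra hn
  have h1 : ψ x ∉ K := fun hk => hn (hO hk)
  have h2 := ψ.injective (hK _ h1)
  exact hn (by rw [h2]; exact hx)

theorem symm (h : MvS Om S ψ) : MvS Om S ψ.symm := by
  obtain ⟨K, hc, hO, hd, hK⟩ := h.supp
  refine ⟨h.plh.symm, K, hc, hO, hd, fun x hx => ?_⟩
  rw [Homeomorph.symm_apply_eq, hK x hx]

theorem trans (h : MvS Om S ψ) (h' : MvS Om S φ) : MvS Om S (ψ.trans φ) := by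
  obtain ⟨K, hc, hO, hd, hK⟩ := h.supp
  obtain ⟨K', hc', hO', hd', hK'⟩ := h'.supp
  refine ⟨h.plh.trans h'.plh, K ∪ K', hc.union hc', union_subset hO hO',
    disjoint_union_left.2 ⟨hd, hd'⟩, fun x hx => ?_⟩
  rw [mem_union, not_or] at hx
  show φ (ψ x) = x
  rw [hK x hx.1, hK' x hx.2]

end MvS

section HPlemmas

variable {Om La S : Set E} {h hi : E → E}

theorem HP.compS (H : HP Om La h hi) {ψ : E ≃ₜ E} (hψ : MvS Om S ψ) :
    HP Om La (fun x => h (ψ x)) (fun y => ψ.symm (hi y)) where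
  mt := fun x hx => H.mt (hψ.mapsTo hx)
  mti := fun y hy => hψ.symm.mapsTo (H.mti hy)
  li := fun x hx => by rw [H.li _ (hψ.mapsTo hx), Homeomorph.symm_apply_apply]
  ri := fun y hy => by rw [Homeomorph.apply_symm_apply, H.ri _ hy]
  pl := Sk2_855.locPL_comp_PLMap hψ.plh.1 hψ.mapsTo H.pl
  pli := Sk2_855.PLMap_comp_locPL hψ.plh.2 H.pli

theorem HP.injOn (H : HP Om La h hi) : InjOn h Om := by
  intro x hx y hy e
  rw [← H.li x hx, ← H.li y hy, e]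

theorem HP.inv (H : HP Om La h hi) : HP La Om hi h :=
  ⟨H.mti, H.mt, H.ri, H.li, H.pli, H.pl⟩

/-- the PL equivalence of a compact set onto its image -/
noncomputable def HP.equiv (H : HP Om La h hi) {A : Set E} (hA : IsCompact A) (hAO : A ⊆ Om) :
    PLEquiv A (h '' A) where
  f := h
  g := hi
  pf := Msh_715.LocPL.plOn H.pl hA hAO
  pg := Msh_715.LocPL.plOn H.pli (hA.image_of_continuousOn (H.contOn.mono hAO))
    (by rintro _ ⟨x, hx, rfl⟩; exact H.mt (hAO hx))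
  mf := fun x hx => ⟨x, hx, rfl⟩
  mg := by rintro _ ⟨x, hx, rfl⟩; rw [H.li x (hAO hx)]; exact hx
  li := fun x hx => H.li x (hAO hx)
  ri := by rintro _ ⟨x, hx, rfl⟩; rw [H.li x (hAO hx)]

theorem HP.ball_image (H : HP Om La h hi) {n : ℕ} {A B : Set E} (hA : IsBall n A B)
    (hAO : A ⊆ Om) : IsBall n (h '' A) (h '' B) :=
  hA.map (HP.equiv H hA.isCompact hAO)

theorem HP.image_hi (H : HP Om La h hi) {A : Set E} (hAO : A ⊆ Om) : hi '' (h '' A) = A := by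
  rw [image_image]
  ext x
  constructor
  · rintro ⟨y, hy, rfl⟩
    show hi (h y) ∈ A
    rw [H.li y (hAO hy)]; exact hy
  · intro hx; exact ⟨x, hx, H.li x (hAO hx)⟩

end HPlemmas

/-- the faces and the local move -/
structure Mesh (Om S : Set E) {κ : Type*} (F : κ → Set E) : Prop where
  comp : ∀ k, IsCompact (F k)
  sub : ∀ k, F k ⊆ Om
  meet : ∀ k k', k ≠ k' → F k ∩ F k' ⊆ S
  move : ∀ k Fc D Γ O, IsBall 2 Fc Γ → Fc ⊆ F k \ S → IsOpen O → O ∩ F k = Fc \ Γ →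
    IsBall 2 D Γ → D ⊆ Om → (∀ k', Disjoint (D \ Γ) (F k')) →
    ∃ ψ : E ≃ₜ E, MvS Om S ψ ∧ (∀ k', k' ≠ k → ∀ x ∈ F k', ∀ᶠ y in 𝓝 x, ψ y = y) ∧
      (∀ x ∈ F k \ Fc, ∀ᶠ y in 𝓝 x, ψ y = y) ∧ ψ '' Fc = D

/-- the level spheres -/
structure Lvls (La : Set E) (u : E → ℝ) (K Z : ℝ → Set E) (I : Set ℝ) : Prop where
  cont : ContinuousOn u La
  ball : ∀ t ∈ I, IsBall 3 (K t) (Z t)
  sub : ∀ t ∈ I, Z t ⊆ La
  eq : ∀ t ∈ I, ∀ y ∈ La, y ∈ Z t ↔ u y = t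

theorem Lvls.mono {La : Set E} {u : E → ℝ} {K Z : ℝ → Set E} {I J : Set ℝ}
    (L : Lvls La u K Z I) (h : J ⊆ I) : Lvls La u K Z J :=
  ⟨L.cont, fun t ht => L.ball t (h ht), fun t ht => L.sub t (h ht), fun t ht => L.eq t (h ht)⟩

/-- the state -/
structure St (Om La S : Set E) {κ : Type*} (F : κ → Set E) (J : Finset κ) (u : E → ℝ)
    (𝒜 : ℝ → Set E → Prop) (I : Set ℝ) (h hi : E → E) : Prop where
  hp : HP Om La h hi
  lev : ∀ k ∈ J, Lev (F k) (F k ∩ S) (fun x => u (h x)) I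
  off : ∀ k, k ∉ J → ∀ x ∈ F k, u (h x) ∉ I
  rim : ∀ k ∈ J, ∀ t ∈ I, ∀ x ∈ F k, u (h x) = t →
    (connectedComponentIn (Ls (F k) (fun x => u (h x)) t) x ∩ (F k ∩ S)).Nonempty →
    ∀ D, 𝒜 t D → h x ∉ D

section Main

variable {Om La S : Set E} {κ : Type*} {F : κ → Set E} {J : Finset κ} {u : E → ℝ}
  {𝒜 : ℝ → Set E → Prop} {I : Set ℝ} {h hi : E → E} {K Z : ℝ → Set E}

theorem Circ.subset {F rim : Set E} {φ : E → ℝ} {t : ℝ} {Γ : Set E} (c : Circ F rim φ t Γ) :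
    Γ ⊆ Ls F φ t := by
  obtain ⟨⟨x, hx, hxt, rfl⟩, -⟩ := c
  exact connectedComponentIn_subset _ _

/-- circles of one level of one face are equal or disjoint -/
theorem Circ.disjoint {F rim : Set E} {φ : E → ℝ} {t : ℝ} {Γ Γ' : Set E}
    (c : Circ F rim φ t Γ) (c' : Circ F rim φ t Γ') (hne : Γ ≠ Γ') : Disjoint Γ Γ' := by
  obtain ⟨⟨x, hx, hxt, rfl⟩, -⟩ := c
  obtain ⟨⟨y, hy, hyt, rfl⟩, -⟩ := c'
  rw [disjoint_left]
  intro z hz hz'
  exact hne ((connectedComponentIn_eq hz).trans (connectedComponentIn_eq hz').symm)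

theorem Circ.off_rim {F rim : Set E} {φ : E → ℝ} {t : ℝ} {Γ : Set E} (c : Circ F rim φ t Γ) :
    Disjoint Γ rim := by
  obtain ⟨-, Fc, hB, hsub, -⟩ := c
  rw [disjoint_left]
  intro x hx hx'
  exact (hsub (hB.subset hx)).2 hx'

theorem circ_congr {F rim : Set E} {φ ψ : E → ℝ} (he : EqOn φ ψ F) (t : ℝ) (Γ : Set E) :
    Circ F rim ψ t Γ ↔ Circ F rim φ t Γ := by
  have hL : Ls F ψ t = Ls F φ t := by
    ext y; constructor
    · rintro ⟨h1, h2⟩; exact ⟨h1, (he h1).trans h2⟩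
    · rintro ⟨h1, h2⟩; exact ⟨h1, (he h1).symm.trans h2⟩
  unfold Circ
  rw [hL]
  constructor
  · rintro ⟨⟨x, hx, h1, h2⟩, h3⟩; exact ⟨⟨x, hx, (he hx).trans h1, h2⟩, h3⟩
  · rintro ⟨⟨x, hx, h1, h2⟩, h3⟩; exact ⟨⟨x, hx, (he hx).symm.trans h1, h2⟩, h3⟩

/-- the disc with innermost circle -/
theorem St.exists_disc (M : Mesh Om S F) (L : Lvls La u K Z I)
    (hA : ∀ t D D', 𝒜 t D → D' ⊆ D → 𝒜 t D') (s : St Om La S F J u 𝒜 I h hi)
    {t : ℝ} (ht : t ∈ I) {k : κ} (hk : k ∈ J) {Γ D : Set E}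
    (hΓ : Circ (F k) (F k ∩ S) (fun x => u (h x)) t Γ) (hD : Side (K t) (Z t) D (h '' Γ))
    (hAD : 𝒜 t D) :
    ∃ k₁ ∈ J, ∃ Γ₁, Circ (F k₁) (F k₁ ∩ S) (fun x => u (h x)) t Γ₁ ∧
      ∃ D₁, Side (K t) (Z t) D₁ (h '' Γ₁) ∧ 𝒜 t D₁ ∧ D₁ ⊆ D ∧
        ∀ k', ∀ x ∈ F k', h x ∈ D₁ → x ∈ Γ₁ := by
  classical
  let 𝒞 : Set (Set E) := {c | ∃ k ∈ J, ∃ Γ, Circ (F k) (F k ∩ S) (fun x => u (h x)) t Γ ∧
    c = h '' Γ}
  have hsubO : ∀ {k Γ}, Circ (F k) (F k ∩ S) (fun x => u (h x)) t Γ → Γ ⊆ Om :=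
    fun {k Γ} c => c.subset.trans fun y hy => M.sub k hy.1
  have hfin : 𝒞.Finite := by
    have h1 : (⋃ k ∈ (J : Set κ), (fun Γ => h '' Γ) '' {Γ | Circ (F k) (F k ∩ S)
        (fun x => u (h x)) t Γ}).Finite :=
      J.finite_toSet.biUnion fun k hk => ((s.lev k (by simpa using hk)).fin t ht).image _
    refine h1.subset ?_
    rintro _ ⟨k, hk, Γ, hΓ, rfl⟩
    exact mem_biUnion (show k ∈ (J : Set κ) from by simpa using hk) ⟨Γ, hΓ, rfl⟩
  have hcirc : ∀ c ∈ 𝒞, Nonempty (PLEquiv (S1 ℝ) c) := by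
    rintro _ ⟨k, hk, Γ, hΓ, rfl⟩
    obtain ⟨-, Fc, hB, hsub, -⟩ := hΓ
    exact circle_of_disc (HP.ball_image s.hp hB (hsub.trans fun x hx => M.sub k hx.1))
  have hZ : ∀ c ∈ 𝒞, c ⊆ Z t := by
    rintro _ ⟨k, hk, Γ, hΓ, rfl⟩ _ ⟨x, hx, rfl⟩
    exact (L.eq t ht _ (s.hp.mt (hsubO hΓ hx))).2 (hΓ.subset hx).2
  have hdis : ∀ c ∈ 𝒞, ∀ c' ∈ 𝒞, c ≠ c' → Disjoint c c' := by
    rintro _ ⟨k, hk, Γ, hΓ, rfl⟩ _ ⟨k', hk', Γ', hΓ', rfl⟩ hne
    have h2 : Disjoint Γ Γ' := by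
      by_cases hkk : k = k'
      · subst hkk
        exact hΓ.disjoint hΓ' fun e => hne (by rw [e])
      · rw [disjoint_left]
        intro x hx hx'
        have h3 : x ∈ S := M.meet k k' hkk ⟨(hΓ.subset hx).1, (hΓ'.subset hx').1⟩
        exact disjoint_left.1 hΓ.off_rim hx ⟨(hΓ.subset hx).1, h3⟩
    rw [disjoint_left]
    rintro _ ⟨x, hx, rfl⟩ ⟨y, hy, e⟩
    have := HP.injOn s.hp (hsubO hΓ' hy) (hsubO hΓ hx) e
    subst this
    exact disjoint_left.1 h2 hx hy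
  obtain ⟨c₁, hc₁, D₁, hD₁, hsub, hoth⟩ := exists_innermost (L.ball t ht) hfin hcirc hZ hdis _
    (h '' Γ) ⟨k, hk, Γ, hΓ, rfl⟩ D hD le_rfl
  obtain ⟨k₁, hk₁, Γ₁, hΓ₁, rfl⟩ := hc₁
  refine ⟨k₁, hk₁, Γ₁, hΓ₁, D₁, hD₁, hA t D D₁ hAD hsub, hsub, fun k' x hx hxD => ?_⟩
  have hxO := M.sub k' hx
  have hxt : u (h x) = t := (L.eq t ht _ (s.hp.mt hxO)).1 (hD₁.sub hxD)
  have hk' : k' ∈ J := by
    by_contra hn
    exact s.off k' hn x hx (by rw [hxt]; exact ht)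
  rcases (s.lev k' hk').comp t ht x hx hxt with h1 | h1
  · exact absurd hxD (s.rim k' hk' t ht x hx hxt h1 D₁ (hA t D D₁ hAD hsub))
  · have h2 : h x ∈ h '' connectedComponentIn (Ls (F k') (fun x => u (h x)) t) x :=
      ⟨x, mem_connectedComponentIn ⟨hx, hxt⟩, rfl⟩
    by_cases h3 : h '' connectedComponentIn (Ls (F k') (fun x => u (h x)) t) x = h '' Γ₁
    · rw [h3] at h2
      obtain ⟨y, hy, e⟩ := h2
      rw [← HP.injOn s.hp (hsubO hΓ₁ hy) hxO e]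
      exact hy
    · exact absurd h2 (disjoint_left.1 (hoth _ ⟨k', hk', _, h1, rfl⟩ h3) hxD)

/-- **one step** -/
theorem St.step (M : Mesh Om S F) {a b : ℝ} (L : Lvls La u K Z (Ioo a b))
    (hA : ∀ t D D', 𝒜 t D → D' ⊆ D → 𝒜 t D') (s : St Om La S F J u 𝒜 (Ioo a b) h hi)
    {t' : ℝ} (ht : t' ∈ Ioo a b) {k : κ} (hk : k ∈ J) {Γ D : Set E}
    (hΓ : Circ (F k) (F k ∩ S) (fun x => u (h x)) t' Γ) (hD : Side (K t') (Z t') D (h '' Γ))
    (hAD : 𝒜 t' D) :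
    ∃ ψ : E ≃ₜ E, MvS Om S ψ ∧
      (∀ k', ∀ x ∈ F k', (∀ᶠ y in 𝓝 x, ψ y = y) ∨ (h (ψ x) ∈ D)) ∧
      (∀ k', (∀ x ∈ F k', u (h x) ∉ Ioo a b) → ∀ x ∈ F k', ∀ᶠ y in 𝓝 x, ψ y = y) ∧
      ∃ a' b', a ≤ a' ∧ a' < b' ∧ b' ≤ b ∧
        (∀ k', ∀ x ∈ F k', u (h (ψ x)) ∈ Ioo a' b' → ∀ᶠ y in 𝓝 x, ψ y = y) ∧
        St Om La S F J u 𝒜 (Ioo a' b') (fun x => h (ψ x)) (fun y => ψ.symm (hi y)) ∧
        ∀ t ∈ Ioo a' b', (∑ k' ∈ J, {Γ | Circ (F k') (F k' ∩ S) (fun x => u (h (ψ x))) t Γ}.ncard) <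
          ∑ k' ∈ J, {Γ | Circ (F k') (F k' ∩ S) (fun x => u (h x)) t Γ}.ncard := by
  classical
  obtain ⟨k₁, hk₁, Γ₁, hΓ₁, D₁, hD₁, hAD₁, hsub, hmiss⟩ := s.exists_disc M L hA ht hk hΓ hD hAD
  have hΓL := hΓ₁.subset
  obtain ⟨-, Fc, hB, hFsub, O, hO, hOF⟩ := id hΓ₁
  have hΓO : Γ₁ ⊆ Om := fun x hx => M.sub k₁ (hΓL hx).1
  have hD₁La : D₁ ⊆ La := hD₁.sub.trans (L.sub t' ht)
  -- the disc in the source
  have hDball : IsBall 2 (hi '' D₁) Γ₁ := by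
    have h1 := HP.ball_image (HP.inv s.hp) hD₁.isBall hD₁La
    rw [HP.image_hi s.hp hΓO] at h1
    exact h1
  have hDO : hi '' D₁ ⊆ Om := by
    rintro _ ⟨y, hy, rfl⟩; exact s.hp.mti (hD₁La hy)
  have hDmiss : ∀ k', Disjoint (hi '' D₁ \ Γ₁) (F k') := by
    intro k'
    rw [disjoint_left]
    rintro _ ⟨⟨y, hy, rfl⟩, hn⟩ hF
    exact hn (hmiss k' _ hF (by rw [s.hp.ri y (hD₁La hy)]; exact hy))
  obtain ⟨ψ, hψ, hψothN, hψoutN, hψim⟩ := M.move k₁ Fc (hi '' D₁) Γ₁ O hB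
    (fun x hx => ⟨(hFsub hx).1, fun hS => (hFsub hx).2 ⟨(hFsub hx).1, hS⟩⟩) hO hOF hDball hDO
    hDmiss
  have hψoth : ∀ k', k' ≠ k₁ → ∀ x ∈ F k', ψ x = x := fun k' hne x hx =>
    (hψothN k' hne x hx).self_of_nhds
  have hψout : ∀ x ∈ F k₁ \ Fc, ψ x = x := fun x hx => (hψoutN x hx).self_of_nhds
  have hin : ∀ x ∈ Fc, h (ψ x) ∈ D₁ := by
    intro x hx
    have h1 : ψ x ∈ hi '' D₁ := by rw [← hψim]; exact ⟨x, hx, rfl⟩
    obtain ⟨y, hy, e⟩ := h1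
    rw [← e, s.hp.ri y (hD₁La hy)]; exact hy
  have hint : ∀ x ∈ Fc, u (h (ψ x)) = t' := fun x hx =>
    (L.eq t' ht _ (hD₁La (hin x hx))).1 (hD₁.sub (hin x hx))
  have hcasesN : ∀ k', ∀ x ∈ F k', (∀ᶠ y in 𝓝 x, ψ y = y) ∨ (k' = k₁ ∧ x ∈ Fc) := by
    intro k' x hx
    by_cases hkk : k' = k₁
    · subst hkk
      by_cases hxF : x ∈ Fc
      · exact Or.inr ⟨rfl, hxF⟩
      · exact Or.inl (hψoutN x ⟨hx, hxF⟩)
    · exact Or.inl (hψothN k' hkk x hx)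
  have hcases : ∀ k', ∀ x ∈ F k', ψ x = x ∨ (k' = k₁ ∧ x ∈ Fc) := fun k' x hx =>
    (hcasesN k' x hx).imp (fun h => h.self_of_nhds) id
  have hm : MoveF (F k₁) (F k₁ ∩ S) (fun x => u (h x)) (fun x => u (h (ψ x))) Fc Γ₁ O t' :=
    { ball := hB
      sub := hFsub
      op := hO
      opF := hOF
      lev := fun x hx => (hΓL hx).2
      out := fun x hx => by
        show u (h (ψ x)) = u (h x)
        rw [hψout x hx]
      ins := hint }
  have hp' := HP.compS s.hp hψ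
  -- the half interval
  have hcore : ∀ a' b', a ≤ a' → b' ≤ b → t' ∉ Ioo a' b' →
      (∀ t ∈ Ioo a' b', ∃ x ∈ Fc, u (h x) = t) →
      (∀ k', ∀ x ∈ F k', u (h (ψ x)) ∈ Ioo a' b' → ∀ᶠ y in 𝓝 x, ψ y = y) ∧
        St Om La S F J u 𝒜 (Ioo a' b') (fun x => h (ψ x)) (fun y => ψ.symm (hi y)) ∧
        ∀ t ∈ Ioo a' b',
          (∑ k' ∈ J, {Γ | Circ (F k') (F k' ∩ S) (fun x => u (h (ψ x))) t Γ}.ncard) <
          ∑ k' ∈ J, {Γ | Circ (F k') (F k' ∩ S) (fun x => u (h x)) t Γ}.ncard := by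
    intro a' b' ha hb hn hatt
    have hI : Ioo a' b' ⊆ Ioo a b := Ioo_subset_Ioo ha hb
    have hne : ∀ t ∈ Ioo a' b', t ≠ t' := fun t ht e => hn (e ▸ ht)
    have hc' : ∀ k', ContinuousOn (fun x => u (h (ψ x))) (F k') := fun k' =>
      L.cont.comp (hp'.contOn.mono (M.sub k')) fun x hx => hp'.mt (M.sub k' hx)
    have heq : ∀ k', k' ≠ k₁ → EqOn (fun x => u (h x)) (fun x => u (h (ψ x))) (F k') :=
      fun k' hkk x hx => by
        show u (h x) = u (h (ψ x))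
        rw [hψoth k' hkk x hx]
    refine ⟨fun k' x hx hxI => ?_, ⟨hp', fun k' hk' => ?_, fun k' hk' x hx => ?_, ?_⟩, ?_⟩
    · rcases hcasesN k' x hx with h1 | ⟨rfl, h1⟩
      · exact h1
      · exfalso
        rw [hint x h1] at hxI
        exact hn hxI
    · have h1 := (s.lev k' hk').mono hI
      by_cases hkk : k' = k₁
      · subst hkk
        exact h1.move hm hn (hc' k')
      · exact h1.congr (heq k' hkk)
    · have hkk : k' ≠ k₁ := fun e => hk' (e ▸ hk₁)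
      show u (h (ψ x)) ∉ Ioo a' b'
      rw [hψoth k' hkk x hx]
      exact fun h1 => s.off k' hk' x hx (hI h1)
    · intro k' hk' t ht1 x hx hxt hne' D' hD'
      change u (h (ψ x)) = t at hxt
      rcases hcases k' x hx with h1 | ⟨rfl, h1⟩
      · rw [h1] at hxt ⊢
        refine s.rim k' hk' t (hI ht1) x hx hxt ?_ D' hD'
        by_cases hkk : k' = k₁
        · subst hkk
          have hxF : x ∉ Fc := by
            intro hxF
            have h2 := hint x hxF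
            rw [h1, hxt] at h2
            exact hne t ht1 h2
          have h3 := hm.comp_eq (hne t ht1) (show x ∈ Ls (F k') (fun x => u (h x)) t from
            ⟨hx, hxt⟩) hxF
          rw [h3] at hne'
          exact hne'
        · have h4 : Ls (F k') (fun x => u (h (ψ x))) t = Ls (F k') (fun x => u (h x)) t := by
            ext y
            constructor
            · rintro ⟨h5, h6⟩; exact ⟨h5, (heq k' hkk h5).trans h6⟩
            · rintro ⟨h5, h6⟩; exact ⟨h5, (heq k' hkk h5).symm.trans h6⟩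
          rw [h4] at hne'
          exact hne'
      · exfalso
        exact hne t ht1 (hxt.symm.trans (hint x h1))
    · intro t ht1
      apply Finset.sum_lt_sum
      · intro k' hk'
        by_cases hkk : k' = k₁
        · subst hkk
          exact hm.ncard_le (s.lev k' hk') (hI ht1) (hne t ht1)
        · apply le_of_eq
          have h4 : ∀ Γ, Circ (F k') (F k' ∩ S) (fun x => u (h (ψ x))) t Γ ↔
              Circ (F k') (F k' ∩ S) (fun x => u (h x)) t Γ :=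
            circ_congr (heq k' hkk) t
          simp only [h4]
      · exact ⟨k₁, hk₁, hm.ncard_lt (s.lev k₁ hk₁) (hI ht1) (hne t ht1) (hatt t ht1)⟩
  refine ⟨ψ, hψ, fun k' x hx => ?_, fun k' hk' x hx => ?_, ?_⟩
  · rcases hcasesN k' x hx with h1 | ⟨-, h1⟩
    · exact Or.inl h1
    · exact Or.inr (hsub (hin x h1))
  · refine hψothN k' (fun e => ?_) x hx
    subst e
    obtain ⟨z, hz⟩ := nonempty_of_disc hB
    have hzt : u (h z) = t' := (hΓL hz).2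
    exact hk' z (hΓL hz).1 (by rw [hzt]; exact ht)
  · rcases (s.lev k₁ hk₁).half ht hB hFsub hO hOF (fun x hx => (hΓL hx).2) with h1 | h1
    · exact ⟨a, t', le_rfl, ht.1, ht.2.le, hcore a t' le_rfl ht.2.le (fun h => lt_irrefl _ h.2) h1⟩
    · exact ⟨t', b, ht.1.le, ht.2, le_rfl, hcore t' b ht.1.le le_rfl (fun h => lt_irrefl _ h.1) h1⟩

/-- **the surgery** -/
theorem surgery (M : Mesh Om S F) (hA : ∀ t D D', 𝒜 t D → D' ⊆ D → 𝒜 t D') :
    ∀ (n : ℕ) (a b : ℝ), a < b → Lvls La u K Z (Ioo a b) →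
    ∀ h hi : E → E, St Om La S F J u 𝒜 (Ioo a b) h hi →
    (∀ t ∈ Ioo a b, (∑ k ∈ J, {Γ | Circ (F k) (F k ∩ S) (fun x => u (h x)) t Γ}.ncard) ≤ n) →
    ∃ ψ : E ≃ₜ E, MvS Om S ψ ∧
      (∀ k, ∀ x ∈ F k, (∀ᶠ y in 𝓝 x, ψ y = y) ∨ ∃ t ∈ Ioo a b, ∃ D Γ, 𝒜 t D ∧
        Side (K t) (Z t) D Γ ∧ h (ψ x) ∈ D) ∧
      (∀ k, (∀ x ∈ F k, u (h x) ∉ Ioo a b) → ∀ x ∈ F k, ∀ᶠ y in 𝓝 x, ψ y = y) ∧
      ∃ a' b', a ≤ a' ∧ a' < b' ∧ b' ≤ b ∧
        (∀ k, ∀ x ∈ F k, u (h (ψ x)) ∈ Ioo a' b' → ∀ᶠ y in 𝓝 x, ψ y = y) ∧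
        St Om La S F J u 𝒜 (Ioo a' b') (fun x => h (ψ x)) (fun y => ψ.symm (hi y)) ∧
        ∀ t ∈ Ioo a' b', ∀ k ∈ J, ∀ Γ, Circ (F k) (F k ∩ S) (fun x => u (h (ψ x))) t Γ →
          ∀ D, Side (K t) (Z t) D ((fun x => h (ψ x)) '' Γ) → ¬ 𝒜 t D := by
  intro n
  induction n with
  | zero =>
    intro a b hab L h hi s hn
    refine ⟨Homeomorph.refl E, MvS.refl, fun k x _ => Or.inl (Eventually.of_forall fun _ => rfl),
      fun k _ x _ => Eventually.of_forall fun _ => rfl, a, b,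
      le_rfl, hab, le_rfl, fun k x _ _ => Eventually.of_forall fun _ => rfl, s, ?_⟩
    intro t ht k hk Γ hΓ D hD hAD
    have h1 := hn t ht
    have h2 : {Γ | Circ (F k) (F k ∩ S) (fun x => u (h x)) t Γ}.ncard = 0 := by
      have := Finset.single_le_sum (f := fun k => {Γ | Circ (F k) (F k ∩ S)
        (fun x => u (h x)) t Γ}.ncard) (fun _ _ => Nat.zero_le _) hk
      omega
    rw [Set.ncard_eq_zero ((s.lev k hk).fin t ht)] at h2
    exact (eq_empty_iff_forall_notMem.1 h2) Γ hΓ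
  | succ n ih =>
    intro a b hab L h hi s hn
    by_cases hgood : ∀ t ∈ Ioo a b, ∀ k ∈ J, ∀ Γ, Circ (F k) (F k ∩ S) (fun x => u (h x)) t Γ →
          ∀ D, Side (K t) (Z t) D (h '' Γ) → ¬ 𝒜 t D
    · exact ⟨Homeomorph.refl E, MvS.refl, fun k x _ => Or.inl (Eventually.of_forall fun _ => rfl),
        fun k _ x _ => Eventually.of_forall fun _ => rfl, a, b,
        le_rfl, hab, le_rfl, fun k x _ _ => Eventually.of_forall fun _ => rfl, s, hgood⟩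
    · push Not at hgood
      obtain ⟨t, ht, k, hk, Γ, hΓ, D, hD, hAD⟩ := hgood
      obtain ⟨ψ₁, m1, c1, u1, a', b', ha', hab', hb', e1, s1, n1⟩ :=
        s.step M L hA ht hk hΓ hD hAD
      have hI : Ioo a' b' ⊆ Ioo a b := Ioo_subset_Ioo ha' hb'
      have hcomp : ∀ {ψ₂ : E ≃ₜ E} {x : E}, (∀ᶠ y in 𝓝 x, ψ₂ y = y) → (∀ᶠ y in 𝓝 x, ψ₁ y = y) →
          ∀ᶠ y in 𝓝 x, (ψ₂.trans ψ₁) y = y := by
        intro ψ₂ x h1 h2
        filter_upwards [h1, h2] with y g1 g2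
        show ψ₁ (ψ₂ y) = y
        rw [g1, g2]
      obtain ⟨ψ₂, m2, c2, u2, a'', b'', ha'', hab'', hb'', e2, s2, g2⟩ :=
        ih a' b' hab' (L.mono hI) _ _ s1 (fun t ht => by
          have h1 := n1 t ht
          have h2 := hn t (hI ht)
          omega)
      refine ⟨ψ₂.trans ψ₁, m2.trans m1, fun k x hx => ?_, fun k hk x hx => ?_, a'', b'',
        ha'.trans ha'', hab'', hb''.trans hb', fun k x hx hxI => ?_, s2, g2⟩
      · show (∀ᶠ y in 𝓝 x, ψ₁ (ψ₂ y) = y) ∨ ∃ t ∈ Ioo a b, ∃ D Γ, 𝒜 t D ∧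
          Side (K t) (Z t) D Γ ∧ h (ψ₁ (ψ₂ x)) ∈ D
        rcases c2 k x hx with h1 | ⟨t1, ht1, D1, Γ1, hA1, hS1, hx1⟩
        · rcases c1 k x hx with h2 | h2
          · exact Or.inl (hcomp h1 h2)
          · rw [h1.self_of_nhds]
            exact Or.inr ⟨t, ht, D, _, hAD, hD, h2⟩
        · exact Or.inr ⟨t1, hI ht1, D1, Γ1, hA1, hS1, hx1⟩
      · have h1 : ∀ y ∈ F k, ∀ᶠ z in 𝓝 y, ψ₁ z = z := u1 k hk
        exact hcomp (u2 k (fun y hy => by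
          show u (h (ψ₁ y)) ∉ Ioo a' b'
          rw [(h1 y hy).self_of_nhds]
          exact fun hc => hk y hy (hI hc)) x hx) (h1 x hx)
      · have h1 := e2 k x hx hxI
        have h2 : u (h (ψ₁ (ψ₂ x))) ∈ Ioo a'' b'' := hxI
        rw [h1.self_of_nhds] at h2
        exact hcomp h1 (e1 k x hx (Ioo_subset_Ioo ha'' hb'' h2))

end Main

end Crest.Agent.R096.Srg_465
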