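import Crest.Agent.R096.Lm2_812
import Crest.Agent.R096.Pb1_812
import Crest.Agent.R096.Srg3_465

/-!
# The local move in a tiling (helper812, row 96, 2SK)

`vp_cc`: closed cells of a tiling are V-polytopes.  `disc_move_E`: the local move in any
3-dimensional space.  `mesh_of_tiling`: the instance of `Srg_465.Mesh`.
-/

set_option autoImplicit false

namespace Crest.Agent.R096.Lm_812

open Set Metric Crest.Agent.R096.Pl Crest.Agent.R096.Ce_537

section VP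

variable {V W : Type*} [NormedAddCommGroup V] [NormedSpace ℝ V]
  [NormedAddCommGroup W] [NormedSpace ℝ W]

theorem vp_image {C : Set V} (h : VP C) (a : V →ᵃ[ℝ] W) : VP (a '' C) := by
  obtain ⟨s, hs, rfl⟩ := h
  exact ⟨a '' s, hs.image _, a.image_convexHull s⟩

/-- a compact set lies in a V-polytope -/
theorem exists_vp_supset [FiniteDimensional ℝ V] {K : Set V} (hK : IsCompact K) :
    ∃ B, VP B ∧ K ⊆ B := by
  let e : V ≃L[ℝ] (Fin (Module.finrank ℝ V) → ℝ) :=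
    (Module.finBasis ℝ V).equivFun.toContinuousLinearEquiv
  obtain ⟨R, hR⟩ := (hK.image e.continuous).isBounded.subset_closedBall 0
  let R' := max R 1
  have hR' : 0 < R' := lt_max_of_lt_right one_pos
  let L : (Fin (Module.finrank ℝ V) → ℝ) →ₗ[ℝ] V := (e.symm : _ →ₗ[ℝ] V).comp (R' • LinearMap.id)
  refine ⟨L.toAffineMap '' closedBall 0 1, vp_image (Cb_609.vp_cube _) _, fun x hx => ?_⟩
  refine ⟨(R')⁻¹ • e x, ?_, ?_⟩
  · rw [mem_closedBall, dist_zero_right, norm_smul, norm_inv, Real.norm_eq_abs, abs_of_pos hR']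
    have h1 : ‖e x‖ ≤ R := by
      have := hR ⟨x, hx, rfl⟩
      rwa [mem_closedBall, dist_zero_right] at this
    rw [inv_mul_le_iff₀ hR', mul_one]
    exact h1.trans (le_max_left _ _)
  · show e.symm (R' • ((R')⁻¹ • e x)) = x
    rw [smul_smul, mul_inv_cancel₀ hR'.ne', one_smul, e.symm_apply_apply]

theorem vp_inter_le {C : Set V} (hC : VP C) (h : (V →L[ℝ] ℝ) × ℝ) :
    VP (C ∩ {y | h.1 y ≤ h.2}) := by
  have e : {y : V | h.1 y ≤ h.2} =
      {y | 0 ≤ (AffineMap.const ℝ V h.2 - (h.1 : V →ₗ[ℝ] ℝ).toAffineMap) y} := by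
    ext y
    simp
  rw [e]; exact hC.inter_nonneg _

theorem vp_inter_ge {C : Set V} (hC : VP C) (h : (V →L[ℝ] ℝ) × ℝ) :
    VP (C ∩ {y | h.2 ≤ h.1 y}) := by
  have e : {y : V | h.2 ≤ h.1 y} =
      {y | 0 ≤ ((h.1 : V →ₗ[ℝ] ℝ).toAffineMap - AffineMap.const ℝ V h.2) y} := by
    ext y
    simp
  rw [e]; exact hC.inter_nonneg _

theorem vp_inter_fc {B : Set V} (hB : VP B) (x : V) (s : Finset ((V →L[ℝ] ℝ) × ℝ)) :
    VP (B ∩ {y | ∀ h ∈ s, h.1 y ≤ h.2 ∧ (h.1 x = h.2 → h.1 y = h.2)}) := by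
  classical
  induction s using Finset.induction_on with
  | empty => simpa using hB
  | insert h s _ ih =>
    by_cases hx : h.1 x = h.2
    · have e : B ∩ {y | ∀ k ∈ insert h s, k.1 y ≤ k.2 ∧ (k.1 x = k.2 → k.1 y = k.2)} =
          (B ∩ {y | ∀ k ∈ s, k.1 y ≤ k.2 ∧ (k.1 x = k.2 → k.1 y = k.2)}) ∩ {y | h.1 y ≤ h.2} ∩
            {y | h.2 ≤ h.1 y} := by
        ext y
        simp only [mem_inter_iff, mem_ofPred_eq, Finset.mem_insert, forall_eq_or_imp]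
        constructor
        · rintro ⟨h1, ⟨h2, h3⟩, h4⟩
          exact ⟨⟨⟨h1, h4⟩, h2⟩, (h3 hx).ge⟩
        · rintro ⟨⟨⟨h1, h4⟩, h2⟩, h3⟩
          exact ⟨h1, ⟨h2, fun _ => le_antisymm h2 h3⟩, h4⟩
      rw [e]
      exact vp_inter_ge (vp_inter_le ih h) h
    · have e : B ∩ {y | ∀ k ∈ insert h s, k.1 y ≤ k.2 ∧ (k.1 x = k.2 → k.1 y = k.2)} =
          (B ∩ {y | ∀ k ∈ s, k.1 y ≤ k.2 ∧ (k.1 x = k.2 → k.1 y = k.2)}) ∩ {y | h.1 y ≤ h.2} := by
        ext y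
        simp only [mem_inter_iff, mem_ofPred_eq, Finset.mem_insert, forall_eq_or_imp]
        constructor
        · rintro ⟨h1, ⟨h2, h3⟩, h4⟩
          exact ⟨⟨h1, h4⟩, h2⟩
        · rintro ⟨⟨h1, h4⟩, h2⟩
          exact ⟨h1, ⟨h2, fun h5 => absurd h5 hx⟩, h4⟩
      rw [e]
      exact vp_inter_le ih h

/-- closed cells of a tiling are V-polytopes -/
theorem vp_cc [FiniteDimensional ℝ V] {Om : Set V} {ι : Type*} (T : Msh_715.Tiling Om ι) {x : V}
    (hx : x ∈ Om) : VP (T.cc x) := by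
  obtain ⟨B, hB, hsub⟩ := exists_vp_supset (T.isCompact_cc hx)
  have h := vp_inter_fc hB x (T.Hx hx)
  have e : B ∩ {y | ∀ h ∈ T.Hx hx, h.1 y ≤ h.2 ∧ (h.1 x = h.2 → h.1 y = h.2)} = T.cc x := by
    have := T.fc_Hx hx
    rw [← this]
    exact inter_eq_right.2 (by
      have h2 : Msh_715.fc (T.Hx hx) x = T.cc x := this
      intro y hy
      exact hsub (h2 ▸ hy))
  rwa [e] at h

end VP

section Move

variable {E : Type*} [NormedAddCommGroup E] [NormedSpace ℝ E] [FiniteDimensional ℝ E]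

/-- **the local move in a 3-dimensional space** -/
theorem disc_move_E (h3 : Module.finrank ℝ E = 3)
    (hP2 : ∀ A B Γ : Set ((ℝ × ℝ) × ℝ), IsBall 2 A Γ → IsBall 2 B Γ → A ∩ B = Γ → StdS A B)
    {P Q Γ Fc D U : Set E} (hPc : Convex ℝ P) (hPk : IsClosed P) (hQ : VP Q)
    (hQP : Q ⊆ frontier P) (hFcQ : Fc ⊆ Q) (hrel : ∃ O, IsOpen O ∧ O ∩ Q = Fc \ Γ)
    (hFc : IsBall 2 Fc Γ) (hD : IsBall 2 D Γ) (hDi : D \ Γ ⊆ interior P)
    (hU : IsOpen U) (hPU : interior P ⊆ U) (hFU : Fc ⊆ U) :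
    ∃ ψ : E ≃ₜ E, PLH ψ ∧
      (∃ C ⊆ U, IsCompact C ∧ ∀ x ∉ C, ψ x = x) ∧
      (∀ x ∈ Q \ Fc, ∀ᶠ y in nhds x, ψ y = y) ∧ ψ '' Fc = D := by
  have hfr : Module.finrank ℝ E = Module.finrank ℝ ((ℝ × ℝ) × ℝ) := by
    rw [h3]; simp
  let e : E ≃L[ℝ] ((ℝ × ℝ) × ℝ) := ContinuousLinearEquiv.ofFinrankEq hfr
  let G : E ≃ₜ ((ℝ × ℝ) × ℝ) := e.toHomeomorph
  have hG : PLH G := PLH_clm e
  have hGe : ∀ A : Set E, G '' A = (e : E →ₗ[ℝ] ((ℝ × ℝ) × ℝ)).toAffineMap '' A := fun A => rfl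
  obtain ⟨O, hO, hOQ⟩ := hrel
  obtain ⟨ψ, h1, ⟨C, hCU, hC, hCψ⟩, h2, h3', -, -⟩ := disc_move_near hP2 (P := G '' P) (Q := G '' Q)
    (Γ := G '' Γ) (Fc := G '' Fc) (D := G '' D) (U := G '' U)
    (by rw [hGe]; exact hPc.affine_image _) (G.isClosedMap _ hPk)
    (by rw [hGe]; exact vp_image hQ _)
    (by rw [← G.image_frontier]; exact image_mono hQP) (image_mono hFcQ)
    ⟨G '' O, G.isOpenMap _ hO, by
      rw [← image_inter G.injective, hOQ, image_sdiff G.injective]⟩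
    (hFc.plh hG) (hD.plh hG)
    (by rw [← image_sdiff G.injective, ← G.image_interior]; exact image_mono hDi)
    (G.isOpenMap _ hU) (by rw [← G.image_interior]; exact image_mono hPU) (image_mono hFU)
  refine ⟨G.trans (ψ.trans G.symm), hG.trans (h1.trans hG.symm), ⟨G.symm '' C, ?_,
    hC.image G.symm.continuous, ?_⟩, ?_, ?_⟩
  · rintro _ ⟨y, hy, rfl⟩
    obtain ⟨x, hx, rfl⟩ := hCU hy
    rwa [G.symm_apply_apply]
  · intro x hx
    show G.symm (ψ (G x)) = x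
    rw [hCψ (G x) (fun h => hx ⟨G x, h, G.symm_apply_apply x⟩), G.symm_apply_apply]
  · rintro x ⟨hxQ, hxF⟩
    have h4 := h2 (G x) ⟨⟨x, hxQ, rfl⟩, fun ⟨y, hy, hxy⟩ => hxF (G.injective hxy ▸ hy)⟩
    have h5 := G.continuous.continuousAt.eventually h4
    filter_upwards [h5] with y hy
    show G.symm (ψ (G y)) = y
    rw [hy, G.symm_apply_apply]
  · have : (G.trans (ψ.trans G.symm)) '' Fc = G.symm '' (ψ '' (G '' Fc)) := by
      rw [← image_comp, ← image_comp]; rfl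
    rw [this, h3', ← image_comp]
    have e2 : (G.symm ∘ G : E → E) = id := by funext x; simp
    rw [e2, image_id]

end Move

end Crest.Agent.R096.Lm_812
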