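import Crest.Agent.R096.Lm5_117
import Crest.Agent.R096.Cm3_117
import Crest.Agent.R096.Arc7_778

/-!
# R096 (row 96), LMesh, part 6: the combinatorial input `CmbG` of helper778 (helper117)

`PD C W` : the pieces of the cells are classes of points.  `PD.cmbG`.
Instances: `pdT` (CMB over a tiling), `pd` (CMB over a labelled mesh).
-/

set_option autoImplicit false
set_option linter.unusedSectionVars false

open Set

namespace Crest.Agent.R096.Lm_117

open Crest.Agent.R096.St_147 Crest.Agent.R096.Ac_117 Crest.Agent.R096.Seq_213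
open Crest.Agent.R096.Bd_416 (Cmb)
open Crest.Agent.R096.Arc_778 (Blw CmbG)

/-- the pieces are classes of points -/
structure PD {Q : Type} [PartialOrder Q] {dim : Q → ℕ} {J C : Type} (K : Cmb Q dim J C)
    (W : Type) where
  /-- the points of the cell -/
  A : Q → Set W
  /-- the piece of a point -/
  cls : ∀ q, {w // w ∈ A q} → K.I q
  sur : ∀ q, Function.Surjective (cls q)
  mono : ∀ {p q}, p ≤ q → A p ⊆ A q
  up : ∀ {p q} (h : p < q) (w : {w // w ∈ A p}), K.up h (cls p w) = cls q ⟨w.1, mono h.le w.2⟩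
  /-- the edge of a point -/
  ed : W → Q
  ed_dim : ∀ q, ∀ w ∈ A q, dim (ed w) = 1
  ed_le : ∀ q, ∀ w ∈ A q, ed w ≤ q
  ed_mem : ∀ q, ∀ w ∈ A q, w ∈ A (ed w)
  inj : ∀ e, dim e = 1 → Function.Injective (cls e)
  /-- the partner -/
  mu : Q → W → W
  mu_mem : ∀ F, dim F = 2 → ∀ w ∈ A F, mu F w ∈ A F
  mu_ne : ∀ F, dim F = 2 → ∀ w ∈ A F, mu F w ≠ w
  mu_mk : ∀ F (h : dim F = 2) w (hw : w ∈ A F), cls F ⟨mu F w, mu_mem F h w hw⟩ = cls F ⟨w, hw⟩
  two : ∀ F, dim F = 2 → ∀ w w' : {w // w ∈ A F}, cls F w = cls F w' → w'.1 = w.1 ∨ w'.1 = mu F w.1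
  ind : ∀ q, dim q = 3 → ∀ S : Set W,
    (∀ F, dim F = 2 → F < q → ∀ w ∈ A F, w ∈ S → mu F w ∈ S) →
    ∀ w w' : {w // w ∈ A q}, cls q w = cls q w' → w.1 ∈ S → w'.1 ∈ S
  dim_lt : ∀ c d : Q, c < d → dim c < dim d

namespace PD

variable {Q : Type} [PartialOrder Q] {dim : Q → ℕ} {J C : Type} {K : Cmb Q dim J C} {W : Type}
  (D : PD K W)

/-- the edge piece of a point -/
def sg (w : W) (h : w ∈ D.A (D.ed w)) : Σ e, K.I e := ⟨D.ed w, D.cls _ ⟨w, h⟩⟩

lemma ed_eq {e : Q} (he : dim e = 1) {w : W} (h : w ∈ D.A e) : D.ed w = e := by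
  rcases eq_or_lt_of_le (D.ed_le e w h) with h1 | h1
  · exact h1
  · have h2 := D.dim_lt _ _ h1
    rw [D.ed_dim e w h, he] at h2
    exact absurd h2 (lt_irrefl _)

lemma sg_eq {e : Q} (he : dim e = 1) {w : W} (h : w ∈ D.A e) (h' : w ∈ D.A (D.ed w)) :
    D.sg w h' = ⟨e, D.cls e ⟨w, h⟩⟩ := by
  have h1 := D.ed_eq he h
  subst h1
  rfl

lemma sg_inj {w w' : W} (h : w ∈ D.A (D.ed w)) (h' : w' ∈ D.A (D.ed w'))
    (he : D.sg w h = D.sg w' h') : w = w' := by
  have h1 : D.ed w = D.ed w' := congrArg Sigma.fst he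
  have h2 : w' ∈ D.A (D.ed w) := by rw [h1]; exact h'
  have hd := D.ed_dim _ _ h
  rw [D.sg_eq hd h h, D.sg_eq hd h2 h'] at he
  have h3 := eq_of_heq (Sigma.mk.inj he).2
  exact congrArg Subtype.val (D.inj _ hd h3)

/-- the edge points of a piece -/
lemma mem_blw {q : Q} (hq : 2 ≤ dim q) {x : K.I q} {v : Σ e, K.I e} :
    v ∈ Blw K q x ↔ ∃ w, ∃ hw : w ∈ D.A q, D.cls q ⟨w, hw⟩ = x ∧ v = D.sg w (D.ed_mem q w hw) := by
  constructor
  · rintro ⟨h1, h2, h3⟩
    obtain ⟨e, y⟩ := v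
    obtain ⟨⟨w, hw⟩, rfl⟩ := D.sur e y
    refine ⟨w, D.mono h2.le hw, ?_, ?_⟩
    · rw [← h3, D.up]
    · rw [D.sg_eq h1 hw]
  · rintro ⟨w, hw, rfl, rfl⟩
    have h1 : dim (D.ed w) = 1 := D.ed_dim q w hw
    have h2 : D.ed w < q := by
      refine lt_of_le_of_ne (D.ed_le q w hw) (fun h => ?_)
      rw [h] at h1
      omega
    exact ⟨h1, h2, D.up h2 _⟩

include D in
/-- the chords have two points -/
theorem ends (F : Q) (hF : dim F = 2) (y : K.I F) : ∃ a b, a ≠ b ∧ Blw K F y = {a, b} := by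
  obtain ⟨⟨w, hw⟩, rfl⟩ := D.sur F y
  have hm := D.mu_mem F hF w hw
  refine ⟨D.sg w (D.ed_mem F w hw), D.sg _ (D.ed_mem F _ hm), ?_, ?_⟩
  · intro h
    exact D.mu_ne F hF w hw (D.sg_inj _ _ h).symm
  · ext v
    rw [D.mem_blw hF.ge]
    simp only [mem_insert_iff, mem_singleton_iff]
    constructor
    · rintro ⟨w', hw', h1, rfl⟩
      rcases D.two F hF ⟨w, hw⟩ ⟨w', hw'⟩ h1.symm with h2 | h2
      · left
        have h2' : w' = w := h2
        subst h2'; rfl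
      · right
        have h2' : w' = D.mu F w := h2
        subst h2'; rfl
    · rintro (rfl | rfl)
      · exact ⟨w, hw, rfl, rfl⟩
      · exact ⟨_, hm, D.mu_mk F hF w hw, rfl⟩

include D in
/-- the curve of a piece -/
theorem loop {q : Q} (hq : dim q = 3)
    (two : ∀ e, dim e = 1 → e < q → Nonempty (K.I e) →
      ∃ F F', F ≠ F' ∧ {F | dim F = 2 ∧ e < F ∧ F < q} = {F, F'}) (x : K.I q) :
    Arc_778.Loop K q x where
  ends F hF _ y := D.ends F hF y
  two := two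
  ne := by
    obtain ⟨⟨w, hw⟩, rfl⟩ := D.sur q x
    exact ⟨_, (D.mem_blw (by omega)).2 ⟨w, hw, rfl, rfl⟩⟩
  conn := by
    intro G hG hne hcl
    apply Subset.antisymm hG
    intro v hv
    obtain ⟨w', hw', h1, rfl⟩ := (D.mem_blw (by omega)).1 hv
    obtain ⟨v0, hv0⟩ := hne
    obtain ⟨w, hw, h2, rfl⟩ := (D.mem_blw (by omega)).1 (hG hv0)
    have := D.ind q hq {w | ∃ h : w ∈ D.A (D.ed w), D.sg w h ∈ G} (by
      intro F hF hFq u hu huS
      obtain ⟨h3, h4⟩ := huS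
      have h5 : D.ed u < F := by
        refine lt_of_le_of_ne (D.ed_le F u hu) (fun h => ?_)
        have h6 := D.ed_dim F u hu
        rw [h, hF] at h6
        omega
      have h6 := hcl _ h4 F hF h5 hFq
      have hm := D.mu_mem F hF u hu
      refine ⟨D.ed_mem F _ hm, h6 ?_⟩
      rw [D.mem_blw hF.ge]
      refine ⟨_, hm, ?_, rfl⟩
      rw [D.mu_mk F hF u hu]
      exact (D.up h5 ⟨u, h3⟩).symm) ⟨w, hw⟩ ⟨w', hw'⟩ (h2.trans h1.symm) ⟨_, hv0⟩
    exact this.choose_spec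

include D in
/-- **`CmbG`** -/
theorem cmbG {R : Set Q} {k : ∀ q, K.I q → ℕ} (dim_le : ∀ q, dim q ≤ 3)
    (hk : ∀ q ∉ R, dim q = 1 → Function.Injective (k q))
    (two : ∀ q ∉ R, dim q = 3 → ∀ e, dim e = 1 → e < q → Nonempty (K.I e) →
      ∃ F F', F ≠ F' ∧ {F | dim F = 2 ∧ e < F ∧ F < q} = {F, F'}) : CmbG K R k where
  dim_le := dim_le
  inj := hk
  ends F _ hF y := D.ends F hF y
  loop q hq h3 x := D.loop h3 (two q hq h3) x

end PD

/-! ### the instance over a labelled mesh -/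

section lm

variable {ι Φ W Q J C : Type} {M : MeshC ι Φ W} [PartialOrder Q] {dim : Q → ℕ}

/-- the cells of a labelled mesh: 2-cells are faces, 3-cells are tiles -/
structure Top3 (L : LM M Q dim) : Prop where
  dim_le : ∀ c, dim c ≤ 3
  cf_sur : ∀ c, dim c = 2 → ∃ F, L.cf F = c
  tile : ∀ c, dim c = 3 → ∃ q : ι, ∀ F, q ∈ M.side F ↔ L.cf F ≤ c
  mid : ∀ c, dim c = 3 → ∀ e, dim e = 1 → e < c → ∃ F, e ≤ L.cf F ∧ L.cf F ≤ c

variable {L : LM M Q dim} (X : Top3 L) {fam : J → C} {s : GSt M fam}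

include X in
/-- two faces at an edge of a 3-cell which has a candidate point -/
theorem two_faces {q : Q} (hq : dim q = 3) {w : W} (hw : w ∈ L.W1) (hwq : L.ed w < q) :
    ∃ F F', F ≠ F' ∧ {F | dim F = 2 ∧ L.ed w < F ∧ F < q} = {F, F'} := by
  obtain ⟨i, hi⟩ := X.tile q hq
  obtain ⟨F0, h1, h2⟩ := X.mid q hq _ (L.ed_dim w hw) hwq
  have h3 : {F | i ∈ M.side F ∧ w ∈ M.On F}.ncard = 2 := by
    rcases M.deg i w with h | h
    · exfalso
      have hfin : {F | i ∈ M.side F ∧ w ∈ M.On F}.Finite :=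
        (M.fin w).subset fun F hF => hF.2
      rw [Set.ncard_eq_zero hfin] at h
      have : F0 ∈ {F | i ∈ M.side F ∧ w ∈ M.On F} := ⟨(hi F0).2 h2, (L.on_iff F0 w).2 ⟨hw, h1⟩⟩
      rw [h] at this
      exact this
    · exact h
  obtain ⟨F, F', hne, he⟩ := Set.ncard_eq_two.1 h3
  refine ⟨L.cf F, L.cf F', fun h => hne (L.cf_inj _ _ h), ?_⟩
  ext G
  have hG : ∀ G : Φ, G ∈ {F | i ∈ M.side F ∧ w ∈ M.On F} ↔ L.ed w < L.cf G ∧ L.cf G < q := by
    intro G
    simp only [mem_ofPred_eq]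
    rw [hi, L.on_iff]
    constructor
    · rintro ⟨a1, -, a2⟩
      refine ⟨lt_of_le_of_ne a2 fun h => ?_, lt_of_le_of_ne a1 fun h => ?_⟩
      · have := L.ed_dim w hw
        rw [h, L.cf_dim] at this
        omega
      · have := L.cf_dim G
        rw [h, hq] at this
        omega
    · rintro ⟨a1, a2⟩
      exact ⟨a2.le, hw, a1.le⟩
  simp only [mem_ofPred_eq, mem_insert_iff, mem_singleton_iff]
  constructor
  · rintro ⟨a1, a2, a3⟩
    obtain ⟨G, rfl⟩ := X.cf_sur G a1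
    have h4 := (hG G).2 ⟨a2, a3⟩
    rw [he] at h4
    rcases h4 with h4 | h4
    · left; rw [h4]
    · right; rw [h4]
  · rintro (rfl | rfl)
    · have h4 : F ∈ ({F, F'} : Set Φ) := by simp
      rw [← he, hG] at h4
      exact ⟨L.cf_dim F, h4.1, h4.2⟩
    · have h4 : F' ∈ ({F, F'} : Set Φ) := by simp
      rw [← he, hG] at h4
      exact ⟨L.cf_dim F', h4.1, h4.2⟩

open Classical in
/-- the partner on a 2-cell -/
noncomputable def muQ (L : LM M Q dim) (s : GSt M fam) (c : Q) (w : W) : W :=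
  if h : ∃ F, L.cf F = c then s.mu h.choose w else w

lemma muQ_cf (F : Φ) (w : W) : muQ L s (L.cf F) w = s.mu F w := by
  have h : ∃ F', L.cf F' = L.cf F := ⟨F, rfl⟩
  unfold muQ
  rw [dif_pos h, L.cf_inj _ _ h.choose_spec]

/-- invariants of the pieces -/
lemma quot_inv {c : Q} (p : W → Prop)
    (hp : ∀ (F : Φ), L.cf F ≤ c → ∀ w ∈ s.P, w ∈ M.On F → p w → p (s.mu F w))
    {a b : Pt L s c} (hab : (Quot.mk _ a : Pc L s c) = Quot.mk _ b) (ha : p a.1) : p b.1 := by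
  let g : Pc L s c → Prop := Quot.lift (fun a => p a.1) (by
    rintro a b ⟨F, hF, haF, hb⟩
    apply propext
    constructor
    · intro h
      rw [hb]
      exact hp F hF a.1 a.2.1 haF h
    · intro h
      have hm := s.mu_mem a.2.1 haF
      rw [hb] at h
      have := hp F hF _ hm.1 hm.2 h
      rwa [s.mu_mu a.2.1 haF] at this)
  have h1 : g (Quot.mk _ a) = p a.1 := rfl
  have h2 : g (Quot.mk _ b) = p b.1 := rfl
  rw [← h2, ← hab, h1]
  exact ha

variable (h : LF L s) (Lam : J → Q → ZMod 2) (hLam : ∀ j c, L.toSk.XL (gP s j) (Lam j) c)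

/-- **the pieces of `cmb` are classes of points** -/
noncomputable def pd : PD (cmb h Lam hLam) W where
  A q := {w | w ∈ s.P ∧ w ∈ L.toSk.In q}
  cls q w := Quot.mk _ w
  sur q := Quot.mk_surjective
  mono hpq w hw := ⟨hw.1, Sk.In_mono hpq hw.2⟩
  up h w := rfl
  ed := L.ed
  ed_dim q w hw := L.ed_dim w hw.2.1
  ed_le q w hw := hw.2.2
  ed_mem q w hw := ⟨hw.1, hw.2.1, le_rfl⟩
  inj e he w w' hww := by
    apply Subtype.ext
    have := quot_inv (L := L) (s := s) (c := e) (fun x => x = w.1) (by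
      intro F hF
      exfalso
      have := dim_le' L.toSk hF
      rw [L.cf_dim, he] at this
      omega) hww rfl
    exact this.symm
  mu := muQ L s
  mu_mem q hq w hw := by
    obtain ⟨F, rfl⟩ := X.cf_sur q hq
    rw [muQ_cf]
    have := s.mu_mem hw.1 (on_of_in hw.2)
    exact ⟨this.1, on_in le_rfl this.2⟩
  mu_ne q hq w hw := by
    obtain ⟨F, rfl⟩ := X.cf_sur q hq
    rw [muQ_cf]
    exact s.mu_ne hw.1 (on_of_in hw.2)
  mu_mk q hq w hw := by
    obtain ⟨F, rfl⟩ := X.cf_sur q hq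
    exact (Quot.sound (r := Rel L s (L.cf F)) ⟨F, le_rfl, on_of_in hw.2, muQ_cf F w⟩).symm
  two q hq w w' hww := by
    obtain ⟨F, rfl⟩ := X.cf_sur q hq
    rw [muQ_cf]
    have hwF := on_of_in w.2.2
    refine quot_inv (L := L) (s := s) (c := L.cf F) (fun x => x = w.1 ∨ x = s.mu F w.1) ?_ hww
      (Or.inl rfl)
    intro G hG u hu huG hh
    have hGF : G = F := L.cf_inj _ _ (eq_of_dim L.toSk hG (by rw [L.cf_dim, L.cf_dim]))
    subst hGF
    rcases hh with rfl | rfl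
    · exact Or.inr rfl
    · left
      exact s.mu_mu w.2.1 hwF
  ind q hq S hS w w' hww hw := by
    refine quot_inv (L := L) (s := s) (c := q) (fun x => x ∈ S) ?_ hww hw
    intro F hF u hu huF huS
    have h1 := hS (L.cf F) (L.cf_dim F) (lt_of_le_of_ne hF fun h => by
      have := L.cf_dim F
      rw [h, hq] at this
      omega) u ⟨hu, on_in le_rfl huF⟩ huS
    rwa [muQ_cf] at h1
  dim_lt := L.dim_lt

include X in
/-- **`CmbG` for `cmb` over a labelled mesh** -/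
theorem cmbG_lm {R : Set Q} {k : ∀ q, (cmb h Lam hLam).I q → ℕ}
    (hk : ∀ q ∉ R, dim q = 1 → Function.Injective (k q)) : CmbG (cmb h Lam hLam) R k :=
  (pd X h Lam hLam).cmbG X.dim_le hk (by
    intro q _ hq e he heq ⟨y⟩
    obtain ⟨w, -⟩ := Quot.exists_rep y
    have h1 : L.ed w.1 = e := eq_of_dim L.toSk w.2.2.2 (by rw [he, L.ed_dim _ w.2.2.1])
    rw [← h1] at heq ⊢
    exact two_faces X hq w.2.2.1 heq)

end lm

end Crest.Agent.R096.Lm_117
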