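import Crest.Agent.R096.Brk5_582

/-!
# R096 (row 96), helper609: LIP-MERGE, part 1

The map `T b u = ∫ τ in 0..1, b {c | u c ≤ τ}` of the cube complex (helper582) is Lipschitz in the
label coordinates: `‖T b u - T b u'‖ ≤ D * ∑ c ∈ S, |u c - u' c|`.
-/

set_option autoImplicit false
set_option linter.unusedSectionVars false
set_option linter.unusedVariables false

open Set MeasureTheory Filter Topology

namespace Crest.Agent.R096.Lmg_609

open Crest.Agent.R096.Brk1_582 Crest.Agent.R096.Brk3_582 Crest.Agent.R096.Brk5_582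
open Crest.Agent.R096.Bsp_628

section gen

variable {E : Type*} [NormedAddCommGroup E] [NormedSpace ℝ E] {I : Type*}

lemma int_ind (a c : ℝ) :
    IntervalIntegrable (fun τ : ℝ => (Ico (min a c) (max a c)).indicator (fun _ => (1:ℝ)) τ)
      volume 0 1 ∧
    ∫ τ in (0:ℝ)..1, (Ico (min a c) (max a c)).indicator (fun _ => (1:ℝ)) τ ≤ |a - c| := by
  have hint : Integrable (fun τ : ℝ => (Ico (min a c) (max a c)).indicator (fun _ => (1:ℝ)) τ) := by
    refine (integrable_indicator_iff measurableSet_Ico).2 ?_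
    exact integrableOn_const (by simp)
  refine ⟨hint.intervalIntegrable, ?_⟩
  rw [intervalIntegral.integral_of_le zero_le_one]
  calc ∫ τ in Ioc (0:ℝ) 1, (Ico (min a c) (max a c)).indicator (fun _ => (1:ℝ)) τ
      ≤ ∫ τ, (Ico (min a c) (max a c)).indicator (fun _ => (1:ℝ)) τ := by
        refine setIntegral_le_integral hint ?_
        exact Eventually.of_forall fun τ => indicator_nonneg (fun _ _ => zero_le_one) _
    _ = |a - c| := by
        rw [integral_indicator measurableSet_Ico, setIntegral_const, smul_eq_mul, mul_one,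
          Measure.real, Real.volume_Ico, ENNReal.toReal_ofReal (by
            have := min_le_max (a := a) (b := c); linarith)]
        exact max_sub_min_eq_abs' a c

/-- **`T` is Lipschitz in the label coordinates** -/
theorem T_lip {b : Set I → E} {u u' : I → ℝ} (h : {c | u c < 1}.Finite) (h' : {c | u' c < 1}.Finite)
    (S : Finset I) (hS : ∀ c, c ∉ S → u c = u' c ∨ (1 ≤ u c ∧ 1 ≤ u' c)) {D : ℝ}
    (hD : ∀ τ ∈ Ioo (0:ℝ) 1, ‖b {c | u c ≤ τ} - b {c | u' c ≤ τ}‖ ≤ D) :
    ‖T b u - T b u'‖ ≤ D * ∑ c ∈ S, |u c - u' c| := by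
  have h1 := integr (b := b) h zero_le_one le_rfl
  have h2 := integr (b := b) h' zero_le_one le_rfl
  have hD0 : 0 ≤ D := (norm_nonneg _).trans (hD (1/2) (by constructor <;> norm_num))
  have e : T b u - T b u' = ∫ τ in (0:ℝ)..1, (b {c | u c ≤ τ} - b {c | u' c ≤ τ}) := by
    rw [T, T, intervalIntegral.integral_sub h1 h2]
  rw [e]
  have hgint : IntervalIntegrable (fun τ : ℝ =>
      D * ∑ c ∈ S, (Ico (min (u c) (u' c)) (max (u c) (u' c))).indicator (fun _ => (1:ℝ)) τ)
      volume 0 1 :=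
    (IntervalIntegrable.sum S fun c _ => (int_ind (u c) (u' c)).1).const_mul D |>.congr (fun τ _ => by simp)
  refine (intervalIntegral.norm_integral_le_of_norm_le zero_le_one ?_ hgint).trans ?_
  · have hne : ∀ᵐ τ : ℝ, τ ≠ 1 := by
      simp [ae_iff, measure_singleton]
    filter_upwards [hne] with τ hτ1 hτ
    have hτ' : τ ∈ Ioo (0:ℝ) 1 := ⟨hτ.1, lt_of_le_of_ne hτ.2 hτ1⟩
    by_cases heq : {c | u c ≤ τ} = {c | u' c ≤ τ}
    · rw [heq, sub_self, norm_zero]
      exact mul_nonneg hD0 (Finset.sum_nonneg fun c _ => indicator_nonneg (fun _ _ => zero_le_one) _)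
    · -- some coordinate crosses τ
      have hex : ∃ c, ¬ (u c ≤ τ ↔ u' c ≤ τ) := by
        by_contra hcon
        push Not at hcon
        exact heq (Set.ext fun c => hcon c)
      obtain ⟨c, hc⟩ := hex
      have hcS : c ∈ S := by
        by_contra hcS
        rcases hS c hcS with h3 | ⟨h3, h4⟩
        · exact hc (by rw [h3])
        · exact hc ⟨fun h5 => by linarith [hτ'.2], fun h5 => by linarith [hτ'.2]⟩
      have hmem : τ ∈ Ico (min (u c) (u' c)) (max (u c) (u' c)) := by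
        by_cases h3 : u c ≤ τ
        · have h4 : τ < u' c := by
            by_contra h5
            exact hc ⟨fun _ => not_lt.1 h5, fun _ => h3⟩
          exact ⟨(min_le_left _ _).trans h3, h4.trans_le (le_max_right _ _)⟩
        · have h4 : u' c ≤ τ := by
            by_contra h5
            exact hc ⟨fun h6 => absurd h6 h3, fun h6 => absurd h6 h5⟩
          exact ⟨(min_le_right _ _).trans h4, (not_le.1 h3).trans_le (le_max_left _ _)⟩
      calc ‖b {c | u c ≤ τ} - b {c | u' c ≤ τ}‖ ≤ D := hD τ hτ'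
        _ = D * 1 := (mul_one D).symm
        _ ≤ _ := by
          refine mul_le_mul_of_nonneg_left ?_ hD0
          calc (1:ℝ) = (Ico (min (u c) (u' c)) (max (u c) (u' c))).indicator (fun _ => (1:ℝ)) τ := by
                rw [indicator_of_mem hmem]
            _ ≤ _ := Finset.single_le_sum (f := fun c =>
                (Ico (min (u c) (u' c)) (max (u c) (u' c))).indicator (fun _ => (1:ℝ)) τ)
                (fun c _ => indicator_nonneg (fun _ _ => zero_le_one) _) hcS
  · rw [intervalIntegral.integral_const_mul]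
    refine mul_le_mul_of_nonneg_left ?_ hD0
    rw [intervalIntegral.integral_finsetSum fun c _ => (int_ind (u c) (u' c)).1]
    exact Finset.sum_le_sum fun c _ => (int_ind (u c) (u' c)).2

end gen

section foam

variable {E : Type*} [NormedAddCommGroup E] [NormedSpace ℝ E] {I : Type*}
  {La : Set E} {P : I → Set E} {b : Set I → E} {N : ℕ}

/-- foam form: `u, u'` in the cube complex with a common zero cell `c0` -/
theorem foam_T_lip (F : Foam La P b N) {u u' : I → ℝ} (hu : u ∈ K P) (hu' : u' ∈ K P) {c0 : I}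
    (h0 : u c0 = 0) (h0' : u' c0 = 0) (S : Finset I) (hS : ∀ c, c ∉ S → u c = u' c) {D : ℝ}
    (hD : ∀ y ∈ P c0, ∀ y' ∈ P c0, ‖y - y'‖ ≤ D) :
    ‖T b u - T b u'‖ ≤ D * ∑ c ∈ S, |u c - u' c| := by
  refine T_lip (F.K_finite hu) (F.K_finite hu') S (fun c hc => Or.inl (hS c hc)) fun τ hτ => ?_
  have key : ∀ {w : I → ℝ}, w ∈ K P → w c0 = 0 → b {c | w c ≤ τ} ∈ P c0 := by
    intro w hw hw0
    have hmem : c0 ∈ {c | w c ≤ τ} := by
      show w c0 ≤ τ
      rw [hw0]; exact hτ.1.le
    have hne : (fc P {c | w c ≤ τ}).Nonempty := by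
      obtain ⟨y, hy⟩ := hw.2.2
      refine ⟨y, fc_anti ?_ hy⟩
      intro c hc
      exact lt_of_le_of_lt (show w c ≤ τ from hc) hτ.2
    exact mem_fc.1 (F.mem _ ⟨c0, hmem⟩ hne) c0 hmem
  exact hD _ (key hu h0) _ (key hu' h0')

end foam

section box

variable {κ : Type*} [Fintype κ] [Nonempty κ] {La : Set (κ → ℝ)} {F : Set (Bx κ)} {δ κ0 : ℝ}

lemma norm_sub_le_sz (Q : Bx κ) {y y' : κ → ℝ} (hy : y ∈ Q.set) (hy' : y' ∈ Q.set) :
    ‖y - y'‖ ≤ Q.sz := by
  obtain ⟨i⟩ := ‹Nonempty κ›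
  have h0 : 0 ≤ Q.sz := by
    have h1 := Bx.side_le_sz Q i
    have h2 := Bx.mem_set.1 hy i
    unfold Bx.side at h1
    linarith [h2.1, h2.2]
  rw [pi_norm_le_iff_of_nonneg h0]
  intro k
  have h1 := Bx.side_le_sz Q k
  have h2 := Bx.mem_set.1 hy k
  have h3 := Bx.mem_set.1 hy' k
  unfold Bx.side at h1
  rw [Pi.sub_apply, Real.norm_eq_abs, abs_le]
  constructor <;> linarith [h2.1, h2.2, h3.1, h3.2]

/-- **`T` in a box foam**: with a common zero cell `c0`, and in terms of the sizes of the moving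
cells -/
theorem box_T_lip (BF : BoxFoam La F δ κ0) (hLa : IsOpen La) {u u' : F → ℝ}
    (hu : u ∈ K (Pc F)) (hu' : u' ∈ K (Pc F)) {c0 : F} (h0 : u c0 = 0) (h0' : u' c0 = 0)
    (S : Finset F) (hS : ∀ c, c ∉ S → u c = u' c) :
    ‖T (bc (F := F)) u - T (bc (F := F)) u'‖ ≤ c0.1.sz * ∑ c ∈ S, |u c - u' c| :=
  foam_T_lip (foam BF hLa) hu hu' h0 h0' S hS fun y hy y' hy' => norm_sub_le_sz _ hy hy'

theorem box_T_lip' (BF : BoxFoam La F δ κ0) (hLa : IsOpen La) {R : ℝ} (hR : 0 ≤ R)
    (hcmp : Cmp F R) {u u' : F → ℝ}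
    (hu : u ∈ K (Pc F)) (hu' : u' ∈ K (Pc F)) {c0 : F} (h0 : u c0 = 0) (h0' : u' c0 = 0)
    (S : Finset F) (hS : ∀ c, c ∉ S → u c = u' c) :
    ‖T (bc (F := F)) u - T (bc (F := F)) u'‖ ≤ R * ∑ c ∈ S, c.1.sz * |u c - u' c| := by
  refine (box_T_lip BF hLa hu hu' h0 h0' S hS).trans ?_
  rw [Finset.mul_sum, Finset.mul_sum]
  refine Finset.sum_le_sum fun c _ => ?_
  rcases eq_or_ne (u c) (u' c) with he | hne
  · rw [he, sub_self, abs_zero, mul_zero, mul_zero, mul_zero]
  · have hlt : u c < 1 ∨ u' c < 1 := by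
      by_contra hcon
      push Not at hcon
      apply hne
      rw [le_antisymm (hu.1 c).2 hcon.1, le_antisymm (hu'.1 c).2 hcon.2]
    have hint : (Pc F c0 ∩ Pc F c).Nonempty := by
      rcases hlt with h | h
      · obtain ⟨y, hy⟩ := hu.2.2
        exact ⟨y, mem_fc.1 hy c0 (by show u c0 < 1; rw [h0]; exact one_pos), mem_fc.1 hy c h⟩
      · obtain ⟨y, hy⟩ := hu'.2.2
        exact ⟨y, mem_fc.1 hy c0 (by show u' c0 < 1; rw [h0']; exact one_pos), mem_fc.1 hy c h⟩
    have h1 := hcmp c0 c hint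
    calc c0.1.sz * |u c - u' c| ≤ (R * c.1.sz) * |u c - u' c| :=
          mul_le_mul_of_nonneg_right h1 (abs_nonneg _)
      _ = R * (c.1.sz * |u c - u' c|) := by ring

end box

end Crest.Agent.R096.Lmg_609
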