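import Crest.Agent.R096.Bd6_416

/-!
# R096 (row 96), MERGE (helper441), part 1: from sheets to families

`merge hfin g : Gd E Fam` : `G a = ∑ (sheets j of a) G j`, `B a = ⋃ B j`, `lev a` = the sum over the
other sheets of the family, `tr a = tr j` on the band of `j`.
`merge_is` : the bands of one family are pairwise disjoint and `lev j = 0` on `B j` (all bands from
0 to 1) ⟹ `(merge hfin g).Is Z`.
-/

set_option autoImplicit false
set_option linter.unusedSectionVars false

open Set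

namespace Crest.Agent.R096.Mg_441

open Crest.Agent.R096.Ce_537
open Crest.Agent.R096.Bd_416

variable {E : Type*} {J Fam : Type*}

section defs

variable {fam : J → Fam} (hfin : ∀ a, {j | fam j = a}.Finite)

/-- the sheets of a family -/
noncomputable def sh (a : Fam) : Finset J := (hfin a).toFinset

@[simp] lemma mem_sh {a : Fam} {j : J} : j ∈ sh hfin a ↔ fam j = a := by
  unfold sh; rw [Set.Finite.mem_toFinset]; rfl

open Classical in
/-- **the merged structure** -/
noncomputable def merge (g : Gd E J) : Gd E Fam where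
  G a z := ∑ j ∈ sh hfin a, g.G j z
  B a := {z | ∃ j, fam j = a ∧ z ∈ g.B j}
  lev a z := ∑ j ∈ sh hfin a, if z ∈ g.B j then 0 else g.G j z
  tr a p := if h : ∃ j, fam j = a ∧ p.1 ∈ g.B j then g.tr h.choose p else p.1

/-- the bands of a family are disjoint -/
def DB (fam : J → Fam) (g : Gd E J) (Z : Set E) : Prop :=
  ∀ j j', j ≠ j' → fam j = fam j' → ∀ z ∈ Z, z ∈ g.B j → z ∉ g.B j'

variable {g : Gd E J} {Z : Set E}

lemma merge_G (a : Fam) (z : E) : (merge hfin g).G a z = ∑ j ∈ sh hfin a, g.G j z := rfl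

lemma mem_merge_B {a : Fam} {z : E} : z ∈ (merge hfin g).B a ↔ ∃ j, fam j = a ∧ z ∈ g.B j :=
  Iff.rfl

lemma mem_merge_B' {j : J} {z : E} (h : z ∈ g.B j) : z ∈ (merge hfin g).B (fam j) := ⟨j, rfl, h⟩

open Classical in
lemma merge_tr (hd : DB fam g Z) {j : J} {z : E} (hz : z ∈ Z) (hB : z ∈ g.B j) (s : ℝ) :
    (merge hfin g).tr (fam j) (z, s) = g.tr j (z, s) := by
  have h : ∃ j', fam j' = fam j ∧ z ∈ g.B j' := ⟨j, rfl, hB⟩
  have h1 : h.choose = j := by
    by_contra hne
    exact hd _ _ (Ne.symm hne) h.choose_spec.1.symm z hz hB h.choose_spec.2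
  show (if h : ∃ j', fam j' = fam j ∧ z ∈ g.B j' then g.tr h.choose (z, s) else z) = _
  rw [dif_pos h, h1]

open Classical in
lemma merge_lev (hd : DB fam g Z) {j : J} {z : E} (hz : z ∈ Z) (hB : z ∈ g.B j) :
    (merge hfin g).lev (fam j) z = ∑ j' ∈ (sh hfin (fam j)).erase j, g.G j' z := by
  show ∑ j' ∈ sh hfin (fam j), (if z ∈ g.B j' then 0 else g.G j' z) = _
  rw [← Finset.add_sum_erase _ _ ((mem_sh hfin).2 rfl : j ∈ sh hfin (fam j)), if_pos hB, zero_add]
  refine Finset.sum_congr rfl fun j' hj' => ?_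
  rw [Finset.mem_erase, mem_sh] at hj'
  rw [if_neg (hd j j' (Ne.symm hj'.1) hj'.2.symm z hz hB)]

open Classical in
lemma merge_G_band {j : J} {z : E} :
    (merge hfin g).G (fam j) z = g.G j z + ∑ j' ∈ (sh hfin (fam j)).erase j, g.G j' z := by
  rw [merge_G, ← Finset.add_sum_erase _ _ ((mem_sh hfin).2 rfl : j ∈ sh hfin (fam j))]

lemma merge_sub (hd : DB fam g Z) {j : J} {z : E} (hz : z ∈ Z) (hB : z ∈ g.B j) :
    (merge hfin g).G (fam j) z - (merge hfin g).lev (fam j) z = g.G j z := by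
  classical
  rw [merge_G_band, merge_lev hfin hd hz hB]; ring

end defs

section is

variable [NormedAddCommGroup E] [NormedSpace ℝ E]
variable {fam : J → Fam} (hfin : ∀ a, {j | fam j = a}.Finite) {g : Gd E J} {Z : Set E}

/-- outside the bands the value is an integer -/
lemma merge_G_int (h : g.Is Z) {a : Fam} {z : E} (hz : z ∈ Z) (hn : z ∉ (merge hfin g).B a) :
    (merge hfin g).G a z ∈ Zs := by
  rw [merge_G]
  refine Zs.sum_mem fun j hj => ?_
  by_contra hc
  exact hn ⟨j, (mem_sh hfin).1 hj, h.nB j z hz hc⟩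

lemma merge_G_tr (h : g.Is Z) {j : J} {b : Fam} (hb : b ≠ fam j) {z : E} (hz : z ∈ Z)
    (hB : z ∈ g.B j) {s : ℝ} (hs : s ∈ I2) :
    (merge hfin g).G b (g.tr j (z, s)) = (merge hfin g).G b z := by
  rw [merge_G, merge_G]
  refine Finset.sum_congr rfl fun j' hj' => ?_
  rw [mem_sh] at hj'
  refine h.oG j j' ?_ z hz hB s hs
  rintro rfl
  exact hb hj'.symm

lemma merge_lev_tr (h : g.Is Z) (hd : DB fam g Z) {j : J} {z : E} (hz : z ∈ Z)
    (hB : z ∈ g.B j) {s : ℝ} (hs : s ∈ I2) :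
    (merge hfin g).lev (fam j) (g.tr j (z, s)) = (merge hfin g).lev (fam j) z := by
  classical
  rw [merge_lev hfin hd hz hB, merge_lev hfin hd (h.tZ j z hz hB s hs) (h.tB j z hz hB s hs)]
  refine Finset.sum_congr rfl fun j' hj' => ?_
  rw [Finset.mem_erase] at hj'
  exact h.oG j j' (Ne.symm hj'.1) z hz hB s hs

lemma merge_lev_tr' (h : g.Is Z) (hd : DB fam g Z) {i j : J} (hij : fam j ≠ fam i) {z : E}
    (hz : z ∈ Z) (hi : z ∈ g.B i) (hj : z ∈ g.B j) {s : ℝ} (hs : s ∈ I2) :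
    (merge hfin g).lev (fam j) (g.tr i (z, s)) = (merge hfin g).lev (fam j) z := by
  classical
  have hne : i ≠ j := by rintro rfl; exact hij rfl
  rw [merge_lev hfin hd hz hj, merge_lev hfin hd (h.tZ i z hz hi s hs)
    (h.oB i j hne z hz hi hj s hs)]
  refine Finset.sum_congr rfl fun j' hj' => ?_
  rw [Finset.mem_erase, mem_sh] at hj'
  refine h.oG i j' ?_ z hz hi s hs
  rintro rfl
  exact hij hj'.2.symm

/-- **the merged structure is a band structure** -/
theorem merge_is (h : g.Is Z) (hd : DB fam g Z) (h0 : ∀ j, ∀ z ∈ Z, z ∈ g.B j → g.lev j z = 0) :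
    (merge hfin g).Is Z where
  pG a := pl_sum _ fun j _ => h.pG j
  cB a := by
    have : Z ∩ (merge hfin g).B a = ⋃ j ∈ {j | fam j = a}, (Z ∩ g.B j) := by
      ext z
      simp only [mem_inter_iff, mem_merge_B, mem_iUnion, mem_ofPred_eq, exists_prop]
      constructor
      · rintro ⟨hz, j, hj, hB⟩; exact ⟨j, hj, hz, hB⟩
      · rintro ⟨j, hj, hz, hB⟩; exact ⟨hz, j, hj, hB⟩
    rw [this]
    exact (hfin a).isClosed_biUnion fun j _ => h.cB j
  nB a z hz hn := by
    by_contra hc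
    exact hn (merge_G_int hfin h hz hc)
  li a z hz hB := by
    classical
    obtain ⟨j, rfl, hj⟩ := hB
    rw [merge_lev hfin hd hz hj]
    refine Zs.sum_mem fun j' hj' => ?_
    rw [Finset.mem_erase, mem_sh] at hj'
    by_contra hc
    exact hd j j' (Ne.symm hj'.1) hj'.2.symm z hz hj (h.nB j' z hz hc)
  ab a z hz hB := by
    obtain ⟨j, rfl, hj⟩ := hB
    rw [merge_sub hfin hd hz hj]
    have := h.ab j z hz hj
    rwa [h0 j z hz hj, sub_zero] at this
  pt a := by
    have e : (Z ∩ (merge hfin g).B a) ×ˢ I2 =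
        ⋃ j ∈ {j | fam j = a}, ((Z ∩ g.B j) ×ˢ I2) := by
      ext ⟨z, s⟩
      simp only [mem_prod, mem_inter_iff, mem_merge_B, mem_iUnion, mem_ofPred_eq, exists_prop]
      constructor
      · rintro ⟨⟨hz, j, hj, hB⟩, hs⟩; exact ⟨j, hj, ⟨hz, hB⟩, hs⟩
      · rintro ⟨j, hj, ⟨hz, hB⟩, hs⟩; exact ⟨⟨hz, j, hj, hB⟩, hs⟩
    rw [e]
    have key : ∀ S : Finset J, (∀ j ∈ S, fam j = a) →
        PLOn ((merge hfin g).tr a) (⋃ j ∈ S, ((Z ∩ g.B j) ×ˢ I2)) := by
      classical
      intro S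
      induction S using Finset.induction_on with
      | empty => intro _; simpa using plOn_empty _
      | @insert j S hj ih =>
        intro hS
        rw [Finset.set_biUnion_insert]
        have hja : fam j = a := hS j (Finset.mem_insert_self _ _)
        refine PLOn.union ?_ (ih fun i hi => hS i (Finset.mem_insert_of_mem hi))
          ((h.cB j).prod isClosed_Icc)
          (isClosed_biUnion_finset fun i _ => (h.cB i).prod isClosed_Icc)
        refine (h.pt j).congr ?_
        rintro ⟨z, s⟩ ⟨⟨hz, hB⟩, -⟩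
        subst hja
        exact merge_tr hfin hd hz hB s
    have := key (sh hfin a) fun j hj => (mem_sh hfin).1 hj
    have e2 : (⋃ j ∈ {j | fam j = a}, ((Z ∩ g.B j) ×ˢ I2)) =
        ⋃ j ∈ sh hfin a, ((Z ∩ g.B j) ×ˢ I2) := by
      ext p
      simp only [mem_iUnion, mem_sh, mem_ofPred_eq]
    rw [e2]
    exact this
  tZ a z hz hB s hs := by
    obtain ⟨j, rfl, hj⟩ := hB
    rw [merge_tr hfin hd hz hj]
    exact h.tZ j z hz hj s hs
  tB a z hz hB s hs := by
    obtain ⟨j, rfl, hj⟩ := hB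
    rw [merge_tr hfin hd hz hj]
    exact ⟨j, rfl, h.tB j z hz hj s hs⟩
  tl a z hz hB s hs := by
    obtain ⟨j, rfl, hj⟩ := hB
    rw [merge_tr hfin hd hz hj]
    exact merge_lev_tr hfin h hd hz hj hs
  tG a z hz hB s hs := by
    obtain ⟨j, rfl, hj⟩ := hB
    rw [merge_tr hfin hd hz hj]
    have e1 := merge_sub hfin hd (h.tZ j z hz hj s hs) (h.tB j z hz hj s hs)
    rw [h.tG j z hz hj s hs, h0 j z hz hj, merge_lev_tr hfin h hd hz hj hs] at e1
    linarith
  ts a z hz hB := by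
    obtain ⟨j, rfl, hj⟩ := hB
    rw [merge_tr hfin hd hz hj, merge_sub hfin hd hz hj]
    have := h.ts j z hz hj
    rwa [h0 j z hz hj, sub_zero] at this
  tt a z hz hB s hs s' hs' := by
    obtain ⟨j, rfl, hj⟩ := hB
    rw [merge_tr hfin hd hz hj, merge_tr hfin hd hz hj,
      merge_tr hfin hd (h.tZ j z hz hj s hs) (h.tB j z hz hj s hs)]
    exact h.tt j z hz hj s hs s' hs'
  oG a b hab z hz hB s hs := by
    obtain ⟨j, rfl, hj⟩ := hB
    rw [merge_tr hfin hd hz hj]
    exact merge_G_tr hfin h (Ne.symm hab) hz hj hs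
  oB a b hab z hz hA hB s hs := by
    obtain ⟨i, rfl, hi⟩ := hA
    obtain ⟨j, rfl, hj⟩ := hB
    rw [merge_tr hfin hd hz hi]
    have hne : i ≠ j := by rintro rfl; exact hab rfl
    exact ⟨j, rfl, h.oB i j hne z hz hi hj s hs⟩
  ol a b hab z hz hA hB s hs := by
    obtain ⟨i, rfl, hi⟩ := hA
    obtain ⟨j, rfl, hj⟩ := hB
    rw [merge_tr hfin hd hz hi]
    exact merge_lev_tr' hfin h hd (Ne.symm hab) hz hi hj hs
  oc a b hab z hz hA hB s hs t ht := by
    obtain ⟨i, rfl, hi⟩ := hA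
    obtain ⟨j, rfl, hj⟩ := hB
    have hne : i ≠ j := by rintro rfl; exact hab rfl
    rw [merge_tr hfin hd hz hj, merge_tr hfin hd hz hi,
      merge_tr hfin hd (h.tZ j z hz hj t ht) (h.oB j i (Ne.symm hne) z hz hj hi t ht),
      merge_tr hfin hd (h.tZ i z hz hi s hs) (h.oB i j hne z hz hi hj s hs)]
    exact h.oc i j hne z hz hi hj s hs t ht

/-- agreement of two structures passes to the merged structures -/
theorem merge_eqs {g' : Gd E J} (hd : DB fam g Z) (e : g.Eqs g' Z) :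
    (merge hfin g).Eqs (merge hfin g') Z := by
  classical
  have hd' : DB fam g' Z := by
    intro j j' hne hf z hz hB hB'
    exact hd j j' hne hf z hz ((e.B j z hz).1 hB) ((e.B j' z hz).1 hB')
  refine ⟨fun a z hz => ?_, fun a z hz => ?_, fun a z hz hB => ?_, fun a z hz hB s hs => ?_⟩
  · rw [merge_G, merge_G]
    exact Finset.sum_congr rfl fun j _ => e.G j z hz
  · constructor
    · rintro ⟨j, hj, hB⟩; exact ⟨j, hj, (e.B j z hz).1 hB⟩
    · rintro ⟨j, hj, hB⟩; exact ⟨j, hj, (e.B j z hz).2 hB⟩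
  · obtain ⟨j, rfl, hj⟩ := hB
    rw [merge_lev hfin hd hz hj, merge_lev hfin hd' hz ((e.B j z hz).2 hj)]
    exact Finset.sum_congr rfl fun j _ => e.G j z hz
  · obtain ⟨j, rfl, hj⟩ := hB
    rw [merge_tr hfin hd hz hj, merge_tr hfin hd' hz ((e.B j z hz).2 hj)]
    exact e.tr j z hz hj s hs

end is

end Crest.Agent.R096.Mg_441
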