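import Crest.Agent.R096.Bd21_416
import Crest.Agent.R096.Mg1_441
import Crest.Agent.R096.Xq3_537

/-!
# R096 (row 96), helper609: LIP-MERGE, part 2

From the local Lipschitz constants of the sheets (helper416, in a frame `B`) to the local Lipschitz
constant of the merged map `G = gG T (merge g)`:
`merge_const`, `merge_LB`, `merge_LB_all`, `merge_zero`, **`lip_merge`**.
-/

set_option autoImplicit false
set_option linter.unusedSectionVars false
set_option linter.unusedVariables false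

open Set Filter Topology

namespace Crest.Agent.R096.Lmg_609

open Crest.Agent.R096.Bd_416 Crest.Agent.R096.Mg_441 Crest.Agent.R096.Ce_537
open Crest.Agent.R096.Xp_537 (gG)

variable {Q : Type} [PartialOrder Q] {dim : Q → ℕ} {J Fam : Type}
variable {E : Type*} [NormedAddCommGroup E] [NormedSpace ℝ E]
variable {C : Cmb Q dim J Fam} {K : Q → Set E} {D : Set Q} {g : Gd E J}
  {P : ∀ q, C.I q → Set E} {c : ∀ q, C.I q → E → ℝ}

/-- near `z` only the families with a band at `z` move -/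
theorem merge_const (H : Inv C K D g P c) (hfin : ∀ a, {j | C.fam j = a}.Finite) {q : Q}
    (hq : q ∈ D) {z : E} (hz : z ∈ K q) :
    ∀ᶠ w in 𝓝[K q] z, ∀ a, z ∉ (merge hfin g).B a →
      (merge hfin g).G a w = (merge hfin g).G a z := by
  classical
  have h1 : ∀ᶠ w in 𝓝[K q] z, ∀ x : C.I q, z ∉ P q x → c q x w = c q x z := by
    rw [Filter.eventually_all]
    intro x
    by_cases hx : z ∈ P q x
    · exact Filter.Eventually.of_forall fun w h => absurd hx h
    · filter_upwards [H.ev_const hq hz hx] with w hw _ using hw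
  filter_upwards [h1, self_mem_nhdsWithin] with w hw hwK a ha
  rw [merge_G, merge_G]
  refine Finset.sum_congr rfl fun j hj => ?_
  rw [mem_sh] at hj
  rw [H.PF q hq j w hwK, H.PF q hq j z hz]
  congr 2
  refine Finset.prod_congr rfl fun x hx => ?_
  have hxj := (Finset.mem_filter.1 hx).2
  rw [hw x]
  intro hP
  exact ha ⟨j, hj, hxj ▸ H.PB q hq x hP⟩

variable {Y : Type*} [PseudoMetricSpace Y] {B : E → Y}

/-- the Lipschitz constant of a merged level function -/
theorem merge_LB (H : Inv C K D g P c) (hfin : ∀ a, {j | C.fam j = a}.Finite) {q : Q}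
    (hq : q ∈ D) {z : E} (hz : z ∈ K q) (wa : Fam → ℝ) (hwa : ∀ a, 0 < wa a) {Λ : ℝ} (hΛ : 0 ≤ Λ)
    (hL : ∀ x, LB B (Λ / wa (C.fam (C.col q x))) (c q x) (K q) z) (a : Fam) :
    LB B (Λ / wa a) ((merge hfin g).G a) (K q) z := by
  have h1 := H.LB_fam (fun j => wa (C.fam j)) (fun j => hwa _) hq (sh hfin a)
    (fun j hj j' hj' => by rw [mem_sh] at hj hj'; rw [hj, hj']) hz hΛ hL
  filter_upwards [h1] with w hw
  have e : ∀ w', ∑ j ∈ sh hfin a, wa (C.fam j) * g.G j w' = wa a * (merge hfin g).G a w' := by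
    intro w'
    rw [merge_G, Finset.mul_sum]
    refine Finset.sum_congr rfl fun j hj => ?_
    rw [mem_sh] at hj
    rw [hj]
  rw [e, e, ← mul_sub, abs_mul, abs_of_pos (hwa a)] at hw
  rw [div_mul_eq_mul_div, le_div_iff₀ (hwa a)]
  linarith

/-- all families at once -/
theorem merge_LB_all (H : Inv C K D g P c) (hfin : ∀ a, {j | C.fam j = a}.Finite) {q : Q}
    (hq : q ∈ D) {z : E} (hz : z ∈ K q) (wa : Fam → ℝ) (hwa : ∀ a, 0 < wa a) {Λ : ℝ} (hΛ : 0 ≤ Λ)
    (hL : ∀ x, LB B (Λ / wa (C.fam (C.col q x))) (c q x) (K q) z) :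
    ∀ᶠ w in 𝓝[K q] z, ∀ a, |(merge hfin g).G a w - (merge hfin g).G a z| ≤
      Λ / wa a * dist (B w) (B z) := by
  classical
  have h1 : ∀ᶠ w in 𝓝[K q] z, ∀ a ∈ Finset.univ.image (fun x : C.I q => C.fam (C.col q x)),
      |(merge hfin g).G a w - (merge hfin g).G a z| ≤ Λ / wa a * dist (B w) (B z) := by
    rw [Filter.eventually_all_finset]
    exact fun a _ => merge_LB H hfin hq hz wa hwa hΛ hL a
  filter_upwards [h1, merge_const H hfin hq hz] with w hw1 hw2 a
  by_cases ha : z ∈ (merge hfin g).B a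
  · obtain ⟨j, hj, hB⟩ := ha
    obtain ⟨x, hx, -⟩ := H.cov q hq j z hz hB
    exact hw1 a (Finset.mem_image.2 ⟨x, Finset.mem_univ _, by rw [hx, hj]⟩)
  · rw [hw2 a ha, sub_self, abs_zero]
    exact mul_nonneg (div_nonneg hΛ (hwa a).le) dist_nonneg

/-- zeros do not appear: near `z` a zero coordinate is a zero coordinate at `z` -/
theorem merge_zero (H : Inv C K D g P c) (hfin : ∀ a, {j | C.fam j = a}.Finite) {q : Q}
    (hq : q ∈ D) {z : E} (hz : z ∈ K q) :
    ∀ᶠ w in 𝓝[K q] z, ∀ a, (merge hfin g).G a w = 0 → (merge hfin g).G a z = 0 := by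
  classical
  have hc : ∀ a, ContinuousWithinAt ((merge hfin g).G a) (K q) z := by
    intro a
    have : PLOn ((merge hfin g).G a) (K q) := pl_sum _ fun j _ => (H.is q hq).pG j
    exact this.1 z hz
  have h1 : ∀ᶠ w in 𝓝[K q] z, ∀ a ∈ Finset.univ.image (fun x : C.I q => C.fam (C.col q x)),
      (merge hfin g).G a w = 0 → (merge hfin g).G a z = 0 := by
    rw [Filter.eventually_all_finset]
    intro a _
    by_cases h0 : (merge hfin g).G a z = 0
    · exact Filter.Eventually.of_forall fun w _ => h0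
    · filter_upwards [(hc a).eventually_ne h0] with w hw h
      exact absurd h hw
  filter_upwards [h1, merge_const H hfin hq hz] with w hw1 hw2 a h0
  by_cases ha : z ∈ (merge hfin g).B a
  · obtain ⟨j, hj, hB⟩ := ha
    obtain ⟨x, hx, -⟩ := H.cov q hq j z hz hB
    exact hw1 a (Finset.mem_image.2 ⟨x, Finset.mem_univ _, by rw [hx, hj]⟩) h0
  · rw [← hw2 a ha]; exact h0

/-- **the merged map has the Lipschitz constant of the sheets** -/
theorem lip_merge {V : Type*} [NormedAddCommGroup V] [NormedSpace ℝ V]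
    (H : Inv C K D g P c) (hfin : ∀ a, {j | C.fam j = a}.Finite) {q : Q}
    (hq : q ∈ D) {z : E} (hz : z ∈ K q) (wa : Fam → ℝ) (hwa : ∀ a, 0 < wa a) {Λ : ℝ} (hΛ : 0 ≤ Λ)
    (hL : ∀ x, LB B (Λ / wa (C.fam (C.col q x))) (c q x) (K q) z)
    (Tm : (Fam → ℝ) → V) {lam : Fam → ℝ} (hlam : ∀ a, 0 ≤ lam a) {C8 : ℝ} (hC8 : 0 ≤ C8)
    (hlw : ∀ a, lam a ≤ C8 * wa a) {n : ℕ}
    (hn : ∀ S : Finset Fam, (∀ a ∈ S, z ∈ (merge hfin g).B a) → S.card ≤ n)
    (hT : ∀ᶠ w in 𝓝[K q] z, ∀ S : Finset Fam,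
      (∀ a, a ∉ S → (merge hfin g).G a w = (merge hfin g).G a z) →
      ‖Tm (fun a => (merge hfin g).G a w) - Tm (fun a => (merge hfin g).G a z)‖ ≤
        ∑ a ∈ S, lam a * |(merge hfin g).G a w - (merge hfin g).G a z|) :
    ∀ᶠ w in 𝓝[K q] z, ‖gG Tm (merge hfin g) w - gG Tm (merge hfin g) z‖ ≤
      n * C8 * Λ * dist (B w) (B z) := by
  classical
  set S : Finset Fam := (Finset.univ.image (fun x : C.I q => C.fam (C.col q x))).filter
    (fun a => z ∈ (merge hfin g).B a) with hS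
  have hmem : ∀ a, a ∈ S ↔ z ∈ (merge hfin g).B a := by
    intro a
    rw [hS, Finset.mem_filter]
    refine ⟨fun h => h.2, fun h => ⟨?_, h⟩⟩
    obtain ⟨j, hj, hB⟩ := h
    obtain ⟨x, hx, -⟩ := H.cov q hq j z hz hB
    exact Finset.mem_image.2 ⟨x, Finset.mem_univ _, by rw [hx, hj]⟩
  have hcard : S.card ≤ n := hn S fun a ha => (hmem a).1 ha
  filter_upwards [hT, merge_const H hfin hq hz, merge_LB_all H hfin hq hz wa hwa hΛ hL]
    with w h1 h2 h3
  have hd : 0 ≤ dist (B w) (B z) := dist_nonneg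
  calc ‖gG Tm (merge hfin g) w - gG Tm (merge hfin g) z‖
      ≤ ∑ a ∈ S, lam a * |(merge hfin g).G a w - (merge hfin g).G a z| :=
        h1 S fun a ha => h2 a fun h => ha ((hmem a).2 h)
    _ ≤ ∑ a ∈ S, C8 * Λ * dist (B w) (B z) := by
        refine Finset.sum_le_sum fun a _ => ?_
        calc lam a * |(merge hfin g).G a w - (merge hfin g).G a z|
            ≤ lam a * (Λ / wa a * dist (B w) (B z)) := mul_le_mul_of_nonneg_left (h3 a) (hlam a)
          _ ≤ (C8 * wa a) * (Λ / wa a * dist (B w) (B z)) :=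
              mul_le_mul_of_nonneg_right (hlw a) (mul_nonneg (div_nonneg hΛ (hwa a).le) hd)
          _ = C8 * Λ * dist (B w) (B z) := by
              have := (hwa a).ne'
              field_simp
    _ = S.card * (C8 * Λ * dist (B w) (B z)) := by rw [Finset.sum_const, nsmul_eq_mul]
    _ ≤ n * (C8 * Λ * dist (B w) (B z)) := by
        have hC9 : 0 ≤ C8 * Λ * dist (B w) (B z) := mul_nonneg (mul_nonneg hC8 hΛ) hd
        exact mul_le_mul_of_nonneg_right (by exact_mod_cast hcard) hC9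
    _ = n * C8 * Λ * dist (B w) (B z) := by ring

end Crest.Agent.R096.Lmg_609
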