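import Crest.Agent.R096.Lms1_662
import Crest.Agent.R096.Spm2_662

/-!
# Row 96: the abstract layered mesh, part 2 (helper662): the instance of a tiling

`lmeshT T h3 : LMesh (meshC T h3)`.
-/

set_option autoImplicit false
set_option linter.unusedSectionVars false

open Set Topology Filter Metric

namespace Crest.Agent.R096.Lms_662

open Crest.Agent.R096.Msh_715 Crest.Agent.R096.Agl1_543 Crest.Agent.R096.Agl5_543
  Crest.Agent.R096.Pat5_543 Crest.Agent.R096.Lab_184 Crest.Agent.R096.St_147
  Crest.Agent.R096.Ac_117 Crest.Agent.R096.Spm_662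

variable {E : Type} [NormedAddCommGroup E] [NormedSpace ℝ E] [FiniteDimensional ℝ E]
  {Om : Set E} {ι : Type} (T : Tiling Om ι)

/-- the 1-cells -/
def EdT : Type := {c : Set E // ∃ w ∈ Om, T.dim w = 1 ∧ T.cc w = c}

variable {T}

theorem exists_ends (c : EdT T) : ∃ p : Bool → E, p false ≠ p true ∧
    c.1 = segment ℝ (p false) (p true) ∧ (∀ w ∈ Om, T.dim w = 1 → T.cc w = c.1 →
      T.oc w = openSegment ℝ (p false) (p true)) ∧ (∀ b, T.dim (p b) = 0) ∧ ∀ b, p b ∈ Om := by
  obtain ⟨c, w, hw, hd, rfl⟩ := c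
  obtain ⟨a, b, h1, h2, h3, h4, h5, h6, h7⟩ := T.edge_eq hw hd
  refine ⟨fun i => if i then b else a, by simpa using h1, by simpa using h2, ?_, ?_, ?_⟩
  · intro w' hw' hd' he
    have : w' ∈ T.oc w := (T.cc_eq_iff hw).1 he
    rw [T.oc_eq_of_mem hw this]
    simpa using h3
  · rintro (_ | _) <;> simp [h4, h5]
  · rintro (_ | _)
    · simpa using T.cc_sub_Om hw h6
    · simpa using T.cc_sub_Om hw h7

/-- the two ends -/
noncomputable def enT (c : EdT T) : Bool → E := (exists_ends c).choose

theorem enT_ne (c : EdT T) : enT c false ≠ enT c true := (exists_ends c).choose_spec.1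

theorem enT_seg (c : EdT T) : c.1 = segment ℝ (enT c false) (enT c true) :=
  (exists_ends c).choose_spec.2.1

theorem enT_oc (c : EdT T) {w : E} (hw : w ∈ Om) (hd : T.dim w = 1) (h : T.cc w = c.1) :
    T.oc w = openSegment ℝ (enT c false) (enT c true) :=
  (exists_ends c).choose_spec.2.2.1 w hw hd h

theorem enT_dim (c : EdT T) (b : Bool) : T.dim (enT c b) = 0 :=
  (exists_ends c).choose_spec.2.2.2.1 b

theorem enT_Om (c : EdT T) (b : Bool) : enT c b ∈ Om := (exists_ends c).choose_spec.2.2.2.2 b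

theorem enT_mem (c : EdT T) (b : Bool) : enT c b ∈ c.1 := by
  rw [enT_seg]
  cases b
  · exact left_mem_segment ℝ _ _
  · exact right_mem_segment ℝ _ _

variable (T) in
/-- the points of a 1-cell -/
def OnT (c : EdT T) : Set E := {w | w ∈ Om ∧ T.dim w = 1 ∧ T.cc w = c.1}

open Classical in
variable (T) in
/-- position along the 1-cell -/
noncomputable def tT (w : E) : ℝ :=
  if h : w ∈ Om ∧ T.dim w = 1 then ‖w - enT (⟨T.cc w, w, h.1, h.2, rfl⟩ : EdT T) false‖ else 0

theorem tT_eq {c : EdT T} {w : E} (hw : w ∈ OnT T c) : tT T w = ‖w - enT c false‖ := by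
  obtain ⟨h1, h2, h3⟩ := hw
  unfold tT
  rw [dif_pos ⟨h1, h2⟩]
  have : (⟨T.cc w, w, h1, h2, rfl⟩ : EdT T) = c := Subtype.ext h3
  rw [this]

/-- the parameter of a point of the 1-cell -/
theorem exists_param {c : EdT T} {w : E} (hw : w ∈ OnT T c) : ∃ s : ℝ, 0 < s ∧ s < 1 ∧
    w = enT c false + s • (enT c true - enT c false) ∧
    tT T w = s * ‖enT c true - enT c false‖ := by
  have h1 : w ∈ openSegment ℝ (enT c false) (enT c true) := by
    rw [← enT_oc c hw.1 hw.2.1 hw.2.2]; exact T.self_mem_oc w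
  rw [openSegment_eq_image'] at h1
  obtain ⟨s, hs, rfl⟩ := h1
  refine ⟨s, hs.1, hs.2, rfl, ?_⟩
  rw [tT_eq hw, add_sub_cancel_left, norm_smul, Real.norm_eq_abs, abs_of_pos hs.1]

/-- points below `w` = points of the half open segment from the end `false` -/
theorem below_iff {c : EdT T} {w v : E} (hw : w ∈ OnT T c) (hv : v ∈ OnT T c) :
    tT T v < tT T w ↔ v ∈ segment ℝ (enT c false) w ∧ v ≠ w := by
  obtain ⟨s, hs0, hs1, hs, hst⟩ := exists_param hw
  obtain ⟨r, hr0, hr1, hr, hrt⟩ := exists_param hv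
  have hne : enT c true - enT c false ≠ 0 := sub_ne_zero.2 (enT_ne c).symm
  have hn : 0 < ‖enT c true - enT c false‖ := norm_pos_iff.2 hne
  rw [hst, hrt, mul_lt_mul_iff_left₀ hn]
  have hinj : ∀ a b : ℝ, enT c false + a • (enT c true - enT c false) =
      enT c false + b • (enT c true - enT c false) → a = b := by
    intro a b h
    have h1 := add_left_cancel h
    rw [← sub_eq_zero, ← sub_smul] at h1
    exact sub_eq_zero.1 ((smul_eq_zero.1 h1).resolve_right hne)
  constructor
  · intro h
    refine ⟨?_, fun h1 => ?_⟩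
    · rw [segment_eq_image']
      refine ⟨r / s, ⟨by positivity, (div_le_one hs0).2 h.le⟩, ?_⟩
      show enT c false + (r / s) • (w - enT c false) = v
      rw [hs, hr, add_sub_cancel_left, smul_smul, div_mul_cancel₀ _ hs0.ne']
    · rw [hs, hr] at h1
      exact h.ne (hinj _ _ h1)
  · rintro ⟨h1, h2⟩
    rw [segment_eq_image'] at h1
    obtain ⟨u, ⟨hu0, hu1⟩, hu⟩ := h1
    have hu' : enT c false + u • (w - enT c false) = v := hu
    rw [hs, hr, add_sub_cancel_left, smul_smul] at hu'
    have h3 := hinj _ _ hu'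
    rw [← h3]
    rcases hu1.lt_or_eq with h4 | h4
    · nlinarith
    · exfalso
      apply h2
      rw [hs, hr, ← h3, h4, one_mul]

theorem mem_OnT_of_mem {c : EdT T} {v : E} (hv : v ∈ c.1) (hd : T.dim v = 1) : v ∈ OnT T c := by
  obtain ⟨c, w, hw, hdw, rfl⟩ := c
  have hv' : v ∈ T.cc w := hv
  have hvO : v ∈ Om := T.cc_sub_Om hw hv'
  refine ⟨hvO, hd, ?_⟩
  show T.cc v = T.cc w
  rw [T.cc_eq_iff hw]
  by_contra hn
  have := T.dim_lt hv' hn
  omega

open Classical in
/-- **counting from the end `false` to `w`** -/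
theorem exists_epsT (F : C2 T) {w : E} (hw : w ∈ F.On) :
    ∃ ε : ZMod 2, ∀ (h3 : Module.finrank ℝ E = 3) (c : EdT T), w ∈ OnT T c → ∀ (y : Finset E),
      Even (yF y F).card → cntP (meshC T h3) y F (F.pos w) =
        cntP (meshC T h3) y F (F.pos (enT c false)) +
          cn y {v | v ∈ OnT T c ∧ tT T v < tT T w} + (if w ∈ y then ε else 0) := by
  have hwO : w ∈ Om := F.set_sub hw.1
  set c₀ : EdT T := ⟨T.cc w, w, hwO, hw.2, rfl⟩ with hc₀
  have hwc : w ∈ OnT T c₀ := ⟨hwO, hw.2, rfl⟩
  have hcsub : c₀.1 ⊆ F.bd := cc_sub_bd F hw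
  have hamem : enT c₀ false ∈ T.cc w := enT_mem c₀ false
  have hJ : segment ℝ (enT c₀ false) w ⊆ F.bd :=
    ((T.convex_cc w).segment_subset hamem (T.self_mem_cc w)).trans hcsub
  have hne : enT c₀ false ≠ w := fun h => by
    have h1 := enT_dim c₀ false
    have h2 := hw.2
    rw [h] at h1
    omega
  have hop : segment ℝ (enT c₀ false) w \ {enT c₀ false, w} =
      openSegment ℝ (enT c₀ false) w := by
    rw [← insert_endpoints_openSegment]
    ext v
    simp only [Set.mem_sdiff, mem_insert_iff, mem_singleton_iff]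
    constructor
    · rintro ⟨h7 | h7 | h7, h8⟩
      · exact absurd (Or.inl h7) h8
      · exact absurd (Or.inr h7) h8
      · exact h7
    · intro h7
      refine ⟨Or.inr (Or.inr h7), ?_⟩
      rintro (rfl | h8)
      · exact hne (left_mem_openSegment_iff.1 h7)
      · rw [h8] at h7
        exact hne (right_mem_openSegment_iff.1 h7)
  obtain ⟨ε, hε⟩ := arc_count_end (loop_gam F) hne (convex_segment _ _).isPreconnected
    (left_mem_segment ℝ _ _) (right_mem_segment ℝ _ _) hJ
    (by rw [hop]; exact (convex_openSegment _ _).isPreconnected)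
  refine ⟨ε, fun hfr c hc y he => ?_⟩
  have hcc : c = c₀ := Subtype.ext hc.2.2.symm
  subst hcc
  have ha : enT c₀ false ∉ yF y F := fun h => by
    have := (mem_yF.1 h).2.2
    have := enT_dim c₀ false
    omega
  have hwy : w ∈ yF y F ↔ w ∈ y := by
    rw [mem_yF]
    exact ⟨fun h => h.1, fun h => ⟨h, hw⟩⟩
  have e1 := hε (yF y F) (yF_sub y F) he ha
  rw [cntP_eq hfr y F he (hJ (left_mem_segment ℝ _ _)),
    cntP_eq hfr y F he (hJ (right_mem_segment ℝ _ _)), if_neg ha, add_zero]
  obtain ⟨B, hB⟩ : ∃ B : Set E, B = {v | v ∈ OnT T c₀ ∧ tT T v < tT T w} := ⟨_, rfl⟩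
  have e2 : (((yF y F).filter (· ∈ segment ℝ (enT c₀ false) w)).card : ZMod 2) =
      cn y B + (if w ∈ y then 1 else 0) := by
    unfold cn
    have h1 : (yF y F).filter (· ∈ segment ℝ (enT c₀ false) w) =
        (y.filter (fun v => v ∈ B)) ∪ (if w ∈ y then {w} else ∅) := by
      ext v
      rw [Finset.mem_filter, mem_yF, Finset.mem_union, Finset.mem_filter, hB]
      constructor
      · rintro ⟨⟨h1, h2⟩, h3⟩
        by_cases hvw : v = w
        · right
          rw [hvw] at h1 ⊢
          rw [if_pos h1]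
          exact Finset.mem_singleton_self w
        · left
          have h4 : v ∈ c₀.1 := (T.convex_cc w).segment_subset hamem (T.self_mem_cc w) h3
          have h5 := mem_OnT_of_mem h4 h2.2
          exact ⟨h1, h5, (below_iff hwc h5).2 ⟨h3, hvw⟩⟩
      · rintro (⟨h1, h2, h3⟩ | h1)
        · have h4 := (below_iff hwc h2).1 h3
          exact ⟨⟨h1, F.bd_sub (hJ h4.1), h2.2.1⟩, h4.1⟩
        · by_cases hwy' : w ∈ y
          · rw [if_pos hwy', Finset.mem_singleton] at h1
            rw [h1]
            exact ⟨⟨hwy', hw⟩, right_mem_segment ℝ _ _⟩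
          · rw [if_neg hwy'] at h1
            exact absurd h1 (Finset.notMem_empty v)
    rw [h1, Finset.card_union_of_disjoint]
    · by_cases hwy' : w ∈ y
      · rw [if_pos hwy', if_pos hwy', Finset.card_singleton, Nat.cast_add, Nat.cast_one]
      · rw [if_neg hwy', if_neg hwy', Finset.card_empty, Nat.cast_add, Nat.cast_zero]
    · rw [Finset.disjoint_left]
      intro v h2 h3
      by_cases hwy' : w ∈ y
      · rw [if_pos hwy', Finset.mem_singleton] at h3
        rw [h3, Finset.mem_filter, hB] at h2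
        exact lt_irrefl _ h2.2.2
      · rw [if_neg hwy'] at h3
        exact absurd h3 (Finset.notMem_empty v)
  rw [e2, if_congr hwy rfl rfl] at e1
  rw [if_congr hwy rfl rfl, ← hB]
  by_cases h6 : w ∈ y
  · rw [if_pos h6, if_pos h6] at e1
    rw [if_pos h6, if_pos h6]
    have key : ∀ a b c ε : ZMod 2, a + b = c + 1 + ε → b + 1 = a + c + ε := by decide
    exact key _ _ _ _ e1
  · rw [if_neg h6, if_neg h6] at e1
    rw [if_neg h6, if_neg h6]
    have key : ∀ a b c : ZMod 2, a + b = c + 0 + 0 → b + 0 = a + c + 0 := by decide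
    exact key _ _ _ e1

open Classical in
/-- **the mesh of a tiling** -/
noncomputable def lmeshT (T : Tiling Om ι) (h3 : Module.finrank ℝ E = 3) :
    LMesh (meshC T h3) where
  Vx := E
  Ed := EdT T
  en := enT
  OnE := OnT T
  EF := fun F => {c | c.1 ⊆ F.set}
  t := tT T
  eps := fun F w => if h : w ∈ F.On then (exists_epsT F h).choose else 0
  on := by
    intro F w
    constructor
    · intro hw
      have hwO : w ∈ Om := F.set_sub hw.1
      refine ⟨⟨T.cc w, w, hwO, hw.2, rfl⟩, ?_, hwO, hw.2, rfl⟩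
      show T.cc w ⊆ F.set
      exact (cc_sub_bd F hw).trans F.bd_sub
    · rintro ⟨c, hc, h1, h2, h4⟩
      exact ⟨hc (by rw [← h4]; exact T.self_mem_cc w), h2⟩
  uniq := by
    rintro e e' w ⟨-, -, h1⟩ ⟨-, -, h2⟩
    exact Subtype.ext (h1.symm.trans h2)
  tinj := by
    intro e w hw v hv h
    obtain ⟨s, -, -, hs, hst⟩ := exists_param hw
    obtain ⟨r, -, -, hr, hrt⟩ := exists_param hv
    have hn : ‖enT e true - enT e false‖ ≠ 0 :=
      norm_ne_zero_iff.2 (sub_ne_zero.2 (enT_ne e).symm)
    rw [hst, hrt] at h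
    rw [hs, hr, mul_right_cancel₀ hn h]
  face := by
    intro F y he
    refine ⟨fun v => cntP (meshC T h3) y F (F.pos v), ?_, ?_⟩
    · intro e heF
      obtain ⟨e, w, hw, hd, rfl⟩ := e
      have heF' : T.cc w ⊆ F.set := heF
      have h1 := cntP_edge h3 y F he (heF' (T.self_mem_cc w)) hd (enT_seg ⟨T.cc w, w, hw, hd, rfl⟩)
      have h2 : ((y.filter (fun v => v ∈ T.cc w ∧ T.dim v = 1)).card : ZMod 2) =
          cn y (OnT T ⟨T.cc w, w, hw, hd, rfl⟩) := by
        unfold cn
        congr 2
        ext v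
        rw [Finset.mem_filter, Finset.mem_filter]
        constructor
        · rintro ⟨h3, h4, h5⟩
          exact ⟨h3, mem_OnT_of_mem (c := ⟨T.cc w, w, hw, hd, rfl⟩) h4 h5⟩
        · rintro ⟨h3, h4, h5, h6⟩
          refine ⟨h3, ?_, h5⟩
          have h7 : T.cc v = T.cc w := h6
          rw [← h7]; exact T.self_mem_cc v
      rw [h2] at h1
      have key : ∀ a b c : ZMod 2, a + b = c → b = a + c := by decide
      exact key _ _ _ h1
    · intro e _ w hw
      have hwF : w ∈ F.On := by
        rename_i heF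
        exact ⟨heF (by rw [← hw.2.2]; exact T.self_mem_cc w), hw.2.1⟩
      rw [dif_pos hwF]
      exact (exists_epsT F hwF).choose_spec h3 e hw y he
  cell := by
    intro q y hy
    obtain ⟨lam, hlam⟩ := exact_tile2 (T := T) h3 (Q := y.filter (fun v => T.dim v = 1))
      (fun w hw => (Finset.mem_filter.1 hw).2) q (by
        intro x hx hd
        have hF : q ∈ (mk2 T (T.sub q hx) hd).side h3 := by
          rw [C2.mem_side]
          have h5 : (mk2 T (T.sub q hx) hd).pt ∈ T.oc x := T.pt_cl (T.sub q hx)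
          rw [T.at_eq_of_mem_oc (T.sub q hx) h5]
          exact hx
        have h1 := hy _ hF
        rw [← Set.ncard_coe_finset] at h1
        have h2 : ((y.filter (fun v => v ∈ (meshC T h3).On (mk2 T (T.sub q hx) hd)) :
            Finset E) : Set E) = ((y.filter (fun v => T.dim v = 1) : Finset E) : Set E) ∩ T.cc x := by
          ext v
          rw [Finset.mem_coe, Finset.mem_filter, mem_inter_iff, Finset.mem_coe, Finset.mem_filter]
          constructor
          · rintro ⟨h6, h7, h8⟩
            exact ⟨⟨h6, h8⟩, h7⟩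
          · rintro ⟨⟨h6, h8⟩, h7⟩
            exact ⟨h6, h7, h8⟩
        rwa [h2] at h1)
    refine ⟨lam, fun F hF e heF => ?_⟩
    obtain ⟨e, w, hw, hd, rfl⟩ := e
    have heF' : T.cc w ⊆ F.set := heF
    have h1 := exact_kap_iff.1 hlam w (C2.sub_tile (h3 := h3) hF (heF' (T.self_mem_cc w))) hd _ _
      (enT_seg ⟨T.cc w, w, hw, hd, rfl⟩)
    have h2 : ((((y.filter (fun v => T.dim v = 1) : Finset E) : Set E) ∩ T.cc w).ncard : ZMod 2) =
        cn y (OnT T ⟨T.cc w, w, hw, hd, rfl⟩) := by
      unfold cn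
      rw [← Set.ncard_coe_finset]
      congr 2
      ext v
      rw [mem_inter_iff, Finset.mem_coe, Finset.mem_coe, Finset.mem_filter, Finset.mem_filter]
      constructor
      · rintro ⟨⟨h3, h4⟩, h5⟩
        exact ⟨h3, mem_OnT_of_mem (c := ⟨T.cc w, w, hw, hd, rfl⟩) h5 h4⟩
      · rintro ⟨h3, h4, h5, h6⟩
        refine ⟨⟨h3, h5⟩, ?_⟩
        have h7 : T.cc v = T.cc w := h6
        rw [← h7]; exact T.self_mem_cc v
    rw [h2] at h1
    have key : ∀ a b c : ZMod 2, a + b = c → b = a + c := by decide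
    exact key _ _ _ h1
  conn := by
    intro F X hX e he e' he'
    have h1 := T.const_of_preconnected (φ := fun v => (v ∈ X)) (C := F.set)
      (by rw [F.set_eq]; exact (T.convex_cc _).isPreconnected) F.set_sub
      (fun x hx => by rw [F.set_eq] at hx ⊢; exact T.cc_sub_of_mem hx) (by
        intro x hx hd a b hab
        have hxO : x ∈ Om := F.set_sub hx
        have hsub : T.cc x ⊆ F.set := by rw [F.set_eq] at hx ⊢; exact T.cc_sub_of_mem hx
        have h2 := hX ⟨T.cc x, x, hxO, hd, rfl⟩ hsub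
        obtain ⟨hne, ha0, hb0, hop⟩ := ends_of_segment hxO hd hab
        have hseg := enT_seg (T := T) ⟨T.cc x, x, hxO, hd, rfl⟩
        have key : ∀ p : E, p ∈ T.cc x → T.dim p = 0 →
            p = enT (T := T) ⟨T.cc x, x, hxO, hd, rfl⟩ false ∨
            p = enT (T := T) ⟨T.cc x, x, hxO, hd, rfl⟩ true := by
          intro p hp hp0
          obtain ⟨-, -, -, hop'⟩ := ends_of_segment hxO hd hseg
          by_contra hcon
          push Not at hcon
          have h4 : p ∈ openSegment ℝ (enT (T := T) ⟨T.cc x, x, hxO, hd, rfl⟩ false)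
              (enT (T := T) ⟨T.cc x, x, hxO, hd, rfl⟩ true) := by
            rw [← hop']
            exact ⟨hp, fun h => h.elim hcon.1 hcon.2⟩
          rw [← enT_oc _ hxO hd rfl] at h4
          have := T.dim_eq_of_mem_oc hxO h4
          omega
        have ha : a ∈ T.cc x := by rw [hab]; exact left_mem_segment ℝ a b
        have hb : b ∈ T.cc x := by rw [hab]; exact right_mem_segment ℝ a b
        apply propext
        rcases key a ha ha0 with h5 | h5 <;> rcases key b hb hb0 with h6 | h6
        · exact absurd (h5.trans h6.symm) hne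
        · rw [h5, h6]; exact h2
        · rw [h5, h6]; exact h2.symm
        · exact absurd (h5.trans h6.symm) hne)
    have h2 := h1 (enT e false) (he (enT_mem e false)) (enT e' false) (he' (enT_mem e' false))
      (enT_dim e false) (enT_dim e' false)
    exact iff_of_eq h2

end Crest.Agent.R096.Lms_662
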