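import Crest.Agent.R096.Shp4_432
import Crest.Agent.R096.Sht1_726
import Crest.Agent.R096.Nbr4_896

/-!
Row 96 (S0127), helper726.  **[LNK]**: scales and diameters of the tiles of `meshS` / `h.T a`
against the distance to the wall of a block.
-/

set_option autoImplicit false
set_option linter.unusedSectionVars false

open Set Metric Topology Filter

namespace Crest.Agent.R096.Lnk_726

open Crest.Agent.R096.Msh_715 Crest.Agent.R096.Msh_715.Tiling Crest.Agent.R096.Mal_874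
open Crest.Agent.R096.Msh_810 Crest.Agent.R096.Cut_874 Crest.Agent.R096.Msb_432
open Crest.Agent.R096.Gsm_432 Crest.Agent.R096.Sht_726

universe w

section K

variable {n : ℕ} {E : Type*} [NormedAddCommGroup E] [NormedSpace ℝ E] (Q : CB E n)

/-- far from the wall the scale is small -/
theorem K_le_of_not_NW {k : ℕ} (hk : Q.kc ≤ k) {N : ℕ} {y : E}
    (hy : ¬ NW Q k N y) : Msh_810.K (Q.D k hk) (Q.ψ y) ≤ max Q.kc (k + 1 - N) := by
  have h0 : 6 * 2 ^ N / 2 ^ k < infDist (Q.ψ y) Q.W := not_le.1 hy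
  refine Q.K_le_far hk (le_max_left _ _) (le_trans ?_ h0.le)
  have h1 : (2 : ℝ) ^ (k + 1) ≤ 2 ^ (max Q.kc (k + 1 - N)) * 2 ^ N := by
    rw [← pow_add]
    exact pow_le_pow_right₀ (by norm_num) (by omega)
  rw [pow_succ] at h1
  rw [div_le_div_iff₀ (by positivity) (by positivity)]
  nlinarith [show (0 : ℝ) < 2 ^ k by positivity,
    show (0 : ℝ) < 2 ^ (max Q.kc (k + 1 - N)) * 2 ^ N by positivity]

end K

section gen

variable {n : ℕ} [NeZero n] {E : Type*} [NormedAddCommGroup E] [NormedSpace ℝ E]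
variable {J : Type*} (M : MD E n J) {k : J → ℕ} (hk : M.Sc k) (a : Fin n → ℝ)
  {v : J → E} (hv : M.Adm v)

/-- the scale of the block `j` at the point `x` -/
noncomputable def KB (v : J → E) (j : J) (x : E) : ℕ :=
  Msh_810.K ((M.Bk v j).D (k j) (hk.kc j)) ((M.Bk v j).ψ x)

/-- cubes of a block: scale against `KB` -/
theorem KB_cube {j : J} {τ : Top ((M.Bk v j).D (k j) (hk.kc j))} {x : E}
    (hx : x ∈ P (((M.Bk v j).T0 (k j) (hk.kc j)).H τ)) :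
    KB M hk v j x ≤ τ.1.1.k + 1 ∧ τ.1.1.k ≤ KB M hk v j x :=
  ⟨K_le_succ (mem_at.1 (show τ ∈ (tiling (M.Bk v j).ψ ((M.Bk v j).D (k j) (hk.kc j))).at_ x
    from hx)), tile_k_le (φ := (M.Bk v j).ψ) (D := (M.Bk v j).D (k j) (hk.kc j)) hx⟩

theorem KB_near {j : J} {x : E} (hx : (M.Bk v j).near 1 x) : KB M hk v j x = (M.Q j).kc :=
  ((M.Bk v j).near_K (k j) (hk.kc j) hx).self_of_nhds

theorem near_mono {Q : CB E n} {r s : ℝ} (h : r ≤ s) {x : E} (hx : Q.near r x) : Q.near s x := by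
  intro l
  have h1 := hx l
  constructor <;> linarith [h1.1, h1.2]

/-- a tile of `meshS` in a block, off the wall: frame and scale -/
theorem in_goodK (X : RD M) (RPx : RP X a v k) {j : J} {t : {t // t ∉ cores M hk a hv} ⊕ CIx M}
    (hN : P ((meshS M hk a hv).H t) ⊆ (M.Bk v j).N)
    (hw : Disjoint (P ((meshS M hk a hv).H t)) (frontier (M.Bk v j).N)) :
    ∃ κ, (M.Q j).kc ≤ κ ∧ κ ≤ k j + 1 ∧ Good (meshS M hk a hv) t
      (chi (M.Q j).ψ (M.Bk v j).a' κ) κ (NB n (X.B j)) 1 (max 2 (X.R j)) ∧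
      ∀ x ∈ P ((meshS M hk a hv).H t), KB M hk v j x ≤ κ ∧ κ ≤ KB M hk v j x + 1 := by
  obtain ⟨x0, hx0⟩ := (meshS M hk a hv).ne t
  have hx0' := I_sub_P _ hx0
  rcases t with ⟨t, ht⟩ | c
  · rcases t with p | ⟨l, i⟩
    · exact absurd (M.outer_touch hk a hv p hx0' (hN hx0')) (Set.disjoint_left.1 hw hx0')
    · obtain rfl : l = j := by
        by_contra hne
        exact Set.disjoint_left.1 (N_disj hk a hv hne) (i.2 hx0') (hN hx0')
      have hi : i ≠ M.core hk a hv l := by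
        rintro rfl
        exact ht ⟨l, rfl⟩
      rcases M.inner_good hk a hv X RPx i hi with ⟨τ, hτ, -, hd, hg⟩ | ⟨hnr, hg⟩ | ⟨-, hw', -⟩
      · refine ⟨τ.1.1.1.k + 1, ?_, ?_, good_old M hk a hv _
          (good_mono hg (N0_sub_NB (X.B1 l)) (le_max_left _ _)) (fun c hc => ?_), fun x hx => ?_⟩
        · exact ((M.Bk v l).kc_le (k l) (hk.kc l) (τ := τ.1)).trans (Nat.le_succ _)
        · exact Nat.succ_le_succ ((M.Bk v l).le_k (k l) (hk.kc l) (τ := τ.1))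
        · exfalso
          obtain rfl := inner_same M hk a hv hc
          obtain ⟨x, hx1, hx2⟩ := hc
          exact Set.disjoint_left.1 hd hx2 (Kc_sub_bp _ (cubH_sub c hx1))
        · have hx1 : x ∈ P (((M.Bk v l).T (k l) (hk.kc l)).H i.1) := hx
          rw [hτ] at hx1
          have h1 := KB_cube M hk (v := v) (j := l) (τ := τ.1) (x := x) hx1
          exact ⟨h1.1, Nat.succ_le_succ h1.2⟩
      · refine ⟨(M.Q l).kc, le_rfl, (hk.kc l).trans (Nat.le_succ _), good_old M hk a hv _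
          (good_mono hg subset_rfl (le_max_right _ _)) (fun c hc => ?_), fun x hx => ?_⟩
        · obtain rfl := inner_same M hk a hv hc
          exact gf_cube one_pos (fr_self _ _ _ (N0_sub_NB (X.B1 _)) 1) le_rfl _
        · have h1 := KB_near M hk (hnr x hx)
          exact ⟨h1.le, h1.ge.trans (Nat.le_succ _)⟩
      · obtain ⟨y, hy1, hy2⟩ := hw'
        exact absurd hy2 (Set.disjoint_left.1 hw hy1)
  · obtain ⟨l, z⟩ := c
    obtain rfl : l = j := by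
      by_contra hne
      exact Set.disjoint_left.1 (N_disj hk a hv hne) (Kc_sub_N _ (cubH_sub (M := M) ⟨l, z⟩ hx0'))
        (hN hx0')
    refine ⟨(M.Q l).kc, le_rfl, (hk.kc l).trans (Nat.le_succ _),
      good_mono (cube_goodS M hk a hv X ⟨l, z⟩) subset_rfl
        (le_trans (by norm_num) (le_max_left _ _)), fun x hx => ?_⟩
    have h2 := (M.Bk v l).near_of_bp (Kc_sub_bp _ (cubH_sub (M := M) (v := v) ⟨l, z⟩ hx))
    have h1 := KB_near M hk (near_mono zero_le_one h2)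
    exact ⟨h1.le, h1.ge.trans (Nat.le_succ _)⟩

theorem norm_of_ps {ψ : E ≃L[ℝ] (Fin n → ℝ)} {a' : Fin n → ℝ} {κ : ℕ} {R : ℝ} (hR : 0 ≤ R) {x y : E}
    (h : ∀ m, |ps a' κ (ψ x) m - ps a' κ (ψ y) m| ≤ R) : ‖ψ (y - x)‖ ≤ R / 2 ^ κ := by
  have hp : (0 : ℝ) < 2 ^ κ := by positivity
  rw [← neg_sub x y, map_neg, norm_neg, pi_norm_le_iff_of_nonneg (by positivity)]
  intro m
  rw [le_div_iff₀' hp, map_sub, Pi.sub_apply, Real.norm_eq_abs]
  have h4 := h m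
  unfold ps at h4
  have e : 2 ^ κ * (ψ x m - a' m) - 2 ^ κ * (ψ y m - a' m) = 2 ^ κ * (ψ x m - ψ y m) := by ring
  rwa [e, abs_mul, abs_of_pos hp] at h4

/-- **diameters of the tiles of `meshS`**, walls and cores included -/
theorem diam_all (X : RD M) (t : {t // t ∉ cores M hk a hv} ⊕ CIx M) :
    (∀ x ∈ P ((meshS M hk a hv).H t), ∀ y ∈ P ((meshS M hk a hv).H t),
      dist (M.φ x) (M.φ y) ≤ M.D0.ρ (M.φ x) / M.D0.C) ∨
    ∃ l, P ((meshS M hk a hv).H t) ⊆ (M.Bk v l).N ∧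
      ∀ x ∈ P ((meshS M hk a hv).H t), ∀ y ∈ P ((meshS M hk a hv).H t),
        ‖(M.Q l).ψ (y - x)‖ ≤ max 2 (X.R l) / 2 ^ KB M hk v l x := by
  rcases t with ⟨p | ⟨l, i⟩, hc⟩ | ⟨l, z⟩
  · left
    intro x hx y hy
    exact M.outer_size hk a hv p hx hy
  · right
    refine ⟨l, i.2, fun x hx y hy => ?_⟩
    have hx1 : x ∈ P (((M.Bk v l).T (k l) (hk.kc l)).H i.1) := hx
    have hy1 : y ∈ P (((M.Bk v l).T (k l) (hk.kc l)).H i.1) := hy
    rcases hi1 : i.1 with τ | s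
    · rw [hi1] at hx1 hy1
      have h1 := KB_cube M hk (v := v) (j := l) (τ := τ.1) (x := x) hx1
      have h2 : dist ((M.Q l).ψ x) ((M.Q l).ψ y) ≤ 1 / 2 ^ τ.1.1.1.k :=
        dist_cube (((M.Bk v l).tile_T0 (k l) (hk.kc l)).1 hx1)
          (((M.Bk v l).tile_T0 (k l) (hk.kc l)).1 hy1)
      rw [dist_eq_norm, ← map_sub] at h2
      rw [← neg_sub x y, map_neg, norm_neg]
      refine h2.trans ?_
      rw [div_le_div_iff₀ (by positivity) (by positivity), one_mul]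
      have h3 : (2 : ℝ) ^ KB M hk v l x ≤ 2 ^ (τ.1.1.1.k + 1) :=
        pow_le_pow_right₀ (by norm_num) h1.1
      rw [pow_succ] at h3
      have h4 : (2 : ℝ) ≤ max 2 (X.R l) := le_max_left _ _
      nlinarith [show (0 : ℝ) < 2 ^ τ.1.1.1.k by positivity]
    · rw [hi1] at hx1 hy1
      have hnr := near_mono (Q := M.Bk v l) (zero_le_one (α := ℝ))
        ((M.Bk v l).near_of_bp ((M.Bk v l).P_inr_sub (k l) (hk.kc l) s hx1))
      rw [KB_near M hk hnr]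
      have hx2 := mem_P_iH.1 (show x ∈ P (iH (M.Bk v l).ψ (M.Bk v l).a' (M.Bk v l).kc
        ((M.Bk v l).S.GG s)) from hx1)
      have hy2 := mem_P_iH.1 (show y ∈ P (iH (M.Bk v l).ψ (M.Bk v l).a' (M.Bk v l).kc
        ((M.Bk v l).S.GG s)) from hy1)
      have hs : s ≠ (M.Q l).S.core := by
        rintro rfl
        exact hc ⟨l, congrArg (fun q : M.IIx hk a hv l => (Sum.inr ⟨l, q⟩ :
          M.OIx hk a hv ⊕ Σ j, M.IIx hk a hv j)) (Subtype.ext hi1)⟩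
      have h5 : (0 : ℝ) ≤ max 2 (X.R l) := le_trans (by norm_num) (le_max_left _ _)
      exact norm_of_ps (a' := (M.Bk v l).a') h5 fun m =>
        (X.hR l s hs _ hy2 _ hx2 m).trans (le_max_right _ _)
  · right
    refine ⟨l, (cubH_sub (M := M) (v := v) ⟨l, z⟩).trans (Kc_sub_N _), fun x hx y hy => ?_⟩
    have h2 := (M.Bk v l).near_of_bp (Kc_sub_bp _ (cubH_sub (M := M) (v := v) ⟨l, z⟩ hx))
    rw [KB_near M hk (near_mono zero_le_one h2)]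
    refine norm_of_ps (a' := (M.Bk v l).a') (le_trans (by norm_num) (le_max_left _ _)) fun m => ?_
    have hx' := (mem_cuH (M.Bk v l)).1 hx m
    have hy' := (mem_cuH (M.Bk v l)).1 hy m
    refine le_trans (b := (1 : ℝ)) ?_ (le_trans (by norm_num) (le_max_left _ _))
    rw [abs_le]
    constructor
    · have h1 := hx'.1
      have h2 := hy'.2
      show (-1 : ℝ) ≤ ps (M.Bk v l).a' (M.Bk v l).kc ((M.Bk v l).ψ x) m -
        ps (M.Bk v l).a' (M.Bk v l).kc ((M.Bk v l).ψ y) m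
      linarith
    · have h1 := hx'.2
      have h2 := hy'.1
      show ps (M.Bk v l).a' (M.Bk v l).kc ((M.Bk v l).ψ x) m -
        ps (M.Bk v l).a' (M.Bk v l).kc ((M.Bk v l).ψ y) m ≤ (1 : ℝ)
      linarith

/-- a tile which contains a point of the block far from the wall lies in the block, off the wall -/
theorem off_wall {j : J} {t : {t // t ∉ cores M hk a hv} ⊕ CIx M} {N : ℕ} {y : E}
    (hy : y ∈ P ((meshS M hk a hv).H t)) (hyN : y ∈ (M.Bk v j).N)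
    (hnw : ¬ NW (M.Bk v j) (k j) N y) :
    P ((meshS M hk a hv).H t) ⊆ (M.Bk v j).N ∧
      Disjoint (P ((meshS M hk a hv).H t)) (frontier (M.Bk v j).N) := by
  have hpos : (1 : ℝ) / 2 ^ k j ≤ 6 * 2 ^ N / 2 ^ k j := by
    have : (1 : ℝ) ≤ 2 ^ N := one_le_pow₀ (by norm_num)
    gcongr
    linarith
  have key : ∀ z ∈ frontier (M.Bk v j).N, dist ((M.Bk v j).ψ y) ((M.Bk v j).ψ z) ≤ 1 / 2 ^ k j →
      False := by
    intro z hz hd
    rw [(M.Bk v j).frontier_N] at hz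
    refine hnw ?_
    have h2 : infDist ((M.Bk v j).ψ y) (M.Bk v j).W ≤
        infDist ((M.Bk v j).ψ z) (M.Bk v j).W + dist ((M.Bk v j).ψ y) ((M.Bk v j).ψ z) :=
      infDist_le_infDist_add_dist
    rw [infDist_zero_of_mem (show (M.Bk v j).ψ z ∈ (M.Bk v j).W from hz), zero_add] at h2
    exact h2.trans (hd.trans hpos)
  rcases t with ⟨t, ht⟩ | ⟨l, z⟩
  · rcases t with p | ⟨l, i⟩
    · exact (key y (M.outer_touch hk a hv p hy hyN) (by rw [dist_self]; positivity)).elim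
    · obtain rfl : l = j := by
        by_contra hne
        exact Set.disjoint_left.1 (N_disj hk a hv hne) (i.2 hy) hyN
      refine ⟨i.2, Set.disjoint_left.2 fun z hz hzf => ?_⟩
      have hz1 : z ∈ P ((M.S hk (v := v) l).H i.1) := hz
      have hy1 : y ∈ P ((M.S hk (v := v) l).H i.1) := hy
      obtain ⟨τ, hiτ, hτ⟩ := (M.Bk v l).wall_tile (k l) (hk.kc l) (t := i.1) (s := i.1)
        ⟨z, hz1, hzf⟩ ⟨z, hz1, hz1⟩
      rw [hiτ] at hz1 hy1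
      have h1 := dist_cube (((M.Bk v l).tile_T0 (k l) (hk.kc l)).1 hy1)
        (((M.Bk v l).tile_T0 (k l) (hk.kc l)).1 hz1)
      rw [hτ] at h1
      exact key z hzf h1
  · obtain rfl : l = j := by
      by_contra hne
      exact Set.disjoint_left.1 (N_disj hk a hv hne) (Kc_sub_N _ (cubH_sub (M := M) ⟨l, z⟩ hy)) hyN
    refine ⟨(cubH_sub (M := M) (v := v) ⟨l, z⟩).trans (Kc_sub_N _), Set.disjoint_left.2
      fun w hw hwf => ?_⟩
    have h3 := (cubH_sub (M := M) (v := v) ⟨l, z⟩).trans (Kc_sub_bp _) hw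
    exact hwf.2 ((M.Bk v l).bp_int h3)

end gen

/-! ### for 855's mesh `h.T a` -/

open Crest.AnalysisR.VecCalc3 Crest.AnalysisR.Sobolev
open Crest.Agent.R096.Ca_855
open Crest.Agent.R096.Ca_855.MIn (BQ)
open Crest.Agent.R96.En10_199 (P3)

section K

variable {n : ℕ} {E : Type*} [NormedAddCommGroup E] [NormedSpace ℝ E] (Q : CB E n)

/-- the scale of a block at the point `x` -/
noncomputable def KQ (k : ℕ) (hk : Q.kc ≤ k) (x : E) : ℕ := Msh_810.K (Q.D k hk) (Q.ψ x)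

theorem KQ_ge {k : ℕ} (hk : Q.kc ≤ k) {N : ℕ} {x : E} (hx : NW Q k N x) : k ≤ KQ Q k hk x + N :=
  K_ge_near Q hk hx

theorem KQ_le {k : ℕ} (hk : Q.kc ≤ k) {N : ℕ} {x : E} (hx : ¬ NW Q k N x) :
    KQ Q k hk x ≤ max Q.kc (k + 1 - N) :=
  K_le_of_not_NW Q hk hx

/-- **deep**: `κ'` is the scale of a tile at `x` -/
theorem deep_of {k : ℕ} (hk : Q.kc ≤ k) {N κ' : ℕ} (hN : Q.kc + N ≤ k + 1) {x : E}
    (hx : ¬ NW Q k N x) (hκ : κ' ≤ KQ Q k hk x + 1) : κ' + N ≤ k + 2 := by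
  have h1 := KQ_le Q hk hx
  have h2 : max Q.kc (k + 1 - N) = k + 1 - N := max_eq_right (by omega)
  omega

/-- the zone at the wall, moved -/
theorem NW_near {k N : ℕ} {x y : E} (hx : NW Q k N x) {ρ : ℝ} (hρ : ‖Q.ψ (x - y)‖ ≤ ρ / 2 ^ k)
    (h6 : ρ ≤ 6 * 2 ^ N) : NW Q k (N + 1) y := by
  have h1 : infDist (Q.ψ y) Q.W ≤ infDist (Q.ψ x) Q.W + dist (Q.ψ y) (Q.ψ x) :=
    infDist_le_infDist_add_dist
  have h2 : dist (Q.ψ y) (Q.ψ x) ≤ 6 * 2 ^ N / 2 ^ k := by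
    rw [dist_comm, dist_eq_norm, ← map_sub]
    exact hρ.trans (div_le_div_of_nonneg_right h6 (by positivity))
  have h3 : (6 : ℝ) * 2 ^ (N + 1) / 2 ^ k = 6 * 2 ^ N / 2 ^ k + 6 * 2 ^ N / 2 ^ k := by
    rw [pow_succ]; ring
  have hx' : infDist (Q.ψ x) Q.W ≤ 6 * 2 ^ N / 2 ^ k := hx
  show infDist (Q.ψ y) Q.W ≤ 6 * 2 ^ (N + 1) / 2 ^ k
  rw [h3]
  linarith

theorem NW_mono {k N N' : ℕ} (h : N ≤ N') {x : E} (hx : NW Q k N x) : NW Q k N' x := by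
  have hx' : infDist (Q.ψ x) Q.W ≤ 6 * 2 ^ N / 2 ^ k := hx
  refine hx'.trans ?_
  have : (2 : ℝ) ^ N ≤ 2 ^ N' := pow_le_pow_right₀ (by norm_num) h
  gcongr

end K

/-- **tiles of `h.T a` inside a block, off the wall**: as 432's `exists_len_T`, and the scale is the
scale of the block at every point of the tile -/
theorem exists_len_TK (Bs : ℕ) : ∃ μ : ℝ, 0 < μ ∧
    ∀ {κ : ℝ}, 0 < κ → κ ≤ 1 → ∀ {Om W : Set R3} {ρ₀ : R3 → ℝ} {J : Type} [Finite J]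
      {Qb : J → CB R3 3} {k0 Nn : ℕ} {σ : ℝ} (h : MIn Om W ρ₀ Qb k0 σ),
      (∀ j, BQ κ Bs Nn (Qb j) k0) → ∀ {a : R3}, ‖a‖ ≤ σ / 8 → ∀ (j : J) (t : h.ιT a),
      P ((h.T a).H t) ⊆ ((Qb j).tr a).N → Disjoint (P ((h.T a).H t)) (frontier ((Qb j).tr a).N) →
      ∃ κ', (Qb j).kc ≤ κ' ∧ κ' ≤ k0 + 1 ∧
        (∀ x ∈ P ((h.T a).H t), KQ ((Qb j).tr a) k0 (h.hk j) x ≤ κ' ∧
          κ' ≤ KQ ((Qb j).tr a) k0 (h.hk j) x + 1) ∧
        (∃ z : Fin 3 → ℤ, ∀ x ∈ P ((h.T a).H t),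
          ((chi (Qb j).ψ ((Qb j).tr a).a' κ').trans (trz z)) '' (h.T a).cc x ∈
            shpT (NB 3 (max 1 Bs)) 1 (max 2 (Bs:ℝ))) ∧
        (∀ x ∈ P ((h.T a).H t), ∀ y ∈ P ((h.T a).H t),
          ‖(Qb j).ψ (y - x)‖ ≤ max 2 (Bs:ℝ) / 2 ^ κ') ∧
        ∀ x ∈ P ((h.T a).H t), ∀ e1 e2, (h.T a).cc x = segment ℝ e1 e2 → e1 ≠ e2 →
          μ / 2 ^ κ' ≤ ‖(Qb j).ψ (e2 - e1)‖ := by
  have hLs : ({(NB 3 (max 1 Bs), 1)} : Set (Finset (Fin 3 → ℝ) × ℕ)).Finite := finite_singleton _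
  have hpos : ∀ p ∈ ({(NB 3 (max 1 Bs), 1)} : Set (Finset (Fin 3 → ℝ) × ℕ)), 0 < p.2 := by
    rintro p rfl
    exact one_pos
  have hrat : ∀ p ∈ ({(NB 3 (max 1 Bs), 1)} : Set (Finset (Fin 3 → ℝ) × ℕ)), ∀ ν ∈ p.1, ∀ m,
      ∃ c : ℤ, ν m = c / p.2 := by
    rintro p rfl
    exact NB_rat (max 1 Bs) one_pos
  obtain ⟨μ, hμ, hlen⟩ := Crest.Agent.R096.Shp_432.len_goods.{0, 0} hLs hpos hrat
    (max 2 (max 1 (Bs:ℝ)))
  refine ⟨μ, hμ, ?_⟩
  intro κ hκ hκ1 Om W ρ₀ J _ Qb k0 Nn σ h hb a ha j t hN hW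
  have e0 := h.cl_eq ha
  have eN : h.M.Bk (fun _ => h.cl a) j = (Qb j).tr a := by
    show (Qb j).tr (h.cl a) = (Qb j).tr a
    rw [e0]
  obtain ⟨κ', h1, h2, hg, hK⟩ :=
    in_goodK h.M h.sc (0 + h.M.φ (h.cl a)) (h.adm a) (h.X hκ hκ1 hb) (h.rp hκ hκ1 hb a) (j := j)
      (t := t) (by rw [eN]; exact hN) (by rw [eN]; exact hW)
  have em : max 2 (max 1 (Bs:ℝ)) = max 2 (Bs:ℝ) := by
    rw [← max_assoc]
    norm_num
  have hg' : Good (meshS h.M h.sc (0 + h.M.φ (h.cl a)) (h.adm a)) t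
      (chi (h.M.Q j).ψ (h.M.Bk (fun _ => h.cl a) j).a' κ') κ' (NB 3 (max 1 Bs)) 1
        (max 2 (max 1 (Bs:ℝ))) := hg
  have hp2 : (0 : ℝ) < 2 ^ κ' := by positivity
  refine ⟨κ', h1, h2, fun x hx => ?_, ?_, fun x hx y hy => ?_, fun x hx e1 e2 he hne => ?_⟩
  · have h3 := hK x hx
    unfold KB at h3
    rw! (castMode := .all) [eN] at h3
    exact h3
  · obtain ⟨z, hz⟩ := hg'.sim one_pos (NB_rat (max 1 Bs) one_pos)
    refine ⟨z, fun x hx => ?_⟩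
    have h6 := hz ⟨_, ⟨x, hx, rfl⟩, rfl⟩
    rw [eN, em] at h6
    rw [h.T_cc a x]
    exact h6
  · have hR0 : (0 : ℝ) ≤ max 2 (Bs:ℝ) := le_trans (by norm_num) (le_max_left _ _)
    rw [pi_norm_le_iff_of_nonneg (by positivity)]
    intro m
    have h3 := hg'.sz x hx y hy m
    rw [chi_apply, chi_apply, em] at h3
    rw [le_div_iff₀ hp2, map_sub, Pi.sub_apply, Real.norm_eq_abs, ← abs_of_pos hp2, ← abs_mul]
    have e : ((Qb j).ψ y m - (Qb j).ψ x m) * (2 : ℝ) ^ κ' =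
        2 ^ κ' * ((h.M.Q j).ψ y m - (h.M.Bk (fun _ => h.cl a) j).a' m) -
          2 ^ κ' * ((h.M.Q j).ψ x m - (h.M.Bk (fun _ => h.cl a) j).a' m) := by
      show ((Qb j).ψ y m - (Qb j).ψ x m) * (2 : ℝ) ^ κ' =
        2 ^ κ' * ((Qb j).ψ y m - (h.M.Bk (fun _ => h.cl a) j).a' m) -
          2 ^ κ' * ((Qb j).ψ x m - (h.M.Bk (fun _ => h.cl a) j).a' m)
      ring
    rw [e]
    exact h3
  · have h3 := hlen _ t _ κ' _ (mem_singleton _) hg' x hx e1 e2 ((h.T_cc a x).symm.trans he) hne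
    rw [Crest.Agent.R096.Shp_432.chi_lin] at h3
    rw [div_le_iff₀ hp2, mul_comm]
    exact h3

section T

variable {κ : ℝ} {Bs : ℕ} {Om W : Set R3} {ρ₀ : R3 → ℝ} {J : Type} [Finite J]
  {Qb : J → CB R3 3} {k0 Nn : ℕ} {σ : ℝ}

/-- **diameters of the tiles of `h.T a`**: universal outside the blocks, by the scale inside -/
theorem diam_T (hκ : 0 < κ) (hκ1 : κ ≤ 1) (h : MIn Om W ρ₀ Qb k0 σ)
    (hb : ∀ j, BQ κ Bs Nn (Qb j) k0) {a : R3} (ha : ‖a‖ ≤ σ / 8) (t : h.ιT a) :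
    (∀ x ∈ P ((h.T a).H t), ∀ y ∈ P ((h.T a).H t), ‖y - x‖ ≤ 2 / 2 ^ k0) ∨
    ∃ l, P ((h.T a).H t) ⊆ ((Qb l).tr a).N ∧
      ∀ x ∈ P ((h.T a).H t), ∀ y ∈ P ((h.T a).H t),
        ‖(Qb l).ψ (y - x)‖ ≤ max 2 (Bs:ℝ) / 2 ^ KQ ((Qb l).tr a) k0 (h.hk l) x := by
  have e0 := h.cl_eq ha
  have em : max 2 (max 1 (Bs:ℝ)) = max 2 (Bs:ℝ) := by
    rw [← max_assoc]
    norm_num
  rcases diam_all h.M h.sc (0 + h.M.φ (h.cl a)) (h.adm a) (h.X hκ hκ1 hb) t with h1 | ⟨l, h1, h2⟩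
  · left
    intro x hx y hy
    have h3 := h1 x hx y hy
    have h4 : dist (P3.symm x) (P3.symm y) ≤ 1 / 2 ^ k0 := by
      refine (show dist (P3.symm x) (P3.symm y) ≤ h.D0.ρ (P3.symm x) / 6 from h3).trans ?_
      rw [h.D0_ρ]
      have h5 := min_le_right (ρ₀ (P3 (P3.symm x)) * (1 / 2)) ((6 : ℝ) / 2 ^ k0)
      have h6 : (6 : ℝ) / 2 ^ k0 / 6 = 1 / 2 ^ k0 := by ring
      rw [← h6]
      exact div_le_div_of_nonneg_right h5 (by norm_num)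
    have h5 := dist_le_P3s y x
    rw [dist_eq_norm, dist_comm (P3.symm y)] at h5
    calc ‖y - x‖ ≤ 2 * dist (P3.symm x) (P3.symm y) := h5
      _ ≤ 2 * (1 / 2 ^ k0) := by linarith
      _ = 2 / 2 ^ k0 := by ring
  · right
    have eN : h.M.Bk (fun _ => h.cl a) l = (Qb l).tr a := by
      show (Qb l).tr (h.cl a) = (Qb l).tr a
      rw [e0]
    refine ⟨l, by rw [← eN]; exact h1, fun x hx y hy => ?_⟩
    have h3 := h2 x hx y hy
    unfold KB at h3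
    rw! (castMode := .all) [eN] at h3
    have h4 : (h.X hκ hκ1 hb).R l = max 1 (Bs:ℝ) := rfl
    rw [h4, em] at h3
    exact h3

/-- the blocks of `h.T a` are disjoint -/
theorem N_disj_T (h : MIn Om W ρ₀ Qb k0 σ) {a : R3} {i j : J} {x : R3}
    (hi : x ∈ ((Qb i).tr a).N) (hj : x ∈ ((Qb j).tr a).N) : i = j := by
  by_contra hne
  rw [CB.mem_N_tr] at hi hj
  have h1 := h.sep i j hne _ hi _ hj
  rw [dist_self] at h1
  exact absurd h.σ0 (not_lt.2 h1)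

/-- the distance of the blocks of `h.T a` -/
theorem sep_T (h : MIn Om W ρ₀ Qb k0 σ) {a : R3} {i j : J} (hne : i ≠ j) {x y : R3}
    (hi : x ∈ ((Qb i).tr a).N) (hj : y ∈ ((Qb j).tr a).N) : σ ≤ dist x y := by
  rw [CB.mem_N_tr] at hi hj
  have h1 := h.sep i j hne _ hi _ hj
  rwa [dist_sub_right] at h1

/-- **a tile which contains a point of the block far from the wall lies in the block, off the wall** -/
theorem off_wall_T (h : MIn Om W ρ₀ Qb k0 σ) {a : R3} (ha : ‖a‖ ≤ σ / 8) {j : J} {t : h.ιT a}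
    {N : ℕ} {y : R3} (hy : y ∈ P ((h.T a).H t)) (hyN : y ∈ ((Qb j).tr a).N)
    (hnw : ¬ NW ((Qb j).tr a) k0 N y) :
    P ((h.T a).H t) ⊆ ((Qb j).tr a).N ∧
      Disjoint (P ((h.T a).H t)) (frontier ((Qb j).tr a).N) := by
  have e0 := h.cl_eq ha
  have eN : h.M.Bk (fun _ => h.cl a) j = (Qb j).tr a := by
    show (Qb j).tr (h.cl a) = (Qb j).tr a
    rw [e0]
  rw [← eN] at hyN hnw ⊢
  exact off_wall h.M h.sc (0 + h.M.φ (h.cl a)) (h.adm a) hy hyN hnw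

/-- **tiles which come near the zone at the wall are small** -/
theorem diam_near_T (hκ : 0 < κ) (hκ1 : κ ≤ 1) (h : MIn Om W ρ₀ Qb k0 σ)
    (hb : ∀ j, BQ κ Bs Nn (Qb j) k0) {a : R3} (ha : ‖a‖ ≤ σ / 8) {j : J} {w z : R3}
    (hw : w ∈ ((Qb j).tr a).N) {N : ℕ} (hNW : NW ((Qb j).tr a) k0 N w) {ρ : ℝ}
    (hρ : ‖z - w‖ ≤ ρ / 2 ^ k0) (hσ : ρ / 2 ^ k0 < σ) (hρN : 4 * κ⁻¹ * ρ ≤ 6 * 2 ^ N)
    {t : h.ιT a} (hz : z ∈ P ((h.T a).H t)) :
    ∀ x ∈ P ((h.T a).H t), ∀ y ∈ P ((h.T a).H t),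
      ‖y - x‖ ≤ 16 * κ⁻¹ * max 2 (Bs:ℝ) * 2 ^ N / 2 ^ k0 := by
  have hm : (2 : ℝ) ≤ max 2 (Bs:ℝ) := le_max_left _ _
  have hi : 1 ≤ κ⁻¹ := (one_le_inv₀ hκ).2 hκ1
  have h2N : (1 : ℝ) ≤ 2 ^ N := one_le_pow₀ (by norm_num)
  rcases diam_T hκ hκ1 h hb ha t with h1 | ⟨l, h1, h2⟩
  · intro x hx y hy
    refine (h1 x hx y hy).trans (div_le_div_of_nonneg_right ?_ (by positivity))
    have e1 : (2 : ℝ) ≤ κ⁻¹ * max 2 (Bs:ℝ) := by nlinarith
    have e2 : (2 : ℝ) ≤ κ⁻¹ * max 2 (Bs:ℝ) * 2 ^ N := by nlinarith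
    nlinarith
  · obtain rfl : j = l := by
      by_contra hne
      have h3 := sep_T h hne hw (h1 hz)
      rw [dist_comm, dist_eq_norm] at h3
      linarith
    have hψ : ‖((Qb j).tr a).ψ (w - z)‖ ≤ (4 * κ⁻¹ * ρ) / 2 ^ k0 := by
      refine ((hb j).cnd (w - z)).2.trans ?_
      rw [norm_sub_rev, mul_div_assoc]
      exact mul_le_mul_of_nonneg_left hρ (by positivity)
    have hNz := NW_near ((Qb j).tr a) hNW hψ hρN
    have hK := KQ_ge ((Qb j).tr a) (h.hk j) hNz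
    have key : ∀ y ∈ P ((h.T a).H t), ‖y - z‖ ≤ 8 * κ⁻¹ * max 2 (Bs:ℝ) * 2 ^ N / 2 ^ k0 := by
      intro y hy
      refine ((hb j).ψ2 hκ _).trans ?_
      have h4 := h2 z hz y hy
      have h5 : max 2 (Bs:ℝ) / 2 ^ KQ ((Qb j).tr a) k0 (h.hk j) z ≤
          max 2 (Bs:ℝ) * 2 ^ (N + 1) / 2 ^ k0 := by
        rw [div_le_div_iff₀ (by positivity) (by positivity)]
        have h6 : (2 : ℝ) ^ k0 ≤ 2 ^ (KQ ((Qb j).tr a) k0 (h.hk j) z + (N + 1)) :=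
          pow_le_pow_right₀ (by norm_num) hK
        rw [pow_add] at h6
        calc max 2 (Bs:ℝ) * 2 ^ k0 ≤
            max 2 (Bs:ℝ) * (2 ^ KQ ((Qb j).tr a) k0 (h.hk j) z * 2 ^ (N + 1)) := by gcongr
          _ = _ := by ring
      calc 4 * κ⁻¹ * ‖(Qb j).ψ (y - z)‖ ≤ 4 * κ⁻¹ * (max 2 (Bs:ℝ) * 2 ^ (N + 1) / 2 ^ k0) :=
            mul_le_mul_of_nonneg_left (h4.trans h5) (by positivity)
        _ = _ := by rw [pow_succ]; ring
    intro x hx y hy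
    have h7 : y - x = (y - z) - (x - z) := by abel
    rw [h7]
    refine (norm_sub_le _ _).trans ?_
    have h8 := key x hx
    have h9 := key y hy
    have h10 : 16 * κ⁻¹ * max 2 (Bs:ℝ) * 2 ^ N / 2 ^ k0 =
      8 * κ⁻¹ * max 2 (Bs:ℝ) * 2 ^ N / 2 ^ k0 + 8 * κ⁻¹ * max 2 (Bs:ℝ) * 2 ^ N / 2 ^ k0 := by ring
    rw [h10]
    linarith

end T

end Crest.Agent.R096.Lnk_726
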