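import Crest.Agent.R096.Ex1_422

/-! Row 96, P1-LOC (helper965): confinement of inner discs and the frozen far part of a sheet,
over 422's `Sys` / `Cur`. Input: a LOCAL filling (184's `loc_bounds`). -/

set_option autoImplicit false

namespace Crest.Agent.R096.Loc_965

open Crest.Agent.R096.Ex_422

variable {V E F I Γ : Type*}

/-- `X` and `Y` have the same boundary in the sheet `i` -/
def SameBd (K : Sys V E F I) (i : I) (X Y : Set F) : Prop :=
  ∀ ⦃e : E⦄ ⦃f g : F⦄, f ∈ K.S i → g ∈ K.S i → e ∈ K.bF f → e ∈ K.bF g →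
    ((f ∈ X ↔ g ∈ X) ↔ (f ∈ Y ↔ g ∈ Y))

/-- the boundary of `X` in the sheet `i` is the set `c` of edges -/
def BdIs (K : Sys V E F I) (i : I) (X : Set F) (c : Set E) : Prop :=
  ∀ ⦃e : E⦄ ⦃f g : F⦄, f ∈ K.S i → g ∈ K.S i → f ≠ g → e ∈ K.bF f → e ∈ K.bF g →
    (e ∈ c ↔ ¬ (f ∈ X ↔ g ∈ X))

theorem BdIs.same {K : Sys V E F I} {i : I} {X Y : Set F} {c : Set E} (hX : BdIs K i X c)
    (hY : BdIs K i Y c) : SameBd K i X Y := by
  intro e f g hf hg hef heg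
  by_cases h : f = g
  · subst h; simp
  · have h1 := hX hf hg h hef heg
    have h2 := hY hf hg h hef heg
    rw [h1] at h2
    exact not_iff_not.1 h2

theorem BdIs.congr {K : Sys V E F I} {i : I} {X Y : Set F} {c : Set E} (hX : BdIs K i X c)
    (h : SameBd K i X Y) : BdIs K i Y c := by
  intro e f g hf hg hne hef heg
  rw [hX hf hg hne hef heg]
  exact not_congr (h hf hg hef heg)

/-- two fillings missing a common tile coincide -/
theorem SameBd.eq {K : Sys V E F I} {i : I} {X Y : Set F} (h : SameBd K i X Y)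
    (hX : X ⊆ K.S i) (hY : Y ⊆ K.S i) {m : F} (hm : m ∈ K.S i) (hmX : m ∉ X) (hmY : m ∉ Y) :
    X = Y := by
  have hcl : ∀ e, ∀ f ∈ {f | f ∈ K.S i ∧ ¬ (f ∈ X ↔ f ∈ Y)}, e ∈ K.bF f → ∀ g ∈ K.S i,
      e ∈ K.bF g → g ∈ {f | f ∈ K.S i ∧ ¬ (f ∈ X ↔ f ∈ Y)} := by
    rintro e f ⟨hf, hfn⟩ hef g hg heg
    refine ⟨hg, fun hgi => hfn ?_⟩
    have hs := h hf hg hef heg
    tauto
  have key : {f | f ∈ K.S i ∧ ¬ (f ∈ X ↔ f ∈ Y)} = (∅ : Set F) := by
    rcases K.conn i _ (fun f hf => hf.1) hcl with h1 | h1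
    · exact h1
    · exfalso
      have : m ∈ {f | f ∈ K.S i ∧ ¬ (f ∈ X ↔ f ∈ Y)} := by rw [h1]; exact hm
      exact this.2 ⟨fun h => (hmX h).elim, fun h => (hmY h).elim⟩
  ext f
  by_cases hf : f ∈ K.S i
  · by_contra hn
    have : f ∈ {f | f ∈ K.S i ∧ ¬ (f ∈ X ↔ f ∈ Y)} := ⟨hf, hn⟩
    rw [key] at this
    exact this
  · exact ⟨fun h => (hf (hX h)).elim, fun h => (hf (hY h)).elim⟩

/-- CONFINEMENT: an inner disc equals every filling of its curve which misses one tile outside the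
inner disc; so if the filling lies in `Q`, so does the inner disc. -/
theorem confined {K : Sys V E F I} (C : Cur K Γ) (x : Bool) (γ : Γ) {X Q : Set F}
    (hX : X ⊆ K.S (C.s x γ)) (hbd : BdIs K (C.s x γ) X (C.c γ)) (hQ : X ⊆ Q) {m : F}
    (hm : m ∈ K.S (C.s x γ)) (hmD : m ∉ C.D x γ) (hmQ : m ∉ Q) :
    C.D x γ = X ∧ C.D x γ ⊆ Q := by
  have h1 : BdIs K (C.s x γ) (C.D x γ) (C.c γ) := fun e f g hf hg hne hef heg =>
    C.Dbd hf hg hne hef heg
  have h2 := (h1.same hbd).eq (C.Dsub x γ) hX hm hmD (fun h => hmQ (hQ h))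
  exact ⟨h2, by rw [h2]; exact hQ⟩

/-- reachable from `m` through tiles of the sheet outside `Q0`, crossing edges -/
inductive Far (K : Sys V E F I) (i : I) (Q0 : Set F) (m : F) : F → Prop
  | base : m ∈ K.S i → m ∉ Q0 → Far K i Q0 m m
  | step {f g : F} {e : E} : Far K i Q0 m f → g ∈ K.S i → g ∉ Q0 → e ∈ K.bF f → e ∈ K.bF g →
      Far K i Q0 m g

theorem Far.mem {K : Sys V E F I} {i : I} {Q0 : Set F} {m f : F} (h : Far K i Q0 m f) :
    f ∈ K.S i ∧ f ∉ Q0 := by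
  cases h with
  | base h1 h2 => exact ⟨h1, h2⟩
  | step _ h1 h2 _ _ => exact ⟨h1, h2⟩

/-- FROZEN FAR PART: if every set of tiles whose boundary edges touch `Q0` has a filling inside
`Q1`, then all tiles of the sheet outside `Q1` are reached from the marked tile `m` outside `Q0`. -/
theorem far_compl {K : Sys V E F I} {i : I} {Q0 Q1 : Set F} (h01 : Q0 ⊆ Q1) {m : F}
    (hm : m ∈ K.S i) (hmQ : m ∉ Q1)
    (hloc : ∀ X : Set F, X ⊆ K.S i →
      (∀ e, ∀ f ∈ X, ∀ g ∈ K.S i, g ∉ X → e ∈ K.bF f → e ∈ K.bF g →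
        ∃ t ∈ K.S i, t ∈ Q0 ∧ e ∈ K.bF t) →
      ∃ Y : Set F, Y ⊆ K.S i ∧ Y ⊆ Q1 ∧ SameBd K i X Y) :
    ∀ f ∈ K.S i, f ∉ Q1 → Far K i Q0 m f := by
  intro f hf hfQ
  by_contra hn
  obtain ⟨Y, hYS, hYQ, hXY⟩ := hloc {f | f ∈ K.S i ∧ f ∉ Q0 ∧ ¬ Far K i Q0 m f}
    (fun f hf => hf.1) (by
      rintro e f ⟨hf, hf0, hff⟩ g hg hgX hef heg
      by_cases hg0 : g ∈ Q0
      · exact ⟨g, hg, hg0, heg⟩
      · exfalso
        have hgF : Far K i Q0 m g := by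
          by_contra hgF
          exact hgX ⟨hg, hg0, hgF⟩
        exact hff (hgF.step hf hf0 heg hef))
  have h0 : m ∉ Q0 := fun h => hmQ (h01 h)
  have heq := hXY.eq (fun f hf => hf.1) hYS hm
    (fun h => h.2.2 (Far.base hm h0)) (fun h => hmQ (hYQ h))
  have hfX : f ∈ {f | f ∈ K.S i ∧ f ∉ Q0 ∧ ¬ Far K i Q0 m f} := ⟨hf, fun h => hfQ (h01 h), hn⟩
  rw [heq] at hfX
  exact hfQ (hYQ hfX)

/-- the inner discs miss the far part as soon as the curves do -/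
theorem far_not_mem_D {K : Sys V E F I} (C : Cur K Γ) (x : Bool) (γ : Γ) {Q0 : Set F} {m : F}
    (hmD : m ∉ C.D x γ) (hγ : ∀ e ∈ C.c γ, ∀ f ∈ K.S (C.s x γ), e ∈ K.bF f → f ∈ Q0)
    {f : F} (hf : Far K (C.s x γ) Q0 m f) : f ∉ C.D x γ := by
  induction hf with
  | base _ _ => exact hmD
  | @step f g e hfar hg hg0 hef heg ih =>
    intro hgD
    have hf := hfar.mem
    have hne : e ∉ C.c γ := fun he => hf.2 (hγ e he f hf.1 hef)
    exact ih ((C.same_edge hf.1 hg hef heg hne).2 hgD)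

end Crest.Agent.R096.Loc_965
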