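import Crest.Agent.R096.Coh6_184

/-! Row 96, P1-LOC (helper965), part 3: the frozen far part of a sheet pattern (184's `Pat`).
If every cycle of chords near the cells `N` bounds tiles in cells of `Q ⊇ N`, then all points of a
connected pattern which lie on a cell outside `Q` are connected to each other through chords which
have a cell outside `N`. -/

set_option autoImplicit false
set_option linter.unusedSectionVars false

open Set

namespace Crest.Agent.R096.Loc_965

open Crest.Agent.R096.Coh_184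

variable {ι V E : Type*} (A : Pat ι V E)

/-- `w` is reached from `m` by chords having a cell outside `N` -/
inductive Reach (N : Set ι) (m : V) : V → Prop
  | base : Reach N m m
  | step {v w : V} (e : E) {q : ι} : Reach N m v → v ∈ A.ends e → w ∈ A.ends e → q ∈ A.cells e →
      q ∉ N → Reach N m w

/-- local filling property -/
def Fills [Fintype V] [Fintype E] (N Q : Set ι) : Prop :=
  ∀ z : E → ZMod 2, (∀ e, (∀ q ∈ A.cells e, q ∉ N) → z e = 0) →
    (∀ v, ∑ e, z e * A.b e v = 0) →
    ∃ w : A.Tile → ZMod 2, (∀ f, A.cell f ∉ Q → w f = 0) ∧ ∀ e, z e = ∑ f, w f * A.a f e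

variable {A}

theorem Reach.trans {N : Set ι} {m v w : V} (h1 : Reach A N m v) (h2 : Reach A N v w) :
    Reach A N m w := by
  induction h2 with
  | base => exact h1
  | step e _ h3 h4 h5 h6 ih => exact ih.step e h3 h4 h5 h6

theorem Reach.symm {N : Set ι} {m v : V} (h : Reach A N m v) : Reach A N v m := by
  induction h with
  | base => exact Reach.base
  | step e _ h3 h4 h5 h6 ih => exact Reach.trans (Reach.base.step e h4 h3 h5 h6) ih

/-- all points of a tile outside `N` are connected by its chords -/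
theorem reach_tile {N : Set ι} {m : V} {f : A.Tile} (hf : A.cell f ∉ N) {e e' : E}
    (he : A.On f e) (he' : A.On f e') {v v' : V} (hv : v ∈ A.ends e) (hv' : v' ∈ A.ends e')
    (h : Reach A N m v) : Reach A N m v' := by
  have key : ∀ e e' v, A.cell f ∈ A.cells e → A.cell f ∈ A.cells e' → v ∈ A.ends e →
      v ∈ A.ends e' → ((∀ u ∈ A.ends e, Reach A N m u) ↔ (∀ u ∈ A.ends e', Reach A N m u)) := by
    intro e e' v hq hq' hv hv'
    constructor
    · intro h u hu
      exact (h v hv).step e' hv' hu hq' hf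
    · intro h u hu
      exact (h v hv').step e hv hu hq hf
  have h1 : ∀ u ∈ A.ends e, Reach A N m u := fun u hu => h.step e hv hu he.cell_mem hf
  exact ((he.induction (Q := fun e => ∀ u ∈ A.ends e, Reach A N m u) key he').1 h1) v' hv'

section

variable [Fintype V] [Fintype E]

/-- a function on the tiles without jump is constant on a connected part -/
theorem const_of_closed {U : Set V}
    (hconn : ∀ X : Set V, X ⊆ U → A.Closed X → X.Nonempty → X = U)
    (hU : A.Closed U) (hlink : ∀ v, A.Linked v) {c : A.Tile → ZMod 2}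
    (hc : ∀ e, ∑ f, c f * A.a f e = 0) {f g : A.Tile} {e e' : E} {v v' : V} (hf : A.On f e)
    (hg : A.On g e') (hv : v ∈ A.ends e) (hv' : v' ∈ A.ends e') (hvU : v ∈ U) (hvU' : v' ∈ U) :
    c f = c g := by
  -- no jump across chords
  have h1 : ∀ e f g, A.On f e → A.On g e → c f = c g := by
    intro e f g hf hg
    obtain ⟨f1, f2, hne, _, hall⟩ := A.exists_two e
    have := A.sum_a_mul e hne hall c
    rw [hc e] at this
    have h12 : c f1 = c f2 := by
      have h2 : c f1 + c f2 = 0 := this.symm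
      exact CharTwo.add_eq_zero.1 h2
    rcases (hall f).1 hf with rfl | rfl <;> rcases (hall g).1 hg with rfl | rfl
    · rfl
    · exact h12
    · exact h12.symm
    · rfl
  -- no jump at points
  have h2 : ∀ (v : V) (f g : A.Tile) (e e' : E), A.On f e → A.On g e' → v ∈ A.ends e →
      v ∈ A.ends e' → c f = c g := by
    intro v f g e e' hf hg hv hv'
    have := (hlink v).link (X := {t | c t = c f})
      (fun e _ f1 g1 hf1 hg1 hX => (h1 e g1 f1 hg1 hf1).trans hX) hf hv hg hv' rfl
    exact this.symm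
  -- the set of points with value `c f`
  have h3 := hconn {u | u ∈ U ∧ ∀ t e, A.On t e → u ∈ A.ends e → c t = c f} (fun u hu => hu.1) ?_
    ⟨v, hvU, fun t e' ht hte => h2 v t f e' e ht hf hte hv⟩
  · have h4 : v' ∈ {u | u ∈ U ∧ ∀ t e, A.On t e → u ∈ A.ends e → c t = c f} := by
      rw [h3]; exact hvU'
    exact (h4.2 g e' hg hv').symm
  · intro e1 u hu u' hu' ⟨huU, hut⟩
    refine ⟨hU e1 u hu u' hu' huU, ?_⟩
    intro t e2 ht hte
    obtain ⟨f1, _, _, _, hall⟩ := A.exists_two e1
    have hf1 : A.On f1 e1 := (hall f1).2 (Or.inl rfl)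
    rw [h2 u' t f1 e2 e1 ht hf1 hte hu']
    exact hut f1 e1 hf1 hu

/-- FAR PART -/
theorem far_main {U : Set V} (hconn : ∀ X : Set V, X ⊆ U → A.Closed X → X.Nonempty → X = U)
    (hU : A.Closed U) (hlink : ∀ v, A.Linked v) {N Q : Set ι} (hNQ : N ⊆ Q)
    (hfill : Fills A N Q) {m : V} (hmU : m ∈ U) {em : E} (hme : m ∈ A.ends em) {qm : ι}
    (hqm : qm ∈ A.cells em) (hqmQ : qm ∉ Q) {v : V} (hvU : v ∈ U) {e : E} (hve : v ∈ A.ends e)
    {q : ι} (hq : q ∈ A.cells e) (hqQ : q ∉ Q) : Reach A N m v := by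
  classical
  let χ : A.Tile → ZMod 2 := fun f =>
    if A.cell f ∉ N ∧ ∃ e u, A.On f e ∧ u ∈ A.ends e ∧ Reach A N m u then 1 else 0
  have hχ1 : ∀ f e u, A.cell f ∉ N → A.On f e → u ∈ A.ends e → Reach A N m u → χ f = 1 :=
    fun f e u h1 h2 h3 h4 => if_pos ⟨h1, e, u, h2, h3, h4⟩
  have hχ2 : ∀ f e u, χ f = 1 → A.On f e → u ∈ A.ends e → Reach A N m u := by
    intro f e u h1 h2 h3
    by_cases hh : A.cell f ∉ N ∧ ∃ e u, A.On f e ∧ u ∈ A.ends e ∧ Reach A N m u
    · obtain ⟨hN, e', u', h4, h5, h6⟩ := hh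
      exact reach_tile hN h4 h2 h5 h3 h6
    · have : χ f = 0 := if_neg hh
      rw [this] at h1
      exact absurd h1 (by decide)
  have hχ01 : ∀ f, χ f = 0 ∨ χ f = 1 := by
    intro f
    by_cases hh : A.cell f ∉ N ∧ ∃ e u, A.On f e ∧ u ∈ A.ends e ∧ Reach A N m u
    · exact Or.inr (if_pos hh)
    · exact Or.inl (if_neg hh)
  let z : E → ZMod 2 := fun e => ∑ f, χ f * A.a f e
  have hz1 : ∀ e, (∀ q ∈ A.cells e, q ∉ N) → z e = 0 := by
    intro e he
    obtain ⟨f, g, hne, hcells, hall⟩ := A.exists_two e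
    have h1 : z e = χ f + χ g := A.sum_a_mul e hne hall χ
    have hf : A.On f e := (hall f).2 (Or.inl rfl)
    have hg : A.On g e := (hall g).2 (Or.inr rfl)
    have hfN := he _ hf.cell_mem
    have hgN := he _ hg.cell_mem
    obtain ⟨u, hu⟩ : ∃ u, u ∈ A.ends e := by
      induction h : A.ends e using Sym2.ind with
      | _ a b => exact ⟨a, Sym2.mem_mk_left _ _⟩
    have h2 : χ f = χ g := by
      rcases hχ01 f with h0 | h0
      · rcases hχ01 g with h3 | h3
        · rw [h0, h3]
        · rw [hχ1 f e u hfN hf hu (hχ2 g e u h3 hg hu), h3]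
      · rw [h0, hχ1 g e u hgN hg hu (hχ2 f e u h0 hf hu)]
    rw [h1, h2, CharTwo.add_self_eq_zero]
  have hz2 : ∀ v, ∑ e, z e * A.b e v = 0 := by
    intro v
    have : ∑ e, z e * A.b e v = ∑ f, χ f * ∑ e, A.a f e * A.b e v := by
      simp only [z, Finset.sum_mul, Finset.mul_sum]
      rw [Finset.sum_comm]
      refine Finset.sum_congr rfl fun f _ => Finset.sum_congr rfl fun e _ => ?_
      ring
    rw [this]
    refine Finset.sum_eq_zero fun f _ => ?_
    rw [A.sum_ab f v, mul_zero]
  obtain ⟨w, hw1, hw2⟩ := hfill z hz1 hz2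
  have hc : ∀ e, ∑ f, (χ f + w f) * A.a f e = 0 := by
    intro e
    have h0 : z e = ∑ f, χ f * A.a f e := rfl
    have this : ∑ f, (χ f + w f) * A.a f e = z e + z e := by
      have h1 : ∑ f, (χ f + w f) * A.a f e = (∑ f, χ f * A.a f e) + ∑ f, w f * A.a f e := by
        simp only [add_mul, Finset.sum_add_distrib]
      rw [h1, ← h0, ← hw2 e]
    rw [this, CharTwo.add_self_eq_zero]
  obtain ⟨fm, hfm, hfmq⟩ := A.exists_tile hqm
  obtain ⟨f, hf, hfq⟩ := A.exists_tile hq
  have h5 := const_of_closed (c := fun f => χ f + w f) hconn hU hlink hc hfm hf hme hve hmU hvU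
  have h6 : χ fm = 1 := hχ1 fm em m (by rw [hfmq]; exact fun h => hqmQ (hNQ h)) hfm hme Reach.base
  have h7 : w fm = 0 := hw1 fm (by rw [hfmq]; exact hqmQ)
  have h8 : w f = 0 := hw1 f (by rw [hfq]; exact hqQ)
  have h9 : χ f = 1 := by
    simp only [h6, h7, h8, add_zero] at h5
    exact h5.symm
  exact hχ2 f e v h9 hf hve

end

end Crest.Agent.R096.Loc_965
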