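import Crest.Agent.R096.Brk6_582
import Crest.Agent.R096.Bsp6_628

/-!
# Row 96, U1: the coordinates on the uncut unit squares of the crossing logs are axis-parallel
-/

set_option autoImplicit false
set_option linter.unusedSectionVars false
set_option linter.style.haveILetI false
open Set Filter Topology

namespace Crest.Agent.R096.Log1_582

open Crest.Agent.R096.Brk1_582 Crest.Agent.R096.Brk2_582 Crest.Agent.R096.Brk3_582
open Crest.Agent.R096.Brk6_582 Crest.Agent.R096.Bsp_628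

section rect

variable {E : Type*} [NormedAddCommGroup E] [NormedSpace ℝ E] [CompleteSpace E] {I : Type*}
variable {La : Set E} {P : I → Set E} {b : Set I → E} {N : ℕ}

open Classical in
/-- **coordinates on a rectangular quad**: barycentres `p`, `p + v`, `p + w`, `p + v + w` -/
theorem sc_rect (F : Foam La P b N) {A : Set I} (hA : A.Nonempty) {c1 c2 : I} (hc1 : c1 ∉ A)
    (hc2 : c2 ∉ A) (hne : c1 ≠ c2) (hfc : (fc P (insert c2 (insert c1 A))).Nonempty) {v w : E}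
    (h1 : b (insert c1 A) = b A + v) (h2 : b (insert c2 A) = b A + w)
    (h12 : b (insert c2 (insert c1 A)) = b A + v + w) {s t : ℝ} (hs : s ∈ Icc (0 : ℝ) 1)
    (ht : t ∈ Icc (0 : ℝ) 1) :
    sc P b (b A + (1 - s) • v + (1 - t) • w) =
      fun c => if c ∈ A then 0 else if c = c1 then s else if c = c2 then t else 1 := by
  set u : I → ℝ := fun c => if c ∈ A then 0 else if c = c1 then s else if c = c2 then t else 1
    with hu
  have u0 : ∀ c ∈ A, u c = 0 := fun c hc => by simp [hu, hc]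
  have u1 : u c1 = s := by simp [hu, hc1]
  have u2 : u c2 = t := by simp [hu, hc2, hne.symm]
  have u3 : ∀ c, c ∉ A → c ≠ c1 → c ≠ c2 → u c = 1 := fun c h h' h'' => by simp [hu, h, h', h'']
  have huK : u ∈ K P := by
    refine ⟨fun c => ?_, ?_, hfc.mono (fc_anti fun c hc => ?_)⟩
    · simp only [hu]
      split_ifs
      · simp
      · exact hs
      · exact ht
      · simp
    · obtain ⟨c, hc⟩ := hA
      exact ⟨c, u0 c hc⟩
    · by_contra h
      simp only [mem_insert_iff, not_or] at h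
      have h4 : u c < 1 := hc
      rw [u3 c h.2.2 h.2.1 h.1] at h4
      exact lt_irrefl _ h4
  refine F.sc_eq_of_T huK ?_
  rcases le_total s t with hst | hst
  · rw [T_two F hA hc1 hc2 hne hfc u0 (by rw [u1]; exact hs.1) (by rw [u1, u2]; exact hst)
      (by rw [u2]; exact ht.2) u3, u1, u2, h1, h12]
    module
  · have hfc' : (fc P (insert c1 (insert c2 A))).Nonempty := by rwa [insert_comm]
    rw [T_two F hA hc2 hc1 hne.symm hfc' u0 (by rw [u2]; exact ht.1) (by rw [u1, u2]; exact hst)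
      (by rw [u1]; exact hs.2) (fun c h h' h'' => u3 c h h'' h'), u1, u2, h2, insert_comm, h12]
    module

end rect

section box

variable {κ : Type*} [Fintype κ] [Nonempty κ] {F : Set (Bx κ)}

/-- the centre of a face which is known as a set -/
theorem bc_of_fc {A : Set F} (hA : A.Finite) (hne : A.Nonempty) {p r : κ → ℝ} (hpr : p ≤ r)
    (h : fc (Pc F) A = Icc p r) : bc A = fun k => (p k + r k) / 2 := by
  have h1 : Icc p r = Icc (loA A) (hiA A) := by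
    rw [← h]
    ext x
    rw [mem_fc_iff hA hne]
    exact ⟨fun h => ⟨fun k => (h k).1, fun k => (h k).2⟩, fun h k => ⟨h.1 k, h.2 k⟩⟩
  have h2 := (Icc_eq_Icc_iff hpr).1 h1
  funext k
  unfold bc
  rw [← h2.1, ← h2.2]

end box

section logs

variable {q : ℕ} {a : Fin 3 → ℝ} {h : ℝ}

/-- index of the log of the row `j` over `[i, i+1]` -/
def ix (q : ℕ) (i j : ℤ) : ℤ := (i - q * j) / (2 * q)

theorem ix_spec (hq : 1 ≤ q) {i j : ℤ} (h : ¬ (2 * (q : ℤ)) ∣ i - q * j) :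
    (q : ℤ) * (j + 2 * ix q i j) + 1 ≤ i ∧ i + 1 ≤ q * (j + 2 * ix q i j + 2) := by
  have hq0 : (0 : ℤ) < 2 * q := by omega
  set r : ℤ := (i - q * j) % (2 * q) with hr
  have h1 : i - q * j = 2 * q * ix q i j + r := by
    rw [hr, ix]; exact (Int.mul_ediv_add_emod _ _).symm
  have h2 : 0 ≤ r := Int.emod_nonneg _ hq0.ne'
  have h3 : r < 2 * q := Int.emod_lt_of_pos _ hq0
  have h4 : r ≠ 0 := by
    intro h0
    exact h (Int.dvd_of_emod_eq_zero h0)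
  have h5 : 1 ≤ r := by omega
  refine ⟨?_, ?_⟩
  · nlinarith
  · nlinarith

/-- the x-log of the (even) slab `e` over the square `(i, j)` -/
noncomputable def Lx (q : ℕ) (a : Fin 3 → ℝ) (h : ℝ) (e i j : ℤ) : Bx (Fin 3) :=
  logA a h q e j (ix q i j)

/-- the y-log of the (odd) slab `o` over the square `(i, j)` -/
noncomputable def Ly (q : ℕ) (a : Fin 3 → ℝ) (h : ℝ) (o i j : ℤ) : Bx (Fin 3) :=
  logA a h q o i (ix q j i)

/-- the square `(i, j)` and the eight around it are uncut -/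
def GoodSq (q : ℕ) (i j : ℤ) : Prop :=
  ∀ τ : ℤ, τ = -1 ∨ τ = 0 ∨ τ = 1 →
    ¬ (2 * (q : ℤ)) ∣ i - q * (j + τ) ∧ ¬ (2 * (q : ℤ)) ∣ j - q * (i + τ)

theorem mem_Lx {e i j : ℤ} (he : Even e) {x : Fin 3 → ℝ} :
    x ∈ (Lx q a h e i j).set ↔
      (a 0 + h * (1 / 2 + q * (j + 2 * ix q i j)) ≤ x 0 ∧
        x 0 ≤ a 0 + h * (1 / 2 + q * (j + 2 * ix q i j + 2))) ∧
      (a 1 + h * j ≤ x 1 ∧ x 1 ≤ a 1 + h * (j + 1)) ∧
      (a 2 + h * e ≤ x 2 ∧ x 2 ≤ a 2 + h * (e + 1)) := by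
  rw [Bx.mem_set, Lx, logA, logB_even he]
  simp only [Bx.aff, dmap, Fin.forall_fin_succ, Fin.succ_zero_eq_one, Fin.succ_one_eq_two,
    Matrix.cons_val_zero, Matrix.cons_val_one, Matrix.cons_val, IsEmpty.forall_iff, and_true]

theorem mem_Ly {o i j : ℤ} (ho : ¬ Even o) {x : Fin 3 → ℝ} :
    x ∈ (Ly q a h o i j).set ↔
      (a 0 + h * i ≤ x 0 ∧ x 0 ≤ a 0 + h * (i + 1)) ∧
      (a 1 + h * (1 / 2 + q * (i + 2 * ix q j i)) ≤ x 1 ∧
        x 1 ≤ a 1 + h * (1 / 2 + q * (i + 2 * ix q j i + 2))) ∧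
      (a 2 + h * o ≤ x 2 ∧ x 2 ≤ a 2 + h * (o + 1)) := by
  rw [Bx.mem_set, Ly, logA, logB_odd ho]
  simp only [Bx.aff, dmap, Fin.forall_fin_succ, Fin.succ_zero_eq_one, Fin.succ_one_eq_two,
    Matrix.cons_val_zero, Matrix.cons_val_one, Matrix.cons_val, IsEmpty.forall_iff, and_true]

theorem ix_real (hq : 1 ≤ q) {i j : ℤ} (h : ¬ (2 * (q : ℤ)) ∣ i - q * j) :
    (1 / 2 + (q : ℝ) * (j + 2 * ix q i j) ≤ i - 1 / 2) ∧
      ((i : ℝ) + 3 / 2 ≤ 1 / 2 + q * (j + 2 * ix q i j + 2)) := by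
  obtain ⟨h1, h2⟩ := ix_spec hq h
  have g1 : (q : ℝ) * (j + 2 * ix q i j) + 1 ≤ i := by exact_mod_cast h1
  have g2 : (i : ℝ) + 1 ≤ q * (j + 2 * ix q i j + 2) := by exact_mod_cast h2
  exact ⟨by linarith, by linarith⟩

/-- the point of the wall `z` -/
noncomputable def pt (a : Fin 3 → ℝ) (h x y z : ℝ) : Fin 3 → ℝ := dmap a (fun _ => h) ![x, y, z]

@[simp] theorem pt_zero (x y z : ℝ) : pt a h x y z 0 = a 0 + h * x := by simp [pt, dmap]
@[simp] theorem pt_one (x y z : ℝ) : pt a h x y z 1 = a 1 + h * y := by simp [pt, dmap]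
@[simp] theorem pt_two (x y z : ℝ) : pt a h x y z 2 = a 2 + h * z := by simp [pt, dmap]

/-- horizontal vectors -/
noncomputable def hv (h u v : ℝ) : Fin 3 → ℝ := ![h * u, h * v, 0]

theorem pt_add (x y z u v : ℝ) : pt a h x y z + hv h u v = pt a h (x + u) (y + v) z := by
  funext k
  fin_cases k
  · change a 0 + h * x + h * u = a 0 + h * (x + u); ring
  · change a 1 + h * y + h * v = a 1 + h * (y + v); ring
  · change a 2 + h * z + 0 = a 2 + h * z; ring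

theorem smul_hv (c u v : ℝ) : c • hv h u v = hv h (c * u) (c * v) := by
  funext k
  fin_cases k
  · change c * (h * u) = h * (c * u); ring
  · change c * (h * v) = h * (c * v); ring
  · change c * 0 = 0; ring

theorem Lx_of (hq : 1 ≤ q) (hh : 0 < h) {e i j : ℤ} (he : Even e)
    (hg : ¬ (2 * (q : ℤ)) ∣ i - q * j) {x : Fin 3 → ℝ}
    (h0 : a 0 + h * i ≤ x 0 ∧ x 0 ≤ a 0 + h * (i + 1))
    (h1 : a 1 + h * j ≤ x 1 ∧ x 1 ≤ a 1 + h * (j + 1))
    (h2 : a 2 + h * e ≤ x 2 ∧ x 2 ≤ a 2 + h * (e + 1)) : x ∈ (Lx q a h e i j).set := by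
  obtain ⟨g1, g2⟩ := ix_real hq hg
  rw [mem_Lx he]
  refine ⟨⟨?_, ?_⟩, h1, h2⟩
  · have := mul_le_mul_of_nonneg_left g1 hh.le
    nlinarith
  · have := mul_le_mul_of_nonneg_left g2 hh.le
    nlinarith

theorem Ly_of (hq : 1 ≤ q) (hh : 0 < h) {o i j : ℤ} (ho : ¬ Even o)
    (hg : ¬ (2 * (q : ℤ)) ∣ j - q * i) {x : Fin 3 → ℝ}
    (h0 : a 0 + h * i ≤ x 0 ∧ x 0 ≤ a 0 + h * (i + 1))
    (h1 : a 1 + h * j ≤ x 1 ∧ x 1 ≤ a 1 + h * (j + 1))
    (h2 : a 2 + h * o ≤ x 2 ∧ x 2 ≤ a 2 + h * (o + 1)) : x ∈ (Ly q a h o i j).set := by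
  obtain ⟨g1, g2⟩ := ix_real hq hg
  rw [mem_Ly ho]
  refine ⟨h0, ⟨?_, ?_⟩, h2⟩
  · have := mul_le_mul_of_nonneg_left g1 hh.le
    nlinarith
  · have := mul_le_mul_of_nonneg_left g2 hh.le
    nlinarith

/-- adjacent slabs meet in a plane -/
theorem adj_z (hh : 0 < h) {e o : ℤ} (heo : o = e + 1 ∨ e = o + 1) {x : ℝ} :
    ((a 2 + h * e ≤ x ∧ x ≤ a 2 + h * (e + 1)) ∧ (a 2 + h * o ≤ x ∧ x ≤ a 2 + h * (o + 1))) ↔
      x = a 2 + h * ((max e o : ℤ) : ℝ) := by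
  rcases heo with rfl | rfl
  · have hmax : max e (e + 1) = e + 1 := by omega
    rw [hmax]
    push_cast
    constructor
    · rintro ⟨⟨a1, a2⟩, a3, a4⟩
      linarith
    · rintro rfl
      refine ⟨⟨?_, ?_⟩, ?_, ?_⟩ <;> nlinarith
  · have hmax : max (o + 1) o = o + 1 := by omega
    rw [hmax]
    push_cast
    constructor
    · rintro ⟨⟨a1, a2⟩, a3, a4⟩
      linarith
    · rintro rfl
      refine ⟨⟨?_, ?_⟩, ?_, ?_⟩ <;> nlinarith

/-- **intersection of rows and columns** -/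
theorem mem_cross (hq : 1 ≤ q) (hh : 0 < h) {e o i j : ℤ} (he : Even e) (ho : ¬ Even o)
    (heo : o = e + 1 ∨ e = o + 1) {J K : Finset ℤ} (hJ0 : (0 : ℤ) ∈ J) (hK0 : (0 : ℤ) ∈ K)
    (hJ : ∀ τ ∈ J, ¬ (2 * (q : ℤ)) ∣ i - q * (j + τ))
    (hK : ∀ σ ∈ K, ¬ (2 * (q : ℤ)) ∣ j - q * (i + σ)) {x : Fin 3 → ℝ} :
    ((∀ τ ∈ J, x ∈ (Lx q a h e i (j + τ)).set) ∧ (∀ σ ∈ K, x ∈ (Ly q a h o (i + σ) j).set)) ↔
      (∀ σ ∈ K, a 0 + h * (i + σ) ≤ x 0 ∧ x 0 ≤ a 0 + h * (i + σ + 1)) ∧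
      (∀ τ ∈ J, a 1 + h * (j + τ) ≤ x 1 ∧ x 1 ≤ a 1 + h * (j + τ + 1)) ∧
      x 2 = a 2 + h * ((max e o : ℤ) : ℝ) := by
  constructor
  · rintro ⟨h1, h2⟩
    refine ⟨fun σ hσ => ?_, fun τ hτ => ?_, ?_⟩
    · have h3 := ((mem_Ly ho).1 (h2 σ hσ)).1
      push_cast at h3
      exact h3
    · have h3 := ((mem_Lx he).1 (h1 τ hτ)).2.1
      push_cast at h3
      exact h3
    · rw [← adj_z hh heo]
      exact ⟨((mem_Lx he).1 (h1 0 hJ0)).2.2, ((mem_Ly ho).1 (h2 0 hK0)).2.2⟩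
  · rintro ⟨h1, h2, h3⟩
    rw [← adj_z hh heo] at h3
    have h10 := h1 0 hK0
    have h20 := h2 0 hJ0
    simp only [Int.cast_zero, add_zero] at h10 h20
    refine ⟨fun τ hτ => Lx_of hq hh he (hJ τ hτ) h10 ?_ h3.1,
      fun σ hσ => Ly_of hq hh ho (hK σ hσ) ?_ h20 h3.2⟩
    · have := h2 τ hτ
      push_cast
      exact this
    · have := h1 σ hσ
      push_cast
      exact this

theorem Lx_inj (hh : 0 < h) {e i j j' : ℤ} (he : Even e)
    (hE : Lx q a h e i j = Lx q a h e i j') : j = j' := by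
  have h1 := congrArg (fun B : Bx (Fin 3) => B.lo 1) hE
  simp only [Lx, logA, logB_even he, Bx.aff, dmap, Matrix.cons_val_one,
    Matrix.cons_val_zero] at h1
  have h2 : h * ((j : ℝ) - j') = 0 := by linarith
  rcases mul_eq_zero.1 h2 with h3 | h3
  · exact absurd h3 hh.ne'
  · exact_mod_cast sub_eq_zero.1 h3

theorem Ly_inj (hh : 0 < h) {o i i' j : ℤ} (ho : ¬ Even o)
    (hE : Ly q a h o i j = Ly q a h o i' j) : i = i' := by
  have h1 := congrArg (fun B : Bx (Fin 3) => B.lo 0) hE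
  simp only [Ly, logA, logB_odd ho, Bx.aff, dmap, Matrix.cons_val_zero] at h1
  have h2 : h * ((i : ℝ) - i') = 0 := by linarith
  rcases mul_eq_zero.1 h2 with h3 | h3
  · exact absurd h3 hh.ne'
  · exact_mod_cast sub_eq_zero.1 h3

theorem Lx_ne_Ly (hh : 0 < h) {e o i j i' j' : ℤ} (he : Even e) (ho : ¬ Even o) :
    Lx q a h e i j ≠ Ly q a h o i' j' := by
  intro hE
  have h1 := congrArg (fun B : Bx (Fin 3) => B.lo 2) hE
  simp only [Lx, Ly, logA, Bx.aff, dmap, logB_lo2] at h1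
  have h2 : h * ((e : ℝ) - o) = 0 := by linarith
  rcases mul_eq_zero.1 h2 with h3 | h3
  · exact absurd h3 hh.ne'
  · have h4 : e = o := by exact_mod_cast sub_eq_zero.1 h3
    exact ho (h4 ▸ he)

/-- the cells of the rows `j + τ`, `τ ∈ J`, and of the columns `i + σ`, `σ ∈ K` -/
def crs (F : Set (Bx (Fin 3))) (q : ℕ) (a : Fin 3 → ℝ) (h : ℝ) (e o i j : ℤ) (J K : Finset ℤ) :
    Set F :=
  {c | (∃ τ ∈ J, c.1 = Lx q a h e i (j + τ)) ∨ ∃ σ ∈ K, c.1 = Ly q a h o (i + σ) j}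

theorem crs_finite (F : Set (Bx (Fin 3))) (q : ℕ) (a : Fin 3 → ℝ) (h : ℝ) (e o i j : ℤ)
    (J K : Finset ℤ) : (crs F q a h e o i j J K).Finite := by
  classical
  refine Set.Finite.of_finite_image (f := Subtype.val) ?_ Subtype.val_injective.injOn
  refine ((J.image fun τ => Lx q a h e i (j + τ)) ∪
    (K.image fun σ => Ly q a h o (i + σ) j)).finite_toSet.subset ?_
  rintro _ ⟨c, hc, rfl⟩
  simp only [Finset.coe_union, Finset.coe_image, mem_union, mem_image, Finset.mem_coe]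
  rcases hc with ⟨τ, hτ, h1⟩ | ⟨σ, hσ, h1⟩
  · exact Or.inl ⟨τ, hτ, h1.symm⟩
  · exact Or.inr ⟨σ, hσ, h1.symm⟩

variable {F : Set (Bx (Fin 3))}

theorem mem_fc_crs {e o i j : ℤ} {J K : Finset ℤ}
    (hE : ∀ τ ∈ J, Lx q a h e i (j + τ) ∈ F) (hO : ∀ σ ∈ K, Ly q a h o (i + σ) j ∈ F)
    {x : Fin 3 → ℝ} : x ∈ fc (Pc F) (crs F q a h e o i j J K) ↔
      (∀ τ ∈ J, x ∈ (Lx q a h e i (j + τ)).set) ∧ (∀ σ ∈ K, x ∈ (Ly q a h o (i + σ) j).set) := by
  rw [mem_fc]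
  constructor
  · intro h1
    exact ⟨fun τ hτ => h1 ⟨_, hE τ hτ⟩ (Or.inl ⟨τ, hτ, rfl⟩),
      fun σ hσ => h1 ⟨_, hO σ hσ⟩ (Or.inr ⟨σ, hσ, rfl⟩)⟩
  · rintro ⟨h1, h2⟩ c (⟨τ, hτ, h3⟩ | ⟨σ, hσ, h3⟩)
    · change x ∈ c.1.set
      rw [h3]; exact h1 τ hτ
    · change x ∈ c.1.set
      rw [h3]; exact h2 σ hσ

/-- the face of rows and columns, and its centre -/
theorem fc_crs (hq : 1 ≤ q) (hh : 0 < h) {e o i j : ℤ} (he : Even e) (ho : ¬ Even o)
    (heo : o = e + 1 ∨ e = o + 1) {J K : Finset ℤ} (hJ0 : (0 : ℤ) ∈ J) (hK0 : (0 : ℤ) ∈ K)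
    (hJ : ∀ τ ∈ J, ¬ (2 * (q : ℤ)) ∣ i - q * (j + τ))
    (hK : ∀ σ ∈ K, ¬ (2 * (q : ℤ)) ∣ j - q * (i + σ))
    (hE : ∀ τ ∈ J, Lx q a h e i (j + τ) ∈ F) (hO : ∀ σ ∈ K, Ly q a h o (i + σ) j ∈ F)
    {l0 r0 l1 r1 : ℝ} (hl0 : l0 ≤ r0) (hl1 : l1 ≤ r1)
    (h0 : ∀ x : ℝ, (∀ σ ∈ K, (i : ℝ) + σ ≤ x ∧ x ≤ i + σ + 1) ↔ l0 ≤ x ∧ x ≤ r0)
    (h1 : ∀ x : ℝ, (∀ τ ∈ J, (j : ℝ) + τ ≤ x ∧ x ≤ j + τ + 1) ↔ l1 ≤ x ∧ x ≤ r1) :
    fc (Pc F) (crs F q a h e o i j J K) =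
        Icc (pt a h l0 l1 ((max e o : ℤ) : ℝ)) (pt a h r0 r1 ((max e o : ℤ) : ℝ)) ∧
      bc (crs F q a h e o i j J K) =
        pt a h ((l0 + r0) / 2) ((l1 + r1) / 2) ((max e o : ℤ) : ℝ) := by
  have hsc : ∀ (b l r x : ℝ), (b + h * l ≤ x ∧ x ≤ b + h * r) ↔ (l ≤ (x - b) / h ∧ (x - b) / h ≤ r) := by
    intro b l r x
    rw [le_div_iff₀ hh, div_le_iff₀ hh]
    constructor <;> rintro ⟨h3, h4⟩ <;> constructor <;> linarith
  have hfc : fc (Pc F) (crs F q a h e o i j J K) =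
      Icc (pt a h l0 l1 ((max e o : ℤ) : ℝ)) (pt a h r0 r1 ((max e o : ℤ) : ℝ)) := by
    ext x
    rw [mem_fc_crs hE hO, mem_cross hq hh he ho heo hJ0 hK0 hJ hK, mem_Icc, Pi.le_def, Pi.le_def]
    simp only [Fin.forall_fin_succ, Fin.succ_zero_eq_one, Fin.succ_one_eq_two, pt_zero, pt_one,
      pt_two, IsEmpty.forall_iff, and_true]
    simp only [hsc, h0, h1]
    rw [← hsc, ← hsc]
    constructor
    · rintro ⟨⟨b1, b2⟩, ⟨b3, b4⟩, b5⟩
      exact ⟨⟨b1, b3, b5.ge⟩, b2, b4, b5.le⟩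
    · rintro ⟨⟨b1, b3, b5⟩, b2, b4, b6⟩
      exact ⟨⟨b1, b2⟩, ⟨b3, b4⟩, le_antisymm b6 b5⟩
  refine ⟨hfc, ?_⟩
  have hle : pt a h l0 l1 ((max e o : ℤ) : ℝ) ≤ pt a h r0 r1 ((max e o : ℤ) : ℝ) := by
    rw [Pi.le_def]
    simp only [Fin.forall_fin_succ, Fin.succ_zero_eq_one, Fin.succ_one_eq_two, pt_zero, pt_one,
      pt_two, IsEmpty.forall_iff, and_true]
    refine ⟨?_, ?_, le_rfl⟩
    · have := mul_le_mul_of_nonneg_left hl0 hh.le
      linarith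
    · have := mul_le_mul_of_nonneg_left hl1 hh.le
      linarith
  rw [bc_of_fc (crs_finite F q a h e o i j J K) ⟨⟨_, hE 0 hJ0⟩, Or.inl ⟨0, hJ0, rfl⟩⟩ hle hfc]
  funext k
  fin_cases k
  · simp only [Fin.zero_eta, pt_zero]; ring
  · simp only [Fin.mk_one, pt_one]; ring
  · simp only [Fin.reduceFinMk, pt_two]; ring

theorem sgn_Icc {σ : ℤ} (hσ : σ = 1 ∨ σ = -1) (i : ℤ) (x : ℝ) :
    (∀ σ' ∈ ({σ, 0} : Finset ℤ), (i : ℝ) + σ' ≤ x ∧ x ≤ i + σ' + 1) ↔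
      (i : ℝ) + (1 + σ) / 2 ≤ x ∧ x ≤ i + (1 + σ) / 2 := by
  simp only [Finset.mem_insert, Finset.mem_singleton, forall_eq_or_imp, forall_eq]
  rcases hσ with rfl | rfl
  · push_cast
    constructor
    · rintro ⟨⟨h1, h2⟩, h3, h4⟩
      constructor <;> linarith
    · rintro ⟨h1, h2⟩
      refine ⟨⟨?_, ?_⟩, ?_, ?_⟩ <;> linarith
  · push_cast
    constructor
    · rintro ⟨⟨h1, h2⟩, h3, h4⟩
      constructor <;> linarith
    · rintro ⟨h1, h2⟩
      refine ⟨⟨?_, ?_⟩, ?_, ?_⟩ <;> linarith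

theorem crs_insert_K {e o i j : ℤ} {J K : Finset ℤ} {σ : ℤ} {c1 : F}
    (h1 : c1.1 = Ly q a h o (i + σ) j) :
    insert c1 (crs F q a h e o i j J K) = crs F q a h e o i j J (insert σ K) := by
  ext c
  constructor
  · rintro (rfl | ⟨τ, hτ, h2⟩ | ⟨σ', hσ', h2⟩)
    · exact Or.inr ⟨σ, Finset.mem_insert_self _ _, h1⟩
    · exact Or.inl ⟨τ, hτ, h2⟩
    · exact Or.inr ⟨σ', Finset.mem_insert_of_mem hσ', h2⟩
  · rintro (⟨τ, hτ, h2⟩ | ⟨σ', hσ', h2⟩)
    · exact Or.inr (Or.inl ⟨τ, hτ, h2⟩)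
    · rcases Finset.mem_insert.1 hσ' with rfl | h3
      · exact Or.inl (Subtype.ext (h2.trans h1.symm))
      · exact Or.inr (Or.inr ⟨σ', h3, h2⟩)

theorem crs_insert_J {e o i j : ℤ} {J K : Finset ℤ} {τ : ℤ} {c2 : F}
    (h1 : c2.1 = Lx q a h e i (j + τ)) :
    insert c2 (crs F q a h e o i j J K) = crs F q a h e o i j (insert τ J) K := by
  ext c
  constructor
  · rintro (rfl | ⟨τ', hτ, h2⟩ | ⟨σ', hσ', h2⟩)
    · exact Or.inl ⟨τ, Finset.mem_insert_self _ _, h1⟩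
    · exact Or.inl ⟨τ', Finset.mem_insert_of_mem hτ, h2⟩
    · exact Or.inr ⟨σ', hσ', h2⟩
  · rintro (⟨τ', hτ, h2⟩ | ⟨σ', hσ', h2⟩)
    · rcases Finset.mem_insert.1 hτ with rfl | h3
      · exact Or.inl (Subtype.ext (h2.trans h1.symm))
      · exact Or.inr (Or.inl ⟨τ', h3, h2⟩)
    · exact Or.inr (Or.inr ⟨σ', hσ', h2⟩)

theorem mem_crs_zero {e o i j : ℤ} {c : F} : c ∈ crs F q a h e o i j {0} {0} ↔
    c.1 = Lx q a h e i j ∨ c.1 = Ly q a h o i j := by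
  constructor
  · rintro (⟨τ, hτ, h2⟩ | ⟨σ', hσ', h2⟩)
    · rw [Finset.mem_singleton] at hτ
      subst hτ
      left; simpa using h2
    · rw [Finset.mem_singleton] at hσ'
      subst hσ'
      right; simpa using h2
  · rintro (h1 | h1)
    · exact Or.inl ⟨0, Finset.mem_singleton_self _, by simpa using h1⟩
    · exact Or.inr ⟨0, Finset.mem_singleton_self _, by simpa using h1⟩

theorem one_Icc (i : ℤ) (x : ℝ) :
    (∀ σ' ∈ ({0} : Finset ℤ), (i : ℝ) + σ' ≤ x ∧ x ≤ i + σ' + 1) ↔ (i : ℝ) ≤ x ∧ x ≤ i + 1 := by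
  simp

variable {La : Set (Fin 3 → ℝ)} {δ κ0 : ℝ}

open Classical in
/-- the coordinates on a quadrant of a good square -/
theorem sc_quadrant (BF : BoxFoam La F δ κ0) (hLa : IsOpen La) (hq : 1 ≤ q) (hh : 0 < h)
    {e o i j : ℤ} (he : Even e) (ho : ¬ Even o) (heo : o = e + 1 ∨ e = o + 1)
    (hg : GoodSq q i j)
    (hE : ∀ τ : ℤ, τ = -1 ∨ τ = 0 ∨ τ = 1 → Lx q a h e i (j + τ) ∈ F)
    (hO : ∀ σ : ℤ, σ = -1 ∨ σ = 0 ∨ σ = 1 → Ly q a h o (i + σ) j ∈ F)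
    {σ τ : ℤ} (hσ : σ = 1 ∨ σ = -1) (hτ : τ = 1 ∨ τ = -1) {ξ ζ : ℝ}
    (hξ : (σ : ℝ) * ξ ∈ Icc (0 : ℝ) (1 / 2)) (hζ : (τ : ℝ) * ζ ∈ Icc (0 : ℝ) (1 / 2)) (c : F) :
    sc (Pc F) (bc (F := F)) (pt a h (i + 1 / 2 + ξ) (j + 1 / 2 + ζ) ((max e o : ℤ) : ℝ)) c =
      if c.1 = Lx q a h e i j ∨ c.1 = Ly q a h o i j then 0
      else if c.1 = Ly q a h o (i + σ) j then 1 - 2 * (σ * ξ)
      else if c.1 = Lx q a h e i (j + τ) then 1 - 2 * (τ * ζ)
      else 1 := by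
  have Fm := foam BF hLa
  have hσ' : σ = -1 ∨ σ = 0 ∨ σ = 1 := hσ.symm.imp_right Or.inr
  have hτ' : τ = -1 ∨ τ = 0 ∨ τ = 1 := hτ.symm.imp_right Or.inr
  have h00 : (0 : ℤ) = -1 ∨ (0 : ℤ) = 0 ∨ (0 : ℤ) = 1 := Or.inr (Or.inl rfl)
  have hσ0 : σ ≠ 0 := by rcases hσ with rfl | rfl <;> decide
  have hτ0 : τ ≠ 0 := by rcases hτ with rfl | rfl <;> decide
  set z : ℝ := ((max e o : ℤ) : ℝ) with hz
  set c1 : F := ⟨_, hO σ hσ'⟩ with hc1
  set c2 : F := ⟨_, hE τ hτ'⟩ with hc2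
  set A : Set F := crs F q a h e o i j {0} {0} with hA
  have hmemA : ∀ c : F, c ∈ A ↔ c.1 = Lx q a h e i j ∨ c.1 = Ly q a h o i j :=
    fun c => mem_crs_zero
  have hA1 : insert c1 A = crs F q a h e o i j {0} {σ, 0} := crs_insert_K rfl
  have hA2 : insert c2 A = crs F q a h e o i j {τ, 0} {0} := crs_insert_J rfl
  have hA12 : insert c2 (insert c1 A) = crs F q a h e o i j {τ, 0} {σ, 0} := by
    rw [hA1]; exact crs_insert_J rfl
  -- hypotheses for the four faces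
  have m0 : ∀ τ' ∈ ({0} : Finset ℤ), τ' = -1 ∨ τ' = 0 ∨ τ' = 1 := by simp
  have mσ : ∀ σ' ∈ ({σ, 0} : Finset ℤ), σ' = -1 ∨ σ' = 0 ∨ σ' = 1 := by
    intro σ' h'
    simp only [Finset.mem_insert, Finset.mem_singleton] at h'
    rcases h' with rfl | rfl
    · exact hσ'
    · exact h00
  have mτ : ∀ σ' ∈ ({τ, 0} : Finset ℤ), σ' = -1 ∨ σ' = 0 ∨ σ' = 1 := by
    intro σ' h'
    simp only [Finset.mem_insert, Finset.mem_singleton] at h'
    rcases h' with rfl | rfl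
    · exact hτ'
    · exact h00
  have hi1 : (i : ℝ) ≤ i + 1 := by linarith
  have hj1 : (j : ℝ) ≤ j + 1 := by linarith
  obtain ⟨f0, b0⟩ := fc_crs (F := F) (a := a) hq hh he ho heo (J := {0}) (K := {0}) (by simp)
    (by simp) (fun t ht => (hg t (m0 t ht)).1) (fun t ht => (hg t (m0 t ht)).2)
    (fun t ht => hE t (m0 t ht)) (fun t ht => hO t (m0 t ht)) hi1 hj1 (one_Icc i) (one_Icc j)
  obtain ⟨f1, b1⟩ := fc_crs (F := F) (a := a) hq hh he ho heo (J := {0}) (K := {σ, 0}) (by simp)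
    (by simp) (fun t ht => (hg t (m0 t ht)).1) (fun t ht => (hg t (mσ t ht)).2)
    (fun t ht => hE t (m0 t ht)) (fun t ht => hO t (mσ t ht)) le_rfl hj1 (sgn_Icc hσ i)
    (one_Icc j)
  obtain ⟨f2, b2⟩ := fc_crs (F := F) (a := a) hq hh he ho heo (J := {τ, 0}) (K := {0}) (by simp)
    (by simp) (fun t ht => (hg t (mτ t ht)).1) (fun t ht => (hg t (m0 t ht)).2)
    (fun t ht => hE t (mτ t ht)) (fun t ht => hO t (m0 t ht)) hi1 le_rfl (one_Icc i)
    (sgn_Icc hτ j)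
  obtain ⟨f3, b3⟩ := fc_crs (F := F) (a := a) hq hh he ho heo (J := {τ, 0}) (K := {σ, 0})
    (by simp) (by simp) (fun t ht => (hg t (mτ t ht)).1) (fun t ht => (hg t (mσ t ht)).2)
    (fun t ht => hE t (mτ t ht)) (fun t ht => hO t (mσ t ht)) le_rfl le_rfl (sgn_Icc hσ i)
    (sgn_Icc hτ j)
  rw [← hA1] at f1 b1
  rw [← hA2] at f2 b2
  rw [← hA12] at f3 b3
  rw [← hA] at f0 b0
  have hAne : A.Nonempty := ⟨⟨_, hE 0 h00⟩, (hmemA _).2 (Or.inl (by simp))⟩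
  have hc1A : c1 ∉ A := by
    rw [hmemA]
    rintro (h1 | h1)
    · exact Lx_ne_Ly hh he ho h1.symm
    · have := Ly_inj hh ho h1
      omega
  have hc2A : c2 ∉ A := by
    rw [hmemA]
    rintro (h1 | h1)
    · have := Lx_inj hh he h1
      omega
    · exact Lx_ne_Ly hh he ho h1
  have hcne : c1 ≠ c2 := by
    intro h1
    exact Lx_ne_Ly hh he ho (congrArg Subtype.val h1).symm
  have hfne : (fc (Pc F) (insert c2 (insert c1 A))).Nonempty := by
    rw [f3]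
    exact nonempty_Icc.2 le_rfl
  have hσ2 : (σ : ℝ) * σ = 1 := by rcases hσ with rfl | rfl <;> norm_num
  have hτ2 : (τ : ℝ) * τ = 1 := by rcases hτ with rfl | rfl <;> norm_num
  have hres := sc_rect Fm hAne hc1A hc2A hcne hfne (v := hv h (σ / 2) 0)
    (w := hv h 0 (τ / 2)) (s := 1 - 2 * (σ * ξ)) (t := 1 - 2 * (τ * ζ))
    (by rw [b1, b0, pt_add]; congr 1 <;> ring) (by rw [b2, b0, pt_add]; congr 1 <;> ring)
    (by rw [b3, b0, pt_add, pt_add]; congr 1 <;> ring)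
    ⟨by linarith [hξ.2], by linarith [hξ.1]⟩ ⟨by linarith [hζ.2], by linarith [hζ.1]⟩
  have hy : bc A + (1 - (1 - 2 * ((σ : ℝ) * ξ))) • hv h (σ / 2) 0 +
      (1 - (1 - 2 * ((τ : ℝ) * ζ))) • hv h 0 (τ / 2) =
      pt a h (i + 1 / 2 + ξ) (j + 1 / 2 + ζ) z := by
    rw [b0, smul_hv, smul_hv, pt_add, pt_add]
    congr 1
    · linear_combination ξ * hσ2
    · linear_combination ζ * hτ2
  rw [hy] at hres
  rw [hres]
  simp only [hmemA, hc1, hc2, Subtype.ext_iff]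

section ite
variable {α : Type*} [DecidableEq α] {c P M P' M' : α} {A : Prop} [Decidable A] {p r : ℝ}

theorem ite1 (h1 : M ≠ P') :
    (if A then (0 : ℝ) else if c = P then p else if c = P' then r else 1) =
    (if A then 0 else if c = P then p else if c = M then 1 - 2 * 0 else if c = P' then r
      else if c = M' then 1 - 2 * 0 else 1) := by
  have e1 : (1 : ℝ) - 2 * 0 = 1 := by norm_num
  rw [e1]
  by_cases hM : c = M
  · have hP : c ≠ P' := hM ▸ h1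
    rw [if_pos hM, if_neg hP]
  · rw [if_neg hM]
    simp only [ite_self]

theorem ite2 (h1 : M ≠ M') (h2 : P' ≠ M') :
    (if A then (0 : ℝ) else if c = P then p else if c = M' then r else 1) =
    (if A then 0 else if c = P then p else if c = M then 1 - 2 * 0 else if c = P' then 1 - 2 * 0
      else if c = M' then r else 1) := by
  have e1 : (1 : ℝ) - 2 * 0 = 1 := by norm_num
  rw [e1]
  by_cases hM : c = M
  · have hP : c ≠ M' := hM ▸ h1
    rw [if_pos hM, if_neg hP]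
  · rw [if_neg hM]
    by_cases hM' : c = P'
    · have hP : c ≠ M' := hM' ▸ h2
      rw [if_pos hM', if_neg hP]
    · rw [if_neg hM']

theorem ite3 (h1 : P ≠ M) (h2 : P ≠ P') :
    (if A then (0 : ℝ) else if c = M then p else if c = P' then r else 1) =
    (if A then 0 else if c = P then 1 - 2 * 0 else if c = M then p else if c = P' then r
      else if c = M' then 1 - 2 * 0 else 1) := by
  have e1 : (1 : ℝ) - 2 * 0 = 1 := by norm_num
  rw [e1]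
  by_cases hM : c = P
  · have hP : c ≠ M := hM ▸ h1
    have hP' : c ≠ P' := hM ▸ h2
    rw [if_pos hM, if_neg hP, if_neg hP']
  · rw [if_neg hM]
    simp only [ite_self]

theorem ite4 (h1 : P ≠ M) (h2 : P ≠ M') (h3 : P' ≠ M') :
    (if A then (0 : ℝ) else if c = M then p else if c = M' then r else 1) =
    (if A then 0 else if c = P then 1 - 2 * 0 else if c = M then p else if c = P' then 1 - 2 * 0
      else if c = M' then r else 1) := by
  have e1 : (1 : ℝ) - 2 * 0 = 1 := by norm_num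
  rw [e1]
  by_cases hM : c = P
  · have hP : c ≠ M := hM ▸ h1
    have hP' : c ≠ M' := hM ▸ h2
    rw [if_pos hM, if_neg hP, if_neg hP']
  · rw [if_neg hM]
    by_cases hM' : c = P'
    · have hP : c ≠ M' := hM' ▸ h3
      rw [if_pos hM', if_neg hP]
    · rw [if_neg hM']

end ite

open Classical in
/-- **the coordinates on a good square**: `0` for the two logs of the square, one minus twice the
positive part of the distance from the centre line for the four logs beyond the sides, `1` else -/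
theorem sc_square (BF : BoxFoam La F δ κ0) (hLa : IsOpen La) (hq : 1 ≤ q) (hh : 0 < h)
    {e o i j : ℤ} (he : Even e) (ho : ¬ Even o) (heo : o = e + 1 ∨ e = o + 1)
    (hg : GoodSq q i j)
    (hE : ∀ τ : ℤ, τ = -1 ∨ τ = 0 ∨ τ = 1 → Lx q a h e i (j + τ) ∈ F)
    (hO : ∀ σ : ℤ, σ = -1 ∨ σ = 0 ∨ σ = 1 → Ly q a h o (i + σ) j ∈ F)
    {ξ ζ : ℝ} (hξ : |ξ| ≤ 1 / 2) (hζ : |ζ| ≤ 1 / 2) (c : F) :
    sc (Pc F) (bc (F := F)) (pt a h (i + 1 / 2 + ξ) (j + 1 / 2 + ζ) ((max e o : ℤ) : ℝ)) c =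
      if c.1 = Lx q a h e i j ∨ c.1 = Ly q a h o i j then 0
      else if c.1 = Ly q a h o (i + 1) j then 1 - 2 * max ξ 0
      else if c.1 = Ly q a h o (i - 1) j then 1 - 2 * max (-ξ) 0
      else if c.1 = Lx q a h e i (j + 1) then 1 - 2 * max ζ 0
      else if c.1 = Lx q a h e i (j - 1) then 1 - 2 * max (-ζ) 0
      else 1 := by
  have hξ' := abs_le.1 hξ
  have hζ' := abs_le.1 hζ
  have n1 : Ly q a h o (i + 1) j ≠ Ly q a h o (i - 1) j := fun h1 => by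
    have := Ly_inj hh ho h1; omega
  have n2 : Lx q a h e i (j + 1) ≠ Lx q a h e i (j - 1) := fun h1 => by
    have := Lx_inj hh he h1; omega
  have n3 : ∀ i' j', Ly q a h o i' j ≠ Lx q a h e i j' := fun _ _ => (Lx_ne_Ly hh he ho).symm
  rcases le_total 0 ξ with h1 | h1 <;> rcases le_total 0 ζ with h2 | h2
  · have := sc_quadrant BF hLa hq hh he ho heo hg hE hO (σ := 1) (τ := 1) (Or.inl rfl) (Or.inl rfl)
      (ξ := ξ) (ζ := ζ) (by push_cast; constructor <;> linarith)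
      (by push_cast; constructor <;> linarith) c
    rw [this, max_eq_left h1, max_eq_left h2, max_eq_right (by linarith : -ξ ≤ 0),
      max_eq_right (by linarith : -ζ ≤ 0)]
    push_cast
    rw [one_mul, one_mul]
    exact ite1 (n3 _ _)
  · have := sc_quadrant BF hLa hq hh he ho heo hg hE hO (σ := 1) (τ := -1) (Or.inl rfl)
      (Or.inr rfl) (ξ := ξ) (ζ := ζ) (by push_cast; constructor <;> linarith)
      (by push_cast; constructor <;> linarith) c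
    rw [this, max_eq_left h1, max_eq_right h2, max_eq_right (by linarith : -ξ ≤ 0),
      max_eq_left (by linarith : 0 ≤ -ζ)]
    push_cast
    rw [← sub_eq_add_neg, one_mul, neg_one_mul]
    exact ite2 (n3 _ _) n2
  · have := sc_quadrant BF hLa hq hh he ho heo hg hE hO (σ := -1) (τ := 1) (Or.inr rfl)
      (Or.inl rfl) (ξ := ξ) (ζ := ζ) (by push_cast; constructor <;> linarith)
      (by push_cast; constructor <;> linarith) c
    rw [this, max_eq_right h1, max_eq_left h2, max_eq_left (by linarith : 0 ≤ -ξ),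
      max_eq_right (by linarith : -ζ ≤ 0)]
    push_cast
    rw [← sub_eq_add_neg, one_mul, neg_one_mul]
    exact ite3 n1 (n3 _ _)
  · have := sc_quadrant BF hLa hq hh he ho heo hg hE hO (σ := -1) (τ := -1) (Or.inr rfl)
      (Or.inr rfl) (ξ := ξ) (ζ := ζ) (by push_cast; constructor <;> linarith)
      (by push_cast; constructor <;> linarith) c
    rw [this, max_eq_right h1, max_eq_right h2, max_eq_left (by linarith : 0 ≤ -ξ),
      max_eq_left (by linarith : 0 ≤ -ζ)]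
    push_cast
    rw [← sub_eq_add_neg, ← sub_eq_add_neg, neg_one_mul, neg_one_mul]
    exact ite4 n1 (n3 _ _) n2

end logs

end Crest.Agent.R096.Log1_582
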