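import Crest.Agent.R096.Lmg1_609
import Crest.Agent.R096.Grd4_714

/-!
# R096 (row 96), NO0, helper364: the clause `lipT` of `OutNO` (477), part 1

`Bn_near`: the map of the grid (any admissible heights, any shape of the quads) is Lipschitz in the
labels, locally in the 2-skeleton, with the universal constant `10` times the diameter `W` of the
barycentres of the faces between `{u = 0}` and `{u < 1}`.
-/

set_option autoImplicit false
set_option linter.unusedSectionVars false
set_option linter.unusedVariables false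

open Set MeasureTheory Filter Topology

namespace Crest.Agent.R096.Lpt_364

open Crest.Agent.R096.Brk1_582 Crest.Agent.R096.Brk2_582 Crest.Agent.R096.Brk6_582
open Crest.Agent.R096.Grd_714

variable {E : Type*} [NormedAddCommGroup E] [NormedSpace ℝ E] {I : Type*}
variable {La : Set E} {P : I → Set E} {b : Set I → E} {N : I → I → ℝ × ℝ → ℝ}

/-- all barycentres of the faces between `{u = 0}` and `{u < 1}` lie in `D` -/
def Bin (b : Set I → E) (D : Set E) (u : I → ℝ) : Prop :=
  ∀ S : Set I, {c | u c = 0} ⊆ S → S ⊆ {c | u c < 1} → b S ∈ D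

lemma abs_min_sub (a b c d : ℝ) : |min a b - min c d| ≤ |a - c| + |b - d| := by
  have h1 := abs_nonneg (a - c)
  have h2 := abs_nonneg (b - d)
  have h3 := le_abs_self (a - c)
  have h4 := le_abs_self (b - d)
  have h5 := neg_abs_le (a - c)
  have h6 := neg_abs_le (b - d)
  rw [abs_le]
  rcases le_total a b with h | h <;> rcases le_total c d with h' | h' <;>
    simp only [min_eq_left, min_eq_right, h, h'] <;> constructor <;> linarith

variable [CompleteSpace E] (A : ∀ c1 c2, Adm (N c1 c2)) (hN : Sym N) (F : Foam La P b 4)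
include A hN F

theorem Bn_near {u u' : I → ℝ} (hu : u ∈ K2 P) (hu' : u' ∈ K2 P) {D : Set E} {W : ℝ}
    (hW : ∀ y ∈ D, ∀ y' ∈ D, ‖y - y'‖ ≤ W) (hD : Bin b D u) (hD' : Bin b D u')
    (n1 : ∀ c, |u c - u' c| < 1) (n2 : av u ⊆ av u') {ρ : ℝ}
    (hρ : ∀ c ∈ av u', |u c - u' c| ≤ ρ) (hρ0 : 0 ≤ ρ) :
    ‖Bn b N u - Bn b N u'‖ ≤ 10 * W * ρ := by
  classical
  have hfin := F.K_finite hu.1
  have hfin' := F.K_finite hu'.1
  have b0 : ∀ c, 0 ≤ u c ∧ u c ≤ 1 := hu.1.1
  have b0' : ∀ c, 0 ≤ u' c ∧ u' c ≤ 1 := hu'.1.1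
  have hav' : (av u').Finite := hfin'.subset fun _ hc => hc.2
  have hav : (av u).Finite := hfin.subset fun _ hc => hc.2
  -- outside `av u'` the labels agree
  have heq : ∀ c, c ∉ av u' → u c = u' c := by
    intro c hc
    have hc2 : c ∉ av u := fun h => hc (n2 h)
    have e1 : u c = 0 ∨ u c = 1 := by
      by_contra hcon
      push Not at hcon
      exact hc2 ⟨lt_of_le_of_ne (b0 c).1 (Ne.symm hcon.1), lt_of_le_of_ne (b0 c).2 hcon.2⟩
    have e2 : u' c = 0 ∨ u' c = 1 := by
      by_contra hcon
      push Not at hcon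
      exact hc ⟨lt_of_le_of_ne (b0' c).1 (Ne.symm hcon.1), lt_of_le_of_ne (b0' c).2 hcon.2⟩
    have h3 := n1 c
    rcases e1 with e1 | e1 <;> rcases e2 with e2 | e2 <;> rw [e1, e2] at h3 ⊢ <;>
      norm_num at h3
  have hD0 : b {c | u c = 0} ∈ D := hD _ Subset.rfl fun c (hc : u c = 0) => by
    show u c < 1; rw [hc]; exact one_pos
  have hW0 : 0 ≤ W := (norm_nonneg _).trans (hW _ hD0 _ hD0)
  -- number of active labels
  have hcard : hav'.toFinset.card ≤ 2 := by
    rw [← ncard_eq_toFinset_card _ hav']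
    rcases K2_cases F hu' with h | ⟨c1, c2, hne, h, -⟩
    · omega
    · rw [h, ncard_pair hne]
  -- the part `T`
  have hT : ‖T b u - T b u'‖ ≤ 2 * W * ρ := by
    have h1 := Lmg_609.T_lip (b := b) hfin hfin' hav'.toFinset (fun c hc => Or.inl (heq c (by
      rw [Finite.mem_toFinset] at hc; exact hc))) (D := W) (fun τ hτ => by
        refine hW _ (hD _ ?_ ?_) _ (hD' _ ?_ ?_)
        · intro c (hc : u c = 0)
          show u c ≤ τ
          rw [hc]; exact hτ.1.le
        · intro c (hc : u c ≤ τ)
          exact lt_of_le_of_lt hc hτ.2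
        · intro c (hc : u' c = 0)
          show u' c ≤ τ
          rw [hc]; exact hτ.1.le
        · intro c (hc : u' c ≤ τ)
          exact lt_of_le_of_lt hc hτ.2)
    have h2 : ∑ c ∈ hav'.toFinset, |u c - u' c| ≤ 2 * ρ := by
      calc ∑ c ∈ hav'.toFinset, |u c - u' c| ≤ ∑ _c ∈ hav'.toFinset, ρ :=
            Finset.sum_le_sum fun c hc => hρ c (hav'.mem_toFinset.1 hc)
        _ = hav'.toFinset.card * ρ := by rw [Finset.sum_const, nsmul_eq_mul]
        _ ≤ 2 * ρ := mul_le_mul_of_nonneg_right (by exact_mod_cast hcard) hρ0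
    calc ‖T b u - T b u'‖ ≤ W * ∑ c ∈ hav'.toFinset, |u c - u' c| := h1
      _ ≤ W * (2 * ρ) := mul_le_mul_of_nonneg_left h2 hW0
      _ = 2 * W * ρ := by ring
  have hWρ : 0 ≤ W * ρ := mul_nonneg hW0 hρ0
  rcases K2_cases F hu' with h1 | ⟨c1, c2, hne, hav2, -, -⟩
  · -- no correction
    have h2 : (av u).ncard ≤ 1 := (ncard_le_ncard n2 hav').trans h1
    rw [Bn_of_ncard (by omega), Bn_of_ncard (by omega)]
    refine hT.trans ?_
    linarith
  · set V : E := b {c | u' c < 1} + b {c | u' c = 0} - b (insert c1 {c | u' c = 0}) -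
        b (insert c2 {c | u' c = 0}) with hV
    have m1 : c1 ∈ av u' := by rw [hav2]; simp
    have m2 : c2 ∈ av u' := by rw [hav2]; simp
    have e' : Bn b N u' = T b u' + (N c1 c2 (1 - u' c1, 1 - u' c2) -
        min (1 - u' c1) (1 - u' c2)) • V := Bn_eq hN hne hav2
    have e : Bn b N u = T b u + (N c1 c2 (1 - u c1, 1 - u c2) -
        min (1 - u c1) (1 - u c2)) • V := by
      by_cases h2 : (av u).ncard = 2
      · have hau : av u = {c1, c2} := by
          rw [← hav2]
          refine eq_of_subset_of_ncard_le n2 ?_ hav'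
          rw [h2, hav2, ncard_pair hne]
        have s1 : {c | u c < 1} = {c | u' c < 1} := by
          ext c
          show u c < 1 ↔ u' c < 1
          by_cases hc : c ∈ av u'
          · have hc1 : c ∈ av u := by rw [hau, ← hav2]; exact hc
            exact ⟨fun _ => hc.2, fun _ => hc1.2⟩
          · rw [heq c hc]
        have s2 : {c | u c = 0} = {c | u' c = 0} := by
          ext c
          show u c = 0 ↔ u' c = 0
          by_cases hc : c ∈ av u'
          · have hc1 : c ∈ av u := by rw [hau, ← hav2]; exact hc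
            exact ⟨fun h => absurd h hc1.1.ne', fun h => absurd h hc.1.ne'⟩
          · rw [heq c hc]
        rw [Bn_eq hN hne hau, s1, s2]
      · have hin : ((1 - u c1, 1 - u c2) : ℝ × ℝ) ∈ Sc :=
          ⟨⟨by simp only; linarith [(b0 c1).2], by simp only; linarith [(b0 c1).1]⟩,
            ⟨by simp only; linarith [(b0 c2).2], by simp only; linarith [(b0 c2).1]⟩⟩
        have hz : N c1 c2 (1 - u c1, 1 - u c2) - min (1 - u c1) (1 - u c2) = 0 := by
          rw [(A c1 c2).bd _ hin, sub_self]
          intro ho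
          apply h2
          have k1 := ho.1
          have k2 := ho.2
          simp only [mem_Ioo] at k1 k2
          have : av u = {c1, c2} := by
            rw [← hav2]
            refine Subset.antisymm n2 ?_
            rw [hav2]
            rintro c (rfl | rfl)
            · exact ⟨by linarith [k1.2], by linarith [k1.1]⟩
            · exact ⟨by linarith [k2.2], by linarith [k2.1]⟩
          rw [this, ncard_pair hne]
        rw [Bn_of_ncard h2, hz, zero_smul, add_zero]
    have hVn : ‖V‖ ≤ 2 * W := by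
      have i1 : insert c1 {c | u' c = 0} ⊆ {c | u' c < 1} := by
        rintro c (rfl | hc)
        · exact m1.2
        · show u' c < 1
          rw [show u' c = 0 from hc]; exact one_pos
      have i2 : insert c2 {c | u' c = 0} ⊆ {c | u' c < 1} := by
        rintro c (rfl | hc)
        · exact m2.2
        · show u' c < 1
          rw [show u' c = 0 from hc]; exact one_pos
      have d1 := hD' {c | u' c < 1} ((subset_insert _ _).trans i1) Subset.rfl
      have d2 := hD' {c | u' c = 0} Subset.rfl ((subset_insert _ _).trans i1)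
      have d3 := hD' (insert c1 {c | u' c = 0}) (subset_insert _ _) i1
      have d4 := hD' (insert c2 {c | u' c = 0}) (subset_insert _ _) i2
      have e3 : V = (b {c | u' c < 1} - b (insert c1 {c | u' c = 0})) +
          (b {c | u' c = 0} - b (insert c2 {c | u' c = 0})) := by rw [hV]; abel
      rw [e3]
      refine (norm_add_le _ _).trans ?_
      have := hW _ d1 _ d3
      have := hW _ d2 _ d4
      linarith
    have hNN : |(N c1 c2 (1 - u c1, 1 - u c2) - min (1 - u c1) (1 - u c2)) -
        (N c1 c2 (1 - u' c1, 1 - u' c2) - min (1 - u' c1) (1 - u' c2))| ≤ 4 * ρ := by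
      have w1 : ((1 - u c1, 1 - u c2) : ℝ × ℝ) ∈ Sc :=
          ⟨⟨by simp only; linarith [(b0 c1).2], by simp only; linarith [(b0 c1).1]⟩,
            ⟨by simp only; linarith [(b0 c2).2], by simp only; linarith [(b0 c2).1]⟩⟩
      have w2 : ((1 - u' c1, 1 - u' c2) : ℝ × ℝ) ∈ Sc :=
          ⟨⟨by simp only; linarith [(b0' c1).2], by simp only; linarith [(b0' c1).1]⟩,
            ⟨by simp only; linarith [(b0' c2).2], by simp only; linarith [(b0' c2).1]⟩⟩
      have k1 := (A c1 c2).abs_diff w1 w2
      have k2 := abs_min_sub (1 - u c1) (1 - u c2) (1 - u' c1) (1 - u' c2)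
      have r1 := hρ c1 m1
      have r2 := hρ c2 m2
      simp only at k1
      rw [show 1 - u c1 - (1 - u' c1) = -(u c1 - u' c1) by ring,
        show 1 - u c2 - (1 - u' c2) = -(u c2 - u' c2) by ring, abs_neg, abs_neg] at k1 k2
      rw [show (N c1 c2 (1 - u c1, 1 - u c2) - min (1 - u c1) (1 - u c2)) -
        (N c1 c2 (1 - u' c1, 1 - u' c2) - min (1 - u' c1) (1 - u' c2)) =
        (N c1 c2 (1 - u c1, 1 - u c2) - N c1 c2 (1 - u' c1, 1 - u' c2)) -
        (min (1 - u c1) (1 - u c2) - min (1 - u' c1) (1 - u' c2)) by ring]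
      refine (abs_sub _ _).trans ?_
      linarith
    have e4 : Bn b N u - Bn b N u' = (T b u - T b u') +
        ((N c1 c2 (1 - u c1, 1 - u c2) - min (1 - u c1) (1 - u c2)) -
        (N c1 c2 (1 - u' c1, 1 - u' c2) - min (1 - u' c1) (1 - u' c2))) • V := by
      rw [e, e']; module
    rw [e4]
    refine (norm_add_le _ _).trans ?_
    rw [norm_smul, Real.norm_eq_abs]
    have k3 : |(N c1 c2 (1 - u c1, 1 - u c2) - min (1 - u c1) (1 - u c2)) -
        (N c1 c2 (1 - u' c1, 1 - u' c2) - min (1 - u' c1) (1 - u' c2))| * ‖V‖ ≤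
        4 * ρ * (2 * W) := mul_le_mul hNN hVn (norm_nonneg _) (by linarith)
    have : 4 * ρ * (2 * W) = 8 * W * ρ := by ring
    linarith

end Crest.Agent.R096.Lpt_364
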