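import Crest.Agent.R096.Lc9_451
import Crest.Agent.R096.Al2_63

/-!
# R096/Lr1_296 (helper296, row 96, P2-REALISATION, part 1)

Carriers in `(ℝ × ℝ) × ℝ` of mod 2 chains of cells in doubled coordinates. Key: the real number `x` lies
in the closed cell `a` iff its open cell `oc x = ⌊x⌋ + ⌈x⌉` is a face of `a`.
-/

set_option autoImplicit false

namespace Crest.Agent.R096.Lr_296

open Set Crest.Agent.R096.Lc_451 Crest.Agent.R096.Al_63

/-- the open cell which contains `x` (doubled coordinate) -/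
noncomputable def oc (x : ℝ) : ℤ := ⌊x⌋ + ⌈x⌉

/-- the closed cell: `{c / 2}` for even `c`, `[(c - 1) / 2, (c + 1) / 2]` for odd `c` -/
def iv (c : ℤ) : Set ℝ := {x | |2 * x - c| ≤ ((c % 2 : ℤ) : ℝ)}

theorem oc_cases (x : ℝ) : (∃ k : ℤ, x = k ∧ oc x = 2 * k) ∨
    (∃ k : ℤ, (k : ℝ) < x ∧ x < k + 1 ∧ oc x = 2 * k + 1) := by
  rcases eq_or_lt_of_le (Int.floor_le x) with h | h
  · left
    refine ⟨⌊x⌋, h.symm, ?_⟩
    unfold oc
    have : ⌈x⌉ = ⌊x⌋ := by
      rw [← h]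
      simp
    rw [this]; ring
  · right
    refine ⟨⌊x⌋, h, Int.lt_floor_add_one x, ?_⟩
    unfold oc
    have : ⌈x⌉ = ⌊x⌋ + 1 := by
      rw [Int.ceil_eq_iff]
      refine ⟨?_, ?_⟩
      · push_cast; linarith
      · push_cast; exact (Int.lt_floor_add_one x).le
    rw [this]; ring

theorem mem_iv {x : ℝ} {a : ℤ} : x ∈ iv a ↔ |oc x - a| ≤ a % 2 := by
  show |2 * x - a| ≤ ((a % 2 : ℤ) : ℝ) ↔ _
  rcases oc_cases x with ⟨k, rfl, h⟩ | ⟨k, h1, h2, h⟩
  · rw [h]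
    have e : |2 * (k : ℝ) - a| = ((|2 * k - a| : ℤ) : ℝ) := by push_cast; rfl
    rw [e]
    exact Int.cast_le
  · rw [h]
    rcases Int.emod_two_eq_zero_or_one a with ha | ha
    · rw [ha, abs_le, abs_le]
      constructor
      · rintro ⟨h3, h4⟩
        exfalso
        have e : (a : ℝ) = ((2 * (a / 2) : ℤ) : ℝ) := by
          rw [Int.mul_ediv_cancel' (Int.dvd_of_emod_eq_zero ha)]
        push_cast at e h3 h4
        have e1 : ((a / 2 : ℤ) : ℝ) < k + 1 := by linarith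
        have e2 : (k : ℝ) < ((a / 2 : ℤ) : ℝ) := by linarith
        have e1' : a / 2 < k + 1 := by exact_mod_cast e1
        have e2' : k < a / 2 := by exact_mod_cast e2
        omega
      · intro h3
        exfalso
        omega
    · rw [ha, abs_le, abs_le]
      constructor
      · rintro ⟨h3, h4⟩
        push_cast at h3 h4
        have e1 : (a : ℝ) < 2 * k + 3 := by linarith
        have e2 : (2 * k - 1 : ℝ) < a := by linarith
        have e1' : a < 2 * k + 3 := by exact_mod_cast e1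
        have e2' : 2 * k - 1 < a := by exact_mod_cast e2
        omega
      · intro h3
        have : a = 2 * k + 1 := by omega
        rw [this]
        push_cast
        constructor <;> linarith

theorem mem_iv_odd {x : ℝ} {a : ℤ} (ha : a % 2 = 1) : x ∈ iv a ↔ |2 * x - a| ≤ 1 := by
  show |2 * x - a| ≤ ((a % 2 : ℤ) : ℝ) ↔ _
  rw [ha]
  norm_num

theorem mem_iv_even {x : ℝ} {a : ℤ} (ha : a % 2 = 0) : x ∈ iv a ↔ x = a / 2 := by
  show |2 * x - a| ≤ ((a % 2 : ℤ) : ℝ) ↔ _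
  rw [ha, Int.cast_zero, abs_nonpos_iff, sub_eq_zero, eq_div_iff (two_ne_zero' ℝ), mul_comm]

theorem iv_odd_eq {a : ℤ} (ha : a % 2 = 1) : iv a = Icc (((a : ℝ) - 1) / 2) ((a + 1) / 2) := by
  ext x
  rw [mem_iv_odd ha, abs_le, mem_Icc]
  constructor
  · rintro ⟨h1, h2⟩; constructor <;> linarith
  · rintro ⟨h1, h2⟩; constructor <;> linarith

theorem oc_eq_iff {x : ℝ} {a : ℤ} (ha : a % 2 = 0) : oc x = a ↔ x = a / 2 := by
  rw [← mem_iv_even ha, mem_iv, ha, abs_nonpos_iff, sub_eq_zero]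

theorem isClosed_iv (c : ℤ) : IsClosed (iv c) := isClosed_le (by fun_prop) continuous_const

theorem isCompact_iv (c : ℤ) : IsCompact (iv c) := by
  have h : iv c = Icc (((c : ℝ) - ((c % 2 : ℤ) : ℝ)) / 2) ((c + ((c % 2 : ℤ) : ℝ)) / 2) := by
    ext x
    show |2 * x - c| ≤ ((c % 2 : ℤ) : ℝ) ↔ _
    rw [abs_le, mem_Icc]
    constructor
    · rintro ⟨h1, h2⟩; constructor <;> linarith
    · rintro ⟨h1, h2⟩; constructor <;> linarith
  rw [h]
  exact isCompact_Icc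

/-- the open cell of a point of the plane -/
noncomputable def o2 (x : ℝ × ℝ) : Pt := (oc x.1, oc x.2)

/-- `q` is a face of `p` in the plane -/
def F2 (q p : Pt) : Prop := |q.1 - p.1| ≤ p.1 % 2 ∧ |q.2 - p.2| ≤ p.2 % 2

/-- `(q, w)` is a face of `(p, z)` -/
def Fa (q : Pt) (w : ℤ) (p : Pt) (z : ℤ) : Prop := F2 q p ∧ |w - z| ≤ z % 2

theorem F2.refl (q : Pt) : F2 q q := by
  constructor
  · rw [sub_self, abs_zero]; omega
  · rw [sub_self, abs_zero]; omega

theorem F2.trans {q e p : Pt} (h1 : F2 q e) (h2 : F2 e p) : F2 q p := by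
  unfold F2 at *
  simp only [abs_le] at *
  omega

theorem Fa.trans {q e p : Pt} {w u z : ℤ} (h1 : Fa q w e u) (h2 : Fa e u p z) : Fa q w p z := by
  refine ⟨h1.1.trans h2.1, ?_⟩
  have a := h1.2
  have b := h2.2
  simp only [abs_le] at *
  omega

/-- the closed cell `(p, z)` -/
def cl (p : Pt) (z : ℤ) : Set ((ℝ × ℝ) × ℝ) := (iv p.1 ×ˢ iv p.2) ×ˢ iv z

theorem mem_cl {x : (ℝ × ℝ) × ℝ} {p : Pt} {z : ℤ} : x ∈ cl p z ↔ Fa (o2 x.1) (oc x.2) p z := by
  show (x.1.1 ∈ iv p.1 ∧ x.1.2 ∈ iv p.2) ∧ x.2 ∈ iv z ↔ _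
  rw [mem_iv, mem_iv, mem_iv]
  rfl

theorem isCompact_cl (p : Pt) (z : ℤ) : IsCompact (cl p z) :=
  ((isCompact_iv _).prod (isCompact_iv _)).prod (isCompact_iv _)

/-- the carrier of a chain -/
def car (S : Pt → ℤ → ZMod 2) : Set ((ℝ × ℝ) × ℝ) :=
  ⋃ q ∈ {q : Pt × ℤ | S q.1 q.2 ≠ 0}, cl q.1 q.2

theorem mem_car {S : Pt → ℤ → ZMod 2} {x : (ℝ × ℝ) × ℝ} :
    x ∈ car S ↔ ∃ p z, S p z ≠ 0 ∧ Fa (o2 x.1) (oc x.2) p z := by
  unfold car
  simp only [mem_iUnion]
  constructor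
  · rintro ⟨⟨p, z⟩, h, hx⟩
    exact ⟨p, z, h, mem_cl.1 hx⟩
  · rintro ⟨p, z, h, hx⟩
    exact ⟨⟨p, z⟩, h, mem_cl.2 hx⟩

theorem isCompact_car {S : Pt → ℤ → ZMod 2} (h : {q : Pt × ℤ | S q.1 q.2 ≠ 0}.Finite) :
    IsCompact (car S) := h.isCompact_biUnion fun _ _ => isCompact_cl _ _

theorem sq_iff {s : Pt} (hs : Sq s) {x : ℝ × ℝ} : x ∈ sq s ↔ F2 (o2 x) s := by
  show |2 * x.1 - s.1| ≤ 1 ∧ |2 * x.2 - s.2| ≤ 1 ↔ _
  rw [← mem_iv_odd hs.1, ← mem_iv_odd hs.2, mem_iv, mem_iv]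
  rfl

theorem mem_area' {W : Finset Pt} (hW : ∀ s ∈ W, Sq s) {x : ℝ × ℝ} :
    x ∈ area W ↔ ∃ s ∈ W, F2 (o2 x) s := by
  rw [mem_area]
  constructor
  · rintro ⟨s, hs, hx⟩; exact ⟨s, hs, (sq_iff (hW s hs)).1 hx⟩
  · rintro ⟨s, hs, hx⟩; exact ⟨s, hs, (sq_iff (hW s hs)).2 hx⟩

/-- the carrier of the flat disc -/
theorem car_layer {W : Finset Pt} (hW : ∀ s ∈ W, Sq s) {h : ℤ} (hh : h % 2 = 0) :
    car (layer W h) = area W ×ˢ {(h / 2 : ℝ)} := by
  ext x
  rw [mem_car, mem_prod, mem_area' hW, mem_singleton_iff, ← oc_eq_iff hh]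
  constructor
  · rintro ⟨p, z, h1, h2, h3⟩
    obtain ⟨rfl, hp⟩ := layer_ne h1
    refine ⟨⟨p, hp, h2⟩, ?_⟩
    rw [hh, abs_nonpos_iff, sub_eq_zero] at h3
    exact h3
  · rintro ⟨⟨s, hs, h1⟩, h2⟩
    refine ⟨s, h, ?_, h1, ?_⟩
    · unfold layer
      rw [if_pos ⟨rfl, hs⟩]
      decide
    · rw [h2, sub_self, abs_zero, hh]

/-- the boundary curve -/
theorem mem_bdr {W : Finset Pt} (hW : ∀ s ∈ W, Sq s) {x : ℝ × ℝ} :
    x ∈ bdr W ↔ ∃ e, bd2 (ind W) e ≠ 0 ∧ F2 (o2 x) e := by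
  constructor
  · rintro ⟨h1, t, ht, htW, hxt⟩
    obtain ⟨s, hs, hxs⟩ := (mem_area' hW).1 h1
    have hsq := hW s hs
    rw [sq_iff ht] at hxt
    have hst : s ≠ t := fun h => htW (h ▸ hs)
    by_contra hcon
    push Not at hcon
    set q := o2 x with hq
    obtain ⟨x1, y1⟩ := q
    obtain ⟨s1, s2⟩ := s
    obtain ⟨t1, t2⟩ := t
    obtain ⟨hs1, hs2⟩ := hsq
    obtain ⟨ht1, ht2⟩ := ht
    obtain ⟨a1, a2⟩ := hxs
    obtain ⟨b1, b2⟩ := hxt
    simp only [abs_le] at hs1 hs2 ht1 ht2 a1 a2 b1 b2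
    rw [hs1] at a1
    rw [hs2] at a2
    rw [ht1] at b1
    rw [ht2] at b2
    have hne : ¬ (s1 = t1 ∧ s2 = t2) := fun h => hst (by rw [h.1, h.2])
    have hsW : ind W (s1, s2) = 1 := ind_mem hs
    have htW' : ind W (t1, t2) = 0 := ind_not htW
    rcases Int.emod_two_eq_zero_or_one x1 with hx | hx
    · rcases Int.emod_two_eq_zero_or_one y1 with hy | hy
      · -- vertex
        have hno : ¬ OnC (bd2 (ind W)) (x1, y1) := by
          rintro ⟨_, h | h | h | h⟩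
          · exact hcon _ h (by unfold F2; simp only [abs_le]; omega)
          · exact hcon _ h (by unfold F2; simp only [abs_le]; omega)
          · exact hcon _ h (by unfold F2; simp only [abs_le]; omega)
          · exact hcon _ h (by unfold F2; simp only [abs_le]; omega)
        have cs : (s1 = x1 + 1 ∨ s1 = x1 - 1) ∧ (s2 = y1 + 1 ∨ s2 = y1 - 1) := by omega
        have ct : (t1 = x1 + 1 ∨ t1 = x1 - 1) ∧ (t2 = y1 + 1 ∨ t2 = y1 - 1) := by omega
        rcases not_OnC hx hy hno with ⟨c1, c2, c3, c4⟩ | ⟨c1, c2, c3, c4⟩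
        · rcases ct with ⟨rfl | rfl, rfl | rfl⟩
          · exact htW c1
          · exact htW c2
          · exact htW c3
          · exact htW c4
        · rcases cs with ⟨rfl | rfl, rfl | rfl⟩
          · exact c1 hs
          · exact c2 hs
          · exact c3 hs
          · exact c4 hs
      · -- vertical edge
        have h0 := hcon (x1, y1)
        have hz : bd2 (ind W) (x1, y1) = 0 := by
          by_contra h; exact h0 h (F2.refl _)
        rw [bd2_ev hx hy] at hz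
        have cs : (s1 = x1 + 1 ∨ s1 = x1 - 1) ∧ s2 = y1 := by omega
        have ct : (t1 = x1 + 1 ∨ t1 = x1 - 1) ∧ t2 = y1 := by omega
        obtain ⟨c1, rfl⟩ := cs
        obtain ⟨c2, c3⟩ := ct
        subst c3
        rcases c1 with rfl | rfl
        · rcases c2 with rfl | rfl
          · exact hne ⟨rfl, rfl⟩
          · rw [hsW, htW'] at hz; exact absurd hz (by decide)
        · rcases c2 with rfl | rfl
          · rw [hsW, htW'] at hz; exact absurd hz (by decide)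
          · exact hne ⟨rfl, rfl⟩
    · rcases Int.emod_two_eq_zero_or_one y1 with hy | hy
      · have h0 := hcon (x1, y1)
        have hz : bd2 (ind W) (x1, y1) = 0 := by
          by_contra h; exact h0 h (F2.refl _)
        rw [bd2_eh hx hy] at hz
        have cs : (s2 = y1 + 1 ∨ s2 = y1 - 1) ∧ s1 = x1 := by omega
        have ct : (t2 = y1 + 1 ∨ t2 = y1 - 1) ∧ t1 = x1 := by omega
        obtain ⟨c1, rfl⟩ := cs
        obtain ⟨c2, c3⟩ := ct
        subst c3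
        rcases c1 with rfl | rfl
        · rcases c2 with rfl | rfl
          · exact hne ⟨rfl, rfl⟩
          · rw [hsW, htW'] at hz; exact absurd hz (by decide)
        · rcases c2 with rfl | rfl
          · rw [hsW, htW'] at hz; exact absurd hz (by decide)
          · exact hne ⟨rfl, rfl⟩
      · exact hne (by omega)
  · rintro ⟨e, he, h⟩
    obtain ⟨s, t, hs, ht, hst, hm⟩ := c_sides hW he
    obtain ⟨_, htq, _⟩ := bd2_mid (hW s hs) hst
    have hsq := hW s hs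
    refine ⟨(mem_area' hW).2 ⟨s, hs, h.trans ?_⟩, t, htq, ht, (sq_iff htq).2 (h.trans ?_)⟩
    · rw [← hm]
      obtain ⟨s1, s2⟩ := s
      obtain ⟨t1, t2⟩ := t
      obtain ⟨h1, h2⟩ := hsq
      obtain ⟨h3, h4⟩ := htq
      unfold nb at hst
      unfold mid F2
      simp only [Prod.mk.injEq, abs_le] at *
      omega
    · rw [← hm]
      obtain ⟨s1, s2⟩ := s
      obtain ⟨t1, t2⟩ := t
      obtain ⟨h1, h2⟩ := hsq
      obtain ⟨h3, h4⟩ := htq
      unfold nb at hst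
      unfold mid F2
      simp only [Prod.mk.injEq, abs_le] at *
      omega

/-- the three cases for a face of a square -/
theorem Fa.cases {q p : Pt} {w z : ℤ} (h : Fa q w p z) (hD : D2 p z) :
    (q = p ∧ w = z) ∨ (D1 q w ∧ Cf q w p z) ∨ (Vx q ∧ w % 2 = 0 ∧ Nr q w p z) := by
  obtain ⟨q1, q2⟩ := q
  obtain ⟨p1, p2⟩ := p
  obtain ⟨⟨h1, h2⟩, h3⟩ := h
  unfold D2 Sq Ed at hD
  unfold D1 Cf Vx Ed Nr
  simp only [Prod.mk.injEq, abs_le] at *
  have hp1 := Int.emod_two_eq_zero_or_one p1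
  have hp2 := Int.emod_two_eq_zero_or_one p2
  have hz := Int.emod_two_eq_zero_or_one z
  rcases hp1 with hp1 | hp1 <;> rcases hp2 with hp2 | hp2 <;> rcases hz with hz | hz <;>
    rw [hp1] at h1 <;> rw [hp2] at h2 <;> rw [hz] at h3 <;> omega

theorem Fa_of_Cf {q p : Pt} {w z : ℤ} (h : Cf q w p z) : Fa q w p z := by
  obtain ⟨q1, q2⟩ := q
  obtain ⟨p1, p2⟩ := p
  unfold Cf at h
  unfold Fa F2
  simp only [Prod.mk.injEq, abs_le] at *
  omega

end Crest.Agent.R096.Lr_296
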