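import Crest.Agent.R096.Lr1_296
import Crest.Agent.R096.Al3_63
import Crest.Agent.R096.PlCan2_458
import Crest.Agent.R096.PlSph_296

/-!
# R096/Lr2_296 (helper296, row 96, P2-REALISATION, part 2)

Carriers of the data of a cut, of cans, and **the cubical Alexander theorem**: the carrier of every
cubical Sep-surface is a standard PL sphere.
-/

set_option autoImplicit false

namespace Crest.Agent.R096.Lr_296

open Set Crest.Agent.R096.Lc_451 Crest.Agent.R096.Al_63 Crest.Agent.R096.Pl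

theorem D2_D1 {q : Pt} {w : ℤ} (h1 : D2 q w) (h2 : D1 q w) : False := by
  unfold D2 D1 Sq Ed Vx at *
  omega

theorem D2_V {q : Pt} {w : ℤ} (h1 : D2 q w) (h2 : Vx q) (h3 : w % 2 = 0) : False := by
  unfold D2 Sq Ed Vx at *
  omega

theorem D1_V {q : Pt} {w : ℤ} (h1 : D1 q w) (h2 : Vx q) (h3 : w % 2 = 0) : False := by
  unfold D1 Ed Vx at *
  omega

/-- two squares with a common point: equal, or a common edge, or a common vertex -/
theorem Fa.two {q p p' : Pt} {w z z' : ℤ} (h : Fa q w p z) (h' : Fa q w p' z') (hD : D2 p z)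
    (hD' : D2 p' z') : (p = p' ∧ z = z' ∧ q = p ∧ w = z) ∨
      (D1 q w ∧ Cf q w p z ∧ Cf q w p' z') ∨
      (Vx q ∧ w % 2 = 0 ∧ Nr q w p z ∧ Nr q w p' z') := by
  rcases h.cases hD with ⟨h1, h2⟩ | ⟨h1, h2⟩ | ⟨h1, h2, h3⟩
  · rcases h'.cases hD' with ⟨h1', h2'⟩ | ⟨h1', h2'⟩ | ⟨h1', h2', h3'⟩
    · exact Or.inl ⟨h1.symm.trans h1', h2.symm.trans h2', h1, h2⟩
    · exfalso; subst h1 h2; exact D2_D1 hD h1'
    · exfalso; subst h1 h2; exact D2_V hD h1' h2'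
  · rcases h'.cases hD' with ⟨h1', h2'⟩ | ⟨h1', h2'⟩ | ⟨h1', h2', h3'⟩
    · exfalso; subst h1' h2'; exact D2_D1 hD' h1
    · exact Or.inr (Or.inl ⟨h1, h2, h2'⟩)
    · exact (D1_V h1 h1' h2').elim
  · rcases h'.cases hD' with ⟨h1', h2'⟩ | ⟨h1', h2'⟩ | ⟨h1', h2', h3'⟩
    · exfalso; subst h1' h2'; exact D2_V hD' h1 h2
    · exact (D1_V h1' h1 h2).elim
    · exact Or.inr (Or.inr ⟨h1, h2, h3, h3'⟩)

theorem car_union {A B C : Pt → ℤ → ZMod 2} (h : ∀ p z, C p z ≠ 0 ↔ A p z ≠ 0 ∨ B p z ≠ 0) :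
    car C = car A ∪ car B := by
  ext x
  rw [mem_union, mem_car, mem_car, mem_car]
  constructor
  · rintro ⟨p, z, h1, h2⟩
    rcases (h p z).1 h1 with h3 | h3
    · exact Or.inl ⟨p, z, h3, h2⟩
    · exact Or.inr ⟨p, z, h3, h2⟩
  · rintro (⟨p, z, h1, h2⟩ | ⟨p, z, h1, h2⟩)
    · exact ⟨p, z, (h p z).2 (Or.inl h1), h2⟩
    · exact ⟨p, z, (h p z).2 (Or.inr h1), h2⟩

theorem add_ne_iff {a b : ZMod 2} (h : a = 0 ∨ b = 0) : a + b ≠ 0 ↔ a ≠ 0 ∨ b ≠ 0 := by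
  rcases h with h | h
  · rw [h]; simp
  · rw [h]; simp

theorem mem_curve {W : Finset Pt} (hW : ∀ s ∈ W, Sq s) {h : ℤ} (hh : h % 2 = 0)
    {x : (ℝ × ℝ) × ℝ} : x ∈ bdr W ×ˢ {(h / 2 : ℝ)} ↔
      (∃ e, bd2 (ind W) e ≠ 0 ∧ F2 (o2 x.1) e) ∧ oc x.2 = h := by
  rw [mem_prod, mem_bdr hW, mem_singleton_iff, oc_eq_iff hh]

/-- the curve lies in every chain with the boundary of the disc -/
theorem curve_subset {E : Pt → ℤ → ZMod 2} {W : Finset Pt} (hW : ∀ s ∈ W, Sq s) {h : ℤ}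
    (hh : h % 2 = 0) (hb : ∀ p z, D1 p z → bd E p z = bd (layer W h) p z) :
    bdr W ×ˢ {(h / 2 : ℝ)} ⊆ car E := by
  intro x hx
  obtain ⟨⟨e, he, hf⟩, hw⟩ := (mem_curve hW hh).1 hx
  have hed := bd2_ed (fun p hp => hW p (ind_ne hp)) he
  have h1 : bd E e h ≠ 0 := by
    rw [hb e h (Or.inl ⟨hed, hh⟩), bd_layer W hh, if_pos rfl]
    exact he
  obtain ⟨q, z', hc, hq⟩ := exists_cf_of_bd h1
  refine mem_car.2 ⟨q, z', hq, Fa.trans ⟨hf, ?_⟩ (Fa_of_Cf hc)⟩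
  rw [hw, sub_self, abs_zero, hh]

theorem F2_OnC {c : Pt → ZMod 2} {v : Pt} (h : OnC c v) : ∃ e, c e ≠ 0 ∧ F2 v e := by
  obtain ⟨⟨hx, hy⟩, h⟩ := h
  obtain ⟨x, y⟩ := v
  simp only at hx hy h
  rcases h with h | h | h | h
  · exact ⟨_, h, by unfold F2; simp only [abs_le]; omega⟩
  · exact ⟨_, h, by unfold F2; simp only [abs_le]; omega⟩
  · exact ⟨_, h, by unfold F2; simp only [abs_le]; omega⟩
  · exact ⟨_, h, by unfold F2; simp only [abs_le]; omega⟩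

section cut

variable {E1 E2 : Pt → ℤ → ZMod 2} {W : Finset Pt} {h : ℤ} (C : CutData E1 E2 W h)

include C

theorem car_sum : car (fun p z => E1 p z + E2 p z) = car E1 ∪ car E2 :=
  car_union fun p z => add_ne_iff (C.disj p z)

theorem car_glue1 : car (glue E1 W h) = car E1 ∪ area W ×ˢ {(h / 2 : ℝ)} := by
  rw [← car_layer C.sq C.even]
  refine car_union fun p z => add_ne_iff ?_
  by_cases hp : z = h ∧ p ∈ W
  · left
    rw [hp.1]
    exact (C.disjD p hp.2).1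
  · right
    exact if_neg hp

theorem car_glue2 : car (glue E2 W h) = car E2 ∪ area W ×ˢ {(h / 2 : ℝ)} := by
  rw [← car_layer C.sq C.even]
  refine car_union fun p z => add_ne_iff ?_
  by_cases hp : z = h ∧ p ∈ W
  · left
    rw [hp.1]
    exact (C.disjD p hp.2).2
  · right
    exact if_neg hp

theorem inter12 : car E1 ∩ car E2 = bdr W ×ˢ {(h / 2 : ℝ)} := by
  apply Subset.antisymm
  · rintro x ⟨h1, h2⟩
    obtain ⟨p1, z1, e1, f1⟩ := mem_car.1 h1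
    obtain ⟨p2, z2, e2, f2⟩ := mem_car.1 h2
    rw [mem_curve C.sq C.even]
    rcases f1.two f2 (C.dim1 _ _ e1) (C.dim2 _ _ e2) with ⟨h3, h4, _⟩ | ⟨h3, h4, h5⟩ | ⟨h3, h4, h5, h6⟩
    · exfalso
      subst h3 h4
      rcases C.disj p1 z1 with h | h
      · exact e1 h
      · exact e2 h
    · obtain ⟨h6, h7⟩ := C.edge12 _ _ h3 ⟨_, _, h4, e1⟩ ⟨_, _, h5, e2⟩
      exact ⟨⟨_, h7, F2.refl _⟩, h6⟩
    · obtain ⟨h7, h8⟩ := C.vert12 _ _ h3 h4 ⟨_, _, h5, e1⟩ ⟨_, _, h6, e2⟩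
      exact ⟨F2_OnC h8, h7⟩
  · exact subset_inter (curve_subset C.sq C.even C.bd1) (curve_subset C.sq C.even C.bd2)

theorem interD (E : Pt → ℤ → ZMod 2) (hE : ∀ p z, E p z ≠ 0 → E1 p z ≠ 0 ∨ E2 p z ≠ 0)
    (hb : ∀ p z, D1 p z → bd E p z = bd (layer W h) p z) :
    car E ∩ area W ×ˢ {(h / 2 : ℝ)} = bdr W ×ˢ {(h / 2 : ℝ)} := by
  apply Subset.antisymm
  · rw [← car_layer C.sq C.even]
    rintro x ⟨h1, h2⟩
    obtain ⟨p1, z1, e1, f1⟩ := mem_car.1 h1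
    obtain ⟨p2, z2, e2, f2⟩ := mem_car.1 h2
    obtain ⟨rfl, hp⟩ := layer_ne e2
    have hd1 : D2 p1 z1 := (hE _ _ e1).elim (C.dim1 _ _) (C.dim2 _ _)
    rw [mem_curve C.sq C.even]
    rcases f1.two f2 hd1 (Or.inl ⟨C.sq _ hp, C.even⟩) with ⟨h3, h4, _⟩ | ⟨h3, h4, h5⟩ |
      ⟨h3, h4, h5, h6⟩
    · exfalso
      subst h3 h4
      obtain ⟨a, b⟩ := C.disjD _ hp
      rcases hE _ _ e1 with h | h
      · exact h a
      · exact h b
    · obtain ⟨h6, h7⟩ := C.edgeD _ _ h3 ⟨_, h5, hp⟩ ⟨_, _, h4, hE _ _ e1⟩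
      exact ⟨⟨_, h7, F2.refl _⟩, h6⟩
    · obtain ⟨h7, h8⟩ := C.vertD _ _ h3 h4 ⟨_, hp, h6⟩ ⟨_, _, h5, hE _ _ e1⟩
      exact ⟨F2_OnC h8, h7⟩
  · refine subset_inter (curve_subset C.sq C.even hb) ?_
    exact prod_mono (fun x hx => hx.1) Subset.rfl

theorem inter1D : car E1 ∩ area W ×ˢ {(h / 2 : ℝ)} = bdr W ×ˢ {(h / 2 : ℝ)} :=
  interD C E1 (fun _ _ => Or.inl) C.bd1

theorem inter2D : car E2 ∩ area W ×ˢ {(h / 2 : ℝ)} = bdr W ×ˢ {(h / 2 : ℝ)} :=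
  interD C E2 (fun _ _ => Or.inr) C.bd2

end cut

theorem oc_half (c : ℤ) : oc (c / 2) = c := by
  rcases oc_cases ((c : ℝ) / 2) with ⟨k, h1, h2⟩ | ⟨k, h1, h2, h3⟩
  · rw [h2]
    have : (c : ℝ) = ((2 * k : ℤ) : ℝ) := by push_cast; linarith
    exact (by exact_mod_cast this.symm)
  · rw [h3]
    have e1 : ((2 * k : ℤ) : ℝ) < c := by push_cast; linarith
    have e2 : (c : ℝ) < ((2 * k + 2 : ℤ) : ℝ) := by push_cast; linarith
    have e1' : 2 * k < c := by exact_mod_cast e1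
    have e2' : c < 2 * k + 2 := by exact_mod_cast e2
    omega

/-- the centre of a cell -/
noncomputable def ctr (p : Pt) (z : ℤ) : (ℝ × ℝ) × ℝ := (((p.1 : ℝ) / 2, (p.2 : ℝ) / 2), (z : ℝ) / 2)

theorem o2_ctr (p : Pt) (z : ℤ) : o2 (ctr p z).1 = p ∧ oc (ctr p z).2 = z := by
  refine ⟨?_, oc_half z⟩
  ext
  · exact oc_half p.1
  · exact oc_half p.2

theorem ctr_mem {E : Pt → ℤ → ZMod 2} {p : Pt} {z : ℤ} (h : E p z ≠ 0) : ctr p z ∈ car E := by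
  refine mem_car.2 ⟨p, z, h, ?_⟩
  rw [(o2_ctr p z).1, (o2_ctr p z).2]
  exact ⟨F2.refl _, by rw [sub_self, abs_zero]; omega⟩

theorem ctr_not {W : Finset Pt} (hW : ∀ s ∈ W, Sq s) {h : ℤ} (hh : h % 2 = 0) {p : Pt} {z : ℤ}
    (hD : D2 p z) : ctr p z ∉ bdr W ×ˢ {(h / 2 : ℝ)} := by
  rw [mem_curve hW hh, (o2_ctr p z).1, (o2_ctr p z).2]
  rintro ⟨⟨e, he, hf⟩, rfl⟩
  have hed := bd2_ed (fun p hp => hW p (ind_ne hp)) he
  unfold F2 at hf
  unfold D2 Sq Ed at hD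
  unfold Ed at hed
  simp only [abs_le] at hf
  omega

theorem exists_edge {W : Finset Pt} (hW : ∀ s ∈ W, Sq s) (hne : W.Nonempty) :
    ∃ e, Ed e ∧ bd2 (ind W) e ≠ 0 := by
  obtain ⟨s, hs, t, ht, hst⟩ := exists_out hne
  obtain ⟨h1, _, h3⟩ := bd2_mid (hW s hs) hst
  refine ⟨mid s t, h1, ?_⟩
  rw [h3, ind_mem hs, ind_not ht]
  decide

theorem diff_ne {E : Pt → ℤ → ZMod 2} {W : Finset Pt} (hW : ∀ s ∈ W, Sq s) (hne : W.Nonempty)
    {h : ℤ} (hh : h % 2 = 0) (hd : ∀ p z, E p z ≠ 0 → D2 p z)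
    (hb : ∀ p z, D1 p z → bd E p z = bd (layer W h) p z) :
    (car E \ bdr W ×ˢ {(h / 2 : ℝ)}).Nonempty := by
  obtain ⟨e, h1, h2⟩ := exists_edge hW hne
  have h3 : bd E e h ≠ 0 := by
    rw [hb e h (Or.inl ⟨h1, hh⟩), bd_layer W hh, if_pos rfl]
    exact h2
  obtain ⟨q, z', _, hq⟩ := exists_cf_of_bd h3
  exact ⟨ctr q z', ctr_mem hq, ctr_not hW hh (hd _ _ hq)⟩

/-- the curve `frontier (area W) × {c}` is the image of the square -/
theorem exists_param {W : Finset Pt} (hW : ∀ s ∈ W, Sq s) (hne : W.Nonempty) (hC : Con W)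
    (hHF : HF W) (c : ℝ) : ∃ φ : ℝ × ℝ → (ℝ × ℝ) × ℝ, PLMap φ ∧ Function.Injective φ ∧
      φ '' S1 ℝ = bdr W ×ˢ {c} := by
  obtain ⟨H, hH, hHS⟩ := std2 hW hne hC hHF
  refine ⟨fun x => (H x, c), hH.1.prodMk (PLMap.const c), fun x y hxy => ?_, ?_⟩
  · exact H.injective (congrArg Prod.fst hxy)
  · rw [← frontier_area hW, ← hHS]
    ext y
    constructor
    · rintro ⟨x, hx, rfl⟩
      exact ⟨⟨x, hx, rfl⟩, rfl⟩
    · rintro ⟨⟨x, hx, h1⟩, h2⟩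
      exact ⟨x, hx, Prod.ext h1 h2.symm⟩

/-- **(cut)** -/
theorem std_cut {E1 E2 : Pt → ℤ → ZMod 2} {W : Finset Pt} {h : ℤ} (C : CutData E1 E2 W h)
    (h1 : StdC (F := ℝ × ℝ) (car (glue E1 W h))) (h2 : StdC (F := ℝ × ℝ) (car (glue E2 W h))) :
    StdC (F := ℝ × ℝ) (car (fun p z => E1 p z + E2 p z)) := by
  obtain ⟨φ, hφ, hinj, hS⟩ := exists_param C.sq C.ne C.con C.hf (h / 2 : ℝ)
  have hf := C.surf.fin
  have hf1 : {q : Pt × ℤ | E1 q.1 q.2 ≠ 0}.Finite := hf.subset fun q hq =>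
    (add_ne_iff (C.disj q.1 q.2)).2 (Or.inl hq)
  have hf2 : {q : Pt × ℤ | E2 q.1 q.2 ≠ 0}.Finite := hf.subset fun q hq =>
    (add_ne_iff (C.disj q.1 q.2)).2 (Or.inr hq)
  rw [car_glue1 C] at h1
  rw [car_glue2 C] at h2
  rw [car_sum C]
  refine StdC.cut_plane hφ hinj.injOn (isCompact_car hf1).isClosed (isCompact_car hf2).isClosed
    ((isClosed_area W).prod isClosed_singleton) (D := area W ×ˢ {(h / 2 : ℝ)}) ?_ ?_ ?_ ?_ ?_ ?_ h1 h2
  · rw [hS, inter12 C]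
  · rw [hS, inter1D C]
  · rw [hS, inter2D C]
  · rw [hS]; exact diff_ne C.sq C.ne C.even C.dim1 C.bd1
  · rw [hS]; exact diff_ne C.sq C.ne C.even C.dim2 C.bd2
  · rw [hS]
    obtain ⟨s, hs⟩ := C.ne
    refine ⟨ctr s h, ?_, ctr_not C.sq C.even (Or.inl ⟨C.sq s hs, C.even⟩)⟩
    rw [← car_layer C.sq C.even]
    apply ctr_mem
    unfold layer
    rw [if_pos ⟨rfl, hs⟩]
    decide

/-- the boundary of a layer -/
theorem bd_layer_odd (A : Finset Pt) {z : ℤ} (hz : z % 2 = 1) (p : Pt) (w : ℤ) :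
    bd (layer A z) p w =
      if w = z then bd2 (ind A) p else if w = z + 1 ∨ w = z - 1 then ind A p else 0 := by
  by_cases h1 : w = z
  · subst h1
    rw [bd_odd hz, layer_eq, if_pos rfl]
  · rw [if_neg h1]
    by_cases h2 : w % 2 = 0
    · rw [bd_even h2, layer_other A h1, bd2_zero, zero_add]
      unfold layer ind
      by_cases h3 : p ∈ A
      · by_cases h4 : w = z + 1
        · rw [if_neg (by omega), if_pos ⟨by omega, h3⟩, if_pos (Or.inl h4), if_pos h3, zero_add]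
        · by_cases h5 : w = z - 1
          · rw [if_pos ⟨by omega, h3⟩, if_neg (by omega), if_pos (Or.inr h5), if_pos h3, add_zero]
          · rw [if_neg (by omega), if_neg (by omega), if_neg (by omega), add_zero]
      · rw [if_neg (fun h => h3 h.2), if_neg (fun h => h3 h.2), if_neg h3, add_zero, ite_self]
    · rw [bd_odd (by omega), layer_other A h1, bd2_zero, if_neg (by omega)]

/-- **the carrier of a can** -/
theorem car_can {A : Finset Pt} (hA : ∀ s ∈ A, Sq s) {z : ℤ} (hz : z % 2 = 1) :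
    car (bd (layer A z)) = area A ×ˢ {((z : ℝ) - 1) / 2, ((z : ℝ) + 1) / 2} ∪
      frontier (area A) ×ˢ Icc (((z : ℝ) - 1) / 2) (((z : ℝ) + 1) / 2) := by
  have hup : ∀ x : ℝ, x = ((z : ℝ) + 1) / 2 ↔ oc x = z + 1 := by
    intro x
    rw [oc_eq_iff (by omega)]
    push_cast
    rfl
  have hlo : ∀ x : ℝ, x = ((z : ℝ) - 1) / 2 ↔ oc x = z - 1 := by
    intro x
    rw [oc_eq_iff (by omega)]
    push_cast
    rfl
  ext x
  rw [mem_car, mem_union, mem_prod, mem_prod, frontier_area hA, mem_bdr hA, mem_area' hA,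
    ← iv_odd_eq hz, mem_iv, mem_insert_iff, mem_singleton_iff, hup, hlo]
  constructor
  · rintro ⟨p, w, h1, h2, h3⟩
    rw [bd_layer_odd A hz] at h1
    by_cases h4 : w = z
    · subst h4
      rw [if_pos rfl] at h1
      exact Or.inr ⟨⟨p, h1, h2⟩, h3⟩
    · rw [if_neg h4] at h1
      by_cases h5 : w = z + 1 ∨ w = z - 1
      · rw [if_pos h5] at h1
        refine Or.inl ⟨⟨p, ind_ne h1, h2⟩, ?_⟩
        rw [abs_le] at h3
        omega
      · rw [if_neg h5] at h1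
        exact absurd rfl h1
  · rintro (⟨⟨s, hs, h1⟩, h2⟩ | ⟨⟨e, he, h1⟩, h2⟩)
    · refine ⟨s, oc x.2, ?_, h1, by rw [sub_self, abs_zero]; omega⟩
      rw [bd_layer_odd A hz, if_neg (by omega), if_pos (by tauto), ind_mem hs]
      decide
    · refine ⟨e, z, ?_, h1, h2⟩
      rw [bd_layer_odd A hz, if_pos rfl]
      exact he

/-- **(can)** -/
theorem std_can {A : Finset Pt} {z : ℤ} (hz : z % 2 = 1) (hne : A.Nonempty) (hA : ∀ s ∈ A, Sq s)
    (hC : Con A) (hHF : HF A) : StdC (F := ℝ × ℝ) (car (bd (layer A z))) := by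
  rw [car_can hA hz]
  exact StdC.can3' (isCompact_area A) (interior_area_nonempty hA hne) (std2 hA hne hC hHF)
    (by linarith)

/-- **CUBICAL ALEXANDER THEOREM**: the carrier of a cubical Sep-surface is the image of the boundary of
the cube under a PL homeomorphism of `(ℝ × ℝ) × ℝ`. -/
theorem surf_std {S : Pt → ℤ → ZMod 2} (hS : Surf S) : StdC (F := ℝ × ℝ) (car S) :=
  surf_ind (fun S => StdC (F := ℝ × ℝ) (car S)) (fun _ _ hz hne hA hC hHF => std_can hz hne hA hC hHF)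
    (fun _ _ _ _ C h1 h2 => std_cut C h1 h2) hS

end Crest.Agent.R096.Lr_296
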