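import Crest.Agent.R096.Lr2_296
import Crest.Agent.R096.Ax9_914
import Crest.Agent.R096.PlCan3_458

/-!
# R096/Lr3_296 (helper296, row 96, P2-ASSEMBLY)

**Alexander's theorem for axis-parallel surfaces**: a connected two-sided finite union of axis-parallel
rectangles of `ℝ³` with trivial `ZMod 2`-torsors is the image of the boundary of the cube under a PL
homeomorphism of `ℝ³`.
-/

set_option autoImplicit false

namespace Crest.Agent.R096.Lr_296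

open Set Metric Crest.Agent.R096.Lc_451 Crest.Agent.R096.Pl Crest.Agent.R096.Coh_184

theorem mem_iv_iff {x : ℝ} {c : ℤ} :
    x ∈ iv c ↔ ((c / 2 : ℤ) : ℝ) ≤ x ∧ x ≤ (((c + 1) / 2 : ℤ) : ℝ) := by
  rcases Int.emod_two_eq_zero_or_one c with h | h
  · obtain ⟨k, rfl⟩ : ∃ k, c = 2 * k := ⟨c / 2, by omega⟩
    rw [mem_iv_even h, show 2 * k / 2 = k by omega, show (2 * k + 1) / 2 = k by omega]
    push_cast
    constructor
    · rintro rfl; constructor <;> linarith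
    · rintro ⟨h1, h2⟩; linarith
  · obtain ⟨k, rfl⟩ : ∃ k, c = 2 * k + 1 := ⟨c / 2, by omega⟩
    rw [mem_iv_odd h, show (2 * k + 1) / 2 = k by omega, show (2 * k + 1 + 1) / 2 = k + 1 by omega,
      abs_le]
    push_cast
    constructor
    · rintro ⟨h1, h2⟩; constructor <;> linarith
    · rintro ⟨h1, h2⟩; constructor <;> linarith

/-- 914's carrier and the carrier of the chain -/
theorem car_chn (Q : Finset (Fin 3 → ℤ)) : e3 ⁻¹' (Ax_914.car Q) = car (Ax_914.chn Q) := by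
  have hcl : ∀ (p : Pt) (z : ℤ) (x : (ℝ × ℝ) × ℝ),
      x ∈ cl p z ↔ e3 x ∈ Ax_914.cel (ι := Fin 3) ![p.1, p.2, z] := by
    intro p z x
    show (x.1.1 ∈ iv p.1 ∧ x.1.2 ∈ iv p.2) ∧ x.2 ∈ iv z ↔ _
    rw [mem_iv_iff, mem_iv_iff, mem_iv_iff]
    constructor
    · rintro ⟨⟨h1, h2⟩, h3⟩ i
      fin_cases i
      · exact h1
      · exact h2
      · exact h3
    · intro h
      exact ⟨⟨h 0, h 1⟩, h 2⟩
  ext x
  rw [mem_preimage, Ax_914.mem_car, mem_car]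
  constructor
  · rintro ⟨c, hc, hx⟩
    have e : c = ![c 0, c 1, c 2] := by ext i; fin_cases i <;> rfl
    refine ⟨(c 0, c 1), c 2, Ax_914.chn_ne.2 (by rw [← e]; exact hc), mem_cl.1 ((hcl _ _ _).2 ?_)⟩
    rw [← e]; exact hx
  · rintro ⟨p, z, h, hx⟩
    exact ⟨_, Ax_914.chn_ne.1 h, (hcl _ _ _).1 (mem_cl.2 hx)⟩

/-- **ALEXANDER, axis-parallel case**, in `(ℝ × ℝ) × ℝ` -/
theorem alexander_axis {B : Finset ((Fin 3 → ℝ) × (Fin 3 → ℝ))} (hB : ∀ p ∈ B, p.1 ≤ p.2)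
    (hB1 : ∀ p ∈ B, ∃ i, p.1 i = p.2 i ∧ ∀ j, j ≠ i → p.1 j ≠ p.2 j)
    {S : Set (Fin 3 → ℝ)} (hSB : S = ⋃ p ∈ B, Icc p.1 p.2) (hS : ∀ x ∈ S, Ax_914.TwoSidedAt S x)
    (hcon : IsConnected S) (htriv : ∀ n, TrivAll (Fin n) (ZMod 2) S) :
    StdC (F := ℝ × ℝ) (e3 ⁻¹' S) := by
  obtain ⟨Φ, hΦ, Q, hQ, _, hsurf⟩ := Ax_914.axis hB hB1 hSB hS hcon htriv
  obtain ⟨H, hH, hHS⟩ := surf_std hsurf
  have hE : PLH e3.toHomeomorph := PLH_clm e3
  refine ⟨H.trans ((e3.toHomeomorph.trans Φ.symm).trans e3.toHomeomorph.symm),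
    hH.trans ((hE.trans hΦ.1.symm).trans hE.symm), ?_⟩
  rw [trans_image, hHS, ← car_chn, ← hQ, trans_image, trans_image]
  have h1 : e3.toHomeomorph '' (e3 ⁻¹' (Φ '' S)) = Φ '' S := image_preimage_eq _ e3.surjective
  rw [h1, symm_image_image']
  exact (congrFun e3.toHomeomorph.image_symm S)

/-- **ALEXANDER, axis-parallel case**: `S` is the frontier of a compact set `A`, and a PL homeomorphism
of `ℝ³` maps the cube to `A`. -/
theorem alexander_axis' {B : Finset ((Fin 3 → ℝ) × (Fin 3 → ℝ))} (hB : ∀ p ∈ B, p.1 ≤ p.2)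
    (hB1 : ∀ p ∈ B, ∃ i, p.1 i = p.2 i ∧ ∀ j, j ≠ i → p.1 j ≠ p.2 j)
    {S : Set (Fin 3 → ℝ)} (hSB : S = ⋃ p ∈ B, Icc p.1 p.2) (hS : ∀ x ∈ S, Ax_914.TwoSidedAt S x)
    (hcon : IsConnected S) (htriv : ∀ n, TrivAll (Fin n) (ZMod 2) S) :
    ∃ (A : Set (Fin 3 → ℝ)) (H : (Fin 3 → ℝ) ≃ₜ (Fin 3 → ℝ)), IsCompact A ∧ frontier A = S ∧
      PLH H ∧ H '' closedBall 0 1 = A ∧ H '' sphere 0 1 = S ∧ H '' ball 0 1 = interior A :=
  StdC.fin3' (alexander_axis hB hB1 hSB hS hcon htriv)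

end Crest.Agent.R096.Lr_296
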