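/-
helper222, row 96, LEVSEL part 10: the hypothesis `sel` of EA-CORE (348 #10593) for one mesh.
-/
import Mathlib
import Crest.Agent.R096.Ls8_222
import Crest.Agent.R096.Ls9_222

set_option autoImplicit false
set_option linter.unusedSectionVars false

open MeasureTheory Set Filter
open scoped Topology ENNReal

namespace Crest.Agent.R096.Ls_222

open Crest.Agent.R096.Bas_731 Crest.Agent.R96.En2_199 Crest.Agent.R96.Sg1_199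
open Crest.Agent.R96.Acl_392
open Crest.Agent.R096.Msh_715
open Crest.Agent.R096.SkC1_961 (E3 Hom3 FoamD NN)
open Crest.Agent.R096.Mbf_337

noncomputable section

section sel

variable {δ κ0 R c0 : ℝ} {La Om : Set E3} {ι : Type} {Φ : FoamD δ κ0 R c0 La} {T : Tiling Om ι}
  {f : E3 → E3}

/-- **`sel`**: levels with words and numbers for one mesh, for all errors, null sets and lower bounds
of the numbers of levels. `Bad` = the deleted levels; `hwd` = 124 / 120's words. -/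
theorem sel (hLa : IsOpen La) (hδ : 0 < δ) (hR : 0 < R) (hf : Hom3 f Om La) (T : Tiling Om ι)
    (hh : ∀ e : Edg T, ∀ y ∈ sgm (ea e) (ev e), ∀ c, f y ∉ (Φ.B c).S)
    {G : Edg T → E3 → ℝ≥0∞}
    (hG : ∀ e, UGv (fun y => Φ.Psi (f y)) (G e) (ea e) (ev e))
    (hGf : ∀ e, li (G e) (ea e) (ev e) ≠ ∞)
    {κp : ℝ} (hκ0 : 0 < κp) (hκ1 : κp ≤ 1) {μ : ℝ} (hμ : μ ≤ κp / 64) {κ3 θ : ℝ} (hθ : 0 ≤ θ)
    {W : Φ.F → ℝ} (hW0 : ∀ c, 0 < W c) (hWd : ∀ c, ∃ k N : ℕ, W c * 2 ^ k = N)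
    (hW1 : ∀ c, c.1.sz ≤ κ3 * W c) (hW2 : ∀ c, W c ≤ κ3 * c.1.sz) (hW3 : ∀ c, W c ≤ θ * c.1.sz)
    {Bad : Φ.F → Set ℝ} (hBm : ∀ c, MeasurableSet (Bad c))
    (hB : ∀ c, volume (Bad c ∩ Icc 0 1) ≤ ENNReal.ofReal (κp / 32))
    {X : Set Φ.F} {ct : Φ.F → ι} {A : Φ.F → E3 ≃ᵃ[ℝ] E3} {lam : Φ.F → ℝ} {z : Φ.F → E3}
    {M : Φ.F → ℕ}
    (hwd : ∀ L : Φ.F → Finset ℝ, (∀ c, ∀ t ∈ L c, μ ≤ t ∧ t ≤ 1 - μ) →
      (∀ c, ∀ t ∈ L c, t ∉ Bad c) → Words Φ T f X ct A lam z M L)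
    (err : Edg T → ℝ≥0∞) (herr : ∀ e, err e ≠ 0) (Z : Φ.F → Set ℝ) (hZ : ∀ c, volume (Z c) = 0)
    (m0 : Φ.F → ℕ) :
    ∃ (κ : Φ.F → ℕ) (L : Φ.F → Finset ℝ),
      Levels Φ T f κp μ κ3 Z m0 κ L ∧ Words Φ T f X ct A lam z M L ∧
      (∀ c, ((L c).card : ℝ) * (2 : ℝ)⁻¹ ^ κ c = W c) ∧
      (∀ e, EN (us Φ f) κ L e ≤
        ENNReal.ofReal (8 * θ * Cl δ R) * li (G e) (ea e) (ev e) + err e) ∧
      ∀ i, NN Φ T f κ L i ≤ ∑ e ∈ eIn T i,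
        (ENNReal.ofReal (8 * θ * Cl δ R) * li (G e) (ea e) (ev e) + err e) := by
  obtain ⟨κ, L, -, h2, h3, h4, h5, h6, -⟩ := levsel2_G hLa hδ hR hf T hh hG hGf
    (κ' := fun _ => Empty) (X := fun _ j => j.elim) (fun _ j => j.elim)
    (J := fun _ j => j.elim) (fun _ j => j.elim) (fun _ j => j.elim) (e' := fun _ => 1)
    (fun _ => one_pos) herr hκ0 hκ1 hμ hθ hW0 hWd hW1 hW2 hW3 hZ hBm hB m0
  exact ⟨κ, L, h2, hwd L h2.marg h3, h4, h5, h6⟩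

/-- `sel` with `θ = 1` and the standard dyadic targets -/
theorem sel_std (hLa : IsOpen La) (hδ : 0 < δ) (hR : 0 < R) (hf : Hom3 f Om La) (T : Tiling Om ι)
    (hh : ∀ e : Edg T, ∀ y ∈ sgm (ea e) (ev e), ∀ c, f y ∉ (Φ.B c).S)
    {G : Edg T → E3 → ℝ≥0∞}
    (hG : ∀ e, UGv (fun y => Φ.Psi (f y)) (G e) (ea e) (ev e))
    (hGf : ∀ e, li (G e) (ea e) (ev e) ≠ ∞)
    {κp : ℝ} (hκ0 : 0 < κp) (hκ1 : κp ≤ 1) {μ : ℝ} (hμ : μ ≤ κp / 64) {κ3 : ℝ} (hκ3 : 8 ≤ κ3)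
    {Bad : Φ.F → Set ℝ} (hBm : ∀ c, MeasurableSet (Bad c))
    (hB : ∀ c, volume (Bad c ∩ Icc 0 1) ≤ ENNReal.ofReal (κp / 32))
    {X : Set Φ.F} {ct : Φ.F → ι} {A : Φ.F → E3 ≃ᵃ[ℝ] E3} {lam : Φ.F → ℝ} {z : Φ.F → E3}
    {M : Φ.F → ℕ}
    (hwd : ∀ L : Φ.F → Finset ℝ, (∀ c, ∀ t ∈ L c, μ ≤ t ∧ t ≤ 1 - μ) →
      (∀ c, ∀ t ∈ L c, t ∉ Bad c) → Words Φ T f X ct A lam z M L)
    (err : Edg T → ℝ≥0∞) (herr : ∀ e, err e ≠ 0) (Z : Φ.F → Set ℝ) (hZ : ∀ c, volume (Z c) = 0)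
    (m0 : Φ.F → ℕ) :
    ∃ (κ : Φ.F → ℕ) (L : Φ.F → Finset ℝ),
      Levels Φ T f κp μ κ3 Z m0 κ L ∧ Words Φ T f X ct A lam z M L ∧
      ∀ i, NN Φ T f κ L i ≤ ∑ e ∈ eIn T i,
        (ENNReal.ofReal (8 * Cl δ R) * li (G e) (ea e) (ev e) + err e) := by
  obtain ⟨W, h1, h2, h3, h4, h5⟩ := exists_targets Φ hκ3
  obtain ⟨κ, L, g1, g2, -, -, g3⟩ := sel hLa hδ hR hf T hh hG hGf hκ0 hκ1 hμ zero_le_one h1 h2 h3 h4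
    h5 hBm hB hwd err herr Z hZ m0
  rw [mul_one] at g3
  exact ⟨κ, L, g1, g2, g3⟩

/-- `sel` from upper gradients of the single level functions (764 `exists_der`, ACL on the edges) -/
theorem sel_g (hLa : IsOpen La) (hf : Hom3 f Om La) (T : Tiling Om ι)
    (hh : ∀ e : Edg T, ∀ y ∈ sgm (ea e) (ev e), ∀ c, f y ∉ (Φ.B c).S)
    {g : Φ.F → Edg T → E3 → ℝ≥0∞}
    (hug : ∀ c e, UGs (us Φ f c) (g c e) (ea e) (ev e))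
    (hfin : ∀ c e, li (g c e) (ea e) (ev e) ≠ ∞)
    {κp : ℝ} (hκ0 : 0 < κp) (hκ1 : κp ≤ 1) {μ : ℝ} (hμ : μ ≤ κp / 64) {κ3 : ℝ}
    {W : Φ.F → ℝ} (hW0 : ∀ c, 0 < W c) (hWd : ∀ c, ∃ k N : ℕ, W c * 2 ^ k = N)
    (hW1 : ∀ c, c.1.sz ≤ κ3 * W c) (hW2 : ∀ c, W c ≤ κ3 * c.1.sz)
    {Bad : Φ.F → Set ℝ} (hBm : ∀ c, MeasurableSet (Bad c))
    (hB : ∀ c, volume (Bad c ∩ Icc 0 1) ≤ ENNReal.ofReal (κp / 32))
    {X : Set Φ.F} {ct : Φ.F → ι} {A : Φ.F → E3 ≃ᵃ[ℝ] E3} {lam : Φ.F → ℝ} {z : Φ.F → E3}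
    {M : Φ.F → ℕ}
    (hwd : ∀ L : Φ.F → Finset ℝ, (∀ c, ∀ t ∈ L c, μ ≤ t ∧ t ≤ 1 - μ) →
      (∀ c, ∀ t ∈ L c, t ∉ Bad c) → Words Φ T f X ct A lam z M L)
    (err : Edg T → ℝ≥0∞) (herr : ∀ e, err e ≠ 0) (Z : Φ.F → Set ℝ) (hZ : ∀ c, volume (Z c) = 0)
    (m0 : Φ.F → ℕ) :
    ∃ (κ : Φ.F → ℕ) (L : Φ.F → Finset ℝ),
      Levels Φ T f κp μ κ3 Z m0 κ L ∧ Words Φ T f X ct A lam z M L ∧
      (∀ c, ((L c).card : ℝ) * (2 : ℝ)⁻¹ ^ κ c = W c) ∧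
      (∀ e, EN (us Φ f) κ L e ≤
        li (fun y => ∑' c : Φ.F, ENNReal.ofReal ((1 + κp) * W c) * g c e y) (ea e) (ev e) + err e) ∧
      ∀ i, NN Φ T f κ L i ≤ ∑ e ∈ eIn T i,
        (li (fun y => ∑' c : Φ.F, ENNReal.ofReal ((1 + κp) * W c) * g c e y) (ea e) (ev e) +
          err e) := by
  obtain ⟨κ, L, -, h2, h3, h4, h5, h6, -⟩ := levsel2 hLa hf T hh hug hfin
    (κ' := fun _ => Empty) (X := fun _ j => j.elim) (fun _ j => j.elim)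
    (J := fun _ j => j.elim) (fun _ j => j.elim) (fun _ j => j.elim) (e' := fun _ => 1)
    (fun _ => one_pos) herr hκ0 hκ1 hμ hW0 hWd hW1 hW2 hZ hBm hB m0
  exact ⟨κ, L, h2, hwd L h2.marg h3, h4, h5, h6⟩

/-- `sel_g` with the standard dyadic targets: weights `2 sz` -/
theorem sel_g_std (hLa : IsOpen La) (hf : Hom3 f Om La) (T : Tiling Om ι)
    (hh : ∀ e : Edg T, ∀ y ∈ sgm (ea e) (ev e), ∀ c, f y ∉ (Φ.B c).S)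
    {g : Φ.F → Edg T → E3 → ℝ≥0∞}
    (hug : ∀ c e, UGs (us Φ f c) (g c e) (ea e) (ev e))
    (hfin : ∀ c e, li (g c e) (ea e) (ev e) ≠ ∞)
    {κp : ℝ} (hκ0 : 0 < κp) (hκ1 : κp ≤ 1) {μ : ℝ} (hμ : μ ≤ κp / 64) {κ3 : ℝ} (hκ3 : 8 ≤ κ3)
    {Bad : Φ.F → Set ℝ} (hBm : ∀ c, MeasurableSet (Bad c))
    (hB : ∀ c, volume (Bad c ∩ Icc 0 1) ≤ ENNReal.ofReal (κp / 32))
    {X : Set Φ.F} {ct : Φ.F → ι} {A : Φ.F → E3 ≃ᵃ[ℝ] E3} {lam : Φ.F → ℝ} {z : Φ.F → E3}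
    {M : Φ.F → ℕ}
    (hwd : ∀ L : Φ.F → Finset ℝ, (∀ c, ∀ t ∈ L c, μ ≤ t ∧ t ≤ 1 - μ) →
      (∀ c, ∀ t ∈ L c, t ∉ Bad c) → Words Φ T f X ct A lam z M L)
    (err : Edg T → ℝ≥0∞) (herr : ∀ e, err e ≠ 0) (Z : Φ.F → Set ℝ) (hZ : ∀ c, volume (Z c) = 0)
    (m0 : Φ.F → ℕ) :
    ∃ (κ : Φ.F → ℕ) (L : Φ.F → Finset ℝ),
      Levels Φ T f κp μ κ3 Z m0 κ L ∧ Words Φ T f X ct A lam z M L ∧
      ∀ i, NN Φ T f κ L i ≤ ∑ e ∈ eIn T i,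
        (li (fun y => ∑' c : Φ.F, ENNReal.ofReal (2 * c.1.sz) * g c e y) (ea e) (ev e) +
          err e) := by
  obtain ⟨W, h1, h2, h3, h4, h5⟩ := exists_targets Φ hκ3
  obtain ⟨κ, L, g1, g2, -, -, g3⟩ := sel_g hLa hf T hh hug hfin hκ0 hκ1 hμ h1 h2 h3 h4
    hBm hB hwd err herr Z hZ m0
  refine ⟨κ, L, g1, g2, fun i => (g3 i).trans (Finset.sum_le_sum fun e _ => ?_)⟩
  refine add_le_add (li_mono fun y _ => ENNReal.tsum_le_tsum fun c => ?_) le_rfl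
  refine mul_le_mul' (ENNReal.ofReal_le_ofReal ?_) le_rfl
  have h6 := h5 c
  have h7 := h1 c
  nlinarith

end sel

end

end Crest.Agent.R096.Ls_222
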