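import Crest.Agent.R096.Xq1_537

/-!
# R096 (row 96), LIP-ST (helper955)

(1c) of helper337's #9683: the Lipschitz constant of the base point `st C κ` (537) on a cell `q`
is bounded, for `κ ≤ 1/2`, by a function of `R / r` and `dim q`, where `r` bounds from below the
inradii (about the centres) and `R` from above the circumradii of `q` and of all its faces.

Proof: radial induction.  `y = (1 - w) y₁ + w b_q`.  If `κ ≤ w` then
`st_κ y = b + (y - b)/(1-κ)`; if `w ≤ κ` then `st_κ y = st_κ' y₁`, `1 - κ' = (1-κ)/(1-w)`.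
-/

set_option autoImplicit false
set_option linter.unusedSectionVars false
set_option linter.unusedVariables false

open Set Filter Topology
open scoped NNReal

namespace Crest.Agent.R096.Lst_955

open Crest.Agent.R096.Xp_537
open Crest.Agent.R096.Ce_537 (PLOn)

section Glue

variable {F : Type*} [PseudoMetricSpace F]

/-- gluing of Lipschitz estimates along a segment (finitely many pieces, not assumed closed) -/
lemma glue1 {φ : ℝ → F} {M : ℝ≥0} {ι : Type*} [Finite ι] {K : ι → Set ℝ}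
    (hφ : ContinuousOn φ (Icc 0 1)) (hcov : ∀ t ∈ Icc (0 : ℝ) 1, ∃ i, t ∈ K i)
    (hK : ∀ i, LipschitzOnWith M φ (K i ∩ Icc 0 1)) : dist (φ 1) (φ 0) ≤ M := by
  have hsub : ∀ i, closure (K i ∩ Icc 0 1) ⊆ Icc (0 : ℝ) 1 := fun i =>
    closure_minimal inter_subset_right isClosed_Icc
  have hL : ∀ i, LipschitzOnWith M φ (closure (K i ∩ Icc 0 1)) := fun i =>
    (lipschitzOnWith_closure_iff (hφ.mono (hsub i))).2 (hK i)
  have key : Icc (0 : ℝ) 1 ⊆ {t | dist (φ t) (φ 0) ≤ M * t} := by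
    apply IsClosed.Icc_subset_of_forall_exists_gt
    · have h1 : {t | dist (φ t) (φ 0) ≤ M * t} ∩ Icc (0 : ℝ) 1 =
          {t ∈ Icc (0 : ℝ) 1 | dist (φ t) (φ 0) ≤ M * t} := by
        ext t; exact and_comm
      rw [h1]
      exact isClosed_Icc.isClosed_le (continuous_dist.comp_continuousOn
        (hφ.prodMk continuousOn_const)) (by fun_prop)
    · simp
    · rintro x ⟨hx, hx0, hx1⟩ y hy
      by_contra hne
      have h : ∀ i, ∀ᶠ u in 𝓝[>] x, u ∉ closure (K i ∩ Icc 0 1) := by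
        intro i
        by_cases hxi : x ∈ closure (K i ∩ Icc 0 1)
        · have hnb : Ioc x (min y 1) ∈ 𝓝[>] x := Ioc_mem_nhdsGT (lt_min hy hx1)
          filter_upwards [hnb] with u hu hui
          apply hne
          refine ⟨u, ?_, hu.1, hu.2.trans (min_le_left _ _)⟩
          have h1 := (hL i).dist_le_mul u hui x hxi
          have h2 : dist u x = u - x := by rw [Real.dist_eq, abs_of_pos (sub_pos.2 hu.1)]
          rw [h2] at h1
          have h3 := dist_triangle (φ u) (φ x) (φ 0)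
          have h4 : dist (φ x) (φ 0) ≤ M * x := hx
          show dist (φ u) (φ 0) ≤ M * u
          have h5 : (M : ℝ) * (u - x) = M * u - M * x := by ring
          linarith
        · exact mem_nhdsWithin_of_mem_nhds (isClosed_closure.isOpen_compl.mem_nhds hxi)
      have h' := (eventually_all.2 h).and (Ioc_mem_nhdsGT hx1)
      obtain ⟨u, hu, hu1⟩ := h'.exists
      obtain ⟨i, hi⟩ := hcov u ⟨hx0.trans hu1.1.le, hu1.2⟩
      exact hu i (subset_closure ⟨hi, hx0.trans hu1.1.le, hu1.2⟩)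
  have h1 : dist (φ 1) (φ 0) ≤ M * 1 := key (right_mem_Icc.2 zero_le_one)
  simpa using h1

end Glue

variable {E : Type*} [NormedAddCommGroup E] [NormedSpace ℝ E]
variable {Q : Type*} [PartialOrder Q] {Λ : Set E}

/-- roundness of the cell `q` and of all its faces -/
structure Rnd (C : CC Λ Q) (q : Q) (r R : ℝ) : Prop where
  pos : 0 < r
  out : ∀ p ≤ q, ∀ x ∈ C.cell p, ‖x - C.b p‖ ≤ R
  inn : ∀ p ≤ q, ∀ y ∈ C.cell p, ∀ z ∈ C.cell p, ∀ s : ℝ, 0 ≤ s → s * ‖y - z‖ ≤ r →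
    C.b p + s • (y - z) ∈ C.cell p

lemma Rnd.of_span {C : CC Λ Q} {q : Q} {r R : ℝ} (hr : 0 < r)
    (h1 : ∀ p ≤ q, ∀ x ∈ C.cell p, ‖x - C.b p‖ ≤ R)
    (h2 : ∀ p ≤ q, ∀ x ∈ affineSpan ℝ (C.cell p), ‖x - C.b p‖ ≤ r → x ∈ C.cell p) :
    Rnd C q r R := by
  refine ⟨hr, h1, fun p hp y hy z hz s hs hsr => h2 p hp _ ?_ ?_⟩
  · have h3 : y - z ∈ (affineSpan ℝ (C.cell p)).direction :=
      AffineSubspace.vsub_mem_direction (subset_affineSpan ℝ _ hy) (subset_affineSpan ℝ _ hz)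
    have h4 := AffineSubspace.vadd_mem_of_mem_direction
      (Submodule.smul_mem _ s h3) (subset_affineSpan ℝ _ (C.bmem p))
    rwa [vadd_eq_add, add_comm] at h4
  · rw [add_sub_cancel_left, norm_smul, Real.norm_eq_abs, abs_of_nonneg hs]
    exact hsr

lemma Rnd.face {C : CC Λ Q} {p q : Q} {r R : ℝ} (h : Rnd C q r R) (hp : p ≤ q) :
    Rnd C p r R :=
  ⟨h.pos, fun σ hσ => h.out σ (hσ.trans hp), fun σ hσ => h.inn σ (hσ.trans hp)⟩

lemma Rnd.R_nonneg {C : CC Λ Q} {q : Q} {r R : ℝ} (h : Rnd C q r R) : 0 ≤ R :=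
  (norm_nonneg _).trans (h.out q le_rfl _ (C.bmem q))

/-! ### the radial weight -/

open Classical in
/-- the weight of the centre of `q` -/
noncomputable def wt (C : CC Λ Q) (q : Q) (y : E) : ℝ :=
  if h : ∃ w ∈ Ico (0 : ℝ) 1, ∃ p < q, ∃ y' ∈ C.cell p, y = (1 - w) • y' + w • C.b q then
    h.choose else 1

/-- the foot of a point on the boundary -/
noncomputable def foot (C : CC Λ Q) (q : Q) (y : E) : E :=
  C.b q + (1 - wt C q y)⁻¹ • (y - C.b q)

lemma wt_eq (C : CC Λ Q) {p q : Q} (hp : p < q) {y' : E} (hy' : y' ∈ C.cell p) {w : ℝ}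
    (hw : w ∈ Ico (0 : ℝ) 1) : wt C q ((1 - w) • y' + w • C.b q) = w := by
  have hex : ∃ w' ∈ Ico (0 : ℝ) 1, ∃ p' < q, ∃ y'' ∈ C.cell p',
      (1 - w) • y' + w • C.b q = (1 - w') • y'' + w' • C.b q := ⟨w, hw, p, hp, y', hy', rfl⟩
  unfold wt
  rw [dif_pos hex]
  obtain ⟨h1, p', hp', y'', hy'', he⟩ := hex.choose_spec
  exact (C.rad_uniq hp hp' hy' hy'' hw h1 he).2.symm

lemma wt_b (C : CC Λ Q) (q : Q) : wt C q (C.b q) = 1 := by
  unfold wt
  rw [dif_neg]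
  rintro ⟨w, hw, p, hp, y', hy', he⟩
  have h1 : (1 - w) • (C.b q - y') = 0 := by
    have h2 : (1 - w) • (C.b q - y') = C.b q - ((1 - w) • y' + w • C.b q) := by module
    rw [h2, ← he, sub_self]
  have h2 : C.b q = y' := sub_eq_zero.1 ((smul_eq_zero.1 h1).resolve_left (by linarith [hw.2]))
  exact C.b_notMem hp (h2 ▸ hy')

lemma foot_eq (C : CC Λ Q) {p q : Q} (hp : p < q) {y' : E} (hy' : y' ∈ C.cell p) {w : ℝ}
    (hw : w ∈ Ico (0 : ℝ) 1) : foot C q ((1 - w) • y' + w • C.b q) = y' := by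
  unfold foot
  rw [wt_eq C hp hy' hw]
  have h1 : (1 - w) • y' + w • C.b q - C.b q = (1 - w) • (y' - C.b q) := by module
  have h2 : (1 - w) ≠ 0 := by linarith [hw.2]
  rw [h1, smul_smul, inv_mul_cancel₀ h2, one_smul, add_sub_cancel]

lemma wt_mem (C : CC Λ Q) {q : Q} {y : E} (hy : y ∈ C.cell q) : wt C q y ∈ Icc (0 : ℝ) 1 := by
  rcases C.rad q y hy with rfl | ⟨p, hp, y', hy', w, hw, rfl⟩
  · rw [wt_b]; simp
  · rw [wt_eq C hp hy' hw]; exact ⟨hw.1, hw.2.le⟩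

lemma foot_mem (C : CC Λ Q) {q : Q} {y : E} (hy : y ∈ C.cell q) (h1 : wt C q y < 1) :
    ∃ p < q, foot C q y ∈ C.cell p := by
  rcases C.rad q y hy with rfl | ⟨p, hp, y', hy', w, hw, rfl⟩
  · rw [wt_b] at h1; exact absurd h1 (lt_irrefl _)
  · rw [foot_eq C hp hy' hw]; exact ⟨p, hp, hy'⟩

lemma foot_spec (C : CC Λ Q) {q : Q} {y : E} (h1 : wt C q y < 1) :
    y = (1 - wt C q y) • foot C q y + wt C q y • C.b q := by
  have h2 : (1 - wt C q y) ≠ 0 := by linarith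
  unfold foot
  rw [smul_add, smul_smul, mul_inv_cancel₀ h2]
  module

/-- a boundary-type point for every point -/
lemma exists_foot (C : CC Λ Q) {q : Q} {y : E} (hy : y ∈ C.cell q) :
    ∃ y₁ ∈ C.cell q, y - C.b q = (1 - wt C q y) • (y₁ - C.b q) := by
  rcases (wt_mem C hy).2.lt_or_eq with h1 | h1
  · obtain ⟨p, hp, hf⟩ := foot_mem C hy h1
    refine ⟨foot C q y, C.mono hp hf, ?_⟩
    unfold foot
    have h2 : (1 - wt C q y) ≠ 0 := by linarith
    rw [add_sub_cancel_left, smul_smul, mul_inv_cancel₀ h2, one_smul]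
  · refine ⟨C.b q, C.bmem q, ?_⟩
    rcases C.rad q y hy with rfl | ⟨p, hp, y', hy', w, hw, rfl⟩
    · simp
    · rw [wt_eq C hp hy' hw] at h1
      exact absurd h1 hw.2.ne

/-- minimality of the gauge `1 - wt` -/
lemma gauge_le (C : CC Λ Q) {q : Q} {y k : E} {lam : ℝ} (hy : y ∈ C.cell q)
    (hk : k ∈ C.cell q) (hl : 0 ≤ lam) (he : y - C.b q = lam • (k - C.b q)) :
    1 - wt C q y ≤ lam := by
  by_contra hlt
  push Not at hlt
  have hg : 0 < 1 - wt C q y := hl.trans_lt hlt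
  have hw1 : wt C q y < 1 := by linarith
  obtain ⟨p, hp, hf⟩ := foot_mem C hy hw1
  have h1 : foot C q y = C.b q + (lam / (1 - wt C q y)) • (k - C.b q) := by
    unfold foot
    rw [he, smul_smul, div_eq_inv_mul]
  set c₀ := lam / (1 - wt C q y) with hc₀
  have hc0 : 0 ≤ c₀ := div_nonneg hl hg.le
  have hc1 : c₀ < 1 := (div_lt_one hg).2 hlt
  rcases C.rad q k hk with rfl | ⟨p', hp', k₁, hk₁, u, hu, rfl⟩
  · rw [sub_self, smul_zero, add_zero] at h1
    rw [h1] at hf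
    exact C.b_notMem hp hf
  · have h2 : (1 - u) • k₁ + u • C.b q - C.b q = (1 - u) • (k₁ - C.b q) := by module
    rw [h2, smul_smul] at h1
    set c := c₀ * (1 - u) with hc
    have hcn : 0 ≤ c := mul_nonneg hc0 (by linarith [hu.2])
    have hcl : c < 1 := by nlinarith [hu.1, hu.2]
    rcases hcn.eq_or_lt with h0 | h0
    · rw [← h0, zero_smul, add_zero] at h1
      rw [h1] at hf
      exact C.b_notMem hp hf
    · have h3 : (1 - (0 : ℝ)) • foot C q y + (0 : ℝ) • C.b q =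
          (1 - (1 - c)) • k₁ + (1 - c) • C.b q := by
        rw [h1]; module
      have h4 := (C.rad_uniq hp hp' hf hk₁ (by simp) ⟨by linarith, by linarith⟩ h3).2
      linarith

/-- **the radial weight is `1/r`-Lipschitz** -/
lemma wt_lip {C : CC Λ Q} {q : Q} {r R : ℝ} (h : Rnd C q r R) {y z : E} (hy : y ∈ C.cell q)
    (hz : z ∈ C.cell q) : wt C q z - wt C q y ≤ ‖y - z‖ / r := by
  rcases eq_or_ne y z with rfl | hne
  · simp
  have hr := h.pos
  have hn : 0 < ‖y - z‖ := norm_pos_iff.2 (sub_ne_zero.2 hne)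
  obtain ⟨z₁, hz₁, he⟩ := exists_foot C hz
  have hg : 0 ≤ 1 - wt C q z := by linarith [(wt_mem C hz).2]
  obtain ⟨g, hgd⟩ : ∃ g, g = 1 - wt C q z := ⟨_, rfl⟩
  rw [← hgd] at he hg
  obtain ⟨s, hsd⟩ : ∃ s, s = ‖y - z‖ / r := ⟨_, rfl⟩
  have hs : 0 < s := by rw [hsd]; exact div_pos hn hr
  have hk' : C.b q + s⁻¹ • (y - z) ∈ C.cell q := by
    refine h.inn q le_rfl y hy z hz _ (inv_nonneg.2 hs.le) (le_of_eq ?_)
    rw [hsd, inv_div]
    field_simp
  have hgs : 0 < g + s := by linarith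
  have hmem : (g / (g + s)) • z₁ + (s / (g + s)) • (C.b q + s⁻¹ • (y - z)) ∈ C.cell q :=
    C.conv q hz₁ hk' (div_nonneg hg hgs.le) (div_nonneg hs.le hgs.le)
      (by rw [← add_div, div_self hgs.ne'])
  have h1 := gauge_le C (lam := g + s) hy hmem hgs.le (by
    have e1 : (g + s) * (g / (g + s)) = g := by field_simp
    have e2 : (g + s) * (s / (g + s)) = s := by field_simp
    have e3 : s * s⁻¹ = 1 := mul_inv_cancel₀ hs.ne'
    have e4 : (g + s) • ((g / (g + s)) • z₁ + (s / (g + s)) • (C.b q + s⁻¹ • (y - z)) - C.b q) =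
        ((g + s) * (g / (g + s))) • z₁ + ((g + s) * (s / (g + s))) • C.b q
          + (((g + s) * (s / (g + s))) * s⁻¹) • (y - z) - (g + s) • C.b q := by module
    rw [e4, e1, e2, e3, one_smul]
    have e5 : y - C.b q = (y - z) + (z - C.b q) := by abel
    rw [e5, he]
    module)
  rw [← hsd]
  linarith

lemma wt_lip_abs {C : CC Λ Q} {q : Q} {r R : ℝ} (h : Rnd C q r R) {y z : E}
    (hy : y ∈ C.cell q) (hz : z ∈ C.cell q) : |wt C q y - wt C q z| ≤ ‖y - z‖ / r := by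
  rw [abs_le]
  have h1 := wt_lip h hy hz
  have h2 := wt_lip h hz hy
  rw [norm_sub_rev] at h2
  constructor <;> linarith

/-! ### the base point, with the identity at `κ = 0` -/

/-- the base point, with the identity at `κ = 0` -/
noncomputable def SS (C : CC Λ Q) (p : ℝ × E) : E := if p.1 = 0 then p.2 else st C p.1 p.2

lemma SS_zero (C : CC Λ Q) (y : E) : SS C (0, y) = y := by simp [SS]

lemma SS_pos (C : CC Λ Q) {κ : ℝ} (h : 0 < κ) (y : E) : SS C (κ, y) = st C κ y := by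
  simp [SS, h.ne']

lemma SS_cont [FiniteDimensional ℝ E] (C : CC Λ Q) (q : Q) :
    ContinuousOn (SS C) (Icc (0 : ℝ) (1 / 2) ×ˢ C.cell q) := by
  have h1 : ContinuousOn (fun p => (1 - p.1)⁻¹ • (jr C q p).2)
      (Icc (0 : ℝ) (1 / 2) ×ˢ C.cell q) := by
    have h2 : ContinuousOn (jr C q) (Icc (0 : ℝ) (1 / 2) ×ˢ C.cell q) :=
      (plOn_jr C q).1.mono (prod_mono (Icc_subset_Icc le_rfl (by norm_num)) Subset.rfl)
    refine ContinuousOn.smul (ContinuousOn.inv₀ (by fun_prop) ?_)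
      (continuous_snd.comp_continuousOn h2)
    rintro ⟨κ, y⟩ ⟨hκ, -⟩
    have hκ : κ ∈ Icc (0 : ℝ) (1 / 2) := hκ
    have : (1 - κ) ≠ 0 := by linarith [hκ.2]
    exact this
  refine h1.congr ?_
  rintro ⟨κ, y⟩ ⟨hκ, hy⟩
  have hκ : κ ∈ Icc (0 : ℝ) (1 / 2) := hκ
  rcases hκ.1.eq_or_lt with h0 | h0
  · rw [← h0, SS_zero]
    simp [jr]
  · rw [SS_pos C h0]
    beta_reduce
    rw [jr_eq C q ⟨h0, by linarith [hκ.2]⟩]
    show st C κ y = (1 - κ)⁻¹ • ((1 - κ) • st C κ y)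
    rw [smul_smul, inv_mul_cancel₀ (by linarith [hκ.2]), one_smul]

/-- the inner piece -/
lemma SS_in (C : CC Λ Q) {q : Q} {κ : ℝ} (hκ : κ ∈ Icc (0 : ℝ) (1 / 2)) {y : E}
    (hy : y ∈ C.cell q) (hw : κ ≤ wt C q y) :
    SS C (κ, y) = C.b q + (1 - κ)⁻¹ • (y - C.b q) := by
  rcases hκ.1.eq_or_lt with h0 | h0
  · rw [← h0, SS_zero]; simp
  have hκ1 : 0 < 1 - κ := by linarith [hκ.2]
  rw [SS_pos C h0]
  obtain ⟨y₁, hy₁, he⟩ := exists_foot C hy
  have hwm := wt_mem C hy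
  obtain ⟨t, ht⟩ : ∃ t, t = C.b q + (1 - κ)⁻¹ • (y - C.b q) := ⟨_, rfl⟩
  rw [← ht]
  obtain ⟨a, ha⟩ : ∃ a, a = (1 - κ)⁻¹ * (1 - wt C q y) := ⟨_, rfl⟩
  have ha0 : 0 ≤ a := by
    rw [ha]; exact mul_nonneg (inv_nonneg.2 hκ1.le) (by linarith [hwm.2])
  have ha1 : a ≤ 1 := by
    rw [ha, inv_mul_le_iff₀ hκ1]; linarith
  have htm : t ∈ C.cell q := by
    have h1 : t = a • y₁ + (1 - a) • C.b q := by
      rw [ht, he, smul_smul, ← ha]; module
    rw [h1]
    exact C.conv q hy₁ (C.bmem q) ha0 (by linarith) (by ring)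
  have hst := (St.single (C := C) one_pos htm).state
  have h2 := st_pk C ⟨h0, by linarith⟩ hst
  have h3 : pk C κ (Finsupp.single q 1) t = y := by
    unfold pk
    rw [bs_single _ one_pos, one_smul, ht, smul_add, smul_smul, mul_inv_cancel₀ hκ1.ne']
    module
  rwa [h3] at h2

/-- the parameter at the foot -/
noncomputable def kap (C : CC Λ Q) (q : Q) (p : ℝ × E) : ℝ :=
  1 - (1 - wt C q p.2)⁻¹ * (1 - p.1)

lemma kap_mem (C : CC Λ Q) {q : Q} {κ : ℝ} (hκ : κ ∈ Icc (0 : ℝ) (1 / 2)) {y : E}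
    (hy : y ∈ C.cell q) (hw : wt C q y ≤ κ) : kap C q (κ, y) ∈ Icc (0 : ℝ) (1 / 2) := by
  have hw0 := (wt_mem C hy).1
  have hw1 : 0 < 1 - wt C q y := by linarith [hκ.2]
  unfold kap
  constructor
  · have : (1 - wt C q y)⁻¹ * (1 - κ) ≤ 1 := by
      rw [inv_mul_le_iff₀ hw1]; linarith
    show 0 ≤ 1 - (1 - wt C q y)⁻¹ * (1 - κ)
    linarith
  · have h1 : 1 ≤ (1 - wt C q y)⁻¹ := (one_le_inv₀ hw1).2 (by linarith)
    have h2 : 0 ≤ 1 - κ := by linarith [hκ.2]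
    show 1 - (1 - wt C q y)⁻¹ * (1 - κ) ≤ 1 / 2
    nlinarith [hκ.2]

/-- the outer pieces -/
lemma SS_out (C : CC Λ Q) {p q : Q} (hp : p < q) {κ : ℝ} (hκ : κ ∈ Icc (0 : ℝ) (1 / 2)) {y : E}
    (hy : y ∈ C.cell q) (hw : wt C q y ≤ κ) (hf : foot C q y ∈ C.cell p) :
    SS C (κ, y) = SS C (kap C q (κ, y), foot C q y) := by
  have hw0 := (wt_mem C hy).1
  have hw1 : 0 < 1 - wt C q y := by linarith [hκ.2]
  rcases hw.eq_or_lt with h1 | h1
  · -- `κ = w`
    have h2 : kap C q (κ, y) = 0 := by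
      unfold kap
      show 1 - (1 - wt C q y)⁻¹ * (1 - κ) = 0
      rw [← h1, inv_mul_cancel₀ hw1.ne', sub_self]
    rw [h2, SS_zero, SS_in C hκ hy h1.ge, ← h1]
    rfl
  · have h0 : 0 < κ := hw0.trans_lt h1
    obtain ⟨w, hwd⟩ : ∃ w, w = wt C q y := ⟨_, rfl⟩
    rw [← hwd] at hw0 hw1 h1 hw
    obtain ⟨k, hkd⟩ : ∃ k, k = kap C q (κ, y) := ⟨_, rfl⟩
    have hk : k = 1 - (1 - w)⁻¹ * (1 - κ) := by rw [hkd, hwd]; rfl
    have hkm : k ∈ Icc (0 : ℝ) (1 / 2) := by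
      rw [hkd]; exact kap_mem C hκ hy (by rw [← hwd]; exact h1.le)
    have hk1 : (1 - w) * (1 - k) = 1 - κ := by
      rw [hk]; field_simp; ring
    have hk0 : 0 < k := by
      rcases hkm.1.eq_or_lt with h2 | h2
      · rw [← h2] at hk1; linarith
      · exact h2
    have hkk : 0 < k ∧ k < 1 := ⟨hk0, by linarith [hkm.2]⟩
    rw [← hkd, SS_pos C h0, SS_pos C hk0]
    obtain ⟨g1, g2, g3⟩ := st_spec C hkk hf
    obtain ⟨l, hl⟩ : ∃ l, l = sl C k (foot C q y) := ⟨_, rfl⟩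
    obtain ⟨t, ht⟩ : ∃ t, t = st C k (foot C q y) := ⟨_, rfl⟩
    rw [← hl, ← ht] at g1 g2
    rw [← hl] at g3
    rw [← ht]
    have hys : y = (1 - w) • foot C q y + w • C.b q := by
      rw [hwd]; exact foot_spec C (by rw [← hwd]; linarith)
    have hwk : (1 - w) * k = κ - w := by linear_combination -hk1
    -- homogeneous weights
    have hS : ∀ (a : ℝ), 0 < a → St C a p (a • l) t := by
      intro a ha
      have hsup : ∀ ρ, ρ ∈ (a • l).support → ρ ∈ l.support := by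
        intro ρ hρ
        rw [Finsupp.mem_support_iff] at hρ ⊢
        intro h2
        exact hρ (by simp [h2])
      have hsup' : (a • l).support = l.support := by
        ext ρ
        simp [ha.ne']
      refine ⟨fun ρ => ?_, ?_, fun ρ hρ σ hσ => g1.chain ρ (hsup ρ hρ) σ (hsup σ hσ),
        fun ρ hρ => g3 ρ (hsup ρ hρ), fun ρ hρ => g1.mem ρ (hsup ρ hρ)⟩
      · rw [Finsupp.smul_apply, smul_eq_mul]; exact mul_nonneg ha.le (g1.nn ρ)
      · rw [hsup']
        simp only [Finsupp.smul_apply, smul_eq_mul]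
        rw [← Finset.mul_sum, g1.sum, mul_one]
    have hbs : ∀ (a : ℝ), 0 < a → bs C.b (a • l) = a • bs C.b l := by
      intro a ha
      have hsup' : (a • l).support = l.support := by
        ext ρ
        simp [ha.ne']
      unfold bs
      rw [hsup', Finset.smul_sum]
      exact Finset.sum_congr rfl (fun ρ _ => by
        rw [Finsupp.smul_apply, smul_eq_mul, smul_smul])
    rcases hw0.eq_or_lt with h2 | h2
    · -- `w = 0`: then `y` is the foot
      have h3 : y = foot C q y := by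
        rw [← h2] at hys
        simpa using hys
      have h4 : k = κ := by rw [← h2] at hk1; linarith
      rw [← h3] at ht
      rw [ht, h4]
    · have ha : 0 < 1 - w / κ := by
        rw [sub_pos, div_lt_one h0]; exact h1
      have hadd := (hS (1 - w / κ) ha).add hp (div_pos h2 h0) ha
      obtain ⟨c1, c2, c3, c4⟩ := hadd
      have c5 := st_pk C ⟨h0, by linarith [hκ.2]⟩ c2.state
      have c6 : pk C κ ((1 - w / κ) • l + Finsupp.single q (w / κ)) t = y := by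
        unfold pk
        rw [bs_top _ c1, c3, c4, hbs _ ha]
        have e1 : κ * (1 - w / κ) = (1 - w) * k := by
          rw [hwk]; field_simp
        have e2 : κ * (w / κ) = w := by field_simp
        have e3 : (1 - κ) • t + κ • ((1 - w / κ) • bs C.b l + (w / κ) • C.b q) =
            (1 - κ) • t + (κ * (1 - w / κ)) • bs C.b l + (κ * (w / κ)) • C.b q := by module
        rw [e3, e1, e2, ← hk1]
        have e4 : ((1 - w) * (1 - k)) • t + ((1 - w) * k) • bs C.b l + w • C.b q =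
            (1 - w) • ((1 - k) • t + k • bs C.b l) + w • C.b q := by module
        rw [e4]
        have e5 : (1 - k) • t + k • bs C.b l = foot C q y := g2
        rw [e5, ← hys]
      rw [c6] at c5
      exact c5

/-! ### the estimates on the pieces -/

lemma inv_est {a a' : ℝ} (ha : 1 / 2 ≤ a) (ha' : 1 / 2 ≤ a') : |a⁻¹ - a'⁻¹| ≤ 4 * |a - a'| := by
  have h1 : 0 < a := by linarith
  have h2 : 0 < a' := by linarith
  rw [inv_sub_inv h1.ne' h2.ne', abs_div, abs_of_pos (mul_pos h1 h2), abs_sub_comm,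
    div_le_iff₀ (mul_pos h1 h2)]
  have h3 : 1 ≤ 4 * (a * a') := by nlinarith
  nlinarith [abs_nonneg (a - a')]

lemma inv_le_two {a : ℝ} (ha : 1 / 2 ≤ a) : a⁻¹ ≤ 2 := by
  rw [inv_le_comm₀ (by linarith) (by norm_num)]
  linarith

lemma vec_est {a a' R : ℝ} (ha : 1 / 2 ≤ a) (ha' : 1 / 2 ≤ a') {u v : E} (hv : ‖v‖ ≤ R) :
    ‖a⁻¹ • u - a'⁻¹ • v‖ ≤ 2 * ‖u - v‖ + 4 * R * |a - a'| := by
  have h1 : a⁻¹ • u - a'⁻¹ • v = a⁻¹ • (u - v) + (a⁻¹ - a'⁻¹) • v := by module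
  rw [h1]
  refine (norm_add_le _ _).trans ?_
  rw [norm_smul, norm_smul, Real.norm_eq_abs, Real.norm_eq_abs,
    abs_of_pos (inv_pos.2 (by linarith : (0 : ℝ) < a))]
  have h2 := inv_est ha ha'
  have h3 := inv_le_two ha
  have h4 : |a⁻¹ - a'⁻¹| * ‖v‖ ≤ 4 * |a - a'| * R :=
    mul_le_mul h2 hv (norm_nonneg _) (by positivity)
  have h5 : a⁻¹ * ‖u - v‖ ≤ 2 * ‖u - v‖ := mul_le_mul_of_nonneg_right h3 (norm_nonneg _)
  linarith

lemma foot_est {C : CC Λ Q} {q : Q} {r R : ℝ} (h : Rnd C q r R) {y z : E} (hy : y ∈ C.cell q)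
    (hz : z ∈ C.cell q) (hwy : wt C q y ≤ 1 / 2) (hwz : wt C q z ≤ 1 / 2) :
    ‖foot C q y - foot C q z‖ ≤ (2 + 4 * (R / r)) * ‖y - z‖ := by
  have h1 := vec_est (a := 1 - wt C q y) (a' := 1 - wt C q z) (u := y - C.b q)
    (v := z - C.b q) (by linarith) (by linarith) (h.out q le_rfl z hz)
  have h2 : foot C q y - foot C q z = (1 - wt C q y)⁻¹ • (y - C.b q) -
      (1 - wt C q z)⁻¹ • (z - C.b q) := by unfold foot; abel
  have h3 : y - C.b q - (z - C.b q) = y - z := by abel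
  have h4 : |1 - wt C q y - (1 - wt C q z)| = |wt C q y - wt C q z| := by
    rw [abs_sub_comm]; congr 1; ring
  rw [h3, h4, ← h2] at h1
  have h5 := wt_lip_abs h hy hz
  have hR := h.R_nonneg
  have h6 : 4 * R * |wt C q y - wt C q z| ≤ 4 * R * (‖y - z‖ / r) :=
    mul_le_mul_of_nonneg_left h5 (by positivity)
  calc _ ≤ _ := h1
    _ ≤ 2 * ‖y - z‖ + 4 * R * (‖y - z‖ / r) := by linarith
    _ = _ := by ring

lemma kap_est {C : CC Λ Q} {q : Q} {r R : ℝ} (h : Rnd C q r R) {y z : E} (hy : y ∈ C.cell q)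
    (hz : z ∈ C.cell q) {κ κ' : ℝ} (hκ : κ ∈ Icc (0 : ℝ) (1 / 2)) (hκ' : κ' ∈ Icc (0 : ℝ) (1 / 2))
    (hwy : wt C q y ≤ κ) (hwz : wt C q z ≤ κ') :
    |kap C q (κ, y) - kap C q (κ', z)| ≤ 2 * |κ - κ'| + 2 * (‖y - z‖ / r) := by
  have hw := wt_lip_abs h hy hz
  unfold kap
  show |1 - (1 - wt C q y)⁻¹ * (1 - κ) - (1 - (1 - wt C q z)⁻¹ * (1 - κ'))| ≤ _
  obtain ⟨a, ha⟩ : ∃ a, a = 1 - wt C q y := ⟨_, rfl⟩
  obtain ⟨b, hb⟩ : ∃ b, b = 1 - wt C q z := ⟨_, rfl⟩
  have hab : |wt C q y - wt C q z| = |a - b| := by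
    rw [ha, hb, abs_sub_comm (1 - _)]; congr 1; ring
  rw [hab] at hw
  rw [← ha, ← hb]
  have ha2 : 1 / 2 ≤ a := by linarith [hκ.2]
  have hb2 : 1 / 2 ≤ b := by linarith [hκ'.2]
  have ha0 : 0 < a := by linarith
  have hb0 : 0 < b := by linarith
  have h1 : 1 - a⁻¹ * (1 - κ) - (1 - b⁻¹ * (1 - κ')) =
      a⁻¹ * (κ - κ') + (a⁻¹ * (a - b)) * (b⁻¹ * (1 - κ')) := by
    field_simp
    ring
  rw [h1]
  refine (abs_add_le _ _).trans ?_
  rw [abs_mul, abs_mul, abs_mul, abs_of_pos (inv_pos.2 ha0)]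
  have h2 := inv_le_two ha2
  have h3 : |b⁻¹ * (1 - κ')| ≤ 1 := by
    rw [abs_of_nonneg (mul_nonneg (inv_nonneg.2 hb0.le) (by linarith [hκ'.2])),
      inv_mul_le_iff₀ hb0]
    linarith
  have h4 : a⁻¹ * |κ - κ'| ≤ 2 * |κ - κ'| := mul_le_mul_of_nonneg_right h2 (abs_nonneg _)
  have h5 : a⁻¹ * |a - b| ≤ 2 * (‖y - z‖ / r) :=
    mul_le_mul h2 hw (abs_nonneg _) (by norm_num)
  have h6 : a⁻¹ * |a - b| * |b⁻¹ * (1 - κ')| ≤ a⁻¹ * |a - b| * 1 :=
    mul_le_mul_of_nonneg_left h3 (by positivity)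
  linarith

/-- the estimate on a cell -/
def Est (C : CC Λ Q) (q : Q) (A B : ℝ) : Prop :=
  ∀ κ ∈ Icc (0 : ℝ) (1 / 2), ∀ κ' ∈ Icc (0 : ℝ) (1 / 2), ∀ y ∈ C.cell q, ∀ z ∈ C.cell q,
    ‖SS C (κ, y) - SS C (κ', z)‖ ≤ A * ‖y - z‖ + B * |κ - κ'|

/-- the induction step -/
lemma step [FiniteDimensional ℝ E] {C : CC Λ Q} {q : Q} {r R : ℝ} (h : Rnd C q r R)
    {A B A' B' : ℝ} (hA : 0 ≤ A) (hB : 0 ≤ B) (ih : ∀ p < q, Est C p A B) (h1 : 2 ≤ A')
    (h2 : 4 * R ≤ B') (h3 : A * (2 + 4 * (R / r)) + B * (2 / r) ≤ A') (h4 : 2 * B ≤ B') :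
    Est C q A' B' := by
  classical
  intro κ hκ κ' hκ' y hy z hz
  have hR := h.R_nonneg
  have hA' : 0 ≤ A' := by linarith
  have hB' : 0 ≤ B' := by linarith
  -- the path
  obtain ⟨k, hk⟩ : ∃ k : ℝ → ℝ, k = fun t => κ + t * (κ' - κ) := ⟨_, rfl⟩
  obtain ⟨x, hx⟩ : ∃ x : ℝ → E, x = fun t => y + t • (z - y) := ⟨_, rfl⟩
  have hkm : ∀ t ∈ Icc (0 : ℝ) 1, k t ∈ Icc (0 : ℝ) (1 / 2) := by
    intro t ht
    have h5 : k t = (1 - t) • κ + t • κ' := by rw [hk]; simp only [smul_eq_mul]; ring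
    rw [h5]
    exact convex_Icc _ _ hκ hκ' (by linarith [ht.2]) ht.1 (by ring)
  have hxm : ∀ t ∈ Icc (0 : ℝ) 1, x t ∈ C.cell q := by
    intro t ht
    have h5 : x t = (1 - t) • y + t • z := by rw [hx]; module
    rw [h5]
    exact C.conv q hy hz (by linarith [ht.2]) ht.1 (by ring)
  have hkd : ∀ s t, |k s - k t| = |s - t| * |κ - κ'| := by
    intro s t
    have h5 : k s - k t = (s - t) * (κ' - κ) := by rw [hk]; ring
    rw [h5, abs_mul, abs_sub_comm κ']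
  have hxd : ∀ s t, ‖x s - x t‖ = |s - t| * ‖y - z‖ := by
    intro s t
    have h5 : x s - x t = (s - t) • (z - y) := by rw [hx]; module
    rw [h5, norm_smul, Real.norm_eq_abs, norm_sub_rev z]
  have hφ : ContinuousOn (fun t => SS C (k t, x t)) (Icc 0 1) := by
    refine (SS_cont C q).comp ?_ (fun t ht => ⟨hkm t ht, hxm t ht⟩)
    rw [hk, hx]
    fun_prop
  have hM0 : 0 ≤ A' * ‖y - z‖ + B' * |κ - κ'| := by positivity
  obtain ⟨M, hM⟩ : ∃ M : ℝ≥0, (M : ℝ) = A' * ‖y - z‖ + B' * |κ - κ'| := ⟨⟨_, hM0⟩, rfl⟩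
  have : Finite {p // p < q} := by
    refine Finite.of_injective (fun p : {p // p < q} => (⟨p.1, C.mem_dn.2 p.2.le⟩ : C.dn q)) ?_
    intro p p' hpp
    exact Subtype.ext (congrArg (fun i : C.dn q => (i : Q)) hpp)
  have key := glue1 (M := M) (ι := Option {p // p < q})
    (K := fun i => match i with
      | none => {t | k t ≤ wt C q (x t)}
      | some p => {t | wt C q (x t) ≤ k t ∧ foot C q (x t) ∈ C.cell p.1}) hφ ?_ ?_
  · rw [dist_comm, dist_eq_norm, hM] at key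
    have e0 : k 0 = κ := by rw [hk]; simp
    have e1 : k 1 = κ' := by rw [hk]; simp
    have e2 : x 0 = y := by rw [hx]; simp
    have e3 : x 1 = z := by rw [hx]; simp
    rwa [e0, e1, e2, e3] at key
  · intro t ht
    rcases le_total (k t) (wt C q (x t)) with h5 | h5
    · exact ⟨none, h5⟩
    · have h6 : wt C q (x t) < 1 := by linarith [(hkm t ht).2]
      obtain ⟨p, hp, hf⟩ := foot_mem C (hxm t ht) h6
      exact ⟨some ⟨p, hp⟩, h5, hf⟩
  · rintro (_ | ⟨p, hp⟩)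
    · refine LipschitzOnWith.of_dist_le_mul ?_
      rintro s ⟨hs, hs1⟩ t ⟨ht, ht1⟩
      have hs : k s ≤ wt C q (x s) := hs
      have ht : k t ≤ wt C q (x t) := ht
      rw [dist_eq_norm, SS_in C (hkm s hs1) (hxm s hs1) hs, SS_in C (hkm t ht1) (hxm t ht1) ht,
        add_sub_add_left_eq_sub]
      have h5 := vec_est (a := 1 - k s) (a' := 1 - k t) (u := x s - C.b q) (v := x t - C.b q)
        (by linarith [(hkm s hs1).2]) (by linarith [(hkm t ht1).2])
        (h.out q le_rfl _ (hxm t ht1))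
      have h6 : x s - C.b q - (x t - C.b q) = x s - x t := by abel
      have h7 : |1 - k s - (1 - k t)| = |k s - k t| := by
        rw [abs_sub_comm]; congr 1; ring
      rw [h6, h7, hxd, hkd] at h5
      refine h5.trans ?_
      rw [hM, Real.dist_eq]
      have h8 : 0 ≤ |s - t| * ‖y - z‖ := by positivity
      have h9 : 0 ≤ |s - t| * |κ - κ'| := by positivity
      nlinarith [mul_le_mul_of_nonneg_right h1 h8, mul_le_mul_of_nonneg_right h2 h9]
    · refine LipschitzOnWith.of_dist_le_mul ?_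
      rintro s ⟨⟨hs, hfs⟩, hs1⟩ t ⟨⟨ht, hft⟩, ht1⟩
      have hs : wt C q (x s) ≤ k s := hs
      have ht : wt C q (x t) ≤ k t := ht
      have hfs : foot C q (x s) ∈ C.cell p := hfs
      have hft : foot C q (x t) ∈ C.cell p := hft
      rw [dist_eq_norm, SS_out C hp (hkm s hs1) (hxm s hs1) hs hfs,
        SS_out C hp (hkm t ht1) (hxm t ht1) ht hft]
      have h5 := ih p hp _ (kap_mem C (hkm s hs1) (hxm s hs1) hs) _
        (kap_mem C (hkm t ht1) (hxm t ht1) ht) _ hfs _ hft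
      refine h5.trans ?_
      have h6 := foot_est h (hxm s hs1) (hxm t ht1) (hs.trans (hkm s hs1).2)
        (ht.trans (hkm t ht1).2)
      have h7 := kap_est h (hxm s hs1) (hxm t ht1) (hkm s hs1) (hkm t ht1) hs ht
      rw [hxd] at h6 h7
      rw [hkd] at h7
      rw [hM, Real.dist_eq]
      have h8 : 0 ≤ |s - t| * ‖y - z‖ := by positivity
      have h9 : 0 ≤ |s - t| * |κ - κ'| := by positivity
      have h10 := mul_le_mul_of_nonneg_left h6 hA
      have h11 := mul_le_mul_of_nonneg_left h7 hB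
      have h12 := mul_le_mul_of_nonneg_right h3 h8
      have h13 := mul_le_mul_of_nonneg_right h4 h9
      have h14 : B * (2 * (|s - t| * |κ - κ'|) + 2 * (|s - t| * ‖y - z‖ / r)) =
        2 * B * (|s - t| * |κ - κ'|) + B * (2 / r) * (|s - t| * ‖y - z‖) := by ring
      rw [h14] at h11
      have h15 : A * ((2 + 4 * (R / r)) * (|s - t| * ‖y - z‖)) =
        A * (2 + 4 * (R / r)) * (|s - t| * ‖y - z‖) := by ring
      rw [h15] at h10
      have h16 : (A * (2 + 4 * (R / r)) + B * (2 / r)) * (|s - t| * ‖y - z‖) =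
        A * (2 + 4 * (R / r)) * (|s - t| * ‖y - z‖) + B * (2 / r) * (|s - t| * ‖y - z‖) := by
        ring
      rw [h16] at h12
      have h17 : (A' * ‖y - z‖ + B' * |κ - κ'|) * |s - t| =
        A' * (|s - t| * ‖y - z‖) + B' * (|s - t| * |κ - κ'|) := by ring
      rw [h17]
      linarith

/-! ### the theorem -/

/-- the constants -/
noncomputable def LA (ρ : ℝ) : ℕ → ℝ
  | 0 => 2
  | n + 1 => (2 + 4 * ρ) * LA ρ n + 2 ^ (n + 3) * ρ

lemma two_le_LA {ρ : ℝ} (h : 0 ≤ ρ) : ∀ n, 2 ≤ LA ρ n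
  | 0 => le_rfl
  | n + 1 => by
    have h1 := two_le_LA h n
    have h2 : 0 ≤ 2 ^ (n + 3) * ρ := by positivity
    have h3 : 0 ≤ 4 * ρ * LA ρ n := by positivity
    show 2 ≤ (2 + 4 * ρ) * LA ρ n + 2 ^ (n + 3) * ρ
    nlinarith

lemma LA_mono {ρ : ℝ} (h : 0 ≤ ρ) : Monotone (LA ρ) := by
  refine monotone_nat_of_le_succ (fun n => ?_)
  have h1 := two_le_LA h n
  have h2 : 0 ≤ 2 ^ (n + 3) * ρ := by positivity
  have h3 : 0 ≤ 4 * ρ * LA ρ n := by positivity
  show LA ρ n ≤ (2 + 4 * ρ) * LA ρ n + 2 ^ (n + 3) * ρ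
  nlinarith

theorem est_all [FiniteDimensional ℝ E] (C : CC Λ Q) {r R : ℝ} : ∀ (n : ℕ) (q : Q),
    C.dim q ≤ n → Rnd C q r R → Est C q (LA (R / r) n) (2 ^ (n + 2) * R)
  | 0, q, hq, h => by
    refine step h le_rfl le_rfl (fun p hp => ?_) le_rfl (by norm_num) (by norm_num [LA])
      (by have := h.R_nonneg; norm_num; linarith)
    exact absurd (C.dim_lt hp) (by omega)
  | n + 1, q, hq, h => by
    have hR := h.R_nonneg
    have hρ : 0 ≤ R / r := div_nonneg hR h.pos.le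
    have h0 := two_le_LA hρ n
    refine step h (A := LA (R / r) n) (B := 2 ^ (n + 2) * R) (by linarith) (by positivity)
      (fun p hp => est_all C n p (by have := C.dim_lt hp; omega) (h.face hp.le))
      (two_le_LA hρ _) ?_ (le_of_eq ?_) (le_of_eq (by ring))
    · have h1 : (1 : ℝ) ≤ 2 ^ (n + 1) := one_le_pow₀ (by norm_num)
      have h2 : (2 : ℝ) ^ (n + 1 + 2) = 2 ^ (n + 1) * 4 := by ring
      rw [h2]
      nlinarith
    · show LA (R / r) n * (2 + 4 * (R / r)) + 2 ^ (n + 2) * R * (2 / r) =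
        (2 + 4 * (R / r)) * LA (R / r) n + 2 ^ (n + 3) * (R / r)
      ring

/-- **LIP-ST, joint form**: Lipschitz in the point and in the parameter. -/
theorem lip_SS [FiniteDimensional ℝ E] (C : CC Λ Q) {q : Q} {r R : ℝ} (h : Rnd C q r R) :
    ∀ κ ∈ Icc (0 : ℝ) (1 / 2), ∀ κ' ∈ Icc (0 : ℝ) (1 / 2), ∀ y ∈ C.cell q, ∀ z ∈ C.cell q,
      ‖SS C (κ, y) - SS C (κ', z)‖ ≤
        LA (R / r) (C.dim q) * ‖y - z‖ + 2 ^ (C.dim q + 2) * R * |κ - κ'| :=
  est_all C _ q le_rfl h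

/-- **LIP-ST**: the Lipschitz constant depends on `R / r` and on `dim q` only. -/
theorem lip_st_rnd [FiniteDimensional ℝ E] (C : CC Λ Q) {q : Q} {r R : ℝ} (h : Rnd C q r R)
    {n : ℕ} (hn : C.dim q ≤ n) {κ : ℝ} (h0 : 0 < κ) (h2 : κ ≤ 1 / 2) :
    LipschitzOnWith (LA (R / r) n).toNNReal (st C κ) (C.cell q) := by
  have hρ : 0 ≤ R / r := div_nonneg h.R_nonneg h.pos.le
  have h3 := two_le_LA hρ n
  refine LipschitzOnWith.of_dist_le_mul fun y hy z hz => ?_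
  have h1 := est_all C n q hn h κ ⟨h0.le, h2⟩ κ ⟨h0.le, h2⟩ y hy z hz
  rw [SS_pos C h0, SS_pos C h0, sub_self, abs_zero, mul_zero, add_zero] at h1
  rw [dist_eq_norm, dist_eq_norm, Real.coe_toNNReal _ (by linarith)]
  exact h1

/-- Lipschitz in the parameter -/
theorem lip_st_param [FiniteDimensional ℝ E] (C : CC Λ Q) {q : Q} {r R : ℝ} (h : Rnd C q r R)
    {n : ℕ} (hn : C.dim q ≤ n) {κ κ' : ℝ} (h0 : 0 < κ) (h2 : κ ≤ 1 / 2) (h0' : 0 < κ')
    (h2' : κ' ≤ 1 / 2) {y : E} (hy : y ∈ C.cell q) :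
    ‖st C κ y - st C κ' y‖ ≤ 2 ^ (n + 2) * R * |κ - κ'| := by
  have h1 := est_all C n q hn h κ ⟨h0.le, h2⟩ κ' ⟨h0'.le, h2'⟩ y hy y hy
  rwa [SS_pos C h0, SS_pos C h0', sub_self, norm_zero, mul_zero, zero_add] at h1

/-- from a cell to a union of cells: piecewise estimate on a whole convex set `D` covered by
finitely many cells -/
theorem lip_st_on [FiniteDimensional ℝ E] (C : CC Λ Q) {s : Finset Q} {D : Set E}
    (hD : Convex ℝ D) (hcov : D ⊆ ⋃ q ∈ s, C.cell q) {r R : ℝ} (h : ∀ q ∈ s, Rnd C q r R)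
    {n : ℕ} (hn : ∀ q ∈ s, C.dim q ≤ n) {κ : ℝ} (h0 : 0 < κ) (h2 : κ ≤ 1 / 2)
    (hc : ContinuousOn (st C κ) D) :
    LipschitzOnWith (LA (R / r) n).toNNReal (st C κ) D := by
  refine LipschitzOnWith.of_dist_le_mul fun y hy z hz => ?_
  set L := (LA (R / r) n).toNNReal
  obtain ⟨x, hx⟩ : ∃ x : ℝ → E, x = fun t => z + t • (y - z) := ⟨_, rfl⟩
  have hxD : ∀ t ∈ Icc (0 : ℝ) 1, x t ∈ D := by
    intro t ht
    have h5 : x t = (1 - t) • z + t • y := by rw [hx]; module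
    rw [h5]
    exact hD hz hy (by linarith [ht.2]) ht.1 (by ring)
  have hxd : ∀ s t, dist (x s) (x t) = |s - t| * dist y z := by
    intro s t
    have h5 : x s - x t = (s - t) • (y - z) := by rw [hx]; module
    rw [dist_eq_norm, h5, norm_smul, Real.norm_eq_abs, dist_eq_norm]
  have key := glue1 (M := L * nndist y z) (ι := s) (φ := fun t => st C κ (x t))
    (K := fun i => {t | x t ∈ C.cell i.1})
    (hc.comp (by rw [hx]; fun_prop) hxD) ?_ ?_
  · have e2 : x 0 = z := by rw [hx]; simp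
    have e3 : x 1 = y := by rw [hx]; simp
    rw [e2, e3] at key
    simpa using key
  · intro t ht
    obtain ⟨q, hq, hqt⟩ := mem_iUnion₂.1 (hcov (hxD t ht))
    exact ⟨⟨q, hq⟩, hqt⟩
  · rintro ⟨q, hq⟩
    refine LipschitzOnWith.of_dist_le_mul ?_
    rintro a ⟨ha, -⟩ b ⟨hb, -⟩
    have h5 := (lip_st_rnd C (h q hq) (hn q hq) h0 h2).dist_le_mul _ ha _ hb
    rw [hxd] at h5
    refine h5.trans (le_of_eq ?_)
    push_cast
    rw [Real.dist_eq]
    ring

end Crest.Agent.R096.Lst_955
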