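import Crest.Agent.R096.Osc6_802

/-!
Row 96 (S0127), helper766.  **Lusin (N)** for Sobolev homeomorphisms of open subsets of `ℝ³`,
`p ≥ 3`: the volume of the image of a cube is at most a constant times the integral of
`∑ ‖G j‖³` over the double cube; null sets are mapped to null sets.
-/

set_option autoImplicit false
set_option linter.unusedVariables false
set_option linter.style.longLine false

namespace Crest.Agent.R096.LusN_766

open MeasureTheory Set Metric Filter Topology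
open scoped ENNReal NNReal RealInnerProductSpace
open Crest.AnalysisR.VecCalc3 Crest.AnalysisR.Sobolev
open Crest.Agent.R096.Osc_802

/-- volume of the image of a cube. -/
theorem volume_image_cube_le {Ω Λ : Set R3} (hΩ : IsOpen Ω) (hΛ : IsOpen Λ) {f : R3 → R3}
    (hf : IsHomeomorphOn f Ω Λ) {G : Fin 3 → R3 → R3}
    (hG : ∀ j, HasWeakGradOn Ω (fun x => f x j) (G j)) :
    ∃ K : ℝ, 0 < K ∧ ∀ (c : R3) (R : ℝ), 0 < R → cube c (2 * R) ⊆ Ω →
      volume (f '' cube c R) ≤ ENNReal.ofReal K *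
        ∫⁻ x in cube c (2 * R), ∑ j, ‖G j x‖ₑ ^ (3 : ℝ) := by
  set V : ℝ := (volume : Measure R3).real (closedBall 0 1) with hV
  have hC : 0 < Cp 3 := Cp_pos (by norm_num)
  have hV0 : 0 ≤ V := measureReal_nonneg
  refine ⟨(108 * Cp 3) ^ 3 * V + 1, by positivity, fun c R hR hQ => ?_⟩
  rcases eq_or_ne (∫⁻ x in cube c (2 * R), ∑ j, ‖G j x‖ₑ ^ (3 : ℝ)) ∞ with hI | hI
  · rw [hI, ENNReal.mul_top]
    · exact le_top
    · rw [Ne, ENNReal.ofReal_eq_zero, not_le]; positivity
  set I : ℝ := (∫⁻ x in cube c (2 * R), ∑ j, ‖G j x‖ₑ ^ (3 : ℝ)).toReal with hIdef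
  have hI0 : 0 ≤ I := ENNReal.toReal_nonneg
  have hIe : ENNReal.ofReal I = ∫⁻ x in cube c (2 * R), ∑ j, ‖G j x‖ₑ ^ (3 : ℝ) :=
    ENNReal.ofReal_toReal hI
  have h1 := homeo_osc_le hΩ hΛ hf hG (p := 3) (by norm_num) hR hQ hI0 hIe.ge
  set D : ℝ := 108 * Cp 3 * R ^ (1 - 3 / (3 : ℝ)) * I ^ (1 / (3 : ℝ)) with hD
  have hD0 : 0 ≤ D := by positivity
  have hD3 : D ^ 3 = (108 * Cp 3) ^ 3 * I := by
    have e1 : R ^ (1 - 3 / (3 : ℝ)) = 1 := by norm_num
    have e2 : (I ^ (1 / (3 : ℝ))) ^ 3 = I := by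
      rw [← Real.rpow_natCast, ← Real.rpow_mul hI0]; norm_num
    rw [hD, e1, mul_one, mul_pow, e2]
  have hsub : f '' cube c R ⊆ closedBall (f c) D := by
    rintro _ ⟨y, hy, rfl⟩
    rw [mem_closedBall, dist_eq_norm]
    exact h1 y hy c (mem_cube_self c hR.le)
  calc volume (f '' cube c R) ≤ volume (closedBall (f c) D) := measure_mono hsub
    _ = ENNReal.ofReal (D ^ 3 * V) := volume_closedBall_le _ hD0
    _ ≤ ENNReal.ofReal (((108 * Cp 3) ^ 3 * V + 1) * I) := by
        apply ENNReal.ofReal_le_ofReal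
        rw [hD3]
        nlinarith
    _ = _ := by rw [ENNReal.ofReal_mul (by positivity), hIe]

/-- grid centres. -/
noncomputable def gc (h : ℝ) (z : Fin 3 → ℤ) : R3 := WithLp.toLp 2 fun i => h * z i

@[simp] lemma gc_apply (h : ℝ) (z : Fin 3 → ℤ) (i : Fin 3) : gc h z i = h * z i := rfl

lemma overlap (h : ℝ) (hh : 0 < h) (y : R3) :
    ∃ S : Finset (Fin 3 → ℤ), S.card ≤ 27 ∧ ∀ z, y ∈ cube (gc h z) h → z ∈ S := by
  classical
  refine ⟨Fintype.piFinset fun i => Finset.Icc (⌈y i / h⌉ - 1) (⌊y i / h⌋ + 1), ?_, ?_⟩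
  · rw [Fintype.card_piFinset]
    calc ∏ i : Fin 3, (Finset.Icc (⌈y i / h⌉ - 1) (⌊y i / h⌋ + 1)).card ≤ ∏ i : Fin 3, 3 := by
          apply Finset.prod_le_prod' fun i _ => ?_
          rw [Int.card_Icc]
          have := Int.floor_le_ceil (y i / h)
          omega
      _ = 27 := by simp
  · intro z hz
    rw [Fintype.mem_piFinset]
    intro i
    have h1 := hz i
    rw [gc_apply, abs_le] at h1
    rw [Finset.mem_Icc]
    have h2 : y i / h = y i / h := rfl
    constructor
    · have : ⌈y i / h⌉ ≤ z i + 1 := by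
        rw [Int.ceil_le, div_le_iff₀ hh]
        push_cast
        nlinarith [h1.2]
      omega
    · have : z i - 1 ≤ ⌊y i / h⌋ := by
        rw [Int.le_floor, le_div_iff₀ hh]
        push_cast
        nlinarith [h1.1]
      omega

lemma mem_grid (h : ℝ) (hh : 0 < h) (y : R3) : ∃ z : Fin 3 → ℤ, y ∈ cube (gc h z) (h / 2) := by
  refine ⟨fun i => round (y i / h), fun i => ?_⟩
  rw [gc_apply]
  have h1 := abs_sub_round (y i / h)
  have h2 : y i - h * (round (y i / h) : ℝ) = h * (y i / h - round (y i / h)) := by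
    field_simp
  rw [h2, abs_mul, abs_of_pos hh]
  nlinarith

/-- sum over the doubled grid cubes. -/
lemma tsum_grid_le (m : Measure R3) {h : ℝ} (hh : 0 < h) (T : Set (Fin 3 → ℤ)) {U : Set R3}
    (hU : MeasurableSet U) (hT : ∀ z ∈ T, cube (gc h z) h ⊆ U) :
    ∑' z : T, m (cube (gc h z) h) ≤ 27 * m U := by
  have h1 : ∀ z : T, m (cube (gc h z) h) = ∫⁻ y, (cube (gc h z) h).indicator (fun _ => (1 : ℝ≥0∞)) y ∂m := by
    intro z
    rw [lintegral_indicator (measurable_cube _ _)]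
    simp
  simp only [h1]
  rw [← lintegral_tsum (fun z => (measurable_const.indicator (measurable_cube _ _)).aemeasurable)]
  calc ∫⁻ y, ∑' z : T, (cube (gc h z) h).indicator (fun _ => (1 : ℝ≥0∞)) y ∂m
      ≤ ∫⁻ y, U.indicator (fun _ => (27 : ℝ≥0∞)) y ∂m := by
        apply lintegral_mono
        intro y
        simp only
        by_cases hy : y ∈ U
        · rw [indicator_of_mem hy]
          obtain ⟨S, hS, hSm⟩ := overlap h hh y
          classical
          have h2 : ∑' z : T, (cube (gc h z) h).indicator (fun _ => (1 : ℝ≥0∞)) y ≤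
              ∑' z : Fin 3 → ℤ, (cube (gc h z) h).indicator (fun _ => (1 : ℝ≥0∞)) y :=
            ENNReal.tsum_comp_le_tsum_of_injective Subtype.val_injective _
          refine h2.trans ?_
          rw [tsum_eq_sum (s := S)]
          · calc ∑ z ∈ S, (cube (gc h z) h).indicator (fun _ => (1 : ℝ≥0∞)) y ≤ ∑ z ∈ S, 1 :=
                  Finset.sum_le_sum fun z _ => by
                    by_cases hz : y ∈ cube (gc h z) h
                    · rw [indicator_of_mem hz]
                    · rw [indicator_of_notMem hz]; exact zero_le_one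
              _ = (S.card : ℝ≥0∞) := by simp
              _ ≤ 27 := by exact_mod_cast hS
          · intro z hz
            apply indicator_of_notMem
            exact fun hcon => hz (hSm z hcon)
        · rw [indicator_of_notMem hy, nonpos_iff_eq_zero, ENNReal.tsum_eq_zero]
          intro z
          apply indicator_of_notMem
          exact fun hcon => hy (hT z z.2 hcon)
    _ = 27 * m U := by
        rw [lintegral_indicator hU]
        simp

/-- compact null sets have null images. -/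
theorem compact_null {Ω Λ : Set R3} (hΩ : IsOpen Ω) (hΛ : IsOpen Λ) {f : R3 → R3}
    (hf : IsHomeomorphOn f Ω Λ) {G : Fin 3 → R3 → R3}
    (hG : ∀ j, HasWeakGradOn Ω (fun x => f x j) (G j))
    (hloc : ∀ K : Set R3, IsCompact K → K ⊆ Ω → ∫⁻ x in K, ∑ j, ‖G j x‖ₑ ^ (3 : ℝ) ≠ ∞)
    {K : Set R3} (hK : IsCompact K) (hKΩ : K ⊆ Ω) (hK0 : volume K = 0) : volume (f '' K) = 0 := by
  obtain ⟨A, hA, hvol⟩ := volume_image_cube_le hΩ hΛ hf hG
  obtain ⟨δ, hδ, hδΩ⟩ := hK.exists_cthickening_subset_open hΩ hKΩ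
  set m : Measure R3 := volume.withDensity fun x => ∑ j, ‖G j x‖ₑ ^ (3 : ℝ) with hm
  have hmK : m K = 0 := withDensity_absolutelyContinuous _ _ hK0
  have hmA : ∀ s : Set R3, MeasurableSet s → m s = ∫⁻ x in s, ∑ j, ‖G j x‖ₑ ^ (3 : ℝ) :=
    fun s hs => withDensity_apply _ hs
  have hlim : Tendsto (fun r => 27 * m (cthickening r K)) (𝓝 0) (𝓝 0) := by
    have h1 : Tendsto (fun r => m (cthickening r K)) (𝓝 0) (𝓝 (m K)) := by
      apply tendsto_measure_cthickening_of_isClosed _ hK.isClosed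
      refine ⟨δ, hδ, ?_⟩
      rw [hmA _ isClosed_cthickening.measurableSet]
      exact hloc _ hK.cthickening hδΩ
    rw [hmK] at h1
    have := ENNReal.Tendsto.const_mul (a := (27 : ℝ≥0∞)) h1 (Or.inr (by norm_num))
    simpa using this
  have hlim' : Tendsto (fun r => ENNReal.ofReal A * (27 * m (cthickening r K))) (𝓝 0) (𝓝 0) := by
    have := ENNReal.Tendsto.const_mul (a := ENNReal.ofReal A) hlim (Or.inr ENNReal.ofReal_ne_top)
    simpa using this
  have hkey : ∀ r : ℝ, 0 < r → r ≤ δ → volume (f '' K) ≤ ENNReal.ofReal A * (27 * m (cthickening r K)) := by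
    intro r hr hrδ
    set h : ℝ := r / 5 with hh
    have hh0 : 0 < h := by positivity
    set T : Set (Fin 3 → ℤ) := {z | (cube (gc h z) (h / 2) ∩ K).Nonempty} with hT
    have hTsub : ∀ z ∈ T, cube (gc h z) h ⊆ cthickening r K := by
      rintro z ⟨x, hx, hxK⟩ y hy
      apply mem_cthickening_of_dist_le y x r K hxK
      rw [dist_eq_norm]
      refine (norm_le_sum3 _).trans ?_
      calc ∑ j, |(y - x) j| ≤ ∑ j : Fin 3, (3 / 2 * h) := by
            apply Finset.sum_le_sum fun j _ => ?_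
            have h1 := hx j
            have h2 := hy j
            rw [PiLp.sub_apply]
            rw [abs_le] at h1 h2 ⊢
            constructor <;> linarith [h1.1, h1.2, h2.1, h2.2]
        _ = 9 / 2 * h := by simp; ring
        _ ≤ _ := by rw [hh]; linarith
    have hcov : f '' K ⊆ ⋃ z : T, f '' cube (gc h z) (h / 2) := by
      rintro _ ⟨x, hx, rfl⟩
      obtain ⟨z, hz⟩ := mem_grid h hh0 x
      exact mem_iUnion.2 ⟨⟨z, ⟨x, hz, hx⟩⟩, mem_image_of_mem f hz⟩
    have e2 : 2 * (h / 2) = h := by ring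
    calc volume (f '' K) ≤ ∑' z : T, volume (f '' cube (gc h z) (h / 2)) :=
          (measure_mono hcov).trans (measure_iUnion_le _)
      _ ≤ ∑' z : T, ENNReal.ofReal A * m (cube (gc h z) h) := by
          apply ENNReal.tsum_le_tsum fun z => ?_
          have h3 := hvol (gc h z) (h / 2) (by positivity) (by
            rw [e2]
            exact (hTsub z z.2).trans ((cthickening_mono hrδ K).trans hδΩ))
          rw [e2] at h3
          rwa [hmA _ (measurable_cube _ _)]
      _ = ENNReal.ofReal A * ∑' z : T, m (cube (gc h z) h) := ENNReal.tsum_mul_left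
      _ ≤ ENNReal.ofReal A * (27 * m (cthickening r K)) := by
          gcongr
          exact tsum_grid_le m hh0 T isClosed_cthickening.measurableSet hTsub
  have h0 : volume (f '' K) ≤ 0 := by
    have hlim2 : Tendsto (fun r => ENNReal.ofReal A * (27 * m (cthickening r K))) (𝓝[>] 0) (𝓝 0) :=
      hlim'.mono_left nhdsWithin_le_nhds
    refine ge_of_tendsto hlim2 ?_
    filter_upwards [Ioc_mem_nhdsGT hδ] with r hr
    exact hkey r hr.1 hr.2
  exact nonpos_iff_eq_zero.1 h0

/-- **Lusin (N)** from local integrability of the cubes of the gradients. -/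
theorem lusinN_of {Ω Λ : Set R3} (hΩ : IsOpen Ω) (hΛ : IsOpen Λ) {f : R3 → R3}
    (hf : IsHomeomorphOn f Ω Λ) {G : Fin 3 → R3 → R3}
    (hG : ∀ j, HasWeakGradOn Ω (fun x => f x j) (G j))
    (hloc : ∀ K : Set R3, IsCompact K → K ⊆ Ω → ∫⁻ x in K, ∑ j, ‖G j x‖ₑ ^ (3 : ℝ) ≠ ∞)
    {N : Set R3} (hN : volume N = 0) : volume (f '' (N ∩ Ω)) = 0 := by
  set N' : Set R3 := toMeasurable volume N ∩ Ω with hN'
  have hN'm : MeasurableSet N' := (measurableSet_toMeasurable _ _).inter hΩ.measurableSet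
  have hN'0 : volume N' = 0 := by
    apply measure_mono_null inter_subset_left
    rw [measure_toMeasurable]; exact hN
  have hsub : N ∩ Ω ⊆ N' := inter_subset_inter_left _ (subset_toMeasurable _ _)
  have hf' := hf
  obtain ⟨g, hfm, hgm, hgf, hfg, hfc, hgc⟩ := hf'
  have hinj : InjOn f Ω := fun x hx y hy hxy => by rw [← hgf x hx, ← hgf y hy, hxy]
  have him : MeasurableSet (f '' N') :=
    hN'm.image_of_continuousOn_injOn (hfc.mono inter_subset_right) (hinj.mono inter_subset_right)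
  refine measure_mono_null (image_mono hsub) ?_
  by_contra hne
  obtain ⟨K', hK'sub, hK'c, hK'pos⟩ := him.exists_lt_isCompact (μ := volume) (r := 0)
    (pos_iff_ne_zero.2 hne)
  have hK'Λ : K' ⊆ Λ := by
    intro y hy
    obtain ⟨x, hx, rfl⟩ := hK'sub hy
    exact hfm hx.2
  have hKc : IsCompact (g '' K') := hK'c.image_of_continuousOn (hgc.mono hK'Λ)
  have hKN : g '' K' ⊆ N' := by
    rintro _ ⟨y, hy, rfl⟩
    obtain ⟨x, hx, rfl⟩ := hK'sub hy
    rwa [hgf x hx.2]
  have h1 := compact_null hΩ hΛ hf hG hloc hKc (hKN.trans inter_subset_right)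
    (measure_mono_null hKN hN'0)
  have h2 : f '' (g '' K') = K' := by
    ext y
    constructor
    · rintro ⟨_, ⟨z, hz, rfl⟩, rfl⟩
      rwa [hfg z (hK'Λ hz)]
    · intro hy
      exact ⟨g y, mem_image_of_mem g hy, hfg y (hK'Λ hy)⟩
  rw [h2] at h1
  exact absurd h1 hK'pos.ne'

/-- local integrability of the cubes. -/
lemma loc_of_memLp {Ω : Set R3} (hΩ : IsOpen Ω) {G : Fin 3 → R3 → R3} {p : ℝ} (hp : 3 ≤ p)
    (hGp : ∀ j, MemLp (G j) (ENNReal.ofReal p) (volume.restrict Ω)) {K : Set R3} (hK : IsCompact K)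
    (hKΩ : K ⊆ Ω) : ∫⁻ x in K, ∑ j, ‖G j x‖ₑ ^ (3 : ℝ) ≠ ∞ := by
  have : IsFiniteMeasure (volume.restrict K) := ⟨by
    rw [Measure.restrict_apply_univ]; exact hK.measure_lt_top⟩
  have h1 : ∀ j, MemLp (G j) (ENNReal.ofReal 3) (volume.restrict K) := fun j =>
    ((hGp j).mono_measure (Measure.restrict_mono hKΩ le_rfl)).mono_exponent
      (ENNReal.ofReal_le_ofReal hp)
  have h2 : ∀ j, ∫⁻ x in K, ‖G j x‖ₑ ^ (3 : ℝ) < ∞ := by
    intro j
    have := lintegral_rpow_enorm_lt_top_of_eLpNorm_lt_top (by simp) (by simp) (h1 j).2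
    simpa using this
  rw [lintegral_finsetSum' _ (fun j _ => ((h1 j).1.enorm.pow_const _))]
  exact (ENNReal.sum_lt_top.2 fun j _ => h2 j).ne

/-- **Lusin (N)**, `p ≥ 3`. -/
theorem lusinN {Ω Λ : Set R3} (hΩ : IsOpen Ω) (hΛ : IsOpen Λ) {f : R3 → R3}
    (hf : IsHomeomorphOn f Ω Λ) {G : Fin 3 → R3 → R3}
    (hG : ∀ j, HasWeakGradOn Ω (fun x => f x j) (G j)) {p : ℝ} (hp : 3 ≤ p)
    (hGp : ∀ j, MemLp (G j) (ENNReal.ofReal p) (volume.restrict Ω))
    {N : Set R3} (hN : volume N = 0) : volume (f '' (N ∩ Ω)) = 0 :=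
  lusinN_of hΩ hΛ hf hG (fun K hK hKΩ => loc_of_memLp hΩ hp hGp hK hKΩ) hN

end Crest.Agent.R096.LusN_766
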