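import Crest.Agent.R096.Yl1_471
import Crest.Agent.R096.Dfo2_539

/-!
# Row 96, DOORS (13) of 337 #11590 (helper471): (LEV) / (B) for the state after CUT

`Reg` : the region input at one core for one barrier (family `a`): the sets `{u ≤ t}` and
`{1 - t ≤ u}` on the sphere are compact and connected and contain a vertex which never moves.
`no_pt`    : no point of the family `a` over the cells which meet `{u ≤ t}` or `{1 - t ≤ u}`.
`encl_lev` : an enclosed barrier point has a point of its `T`-tile with level in `[σ, 1 - σ]`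
(`X` explicit: closed under the barrier chords which are not crossed by the family, no frozen face).
`lev3`     : **(LEV) for `s₃`**.
-/

set_option autoImplicit false
set_option linter.unusedSectionVars false
set_option linter.style.longLine false

open Set Module
open scoped Classical

namespace Crest.Agent.R096.Lv3_471

open Crest.Agent.R096.Msh_715 Crest.Agent.R096.Agl5_543 Crest.Agent.R096.St_147
  Crest.Agent.R096.Seq_213 Crest.Agent.R096.Door_501 Crest.Agent.R096.Sla_184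
  Crest.Agent.R096.Twr_438 Crest.Agent.R096.Exa_560 Crest.Agent.R096.Ess3_95
  Crest.Agent.R096.Ess4_95 Crest.Agent.R096.Dfi_539 Crest.Agent.R096.Dfi_471
  Crest.Agent.R096.Yl_471 Crest.Agent.R096.Dfo_539
open Crest.Agent.R096.Sla_184.Sla (hf vf old tg F0 Fn Out OnS InL In)
open Crest.Agent.R096.St_147.St (Frozen)

variable {E : Type} [NormedAddCommGroup E] [NormedSpace ℝ E] [FiniteDimensional ℝ E]
variable {Om : Set E} {ι : Type} {T : Tiling Om ι} {κ : Type} {S : Sla T κ}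
  {h3 : finrank ℝ E = 3} {J C Mo : Type} {fam : J → C} [Nonempty (J ⊕ Mo)]
  {s : GSt (meshC T h3) (Sum.map fam (id : Mo → Mo))} {r : J ⊕ Mo → E} {Sf : J ⊕ Mo → Set E}
  {nb : κ → C ⊕ Mo → Prop}
  {v0 v1 : ∀ c, C ⊕ Mo → VxK T S.K c} {u : κ → C ⊕ Mo → E → ℝ} {A B : κ → C ⊕ Mo → ℝ}
  {L : ∀ c, C ⊕ Mo → Lev T (frontier (S.K c)) (J ⊕ Mo)}
  {Tw : Twrs (S.sh h3) S.n (outK S.hH S.dis s r)} {l0 : E → J ⊕ Mo}
  {c : κ} {a : C} {m : Mo} {j : ℕ} {w x y : E}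

/-- the positions of the points of the family `a` in the state with barriers: all levels in
`[σ₁, 1 - σ₁]` -/
structure Pos (s : GSt (meshC T h3) (Sum.map fam (id : Mo → Mo))) (nb : κ → C ⊕ Mo → Prop)
    (v0 v1 : ∀ c, C ⊕ Mo → VxK T S.K c) (u : κ → C ⊕ Mo → E → ℝ) (A B : κ → C ⊕ Mo → ℝ)
    (L : ∀ c, C ⊕ Mo → Lev T (frontier (S.K c)) (J ⊕ Mo)) (r : J ⊕ Mo → E) (lv : C → E → ℝ)
    (am : Mo → C) (σ₁ e : ℝ) : Prop where
  tr : ∀ w ∈ s.P, ∀ j, s.lab w = Sum.inl j → σ₁ ≤ lv (fam j) w ∧ lv (fam j) w ≤ 1 - σ₁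
  br : ∀ w ∈ s.P, ∀ m, s.lab w = Sum.inr m → σ₁ ≤ lv (am m) w ∧ lv (am m) w ≤ 1 - σ₁
  nr : ∀ c a, nb c (Sum.inl a) → ∀ x ∈ frontier (S.K c), |u c (Sum.inl a) x - lv a x| ≤ e
  win : ∀ c a, nb c (Sum.inl a) → σ₁ + e ≤ A c (Sum.inl a) ∧ B c (Sum.inl a) ≤ 1 - (σ₁ + e)
  rg : ∀ c a, nb c (Sum.inl a) → ∀ i, ∀ v : S.Vx c,
    Rgn (S.sh h3 c) (v0 c (Sum.inl a)) (v1 c (Sum.inl a)) (trc S.hH S.dis s r c (Sum.inl a))
      (exa h3 S.hH S.dis (L c (Sum.inl a))) i v → σ₁ ≤ lv a v.1 ∧ lv a v.1 ≤ 1 - σ₁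

/-- the region input at the core `c` for the barrier `m` of the family `am m`: `ua` = the level
coordinate of the family on the sphere -/
structure Reg (s : GSt (meshC T h3) (Sum.map fam (id : Mo → Mo)))
    (v0 v1 : ∀ c, C ⊕ Mo → VxK T S.K c)
    (L : ∀ c, C ⊕ Mo → Lev T (frontier (S.K c)) (J ⊕ Mo)) (r : J ⊕ Mo → E) (c : κ) (m : Mo)
    (ua lva : E → ℝ) (t e ε : ℝ) : Prop where
  nr : ∀ x ∈ frontier (S.K c), |ua x - lva x| ≤ e
  osc : ∀ q : T.Cell, q.set ⊆ frontier (S.K c) → ∀ x ∈ q.set, ∀ y ∈ q.set, |ua x - ua y| ≤ ε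
  lo : IsCompact {x | x ∈ frontier (S.K c) ∧ ua x ≤ t} ∧
    IsPreconnected {x | x ∈ frontier (S.K c) ∧ ua x ≤ t}
  hi : IsCompact {x | x ∈ frontier (S.K c) ∧ 1 - t ≤ ua x} ∧
    IsPreconnected {x | x ∈ frontier (S.K c) ∧ 1 - t ≤ ua x}
  vlo : ∃ v : S.Vx c, ua v.1 ≤ t ∧ ∀ i, ¬ Rgn (S.sh h3 c) (v0 c (Sum.inr m)) (v1 c (Sum.inr m))
    (trc S.hH S.dis s r c (Sum.inr m)) (exa h3 S.hH S.dis (L c (Sum.inr m))) i v
  vhi : ∃ v : S.Vx c, 1 - t ≤ ua v.1 ∧ ∀ i, ¬ Rgn (S.sh h3 c) (v0 c (Sum.inr m))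
    (v1 c (Sum.inr m)) (trc S.hH S.dis s r c (Sum.inr m))
    (exa h3 S.hH S.dis (L c (Sum.inr m))) i v

variable {lv : C → E → ℝ} {am : Mo → C} {σ σ₁ e ε t : ℝ}

/-- **the points of a family on a vertical face**: the edge carries a point with level in
`[σ₁, 1 - σ₁]` -/
theorem on_vf_lev (D : DIn S.hH s r Sf nb v0 v1 u A B) (lo : LevOut s nb u A B L)
    (tt : TwOut S h3 s r v0 v1 L Tw) (hp : Pos (S := S) s nb v0 v1 u A B L r lv am σ₁ e)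
    {e' : S.Ed c} (hj : j < S.n c) (hy : y ∈ (s2 S h3 Tw l0).P)
    (hF : y ∈ (S.mn h3).On (vf h3 e' j)) {i : J} (hl : (s2 S h3 Tw l0).lab y = Sum.inl i) :
    ∃ q ∈ e'.1.set, q ∈ frontier (S.K c) ∧ σ₁ ≤ lv (fam i) q ∧ lv (fam i) q ≤ 1 - σ₁ := by
  obtain ⟨a', x0, h1, h2, h4, -⟩ := on_vf hj hy hF
  -- points of the patterns
  have key : ∀ j', j' ≤ S.n c → ∀ q, q ∈ ((Tw.tw c a').pat j').P → q ∈ e'.1.opn →
      (s2 S h3 Tw l0).lab (S.hp c j' q) = Sum.inl i →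
      ∃ q ∈ e'.1.set, q ∈ frontier (S.K c) ∧ σ₁ ≤ lv (fam i) q ∧ lv (fam i) q ≤ 1 - σ₁ := by
    intro j' hj' q hq hqe hlq
    have h5 := lab_hp (l0 := l0) hj' hq
    rw [hlq] at h5
    have h6 := Tw.labj hq
    rw [← h5] at h6
    have h7 : a' = Sum.inl (fam i) := h6.symm
    subst h7
    have hqf : q ∈ frontier (S.K c) := Sla.ed_opn_fr e' hqe
    refine ⟨q, e'.1.opn_sub hqe, hqf, ?_⟩
    rcases tt.fits c _ j' q hq with ⟨g1, g2, -⟩ | ⟨g1, g2, -⟩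
    · obtain ⟨k1, -, -⟩ := trc_P g1
      have k2 : s.lab q = Sum.inl i := by
        have : (trc S.hH S.dis s r c (Sum.inl (fam i))).lab q = s.lab q := rfl
        rw [← this, ← g2, ← h5]
      exact hp.tr q k1 i k2
    · obtain ⟨k1, k2⟩ := exa_lab (L c _) g1
      have k4 := lo.win c _ _ k1
      have k5 := ((lo.mem c _ _).1 k1).2
      have k6 := hp.nr c _ k5 q hqf
      have k7 := hp.win c _ k5
      rw [← k2, lo.u c] at k4
      rw [abs_le] at k6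
      constructor <;> linarith [k4.1, k4.2, k6.1, k6.2, k7.1, k7.2]
  rcases x0 with q | q | v
  · have g1 := ((Tw.tw c a').mv j).top_mem_P'.1 h1
    have g2 : q ∈ e'.1.opn := (S.sh h3 c).top_mem_vert.1 h2
    have e1 : y = S.hp c j q := h4
    rw [e1] at hl
    exact key j hj.le q g1 g2 hl
  · have g1 := Twrs.mem_B.1 (((Tw.tw c a').mv j).bot_mem_P'.1 h1)
    have g2 : q ∈ e'.1.opn := (S.sh h3 c).bot_mem_vert.1 h2
    have e1 : y = S.hp c (j + 1) q := h4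
    rw [e1] at hl
    exact key (j + 1) hj q g1 g2 hl
  · have g1 := ((Tw.tw c a').mv j).vert_mem_P'.1 h1
    have e1 : y = S.vc c v.1 j := h4
    rw [e1] at hl
    have h5 := lab_vp (l0 := l0) hj g1
    rw [hl] at h5
    have h6 := Tw.labv g1
    rw [← h5] at h6
    have h7 : a' = Sum.inl (fam i) := h6.symm
    subst h7
    have g2 : ∃ b, (S.sh h3 c).en e' b = v := by
      rcases h2 with ⟨_, _, h⟩ | ⟨_, _, h⟩ | ⟨b', h⟩
      · cases h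
      · cases h
      · exact ⟨b', (Sum.inr.inj (Sum.inr.inj h)).symm⟩
    refine ⟨v.1, (endK_iff e' v).1 g2, v.2.2, ?_⟩
    exact hp.rg c _ (qv_nb D tt g1) _ v (tt.rgn c _ j v g1)

/-- **an enclosed barrier point**: its `T`-tile has a point with level in `[σ, 1 - σ]` -/
theorem encl_lev (D : DIn S.hH s r Sf nb v0 v1 u A B) (lo : LevOut s nb u A B L)
    (tt : TwOut S h3 s r v0 v1 L Tw) (hp : Pos (S := S) s nb v0 v1 u A B L r lv am σ₁ e)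
    (hmon : Mon Tw c (Sum.inr m) {w | w ∈ (exa h3 S.hH S.dis (L c (Sum.inr m))).P})
    {ua : E → ℝ} (hr : Reg (S := S) s v0 v1 L r c m ua (lv (am m)) t e ε)
    (ht : σ + e ≤ t) (htε : t + ε + e < σ₁)
    {Act : Set (T.RIdx S.HH ⊕ κ)} (hgi : Sum.inr c ∉ Act)
    (hy : y ∈ (s2 S h3 Tw l0).P) (hl : (s2 S h3 Tw l0).lab y = Sum.inr m) (hc : S.In c y)
    {X : Set E} (hyX : y ∈ X)
    (hXc : ∀ F x, x ∈ X → (s2 S h3 Tw l0).At F x → (s2 S h3 Tw l0).lab x = Sum.inr m →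
      NoX (s2 S h3 Tw l0) (am m) F x → (s2 S h3 Tw l0).mu F x ∈ X)
    (hXf : ∀ F x, x ∈ X → (s2 S h3 Tw l0).At F x → (s2 S h3 Tw l0).lab x = Sum.inr m →
      ¬ Frozen (S.mn h3) Act F) {p : T.RIdx S.HH} (hyp : y ∈ P (S.T3.H p)) :
    ∃ x ∈ P (T.H p.tile), σ ≤ lv (am m) x ∧ lv (am m) x ≤ 1 - σ := by
  by_contra hcon
  have hfam : Sum.map fam (id : Mo → Mo) ((s2 S h3 Tw l0).lab y) = Sum.inr m := by
    rw [hl]; rfl
  -- the main step: a region with `y` over it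
  have main : ∀ Y : Set E, IsCompact Y → IsPreconnected Y → Y ⊆ frontier (S.K c) →
      (∀ q : T.Cell, q.set ⊆ frontier (S.K c) → (q.set ∩ Y).Nonempty → ∀ x ∈ q.set,
        ¬ (σ₁ ≤ lv (am m) x ∧ lv (am m) x ≤ 1 - σ₁)) →
      (∃ v : S.Vx c, v.1 ∈ Y ∧ ∀ i, ¬ Rgn (S.sh h3 c) (v0 c (Sum.inr m)) (v1 c (Sum.inr m))
        (trc S.hH S.dis s r c (Sum.inr m)) (exa h3 S.hH S.dis (L c (Sum.inr m))) i v) →
      ((∃ j w, j ≤ S.n c ∧ w ∈ ((Tw.tw c (Sum.inr m)).pat j).P ∧ w ∈ Y ∧ y = S.hp c j w) ∨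
        ∃ j, ∃ v : S.Vx c, j < S.n c ∧ v ∈ ((Tw.tw c (Sum.inr m)).mv j).Qv ∧ v.1 ∈ Y ∧
          y = S.vc c v.1 j) → False := by
    rintro Y hY hYc hYf hclean ⟨v', hv', hR⟩ hh
    have hX : Vcl Tw l0 c (EA S c Y) (Sum.inr m) X := by
      rintro e' ⟨q, hq, heq, hqY⟩ j hj x hx hxP hxl hxF
      refine hXc _ x hx ⟨hxP, hxF⟩ hxl ?_
      rintro z ⟨hz, hzF⟩ ⟨i, hzl, hzi⟩ -
      obtain ⟨q', h1, h2, h4⟩ := on_vf_lev D lo tt hp hj hz hzF hzl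
      rw [hzi] at h4
      exact hclean q hq hqY q' (heq h1) h4
    obtain ⟨e', he', w, h1, h2, h4, h5, h6⟩ := y_lemma tt hmon hY hYc hYf (by
      intro w hw q hq hwq hqY
      obtain ⟨k1, -, k2⟩ := trc_P hw
      have k4 : s.lab w = Sum.inr m := by
        rcases hl' : s.lab w with i | m'
        · rw [hl'] at k2; cases k2
        · rw [hl'] at k2
          have : m' = m := Sum.inr.inj k2
          rw [this]
      exact hclean q hq hqY w hwq (hp.br w k1 m k4)) hv' hR hX hyX hl hh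
    let G : (S.sh h3 c).Fk := ⟨(S.sh h3 c).fc e' false, (S.sh h3 c).fc_side e' false⟩
    have hG : S.hp c (S.n c) w ∈ (S.mn h3).On (hf G (S.n c)) :=
      (Sla.on_hf le_rfl).2 ⟨w, (S.sh h3 c).on_of_onE (e := e') h1 false, rfl⟩
    refine hXf (hf G (S.n c)) _ h4 ⟨h5, hG⟩ h6 ⟨Sum.inr c, ?_, hgi⟩
    have h7 : (S.n c - 1) + 1 = S.n c := by
      have := S.npos c
      omega
    have h8 : (S.mn h3).side (hf G (S.n c)) = s(Sum.inl (tg G (S.n c - 1)), Sum.inr c) :=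
      ((S.cols h3).cl c).side_bot G h7
    rw [h8]
    exact Sym2.mem_mk_right _ _
  -- levels on the two regions
  have hlo : ∀ q : T.Cell, q.set ⊆ frontier (S.K c) →
      (q.set ∩ {x | x ∈ frontier (S.K c) ∧ ua x ≤ t}).Nonempty → ∀ x ∈ q.set,
        ¬ (σ₁ ≤ lv (am m) x ∧ lv (am m) x ≤ 1 - σ₁) := by
    rintro q hq ⟨z, hz, -, hzt⟩ x hx ⟨h1, -⟩
    have h2 := abs_le.1 (hr.osc q hq x hx z hz)
    have h4 := abs_le.1 (hr.nr x (hq hx))
    linarith [h2.1, h2.2, h4.1, h4.2]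
  have hhi : ∀ q : T.Cell, q.set ⊆ frontier (S.K c) →
      (q.set ∩ {x | x ∈ frontier (S.K c) ∧ 1 - t ≤ ua x}).Nonempty → ∀ x ∈ q.set,
        ¬ (σ₁ ≤ lv (am m) x ∧ lv (am m) x ≤ 1 - σ₁) := by
    rintro q hq ⟨z, hz, -, hzt⟩ x hx ⟨-, h1⟩
    have h2 := abs_le.1 (hr.osc q hq x hx z hz)
    have h4 := abs_le.1 (hr.nr x (hq hx))
    linarith [h2.1, h2.2, h4.1, h4.2]
  -- the base point
  have fin : ∀ q, q ∈ frontier (S.K c) → q ∈ P (T.H p.tile) →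
      ((q ∈ {x | x ∈ frontier (S.K c) ∧ ua x ≤ t}) ∨
        q ∈ {x | x ∈ frontier (S.K c) ∧ 1 - t ≤ ua x}) := by
    intro q hq hqp
    have h1 := abs_le.1 (hr.nr q hq)
    by_cases h2 : lv (am m) q < σ
    · exact Or.inl ⟨hq, by linarith [h1.1, h1.2]⟩
    · have h4 : 1 - σ < lv (am m) q := by
        by_contra h5
        exact hcon ⟨q, hqp, not_lt.1 h2, not_lt.1 h5⟩
      exact Or.inr ⟨hq, by linarith [h1.1, h1.2]⟩
  have hin := (in2 D lo tt hy hc).2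
  rw [hfam] at hin
  rcases hin with ⟨j, q, h1, h2, h4, h5, h6, -, -⟩ | ⟨j, v, h1, h2, h4, -⟩
  · obtain ⟨e', he'⟩ := pat_onE h4
    obtain ⟨g1, g2, g4, g5⟩ := at_hp e' he' h1 h2
    have hqp : q ∈ P (T.H p.tile) := (at3_O g2 (h5 ▸ g4) hc hyp).1
    rcases fin q h6 hqp with h | h
    · exact main _ hr.lo.1 hr.lo.2 (fun x hx => hx.1) hlo
        (by obtain ⟨v, k1, k2⟩ := hr.vlo; exact ⟨v, ⟨v.2.2, k1⟩, k2⟩)
        (Or.inl ⟨j, q, h2, h4, h, h5⟩)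
    · exact main _ hr.hi.1 hr.hi.2 (fun x hx => hx.1) hhi
        (by obtain ⟨v, k1, k2⟩ := hr.vhi; exact ⟨v, ⟨v.2.2, k1⟩, k2⟩)
        (Or.inl ⟨j, q, h2, h4, h, h5⟩)
  · obtain ⟨g1, g2, g4, g5⟩ := at_vc (S := S) v h1
    have hqp : v.1 ∈ P (T.H p.tile) := (at3_O g2 (h4 ▸ g4) hc hyp).1
    rcases fin v.1 g2 hqp with h | h
    · exact main _ hr.lo.1 hr.lo.2 (fun x hx => hx.1) hlo
        (by obtain ⟨v, k1, k2⟩ := hr.vlo; exact ⟨v, ⟨v.2.2, k1⟩, k2⟩)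
        (Or.inr ⟨j, v, h1, h2, h, h4⟩)
    · exact main _ hr.hi.1 hr.hi.2 (fun x hx => hx.1) hhi
        (by obtain ⟨v, k1, k2⟩ := hr.vhi; exact ⟨v, ⟨v.2.2, k1⟩, k2⟩)
        (Or.inr ⟨j, v, h1, h2, h, h4⟩)

/-- **(LEV) for `s₃`**: every point `w` of the state after CUT on a tile of `T3` outside the
giants has a point `x` of the `T`-tile with level (of the family of `w`) in `[σ, 1 - σ]` -/
theorem lev3 {Act : C → Set (T.RIdx S.HH ⊕ κ)} {s3 : GSt (S.mn h3) fam}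
    {hKK : ∀ c, CoreH S.T3 (S.KK c)}
    (D : DIn S.hH s r Sf nb v0 v1 u A B) (lo : LevOut s nb u A B L)
    (tt : TwOut S h3 s r v0 v1 L Tw)
    (hmon : ∀ c a, ∀ j, ∀ w ∈ (exa h3 S.hH S.dis (L c a)).P, w ∈ ((Tw.tw c a).pat j).P →
      w ∈ ((Tw.tw c a).pat (j + 1)).P)
    (hp : Pos (S := S) s nb v0 v1 u A B L r lv am σ₁ e)
    (hr : ∀ c m, nb c (Sum.inr m) → ∃ ua, Reg (S := S) s v0 v1 L r c m ua (lv (am m)) t e ε)
    (he : 0 ≤ e) (hε : 0 ≤ ε) (ht : σ + e ≤ t) (htε : t + ε + e < σ₁)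
    (cut : CutOut (s2 S h3 Tw l0) am Act s3) (hgi : ∀ a c, Sum.inr c ∉ Act a)
    (hw : w ∈ s3.P) {p : T.RIdx S.HH} (hwp : w ∈ P (S.T3.H p))
    (hpK : ∀ c, ¬ P (S.T3.H p) ⊆ S.KK c) :
    ∃ x ∈ P (T.H p.tile), σ ≤ lv (fam (s3.lab w)) x ∧ lv (fam (s3.lab w)) x ≤ 1 - σ := by
  rcases cases3 (hKK := hKK) cut hw hwp hpK with ⟨h1, h2⟩ | ⟨-, b, h1, m, h2, h4, h5, h6⟩
  · have key := lev2 (l0 := l0) D lo tt (fun a => ∃ a', a = Sum.inl a')
      (Sum.elim lv fun _ _ => 0) (σ := σ₁) (e := e) (w := w) (p := p) ?_ ?_ ?_ ?_ h1 ?_ hwp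
    · rw [h2] at key
      obtain ⟨x, hx, g1, g2⟩ := key
      refine ⟨x, hx, ?_, ?_⟩
      · have : σ₁ ≤ lv (fam (s3.lab w)) x := g1
        linarith
      · have : lv (fam (s3.lab w)) x ≤ 1 - σ₁ := g2
        linarith
    · rintro w' hw' ⟨a', ha'⟩
      rcases hl : s.lab w' with i | m'
      · exact hp.tr w' hw' i hl
      · rw [hl] at ha'
        cases ha'
    · rintro c a hn ⟨a', rfl⟩ x hx
      exact hp.nr c a' hn x hx
    · rintro c a hn ⟨a', rfl⟩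
      exact hp.win c a' hn
    · rintro c a hn ⟨a', rfl⟩ i v hv
      exact hp.rg c a' hn i v hv
    · rw [h2]
      exact ⟨_, rfl⟩
  · rw [← h4]
    have hO : b ∈ Om := (s2_dim h1).1
    rcases Sla.out_or (S := S) hO with ho | ⟨c, hc⟩
    · obtain ⟨g1, g2, -⟩ := out2 h1 ho
      have g4 := hp.br b g1 m (g2.symm.trans h2)
      exact ⟨b, Sla.P3_sub p h5, by linarith [g4.1], by linarith [g4.2]⟩
    · have hn : nb c (Sum.inr m) := by
        have := (in2 D lo tt h1 hc).1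
        rw [h2] at this
        exact this
      obtain ⟨ua, hr'⟩ := hr c m hn
      obtain ⟨X, k1, -, k2, k4⟩ := h6
      exact encl_lev D lo tt hp (fun j w hw1 hw2 => hmon c _ j w hw2 hw1) hr' ht htε (hgi _ c)
        h1 h2 hc k1 (fun F x hx hx' _ hx3 => k2 F x hx hx' hx3)
        (fun F x hx hx' _ => k4 F x hx hx') h5

end Crest.Agent.R096.Lv3_471
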