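import Mathlib

/-!
# Level curves of a piecewise affine function on a plane convex polygon, part 1 (helper816, row 96)

Line arrangements: cells, crossing cells, start and end edges.
-/

set_option autoImplicit false
set_option linter.unusedSectionVars false

open Set Filter Topology

namespace Crest.Agent.R096.Lvl_816

/-- affine functionals of the plane -/
structure Fn where
  a : ℝ
  b : ℝ
  c : ℝ

namespace Fn

/-- value -/
def ev (f : Fn) (x : ℝ × ℝ) : ℝ := f.a * x.1 + f.b * x.2 + f.c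

/-- linear part -/
def ln (f : Fn) (v : ℝ × ℝ) : ℝ := f.a * v.1 + f.b * v.2

/-- direction of the level lines -/
def dir (f : Fn) : ℝ × ℝ := (f.b, - f.a)

/-- cross product -/
def cr (f g : Fn) : ℝ := f.a * g.b - f.b * g.a

theorem ev_add (f : Fn) (x v : ℝ × ℝ) (s : ℝ) : f.ev (x + s • v) = f.ev x + s * f.ln v := by
  simp only [ev, ln, Prod.fst_add, Prod.snd_add, Prod.smul_fst, Prod.smul_snd, smul_eq_mul]; ring

theorem ln_dir (f g : Fn) : f.ln g.dir = f.cr g := by simp only [ln, dir, cr]; ring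

theorem ln_self (f : Fn) : f.ln f.dir = 0 := by simp only [ln, dir]; ring

theorem cr_swap (f g : Fn) : f.cr g = - g.cr f := by simp only [cr]; ring

theorem ln_neg (f : Fn) (v : ℝ × ℝ) : f.ln (-v) = - f.ln v := by
  simp only [ln, Prod.fst_neg, Prod.snd_neg]; ring

theorem ev_sub (f : Fn) (x y : ℝ × ℝ) : f.ev x - f.ev y = f.ln (x - y) := by
  simp only [ev, ln, Prod.fst_sub, Prod.snd_sub]; ring

theorem continuous_ev (f : Fn) : Continuous f.ev := by unfold ev; fun_prop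

theorem ev_line (f : Fn) (x y : ℝ × ℝ) (s : ℝ) :
    f.ev (AffineMap.lineMap x y s) = (1 - s) * f.ev x + s * f.ev y := by
  rw [AffineMap.lineMap_apply]
  simp only [ev, vsub_eq_sub, vadd_eq_add, Prod.fst_add, Prod.snd_add, Prod.smul_fst,
    Prod.smul_snd, smul_eq_mul, Prod.fst_sub, Prod.snd_sub]
  ring

theorem ev_comb (f : Fn) (x y : ℝ × ℝ) {p q : ℝ} (h : p + q = 1) :
    f.ev (p • x + q • y) = p * f.ev x + q * f.ev y := by
  have hq : q = 1 - p := by linarith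
  subst hq
  simp only [ev, Prod.fst_add, Prod.snd_add, Prod.smul_fst, Prod.smul_snd, smul_eq_mul]
  ring

theorem sq_pos {f : Fn} (h : f.dir ≠ 0) : 0 < f.a ^ 2 + f.b ^ 2 := by
  by_contra hn
  have h1 : f.a = 0 := by nlinarith [sq_nonneg f.a, sq_nonneg f.b]
  have h2 : f.b = 0 := by nlinarith [sq_nonneg f.a, sq_nonneg f.b]
  exact h (by simp [dir, h1, h2])

theorem exists_smul {f : Fn} (h : f.dir ≠ 0) {v : ℝ × ℝ} (hv : f.ln v = 0) :
    ∃ s : ℝ, v = s • f.dir := by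
  have hp := sq_pos h
  simp only [ln] at hv
  refine ⟨(f.b * v.1 - f.a * v.2) / (f.a ^ 2 + f.b ^ 2), ?_⟩
  have hne := hp.ne'
  ext
  · simp only [dir, Prod.smul_fst, smul_eq_mul]
    field_simp
    linear_combination f.a * hv
  · simp only [dir, Prod.smul_snd, smul_eq_mul]
    field_simp
    linear_combination f.b * hv

/-- two points on the same level line -/
theorem exists_level {f : Fn} (h : f.dir ≠ 0) {x y : ℝ × ℝ} (hxy : f.ev x = f.ev y) :
    ∃ s : ℝ, x = y + s • f.dir := by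
  obtain ⟨s, hs⟩ := exists_smul h (v := x - y) (by rw [← ev_sub, hxy, sub_self])
  exact ⟨s, by rw [← hs]; abel⟩

end Fn

/-- sign of a boolean -/
def sg (b : Bool) : ℝ := if b then 1 else -1

theorem sg_true : sg true = 1 := rfl
theorem sg_false : sg false = -1 := rfl
theorem sg_not (b : Bool) : sg (!b) = - sg b := by cases b <;> simp [sg]
theorem sg_ne (b : Bool) : sg b ≠ 0 := by cases b <;> simp [sg]
theorem sg_mul_self (b : Bool) : sg b * sg b = 1 := by cases b <;> simp [sg]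

/-- a line arrangement adapted to the polygon `Q` and the function `u` -/
structure Arr (m : Type) (Q : Set (ℝ × ℝ)) (u : ℝ × ℝ → ℝ) where
  l : m → Fn
  bd : m → Prop
  g : (m → Bool) → Fn
  nz : ∀ j, (l j).dir ≠ 0
  dis : ∀ j k, j ≠ k → ∀ x y, (l j).ev x = 0 → (l k).ev x = 0 → (l j).ev y = 0 →
    (l k).ev y = 0 → x = y
  hQ : ∀ x, x ∈ Q ↔ ∀ j, bd j → 0 ≤ (l j).ev x
  hg : ∀ σ, (∀ j, bd j → σ j = true) → (∃ x, ∀ j, 0 < sg (σ j) * (l j).ev x) →
    ∀ x, (∀ j, 0 ≤ sg (σ j) * (l j).ev x) → u x = (g σ).ev x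

namespace Arr

variable {m : Type} {Q : Set (ℝ × ℝ)} {u : ℝ × ℝ → ℝ} (A : Arr m Q u)

/-- open cells -/
def oc (σ : m → Bool) : Set (ℝ × ℝ) := {x | ∀ j, 0 < sg (σ j) * (A.l j).ev x}

/-- closed cells -/
def cc (σ : m → Bool) : Set (ℝ × ℝ) := {x | ∀ j, 0 ≤ sg (σ j) * (A.l j).ev x}

/-- nonempty cells of `Q` -/
def Cell (σ : m → Bool) : Prop := (∀ j, A.bd j → σ j = true) ∧ (A.oc σ).Nonempty

theorem oc_sub_cc (σ : m → Bool) : A.oc σ ⊆ A.cc σ := fun _ h j => (h j).le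

variable {A}

theorem Cell.cc_sub {σ : m → Bool} (h : A.Cell σ) : A.cc σ ⊆ Q := by
  intro x hx
  rw [A.hQ]
  intro j hj
  have := hx j
  rw [h.1 j hj, sg_true, one_mul] at this
  exact this

theorem Cell.u_eq {σ : m → Bool} (h : A.Cell σ) {x : ℝ × ℝ} (hx : x ∈ A.cc σ) :
    u x = (A.g σ).ev x := A.hg σ h.1 h.2 x hx

variable (A)

/-- the bad values -/
def Bad : Set ℝ :=
  {t | (∃ x ∈ Q, ∃ j k, j ≠ k ∧ (A.l j).ev x = 0 ∧ (A.l k).ev x = 0 ∧ u x = t) ∨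
    (∃ σ, (A.g σ).dir = 0 ∧ (A.g σ).c = t) ∨
    (∃ σ j, (A.l j).cr (A.g σ) = 0 ∧ ∃ x, (A.l j).ev x = 0 ∧ (A.g σ).ev x = t)}

theorem finite_bad [Finite m] : A.Bad.Finite := by
  have e : A.Bad ⊆ (⋃ p : m × m, {t | ∃ x, p.1 ≠ p.2 ∧ (A.l p.1).ev x = 0 ∧ (A.l p.2).ev x = 0 ∧
      u x = t}) ∪ ((⋃ σ : m → Bool, {(A.g σ).c}) ∪
      ⋃ p : (m → Bool) × m, {t | (A.l p.2).cr (A.g p.1) = 0 ∧
        ∃ x, (A.l p.2).ev x = 0 ∧ (A.g p.1).ev x = t}) := by
    rintro t (⟨x, -, j, k, hjk, h1, h2, h3⟩ | ⟨σ, -, h⟩ | ⟨σ, j, h1, h2⟩)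
    · exact Or.inl (mem_iUnion.2 ⟨(j, k), x, hjk, h1, h2, h3⟩)
    · exact Or.inr (Or.inl (mem_iUnion.2 ⟨σ, h.symm⟩))
    · exact Or.inr (Or.inr (mem_iUnion.2 ⟨(σ, j), h1, h2⟩))
  refine Set.Finite.subset ?_ e
  refine (finite_iUnion fun p => ?_).union ((finite_iUnion fun σ => finite_singleton _).union
    (finite_iUnion fun p => ?_))
  · refine Set.Subsingleton.finite ?_
    rintro t ⟨x, h0, h1, h2, h3⟩ t' ⟨x', h0', h1', h2', h3'⟩
    rw [← h3, ← h3', A.dis p.1 p.2 h0 x x' h1 h2 h1' h2']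
  · refine Set.Subsingleton.finite ?_
    rintro t ⟨h0, x, h1, h2⟩ t' ⟨h0', x', h1', h2'⟩
    obtain ⟨s, hs⟩ := Fn.exists_level (A.nz p.2) (h1.trans h1'.symm)
    rw [← h2, ← h2', hs, Fn.ev_add, Fn.ln_dir, Fn.cr_swap, h0]; ring

variable {A}

theorem reg_one {t : ℝ} (ht : t ∉ A.Bad) {x : ℝ × ℝ} (hx : x ∈ Q) (hu : u x = t) {j k : m}
    (hj : (A.l j).ev x = 0) (hk : (A.l k).ev x = 0) : j = k := by
  by_contra hjk
  exact ht (Or.inl ⟨x, hx, j, k, hjk, hj, hk, hu⟩)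

theorem reg_dir {t : ℝ} (ht : t ∉ A.Bad) {σ : m → Bool} {x : ℝ × ℝ}
    (hx : (A.g σ).ev x = t) : (A.g σ).dir ≠ 0 := by
  intro h
  refine ht (Or.inr (Or.inl ⟨σ, h, ?_⟩))
  simp only [Fn.dir, Prod.mk_eq_zero, neg_eq_zero] at h
  rw [← hx]; simp [Fn.ev, h.1, h.2]

theorem reg_cr {t : ℝ} (ht : t ∉ A.Bad) {σ : m → Bool} {x : ℝ × ℝ} {j : m}
    (hj : (A.l j).ev x = 0) (hx : (A.g σ).ev x = t) : (A.l j).cr (A.g σ) ≠ 0 :=
  fun h => ht (Or.inr (Or.inr ⟨σ, j, h, x, hj, hx⟩))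

/-- strict inequalities persist along a line -/
theorem eventually_pos [Finite m] {σ : m → Bool} {x : ℝ × ℝ} (v : ℝ × ℝ) {S : Set m}
    (h : ∀ k ∈ S, 0 < sg (σ k) * (A.l k).ev x) :
    ∀ᶠ s : ℝ in 𝓝 0, ∀ k ∈ S, 0 < sg (σ k) * (A.l k).ev (x + s • v) := by
  have : ∀ k ∈ S, ∀ᶠ s : ℝ in 𝓝 0, 0 < sg (σ k) * (A.l k).ev (x + s • v) := by
    intro k hk
    have hc : Continuous fun s : ℝ => sg (σ k) * (A.l k).ev (x + s • v) := by
      have := (A.l k).continuous_ev; fun_prop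
    have h0 : 0 < sg (σ k) * (A.l k).ev (x + (0 : ℝ) • v) := by simpa using h k hk
    exact hc.continuousAt.eventually (lt_mem_nhds h0)
  have h2 : ∀ k, ∀ᶠ s : ℝ in 𝓝 0, k ∈ S → 0 < sg (σ k) * (A.l k).ev (x + s • v) := by
    intro k
    by_cases hk : k ∈ S
    · exact (this k hk).mono fun s hs _ => hs
    · exact Eventually.of_forall fun s h => absurd h hk
  exact (eventually_all.2 h2).mono fun s hs k hk => hs k hk

theorem pos_of_ne {σ : m → Bool} {x : ℝ × ℝ} (hx : x ∈ A.cc σ) {k : m}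
    (hk : (A.l k).ev x ≠ 0) : 0 < sg (σ k) * (A.l k).ev x :=
  lt_of_le_of_ne (hx k) (Ne.symm (mul_ne_zero (sg_ne _) hk))

/-- entering the cell -/
theorem enter [Finite m] {σ : m → Bool} {x : ℝ × ℝ} {j : m} (hx : x ∈ A.cc σ)
    (hj : ∀ k, k ≠ j → (A.l k).ev x ≠ 0) {v : ℝ × ℝ} (hv : 0 < sg (σ j) * (A.l j).ln v) :
    ∀ᶠ s : ℝ in 𝓝[>] 0, x + s • v ∈ A.oc σ := by
  have h1 := eventually_pos (A := A) (σ := σ) (x := x) v (S := {k | k ≠ j})
    (fun k hk => pos_of_ne hx (hj k hk))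
  filter_upwards [nhdsWithin_le_nhds h1, self_mem_nhdsWithin] with s hs hs0 k
  by_cases hk : k = j
  · subst hk
    rw [Fn.ev_add, mul_add]
    have h2 : 0 < s := hs0
    have h3 := hx k
    have h4 : 0 < sg (σ k) * (s * (A.l k).ln v) := by nlinarith [mul_pos h2 hv]
    linarith
  · exact hs k hk

/-- crossing cells -/
def Cr (A : Arr m Q u) (σ : m → Bool) (t : ℝ) : Prop :=
  A.Cell σ ∧ ∃ x ∈ A.oc σ, (A.g σ).ev x = t

/-- crossing edges -/
def X (A : Arr m Q u) (σ : m → Bool) (j : m) (t : ℝ) : Prop :=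
  A.Cell σ ∧ ∃ x ∈ A.cc σ, (A.l j).ev x = 0 ∧ (A.g σ).ev x = t

theorem X.cr [Finite m] {σ : m → Bool} {j : m} {t : ℝ} (h : A.X σ j t) (ht : t ∉ A.Bad) :
    A.Cr σ t := by
  obtain ⟨hc, x, hx, hj, hg⟩ := h
  refine ⟨hc, ?_⟩
  have h1 := reg_cr ht hj hg
  have huniq : ∀ k, k ≠ j → (A.l k).ev x ≠ 0 := fun k hk h0 =>
    hk (reg_one ht (hc.cc_sub hx) ((hc.u_eq hx).trans hg) h0 hj)
  -- choose the sign of the direction
  obtain ⟨v, hv, hv0⟩ : ∃ v : ℝ × ℝ, 0 < sg (σ j) * (A.l j).ln v ∧ (A.g σ).ln v = 0 := by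
    rcases lt_or_gt_of_ne (mul_ne_zero (sg_ne (σ j)) h1) with h | h
    · refine ⟨- (A.g σ).dir, ?_, by rw [Fn.ln_neg, Fn.ln_self, neg_zero]⟩
      rw [Fn.ln_neg, Fn.ln_dir]; linarith
    · exact ⟨(A.g σ).dir, by rw [Fn.ln_dir]; exact h, Fn.ln_self _⟩
  obtain ⟨s, hs⟩ := (enter hx huniq hv).exists
  exact ⟨_, hs, by rw [Fn.ev_add, hv0, hg]; ring⟩

/-- leaving the cell backwards along `w` -/
theorem exit [Finite m] (hQ : Bornology.IsBounded Q) {σ : m → Bool} (hc : A.Cell σ)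
    {x : ℝ × ℝ} (hx : x ∈ A.oc σ) {w : ℝ × ℝ} (hw : w ≠ 0) :
    ∃ r : ℝ, 0 < r ∧ ∃ j, 0 < sg (σ j) * (A.l j).ln w ∧ x - r • w ∈ A.cc σ ∧
      (A.l j).ev (x - r • w) = 0 := by
  classical
  have := Fintype.ofFinite m
  let S : Finset m := Finset.univ.filter fun j => 0 < sg (σ j) * (A.l j).ln w
  have hev : ∀ (j : m) (s : ℝ), sg (σ j) * (A.l j).ev (x - s • w) =
      sg (σ j) * (A.l j).ev x - s * (sg (σ j) * (A.l j).ln w) := by
    intro j s
    have : x - s • w = x + (-s) • w := by rw [neg_smul]; abel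
    rw [this, Fn.ev_add]; ring
  have hS : S.Nonempty := by
    by_contra hS
    rw [Finset.not_nonempty_iff_eq_empty] at hS
    have h1 : ∀ s : ℝ, 0 ≤ s → x - s • w ∈ Q := by
      intro s hs
      refine hc.cc_sub fun j => ?_
      rw [hev]
      have h2 : ¬ 0 < sg (σ j) * (A.l j).ln w := fun h => by
        have : j ∈ S := Finset.mem_filter.2 ⟨Finset.mem_univ _, h⟩
        rw [hS] at this; simp at this
      have h3 := hx j
      nlinarith [mul_nonneg hs (sub_nonneg.2 (not_lt.1 h2))]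
    obtain ⟨R, hR⟩ := hQ.subset_closedBall 0
    have hwn : 0 < ‖w‖ := norm_pos_iff.2 hw
    have h4 := hR (h1 ((|R| + ‖x‖ + 1) / ‖w‖) (by positivity))
    rw [mem_closedBall_zero_iff] at h4
    have h5 : ‖((|R| + ‖x‖ + 1) / ‖w‖) • w‖ = |R| + ‖x‖ + 1 := by
      rw [norm_smul, Real.norm_of_nonneg (by positivity)]; field_simp
    have h6 := norm_sub_norm_le (((|R| + ‖x‖ + 1) / ‖w‖) • w) x
    rw [norm_sub_rev] at h6
    linarith [le_abs_self R]
  obtain ⟨j, hjS, hj⟩ := Finset.exists_min_image S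
    (fun j => (sg (σ j) * (A.l j).ev x) / (sg (σ j) * (A.l j).ln w)) hS
  have hjp : 0 < sg (σ j) * (A.l j).ln w := (Finset.mem_filter.1 hjS).2
  set r := (sg (σ j) * (A.l j).ev x) / (sg (σ j) * (A.l j).ln w) with hr
  have hr0 : 0 < r := div_pos (hx j) hjp
  refine ⟨r, hr0, j, hjp, fun k => ?_, ?_⟩
  · rw [hev]
    by_cases hk : 0 < sg (σ k) * (A.l k).ln w
    · have h1 := hj k (Finset.mem_filter.2 ⟨Finset.mem_univ _, hk⟩)
      rw [le_div_iff₀ hk] at h1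
      linarith
    · have h3 := hx k
      nlinarith [mul_nonneg hr0.le (sub_nonneg.2 (not_lt.1 hk))]
  · have h1 := hev j r
    have h2 : r * (sg (σ j) * (A.l j).ln w) = sg (σ j) * (A.l j).ev x := by
      rw [hr]; exact div_mul_cancel₀ _ hjp.ne'
    rw [h2, sub_self] at h1
    rcases mul_eq_zero.1 h1 with h | h
    · exact absurd h (sg_ne _)
    · exact h

/-- start edges -/
def Sta (A : Arr m Q u) (σ : m → Bool) (j : m) : Prop := 0 < sg (σ j) * (A.l j).cr (A.g σ)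

/-- end edges -/
def End (A : Arr m Q u) (σ : m → Bool) (j : m) : Prop := sg (σ j) * (A.l j).cr (A.g σ) < 0

theorem Cr.exists_start [Finite m] (hQ : Bornology.IsBounded Q) {σ : m → Bool} {t : ℝ}
    (h : A.Cr σ t) (ht : t ∉ A.Bad) : ∃ j, A.Sta σ j ∧ A.X σ j t := by
  obtain ⟨hc, x, hx, hg⟩ := h
  obtain ⟨r, hr, j, h1, h2, h3⟩ := exit hQ hc hx (reg_dir ht hg)
  refine ⟨j, by rw [Fn.ln_dir] at h1; exact h1, hc, _, h2, h3, ?_⟩
  have : x - r • (A.g σ).dir = x + (-r) • (A.g σ).dir := by rw [neg_smul]; abel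
  rw [this, Fn.ev_add, Fn.ln_self, hg]; ring

theorem Cr.exists_end [Finite m] (hQ : Bornology.IsBounded Q) {σ : m → Bool} {t : ℝ}
    (h : A.Cr σ t) (ht : t ∉ A.Bad) : ∃ j, A.End σ j ∧ A.X σ j t := by
  obtain ⟨hc, x, hx, hg⟩ := h
  obtain ⟨r, hr, j, h1, h2, h3⟩ := exit hQ hc hx (neg_ne_zero.2 (reg_dir ht hg))
  refine ⟨j, by rw [Fn.ln_neg, Fn.ln_dir] at h1; unfold End; linarith, hc, _, h2, h3, ?_⟩
  have : x - r • -(A.g σ).dir = x + r • (A.g σ).dir := by rw [smul_neg]; abel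
  rw [this, Fn.ev_add, Fn.ln_self, hg]; ring

theorem start_unique {σ : m → Bool} {t : ℝ} (ht : t ∉ A.Bad) {j k : m} {x y : ℝ × ℝ}
    (hj : A.Sta σ j) (hk : A.Sta σ k) (hx : x ∈ A.cc σ) (hy : y ∈ A.cc σ)
    (hxj : (A.l j).ev x = 0) (hyk : (A.l k).ev y = 0) (hgx : (A.g σ).ev x = t)
    (hgy : (A.g σ).ev y = t) : x = y := by
  obtain ⟨s, hs⟩ := Fn.exists_level (reg_dir ht hgx) (hgx.trans hgy.symm)
  rcases lt_trichotomy s 0 with h | h | h
  · -- y = x - s w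
    exfalso
    have h1 : (A.l k).ev x = s * (A.l k).cr (A.g σ) := by
      rw [hs, Fn.ev_add, hyk, Fn.ln_dir]; ring
    have h2 := hx k
    rw [h1] at h2
    have h3 : sg (σ k) * (s * (A.l k).cr (A.g σ)) = s * (sg (σ k) * (A.l k).cr (A.g σ)) := by ring
    rw [h3] at h2
    exact absurd h2 (not_le.2 (mul_neg_of_neg_of_pos h hk))
  · rw [hs, h, zero_smul, add_zero]
  · exfalso
    have h1 : 0 = (A.l j).ev y + s * (A.l j).cr (A.g σ) := by
      rw [← hxj, hs, Fn.ev_add, Fn.ln_dir]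
    have h2 := hy j
    have h3 : (A.l j).ev y = - (s * (A.l j).cr (A.g σ)) := by linarith
    rw [h3] at h2
    have h4 : sg (σ j) * -(s * (A.l j).cr (A.g σ)) = - (s * (sg (σ j) * (A.l j).cr (A.g σ))) := by
      ring
    rw [h4] at h2
    linarith [mul_pos h hj]

theorem end_unique {σ : m → Bool} {t : ℝ} (ht : t ∉ A.Bad) {j k : m} {x y : ℝ × ℝ}
    (hj : A.End σ j) (hk : A.End σ k) (hx : x ∈ A.cc σ) (hy : y ∈ A.cc σ)
    (hxj : (A.l j).ev x = 0) (hyk : (A.l k).ev y = 0) (hgx : (A.g σ).ev x = t)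
    (hgy : (A.g σ).ev y = t) : x = y := by
  unfold End at hj hk
  obtain ⟨s, hs⟩ := Fn.exists_level (reg_dir ht hgx) (hgx.trans hgy.symm)
  rcases lt_trichotomy s 0 with h | h | h
  · exfalso
    have h1 : 0 = (A.l j).ev y + s * (A.l j).cr (A.g σ) := by
      rw [← hxj, hs, Fn.ev_add, Fn.ln_dir]
    have h2 := hy j
    have h3 : (A.l j).ev y = - (s * (A.l j).cr (A.g σ)) := by linarith
    rw [h3] at h2
    have h4 : sg (σ j) * -(s * (A.l j).cr (A.g σ)) = - (s * (sg (σ j) * (A.l j).cr (A.g σ))) := by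
      ring
    rw [h4] at h2
    linarith [mul_pos_of_neg_of_neg h hj]
  · rw [hs, h, zero_smul, add_zero]
  · exfalso
    have h1 : (A.l k).ev x = s * (A.l k).cr (A.g σ) := by
      rw [hs, Fn.ev_add, hyk, Fn.ln_dir]; ring
    have h2 := hx k
    rw [h1] at h2
    have h3 : sg (σ k) * (s * (A.l k).cr (A.g σ)) = s * (sg (σ k) * (A.l k).cr (A.g σ)) := by ring
    rw [h3] at h2
    exact absurd h2 (not_le.2 (mul_neg_of_pos_of_neg h hk))

end Arr

end Crest.Agent.R096.Lvl_816
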