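import Crest.Agent.R096.Lvl1_816

/-!
# Level curves of a piecewise affine function on a plane convex polygon, part 2 (helper816, row 96)

Constancy of the combinatorics between bad values, flips, points on edges.
-/

set_option autoImplicit false
set_option linter.unusedSectionVars false

open Set Filter Topology

namespace Crest.Agent.R096.Lvl_816

namespace Arr

variable {m : Type} {Q : Set (ℝ × ℝ)} {u : ℝ × ℝ → ℝ} {A : Arr m Q u}

theorem isClosed_cc (σ : m → Bool) : IsClosed (A.cc σ) := by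
  have : A.cc σ = ⋂ j, {x | 0 ≤ sg (σ j) * (A.l j).ev x} := by ext x; simp [cc]
  rw [this]
  refine isClosed_iInter fun j => isClosed_le continuous_const ?_
  have := (A.l j).continuous_ev
  fun_prop

theorem convex_cc (σ : m → Bool) : Convex ℝ (A.cc σ) := by
  intro x hx y hy p q hp hq hpq j
  rw [Fn.ev_comb _ _ _ hpq]
  have h1 := hx j
  have h2 := hy j
  have : sg (σ j) * (p * (A.l j).ev x + q * (A.l j).ev y) =
      p * (sg (σ j) * (A.l j).ev x) + q * (sg (σ j) * (A.l j).ev y) := by ring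
  rw [this]
  positivity

theorem isOpen_oc [Finite m] (σ : m → Bool) : IsOpen (A.oc σ) := by
  have : A.oc σ = ⋂ j, {x | 0 < sg (σ j) * (A.l j).ev x} := by ext x; simp [oc]
  rw [this]
  refine isOpen_iInter_of_finite fun j => isOpen_lt continuous_const ?_
  have := (A.l j).continuous_ev
  fun_prop

theorem Cell.oc_sub [Finite m] {σ : m → Bool} (h : A.Cell σ) : A.oc σ ⊆ interior Q :=
  interior_maximal ((oc_sub_cc A σ).trans h.cc_sub) (isOpen_oc σ)

theorem others_ne {t : ℝ} (ht : t ∉ A.Bad) {σ : m → Bool} (hc : A.Cell σ) {x : ℝ × ℝ} {j : m}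
    (hx : x ∈ A.cc σ) (hj : (A.l j).ev x = 0) (hg : (A.g σ).ev x = t) :
    ∀ k, k ≠ j → (A.l k).ev x ≠ 0 :=
  fun _ hk h0 => hk (reg_one ht (hc.cc_sub hx) ((hc.u_eq hx).trans hg) h0 hj)

/-- moving along an edge -/
theorem along [Finite m] {t : ℝ} (ht : t ∉ A.Bad) {σ : m → Bool} (hc : A.Cell σ) {x : ℝ × ℝ}
    {j : m} (hx : x ∈ A.cc σ) (hj : (A.l j).ev x = 0) (hg : (A.g σ).ev x = t) :
    ∀ᶠ s : ℝ in 𝓝 0, x + s • (A.l j).dir ∈ A.cc σ := by
  have h1 := eventually_pos (A := A) (σ := σ) (x := x) (A.l j).dir (S := {k | k ≠ j})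
    (fun k hk => pos_of_ne hx (others_ne ht hc hx hj hg k hk))
  filter_upwards [h1] with s hs k
  by_cases hk : k = j
  · subst hk
    rw [Fn.ev_add, Fn.ln_self, hj]; simp
  · exact (hs k hk).le

theorem X.nhds [Finite m] {σ : m → Bool} {j : m} {t : ℝ} (h : A.X σ j t) (ht : t ∉ A.Bad) :
    ∀ᶠ t' in 𝓝 t, A.X σ j t' := by
  obtain ⟨hc, x, hx, hj, hg⟩ := h
  have h1 := along ht hc hx hj hg
  have h2 := reg_cr ht hj hg
  have h3 : (A.g σ).ln (A.l j).dir ≠ 0 := by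
    rw [Fn.ln_dir, Fn.cr_swap]; exact neg_ne_zero.2 h2
  have h4 : Tendsto (fun t' : ℝ => (t' - t) / (A.g σ).ln (A.l j).dir) (𝓝 t) (𝓝 0) := by
    have : Continuous fun t' : ℝ => (t' - t) / (A.g σ).ln (A.l j).dir := by fun_prop
    simpa using this.tendsto t
  filter_upwards [h4.eventually h1] with t' h5
  refine ⟨hc, _, h5, by rw [Fn.ev_add, Fn.ln_self, hj]; simp, ?_⟩
  rw [Fn.ev_add, hg, div_mul_cancel₀ _ h3]; ring

theorem isClosed_X (hQ : IsCompact Q) (σ : m → Bool) (j : m) : IsClosed {t | A.X σ j t} := by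
  by_cases hc : A.Cell σ
  · have : {t | A.X σ j t} = (A.g σ).ev '' (A.cc σ ∩ {x | (A.l j).ev x = 0}) := by
      ext t
      constructor
      · rintro ⟨-, x, hx, hj, hg⟩
        exact ⟨x, ⟨hx, hj⟩, hg⟩
      · rintro ⟨x, ⟨hx, hj⟩, hg⟩
        exact ⟨hc, x, hx, hj, hg⟩
    rw [this]
    have h1 : IsCompact (A.cc σ ∩ {x | (A.l j).ev x = 0}) :=
      (hQ.of_isClosed_subset (isClosed_cc σ) hc.cc_sub).inter_right
        (isClosed_eq (A.l j).continuous_ev continuous_const)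
    exact (h1.image (A.g σ).continuous_ev).isClosed
  · have : {t | A.X σ j t} = ∅ := by
      ext t; simp only [mem_ofPred_eq, mem_empty_iff_false, iff_false]; exact fun h => hc h.1
    rw [this]; exact isClosed_empty

/-- the combinatorics does not change between bad values -/
theorem X.const [Finite m] (hQ : IsCompact Q) {J : Set ℝ} (hJ : IsPreconnected J)
    (hB : Disjoint J A.Bad) {σ : m → Bool} {j : m} {t t' : ℝ} (ht : t ∈ J) (ht' : t' ∈ J)
    (h : A.X σ j t) : A.X σ j t' := by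
  have h1 : J ⊆ interior {t | A.X σ j t} ∪ {t | A.X σ j t}ᶜ := by
    intro s hs
    by_cases h2 : A.X σ j s
    · left
      rw [mem_interior_iff_mem_nhds]
      exact h2.nhds (fun hb => hB.le_bot ⟨hs, hb⟩)
    · right; exact h2
  rcases hJ.subset_or_subset isOpen_interior (isClosed_X hQ σ j).isOpen_compl
    (disjoint_left.2 fun s hs hs' => hs' (interior_subset hs)) h1 with h2 | h2
  · have h3 : t' ∈ {t | A.X σ j t} := interior_subset (h2 ht')
    exact h3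
  · exact absurd h (h2 ht)

theorem Cr.const [Finite m] (hQ : IsCompact Q) {J : Set ℝ} (hJ : IsPreconnected J)
    (hB : Disjoint J A.Bad) {σ : m → Bool} {t t' : ℝ} (ht : t ∈ J) (ht' : t' ∈ J)
    (h : A.Cr σ t) : A.Cr σ t' := by
  obtain ⟨j, -, hj⟩ := h.exists_start hQ.isBounded (fun hb => hB.le_bot ⟨ht, hb⟩)
  exact (hj.const hQ hJ hB ht ht').cr (fun hb => hB.le_bot ⟨ht', hb⟩)

/-- the point with value `t` on the line `j`, from the point `p` with value `t₀` -/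
noncomputable def pt (A : Arr m Q u) (σ : m → Bool) (j : m) (p : ℝ × ℝ) (t₀ t : ℝ) : ℝ × ℝ :=
  p + ((t - t₀) / (A.g σ).ln (A.l j).dir) • (A.l j).dir

theorem continuous_pt (σ : m → Bool) (j : m) (p : ℝ × ℝ) (t₀ : ℝ) :
    Continuous (A.pt σ j p t₀) := by
  unfold pt; fun_prop

theorem pt_eq {σ : m → Bool} {j : m} {p x : ℝ × ℝ} {t₀ t : ℝ} (hp : (A.l j).ev p = 0)
    (hpg : (A.g σ).ev p = t₀) (hx : (A.l j).ev x = 0) (hxg : (A.g σ).ev x = t)
    (hcr : (A.l j).cr (A.g σ) ≠ 0) : A.pt σ j p t₀ t = x := by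
  obtain ⟨s, hs⟩ := Fn.exists_level (A.nz j) (hx.trans hp.symm)
  have h3 : (A.g σ).ln (A.l j).dir ≠ 0 := by
    rw [Fn.ln_dir, Fn.cr_swap]; exact neg_ne_zero.2 hcr
  have h4 : t = t₀ + s * (A.g σ).ln (A.l j).dir := by rw [← hxg, hs, Fn.ev_add, hpg]
  have h5 : (t - t₀) / (A.g σ).ln (A.l j).dir = s := by
    rw [h4]; field_simp; ring
  rw [pt, h5, hs]

/-- crossing an edge -/
noncomputable def fl (σ : m → Bool) (j : m) : m → Bool := by
  classical exact Function.update σ j (!(σ j))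

theorem fl_self (σ : m → Bool) (j : m) : fl σ j j = !(σ j) := by simp [fl]

theorem fl_ne (σ : m → Bool) {j k : m} (h : k ≠ j) : fl σ j k = σ k := by simp [fl, h]

theorem fl_fl (σ : m → Bool) (j : m) : fl (fl σ j) j = σ := by
  funext k
  by_cases hk : k = j
  · subst hk; rw [fl_self, fl_self, Bool.not_not]
  · rw [fl_ne _ hk, fl_ne _ hk]

theorem eq_fl {σ τ : m → Bool} {j : m} (h : ∀ k, k ≠ j → τ k = σ k) (hne : τ ≠ σ) :
    τ = fl σ j := by
  have h1 : τ j ≠ σ j := fun h1 => hne (funext fun k => by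
    by_cases hk : k = j
    · subst hk; exact h1
    · exact h k hk)
  funext k
  by_cases hk : k = j
  · subst hk; rw [fl_self]; cases h2 : τ k <;> cases h3 : σ k <;> simp_all
  · rw [fl_ne _ hk, h k hk]

theorem mem_cc_fl {σ : m → Bool} {j : m} {x : ℝ × ℝ} (hx : x ∈ A.cc σ)
    (hj : (A.l j).ev x = 0) : x ∈ A.cc (fl σ j) := by
  intro k
  by_cases hk : k = j
  · subst hk; rw [hj, mul_zero]
  · rw [fl_ne _ hk]; exact hx k

/-- a direction entering a half plane -/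
theorem exists_enter (A : Arr m Q u) (σ : m → Bool) (j : m) :
    ∃ v : ℝ × ℝ, 0 < sg (σ j) * (A.l j).ln v := by
  refine ⟨(sg (σ j) * (A.l j).a, sg (σ j) * (A.l j).b), ?_⟩
  have h := Fn.sq_pos (A.nz j)
  have h2 : sg (σ j) * (A.l j).ln (sg (σ j) * (A.l j).a, sg (σ j) * (A.l j).b) =
      (sg (σ j) * sg (σ j)) * ((A.l j).a ^ 2 + (A.l j).b ^ 2) := by
    simp only [Fn.ln]; ring
  rw [h2, sg_mul_self, one_mul]; exact h

/-- the other cell at an edge -/
theorem flip_cell [Finite m] {t : ℝ} (ht : t ∉ A.Bad) {σ : m → Bool} (hc : A.Cell σ)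
    {x : ℝ × ℝ} {j : m} (hx : x ∈ A.cc σ) (hj : (A.l j).ev x = 0) (hg : (A.g σ).ev x = t)
    (hb : ¬ A.bd j) : A.Cell (fl σ j) := by
  refine ⟨fun k hk => ?_, ?_⟩
  · have : k ≠ j := fun h => hb (h ▸ hk)
    rw [fl_ne _ this]; exact hc.1 k hk
  · obtain ⟨v, hv⟩ := exists_enter A (fl σ j) j
    obtain ⟨s, hs⟩ := (enter (mem_cc_fl hx hj) (others_ne ht hc hx hj hg) hv).exists
    exact ⟨_, hs⟩

theorem flip_g {σ : m → Bool} (hc : A.Cell σ) {x : ℝ × ℝ} {j : m} (hx : x ∈ A.cc σ)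
    (hj : (A.l j).ev x = 0) (hc' : A.Cell (fl σ j)) : (A.g (fl σ j)).ev x = (A.g σ).ev x := by
  rw [← hc.u_eq hx, ← hc'.u_eq (mem_cc_fl hx hj)]

theorem flip_cr [Finite m] {t : ℝ} (ht : t ∉ A.Bad) {σ : m → Bool} (hc : A.Cell σ)
    {x : ℝ × ℝ} {j : m} (hx : x ∈ A.cc σ) (hj : (A.l j).ev x = 0) (hg : (A.g σ).ev x = t)
    (hc' : A.Cell (fl σ j)) : (A.l j).cr (A.g (fl σ j)) = (A.l j).cr (A.g σ) := by
  have h1 := along ht hc hx hj hg
  have h2 : ∀ᶠ s : ℝ in 𝓝[>] 0, x + s • (A.l j).dir ∈ A.cc σ := nhdsWithin_le_nhds h1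
  obtain ⟨s, hs, hs0⟩ := (h2.and self_mem_nhdsWithin).exists
  have hs0 : 0 < s := hs0
  have h3 : (A.l j).ev (x + s • (A.l j).dir) = 0 := by rw [Fn.ev_add, Fn.ln_self, hj]; simp
  have h4 := flip_g hc hx hj hc'
  have h5 := flip_g hc hs h3 hc'
  rw [Fn.ev_add, Fn.ev_add, h4, Fn.ln_dir, Fn.ln_dir] at h5
  have h6 : (A.g (fl σ j)).cr (A.l j) = (A.g σ).cr (A.l j) := by
    have := add_left_cancel h5
    exact mul_left_cancel₀ hs0.ne' this
  rw [Fn.cr_swap, h6, ← Fn.cr_swap]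

theorem flip_sta [Finite m] {t : ℝ} (ht : t ∉ A.Bad) {σ : m → Bool} (hc : A.Cell σ)
    {x : ℝ × ℝ} {j : m} (hx : x ∈ A.cc σ) (hj : (A.l j).ev x = 0) (hg : (A.g σ).ev x = t)
    (hc' : A.Cell (fl σ j)) : A.Sta (fl σ j) j ↔ A.End σ j := by
  unfold Sta End
  rw [flip_cr ht hc hx hj hg hc', fl_self, sg_not]
  constructor <;> intro h <;> linarith

theorem flip_end [Finite m] {t : ℝ} (ht : t ∉ A.Bad) {σ : m → Bool} (hc : A.Cell σ)
    {x : ℝ × ℝ} {j : m} (hx : x ∈ A.cc σ) (hj : (A.l j).ev x = 0) (hg : (A.g σ).ev x = t)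
    (hc' : A.Cell (fl σ j)) : A.End (fl σ j) j ↔ A.Sta σ j := by
  unfold Sta End
  rw [flip_cr ht hc hx hj hg hc', fl_self, sg_not]
  constructor <;> intro h <;> linarith

theorem not_sta_end {σ : m → Bool} {j : m} (h1 : A.Sta σ j) (h2 : A.End σ j) : False :=
  absurd h1 (not_lt.2 (le_of_lt h2))

/-- every point of the level set lies in a crossing cell -/
theorem cover [Finite m] {t : ℝ} (ht : t ∉ A.Bad) {x : ℝ × ℝ} (hx : x ∈ Q) (hu : u x = t) :
    ∃ σ, A.Cr σ t ∧ x ∈ A.cc σ := by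
  classical
  let σ : m → Bool := fun k => decide (0 ≤ (A.l k).ev x)
  have hσ : x ∈ A.cc σ := by
    intro k
    by_cases h : 0 ≤ (A.l k).ev x
    · have : σ k = true := decide_eq_true h
      rw [this, sg_true, one_mul]; exact h
    · have : σ k = false := decide_eq_false h
      rw [this, sg_false]; linarith [not_le.1 h]
  have hb : ∀ k, A.bd k → σ k = true := fun k hk => decide_eq_true ((A.hQ x).1 hx k hk)
  by_cases hz : ∃ j, (A.l j).ev x = 0
  · obtain ⟨j, hj⟩ := hz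
    have hne : ∀ k, k ≠ j → (A.l k).ev x ≠ 0 := fun k hk h0 => hk (reg_one ht hx hu h0 hj)
    obtain ⟨v, hv⟩ := exists_enter A σ j
    obtain ⟨s, hs⟩ := (enter hσ hne hv).exists
    have hc : A.Cell σ := ⟨hb, _, hs⟩
    exact ⟨σ, X.cr ⟨hc, x, hσ, hj, (hc.u_eq hσ).symm.trans hu⟩ ht, hσ⟩
  · push Not at hz
    have ho : x ∈ A.oc σ := fun k => pos_of_ne hσ (hz k)
    have hc : A.Cell σ := ⟨hb, x, ho⟩
    exact ⟨σ, ⟨hc, x, ho, (hc.u_eq hσ).symm.trans hu⟩, hσ⟩

end Arr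

end Crest.Agent.R096.Lvl_816
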