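import Crest.Agent.R096.Lvl2_816

/-!
# Level curves of a piecewise affine function on a plane convex polygon, part 3 (helper816, row 96)

`LSys`: the level sets `{u = t}`, `t` in an interval without bad values, as a finite system of
oriented segments; construction from a line arrangement.
-/

set_option autoImplicit false
set_option linter.unusedSectionVars false

open Set Filter Topology

namespace Crest.Agent.R096.Lvl_816

/-- a finite system of oriented segments `[a i t, b i t]` which makes up the level sets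
`{x ∈ Q | u x = t}` for `t ∈ J` -/
structure LSys (Q : Set (ℝ × ℝ)) (u : ℝ × ℝ → ℝ) (J : Set ℝ) (I : Type) where
  a : I → ℝ → ℝ × ℝ
  b : I → ℝ → ℝ × ℝ
  ca : ∀ i, Continuous (a i)
  cb : ∀ i, Continuous (b i)
  ne : ∀ i, ∀ t ∈ J, a i t ≠ b i t
  cov : ∀ t ∈ J, ∀ x, (x ∈ Q ∧ u x = t) ↔ ∃ i, x ∈ segment ℝ (a i t) (b i t)
  opn : ∀ t ∈ J, ∀ i, openSegment ℝ (a i t) (b i t) ⊆ interior Q
  simple : ∀ t ∈ J, ∀ i j, i ≠ j → ∀ x ∈ segment ℝ (a i t) (b i t),
    x ∈ segment ℝ (a j t) (b j t) → (x = b i t ∧ x = a j t) ∨ (x = a i t ∧ x = b j t)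
  db : ∀ i, (∀ t ∈ J, b i t ∈ frontier Q) ∨ ∃ j, ∀ t ∈ J, b i t ∈ interior Q ∧ b i t = a j t
  da : ∀ i, (∀ t ∈ J, a i t ∈ frontier Q) ∨ ∃ j, ∀ t ∈ J, a i t ∈ interior Q ∧ a i t = b j t
  hi : ∀ t ∈ J, ∀ i, ∀ x ∈ openSegment ℝ (a i t) (b i t), ∃ᶠ y in 𝓝 x, t < u y
  lo : ∀ t ∈ J, ∀ i, ∀ x ∈ openSegment ℝ (a i t) (b i t), ∃ᶠ y in 𝓝 x, u y < t

namespace Arr

variable {m : Type} {Q : Set (ℝ × ℝ)} {u : ℝ × ℝ → ℝ} {A : Arr m Q u}

theorem isClosed_Q (A : Arr m Q u) : IsClosed Q := by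
  have : Q = ⋂ j, ⋂ (_ : A.bd j), {x | 0 ≤ (A.l j).ev x} := by
    ext x; rw [A.hQ]; simp
  rw [this]
  exact isClosed_iInter fun j => isClosed_iInter fun _ =>
    isClosed_le continuous_const (A.l j).continuous_ev

/-- an edge of the rim -/
theorem mem_frontier {x : ℝ × ℝ} {j : m} (hx : x ∈ Q) (hj : (A.l j).ev x = 0) (hb : A.bd j) :
    x ∈ frontier Q := by
  rw [A.isClosed_Q.frontier_eq]
  refine ⟨hx, fun hi => ?_⟩
  obtain ⟨v, hv⟩ := exists_enter A (fun _ => false) j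
  rw [sg_false] at hv
  have h1 : Tendsto (fun s : ℝ => x + s • v) (𝓝[>] 0) (𝓝 x) := by
    have : Continuous fun s : ℝ => x + s • v := by fun_prop
    have h2 := this.tendsto 0
    rw [zero_smul, add_zero] at h2
    exact h2.mono_left nhdsWithin_le_nhds
  have h3 : ∀ᶠ s : ℝ in 𝓝[>] 0, x + s • v ∈ Q :=
    h1.eventually ((mem_interior_iff_mem_nhds.1 hi))
  obtain ⟨s, hs, hs0⟩ := (h3.and self_mem_nhdsWithin).exists
  have hs0 : 0 < s := hs0
  have h4 := (A.hQ _).1 hs j hb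
  rw [Fn.ev_add, hj] at h4
  nlinarith

/-- a node inside -/
theorem mem_interior [Finite m] {x : ℝ × ℝ} (hx : x ∈ Q) (hz : ∀ j, A.bd j → (A.l j).ev x ≠ 0) :
    x ∈ interior Q := by
  rw [mem_interior_iff_mem_nhds]
  have h1 : ∀ j, ∀ᶠ y in 𝓝 x, A.bd j → 0 ≤ (A.l j).ev y := by
    intro j
    by_cases hb : A.bd j
    · have h2 : 0 < (A.l j).ev x := lt_of_le_of_ne ((A.hQ x).1 hx j hb) (hz j hb).symm
      exact ((A.l j).continuous_ev.continuousAt.eventually (lt_mem_nhds h2)).mono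
        fun y hy _ => hy.le
    · exact Eventually.of_forall fun y h => absurd h hb
  exact (eventually_all.2 h1).mono fun y hy => (A.hQ y).2 hy

/-- crossing cells near the level set: data at one regular value -/
structure Dat (A : Arr m Q u) (t₀ : ℝ) (σ : m → Bool) where
  js : m
  je : m
  ps : ℝ × ℝ
  pe : ℝ × ℝ
  sta : A.Sta σ js
  en : A.End σ je
  hc : A.Cell σ
  pscc : ps ∈ A.cc σ
  pecc : pe ∈ A.cc σ
  psl : (A.l js).ev ps = 0
  pel : (A.l je).ev pe = 0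
  psg : (A.g σ).ev ps = t₀
  peg : (A.g σ).ev pe = t₀

theorem exists_dat [Finite m] (hQ : IsCompact Q) {t₀ : ℝ} (h0 : t₀ ∉ A.Bad) {σ : m → Bool}
    (h : A.Cr σ t₀) : Nonempty (Dat A t₀ σ) := by
  obtain ⟨j, hj, hc, x, hx, hxl, hxg⟩ := h.exists_start hQ.isBounded h0
  obtain ⟨k, hk, -, y, hy, hyl, hyg⟩ := h.exists_end hQ.isBounded h0
  exact ⟨⟨j, k, x, y, hj, hk, hc, hx, hy, hxl, hyl, hxg, hyg⟩⟩

namespace Dat

variable {t₀ : ℝ} {σ τ : m → Bool} (D : Dat A t₀ σ) (D' : Dat A t₀ τ)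

/-- the start point -/
noncomputable def a (t : ℝ) : ℝ × ℝ := A.pt σ D.js D.ps t₀ t

/-- the end point -/
noncomputable def b (t : ℝ) : ℝ × ℝ := A.pt σ D.je D.pe t₀ t

theorem crs : (A.l D.js).cr (A.g σ) ≠ 0 := fun h => by
  have := D.sta; unfold Sta at this; rw [h, mul_zero] at this; exact lt_irrefl _ this

theorem cre : (A.l D.je).cr (A.g σ) ≠ 0 := fun h => by
  have := D.en; unfold End at this; rw [h, mul_zero] at this; exact lt_irrefl _ this

theorem js_ne : D.js ≠ D.je := fun h => not_sta_end D.sta (h ▸ D.en)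

variable [Finite m] (hQ : IsCompact Q) {J : Set ℝ} (hJ : IsPreconnected J)
  (hB : Disjoint J A.Bad) (h0 : t₀ ∈ J) {t : ℝ} (ht : t ∈ J)

include hQ hJ hB h0 ht

theorem a_spec : D.a t ∈ A.cc σ ∧ (A.l D.js).ev (D.a t) = 0 ∧ (A.g σ).ev (D.a t) = t := by
  have h : A.X σ D.js t₀ := ⟨D.hc, D.ps, D.pscc, D.psl, D.psg⟩
  obtain ⟨-, x, hx, hxl, hxg⟩ := h.const hQ hJ hB h0 ht
  rw [show D.a t = x from pt_eq D.psl D.psg hxl hxg D.crs]
  exact ⟨hx, hxl, hxg⟩

theorem b_spec : D.b t ∈ A.cc σ ∧ (A.l D.je).ev (D.b t) = 0 ∧ (A.g σ).ev (D.b t) = t := by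
  have h : A.X σ D.je t₀ := ⟨D.hc, D.pe, D.pecc, D.pel, D.peg⟩
  obtain ⟨-, x, hx, hxl, hxg⟩ := h.const hQ hJ hB h0 ht
  rw [show D.b t = x from pt_eq D.pel D.peg hxl hxg D.cre]
  exact ⟨hx, hxl, hxg⟩

theorem reg : t ∉ A.Bad := fun hb => hB.le_bot ⟨ht, hb⟩

theorem a_ne_b : D.a t ≠ D.b t := by
  intro h
  obtain ⟨h1, h2, h3⟩ := D.a_spec hQ hJ hB h0 ht
  obtain ⟨-, h5, -⟩ := D.b_spec hQ hJ hB h0 ht
  rw [← h] at h5
  exact D.js_ne (reg_one (fun hb => hB.le_bot ⟨ht, hb⟩) (D.hc.cc_sub h1)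
    ((D.hc.u_eq h1).trans h3) h2 h5)

/-- the index which vanishes at the start point -/
theorem a_idx {k : m} (hk : (A.l k).ev (D.a t) = 0) : k = D.js := by
  obtain ⟨h1, h2, h3⟩ := D.a_spec hQ hJ hB h0 ht
  exact reg_one (fun hb => hB.le_bot ⟨ht, hb⟩) (D.hc.cc_sub h1)
    ((D.hc.u_eq h1).trans h3) hk h2

theorem b_idx {k : m} (hk : (A.l k).ev (D.b t) = 0) : k = D.je := by
  obtain ⟨h1, h2, h3⟩ := D.b_spec hQ hJ hB h0 ht
  exact reg_one (fun hb => hB.le_bot ⟨ht, hb⟩) (D.hc.cc_sub h1)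
    ((D.hc.u_eq h1).trans h3) hk h2

theorem seg_eq : segment ℝ (D.a t) (D.b t) = {x | x ∈ A.cc σ ∧ (A.g σ).ev x = t} := by
  obtain ⟨a1, a2, a3⟩ := D.a_spec hQ hJ hB h0 ht
  obtain ⟨b1, b2, b3⟩ := D.b_spec hQ hJ hB h0 ht
  have hreg : t ∉ A.Bad := fun hb => hB.le_bot ⟨ht, hb⟩
  apply Subset.antisymm
  · rintro x ⟨p, q, hp, hq, hpq, rfl⟩
    refine ⟨convex_cc σ a1 b1 hp hq hpq, ?_⟩
    rw [Fn.ev_comb _ _ _ hpq, a3, b3, ← add_mul, hpq, one_mul]
  · rintro x ⟨hx, hxg⟩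
    obtain ⟨s, hs⟩ := Fn.exists_level (reg_dir hreg hxg) (hxg.trans a3.symm)
    obtain ⟨r, hr⟩ := Fn.exists_level (reg_dir hreg hxg) (b3.trans a3.symm)
    have hs0 : 0 ≤ s := by
      have h1 := hx D.js
      rw [hs, Fn.ev_add, a2, Fn.ln_dir, zero_add] at h1
      have h2 := D.sta
      unfold Sta at h2
      have h3 : sg (σ D.js) * (s * (A.l D.js).cr (A.g σ)) =
        s * (sg (σ D.js) * (A.l D.js).cr (A.g σ)) := by ring
      rw [h3] at h1
      exact nonneg_of_mul_nonneg_left h1 h2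
    have hsr : s ≤ r := by
      have h1 := hx D.je
      have h4 : x = D.b t + (s - r) • (A.g σ).dir := by rw [hs, hr, sub_smul]; abel
      rw [h4, Fn.ev_add, b2, Fn.ln_dir, zero_add] at h1
      have h2 := D.en
      unfold End at h2
      have h3 : sg (σ D.je) * ((s - r) * (A.l D.je).cr (A.g σ)) =
        (r - s) * (- (sg (σ D.je) * (A.l D.je).cr (A.g σ))) := by ring
      rw [h3] at h1
      have := nonneg_of_mul_nonneg_left h1 (by linarith)
      linarith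
    have hr0 : 0 < r := by
      rcases (hs0.trans hsr).eq_or_lt with h | h
      · exfalso
        refine D.a_ne_b hQ hJ hB h0 ht ?_
        rw [hr, ← h, zero_smul, add_zero]
      · exact h
    refine ⟨1 - s / r, s / r, by rw [sub_nonneg, div_le_one hr0]; exact hsr,
      by positivity, by ring, ?_⟩
    rw [hs, hr, smul_add, smul_smul, ← add_assoc, ← add_smul]
    have h5 : s / r * r = s := div_mul_cancel₀ _ hr0.ne'
    rw [h5]
    congr 1
    have : 1 - s / r + s / r = 1 := by ring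
    rw [this, one_smul]

theorem open_sub : openSegment ℝ (D.a t) (D.b t) ⊆ A.oc σ := by
  obtain ⟨a1, a2, a3⟩ := D.a_spec hQ hJ hB h0 ht
  obtain ⟨b1, b2, b3⟩ := D.b_spec hQ hJ hB h0 ht
  rintro x ⟨p, q, hp, hq, hpq, rfl⟩ k
  rw [Fn.ev_comb _ _ _ hpq]
  have h1 := a1 k
  have h2 := b1 k
  have h3 : sg (σ k) * (p * (A.l k).ev (D.a t) + q * (A.l k).ev (D.b t)) =
      p * (sg (σ k) * (A.l k).ev (D.a t)) + q * (sg (σ k) * (A.l k).ev (D.b t)) := by ring
  rw [h3]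
  by_cases h4 : (A.l k).ev (D.a t) = 0
  · have h5 : (A.l k).ev (D.b t) ≠ 0 := by
      intro h6
      exact D.js_ne ((D.a_idx hQ hJ hB h0 ht h4).symm.trans (D.b_idx hQ hJ hB h0 ht h6))
    have h6 := pos_of_ne b1 h5
    have := mul_pos hq h6
    have := mul_nonneg hp.le h1
    linarith
  · have h6 := pos_of_ne a1 h4
    have := mul_pos hp h6
    have := mul_nonneg hq.le h2
    linarith

/-- a point of a segment which lies on a line is an end point -/
theorem endpt {x : ℝ × ℝ} (hx : x ∈ segment ℝ (D.a t) (D.b t)) {k : m}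
    (hk : (A.l k).ev x = 0) : (x = D.a t ∧ k = D.js) ∨ (x = D.b t ∧ k = D.je) := by
  rw [← insert_endpoints_openSegment] at hx
  rcases hx with h | h | h
  · exact Or.inl ⟨h, D.a_idx hQ hJ hB h0 ht (h ▸ hk)⟩
  · exact Or.inr ⟨h, D.b_idx hQ hJ hB h0 ht (h ▸ hk)⟩
  · have := D.open_sub hQ hJ hB h0 ht h k
    rw [hk, mul_zero] at this; exact absurd this (lt_irrefl _)

theorem simple (hne : σ ≠ τ) {x : ℝ × ℝ} (hx : x ∈ segment ℝ (D.a t) (D.b t))
    (hx' : x ∈ segment ℝ (D'.a t) (D'.b t)) :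
    (x = D.b t ∧ x = D'.a t) ∨ (x = D.a t ∧ x = D'.b t) := by
  have hreg : t ∉ A.Bad := fun hb => hB.le_bot ⟨ht, hb⟩
  have hs := D.seg_eq hQ hJ hB h0 ht
  have hs' := D'.seg_eq hQ hJ hB h0 ht
  have hxm : x ∈ A.cc σ ∧ (A.g σ).ev x = t := by rw [hs] at hx; exact hx
  have hxm' : x ∈ A.cc τ ∧ (A.g τ).ev x = t := by rw [hs'] at hx'; exact hx'
  -- some line passes through x
  obtain ⟨j, hj⟩ : ∃ j, (A.l j).ev x = 0 := by
    by_contra hn
    push Not at hn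
    refine hne (funext fun k => ?_)
    have h1 := pos_of_ne hxm.1 (hn k)
    have h2 := pos_of_ne hxm'.1 (hn k)
    cases h3 : σ k <;> cases h4 : τ k <;> rw [h3] at h1 <;> rw [h4] at h2 <;>
      simp only [sg_true, sg_false] at h1 h2 <;> first | rfl | (exfalso; linarith)
  have hoth := others_ne hreg D.hc hxm.1 hj hxm.2
  have hτ : τ = fl σ j := by
    refine eq_fl (fun k hk => ?_) hne.symm
    have h1 := pos_of_ne hxm.1 (hoth k hk)
    have h2 := pos_of_ne hxm'.1 (hoth k hk)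
    cases h3 : σ k <;> cases h4 : τ k <;> rw [h3] at h1 <;> rw [h4] at h2 <;>
      simp only [sg_true, sg_false] at h1 h2 <;> first | rfl | (exfalso; linarith)
  subst hτ
  have hc' := D'.hc
  have e1 := flip_sta hreg D.hc hxm.1 hj hxm.2 hc'
  have e2 := flip_end hreg D.hc hxm.1 hj hxm.2 hc'
  rcases D.endpt hQ hJ hB h0 ht hx hj with ⟨h1, h2⟩ | ⟨h1, h2⟩ <;>
    rcases D'.endpt hQ hJ hB h0 ht hx' hj with ⟨h3, h4⟩ | ⟨h3, h4⟩
  · exfalso
    have h5 := D'.sta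
    rw [← h4] at h5
    have h6 := D.sta
    rw [← h2] at h6
    exact not_sta_end h6 (e1.1 h5)
  · exact Or.inr ⟨h1, h3⟩
  · exact Or.inl ⟨h1, h3⟩
  · exfalso
    have h5 := D'.en
    rw [← h4] at h5
    have h6 := D.en
    rw [← h2] at h6
    exact not_sta_end (e2.1 h5) h6

theorem hi {x : ℝ × ℝ} (hx : x ∈ openSegment ℝ (D.a t) (D.b t)) :
    (∃ᶠ y in 𝓝 x, t < u y) ∧ ∃ᶠ y in 𝓝 x, u y < t := by
  have hreg : t ∉ A.Bad := fun hb => hB.le_bot ⟨ht, hb⟩
  have ho := D.open_sub hQ hJ hB h0 ht hx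
  have hxm : x ∈ A.cc σ ∧ (A.g σ).ev x = t := by
    have := openSegment_subset_segment ℝ _ _ hx
    rw [D.seg_eq hQ hJ hB h0 ht] at this; exact this
  have hd := Fn.sq_pos (reg_dir hreg hxm.2)
  let n : ℝ × ℝ := ((A.g σ).a, (A.g σ).b)
  have hn : (A.g σ).ln n = (A.g σ).a ^ 2 + (A.g σ).b ^ 2 := by simp only [Fn.ln, n]; ring
  have key : ∀ v : ℝ × ℝ, Tendsto (fun s : ℝ => x + s • v) (𝓝[>] 0) (𝓝 x) := by
    intro v
    have : Continuous fun s : ℝ => x + s • v := by fun_prop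
    have h2 := this.tendsto 0
    rw [zero_smul, add_zero] at h2
    exact h2.mono_left nhdsWithin_le_nhds
  have hin : ∀ v : ℝ × ℝ, ∀ᶠ s : ℝ in 𝓝[>] 0, x + s • v ∈ A.oc σ := fun v =>
    (key v).eventually ((isOpen_oc σ).mem_nhds ho)
  constructor
  · refine (key n).frequently (Eventually.frequently ?_)
    filter_upwards [hin n, self_mem_nhdsWithin] with s hs hs0
    have hs0 : 0 < s := hs0
    rw [D.hc.u_eq (oc_sub_cc A σ hs), Fn.ev_add, hxm.2, hn]
    nlinarith [mul_pos hs0 hd]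
  · refine (key (-n)).frequently (Eventually.frequently ?_)
    filter_upwards [hin (-n), self_mem_nhdsWithin] with s hs hs0
    have hs0 : 0 < s := hs0
    rw [D.hc.u_eq (oc_sub_cc A σ hs), Fn.ev_add, hxm.2, Fn.ln_neg, hn]
    nlinarith [mul_pos hs0 hd]

end Dat

/-- **the level sets between bad values form a system of oriented segments**, with a bound of
the number of segments which does not depend on the levels -/
theorem exists_lsys' [Finite m] (A : Arr m Q u) (hQ : IsCompact Q) {J : Set ℝ}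
    (hJ : IsPreconnected J) (hB : Disjoint J A.Bad) {t₀ : ℝ} (h0 : t₀ ∈ J) :
    ∃ (I : Type) (_ : Finite I), Nat.card I ≤ Nat.card (m → Bool) ∧ Nonempty (LSys Q u J I) := by
  classical
  have hr0 : t₀ ∉ A.Bad := fun hb => hB.le_bot ⟨h0, hb⟩
  let I := {σ : m → Bool // A.Cr σ t₀}
  let D : ∀ i : I, Dat A t₀ i.1 := fun i => (exists_dat hQ hr0 i.2).some
  refine ⟨I, inferInstance, Nat.card_le_card_of_injective (fun i : I => i.1)
    Subtype.val_injective, ⟨{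
    a := fun i => (D i).a
    b := fun i => (D i).b
    ca := fun i => continuous_pt _ _ _ _
    cb := fun i => continuous_pt _ _ _ _
    ne := fun i t ht => (D i).a_ne_b hQ hJ hB h0 ht
    cov := ?_
    opn := fun t ht i => ((D i).open_sub hQ hJ hB h0 ht).trans (D i).hc.oc_sub
    simple := fun t ht i j hij x hx hx' =>
      (D i).simple (D j) hQ hJ hB h0 ht (fun h => hij (Subtype.ext h)) hx hx'
    db := ?_
    da := ?_
    hi := fun t ht i x hx => ((D i).hi hQ hJ hB h0 ht hx).1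
    lo := fun t ht i x hx => ((D i).hi hQ hJ hB h0 ht hx).2 }⟩⟩
  · intro t ht x
    have hreg : t ∉ A.Bad := fun hb => hB.le_bot ⟨ht, hb⟩
    constructor
    · rintro ⟨hx, hu⟩
      obtain ⟨σ, hσ, hxσ⟩ := cover hreg hx hu
      have hσ0 : A.Cr σ t₀ := Cr.const hQ hJ hB ht h0 hσ
      refine ⟨⟨σ, hσ0⟩, ?_⟩
      rw [(D ⟨σ, hσ0⟩).seg_eq hQ hJ hB h0 ht]
      exact ⟨hxσ, (hσ.1.u_eq hxσ).symm.trans hu⟩
    · rintro ⟨i, hx⟩
      rw [(D i).seg_eq hQ hJ hB h0 ht] at hx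
      exact ⟨(D i).hc.cc_sub hx.1, ((D i).hc.u_eq hx.1).trans hx.2⟩
  · intro i
    by_cases hb : A.bd (D i).je
    · left
      intro t ht
      obtain ⟨h1, h2, h3⟩ := (D i).b_spec hQ hJ hB h0 ht
      exact mem_frontier ((D i).hc.cc_sub h1) h2 hb
    · right
      have hc' : A.Cell (fl i.1 (D i).je) :=
        flip_cell hr0 (D i).hc (D i).pecc (D i).pel (D i).peg hb
      have hX : A.X (fl i.1 (D i).je) (D i).je t₀ :=
        ⟨hc', _, mem_cc_fl (D i).pecc (D i).pel, (D i).pel,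
          (flip_g (D i).hc (D i).pecc (D i).pel hc').trans (D i).peg⟩
      refine ⟨⟨fl i.1 (D i).je, hX.cr hr0⟩, fun t ht => ?_⟩
      have hreg : t ∉ A.Bad := fun hb => hB.le_bot ⟨ht, hb⟩
      obtain ⟨h1, h2, h3⟩ := (D i).b_spec hQ hJ hB h0 ht
      refine ⟨mem_interior (A := A) ((D i).hc.cc_sub h1) fun j hj h4 => ?_, ?_⟩
      · rw [(D i).b_idx hQ hJ hB h0 ht h4] at hj
        exact hb hj
      · obtain ⟨h4, h5, h6⟩ := (D ⟨fl i.1 (D i).je, hX.cr hr0⟩).a_spec hQ hJ hB h0 ht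
        refine start_unique hreg (σ := fl i.1 (D i).je) (j := (D i).je)
          (k := (D ⟨fl i.1 (D i).je, hX.cr hr0⟩).js) ?_ (D ⟨fl i.1 (D i).je, hX.cr hr0⟩).sta
          (mem_cc_fl h1 h2) h4 h2 h5 ((flip_g (D i).hc h1 h2 hc').trans h3) h6
        exact (flip_sta hreg (D i).hc h1 h2 h3 hc').2 (D i).en
  · intro i
    by_cases hb : A.bd (D i).js
    · left
      intro t ht
      obtain ⟨h1, h2, h3⟩ := (D i).a_spec hQ hJ hB h0 ht
      exact mem_frontier ((D i).hc.cc_sub h1) h2 hb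
    · right
      have hc' : A.Cell (fl i.1 (D i).js) :=
        flip_cell hr0 (D i).hc (D i).pscc (D i).psl (D i).psg hb
      have hX : A.X (fl i.1 (D i).js) (D i).js t₀ :=
        ⟨hc', _, mem_cc_fl (D i).pscc (D i).psl, (D i).psl,
          (flip_g (D i).hc (D i).pscc (D i).psl hc').trans (D i).psg⟩
      refine ⟨⟨fl i.1 (D i).js, hX.cr hr0⟩, fun t ht => ?_⟩
      have hreg : t ∉ A.Bad := fun hb => hB.le_bot ⟨ht, hb⟩
      obtain ⟨h1, h2, h3⟩ := (D i).a_spec hQ hJ hB h0 ht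
      refine ⟨mem_interior (A := A) ((D i).hc.cc_sub h1) fun j hj h4 => ?_, ?_⟩
      · rw [(D i).a_idx hQ hJ hB h0 ht h4] at hj
        exact hb hj
      · obtain ⟨h4, h5, h6⟩ := (D ⟨fl i.1 (D i).js, hX.cr hr0⟩).b_spec hQ hJ hB h0 ht
        refine end_unique hreg (σ := fl i.1 (D i).js) (j := (D i).js)
          (k := (D ⟨fl i.1 (D i).js, hX.cr hr0⟩).je) ?_ (D ⟨fl i.1 (D i).js, hX.cr hr0⟩).en
          (mem_cc_fl h1 h2) h4 h2 h5 ((flip_g (D i).hc h1 h2 hc').trans h3) h6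
        exact (flip_end hreg (D i).hc h1 h2 h3 hc').2 (D i).sta

/-- **the level sets between bad values form a system of oriented segments** -/
theorem exists_lsys [Finite m] (A : Arr m Q u) (hQ : IsCompact Q) {J : Set ℝ}
    (hJ : IsPreconnected J) (hB : Disjoint J A.Bad) {t₀ : ℝ} (h0 : t₀ ∈ J) :
    ∃ (I : Type) (_ : Finite I), Nonempty (LSys Q u J I) := by
  obtain ⟨I, hI, -, h⟩ := A.exists_lsys' hQ hJ hB h0
  exact ⟨I, hI, h⟩

end Arr

end Crest.Agent.R096.Lvl_816
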