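import Crest.Agent.R096.Lvl3_816
import Crest.Agent.R096.Cb3_609
import Crest.Agent.R096.PlSch_296

/-!
# Level curves of a piecewise affine function on a plane convex polygon, part 4 (helper816, row 96)

A system of oriented segments decomposes into closed polygons and arcs which reach the rim.
-/

set_option autoImplicit false
set_option linter.unusedSectionVars false

open Set Filter Topology

namespace Crest.Agent.R096.Lvl_816

open Ce_537 Pl

/-- a finite system of oriented segments which makes up the set `K ⊆ Q` -/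
structure Seg (Q : Set (ℝ × ℝ)) (K : Set (ℝ × ℝ)) (I : Type) where
  a : I → ℝ × ℝ
  b : I → ℝ × ℝ
  ne : ∀ i, a i ≠ b i
  cov : ∀ x, x ∈ K ↔ ∃ i, x ∈ segment ℝ (a i) (b i)
  opn : ∀ i, openSegment ℝ (a i) (b i) ⊆ interior Q
  simple : ∀ i j, i ≠ j → ∀ x ∈ segment ℝ (a i) (b i),
    x ∈ segment ℝ (a j) (b j) → (x = b i ∧ x = a j) ∨ (x = a i ∧ x = b j)
  db : ∀ i, b i ∈ frontier Q ∨ ∃ j, b i ∈ interior Q ∧ b i = a j

namespace Seg

variable {Q K : Set (ℝ × ℝ)} {I : Type} (S : Seg Q K I)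

theorem a_inj {i j : I} (h : S.a i = S.a j) : i = j := by
  by_contra hij
  rcases S.simple i j hij (S.a i) (left_mem_segment ℝ _ _)
    (h ▸ left_mem_segment ℝ _ _) with h1 | h1
  · exact S.ne i h1.1
  · exact S.ne j (h.symm.trans h1.2)

theorem b_inj {i j : I} (h : S.b i = S.b j) : i = j := by
  by_contra hij
  rcases S.simple i j hij (S.b i) (right_mem_segment ℝ _ _)
    (h ▸ right_mem_segment ℝ _ _) with h1 | h1
  · exact S.ne j (h1.2.symm.trans h)
  · exact S.ne i h1.1.symm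

/-- the segment has a successor -/
def P (i : I) : Prop := ∃ j, S.b i ∈ interior Q ∧ S.b i = S.a j

/-- the segment has a predecessor -/
def R (j : I) : Prop := ∃ i, S.b i ∈ interior Q ∧ S.b i = S.a j

/-- the successor map -/
noncomputable def nx (i : {i // S.P i}) : {j // S.R j} :=
  ⟨i.2.choose, i.1, i.2.choose_spec⟩

theorem nx_spec (i : {i // S.P i}) : S.b i.1 = S.a (S.nx i).1 := i.2.choose_spec.2

theorem nx_bij : Function.Bijective S.nx := by
  constructor
  · intro i j h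
    refine Subtype.ext (S.b_inj ?_)
    rw [S.nx_spec, S.nx_spec, h]
  · rintro ⟨j, i, hij⟩
    refine ⟨⟨i, j, hij⟩, Subtype.ext (S.a_inj ?_)⟩
    rw [← S.nx_spec]; exact hij.2

variable [Finite I]

/-- a permutation which extends the successor map -/
noncomputable def pi : Equiv.Perm I := by
  classical
  exact (Equiv.ofBijective S.nx S.nx_bij).extendSubtype

theorem pi_spec {i : I} (h : S.P i) : S.b i = S.a (S.pi i) := by
  classical
  have h1 : S.pi i = (S.nx ⟨i, h⟩).1 := by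
    unfold pi
    rw [Equiv.extendSubtype_apply_of_mem _ _ h]; rfl
  rw [h1]; exact S.nx_spec ⟨i, h⟩

/-- closed orbits -/
def Cl (i : I) : Prop := ∀ n : ℕ, S.P ((S.pi ^ n) i)

variable {S}

theorem Cl.int {i : I} (h : S.Cl i) (n : ℤ) : S.P ((S.pi ^ n) i) := by
  have h1 : 0 < orderOf S.pi := orderOf_pos S.pi
  have h2 := zpow_mod_orderOf S.pi n
  have h3 : 0 ≤ n % (orderOf S.pi : ℤ) := Int.emod_nonneg _ (by exact_mod_cast h1.ne')
  obtain ⟨k, hk⟩ := Int.eq_ofNat_of_zero_le h3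
  rw [← h2, hk, zpow_natCast]
  exact h k

theorem Cl.next {i : I} (h : S.Cl i) (n : ℤ) :
    S.b ((S.pi ^ n) i) = S.a ((S.pi ^ (n + 1)) i) := by
  rw [S.pi_spec (h.int n), zpow_add_one, Equiv.Perm.mul_apply]
  congr 1
  rw [← Equiv.Perm.mul_apply, ← Equiv.Perm.mul_apply, ← zpow_add_one, ← zpow_one_add, add_comm]

variable (S)

/-- the union of the segments of an orbit -/
def cyc (i : I) : Set (ℝ × ℝ) := ⋃ n : ℤ, segment ℝ (S.a ((S.pi ^ n) i)) (S.b ((S.pi ^ n) i))

variable {S}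

theorem seg_sub_cyc (i : I) : segment ℝ (S.a i) (S.b i) ⊆ S.cyc i := by
  intro x hx
  exact mem_iUnion.2 ⟨0, by simpa using hx⟩

theorem cyc_sub (i : I) : S.cyc i ⊆ K := by
  intro x hx
  obtain ⟨n, hn⟩ := mem_iUnion.1 hx
  exact (S.cov x).2 ⟨_, hn⟩

theorem isClosed_seg (i : I) : IsClosed (segment ℝ (S.a i) (S.b i)) := by
  rw [segment_eq_image_lineMap]
  exact (isCompact_Icc.image AffineMap.lineMap_continuous).isClosed

theorem cyc_eq (i : I) : S.cyc i = ⋃ j ∈ {j | ∃ n : ℤ, (S.pi ^ n) i = j},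
    segment ℝ (S.a j) (S.b j) := by
  ext x
  simp only [cyc, mem_iUnion, mem_ofPred_eq]
  constructor
  · rintro ⟨n, h⟩
    exact ⟨_, ⟨n, rfl⟩, h⟩
  · rintro ⟨j, ⟨n, rfl⟩, h⟩
    exact ⟨n, h⟩

theorem isClosed_cyc (i : I) : IsClosed (S.cyc i) := by
  rw [cyc_eq]
  exact (Set.toFinite _).isClosed_biUnion fun j _ => isClosed_seg j

theorem Cl.isPreconnected {i : I} (h : S.Cl i) : IsPreconnected (S.cyc i) := by
  unfold cyc
  refine IsPreconnected.iUnion_of_chain (fun n => (convex_segment _ _).isPreconnected) fun n => ?_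
  refine ⟨S.b ((S.pi ^ n) i), right_mem_segment ℝ _ _, ?_⟩
  show S.b ((S.pi ^ n) i) ∈ segment ℝ (S.a ((S.pi ^ (n + 1)) i)) (S.b ((S.pi ^ (n + 1)) i))
  rw [h.next n]
  exact left_mem_segment ℝ _ _

/-- the rest of the level set -/
theorem Cl.disjoint {i : I} (h : S.Cl i) {j : I} (hj : ∀ n : ℤ, (S.pi ^ n) i ≠ j) {x : ℝ × ℝ}
    (hx : x ∈ S.cyc i) : x ∉ segment ℝ (S.a j) (S.b j) := by
  intro hxj
  obtain ⟨n, hn⟩ := mem_iUnion.1 hx
  rcases S.simple _ _ (hj n) x hn hxj with ⟨h1, h2⟩ | ⟨h1, h2⟩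
  · exact hj (n + 1) (S.a_inj ((h.next n).symm.trans (h1.symm.trans h2)))
  · refine hj (n - 1) (S.b_inj ?_)
    have := h.next (n - 1)
    rw [sub_add_cancel] at this
    exact this.trans (h1.symm.trans h2)

/-- a closed orbit is a component -/
theorem Cl.component {i : I} (h : S.Cl i) {x : ℝ × ℝ} (hx : x ∈ S.cyc i) :
    connectedComponentIn K x = S.cyc i := by
  have hxK := cyc_sub i hx
  apply Subset.antisymm
  · have h1 : IsPreconnected (connectedComponentIn K x) := isPreconnected_connectedComponentIn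
    rw [isPreconnected_iff_subset_of_disjoint_closed] at h1
    let Z := ⋃ j ∈ {j | ∀ n : ℤ, (S.pi ^ n) i ≠ j}, segment ℝ (S.a j) (S.b j)
    have hZ : IsClosed Z := (Set.toFinite _).isClosed_biUnion fun j _ => isClosed_seg j
    have hdis : ∀ y ∈ S.cyc i, y ∉ Z := by
      intro y hy hyZ
      obtain ⟨j, hj, hyj⟩ := mem_iUnion₂.1 hyZ
      exact h.disjoint hj hy hyj
    rcases h1 (S.cyc i) Z (isClosed_cyc i) hZ (by
        intro y hy
        obtain ⟨j, hj⟩ := (S.cov y).1 (connectedComponentIn_subset K x hy)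
        by_cases hjn : ∃ n : ℤ, (S.pi ^ n) i = j
        · obtain ⟨n, rfl⟩ := hjn
          exact Or.inl (mem_iUnion.2 ⟨n, hj⟩)
        · push Not at hjn
          exact Or.inr (mem_iUnion₂.2 ⟨j, hjn, hj⟩)) (by
        ext y
        simp only [mem_inter_iff, mem_empty_iff_false, iff_false, not_and]
        exact fun _ h2 h3 => hdis y h2 h3) with h2 | h2
    · exact h2
    · exact absurd (h2 (mem_connectedComponentIn hxK)) (hdis x hx)
  · exact h.isPreconnected.subset_connectedComponentIn hx (cyc_sub i)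

/-- a closed orbit is a polygon -/
theorem Cl.poly {i : I} (h : S.Cl i) :
    ∃ (n : ℕ) (v : ℤ → ℝ × ℝ), Poly n v ∧ polySet v = S.cyc i := by
  classical
  let N := MulAction.period S.pi i
  let v : ℤ → ℝ × ℝ := fun n => S.a ((S.pi ^ n) i)
  have hper : ∀ k l : ℤ, (S.pi ^ k) i = (S.pi ^ l) i ↔ (N : ℤ) ∣ k - l := by
    intro k l
    have h1 := MulAction.zpow_smul_eq_iff_period_dvd (j := k - l) (g := S.pi) (a := i)
    rw [← h1]
    constructor
    · intro h2
      show (S.pi ^ (k - l)) i = i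
      rw [sub_eq_neg_add, zpow_add, Equiv.Perm.mul_apply, h2, ← Equiv.Perm.mul_apply, ← zpow_add,
        neg_add_cancel, zpow_zero]; rfl
    · intro h2
      have h2 : (S.pi ^ (k - l)) i = i := h2
      have h3 : (S.pi ^ k) i = (S.pi ^ l) ((S.pi ^ (k - l)) i) := by
        rw [← Equiv.Perm.mul_apply, ← zpow_add]; congr 2; ring
      rw [h3, h2]
  have hedge : ∀ n, edge v n = segment ℝ (S.a ((S.pi ^ n) i)) (S.b ((S.pi ^ n) i)) := by
    intro n
    show segment ℝ (S.a ((S.pi ^ n) i)) (S.a ((S.pi ^ (n + 1)) i)) = _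
    rw [h.next n]
  have hNpos : 0 < N := MulAction.period_pos_of_orderOf_pos (orderOf_pos S.pi) i
  have hinj : ∀ k l, v k = v l → (N : ℤ) ∣ k - l := fun k l hkl => (hper k l).1 (S.a_inj hkl)
  have h1 : N ≠ 1 := by
    intro h1
    have h2 : (S.pi ^ (1 : ℤ)) i = (S.pi ^ (0 : ℤ)) i := (hper 1 0).2 (by simp [h1])
    have h3 := h.next 0
    rw [zero_add, h2] at h3
    exact S.ne _ h3.symm
  have h2 : N ≠ 2 := by
    intro h2
    have h3 : (S.pi ^ (2 : ℤ)) i = (S.pi ^ (0 : ℤ)) i := (hper 2 0).2 (by simp [h2])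
    have h4 := h.next 0
    have h5 := h.next 1
    rw [zero_add] at h4
    rw [show (1 : ℤ) + 1 = 2 by norm_num, h3] at h5
    have hne : (S.pi ^ (0 : ℤ)) i ≠ (S.pi ^ (1 : ℤ)) i := by
      intro h6
      have h7 := (hper 0 1).1 h6
      rw [h2] at h7
      norm_num at h7
    let y := midpoint ℝ (S.a ((S.pi ^ (0 : ℤ)) i)) (S.b ((S.pi ^ (0 : ℤ)) i))
    have hy : y ∈ segment ℝ (S.a ((S.pi ^ (0 : ℤ)) i)) (S.b ((S.pi ^ (0 : ℤ)) i)) :=
      midpoint_mem_segment _ _
    have hy' : y ∈ segment ℝ (S.a ((S.pi ^ (1 : ℤ)) i)) (S.b ((S.pi ^ (1 : ℤ)) i)) := by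
      rw [← h4, h5, segment_symm]; exact hy
    have hab := S.ne ((S.pi ^ (0 : ℤ)) i)
    rcases S.simple _ _ hne y hy hy' with ⟨h6, -⟩ | ⟨h6, -⟩
    · exact hab ((midpoint_eq_right_iff ℝ).1 h6)
    · exact hab ((midpoint_eq_left_iff ℝ).1 h6)
  refine ⟨N, v, ⟨by omega, fun n => ?_, hinj, fun k l hkl x hx hx' => ?_⟩, ?_⟩
  · show S.a ((S.pi ^ (n + (N : ℤ))) i) = S.a ((S.pi ^ n) i)
    rw [(hper (n + N) n).2 (by simp)]
  · rw [hedge] at hx hx'
    have hne : (S.pi ^ k) i ≠ (S.pi ^ l) i := fun h3 => hkl ((hper k l).1 h3)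
    have e1 : v (k + 1) = S.b ((S.pi ^ k) i) := (h.next k).symm
    have e2 : v (l + 1) = S.b ((S.pi ^ l) i) := (h.next l).symm
    rw [e1, e2]
    rcases S.simple _ _ hne x hx hx' with ⟨h3, h4⟩ | ⟨h3, h4⟩
    · exact ⟨Or.inr h3, Or.inl h4⟩
    · exact ⟨Or.inl h3, Or.inr h4⟩
  · unfold polySet cyc
    exact iUnion_congr hedge

/-- an orbit which is not closed reaches the rim -/
theorem reaches {i : I} (h : ¬ S.Cl i) {x : ℝ × ℝ} (hx : x ∈ segment ℝ (S.a i) (S.b i)) :
    (connectedComponentIn K x ∩ frontier Q).Nonempty := by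
  classical
  unfold Cl at h
  push Not at h
  have hN := Nat.find_spec h
  set N := Nat.find h with hNdef
  have hmin : ∀ n < N, S.P ((S.pi ^ n) i) := fun n hn => by
    by_contra h1; exact Nat.find_min h hn h1
  have hx0 : x ∈ K := (S.cov x).2 ⟨i, hx⟩
  have key : ∀ n ≤ N, segment ℝ (S.a ((S.pi ^ n) i)) (S.b ((S.pi ^ n) i)) ⊆
      connectedComponentIn K x := by
    intro n
    induction n with
    | zero =>
      intro _
      rw [pow_zero, Equiv.Perm.one_apply]
      exact (convex_segment _ _).isPreconnected.subset_connectedComponentIn hx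
        fun y hy => (S.cov y).2 ⟨i, hy⟩
    | succ n ih =>
      intro hn
      have h1 := ih (by omega)
      have h2 := S.pi_spec (hmin n (by omega))
      have h3 : (S.pi ^ (n + 1)) i = S.pi ((S.pi ^ n) i) := by
        rw [pow_succ', Equiv.Perm.mul_apply]
      have h4 : S.b ((S.pi ^ n) i) ∈ connectedComponentIn K x := h1 (right_mem_segment ℝ _ _)
      rw [connectedComponentIn_eq h4]
      refine (convex_segment _ _).isPreconnected.subset_connectedComponentIn ?_
        fun y hy => (S.cov y).2 ⟨_, hy⟩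
      rw [h3, h2]
      exact left_mem_segment ℝ _ _
  refine ⟨S.b ((S.pi ^ N) i), key N le_rfl (right_mem_segment ℝ _ _), ?_⟩
  rcases S.db ((S.pi ^ N) i) with h1 | ⟨j, h1⟩
  · exact h1
  · exact absurd ⟨j, h1⟩ hN

/-- a closed orbit lies in the interior -/
theorem Cl.sub_interior {i : I} (h : S.Cl i) : S.cyc i ⊆ interior Q := by
  intro y hy
  obtain ⟨n, hn⟩ := mem_iUnion.1 hy
  rw [← insert_endpoints_openSegment] at hn
  rcases hn with h1 | h1 | h1
  · have h2 := h.next (n - 1)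
    rw [sub_add_cancel] at h2
    rw [h1, ← h2]
    exact (h.int (n - 1)).choose_spec.1
  · rw [h1]; exact (h.int n).choose_spec.1
  · exact S.opn _ h1

end Seg

end Crest.Agent.R096.Lvl_816
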