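import Crest.Agent.R096.Lvl4_816
import Crest.Agent.R096.Srg2_465

/-!
# Level curves of a piecewise affine function on a flat face, part 5 (helper816, row 96)

From a line arrangement to 465's `Lev`.
-/

set_option autoImplicit false
set_option linter.unusedSectionVars false

open Set Filter Topology Metric

namespace Crest.Agent.R096.Lvl_816

open Ce_537 Pl Srg_465

section Hull

variable {E : Type*} [NormedAddCommGroup E] [NormedSpace ℝ E]

/-- from a point of a compact set one leaves it in every direction through the frontier -/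
theorem exists_exit {K : Set E} (hK : IsCompact K) {x v : E} (hx : x ∈ K) (hv : v ≠ 0) :
    ∃ s : ℝ, 0 ≤ s ∧ x + s • v ∈ frontier K := by
  have hc : Continuous fun s : ℝ => x + s • v := by fun_prop
  let T : Set ℝ := {s | 0 ≤ s ∧ x + s • v ∈ K}
  have hT : IsCompact T := by
    have h1 : IsClosed T := (isClosed_le continuous_const continuous_id).inter
      (hK.isClosed.preimage hc)
    obtain ⟨R, hR⟩ := hK.isBounded.subset_closedBall 0
    have hvn : 0 < ‖v‖ := norm_pos_iff.2 hv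
    refine (isCompact_Icc (a := (0 : ℝ)) (b := (R + ‖x‖) / ‖v‖)).of_isClosed_subset h1 ?_
    rintro s ⟨h2, h3⟩
    refine ⟨h2, ?_⟩
    rw [le_div_iff₀ hvn]
    have h4 := hR h3
    rw [mem_closedBall_zero_iff] at h4
    have h5 : ‖s • v‖ = s * ‖v‖ := by rw [norm_smul, Real.norm_of_nonneg h2]
    have h6 : ‖s • v‖ ≤ ‖x + s • v‖ + ‖x‖ := by
      have := norm_sub_le (x + s • v) x
      simpa using this
    linarith
  obtain ⟨s, hs, hmax⟩ := hT.exists_isMaxOn ⟨0, le_rfl, by simpa using hx⟩ continuousOn_id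
  refine ⟨s, hs.1, ?_⟩
  rw [hK.isClosed.frontier_eq]
  refine ⟨hs.2, fun hi => ?_⟩
  have h1 : ∀ᶠ r : ℝ in 𝓝 s, x + r • v ∈ K :=
    hc.continuousAt.eventually (mem_interior_iff_mem_nhds.1 hi)
  have h2 : ∀ᶠ r : ℝ in 𝓝[>] s, x + r • v ∈ K := nhdsWithin_le_nhds h1
  obtain ⟨r, hr, hrs⟩ := (h2.and self_mem_nhdsWithin).exists
  have hrs : s < r := hrs
  have h3 : r ≤ s := hmax ⟨hs.1.trans hrs.le, hr⟩
  linarith

/-- a compact set lies in every convex set which contains its frontier -/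
theorem subset_of_frontier [Nontrivial E] {K C : Set E} (hK : IsCompact K) (hC : Convex ℝ C)
    (h : frontier K ⊆ C) : K ⊆ C := by
  intro x hx
  obtain ⟨v, hv⟩ := exists_ne (0 : E)
  obtain ⟨s, hs, h1⟩ := exists_exit hK hx hv
  obtain ⟨r, hr, h2⟩ := exists_exit hK hx (neg_ne_zero.2 hv)
  rcases hs.eq_or_lt with h0 | h0
  · rw [← h0, zero_smul, add_zero] at h1; exact h h1
  · have hsr : 0 < s + r := by linarith
    have h3 := hC (h h1) (h h2) (a := r / (s + r)) (b := s / (s + r)) (by positivity)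
      (by positivity) (by rw [← add_div, add_comm r s]; exact div_self hsr.ne')
    convert h3 using 1
    rw [smul_add, smul_add, smul_smul, smul_neg, smul_neg, smul_smul]
    have e1 : (r / (s + r)) • x + (s / (s + r)) • x = x := by
      rw [← add_smul, ← add_div, add_comm r s, div_self hsr.ne', one_smul]
    have e2 : r / (s + r) * s = s / (s + r) * r := by ring
    rw [e2]
    calc x = (r / (s + r)) • x + (s / (s + r)) • x := e1.symm
      _ = _ := by abel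

end Hull

/-- a polygon inside a convex compact set bounds a disc inside it -/
theorem exists_disc {Q : Set (ℝ × ℝ)} (hQc : Convex ℝ Q) {n : ℕ} {v : ℤ → ℝ × ℝ}
    (h : Poly n v) (hs : polySet v ⊆ interior Q) :
    ∃ Fc, IsBall 2 Fc (polySet v) ∧ Fc ⊆ interior Q ∧ IsOpen (Fc \ polySet v) := by
  obtain ⟨H, hH, hS⟩ := h.stdC
  have hb := Cb_609.isBall_of_stdC Cb_609.isBall_real hH hS
  have h1 : H '' {p | N1 p ≤ 1} \ polySet v = H '' {p : ℝ × ℝ | N1 p < 1} := by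
    rw [← hS, ← image_sdiff H.injective]
    congr 1
    ext p
    simp only [Set.mem_sdiff, S1, mem_ofPred_eq]
    exact ⟨fun ⟨h1, h2⟩ => lt_of_le_of_ne h1 h2, fun h1 => ⟨h1.le, h1.ne⟩⟩
  have h2 : IsOpen (H '' {p : ℝ × ℝ | N1 p < 1}) := by
    refine H.isOpenMap _ (isOpen_lt ?_ continuous_const)
    unfold N1; fun_prop
  refine ⟨_, hb, ?_, by rw [h1]; exact h2⟩
  refine subset_of_frontier hb.isCompact hQc.interior ?_
  intro x hx
  rw [hb.isClosed.frontier_eq] at hx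
  refine hs (by_contra fun h3 => hx.2 ?_)
  refine interior_maximal (?_ : H '' {p : ℝ × ℝ | N1 p < 1} ⊆ _) h2 ?_
  · exact image_mono fun p (hp : N1 p < 1) => (show N1 p ≤ 1 from hp.le)
  · rw [← h1]; exact ⟨hx.1, h3⟩

/-- the level set at one value as a `Seg` -/
def LSys.seg {Q : Set (ℝ × ℝ)} {u : ℝ × ℝ → ℝ} {J : Set ℝ} {I : Type} (L : LSys Q u J I)
    {t : ℝ} (ht : t ∈ J) : Seg Q {x | x ∈ Q ∧ u x = t} I where
  a := fun i => L.a i t
  b := fun i => L.b i t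
  ne := fun i => L.ne i t ht
  cov := fun x => L.cov t ht x
  opn := fun i => L.opn t ht i
  simple := fun i j hij x hx hx' => L.simple t ht i j hij x hx hx'
  db := fun i => by
    rcases L.db i with h | ⟨j, h⟩
    · exact Or.inl (h t ht)
    · exact Or.inr ⟨j, h t ht⟩

variable {Q : Set (ℝ × ℝ)} {u : ℝ × ℝ → ℝ} {J : Set ℝ} {I : Type}

/-- near every point of a level set in the interior there are higher and lower points -/
theorem LSys.hilo (L : LSys Q u J I) {t : ℝ} (ht : t ∈ J) {x : ℝ × ℝ} (hx : x ∈ Q)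
    (hu : u x = t) : (∃ᶠ y in 𝓝 x, t < u y) ∧ ∃ᶠ y in 𝓝 x, u y < t := by
  obtain ⟨i, hi⟩ := (L.cov t ht x).1 ⟨hx, hu⟩
  have hcl : x ∈ closure (openSegment ℝ (L.a i t) (L.b i t)) := by
    rw [closure_openSegment]; exact hi
  constructor
  · rw [frequently_iff]
    intro W hW
    obtain ⟨V, hVW, hVo, hxV⟩ := _root_.mem_nhds_iff.1 hW
    obtain ⟨y, hyV, hy⟩ := mem_closure_iff.1 hcl V hVo hxV
    obtain ⟨z, hz1, hz2⟩ := (frequently_iff.1 (L.hi t ht i y hy)) (hVo.mem_nhds hyV)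
    exact ⟨z, hVW hz1, hz2⟩
  · rw [frequently_iff]
    intro W hW
    obtain ⟨V, hVW, hVo, hxV⟩ := _root_.mem_nhds_iff.1 hW
    obtain ⟨y, hyV, hy⟩ := mem_closure_iff.1 hcl V hVo hxV
    obtain ⟨z, hz1, hz2⟩ := (frequently_iff.1 (L.lo t ht i y hy)) (hVo.mem_nhds hyV)
    exact ⟨z, hVW hz1, hz2⟩

section Space

variable {E : Type*} [NormedAddCommGroup E] [NormedSpace ℝ E] [FiniteDimensional ℝ E]

/-- a flat face: an affine copy of a plane convex polygon -/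
structure Flat (Q : Set (ℝ × ℝ)) (F rim : Set E) where
  φ : (ℝ × ℝ) →ᵃ[ℝ] E
  ρ : E →ᵃ[ℝ] (ℝ × ℝ)
  li : ∀ x, ρ (φ x) = x
  hF : φ '' Q = F
  hr : φ '' frontier Q = rim

variable {F rim : Set E} (Φ : Flat Q F rim)

theorem Flat.cφ : Continuous Φ.φ := Φ.φ.continuous_of_finiteDimensional

theorem Flat.cρ : Continuous Φ.ρ := Φ.ρ.continuous_of_finiteDimensional

theorem Flat.inj : Function.Injective Φ.φ := fun x y h => by rw [← Φ.li x, h, Φ.li]

theorem Flat.ri {y : E} (hy : y ∈ F) : Φ.φ (Φ.ρ y) = y := by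
  rw [← Φ.hF] at hy; obtain ⟨x, -, rfl⟩ := hy; rw [Φ.li]

theorem Flat.ρ_mem {y : E} (hy : y ∈ F) : Φ.ρ y ∈ Q := by
  rw [← Φ.hF] at hy; obtain ⟨x, hx, rfl⟩ := hy; rw [Φ.li]; exact hx

theorem Flat.mem_F {x : ℝ × ℝ} (hx : x ∈ Q) : Φ.φ x ∈ F := by
  have h : Φ.φ x ∈ Φ.φ '' Q := ⟨x, hx, rfl⟩
  exact Eq.mp (congrArg (fun A : Set E => (Φ.φ x ∈ A)) Φ.hF) h

theorem Flat.mem_rim {x : ℝ × ℝ} : Φ.φ x ∈ rim ↔ x ∈ frontier Q := by
  constructor
  · intro h
    have h1 : Φ.φ x ∈ Φ.φ '' frontier Q :=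
      Eq.mpr (congrArg (fun A : Set E => (Φ.φ x ∈ A)) Φ.hr) h
    obtain ⟨z, hz, hzx⟩ := h1
    rw [← Φ.inj hzx]; exact hz
  · intro h
    have h1 : Φ.φ x ∈ Φ.φ '' frontier Q := ⟨x, h, rfl⟩
    exact Eq.mp (congrArg (fun A : Set E => (Φ.φ x ∈ A)) Φ.hr) h1

/-- the affine copy of a plane disc -/
noncomputable def Flat.equiv (A : Set (ℝ × ℝ)) : PLEquiv A (Φ.φ '' A) where
  f := Φ.φ
  g := Φ.ρ
  pf := plOn_affine _ _
  pg := plOn_affine _ _
  mf := fun x hx => ⟨x, hx, rfl⟩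
  mg := by rintro _ ⟨x, hx, rfl⟩; show Φ.ρ (Φ.φ x) ∈ A; rw [Φ.li]; exact hx
  li := fun x _ => Φ.li x
  ri := by rintro _ ⟨x, hx, rfl⟩; show Φ.φ (Φ.ρ (Φ.φ x)) = _; rw [Φ.li]

theorem Flat.homeo : IsEmbedding Φ.φ := by
  refine ⟨⟨?_⟩, Φ.inj⟩
  exact (Function.LeftInverse.isEmbedding (f := Φ.ρ) (g := Φ.φ) Φ.li Φ.cρ Φ.cφ).eq_induced

/-- components of level sets correspond -/
theorem Flat.comp {ψ : E → ℝ} (hψ : ∀ x ∈ Q, ψ (Φ.φ x) = u x) {t : ℝ} {x : ℝ × ℝ}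
    (hx : x ∈ Q) (hu : u x = t) : connectedComponentIn (Ls F ψ t) (Φ.φ x) =
      Φ.φ '' connectedComponentIn {x | x ∈ Q ∧ u x = t} x := by
  have hL : Ls F ψ t = Φ.φ '' {x | x ∈ Q ∧ u x = t} := by
    ext y
    constructor
    · rintro ⟨hy, hyt⟩
      rw [← Φ.hF] at hy
      obtain ⟨z, hz, rfl⟩ := hy
      exact ⟨z, ⟨hz, (hψ z hz).symm.trans hyt⟩, rfl⟩
    · rintro ⟨z, ⟨hz, hzt⟩, rfl⟩
      exact ⟨Φ.mem_F hz, (hψ z hz).trans hzt⟩
  have hx' : x ∈ {x | x ∈ Q ∧ u x = t} := ⟨hx, hu⟩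
  have hφx : Φ.φ x ∈ Ls F ψ t := by rw [hL]; exact ⟨x, hx', rfl⟩
  apply Subset.antisymm
  · have h1 : Φ.ρ '' connectedComponentIn (Ls F ψ t) (Φ.φ x) ⊆
        connectedComponentIn {x | x ∈ Q ∧ u x = t} x := by
      refine (isPreconnected_connectedComponentIn.image _ Φ.cρ.continuousOn).subset_connectedComponentIn
        ⟨_, mem_connectedComponentIn hφx, Φ.li x⟩ ?_
      rintro _ ⟨y, hy, rfl⟩
      have := connectedComponentIn_subset _ _ hy
      rw [hL] at this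
      obtain ⟨z, hz, rfl⟩ := this
      rw [Φ.li]; exact hz
    intro y hy
    have h2 : y ∈ F := (connectedComponentIn_subset _ _ hy).1
    exact ⟨Φ.ρ y, h1 ⟨y, hy, rfl⟩, Φ.ri h2⟩
  · refine (isPreconnected_connectedComponentIn.image _ Φ.cφ.continuousOn).subset_connectedComponentIn
      ⟨x, mem_connectedComponentIn hx', rfl⟩ ?_
    rw [hL]
    exact image_mono (connectedComponentIn_subset _ _)

/-- the components of a level set -/
theorem LSys.circ_sub (L : LSys Q u J I) {ψ : E → ℝ} (hψ : ∀ x ∈ Q, ψ (Φ.φ x) = u x) {t : ℝ}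
    (ht : t ∈ J) : {Γ | Circ F rim ψ t Γ} ⊆
      range fun i : I => connectedComponentIn (Ls F ψ t) (Φ.φ (L.a i t)) := by
  rintro Γ ⟨⟨x, hx, hxt, rfl⟩, -⟩
  have hxQ := Φ.ρ_mem hx
  have hux : u (Φ.ρ x) = t := by rw [← hψ _ hxQ, Φ.ri hx, hxt]
  obtain ⟨i, hi⟩ := (L.cov t ht _).1 ⟨hxQ, hux⟩
  have ha := (L.cov t ht (L.a i t)).2 ⟨i, left_mem_segment ℝ _ _⟩
  refine ⟨i, ?_⟩
  show connectedComponentIn (Ls F ψ t) (Φ.φ (L.a i t)) = _
  have e1 := Φ.comp hψ ha.1 ha.2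
  have e2 := Φ.comp hψ hxQ hux
  rw [Φ.ri hx] at e2
  rw [e1, e2]
  congr 1
  refine connectedComponentIn_eq ?_
  exact (convex_segment _ _).isPreconnected.subset_connectedComponentIn
    (left_mem_segment ℝ _ _) (fun y hy => (L.cov t ht y).2 ⟨i, hy⟩) hi

/-- the number of circles of a level is at most the number of segments -/
theorem LSys.ncard_circ [Finite I] (L : LSys Q u J I) {ψ : E → ℝ}
    (hψ : ∀ x ∈ Q, ψ (Φ.φ x) = u x) {t : ℝ} (ht : t ∈ J) :
    {Γ | Circ F rim ψ t Γ}.ncard ≤ Nat.card I := by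
  refine (ncard_le_ncard (L.circ_sub Φ hψ ht) (finite_range _)).trans ?_
  rw [← image_univ, ← ncard_univ]
  exact ncard_image_le finite_univ

/-- **465's `Lev` from a system of segments** -/
theorem LSys.lev [Finite I] (L : LSys Q u J I) (hQ : IsCompact Q) (hQc : Convex ℝ Q)
    (hu : ContinuousOn u Q) {ψ : E → ℝ} (hψ : ∀ x ∈ Q, ψ (Φ.φ x) = u x) :
    Lev F rim ψ J where
  cont := by
    have h1 : ContinuousOn (fun y => u (Φ.ρ y)) F :=
      hu.comp Φ.cρ.continuousOn fun y hy => Φ.ρ_mem hy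
    refine h1.congr fun y hy => ?_
    show ψ y = u (Φ.ρ y)
    rw [← hψ _ (Φ.ρ_mem hy), Φ.ri hy]
  fin := by
    intro t ht
    let S := L.seg ht
    refine (Set.finite_range fun i : I => connectedComponentIn (Ls F ψ t) (Φ.φ (L.a i t))).subset ?_
    rintro Γ ⟨⟨x, hx, hxt, rfl⟩, -⟩
    have hxQ := Φ.ρ_mem hx
    have hux : u (Φ.ρ x) = t := by rw [← hψ _ hxQ, Φ.ri hx, hxt]
    obtain ⟨i, hi⟩ := (L.cov t ht _).1 ⟨hxQ, hux⟩
    have ha := (L.cov t ht (L.a i t)).2 ⟨i, left_mem_segment ℝ _ _⟩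
    refine ⟨i, ?_⟩
    show connectedComponentIn (Ls F ψ t) (Φ.φ (L.a i t)) = _
    have e1 := Φ.comp hψ ha.1 ha.2
    have e2 := Φ.comp hψ hxQ hux
    rw [Φ.ri hx] at e2
    rw [e1, e2]
    congr 1
    refine connectedComponentIn_eq ?_
    exact (convex_segment _ _).isPreconnected.subset_connectedComponentIn
      (left_mem_segment ℝ _ _) (fun y hy => (L.cov t ht y).2 ⟨i, hy⟩) hi
  comp := by
    intro t ht x hx hxt
    have hxQ := Φ.ρ_mem hx
    have hux : u (Φ.ρ x) = t := by rw [← hψ _ hxQ, Φ.ri hx, hxt]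
    obtain ⟨i, hi⟩ := (L.cov t ht _).1 ⟨hxQ, hux⟩
    have e2 := Φ.comp hψ hxQ hux
    rw [Φ.ri hx] at e2
    let S := L.seg ht
    by_cases hcl : S.Cl i
    · right
      have hxc : Φ.ρ x ∈ S.cyc i := Seg.seg_sub_cyc (S := S) i hi
      have hcomp := hcl.component hxc
      obtain ⟨n, v, hv, hvs⟩ := hcl.poly
      have hin : S.cyc i ⊆ interior Q := hcl.sub_interior
      obtain ⟨Fc, h1, h2, h3⟩ := exists_disc hQc hv (hvs ▸ hin)
      refine ⟨⟨x, hx, hxt, rfl⟩, Φ.φ '' Fc, ?_, ?_, Φ.ρ ⁻¹' (Fc \ polySet v),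
        h3.preimage Φ.cρ, ?_⟩
      · rw [e2]
        have h4 := h1.map (Φ.equiv Fc)
        have h5 : (Φ.equiv Fc).f '' polySet v = Φ.φ '' connectedComponentIn
            {x | x ∈ Q ∧ u x = t} (Φ.ρ x) := by
          rw [hcomp, hvs]; rfl
        rw [h5] at h4
        exact h4
      · rintro _ ⟨y, hy, rfl⟩
        exact ⟨Φ.mem_F (interior_subset (h2 hy)), fun hr => (Φ.mem_rim.1 hr).2 (h2 hy)⟩
      · ext y
        constructor
        · rintro ⟨hy1, hy2⟩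
          refine ⟨⟨Φ.ρ y, hy1.1, Φ.ri hy2⟩, fun hy3 => hy1.2 ?_⟩
          rw [e2, hcomp, ← hvs] at hy3
          obtain ⟨z, hz, rfl⟩ := hy3
          rw [Φ.li]; exact hz
        · rintro ⟨⟨z, hz, rfl⟩, hy⟩
          refine ⟨?_, Φ.mem_F (interior_subset (h2 hz))⟩
          show Φ.ρ (Φ.φ z) ∈ Fc \ polySet v
          rw [Φ.li]
          refine ⟨hz, fun h4 => hy ?_⟩
          rw [e2, hcomp, ← hvs]
          exact ⟨z, h4, rfl⟩
    · left
      obtain ⟨y, hy1, hy2⟩ := Seg.reaches hcl hi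
      refine ⟨Φ.φ y, ?_, ?_⟩
      · rw [e2]; exact ⟨y, hy1, rfl⟩
      · exact Φ.mem_rim.2 hy2
  extr := by
    intro x hx hr hxJ
    have hxQ := Φ.ρ_mem hx
    have hux : u (Φ.ρ x) = ψ x := by rw [← hψ _ hxQ, Φ.ri hx]
    have hint : Φ.ρ x ∈ interior Q := by
      by_contra hn
      refine hr ?_
      rw [← Φ.ri hx, Φ.mem_rim, hQ.isClosed.frontier_eq]
      exact ⟨hxQ, hn⟩
    obtain ⟨h1, h2⟩ := L.hilo hxJ hxQ hux
    have hback : Tendsto Φ.φ (𝓝[Q] (Φ.ρ x)) (𝓝[F] x) := by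
      have h3 : Tendsto Φ.φ (𝓝 (Φ.ρ x)) (𝓝 x) := by
        have := Φ.cφ.tendsto (Φ.ρ x); rwa [Φ.ri hx] at this
      refine tendsto_nhdsWithin_iff.2 ⟨h3.mono_left nhdsWithin_le_nhds, ?_⟩
      filter_upwards [self_mem_nhdsWithin] with y hy
      exact Φ.mem_F hy
    have hnear : ∀ᶠ y in 𝓝 (Φ.ρ x), y ∈ Q := mem_interior_iff_mem_nhds.1 hint
    have hn2 : 𝓝[Q] (Φ.ρ x) = 𝓝 (Φ.ρ x) := nhdsWithin_eq_nhds.2 hnear
    rw [hn2] at hback
    constructor
    · intro hm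
      have h4 : ∀ᶠ y in 𝓝 (Φ.ρ x), ψ x ≤ ψ (Φ.φ y) := hback.eventually hm
      obtain ⟨y, hy1, hy2, hy3⟩ := (h2.and_eventually (h4.and hnear)).exists
      rw [hψ y hy3] at hy2
      linarith
    · intro hm
      have h4 : ∀ᶠ y in 𝓝 (Φ.ρ x), ψ (Φ.φ y) ≤ ψ x := hback.eventually hm
      obtain ⟨y, hy1, hy2, hy3⟩ := (h1.and_eventually (h4.and hnear)).exists
      rw [hψ y hy3] at hy2
      linarith

end Space

end Crest.Agent.R096.Lvl_816
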