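import Crest.Agent.R096.Lvl3_816

/-!
# Level curves of a piecewise affine function on a plane convex polygon, part 6 (helper816, row 96)

Existence of the line arrangement.
-/

set_option autoImplicit false
set_option linter.unusedSectionVars false

open Set Filter Topology

namespace Crest.Agent.R096.Lvl_816

namespace Fn

/-- zero set -/
def Z (f : Fn) : Set (ℝ × ℝ) := {x | f.ev x = 0}

/-- difference -/
def sub (f g : Fn) : Fn := ⟨f.a - g.a, f.b - g.b, f.c - g.c⟩

theorem ev_sub' (f g : Fn) (x : ℝ × ℝ) : (f.sub g).ev x = f.ev x - g.ev x := by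
  simp only [ev, sub]; ring

theorem eq_of_sub {f g : Fn} (h : (f.sub g).dir = 0) {x : ℝ × ℝ} (hx : f.ev x = g.ev x) :
    f = g := by
  simp only [dir, sub, Prod.mk_eq_zero, neg_eq_zero, sub_eq_zero] at h
  obtain ⟨h1, h2⟩ := h
  have h3 : f.c = g.c := by
    simp only [ev, h1, h2] at hx; linarith
  cases f; cases g; simp_all

theorem const_of_dir {f : Fn} (h : f.dir = 0) (x y : ℝ × ℝ) : f.ev x = f.ev y := by
  simp only [dir, Prod.mk_eq_zero, neg_eq_zero] at h
  simp [ev, h.1, h.2]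

theorem Z_sub {f g : Fn} (hf : f.dir ≠ 0) {x y : ℝ × ℝ} (hxy : x ≠ y)
    (h1 : f.ev x = 0) (h2 : g.ev x = 0) (h3 : f.ev y = 0) (h4 : g.ev y = 0) : Z f ⊆ Z g := by
  intro z hz
  obtain ⟨r, hr⟩ := exists_level hf (h3.trans h1.symm)
  obtain ⟨s, hs⟩ := exists_level hf ((show f.ev z = 0 from hz).trans h1.symm)
  have hr0 : r ≠ 0 := by
    rintro rfl; rw [zero_smul, add_zero] at hr; exact hxy hr.symm
  have h5 : g.ln f.dir = 0 := by
    have h6 : g.ev y = 0 := h4
    rw [hr, ev_add, h2, zero_add] at h6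
    rcases mul_eq_zero.1 h6 with h | h
    · exact absurd h hr0
    · exact h
  show g.ev z = 0
  rw [hs, ev_add, h2, h5]; ring

theorem Z_eq {f g : Fn} (hf : f.dir ≠ 0) (hg : g.dir ≠ 0) {x y : ℝ × ℝ} (hxy : x ≠ y)
    (h1 : f.ev x = 0) (h2 : g.ev x = 0) (h3 : f.ev y = 0) (h4 : g.ev y = 0) : Z f = Z g :=
  (Z_sub hf hxy h1 h2 h3 h4).antisymm (Z_sub hg hxy h2 h1 h4 h3)

end Fn

section Build

variable {Q : Set (ℝ × ℝ)} {u : ℝ × ℝ → ℝ}

/-- **existence of a line arrangement** adapted to a convex polygon and a piecewise affine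
function. -/
theorem exists_arr {𝓑 S : Set Fn} (hB : 𝓑.Finite) (hS : S.Finite)
    (hQ : ∀ x, x ∈ Q ↔ ∀ f ∈ 𝓑, 0 ≤ f.ev x) {p₀ : ℝ × ℝ} (hp : ∀ f ∈ 𝓑, 0 < f.ev p₀)
    (hu : ContinuousOn u Q) (hs : ∀ x ∈ Q, ∃ g ∈ S, u x = g.ev x) :
    ∃ (m : Type) (_ : Finite m), Nonempty (Arr m Q u) := by
  classical
  let 𝓛 : Set Fn := {f | f.dir ≠ 0 ∧ (f ∈ 𝓑 ∨ ∃ g ∈ S, ∃ g' ∈ S, f = g.sub g')}
  have hL : 𝓛.Finite := by
    refine (hB.union (hS.image2 Fn.sub hS)).subset ?_
    rintro f ⟨-, h | ⟨g, hg, g', hg', h⟩⟩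
    · exact Or.inl h
    · exact Or.inr ⟨g, hg, g', hg', h.symm⟩
  let m : Type := {L : Set (ℝ × ℝ) // L ∈ Fn.Z '' 𝓛}
  have hm : Finite m := (hL.image _).to_subtype
  let bd : m → Prop := fun j => ∃ f ∈ 𝓑, f.dir ≠ 0 ∧ f.Z = j.1
  have hex : ∀ j : m, ∃ f ∈ 𝓛, f.Z = j.1 ∧ (bd j → f ∈ 𝓑) := by
    intro j
    by_cases hb : bd j
    · obtain ⟨f, hf, hd, hz⟩ := hb
      exact ⟨f, ⟨hd, Or.inl hf⟩, hz, fun _ => hf⟩
    · obtain ⟨f, hf, hz⟩ := j.2
      exact ⟨f, hf, hz, fun h => absurd h hb⟩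
  choose l hlL hlZ hlB using hex
  have hnz : ∀ j, (l j).dir ≠ 0 := fun j => (hlL j).1
  have hQ' : ∀ x, x ∈ Q ↔ ∀ j, bd j → 0 ≤ (l j).ev x := by
    intro x
    rw [hQ]
    constructor
    · intro h j hj; exact h _ (hlB j hj)
    · intro h f hf
      by_cases hd : f.dir = 0
      · rw [Fn.const_of_dir hd x p₀]; exact (hp f hf).le
      · by_contra hneg
        rw [not_le] at hneg
        let j : m := ⟨f.Z, ⟨f, ⟨hd, Or.inl hf⟩, rfl⟩⟩
        have hj : bd j := ⟨f, hf, hd, rfl⟩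
        have h1 := h j hj
        have h2 := hp _ (hlB j hj)
        have h3 := hp f hf
        -- the point where f vanishes
        let s := f.ev x / (f.ev x - f.ev p₀)
        have hden : f.ev x - f.ev p₀ < 0 := by linarith
        have hs0 : 0 < s := div_pos_of_neg_of_neg hneg hden
        have hs1 : s < 1 := by
          rw [div_lt_one_of_neg hden]; linarith
        have h4 : f.ev ((1 - s) • x + s • p₀) = 0 := by
          rw [Fn.ev_comb _ _ _ (by ring)]
          have : s * (f.ev x - f.ev p₀) = f.ev x := div_mul_cancel₀ _ hden.ne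
          linarith
        have h5 : (1 - s) • x + s • p₀ ∈ (l j).Z := by
          rw [hlZ j]; exact h4
        have h6 : (l j).ev ((1 - s) • x + s • p₀) = 0 := h5
        rw [Fn.ev_comb _ _ _ (by ring)] at h6
        have := mul_pos hs0 h2
        have := mul_nonneg (sub_nonneg.2 hs1.le) h1
        linarith
  -- on an open cell the selection is unique
  have hcell : ∀ σ : m → Bool, (∀ j, bd j → σ j = true) →
      (∃ x, ∀ j, 0 < sg (σ j) * (l j).ev x) →
      ∃ g : Fn, ∀ x, (∀ j, 0 ≤ sg (σ j) * (l j).ev x) → u x = g.ev x := by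
    intro σ hσ ⟨x₀, hx₀⟩
    let O : Set (ℝ × ℝ) := {x | ∀ j, 0 < sg (σ j) * (l j).ev x}
    let C : Set (ℝ × ℝ) := {x | ∀ j, 0 ≤ sg (σ j) * (l j).ev x}
    have hOo : IsOpen O := by
      have : O = ⋂ j, {x | 0 < sg (σ j) * (l j).ev x} := by ext x; simp [O]
      rw [this]
      refine isOpen_iInter_of_finite fun j => isOpen_lt continuous_const ?_
      have := (l j).continuous_ev
      fun_prop
    have hOc : Convex ℝ O := by
      intro x hx y hy p q hp' hq' hpq j
      rw [Fn.ev_comb _ _ _ hpq]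
      have h1 := hx j
      have h2 := hy j
      have h3 : sg (σ j) * (p * (l j).ev x + q * (l j).ev y) =
          p * (sg (σ j) * (l j).ev x) + q * (sg (σ j) * (l j).ev y) := by ring
      rw [h3]
      rcases hp'.eq_or_lt with h | h
      · have : q = 1 := by linarith
        rw [← h, this]; linarith
      · have := mul_pos h h1
        have := mul_nonneg hq' h2.le
        linarith
    have hCQ : C ⊆ Q := by
      intro x hx
      rw [hQ']
      intro j hj
      have := hx j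
      rw [hσ j hj, sg_true, one_mul] at this
      exact this
    have hOC : O ⊆ C := fun x hx j => (hx j).le
    have huniq : ∀ x ∈ O, ∀ g ∈ S, ∀ g' ∈ S, g.ev x = g'.ev x → g = g' := by
      intro x hx g hg g' hg' he
      by_cases hd : (g.sub g').dir = 0
      · exact Fn.eq_of_sub hd he
      · exfalso
        let j : m := ⟨(g.sub g').Z, ⟨_, ⟨hd, Or.inr ⟨g, hg, g', hg', rfl⟩⟩, rfl⟩⟩
        have h1 : x ∈ (g.sub g').Z := by show (g.sub g').ev x = 0; rw [Fn.ev_sub', he, sub_self]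
        have h2 : x ∈ (l j).Z := by rw [hlZ j]; exact h1
        have h3 : (l j).ev x = 0 := h2
        have h4 := hx j
        rw [h3, mul_zero] at h4
        exact lt_irrefl _ h4
    obtain ⟨g₀, hg₀, hx₀g⟩ := hs x₀ (hCQ (hOC hx₀))
    have huO : ContinuousOn u O := hu.mono (hOC.trans hCQ)
    have hopen : ∀ g : Fn, IsOpen {x | x ∈ O ∧ u x ≠ g.ev x} := by
      intro g
      have h1 : {x | x ∈ O ∧ u x ≠ g.ev x} = O ∩ (fun x => u x - g.ev x) ⁻¹' {0}ᶜ := by
        ext x; simp [sub_eq_zero]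
      rw [h1]
      exact (huO.sub g.continuous_ev.continuousOn).isOpen_inter_preimage hOo
        isOpen_compl_singleton
    have hU : IsOpen {x | x ∈ O ∧ u x = g₀.ev x} := by
      have h1 : {x | x ∈ O ∧ u x = g₀.ev x} =
          O ∩ ⋂ g ∈ S \ {g₀}, {x | x ∈ O ∧ u x ≠ g.ev x} := by
        ext x
        simp only [mem_ofPred_eq, mem_inter_iff, mem_iInter]
        constructor
        · rintro ⟨h1, h2⟩
          refine ⟨h1, fun g hg => ⟨h1, fun h3 => hg.2 ?_⟩⟩
          exact huniq x h1 g hg.1 g₀ hg₀ (h3.symm.trans h2)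
        · rintro ⟨h1, h2⟩
          refine ⟨h1, ?_⟩
          obtain ⟨g, hg, hgx⟩ := hs x (hCQ (hOC h1))
          by_cases he : g = g₀
          · rw [← he]; exact hgx
          · exact absurd hgx (h2 g ⟨hg, he⟩).2
      rw [h1]
      exact hOo.inter ((hS.subset sdiff_subset).isOpen_biInter fun g _ => hopen g)
    have hall : ∀ x ∈ O, u x = g₀.ev x := by
      rcases hOc.isPreconnected.subset_or_subset hU (hopen g₀)
        (disjoint_left.2 fun x h1 h2 => h2.2 h1.2) (fun x hx => by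
          by_cases h : u x = g₀.ev x
          · exact Or.inl ⟨hx, h⟩
          · exact Or.inr ⟨hx, h⟩) with h1 | h1
      · exact fun x hx => (h1 hx).2
      · exact absurd hx₀g (h1 hx₀).2
    have hcl : C ⊆ closure O := by
      intro x hx
      have h1 : ∀ s ∈ Ioc (0 : ℝ) 1, (1 - s) • x + s • x₀ ∈ O := by
        intro s hs' j
        rw [Fn.ev_comb _ _ _ (by ring)]
        have h2 := hx j
        have h3 := hx₀ j
        have h4 : sg (σ j) * ((1 - s) * (l j).ev x + s * (l j).ev x₀) =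
            (1 - s) * (sg (σ j) * (l j).ev x) + s * (sg (σ j) * (l j).ev x₀) := by ring
        rw [h4]
        have := mul_nonneg (sub_nonneg.2 hs'.2) h2
        have := mul_pos hs'.1 h3
        linarith
      have h2 : Tendsto (fun s : ℝ => (1 - s) • x + s • x₀) (𝓝[>] 0) (𝓝 x) := by
        have hc : Continuous fun s : ℝ => (1 - s) • x + s • x₀ := by fun_prop
        have h3 := hc.tendsto 0
        rw [sub_zero, one_smul, zero_smul, add_zero] at h3
        exact h3.mono_left nhdsWithin_le_nhds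
      refine mem_closure_of_tendsto h2 ?_
      filter_upwards [Ioc_mem_nhdsGT (show (0 : ℝ) < 1 by norm_num)] with s hs'
      exact h1 s hs'
    refine ⟨g₀, fun x hx => ?_⟩
    have h1 : EqOn u g₀.ev C := Set.EqOn.of_subset_closure (fun x hx => hall x hx)
      (hu.mono hCQ) g₀.continuous_ev.continuousOn hOC hcl
    exact h1 hx
  have : Nonempty Fn := ⟨⟨0, 0, 0⟩⟩
  choose! g hg using hcell
  exact ⟨m, hm, ⟨{
    l := l
    bd := bd
    g := g
    nz := hnz
    dis := by
      intro j k hjk x y h1 h2 h3 h4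
      by_contra hxy
      refine hjk (Subtype.ext ?_)
      rw [← hlZ j, ← hlZ k]
      exact Fn.Z_eq (hnz j) (hnz k) hxy h1 h2 h3 h4
    hQ := hQ'
    hg := fun σ h1 h2 x hx => hg σ h1 h2 x hx }⟩⟩

/-- the frontier of the polygon -/
theorem mem_frontier_iff {𝓑 : Set Fn} (hB : 𝓑.Finite)
    (hQ : ∀ x, x ∈ Q ↔ ∀ f ∈ 𝓑, 0 ≤ f.ev x) {p₀ : ℝ × ℝ} (hp : ∀ f ∈ 𝓑, 0 < f.ev p₀)
    {x : ℝ × ℝ} (hx : x ∈ Q) : x ∈ frontier Q ↔ ∃ f ∈ 𝓑, f.ev x = 0 := by
  have hcl : IsClosed Q := by
    have : Q = ⋂ f ∈ 𝓑, {x | 0 ≤ f.ev x} := by ext x; rw [hQ]; simp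
    rw [this]
    exact isClosed_biInter fun f _ => isClosed_le continuous_const f.continuous_ev
  rw [hcl.frontier_eq]
  constructor
  · rintro ⟨-, hn⟩
    by_contra h
    push Not at h
    refine hn (mem_interior_iff_mem_nhds.2 ?_)
    have h1 : IsOpen {y | ∀ f ∈ 𝓑, 0 < f.ev y} := by
      have : {y | ∀ f ∈ 𝓑, 0 < f.ev y} = ⋂ f ∈ 𝓑, {x | 0 < f.ev x} := by ext x; simp
      rw [this]
      exact hB.isOpen_biInter fun f _ => isOpen_lt continuous_const f.continuous_ev
    refine mem_of_superset (h1.mem_nhds fun f hf => lt_of_le_of_ne ((hQ x).1 hx f hf)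
      (h f hf).symm) fun y hy => (hQ y).2 fun f hf => (hy f hf).le
  · rintro ⟨f, hf, h0⟩
    refine ⟨hx, fun hi => ?_⟩
    have h1 : Tendsto (fun s : ℝ => x + s • (x - p₀)) (𝓝[>] 0) (𝓝 x) := by
      have hc : Continuous fun s : ℝ => x + s • (x - p₀) := by fun_prop
      have h2 := hc.tendsto 0
      rw [zero_smul, add_zero] at h2
      exact h2.mono_left nhdsWithin_le_nhds
    have h3 : ∀ᶠ s : ℝ in 𝓝[>] 0, x + s • (x - p₀) ∈ Q :=
      h1.eventually (mem_interior_iff_mem_nhds.1 hi)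
    obtain ⟨s, hs, hs0⟩ := (h3.and self_mem_nhdsWithin).exists
    have hs0 : 0 < s := hs0
    have h4 := (hQ _).1 hs f hf
    rw [Fn.ev_add, ← Fn.ev_sub, h0] at h4
    have := hp f hf
    nlinarith

end Build

end Crest.Agent.R096.Lvl_816
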