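import Crest.Agent.R096.Lvl7_816
import Crest.Agent.R096.Cb1_609
import Crest.Agent.R096.Msh5_715

/-!
# Level curves of a piecewise affine function on a flat face, part 8 (helper816, row 96)

The regular levels of a face with a uniform bound of the number of circles, and the function
`z ↦ ‖L (h z)‖` (`L` affine with values in `Fin 3 → ℝ`).
-/

set_option autoImplicit false
set_option linter.unusedSectionVars false

open Set Filter Topology Metric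

namespace Crest.Agent.R096.Lvl_816

open Ce_537 Pl Srg_465 Msh_715

/-- **`Lev` on an affine copy of a convex polygon, with a uniform bound** -/
theorem Flat.exists_lev' {E : Type*} [NormedAddCommGroup E] [NormedSpace ℝ E]
    [FiniteDimensional ℝ E] {Q : Set (ℝ × ℝ)} {F rim : Set E} (Φ : Flat Q F rim) {𝓑 : Set Fn}
    (hB : 𝓑.Finite) (hQ : ∀ x, x ∈ Q ↔ ∀ f ∈ 𝓑, 0 ≤ f.ev x) {p₀ : ℝ × ℝ}
    (hp : ∀ f ∈ 𝓑, 0 < f.ev p₀) (hc : IsCompact Q) {ψ : E → ℝ} (hψ : PLOn ψ F) :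
    ∃ B : Set ℝ, B.Finite ∧ ∃ M : ℕ, ∀ J : Set ℝ, IsPreconnected J → Disjoint J B →
      Lev F rim ψ J ∧ ∀ t ∈ J, {Γ | Circ F rim ψ t Γ}.ncard ≤ M := by
  classical
  obtain ⟨hψc, S, hS⟩ := hψ
  have hconv : Convex ℝ Q := by
    intro x hx y hy p q hp' hq' hpq
    rw [hQ] at hx hy ⊢
    intro f hf
    rw [Fn.ev_comb _ _ _ hpq]
    have := mul_nonneg hp' (hx f hf)
    have := mul_nonneg hq' (hy f hf)
    linarith
  have hu : ContinuousOn (fun x => ψ (Φ.φ x)) Q :=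
    hψc.comp Φ.cφ.continuousOn fun x hx => Φ.mem_F hx
  obtain ⟨m, hm, ⟨A⟩⟩ := exists_arr (Q := Q) (u := fun x => ψ (Φ.φ x)) hB
    (S := (fun a : E →ᵃ[ℝ] ℝ => toFn (a.comp Φ.φ)) '' (S : Set (E →ᵃ[ℝ] ℝ)))
    (S.finite_toSet.image _) hQ hp hu (fun x hx => by
      obtain ⟨a, ha, e⟩ := hS (Φ.φ x) (Φ.mem_F hx)
      exact ⟨_, ⟨a, ha, rfl⟩, by rw [ev_toFn]; exact e⟩)
  refine ⟨A.Bad, A.finite_bad, Nat.card (m → Bool), fun J hJ hJB => ?_⟩
  rcases J.eq_empty_or_nonempty with rfl | ⟨t₀, ht₀⟩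
  · exact ⟨⟨hψc, fun t ht => absurd ht (notMem_empty t), fun t ht => absurd ht (notMem_empty t),
      fun x _ _ h => absurd h (notMem_empty _)⟩, fun t ht => absurd ht (notMem_empty t)⟩
  · obtain ⟨I, hI, hcard, ⟨L⟩⟩ := A.exists_lsys' hc hJ hJB ht₀
    exact ⟨L.lev Φ hc hconv hu fun x _ => rfl,
      fun t ht => (L.ncard_circ Φ (fun x _ => rfl) ht).trans hcard⟩

section Cell

variable {E : Type*} [NormedAddCommGroup E] [NormedSpace ℝ E] [FiniteDimensional ℝ E]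
  {Om : Set E} {ι : Type*}

/-- **a closed 2-cell of a tiling is an affine copy of a convex polygon** -/
theorem exists_flat (T : Tiling Om ι) {x : E} (hx : x ∈ Om) (hd : T.dim x = 2) :
    ∃ Q : Set (ℝ × ℝ), ∃ _Φ : Flat Q (T.cc x) (T.cc x ∩ Sk2_855.sk1 T), ∃ 𝓑 : Set Fn, 𝓑.Finite ∧
      (∀ x, x ∈ Q ↔ ∀ f ∈ 𝓑, 0 ≤ f.ev x) ∧ (∀ f ∈ 𝓑, 0 < f.ev (0 : ℝ × ℝ)) ∧ IsCompact Q := by
  classical
  let V := T.V x
  have hfr : Module.finrank ℝ (ℝ × ℝ) = Module.finrank ℝ V := by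
    have : Module.finrank ℝ (ℝ × ℝ) = 2 := by simp
    rw [this]; exact hd.symm
  let e : (ℝ × ℝ) ≃ₗ[ℝ] V := LinearEquiv.ofFinrankEq _ _ hfr
  let L : (ℝ × ℝ) →ₗ[ℝ] E := V.subtype.comp e.toLinearMap
  have hLinj : Function.Injective L := V.injective_subtype.comp e.injective
  have hLV : ∀ p, L p ∈ V := fun p => (e p).2
  obtain ⟨r, hr⟩ := LinearMap.exists_leftInverse_of_injective L (LinearMap.ker_eq_bot.2 hLinj)
  have hrL : ∀ p, r (L p) = p := fun p => by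
    have := congrArg (fun g : (ℝ × ℝ) →ₗ[ℝ] (ℝ × ℝ) => g p) hr
    exact this
  let φ : (ℝ × ℝ) →ᵃ[ℝ] E := L.toAffineMap + AffineMap.const ℝ _ x
  have hφ : ∀ p, φ p = L p + x := fun p => rfl
  let ρ : E →ᵃ[ℝ] (ℝ × ℝ) := r.toAffineMap - AffineMap.const ℝ _ (r x)
  have hρ : ∀ y, ρ y = r y - r x := fun p => rfl
  have hli : ∀ p, ρ (φ p) = p := fun p => by
    rw [hρ, hφ, map_add, hrL, add_sub_cancel_right]
  have hri : ∀ y ∈ T.cc x, φ (ρ y) = y := by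
    intro y hy
    have h1 : y - x ∈ V := T.sub_mem_V hy
    obtain ⟨p, hp⟩ : ∃ p, L p = y - x := ⟨e.symm ⟨_, h1⟩, by
      show ((e (e.symm ⟨y - x, h1⟩) : V) : E) = y - x
      rw [e.apply_symm_apply]⟩
    rw [hρ, ← map_sub, ← hp, hrL, hφ, hp, sub_add_cancel]
  let H := T.Hx hx
  have hfc : ∀ y, y ∈ T.cc x ↔ ∀ h ∈ H, h.1 y ≤ h.2 ∧ (h.1 x = h.2 → h.1 y = h.2) := by
    intro y; rw [← T.fc_Hx hx]; rfl
  have hfo : ∀ y, y ∈ T.oc x ↔ ∀ h ∈ H, h.1 y ≤ h.2 ∧ (h.1 y = h.2 ↔ h.1 x = h.2) := by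
    intro y; rw [← T.fo_Hx hx]; rfl
  have hVH : ∀ p, ∀ h ∈ H, h.1 x = h.2 → h.1 (L p) = 0 := by
    intro p h hh e1
    have h1 : L p ∈ dirP H x := by rw [T.dirP_Hx hx]; exact hLV p
    exact h1 h hh e1
  let fn : ((E →L[ℝ] ℝ) × ℝ) → Fn := fun h =>
    ⟨- h.1 (L (1, 0)), - h.1 (L (0, 1)), h.2 - h.1 x⟩
  have hfn : ∀ h p, (fn h).ev p = h.2 - h.1 (φ p) := by
    intro h p
    have h2 : p = p.1 • (1, 0) + p.2 • ((0 : ℝ), (1 : ℝ)) := by ext <;> simp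
    have h3 : h.1 (L p) = p.1 * h.1 (L (1, 0)) + p.2 * h.1 (L (0, 1)) := by
      conv_lhs => rw [h2]
      rw [map_add, map_smul, map_smul, map_add, map_smul, map_smul, smul_eq_mul, smul_eq_mul]
    rw [hφ, map_add, h3]
    simp only [Fn.ev, fn]; ring
  let 𝓑 : Set Fn := fn '' {h | h ∈ H ∧ h.1 x ≠ h.2}
  have hBfin : 𝓑.Finite := (H.finite_toSet.subset fun h hh => hh.1).image _
  let Q : Set (ℝ × ℝ) := φ ⁻¹' T.cc x
  have hQ : ∀ p, p ∈ Q ↔ ∀ f ∈ 𝓑, 0 ≤ f.ev p := by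
    intro p
    show φ p ∈ T.cc x ↔ _
    rw [hfc]
    constructor
    · rintro h1 _ ⟨h, ⟨hh, hne⟩, rfl⟩
      rw [hfn]
      linarith [(h1 h hh).1]
    · intro h1 h hh
      by_cases he : h.1 x = h.2
      · have : h.1 (φ p) = h.2 := by rw [hφ, map_add, hVH p h hh he, zero_add, he]
        exact ⟨this.le, fun _ => this⟩
      · have := h1 _ ⟨h, ⟨hh, he⟩, rfl⟩
        rw [hfn] at this
        exact ⟨by linarith, fun h2 => absurd h2 he⟩
  have hxx : ∀ h ∈ H, h.1 x ≤ h.2 := fun h hh => ((hfc x).1 (T.self_mem_cc x) h hh).1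
  have hp : ∀ f ∈ 𝓑, 0 < f.ev (0 : ℝ × ℝ) := by
    rintro _ ⟨h, ⟨hh, hne⟩, rfl⟩
    rw [hfn, hφ, map_zero, zero_add, sub_pos]
    exact lt_of_le_of_ne (hxx h hh) hne
  have hQρ : Q = ρ '' T.cc x := by
    ext p
    constructor
    · intro hp; exact ⟨φ p, hp, hli p⟩
    · rintro ⟨y, hy, rfl⟩
      show φ (ρ y) ∈ T.cc x
      rw [hri y hy]; exact hy
  have hQc : IsCompact Q := by
    rw [hQρ]
    exact (T.isCompact_cc hx).image ρ.continuous_of_finiteDimensional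
  have hfront : ∀ p ∈ Q, (p ∈ frontier Q ↔ φ p ∉ T.oc x) := by
    intro p hpQ
    rw [mem_frontier_iff hBfin hQ hp hpQ]
    have hcc := (hfc _).1 (show φ p ∈ T.cc x from hpQ)
    constructor
    · rintro ⟨_, ⟨h, ⟨hh, hne⟩, rfl⟩, h0⟩ ho
      rw [hfn] at h0
      exact hne (((hfo _).1 ho h hh).2.1 (by linarith))
    · intro ho
      rw [hfo] at ho
      push Not at ho
      obtain ⟨h, hh, h1⟩ := ho
      have h2 := h1 (hcc h hh).1
      rcases h2 with ⟨h3, h4⟩ | ⟨h3, h4⟩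
      · exact ⟨_, ⟨h, ⟨hh, h4⟩, rfl⟩, by rw [hfn, h3, sub_self]⟩
      · exact absurd ((hcc h hh).2 h4) h3
  let Φ : Flat Q (T.cc x) (T.cc x ∩ Sk2_855.sk1 T) :=
    { φ := φ
      ρ := ρ
      li := hli
      hF := by
        apply Subset.antisymm
        · rintro _ ⟨p, hp, rfl⟩; exact hp
        · intro y hy
          exact ⟨ρ y, by show φ (ρ y) ∈ T.cc x; rw [hri y hy]; exact hy, hri y hy⟩
      hr := by
        ext y
        constructor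
        · rintro ⟨p, hp', rfl⟩
          have hpQ : p ∈ Q := by
            rw [hQc.isClosed.frontier_eq] at hp'; exact hp'.1
          have hno := (hfront p hpQ).1 hp'
          refine ⟨hpQ, T.cc_sub_Om hx hpQ, ?_⟩
          have := T.dim_lt (x := x) (y := φ p) hpQ hno
          omega
        · rintro ⟨hy, hyO, hy1⟩
          refine ⟨ρ y, ?_, hri y hy⟩
          have hpQ : ρ y ∈ Q := by show φ (ρ y) ∈ T.cc x; rw [hri y hy]; exact hy
          rw [hfront _ hpQ, hri y hy]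
          intro ho
          have := T.dim_eq_of_mem_oc hx ho
          omega }
  exact ⟨Q, Φ, 𝓑, hBfin, hQ, hp, hQc⟩

/-- **the regular levels of a PL function on a closed 2-cell of a tiling, with a uniform bound of
the number of circles** -/
theorem lev_cell' (T : Tiling Om ι) {x : E} (hx : x ∈ Om) (hd : T.dim x = 2) {ψ : E → ℝ}
    (hψ : PLOn ψ (T.cc x)) :
    ∃ B : Set ℝ, B.Finite ∧ ∃ M : ℕ, ∀ J : Set ℝ, IsPreconnected J → Disjoint J B →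
      Lev (T.cc x) (T.cc x ∩ Sk2_855.sk1 T) ψ J ∧
        ∀ t ∈ J, {Γ | Circ (T.cc x) (T.cc x ∩ Sk2_855.sk1 T) ψ t Γ}.ncard ≤ M := by
  obtain ⟨Q, Φ, 𝓑, h1, h2, h3, h4⟩ := exists_flat T hx hd
  exact Φ.exists_lev' h1 h2 h3 h4 hψ

theorem plOn_norm_comp {h : E → E} {K : Set E} (hh : PLOn h K) (L : E →ᵃ[ℝ] (Fin 3 → ℝ)) :
    PLOn (fun z => ‖L (h z)‖) K := by
  have h1 : PLOn (fun z => L (h z)) K := (plOn_affine L univ).comp hh fun _ _ => mem_univ _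
  have h2 : PLOn (fun w : Fin 3 → ℝ => ‖w‖) univ :=
    Sk2_855.PLMap.plOn (Cb_609.plMap_norm 3) univ
  exact h2.comp h1 fun _ _ => mem_univ _

/-- **465's face hypothesis** -/
theorem lev_norm (T : Tiling Om ι) {h : E → E} (hh : LocPL h Om) (L : E ≃ᵃ[ℝ] (Fin 3 → ℝ))
    {x : E} (hx : x ∈ Om) (hd : T.dim x = 2) :
    ∃ bad : Set ℝ, bad.Finite ∧ ∃ M : ℕ, ∀ a b : ℝ, Disjoint (Ioo a b) bad →
      Lev (T.cc x) (T.cc x ∩ Sk2_855.sk1 T) (fun z => ‖L (h z)‖) (Ioo a b) ∧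
        ∀ t ∈ Ioo a b,
          {Γ | Circ (T.cc x) (T.cc x ∩ Sk2_855.sk1 T) (fun z => ‖L (h z)‖) t Γ}.ncard ≤ M := by
  have h1 : PLOn h (T.cc x) := Msh_715.LocPL.plOn hh (T.isCompact_cc hx) (T.cc_sub_Om hx)
  obtain ⟨B, hB, M, hM⟩ := lev_cell' T hx hd (plOn_norm_comp h1 (L : E →ᵃ[ℝ] (Fin 3 → ℝ)))
  exact ⟨B, hB, M, fun a b hab => hM _ isPreconnected_Ioo hab⟩

end Cell

end Crest.Agent.R096.Lvl_816
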