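import Crest.Agent.R096.Lvl8_816

/-!
# The C0 conclusion of 2SK (helper816, row 96)

The image of a compact part lies in every convex set which contains the image of its frontier.
-/

set_option autoImplicit false
set_option linter.unusedSectionVars false

open Set Filter Topology Metric

namespace Crest.Agent.R096.Lvl_816

variable {E : Type*} [NormedAddCommGroup E] [NormedSpace ℝ E] {Om La : Set E} {ι : Type*}

/-- the frontier of the image of a compact set -/
theorem frontier_image_sub {f g : E → E} (hLa : IsOpen La) (hf : ContinuousOn f Om)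
    (hg : ContinuousOn g La) (mf : MapsTo f Om La)
    (hgf : ∀ x ∈ Om, g (f x) = x) (hfg : ∀ y ∈ La, f (g y) = y) {P : Set E} (hP : IsCompact P)
    (hPO : P ⊆ Om) : frontier (f '' P) ⊆ f '' frontier P := by
  have hK : IsCompact (f '' P) := hP.image_of_continuousOn (hf.mono hPO)
  intro y hy
  rw [hK.isClosed.frontier_eq] at hy
  obtain ⟨⟨x, hx, rfl⟩, hy2⟩ := hy
  refine ⟨x, ?_, rfl⟩
  rw [hP.isClosed.frontier_eq]
  refine ⟨hx, fun hi => hy2 ?_⟩
  have h1 : IsOpen (La ∩ g ⁻¹' interior P) := hg.isOpen_inter_preimage hLa isOpen_interior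
  refine mem_interior.2 ⟨_, ?_, h1, mf (hPO hx), ?_⟩
  · rintro z ⟨hz, hz'⟩
    exact ⟨g z, interior_subset hz', hfg z hz⟩
  · show g (f x) ∈ interior P
    rw [hgf x (hPO hx)]; exact hi

/-- **the C0 conclusion**: for a homeomorphism `f` of `Om` onto the open set `La`, a compact
`P ⊆ Om` and a convex `C` with `f '' frontier P ⊆ C` we have `f '' P ⊆ C`. -/
theorem image_sub_of_frontier [Nontrivial E] {f g : E → E} (hLa : IsOpen La)
    (hf : ContinuousOn f Om) (hg : ContinuousOn g La) (mf : MapsTo f Om La)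
    (hgf : ∀ x ∈ Om, g (f x) = x) (hfg : ∀ y ∈ La, f (g y) = y) {P : Set E} (hP : IsCompact P)
    (hPO : P ⊆ Om) {C : Set E} (hC : Convex ℝ C) (h : f '' frontier P ⊆ C) : f '' P ⊆ C :=
  subset_of_frontier (hP.image_of_continuousOn (hf.mono hPO)) hC
    ((frontier_image_sub hLa hf hg mf hgf hfg hP hPO).trans h)

theorem HP_contOn_inv {h hi : E → E} (H : Sk2_855.HP Om La h hi) : ContinuousOn hi La := by
  intro x hx
  obtain ⟨r, hr, hp⟩ := H.pli x hx
  exact (hp.1.continuousAt (ball_mem_nhds x hr)).continuousWithinAt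

/-- the C0 conclusion for a PL homeomorphism -/
theorem HP_image_sub [Nontrivial E] (hLa : IsOpen La) {h hi : E → E}
    (H : Sk2_855.HP Om La h hi) {P : Set E} (hP : IsCompact P) (hPO : P ⊆ Om) {C : Set E}
    (hC : Convex ℝ C) (hh : h '' frontier P ⊆ C) : h '' P ⊆ C :=
  image_sub_of_frontier hLa H.contOn (HP_contOn_inv H) H.mt H.li H.ri hP hPO hC hh

open Crest.Agent.R096.Msh_715 (Tiling) in
/-- the C0 conclusion for a tile -/
theorem HP_tile_sub [FiniteDimensional ℝ E] (h3 : Module.finrank ℝ E = 3) (hLa : IsOpen La)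
    {h hi : E → E} (H : Sk2_855.HP Om La h hi) (T : Tiling Om ι) (i : ι) {C : Set E}
    (hC : Convex ℝ C) (hh : ∀ x ∈ frontier (Msh_715.P (T.H i)), h x ∈ C) :
    h '' Msh_715.P (T.H i) ⊆ C := by
  have : Nontrivial E := Module.nontrivial_of_finrank_pos (R := ℝ) (by rw [h3]; norm_num)
  refine HP_image_sub hLa H (T.cpt i) (T.sub i) hC ?_
  rintro _ ⟨x, hx, rfl⟩
  exact hh x hx

end Crest.Agent.R096.Lvl_816
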