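import Crest.Agent.R096.Dfo2_539
import Crest.Agent.R096.Dis1_184

/-!
# Row 96, DOORS_final (helper184, second typist of leaf (13)): levels of the points of `s₃`

`s₃` = state after CUT (539's `CutOut` over 471's `s2`), `s` = truthful state with barriers.

* `lev3`     : every point of `s₃` on a tile `q` of `T3` outside the remaining cores has a point `x`
  of the `T`-tile `q.tile` with `σ ≤ lv a x ≤ 1 - σ` (input `hY` : barrier points over a tile without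
  this property are not enclosed);
* `out3`     : points on outer tiles without barrier points are points of `s`;
* `fin3`     : finitely many points on every face.
-/

set_option autoImplicit false
set_option linter.unusedSectionVars false
set_option linter.style.longLine false

open Set Topology Filter Metric Module
open scoped Classical

namespace Crest.Agent.R096.Lvs_184

open Crest.Agent.R096.Msh_715 Crest.Agent.R096.Agl5_543
  Crest.Agent.R096.Seq_213 Crest.Agent.R096.St_147 Crest.Agent.R096.Door_501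
  Crest.Agent.R096.Twr_438 Crest.Agent.R096.Exa_560 Crest.Agent.R096.Ess3_95
  Crest.Agent.R096.Ess4_95 Crest.Agent.R096.Gm_298
  Crest.Agent.R096.Sla_184 Crest.Agent.R096.Dfi_539 Crest.Agent.R096.Dfi_471
  Crest.Agent.R096.Dfo_539
open Crest.Agent.R096.St_147.St (Frozen)

variable {E : Type} [NormedAddCommGroup E] [NormedSpace ℝ E] [FiniteDimensional ℝ E]
variable {Om : Set E} {ι κ : Type} {T : Tiling Om ι} {J C Mo : Type} {fam : J → C}
  [Nonempty (J ⊕ Mo)] {h3 : finrank ℝ E = 3} {S : Sla T κ}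
  {s : GSt (meshC T h3) (Sum.map fam (id : Mo → Mo))} {r : J ⊕ Mo → E} {Sf : J ⊕ Mo → Set E}
  {nb : κ → C ⊕ Mo → Prop} {v0 v1 : ∀ c, C ⊕ Mo → VxK T S.K c} {u : κ → C ⊕ Mo → E → ℝ}
  {A B : κ → C ⊕ Mo → ℝ} {L : ∀ c, C ⊕ Mo → Lev T (frontier (S.K c)) (J ⊕ Mo)}
  {Tw : Twrs (S.sh h3) S.n (outK S.hH S.dis s r)} {l0 : E → J ⊕ Mo}
  {am : Mo → C} {Act : C → Set (T.RIdx S.HH ⊕ κ)} {s3 : GSt (S.mn h3) fam}
  {hKK : ∀ c, CoreH S.T3 (S.KK c)}

include hKK in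
/-- **the points of `s₃` on an outer tile without barrier points are points of `s`** -/
theorem out3 (CO : CutOut (s2 S h3 Tw l0) am Act s3) {w : E} (hw : w ∈ s3.P) {i : ι}
    (hi : ∀ c, ¬ P (T.H i) ⊆ S.K c) (hwi : w ∈ P (T.H i))
    (hb : ∀ b ∈ s.P, ∀ m, s.lab b = Sum.inr m → b ∉ P (T.H i)) :
    w ∈ s.P ∧ s.lab w = Sum.inl (s3.lab w) := by
  have hq : w ∈ P (S.T3.H (S.ot i hi)) := by rw [Sla.ot_P]; exact hwi
  have hqK : ∀ c, ¬ P (S.T3.H (S.ot i hi)) ⊆ S.KK c := fun c h =>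
    hi c (by rw [← Sla.ot_P hi]; exact h.trans Sla.KK_K)
  rcases cases3 (hKK := hKK) CO hw hq hqK with ⟨h1, h2⟩ | ⟨-, b, h1, m, h2, -, h4, -⟩
  · obtain ⟨g1, g2⟩ := out2_tile h1 hi hwi
    exact ⟨g1, g2 ▸ h2⟩
  · exfalso
    have h5 : b ∈ P (T.H i) := by rw [Sla.ot_P] at h4; exact h4
    obtain ⟨g1, g2⟩ := out2_tile h1 hi h5
    exact hb b g1 m (g2 ▸ h2) h5

/-- finitely many points on every face -/
theorem fin3 (D : DIn S.hH s r Sf nb v0 v1 u A B) (lo : LevOut s nb u A B L)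
    (tt : TwOut S h3 s r v0 v1 L Tw) (CO : CutOut (s2 S h3 Tw l0) am Act s3)
    (hfin : ∀ F : C2 T, (s.P ∩ F.On).Finite) (F : S.Fn h3) :
    (s3.P ∩ (S.mn h3).On F).Finite := CO.fin F (fin2 D lo tt hfin F)

include hKK in
/-- **(LEV) for `s₃`** -/
theorem lev3 (D : DIn S.hH s r Sf nb v0 v1 u A B) (lo : LevOut s nb u A B L)
    (tt : TwOut S h3 s r v0 v1 L Tw) (CO : CutOut (s2 S h3 Tw l0) am Act s3)
    (lv : C → E → ℝ) {σ e : ℝ}
    (htr : ∀ w ∈ s.P, ∀ j, s.lab w = Sum.inl j → σ ≤ lv (fam j) w ∧ lv (fam j) w ≤ 1 - σ)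
    (hbar : ∀ w ∈ s.P, ∀ m, s.lab w = Sum.inr m → σ ≤ lv (am m) w ∧ lv (am m) w ≤ 1 - σ)
    (hnr : ∀ c a, nb c (Sum.inl a) → ∀ x ∈ frontier (S.K c), |u c (Sum.inl a) x - lv a x| ≤ e)
    (hA : ∀ c a, nb c (Sum.inl a) →
      σ + e ≤ A c (Sum.inl a) ∧ B c (Sum.inl a) ≤ 1 - (σ + e))
    (hR : ∀ c a, nb c (Sum.inl a) → ∀ i, ∀ v : S.Vx c,
      Rgn (S.sh h3 c) (v0 c (Sum.inl a)) (v1 c (Sum.inl a)) (trc S.hH S.dis s r c (Sum.inl a))
        (exa h3 S.hH S.dis (L c (Sum.inl a))) i v → σ ≤ lv a v.1 ∧ lv a v.1 ≤ 1 - σ)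
    (hY : ∀ b ∈ (s2 S h3 Tw l0).P, ∀ m, (s2 S h3 Tw l0).lab b = Sum.inr m → ∀ c, S.In c b →
      ∀ p, b ∈ P (S.T3.H p) →
      (∀ x ∈ P (T.H p.tile), ¬ (σ ≤ lv (am m) x ∧ lv (am m) x ≤ 1 - σ)) →
      ¬ Encl (s2 S h3 Tw l0) am Act m b)
    {w : E} (hw : w ∈ s3.P) {p : T.RIdx S.HH} (hp : w ∈ P (S.T3.H p))
    (hpK : ∀ c, ¬ P (S.T3.H p) ⊆ S.KK c) :
    ∃ x ∈ P (T.H p.tile), σ ≤ lv (fam (s3.lab w)) x ∧ lv (fam (s3.lab w)) x ≤ 1 - σ := by
  rcases cases3 (hKK := hKK) CO hw hp hpK with ⟨h1, h2⟩ | ⟨-, b, h1, m, h2, h4, h5, h6⟩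
  · -- an old point
    have key := lev2 D lo tt (fun a => ∃ a', a = Sum.inl a')
      (Sum.elim lv fun _ _ => 0) (σ := σ) (e := e) ?_ ?_ ?_ ?_ h1 ⟨fam (s3.lab w), by rw [h2]; rfl⟩
      hp
    · rw [h2] at key
      exact key
    · rintro w hw ⟨a, ha⟩
      rcases hl : s.lab w with j | m
      · exact htr w hw j hl
      · rw [hl] at ha
        cases ha
    · rintro c _ hn ⟨a, rfl⟩ x hx
      exact hnr c a hn x hx
    · rintro c _ hn ⟨a, rfl⟩
      exact hA c a hn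
    · rintro c _ hn ⟨a, rfl⟩ i v hv
      exact hR c a hn i v hv
  · -- next to a barrier point
    rw [← h4]
    have hbO : b ∈ Om := (s2_dim h1).1
    rcases Sla.out_or (S := S) hbO with ho | ⟨c, hc⟩
    · obtain ⟨g1, g2, -⟩ := out2 h1 ho
      exact ⟨b, Sla.P3_sub p h5, hbar b g1 m (g2 ▸ h2)⟩
    · by_contra hcon
      push Not at hcon
      exact hY b h1 m h2 c hc p h5 (fun x hx h => absurd h.2 (not_le.2 (hcon x hx h.1))) h6

end Crest.Agent.R096.Lvs_184
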