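import Crest.Agent.R096.Mal10_874

/-!
# Row 96, library (MESH-AL), part 11: integer polytopes in a frame, the tiling of a core block
-/

set_option autoImplicit false

open Set Filter Topology Metric

namespace Crest.Agent.R096.Mal_874

open Msh_715 Cut_874 Msh_810

variable {n : ℕ} {E : Type*} [NormedAddCommGroup E] [NormedSpace ℝ E]

/-! ### integer polytopes in a frame -/

/-- inequality with integer data in the frame `ψ`, shift `a'`, scale `k` -/
noncomputable def iq (ψ : E ≃L[ℝ] (Fin n → ℝ)) (a' : Fin n → ℝ) (k : ℕ) (p : (Fin n → ℤ) × ℤ) :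
    (E →L[ℝ] ℝ) × ℝ :=
  (∑ m, (p.1 m : ℝ) • co ψ m, dt (rv p.1) a' + p.2 / 2 ^ k)

/-- the inequalities of an integer polytope -/
noncomputable def iH (ψ : E ≃L[ℝ] (Fin n → ℝ)) (a' : Fin n → ℝ) (k : ℕ)
    (S : Finset ((Fin n → ℤ) × ℤ)) : Finset ((E →L[ℝ] ℝ) × ℝ) := by
  classical
  exact S.image (iq ψ a' k)

section

variable {ψ : E ≃L[ℝ] (Fin n → ℝ)} {a' : Fin n → ℝ} {k : ℕ}

theorem iq_eq (p : (Fin n → ℤ) × ℤ) (y : E) :
    2 ^ k * ((iq ψ a' k p).1 y - (iq ψ a' k p).2) = dt (rv p.1) (ps a' k (ψ y)) - p.2 := by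
  have hk : (2 : ℝ) ^ k ≠ 0 := by positivity
  have e1 : (iq ψ a' k p).1 y = dt (rv p.1) (ψ y) := by
    show (∑ m, (p.1 m : ℝ) • co ψ m) y = _
    rw [sum_apply]
    rfl
  have e2 : (iq ψ a' k p).2 = dt (rv p.1) a' + p.2 / 2 ^ k := rfl
  have e3 : dt (rv p.1) (ps a' k (ψ y)) = 2 ^ k * (dt (rv p.1) (ψ y) - dt (rv p.1) a') := by
    rw [← dt_sub]
    unfold dt ps
    rw [Finset.mul_sum]
    exact Finset.sum_congr rfl fun m _ => by ring
  rw [e1, e2, e3]
  field_simp
  ring

theorem iq_le (p : (Fin n → ℤ) × ℤ) (y : E) :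
    (iq ψ a' k p).1 y ≤ (iq ψ a' k p).2 ↔ dt (rv p.1) (ps a' k (ψ y)) ≤ p.2 := by
  have h := iq_eq (ψ := ψ) (a' := a') (k := k) p y
  have hk : (0 : ℝ) < 2 ^ k := by positivity
  constructor
  · intro h1
    nlinarith
  · intro h1
    by_contra h2
    push Not at h2
    nlinarith

theorem iq_lt (p : (Fin n → ℤ) × ℤ) (y : E) :
    (iq ψ a' k p).1 y < (iq ψ a' k p).2 ↔ dt (rv p.1) (ps a' k (ψ y)) < p.2 := by
  have h := iq_eq (ψ := ψ) (a' := a') (k := k) p y
  have hk : (0 : ℝ) < 2 ^ k := by positivity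
  constructor
  · intro h1
    nlinarith
  · intro h1
    by_contra h2
    push Not at h2
    nlinarith

theorem iq_eq' (p : (Fin n → ℤ) × ℤ) (y : E) :
    (iq ψ a' k p).1 y = (iq ψ a' k p).2 ↔ dt (rv p.1) (ps a' k (ψ y)) = p.2 := by
  have h := iq_eq (ψ := ψ) (a' := a') (k := k) p y
  have hk : (0 : ℝ) < 2 ^ k := by positivity
  constructor
  · intro h1
    rw [h1, sub_self, mul_zero] at h
    linarith
  · intro h1
    rw [h1, sub_self] at h
    rcases mul_eq_zero.1 h with h2 | h2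
    · exact absurd h2 hk.ne'
    · linarith

theorem forall_iH {S : Finset ((Fin n → ℤ) × ℤ)} {Q : (E →L[ℝ] ℝ) × ℝ → Prop} :
    (∀ h ∈ iH ψ a' k S, Q h) ↔ ∀ p ∈ S, Q (iq ψ a' k p) := by
  classical
  unfold iH
  simp only [Finset.mem_image, forall_exists_index, and_imp, forall_apply_eq_imp_iff₂]

theorem mem_P_iH {S : Finset ((Fin n → ℤ) × ℤ)} {y : E} :
    y ∈ P (iH ψ a' k S) ↔ ps a' k (ψ y) ∈ ZP S := by
  change (∀ h ∈ iH ψ a' k S, h.1 y ≤ h.2) ↔ _
  rw [forall_iH (Q := fun h => h.1 y ≤ h.2)]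
  exact forall₂_congr fun p _ => iq_le p y

theorem mem_I_iH {S : Finset ((Fin n → ℤ) × ℤ)} {y : E} :
    y ∈ I (iH ψ a' k S) ↔ ps a' k (ψ y) ∈ ZI S := by
  change (∀ h ∈ iH ψ a' k S, h.1 y < h.2) ↔ _
  rw [forall_iH (Q := fun h => h.1 y < h.2)]
  exact forall₂_congr fun p _ => iq_lt p y

end

/-- scaled coordinates are onto -/
theorem exists_ps (ψ : E ≃L[ℝ] (Fin n → ℝ)) (a' : Fin n → ℝ) (k : ℕ) (u : Fin n → ℝ) :
    ∃ y : E, ps a' k (ψ y) = u := by
  have hk : (2 : ℝ) ^ k ≠ 0 := by positivity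
  refine ⟨ψ.symm fun i => a' i + u i / 2 ^ k, ?_⟩
  funext i
  unfold ps
  rw [ContinuousLinearEquiv.apply_symm_apply]
  field_simp
  ring

/-! ### boxes with integer corners -/

/-- the cubes of an integer box -/
def bx (α β : Fin n → ℤ) : Set (Fin n → ℤ) := {z | ∀ l, α l ≤ z l ∧ z l < β l}

theorem bx_finite (α β : Fin n → ℤ) : (bx α β).Finite := by
  refine (Set.finite_Icc α β).subset ?_
  intro z hz
  exact ⟨fun l => (hz l).1, fun l => (hz l).2.le⟩

theorem mem_pc_bx {a : Fin n → ℝ} {k : ℕ} {α β : Fin n → ℤ} (h : ∀ l, α l < β l) {x : Fin n → ℝ} :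
    x ∈ pc a k (bx α β) ↔ ∀ l, (α l : ℝ) ≤ ps a k x l ∧ ps a k x l ≤ β l := by
  rw [mem_pc]
  constructor
  · rintro ⟨z, hz, hx⟩ l
    rw [mem_Cu] at hx
    obtain ⟨h1, h2⟩ := hz l
    obtain ⟨h3, h4⟩ := hx l
    have h1' : (α l : ℝ) ≤ z l := by exact_mod_cast h1
    have h2' : (z l : ℝ) + 1 ≤ β l := by exact_mod_cast h2
    constructor <;> linarith
  · intro hx
    refine ⟨fun l => min ⌊ps a k x l⌋ (β l - 1), fun l => ?_, ?_⟩
    · obtain ⟨h1, h2⟩ := hx l
      have h3 : α l ≤ ⌊ps a k x l⌋ := Int.le_floor.2 h1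
      have h4 := h l
      constructor
      · exact le_min h3 (by omega)
      · exact lt_of_le_of_lt (min_le_right _ _) (by omega)
    · rw [mem_Cu]
      intro l
      obtain ⟨h1, h2⟩ := hx l
      rcases le_total ⌊ps a k x l⌋ (β l - 1) with h3 | h3
      · rw [min_eq_left h3]
        exact ⟨Int.floor_le _, (Int.lt_floor_add_one _).le⟩
      · rw [min_eq_right h3]
        have h4 : ((β l - 1 : ℤ) : ℝ) ≤ ⌊ps a k x l⌋ := by exact_mod_cast h3
        push_cast at h4 ⊢
        exact ⟨h4.trans (Int.floor_le _), by linarith⟩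

/-- the frontier of an integer box -/
theorem of_mem_frontier_bx {a : Fin n → ℝ} {k : ℕ} {α β : Fin n → ℤ} (h : ∀ l, α l < β l)
    {x : Fin n → ℝ} (hx : x ∈ frontier (pc a k (bx α β))) :
    ∃ l, ps a k x l = α l ∨ ps a k x l = β l := by
  by_contra hcon
  push Not at hcon
  have h1 : x ∈ pc a k (bx α β) := (pc_compact (bx_finite α β)).isClosed.frontier_subset hx
  rw [mem_pc_bx h] at h1
  apply hx.2
  have h2 : IsOpen {y : Fin n → ℝ | ∀ l, (α l : ℝ) < ps a k y l ∧ ps a k y l < β l} := by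
    have : {y : Fin n → ℝ | ∀ l, (α l : ℝ) < ps a k y l ∧ ps a k y l < β l} =
        ⋂ l, {y | (α l : ℝ) < ps a k y l ∧ ps a k y l < β l} := by
      ext y; simp
    rw [this]
    refine isOpen_iInter_of_finite fun l => ?_
    exact (isOpen_lt continuous_const (continuous_ps a k l)).inter
      (isOpen_lt (continuous_ps a k l) continuous_const)
  refine mem_interior.2 ⟨_, ?_, h2, ?_⟩
  · intro y hy
    rw [mem_pc_bx h]
    exact fun l => ⟨(hy l).1.le, (hy l).2.le⟩
  · intro l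
    obtain ⟨h3, h4⟩ := h1 l
    obtain ⟨h5, h6⟩ := hcon l
    exact ⟨lt_of_le_of_ne h3 (Ne.symm h5), lt_of_le_of_ne h4 h6⟩

/-- a point of an integer box with an extreme coordinate is in the frontier -/
theorem mem_frontier_bx {a : Fin n → ℝ} {k : ℕ} {α β : Fin n → ℤ} (h : ∀ l, α l < β l)
    {x : Fin n → ℝ} (hx : x ∈ pc a k (bx α β)) {l : Fin n}
    (hl : ps a k x l = α l ∨ ps a k x l = β l) : x ∈ frontier (pc a k (bx α β)) := by
  refine ⟨subset_closure hx, fun hi => ?_⟩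
  have hk : (0 : ℝ) < 2 ^ k := by positivity
  obtain ⟨ε, hε, hb⟩ := Metric.isOpen_iff.1 isOpen_interior x hi
  have key : ∀ s : ℝ, |s| < ε → x + s • (Pi.single l (1 : ℝ) : Fin n → ℝ) ∈ pc a k (bx α β) := by
    intro s hs
    refine interior_subset (hb ?_)
    rw [mem_ball, dist_eq_norm]
    have e : x + s • (Pi.single l (1 : ℝ) : Fin n → ℝ) - x = s • Pi.single l (1 : ℝ) := by abel
    rw [e, norm_smul, Real.norm_eq_abs]
    have h1 : ‖(Pi.single l (1 : ℝ) : Fin n → ℝ)‖ ≤ 1 := by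
      rw [pi_norm_le_iff_of_nonneg zero_le_one]
      intro m
      by_cases h : m = l
      · subst h; simp
      · simp [Pi.single_eq_of_ne h]
    nlinarith [abs_nonneg s]
  have e : ∀ s : ℝ, ps a k (x + s • (Pi.single l (1 : ℝ) : Fin n → ℝ)) l = ps a k x l + 2 ^ k * s := by
    intro s
    unfold ps
    simp only [Pi.add_apply, Pi.smul_apply, Pi.single_eq_same, smul_eq_mul, mul_one]
    ring
  rcases hl with hl | hl
  · have h1 := ((mem_pc_bx h).1 (key (-(ε / 2)) (by rw [abs_neg, abs_of_pos (by linarith)]; linarith))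
      l).1
    rw [e, hl] at h1
    nlinarith
  · have h1 := ((mem_pc_bx h).1 (key (ε / 2) (by rw [abs_of_pos (by linarith)]; linarith)) l).2
    rw [e, hl] at h1
    nlinarith

/-- distance in one scaled coordinate -/
theorem ps_dist {a : Fin n → ℝ} {k : ℕ} {x y : Fin n → ℝ} (l : Fin n) :
    |ps a k x l - ps a k y l| ≤ 2 ^ k * dist x y := by
  have hk : (0 : ℝ) < 2 ^ k := by positivity
  have h2 : dist (x l) (y l) ≤ dist x y := dist_le_pi_dist _ _ l
  rw [Real.dist_eq] at h2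
  unfold ps
  rw [← mul_sub, abs_mul, abs_of_pos hk]
  refine mul_le_mul_of_nonneg_left ?_ hk.le
  have e : x l - a l - (y l - a l) = x l - y l := by ring
  rw [e]
  exact h2

/-- distance to the frontier of an integer box from inside -/
theorem le_infDist_bx {a : Fin n → ℝ} {k : ℕ} {α β : Fin n → ℤ} (h : ∀ l, α l < β l)
    (hne : (frontier (pc a k (bx α β))).Nonempty) {x : Fin n → ℝ} {r : ℝ}
    (hx : ∀ l, (α l : ℝ) + r ≤ ps a k x l ∧ ps a k x l ≤ β l - r) :
    r / 2 ^ k ≤ infDist x (frontier (pc a k (bx α β))) := by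
  have hk : (0 : ℝ) < 2 ^ k := by positivity
  rw [le_infDist hne]
  intro y hy
  obtain ⟨l, hl⟩ := of_mem_frontier_bx h hy
  have h1 := ps_dist (a := a) (k := k) (x := x) (y := y) l
  rw [div_le_iff₀' hk]
  obtain ⟨h2, h3⟩ := hx l
  rcases hl with hl | hl
  · rw [hl] at h1
    have := le_abs_self (ps a k x l - α l)
    linarith
  · rw [hl] at h1
    have := neg_abs_le (ps a k x l - β l)
    linarith

/-! ### the shell replaces the tiles of the enlarged box -/

namespace PS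

variable (S : PS n) (ψ : E ≃L[ℝ] (Fin n → ℝ)) (a' : Fin n → ℝ) (k : ℕ)

/-- lower corner of the enlarged box -/
def lo' : Fin n → ℤ := fun l => S.lo l - S.t

/-- upper corner of the enlarged box -/
def hi' : Fin n → ℤ := fun l => S.hi l + S.t

theorem lt' (l : Fin n) : S.lo' l < S.hi' l := by
  have := S.lt l
  have := S.t0
  unfold lo' hi'
  omega

/-- the enlarged box in `E` -/
def bp : Set E := blk ψ a' k (bx S.lo' S.hi')

theorem mem_bp {y : E} : y ∈ S.bp ψ a' k ↔ ps a' k (ψ y) ∈ S.Bp := by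
  unfold bp blk
  rw [mem_preimage, mem_pc_bx S.lt']
  unfold Bp lo' hi'
  rw [mem_ofPred_eq]
  push_cast
  rfl

theorem isCompact_bp : IsCompact (S.bp ψ a' k) := blk_compact (bx_finite _ _)

variable {Om : Set E} {ι : Type*}

theorem repl {T : Tiling Om ι} (hU : IsUn T (S.bp ψ a' k)) :
    Repl T {i | P (T.H i) ⊆ S.bp ψ a' k} (fun i : S.Ix => iH ψ a' k (S.GG i)) where
  cpt i := by
    refine (S.isCompact_bp ψ a' k).of_isClosed_subset (isClosed_P _) ?_
    intro y hy
    rw [mem_bp]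
    exact S.sub_Bp i (mem_P_iH.1 hy)
  ne i := by
    obtain ⟨u, hu⟩ := S.ne i
    obtain ⟨y, hy⟩ := exists_ps ψ a' k u
    refine ⟨y, mem_I_iH.2 ?_⟩
    rw [hy]
    exact hu
  dis i j h := by
    rw [Set.disjoint_left]
    intro y hy hy'
    exact Set.disjoint_left.1 (S.dis h) (mem_I_iH.1 hy) (mem_I_iH.1 hy')
  lf x _ := ⟨1, one_pos, Set.toFinite _⟩
  eq := by
    rw [hU.eq]
    ext y
    rw [mem_bp, ← S.iUnion_ZP]
    simp only [Set.mem_iUnion]
    exact exists_congr fun i => mem_P_iH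

end PS

/-! ### the size function of a block -/

/-- size function of a block: `C 2^-kc` deep inside, `C 2^-k` at the wall `W` -/
noncomputable def blkE (W : Set (Fin n → ℝ)) (C : ℝ) (hC : 1 < C) (kc k : ℕ) (a : Fin n → ℝ)
    (h : C ≤ 2 ^ kc) (hk : kc ≤ k) : Dat n where
  ρ x := max (C / 2 ^ k) (min (C / 2 ^ kc) (infDist x W))
  C := C
  a := a
  lip x y := by
    have h1 := infDist_le_infDist_add_dist (s := W) (x := x) (y := y)
    have h0 := dist_nonneg (x := x) (y := y)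
    refine max_le ((le_max_left _ _).trans (by linarith)) ?_
    rcases le_total (C / 2 ^ kc) (infDist y W) with h2 | h2
    · have h3 : C / 2 ^ kc ≤ max (C / 2 ^ k) (min (C / 2 ^ kc) (infDist y W)) := by
        rw [min_eq_left h2]; exact le_max_right _ _
      exact (min_le_left _ _).trans (by linarith)
    · have h3 : infDist y W ≤ max (C / 2 ^ k) (min (C / 2 ^ kc) (infDist y W)) := by
        rw [min_eq_right h2]; exact le_max_right _ _
      exact (min_le_right _ _).trans (by linarith)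
  nonneg x := (le_max_left _ _).trans' (by positivity)
  le_one x := by
    have h2 : (2 : ℝ) ^ kc ≤ 2 ^ k := pow_le_pow_right₀ (by norm_num) hk
    refine max_le ?_ ((min_le_left _ _).trans ?_)
    · rw [div_le_one (by positivity)]
      exact h.trans h2
    · rw [div_le_one (by positivity)]
      exact h
  hC := hC

section

variable {W : Set (Fin n → ℝ)} {C : ℝ} {hC : 1 < C} {kc k : ℕ} {a : Fin n → ℝ} {h : C ≤ 2 ^ kc}
  {hk : kc ≤ k}

theorem blkE_ρ (x : Fin n → ℝ) :
    (blkE W C hC kc k a h hk).ρ x = max (C / 2 ^ k) (min (C / 2 ^ kc) (infDist x W)) := rfl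

theorem blkE_C : (blkE W C hC kc k a h hk).C = C := rfl

theorem blkE_a : (blkE W C hC kc k a h hk).a = a := rfl

theorem blkE_pos (x : Fin n → ℝ) : 0 < (blkE W C hC kc k a h hk).ρ x := by
  rw [blkE_ρ]
  have h2 : 0 < C := by linarith
  exact lt_of_lt_of_le (by positivity) (le_max_left _ _)

theorem blkE_Om : (blkE W C hC kc k a h hk).Om = univ :=
  Set.eq_univ_of_forall fun x => blkE_pos x

theorem blkE_le {κ : ℕ} (hκ : κ ≤ kc) (x : Fin n → ℝ) :
    2 ^ κ * (blkE W C hC kc k a h hk).ρ x ≤ (blkE W C hC kc k a h hk).C := by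
  rw [blkE_ρ, blkE_C]
  have h2 : 0 < C := by linarith
  have h3 : (2 : ℝ) ^ κ ≤ 2 ^ kc := pow_le_pow_right₀ (by norm_num) hκ
  have h4 : (2 : ℝ) ^ kc ≤ 2 ^ k := pow_le_pow_right₀ (by norm_num) hk
  have h5 : max (C / 2 ^ k) (min (C / 2 ^ kc) (infDist x W)) ≤ C / 2 ^ kc :=
    max_le (div_le_div_of_nonneg_left h2.le (by positivity) h4) (min_le_left _ _)
  calc (2 : ℝ) ^ κ * max (C / 2 ^ k) (min (C / 2 ^ kc) (infDist x W)) ≤ 2 ^ κ * (C / 2 ^ kc) :=
        mul_le_mul_of_nonneg_left h5 (by positivity)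
    _ ≤ 2 ^ kc * (C / 2 ^ kc) := mul_le_mul_of_nonneg_right h3 (by positivity)
    _ = C := by field_simp

theorem blkE_kc_le (x : Fin n → ℝ) : kc ≤ K (blkE W C hC kc k a h hk) x :=
  le_K_of (blkE_pos x) (blkE_le le_rfl x)

theorem blkE_K_le (x : Fin n → ℝ) : K (blkE W C hC kc k a h hk) x ≤ k :=
  K_le_of fun y _ => by
    rw [blkE_ρ, blkE_C]
    have h2 : 0 < C := by linarith
    calc C = 2 ^ k * (C / 2 ^ k) := by field_simp
      _ ≤ _ := mul_le_mul_of_nonneg_left (le_max_left _ _) (by positivity)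

/-- deep inside the scale is exactly `kc` -/
theorem blkE_K_deep {x : Fin n → ℝ} (hx : (C + 1) / 2 ^ kc ≤ infDist x W) :
    K (blkE W C hC kc k a h hk) x = kc := by
  have h2 : 0 < C := by linarith
  have hp : (0 : ℝ) < 2 ^ kc := by positivity
  refine le_antisymm (K_le_of ?_) (blkE_kc_le x)
  intro y hy
  rw [blkE_ρ, blkE_C]
  have h3 := infDist_le_infDist_add_dist (s := W) (x := x) (y := y)
  have h4 : (C + 1) / 2 ^ kc = C / 2 ^ kc + (2 ^ kc)⁻¹ := by
    rw [add_div, one_div]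
  have h5 : C / 2 ^ kc ≤ max (C / 2 ^ k) (min (C / 2 ^ kc) (infDist y W)) := by
    refine (le_min le_rfl ?_).trans (le_max_right _ _)
    linarith
  calc C = 2 ^ kc * (C / 2 ^ kc) := by field_simp
    _ ≤ _ := mul_le_mul_of_nonneg_left h5 (by positivity)

/-- at the wall the scale is exactly `k` -/
theorem blkE_K_wall {x : Fin n → ℝ} (hx : infDist x W < 2 * C / 2 ^ k) :
    K (blkE W C hC kc k a h hk) x = k := by
  have h2 : 0 < C := by linarith
  refine le_antisymm (blkE_K_le x) ?_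
  by_contra hcon
  push Not at hcon
  have h3 := K_lower (blkE_pos (W := W) (hC := hC) (a := a) (h := h) (hk := hk) x)
  rw [blkE_ρ, blkE_C] at h3
  set κ := K (blkE W C hC kc k a h hk) x with hκ
  have h4 : (2 : ℝ) * 2 ^ κ ≤ 2 ^ k := by
    rw [← pow_succ']
    exact pow_le_pow_right₀ (by norm_num) hcon
  have h5 : max (C / 2 ^ k) (min (C / 2 ^ kc) (infDist x W)) < 2 * C / 2 ^ k := by
    refine max_lt ?_ (lt_of_le_of_lt (min_le_right _ _) hx)
    rw [div_lt_div_iff_of_pos_right (by positivity)]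
    linarith
  have h6 : (2 : ℝ) ^ κ * max (C / 2 ^ k) (min (C / 2 ^ kc) (infDist x W)) < C := by
    calc (2 : ℝ) ^ κ * max (C / 2 ^ k) (min (C / 2 ^ kc) (infDist x W)) <
          2 ^ κ * (2 * C / 2 ^ k) := mul_lt_mul_of_pos_left h5 (by positivity)
      _ = C * (2 * 2 ^ κ) / 2 ^ k := by ring
      _ ≤ C * 2 ^ k / 2 ^ k := by gcongr
      _ = C := by field_simp
  linarith

end

/-- **two blocks which differ only in the wall scale have the same coarse scales** -/
theorem blkE_K_min {W : Set (Fin n → ℝ)} {C : ℝ} {hC : 1 < C} {kc k k0 : ℕ} {a : Fin n → ℝ}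
    {h : C ≤ 2 ^ kc} {hk : kc ≤ k} {hk0 : kc ≤ k0} (hkk : k0 ≤ k) (x : Fin n → ℝ) :
    K (blkE W C hC kc k0 a h hk0) x = min (K (blkE W C hC kc k a h hk) x) k0 := by
  have hC0 : 0 < C := by linarith
  -- below `k0` the two conditions agree
  have key : ∀ κ, κ < k0 → (K (blkE W C hC kc k0 a h hk0) x ≤ κ ↔
      K (blkE W C hC kc k a h hk) x ≤ κ) := by
    intro κ hκ
    rw [K_le_iff (blkE_pos x), K_le_iff (blkE_pos x)]
    have hadm : ∀ y, (C ≤ 2 ^ κ * max (C / 2 ^ k0) (min (C / 2 ^ kc) (infDist y W)) ↔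
        C ≤ 2 ^ κ * max (C / 2 ^ k) (min (C / 2 ^ kc) (infDist y W))) := by
      intro y
      have small : ∀ k', κ < k' → (2 : ℝ) ^ κ * (C / 2 ^ k') < C := by
        intro k' hk'
        have h1 : (2 : ℝ) ^ κ < 2 ^ k' := pow_lt_pow_right₀ (by norm_num) hk'
        have h2 : (0 : ℝ) < 2 ^ k' := by positivity
        rw [← mul_div_assoc, div_lt_iff₀ h2, mul_comm C]
        exact mul_lt_mul_of_pos_right h1 hC0
      have gen : ∀ k', κ < k' → (C ≤ 2 ^ κ * max (C / 2 ^ k') (min (C / 2 ^ kc) (infDist y W)) ↔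
          C ≤ 2 ^ κ * min (C / 2 ^ kc) (infDist y W)) := by
        intro k' hk'
        have h1 := small k' hk'
        rcases le_total (C / 2 ^ k') (min (C / 2 ^ kc) (infDist y W)) with h2 | h2
        · rw [max_eq_right h2]
        · rw [max_eq_left h2]
          constructor
          · intro h3
            linarith
          · intro h3
            have : (2 : ℝ) ^ κ * min (C / 2 ^ kc) (infDist y W) ≤ 2 ^ κ * (C / 2 ^ k') :=
              mul_le_mul_of_nonneg_left h2 (by positivity)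
            linarith
      rw [gen k0 hκ, gen k (lt_of_lt_of_le hκ hkk)]
    constructor
    · intro h1 z hz y hy
      exact (hadm y).1 (h1 z hz y hy)
    · intro h1 z hz y hy
      exact (hadm y).2 (h1 z hz y hy)
  have h1 := blkE_K_le (W := W) (hC := hC) (a := a) (h := h) (hk := hk0) x
  apply le_antisymm
  · refine le_min ?_ h1
    by_contra hcon
    push Not at hcon
    have h2 := (key _ (lt_of_lt_of_le hcon h1)).2 le_rfl
    omega
  · rcases h1.lt_or_eq with h2 | h2
    · exact (min_le_left _ _).trans ((key _ h2).1 le_rfl)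
    · rw [h2]
      exact min_le_right _ _

end Crest.Agent.R096.Mal_874
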