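import Crest.Agent.R096.Mal11_874

/-!
# Row 96, library (MESH-AL), part 12: the tiling of a core block
-/

set_option autoImplicit false

open Set Filter Topology Metric

namespace Crest.Agent.R096.Mal_874

open Msh_715 Cut_874 Msh_810

variable {n : ℕ} {E : Type*} [NormedAddCommGroup E] [NormedSpace ℝ E]

/-! ### integer vectors -/

/-- the integer vectors with entries of absolute value at most `B` -/
noncomputable def NB (n : ℕ) (B : ℕ) : Finset (Fin n → ℝ) := by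
  classical
  exact (Fintype.piFinset fun _ : Fin n => Finset.Icc (-(B : ℤ)) B).image rv

theorem rv_mem_NB {B : ℕ} {ν : Fin n → ℤ} (h : ∀ l, |ν l| ≤ B) : rv ν ∈ NB n B := by
  classical
  unfold NB
  refine Finset.mem_image_of_mem _ ?_
  rw [Fintype.mem_piFinset]
  intro l
  rw [Finset.mem_Icc]
  exact abs_le.1 (h l)

theorem NB_rat (B : ℕ) {d : ℕ} (hd : 0 < d) : ∀ ν ∈ NB n B, ∀ m, ∃ c : ℤ, ν m = c / d := by
  classical
  intro ν hν m
  unfold NB at hν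
  obtain ⟨μ, -, rfl⟩ := Finset.mem_image.1 hν
  have hd' : (d : ℝ) ≠ 0 := by exact_mod_cast hd.ne'
  refine ⟨μ m * d, ?_⟩
  unfold rv
  push_cast
  field_simp

theorem rv_ez (l : Fin n) : rv (ez l) = (Pi.single l (1 : ℝ) : Fin n → ℝ) := by
  funext m
  unfold rv ez
  by_cases h : m = l
  · subst h; simp
  · simp [Pi.single_eq_of_ne h]

theorem N0_sub_NB {B : ℕ} (hB : 1 ≤ B) : N0 n ⊆ NB n B := by
  classical
  intro ν hν
  have hB' : (1 : ℤ) ≤ B := by exact_mod_cast hB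
  have key : ∀ l m : Fin n, |ez l m| ≤ (B : ℤ) := by
    intro l m
    unfold ez
    by_cases h : m = l
    · subst h; simpa using hB'
    · rw [Pi.single_eq_of_ne h, abs_zero]; omega
  unfold N0 at hν
  rcases Finset.mem_union.1 hν with h | h
  · obtain ⟨l, -, rfl⟩ := Finset.mem_image.1 h
    rw [← rv_ez]
    exact rv_mem_NB (key l)
  · obtain ⟨l, -, rfl⟩ := Finset.mem_image.1 h
    have e : (fun m => -(Pi.single l (1 : ℝ) : Fin n → ℝ) m) = rv (-ez l) := by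
      rw [← rv_ez]
      funext m
      simp [rv]
    rw [e]
    refine rv_mem_NB fun m => ?_
    rw [Pi.neg_apply, abs_neg]
    exact key l m

theorem chi_eq_ps (ψ : E ≃L[ℝ] (Fin n → ℝ)) (a' : Fin n → ℝ) (k : ℕ) (y : E) :
    (chi ψ a' k y : Fin n → ℝ) = ps a' k (ψ y) := by
  funext m
  rw [chi_apply]
  rfl

/-- integer inequalities are in good form -/
theorem gf_iq {ψ : E ≃L[ℝ] (Fin n → ℝ)} {a' : Fin n → ℝ} {k : ℕ} {B : ℕ} {p : (Fin n → ℤ) × ℤ}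
    (hp : ∀ l, |p.1 l| ≤ B) :
    ∃ ν, ∃ t : ℤ, GF (chi ψ a' k) (2 ^ k) (NB n B) 1 (iq ψ a' k p) ν t := by
  refine ⟨rv p.1, p.2, rv_mem_NB hp, fun y => ?_⟩
  rw [iq_eq, chi_eq_ps]
  simp

/-! ### core blocks -/

/-- data of a core block: frame, scale of the cells at the core, prism shell, margin -/
structure CB (E : Type*) [NormedAddCommGroup E] [NormedSpace ℝ E] (n : ℕ) where
  ψ : E ≃L[ℝ] (Fin n → ℝ)
  a' : Fin n → ℝ
  kc : ℕ
  S : PS n
  w : ℤ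
  hkc : 3 ≤ kc
  hw : S.t + 10 ≤ w

namespace CB

variable (Q : CB E n)

/-- lower corner of the block -/
def al : Fin n → ℤ := fun l => Q.S.lo l - Q.w

/-- upper corner of the block -/
def be : Fin n → ℤ := fun l => Q.S.hi l + Q.w

theorem w_real : (Q.S.t : ℝ) + 10 ≤ Q.w := by exact_mod_cast Q.hw

theorem al_lt (l : Fin n) : Q.al l < Q.be l := by
  have h1 := Q.S.lt l
  have h2 := Q.S.t0
  have h3 := Q.hw
  unfold al be
  omega

/-- the block -/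
def N : Set E := blk Q.ψ Q.a' Q.kc (bx Q.al Q.be)

/-- the wall of the block in the coordinates of the frame -/
def W : Set (Fin n → ℝ) := frontier (pc Q.a' Q.kc (bx Q.al Q.be))

theorem mem_N {y : E} : y ∈ Q.N ↔
    ∀ l, (Q.S.lo l - Q.w : ℝ) ≤ ps Q.a' Q.kc (Q.ψ y) l ∧
      ps Q.a' Q.kc (Q.ψ y) l ≤ Q.S.hi l + Q.w := by
  unfold N blk
  rw [mem_preimage, mem_pc_bx Q.al_lt]
  unfold al be
  push_cast
  rfl

theorem frontier_N : frontier Q.N = Q.ψ ⁻¹' Q.W :=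
  (Q.ψ.toHomeomorph.preimage_frontier _).symm

theorem isCompact_N : IsCompact Q.N := blk_compact (bx_finite _ _)

theorem frontier_sub : frontier Q.N ⊆ Q.N := Q.isCompact_N.isClosed.frontier_subset

theorem W_ne [NeZero n] : Q.W.Nonempty := by
  have hk : (2 : ℝ) ^ Q.kc ≠ 0 := by positivity
  have e : ∀ l, ps Q.a' Q.kc (fun l => Q.a' l + Q.al l / 2 ^ Q.kc) l = Q.al l := by
    intro l
    unfold ps
    field_simp
    ring
  refine ⟨_, mem_frontier_bx Q.al_lt (x := fun l => Q.a' l + Q.al l / 2 ^ Q.kc) ?_ (l := 0)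
    (Or.inl (e 0))⟩
  rw [mem_pc_bx Q.al_lt]
  intro l
  rw [e l]
  have h : (Q.al l : ℝ) < Q.be l := by exact_mod_cast Q.al_lt l
  exact ⟨le_rfl, h.le⟩

theorem six_le : (6 : ℝ) ≤ 2 ^ Q.kc := by
  have h : (2 : ℝ) ^ 3 ≤ 2 ^ Q.kc := pow_le_pow_right₀ (by norm_num) Q.hkc
  linarith

/-- size function of the block -/
noncomputable def D (k : ℕ) (hk : Q.kc ≤ k) : Dat n :=
  blkE Q.W 6 (by norm_num) Q.kc k Q.a' Q.six_le hk

variable (k : ℕ) (hk : Q.kc ≤ k)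

theorem D_Om : (Q.D k hk).Om = univ := blkE_Om

/-- the graded cubes -/
noncomputable def T0 : Tiling (Q.ψ ⁻¹' (Q.D k hk).Om) (Top (Q.D k hk)) := tiling Q.ψ (Q.D k hk)

theorem un_bp : IsUn (Q.T0 k hk) (Q.S.bp Q.ψ Q.a' Q.kc) :=
  isUn_tiling (D := Q.D k hk) (by rw [D_Om]; exact subset_univ _)
    (fun x => blkE_le (le_refl Q.kc) x)

theorem un_N0 : IsUn (Q.T0 k hk) Q.N :=
  isUn_tiling (D := Q.D k hk) (by rw [D_Om]; exact subset_univ _)
    (fun x => blkE_le (le_refl Q.kc) x)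

/-- **the tiling of the block**: graded cubes, prism shell, core -/
noncomputable def T : Tiling (Q.ψ ⁻¹' (Q.D k hk).Om)
    ({i // i ∉ {i | P ((Q.T0 k hk).H i) ⊆ Q.S.bp Q.ψ Q.a' Q.kc}} ⊕ Q.S.Ix) :=
  patch (Q.T0 k hk) _ _ (Q.S.repl Q.ψ Q.a' Q.kc (Q.un_bp k hk))

theorem T_inl (i : {i // i ∉ {i | P ((Q.T0 k hk).H i) ⊆ Q.S.bp Q.ψ Q.a' Q.kc}}) :
    (Q.T k hk).H (Sum.inl i) = (Q.T0 k hk).H i.1 := rfl

theorem T_inr (i : Q.S.Ix) : (Q.T k hk).H (Sum.inr i) = iH Q.ψ Q.a' Q.kc (Q.S.GG i) := rfl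

theorem P_inr_sub (i : Q.S.Ix) : P ((Q.T k hk).H (Sum.inr i)) ⊆ Q.S.bp Q.ψ Q.a' Q.kc := by
  intro y hy
  rw [T_inr, mem_P_iH] at hy
  rw [PS.mem_bp]
  exact Q.S.sub_Bp i hy

theorem bp_sub_N : Q.S.bp Q.ψ Q.a' Q.kc ⊆ Q.N := by
  intro y hy
  rw [PS.mem_bp] at hy
  rw [mem_N]
  intro l
  have h := hy l
  have hw := Q.w_real
  constructor <;> linarith [h.1, h.2]

theorem un_N : IsUn (Q.T k hk) Q.N :=
  IsUn.patch (Q.un_N0 k hk) fun i _ => (Q.P_inr_sub k hk i).trans Q.bp_sub_N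

/-- the core as a set -/
def Kc : Set E := {y | ps Q.a' Q.kc (Q.ψ y) ∈ Q.S.B0}

/-- the tile of the core -/
noncomputable def cix : {i // i ∉ {i | P ((Q.T0 k hk).H i) ⊆ Q.S.bp Q.ψ Q.a' Q.kc}} ⊕ Q.S.Ix :=
  Sum.inr Q.S.core

/-- **the core is one tile** -/
theorem P_core : P ((Q.T k hk).H (Q.cix k hk)) = Q.Kc := by
  ext y
  unfold cix
  rw [T_inr, mem_P_iH, Q.S.ZP_core]
  rfl

/-! #### scales -/

/-- `y` is at most `r` cells away from the enlarged box -/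
def near (r : ℝ) (y : E) : Prop := ∀ l, (Q.S.lo l - Q.S.t - r : ℝ) ≤ ps Q.a' Q.kc (Q.ψ y) l ∧
  ps Q.a' Q.kc (Q.ψ y) l ≤ Q.S.hi l + Q.S.t + r

theorem near_of_bp {y : E} (hy : y ∈ Q.S.bp Q.ψ Q.a' Q.kc) : Q.near 0 y := by
  rw [PS.mem_bp] at hy
  intro l
  have h := hy l
  constructor <;> linarith [h.1, h.2]

theorem near_infDist [NeZero n] {y : E} (hy : Q.near 2 y) : (6 + 1) / 2 ^ Q.kc ≤ infDist (Q.ψ y) Q.W := by
  have hp : (0 : ℝ) < 2 ^ Q.kc := by positivity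
  have hw := Q.w_real
  refine le_trans ?_ (le_infDist_bx (r := Q.w - Q.S.t - 2) Q.al_lt Q.W_ne ?_)
  · rw [div_le_div_iff_of_pos_right hp]
    linarith
  · intro l
    have h := hy l
    unfold al be
    push_cast
    constructor <;> linarith [h.1, h.2]

theorem near_K [NeZero n] {y : E} (hy : Q.near 1 y) : ∀ᶠ x in 𝓝 (Q.ψ y), K (Q.D k hk) x = Q.kc := by
  have h1 : IsOpen {x : Fin n → ℝ | ∀ l, (Q.S.lo l - Q.S.t - 2 : ℝ) < ps Q.a' Q.kc x l ∧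
      ps Q.a' Q.kc x l < Q.S.hi l + Q.S.t + 2} := by
    have : {x : Fin n → ℝ | ∀ l, (Q.S.lo l - Q.S.t - 2 : ℝ) < ps Q.a' Q.kc x l ∧
        ps Q.a' Q.kc x l < Q.S.hi l + Q.S.t + 2} =
        ⋂ l, {x | (Q.S.lo l - Q.S.t - 2 : ℝ) < ps Q.a' Q.kc x l ∧
          ps Q.a' Q.kc x l < Q.S.hi l + Q.S.t + 2} := by
      ext y; simp
    rw [this]
    refine isOpen_iInter_of_finite fun l => ?_
    exact (isOpen_lt continuous_const (continuous_ps _ _ l)).inter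
      (isOpen_lt (continuous_ps _ _ l) continuous_const)
  have h2 : Q.ψ y ∈ {x : Fin n → ℝ | ∀ l, (Q.S.lo l - Q.S.t - 2 : ℝ) < ps Q.a' Q.kc x l ∧
      ps Q.a' Q.kc x l < Q.S.hi l + Q.S.t + 2} := by
    intro l
    have h := hy l
    constructor <;> linarith [h.1, h.2]
  filter_upwards [h1.mem_nhds h2] with x hx
  have hx' : Q.near 2 (Q.ψ.symm x) := by
    intro l
    rw [ContinuousLinearEquiv.apply_symm_apply]
    have h := hx l
    exact ⟨h.1.le, h.2.le⟩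
  have h3 := Q.near_infDist hx'
  rw [ContinuousLinearEquiv.apply_symm_apply] at h3
  exact blkE_K_deep h3

theorem tile_T0 {τ : Top (Q.D k hk)} {y : E} :
    y ∈ P ((Q.T0 k hk).H τ) ↔ Q.ψ y ∈ Cu Q.a' τ.1.1.k τ.1.1.z := by
  have h := P_Hc Q.ψ Q.a' τ.1.1.k τ.1.1.z
  change y ∈ P (Hc Q.ψ Q.a' τ.1.1.k τ.1.1.z) ↔ _
  rw [h]
  rfl

theorem kc_le {τ : Top (Q.D k hk)} : Q.kc ≤ τ.1.1.k := by
  obtain ⟨x, hx, hx0, hxK⟩ := τ.1.2
  rw [← hxK]
  exact blkE_kc_le x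

theorem le_k {τ : Top (Q.D k hk)} : τ.1.1.k ≤ k := by
  obtain ⟨x, hx, hx0, hxK⟩ := τ.1.2
  rw [← hxK]
  exact blkE_K_le x

/-- size of the cubes in scaled coordinates -/
theorem tile_size {τ : Top (Q.D k hk)} {x y : E} (hx : x ∈ P ((Q.T0 k hk).H τ))
    (hy : y ∈ P ((Q.T0 k hk).H τ)) (l : Fin n) :
    |ps Q.a' Q.kc (Q.ψ x) l - ps Q.a' Q.kc (Q.ψ y) l| ≤ 1 := by
  have h1 := size_tile (φ := Q.ψ) (k := Q.kc) ((Q.tile_T0 k hk).1 hy) ((Q.tile_T0 k hk).1 hx) l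
  rw [chi_eq_ps, chi_eq_ps] at h1
  refine h1.trans ?_
  rw [div_le_one (by positivity)]
  exact pow_le_pow_right₀ (by norm_num) (Q.kc_le k hk)

theorem near_tile {r : ℝ} {τ : Top (Q.D k hk)} {x y : E} (hx : x ∈ P ((Q.T0 k hk).H τ))
    (hy : y ∈ P ((Q.T0 k hk).H τ)) (h : Q.near r x) : Q.near (r + 1) y := by
  intro l
  have h1 := abs_le.1 (Q.tile_size k hk hx hy l)
  have h2 := h l
  constructor <;> linarith [h1.1, h1.2, h2.1, h2.2]

/-- the scale of a cube at a point near the enlarged box -/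
theorem near_k [NeZero n] {τ : Top (Q.D k hk)} {y : E} (hy : y ∈ P ((Q.T0 k hk).H τ))
    (h : Q.near 1 y) : τ.1.1.k = Q.kc :=
  tile_k_eq (φ := Q.ψ) (D := Q.D k hk) (x := y) hy (Q.near_K k hk h)

/-- the scale of a cube at a point near the wall -/
theorem wall_k {τ : Top (Q.D k hk)} {y : E} (hy : y ∈ P ((Q.T0 k hk).H τ))
    (h : infDist (Q.ψ y) Q.W < 12 / 2 ^ k) : τ.1.1.k = k := by
  refine tile_k_eq (φ := Q.ψ) (D := Q.D k hk) (x := y) hy ?_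
  have h1 : IsOpen {x : Fin n → ℝ | infDist x Q.W < 12 / 2 ^ k} :=
    isOpen_lt (continuous_infDist_pt _) continuous_const
  filter_upwards [h1.mem_nhds h] with x hx
  refine blkE_K_wall (lt_of_lt_of_eq (show infDist x Q.W < 12 / 2 ^ k from hx) ?_)
  norm_num

/-! #### configurations -/

/-- a cube which does not meet the enlarged box has the configuration of the graded mesh -/
theorem cfg_far {i : {i // i ∉ {i | P ((Q.T0 k hk).H i) ⊆ Q.S.bp Q.ψ Q.a' Q.kc}}}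
    (h : Disjoint (P ((Q.T0 k hk).H i.1)) (Q.S.bp Q.ψ Q.a' Q.kc)) :
    cfg (Q.T k hk) (Sum.inl i) = cfg (Q.T0 k hk) i.1 :=
  cfg_congr rfl fun x hx =>
    (patch_off (R := Q.S.repl Q.ψ Q.a' Q.kc (Q.un_bp k hk)) fun _ hj hA =>
      Set.disjoint_left.1 h hx (hA hj)).1

/-- all inequalities at the tiles which meet the enlarged box are in good form -/
theorem near_good [NeZero n] {B : ℕ} (hB1 : 1 ≤ B) (hB : ∀ i, ∀ p ∈ Q.S.GG i, ∀ l, |p.1 l| ≤ B)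
    {t s} (ht : (P ((Q.T k hk).H t) ∩ Q.S.bp Q.ψ Q.a' Q.kc).Nonempty)
    (hs : (P ((Q.T k hk).H s) ∩ P ((Q.T k hk).H t)).Nonempty) :
    ∀ h ∈ (Q.T k hk).H s, ∃ ν, ∃ c : ℤ, GF (chi Q.ψ Q.a' Q.kc) (2 ^ Q.kc) (NB n B) 1 h ν c := by
  rcases s with s | s
  · obtain ⟨y, hy1, hy2⟩ := hs
    have hy : Q.near 1 y := by
      rcases t with t | t
      · obtain ⟨x, hx1, hx2⟩ := ht
        have := Q.near_tile k hk hx1 hy2 (Q.near_of_bp hx2)
        rwa [zero_add] at this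
      · have := Q.near_of_bp (Q.P_inr_sub k hk t hy2)
        intro l
        have h := this l
        constructor <;> linarith [h.1, h.2]
    have hk' : s.1.1.1.k = Q.kc := Q.near_k k hk hy1 hy
    exact gf_cube one_pos (fr_self Q.ψ Q.a' _ (N0_sub_NB hB1) 1) hk'.le _
  · rw [T_inr]
    rw [forall_iH (Q := fun h => ∃ ν, ∃ c : ℤ,
      GF (chi Q.ψ Q.a' Q.kc) (2 ^ Q.kc) (NB n B) 1 h ν c)]
    exact fun p hp => gf_iq (hB s p hp)

/-- **the tiles at the enlarged box (except the core) are in the universal list** -/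
theorem near_sim [NeZero n] {B : ℕ} (hB1 : 1 ≤ B) (hB : ∀ i, ∀ p ∈ Q.S.GG i, ∀ l, |p.1 l| ≤ B)
    {R : ℝ} (hR1 : 1 ≤ R) (hR : ∀ i, i ≠ Q.S.core → ∀ u ∈ ZP (Q.S.GG i), ∀ v ∈ ZP (Q.S.GG i), ∀ l,
      |v l - u l| ≤ R) {t} (ht : (P ((Q.T k hk).H t) ∩ Q.S.bp Q.ψ Q.a' Q.kc).Nonempty)
    (hc : t ≠ Q.cix k hk) :
    ∃ z : Fin n → ℤ, (fun K => ((chi Q.ψ Q.a' Q.kc).trans (trz z)) '' K) '' cfg (Q.T k hk) t ∈
      simL (NB n B) 1 R := by
  refine sim_tile (s := 2 ^ Q.kc) (by positivity) one_pos (NB_rat B one_pos)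
    (fun s hs => Q.near_good k hk hB1 hB ht hs) ?_
  intro x hx y hy m
  rw [chi_eq_ps, chi_eq_ps]
  rcases t with t | t
  · exact (Q.tile_size k hk hy hx m).trans hR1
  · rw [T_inr, mem_P_iH] at hx hy
    exact hR t (fun h => hc (by rw [h]; rfl)) _ hx _ hy m

/-- a tile which meets the wall is a cube of scale `k`, and so are its neighbours -/
theorem wall_tile [NeZero n] {t s} (ht : (P ((Q.T k hk).H t) ∩ frontier Q.N).Nonempty)
    (hs : (P ((Q.T k hk).H s) ∩ P ((Q.T k hk).H t)).Nonempty) :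
    ∃ τ, s = Sum.inl τ ∧ τ.1.1.1.k = k := by
  have hp : (0 : ℝ) < 1 / 2 ^ k := by positivity
  have hpc : (0 : ℝ) < 1 / 2 ^ Q.kc := by positivity
  have hkk : (1 : ℝ) / 2 ^ k ≤ 1 / 2 ^ Q.kc :=
    one_div_le_one_div_of_le (by positivity) (pow_le_pow_right₀ (by norm_num) hk)
  have hbp : ∀ y ∈ Q.S.bp Q.ψ Q.a' Q.kc, 7 * (1 / 2 ^ Q.kc) ≤ infDist (Q.ψ y) Q.W := by
    intro y hy
    have h1 := Q.near_infDist (y := y) (fun l => by
      have h := Q.near_of_bp hy l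
      constructor <;> linarith [h.1, h.2])
    have e : ((6 : ℝ) + 1) / 2 ^ Q.kc = 7 * (1 / 2 ^ Q.kc) := by ring
    rw [← e]
    exact h1
  have e12 : (12 : ℝ) / 2 ^ k = 12 * (1 / 2 ^ k) := by ring
  -- the tile `t`
  obtain ⟨x, hx1, hx2⟩ := ht
  rw [frontier_N] at hx2
  have hx0 : infDist (Q.ψ x) Q.W = 0 := infDist_zero_of_mem hx2
  rcases t with t | t
  swap
  · have := hbp x (Q.P_inr_sub k hk t hx1)
    linarith
  have htk : t.1.1.1.k = k := Q.wall_k k hk hx1 (by rw [hx0, e12]; linarith)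
  obtain ⟨y, hy1, hy2⟩ := hs
  have hxy : infDist (Q.ψ y) Q.W ≤ 1 / 2 ^ k := by
    have h1 := infDist_le_infDist_add_dist (s := Q.W) (x := Q.ψ y) (y := Q.ψ x)
    have h2 := dist_le_of_mem_Cu ((Q.tile_T0 k hk).1 hy2) ((Q.tile_T0 k hk).1 hx1)
    rw [htk] at h2
    have hp' : (0 : ℝ) < 2 ^ k := by positivity
    have h3 : dist (Q.ψ y) (Q.ψ x) ≤ 1 / 2 ^ k := by
      rw [le_div_iff₀' hp']
      exact h2
    linarith
  rcases s with s | s
  · exact ⟨s, rfl, Q.wall_k k hk hy1 (by rw [e12]; linarith)⟩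
  · have := hbp y (Q.P_inr_sub k hk s hy1)
    linarith

/-- **same coarse cubes**: a cube of the mesh `k` of scale at most `k0 ≤ k` is a cube of the mesh
`k0` -/
theorem same_coarse {k0 : ℕ} (hk0 : Q.kc ≤ k0) (hkk : k0 ≤ k) (τ : Top (Q.D k hk))
    (h : τ.1.1.k ≤ k0) : ∃ τ' : Top (Q.D k0 hk0), τ'.1.1 = τ.1.1 := by
  obtain ⟨⟨i, x, hx, hx0, hxK⟩, hJ⟩ := τ
  refine ⟨⟨⟨i, x, hx, blkE_pos x, ?_⟩, hJ⟩, rfl⟩
  have h1 := blkE_K_min (W := Q.W) (hC := by norm_num) (a := Q.a') (h := Q.six_le) (hk := hk)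
    (hk0 := hk0) hkk x
  have h2 : K (Q.D k hk) x = i.k := hxK
  have h3 : K (Q.D k0 hk0) x = min (K (Q.D k hk) x) k0 := h1
  have h4 : i.k ≤ k0 := h
  rw [h2, min_eq_left h4] at h3
  exact h3

end CB

end Crest.Agent.R096.Mal_874
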